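import Crest.Agent.R136.Net2_191
import Crest.Agent.R138.MkRef_627
import Crest.Agent.R138.ArgM1_163

/-!
# R136, L15, record closeness (helper650), part 1: chart-free half

`gR_of` : if every incidence of a marked class is close to one pseudo-incidence (the centre of the
mark), with the exponents `r u` of the record path, then two incidences of the class are close to
each other (field `gR` of `Lq196.PreQ`).  The chart lives on a type `Φ` of pseudo-incidences.
-/

set_option autoImplicit false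
set_option linter.unusedVariables false

open Finset Filter Topology

namespace Crest.Agent.R136.GR650

open Crest.Agent.R138.Ex926 (Base U)
open Crest.Agent.R138.Mk163 (zc zl rho alive)
open Crest.Agent.R138.MkRef627 (lc kc)
open Crest.Agent.R138.Dp76 (dpow_pos dpow_add dpow_le dpow_le_one)
open Crest.Agent.R138.ArgM163 (ev_const)
open Crest.Agent.R136.Net191

variable {m : ℕ}

/-- relaxed exponents: still legal, close to `r`, and dominated by the given bound -/
theorem relax {B : Base} {M : Mons m} {r : Fin m → ℝ} (hr : Legal M r) {δ : ℝ} (hδ : 0 < δ)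
    (hpos : ∀ k, δ ≤ r k) {ε : ℝ} (hε : 0 < ε) :
    ∃ η : ℝ, 0 < η ∧ Legal M (lowp M η r) ∧ (∀ k, r k - ε ≤ lowp M η r k) ∧
      ∀ n k, B.d n ^ (r k - η) ≤ B.d n ^ (lowp M η r k) := by
  classical
  set W : ℝ := 1 + ∑ k, wg M k with hW
  have hw : ∀ k, wg M k ≤ W := by
    intro k
    have := Finset.single_le_sum (f := wg M) (fun i _ => by linarith [wg_one M i])
      (Finset.mem_univ k)
    linarith
  have hW1 : 0 < W := by
    have : 0 ≤ ∑ k, wg M k := Finset.sum_nonneg fun i _ => by linarith [wg_one M i]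
    linarith
  set η : ℝ := min ε δ / W with hη
  have hη0 : 0 < η := div_pos (lt_min hε hδ) hW1
  have hwη : ∀ k, wg M k * η ≤ min ε δ := by
    intro k
    calc wg M k * η ≤ W * η := mul_le_mul_of_nonneg_right (hw k) hη0.le
      _ = min ε δ := by rw [hη]; field_simp
  obtain ⟨R, hR0, hR⟩ : ∃ R : ℝ, 0 ≤ R ∧ ∀ k, r k ≤ R := by
    refine ⟨∑ k, r k, Finset.sum_nonneg fun k _ => hr.nonneg k, fun k => ?_⟩
    exact Finset.single_le_sum (f := r) (fun i _ => hr.nonneg i) (Finset.mem_univ k)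
  have hl : ∀ k, lowp M η r k = r k - wg M k * η := by
    intro k
    have h1 : 0 ≤ r k - wg M k * η := by
      have := (hwη k).trans (min_le_right _ _)
      linarith [hpos k]
    exact max_eq_left h1
  refine ⟨η, hη0, (lowp_mem (M := M) hR0 hη0.le ⟨hr, hR⟩).1, fun k => ?_, fun n k => ?_⟩
  · rw [hl]
    linarith [(hwη k).trans (min_le_left _ _)]
  · rw [hl]
    refine dpow_le B n ?_
    have : η ≤ wg M k * η := le_mul_of_one_le_left hη0.le (wg_one M k)
    linarith

/-- **record closeness, chart-free half.** -/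
theorem gR_of {Φ : Type*} {B : Base} {I : ℕ → Finset (ℕ × ℝ)} {cF : ℕ → Φ → Φ → Fin m → ℝ}
    {M : Mons m} {C : ℝ} (hch : ∀ (n : ℕ) (J : Finset Φ), Chart J (cF n) M C)
    {inc : ℕ → ℕ × ℝ → Φ} {lev : ℕ → ℚ → ℕ} {f : ℕ → ℚ → ℕ → ℤ → ℕ}
    {cen : ℕ → ℚ → ℕ × ℤ → Φ} {u : ℚ} {r : Fin m → ℝ} (hr : Legal M r) {δ : ℝ} (hδ : 0 < δ)
    (hpos : ∀ k, δ ≤ r k)
    (hS : ∀ ε : ℝ, 0 < ε → ∀ᶠ n in (U : Filter ℕ), ∀ x ∈ I n, ∀ k,
      |cF n (cen n u (kc (lev n u) (f n u) x)) (inc n x) k| ≤ B.d n ^ (r k - ε))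
    {ε : ℝ} (hε : 0 < ε) :
    ∀ᶠ n in (U : Filter ℕ), ∀ x ∈ I n, ∀ y ∈ I n,
      kc (lev n u) (f n u) y = kc (lev n u) (f n u) x →
        ∀ k, |cF n (inc n x) (inc n y) k| ≤ B.d n ^ (r k - ε) := by
  classical
  obtain ⟨η, hη, hleg, hlow, hdom⟩ := relax (B := B) hr hδ hpos (half_pos hε)
  have hC0 : 0 ≤ C := (hch 0 ∅).C0
  set K : ℝ := triC M C (symC M C 1 m) with hK
  have hs1 : 1 ≤ symC M C 1 m := symC_ge M hC0 le_rfl m
  have hK1 : 1 ≤ K := hs1.trans (triC_ge hC0 hs1)
  filter_upwards [hS η hη, ev_const B (show (0 : ℝ) < K by linarith) (half_pos hε)]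
    with n h1 h2 x hx y hy hxy k
  set S : Φ := cen n u (kc (lev n u) (f n u) x) with hSd
  have nx : Near (cF n) (B.d n) (lowp M η r) 1 S (inc n x) := fun s => by
    rw [one_mul]; exact (h1 x hx s).trans (hdom n s)
  have ny : Near (cF n) (B.d n) (lowp M η r) 1 S (inc n y) := fun s => by
    rw [one_mul]
    have := h1 y hy s
    rw [hxy] at this
    exact this.trans (hdom n s)
  set J : Finset Φ := {S, inc n x, inc n y} with hJ
  have mS : S ∈ J := by simp [hJ]
  have mx : inc n x ∈ J := by simp [hJ]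
  have my : inc n y ∈ J := by simp [hJ]
  have h3 := (hch n J).symm hleg (B.pos n) (B.lt n).le le_rfl mS mx nx
  have h4 := (hch n J).tri hleg (B.pos n) (B.lt n).le hs1 mx mS my h3
    (ny.mono (B.pos n) hs1)
  refine (h4 k).trans ?_
  have h5 : B.d n ^ (lowp M η r k) ≤ B.d n ^ (r k - ε / 2) := dpow_le B n (hlow k)
  calc K * B.d n ^ (lowp M η r k) ≤ B.d n ^ (-(ε / 2)) * B.d n ^ (r k - ε / 2) :=
        mul_le_mul h2 h5 (dpow_pos B n _).le (dpow_pos B n _).le
    _ = B.d n ^ (r k - ε) := by rw [← dpow_add]; congr 1; ring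

end Crest.Agent.R136.GR650
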