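import Crest.Agent.R136.Lq5_196
import Crest.Agent.R138.Qf7_926

/-!
# R136, leaf L15 of `ℝ⁴` (helper196), part 6: `l15Q : L15Q`
-/

set_option autoImplicit false
set_option linter.unusedVariables false
set_option linter.unusedSectionVars false

open Finset Filter Topology

namespace Crest.Agent.R136.Lq196

open Crest.Agent.R138.Ex926
open Crest.Agent.R138.Mk163 (zc zl rho alive)
open Crest.Agent.R138.MkRef627 (lc kc own_one)
open Crest.Agent.R138.Dp76 (dpow_pos dpow_add dpow_le)
open Crest.Agent.R138.L15 (prof_le prof_ge ext01)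
open Crest.Agent.R136.MkA627
open Crest.Agent.R136.Net191

variable {m : ℕ}

section mk

variable {σ κ : Type*} {B : Base} {I : ℕ → Finset (ℕ × ℝ)} {G : Geo σ κ} {lev : ℕ → ℚ → ℕ}
    {A : ℕ → ℝ} {g s : ℝ} {τ : κ → ℝ → ℝ} {f : ℕ → ℚ → ℕ → ℤ → ℕ} {b : ℕ → ℚ → ℕ → σ}
    {vm : ℕ → ℚ → ℝ} {w : κ → ℕ → ℚ → ℝ}
    {co : ∀ n : ℕ, ℕ × ℝ → ℕ × ℝ → Fin m → ℝ} {M : Mons m} {C R : ℝ} {kz : Fin m} {w0 : ℝ}
    {N0 : ℕ → ℝ} {PD : Set (Fin m → ℝ)} {D : (Fin m → ℝ) → ℝ} {r o : ℝ → Fin m → ℝ} {E : ℝ → ℝ}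
    {T : Fin m → Prop}

open Classical in
/-- own count of a piece of a line in three cells -/
theorem own_piece (h : PreQ B I G lev A g s τ f b vm w co M C R kz w0 N0 PD D r o E T)
    {u : ℚ} (hu0 : 0 ≤ u) (hu1 : u ≤ 1) {ε : ℝ} (hε : 0 < ε) :
    ∀ᶠ n in (U : Filter ℕ), ∀ x ∈ I n, ∀ S ⊆ I n,
      (∀ y ∈ S, y.1 = x.1 ∧ |zc (lev n u) y.2 - zc (lev n u) x.2| ≤ 1) →
      (S.card : ℝ) ≤ 3 * B.d n ^ (-((1 - s) * (1 - u) + ε)) := by
  filter_upwards [fibq h.mka hu0 hu1 hε] with n hn x hx S hS hS2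
  have c1 : (S.card : ℝ) ≤ B.d n ^ (-((1 - s) * (1 - u) + ε)) *
      (S.image (lc (lev n u))).card := by
    have := le_count_mul S (fun _ => (1 : ℝ)) (lc (lev n u))
      (m := B.d n ^ (-((1 - s) * (1 - (u : ℝ)) + ε))) (fun y hy => by
        rw [sum_const, nsmul_eq_mul, mul_one]
        refine le_trans ?_ (hn y (hS hy)).2
        have : cls S (lc (lev n u)) y ⊆
            (I n).filter fun z => lc (lev n u) z = lc (lev n u) y := fun z hz => by
          obtain ⟨z1, z2⟩ := mem_cls.1 hz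
          exact mem_filter.2 ⟨hS z1, z2⟩
        exact_mod_cast card_le_card this)
    rwa [sum_const, nsmul_eq_mul, mul_one] at this
  have c2 : ((S.image (lc (lev n u))).card : ℝ) ≤ 3 := by exact_mod_cast three_cells hS2
  refine c1.trans ?_
  rw [mul_comm]
  exact mul_le_mul_of_nonneg_right c2 (dpow_pos B n _).le

open Classical in
/-- the same for a piece on which a tied slot is nearly constant -/
theorem tw_piece (h : PreQ B I G lev A g s τ f b vm w co M C R kz w0 N0 PD D r o E T)
    {k : Fin m} {u v' : ℚ} (hv0 : 0 ≤ v') (hvu : v' ≤ u) (hu1 : u ≤ 1) {ρ γ : ℝ}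
    (htw : ∀ᶠ n in (U : Filter ℕ), ∀ x ∈ I n,
      (((I n).filter fun y => lc (lev n u) y = lc (lev n u) x ∧ |co n x y k| ≤ B.d n ^ ρ).card : ℝ) ≤
        B.d n ^ (γ - (1 - s) * (1 - u))) {ε : ℝ} (hε : 0 < ε) :
    ∀ᶠ n in (U : Filter ℕ), ∀ x ∈ I n, ∀ S ⊆ I n,
      (∀ y ∈ S, y.1 = x.1 ∧ |zc (lev n v') y.2 - zc (lev n v') x.2| ≤ 1) →
      (∀ y ∈ S, ∀ z ∈ S, |co n y z k| ≤ B.d n ^ ρ) →
      (S.card : ℝ) ≤ 3 * B.d n ^ (γ - (1 - s) * (1 - v') - ε) := by
  filter_upwards [htw, ownq h.mka hv0 hvu hu1 hε] with n h1 h2 x hx S hS hS2 hS3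
  have c1 : (S.card : ℝ) ≤ B.d n ^ (γ - (1 - s) * (1 - u)) *
      (S.image (lc (lev n u))).card := by
    have := le_count_mul S (fun _ => (1 : ℝ)) (lc (lev n u))
      (m := B.d n ^ (γ - (1 - s) * (1 - (u : ℝ)))) (fun y hy => by
        rw [sum_const, nsmul_eq_mul, mul_one]
        refine le_trans ?_ (h1 y (hS hy))
        have : cls S (lc (lev n u)) y ⊆ (I n).filter fun z => lc (lev n u) z = lc (lev n u) y ∧
            |co n y z k| ≤ B.d n ^ ρ := fun z hz => by
          obtain ⟨z1, z2⟩ := mem_cls.1 hz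
          exact mem_filter.2 ⟨hS z1, z2, hS3 y hy z z1⟩
        exact_mod_cast card_le_card this)
    rwa [sum_const, nsmul_eq_mul, mul_one] at this
  have c2 : ((S.image (lc (lev n u))).card : ℝ) ≤ B.d n ^ (-((1 - s) * (u - v') + ε)) *
      (S.image (lc (lev n v'))).card := by
    refine card_image_le_mul S (lc (lev n u)) (lc (lev n v')) fun y hy => ?_
    refine le_trans ?_ (h2 y (hS hy))
    have e1 := card_image_of_coarse (A := cls S (lc (lev n v')) y) (f := lc (lev n u))
      (f' := fun z => zc (lev n u) z.2) (fun z hz t ht e => by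
        have z2 := (mem_cls.1 hz).2
        have t2 := (mem_cls.1 ht).2
        have z3 : z.1 = y.1 := (Prod.mk.inj z2).1
        have t3 : t.1 = y.1 := (Prod.mk.inj t2).1
        unfold lc
        rw [z3, t3]
        exact Prod.ext rfl e)
    have e2 : (cls S (lc (lev n v')) y).image (fun z => zc (lev n u) z.2) ⊆
        ((I n).filter fun z => lc (lev n v') z = lc (lev n v') y).image
          (fun z => zc (lev n u) z.2) := by
      refine image_subset_image fun z hz => ?_
      obtain ⟨z1, z2⟩ := mem_cls.1 hz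
      exact mem_filter.2 ⟨hS z1, z2⟩
    have e3 := e1.trans (card_le_card e2)
    exact_mod_cast e3
  have c3 : ((S.image (lc (lev n v'))).card : ℝ) ≤ 3 := by exact_mod_cast three_cells hS2
  have hp1 := dpow_pos B n (γ - (1 - s) * (1 - (u : ℝ)))
  have hp2 := dpow_pos B n (-((1 - s) * ((u : ℝ) - v') + ε))
  calc (S.card : ℝ) ≤ B.d n ^ (γ - (1 - s) * (1 - (u : ℝ))) *
        (B.d n ^ (-((1 - s) * ((u : ℝ) - v') + ε)) * 3) :=
        c1.trans (mul_le_mul_of_nonneg_left
          (c2.trans (mul_le_mul_of_nonneg_left c3 hp2.le)) hp1.le)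
    _ = 3 * B.d n ^ (γ - (1 - s) * (1 - v') - ε) := by
        rw [← mul_assoc, ← dpow_add, mul_comm]
        congr 2; ring

set_option maxHeartbeats 1000000 in
open Classical in
theorem ext_of (h : PreQ B I G lev A g s τ f b vm w co M C R kz w0 N0 PD D r o E T)
    {I3 : ℕ → Finset (ℕ × ℝ)} {c₀ : ℝ} (hr : RawQ B I I3 lev f co M C R s PD D E c₀) :
    ∃ (I' : ℕ → Finset (ℕ × ℝ)) (ν own : (Fin m → ℝ) → ℝ),
      ExtQ B I I' co M C R kz w0 s PD D r o E T ν own c₀ ∧ (∀ n, I' n ⊆ I3 n) ∧
        ∀ ε : ℝ, 0 < ε → ∀ᶠ n in (U : Filter ℕ),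
          B.d n ^ ε * ((I3 n).card : ℝ) ≤ (I' n).card := by
  have hR := h.R0
  have hC := h.C0
  have hK0 : 1 ≤ cK0 M C := cK0_one hC
  have hK0' : 0 < cK0 M C := by linarith
  obtain ⟨hs0, hs1⟩ := s_bounds h.mka
  have hleg : ∀ p ∈ Leg M R, Legal M p := fun p hp => hp.1
  obtain ⟨I', S, hS, hI'3, hb, ⟨ν, hν, hνl, hνa⟩, own, ho, hol, hoa⟩ :=
    exists_twoq B h.chart hR hr.sub hr.ne hr.card
  have hI' : ∀ n, I' n ⊆ I n := fun n => (hI'3 n).trans (hr.sub n)
  have hI'e : ∀ᶠ n in (U : Filter ℕ), I' n ⊆ I n := Eventually.of_forall hI'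
  have hne : ∀ᶠ n in (U : Filter ℕ), (I' n).Nonempty := hb.mono fun n hn => hn.2.1
  obtain ⟨δ, hδ, hδ2⟩ := h.rpos
  obtain ⟨Cr, hCr⟩ := h.rlip
  have hCr0 : 0 ≤ Cr := by
    have h1 := (hCr 0 1 le_rfl zero_le_one le_rfl).2
    have h2 := (abs_nonneg _).trans h1
    linarith
  have hW := WS_nonneg M
  have hone : ∀ n, ∀ t : ℝ, t ≤ 0 → (1 : ℝ) ≤ B.d n ^ t := fun n t ht =>
    Real.one_le_rpow_of_pos_of_le_one_of_nonpos (B.pos n) (B.lt n).le ht
  -- own profile: upper bound
  have oU : ∀ p ∈ Leg M R, ∀ v : ℝ, 0 ≤ v → v ≤ 1 → p kz = w0 + v →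
      own p ≤ (1 - s) * (1 - v) := by
    intro p hp v hv0 hv1 hpv
    refine prof_le ho hne hp fun ε hε => ?_
    have hε3 : 0 < ε / 3 := by positivity
    obtain ⟨u, hu0, hu1, huv, huv2, hu3⟩ := exists_low hv0 hv1 hε3
    filter_upwards [near_cells h hu0 hu1 hu3 hK0', own_piece h hu0 hu1 hε3,
      B.ev_const_log (Real.log 3) hε3] with n a1 a2 a3 i hi
    have hiI := hI' n hi
    have b1 := a2 i hiI (cls (I' n) (olb B I co M C n p) i) ((cls_subset _ _ _).trans (hI' n))
      (fun y hy => by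
        obtain ⟨y1, y2⟩ := mem_cls.1 hy
        have y3 : (y.1, nlab B I co M C n p y) = (i.1, nlab B I co M C n p i) := y2
        obtain ⟨y4, y5⟩ := Prod.mk.inj y3
        refine ⟨y4, a1 i hiI y (hI' n y1) ?_⟩
        have := near_of_nlab h.chart hp.1 hiI (hI' n y1) y5.symm kz
        rw [hpv] at this
        exact this)
    refine b1.trans ?_
    have e3 : (3 : ℝ) ≤ B.d n ^ (-(ε / 3)) := by
      rw [← B.exp_eq, ← Real.log_le_iff_le_exp (by norm_num)]
      exact a3
    calc 3 * B.d n ^ (-((1 - s) * (1 - (u : ℝ)) + ε / 3))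
        ≤ B.d n ^ (-(ε / 3)) * B.d n ^ (-((1 - s) * (1 - (u : ℝ)) + ε / 3)) :=
          mul_le_mul_of_nonneg_right e3 (dpow_pos B n _).le
      _ = B.d n ^ (-((1 - s) * (1 - (u : ℝ)) + 2 * (ε / 3))) := by
          rw [← dpow_add]; congr 1; ring
      _ ≤ B.d n ^ (-((1 - s) * (1 - v) + ε)) := by
          refine dpow_le B n ?_
          have : (1 - s) * (v - u) ≤ ε / 3 := by
            have h1 : (1 - s) * (v - u) ≤ 1 * (v - u) :=
              mul_le_mul_of_nonneg_right (by linarith) (by linarith)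
            linarith
          nlinarith
  -- own profile: lower bound
  have oL : ∀ p ∈ Leg M R, ∀ v : ℝ, 0 ≤ v → v ≤ 1 → (∀ k, p k ≤ o v k) →
      (1 - s) * (1 - v) ≤ own p := by
    intro p hp v hv0 hv1 hpo
    rcases hv1.eq_or_lt with hv | hv
    · rw [hv, sub_self, mul_zero]
      refine prof_ge ho hS hb hp fun ε hε => Eventually.of_forall fun n => ?_
      have h1 : (((I3 n).image (olb B I co M C n p)).card : ℝ) ≤ (I3 n).card := by
        exact_mod_cast card_image_le
      exact h1.trans (le_mul_of_one_le_right (Nat.cast_nonneg _) (hone n _ (by linarith)))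
    · refine prof_ge ho hS hb hp fun ε hε => ?_
      obtain ⟨ε1, hε1, hε1δ, hε1W⟩ : ∃ ε1 : ℝ, 0 < ε1 ∧ ε1 ≤ δ ∧ WS M * ε1 ≤ ε / 4 := by
        refine ⟨min δ (ε / (4 * (WS M + 1))), lt_min hδ (by positivity), min_le_left _ _, ?_⟩
        have h1 : min δ (ε / (4 * (WS M + 1))) ≤ ε / (4 * (WS M + 1)) := min_le_right _ _
        calc WS M * min δ (ε / (4 * (WS M + 1))) ≤ WS M * (ε / (4 * (WS M + 1))) :=
              mul_le_mul_of_nonneg_left h1 hW
          _ ≤ (WS M + 1) * (ε / (4 * (WS M + 1))) := by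
              refine mul_le_mul_of_nonneg_right (by linarith) (by positivity)
          _ = ε / 4 := by field_simp
      have hε2 : 0 < ε / (4 * (WS M * Cr + 1)) := by positivity
      obtain ⟨u, hu0, hu1, hvu, huv⟩ := exists_high hv0 hv hε2
      have hu1' : (u : ℝ) ≤ 1 := by exact_mod_cast hu1.le
      have hu0' : (0 : ℝ) ≤ u := by exact_mod_cast hu0
      have hη : 0 ≤ Cr * (u - v) + ε1 := by
        have := mul_nonneg hCr0 (by linarith : (0 : ℝ) ≤ u - v)
        linarith
      have key := labels_of (B := B) (κ := ℕ × (ℕ × ℝ)) (η := Cr * (u - v) + ε1)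
        (e := (1 - s) * (1 - u) - ε / 4) h.chart hR hr.sub hp hη (η' := fun _ => ℕ × ℤ)
        (fun n => lc (lev n u)) (by
          filter_upwards [h.own_near u hu0 hu1.le ε1 hε1] with n hn x hx y hy hxy k
          have h1 := hn x hx y hy hxy k
          have h2 := ((hCr v u hv0 hvu hu1').1 k).2
          rw [abs_le] at h2
          refine ⟨h1.trans (dpow_le B n ?_), h1.trans
            (Real.rpow_le_one (B.pos n).le (B.lt n).le ?_)⟩
          · have := hpo k
            linarith [h2.1]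
          · have := (hδ2 u hu0' hu1' k).2
            linarith)
        (by
          filter_upwards [hr.own u hu0 hu1.le (ε / 4) (by positivity)] with n hn
          convert hn)
        (fun n => olb B I co M C n p)
        (fun n x _ y _ h1 h2 => by
          have h3 : y.1 = x.1 := (Prod.mk.inj h1).1
          show (y.1, nlab B I co M C n p y) = (x.1, nlab B I co M C n p x)
          rw [h2, h3]) (ε := ε / 4) (by positivity)
      filter_upwards [key] with n hn
      refine le_trans (le_of_eq ?_) (hn.trans (mul_le_mul_of_nonneg_left (dpow_le B n ?_)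
        (Nat.cast_nonneg _)))
      · congr
      · have e1 : (WS M * Cr + 1) * (u - v) ≤ ε / 4 := by
          have h1 : (u : ℝ) - v ≤ ε / (4 * (WS M * Cr + 1)) := by linarith
          calc (WS M * Cr + 1) * (u - v) ≤ (WS M * Cr + 1) * (ε / (4 * (WS M * Cr + 1))) :=
                mul_le_mul_of_nonneg_left h1 (by positivity)
            _ = ε / 4 := by field_simp
        have e2 : (1 - s) * (u - v) ≤ u - v := by
          have h1 : (1 - s) * (u - v) ≤ 1 * (u - v) :=
            mul_le_mul_of_nonneg_right (by linarith) (by linarith)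
          linarith
        nlinarith
  -- record
  have hrec : ∀ v : ℝ, 0 < v → v < 1 → c₀ + E v ≤ ν (r v) := by
    intro v hv0 hv1
    refine prof_ge hν hS hb (h.rleg v hv0.le hv1.le) fun ε hε => ?_
    obtain ⟨ε1, hε1, hε1δ, hε1W⟩ : ∃ ε1 : ℝ, 0 < ε1 ∧ ε1 ≤ δ ∧ WS M * ε1 ≤ ε / 4 := by
      refine ⟨min δ (ε / (4 * (WS M + 1))), lt_min hδ (by positivity), min_le_left _ _, ?_⟩
      have h1 : min δ (ε / (4 * (WS M + 1))) ≤ ε / (4 * (WS M + 1)) := min_le_right _ _
      calc WS M * min δ (ε / (4 * (WS M + 1))) ≤ WS M * (ε / (4 * (WS M + 1))) :=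
            mul_le_mul_of_nonneg_left h1 hW
        _ ≤ (WS M + 1) * (ε / (4 * (WS M + 1))) := by
            refine mul_le_mul_of_nonneg_right (by linarith) (by positivity)
        _ = ε / 4 := by field_simp
    have hε2 : 0 < ε / (4 * ((WS M + 1) * Cr + 1)) := by positivity
    obtain ⟨u, hu0, hu1, hvu, huv⟩ := exists_high hv0.le hv1 hε2
    have hu1' : (u : ℝ) ≤ 1 := by exact_mod_cast hu1.le
    have hu0' : (0 : ℝ) ≤ u := by exact_mod_cast hu0
    have hη : 0 ≤ Cr * (u - v) + ε1 := by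
      have := mul_nonneg hCr0 (by linarith : (0 : ℝ) ≤ u - v)
      linarith
    have key := labels_of (B := B) (κ := ℕ × ℝ) (η := Cr * (u - v) + ε1)
      (e := c₀ + E u - ε / 4) h.chart hR hr.sub (h.rleg v hv0.le hv1.le) hη
      (η' := fun _ => ℕ × ℤ) (fun n => kc (lev n u) (f n u)) (by
        filter_upwards [h.gR u hu0 hu1.le ε1 hε1] with n hn x hx y hy hxy k
        have h1 := hn x hx y hy hxy k
        have h2 := ((hCr v u hv0.le hvu hu1').1 k).1
        rw [abs_le] at h2
        refine ⟨h1.trans (dpow_le B n ?_), h1.trans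
          (Real.rpow_le_one (B.pos n).le (B.lt n).le ?_)⟩
        · linarith [h2.1]
        · have := (hδ2 u hu0' hu1' k).1
          linarith)
      (by
        filter_upwards [hr.recd u hu0 hu1.le (ε / 4) (by positivity)] with n hn
        convert hn)
      (fun n => nlab B I co M C n (r v)) (fun n x _ y _ h1 h2 => h2) (ε := ε / 4) (by positivity)
    filter_upwards [key] with n hn
    refine le_trans (le_of_eq ?_) (hn.trans (mul_le_mul_of_nonneg_left (dpow_le B n ?_)
      (Nat.cast_nonneg _)))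
    · congr
    · have e1 : ((WS M + 1) * Cr + 1) * (u - v) ≤ ε / 4 := by
        have h1 : (u : ℝ) - v ≤ ε / (4 * ((WS M + 1) * Cr + 1)) := by linarith
        calc ((WS M + 1) * Cr + 1) * (u - v) ≤
              ((WS M + 1) * Cr + 1) * (ε / (4 * ((WS M + 1) * Cr + 1))) :=
              mul_le_mul_of_nonneg_left h1 (by positivity)
          _ = ε / 4 := by field_simp
      have e2 := (hCr v u hv0.le hvu hu1').2
      rw [abs_le] at e2
      nlinarith [e2.1]
  have hrl : ∀ v w : ℝ, 0 ≤ v → v ≤ 1 → 0 ≤ w → w ≤ 1 →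
      (∀ k, |r v k - r w k| ≤ Cr * |v - w|) ∧ |E v - E w| ≤ Cr * |v - w| := by
    intro v w h1 h2 h3 h4
    rcases le_total v w with hvw | hvw
    · obtain ⟨a1, a2⟩ := hCr v w h1 hvw h4
      have e : |v - w| = w - v := by rw [abs_sub_comm, abs_of_nonneg (by linarith)]
      rw [e, abs_sub_comm (E v)]
      exact ⟨fun k => by rw [abs_sub_comm]; exact (a1 k).1, a2⟩
    · obtain ⟨a1, a2⟩ := hCr w v h3 hvw h2
      have e : |v - w| = v - w := abs_of_nonneg (by linarith)
      rw [e]
      exact ⟨fun k => (a1 k).1, a2⟩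
  refine ⟨I', ν, own, ?_, hI'3, fun ε hε => ?_⟩
  rotate_left
  · filter_upwards [hb, hS.ev_le hε] with n a3 a4
    have hS1 : S n ≤ B.d n ^ (-ε) := by
      rw [← B.exp_eq, ← Real.log_le_iff_le_exp a4.1]
      exact a4.2
    calc B.d n ^ ε * ((I3 n).card : ℝ) ≤ B.d n ^ ε * (S n * (I' n).card) :=
          mul_le_mul_of_nonneg_left a3.2.2.1 (dpow_pos B n _).le
      _ ≤ B.d n ^ ε * (B.d n ^ (-ε) * (I' n).card) :=
          mul_le_mul_of_nonneg_left (mul_le_mul_of_nonneg_right hS1 (Nat.cast_nonneg _))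
            (dpow_pos B n _).le
      _ = (I' n).card := by
          rw [← mul_assoc, ← dpow_add, add_neg_cancel, Real.rpow_zero, one_mul]
  exact
    { ne := hne
      sub := hI'
      card := by
        obtain ⟨c, hc, h1⟩ := hr.card
        refine ⟨c, hc, ?_⟩
        filter_upwards [h1] with n hn
        exact le_trans (by exact_mod_cast card_le_card (hI'3 n)) hn
      chart := h.chart
      s0 := hs0
      s1 := hs1
      prof := hν
      lip := fun p hp q hq hpq => ⟨sub_nonneg.2 (hνa p hp q hq hpq),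
        prof_lip h.chart hleg hI'e hne hν hp hq hpq⟩
      submod := fun p hp q hq hpq =>
        QProf.submod hν ((net_QJoin h.chart hleg).mono hI'e Set.Subset.rfl) hne hp hq hpq
          (Leg.sup hp hq)
      oprof := ho
      own_le := fun p hp q hq hpq => QProf.own_le hν ho hne hp hq hpq hp hq
        (Eventually.of_forall fun n i _ j _ e => (Prod.mk.inj e).2)
        (Eventually.of_forall fun n i _ j _ e e' => by
          have h3 : i.1 = j.1 := (Prod.mk.inj e).1
          show (i.1, nlab B I co M C n q i) = (j.1, nlab B I co M C n q j)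
          rw [e', h3])
      dmax := by
        intro p hp
        refine prof_le hν hne (h.PDleg hp) fun ε hε => ?_
        filter_upwards [hr.dmax p hp ε hε] with n hn i hi
        refine le_trans ?_ (hn i (hI'3 n hi))
        refine Nat.cast_le.2 (card_le_card fun t ht => ?_)
        obtain ⟨t1, t2⟩ := mem_cls.1 ht
        exact mem_filter.2 ⟨hI'3 n t1, t2⟩
      record := by
        intro v hv0 hv1
        have key := ext01 (F := fun w => ν (r w) - (c₀ + E w)) (C := m * Cr + Cr) ?_ ?_ hv0 hv1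
        · linarith
        · intro w w' h1 h2 h3 h4
          obtain ⟨a1, a2⟩ := hrl w w' h1 h2 h3 h4
          have e1 := hνl _ (h.rleg w h1 h2) _ (h.rleg w' h3 h4)
          have e2 : ‖r w - r w'‖ ≤ Cr * |w - w'| :=
            (pi_norm_le_iff_of_nonneg (mul_nonneg hCr0 (abs_nonneg _))).2 fun k => a1 k
          have e3 : ν (r w) - (c₀ + E w) - (ν (r w') - (c₀ + E w')) =
              (ν (r w) - ν (r w')) - (E w - E w') := by ring
          show |ν (r w) - (c₀ + E w) - (ν (r w') - (c₀ + E w'))| ≤ _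
          rw [e3]
          refine (abs_sub _ _).trans ?_
          have e4 : (m : ℝ) * ‖r w - r w'‖ ≤ m * (Cr * |w - w'|) :=
            mul_le_mul_of_nonneg_left e2 (Nat.cast_nonneg m)
          nlinarith
        · intro w hw0 hw1
          have := hrec w hw0 hw1
          show 0 ≤ ν (r w) - (c₀ + E w)
          linarith
      own_rot := fun p hp v hv0 hv1 hpv hpo =>
        le_antisymm (oU p hp v hv0 hv1 hpv) (oL p hp v hv0 hv1 hpo)
      own_up := oU
      own_tw := by
        intro p hp v hv0 hv1 hpv ⟨k, hk, hok⟩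
        have hgap : 0 < (p k - o v k) / (2 * (Cr + 1)) := by
          have : 0 < p k - o v k := by linarith
          positivity
        obtain ⟨u, hu0, hu1, hvu, huv⟩ := exists_high hv0 hv1 hgap
        have hu1' : (u : ℝ) ≤ 1 := by exact_mod_cast hu1.le
        have ho1 : o u k < p k := by
          have h1 := ((hCr v u hv0 hvu hu1').1 k).2
          rw [abs_le] at h1
          have h2 : Cr * (u - v) ≤ (p k - o v k) / 2 := by
            have h3 : (u : ℝ) - v ≤ (p k - o v k) / (2 * (Cr + 1)) := by linarith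
            calc Cr * (u - v) ≤ (Cr + 1) * (u - v) :=
                  mul_le_mul_of_nonneg_right (by linarith) (by linarith)
              _ ≤ (Cr + 1) * ((p k - o v k) / (2 * (Cr + 1))) :=
                  mul_le_mul_of_nonneg_left h3 (by linarith)
              _ = (p k - o v k) / 2 := by field_simp
          linarith [h1.2]
        obtain ⟨γ, hγ, hev⟩ := h.tw k hk u hu0 hu1 ((o u k + p k) / 2) (by linarith)
        have h5 : own p ≤ (1 - s) * (1 - v) - γ / 2 := by
          refine prof_le ho hne hp fun ε hε => ?_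
          have hγ4 : 0 < γ / 4 := by positivity
          obtain ⟨v', hv'0, hv'1, hv'v, hv'2, hv'3⟩ := exists_low hv0 hv1.le hγ4
          have hv'u : v' ≤ u := by exact_mod_cast hv'v.trans hvu
          have hpk : 0 < p k - (o u k + p k) / 2 := by linarith
          filter_upwards [near_cells h hv'0 hv'1 hv'3 hK0', tw_piece h hv'0 hv'u hu1.le hev hγ4,
            B.ev_const_log (Real.log 3) hε, B.ev_const_log (Real.log (cK0 M C)) hpk]
            with n a1 a2 a3 a4 i hi
          have hiI := hI' n hi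
          have b1 := a2 i hiI (cls (I' n) (olb B I co M C n p) i)
            ((cls_subset _ _ _).trans (hI' n))
            (fun y hy => by
              obtain ⟨y1, y2⟩ := mem_cls.1 hy
              have y3 : (y.1, nlab B I co M C n p y) = (i.1, nlab B I co M C n p i) := y2
              obtain ⟨y4, y5⟩ := Prod.mk.inj y3
              refine ⟨y4, a1 i hiI y (hI' n y1) ?_⟩
              have := near_of_nlab h.chart hp.1 hiI (hI' n y1) y5.symm kz
              rw [hpv] at this
              exact this)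
            (fun y hy z hz => by
              obtain ⟨y1, y2⟩ := mem_cls.1 hy
              obtain ⟨z1, z2⟩ := mem_cls.1 hz
              have y3 : (y.1, nlab B I co M C n p y) = (i.1, nlab B I co M C n p i) := y2
              have z3 : (z.1, nlab B I co M C n p z) = (i.1, nlab B I co M C n p i) := z2
              have e1 := (Prod.mk.inj y3).2.trans (Prod.mk.inj z3).2.symm
              have e2 := near_of_nlab h.chart hp.1 (hI' n y1) (hI' n z1) e1 k
              refine e2.trans ?_
              have e3 : cK0 M C ≤ B.d n ^ (-(p k - (o u k + p k) / 2)) := by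
                rw [← B.exp_eq, ← Real.log_le_iff_le_exp hK0']
                exact a4
              calc cK0 M C * B.d n ^ (p k) ≤
                    B.d n ^ (-(p k - (o u k + p k) / 2)) * B.d n ^ (p k) :=
                    mul_le_mul_of_nonneg_right e3 (dpow_pos B n _).le
                _ = B.d n ^ ((o u k + p k) / 2) := by
                    rw [← dpow_add]; congr 1; ring)
          refine b1.trans ?_
          have e3 : (3 : ℝ) ≤ B.d n ^ (-ε) := by
            rw [← B.exp_eq, ← Real.log_le_iff_le_exp (by norm_num)]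
            exact a3
          calc 3 * B.d n ^ (γ - (1 - s) * (1 - (v' : ℝ)) - γ / 4)
              ≤ B.d n ^ (-ε) * B.d n ^ (γ - (1 - s) * (1 - (v' : ℝ)) - γ / 4) :=
                mul_le_mul_of_nonneg_right e3 (dpow_pos B n _).le
            _ = B.d n ^ (γ - (1 - s) * (1 - (v' : ℝ)) - γ / 4 - ε) := by
                rw [← dpow_add]; congr 1; ring
            _ ≤ B.d n ^ (-((1 - s) * (1 - v) - γ / 2 + ε)) := by
                refine dpow_le B n ?_
                have : (1 - s) * (v - v') ≤ γ / 4 := by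
                  have h1 : (1 - s) * (v - v') ≤ 1 * (v - v') :=
                    mul_le_mul_of_nonneg_right (by linarith) (by linarith)
                  linarith
                nlinarith
        linarith
      sat := by
        obtain ⟨K, hK1, hK2⟩ := hr.sat
        intro ε hε
        have hε3 : 0 < ε / 3 := by positivity
        filter_upwards [hK1, hK2 _ hε3, hb, hS.ev_le hε3, B.ev_const_log (Real.log 16) hε3]
          with n a1 a2 a3 a4 a5
        have b1 := a1 (I' n) (hI'3 n) ((I n).filter fun y => ∃ x ∈ I' n,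
          nlab B I co M C n (fun _ => R) y = nlab B I co M C n (fun _ => R) x) (filter_subset _ _)
          (fun i hi j hj hij => mem_filter.2 ⟨hj, i, hi, hij⟩)
        set F : ℝ := (((I n).filter fun y => ∃ x ∈ I' n,
          nlab B I co M C n (fun _ => R) y = nlab B I co M C n (fun _ => R) x).card : ℝ) with hF
        have b2 : (K n : ℝ) * ((I' n).card : ℝ) ≤ 16 * F := by rw [hF]; exact_mod_cast b1
        have hS1 : S n ≤ B.d n ^ (-(ε / 3)) := by
          rw [← B.exp_eq, ← Real.log_le_iff_le_exp a4.1]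
          exact a4.2
        have h16 : (16 : ℝ) ≤ B.d n ^ (-(ε / 3)) := by
          rw [← B.exp_eq, ← Real.log_le_iff_le_exp (by norm_num)]
          exact a5
        have hF0 : 0 ≤ F := by rw [hF]; exact Nat.cast_nonneg _
        have hKn : (0 : ℝ) ≤ K n := Nat.cast_nonneg _
        have b3 : B.d n ^ (ε / 3) * ((I n).card : ℝ) ≤ S n * (16 * F) := by
          refine a2.trans ?_
          calc (K n : ℝ) * ((I3 n).card : ℝ) ≤ K n * (S n * ((I' n).card : ℝ)) :=
                mul_le_mul_of_nonneg_left a3.2.2.1 hKn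
            _ = S n * (K n * ((I' n).card : ℝ)) := by ring
            _ ≤ S n * (16 * F) := mul_le_mul_of_nonneg_left b2 a4.1.le
        have b4 : S n * (16 * F) ≤ B.d n ^ (-(ε / 3)) * (B.d n ^ (-(ε / 3)) * F) :=
          mul_le_mul hS1 (mul_le_mul_of_nonneg_right h16 hF0) (by positivity)
            (dpow_pos B n _).le
        have b5 := mul_le_mul_of_nonneg_left (b3.trans b4) (dpow_pos B n (2 * (ε / 3))).le
        have e1 : B.d n ^ ε = B.d n ^ (2 * (ε / 3)) * B.d n ^ (ε / 3) := by
          rw [← dpow_add]; congr 1; ring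
        have e2 : B.d n ^ (2 * (ε / 3)) * (B.d n ^ (-(ε / 3)) * (B.d n ^ (-(ε / 3)) * F)) = F := by
          rw [← mul_assoc, ← mul_assoc, ← dpow_add, ← dpow_add]
          have : 2 * (ε / 3) + -(ε / 3) + -(ε / 3) = 0 := by ring
          rw [this, Real.rpow_zero, one_mul]
        rw [e1, mul_assoc]
        rw [e2] at b5
        exact b5 }

end mk

/-- **L15 of `ℝ⁴`**, with the uniformity of the sample -/
theorem l15Qc {σ κ : Type} {m : ℕ} {B : Base} {I : ℕ → Finset (ℕ × ℝ)} {G : Geo σ κ}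
    {lev : ℕ → ℚ → ℕ} {A : ℕ → ℝ} {g s : ℝ} {τ : κ → ℝ → ℝ} {f : ℕ → ℚ → ℕ → ℤ → ℕ}
    {b : ℕ → ℚ → ℕ → σ} {vm : ℕ → ℚ → ℝ} {w : κ → ℕ → ℚ → ℝ}
    {co : ∀ n : ℕ, ℕ × ℝ → ℕ × ℝ → Fin m → ℝ} {M : Mons m} {C R : ℝ} {kz : Fin m} {w0 : ℝ}
    {N0 : ℕ → ℝ} {PD : Set (Fin m → ℝ)} {D : (Fin m → ℝ) → ℝ} {r o : ℝ → Fin m → ℝ}
    {E : ℝ → ℝ} {T : Fin m → Prop}
    (h : PreQ B I G lev A g s τ f b vm w co M C R kz w0 N0 PD D r o E T) :
    ∃ (I0 I' : ℕ → Finset (ℕ × ℝ)) (ν own : (Fin m → ℝ) → ℝ) (c₀ : ℝ), (∀ n, I0 n ⊆ I n) ∧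
      PreQ B I0 G lev A g s τ f b vm w co M C R kz w0 N0 PD D r o E T ∧
      ExtQ B I0 I' co M C R kz w0 s PD D r o E T ν own c₀ ∧
      CombQ B I0 I' lev co M C R N0 c₀ := by
  obtain ⟨I0, h1, h2, h3⟩ := h.cont
  obtain ⟨I3, c₀, h4, h4'⟩ := raw_of h3 h2
  obtain ⟨I', ν, own, h5, h6, h7⟩ := ext_of h3 h4
  exact ⟨I0, I', ν, own, c₀, h1, h3, h5, h4'.mono h6 h7⟩

/-- **L15 of `ℝ⁴`** -/
theorem l15Q : L15Q := by
  intro σ κ m B I G lev A g s τ f b vm w co M C R kz w0 N0 PD D r o E T h
  obtain ⟨I0, I', ν, own, c₀, h1, h2, h3, -⟩ := l15Qc h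
  exact ⟨I0, I', ν, own, c₀, h1, h2, h3⟩

end Crest.Agent.R136.Lq196
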