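import Crest.Agent.R136.Gf3_356

/-!
# R136: chart-free models with RELATIVE coordinates and walls (helper356)

`rel k i l` = coordinates of the line `l` at the height `k` in the frame of the incidence `(i, k)`.
`loose p ε k i l` = `|rel k i l j| ≤ ρ^(p j - ε)` for all `j`.  `RUnif` = quasi-triangle,
quasi-symmetry and uniform counts for legal side exponents `p ∈ Leg`, with losses `ρ^(-D ε)`.
-/

set_option autoImplicit false
set_option linter.unusedVariables false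
set_option linter.unusedSectionVars false

open Filter Topology Finset

namespace Crest.Agent.R136.Gf356

open Crest.Agent.R138.Ex926 (Base U)

/-- one finite configuration with relative coordinates -/
structure RCfg (κ : Type) where
  ρ : ℝ
  L : Finset ℕ
  Z : Finset ℕ
  I : Finset (ℕ × ℕ)
  z : ℕ → ℝ
  rel : ℕ → ℕ → ℕ → κ → ℝ

namespace RCfg

variable {κ : Type} (G : RCfg κ)

/-- `(l, k)` lies in the box of side exponents `p - ε` around `(i, k)` -/
def loose (p : κ → ℝ) (ε : ℝ) (k i l : ℕ) : Prop := ∀ j, |G.rel k i l j| ≤ G.ρ ^ (p j - ε)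

/-- the lines alive at height `k` -/
def slice (k : ℕ) : Finset ℕ := G.L.filter fun i => (i, k) ∈ G.I

/-- the heights at which the line `i` is alive -/
def hts (i : ℕ) : Finset ℕ := G.Z.filter fun k => (i, k) ∈ G.I

open Classical in
/-- the lines alive at height `k` in the box of side exponents `p - ε` around `i` -/
noncomputable def box (p : κ → ℝ) (ε : ℝ) (i k : ℕ) : Finset ℕ :=
  (G.slice k).filter fun l => G.loose p ε k i l

open Classical in
/-- the heights near height `k` -/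
noncomputable def hbox (x : ℝ) (k : ℕ) : Finset ℕ :=
  G.Z.filter fun k' => |G.z k' - G.z k| ≤ G.ρ ^ x

end RCfg

variable {κ : Type}

/-- uniform counts in boxes of legal side exponents, relative coordinates -/
structure RUnif (B : Base) (G : ℕ → RCfg κ) (Leg : Set (κ → ℝ)) (ν : (κ → ℝ) → ℝ) (D : ℝ) :
    Prop where
  D1 : 1 ≤ D
  base : ∀ n, (G n).ρ = B.d n
  sub : ∀ n, (G n).I ⊆ (G n).L ×ˢ (G n).Z
  nonempty : ∀ n, (G n).I.Nonempty
  refl : ∀ n k i, (i, k) ∈ (G n).I → ∀ j, (G n).rel k i i j = 0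
  symm : ∀ p ∈ Leg, ∀ ε : ℝ, 0 < ε → ∀ᶠ n in (U : Filter ℕ), ∀ k i l, (i, k) ∈ (G n).I →
    (l, k) ∈ (G n).I → (G n).loose p ε k i l → (G n).loose p (D * ε) k l i
  tri : ∀ p ∈ Leg, ∀ ε : ℝ, 0 < ε → ∀ᶠ n in (U : Filter ℕ), ∀ k i l m, (i, k) ∈ (G n).I →
    (l, k) ∈ (G n).I → (m, k) ∈ (G n).I → (G n).loose p ε k i l → (G n).loose p ε k l m →
    (G n).loose p (D * ε) k i m
  low : ∀ p ∈ Leg, ∀ ε : ℝ, 0 < ε → ∀ᶠ n in (U : Filter ℕ), ∀ i k, (i, k) ∈ (G n).I →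
    B.d n ^ (-ν p + ε) ≤ (((G n).box p ε i k).card : ℝ)
  up : ∀ p ∈ Leg, ∀ ε : ℝ, 0 < ε → ∀ᶠ n in (U : Filter ℕ), ∀ i k, (i, k) ∈ (G n).I →
    (((G n).box p ε i k).card : ℝ) ≤ B.d n ^ (-ν p - D * ε)

/-- `RUnif` + alive at a `ρ^o(1)`-part of the heights + Frostman heights -/
structure RModel (B : Base) (G : ℕ → RCfg κ) (σ R : ℝ) (Leg : Set (κ → ℝ)) (ν : (κ → ℝ) → ℝ)
    (D : ℝ) : Prop extends RUnif B G Leg ν D where
  σ_nonneg : 0 ≤ σ
  σ_le : σ ≤ 1
  line : ∀ ε : ℝ, 0 < ε → ∀ᶠ n in (U : Filter ℕ), ∀ i ∈ (G n).L,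
    B.d n ^ ε * ((G n).Z.card : ℝ) ≤ (((G n).hts i).card : ℝ)
  slice : ∀ ε : ℝ, 0 < ε → ∀ᶠ n in (U : Filter ℕ), ∀ k ∈ (G n).Z,
    B.d n ^ ε * ((G n).L.card : ℝ) ≤ (((G n).slice k).card : ℝ)
  frost : ∀ x : ℝ, 0 ≤ x → x ≤ R → ∀ ε : ℝ, 0 < ε → ∀ᶠ n in (U : Filter ℕ), ∀ k ∈ (G n).Z,
    (((G n).hbox x k).card : ℝ) ≤ B.d n ^ (σ * x - ε) * ((G n).Z.card : ℝ)

theorem RCfg.mem_slice {G : RCfg κ} {i k : ℕ} : i ∈ G.slice k ↔ i ∈ G.L ∧ (i, k) ∈ G.I := by
  simp [RCfg.slice]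

theorem RCfg.mem_hts {G : RCfg κ} {i k : ℕ} : k ∈ G.hts i ↔ k ∈ G.Z ∧ (i, k) ∈ G.I := by
  simp [RCfg.hts]

theorem RCfg.mem_box {G : RCfg κ} {p : κ → ℝ} {ε : ℝ} {i l k : ℕ} :
    l ∈ G.box p ε i k ↔ l ∈ G.slice k ∧ G.loose p ε k i l := by
  classical
  unfold RCfg.box
  rw [Finset.mem_filter]

theorem RCfg.box_subset_slice {G : RCfg κ} {p : κ → ℝ} {ε : ℝ} {i k : ℕ} :
    G.box p ε i k ⊆ G.slice k := fun _ h => (RCfg.mem_box.1 h).1

/-- maximal independent subset -/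
theorem exists_indep {ι : Type*} [DecidableEq ι] (T : Finset ι) (R : ι → ι → Prop) :
    ∃ E ⊆ T, (∀ e ∈ E, ∀ e' ∈ E, e ≠ e' → ¬ R e e') ∧
      ∀ t ∈ T, t ∉ E → ∃ e ∈ E, R e t ∨ R t e := by
  obtain ⟨Ind, hInd⟩ : ∃ Ind : Finset ι → Prop,
    ∀ E, Ind E ↔ ∀ e ∈ E, ∀ e' ∈ E, e ≠ e' → ¬ R e e' := ⟨_, fun _ => Iff.rfl⟩
  classical
  have hne : (T.powerset.filter Ind).Nonempty :=
    ⟨∅, Finset.mem_filter.2 ⟨Finset.empty_mem_powerset _, (hInd _).2 (by simp)⟩⟩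
  obtain ⟨E, hE, hmax⟩ := Finset.exists_max_image (T.powerset.filter Ind) (fun E => E.card) hne
  obtain ⟨h1, h2⟩ := Finset.mem_filter.1 hE
  rw [Finset.mem_powerset] at h1
  rw [hInd] at h2
  refine ⟨E, h1, h2, ?_⟩
  intro t ht htE
  by_contra hcon
  push Not at hcon
  have h3 : insert t E ∈ T.powerset.filter Ind := by
    rw [Finset.mem_filter, Finset.mem_powerset, hInd]
    refine ⟨Finset.insert_subset ht h1, ?_⟩
    intro e he e' he' hne'
    rcases Finset.mem_insert.1 he with rfl | he1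
    · rcases Finset.mem_insert.1 he' with rfl | he1'
      · exact absurd rfl hne'
      · exact (hcon e' he1').2
    · rcases Finset.mem_insert.1 he' with rfl | he1'
      · exact (hcon e he1).1
      · exact h2 e he1 e' he1' hne'
  have h4 := hmax _ h3
  rw [Finset.card_insert_of_notMem htE] at h4
  omega

namespace RUnif

variable {B : Base} {G : ℕ → RCfg κ} {Leg : Set (κ → ℝ)} {ν : (κ → ℝ) → ℝ} {D : ℝ}
  (H : RUnif B G Leg ν D)

include H

theorem memL {n i k : ℕ} (h : (i, k) ∈ (G n).I) : i ∈ (G n).L :=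
  (Finset.mem_product.1 (H.sub n h)).1

theorem memZ {n i k : ℕ} (h : (i, k) ∈ (G n).I) : k ∈ (G n).Z :=
  (Finset.mem_product.1 (H.sub n h)).2

theorem memSlice {n i k : ℕ} : i ∈ (G n).slice k ↔ (i, k) ∈ (G n).I := by
  rw [RCfg.mem_slice]
  exact ⟨fun h => h.2, fun h => ⟨H.memL h, h⟩⟩

theorem memHts {n i k : ℕ} : k ∈ (G n).hts i ↔ (i, k) ∈ (G n).I := by
  rw [RCfg.mem_hts]
  exact ⟨fun h => h.2, fun h => ⟨H.memZ h, h⟩⟩

theorem loose_mono {n : ℕ} {p q : κ → ℝ} {ε ε' : ℝ} (hpq : ∀ j, q j ≤ p j) (hε : ε ≤ ε')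
    {k i l : ℕ} (h : (G n).loose p ε k i l) : (G n).loose q ε' k i l := by
  intro j
  refine (h j).trans ?_
  rw [H.base n]
  exact rpow_anti B n (by linarith [hpq j])

theorem loose_self {n : ℕ} (p : κ → ℝ) (ε : ℝ) {k i : ℕ} (h : (i, k) ∈ (G n).I) :
    (G n).loose p ε k i i := by
  intro j
  rw [H.refl n k i h j, abs_zero, H.base n]
  exact (rpos B n _).le

theorem self_mem_box {n : ℕ} (p : κ → ℝ) (ε : ℝ) {k i : ℕ} (h : (i, k) ∈ (G n).I) :
    i ∈ (G n).box p ε i k := RCfg.mem_box.2 ⟨H.memSlice.2 h, H.loose_self p ε h⟩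

/-- the exponents are antitone -/
theorem nu_anti {p p' : κ → ℝ} (hp : p ∈ Leg) (hp' : p' ∈ Leg) (hpp : ∀ j, p j ≤ p' j) :
    ν p' ≤ ν p := by
  have h := le_of_ev B (- ν p') (- ν p) (D + 1) 1 (by
    intro ε hε
    filter_upwards [H.up p hp ε hε, H.low p' hp' ε hε] with n h1 h2
    obtain ⟨⟨i, k⟩, hik⟩ := H.nonempty n
    have hD := H.D1
    rw [one_mul]
    calc B.d n ^ (-ν p' + (D + 1) * ε) ≤ B.d n ^ (-ν p' + ε) := rpow_anti B n (by nlinarith)
      _ ≤ (((G n).box p' ε i k).card : ℝ) := h2 i k hik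
      _ ≤ (((G n).box p ε i k).card : ℝ) := by
          refine mod_cast Finset.card_le_card ?_
          intro l hl
          obtain ⟨l1, l2⟩ := RCfg.mem_box.1 hl
          exact RCfg.mem_box.2 ⟨l1, H.loose_mono hpp le_rfl l2⟩
      _ ≤ _ := (h1 i k hik).trans (rpow_anti B n (by nlinarith)))
  linarith

/-- **nets**: labels with fibres in `r`-boxes; the number of labels is controlled by any set `W`
which contains the `r`-boxes of the points of `T` -/
theorem exists_lab (r : κ → ℝ) (hr : r ∈ Leg) {ε : ℝ} (hε : 0 < ε) :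
    ∀ᶠ n in (U : Filter ℕ), ∀ k, ∀ T ⊆ (G n).slice k, ∀ W : Finset ℕ,
      (∀ t ∈ T, (G n).box r ε t k ⊆ W) →
      ∃ lab : ℕ → ℕ, (∀ t ∈ T, ∀ t' ∈ T, lab t = lab t' → (G n).loose r (D ^ 5 * ε) k t t') ∧
        ((T.image lab).card : ℝ) ≤ (W.card : ℝ) * B.d n ^ (ν r - ε) := by
  classical
  have hD := H.D1
  have hD0 : 0 < D := by linarith
  filter_upwards [H.symm r hr ε hε, H.symm r hr (D ^ 2 * ε) (by positivity),
    H.symm r hr (D ^ 3 * ε) (by positivity), H.tri r hr (D * ε) (by positivity),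
    H.tri r hr (D ^ 4 * ε) (by positivity), H.low r hr ε hε] with n s1 s2 s3 t1 t4 hlow k T hT W hW
  have hpow : ∀ t : ℝ, 0 < B.d n ^ t := fun t => rpos B n t
  obtain ⟨E, hET, hE1, hE2⟩ := exists_indep T (fun e t => (G n).loose r (D ^ 2 * ε) k e t)
  have hI : ∀ t ∈ T, (t, k) ∈ (G n).I := fun t ht => H.memSlice.1 (hT ht)
  -- labels
  have hlab : ∀ t ∈ T, ∃ e ∈ E, (G n).loose r (D ^ 3 * ε) k e t := by
    intro t ht
    by_cases htE : t ∈ E
    · exact ⟨t, htE, H.loose_self _ _ (hI t ht)⟩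
    · obtain ⟨e, he, h | h⟩ := hE2 t ht htE
      · refine ⟨e, he, H.loose_mono (fun _ => le_rfl) ?_ h⟩
        have : D ^ 2 ≤ D ^ 3 := pow_le_pow_right₀ hD (by norm_num)
        exact mul_le_mul_of_nonneg_right this hε.le
      · refine ⟨e, he, ?_⟩
        have := s2 k t e (hI t ht) (hI e (hET he)) h
        have e1 : D * (D ^ 2 * ε) = D ^ 3 * ε := by ring
        rwa [e1] at this
  choose! lab hlab1 hlab2 using hlab
  refine ⟨lab, ?_, ?_⟩
  · intro t ht t' ht' heq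
    have a1 := hlab2 t ht
    have a2 := hlab2 t' ht'
    rw [← heq] at a2
    have hIe := hI _ (hET (hlab1 t ht))
    have a3 := s3 k _ t hIe (hI t ht) a1
    have e1 : D * (D ^ 3 * ε) = D ^ 4 * ε := by ring
    rw [e1] at a3
    have a4 : (G n).loose r (D ^ 4 * ε) k (lab t) t' := H.loose_mono (fun _ => le_rfl) (by
      have : D ^ 3 ≤ D ^ 4 := pow_le_pow_right₀ hD (by norm_num)
      exact mul_le_mul_of_nonneg_right this hε.le) a2
    have a5 := t4 k t (lab t) t' (hI t ht) hIe (hI t' ht') a3 a4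
    have e2 : D * (D ^ 4 * ε) = D ^ 5 * ε := by ring
    rwa [e2] at a5
  · -- count
    have hsub : T.image lab ⊆ E := by
      intro e he
      obtain ⟨t, ht, rfl⟩ := Finset.mem_image.1 he
      exact hlab1 t ht
    have hdisj : ∀ e ∈ E, ∀ e' ∈ E, e ≠ e' →
        Disjoint ((G n).box r ε e k) ((G n).box r ε e' k) := by
      intro e he e' he' hne
      rw [Finset.disjoint_left]
      intro l hl hl'
      obtain ⟨l1, l2⟩ := RCfg.mem_box.1 hl
      obtain ⟨m1, m2⟩ := RCfg.mem_box.1 hl'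
      have hIl := H.memSlice.1 l1
      have b2 := s1 k e' l (hI e' (hET he')) hIl m2
      have b3 : (G n).loose r (D * ε) k e l := H.loose_mono (fun _ => le_rfl) (by nlinarith) l2
      have b4 := t1 k e l e' (hI e (hET he)) hIl (hI e' (hET he')) b3 b2
      have e1 : D * (D * ε) = D ^ 2 * ε := by ring
      rw [e1] at b4
      exact hE1 e he e' he' hne b4
    have hcard : ∑ e ∈ E, ((G n).box r ε e k).card ≤ W.card := by
      rw [← Finset.card_biUnion hdisj]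
      refine Finset.card_le_card ?_
      intro l hl
      obtain ⟨e, he, hl1⟩ := Finset.mem_biUnion.1 hl
      exact hW e (hET he) hl1
    have h1 : (E.card : ℝ) * B.d n ^ (-ν r + ε) ≤ (W.card : ℝ) := by
      calc (E.card : ℝ) * B.d n ^ (-ν r + ε) = ∑ e ∈ E, B.d n ^ (-ν r + ε) := by
            rw [Finset.sum_const, nsmul_eq_mul]
        _ ≤ ∑ e ∈ E, (((G n).box r ε e k).card : ℝ) :=
            Finset.sum_le_sum fun e he => hlow e k (hI e (hET he))
        _ ≤ _ := by exact_mod_cast hcard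
    have h2 : B.d n ^ (-ν r + ε) * B.d n ^ (ν r - ε) = 1 := by
      rw [← rpow_add']
      have : -ν r + ε + (ν r - ε) = 0 := by ring
      rw [this, Real.rpow_zero]
    calc ((T.image lab).card : ℝ) ≤ (E.card : ℝ) := by
          exact_mod_cast Finset.card_le_card hsub
      _ = (E.card : ℝ) * B.d n ^ (-ν r + ε) * B.d n ^ (ν r - ε) := by rw [mul_assoc, h2, mul_one]
      _ ≤ _ := mul_le_mul_of_nonneg_right h1 (hpow _).le

/-- a pairwise close set lies, with all its `r`-boxes, in one looser box -/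
theorem sub_loose_box (pT r : κ → ℝ) (hpT : pT ∈ Leg) (hTr : ∀ j, pT j ≤ r j) {ε : ℝ}
    (hε : 0 < ε) :
    ∀ᶠ n in (U : Filter ℕ), ∀ k t0 t, (t0, k) ∈ (G n).I → (t, k) ∈ (G n).I →
      (G n).loose pT ε k t0 t → (G n).box r ε t k ⊆ (G n).box pT (D * ε) t0 k := by
  filter_upwards [H.tri pT hpT ε hε] with n h k t0 t h0 h1 h2 l hl
  obtain ⟨l1, l2⟩ := RCfg.mem_box.1 hl
  exact RCfg.mem_box.2 ⟨l1, h k t0 t l h0 h1 (H.memSlice.1 l1) h2 (H.loose_mono hTr le_rfl l2)⟩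

/-- **number of cells** of a pairwise close set -/
theorem exists_lab_loose (pT r : κ → ℝ) (hpT : pT ∈ Leg) (hr : r ∈ Leg)
    (hTr : ∀ j, pT j ≤ r j) {ε : ℝ} (hε : 0 < ε) :
    ∀ᶠ n in (U : Filter ℕ), ∀ k, ∀ T ⊆ (G n).slice k,
      (∀ i ∈ T, ∀ i' ∈ T, (G n).loose pT ε k i i') →
      ∃ lab : ℕ → ℕ, (∀ t ∈ T, ∀ t' ∈ T, lab t = lab t' → (G n).loose r (D ^ 5 * ε) k t t') ∧
        ((T.image lab).card : ℝ) ≤ B.d n ^ (-(ν pT - ν r) - (D ^ 2 + 1) * ε) := by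
  classical
  have hD := H.D1
  have hD0 : 0 < D := by linarith
  filter_upwards [H.exists_lab r hr hε, H.sub_loose_box pT r hpT hTr hε,
    H.up pT hpT (D * ε) (by positivity)] with n h1 h2 h3 k T hT hTc
  have hpow : ∀ t : ℝ, 0 < B.d n ^ t := fun t => rpos B n t
  rcases T.eq_empty_or_nonempty with rfl | ⟨t0, ht0⟩
  · exact ⟨id, by simp, by simpa using (hpow _).le⟩
  have hI : ∀ t ∈ T, (t, k) ∈ (G n).I := fun t ht => H.memSlice.1 (hT ht)
  obtain ⟨lab, a1, a2⟩ := h1 k T hT ((G n).box pT (D * ε) t0 k)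
    (fun t ht => h2 k t0 t (hI t0 ht0) (hI t ht) (hTc t0 ht0 t ht))
  refine ⟨lab, a1, a2.trans ?_⟩
  calc (((G n).box pT (D * ε) t0 k).card : ℝ) * B.d n ^ (ν r - ε)
      ≤ B.d n ^ (-ν pT - D * (D * ε)) * B.d n ^ (ν r - ε) :=
        mul_le_mul_of_nonneg_right (h3 t0 k (hI t0 ht0)) (hpow _).le
    _ = _ := by
        rw [← rpow_add']
        congr 1
        ring

end RUnif

end Crest.Agent.R136.Gf356
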