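import Crest.Agent.R136.Gr0_356
import Crest.Agent.R136.Gr1_356

/-!
# R136: transfer principle and Kaufman, relative coordinates with walls (helper356)

* `transfer_R`, `kauf_R`, `kauf_rate_R`;
* `GUnif.toR`, `GModel.toR`: absolute coordinates are an instance.
-/

set_option autoImplicit false
set_option linter.unusedVariables false
set_option linter.unusedSectionVars false

open Filter Topology Finset

namespace Crest.Agent.R136.Gf356

open Crest.Agent.R138.Ex926 (Base U)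

variable {κ : Type} {B : Base} {G : ℕ → RCfg κ} {Leg : Set (κ → ℝ)} {ν : (κ → ℝ) → ℝ}
  {σ R D : ℝ}

/-- **transfer principle = visible shift**, relative coordinates with walls. -/
theorem transfer_R (H : RModel B G σ R Leg ν D) (p p' pT r : κ → ℝ)
    (hp : p ∈ Leg) (hp' : p' ∈ Leg) (hpT : pT ∈ Leg) (hr : r ∈ Leg) (hTr : ∀ j, pT j ≤ r j)
    (bad : ℕ → ℝ → ℕ → ℕ → Prop)
    (hbad : ∀ ε : ℝ, 0 < ε → ∀ᶠ n in (U : Filter ℕ), ∀ i ∈ (G n).L,
      ∀ T ⊆ ((G n).hts i) ×ˢ ((G n).hts i), (∀ q ∈ T, bad n ε q.1 q.2) →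
      2 * (T.card : ℝ) ≤ (((G n).hts i).card : ℝ) ^ 2)
    (hgeo : ∀ C0 : ℝ, 0 < C0 → ∃ C1 : ℝ, 0 < C1 ∧ ∀ C2 : ℝ, 0 < C2 → ∃ C3 : ℝ, 0 < C3 ∧
      ∀ ε : ℝ, 0 < ε → ∀ᶠ n in (U : Filter ℕ), ∀ k ∈ (G n).Z, ∀ k' ∈ (G n).Z,
      ¬ bad n ε k k' → ∀ i i', (i, k) ∈ (G n).I → (i, k') ∈ (G n).I → (i', k) ∈ (G n).I →
      (i', k') ∈ (G n).I → (G n).loose p (C0 * ε) k i i' →
      (G n).loose pT (C1 * ε) k' i i' ∧
      ((G n).loose r (C2 * ε) k' i i' → (G n).loose p' (C3 * ε) k i i')) :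
    ν p - ν p' ≤ ν pT - ν r := by
  classical
  have hD := H.D1
  have hD0 : 0 < D := by linarith
  obtain ⟨C1, hC1, hgeo1⟩ := hgeo (D ^ 5) (by positivity)
  obtain ⟨C3, hC3, hgeo2⟩ := hgeo1 (D ^ 5 * C1) (by positivity)
  have key := le_of_ev B (-ν p) (-(ν pT - ν r) - ν p') ((D ^ 2 + 1) * C1 + D * C3 + 6) 1 (by
    intro ε hε
    have hC1ε : 0 < C1 * ε := by positivity
    have hC3ε : 0 < C3 * ε := by positivity
    filter_upwards [H.line ε hε, hbad ε hε, hgeo2 ε hε, H.exists_lab p hp hε,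
      H.exists_lab_loose pT r hpT hr hTr hC1ε, H.up p' hp' (C3 * ε) hC3ε,
      ev_const_le B hε 2] with n hline hbadn hgeon hlabp hcells hup h2
    have hpow : ∀ t : ℝ, 0 < B.d n ^ t := fun t => rpos B n t
    obtain ⟨⟨i1, k1⟩, hI1⟩ := H.nonempty n
    have hLne : (G n).L.Nonempty := ⟨i1, H.memL hI1⟩
    have hZne : (G n).Z.Nonempty := ⟨k1, H.memZ hI1⟩
    have hL0 : (0 : ℝ) < (G n).L.card := by exact_mod_cast hLne.card_pos
    -- good pair
    obtain ⟨k, hk, k', hk', hnb, hcard⟩ := good_pair (G n).L (G n).Z (fun i k => (i, k) ∈ (G n).I)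
      (fun k k' => bad n ε k k') (hpow ε) hLne hZne
      (by intro i hi; exact hline i hi)
      (by
        intro i hi
        refine hbadn i hi _ (Finset.filter_subset _ _) ?_
        intro q hq
        exact (Finset.mem_filter.1 hq).2)
    set T0 := (G n).L.filter fun i => (i, k) ∈ (G n).I ∧ (i, k') ∈ (G n).I with hT0
    have hT0pos : (0 : ℝ) < T0.card := by
      have e1 := hpow ε
      exact lt_of_lt_of_le (by positivity) hcard
    have hT0ne : T0.Nonempty := by rw [← Finset.card_pos]; exact_mod_cast hT0pos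
    -- cells at `k`
    obtain ⟨lab, hlab1, hlab2⟩ := hlabp k T0 (fun i hi =>
      H.memSlice.2 (Finset.mem_filter.1 hi).2.1) (G n).L (fun t _ =>
        RCfg.box_subset_slice.trans (Finset.filter_subset _ _))
    obtain ⟨i0, hi0, hfib⟩ := exists_fibre T0 lab hT0ne hlab2
    set S := T0.filter fun i => lab i = lab i0 with hS
    have hSI : ∀ i ∈ S, (i, k) ∈ (G n).I ∧ (i, k') ∈ (G n).I := by
      intro i hi
      exact (Finset.mem_filter.1 (Finset.mem_filter.1 hi).1).2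
    have hSnear : ∀ i ∈ S, ∀ i' ∈ S, (G n).loose p (D ^ 5 * ε) k i i' := by
      intro i hi i' hi'
      obtain ⟨a1, a2⟩ := Finset.mem_filter.1 hi
      obtain ⟨b1, b2⟩ := Finset.mem_filter.1 hi'
      exact hlab1 i a1 i' b1 (by rw [a2, b2])
    -- lower bound of `S`
    have hSlow : B.d n ^ (-ν p + 5 * ε) ≤ (S.card : ℝ) := by
      have g1 : (B.d n ^ ε) ^ 2 / 2 * ((G n).L.card : ℝ) ≤
          (G n).L.card * B.d n ^ (ν p - ε) * (S.card : ℝ) := hcard.trans hfib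
      have g2 : (B.d n ^ ε) ^ 2 / 2 ≤ B.d n ^ (ν p - ε) * (S.card : ℝ) := by
        have : (B.d n ^ ε) ^ 2 / 2 * ((G n).L.card : ℝ) ≤
            (B.d n ^ (ν p - ε) * (S.card : ℝ)) * ((G n).L.card : ℝ) := by linarith
        exact le_of_mul_le_mul_right this hL0
      have g3 : B.d n ^ (3 * ε) ≤ (B.d n ^ ε) ^ 2 / 2 := by
        have a1 : B.d n ^ (3 * ε) = (B.d n ^ ε) ^ 2 * B.d n ^ ε := by
          rw [sq, ← rpow_add', ← rpow_add']; congr 1; ring
        have a2 : B.d n ^ ε ≤ 1 / 2 := by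
          have a3 : B.d n ^ ε * B.d n ^ (-ε) = 1 := by
            rw [← rpow_add', add_neg_cancel, Real.rpow_zero]
          have a4 := hpow ε
          nlinarith
        rw [a1]
        have := hpow ε
        nlinarith [sq_nonneg (B.d n ^ ε)]
      have g4 : B.d n ^ (3 * ε) ≤ (S.card : ℝ) * B.d n ^ (ν p - ε) := by
        exact (g3.trans g2).trans (le_of_eq (mul_comm _ _))
      have g5 : B.d n ^ (-ν p + 4 * ε) * B.d n ^ (ν p - ε) = B.d n ^ (3 * ε) := by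
        rw [← rpow_add']; congr 1; ring
      rw [← g5] at g4
      exact (rpow_anti B n (by linarith)).trans (le_of_mul_le_mul_right g4 (hpow _))
    -- cells at `k'`
    have hSsl : S ⊆ (G n).slice k' := fun i hi => H.memSlice.2 (hSI i hi).2
    have hgeoS : ∀ i ∈ S, ∀ i' ∈ S, (G n).loose pT (C1 * ε) k' i i' ∧
        ((G n).loose r (D ^ 5 * C1 * ε) k' i i' → (G n).loose p' (C3 * ε) k i i') := by
      intro i hi i' hi'
      exact hgeon k hk k' hk' hnb i i' (hSI i hi).1 (hSI i hi).2 (hSI i' hi').1 (hSI i' hi').2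
        (hSnear i hi i' hi')
    obtain ⟨lab', hlab1', hlab2'⟩ := hcells k' S hSsl (fun i hi i' hi' => (hgeoS i hi i' hi').1)
    have hSne : S.Nonempty := ⟨i0, Finset.mem_filter.2 ⟨hi0, rfl⟩⟩
    obtain ⟨i2, hi2, hfib2⟩ := exists_fibre S lab' hSne hlab2'
    have hfc : ((S.filter fun i => lab' i = lab' i2).card : ℝ) ≤
        B.d n ^ (-ν p' - D * (C3 * ε)) := by
      refine le_trans ?_ (hup i2 k (hSI i2 hi2).1)
      refine mod_cast Finset.card_le_card ?_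
      intro i hi
      obtain ⟨b1, b2⟩ := Finset.mem_filter.1 hi
      refine RCfg.mem_box.2 ⟨H.memSlice.2 (hSI i b1).1, ?_⟩
      refine (hgeoS i2 hi2 i b1).2 ?_
      have := hlab1' i2 hi2 i b1 b2.symm
      have e1 : D ^ 5 * (C1 * ε) = D ^ 5 * C1 * ε := by ring
      rwa [e1] at this
    calc B.d n ^ (-ν p + ((D ^ 2 + 1) * C1 + D * C3 + 6) * ε)
        ≤ B.d n ^ (-ν p + 5 * ε) := rpow_anti B n (by
          have : 0 ≤ ((D ^ 2 + 1) * C1 + D * C3) * ε := by positivity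
          nlinarith)
      _ ≤ (S.card : ℝ) := hSlow
      _ ≤ _ := hfib2
      _ ≤ B.d n ^ (-(ν pT - ν r) - (D ^ 2 + 1) * (C1 * ε)) * B.d n ^ (-ν p' - D * (C3 * ε)) :=
          mul_le_mul_of_nonneg_left hfc (hpow _).le
      _ = B.d n ^ (-(ν pT - ν r) - ν p' - ((D ^ 2 + 1) * C1 + D * C3) * ε) := by
          rw [← rpow_add']; congr 1; ring
      _ ≤ B.d n ^ (-(ν pT - ν r) - ν p' - ((D ^ 2 + 1) * C1 + D * C3 + 6) * ε) :=
          rpow_anti B n (by nlinarith)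
      _ = _ := by rw [one_mul])
  linarith

/-- **Kaufman on one fibre**, relative coordinates with walls.  Fibre = the loose box
`box pS ε` around the centre `(i0 n, k0 n)`; `F n k i` = value of the functional at the height `k`,
`A n i` = its value at the centre height, `V n i` = velocity, `φ n k` = multiplier, `Zg n` = good
heights; loose `r`-boxes at good heights have `F`-width `≤ ρ^(x - C1 ε)` (`hlink`).  All
hypotheses are asked with losses `ρ^(-C1 ε)`. -/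
theorem kauf_R (H : RUnif B G Leg ν D) (i0 k0 : ℕ → ℕ)
    (h0 : ∀ᶠ n in (U : Filter ℕ), (i0 n, k0 n) ∈ (G n).I) (pS pT r : κ → ℝ)
    (hpS : pS ∈ Leg) (hpT : pT ∈ Leg) (hr : r ∈ Leg) (hTr : ∀ j, pT j ≤ r j) {x τ : ℝ}
    (hx : 0 < x) (hτ0 : 0 ≤ τ) (hτ1 : τ ≤ 1)
    (F : ℕ → ℕ → ℕ → ℝ) (A V : ℕ → ℕ → ℝ) (φ : ℕ → ℕ → ℝ) (Zg : ℕ → Finset ℕ)
    (hZg : ∀ᶠ n in (U : Filter ℕ), (Zg n).Nonempty) {J : ℕ} (hJ : 0 < J) (Q : ℕ → κ → ℝ)
    (hQm : ∀ j ≤ J, Q j ∈ Leg) {C1 : ℝ} (hC1 : 0 < C1)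
    (hφ : ∀ ε : ℝ, 0 < ε → ∀ᶠ n in (U : Filter ℕ), ∀ k ∈ Zg n, |φ n k| ≤ B.d n ^ (-(C1 * ε)))
    (hV : ∀ ε : ℝ, 0 < ε → ∀ᶠ n in (U : Filter ℕ), ∀ i ∈ (G n).box pS ε (i0 n) (k0 n),
      ∀ i' ∈ (G n).box pS ε (i0 n) (k0 n), |V n i - V n i'| ≤ B.d n ^ (-(C1 * ε)))
    (hF : ∀ ε : ℝ, 0 < ε → ∀ᶠ n in (U : Filter ℕ), ∀ k ∈ Zg n,
      ∀ i ∈ (G n).box pS ε (i0 n) (k0 n), ∀ i' ∈ (G n).box pS ε (i0 n) (k0 n),
      (i, k) ∈ (G n).I → (i', k) ∈ (G n).I →
      |F n k i - F n k i' - ((A n i - A n i') + φ n k * (V n i - V n i'))|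
        ≤ B.d n ^ (x - C1 * ε))
    (hlink : ∀ ε : ℝ, 0 < ε → ∀ᶠ n in (U : Filter ℕ), ∀ k ∈ Zg n,
      ∀ i ∈ (G n).box pS ε (i0 n) (k0 n), (i, k) ∈ (G n).I → ∀ l, (l, k) ∈ (G n).I →
      (G n).loose r ε k i l → |F n k l - F n k i| ≤ B.d n ^ (x - C1 * ε))
    (hT : ∀ ε : ℝ, 0 < ε → ∀ᶠ n in (U : Filter ℕ), ∀ k ∈ Zg n,
      ∀ i ∈ (G n).box pS ε (i0 n) (k0 n), ∀ i' ∈ (G n).box pS ε (i0 n) (k0 n),
      (i, k) ∈ (G n).I → (i', k) ∈ (G n).I → (G n).loose pT (C1 * ε) k i i')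
    (hal : ∀ ε : ℝ, 0 < ε → ∀ᶠ n in (U : Filter ℕ), ∀ i ∈ (G n).box pS ε (i0 n) (k0 n),
      ∀ T ⊆ Zg n, (∀ k ∈ Zg n, (i, k) ∈ (G n).I → k ∈ T) →
      B.d n ^ (C1 * ε) * ((Zg n).card : ℝ) ≤ (T.card : ℝ))
    (hQ : ∀ C3 : ℝ, 0 < C3 → ∃ C4 : ℝ, 0 < C4 ∧ ∀ j ≤ J, ∀ ε : ℝ, 0 < ε →
      ∀ᶠ n in (U : Filter ℕ),
      ∀ i ∈ (G n).box pS ε (i0 n) (k0 n), ∀ i' ∈ (G n).box pS ε (i0 n) (k0 n),
      |V n i' - V n i| ≤ B.d n ^ (sc x J j - C3 * ε) →
      |A n i' - A n i| ≤ B.d n ^ (sc x J j - C3 * ε) →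
      (G n).loose (Q j) (C4 * ε) (k0 n) i i')
    (hfr : ∀ y : ℝ, 0 ≤ y → y ≤ x → ∀ ε : ℝ, 0 < ε → ∀ᶠ n in (U : Filter ℕ), ∀ k ∈ Zg n,
      ∀ T ⊆ Zg n, (∀ k' ∈ T, |φ n k' - φ n k| ≤ B.d n ^ y) →
      (T.card : ℝ) ≤ B.d n ^ (τ * y - ε) * ((Zg n).card : ℝ)) :
    ∃ j ≤ J, ν pS - ν (Q j) + τ * (x - sc x J (j + 1)) ≤ ν pT - ν r := by
  classical
  have hD := H.D1
  have hD0 : 0 < D := by linarith
  set C : ℝ := C1 + 1 with hC
  have hCpos : 0 < C := by linarith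
  obtain ⟨C4, hC4, hQ'⟩ := hQ (2 * C + 1) (by positivity)
  set C2 : ℝ := D * (D * C) + C + D * C4 + 3 with hC2
  have hDDC : 0 ≤ D * (D * C) := by positivity
  have hDC4 : 0 ≤ D * C4 := by positivity
  refine kauf_exE B (ι := ℕ) (fun ε n => (G n).box pS ε (i0 n) (k0 n)) (fun _ n => Zg n) φ
    (fun n i k => (i, k) ∈ (G n).I) (fun n i k => F n k i)
    A V hx hτ0 hτ1 (C := C) (C2 := C2) (by linarith) (by linarith) (C0 := 3) hJ
    (fun j => ν (Q j)) (fun _ _ => hZg) ?_ ?_ ?_ ?_ ?_ ?_ ?_ ?_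
  · intro ε hε
    filter_upwards [hφ ε hε] with n hn k hk
    exact (hn k hk).trans (rpow_anti B n (by nlinarith))
  · intro ε hε
    filter_upwards [hF ε hε] with n hn k hk i hi i' hi' hI hI'
    exact (hn k hk i hi i' hi' hI hI').trans (rpow_anti B n (by nlinarith))
  · -- size of the fibre
    intro ε hε
    filter_upwards [H.low pS hpS ε hε, h0] with n hn h0n
    refine le_trans (rpow_anti B n ?_) (hn _ _ h0n)
    nlinarith
  · -- cells
    intro ε hε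
    have hCε : 0 < C * ε := by positivity
    have hC1ε : 0 < C1 * ε := by positivity
    filter_upwards [H.sub_loose_box pT r hpT hTr hCε, H.up pT hpT (D * (C * ε)) (by positivity),
      H.low r hr ε hε, hT ε hε, hlink ε hε] with n h1 h2 h3 h4 h5 k hk
    have hpow : ∀ t : ℝ, 0 < B.d n ^ t := fun t => rpos B n t
    set T := ((G n).box pS ε (i0 n) (k0 n)).filter fun i => (i, k) ∈ (G n).I with hTdef
    have goal : (((T.image fun i => ⌊F n k i / B.d n ^ (x - C * ε)⌋).card : ℕ) : ℝ) ≤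
        3 * B.d n ^ (-(ν pT - ν r) - (D * (D * C) + 1) * ε) := by
      rcases T.eq_empty_or_nonempty with hTe | ⟨t0, ht0⟩
      · rw [hTe]; simpa using (hpow _).le
      obtain ⟨b1, b2⟩ := Finset.mem_filter.1 ht0
      have key := cells_le_abs T ((G n).box pT (D * (C * ε)) t0 k) (fun i (_ : Unit) => F n k i)
        (fun _ => B.d n ^ (x - C * ε)) (fun _ => hpow _) (m0 := B.d n ^ (-ν r + ε)) (by
          intro i hi
          obtain ⟨a1, a2⟩ := Finset.mem_filter.1 hi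
          have hloose : (G n).loose pT (C * ε) k t0 i :=
            H.loose_mono (fun _ => le_rfl) (by nlinarith) (h4 k hk t0 b1 i a1 b2 a2)
          have hsub : (G n).box r ε i k ⊆ (G n).box r (C * ε) i k := by
            intro l hl
            obtain ⟨l1, l2⟩ := RCfg.mem_box.1 hl
            exact RCfg.mem_box.2 ⟨l1, H.loose_mono (fun _ => le_rfl) (by nlinarith) l2⟩
          refine ⟨(G n).box r ε i k, hsub.trans (h1 k t0 i b2 a2 hloose), ?_, h3 i k a2⟩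
          intro l hl _
          obtain ⟨l1, l2⟩ := RCfg.mem_box.1 hl
          refine (h5 k hk i a1 a2 l (H.memSlice.1 l1) l2).trans (rpow_anti B n ?_)
          nlinarith)
      simp only [Fintype.card_unit, pow_one] at key
      have e0 : (T.image fun i => ⌊F n k i / B.d n ^ (x - C * ε)⌋).card ≤
          (T.image fun i => fun _ : Unit => ⌊F n k i / B.d n ^ (x - C * ε)⌋).card := by
        have : (T.image fun i => ⌊F n k i / B.d n ^ (x - C * ε)⌋) =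
            (T.image fun i => fun _ : Unit => ⌊F n k i / B.d n ^ (x - C * ε)⌋).image
              fun c => c () := by
          rw [Finset.image_image]
          rfl
        rw [this]
        exact Finset.card_image_le
      have e1 : B.d n ^ (-ν r + ε) * B.d n ^ (ν r - ε) = 1 := by
        rw [← rpow_add']
        have : -ν r + ε + (ν r - ε) = 0 := by ring
        rw [this, Real.rpow_zero]
      calc (((T.image fun i => ⌊F n k i / B.d n ^ (x - C * ε)⌋).card : ℕ) : ℝ)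
          ≤ ((T.image fun i => fun _ : Unit => ⌊F n k i / B.d n ^ (x - C * ε)⌋).card : ℝ) := by
            exact_mod_cast e0
        _ = ((T.image fun i => fun _ : Unit => ⌊F n k i / B.d n ^ (x - C * ε)⌋).card : ℝ) *
            B.d n ^ (-ν r + ε) * B.d n ^ (ν r - ε) := by rw [mul_assoc, e1, mul_one]
        _ ≤ 3 * (((G n).box pT (D * (C * ε)) t0 k).card : ℝ) * B.d n ^ (ν r - ε) :=
            mul_le_mul_of_nonneg_right key (hpow _).le
        _ ≤ 3 * B.d n ^ (-ν pT - D * (D * (C * ε))) * B.d n ^ (ν r - ε) := by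
            refine mul_le_mul_of_nonneg_right ?_ (hpow _).le
            exact mul_le_mul_of_nonneg_left (h2 t0 k b2) (by norm_num)
        _ = _ := by
            rw [mul_assoc, ← rpow_add']
            congr 2
            ring
    refine goal.trans ?_
    refine mul_le_mul_of_nonneg_left (rpow_anti B n ?_) (by norm_num)
    rw [hC2]; nlinarith
  · -- alive
    intro ε hε
    filter_upwards [hal ε hε] with n hn i hi
    refine le_trans ?_ (hn i hi _ (Finset.filter_subset _ _) ?_)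
    · exact mul_le_mul_of_nonneg_right (rpow_anti B n (by nlinarith)) (Nat.cast_nonneg _)
    · intro k hk hI
      exact Finset.mem_filter.2 ⟨hk, hI⟩
  · intro ε hε
    filter_upwards [hV ε hε] with n hn i hi i' hi'
    exact (hn i hi i' hi').trans (rpow_anti B n (by nlinarith))
  · -- close pairs
    intro j hj ε hε
    have hC4ε : 0 < C4 * ε := by positivity
    filter_upwards [hQ' j hj ε hε, H.up (Q j) (hQm j hj) (C4 * ε) hC4ε] with n h1 h2 i hi
    have hI := H.memSlice.1 (RCfg.box_subset_slice hi)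
    have hsub : (((G n).box pS ε (i0 n) (k0 n)).filter fun i' => |V n i' - V n i| ≤
        B.d n ^ (sc x J j - C * ε) ∧ |A n i' - A n i| ≤ B.d n ^ (sc x J j - (2 * C + 1) * ε)) ⊆
        (G n).box (Q j) (C4 * ε) i (k0 n) := by
      intro i' hi'
      obtain ⟨a1, a2, a3⟩ := Finset.mem_filter.1 hi'
      refine RCfg.mem_box.2 ⟨RCfg.box_subset_slice a1, h1 i hi i' a1 (a2.trans ?_) a3⟩
      exact rpow_anti B n (by nlinarith)
    refine le_trans (mod_cast Finset.card_le_card hsub) ((h2 i (k0 n) hI).trans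
      (rpow_anti B n ?_))
    rw [hC2]
    nlinarith
  · -- Frostman
    intro y hy0 hyx ε hε
    rcases le_total (y - ε) 0 with hle | hle
    · refine Filter.Eventually.of_forall fun n k hk => ?_
      have b3 : (((Zg n).filter fun k' => |φ n k' - φ n k| ≤ B.d n ^ (y - ε)).card : ℝ) ≤
          (Zg n).card := by
        exact_mod_cast Finset.card_le_card (Finset.filter_subset _ _)
      refine b3.trans ?_
      have b4 : (1 : ℝ) ≤ B.d n ^ (τ * y - C2 * ε) := by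
        apply Real.one_le_rpow_of_pos_of_le_one_of_nonpos (B.pos n) (B.lt n).le
        have : τ * y ≤ ε := by nlinarith
        rw [hC2]
        nlinarith
      nlinarith [(Nat.cast_nonneg (Zg n).card : (0:ℝ) ≤ _)]
    · filter_upwards [hfr (y - ε) hle (by linarith) ε hε] with n hn k hk
      refine (hn k hk _ (Finset.filter_subset _ _) ?_).trans ?_
      · intro k' hk'
        exact (Finset.mem_filter.1 hk').2
      · refine mul_le_mul_of_nonneg_right (rpow_anti B n ?_) (Nat.cast_nonneg _)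
        rw [hC2]
        nlinarith

/-- elementary: from all `J` to the rate -/
theorem rate_of_forall {x τ f g : ℝ} (hx : 0 < x) (hτ0 : 0 ≤ τ) (hg : 0 < g) {a : ℝ → ℝ} {b : ℝ}
    (h : ∀ J : ℕ, 0 < J → ∃ j ≤ J, a (sc x J j) + τ * (x - sc x J (j + 1)) ≤ b)
    (hlow : ∀ t : ℝ, 0 ≤ t → t ≤ x → (f + g) * t ≤ a t) (hup : b ≤ f * x) : τ ≤ f := by
  by_contra hcon
  push Not at hcon
  set b' := min (τ - f) g with hb
  have hb0 : 0 < b' := lt_min (by linarith) hg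
  obtain ⟨J, hJ⟩ := exists_nat_gt (τ / b')
  have hJ0 : 0 < J := by
    rcases Nat.eq_zero_or_pos J with h | h
    · rw [h] at hJ
      have : 0 ≤ τ / b' := by positivity
      simp at hJ
      linarith
    · exact h
  have hJr : (0 : ℝ) < J := by exact_mod_cast hJ0
  obtain ⟨j, hj, h⟩ := h J hJ0
  have h1 := hlow _ (sc_nonneg hx.le J j) (sc_le hx.le hJ0 hj)
  rw [sc_succ x hJ0] at h
  set t := sc x J j with ht
  have ht0 : 0 ≤ t := sc_nonneg hx.le J j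
  have htx : t ≤ x := sc_le hx.le hJ0 hj
  have h2 : (τ - f) * (x - t) + g * t ≤ τ * (x / J) := by nlinarith
  have h3 : b' * x ≤ (τ - f) * (x - t) + g * t := by
    have e1 : b' ≤ τ - f := min_le_left _ _
    have e2 : b' ≤ g := min_le_right _ _
    nlinarith
  have h4 : b' * x ≤ τ * (x / J) := h3.trans h2
  have h5 : τ < b' * J := by rwa [div_lt_iff₀ hb0, mul_comm] at hJ
  have h6 : τ * (x / J) < b' * x := by
    rw [mul_div_assoc', div_lt_iff₀ hJr]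
    nlinarith
  linarith

/-- **Kaufman, rate form**, relative coordinates with walls. -/
theorem kauf_rate_R (H : RUnif B G Leg ν D) (i0 k0 : ℕ → ℕ)
    (h0 : ∀ᶠ n in (U : Filter ℕ), (i0 n, k0 n) ∈ (G n).I) (pS pT r : κ → ℝ)
    (hpS : pS ∈ Leg) (hpT : pT ∈ Leg) (hr : r ∈ Leg) (hTr : ∀ j, pT j ≤ r j) {x τ : ℝ}
    (hx : 0 < x) (hτ0 : 0 ≤ τ) (hτ1 : τ ≤ 1)
    (F : ℕ → ℕ → ℕ → ℝ) (A V : ℕ → ℕ → ℝ) (φ : ℕ → ℕ → ℝ) (Zg : ℕ → Finset ℕ)
    (hZg : ∀ᶠ n in (U : Filter ℕ), (Zg n).Nonempty) (Q : ℝ → κ → ℝ)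
    (hQm : ∀ t : ℝ, 0 ≤ t → t ≤ x → Q t ∈ Leg) {C1 : ℝ} (hC1 : 0 < C1)
    (hφ : ∀ ε : ℝ, 0 < ε → ∀ᶠ n in (U : Filter ℕ), ∀ k ∈ Zg n, |φ n k| ≤ B.d n ^ (-(C1 * ε)))
    (hV : ∀ ε : ℝ, 0 < ε → ∀ᶠ n in (U : Filter ℕ), ∀ i ∈ (G n).box pS ε (i0 n) (k0 n),
      ∀ i' ∈ (G n).box pS ε (i0 n) (k0 n), |V n i - V n i'| ≤ B.d n ^ (-(C1 * ε)))
    (hF : ∀ ε : ℝ, 0 < ε → ∀ᶠ n in (U : Filter ℕ), ∀ k ∈ Zg n,
      ∀ i ∈ (G n).box pS ε (i0 n) (k0 n), ∀ i' ∈ (G n).box pS ε (i0 n) (k0 n),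
      (i, k) ∈ (G n).I → (i', k) ∈ (G n).I →
      |F n k i - F n k i' - ((A n i - A n i') + φ n k * (V n i - V n i'))|
        ≤ B.d n ^ (x - C1 * ε))
    (hlink : ∀ ε : ℝ, 0 < ε → ∀ᶠ n in (U : Filter ℕ), ∀ k ∈ Zg n,
      ∀ i ∈ (G n).box pS ε (i0 n) (k0 n), (i, k) ∈ (G n).I → ∀ l, (l, k) ∈ (G n).I →
      (G n).loose r ε k i l → |F n k l - F n k i| ≤ B.d n ^ (x - C1 * ε))
    (hT : ∀ ε : ℝ, 0 < ε → ∀ᶠ n in (U : Filter ℕ), ∀ k ∈ Zg n,
      ∀ i ∈ (G n).box pS ε (i0 n) (k0 n), ∀ i' ∈ (G n).box pS ε (i0 n) (k0 n),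
      (i, k) ∈ (G n).I → (i', k) ∈ (G n).I → (G n).loose pT (C1 * ε) k i i')
    (hal : ∀ ε : ℝ, 0 < ε → ∀ᶠ n in (U : Filter ℕ), ∀ i ∈ (G n).box pS ε (i0 n) (k0 n),
      ∀ T ⊆ Zg n, (∀ k ∈ Zg n, (i, k) ∈ (G n).I → k ∈ T) →
      B.d n ^ (C1 * ε) * ((Zg n).card : ℝ) ≤ (T.card : ℝ))
    (hQ : ∀ C3 : ℝ, 0 < C3 → ∃ C4 : ℝ, 0 < C4 ∧ ∀ t : ℝ, 0 ≤ t → t ≤ x → ∀ ε : ℝ, 0 < ε →
      ∀ᶠ n in (U : Filter ℕ),
      ∀ i ∈ (G n).box pS ε (i0 n) (k0 n), ∀ i' ∈ (G n).box pS ε (i0 n) (k0 n),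
      |V n i' - V n i| ≤ B.d n ^ (t - C3 * ε) → |A n i' - A n i| ≤ B.d n ^ (t - C3 * ε) →
      (G n).loose (Q t) (C4 * ε) (k0 n) i i')
    (hfr : ∀ y : ℝ, 0 ≤ y → y ≤ x → ∀ ε : ℝ, 0 < ε → ∀ᶠ n in (U : Filter ℕ), ∀ k ∈ Zg n,
      ∀ T ⊆ Zg n, (∀ k' ∈ T, |φ n k' - φ n k| ≤ B.d n ^ y) →
      (T.card : ℝ) ≤ B.d n ^ (τ * y - ε) * ((Zg n).card : ℝ))
    {f g : ℝ} (hg : 0 < g) (hlow : ∀ t : ℝ, 0 ≤ t → t ≤ x → (f + g) * t ≤ ν pS - ν (Q t))
    (hup : ν pT - ν r ≤ f * x) : τ ≤ f := by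
  refine rate_of_forall hx hτ0 hg (a := fun t => ν pS - ν (Q t)) (b := ν pT - ν r) ?_ hlow hup
  intro J hJ0
  refine kauf_R H i0 k0 h0 pS pT r hpS hpT hr hTr hx hτ0 hτ1 F A V φ Zg hZg hJ0
    (fun j => Q (sc x J j)) (fun j hj => hQm _ (sc_nonneg hx.le J j) (sc_le hx.le hJ0 hj)) hC1
    hφ hV hF hlink hT hal ?_ hfr
  intro C3 hC3
  obtain ⟨C4, hC4, h4⟩ := hQ C3 hC3
  exact ⟨C4, hC4, fun j hj => h4 _ (sc_nonneg hx.le J j) (sc_le hx.le hJ0 hj)⟩

/-! ### absolute coordinates are an instance -/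

/-- relative form of an absolute configuration -/
def GCfg.toR (G : GCfg κ) : RCfg κ where
  ρ := G.ρ
  L := G.L
  Z := G.Z
  I := G.I
  z := G.z
  rel := fun k i l j => G.co k l j - G.co k i j

theorem GUnif.toR [Fintype κ] {G : ℕ → GCfg κ} (H : GUnif B G R ν) :
    RUnif B (fun n => (G n).toR) {p | ∀ j, 0 ≤ p j ∧ p j ≤ R} ν (Fintype.card κ + 2) where
  D1 := by
    have : (0 : ℝ) ≤ Fintype.card κ := Nat.cast_nonneg _
    linarith
  base := H.base
  sub := H.sub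
  nonempty := H.nonempty
  refl := by
    intro n k i h j
    simp [GCfg.toR]
  symm := by
    intro p hp ε hε
    refine Filter.Eventually.of_forall fun n k i l hi hl h j => ?_
    have h1 := h j
    simp only [GCfg.toR] at h1 ⊢
    rw [abs_sub_comm, H.base n] at h1
    rw [H.base n]
    refine h1.trans (rpow_anti B n ?_)
    have : (0 : ℝ) ≤ Fintype.card κ := Nat.cast_nonneg _
    nlinarith
  tri := by
    intro p hp ε hε
    filter_upwards [ev_const_le B hε 2] with n h2 k i l m hi hl hm h h' j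
    have h1 := h j
    have h1' := h' j
    simp only [GCfg.toR] at h1 h1' ⊢
    rw [H.base n] at h1 h1' ⊢
    have h3 := abs_sub_le ((G n).co k m j) ((G n).co k l j) ((G n).co k i j)
    have h4 : 2 * B.d n ^ (p j - ε) ≤ B.d n ^ (p j - ε - ε) := loss_mul B h2
    refine (h3.trans ?_).trans (h4.trans (rpow_anti B n ?_))
    · linarith
    · have : (0 : ℝ) ≤ Fintype.card κ := Nat.cast_nonneg _
      nlinarith
  low := by
    intro p hp ε hε
    filter_upwards [H.unif p hp ε hε] with n hn i k hik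
    refine (hn i k hik).1.trans ?_
    refine mod_cast Finset.card_le_card ?_
    intro l hl
    obtain ⟨l1, l2⟩ := mem_box.1 hl
    rw [RCfg.mem_box]
    refine ⟨?_, ?_⟩
    · rw [RCfg.mem_slice]
      exact mem_slice.1 l1
    · intro j
      have := l2 j
      simp only [GCfg.toR]
      refine this.trans ?_
      rw [H.base n]
      exact rpow_anti B n (by linarith)
  up := by
    intro p hp ε hε
    filter_upwards [H.card_near_loss p hp hε] with n hn i k hik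
    refine (hn i k hik _ ?_ ?_).trans (rpow_anti B n ?_)
    · intro l hl
      have := RCfg.mem_slice.1 (RCfg.mem_box.1 hl).1
      exact mem_slice.2 this
    · intro l hl j
      have := (RCfg.mem_box.1 hl).2 j
      simp only [GCfg.toR] at this
      rwa [H.base n] at this
    · nlinarith

end Crest.Agent.R136.Gf356
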