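import Crest.Agent.R136.Qg1_926
import Crest.Agent.R136.Gr2_356

/-!
# R136: the window configuration of a class sequence (helper926), part 2

`Wnd` = data of a window (level slots `S`, height slot `kz`, resolution `top`, normalising constants
`kap`, tight monomials `Mw`); `Wnd.Ok` = hypotheses; `Wnd.cfg E` = 356's `RCfg` of the incidences
`E n ⊆ Cl n`:

* fat line `lc` = label at `cut S top 0` (line slots resolved up to `top`);
* height `zc` = label at `cut S 0 top` (level slots resolved up to `top`);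
* `rep n l k` = a chosen incidence of the class with these labels;
* `rel k i l s` = normalised coordinate `crd` of `rep l k` seen from `rep i k` for the line slots.
-/

set_option autoImplicit false
set_option linter.unusedSectionVars false
set_option linter.unusedVariables false

open Filter Topology

namespace Crest.Agent.R136.Qg926

open Finset Crest.Agent.R138.Ex926 Crest.Agent.R136.Net191 Crest.Agent.R136.Gf356

variable {m : ℕ} {ι : ℕ → Type*} [∀ n, DecidableEq (ι n)]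

/-- the slots of `S` from `r`, the others from `p` -/
def cut (S : Finset (Fin m)) (p r : Fin m → ℝ) : Fin m → ℝ := fun s => if s ∈ S then r s else p s

theorem cut_of_mem {S : Finset (Fin m)} {p r : Fin m → ℝ} {s : Fin m} (h : s ∈ S) :
    cut S p r s = r s := if_pos h

theorem cut_of_notMem {S : Finset (Fin m)} {p r : Fin m → ℝ} {s : Fin m} (h : s ∉ S) :
    cut S p r s = p s := if_neg h

theorem cut_self (S : Finset (Fin m)) (p : Fin m → ℝ) : cut S p p = p := by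
  funext s; unfold cut; split_ifs <;> rfl

theorem cut_mono {S : Finset (Fin m)} {p p' r r' : Fin m → ℝ} (h : ∀ s, s ∉ S → p s ≤ p' s)
    (h' : ∀ s, s ∈ S → r s ≤ r' s) : cut S p r ≤ cut S p' r' := by
  intro s
  by_cases hs : s ∈ S
  · rw [cut_of_mem hs, cut_of_mem hs]; exact h' s hs
  · rw [cut_of_notMem hs, cut_of_notMem hs]; exact h s hs

open Classical in
/-- numbering of a finite set -/
noncomputable def enc {α : Type*} (I : Finset α) (i : α) : ℕ :=
  if h : i ∈ I then (I.equivFin ⟨i, h⟩ : ℕ) else I.card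

theorem enc_inj {α : Type*} {I : Finset α} {i j : α} (hi : i ∈ I) (hj : j ∈ I)
    (h : enc I i = enc I j) : i = j := by
  unfold enc at h
  rw [dif_pos hi, dif_pos hj] at h
  have h1 := I.equivFin.injective (Fin.ext h)
  exact congrArg Subtype.val h1

/-- **data of a window** -/
structure Wnd (m : ℕ) (ι : ℕ → Type*) where
  B : Base
  B' : Base
  I : ∀ n, Finset (ι n)
  J : ∀ n, Finset (ι n)
  co : ∀ n, ι n → ι n → Fin m → ℝ
  M : Mons m
  C : ℝ
  X : ℕ → Fin m → ℝ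
  w : ℕ → ℝ
  D : Set (Fin m → ℝ)
  T : ℕ → ℝ
  lam : (Fin m → ℝ) → ℝ
  Cl : ∀ n, Finset (ι n)
  s₀ : ∀ n, ι n
  /-- level slots -/
  S : Finset (Fin m)
  /-- the height slot -/
  kz : Fin m
  /-- resolution -/
  top : Fin m → ℝ
  /-- normalising constants -/
  kap : Fin m → ℝ
  /-- monomials kept in the window (those which are tight at the base points) -/
  Mw : Mons m
  R' : ℝ

namespace Wnd

/-- hypotheses on a window -/
structure Ok (W : Wnd m ι) : Prop where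
  cls : ZCls W.B W.B' W.I W.J W.co W.M W.C W.X W.w W.D W.T W.lam W.Cl W.s₀
  R0 : 0 ≤ W.R'
  leg : Leg W.Mw W.R' ⊆ W.D
  top_leg : W.top ∈ Leg W.Mw W.R'
  lin_leg : cut W.S W.top 0 ∈ Leg W.Mw W.R'
  lev_leg : cut W.S 0 W.top ∈ Leg W.Mw W.R'
  kzS : W.kz ∈ W.S
  kz0 : W.M.mon W.kz = ∅
  kzw : W.Mw.mon W.kz = ∅
  kap : ∀ s, 0 < W.kap s

variable (W : Wnd m ι)

/-- the label at window exponents `c` -/
noncomputable def lab (n : ℕ) (c : Fin m → ℝ) : ι n → ι n := zlab W.B W.I W.co W.M W.C W.X W.w n c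

/-- code of the fat line -/
noncomputable def lc (n : ℕ) (i : ι n) : ℕ := enc (W.I n) (W.lab n (cut W.S W.top 0) i)

/-- code of the height -/
noncomputable def zc (n : ℕ) (i : ι n) : ℕ := enc (W.I n) (W.lab n (cut W.S 0 W.top) i)

/-- normalised coordinates -/
noncomputable def crd (n : ℕ) (i j : ι n) (s : Fin m) : ℝ :=
  W.co n i j s / (W.kap s * W.B.d n ^ W.X n s)

/-- the box of window exponents `c`, constant `K` -/
def bx (n : ℕ) (c : Fin m → ℝ) (K : ℝ) (i j : ι n) : Prop := wbox W.B W.B' W.co W.X n c K i j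

open Classical in
/-- the chosen incidence with fat line `l` and height `k` -/
noncomputable def rep (n : ℕ) (l k : ℕ) : ι n :=
  if h : ∃ i ∈ W.Cl n, W.lc n i = l ∧ W.zc n i = k then h.choose else W.s₀ n

open Classical in
/-- a chosen incidence with height `k` -/
noncomputable def zrep (n : ℕ) (k : ℕ) : ι n :=
  if h : ∃ i ∈ W.Cl n, W.zc n i = k then h.choose else W.s₀ n

theorem rep_spec {n : ℕ} {i : ι n} (hi : i ∈ W.Cl n) :
    W.rep n (W.lc n i) (W.zc n i) ∈ W.Cl n ∧ W.lc n (W.rep n (W.lc n i) (W.zc n i)) = W.lc n i ∧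
      W.zc n (W.rep n (W.lc n i) (W.zc n i)) = W.zc n i := by
  have h : ∃ j ∈ W.Cl n, W.lc n j = W.lc n i ∧ W.zc n j = W.zc n i := ⟨i, hi, rfl, rfl⟩
  unfold rep
  rw [dif_pos h]
  exact h.choose_spec

theorem zrep_spec {n : ℕ} {i : ι n} (hi : i ∈ W.Cl n) :
    W.zrep n (W.zc n i) ∈ W.Cl n ∧ W.zc n (W.zrep n (W.zc n i)) = W.zc n i := by
  have h : ∃ j ∈ W.Cl n, W.zc n j = W.zc n i := ⟨i, hi, rfl⟩
  unfold zrep
  rw [dif_pos h]
  exact h.choose_spec

/-- the configuration of a set of incidences, one `n` -/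
noncomputable def cfg0 (n : ℕ) (E : Finset (ι n)) : RCfg (Fin m) where
  ρ := W.B'.d n
  L := E.image (W.lc n)
  Z := E.image (W.zc n)
  I := E.image fun i => (W.lc n i, W.zc n i)
  z k := W.crd n (W.s₀ n) (W.zrep n k) W.kz
  rel k i l s := if s ∈ W.S then 0 else W.crd n (W.rep n i k) (W.rep n l k) s

/-- a trivial configuration -/
def dummy (m : ℕ) (ρ : ℝ) : RCfg (Fin m) where
  ρ := ρ
  L := {0}
  Z := {0}
  I := {(0, 0)}
  z _ := 0
  rel _ _ _ _ := 0

open Classical in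
/-- **the configurations of the incidences `E n ⊆ Cl n`** -/
noncomputable def cfg (E : ∀ n, Finset (ι n)) (n : ℕ) : RCfg (Fin m) :=
  if E n ⊆ W.Cl n ∧ W.Cl n ⊆ W.I n ∧ (E n).Nonempty then W.cfg0 n (E n)
  else dummy m (W.B'.d n)

/-- good `n`: finite facts -/
structure Good (n : ℕ) : Prop where
  clI : W.Cl n ⊆ W.I n
  s0 : W.s₀ n ∈ W.Cl n
  lab0 : ∀ i ∈ W.Cl n, ∀ j ∈ W.Cl n, W.lab n 0 i = W.lab n 0 j
  leg : ∀ c ∈ Leg W.Mw W.R', Legal W.M (W.X n + W.w n • c)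

variable {W}

theorem Ok.zero_leg (h : W.Ok) : (0 : Fin m → ℝ) ∈ Leg W.Mw W.R' :=
  ⟨⟨fun _ => le_rfl, fun k e _ => by simp⟩, fun _ => h.R0⟩

theorem norm_le_of_Leg {Mw : Mons m} {R : ℝ} (hR : 0 ≤ R) {c : Fin m → ℝ} (hc : c ∈ Leg Mw R) :
    ‖c‖ ≤ R :=
  (pi_norm_le_iff_of_nonneg hR).2 fun s => by
    rw [Real.norm_eq_abs, abs_of_nonneg (hc.1.nonneg s)]; exact hc.2 s

theorem Ok.ev_good (h : W.Ok) : ∀ᶠ n in (U : Filter ℕ), W.Good n := by
  filter_upwards [h.cls.sub, h.cls.csub, h.cls.mem, h.cls.clab, h.cls.legal W.R'] with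
    n h1 h2 h3 h4 h5
  exact ⟨h2.trans h1, h3, h4, fun c hc => h5 c (h.leg hc) (norm_le_of_Leg h.R0 hc)⟩

theorem Ok.C0 (h : W.Ok) : 0 ≤ W.C := (h.cls.chart 0).C0

/-- the constant of equal labels -/
noncomputable def K0 (W : Wnd m ι) : ℝ := cK0 W.M W.C

theorem Ok.K0_one (h : W.Ok) : 1 ≤ W.K0 := cK0_one h.C0

section Finite

variable {n : ℕ}

theorem Ok.near_lab (h : W.Ok) (g : W.Good n) {c : Fin m → ℝ} (hc : c ∈ Leg W.Mw W.R')
    {i j : ι n} (hi : i ∈ W.I n) (hj : j ∈ W.I n) (hl : W.lab n c i = W.lab n c j) :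
    W.bx n c W.K0 i j :=
  h.cls.near_of_zlab (g.leg c hc) hi hj hl

theorem Ok.lab_mem (h : W.Ok) (g : W.Good n) {c : Fin m → ℝ} (hc : c ∈ Leg W.Mw W.R') {i : ι n}
    (hi : i ∈ W.I n) : W.lab n c i ∈ W.I n :=
  net_sub (Net191.lab_mem (h.cls.chart n) (g.leg c hc) (W.B.pos n) (W.B.lt n).le hi)

theorem Ok.lc_eq (h : W.Ok) (g : W.Good n) {i j : ι n} (hi : i ∈ W.I n) (hj : j ∈ W.I n) :
    W.lc n i = W.lc n j ↔ W.lab n (cut W.S W.top 0) i = W.lab n (cut W.S W.top 0) j :=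
  ⟨fun he => enc_inj (h.lab_mem g h.lin_leg hi) (h.lab_mem g h.lin_leg hj) he,
    fun he => by unfold lc; rw [he]⟩

theorem Ok.zc_eq (h : W.Ok) (g : W.Good n) {i j : ι n} (hi : i ∈ W.I n) (hj : j ∈ W.I n) :
    W.zc n i = W.zc n j ↔ W.lab n (cut W.S 0 W.top) i = W.lab n (cut W.S 0 W.top) j :=
  ⟨fun he => enc_inj (h.lab_mem g h.lev_leg hi) (h.lab_mem g h.lev_leg hj) he,
    fun he => by unfold zc; rw [he]⟩

/-- all of the class: natural sides -/
theorem Ok.near0 (h : W.Ok) (g : W.Good n) {i j : ι n} (hi : i ∈ W.Cl n) (hj : j ∈ W.Cl n) :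
    W.bx n 0 W.K0 i j :=
  h.near_lab g h.zero_leg (g.clI hi) (g.clI hj) (g.lab0 i hi j hj)

/-- same fat line: line slots are close -/
theorem Ok.near_lc (h : W.Ok) (g : W.Good n) {i j : ι n} (hi : i ∈ W.Cl n) (hj : j ∈ W.Cl n)
    (hl : W.lc n i = W.lc n j) : W.bx n (cut W.S W.top 0) W.K0 i j :=
  h.near_lab g h.lin_leg (g.clI hi) (g.clI hj) ((h.lc_eq g (g.clI hi) (g.clI hj)).1 hl)

/-- same height: level slots are close -/
theorem Ok.near_zc (h : W.Ok) (g : W.Good n) {i j : ι n} (hi : i ∈ W.Cl n) (hj : j ∈ W.Cl n)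
    (hl : W.zc n i = W.zc n j) : W.bx n (cut W.S 0 W.top) W.K0 i j :=
  h.near_lab g h.lev_leg (g.clI hi) (g.clI hj) ((h.zc_eq g (g.clI hi) (g.clI hj)).1 hl)

theorem side_pos (W : Wnd m ι) (n : ℕ) (c : Fin m → ℝ) (s : Fin m) :
    0 < W.B.d n ^ W.X n s * W.B'.d n ^ c s :=
  mul_pos (Real.rpow_pos_of_pos (W.B.pos n) _) (Real.rpow_pos_of_pos (W.B'.pos n) _)

theorem bx_mono {c : Fin m → ℝ} {K K' : ℝ} (hK : K ≤ K') {i j : ι n} (h : W.bx n c K i j) :
    W.bx n c K' i j := fun s => (h s).trans (mul_le_mul_of_nonneg_right hK (side_pos W n c s).le)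

theorem side_anti (W : Wnd m ι) (n : ℕ) {c c' : Fin m → ℝ} {s : Fin m} (h : c' s ≤ c s) :
    W.B.d n ^ W.X n s * W.B'.d n ^ c s ≤ W.B.d n ^ W.X n s * W.B'.d n ^ c' s :=
  mul_le_mul_of_nonneg_left (Real.rpow_le_rpow_of_exponent_ge (W.B'.pos n) (W.B'.lt n).le h)
    (Real.rpow_nonneg (W.B.pos n).le _)

theorem bx_anti {c c' : Fin m → ℝ} (hc : c' ≤ c) {K : ℝ} (hK : 0 ≤ K) {i j : ι n}
    (h : W.bx n c K i j) : W.bx n c' K i j := fun s =>
  (h s).trans (mul_le_mul_of_nonneg_left (side_anti W n (hc s)) hK)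

/-- same fat line and same height -/
theorem Ok.near_top (h : W.Ok) (g : W.Good n) {i j : ι n} (hi : i ∈ W.Cl n) (hj : j ∈ W.Cl n)
    (hl : W.lc n i = W.lc n j) (hz : W.zc n i = W.zc n j) : W.bx n W.top W.K0 i j := by
  intro s
  by_cases hs : s ∈ W.S
  · have := h.near_zc g hi hj hz s
    rwa [cut_of_mem hs] at this
  · have := h.near_lc g hi hj hl s
    rwa [cut_of_notMem hs] at this

theorem Ok.tri (h : W.Ok) (g : W.Good n) {c : Fin m → ℝ} (hc : c ∈ Leg W.Mw W.R') {K : ℝ}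
    (hK : 1 ≤ K) {i j l : ι n} (hi : i ∈ W.I n) (hj : j ∈ W.I n) (hl : l ∈ W.I n)
    (h1 : W.bx n c K i j) (h2 : W.bx n c K j l) : W.bx n c (triC W.M W.C K) i l :=
  h.cls.near_iff.1 ((h.cls.chart n).tri (g.leg c hc) (W.B.pos n) (W.B.lt n).le hK hi hj hl
    (h.cls.near_iff.2 h1) (h.cls.near_iff.2 h2))

theorem Ok.symm (h : W.Ok) (g : W.Good n) {c : Fin m → ℝ} (hc : c ∈ Leg W.Mw W.R') {K : ℝ}
    (hK : 1 ≤ K) {i j : ι n} (hi : i ∈ W.I n) (hj : j ∈ W.I n)
    (h1 : W.bx n c K i j) : W.bx n c (symC W.M W.C K m) j i :=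
  h.cls.near_iff.1 ((h.cls.chart n).symm (g.leg c hc) (W.B.pos n) (W.B.lt n).le hK hi hj
    (h.cls.near_iff.2 h1))

/-- the height coordinate is additive -/
theorem Ok.add_kz (h : W.Ok) {i j l : ι n} (hi : i ∈ W.I n) (hj : j ∈ W.I n) (hl : l ∈ W.I n) :
    W.co n i l W.kz = W.co n i j W.kz + W.co n j l W.kz := by
  have h1 := (h.cls.chart n).add i hi j hj l hl W.kz
  rw [h.kz0, Finset.sum_empty, mul_zero] at h1
  have h2 := abs_nonpos_iff.1 h1
  linarith

end Finite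

end Wnd

end Crest.Agent.R136.Qg926
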