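import Mathlib
import Crest.Agent.R138.MkRef_627

/-!
# R136: the abstract marked extremal sequence `MkA` (helper627)

Geometry-free version of `Mk163.Mk` (R138): the test sets (planks of `ℝ³`, planks or quadric slabs of
`ℝ⁴`, ...) enter only through `Geo` (membership of a line over a cell, admissibility, penalised size,
widths).  `MkA.refine` : every dense part contains a dense part which is again marked.
-/

set_option autoImplicit false
set_option linter.unusedVariables false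
set_option linter.unusedSectionVars false

open Finset Filter Topology

namespace Crest.Agent.R136.MkA627

open Crest.Agent.R138.Ex926 Crest.Agent.R138.Dp76 Crest.Agent.R138.Ps627
open Crest.Agent.R138.Mk163 (zc zl rho alive own Negl)
open Crest.Agent.R138.MkRef627 (lc kc own_one alive_mono mem_alive card_class own_lower hh hh_even
  hh_odd exists_num)

/-- Geometry of the test sets. `mem n i J s t` : the line number `t` of stage `n` runs inside the test
set `s` over the cell `J` of level `i`;  `adm` : admissible test sets;  `val` : penalised size (volume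
of the section times reward);  `wid` : widths. -/
structure Geo (σ κ : Type*) where
  mem : ℕ → ℕ → ℤ → σ → ℕ → Prop
  adm : ℕ → ℕ → ℤ → σ → Prop
  val : ℕ → ℕ → ℤ → σ → ℝ
  wid : κ → σ → ℝ

/-- amplitude of level `v` -/
noncomputable def ampA (B : Base) (A : ℕ → ℝ) (c : ℝ → ℝ) (n : ℕ) (v : ℚ) : ℝ :=
  A n * B.d n ^ (-(c v))

open Classical in
/-- the marked extremal sequence, abstract test sets.  `c` = growth exponent (`c v = g v` for full
shading), `Λ` = loss of the own profile (`0` for full shading), `τ j` = exponent of the `j`-th width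
of the marks relative to level `1`. -/
structure MkA {σ κ : Type*} (B : Base) (I : ℕ → Finset (ℕ × ℝ)) (G : Geo σ κ) (lev : ℕ → ℚ → ℕ)
    (A : ℕ → ℝ) (c Λ : ℝ → ℝ) (τ : κ → ℝ → ℝ) (f : ℕ → ℚ → ℕ → ℤ → ℕ) (b : ℕ → ℚ → ℕ → σ)
    (vm : ℕ → ℚ → ℝ) (w : κ → ℕ → ℚ → ℝ) : Prop where
  ne : ∀ᶠ n in (U : Filter ℕ), (I n).Nonempty
  card : ∀ ε : ℝ, 0 < ε → ∀ᶠ n in (U : Filter ℕ), Real.log ((I n).card : ℝ) ≤ B.d n ^ (-ε)
  Apos : ∀ n, 0 < A n
  c0 : c 0 = 0
  lam0 : Λ 0 = 0
  lam : ∀ u v : ℝ, 0 ≤ u → u ≤ v → v ≤ 1 → 0 ≤ Λ v - Λ u ∧ Λ v - Λ u ≤ v - u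
  tau1 : ∀ j, τ j 1 = 0
  lev_mono : ∀ u v : ℚ, 0 ≤ u → u ≤ v → v ≤ 1 → ∀ᶠ n in (U : Filter ℕ), lev n u ≤ lev n v
  lev_lim : ∀ u v : ℚ, 0 ≤ u → u ≤ v → v ≤ 1 →
    Tendsto (fun n => ((lev n v : ℝ) - lev n u) * Real.log 2 / B.L n) U (𝓝 ((v : ℝ) - u))
  /-- all incidences lie in one cell of level `0` -/
  cell0 : ∀ᶠ n in (U : Filter ℕ), ∀ x ∈ I n, ∀ y ∈ I n, zc (lev n 0) x.2 = zc (lev n 0) y.2
  /-- one incidence per line and cell of level `1` -/
  one : ∀ᶠ n in (U : Filter ℕ), ∀ x ∈ I n, ∀ y ∈ I n, x.1 = y.1 →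
    zc (lev n 1) x.2 = zc (lev n 1) y.2 → x = y
  /-- own profile -/
  own : ∀ u v : ℚ, 0 ≤ u → u ≤ v → v ≤ 1 → ∀ ε : ℝ, 0 < ε →
    ∀ᶠ n in (U : Filter ℕ), ∀ x ∈ I n,
      B.d n ^ (-((v : ℝ) - u) + (Λ v - Λ u) + ε) ≤ ((own (I n) (lev n u) (lev n v) x).card : ℝ) ∧
      ((own (I n) (lev n u) (lev n v) x).card : ℝ) ≤ B.d n ^ (-((v : ℝ) - u) + (Λ v - Λ u) - ε)
  /-- D-max at every level, for all admissible test sets -/
  dmax : ∀ v : ℚ, 0 ≤ v → v ≤ 1 → ∀ ε : ℝ, 0 < ε → ∀ᶠ n in (U : Filter ℕ), ∀ J : ℤ, ∀ s : σ,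
    G.adm n (lev n v) J s →
      (((alive (I n) (lev n v) J).filter fun t => G.mem n (lev n v) J s t).card : ℝ) ≤
        B.d n ^ (-ε) * ampA B A c n v * G.val n (lev n v) J s
  /-- the marked classes lie in test sets of common size and widths -/
  mark : ∀ v : ℚ, 0 ≤ v → v ≤ 1 → ∀ᶠ n in (U : Filter ℕ), ∀ J : ℤ,
    ∀ t ∈ alive (I n) (lev n v) J,
      G.mem n (lev n v) J (b n v (f n v t J)) t ∧ G.adm n (lev n v) J (b n v (f n v t J)) ∧
      G.val n (lev n v) J (b n v (f n v t J)) = vm n v ∧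
      ∀ j, G.wid j (b n v (f n v t J)) = w j n v
  /-- ... and are near-maximal -/
  near : ∀ v : ℚ, 0 ≤ v → v ≤ 1 → ∀ ε : ℝ, 0 < ε → ∀ᶠ n in (U : Filter ℕ), ∀ J : ℤ,
    ∀ t ∈ alive (I n) (lev n v) J,
      ampA B A c n v * vm n v ≤ B.d n ^ (-ε) *
        (((alive (I n) (lev n v) J).filter fun s => f n v s J = f n v t J).card : ℝ)
  vpos : ∀ v : ℚ, 0 ≤ v → v ≤ 1 → ∀ᶠ n in (U : Filter ℕ), 0 < vm n v
  wpos : ∀ j, ∀ v : ℚ, 0 ≤ v → v ≤ 1 → ∀ᶠ n in (U : Filter ℕ), 0 < w j n v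
  /-- exponents of the widths relative to level `1` -/
  tau : ∀ j, ∀ v : ℚ, 0 ≤ v → v ≤ 1 →
    Tendsto (fun n => Real.log ((rho (lev n v) / w j n v) / (rho (lev n 1) / w j n 1)) / B.L n) U
      (𝓝 (τ j v))

section

variable {σ κ : Type*} {B : Base} {I : ℕ → Finset (ℕ × ℝ)} {G : Geo σ κ} {lev : ℕ → ℚ → ℕ}
    {A : ℕ → ℝ} {c Λ : ℝ → ℝ} {τ : κ → ℝ → ℝ} {f : ℕ → ℚ → ℕ → ℤ → ℕ} {b : ℕ → ℚ → ℕ → σ}
    {vm : ℕ → ℚ → ℝ} {w : κ → ℕ → ℚ → ℝ}

open Classical in
/-- incidence counts of (line, cell) pairs in a marked sequence. -/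
theorem fib_bounds (h : MkA B I G lev A c Λ τ f b vm w) (v : ℚ) (hv0 : 0 ≤ v)
    (hv1 : v ≤ 1) {ε : ℝ} (hε : 0 < ε) :
    ∀ᶠ n in (U : Filter ℕ), ∀ x ∈ I n,
      B.d n ^ (-(1 - (v : ℝ)) + (Λ 1 - Λ v) + ε) ≤
        (((I n).filter fun y => lc (lev n v) y = lc (lev n v) x).card : ℝ) ∧
      (((I n).filter fun y => lc (lev n v) y = lc (lev n v) x).card : ℝ) ≤
        B.d n ^ (-(1 - (v : ℝ)) + (Λ 1 - Λ v) - ε) := by
  have h1 := h.own v 1 hv0 hv1 le_rfl ε hε
  filter_upwards [h1, h.one] with n hn hone x hx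
  have h2 := hn x hx
  have e1 : ((1 : ℚ) : ℝ) = 1 := by norm_num
  rw [e1, own_one hone] at h2
  exact h2

open Classical in
/-- **a part which keeps its (line, cell) and (class, cell) fibres is again marked.** -/
theorem MkA.of_fib (h : MkA B I G lev A c Λ τ f b vm w) {J' : ℕ → Finset (ℕ × ℝ)}
    (hsub : ∀ n, J' n ⊆ I n) (hne : ∀ᶠ n in (U : Filter ℕ), (J' n).Nonempty)
    (fl : ∀ v : ℚ, 0 ≤ v → v ≤ 1 → ∀ ε : ℝ, 0 < ε → ∀ᶠ n in (U : Filter ℕ), ∀ x ∈ J' n,
      B.d n ^ ε * (((I n).filter fun y => lc (lev n v) y = lc (lev n v) x).card : ℝ) ≤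
        (((J' n).filter fun y => lc (lev n v) y = lc (lev n v) x).card : ℝ))
    (fk : ∀ v : ℚ, 0 ≤ v → v ≤ 1 → ∀ ε : ℝ, 0 < ε → ∀ᶠ n in (U : Filter ℕ), ∀ x ∈ J' n,
      B.d n ^ ε * (((I n).filter fun y => kc (lev n v) (f n v) y = kc (lev n v) (f n v) x).card : ℝ)
        ≤ (((J' n).filter fun y => kc (lev n v) (f n v) y = kc (lev n v) (f n v) x).card : ℝ)) :
    MkA B J' G lev A c Λ τ f b vm w := by
  refine
    { ne := hne
      card := ?_
      Apos := h.Apos
      c0 := h.c0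
      lam0 := h.lam0
      lam := h.lam
      tau1 := h.tau1
      lev_mono := h.lev_mono
      lev_lim := h.lev_lim
      cell0 := by
        filter_upwards [h.cell0] with n hn x hx y hy using hn x ((hsub n) hx) y ((hsub n) hy)
      one := by
        filter_upwards [h.one] with n hn x hx y hy using hn x ((hsub n) hx) y ((hsub n) hy)
      own := ?_
      dmax := ?_
      mark := ?_
      near := ?_
      vpos := h.vpos
      wpos := h.wpos
      tau := h.tau }
  · intro ε hε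
    filter_upwards [h.card ε hε, hne] with n hn hne
    refine le_trans (Real.log_le_log (by exact_mod_cast card_pos.2 hne)
      (by exact_mod_cast card_le_card (hsub n))) hn
  · intro u v hu huv hv ε hε
    have hε3 : 0 < ε / 3 := by linarith
    filter_upwards [h.own u v hu huv hv ε hε, fib_bounds h u hu (huv.trans hv) hε3,
      fib_bounds h v (hu.trans huv) hv hε3, fl u hu (huv.trans hv) (ε / 3) hε3] with n h1 h2 h3 h4 x hx
    have hxI := (hsub n) hx
    have hownle : Crest.Agent.R138.Mk163.own (J' n) (lev n u) (lev n v) x ⊆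
        Crest.Agent.R138.Mk163.own (I n) (lev n u) (lev n v) x := by
      unfold Crest.Agent.R138.Mk163.own
      exact image_subset_image (filter_subset_filter _ (hsub n))
    refine ⟨?_, le_trans (by exact_mod_cast card_le_card hownle) (h1 x hxI).2⟩
    have h5 := own_lower (J := J' n) (i := lev n u) (j := lev n v) (x := x)
      (m := B.d n ^ (-(1 - (v : ℝ)) + (Λ 1 - Λ v) - ε / 3)) (fun y hy =>
        le_trans (by exact_mod_cast card_le_card (filter_subset_filter _ (hsub n)))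
          (h3 y ((hsub n) hy)).2) hx
    have h6 := (mul_le_mul_of_nonneg_left (h2 x hxI).1 (dpow_pos B n (ε / 3)).le).trans
      ((h4 x hx).trans h5)
    rw [← dpow_add] at h6
    have hp := dpow_pos B n (-(1 - (v : ℝ)) + (Λ 1 - Λ v) - ε / 3)
    rw [← div_le_iff₀' hp, ← Real.rpow_sub (B.pos n)] at h6
    refine le_trans (le_of_eq ?_) h6
    congr 1; ring
  · intro v hv0 hv1 ε hε
    filter_upwards [h.dmax v hv0 hv1 ε hε] with n hn J s hs
    refine le_trans ?_ (hn J s hs)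
    exact_mod_cast card_le_card (filter_subset_filter _ (alive_mono (hsub n) _ _))
  · intro v hv0 hv1
    filter_upwards [h.mark v hv0 hv1] with n hn J t ht
    exact hn J t (alive_mono (hsub n) _ _ ht)
  · intro v hv0 hv1 ε hε
    have hε4 : 0 < ε / 4 := by linarith
    filter_upwards [h.near v hv0 hv1 (ε / 4) hε4, fib_bounds h v hv0 hv1 hε4, fk v hv0 hv1 (ε / 4) hε4]
      with n h1 h2 h3 J t ht
    have hsubA : alive (J' n) (lev n v) J ⊆ alive (I n) (lev n v) J := alive_mono (hsub n) _ _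
    obtain ⟨x, hx, hx1, hx2⟩ := mem_alive.1 ht
    have hxI := (hsub n) hx
    have h4 := h1 J t (hsubA ht)
    set a : ℕ := f n v t J with ha
    have kI : ∀ K : Finset (ℕ × ℝ), (K.filter fun y => kc (lev n v) (f n v) y =
        kc (lev n v) (f n v) x) = K.filter fun y => (lc (lev n v) y).2 = J ∧
          f n v (lc (lev n v) y).1 J = a := by
      intro K
      ext y
      rw [mem_filter, mem_filter]
      simp only [kc, lc, Prod.mk.injEq, hx1, hx2, ← ha]
      constructor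
      · rintro ⟨h5, h6, h7⟩
        exact ⟨h5, h7, by rw [← h7]; exact h6⟩
      · rintro ⟨h5, h7, h6⟩
        exact ⟨h5, by rw [h7]; exact h6, h7⟩
    set m₁ : ℝ := B.d n ^ (-(1 - (v : ℝ)) + (Λ 1 - Λ v) + ε / 4) with hm₁
    set m₂ : ℝ := B.d n ^ (-(1 - (v : ℝ)) + (Λ 1 - Λ v) - ε / 4) with hm₂
    have p1 : m₁ * (((alive (I n) (lev n v) J).filter fun s => f n v s J = a).card : ℝ) ≤
        (((I n).filter fun y => kc (lev n v) (f n v) y = kc (lev n v) (f n v) x).card : ℝ) := by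
      rw [card_class (I n) (lev n v) J (fun s => f n v s J) a, kI (I n)]
      have := mul_card_filter_le (n₁ := m₁) (lc (lev n v)) (I n)
        (fun o => o.2 = J ∧ f n v o.1 J = a) (fun y hy => by convert (h2 y hy).1)
      convert this
    have p2 : (((J' n).filter fun y => kc (lev n v) (f n v) y = kc (lev n v) (f n v) x).card : ℝ) ≤
        m₂ * (((alive (J' n) (lev n v) J).filter fun s => f n v s J = a).card : ℝ) := by
      rw [card_class (J' n) (lev n v) J (fun s => f n v s J) a, kI (J' n)]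
      have h7 : ∀ y ∈ J' n, (((J' n).filter fun z => lc (lev n v) z = lc (lev n v) y).card : ℝ) ≤
          m₂ := by
        intro y hy
        have h6 := card_le_card (filter_subset_filter (fun z => lc (lev n v) z = lc (lev n v) y)
          (hsub n))
        have h8 : (((J' n).filter fun z => lc (lev n v) z = lc (lev n v) y).card : ℝ) ≤
          (((I n).filter fun z => lc (lev n v) z = lc (lev n v) y).card : ℝ) := by
          exact_mod_cast h6
        exact h8.trans (h2 y ((hsub n) hy)).2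
      have := card_filter_le_mul (n₂ := m₂) (lc (lev n v)) (J' n)
        (fun o => o.2 = J ∧ f n v o.1 J = a) (fun y hy => by convert h7 y hy)
      convert this
    have p3 := h3 x hx
    set NI : ℝ := (((alive (I n) (lev n v) J).filter fun s => f n v s J = a).card : ℝ) with hNI
    set NJ : ℝ := (((alive (J' n) (lev n v) J).filter fun s => f n v s J = a).card : ℝ) with hNJ
    have p4 : B.d n ^ (ε / 4) * (m₁ * NI) ≤ m₂ * NJ :=
      (mul_le_mul_of_nonneg_left p1 (dpow_pos B n _).le).trans (p3.trans p2)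
    have hm2 : 0 < m₂ := dpow_pos B n _
    have p5 : NI ≤ B.d n ^ (-(3 * (ε / 4))) * NJ := by
      have hpos : 0 < B.d n ^ (ε / 4) * m₁ := mul_pos (dpow_pos B n _) (dpow_pos B n _)
      have h7 : m₂ = B.d n ^ (-(3 * (ε / 4))) * (B.d n ^ (ε / 4) * m₁) := by
        rw [hm₁, hm₂, ← dpow_add, ← dpow_add]; congr 1; ring
      rw [h7] at p4
      have h8 : (B.d n ^ (ε / 4) * m₁) * NI ≤ (B.d n ^ (ε / 4) * m₁) *
          (B.d n ^ (-(3 * (ε / 4))) * NJ) := by linarith
      exact le_of_mul_le_mul_left h8 hpos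
    refine h4.trans ?_
    have h9 : B.d n ^ (-ε) = B.d n ^ (-(ε / 4)) * B.d n ^ (-(3 * (ε / 4))) := by
      rw [← dpow_add]; congr 1; ring
    rw [h9, mul_assoc]
    exact mul_le_mul_of_nonneg_left p5 (dpow_pos B n _).le

open Classical in
/-- **(R) Refinement of an abstract marked extremal sequence.** -/
theorem MkA.refine' (h : MkA B I G lev A c Λ τ f b vm w) {J : ℕ → Finset (ℕ × ℝ)}
    (hJ : Dense B J I) :
    ∃ J' : ℕ → Finset (ℕ × ℝ), (∀ n, J' n ⊆ J n) ∧ Dense B J' J ∧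
      (∀ᶠ n in (U : Filter ℕ), ((J n).card : ℝ) ≤ 2 * ((J' n).card : ℝ)) ∧
      MkA B J' G lev A c Λ τ f b vm w := by
  obtain ⟨J', hsub, hhalf, hfib⟩ := prune_seq (η := fun _ _ => ℕ × ℤ) hJ (hh lev f)
  have hJ'J : Dense B J' J := dense_of_half (by
    filter_upwards [hhalf] with n hn using ⟨(hsub n).1, hn⟩)
  have hJ'I : Dense B J' I := hJ'J.trans hJ
  have fl : ∀ v : ℚ, ∀ ε : ℝ, 0 < ε → ∀ᶠ n in (U : Filter ℕ), ∀ x ∈ J' n,
      B.d n ^ ε * (((I n).filter fun y => lc (lev n v) y = lc (lev n v) x).card : ℝ) ≤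
        (((J' n).filter fun y => lc (lev n v) y = lc (lev n v) x).card : ℝ) := by
    intro v ε hε
    obtain ⟨j, rfl⟩ := exists_num v
    filter_upwards [hfib (2 * j) ε hε] with n hn x hx
    have := hn x hx
    simp only [hh_even] at this
    exact this
  have fk : ∀ v : ℚ, ∀ ε : ℝ, 0 < ε → ∀ᶠ n in (U : Filter ℕ), ∀ x ∈ J' n,
      B.d n ^ ε * (((I n).filter fun y => kc (lev n v) (f n v) y = kc (lev n v) (f n v) x).card : ℝ)
        ≤ (((J' n).filter fun y => kc (lev n v) (f n v) y = kc (lev n v) (f n v) x).card : ℝ) := by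
    intro v ε hε
    obtain ⟨j, rfl⟩ := exists_num v
    filter_upwards [hfib (2 * j + 1) ε hε] with n hn x hx
    have := hn x hx
    simp only [hh_odd] at this
    exact this
  exact ⟨J', fun n => (hsub n).1, hJ'J, hhalf, MkA.of_fib h (fun n => (hsub n).2)
    (hJ'I.nonempty h.ne) (fun v _ _ => fl v) (fun v _ _ => fk v)⟩

/-- **L8**, literal target form: a dense part contains a dense part which is again marked. -/
theorem MkA.refine (h : MkA B I G lev A c Λ τ f b vm w) {J : ℕ → Finset (ℕ × ℝ)}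
    (hJ : Dense B J I) :
    ∃ J' : ℕ → Finset (ℕ × ℝ), Dense B J' J ∧ MkA B J' G lev A c Λ τ f b vm w := by
  obtain ⟨J', -, h2, -, h4⟩ := MkA.refine' h hJ
  exact ⟨J', h2, h4⟩

end

end Crest.Agent.R136.MkA627
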