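import Mathlib
import Crest.Agent.R136.MkA_627

/-!
# R136: flags of an abstract marked sequence (helper627): literal targets for Own / Rot / ArgM / Zoom

Geometry-free version of the second half of `Mk163` (R138).  Flags have values in a type `φ`; for every
slot `j : ι` there is a pseudo-distance `P.d j n`.  In `ℝ³` : one slot, `|cr e e'|`.
-/

set_option autoImplicit false
set_option linter.unusedVariables false

open Finset Filter Topology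

namespace Crest.Agent.R136.MkA627

open Crest.Agent.R138.Ex926 Crest.Agent.R138.Dp76
open Crest.Agent.R138.Mk163 (zc zl rho alive Negl)

/-- pseudo-distances of flags, one for every slot, with quasi-triangle inequality -/
structure PDist (φ ι : Type*) where
  d : ι → ℕ → φ → φ → ℝ
  K : ℝ
  K1 : 1 ≤ K
  nn : ∀ j n a b, 0 ≤ d j n a b
  self : ∀ j n a, d j n a a = 0
  symm : ∀ j n a b, d j n a b = d j n b a
  tri : ∀ j n a b c, d j n a c ≤ K * (d j n a b + d j n b c)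

/-- flag of an incidence at level `v` -/
noncomputable def frA {φ : Type*} (lev : ℕ → ℚ → ℕ) (f : ℕ → ℚ → ℕ → ℤ → ℕ) (e : ℕ → ℚ → ℕ → φ)
    (n : ℕ) (v : ℚ) (x : ℕ × ℝ) : φ := e n v (f n v x.1 (zc (lev n v) x.2))

section targets

variable {σ κ φ ι : Type*} (P : PDist φ ι) (B : Base) (I : ℕ → Finset (ℕ × ℝ)) (G : Geo σ κ)
    (lev : ℕ → ℚ → ℕ) (A : ℕ → ℝ) (c Λ : ℝ → ℝ) (τ : κ → ℝ → ℝ) (f : ℕ → ℚ → ℕ → ℤ → ℕ)
    (b : ℕ → ℚ → ℕ → σ) (vm : ℕ → ℚ → ℝ) (w : κ → ℕ → ℚ → ℝ) (e : ℕ → ℚ → ℕ → φ)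
    (pr : ι → ℕ → ℚ → ℝ)

/-- **(T0)** crude tilt in the slot `j`: two cells of level `v` of one line inside one cell of level
`u`; `er u v` = error exponent. -/
def TiltCrudeA (j : ι) (er : ℝ → ℝ → ℝ) : Prop :=
  ∀ u v : ℚ, 0 ≤ u → u < v → v ≤ 1 → ∀ ε : ℝ, 0 < ε →
    Negl B I fun n x => ∃ y ∈ I n, y.1 = x.1 ∧ zc (lev n u) y.2 = zc (lev n u) x.2 ∧
      pr j n v * B.d n ^ (-(er u v) - ε) ≤ P.d j n (frA lev f e n v x) (frA lev f e n v y)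

/-- **(T)** tilt between two levels in the slot `j`. -/
def TiltTwoA (j : ι) (er : ℝ → ℝ → ℝ) : Prop :=
  ∀ u v : ℚ, 0 ≤ u → u < v → v ≤ 1 → ∀ ε : ℝ, 0 < ε →
    Negl B I fun n x =>
      max (pr j n u) (pr j n v) * B.d n ^ (-(er u v) - ε) ≤
        P.d j n (frA lev f e n u x) (frA lev f e n v x)

open Classical in
/-- **(A)** the marks rotate visibly in the slot `j`, at every level, at rate `k0`. -/
def RotatesA (j : ι) (k0 : ℝ) : Prop :=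
  ∀ u v : ℚ, 0 ≤ u → u < v → v ≤ 1 →
    ∃ γ : ℝ, 0 < γ ∧ Negl B I fun n x =>
      B.d n ^ γ * ((Crest.Agent.R138.Mk163.own (I n) (lev n u) (lev n v) x).card : ℝ) ≤
        ((((I n).filter fun y => y.1 = x.1 ∧ zc (lev n u) y.2 = zc (lev n u) x.2 ∧
          P.d j n (frA lev f e n v x) (frA lev f e n v y) ≤
            pr j n v * B.d n ^ (-(k0 * ((v : ℝ) - u)))).image
              fun y => zc (lev n v) y.2).card : ℝ)

/-- own rotation of a family of flags `fl n x` in the slot `j`, relative scale `sc n` -/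
structure RotFA (j : ι) (fl : ℕ → ℕ × ℝ → φ) (sc : ℕ → ℝ) (C0 : ℝ) (R : ℝ → ℝ) : Prop where
  scpos : ∀ n, 0 < sc n
  bd : ∀ u : ℝ, 0 ≤ u → u ≤ 1 → 0 ≤ R u ∧ R u ≤ C0
  mono : MonotoneOn R (Set.Icc 0 1)
  /-- all flags of one line in one cell of level `u` agree up to `sc d^(R u)` -/
  rot : ∀ u : ℚ, 0 ≤ u → u ≤ 1 → ∀ ε : ℝ, 0 < ε → ∀ᶠ n in (U : Filter ℕ), ∀ x ∈ I n, ∀ y ∈ I n,
    y.1 = x.1 → zc (lev n u) y.2 = zc (lev n u) x.2 →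
      P.d j n (fl n x) (fl n y) ≤ sc n * B.d n ^ (R u - ε)
  /-- ... and not to a smaller scale -/
  tw : ∀ u : ℚ, 0 ≤ u → u < 1 → ∀ r : ℝ, R u < r → r ≤ C0 → ∃ γ : ℝ, 0 < γ ∧
    ∀ᶠ n in (U : Filter ℕ), ∀ x ∈ I n,
      ((((I n).filter fun y => y.1 = x.1 ∧ zc (lev n u) y.2 = zc (lev n u) x.2 ∧
          P.d j n (fl n x) (fl n y) ≤ sc n * B.d n ^ r).card : ℕ) : ℝ) ≤
        B.d n ^ γ * ((Crest.Agent.R138.Mk163.own (I n) (lev n u) (lev n 1) x).card : ℝ)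

/-- **L13** existence of the rotation function, slot `j`: if outside a negligible set all flags of
one line agree up to `sc`, then a dense part has an own rotation function. -/
def ExRotA (j : ι) (fl : ℕ → ℕ × ℝ → φ) (sc : ℕ → ℝ) (C0 : ℝ) : Prop :=
  MkA B I G lev A c Λ τ f b vm w → (∀ n, 0 < sc n) → 0 ≤ C0 →
  (Negl B I fun n x => ∃ y ∈ I n, y.1 = x.1 ∧ sc n < P.d j n (fl n x) (fl n y)) →
  ∃ (J : ℕ → Finset (ℕ × ℝ)) (R : ℝ → ℝ), Dense B J I ∧ MkA B J G lev A c Λ τ f b vm w ∧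
    RotFA P B J lev j fl sc C0 R

/-- **L14 -> L15** natural marks in the slot `j` : flags `fl`, level-`v` flag and `fl` agree up to the
precision, precision exponent and own rotation are both `k v`. -/
structure NatSlot (j : ι) (fl : ℕ → ℕ × ℝ → φ) (sc : ℕ → ℝ) (C0 k : ℝ) : Prop where
  k0 : 0 < k
  /-- precision of the marks = `sc d^(k v)` -/
  prc : ∀ v : ℚ, 0 ≤ v → v ≤ 1 →
    Tendsto (fun n => Real.log (sc n / pr j n v) / B.L n) U (𝓝 (k * v))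
  rot : RotFA P B I lev j fl sc C0 (fun u => k * u)
  close : ∀ v : ℚ, 0 ≤ v → v ≤ 1 → ∀ ε : ℝ, 0 < ε → ∀ᶠ n in (U : Filter ℕ), ∀ x ∈ I n,
    P.d j n (fl n x) (frA lev f e n v x) ≤ pr j n v * B.d n ^ (-ε)

/-- **L9** zoom, general form (as `Mk163.Zoom`). -/
def ZoomA : Prop :=
  MkA B I G lev A c Λ τ f b vm w →
  ∀ (h : ℕ → ℝ) (m : ℕ → ℚ → ℚ) (c' Λ' : ℝ → ℝ) (τ' : κ → ℝ → ℝ),
    (∀ k, 0 < h k) → (∀ k, h k ≤ 1) →
    (∀ k, ∀ x : ℚ, 0 ≤ x → x ≤ 1 → 0 ≤ m k x ∧ m k x ≤ 1) →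
    (∀ x y : ℚ, 0 ≤ x → x ≤ y → y ≤ 1 → ∀ᶠ k in atTop, m k x ≤ m k y) →
    (∀ x y : ℚ, 0 ≤ x → x ≤ y → y ≤ 1 →
      Tendsto (fun k => ((m k y : ℝ) - m k x) / h k) atTop (𝓝 ((y : ℝ) - x))) →
    (∀ x : ℚ, 0 ≤ x → x ≤ 1 →
      Tendsto (fun k => (c (m k x) - c (m k 0)) / h k) atTop (𝓝 (c' x))) →
    (∀ x : ℚ, 0 ≤ x → x ≤ 1 →
      Tendsto (fun k => (Λ (m k x) - Λ (m k 0)) / h k) atTop (𝓝 (Λ' x))) →
    (∀ j, ∀ x : ℚ, 0 ≤ x → x ≤ 1 →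
      Tendsto (fun k => (τ j (m k x) - τ j (m k 1)) / h k) atTop (𝓝 (τ' j x))) →
    (∀ u v : ℝ, 0 ≤ u → u ≤ v → v ≤ 1 → 0 ≤ Λ' v - Λ' u ∧ Λ' v - Λ' u ≤ v - u) →
    c' 0 = 0 → Λ' 0 = 0 → (∀ j, τ' j 1 = 0) →
    ∃ s0 : ℕ → ℕ, Tendsto s0 U atTop ∧ ∀ s : ℕ → ℕ, Tendsto s U atTop →
      (∀ᶠ n in (U : Filter ℕ), s n ≤ s0 n) →
      ∃ (B' : Base) (I' : ℕ → Finset (ℕ × ℝ)) (A' : ℕ → ℝ),
        (∀ n, B'.d n = B.d n ^ h (s n)) ∧ (∀ n, I' n ⊆ I n) ∧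
        MkA B' I' G (fun n x => lev n (m (s n) x)) A' c' Λ' τ' (fun n x => f n (m (s n) x))
          (fun n x => b n (m (s n) x)) (fun n x => vm n (m (s n) x))
          (fun j n x => w j n (m (s n) x))

end targets

end Crest.Agent.R136.MkA627
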