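import Crest.Agent.R136.Net2_191
import Crest.Agent.R138.Qf2_926

/-!
# Abstract triangular charts (helper191), part 2b: the profile in one call

`QProf.near_up`, `QProf.near_num` : counts in balls; `QProf.lip_sharp` : `ν p - ν p' ≤ Σ (p' - p)`;
`exists_nprof` : refinement with a profile on `Leg M R`.
-/

set_option autoImplicit false

open Filter Topology

namespace Crest.Agent.R136.Net191

open Finset Crest.Agent.R138.Ex926

variable {m : ℕ} {B : Base} {ι : ℕ → Type*} [∀ n, DecidableEq (ι n)]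
  {I I' : ∀ n, Finset (ι n)} {co : ∀ n, ι n → ι n → Fin m → ℝ} {M : Mons m} {C : ℝ}
  {P : Set (Fin m → ℝ)} {ν : (Fin m → ℝ) → ℝ}

open Classical in
/-- number of points of `I'` in a ball -/
theorem prof_near_up (h : ∀ n, Chart (I n) (co n) M C) (hP : ∀ p ∈ P, Legal M p)
    (hsub : ∀ᶠ n in (U : Filter ℕ), I' n ⊆ I n)
    (hν : QProf B I' (nlab B I co M C) P ν) {K : ℝ} (hK : 1 ≤ K) {ε : ℝ} (hε : 0 < ε) :
    ∀ᶠ n in (U : Filter ℕ), ∀ p ∈ P, ∀ i ∈ I n,
      (((I' n).filter fun j => Near (co n) (B.d n) p K i j).card : ℝ) ≤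
        B.d n ^ (-(ν p + ε)) := by
  have hN : 0 < cN M C K := cN_pos M (h 0).C0 hK
  filter_upwards [hsub, hν.up (ε / 2) (by positivity),
    B.ev_const_log (Real.log (cN M C K)) (ε := ε / 2) (by positivity)] with n h1 h2 h3 p hp i hi
  set A := (I' n).filter fun j => Near (co n) (B.d n) p K i j with hA
  have hpos : ∀ t : ℝ, 0 < B.d n ^ t := fun t => Real.rpow_pos_of_pos (B.pos n) t
  have c1 : (A.card : ℝ) ≤ B.d n ^ (-(ν p + ε / 2)) * (A.image (nlab B I co M C n p)).card := by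
    have := le_count_mul A (fun _ => (1 : ℝ)) (nlab B I co M C n p)
      (m := B.d n ^ (-(ν p + ε / 2))) (fun x hx => by
        rw [sum_const, nsmul_eq_mul, mul_one]
        have hxI : x ∈ I' n := (mem_filter.1 hx).1
        refine le_trans ?_ (h2 p hp x hxI)
        exact_mod_cast card_le_card (cls_mono (filter_subset _ _) _ _))
    rwa [sum_const, nsmul_eq_mul, mul_one] at this
  have c2 : ((A.image (nlab B I co M C n p)).card : ℝ) ≤ cN M C K := by
    have h4 := card_nlab_le (B := B) h (hP p hp) (hP p hp) le_rfl hK hi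
    simp only [sub_self, Finset.sum_const_zero, neg_zero, Real.rpow_zero, mul_one] at h4
    refine le_trans ?_ h4
    have : A.image (nlab B I co M C n p) ⊆
        ((I n).filter fun j => Near (co n) (B.d n) p K i j).image (nlab B I co M C n p) :=
      image_subset_image (filter_subset_filter _ h1)
    exact_mod_cast card_le_card this
  calc (A.card : ℝ) ≤ B.d n ^ (-(ν p + ε / 2)) * cN M C K :=
        c1.trans (mul_le_mul_of_nonneg_left c2 (hpos _).le)
    _ ≤ B.d n ^ (-(ν p + ε)) := by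
        rw [← B.exp_eq, ← B.exp_eq]
        have h4 : cN M C K = Real.exp (Real.log (cN M C K)) := (Real.exp_log hN).symm
        rw [h4, ← Real.exp_add, Real.exp_le_exp]
        linarith

open Classical in
/-- number of `q`-labels of the `p`-balls, `p ≤ q` -/
theorem prof_near_num (h : ∀ n, Chart (I n) (co n) M C) (hP : ∀ p ∈ P, Legal M p)
    (hsub : ∀ᶠ n in (U : Filter ℕ), I' n ⊆ I n)
    (hν : QProf B I' (nlab B I co M C) P ν) {K : ℝ} (hK : 1 ≤ K) {ε : ℝ} (hε : 0 < ε) :
    ∀ᶠ n in (U : Filter ℕ), ∀ p ∈ P, ∀ q ∈ P, p ≤ q → ∀ i ∈ I n,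
      ((((I' n).filter fun j => Near (co n) (B.d n) p K i j).image
        (nlab B I co M C n q)).card : ℝ) ≤ B.d n ^ (-(ν p - ν q + ε)) := by
  have hN : 0 < cN M C K := cN_pos M (h 0).C0 hK
  filter_upwards [hsub, hν.num (ε / 2) (by positivity),
    B.ev_const_log (Real.log (cN M C K)) (ε := ε / 2) (by positivity)] with
      n h1 h2 h3 p hp q hq hpq i hi
  set A := (I' n).filter fun j => Near (co n) (B.d n) p K i j with hA
  have hpos : ∀ t : ℝ, 0 < B.d n ^ t := fun t => Real.rpow_pos_of_pos (B.pos n) t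
  have c1 : ((A.image (nlab B I co M C n q)).card : ℝ) ≤
      B.d n ^ (-(ν p - ν q + ε / 2)) * (A.image (nlab B I co M C n p)).card := by
    refine card_image_le_mul _ _ _ fun x hx => ?_
    have hxI : x ∈ I' n := (mem_filter.1 hx).1
    refine le_trans ?_ (h2 p hp q hq hpq x hxI)
    exact_mod_cast card_le_card (image_subset_image (cls_mono (filter_subset _ _) _ _))
  have c2 : ((A.image (nlab B I co M C n p)).card : ℝ) ≤ cN M C K := by
    have h4 := card_nlab_le (B := B) h (hP p hp) (hP p hp) le_rfl hK hi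
    simp only [sub_self, Finset.sum_const_zero, neg_zero, Real.rpow_zero, mul_one] at h4
    refine le_trans ?_ h4
    have : A.image (nlab B I co M C n p) ⊆
        ((I n).filter fun j => Near (co n) (B.d n) p K i j).image (nlab B I co M C n p) :=
      image_subset_image (filter_subset_filter _ h1)
    exact_mod_cast card_le_card this
  calc ((A.image (nlab B I co M C n q)).card : ℝ)
      ≤ B.d n ^ (-(ν p - ν q + ε / 2)) * cN M C K :=
        c1.trans (mul_le_mul_of_nonneg_left c2 (hpos _).le)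
    _ ≤ B.d n ^ (-(ν p - ν q + ε)) := by
        rw [← B.exp_eq, ← B.exp_eq]
        have h4 : cN M C K = Real.exp (Real.log (cN M C K)) := (Real.exp_log hN).symm
        rw [h4, ← Real.exp_add, Real.exp_le_exp]
        linarith

/-- **sharp Lipschitz bound** -/
theorem prof_lip (h : ∀ n, Chart (I n) (co n) M C) (hP : ∀ p ∈ P, Legal M p)
    (hsub : ∀ᶠ n in (U : Filter ℕ), I' n ⊆ I n) (hne : ∀ᶠ n in (U : Filter ℕ), (I' n).Nonempty)
    (hν : QProf B I' (nlab B I co M C) P ν) {p q : Fin m → ℝ} (hp : p ∈ P) (hq : q ∈ P)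
    (hpq : p ≤ q) : ν p - ν q ≤ ∑ s, (q s - p s) := by
  classical
  refine le_of_forall_pos_le_add fun ε hε => ?_
  have hK0 : 1 ≤ cK0 M C := cK0_one (h 0).C0
  have hN : 0 < cN M C (cK0 M C) := cN_pos M (h 0).C0 hK0
  have hε4 : 0 < ε / 4 := by positivity
  obtain ⟨n, h1, h2, h3, h4⟩ := (((hν.ev_big hne hε4).and ((hν.up _ hε4).and
    (hsub.and (B.ev_const_log (Real.log (cN M C (cK0 M C))) hε4)))).exists)
  obtain ⟨i, hi, hbig⟩ := h1 p hp
  set A := cls (I' n) (nlab B I co M C n p) i with hA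
  have hL := B.L_pos n
  have c1 : (A.card : ℝ) ≤ B.d n ^ (-(ν q + ε / 4)) * (A.image (nlab B I co M C n q)).card := by
    have := le_count_mul A (fun _ => (1 : ℝ)) (nlab B I co M C n q)
      (m := B.d n ^ (-(ν q + ε / 4))) (fun x hx => by
        rw [sum_const, nsmul_eq_mul, mul_one]
        have hxI : x ∈ I' n := (mem_cls.1 hx).1
        refine le_trans ?_ (h2 q hq x hxI)
        exact_mod_cast card_le_card (cls_mono (cls_subset _ _ _) _ _))
    rwa [sum_const, nsmul_eq_mul, mul_one] at this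
  have c2 : ((A.image (nlab B I co M C n q)).card : ℝ) ≤
      cN M C (cK0 M C) * B.d n ^ (-(∑ s, (q s - p s))) := by
    have h5 := card_nlab_le (B := B) h (hP p hp) (hP q hq) hpq hK0 (h3 hi)
    refine le_trans ?_ h5
    have : A.image (nlab B I co M C n q) ⊆
        ((I n).filter fun j => Near (co n) (B.d n) p (cK0 M C) i j).image
          (nlab B I co M C n q) := by
      refine image_subset_image fun x hx => ?_
      obtain ⟨hxI, hxi⟩ := mem_cls.1 hx
      rw [mem_filter]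
      exact ⟨h3 hxI, near_of_nlab h (hP p hp) (h3 hi) (h3 hxI) hxi.symm⟩
    exact_mod_cast card_le_card this
  have hA1 : (1 : ℝ) ≤ A.card := cls_card_pos hi
  have e1 : (A.card : ℝ) ≤ Real.exp ((ν q + ε / 4) * B.L n) *
      (Real.exp (Real.log (cN M C (cK0 M C))) * Real.exp ((∑ s, (q s - p s)) * B.L n)) := by
    rw [Real.exp_log hN, B.exp_eq, B.exp_eq]
    exact c1.trans (mul_le_mul_of_nonneg_left c2 (Real.rpow_nonneg (B.pos n).le _))
  rw [← Real.exp_add, ← Real.exp_add] at e1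
  have e2 := Real.log_le_log (by linarith) e1
  rw [Real.log_exp] at e2
  have e3 : (ν p - ν q) * B.L n ≤ (∑ s, (q s - p s) + ε) * B.L n := by nlinarith
  exact le_of_mul_le_mul_right e3 hL

/-- **the profile in one call** -/
theorem exists_nprof (h : ∀ n, Chart (I n) (co n) M C) {R : ℝ} (hR : 0 ≤ R)
    (hI : ∀ᶠ n in (U : Filter ℕ), (I n).Nonempty) {c : ℝ} (hc : 0 ≤ c)
    (hcard : ∀ᶠ n in (U : Filter ℕ), ((I n).card : ℝ) ≤ B.d n ^ (-c)) :
    ∃ (I' : ∀ n, Finset (ι n)) (S : ℕ → ℝ), B.Sub S ∧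
      (∀ᶠ n in (U : Filter ℕ), I' n ⊆ I n ∧ (I' n).Nonempty ∧
        ((I n).card : ℝ) ≤ S n * (I' n).card ∧ 1 ≤ S n) ∧
      ∃ ν : (Fin m → ℝ) → ℝ, QProf B I' (nlab B I co M C) (Leg M R) ν ∧
        (∀ p ∈ Leg M R, ∀ q ∈ Leg M R, |ν p - ν q| ≤ m * ‖p - q‖) ∧
        (∀ p ∈ Leg M R, ∀ q ∈ Leg M R, p ≤ q → ν q ≤ ν p ∧ ν p - ν q ≤ ∑ s, (q s - p s)) ∧
        (∀ p ∈ Leg M R, ∀ q ∈ Leg M R, p ⊓ q ∈ Leg M R →
          ν p + ν q ≤ ν (p ⊔ q) + ν (p ⊓ q)) := by
  have hleg : ∀ p ∈ Leg M R, Legal M p := fun p hp => hp.1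
  obtain ⟨I', S, hS, hb, hj⟩ := exists_qprof_many (B := B) (J := Unit) (m := fun _ => m)
    (κ := fun _ n => ι n) (I := I) (f := fun _ => nlab B I co M C) (K := fun _ => (m : ℝ))
    (fun _ => Nat.cast_nonneg m) (P := fun _ => Leg M R) (fun _ => snet_Leg M hR)
    (fun _ => isCompact_Leg M R) (fun _ p hp q hq => Leg.sup hp hq)
    (fun _ => net_QFam h hleg) hI hc hcard
  obtain ⟨ν, hν, hlip, hanti⟩ := hj ()
  have hsub : ∀ᶠ n in (U : Filter ℕ), I' n ⊆ I n := hb.mono fun n hn => hn.1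
  have hne : ∀ᶠ n in (U : Filter ℕ), (I' n).Nonempty := hb.mono fun n hn => hn.2.1
  refine ⟨I', S, hS, hb, ν, hν, hlip, fun p hp q hq hpq => ⟨hanti p hp q hq hpq,
    prof_lip h hleg hsub hne hν hp hq hpq⟩, fun p hp q hq ho => ?_⟩
  exact hν.submod ((net_QJoin h hleg).mono hsub (Set.Subset.refl _)) hne hp hq ho (Leg.sup hp hq)

end Crest.Agent.R136.Net191
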