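import Mathlib
import Crest.Agent.R136.MkF_627
import Crest.Agent.R136.Net2b_191

/-!
# R136, leaf L15 of `ℝ⁴` (helper196): literal input and output, any chart, any number of coordinates

* `PreQ` : marked sequence (`MkA`, linear growth `g v`, own loss `s v`) + triangular chart `co` of its
  incidences + D-max counts of legal chart boxes + position of the marked classes (`r v` = record
  path) + own closeness (`o v`) and own twist.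
* `ExtQ` : profile `ν` of the chart on `Leg M R`, own profile `own`, D-max, record, own facts.

All exponents are relative to the units of the chart; they are shifted so that `r v k > 0` and
`o v k > 0` (units enlarged by powers of `d`), `kz` = index of the height coordinate, `w0 > 0` = shift
of the height.
-/

set_option autoImplicit false
set_option linter.unusedVariables false

open Finset Filter Topology

namespace Crest.Agent.R136.Lq196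

open Crest.Agent.R138.Ex926 (Base U QProf)
open Crest.Agent.R138.Mk163 (zc zl rho alive)
open Crest.Agent.R138.MkRef627 (lc kc)
open Crest.Agent.R136.MkA627
open Crest.Agent.R136.Net191

variable {m : ℕ}

/-- own label: the line and the nearest point of the net -/
noncomputable def olb (B : Base) (I : ℕ → Finset (ℕ × ℝ))
    (co : ∀ n : ℕ, ℕ × ℝ → ℕ × ℝ → Fin m → ℝ) (M : Mons m) (C : ℝ) (n : ℕ) (p : Fin m → ℝ)
    (x : ℕ × ℝ) : ℕ × (ℕ × ℝ) := (x.1, nlab B I co M C n p x)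

open Classical in
/-- **input of L15.** -/
structure PreQ {σ κ : Type*} (B : Base) (I : ℕ → Finset (ℕ × ℝ)) (G : Geo σ κ)
    (lev : ℕ → ℚ → ℕ) (A : ℕ → ℝ) (g s : ℝ) (τ : κ → ℝ → ℝ) (f : ℕ → ℚ → ℕ → ℤ → ℕ)
    (b : ℕ → ℚ → ℕ → σ) (vm : ℕ → ℚ → ℝ) (w : κ → ℕ → ℚ → ℝ)
    (co : ∀ n : ℕ, ℕ × ℝ → ℕ × ℝ → Fin m → ℝ) (M : Mons m) (C R : ℝ) (kz : Fin m) (w0 : ℝ)
    (N0 : ℕ → ℝ) (PD : Set (Fin m → ℝ)) (D : (Fin m → ℝ) → ℝ) (r o : ℝ → Fin m → ℝ) (E : ℝ → ℝ)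
    (T : Fin m → Prop) : Prop where
  mka : MkA B I G lev A (fun v => g * v) (fun v => s * v) τ f b vm w
  chart : ∀ n, Chart (I n) (co n) M C
  /-- the height coordinate, unit = cell of level `0`, enlarged by `d^(-w0)` -/
  zco : ∀ n, ∀ x ∈ I n, ∀ y ∈ I n,
    co n x y kz = B.d n ^ w0 * ((y.2 - x.2) * 2 ^ (lev n 0))
  w00 : 0 < w0
  w0R : w0 + 1 ≤ R
  /-- number of incidences of the unit box -/
  N0pos : ∀ᶠ n in (U : Filter ℕ), 0 < N0 n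
  /-- D-max: number of incidences near `x` -/
  PDne : PD.Nonempty
  PDleg : PD ⊆ Leg M R
  gD : ∀ p ∈ PD, ∀ K : ℝ, 1 ≤ K → ∀ ε : ℝ, 0 < ε → ∀ᶠ n in (U : Filter ℕ), ∀ x ∈ I n,
    (((I n).filter fun y => Near (co n) (B.d n) p K x y).card : ℝ) ≤ N0 n * B.d n ^ (-(D p + ε))
  /-- the record path -/
  rleg : ∀ v : ℝ, 0 ≤ v → v ≤ 1 → r v ∈ Leg M R
  rpos : ∃ δ : ℝ, 0 < δ ∧ ∀ v : ℝ, 0 ≤ v → v ≤ 1 → ∀ k, δ ≤ r v k ∧ δ ≤ o v k
  rlip : ∃ Cr : ℝ, ∀ u v : ℝ, 0 ≤ u → u ≤ v → v ≤ 1 →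
    (∀ k, |r v k - r u k| ≤ Cr * (v - u) ∧ |o v k - o u k| ≤ Cr * (v - u)) ∧
      |E v - E u| ≤ Cr * (v - u)
  /-- the marked class of level `u` of `x` lies in the record box of `x` -/
  gR : ∀ u : ℚ, 0 ≤ u → u ≤ 1 → ∀ ε : ℝ, 0 < ε → ∀ᶠ n in (U : Filter ℕ), ∀ x ∈ I n, ∀ y ∈ I n,
    kc (lev n u) (f n u) y = kc (lev n u) (f n u) x → ∀ k, |co n x y k| ≤ B.d n ^ (r u k - ε)
  /-- size of the marked classes of level `u` -/
  gH : ∀ u : ℚ, 0 ≤ u → u ≤ 1 → Tendsto (fun n => Real.log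
    (ampA B A (fun v => g * v) n u * vm n u * B.d n ^ (-((1 - s) * (1 - u))) / N0 n) / B.L n) U
      (𝓝 (E u))
  /-- own closeness: incidences of one line in one cell of level `u` -/
  oz : ∀ v : ℝ, 0 ≤ v → v ≤ 1 → o v kz = w0 + v
  own_near : ∀ u : ℚ, 0 ≤ u → u ≤ 1 → ∀ ε : ℝ, 0 < ε → ∀ᶠ n in (U : Filter ℕ), ∀ x ∈ I n,
    ∀ y ∈ I n, lc (lev n u) y = lc (lev n u) x → ∀ k, |co n x y k| ≤ B.d n ^ (o u k - ε)
  /-- own twist in the visible slots -/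
  tw : ∀ k, T k → ∀ u : ℚ, 0 ≤ u → u < 1 → ∀ ρ : ℝ, o u k < ρ → ∃ γ : ℝ, 0 < γ ∧
    ∀ᶠ n in (U : Filter ℕ), ∀ x ∈ I n,
      (((I n).filter fun y => lc (lev n u) y = lc (lev n u) x ∧ |co n x y k| ≤ B.d n ^ ρ).card : ℝ) ≤
        B.d n ^ (γ - (1 - s) * (1 - u))

open Classical in
/-- **output of L15.**  `I0` = the set on which the nets are taken, `I ⊆ I0` = a sample. -/
structure ExtQ (B : Base) (I0 I : ℕ → Finset (ℕ × ℝ))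
    (co : ∀ n : ℕ, ℕ × ℝ → ℕ × ℝ → Fin m → ℝ) (M : Mons m) (C R : ℝ) (kz : Fin m) (w0 s : ℝ)
    (PD : Set (Fin m → ℝ)) (D : (Fin m → ℝ) → ℝ) (r o : ℝ → Fin m → ℝ) (E : ℝ → ℝ)
    (T : Fin m → Prop) (ν own : (Fin m → ℝ) → ℝ) (c₀ : ℝ) : Prop where
  ne : ∀ᶠ n in (U : Filter ℕ), (I n).Nonempty
  sub : ∀ n, I n ⊆ I0 n
  card : ∃ c : ℝ, 0 ≤ c ∧ ∀ᶠ n in (U : Filter ℕ), ((I n).card : ℝ) ≤ B.d n ^ (-c)
  chart : ∀ n, Chart (I0 n) (co n) M C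
  s0 : 0 ≤ s
  s1 : s ≤ 1
  /-- profile of the chart -/
  prof : QProf B I (nlab B I0 co M C) (Leg M R) ν
  lip : ∀ p ∈ Leg M R, ∀ q ∈ Leg M R, p ≤ q → 0 ≤ ν p - ν q ∧ ν p - ν q ≤ ∑ k, (q k - p k)
  submod : ∀ p ∈ Leg M R, ∀ q ∈ Leg M R, p ⊓ q ∈ Leg M R → ν p + ν q ≤ ν (p ⊔ q) + ν (p ⊓ q)
  /-- profile of the lines -/
  oprof : QProf B I (olb B I0 co M C) (Leg M R) own
  own_le : ∀ p ∈ Leg M R, ∀ q ∈ Leg M R, p ≤ q → own p - own q ≤ ν p - ν q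
  /-- D-max -/
  dmax : ∀ p ∈ PD, ν p ≤ c₀ + D p
  /-- the record boxes have the full density -/
  record : ∀ v : ℝ, 0 ≤ v → v ≤ 1 → c₀ + E v ≤ ν (r v)
  /-- own counts and own rotation -/
  own_rot : ∀ p ∈ Leg M R, ∀ v : ℝ, 0 ≤ v → v ≤ 1 → p kz = w0 + v → (∀ k, p k ≤ o v k) →
    own p = (1 - s) * (1 - v)
  own_up : ∀ p ∈ Leg M R, ∀ v : ℝ, 0 ≤ v → v ≤ 1 → p kz = w0 + v → own p ≤ (1 - s) * (1 - v)
  /-- own twist -/
  own_tw : ∀ p ∈ Leg M R, ∀ v : ℝ, 0 ≤ v → v < 1 → p kz = w0 + v →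
    (∃ k, T k ∧ o v k < p k) → own p < (1 - s) * (1 - v)
  /-- the points of `I0` in the finest classes (and level-`1` cells) of the sample are dense in `I0` -/
  sat : ∀ ε : ℝ, 0 < ε → ∀ᶠ n in (U : Filter ℕ), B.d n ^ ε * ((I0 n).card : ℝ) ≤
    (((I0 n).filter fun y => ∃ x ∈ I n,
      nlab B I0 co M C n (fun _ => R) y = nlab B I0 co M C n (fun _ => R) x).card : ℝ)

/-- **target of L15** -/
def L15Q : Prop :=
  ∀ {σ κ : Type} (m : ℕ) (B : Base) (I : ℕ → Finset (ℕ × ℝ)) (G : Geo σ κ)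
    (lev : ℕ → ℚ → ℕ) (A : ℕ → ℝ) (g s : ℝ) (τ : κ → ℝ → ℝ) (f : ℕ → ℚ → ℕ → ℤ → ℕ)
    (b : ℕ → ℚ → ℕ → σ) (vm : ℕ → ℚ → ℝ) (w : κ → ℕ → ℚ → ℝ)
    (co : ∀ n : ℕ, ℕ × ℝ → ℕ × ℝ → Fin m → ℝ) (M : Mons m) (C R : ℝ) (kz : Fin m) (w0 : ℝ)
    (N0 : ℕ → ℝ) (PD : Set (Fin m → ℝ)) (D : (Fin m → ℝ) → ℝ) (r o : ℝ → Fin m → ℝ) (E : ℝ → ℝ)
    (T : Fin m → Prop),
    PreQ B I G lev A g s τ f b vm w co M C R kz w0 N0 PD D r o E T →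
    ∃ (I0 I' : ℕ → Finset (ℕ × ℝ)) (ν own : (Fin m → ℝ) → ℝ) (c₀ : ℝ),
      (∀ n, I0 n ⊆ I n) ∧ PreQ B I0 G lev A g s τ f b vm w co M C R kz w0 N0 PD D r o E T ∧
      ExtQ B I0 I' co M C R kz w0 s PD D r o E T ν own c₀

end Crest.Agent.R136.Lq196
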