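import Crest.Agent.R136.Ev4_356

/-!
# R136: window of helper926, chart of helper186: evolution of `W.cfg E` (helper356)

* `Ap`: close pairs of bounded numbers;
* `evoN_lip`, `compN_lip`: the right-hand sides are Lipschitz;
* `own W n k₀ k e`: own motion between two heights (`e` = slot `E` of the line, used only by the slot
  `F_a`);
* `QWnd.evoR`: evolution of `rel`; `QWnd.compR`: composition of `rel`.
-/

set_option autoImplicit false
set_option linter.unusedSectionVars false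
set_option linter.unusedVariables false

open Filter Topology

namespace Crest.Agent.R136.Ev356

open Finset Crest.Agent.R136.NetQ186 Crest.Agent.R136.Net191 Crest.Agent.R136.Qg926
open Crest.Agent.R138.Ex926 (Base U)

/-! ### close pairs -/

/-- `x`, `y` bounded by `m`, at distance at most `c η` -/
structure Ap (η m c x y : ℝ) : Prop where
  l : |x| ≤ m
  r : |y| ≤ m
  d : |x - y| ≤ c * η

namespace Ap

variable {η m c x y m' c' x' y' : ℝ}

theorem m0 (h : Ap η m c x y) : 0 ≤ m := (abs_nonneg _).trans h.l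

theorem add (h : Ap η m c x y) (h' : Ap η m' c' x' y') : Ap η (m + m') (c + c') (x + x') (y + y') where
  l := (abs_add_le _ _).trans (add_le_add h.l h'.l)
  r := (abs_add_le _ _).trans (add_le_add h.r h'.r)
  d := by
    have e : x + x' - (y + y') = (x - y) + (x' - y') := by ring
    rw [e, add_mul]
    exact (abs_add_le _ _).trans (add_le_add h.d h'.d)

theorem neg (h : Ap η m c x y) : Ap η m c (-x) (-y) where
  l := by rw [abs_neg]; exact h.l
  r := by rw [abs_neg]; exact h.r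
  d := by
    have e : -x - -y = -(x - y) := by ring
    rw [e, abs_neg]; exact h.d

theorem sub (h : Ap η m c x y) (h' : Ap η m' c' x' y') : Ap η (m + m') (c + c') (x - x') (y - y') := by
  have := h.add h'.neg
  simpa only [sub_eq_add_neg] using this

theorem mul (h : Ap η m c x y) (h' : Ap η m' c' x' y') :
    Ap η (m * m') (c * m' + m * c') (x * x') (y * y') where
  l := by rw [abs_mul]; exact mul_le_mul h.l h'.l (abs_nonneg _) h.m0
  r := by rw [abs_mul]; exact mul_le_mul h.r h'.r (abs_nonneg _) h.m0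
  d := by
    have e : x * x' - y * y' = (x - y) * x' + y * (x' - y') := by ring
    rw [e]
    refine (abs_add_le _ _).trans ?_
    rw [abs_mul, abs_mul]
    have h1 : |x - y| * |x'| ≤ c * η * m' :=
      mul_le_mul h.d h'.l (abs_nonneg _) ((abs_nonneg _).trans h.d)
    have h2 : |y| * |x' - y'| ≤ m * (c' * η) := mul_le_mul h.r h'.d (abs_nonneg _) h.m0
    nlinarith

theorem const (hη : 0 ≤ η) (hx : |x| ≤ m) : Ap η m 0 x x := ⟨hx, hx, by simp⟩

theorem mono (h : Ap η m c x y) (hη : 0 ≤ η) (hc : c ≤ c') : |x - y| ≤ c' * η :=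
  h.d.trans (mul_le_mul_of_nonneg_right hc hη)

end Ap

variable {ι : ℕ → Type*} [∀ n, DecidableEq (ι n)]

/-- all coefficients used by `evoN` and `compN` -/
def CfB (W : Wnd 11 ι) (n : ℕ) (M : ℝ) : Prop :=
  |cf W n 2 5 6| ≤ M ∧ |cf W n 0 1 7| ≤ M ∧ |cf W n 4 5 7| ≤ M ∧ |cf W n 3 6 7| ≤ M ∧
  |cf W n 0 5 8| ≤ M ∧ |cf W n 0 6 9| ≤ M ∧ |cf W n 2 8 9| ≤ M ∧ |cf W n 0 7 10| ≤ M ∧
  |cf W n 4 8 10| ≤ M ∧ |cf W n 3 9 10| ≤ M ∧ |cf W n 2 3 4| ≤ M

theorem evoN_lip {W : Wnd 11 ι} {n : ℕ} {M η : ℝ} (hM : 1 ≤ M) (hη : 0 ≤ η) (hc : CfB W n M)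
    {a a' b b' : Fin 11 → ℝ} (ha : ∀ s, Ap η M 1 (a s) (a' s))
    (hb : ∀ s, s = 1 ∨ s = 5 ∨ s = 6 ∨ s = 7 ∨ s = 8 ∨ s = 9 ∨ s = 10 → Ap η M 1 (b s) (b' s))
    (s : Fin 11) (hs : s = 1 ∨ s = 5 ∨ s = 6 ∨ s = 7 ∨ s = 8 ∨ s = 9 ∨ s = 10) :
    |evoN W n a b s - evoN W n a' b' s| ≤ (18 * M ^ 4) * η := by
  obtain ⟨c256, c017, c457, c367, c058, c069, c289, c0710, c4810, c3910, c234⟩ := hc
  have h1 : 1 ≤ M ^ 4 := one_le_pow₀ hM
  have h2 : M ^ 2 ≤ M ^ 4 := pow_le_pow_right₀ hM (by norm_num)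
  have h3 : M ^ 3 ≤ M ^ 4 := pow_le_pow_right₀ hM (by norm_num)
  have K : ∀ {x : ℝ}, |x| ≤ M → Ap η M 0 x x := fun hx => Ap.const hη hx
  have b1 := hb 1 (by simp)
  have b5 := hb 5 (by simp)
  have b6 := hb 6 (by simp)
  have b7 := hb 7 (by simp)
  have b8 := hb 8 (by simp)
  have b9 := hb 9 (by simp)
  have b10 := hb 10 (by simp)
  rcases hs with rfl | rfl | rfl | rfl | rfl | rfl | rfl
  · simp only [evoN, Matrix.cons_val]
    exact b1.mono hη (by linarith)
  · simp only [evoN, Matrix.cons_val]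
    exact b5.mono hη (by linarith)
  · simp only [evoN, Matrix.cons_val]
    refine (b6.sub ((K c256).mul ((ha 2).mul b5))).mono hη ?_
    linarith
  · simp only [evoN, Matrix.cons_val]
    refine (((b7.add ((Ap.const (m := 2) hη (by norm_num)).mul ((K c017).mul ((ha 0).mul b1)))).sub
      ((K c457).mul ((ha 4).mul b5))).sub ((K c367).mul ((ha 3).mul b6))).mono hη ?_
    linarith
  · simp only [evoN, Matrix.cons_val]
    refine (b8.add ((K c058).mul ((ha 0).mul b5))).mono hη ?_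
    linarith
  · simp only [evoN, Matrix.cons_val]
    refine ((b9.add ((K c069).mul ((ha 0).mul b6))).sub ((K c289).mul ((ha 2).mul
      (b8.add ((K c058).mul ((ha 0).mul b5)))))).mono hη ?_
    linarith
  · simp only [evoN, Matrix.cons_val]
    refine ((((b10.add ((K c0710).mul ((ha 0).mul b7))).add ((K c0710).mul ((ha 0).mul
      ((K c017).mul ((ha 0).mul b1))))).sub ((K c4810).mul ((ha 4).mul
      (b8.add ((K c058).mul ((ha 0).mul b5)))))).sub ((K c3910).mul ((ha 3).mul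
      (b9.add ((K c069).mul ((ha 0).mul b6)))))).mono hη ?_
    linarith

theorem compN_lip {W : Wnd 11 ι} {n : ℕ} {M η : ℝ} (hM : 1 ≤ M) (hη : 0 ≤ η) (hc : CfB W n M)
    {a a' b b' : Fin 11 → ℝ} (ha : ∀ s, Ap η M 1 (a s) (a' s)) (hb : ∀ s, Ap η M 1 (b s) (b' s))
    (s : Fin 11) : |compN W n a b s - compN W n a' b' s| ≤ (18 * M ^ 4) * η := by
  obtain ⟨c256, c017, c457, c367, c058, c069, c289, c0710, c4810, c3910, c234⟩ := hc
  have h1 : 1 ≤ M ^ 4 := one_le_pow₀ hM
  have h2 : M ^ 2 ≤ M ^ 4 := pow_le_pow_right₀ hM (by norm_num)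
  have h3 : M ^ 3 ≤ M ^ 4 := pow_le_pow_right₀ hM (by norm_num)
  have K : ∀ {x : ℝ}, |x| ≤ M → Ap η M 0 x x := fun hx => Ap.const hη hx
  fin_cases s
  · simp only [compN, Matrix.cons_val, Fin.zero_eta]
    exact ((ha 0).add (hb 0)).mono hη (by linarith)
  · simp only [compN, Matrix.cons_val, Fin.mk_one]
    exact ((ha 1).add (hb 1)).mono hη (by linarith)
  · simp only [compN, Matrix.cons_val, Fin.reduceFinMk]
    exact ((ha 2).add (hb 2)).mono hη (by linarith)
  · simp only [compN, Matrix.cons_val, Fin.reduceFinMk]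
    exact ((ha 3).add (hb 3)).mono hη (by linarith)
  · simp only [compN, Matrix.cons_val, Fin.reduceFinMk]
    exact (((ha 4).add (hb 4)).sub ((K c234).mul ((ha 2).mul (hb 3)))).mono hη (by linarith)
  · simp only [compN, Matrix.cons_val, Fin.reduceFinMk]
    exact ((ha 5).add (hb 5)).mono hη (by linarith)
  · simp only [compN, Matrix.cons_val, Fin.reduceFinMk]
    exact (((ha 6).add (hb 6)).add ((K c256).mul ((ha 2).mul (hb 5)))).mono hη (by linarith)
  · simp only [compN, Matrix.cons_val, Fin.reduceFinMk]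
    refine (((((ha 7).add (hb 7)).add ((K c457).mul ((ha 4).mul (hb 5)))).add
      (((K c457).mul (K c234)).mul ((ha 2).mul ((ha 3).mul (hb 5))))).add
      ((K c367).mul ((ha 3).mul (hb 6)))).mono hη ?_
    nlinarith
  · simp only [compN, Matrix.cons_val, Fin.reduceFinMk]
    exact ((ha 8).add (hb 8)).mono hη (by linarith)
  · simp only [compN, Matrix.cons_val, Fin.reduceFinMk]
    exact (((ha 9).add (hb 9)).add ((K c289).mul ((ha 2).mul (hb 8)))).mono hη (by linarith)
  · simp only [compN, Matrix.cons_val, Fin.reduceFinMk]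
    refine (((((ha 10).add (hb 10)).add ((K c4810).mul ((ha 4).mul (hb 8)))).add
      (((K c4810).mul (K c234)).mul ((ha 2).mul ((ha 3).mul (hb 8))))).add
      ((K c3910).mul ((ha 3).mul (hb 9)))).mono hη ?_
    nlinarith

/-! ### own motion as a function of the heights -/

/-- motion of an additive flag between two heights (`0` for line slots) -/
noncomputable def mot (W : Wnd 11 ι) (n k₀ k : ℕ) (s : Fin 11) : ℝ :=
  if s ∈ W.S then W.crd n (W.zrep n k₀) (W.zrep n k) s else 0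

/-- **own motion from the height `k₀` to the height `k`** (representatives of the heights);
`e`, `b` = slots `E`, `f_b` of the line seen from the representative of `k₀` (used only by the slot
`F_a`) -/
noncomputable def own (W : Wnd 11 ι) (n k₀ k : ℕ) (e b : ℝ) : Fin 11 → ℝ := fun s =>
  if s = 4 then
    (if (4 : Fin 11) ∈ W.S then W.crd n (W.zrep n k₀) (W.zrep n k) 4 + cf W n 2 3 4 *
        (e * mot W n k₀ k 3 + (e + mot W n k₀ k 2) *
          (W.crd n (W.zrep n k₀) (W.zrep n k) 3 - b - mot W n k₀ k 3))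
      else 0)
  else mot W n k₀ k s

/-- a flag of the line `i` at the height `k₀` seen from the representative of the height
(`0` if it is a level slot) -/
noncomputable def fsl (W : Wnd 11 ι) (n i k₀ : ℕ) (s : Fin 11) : ℝ :=
  if s ∈ W.S then 0 else W.crd n (W.zrep n k₀) (W.rep n i k₀) s

/-- bound of everything in the window -/
noncomputable def MW (W : Wnd 11 ι) : ℝ :=
  1 + (∑ s, W.K0 / W.kap s) + (∑ s, (∑ i, ∑ j, W.kap i * W.kap j / W.kap s)) +
    (∑ s, (2 * W.K0 + W.K0 ^ 2) / W.kap s)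

variable {W : Wnd 11 ι} {f : ∀ n, ι n → Fq4}

namespace QWnd

variable (h : QWnd W f)

include h

theorem MW_le (s : Fin 11) : 1 + W.K0 / W.kap s ≤ MW W ∧ 1 ≤ MW W ∧
    (∀ i j, W.kap i * W.kap j / W.kap s ≤ MW W) ∧ (2 * W.K0 + W.K0 ^ 2) / W.kap s ≤ MW W := by
  have hk := h.ok.kap
  have hK := h.ok.K0_one
  have h1 : ∀ s, 0 ≤ W.K0 / W.kap s := fun s => div_nonneg (by linarith) (hk s).le
  have h2 : ∀ i j s, 0 ≤ W.kap i * W.kap j / W.kap s := fun i j s =>
    div_nonneg (mul_nonneg (hk i).le (hk j).le) (hk s).le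
  have h3 : ∀ s, 0 ≤ (2 * W.K0 + W.K0 ^ 2) / W.kap s := fun s =>
    div_nonneg (by positivity) (hk s).le
  have a1 : W.K0 / W.kap s ≤ ∑ s, W.K0 / W.kap s :=
    single_le_sum (f := fun s => W.K0 / W.kap s) (fun s _ => h1 s) (mem_univ s)
  have a2 : 0 ≤ ∑ s, W.K0 / W.kap s := sum_nonneg fun s _ => h1 s
  have a3 : 0 ≤ ∑ s, (∑ i, ∑ j, W.kap i * W.kap j / W.kap s) :=
    sum_nonneg fun s _ => sum_nonneg fun i _ => sum_nonneg fun j _ => h2 i j s
  have a4 : 0 ≤ ∑ s, (2 * W.K0 + W.K0 ^ 2) / W.kap s := sum_nonneg fun s _ => h3 s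
  have a5 : (2 * W.K0 + W.K0 ^ 2) / W.kap s ≤ ∑ s, (2 * W.K0 + W.K0 ^ 2) / W.kap s :=
    single_le_sum (f := fun s => (2 * W.K0 + W.K0 ^ 2) / W.kap s) (fun s _ => h3 s) (mem_univ s)
  have a6 : ∀ i j, W.kap i * W.kap j / W.kap s ≤
      ∑ s, (∑ i, ∑ j, W.kap i * W.kap j / W.kap s) := by
    intro i j
    have b1 : W.kap i * W.kap j / W.kap s ≤ ∑ j, W.kap i * W.kap j / W.kap s :=
      single_le_sum (f := fun j => W.kap i * W.kap j / W.kap s) (fun j _ => h2 i j s) (mem_univ j)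
    have b2 : (∑ j, W.kap i * W.kap j / W.kap s) ≤ ∑ i, ∑ j, W.kap i * W.kap j / W.kap s :=
      single_le_sum (f := fun i => ∑ j, W.kap i * W.kap j / W.kap s)
        (fun i _ => sum_nonneg fun j _ => h2 i j s) (mem_univ i)
    have b3 : (∑ i, ∑ j, W.kap i * W.kap j / W.kap s) ≤
        ∑ s, (∑ i, ∑ j, W.kap i * W.kap j / W.kap s) :=
      single_le_sum (f := fun s => ∑ i, ∑ j, W.kap i * W.kap j / W.kap s)
        (fun s _ => sum_nonneg fun i _ => sum_nonneg fun j _ => h2 i j s) (mem_univ s)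
    exact b1.trans (b2.trans b3)
  unfold MW
  refine ⟨by linarith, by linarith, fun i j => ?_, by linarith⟩
  have := a6 i j
  linarith

theorem MW_one : 1 ≤ MW W := (h.MW_le 0).2.1

theorem crd_MW {n : ℕ} (g : W.Good n) {x y : ι n} (hx : x ∈ W.Cl n) (hy : y ∈ W.Cl n)
    (s : Fin 11) : |W.crd n x y s| ≤ MW W := by
  have := h.crd_le g hx hy s
  have := (h.MW_le s).1
  linarith

theorem cfB {n : ℕ} (g : W.Good n) : CfB W n (MW W) := by
  obtain ⟨w4, w6, w7a, w7b, w7c, w8, w9a, w9b, w10a, w10b, w10c⟩ := h.walls g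
  have key : ∀ {i j s : Fin 11}, W.X n s ≤ W.X n i + W.X n j → |cf W n i j s| ≤ MW W := by
    intro i j s hw
    rw [abs_of_nonneg (h.cf_pos n i j s).le]
    exact (h.cf_le hw).trans ((h.MW_le s).2.2.1 i j)
  exact ⟨key w6, key w7a, key w7b, key w7c, key w8, key w9a, key w9b, key w10a, key w10b,
    key w10c, key w4⟩

theorem small_of {n : ℕ} {s : Fin 11} {t x : ℝ}
    (hx : |x| ≤ (W.K0 / W.kap s) * W.B'.d n ^ t) : |x| ≤ MW W * W.B'.d n ^ t := by
  have h1 := (h.MW_le s).1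
  have h2 : 0 ≤ W.B'.d n ^ t := Real.rpow_nonneg (W.B'.pos n).le t
  nlinarith

theorem small_of2 {n : ℕ} {s : Fin 11} {t x : ℝ}
    (hx : |x| ≤ (2 * W.K0 / W.kap s) * W.B'.d n ^ t) : |x| ≤ MW W * W.B'.d n ^ t := by
  have h1 := (h.MW_le s).2.2.2
  have h2 : 0 ≤ W.B'.d n ^ t := Real.rpow_nonneg (W.B'.pos n).le t
  have h3 : 2 * W.K0 / W.kap s ≤ (2 * W.K0 + W.K0 ^ 2) / W.kap s :=
    div_le_div_of_nonneg_right (by nlinarith [h.ok.K0_one]) (h.ok.kap s).le
  nlinarith

/-- **own motion is a function of the heights** -/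
theorem own_ap {n : ℕ} (g : W.Good n) {x x' : ι n} (hx : x ∈ W.Cl n)
    (hx' : x' ∈ W.Cl n) (hl : W.lc n x = W.lc n x') {t : ℝ} (ht : ∀ s, t ≤ W.top s) (s : Fin 11) :
    Ap (W.B'.d n ^ t) (20 * MW W ^ 3) (14 * MW W ^ 3)
      (W.crd n (W.rep n (W.lc n x) (W.zc n x)) (W.rep n (W.lc n x) (W.zc n x')) s)
      (own W n (W.zc n x) (W.zc n x') (fsl W n (W.lc n x) (W.zc n x) 2)
        (fsl W n (W.lc n x) (W.zc n x) 3) s) := by
  obtain ⟨a1, a2, a3⟩ := W.rep_spec hx
  obtain ⟨a1', a2', a3'⟩ := W.rep_spec hx'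
  rw [← hl] at a1' a2' a3'
  obtain ⟨c1, c2⟩ := W.zrep_spec hx
  obtain ⟨c1', c2'⟩ := W.zrep_spec hx'
  set i := W.lc n x
  set k₀ := W.zc n x
  set k := W.zc n x'
  set r := W.rep n i k₀
  set r' := W.rep n i k
  set z := W.zrep n k₀
  set z' := W.zrep n k
  set M := MW W with hM
  set η := W.B'.d n ^ t with hη
  have hη0 : 0 ≤ η := Real.rpow_nonneg (W.B'.pos n).le t
  have hM1 : 1 ≤ M := h.MW_one
  have M3 : M ≤ M ^ 3 := le_self_pow₀ hM1 (by norm_num)
  have M32 : M ^ 2 ≤ M ^ 3 := pow_le_pow_right₀ hM1 (by norm_num)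
  have B : ∀ {u v : ι n}, u ∈ W.Cl n → v ∈ W.Cl n → ∀ s, |W.crd n u v s| ≤ M :=
    fun hu hv s => h.crd_MW g hu hv s
  -- additive flags
  have hmot : ∀ s : Fin 11, s = 0 ∨ s = 2 ∨ s = 3 → Ap η M M (W.crd n r r' s) (mot W n k₀ k s) := by
    intro s hs
    unfold mot
    split_ifs with hsS
    · refine ⟨B a1 a1' s, B c1 c1' s, ?_⟩
      exact h.small_of2 (h.own_add g a1 a1' c1 c1' (a3.trans c2.symm) (a3'.trans c2'.symm) hsS hs
        (ht s))
    · refine ⟨B a1 a1' s, by rw [abs_zero]; linarith, ?_⟩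
      rw [sub_zero]
      exact h.small_of (h.crd_own g a1 a1' (a2.trans a2'.symm) hsS (ht s))
  have hfsl : ∀ s : Fin 11, Ap η M M (W.crd n z r s) (fsl W n i k₀ s) := by
    intro s
    unfold fsl
    split_ifs with hsS
    · refine ⟨B c1 a1 s, by rw [abs_zero]; linarith, ?_⟩
      rw [sub_zero]
      exact h.small_of (h.crd_lev g c1 a1 (c2.trans a3.symm) hsS (ht s))
    · refine ⟨B c1 a1 s, B c1 a1 s, ?_⟩
      rw [sub_self, abs_zero]
      exact mul_nonneg (by linarith) hη0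
  by_cases hs4 : s = 4
  · subst hs4
    unfold own
    rw [if_pos rfl]
    split_ifs with hS4
    · have e1 := h.crd_four g c1 a1 a1'
      have e2 := h.crd_four g c1 a1' c1'
      have e3 := h.crd_add g c1 a1 a1' (s := 2) (by simp)
      have e4 := h.crd_add g c1 a1 a1' (s := 3) (by simp)
      have e5 := h.crd_add g c1 a1' c1' (s := 3) (by simp)
      have l1 : Ap η M M (W.crd n z r 4) 0 := by
        refine ⟨B c1 a1 4, by rw [abs_zero]; linarith, ?_⟩
        rw [sub_zero]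
        exact h.small_of (h.crd_lev g c1 a1 (c2.trans a3.symm) hS4 (ht 4))
      have l2 : Ap η M M (W.crd n r' z' 4) 0 := by
        refine ⟨B a1' c1' 4, by rw [abs_zero]; linarith, ?_⟩
        rw [sub_zero]
        exact h.small_of (h.crd_lev g a1' c1' (a3'.trans c2'.symm) hS4 (ht 4))
      have hcf : |cf W n 2 3 4| ≤ M := (h.cfB g).2.2.2.2.2.2.2.2.2.2
      have key := (((Ap.const (η := η) hη0 (B c1 c1' 4)).sub l1).sub l2).add
        ((Ap.const (η := η) hη0 hcf).mul (((hfsl 2).mul (hmot 3 (by simp))).add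
        (((hfsl 2).add (hmot 2 (by simp))).mul
          (((Ap.const (η := η) hη0 (B c1 c1' 3)).sub (hfsl 3)).sub (hmot 3 (by simp))))))
      have ea : W.crd n z z' 4 - W.crd n z r 4 - W.crd n r' z' 4 + cf W n 2 3 4 *
          (W.crd n z r 2 * W.crd n r r' 3 + (W.crd n z r 2 + W.crd n r r' 2) *
            (W.crd n z z' 3 - W.crd n z r 3 - W.crd n r r' 3)) = W.crd n r r' 4 := by
        have e6 : W.crd n z z' 3 - W.crd n z r 3 - W.crd n r r' 3 = W.crd n r' z' 3 := by linarith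
        rw [e6, ← e3]
        linarith
      rw [ea, sub_zero, sub_zero] at key
      refine ⟨key.l.trans ?_, key.r.trans ?_, key.mono hη0 ?_⟩
      · nlinarith
      · nlinarith
      · nlinarith
    · refine ⟨(B a1 a1' 4).trans (by nlinarith), by rw [abs_zero]; positivity, ?_⟩
      rw [sub_zero]
      refine (h.small_of (h.crd_own g a1 a1' (a2.trans a2'.symm) hS4 (ht 4))).trans ?_
      exact mul_le_mul_of_nonneg_right (by nlinarith) hη0
  · unfold own
    rw [if_neg hs4]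
    by_cases hs : s = 0 ∨ s = 2 ∨ s = 3
    · have := hmot s hs
      refine ⟨this.l.trans (by nlinarith), this.r.trans (by nlinarith), this.mono hη0 (by nlinarith)⟩
    · have hsS : s ∉ W.S := by
        intro hm
        have := h.hS s hm
        tauto
      unfold mot
      rw [if_neg hsS]
      refine ⟨(B a1 a1' s).trans (by nlinarith), by rw [abs_zero]; positivity, ?_⟩
      rw [sub_zero]
      refine (h.small_of (h.crd_own g a1 a1' (a2.trans a2'.symm) hsS (ht s))).trans ?_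
      exact mul_le_mul_of_nonneg_right (by nlinarith) hη0

end QWnd

end Crest.Agent.R136.Ev356
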