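import Crest.Agent.R136.Qg4d_480
import Crest.Agent.R136.Ev5_356

/-!
# R136: strips in the models (helper107), piece (S3) of row T.C3

* `rich` : one incidence per pair (fat line, height), only the pairs whose multiplicity in the class
  is at least half of the average (`card_le_rich`, `eok_rich`, `denC_rich`).
* `NsW` : the incidences of the class in a strip of the slots `cA`, `cB`.
* `LineC` : the slot is constant along the fat lines (`lineC_five`, `lineC_six`: chart of helper186).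
* `strip_lines` : for a pruned subset of `rich` the LINES of a slice in a strip.
-/

set_option autoImplicit false
set_option linter.unusedSectionVars false
set_option linter.unusedVariables false

open Filter Topology

namespace Crest.Agent.R136.NSt107

open Finset Crest.Agent.R138.Ex926 Crest.Agent.R136.Net191 Crest.Agent.R136.Gf356
open Crest.Agent.R136.Qg926 Crest.Agent.R136.Qg4480

variable {m : ℕ} {ι : ℕ → Type*} [∀ n, DecidableEq (ι n)]

/-! ### rich pairs -/

/-- one incidence per pair (fat line, height), only pairs of multiplicity at least half of the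
average -/
noncomputable def rich (W : Wnd m ι) (n : ℕ) : Finset (ι n) :=
  (W.sec n).filter fun i => ((W.Cl n).card : ℝ) ≤
    2 * ((W.Cl n).image (W.pc n)).card * (cls (W.Cl n) (W.pc n) i).card

variable {W : Wnd m ι}

theorem mem_rich {n : ℕ} {i : ι n} : i ∈ rich W n ↔ i ∈ W.sec n ∧ ((W.Cl n).card : ℝ) ≤
    2 * ((W.Cl n).image (W.pc n)).card * (cls (W.Cl n) (W.pc n) i).card := by
  unfold rich; exact mem_filter

theorem rich_sub_sec (n : ℕ) : rich W n ⊆ W.sec n := filter_subset _ _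

theorem rich_sub (n : ℕ) : rich W n ⊆ W.Cl n :=
  (rich_sub_sec n).trans (filter_subset _ _)

/-- the rich pairs carry half of the class -/
theorem card_le_rich {n : ℕ} {Mx : ℝ} (hM0 : 0 ≤ Mx)
    (hM : ∀ i ∈ W.Cl n, ((cls (W.Cl n) (W.pc n) i).card : ℝ) ≤ Mx) :
    ((W.Cl n).card : ℝ) ≤ 2 * (Mx * (rich W n).card) := by
  classical
  rcases (W.Cl n).eq_empty_or_nonempty with h0 | hne
  · rw [h0]; simp only [card_empty, Nat.cast_zero]
    exact mul_nonneg zero_le_two (mul_nonneg hM0 (Nat.cast_nonneg _))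
  set P : ℝ := (((W.Cl n).image (W.pc n)).card : ℝ) with hP
  have hP0 : 0 < P := Nat.cast_pos.2 (card_pos.2 (hne.image _))
  set c : ℝ := ((W.Cl n).card : ℝ) with hc
  have hc0 : 0 ≤ c := Nat.cast_nonneg _
  have h1 := card_small_cls (W.Cl n) (W.pc n) (s := c / (2 * P)) (by positivity)
  rw [← hP] at h1
  have h2 : c / (2 * P) * P = c / 2 := by field_simp
  rw [h2] at h1
  set G := (W.Cl n).filter fun i => ¬ ((cls (W.Cl n) (W.pc n) i).card : ℝ) < c / (2 * P) with hG
  have h3 : ((((W.Cl n).filter fun i =>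
      ((cls (W.Cl n) (W.pc n) i).card : ℝ) < c / (2 * P)).card : ℝ)) + (G.card : ℝ) = c := by
    have := card_filter_add_card_filter_not (s := W.Cl n)
      fun i => ((cls (W.Cl n) (W.pc n) i).card : ℝ) < c / (2 * P)
    rw [hc, hG]
    exact_mod_cast this
  have h4 : (G.card : ℝ) ≤ Mx * (G.image (W.pc n)).card := by
    have := le_count_mul G (fun _ => (1 : ℝ)) (W.pc n) (m := Mx) (fun i hi => by
      rw [sum_const, nsmul_eq_mul, mul_one]
      refine le_trans ?_ (hM i (mem_filter.1 hi).1)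
      exact_mod_cast card_le_card (cls_mono (filter_subset _ _) _ _))
    rwa [sum_const, nsmul_eq_mul, mul_one] at this
  have h5 : G.image (W.pc n) ⊆ (rich W n).image (W.pc n) := by
    intro p hp
    obtain ⟨i, hi, rfl⟩ := mem_image.1 hp
    obtain ⟨hi1, hi2⟩ := mem_filter.1 hi
    obtain ⟨r1, r2, r3⟩ := W.rep_spec hi1
    have e1 : W.pc n (W.rep n (W.lc n i) (W.zc n i)) = W.pc n i := by
      unfold Wnd.pc; rw [r2, r3]
    refine mem_image.2 ⟨_, mem_rich.2 ⟨Wnd.rep_mem_sec hi1, ?_⟩, e1⟩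
    rw [cls_congr e1]
    rw [not_lt, div_le_iff₀ (by positivity)] at hi2
    rw [← hP, ← hc]
    linarith
  have h6 : ((G.image (W.pc n)).card : ℝ) ≤ (rich W n).card := by
    exact_mod_cast (card_le_card h5).trans card_image_le
  have h7 := mul_le_mul_of_nonneg_left h6 hM0
  linarith

theorem eok_rich (h : W.Ok) : Wnd.EOk W (rich W) (fun _ => 1) where
  sub := Eventually.of_forall fun n => rich_sub n
  pos := fun n => one_pos
  mult := fun ε hε => by
    filter_upwards [h.eok_section.mult ε hε] with n h1 i hi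
    refine le_trans ?_ (h1 i (rich_sub_sec n hi))
    exact_mod_cast card_le_card (cls_mono (rich_sub_sec n) _ _)
  big := fun ε hε => by
    filter_upwards [h.cls.big (ε / 4) (by positivity), h.mult_le (ε := ε / 4) (by positivity),
      W.B'.ev_rpow_small (η := ε / 2) (c := 1 / 2) (by positivity) (by norm_num)] with n h1 h2 h3
    have hpos : ∀ t : ℝ, 0 < W.B'.d n ^ t := fun t => Real.rpow_pos_of_pos (W.B'.pos n) t
    have hT := h.cls.T0 n
    have h4 := card_le_rich (W := W) (n := n)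
      (mul_pos (mul_pos hT (hpos (-W.lam W.top))) (hpos (-(ε / 4)))).le h2
    have h5 := h1.trans h4
    have e1 : 2 * (W.T n * W.B'.d n ^ (-W.lam W.top) * W.B'.d n ^ (-(ε / 4)) *
        ((rich W n).card : ℝ)) = W.T n * (2 * (W.B'.d n ^ (-W.lam W.top) *
        W.B'.d n ^ (-(ε / 4))) * (rich W n).card) := by ring
    rw [e1] at h5
    have h6 := le_of_mul_le_mul_left h5 hT
    rw [← Real.rpow_add (W.B'.pos n)] at h6
    have h7 := mul_le_mul_of_nonneg_left h6 (hpos (W.lam W.top + ε / 4)).le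
    have e2 : W.B'.d n ^ (W.lam W.top + ε / 4) * (2 * W.B'.d n ^ (-W.lam W.top + -(ε / 4)) *
        ((rich W n).card : ℝ)) = 2 * (rich W n).card := by
      have : W.B'.d n ^ (W.lam W.top + ε / 4) * W.B'.d n ^ (-W.lam W.top + -(ε / 4)) = 1 := by
        rw [← Real.rpow_add (W.B'.pos n)]
        have : W.lam W.top + ε / 4 + (-W.lam W.top + -(ε / 4)) = 0 := by ring
        rw [this, Real.rpow_zero]
      calc _ = 2 * (W.B'.d n ^ (W.lam W.top + ε / 4) *
            W.B'.d n ^ (-W.lam W.top + -(ε / 4))) * ((rich W n).card : ℝ) := by ring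
        _ = _ := by rw [this, mul_one]
    rw [e2, ← Real.rpow_add (W.B'.pos n)] at h7
    have e3 : W.B'.d n ^ (W.lam W.top + ε) =
        W.B'.d n ^ (W.lam W.top + ε / 4 + ε / 4) * W.B'.d n ^ (ε / 2) := by
      rw [← Real.rpow_add (W.B'.pos n)]; congr 1; ring
    rw [one_mul, e3]
    have h8 := mul_le_mul_of_nonneg_left h3 (hpos (W.lam W.top + ε / 4 + ε / 4)).le
    linarith

theorem denC_rich {s : ℕ → ℕ → ℝ} {Mx : ℕ → ℝ} (hM0 : ∀ n, 0 < Mx n)
    (hM : ∀ᶠ n in (U : Filter ℕ), ∀ i ∈ W.Cl n, ((cls (W.Cl n) (W.pc n) i).card : ℝ) ≤ Mx n) :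
    DenC W s Mx (rich W) := by
  refine ⟨fun _ => 1, fun _ => 2, IsLoss.const 2, ?_⟩
  filter_upwards [hM] with n h1
  refine ⟨zero_le_two, one_pos, rich_sub n, fun i hi => ?_, ?_⟩
  · have h1 : (cls (rich W n) (W.pc n) i).card ≤ 1 := by
      rw [card_le_one]
      intro a ha b hb
      obtain ⟨a1, a2⟩ := mem_cls.1 ha
      obtain ⟨b1, b2⟩ := mem_cls.1 hb
      exact Wnd.sec_inj (rich_sub_sec n a1) (rich_sub_sec n b1) (a2.trans b2.symm)
    exact_mod_cast h1
  · rw [mul_one]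
    exact card_le_rich (hM0 n).le h1

/-! ### number of pairs -/

/-- number of pairs, from above -/
theorem card_pairs_le (h : W.Ok) {ε : ℝ} (hε : 0 < ε) : ∀ᶠ n in (U : Filter ℕ),
    (((W.Cl n).image (W.pc n)).card : ℝ) ≤ W.B'.d n ^ (W.lam W.top - ε) := by
  have hN := h.N_pos h.K0_one
  filter_upwards [h.card_lab_le (ε := ε / 2) (by positivity), h.ev_good,
    Crest.Agent.R136.Qg926.ev_const_le W.B' (mul_pos hN hN) (ε := ε / 2) (by positivity)] with
    n h1 g h2
  classical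
  have hpos : ∀ t : ℝ, 0 < W.B'.d n ^ t := fun t => Real.rpow_pos_of_pos (W.B'.pos n) t
  have hlin : cut W.S W.top 0 ≤ W.top := by
    conv_rhs => rw [← cut_self W.S W.top]
    exact cut_mono (fun _ _ => le_rfl) (fun s _ => h.top_leg.1.nonneg s)
  have hlev : cut W.S 0 W.top ≤ W.top := by
    conv_rhs => rw [← cut_self W.S W.top]
    exact cut_mono (fun s _ => h.top_leg.1.nonneg s) (fun _ _ => le_rfl)
  have key : (((W.Cl n).image (W.pc n)).card : ℝ) ≤
      (W.N W.K0 * W.N W.K0) * ((W.Cl n).image (W.lab n W.top)).card := by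
    refine card_image_le_mul _ _ _ fun x hx => ?_
    set O := cls (W.Cl n) (W.lab n W.top) x with hO
    have hOI : O ⊆ W.I n := (cls_subset _ _ _).trans g.clI
    have hnear : ∀ j ∈ O, W.bx n W.top W.K0 x j := fun j hj =>
      h.near_lab g h.top_leg (g.clI hx) (hOI hj) (mem_cls.1 hj).2.symm
    have a1 := h.card_lc_box g h.K0_one hOI (g.clI hx) hnear
    have a2 := h.card_zc_box g hlev h.K0_one hOI (g.clI hx) hnear
    have a3 : O.image (W.pc n) ⊆ (O.image (W.lc n)) ×ˢ (O.image (W.zc n)) := by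
      intro p hp
      obtain ⟨i, hi, rfl⟩ := mem_image.1 hp
      exact mem_product.2 ⟨mem_image_of_mem _ hi, mem_image_of_mem _ hi⟩
    have a4 : ((O.image (W.pc n)).card : ℝ) ≤ (O.image (W.lc n)).card * (O.image (W.zc n)).card := by
      have := card_le_card a3
      rw [card_product] at this
      exact_mod_cast this
    exact a4.trans (mul_le_mul a1 a2 (Nat.cast_nonneg _) hN.le)
  have h3 := h1 W.top h.top_leg (W.Cl n) (Subset.refl _)
  calc (((W.Cl n).image (W.pc n)).card : ℝ)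
      ≤ (W.N W.K0 * W.N W.K0) * ((W.Cl n).image (W.lab n W.top)).card := key
    _ ≤ W.B'.d n ^ (-(ε / 2)) * W.B'.d n ^ (W.lam W.top - ε / 2) :=
        mul_le_mul h2 h3 (Nat.cast_nonneg _) (hpos _).le
    _ = W.B'.d n ^ (W.lam W.top - ε) := by
        rw [← Real.rpow_add (W.B'.pos n)]; congr 1; ring

/-! ### strips -/

open Classical in
/-- **no strip of the class is heavy** (slots `cA`, `cB`) -/
def NsW (W : Wnd m ι) (cA cB : Fin m) (q R0 : ℝ) : Prop :=
  ∀ t : ℝ, 0 < t → t ≤ R0 → ∀ ε : ℝ, 0 < ε → ∀ᶠ n in (U : Filter ℕ), ∀ i ∈ W.Cl n,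
    ∀ b : Fin 2 → ℝ, b 0 ^ 2 + b 1 ^ 2 = 1 →
      (((W.Cl n).filter fun j =>
        |b 0 * W.crd n i j cA + b 1 * W.crd n i j cB| ≤ W.B'.d n ^ t).card : ℝ) ≤
        W.B'.d n ^ (q * t - ε) * (W.Cl n).card

/-- the slot `c` is constant along the fat lines up to `ρ ^ R1` -/
def LineC (W : Wnd m ι) (c : Fin m) (R1 : ℝ) : Prop :=
  ∀ ε : ℝ, 0 < ε → ∀ᶠ n in (U : Filter ℕ), ∀ x ∈ W.Cl n, ∀ y ∈ W.Cl n, ∀ z ∈ W.Cl n,
    W.lc n y = W.lc n z → |W.crd n x z c - W.crd n x y c| ≤ W.B'.d n ^ (R1 - ε)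

theorem abs_le_one_of_sq {x y : ℝ} (h : x ^ 2 + y ^ 2 = 1) : |x| ≤ 1 :=
  abs_le_one_iff_mul_self_le_one.2 (by nlinarith [sq_nonneg y])

open Classical in
/-- **lines of a slice in a strip**, models over the rich pairs -/
theorem strip_lines (h : W.Ok) {E' : ∀ n, Finset (ι n)} {g : ℕ → ℝ} {ex : ℕ → ∀ n, ι n → ℕ}
    (hP : Wnd.Pruned W (rich W) E' g ex)
    (hdens : W.lam W.top ≤ W.lam (cut W.S W.top 0) + W.lam (cut W.S 0 W.top))
    {cA cB : Fin m} (hcA : cA ∉ W.S) (hcB : cB ∉ W.S) {q R0 R1 : ℝ} (hq : 0 ≤ q) (hR : R0 ≤ R1)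
    (hns : NsW W cA cB q R0) (hA : LineC W cA R1) (hB : LineC W cB R1)
    {t : ℝ} (ht : 0 < t) (htR : t ≤ R0) {ε : ℝ} (hε : 0 < ε) :
    ∀ᶠ n in (U : Filter ℕ), ∀ i k, (i, k) ∈ (W.cfg E' n).I → ∀ b : Fin 2 → ℝ,
      b 0 ^ 2 + b 1 ^ 2 = 1 →
      ((((W.cfg E' n).slice k).filter fun l => |b 0 * (W.cfg E' n).rel k i l cA +
        b 1 * (W.cfg E' n).rel k i l cB| ≤ W.B'.d n ^ (t - ε)).card : ℝ) ≤
        W.B'.d n ^ (-(W.nu 0) + q * t - (2 * q + 4) * ε) := by
  -- points of the class in a strip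
  have hstr : ∀ᶠ n in (U : Filter ℕ), ∀ i ∈ W.Cl n, ∀ b : Fin 2 → ℝ, b 0 ^ 2 + b 1 ^ 2 = 1 →
      (((W.Cl n).filter fun j =>
        |b 0 * W.crd n i j cA + b 1 * W.crd n i j cB| ≤ W.B'.d n ^ (t - 2 * ε)).card : ℝ) ≤
        W.B'.d n ^ (q * t - 2 * q * ε - ε) * (W.Cl n).card := by
    rcases lt_or_ge 0 (t - 2 * ε) with h0 | h0
    · filter_upwards [hns (t - 2 * ε) h0 (by linarith) ε hε] with n hn i hi b hb
      refine (hn i hi b hb).trans (le_of_eq ?_)
      congr 2; ring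
    · filter_upwards [] with n i hi b hb
      have h1 : (1 : ℝ) ≤ W.B'.d n ^ (q * t - 2 * q * ε - ε) :=
        Real.one_le_rpow_of_pos_of_le_one_of_nonpos (W.B'.pos n) (W.B'.lt n).le (by nlinarith)
      have h2 : (((W.Cl n).filter fun j =>
          |b 0 * W.crd n i j cA + b 1 * W.crd n i j cB| ≤ W.B'.d n ^ (t - 2 * ε)).card : ℝ) ≤
          (W.Cl n).card := by exact_mod_cast card_filter_le _ _
      have h3 : (0 : ℝ) ≤ (W.Cl n).card := Nat.cast_nonneg _
      nlinarith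
  filter_upwards [Wnd.ev_cfg h (eok_rich h) hP, Wnd.ev_hts h (eok_rich h) hP hdens hε, hstr,
    hA (ε) hε, hB ε hε, card_pairs_le h (ε := ε) hε,
    Crest.Agent.R136.Qg926.ev_const_le W.B' (c := 3) (by norm_num) hε] with
    n ⟨hg, hsub, hne, heq⟩ hhts hstr hA hB hpairs hthree
  rw [heq]
  intro i k hik b hb
  have hpos : ∀ t : ℝ, 0 < W.B'.d n ^ t := fun t => Real.rpow_pos_of_pos (W.B'.pos n) t
  have anti : ∀ {s t : ℝ}, s ≤ t → W.B'.d n ^ t ≤ W.B'.d n ^ s := fun hst =>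
    Real.rpow_le_rpow_of_exponent_ge (W.B'.pos n) (W.B'.lt n).le hst
  have hE'Cl : E' n ⊆ W.Cl n := (hP.sub n).trans hsub
  obtain ⟨r1, r2, r3⟩ := Wnd.rep_of_mem hE'Cl hik
  set x := W.rep n i k with hx
  set A := ((W.cfg0 n (E' n)).slice k).filter fun l => |b 0 * (W.cfg0 n (E' n)).rel k i l cA +
    b 1 * (W.cfg0 n (E' n)).rel k i l cB| ≤ W.B'.d n ^ (t - ε) with hAdef
  set Str := (W.Cl n).filter fun j =>
    |b 0 * W.crd n x j cA + b 1 * W.crd n x j cB| ≤ W.B'.d n ^ (t - 2 * ε) with hStr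
  have hS := hstr x r1 b hb
  set P : ℝ := (((W.Cl n).image (W.pc n)).card : ℝ) with hPdef
  set c : ℝ := ((W.Cl n).card : ℝ) with hc
  have hc0 : 0 < c := Nat.cast_pos.2 (card_pos.2 ⟨_, hg.s0⟩)
  have hP0 : 0 < P := Nat.cast_pos.2 (card_pos.2 (Finset.Nonempty.image ⟨_, hg.s0⟩ _))
  set H : ℝ := W.B'.d n ^ (W.lam (cut W.S 0 W.top) + ε) with hH
  have hb0 : |b 0| ≤ 1 := abs_le_one_of_sq hb
  have hb1 : |b 1| ≤ 1 := abs_le_one_of_sq (by linarith : b 1 ^ 2 + b 0 ^ 2 = 1)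
  -- the pairs
  set T : Finset (Σ _ : ℕ, ℕ) := A.sigma fun l => (W.cfg0 n (E' n)).hts l with hT
  have hTcard : (A.card : ℝ) * H ≤ (T.card : ℝ) := by
    rw [hT, card_sigma]
    push_cast
    calc (A.card : ℝ) * H = ∑ l ∈ A, H := by rw [sum_const, nsmul_eq_mul]
      _ ≤ _ := by
        refine sum_le_sum fun l hl => hhts l ?_
        have h1 := (mem_filter.1 hl).1
        obtain ⟨w, hw, hw1, -⟩ := Wnd.cfg0_slice.1 h1
        exact mem_image.2 ⟨w, hw, hw1⟩
  -- every pair of `T` has large multiplicity, all inside the strip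
  have hfib : ∀ p ∈ T, c / (2 * P) ≤ ((Str.filter fun z => W.pc n z = (p.1, p.2)).card : ℝ) := by
    intro p hp
    obtain ⟨hp1, hp2⟩ := mem_sigma.1 hp
    obtain ⟨hl1, hl2⟩ := mem_filter.1 hp1
    obtain ⟨w, hw, hw1, hw2⟩ := Wnd.cfg0_hts.1 hp2
    obtain ⟨v, hv, hv1, hv2⟩ := Wnd.cfg0_slice.1 hl1
    have hrich := (mem_rich.1 (hP.sub n hw)).2
    have epc : W.pc n w = (p.1, p.2) := by unfold Wnd.pc; rw [hw1, hw2]
    have e1 : (Str.filter fun z => W.pc n z = (p.1, p.2)) = cls (W.Cl n) (W.pc n) w := by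
      ext z
      rw [mem_cls, mem_filter, epc, hStr, mem_filter]
      constructor
      · exact fun hz => ⟨hz.1.1, hz.2⟩
      · rintro ⟨hz1, hz2⟩
        refine ⟨⟨hz1, ?_⟩, hz2⟩
        have hlz : W.lc n z = p.1 := congrArg Prod.fst hz2
        have hvC := hE'Cl hv
        obtain ⟨y1, y2, y3⟩ := W.rep_spec hvC
        rw [hv1, hv2] at y1 y2 y3
        have a1 := hA x r1 _ y1 z hz1 (y2.trans hlz.symm)
        have a2 := hB x r1 _ y1 z hz1 (y2.trans hlz.symm)
        have a3 : |b 0 * W.crd n x (W.rep n p.1 k) cA + b 1 * W.crd n x (W.rep n p.1 k) cB| ≤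
            W.B'.d n ^ (t - ε) := by
          have e2 : (W.cfg0 n (E' n)).rel k i p.1 cA = W.crd n x (W.rep n p.1 k) cA := by
            show (if cA ∈ W.S then (0 : ℝ) else W.crd n _ _ cA) = _
            rw [if_neg hcA]
          have e3 : (W.cfg0 n (E' n)).rel k i p.1 cB = W.crd n x (W.rep n p.1 k) cB := by
            show (if cB ∈ W.S then (0 : ℝ) else W.crd n _ _ cB) = _
            rw [if_neg hcB]
          rw [e2, e3] at hl2
          exact hl2
        have a4 : W.B'.d n ^ (R1 - ε) ≤ W.B'.d n ^ (t - ε) := anti (by linarith)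
        have a5 : b 0 * W.crd n x z cA + b 1 * W.crd n x z cB =
            (b 0 * W.crd n x (W.rep n p.1 k) cA + b 1 * W.crd n x (W.rep n p.1 k) cB) +
            (b 0 * (W.crd n x z cA - W.crd n x (W.rep n p.1 k) cA) +
              b 1 * (W.crd n x z cB - W.crd n x (W.rep n p.1 k) cB)) := by ring
        have a6 : |b 0 * (W.crd n x z cA - W.crd n x (W.rep n p.1 k) cA)| ≤ W.B'.d n ^ (t - ε) := by
          rw [abs_mul]
          calc _ ≤ 1 * W.B'.d n ^ (t - ε) :=
                mul_le_mul hb0 (a1.trans a4) (abs_nonneg _) zero_le_one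
            _ = _ := one_mul _
        have a7 : |b 1 * (W.crd n x z cB - W.crd n x (W.rep n p.1 k) cB)| ≤ W.B'.d n ^ (t - ε) := by
          rw [abs_mul]
          calc _ ≤ 1 * W.B'.d n ^ (t - ε) :=
                mul_le_mul hb1 (a2.trans a4) (abs_nonneg _) zero_le_one
            _ = _ := one_mul _
        rw [a5]
        calc _ ≤ W.B'.d n ^ (t - ε) + (W.B'.d n ^ (t - ε) + W.B'.d n ^ (t - ε)) :=
              (abs_add_le _ _).trans (add_le_add a3 ((abs_add_le _ _).trans (add_le_add a6 a7)))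
          _ = 3 * W.B'.d n ^ (t - ε) := by ring
          _ ≤ W.B'.d n ^ (-ε) * W.B'.d n ^ (t - ε) :=
              mul_le_mul_of_nonneg_right hthree (hpos _).le
          _ = W.B'.d n ^ (t - 2 * ε) := by
              rw [← Real.rpow_add (W.B'.pos n)]; congr 1; ring
    rw [e1, div_le_iff₀ (by positivity)]
    linarith
  have hTS : (T.card : ℝ) * (c / (2 * P)) ≤ (Str.card : ℝ) := by
    have h1 : ∑ p ∈ T, (Str.filter fun z => W.pc n z = (p.1, p.2)).card ≤ Str.card := by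
      rw [← card_biUnion]
      · refine card_le_card fun z hz => ?_
        obtain ⟨p, -, hp⟩ := mem_biUnion.1 hz
        exact (mem_filter.1 hp).1
      · intro p hp p' hp' hne'
        rw [Function.onFun, Finset.disjoint_left]
        intro z hz hz'
        have e1 := (mem_filter.1 hz).2.symm.trans (mem_filter.1 hz').2
        refine hne' ?_
        obtain ⟨p1, p2⟩ := p
        obtain ⟨p1', p2'⟩ := p'
        simp only [Prod.mk.injEq] at e1
        obtain ⟨rfl, rfl⟩ := e1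
        rfl
    calc (T.card : ℝ) * (c / (2 * P)) = ∑ p ∈ T, c / (2 * P) := by rw [sum_const, nsmul_eq_mul]
      _ ≤ ∑ p ∈ T, ((Str.filter fun z => W.pc n z = (p.1, p.2)).card : ℝ) := sum_le_sum hfib
      _ ≤ Str.card := by exact_mod_cast h1
  -- conclusion
  have h1 : (A.card : ℝ) * H * (c / (2 * P)) ≤ W.B'.d n ^ (q * t - 2 * q * ε - ε) * c :=
    (mul_le_mul_of_nonneg_right hTcard (by positivity)).trans (hTS.trans hS)
  have h2 : (A.card : ℝ) * H ≤ W.B'.d n ^ (q * t - 2 * q * ε - ε) * (2 * P) := by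
    have h3 : (A.card : ℝ) * H * (c / (2 * P)) = ((A.card : ℝ) * H) / (2 * P) * c := by
      field_simp
    rw [h3] at h1
    have h4 := le_of_mul_le_mul_right h1 hc0
    rwa [div_le_iff₀ (by positivity)] at h4
  have h3 : 2 * P ≤ W.B'.d n ^ (W.lam W.top - 2 * ε) := by
    have e1 : W.B'.d n ^ (W.lam W.top - 2 * ε) =
        W.B'.d n ^ (-ε) * W.B'.d n ^ (W.lam W.top - ε) := by
      rw [← Real.rpow_add (W.B'.pos n)]; congr 1; ring
    rw [e1]
    exact mul_le_mul (by linarith) hpairs hP0.le (hpos _).le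
  have h4 : (A.card : ℝ) * H ≤ W.B'.d n ^ (q * t - 2 * q * ε - ε + (W.lam W.top - 2 * ε)) := by
    rw [Real.rpow_add (W.B'.pos n)]
    exact h2.trans (mul_le_mul_of_nonneg_left h3 (hpos _).le)
  have h5 : W.B'.d n ^ (q * t - 2 * q * ε - ε + (W.lam W.top - 2 * ε)) =
      W.B'.d n ^ (-(W.nu 0) + q * t - (2 * q + 4) * ε) * H := by
    rw [hH, ← Real.rpow_add (W.B'.pos n)]
    congr 1
    unfold Wnd.nu
    ring
  rw [h5] at h4
  exact le_of_mul_le_mul_right h4 (hpos _)

/-- **no heavy strips in the model** (366's `NoStr`), class box `p0` with zero loss -/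
theorem noStr (h : W.Ok) {E' : ∀ n, Finset (ι n)} {g : ℕ → ℝ} {ex : ℕ → ∀ n, ι n → ℕ}
    (hP : Wnd.Pruned W (rich W) E' g ex)
    (hdens : W.lam W.top ≤ W.lam (cut W.S W.top 0) + W.lam (cut W.S 0 W.top))
    {cA cB : Fin m} (hcA : cA ∉ W.S) (hcB : cB ∉ W.S) {q R0 R1 : ℝ} (hq : 0 ≤ q) (hR : R0 ≤ R1)
    (hns : NsW W cA cB q R0) (hA : LineC W cA R1) (hB : LineC W cB R1)
    {p0 : Fin m → ℝ} (hp0 : W.nu 0 ≤ W.nu p0) :
    ∃ K : ℝ, ∀ t : ℝ, 0 < t → t ≤ R0 → ∀ ε : ℝ, 0 < ε → ∀ᶠ n in (U : Filter ℕ), ∀ i k,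
      (i, k) ∈ (W.cfg E' n).I → ∀ b : Fin 2 → ℝ, b 0 ^ 2 + b 1 ^ 2 = 1 →
      ((((W.cfg E' n).box p0 ε i k).filter fun l => |b 0 * (W.cfg E' n).rel k i l cA +
        b 1 * (W.cfg E' n).rel k i l cB| ≤ W.B'.d n ^ (t - ε)).card : ℝ) ≤
        W.B'.d n ^ (-(W.nu p0) + q * t - K * ε) := by
  refine ⟨2 * q + 4, fun t ht htR ε hε => ?_⟩
  filter_upwards [strip_lines h hP hdens hcA hcB hq hR hns hA hB ht htR hε] with n hn i k hik b hb
  refine le_trans ?_ ((hn i k hik b hb).trans ?_)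
  · refine Nat.cast_le.2 (card_le_card ?_)
    exact filter_subset_filter _ RCfg.box_subset_slice
  · exact Real.rpow_le_rpow_of_exponent_ge (W.B'.pos n) (W.B'.lt n).le (by linarith)

end Crest.Agent.R136.NSt107
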