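import Crest.Agent.R136.Net1b_191
import Crest.Agent.R138.Qf1_926

/-!
# Abstract triangular charts (helper191), part 2: nets, labels, `QFam`, `QJoin`

`lab I co d p : ι → ι` = a near point of a maximal `p`-separated net of `I` (every real legal `p`).
-/

set_option autoImplicit false

open Filter Topology

namespace Crest.Agent.R136.Net191

open Finset Crest.Agent.R138.Ex926

variable {m : ℕ}

theorem exists_net {ι : Type*} (I : Finset ι) (R : ι → ι → Prop) :
    ∃ A ⊆ I, (∀ j ∈ A, ∀ l ∈ A, j ≠ l → ¬ R j l) ∧ ∀ i ∈ I, i ∈ A ∨ ∃ r ∈ A, R r i ∨ R i r := by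
  classical
  set Q : Finset ι → Prop := fun A => ∀ j ∈ A, ∀ l ∈ A, j ≠ l → ¬ R j l with hQ
  have hne : (I.powerset.filter Q).Nonempty :=
    ⟨∅, by simp [hQ]⟩
  obtain ⟨A, hA, hmax⟩ := Finset.exists_max_image _ Finset.card hne
  rw [Finset.mem_filter, Finset.mem_powerset] at hA
  refine ⟨A, hA.1, hA.2, fun i hi => ?_⟩
  by_contra hcon
  push Not at hcon
  obtain ⟨hiA, hR⟩ := hcon
  have h1 : insert i A ∈ I.powerset.filter Q := by
    rw [Finset.mem_filter, Finset.mem_powerset]
    refine ⟨Finset.insert_subset hi hA.1, ?_⟩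
    intro j hj l hl hne'
    rw [Finset.mem_insert] at hj hl
    rcases hj with rfl | hj
    · rcases hl with rfl | hl
      · exact absurd rfl hne'
      · exact (hR l hl).2
    · rcases hl with rfl | hl
      · exact (hR j hj).1
      · exact hA.2 j hj l hl hne'
  have h2 := hmax _ h1
  rw [Finset.card_insert_of_notMem hiA] at h2
  omega

/-- a chosen maximal net -/
noncomputable def net {ι : Type*} (I : Finset ι) (co : ι → ι → Fin m → ℝ) (d : ℝ)
    (p : Fin m → ℝ) : Finset ι := (exists_net I (Near co d p 1)).choose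

section

variable {ι : Type*} {I : Finset ι} {co : ι → ι → Fin m → ℝ} {M : Mons m} {C d : ℝ}
  {p p' : Fin m → ℝ}

lemma net_sub : net I co d p ⊆ I := (exists_net I (Near co d p 1)).choose_spec.1

lemma net_sep : ∀ j ∈ net I co d p, ∀ l ∈ net I co d p, j ≠ l → ¬ Near co d p 1 j l :=
  (exists_net I (Near co d p 1)).choose_spec.2.1

lemma net_max : ∀ i ∈ I, i ∈ net I co d p ∨
    ∃ r ∈ net I co d p, Near co d p 1 r i ∨ Near co d p 1 i r :=
  (exists_net I (Near co d p 1)).choose_spec.2.2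

/-- first constant -/
def cK1 (M : Mons m) (C : ℝ) : ℝ := symC M C 1 m

lemma cK1_one (hC : 0 ≤ C) : 1 ≤ cK1 M C := symC_ge M hC le_rfl m

lemma triC_ge (hC : 0 ≤ C) {K : ℝ} (hK : 1 ≤ K) : K ≤ triC M C K := by
  unfold triC
  have : 0 ≤ C * M.cnt * K ^ M.deg := by positivity
  linarith

lemma exists_rep (h : Chart I co M C) (hp : Legal M p) (hd : 0 < d) (hd1 : d ≤ 1) {i : ι}
    (hi : i ∈ I) : ∃ r ∈ net I co d p, Near co d p (cK1 M C) r i := by
  have h1 : (1 : ℝ) ≤ cK1 M C := cK1_one h.C0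
  rcases net_max (co := co) (d := d) (p := p) i hi with hA | ⟨r, hr, hn | hn⟩
  · refine ⟨i, hA, fun k => ?_⟩
    rw [h.refl i hi k, abs_zero]
    exact mul_nonneg (by linarith) (Real.rpow_nonneg hd.le _)
  · exact ⟨r, hr, hn.mono hd h1⟩
  · exact ⟨r, hr, h.symm hp hd hd1 le_rfl hi (net_sub hr) hn⟩

open Classical in
/-- the label of `i` at the exponents `p` -/
noncomputable def lab (I : Finset ι) (co : ι → ι → Fin m → ℝ) (M : Mons m) (C d : ℝ)
    (p : Fin m → ℝ) (i : ι) : ι :=
  if h : ∃ r ∈ net I co d p, Near co d p (cK1 M C) r i then h.choose else i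

lemma lab_mem (h : Chart I co M C) (hp : Legal M p) (hd : 0 < d) (hd1 : d ≤ 1) {i : ι}
    (hi : i ∈ I) : lab I co M C d p i ∈ net I co d p := by
  unfold lab
  rw [dif_pos (exists_rep h hp hd hd1 hi)]
  exact (exists_rep h hp hd hd1 hi).choose_spec.1

lemma lab_near (h : Chart I co M C) (hp : Legal M p) (hd : 0 < d) (hd1 : d ≤ 1) {i : ι}
    (hi : i ∈ I) : Near co d p (cK1 M C) (lab I co M C d p i) i := by
  unfold lab
  rw [dif_pos (exists_rep h hp hd hd1 hi)]
  exact (exists_rep h hp hd hd1 hi).choose_spec.2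

/-- constant of (i) -/
def cK0 (M : Mons m) (C : ℝ) : ℝ := triC M C (symC M C (cK1 M C) m)

lemma cK0_one (hC : 0 ≤ C) : 1 ≤ cK0 M C := by
  have h1 : 1 ≤ cK1 M C := cK1_one hC
  have h2 : cK1 M C ≤ symC M C (cK1 M C) m := symC_ge M hC h1 m
  exact (h1.trans h2).trans (triC_ge hC (h1.trans h2))

/-- **(i)** equal labels are near -/
theorem near_of_lab (h : Chart I co M C) (hp : Legal M p) (hd : 0 < d) (hd1 : d ≤ 1) {i j : ι}
    (hi : i ∈ I) (hj : j ∈ I) (hl : lab I co M C d p i = lab I co M C d p j) :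
    Near co d p (cK0 M C) i j := by
  have h1 : 1 ≤ cK1 M C := cK1_one h.C0
  have h2 : cK1 M C ≤ symC M C (cK1 M C) m := symC_ge M h.C0 h1 m
  have hr := net_sub (lab_mem h hp hd hd1 hi)
  have n1 := h.symm hp hd hd1 h1 hr hi (lab_near h hp hd hd1 hi)
  have n2 := lab_near h hp hd hd1 hj
  rw [← hl] at n2
  exact h.tri hp hd hd1 (h1.trans h2) hi hr hj n1 (n2.mono hd h2)

/-- constant of (ii) -/
noncomputable def cN (M : Mons m) (C K : ℝ) : ℝ :=
  pkC M C (triC M C (max K (symC M C (cK1 M C) m)))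

open Classical in
/-- **(ii)** number of labels in a ball -/
theorem card_lab_le (h : Chart I co M C) (hp : Legal M p) (hp' : Legal M p') (hpp : p ≤ p')
    (hd : 0 < d) (hd1 : d ≤ 1) {K : ℝ} (hK : 1 ≤ K) {i : ι} (hi : i ∈ I) :
    (((I.filter fun j => Near co d p K i j).image (lab I co M C d p')).card : ℝ) ≤
      cN M C K * d ^ (-(∑ s, (p' s - p s))) := by
  have h1 : 1 ≤ cK1 M C := cK1_one h.C0
  set K' := max K (symC M C (cK1 M C) m) with hK'
  have hK'1 : 1 ≤ K' := hK.trans (le_max_left _ _)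
  refine h.pack hp hp' hpp hd hd1 (K := triC M C K') (hK'1.trans (triC_ge h.C0 hK'1)) hi ?_ ?_ ?_
  · intro r hr
    rw [Finset.mem_image] at hr
    obtain ⟨j, hj, rfl⟩ := hr
    exact net_sub (lab_mem h hp' hd hd1 (Finset.mem_filter.mp hj).1)
  · intro r hr
    rw [Finset.mem_image] at hr
    obtain ⟨j, hj, rfl⟩ := hr
    obtain ⟨hjI, hjn⟩ := Finset.mem_filter.mp hj
    have hrI := net_sub (lab_mem h hp' hd hd1 hjI)
    have n1 := h.symm hp' hd hd1 h1 hrI hjI (lab_near h hp' hd hd1 hjI)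
    have hs0 : 0 ≤ symC M C (cK1 M C) m := by linarith [symC_ge M h.C0 h1 m]
    have n2 := (n1.anti hd hd1 hs0 hpp).mono hd (le_max_right K _)
    exact h.tri hp hd hd1 hK'1 hi hjI hrI (hjn.mono hd (le_max_left _ _)) n2
  · intro r hr t ht
    rw [Finset.mem_image] at hr ht
    obtain ⟨j, hj, rfl⟩ := hr
    obtain ⟨l, hl, rfl⟩ := ht
    exact net_sep _ (lab_mem h hp' hd hd1 (Finset.mem_filter.mp hj).1) _
      (lab_mem h hp' hd hd1 (Finset.mem_filter.mp hl).1)

end

/-! ### the region of legal exponents -/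

/-- legal exponents in `[0, R]` -/
def Leg (M : Mons m) (R : ℝ) : Set (Fin m → ℝ) := {p | Legal M p ∧ ∀ k, p k ≤ R}

lemma Leg.sup {M : Mons m} {R : ℝ} {p q : Fin m → ℝ} (hp : p ∈ Leg M R) (hq : q ∈ Leg M R) :
    p ⊔ q ∈ Leg M R := ⟨hp.1.sup hq.1, fun k => sup_le (hp.2 k) (hq.2 k)⟩

lemma isClosed_Leg (M : Mons m) (R : ℝ) : IsClosed (Leg M R) := by
  have : Leg M R = (⋂ k, {p : Fin m → ℝ | 0 ≤ p k}) ∩
      (⋂ k, ⋂ e ∈ M.mon k, {p : Fin m → ℝ | p k ≤ ∑ s, (e s : ℝ) * p s}) ∩
      (⋂ k, {p : Fin m → ℝ | p k ≤ R}) := by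
    ext p
    simp only [Leg, Set.mem_ofPred_eq, Set.mem_inter_iff, Set.mem_iInter]
    exact ⟨fun h => ⟨⟨h.1.nonneg, h.1.wall⟩, h.2⟩, fun h => ⟨⟨h.1.1, h.1.2⟩, h.2⟩⟩
  rw [this]
  refine IsClosed.inter (IsClosed.inter ?_ ?_) ?_
  · exact isClosed_iInter fun k => isClosed_le continuous_const (continuous_apply k)
  · refine isClosed_iInter fun k => isClosed_iInter fun e => isClosed_iInter fun _ => ?_
    exact isClosed_le (continuous_apply k)
      (continuous_finsetSum _ fun s _ => continuous_const.mul (continuous_apply s))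
  · exact isClosed_iInter fun k => isClosed_le (continuous_apply k) continuous_const

lemma isCompact_Leg (M : Mons m) (R : ℝ) : IsCompact (Leg M R) := by
  refine IsCompact.of_isClosed_subset (isCompact_Icc (a := (0 : Fin m → ℝ)) (b := fun _ => R))
    (isClosed_Leg M R) ?_
  intro p hp
  exact ⟨fun k => hp.1.nonneg k, fun k => hp.2 k⟩

/-- weights of the lower approximation -/
noncomputable def wgt (M : Mons m) : ℕ → Fin m → ℝ
  | 0, _ => 1
  | n + 1, k => 1 + ∑ e ∈ M.mon k, ∑ s, (e s : ℝ) * wgt M n s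

lemma wgt_one (M : Mons m) (n : ℕ) (k : Fin m) : 1 ≤ wgt M n k := by
  induction n generalizing k with
  | zero => exact le_rfl
  | succ n ih =>
    have : 0 ≤ ∑ e ∈ M.mon k, ∑ s, (e s : ℝ) * wgt M n s :=
      Finset.sum_nonneg fun e _ => Finset.sum_nonneg fun s _ =>
        mul_nonneg (Nat.cast_nonneg _) (by linarith [ih s])
    simp only [wgt]; linarith

lemma wgt_stable (M : Mons m) : ∀ n : ℕ, ∀ k : Fin m, k.val < n →
    wgt M (n + 1) k = wgt M n k := by
  intro n
  induction n with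
  | zero => intro k hk; exact absurd hk (Nat.not_lt_zero _)
  | succ n ih =>
    intro k hk
    change 1 + ∑ e ∈ M.mon k, ∑ s, (e s : ℝ) * wgt M (n + 1) s =
      1 + ∑ e ∈ M.mon k, ∑ s, (e s : ℝ) * wgt M n s
    congr 1
    refine Finset.sum_congr rfl fun e he => Finset.sum_congr rfl fun s _ => ?_
    by_cases hs : s < k
    · have : s.val < k.val := hs
      rw [ih s (by omega)]
    · rw [M.low k e he s (not_lt.mp hs)]
      simp

/-- weights: `a k ≥ 1`, `a k ≥ Σ e s a s` -/
noncomputable def wg (M : Mons m) : Fin m → ℝ := wgt M m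

lemma wg_one (M : Mons m) (k : Fin m) : 1 ≤ wg M k := wgt_one M m k

lemma wg_mon (M : Mons m) (k : Fin m) (e : Fin m → ℕ) (he : e ∈ M.mon k) :
    ∑ s, (e s : ℝ) * wg M s ≤ wg M k := by
  have h1 : wg M k = 1 + ∑ e ∈ M.mon k, ∑ s, (e s : ℝ) * wg M s := by
    unfold wg
    rw [← wgt_stable M m k k.isLt]
    rfl
  have h2 : ∑ s, (e s : ℝ) * wg M s ≤ ∑ e ∈ M.mon k, ∑ s, (e s : ℝ) * wg M s :=
    Finset.single_le_sum (f := fun e : Fin m → ℕ => ∑ s, (e s : ℝ) * wg M s)
      (fun e _ => Finset.sum_nonneg fun s _ =>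
        mul_nonneg (Nat.cast_nonneg _) (by linarith [wg_one M s])) he
  linarith

/-- lower approximation -/
noncomputable def lowp (M : Mons m) (η : ℝ) (p : Fin m → ℝ) : Fin m → ℝ :=
  fun k => max (p k - wg M k * η) 0

lemma lowp_mem {M : Mons m} {R η : ℝ} (hR : 0 ≤ R) (hη : 0 ≤ η) {p : Fin m → ℝ}
    (hp : p ∈ Leg M R) : lowp M η p ∈ Leg M R := by
  refine ⟨⟨fun k => le_max_right _ _, fun k e he => ?_⟩, fun k => ?_⟩
  · refine max_le ?_ ?_
    · have h1 := hp.1.wall k e he
      have h2 := wg_mon M k e he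
      have h3 : ∑ s, (e s : ℝ) * (p s - wg M s * η) ≤ ∑ s, (e s : ℝ) * lowp M η p s :=
        Finset.sum_le_sum fun s _ => mul_le_mul_of_nonneg_left (le_max_left _ _)
          (Nat.cast_nonneg _)
      have h4 : ∑ s, (e s : ℝ) * (p s - wg M s * η) =
          ∑ s, (e s : ℝ) * p s - (∑ s, (e s : ℝ) * wg M s) * η := by
        rw [Finset.sum_mul, ← Finset.sum_sub_distrib]
        exact Finset.sum_congr rfl fun s _ => by ring
      have h5 : (∑ s, (e s : ℝ) * wg M s) * η ≤ wg M k * η := mul_le_mul_of_nonneg_right h2 hη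
      linarith
    · exact Finset.sum_nonneg fun s _ => mul_nonneg (Nat.cast_nonneg _) (le_max_right _ _)
  · refine max_le ?_ hR
    have := hp.2 k
    have := mul_nonneg (by linarith [wg_one M k] : 0 ≤ wg M k) hη
    linarith

/-- upper approximation -/
noncomputable def upp (R η : ℝ) (p : Fin m → ℝ) : Fin m → ℝ := fun k => min (p k + η) R

lemma upp_mem {M : Mons m} {R η : ℝ} (hR : 0 ≤ R) (hη : 0 ≤ η) {p : Fin m → ℝ}
    (hp : p ∈ Leg M R) : upp R η p ∈ Leg M R := by
  have h0 : ∀ k, 0 ≤ upp R η p k := fun k => le_min (by linarith [hp.1.nonneg k]) hR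
  refine ⟨⟨h0, fun k e he => ?_⟩, fun k => min_le_right _ _⟩
  by_cases hc : ∃ s, e s ≠ 0 ∧ R ≤ p s + η
  · obtain ⟨s, hs, hR'⟩ := hc
    have h1 : upp R η p s = R := min_eq_right hR'
    have h2 : (1 : ℝ) ≤ e s := by exact_mod_cast Nat.one_le_iff_ne_zero.mpr hs
    calc upp R η p k ≤ R := min_le_right _ _
      _ ≤ (e s : ℝ) * upp R η p s := by rw [h1]; nlinarith
      _ ≤ ∑ s, (e s : ℝ) * upp R η p s :=
          Finset.single_le_sum (f := fun s => (e s : ℝ) * upp R η p s)
            (fun s _ => mul_nonneg (Nat.cast_nonneg _) (h0 s)) (Finset.mem_univ s)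
  · push Not at hc
    have h1 : ∑ s, (e s : ℝ) * upp R η p s = ∑ s, (e s : ℝ) * (p s + η) := by
      refine Finset.sum_congr rfl fun s _ => ?_
      by_cases hs : e s = 0
      · rw [hs]; simp
      · rw [upp, min_eq_left (hc s hs).le]
    rw [h1]
    have h2 : (1 : ℝ) ≤ ∑ s, (e s : ℝ) := by exact_mod_cast M.one_le he
    have h3 := hp.1.wall k e he
    calc upp R η p k ≤ p k + η := min_le_left _ _
      _ ≤ ∑ s, (e s : ℝ) * p s + (∑ s, (e s : ℝ)) * η := by nlinarith
      _ = ∑ s, (e s : ℝ) * (p s + η) := by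
          rw [Finset.sum_mul, ← Finset.sum_add_distrib]
          exact Finset.sum_congr rfl fun s _ => by ring

/-- **the legal region has sandwich nets** -/
theorem snet_Leg (M : Mons m) {R : ℝ} (hR : 0 ≤ R) : SNet (Leg M R) := by
  classical
  intro ε hε
  obtain ⟨W, hW0, hW⟩ : ∃ W : ℝ, 0 < W ∧ ∀ k, wg M k ≤ W := by
    refine ⟨1 + ∑ k, wg M k, ?_, fun k => ?_⟩
    · have : 0 ≤ ∑ k, wg M k := Finset.sum_nonneg fun k _ => by linarith [wg_one M k]
      linarith
    · have := Finset.single_le_sum (f := wg M) (fun k _ => by linarith [wg_one M k])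
        (Finset.mem_univ k)
      linarith
  set η : ℝ := ε / (W + 1) with hη
  have hη0 : 0 < η := by positivity
  obtain ⟨t, htP, htf, hcov⟩ := (isCompact_Leg M R).finite_cover_balls hη0
  set T := htf.toFinset with hT
  refine ⟨T.image (lowp M η) ∪ T.image (upp R η), ?_, ?_⟩
  · intro q hq
    rw [Finset.mem_union, Finset.mem_image, Finset.mem_image] at hq
    rcases hq with ⟨c, hc, rfl⟩ | ⟨c, hc, rfl⟩
    · exact lowp_mem hR hη0.le (htP (htf.mem_toFinset.mp hc))
    · exact upp_mem hR hη0.le (htP (htf.mem_toFinset.mp hc))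
  · intro p hp
    have h1 := hcov hp
    rw [Set.mem_iUnion₂] at h1
    obtain ⟨c, hc, hpc⟩ := h1
    rw [Metric.mem_ball, dist_eq_norm] at hpc
    have hk : ∀ k, |p k - c k| ≤ η := fun k => by
      have := norm_le_pi_norm (p - c) k
      rw [Pi.sub_apply, Real.norm_eq_abs] at this
      exact this.trans hpc.le
    refine ⟨lowp M η c, Finset.mem_union_left _ (Finset.mem_image_of_mem _
      (htf.mem_toFinset.mpr hc)), upp R η c, Finset.mem_union_right _ (Finset.mem_image_of_mem _
      (htf.mem_toFinset.mpr hc)), fun k => ?_, fun k => ?_, ?_⟩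
    · refine max_le ?_ (hp.1.nonneg k)
      have h2 := hk k
      rw [abs_le] at h2
      have h3 : η ≤ wg M k * η := by nlinarith [wg_one M k]
      linarith
    · refine le_min ?_ (hp.2 k)
      have h2 := hk k
      rw [abs_le] at h2
      linarith
    · refine (pi_norm_le_iff_of_nonneg hε.le).2 fun k => ?_
      rw [Pi.sub_apply, Real.norm_eq_abs]
      have h2 : upp R η c k ≤ c k + η := min_le_left _ _
      have h3 : c k - wg M k * η ≤ lowp M η c k := le_max_left _ _
      have h4 : lowp M η c k ≤ upp R η c k := by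
        refine max_le (le_min ?_ ?_) (le_min ?_ hR)
        · have := wg_one M k; nlinarith
        · have := (htP hc).2 k; have := wg_one M k; nlinarith
        · have := (htP hc).1.nonneg k; linarith
      rw [abs_of_nonneg (by linarith)]
      have h5 : wg M k * η ≤ W * η := mul_le_mul_of_nonneg_right (hW k) hη0.le
      have h6 : W * η + η = ε := by
        rw [hη]; field_simp
      linarith

/-! ### the families -/

variable {B : Base} {ι : ℕ → Type*} [∀ n, DecidableEq (ι n)]

/-- the label family of a sequence of charts -/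
noncomputable def nlab (B : Base) (I : ∀ n, Finset (ι n)) (co : ∀ n, ι n → ι n → Fin m → ℝ)
    (M : Mons m) (C : ℝ) (n : ℕ) (p : Fin m → ℝ) : ι n → ι n :=
  lab (I n) (co n) M C (B.d n) p

omit [∀ n, DecidableEq (ι n)] in
theorem near_of_nlab {I : ∀ n, Finset (ι n)} {co : ∀ n, ι n → ι n → Fin m → ℝ} {M : Mons m} {C : ℝ}
    (h : ∀ n, Chart (I n) (co n) M C) {n : ℕ} {p : Fin m → ℝ} (hp : Legal M p) {i j : ι n}
    (hi : i ∈ I n) (hj : j ∈ I n) (hl : nlab B I co M C n p i = nlab B I co M C n p j) :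
    Near (co n) (B.d n) p (cK0 M C) i j :=
  near_of_lab (h n) hp (B.pos n) (B.lt n).le hi hj hl

open Classical in
theorem card_nlab_le {I : ∀ n, Finset (ι n)} {co : ∀ n, ι n → ι n → Fin m → ℝ} {M : Mons m} {C : ℝ}
    (h : ∀ n, Chart (I n) (co n) M C) {n : ℕ} {p p' : Fin m → ℝ} (hp : Legal M p)
    (hp' : Legal M p') (hpp : p ≤ p') {K : ℝ} (hK : 1 ≤ K) {i : ι n} (hi : i ∈ I n) :
    ((((I n).filter fun j => Near (co n) (B.d n) p K i j).image (nlab B I co M C n p')).card : ℝ) ≤
      cN M C K * B.d n ^ (-(∑ s, (p' s - p s))) := by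
  have := card_lab_le (h n) hp hp' hpp (B.pos n) (B.lt n).le hK hi
  unfold nlab
  convert this

lemma pkC_pos (M : Mons m) {C K : ℝ} (hC : 0 ≤ C) (hK : 1 ≤ K) : 0 < pkC M C K := by
  unfold pkC
  have hs : 1 ≤ symC M C K m := hK.trans (symC_ge M hC hK m)
  have ht : 1 ≤ triC M C (symC M C K m) := hs.trans (triC_ge hC hs)
  have hη : 0 < pkη M C := by unfold pkη; positivity
  have : 0 < 2 * triC M C (symC M C K m) / pkη M C + 2 := by
    have : 0 < 2 * triC M C (symC M C K m) / pkη M C := by positivity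
    linarith
  positivity

lemma cN_pos (M : Mons m) {C K : ℝ} (hC : 0 ≤ C) (hK : 1 ≤ K) : 0 < cN M C K := by
  unfold cN
  have h1 : 1 ≤ max K (symC M C (cK1 M C) m) := hK.trans (le_max_left _ _)
  exact pkC_pos M hC (h1.trans (triC_ge hC h1))

theorem const_sub' (B : Base) {c : ℝ} (hc : 0 < c) : B.Sub (fun _ => c) :=
  Base.Sub.iff.2 ⟨Eventually.of_forall fun _ => hc, B.tendsto_const⟩

/-- **the labels form a quasi-nested family** -/
theorem net_QFam {I : ∀ n, Finset (ι n)} {co : ∀ n, ι n → ι n → Fin m → ℝ} {M : Mons m} {C : ℝ}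
    (h : ∀ n, Chart (I n) (co n) M C) {P : Set (Fin m → ℝ)} (hP : ∀ p ∈ P, Legal M p) :
    QFam B I (nlab B I co M C) m P where
  nest := by
    have hC0 := (h 0).C0
    have hK0 : 1 ≤ cK0 M C := cK0_one hC0
    set K1 := triC M C (cK0 M C) with hK1
    have hK11 : 1 ≤ K1 := hK0.trans (triC_ge hC0 hK0)
    set K2 := symC M C K1 m with hK2
    have hK21 : 1 ≤ K2 := hK11.trans (symC_ge M hC0 hK11 m)
    refine ⟨fun _ => cN M C K2, const_sub' B (cN_pos M hC0 hK21), Eventually.of_forall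
      fun n p hp p' hp' hpp i hi => ?_⟩
    classical
    have hd := B.pos n
    have hd1 := (B.lt n).le
    have h1 := card_nlab_le (B := B) h (hP p hp) (hP p hp) le_rfl hK21 hi
    simp only [sub_self, Finset.sum_const_zero, neg_zero, Real.rpow_zero, mul_one] at h1
    refine le_trans ?_ h1
    have hsub : (two (I n) (nlab B I co M C n p) (nlab B I co M C n p') i).image
        (nlab B I co M C n p) ⊆ ((I n).filter fun j => Near (co n) (B.d n) p K2 i j).image
          (nlab B I co M C n p) := by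
      refine Finset.image_subset_image fun x hx => ?_
      obtain ⟨hxI, y, hyI, hyi, hxy⟩ := mem_two.1 hx
      rw [Finset.mem_filter]
      refine ⟨hxI, ?_⟩
      have n1 := (near_of_nlab h (hP p' hp') hxI hyI hxy).anti hd hd1 (by linarith) hpp
      have n2 := near_of_nlab h (hP p hp) hyI hi hyi
      have n3 := (h n).tri (hP p hp) hd hd1 hK0 hxI hyI hi n1 n2
      exact (h n).symm (hP p hp) hd hd1 hK11 hxI hi n3
    have := Finset.card_le_card hsub
    exact_mod_cast this
  child := by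
    have hC0 := (h 0).C0
    have hK0 : 1 ≤ cK0 M C := cK0_one hC0
    intro ε hε
    have hN := cN_pos M hC0 hK0
    filter_upwards [B.ev_const_log (Real.log (cN M C (cK0 M C))) hε] with n hn p hp p' hp' hpp i hi
    classical
    have h1 := card_nlab_le (B := B) h (hP p hp) (hP p' hp') hpp hK0 hi
    have hsub : (cls (I n) (nlab B I co M C n p) i).image (nlab B I co M C n p') ⊆
        ((I n).filter fun j => Near (co n) (B.d n) p (cK0 M C) i j).image
          (nlab B I co M C n p') := by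
      refine Finset.image_subset_image fun x hx => ?_
      obtain ⟨hxI, hxi⟩ := mem_cls.1 hx
      rw [Finset.mem_filter]
      exact ⟨hxI, near_of_nlab h (hP p hp) hi hxI hxi.symm⟩
    have h2 : (((cls (I n) (nlab B I co M C n p) i).image (nlab B I co M C n p')).card : ℝ) ≤
        cN M C (cK0 M C) * B.d n ^ (-(∑ s, (p' s - p s))) := by
      refine le_trans ?_ h1
      exact_mod_cast Finset.card_le_card hsub
    refine h2.trans ?_
    have h3 : ∑ s, (p' s - p s) ≤ (m : ℝ) * ‖p' - p‖ := by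
      calc ∑ s, (p' s - p s) ≤ ∑ _s : Fin m, ‖p' - p‖ := Finset.sum_le_sum fun s _ => by
            have := norm_le_pi_norm (p' - p) s
            rw [Pi.sub_apply, Real.norm_eq_abs] at this
            exact (le_abs_self _).trans this
        _ = (m : ℝ) * ‖p' - p‖ := by simp
    rw [← B.exp_eq, ← B.exp_eq]
    have h4 : cN M C (cK0 M C) = Real.exp (Real.log (cN M C (cK0 M C))) := (Real.exp_log hN).symm
    rw [h4, ← Real.exp_add, Real.exp_le_exp]
    have hL := B.L_pos n
    have : (∑ s, (p' s - p s)) * B.L n ≤ (m : ℝ) * ‖p' - p‖ * B.L n :=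
      mul_le_mul_of_nonneg_right h3 hL.le
    linarith

/-- **approximate joins** -/
theorem net_QJoin {I : ∀ n, Finset (ι n)} {co : ∀ n, ι n → ι n → Fin m → ℝ} {M : Mons m} {C : ℝ}
    (h : ∀ n, Chart (I n) (co n) M C) {P : Set (Fin m → ℝ)} (hP : ∀ p ∈ P, Legal M p) :
    QJoin B I (nlab B I co M C) P := by
  have hC0 := (h 0).C0
  have hK0 : 1 ≤ cK0 M C := cK0_one hC0
  refine ⟨fun _ => cN M C (cK0 M C), const_sub' B (cN_pos M hC0 hK0), Eventually.of_forall
    fun n p hp q hq i hi => ?_⟩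
  classical
  have hpq : Legal M (p ⊔ q) := (hP p hp).sup (hP q hq)
  have h1 := card_nlab_le (B := B) h hpq hpq le_rfl hK0 hi
  simp only [sub_self, Finset.sum_const_zero, neg_zero, Real.rpow_zero, mul_one] at h1
  refine le_trans ?_ h1
  have hsub : (cls (I n) (nlab B I co M C n p) i ∩ cls (I n) (nlab B I co M C n q) i).image
      (nlab B I co M C n (p ⊔ q)) ⊆
      ((I n).filter fun j => Near (co n) (B.d n) (p ⊔ q) (cK0 M C) i j).image
        (nlab B I co M C n (p ⊔ q)) := by
    refine Finset.image_subset_image fun x hx => ?_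
    rw [Finset.mem_inter] at hx
    obtain ⟨hxI, hxp⟩ := mem_cls.1 hx.1
    obtain ⟨_, hxq⟩ := mem_cls.1 hx.2
    rw [Finset.mem_filter]
    exact ⟨hxI, (near_of_nlab h (hP p hp) hi hxI hxp.symm).sup
      (near_of_nlab h (hP q hq) hi hxI hxq.symm)⟩
  exact_mod_cast Finset.card_le_card hsub

end Crest.Agent.R136.Net191
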