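import Crest.Agent.R136.Dg7_219
import Crest.Agent.R136.Net2_191
import Crest.Agent.R138.AeT1_501

/-!
# R136: the general decoupling theorem for `Net191.Leg` and `Ex926.IsTan` (helper219)

* `mw M` : the walls of the triangular chart `M : Net191.Mons m`; `mw_P : (mw M).P 0 R = Leg M R`
* `bup_of_tan` : `IsTan` gives `BUp`
* `leg_out`   : decoupling on `Leg M R` for all `IsTan`
* `leg_tan`   : existence of tangents along a subsequence of every sequence of scales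
-/

set_option autoImplicit false
set_option linter.unusedSectionVars false
set_option linter.unusedVariables false

open Set Filter Topology Metric MeasureTheory

namespace Crest.Agent.R136.Dg219

open Dg262 (X X_cont SupOn LegU)
open Net191 (Mons Legal Leg)
open Crest.Agent.R138

variable {m : ℕ} {κ : Type*} [DecidableEq κ]

/-- walls of a triangular chart -/
def mw (M : Mons m) : Walls (Fin m) (Σ k : Fin m, {e // e ∈ M.mon k}) where
  hd := fun w => w.1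
  co := fun w => w.2.1
  cst := fun _ => 0
  rk := fun i => i.val
  low := fun w s hs => by
    by_contra hcon
    exact hs (M.low w.1 w.2.1 w.2.2 s (not_lt.1 hcon))

theorem mw_P (M : Mons m) (R : ℝ) : (mw M).P (fun _ => 0) (fun _ => R) = Leg M R := by
  ext p
  constructor
  · rintro ⟨h1, h2⟩
    refine ⟨⟨fun k => (h1 k).1, fun k e he => ?_⟩, fun k => (h1 k).2⟩
    have := h2 ⟨k, e, he⟩
    simp only [mw, Walls.rhs, add_zero] at this
    exact this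
  · rintro ⟨h1, h2⟩
    refine ⟨fun k => ⟨h1.nonneg k, h2 k⟩, fun w => ?_⟩
    simp only [mw, Walls.rhs, add_zero]
    exact h1.wall w.1 w.2.1 w.2.2

theorem mem_mwL {M : Mons m} {x0 a b c : Fin m → ℝ} : c ∈ (mw M).L x0 a b ↔
    ∀ k, ∀ e ∈ M.mon k, x0 k = ∑ s, (e s : ℝ) * x0 s → a k = ∑ s, (e s : ℝ) * a s →
      b k = ∑ s, (e s : ℝ) * b s → c k ≤ ∑ s, (e s : ℝ) * c s := by
  constructor
  · intro h k e he h1 h2 h3
    exact h ⟨k, e, he⟩ ⟨by simp only [mw, Walls.rhs, add_zero]; exact h1, h2, h3⟩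
  · rintro h ⟨k, e, he⟩ ⟨h1, h2, h3⟩
    simp only [mw, Walls.rhs, add_zero] at h1
    exact h k e he h1 h2 h3

theorem mem_mwO {M : Mons m} {R : ℝ} {x0 a b : Fin m → ℝ} {z : ℝ × ℝ} :
    z ∈ (mw M).O (fun _ => 0) (fun _ => R) x0 a b ↔
    (∀ k, 0 < X x0 a b z k ∧ X x0 a b z k < R) ∧ ∀ k, ∀ e ∈ M.mon k,
      (x0 k = ∑ s, (e s : ℝ) * x0 s ∧ a k = ∑ s, (e s : ℝ) * a s ∧
        b k = ∑ s, (e s : ℝ) * b s) ∨ X x0 a b z k < ∑ s, (e s : ℝ) * X x0 a b z s := by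
  constructor
  · rintro ⟨h1, h2⟩
    refine ⟨h1, fun k e he => ?_⟩
    have := h2 ⟨k, e, he⟩
    simp only [Walls.Act, mw, Walls.rhs, add_zero] at this
    exact this
  · rintro ⟨h1, h2⟩
    refine ⟨h1, fun w => ?_⟩
    have := h2 w.1 w.2.1 w.2.2
    simp only [Walls.Act, mw, Walls.rhs, add_zero]
    exact this

/-- `IsTan` gives the pointwise blow-up -/
theorem bup_of_tan {ι : Type*} [Fintype ι] [DecidableEq ι] {P L : Set (ι → ℝ)} {ν : (ι → ℝ) → ℝ}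
    {x : ι → ℝ} {h : ℕ → ℝ} {lam : (ι → ℝ) → ℝ} (hpos : ∀ l, 0 < h l)
    (h0 : Tendsto h atTop (𝓝 0)) (ht : Ex926.IsTan P L ν (fun _ => x) h lam) :
    BUp P L ν x h lam where
  pos := hpos
  zero := h0
  mem := fun c hc => (ht ‖c‖ 1 one_pos).mono fun l hl => (hl c hc le_rfl).1
  lim := fun c hc => by
    rw [Metric.tendsto_nhds]
    intro ε hε
    filter_upwards [ht ‖c‖ (ε / 2) (by positivity)] with l hl
    have h1 := (hl c hc le_rfl).2
    have h2 := hpos l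
    rw [Real.dist_eq]
    have e1 : (ν (x + h l • c) - ν x) / h l - lam c =
        (ν (x + h l • c) - ν x - h l * lam c) / h l := by field_simp
    rw [e1, abs_div, abs_of_pos h2, div_lt_iff₀ h2]
    nlinarith

/-- **decoupling on `Leg M R`** -/
theorem leg_out (M : Mons m) {R : ℝ} {ν : (Fin m → ℝ) → ℝ} {K : ℝ} (hK : 0 ≤ K)
    (hν : ∀ p ∈ Leg M R, ∀ q ∈ Leg M R, |ν p - ν q| ≤ K * ‖p - q‖)
    (hm : ∀ p ∈ Leg M R, ∀ q ∈ Leg M R, p ≤ q → ν q ≤ ν p ∧ ν p - ν q ≤ ∑ i, (q i - p i))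
    (hs : ∀ p ∈ Leg M R, ∀ q ∈ Leg M R, p ⊓ q ∈ Leg M R → ν p + ν q ≤ ν (p ⊔ q) + ν (p ⊓ q))
    {x0 a b : Fin m → ℝ} {grp : Fin m → κ} {n : κ → ℝ × ℝ} {dh : Fin m → ℝ}
    (hd : Dir grp a b n dh) {s t : ℝ} (hst : ∀ i, 0 < s * a i + t * b i) :
    ∀ᵐ z : ℝ × ℝ, z ∈ (mw M).O (fun _ => 0) (fun _ => R) x0 a b → ∃ D : ℝ × ℝ →L[ℝ] ℝ,
      HasFDerivAt (fun z => ν (X x0 a b z)) D z ∧
      ∀ (h : ℕ → ℝ), (∀ l, 0 < h l) → Tendsto h atTop (𝓝 0) → ∀ lam : (Fin m → ℝ) → ℝ,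
        Ex926.IsTan (Leg M R) ((mw M).L x0 a b) ν (fun _ => X x0 a b z) h lam →
        ∃ (φ : κ → (Fin m → ℝ) → ℝ) (r : κ → ℝ),
          Out grp ((mw M).L x0 a b) dh n lam (D (1, 0), D (0, 1)) φ r := by
  have e := mw_P M R
  have key := ae_out (mw M) (lo := fun _ => 0) (hi := fun _ => R) (x0 := x0) (ν := ν) hK
    (by rw [e]; intro p hp q hq; rw [dist_eq_norm]; exact hν p hp q hq)
    (by
      rw [e]; intro p hp q hq hpq
      have := hm p hp q hq hpq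
      exact ⟨by linarith [this.1], this.2⟩)
    (by rw [e]; intro p hp q hq h1 h2; exact hs p hp q hq h1) hd hst
  filter_upwards [key] with z hz hzO
  obtain ⟨D, hD, H⟩ := hz hzO
  refine ⟨D, hD, fun h hpos h0 lam ht => H h lam ?_⟩
  rw [e]
  exact bup_of_tan hpos h0 ht

/-- local legality at a point of the natural plane -/
theorem leg_legal (M : Mons m) {R : ℝ} {x0 a b : Fin m → ℝ} {z : ℝ × ℝ}
    (hz : z ∈ (mw M).O (fun _ => 0) (fun _ => R) x0 a b) (C : ℝ) :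
    ∃ h0 : ℝ, 0 < h0 ∧ ∀ h : ℝ, 0 < h → h < h0 → ∀ c ∈ (mw M).L x0 a b, ‖c‖ ≤ C →
      X x0 a b z + h • c ∈ Leg M R := by
  obtain ⟨ε, hε, H⟩ := Walls.legal hz C
  rw [mw_P] at H
  exact ⟨ε, hε, fun h hh hhe c hc hcC => H z (by rw [dist_self]; exact hε) h hh hhe c hc hcC⟩

/-- **tangents exist** along a subsequence of every sequence of scales -/
theorem leg_tan (M : Mons m) {R : ℝ} {ν : (Fin m → ℝ) → ℝ} {K : ℝ} (hK : 0 ≤ K)
    (hν : ∀ p ∈ Leg M R, ∀ q ∈ Leg M R, |ν p - ν q| ≤ K * ‖p - q‖)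
    {x0 a b : Fin m → ℝ} {z : ℝ × ℝ} (hz : z ∈ (mw M).O (fun _ => 0) (fun _ => R) x0 a b)
    {h : ℕ → ℝ} (hpos : ∀ l, 0 < h l) (h0 : Tendsto h atTop (𝓝 0)) :
    ∃ ψ : ℕ → ℕ, StrictMono ψ ∧ ∃ lam : (Fin m → ℝ) → ℝ,
      Ex926.IsTan (Leg M R) ((mw M).L x0 a b) ν (fun _ => X x0 a b z) (fun l => h (ψ l)) lam :=
  AeT501.exists_tangent (mw M).isClosed_L hK hν (fun C => leg_legal M hz C) hpos h0
    (Walls.cone (Q := mw M)).zero

end Crest.Agent.R136.Dg219
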