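import Crest.Agent.R136.Rbw_219
import Crest.Agent.R136.Dg8_219

/-!
# R136: sign-agnostic groups (helper219)

Everything from `Dg262.Grp a b g w` (one direction of the plane fixing the group and raising all
later groups) and `Walls.Full` (every active wall has a coefficient; true for every `Mons`
chart); inside a group the slopes may have both signs; ZERO slopes are allowed (first group).
* `Walls.geoG` : `Geo grp (Q.D ..) (Q.L ..) (Q.rm grp) Q.rs`
* `Walls.rwG`  : `Rb741.RW g a b (Q.L ..) Q.rk (Q.rm g)`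
* `DirS`, `OutS`, `ratesS`, `ae_outS`, `leg_outS` : splitting and linear rates, `dh i` any real
* `exists_grpC` : the ordering from `∀ i, 0 ≤ a i`, `b i` arbitrary (C-group `a i = 0` first)
-/

set_option autoImplicit false
set_option linter.unusedSectionVars false
set_option linter.unusedVariables false

open Set Filter Topology Metric MeasureTheory

namespace Crest.Agent.R136.Dg219

open Dg262 (X X_cont SupOn LegU)

variable {ι κ : Type*} [Fintype ι] [DecidableEq ι] [DecidableEq κ]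

section

variable {W : Type*} [Fintype W] {Q : Walls ι W} {x0 a b lo hi : ι → ℝ}

/-- every active wall has a coefficient -/
def Walls.Full (Q : Walls ι W) (x0 a b : ι → ℝ) : Prop := ∀ w, Q.Act x0 a b w → ∃ s, Q.co w s ≠ 0

theorem Walls.full_of_co (h : ∀ w, ∃ s, Q.co w s ≠ 0) : Q.Full x0 a b := fun w _ => h w

theorem Walls.full_of_ne (hne : ∀ i, a i ≠ 0 ∨ b i ≠ 0) : Q.Full x0 a b := by
  intro w hw
  by_contra hcon
  push Not at hcon
  have h1 : ∀ c : ι → ℝ, Q.rhs w c = 0 := by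
    intro c
    unfold Walls.rhs
    exact Finset.sum_eq_zero fun s _ => by rw [hcon s]; simp
  have h2 := hw.2.1
  have h3 := hw.2.2
  rw [h1] at h2 h3
  rcases hne (Q.hd w) with h | h
  · exact h h2
  · exact h h3

theorem Walls.act_outG {g : ι → ℕ} {wv : ℕ → ℝ × ℝ} (hG : Dg262.Grp a b g wv)
    (hF : Q.Full x0 a b) {grp : ι → κ} (hgg : ∀ i j, g i = g j ↔ grp i = grp j)
    {w : W} (hw : Q.Act x0 a b w) {k : κ} (hk : grp (Q.hd w) ≠ k) :
    ∃ s, Q.co w s ≠ 0 ∧ grp s ≠ k := by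
  by_contra hcon
  push Not at hcon
  obtain ⟨s0, hs0⟩ := hF w hw
  have hs0k := hcon s0 hs0
  have hcong : ∀ s, Q.co w s ≠ 0 → g s = g s0 := fun s hs => by
    rw [hgg, hcon s hs, hs0k]
  have hkg : g (Q.hd w) ≠ g s0 := fun h => hk (by rw [(hgg _ _).1 h, hs0k])
  -- speed of the head in a direction = sum of the speeds
  have hsum : ∀ v : ℝ × ℝ, a (Q.hd w) * v.1 + b (Q.hd w) * v.2 =
      ∑ s, (Q.co w s : ℝ) * (a s * v.1 + b s * v.2) := by
    intro v
    rw [hw.2.1, hw.2.2]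
    unfold Walls.rhs
    rw [Finset.sum_mul, Finset.sum_mul, ← Finset.sum_add_distrib]
    exact Finset.sum_congr rfl fun s _ => by ring
  rcases lt_or_gt_of_ne hkg with hlt | hlt
  · -- the head is in an earlier group
    have h1 := hG.fix (Q.hd w)
    rw [hsum] at h1
    have h2 : 0 < ∑ s, (Q.co w s : ℝ) * (a s * (wv (g (Q.hd w))).1 + b s * (wv (g (Q.hd w))).2) := by
      apply Finset.sum_pos'
      · intro s _
        by_cases hs : Q.co w s = 0
        · rw [hs]; simp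
        · exact mul_nonneg (Nat.cast_nonneg _)
            (hG.up (Q.hd w) s (by rw [hcong s hs]; exact hlt)).le
      · refine ⟨s0, Finset.mem_univ _, mul_pos ?_ (hG.up (Q.hd w) s0 hlt)⟩
        exact_mod_cast Nat.pos_of_ne_zero hs0
    linarith
  · -- the head is in a later group
    have h1 := hG.up s0 (Q.hd w) hlt
    rw [hsum] at h1
    have h2 : ∑ s, (Q.co w s : ℝ) * (a s * (wv (g s0)).1 + b s * (wv (g s0)).2) = 0 := by
      apply Finset.sum_eq_zero
      intro s _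
      by_cases hs : Q.co w s = 0
      · rw [hs]; simp
      · have h3 := hG.fix s
        rw [hcong s hs] at h3
        rw [h3, mul_zero]
    linarith

theorem Walls.rs_memG (hF : Q.Full x0 a b) {w : W} (hw : Q.Act x0 a b w) :
    Q.rs (Q.hd w) + 1 ≤ Q.rhs w Q.rs := by
  obtain ⟨s, hs⟩ := hF w hw
  exact (Q.rs_lt hs).trans (Q.le_rhs (fun i => by linarith [Q.one_le_rs i]) hs)

theorem Walls.rm_memG {g : ι → ℕ} {wv : ℕ → ℝ × ℝ} (hG : Dg262.Grp a b g wv)
    (hF : Q.Full x0 a b) {grp : ι → κ} (hgg : ∀ i j, g i = g j ↔ grp i = grp j)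
    {w : W} (hw : Q.Act x0 a b w) {k : κ} (hk : grp (Q.hd w) ≠ k) :
    Q.rs (Q.hd w) + 1 ≤ Q.rhs w (Q.rm grp k) := by
  obtain ⟨s, hs, hsk⟩ := Walls.act_outG hG hF hgg hw hk
  refine (Q.rs_lt hs).trans ?_
  have h1 : Q.rm grp k s = Q.rs s := by unfold Walls.rm; rw [if_neg hsk]
  rw [← h1]
  exact Q.le_rhs (Q.rm_nonneg grp k) hs

theorem Walls.roomG {g : ι → ℕ} {wv : ℕ → ℝ × ℝ} (hG : Dg262.Grp a b g wv)
    (hF : Q.Full x0 a b) {grp : ι → κ} (hgg : ∀ i j, g i = g j ↔ grp i = grp j) (k : κ) :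
    ∃ C : ℝ, 0 ≤ C ∧ ∀ (e : ι → ℝ) (A R : ℝ), 0 ≤ A → (∀ i, |e i| ≤ A) →
      (∃ c ∈ Q.L x0 a b, ∀ i, grp i = k → c i = e i) → C * A ≤ R →
      e + R • Q.rm grp k ∈ Q.L x0 a b := by
  set S : ℝ := ∑ w, ∑ s, (Q.co w s : ℝ) with hS
  have hS0 : ∀ w, 0 ≤ ∑ s, (Q.co w s : ℝ) := fun w => Finset.sum_nonneg fun s _ =>
    Nat.cast_nonneg _
  have hSw : ∀ w, ∑ s, (Q.co w s : ℝ) ≤ S := fun w =>
    Finset.single_le_sum (f := fun w => ∑ s, (Q.co w s : ℝ)) (fun w _ => hS0 w)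
      (Finset.mem_univ w)
  have hS0' : 0 ≤ S := Finset.sum_nonneg fun w _ => hS0 w
  refine ⟨1 + S, by linarith, fun e A R hA he hex hR w hw => ?_⟩
  have hR0 : 0 ≤ R := le_trans (by positivity) hR
  rw [Q.rhs_add, Q.rhs_smul]
  simp only [Pi.add_apply, Pi.smul_apply, smul_eq_mul]
  have h1 := Walls.rhs_abs (Q := Q) w he
  have h2 : A * ∑ s, (Q.co w s : ℝ) ≤ A * S := mul_le_mul_of_nonneg_left (hSw w) hA
  have h3 : e (Q.hd w) ≤ A := (le_abs_self _).trans (he _)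
  by_cases hk : grp (Q.hd w) = k
  · have e1 : Q.rm grp k (Q.hd w) = 0 := by unfold Walls.rm; rw [if_pos hk]
    rw [e1, mul_zero, add_zero]
    by_cases hs : ∃ s, Q.co w s ≠ 0 ∧ grp s ≠ k
    · obtain ⟨s, hs, hsk⟩ := hs
      have e2 : Q.rm grp k s = Q.rs s := by unfold Walls.rm; rw [if_neg hsk]
      have h4 : 1 ≤ Q.rhs w (Q.rm grp k) := by
        have := Q.le_rhs (Q.rm_nonneg grp k) hs
        rw [e2] at this
        exact (Q.one_le_rs s).trans this
      have h5 : R * 1 ≤ R * Q.rhs w (Q.rm grp k) := mul_le_mul_of_nonneg_left h4 hR0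
      nlinarith
    · push Not at hs
      obtain ⟨c, hc, hce⟩ := hex
      have h4 : Q.rhs w e = Q.rhs w c :=
        Walls.rhs_congr w fun s hs' => (hce s (hs s hs')).symm
      have h5 := hc w hw
      rw [hce _ hk] at h5
      have h6 : 0 ≤ R * Q.rhs w (Q.rm grp k) :=
        mul_nonneg hR0 (Q.rhs_nonneg (Q.rm_nonneg grp k))
      linarith
  · have e1 : Q.rm grp k (Q.hd w) = Q.rs (Q.hd w) := by unfold Walls.rm; rw [if_neg hk]
    rw [e1]
    have h4 := Walls.rm_memG hG hF hgg hw hk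
    have h5 : R * (Q.rs (Q.hd w) + 1) ≤ R * Q.rhs w (Q.rm grp k) :=
      mul_le_mul_of_nonneg_left h4 hR0
    nlinarith

/-- **axioms of the record blow-up, sign-agnostic** -/
theorem Walls.rwG {g : ι → ℕ} {wv : ℕ → ℝ × ℝ} (hG : Dg262.Grp a b g wv)
    (hF : Q.Full x0 a b) : Rb741.RW g a b (Q.L x0 a b) Q.rk (Q.rm g) where
  zero := (Walls.cone (Q := Q)).zero
  add := (Walls.cone (Q := Q)).add
  smul := (Walls.cone (Q := Q)).smul
  nat := fun z => Walls.Tn_mem z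
  sup := fun c hc d hd' w hw => by
    rw [Pi.sup_apply]
    exact sup_le ((hc w hw).trans (Walls.rhs_mono w le_sup_left))
      ((hd' w hw).trans (Walls.rhs_mono w le_sup_right))
  raise := fun c hc d hd' hcd i hi w hw => by
    have hup : c ≤ Function.update c i (d i) := by
      intro j
      by_cases hj : j = i
      · subst hj; rw [Function.update_self]; exact hcd j
      · rw [Function.update_of_ne hj]
    by_cases hwi : Q.hd w = i
    · rw [hwi, Function.update_self]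
      have h1 : Q.rhs w (Function.update c i (d i)) = Q.rhs w d := by
        refine Walls.rhs_congr w fun s hs => ?_
        have h2 : Q.rk s < Q.rk i := by rw [← hwi]; exact Q.low w s hs
        have h3 : s ≠ i := by rintro rfl; exact lt_irrefl _ h2
        rw [Function.update_of_ne h3]; exact hi s h2
      rw [h1]
      have := hd' w hw
      rwa [hwi] at this
    · rw [Function.update_of_ne hwi]
      exact (hc w hw).trans (Walls.rhs_mono w hup)
  rm_in := fun k i hi => by unfold Walls.rm; rw [if_pos hi]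
  rm_off := fun k i hi => by unfold Walls.rm; rw [if_neg hi]; exact Q.one_le_rs i
  room := fun k => Walls.roomG hG hF (fun _ _ => Iff.rfl) k

/-- **geometry of the walls, sign-agnostic** -/
theorem Walls.geoG {g : ι → ℕ} {wv : ℕ → ℝ × ℝ} (hG : Dg262.Grp a b g wv)
    (hF : Q.Full x0 a b) {grp : ι → κ} (hgg : ∀ i j, g i = g j ↔ grp i = grp j) :
    Geo grp (Q.D x0 a b) (Q.L x0 a b) (Q.rm grp) Q.rs where
  cone := Q.cone
  room :=
    { off := fun k i hi => by unfold Walls.rm; rw [if_pos hi]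
      mem := fun k w hw => by
        by_cases hk : grp (Q.hd w) = k
        · have : Q.rm grp k (Q.hd w) = 0 := by unfold Walls.rm; rw [if_pos hk]
          rw [this]
          exact Q.rhs_nonneg (Q.rm_nonneg grp k)
        · have : Q.rm grp k (Q.hd w) = Q.rs (Q.hd w) := by unfold Walls.rm; rw [if_neg hk]
          rw [this]
          linarith [Walls.rm_memG hG hF hgg hw hk]
      ex := fun k c hc => by
        obtain ⟨C, hC, H⟩ := Walls.roomG hG hF hgg k
        set A : ℝ := ∑ i, |c i| with hA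
        have hAi : ∀ i, |c i| ≤ A := fun i =>
          Finset.single_le_sum (f := fun i => |c i|) (fun i _ => abs_nonneg _) (Finset.mem_univ i)
        have hA0 : 0 ≤ A := Finset.sum_nonneg fun i _ => abs_nonneg _
        refine ⟨C * A, mul_nonneg hC hA0, H (pr grp k c) A (C * A) hA0 (fun i => ?_)
          ⟨c, hc, fun i hi => (pr_in k c hi).symm⟩ le_rfl⟩
        by_cases hi : grp i = k
        · rw [pr_in k c hi]; exact hAi i
        · rw [pr_off k c hi, abs_zero]; exact hA0 }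
  opn := Q.isOpen_D
  conv := Q.convex_D
  sub := fun c hc w hw => (hc w hw).le
  inn := fun c hc ε hε w hw => by
    rw [Q.rhs_add, Q.rhs_smul]
    simp only [Pi.add_apply, Pi.smul_apply, smul_eq_mul]
    have h1 := hc w hw
    have h2 := Walls.rs_memG hF hw
    nlinarith

end

/-! ### linear rates, sign-agnostic -/

/-- the slopes: `(a i, b i) = dh i * n (grp i)`, `dh i` any real (also `0`) -/
structure DirS (grp : ι → κ) (a b : ι → ℝ) (n : κ → ℝ × ℝ) (dh : ι → ℝ) : Prop where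
  fst : ∀ i, a i = dh i * (n (grp i)).1
  snd : ∀ i, b i = dh i * (n (grp i)).2
  ne : ∀ i, n (grp i) ≠ 0
  det : ∀ i j, grp i ≠ grp j → det2 (n (grp i)) (n (grp j)) ≠ 0

theorem DirS.Tn_eq {grp : ι → κ} {a b : ι → ℝ} {n : κ → ℝ × ℝ} {dh : ι → ℝ}
    (h : DirS grp a b n dh) (z : ℝ × ℝ) (i : ι) : Tn a b z i = lf (n (grp i)) z * dh i := by
  simp only [Tn, lf]; rw [h.fst i, h.snd i]; ring

/-- output of the splitting at one point, sign-agnostic -/
structure OutS (grp : ι → κ) (L : Set (ι → ℝ)) (dh : ι → ℝ) (n : κ → ℝ × ℝ) (lam : (ι → ℝ) → ℝ)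
    (A : ℝ × ℝ) (φ : κ → (ι → ℝ) → ℝ) (r : κ → ℝ) : Prop where
  sum : ∀ c ∈ L, lam c = ∑ k ∈ gset grp, φ k c
  loc : ∀ k c c', (∀ i, grp i = k → c i = c' i) → φ k c = φ k c'
  zero : ∀ k c, (∀ i, grp i = k → c i = 0) → φ k c = 0
  mono : ∀ k, ∀ c ∈ L, ∀ c' ∈ L, (∀ i, grp i = k → c i ≤ c' i) → 0 ≤ φ k c - φ k c' ∧
    φ k c - φ k c' ≤ ∑ i ∈ Finset.univ.filter (fun i => grp i = k), (c' i - c i)
  smod : ∀ k, ∀ p ∈ L, ∀ q ∈ L, p ⊓ q ∈ L → p ⊔ q ∈ L →
    φ k p + φ k q ≤ φ k (p ⊔ q) + φ k (p ⊓ q)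
  rate : ∀ k, ∀ c ∈ L, ∀ u : ℝ, (∀ i, grp i = k → c i = u * dh i) → φ k c = -(r k * u)
  r_nonneg : ∀ k, (∀ i, grp i = k → 0 < dh i) → 0 ≤ r k
  r_nonpos : ∀ k, (∀ i, grp i = k → dh i < 0) → r k ≤ 0
  total : ∀ z : ℝ × ℝ, lf A z = -∑ k ∈ gset grp, r k * lf (n k) z

section

variable {grp : ι → κ} {D L : Set (ι → ℝ)} {g : (ι → ℝ) → ℝ} {ρ : κ → ι → ℝ} {ρs : ι → ℝ}

/-- Lipschitz bound of the group functions in the norm -/
theorem phi_lip (hG : Geo grp D L ρ ρs) (hg : Sep grp L g) {K : ℝ}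
    (hK : ∀ c ∈ L, ∀ c' ∈ L, |g c - g c'| ≤ K * dist c c')
    (k : κ) {c c' : ι → ℝ} (hc : c ∈ L) (hc' : c' ∈ L) :
    |phi grp L g ρ k c - phi grp L g ρ k c'| ≤ K * dist (pr grp k c) (pr grp k c') := by
  obtain ⟨R1, h10, h1⟩ := hG.room.ex k c hc
  obtain ⟨R2, h20, h2⟩ := hG.room.ex k c' hc'
  set R := R1 + R2 with hR
  have hR0 : 0 ≤ R := by linarith
  have m1 : pr grp k c + R • ρ k ∈ L := hG.room.mono hG.cone h1 (by linarith)
  have m2 : pr grp k c' + R • ρ k ∈ L := hG.room.mono hG.cone h2 (by linarith)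
  rw [phi_eq hG.cone hG.room hg hc hR0 m1, phi_eq hG.cone hG.room hg hc' hR0 m2]
  have h3 := hK _ m1 _ m2
  rw [dist_add_right] at h3
  have e : g (pr grp k c + R • ρ k) - g (R • ρ k) - (g (pr grp k c' + R • ρ k) - g (R • ρ k)) =
      g (pr grp k c + R • ρ k) - g (pr grp k c' + R • ρ k) := by ring
  rw [e]; exact h3

/-- **splitting with linear rates, sign-agnostic** -/
theorem ratesS (hG : Geo grp D L ρ ρs) (hg : Sep grp L g) (gc : Continuous g) (g0 : g 0 = 0)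
    {K : ℝ} (hK0 : 0 ≤ K) (hK : ∀ c ∈ L, ∀ c' ∈ L, |g c - g c'| ≤ K * dist c c')
    (hm : ∀ c ∈ L, ∀ c' ∈ L, c ≤ c' → 0 ≤ g c - g c' ∧ g c - g c' ≤ ∑ i, (c' i - c i))
    (hs : ∀ p ∈ L, ∀ q ∈ L, p ⊓ q ∈ L → p ⊔ q ∈ L → g p + g q ≤ g (p ⊔ q) + g (p ⊓ q))
    {a b : ι → ℝ} {n : κ → ℝ × ℝ} {dh : ι → ℝ} (hd : DirS grp a b n dh)
    (hT : ∀ z, Tn a b z ∈ L) {A : ℝ × ℝ} (hA : ∀ z, g (Tn a b z) = lf A z) :
    ∃ r : κ → ℝ, OutS grp L dh n g A (phi grp L g ρ) r := by
  set S := gset grp with hS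
  have hmem : ∀ k ∈ S, ∃ i, grp i = k := by
    intro k hk
    obtain ⟨i, -, hi⟩ := Finset.mem_image.1 hk
    exact ⟨i, hi⟩
  set dK : ℝ := K * ∑ i, |dh i| with hdK
  have hsd : 0 ≤ ∑ i, |dh i| := Finset.sum_nonneg fun i _ => abs_nonneg _
  have hdK0 : 0 ≤ dK := mul_nonneg hK0 hsd
  -- the function of one variable
  set f : κ → ℝ → ℝ := fun k u => phi grp L g ρ k (Tn a b (zz (n k) u)) with hf
  have hval : ∀ k ∈ S, ∀ w : ℝ, ∀ i, grp i = k → Tn a b (zz (n k) w) i = w * dh i := by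
    intro k hk w i hi
    rw [hd.Tn_eq, hi, lf_zz (by rw [← hi]; exact hd.ne i)]
  have hpar : ∀ k ∈ S, ∀ c : ι → ℝ, ∀ u : ℝ, (∀ i, grp i = k → c i = u * dh i) →
      phi grp L g ρ k c = f k u := by
    intro k hk c u hcu
    apply phi_congr
    funext i
    by_cases hi : grp i = k
    · rw [pr_in k _ hi, pr_in k _ hi, hcu i hi, hval k hk u i hi]
    · rw [pr_off k _ hi, pr_off k _ hi]
  have hTf : ∀ k ∈ S, ∀ z, phi grp L g ρ k (Tn a b z) = f k (lf (n k) z) := by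
    intro k hk z
    exact hpar k hk _ _ fun i hi => by rw [hd.Tn_eq, hi]
  have hlip : ∀ k ∈ S, ∀ u v : ℝ, |f k u - f k v| ≤ dK * |u - v| := by
    intro k hk u v
    refine (phi_lip hG hg hK k (hT _) (hT _)).trans ?_
    rw [hdK, mul_assoc]
    refine mul_le_mul_of_nonneg_left ?_ hK0
    rw [dist_pi_le_iff (mul_nonneg hsd (abs_nonneg _))]
    intro i
    rw [Real.dist_eq]
    by_cases hi : grp i = k
    · rw [pr_in k _ hi, pr_in k _ hi, hval k hk u i hi, hval k hk v i hi, ← sub_mul, abs_mul,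
        mul_comm]
      exact mul_le_mul_of_nonneg_right
        (Finset.single_le_sum (f := fun i => |dh i|) (fun i _ => abs_nonneg _) (Finset.mem_univ i))
        (abs_nonneg _)
    · rw [pr_off k _ hi, pr_off k _ hi, sub_self, abs_zero]
      exact mul_nonneg hsd (abs_nonneg _)
  have hf0 : ∀ k ∈ S, f k 0 = 0 := by
    intro k hk
    rw [← hpar k hk 0 0 (fun i _ => by simp)]
    exact phi_zero k fun i _ => rfl
  have hsum : ∀ z : ℝ × ℝ, ∑ k ∈ S, f k (lf (n k) z) = 0 + lf A z := by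
    intro z
    rw [zero_add, ← hA z]
    have := repr hG hg gc (hT z)
    rw [g0, sub_zero] at this
    rw [this]
    exact Finset.sum_congr rfl fun k hk => (hTf k hk z).symm
  have hlin := frechet S n
    (fun k hk => by obtain ⟨i, hi⟩ := hmem k hk; rw [← hi]; exact hd.ne i)
    (fun k hk l hl hkl => by
      obtain ⟨i, hi⟩ := hmem k hk
      obtain ⟨j, hj⟩ := hmem l hl
      rw [← hi, ← hj]
      exact hd.det i j (by rw [hi, hj]; exact hkl))
    f (fun _ => dK) 0 A (fun k _ => hdK0) hlip hsum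
  have hlin' : ∀ k ∈ S, ∀ u, f k u = -((-f k 1) * u) := by
    intro k hk u
    rw [hlin k hk u, hf0 k hk]; ring
  refine ⟨fun k => if k ∈ S then -f k 1 else 0, ?_, ?_, ?_, ?_, ?_, ?_, ?_, ?_, ?_⟩
  · intro c hc
    have := repr hG hg gc hc
    rwa [g0, sub_zero] at this
  · intro k c c' h
    apply phi_congr
    funext i
    by_cases hi : grp i = k
    · rw [pr_in k _ hi, pr_in k _ hi, h i hi]
    · rw [pr_off k _ hi, pr_off k _ hi]
  · intro k c h
    exact phi_zero k h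
  · intro k c hc c' hc' h
    exact phi_mono hG hg hm k hc hc' h
  · intro k p hp q hq h1 h2
    exact phi_sup hG hg hs k hp hq h1 h2
  · intro k c hc u h
    by_cases hk : k ∈ S
    · rw [if_pos hk, hpar k hk c u h, hlin' k hk u]
    · rw [if_neg hk, zero_mul, neg_zero]
      apply phi_zero
      intro i hi
      exact absurd (hi ▸ mem_gset i) hk
  · intro k hpos
    by_cases hk : k ∈ S
    · rw [if_pos hk]
      have := (phi_mono hG hg hm k (hT (zz (n k) 0)) (hT (zz (n k) 1)) (fun i hi => by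
        rw [hval k hk 0 i hi, hval k hk 1 i hi]
        have := hpos i hi
        linarith)).1
      have h1 : phi grp L g ρ k (Tn a b (zz (n k) 0)) = 0 := hf0 k hk
      have h2 : phi grp L g ρ k (Tn a b (zz (n k) 1)) = f k 1 := rfl
      rw [h1, h2] at this
      linarith
    · rw [if_neg hk]
  · intro k hneg
    by_cases hk : k ∈ S
    · rw [if_pos hk]
      have := (phi_mono hG hg hm k (hT (zz (n k) 1)) (hT (zz (n k) 0)) (fun i hi => by
        rw [hval k hk 0 i hi, hval k hk 1 i hi]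
        have := hneg i hi
        linarith)).1
      have h1 : phi grp L g ρ k (Tn a b (zz (n k) 0)) = 0 := hf0 k hk
      have h2 : phi grp L g ρ k (Tn a b (zz (n k) 1)) = f k 1 := rfl
      rw [h1, h2] at this
      linarith
    · rw [if_neg hk]
  · intro z
    have h1 := hsum z
    rw [zero_add] at h1
    rw [← h1, ← Finset.sum_neg_distrib]
    refine Finset.sum_congr rfl fun k hk => ?_
    rw [if_pos hk, hlin' k hk (lf (n k) z)]

theorem OutS.congr {dh : ι → ℝ} {n : κ → ℝ × ℝ}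
    {lam lam' : (ι → ℝ) → ℝ} {A : ℝ × ℝ} {φ : κ → (ι → ℝ) → ℝ} {r : κ → ℝ}
    (H : OutS grp L dh n lam A φ r) (h : ∀ c ∈ L, lam' c = lam c) :
    OutS grp L dh n lam' A φ r where
  sum := fun c hc => by rw [h c hc]; exact H.sum c hc
  loc := H.loc
  zero := H.zero
  mono := H.mono
  smod := H.smod
  rate := H.rate
  r_nonneg := H.r_nonneg
  r_nonpos := H.r_nonpos
  total := H.total

end

/-- **GENERAL DECOUPLING THEOREM, sign-agnostic groups** -/
theorem ae_outS {W : Type*} [Fintype W] (Q : Walls ι W) {x0 a b lo hi : ι → ℝ}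
    {ν : (ι → ℝ) → ℝ} {K : ℝ} (hK : 0 ≤ K)
    (hν : ∀ p ∈ Q.P lo hi, ∀ q ∈ Q.P lo hi, |ν p - ν q| ≤ K * dist p q)
    (hm : ∀ p ∈ Q.P lo hi, ∀ q ∈ Q.P lo hi, p ≤ q →
      0 ≤ ν p - ν q ∧ ν p - ν q ≤ ∑ i, (q i - p i))
    (hs : SupOn ν (Q.P lo hi)) {g : ι → ℕ} {wv : ℕ → ℝ × ℝ} (hGr : Dg262.Grp a b g wv)
    (hF : Q.Full x0 a b) {grp : ι → κ} (hgg : ∀ i j, g i = g j ↔ grp i = grp j)
    {n : κ → ℝ × ℝ} {dh : ι → ℝ} (hd : DirS grp a b n dh) :
    ∀ᵐ z : ℝ × ℝ, z ∈ Q.O lo hi x0 a b → ∃ D : ℝ × ℝ →L[ℝ] ℝ,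
      HasFDerivAt (fun z => ν (X x0 a b z)) D z ∧
      ∀ (h : ℕ → ℝ) (lam : (ι → ℝ) → ℝ),
        BUp (Q.P lo hi) (Q.L x0 a b) ν (X x0 a b z) h lam →
        ∃ (φ : κ → (ι → ℝ) → ℝ) (r : κ → ℝ),
          OutS grp (Q.L x0 a b) dh n lam (D (1, 0), D (0, 1)) φ r := by
  have hlip : LipschitzOnWith ⟨K, hK⟩ ν (Q.P lo hi) :=
    LipschitzOnWith.of_dist_le_mul fun p hp q hq => by rw [Real.dist_eq]; exact hν p hp q hq
  obtain ⟨ν', hν', he⟩ := hlip.extend_real
  have hdiff := (hν'.comp (X_lip x0 a b)).ae_differentiableAt (μ := volume)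
  have hcross := Dg262.ae_cross_seq hK hν hs hGr (Q.convex_D (x0 := x0) (a := a) (b := b))
    (Q.legU (lo := lo) (hi := hi) (x0 := x0) (a := a) (b := b))
  have hgeo : Geo grp (Q.D x0 a b) (Q.L x0 a b) (Q.rm grp) Q.rs := Walls.geoG hGr hF hgg
  filter_upwards [hdiff, hcross] with z hz1 hz2 hz
  obtain ⟨D, hD'⟩ := hz1
  have hD : HasFDerivAt (fun z => ν (X x0 a b z)) D z := by
    refine hD'.congr_of_eventuallyEq ?_
    filter_upwards [(Walls.isOpen_O (Q := Q) (lo := lo) (hi := hi) (x0 := x0) (a := a)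
      (b := b)).mem_nhds hz] with z' hz'
    exact he (Q.X_mem hz')
  refine ⟨D, hD, fun h lam H => ?_⟩
  have hlamK := H.lip hν
  have hlam : LipschitzOnWith ⟨K, hK⟩ lam (Q.L x0 a b) :=
    LipschitzOnWith.of_dist_le_mul fun p hp q hq => by
      rw [Real.dist_eq]; exact hlamK p hp q hq
  obtain ⟨G, hG, heG⟩ := hlam.extend_real
  have h0L : (0 : ι → ℝ) ∈ Q.L x0 a b := hgeo.cone.zero
  have hG0 : G 0 = 0 := by rw [← heG h0L]; exact H.lam0 h0L
  have hsep : Sep grp (Q.D x0 a b) G := by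
    refine sep_open ?_ hgeo.opn hgeo.conv
    have hc := hz2 hz h H.pos H.zero lam (fun _ => ν (X x0 a b z))
      (fun c hc => H.lim c (hgeo.sub hc))
    intro i j hij c α β hα hβ h00 h10 h01 h11
    rw [← heG (hgeo.sub h11), ← heG (hgeo.sub h00), ← heG (hgeo.sub h10), ← heG (hgeo.sub h01)]
    exact hc i j (fun e => hij ((hgg i j).1 e)) c α β hα hβ h00 h10 h01 h11
  have hsepL : Sep grp (Q.L x0 a b) G := sep_closed hsep hG.continuous hgeo.inn
  have hmono : ∀ c ∈ Q.L x0 a b, ∀ c' ∈ Q.L x0 a b, c ≤ c' → 0 ≤ G c - G c' ∧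
      G c - G c' ≤ ∑ i, (c' i - c i) := by
    intro c hc c' hc' hcc
    rw [← heG hc, ← heG hc']
    exact H.mono hm c hc c' hc' hcc
  have hsmod : ∀ p ∈ Q.L x0 a b, ∀ q ∈ Q.L x0 a b, p ⊓ q ∈ Q.L x0 a b → p ⊔ q ∈ Q.L x0 a b →
      G p + G q ≤ G (p ⊔ q) + G (p ⊓ q) := by
    intro p hp q hq h1 h2
    rw [← heG hp, ← heG hq, ← heG h1, ← heG h2]
    exact H.smod hs p hp q hq h1 h2
  have hGK : ∀ c ∈ Q.L x0 a b, ∀ c' ∈ Q.L x0 a b, |G c - G c'| ≤ K * dist c c' := by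
    intro c hc c' hc'
    rw [← heG hc, ← heG hc']
    exact hlamK c hc c' hc'
  have hA : ∀ z' : ℝ × ℝ, G (Tn a b z') = lf (D (1, 0), D (0, 1)) z' := by
    intro z'
    rw [← heG (Walls.Tn_mem (Q := Q) (x0 := x0) z')]
    have hinv : Tendsto (fun l => ‖(h l)⁻¹‖) atTop atTop := by
      have h1 : Tendsto h atTop (𝓝[>] 0) :=
        tendsto_nhdsWithin_iff.2 ⟨H.zero, Eventually.of_forall fun l => H.pos l⟩
      have h2 := tendsto_inv_nhdsGT_zero.comp h1
      refine h2.congr fun l => ?_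
      rw [Function.comp, Real.norm_of_nonneg (inv_nonneg.2 (H.pos l).le)]
    have h3 := hD.lim z' hinv
    have h4 := H.lim _ (Walls.Tn_mem (Q := Q) (x0 := x0) (a := a) (b := b) z')
    have h5 : lam (Tn a b z') = D z' := by
      refine tendsto_nhds_unique h4 (h3.congr fun l => ?_)
      rw [inv_inv, X_add, smul_eq_mul, div_eq_inv_mul]
    rw [h5]
    have h6 : z' = z'.1 • ((1:ℝ), (0:ℝ)) + z'.2 • ((0:ℝ), (1:ℝ)) := by
      ext <;> simp
    conv_lhs => rw [h6]
    rw [map_add, map_smul, map_smul, smul_eq_mul, smul_eq_mul]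
    simp only [lf]; ring
  obtain ⟨r, hr⟩ := ratesS hgeo hsepL hG.continuous hG0 hK hGK hmono hsmod hd
    (fun z' => Walls.Tn_mem (Q := Q) z') hA
  exact ⟨_, r, hr.congr fun c hc => heG hc⟩

/-! ### ordering from the closed half plane -/

open Classical in
/-- ordering for `0 ≤ a i`: group `0` = the slots with `a i = 0` (C-group), the others by the slope
`b i / a i` -/
noncomputable def gC (a b : ι → ℝ) (i : ι) : ℕ :=
  if a i = 0 then 0 else
    1 + ((Finset.univ.image fun j => b j / a j).filter (fun x => x < b i / a i)).card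

/-- slope of a slot: `dh` -/
noncomputable def dhC (a b : ι → ℝ) (i : ι) : ℝ := if a i = 0 then b i else a i

open Classical in
/-- normalised direction of a group of `gC` -/
noncomputable def nC (a b : ι → ℝ) (k : ℕ) : ℝ × ℝ :=
  if h : ∃ i, gC a b i = k ∧ a i ≠ 0 then (1, b h.choose / a h.choose) else (0, 1)

section

variable {a b : ι → ℝ}

theorem gC_zero {i : ι} : gC a b i = 0 ↔ a i = 0 := by
  unfold gC
  by_cases h : a i = 0
  · simp [h]
  · simp [h]

theorem gC_lt {i j : ι} (hi : a i ≠ 0) (hj : a j ≠ 0) (h : b i / a i < b j / a j) :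
    gC a b i < gC a b j := by
  classical
  unfold gC
  rw [if_neg hi, if_neg hj]
  apply Nat.add_lt_add_left
  apply Finset.card_lt_card
  rw [Finset.ssubset_iff_of_subset]
  · refine ⟨b i / a i, ?_, ?_⟩
    · simp only [Finset.mem_filter]
      exact ⟨Finset.mem_image_of_mem _ (Finset.mem_univ _), h⟩
    · simp
  · intro x hx
    simp only [Finset.mem_filter] at hx ⊢
    exact ⟨hx.1, hx.2.trans h⟩

theorem gC_eq {i j : ι} (hi : a i ≠ 0) (hj : a j ≠ 0) :
    gC a b i = gC a b j ↔ b i / a i = b j / a j := by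
  constructor
  · intro h
    rcases lt_trichotomy (b i / a i) (b j / a j) with h1 | h1 | h1
    · have := gC_lt hi hj h1; omega
    · exact h1
    · have := gC_lt hj hi h1; omega
  · intro h
    unfold gC
    rw [if_neg hi, if_neg hj, h]

theorem gC_gt {i j : ι} (hi : a i ≠ 0) (hj : a j ≠ 0) (h : gC a b i < gC a b j) :
    b i / a i < b j / a j := by
  rcases lt_trichotomy (b i / a i) (b j / a j) with h1 | h1 | h1
  · exact h1
  · have := (gC_eq hi hj).2 h1; omega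
  · have := gC_lt hj hi h1; omega

theorem nC_zero : nC a b 0 = (0, 1) := by
  unfold nC
  rw [dif_neg]
  rintro ⟨i, hi, hi'⟩
  exact hi' (gC_zero.1 hi)

theorem nC_of {i : ι} (hi : a i ≠ 0) : nC a b (gC a b i) = (1, b i / a i) := by
  have h : ∃ j, gC a b j = gC a b i ∧ a j ≠ 0 := ⟨i, rfl, hi⟩
  unfold nC
  rw [dif_pos h, (gC_eq h.choose_spec.2 hi).1 h.choose_spec.1]

/-- directions of the groups -/
theorem dirC : DirS (gC a b) a b (nC a b) (dhC a b) where
  fst := fun i => by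
    by_cases h : a i = 0
    · rw [gC_zero.2 h, nC_zero, h]; simp
    · rw [nC_of h, dhC, if_neg h, mul_one]
  snd := fun i => by
    by_cases h : a i = 0
    · rw [gC_zero.2 h, nC_zero, dhC, if_pos h, mul_one]
    · rw [nC_of h, dhC, if_neg h]; field_simp
  ne := fun i => by
    by_cases h : a i = 0
    · rw [gC_zero.2 h, nC_zero]; simp
    · rw [nC_of h]; simp
  det := fun i j hij => by
    by_cases hi : a i = 0
    · by_cases hj : a j = 0
      · exact absurd (by rw [gC_zero.2 hi, gC_zero.2 hj]) hij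
      · rw [gC_zero.2 hi, nC_zero, nC_of hj]; unfold det2; simp
    · by_cases hj : a j = 0
      · rw [gC_zero.2 hj, nC_zero, nC_of hi]; unfold det2; simp
      · rw [nC_of hi, nC_of hj]
        unfold det2
        simp only
        intro h
        apply hij
        rw [gC_eq hi hj]
        linarith

/-- **the ordering for the closed half plane `0 ≤ a`** -/
theorem exists_grpC (ha : ∀ i, 0 ≤ a i) : ∃ wv : ℕ → ℝ × ℝ, Dg262.Grp a b (gC a b) wv := by
  classical
  refine ⟨fun k => if h : ∃ i, gC a b i = k ∧ a i ≠ 0 then (-b h.choose, a h.choose) else (1, 0),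
    ?_, ?_⟩
  · intro i
    by_cases hi : a i = 0
    · have h : ¬ ∃ j, gC a b j = gC a b i ∧ a j ≠ 0 := by
        rintro ⟨j, hj, hj'⟩
        rw [gC_zero.2 hi, gC_zero] at hj
        exact hj' hj
      simp only [dif_neg h, hi]; ring
    · have h : ∃ j, gC a b j = gC a b i ∧ a j ≠ 0 := ⟨i, rfl, hi⟩
      simp only [dif_pos h]
      have h1 := (gC_eq h.choose_spec.2 hi).1 h.choose_spec.1
      rw [div_eq_div_iff h.choose_spec.2 hi] at h1
      linarith
  · intro i j hij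
    have hj : a j ≠ 0 := by
      intro hj
      rw [gC_zero.2 hj] at hij
      omega
    have hj' : 0 < a j := lt_of_le_of_ne (ha j) (Ne.symm hj)
    by_cases hi : a i = 0
    · have h : ¬ ∃ j, gC a b j = gC a b i ∧ a j ≠ 0 := by
        rintro ⟨j, hj, hj'⟩
        rw [gC_zero.2 hi, gC_zero] at hj
        exact hj' hj
      simp only [dif_neg h]
      linarith
    · have h : ∃ j, gC a b j = gC a b i ∧ a j ≠ 0 := ⟨i, rfl, hi⟩
      simp only [dif_pos h]
      have h1 := (gC_eq h.choose_spec.2 hi).1 h.choose_spec.1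
      have h2 := gC_gt hi hj hij
      rw [← h1] at h2
      have h3 : 0 < a h.choose := lt_of_le_of_ne (ha _) (Ne.symm h.choose_spec.2)
      rw [div_lt_div_iff₀ h3 hj'] at h2
      linarith

end

/-! ### `Leg M R` -/

section

open Net191 (Mons Legal Leg)
open Crest.Agent.R138

variable {m : ℕ}

theorem mw_full (M : Mons m) (x0 a b : Fin m → ℝ) : (mw M).Full x0 a b :=
  Walls.full_of_co fun w => M.ne w.1 w.2.1 w.2.2

/-- **decoupling on `Leg M R`, sign-agnostic** -/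
theorem leg_outS (M : Mons m) {R : ℝ} {ν : (Fin m → ℝ) → ℝ} {K : ℝ} (hK : 0 ≤ K)
    (hν : ∀ p ∈ Leg M R, ∀ q ∈ Leg M R, |ν p - ν q| ≤ K * ‖p - q‖)
    (hm : ∀ p ∈ Leg M R, ∀ q ∈ Leg M R, p ≤ q → ν q ≤ ν p ∧ ν p - ν q ≤ ∑ i, (q i - p i))
    (hs : ∀ p ∈ Leg M R, ∀ q ∈ Leg M R, p ⊓ q ∈ Leg M R → ν p + ν q ≤ ν (p ⊔ q) + ν (p ⊓ q))
    {x0 a b : Fin m → ℝ} {g : Fin m → ℕ} {wv : ℕ → ℝ × ℝ} (hGr : Dg262.Grp a b g wv)
    {grp : Fin m → κ} (hgg : ∀ i j, g i = g j ↔ grp i = grp j)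
    {n : κ → ℝ × ℝ} {dh : Fin m → ℝ} (hd : DirS grp a b n dh) :
    ∀ᵐ z : ℝ × ℝ, z ∈ (mw M).O (fun _ => 0) (fun _ => R) x0 a b → ∃ D : ℝ × ℝ →L[ℝ] ℝ,
      HasFDerivAt (fun z => ν (X x0 a b z)) D z ∧
      ∀ (h : ℕ → ℝ), (∀ l, 0 < h l) → Tendsto h atTop (𝓝 0) → ∀ lam : (Fin m → ℝ) → ℝ,
        Ex926.IsTan (Leg M R) ((mw M).L x0 a b) ν (fun _ => X x0 a b z) h lam →
        ∃ (φ : κ → (Fin m → ℝ) → ℝ) (r : κ → ℝ),
          OutS grp ((mw M).L x0 a b) dh n lam (D (1, 0), D (0, 1)) φ r := by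
  have e := mw_P M R
  have key := ae_outS (mw M) (lo := fun _ => 0) (hi := fun _ => R) (x0 := x0) (ν := ν) hK
    (by rw [e]; intro p hp q hq; rw [dist_eq_norm]; exact hν p hp q hq)
    (by
      rw [e]; intro p hp q hq hpq
      have := hm p hp q hq hpq
      exact ⟨by linarith [this.1], this.2⟩)
    (by rw [e]; intro p hp q hq h1 h2; exact hs p hp q hq h1) hGr (mw_full M x0 a b) hgg hd
  filter_upwards [key] with z hz hzO
  obtain ⟨D, hD, H⟩ := hz hzO
  refine ⟨D, hD, fun h hpos h0 lam ht => H h lam ?_⟩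
  rw [e]
  exact bup_of_tan hpos h0 ht

/-- **decoupling on `Leg M R` for slopes in the closed half plane `0 ≤ a`**: the C-group `a i = 0`
(label `0`, direction `(0,1)`, `dh i = b i` of any sign, also `0`), the other groups by `b / a`
(direction `(1, b/a)`, `dh = a`) -/
theorem leg_outC (M : Mons m) {R : ℝ} {ν : (Fin m → ℝ) → ℝ} {K : ℝ} (hK : 0 ≤ K)
    (hν : ∀ p ∈ Leg M R, ∀ q ∈ Leg M R, |ν p - ν q| ≤ K * ‖p - q‖)
    (hm : ∀ p ∈ Leg M R, ∀ q ∈ Leg M R, p ≤ q → ν q ≤ ν p ∧ ν p - ν q ≤ ∑ i, (q i - p i))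
    (hs : ∀ p ∈ Leg M R, ∀ q ∈ Leg M R, p ⊓ q ∈ Leg M R → ν p + ν q ≤ ν (p ⊔ q) + ν (p ⊓ q))
    {x0 a b : Fin m → ℝ} (ha : ∀ i, 0 ≤ a i) :
    ∀ᵐ z : ℝ × ℝ, z ∈ (mw M).O (fun _ => 0) (fun _ => R) x0 a b → ∃ D : ℝ × ℝ →L[ℝ] ℝ,
      HasFDerivAt (fun z => ν (X x0 a b z)) D z ∧
      ∀ (h : ℕ → ℝ), (∀ l, 0 < h l) → Tendsto h atTop (𝓝 0) → ∀ lam : (Fin m → ℝ) → ℝ,
        Ex926.IsTan (Leg M R) ((mw M).L x0 a b) ν (fun _ => X x0 a b z) h lam →
        ∃ (φ : ℕ → (Fin m → ℝ) → ℝ) (r : ℕ → ℝ),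
          OutS (gC a b) ((mw M).L x0 a b) (dhC a b) (nC a b) lam (D (1, 0), D (0, 1)) φ r := by
  obtain ⟨wv, hG⟩ := exists_grpC (b := b) ha
  exact leg_outS M hK hν hm hs hG (fun _ _ => Iff.rfl) dirC

end

end Crest.Agent.R136.Dg219
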