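import Mathlib
import Crest.Agent.R136.MkA_627

/-!
# R136 (helper770): the final diagonal of the extremal calculus

* `Stage` : the finite stage of a marked sequence (`MkA`, full shading, linear exponents) at a finite
  set `S` of rational levels, with error `ε`.
* `MkS`   : marked sequence for a FINITE set `S` of levels, widths linear up to `e`.
* `mkA_of_stages` : stages with `ε_K → 0` and `S_K ↑ ℚ ∩ [0,1]` form a marked sequence `MkA` with
  exactly linear exponents.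
* `mk_diag` : the same from sequences `MkS` (diagonal), carrying arbitrary finite-stage facts.
-/

set_option autoImplicit false
set_option linter.unusedVariables false
set_option linter.unusedSectionVars false

open Finset Filter Topology

namespace Crest.Agent.R136.Dia770

open Crest.Agent.R138.Ex926 Crest.Agent.R138.Dp76
open Crest.Agent.R138.Mk163 (zc zl rho alive own)
open MkA627 (Geo MkA ampA)

/-! ### own cells: trivial upper bound -/

open Classical in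
/-- a cell of level `i` contains `2^(j-i)` cells of level `j` -/
theorem own_le (I : Finset (ℕ × ℝ)) {i j : ℕ} (hij : i ≤ j) (x : ℕ × ℝ) :
    (own I i j x).card ≤ 2 ^ (j - i) := by
  have hsub : own I i j x ⊆ Ico ((2:ℤ) ^ (j - i) * zc i x.2) (2 ^ (j - i) * (zc i x.2 + 1)) := by
    intro k hk
    unfold own at hk
    obtain ⟨y, hy, rfl⟩ := mem_image.1 hk
    obtain ⟨-, -, hz⟩ := mem_filter.1 hy
    rw [← hz]
    have hp : (0:ℝ) < 2 ^ (j - i) := by positivity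
    have e : (2:ℝ) ^ j = 2 ^ (j - i) * 2 ^ i := by
      rw [← pow_add]; congr 1; omega
    have h1 := Int.floor_le ((2:ℝ) ^ i * y.2)
    have h2 := Int.lt_floor_add_one ((2:ℝ) ^ i * y.2)
    rw [mem_Ico]
    unfold zc
    constructor
    · rw [Int.le_floor]
      push_cast
      rw [e, mul_assoc]
      exact mul_le_mul_of_nonneg_left h1 hp.le
    · rw [Int.floor_lt]
      push_cast
      rw [e, mul_assoc]
      exact mul_lt_mul_of_pos_left h2 hp
  refine (card_le_card hsub).trans (le_of_eq ?_)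
  rw [Int.card_Ico]
  have : (2:ℤ) ^ (j - i) * (zc i x.2 + 1) - 2 ^ (j - i) * zc i x.2 = 2 ^ (j - i) := by ring
  rw [this]
  have h3 : ((2:ℤ) ^ (j - i)).toNat = 2 ^ (j - i) := by
    have : (2:ℤ) ^ (j - i) = ((2 ^ (j - i) : ℕ) : ℤ) := by push_cast; rfl
    rw [this, Int.toNat_natCast]
  exact h3

/-! ### finite stages -/

variable {σ κ : Type*}

open Classical in
/-- finite stage: everything for the levels of `S`, error `ε`; `d` = scale. -/
structure Stage (d : ℝ) (I : Finset (ℕ × ℝ)) (mem : ℕ → ℤ → σ → ℕ → Prop) (adm : ℕ → ℤ → σ → Prop)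
    (val : ℕ → ℤ → σ → ℝ) (wid : κ → σ → ℝ) (lev : ℚ → ℕ) (A g : ℝ) (θ : κ → ℝ)
    (f : ℚ → ℕ → ℤ → ℕ) (b : ℚ → ℕ → σ) (vm : ℚ → ℝ) (w : κ → ℚ → ℝ) (S : Finset ℚ) (ε : ℝ) :
    Prop where
  ne : I.Nonempty
  card : Real.log (I.card : ℝ) ≤ d ^ (-ε)
  lev_mono : ∀ u ∈ S, ∀ v ∈ S, u ≤ v → lev u ≤ lev v
  lev_lim : ∀ u ∈ S, ∀ v ∈ S, u ≤ v →
    |((lev v : ℝ) - lev u) * Real.log 2 / (-Real.log d) - ((v : ℝ) - u)| ≤ ε
  cell0 : ∀ x ∈ I, ∀ y ∈ I, zc (lev 0) x.2 = zc (lev 0) y.2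
  one : ∀ x ∈ I, ∀ y ∈ I, x.1 = y.1 → zc (lev 1) x.2 = zc (lev 1) y.2 → x = y
  own : ∀ u ∈ S, ∀ v ∈ S, u ≤ v → ∀ x ∈ I,
    d ^ (-((v : ℝ) - u) + ε) ≤ ((own I (lev u) (lev v) x).card : ℝ)
  dmax : ∀ v ∈ S, ∀ J : ℤ, ∀ s : σ, adm (lev v) J s →
    (((alive I (lev v) J).filter fun t => mem (lev v) J s t).card : ℝ) ≤
      d ^ (-ε) * (A * d ^ (-(g * v))) * val (lev v) J s
  mark : ∀ v ∈ S, ∀ J : ℤ, ∀ t ∈ alive I (lev v) J,
    mem (lev v) J (b v (f v t J)) t ∧ adm (lev v) J (b v (f v t J)) ∧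
    val (lev v) J (b v (f v t J)) = vm v ∧ ∀ j, wid j (b v (f v t J)) = w j v
  near : ∀ v ∈ S, ∀ J : ℤ, ∀ t ∈ alive I (lev v) J,
    (A * d ^ (-(g * v))) * vm v ≤ d ^ (-ε) *
      (((alive I (lev v) J).filter fun s => f v s J = f v t J).card : ℝ)
  vpos : ∀ v ∈ S, 0 < vm v
  wpos : ∀ j, ∀ v ∈ S, 0 < w j v
  tau : ∀ j, ∀ v ∈ S,
    |Real.log ((rho (lev v) / w j v) / (rho (lev 1) / w j 1)) / (-Real.log d) - θ j * (1 - v)| ≤ ε

section stages

variable {B : Base} {I : ℕ → Finset (ℕ × ℝ)} {G : Geo σ κ} {lev : ℕ → ℚ → ℕ} {A : ℕ → ℝ} {g : ℝ}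
  {θ : κ → ℝ} {f : ℕ → ℚ → ℕ → ℤ → ℕ} {b : ℕ → ℚ → ℕ → σ} {vm : ℕ → ℚ → ℝ} {w : κ → ℕ → ℚ → ℝ}

open Classical in
/-- **stages form a marked sequence.** -/
theorem mkA_of_stages {S : ℕ → Finset ℚ} {ε : ℕ → ℝ} (hA : ∀ n, 0 < A n)
    (hε : Tendsto ε atTop (𝓝 0))
    (hS : ∀ v : ℚ, 0 ≤ v → v ≤ 1 → ∀ᶠ n in atTop, v ∈ S n)
    (h : ∀ᶠ n in (U : Filter ℕ), Stage (B.d n) (I n) (G.mem n) (G.adm n) (G.val n) G.wid (lev n)
      (A n) g θ (f n) (b n) (vm n) (fun j v => w j n v) (S n) (ε n)) :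
    MkA B I G lev A (fun v => g * v) (fun _ => 0) (fun j v => θ j * (1 - v)) f b vm w := by
  have hεU : Tendsto ε U (𝓝 0) := hε.mono_left U_le_atTop
  have evε : ∀ η : ℝ, 0 < η → ∀ᶠ n in (U : Filter ℕ), ε n ≤ η := fun η hη =>
    (hεU.eventually (Iio_mem_nhds hη)).mono fun n hn => le_of_lt hn
  have evS : ∀ v : ℚ, 0 ≤ v → v ≤ 1 → ∀ᶠ n in (U : Filter ℕ), v ∈ S n := fun v h0 h1 =>
    ev_of_atTop (hS v h0 h1)
  have hdle : ∀ (n : ℕ) {a c : ℝ}, a ≤ c → B.d n ^ (-a) ≤ B.d n ^ (-c) := fun n a c hac =>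
    dpow_le B n (by linarith)
  refine
    { ne := h.mono fun n hn => hn.ne
      card := ?_
      Apos := hA
      c0 := by simp
      lam0 := rfl
      lam := fun u v hu huv hv => by constructor <;> simp [huv]
      tau1 := fun j => by simp
      lev_mono := ?_
      lev_lim := ?_
      cell0 := h.mono fun n hn => hn.cell0
      one := h.mono fun n hn => hn.one
      own := ?_
      dmax := ?_
      mark := ?_
      near := ?_
      vpos := ?_
      wpos := ?_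
      tau := ?_ }
  · intro η hη
    filter_upwards [h, evε η hη] with n hn h1
    exact hn.card.trans (hdle n h1)
  · intro u v hu huv hv
    filter_upwards [h, evS u hu (huv.trans hv), evS v (hu.trans huv) hv] with n hn h1 h2
    exact hn.lev_mono u h1 v h2 huv
  · intro u v hu huv hv
    have h3 : ∀ᶠ n in (U : Filter ℕ),
        |((lev n v : ℝ) - lev n u) * Real.log 2 / B.L n - ((v : ℝ) - u)| ≤ ε n := by
      filter_upwards [h, evS u hu (huv.trans hv), evS v (hu.trans huv) hv] with n hn h1 h2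
      exact hn.lev_lim u h1 v h2 huv
    rw [tendsto_iff_dist_tendsto_zero]
    refine squeeze_zero' (Eventually.of_forall fun n => dist_nonneg) ?_ hεU
    filter_upwards [h3] with n hn
    rw [Real.dist_eq]; exact hn
  · intro u v hu huv hv η hη
    filter_upwards [h, evS u hu (huv.trans hv), evS v (hu.trans huv) hv, evε η hη] with
      n hn h1 h2 h4 x hx
    constructor
    · refine le_trans ?_ (hn.own u h1 v h2 huv x hx)
      exact dpow_le B n (by simp only [sub_self, add_zero]; linarith)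
    · have h5 := own_le (I n) (hn.lev_mono u h1 v h2 huv) x
      have h6 : ((Crest.Agent.R138.Mk163.own (I n) (lev n u) (lev n v) x).card : ℝ) ≤ 2 ^ (lev n v - lev n u) := by
        exact_mod_cast h5
      refine h6.trans ?_
      have h7 := (abs_le.1 (hn.lev_lim u h1 v h2 huv)).2
      have hL := B.L_pos n
      have h8 : ((lev n v : ℝ) - lev n u) * Real.log 2 ≤ (((v : ℝ) - u) + ε n) * B.L n := by
        have : ((lev n v : ℝ) - lev n u) * Real.log 2 / B.L n ≤ ((v : ℝ) - u) + ε n := by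
          change ((lev n v : ℝ) - lev n u) * Real.log 2 / (-Real.log (B.d n)) ≤ _
          linarith
        rwa [div_le_iff₀ hL] at this
      have e1 : (2:ℝ) ^ (lev n v - lev n u) = Real.exp (((lev n v : ℝ) - lev n u) * Real.log 2) := by
        rw [← Nat.cast_sub (hn.lev_mono u h1 v h2 huv), ← Real.log_pow, Real.exp_log (by positivity)]
      have e2 : B.d n ^ (-((v : ℝ) - u) + ((0:ℝ) - 0) - η) = Real.exp ((((v : ℝ) - u) + η) * B.L n) := by
        rw [Real.rpow_def_of_pos (B.pos n)]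
        congr 1
        unfold Base.L; ring
      rw [e1]
      change _ ≤ B.d n ^ (-((v : ℝ) - u) + ((0:ℝ) - 0) - η)
      rw [e2]
      apply Real.exp_le_exp.2
      refine h8.trans ?_
      exact mul_le_mul_of_nonneg_right (by linarith) hL.le
  · intro v hv0 hv1 η hη
    filter_upwards [h, evS v hv0 hv1, evε η hη] with n hn h1 h2 J s hs
    have h3 := hn.dmax v h1 J s hs
    refine h3.trans ?_
    have h4 : 0 ≤ B.d n ^ (-(ε n)) * (A n * B.d n ^ (-(g * v))) * G.val n (lev n v) J s :=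
      le_trans (Nat.cast_nonneg _) h3
    have h5 : 0 < B.d n ^ (-(ε n)) * (A n * B.d n ^ (-(g * v))) :=
      mul_pos (dpow_pos B n _) (mul_pos (hA n) (dpow_pos B n _))
    have h6 : 0 ≤ G.val n (lev n v) J s := nonneg_of_mul_nonneg_right h4 h5
    unfold ampA
    refine mul_le_mul_of_nonneg_right ?_ h6
    exact mul_le_mul_of_nonneg_right (hdle n h2) (mul_pos (hA n) (dpow_pos B n _)).le
  · intro v hv0 hv1
    filter_upwards [h, evS v hv0 hv1] with n hn h1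
    exact hn.mark v h1
  · intro v hv0 hv1 η hη
    filter_upwards [h, evS v hv0 hv1, evε η hη] with n hn h1 h2 J t ht
    refine (hn.near v h1 J t ht).trans ?_
    exact mul_le_mul_of_nonneg_right (hdle n h2) (Nat.cast_nonneg _)
  · intro v hv0 hv1
    filter_upwards [h, evS v hv0 hv1] with n hn h1
    exact hn.vpos v h1
  · intro j v hv0 hv1
    filter_upwards [h, evS v hv0 hv1] with n hn h1
    exact hn.wpos j v h1
  · intro j v hv0 hv1
    rw [tendsto_iff_dist_tendsto_zero]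
    refine squeeze_zero' (Eventually.of_forall fun n => dist_nonneg) ?_ hεU
    filter_upwards [h, evS v hv0 hv1] with n hn h1
    rw [Real.dist_eq]
    exact hn.tau j v h1

open Classical in
/-- marked sequence for a finite set `S` of rational levels (full shading), widths linear up to
`e`. -/
structure MkS (B : Base) (I : ℕ → Finset (ℕ × ℝ)) (G : Geo σ κ) (lev : ℕ → ℚ → ℕ) (A : ℕ → ℝ)
    (g : ℝ) (θ : κ → ℝ) (f : ℕ → ℚ → ℕ → ℤ → ℕ) (b : ℕ → ℚ → ℕ → σ) (vm : ℕ → ℚ → ℝ)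
    (w : κ → ℕ → ℚ → ℝ) (S : Finset ℚ) (e : ℝ) : Prop where
  ne : ∀ᶠ n in (U : Filter ℕ), (I n).Nonempty
  card : ∀ ε : ℝ, 0 < ε → ∀ᶠ n in (U : Filter ℕ), Real.log ((I n).card : ℝ) ≤ B.d n ^ (-ε)
  Apos : ∀ n, 0 < A n
  lev_mono : ∀ u ∈ S, ∀ v ∈ S, u ≤ v → ∀ᶠ n in (U : Filter ℕ), lev n u ≤ lev n v
  lev_lim : ∀ u ∈ S, ∀ v ∈ S, u ≤ v →
    Tendsto (fun n => ((lev n v : ℝ) - lev n u) * Real.log 2 / B.L n) U (𝓝 ((v : ℝ) - u))
  cell0 : ∀ᶠ n in (U : Filter ℕ), ∀ x ∈ I n, ∀ y ∈ I n, zc (lev n 0) x.2 = zc (lev n 0) y.2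
  one : ∀ᶠ n in (U : Filter ℕ), ∀ x ∈ I n, ∀ y ∈ I n, x.1 = y.1 →
    zc (lev n 1) x.2 = zc (lev n 1) y.2 → x = y
  own : ∀ u ∈ S, ∀ v ∈ S, u ≤ v → ∀ ε : ℝ, 0 < ε → ∀ᶠ n in (U : Filter ℕ), ∀ x ∈ I n,
    B.d n ^ (-((v : ℝ) - u) + ε) ≤ ((own (I n) (lev n u) (lev n v) x).card : ℝ)
  dmax : ∀ v ∈ S, ∀ ε : ℝ, 0 < ε → ∀ᶠ n in (U : Filter ℕ), ∀ J : ℤ, ∀ s : σ,
    G.adm n (lev n v) J s →
      (((alive (I n) (lev n v) J).filter fun t => G.mem n (lev n v) J s t).card : ℝ) ≤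
        B.d n ^ (-ε) * (A n * B.d n ^ (-(g * v))) * G.val n (lev n v) J s
  mark : ∀ v ∈ S, ∀ᶠ n in (U : Filter ℕ), ∀ J : ℤ, ∀ t ∈ alive (I n) (lev n v) J,
      G.mem n (lev n v) J (b n v (f n v t J)) t ∧ G.adm n (lev n v) J (b n v (f n v t J)) ∧
      G.val n (lev n v) J (b n v (f n v t J)) = vm n v ∧
      ∀ j, G.wid j (b n v (f n v t J)) = w j n v
  near : ∀ v ∈ S, ∀ ε : ℝ, 0 < ε → ∀ᶠ n in (U : Filter ℕ), ∀ J : ℤ,
    ∀ t ∈ alive (I n) (lev n v) J,
      (A n * B.d n ^ (-(g * v))) * vm n v ≤ B.d n ^ (-ε) *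
        (((alive (I n) (lev n v) J).filter fun s => f n v s J = f n v t J).card : ℝ)
  vpos : ∀ v ∈ S, ∀ᶠ n in (U : Filter ℕ), 0 < vm n v
  wpos : ∀ j, ∀ v ∈ S, ∀ᶠ n in (U : Filter ℕ), 0 < w j n v
  tau : ∀ j, ∀ v ∈ S, ∀ᶠ n in (U : Filter ℕ),
    |Real.log ((rho (lev n v) / w j n v) / (rho (lev n 1) / w j n 1)) / B.L n - θ j * (1 - v)| ≤ e

theorem ev_fin {ι : Type*} (S : Finset ι) {p : ι → ℕ → Prop}
    (h : ∀ v ∈ S, ∀ᶠ n in (U : Filter ℕ), p v n) : ∀ᶠ n in (U : Filter ℕ), ∀ v ∈ S, p v n :=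
  (Filter.eventually_all_finset S).2 h

theorem ev_fin2 {ι : Type*} (S : Finset ι) {q : ι → ι → Prop} {p : ι → ι → ℕ → Prop}
    (h : ∀ u ∈ S, ∀ v ∈ S, q u v → ∀ᶠ n in (U : Filter ℕ), p u v n) :
    ∀ᶠ n in (U : Filter ℕ), ∀ u ∈ S, ∀ v ∈ S, q u v → p u v n := by
  refine ev_fin S fun u hu => ev_fin S fun v hv => ?_
  by_cases hq : q u v
  · exact (h u hu v hv hq).mono fun n hn _ => hn
  · exact Eventually.of_forall fun n h' => absurd h' hq

/-- **a sequence `MkS` has stages.** -/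
theorem MkS.stage [Finite κ] {S : Finset ℚ} {e ε : ℝ}
    (h : MkS B I G lev A g θ f b vm w S e) (hε : 0 < ε) (he : e ≤ ε) :
    ∀ᶠ n in (U : Filter ℕ), Stage (B.d n) (I n) (G.mem n) (G.adm n) (G.val n) G.wid (lev n)
      (A n) g θ (f n) (b n) (vm n) (fun j v => w j n v) S ε := by
  have a1 := ev_fin2 S h.lev_mono
  have a2 := ev_fin2 (q := fun u v => u ≤ v) (p := fun u v n =>
      |((lev n v : ℝ) - lev n u) * Real.log 2 / (-Real.log (B.d n)) - ((v : ℝ) - u)| ≤ ε) S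
    (fun u hu v hv huv => by
      have h1 := (Metric.tendsto_nhds.1 (h.lev_lim u hu v hv huv)) ε hε
      filter_upwards [h1] with n hn
      rw [Real.dist_eq] at hn
      exact hn.le)
  have a3 := ev_fin2 S (fun u hu v hv huv => h.own u hu v hv huv ε hε)
  have a4 := ev_fin S (fun v hv => h.dmax v hv ε hε)
  have a5 := ev_fin S (fun v hv => h.mark v hv)
  have a6 := ev_fin S (fun v hv => h.near v hv ε hε)
  have a7 := ev_fin S (fun v hv => h.vpos v hv)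
  have a8 : ∀ᶠ n in (U : Filter ℕ), ∀ j, ∀ v ∈ S, 0 < w j n v :=
    eventually_all.2 fun j => ev_fin S fun v hv => h.wpos j v hv
  have a9 : ∀ᶠ n in (U : Filter ℕ), ∀ j, ∀ v ∈ S,
      |Real.log ((rho (lev n v) / w j n v) / (rho (lev n 1) / w j n 1)) / B.L n -
        θ j * (1 - v)| ≤ e := eventually_all.2 fun j => ev_fin S fun v hv => h.tau j v hv
  filter_upwards [h.ne, h.card ε hε, a1, a2, h.cell0, h.one, a3, a4, a5, a6, a7, a8, a9] with
    n b1 b2 b3 b4 b5 b6 b7 b8 b9 b10 b11 b12 b13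
  exact ⟨b1, b2, b3, b4, b5, b6, b7, b8, b9, b10, b11, b12, fun j v hv => (b13 j v hv).trans he⟩

end stages

/-! ### the diagonal -/

/-- base of a diagonal -/
noncomputable def diaB (B : ℕ → Base) (sel : ℕ → ℕ) (h : ∀ K, (B K).d (sel K) ≤ 1 / ((K : ℝ) + 1)) :
    Base where
  d := fun K => (B K).d (sel K)
  pos := fun K => (B K).pos _
  lt := fun K => (B K).lt _
  lim0 := by
    have h1 : Tendsto (fun K : ℕ => 1 / ((K : ℝ) + 1)) U (𝓝 0) :=
      tendsto_one_div_add_atTop_nhds_zero_nat.mono_left U_le_atTop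
    exact squeeze_zero (fun K => ((B K).pos _).le) h h1

/-- geometry of a diagonal -/
def diaG (G : ℕ → Geo σ κ) (wd : κ → σ → ℝ) (sel : ℕ → ℕ) : Geo σ κ where
  mem := fun K => (G K).mem (sel K)
  adm := fun K => (G K).adm (sel K)
  val := fun K => (G K).val (sel K)
  wid := wd

/-- **FINAL DIAGONAL.** -/
theorem mk_diag [Finite κ] (B : ℕ → Base) (I : ℕ → ℕ → Finset (ℕ × ℝ)) (G : ℕ → Geo σ κ)
    (lev : ℕ → ℕ → ℚ → ℕ) (A : ℕ → ℕ → ℝ) (g : ℝ) (θ : κ → ℝ) (f : ℕ → ℕ → ℚ → ℕ → ℤ → ℕ)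
    (b : ℕ → ℕ → ℚ → ℕ → σ) (vm : ℕ → ℕ → ℚ → ℝ) (w : ℕ → κ → ℕ → ℚ → ℝ) (wd : κ → σ → ℝ)
    (hwd : ∀ K, (G K).wid = wd) (S : ℕ → Finset ℚ) (e : ℕ → ℝ)
    (he : Tendsto e atTop (𝓝 0))
    (hS : ∀ v : ℚ, 0 ≤ v → v ≤ 1 → ∀ᶠ K in atTop, v ∈ S K)
    (h : ∀ K, MkS (B K) (I K) (G K) (lev K) (A K) g θ (f K) (b K) (vm K) (w K) (S K) (e K))
    (extra : ℕ → ℕ → Prop) (hx : ∀ K, ∀ᶠ n in (U : Filter ℕ), extra K n) :
    ∃ (sel : ℕ → ℕ) (hsel : ∀ K, (B K).d (sel K) ≤ 1 / ((K : ℝ) + 1)),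
      (∀ K, extra K (sel K)) ∧
      MkA (diaB B sel hsel) (fun K => I K (sel K)) (diaG G wd sel) (fun K => lev K (sel K))
        (fun K => A K (sel K)) (fun v => g * v) (fun _ => 0) (fun j v => θ j * (1 - v))
        (fun K => f K (sel K)) (fun K => b K (sel K)) (fun K => vm K (sel K))
        (fun j K => w K j (sel K)) := by
  have key : ∀ K, ∃ n, (B K).d n ≤ 1 / ((K : ℝ) + 1) ∧ extra K n ∧
      Stage ((B K).d n) (I K n) ((G K).mem n) ((G K).adm n) ((G K).val n) (G K).wid (lev K n)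
        (A K n) g θ (f K n) (b K n) (vm K n) (fun j v => w K j n v) (S K)
        (|e K| + 1 / ((K : ℝ) + 1)) := by
    intro K
    have hpos : (0:ℝ) < 1 / ((K : ℝ) + 1) := by positivity
    have h1 := (h K).stage (ε := |e K| + 1 / ((K : ℝ) + 1)) (by positivity)
      (by linarith [le_abs_self (e K)])
    have h2 : ∀ᶠ n in (U : Filter ℕ), (B K).d n ≤ 1 / ((K : ℝ) + 1) :=
      ((B K).lim0.eventually (Iio_mem_nhds hpos)).mono fun n hn => le_of_lt hn
    obtain ⟨n, hn⟩ := (h1.and (h2.and (hx K))).exists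
    exact ⟨n, hn.2.1, hn.2.2, hn.1⟩
  choose sel h1 h2 h3 using key
  refine ⟨sel, h1, h2, ?_⟩
  refine mkA_of_stages (S := S) (ε := fun K => |e K| + 1 / ((K : ℝ) + 1))
    (fun K => (h K).Apos _) ?_ hS (Eventually.of_forall fun K => ?_)
  · have t1 : Tendsto (fun K => |e K|) atTop (𝓝 0) := by simpa using he.abs
    have := t1.add tendsto_one_div_add_atTop_nhds_zero_nat
    simpa using this
  · have h4 := h3 K
    rw [hwd K] at h4
    exact h4

/-! ### meshes -/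

/-- the mesh `{j / N : j ≤ N}` -/
def mesh (N : ℕ) : Finset ℚ := (Finset.range (N + 1)).image fun j : ℕ => (j : ℚ) / (N : ℚ)

theorem mem_mesh {N j : ℕ} (h : j ≤ N) : (j : ℚ) / (N : ℚ) ∈ mesh N :=
  mem_image_of_mem (fun j : ℕ => (j : ℚ) / (N : ℚ)) (mem_range.2 (Nat.lt_succ_of_le h))

theorem mesh_of_dvd {N : ℕ} (hN : 0 < N) {v : ℚ} (h0 : 0 ≤ v) (h1 : v ≤ 1) (hd : v.den ∣ N) :
    v ∈ mesh N := by
  obtain ⟨c, hc'⟩ := hd
  have hc : 0 < c := by
    rcases Nat.eq_zero_or_pos c with h | h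
    · rw [h, mul_zero] at hc'; omega
    · exact h
  have hden : (0:ℚ) < v.den := by exact_mod_cast v.den_pos
  have hcq : (0:ℚ) < c := by exact_mod_cast hc
  have hnum : 0 ≤ v.num := Rat.num_nonneg.2 h0
  have hv : v = (v.num.toNat : ℚ) / v.den := by
    have h2 : ((v.num.toNat : ℤ) : ℚ) = (v.num : ℚ) := by rw [Int.toNat_of_nonneg hnum]
    have h3 : (v.num.toNat : ℚ) = (v.num : ℚ) := by exact_mod_cast h2
    rw [h3]; exact (Rat.num_div_den v).symm
  have hle : v.num.toNat ≤ v.den := by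
    have h4 : (v.num.toNat : ℚ) ≤ v.den := by
      have := h1; rw [hv, div_le_one hden] at this; exact this
    exact_mod_cast h4
  have h5 : v = ((v.num.toNat * c : ℕ) : ℚ) / ((N : ℕ) : ℚ) := by
    rw [hc']
    push_cast
    rw [mul_div_mul_right _ _ hcq.ne']; exact hv
  have h6 : v.num.toNat * c ≤ N := by rw [hc']; exact Nat.mul_le_mul_right c hle
  have h7 := mem_mesh h6
  rwa [← h5] at h7

/-- every rational level is eventually in the meshes `(K!)^2`. -/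
theorem mesh_ev (v : ℚ) (h0 : 0 ≤ v) (h1 : v ≤ 1) :
    ∀ᶠ K : ℕ in atTop, v ∈ mesh (K.factorial ^ 2) := by
  filter_upwards [eventually_ge_atTop v.den] with K hK
  exact mesh_of_dvd (by positivity) h0 h1
    ((Nat.dvd_factorial v.den_pos hK).trans (dvd_pow_self _ two_ne_zero))

theorem sqrt_fac_tendsto (C : ℝ) :
    Tendsto (fun K : ℕ => C / Real.sqrt ((K.factorial ^ 2 : ℕ) : ℝ)) atTop (𝓝 0) := by
  have h1 : (fun K : ℕ => C / Real.sqrt ((K.factorial ^ 2 : ℕ) : ℝ)) =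
      fun K : ℕ => C / (K.factorial : ℝ) := by
    funext K
    push_cast
    rw [Real.sqrt_sq (Nat.cast_nonneg _)]
  rw [h1]
  have h2 : Tendsto (fun K : ℕ => (K.factorial : ℝ)) atTop atTop :=
    tendsto_natCast_atTop_atTop.comp (tendsto_atTop_mono Nat.self_le_factorial tendsto_id)
  exact h2.const_div_atTop C

end Crest.Agent.R136.Dia770
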