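import Mathlib
import Crest.Agent.R136.MkF_627
import Crest.Agent.R138.MkPoint_627

/-!
# R136: the point of the zoom, abstract marked sequence (helper627)

* `exists_ext_semi` : extension of a function on the rationals of `[0,1]` which is monotone up to a
  linear term (in particular: monotone, antitone with a rate, Lipschitz).
* `exists_point_fam` : a common differentiability point of a countable family of such functions.
* `MkA.congr` : a marked sequence sees `c`, `τ` at rationals only.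
* `mkA_linear` : zoom to linear `c`, `Λ`, `τ`.
-/

set_option autoImplicit false
set_option linter.unusedVariables false

open Finset Filter Topology Set MeasureTheory

namespace Crest.Agent.R136.MkA627

open Crest.Agent.R138.Ex926 (Base U)
open Crest.Agent.R138.MkPoint627 (exists_affine ae_diff ae_diff_anti exists_of_ae exists_ext
  deriv_bounds)
open Crest.Agent.R138.Mk163 (zc zl rho alive Negl)

/-- extension of a semi-monotone function on the rationals of `[0,1]`. -/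
theorem exists_ext_semi {F : ℝ → ℝ} {C : ℝ}
    (h : ∀ u v : ℚ, 0 ≤ u → u ≤ v → v ≤ 1 → -(C * ((v : ℝ) - u)) ≤ F v - F u) :
    ∃ F' : ℝ → ℝ, (∀ v : ℚ, 0 ≤ v → v ≤ 1 → F' v = F v) ∧
      MonotoneOn (fun v => F' v + C * v) (Icc 0 1) := by
  obtain ⟨T, hT1, hT2⟩ := exists_ext (τ := fun v => -(F v + C * v)) (fun u v hu huv hv => by
    have := h u v hu huv hv
    show -(F v + C * v) ≤ -(F u + C * u)
    linarith)
  refine ⟨fun v => -T v - C * v, fun v hv0 hv1 => ?_, fun a ha b hb hab => ?_⟩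
  · show -T v - C * v = F v
    rw [hT1 v hv0 hv1]; ring
  · have := hT2 ha hb hab
    show -T a - C * a + C * a ≤ -T b - C * b + C * b
    linarith

/-- **a common differentiability point of countably many semi-monotone functions.** -/
theorem exists_point_fam {ι : Type*} [Countable ι] {F : ι → ℝ → ℝ} {C : ι → ℝ}
    (h : ∀ i, ∀ u v : ℚ, 0 ≤ u → u ≤ v → v ≤ 1 → -(C i * ((v : ℝ) - u)) ≤ F i v - F i u) :
    ∃ F' : ι → ℝ → ℝ, (∀ i, ∀ v : ℚ, 0 ≤ v → v ≤ 1 → F' i v = F i v) ∧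
      (∀ i, MonotoneOn (fun v => F' i v + C i * v) (Icc 0 1)) ∧
      ∃ v0 ∈ Ioo (0 : ℝ) 1, ∃ D : ι → ℝ, ∀ i, HasDerivAt (F' i) (D i) v0 := by
  choose F' h1 h2 using fun i => exists_ext_semi (h i)
  have hae : ∀ᵐ v : ℝ, v ∈ Ioo (0 : ℝ) 1 → ∀ i, DifferentiableAt ℝ (F' i) v := by
    have : ∀ i, ∀ᵐ v : ℝ, v ∈ Ioo (0 : ℝ) 1 → DifferentiableAt ℝ (F' i) v := by
      intro i
      filter_upwards [ae_diff (h2 i)] with v hv hv2
      have h3 := hv hv2
      have h4 : DifferentiableAt ℝ (fun v : ℝ => C i * v) v := by fun_prop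
      have h5 := h3.sub h4
      refine h5.congr_of_eventuallyEq (Eventually.of_forall fun x => ?_)
      simp
    filter_upwards [ae_all_iff.2 this] with v hv hv2 i using hv i hv2
  obtain ⟨v0, hv0, hd⟩ := exists_of_ae hae
  exact ⟨F', h1, h2, v0, hv0, fun i => deriv (F' i) v0, fun i => (hd i).hasDerivAt⟩

section

variable {σ κ : Type*} {B : Base} {I : ℕ → Finset (ℕ × ℝ)} {G : Geo σ κ} {lev : ℕ → ℚ → ℕ}
    {A : ℕ → ℝ} {c Λ : ℝ → ℝ} {τ : κ → ℝ → ℝ} {f : ℕ → ℚ → ℕ → ℤ → ℕ} {b : ℕ → ℚ → ℕ → σ}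
    {vm : ℕ → ℚ → ℝ} {w : κ → ℕ → ℚ → ℝ}

/-- a marked sequence sees `c` and `τ` at the rationals of `[0,1]` only. -/
theorem MkA.congr (h : MkA B I G lev A c Λ τ f b vm w) {c' : ℝ → ℝ} {τ' : κ → ℝ → ℝ}
    (hc : ∀ v : ℚ, 0 ≤ v → v ≤ 1 → c' v = c v)
    (hτ : ∀ j, ∀ v : ℚ, 0 ≤ v → v ≤ 1 → τ' j v = τ j v) : MkA B I G lev A c' Λ τ' f b vm w := by
  have e1 : ((1 : ℚ) : ℝ) = 1 := by norm_num
  have e0 : ((0 : ℚ) : ℝ) = 0 := by norm_num
  exact
  { ne := h.ne
    card := h.card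
    Apos := h.Apos
    c0 := by
      have h1 := hc 0 le_rfl zero_le_one
      rw [e0] at h1
      rw [h1]; exact h.c0
    lam0 := h.lam0
    lam := h.lam
    tau1 := fun j => by
      have h1 := hτ j 1 zero_le_one le_rfl
      rw [e1] at h1
      rw [h1]; exact h.tau1 j
    lev_mono := h.lev_mono
    lev_lim := h.lev_lim
    cell0 := h.cell0
    one := h.one
    own := h.own
    dmax := fun v hv0 hv1 ε hε => by
      have h2 := h.dmax v hv0 hv1 ε hε
      simp only [ampA, hc v hv0 hv1] at h2 ⊢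
      exact h2
    mark := h.mark
    near := fun v hv0 hv1 ε hε => by
      have h2 := h.near v hv0 hv1 ε hε
      simp only [ampA, hc v hv0 hv1] at h2 ⊢
      exact h2
    vpos := h.vpos
    wpos := h.wpos
    tau := fun j v hv0 hv1 => by rw [hτ j v hv0 hv1]; exact h.tau j v hv0 hv1 }

/-- **zoom parameters at a common differentiability point**: a countable family `F` (widths, own
rotations, growth, ...) of semi-monotone functions gets linear difference quotients. -/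
theorem exists_zoom_fam {ι : Type*} [Countable ι] {F : ι → ℝ → ℝ} {C : ι → ℝ}
    (h : ∀ i, ∀ u v : ℚ, 0 ≤ u → u ≤ v → v ≤ 1 → -(C i * ((v : ℝ) - u)) ≤ F i v - F i u) :
    ∃ (η : ℕ → ℝ) (m : ℕ → ℚ → ℚ) (D : ι → ℝ), (∀ k, 0 < η k) ∧ (∀ k, η k ≤ 1) ∧
      Tendsto η atTop (𝓝 0) ∧
      (∀ k, ∀ x : ℚ, 0 ≤ x → x ≤ 1 → 0 ≤ m k x ∧ m k x ≤ 1) ∧
      (∀ k, ∀ x y : ℚ, x ≤ y → m k x ≤ m k y) ∧
      (∀ k, ∀ x y : ℚ, ((m k y : ℝ) - m k x) / η k = (y : ℝ) - x) ∧
      (∀ i, ∀ x y : ℚ, 0 ≤ x → x ≤ 1 → 0 ≤ y → y ≤ 1 →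
        Tendsto (fun k => (F i (m k y) - F i (m k x)) / η k) atTop (𝓝 (D i * ((y : ℝ) - x)))) ∧
      (∀ i a, (∀ u v : ℚ, 0 ≤ u → u ≤ v → v ≤ 1 → a * ((v : ℝ) - u) ≤ F i v - F i u) → a ≤ D i) ∧
      (∀ i a, (∀ u v : ℚ, 0 ≤ u → u ≤ v → v ≤ 1 → F i v - F i u ≤ a * ((v : ℝ) - u)) → D i ≤ a) := by
  obtain ⟨F', h1, -, v0, hv0, D, hD⟩ := exists_point_fam h
  obtain ⟨η, m, hη, hη1, hη0, hm, hmono, hq, -, hlim⟩ := exists_affine hv0.1 hv0.2
  have key : ∀ i, ∀ x y : ℚ, 0 ≤ x → x ≤ 1 → 0 ≤ y → y ≤ 1 →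
        Tendsto (fun k => (F i (m k y) - F i (m k x)) / η k) atTop (𝓝 (D i * ((y : ℝ) - x))) := by
    intro i x y hx0 hx1 hy0 hy1
    refine (hlim (F' i) (D i) (hD i) x y).congr fun k => ?_
    rw [h1 i _ (hm k x hx0 hx1).1 (hm k x hx0 hx1).2, h1 i _ (hm k y hy0 hy1).1 (hm k y hy0 hy1).2]
  have e : ∀ t : ℝ, t * (((1 : ℚ) : ℝ) - ((0 : ℚ) : ℝ)) = t := fun t => by push_cast; ring
  refine ⟨η, m, D, hη, hη1, hη0, hm, hmono, hq, key, fun i a ha => ?_, fun i a ha => ?_⟩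
  · have h3 := key i 0 1 le_rfl zero_le_one zero_le_one le_rfl
    rw [e] at h3
    refine ge_of_tendsto' h3 fun k => ?_
    have h4 := ha (m k 0) (m k 1) (hm k 0 le_rfl zero_le_one).1 (hmono k 0 1 zero_le_one)
      (hm k 1 zero_le_one le_rfl).2
    have h5 := hq k 0 1
    rw [div_eq_iff (hη k).ne'] at h5
    push_cast at h5
    rw [le_div_iff₀ (hη k)]
    rw [h5] at h4
    linarith
  · have h3 := key i 0 1 le_rfl zero_le_one zero_le_one le_rfl
    rw [e] at h3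
    refine le_of_tendsto' h3 fun k => ?_
    have h4 := ha (m k 0) (m k 1) (hm k 0 le_rfl zero_le_one).1 (hmono k 0 1 zero_le_one)
      (hm k 1 zero_le_one le_rfl).2
    have h5 := hq k 0 1
    rw [div_eq_iff (hη k).ne'] at h5
    push_cast at h5
    rw [div_le_iff₀ (hη k)]
    rw [h5] at h4
    linarith

/-- **zoom to linear `c`, `Λ`, `τ`** (J1): for full shading `c v = g v`, `Λ = 0`. -/
theorem mkA_linear [Countable κ] (hz : ZoomA B I G lev A c Λ τ f b vm w)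
    (h : MkA B I G lev A c Λ τ f b vm w) {C : ℝ}
    (hc : ∀ u v : ℚ, 0 ≤ u → u ≤ v → v ≤ 1 → -(C * ((v : ℝ) - u)) ≤ c v - c u)
    (hτ : ∀ j, ∀ u v : ℚ, 0 ≤ u → u ≤ v → v ≤ 1 → -(C * ((v : ℝ) - u)) ≤ τ j v - τ j u) :
    ∃ (B' : Base) (I' : ℕ → Finset (ℕ × ℝ)) (lev' : ℕ → ℚ → ℕ) (A' : ℕ → ℝ)
      (f' : ℕ → ℚ → ℕ → ℤ → ℕ) (b' : ℕ → ℚ → ℕ → σ) (vm' : ℕ → ℚ → ℝ) (w' : κ → ℕ → ℚ → ℝ)
      (g' s : ℝ) (θ : κ → ℝ), 0 ≤ s ∧ s ≤ 1 ∧ (∀ n, I' n ⊆ I n) ∧
      (∀ a, (∀ u v : ℚ, 0 ≤ u → u ≤ v → v ≤ 1 → a * ((v : ℝ) - u) ≤ c v - c u) → a ≤ g') ∧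
      (∀ a, (∀ u v : ℚ, 0 ≤ u → u ≤ v → v ≤ 1 → c v - c u ≤ a * ((v : ℝ) - u)) → g' ≤ a) ∧
      (∀ a, (∀ u v : ℚ, 0 ≤ u → u ≤ v → v ≤ 1 → Λ v - Λ u ≤ a * ((v : ℝ) - u)) → s ≤ a) ∧
      (∀ j a, (∀ u v : ℚ, 0 ≤ u → u ≤ v → v ≤ 1 → a * ((v : ℝ) - u) ≤ τ j u - τ j v) → a ≤ θ j) ∧
      (∀ j a, (∀ u v : ℚ, 0 ≤ u → u ≤ v → v ≤ 1 → τ j u - τ j v ≤ a * ((v : ℝ) - u)) → θ j ≤ a) ∧
      MkA B' I' G lev' A' (fun v => g' * v) (fun v => s * v) (fun j v => θ j * (1 - v)) f' b' vm'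
        w' := by
  have hτ' := hτ
  set F : Option (Option κ) → ℝ → ℝ := fun i => match i with
    | none => c
    | some none => Λ
    | some (some j) => τ j with hF
  have hlam : ∀ u v : ℚ, 0 ≤ u → u ≤ v → v ≤ 1 → 0 ≤ Λ v - Λ u ∧ Λ v - Λ u ≤ (v : ℝ) - u := by
    intro u v hu huv hv
    exact h.lam u v (by exact_mod_cast hu) (by exact_mod_cast huv) (by exact_mod_cast hv)
  obtain ⟨η, m, D, hη, hη1, -, hm, hmono, hq, hlim, hlo, hup⟩ := exists_zoom_fam (F := F)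
    (C := fun _ => max C 0) (fun i u v hu huv hv => by
      have huv' : (0 : ℝ) ≤ (v : ℝ) - u := by
        have : (u : ℝ) ≤ v := by exact_mod_cast huv
        linarith
      have hmax : C * ((v : ℝ) - u) ≤ max C 0 * ((v : ℝ) - u) :=
        mul_le_mul_of_nonneg_right (le_max_left _ _) huv'
      have hmax0 : 0 ≤ max C 0 * ((v : ℝ) - u) := mul_nonneg (le_max_right _ _) huv'
      match i with
      | none => have := hc u v hu huv hv; show _ ≤ c v - c u; linarith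
      | some none => have := (hlam u v hu huv hv).1; show _ ≤ Λ v - Λ u; linarith
      | some (some j) => have := hτ' j u v hu huv hv; show _ ≤ τ j v - τ j u; linarith)
  have hs0 : 0 ≤ D (some none) := hlo (some none) 0 fun u v hu huv hv => by
    have := (hlam u v hu huv hv).1
    show _ ≤ Λ v - Λ u
    linarith
  have hs1 : D (some none) ≤ 1 := hup (some none) 1 fun u v hu huv hv => by
    have := (hlam u v hu huv hv).2
    show Λ v - Λ u ≤ _
    linarith
  obtain ⟨s0, hs0t, hz'⟩ := hz h η m (fun v => D none * v) (fun v => D (some none) * v)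
    (fun j v => -D (some (some j)) * (1 - v)) hη hη1 hm
    (fun x y _ hxy _ => Eventually.of_forall fun k => hmono k x y hxy)
    (fun x y _ _ _ => by
      simp only [hq]
      exact tendsto_const_nhds)
    (fun x hx0 hx1 => by
      have := hlim none 0 x le_rfl zero_le_one hx0 hx1
      simpa using this)
    (fun x hx0 hx1 => by
      have := hlim (some none) 0 x le_rfl zero_le_one hx0 hx1
      simpa using this)
    (fun j x hx0 hx1 => by
      have := hlim (some (some j)) 1 x zero_le_one le_rfl hx0 hx1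
      have e1 : D (some (some j)) * ((x : ℝ) - ((1 : ℚ) : ℝ)) = -D (some (some j)) * (1 - (x : ℝ)) := by
        push_cast; ring
      rw [e1] at this
      exact this)
    (fun u v hu huv hv => by
      constructor
      · nlinarith
      · nlinarith) (by simp) (by simp) (by simp)
  obtain ⟨B', I', A', -, hI', hMk⟩ := hz' s0 hs0t (Eventually.of_forall fun n => le_rfl)
  refine ⟨B', I', _, A', _, _, _, _, D none, D (some none), fun j => -D (some (some j)), hs0, hs1,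
    hI', fun a ha => hlo none a ha, fun a ha => hup none a ha, fun a ha => hup (some none) a ha,
    fun j a ha => ?_, fun j a ha => ?_, hMk⟩
  · have := hup (some (some j)) (-a) fun u v hu huv hv => by
      have := ha u v hu huv hv
      show τ j v - τ j u ≤ _
      linarith
    linarith
  · have := hlo (some (some j)) (-a) fun u v hu huv hv => by
      have := ha u v hu huv hv
      show _ ≤ τ j v - τ j u
      linarith
    linarith

end

end Crest.Agent.R136.MkA627
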