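import Mathlib
import Crest.Agent.R136.MkF_627
import Crest.Agent.R138.MkZoom_779

/-!
# R136: zoom of an abstract marked sequence (helper102)

`zoomA`: the literal target `MkA627.ZoomA` of `MkF_627` (port of `MkZoom_779`).
-/

set_option autoImplicit false
set_option linter.unusedVariables false

open Finset Filter Topology

namespace Crest.Agent.R136.ZoomA102

open Crest.Agent.R138.Ex926 (Base U exists_diag)
open Crest.Agent.R138.Mk163 (zc zl rho alive)
open Crest.Agent.R138.MkZoom779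
open Crest.Agent.R136.MkA627

section main

variable {σ κ : Type*} (B : Base) (I : ℕ → Finset (ℕ × ℝ)) (G : Geo σ κ)
    (lev : ℕ → ℚ → ℕ) (A : ℕ → ℝ) (c Λ : ℝ → ℝ) (τ : κ → ℝ → ℝ) (f : ℕ → ℚ → ℕ → ℤ → ℕ)
    (b : ℕ → ℚ → ℕ → σ) (vm : ℕ → ℚ → ℝ) (w : κ → ℕ → ℚ → ℝ)

open Classical in
/-- one level statements at stage `k` -/
structure R1s (lv : ℚ) (δ : ℝ) (n : ℕ) : Prop where
  dm : ∀ J : ℤ, ∀ s : σ, G.adm n (lev n lv) J s →
      (((alive (I n) (lev n lv) J).filter fun t => G.mem n (lev n lv) J s t).card : ℝ) ≤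
        B.d n ^ (-δ) * ampA B A c n lv * G.val n (lev n lv) J s
  mr : ∀ J : ℤ, ∀ t ∈ alive (I n) (lev n lv) J,
      G.mem n (lev n lv) J (b n lv (f n lv t J)) t ∧ G.adm n (lev n lv) J (b n lv (f n lv t J)) ∧
      G.val n (lev n lv) J (b n lv (f n lv t J)) = vm n lv ∧
      ∀ j, G.wid j (b n lv (f n lv t J)) = w j n lv
  nr : ∀ J : ℤ, ∀ t ∈ alive (I n) (lev n lv) J,
      ampA B A c n lv * vm n lv ≤ B.d n ^ (-δ) *
        (((alive (I n) (lev n lv) J).filter fun s => f n lv s J = f n lv t J).card : ℝ)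
  vp : 0 < vm n lv

/-- width statements at stage `k` -/
structure PW (j : κ) (lv : ℚ) (δ : ℝ) (n : ℕ) : Prop where
  wp : 0 < w j n lv
  ta : |Real.log ((rho (lev n lv) / w j n lv) / (rho (lev n 1) / w j n 1)) / B.L n - τ j lv| ≤ δ

/-- two level statements at stage `k` -/
structure R2s (u v : ℚ) (δ : ℝ) (n : ℕ) : Prop where
  le : lev n u ≤ lev n v
  ll : |((lev n v : ℝ) - lev n u) * Real.log 2 / B.L n - ((v : ℝ) - u)| ≤ δ
  ow : ∀ x ∈ I n, B.d n ^ (-((v : ℝ) - u) + (Λ v - Λ u) + δ) ≤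
      ((Crest.Agent.R138.Mk163.own (I n) (lev n u) (lev n v) x).card : ℝ) ∧
    ((Crest.Agent.R138.Mk163.own (I n) (lev n u) (lev n v) x).card : ℝ) ≤
      B.d n ^ (-((v : ℝ) - u) + (Λ v - Λ u) - δ)

variable {B I G lev A c Λ τ f b vm w}

theorem ev_R1 (H : MkA B I G lev A c Λ τ f b vm w) {lv : ℚ} (h0 : 0 ≤ lv) (h1 : lv ≤ 1)
    {δ : ℝ} (hδ : 0 < δ) :
    ∀ᶠ n in (U : Filter ℕ), R1s B I G lev A c f b vm w lv δ n := by
  filter_upwards [H.dmax lv h0 h1 δ hδ, H.mark lv h0 h1, H.near lv h0 h1 δ hδ, H.vpos lv h0 h1]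
    with n a1 a2 a3 a4
  exact ⟨a1, a2, a3, a4⟩

theorem ev_PW (H : MkA B I G lev A c Λ τ f b vm w) (j : κ) {lv : ℚ} (h0 : 0 ≤ lv) (h1 : lv ≤ 1)
    {δ : ℝ} (hδ : 0 < δ) :
    ∀ᶠ n in (U : Filter ℕ), PW B lev τ w j lv δ n := by
  have ht := (Metric.tendsto_nhds.1 (H.tau j lv h0 h1)) δ hδ
  filter_upwards [H.wpos j lv h0 h1, ht] with n a3 a4
  rw [Real.dist_eq] at a4
  exact ⟨a3, a4.le⟩

theorem ev_R2 (H : MkA B I G lev A c Λ τ f b vm w) {u v : ℚ} (h0 : 0 ≤ u) (huv : u ≤ v)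
    (h1 : v ≤ 1) {δ : ℝ} (hδ : 0 < δ) :
    ∀ᶠ n in (U : Filter ℕ), R2s B I lev Λ u v δ n := by
  have ht := (Metric.tendsto_nhds.1 (H.lev_lim u v h0 huv h1)) δ hδ
  filter_upwards [H.lev_mono u v h0 huv h1, H.own u v h0 huv h1 δ hδ, ht] with n a1 a2 a3
  rw [Real.dist_eq] at a3
  exact ⟨a1, a3.le, a2⟩

/-- **L9** zoom, abstract marked sequence. -/
theorem zoomA [Countable κ] : ZoomA B I G lev A c Λ τ f b vm w := by
  classical
  intro H h m c' Λ' τ' hpos hle hmem hmono hlev hc hΛ hτ hlam hc0 hΛ0 hτ1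
  obtain ⟨enc, henc⟩ := Countable.exists_injective_nat κ
  have hfin : ∀ k : ℕ, {j : κ | enc j ≤ k}.Finite := fun k =>
    (Set.finite_Iic k).preimage henc.injOn
  have hevκ : ∀ j : κ, ∀ᶠ k : ℕ in atTop, j ∈ {j : κ | enc j ≤ k} := fun j => by
    filter_upwards [eventually_ge_atTop (enc j)] with k hk using hk
  -- the stages
  obtain ⟨s0, hs0, hs0'⟩ := exists_diag (fun k n =>
    ((k : ℝ) + 1) ≤ h k * B.L n ∧ Real.log ((I n).card : ℝ) ≤ B.d n ^ (-(del h k)) ∧
    (I n).Nonempty ∧ (∀ x ∈ Fq k, R1s B I G lev A c f b vm w (m k x) (del h k) n) ∧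
    (∀ x ∈ Fq k, ∀ y ∈ Fq k, m k x ≤ m k y → R2s B I lev Λ (m k x) (m k y) (del h k) n) ∧
    ∀ j ∈ {j : κ | enc j ≤ k}, (0 < w j n 1 ∧
      ∀ x ∈ Fq k, PW B lev τ w j (m k x) (del h k) n)) (by
    intro k
    have hd := del_pos hpos k
    have e1 : ∀ᶠ n in (U : Filter ℕ), ((k : ℝ) + 1) ≤ h k * B.L n := by
      filter_upwards [B.ev_L_ge (((k : ℝ) + 1) / h k)] with n hn
      rw [div_le_iff₀ (hpos k)] at hn
      linarith
    have e4 : ∀ᶠ n in (U : Filter ℕ), ∀ x ∈ Fq k,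
        R1s B I G lev A c f b vm w (m k x) (del h k) n := by
      rw [Filter.eventually_all_finset]
      intro x hx
      obtain ⟨hx0, hx1⟩ := Fq_mem hx
      exact ev_R1 H (hmem k x hx0 hx1).1 (hmem k x hx0 hx1).2 hd
    have e5 : ∀ᶠ n in (U : Filter ℕ), ∀ x ∈ Fq k, ∀ y ∈ Fq k, m k x ≤ m k y →
        R2s B I lev Λ (m k x) (m k y) (del h k) n := by
      rw [Filter.eventually_all_finset]
      intro x hx
      rw [Filter.eventually_all_finset]
      intro y hy
      obtain ⟨hx0, hx1⟩ := Fq_mem hx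
      obtain ⟨hy0, hy1⟩ := Fq_mem hy
      rcases le_or_gt (m k x) (m k y) with hxy | hxy
      · filter_upwards [ev_R2 H (hmem k x hx0 hx1).1 hxy (hmem k y hy0 hy1).2 hd] with n hn _
        exact hn
      · exact Eventually.of_forall fun n hn => absurd hn (not_le.2 hxy)
    have e6 : ∀ᶠ n in (U : Filter ℕ), ∀ j ∈ {j : κ | enc j ≤ k}, (0 < w j n 1 ∧
        ∀ x ∈ Fq k, PW B lev τ w j (m k x) (del h k) n) := by
      rw [Filter.eventually_all_finite (hfin k)]
      intro j hj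
      refine (H.wpos j 1 zero_le_one le_rfl).and ?_
      rw [Filter.eventually_all_finset]
      intro x hx
      obtain ⟨hx0, hx1⟩ := Fq_mem hx
      exact ev_PW H j (hmem k x hx0 hx1).1 (hmem k x hx0 hx1).2 hd
    filter_upwards [e1, H.card (del h k) hd, H.ne, e4, e5, e6] with n a1 a2 a3 a4 a5 a6
    exact ⟨a1, a2, a3, a4, a5, a6⟩)
  refine ⟨s0, hs0, fun s hs hsle => ?_⟩
  have hP := (hs0'.and hsle).mono fun n hn => hn.1 (s n) hn.2
  have hF : ∀ x : ℚ, 0 ≤ x → x ≤ 1 → ∀ᶠ n in (U : Filter ℕ), x ∈ Fq (s n) := fun x h0 h1 =>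
    hs.eventually (ev_mem_Fq h0 h1)
  have hM : ∀ x y : ℚ, 0 ≤ x → x ≤ y → y ≤ 1 → ∀ᶠ n in (U : Filter ℕ), m (s n) x ≤ m (s n) y :=
    fun x y h0 h1 h2 => hs.eventually (hmono x y h0 h1 h2)
  -- the base
  have hlim : Tendsto (fun n => h (s n) * B.L n) U atTop := by
    have h1 : Tendsto (fun n => (s n : ℝ)) U atTop := tendsto_natCast_atTop_atTop.comp hs
    refine tendsto_atTop_mono' _ ?_ h1
    filter_upwards [hP] with n hn
    linarith [hn.1]
  obtain ⟨B', hB', hL'⟩ := exists_base B (fun n => hpos (s n)) hlim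
  have hBp : ∀ n a, B'.d n ^ a = B.d n ^ (h (s n) * a) := by
    intro n a
    rw [hB', ← Real.rpow_mul (B.pos n).le]
  -- the window sets
  choose I' J0 hwin hne using fun n => exists_win (I n) (lev n (m (s n) 0)) (lev n (m (s n) 1))
  -- amplitude
  set A' : ℕ → ℝ := fun n => A n * B.d n ^ (-(c (m (s n) 0))) with hA'
  -- errors
  have hem : ∀ x : ℚ, 0 ≤ x → x ≤ 1 → ∀ ε : ℝ, 0 < ε → ∀ᶠ n in (U : Filter ℕ),
      |((m (s n) x : ℝ) - m (s n) 0) - h (s n) * x| ≤ ε * h (s n) := by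
    intro x h0 h1 ε hε
    have h2 := hlev 0 x le_rfl h0 h1
    rw [Rat.cast_zero, sub_zero] at h2
    exact err (a := fun k => (m k x : ℝ) - m k 0) hpos h2 hs hε
  have hec : ∀ x : ℚ, 0 ≤ x → x ≤ 1 → ∀ ε : ℝ, 0 < ε → ∀ᶠ n in (U : Filter ℕ),
      |(c (m (s n) x) - c (m (s n) 0)) - h (s n) * c' x| ≤ ε * h (s n) := by
    intro x h0 h1 ε hε
    exact err (a := fun k => c (m k x) - c (m k 0)) hpos (hc x h0 h1) hs hε
  have heΛ : ∀ x : ℚ, 0 ≤ x → x ≤ 1 → ∀ ε : ℝ, 0 < ε → ∀ᶠ n in (U : Filter ℕ),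
      |(Λ (m (s n) x) - Λ (m (s n) 0)) - h (s n) * Λ' x| ≤ ε * h (s n) := by
    intro x h0 h1 ε hε
    exact err (a := fun k => Λ (m k x) - Λ (m k 0)) hpos (hΛ x h0 h1) hs hε
  have heτ : ∀ j, ∀ x : ℚ, 0 ≤ x → x ≤ 1 → ∀ ε : ℝ, 0 < ε → ∀ᶠ n in (U : Filter ℕ),
      |(τ j (m (s n) x) - τ j (m (s n) 1)) - h (s n) * τ' j x| ≤ ε * h (s n) := by
    intro j x h0 h1 ε hε
    exact err (a := fun k => τ j (m k x) - τ j (m k 1)) hpos (hτ j x h0 h1) hs hε
  -- comparison of the amplitudes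
  have hamp : ∀ x : ℚ, 0 ≤ x → x ≤ 1 → ∀ ε : ℝ, 0 < ε → ∀ᶠ n in (U : Filter ℕ),
      ampA B A c n (m (s n) x) ≤ B.d n ^ (-(ε * h (s n))) * ampA B' A' c' n x ∧
      ampA B' A' c' n x ≤ B.d n ^ (-(ε * h (s n))) * ampA B A c n (m (s n) x) := by
    intro x h0 h1 ε hε
    filter_upwards [hec x h0 h1 ε hε] with n a2
    obtain ⟨a2, a2'⟩ := abs_le.1 a2
    have hAn := H.Apos n
    unfold ampA
    rw [hBp, hA']
    simp only
    constructor
    · have e3 : B.d n ^ (-(ε * h (s n))) * (A n * B.d n ^ (-(c (m (s n) 0))) *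
          B.d n ^ (h (s n) * (-(c' x)))) =
          A n * B.d n ^ (-(ε * h (s n)) + -(c (m (s n) 0)) + h (s n) * (-(c' x))) := by
        rw [Real.rpow_add (B.pos n), Real.rpow_add (B.pos n)]
        ring
      rw [e3]
      have h2 := dpow_le B n (a := -(ε * h (s n)) + -(c (m (s n) 0)) + h (s n) * (-(c' x)))
        (b := -(c (m (s n) x))) (by linarith)
      gcongr
    · have e3 : B.d n ^ (-(ε * h (s n))) * (A n * B.d n ^ (-(c (m (s n) x)))) =
          A n * B.d n ^ (-(ε * h (s n)) + -(c (m (s n) x))) := by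
        rw [Real.rpow_add (B.pos n)]
        ring
      have e4 : A n * B.d n ^ (-(c (m (s n) 0))) * B.d n ^ (h (s n) * (-(c' x))) =
          A n * B.d n ^ (-(c (m (s n) 0)) + h (s n) * (-(c' x))) := by
        rw [Real.rpow_add (B.pos n)]
        ring
      rw [e3, e4]
      have h2 := dpow_le B n (a := -(ε * h (s n)) + -(c (m (s n) x)))
        (b := -(c (m (s n) 0)) + h (s n) * (-(c' x))) (by linarith)
      gcongr
  have hamp0 : ∀ n x, 0 < ampA B A c n x := by
    intro n x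
    unfold ampA
    exact mul_pos (H.Apos n) (dpow_pos B n _)
  have hamp0' : (∀ n, 0 < A' n) → ∀ n x, 0 < ampA B' A' c' n x := by
    intro hA0 n x
    unfold ampA
    exact mul_pos (hA0 n) (dpow_pos B' n _)
  -- nested levels
  have hlv0 : ∀ x : ℚ, 0 ≤ x → x ≤ 1 → ∀ᶠ n in (U : Filter ℕ),
      lev n (m (s n) 0) ≤ lev n (m (s n) x) ∧ lev n (m (s n) x) ≤ lev n (m (s n) 1) := by
    intro x h0 h1
    filter_upwards [hP, hF x h0 h1, hM 0 x le_rfl h0 h1, hM x 1 h0 h1 le_rfl] with n a1 a2 a3 a4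
    exact ⟨(a1.2.2.2.2.1 0 (zero_mem_Fq _) x a2 a3).le,
      (a1.2.2.2.2.1 x a2 1 (one_mem_Fq _) a4).le⟩
  refine ⟨B', I', A', hB', fun n => (hwin n).sub, ?_⟩
  refine
    { ne := ?_, card := ?_, Apos := ?_, c0 := hc0
      lam0 := hΛ0, lam := hlam, tau1 := hτ1, lev_mono := ?_, lev_lim := ?_, cell0 := ?_, one := ?_
      own := ?_, dmax := ?_, mark := ?_, near := ?_, vpos := ?_, wpos := ?_, tau := ?_ }
  · -- ne
    filter_upwards [hP] with n hn using hne n hn.2.2.1
  · -- card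
    intro ε hε
    filter_upwards [hP, ev_del hpos hs hε] with n hn hd
    rw [hBp]
    have h1 : (0 : ℝ) < (I' n).card := by exact_mod_cast Finset.card_pos.2 (hne n hn.2.2.1)
    have h2 : ((I' n).card : ℝ) ≤ (I n).card := by
      exact_mod_cast Finset.card_le_card (hwin n).sub
    refine (Real.log_le_log h1 h2).trans (hn.2.1.trans (dpow_le B n ?_))
    linarith
  · -- Apos
    intro n
    exact mul_pos (H.Apos n) (dpow_pos B n _)
  · -- lev_mono
    intro u v h0 huv h1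
    filter_upwards [hP, hF u h0 (huv.trans h1), hF v (h0.trans huv) h1, hM u v h0 huv h1]
      with n a1 a2 a3 a4
    exact (a1.2.2.2.2.1 u a2 v a3 a4).le
  · -- lev_lim
    intro u v h0 huv h1
    rw [Metric.tendsto_nhds]
    intro ε hε
    filter_upwards [hP, hF u h0 (huv.trans h1), hF v (h0.trans huv) h1, hM u v h0 huv h1,
      hem u h0 (huv.trans h1) (ε / 8) (by positivity),
      hem v (h0.trans huv) h1 (ε / 8) (by positivity), ev_del hpos hs (ε := ε / 4) (by positivity)]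
      with n a1 a2 a3 a4 a5 a6 a7
    have hh := hpos (s n)
    have hLn := B.L_pos n
    have h2 := (a1.2.2.2.2.1 u a2 v a3 a4).ll
    rw [Real.dist_eq, hL']
    set X : ℝ := ((lev n (m (s n) v) : ℝ) - lev n (m (s n) u)) * Real.log 2 / B.L n with hX
    have e1 : ((lev n (m (s n) v) : ℝ) - lev n (m (s n) u)) * Real.log 2 / (h (s n) * B.L n) -
        ((v : ℝ) - u) = (X - h (s n) * (v - u)) / h (s n) := by
      rw [hX]
      field_simp
    rw [e1, abs_div, abs_of_pos hh, div_lt_iff₀ hh]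
    have h3 : |X - h (s n) * (v - u)| ≤ 3 / 4 * ε * h (s n) := by
      rw [abs_le] at h2 a5 a6 ⊢
      constructor <;> nlinarith
    have : 0 < ε * h (s n) := mul_pos hε hh
    linarith
  · -- cell0
    refine Eventually.of_forall fun n x hx y hy => ?_
    exact ((hwin n).cell x hx).trans ((hwin n).cell y hy).symm
  · -- one
    exact Eventually.of_forall fun n x hx y hy h1 h2 => (hwin n).one x hx y hy h1 h2
  · -- own
    intro u v h0 huv h1 ε hε
    filter_upwards [hP, hF u h0 (huv.trans h1), hF v (h0.trans huv) h1, hM u v h0 huv h1,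
      hem u h0 (huv.trans h1) (ε / 8) (by positivity),
      hem v (h0.trans huv) h1 (ε / 8) (by positivity),
      heΛ u h0 (huv.trans h1) (ε / 8) (by positivity),
      heΛ v (h0.trans huv) h1 (ε / 8) (by positivity),
      ev_del hpos hs (ε := ε / 4) (by positivity), hlv0 u h0 (huv.trans h1),
      hlv0 v (h0.trans huv) h1]
      with n a1 a2 a3 a4 a5 a6 b5 b6 a7 c1 c2 x hx
    have h2 := (a1.2.2.2.2.1 u a2 v a3 a4).ow x ((hwin n).sub hx)
    rw [own_eq (hwin n) c1.1 c1.2 c2.2 hx, hBp, hBp]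
    have hh := hpos (s n)
    rw [abs_le] at a5 a6 b5 b6
    constructor
    · refine le_trans (dpow_le B n ?_) h2.1
      nlinarith
    · refine h2.2.trans (dpow_le B n ?_)
      nlinarith
  · -- dmax
    intro v h0 h1 ε hε
    filter_upwards [hP, hF v h0 h1, hamp v h0 h1 (ε / 2) (by positivity),
      ev_del hpos hs (ε := ε / 2) (by positivity)] with n a1 a2 a3 a4 J σ0 hσ0
    have h2 := (a1.2.2.2.1 v a2).dm J σ0 hσ0
    have hp0 : 0 < B.d n ^ (-del h (s n)) * ampA B A c n (m (s n) v) :=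
      mul_pos (dpow_pos B n _) (hamp0 n _)
    have hval : 0 ≤ G.val n (lev n (m (s n) v)) J σ0 := by
      by_contra hneg
      have h3 := mul_neg_of_pos_of_neg hp0 (not_le.1 hneg)
      have h4 : (0 : ℝ) ≤ (((alive (I n) (lev n (m (s n) v)) J).filter fun t =>
        G.mem n (lev n (m (s n) v)) J σ0 t).card : ℝ) := by positivity
      linarith
    have h3 : (((alive (I' n) (lev n (m (s n) v)) J).filter fun t =>
        G.mem n (lev n (m (s n) v)) J σ0 t).card : ℝ) ≤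
        (((alive (I n) (lev n (m (s n) v)) J).filter fun t =>
        G.mem n (lev n (m (s n) v)) J σ0 t).card : ℝ) := by
      exact_mod_cast Finset.card_le_card (Finset.filter_subset_filter _ (alive_sub (hwin n) J))
    refine h3.trans (h2.trans (mul_le_mul_of_nonneg_right ?_ hval))
    rw [hBp]
    calc B.d n ^ (-del h (s n)) * ampA B A c n (m (s n) v)
        ≤ B.d n ^ (-(ε / 2 * h (s n))) * (B.d n ^ (-(ε / 2 * h (s n))) *
          ampA B' A' c' n v) := by
          have h4 := dpow_le B n (a := -(ε / 2 * h (s n))) (b := -del h (s n)) (by linarith)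
          have h5 := (hamp0 n (m (s n) v)).le
          have h6 := (dpow_pos B n (-(ε / 2 * h (s n)))).le
          exact mul_le_mul h4 a3.1 h5 h6
      _ = _ := by
          rw [← mul_assoc, ← Real.rpow_add (B.pos n)]
          congr 2
          ring
  · -- mark
    intro v h0 h1
    filter_upwards [hP, hF v h0 h1] with n a1 a2 J t ht
    exact (a1.2.2.2.1 v a2).mr J t (alive_sub (hwin n) J ht)
  · -- near
    intro v h0 h1 ε hε
    filter_upwards [hP, hF v h0 h1, hamp v h0 h1 (ε / 2) (by positivity),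
      ev_del hpos hs (ε := ε / 2) (by positivity), hlv0 v h0 h1] with n a1 a2 a3 a4 c1 J t ht
    have hp1 := a1.2.2.2.1 v a2
    have hal := alive_eq (hwin n) c1.1 c1.2 ⟨t, ht⟩
    have h2 := hp1.nr J t (by rw [← hal]; exact ht)
    rw [hal]
    have hX : (0 : ℝ) ≤ (((alive (I n) (lev n (m (s n) v)) J).filter fun s_1 =>
        f n (m (s n) v) s_1 J = f n (m (s n) v) t J).card : ℝ) := by positivity
    calc ampA B' A' c' n v * vm n (m (s n) v)
        ≤ (B.d n ^ (-(ε / 2 * h (s n))) * ampA B A c n (m (s n) v)) * vm n (m (s n) v) :=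
          mul_le_mul_of_nonneg_right a3.2 hp1.vp.le
      _ = B.d n ^ (-(ε / 2 * h (s n))) * (ampA B A c n (m (s n) v) * vm n (m (s n) v)) := by ring
      _ ≤ B.d n ^ (-(ε / 2 * h (s n))) * (B.d n ^ (-del h (s n)) *
          (((alive (I n) (lev n (m (s n) v)) J).filter fun s_1 =>
          f n (m (s n) v) s_1 J = f n (m (s n) v) t J).card : ℝ)) :=
          mul_le_mul_of_nonneg_left h2 (dpow_pos B n _).le
      _ ≤ B.d n ^ (-(ε / 2 * h (s n))) * (B.d n ^ (-(ε / 2 * h (s n))) *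
          (((alive (I n) (lev n (m (s n) v)) J).filter fun s_1 =>
          f n (m (s n) v) s_1 J = f n (m (s n) v) t J).card : ℝ)) := by
          refine mul_le_mul_of_nonneg_left (mul_le_mul_of_nonneg_right ?_ hX) (dpow_pos B n _).le
          exact dpow_le B n (by linarith)
      _ = _ := by
          rw [hBp, ← mul_assoc, ← Real.rpow_add (B.pos n)]
          congr 2
          ring
  · -- vpos
    intro v h0 h1
    filter_upwards [hP, hF v h0 h1] with n a1 a2
    exact (a1.2.2.2.1 v a2).vp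
  · -- wpos
    intro j v h0 h1
    filter_upwards [hP, hF v h0 h1, hs.eventually (hevκ j)] with n a1 a2 a3
    exact ((a1.2.2.2.2.2 j a3).2 v a2).wp
  · -- tau
    intro j v h0 h1
    rw [Metric.tendsto_nhds]
    intro ε hε
    filter_upwards [hP, hF v h0 h1, heτ j v h0 h1 (ε / 4) (by positivity),
      ev_del hpos hs (ε := ε / 4) (by positivity), hs.eventually (hevκ j)]
      with n a1 a2 a5 a7 a8
    have hh := hpos (s n)
    have hLn := B.L_pos n
    have hp0 := a1.2.2.2.2.2 j a8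
    have hp1 := hp0.2 v a2
    have hp2 := hp0.2 1 (one_mem_Fq _)
    have t1 := hp1.ta
    have t2 := hp2.ta
    have hr : ∀ i : ℕ, 0 < rho i := fun i => by
      unfold Crest.Agent.R138.Mk163.rho; positivity
    have hw2v : 0 < w j n (m (s n) v) := hp1.wp
    have hw21 : 0 < w j n (m (s n) 1) := hp2.wp
    have hw1 : 0 < w j n 1 := hp0.1
    rw [Real.dist_eq, hL']
    set Rv : ℝ := rho (lev n (m (s n) v)) / w j n (m (s n) v) with hRv
    set Rm : ℝ := rho (lev n (m (s n) 1)) / w j n (m (s n) 1) with hRm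
    set R1 : ℝ := rho (lev n 1) / w j n 1 with hR1
    have pv : 0 < Rv := div_pos (hr _) hw2v
    have pm : 0 < Rm := div_pos (hr _) hw21
    have p1 : 0 < R1 := div_pos (hr _) hw1
    rw [Real.log_div pv.ne' p1.ne'] at t1
    rw [Real.log_div pm.ne' p1.ne'] at t2
    rw [Real.log_div pv.ne' pm.ne']
    set X : ℝ := (Real.log Rv - Real.log R1) / B.L n with hX
    set Y : ℝ := (Real.log Rm - Real.log R1) / B.L n with hY
    have e1 : (Real.log Rv - Real.log Rm) / (h (s n) * B.L n) - τ' j v =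
        ((X - Y) - h (s n) * τ' j v) / h (s n) := by
      rw [hX, hY]
      field_simp
      ring
    rw [e1, abs_div, abs_of_pos hh, div_lt_iff₀ hh]
    have h3 : |(X - Y) - h (s n) * τ' j v| ≤ 3 / 4 * ε * h (s n) := by
      rw [abs_le] at t1 t2 a5 ⊢
      constructor <;> nlinarith
    have : 0 < ε * h (s n) := mul_pos hε hh
    linarith

end main

end Crest.Agent.R136.ZoomA102
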