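import Mathlib
import Crest.Agent.R136.MkF_627
import Crest.Agent.R136.PtA_627
import Crest.Agent.R136.ExR_779
import Crest.Agent.R136.ZoomA_102
import Crest.Agent.R138.ArgM1_163

/-!
# R136: slots of an abstract marked sequence (helper627), part 1

`SlotSys` : marked sequence with LINEAR exponents together with families of flags `fl j`, scales
`sc j` and numbers `β j` (precision of the level-`v` marks in the slot `j` is `sc d^(β j v)`), the
flags being close to the level-`v` flags up to the precision.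

* `SlotSys.dense` : passes to dense marked parts;
* `slotSys_of_negl` : closeness outside negligible sets is enough;
* `SlotSys.zoom` : passes to zooms at every point of `(0,1)`.
-/

set_option autoImplicit false
set_option linter.unusedVariables false
set_option linter.unusedSectionVars false

open Finset Filter Topology

namespace Crest.Agent.R136.Slt627

open Crest.Agent.R138.Ex926 (Base U exists_diag)
open Crest.Agent.R138.Dp76
open Crest.Agent.R138.Ps926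
open Crest.Agent.R138.Mk163 (zc zl rho alive own Negl)
open Crest.Agent.R138.MkPoint627 (exists_affine)
open Crest.Agent.R138.MkZoom779 (Fq Fq_mem ev_mem_Fq zero_mem_Fq)
open Crest.Agent.R138.NatTw76 (exists_avoid)
open Crest.Agent.R136.MkA627
open Crest.Agent.R136.ExR779 (exRotA)
open Crest.Agent.R136.ZoomA102 (zoomA)

variable {σ κ φ ι : Type*}

/-- slot data of a marked sequence with linear exponents `g v`, `s v`, `θ j (1 - v)`. -/
structure SlotSys (P : PDist φ ι) (G : Geo σ κ) (g s : ℝ) (θ : κ → ℝ) (β : ι → ℝ)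
    (B : Base) (I : ℕ → Finset (ℕ × ℝ)) (lev : ℕ → ℚ → ℕ) (A : ℕ → ℝ)
    (f : ℕ → ℚ → ℕ → ℤ → ℕ) (b : ℕ → ℚ → ℕ → σ) (vm : ℕ → ℚ → ℝ) (w : κ → ℕ → ℚ → ℝ)
    (e : ℕ → ℚ → ℕ → φ) (pr : ι → ℕ → ℚ → ℝ) (fl : ι → ℕ → ℕ × ℝ → φ) (sc : ι → ℕ → ℝ) :
    Prop where
  mka : MkA B I G lev A (fun v => g * v) (fun v => s * v) (fun j v => θ j * (1 - v)) f b vm w
  scpos : ∀ j n, 0 < sc j n
  prpos : ∀ j, ∀ v : ℚ, 0 ≤ v → v ≤ 1 → ∀ᶠ n in (U : Filter ℕ), 0 < pr j n v
  /-- precision of the marks = `sc d^(β v)` -/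
  prc : ∀ j, ∀ v : ℚ, 0 ≤ v → v ≤ 1 →
    Tendsto (fun n => Real.log (sc j n / pr j n v) / B.L n) U (𝓝 (β j * v))
  /-- flags and level-`v` flags agree up to the precision -/
  close : ∀ j, ∀ v : ℚ, 0 ≤ v → v ≤ 1 → ∀ ε : ℝ, 0 < ε → ∀ᶠ n in (U : Filter ℕ), ∀ x ∈ I n,
    P.d j n (fl j n x) (frA lev f e n v x) ≤ pr j n v * B.d n ^ (-ε)

/-- the flags of one line agree to infinite order -/
def Inv (P : PDist φ ι) (B : Base) (I : ℕ → Finset (ℕ × ℝ)) (j : ι) (fl : ℕ → ℕ × ℝ → φ)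
    (sc : ℕ → ℝ) : Prop :=
  ∀ M : ℝ, ∀ᶠ n in (U : Filter ℕ), ∀ x ∈ I n, ∀ y ∈ I n, y.1 = x.1 →
    P.d j n (fl n x) (fl n y) ≤ sc n * B.d n ^ M

theorem log_dpow (B : Base) (n : ℕ) (a : ℝ) : Real.log (B.d n ^ a) = -(a * B.L n) := by
  rw [Real.log_rpow (B.pos n)]; unfold Base.L; ring

theorem log_sc {B : Base} {n : ℕ} {S P ρ : ℝ} (hS : 0 < S) (hP : 0 < P) :
    Real.log (S * B.d n ^ ρ / P) = Real.log (S / P) - ρ * B.L n := by
  rw [mul_div_right_comm, Real.log_mul (div_pos hS hP).ne' (dpow_pos B n _).ne', log_dpow]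
  ring

theorem eq_exp {B : Base} {n : ℕ} {S P : ℝ} (hS : 0 < S) (hP : 0 < P) :
    P = S * B.d n ^ (Real.log (S / P) / B.L n) := by
  have hL := B.L_pos n
  have h1 : Real.log (B.d n ^ (Real.log (S / P) / B.L n)) = Real.log (P / S) := by
    rw [log_dpow, div_mul_cancel₀ _ hL.ne', Real.log_div hS.ne' hP.ne', Real.log_div hP.ne' hS.ne']
    ring
  have h2 := Real.log_injOn_pos (Set.mem_Ioi.2 (dpow_pos B n _)) (Set.mem_Ioi.2 (div_pos hP hS)) h1
  rw [h2]; field_simp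

section

variable {P : PDist φ ι} {G : Geo σ κ} {g s : ℝ} {θ : κ → ℝ} {β : ι → ℝ}
    {B : Base} {I : ℕ → Finset (ℕ × ℝ)} {lev : ℕ → ℚ → ℕ} {A : ℕ → ℝ}
    {f : ℕ → ℚ → ℕ → ℤ → ℕ} {b : ℕ → ℚ → ℕ → σ} {vm : ℕ → ℚ → ℝ} {w : κ → ℕ → ℚ → ℝ}
    {e : ℕ → ℚ → ℕ → φ} {pr : ι → ℕ → ℚ → ℝ} {fl : ι → ℕ → ℕ × ℝ → φ} {sc : ι → ℕ → ℝ}

theorem SlotSys.dense (h : SlotSys P G g s θ β B I lev A f b vm w e pr fl sc)
    {J : ℕ → Finset (ℕ × ℝ)} (hd : Dense B J I)
    (hJ : MkA B J G lev A (fun v => g * v) (fun v => s * v) (fun j v => θ j * (1 - v)) f b vm w) :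
    SlotSys P G g s θ β B J lev A f b vm w e pr fl sc where
  mka := hJ
  scpos := h.scpos
  prpos := h.prpos
  prc := h.prc
  close := fun j v h0 h1 ε hε => by
    filter_upwards [h.close j v h0 h1 ε hε, hd.1] with n a1 a2 x hx using a1 x (a2 hx)

theorem Inv.dense {j : ι} {fl : ℕ → ℕ × ℝ → φ} {sc : ℕ → ℝ} (h : Inv P B I j fl sc)
    {J : ℕ → Finset (ℕ × ℝ)} (hd : Dense B J I) : Inv P B J j fl sc := by
  intro M
  filter_upwards [h M, hd.1] with n a1 a2 x hx y hy using a1 x (a2 hx) y (a2 hy)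

/-- closeness outside negligible sets: a dense part has it everywhere. -/
theorem slotSys_of_negl [Countable ι]
    (hM : MkA B I G lev A (fun v => g * v) (fun v => s * v) (fun j v => θ j * (1 - v)) f b vm w)
    (hsc : ∀ j n, 0 < sc j n)
    (hpr : ∀ j, ∀ v : ℚ, 0 ≤ v → v ≤ 1 → ∀ᶠ n in (U : Filter ℕ), 0 < pr j n v)
    (hprc : ∀ j, ∀ v : ℚ, 0 ≤ v → v ≤ 1 →
      Tendsto (fun n => Real.log (sc j n / pr j n v) / B.L n) U (𝓝 (β j * v)))
    (hcl : ∀ j, ∀ v : ℚ, 0 ≤ v → v ≤ 1 → ∀ ε : ℝ, 0 < ε → Negl B I fun n x =>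
      pr j n v * B.d n ^ (-ε) ≤ P.d j n (fl j n x) (frA lev f e n v x)) :
    ∃ J : ℕ → Finset (ℕ × ℝ), (∀ n, J n ⊆ I n) ∧ Dense B J I ∧
      SlotSys P G g s θ β B J lev A f b vm w e pr fl sc := by
  classical
  rcases isEmpty_or_nonempty ι with hι | hι
  · exact ⟨I, fun n => Finset.Subset.refl _, Dense.refl B I,
      ⟨hM, hsc, hpr, hprc, fun j => (hι.false j).elim⟩⟩
  have : Nonempty (ι × ℚ × ℕ) := ⟨(Classical.arbitrary ι, 0, 0)⟩
  obtain ⟨en, hen⟩ := exists_surjective_nat (ι × ℚ × ℕ)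
  have hN : ∀ k, Negl B I fun n x => (0 ≤ (en k).2.1 ∧ (en k).2.1 ≤ 1) ∧
      pr (en k).1 n (en k).2.1 * B.d n ^ (-(1 / (((en k).2.2 : ℝ) + 1))) ≤
        P.d (en k).1 n (fl (en k).1 n x) (frA lev f e n (en k).2.1 x) := by
    intro k
    by_cases h : 0 ≤ (en k).2.1 ∧ (en k).2.1 ≤ 1
    · exact (hcl (en k).1 (en k).2.1 h.1 h.2 (1 / (((en k).2.2 : ℝ) + 1))
        (by positivity)).mono (Eventually.of_forall fun n x _ hx => hx.2)
    · exact Negl.false.mono (Eventually.of_forall fun n x _ hx => h hx.1)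
  obtain ⟨J0, hJ0I, hJ0d, hJ0⟩ := exists_avoid (B := B) (I := I) _ hN
  obtain ⟨J, hJs, hJd, -, hJ⟩ := MkA.refine' hM hJ0d
  refine ⟨J, fun n => (hJs n).trans (hJ0I n), hJd.trans hJ0d, hJ, hsc, hpr, hprc,
    fun j v h0 h1 ε hε => ?_⟩
  obtain ⟨K, hK⟩ := exists_nat_one_div_lt hε
  obtain ⟨k, hk⟩ := hen (j, v, K)
  have h2 := hJ0 k
  rw [hk] at h2
  filter_upwards [h2, hpr j v h0 h1] with n a1 a2 x hx
  have a3 := a1 x (hJs n hx)
  have a4 : ¬ pr j n v * B.d n ^ (-(1 / ((K : ℝ) + 1))) ≤ P.d j n (fl j n x) (frA lev f e n v x) :=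
    fun hc => a3 ⟨⟨h0, h1⟩, hc⟩
  refine (not_le.1 a4).le.trans ?_
  refine mul_le_mul_of_nonneg_left (dpow_le B n ?_) a2.le
  linarith

/-- **zoom** of a slot system at a point of `(0,1)`. -/
theorem SlotSys.zoom [Countable κ] [Finite ι]
    (h : SlotSys P G g s θ β B I lev A f b vm w e pr fl sc) {v0 : ℝ} (hv0 : 0 < v0) (hv1 : v0 < 1) :
    ∃ (η : ℕ → ℝ) (m : ℕ → ℚ → ℚ), (∀ k, 0 < η k) ∧ (∀ k, η k ≤ 1) ∧ Tendsto η atTop (𝓝 0) ∧
      (∀ k, ∀ x : ℚ, 0 ≤ x → x ≤ 1 → 0 ≤ m k x ∧ m k x ≤ 1) ∧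
      (∀ k, ∀ x y : ℚ, (m k y : ℝ) - m k x = η k * ((y : ℝ) - x)) ∧
      (∀ x : ℚ, Tendsto (fun k => ((m k x : ℚ) : ℝ)) atTop (𝓝 v0)) ∧
      ∃ s0 : ℕ → ℕ, Tendsto s0 U atTop ∧ ∀ t : ℕ → ℕ, Tendsto t U atTop →
        (∀ᶠ n in (U : Filter ℕ), t n ≤ s0 n) →
        ∃ (B' : Base) (I' : ℕ → Finset (ℕ × ℝ)) (A' : ℕ → ℝ),
          (∀ n, B'.d n = B.d n ^ η (t n)) ∧ (∀ n, I' n ⊆ I n) ∧
          SlotSys P G g s θ β B' I' (fun n x => lev n (m (t n) x)) A'
            (fun n x => f n (m (t n) x)) (fun n x => b n (m (t n) x)) (fun n x => vm n (m (t n) x))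
            (fun j n x => w j n (m (t n) x)) (fun n x => e n (m (t n) x))
            (fun j n x => pr j n (m (t n) x)) fl (fun j n => sc j n * B.d n ^ (β j * m (t n) 0)) := by
  classical
  obtain ⟨η, m, hη, hη1, hη0, hm, hmono, hq, hmv, hlim⟩ := exists_affine hv0 hv1
  have hq' : ∀ k, ∀ x y : ℚ, (m k y : ℝ) - m k x = η k * ((y : ℝ) - x) := by
    intro k x y
    have := hq k x y
    rw [div_eq_iff (hη k).ne'] at this
    rw [this]; ring
  refine ⟨η, m, hη, hη1, hη0, hm, hq', hmv, ?_⟩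
  have hs01 : 0 ≤ s ∧ s ≤ 1 := by
    have := h.mka.lam 0 1 le_rfl zero_le_one le_rfl
    simpa using this
  obtain ⟨s1, hs1, hz⟩ := zoomA h.mka η m (fun v => g * v) (fun v => s * v)
    (fun j v => θ j * (1 - v)) hη hη1 hm
    (fun x y _ hxy _ => Eventually.of_forall fun k => hmono k x y hxy)
    (fun x y _ _ _ => by
      simp only [hq]
      exact tendsto_const_nhds)
    (fun x hx0 hx1 => by
      have e1 : ∀ k, (g * (m k x : ℝ) - g * (m k 0 : ℝ)) / η k = g * x := by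
        intro k
        rw [← mul_sub, hq' k 0 x]
        have := (hη k).ne'
        push_cast
        field_simp
        ring
      simp only [e1]
      exact tendsto_const_nhds)
    (fun x hx0 hx1 => by
      have e1 : ∀ k, (s * (m k x : ℝ) - s * (m k 0 : ℝ)) / η k = s * x := by
        intro k
        rw [← mul_sub, hq' k 0 x]
        have := (hη k).ne'
        push_cast
        field_simp
        ring
      simp only [e1]
      exact tendsto_const_nhds)
    (fun j x hx0 hx1 => by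
      have e1 : ∀ k, (θ j * (1 - (m k x : ℝ)) - θ j * (1 - (m k 1 : ℝ))) / η k = θ j * (1 - x) := by
        intro k
        have e2 : θ j * (1 - (m k x : ℝ)) - θ j * (1 - (m k 1 : ℝ)) =
            θ j * ((m k 1 : ℝ) - m k x) := by ring
        rw [e2, hq' k x 1]
        have := (hη k).ne'
        push_cast
        field_simp
      simp only [e1]
      exact tendsto_const_nhds)
    (fun u v hu huv hv => by
      have e1 : s * v - s * u = s * (v - u) := by ring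
      rw [e1]
      exact ⟨mul_nonneg hs01.1 (by linarith), by nlinarith⟩)
    (by simp) (by simp) (by simp)
  -- slot properties on the diagonal
  have hkp : ∀ k : ℕ, (0 : ℝ) < η k / (k + 1) := fun k => div_pos (hη k) (by positivity)
  obtain ⟨s2, hs2, hs2'⟩ := exists_diag (fun k n => ∀ j : ι, ∀ x ∈ Fq k,
    0 < pr j n (m k x) ∧
    |Real.log (sc j n / pr j n (m k x)) / B.L n - β j * (m k x : ℝ)| ≤ η k / (k + 1) ∧
    ∀ p ∈ I n, P.d j n (fl j n p) (frA lev f e n (m k x) p) ≤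
      pr j n (m k x) * B.d n ^ (-(η k / (k + 1)))) (by
    intro k
    rw [Filter.eventually_all]
    intro j
    rw [Filter.eventually_all_finset]
    intro x hx
    obtain ⟨hx0, hx1⟩ := Fq_mem hx
    obtain ⟨hm0, hm1⟩ := hm k x hx0 hx1
    have ht := (Metric.tendsto_nhds.1 (h.prc j (m k x) hm0 hm1)) _ (hkp k)
    filter_upwards [h.prpos j (m k x) hm0 hm1, ht, h.close j (m k x) hm0 hm1 _ (hkp k)]
      with n a1 a2 a3
    rw [Real.dist_eq] at a2
    exact ⟨a1, a2.le, a3⟩)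
  refine ⟨fun n => min (s1 n) (s2 n), ?_, fun t ht hts => ?_⟩
  · rw [tendsto_atTop]
    intro c
    filter_upwards [tendsto_atTop.1 hs1 c, tendsto_atTop.1 hs2 c] with n h1 h2
    exact le_min h1 h2
  obtain ⟨B', I', A', hBd, hI', hMk⟩ := hz t ht (by
    filter_upwards [hts] with n hn using hn.trans (min_le_left _ _))
  have hQ : ∀ᶠ n in (U : Filter ℕ), ∀ j : ι, ∀ x ∈ Fq (t n),
      0 < pr j n (m (t n) x) ∧
      |Real.log (sc j n / pr j n (m (t n) x)) / B.L n - β j * (m (t n) x : ℝ)| ≤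
        η (t n) / (t n + 1) ∧
      ∀ p ∈ I n, P.d j n (fl j n p) (frA lev f e n (m (t n) x) p) ≤
        pr j n (m (t n) x) * B.d n ^ (-(η (t n) / (t n + 1))) := by
    filter_upwards [hs2', hts] with n h1 h2 using h1 (t n) (h2.trans (min_le_right _ _))
  have hFq : ∀ x : ℚ, 0 ≤ x → x ≤ 1 → ∀ᶠ n in (U : Filter ℕ), x ∈ Fq (t n) := fun x h0 h1 =>
    ht.eventually (ev_mem_Fq h0 h1)
  have hBL : ∀ n, B'.L n = η (t n) * B.L n := by
    intro n
    have : Real.log (B'.d n) = Real.log (B.d n ^ η (t n)) := by rw [hBd n]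
    rw [log_dpow] at this
    have h2 : B'.L n = - Real.log (B'.d n) := rfl
    rw [h2, this]; ring
  have hBp : ∀ n (y : ℝ), B'.d n ^ y = B.d n ^ (η (t n) * y) := by
    intro n y
    rw [hBd n, ← Real.rpow_mul (B.pos n).le]
  have htend : Tendsto (fun n => 1 / ((t n : ℝ) + 1)) U (𝓝 0) :=
    tendsto_one_div_add_atTop_nhds_zero_nat.comp ht
  refine ⟨B', I', A', hBd, hI', ⟨hMk, fun j n => mul_pos (h.scpos j n) (dpow_pos B n _), ?_, ?_, ?_⟩⟩
  · intro j v h0 h1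
    filter_upwards [hQ, hFq v h0 h1] with n a1 a2 using (a1 j v a2).1
  · intro j v h0 h1
    rw [Metric.tendsto_nhds]
    intro ε hε
    filter_upwards [hQ, hFq v h0 h1, (Metric.tendsto_nhds.1 htend) ε hε] with n a1 a2 a3
    obtain ⟨b1, b2, -⟩ := a1 j v a2
    have hL := B.L_pos n
    have hp := hη (t n)
    have hk1 : (0 : ℝ) < (t n : ℝ) + 1 := by positivity
    rw [Real.dist_eq] at a3 ⊢
    rw [sub_zero, abs_of_pos (by positivity)] at a3
    rw [log_sc (h.scpos j n) b1, hBL n]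
    have e1 : (Real.log (sc j n / pr j n (m (t n) v)) - β j * (m (t n) 0 : ℝ) * B.L n) /
        (η (t n) * B.L n) - β j * v =
        (Real.log (sc j n / pr j n (m (t n) v)) / B.L n - β j * (m (t n) v : ℝ)) / η (t n) := by
      have e2 : (m (t n) v : ℝ) = m (t n) 0 + η (t n) * v := by
        have := hq' (t n) 0 v
        push_cast at this
        linarith
      rw [e2]
      field_simp
      ring
    rw [e1, abs_div, abs_of_pos hp, div_lt_iff₀ hp]
    refine lt_of_le_of_lt b2 ?_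
    rw [div_eq_mul_one_div, mul_comm ε]
    exact mul_lt_mul_of_pos_left a3 hp
  · intro j v h0 h1 ε hε
    filter_upwards [hQ, hFq v h0 h1, (Metric.tendsto_nhds.1 htend) ε hε] with n a1 a2 a3 p hp
    obtain ⟨b1, -, b3⟩ := a1 j v a2
    rw [Real.dist_eq, sub_zero, abs_of_pos (by positivity)] at a3
    have hh := hη (t n)
    refine (b3 p (hI' n hp)).trans ?_
    rw [hBp]
    refine mul_le_mul_of_nonneg_left (dpow_le B n ?_) b1.le
    have e3 : η (t n) / ((t n : ℝ) + 1) = η (t n) * (1 / ((t n : ℝ) + 1)) := by ring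
    rw [e3]
    nlinarith

end

end Crest.Agent.R136.Slt627
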