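import Mathlib
import Crest.Agent.R136.Slt1_627

/-!
# R136: slots of an abstract marked sequence (helper627), part 2

Own rotation functions of all slots on one dense part: `exists_rots`.
-/

set_option autoImplicit false
set_option linter.unusedVariables false
set_option linter.unusedSectionVars false

open Finset Filter Topology

namespace Crest.Agent.R136.Slt627

open Crest.Agent.R138.Ex926 (Base U exists_diag)
open Crest.Agent.R138.Dp76
open Crest.Agent.R138.Ps926
open Crest.Agent.R138.Mk163 (zc zl rho alive own Negl)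
open Crest.Agent.R138.MkRef627 (own_one)
open Crest.Agent.R136.MkA627
open Crest.Agent.R136.ExR779 (exRotA)

variable {σ κ φ ι : Type*}

section

variable {P : PDist φ ι} {G : Geo σ κ} {g s : ℝ} {θ : κ → ℝ} {β : ι → ℝ}
    {B : Base} {I : ℕ → Finset (ℕ × ℝ)} {lev : ℕ → ℚ → ℕ} {A : ℕ → ℝ}
    {f : ℕ → ℚ → ℕ → ℤ → ℕ} {b : ℕ → ℚ → ℕ → σ} {vm : ℕ → ℚ → ℝ} {w : κ → ℕ → ℚ → ℝ}
    {e : ℕ → ℚ → ℕ → φ} {pr : ι → ℕ → ℚ → ℝ} {fl : ι → ℕ → ℕ × ℝ → φ} {sc : ι → ℕ → ℝ}

theorem own_pos {I : Finset (ℕ × ℝ)} {i j : ℕ} {x : ℕ × ℝ} (h : x ∈ I) :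
    1 ≤ (own I i j x).card := by
  classical
  refine card_pos.2 ⟨zc j x.2, ?_⟩
  unfold own
  refine mem_image.2 ⟨x, ?_, rfl⟩
  simp only [mem_filter]
  exact ⟨h, trivial, trivial⟩

/-- the rotation function passes to dense marked parts -/
theorem rotFA_dense {c Λ : ℝ → ℝ} {τ : κ → ℝ → ℝ} {j : ι} {fl : ℕ → ℕ × ℝ → φ} {sc : ℕ → ℝ}
    {C0 : ℝ} {R : ℝ → ℝ} {J : ℕ → Finset (ℕ × ℝ)} (hR : RotFA P B I lev j fl sc C0 R)
    (hI : MkA B I G lev A c Λ τ f b vm w) (hJ : MkA B J G lev A c Λ τ f b vm w)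
    (hd : Dense B J I) : RotFA P B J lev j fl sc C0 R := by
  classical
  refine ⟨hR.scpos, hR.bd, hR.mono, fun u h0 h1 ε hε => ?_, fun u h0 h1 r hr hrC => ?_⟩
  · filter_upwards [hR.rot u h0 h1 ε hε, hd.1] with n a b x hx y hy
    exact a x (b hx) y (b hy)
  · obtain ⟨γ, hγ, h2⟩ := hR.tw u h0 h1 r hr hrC
    refine ⟨γ / 2, by positivity, ?_⟩
    filter_upwards [h2, hd.1, hI.own u 1 h0 h1.le le_rfl (γ / 4) (by positivity),
      hJ.own u 1 h0 h1.le le_rfl (γ / 4) (by positivity)] with n a b c d x hx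
    have a1 := a x (b hx)
    have c1 := (c x (b hx)).2
    have d1 := (d x hx).1
    have hm : ((((J n).filter fun y => y.1 = x.1 ∧ zc (lev n u) y.2 = zc (lev n u) x.2 ∧
        P.d j n (fl n x) (fl n y) ≤ sc n * B.d n ^ r).card : ℕ) : ℝ) ≤
        ((((I n).filter fun y => y.1 = x.1 ∧ zc (lev n u) y.2 = zc (lev n u) x.2 ∧
        P.d j n (fl n x) (fl n y) ≤ sc n * B.d n ^ r).card : ℕ) : ℝ) := by
      exact_mod_cast card_le_card (filter_subset_filter _ b)
    have hm2 : ((((J n).filter fun y => y.1 = x.1 ∧ zc (lev n u) y.2 = zc (lev n u) x.2 ∧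
        P.d j n (fl n x) (fl n y) ≤ sc n * B.d n ^ r).card : ℕ) : ℝ) ≤
        B.d n ^ γ * B.d n ^ (-((1 : ℚ) - (u : ℝ)) + (Λ (1 : ℚ) - Λ u) - γ / 4) := by
      refine hm.trans ((le_trans (le_of_eq ?_) a1).trans
        (mul_le_mul_of_nonneg_left c1 (dpow_pos B n γ).le))
      convert rfl
    refine le_trans (le_trans (le_of_eq ?_) hm2) ?_
    · convert rfl
    calc B.d n ^ γ * B.d n ^ (-((1 : ℚ) - (u : ℝ)) + (Λ (1 : ℚ) - Λ u) - γ / 4)
        = B.d n ^ (γ / 2) * B.d n ^ (-((1 : ℚ) - (u : ℝ)) + (Λ (1 : ℚ) - Λ u) + γ / 4) := by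
          rw [← dpow_add, ← dpow_add]; congr 1; ring
      _ ≤ _ := mul_le_mul_of_nonneg_left d1 (dpow_pos B n _).le

/-- the precision of level `v` against `sc d^(β v)`. -/
theorem SlotSys.pr_le (h : SlotSys P G g s θ β B I lev A f b vm w e pr fl sc) (j : ι) {v : ℚ}
    (h0 : 0 ≤ v) (h1 : v ≤ 1) {ε : ℝ} (hε : 0 < ε) : ∀ᶠ n in (U : Filter ℕ),
      pr j n v ≤ sc j n * B.d n ^ (β j * v - ε) := by
  filter_upwards [(Metric.tendsto_nhds.1 (h.prc j v h0 h1)) ε hε, h.prpos j v h0 h1] with n a1 a2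
  rw [Real.dist_eq, abs_lt] at a1
  rw [eq_exp (B := B) (n := n) (h.scpos j n) a2]
  exact mul_le_mul_of_nonneg_left (dpow_le B n (by linarith [a1.1])) (h.scpos j n).le

/-- flags of one line in one cell of level `u` agree up to the precision of level `u`. -/
theorem SlotSys.same_cell (h : SlotSys P G g s θ β B I lev A f b vm w e pr fl sc) (j : ι) {u : ℚ}
    (h0 : 0 ≤ u) (h1 : u ≤ 1) {ε : ℝ} (hε : 0 < ε) : ∀ᶠ n in (U : Filter ℕ),
      ∀ x ∈ I n, ∀ y ∈ I n, y.1 = x.1 → zc (lev n u) y.2 = zc (lev n u) x.2 →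
        P.d j n (fl j n x) (fl j n y) ≤ sc j n * B.d n ^ (β j * u - ε) := by
  have hK : 0 < P.K := lt_of_lt_of_le one_pos P.K1
  filter_upwards [h.pr_le j h0 h1 (ε := ε / 3) (by positivity),
    h.close j u h0 h1 (ε / 3) (by positivity),
    dpow_small B (c := ε / 3) (by positivity) (ε := 1 / (2 * P.K)) (by positivity)]
    with n a1 a2 a3 x hx y hy hxy hz
  have e1 : frA lev f e n u y = frA lev f e n u x := by
    unfold frA
    rw [hxy, hz]
  have b1 := a2 x hx
  have b2 := a2 y hy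
  rw [e1, P.symm] at b2
  have b3 := P.tri j n (fl j n x) (frA lev f e n u x) (fl j n y)
  have hd := dpow_pos B n (ε / 3)
  have hd2 := dpow_pos B n (-(ε / 3))
  have hd3 := dpow_pos B n (β j * u - ε)
  have hs := h.scpos j n
  have c1 : pr j n u * B.d n ^ (-(ε / 3)) ≤
      sc j n * B.d n ^ (β j * u - ε / 3) * B.d n ^ (-(ε / 3)) :=
    mul_le_mul_of_nonneg_right a1 hd2.le
  have c2 : sc j n * B.d n ^ (β j * u - ε / 3) * B.d n ^ (-(ε / 3)) =
      sc j n * B.d n ^ (β j * u - ε) * B.d n ^ (ε / 3) := by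
    rw [mul_assoc, mul_assoc, ← dpow_add, ← dpow_add]
    congr 2
    ring
  rw [c2] at c1
  have c3 : P.d j n (fl j n x) (fl j n y) ≤
      2 * P.K * (sc j n * B.d n ^ (β j * u - ε) * B.d n ^ (ε / 3)) := by
    refine b3.trans ?_
    have : P.d j n (fl j n x) (frA lev f e n u x) + P.d j n (frA lev f e n u x) (fl j n y) ≤
        2 * (sc j n * B.d n ^ (β j * u - ε) * B.d n ^ (ε / 3)) := by linarith
    calc _ ≤ P.K * (2 * (sc j n * B.d n ^ (β j * u - ε) * B.d n ^ (ε / 3))) :=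
          mul_le_mul_of_nonneg_left this hK.le
      _ = _ := by ring
  refine c3.trans ?_
  have c4 : 2 * P.K * B.d n ^ (ε / 3) ≤ 1 := by
    have := mul_le_mul_of_nonneg_left a3.le (show 0 ≤ 2 * P.K by positivity)
    rwa [mul_one_div_cancel (by positivity)] at this
  calc 2 * P.K * (sc j n * B.d n ^ (β j * u - ε) * B.d n ^ (ε / 3))
      = (2 * P.K * B.d n ^ (ε / 3)) * (sc j n * B.d n ^ (β j * u - ε)) := by ring
    _ ≤ 1 * (sc j n * B.d n ^ (β j * u - ε)) := mul_le_mul_of_nonneg_right c4 (by positivity)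
    _ = _ := one_mul _

open Classical in
/-- incidences of one line in a cell = cells of level `1` -/
theorem card_fibre {c Λ : ℝ → ℝ} {τ : κ → ℝ → ℝ} (hM : MkA B I G lev A c Λ τ f b vm w) :
    ∀ᶠ n in (U : Filter ℕ), ∀ x ∈ I n, ∀ u : ℚ,
      ((I n).filter fun y => y.1 = x.1 ∧ zc (lev n u) y.2 = zc (lev n u) x.2).card =
        (own (I n) (lev n u) (lev n 1) x).card := by
  classical
  filter_upwards [hM.one] with n h1 x hx u
  unfold own
  symm
  have e1 : ((I n).filter fun y => y.1 = x.1 ∧ zc (lev n u) y.2 = zc (lev n u) x.2) =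
      (I n).filter fun y => y.1 = x.1 ∧ zc (lev n u) y.2 = zc (lev n u) x.2 := rfl
  refine (card_image_of_injOn fun p hp q hq hpq => ?_).trans ?_
  · rw [mem_coe, mem_filter] at hp hq
    exact h1 p hp.1 q hq.1 (hp.2.1.trans hq.2.1.symm) hpq
  · congr 1

/-- **own rotation function of one slot.** -/
theorem SlotSys.exists_rot (h : SlotSys P G g s θ β B I lev A f b vm w e pr fl sc) {j : ι}
    (hβ : 0 < β j) {C0 : ℝ} (hC : β j ≤ C0) :
    ∃ (J : ℕ → Finset (ℕ × ℝ)) (R : ℝ → ℝ), Dense B J I ∧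
      SlotSys P G g s θ β B J lev A f b vm w e pr fl sc ∧
      RotFA P B J lev j (fl j) (sc j) C0 R ∧ ∀ u : ℝ, 0 ≤ u → u ≤ 1 → β j * u ≤ R u := by
  classical
  obtain ⟨J, R, hJd, hJ, hR⟩ := exRotA P B I G lev A (fun v => g * v) (fun v => s * v)
    (fun j v => θ j * (1 - v)) f b vm w j (fl j) (fun n => sc j n * B.d n ^ (-1 : ℝ)) (C0 + 1)
    h.mka (fun n => mul_pos (h.scpos j n) (dpow_pos B n _)) (by linarith) (by
      refine Negl.mono Negl.false ?_
      filter_upwards [h.same_cell j le_rfl zero_le_one one_pos, h.mka.cell0] with n a1 a2 x hx hy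
      obtain ⟨y, hy, hxy, hlt⟩ := hy
      have b1 := a1 x hx y hy hxy (a2 y hy x hx)
      have e1 : β j * ((0 : ℚ) : ℝ) - 1 = -1 := by push_cast; ring
      rw [e1] at b1
      exact absurd b1 (not_le.2 hlt))
  have hS := h.dense hJd hJ
  -- lower bound at rationals
  have hlow : ∀ u : ℚ, 0 ≤ u → u < 1 → β j * u + 1 ≤ R u := by
    intro u h0 h1
    by_contra hcon
    rw [not_le] at hcon
    have hu0 : (0 : ℝ) ≤ u := by exact_mod_cast h0
    have hu1 : (u : ℝ) < 1 := by exact_mod_cast h1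
    set r : ℝ := (R u + (β j * u + 1)) / 2 with hr
    have hr1 : R u < r := by rw [hr]; linarith
    have hr2 : r < β j * u + 1 := by rw [hr]; linarith
    have hr3 : r ≤ C0 + 1 := by nlinarith
    obtain ⟨γ, hγ, htw⟩ := hR.tw u h0 h1 r hr1 hr3
    have hfalse : ∀ᶠ n in (U : Filter ℕ), False := by
      filter_upwards [htw, hJ.ne, hS.same_cell j h0 h1.le (ε := β j * u + 1 - r) (by linarith),
        dpow_small B hγ one_pos, card_fibre hJ] with n a1 a2 a3 a4 a5
      obtain ⟨x, hx⟩ := a2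
      have b1 := a1 x hx
      have e1 : ((J n).filter fun y => y.1 = x.1 ∧ zc (lev n u) y.2 = zc (lev n u) x.2 ∧
          P.d j n (fl j n x) (fl j n y) ≤ sc j n * B.d n ^ (-1 : ℝ) * B.d n ^ r) =
          (J n).filter fun y => y.1 = x.1 ∧ zc (lev n u) y.2 = zc (lev n u) x.2 := by
        refine filter_congr fun y hy => ⟨fun hh => ⟨hh.1, hh.2.1⟩, fun hh => ⟨hh.1, hh.2, ?_⟩⟩
        refine (a3 x hx y hy hh.1 hh.2).trans (le_of_eq ?_)
        rw [mul_assoc, ← dpow_add]
        congr 2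
        ring
      rw [e1, a5 x hx u] at b1
      have hp : (0 : ℝ) < ((own (J n) (lev n u) (lev n 1) x).card : ℝ) := by
        exact_mod_cast own_pos hx
      have b2 : B.d n ^ γ * ((own (J n) (lev n u) (lev n 1) x).card : ℝ) <
          1 * ((own (J n) (lev n u) (lev n 1) x).card : ℝ) := mul_lt_mul_of_pos_right a4 hp
      linarith
    obtain ⟨n, hn⟩ := hfalse.exists
    exact hn
  have hlow2 : ∀ u : ℝ, 0 ≤ u → u ≤ 1 → β j * u + 1 ≤ R u := by
    intro u h0 h1
    rcases h0.eq_or_lt with h00 | h00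
    · have := hlow 0 le_rfl one_pos
      rw [← h00]
      simpa using this
    · by_contra hcon
      rw [not_le] at hcon
      -- a rational `q < u` with `β q + 1 > R u`
      set δ : ℝ := β j * u + 1 - R u with hδ
      have hδ0 : 0 < δ := by rw [hδ]; linarith
      obtain ⟨q, hq1, hq2⟩ := exists_rat_btwn (show max 0 (u - δ / β j) < u from
        max_lt h00 (by have := div_pos hδ0 hβ; linarith))
      have hq0 : (0 : ℝ) < q := (le_max_left _ _).trans_lt hq1
      have hqd : u - δ / β j < q := (le_max_right _ _).trans_lt hq1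
      have hq3 : (q : ℝ) < 1 := hq2.trans_le h1
      have c1 := hlow q (by exact_mod_cast hq0.le) (by exact_mod_cast hq3)
      have c2 := hR.mono ⟨hq0.le, hq3.le⟩ ⟨h0, h1⟩ hq2.le
      have c3 : β j * (u - δ / β j) < β j * q := mul_lt_mul_of_pos_left hqd hβ
      have c4 : β j * (u - δ / β j) = β j * u - δ := by field_simp
      rw [c4] at c3
      rw [hδ] at c3
      linarith
  refine ⟨J, fun u => R u - 1, hJd, hS, ⟨h.scpos j, fun u h0 h1 => ⟨?_, ?_⟩, ?_, ?_, ?_⟩,
    fun u h0 h1 => by have := hlow2 u h0 h1; show β j * u ≤ R u - 1; linarith⟩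
  · have := hlow2 u h0 h1
    have h2 : 0 ≤ β j * u := mul_nonneg hβ.le h0
    show 0 ≤ R u - 1
    linarith
  · have := (hR.bd u h0 h1).2
    show R u - 1 ≤ C0
    linarith
  · intro x hx y hy hxy
    have := hR.mono hx hy hxy
    show R x - 1 ≤ R y - 1
    linarith
  · intro u h0 h1 ε hε
    filter_upwards [hR.rot u h0 h1 ε hε] with n hn x hx y hy hxy hz
    refine (hn x hx y hy hxy hz).trans (le_of_eq ?_)
    rw [mul_assoc, ← dpow_add]
    congr 2
    ring
  · intro u h0 h1 r hr hrC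
    obtain ⟨γ, hγ, h2⟩ := hR.tw u h0 h1 (r + 1) (by have : R u - 1 < r := hr; linarith)
      (by linarith)
    refine ⟨γ, hγ, ?_⟩
    filter_upwards [h2] with n hn x hx
    refine le_trans (le_of_eq ?_) (hn x hx)
    congr 2
    refine filter_congr fun y hy => ?_
    have e1 : sc j n * B.d n ^ (-1 : ℝ) * B.d n ^ (r + 1) = sc j n * B.d n ^ r := by
      rw [mul_assoc, ← dpow_add]
      congr 2
      ring
    rw [e1]

/-- **own rotation functions of all slots with `β j > 0`, on one dense part.** -/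
theorem SlotSys.exists_rots [Finite ι] (h : SlotSys P G g s θ β B I lev A f b vm w e pr fl sc)
    {C0 : ι → ℝ} (hC : ∀ j, β j ≤ C0 j) :
    ∃ (J : ℕ → Finset (ℕ × ℝ)) (R : ι → ℝ → ℝ), Dense B J I ∧
      SlotSys P G g s θ β B J lev A f b vm w e pr fl sc ∧
      ∀ j, 0 < β j → RotFA P B J lev j (fl j) (sc j) (C0 j) (R j) ∧
        ∀ u : ℝ, 0 ≤ u → u ≤ 1 → β j * u ≤ R j u := by
  classical
  have : Fintype ι := Fintype.ofFinite ι
  have key : ∀ S : Finset ι, ∃ (J : ℕ → Finset (ℕ × ℝ)) (R : ι → ℝ → ℝ), Dense B J I ∧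
      SlotSys P G g s θ β B J lev A f b vm w e pr fl sc ∧
      ∀ j ∈ S, 0 < β j → RotFA P B J lev j (fl j) (sc j) (C0 j) (R j) ∧
        ∀ u : ℝ, 0 ≤ u → u ≤ 1 → β j * u ≤ R j u := by
    intro S
    induction S using Finset.induction_on with
    | empty => exact ⟨I, fun _ _ => 0, Dense.refl B I, h, fun j hj => absurd hj (Finset.notMem_empty j)⟩
    | insert i S hi ih =>
      obtain ⟨J, R, hd, hS, hR⟩ := ih
      by_cases hβ : 0 < β i
      · obtain ⟨J', R', hd', hS', hR', hR''⟩ := hS.exists_rot hβ (hC i)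
        refine ⟨J', fun j => if j = i then R' else R j, hd'.trans hd, hS', fun j hj hβj => ?_⟩
        by_cases hji : j = i
        · subst hji
          simp only [if_true]
          exact ⟨hR', hR''⟩
        · simp only [hji, if_false]
          have h1 := hR j ((Finset.mem_insert.1 hj).resolve_left hji) hβj
          exact ⟨rotFA_dense h1.1 hS.mka hS'.mka hd', h1.2⟩
      · refine ⟨J, R, hd, hS, fun j hj hβj => ?_⟩
        rcases Finset.mem_insert.1 hj with rfl | hj
        · exact absurd hβj hβ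
        · exact hR j hj hβj
  obtain ⟨J, R, h1, h2, h3⟩ := key Finset.univ
  exact ⟨J, R, h1, h2, fun j => h3 j (Finset.mem_univ j)⟩

end

end Crest.Agent.R136.Slt627
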