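import Mathlib
import Crest.Agent.R136.Slt2_627

/-!
# R136: slots of an abstract marked sequence (helper627), part 3

`exists_nat` : after finitely many zooms every slot is TIED (own rotation exactly `β j u`, both
directions) or INVISIBLE (`Inv`, all flags of a line agree to infinite order).
-/

set_option autoImplicit false
set_option linter.unusedVariables false
set_option linter.unusedSectionVars false

open Finset Filter Topology

namespace Crest.Agent.R136.Slt627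

open Crest.Agent.R138.Ex926 (Base U exists_diag)
open Crest.Agent.R138.Dp76
open Crest.Agent.R138.Ps926
open Crest.Agent.R138.Mk163 (zc zl rho alive own Negl)
open Crest.Agent.R136.MkA627

variable {σ κ φ ι : Type*}

/-- output of the second zoom: every slot is tied or invisible.  `H n` = length of the window, `m n` =
affine level map of slope `H n`. -/
def NatOut (P : PDist φ ι) (G : Geo σ κ) (g s : ℝ) (θ : κ → ℝ) (β C0 : ι → ℝ)
    (fl : ι → ℕ → ℕ × ℝ → φ) (B : Base) (I : ℕ → Finset (ℕ × ℝ)) (lev : ℕ → ℚ → ℕ)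
    (f : ℕ → ℚ → ℕ → ℤ → ℕ) (b : ℕ → ℚ → ℕ → σ) (vm : ℕ → ℚ → ℝ) (w : κ → ℕ → ℚ → ℝ)
    (e : ℕ → ℚ → ℕ → φ) (pr : ι → ℕ → ℚ → ℝ) : Prop :=
  ∃ (H : ℕ → ℝ) (m : ℕ → ℚ → ℚ) (B' : Base) (I' : ℕ → Finset (ℕ × ℝ)) (A' : ℕ → ℝ)
    (sc' : ι → ℕ → ℝ), (∀ n, 0 < H n ∧ H n ≤ 1) ∧
    (∀ n, ∀ x : ℚ, 0 ≤ x → x ≤ 1 → 0 ≤ m n x ∧ m n x ≤ 1) ∧
    (∀ n, ∀ x y : ℚ, (m n y : ℝ) - m n x = H n * ((y : ℝ) - x)) ∧
    (∀ n, B'.d n = B.d n ^ H n) ∧ (∀ᶠ n in (U : Filter ℕ), I' n ⊆ I n) ∧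
    SlotSys P G g s θ β B' I' (fun n x => lev n (m n x)) A' (fun n x => f n (m n x))
      (fun n x => b n (m n x)) (fun n x => vm n (m n x)) (fun j n x => w j n (m n x))
      (fun n x => e n (m n x)) (fun j n x => pr j n (m n x)) fl sc' ∧
    ∀ j, Inv P B' I' j (fl j) (sc' j) ∨ (0 < β j ∧
      RotFA P B' I' (fun n x => lev n (m n x)) j (fl j) (sc' j) (C0 j) (fun u => β j * u))

section

variable {P : PDist φ ι} {G : Geo σ κ} {g s : ℝ} {θ : κ → ℝ} {β C0 : ι → ℝ}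
    {B : Base} {I : ℕ → Finset (ℕ × ℝ)} {lev : ℕ → ℚ → ℕ} {A : ℕ → ℝ}
    {f : ℕ → ℚ → ℕ → ℤ → ℕ} {b : ℕ → ℚ → ℕ → σ} {vm : ℕ → ℚ → ℝ} {w : κ → ℕ → ℚ → ℝ}
    {e : ℕ → ℚ → ℕ → φ} {pr : ι → ℕ → ℚ → ℝ} {fl : ι → ℕ → ℕ × ℝ → φ} {sc : ι → ℕ → ℝ}

/-- composition of windows -/
theorem NatOut.comp {B1 : Base} {I1 : ℕ → Finset (ℕ × ℝ)} {H1 : ℕ → ℝ} {m1 : ℕ → ℚ → ℚ}
    (hH : ∀ n, 0 < H1 n ∧ H1 n ≤ 1) (hm : ∀ n, ∀ x : ℚ, 0 ≤ x → x ≤ 1 → 0 ≤ m1 n x ∧ m1 n x ≤ 1)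
    (hq : ∀ n, ∀ x y : ℚ, (m1 n y : ℝ) - m1 n x = H1 n * ((y : ℝ) - x))
    (hB : ∀ n, B1.d n = B.d n ^ H1 n) (hI : ∀ᶠ n in (U : Filter ℕ), I1 n ⊆ I n)
    (h : NatOut P G g s θ β C0 fl B1 I1 (fun n x => lev n (m1 n x)) (fun n x => f n (m1 n x))
      (fun n x => b n (m1 n x)) (fun n x => vm n (m1 n x)) (fun j n x => w j n (m1 n x))
      (fun n x => e n (m1 n x)) (fun j n x => pr j n (m1 n x))) :
    NatOut P G g s θ β C0 fl B I lev f b vm w e pr := by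
  obtain ⟨H2, m2, B2, I2, A2, sc2, h1, h2, h3, h4, h5, h6, h7⟩ := h
  refine ⟨fun n => H1 n * H2 n, fun n x => m1 n (m2 n x), B2, I2, A2, sc2, fun n => ⟨?_, ?_⟩,
    fun n x hx0 hx1 => ?_, fun n x y => ?_, fun n => ?_, ?_, h6, h7⟩
  · exact mul_pos (hH n).1 (h1 n).1
  · exact mul_le_one₀ (hH n).2 (h1 n).1.le (h1 n).2
  · exact hm n _ (h2 n x hx0 hx1).1 (h2 n x hx0 hx1).2
  · rw [hq, h3]; ring
  · rw [h4, hB, ← Real.rpow_mul (B.pos n).le]
  · filter_upwards [hI, h5] with n a1 a2 using a2.trans a1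

/-- the rotation function is `β u` below level `1`. -/
theorem rotFA_lin {j : ι} {flj : ℕ → ℕ × ℝ → φ} {scj : ℕ → ℝ} {R : ℝ → ℝ} {b0 c0 : ℝ}
    (hR : RotFA P B I lev j flj scj c0 R) (hb : 0 ≤ b0) (hbc : b0 ≤ c0)
    (hlow : ∀ u : ℝ, 0 ≤ u → u ≤ 1 → b0 * u ≤ R u)
    (heq : ∀ u : ℚ, 0 ≤ u → u < 1 → R u = b0 * u) :
    RotFA P B I lev j flj scj c0 (fun u => b0 * u) where
  scpos := hR.scpos
  bd := fun u h0 h1 => ⟨mul_nonneg hb h0, by
    show b0 * u ≤ c0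
    nlinarith⟩
  mono := fun x hx y hy hxy => mul_le_mul_of_nonneg_left hxy hb
  rot := fun u h0 h1 ε hε => by
    filter_upwards [hR.rot u h0 h1 ε hε] with n hn x hx y hy hxy hz
    refine (hn x hx y hy hxy hz).trans ?_
    refine mul_le_mul_of_nonneg_left (dpow_le B n ?_) (hR.scpos n).le
    have := hlow u (by exact_mod_cast h0) (by exact_mod_cast h1)
    linarith
  tw := fun u h0 h1 r hr hrC => hR.tw u h0 h1 r (by rw [heq u h0 h1]; exact hr) hrC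

/-- **one zoom makes one more slot invisible.** -/
theorem SlotSys.zoom_gap [Countable κ] [Finite ι]
    (h : SlotSys P G g s θ β B I lev A f b vm w e pr fl sc) {j0 : ι} {c0 : ℝ} {R : ℝ → ℝ}
    (hR : RotFA P B I lev j0 (fl j0) (sc j0) c0 R) {v0 D : ℝ} (hv0 : 0 < v0) (hv1 : v0 < 1)
    (hD : 0 < D) (hgap : ∀ᶠ v in 𝓝 v0, β j0 * v + D ≤ R v) :
    ∃ (H : ℕ → ℝ) (m : ℕ → ℚ → ℚ) (B' : Base) (I' : ℕ → Finset (ℕ × ℝ)) (A' : ℕ → ℝ)
      (sc' : ι → ℕ → ℝ), (∀ n, 0 < H n ∧ H n ≤ 1) ∧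
      (∀ n, ∀ x : ℚ, 0 ≤ x → x ≤ 1 → 0 ≤ m n x ∧ m n x ≤ 1) ∧
      (∀ n, ∀ x y : ℚ, (m n y : ℝ) - m n x = H n * ((y : ℝ) - x)) ∧
      (∀ n, B'.d n = B.d n ^ H n) ∧ (∀ᶠ n in (U : Filter ℕ), I' n ⊆ I n) ∧
      SlotSys P G g s θ β B' I' (fun n x => lev n (m n x)) A' (fun n x => f n (m n x))
        (fun n x => b n (m n x)) (fun n x => vm n (m n x)) (fun j n x => w j n (m n x))
        (fun n x => e n (m n x)) (fun j n x => pr j n (m n x)) fl sc' ∧
      Inv P B' I' j0 (fl j0) (sc' j0) ∧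
      ∀ j, Inv P B I j (fl j) (sc j) → Inv P B' I' j (fl j) (sc' j) := by
  classical
  obtain ⟨η, m, hη, hη1, hη0, hm, hq, hmv, s0, hs0, hz⟩ := h.zoom hv0 hv1
  have hm00 : ∀ k, 0 ≤ m k 0 ∧ m k 0 ≤ 1 := fun k => hm k 0 le_rfl zero_le_one
  obtain ⟨s3, hs3, hs3'⟩ := exists_diag (fun k n => ∀ x ∈ I n, ∀ y ∈ I n, y.1 = x.1 →
    zc (lev n (m k 0)) y.2 = zc (lev n (m k 0)) x.2 →
      P.d j0 n (fl j0 n x) (fl j0 n y) ≤ sc j0 n * B.d n ^ (R (m k 0) - D / 2)) (fun k =>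
    hR.rot (m k 0) (hm00 k).1 (hm00 k).2 (D / 2) (by positivity))
  set t : ℕ → ℕ := fun n => min (s0 n) (s3 n) with ht
  have htt : Tendsto t U atTop := by
    rw [tendsto_atTop]
    intro c
    filter_upwards [tendsto_atTop.1 hs0 c, tendsto_atTop.1 hs3 c] with n h1 h2
    exact le_min h1 h2
  obtain ⟨B', I', A', hB', hI', hS'⟩ := hz t htt (Eventually.of_forall fun n => min_le_left _ _)
  have hBp : ∀ n (y : ℝ), B'.d n ^ y = B.d n ^ (η (t n) * y) := by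
    intro n y
    rw [hB' n, ← Real.rpow_mul (B.pos n).le]
  refine ⟨fun n => η (t n), fun n => m (t n), B', I', A', _, fun n => ⟨hη _, hη1 _⟩,
    fun n => hm (t n), fun n => hq (t n), hB', Eventually.of_forall hI', hS', ?_, ?_⟩
  · intro M
    have hg1 : ∀ᶠ n in (U : Filter ℕ), β j0 * (m (t n) 0 : ℝ) + D ≤ R (m (t n) 0) :=
      ((hmv 0).comp htt).eventually hgap
    have hg2 : ∀ᶠ n in (U : Filter ℕ), η (t n) * M < D / 2 := by
      have h1 : Tendsto (fun n => η (t n) * M) U (𝓝 (0 * M)) := (hη0.comp htt).mul_const M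
      rw [zero_mul] at h1
      exact h1.eventually_lt_const (by positivity)
    filter_upwards [hg1, hg2, hs3', hS'.mka.cell0] with n a1 a2 a3 a4 x hx y hy hxy
    have b1 := a3 (t n) (min_le_right _ _) x (hI' n hx) y (hI' n hy) hxy (a4 y hy x hx)
    refine b1.trans ?_
    rw [hBp, mul_assoc, ← dpow_add]
    exact mul_le_mul_of_nonneg_left (dpow_le B n (by linarith)) (h.scpos j0 n).le
  · intro j hj M
    filter_upwards [hj (|β j| + |M|)] with n a1 x hx y hy hxy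
    refine (a1 x (hI' n hx) y (hI' n hy) hxy).trans ?_
    rw [hBp, mul_assoc, ← dpow_add]
    refine mul_le_mul_of_nonneg_left (dpow_le B n ?_) (h.scpos j n).le
    have c1 : β j * (m (t n) 0 : ℝ) ≤ |β j| := by
      have e0 : (0 : ℝ) ≤ m (t n) 0 := by exact_mod_cast (hm00 (t n)).1
      have e1 : (m (t n) 0 : ℝ) ≤ 1 := by exact_mod_cast (hm00 (t n)).2
      calc β j * (m (t n) 0 : ℝ) ≤ |β j| * (m (t n) 0 : ℝ) :=
            mul_le_mul_of_nonneg_right (le_abs_self _) e0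
        _ ≤ |β j| * 1 := mul_le_mul_of_nonneg_left e1 (abs_nonneg _)
        _ = |β j| := mul_one _
    have c2 : η (t n) * M ≤ |M| := by
      calc η (t n) * M ≤ η (t n) * |M| := mul_le_mul_of_nonneg_left (le_abs_self _) (hη _).le
        _ ≤ 1 * |M| := mul_le_mul_of_nonneg_right (hη1 _) (abs_nonneg _)
        _ = |M| := one_mul _
    linarith

/-- **second zoom: every slot is tied or invisible.** -/
theorem exists_nat [Countable κ] [Finite ι] (hC : ∀ j, β j ≤ C0 j) :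
    ∀ (N : ℕ) (B : Base) (I : ℕ → Finset (ℕ × ℝ)) (lev : ℕ → ℚ → ℕ) (A : ℕ → ℝ)
      (f : ℕ → ℚ → ℕ → ℤ → ℕ) (b : ℕ → ℚ → ℕ → σ) (vm : ℕ → ℚ → ℝ) (w : κ → ℕ → ℚ → ℝ)
      (e : ℕ → ℚ → ℕ → φ) (pr : ι → ℕ → ℚ → ℝ) (sc : ι → ℕ → ℝ),
      SlotSys P G g s θ β B I lev A f b vm w e pr fl sc →
      (∀ j, Inv P B I j (fl j) (sc j) ∨ 0 < β j) →
      {j | ¬ Inv P B I j (fl j) (sc j)}.ncard ≤ N →
      NatOut P G g s θ β C0 fl B I lev f b vm w e pr := by
  classical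
  intro N
  induction N with
  | zero =>
    intro B I lev A f b vm w e pr sc h hβ hN
    have hall : ∀ j, Inv P B I j (fl j) (sc j) := by
      intro j
      by_contra hcon
      have h1 : {j | ¬ Inv P B I j (fl j) (sc j)}.ncard = 0 := Nat.le_zero.1 hN
      rw [Set.ncard_eq_zero (Set.toFinite _)] at h1
      have : j ∈ {j | ¬ Inv P B I j (fl j) (sc j)} := hcon
      rw [h1] at this
      exact this
    refine ⟨fun _ => 1, fun _ x => x, B, I, A, sc, fun n => ⟨one_pos, le_rfl⟩,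
      fun n x h0 h1 => ⟨h0, h1⟩, fun n x y => by ring, fun n => by rw [Real.rpow_one],
      Eventually.of_forall fun n => Finset.Subset.refl _, h, fun j => Or.inl (hall j)⟩
  | succ N ih =>
    intro B I lev A f b vm w e pr sc h hβ hN
    obtain ⟨J, R, hd, hS, hR⟩ := h.exists_rots hC
    have hInvJ : ∀ j, Inv P B I j (fl j) (sc j) → Inv P B J j (fl j) (sc j) :=
      fun j hj => hj.dense hd
    by_cases hA : ∀ j, Inv P B J j (fl j) (sc j) ∨ (0 < β j ∧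
        ∀ u : ℚ, 0 ≤ u → u < 1 → R j u = β j * u)
    · refine ⟨fun _ => 1, fun _ x => x, B, J, A, sc, fun n => ⟨one_pos, le_rfl⟩,
        fun n x h0 h1 => ⟨h0, h1⟩, fun n x y => by ring, fun n => by rw [Real.rpow_one],
        hd.1, hS, fun j => ?_⟩
      rcases hA j with hj | ⟨hj, hj2⟩
      · exact Or.inl hj
      · obtain ⟨h1, h2⟩ := hR j hj
        exact Or.inr ⟨hj, rotFA_lin h1 hj.le (hC j) h2 hj2⟩
    · push Not at hA
      obtain ⟨j0, hj0, hA⟩ := hA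
      have hβ0 : 0 < β j0 := by
        rcases hβ j0 with h1 | h1
        · exact absurd (hInvJ j0 h1) hj0
        · exact h1
      obtain ⟨u0, hu0, hu1, hne⟩ := hA hβ0
      obtain ⟨hR0, hR1⟩ := hR j0 hβ0
      have hu0' : (0 : ℝ) ≤ u0 := by exact_mod_cast hu0
      have hu1' : (u0 : ℝ) < 1 := by exact_mod_cast hu1
      have hlt : β j0 * u0 < R j0 u0 := lt_of_le_of_ne (hR1 u0 hu0' hu1'.le) (Ne.symm hne)
      set D : ℝ := R j0 u0 - β j0 * u0 with hDdef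
      have hD : 0 < D := by rw [hDdef]; linarith
      set δ : ℝ := min (D / (2 * β j0)) (1 - u0) with hδdef
      have hδ : 0 < δ := lt_min (by positivity) (by linarith)
      have hδ1 : δ ≤ D / (2 * β j0) := min_le_left _ _
      have hδ2 : δ ≤ 1 - u0 := min_le_right _ _
      have hgap : ∀ᶠ v in 𝓝 ((u0 : ℝ) + δ / 2), β j0 * v + D / 2 ≤ R j0 v := by
        have hmem : Set.Ioo (u0 : ℝ) (u0 + δ) ∈ 𝓝 ((u0 : ℝ) + δ / 2) :=
          Ioo_mem_nhds (by linarith) (by linarith)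
        filter_upwards [hmem] with v hv
        have c1 : R j0 u0 ≤ R j0 v := hR0.mono ⟨hu0', hu1'.le⟩ ⟨by linarith [hv.1], by
          linarith [hv.2]⟩ hv.1.le
        have c2 : β j0 * (v - u0) ≤ β j0 * (D / (2 * β j0)) :=
          mul_le_mul_of_nonneg_left (by linarith [hv.2]) hβ0.le
        have c3 : β j0 * (D / (2 * β j0)) = D / 2 := by field_simp
        rw [c3] at c2
        have c4 : β j0 * (v - u0) = β j0 * v - β j0 * u0 := by ring
        rw [c4] at c2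
        linarith
      obtain ⟨H, m, B', I', A', sc', h1, h2, h3, h4, h5, h6, h7, h8⟩ :=
        hS.zoom_gap (v0 := (u0 : ℝ) + δ / 2) hR0 (by linarith) (by linarith)
          (D := D / 2) (by positivity) hgap
      refine NatOut.comp h1 h2 h3 h4 (by filter_upwards [h5, hd.1] with n a1 a2 using a1.trans a2)
        (ih B' I' _ A' _ _ _ _ _ _ sc' h6 (fun j => ?_) ?_)
      · rcases hβ j with hj | hj
        · exact Or.inl (h8 j (hInvJ j hj))
        · exact Or.inr hj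
      · have hlt2 : {j | ¬ Inv P B' I' j (fl j) (sc' j)}.ncard <
            {j | ¬ Inv P B I j (fl j) (sc j)}.ncard := by
          refine Set.ncard_lt_ncard ?_ (Set.toFinite _)
          rw [Set.ssubset_iff_of_subset]
          · exact ⟨j0, fun hj => hj0 (hInvJ j0 hj), fun hj => hj h7⟩
          · intro j hj hj2
            exact hj (h8 j (hInvJ j hj2))
        omega

/-- **second zoom**, user form. -/
theorem SlotSys.exists_nat [Countable κ] [Finite ι]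
    (h : SlotSys P G g s θ β B I lev A f b vm w e pr fl sc)
    (hβ : ∀ j, Inv P B I j (fl j) (sc j) ∨ 0 < β j) (hC : ∀ j, β j ≤ C0 j) :
    NatOut P G g s θ β C0 fl B I lev f b vm w e pr :=
  Slt627.exists_nat hC _ B I lev A f b vm w e pr sc h hβ le_rfl

end

end Crest.Agent.R136.Slt627
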