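import Mathlib

/-!
# Abstract triangular charts (helper191), part 1: quasi-triangle, symmetry, packing

`co i j : Fin m → ℝ` = coordinates of the point `j` seen from the point `i` (in the frame of `i`).
The chart is triangular: `co i l k - co i j k - co j l k` is bounded by finitely many monomials in
the EARLIER coordinates.  `Legal p` = the walls.
-/

set_option autoImplicit false

namespace Crest.Agent.R136.Net191

open Finset

/-- monomials of a triangular chart -/
structure Mons (m : ℕ) where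
  mon : Fin m → Finset (Fin m → ℕ)
  low : ∀ k, ∀ e ∈ mon k, ∀ s, k ≤ s → e s = 0
  ne : ∀ k, ∀ e ∈ mon k, ∃ s, e s ≠ 0

variable {m : ℕ}

/-- maximal total degree of the monomials -/
def Mons.deg (M : Mons m) : ℕ := Finset.univ.sup fun k => (M.mon k).sup fun e => ∑ s, e s

/-- number of monomials -/
def Mons.cnt (M : Mons m) : ℕ := ∑ k, (M.mon k).card

lemma Mons.deg_le (M : Mons m) {k : Fin m} {e : Fin m → ℕ} (he : e ∈ M.mon k) :
    ∑ s, e s ≤ M.deg :=
  (Finset.le_sup (f := fun e => ∑ s, e s) he).trans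
    (Finset.le_sup (f := fun k => (M.mon k).sup fun e => ∑ s, e s) (Finset.mem_univ k))

lemma Mons.one_le (M : Mons m) {k : Fin m} {e : Fin m → ℕ} (he : e ∈ M.mon k) :
    1 ≤ ∑ s, e s := by
  obtain ⟨s, hs⟩ := M.ne k e he
  exact (Nat.one_le_iff_ne_zero.mpr hs).trans
    (Finset.single_le_sum (f := e) (fun _ _ => Nat.zero_le _) (Finset.mem_univ s))

/-- **legal exponents** = the walls -/
structure Legal (M : Mons m) (p : Fin m → ℝ) : Prop where
  nonneg : ∀ k, 0 ≤ p k
  wall : ∀ k, ∀ e ∈ M.mon k, p k ≤ ∑ s, (e s : ℝ) * p s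

lemma Legal.sup {M : Mons m} {p q : Fin m → ℝ} (hp : Legal M p) (hq : Legal M q) :
    Legal M (p ⊔ q) where
  nonneg := fun k => (hp.nonneg k).trans le_sup_left
  wall := fun k e he => by
    refine sup_le ?_ ?_
    · exact (hp.wall k e he).trans (Finset.sum_le_sum fun s _ =>
        mul_le_mul_of_nonneg_left le_sup_left (Nat.cast_nonneg _))
    · exact (hq.wall k e he).trans (Finset.sum_le_sum fun s _ =>
        mul_le_mul_of_nonneg_left le_sup_right (Nat.cast_nonneg _))

/-- a triangular chart -/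
structure Chart {ι : Type*} (I : Finset ι) (co : ι → ι → Fin m → ℝ) (M : Mons m) (C : ℝ) :
    Prop where
  C0 : 0 ≤ C
  refl : ∀ i ∈ I, ∀ k, co i i k = 0
  add : ∀ i ∈ I, ∀ j ∈ I, ∀ l ∈ I, ∀ k, |co i l k - co i j k - co j l k| ≤
    C * ∑ e ∈ M.mon k, ∏ s, (max |co i j s| |co j l s|) ^ e s

/-- closeness with exponents `p` -/
def Near {ι : Type*} (co : ι → ι → Fin m → ℝ) (d : ℝ) (p : Fin m → ℝ) (K : ℝ) (i j : ι) : Prop :=
  ∀ k, |co i j k| ≤ K * d ^ p k

lemma Near.mono {ι : Type*} {co : ι → ι → Fin m → ℝ} {d : ℝ} (hd : 0 < d) {p : Fin m → ℝ}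
    {K K' : ℝ} {i j : ι} (h : Near co d p K i j) (hK : K ≤ K') : Near co d p K' i j := fun k =>
  (h k).trans (mul_le_mul_of_nonneg_right hK (Real.rpow_nonneg hd.le _))

lemma Near.anti {ι : Type*} {co : ι → ι → Fin m → ℝ} {d : ℝ} (hd : 0 < d) (hd1 : d ≤ 1)
    {p p' : Fin m → ℝ} {K : ℝ} (hK : 0 ≤ K) {i j : ι} (h : Near co d p' K i j) (hp : p ≤ p') :
    Near co d p K i j := fun k =>
  (h k).trans (mul_le_mul_of_nonneg_left (Real.rpow_le_rpow_of_exponent_ge hd hd1 (hp k)) hK)

lemma Near.sup {ι : Type*} {co : ι → ι → Fin m → ℝ} {d : ℝ} {p q : Fin m → ℝ} {K : ℝ} {i j : ι}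
    (h : Near co d p K i j) (h' : Near co d q K i j) : Near co d (p ⊔ q) K i j := fun k => by
  rcases le_total (p k) (q k) with hpq | hpq
  · have : (p ⊔ q) k = q k := sup_eq_right.mpr hpq
    rw [this]; exact h' k
  · have : (p ⊔ q) k = p k := sup_eq_left.mpr hpq
    rw [this]; exact h k

/-- size of one monomial -/
lemma mono_le {M : Mons m} {p : Fin m → ℝ} (hp : Legal M p) {d : ℝ} (hd : 0 < d) (hd1 : d ≤ 1)
    {k : Fin m} {e : Fin m → ℕ} (he : e ∈ M.mon k) {K : ℝ} (hK : 0 ≤ K) {x : Fin m → ℝ}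
    (hx0 : ∀ s, 0 ≤ x s) (hx : ∀ s, s < k → x s ≤ K * d ^ p s) :
    ∏ s, x s ^ e s ≤ K ^ (∑ s, e s) * d ^ p k := by
  have h1 : ∏ s, x s ^ e s ≤ ∏ s, (K * d ^ p s) ^ e s := by
    refine Finset.prod_le_prod (fun s _ => pow_nonneg (hx0 s) _) fun s _ => ?_
    by_cases hs : s < k
    · exact pow_le_pow_left₀ (hx0 s) (hx s hs) _
    · rw [M.low k e he s (not_lt.mp hs), pow_zero, pow_zero]
  refine h1.trans ?_
  have h2 : ∏ s, (K * d ^ p s) ^ e s = K ^ (∑ s, e s) * d ^ (∑ s, (e s : ℝ) * p s) := by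
    rw [← Finset.prod_pow_eq_pow_sum]
    rw [Real.rpow_sum_of_pos hd, ← Finset.prod_mul_distrib]
    refine Finset.prod_congr rfl fun s _ => ?_
    rw [mul_pow, ← Real.rpow_natCast (d ^ p s), ← Real.rpow_mul hd.le, mul_comm (p s)]
  rw [h2]
  exact mul_le_mul_of_nonneg_left
    (Real.rpow_le_rpow_of_exponent_ge hd hd1 (hp.wall k e he)) (pow_nonneg hK _)

/-- size of the error term, `K ≥ 1` -/
lemma err_le {M : Mons m} {p : Fin m → ℝ} (hp : Legal M p) {d : ℝ} (hd : 0 < d) (hd1 : d ≤ 1)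
    (k : Fin m) {K C : ℝ} (hC : 0 ≤ C) (hK : 1 ≤ K) {x : Fin m → ℝ}
    (hx0 : ∀ s, 0 ≤ x s) (hx : ∀ s, s < k → x s ≤ K * d ^ p s) :
    C * ∑ e ∈ M.mon k, ∏ s, x s ^ e s ≤ C * M.cnt * K ^ M.deg * d ^ p k := by
  have hK0 : 0 ≤ K := by linarith
  have h1 : ∑ e ∈ M.mon k, ∏ s, x s ^ e s ≤ ∑ _e ∈ M.mon k, K ^ M.deg * d ^ p k := by
    refine Finset.sum_le_sum fun e he => ?_
    refine (mono_le hp hd hd1 he hK0 hx0 hx).trans ?_
    exact mul_le_mul_of_nonneg_right (pow_le_pow_right₀ hK (M.deg_le he))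
      (Real.rpow_nonneg hd.le _)
  rw [Finset.sum_const, nsmul_eq_mul] at h1
  have h2 : ((M.mon k).card : ℝ) ≤ M.cnt := by
    have : (M.mon k).card ≤ M.cnt :=
      Finset.single_le_sum (f := fun k => (M.mon k).card) (fun _ _ => Nat.zero_le _)
        (Finset.mem_univ k)
    exact_mod_cast this
  have h3 : 0 ≤ K ^ M.deg * d ^ p k := mul_nonneg (pow_nonneg hK0 _) (Real.rpow_nonneg hd.le _)
  calc C * ∑ e ∈ M.mon k, ∏ s, x s ^ e s
      ≤ C * ((M.mon k).card * (K ^ M.deg * d ^ p k)) := mul_le_mul_of_nonneg_left h1 hC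
    _ ≤ C * (M.cnt * (K ^ M.deg * d ^ p k)) :=
        mul_le_mul_of_nonneg_left (mul_le_mul_of_nonneg_right h2 h3) hC
    _ = _ := by ring

/-- size of the error term, `θ ≤ 1` -/
lemma err_le_small {M : Mons m} {p : Fin m → ℝ} (hp : Legal M p) {d : ℝ} (hd : 0 < d)
    (hd1 : d ≤ 1) (k : Fin m) {θ C : ℝ} (hC : 0 ≤ C) (hθ0 : 0 ≤ θ) (hθ : θ ≤ 1) {x : Fin m → ℝ}
    (hx0 : ∀ s, 0 ≤ x s) (hx : ∀ s, s < k → x s ≤ θ * d ^ p s) :
    C * ∑ e ∈ M.mon k, ∏ s, x s ^ e s ≤ C * M.cnt * θ * d ^ p k := by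
  have h1 : ∑ e ∈ M.mon k, ∏ s, x s ^ e s ≤ ∑ _e ∈ M.mon k, θ * d ^ p k := by
    refine Finset.sum_le_sum fun e he => ?_
    refine (mono_le hp hd hd1 he hθ0 hx0 hx).trans ?_
    refine mul_le_mul_of_nonneg_right ?_ (Real.rpow_nonneg hd.le _)
    calc θ ^ (∑ s, e s) ≤ θ ^ 1 := pow_le_pow_of_le_one hθ0 hθ (M.one_le he)
      _ = θ := pow_one θ
  rw [Finset.sum_const, nsmul_eq_mul] at h1
  have h2 : ((M.mon k).card : ℝ) ≤ M.cnt := by
    have : (M.mon k).card ≤ M.cnt :=
      Finset.single_le_sum (f := fun k => (M.mon k).card) (fun _ _ => Nat.zero_le _)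
        (Finset.mem_univ k)
    exact_mod_cast this
  have h3 : 0 ≤ θ * d ^ p k := mul_nonneg hθ0 (Real.rpow_nonneg hd.le _)
  calc C * ∑ e ∈ M.mon k, ∏ s, x s ^ e s
      ≤ C * ((M.mon k).card * (θ * d ^ p k)) := mul_le_mul_of_nonneg_left h1 hC
    _ ≤ C * (M.cnt * (θ * d ^ p k)) :=
        mul_le_mul_of_nonneg_left (mul_le_mul_of_nonneg_right h2 h3) hC
    _ = _ := by ring

section

variable {ι : Type*} {I : Finset ι} {co : ι → ι → Fin m → ℝ} {M : Mons m} {C : ℝ}

/-- the quasi-triangle constant -/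
def triC (M : Mons m) (C K : ℝ) : ℝ := 2 * K + C * M.cnt * K ^ M.deg

/-- **quasi-triangle inequality** -/
theorem Chart.tri (h : Chart I co M C) {p : Fin m → ℝ} (hp : Legal M p) {d : ℝ} (hd : 0 < d)
    (hd1 : d ≤ 1) {K : ℝ} (hK : 1 ≤ K) {i j l : ι} (hi : i ∈ I) (hj : j ∈ I) (hl : l ∈ I)
    (h1 : Near co d p K i j) (h2 : Near co d p K j l) : Near co d p (triC M C K) i l := by
  intro k
  have h3 := h.add i hi j hj l hl k
  have h4 := err_le hp hd hd1 k h.C0 hK (x := fun s => max |co i j s| |co j l s|)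
    (fun s => (abs_nonneg _).trans (le_max_left _ _)) (fun s _ => max_le (h1 s) (h2 s))
  have h5 := h1 k
  have h6 := h2 k
  have e : co i l k = (co i l k - co i j k - co j l k) + co i j k + co j l k := by ring
  rw [e]
  have a1 := abs_add_le (co i l k - co i j k - co j l k + co i j k) (co j l k)
  have a2 := abs_add_le (co i l k - co i j k - co j l k) (co i j k)
  have : triC M C K * d ^ p k = K * d ^ p k + K * d ^ p k + C * M.cnt * K ^ M.deg * d ^ p k := by
    unfold triC; ring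
  linarith

/-- iterated constants for the symmetry -/
def symC (M : Mons m) (C K : ℝ) : ℕ → ℝ
  | 0 => K
  | n + 1 => K + C * M.cnt * symC M C K n ^ M.deg

lemma symC_ge (M : Mons m) {C K : ℝ} (hC : 0 ≤ C) (hK : 1 ≤ K) (n : ℕ) : K ≤ symC M C K n := by
  cases n with
  | zero => exact le_rfl
  | succ n =>
    have : ∀ n, 0 ≤ symC M C K n := by
      intro n
      induction n with
      | zero => exact le_trans zero_le_one hK
      | succ n ih =>
        have : 0 ≤ C * M.cnt * symC M C K n ^ M.deg := by positivity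
        simp only [symC]; linarith
    have : 0 ≤ C * M.cnt * symC M C K n ^ M.deg := by
      have := this n
      positivity
    simp only [symC]; linarith

lemma symC_mono (M : Mons m) {C K : ℝ} (hC : 0 ≤ C) (hK : 1 ≤ K) (n : ℕ) :
    symC M C K n ≤ symC M C K (n + 1) := by
  induction n with
  | zero => exact symC_ge M hC hK 1
  | succ n ih =>
    have h0 : 0 ≤ symC M C K n := by linarith [symC_ge M hC hK n]
    have : C * M.cnt * symC M C K n ^ M.deg ≤ C * M.cnt * symC M C K (n + 1) ^ M.deg :=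
      mul_le_mul_of_nonneg_left (pow_le_pow_left₀ h0 ih _) (by positivity)
    change K + C * M.cnt * symC M C K n ^ M.deg ≤ K + C * M.cnt * symC M C K (n + 1) ^ M.deg
    linarith

/-- **symmetry** -/
theorem Chart.symm (h : Chart I co M C) {p : Fin m → ℝ} (hp : Legal M p) {d : ℝ} (hd : 0 < d)
    (hd1 : d ≤ 1) {K : ℝ} (hK : 1 ≤ K) {i j : ι} (hi : i ∈ I) (hj : j ∈ I)
    (h1 : Near co d p K i j) : Near co d p (symC M C K m) j i := by
  have key : ∀ n : ℕ, ∀ s : Fin m, s.val < n → |co j i s| ≤ symC M C K n * d ^ p s := by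
    intro n
    induction n with
    | zero => intro s hs; exact absurd hs (Nat.not_lt_zero _)
    | succ n ih =>
      intro s hs
      rcases Nat.lt_or_ge s.val n with hlt | hge
      · exact (ih s hlt).trans (mul_le_mul_of_nonneg_right (symC_mono M h.C0 hK n)
          (Real.rpow_nonneg hd.le _))
      · have hsn : s.val = n := by omega
        have h3 := h.add i hi j hj i hi s
        rw [h.refl i hi s] at h3
        have hKn := symC_ge M h.C0 hK n
        have h4 := err_le hp hd hd1 s h.C0 (hK.trans hKn)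
          (x := fun s => max |co i j s| |co j i s|)
          (fun s => (abs_nonneg _).trans (le_max_left _ _)) (fun t ht => by
            refine max_le ?_ (ih t ?_)
            · exact (h1 t).trans (mul_le_mul_of_nonneg_right hKn (Real.rpow_nonneg hd.le _))
            · have : t.val < s.val := ht
              omega)
        have h5 := h1 s
        have e : co j i s = -(0 - co i j s - co j i s) - co i j s := by ring
        rw [e]
        have a1 := abs_sub (-(0 - co i j s - co j i s)) (co i j s)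
        rw [abs_neg] at a1
        have : symC M C K (n + 1) * d ^ p s =
            K * d ^ p s + C * M.cnt * symC M C K n ^ M.deg * d ^ p s := by
          simp only [symC]; ring
        linarith
  exact fun k => key m k k.isLt

end

end Crest.Agent.R136.Net191
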