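import Mathlib
import Crest.Agent.R136.MkF_627
import Crest.Agent.R136.ExR_779
import Crest.Agent.R136.Net1_191
import Crest.Agent.R138.Rot_76

/-!
# R136: triangular slots (helper627), part 1

The flag of a plank of `ℝ³` has three slots `E = 21`, `F_b = 32`, `F_a = 31`, and the distance in the
last one satisfies the triangle inequality only up to the product of the first two.  `TDist` =
pseudo-distances with the triangular structure `Net191.Mons` (the monomials of slot `k` involve earlier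
slots only).

`exRotT` : own rotation function of slot `k`, below a cap given by the earlier slots (port of
`ExR_779.exRotA`).
-/

set_option autoImplicit false
set_option linter.unusedVariables false
set_option linter.unusedSectionVars false

open Finset Filter Topology

namespace Crest.Agent.R136.TD627

open Crest.Agent.R138.Ex926
open Crest.Agent.R138.Dp76
open Crest.Agent.R138.Ps926
open Crest.Agent.R138.Mk163 (zc zl rho alive own Negl)
open Crest.Agent.R138.MkRef774 (pl nu nu_pos)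
open Crest.Agent.R138.NatTw76 (exists_avoid)
open Crest.Agent.R138.TiltU51 (zc_nest)
open Crest.Agent.R138.Rot76 (exists_seq_dense al nu_eq)
open Crest.Agent.R136.MkA627
open Crest.Agent.R136.ExR779 (line_cell)
open Crest.Agent.R136.Net191 (Mons)

/-- triangular pseudo-distances -/
structure TDist (φ : Type*) (m : ℕ) where
  M : Mons m
  d : Fin m → ℕ → φ → φ → ℝ
  K : ℝ
  K1 : 1 ≤ K
  nn : ∀ j n a b, 0 ≤ d j n a b
  self : ∀ j n a, d j n a a = 0
  sym : ∀ j n a b, d j n b a ≤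
    K * (d j n a b + ∑ e ∈ M.mon j, ∏ s, (max (d s n a b) (d s n b a)) ^ e s)
  tri : ∀ j n a b c, d j n a c ≤
    K * (d j n a b + d j n b c + ∑ e ∈ M.mon j, ∏ s, (max (d s n a b) (d s n b c)) ^ e s)

/-- triangular distances from the coordinates of a chart (`Net191.Chart.add` for all flags). -/
def TDist.ofChart {φ : Type*} {m : ℕ} (M : Mons m) (co : ℕ → φ → φ → Fin m → ℝ) (C : ℝ)
    (hC : 0 ≤ C) (refl : ∀ n a k, co n a a k = 0)
    (add : ∀ n a b c k, |co n a c k - co n a b k - co n b c k| ≤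
      C * ∑ e ∈ M.mon k, ∏ s, (max |co n a b s| |co n b c s|) ^ e s) : TDist φ m where
  M := M
  d := fun j n a b => |co n a b j|
  K := 1 + C
  K1 := by linarith
  nn := fun j n a b => abs_nonneg _
  self := fun j n a => by rw [refl, abs_zero]
  sym := fun j n a b => by
    have h := add n a b a j
    rw [refl] at h
    have hS : 0 ≤ ∑ e ∈ M.mon j, ∏ s, (max |co n a b s| |co n b a s|) ^ e s :=
      Finset.sum_nonneg fun e _ => Finset.prod_nonneg fun s _ =>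
        pow_nonneg ((abs_nonneg _).trans (le_max_left _ _)) _
    have h1 : |co n b a j| ≤ |0 - co n a b j - co n b a j| + |co n a b j| := by
      have e1 : co n b a j = -(0 - co n a b j - co n b a j) - co n a b j := by ring
      calc |co n b a j| = |-(0 - co n a b j - co n b a j) - co n a b j| := by rw [← e1]
        _ ≤ |-(0 - co n a b j - co n b a j)| + |co n a b j| := abs_sub _ _
        _ = _ := by rw [abs_neg]
    have h2 := abs_nonneg (co n a b j)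
    nlinarith [mul_nonneg hC h2]
  tri := fun j n a b c => by
    have h := add n a b c j
    have hS : 0 ≤ ∑ e ∈ M.mon j, ∏ s, (max |co n a b s| |co n b c s|) ^ e s :=
      Finset.sum_nonneg fun e _ => Finset.prod_nonneg fun s _ =>
        pow_nonneg ((abs_nonneg _).trans (le_max_left _ _)) _
    have h1 : |co n a c j| ≤ |co n a c j - co n a b j - co n b c j| +
        (|co n a b j| + |co n b c j|) := by
      have e1 : co n a c j = (co n a c j - co n a b j - co n b c j) + (co n a b j + co n b c j) := by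
        ring
      calc |co n a c j| = |(co n a c j - co n a b j - co n b c j) + (co n a b j + co n b c j)| := by
            rw [← e1]
        _ ≤ |co n a c j - co n a b j - co n b c j| + |co n a b j + co n b c j| := abs_add_le _ _
        _ ≤ _ := by have := abs_add_le (co n a b j) (co n b c j); linarith
    have h2 := abs_nonneg (co n a b j)
    have h3 := abs_nonneg (co n b c j)
    nlinarith [mul_nonneg hC h2, mul_nonneg hC h3]

section dist

variable {φ : Type*} {m : ℕ} (P : TDist φ m)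

/-- number of monomials of the slot `k` -/
def TDist.cn (k : Fin m) : ℝ := ((P.M.mon k).card : ℝ)

theorem TDist.cn_nonneg (k : Fin m) : 0 ≤ P.cn k := Nat.cast_nonneg _

/-- the product terms with one bound `T s` for the earlier slots -/
theorem sum_le {M : Mons m} {k : Fin m} {x T : Fin m → ℝ} {X : ℝ} (hx : ∀ s, 0 ≤ x s)
    (hT : ∀ e ∈ M.mon k, ∀ s, e s ≠ 0 → x s ≤ T s)
    (hX : ∀ e ∈ M.mon k, ∏ s, T s ^ e s ≤ X) :
    ∑ e ∈ M.mon k, ∏ s, x s ^ e s ≤ ((M.mon k).card : ℝ) * X := by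
  calc ∑ e ∈ M.mon k, ∏ s, x s ^ e s ≤ ∑ e ∈ M.mon k, X := by
        refine Finset.sum_le_sum fun e he => le_trans ?_ (hX e he)
        refine Finset.prod_le_prod (fun s _ => pow_nonneg (hx s) _) fun s _ => ?_
        by_cases h : e s = 0
        · rw [h, pow_zero, pow_zero]
        · exact pow_le_pow_left₀ (hx s) (hT e he s h) _
    _ = _ := by rw [Finset.sum_const, nsmul_eq_mul]

/-- triangle inequality with bounded products -/
theorem TDist.tri_le {k : Fin m} {n : ℕ} {a b c : φ} {T : Fin m → ℝ} {X Y : ℝ}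
    (hab : ∀ e ∈ P.M.mon k, ∀ s, e s ≠ 0 → P.d s n a b ≤ T s)
    (hbc : ∀ e ∈ P.M.mon k, ∀ s, e s ≠ 0 → P.d s n b c ≤ T s)
    (hX : ∀ e ∈ P.M.mon k, ∏ s, T s ^ e s ≤ X) (h1 : P.d k n a b ≤ Y) (h2 : P.d k n b c ≤ Y) :
    P.d k n a c ≤ P.K * (2 * Y + P.cn k * X) := by
  refine (P.tri k n a b c).trans (mul_le_mul_of_nonneg_left ?_ (zero_le_one.trans P.K1))
  have := sum_le (M := P.M) (k := k) (x := fun s => max (P.d s n a b) (P.d s n b c)) (T := T)
    (fun s => (P.nn s n a b).trans (le_max_left _ _))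
    (fun e he s hs => max_le (hab e he s hs) (hbc e he s hs)) hX
  unfold TDist.cn
  linarith

/-- symmetry with bounded products -/
theorem TDist.sym_le {k : Fin m} {n : ℕ} {a b : φ} {T : Fin m → ℝ} {X Y : ℝ}
    (hab : ∀ e ∈ P.M.mon k, ∀ s, e s ≠ 0 → P.d s n a b ≤ T s)
    (hba : ∀ e ∈ P.M.mon k, ∀ s, e s ≠ 0 → P.d s n b a ≤ T s)
    (hX : ∀ e ∈ P.M.mon k, ∏ s, T s ^ e s ≤ X) (h1 : P.d k n a b ≤ Y) :
    P.d k n b a ≤ P.K * (Y + P.cn k * X) := by
  refine (P.sym k n a b).trans (mul_le_mul_of_nonneg_left ?_ (zero_le_one.trans P.K1))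
  have := sum_le (M := P.M) (k := k) (x := fun s => max (P.d s n a b) (P.d s n b a)) (T := T)
    (fun s => (P.nn s n a b).trans (le_max_left _ _))
    (fun e he s hs => max_le (hab e he s hs) (hba e he s hs)) hX
  unfold TDist.cn
  linarith

end dist

variable {σ κ φ : Type*} {m : ℕ}

/-- own rotation of the slot `k`, below the cap `cap` -/
structure RotFT (P : TDist φ m) (B : Base) (I : ℕ → Finset (ℕ × ℝ)) (lev : ℕ → ℚ → ℕ) (k : Fin m)
    (fl : ℕ → ℕ × ℝ → φ) (sc : ℕ → ℝ) (C0 : ℝ) (cap R : ℝ → ℝ) : Prop where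
  scpos : ∀ n, 0 < sc n
  bd : ∀ u : ℝ, 0 ≤ u → u ≤ 1 → 0 ≤ R u ∧ R u ≤ C0
  mono : MonotoneOn R (Set.Icc 0 1)
  /-- all flags of one line in one cell of level `u` agree up to `sc d^(R u)` -/
  rot : ∀ u : ℚ, 0 ≤ u → u ≤ 1 → ∀ ε : ℝ, 0 < ε → ∀ᶠ n in (U : Filter ℕ), ∀ x ∈ I n, ∀ y ∈ I n,
    y.1 = x.1 → zc (lev n u) y.2 = zc (lev n u) x.2 →
      P.d k n (fl n x) (fl n y) ≤ sc n * B.d n ^ (R u - ε)
  /-- ... and not to a smaller scale, if the earlier slots do not forbid it -/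
  tw : ∀ u : ℚ, 0 ≤ u → u < 1 → R u < cap u → ∀ r : ℝ, R u < r → r ≤ C0 → ∃ γ : ℝ, 0 < γ ∧
    ∀ᶠ n in (U : Filter ℕ), ∀ x ∈ I n,
      ((((I n).filter fun y => y.1 = x.1 ∧ zc (lev n u) y.2 = zc (lev n u) x.2 ∧
          P.d k n (fl n x) (fl n y) ≤ sc n * B.d n ^ r).card : ℕ) : ℝ) ≤
        B.d n ^ γ * ((own (I n) (lev n u) (lev n 1) x).card : ℝ)

/-- the earlier slots allow every precision below `cap` in the slot `k` -/
def CapOK (P : TDist φ m) (B : Base) (I : ℕ → Finset (ℕ × ℝ)) (lev : ℕ → ℚ → ℕ) (k : Fin m)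
    (fl : ℕ → ℕ × ℝ → φ) (sc : ℕ → ℝ) (cap : ℝ → ℝ) : Prop :=
  ∀ u : ℚ, 0 ≤ u → u ≤ 1 → ∀ r : ℝ, r < cap u → ∃ T : Fin m → ℕ → ℝ, ∀ᶠ n in (U : Filter ℕ),
    (∀ e ∈ P.M.mon k, ∀ s, e s ≠ 0 → ∀ x ∈ I n, ∀ y ∈ I n, y.1 = x.1 →
      zc (lev n u) y.2 = zc (lev n u) x.2 → P.d s n (fl n x) (fl n y) ≤ T s n) ∧
    ∀ e ∈ P.M.mon k, ∏ s, T s n ^ e s ≤ sc n * B.d n ^ r

theorem CapOK.dense {P : TDist φ m} {B : Base} {I J : ℕ → Finset (ℕ × ℝ)} {lev : ℕ → ℚ → ℕ}
    {k : Fin m} {fl : ℕ → ℕ × ℝ → φ} {sc : ℕ → ℝ} {cap : ℝ → ℝ}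
    (h : CapOK P B I lev k fl sc cap) (hd : Dense B J I) : CapOK P B J lev k fl sc cap := by
  intro u h0 h1 r hr
  obtain ⟨T, hT⟩ := h u h0 h1 r hr
  refine ⟨T, ?_⟩
  filter_upwards [hT, hd.1] with n a1 a2
  exact ⟨fun e he s hs x hx y hy => a1.1 e he s hs x (a2 hx) y (a2 hy), a1.2⟩

section main

variable {P : TDist φ m} {B : Base} {I : ℕ → Finset (ℕ × ℝ)} {G : Geo σ κ}
    {lev : ℕ → ℚ → ℕ} {A : ℕ → ℝ} {c Λ : ℝ → ℝ} {τ : κ → ℝ → ℝ} {f : ℕ → ℚ → ℕ → ℤ → ℕ}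
    {b : ℕ → ℚ → ℕ → σ} {vm : ℕ → ℚ → ℝ} {w : κ → ℕ → ℚ → ℝ} {fl : ℕ → ℕ × ℝ → φ} {sc : ℕ → ℝ}
    {sl : Fin m} {cap : ℝ → ℝ}

open Classical in
/-- incidences of `J` in the cell of `x` whose flags agree with the flag of `x` up to `sc d^r` -/
noncomputable def cnt (P : TDist φ m) (sl : Fin m) (B : Base) (lev : ℕ → ℚ → ℕ)
    (fl : ℕ → ℕ × ℝ → φ) (sc : ℕ → ℝ) (u r : ℚ)
    (n : ℕ) (J : Finset (ℕ × ℝ)) (x : ℕ × ℝ) : ℕ :=
  ((cls J (pl (lev n u)) x).filter fun y =>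
    P.d sl n (fl n x) (fl n y) ≤ sc n * B.d n ^ (r : ℝ)).card

/-- the largest such number -/
noncomputable def Phi (P : TDist φ m) (sl : Fin m) (B : Base) (lev : ℕ → ℚ → ℕ)
    (fl : ℕ → ℕ × ℝ → φ) (sc : ℕ → ℝ) (u r : ℚ)
    (n : ℕ) (J : Finset (ℕ × ℝ)) : ℝ := ((J.sup (cnt P sl B lev fl sc u r n J) : ℕ) : ℝ)

theorem cnt_le_Phi {u r : ℚ} {n : ℕ} {J : Finset (ℕ × ℝ)} {x : ℕ × ℝ} (hx : x ∈ J) :
    (cnt P sl B lev fl sc u r n J x : ℝ) ≤ Phi P sl B lev fl sc u r n J := by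
  unfold Phi
  exact_mod_cast Finset.le_sup (f := cnt P sl B lev fl sc u r n J) hx

theorem Phi_le {u r : ℚ} {n : ℕ} {J : Finset (ℕ × ℝ)} {X : ℝ} (hX : 0 ≤ X)
    (h : ∀ x ∈ J, (cnt P sl B lev fl sc u r n J x : ℝ) ≤ X) : Phi P sl B lev fl sc u r n J ≤ X := by
  unfold Phi
  rcases J.eq_empty_or_nonempty with h0 | h0
  · subst h0; simpa using hX
  · obtain ⟨x, hx, hx2⟩ := Finset.exists_mem_eq_sup J h0 (cnt P sl B lev fl sc u r n J)
    rw [hx2]
    exact h x hx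

theorem cnt_mono {u r : ℚ} {n : ℕ} {J J' : Finset (ℕ × ℝ)} (h : J ⊆ J') (x : ℕ × ℝ) :
    cnt P sl B lev fl sc u r n J x ≤ cnt P sl B lev fl sc u r n J' x := by
  classical
  unfold cnt
  refine card_le_card fun y hy => ?_
  rw [mem_filter, mem_cls] at hy ⊢
  exact ⟨⟨h hy.1.1, hy.1.2⟩, hy.2⟩

theorem cnt_le_cls {u r : ℚ} {n : ℕ} {J : Finset (ℕ × ℝ)} (x : ℕ × ℝ) :
    cnt P sl B lev fl sc u r n J x ≤ (cls J (pl (lev n u)) x).card := by
  classical
  unfold cnt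
  exact card_le_card (filter_subset _ _)

theorem one_le_cnt {u r : ℚ} {n : ℕ} {J : Finset (ℕ × ℝ)} (hsc : ∀ n, 0 < sc n) {x : ℕ × ℝ}
    (hx : x ∈ J) : 1 ≤ cnt P sl B lev fl sc u r n J x := by
  classical
  unfold cnt
  refine card_pos.2 ⟨x, mem_filter.2 ⟨?_, ?_⟩⟩
  · rw [mem_cls]; exact ⟨hx, rfl⟩
  · rw [P.self]
    exact (mul_pos (hsc n) (dpow_pos B n _)).le

theorem monoF_Phi (hM : MkA B I G lev A c Λ τ f b vm w) (hsc : ∀ n, 0 < sc n) (u r : ℚ) :
    MonoF B I (fun n J => Phi P sl B lev fl sc u r n J) := by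
  classical
  refine ⟨Eventually.of_forall fun n J J' hJ h h2 => ?_, 2, ?_⟩
  · refine Phi_le ?_ fun x hx => ?_
    · unfold Phi; positivity
    · refine le_trans ?_ (cnt_le_Phi (h hx))
      exact_mod_cast cnt_mono h x
  · filter_upwards [line_cell hM (v := 0) le_rfl (by norm_num) one_pos, hM.cell0]
      with n h1 h0 J hJ hJI
    constructor
    · obtain ⟨x, hx⟩ := hJ
      have a1 : (1 : ℝ) ≤ cnt P sl B lev fl sc u r n J x := by exact_mod_cast one_le_cnt hsc hx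
      exact (dpow_le_one B n (by norm_num)).trans (a1.trans (cnt_le_Phi hx))
    · refine Phi_le (dpow_pos B n _).le fun x hx => ?_
      have a1 : (cnt P sl B lev fl sc u r n J x : ℝ) ≤ ((cls (I n) (pl (lev n 0)) x).card : ℝ) := by
        have a2 : cnt P sl B lev fl sc u r n J x ≤ (cls (I n) (pl (lev n 0)) x).card := by
          refine (cnt_le_cls x).trans (card_le_card fun y hy => ?_)
          rw [mem_cls] at hy ⊢
          refine ⟨hJI hy.1, Prod.ext (congrArg Prod.fst hy.2 : _) ?_⟩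
          exact h0 y (hJI hy.1) x (hJI hx)
        exact_mod_cast a2
      refine a1.trans ((h1 x (hJI hx)).2.trans ?_)
      unfold nu
      rw [← dpow_add]
      apply dpow_le B n
      have := (hM.lam 0 1 le_rfl zero_le_one le_rfl).1
      push_cast
      linarith

theorem pb_Phi (hM : MkA B I G lev A c Λ τ f b vm w) (hsc : ∀ n, 0 < sc n) (u r : ℚ) :
    B.PB (fun n => Phi P sl B lev fl sc u r n (I n)) :=
  (monoF_Phi hM hsc u r).pb (Eventually.of_forall fun n => Finset.Subset.refl _) hM.ne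

theorem ex_Phi_le (hM : MkA B I G lev A c Λ τ f b vm w) (hsc : ∀ n, 0 < sc n) {u r : ℚ}
    (h0 : 0 ≤ u) (h1 : u ≤ 1) : B.ex (fun n => Phi P sl B lev fl sc u r n (I n)) ≤ al Λ u := by
  refine le_of_forall_pos_le_add fun ε hε => ?_
  have h2 : B.ex (fun n => B.d n ^ (-(al Λ u + ε))) = al Λ u + ε := by
    rw [Base.ex_dpow]; ring
  rw [← h2]
  refine Base.ex_le (pb_Phi hM hsc u r) (Base.PB.dpow _) ?_
  filter_upwards [line_cell hM h0 h1 hε] with n hn
  refine Phi_le (dpow_pos B n _).le fun x hx => ?_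
  have a1 : (cnt P sl B lev fl sc u r n (I n) x : ℝ) ≤ ((cls (I n) (pl (lev n u)) x).card : ℝ) := by
    exact_mod_cast cnt_le_cls x
  refine a1.trans ((hn x hx).2.trans ?_)
  rw [nu_eq, ← dpow_add]
  apply le_of_eq
  congr 1
  ring

theorem ex_Phi_zero (hM : MkA B I G lev A c Λ τ f b vm w) (hsc : ∀ n, 0 < sc n)
    (hline : ∀ᶠ n in (U : Filter ℕ), ∀ x ∈ I n, ∀ y ∈ I n, y.1 = x.1 →
      P.d sl n (fl n x) (fl n y) ≤ sc n) :
    B.ex (fun n => Phi P sl B lev fl sc 0 0 n (I n)) = al Λ 0 := by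
  classical
  refine le_antisymm (ex_Phi_le hM hsc le_rfl (by norm_num)) ?_
  refine le_of_forall_pos_le_add fun ε hε => ?_
  have h2 : B.ex (fun n => B.d n ^ (-(al Λ 0 - ε))) = al Λ 0 - ε := by
    rw [Base.ex_dpow]; ring
  have h3 : B.ex (fun n => B.d n ^ (-(al Λ 0 - ε))) ≤
      B.ex (fun n => Phi P sl B lev fl sc 0 0 n (I n)) := by
    refine Base.ex_le (Base.PB.dpow _) (pb_Phi hM hsc 0 0) ?_
    filter_upwards [line_cell hM (v := 0) le_rfl (by norm_num) hε, hline, hM.ne]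
      with n hn hl hne
    obtain ⟨x, hx⟩ := hne
    refine le_trans ?_ (cnt_le_Phi hx)
    have a1 : cnt P sl B lev fl sc 0 0 n (I n) x = (cls (I n) (pl (lev n 0)) x).card := by
      unfold cnt
      congr 1
      refine filter_true_of_mem fun y hy => ?_
      rw [mem_cls] at hy
      have := hl x hx y hy.1 (congrArg Prod.fst hy.2 : _)
      simpa using this
    rw [a1]
    refine le_trans ?_ (hn x hx).1
    rw [nu_eq, ← dpow_add]
    apply le_of_eq
    congr 1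
    ring
  linarith

/-- the constant of the selection step -/
noncomputable def K3 (P : TDist φ m) (sl : Fin m) : ℝ := P.K * (2 * (P.K * (1 + P.cn sl)) + P.cn sl)

theorem K3_pos : 0 < K3 P sl := by
  have h1 := P.K1
  have h2 := P.cn_nonneg sl
  unfold K3
  positivity

/-- **selection of one flag cell per line and cell of level `u`.** -/
theorem good_step (hM : MkA B I G lev A c Λ τ f b vm w) (hsc : ∀ n, 0 < sc n)
    (hcap : CapOK P B I lev sl fl sc cap) {u r : ℚ}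
    (h0 : 0 ≤ u) (h1 : u ≤ 1) (hr : (r : ℝ) < cap u)
    (hst : StableF B (fun n J => Phi P sl B lev fl sc u r n J) I)
    (hφ : B.ex (fun n => Phi P sl B lev fl sc u r n (I n)) = al Λ u)
    {K : ℕ → Finset (ℕ × ℝ)} (hK : Dense B K I) :
    ∃ K' : ℕ → Finset (ℕ × ℝ), Dense B K' K ∧ ∀ᶠ n in (U : Filter ℕ), ∀ x ∈ K' n, ∀ y ∈ K' n,
      pl (lev n u) y = pl (lev n u) x →
        P.d sl n (fl n x) (fl n y) ≤ K3 P sl * (sc n * B.d n ^ (r : ℝ)) := by
  classical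
  obtain ⟨K1, hK1d, hK1⟩ := MkA.refine hM hK
  have hK1I : Dense B K1 I := hK1d.trans hK
  have hst1 : StableF B (fun n J => Phi P sl B lev fl sc u r n J) K1 := hst.dense hK1I
  have hφ1 : B.ex (fun n => Phi P sl B lev fl sc u r n (K1 n)) = al Λ u := (hst K1 hK1I).trans hφ
  obtain ⟨mem, hmem⟩ : ∃ mem : ∀ n : ℕ, ℝ → ℕ × ℝ → ℕ × ℝ → Prop, ∀ n a s y, mem n a s y ↔
      (s ∈ I n ∧ pl (lev n u) s = pl (lev n u) y ∧
        P.d sl n (fl n s) (fl n y) ≤ sc n * B.d n ^ a) := ⟨_, fun _ _ _ _ => Iff.rfl⟩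
  have hbad : ∀ c : ℝ, 0 < c → ∀ᶠ n in (U : Filter ℕ),
      B.d n ^ c * ((K1 n).card : ℝ) <
        ((bad B (fun n => pl (lev n u)) mem K1 (r : ℝ) c n).card : ℝ) := by
    intro c hc
    set N : ℕ → Finset (ℕ × ℝ) := fun n => (K1 n).filter fun x =>
      (cnt P sl B lev fl sc u r n (K1 n) x : ℝ) ≤ B.d n ^ c * ((cls (K1 n) (pl (lev n u)) x).card : ℝ)
      with hN
    have hnd : ¬ Dense B N K1 := by
      refine hst1.not_dense_of_le (monoF_Phi hK1 hsc u r) hK1.ne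
        (X := fun n => B.d n ^ (-(al Λ u - c / 2))) (Base.PB.dpow _) ?_ ?_
      · rw [Base.ex_dpow, hφ1]; linarith
      · filter_upwards [line_cell hK1 h0 h1 (half_pos hc)] with n hn hne
        refine Phi_le (dpow_pos B n _).le fun x hx => ?_
        obtain ⟨hx1, hx2⟩ := mem_filter.1 hx
        have a1 : (cnt P sl B lev fl sc u r n (N n) x : ℝ) ≤ cnt P sl B lev fl sc u r n (K1 n) x := by
          exact_mod_cast cnt_mono (filter_subset _ _) x
        refine a1.trans (hx2.trans ?_)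
        have a2 := mul_le_mul_of_nonneg_left (hn x hx1).2 (dpow_pos B n c).le
        refine a2.trans ?_
        rw [nu_eq, ← dpow_add, ← dpow_add]
        apply le_of_eq
        congr 1
        ring
    obtain ⟨c', hc', hsmall⟩ := small_of_not_dense
      (Eventually.of_forall fun n => filter_subset _ _) hnd
    filter_upwards [hsmall, dpow_small B hc' (ε := 1 / 2) (by norm_num),
      dpow_small B hc (ε := 1 / 2) (by norm_num), hK1I.1, hK1.ne] with n hs a1 a2 hsub hne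
    have hpos : (0 : ℝ) < (K1 n).card := by exact_mod_cast card_pos.2 hne
    have a3 : ((N n).card : ℝ) < 1 / 2 * (K1 n).card :=
      hs.trans_le (mul_le_mul_of_nonneg_right a1.le hpos.le)
    have a4 : ((K1 n \ N n).card : ℝ) = (K1 n).card - (N n).card := by
      rw [card_sdiff_of_subset (filter_subset _ _), Nat.cast_sub (card_le_card (filter_subset _ _))]
    have a5 : K1 n \ N n ⊆ bad B (fun n => pl (lev n u)) mem K1 (r : ℝ) c n := by
      intro x hx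
      rw [Finset.mem_sdiff] at hx
      obtain ⟨hx1, hx2⟩ := hx
      have hx3 : B.d n ^ c * ((cls (K1 n) (pl (lev n u)) x).card : ℝ) <
          (cnt P sl B lev fl sc u r n (K1 n) x : ℝ) := by
        by_contra hcon
        exact hx2 (mem_filter.2 ⟨hx1, not_lt.1 hcon⟩)
      unfold bad
      rw [Finset.mem_filter]
      refine ⟨hx1, x, hx3.trans_le ?_⟩
      unfold cnt
      refine Nat.cast_le.2 (card_le_card fun y hy => ?_)
      rw [Finset.mem_filter] at hy ⊢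
      exact ⟨hy.1, (hmem n _ x y).2 ⟨hsub hx1, (mem_cls.1 hy.1).2.symm, hy.2⟩⟩
    have a6 : ((K1 n \ N n).card : ℝ) ≤
        ((bad B (fun n => pl (lev n u)) mem K1 (r : ℝ) c n).card : ℝ) := by
      exact_mod_cast card_le_card a5
    have a7 : B.d n ^ c * ((K1 n).card : ℝ) ≤ 1 / 2 * (K1 n).card :=
      mul_le_mul_of_nonneg_right a2.le hpos.le
    linarith
  obtain ⟨K', hK'd, hK'⟩ := exists_of_bad (g := fun n => pl (lev n u)) (mem := mem) (J := K1)
    (a := (r : ℝ)) hbad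
  obtain ⟨T, hT⟩ := hcap u h0 h1 r hr
  refine ⟨K', hK'd.trans hK1d, ?_⟩
  filter_upwards [hK', (hK'd.trans hK1I).1, hT] with n hn hsub hTn x hx y hy hxy
  obtain ⟨s, hs⟩ := hn x hx
  have b1 := (hmem n _ s x).1 (hs x (mem_cls.2 ⟨hx, rfl⟩))
  have b2 := (hmem n _ s y).1 (hs y (mem_cls.2 ⟨hy, hxy⟩))
  have hpx : (s.1, zc (lev n u) s.2) = (x.1, zc (lev n u) x.2) := b1.2.1
  have hpy : (s.1, zc (lev n u) s.2) = (y.1, zc (lev n u) y.2) := b2.2.1
  have hsx1 : s.1 = x.1 := (Prod.mk.inj hpx).1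
  have hsx2 : zc (lev n u) s.2 = zc (lev n u) x.2 := (Prod.mk.inj hpx).2
  have hsy1 : s.1 = y.1 := (Prod.mk.inj hpy).1
  have hsy2 : zc (lev n u) s.2 = zc (lev n u) y.2 := (Prod.mk.inj hpy).2
  have c1 : P.d sl n (fl n x) (fl n s) ≤
      P.K * (sc n * B.d n ^ (r : ℝ) + P.cn sl * (sc n * B.d n ^ (r : ℝ))) :=
    P.sym_le (fun e he t ht => hTn.1 e he t ht s b1.1 x (hsub hx) hsx1.symm hsx2.symm)
      (fun e he t ht => hTn.1 e he t ht x (hsub hx) s b1.1 hsx1 hsx2) hTn.2 b1.2.2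
  have hpos : 0 ≤ sc n * B.d n ^ (r : ℝ) := (mul_pos (hsc n) (dpow_pos B n _)).le
  have hK := P.K1
  have hcn := P.cn_nonneg sl
  have c2 : P.d sl n (fl n s) (fl n y) ≤
      P.K * (sc n * B.d n ^ (r : ℝ) + P.cn sl * (sc n * B.d n ^ (r : ℝ))) := by
    refine b2.2.2.trans ?_
    have h1 : 0 ≤ P.cn sl * (sc n * B.d n ^ (r : ℝ)) := mul_nonneg hcn hpos
    nlinarith
  have c3 := P.tri_le (fun e he t ht => hTn.1 e he t ht x (hsub hx) s b1.1 hsx1 hsx2)
    (fun e he t ht => hTn.1 e he t ht s b1.1 y (hsub hy) hsy1.symm hsy2.symm) hTn.2 c1 c2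
  refine c3.trans (le_of_eq ?_)
  unfold K3
  ring

end main

open Classical in
/-- **existence of the own rotation function of the slot `sl`, below the cap.** -/
theorem exRotT {P : TDist φ m} {B : Base} {I : ℕ → Finset (ℕ × ℝ)} {G : Geo σ κ}
    {lev : ℕ → ℚ → ℕ} {A : ℕ → ℝ} {c Λ : ℝ → ℝ} {τ : κ → ℝ → ℝ} {f : ℕ → ℚ → ℕ → ℤ → ℕ}
    {b : ℕ → ℚ → ℕ → σ} {vm : ℕ → ℚ → ℝ} {w : κ → ℕ → ℚ → ℝ} {fl : ℕ → ℕ × ℝ → φ} {sc : ℕ → ℝ}
    {sl : Fin m} {cap : ℝ → ℝ} {C0 : ℝ} (hM : MkA B I G lev A c Λ τ f b vm w)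
    (hsc : ∀ n, 0 < sc n) (hC0 : 0 ≤ C0) (hcap : CapOK P B I lev sl fl sc cap)
    (hcap0 : 0 < cap 0) (hcapm : MonotoneOn cap (Set.Icc 0 1))
    (hneg : Negl B I fun n x => ∃ y ∈ I n, y.1 = x.1 ∧ sc n < P.d sl n (fl n x) (fl n y)) :
    ∃ (J : ℕ → Finset (ℕ × ℝ)) (R : ℝ → ℝ), Dense B J I ∧ MkA B J G lev A c Λ τ f b vm w ∧
      RotFT P B J lev sl fl sc C0 cap R ∧ ∀ u : ℝ, 0 ≤ u → u ≤ 1 → R u ≤ cap u := by
  classical
  -- one flag scale per line
  obtain ⟨J0, hJ0I, hJ0d, hJ0⟩ := exists_avoid (B := B) (I := I)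
    (fun _ n x => ∃ y ∈ I n, y.1 = x.1 ∧ sc n < P.d sl n (fl n x) (fl n y)) (fun _ => hneg)
  obtain ⟨J1, hJ1d, hJ1⟩ := MkA.refine hM hJ0d
  have hJ1I : Dense B J1 I := hJ1d.trans hJ0d
  have hline1 : ∀ᶠ n in (U : Filter ℕ), ∀ x ∈ J1 n, ∀ y ∈ J1 n, y.1 = x.1 →
      P.d sl n (fl n x) (fl n y) ≤ sc n := by
    filter_upwards [hJ0 0, hJ1d.1, hJ1I.1] with n a1 a2 a3 x hx y hy hxy
    by_contra hcon
    exact a1 x (a2 hx) ⟨y, a3 hy, hxy, not_le.1 hcon⟩
  -- stable part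
  obtain ⟨en, hen⟩ := exists_surjective_nat (ℚ × ℚ)
  obtain ⟨J2, hJ2d, hJ2s⟩ := exists_stableF (B := B) hJ1.ne
    (fun j n J => Phi P sl B lev fl sc (en j).1 (en j).2 n J)
    (fun j => monoF_Phi hJ1 hsc (en j).1 (en j).2)
  obtain ⟨X, hXd, hX⟩ := MkA.refine hJ1 hJ2d
  have hXJ1 : Dense B X J1 := hXd.trans hJ2d
  have hXI : Dense B X I := hXJ1.trans hJ1I
  have hcapX : CapOK P B X lev sl fl sc cap := hcap.dense hXI
  have hst : ∀ u r : ℚ, StableF B (fun n J => Phi P sl B lev fl sc u r n J) X := by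
    intro u r
    obtain ⟨j, hj⟩ := hen (u, r)
    have h1 := hJ2s j
    rw [hj] at h1
    exact h1.dense hXd
  have hlineX : ∀ᶠ n in (U : Filter ℕ), ∀ x ∈ X n, ∀ y ∈ X n, y.1 = x.1 →
      P.d sl n (fl n x) (fl n y) ≤ sc n := by
    filter_upwards [hline1, hXJ1.1] with n a1 a2 x hx y hy hxy using a1 x (a2 hx) y (a2 hy) hxy
  set φ' : ℚ → ℚ → ℝ := fun u r => B.ex (fun n => Phi P sl B lev fl sc u r n (X n)) with hφ
  -- all good pairs at once
  obtain ⟨J3, hJ3d, hJ3⟩ := exists_seq_dense (B := B) (I := X)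
    (fun j n K => (0 ≤ (en j).1 ∧ (en j).1 ≤ 1 ∧ (((en j).2 : ℚ) : ℝ) < cap ((en j).1 : ℚ) ∧
        φ' (en j).1 (en j).2 = al Λ (en j).1) →
      ∀ x ∈ K, ∀ y ∈ K, pl (lev n (en j).1) y = pl (lev n (en j).1) x →
        P.d sl n (fl n x) (fl n y) ≤ K3 P sl * (sc n * B.d n ^ (((en j).2 : ℚ) : ℝ)))
    (fun j n K K' hKK h hg x hx y hy hxy => h hg x (hKK hx) y (hKK hy) hxy)
    (by
      intro j K hK
      by_cases hg : 0 ≤ (en j).1 ∧ (en j).1 ≤ 1 ∧ (((en j).2 : ℚ) : ℝ) < cap ((en j).1 : ℚ) ∧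
        φ' (en j).1 (en j).2 = al Λ (en j).1
      · obtain ⟨K', h1, h2⟩ := good_step (P := P) (sl := sl) (fl := fl) hX hsc hcapX hg.1 hg.2.1
          hg.2.2.1 (hst _ _) hg.2.2.2 hK
        exact ⟨K', h1, by filter_upwards [h2] with n hn _ using hn⟩
      · exact ⟨K, Dense.refl B K, Eventually.of_forall fun n h => absurd h hg⟩)
  obtain ⟨J, hJd, hJ⟩ := MkA.refine hX hJ3d
  have hJX : Dense B J X := hJd.trans hJ3d
  -- the rotation function
  set S : ℝ → Set ℝ := fun x => {y : ℝ | ∃ p r : ℚ, 0 ≤ p ∧ (p : ℝ) ≤ x ∧ p ≤ 1 ∧ 0 ≤ r ∧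
    (r : ℝ) ≤ C0 ∧ (r : ℝ) < cap p ∧ φ' p r = al Λ p ∧ y = (r : ℝ)} with hS
  have hSb : ∀ x, BddAbove (S x) := fun x => ⟨C0, by
    rintro y ⟨p, r, -, -, -, -, hr, -, -, rfl⟩; exact hr⟩
  have hS0 : ∀ x : ℝ, 0 ≤ x → (0 : ℝ) ∈ S x := by
    intro x hx
    refine ⟨0, 0, le_rfl, by simpa using hx, by norm_num, le_rfl, by simpa using hC0,
      by simpa using hcap0, ?_, by simp⟩
    exact ex_Phi_zero hX hsc hlineX
  refine ⟨J, fun x => sSup (S x), hJX.trans hXI, hJ, ⟨hsc, ?_, ?_, ?_, ?_⟩, ?_⟩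
  · intro u h0 h1
    exact ⟨le_csSup (hSb u) (hS0 u h0), csSup_le ⟨0, hS0 u h0⟩ (by
      rintro y ⟨p, r, -, -, -, -, hr, -, -, rfl⟩; exact hr)⟩
  · intro x hx y hy hxy
    refine csSup_le_csSup (hSb y) ⟨0, hS0 x hx.1⟩ ?_
    rintro z ⟨p, r, h1, h2, h3⟩
    exact ⟨p, r, h1, h2.trans hxy, h3⟩
  · intro u h0 h1 ε hε
    obtain ⟨y, hy, hy2⟩ := exists_lt_of_lt_csSup ⟨0, hS0 u (by exact_mod_cast h0)⟩
      (show sSup (S u) - ε / 2 < sSup (S u) by linarith)
    obtain ⟨p, r, hp0, hpu, hp1, hr0, hrC, hrcap, hgood, rfl⟩ := hy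
    obtain ⟨j, hj⟩ := hen (p, r)
    have h3 := hJ3 j
    rw [hj] at h3
    have hpu' : p ≤ u := by exact_mod_cast hpu
    filter_upwards [h3, hJd.1, hX.lev_mono p u hp0 hpu' h1,
      dpow_small B (half_pos hε) (ε := 1 / K3 P sl) (by have := K3_pos (P := P) (sl := sl); positivity)]
      with n a1 a2 a3 a4 x hx z hz hzx hzc
    have b1 := a1 ⟨hp0, hp1, hrcap, hgood⟩ x (a2 hx) z (a2 hz) (Prod.ext hzx (zc_nest a3 hzc))
    refine b1.trans ?_
    have b2 : B.d n ^ (r : ℝ) ≤ B.d n ^ (ε / 2) * B.d n ^ (sSup (S u) - ε) := by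
      rw [← dpow_add]
      apply dpow_le B n
      linarith
    have b3 := dpow_pos B n (sSup (S u) - ε)
    have b4 : B.d n ^ (ε / 2) * B.d n ^ (sSup (S u) - ε) ≤
        1 / K3 P sl * B.d n ^ (sSup (S u) - ε) := mul_le_mul_of_nonneg_right a4.le b3.le
    have b5 := mul_le_mul_of_nonneg_left (b2.trans b4) (hsc n).le
    have hK := K3_pos (P := P) (sl := sl)
    calc K3 P sl * (sc n * B.d n ^ (r : ℝ))
        ≤ K3 P sl * (sc n * (1 / K3 P sl * B.d n ^ (sSup (S u) - ε))) :=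
          mul_le_mul_of_nonneg_left b5 hK.le
      _ = sc n * B.d n ^ (sSup (S u) - ε) := by field_simp
  · intro u h0 h1 hRcap r hr hrC
    obtain ⟨r', hr1, hr2⟩ := exists_rat_btwn (lt_min hr hRcap)
    have hr2a : (r' : ℝ) < r := hr2.trans_le (min_le_left _ _)
    have hr2b : (r' : ℝ) < cap u := hr2.trans_le (min_le_right _ _)
    have hu0 : (0 : ℝ) ≤ u := by exact_mod_cast h0
    have hR0 : 0 ≤ sSup (S u) := le_csSup (hSb u) (hS0 u hu0)
    have hne : φ' u r' ≠ al Λ u := by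
      intro hcon
      have : (r' : ℝ) ∈ S u := by
        refine ⟨u, r', h0, le_rfl, h1.le, ?_, (hr2a.le).trans hrC, hr2b, hcon, rfl⟩
        have h2 : (0 : ℝ) < (r' : ℝ) := lt_of_le_of_lt hR0 hr1
        exact_mod_cast h2.le
      exact absurd (le_csSup (hSb u) this) (not_le.2 hr1)
    have hlt : φ' u r' < al Λ u :=
      lt_of_le_of_ne (ex_Phi_le hX hsc h0 h1.le) hne
    set γ : ℝ := (al Λ u - φ' u r') / 4 with hγ
    have hγ0 : 0 < γ := by rw [hγ]; linarith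
    refine ⟨γ, hγ0, ?_⟩
    have h5 : ∀ᶠ n in (U : Filter ℕ), Phi P sl B lev fl sc u r' n (X n) < B.d n ^ (-(φ' u r' + γ)) :=
      Base.ex_lt_iff_dpow (pb_Phi hX hsc u r') (by
        show B.ex (fun n => Phi P sl B lev fl sc u r' n (X n)) < φ' u r' + γ
        have : B.ex (fun n => Phi P sl B lev fl sc u r' n (X n)) = φ' u r' := rfl
        rw [this]; linarith)
    filter_upwards [h5, hJX.1, hJ.own u 1 h0 h1.le le_rfl γ hγ0] with n a1 a2 a3 x hx
    have b1 : ((((J n).filter fun y => y.1 = x.1 ∧ zc (lev n u) y.2 = zc (lev n u) x.2 ∧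
          P.d sl n (fl n x) (fl n y) ≤ sc n * B.d n ^ r).card : ℕ) : ℝ) ≤
        (cnt P sl B lev fl sc u r' n (X n) x : ℝ) := by
      have : ((J n).filter fun y => y.1 = x.1 ∧ zc (lev n u) y.2 = zc (lev n u) x.2 ∧
          P.d sl n (fl n x) (fl n y) ≤ sc n * B.d n ^ r) ⊆
          (cls (X n) (pl (lev n u)) x).filter fun y =>
            P.d sl n (fl n x) (fl n y) ≤ sc n * B.d n ^ (r' : ℝ) := by
        intro y hy
        obtain ⟨hy1, hy2, hy3, hy4⟩ := mem_filter.1 hy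
        refine mem_filter.2 ⟨mem_cls.2 ⟨a2 hy1, Prod.ext hy2 hy3⟩, hy4.trans ?_⟩
        exact mul_le_mul_of_nonneg_left (dpow_le B n hr2a.le) (hsc n).le
      unfold cnt
      exact_mod_cast card_le_card this
    have b2 := (b1.trans (cnt_le_Phi (a2 hx))).trans a1.le
    have b3 := (a3 x hx).1
    refine b2.trans ?_
    have b4 := mul_le_mul_of_nonneg_left b3 (dpow_pos B n γ).le
    refine le_trans ?_ b4
    rw [← dpow_add]
    apply dpow_le B n
    have e1 : al Λ u = (1 - (u : ℝ)) - (Λ 1 - Λ u) := rfl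
    push_cast
    linarith
  · intro u h0 h1
    refine csSup_le ⟨0, hS0 u h0⟩ ?_
    rintro y ⟨p, r, hp0, hpu, hp1, -, -, hrcap, -, rfl⟩
    refine hrcap.le.trans ?_
    exact hcapm ⟨by exact_mod_cast hp0, by exact_mod_cast hp1⟩ ⟨h0, h1⟩ hpu

end Crest.Agent.R136.TD627
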