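import Mathlib
import Crest.Agent.R136.TD1_627
import Crest.Agent.R136.Slt3_627

/-!
# R136: triangular slots (helper627), part 2

`TSys` : marked sequence with linear exponents, one composite flag `fl n x` per incidence, triangular
distances `P : TDist φ m`, scales `sc j`, rates `β j`.

The flags of the marks of level `v` are functions `fr n v x` of the incidence (e.g. `frA lev f e n v x`,
or a flag re-centred at the height of `x`).

* `NearE` : agreement of two families of flags in every slot, `NearE.symm`, `NearE.trans`;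
* `TSys.same_cell` : the flags of one line in one cell of level `u` agree in every slot up to
  `sc d^(β u - ε)`;
* `TSys.zoom` : zoom at every point of `(0,1)`.
-/

set_option autoImplicit false
set_option linter.unusedVariables false
set_option linter.unusedSectionVars false

open Finset Filter Topology

namespace Crest.Agent.R136.TD627

open Crest.Agent.R138.Ex926 (Base U exists_diag)
open Crest.Agent.R138.Dp76
open Crest.Agent.R138.Ps926
open Crest.Agent.R138.Mk163 (zc zl rho alive own Negl)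
open Crest.Agent.R138.MkPoint627 (exists_affine)
open Crest.Agent.R138.MkZoom779 (Fq Fq_mem ev_mem_Fq zero_mem_Fq)
open Crest.Agent.R138.NatTw76 (exists_avoid)
open Crest.Agent.R136.MkA627
open Crest.Agent.R136.ZoomA102 (zoomA)
open Crest.Agent.R136.Net191 (Mons)
open Crest.Agent.R136.Slt627 (log_dpow log_sc eq_exp)

variable {σ κ φ : Type*} {m : ℕ}

/-- slot data of a marked sequence with linear exponents, triangular slots. -/
structure TSys (P : TDist φ m) (G : Geo σ κ) (g s : ℝ) (θ : κ → ℝ) (β : Fin m → ℝ)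
    (B : Base) (I : ℕ → Finset (ℕ × ℝ)) (lev : ℕ → ℚ → ℕ) (A : ℕ → ℝ)
    (f : ℕ → ℚ → ℕ → ℤ → ℕ) (b : ℕ → ℚ → ℕ → σ) (vm : ℕ → ℚ → ℝ) (w : κ → ℕ → ℚ → ℝ)
    (fr : ℕ → ℚ → ℕ × ℝ → φ) (pr : Fin m → ℕ → ℚ → ℝ) (fl : ℕ → ℕ × ℝ → φ) (sc : Fin m → ℕ → ℝ) :
    Prop where
  mka : MkA B I G lev A (fun v => g * v) (fun v => s * v) (fun j v => θ j * (1 - v)) f b vm w
  scpos : ∀ j n, 0 < sc j n
  prpos : ∀ j, ∀ v : ℚ, 0 ≤ v → v ≤ 1 → ∀ᶠ n in (U : Filter ℕ), 0 < pr j n v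
  /-- precision of the marks = `sc d^(β v)` -/
  prc : ∀ j, ∀ v : ℚ, 0 ≤ v → v ≤ 1 →
    Tendsto (fun n => Real.log (sc j n / pr j n v) / B.L n) U (𝓝 (β j * v))
  /-- level-`v` flags of one line in one cell of level `v` agree up to the precision -/
  cell : ∀ j, ∀ v : ℚ, 0 ≤ v → v ≤ 1 → ∀ ε : ℝ, 0 < ε → ∀ᶠ n in (U : Filter ℕ), ∀ x ∈ I n,
    ∀ y ∈ I n, y.1 = x.1 → zc (lev n v) y.2 = zc (lev n v) x.2 →
      P.d j n (fr n v x) (fr n v y) ≤ pr j n v * B.d n ^ (-ε)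
  /-- flags and level-`v` flags agree up to the precision -/
  close : ∀ j, ∀ v : ℚ, 0 ≤ v → v ≤ 1 → ∀ ε : ℝ, 0 < ε → ∀ᶠ n in (U : Filter ℕ), ∀ x ∈ I n,
    P.d j n (fl n x) (fr n v x) ≤ pr j n v * B.d n ^ (-ε)
  /-- product rule of the precisions -/
  wpr : ∀ j, ∀ a ∈ P.M.mon j, ∀ v : ℚ, 0 ≤ v → v ≤ 1 → ∀ ε : ℝ, 0 < ε →
    ∀ᶠ n in (U : Filter ℕ), ∏ t, pr t n v ^ a t ≤ pr j n v * B.d n ^ (-ε)

/-- slack monomials are infinitely small -/
def Slack (P : TDist φ m) (β : Fin m → ℝ) (B : Base) (sc : Fin m → ℕ → ℝ) : Prop :=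
  ∀ j, ∀ a ∈ P.M.mon j, ∑ t, (a t : ℝ) * β t ≠ β j → ∀ M : ℝ, ∀ᶠ n in (U : Filter ℕ),
    ∏ t, sc t n ^ a t ≤ sc j n * B.d n ^ M

/-- the flags of one line agree to infinite order in the slot `j` -/
def InvT (P : TDist φ m) (B : Base) (I : ℕ → Finset (ℕ × ℝ)) (j : Fin m) (fl : ℕ → ℕ × ℝ → φ)
    (sc : ℕ → ℝ) : Prop :=
  ∀ M : ℝ, ∀ᶠ n in (U : Filter ℕ), ∀ x ∈ I n, ∀ y ∈ I n, y.1 = x.1 →
    P.d j n (fl n x) (fl n y) ≤ sc n * B.d n ^ M

theorem InvT.dense {P : TDist φ m} {B : Base} {I J : ℕ → Finset (ℕ × ℝ)} {j : Fin m}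
    {fl : ℕ → ℕ × ℝ → φ} {sc : ℕ → ℝ} (h : InvT P B I j fl sc) (hd : Dense B J I) :
    InvT P B J j fl sc := by
  intro M
  filter_upwards [h M, hd.1] with n a1 a2 x hx y hy using a1 x (a2 hx) y (a2 hy)

/-- products of scales with powers of `d` -/
theorem prod_dpow {B : Base} {sc : Fin m → ℕ → ℝ} (n : ℕ) (a : Fin m → ℕ) (r : Fin m → ℝ) :
    ∏ t, (sc t n * B.d n ^ (r t)) ^ a t = (∏ t, sc t n ^ a t) * B.d n ^ (∑ t, (a t : ℝ) * r t) := by
  rw [Real.rpow_sum_of_pos (B.pos n), ← Finset.prod_mul_distrib]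
  refine Finset.prod_congr rfl fun t _ => ?_
  rw [mul_pow, ← Real.rpow_natCast (B.d n ^ r t), ← Real.rpow_mul (B.pos n).le, mul_comm (r t)]

/-- a constant is absorbed by an arbitrarily small power -/
theorem ev_const (B : Base) {C ε : ℝ} (hC : 0 ≤ C) (hε : 0 < ε) :
    ∀ᶠ n in (U : Filter ℕ), ∀ S r : ℝ, 0 ≤ S → C * (S * B.d n ^ (r + ε)) ≤ S * B.d n ^ r := by
  filter_upwards [dpow_small B hε (ε := 1 / (C + 1)) (by positivity)] with n hn S r hS
  have h1 : C * B.d n ^ ε ≤ 1 := by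
    have h2 : (C + 1) * B.d n ^ ε ≤ 1 := by
      have := mul_le_mul_of_nonneg_left hn.le (show 0 ≤ C + 1 by positivity)
      rwa [mul_one_div_cancel (by positivity)] at this
    have := dpow_pos B n ε
    nlinarith
  rw [dpow_add]
  calc C * (S * (B.d n ^ r * B.d n ^ ε)) = (C * B.d n ^ ε) * (S * B.d n ^ r) := by ring
    _ ≤ 1 * (S * B.d n ^ r) := mul_le_mul_of_nonneg_right h1 (mul_nonneg hS (dpow_pos B n r).le)
    _ = _ := one_mul _

/-- degree bound -/
theorem sum_nat_le (M : Mons m) {j : Fin m} {a : Fin m → ℕ} (ha : a ∈ M.mon j) :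
    ∑ t, (a t : ℝ) ≤ (M.deg : ℝ) := by
  exact_mod_cast M.deg_le ha

/-- the monomials of `j` involve earlier slots only -/
theorem mon_lt (M : Mons m) {j : Fin m} {a : Fin m → ℕ} (ha : a ∈ M.mon j) {t : Fin m}
    (ht : a t ≠ 0) : t < j := by
  by_contra hcon
  exact ht (M.low j a ha t (not_lt.1 hcon))

/-! ### agreement of two families of flags -/

/-- `a n p` and `b n p` agree in every slot `j` up to `sc j d^(r j - ε)` -/
def NearE {ι : Type*} (P : TDist φ m) (B : Base) (sc : Fin m → ℕ → ℝ) (r : Fin m → ℝ)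
    (S : ℕ → ι → Prop) (a b : ℕ → ι → φ) : Prop :=
  ∀ j, ∀ ε : ℝ, 0 < ε → ∀ᶠ n in (U : Filter ℕ), ∀ p, S n p →
    P.d j n (a n p) (b n p) ≤ sc j n * B.d n ^ (r j - ε)

/-- walls: the product of the precisions of the earlier slots is at most the precision of `j` -/
def WallE (P : TDist φ m) (B : Base) (sc : Fin m → ℕ → ℝ) (r : Fin m → ℝ) : Prop :=
  ∀ j, ∀ a ∈ P.M.mon j, ∀ ε : ℝ, 0 < ε → ∀ᶠ n in (U : Filter ℕ),
    ∏ t, (sc t n * B.d n ^ (r t)) ^ a t ≤ sc j n * B.d n ^ (r j - ε)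

section near

variable {P : TDist φ m} {B : Base} {sc : Fin m → ℕ → ℝ} {r : Fin m → ℝ}

theorem WallE.fine (hw : WallE P B sc r) (hsc : ∀ j n, 0 < sc j n) (j : Fin m) {ε : ℝ}
    (hε : 0 < ε) : ∃ δ : ℝ, 0 < δ ∧ ∀ᶠ n in (U : Filter ℕ), ∀ a ∈ P.M.mon j,
        ∏ t, (sc t n * B.d n ^ (r t - δ)) ^ a t ≤ sc j n * B.d n ^ (r j - ε) := by
  have hdeg : (0 : ℝ) ≤ P.M.deg := Nat.cast_nonneg _
  refine ⟨ε / (2 * ((P.M.deg : ℝ) + 1)), by positivity, ?_⟩
  set δ : ℝ := ε / (2 * ((P.M.deg : ℝ) + 1)) with hδ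
  have hδ0 : 0 < δ := by rw [hδ]; positivity
  have hδ2 : (P.M.deg : ℝ) * δ ≤ ε / 2 := by
    rw [hδ, mul_div_assoc', div_le_div_iff₀ (by positivity) (by norm_num)]
    nlinarith
  rw [Filter.eventually_all_finset]
  intro a ha
  filter_upwards [hw j a ha (ε / 2) (by positivity)] with n hn
  rw [prod_dpow] at hn ⊢
  have e1 : ∑ t, (a t : ℝ) * (r t - δ) = ∑ t, (a t : ℝ) * r t + -((∑ t, (a t : ℝ)) * δ) := by
    rw [Finset.sum_mul, ← sub_eq_add_neg, ← Finset.sum_sub_distrib]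
    exact Finset.sum_congr rfl fun t _ => by ring
  have e2 := mul_le_mul_of_nonneg_right (sum_nat_le P.M ha) hδ0.le
  calc (∏ t, sc t n ^ a t) * B.d n ^ (∑ t, (a t : ℝ) * (r t - δ))
      = ((∏ t, sc t n ^ a t) * B.d n ^ (∑ t, (a t : ℝ) * r t)) *
          B.d n ^ (-((∑ t, (a t : ℝ)) * δ)) := by
        rw [e1, mul_assoc, ← dpow_add]
    _ ≤ (sc j n * B.d n ^ (r j - ε / 2)) * B.d n ^ (-((∑ t, (a t : ℝ)) * δ)) :=
        mul_le_mul_of_nonneg_right hn (dpow_pos B n _).le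
    _ = sc j n * B.d n ^ (r j - ε / 2 + -((∑ t, (a t : ℝ)) * δ)) := by
        rw [mul_assoc, ← dpow_add]
    _ ≤ _ := mul_le_mul_of_nonneg_left (dpow_le B n (by linarith)) (hsc j n).le

theorem NearE.mono {ι : Type*} {S S' : ℕ → ι → Prop} {a b : ℕ → ι → φ}
    (h : NearE P B sc r S a b) (hS : ∀ᶠ n in (U : Filter ℕ), ∀ p, S' n p → S n p) :
    NearE P B sc r S' a b := fun j ε hε => by
  filter_upwards [h j ε hε, hS] with n a1 a2 p hp using a1 p (a2 p hp)

/-- transitivity -/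
theorem NearE.trans {ι : Type*} {S : ℕ → ι → Prop} {a b c : ℕ → ι → φ}
    (hw : WallE P B sc r) (hsc : ∀ j n, 0 < sc j n)
    (h1 : NearE P B sc r S a b) (h2 : NearE P B sc r S b c) : NearE P B sc r S a c := by
  intro j ε hε
  obtain ⟨δ, hδ, hf⟩ := hw.fine hsc j (half_pos hε)
  have hup : ∀ᶠ n in (U : Filter ℕ), ∀ t : Fin m, ∀ p, S n p →
      P.d t n (a n p) (b n p) ≤ sc t n * B.d n ^ (r t - δ) ∧
      P.d t n (b n p) (c n p) ≤ sc t n * B.d n ^ (r t - δ) := by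
    rw [Filter.eventually_all]
    intro t
    filter_upwards [h1 t δ hδ, h2 t δ hδ] with n a1 a2 p hp using ⟨a1 p hp, a2 p hp⟩
  filter_upwards [hup, hf, h1 j _ (half_pos hε), h2 j _ (half_pos hε),
    ev_const B (C := P.K * (2 + P.cn j)) (ε := ε / 2)
      (mul_nonneg (zero_le_one.trans P.K1) (by have := P.cn_nonneg j; linarith)) (by positivity)]
    with n a1 a3 a4 a4' a5 p hp
  have b1 := P.tri_le (k := j) (n := n) (a := a n p) (b := b n p) (c := c n p)
    (T := fun t => sc t n * B.d n ^ (r t - δ))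
    (X := sc j n * B.d n ^ (r j - ε / 2)) (Y := sc j n * B.d n ^ (r j - ε / 2))
    (fun e he t ht => (a1 t p hp).1) (fun e he t ht => (a1 t p hp).2) a3 (a4 p hp) (a4' p hp)
  refine b1.trans ?_
  have b2 := a5 (sc j n) (r j - ε) (hsc j n).le
  have e1 : r j - ε + ε / 2 = r j - ε / 2 := by ring
  rw [e1] at b2
  refine le_trans (le_of_eq ?_) b2
  ring

/-- symmetry (slot by slot) -/
theorem NearE.symm {ι : Type*} {S : ℕ → ι → Prop} {a b : ℕ → ι → φ}
    (hw : WallE P B sc r) (hsc : ∀ j n, 0 < sc j n)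
    (h1 : NearE P B sc r S a b) : NearE P B sc r S b a := by
  have key : ∀ k : ℕ, ∀ j : Fin m, (j : ℕ) = k → ∀ ε : ℝ, 0 < ε → ∀ᶠ n in (U : Filter ℕ),
      ∀ p, S n p → P.d j n (b n p) (a n p) ≤ sc j n * B.d n ^ (r j - ε) := by
    intro k
    induction k using Nat.strong_induction_on with
    | _ k ih =>
      intro j hj ε hε
      obtain ⟨δ, hδ, hf⟩ := hw.fine hsc j (half_pos hε)
      have hlow : ∀ᶠ n in (U : Filter ℕ), ∀ t : Fin m, t < j → ∀ p, S n p →
          P.d t n (b n p) (a n p) ≤ sc t n * B.d n ^ (r t - δ) := by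
        rw [Filter.eventually_all]
        intro t
        by_cases ht : t < j
        · filter_upwards [ih t (by rw [← hj]; exact ht) t rfl δ hδ] with n hn _ using hn
        · exact Eventually.of_forall fun n h => absurd h ht
      have hup : ∀ᶠ n in (U : Filter ℕ), ∀ t : Fin m, ∀ p, S n p →
          P.d t n (a n p) (b n p) ≤ sc t n * B.d n ^ (r t - δ) := by
        rw [Filter.eventually_all]
        exact fun t => h1 t δ hδ
      filter_upwards [hlow, hup, hf, h1 j (ε / 2) (by positivity),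
        ev_const B (C := P.K * (1 + P.cn j)) (ε := ε / 2)
          (mul_nonneg (zero_le_one.trans P.K1) (by have := P.cn_nonneg j; linarith)) (by positivity)]
        with n a1 a2 a3 a4 a5 p hp
      have b1 := P.sym_le (k := j) (n := n) (a := a n p) (b := b n p)
        (T := fun t => sc t n * B.d n ^ (r t - δ))
        (X := sc j n * B.d n ^ (r j - ε / 2)) (Y := sc j n * B.d n ^ (r j - ε / 2))
        (fun e he t ht => a2 t p hp) (fun e he t ht => a1 t (mon_lt P.M he ht) p hp) a3 (a4 p hp)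
      refine b1.trans ?_
      have b2 := a5 (sc j n) (r j - ε) (hsc j n).le
      have e1 : r j - ε + ε / 2 = r j - ε / 2 := by ring
      rw [e1] at b2
      refine le_trans (le_of_eq ?_) b2
      ring
  exact fun j => key j j rfl

end near

section

variable {P : TDist φ m} {G : Geo σ κ} {g s : ℝ} {θ : κ → ℝ} {β : Fin m → ℝ}
    {B : Base} {I : ℕ → Finset (ℕ × ℝ)} {lev : ℕ → ℚ → ℕ} {A : ℕ → ℝ}
    {f : ℕ → ℚ → ℕ → ℤ → ℕ} {b : ℕ → ℚ → ℕ → σ} {vm : ℕ → ℚ → ℝ} {w : κ → ℕ → ℚ → ℝ}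
    {fr : ℕ → ℚ → ℕ × ℝ → φ} {pr : Fin m → ℕ → ℚ → ℝ} {fl : ℕ → ℕ × ℝ → φ} {sc : Fin m → ℕ → ℝ}

theorem TSys.dense (h : TSys P G g s θ β B I lev A f b vm w fr pr fl sc)
    {J : ℕ → Finset (ℕ × ℝ)} (hd : Dense B J I)
    (hJ : MkA B J G lev A (fun v => g * v) (fun v => s * v) (fun j v => θ j * (1 - v)) f b vm w) :
    TSys P G g s θ β B J lev A f b vm w fr pr fl sc where
  mka := hJ
  scpos := h.scpos
  prpos := h.prpos
  prc := h.prc
  cell := fun j v h0 h1 ε hε => by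
    filter_upwards [h.cell j v h0 h1 ε hε, hd.1] with n a1 a2 x hx y hy
    exact a1 x (a2 hx) y (a2 hy)
  close := fun j v h0 h1 ε hε => by
    filter_upwards [h.close j v h0 h1 ε hε, hd.1] with n a1 a2 x hx using a1 x (a2 hx)
  wpr := h.wpr

/-- the precision of level `v` against `sc d^(β v)`. -/
theorem TSys.pr_le (h : TSys P G g s θ β B I lev A f b vm w fr pr fl sc) (j : Fin m) {v : ℚ}
    (h0 : 0 ≤ v) (h1 : v ≤ 1) {ε : ℝ} (hε : 0 < ε) : ∀ᶠ n in (U : Filter ℕ),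
      pr j n v ≤ sc j n * B.d n ^ (β j * v - ε) ∧ sc j n * B.d n ^ (β j * v + ε) ≤ pr j n v := by
  filter_upwards [(Metric.tendsto_nhds.1 (h.prc j v h0 h1)) ε hε, h.prpos j v h0 h1] with n a1 a2
  rw [Real.dist_eq, abs_lt] at a1
  have e1 := eq_exp (B := B) (n := n) (h.scpos j n) a2
  constructor
  · rw [e1]
    exact mul_le_mul_of_nonneg_left (dpow_le B n (by linarith [a1.1])) (h.scpos j n).le
  · rw [e1]
    exact mul_le_mul_of_nonneg_left (dpow_le B n (by linarith [a1.2])) (h.scpos j n).le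

/-- the walls at level `v`. -/
theorem TSys.wall (h : TSys P G g s θ β B I lev A f b vm w fr pr fl sc) {v : ℚ}
    (h0 : 0 ≤ v) (h1 : v ≤ 1) : WallE P B sc (fun t => β t * v) := by
  intro j a ha ε hε
  have hdeg : (0 : ℝ) ≤ P.M.deg := Nat.cast_nonneg _
  set δ : ℝ := ε / (4 * ((P.M.deg : ℝ) + 1)) with hδ
  have hδ0 : 0 < δ := by rw [hδ]; positivity
  have hδ2 : (P.M.deg : ℝ) * δ ≤ ε / 4 := by
    rw [hδ, mul_div_assoc', div_le_div_iff₀ (by positivity) (by norm_num)]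
    nlinarith
  have hall : ∀ᶠ n in (U : Filter ℕ), ∀ t : Fin m, sc t n * B.d n ^ (β t * v + δ) ≤ pr t n v := by
    rw [Filter.eventually_all]
    intro t
    filter_upwards [h.pr_le t h0 h1 hδ0] with n hn using hn.2
  filter_upwards [hall, h.wpr j a ha v h0 h1 (ε / 4) (by positivity),
    h.pr_le j h0 h1 (ε := ε / 4) (by positivity)] with n a1 a2 a3
  have b1 : ∏ t, (sc t n * B.d n ^ (β t * v + δ)) ^ a t ≤ ∏ t, pr t n v ^ a t :=
    Finset.prod_le_prod (fun t _ => pow_nonneg (mul_pos (h.scpos t n) (dpow_pos B n _)).le _)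
      fun t _ => pow_le_pow_left₀ (mul_pos (h.scpos t n) (dpow_pos B n _)).le (a1 t) _
  have e2 := mul_le_mul_of_nonneg_right (sum_nat_le P.M ha) hδ0.le
  have b2 : (∏ t, (sc t n * B.d n ^ (β t * v)) ^ a t) * B.d n ^ ((∑ t, (a t : ℝ)) * δ) ≤
      sc j n * B.d n ^ (β j * v - ε / 2) := by
    have e1 : (∏ t, (sc t n * B.d n ^ (β t * v)) ^ a t) * B.d n ^ ((∑ t, (a t : ℝ)) * δ) =
        ∏ t, (sc t n * B.d n ^ (β t * v + δ)) ^ a t := by
      rw [prod_dpow, prod_dpow, mul_assoc, ← dpow_add]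
      congr 2
      rw [Finset.sum_mul, ← Finset.sum_add_distrib]
      exact Finset.sum_congr rfl fun t _ => by ring
    rw [e1]
    refine (b1.trans a2).trans ?_
    refine (mul_le_mul_of_nonneg_right a3.1 (dpow_pos B n _).le).trans (le_of_eq ?_)
    rw [mul_assoc, ← dpow_add]
    congr 2
    ring
  have b3 := mul_le_mul_of_nonneg_right b2 (dpow_pos B n (-((∑ t, (a t : ℝ)) * δ))).le
  have e3 : (∏ t, (sc t n * B.d n ^ (β t * v)) ^ a t) * B.d n ^ ((∑ t, (a t : ℝ)) * δ) *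
      B.d n ^ (-((∑ t, (a t : ℝ)) * δ)) = ∏ t, (sc t n * B.d n ^ (β t * v)) ^ a t := by
    rw [mul_assoc, ← dpow_add]
    simp
  rw [e3, mul_assoc, ← dpow_add] at b3
  refine b3.trans (mul_le_mul_of_nonneg_left (dpow_le B n ?_) (h.scpos j n).le)
  linarith

/-- the walls of the scales -/
theorem TSys.wsc (h : TSys P G g s θ β B I lev A f b vm w fr pr fl sc) (j : Fin m)
    (a : Fin m → ℕ) (ha : a ∈ P.M.mon j) (ε : ℝ) (hε : 0 < ε) :
    ∀ᶠ n in (U : Filter ℕ), ∏ t, sc t n ^ a t ≤ sc j n * B.d n ^ (-ε) := by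
  filter_upwards [h.wall (v := 0) le_rfl zero_le_one j a ha ε hε] with n hn
  simpa using hn

/-- closeness against `sc d^(β v)`. -/
theorem TSys.near (h : TSys P G g s θ β B I lev A f b vm w fr pr fl sc) {v : ℚ}
    (h0 : 0 ≤ v) (h1 : v ≤ 1) : NearE P B sc (fun t => β t * v) (fun n x => x ∈ I n) fl
      (fun n x => fr n v x) := by
  intro j ε hε
  filter_upwards [h.pr_le j h0 h1 (half_pos hε), h.close j v h0 h1 _ (half_pos hε)] with n a1 a2 x hx
  refine (a2 x hx).trans ?_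
  refine (mul_le_mul_of_nonneg_right a1.1 (dpow_pos B n _).le).trans (le_of_eq ?_)
  rw [mul_assoc, ← dpow_add]
  congr 2
  ring

/-- **the flags of one line in one cell of level `u` agree up to the precision of level `u`, in every
slot.** -/
theorem TSys.same_cell (h : TSys P G g s θ β B I lev A f b vm w fr pr fl sc) (j : Fin m) {u : ℚ}
    (h0 : 0 ≤ u) (h1 : u ≤ 1) {ε : ℝ} (hε : 0 < ε) : ∀ᶠ n in (U : Filter ℕ),
      ∀ x ∈ I n, ∀ y ∈ I n, y.1 = x.1 → zc (lev n u) y.2 = zc (lev n u) x.2 →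
        P.d j n (fl n x) (fl n y) ≤ sc j n * B.d n ^ (β j * u - ε) := by
  set S : ℕ → (ℕ × ℝ) × (ℕ × ℝ) → Prop := fun n p =>
    p.1 ∈ I n ∧ p.2 ∈ I n ∧ p.2.1 = p.1.1 ∧ zc (lev n u) p.2.2 = zc (lev n u) p.1.2 with hS
  have hw := h.wall h0 h1
  have hn := h.near h0 h1
  have hn' := hn.symm hw h.scpos
  have c1 : NearE P B sc (fun t => β t * u) S (fun n p => fl n p.1) (fun n p => fr n u p.1) :=
    fun j ε hε => by
      filter_upwards [hn j ε hε] with n a1 p hp using a1 p.1 hp.1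
  have c2 : NearE P B sc (fun t => β t * u) S (fun n p => fr n u p.1) (fun n p => fr n u p.2) := by
    intro j ε hε
    filter_upwards [h.pr_le j h0 h1 (half_pos hε), h.cell j u h0 h1 _ (half_pos hε)]
      with n a1 a2 p hp
    refine (a2 p.1 hp.1 p.2 hp.2.1 hp.2.2.1 hp.2.2.2).trans ?_
    refine (mul_le_mul_of_nonneg_right a1.1 (dpow_pos B n _).le).trans (le_of_eq ?_)
    rw [mul_assoc, ← dpow_add]
    congr 2
    ring
  have c3 : NearE P B sc (fun t => β t * u) S (fun n p => fr n u p.2) (fun n p => fl n p.2) :=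
    fun j ε hε => by
      filter_upwards [hn' j ε hε] with n a1 p hp using a1 p.2 hp.2.1
  have c4 := (c1.trans hw h.scpos c2).trans hw h.scpos c3
  filter_upwards [c4 j ε hε] with n a1 x hx y hy hxy hz
  exact a1 (x, y) ⟨hx, hy, hxy, hz⟩

/-- **zoom** at a point of `(0,1)`. -/
theorem TSys.zoom [Countable κ]
    (h : TSys P G g s θ β B I lev A f b vm w fr pr fl sc) {v0 : ℝ} (hv0 : 0 < v0) (hv1 : v0 < 1) :
    ∃ (η : ℕ → ℝ) (mm : ℕ → ℚ → ℚ), (∀ k, 0 < η k) ∧ (∀ k, η k ≤ 1) ∧ Tendsto η atTop (𝓝 0) ∧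
      (∀ k, ∀ x : ℚ, 0 ≤ x → x ≤ 1 → 0 ≤ mm k x ∧ mm k x ≤ 1) ∧
      (∀ k, ∀ x y : ℚ, (mm k y : ℝ) - mm k x = η k * ((y : ℝ) - x)) ∧
      (∀ x : ℚ, Tendsto (fun k => ((mm k x : ℚ) : ℝ)) atTop (𝓝 v0)) ∧
      ∃ s0 : ℕ → ℕ, Tendsto s0 U atTop ∧ ∀ t : ℕ → ℕ, Tendsto t U atTop →
        (∀ᶠ n in (U : Filter ℕ), t n ≤ s0 n) →
        ∃ (B' : Base) (I' : ℕ → Finset (ℕ × ℝ)) (A' : ℕ → ℝ),
          (∀ n, B'.d n = B.d n ^ η (t n)) ∧ (∀ n, I' n ⊆ I n) ∧
          TSys P G g s θ β B' I' (fun n x => lev n (mm (t n) x)) A'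
            (fun n x => f n (mm (t n) x)) (fun n x => b n (mm (t n) x))
            (fun n x => vm n (mm (t n) x)) (fun j n x => w j n (mm (t n) x))
            (fun n x => fr n (mm (t n) x)) (fun j n x => pr j n (mm (t n) x)) fl
            (fun j n => sc j n * B.d n ^ (β j * mm (t n) 0)) := by
  classical
  obtain ⟨η, mm, hη, hη1, hη0, hm, hmono, hq, hmv, hlim⟩ := exists_affine hv0 hv1
  have hq' : ∀ k, ∀ x y : ℚ, (mm k y : ℝ) - mm k x = η k * ((y : ℝ) - x) := by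
    intro k x y
    have := hq k x y
    rw [div_eq_iff (hη k).ne'] at this
    rw [this]; ring
  refine ⟨η, mm, hη, hη1, hη0, hm, hq', hmv, ?_⟩
  have hs01 : 0 ≤ s ∧ s ≤ 1 := by
    have := h.mka.lam 0 1 le_rfl zero_le_one le_rfl
    simpa using this
  obtain ⟨s1, hs1, hz⟩ := zoomA h.mka η mm (fun v => g * v) (fun v => s * v)
    (fun j v => θ j * (1 - v)) hη hη1 hm
    (fun x y _ hxy _ => Eventually.of_forall fun k => hmono k x y hxy)
    (fun x y _ _ _ => by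
      simp only [hq]
      exact tendsto_const_nhds)
    (fun x hx0 hx1 => by
      have e1 : ∀ k, (g * (mm k x : ℝ) - g * (mm k 0 : ℝ)) / η k = g * x := by
        intro k
        rw [← mul_sub, hq' k 0 x]
        have := (hη k).ne'
        push_cast
        field_simp
        ring
      simp only [e1]
      exact tendsto_const_nhds)
    (fun x hx0 hx1 => by
      have e1 : ∀ k, (s * (mm k x : ℝ) - s * (mm k 0 : ℝ)) / η k = s * x := by
        intro k
        rw [← mul_sub, hq' k 0 x]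
        have := (hη k).ne'
        push_cast
        field_simp
        ring
      simp only [e1]
      exact tendsto_const_nhds)
    (fun j x hx0 hx1 => by
      have e1 : ∀ k, (θ j * (1 - (mm k x : ℝ)) - θ j * (1 - (mm k 1 : ℝ))) / η k =
          θ j * (1 - x) := by
        intro k
        have e2 : θ j * (1 - (mm k x : ℝ)) - θ j * (1 - (mm k 1 : ℝ)) =
            θ j * ((mm k 1 : ℝ) - mm k x) := by ring
        rw [e2, hq' k x 1]
        have := (hη k).ne'
        push_cast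
        field_simp
      simp only [e1]
      exact tendsto_const_nhds)
    (fun u v hu huv hv => by
      have e1 : s * v - s * u = s * (v - u) := by ring
      rw [e1]
      exact ⟨mul_nonneg hs01.1 (by linarith), by nlinarith⟩)
    (by simp) (by simp) (by simp)
  -- slot properties on the diagonal
  have hkp : ∀ k : ℕ, (0 : ℝ) < η k / (k + 1) := fun k => div_pos (hη k) (by positivity)
  obtain ⟨s2, hs2, hs2'⟩ := exists_diag (fun k n => ∀ j : Fin m, (∀ x ∈ Fq k,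
    0 < pr j n (mm k x) ∧
    |Real.log (sc j n / pr j n (mm k x)) / B.L n - β j * (mm k x : ℝ)| ≤ η k / (k + 1) ∧
    (∀ p ∈ I n, P.d j n (fl n p) (fr n (mm k x) p) ≤
      pr j n (mm k x) * B.d n ^ (-(η k / (k + 1)))) ∧
    (∀ p ∈ I n, ∀ y ∈ I n, y.1 = p.1 → zc (lev n (mm k x)) y.2 = zc (lev n (mm k x)) p.2 →
      P.d j n (fr n (mm k x) p) (fr n (mm k x) y) ≤
        pr j n (mm k x) * B.d n ^ (-(η k / (k + 1)))) ∧
    ∀ a ∈ P.M.mon j, ∏ t, pr t n (mm k x) ^ a t ≤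
      pr j n (mm k x) * B.d n ^ (-(η k / (k + 1))))) (by
    intro k
    rw [Filter.eventually_all]
    intro j
    rw [Filter.eventually_all_finset]
    intro x hx
    obtain ⟨hx0, hx1⟩ := Fq_mem hx
    obtain ⟨hm0, hm1⟩ := hm k x hx0 hx1
    have ht := (Metric.tendsto_nhds.1 (h.prc j (mm k x) hm0 hm1)) _ (hkp k)
    have hwp : ∀ᶠ n in (U : Filter ℕ), ∀ a ∈ P.M.mon j, ∏ t, pr t n (mm k x) ^ a t ≤
        pr j n (mm k x) * B.d n ^ (-(η k / (k + 1))) := by
      rw [Filter.eventually_all_finset]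
      intro a ha
      exact h.wpr j a ha (mm k x) hm0 hm1 _ (hkp k)
    filter_upwards [h.prpos j (mm k x) hm0 hm1, ht, h.close j (mm k x) hm0 hm1 _ (hkp k),
      h.cell j (mm k x) hm0 hm1 _ (hkp k), hwp] with n a1 a2 a3 a4 a5
    rw [Real.dist_eq] at a2
    exact ⟨a1, a2.le, a3, a4, a5⟩)
  refine ⟨fun n => min (s1 n) (s2 n), ?_, fun t ht hts => ?_⟩
  · rw [tendsto_atTop]
    intro c
    filter_upwards [tendsto_atTop.1 hs1 c, tendsto_atTop.1 hs2 c] with n h1 h2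
    exact le_min h1 h2
  obtain ⟨B', I', A', hBd, hI', hMk⟩ := hz t ht (by
    filter_upwards [hts] with n hn using hn.trans (min_le_left _ _))
  have hQ := (hs2'.and hts).mono fun n hn => hn.1 (t n) (hn.2.trans (min_le_right _ _))
  have hFq : ∀ x : ℚ, 0 ≤ x → x ≤ 1 → ∀ᶠ n in (U : Filter ℕ), x ∈ Fq (t n) := fun x h0 h1 =>
    ht.eventually (ev_mem_Fq h0 h1)
  have hBL : ∀ n, B'.L n = η (t n) * B.L n := by
    intro n
    have : Real.log (B'.d n) = Real.log (B.d n ^ η (t n)) := by rw [hBd n]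
    rw [log_dpow] at this
    have h2 : B'.L n = - Real.log (B'.d n) := rfl
    rw [h2, this]; ring
  have hBp : ∀ n (y : ℝ), B'.d n ^ y = B.d n ^ (η (t n) * y) := by
    intro n y
    rw [hBd n, ← Real.rpow_mul (B.pos n).le]
  have htend : Tendsto (fun n => 1 / ((t n : ℝ) + 1)) U (𝓝 0) :=
    tendsto_one_div_add_atTop_nhds_zero_nat.comp ht
  have hsmall : ∀ ε : ℝ, 0 < ε → ∀ᶠ n in (U : Filter ℕ), η (t n) / ((t n : ℝ) + 1) ≤ η (t n) * ε := by
    intro ε hε
    filter_upwards [(Metric.tendsto_nhds.1 htend) ε hε] with n a3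
    rw [Real.dist_eq, sub_zero, abs_of_pos (by positivity)] at a3
    have e3 : η (t n) / ((t n : ℝ) + 1) = η (t n) * (1 / ((t n : ℝ) + 1)) := by ring
    rw [e3]
    exact mul_le_mul_of_nonneg_left a3.le (hη _).le
  refine ⟨B', I', A', hBd, hI', ⟨hMk, fun j n => mul_pos (h.scpos j n) (dpow_pos B n _), ?_, ?_, ?_,
    ?_, ?_⟩⟩
  · intro j v h0 h1
    filter_upwards [hQ, hFq v h0 h1] with n a1 a2 using (a1 j v a2).1
  · intro j v h0 h1
    rw [Metric.tendsto_nhds]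
    intro ε hε
    filter_upwards [hQ, hFq v h0 h1, (Metric.tendsto_nhds.1 htend) ε hε] with n a1 a2 a3
    obtain ⟨b1, b2, -⟩ := a1 j v a2
    have hL := B.L_pos n
    have hp := hη (t n)
    have hk1 : (0 : ℝ) < (t n : ℝ) + 1 := by positivity
    rw [Real.dist_eq] at a3 ⊢
    rw [sub_zero, abs_of_pos (by positivity)] at a3
    rw [log_sc (h.scpos j n) b1, hBL n]
    have e1 : (Real.log (sc j n / pr j n (mm (t n) v)) - β j * (mm (t n) 0 : ℝ) * B.L n) /
        (η (t n) * B.L n) - β j * v =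
        (Real.log (sc j n / pr j n (mm (t n) v)) / B.L n - β j * (mm (t n) v : ℝ)) / η (t n) := by
      have e2 : (mm (t n) v : ℝ) = mm (t n) 0 + η (t n) * v := by
        have := hq' (t n) 0 v
        push_cast at this
        linarith
      rw [e2]
      field_simp
      ring
    rw [e1, abs_div, abs_of_pos hp, div_lt_iff₀ hp]
    refine lt_of_le_of_lt b2 ?_
    rw [div_eq_mul_one_div, mul_comm ε]
    exact mul_lt_mul_of_pos_left a3 hp
  · intro j v h0 h1 ε hε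
    filter_upwards [hQ, hFq v h0 h1, hsmall ε hε] with n a1 a2 a3 p hp y hy hyp hz
    obtain ⟨b1, -, -, b4, -⟩ := a1 j v a2
    refine (b4 p (hI' n hp) y (hI' n hy) hyp hz).trans ?_
    rw [hBp]
    refine mul_le_mul_of_nonneg_left (dpow_le B n ?_) b1.le
    linarith
  · intro j v h0 h1 ε hε
    filter_upwards [hQ, hFq v h0 h1, hsmall ε hε] with n a1 a2 a3 p hp
    obtain ⟨b1, -, b3, -, -⟩ := a1 j v a2
    refine (b3 p (hI' n hp)).trans ?_
    rw [hBp]
    refine mul_le_mul_of_nonneg_left (dpow_le B n ?_) b1.le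
    linarith
  · intro j a ha v h0 h1 ε hε
    filter_upwards [hQ, hFq v h0 h1, hsmall ε hε] with n a1 a2 a3
    obtain ⟨b1, -, -, -, b5⟩ := a1 j v a2
    refine (b5 a ha).trans ?_
    rw [hBp]
    refine mul_le_mul_of_nonneg_left (dpow_le B n ?_) b1.le
    linarith

end

end Crest.Agent.R136.TD627
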