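import Mathlib
import Crest.Agent.R136.TD2_627

/-!
# R136: triangular slots (helper627), part 3

* `TSys.exists_rots` : own rotation functions of all free slots on one dense part (`Free` : every
  monomial of the slot is slack or contains an invisible slot);
* `TSys.exists_natT` : after finitely many zooms every slot is invisible, tied (own rotation exactly
  `β j u`, both directions) or capped by a monomial of visible slots.
-/

set_option autoImplicit false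
set_option linter.unusedVariables false
set_option linter.unusedSectionVars false

open Finset Filter Topology

namespace Crest.Agent.R136.TD627

open Crest.Agent.R138.Ex926 (Base U exists_diag)
open Crest.Agent.R138.Dp76
open Crest.Agent.R138.Ps926
open Crest.Agent.R138.Mk163 (zc zl rho alive own Negl)
open Crest.Agent.R136.MkA627
open Crest.Agent.R136.Net191 (Mons)
open Crest.Agent.R136.Slt627 (log_dpow log_sc eq_exp own_pos card_fibre)

variable {σ κ φ : Type*} {m : ℕ}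

/-- own rotation of the slot `k`, both directions -/
structure RotT (P : TDist φ m) (B : Base) (I : ℕ → Finset (ℕ × ℝ)) (lev : ℕ → ℚ → ℕ) (k : Fin m)
    (fl : ℕ → ℕ × ℝ → φ) (sc : ℕ → ℝ) (C0 : ℝ) (R : ℝ → ℝ) : Prop where
  scpos : ∀ n, 0 < sc n
  bd : ∀ u : ℝ, 0 ≤ u → u ≤ 1 → 0 ≤ R u ∧ R u ≤ C0
  mono : MonotoneOn R (Set.Icc 0 1)
  /-- all flags of one line in one cell of level `u` agree up to `sc d^(R u)` -/
  rot : ∀ u : ℚ, 0 ≤ u → u ≤ 1 → ∀ ε : ℝ, 0 < ε → ∀ᶠ n in (U : Filter ℕ), ∀ x ∈ I n, ∀ y ∈ I n,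
    y.1 = x.1 → zc (lev n u) y.2 = zc (lev n u) x.2 →
      P.d k n (fl n x) (fl n y) ≤ sc n * B.d n ^ (R u - ε)
  /-- ... and not to a smaller scale -/
  tw : ∀ u : ℚ, 0 ≤ u → u < 1 → ∀ r : ℝ, R u < r → r ≤ C0 → ∃ γ : ℝ, 0 < γ ∧
    ∀ᶠ n in (U : Filter ℕ), ∀ x ∈ I n,
      ((((I n).filter fun y => y.1 = x.1 ∧ zc (lev n u) y.2 = zc (lev n u) x.2 ∧
          P.d k n (fl n x) (fl n y) ≤ sc n * B.d n ^ r).card : ℕ) : ℝ) ≤
        B.d n ^ γ * ((own (I n) (lev n u) (lev n 1) x).card : ℝ)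

/-- the slot `j` is free: every monomial is slack or contains an invisible slot -/
def Free (P : TDist φ m) (β : Fin m → ℝ) (B : Base) (I : ℕ → Finset (ℕ × ℝ))
    (fl : ℕ → ℕ × ℝ → φ) (sc : Fin m → ℕ → ℝ) (j : Fin m) : Prop :=
  ∀ a ∈ P.M.mon j, ∑ t, (a t : ℝ) * β t ≠ β j ∨ ∃ t, a t ≠ 0 ∧ InvT P B I t fl (sc t)

theorem Free.dense {P : TDist φ m} {β : Fin m → ℝ} {B : Base} {I J : ℕ → Finset (ℕ × ℝ)}
    {fl : ℕ → ℕ × ℝ → φ} {sc : Fin m → ℕ → ℝ} {j : Fin m} (h : Free P β B I fl sc j)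
    (hd : Dense B J I) : Free P β B J fl sc j := by
  intro a ha
  rcases h a ha with h1 | ⟨t, h1, h2⟩
  · exact Or.inl h1
  · exact Or.inr ⟨t, h1, h2.dense hd⟩

section

variable {P : TDist φ m} {G : Geo σ κ} {g s : ℝ} {θ : κ → ℝ} {β : Fin m → ℝ}
    {B : Base} {I : ℕ → Finset (ℕ × ℝ)} {lev : ℕ → ℚ → ℕ} {A : ℕ → ℝ}
    {f : ℕ → ℚ → ℕ → ℤ → ℕ} {b : ℕ → ℚ → ℕ → σ} {vm : ℕ → ℚ → ℝ} {w : κ → ℕ → ℚ → ℝ}
    {fr : ℕ → ℚ → ℕ × ℝ → φ} {pr : Fin m → ℕ → ℚ → ℝ} {fl : ℕ → ℕ × ℝ → φ} {sc : Fin m → ℕ → ℝ}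

/-- the rotation function passes to dense marked parts -/
theorem RotT.dense {c Λ : ℝ → ℝ} {τ : κ → ℝ → ℝ} {j : Fin m} {sc : ℕ → ℝ}
    {C0 : ℝ} {R : ℝ → ℝ} {J : ℕ → Finset (ℕ × ℝ)} (hR : RotT P B I lev j fl sc C0 R)
    (hI : MkA B I G lev A c Λ τ f b vm w) (hJ : MkA B J G lev A c Λ τ f b vm w)
    (hd : Dense B J I) : RotT P B J lev j fl sc C0 R := by
  classical
  refine ⟨hR.scpos, hR.bd, hR.mono, fun u h0 h1 ε hε => ?_, fun u h0 h1 r hr hrC => ?_⟩
  · filter_upwards [hR.rot u h0 h1 ε hε, hd.1] with n a b x hx y hy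
    exact a x (b hx) y (b hy)
  · obtain ⟨γ, hγ, h2⟩ := hR.tw u h0 h1 r hr hrC
    refine ⟨γ / 2, by positivity, ?_⟩
    filter_upwards [h2, hd.1, hI.own u 1 h0 h1.le le_rfl (γ / 4) (by positivity),
      hJ.own u 1 h0 h1.le le_rfl (γ / 4) (by positivity)] with n a b c d x hx
    have a1 := a x (b hx)
    have c1 := (c x (b hx)).2
    have d1 := (d x hx).1
    have hm : ((((J n).filter fun y => y.1 = x.1 ∧ zc (lev n u) y.2 = zc (lev n u) x.2 ∧
        P.d j n (fl n x) (fl n y) ≤ sc n * B.d n ^ r).card : ℕ) : ℝ) ≤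
        ((((I n).filter fun y => y.1 = x.1 ∧ zc (lev n u) y.2 = zc (lev n u) x.2 ∧
        P.d j n (fl n x) (fl n y) ≤ sc n * B.d n ^ r).card : ℕ) : ℝ) := by
      exact_mod_cast card_le_card (filter_subset_filter _ b)
    have hm2 : ((((J n).filter fun y => y.1 = x.1 ∧ zc (lev n u) y.2 = zc (lev n u) x.2 ∧
        P.d j n (fl n x) (fl n y) ≤ sc n * B.d n ^ r).card : ℕ) : ℝ) ≤
        B.d n ^ γ * B.d n ^ (-((1 : ℚ) - (u : ℝ)) + (Λ (1 : ℚ) - Λ u) - γ / 4) := by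
      refine hm.trans ((le_trans (le_of_eq ?_) a1).trans
        (mul_le_mul_of_nonneg_left c1 (dpow_pos B n γ).le))
      convert rfl
    refine le_trans (le_trans (le_of_eq ?_) hm2) ?_
    · convert rfl
    calc B.d n ^ γ * B.d n ^ (-((1 : ℚ) - (u : ℝ)) + (Λ (1 : ℚ) - Λ u) - γ / 4)
        = B.d n ^ (γ / 2) * B.d n ^ (-((1 : ℚ) - (u : ℝ)) + (Λ (1 : ℚ) - Λ u) + γ / 4) := by
          rw [← dpow_add, ← dpow_add]; congr 1; ring
      _ ≤ _ := mul_le_mul_of_nonneg_left d1 (dpow_pos B n _).le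

/-- the rotation function is `β u` below level `1`. -/
theorem RotT.lin {j : Fin m} {scj : ℕ → ℝ} {R : ℝ → ℝ} {b0 c0 : ℝ}
    (hR : RotT P B I lev j fl scj c0 R) (hb : 0 ≤ b0) (hbc : b0 ≤ c0)
    (hlow : ∀ u : ℝ, 0 ≤ u → u ≤ 1 → b0 * u ≤ R u)
    (heq : ∀ u : ℚ, 0 ≤ u → u < 1 → R u = b0 * u) :
    RotT P B I lev j fl scj c0 (fun u => b0 * u) where
  scpos := hR.scpos
  bd := fun u h0 h1 => ⟨mul_nonneg hb h0, by
    show b0 * u ≤ c0
    nlinarith⟩
  mono := fun x hx y hy hxy => mul_le_mul_of_nonneg_left hxy hb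
  rot := fun u h0 h1 ε hε => by
    filter_upwards [hR.rot u h0 h1 ε hε] with n hn x hx y hy hxy hz
    refine (hn x hx y hy hxy hz).trans ?_
    refine mul_le_mul_of_nonneg_left (dpow_le B n ?_) (hR.scpos n).le
    have := hlow u (by exact_mod_cast h0) (by exact_mod_cast h1)
    linarith
  tw := fun u h0 h1 r hr hrC => hR.tw u h0 h1 r (by rw [heq u h0 h1]; exact hr) hrC

/-- the monomials of a free slot are no obstruction -/
theorem TSys.capOK (h : TSys P G g s θ β B I lev A f b vm w fr pr fl sc)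
    (hβ : ∀ t, InvT P B I t fl (sc t) ∨ 0 < β t) (hsl : Slack P β B sc) {j : Fin m}
    (hfree : Free P β B I fl sc j) {C : ℝ} (hC : 0 ≤ C) :
    CapOK P B I lev j fl (fun n => sc j n * B.d n ^ (-1 : ℝ)) (fun _ => C) := by
  classical
  intro u h0 h1 r hr
  have hu0 : (0 : ℝ) ≤ u := by exact_mod_cast h0
  have hdeg : (0 : ℝ) ≤ P.M.deg := Nat.cast_nonneg _
  set M : ℝ := C + P.M.deg + 3 with hM
  set rr : Fin m → ℝ := fun t => if InvT P B I t fl (sc t) then M else -1 with hrr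
  refine ⟨fun t n => sc t n * B.d n ^ (rr t), ?_⟩
  have hT : ∀ᶠ n in (U : Filter ℕ), ∀ t : Fin m, ∀ x ∈ I n, ∀ y ∈ I n, y.1 = x.1 →
      zc (lev n u) y.2 = zc (lev n u) x.2 →
        P.d t n (fl n x) (fl n y) ≤ sc t n * B.d n ^ (rr t) := by
    rw [Filter.eventually_all]
    intro t
    by_cases ht : InvT P B I t fl (sc t)
    · have e1 : rr t = M := by simp only [hrr, ht, if_true]
      rw [e1]
      filter_upwards [ht M] with n hn x hx y hy hxy _ using hn x hx y hy hxy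
    · have e1 : rr t = -1 := by simp only [hrr, ht, if_false]
      rw [e1]
      have hb := (hβ t).resolve_left ht
      filter_upwards [h.same_cell t h0 h1 one_pos] with n hn x hx y hy hxy hz
      refine (hn x hx y hy hxy hz).trans
        (mul_le_mul_of_nonneg_left (dpow_le B n ?_) (h.scpos t n).le)
      have := mul_nonneg hb.le hu0
      linarith
  have hP : ∀ᶠ n in (U : Filter ℕ), ∀ a ∈ P.M.mon j,
      ∏ t, (sc t n * B.d n ^ (rr t)) ^ a t ≤ sc j n * B.d n ^ (-1 : ℝ) * B.d n ^ r := by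
    rw [Filter.eventually_all_finset]
    intro a ha
    have hsum : ∀ t, (a t : ℝ) * -1 ≤ (a t : ℝ) * rr t := by
      intro t
      refine mul_le_mul_of_nonneg_left ?_ (Nat.cast_nonneg _)
      simp only [hrr]
      split_ifs
      · rw [hM]; linarith
      · exact le_rfl
    have hdeg2 := sum_nat_le P.M ha
    have htot : -(P.M.deg : ℝ) ≤ ∑ t, (a t : ℝ) * rr t := by
      calc -(P.M.deg : ℝ) ≤ ∑ t, (a t : ℝ) * -1 := by
            rw [← Finset.sum_mul]; linarith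
        _ ≤ _ := Finset.sum_le_sum fun t _ => hsum t
    rcases hfree a ha with h2 | ⟨t0, ht0, ht1⟩
    · filter_upwards [hsl j a ha h2 (M + P.M.deg)] with n hn
      rw [prod_dpow]
      calc (∏ t, sc t n ^ a t) * B.d n ^ (∑ t, (a t : ℝ) * rr t)
          ≤ sc j n * B.d n ^ (M + P.M.deg) * B.d n ^ (∑ t, (a t : ℝ) * rr t) :=
            mul_le_mul_of_nonneg_right hn (dpow_pos B n _).le
        _ = sc j n * B.d n ^ (M + P.M.deg + ∑ t, (a t : ℝ) * rr t) := by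
            rw [mul_assoc, ← dpow_add]
        _ ≤ sc j n * B.d n ^ (-1 + r) :=
            mul_le_mul_of_nonneg_left (dpow_le B n (by rw [hM]; linarith)) (h.scpos j n).le
        _ = _ := by rw [mul_assoc, ← dpow_add]
    · have htot2 : M - P.M.deg ≤ ∑ t, (a t : ℝ) * rr t := by
        have e1 : rr t0 = M := by simp only [hrr, ht1, if_true]
        have e2 : (1 : ℝ) ≤ a t0 := by
          exact_mod_cast Nat.one_le_iff_ne_zero.2 ht0
        have hMp : 0 ≤ M := by rw [hM]; linarith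
        have e3 : ∑ t, (a t : ℝ) * rr t = (a t0 : ℝ) * rr t0 + ∑ t ∈ univ.erase t0, (a t : ℝ) * rr t :=
          (Finset.add_sum_erase _ _ (mem_univ t0)).symm
        have e4 : ∑ t ∈ univ.erase t0, (a t : ℝ) * -1 ≤ ∑ t ∈ univ.erase t0, (a t : ℝ) * rr t :=
          Finset.sum_le_sum fun t _ => hsum t
        have e5 : ∑ t ∈ univ.erase t0, (a t : ℝ) ≤ ∑ t, (a t : ℝ) :=
          Finset.sum_le_sum_of_subset_of_nonneg (Finset.erase_subset _ _)
            fun t _ _ => Nat.cast_nonneg _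
        rw [← Finset.sum_mul] at e4
        rw [e3, e1]
        nlinarith
      filter_upwards [h.wsc j a ha 1 one_pos] with n hn
      rw [prod_dpow]
      calc (∏ t, sc t n ^ a t) * B.d n ^ (∑ t, (a t : ℝ) * rr t)
          ≤ sc j n * B.d n ^ (-1 : ℝ) * B.d n ^ (∑ t, (a t : ℝ) * rr t) :=
            mul_le_mul_of_nonneg_right hn (dpow_pos B n _).le
        _ ≤ _ := mul_le_mul_of_nonneg_left (dpow_le B n (by rw [hM] at htot2; linarith))
            (mul_nonneg (h.scpos j n).le (dpow_pos B n _).le)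
  filter_upwards [hT, hP] with n a1 a2
  exact ⟨fun a ha t ht x hx y hy hxy hz => a1 t x hx y hy hxy hz, a2⟩

/-- **own rotation function of one free slot.** -/
theorem TSys.exists_rot (h : TSys P G g s θ β B I lev A f b vm w fr pr fl sc)
    (hβ : ∀ t, InvT P B I t fl (sc t) ∨ 0 < β t) (hsl : Slack P β B sc) {j : Fin m}
    (hfree : Free P β B I fl sc j) (hβj : 0 < β j) {C0 : ℝ} (hC : β j ≤ C0) :
    ∃ (J : ℕ → Finset (ℕ × ℝ)) (R : ℝ → ℝ), Dense B J I ∧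
      TSys P G g s θ β B J lev A f b vm w fr pr fl sc ∧
      RotT P B J lev j fl (sc j) C0 R ∧ ∀ u : ℝ, 0 ≤ u → u ≤ 1 → β j * u ≤ R u := by
  classical
  have hC0 : 0 ≤ C0 := hβj.le.trans hC
  obtain ⟨J, R, hJd, hJ, hR, hRcap⟩ := exRotT (P := P) (sl := j) (fl := fl)
    (sc := fun n => sc j n * B.d n ^ (-1 : ℝ)) (cap := fun _ => C0 + 2) (C0 := C0 + 1)
    h.mka (fun n => mul_pos (h.scpos j n) (dpow_pos B n _)) (by linarith)
    (h.capOK hβ hsl hfree (by linarith)) (by show (0 : ℝ) < C0 + 2; linarith)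
    (fun _ _ _ _ _ => le_rfl) (by
      refine Negl.mono Negl.false ?_
      filter_upwards [h.same_cell j le_rfl zero_le_one one_pos, h.mka.cell0] with n a1 a2 x hx hy
      obtain ⟨y, hy, hxy, hlt⟩ := hy
      have b1 := a1 x hx y hy hxy (a2 y hy x hx)
      have e1 : β j * ((0 : ℚ) : ℝ) - 1 = -1 := by push_cast; ring
      rw [e1] at b1
      exact absurd b1 (not_le.2 hlt))
  have hS := h.dense hJd hJ
  have htw : ∀ u : ℚ, 0 ≤ u → u < 1 → ∀ r : ℝ, R u < r → r ≤ C0 + 1 → ∃ γ : ℝ, 0 < γ ∧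
      ∀ᶠ n in (U : Filter ℕ), ∀ x ∈ J n,
        ((((J n).filter fun y => y.1 = x.1 ∧ zc (lev n u) y.2 = zc (lev n u) x.2 ∧
          P.d j n (fl n x) (fl n y) ≤ sc j n * B.d n ^ (-1 : ℝ) * B.d n ^ r).card : ℕ) : ℝ) ≤
        B.d n ^ γ * ((own (J n) (lev n u) (lev n 1) x).card : ℝ) := fun u h0 h1 r hr hrC =>
    hR.tw u h0 h1 (by
      have := (hR.bd u (by exact_mod_cast h0) (by exact_mod_cast h1.le)).2
      show R u < C0 + 2
      linarith) r hr hrC
  -- lower bound at rationals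
  have hlow : ∀ u : ℚ, 0 ≤ u → u < 1 → β j * u + 1 ≤ R u := by
    intro u h0 h1
    by_contra hcon
    rw [not_le] at hcon
    have hu0 : (0 : ℝ) ≤ u := by exact_mod_cast h0
    have hu1 : (u : ℝ) < 1 := by exact_mod_cast h1
    set r : ℝ := (R u + (β j * u + 1)) / 2 with hr
    have hr1 : R u < r := by rw [hr]; linarith
    have hr2 : r < β j * u + 1 := by rw [hr]; linarith
    have hr3 : r ≤ C0 + 1 := by nlinarith
    obtain ⟨γ, hγ, htw⟩ := htw u h0 h1 r hr1 hr3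
    have hfalse : ∀ᶠ n in (U : Filter ℕ), False := by
      filter_upwards [htw, hJ.ne, hS.same_cell j h0 h1.le (ε := β j * u + 1 - r) (by linarith),
        dpow_small B hγ one_pos, card_fibre hJ] with n a1 a2 a3 a4 a5
      obtain ⟨x, hx⟩ := a2
      have b1 := a1 x hx
      have e1 : ((J n).filter fun y => y.1 = x.1 ∧ zc (lev n u) y.2 = zc (lev n u) x.2 ∧
          P.d j n (fl n x) (fl n y) ≤ sc j n * B.d n ^ (-1 : ℝ) * B.d n ^ r) =
          (J n).filter fun y => y.1 = x.1 ∧ zc (lev n u) y.2 = zc (lev n u) x.2 := by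
        refine filter_congr fun y hy => ⟨fun hh => ⟨hh.1, hh.2.1⟩, fun hh => ⟨hh.1, hh.2, ?_⟩⟩
        refine (a3 x hx y hy hh.1 hh.2).trans (le_of_eq ?_)
        rw [mul_assoc, ← dpow_add]
        congr 2
        ring
      rw [e1, a5 x hx u] at b1
      have hp : (0 : ℝ) < ((own (J n) (lev n u) (lev n 1) x).card : ℝ) := by
        exact_mod_cast own_pos hx
      have b2 : B.d n ^ γ * ((own (J n) (lev n u) (lev n 1) x).card : ℝ) <
          1 * ((own (J n) (lev n u) (lev n 1) x).card : ℝ) := mul_lt_mul_of_pos_right a4 hp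
      linarith
    obtain ⟨n, hn⟩ := hfalse.exists
    exact hn
  have hlow2 : ∀ u : ℝ, 0 ≤ u → u ≤ 1 → β j * u + 1 ≤ R u := by
    intro u h0 h1
    rcases h0.eq_or_lt with h00 | h00
    · have := hlow 0 le_rfl one_pos
      rw [← h00]
      simpa using this
    · by_contra hcon
      rw [not_le] at hcon
      set δ : ℝ := β j * u + 1 - R u with hδ
      have hδ0 : 0 < δ := by rw [hδ]; linarith
      obtain ⟨q, hq1, hq2⟩ := exists_rat_btwn (show max 0 (u - δ / β j) < u from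
        max_lt h00 (by have := div_pos hδ0 hβj; linarith))
      have hq0 : (0 : ℝ) < q := (le_max_left _ _).trans_lt hq1
      have hqd : u - δ / β j < q := (le_max_right _ _).trans_lt hq1
      have hq3 : (q : ℝ) < 1 := hq2.trans_le h1
      have c1 := hlow q (by exact_mod_cast hq0.le) (by exact_mod_cast hq3)
      have c2 := hR.mono ⟨hq0.le, hq3.le⟩ ⟨h0, h1⟩ hq2.le
      have c3 : β j * (u - δ / β j) < β j * q := mul_lt_mul_of_pos_left hqd hβj
      have c4 : β j * (u - δ / β j) = β j * u - δ := by field_simp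
      rw [c4] at c3
      rw [hδ] at c3
      linarith
  refine ⟨J, fun u => R u - 1, hJd, hS, ⟨h.scpos j, fun u h0 h1 => ⟨?_, ?_⟩, ?_, ?_, ?_⟩,
    fun u h0 h1 => by have := hlow2 u h0 h1; show β j * u ≤ R u - 1; linarith⟩
  · have := hlow2 u h0 h1
    have h2 : 0 ≤ β j * u := mul_nonneg hβj.le h0
    show 0 ≤ R u - 1
    linarith
  · have := (hR.bd u h0 h1).2
    show R u - 1 ≤ C0
    linarith
  · intro x hx y hy hxy
    have := hR.mono hx hy hxy
    show R x - 1 ≤ R y - 1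
    linarith
  · intro u h0 h1 ε hε
    filter_upwards [hR.rot u h0 h1 ε hε] with n hn x hx y hy hxy hz
    refine (hn x hx y hy hxy hz).trans (le_of_eq ?_)
    rw [mul_assoc, ← dpow_add]
    congr 2
    ring
  · intro u h0 h1 r hr hrC
    obtain ⟨γ, hγ, h2⟩ := htw u h0 h1 (r + 1) (by have : R u - 1 < r := hr; linarith)
      (by linarith)
    refine ⟨γ, hγ, ?_⟩
    filter_upwards [h2] with n hn x hx
    refine le_trans (le_of_eq ?_) (hn x hx)
    congr 2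
    refine filter_congr fun y hy => ?_
    have e1 : sc j n * B.d n ^ (-1 : ℝ) * B.d n ^ (r + 1) = sc j n * B.d n ^ r := by
      rw [mul_assoc, ← dpow_add]
      congr 2
      ring
    rw [e1]

/-- **own rotation functions of all free slots, on one dense part.** -/
theorem TSys.exists_rots (h : TSys P G g s θ β B I lev A f b vm w fr pr fl sc)
    (hβ : ∀ t, InvT P B I t fl (sc t) ∨ 0 < β t) (hsl : Slack P β B sc)
    {C0 : Fin m → ℝ} (hC : ∀ j, β j ≤ C0 j) :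
    ∃ (J : ℕ → Finset (ℕ × ℝ)) (R : Fin m → ℝ → ℝ), Dense B J I ∧
      TSys P G g s θ β B J lev A f b vm w fr pr fl sc ∧
      ∀ j, 0 < β j → Free P β B I fl sc j → RotT P B J lev j fl (sc j) (C0 j) (R j) ∧
        ∀ u : ℝ, 0 ≤ u → u ≤ 1 → β j * u ≤ R j u := by
  classical
  have key : ∀ S : Finset (Fin m), ∃ (J : ℕ → Finset (ℕ × ℝ)) (R : Fin m → ℝ → ℝ), Dense B J I ∧
      TSys P G g s θ β B J lev A f b vm w fr pr fl sc ∧
      ∀ j ∈ S, 0 < β j → Free P β B I fl sc j → RotT P B J lev j fl (sc j) (C0 j) (R j) ∧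
        ∀ u : ℝ, 0 ≤ u → u ≤ 1 → β j * u ≤ R j u := by
    intro S
    induction S using Finset.induction_on with
    | empty => exact ⟨I, fun _ _ => 0, Dense.refl B I, h, fun j hj => absurd hj (Finset.notMem_empty j)⟩
    | insert i S hi ih =>
      obtain ⟨J, R, hd, hS, hR⟩ := ih
      by_cases hβi : 0 < β i ∧ Free P β B I fl sc i
      · obtain ⟨J', R', hd', hS', hR', hR''⟩ := hS.exists_rot
          (fun t => (hβ t).imp (fun h => h.dense hd) id) hsl (hβi.2.dense hd) hβi.1 (hC i)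
        refine ⟨J', fun j => if j = i then R' else R j, hd'.trans hd, hS', fun j hj hβj hfj => ?_⟩
        by_cases hji : j = i
        · subst hji
          simp only [if_true]
          exact ⟨hR', hR''⟩
        · simp only [hji, if_false]
          have h1 := hR j ((Finset.mem_insert.1 hj).resolve_left hji) hβj hfj
          exact ⟨h1.1.dense hS.mka hS'.mka hd', h1.2⟩
      · refine ⟨J, R, hd, hS, fun j hj hβj hfj => ?_⟩
        rcases Finset.mem_insert.1 hj with rfl | hj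
        · exact absurd ⟨hβj, hfj⟩ hβi
        · exact hR j hj hβj hfj
  obtain ⟨J, R, h1, h2, h3⟩ := key Finset.univ
  exact ⟨J, R, h1, h2, fun j => h3 j (Finset.mem_univ j)⟩

end

/-- output of the second zoom: every slot is invisible, tied or capped.  `H n` = length of the window,
`mm n` = affine level map of slope `H n`. -/
def NatT (P : TDist φ m) (G : Geo σ κ) (g s : ℝ) (θ : κ → ℝ) (β C0 : Fin m → ℝ)
    (fl : ℕ → ℕ × ℝ → φ) (B : Base) (I : ℕ → Finset (ℕ × ℝ)) (lev : ℕ → ℚ → ℕ)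
    (f : ℕ → ℚ → ℕ → ℤ → ℕ) (b : ℕ → ℚ → ℕ → σ) (vm : ℕ → ℚ → ℝ) (w : κ → ℕ → ℚ → ℝ)
    (fr : ℕ → ℚ → ℕ × ℝ → φ) (pr : Fin m → ℕ → ℚ → ℝ) : Prop :=
  ∃ (H : ℕ → ℝ) (mm : ℕ → ℚ → ℚ) (B' : Base) (I' : ℕ → Finset (ℕ × ℝ)) (A' : ℕ → ℝ)
    (sc' : Fin m → ℕ → ℝ), (∀ n, 0 < H n ∧ H n ≤ 1) ∧
    (∀ n, ∀ x : ℚ, 0 ≤ x → x ≤ 1 → 0 ≤ mm n x ∧ mm n x ≤ 1) ∧
    (∀ n, ∀ x y : ℚ, (mm n y : ℝ) - mm n x = H n * ((y : ℝ) - x)) ∧
    (∀ n, B'.d n = B.d n ^ H n) ∧ (∀ᶠ n in (U : Filter ℕ), I' n ⊆ I n) ∧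
    TSys P G g s θ β B' I' (fun n x => lev n (mm n x)) A' (fun n x => f n (mm n x))
      (fun n x => b n (mm n x)) (fun n x => vm n (mm n x)) (fun j n x => w j n (mm n x))
      (fun n x => fr n (mm n x)) (fun j n x => pr j n (mm n x)) fl sc' ∧
    Slack P β B' sc' ∧
    ∀ j, InvT P B' I' j fl (sc' j) ∨
      (0 < β j ∧ RotT P B' I' (fun n x => lev n (mm n x)) j fl (sc' j) (C0 j) (fun u => β j * u)) ∨
      (0 < β j ∧ ∃ a ∈ P.M.mon j, ∑ t, (a t : ℝ) * β t = β j ∧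
        ∀ t, a t ≠ 0 → ¬ InvT P B' I' t fl (sc' t))

section

variable {P : TDist φ m} {G : Geo σ κ} {g s : ℝ} {θ : κ → ℝ} {β C0 : Fin m → ℝ}
    {B : Base} {I : ℕ → Finset (ℕ × ℝ)} {lev : ℕ → ℚ → ℕ} {A : ℕ → ℝ}
    {f : ℕ → ℚ → ℕ → ℤ → ℕ} {b : ℕ → ℚ → ℕ → σ} {vm : ℕ → ℚ → ℝ} {w : κ → ℕ → ℚ → ℝ}
    {fr : ℕ → ℚ → ℕ × ℝ → φ} {pr : Fin m → ℕ → ℚ → ℝ} {fl : ℕ → ℕ × ℝ → φ} {sc : Fin m → ℕ → ℝ}

/-- composition of windows -/
theorem NatT.comp {B1 : Base} {I1 : ℕ → Finset (ℕ × ℝ)} {H1 : ℕ → ℝ} {m1 : ℕ → ℚ → ℚ}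
    (hH : ∀ n, 0 < H1 n ∧ H1 n ≤ 1) (hm : ∀ n, ∀ x : ℚ, 0 ≤ x → x ≤ 1 → 0 ≤ m1 n x ∧ m1 n x ≤ 1)
    (hq : ∀ n, ∀ x y : ℚ, (m1 n y : ℝ) - m1 n x = H1 n * ((y : ℝ) - x))
    (hB : ∀ n, B1.d n = B.d n ^ H1 n) (hI : ∀ᶠ n in (U : Filter ℕ), I1 n ⊆ I n)
    (h : NatT P G g s θ β C0 fl B1 I1 (fun n x => lev n (m1 n x)) (fun n x => f n (m1 n x))
      (fun n x => b n (m1 n x)) (fun n x => vm n (m1 n x)) (fun j n x => w j n (m1 n x))
      (fun n x => fr n (m1 n x)) (fun j n x => pr j n (m1 n x))) :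
    NatT P G g s θ β C0 fl B I lev f b vm w fr pr := by
  obtain ⟨H2, m2, B2, I2, A2, sc2, h1, h2, h3, h4, h5, h6, h7, h8⟩ := h
  refine ⟨fun n => H1 n * H2 n, fun n x => m1 n (m2 n x), B2, I2, A2, sc2, fun n => ⟨?_, ?_⟩,
    fun n x hx0 hx1 => ?_, fun n x y => ?_, fun n => ?_, ?_, h6, h7, h8⟩
  · exact mul_pos (hH n).1 (h1 n).1
  · exact mul_le_one₀ (hH n).2 (h1 n).1.le (h1 n).2
  · exact hm n _ (h2 n x hx0 hx1).1 (h2 n x hx0 hx1).2
  · rw [hq, h3]; ring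
  · rw [h4, hB, ← Real.rpow_mul (B.pos n).le]
  · filter_upwards [hI, h5] with n a1 a2 using a2.trans a1

theorem NatT.mono {J : ℕ → Finset (ℕ × ℝ)} (hJ : ∀ᶠ n in (U : Filter ℕ), J n ⊆ I n)
    (h : NatT P G g s θ β C0 fl B J lev f b vm w fr pr) :
    NatT P G g s θ β C0 fl B I lev f b vm w fr pr :=
  NatT.comp (H1 := fun _ => 1) (m1 := fun _ x => x) (fun _ => ⟨one_pos, le_rfl⟩)
    (fun n x h0 h1 => ⟨h0, h1⟩) (fun n x y => by ring) (fun n => by rw [Real.rpow_one]) hJ h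

/-- data of a zoom at `v0`: what is preserved -/
theorem TSys.zoomP [Countable κ] (h : TSys P G g s θ β B I lev A f b vm w fr pr fl sc)
    {v0 : ℝ} (hv0 : 0 < v0) (hv1 : v0 < 1) (Q : (ℕ → ℚ → ℚ) → ℕ → ℕ → Prop)
    (hQ : ∀ mm : ℕ → ℚ → ℚ, (∀ k, ∀ x : ℚ, 0 ≤ x → x ≤ 1 → 0 ≤ mm k x ∧ mm k x ≤ 1) →
      ∀ k, ∀ᶠ n in (U : Filter ℕ), Q mm k n) :
    ∃ (H : ℕ → ℝ) (mm : ℕ → ℚ → ℚ) (B' : Base) (I' : ℕ → Finset (ℕ × ℝ)) (A' : ℕ → ℝ),
      (∀ n, 0 < H n ∧ H n ≤ 1) ∧ Tendsto H U (𝓝 0) ∧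
      (∀ n, ∀ x : ℚ, 0 ≤ x → x ≤ 1 → 0 ≤ mm n x ∧ mm n x ≤ 1) ∧
      (∀ n, ∀ x y : ℚ, (mm n y : ℝ) - mm n x = H n * ((y : ℝ) - x)) ∧
      (∀ x : ℚ, Tendsto (fun n => ((mm n x : ℚ) : ℝ)) U (𝓝 v0)) ∧
      (∀ n, B'.d n = B.d n ^ H n) ∧ (∀ n, I' n ⊆ I n) ∧
      TSys P G g s θ β B' I' (fun n x => lev n (mm n x)) A' (fun n x => f n (mm n x))
        (fun n x => b n (mm n x)) (fun n x => vm n (mm n x)) (fun j n x => w j n (mm n x))
        (fun n x => fr n (mm n x)) (fun j n x => pr j n (mm n x)) fl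
        (fun j n => sc j n * B.d n ^ (β j * mm n 0)) ∧
      (∀ᶠ n in (U : Filter ℕ), ∃ (mm' : ℕ → ℚ → ℚ) (k : ℕ), mm' k = mm n ∧ Q mm' k n) ∧
      (∀ j, InvT P B I j fl (sc j) →
        InvT P B' I' j fl (fun n => sc j n * B.d n ^ (β j * mm n 0))) ∧
      (Slack P β B sc → Slack P β B' (fun j n => sc j n * B.d n ^ (β j * mm n 0))) := by
  classical
  obtain ⟨η, mm, hη, hη1, hη0, hm, hq, hmv, s0, hs0, hz⟩ := h.zoom hv0 hv1
  obtain ⟨s3, hs3, hs3'⟩ := exists_diag (Q mm) (hQ mm hm)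
  set t : ℕ → ℕ := fun n => min (s0 n) (s3 n) with ht
  have htt : Tendsto t U atTop := by
    rw [tendsto_atTop]
    intro c
    filter_upwards [tendsto_atTop.1 hs0 c, tendsto_atTop.1 hs3 c] with n h1 h2
    exact le_min h1 h2
  obtain ⟨B', I', A', hB', hI', hS'⟩ := hz t htt (Eventually.of_forall fun n => min_le_left _ _)
  have hBp : ∀ n (y : ℝ), B'.d n ^ y = B.d n ^ (η (t n) * y) := by
    intro n y
    rw [hB' n, ← Real.rpow_mul (B.pos n).le]
  have hm00 : ∀ k, (0 : ℝ) ≤ mm k 0 ∧ (mm k 0 : ℝ) ≤ 1 := fun k =>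
    ⟨by exact_mod_cast (hm k 0 le_rfl zero_le_one).1, by exact_mod_cast (hm k 0 le_rfl zero_le_one).2⟩
  have hηM : ∀ n (M : ℝ), η (t n) * M ≤ |M| := fun n M => by
    calc η (t n) * M ≤ η (t n) * |M| := mul_le_mul_of_nonneg_left (le_abs_self _) (hη _).le
      _ ≤ 1 * |M| := mul_le_mul_of_nonneg_right (hη1 _) (abs_nonneg _)
      _ = |M| := one_mul _
  have hβm : ∀ n j, β j * (mm (t n) 0 : ℝ) ≤ |β j| := fun n j => by
    calc β j * (mm (t n) 0 : ℝ) ≤ |β j| * (mm (t n) 0 : ℝ) :=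
          mul_le_mul_of_nonneg_right (le_abs_self _) (hm00 _).1
      _ ≤ |β j| * 1 := mul_le_mul_of_nonneg_left (hm00 _).2 (abs_nonneg _)
      _ = |β j| := mul_one _
  refine ⟨fun n => η (t n), fun n => mm (t n), B', I', A', fun n => ⟨hη _, hη1 _⟩, hη0.comp htt,
    fun n => hm (t n), fun n => hq (t n), fun x => (hmv x).comp htt, hB', hI', hS', ?_, ?_, ?_⟩
  · filter_upwards [hs3'] with n hn
    exact ⟨mm, t n, rfl, hn (t n) (min_le_right _ _)⟩
  · intro j hj M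
    filter_upwards [hj (|β j| + |M|)] with n a1 x hx y hy hxy
    refine (a1 x (hI' n hx) y (hI' n hy) hxy).trans ?_
    rw [hBp, mul_assoc, ← dpow_add]
    refine mul_le_mul_of_nonneg_left (dpow_le B n ?_) (h.scpos j n).le
    have := hβm n j
    have := hηM n M
    linarith
  · intro hsl j a ha hlt M
    filter_upwards [hsl j a ha hlt (|M| + |β j| + |∑ t, (a t : ℝ) * β t|)] with n hn
    rw [prod_dpow, hBp]
    have e1 : ∑ t', (a t' : ℝ) * (β t' * (mm (t n) 0 : ℝ)) = (∑ t', (a t' : ℝ) * β t') *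
        (mm (t n) 0 : ℝ) := by
      rw [Finset.sum_mul]
      exact Finset.sum_congr rfl fun t' _ => by ring
    have e2 : -|∑ t, (a t : ℝ) * β t| ≤ (∑ t', (a t' : ℝ) * β t') * (mm (t n) 0 : ℝ) := by
      have h1 := neg_abs_le ((∑ t', (a t' : ℝ) * β t') * (mm (t n) 0 : ℝ))
      rw [abs_mul, abs_of_nonneg (hm00 (t n)).1] at h1
      have h2 : |∑ t', (a t' : ℝ) * β t'| * (mm (t n) 0 : ℝ) ≤ |∑ t', (a t' : ℝ) * β t'| * 1 :=
        mul_le_mul_of_nonneg_left (hm00 (t n)).2 (abs_nonneg _)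
      linarith
    rw [e1]
    calc (∏ t', sc t' n ^ a t') * B.d n ^ ((∑ t', (a t' : ℝ) * β t') * (mm (t n) 0 : ℝ))
        ≤ sc j n * B.d n ^ (|M| + |β j| + |∑ t, (a t : ℝ) * β t|) *
          B.d n ^ ((∑ t', (a t' : ℝ) * β t') * (mm (t n) 0 : ℝ)) :=
          mul_le_mul_of_nonneg_right hn (dpow_pos B n _).le
      _ = sc j n * B.d n ^ (|M| + |β j| + |∑ t, (a t : ℝ) * β t| +
          (∑ t', (a t' : ℝ) * β t') * (mm (t n) 0 : ℝ)) := by rw [mul_assoc, ← dpow_add]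
      _ ≤ sc j n * B.d n ^ (β j * (mm (t n) 0 : ℝ) + η (t n) * M) := by
          refine mul_le_mul_of_nonneg_left (dpow_le B n ?_) (h.scpos j n).le
          have := hηM n M
          have := hβm n j
          linarith
      _ = _ := by rw [mul_assoc, ← dpow_add]

/-- **one zoom makes one more slot invisible.** -/
theorem TSys.zoom_gap [Countable κ]
    (h : TSys P G g s θ β B I lev A f b vm w fr pr fl sc) (hsl : Slack P β B sc) {j0 : Fin m}
    {c0 : ℝ} {R : ℝ → ℝ} (hR : RotT P B I lev j0 fl (sc j0) c0 R) {v0 D : ℝ} (hv0 : 0 < v0)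
    (hv1 : v0 < 1) (hD : 0 < D) (hgap : ∀ᶠ v in 𝓝 v0, β j0 * v + D ≤ R v) :
    ∃ (H : ℕ → ℝ) (mm : ℕ → ℚ → ℚ) (B' : Base) (I' : ℕ → Finset (ℕ × ℝ)) (A' : ℕ → ℝ)
      (sc' : Fin m → ℕ → ℝ), (∀ n, 0 < H n ∧ H n ≤ 1) ∧
      (∀ n, ∀ x : ℚ, 0 ≤ x → x ≤ 1 → 0 ≤ mm n x ∧ mm n x ≤ 1) ∧
      (∀ n, ∀ x y : ℚ, (mm n y : ℝ) - mm n x = H n * ((y : ℝ) - x)) ∧
      (∀ n, B'.d n = B.d n ^ H n) ∧ (∀ᶠ n in (U : Filter ℕ), I' n ⊆ I n) ∧
      TSys P G g s θ β B' I' (fun n x => lev n (mm n x)) A' (fun n x => f n (mm n x))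
        (fun n x => b n (mm n x)) (fun n x => vm n (mm n x)) (fun j n x => w j n (mm n x))
        (fun n x => fr n (mm n x)) (fun j n x => pr j n (mm n x)) fl sc' ∧
      Slack P β B' sc' ∧ InvT P B' I' j0 fl (sc' j0) ∧
      ∀ j, InvT P B I j fl (sc j) → InvT P B' I' j fl (sc' j) := by
  classical
  obtain ⟨H, mm, B', I', A', h1, h2, h3, h4, h5, h6, h7, h8, h9, h10, h11⟩ :=
    h.zoomP hv0 hv1 (fun mm k n => ∀ x ∈ I n, ∀ y ∈ I n, y.1 = x.1 →
      zc (lev n (mm k 0)) y.2 = zc (lev n (mm k 0)) x.2 →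
        P.d j0 n (fl n x) (fl n y) ≤ sc j0 n * B.d n ^ (R (mm k 0) - D / 2))
      (fun mm hm k => hR.rot (mm k 0) (hm k 0 le_rfl zero_le_one).1 (hm k 0 le_rfl zero_le_one).2
        (D / 2) (by positivity))
  refine ⟨H, mm, B', I', A', _, h1, h3, h4, h6, Eventually.of_forall h7, h8, h11 hsl, ?_, h10⟩
  have hBp : ∀ n (y : ℝ), B'.d n ^ y = B.d n ^ (H n * y) := by
    intro n y
    rw [h6 n, ← Real.rpow_mul (B.pos n).le]
  intro M
  have hg1 : ∀ᶠ n in (U : Filter ℕ), β j0 * (mm n 0 : ℝ) + D ≤ R (mm n 0) :=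
    (h5 0).eventually hgap
  have hg2 : ∀ᶠ n in (U : Filter ℕ), H n * M < D / 2 := by
    have h1 : Tendsto (fun n => H n * M) U (𝓝 (0 * M)) := h2.mul_const M
    rw [zero_mul] at h1
    exact h1.eventually_lt_const (by positivity)
  filter_upwards [hg1, hg2, h9, h8.mka.cell0] with n a1 a2 a3 a4 x hx y hy hxy
  obtain ⟨mm', k, e1, a3⟩ := a3
  rw [e1] at a3
  have b1 := a3 x (h7 n hx) y (h7 n hy) hxy (a4 y hy x hx)
  refine b1.trans ?_
  rw [hBp, mul_assoc, ← dpow_add]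
  exact mul_le_mul_of_nonneg_left (dpow_le B n (by linarith)) (h.scpos j0 n).le

/-- **one zoom makes all slack monomials infinitely small.** -/
theorem TSys.zoom_slack [Countable κ]
    (h : TSys P G g s θ β B I lev A f b vm w fr pr fl sc) :
    ∃ (H : ℕ → ℝ) (mm : ℕ → ℚ → ℚ) (B' : Base) (I' : ℕ → Finset (ℕ × ℝ)) (A' : ℕ → ℝ)
      (sc' : Fin m → ℕ → ℝ), (∀ n, 0 < H n ∧ H n ≤ 1) ∧
      (∀ n, ∀ x : ℚ, 0 ≤ x → x ≤ 1 → 0 ≤ mm n x ∧ mm n x ≤ 1) ∧
      (∀ n, ∀ x y : ℚ, (mm n y : ℝ) - mm n x = H n * ((y : ℝ) - x)) ∧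
      (∀ n, B'.d n = B.d n ^ H n) ∧ (∀ᶠ n in (U : Filter ℕ), I' n ⊆ I n) ∧
      TSys P G g s θ β B' I' (fun n x => lev n (mm n x)) A' (fun n x => f n (mm n x))
        (fun n x => b n (mm n x)) (fun n x => vm n (mm n x)) (fun j n x => w j n (mm n x))
        (fun n x => fr n (mm n x)) (fun j n x => pr j n (mm n x)) fl sc' ∧
      Slack P β B' sc' ∧ ∀ j, InvT P B I j fl (sc j) → InvT P B' I' j fl (sc' j) := by
  classical
  obtain ⟨H, mm, B', I', A', h1, h2, h3, h4, h5, h6, h7, h8, h9, h10, h11⟩ :=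
    h.zoomP (v0 := 1 / 2) (by norm_num) (by norm_num) (fun _ _ _ => True)
      (fun _ _ _ => Eventually.of_forall fun _ => trivial)
  refine ⟨H, mm, B', I', A', _, h1, h3, h4, h6, Eventually.of_forall h7, h8, ?_, h10⟩
  have hBp : ∀ n (y : ℝ), B'.d n ^ y = B.d n ^ (H n * y) := by
    intro n y
    rw [h6 n, ← Real.rpow_mul (B.pos n).le]
  intro j a ha hlt M
  set Sg : ℝ := ∑ t, (a t : ℝ) * β t with hSg
  have hgl : ∀ᶠ n in (U : Filter ℕ), (1 / 4 : ℝ) < mm n 0 :=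
    (h5 0).eventually_const_lt (by norm_num)
  have hgu : ∀ᶠ n in (U : Filter ℕ), (mm n 0 : ℝ) < 3 / 4 :=
    (h5 0).eventually_lt_const (by norm_num)
  have e1 : ∀ n, ∑ t', (a t' : ℝ) * (β t' * (mm n 0 : ℝ)) = Sg * (mm n 0 : ℝ) := by
    intro n
    rw [hSg, Finset.sum_mul]
    exact Finset.sum_congr rfl fun t' _ => by ring
  rcases lt_or_gt_of_ne hlt with hlt | hlt
  · -- sum below `β` : from the level `1`
    set D : ℝ := β j - Sg with hD
    have hD0 : 0 < D := by rw [hD]; linarith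
    have hg2 : ∀ᶠ n in (U : Filter ℕ), H n * M < D / 8 := by
      have h1 : Tendsto (fun n => H n * M) U (𝓝 (0 * M)) := h2.mul_const M
      rw [zero_mul] at h1
      exact h1.eventually_lt_const (by positivity)
    filter_upwards [hgu, hg2, h.wall (v := 1) zero_le_one le_rfl j a ha (D / 8) (by positivity)]
      with n a1 a2 a3
    rw [prod_dpow] at a3
    rw [prod_dpow, hBp, e1]
    have e3 : ∑ t', (a t' : ℝ) * (β t' * ((1 : ℚ) : ℝ)) = Sg := by
      rw [hSg]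
      exact Finset.sum_congr rfl fun t' _ => by push_cast; ring
    rw [e3] at a3
    have e4 : β j = Sg + D := by rw [hD]; ring
    calc (∏ t', sc t' n ^ a t') * B.d n ^ (Sg * (mm n 0 : ℝ))
        = ((∏ t', sc t' n ^ a t') * B.d n ^ Sg) * B.d n ^ (-(Sg * (1 - (mm n 0 : ℝ)))) := by
          rw [mul_assoc, ← dpow_add]
          congr 2
          ring
      _ ≤ (sc j n * B.d n ^ (β j * ((1 : ℚ) : ℝ) - D / 8)) *
            B.d n ^ (-(Sg * (1 - (mm n 0 : ℝ)))) :=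
          mul_le_mul_of_nonneg_right a3 (dpow_pos B n _).le
      _ = sc j n * B.d n ^ (β j * ((1 : ℚ) : ℝ) - D / 8 + -(Sg * (1 - (mm n 0 : ℝ)))) := by
          rw [mul_assoc, ← dpow_add]
      _ ≤ sc j n * B.d n ^ (β j * (mm n 0 : ℝ) + H n * M) := by
          refine mul_le_mul_of_nonneg_left (dpow_le B n ?_) (h.scpos j n).le
          push_cast
          rw [e4]
          nlinarith
      _ = _ := by rw [mul_assoc, ← dpow_add]
  · set D : ℝ := Sg - β j with hD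
    have hD0 : 0 < D := by rw [hD]; linarith
    have hg2 : ∀ᶠ n in (U : Filter ℕ), H n * M < D / 8 := by
      have h1 : Tendsto (fun n => H n * M) U (𝓝 (0 * M)) := h2.mul_const M
      rw [zero_mul] at h1
      exact h1.eventually_lt_const (by positivity)
    filter_upwards [hgl, hg2, h.wsc j a ha (D / 8) (by positivity)] with n a1 a2 a3
    rw [prod_dpow, hBp, e1]
    have e2 : Sg = β j + D := by rw [hD]; ring
    rw [e2]
    calc (∏ t', sc t' n ^ a t') * B.d n ^ ((β j + D) * (mm n 0 : ℝ))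
        ≤ sc j n * B.d n ^ (-(D / 8)) * B.d n ^ ((β j + D) * (mm n 0 : ℝ)) :=
          mul_le_mul_of_nonneg_right a3 (dpow_pos B n _).le
      _ = sc j n * B.d n ^ (-(D / 8) + (β j + D) * (mm n 0 : ℝ)) := by rw [mul_assoc, ← dpow_add]
      _ ≤ sc j n * B.d n ^ (β j * (mm n 0 : ℝ) + H n * M) :=
          mul_le_mul_of_nonneg_left (dpow_le B n (by nlinarith)) (h.scpos j n).le
      _ = _ := by rw [mul_assoc, ← dpow_add]

/-- **second zoom: every slot is invisible, tied or capped** (induction on the number of visible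
slots). -/
theorem exists_natT [Countable κ] (hC : ∀ j, β j ≤ C0 j) :
    ∀ (N : ℕ) (B : Base) (I : ℕ → Finset (ℕ × ℝ)) (lev : ℕ → ℚ → ℕ) (A : ℕ → ℝ)
      (f : ℕ → ℚ → ℕ → ℤ → ℕ) (b : ℕ → ℚ → ℕ → σ) (vm : ℕ → ℚ → ℝ) (w : κ → ℕ → ℚ → ℝ)
      (fr : ℕ → ℚ → ℕ × ℝ → φ) (pr : Fin m → ℕ → ℚ → ℝ) (sc : Fin m → ℕ → ℝ),
      TSys P G g s θ β B I lev A f b vm w fr pr fl sc → Slack P β B sc →
      (∀ j, InvT P B I j fl (sc j) ∨ 0 < β j) →
      {j | ¬ InvT P B I j fl (sc j)}.ncard ≤ N →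
      NatT P G g s θ β C0 fl B I lev f b vm w fr pr := by
  classical
  intro N
  induction N with
  | zero =>
    intro B I lev A f b vm w fr pr sc h hsl hβ hN
    have hall : ∀ j, InvT P B I j fl (sc j) := by
      intro j
      by_contra hcon
      have h1 : {j | ¬ InvT P B I j fl (sc j)}.ncard = 0 := Nat.le_zero.1 hN
      rw [Set.ncard_eq_zero (Set.toFinite _)] at h1
      have : j ∈ {j | ¬ InvT P B I j fl (sc j)} := hcon
      rw [h1] at this
      exact this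
    refine ⟨fun _ => 1, fun _ x => x, B, I, A, sc, fun n => ⟨one_pos, le_rfl⟩,
      fun n x h0 h1 => ⟨h0, h1⟩, fun n x y => by ring, fun n => by rw [Real.rpow_one],
      Eventually.of_forall fun n => Finset.Subset.refl _, h, hsl, fun j => Or.inl (hall j)⟩
  | succ N ih =>
    intro B I lev A f b vm w fr pr sc h hsl hβ hN
    obtain ⟨J, R, hd, hS, hR⟩ := h.exists_rots hβ hsl hC
    have hInvJ : ∀ j, InvT P B I j fl (sc j) → InvT P B J j fl (sc j) :=
      fun j hj => hj.dense hd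
    have hβJ : ∀ j, InvT P B J j fl (sc j) ∨ 0 < β j := fun j => (hβ j).imp (hInvJ j) id
    by_cases hV : ∃ j1, ¬ InvT P B I j1 fl (sc j1) ∧ InvT P B J j1 fl (sc j1)
    · obtain ⟨j1, hj1, hj1'⟩ := hV
      refine NatT.mono hd.1 (ih B J lev A f b vm w fr pr sc hS hsl hβJ ?_)
      have hlt2 : {j | ¬ InvT P B J j fl (sc j)}.ncard < {j | ¬ InvT P B I j fl (sc j)}.ncard := by
        refine Set.ncard_lt_ncard ?_ (Set.toFinite _)
        rw [Set.ssubset_iff_of_subset]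
        · exact ⟨j1, hj1, fun hj => hj hj1'⟩
        · intro j hj hj2
          exact hj (hInvJ j hj2)
      omega
    push Not at hV
    by_cases hA : ∀ j, InvT P B J j fl (sc j) ∨ ¬ Free P β B I fl sc j ∨
        ∀ u : ℚ, 0 ≤ u → u < 1 → R j u = β j * u
    · refine ⟨fun _ => 1, fun _ x => x, B, J, A, sc, fun n => ⟨one_pos, le_rfl⟩,
        fun n x h0 h1 => ⟨h0, h1⟩, fun n x y => by ring, fun n => by rw [Real.rpow_one],
        hd.1, hS, hsl, fun j => ?_⟩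
      by_cases hj : InvT P B J j fl (sc j)
      · exact Or.inl hj
      have hβj : 0 < β j := (hβJ j).resolve_left hj
      by_cases hf : Free P β B I fl sc j
      · obtain ⟨h1, h2⟩ := hR j hβj hf
        have h3 := ((hA j).resolve_left hj).resolve_left (not_not.2 hf)
        exact Or.inr (Or.inl ⟨hβj, h1.lin hβj.le (hC j) h2 h3⟩)
      · unfold Free at hf
        push Not at hf
        obtain ⟨a, ha, hle, hinv⟩ := hf
        refine Or.inr (Or.inr ⟨hβj, a, ha, hle, fun t ht => ?_⟩)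
        exact hV t (hinv t ht)
    · push Not at hA
      obtain ⟨j0, hj0, hf0, hA⟩ := hA
      have hβ0 : 0 < β j0 := (hβJ j0).resolve_left hj0
      obtain ⟨u0, hu0, hu1, hne⟩ := hA
      obtain ⟨hR0, hR1⟩ := hR j0 hβ0 hf0
      have hu0' : (0 : ℝ) ≤ u0 := by exact_mod_cast hu0
      have hu1' : (u0 : ℝ) < 1 := by exact_mod_cast hu1
      have hlt : β j0 * u0 < R j0 u0 := lt_of_le_of_ne (hR1 u0 hu0' hu1'.le) (Ne.symm hne)
      set D : ℝ := R j0 u0 - β j0 * u0 with hDdef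
      have hD : 0 < D := by rw [hDdef]; linarith
      set δ : ℝ := min (D / (2 * β j0)) (1 - u0) with hδdef
      have hδ : 0 < δ := lt_min (by positivity) (by linarith)
      have hδ1 : δ ≤ D / (2 * β j0) := min_le_left _ _
      have hδ2 : δ ≤ 1 - u0 := min_le_right _ _
      have hgap : ∀ᶠ v in 𝓝 ((u0 : ℝ) + δ / 2), β j0 * v + D / 2 ≤ R j0 v := by
        have hmem : Set.Ioo (u0 : ℝ) (u0 + δ) ∈ 𝓝 ((u0 : ℝ) + δ / 2) :=
          Ioo_mem_nhds (by linarith) (by linarith)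
        filter_upwards [hmem] with v hv
        have c1 : R j0 u0 ≤ R j0 v := hR0.mono ⟨hu0', hu1'.le⟩ ⟨by linarith [hv.1], by
          linarith [hv.2]⟩ hv.1.le
        have c2 : β j0 * (v - u0) ≤ β j0 * (D / (2 * β j0)) :=
          mul_le_mul_of_nonneg_left (by linarith [hv.2]) hβ0.le
        have c3 : β j0 * (D / (2 * β j0)) = D / 2 := by field_simp
        rw [c3] at c2
        have c4 : β j0 * (v - u0) = β j0 * v - β j0 * u0 := by ring
        rw [c4] at c2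
        linarith
      obtain ⟨H, mm, B', I', A', sc', h1, h2, h3, h4, h5, h6, h7, h8, h9⟩ :=
        hS.zoom_gap hsl (v0 := (u0 : ℝ) + δ / 2) hR0 (by linarith) (by linarith)
          (D := D / 2) (by positivity) hgap
      refine NatT.comp h1 h2 h3 h4 (by filter_upwards [h5, hd.1] with n a1 a2 using a1.trans a2)
        (ih B' I' _ A' _ _ _ _ _ _ sc' h6 h7 (fun j => (hβJ j).imp (h9 j) id) ?_)
      · have hlt2 : {j | ¬ InvT P B' I' j fl (sc' j)}.ncard <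
            {j | ¬ InvT P B I j fl (sc j)}.ncard := by
          refine Set.ncard_lt_ncard ?_ (Set.toFinite _)
          rw [Set.ssubset_iff_of_subset]
          · exact ⟨j0, fun hj => hj0 (hInvJ j0 hj), fun hj => hj h8⟩
          · intro j hj hj2
            exact hj (h9 j (hInvJ j hj2))
        omega

/-- **second zoom for triangular slots**, user form. -/
theorem TSys.natT [Countable κ] (h : TSys P G g s θ β B I lev A f b vm w fr pr fl sc)
    (hβ : ∀ j, InvT P B I j fl (sc j) ∨ 0 < β j) (hC : ∀ j, β j ≤ C0 j) :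
    NatT P G g s θ β C0 fl B I lev f b vm w fr pr := by
  obtain ⟨H, mm, B', I', A', sc', h1, h2, h3, h4, h5, h6, h7, h8⟩ := h.zoom_slack
  exact NatT.comp h1 h2 h3 h4 h5 (exists_natT hC _ B' I' _ A' _ _ _ _ _ _ sc' h6 h7
    (fun j => (hβ j).imp (h8 j) id) le_rfl)

end

end Crest.Agent.R136.TD627
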