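import Crest.Agent.R136.Rbw3_219

/-!
# R136: record on a wall (helper219)

* `Walls.BAct` : walls active along the record line and strict on the half plane `lin lam < 0`
* `Walls.UR`   : record points, all other walls and the box are strict
* `Walls.legR'`, `leg_legR'` : legality of the offsets of `Rb741.Reg` (record line may sit on
  another wall)
-/

set_option autoImplicit false
set_option linter.unusedSectionVars false
set_option linter.unusedVariables false

open Set Filter Topology Metric MeasureTheory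

namespace Crest.Agent.R136.Dg219

open Dg262 (X X_cont)
open Rb741 (lin Reg LegR)

variable {ι : Type*} [Fintype ι] [DecidableEq ι]

section

variable {W : Type*} [Fintype W] (Q : Walls ι W)

/-- walls active along the record line through `z00`, strict on the half plane `lin lam < 0` -/
def Walls.BAct (x0 a b : ι → ℝ) (z00 lam : ℝ × ℝ) (w : W) : Prop :=
  X x0 a b z00 (Q.hd w) = Q.rhs w (X x0 a b z00) + Q.cst w ∧
    ∃ t : ℝ, 0 < t ∧ Q.rhs w a - a (Q.hd w) = -(t * lam.1) ∧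
      Q.rhs w b - b (Q.hd w) = -(t * lam.2)

/-- record points: box strict, every wall active on the surface, or `BAct`, or strict -/
def Walls.UR (lo hi x0 a b : ι → ℝ) (z00 r lam : ℝ × ℝ) : Set ℝ :=
  {ξ | (∀ k, lo k < X x0 a b (z00 + ξ • r) k ∧ X x0 a b (z00 + ξ • r) k < hi k) ∧
    ∀ w, Q.Act x0 a b w ∨ Q.BAct x0 a b z00 lam w ∨
      X x0 a b (z00 + ξ • r) (Q.hd w) < Q.rhs w (X x0 a b (z00 + ξ • r)) + Q.cst w}

variable {Q} {x0 a b lo hi : ι → ℝ} {z00 r lam : ℝ × ℝ}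

theorem Walls.rhs_Tn (w : W) (z : ℝ × ℝ) :
    Q.rhs w (Tn a b z) = Q.rhs w a * z.1 + Q.rhs w b * z.2 := by
  have : Tn a b z = z.1 • a + z.2 • b := by
    funext i; simp only [Tn, Pi.add_apply, Pi.smul_apply, smul_eq_mul]; ring
  rw [this, Q.rhs_add, Q.rhs_smul, Q.rhs_smul]; ring

theorem Walls.isOpen_UR : IsOpen (Q.UR lo hi x0 a b z00 r lam) := by
  have hc : Continuous fun ξ : ℝ => X x0 a b (z00 + ξ • r) :=
    (X_cont x0 a b).comp (by fun_prop)
  have e : Q.UR lo hi x0 a b z00 r lam =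
      (⋂ k, {ξ | lo k < X x0 a b (z00 + ξ • r) k} ∩ {ξ | X x0 a b (z00 + ξ • r) k < hi k}) ∩
      ⋂ w, {ξ | Q.Act x0 a b w ∨ Q.BAct x0 a b z00 lam w ∨
        X x0 a b (z00 + ξ • r) (Q.hd w) < Q.rhs w (X x0 a b (z00 + ξ • r)) + Q.cst w} := by
    ext ξ; simp [Walls.UR]
  rw [e]
  refine IsOpen.inter (isOpen_iInter_of_finite fun k => IsOpen.inter ?_ ?_)
    (isOpen_iInter_of_finite fun w => ?_)
  · exact isOpen_lt continuous_const ((continuous_apply k).comp hc)
  · exact isOpen_lt ((continuous_apply k).comp hc) continuous_const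
  · by_cases h1 : Q.Act x0 a b w
    · simp [h1]
    · by_cases h2 : Q.BAct x0 a b z00 lam w
      · simp [h2]
      · simp only [h1, h2, false_or]
        exact isOpen_lt ((continuous_apply _).comp hc)
          (((Q.rhs_cont w).comp hc).add continuous_const)

/-- **legality of the offsets of the half plane at a record line which may sit on other walls** -/
theorem Walls.legR' (hr : lin lam r = 0) :
    ∃ κ0 : ℝ, 0 < κ0 ∧ LegR (Q.P lo hi) (X x0 a b z00) (Tn a b r)
      (Reg a b (Q.L x0 a b) lam κ0) (Q.UR lo hi x0 a b z00 r lam) := by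
  classical
  -- total mass of the coefficients
  set S : W → ℝ := fun w => ∑ s, (Q.co w s : ℝ) with hS
  have hS0 : ∀ w, 0 ≤ S w := fun w => Finset.sum_nonneg fun s _ => Nat.cast_nonneg _
  -- slopes of the walls of the second kind
  have hex : ∃ κ0 : ℝ, 0 < κ0 ∧ ∀ w, Q.BAct x0 a b z00 lam w → ∃ t : ℝ, κ0 * (1 + S w) ≤ t ∧
      Q.rhs w a - a (Q.hd w) = -(t * lam.1) ∧ Q.rhs w b - b (Q.hd w) = -(t * lam.2) := by
    have h1 : ∀ w, ∃ t : ℝ, 0 < t ∧ (Q.BAct x0 a b z00 lam w →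
        Q.rhs w a - a (Q.hd w) = -(t * lam.1) ∧ Q.rhs w b - b (Q.hd w) = -(t * lam.2)) := by
      intro w
      by_cases h : Q.BAct x0 a b z00 lam w
      · obtain ⟨-, t, ht, h2⟩ := h
        exact ⟨t, ht, fun _ => h2⟩
      · exact ⟨1, one_pos, fun h' => absurd h' h⟩
    choose t ht h2 using h1
    have hfin : ∃ κ0 : ℝ, 0 < κ0 ∧ ∀ w, κ0 ≤ t w / (1 + S w) := by
      rcases isEmpty_or_nonempty W with hW | hW
      · exact ⟨1, one_pos, fun w => hW.elim w⟩
      · obtain ⟨w0, hw0⟩ := Finite.exists_min fun w => t w / (1 + S w)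
        exact ⟨t w0 / (1 + S w0), div_pos (ht w0) (by linarith [hS0 w0]), hw0⟩
    obtain ⟨κ0, hκ, hκ'⟩ := hfin
    refine ⟨κ0, hκ, fun w hw => ⟨t w, ?_, h2 w hw⟩⟩
    have := hκ' w
    rwa [le_div_iff₀ (by linarith [hS0 w])] at this
  obtain ⟨κ0, hκ0, hB⟩ := hex
  refine ⟨κ0, hκ0, ?_⟩
  intro x₀ hx₀
  -- the strict conditions are open in the space
  set V : Set (ι → ℝ) := {p | (∀ k, lo k < p k ∧ p k < hi k) ∧
    ∀ w, (Q.Act x0 a b w ∨ Q.BAct x0 a b z00 lam w) ∨ p (Q.hd w) < Q.rhs w p + Q.cst w} with hV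
  have hVo : IsOpen V := by
    have e : V = (⋂ k, {p | lo k < p k} ∩ {p | p k < hi k}) ∩
        ⋂ w, {p | (Q.Act x0 a b w ∨ Q.BAct x0 a b z00 lam w) ∨
          p (Q.hd w) < Q.rhs w p + Q.cst w} := by
      ext p; simp [hV]
    rw [e]
    refine IsOpen.inter (isOpen_iInter_of_finite fun k => IsOpen.inter ?_ ?_)
      (isOpen_iInter_of_finite fun w => ?_)
    · exact isOpen_lt continuous_const (continuous_apply k)
    · exact isOpen_lt (continuous_apply k) continuous_const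
    · by_cases h1 : Q.Act x0 a b w ∨ Q.BAct x0 a b z00 lam w
      · simp [h1]
      · simp only [h1, false_or]
        exact isOpen_lt (continuous_apply _) ((Q.rhs_cont w).add continuous_const)
  have hx₀V : X x0 a b (z00 + x₀ • r) ∈ V := ⟨hx₀.1, fun w => by
    rcases hx₀.2 w with h | h | h
    · exact Or.inl (Or.inl h)
    · exact Or.inl (Or.inr h)
    · exact Or.inr h⟩
  obtain ⟨ε, hε, hball⟩ := Metric.isOpen_iff.1 hVo _ hx₀V
  have hcont : Continuous fun x : ℝ => X x0 a b (z00 + x • r) :=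
    (X_cont x0 a b).comp (by fun_prop)
  obtain ⟨δ, hδ, h1⟩ := Metric.continuous_iff.1 hcont x₀ (ε / 2) (by positivity)
  refine ⟨δ / 2, by positivity, ε / 4, by positivity, fun x hx q hq hqr => ?_⟩
  have e0 : X x0 a b z00 + x • Tn a b r = X x0 a b (z00 + x • r) := (X_add _ _ _ _ _ _).symm
  rw [e0]
  set y := X x0 a b (z00 + x • r) with hy
  have hyd : dist y (X x0 a b (z00 + x₀ • r)) < ε / 2 :=
    h1 x (by rw [Real.dist_eq]; linarith)
  have hyq : y + q ∈ V := by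
    apply hball
    rw [Metric.mem_ball]
    have h2 : dist (y + q) y ≤ ε / 4 := by
      rw [dist_eq_norm, add_sub_cancel_left, pi_norm_le_iff_of_nonneg (by positivity)]
      intro i; rw [Real.norm_eq_abs]; exact hqr i
    have h3 := dist_triangle (y + q) y (X x0 a b (z00 + x₀ • r))
    linarith
  obtain ⟨v, c, hqe, hv, hc, hcv⟩ := hq
  refine ⟨fun k => ⟨(hyq.1 k).1.le, (hyq.1 k).2.le⟩, fun w => ?_⟩
  rcases hyq.2 w with (h | h) | h
  · -- active on the surface
    have e1 := Walls.act_X (Q := Q) h (z00 + x • r + v)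
    have e2 : y + q = X x0 a b (z00 + x • r + v) + c := by
      rw [hqe, ← add_assoc, hy]
      congr 1
      have := X_add x0 a b (z00 + x • r) v 1
      rw [one_smul, one_smul] at this
      exact this.symm
    rw [e2, Q.rhs_add, Pi.add_apply, e1]
    have := hc w h
    linarith
  · -- active on the line
    obtain ⟨t, ht, ha, hb⟩ := hB w h
    have h00 := h.1
    -- position on the line
    have e1 : y (Q.hd w) = Q.rhs w y + Q.cst w := by
      rw [← e0, Q.rhs_add, Q.rhs_smul, Pi.add_apply, Pi.smul_apply, smul_eq_mul, h00,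
        Walls.rhs_Tn]
      have h3 : Tn a b r (Q.hd w) = a (Q.hd w) * r.1 + b (Q.hd w) * r.2 := rfl
      rw [h3]
      have h4 : lam.1 * r.1 + lam.2 * r.2 = 0 := hr
      have h5 : Q.rhs w a = a (Q.hd w) - t * lam.1 := by linarith
      have h6 : Q.rhs w b = b (Q.hd w) - t * lam.2 := by linarith
      rw [h5, h6]
      linear_combination (x * t) * h4
    have e2 : Q.rhs w (Tn a b v) - Tn a b v (Q.hd w) = t * (-lin lam v) := by
      rw [Walls.rhs_Tn]
      have h3 : Tn a b v (Q.hd w) = a (Q.hd w) * v.1 + b (Q.hd w) * v.2 := rfl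
      rw [h3]
      unfold lin
      linear_combination v.1 * ha + v.2 * hb
    have e3 := Walls.rhs_abs (Q := Q) w hcv
    have e4 : c (Q.hd w) ≤ κ0 * (-lin lam v) := (le_abs_self _).trans (hcv _)
    have e5 : κ0 * (1 + S w) * (-lin lam v) ≤ t * (-lin lam v) :=
      mul_le_mul_of_nonneg_right ht (by linarith)
    rw [hqe, Q.rhs_add, Q.rhs_add]
    simp only [Pi.add_apply]
    have e6 : κ0 * -lin lam v * ∑ s, (Q.co w s : ℝ) = κ0 * S w * (-lin lam v) := by
      simp only [hS]; ring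
    rw [e6] at e3
    nlinarith
  · exact h.le

/-- smaller `κ` -/
theorem Reg_mono {Lc : Set (ι → ℝ)} {κ κ' : ℝ} (h : κ ≤ κ') :
    Reg a b Lc lam κ ⊆ Reg a b Lc lam κ' := by
  rintro q ⟨w, c, hq, hw, hc, hcw⟩
  exact ⟨w, c, hq, hw, hc, fun i => (hcw i).trans (mul_le_mul_of_nonneg_right h (by linarith))⟩

theorem LegR_mono {P : Set (ι → ℝ)} {bb ρ : ι → ℝ} {A B : Set (ι → ℝ)} {U : Set ℝ} (h : A ⊆ B)
    (H : LegR P bb ρ B U) : LegR P bb ρ A U := by
  intro x₀ hx₀
  obtain ⟨δ, hδ, r, hr, h1⟩ := H x₀ hx₀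
  exact ⟨δ, hδ, r, hr, fun x hx c hc hcr => h1 x hx c (h hc) hcr⟩

end

/-! ### `Leg M R` -/

section

open Net191 (Mons Legal Leg)

variable {m : ℕ}

theorem leg_rwG (M : Mons m) {x0 a b : Fin m → ℝ} {g : Fin m → ℕ} {wv : ℕ → ℝ × ℝ}
    (hG : Dg262.Grp a b g wv) :
    Rb741.RW g a b ((mw M).L x0 a b) (fun i => i.val) ((mw M).rm g) :=
  Walls.rwG hG (mw_full M x0 a b)

theorem leg_legR' (M : Mons m) {R : ℝ} {x0 a b : Fin m → ℝ} {z00 r lam : ℝ × ℝ}
    (hr : lin lam r = 0) :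
    ∃ κ0 : ℝ, 0 < κ0 ∧ LegR (Leg M R) (X x0 a b z00) (Tn a b r)
      (Reg a b ((mw M).L x0 a b) lam κ0)
      ((mw M).UR (fun _ => 0) (fun _ => R) x0 a b z00 r lam) := by
  rw [← mw_P M R]
  exact Walls.legR' hr

theorem mem_mwUR {M : Mons m} {R : ℝ} {x0 a b : Fin m → ℝ} {z00 r lam : ℝ × ℝ} {ξ : ℝ} :
    ξ ∈ (mw M).UR (fun _ => 0) (fun _ => R) x0 a b z00 r lam ↔
    (∀ k, 0 < X x0 a b (z00 + ξ • r) k ∧ X x0 a b (z00 + ξ • r) k < R) ∧
    ∀ k, ∀ e ∈ M.mon k,
      (x0 k = ∑ s, (e s : ℝ) * x0 s ∧ a k = ∑ s, (e s : ℝ) * a s ∧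
        b k = ∑ s, (e s : ℝ) * b s) ∨
      (X x0 a b z00 k = ∑ s, (e s : ℝ) * X x0 a b z00 s ∧ ∃ t : ℝ, 0 < t ∧
        (∑ s, (e s : ℝ) * a s) - a k = -(t * lam.1) ∧
        (∑ s, (e s : ℝ) * b s) - b k = -(t * lam.2)) ∨
      X x0 a b (z00 + ξ • r) k < ∑ s, (e s : ℝ) * X x0 a b (z00 + ξ • r) s := by
  constructor
  · rintro ⟨h1, h2⟩
    refine ⟨h1, fun k e he => ?_⟩
    have := h2 ⟨k, e, he⟩
    simp only [Walls.Act, Walls.BAct, mw, Walls.rhs, add_zero] at this
    exact this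
  · rintro ⟨h1, h2⟩
    refine ⟨h1, fun w => ?_⟩
    have := h2 w.1 w.2.1 w.2.2
    simp only [Walls.Act, Walls.BAct, mw, Walls.rhs, add_zero]
    exact this

end

end Crest.Agent.R136.Dg219
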