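import Mathlib

/-!
# R136: general decoupling theorem, part 1 (helper262)

Profiles `ν : (ι → ℝ) → ℝ` (Lipschitz, supermodular on a legal set `P`) near a natural plane
`X z = x0 + a z.1 + b z.2`. The coordinates are grouped (`g : ι → ℕ`); for every group there is a
direction `w` of the plane which keeps the group fixed and raises all later groups.

`est` : the integral over a disc of the natural plane of a mixed increment (sizes `O(h)`) between
coordinates of two different groups is `O(h ^ 2)`.
-/

set_option autoImplicit false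
set_option linter.unusedSectionVars false
set_option linter.unusedSimpArgs false

open Set MeasureTheory Filter Topology Metric

namespace Crest.Agent.R136.Dg262

variable {ι : Type*} [Fintype ι] [DecidableEq ι]

/-- natural plane -/
def X (x0 a b : ι → ℝ) (z : ℝ × ℝ) : ι → ℝ := fun i => x0 i + a i * z.1 + b i * z.2

/-- increment -/
def Inc (ν : (ι → ℝ) → ℝ) (u p : ι → ℝ) : ℝ := ν p - ν (p + u)

/-- mixed increment -/
def Mix (ν : (ι → ℝ) → ℝ) (u v p : ι → ℝ) : ℝ := ν p + ν (p + u + v) - ν (p + u) - ν (p + v)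

/-- supermodularity on a set -/
def SupOn (ν : (ι → ℝ) → ℝ) (P : Set (ι → ℝ)) : Prop :=
  ∀ p ∈ P, ∀ q ∈ P, p ⊓ q ∈ P → p ⊔ q ∈ P → ν p + ν q ≤ ν (p ⊔ q) + ν (p ⊓ q)

/-- groups of coordinates with directions of the plane -/
structure Grp (a b : ι → ℝ) (g : ι → ℕ) (w : ℕ → ℝ × ℝ) : Prop where
  fix : ∀ i, a i * (w (g i)).1 + b i * (w (g i)).2 = 0
  up : ∀ i j, g i < g j → 0 < a j * (w (g i)).1 + b j * (w (g i)).2

theorem mix_eq (ν : (ι → ℝ) → ℝ) (u v p : ι → ℝ) :
    Mix ν u v p = Inc ν u p - Inc ν u (p + v) := by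
  unfold Mix Inc
  have : p + u + v = p + v + u := by abel
  rw [this]; ring

theorem mix_symm (ν : (ι → ℝ) → ℝ) (u v p : ι → ℝ) : Mix ν u v p = Mix ν v u p := by
  unfold Mix
  have : p + u + v = p + v + u := by abel
  rw [this]; ring

theorem mix_zero (ν : (ι → ℝ) → ℝ) (u p : ι → ℝ) : Mix ν u 0 p = 0 := by
  unfold Mix; simp

theorem mix_nonneg {ν : (ι → ℝ) → ℝ} {P : Set (ι → ℝ)} (hs : SupOn ν P) {u v p : ι → ℝ}
    (hu : ∀ l, 0 ≤ u l) (hv : ∀ l, 0 ≤ v l) (huv : ∀ l, u l = 0 ∨ v l = 0) (h0 : p ∈ P)
    (h1 : p + u ∈ P) (h2 : p + v ∈ P) (h3 : p + u + v ∈ P) : 0 ≤ Mix ν u v p := by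
  have e1 : (p + u) ⊓ (p + v) = p := by
    ext l
    simp only [Pi.inf_apply, Pi.add_apply]
    rcases huv l with h | h
    · rw [h, add_zero]; exact min_eq_left (by linarith [hv l])
    · rw [h, add_zero]; exact min_eq_right (by linarith [hu l])
  have e2 : (p + u) ⊔ (p + v) = p + u + v := by
    ext l
    simp only [Pi.sup_apply, Pi.add_apply]
    rcases huv l with h | h
    · rw [h, add_zero]; exact max_eq_right (by linarith [hv l])
    · rw [h, add_zero, add_zero]; exact max_eq_left (by linarith [hu l])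
  have := hs (p + u) h1 (p + v) h2 (by rw [e1]; exact h0) (by rw [e2]; exact h3)
  rw [e1, e2] at this
  unfold Mix; linarith

/-- an enumeration of the coordinates -/
noncomputable def rk (l : ι) : ℕ := (Fintype.equivFin ι l).val

theorem rk_lt (l : ι) : rk l < Fintype.card ι := (Fintype.equivFin ι l).isLt

theorem rk_inj {l m : ι} (h : rk l = rk m) : l = m :=
  (Fintype.equivFin ι).injective (Fin.ext h)

/-- partial vector: the first `m` coordinates of `v` -/
noncomputable def part (v : ι → ℝ) (m : ℕ) : ι → ℝ := fun l => if rk l < m then v l else 0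

theorem part_zero (v : ι → ℝ) : part v 0 = 0 := by ext l; simp [part]

theorem part_all (v : ι → ℝ) : part v (Fintype.card ι) = v := by ext l; simp [part, rk_lt]

theorem part_succ (v : ι → ℝ) (m : ι) :
    part v (rk m + 1) = part v (rk m) + Pi.single m (v m) := by
  ext l
  simp only [part, Pi.add_apply]
  by_cases h : l = m
  · subst h; simp
  · have h' : rk l ≠ rk m := fun e => h (rk_inj e)
    rw [Pi.single_eq_of_ne h, add_zero]
    by_cases h2 : rk l < rk m
    · rw [if_pos h2, if_pos (by omega)]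
    · rw [if_neg h2, if_neg (by omega)]

theorem mix_sum (ν : (ι → ℝ) → ℝ) (u v q : ι → ℝ) :
    Mix ν u v q = ∑ l : ι, Mix ν u (Pi.single l (v l)) (q + part v (rk l)) := by
  have h1 : ∀ l : ι, Mix ν u (Pi.single l (v l)) (q + part v (rk l)) =
      Inc ν u (q + part v (rk l)) - Inc ν u (q + part v (rk l + 1)) := by
    intro l
    rw [mix_eq, part_succ, add_assoc]
  rw [Finset.sum_congr rfl fun l _ => h1 l]
  have h2 : ∑ l : ι, (Inc ν u (q + part v (rk l)) - Inc ν u (q + part v (rk l + 1))) =
      ∑ m ∈ Finset.range (Fintype.card ι), (Inc ν u (q + part v m) - Inc ν u (q + part v (m + 1))) := by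
    rw [Finset.sum_range fun m => Inc ν u (q + part v m) - Inc ν u (q + part v (m + 1))]
    exact Equiv.sum_comp (Fintype.equivFin ι)
      fun m => Inc ν u (q + part v m.val) - Inc ν u (q + part v (m.val + 1))
  rw [h2, Finset.sum_range_sub', mix_eq, part_zero, part_all, add_zero]

/-! ### shift of an integral -/

theorem shift_est {F φ : ℝ × ℝ → ℝ} (hF : Continuous F) (hφ : Continuous φ) {z0 : ℝ × ℝ}
    {M L ρ S : ℝ} (hL0 : 0 ≤ L) (hM : ∀ z, |F z| ≤ M)
    (hL : ∀ z z', |φ z - φ z'| ≤ L * dist z z')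
    (hsupp : ∀ z, ρ < dist z z0 → φ z = 0) (σ : ℝ × ℝ) (hσ : ‖σ‖ ≤ S) :
    |∫ z, φ z * (F z - F (z + σ))| ≤ L * ‖σ‖ * M * volume.real (closedBall z0 (ρ + S)) := by
  have hcs : ∀ τ : ℝ × ℝ, ‖τ‖ ≤ S → ∀ G : ℝ × ℝ → ℝ, Continuous G →
      Integrable (fun z => φ (z - τ) * G z) := by
    intro τ hτ G hG
    apply Continuous.integrable_of_hasCompactSupport (by fun_prop)
    apply HasCompactSupport.intro (isCompact_closedBall z0 (ρ + S))
    intro z hz
    have : ρ < dist (z - τ) z0 := by
      simp only [mem_closedBall, not_le] at hz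
      have h1 : dist z z0 ≤ dist z (z - τ) + dist (z - τ) z0 := dist_triangle _ _ _
      have h2 : dist z (z - τ) = ‖τ‖ := by rw [dist_eq_norm]; congr 1; abel
      linarith
    rw [hsupp _ this, zero_mul]
  have hS0 : 0 ≤ S := (norm_nonneg σ).trans hσ
  have h0 : ‖(0 : ℝ × ℝ)‖ ≤ S := by simpa using hS0
  have i1 : Integrable (fun z => φ z * F z) := by simpa using hcs 0 h0 F hF
  have i2 : Integrable (fun z => φ z * F (z + σ)) := by
    simpa using hcs 0 h0 (fun z => F (z + σ)) (by fun_prop)
  have i3 : Integrable (fun z => φ (z - σ) * F z) := hcs σ hσ F hF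
  have e1 : ∫ z, φ z * F (z + σ) = ∫ z, φ (z - σ) * F z := by
    have := integral_sub_right_eq_self (μ := (volume : Measure (ℝ × ℝ)))
      (fun z => φ z * F (z + σ)) σ
    rw [← this]
    congr 1; ext z; simp
  have e2 : ∫ z, φ z * (F z - F (z + σ)) = ∫ z, (φ z - φ (z - σ)) * F z := by
    have h1 : ∫ z, φ z * (F z - F (z + σ)) = (∫ z, φ z * F z) - ∫ z, φ z * F (z + σ) := by
      rw [← integral_sub i1 i2]; congr 1; ext z; ring
    have h2 : ∫ z, (φ z - φ (z - σ)) * F z = (∫ z, φ z * F z) - ∫ z, φ (z - σ) * F z := by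
      rw [← integral_sub i1 i3]; congr 1; ext z; ring
    rw [h1, h2, e1]
  rw [e2]
  have e3 : ∫ z, (φ z - φ (z - σ)) * F z =
      ∫ z in closedBall z0 (ρ + S), (φ z - φ (z - σ)) * F z := by
    symm
    apply setIntegral_eq_integral_of_forall_compl_eq_zero
    intro z hz
    simp only [mem_closedBall, not_le] at hz
    have h1 : ρ < dist z z0 := by linarith
    have h2 : ρ < dist (z - σ) z0 := by
      have h1 : dist z z0 ≤ dist z (z - σ) + dist (z - σ) z0 := dist_triangle _ _ _
      have h2 : dist z (z - σ) = ‖σ‖ := by rw [dist_eq_norm]; congr 1; abel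
      linarith
    rw [hsupp _ h1, hsupp _ h2]; simp
  rw [e3]
  have := norm_setIntegral_le_of_norm_le_const (μ := (volume : Measure (ℝ × ℝ)))
    (s := closedBall z0 (ρ + S)) (f := fun z => (φ z - φ (z - σ)) * F z) (C := L * ‖σ‖ * M)
    (isCompact_closedBall z0 (ρ + S)).measure_lt_top (by
      intro z _
      rw [Real.norm_eq_abs, abs_mul]
      have h1 := hL z (z - σ)
      have h2 : dist z (z - σ) = ‖σ‖ := by rw [dist_eq_norm]; congr 1; abel
      rw [h2] at h1
      exact mul_le_mul h1 (hM z) (abs_nonneg _) (by positivity))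
  rwa [Real.norm_eq_abs] at this

/-- tent function: `1` on the ball of radius `r`, `0` outside the ball of radius `r1` -/
noncomputable def tent (z0 : ℝ × ℝ) (r r1 : ℝ) (z : ℝ × ℝ) : ℝ := max 0 (min 1 ((r1 - dist z z0) / (r1 - r)))

theorem tent_cont (z0 : ℝ × ℝ) (r r1 : ℝ) : Continuous (tent z0 r r1) := by
  unfold tent; fun_prop

theorem tent_nonneg (z0 : ℝ × ℝ) (r r1 : ℝ) (z : ℝ × ℝ) : 0 ≤ tent z0 r r1 z := le_max_left _ _

theorem tent_le_one (z0 : ℝ × ℝ) (r r1 : ℝ) (z : ℝ × ℝ) : tent z0 r r1 z ≤ 1 :=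
  max_le zero_le_one (min_le_left _ _)

theorem tent_eq_one {z0 : ℝ × ℝ} {r r1 : ℝ} (h : r < r1) {z : ℝ × ℝ} (hz : dist z z0 ≤ r) :
    tent z0 r r1 z = 1 := by
  unfold tent
  rw [min_eq_left, max_eq_right zero_le_one]
  rw [le_div_iff₀ (by linarith)]; linarith

theorem tent_eq_zero {z0 : ℝ × ℝ} {r r1 : ℝ} (h : r < r1) {z : ℝ × ℝ} (hz : r1 < dist z z0) :
    tent z0 r r1 z = 0 := by
  unfold tent
  apply max_eq_left
  apply (min_le_right _ _).trans
  exact div_nonpos_of_nonpos_of_nonneg (by linarith) (by linarith)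

theorem tent_lip (z0 : ℝ × ℝ) {r r1 : ℝ} (h : r < r1) (z z' : ℝ × ℝ) :
    |tent z0 r r1 z - tent z0 r r1 z'| ≤ 1 / (r1 - r) * dist z z' := by
  unfold tent
  have hpos : 0 < r1 - r := by linarith
  refine (abs_max_sub_max_le_max _ _ _ _).trans ?_
  rw [sub_self, abs_zero]
  apply max_le (by positivity)
  refine (abs_min_sub_min_le_max _ _ _ _).trans ?_
  rw [sub_self, abs_zero]
  apply max_le (by positivity)
  rw [← sub_div, abs_div, abs_of_pos hpos, div_le_iff₀ hpos]
  have : |dist z' z0 - dist z z0| ≤ dist z' z := abs_dist_sub_le _ _ _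
  rw [dist_comm z' z] at this
  calc |r1 - dist z z0 - (r1 - dist z' z0)| = |dist z' z0 - dist z z0| := by congr 1; ring
    _ ≤ dist z z' := this
    _ = 1 / (r1 - r) * dist z z' * (r1 - r) := by field_simp


/-! ### the core estimate -/

/-- speed of the coordinate `l` in the direction of the group `k` -/
def Sp (a b : ι → ℝ) (w : ℕ → ℝ × ℝ) (k : ℕ) (l : ι) : ℝ := a l * (w k).1 + b l * (w k).2

/-- legality of the boxes of relative radius `η` around the offset `c`, over a disc -/
def LegB (P : Set (ι → ℝ)) (x0 a b : ι → ℝ) (z0 : ℝ × ℝ) (R h0 : ℝ) (c : ι → ℝ)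
    (η : ℝ) : Prop :=
  ∀ z ∈ closedBall z0 R, ∀ h, 0 < h → h ≤ h0 → ∀ p : ι → ℝ,
    (∀ l, |p l - (X x0 a b z l + h * c l)| ≤ η * h) → p ∈ P

theorem LegB.mono {P : Set (ι → ℝ)} {x0 a b : ι → ℝ} {z0 : ℝ × ℝ} {R h0 : ℝ}
    {c c' : ι → ℝ} {η η' : ℝ} (h : LegB P x0 a b z0 R h0 c η)
    (hc : ∀ l, |c' l - c l| ≤ η - η') : LegB P x0 a b z0 R h0 c' η' := by
  intro z hz t ht ht0 p hp
  refine h z hz t ht ht0 p fun l => ?_
  have h1 := hp l
  have h2 := hc l
  have h3 : |t * c' l - t * c l| ≤ t * (η - η') := by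
    rw [← mul_sub, abs_mul, abs_of_pos ht]; exact mul_le_mul_of_nonneg_left h2 ht.le
  calc |p l - (X x0 a b z l + t * c l)|
      = |(p l - (X x0 a b z l + t * c' l)) + (t * c' l - t * c l)| := by congr 1; ring
    _ ≤ η' * t + t * (η - η') := (abs_add_le _ _).trans (add_le_add h1 h3)
    _ = η * t := by ring

theorem X_cont (x0 a b : ι → ℝ) : Continuous (X x0 a b) := by
  unfold X; fun_prop

/-- raised coordinates of the later groups -/
noncomputable def upv (a b : ι → ℝ) (g : ι → ℕ) (w : ℕ → ℝ × ℝ) (k : ℕ) (B : ℝ) : ι → ℝ :=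
  fun l => if k < g l then B * Sp a b w k l else 0

/-- positive part of the move of the earlier groups -/
noncomputable def rpv (a b : ι → ℝ) (g : ι → ℕ) (w : ℕ → ℝ × ℝ) (k : ℕ) (B : ℝ) : ι → ℝ :=
  fun l => if g l < k then B * max (Sp a b w k l) 0 else 0

/-- negative part of the move of the earlier groups -/
noncomputable def rnv (a b : ι → ℝ) (g : ι → ℕ) (w : ℕ → ℝ × ℝ) (k : ℕ) (B : ℝ) : ι → ℝ :=
  fun l => if g l < k then B * max (-Sp a b w k l) 0 else 0

theorem X_shift {a b : ι → ℝ} {g : ι → ℕ} {w : ℕ → ℝ × ℝ} (hG : Grp a b g w)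
    (x0 : ι → ℝ) (i : ι) (B h : ℝ) (z : ℝ × ℝ) (c : ι → ℝ) :
    X x0 a b (z + (h * B) • w (g i)) + h • c = X x0 a b z + h • c +
      h • (upv a b g w (g i) B + rpv a b g w (g i) B - rnv a b g w (g i) B) := by
  ext l
  simp only [X, upv, rpv, rnv, Pi.add_apply, Pi.smul_apply, Pi.sub_apply, smul_eq_mul, Prod.fst_add,
    Prod.snd_add, Prod.smul_fst, Prod.smul_snd]
  rcases lt_trichotomy (g i) (g l) with h1 | h1 | h1
  · rw [if_pos h1, if_neg (by omega), if_neg (by omega)]
    unfold Sp; ring
  · rw [if_neg (by omega), if_neg (by omega), if_neg (by omega)]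
    have := hG.fix l
    rw [← h1] at this
    linear_combination (h * B) * this
  · rw [if_neg (by omega), if_pos h1, if_pos h1]
    have : max (Sp a b w (g i) l) 0 - max (-Sp a b w (g i) l) 0 = Sp a b w (g i) l := by
      rcases le_total 0 (Sp a b w (g i) l) with h2 | h2
      · rw [max_eq_left h2, max_eq_right (by linarith), sub_zero]
      · rw [max_eq_right h2, max_eq_left (by linarith)]; ring
    unfold Sp at this ⊢
    linear_combination (-h * B) * this

theorem single_nonneg {i : ι} {t : ℝ} (ht : 0 ≤ t) (l : ι) :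
    0 ≤ (Pi.single i t : ι → ℝ) l := by
  by_cases h : l = i
  · subst h; simpa using ht
  · rw [Pi.single_eq_of_ne h]

theorem key {ν : (ι → ℝ) → ℝ} {P : Set (ι → ℝ)} (hs : SupOn ν P) {x0 a b : ι → ℝ}
    {g : ι → ℕ} {w : ℕ → ℝ × ℝ} (hG : Grp a b g w) {κ : ℝ} (hκ1 : 1 ≤ κ)
    (hκ : ∀ i j l, g i < g j → |Sp a b w (g i) l| ≤ κ * Sp a b w (g i) j)
    {z0 : ℝ × ℝ} {R h0 : ℝ} {c : ι → ℝ} {η δ : ℝ} (hδ : 0 ≤ δ) (hη : κ * δ ≤ η)
    (hL : LegB P x0 a b z0 R h0 c η) {i j : ι} (hij : g i < g j) {α β : ℝ} (hα : 0 ≤ α)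
    (hαδ : α ≤ δ) (hβ : 0 ≤ β) (hβδ : β ≤ δ) {z : ℝ × ℝ} (hz : z ∈ closedBall z0 R) {h : ℝ}
    (hh : 0 < h) (hh0 : h ≤ h0) :
    Mix ν (Pi.single i (α * h)) (Pi.single j (β * h)) (X x0 a b z + h • c) ≤
      (Inc ν (Pi.single i (α * h)) (X x0 a b z + h • c) -
        Inc ν (Pi.single i (α * h)) (X x0 a b (z + (h * (β / Sp a b w (g i) j)) • w (g i)) + h • c)) +
      ∑ l : ι, Mix ν (Pi.single i (α * h))
        (Pi.single l (rnv a b g w (g i) (β / Sp a b w (g i) j) l * h))
        (X x0 a b z + h • (c + upv a b g w (g i) (β / Sp a b w (g i) j)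
          - rnv a b g w (g i) (β / Sp a b w (g i) j)
          + part (rnv a b g w (g i) (β / Sp a b w (g i) j)) (rk l))) := by
  set k := g i with hk
  have hDj : 0 < Sp a b w k j := hG.up i j hij
  set B := β / Sp a b w k j with hB
  have hB0 : 0 ≤ B := div_nonneg hβ hDj.le
  have hBj : B * Sp a b w k j = β := by rw [hB]; field_simp
  have hκδ : 0 ≤ κ * δ := mul_nonneg (by linarith) hδ
  have hBl : ∀ l, B * |Sp a b w k l| ≤ κ * δ := by
    intro l
    calc B * |Sp a b w k l| ≤ B * (κ * Sp a b w k j) := mul_le_mul_of_nonneg_left (hκ i j l hij) hB0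
      _ = κ * β := by rw [← hBj]; ring
      _ ≤ κ * δ := mul_le_mul_of_nonneg_left hβδ (by linarith)
  set up := upv a b g w k B with hup
  set rp := rpv a b g w k B with hrp
  set rn := rnv a b g w k B with hrn
  have up0 : ∀ l, 0 ≤ up l := by
    intro l
    simp only [hup, upv]
    split_ifs with h1
    · exact mul_nonneg hB0 (hG.up i l h1).le
    · exact le_rfl
  have rp0 : ∀ l, 0 ≤ rp l := by
    intro l
    simp only [hrp, rpv]
    split_ifs with h1
    · exact mul_nonneg hB0 (le_max_right _ _)
    · exact le_rfl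
  have rn0 : ∀ l, 0 ≤ rn l := by
    intro l
    simp only [hrn, rnv]
    split_ifs with h1
    · exact mul_nonneg hB0 (le_max_right _ _)
    · exact le_rfl
  have upi : up i = 0 := by simp [hup, upv, hk]
  have rpi : rp i = 0 := by simp [hrp, rpv, hk]
  have rni : rn i = 0 := by simp [hrn, rnv, hk]
  -- all moves stay in the legal box
  have upB : ∀ l, up l ≤ κ * δ := by
    intro l
    simp only [hup, upv]
    split_ifs with h1
    · exact (mul_le_mul_of_nonneg_left (le_abs_self _) hB0).trans (hBl l)
    · exact hκδ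
  have rpB : ∀ l, rp l ≤ κ * δ := by
    intro l
    simp only [hrp, rpv]
    split_ifs with h1
    · exact (mul_le_mul_of_nonneg_left (max_le (le_abs_self _) (abs_nonneg _)) hB0).trans (hBl l)
    · exact hκδ
  have rnB : ∀ l, rn l ≤ κ * δ := by
    intro l
    simp only [hrn, rnv]
    split_ifs with h1
    · exact (mul_le_mul_of_nonneg_left (max_le (neg_le_abs _) (abs_nonneg _)) hB0).trans (hBl l)
    · exact hκδ
  have disj : ∀ l, (up l = 0 ∨ g l > k) ∧ ((rp l = 0 ∧ rn l = 0) ∨ g l < k) := by
    intro l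
    constructor
    · by_cases h1 : k < g l
      · exact Or.inr h1
      · left; simp [hup, upv, h1]
    · by_cases h1 : g l < k
      · exact Or.inr h1
      · left; constructor
        · simp [hrp, rpv, h1]
        · simp [hrn, rnv, h1]
  have hαh : 0 ≤ α * h := mul_nonneg hα hh.le
  have hβh : 0 ≤ β * h := mul_nonneg hβ hh.le
  set p := X x0 a b z + h • c with hp
  set u : ι → ℝ := Pi.single i (α * h) with hu
  set v : ι → ℝ := Pi.single j (β * h) with hv
  have hij' : i ≠ j := by rintro rfl; omega
  -- membership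
  have mem : ∀ s : ι → ℝ, (∀ l, |s l| ≤ κ * δ) → p + h • s ∈ P := by
    intro s hsl
    refine hL z hz h hh hh0 _ fun l => ?_
    have e1 : (p + h • s) l - (X x0 a b z l + h * c l) = h * s l := by
      simp [hp]
    rw [e1, abs_mul, abs_of_pos hh, mul_comm]
    exact mul_le_mul_of_nonneg_right ((hsl l).trans hη) hh.le
  have eu : u = h • (Pi.single i α : ι → ℝ) := by
    ext l
    by_cases h1 : l = i
    · subst h1; simp [hu, mul_comm]
    · simp [hu, Pi.single_eq_of_ne h1]
  have ev : v = h • (Pi.single j β : ι → ℝ) := by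
    ext l
    by_cases h1 : l = j
    · subst h1; simp [hv, mul_comm]
    · simp [hv, Pi.single_eq_of_ne h1]
  have sα : ∀ l, (Pi.single i α : ι → ℝ) l = if l = i then α else 0 := by
    intro l; by_cases h1 : l = i
    · subst h1; simp
    · simp [Pi.single_eq_of_ne h1, h1]
  have sβ : ∀ l, (Pi.single j β : ι → ℝ) l = if l = j then β else 0 := by
    intro l; by_cases h1 : l = j
    · subst h1; simp
    · simp [Pi.single_eq_of_ne h1, h1]
  have αk : α ≤ κ * δ := by nlinarith
  have βk : β ≤ κ * δ := by nlinarith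
  have upj : up j = β := by
    simp only [hup, upv, if_pos hij, hBj]
  have giu : ∀ l, g l > k → l ≠ i := by rintro l h1 rfl; omega
  have gil : ∀ l, g l < k → l ≠ i := by rintro l h1 rfl; omega
  -- step b
  have sb : Inc ν u (p + h • up) ≤ Inc ν u (p + v) := by
    have h1 := mix_nonneg (ν := ν) hs (u := u) (v := h • up - v) (p := p + v)
      (fun l => single_nonneg hαh l) (by
        intro l
        simp only [Pi.sub_apply, Pi.smul_apply, smul_eq_mul]
        by_cases h2 : l = j
        · subst h2
          rw [hv, Pi.single_eq_same, upj]; nlinarith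
        · rw [hv, Pi.single_eq_of_ne h2, sub_zero]
          exact mul_nonneg hh.le (up0 l)) (by
        intro l
        by_cases h2 : l = i
        · right
          subst h2
          simp only [Pi.sub_apply, Pi.smul_apply, smul_eq_mul]
          rw [upi, hv, Pi.single_eq_of_ne hij']; ring
        · left; rw [hu, Pi.single_eq_of_ne h2]) (by
        rw [ev]
        refine mem _ fun l => ?_
        rw [sβ]; split_ifs
        · rw [abs_of_nonneg hβ]; exact βk
        · simpa using hκδ) (by
        rw [ev, eu, add_assoc, ← smul_add]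
        refine mem _ fun l => ?_
        rw [Pi.add_apply, sβ, sα]
        by_cases h2 : l = j
        · rw [if_pos h2, if_neg (by rintro rfl; exact hij' h2), add_zero, abs_of_nonneg hβ]; exact βk
        · rw [if_neg h2, zero_add]
          split_ifs
          · rw [abs_of_nonneg hα]; exact αk
          · simpa using hκδ) (by
        have : p + v + (h • up - v) = p + h • up := by abel
        rw [this]
        refine mem _ fun l => ?_
        rw [abs_of_nonneg (up0 l)]; exact upB l) (by
        have : p + v + u + (h • up - v) = p + h • (up + Pi.single i α) := by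
          rw [smul_add, ← eu]; abel
        rw [this]
        refine mem _ fun l => ?_
        rw [Pi.add_apply, sα]
        by_cases h2 : l = i
        · subst h2; rw [upi, if_pos rfl, zero_add, abs_of_nonneg hα]; exact αk
        · rw [if_neg h2, add_zero, abs_of_nonneg (up0 l)]; exact upB l)
    rw [mix_eq] at h1
    have : p + v + (h • up - v) = p + h • up := by abel
    rw [this] at h1
    linarith
  -- step c
  have sc : Inc ν u (p + h • (up + rp - rn)) ≤ Inc ν u (p + h • (up - rn)) := by
    have e1 : p + h • (up - rn) + h • rp = p + h • (up + rp - rn) := by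
      rw [add_assoc, ← smul_add]; congr 2; abel
    have h1 := mix_nonneg (ν := ν) hs (u := u) (v := h • rp) (p := p + h • (up - rn))
      (fun l => single_nonneg hαh l)
      (fun l => by simp only [Pi.smul_apply, smul_eq_mul]; exact mul_nonneg hh.le (rp0 l)) (by
        intro l
        by_cases h2 : l = i
        · right; subst h2; simp only [Pi.smul_apply, smul_eq_mul]; rw [rpi, mul_zero]
        · left; rw [hu, Pi.single_eq_of_ne h2]) (by
        refine mem _ fun l => ?_
        rw [Pi.sub_apply]
        rcases (disj l).1 with h2 | h2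
        · rw [h2, zero_sub, abs_neg, abs_of_nonneg (rn0 l)]; exact rnB l
        · have h3 : rn l = 0 := by
            rcases (disj l).2 with h4 | h4
            · exact h4.2
            · omega
          rw [h3, sub_zero, abs_of_nonneg (up0 l)]; exact upB l) (by
        rw [eu, add_assoc, ← smul_add]
        refine mem _ fun l => ?_
        rw [Pi.add_apply, Pi.sub_apply, sα]
        by_cases h5 : l = i
        · subst h5; rw [upi, rni, if_pos rfl]; simp only [sub_zero, zero_add]
          rw [abs_of_nonneg hα]; exact αk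
        rw [if_neg h5, add_zero]
        rcases (disj l).1 with h2 | h2
        · rw [h2, zero_sub, abs_neg, abs_of_nonneg (rn0 l)]; exact rnB l
        · have h3 : rn l = 0 := by
            rcases (disj l).2 with h4 | h4
            · exact h4.2
            · omega
          rw [h3, sub_zero, abs_of_nonneg (up0 l)]; exact upB l) (by
        rw [e1]
        refine mem _ fun l => ?_
        rw [Pi.sub_apply, Pi.add_apply]
        rcases (disj l).1 with h2 | h2
        · rw [h2, zero_add, abs_le]
          have := rn0 l; have := rp0 l; have := rnB l; have := rpB l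
          constructor <;> linarith
        · have h3 : rp l = 0 ∧ rn l = 0 := by
            rcases (disj l).2 with h4 | h4
            · exact h4
            · omega
          rw [h3.1, h3.2, sub_zero, add_zero, abs_of_nonneg (up0 l)]; exact upB l) (by
        have e2 : p + h • (up - rn) + u + h • rp = p + h • (up + rp - rn + Pi.single i α) := by
          rw [add_right_comm, e1, eu, add_assoc, ← smul_add]
        rw [e2]
        refine mem _ fun l => ?_
        rw [Pi.add_apply, Pi.sub_apply, Pi.add_apply, sα]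
        by_cases h5 : l = i
        · subst h5; rw [upi, rni, rpi, if_pos rfl]; simp only [sub_zero, zero_add]
          rw [abs_of_nonneg hα]; exact αk
        rw [if_neg h5, add_zero]
        rcases (disj l).1 with h2 | h2
        · rw [h2, zero_add, abs_le]
          have := rn0 l; have := rp0 l; have := rnB l; have := rpB l
          constructor <;> linarith
        · have h3 : rp l = 0 ∧ rn l = 0 := by
            rcases (disj l).2 with h4 | h4
            · exact h4
            · omega
          rw [h3.1, h3.2, sub_zero, add_zero, abs_of_nonneg (up0 l)]; exact upB l)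
    rw [mix_eq, e1] at h1
    linarith
  -- step d
  have e3 : p + h • (up - rn) + h • rn = p + h • up := by
    rw [add_assoc, ← smul_add, sub_add_cancel]
  have sd : Inc ν u (p + h • (up - rn)) - Inc ν u (p + h • up) = Mix ν u (h • rn) (p + h • (up - rn)) := by
    rw [mix_eq, e3]
  have se : Mix ν u (h • rn) (p + h • (up - rn)) = ∑ l : ι, Mix ν u (Pi.single l (rn l * h))
        (X x0 a b z + h • (c + up - rn + part rn (rk l))) := by
    rw [mix_sum]
    refine Finset.sum_congr rfl fun l _ => ?_
    have e4 : (h • rn) l = rn l * h := by simp [mul_comm]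
    have e5 : p + h • (up - rn) + part (h • rn) (rk l) =
        X x0 a b z + h • (c + up - rn + part rn (rk l)) := by
      have e6 : part (h • rn) (rk l) = h • part rn (rk l) := by
        ext m; simp only [part, Pi.smul_apply, smul_eq_mul]; split_ifs <;> simp
      rw [e6, hp]
      simp only [smul_add, smul_sub]
      abel
    rw [e4, e5]
  have sh : X x0 a b (z + (h * B) • w k) + h • c = p + h • (up + rp - rn) := by
    rw [hk]; exact X_shift hG x0 i B h z c
  rw [sh, ← se, ← sd, mix_eq]
  linarith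

end Crest.Agent.R136.Dg262
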