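import Mathlib
import Crest.Agent.R136.Dg1_262

/-!
# R136: general decoupling theorem, part 2 (helper262)

`est` : the integral over a disc of the natural plane of a mixed increment (sizes `O(h)`) between
coordinates of two different groups is `O(h ^ 2)`; `ae_small` : hence, at almost every point of the
disc, the mixed increment is `o(h)`.
-/

set_option autoImplicit false
set_option linter.unusedSectionVars false

open Set MeasureTheory Filter Topology Metric

namespace Crest.Agent.R136.Dg262

variable {ι : Type*} [Fintype ι] [DecidableEq ι]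

/-- constants of the induction -/
noncomputable def Nc (κ : ℝ) : ℕ → ℝ
  | 0 => 1
  | m + 1 => κ * (Nc κ m + 1)

theorem Nc_ge {κ : ℝ} (hκ : 1 ≤ κ) (m : ℕ) : 1 ≤ Nc κ m := by
  induction m with
  | zero => exact le_rfl
  | succ m ih =>
    change 1 ≤ κ * (Nc κ m + 1)
    nlinarith

theorem single_abs {i : ι} {t : ℝ} (ht : 0 ≤ t) (l : ι) : |(Pi.single i t : ι → ℝ) l| ≤ t := by
  by_cases h : l = i
  · subst h; simp [abs_of_nonneg ht]
  · rw [Pi.single_eq_of_ne h]; simpa using ht

theorem mix_nonneg_leg {ν : (ι → ℝ) → ℝ} {P : Set (ι → ℝ)} (hs : SupOn ν P) {x0 a b : ι → ℝ}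
    {z0 : ℝ × ℝ} {R h0 : ℝ} {c : ι → ℝ} {η : ℝ} (hL : LegB P x0 a b z0 R h0 c η) {i j : ι}
    (hij : i ≠ j) {α β : ℝ} (hα : 0 ≤ α) (hαη : α ≤ η) (hβ : 0 ≤ β) (hβη : β ≤ η) {z : ℝ × ℝ}
    (hz : z ∈ closedBall z0 R) {h : ℝ} (hh : 0 < h) (hh0 : h ≤ h0) :
    0 ≤ Mix ν (Pi.single i (α * h)) (Pi.single j (β * h)) (X x0 a b z + h • c) := by
  have hαh : 0 ≤ α * h := mul_nonneg hα hh.le
  have hβh : 0 ≤ β * h := mul_nonneg hβ hh.le
  have mem : ∀ s : ι → ℝ, (∀ l, |s l| ≤ η * h) → X x0 a b z + h • c + s ∈ P := by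
    intro s hsl
    refine hL z hz h hh hh0 _ fun l => ?_
    have e1 : (X x0 a b z + h • c + s) l - (X x0 a b z l + h * c l) = s l := by
      simp
    rw [e1]; exact hsl l
  have hη : 0 ≤ η * h := mul_nonneg (hα.trans hαη) hh.le
  have k1 : α * h ≤ η * h := mul_le_mul_of_nonneg_right hαη hh.le
  have k2 : β * h ≤ η * h := mul_le_mul_of_nonneg_right hβη hh.le
  refine mix_nonneg hs (fun l => single_nonneg hαh l) (fun l => single_nonneg hβh l) ?_ ?_ ?_ ?_ ?_
  · intro l
    by_cases h1 : l = i
    · right; subst h1; rw [Pi.single_eq_of_ne hij]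
    · left; rw [Pi.single_eq_of_ne h1]
  · have := mem 0 (fun l => by simpa using hη)
    rwa [add_zero] at this
  · exact mem _ fun l => (single_abs hαh l).trans k1
  · exact mem _ fun l => (single_abs hβh l).trans k2
  · rw [add_assoc]
    refine mem _ fun l => ?_
    rw [Pi.add_apply]
    by_cases h1 : l = i
    · subst h1
      rw [Pi.single_eq_same, Pi.single_eq_of_ne hij, add_zero, abs_of_nonneg hαh]; exact k1
    · rw [Pi.single_eq_of_ne h1, zero_add]; exact (single_abs hβh l).trans k2

theorem tent_integrable {G : ℝ × ℝ → ℝ} (hG : Continuous G) {z0 : ℝ × ℝ} {r r1 : ℝ} (h : r < r1) :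
    Integrable (fun z => tent z0 r r1 z * G z) := by
  have hc : Continuous fun z => tent z0 r r1 z * G z := (tent_cont z0 r r1).mul hG
  apply hc.integrable_of_hasCompactSupport
  apply HasCompactSupport.intro (isCompact_closedBall z0 r1)
  intro z hz
  simp only [mem_closedBall, not_le] at hz
  rw [tent_eq_zero h hz, zero_mul]

theorem tent_int {G : ℝ × ℝ → ℝ} (hG : Continuous G) {z0 : ℝ × ℝ} {r r1 : ℝ} (h : r < r1)
    (h0 : ∀ z ∈ closedBall z0 r1, 0 ≤ G z) :
    ∫ z in closedBall z0 r, G z ≤ ∫ z, tent z0 r r1 z * G z ∧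
      ∫ z, tent z0 r r1 z * G z ≤ ∫ z in closedBall z0 r1, G z := by
  have e1 : ∫ z, tent z0 r r1 z * G z = ∫ z in closedBall z0 r1, tent z0 r r1 z * G z := by
    symm
    apply setIntegral_eq_integral_of_forall_compl_eq_zero
    intro z hz
    simp only [mem_closedBall, not_le] at hz
    rw [tent_eq_zero h hz, zero_mul]
  have i1 := (tent_integrable hG h (z0 := z0)).integrableOn (s := closedBall z0 r1)
  have i2 : IntegrableOn G (closedBall z0 r1) :=
    hG.continuousOn.integrableOn_compact (isCompact_closedBall z0 r1)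
  constructor
  · have e2 : ∫ z in closedBall z0 r, G z = ∫ z in closedBall z0 r, tent z0 r r1 z * G z := by
      apply setIntegral_congr_fun measurableSet_closedBall
      intro z hz
      simp only
      rw [tent_eq_one h (mem_closedBall.1 hz), one_mul]
    rw [e1, e2]
    apply setIntegral_mono_set i1
    · rw [EventuallyLE, ae_restrict_iff' measurableSet_closedBall]
      exact ae_of_all _ fun z hz => mul_nonneg (tent_nonneg _ _ _ _) (h0 z hz)
    · exact (closedBall_subset_closedBall h.le).eventuallyLE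
  · rw [e1]
    apply setIntegral_mono_on i1 i2 measurableSet_closedBall
    intro z hz
    have := mul_le_mul_of_nonneg_right (tent_le_one z0 r r1 z) (h0 z hz)
    linarith

theorem est {ν : (ι → ℝ) → ℝ} {P : Set (ι → ℝ)} {K : ℝ} (hK : 0 ≤ K)
    (hν : ∀ p q, |ν p - ν q| ≤ K * dist p q) (hs : SupOn ν P) {x0 a b : ι → ℝ}
    {g : ι → ℕ} {w : ℕ → ℝ × ℝ} (hG : Grp a b g w) {κ : ℝ} (hκ1 : 1 ≤ κ)
    (hκ : ∀ i j l, g i < g j → |Sp a b w (g i) l| ≤ κ * Sp a b w (g i) j)
    {z0 : ℝ × ℝ} {R h0 : ℝ} (m : ℕ) :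
    ∀ i j, g i < m → g i < g j → ∀ c η δ, 0 ≤ δ → Nc κ m * δ ≤ η → LegB P x0 a b z0 R h0 c η →
      ∀ α β, 0 ≤ α → α ≤ δ → 0 ≤ β → β ≤ δ → ∀ r < R, ∃ C, 0 ≤ C ∧ ∀ h, 0 < h → h ≤ h0 →
        ∫ z in closedBall z0 r,
          Mix ν (Pi.single i (α * h)) (Pi.single j (β * h)) (X x0 a b z + h • c) ≤ C * h ^ 2 := by
  have hνc : Continuous ν := by
    have : LipschitzWith ⟨K, hK⟩ ν := LipschitzWith.of_dist_le_mul fun p q => by
      rw [Real.dist_eq]; exact hν p q
    exact this.continuous
  have hMc : ∀ (u v c : ι → ℝ) (h : ℝ), Continuous fun z => Mix ν u v (X x0 a b z + h • c) := by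
    intro u v c h
    have := X_cont x0 a b
    unfold Mix; fun_prop
  have hIc : ∀ (u c : ι → ℝ) (h : ℝ), Continuous fun z => Inc ν u (X x0 a b z + h • c) := by
    intro u c h
    have := X_cont x0 a b
    unfold Inc; fun_prop
  induction m with
  | zero => intro i j hi; omega
  | succ m ih =>
    intro i j him hij c η δ hδ hNδ hL α β hα hαδ hβ hβδ r hr
    have hN1 := Nc_ge hκ1 m
    have hNs : Nc κ (m + 1) = κ * (Nc κ m + 1) := rfl
    rw [hNs] at hNδ
    have hκδ0 : 0 ≤ κ * δ := mul_nonneg (by linarith) hδ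
    have hκδ : κ * δ ≤ η := by nlinarith
    have hNκ : Nc κ m * (κ * δ) ≤ η - κ * δ := by nlinarith
    have hκδ2 : κ * δ ≤ η - κ * δ := by nlinarith
    have hδκ : δ ≤ κ * δ := by nlinarith
    set r1 := (r + R) / 2 with hr1
    have hrr1 : r < r1 := by rw [hr1]; linarith
    have hr1R : r1 < R := by rw [hr1]; linarith
    have hDj : 0 < Sp a b w (g i) j := hG.up i j hij
    set B := β / Sp a b w (g i) j with hB
    have hB0 : 0 ≤ B := div_nonneg hβ hDj.le
    have hBj : B * Sp a b w (g i) j = β := by rw [hB]; field_simp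
    have hBl : ∀ l, B * |Sp a b w (g i) l| ≤ κ * δ := by
      intro l
      calc B * |Sp a b w (g i) l| ≤ B * (κ * Sp a b w (g i) j) :=
            mul_le_mul_of_nonneg_left (hκ i j l hij) hB0
        _ = κ * β := by rw [← hBj]; ring
        _ ≤ κ * δ := mul_le_mul_of_nonneg_left hβδ (by linarith)
    set up := upv a b g w (g i) B with hup
    set rn := rnv a b g w (g i) B with hrn
    have rn0 : ∀ l, 0 ≤ rn l := by
      intro l
      simp only [hrn, rnv]
      split_ifs with h1
      · exact mul_nonneg hB0 (le_max_right _ _)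
      · exact le_rfl
    have rnB : ∀ l, rn l ≤ κ * δ := by
      intro l
      simp only [hrn, rnv]
      split_ifs with h1
      · exact (mul_le_mul_of_nonneg_left (max_le (neg_le_abs _) (abs_nonneg _)) hB0).trans (hBl l)
      · exact hκδ0
    -- the offset of the `l`-th restoring term
    set c' : ι → ι → ℝ := fun l => c + up - rn + part rn (rk l) with hc'
    have hc'd : ∀ l q, |c' l q - c q| ≤ κ * δ := by
      intro l q
      have e1 : c' l q - c q = up q + (part rn (rk l) q - rn q) := by
        simp only [hc', Pi.add_apply, Pi.sub_apply]; ring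
      rw [e1]
      have e2 : |part rn (rk l) q - rn q| ≤ κ * δ := by
        unfold part
        split_ifs with h1
        · simpa using hκδ0
        · rw [zero_sub, abs_neg, abs_of_nonneg (rn0 q)]; exact rnB q
      by_cases h1 : g i < g q
      · have e3 : rn q = 0 := by simp [hrn, rnv]; omega
        have e4 : part rn (rk l) q = 0 := by unfold part; rw [e3]; simp
        rw [e3, e4, sub_zero, add_zero]
        simp only [hup, upv, if_pos h1]
        rw [abs_mul, abs_of_nonneg hB0]; exact hBl q
      · have e3 : up q = 0 := by simp [hup, upv, h1]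
        rw [e3, zero_add]; exact e2
    have hL' : ∀ l, LegB P x0 a b z0 R h0 (c' l) (η - κ * δ) := by
      intro l
      exact hL.mono fun q => by
        have := hc'd l q
        linarith
    have hl : ∀ l, ∃ C, 0 ≤ C ∧ ∀ h, 0 < h → h ≤ h0 →
        ∫ z in closedBall z0 r1, Mix ν (Pi.single i (α * h)) (Pi.single l (rn l * h))
          (X x0 a b z + h • c' l) ≤ C * h ^ 2 := by
      intro l
      by_cases h1 : g l < g i
      · obtain ⟨C, hC0, hC⟩ := ih l i (by omega) h1 (c' l) (η - κ * δ) (κ * δ) hκδ0 hNκ (hL' l)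
          (rn l) α (rn0 l) (rnB l) hα (hαδ.trans hδκ) r1 hr1R
        refine ⟨C, hC0, fun h hh hhh => ?_⟩
        have := hC h hh hhh
        simp only [mix_symm ν (Pi.single l (rn l * h))] at this
        exact this
      · have e3 : rn l = 0 := by simp [hrn, rnv, h1]
        refine ⟨0, le_rfl, fun h hh hhh => ?_⟩
        simp only [e3, zero_mul, Pi.single_zero, mix_zero]
        simp
    choose Cl hCl0 hCl using hl
    set S := h0 * B * ‖w (g i)‖ with hS
    set V := volume.real (closedBall z0 (r1 + S)) with hV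
    refine ⟨1 / (r1 - r) * (B * ‖w (g i)‖) * (K * α) * V + ∑ l, Cl l, ?_, ?_⟩
    · have : 0 < r1 - r := by linarith
      have h2 : 0 ≤ ∑ l, Cl l := Finset.sum_nonneg fun l _ => hCl0 l
      have : 0 ≤ V := measureReal_nonneg
      positivity
    intro h hh hhh
    set σ : ℝ × ℝ := (h * B) • w (g i) with hσ
    have hσn : ‖σ‖ = h * B * ‖w (g i)‖ := by
      rw [hσ, norm_smul, Real.norm_eq_abs, abs_of_nonneg (mul_nonneg hh.le hB0)]
    set u : ι → ℝ := Pi.single i (α * h) with hu
    set F : ℝ × ℝ → ℝ := fun z => Inc ν u (X x0 a b z + h • c) with hF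
    have hFc : Continuous F := hIc u c h
    have hFb : ∀ z, |F z| ≤ K * α * h := by
      intro z
      simp only [hF, Inc]
      refine (hν _ _).trans ?_
      rw [mul_assoc]
      refine mul_le_mul_of_nonneg_left ?_ hK
      rw [dist_eq_norm]
      have : X x0 a b z + h • c - (X x0 a b z + h • c + u) = -u := by abel
      rw [this, norm_neg, hu]
      rw [pi_norm_le_iff_of_nonneg (mul_nonneg hα hh.le)]
      intro l
      rw [Real.norm_eq_abs]
      exact single_abs (mul_nonneg hα hh.le) l
    set M : ℝ × ℝ → ℝ := fun z => Mix ν u (Pi.single j (β * h)) (X x0 a b z + h • c) with hM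
    set Ml : ι → ℝ × ℝ → ℝ := fun l z => Mix ν u (Pi.single l (rn l * h))
          (X x0 a b z + h • c' l) with hMl
    have hMc' : Continuous M := hMc _ _ _ _
    have hMlc : ∀ l, Continuous (Ml l) := fun l => hMc _ _ _ _
    have hsub : closedBall z0 r1 ⊆ closedBall z0 R := closedBall_subset_closedBall hr1R.le
    have hij' : i ≠ j := by rintro rfl; omega
    have hM0 : ∀ z ∈ closedBall z0 r1, 0 ≤ M z := fun z hz =>
      mix_nonneg_leg hs hL hij' hα (by linarith) hβ (by linarith) (hsub hz) hh hhh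
    have hMl0 : ∀ l, ∀ z ∈ closedBall z0 r1, 0 ≤ Ml l z := by
      intro l z hz
      by_cases h1 : g l < g i
      · have hil : i ≠ l := by rintro rfl; omega
        exact mix_nonneg_leg hs (hL' l) hil hα (by linarith) (rn0 l) ((rnB l).trans hκδ2) (hsub hz) hh hhh
      · have e3 : rn l = 0 := by simp [hrn, rnv, h1]
        simp only [hMl, e3, zero_mul, Pi.single_zero, mix_zero]
        exact le_rfl
    have hkey : ∀ z ∈ closedBall z0 r1, M z ≤ (F z - F (z + σ)) + ∑ l, Ml l z := fun z hz =>
      key hs hG hκ1 hκ hδ hκδ hL hij hα hαδ hβ hβδ (hsub hz) hh hhh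
    have I1 := tent_integrable (r := r) (r1 := r1) (z0 := z0) hMc' hrr1
    have hFF : Continuous fun z => F z - F (z + σ) := by fun_prop
    have I2 := tent_integrable (r := r) (r1 := r1) (z0 := z0) hFF hrr1
    have I3 : ∀ l ∈ (Finset.univ : Finset ι), Integrable (fun z => tent z0 r r1 z * Ml l z) :=
      fun l _ => tent_integrable (hMlc l) hrr1
    calc ∫ z in closedBall z0 r, M z ≤ ∫ z, tent z0 r r1 z * M z := (tent_int hMc' hrr1 hM0).1
      _ ≤ ∫ z, (tent z0 r r1 z * (F z - F (z + σ)) + ∑ l, tent z0 r r1 z * Ml l z) := by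
          refine integral_mono I1 (I2.add (integrable_finsetSum _ I3)) ?_
          intro z
          simp only
          rw [← Finset.mul_sum, ← mul_add]
          by_cases hz : z ∈ closedBall z0 r1
          · exact mul_le_mul_of_nonneg_left (hkey z hz) (tent_nonneg _ _ _ _)
          · simp only [mem_closedBall, not_le] at hz
            rw [tent_eq_zero hrr1 hz]; simp
      _ = (∫ z, tent z0 r r1 z * (F z - F (z + σ))) + ∑ l, ∫ z, tent z0 r r1 z * Ml l z := by
          rw [integral_add I2 (integrable_finsetSum _ I3), integral_finsetSum _ I3]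
      _ ≤ (1 / (r1 - r) * ‖σ‖ * (K * α * h) * V) + ∑ l, Cl l * h ^ 2 := by
          refine add_le_add ?_ (Finset.sum_le_sum fun l _ => ?_)
          · refine (le_abs_self _).trans ?_
            refine shift_est hFc (tent_cont z0 r r1) (by have : 0 < r1 - r := by linarith
                                                         positivity) hFb
              (tent_lip z0 hrr1) (fun z hz => tent_eq_zero hrr1 hz) σ ?_
            rw [hσn, hS]
            have : 0 ≤ B * ‖w (g i)‖ := by positivity
            nlinarith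
          · exact ((tent_int (hMlc l) hrr1 (hMl0 l)).2).trans (hCl l h hh hhh)
      _ = (1 / (r1 - r) * (B * ‖w (g i)‖) * (K * α) * V + ∑ l, Cl l) * h ^ 2 := by
          rw [hσn, ← Finset.sum_mul]; ring

end Crest.Agent.R136.Dg262
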