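import Mathlib

/-!
# R136: general decoupling, part (B) (helper219): splitting of a function with vanishing cross
differences

`Cross grp D g`: mixed differences of `g` in two coordinates of different groups vanish (single
nonnegative steps, corners in the open convex set `D`).
* `sep_open`  : blocks of coordinates, any signs, corners in `D`;
* `sep_closed`: the same on a set `L` with `L + ε ρ ⊆ D`;
* `repr`      : `g c - g 0 = Σ_k φ_k (c_k)` on `L`.
-/

set_option autoImplicit false
set_option linter.unusedSectionVars false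

open Set Filter Topology Metric

namespace Crest.Agent.R136.Dg219

variable {ι κ : Type*} [Fintype ι] [DecidableEq ι] [DecidableEq κ]

/-- unit vector -/
noncomputable def e (i : ι) : ι → ℝ := Pi.single i 1

/-- mixed differences in coordinates of different groups vanish -/
def Cross (grp : ι → κ) (D : Set (ι → ℝ)) (g : (ι → ℝ) → ℝ) : Prop :=
  ∀ i j, grp i ≠ grp j → ∀ c : ι → ℝ, ∀ α β : ℝ, 0 ≤ α → 0 ≤ β → c ∈ D → c + α • e i ∈ D →
    c + β • e j ∈ D → c + α • e i + β • e j ∈ D →
    g (c + α • e i + β • e j) + g c = g (c + α • e i) + g (c + β • e j)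

/-- block separation of group `k` from the rest -/
def Sep (grp : ι → κ) (D : Set (ι → ℝ)) (g : (ι → ℝ) → ℝ) : Prop :=
  ∀ k : κ, ∀ c d e' : ι → ℝ, (∀ l, grp l ≠ k → d l = 0) → (∀ l, grp l = k → e' l = 0) →
    c ∈ D → c + d ∈ D → c + e' ∈ D → c + d + e' ∈ D →
    g (c + d + e') + g c = g (c + d) + g (c + e')

theorem e_same (i : ι) : e i i = 1 := by simp [e]

theorem e_ne {i j : ι} (h : j ≠ i) : e i j = 0 := by simp [e, h]

/-- restriction of a vector to a set of coordinates -/
def mask (A : Finset ι) (d : ι → ℝ) : ι → ℝ := fun l => if l ∈ A then d l else 0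

theorem mask_empty (d : ι → ℝ) : mask (∅ : Finset ι) d = 0 := by
  funext l; simp [mask]

theorem mask_univ (d : ι → ℝ) : mask (Finset.univ : Finset ι) d = d := by
  funext l; simp [mask]

theorem mask_insert {A : Finset ι} {a : ι} (ha : a ∉ A) (d : ι → ℝ) :
    mask (insert a A) d = mask A d + d a • e a := by
  funext l
  by_cases h : l = a
  · subst h
    simp [mask, ha, e_same]
  · simp [mask, h, e_ne h]

theorem mask_or (A : Finset ι) (d : ι → ℝ) (l : ι) : mask A d l = 0 ∨ mask A d l = d l := by
  by_cases h : l ∈ A <;> simp [mask, h]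

section

variable {grp : ι → κ} {D : Set (ι → ℝ)} {g : (ι → ℝ) → ℝ}

theorem mem_ball_pi {c c0 : ι → ℝ} {r : ℝ} (hr : 0 ≤ r) :
    c ∈ closedBall c0 r ↔ ∀ i, |c i - c0 i| ≤ r := by
  rw [mem_closedBall, dist_pi_le_iff hr]
  simp [Real.dist_eq]

/-- single steps of any sign -/
theorem step_any (h : Cross grp D g) {i j : ι} (hij : grp i ≠ grp j) {c : ι → ℝ} {α β : ℝ}
    (h1 : c ∈ D) (h2 : c + α • e i ∈ D) (h3 : c + β • e j ∈ D) (h4 : c + α • e i + β • e j ∈ D) :
    g (c + α • e i + β • e j) + g c = g (c + α • e i) + g (c + β • e j) := by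
  rcases le_total 0 α with ha | ha <;> rcases le_total 0 β with hb | hb
  · exact h i j hij c α β ha hb h1 h2 h3 h4
  · have e1 : c + β • e j + (-β) • e j = c := by rw [add_assoc, ← add_smul]; simp
    have e2 : c + β • e j + α • e i = c + α • e i + β • e j := by abel
    have e3 : c + β • e j + α • e i + (-β) • e j = c + α • e i := by
      rw [e2, add_assoc, ← add_smul]; simp
    have := h i j hij (c + β • e j) α (-β) ha (by linarith) h3 (by rw [e2]; exact h4)
      (by rw [e1]; exact h1) (by rw [e3]; exact h2)
    rw [e1, e2] at this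
    rw [← e2, e3] at this
    rw [e2] at this
    linarith
  · have e1 : c + α • e i + (-α) • e i = c := by rw [add_assoc, ← add_smul]; simp
    have e3 : c + α • e i + (-α) • e i + β • e j = c + β • e j := by rw [e1]
    have := h i j hij (c + α • e i) (-α) β (by linarith) hb h2 (by rw [e1]; exact h1) h4
      (by rw [e3]; exact h3)
    rw [e3, e1] at this
    linarith
  · have e1 : c + α • e i + β • e j + (-α) • e i = c + β • e j := by
      rw [add_right_comm, add_assoc c, ← add_smul]; simp
    have e2 : c + α • e i + β • e j + (-β) • e j = c + α • e i := by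
      rw [add_assoc, ← add_smul]; simp
    have e3 : c + α • e i + β • e j + (-α) • e i + (-β) • e j = c := by
      rw [e1, add_assoc, ← add_smul]; simp
    have := h i j hij (c + α • e i + β • e j) (-α) (-β) (by linarith) (by linarith) h4
      (by rw [e1]; exact h3) (by rw [e2]; exact h2) (by rw [e3]; exact h1)
    rw [e3, e1, e2] at this
    linarith

/-- blocks in a small box -/
theorem sep_box (h : Cross grp D g) {c0 : ι → ℝ} {r : ℝ} (hr : 0 ≤ r) (hD : closedBall c0 r ⊆ D)
    (k : κ) {c d e' : ι → ℝ} (hd : ∀ l, grp l ≠ k → d l = 0) (he : ∀ l, grp l = k → e' l = 0)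
    (h1 : c ∈ closedBall c0 r) (h2 : c + d ∈ closedBall c0 r) (h3 : c + e' ∈ closedBall c0 r) :
    g (c + d + e') + g c = g (c + d) + g (c + e') := by
  have mem : ∀ A B : Finset ι, c + mask A d + mask B e' ∈ D := by
    intro A B
    apply hD
    rw [mem_ball_pi hr] at h1 h2 h3 ⊢
    intro l
    have a1 := h1 l
    have a2 := h2 l
    have a3 := h3 l
    simp only [Pi.add_apply] at a2 a3 ⊢
    by_cases hl : grp l = k
    · have z : mask B e' l = 0 := by
        rcases mask_or B e' l with z | z
        · exact z
        · rw [z, he l hl]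
      rw [z, add_zero]
      rcases mask_or A d l with y | y
      · rw [y, add_zero]; exact a1
      · rw [y]; exact a2
    · have z : mask A d l = 0 := by
        rcases mask_or A d l with z | z
        · exact z
        · rw [z, hd l hl]
      rw [z, add_zero]
      rcases mask_or B e' l with y | y
      · rw [y, add_zero]; exact a1
      · rw [y]; exact a3
  have key1 : ∀ (A : Finset ι) (a : ι), a ∉ A → ∀ B : Finset ι,
      g (c + mask (insert a A) d + mask B e') + g (c + mask A d) =
        g (c + mask (insert a A) d) + g (c + mask A d + mask B e') := by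
    intro A a ha B
    induction B using Finset.induction_on with
    | empty => rw [mask_empty, add_zero, add_zero]
    | insert b B hb ih =>
      by_cases ha' : grp a = k
      · by_cases hb' : grp b = k
        · have z : mask (insert b B) e' = mask B e' := by
            rw [mask_insert hb, he b hb', zero_smul, add_zero]
          rw [z]; exact ih
        · have hne : grp a ≠ grp b := by rw [ha']; exact fun h => hb' h.symm
          have q1 : c + mask (insert a A) d + mask (insert b B) e' =
              c + mask A d + mask B e' + d a • e a + e' b • e b := by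
            rw [mask_insert ha, mask_insert hb]; abel
          have q2 : c + mask A d + mask (insert b B) e' = c + mask A d + mask B e' + e' b • e b := by
            rw [mask_insert hb]; abel
          have q3 : c + mask (insert a A) d + mask B e' = c + mask A d + mask B e' + d a • e a := by
            rw [mask_insert ha]; abel
          have s := step_any h hne (c := c + mask A d + mask B e') (α := d a) (β := e' b)
            (mem A B) (by rw [← q3]; exact mem _ _) (by rw [← q2]; exact mem _ _)
            (by rw [← q1]; exact mem _ _)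
          rw [← q1, ← q2, ← q3] at s
          linarith
      · have z : mask (insert a A) d = mask A d := by
          rw [mask_insert ha, hd a ha', zero_smul, add_zero]
        rw [z]; ring
  have key2 : ∀ A : Finset ι, g (c + mask A d + e') + g c = g (c + mask A d) + g (c + e') := by
    intro A
    induction A using Finset.induction_on with
    | empty => rw [mask_empty, add_zero]; ring
    | insert a A ha ih =>
      have := key1 A a ha Finset.univ
      rw [mask_univ] at this
      linarith
  have := key2 Finset.univ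
  rwa [mask_univ] at this

/-- telescoping of cell relations -/
theorem grid {F : ℕ → ℕ → ℝ} {N : ℕ}
    (h : ∀ a < N, ∀ b < N, F (a + 1) (b + 1) + F a b = F (a + 1) b + F a (b + 1)) :
    F N N + F 0 0 = F N 0 + F 0 N := by
  have h1 : ∀ a, a < N → ∀ b, b ≤ N → F (a + 1) b + F a 0 = F (a + 1) 0 + F a b := by
    intro a ha b
    induction b with
    | zero => intro _; ring
    | succ b ih =>
      intro hb
      have := h a ha b (by omega)
      have := ih (by omega)
      linarith
  have h2 : ∀ a, a ≤ N → F a N + F 0 0 = F a 0 + F 0 N := by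
    intro a
    induction a with
    | zero => intro _; ring
    | succ a ih =>
      intro ha
      have := h1 a (by omega) N le_rfl
      have := ih (by omega)
      linarith
  exact h2 N le_rfl

/-- **block separation on an open convex set** -/
theorem sep_open (h : Cross grp D g) (hD : IsOpen D) (hc : Convex ℝ D) : Sep grp D g := by
  intro k c d e' hd he h1 h2 h3 h4
  set P : ℝ × ℝ → (ι → ℝ) := fun x => c + x.1 • d + x.2 • e' with hP
  have cP : Continuous P := by rw [hP]; fun_prop
  have hmem : ∀ x ∈ Icc (0:ℝ) 1 ×ˢ Icc (0:ℝ) 1, P x ∈ D := by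
    rintro ⟨s, t⟩ ⟨⟨hs0, hs1⟩, ht0, ht1⟩
    have a1 : (1 - s) • c + s • (c + d) ∈ D := hc h1 h2 (by linarith) hs0 (by ring)
    have a2 : (1 - s) • (c + e') + s • (c + d + e') ∈ D := hc h3 h4 (by linarith) hs0 (by ring)
    have a3 := hc a1 a2 (a := 1 - t) (b := t) (by linarith) ht0 (by ring)
    convert a3 using 1
    rw [hP]
    funext l
    simp only [Pi.add_apply, Pi.smul_apply, smul_eq_mul]
    ring
  have hK : IsCompact (P '' (Icc (0:ℝ) 1 ×ˢ Icc (0:ℝ) 1)) := (isCompact_Icc.prod isCompact_Icc).image cP
  obtain ⟨r, hr, hrD⟩ := hK.exists_cthickening_subset_open hD (by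
    rintro _ ⟨x, hx, rfl⟩; exact hmem x hx)
  obtain ⟨N, hN⟩ := exists_nat_gt ((‖d‖ + ‖e'‖) / r)
  have hN0 : (0:ℝ) < N := lt_of_le_of_lt (by positivity) hN
  have hNn : N ≠ 0 := by rintro rfl; simp at hN0
  have hsmall : ‖d‖ + ‖e'‖ ≤ r * N := by
    rw [div_lt_iff₀ hr] at hN; linarith
  set F : ℕ → ℕ → ℝ := fun a b => g (P ((a:ℝ) / N, (b:ℝ) / N)) with hF
  have hcell : ∀ a < N, ∀ b < N, F (a + 1) (b + 1) + F a b = F (a + 1) b + F a (b + 1) := by
    intro a ha b hb
    have haN : (a:ℝ) / N ∈ Icc (0:ℝ) 1 := by
      constructor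
      · positivity
      · rw [div_le_one hN0]; exact_mod_cast ha.le
    have hbN : (b:ℝ) / N ∈ Icc (0:ℝ) 1 := by
      constructor
      · positivity
      · rw [div_le_one hN0]; exact_mod_cast hb.le
    set c' := P ((a:ℝ) / N, (b:ℝ) / N) with hc'
    have hball : closedBall c' r ⊆ D :=
      (closedBall_subset_cthickening (mem_image_of_mem P (Set.mk_mem_prod haN hbN)) r).trans hrD
    have nd : ‖(1 / (N:ℝ)) • d‖ ≤ r := by
      rw [norm_smul, Real.norm_eq_abs, abs_of_pos (by positivity), one_div, inv_mul_le_iff₀ hN0]
      have := norm_nonneg e'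
      linarith
    have ne' : ‖(1 / (N:ℝ)) • e'‖ ≤ r := by
      rw [norm_smul, Real.norm_eq_abs, abs_of_pos (by positivity), one_div, inv_mul_le_iff₀ hN0]
      have := norm_nonneg d
      linarith
    have key := sep_box h hr.le hball k (c := c') (d := (1 / (N:ℝ)) • d) (e' := (1 / (N:ℝ)) • e')
      (fun l hl => by rw [Pi.smul_apply, hd l hl, smul_zero])
      (fun l hl => by rw [Pi.smul_apply, he l hl, smul_zero])
      (mem_closedBall_self hr.le)
      (by rw [mem_closedBall, dist_eq_norm, add_sub_cancel_left]; exact nd)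
      (by rw [mem_closedBall, dist_eq_norm, add_sub_cancel_left]; exact ne')
    have q1 : P (((a + 1 : ℕ):ℝ) / N, (b:ℝ) / N) = c' + (1 / (N:ℝ)) • d := by
      rw [hc', hP]; funext l
      simp only [Pi.add_apply, Pi.smul_apply, smul_eq_mul]; push_cast; ring
    have q2 : P ((a:ℝ) / N, ((b + 1 : ℕ):ℝ) / N) = c' + (1 / (N:ℝ)) • e' := by
      rw [hc', hP]; funext l
      simp only [Pi.add_apply, Pi.smul_apply, smul_eq_mul]; push_cast; ring
    have q3 : P (((a + 1 : ℕ):ℝ) / N, ((b + 1 : ℕ):ℝ) / N) =
        c' + (1 / (N:ℝ)) • d + (1 / (N:ℝ)) • e' := by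
      rw [hc', hP]; funext l
      simp only [Pi.add_apply, Pi.smul_apply, smul_eq_mul]; push_cast; ring
    simp only [hF]
    rw [q1, q2, q3, ← hc']
    exact key
  have := grid hcell
  simp only [hF, hP] at this
  rw [div_self hN0.ne'] at this
  simpa using this

/-- **block separation on the closure** -/
theorem sep_closed (h : Sep grp D g) (hg : Continuous g) {L : Set (ι → ℝ)} {ρ : ι → ℝ}
    (hL : ∀ c ∈ L, ∀ ε : ℝ, 0 < ε → c + ε • ρ ∈ D) : Sep grp L g := by
  intro k c d e' hd he h1 h2 h3 h4
  have lim : ∀ x : ι → ℝ, Tendsto (fun ε : ℝ => g (x + ε • ρ)) (𝓝[>] 0) (𝓝 (g x)) := by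
    intro x
    have : Continuous fun ε : ℝ => g (x + ε • ρ) := hg.comp (by fun_prop)
    have h5 := this.tendsto 0
    rw [zero_smul, add_zero] at h5
    exact h5.mono_left nhdsWithin_le_nhds
  have l1 := (lim (c + d + e')).add (lim c)
  have l2 := (lim (c + d)).add (lim (c + e'))
  refine tendsto_nhds_unique (l1.congr' ?_) l2
  filter_upwards [self_mem_nhdsWithin] with ε hε
  have hε' : (0:ℝ) < ε := hε
  have := h k (c + ε • ρ) d e' hd he (hL c h1 ε hε')
    (by rw [add_right_comm]; exact hL _ h2 ε hε') (by rw [add_right_comm]; exact hL _ h3 ε hε')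
    (by rw [show c + ε • ρ + d + e' = c + d + e' + ε • ρ by abel]; exact hL _ h4 ε hε')
  rw [show c + ε • ρ + d + e' = c + d + e' + ε • ρ by abel,
    show c + ε • ρ + d = c + d + ε • ρ by abel, show c + ε • ρ + e' = c + e' + ε • ρ by abel] at this
  exact this

end

end Crest.Agent.R136.Dg219
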