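import Mathlib
import Crest.Agent.R136.Dg2_262
import Crest.Agent.R136.Dg3_219

/-!
# R136: general decoupling theorem, part 3 (helper262): the almost everywhere statement

* `ae_seq`, `geo`, `ae_small` : from the integral estimate to `o(h)` almost everywhere;
* `LegU` : local uniform legality of the offsets in the open set `D`;
* `ae_plain` : for a.e. `z` in `Ω` all mixed increments between different groups with corners in `D`
  are `o(h)`;
* `ae_cross` : hence `Cross g D lam` for all blow-ups `lam` along all filters below `𝓝[>] 0`.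
-/

set_option autoImplicit false
set_option linter.unusedSectionVars false

open Set MeasureTheory Filter Topology Metric

namespace Crest.Agent.R136.Dg262

variable {ι : Type*} [Fintype ι] [DecidableEq ι]

theorem ae_seq {A : Set (ℝ × ℝ)} (hA : IsCompact A) {f : ℕ → ℝ × ℝ → ℝ}
    (hf : ∀ n, Continuous (f n)) (hf0 : ∀ n, ∀ z ∈ A, 0 ≤ f n z) {b : ℕ → ℝ} (hb : Summable b)
    (hint : ∀ n, ∫ z in A, f n z ≤ b n) :
    ∀ᵐ z ∂(volume.restrict A), Tendsto (fun n => f n z) atTop (𝓝 0) := by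
  have hAm : MeasurableSet A := hA.measurableSet
  have h1 : ∀ n, ∫⁻ z in A, ENNReal.ofReal (f n z) = ENNReal.ofReal (∫ z in A, f n z) := by
    intro n
    symm
    apply ofReal_integral_eq_lintegral_ofReal
    · exact (hf n).continuousOn.integrableOn_compact hA
    · rw [EventuallyLE, ae_restrict_iff' hAm]
      exact ae_of_all _ fun z hz => hf0 n z hz
  have h2 : ∫⁻ z in A, ∑' n, ENNReal.ofReal (f n z) ≠ ⊤ := by
    rw [lintegral_tsum fun n => ((hf n).measurable.ennreal_ofReal).aemeasurable]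
    apply ne_top_of_le_ne_top hb.tsum_ofReal_ne_top
    apply ENNReal.tsum_le_tsum
    intro n
    rw [h1 n]
    exact ENNReal.ofReal_le_ofReal (hint n)
  have h3 : ∀ᵐ z ∂(volume.restrict A), ∑' n, ENNReal.ofReal (f n z) < ⊤ := by
    apply ae_lt_top _ h2
    exact Measurable.tsum fun n => (hf n).measurable.ennreal_ofReal
  have h4 : ∀ᵐ z ∂(volume.restrict A), z ∈ A := ae_restrict_mem hAm
  filter_upwards [h3, h4] with z hz hzA
  have h5 := ENNReal.tendsto_atTop_zero_of_tsum_ne_top hz.ne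
  have h6 := (ENNReal.tendsto_toReal (a := 0) (by simp)).comp h5
  simp only [ENNReal.toReal_zero] at h6
  refine h6.congr fun n => ?_
  simp only [Function.comp]
  rw [ENNReal.toReal_ofReal (hf0 n z hzA)]

theorem geo {T : ℝ → ℝ} {C' h0 : ℝ} (hh0 : 0 < h0) (hC' : 0 ≤ C')
    (hlip : ∀ h h', 0 < h → 0 < h' → |T h - T h'| ≤ C' * |h - h'|)
    (hT : ∀ s : ℕ, Tendsto (fun n : ℕ => T (h0 * (1 - 1 / ((s : ℝ) + 2)) ^ n) /
      (h0 * (1 - 1 / ((s : ℝ) + 2)) ^ n)) atTop (𝓝 0)) :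
    Tendsto (fun h => T h / h) (𝓝[>] 0) (𝓝 0) := by
  rw [Metric.tendsto_nhdsWithin_nhds]
  intro ε hε
  obtain ⟨s, hs⟩ := exists_nat_gt (8 * C' / ε)
  set t : ℝ := 1 / ((s : ℝ) + 2) with ht
  have hs2 : (0 : ℝ) < (s : ℝ) + 2 := by positivity
  have ht0 : 0 < t := by positivity
  have ht2 : t ≤ 1 / 2 := by
    rw [ht]; apply one_div_le_one_div_of_le (by norm_num); linarith [Nat.cast_nonneg (α := ℝ) s]
  have htC : 4 * C' * t ≤ ε / 2 := by
    rw [ht, mul_one_div, div_le_iff₀ hs2]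
    have : 8 * C' ≤ ε * s := by
      have := (div_lt_iff₀ hε).1 hs
      linarith
    nlinarith
  have h1 := hT s
  rw [Metric.tendsto_atTop] at h1
  obtain ⟨N, hN⟩ := h1 (ε / 8) (by positivity)
  have hρ0 : 0 < 1 - t := by linarith
  have hρ1 : 1 - t < 1 := by linarith
  refine ⟨h0 * (1 - t) ^ N, by positivity, fun {h} hh hd => ?_⟩
  have hh : 0 < h := hh
  rw [Real.dist_eq, sub_zero, abs_of_pos hh] at hd
  obtain ⟨n, hn1, hn2⟩ := exists_nat_pow_near_of_lt_one (x := h / h0) (y := 1 - t)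
    (by positivity) (by
      rw [div_le_one hh0]
      have : (1 - t) ^ N ≤ 1 := pow_le_one₀ hρ0.le hρ1.le
      nlinarith) hρ0 hρ1
  have hn1' : h0 * (1 - t) ^ (n + 1) < h := by
    have := (lt_div_iff₀ hh0).1 hn1; linarith
  have hn2' : h ≤ h0 * (1 - t) ^ n := by
    have := (div_le_iff₀ hh0).1 hn2; linarith
  have hnN : N ≤ n := by
    by_contra hc
    have : n + 1 ≤ N := by omega
    have h3 : (1 - t) ^ N ≤ (1 - t) ^ (n + 1) := pow_le_pow_of_le_one hρ0.le hρ1.le this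
    nlinarith
  set hn := h0 * (1 - t) ^ n with hhn
  have hn0 : 0 < hn := by positivity
  have h4 := hN n hnN
  rw [Real.dist_eq, sub_zero, abs_div, abs_of_pos hn0, div_lt_iff₀ hn0] at h4
  have h5 := hlip h hn hh hn0
  have h6 : |h - hn| ≤ t * hn := by
    rw [abs_of_nonpos (by linarith)]
    have : h0 * (1 - t) ^ (n + 1) = (1 - t) * hn := by rw [hhn, pow_succ]; ring
    rw [this] at hn1'
    linarith
  have h7 : hn ≤ 2 * h := by
    have : h0 * (1 - t) ^ (n + 1) = (1 - t) * hn := by rw [hhn, pow_succ]; ring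
    rw [this] at hn1'
    nlinarith
  have h8 : |T h| ≤ (ε / 8 + C' * t) * hn := by
    calc |T h| = |(T h - T hn) + T hn| := by congr 1; ring
      _ ≤ |T h - T hn| + |T hn| := abs_add_le _ _
      _ ≤ C' * (t * hn) + ε / 8 * hn := by
          refine add_le_add (h5.trans (mul_le_mul_of_nonneg_left h6 hC')) h4.le
      _ = (ε / 8 + C' * t) * hn := by ring
  rw [Real.dist_eq, sub_zero, abs_div, abs_of_pos hh, div_lt_iff₀ hh]
  have h9 : 0 ≤ ε / 8 + C' * t := by positivity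
  nlinarith

theorem ae_small {T : ℝ → ℝ × ℝ → ℝ} (hTc : ∀ h, Continuous (T h)) {C' h0 : ℝ} (hh0 : 0 < h0)
    (hC' : 0 ≤ C') (hlip : ∀ z, ∀ h h', 0 < h → 0 < h' → |T h z - T h' z| ≤ C' * |h - h'|)
    {A : Set (ℝ × ℝ)} (hA : IsCompact A) (h0T : ∀ h, 0 < h → h ≤ h0 → ∀ z ∈ A, 0 ≤ T h z) {C : ℝ}
    (hint : ∀ h, 0 < h → h ≤ h0 → ∫ z in A, T h z ≤ C * h ^ 2) :
    ∀ᵐ z ∂(volume.restrict A), Tendsto (fun h => T h z / h) (𝓝[>] 0) (𝓝 0) := by
  have h1 : ∀ s : ℕ, ∀ᵐ z ∂(volume.restrict A), Tendsto (fun n : ℕ =>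
      T (h0 * (1 - 1 / ((s : ℝ) + 2)) ^ n) z / (h0 * (1 - 1 / ((s : ℝ) + 2)) ^ n)) atTop (𝓝 0) := by
    intro s
    set t : ℝ := 1 / ((s : ℝ) + 2) with ht
    have hs2 : (0 : ℝ) < (s : ℝ) + 2 := by positivity
    have ht0 : 0 < t := by positivity
    have ht2 : t ≤ 1 / 2 := by
      rw [ht]; apply one_div_le_one_div_of_le (by norm_num); linarith [Nat.cast_nonneg (α := ℝ) s]
    have hρ0 : 0 < 1 - t := by linarith
    have hρ1 : 1 - t < 1 := by linarith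
    have hle : ∀ n : ℕ, 0 < h0 * (1 - t) ^ n ∧ h0 * (1 - t) ^ n ≤ h0 := by
      intro n
      have : (1 - t) ^ n ≤ 1 := pow_le_one₀ hρ0.le hρ1.le
      exact ⟨by positivity, by nlinarith⟩
    refine ae_seq hA (f := fun n z => T (h0 * (1 - t) ^ n) z / (h0 * (1 - t) ^ n))
      (b := fun n => C * (h0 * (1 - t) ^ n)) (fun n => (hTc _).div_const _) ?_ ?_ ?_
    · intro n z hz
      exact div_nonneg (h0T _ (hle n).1 (hle n).2 z hz) (hle n).1.le
    · exact ((summable_geometric_of_lt_one hρ0.le hρ1).mul_left h0).mul_left C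
    · intro n
      rw [integral_div, div_le_iff₀ (hle n).1]
      refine (hint _ (hle n).1 (hle n).2).trans (le_of_eq ?_)
      ring
  rw [← ae_all_iff] at h1
  filter_upwards [h1] with z hz
  exact geo hh0 hC' (hlip z) hz

theorem norm_single_le (i : ι) (t : ℝ) : ‖(Pi.single i t : ι → ℝ)‖ ≤ |t| := by
  rw [pi_norm_le_iff_of_nonneg (abs_nonneg t)]
  intro l
  by_cases h : l = i
  · subst h; simp
  · rw [Pi.single_eq_of_ne h]; simp

theorem mix_lip {ν : (ι → ℝ) → ℝ} {K : ℝ} (hK : 0 ≤ K) (hν : ∀ p q, |ν p - ν q| ≤ K * dist p q)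
    (u v p u' v' p' : ι → ℝ) :
    |Mix ν u v p - Mix ν u' v' p'| ≤ 4 * K * (‖p - p'‖ + ‖u - u'‖ + ‖v - v'‖) := by
  set S := ‖p - p'‖ + ‖u - u'‖ + ‖v - v'‖ with hS
  have n1 := norm_nonneg (p - p')
  have n2 := norm_nonneg (u - u')
  have n3 := norm_nonneg (v - v')
  have h1 : |ν p - ν p'| ≤ K * S := by
    refine (hν _ _).trans (mul_le_mul_of_nonneg_left ?_ hK)
    rw [dist_eq_norm]; linarith
  have h2 : |ν (p + u) - ν (p' + u')| ≤ K * S := by
    refine (hν _ _).trans (mul_le_mul_of_nonneg_left ?_ hK)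
    rw [dist_eq_norm]
    have : p + u - (p' + u') = (p - p') + (u - u') := by abel
    rw [this]
    refine (norm_add_le _ _).trans ?_; linarith
  have h3 : |ν (p + v) - ν (p' + v')| ≤ K * S := by
    refine (hν _ _).trans (mul_le_mul_of_nonneg_left ?_ hK)
    rw [dist_eq_norm]
    have : p + v - (p' + v') = (p - p') + (v - v') := by abel
    rw [this]
    refine (norm_add_le _ _).trans ?_; linarith
  have h4 : |ν (p + u + v) - ν (p' + u' + v')| ≤ K * S := by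
    refine (hν _ _).trans (mul_le_mul_of_nonneg_left ?_ hK)
    rw [dist_eq_norm]
    have : p + u + v - (p' + u' + v') = (p - p') + (u - u') + (v - v') := by abel
    rw [this]
    refine (norm_add_le _ _).trans ?_
    have := norm_add_le (p - p') (u - u')
    linarith
  rw [abs_le] at h1 h2 h3 h4
  unfold Mix
  rw [abs_le]
  constructor <;> linarith

/-- the mixed increment at `X z + h c` with the steps `α h`, `β h` is `o(h)` -/
def Qz (ν : (ι → ℝ) → ℝ) (x0 a b : ι → ℝ) (z : ℝ × ℝ) (i j : ι) (c : ι → ℝ) (α β : ℝ) : Prop :=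
  Tendsto (fun h : ℝ => Mix ν (Pi.single i (α * h)) (Pi.single j (β * h))
    (X x0 a b z + h • c) / h) (𝓝[>] 0) (𝓝 0)

theorem mix_lip_h {ν : (ι → ℝ) → ℝ} {K : ℝ} (hK : 0 ≤ K) (hν : ∀ p q, |ν p - ν q| ≤ K * dist p q)
    (x0 a b : ι → ℝ) (z : ℝ × ℝ) (i j : ι) (c : ι → ℝ) (α β : ℝ) (h h' : ℝ) :
    |Mix ν (Pi.single i (α * h)) (Pi.single j (β * h)) (X x0 a b z + h • c) -
      Mix ν (Pi.single i (α * h')) (Pi.single j (β * h')) (X x0 a b z + h' • c)| ≤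
      4 * K * (‖c‖ + |α| + |β|) * |h - h'| := by
  refine (mix_lip hK hν _ _ _ _ _ _).trans ?_
  have e1 : X x0 a b z + h • c - (X x0 a b z + h' • c) = (h - h') • c := by
    rw [sub_smul]; abel
  have e2 : (Pi.single i (α * h) : ι → ℝ) - Pi.single i (α * h') = Pi.single i (α * (h - h')) := by
    rw [← Pi.single_sub]; congr 1; ring
  have e3 : (Pi.single j (β * h) : ι → ℝ) - Pi.single j (β * h') = Pi.single j (β * (h - h')) := by
    rw [← Pi.single_sub]; congr 1; ring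
  rw [e1, e2, e3, norm_smul, Real.norm_eq_abs]
  have h1 := norm_single_le i (α * (h - h'))
  have h2 := norm_single_le j (β * (h - h'))
  rw [abs_mul] at h1 h2
  have : |h - h'| * ‖c‖ + ‖(Pi.single i (α * (h - h')) : ι → ℝ)‖ +
      ‖(Pi.single j (β * (h - h')) : ι → ℝ)‖ ≤ (‖c‖ + |α| + |β|) * |h - h'| := by
    linarith
  calc _ ≤ 4 * K * ((‖c‖ + |α| + |β|) * |h - h'|) :=
        mul_le_mul_of_nonneg_left this (by positivity)
    _ = _ := by ring

theorem Q_closed {ν : (ι → ℝ) → ℝ} {K : ℝ} (hK : 0 ≤ K) (hν : ∀ p q, |ν p - ν q| ≤ K * dist p q)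
    {x0 a b : ι → ℝ} {z : ℝ × ℝ} {i j : ι} {c : ι → ℝ} {α β : ℝ}
    (H : ∀ ε > 0, ∃ c' α' β', dist c' c < ε ∧ |α' - α| < ε ∧ |β' - β| < ε ∧
      Qz ν x0 a b z i j c' α' β') : Qz ν x0 a b z i j c α β := by
  unfold Qz
  rw [Metric.tendsto_nhdsWithin_nhds]
  intro ε hε
  set ε1 := ε / (24 * (K + 1)) with hε1
  have hε10 : 0 < ε1 := by positivity
  obtain ⟨c', α', β', h1, h2, h3, h4⟩ := H ε1 hε10
  unfold Qz at h4
  rw [Metric.tendsto_nhdsWithin_nhds] at h4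
  obtain ⟨δ, hδ, h5⟩ := h4 (ε / 2) (by positivity)
  refine ⟨δ, hδ, fun {h} hh hd => ?_⟩
  have h6 := h5 hh hd
  have hh : 0 < h := hh
  rw [Real.dist_eq, sub_zero, abs_div, abs_of_pos hh, div_lt_iff₀ hh] at h6 ⊢
  have h7 := mix_lip hK hν (Pi.single i (α * h)) (Pi.single j (β * h)) (X x0 a b z + h • c)
    (Pi.single i (α' * h)) (Pi.single j (β' * h)) (X x0 a b z + h • c')
  have e1 : X x0 a b z + h • c - (X x0 a b z + h • c') = h • (c - c') := by
    rw [smul_sub]; abel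
  have e2 : (Pi.single i (α * h) : ι → ℝ) - Pi.single i (α' * h) = Pi.single i ((α - α') * h) := by
    rw [← Pi.single_sub]; congr 1; ring
  have e3 : (Pi.single j (β * h) : ι → ℝ) - Pi.single j (β' * h) = Pi.single j ((β - β') * h) := by
    rw [← Pi.single_sub]; congr 1; ring
  rw [e1, e2, e3, norm_smul, Real.norm_eq_abs, abs_of_pos hh, ← dist_eq_norm, dist_comm] at h7
  have h8 := norm_single_le i ((α - α') * h)
  have h9 := norm_single_le j ((β - β') * h)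
  rw [abs_mul, abs_of_pos hh, abs_sub_comm] at h8 h9
  have h10 : h * dist c' c + ‖(Pi.single i ((α - α') * h) : ι → ℝ)‖ +
      ‖(Pi.single j ((β - β') * h) : ι → ℝ)‖ ≤ 3 * ε1 * h := by nlinarith
  have h11 : 4 * K * (3 * ε1 * h) ≤ ε / 2 * h := by
    have : 4 * K * (3 * ε1) ≤ ε / 2 := by
      have h12 : ε1 * (24 * (K + 1)) = ε := by rw [hε1]; field_simp
      nlinarith
    nlinarith
  have h12 := h7.trans ((mul_le_mul_of_nonneg_left h10 (by positivity)).trans h11)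
  set M1 := Mix ν (Pi.single i (α * h)) (Pi.single j (β * h)) (X x0 a b z + h • c)
  set M2 := Mix ν (Pi.single i (α' * h)) (Pi.single j (β' * h)) (X x0 a b z + h • c')
  calc |M1| = |(M1 - M2) + M2| := by congr 1; ring
    _ ≤ |M1 - M2| + |M2| := abs_add_le _ _
    _ < ε / 2 * h + ε / 2 * h := add_lt_add_of_le_of_lt h12 h6
    _ = ε * h := by ring

theorem ae_fix {ν : (ι → ℝ) → ℝ} {P : Set (ι → ℝ)} {K : ℝ} (hK : 0 ≤ K)
    (hν : ∀ p q, |ν p - ν q| ≤ K * dist p q) (hs : SupOn ν P) {x0 a b : ι → ℝ}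
    {g : ι → ℕ} {w : ℕ → ℝ × ℝ} (hG : Grp a b g w) {κ : ℝ} (hκ1 : 1 ≤ κ)
    (hκ : ∀ i j l, g i < g j → |Sp a b w (g i) l| ≤ κ * Sp a b w (g i) j)
    {z0 : ℝ × ℝ} {R h0 : ℝ} (hh0 : 0 < h0) (m : ℕ) {i j : ι} (him : g i < m) (hij : g i < g j)
    {c : ι → ℝ} {η δ : ℝ} (hδ : 0 ≤ δ) (hN : Nc κ m * δ ≤ η) (hL : LegB P x0 a b z0 R h0 c η)
    {α β : ℝ} (hα : 0 ≤ α) (hαδ : α ≤ δ) (hβ : 0 ≤ β) (hβδ : β ≤ δ) {r : ℝ} (hr : r < R) :
    ∀ᵐ z ∂(volume.restrict (closedBall z0 r)), Qz ν x0 a b z i j c α β := by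
  obtain ⟨C, hC0, hC⟩ := est hK hν hs hG hκ1 hκ m i j him hij c η δ hδ hN hL α β hα hαδ hβ hβδ r hr
  have hνc : Continuous ν := by
    have : LipschitzWith ⟨K, hK⟩ ν := LipschitzWith.of_dist_le_mul fun p q => by
      rw [Real.dist_eq]; exact hν p q
    exact this.continuous
  have hMc : ∀ (u v c : ι → ℝ) (h : ℝ), Continuous fun z => Mix ν u v (X x0 a b z + h • c) := by
    intro u v c h
    have := X_cont x0 a b
    unfold Mix; fun_prop
  have hN1 := Nc_ge hκ1 m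
  have hδη : δ ≤ η := by nlinarith
  have hij' : i ≠ j := by rintro rfl; omega
  have hsub : closedBall z0 r ⊆ closedBall z0 R := closedBall_subset_closedBall hr.le
  exact ae_small (T := fun h z => Mix ν (Pi.single i (α * h)) (Pi.single j (β * h))
    (X x0 a b z + h • c)) (fun h => hMc _ _ _ _) hh0 (C' := 4 * K * (‖c‖ + |α| + |β|))
    (by positivity) (fun z h h' _ _ => mix_lip_h hK hν x0 a b z i j c α β h h')
    (isCompact_closedBall z0 r)
    (fun h hh hh1 z hz => mix_nonneg_leg hs hL hij' hα (hαδ.trans hδη) hβ (hβδ.trans hδη)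
      (hsub hz) hh hh1) hC

/-- local uniform legality of the offsets in `D` at the points of `Ω` -/
def LegU (P : Set (ι → ℝ)) (x0 a b : ι → ℝ) (Ω : Set (ℝ × ℝ)) (D : Set (ι → ℝ)) : Prop :=
  ∀ z0 ∈ Ω, ∀ c0 ∈ D, ∃ ε > 0, ∀ z c h, dist z z0 < ε → dist c c0 < ε → 0 < h → h < ε →
    X x0 a b z + h • c ∈ P

theorem legB_of {P : Set (ι → ℝ)} {x0 a b : ι → ℝ} {z1 : ℝ × ℝ} {c1 : ι → ℝ} {ε : ℝ}
    (H : ∀ z c h, dist z z1 < ε → dist c c1 < ε → 0 < h → h < ε → X x0 a b z + h • c ∈ P) {q : ℝ}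
    (hq : 0 < q) (hqε : 4 * q ≤ ε) {z0 : ℝ × ℝ} (hz0 : dist z0 z1 < q) {c0 : ι → ℝ}
    (hc0 : dist c0 c1 < 2 * q) : LegB P x0 a b z0 q q c0 q := by
  intro z hz h hh hh0 p hp
  have e1 : X x0 a b z + h • (h⁻¹ • (p - X x0 a b z)) = p := by
    rw [smul_smul, mul_inv_cancel₀ hh.ne', one_smul]; abel
  rw [← e1]
  have h1 : dist z z1 ≤ dist z z0 + dist z0 z1 := dist_triangle _ _ _
  have h2 : dist z z0 ≤ q := hz
  have h3 : dist (h⁻¹ • (p - X x0 a b z)) c0 ≤ q := by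
    rw [dist_pi_le_iff hq.le]
    intro l
    rw [Real.dist_eq]
    have h4 := hp l
    have e2 : (h⁻¹ • (p - X x0 a b z)) l - c0 l = h⁻¹ * (p l - (X x0 a b z l + h * c0 l)) := by
      simp only [Pi.smul_apply, Pi.sub_apply, smul_eq_mul]
      field_simp
      ring
    rw [e2, abs_mul, abs_of_pos (inv_pos.2 hh)]
    calc h⁻¹ * |p l - (X x0 a b z l + h * c0 l)| ≤ h⁻¹ * (q * h) :=
          mul_le_mul_of_nonneg_left h4 (inv_pos.2 hh).le
      _ = q := by field_simp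
  have h5 := dist_triangle (h⁻¹ • (p - X x0 a b z)) c0 c1
  exact H z _ h (by linarith) (by linarith) hh (by linarith)

theorem exists_kappa {a b : ι → ℝ} {g : ι → ℕ} {w : ℕ → ℝ × ℝ} (hG : Grp a b g w) :
    ∃ κ : ℝ, 1 ≤ κ ∧ ∀ i j l, g i < g j → |Sp a b w (g i) l| ≤ κ * Sp a b w (g i) j := by
  set f : ι × ι × ι → ℝ := fun t => |Sp a b w (g t.1) t.2.2| / |Sp a b w (g t.1) t.2.1| with hf
  have f0 : ∀ t, 0 ≤ f t := fun t => div_nonneg (abs_nonneg _) (abs_nonneg _)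
  refine ⟨1 + ∑ t, f t, by linarith [Finset.sum_nonneg fun t (_ : t ∈ Finset.univ) => f0 t], ?_⟩
  intro i j l hij
  have hD : 0 < Sp a b w (g i) j := hG.up i j hij
  have h1 : f (i, j, l) ≤ ∑ t, f t :=
    Finset.single_le_sum (fun t _ => f0 t) (Finset.mem_univ (i, j, l))
  have h2 : |Sp a b w (g i) l| = f (i, j, l) * Sp a b w (g i) j := by
    simp only [hf]; rw [abs_of_pos hD]; field_simp
  rw [h2]
  exact mul_le_mul_of_nonneg_right (by linarith) hD.le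

theorem exists_rat_near {ρ x ε : ℝ} (hρ : 0 < ρ) (hx0 : 0 ≤ x) (hx : x ≤ ρ) (hε : 0 < ε) :
    ∃ q : ℚ, 0 ≤ (q : ℝ) ∧ (q : ℝ) ≤ ρ ∧ |(q : ℝ) - x| < ε := by
  obtain ⟨q, h1, h2⟩ := exists_rat_btwn (show max 0 (x - ε) < min ρ (x + ε) by
    rw [max_lt_iff, lt_min_iff, lt_min_iff]
    exact ⟨⟨hρ, by linarith⟩, ⟨by linarith, by linarith⟩⟩)
  rw [max_lt_iff] at h1
  rw [lt_min_iff] at h2
  refine ⟨q, h1.1.le, h2.1.le, ?_⟩
  rw [abs_lt]; constructor <;> linarith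

theorem ae_local {ν : (ι → ℝ) → ℝ} {P : Set (ι → ℝ)} {K : ℝ} (hK : 0 ≤ K)
    (hν : ∀ p q, |ν p - ν q| ≤ K * dist p q) (hs : SupOn ν P) {x0 a b : ι → ℝ}
    {g : ι → ℕ} {w : ℕ → ℝ × ℝ} (hG : Grp a b g w) {Ω : Set (ℝ × ℝ)} {D : Set (ι → ℝ)}
    (hleg : LegU P x0 a b Ω D) :
    ∀ᵐ z : ℝ × ℝ, z ∈ Ω → ∀ c1 ∈ D, ∃ ρ > 0, ∀ i j, g i < g j → ∀ c' ∈ ball c1 ρ, ∀ α' β',
      0 ≤ α' → α' ≤ ρ → 0 ≤ β' → β' ≤ ρ → Qz ν x0 a b z i j c' α' β' := by
  obtain ⟨κ, hκ1, hκ⟩ := exists_kappa hG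
  set m := Finset.univ.sup g + 1 with hm
  have him : ∀ i, g i < m := fun i =>
    Nat.lt_succ_of_le (Finset.le_sup (f := g) (Finset.mem_univ i))
  have hN1 := Nc_ge hκ1 m
  have hN0 : 0 < Nc κ m := by linarith
  have h1 : ∀ (q k l : ℕ) (α β : ℚ) (i j : ι), ∀ᵐ z : ℝ × ℝ,
      (LegB P x0 a b (TopologicalSpace.denseSeq (ℝ × ℝ) k) (1 / ((q : ℝ) + 1)) (1 / ((q : ℝ) + 1))
        (TopologicalSpace.denseSeq (ι → ℝ) l) (1 / ((q : ℝ) + 1)) ∧ 0 ≤ (α : ℝ) ∧
        (α : ℝ) ≤ 1 / ((q : ℝ) + 1) / Nc κ m ∧ 0 ≤ (β : ℝ) ∧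
        (β : ℝ) ≤ 1 / ((q : ℝ) + 1) / Nc κ m ∧ g i < g j) →
      z ∈ closedBall (TopologicalSpace.denseSeq (ℝ × ℝ) k) (1 / ((q : ℝ) + 1) / 2) →
      Qz ν x0 a b z i j (TopologicalSpace.denseSeq (ι → ℝ) l) α β := by
    intro q k l α β i j
    by_cases hc : (LegB P x0 a b (TopologicalSpace.denseSeq (ℝ × ℝ) k) (1 / ((q : ℝ) + 1))
        (1 / ((q : ℝ) + 1)) (TopologicalSpace.denseSeq (ι → ℝ) l) (1 / ((q : ℝ) + 1)) ∧
        0 ≤ (α : ℝ) ∧ (α : ℝ) ≤ 1 / ((q : ℝ) + 1) / Nc κ m ∧ 0 ≤ (β : ℝ) ∧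
        (β : ℝ) ≤ 1 / ((q : ℝ) + 1) / Nc κ m ∧ g i < g j)
    · obtain ⟨c1, c2, c3, c4, c5, c6⟩ := hc
      have hq0 : 0 < 1 / ((q : ℝ) + 1) := by positivity
      have := ae_fix hK hν hs hG hκ1 hκ hq0 m (him i) c6
        (δ := 1 / ((q : ℝ) + 1) / Nc κ m) (by positivity)
        (by rw [mul_div_cancel₀ _ hN0.ne']) c1 c2 c3 c4 c5
        (show 1 / ((q : ℝ) + 1) / 2 < 1 / ((q : ℝ) + 1) by linarith)
      rw [ae_restrict_iff' measurableSet_closedBall] at this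
      filter_upwards [this] with z hz _ hz2 using hz hz2
    · exact ae_of_all _ fun z h => absurd h hc
  simp only [← ae_all_iff] at h1
  filter_upwards [h1] with z hz hzΩ c1 hc1
  obtain ⟨ε, hε, H⟩ := hleg z hzΩ c1 hc1
  obtain ⟨q, hq⟩ := exists_nat_gt (4 / ε)
  set q' : ℝ := 1 / ((q : ℝ) + 1) with hq'
  have hq0 : 0 < q' := by positivity
  have hqε : 4 * q' ≤ ε := by
    rw [hq', mul_one_div, div_le_iff₀ (by positivity)]
    have := (div_lt_iff₀ hε).1 hq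
    nlinarith
  obtain ⟨k, hk⟩ := (TopologicalSpace.denseRange_denseSeq (ℝ × ℝ)).exists_dist_lt z
    (show 0 < q' / 2 by positivity)
  have hρq : q' / Nc κ m ≤ q' := div_le_self hq0.le hN1
  refine ⟨q' / Nc κ m, by positivity, fun i j hij c' hc' α' β' ha0 ha hb0 hb => ?_⟩
  apply Q_closed hK hν
  intro ε' hε'
  obtain ⟨l, hl⟩ := (TopologicalSpace.denseRange_denseSeq (ι → ℝ)).exists_dist_lt c'
    (show 0 < min ε' q' by positivity)
  rw [lt_min_iff] at hl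
  obtain ⟨α, a1, a2, a3⟩ := exists_rat_near (show 0 < q' / Nc κ m by positivity) ha0 ha hε'
  obtain ⟨β, b1, b2, b3⟩ := exists_rat_near (show 0 < q' / Nc κ m by positivity) hb0 hb hε'
  refine ⟨TopologicalSpace.denseSeq (ι → ℝ) l, α, β, by rw [dist_comm]; exact hl.1, a3, b3, ?_⟩
  refine hz q k l α β i j ⟨legB_of H hq0 hqε (by rw [dist_comm]; linarith) ?_, a1, a2, b1, b2, hij⟩ ?_
  · have h2 : dist c' c1 < q' / Nc κ m := hc'
    have h3 := dist_triangle (TopologicalSpace.denseSeq (ι → ℝ) l) c' c1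
    rw [dist_comm _ c'] at h3
    linarith [hl.2]
  · exact hk.le

theorem Q_symm {ν : (ι → ℝ) → ℝ} {x0 a b : ι → ℝ} {z : ℝ × ℝ} {i j : ι} {c : ι → ℝ} {α β : ℝ}
    (h : Qz ν x0 a b z i j c α β) : Qz ν x0 a b z j i c β α := by
  unfold Qz at h ⊢
  refine h.congr fun t => ?_
  rw [mix_symm]

theorem Q_add_left {ν : (ι → ℝ) → ℝ} {x0 a b : ι → ℝ} {z : ℝ × ℝ} {i j : ι} {c : ι → ℝ}
    {α1 α2 β : ℝ} (h1 : Qz ν x0 a b z i j c α1 β)
    (h2 : Qz ν x0 a b z i j (c + Pi.single i α1) α2 β) : Qz ν x0 a b z i j c (α1 + α2) β := by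
  unfold Qz at h1 h2 ⊢
  have := h1.add h2
  rw [add_zero] at this
  refine this.congr fun t => ?_
  rw [← add_div]
  congr 1
  have e1 : t • (c + Pi.single i α1) = t • c + Pi.single i (α1 * t) := by
    rw [smul_add]; congr 1
    ext l
    by_cases h : l = i
    · subst h; simp [mul_comm]
    · simp [Pi.single_eq_of_ne h]
  have e2 : (Pi.single i ((α1 + α2) * t) : ι → ℝ) = Pi.single i (α1 * t) + Pi.single i (α2 * t) := by
    rw [← Pi.single_add, add_mul]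
  rw [e1, e2]
  unfold Mix
  have e3 : X x0 a b z + t • c + (Pi.single i (α1 * t) + Pi.single i (α2 * t)) +
      Pi.single j (β * t) = X x0 a b z + (t • c + Pi.single i (α1 * t)) + Pi.single i (α2 * t) +
      Pi.single j (β * t) := by abel
  have e4 : X x0 a b z + t • c + (Pi.single i (α1 * t) + Pi.single i (α2 * t)) =
      X x0 a b z + (t • c + Pi.single i (α1 * t)) + Pi.single i (α2 * t) := by abel
  have e5 : X x0 a b z + t • c + Pi.single i (α1 * t) = X x0 a b z + (t • c + Pi.single i (α1 * t)) := by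
    abel
  rw [e3, e4, e5]
  ring

theorem Q_add_right {ν : (ι → ℝ) → ℝ} {x0 a b : ι → ℝ} {z : ℝ × ℝ} {i j : ι} {c : ι → ℝ}
    {α β1 β2 : ℝ} (h1 : Qz ν x0 a b z i j c α β1)
    (h2 : Qz ν x0 a b z i j (c + Pi.single j β1) α β2) : Qz ν x0 a b z i j c α (β1 + β2) :=
  Q_symm (Q_add_left (Q_symm h1) (Q_symm h2))

theorem Q_zero (ν : (ι → ℝ) → ℝ) (x0 a b : ι → ℝ) (z : ℝ × ℝ) (i j : ι) (c : ι → ℝ) (β : ℝ) :
    Qz ν x0 a b z i j c 0 β := by
  unfold Qz
  have : (fun h : ℝ => Mix ν (Pi.single i (0 * h)) (Pi.single j (β * h))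
    (X x0 a b z + h • c) / h) = fun _ => 0 := by
    funext h
    rw [zero_mul, Pi.single_zero, mix_symm, mix_zero, zero_div]
  rw [this]; exact tendsto_const_nhds

theorem Q_grid {ν : (ι → ℝ) → ℝ} {x0 a b : ι → ℝ} {z : ℝ × ℝ} {i j : ι} {c : ι → ℝ}
    {α' β' : ℝ} (N : ℕ) (H : ∀ p q : ℕ, p < N → q < N →
      Qz ν x0 a b z i j (c + Pi.single i (p * α') + Pi.single j (q * β')) α' β') :
    Qz ν x0 a b z i j c (N * α') (N * β') := by
  have rows : ∀ q : ℕ, q < N → ∀ p : ℕ, p ≤ N →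
      Qz ν x0 a b z i j (c + Pi.single j (q * β')) (p * α') β' := by
    intro q hq p
    induction p with
    | zero => intro _; simp only [Nat.cast_zero, zero_mul]; exact Q_zero _ _ _ _ _ _ _ _ _
    | succ p ih =>
      intro hp
      have h1 := ih (by omega)
      have h2 := H p q (by omega) hq
      have e1 : c + Pi.single i (p * α') + Pi.single j (q * β') =
          c + Pi.single j (q * β') + Pi.single i (p * α') := by abel
      rw [e1] at h2
      have h3 := Q_add_left h1 h2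
      have e2 : ((p + 1 : ℕ) : ℝ) * α' = p * α' + α' := by push_cast; ring
      rw [e2]; exact h3
  have cols : ∀ q : ℕ, q ≤ N → Qz ν x0 a b z i j c (N * α') (q * β') := by
    intro q
    induction q with
    | zero =>
      intro _; simp only [Nat.cast_zero, zero_mul]
      exact Q_symm (Q_zero _ _ _ _ _ _ _ _ _)
    | succ q ih =>
      intro hq
      have h1 := ih (by omega)
      have h2 := rows q (by omega) N le_rfl
      have h3 := Q_add_right h1 h2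
      have e2 : ((q + 1 : ℕ) : ℝ) * β' = q * β' + β' := by push_cast; ring
      rw [e2]; exact h3
  exact cols N le_rfl

theorem seg_mem {D : Set (ι → ℝ)} (hD : Convex ℝ D) {x v : ι → ℝ} {s α : ℝ} (hx : x ∈ D)
    (hy : x + α • v ∈ D) (hs0 : 0 ≤ s) (hs : s ≤ α) : x + s • v ∈ D := by
  rcases eq_or_lt_of_le (hs0.trans hs) with h | h
  · have : s = 0 := by linarith
    rw [this, zero_smul, add_zero]; exact hx
  · have h1 := hD.add_smul_mem hx hy (t := s / α)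
      ⟨div_nonneg hs0 h.le, (div_le_one h).2 hs⟩
    rwa [smul_smul, div_mul_cancel₀ _ h.ne'] at h1

theorem single_eq_smul (i : ι) (s : ℝ) : (Pi.single i s : ι → ℝ) = s • Dg219.e i := by
  ext l
  by_cases h : l = i
  · subst h; simp [Dg219.e]
  · simp [Dg219.e, Pi.single_eq_of_ne h]

/-- from local to global: subdivision of the rectangle -/
theorem Q_global {ν : (ι → ℝ) → ℝ} {x0 a b : ι → ℝ} {z : ℝ × ℝ} {D : Set (ι → ℝ)}
    (hDc : Convex ℝ D) {i j : ι}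
    (H : ∀ c1 ∈ D, ∃ ρ > 0, ∀ c' ∈ ball c1 ρ, ∀ α' β', 0 ≤ α' → α' ≤ ρ → 0 ≤ β' → β' ≤ ρ →
      Qz ν x0 a b z i j c' α' β') {c : ι → ℝ} {α β : ℝ} (hα : 0 ≤ α) (hβ : 0 ≤ β) (h00 : c ∈ D)
    (h10 : c + α • Dg219.e i ∈ D) (h01 : c + β • Dg219.e j ∈ D)
    (h11 : c + α • Dg219.e i + β • Dg219.e j ∈ D) : Qz ν x0 a b z i j c α β := by
  set f : ℝ × ℝ → ι → ℝ := fun t => c + t.1 • Dg219.e i + t.2 • Dg219.e j with hf
  have hfc : Continuous f := by fun_prop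
  set Kc : Set (ι → ℝ) := f '' (Icc 0 α ×ˢ Icc 0 β) with hKc
  have hKcomp : IsCompact Kc := (isCompact_Icc.prod isCompact_Icc).image hfc
  have hKD : Kc ⊆ D := by
    rintro _ ⟨⟨s, t⟩, ⟨hs, ht⟩, rfl⟩
    simp only [hf]
    have h1 : c + s • Dg219.e i ∈ D := seg_mem hDc h00 h10 hs.1 hs.2
    have h2 : c + β • Dg219.e j + s • Dg219.e i ∈ D := by
      refine seg_mem hDc h01 ?_ hs.1 hs.2
      rw [add_right_comm]; exact h11
    refine seg_mem hDc h1 ?_ ht.1 ht.2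
    rw [add_right_comm]; exact h2
  choose! ρ hρ0 hρ using H
  obtain ⟨δ, hδ, hL⟩ := lebesgue_number_lemma_of_metric (c := fun c1 : D => ball (c1 : ι → ℝ) (ρ c1))
    hKcomp (fun _ => isOpen_ball) (by
      intro x hx
      rw [mem_iUnion]
      exact ⟨⟨x, hKD hx⟩, mem_ball_self (hρ0 x (hKD hx))⟩)
  obtain ⟨N, hN⟩ := exists_nat_gt (4 * (α + β) / δ)
  have hN0 : (0 : ℝ) < N := lt_of_le_of_lt (by positivity) hN
  have hN1 : 4 * (α + β) < N * δ := by
    have := (div_lt_iff₀ hδ).1 hN; linarith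
  have key : Qz ν x0 a b z i j c (N * (α / N)) (N * (β / N)) := by
    apply Q_grid
    intro p q hp hq
    have hpN : (p : ℝ) ≤ N := by exact_mod_cast hp.le
    have hqN : (q : ℝ) ≤ N := by exact_mod_cast hq.le
    have hx : c + Pi.single i (p * (α / N)) + Pi.single j (q * (β / N)) ∈ Kc := by
      refine ⟨(p * (α / N), q * (β / N)), ⟨⟨by positivity, ?_⟩, ⟨by positivity, ?_⟩⟩, ?_⟩
      · simp only
        calc (p : ℝ) * (α / N) ≤ N * (α / N) := mul_le_mul_of_nonneg_right hpN (by positivity)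
          _ = α := by field_simp
      · simp only
        calc (q : ℝ) * (β / N) ≤ N * (β / N) := mul_le_mul_of_nonneg_right hqN (by positivity)
          _ = β := by field_simp
      · simp only [hf]; rw [single_eq_smul, single_eq_smul]
    set x := c + Pi.single i (p * (α / N)) + Pi.single j (q * (β / N)) with hxdef
    obtain ⟨c1, hc1⟩ := hL x hx
    have hx1 : x ∈ ball (c1 : ι → ℝ) (ρ c1) := hc1 (mem_ball_self hδ)
    have hd : dist (x + Pi.single i (δ / 2)) x = δ / 2 := by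
      rw [dist_eq_norm, add_sub_cancel_left]
      apply le_antisymm
      · have := norm_single_le i (δ / 2)
        rwa [abs_of_pos (by positivity)] at this
      · have := norm_le_pi_norm (Pi.single i (δ / 2) : ι → ℝ) i
        rw [Pi.single_eq_same, Real.norm_eq_abs, abs_of_pos (by positivity)] at this
        exact this
    have hx2 : x + Pi.single i (δ / 2) ∈ ball (c1 : ι → ℝ) (ρ c1) := by
      apply hc1
      rw [mem_ball, hd]; linarith
    have hρδ : δ / 4 ≤ ρ c1 := by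
      have h1 := dist_triangle (x + Pi.single i (δ / 2)) (c1 : ι → ℝ) x
      rw [hd] at h1
      rw [mem_ball] at hx1 hx2
      rw [dist_comm (c1 : ι → ℝ) x] at h1
      linarith
    refine hρ c1 c1.2 x hx1 (α / N) (β / N) (by positivity) ?_ (by positivity) ?_
    · refine le_trans ?_ hρδ
      rw [div_le_iff₀ hN0]; nlinarith
    · refine le_trans ?_ hρδ
      rw [div_le_iff₀ hN0]; nlinarith
  have e1 : (N : ℝ) * (α / N) = α := by field_simp
  have e2 : (N : ℝ) * (β / N) = β := by field_simp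
  rwa [e1, e2] at key

theorem ae_plain_glob {ν : (ι → ℝ) → ℝ} {P : Set (ι → ℝ)} {K : ℝ} (hK : 0 ≤ K)
    (hν : ∀ p q, |ν p - ν q| ≤ K * dist p q) (hs : SupOn ν P) {x0 a b : ι → ℝ}
    {g : ι → ℕ} {w : ℕ → ℝ × ℝ} (hG : Grp a b g w) {Ω : Set (ℝ × ℝ)} {D : Set (ι → ℝ)}
    (hDc : Convex ℝ D) (hleg : LegU P x0 a b Ω D) :
    ∀ᵐ z : ℝ × ℝ, z ∈ Ω → ∀ i j, g i ≠ g j → ∀ (c : ι → ℝ) (α β : ℝ), 0 ≤ α → 0 ≤ β → c ∈ D →
      c + α • Dg219.e i ∈ D → c + β • Dg219.e j ∈ D → c + α • Dg219.e i + β • Dg219.e j ∈ D →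
      Qz ν x0 a b z i j c α β := by
  filter_upwards [ae_local hK hν hs hG hleg] with z hz hzΩ i j hij c α β hα hβ h00 h10 h01 h11
  rcases lt_or_gt_of_ne hij with h | h
  · refine Q_global hDc (fun c1 hc1 => ?_) hα hβ h00 h10 h01 h11
    obtain ⟨ρ, hρ0, hρ⟩ := hz hzΩ c1 hc1
    exact ⟨ρ, hρ0, fun c' hc' α' β' a1 a2 b1 b2 => hρ i j h c' hc' α' β' a1 a2 b1 b2⟩
  · refine Q_symm (Q_global hDc (fun c1 hc1 => ?_) hβ hα h00 h01 h10 ?_)
    · obtain ⟨ρ, hρ0, hρ⟩ := hz hzΩ c1 hc1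
      exact ⟨ρ, hρ0, fun c' hc' α' β' a1 a2 b1 b2 => hρ j i h c' hc' α' β' a1 a2 b1 b2⟩
    · rw [add_right_comm]; exact h11

/-- **plain form**: for a.e. `z` in `Ω` all mixed increments between different groups, corners in
`D`, are `o(h)`; `ν` Lipschitz and supermodular on the legal set `P` only -/
theorem ae_plain {ν : (ι → ℝ) → ℝ} {P : Set (ι → ℝ)} {K : ℝ} (hK : 0 ≤ K)
    (hν : ∀ p ∈ P, ∀ q ∈ P, |ν p - ν q| ≤ K * dist p q) (hs : SupOn ν P) {x0 a b : ι → ℝ}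
    {g : ι → ℕ} {w : ℕ → ℝ × ℝ} (hG : Grp a b g w) {Ω : Set (ℝ × ℝ)} {D : Set (ι → ℝ)}
    (hDc : Convex ℝ D) (hleg : LegU P x0 a b Ω D) :
    ∀ᵐ z : ℝ × ℝ, z ∈ Ω → ∀ i j, g i ≠ g j → ∀ (c : ι → ℝ) (α β : ℝ), 0 ≤ α → 0 ≤ β → c ∈ D →
      c + α • Dg219.e i ∈ D → c + β • Dg219.e j ∈ D → c + α • Dg219.e i + β • Dg219.e j ∈ D →
      Tendsto (fun h : ℝ => (ν (X x0 a b z + h • c) +
        ν (X x0 a b z + h • (c + α • Dg219.e i + β • Dg219.e j)) -
        ν (X x0 a b z + h • (c + α • Dg219.e i)) -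
        ν (X x0 a b z + h • (c + β • Dg219.e j))) / h) (𝓝[>] 0) (𝓝 0) := by
  have hlip : LipschitzOnWith ⟨K, hK⟩ ν P := LipschitzOnWith.of_dist_le_mul fun p hp q hq => by
    rw [Real.dist_eq]; exact hν p hp q hq
  obtain ⟨ν', h1, h2⟩ := hlip.extend_real
  have hν' : ∀ p q, |ν' p - ν' q| ≤ K * dist p q := by
    intro p q
    have := h1.dist_le_mul p q
    rw [Real.dist_eq] at this
    exact this
  have hs' : SupOn ν' P := by
    intro p hp q hq h3 h4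
    rw [← h2 hp, ← h2 hq, ← h2 h3, ← h2 h4]
    exact hs p hp q hq h3 h4
  filter_upwards [ae_plain_glob hK hν' hs' hG hDc hleg] with z hz hzΩ i j hij c α β hα hβ h00 h10 h01
    h11
  have h5 := hz hzΩ i j hij c α β hα hβ h00 h10 h01 h11
  unfold Qz at h5
  have leg : ∀ c1 ∈ D, ∀ᶠ h : ℝ in 𝓝[>] 0, X x0 a b z + h • c1 ∈ P := by
    intro c1 hc1
    obtain ⟨ε, hε, H⟩ := hleg z hzΩ c1 hc1
    have : Ioo (0 : ℝ) ε ∈ 𝓝[>] (0 : ℝ) := Ioo_mem_nhdsGT hε
    filter_upwards [this] with h hh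
    exact H z c1 h (by rw [dist_self]; exact hε) (by rw [dist_self]; exact hε) hh.1 hh.2
  refine h5.congr' ?_
  filter_upwards [leg c h00, leg _ h10, leg _ h01, leg _ h11] with h l00 l10 l01 l11
  rw [h2 l00, h2 l10, h2 l01, h2 l11]
  congr 1
  unfold Mix
  have e1 : X x0 a b z + h • c + Pi.single i (α * h) + Pi.single j (β * h) =
      X x0 a b z + h • (c + α • Dg219.e i + β • Dg219.e j) := by
    rw [single_eq_smul, single_eq_smul, smul_add, smul_add, smul_smul, smul_smul, mul_comm h α,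
      mul_comm h β]
    abel
  have e2 : X x0 a b z + h • c + Pi.single i (α * h) = X x0 a b z + h • (c + α • Dg219.e i) := by
    rw [single_eq_smul, smul_add, smul_smul, mul_comm h α]; abel
  have e3 : X x0 a b z + h • c + Pi.single j (β * h) = X x0 a b z + h • (c + β • Dg219.e j) := by
    rw [single_eq_smul, smul_add, smul_smul, mul_comm h β]; abel
  rw [e1, e2, e3]

/-- **blow-up form**: every limit `lam` of `(ν (X z + h c) - B h) / h` on `D` along a filter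
`W ≤ 𝓝[>] 0` has vanishing cross differences (for a.e. `z`, all filters at once) -/
theorem ae_cross {ν : (ι → ℝ) → ℝ} {P : Set (ι → ℝ)} {K : ℝ} (hK : 0 ≤ K)
    (hν : ∀ p ∈ P, ∀ q ∈ P, |ν p - ν q| ≤ K * dist p q) (hs : SupOn ν P) {x0 a b : ι → ℝ}
    {g : ι → ℕ} {w : ℕ → ℝ × ℝ} (hG : Grp a b g w) {Ω : Set (ℝ × ℝ)} {D : Set (ι → ℝ)}
    (hDc : Convex ℝ D) (hleg : LegU P x0 a b Ω D) :
    ∀ᵐ z : ℝ × ℝ, z ∈ Ω → ∀ W : Filter ℝ, W ≤ 𝓝[>] 0 → W.NeBot → ∀ (lam : (ι → ℝ) → ℝ)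
      (Bf : ℝ → ℝ), (∀ c ∈ D, Tendsto (fun h => (ν (X x0 a b z + h • c) - Bf h) / h) W
        (𝓝 (lam c))) → Dg219.Cross g D lam := by
  filter_upwards [ae_plain hK hν hs hG hDc hleg] with z hz hzΩ W hW hWb lam Bf hlam
  intro i j hij c α β hα hβ h00 h10 h01 h11
  have h5 := (hz hzΩ i j hij c α β hα hβ h00 h10 h01 h11).mono_left hW
  have h6 := ((hlam _ h11).add (hlam _ h00)).sub ((hlam _ h10).add (hlam _ h01))
  have h7 := h6.congr' (f₂ := fun h : ℝ => (ν (X x0 a b z + h • c) +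
        ν (X x0 a b z + h • (c + α • Dg219.e i + β • Dg219.e j)) -
        ν (X x0 a b z + h • (c + α • Dg219.e i)) -
        ν (X x0 a b z + h • (c + β • Dg219.e j))) / h) (Eventually.of_forall fun h => by ring)
  have h8 := tendsto_nhds_unique h7 h5
  linarith

/-- blow-up form along sequences -/
theorem ae_cross_seq {ν : (ι → ℝ) → ℝ} {P : Set (ι → ℝ)} {K : ℝ} (hK : 0 ≤ K)
    (hν : ∀ p ∈ P, ∀ q ∈ P, |ν p - ν q| ≤ K * dist p q) (hs : SupOn ν P) {x0 a b : ι → ℝ}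
    {g : ι → ℕ} {w : ℕ → ℝ × ℝ} (hG : Grp a b g w) {Ω : Set (ℝ × ℝ)} {D : Set (ι → ℝ)}
    (hDc : Convex ℝ D) (hleg : LegU P x0 a b Ω D) :
    ∀ᵐ z : ℝ × ℝ, z ∈ Ω → ∀ hl : ℕ → ℝ, (∀ l, 0 < hl l) → Tendsto hl atTop (𝓝 0) →
      ∀ (lam : (ι → ℝ) → ℝ) (Bf : ℕ → ℝ),
      (∀ c ∈ D, Tendsto (fun l => (ν (X x0 a b z + hl l • c) - Bf l) / hl l) atTop
        (𝓝 (lam c))) → Dg219.Cross g D lam := by
  filter_upwards [ae_plain hK hν hs hG hDc hleg] with z hz hzΩ hl hl0 hlt lam Bf hlam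
  intro i j hij c α β hα hβ h00 h10 h01 h11
  have ht : Tendsto hl atTop (𝓝[>] 0) :=
    tendsto_nhdsWithin_iff.2 ⟨hlt, Eventually.of_forall fun l => hl0 l⟩
  have h5 := (hz hzΩ i j hij c α β hα hβ h00 h10 h01 h11).comp ht
  have h6 := ((hlam _ h11).add (hlam _ h00)).sub ((hlam _ h10).add (hlam _ h01))
  have h7 := h6.congr' (f₂ := (fun h : ℝ => (ν (X x0 a b z + h • c) +
        ν (X x0 a b z + h • (c + α • Dg219.e i + β • Dg219.e j)) -
        ν (X x0 a b z + h • (c + α • Dg219.e i)) -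
        ν (X x0 a b z + h • (c + β • Dg219.e j))) / h) ∘ hl)
        (Eventually.of_forall fun l => by simp only [Function.comp]; ring)
  have h8 := tendsto_nhds_unique h7 h5
  linarith

end Crest.Agent.R136.Dg262
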