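import Crest.Agent.R136.Dg6_219
import Crest.Agent.R136.Dg6_262

/-!
# R136: THE GENERAL DECOUPLING THEOREM (helper219, analytic core by helper262)

`ae_out` : `ν` monotone, Lipschitz, supermodular on the legal set `Q.P lo hi` of the walls `Q`.
At almost every point `z` of the part `Q.O` of the natural plane `X x0 a b` in the interior of all
non-active walls, `ν ∘ X` is differentiable with derivative `D`, and every blow-up `lam` of `ν` at
`X z` on the cone `Q.L` of the active walls splits: `lam c = Σ_k φ_k (c_k)`, with group functions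
linear along the natural direction of the group: rate `r k ≥ 0`, `Σ_k r k * n k = - D`.
-/

set_option autoImplicit false
set_option linter.unusedSectionVars false
set_option linter.unusedVariables false

open Set Filter Topology Metric MeasureTheory

namespace Crest.Agent.R136.Dg219

open Dg262 (X X_cont SupOn LegU)

variable {ι κ : Type*} [Fintype ι] [DecidableEq ι] [DecidableEq κ]

/-- `lam` is the pointwise blow-up of `ν` at `x` along the scales `h l` -/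
structure BUp (P L : Set (ι → ℝ)) (ν : (ι → ℝ) → ℝ) (x : ι → ℝ) (h : ℕ → ℝ)
    (lam : (ι → ℝ) → ℝ) : Prop where
  pos : ∀ l, 0 < h l
  zero : Tendsto h atTop (𝓝 0)
  mem : ∀ c ∈ L, ∀ᶠ l in atTop, x + h l • c ∈ P
  lim : ∀ c ∈ L, Tendsto (fun l => (ν (x + h l • c) - ν x) / h l) atTop (𝓝 (lam c))

section

variable {P L : Set (ι → ℝ)} {ν : (ι → ℝ) → ℝ} {x : ι → ℝ} {h : ℕ → ℝ} {lam : (ι → ℝ) → ℝ}

theorem BUp.lam0 (H : BUp P L ν x h lam) (h0 : (0 : ι → ℝ) ∈ L) : lam 0 = 0 := by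
  have h1 := H.lim 0 h0
  have h2 : Tendsto (fun l => (ν (x + h l • (0 : ι → ℝ)) - ν x) / h l) atTop (𝓝 0) := by
    refine tendsto_const_nhds.congr fun l => ?_
    rw [smul_zero, add_zero, sub_self, zero_div]
  exact tendsto_nhds_unique h1 h2

theorem BUp.sub (H : BUp P L ν x h lam) {c c' : ι → ℝ} (hc : c ∈ L) (hc' : c' ∈ L) :
    Tendsto (fun l => (ν (x + h l • c) - ν (x + h l • c')) / h l) atTop
      (𝓝 (lam c - lam c')) := by
  refine ((H.lim c hc).sub (H.lim c' hc')).congr fun l => ?_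
  rw [← sub_div]; congr 1; ring

theorem BUp.lip (H : BUp P L ν x h lam) {K : ℝ}
    (hν : ∀ p ∈ P, ∀ q ∈ P, |ν p - ν q| ≤ K * dist p q) :
    ∀ c ∈ L, ∀ c' ∈ L, |lam c - lam c'| ≤ K * dist c c' := by
  intro c hc c' hc'
  have h1 := (H.sub hc hc').abs
  refine le_of_tendsto h1 ?_
  filter_upwards [H.mem c hc, H.mem c' hc'] with l m1 m2
  have h2 := hν _ m1 _ m2
  have h3 := H.pos l
  rw [abs_div, abs_of_pos h3, div_le_iff₀ h3]
  refine h2.trans (le_of_eq ?_)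
  rw [dist_add_left, dist_smul₀, Real.norm_of_nonneg h3.le]; ring

theorem BUp.mono (H : BUp P L ν x h lam)
    (hm : ∀ p ∈ P, ∀ q ∈ P, p ≤ q → 0 ≤ ν p - ν q ∧ ν p - ν q ≤ ∑ i, (q i - p i)) :
    ∀ c ∈ L, ∀ c' ∈ L, c ≤ c' → 0 ≤ lam c - lam c' ∧ lam c - lam c' ≤ ∑ i, (c' i - c i) := by
  intro c hc c' hc' hcc
  have h1 := H.sub hc hc'
  have key : ∀ᶠ l in atTop, 0 ≤ (ν (x + h l • c) - ν (x + h l • c')) / h l ∧
      (ν (x + h l • c) - ν (x + h l • c')) / h l ≤ ∑ i, (c' i - c i) := by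
    filter_upwards [H.mem c hc, H.mem c' hc'] with l m1 m2
    have h3 := H.pos l
    have h2 := hm _ m1 _ m2 (by
      intro i
      simp only [Pi.add_apply, Pi.smul_apply, smul_eq_mul]
      have := mul_le_mul_of_nonneg_left (hcc i) h3.le
      linarith)
    refine ⟨div_nonneg h2.1 h3.le, ?_⟩
    rw [div_le_iff₀ h3]
    refine h2.2.trans (le_of_eq ?_)
    rw [Finset.sum_mul]
    refine Finset.sum_congr rfl fun i _ => ?_
    simp only [Pi.add_apply, Pi.smul_apply, smul_eq_mul]; ring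
  exact ⟨ge_of_tendsto h1 (key.mono fun l hl => hl.1), le_of_tendsto h1 (key.mono fun l hl => hl.2)⟩

theorem sup_smul' {s : ℝ} (hs : 0 ≤ s) (x c c' : ι → ℝ) :
    (x + s • c) ⊔ (x + s • c') = x + s • (c ⊔ c') := by
  funext i
  simp only [Pi.sup_apply, Pi.add_apply, Pi.smul_apply, smul_eq_mul]
  rcases le_total (c i) (c' i) with h | h
  · rw [sup_eq_right.2 h, sup_eq_right.2 (by gcongr)]
  · rw [sup_eq_left.2 h, sup_eq_left.2 (by gcongr)]

theorem inf_smul' {s : ℝ} (hs : 0 ≤ s) (x c c' : ι → ℝ) :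
    (x + s • c) ⊓ (x + s • c') = x + s • (c ⊓ c') := by
  funext i
  simp only [Pi.inf_apply, Pi.add_apply, Pi.smul_apply, smul_eq_mul]
  rcases le_total (c i) (c' i) with h | h
  · rw [inf_eq_left.2 h, inf_eq_left.2 (by gcongr)]
  · rw [inf_eq_right.2 h, inf_eq_right.2 (by gcongr)]

theorem BUp.smod (H : BUp P L ν x h lam) (hs : SupOn ν P) :
    ∀ c ∈ L, ∀ c' ∈ L, c ⊓ c' ∈ L → c ⊔ c' ∈ L →
      lam c + lam c' ≤ lam (c ⊔ c') + lam (c ⊓ c') := by
  intro c hc c' hc' h1 h2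
  have k1 := H.sub hc h2
  have k2 := H.sub h1 hc'
  have key : ∀ᶠ l in atTop, (ν (x + h l • c) - ν (x + h l • (c ⊔ c'))) / h l ≤
      (ν (x + h l • (c ⊓ c')) - ν (x + h l • c')) / h l := by
    filter_upwards [H.mem c hc, H.mem c' hc', H.mem _ h1, H.mem _ h2] with l m1 m2 m3 m4
    have h3 := H.pos l
    have h4 := hs _ m1 _ m2 (by rw [inf_smul' h3.le]; exact m3) (by rw [sup_smul' h3.le]; exact m4)
    rw [inf_smul' h3.le, sup_smul' h3.le] at h4
    rw [div_le_div_iff_of_pos_right h3]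
    linarith
  have := le_of_tendsto_of_tendsto k1 k2 key
  linarith

end

section

variable {W : Type*} [Fintype W] (Q : Walls ι W) {x0 a b lo hi : ι → ℝ}

theorem Walls.X_mem {z : ℝ × ℝ} (hz : z ∈ Q.O lo hi x0 a b) : X x0 a b z ∈ Q.P lo hi := by
  obtain ⟨ε, hε, H⟩ := Walls.legal hz 0
  have := H z (by rw [dist_self]; exact hε) (ε / 2) (by positivity) (by linarith) 0
    (Walls.cone (Q := Q)).zero (by simp)
  simpa using this

theorem Walls.legU : LegU (Q.P lo hi) x0 a b (Q.O lo hi x0 a b) (Q.D x0 a b) := by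
  intro z0 hz0 c0 hc0
  obtain ⟨δ, hδ, hball⟩ := Metric.isOpen_iff.1 (Walls.isOpen_D (Q := Q) (x0 := x0) (a := a)
    (b := b)) c0 hc0
  obtain ⟨ε, hε, H⟩ := Walls.legal hz0 (‖c0‖ + δ)
  refine ⟨min ε δ, lt_min hε hδ, fun z c h hz hc hh hhe => ?_⟩
  refine H z (hz.trans_le (min_le_left _ _)) h hh (hhe.trans_le (min_le_left _ _)) c ?_ ?_
  · have h1 : c ∈ Q.D x0 a b := hball (hc.trans_le (min_le_right _ _))
    exact fun w hw => (h1 w hw).le
  · have h1 : dist c c0 ≤ δ := (hc.trans_le (min_le_right _ _)).le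
    rw [dist_eq_norm] at h1
    calc ‖c‖ = ‖c0 + (c - c0)‖ := by congr 1; abel
      _ ≤ ‖c0‖ + ‖c - c0‖ := norm_add_le _ _
      _ ≤ ‖c0‖ + δ := by linarith

theorem X_lip (x0 a b : ι → ℝ) : LipschitzWith (‖a‖₊ + ‖b‖₊) (X x0 a b) := by
  apply LipschitzWith.of_dist_le_mul
  intro z z'
  rw [dist_pi_le_iff (by positivity)]
  intro i
  rw [Real.dist_eq]
  have e1 : X x0 a b z i - X x0 a b z' i = a i * (z.1 - z'.1) + b i * (z.2 - z'.2) := by
    simp only [X]; ring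
  have h1 : |z.1 - z'.1| ≤ dist z z' := by
    rw [← Real.dist_eq, Prod.dist_eq]; exact le_max_left _ _
  have h2 : |z.2 - z'.2| ≤ dist z z' := by
    rw [← Real.dist_eq, Prod.dist_eq]; exact le_max_right _ _
  have h3 : |a i| ≤ ‖a‖ := by rw [← Real.norm_eq_abs]; exact norm_le_pi_norm a i
  have h4 : |b i| ≤ ‖b‖ := by rw [← Real.norm_eq_abs]; exact norm_le_pi_norm b i
  rw [e1]
  refine (abs_add_le _ _).trans ?_
  rw [abs_mul, abs_mul]
  push_cast
  rw [add_mul]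
  exact add_le_add (mul_le_mul h3 h1 (abs_nonneg _) (norm_nonneg _))
    (mul_le_mul h4 h2 (abs_nonneg _) (norm_nonneg _))

theorem X_add (x0 a b : ι → ℝ) (z z' : ℝ × ℝ) (s : ℝ) :
    X x0 a b (z + s • z') = X x0 a b z + s • Tn a b z' := by
  funext i
  simp only [X, Tn, Pi.add_apply, Pi.smul_apply, smul_eq_mul, Prod.fst_add, Prod.snd_add,
    Prod.smul_fst, Prod.smul_snd]
  ring

/-- `Out` depends on `lam` only through its values on `L` -/
theorem Out.congr {grp : ι → κ} {L : Set (ι → ℝ)} {dh : ι → ℝ} {n : κ → ℝ × ℝ}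
    {lam lam' : (ι → ℝ) → ℝ} {A : ℝ × ℝ} {φ : κ → (ι → ℝ) → ℝ} {r : κ → ℝ}
    (H : Out grp L dh n lam A φ r) (h : ∀ c ∈ L, lam' c = lam c) : Out grp L dh n lam' A φ r where
  sum := fun c hc => by rw [h c hc]; exact H.sum c hc
  loc := H.loc
  zero := H.zero
  mono := H.mono
  smod := H.smod
  rate := H.rate
  r_nonneg := H.r_nonneg
  r_le := H.r_le
  total := H.total

/-- **GENERAL DECOUPLING THEOREM** -/
theorem ae_out {ν : (ι → ℝ) → ℝ} {K : ℝ} (hK : 0 ≤ K)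
    (hν : ∀ p ∈ Q.P lo hi, ∀ q ∈ Q.P lo hi, |ν p - ν q| ≤ K * dist p q)
    (hm : ∀ p ∈ Q.P lo hi, ∀ q ∈ Q.P lo hi, p ≤ q →
      0 ≤ ν p - ν q ∧ ν p - ν q ≤ ∑ i, (q i - p i))
    (hs : SupOn ν (Q.P lo hi)) {grp : ι → κ} {n : κ → ℝ × ℝ} {dh : ι → ℝ}
    (hd : Dir grp a b n dh) {s t : ℝ} (hst : ∀ i, 0 < s * a i + t * b i) :
    ∀ᵐ z : ℝ × ℝ, z ∈ Q.O lo hi x0 a b → ∃ D : ℝ × ℝ →L[ℝ] ℝ,
      HasFDerivAt (fun z => ν (X x0 a b z)) D z ∧
      ∀ (h : ℕ → ℝ) (lam : (ι → ℝ) → ℝ),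
        BUp (Q.P lo hi) (Q.L x0 a b) ν (X x0 a b z) h lam →
        ∃ (φ : κ → (ι → ℝ) → ℝ) (r : κ → ℝ),
          Out grp (Q.L x0 a b) dh n lam (D (1, 0), D (0, 1)) φ r := by
  obtain ⟨g, w, hGrp, hgg⟩ := exists_grp hst
  have hgrp : ∀ i j, grp i ≠ grp j → g i ≠ g j := by
    intro i j hij hg
    apply hd.det i j hij
    have h1 := hgg i j hg
    rw [hd.fst i, hd.fst j, hd.snd i, hd.snd j] at h1
    have h2 : dh i * dh j * det2 (n (grp i)) (n (grp j)) = 0 := by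
      unfold det2; linear_combination h1
    exact (mul_eq_zero.1 h2).resolve_left (mul_pos (hd.pos i) (hd.pos j)).ne'
  -- Lipschitz extension
  have hlip : LipschitzOnWith ⟨K, hK⟩ ν (Q.P lo hi) :=
    LipschitzOnWith.of_dist_le_mul fun p hp q hq => by rw [Real.dist_eq]; exact hν p hp q hq
  obtain ⟨ν', hν', he⟩ := hlip.extend_real
  have hdiff := (hν'.comp (X_lip x0 a b)).ae_differentiableAt (μ := volume)
  have hcross := Dg262.ae_cross_seq hK hν hs hGrp (Q.convex_D (x0 := x0) (a := a) (b := b))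
    (Q.legU (lo := lo) (hi := hi) (x0 := x0) (a := a) (b := b))
  have hgeo : Geo grp (Q.D x0 a b) (Q.L x0 a b) (Q.rm grp) Q.rs := Walls.geo hd
  filter_upwards [hdiff, hcross] with z hz1 hz2 hz
  obtain ⟨D, hD'⟩ := hz1
  have hD : HasFDerivAt (fun z => ν (X x0 a b z)) D z := by
    refine hD'.congr_of_eventuallyEq ?_
    filter_upwards [(Walls.isOpen_O (Q := Q) (lo := lo) (hi := hi) (x0 := x0) (a := a)
      (b := b)).mem_nhds hz] with z' hz'
    exact he (Q.X_mem hz')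
  refine ⟨D, hD, fun h lam H => ?_⟩
  -- extension of `lam`
  have hlam : LipschitzOnWith ⟨K, hK⟩ lam (Q.L x0 a b) :=
    LipschitzOnWith.of_dist_le_mul fun p hp q hq => by
      rw [Real.dist_eq]; exact H.lip hν p hp q hq
  obtain ⟨G, hG, heG⟩ := hlam.extend_real
  have h0L : (0 : ι → ℝ) ∈ Q.L x0 a b := hgeo.cone.zero
  have hG0 : G 0 = 0 := by rw [← heG h0L]; exact H.lam0 h0L
  have hsep : Sep grp (Q.D x0 a b) G := by
    refine sep_open ?_ hgeo.opn hgeo.conv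
    have hc := hz2 hz h H.pos H.zero lam (fun _ => ν (X x0 a b z))
      (fun c hc => H.lim c (hgeo.sub hc))
    intro i j hij c α β hα hβ h00 h10 h01 h11
    rw [← heG (hgeo.sub h11), ← heG (hgeo.sub h00), ← heG (hgeo.sub h10), ← heG (hgeo.sub h01)]
    exact hc i j (hgrp i j hij) c α β hα hβ h00 h10 h01 h11
  have hsepL : Sep grp (Q.L x0 a b) G := sep_closed hsep hG.continuous hgeo.inn
  have hmono : ∀ c ∈ Q.L x0 a b, ∀ c' ∈ Q.L x0 a b, c ≤ c' → 0 ≤ G c - G c' ∧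
      G c - G c' ≤ ∑ i, (c' i - c i) := by
    intro c hc c' hc' hcc
    rw [← heG hc, ← heG hc']
    exact H.mono hm c hc c' hc' hcc
  have hsmod : ∀ p ∈ Q.L x0 a b, ∀ q ∈ Q.L x0 a b, p ⊓ q ∈ Q.L x0 a b → p ⊔ q ∈ Q.L x0 a b →
      G p + G q ≤ G (p ⊔ q) + G (p ⊓ q) := by
    intro p hp q hq h1 h2
    rw [← heG hp, ← heG hq, ← heG h1, ← heG h2]
    exact H.smod hs p hp q hq h1 h2
  have hA : ∀ z' : ℝ × ℝ, G (Tn a b z') = lf (D (1, 0), D (0, 1)) z' := by
    intro z'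
    rw [← heG (Walls.Tn_mem (Q := Q) (x0 := x0) z')]
    have hinv : Tendsto (fun l => ‖(h l)⁻¹‖) atTop atTop := by
      have h1 : Tendsto h atTop (𝓝[>] 0) :=
        tendsto_nhdsWithin_iff.2 ⟨H.zero, Eventually.of_forall fun l => H.pos l⟩
      have h2 := tendsto_inv_nhdsGT_zero.comp h1
      refine h2.congr fun l => ?_
      rw [Function.comp, Real.norm_of_nonneg (inv_nonneg.2 (H.pos l).le)]
    have h3 := hD.lim z' hinv
    have h4 := H.lim _ (Walls.Tn_mem (Q := Q) (x0 := x0) (a := a) (b := b) z')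
    have h5 : lam (Tn a b z') = D z' := by
      refine tendsto_nhds_unique h4 (h3.congr fun l => ?_)
      rw [inv_inv, X_add, smul_eq_mul, div_eq_inv_mul]
    rw [h5]
    have h6 : z' = z'.1 • ((1:ℝ), (0:ℝ)) + z'.2 • ((0:ℝ), (1:ℝ)) := by
      ext <;> simp
    conv_lhs => rw [h6]
    rw [map_add, map_smul, map_smul, smul_eq_mul, smul_eq_mul]
    simp only [lf]; ring
  obtain ⟨r, hr⟩ := rates hgeo hsepL hG.continuous hG0 hmono hsmod hd
    (fun z' => Walls.Tn_mem (Q := Q) z') hA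
  exact ⟨_, r, hr.congr fun c hc => heG hc⟩

/-- coordinates alone in their group: linear in the coordinate, with a rate in `[0, 1]` -/
theorem Out.single {grp : ι → κ} {L : Set (ι → ℝ)} {dh : ι → ℝ} {n : κ → ℝ × ℝ}
    {lam : (ι → ℝ) → ℝ} {A : ℝ × ℝ} {φ : κ → (ι → ℝ) → ℝ} {r : κ → ℝ}
    (H : Out grp L dh n lam A φ r) {i : ι} (hi : 0 < dh i) (hal : ∀ j, grp j = grp i → j = i) :
    0 ≤ r (grp i) / dh i ∧ r (grp i) / dh i ≤ 1 ∧
      ∀ c ∈ L, φ (grp i) c = -(r (grp i) / dh i * c i) := by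
  refine ⟨div_nonneg (H.r_nonneg _) hi.le, ?_, ?_⟩
  · rw [div_le_one hi]
    refine (H.r_le _).trans (le_of_eq ?_)
    have : Finset.univ.filter (fun j => grp j = grp i) = {i} := by
      ext j
      simp only [Finset.mem_filter, Finset.mem_univ, true_and, Finset.mem_singleton]
      exact ⟨hal j, fun h => by rw [h]⟩
    rw [this, Finset.sum_singleton]
  · intro c hc
    rw [H.rate (grp i) c hc (c i / dh i) (fun j hj => by
      rw [hal j hj]; field_simp)]
    ring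

end

end Crest.Agent.R136.Dg219
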