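import Crest.Agent.R136.Rb0_741
import Crest.Agent.R136.Dg7_219

/-!
# R136: record blow-up, instance for the walls (helper219)

* `Walls.rw`   : `Rb741.RW` for the wall cone of `Walls`
* `Walls.legR` : `Rb741.LegR` along a record line
* `dir_nat`    : a `Dir` with any group type transported to the labels `g : ι → ℕ` of an ordering
* `exists_ord` : ordering `g`, directions `w`, `Dir g`, from a `Dir grp`
-/

set_option autoImplicit false
set_option linter.unusedSectionVars false
set_option linter.unusedVariables false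

open Set Filter Topology Metric

namespace Crest.Agent.R136.Dg219

open Dg262 (X X_cont)

variable {ι κ : Type*} [Fintype ι] [DecidableEq ι] [DecidableEq κ]

theorem Tn_add (a b : ι → ℝ) (z z' : ℝ × ℝ) : Tn a b (z + z') = Tn a b z + Tn a b z' := by
  funext i; simp only [Tn, Pi.add_apply, Prod.fst_add, Prod.snd_add]; ring

section

variable {W : Type*} [Fintype W] {Q : Walls ι W} {x0 a b lo hi : ι → ℝ}

theorem Walls.rhs_mono (w : W) {c d : ι → ℝ} (h : c ≤ d) : Q.rhs w c ≤ Q.rhs w d :=
  Finset.sum_le_sum fun s _ => mul_le_mul_of_nonneg_left (h s) (Nat.cast_nonneg _)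

theorem Walls.rhs_congr (w : W) {c d : ι → ℝ} (h : ∀ s, Q.co w s ≠ 0 → c s = d s) :
    Q.rhs w c = Q.rhs w d := by
  unfold Walls.rhs
  refine Finset.sum_congr rfl fun s _ => ?_
  by_cases hs : Q.co w s = 0
  · rw [hs]; simp
  · rw [h s hs]

theorem Walls.rhs_abs (w : W) {c : ι → ℝ} {A : ℝ} (h : ∀ i, |c i| ≤ A) :
    -(A * ∑ s, (Q.co w s : ℝ)) ≤ Q.rhs w c := by
  unfold Walls.rhs
  rw [Finset.mul_sum, ← Finset.sum_neg_distrib]
  refine Finset.sum_le_sum fun s _ => ?_
  have h1 := (abs_le.1 (h s)).1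
  have h2 : (0:ℝ) ≤ (Q.co w s : ℝ) := Nat.cast_nonneg _
  nlinarith

/-- **axioms of the record blow-up** -/
theorem Walls.rw {g : ι → ℕ} {n : ℕ → ℝ × ℝ} {dh : ι → ℝ} (hd : Dir g a b n dh) :
    Rb741.RW g a b (Q.L x0 a b) Q.rk (Q.rm g) where
  zero := (Walls.cone (Q := Q)).zero
  add := (Walls.cone (Q := Q)).add
  smul := (Walls.cone (Q := Q)).smul
  nat := fun z => Walls.Tn_mem z
  sup := fun c hc d hd' w hw => by
    rw [Pi.sup_apply]
    exact sup_le ((hc w hw).trans (Walls.rhs_mono w le_sup_left))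
      ((hd' w hw).trans (Walls.rhs_mono w le_sup_right))
  raise := fun c hc d hd' hcd i hi w hw => by
    have hup : c ≤ Function.update c i (d i) := by
      intro j
      by_cases hj : j = i
      · subst hj; rw [Function.update_self]; exact hcd j
      · rw [Function.update_of_ne hj]
    by_cases hwi : Q.hd w = i
    · rw [hwi, Function.update_self]
      have h1 : Q.rhs w (Function.update c i (d i)) = Q.rhs w d := by
        refine Walls.rhs_congr w fun s hs => ?_
        have h2 : Q.rk s < Q.rk i := by rw [← hwi]; exact Q.low w s hs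
        have h3 : s ≠ i := by rintro rfl; exact lt_irrefl _ h2
        rw [Function.update_of_ne h3]; exact hi s h2
      rw [h1]
      have := hd' w hw
      rwa [hwi] at this
    · rw [Function.update_of_ne hwi]
      exact (hc w hw).trans (Walls.rhs_mono w hup)
  rm_in := fun k i hi => by unfold Walls.rm; rw [if_pos hi]
  rm_off := fun k i hi => by unfold Walls.rm; rw [if_neg hi]; exact Q.one_le_rs i
  room := fun k => by
    set S : ℝ := ∑ w, ∑ s, (Q.co w s : ℝ) with hS
    have hS0 : ∀ w, 0 ≤ ∑ s, (Q.co w s : ℝ) := fun w => Finset.sum_nonneg fun s _ =>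
      Nat.cast_nonneg _
    have hSw : ∀ w, ∑ s, (Q.co w s : ℝ) ≤ S := fun w =>
      Finset.single_le_sum (f := fun w => ∑ s, (Q.co w s : ℝ)) (fun w _ => hS0 w)
        (Finset.mem_univ w)
    have hS0' : 0 ≤ S := Finset.sum_nonneg fun w _ => hS0 w
    refine ⟨1 + S, by linarith, fun e A R hA he hex hR w hw => ?_⟩
    have hR0 : 0 ≤ R := le_trans (by positivity) hR
    rw [Q.rhs_add, Q.rhs_smul]
    simp only [Pi.add_apply, Pi.smul_apply, smul_eq_mul]
    have h1 := Walls.rhs_abs (Q := Q) w he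
    have h2 : A * ∑ s, (Q.co w s : ℝ) ≤ A * S := mul_le_mul_of_nonneg_left (hSw w) hA
    have h3 : e (Q.hd w) ≤ A := (le_abs_self _).trans (he _)
    by_cases hk : g (Q.hd w) = k
    · have e1 : Q.rm g k (Q.hd w) = 0 := by unfold Walls.rm; rw [if_pos hk]
      rw [e1, mul_zero, add_zero]
      by_cases hs : ∃ s, Q.co w s ≠ 0 ∧ g s ≠ k
      · obtain ⟨s, hs, hsk⟩ := hs
        have e2 : Q.rm g k s = Q.rs s := by unfold Walls.rm; rw [if_neg hsk]
        have h4 : 1 ≤ Q.rhs w (Q.rm g k) := by
          have := Q.le_rhs (Q.rm_nonneg g k) hs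
          rw [e2] at this
          exact (Q.one_le_rs s).trans this
        have h5 : R * 1 ≤ R * Q.rhs w (Q.rm g k) := mul_le_mul_of_nonneg_left h4 hR0
        nlinarith
      · push Not at hs
        obtain ⟨c, hc, hce⟩ := hex
        have h4 : Q.rhs w e = Q.rhs w c :=
          Walls.rhs_congr w fun s hs' => (hce s (hs s hs')).symm
        have h5 := hc w hw
        rw [hce _ hk] at h5
        have h6 : 0 ≤ R * Q.rhs w (Q.rm g k) :=
          mul_nonneg hR0 (Q.rhs_nonneg (Q.rm_nonneg g k))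
        linarith
    · have e1 : Q.rm g k (Q.hd w) = Q.rs (Q.hd w) := by unfold Walls.rm; rw [if_neg hk]
      rw [e1]
      have h4 := Walls.rm_mem hd hw hk
      have h5 : R * (Q.rs (Q.hd w) + 1) ≤ R * Q.rhs w (Q.rm g k) :=
        mul_le_mul_of_nonneg_left h4 hR0
      nlinarith

/-- **legality near a record line** -/
theorem Walls.legR (z00 r : ℝ × ℝ) :
    Rb741.LegR (Q.P lo hi) (X x0 a b z00) (Tn a b r) (Q.L x0 a b)
      {ξ : ℝ | z00 + ξ • r ∈ Q.O lo hi x0 a b} := by
  intro x₀ hx₀
  obtain ⟨ε, hε, H⟩ := Walls.legal hx₀ 1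
  have hcont : Continuous fun x : ℝ => z00 + x • r := by fun_prop
  obtain ⟨δ, hδ, h1⟩ := Metric.continuous_iff.1 hcont x₀ ε hε
  refine ⟨δ / 2, by positivity, ε / 2, by positivity, fun x hx c hc hcr => ?_⟩
  have e1 : X x0 a b z00 + x • Tn a b r + c =
      X x0 a b (z00 + x • r) + (ε / 2) • ((ε / 2)⁻¹ • c) := by
    rw [X_add, smul_smul, mul_inv_cancel₀ (by positivity), one_smul]
  rw [e1]
  refine H _ (h1 x (by rw [Real.dist_eq]; linarith)) (ε / 2) (by positivity) (by linarith) _
    ((Walls.cone (Q := Q)).smul _ hc _ (by positivity)) ?_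
  rw [norm_smul, norm_inv, Real.norm_of_nonneg (by positivity : (0:ℝ) ≤ ε / 2),
    inv_mul_le_iff₀ (by positivity), mul_one, pi_norm_le_iff_of_nonneg (by positivity)]
  intro i
  rw [Real.norm_eq_abs]; exact hcr i

theorem Walls.isOpen_U' (z00 r : ℝ × ℝ) :
    IsOpen {ξ : ℝ | z00 + ξ • r ∈ Q.O lo hi x0 a b} :=
  (Walls.isOpen_O (Q := Q) (lo := lo) (hi := hi) (x0 := x0) (a := a) (b := b)).preimage
    (by fun_prop : Continuous fun x : ℝ => z00 + x • r)

end

/-- a `Dir` transported to other labels of the same groups -/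
theorem Dir.relabel {grp : ι → κ} {a b : ι → ℝ} {n : κ → ℝ × ℝ} {dh : ι → ℝ}
    (hd : Dir grp a b n dh) {κ' : Type*} {g : ι → κ'} (h : ∀ i j, g i = g j ↔ grp i = grp j) :
    ∃ n' : κ' → ℝ × ℝ, Dir g a b n' dh ∧ ∀ i, n' (g i) = n (grp i) := by
  classical
  set n' : κ' → ℝ × ℝ := fun k => if hk : ∃ i, g i = k then n (grp hk.choose) else 0 with hn'
  have key : ∀ i, n' (g i) = n (grp i) := by
    intro i
    have hk : ∃ j, g j = g i := ⟨i, rfl⟩
    simp only [hn', dif_pos hk]
    rw [(h _ _).1 hk.choose_spec]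
  refine ⟨n', ⟨hd.pos, fun i => ?_, fun i => ?_, fun i => ?_, fun i j hij => ?_⟩, key⟩
  · rw [key]; exact hd.fst i
  · rw [key]; exact hd.snd i
  · rw [key]; exact hd.ne i
  · rw [key, key]
    exact hd.det i j fun h' => hij ((h i j).2 h')

/-- **ordering of the groups** with everything needed: labels `g : ι → ℕ`, directions `w`,
`Dir g` -/
theorem exists_ord {grp : ι → κ} {a b : ι → ℝ} {n : κ → ℝ × ℝ} {dh : ι → ℝ}
    (hd : Dir grp a b n dh) {s t : ℝ} (hst : ∀ i, 0 < s * a i + t * b i) :
    ∃ (g : ι → ℕ) (w : ℕ → ℝ × ℝ) (n' : ℕ → ℝ × ℝ), Dg262.Grp a b g w ∧ Dir g a b n' dh ∧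
      (∀ i j, g i = g j ↔ grp i = grp j) ∧ ∀ i, n' (g i) = n (grp i) := by
  obtain ⟨g, w, hG, hgg⟩ := exists_grp hst
  have h : ∀ i j, g i = g j ↔ grp i = grp j := by
    intro i j
    constructor
    · intro hg
      by_contra hij
      apply hd.det i j hij
      have h1 := hgg i j hg
      rw [hd.fst i, hd.fst j, hd.snd i, hd.snd j] at h1
      have h2 : dh i * dh j * det2 (n (grp i)) (n (grp j)) = 0 := by
        unfold det2; linear_combination h1
      exact (mul_eq_zero.1 h2).resolve_left (mul_pos (hd.pos i) (hd.pos j)).ne'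
    · intro hij
      by_contra hg
      -- two labels of parallel directions: contradiction with `up`
      have hpar : a i * b j = b i * a j := by
        rw [hd.fst i, hd.fst j, hd.snd i, hd.snd j, hij]; ring
      rcases lt_or_gt_of_ne hg with hlt | hlt
      · have h1 := hG.fix i
        have h2 := hG.up i j hlt
        have h3 : (s * a i + t * b i) * (a j * (w (g i)).1 + b j * (w (g i)).2) = 0 := by
          linear_combination (s * a j + t * b j) * h1 + (t * (w (g i)).1 - s * (w (g i)).2) * (-hpar)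
        exact (mul_pos (hst i) h2).ne' h3
      · have h1 := hG.fix j
        have h2 := hG.up j i hlt
        have h3 : (s * a j + t * b j) * (a i * (w (g j)).1 + b i * (w (g j)).2) = 0 := by
          linear_combination (s * a i + t * b i) * h1 + (t * (w (g j)).1 - s * (w (g j)).2) * hpar
        exact (mul_pos (hst j) h2).ne' h3
  obtain ⟨n', hn', hkey⟩ := hd.relabel h
  exact ⟨g, w, n', hG, hn', h, hkey⟩

end Crest.Agent.R136.Dg219
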