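import Crest.Agent.R136.Rb0_741
import Crest.Agent.R136.Dg6_262

/-!
# R136: record blow-up, part 5 (helper548): from negligible increments to a.e. vanishing

* `neg_ae`  : summable local integrals ⊢ convergence to `0` a.e.;
* `geo2`    : dyadic scales with rational factors ⊢ all scales `h → 0+`;
* `ae_rec_loc`, `ae_rec` : `PP` for all groups ⊢ for a.e. record point `x` near `x₀` all mixed
  increments between different groups with corners in `RegO` (open wall cone over the open half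
  plane) are `o(h)` (`Dg262.Qz`);
* `ae_rec_cross` : hence `Dg219.Cross g RegO` for every blow-up along every filter `W ≤ 𝓝[>] 0`.
-/

set_option autoImplicit false
set_option linter.unusedSectionVars false

open Set Filter Topology Metric MeasureTheory

namespace Crest.Agent.R136.Rb548

open Dg219 (Tn) 
open Dg262 (Mix Qz X)
open Rb741 (lin Reg Del Mk Neg PP)

variable {ι : Type*} [Fintype ι] [DecidableEq ι]

/-- summable local integrals: convergence to `0` almost everywhere -/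
theorem neg_ae {x₀ δ : ℝ} {F : ℕ → ℝ → ℝ} (hF : ∀ k, Continuous (F k)) (h : Neg x₀ δ F) :
    ∀ᵐ x : ℝ, |x - x₀| < δ → Tendsto (fun k => F k x) atTop (𝓝 0) := by
  have key : ∀ R, 0 < R → R < δ → ∀ᵐ x : ℝ, |x - x₀| < R → Tendsto (fun k => F k x) atTop (𝓝 0) := by
    intro R hR hRδ
    have hs := h R hR hRδ
    have hG : ∀ k, Continuous fun x => Dec146.tent x₀ R x * |F k x| := fun k =>
      (Dec146.tent_continuous x₀ R).mul (hF k).abs
    have hG0 : ∀ k x, 0 ≤ Dec146.tent x₀ R x * |F k x| := fun k x =>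
      mul_nonneg (Dec146.tent_nonneg _ _ _) (abs_nonneg _)
    have hcs : ∀ k, HasCompactSupport fun x => Dec146.tent x₀ R x * |F k x| := by
      intro k
      refine HasCompactSupport.intro (isCompact_closedBall x₀ R) fun x hx => ?_
      rw [mem_closedBall_iff_norm, not_le] at hx
      rw [Dec146.tent_eq_zero hx.le, zero_mul]
    have hint : ∀ k, Integrable fun x => Dec146.tent x₀ R x * |F k x| := fun k =>
      (hG k).integrable_of_hasCompactSupport (hcs k)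
    have h2 : ∫⁻ x, ∑' k, ENNReal.ofReal (Dec146.tent x₀ R x * |F k x|) ≠ ⊤ := by
      rw [lintegral_tsum fun k => ((hG k).measurable.ennreal_ofReal).aemeasurable]
      have e : ∀ k, ∫⁻ x, ENNReal.ofReal (Dec146.tent x₀ R x * |F k x|) =
          ENNReal.ofReal (∫ x, Dec146.tent x₀ R x * |F k x|) := fun k =>
        (ofReal_integral_eq_lintegral_ofReal (hint k) (ae_of_all _ (hG0 k))).symm
      simp only [e]
      exact hs.tsum_ofReal_ne_top
    have h3 : ∀ᵐ x : ℝ, ∑' k, ENNReal.ofReal (Dec146.tent x₀ R x * |F k x|) < ⊤ :=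
      ae_lt_top (Measurable.tsum fun k => (hG k).measurable.ennreal_ofReal) h2
    filter_upwards [h3] with x hx hxR
    have t1 := ENNReal.tendsto_atTop_zero_of_tsum_ne_top hx.ne
    have t2 := (ENNReal.tendsto_toReal (a := 0) (by simp)).comp t1
    simp only [ENNReal.toReal_zero] at t2
    have hpos : 0 < Dec146.tent x₀ R x := Dec146.tent_pos (by rwa [Real.norm_eq_abs])
    have t3 : Tendsto (fun k => |F k x|) atTop (𝓝 0) := by
      have := t2.const_mul (Dec146.tent x₀ R x)⁻¹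
      rw [mul_zero] at this
      refine this.congr fun k => ?_
      simp only [Function.comp]
      rw [ENNReal.toReal_ofReal (hG0 k x), ← mul_assoc, inv_mul_cancel₀ hpos.ne', one_mul]
    exact (tendsto_zero_iff_abs_tendsto_zero _).2 t3
  by_cases hδ : 0 < δ
  · have h1 : ∀ n : ℕ, ∀ᵐ x : ℝ, |x - x₀| < δ * (1 - 1 / ((n : ℝ) + 2)) →
        Tendsto (fun k => F k x) atTop (𝓝 0) := by
      intro n
      have hn : (0 : ℝ) < (n : ℝ) + 2 := by positivity
      have h1 : 1 / ((n : ℝ) + 2) ≤ 1 / 2 := by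
        apply one_div_le_one_div_of_le (by norm_num); linarith [Nat.cast_nonneg (α := ℝ) n]
      have h2 : 0 < 1 / ((n : ℝ) + 2) := by positivity
      exact key _ (by nlinarith) (by nlinarith)
    rw [← ae_all_iff] at h1
    filter_upwards [h1] with x hx hxδ
    obtain ⟨n, hn⟩ := exists_nat_gt (δ / (δ - |x - x₀|))
    refine hx n ?_
    have h3 : 0 < δ - |x - x₀| := by linarith
    rw [div_lt_iff₀ h3] at hn
    have hn2 : (0 : ℝ) < (n : ℝ) + 2 := by positivity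
    have h4 : δ * (1 / ((n : ℝ) + 2)) < δ - |x - x₀| := by
      rw [mul_one_div, div_lt_iff₀ hn2]
      nlinarith
    linarith
  · refine ae_of_all _ fun x hx => absurd ((abs_nonneg _).trans_lt hx) hδ

/-- from dyadic scales (with all rational factors) to all scales -/
theorem geo2 {T : ℝ → ℝ} {C' : ℝ} (hC' : 0 ≤ C')
    (hlip : ∀ h h', 0 < h → 0 < h' → |T h - T h'| ≤ C' * |h - h'|)
    (hT : ∀ t : ℚ, 0 < (t : ℝ) →
      Tendsto (fun k : ℕ => 2 ^ k * T ((t : ℝ) * (1 / 2) ^ k)) atTop (𝓝 0)) :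
    Tendsto (fun h => T h / h) (𝓝[>] 0) (𝓝 0) := by
  rw [Metric.tendsto_nhdsWithin_nhds]
  intro ε hε
  obtain ⟨N, hN⟩ := exists_nat_gt (8 * C' / ε)
  have hN0 : (0 : ℝ) < N := lt_of_le_of_lt (by positivity) hN
  have hNC : C' / N ≤ ε / 8 := by
    rw [div_le_iff₀ hN0]
    have := (div_lt_iff₀ hε).1 hN
    linarith
  have hev : ∀ᶠ k : ℕ in atTop, ∀ i ∈ Finset.Icc 1 N,
      |2 ^ k * T ((((i : ℚ) / N : ℚ) : ℝ) * (1 / 2) ^ k)| < ε / 4 := by
    rw [Filter.eventually_all_finset]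
    intro i hi
    rw [Finset.mem_Icc] at hi
    have hi0 : (0 : ℝ) < i := by exact_mod_cast hi.1
    have := hT ((i : ℚ) / N) (by push_cast; positivity)
    rw [Metric.tendsto_atTop] at this
    obtain ⟨k0, hk0⟩ := this (ε / 4) (by positivity)
    filter_upwards [eventually_ge_atTop k0] with k hk
    have := hk0 k hk
    rwa [Real.dist_eq, sub_zero] at this
  obtain ⟨k0, hk0⟩ := eventually_atTop.1 hev
  refine ⟨(1 / 2) ^ k0, by positivity, fun {h} hh hd => ?_⟩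
  have hh : 0 < h := hh
  rw [Real.dist_eq, sub_zero, abs_of_pos hh] at hd
  obtain ⟨n, hn1, hn2⟩ := exists_nat_pow_near_of_lt_one (x := h) (y := (1 / 2 : ℝ)) hh
    (hd.le.trans (pow_le_one₀ (by norm_num) (by norm_num))) (by norm_num) (by norm_num)
  have hnk : k0 ≤ n := by
    by_contra hc
    have h3 : ((1 / 2 : ℝ)) ^ k0 ≤ (1 / 2) ^ (n + 1) :=
      pow_le_pow_of_le_one (by norm_num) (by norm_num) (by omega)
    linarith
  set s : ℝ := (1 / 2) ^ n with hs
  have hs0 : 0 < s := by positivity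
  have hs2 : s < 2 * h := by rw [pow_succ] at hn1; linarith
  have h2s : (2 : ℝ) ^ n * s = 1 := by rw [hs, ← mul_pow]; norm_num
  -- the grid point
  set i : ℕ := ⌈h / s * N⌉₊ with hi
  have hpos : 0 < h / s * N := by positivity
  have hi1 : h / s * N ≤ i := Nat.le_ceil _
  have hi2 : (i : ℝ) < h / s * N + 1 := Nat.ceil_lt_add_one hpos.le
  have hiN : i ≤ N := by
    rw [hi]
    apply Nat.ceil_le.2
    have : h / s ≤ 1 := (div_le_one hs0).2 hn2
    nlinarith
  have hi0 : 1 ≤ i := Nat.one_le_iff_ne_zero.2 (by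
    intro h0
    rw [h0] at hi1
    simp only [Nat.cast_zero] at hi1
    linarith)
  have h5 := hk0 n hnk i (Finset.mem_Icc.2 ⟨hi0, hiN⟩)
  push_cast at h5
  rw [← hs, abs_mul, abs_of_pos (by positivity : (0 : ℝ) < 2 ^ n)] at h5
  have hi0' : (0 : ℝ) < i := by exact_mod_cast hi0
  set q : ℝ := (i : ℝ) / N * s with hq
  have hq0 : 0 < q := by positivity
  have h6 : |T q| < ε / 4 * s := by
    have : |T q| = (2 ^ n * |T q|) * s := by
      calc |T q| = (2 ^ n * s) * |T q| := by rw [h2s, one_mul]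
        _ = _ := by ring
    rw [this]
    exact mul_lt_mul_of_pos_right h5 hs0
  have h7 : |h - q| ≤ s / N := by
    have e1 : h = (h / s * N) / N * s := by field_simp
    have e2 : h - q = ((h / s * N) - i) * (s / N) := by
      rw [hq]; field_simp
    rw [e2, abs_mul, abs_of_pos (by positivity : 0 < s / N)]
    have : |h / s * N - i| ≤ 1 := by rw [abs_le]; constructor <;> linarith
    nlinarith [show 0 < s / N by positivity]
  have h8 : |T h| < ε * h := by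
    calc |T h| = |(T h - T q) + T q| := by congr 1; ring
      _ ≤ |T h - T q| + |T q| := abs_add_le _ _
      _ ≤ C' * |h - q| + ε / 4 * s := add_le_add (hlip h q hh hq0) h6.le
      _ ≤ C' * (s / N) + ε / 4 * s := by gcongr
      _ = (C' / N) * s + ε / 4 * s := by ring
      _ ≤ (ε / 8) * s + ε / 4 * s := by gcongr
      _ = 3 / 8 * ε * s := by ring
      _ < ε * h := by nlinarith
  rw [Real.dist_eq, sub_zero, abs_div, abs_of_pos hh, div_lt_iff₀ hh]
  exact h8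

/-- the rescaled mixed increment of `Rb741` is the mixed increment of `Dg262` -/
theorem mk_eq (ν : (ι → ℝ) → ℝ) (x0 a b : ι → ℝ) (z00 r : ℝ × ℝ) (i j : ι) (q : ι → ℝ)
    (α β : ℝ) {t : ℝ} (k : ℕ) (x : ℝ) :
    Mk ν (X x0 a b z00) (Tn a b r) (Pi.single i (t * α)) (Pi.single j (t * β)) (t • q) k x =
      2 ^ k * Mix ν (Pi.single i (α * (t * (1 / 2) ^ k))) (Pi.single j (β * (t * (1 / 2) ^ k)))
        (X x0 a b (z00 + x • r) + (t * (1 / 2) ^ k) • q) := by
  have e0 : X x0 a b (z00 + x • r) = X x0 a b z00 + x • Tn a b r := by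
    ext l
    simp only [X, Tn, Pi.add_apply, Pi.smul_apply, smul_eq_mul, Prod.fst_add, Prod.snd_add,
      Prod.smul_fst, Prod.smul_snd]
    ring
  have es : ∀ (i : ι) (α : ℝ), (1 / 2 : ℝ) ^ k • (Pi.single i (t * α) : ι → ℝ) =
      Pi.single i (α * (t * (1 / 2) ^ k)) := by
    intro i α
    rw [← Pi.single_smul, smul_eq_mul]
    congr 1; ring
  have eq : (1 / 2 : ℝ) ^ k • (t • q) = (t * (1 / 2) ^ k) • q := by
    rw [smul_smul, mul_comm]
  unfold Mk Del Mix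
  rw [e0]
  simp only [smul_add, es, eq]
  set B := X x0 a b z00 + x • Tn a b r
  set Q := (t * (1 / 2) ^ k) • q
  set U : ι → ℝ := Pi.single i (α * (t * (1 / 2) ^ k))
  set V : ι → ℝ := Pi.single j (β * (t * (1 / 2) ^ k))
  have h1 : B + (Q + U) = B + Q + U := by abel
  have h2 : B + (Q + V) = B + Q + V := by abel
  have h3 : B + (Q + V + U) = B + Q + U + V := by abel
  rw [h1, h2, h3]
  ring

theorem lin_smul (lam z : ℝ × ℝ) (t : ℝ) : lin lam (t • z) = t * lin lam z := by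
  simp only [lin, Prod.smul_fst, Prod.smul_snd, smul_eq_mul]; ring

theorem lin_add (lam z z' : ℝ × ℝ) : lin lam (z + z') = lin lam z + lin lam z' := by
  simp only [lin, Prod.fst_add, Prod.snd_add]; ring

theorem tn_add (a b : ι → ℝ) (z z' : ℝ × ℝ) : Tn a b (z + z') = Tn a b z + Tn a b z' := by
  ext l; simp only [Tn, Pi.add_apply, Prod.fst_add, Prod.snd_add]; ring

theorem tn_smul (a b : ι → ℝ) (t : ℝ) (z : ℝ × ℝ) : Tn a b (t • z) = t • Tn a b z := by
  ext l; simp only [Tn, Pi.smul_apply, Prod.smul_fst, Prod.smul_snd, smul_eq_mul]; ring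

theorem single_mul (i : ι) (t α : ℝ) : (Pi.single i (t * α) : ι → ℝ) = t • Pi.single i α := by
  rw [← Pi.single_smul, smul_eq_mul]

/-- **one datum**: for a fixed legal datum `(w, c, α, β)` with `g i < g j` the mixed increment is
`o(h)` at a.e. record point near `x₀` -/
theorem ae_datum {ν : (ι → ℝ) → ℝ} {K : ℝ} (hK : 0 ≤ K) (hν : ∀ p q, |ν p - ν q| ≤ K * dist p q)
    {g : ι → ℕ} {x0 a b : ι → ℝ} {Lc : Set (ι → ℝ)}
    (hLs : ∀ c ∈ Lc, ∀ t : ℝ, 0 ≤ t → t • c ∈ Lc) {lam z00 r : ℝ × ℝ} {x₀ δ κ : ℝ} {m : ℕ}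
    (hP : PP ν g a b Lc lam (X x0 a b z00) (Tn a b r) x₀ δ m κ) {i j : ι} (him : g i < m)
    (hij : g i < g j) {w : ℝ × ℝ} {c : ι → ℝ} {α β : ℝ} (hw : lin lam w < 0)
    (hc : ∀ l, |c l| ≤ κ * (-lin lam w)) (hα : 0 ≤ α) (hακ : α ≤ κ * (-lin lam w)) (hβ : 0 ≤ β)
    (hβκ : β ≤ κ * (-lin lam w)) (h00 : c ∈ Lc) (h10 : c + Pi.single i α ∈ Lc)
    (h01 : c + Pi.single j β ∈ Lc) (h11 : c + Pi.single i α + Pi.single j β ∈ Lc) :
    ∀ᵐ x : ℝ, |x - x₀| < δ → Qz ν x0 a b (z00 + x • r) i j (Tn a b w + c) α β := by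
  have hνc : Continuous ν := by
    have : LipschitzWith ⟨K, hK⟩ ν := LipschitzWith.of_dist_le_mul fun p q => by
      rw [Real.dist_eq]; exact hν p q
    exact this.continuous
  have h1 : ∀ t : ℚ, ∀ᵐ x : ℝ, 0 < (t : ℝ) → |x - x₀| < δ →
      Tendsto (fun k : ℕ => 2 ^ k * Mix ν (Pi.single i (α * ((t : ℝ) * (1 / 2) ^ k)))
        (Pi.single j (β * ((t : ℝ) * (1 / 2) ^ k)))
        (X x0 a b (z00 + x • r) + ((t : ℝ) * (1 / 2) ^ k) • (Tn a b w + c))) atTop (𝓝 0) := by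
    intro t
    by_cases ht : 0 < (t : ℝ)
    · have hneg := hP i j him hij ((t : ℝ) • w) ((t : ℝ) • c) ((t : ℝ) * α) ((t : ℝ) * β)
        (by rw [lin_smul]; exact mul_neg_of_pos_of_neg ht hw)
        (by
          intro l
          rw [lin_smul, Pi.smul_apply, smul_eq_mul, abs_mul, abs_of_pos ht]
          calc (t : ℝ) * |c l| ≤ t * (κ * (-lin lam w)) := mul_le_mul_of_nonneg_left (hc l) ht.le
            _ = _ := by ring)
        (mul_nonneg ht.le hα)
        (by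
          rw [lin_smul]
          calc (t : ℝ) * α ≤ t * (κ * (-lin lam w)) := mul_le_mul_of_nonneg_left hακ ht.le
            _ = _ := by ring)
        (mul_nonneg ht.le hβ)
        (by
          rw [lin_smul]
          calc (t : ℝ) * β ≤ t * (κ * (-lin lam w)) := mul_le_mul_of_nonneg_left hβκ ht.le
            _ = _ := by ring)
        (hLs c h00 t ht.le)
        (by rw [single_mul, ← smul_add]; exact hLs _ h10 t ht.le)
        (by rw [single_mul, ← smul_add]; exact hLs _ h01 t ht.le)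
        (by rw [single_mul, single_mul, ← smul_add, ← smul_add]; exact hLs _ h11 t ht.le)
      rw [tn_smul, ← smul_add] at hneg
      have hcont : ∀ k, Continuous (Mk ν (X x0 a b z00) (Tn a b r) (Pi.single i ((t : ℝ) * α))
          (Pi.single j ((t : ℝ) * β)) ((t : ℝ) • (Tn a b w + c)) k) := by
        intro k
        unfold Mk Del
        fun_prop
      filter_upwards [neg_ae hcont hneg] with x hx _ hxδ
      refine (hx hxδ).congr fun k => ?_
      exact mk_eq ν x0 a b z00 r i j (Tn a b w + c) α β k x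
    · exact ae_of_all _ fun x h => absurd h ht
  rw [← ae_all_iff] at h1
  filter_upwards [h1] with x hx hxδ
  refine geo2 (T := fun h => Mix ν (Pi.single i (α * h)) (Pi.single j (β * h))
    (X x0 a b (z00 + x • r) + h • (Tn a b w + c))) (C' := 4 * K * (‖Tn a b w + c‖ + |α| + |β|))
    (by positivity) (fun h h' _ _ => Dg262.mix_lip_h hK hν x0 a b _ i j _ α β h h') ?_
  intro t ht
  exact hx t ht hxδ

/-- open legal region below the record: natural offsets of the open half plane plus small offsets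
of the open wall cone -/
def RegO (a b : ι → ℝ) (D : Set (ι → ℝ)) (lam : ℝ × ℝ) (κ : ℝ) : Set (ι → ℝ) :=
  {q | ∃ (w : ℝ × ℝ) (c : ι → ℝ), q = Tn a b w + c ∧ lin lam w < 0 ∧ c ∈ D ∧
    ∀ i, |c i| < κ * (-lin lam w)}

theorem convex_regO {a b : ι → ℝ} {D : Set (ι → ℝ)} (hD : Convex ℝ D) (lam : ℝ × ℝ) {κ : ℝ} :
    Convex ℝ (RegO a b D lam κ) := by
  rintro _ ⟨w, c, rfl, hw, hc, hcb⟩ _ ⟨w', c', rfl, hw', hc', hcb'⟩ s t hs ht hst
  refine ⟨s • w + t • w', s • c + t • c', ?_, ?_, hD hc hc' hs ht hst, ?_⟩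
  · rw [tn_add, tn_smul, tn_smul, smul_add, smul_add]; abel
  · rw [lin_add, lin_smul, lin_smul]
    rcases eq_or_lt_of_le hs with h | h
    · have ht1 : t = 1 := by linarith
      rw [← h, ht1]; linarith
    · have h1 := mul_neg_of_pos_of_neg h hw
      have h2 : t * lin lam w' ≤ 0 := mul_nonpos_of_nonneg_of_nonpos ht hw'.le
      linarith
  · intro l
    rw [lin_add, lin_smul, lin_smul, Pi.add_apply, Pi.smul_apply, Pi.smul_apply, smul_eq_mul,
      smul_eq_mul]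
    have h1 : |s * c l + t * c' l| ≤ s * |c l| + t * |c' l| := by
      refine (abs_add_le _ _).trans ?_
      rw [abs_mul, abs_mul, abs_of_nonneg hs, abs_of_nonneg ht]
    rcases eq_or_lt_of_le hs with h | h
    · have ht1 : t = 1 := by linarith
      rw [← h, ht1]
      simp only [zero_mul, one_mul, zero_add]
      exact hcb' l
    · have h2 : s * |c l| < s * (κ * (-lin lam w)) := mul_lt_mul_of_pos_left (hcb l) h
      have h3 : t * |c' l| ≤ t * (κ * (-lin lam w')) := mul_le_mul_of_nonneg_left (hcb' l).le ht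
      calc |s * c l + t * c' l| ≤ s * |c l| + t * |c' l| := h1
        _ < s * (κ * (-lin lam w)) + t * (κ * (-lin lam w')) := by linarith
        _ = κ * -(s * lin lam w + t * lin lam w') := by ring

theorem isOpen_regO {a b : ι → ℝ} {D : Set (ι → ℝ)} (hD : IsOpen D) (lam : ℝ × ℝ) {κ : ℝ} :
    IsOpen (RegO a b D lam κ) := by
  have : RegO a b D lam κ = ⋃ w : {w : ℝ × ℝ // lin lam w < 0},
      (fun q : ι → ℝ => q - Tn a b w.1) ⁻¹' (D ∩ ⋂ l, {c : ι → ℝ | |c l| < κ * (-lin lam w.1)}) := by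
    ext q
    simp only [RegO, mem_setOf_eq, mem_iUnion, mem_preimage, mem_inter_iff, mem_iInter, Subtype.exists]
    constructor
    · rintro ⟨w, c, rfl, hw, hc, hcb⟩
      refine ⟨w, hw, ?_, ?_⟩
      · rw [add_sub_cancel_left]; exact hc
      · rw [add_sub_cancel_left]; exact hcb
    · rintro ⟨w, hw, hc, hcb⟩
      exact ⟨w, q - Tn a b w, by abel, hw, hc, hcb⟩
  rw [this]
  refine isOpen_iUnion fun w => ?_
  have hc : Continuous fun q : ι → ℝ => q - Tn a b w.1 := by fun_prop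
  refine (hD.inter (isOpen_iInter_of_finite fun l => ?_)).preimage hc
  exact isOpen_lt (by fun_prop) continuous_const

theorem lin_cont (lam : ℝ × ℝ) : Continuous (lin lam) := by
  unfold lin; fun_prop

theorem tn_cont (a b : ι → ℝ) : Continuous (Tn a b) := by
  unfold Tn; fun_prop

/-- **local form** at almost every record point near `x₀` -/
theorem ae_rec_loc {ν : (ι → ℝ) → ℝ} {K : ℝ} (hK : 0 ≤ K)
    (hν : ∀ p q, |ν p - ν q| ≤ K * dist p q) {g : ι → ℕ} {x0 a b : ι → ℝ} {Lc D : Set (ι → ℝ)}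
    (hLs : ∀ c ∈ Lc, ∀ t : ℝ, 0 ≤ t → t • c ∈ Lc) (hDo : IsOpen D) (hDL : D ⊆ Lc)
    {lam z00 r : ℝ × ℝ} {x₀ δ κ : ℝ}
    (hP : ∀ m, PP ν g a b Lc lam (X x0 a b z00) (Tn a b r) x₀ δ m κ) :
    ∀ᵐ x : ℝ, |x - x₀| < δ → ∀ c1 ∈ RegO a b D lam κ, ∃ ρ > 0, ∀ i j, g i < g j →
      ∀ c' ∈ ball c1 ρ, ∀ α' β', 0 ≤ α' → α' ≤ ρ → 0 ≤ β' → β' ≤ ρ →
        Qz ν x0 a b (z00 + x • r) i j c' α' β' := by
  have h1 : ∀ (k l : ℕ) (α β : ℚ) (i j : ι), ∀ᵐ x : ℝ,
      (g i < g j ∧ lin lam (TopologicalSpace.denseSeq (ℝ × ℝ) k) < 0 ∧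
        (∀ s, |TopologicalSpace.denseSeq (ι → ℝ) l s| ≤
          κ * (-lin lam (TopologicalSpace.denseSeq (ℝ × ℝ) k))) ∧ 0 ≤ (α : ℝ) ∧
        (α : ℝ) ≤ κ * (-lin lam (TopologicalSpace.denseSeq (ℝ × ℝ) k)) ∧ 0 ≤ (β : ℝ) ∧
        (β : ℝ) ≤ κ * (-lin lam (TopologicalSpace.denseSeq (ℝ × ℝ) k)) ∧
        TopologicalSpace.denseSeq (ι → ℝ) l ∈ Lc ∧
        TopologicalSpace.denseSeq (ι → ℝ) l + Pi.single i (α : ℝ) ∈ Lc ∧
        TopologicalSpace.denseSeq (ι → ℝ) l + Pi.single j (β : ℝ) ∈ Lc ∧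
        TopologicalSpace.denseSeq (ι → ℝ) l + Pi.single i (α : ℝ) + Pi.single j (β : ℝ) ∈ Lc) →
      |x - x₀| < δ →
      Qz ν x0 a b (z00 + x • r) i j (Tn a b (TopologicalSpace.denseSeq (ℝ × ℝ) k) +
        TopologicalSpace.denseSeq (ι → ℝ) l) α β := by
    intro k l α β i j
    by_cases hc : (g i < g j ∧ lin lam (TopologicalSpace.denseSeq (ℝ × ℝ) k) < 0 ∧
        (∀ s, |TopologicalSpace.denseSeq (ι → ℝ) l s| ≤
          κ * (-lin lam (TopologicalSpace.denseSeq (ℝ × ℝ) k))) ∧ 0 ≤ (α : ℝ) ∧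
        (α : ℝ) ≤ κ * (-lin lam (TopologicalSpace.denseSeq (ℝ × ℝ) k)) ∧ 0 ≤ (β : ℝ) ∧
        (β : ℝ) ≤ κ * (-lin lam (TopologicalSpace.denseSeq (ℝ × ℝ) k)) ∧
        TopologicalSpace.denseSeq (ι → ℝ) l ∈ Lc ∧
        TopologicalSpace.denseSeq (ι → ℝ) l + Pi.single i (α : ℝ) ∈ Lc ∧
        TopologicalSpace.denseSeq (ι → ℝ) l + Pi.single j (β : ℝ) ∈ Lc ∧
        TopologicalSpace.denseSeq (ι → ℝ) l + Pi.single i (α : ℝ) + Pi.single j (β : ℝ) ∈ Lc)
    · obtain ⟨c1, c2, c3, c4, c5, c6, c7, c8, c9, c10, c11⟩ := hc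
      filter_upwards [ae_datum hK hν hLs (hP (g i + 1)) (Nat.lt_succ_self _) c1 c2 c3 c4 c5 c6 c7 c8
        c9 c10 c11] with x hx _ hxδ using hx hxδ
    · exact ae_of_all _ fun x h => absurd h hc
  simp only [← ae_all_iff] at h1
  filter_upwards [h1] with x hx hxδ c1 hc1
  obtain ⟨w1, c1', rfl, hw1, hc1D, hc1b⟩ := hc1
  -- room in the wall cone
  obtain ⟨ε1, hε1, hball⟩ := Metric.isOpen_iff.1 hDo c1' hc1D
  -- room of the size bound
  have hb : ∃ ε2 > 0, ∀ l, |c1' l| + ε2 ≤ κ * (-lin lam w1) := by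
    rcases isEmpty_or_nonempty ι with hI | hI
    · exact ⟨1, one_pos, fun l => (hI.false l).elim⟩
    · obtain ⟨l0, hl0⟩ := Finite.exists_max fun l => |c1' l|
      refine ⟨κ * (-lin lam w1) - |c1' l0|, by linarith [hc1b l0], fun l => ?_⟩
      linarith [hl0 l]
  obtain ⟨ε2, hε2, hb⟩ := hb
  set ρ : ℝ := min (ε1 / 4) (ε2 / 4) with hρ
  have hρ0 : 0 < ρ := lt_min (by positivity) (by positivity)
  have hρ1 : 4 * ρ ≤ ε1 := by have := min_le_left (ε1 / 4) (ε2 / 4); linarith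
  have hρ2 : 4 * ρ ≤ ε2 := by have := min_le_right (ε1 / 4) (ε2 / 4); linarith
  refine ⟨ρ, hρ0, fun i j hij c' hc' α' β' ha0 ha hb0 hb' => ?_⟩
  apply Dg262.Q_closed hK hν
  intro ε' hε'
  -- the plane point
  obtain ⟨k, hk1, hk2, hk3⟩ : ∃ k, dist (Tn a b (TopologicalSpace.denseSeq (ℝ × ℝ) k)) (Tn a b w1) <
      min (ε' / 2) ρ ∧ lin lam (TopologicalSpace.denseSeq (ℝ × ℝ) k) < 0 ∧
      κ * (-lin lam w1) - ρ < κ * (-lin lam (TopologicalSpace.denseSeq (ℝ × ℝ) k)) := by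
    have hU : IsOpen {w : ℝ × ℝ | dist (Tn a b w) (Tn a b w1) < min (ε' / 2) ρ ∧ lin lam w < 0 ∧
        κ * (-lin lam w1) - ρ < κ * (-lin lam w)} := by
      have hl := lin_cont lam
      have ht := tn_cont a b
      have h3 : IsOpen {w : ℝ × ℝ | κ * (-lin lam w1) - ρ < κ * (-lin lam w)} :=
        isOpen_lt continuous_const (continuous_const.mul hl.neg)
      exact (isOpen_lt (ht.dist continuous_const) continuous_const).inter
        ((isOpen_lt hl continuous_const).inter h3)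
    have hne : Set.Nonempty {w : ℝ × ℝ | dist (Tn a b w) (Tn a b w1) < min (ε' / 2) ρ ∧
        lin lam w < 0 ∧ κ * (-lin lam w1) - ρ < κ * (-lin lam w)} :=
      ⟨w1, by rw [dist_self]; exact lt_min (by positivity) hρ0, hw1, by linarith⟩
    obtain ⟨k, hk⟩ := (TopologicalSpace.denseRange_denseSeq (ℝ × ℝ)).exists_mem_open hU hne
    exact ⟨k, hk⟩
  rw [lt_min_iff] at hk1
  -- the wall offset
  obtain ⟨l, hl⟩ := (TopologicalSpace.denseRange_denseSeq (ι → ℝ)).exists_dist_lt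
    (c' - Tn a b w1) (show 0 < min (ε' / 2) ρ by positivity)
  rw [lt_min_iff] at hl
  obtain ⟨α, a1, a2, a3⟩ := Dg262.exists_rat_near hρ0 ha0 ha hε'
  obtain ⟨β, b1, b2, b3⟩ := Dg262.exists_rat_near hρ0 hb0 hb' hε'
  set W := TopologicalSpace.denseSeq (ℝ × ℝ) k with hW
  set C := TopologicalSpace.denseSeq (ι → ℝ) l with hC
  have hCd : dist C c1' < 2 * ρ := by
    have h2 : dist c' (Tn a b w1 + c1') < ρ := hc'
    have h3 : dist (c' - Tn a b w1) c1' = dist c' (Tn a b w1 + c1') := by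
      rw [dist_eq_norm, dist_eq_norm]; congr 1; abel
    have h4 := dist_triangle C (c' - Tn a b w1) c1'
    rw [dist_comm C (c' - Tn a b w1)] at h4
    linarith [hl.2]
  have hCD : ∀ v : ι → ℝ, ‖v‖ ≤ 2 * ρ → C + v ∈ Lc := by
    intro v hv
    apply hDL
    apply hball
    rw [mem_ball]
    have h5 : dist (C + v) c1' ≤ dist (C + v) C + dist C c1' := dist_triangle _ _ _
    have h6 : dist (C + v) C = ‖v‖ := by rw [dist_eq_norm, add_sub_cancel_left]
    linarith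
  have hsα : ‖(Pi.single i (α : ℝ) : ι → ℝ)‖ ≤ ρ :=
    (Dg262.norm_single_le i _).trans (by rwa [abs_of_nonneg a1])
  have hsβ : ‖(Pi.single j (β : ℝ) : ι → ℝ)‖ ≤ ρ :=
    (Dg262.norm_single_le j _).trans (by rwa [abs_of_nonneg b1])
  have hbd : ∀ s, |C s| ≤ κ * (-lin lam W) := by
    intro s
    have h7 : |C s - c1' s| ≤ dist C c1' := by
      rw [← Real.dist_eq]; exact dist_le_pi_dist C c1' s
    have h8 : |C s| ≤ |C s - c1' s| + |c1' s| := by
      calc |C s| = |(C s - c1' s) + c1' s| := by congr 1; ring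
        _ ≤ _ := abs_add_le _ _
    have := hb s
    linarith
  have hρV : ρ ≤ κ * (-lin lam W) := by
    have := hb i
    linarith [abs_nonneg (c1' i)]
  refine ⟨Tn a b W + C, α, β, ?_, a3, b3, ?_⟩
  · have h9 : dist (Tn a b W + C) c' ≤ dist (Tn a b W) (Tn a b w1) + dist C (c' - Tn a b w1) := by
      rw [dist_eq_norm, dist_eq_norm, dist_eq_norm]
      have : Tn a b W + C - c' = (Tn a b W - Tn a b w1) + (C - (c' - Tn a b w1)) := by abel
      rw [this]
      exact norm_add_le _ _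
    rw [dist_comm C (c' - Tn a b w1)] at h9
    linarith [hk1.1, hl.1]
  · refine hx k l α β i j ⟨hij, hk2, hbd, a1, a2.trans hρV, b1, b2.trans hρV, ?_, ?_, ?_, ?_⟩ hxδ
    · have := hCD 0 (by rw [norm_zero]; positivity)
      rwa [add_zero] at this
    · exact hCD _ (by linarith)
    · exact hCD _ (by linarith)
    · rw [add_assoc]
      exact hCD _ ((norm_add_le _ _).trans (by linarith))

/-- **global form**: at almost every record point near `x₀` all mixed increments between different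
groups with corners in `RegO` are `o(h)` -/
theorem ae_rec {ν : (ι → ℝ) → ℝ} {K : ℝ} (hK : 0 ≤ K)
    (hν : ∀ p q, |ν p - ν q| ≤ K * dist p q) {g : ι → ℕ} {x0 a b : ι → ℝ} {Lc D : Set (ι → ℝ)}
    (hLs : ∀ c ∈ Lc, ∀ t : ℝ, 0 ≤ t → t • c ∈ Lc) (hDo : IsOpen D) (hDc : Convex ℝ D)
    (hDL : D ⊆ Lc) {lam z00 r : ℝ × ℝ} {x₀ δ κ : ℝ}
    (hP : ∀ m, PP ν g a b Lc lam (X x0 a b z00) (Tn a b r) x₀ δ m κ) :
    ∀ᵐ x : ℝ, |x - x₀| < δ → ∀ i j, g i ≠ g j → ∀ (c : ι → ℝ) (α β : ℝ), 0 ≤ α → 0 ≤ β →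
      c ∈ RegO a b D lam κ → c + α • Dg219.e i ∈ RegO a b D lam κ →
      c + β • Dg219.e j ∈ RegO a b D lam κ →
      c + α • Dg219.e i + β • Dg219.e j ∈ RegO a b D lam κ →
      Qz ν x0 a b (z00 + x • r) i j c α β := by
  filter_upwards [ae_rec_loc hK hν hLs hDo hDL hP] with x hx hxδ i j hij c α β hα hβ h00 h10 h01 h11
  have hcv := convex_regO (a := a) (b := b) hDc lam (κ := κ)
  rcases lt_or_gt_of_ne hij with h | h
  · refine Dg262.Q_global hcv (fun c1 hc1 => ?_) hα hβ h00 h10 h01 h11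
    obtain ⟨ρ, hρ0, hρ⟩ := hx hxδ c1 hc1
    exact ⟨ρ, hρ0, fun c' hc' α' β' a1 a2 b1 b2 => hρ i j h c' hc' α' β' a1 a2 b1 b2⟩
  · refine Dg262.Q_symm (Dg262.Q_global hcv (fun c1 hc1 => ?_) hβ hα h00 h01 h10 ?_)
    · obtain ⟨ρ, hρ0, hρ⟩ := hx hxδ c1 hc1
      exact ⟨ρ, hρ0, fun c' hc' α' β' a1 a2 b1 b2 => hρ j i h c' hc' α' β' a1 a2 b1 b2⟩
    · rw [add_right_comm]; exact h11

/-- plain form of `Qz` -/
theorem Qz_plain {ν : (ι → ℝ) → ℝ} {x0 a b : ι → ℝ} {z : ℝ × ℝ} {i j : ι} {c : ι → ℝ} {α β : ℝ}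
    (h5 : Qz ν x0 a b z i j c α β) :
    Tendsto (fun h : ℝ => (ν (X x0 a b z + h • c) +
        ν (X x0 a b z + h • (c + α • Dg219.e i + β • Dg219.e j)) -
        ν (X x0 a b z + h • (c + α • Dg219.e i)) -
        ν (X x0 a b z + h • (c + β • Dg219.e j))) / h) (𝓝[>] 0) (𝓝 0) := by
  unfold Qz at h5
  refine h5.congr fun h => ?_
  congr 1
  unfold Mix
  have e1 : X x0 a b z + h • c + Pi.single i (α * h) + Pi.single j (β * h) =
      X x0 a b z + h • (c + α • Dg219.e i + β • Dg219.e j) := by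
    rw [Dg262.single_eq_smul, Dg262.single_eq_smul, smul_add, smul_add, smul_smul, smul_smul,
      mul_comm h α, mul_comm h β]
    abel
  have e2 : X x0 a b z + h • c + Pi.single i (α * h) = X x0 a b z + h • (c + α • Dg219.e i) := by
    rw [Dg262.single_eq_smul, smul_add, smul_smul, mul_comm h α]; abel
  have e3 : X x0 a b z + h • c + Pi.single j (β * h) = X x0 a b z + h • (c + β • Dg219.e j) := by
    rw [Dg262.single_eq_smul, smul_add, smul_smul, mul_comm h β]; abel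
  rw [e1, e2, e3]

/-- **blow-up form**: at almost every record point near `x₀`, every limit `lamf` of
`(ν (X + h c) - B h) / h` on `RegO` along a filter `W ≤ 𝓝[>] 0` has vanishing cross differences -/
theorem ae_rec_cross {ν : (ι → ℝ) → ℝ} {K : ℝ} (hK : 0 ≤ K)
    (hν : ∀ p q, |ν p - ν q| ≤ K * dist p q) {g : ι → ℕ} {x0 a b : ι → ℝ} {Lc D : Set (ι → ℝ)}
    (hLs : ∀ c ∈ Lc, ∀ t : ℝ, 0 ≤ t → t • c ∈ Lc) (hDo : IsOpen D) (hDc : Convex ℝ D)
    (hDL : D ⊆ Lc) {lam z00 r : ℝ × ℝ} {x₀ δ κ : ℝ}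
    (hP : ∀ m, PP ν g a b Lc lam (X x0 a b z00) (Tn a b r) x₀ δ m κ) :
    ∀ᵐ x : ℝ, |x - x₀| < δ → ∀ W : Filter ℝ, W ≤ 𝓝[>] 0 → W.NeBot → ∀ (lamf : (ι → ℝ) → ℝ)
      (Bf : ℝ → ℝ), (∀ c ∈ RegO a b D lam κ,
        Tendsto (fun h => (ν (X x0 a b (z00 + x • r) + h • c) - Bf h) / h) W (𝓝 (lamf c))) →
      Dg219.Cross g (RegO a b D lam κ) lamf := by
  filter_upwards [ae_rec hK hν hLs hDo hDc hDL hP] with x hx hxδ W hW hWb lamf Bf hlam
  intro i j hij c α β hα hβ h00 h10 h01 h11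
  have h5 := (Qz_plain (hx hxδ i j hij c α β hα hβ h00 h10 h01 h11)).mono_left hW
  have h6 := ((hlam _ h11).add (hlam _ h00)).sub ((hlam _ h10).add (hlam _ h01))
  have h7 := h6.congr' (f₂ := fun h : ℝ => (ν (X x0 a b (z00 + x • r) + h • c) +
        ν (X x0 a b (z00 + x • r) + h • (c + α • Dg219.e i + β • Dg219.e j)) -
        ν (X x0 a b (z00 + x • r) + h • (c + α • Dg219.e i)) -
        ν (X x0 a b (z00 + x • r) + h • (c + β • Dg219.e j))) / h)
        (Eventually.of_forall fun h => by ring)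
  have h8 := tendsto_nhds_unique h7 h5
  linarith

/-- from local to global almost everywhere statements on the record line -/
theorem ae_of_local {U : Set ℝ} {p : ℝ → Prop}
    (h : ∀ x₀ ∈ U, ∃ δ > 0, ∀ᵐ x : ℝ, |x - x₀| < δ → p x) : ∀ᵐ x : ℝ, x ∈ U → p x := by
  rw [ae_iff]
  apply measure_null_of_locally_null
  intro x hx
  simp only [mem_setOf_eq, Classical.not_imp] at hx
  obtain ⟨δ, hδ, hp⟩ := h x hx.1
  rw [ae_iff] at hp
  refine ⟨{y | ¬(|y - x| < δ → p y)}, ?_, hp⟩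
  rw [mem_nhdsWithin]
  refine ⟨ball x δ, isOpen_ball, mem_ball_self hδ, ?_⟩
  rintro y ⟨hy1, hy2⟩
  simp only [mem_setOf_eq, Classical.not_imp] at hy2 ⊢
  exact ⟨by rwa [mem_ball, Real.dist_eq] at hy1, hy2.2⟩

section walls

variable {W : Type*} [Fintype W] {Q : Dg219.Walls ι W}

theorem walls_D_sub {x0 a b : ι → ℝ} : Q.D x0 a b ⊆ Q.L x0 a b := fun _ hc w hw => (hc w hw).le

/-- the instance for `Walls`, near one record point -/
theorem ae_rec_walls {ν : (ι → ℝ) → ℝ} {K : ℝ} (hK : 0 ≤ K)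
    (hν : ∀ p q, |ν p - ν q| ≤ K * dist p q) {g : ι → ℕ} {x0 a b : ι → ℝ}
    {lam z00 r : ℝ × ℝ} {x₀ δ κ : ℝ}
    (hP : ∀ m, PP ν g a b (Q.L x0 a b) lam (X x0 a b z00) (Tn a b r) x₀ δ m κ) :
    ∀ᵐ x : ℝ, |x - x₀| < δ → ∀ i j, g i ≠ g j → ∀ (c : ι → ℝ) (α β : ℝ), 0 ≤ α → 0 ≤ β →
      c ∈ RegO a b (Q.D x0 a b) lam κ → c + α • Dg219.e i ∈ RegO a b (Q.D x0 a b) lam κ →
      c + β • Dg219.e j ∈ RegO a b (Q.D x0 a b) lam κ →
      c + α • Dg219.e i + β • Dg219.e j ∈ RegO a b (Q.D x0 a b) lam κ →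
      Qz ν x0 a b (z00 + x • r) i j c α β :=
  ae_rec hK hν (Dg219.Walls.cone (Q := Q)).smul Dg219.Walls.isOpen_D Dg219.Walls.convex_D
    walls_D_sub hP

/-- the instance for `Walls`, blow-up form, on the whole open set `U` of the record line; `κ` may
depend on the record point -/
theorem ae_rec_cross_walls {ν : (ι → ℝ) → ℝ} {K : ℝ} (hK : 0 ≤ K)
    (hν : ∀ p q, |ν p - ν q| ≤ K * dist p q) {g : ι → ℕ} {x0 a b : ι → ℝ}
    {lam z00 r : ℝ × ℝ} {U : Set ℝ}
    (hP : ∀ x₀ ∈ U, ∃ δ > 0, ∃ κ > 0, ∀ m,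
      PP ν g a b (Q.L x0 a b) lam (X x0 a b z00) (Tn a b r) x₀ δ m κ) :
    ∀ᵐ x : ℝ, x ∈ U → ∃ κ > 0, ∀ W' : Filter ℝ, W' ≤ 𝓝[>] 0 → W'.NeBot →
      ∀ (lamf : (ι → ℝ) → ℝ) (Bf : ℝ → ℝ), (∀ c ∈ RegO a b (Q.D x0 a b) lam κ,
        Tendsto (fun h => (ν (X x0 a b (z00 + x • r) + h • c) - Bf h) / h) W' (𝓝 (lamf c))) →
      Dg219.Cross g (RegO a b (Q.D x0 a b) lam κ) lamf := by
  refine ae_of_local fun x₀ hx₀ => ?_
  obtain ⟨δ, hδ, κ, hκ, hP'⟩ := hP x₀ hx₀
  refine ⟨δ, hδ, ?_⟩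
  filter_upwards [ae_rec_cross hK hν (Dg219.Walls.cone (Q := Q)).smul Dg219.Walls.isOpen_D
    Dg219.Walls.convex_D walls_D_sub hP'] with x hx hxδ
  exact ⟨κ, hκ, hx hxδ⟩

end walls

end Crest.Agent.R136.Rb548
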