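import Crest.Agent.R138.AeT1_501

/-!
# R136: record blow-up, Rc3 (helper683): tangents of tangents, moving base points

* `diag` : a tangent (at a point `y` of the cone) of a tangent of `ν` along moving base points `x l`
  is a tangent of `ν` along the moving base points `x (ψ m) + h (ψ m) • y`.
* `exists_tan` : tangents along moving base points exist along a subsequence.
-/

set_option autoImplicit false
set_option linter.unusedVariables false
set_option linter.unusedSectionVars false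

open Filter Topology Set

namespace Crest.Agent.R136.Rc683

open Crest.Agent.R138.Ex926

variable {V : Type*} [NormedAddCommGroup V] [NormedSpace ℝ V]

theorem tan_comp {P L : Set V} {ν g : V → ℝ} {x : ℕ → V} {h : ℕ → ℝ} (ht : IsTan P L ν x h g)
    {φ : ℕ → ℕ} (hφ : Tendsto φ atTop atTop) :
    IsTan P L ν (fun l => x (φ l)) (fun l => h (φ l)) g :=
  fun C ε hε => hφ.eventually (ht C ε hε)

theorem tan_mono {P P' L L' : Set V} {ν g : V → ℝ} {x : ℕ → V} {h : ℕ → ℝ}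
    (ht : IsTan P L ν x h g) (hP : P ⊆ P') (hL : L' ⊆ L) : IsTan P' L' ν x h g :=
  fun C ε hε => (ht C ε hε).mono fun l hl c hc hcC => ⟨hP (hl c (hL hc) hcC).1, (hl c (hL hc) hcC).2⟩

/-- **tangents exist** along moving base points, for finitely many functions at once -/
theorem exists_tan [ProperSpace V] {J : Type*} [Finite J] {P D : J → Set V}
    (hDc : ∀ j, IsClosed (D j)) {ν : J → V → ℝ} {K : ℝ} (hK : 0 ≤ K)
    (hν : ∀ j, ∀ p ∈ P j, ∀ q ∈ P j, |ν j p - ν j q| ≤ K * ‖p - q‖)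
    {x : ℕ → V} {h : ℕ → ℝ} (hpos : ∀ l, 0 < h l)
    (hmem : ∀ j, ∀ C : ℝ, ∀ᶠ l in atTop, ∀ c ∈ D j, ‖c‖ ≤ C → x l + h l • c ∈ P j)
    (h0D : ∀ j, (0 : V) ∈ D j) :
    ∃ φ : ℕ → ℕ, StrictMono φ ∧ ∃ lam : J → V → ℝ,
      ∀ j, IsTan (P j) (D j) (ν j) (fun l => x (φ l)) (fun l => h (φ l)) (lam j) := by
  classical
  set ψ0 : J → ℕ → V → ℝ := fun j l c => (ν j (x l + h l • c) - ν j (x l)) / h l with hψ0
  have hlip : ∀ j, ∀ C : ℝ, ∀ᶠ l in (U : Filter ℕ), ∀ c ∈ D j, ‖c‖ ≤ C → ∀ c' ∈ D j, ‖c'‖ ≤ C →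
      |ψ0 j l c - ψ0 j l c'| ≤ K * ‖c - c'‖ := by
    intro j C
    filter_upwards [ev_of_atTop (hmem j C)] with l H c hc hcC c' hc' hcC'
    have h1 := hν j _ (H c hc hcC) _ (H c' hc' hcC')
    have e1 : x l + h l • c - (x l + h l • c') = h l • (c - c') := by rw [smul_sub]; abel
    rw [e1, norm_smul, Real.norm_of_nonneg (hpos l).le] at h1
    have e2 : ψ0 j l c - ψ0 j l c' = (ν j (x l + h l • c) - ν j (x l + h l • c')) / h l := by
      simp only [hψ0]; rw [← sub_div]; congr 1; ring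
    rw [e2, abs_div, abs_of_pos (hpos l), div_le_iff₀ (hpos l)]
    linarith
  have hψ00 : ∀ j l, ψ0 j l 0 = 0 := fun j l => by simp [hψ0]
  have hlim : ∀ j, ∀ c : V, ∃ y : ℝ, c ∈ D j → Tendsto (fun l => ψ0 j l c) U (𝓝 y) := by
    intro j c
    by_cases hc : c ∈ D j
    · obtain ⟨y, hy, -⟩ := exists_tendsto (f := fun l => ψ0 j l c) (C := K * ‖c‖) (by
        filter_upwards [hlip j ‖c‖] with l hl
        have := hl c hc le_rfl 0 (h0D j) (by simp)
        rwa [hψ00, sub_zero, sub_zero] at this)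
      exact ⟨y, fun _ => hy⟩
    · exact ⟨0, fun h => absurd h hc⟩
  choose lam hlam using hlim
  have hunif : ∀ j, ∀ C ε : ℝ, 0 < ε → ∀ᶠ l in (U : Filter ℕ), ∀ c ∈ D j ∩ Metric.closedBall 0 C,
      |ψ0 j l c - lam j c| ≤ ε := by
    intro j C ε hε
    have hcomp : IsCompact (D j ∩ Metric.closedBall (0 : V) C) :=
      (isCompact_closedBall _ _).inter_left (hDc j)
    refine unif_of_lip hcomp hK (φ := fun l c => ψ0 j l c) (ψ := lam j) ?_ ?_ hε
    · intro δ hδ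
      filter_upwards [hlip j C] with l hl c hc c' hc'
      have h1 := hl c hc.1 (by simpa using hc.2) c' hc'.1 (by simpa using hc'.2)
      rw [dist_eq_norm]
      linarith
    · intro c hc
      exact hlam j c hc.1
  obtain ⟨φ, hφ, hφ2⟩ := Filter.extraction_forall_of_frequently
    (P := fun n l => ∀ j, ∀ c ∈ D j ∩ Metric.closedBall (0 : V) ((n : ℝ) + 1),
      |ψ0 j l c - lam j c| ≤ 1 / ((n : ℝ) + 1)) (fun n => by
      have h1 : ∀ᶠ l in (U : Filter ℕ), ∀ j, ∀ c ∈ D j ∩ Metric.closedBall (0 : V) ((n : ℝ) + 1),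
          |ψ0 j l c - lam j c| ≤ 1 / ((n : ℝ) + 1) :=
        Filter.eventually_all.2 fun j => hunif j ((n : ℝ) + 1) (1 / ((n : ℝ) + 1)) (by positivity)
      exact h1.frequently.filter_mono U_le_atTop)
  refine ⟨φ, hφ, lam, fun j C ε hε => ?_⟩
  obtain ⟨N1, hN1⟩ := exists_nat_gt C
  obtain ⟨N2, hN2⟩ := exists_nat_gt (1 / ε)
  filter_upwards [hφ.tendsto_atTop.eventually (hmem j C), eventually_ge_atTop (max N1 N2)]
    with n h1 h2 c hc hcC
  refine ⟨h1 c hc hcC, ?_⟩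
  have hj1 : (N1 : ℝ) ≤ n := by exact_mod_cast (le_max_left _ _).trans h2
  have hj2 : (N2 : ℝ) ≤ n := by exact_mod_cast (le_max_right _ _).trans h2
  have h3 := hφ2 n j c ⟨hc, by
    rw [mem_closedBall_zero_iff]; linarith⟩
  have h4 : 1 / ((n : ℝ) + 1) ≤ ε := by
    rw [div_le_iff₀ (by positivity)]
    rw [div_lt_iff₀ hε] at hN2
    nlinarith
  have hgp := hpos (φ n)
  have e1 : ν j (x (φ n) + h (φ n) • c) - ν j (x (φ n)) - h (φ n) * lam j c =
      h (φ n) * (ψ0 j (φ n) c - lam j c) := by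
    simp only [hψ0]; field_simp
  show |ν j (x (φ n) + h (φ n) • c) - ν j (x (φ n)) - h (φ n) * lam j c| ≤ ε * h (φ n)
  rw [e1, abs_mul, abs_of_pos hgp, mul_comm]
  exact mul_le_mul_of_nonneg_right (h3.trans h4) hgp.le

theorem diag_aux {P L L' : Set V} {ν g lam : V → ℝ} {x : ℕ → V} {h : ℕ → ℝ}
    (hpos : ∀ l, 0 < h l) {y : V} (hy : y ∈ L)
    {k : ℕ → ℝ} (kpos : ∀ m, 0 < k m) (ht2 : IsTan L L' g (fun _ => y) k lam) {ψ : ℕ → ℕ}
    (hψ2 : ∀ m, ∀ c ∈ L, ‖c‖ ≤ ‖y‖ + k m * m → x (ψ m) + h (ψ m) • c ∈ P ∧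
      |ν (x (ψ m) + h (ψ m) • c) - ν (x (ψ m)) - h (ψ m) * g c| ≤ k m / (m + 1) * h (ψ m)) :
    IsTan P L' ν (fun m => x (ψ m) + h (ψ m) • y) (fun m => h (ψ m) * k m) lam := by
  intro C ε hε
  obtain ⟨N1, hN1⟩ := exists_nat_gt C
  obtain ⟨N2, hN2⟩ := exists_nat_gt (4 / ε)
  filter_upwards [ht2 C (ε / 2) (by positivity), eventually_ge_atTop (max N1 N2)] with m h1 h2 c hc hcC
  have hj1 : (N1 : ℝ) ≤ m := by exact_mod_cast (le_max_left _ _).trans h2
  have hj2 : (N2 : ℝ) ≤ m := by exact_mod_cast (le_max_right _ _).trans h2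
  obtain ⟨m1, m2⟩ := h1 c hc hcC
  have hk := kpos m
  have hh := hpos (ψ m)
  have hn : ‖y + k m • c‖ ≤ ‖y‖ + k m * m := by
    refine (norm_add_le _ _).trans ?_
    rw [norm_smul, Real.norm_of_nonneg hk.le]
    have : k m * ‖c‖ ≤ k m * m := mul_le_mul_of_nonneg_left (by linarith) hk.le
    linarith
  obtain ⟨p1, p2⟩ := hψ2 m _ m1 hn
  obtain ⟨q1, q2⟩ := hψ2 m _ hy (by
    have : 0 ≤ k m * m := by positivity
    linarith)
  have e1 : x (ψ m) + h (ψ m) • y + (h (ψ m) * k m) • c = x (ψ m) + h (ψ m) • (y + k m • c) := by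
    rw [smul_add, smul_smul, add_assoc]
  refine ⟨by rw [e1]; exact p1, ?_⟩
  rw [e1]
  have h4 : k m / (m + 1) ≤ k m * (ε / 4) := by
    rw [div_le_iff₀ (by positivity)]
    rw [div_lt_iff₀ hε] at hN2
    have : 1 ≤ ε / 4 * ((m : ℝ) + 1) := by nlinarith
    calc k m = k m * 1 := (mul_one _).symm
      _ ≤ k m * (ε / 4 * ((m : ℝ) + 1)) := mul_le_mul_of_nonneg_left this hk.le
      _ = k m * (ε / 4) * (m + 1) := by ring
  have p3 : |ν (x (ψ m) + h (ψ m) • (y + k m • c)) - ν (x (ψ m)) - h (ψ m) * g (y + k m • c)| ≤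
      k m * (ε / 4) * h (ψ m) := p2.trans (mul_le_mul_of_nonneg_right h4 hh.le)
  have q3 : |ν (x (ψ m) + h (ψ m) • y) - ν (x (ψ m)) - h (ψ m) * g y| ≤
      k m * (ε / 4) * h (ψ m) := q2.trans (mul_le_mul_of_nonneg_right h4 hh.le)
  have r3 : h (ψ m) * |g (y + k m • c) - g y - k m * lam c| ≤ h (ψ m) * (ε / 2 * k m) :=
    mul_le_mul_of_nonneg_left m2 hh.le
  have e2 : ν (x (ψ m) + h (ψ m) • (y + k m • c)) - ν (x (ψ m) + h (ψ m) • y) -
      h (ψ m) * k m * lam c =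
      (ν (x (ψ m) + h (ψ m) • (y + k m • c)) - ν (x (ψ m)) - h (ψ m) * g (y + k m • c)) -
      (ν (x (ψ m) + h (ψ m) • y) - ν (x (ψ m)) - h (ψ m) * g y) +
      h (ψ m) * (g (y + k m • c) - g y - k m * lam c) := by ring
  show |ν (x (ψ m) + h (ψ m) • (y + k m • c)) - ν (x (ψ m) + h (ψ m) • y) -
      h (ψ m) * k m * lam c| ≤ ε * (h (ψ m) * k m)
  rw [e2]
  have s1 := abs_add_le ((ν (x (ψ m) + h (ψ m) • (y + k m • c)) - ν (x (ψ m)) -
      h (ψ m) * g (y + k m • c)) - (ν (x (ψ m) + h (ψ m) • y) - ν (x (ψ m)) - h (ψ m) * g y))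
      (h (ψ m) * (g (y + k m • c) - g y - k m * lam c))
  have s2 := abs_sub (ν (x (ψ m) + h (ψ m) • (y + k m • c)) - ν (x (ψ m)) -
      h (ψ m) * g (y + k m • c)) (ν (x (ψ m) + h (ψ m) • y) - ν (x (ψ m)) - h (ψ m) * g y)
  rw [abs_mul, abs_of_pos hh] at s1
  linarith

/-- **diagonal**: tangents of tangents are tangents along moving base points. `A` = any property of
the indices and scales which holds eventually. -/
theorem diagF {J : Type*} [Finite J] {P L L' : J → Set V} {ν g lam : J → V → ℝ} {x : ℕ → V}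
    {h : ℕ → ℝ} (hpos : ∀ l, 0 < h l) (ht : ∀ j, IsTan (P j) (L j) (ν j) x h (g j)) {y : V}
    (hy : ∀ j, y ∈ L j) {k : ℕ → ℝ} (kpos : ∀ m, 0 < k m)
    (ht2 : ∀ j, IsTan (L j) (L' j) (g j) (fun _ => y) k (lam j))
    {A : ℕ → ℕ → Prop} (hA : ∀ m, ∀ᶠ l in atTop, A m l) :
    ∃ ψ : ℕ → ℕ, StrictMono ψ ∧ (∀ m, A m (ψ m)) ∧ ∀ j,
      IsTan (P j) (L' j) (ν j) (fun m => x (ψ m) + h (ψ m) • y) (fun m => h (ψ m) * k m)
        (lam j) := by
  classical
  obtain ⟨ψ, hψ, hψ2⟩ := Filter.extraction_forall_of_eventually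
    (P := fun m l => (∀ j, ∀ c ∈ L j, ‖c‖ ≤ ‖y‖ + k m * m → x l + h l • c ∈ P j ∧
      |ν j (x l + h l • c) - ν j (x l) - h l * g j c| ≤ k m / (m + 1) * h l) ∧ A m l) (fun m =>
      (Filter.eventually_all.2 fun j => ht j (‖y‖ + k m * m) (k m / (m + 1)) (by
        have := kpos m; positivity)).and (hA m))
  refine ⟨ψ, hψ, fun m => (hψ2 m).2, fun j => ?_⟩
  exact diag_aux hpos (hy j) kpos (ht2 j) fun m => (hψ2 m).1 j

/-- **diagonal**, one function -/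
theorem diag {P L L' : Set V} {ν g lam : V → ℝ} {x : ℕ → V} {h : ℕ → ℝ}
    (hpos : ∀ l, 0 < h l) (ht : IsTan P L ν x h g) {y : V} (hy : y ∈ L)
    {k : ℕ → ℝ} (kpos : ∀ m, 0 < k m) (ht2 : IsTan L L' g (fun _ => y) k lam)
    {A : ℕ → ℕ → Prop} (hA : ∀ m, ∀ᶠ l in atTop, A m l) :
    ∃ ψ : ℕ → ℕ, StrictMono ψ ∧ (∀ m, A m (ψ m)) ∧
      IsTan P L' ν (fun m => x (ψ m) + h (ψ m) • y) (fun m => h (ψ m) * k m) lam := by
  obtain ⟨ψ, h1, h2, h3⟩ := diagF (J := Unit) (P := fun _ => P) (L := fun _ => L)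
    (L' := fun _ => L') (ν := fun _ => ν) (g := fun _ => g) (lam := fun _ => lam) hpos
    (fun _ => ht) (fun _ => hy) kpos (fun _ => ht2) hA
  exact ⟨ψ, h1, h2, h3 ()⟩
end Crest.Agent.R136.Rc683
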