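import Crest.Agent.R136.Rc3_146
import Crest.Agent.R136.Rc3_683
import Crest.Agent.R136.Rb5_548

/-!
# R136: record blow-up, Rc5 (helper683): wiring

Record line `y0 + ξ • ρ0` in slot space, `Q.L y0 ρ0 0` = cone of the walls active along the line,
countably many surfaces `sf s` through the line.

* `Srf`, `Srf.Ok`, `Srf.LW` : surface, its axioms, its window cone
* `Srf.CrossAt` : decoupling at one record point (output of 741 + 548), `ae_crossAt`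
* `First`, `first_of` : the first blow-up `G` at a record point, separated on all window cones
* `First.ae_good`, `First.outH` : second blow-up at `σ • ρ0`, a.e. `σ`: `Rc146.OutH` for all surfaces
* **`rec_tan`** : tangents of `ν` (and of further Lipschitz functions) along MOVING base points of the
  record line with `OutH` for all surfaces
* **`ae_rec_tan`** : the same at almost every record point from 741's `PP`
-/

set_option autoImplicit false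
set_option linter.unusedSectionVars false
set_option linter.unusedVariables false

open Set Filter Topology Metric MeasureTheory

namespace Crest.Agent.R136.Rc683

open Dg219 Rc146
open Dg262 (X X_cont SupOn)
open Crest.Agent.R138
open Rb548 (RegO)

/-- a surface `X x0 a b` through the record line: the line is `z00 + ξ • r` in the plane, the half
plane below the record is `lf l w < 0`; `g` = groups, `n` = directions of the groups, `dh` = signed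
sizes -/
structure Srf (ι : Type*) where
  x0 : ι → ℝ
  a : ι → ℝ
  b : ι → ℝ
  z00 : ℝ × ℝ
  r : ℝ × ℝ
  l : ℝ × ℝ
  g : ι → ℕ
  n : ℕ → ℝ × ℝ
  dh : ι → ℝ

variable {ι W : Type*} [Fintype ι] [DecidableEq ι] [Fintype W]

/-- axioms of a surface -/
structure Srf.Ok (s : Srf ι) (Q : Walls ι W) (y0 ρ0 : ι → ℝ) : Prop where
  base : X s.x0 s.a s.b s.z00 = y0
  dir : Tn s.a s.b s.r = ρ0
  l0 : s.l ≠ 0
  r0 : s.r ≠ 0
  lr : lf s.l s.r = 0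
  sd : SDir s.g s.a s.b s.n s.dh
  geo : Geo s.g (Q.D s.x0 s.a s.b) (Q.L s.x0 s.a s.b) (Q.rm s.g) Q.rs
  /-- the walls active along the line but not along the surface are strict on the half plane -/
  strict : ∀ w, Q.Act y0 ρ0 0 w → ¬ Q.Act s.x0 s.a s.b w → 0 < gapW Q s.a s.b w (zz s.l (-1))

/-- wall cone of the surface -/
abbrev Srf.L (s : Srf ι) (Q : Walls ι W) : Set (ι → ℝ) := Q.L s.x0 s.a s.b

/-- window cone of the surface -/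
abbrev Srf.LW (s : Srf ι) (Q : Walls ι W) (c0 : ℝ) : Set (ι → ℝ) :=
  LH (Q.L s.x0 s.a s.b) s.a s.b s.l c0

/-- groups not parallel to the record line -/
noncomputable abbrev Srf.S (s : Srf ι) : Finset ℕ := SH s.g s.n s.l

theorem Srf.Ok.geoH {s : Srf ι} {Q : Walls ι W} {y0 ρ0 : ι → ℝ} (h : s.Ok Q y0 ρ0) {c0 : ℝ}
    (hc0 : 0 < c0) : GeoH s.g s.S (DH (Q.D s.x0 s.a s.b) s.a s.b s.l c0) (s.LW Q c0) (s.L Q)
      (rmH (Q.rm s.g) s.a s.b s.n s.l c0) (rsH Q.rs s.a s.b s.l c0) :=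
  Rc146.geoH h.geo (fun z => Walls.Tn_mem z) h.sd h.l0 hc0

theorem Srf.Ok.lr_ne {s : Srf ι} {Q : Walls ι W} {y0 ρ0 : ι → ℝ} (h : s.Ok Q y0 ρ0) {k : ℕ}
    (hk : k ∈ s.S) : lf (s.n k) s.r ≠ 0 := by
  intro h0
  apply (mem_SH.1 hk).2
  -- `l` and `n k` both vanish on `r ≠ 0`
  have h1 := h.lr
  have h2 := h.r0
  unfold det2
  simp only [lf] at h0 h1
  by_cases hr : s.r.1 = 0
  · have hr2 : s.r.2 ≠ 0 := fun hh => h2 (Prod.ext hr hh)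
    rw [hr, mul_zero, zero_add] at h0 h1
    rw [(mul_eq_zero.1 h0).resolve_right hr2, (mul_eq_zero.1 h1).resolve_right hr2]; ring
  · have h3 : s.r.1 * ((s.n k).1 * s.l.2 - (s.n k).2 * s.l.1) = 0 := by
      linear_combination s.l.2 * h0 - (s.n k).2 * h1
    exact (mul_eq_zero.1 h3).resolve_left hr

theorem Srf.Ok.sub {s : Srf ι} {Q : Walls ι W} {y0 ρ0 : ι → ℝ} (h : s.Ok Q y0 ρ0) :
    ∃ c1 : ℝ, 0 < c1 ∧ ∀ c0 : ℝ, c0 ≤ c1 → s.LW Q c0 ⊆ Q.L y0 ρ0 0 :=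
  LH_sub h.l0 h.r0 h.lr h.dir h.strict

/-- decoupling at the record point `p`, all scales and all filters -/
def Srf.CrossAt (s : Srf ι) (Q : Walls ι W) (ν : (ι → ℝ) → ℝ) (p : ι → ℝ) (c0 : ℝ) : Prop :=
  ∀ F : Filter ℝ, F ≤ 𝓝[>] 0 → F.NeBot → ∀ (lamf : (ι → ℝ) → ℝ) (Bf : ℝ → ℝ),
    (∀ c ∈ RegO s.a s.b (Q.D s.x0 s.a s.b) s.l c0,
      Tendsto (fun h => (ν (p + h • c) - Bf h) / h) F (𝓝 (lamf c))) →
    Cross s.g (RegO s.a s.b (Q.D s.x0 s.a s.b) s.l c0) lamf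

theorem DH_sub_RegO {D : Set (ι → ℝ)} {a b : ι → ℝ} {l : ℝ × ℝ} {c0 : ℝ} :
    DH D a b l c0 ⊆ RegO a b D l c0 := by
  rintro _ ⟨w, c, h1, h2, h3, rfl⟩
  refine ⟨w, c, rfl, h1, h2, fun i => ?_⟩
  have := norm_le_pi_norm c i
  rw [Real.norm_eq_abs] at this
  exact this.trans_lt h3

theorem RegO_sub_LH {D L : Set (ι → ℝ)} {a b : ι → ℝ} {l : ℝ × ℝ} {c0 : ℝ} (hc0 : 0 < c0)
    (hDL : D ⊆ L) : RegO a b D l c0 ⊆ LH L a b l c0 := by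
  rintro _ ⟨w, c, rfl, h1, h2, h3⟩
  have h1' : lf l w < 0 := h1
  refine ⟨w, c, h1'.le, hDL h2, ?_, rfl⟩
  rw [pi_norm_le_iff_of_nonneg (mul_nonneg hc0.le (by linarith))]
  intro i
  rw [Real.norm_eq_abs]
  exact (h3 i).le

/-- the points of the record line in the interior of the other walls -/
theorem line_eq (y0 ρ0 : ι → ℝ) (ξ : ℝ) : X y0 ρ0 0 (ξ, 0) = y0 + ξ • ρ0 := by
  funext i; simp [X, mul_comm]

theorem smul_mem_M {Q : Walls ι W} {y0 ρ0 : ι → ℝ} (σ : ℝ) : σ • ρ0 ∈ Q.L y0 ρ0 0 := by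
  have h := Walls.Tn_mem (Q := Q) (x0 := y0) (a := ρ0) (b := 0) (σ, 0)
  have e : Tn ρ0 0 (σ, (0:ℝ)) = σ • ρ0 := by funext i; simp [Tn, mul_comm]
  rwa [e] at h

theorem legal_line {Q : Walls ι W} {lo hi y0 ρ0 : ι → ℝ} {ξ : ℝ}
    (hξ : (ξ, (0:ℝ)) ∈ Q.O lo hi y0 ρ0 0) {h : ℕ → ℝ} (hpos : ∀ l, 0 < h l)
    (h0 : Tendsto h atTop (𝓝 0)) (C : ℝ) :
    ∀ᶠ l in atTop, ∀ c ∈ Q.L y0 ρ0 0, ‖c‖ ≤ C → y0 + ξ • ρ0 + h l • c ∈ Q.P lo hi := by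
  obtain ⟨ε, hε, H⟩ := Walls.legal hξ C
  filter_upwards [h0.eventually_lt_const hε] with l hl c hc hcC
  have := H (ξ, 0) (by rw [dist_self]; exact hε) (h l) (hpos l) hl c hc hcC
  rwa [line_eq] at this

/-! ### the first blow-up -/

/-- a blow-up at a record point: separated on all window cones -/
structure First (Q : Walls ι W) (y0 ρ0 : ι → ℝ) {T : Type*} (sf : T → Srf ι) (c0 : T → ℝ)
    (K : ℝ) (G : (ι → ℝ) → ℝ) : Prop where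
  lip : ∀ p q, |G p - G q| ≤ K * dist p q
  mono : ∀ c ∈ Q.L y0 ρ0 0, ∀ c' ∈ Q.L y0 ρ0 0, c ≤ c' →
    0 ≤ G c - G c' ∧ G c - G c' ≤ ∑ i, (c' i - c i)
  smod : ∀ p ∈ Q.L y0 ρ0 0, ∀ q ∈ Q.L y0 ρ0 0, p ⊓ q ∈ Q.L y0 ρ0 0 → p ⊔ q ∈ Q.L y0 ρ0 0 →
    G p + G q ≤ G (p ⊔ q) + G (p ⊓ q)
  sep : ∀ s, Sep (sf s).g ((sf s).LW Q (c0 s)) G

theorem first_of {Q : Walls ι W} {lo hi y0 ρ0 : ι → ℝ} {T : Type*} {sf : T → Srf ι}
    (ok : ∀ s, (sf s).Ok Q y0 ρ0) {c0 : T → ℝ} (hc0 : ∀ s, 0 < c0 s)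
    (hsub : ∀ s, (sf s).LW Q (c0 s) ⊆ Q.L y0 ρ0 0) {ν ν' : (ι → ℝ) → ℝ} {K : ℝ} (hK : 0 ≤ K)
    (hν : ∀ p ∈ Q.P lo hi, ∀ q ∈ Q.P lo hi, |ν p - ν q| ≤ K * dist p q)
    (hm : ∀ p ∈ Q.P lo hi, ∀ q ∈ Q.P lo hi, p ≤ q →
      0 ≤ ν p - ν q ∧ ν p - ν q ≤ ∑ i, (q i - p i))
    (hs : SupOn ν (Q.P lo hi)) (he : ∀ p ∈ Q.P lo hi, ν' p = ν p) {y : ι → ℝ}
    (hcr : ∀ s, (sf s).CrossAt Q ν' y (c0 s)) {h : ℕ → ℝ} (hpos : ∀ l, 0 < h l)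
    (h0 : Tendsto h atTop (𝓝 0)) {g : (ι → ℝ) → ℝ}
    (ht : Ex926.IsTan (Q.P lo hi) (Q.L y0 ρ0 0) ν (fun _ => y) h g) :
    ∃ G : (ι → ℝ) → ℝ, (∀ c ∈ Q.L y0 ρ0 0, G c = g c) ∧ First Q y0 ρ0 sf c0 K G := by
  have H : BUp (Q.P lo hi) (Q.L y0 ρ0 0) ν y h g := bup_of_tan hpos h0 ht
  have hM : Dg219.Cone (Q.L y0 ρ0 0) := Walls.cone
  have hyP : y ∈ Q.P lo hi := by
    obtain ⟨l, hl⟩ := (H.mem 0 hM.zero).exists
    rwa [smul_zero, add_zero] at hl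
  have hlip : LipschitzOnWith ⟨K, hK⟩ g (Q.L y0 ρ0 0) :=
    LipschitzOnWith.of_dist_le_mul fun p hp q hq => by
      rw [Real.dist_eq]; exact H.lip hν p hp q hq
  obtain ⟨G, hG, heG⟩ := hlip.extend_real
  have hGlip : ∀ p q, |G p - G q| ≤ K * dist p q := fun p q => by
    rw [← Real.dist_eq]; exact hG.dist_le_mul p q
  refine ⟨G, fun c hc => (heG hc).symm, hGlip, ?_, ?_, ?_⟩
  · intro c hc c' hc' hcc
    rw [← heG hc, ← heG hc']; exact H.mono hm c hc c' hc' hcc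
  · intro p hp q hq h1 h2
    rw [← heG hp, ← heG hq, ← heG h1, ← heG h2]; exact H.smod hs p hp q hq h1 h2
  · intro s
    have hDL : Q.D (sf s).x0 (sf s).a (sf s).b ⊆ (sf s).L Q := fun c hc w hw => (hc w hw).le
    have hRM : RegO (sf s).a (sf s).b (Q.D (sf s).x0 (sf s).a (sf s).b) (sf s).l (c0 s) ⊆
        Q.L y0 ρ0 0 := (RegO_sub_LH (hc0 s) hDL).trans (hsub s)
    have hF : Filter.map h atTop ≤ 𝓝[>] (0:ℝ) :=
      tendsto_nhdsWithin_iff.2 ⟨h0, Eventually.of_forall hpos⟩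
    have hcross := hcr s (Filter.map h atTop) hF inferInstance g (fun _ => ν' y) (by
      intro c hc
      rw [tendsto_map'_iff]
      refine (H.lim c (hRM hc)).congr' ?_
      filter_upwards [H.mem c (hRM hc)] with l hl
      simp only [Function.comp]
      rw [he _ hl, he _ hyP])
    have hg := (ok s).geoH (hc0 s)
    have hsep : Sep (sf s).g (DH (Q.D (sf s).x0 (sf s).a (sf s).b) (sf s).a (sf s).b (sf s).l
        (c0 s)) G := by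
      refine sep_open ?_ hg.opn hg.conv
      intro i j hij c α β hα hβ m1 m2 m3 m4
      have q1 := DH_sub_RegO m1
      have q2 := DH_sub_RegO m2
      have q3 := DH_sub_RegO m3
      have q4 := DH_sub_RegO m4
      rw [← heG (hRM q1), ← heG (hRM q2), ← heG (hRM q3), ← heG (hRM q4)]
      exact hcross i j hij c α β hα hβ q1 q2 q3 q4
    exact sep_closed hsep hG.continuous hg.inn

section

variable {Q : Walls ι W} {y0 ρ0 : ι → ℝ} {T : Type*} {sf : T → Srf ι} {c0 : T → ℝ} {K : ℝ}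
  {G : (ι → ℝ) → ℝ}

/-- good points of the record line of the blow-up -/
def Good (Q : Walls ι W) (sf : T → Srf ι) (c0 : T → ℝ) (G : (ι → ℝ) → ℝ) (σ : ℝ) : Prop :=
  ∀ s, ∀ k ∈ (sf s).S, DifferentiableAt ℝ (fnat (sf s).g ((sf s).LW Q (c0 s)) G
    (rmH (Q.rm (sf s).g) (sf s).a (sf s).b (sf s).n (sf s).l (c0 s)) (sf s).a (sf s).b (sf s).n k)
    (σ * lf ((sf s).n k) (sf s).r)

theorem First.ae_good [Countable T] (hF : First Q y0 ρ0 sf c0 K G)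
    (ok : ∀ s, (sf s).Ok Q y0 ρ0) (hK : 0 ≤ K) (hc0 : ∀ s, 0 < c0 s) :
    ∀ᵐ σ : ℝ, Good Q sf c0 G σ := by
  refine ae_all_iff.2 fun s => ?_
  exact ae_fnat ((ok s).geoH (hc0 s)) (hF.sep s) hK (fun p _ q _ => hF.lip p q)
    (fun z => Walls.Tn_mem z) (ok s).sd (fun k hk => (mem_SH.1 hk).1) fun k hk => (ok s).lr_ne hk

/-- **the second blow-up**, at good points of the record line -/
theorem First.outH (hF : First Q y0 ρ0 sf c0 K G)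
    (ok : ∀ s, (sf s).Ok Q y0 ρ0) (hK : 0 ≤ K) (hc0 : ∀ s, 0 < c0 s)
    (hsub : ∀ s, (sf s).LW Q (c0 s) ⊆ Q.L y0 ρ0 0) {σ : ℝ} (hσ : Good Q sf c0 G σ)
    {k : ℕ → ℝ} {lam : (ι → ℝ) → ℝ}
    (H : BUp (Q.L y0 ρ0 0) (Q.L y0 ρ0 0) G (σ • ρ0) k lam) (s : T) :
    ∃ (φ : ℕ → (ι → ℝ) → ℝ) (r : ℕ → ℝ), OutH (sf s).g (sf s).S ((sf s).LW Q (c0 s)) ((sf s).L Q)
      (sf s).a (sf s).b (sf s).l (sf s).dh (sf s).n lam φ r := by
  have e : Tn (sf s).a (sf s).b (σ • (sf s).r) = σ • ρ0 := by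
    rw [Rc146.Tn_smul, (ok s).dir]
  have hg := (ok s).geoH (hc0 s)
  obtain ⟨r, -, hr⟩ := outH_of hg (hF.sep s) Walls.cone (hsub s) hF.mono hF.smod hK
    (fun p _ q _ => hF.lip p q) (fun z => Walls.Tn_mem z) (ok s).sd
    (fun k hk => (mem_SH.1 hk).1) (sf s).l (z := σ • (sf s).r) (by
      refine Tn_memLH Walls.cone (hc0 s) ?_
      rw [Rc146.lf_smul, (ok s).lr, mul_zero])
    (fun k hk => by rw [Rc146.lf_smul]; exact hσ s k hk) (h := k) (lam := lam)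
    (by rw [e]; exact H)
  exact ⟨_, r, hr⟩

end

/-! ### the final tangents -/

/-- **tangents along moving base points of the record line** with `OutH` for all surfaces, for the
profile `ν = f j0` together with further Lipschitz functions `f j` -/
theorem rec_tan {Q : Walls ι W} {lo hi y0 ρ0 : ι → ℝ} {T : Type*} [Countable T] {sf : T → Srf ι}
    (ok : ∀ s, (sf s).Ok Q y0 ρ0) {c0 : T → ℝ} (hc0 : ∀ s, 0 < c0 s)
    (hsub : ∀ s, (sf s).LW Q (c0 s) ⊆ Q.L y0 ρ0 0) {J : Type*} [Finite J]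
    {f : J → (ι → ℝ) → ℝ} {j0 : J} {ν' : (ι → ℝ) → ℝ} {K : ℝ} (hK : 0 ≤ K)
    (hν : ∀ j, ∀ p ∈ Q.P lo hi, ∀ q ∈ Q.P lo hi, |f j p - f j q| ≤ K * dist p q)
    (hm : ∀ p ∈ Q.P lo hi, ∀ q ∈ Q.P lo hi, p ≤ q →
      0 ≤ f j0 p - f j0 q ∧ f j0 p - f j0 q ≤ ∑ i, (q i - p i))
    (hs : SupOn (f j0) (Q.P lo hi)) (he : ∀ p ∈ Q.P lo hi, ν' p = f j0 p) {ξ : ℝ}
    (hξ : (ξ, (0:ℝ)) ∈ Q.O lo hi y0 ρ0 0) (hcr : ∀ s, (sf s).CrossAt Q ν' (y0 + ξ • ρ0) (c0 s))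
    {h : ℕ → ℝ} (hpos : ∀ l, 0 < h l) (h0 : Tendsto h atTop (𝓝 0)) :
    ∃ (x h' : ℕ → ℝ) (lam : J → (ι → ℝ) → ℝ), Tendsto x atTop (𝓝 ξ) ∧ (∀ m, 0 < h' m) ∧
      Tendsto h' atTop (𝓝 0) ∧
      (∀ j, Ex926.IsTan (Q.P lo hi) (Q.L y0 ρ0 0) (f j) (fun m => y0 + x m • ρ0) h' (lam j)) ∧
      ∀ s, ∃ (φ : ℕ → (ι → ℝ) → ℝ) (r : ℕ → ℝ), OutH (sf s).g (sf s).S ((sf s).LW Q (c0 s))
        ((sf s).L Q) (sf s).a (sf s).b (sf s).l (sf s).dh (sf s).n (lam j0) φ r := by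
  have hM : Dg219.Cone (Q.L y0 ρ0 0) := Walls.cone
  have hcl : IsClosed (Q.L y0 ρ0 0) := Walls.isClosed_L
  -- first blow-up
  obtain ⟨φ1, hφ1, g, hg⟩ := exists_tan (J := J) (P := fun _ => Q.P lo hi)
    (D := fun _ => Q.L y0 ρ0 0) (fun _ => hcl) hK
    (fun j p hp q hq => by rw [← dist_eq_norm]; exact hν j p hp q hq)
    (x := fun _ => y0 + ξ • ρ0) hpos (fun _ C => legal_line hξ hpos h0 C) (fun _ => hM.zero)
  set h1 : ℕ → ℝ := fun l => h (φ1 l) with hh1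
  have h1pos : ∀ l, 0 < h1 l := fun l => hpos _
  have h10 : Tendsto h1 atTop (𝓝 0) := h0.comp hφ1.tendsto_atTop
  obtain ⟨G, hGe, hF⟩ := first_of ok hc0 hsub hK (hν j0) hm hs he hcr h1pos h10 (hg j0)
  obtain ⟨σ, hσ⟩ := (hF.ae_good ok hK hc0).exists
  -- second blow-up
  set k0 : ℕ → ℝ := fun m => 1 / ((m : ℝ) + 1) with hk0
  have k0pos : ∀ m, 0 < k0 m := fun m => by simp only [hk0]; positivity
  have k00 : Tendsto k0 atTop (𝓝 0) := tendsto_one_div_add_atTop_nhds_zero_nat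
  have hglip : ∀ j, ∀ p ∈ Q.L y0 ρ0 0, ∀ q ∈ Q.L y0 ρ0 0, |g j p - g j q| ≤ K * ‖p - q‖ := by
    intro j p hp q hq
    have := (bup_of_tan h1pos h10 (hg j)).lip (hν j) p hp q hq
    rwa [dist_eq_norm] at this
  obtain ⟨φ2, hφ2, lam, hlam⟩ := exists_tan (J := J) (P := fun _ => Q.L y0 ρ0 0)
    (D := fun _ => Q.L y0 ρ0 0) (ν := g) (fun _ => hcl) hK hglip
    (x := fun _ => σ • ρ0) k0pos (fun _ C => Eventually.of_forall fun m c hc _ =>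
      hM.add _ (smul_mem_M σ) _ (hM.smul _ hc _ (k0pos m).le)) (fun _ => hM.zero)
  set k1 : ℕ → ℝ := fun m => k0 (φ2 m) with hk1
  have k1pos : ∀ l, 0 < k1 l := fun l => k0pos _
  have k10 : Tendsto k1 atTop (𝓝 0) := k00.comp hφ2.tendsto_atTop
  have HG : Ex926.IsTan (Q.L y0 ρ0 0) (Q.L y0 ρ0 0) G (fun _ => σ • ρ0) k1 (lam j0) :=
    Rc146.tan_congr' (hlam j0) (fun _ => smul_mem_M σ) hGe
  -- diagonal
  obtain ⟨ψ, hψ, hA, hT⟩ := diagF (J := J) (P := fun _ => Q.P lo hi) (L := fun _ => Q.L y0 ρ0 0)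
    (L' := fun _ => Q.L y0 ρ0 0) h1pos hg (fun _ => smul_mem_M σ) k1pos hlam
    (A := fun _ _ => True) (fun _ => Eventually.of_forall fun _ => trivial)
  have hψ1 : Tendsto (fun m => h1 (ψ m)) atTop (𝓝 0) := h10.comp hψ.tendsto_atTop
  refine ⟨fun m => ξ + h1 (ψ m) * σ, fun m => h1 (ψ m) * k1 m, lam, ?_,
    fun m => mul_pos (h1pos _) (k1pos _), ?_, fun j => ?_, fun s => ?_⟩
  · have := (hψ1.mul_const σ).const_add ξ
    rwa [zero_mul, add_zero] at this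
  · have := hψ1.mul k10
    rwa [zero_mul] at this
  · have e : (fun m => y0 + (ξ + h1 (ψ m) * σ) • ρ0) =
        fun m => y0 + ξ • ρ0 + h1 (ψ m) • σ • ρ0 := by
      funext m
      rw [add_smul, smul_smul, add_assoc]
    rw [e]
    exact hT j
  · exact hF.outH ok hK hc0 hsub hσ (bup_of_tan k1pos k10 HG) s

/-! ### almost every record point -/

theorem pp_mono {ν : (ι → ℝ) → ℝ} {g : ι → ℕ} {a b : ι → ℝ} {Lc : Set (ι → ℝ)} {lam : ℝ × ℝ}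
    {bb ρ : ι → ℝ} {x₀ δ : ℝ} {m : ℕ} {κ κ' : ℝ} (hκ : κ' ≤ κ)
    (h : Rb741.PP ν g a b Lc lam bb ρ x₀ δ m κ) : Rb741.PP ν g a b Lc lam bb ρ x₀ δ m κ' := by
  intro i j h1 h2 w c α β hw hc hα hα' hβ hβ' m1 m2 m3 m4
  have h3 : κ' * (-Rb741.lin lam w) ≤ κ * (-Rb741.lin lam w) :=
    mul_le_mul_of_nonneg_right hκ (by linarith)
  exact h i j h1 h2 w c α β hw (fun l => (hc l).trans h3) hα (hα'.trans h3) hβ (hβ'.trans h3)
    m1 m2 m3 m4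

/-- 741's `PP` for a surface near every point of the record set `U` -/
def Srf.PPU (s : Srf ι) (Q : Walls ι W) (ν : (ι → ℝ) → ℝ) (U : Set ℝ) : Prop :=
  ∀ x₀ ∈ U, ∃ δ > 0, ∃ κ > 0, ∀ m, Rb741.PP ν s.g s.a s.b (s.L Q) s.l (X s.x0 s.a s.b s.z00)
    (Tn s.a s.b s.r) x₀ δ m κ

theorem ae_crossAt {Q : Walls ι W} {y0 ρ0 : ι → ℝ} {s : Srf ι} (ok : s.Ok Q y0 ρ0)
    {ν : (ι → ℝ) → ℝ} {K : ℝ} (hK : 0 ≤ K) (hν : ∀ p q, |ν p - ν q| ≤ K * dist p q)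
    {U : Set ℝ} (hP : s.PPU Q ν U) {c1 : ℝ} (hc1 : 0 < c1) :
    ∀ᵐ ξ : ℝ, ξ ∈ U → ∃ c0 : ℝ, 0 < c0 ∧ c0 ≤ c1 ∧ s.CrossAt Q ν (y0 + ξ • ρ0) c0 := by
  refine Rb548.ae_of_local fun x₀ hx₀ => ?_
  obtain ⟨δ, hδ, κ, hκ, hP'⟩ := hP x₀ hx₀
  refine ⟨δ, hδ, ?_⟩
  have hPm : ∀ m, Rb741.PP ν s.g s.a s.b (s.L Q) s.l (X s.x0 s.a s.b s.z00)
      (Tn s.a s.b s.r) x₀ δ m (min κ c1) := fun m => pp_mono (min_le_left _ _) (hP' m)
  filter_upwards [Rb548.ae_rec_cross hK hν (Walls.cone (Q := Q)).smul Walls.isOpen_D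
    Walls.convex_D (fun c hc w hw => (hc w hw).le) hPm] with x hx hxδ
  refine ⟨min κ c1, lt_min hκ hc1, min_le_right _ _, ?_⟩
  have e : X s.x0 s.a s.b (s.z00 + x • s.r) = y0 + x • ρ0 := by
    rw [X_add, ok.base, ok.dir]
  have := hx hxδ
  rw [e] at this
  exact this

/-- **RECORD BLOW-UP, final form**: at almost every point `ξ ∈ U` of the record line, along every
sequence of scales -/
theorem ae_rec_tan {Q : Walls ι W} {lo hi y0 ρ0 : ι → ℝ} {T : Type*} [Countable T]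
    {sf : T → Srf ι} (ok : ∀ s, (sf s).Ok Q y0 ρ0) {J : Type*} [Finite J]
    {f : J → (ι → ℝ) → ℝ} {j0 : J} {ν' : (ι → ℝ) → ℝ} {K : ℝ} (hK : 0 ≤ K)
    (hν : ∀ j, ∀ p ∈ Q.P lo hi, ∀ q ∈ Q.P lo hi, |f j p - f j q| ≤ K * dist p q)
    (hm : ∀ p ∈ Q.P lo hi, ∀ q ∈ Q.P lo hi, p ≤ q →
      0 ≤ f j0 p - f j0 q ∧ f j0 p - f j0 q ≤ ∑ i, (q i - p i))
    (hs : SupOn (f j0) (Q.P lo hi)) (he : ∀ p ∈ Q.P lo hi, ν' p = f j0 p)
    (hν' : ∀ p q, |ν' p - ν' q| ≤ K * dist p q) {U : Set ℝ}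
    (hU : ∀ ξ ∈ U, (ξ, (0:ℝ)) ∈ Q.O lo hi y0 ρ0 0) (hP : ∀ s, (sf s).PPU Q ν' U) :
    ∀ᵐ ξ : ℝ, ξ ∈ U → ∃ c0 : T → ℝ, (∀ s, 0 < c0 s) ∧
      (∀ s, (sf s).LW Q (c0 s) ⊆ Q.L y0 ρ0 0) ∧
      ∀ h : ℕ → ℝ, (∀ l, 0 < h l) → Tendsto h atTop (𝓝 0) →
      ∃ (x h' : ℕ → ℝ) (lam : J → (ι → ℝ) → ℝ), Tendsto x atTop (𝓝 ξ) ∧ (∀ m, 0 < h' m) ∧
        Tendsto h' atTop (𝓝 0) ∧
        (∀ j, Ex926.IsTan (Q.P lo hi) (Q.L y0 ρ0 0) (f j) (fun m => y0 + x m • ρ0) h'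
          (lam j)) ∧
        ∀ s, ∃ (φ : ℕ → (ι → ℝ) → ℝ) (r : ℕ → ℝ), OutH (sf s).g (sf s).S
          ((sf s).LW Q (c0 s)) ((sf s).L Q) (sf s).a (sf s).b (sf s).l (sf s).dh (sf s).n
          (lam j0) φ r := by
  choose c1 hc1 hc1' using fun s => (ok s).sub
  have h1 : ∀ᵐ ξ : ℝ, ∀ s, ξ ∈ U → ∃ c0 : ℝ, 0 < c0 ∧ c0 ≤ c1 s ∧
      (sf s).CrossAt Q ν' (y0 + ξ • ρ0) c0 :=
    ae_all_iff.2 fun s => ae_crossAt (ok s) hK hν' (hP s) (hc1 s)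
  filter_upwards [h1] with ξ hξ hξU
  choose c0 hc0 hc01 hcr using fun s => hξ s hξU
  exact ⟨c0, hc0, fun s => hc1' s _ (hc01 s), fun h hpos h0 =>
    rec_tan ok hc0 (fun s => hc1' s _ (hc01 s)) hK hν hm hs he (hU ξ hξU) hcr hpos h0⟩

end Crest.Agent.R136.Rc683
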