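import Crest.Agent.R136.Rc6_146
import Crest.Agent.R136.Rc5_683
import Crest.Agent.R136.Rbw_219

/-!
# R136: record blow-up, Rc7 (helper683): wiring of the complete output `RecOut`

* `Good2`, `First.ae_good2` : good points, including stationarity (146's `StatK`)
* `First.recOut` : third blow-up at `0`: 146's `RecOut` for all surfaces
* **`rec_tan2`**, **`ae_rec_tan2`** : as in `Rc5_683` with `RecOut` instead of `OutH`
-/

set_option autoImplicit false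
set_option linter.unusedSectionVars false
set_option linter.unusedVariables false

open Set Filter Topology Metric MeasureTheory

namespace Crest.Agent.R136.Rc683

open Dg219 Rc146
open Dg262 (X X_cont SupOn)
open Crest.Agent.R138
open Rb548 (RegO)

variable {ι W : Type*} [Fintype ι] [DecidableEq ι] [Fintype W]

section

variable {Q : Walls ι W} {y0 ρ0 : ι → ℝ} {T : Type*} {sf : T → Srf ι} {c0 : T → ℝ} {K : ℝ}
  {G : (ι → ℝ) → ℝ}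

/-- good points of the record line of the blow-up, with stationarity -/
def Good2 (Q : Walls ι W) (sf : T → Srf ι) (c0 : T → ℝ) (G : (ι → ℝ) → ℝ) (σ : ℝ) : Prop :=
  Good Q sf c0 G σ ∧ ∀ s, ∀ k ∈ (sf s).S, StatK (sf s).g ((sf s).LW Q (c0 s)) G
    (rmH (Q.rm (sf s).g) (sf s).a (sf s).b (sf s).n (sf s).l (c0 s)) (sf s).dh k
    (σ * lf ((sf s).n k) (sf s).r)

theorem First.ae_good2 [Countable T] (hF : First Q y0 ρ0 sf c0 K G)
    (ok : ∀ s, (sf s).Ok Q y0 ρ0) (hK : 0 ≤ K) (hc0 : ∀ s, 0 < c0 s)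
    (hsub : ∀ s, (sf s).LW Q (c0 s) ⊆ Q.L y0 ρ0 0) :
    ∀ᵐ σ : ℝ, Good2 Q sf c0 G σ := by
  have h2 : ∀ᵐ σ : ℝ, ∀ s, ∀ k ∈ (sf s).S, StatK (sf s).g ((sf s).LW Q (c0 s)) G
      (rmH (Q.rm (sf s).g) (sf s).a (sf s).b (sf s).n (sf s).l (c0 s)) (sf s).dh k
      (σ * lf ((sf s).n k) (sf s).r) := by
    refine ae_all_iff.2 fun s => ?_
    exact ae_statH ((ok s).geoH (hc0 s)) (hF.sep s) hK (fun p _ q _ => hF.lip p q)
      (fun p hp q hq h1 h2 => hF.smod p (hsub s hp) q (hsub s hq) (hsub s h1) (hsub s h2))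
      (fun z => Walls.Tn_mem z) (ok s).sd (fun k hk => (mem_SH.1 hk).1)
      fun k hk => (ok s).lr_ne hk
  filter_upwards [hF.ae_good ok hK hc0, h2] with σ h1 h2
  exact ⟨h1, h2⟩

/-- **second and third blow-up**, at good points of the record line -/
theorem First.recOut (hF : First Q y0 ρ0 sf c0 K G)
    (ok : ∀ s, (sf s).Ok Q y0 ρ0) (hK : 0 ≤ K) (hc0 : ∀ s, 0 < c0 s)
    (hsub : ∀ s, (sf s).LW Q (c0 s) ⊆ Q.L y0 ρ0 0) {σ : ℝ} (hσ : Good2 Q sf c0 G σ)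
    {k t : ℕ → ℝ} {lam lam2 : (ι → ℝ) → ℝ}
    (H : BUp (Q.L y0 ρ0 0) (Q.L y0 ρ0 0) G (σ • ρ0) k lam)
    (H2 : BUp (Q.L y0 ρ0 0) (Q.L y0 ρ0 0) lam 0 t lam2) (s : T) :
    ∃ (φ : ℕ → (ι → ℝ) → ℝ) (r : ℕ → ℝ), RecOut (sf s).g (sf s).S ((sf s).LW Q (c0 s))
      ((sf s).L Q) (sf s).a (sf s).b (sf s).l (sf s).dh (sf s).n lam2 φ r := by
  have e : Tn (sf s).a (sf s).b (σ • (sf s).r) = σ • ρ0 := by
    rw [Rc146.Tn_smul, (ok s).dir]
  have hg := (ok s).geoH (hc0 s)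
  obtain ⟨r, -, hr, -⟩ := recOut_of hg (hF.sep s) Walls.cone (hsub s) hF.mono hF.smod hK
    (fun p _ q _ => hF.lip p q) (fun c hc d hd' w hw => by
      rw [Pi.sup_apply]
      exact sup_le ((hc w hw).trans (Walls.rhs_mono w le_sup_left))
        ((hd' w hw).trans (Walls.rhs_mono w le_sup_right))) (fun z => Walls.Tn_mem z) (ok s).sd
    (fun k hk => (mem_SH.1 hk).1) (sf s).l (z := σ • (sf s).r) (by
      refine Tn_memLH Walls.cone (hc0 s) ?_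
      rw [Rc146.lf_smul, (ok s).lr, mul_zero])
    (fun k hk => by rw [Rc146.lf_smul]; exact hσ.1 s k hk)
    (fun k hk => by rw [Rc146.lf_smul]; exact hσ.2 s k hk) (h := k) (lam := lam)
    (by rw [e]; exact H) H2
  exact ⟨_, _, hr⟩

end

/-! ### the final tangents -/

/-- **tangents along moving base points of the record line** with `RecOut` for all surfaces, for the
profile `ν = f j0` together with further Lipschitz functions `f j` -/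
theorem rec_tan2 {Q : Walls ι W} {lo hi y0 ρ0 : ι → ℝ} {T : Type*} [Countable T] {sf : T → Srf ι}
    (ok : ∀ s, (sf s).Ok Q y0 ρ0) {c0 : T → ℝ} (hc0 : ∀ s, 0 < c0 s)
    (hsub : ∀ s, (sf s).LW Q (c0 s) ⊆ Q.L y0 ρ0 0) {J : Type*} [Finite J]
    {f : J → (ι → ℝ) → ℝ} {j0 : J} {ν' : (ι → ℝ) → ℝ} {K : ℝ} (hK : 0 ≤ K)
    (hν : ∀ j, ∀ p ∈ Q.P lo hi, ∀ q ∈ Q.P lo hi, |f j p - f j q| ≤ K * dist p q)
    (hm : ∀ p ∈ Q.P lo hi, ∀ q ∈ Q.P lo hi, p ≤ q →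
      0 ≤ f j0 p - f j0 q ∧ f j0 p - f j0 q ≤ ∑ i, (q i - p i))
    (hs : SupOn (f j0) (Q.P lo hi)) (he : ∀ p ∈ Q.P lo hi, ν' p = f j0 p) {ξ : ℝ}
    (hξ : (ξ, (0:ℝ)) ∈ Q.O lo hi y0 ρ0 0) (hcr : ∀ s, (sf s).CrossAt Q ν' (y0 + ξ • ρ0) (c0 s))
    {h : ℕ → ℝ} (hpos : ∀ l, 0 < h l) (h0 : Tendsto h atTop (𝓝 0)) :
    ∃ (x h' : ℕ → ℝ) (lam : J → (ι → ℝ) → ℝ), Tendsto x atTop (𝓝 ξ) ∧ (∀ m, 0 < h' m) ∧
      Tendsto h' atTop (𝓝 0) ∧
      (∀ j, Ex926.IsTan (Q.P lo hi) (Q.L y0 ρ0 0) (f j) (fun m => y0 + x m • ρ0) h' (lam j)) ∧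
      ∀ s, ∃ (φ : ℕ → (ι → ℝ) → ℝ) (r : ℕ → ℝ), RecOut (sf s).g (sf s).S ((sf s).LW Q (c0 s))
        ((sf s).L Q) (sf s).a (sf s).b (sf s).l (sf s).dh (sf s).n (lam j0) φ r := by
  have hM : Dg219.Cone (Q.L y0 ρ0 0) := Walls.cone
  have hcl : IsClosed (Q.L y0 ρ0 0) := Walls.isClosed_L
  -- first blow-up
  obtain ⟨φ1, hφ1, g, hg⟩ := exists_tan (J := J) (P := fun _ => Q.P lo hi)
    (D := fun _ => Q.L y0 ρ0 0) (fun _ => hcl) hK
    (fun j p hp q hq => by rw [← dist_eq_norm]; exact hν j p hp q hq)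
    (x := fun _ => y0 + ξ • ρ0) hpos (fun _ C => legal_line hξ hpos h0 C) (fun _ => hM.zero)
  set h1 : ℕ → ℝ := fun l => h (φ1 l) with hh1
  have h1pos : ∀ l, 0 < h1 l := fun l => hpos _
  have h10 : Tendsto h1 atTop (𝓝 0) := h0.comp hφ1.tendsto_atTop
  obtain ⟨G, hGe, hF⟩ := first_of ok hc0 hsub hK (hν j0) hm hs he hcr h1pos h10 (hg j0)
  obtain ⟨σ, hσ⟩ := (hF.ae_good2 ok hK hc0 hsub).exists
  -- second blow-up
  set k0 : ℕ → ℝ := fun m => 1 / ((m : ℝ) + 1) with hk0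
  have k0pos : ∀ m, 0 < k0 m := fun m => by simp only [hk0]; positivity
  have k00 : Tendsto k0 atTop (𝓝 0) := tendsto_one_div_add_atTop_nhds_zero_nat
  have hglip : ∀ j, ∀ p ∈ Q.L y0 ρ0 0, ∀ q ∈ Q.L y0 ρ0 0, |g j p - g j q| ≤ K * ‖p - q‖ := by
    intro j p hp q hq
    have := (bup_of_tan h1pos h10 (hg j)).lip (hν j) p hp q hq
    rwa [dist_eq_norm] at this
  obtain ⟨φ2, hφ2, lam, hlam⟩ := exists_tan (J := J) (P := fun _ => Q.L y0 ρ0 0)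
    (D := fun _ => Q.L y0 ρ0 0) (ν := g) (fun _ => hcl) hK hglip
    (x := fun _ => σ • ρ0) k0pos (fun _ C => Eventually.of_forall fun m c hc _ =>
      hM.add _ (smul_mem_M σ) _ (hM.smul _ hc _ (k0pos m).le)) (fun _ => hM.zero)
  set k1 : ℕ → ℝ := fun m => k0 (φ2 m) with hk1
  have k1pos : ∀ l, 0 < k1 l := fun l => k0pos _
  have k10 : Tendsto k1 atTop (𝓝 0) := k00.comp hφ2.tendsto_atTop
  have HG : Ex926.IsTan (Q.L y0 ρ0 0) (Q.L y0 ρ0 0) G (fun _ => σ • ρ0) k1 (lam j0) :=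
    Rc146.tan_congr' (hlam j0) (fun _ => smul_mem_M σ) hGe
  -- third blow-up
  have hlamlip : ∀ j, ∀ p ∈ Q.L y0 ρ0 0, ∀ q ∈ Q.L y0 ρ0 0,
      |lam j p - lam j q| ≤ K * ‖p - q‖ := by
    intro j p hp q hq
    have h3 : ∀ p ∈ Q.L y0 ρ0 0, ∀ q ∈ Q.L y0 ρ0 0, |g j p - g j q| ≤ K * dist p q :=
      fun p hp q hq => by rw [dist_eq_norm]; exact hglip j p hp q hq
    have := (bup_of_tan k1pos k10 (hlam j)).lip h3 p hp q hq
    rwa [dist_eq_norm] at this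
  obtain ⟨φ3, hφ3, lam2, hlam2⟩ := exists_tan (J := J) (P := fun _ => Q.L y0 ρ0 0)
    (D := fun _ => Q.L y0 ρ0 0) (ν := lam) (fun _ => hcl) hK hlamlip
    (x := fun _ => (0 : ι → ℝ)) k0pos (fun _ C => Eventually.of_forall fun m c hc _ =>
      hM.add _ hM.zero _ (hM.smul _ hc _ (k0pos m).le)) (fun _ => hM.zero)
  set t1 : ℕ → ℝ := fun m => k0 (φ3 m) with ht1
  have t1pos : ∀ l, 0 < t1 l := fun l => k0pos _
  have t10 : Tendsto t1 atTop (𝓝 0) := k00.comp hφ3.tendsto_atTop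
  -- diagonal of the second and the third blow-up
  obtain ⟨ψ2, hψ2, -, hT2⟩ := diagF (J := J) (P := fun _ => Q.L y0 ρ0 0)
    (L := fun _ => Q.L y0 ρ0 0) (L' := fun _ => Q.L y0 ρ0 0) k1pos hlam (fun _ => hM.zero)
    t1pos hlam2 (A := fun _ _ => True) (fun _ => Eventually.of_forall fun _ => trivial)
  set k2 : ℕ → ℝ := fun m => k1 (ψ2 m) * t1 m with hk2
  have k2pos : ∀ l, 0 < k2 l := fun l => mul_pos (k1pos _) (t1pos _)
  have k20 : Tendsto k2 atTop (𝓝 0) := by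
    have := (k10.comp hψ2.tendsto_atTop).mul t10
    rwa [zero_mul] at this
  have hT2' : ∀ j, Ex926.IsTan (Q.L y0 ρ0 0) (Q.L y0 ρ0 0) (g j) (fun _ => σ • ρ0) k2
      (lam2 j) := by
    intro j
    have := hT2 j
    simp only [smul_zero, add_zero] at this
    exact this
  -- diagonal with the first blow-up
  obtain ⟨ψ, hψ, hA, hT⟩ := diagF (J := J) (P := fun _ => Q.P lo hi) (L := fun _ => Q.L y0 ρ0 0)
    (L' := fun _ => Q.L y0 ρ0 0) h1pos hg (fun _ => smul_mem_M σ) k2pos hT2'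
    (A := fun _ _ => True) (fun _ => Eventually.of_forall fun _ => trivial)
  have hψ1 : Tendsto (fun m => h1 (ψ m)) atTop (𝓝 0) := h10.comp hψ.tendsto_atTop
  refine ⟨fun m => ξ + h1 (ψ m) * σ, fun m => h1 (ψ m) * k2 m, lam2, ?_,
    fun m => mul_pos (h1pos _) (k2pos _), ?_, fun j => ?_, fun s => ?_⟩
  · have := (hψ1.mul_const σ).const_add ξ
    rwa [zero_mul, add_zero] at this
  · have := hψ1.mul k20
    rwa [zero_mul] at this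
  · have e : (fun m => y0 + (ξ + h1 (ψ m) * σ) • ρ0) =
        fun m => y0 + ξ • ρ0 + h1 (ψ m) • σ • ρ0 := by
      funext m
      rw [add_smul, smul_smul, add_assoc]
    rw [e]
    exact hT j
  · exact hF.recOut ok hK hc0 hsub hσ (bup_of_tan k1pos k10 HG)
      (bup_of_tan t1pos t10 (hlam2 j0)) s

/-- **RECORD BLOW-UP, complete form**: at almost every point `ξ ∈ U` of the record line, along
every sequence of scales -/
theorem ae_rec_tan2 {Q : Walls ι W} {lo hi y0 ρ0 : ι → ℝ} {T : Type*} [Countable T]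
    {sf : T → Srf ι} (ok : ∀ s, (sf s).Ok Q y0 ρ0) {J : Type*} [Finite J]
    {f : J → (ι → ℝ) → ℝ} {j0 : J} {ν' : (ι → ℝ) → ℝ} {K : ℝ} (hK : 0 ≤ K)
    (hν : ∀ j, ∀ p ∈ Q.P lo hi, ∀ q ∈ Q.P lo hi, |f j p - f j q| ≤ K * dist p q)
    (hm : ∀ p ∈ Q.P lo hi, ∀ q ∈ Q.P lo hi, p ≤ q →
      0 ≤ f j0 p - f j0 q ∧ f j0 p - f j0 q ≤ ∑ i, (q i - p i))
    (hs : SupOn (f j0) (Q.P lo hi)) (he : ∀ p ∈ Q.P lo hi, ν' p = f j0 p)
    (hν' : ∀ p q, |ν' p - ν' q| ≤ K * dist p q) {U : Set ℝ}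
    (hU : ∀ ξ ∈ U, (ξ, (0:ℝ)) ∈ Q.O lo hi y0 ρ0 0) (hP : ∀ s, (sf s).PPU Q ν' U) :
    ∀ᵐ ξ : ℝ, ξ ∈ U → ∃ c0 : T → ℝ, (∀ s, 0 < c0 s) ∧
      (∀ s, (sf s).LW Q (c0 s) ⊆ Q.L y0 ρ0 0) ∧
      ∀ h : ℕ → ℝ, (∀ l, 0 < h l) → Tendsto h atTop (𝓝 0) →
      ∃ (x h' : ℕ → ℝ) (lam : J → (ι → ℝ) → ℝ), Tendsto x atTop (𝓝 ξ) ∧ (∀ m, 0 < h' m) ∧
        Tendsto h' atTop (𝓝 0) ∧
        (∀ j, Ex926.IsTan (Q.P lo hi) (Q.L y0 ρ0 0) (f j) (fun m => y0 + x m • ρ0) h'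
          (lam j)) ∧
        ∀ s, ∃ (φ : ℕ → (ι → ℝ) → ℝ) (r : ℕ → ℝ), RecOut (sf s).g (sf s).S
          ((sf s).LW Q (c0 s)) ((sf s).L Q) (sf s).a (sf s).b (sf s).l (sf s).dh (sf s).n
          (lam j0) φ r := by
  choose c1 hc1 hc1' using fun s => (ok s).sub
  have h1 : ∀ᵐ ξ : ℝ, ∀ s, ξ ∈ U → ∃ c0 : ℝ, 0 < c0 ∧ c0 ≤ c1 s ∧
      (sf s).CrossAt Q ν' (y0 + ξ • ρ0) c0 :=
    ae_all_iff.2 fun s => ae_crossAt (ok s) hK hν' (hP s) (hc1 s)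
  filter_upwards [h1] with ξ hξ hξU
  choose c0 hc0 hc01 hcr using fun s => hξ s hξU
  exact ⟨c0, hc0, fun s => hc1' s _ (hc01 s), fun h hpos h0 =>
    rec_tan2 ok hc0 (fun s => hc1' s _ (hc01 s)) hK hν hm hs he (hU ξ hξU) hcr hpos h0⟩

end Crest.Agent.R136.Rc683
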