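import Crest.Agent.R136.Rb5_741
import Crest.Agent.R136.Rbw4_219
import Crest.Agent.R136.Rc7_683

/-!
# R136: record blow-up, last wire (helper219)

* `Srf.Rok`  : data of a surface used by 741's record blow-up (groups, walls, same sign along the
  record line inside every group)
* `Srf.ppu`  : 741's `pp_all` gives `Srf.PPU` at the record points in `Q.O lo hi y0 ρ0 0`
* **`ae_rec`** : the record blow-up as ONE theorem (683's `ae_rec_tan2` without blow-up hypotheses)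
* `Rok.closed` : the data for a surface in the closed half plane `0 ≤ a` with 219's groups `gC`
-/

set_option autoImplicit false
set_option linter.unusedSectionVars false
set_option linter.unusedVariables false

open Set Filter Topology Metric MeasureTheory

namespace Crest.Agent.R136.Rc683

open Dg219 Rc146
open Dg262 (X X_cont SupOn Grp)
open Crest.Agent.R138
open Rb741 (lin Reg LegR PP RD)

variable {ι W : Type*} [Fintype ι] [DecidableEq ι] [Fintype W]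

/-- data of a surface for the record blow-up -/
structure Srf.Rok (s : Srf ι) (Q : Walls ι W) (wv : ℕ → ℝ × ℝ) : Prop where
  grp : Grp s.a s.b s.g wv
  full : Q.Full s.x0 s.a s.b
  /-- same sign of the slopes along the record line inside every group -/
  ss : ∀ i j, s.g i = s.g j → (Tn s.a s.b s.r i = 0 ∧ Tn s.a s.b s.r j = 0) ∨
    0 < Tn s.a s.b s.r i * Tn s.a s.b s.r j
  /-- only for slots which are constant on the surface -/
  par : ∀ i, s.a i = 0 → s.b i = 0 → ∃ t : ℝ, ∀ l, s.g i < s.g l → 0 < t * Tn s.a s.b s.r l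

/-- the legal offsets near the half plane lie in the window cone -/
theorem reg_sub_LH {L : Set (ι → ℝ)} {a b : ι → ℝ} {l : ℝ × ℝ} {κ : ℝ} (hκ : 0 ≤ κ) :
    Reg a b L l κ ⊆ LH L a b l κ := by
  rintro _ ⟨w, c, rfl, h1, h2, h3⟩
  have h1' : lf l w < 0 := h1
  refine ⟨w, c, h1'.le, h2, ?_, rfl⟩
  rw [pi_norm_le_iff_of_nonneg (mul_nonneg hκ (by linarith))]
  intro i
  rw [Real.norm_eq_abs]
  exact h3 i

/-- a slot which is constant along the record line: the later slots move in one direction -/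
theorem Srf.Rok.par' {s : Srf ι} {Q : Walls ι W} {wv : ℕ → ℝ × ℝ} (h : s.Rok Q wv)
    (hr : s.r ≠ 0) (i : ι) (hi : Tn s.a s.b s.r i = 0) :
    ∃ t : ℝ, ∀ l, s.g i < s.g l → 0 < t * Tn s.a s.b s.r l := by
  by_cases h0 : s.a i = 0 ∧ s.b i = 0
  · exact h.par i h0.1 h0.2
  by_cases hex : ∃ l, s.g i < s.g l
  swap
  · exact ⟨1, fun l hl => absurd ⟨l, hl⟩ hex⟩
  obtain ⟨l0, hl0⟩ := hex
  -- `wv (g i)` is parallel to `r`
  set v := wv (s.g i) with hv
  have h1 := h.grp.fix i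
  have h2 := h.grp.up i l0 hl0
  have hi' : s.a i * s.r.1 + s.b i * s.r.2 = 0 := hi
  rw [← hv] at h1 h2
  have hdet : v.1 * s.r.2 = v.2 * s.r.1 := by
    by_cases ha : s.a i = 0
    · have hb : s.b i ≠ 0 := fun hb => h0 ⟨ha, hb⟩
      rw [ha, zero_mul, zero_add] at h1 hi'
      rw [(mul_eq_zero.1 h1).resolve_left hb, (mul_eq_zero.1 hi').resolve_left hb]; ring
    · have h3 : s.a i * (v.1 * s.r.2 - v.2 * s.r.1) = 0 := by
        linear_combination s.r.2 * h1 - v.2 * hi'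
      linarith [(mul_eq_zero.1 h3).resolve_left ha]
  have hv0 : v ≠ 0 := by
    intro h3
    rw [h3] at h2
    simp at h2
  -- `r = c • v`
  obtain ⟨c, hc⟩ : ∃ c : ℝ, s.r = c • v := by
    by_cases hv1 : v.1 = 0
    · have hv2 : v.2 ≠ 0 := fun h3 => hv0 (Prod.ext hv1 h3)
      refine ⟨s.r.2 / v.2, Prod.ext ?_ ?_⟩
      · rw [Prod.smul_fst, smul_eq_mul, hv1, mul_zero]
        rw [hv1, zero_mul] at hdet
        exact (mul_eq_zero.1 hdet.symm).resolve_left hv2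
      · rw [Prod.smul_snd, smul_eq_mul]; field_simp
    · refine ⟨s.r.1 / v.1, Prod.ext ?_ ?_⟩
      · rw [Prod.smul_fst, smul_eq_mul]; field_simp
      · rw [Prod.smul_snd, smul_eq_mul]
        field_simp
        linarith
  have hc0 : c ≠ 0 := by
    rintro rfl
    exact hr (by rw [hc, zero_smul])
  refine ⟨c, fun l hl => ?_⟩
  have h3 := h.grp.up i l hl
  rw [← hv] at h3
  have h4 : Tn s.a s.b s.r l = c * (s.a l * v.1 + s.b l * v.2) := by
    rw [hc]; simp only [Tn, Prod.smul_fst, Prod.smul_snd, smul_eq_mul]; ring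
  rw [h4, ← mul_assoc]
  exact mul_pos (mul_self_pos.2 hc0) h3

/-- legality near the half plane at a record point -/
theorem Srf.Ok.leg {s : Srf ι} {Q : Walls ι W} {lo hi y0 ρ0 : ι → ℝ} (ok : s.Ok Q y0 ρ0)
    {c1 : ℝ} (hc1 : 0 < c1) (hsub : s.LW Q c1 ⊆ Q.L y0 ρ0 0) {x₀ : ℝ}
    (hx : (x₀, (0:ℝ)) ∈ Q.O lo hi y0 ρ0 0) :
    ∃ ε : ℝ, 0 < ε ∧ ∀ x, |x - x₀| ≤ ε → ∀ q ∈ Reg s.a s.b (s.L Q) s.l c1, (∀ i, |q i| ≤ ε) →
      X s.x0 s.a s.b s.z00 + x • Tn s.a s.b s.r + q ∈ Q.P lo hi := by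
  obtain ⟨ε, hε, H⟩ := Walls.legal hx 1
  refine ⟨ε / 2, by positivity, fun x hxx q hq hqr => ?_⟩
  have hq' : q ∈ Q.L y0 ρ0 0 := hsub (reg_sub_LH hc1.le hq)
  have h2 : (0:ℝ) < ε / 2 := by positivity
  have h1 := H (x, 0) (by
    rw [Prod.dist_eq, dist_self, max_eq_left dist_nonneg, Real.dist_eq]
    linarith) (ε / 2) h2 (by linarith) ((ε / 2)⁻¹ • q)
    ((Walls.cone (Q := Q)).smul _ hq' _ (inv_nonneg.2 h2.le)) (by
      rw [norm_smul, Real.norm_eq_abs, abs_of_pos (inv_pos.2 h2)]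
      have h3 : ‖q‖ ≤ ε / 2 := by
        rw [pi_norm_le_iff_of_nonneg h2.le]
        intro i; rw [Real.norm_eq_abs]; exact hqr i
      calc (ε / 2)⁻¹ * ‖q‖ ≤ (ε / 2)⁻¹ * (ε / 2) :=
            mul_le_mul_of_nonneg_left h3 (inv_nonneg.2 h2.le)
        _ = 1 := inv_mul_cancel₀ h2.ne')
  rw [line_eq, smul_smul, mul_inv_cancel₀ h2.ne', one_smul] at h1
  rw [ok.base, ok.dir]
  exact h1

/-- **741's record blow-up as `Srf.PPU`** -/
theorem Srf.ppu {s : Srf ι} {Q : Walls ι W} {lo hi y0 ρ0 : ι → ℝ} (ok : s.Ok Q y0 ρ0)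
    {wv : ℕ → ℝ × ℝ} (hR : s.Rok Q wv) {ν' : (ι → ℝ) → ℝ} {K : ℝ} (hK : 0 ≤ K)
    (hν' : ∀ p q, |ν' p - ν' q| ≤ K * dist p q) (hs : SupOn ν' (Q.P lo hi)) {U : Set ℝ}
    (hU : ∀ ξ ∈ U, (ξ, (0:ℝ)) ∈ Q.O lo hi y0 ρ0 0) : s.PPU Q ν' U := by
  intro x₀ hx₀
  obtain ⟨c1, hc1, hsub⟩ := ok.sub
  obtain ⟨ε, hε, H⟩ := ok.leg hc1 (hsub c1 le_rfl) (hU x₀ hx₀)
  have D : RD ν' (Q.P lo hi) K s.g s.a s.b wv (s.L Q) Q.rk (Q.rm s.g) s.l s.r
      (X s.x0 s.a s.b s.z00) c1 x₀ ε ε :=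
    { Kn := hK
      lip := hν'
      sup := hs
      rw := Walls.rwG hR.grp hR.full
      grp := hR.grp
      lamr := ok.lr
      ss := hR.ss
      par := hR.par' ok.r0
      κp := hc1
      rp := hε
      leg := H }
  obtain ⟨κ, hκ, hP⟩ := Rb741.pp_all D (Finset.univ.sup s.g + 1)
  refine ⟨ε, hε, κ, hκ, fun m => ?_⟩
  intro i j _ hij
  exact hP i j (Nat.lt_succ_of_le (Finset.le_sup (Finset.mem_univ i))) hij

/-- **RECORD BLOW-UP** (741's theorem, 548's a.e. step, 146's `RecOut`, 683's moving base points):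
at almost every point `ξ ∈ U` of the record line, along every sequence of scales -/
theorem ae_rec {Q : Walls ι W} {lo hi y0 ρ0 : ι → ℝ} {T : Type*} [Countable T]
    {sf : T → Srf ι} (ok : ∀ s, (sf s).Ok Q y0 ρ0) (hR : ∀ s, ∃ wv, (sf s).Rok Q wv)
    {J : Type*} [Finite J] {f : J → (ι → ℝ) → ℝ} {j0 : J} {K : ℝ} (hK : 0 ≤ K)
    (hν : ∀ j, ∀ p ∈ Q.P lo hi, ∀ q ∈ Q.P lo hi, |f j p - f j q| ≤ K * dist p q)
    (hm : ∀ p ∈ Q.P lo hi, ∀ q ∈ Q.P lo hi, p ≤ q →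
      0 ≤ f j0 p - f j0 q ∧ f j0 p - f j0 q ≤ ∑ i, (q i - p i))
    (hs : SupOn (f j0) (Q.P lo hi)) {U : Set ℝ}
    (hU : ∀ ξ ∈ U, (ξ, (0:ℝ)) ∈ Q.O lo hi y0 ρ0 0) :
    ∀ᵐ ξ : ℝ, ξ ∈ U → ∃ c0 : T → ℝ, (∀ s, 0 < c0 s) ∧
      (∀ s, (sf s).LW Q (c0 s) ⊆ Q.L y0 ρ0 0) ∧
      ∀ h : ℕ → ℝ, (∀ l, 0 < h l) → Tendsto h atTop (𝓝 0) →
      ∃ (x h' : ℕ → ℝ) (lam : J → (ι → ℝ) → ℝ), Tendsto x atTop (𝓝 ξ) ∧ (∀ m, 0 < h' m) ∧
        Tendsto h' atTop (𝓝 0) ∧
        (∀ j, Ex926.IsTan (Q.P lo hi) (Q.L y0 ρ0 0) (f j) (fun m => y0 + x m • ρ0) h'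
          (lam j)) ∧
        ∀ s, ∃ (φ : ℕ → (ι → ℝ) → ℝ) (r : ℕ → ℝ), RecOut (sf s).g (sf s).S
          ((sf s).LW Q (c0 s)) ((sf s).L Q) (sf s).a (sf s).b (sf s).l (sf s).dh (sf s).n
          (lam j0) φ r := by
  have hlip : LipschitzOnWith ⟨K, hK⟩ (f j0) (Q.P lo hi) :=
    LipschitzOnWith.of_dist_le_mul fun p hp q hq => by
      rw [Real.dist_eq]; exact hν j0 p hp q hq
  obtain ⟨ν', hν', he⟩ := hlip.extend_real
  have hν'' : ∀ p q, |ν' p - ν' q| ≤ K * dist p q := fun p q => by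
    have := hν'.dist_le_mul p q
    rwa [Real.dist_eq] at this
  have he' : ∀ p ∈ Q.P lo hi, ν' p = f j0 p := fun p hp => (he hp).symm
  have hs' : SupOn ν' (Q.P lo hi) := by
    intro p hp q hq h1 h2
    rw [he' p hp, he' q hq, he' _ h1, he' _ h2]
    exact hs p hp q hq h1 h2
  refine ae_rec_tan2 ok hK hν hm hs he' hν'' hU fun s => ?_
  obtain ⟨wv, h⟩ := hR s
  exact Srf.ppu (ok s) h hK hν'' hs' hU

/-! ### surfaces in the closed half plane -/

/-- data for a surface with `0 ≤ a` (and `0 < b` where `a = 0`), record line along the second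
coordinate -/
theorem Rok.closed {s : Srf ι} {Q : Walls ι W} (ha : ∀ i, 0 ≤ s.a i)
    (hb : ∀ i, s.a i = 0 → 0 < s.b i) (hr : s.r = (0, 1)) (hg : s.g = gC s.a s.b) :
    ∃ wv, s.Rok Q wv := by
  obtain ⟨wv, hG⟩ := exists_grpC (b := s.b) ha
  rw [← hg] at hG
  refine ⟨wv, hG, Walls.full_of_ne fun i => ?_, fun i j hij => ?_, fun i h1 h2 => ?_⟩
  · by_cases h : s.a i = 0
    · exact Or.inr (hb i h).ne'
    · exact Or.inl h
  · have e : ∀ i, Tn s.a s.b s.r i = s.b i := fun i => by rw [hr]; simp [Tn]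
    rw [e, e]
    by_cases hi : s.a i = 0
    · have h0 : gC s.a s.b i = 0 := gC_zero.2 hi
      rw [hg, h0] at hij
      exact Or.inr (mul_pos (hb i hi) (hb j (gC_zero.1 hij.symm)))
    · have hj : s.a j ≠ 0 := by
        intro hj
        have h0 : gC s.a s.b j = 0 := gC_zero.2 hj
        rw [hg, h0] at hij
        exact hi (gC_zero.1 hij)
      rw [hg, gC_eq hi hj, div_eq_div_iff hi hj] at hij
      have hi' : 0 < s.a i := lt_of_le_of_ne (ha i) (Ne.symm hi)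
      have hj' : 0 < s.a j := lt_of_le_of_ne (ha j) (Ne.symm hj)
      by_cases hbi : s.b i = 0
      · left
        refine ⟨hbi, ?_⟩
        rw [hbi, zero_mul] at hij
        exact (mul_eq_zero.1 hij.symm).resolve_right hi
      · right
        have h5 : s.b j = s.b i * s.a j / s.a i := by
          field_simp; linarith
        rw [h5]
        have h6 : s.b i * (s.b i * s.a j / s.a i) = s.b i * s.b i * (s.a j / s.a i) := by ring
        rw [h6]
        exact mul_pos (mul_self_pos.2 hbi) (div_pos hj' hi')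
  · exact absurd h2 (hb i h1).ne'

end Crest.Agent.R136.Rc683
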