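import Crest.Agent.R136.Sl1_741
import Crest.Agent.R136.Rbw5_219

/-!
# R136: frozen slots, `RecOut` form (helper741)

**`ae_rec_slice`** : 219's `Rc683.ae_rec` with frozen slots: full tangents on all slots, `RecOut`
for the surfaces of the slice.
-/

set_option autoImplicit false
set_option linter.unusedSectionVars false
set_option linter.unusedVariables false

open Set Filter Topology Metric MeasureTheory

namespace Crest.Agent.R136.Sl741

open Dg219 (Tn Walls lf zz)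
open Dg262 (Mix Inc SupOn Grp X)
open Rc146 (OutH RecOut)
open Rc683 (Srf)
open Crest.Agent.R138

variable {ι : Type*} [Fintype ι] [DecidableEq ι] {W : Type*} [Fintype W]
  {p : ι → Prop} [DecidablePred p]

/-- `RecOut` depends on `lam` on the window cone only -/
theorem recOut_congr {κ : Type*} [DecidableEq κ] {grp : ι → κ} {S : Finset κ}
    {LW L : Set (ι → ℝ)} {a b : ι → ℝ} {l : ℝ × ℝ} {dh : ι → ℝ} {n : κ → ℝ × ℝ}
    {lam lam' : (ι → ℝ) → ℝ} {φ : κ → (ι → ℝ) → ℝ} {r : κ → ℝ}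
    (H : RecOut grp S LW L a b l dh n lam φ r) (he : ∀ c ∈ LW, lam' c = lam c) :
    RecOut grp S LW L a b l dh n lam' φ r :=
  { outH_congr H.toOutH he with
    stat := H.stat
    add := H.add
    hom := H.hom }

/-- **RECORD BLOW-UP with frozen slots** : `¬ p i` = frozen slot (slope 0 along the record line, no
wall with this head); surfaces `sf s` of the slice; `K`-Lipschitz functions `f j` on the legal set,
`f j0` the profile. At almost every record point, along every sequence of scales there are tangents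
of all `f j` (on ALL slots) at moving base points of the record line, with `RecOut` for all surfaces,
for `lam j0` at vectors which vanish on the frozen slots -/
theorem ae_rec_slice {Q : Walls ι W} {hp : ∀ w, p (Q.hd w)} {lo hi y0 ρ0 : ι → ℝ}
    (hv : ∀ i, ¬ p i → lo i ≤ y0 i ∧ y0 i ≤ hi i) (hρ : ∀ i, ¬ p i → ρ0 i = 0)
    {T : Type*} [Countable T] {sf : T → Srf {i // p i}}
    (ok : ∀ s, (sf s).Ok (slice Q p y0 hp) (rs p y0) (rs p ρ0))
    (hR : ∀ s, ∃ wv, (sf s).Rok (slice Q p y0 hp) wv)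
    {J : Type*} [Finite J] {f : J → (ι → ℝ) → ℝ} {j0 : J} {K : ℝ} (hK : 0 ≤ K)
    (hν : ∀ j, ∀ p ∈ Q.P lo hi, ∀ q ∈ Q.P lo hi, |f j p - f j q| ≤ K * dist p q)
    (hm : ∀ p ∈ Q.P lo hi, ∀ q ∈ Q.P lo hi, p ≤ q →
      0 ≤ f j0 p - f j0 q ∧ f j0 p - f j0 q ≤ ∑ i, (q i - p i))
    (hs : SupOn (f j0) (Q.P lo hi)) {U : Set ℝ}
    (hU : ∀ ξ ∈ U, (ξ, (0:ℝ)) ∈ Q.O lo hi y0 ρ0 0) :
    ∀ᵐ ξ : ℝ, ξ ∈ U → ∃ c0 : T → ℝ, (∀ s, 0 < c0 s) ∧
      (∀ s, (sf s).LW (slice Q p y0 hp) (c0 s) ⊆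
        (slice Q p y0 hp).L (rs p y0) (rs p ρ0) 0) ∧
      ∀ h : ℕ → ℝ, (∀ l, 0 < h l) → Tendsto h atTop (𝓝 0) →
      ∃ (x h' : ℕ → ℝ) (lam : J → (ι → ℝ) → ℝ), Tendsto x atTop (𝓝 ξ) ∧ (∀ m, 0 < h' m) ∧
        Tendsto h' atTop (𝓝 0) ∧
        (∀ j, Ex926.IsTan (Q.P lo hi) (Q.L y0 ρ0 0) (f j) (fun m => y0 + x m • ρ0) h'
          (lam j)) ∧
        ∀ s, ∃ (φ : ℕ → ({i // p i} → ℝ) → ℝ) (r : ℕ → ℝ), RecOut (sf s).g (sf s).S
          ((sf s).LW (slice Q p y0 hp) (c0 s)) ((sf s).L (slice Q p y0 hp)) (sf s).a (sf s).b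
          (sf s).l (sf s).dh (sf s).n (fun c => lam j0 (xt p 0 c)) φ r := by
  set Q' := slice Q p y0 hp with hQ'
  have h00 : ∀ i, ¬ p i → y0 i = y0 i := fun _ _ => rfl
  have hb0 : ∀ i, ¬ p i → (0 : ι → ℝ) i = 0 := fun _ _ => rfl
  have hr0 : rs p (0 : ι → ℝ) = 0 := rfl
  have hP' : ∀ {c : {i // p i} → ℝ}, c ∈ Q'.P (rs p lo) (rs p hi) ↔ xt p y0 c ∈ Q.P lo hi :=
    mem_slice_P hv
  have hL' : ∀ {c : {i // p i} → ℝ}, c ∈ Q'.L (rs p y0) (rs p ρ0) 0 ↔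
      xt p 0 c ∈ Q.L y0 ρ0 0 := mem_slice_L h00 hρ hb0
  set f' : J → ({i // p i} → ℝ) → ℝ := fun j c => f j (xt p y0 c) with hf'
  have hν' : ∀ j, ∀ c ∈ Q'.P (rs p lo) (rs p hi), ∀ d ∈ Q'.P (rs p lo) (rs p hi),
      |f' j c - f' j d| ≤ K * dist c d := fun j c hc d hd =>
    (hν j _ (hP'.1 hc) _ (hP'.1 hd)).trans (mul_le_mul_of_nonneg_left (xt_dist _ _ _) hK)
  have hm' : ∀ c ∈ Q'.P (rs p lo) (rs p hi), ∀ d ∈ Q'.P (rs p lo) (rs p hi), c ≤ d →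
      0 ≤ f' j0 c - f' j0 d ∧ f' j0 c - f' j0 d ≤ ∑ i, (d i - c i) := by
    intro c hc d hd hcd
    have := hm _ (hP'.1 hc) _ (hP'.1 hd) (xt_mono y0 hcd)
    rw [xt_sum] at this; exact this
  have hs' : SupOn (f' j0) (Q'.P (rs p lo) (rs p hi)) := by
    intro c hc d hd h1 h2
    have := hs _ (hP'.1 hc) _ (hP'.1 hd) (by rw [← xt_inf]; exact hP'.1 h1)
      (by rw [← xt_sup]; exact hP'.1 h2)
    rw [← xt_inf, ← xt_sup] at this; exact this
  have hU' : ∀ ξ ∈ U, (ξ, (0:ℝ)) ∈ Q'.O (rs p lo) (rs p hi) (rs p y0) (rs p ρ0) 0 :=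
    fun ξ hξ => mem_slice_O h00 hρ hb0 (hU ξ hξ)
  have key := Rc683.ae_rec (Q := Q') (f := f') (j0 := j0) ok hR hK hν' hm' hs' hU'
  filter_upwards [key] with ξ hξ hξU
  obtain ⟨c0, hc0, hc0', H⟩ := hξ hξU
  refine ⟨c0, hc0, hc0', fun h hpos h0 => ?_⟩
  obtain ⟨x, h', lam', hx, hh', hh0, hT, hO⟩ := H h hpos h0
  -- full tangents
  have hM : Dg219.Cone (Q.L y0 ρ0 0) := Walls.cone
  have hcl : IsClosed (Q.L y0 ρ0 0) := Walls.isClosed_L
  obtain ⟨φ1, hφ1, lam, hlam⟩ := Rc683.exists_tan (J := J) (P := fun _ => Q.P lo hi)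
    (D := fun _ => Q.L y0 ρ0 0) (ν := f) (fun _ => hcl) hK
    (fun j p hp q hq => by rw [← dist_eq_norm]; exact hν j p hp q hq)
    (x := fun m => y0 + x m • ρ0) hh' (fun _ C => by
      obtain ⟨ε, hε, H1⟩ := Walls.legal (hU ξ hξU) C
      have e1 : ∀ᶠ m in atTop, dist ((x m, (0:ℝ)) : ℝ × ℝ) (ξ, 0) < ε := by
        filter_upwards [Metric.tendsto_nhds.1 hx ε hε] with m hm
        rw [Prod.dist_eq, dist_self]
        exact max_lt hm hε
      filter_upwards [e1, hh0.eventually_lt_const hε] with m hm1 hm2 c hc hcC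
      have := H1 (x m, 0) hm1 (h' m) (hh' m) hm2 c hc hcC
      rwa [Rc683.line_eq] at this) (fun _ => hM.zero)
  have hφt := hφ1.tendsto_atTop
  refine ⟨fun m => x (φ1 m), fun m => h' (φ1 m), lam, hx.comp hφt, fun m => hh' _,
    hh0.comp hφt, hlam, fun s => ?_⟩
  obtain ⟨φ, r, hφr⟩ := hO s
  refine ⟨φ, r, recOut_congr hφr fun c hc => ?_⟩
  have hcL := hc0' s hc
  -- the two tangents agree
  have t1 := tan_unique (fun m => hh' (φ1 m)) (hlam j0) (hL'.1 hcL)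
  have t2 := tan_unique (fun m => hh' (φ1 m)) (Rc683.tan_comp (hT j0) hφt) hcL
  refine tendsto_nhds_unique t1 (t2.congr fun m => ?_)
  have hy : xt p y0 (rs p y0 + x (φ1 m) • rs p ρ0) = y0 + x (φ1 m) • ρ0 := by
    rw [xt_add0, xt_smul, xt_rs (fun _ _ => rfl), xt_rs fun i hi => by rw [hρ i hi]; rfl]
  have hy2 : xt p y0 (rs p y0 + x (φ1 m) • rs p ρ0 + h' (φ1 m) • c) =
      y0 + x (φ1 m) • ρ0 + h' (φ1 m) • xt p 0 c := by
    rw [xt_add0, xt_smul, hy]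
  simp only [hf']
  rw [hy, hy2]

end Crest.Agent.R136.Sl741
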