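import Crest.Agent.R136.NetW3_191

/-!
# The W-chart (helper191), part 4: generating walls

`legalW_iff` : `Legal monW p` iff `0 ≤ p` and `p a ≤ p b + p c` for 39 triples (`WallsW`)
(one factor lowered: `Y → B, Y → A, Y → z, B → A, A → z, z → 1, A → 1, B → 1`).
-/

set_option autoImplicit false

namespace Crest.Agent.R136.NetW191

open Crest.Agent.R136.Net191

/-- the generating walls, as a structure-free statement -/
def WallsW (p : Fin 18 → ℝ) : Prop :=
  p 2 ≤ p 1 + p 0 ∧ p 3 ≤ p 1 + p 2 ∧ p 5 ≤ p 4 + p 0 ∧ p 6 ≤ p 4 + p 2 ∧ p 6 ≤ p 5 + p 1 ∧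
  p 7 ≤ p 5 + p 0 ∧ p 8 ≤ p 4 + p 3 ∧ p 8 ≤ p 6 + p 1 ∧ p 9 ≤ p 5 + p 2 ∧ p 9 ≤ p 6 + p 0 ∧
  p 9 ≤ p 7 + p 1 ∧ p 10 ≤ p 5 + p 3 ∧ p 10 ≤ p 6 + p 2 ∧ p 10 ≤ p 8 + p 0 ∧ p 10 ≤ p 9 + p 1 ∧
  p 11 ≤ p 5 + p 3 ∧ p 11 ≤ p 6 + p 2 ∧ p 11 ≤ p 8 + p 0 ∧ p 11 ≤ p 9 + p 1 ∧
  p 12 ≤ p 6 + p 3 ∧ p 12 ≤ p 8 + p 2 ∧ p 12 ≤ p 10 + p 1 ∧ p 12 ≤ p 11 + p 1 ∧
  p 13 ≤ p 8 + p 3 ∧ p 13 ≤ p 12 + p 1 ∧ p 14 ≤ p 7 + p 3 ∧ p 14 ≤ p 9 + p 2 ∧
  p 14 ≤ p 11 + p 0 ∧ p 15 ≤ p 9 + p 3 ∧ p 15 ≤ p 10 + p 2 ∧ p 15 ≤ p 12 + p 0 ∧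
  p 15 ≤ p 14 + p 1 ∧ p 16 ≤ p 11 + p 3 ∧ p 16 ≤ p 12 + p 2 ∧ p 16 ≤ p 13 + p 0 ∧
  p 16 ≤ p 15 + p 1 ∧ p 17 ≤ p 14 + p 3 ∧ p 17 ≤ p 15 + p 2 ∧ p 17 ≤ p 16 + p 0

lemma wallsW_of_legal {p : Fin 18 → ℝ} (h : Legal monW p) : WallsW p := by
  have h2 := (legal_ofLists.1 h).2
  have key : ∀ (k : Fin 18) (x y : Fin 18), [x, y] ∈ mlW k → p k ≤ p x + p y := by
    intro k x y hk
    simpa using h2 k _ hk
  have key' : ∀ (k : Fin 18) (x y : Fin 18), [y, x] ∈ mlW k → p k ≤ p x + p y := by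
    intro k x y hk
    rw [add_comm]
    exact key k y x hk
  refine ⟨
    key 2 1 0 (by decide), key 3 1 2 (by decide), key' 5 4 0 (by decide),
    key' 6 4 2 (by decide), key' 6 5 1 (by decide), key' 7 5 0 (by decide),
    key' 8 4 3 (by decide), key' 8 6 1 (by decide), key' 9 5 2 (by decide),
    key' 9 6 0 (by decide), key' 9 7 1 (by decide), key' 10 5 3 (by decide),
    key' 10 6 2 (by decide), key' 10 8 0 (by decide), key' 10 9 1 (by decide),
    key' 11 5 3 (by decide), key' 11 6 2 (by decide), key' 11 8 0 (by decide),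
    key' 11 9 1 (by decide), key' 12 6 3 (by decide), key' 12 8 2 (by decide),
    key' 12 10 1 (by decide), key' 12 11 1 (by decide), key' 13 8 3 (by decide),
    key' 13 12 1 (by decide), key' 14 7 3 (by decide), key' 14 9 2 (by decide),
    key' 14 11 0 (by decide), key' 15 9 3 (by decide), key' 15 10 2 (by decide),
    key' 15 12 0 (by decide), key' 15 14 1 (by decide), key' 16 11 3 (by decide),
    key' 16 12 2 (by decide), key' 16 13 0 (by decide), key' 16 15 1 (by decide),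
    key' 17 14 3 (by decide), key' 17 15 2 (by decide), key' 17 16 0 (by decide)⟩

section

variable {p : Fin 18 → ℝ} (hn : ∀ k, 0 ≤ p k) (hw : WallsW p)

include hn hw

omit hn hw in
lemma wt0 : ∀ l ∈ (tms 0).map Tm.idx, p 4 ≤ (l.map p).sum := by
  intro l hl
  have e : (tms 0).map Tm.idx = [] := rfl
  rw [e] at hl
  exact absurd hl List.not_mem_nil

lemma wt1 : ∀ l ∈ (tms 1).map Tm.idx, p 5 ≤ (l.map p).sum := by
  have e : (tms 1).map Tm.idx = (
      [[0, 4]] :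
      List (List (Fin 18))) := by decide
  rw [e]
  obtain
    ⟨g0, g1, g2, g3, g4, g5, g6, g7, g8, g9, g10, g11, g12, g13, g14, g15, g16, g17, g18, g19,
    g20, g21, g22, g23, g24, g25, g26, g27, g28, g29, g30, g31, g32, g33, g34, g35, g36, g37,
    g38⟩ := hw
  have n0 := hn 0
  have n1 := hn 1
  have n2 := hn 2
  have n3 := hn 3
  simp only [List.forall_mem_cons, List.map_cons, List.map_nil, List.sum_cons, List.sum_nil,
    List.not_mem_nil, false_imp_iff, implies_true, and_true, add_zero]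
  linarith

lemma wt2 : ∀ l ∈ (tms 2).map Tm.idx, p 6 ≤ (l.map p).sum := by
  have e : (tms 2).map Tm.idx = (
      [[2, 4], [1, 0, 4], [1, 5]] :
      List (List (Fin 18))) := by decide
  rw [e]
  obtain
    ⟨g0, g1, g2, g3, g4, g5, g6, g7, g8, g9, g10, g11, g12, g13, g14, g15, g16, g17, g18, g19,
    g20, g21, g22, g23, g24, g25, g26, g27, g28, g29, g30, g31, g32, g33, g34, g35, g36, g37,
    g38⟩ := hw
  have n0 := hn 0
  have n1 := hn 1
  have n2 := hn 2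
  have n3 := hn 3
  simp only [List.forall_mem_cons, List.map_cons, List.map_nil, List.sum_cons, List.sum_nil,
    List.not_mem_nil, false_imp_iff, implies_true, and_true, add_zero]
  refine ⟨?_, ?_, ?_⟩ <;> linarith

lemma wt3 : ∀ l ∈ (tms 3).map Tm.idx, p 7 ≤ (l.map p).sum := by
  have e : (tms 3).map Tm.idx = (
      [[0, 0, 4], [0, 5]] :
      List (List (Fin 18))) := by decide
  rw [e]
  obtain
    ⟨g0, g1, g2, g3, g4, g5, g6, g7, g8, g9, g10, g11, g12, g13, g14, g15, g16, g17, g18, g19,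
    g20, g21, g22, g23, g24, g25, g26, g27, g28, g29, g30, g31, g32, g33, g34, g35, g36, g37,
    g38⟩ := hw
  have n0 := hn 0
  have n1 := hn 1
  have n2 := hn 2
  have n3 := hn 3
  simp only [List.forall_mem_cons, List.map_cons, List.map_nil, List.sum_cons, List.sum_nil,
    List.not_mem_nil, false_imp_iff, implies_true, and_true, add_zero]
  refine ⟨?_, ?_⟩ <;> linarith

lemma wt4 : ∀ l ∈ (tms 4).map Tm.idx, p 8 ≤ (l.map p).sum := by
  have e : (tms 4).map Tm.idx = (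
      [[2, 1, 4], [3, 4], [1, 1, 0, 4], [1, 1, 5], [1, 6]] :
      List (List (Fin 18))) := by decide
  rw [e]
  obtain
    ⟨g0, g1, g2, g3, g4, g5, g6, g7, g8, g9, g10, g11, g12, g13, g14, g15, g16, g17, g18, g19,
    g20, g21, g22, g23, g24, g25, g26, g27, g28, g29, g30, g31, g32, g33, g34, g35, g36, g37,
    g38⟩ := hw
  have n0 := hn 0
  have n1 := hn 1
  have n2 := hn 2
  have n3 := hn 3
  simp only [List.forall_mem_cons, List.map_cons, List.map_nil, List.sum_cons, List.sum_nil,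
    List.not_mem_nil, false_imp_iff, implies_true, and_true, add_zero]
  refine ⟨?_, ?_, ?_, ?_, ?_⟩ <;> linarith

lemma wt5 : ∀ l ∈ (tms 5).map Tm.idx, p 9 ≤ (l.map p).sum := by
  have e : (tms 5).map Tm.idx = (
      [[2, 0, 4], [1, 0, 0, 4], [2, 5], [1, 0, 5], [0, 6], [1, 7]] :
      List (List (Fin 18))) := by decide
  rw [e]
  obtain
    ⟨g0, g1, g2, g3, g4, g5, g6, g7, g8, g9, g10, g11, g12, g13, g14, g15, g16, g17, g18, g19,
    g20, g21, g22, g23, g24, g25, g26, g27, g28, g29, g30, g31, g32, g33, g34, g35, g36, g37,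
    g38⟩ := hw
  have n0 := hn 0
  have n1 := hn 1
  have n2 := hn 2
  have n3 := hn 3
  simp only [List.forall_mem_cons, List.map_cons, List.map_nil, List.sum_cons, List.sum_nil,
    List.not_mem_nil, false_imp_iff, implies_true, and_true, add_zero]
  refine ⟨?_, ?_, ?_, ?_, ?_, ?_⟩ <;> linarith

lemma wt6 : ∀ l ∈ (tms 6).map Tm.idx, p 10 ≤ (l.map p).sum := by
  have e : (tms 6).map Tm.idx = (
      [[2, 2, 4], [2, 1, 0, 4], [3, 0, 4], [1, 1, 0, 0, 4], [2, 1, 5], [3, 5], [1, 1, 0, 5],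
      [2, 6], [1, 0, 6], [1, 1, 7], [0, 8], [1, 9]] :
      List (List (Fin 18))) := by decide
  rw [e]
  obtain
    ⟨g0, g1, g2, g3, g4, g5, g6, g7, g8, g9, g10, g11, g12, g13, g14, g15, g16, g17, g18, g19,
    g20, g21, g22, g23, g24, g25, g26, g27, g28, g29, g30, g31, g32, g33, g34, g35, g36, g37,
    g38⟩ := hw
  have n0 := hn 0
  have n1 := hn 1
  have n2 := hn 2
  have n3 := hn 3
  simp only [List.forall_mem_cons, List.map_cons, List.map_nil, List.sum_cons, List.sum_nil,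
    List.not_mem_nil, false_imp_iff, implies_true, and_true, add_zero]
  refine ⟨?_, ?_, ?_, ?_, ?_, ?_, ?_, ?_, ?_, ?_, ?_, ?_⟩ <;> linarith

lemma wt7 : ∀ l ∈ (tms 7).map Tm.idx, p 11 ≤ (l.map p).sum := by
  have e : (tms 7).map Tm.idx = (
      [[2, 2, 4], [2, 1, 0, 4], [3, 0, 4], [1, 1, 0, 0, 4], [2, 1, 5], [3, 5], [1, 1, 0, 5],
      [2, 6], [1, 0, 6], [1, 1, 7], [0, 8], [1, 9]] :
      List (List (Fin 18))) := by decide
  rw [e]
  obtain
    ⟨g0, g1, g2, g3, g4, g5, g6, g7, g8, g9, g10, g11, g12, g13, g14, g15, g16, g17, g18, g19,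
    g20, g21, g22, g23, g24, g25, g26, g27, g28, g29, g30, g31, g32, g33, g34, g35, g36, g37,
    g38⟩ := hw
  have n0 := hn 0
  have n1 := hn 1
  have n2 := hn 2
  have n3 := hn 3
  simp only [List.forall_mem_cons, List.map_cons, List.map_nil, List.sum_cons, List.sum_nil,
    List.not_mem_nil, false_imp_iff, implies_true, and_true, add_zero]
  refine ⟨?_, ?_, ?_, ?_, ?_, ?_, ?_, ?_, ?_, ?_, ?_, ?_⟩ <;> linarith

lemma wt8 : ∀ l ∈ (tms 8).map Tm.idx, p 12 ≤ (l.map p).sum := by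
  have e : (tms 8).map Tm.idx = (
      [[2, 2, 1, 4], [2, 3, 4], [2, 1, 1, 0, 4], [3, 1, 0, 4], [1, 1, 1, 0, 0, 4],
      [2, 1, 1, 5], [3, 1, 5], [1, 1, 1, 0, 5], [2, 1, 6], [3, 6], [1, 1, 0, 6], [1, 1, 1, 7],
      [2, 8], [1, 0, 8], [1, 1, 9], [1, 10], [1, 11]] :
      List (List (Fin 18))) := by decide
  rw [e]
  obtain
    ⟨g0, g1, g2, g3, g4, g5, g6, g7, g8, g9, g10, g11, g12, g13, g14, g15, g16, g17, g18, g19,
    g20, g21, g22, g23, g24, g25, g26, g27, g28, g29, g30, g31, g32, g33, g34, g35, g36, g37,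
    g38⟩ := hw
  have n0 := hn 0
  have n1 := hn 1
  have n2 := hn 2
  have n3 := hn 3
  simp only [List.forall_mem_cons, List.map_cons, List.map_nil, List.sum_cons, List.sum_nil,
    List.not_mem_nil, false_imp_iff, implies_true, and_true, add_zero]
  refine ⟨?_, ?_, ?_, ?_, ?_, ?_, ?_, ?_, ?_, ?_, ?_, ?_, ?_, ?_, ?_, ?_, ?_⟩ <;> linarith

lemma wt9 : ∀ l ∈ (tms 9).map Tm.idx, p 13 ≤ (l.map p).sum := by
  have e : (tms 9).map Tm.idx = (
      [[2, 2, 1, 1, 4], [2, 3, 1, 4], [2, 1, 1, 1, 0, 4], [3, 3, 4], [3, 1, 1, 0, 4],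
      [1, 1, 1, 1, 0, 0, 4], [2, 1, 1, 1, 5], [3, 1, 1, 5], [1, 1, 1, 1, 0, 5], [2, 1, 1, 6],
      [3, 1, 6], [1, 1, 1, 0, 6], [1, 1, 1, 1, 7], [2, 1, 8], [3, 8], [1, 1, 0, 8],
      [1, 1, 1, 9], [1, 1, 10], [1, 1, 11], [1, 12]] :
      List (List (Fin 18))) := by decide
  rw [e]
  obtain
    ⟨g0, g1, g2, g3, g4, g5, g6, g7, g8, g9, g10, g11, g12, g13, g14, g15, g16, g17, g18, g19,
    g20, g21, g22, g23, g24, g25, g26, g27, g28, g29, g30, g31, g32, g33, g34, g35, g36, g37,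
    g38⟩ := hw
  have n0 := hn 0
  have n1 := hn 1
  have n2 := hn 2
  have n3 := hn 3
  simp only [List.forall_mem_cons, List.map_cons, List.map_nil, List.sum_cons, List.sum_nil,
    List.not_mem_nil, false_imp_iff, implies_true, and_true, add_zero]
  refine ⟨?_, ?_, ?_, ?_, ?_, ?_, ?_, ?_, ?_, ?_, ?_, ?_, ?_, ?_, ?_, ?_, ?_, ?_, ?_, ?_⟩ <;> linarith

lemma wt10 : ∀ l ∈ (tms 10).map Tm.idx, p 14 ≤ (l.map p).sum := by
  have e : (tms 10).map Tm.idx = (
      [[2, 2, 0, 4], [3, 0, 0, 4], [2, 2, 5], [3, 0, 5], [2, 0, 6], [3, 7], [0, 0, 8], [2, 9],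
      [0, 11]] :
      List (List (Fin 18))) := by decide
  rw [e]
  obtain
    ⟨g0, g1, g2, g3, g4, g5, g6, g7, g8, g9, g10, g11, g12, g13, g14, g15, g16, g17, g18, g19,
    g20, g21, g22, g23, g24, g25, g26, g27, g28, g29, g30, g31, g32, g33, g34, g35, g36, g37,
    g38⟩ := hw
  have n0 := hn 0
  have n1 := hn 1
  have n2 := hn 2
  have n3 := hn 3
  simp only [List.forall_mem_cons, List.map_cons, List.map_nil, List.sum_cons, List.sum_nil,
    List.not_mem_nil, false_imp_iff, implies_true, and_true, add_zero]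
  refine ⟨?_, ?_, ?_, ?_, ?_, ?_, ?_, ?_, ?_⟩ <;> linarith

lemma wt11 : ∀ l ∈ (tms 11).map Tm.idx, p 15 ≤ (l.map p).sum := by
  have e : (tms 11).map Tm.idx = (
      [[2, 2, 2, 4], [2, 2, 1, 0, 4], [2, 3, 0, 4], [3, 1, 0, 0, 4], [2, 2, 1, 5], [2, 3, 5],
      [3, 1, 0, 5], [2, 2, 6], [2, 1, 0, 6], [3, 0, 6], [3, 1, 7], [2, 0, 8], [1, 0, 0, 8],
      [2, 1, 9], [3, 9], [2, 10], [1, 0, 11], [0, 12], [1, 14]] :
      List (List (Fin 18))) := by decide
  rw [e]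
  obtain
    ⟨g0, g1, g2, g3, g4, g5, g6, g7, g8, g9, g10, g11, g12, g13, g14, g15, g16, g17, g18, g19,
    g20, g21, g22, g23, g24, g25, g26, g27, g28, g29, g30, g31, g32, g33, g34, g35, g36, g37,
    g38⟩ := hw
  have n0 := hn 0
  have n1 := hn 1
  have n2 := hn 2
  have n3 := hn 3
  simp only [List.forall_mem_cons, List.map_cons, List.map_nil, List.sum_cons, List.sum_nil,
    List.not_mem_nil, false_imp_iff, implies_true, and_true, add_zero]
  refine ⟨?_, ?_, ?_, ?_, ?_, ?_, ?_, ?_, ?_, ?_, ?_, ?_, ?_, ?_, ?_, ?_, ?_, ?_, ?_⟩ <;> linarith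

lemma wt12 : ∀ l ∈ (tms 12).map Tm.idx, p 16 ≤ (l.map p).sum := by
  have e : (tms 12).map Tm.idx = (
      [[2, 2, 2, 1, 4], [2, 2, 3, 4], [2, 2, 1, 1, 0, 4], [2, 3, 1, 0, 4], [3, 3, 0, 4],
      [3, 1, 1, 0, 0, 4], [2, 2, 1, 1, 5], [2, 3, 1, 5], [3, 3, 5], [3, 1, 1, 0, 5],
      [2, 2, 1, 6], [2, 3, 6], [2, 1, 1, 0, 6], [3, 1, 0, 6], [3, 1, 1, 7], [2, 2, 8],
      [2, 1, 0, 8], [3, 0, 8], [1, 1, 0, 0, 8], [2, 1, 1, 9], [3, 1, 9], [2, 1, 10], [3, 11],
      [1, 1, 0, 11], [2, 12], [1, 0, 12], [0, 13], [1, 1, 14], [1, 15]] :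
      List (List (Fin 18))) := by decide
  rw [e]
  obtain
    ⟨g0, g1, g2, g3, g4, g5, g6, g7, g8, g9, g10, g11, g12, g13, g14, g15, g16, g17, g18, g19,
    g20, g21, g22, g23, g24, g25, g26, g27, g28, g29, g30, g31, g32, g33, g34, g35, g36, g37,
    g38⟩ := hw
  have n0 := hn 0
  have n1 := hn 1
  have n2 := hn 2
  have n3 := hn 3
  simp only [List.forall_mem_cons, List.map_cons, List.map_nil, List.sum_cons, List.sum_nil,
    List.not_mem_nil, false_imp_iff, implies_true, and_true, add_zero]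
  refine ⟨?_, ?_, ?_, ?_, ?_, ?_, ?_, ?_, ?_, ?_, ?_, ?_, ?_, ?_, ?_, ?_, ?_, ?_, ?_, ?_, ?_, ?_, ?_, ?_, ?_, ?_, ?_, ?_, ?_⟩ <;> linarith

lemma wt13 : ∀ l ∈ (tms 13).map Tm.idx, p 17 ≤ (l.map p).sum := by
  have e : (tms 13).map Tm.idx = (
      [[2, 2, 2, 2, 4], [2, 2, 3, 0, 4], [3, 3, 0, 0, 4], [2, 2, 3, 5], [3, 3, 0, 5],
      [2, 2, 2, 6], [2, 3, 0, 6], [3, 3, 7], [2, 2, 0, 8], [3, 0, 0, 8], [2, 3, 9], [2, 2, 10],
      [3, 0, 11], [2, 0, 12], [0, 0, 13], [3, 14], [2, 15], [0, 16]] :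
      List (List (Fin 18))) := by decide
  rw [e]
  obtain
    ⟨g0, g1, g2, g3, g4, g5, g6, g7, g8, g9, g10, g11, g12, g13, g14, g15, g16, g17, g18, g19,
    g20, g21, g22, g23, g24, g25, g26, g27, g28, g29, g30, g31, g32, g33, g34, g35, g36, g37,
    g38⟩ := hw
  have n0 := hn 0
  have n1 := hn 1
  have n2 := hn 2
  have n3 := hn 3
  simp only [List.forall_mem_cons, List.map_cons, List.map_nil, List.sum_cons, List.sum_nil,
    List.not_mem_nil, false_imp_iff, implies_true, and_true, add_zero]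
  refine ⟨?_, ?_, ?_, ?_, ?_, ?_, ?_, ?_, ?_, ?_, ?_, ?_, ?_, ?_, ?_, ?_, ?_, ?_⟩ <;> linarith

end

/-- **the legal exponents of the W-chart** -/
theorem legalW_iff {p : Fin 18 → ℝ} : Legal monW p ↔ (∀ k, 0 ≤ p k) ∧ WallsW p := by
  constructor
  · intro h
    exact ⟨h.nonneg, wallsW_of_legal h⟩
  · rintro ⟨hn, hw⟩
    refine legal_ofLists.2 ⟨hn, fun k => ?_⟩
    refine Fin.addCases (m := 4) (n := 14) (fun a => ?_) (fun q => ?_) k
    · rw [mlW_left]
      have w := hw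
      obtain
        ⟨g0, g1, g2, g3, g4, g5, g6, g7, g8, g9, g10, g11, g12, g13, g14, g15, g16, g17, g18,
        g19, g20, g21, g22, g23, g24, g25, g26, g27, g28, g29, g30, g31, g32, g33, g34, g35,
        g36, g37, g38⟩ := w
      have n0 := hn 0
      have n1 := hn 1
      fin_cases a
      · intro l hl; exact absurd hl List.not_mem_nil
      · intro l hl; exact absurd hl List.not_mem_nil
      · intro l hl
        have hl' : l = [1, 0] := by simpa [mh] using hl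
        subst hl'
        change p 2 ≤ _
        simp only [List.map_cons, List.map_nil, List.sum_cons, List.sum_nil, add_zero]
        linarith
      · intro l hl
        have hl' : l = [1, 2] ∨ l = [1, 1, 0] := by simpa [mh] using hl
        change p 3 ≤ _
        rcases hl' with rfl | rfl
        · simp only [List.map_cons, List.map_nil, List.sum_cons, List.sum_nil, add_zero]
          linarith
        · simp only [List.map_cons, List.map_nil, List.sum_cons, List.sum_nil, add_zero]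
          linarith
    · rw [mlW_right]
      fin_cases q
      · exact wt0
      · exact wt1 hn hw
      · exact wt2 hn hw
      · exact wt3 hn hw
      · exact wt4 hn hw
      · exact wt5 hn hw
      · exact wt6 hn hw
      · exact wt7 hn hw
      · exact wt8 hn hw
      · exact wt9 hn hw
      · exact wt10 hn hw
      · exact wt11 hn hw
      · exact wt12 hn hw
      · exact wt13 hn hw

end Crest.Agent.R136.NetW191
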