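import Crest.Agent.R136.Net4_186
import Crest.Agent.R136.NetW4_191
import Crest.Agent.R136.Lq1_196

/-!
# R136: chart-free half of the wrappers J2 → `PreQ` (helper464)

* `chart_scl` : change of units of a triangular chart; `chart_gr` : graded enlargement by powers of `d`.
* `gD_of` : the field `gD` of `PreQ` (D-max count of a chart box) from one admissible test set per
  cell of a rational level.
-/

set_option autoImplicit false
set_option linter.unusedVariables false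

open Finset Filter Topology

namespace Crest.Agent.R136.PqG464

open Crest.Agent.R138.Ex926 (Base U QProf)
open Crest.Agent.R138.Mk163 (zc zl rho alive)
open Crest.Agent.R138.MkRef627 (lc kc)
open Crest.Agent.R138
open Crest.Agent.R136.MkA627
open Crest.Agent.R136.Net191

/-! ### units -/

section units

variable {m : ℕ} {ι : Type*} {I : Finset ι} {co : ι → ι → Fin m → ℝ} {M : Mons m} {C : ℝ}

/-- **change of units** -/
theorem chart_scl (h : Chart I co M C) {sc : Fin m → ℝ} (hs : ∀ k, 0 < sc k)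
    (hm : ∀ k, ∀ e ∈ M.mon k, sc k ≤ ∏ s, sc s ^ e s) :
    Chart I (fun i j k => sc k * co i j k) M C where
  C0 := h.C0
  refl := fun i hi k => by rw [h.refl i hi k, mul_zero]
  add := by
    intro i hi j hj l hl k
    have h1 := h.add i hi j hj l hl k
    have e1 : sc k * co i l k - sc k * co i j k - sc k * co j l k =
        sc k * (co i l k - co i j k - co j l k) := by ring
    rw [e1, abs_mul, abs_of_pos (hs k)]
    refine (mul_le_mul_of_nonneg_left h1 (hs k).le).trans ?_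
    rw [← mul_assoc, mul_comm (sc k) C, mul_assoc, Finset.mul_sum]
    refine mul_le_mul_of_nonneg_left (Finset.sum_le_sum fun e he => ?_) h.C0
    have e2 : ∀ s, (max |sc s * co i j s| |sc s * co j l s|) ^ e s =
        sc s ^ e s * (max |co i j s| |co j l s|) ^ e s := by
      intro s
      rw [abs_mul, abs_mul, abs_of_pos (hs s), ← mul_max_of_nonneg _ _ (hs s).le, mul_pow]
    simp only [e2]
    rw [Finset.prod_mul_distrib]
    exact mul_le_mul_of_nonneg_right (hm k e he)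
      (Finset.prod_nonneg fun s _ => pow_nonneg ((abs_nonneg _).trans (le_max_left _ _)) _)

/-- a grading of the monomials -/
def Grd (M : Mons m) (wt : Fin m → ℕ) : Prop := ∀ k, ∀ e ∈ M.mon k, ∑ s, e s * wt s = wt k

/-- **graded enlargement of the units** -/
theorem chart_gr (h : Chart I co M C) {wt : Fin m → ℕ} (hw : Grd M wt) {lam : ℝ} (hl : 0 < lam) :
    Chart I (fun i j k => lam ^ wt k * co i j k) M C := by
  refine chart_scl h (fun k => pow_pos hl _) fun k e he => le_of_eq ?_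
  rw [← hw k e he, ← Finset.prod_pow_eq_pow_sum]
  refine Finset.prod_congr rfl fun s _ => ?_
  rw [← pow_mul, mul_comm]

end units

/-- grading of the `Q`-chart -/
def wtQ : Fin 11 → ℕ := ![1, 2, 1, 1, 2, 1, 2, 3, 2, 3, 4]

theorem grdQ : Grd NetQ186.monQ wtQ := by
  unfold Grd
  decide

/-- grading of the W-chart -/
def wtW : Fin 18 → ℕ := ![1, 1, 2, 3, 1, 2, 3, 3, 4, 4, 5, 5, 6, 7, 6, 7, 8, 9]

theorem wtW_list : ∀ k, ∀ l ∈ NetW191.mlW k, (l.map wtW).sum = wtW k := by decide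

theorem grdW : Grd NetW191.monW wtW := by
  intro k e he
  obtain ⟨l, hl, rfl⟩ := List.mem_map.1 (List.mem_toFinset.1 he)
  rw [← wtW_list k l hl, Finset.sum_list_map_count]
  simp only [smul_eq_mul]
  symm
  refine Finset.sum_subset (Finset.subset_univ _) fun s _ hs => ?_
  rw [List.count_eq_zero.2 (fun h => hs (List.mem_toFinset.2 h)), zero_mul]

/-- the W-chart in units `sc`, enlarged by `lam` -/
theorem chartW_gr {ι : Type*} (I : Finset ι) (f : ι → NetW191.FW) {κ : ℝ} (hκ : |κ| ≤ 1) {lam : ℝ}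
    (hl : 0 < lam) :
    Chart I (fun i j k => lam ^ wtW k * NetW191.coW κ (f i) (f j) k) NetW191.monW 67 :=
  chart_gr (NetW191.chartW I f hκ) grdW hl

/-! ### the scale of a level -/

section gD

variable {σ κ : Type*} {B : Base} {I : ℕ → Finset (ℕ × ℝ)} {G : Geo σ κ} {lev : ℕ → ℚ → ℕ}
    {A : ℕ → ℝ} {g s : ℝ} {τ : κ → ℝ → ℝ} {f : ℕ → ℚ → ℕ → ℤ → ℕ} {b : ℕ → ℚ → ℕ → σ}
    {vm : ℕ → ℚ → ℝ} {w : κ → ℕ → ℚ → ℝ} {m : ℕ}

theorem pow_lev (h : MkA B I G lev A (fun v => g * v) (fun v => s * v) τ f b vm w) (u : ℚ)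
    (hu0 : 0 ≤ u) (hu1 : u ≤ 1) {δ : ℝ} (hδ : 0 < δ) : ∀ᶠ n in (U : Filter ℕ),
      (2 : ℝ) ^ lev n u ≤ (2 : ℝ) ^ lev n 0 * B.d n ^ (-((u : ℝ) + δ)) ∧
      (2 : ℝ) ^ lev n 0 * B.d n ^ (-((u : ℝ) - δ)) ≤ (2 : ℝ) ^ lev n u := by
  have h1 := h.lev_lim 0 u le_rfl hu0 hu1
  have h2 := (Metric.tendsto_nhds.1 h1) δ hδ
  filter_upwards [h2] with n hn
  rw [Real.dist_eq, Rat.cast_zero, sub_zero, abs_lt] at hn
  have hL := B.L_pos n
  have key : ∀ y : ℝ, B.d n ^ (-y) = Real.exp (y * B.L n) := by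
    intro y
    rw [Real.rpow_def_of_pos (B.pos n)]
    congr 1
    unfold Base.L
    ring
  have e1 : (2 : ℝ) ^ lev n u = (2 : ℝ) ^ lev n 0 *
      Real.exp (((lev n u : ℝ) - lev n 0) * Real.log 2) := by
    have e2 : ∀ k : ℕ, (2 : ℝ) ^ k = Real.exp ((k : ℝ) * Real.log 2) := by
      intro k
      rw [← Real.rpow_natCast, Real.rpow_def_of_pos (by norm_num : (0 : ℝ) < 2), mul_comm]
    rw [e2, e2, ← Real.exp_add]
    congr 1; ring
  have h3 : ((lev n u : ℝ) - lev n 0) * Real.log 2 ≤ ((u : ℝ) + δ) * B.L n := by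
    have : ((lev n u : ℝ) - lev n 0) * Real.log 2 / B.L n ≤ (u : ℝ) + δ := by linarith
    rwa [div_le_iff₀ hL] at this
  have h4 : ((u : ℝ) - δ) * B.L n ≤ ((lev n u : ℝ) - lev n 0) * Real.log 2 := by
    have : (u : ℝ) - δ ≤ ((lev n u : ℝ) - lev n 0) * Real.log 2 / B.L n := by linarith
    rwa [le_div_iff₀ hL] at this
  have p0 : (0 : ℝ) < (2 : ℝ) ^ lev n 0 := by positivity
  rw [e1, key, key]
  exact ⟨mul_le_mul_of_nonneg_left (Real.exp_le_exp.2 h3) p0.le,
    mul_le_mul_of_nonneg_left (Real.exp_le_exp.2 h4) p0.le⟩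

/-- cells of two near heights -/
theorem zc_near {i : ℕ} {z z' : ℝ} (h : |z' - z| * 2 ^ i ≤ 1) :
    zc i z' ∈ Finset.Icc (zc i z - 1) (zc i z + 1) := by
  have h2 : |(2 : ℝ) ^ i * z' - 2 ^ i * z| ≤ 1 := by
    rw [← mul_sub, abs_mul, abs_of_pos (by positivity : (0 : ℝ) < 2 ^ i), mul_comm]
    exact h
  rw [abs_le] at h2
  rw [Finset.mem_Icc]
  unfold zc
  constructor
  · rw [Int.le_floor]
    have := Int.floor_le ((2 : ℝ) ^ i * z)
    push_cast
    linarith
  · rw [← Int.floor_add_one]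
    exact Int.floor_le_floor (by linarith)

/-- eventually a subpolynomial constant is absorbed -/
theorem ev_const (B : Base) {c ε : ℝ} (hc : 0 < c) (hε : 0 < ε) :
    ∀ᶠ n in (U : Filter ℕ), c * B.d n ^ ε ≤ 1 := by
  filter_upwards [B.ev_L_ge (Real.log c / ε)] with n hn
  have h1 : B.d n ^ ε = Real.exp (-(ε * B.L n)) := by
    rw [Real.rpow_def_of_pos (B.pos n)]
    congr 1
    unfold Base.L
    ring
  rw [div_le_iff₀ hε] at hn
  rw [h1]
  nth_rewrite 1 [← Real.exp_log hc]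
  rw [← Real.exp_add]
  exact Real.exp_le_one_iff.2 (by nlinarith)

/-- **geometric hypothesis of GEO-D** at the exponent `p`: for some rational level `u` at or
slightly above the length of the box, the part of the box over each cell `J` of level `u` lies in one
admissible test set of size `≤ V d^(F - ε)`. -/
def BoxIn (B : Base) (I : ℕ → Finset (ℕ × ℝ)) (G : Geo σ κ) (lev : ℕ → ℚ → ℕ)
    (co : ∀ n : ℕ, ℕ × ℝ → ℕ × ℝ → Fin m → ℝ) (kz : Fin m) (w0 : ℝ) (V : ℕ → ℝ)
    (p : Fin m → ℝ) (F : ℝ) : Prop :=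
  ∀ K : ℝ, 1 ≤ K → ∀ ε : ℝ, 0 < ε → ∃ u : ℚ, 0 ≤ u ∧ u ≤ 1 ∧ p kz - w0 - ε ≤ u ∧
    ((u : ℝ) < p kz - w0 ∨ (u = 0 ∧ p kz - w0 ≤ 0)) ∧
    ∀ᶠ n in (U : Filter ℕ), ∀ x ∈ I n, ∀ J : ℤ, ∃ t : σ, G.adm n (lev n u) J t ∧
      G.val n (lev n u) J t ≤ V n * B.d n ^ (F - ε) ∧
      ∀ y ∈ I n, Near (co n) (B.d n) p K x y → zc (lev n u) y.2 = J → G.mem n (lev n u) J t y.1

open Classical in
/-- **the field `gD` of `PreQ`.** -/
theorem gD_of (hM : MkA B I G lev A (fun v => g * v) (fun v => s * v) τ f b vm w)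
    {co : ∀ n : ℕ, ℕ × ℝ → ℕ × ℝ → Fin m → ℝ} {kz : Fin m} {w0 : ℝ}
    (zco : ∀ n, ∀ x ∈ I n, ∀ y ∈ I n,
      co n x y kz = B.d n ^ w0 * ((y.2 - x.2) * 2 ^ (lev n 0)))
    {V : ℕ → ℝ} (hV : ∀ᶠ n in (U : Filter ℕ), 0 < V n) {p : Fin m → ℝ} {F : ℝ}
    (hB : BoxIn B I G lev co kz w0 V p F) {D : ℝ}
    (hD : D = (g - (1 - s)) * max (p kz - w0) 0 - F) :
    ∀ K : ℝ, 1 ≤ K → ∀ ε : ℝ, 0 < ε → ∀ᶠ n in (U : Filter ℕ), ∀ x ∈ I n,
      (((I n).filter fun y => Near (co n) (B.d n) p K x y).card : ℝ) ≤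
        (A n * V n * B.d n ^ (-(1 - s))) * B.d n ^ (-(D + ε)) := by
  intro K hK ε hε
  set c0 : ℝ := |g - (1 - s)| + 1 with hc0
  have hc0p : 0 < c0 := by positivity
  set ε1 : ℝ := ε / (8 * c0) with hε1
  have hε1p : 0 < ε1 := by positivity
  have hε1c : c0 * ε1 = ε / 8 := by rw [hε1]; field_simp
  have hε1le : ε1 ≤ ε / 8 := by
    have : ε1 * 1 ≤ ε1 * c0 := mul_le_mul_of_nonneg_left (by rw [hc0]; linarith [abs_nonneg (g - (1 - s))]) hε1p.le
    linarith [mul_comm ε1 c0]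
  obtain ⟨u, hu0, hu1, hup, hor, hbox⟩ := hB K hK ε1 hε1p
  have hu0' : (0 : ℝ) ≤ (u : ℝ) := by exact_mod_cast hu0
  -- heights
  have hcell : ∀ᶠ n in (U : Filter ℕ), ∀ x ∈ I n, ∀ y ∈ I n, Near (co n) (B.d n) p K x y →
      zc (lev n u) y.2 ∈ Finset.Icc (zc (lev n u) x.2 - 1) (zc (lev n u) x.2 + 1) := by
    rcases hor with hlt | ⟨h0, -⟩
    · set δ : ℝ := (p kz - w0 - u) / 2 with hδ
      have hδp : 0 < δ := by rw [hδ]; linarith
      filter_upwards [pow_lev hM u hu0 hu1 hδp, ev_const B (lt_of_lt_of_le one_pos hK) hδp]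
        with n h1 h2 x hx y hy hn
      apply zc_near
      have h3 := hn kz
      rw [zco n x hx y hy, abs_mul, abs_of_pos (Dp76.dpow_pos B n w0), abs_mul,
        abs_of_pos (by positivity : (0 : ℝ) < 2 ^ lev n 0)] at h3
      have h4 : |y.2 - x.2| * 2 ^ lev n 0 ≤ K * B.d n ^ (p kz - w0) := by
        have e : B.d n ^ (p kz) = B.d n ^ w0 * B.d n ^ (p kz - w0) := by
          rw [← Dp76.dpow_add]; congr 1; ring
        rw [e] at h3
        have hp := Dp76.dpow_pos B n w0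
        have : B.d n ^ w0 * (|y.2 - x.2| * 2 ^ lev n 0) ≤
            B.d n ^ w0 * (K * B.d n ^ (p kz - w0)) := by linarith
        exact le_of_mul_le_mul_left this hp
      calc |y.2 - x.2| * 2 ^ lev n u
          ≤ |y.2 - x.2| * ((2 : ℝ) ^ lev n 0 * B.d n ^ (-((u : ℝ) + δ))) :=
            mul_le_mul_of_nonneg_left h1.1 (abs_nonneg _)
        _ = (|y.2 - x.2| * 2 ^ lev n 0) * B.d n ^ (-((u : ℝ) + δ)) := by ring
        _ ≤ (K * B.d n ^ (p kz - w0)) * B.d n ^ (-((u : ℝ) + δ)) :=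
            mul_le_mul_of_nonneg_right h4 (Dp76.dpow_pos B n _).le
        _ = K * B.d n ^ δ := by
            rw [mul_assoc, ← Dp76.dpow_add]
            congr 2
            rw [hδ]; ring
        _ ≤ 1 := h2
    · filter_upwards [hM.cell0] with n hn x hx y hy _
      rw [h0, hn y hy x hx, Finset.mem_Icc]
      constructor <;> linarith
  have hε8 : 0 < ε / 8 := by linarith
  filter_upwards [hcell, hbox, hV, hM.dmax u hu0 hu1 (ε / 8) hε8, fib_bounds hM u hu0 hu1 hε8,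
    ev_const B (by norm_num : (0 : ℝ) < 3) hε8] with n hc hb hVn hdm hfib h3 x hx
  set Q := (I n).filter fun y => Near (co n) (B.d n) p K x y with hQ
  set J0 := zc (lev n u) x.2 with hJ0
  have hdp := fun a => Dp76.dpow_pos B n a
  set T : ℝ := (B.d n ^ (-(ε / 8)) * ampA B A (fun v => g * v) n u *
    (V n * B.d n ^ (F - ε1))) * B.d n ^ (-(1 - (u : ℝ)) + (s * 1 - s * u) - ε / 8) with hT
  have hamp : 0 ≤ ampA B A (fun v => g * v) n u := by
    unfold ampA
    exact mul_nonneg (hM.Apos n).le (hdp _).le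
  -- one cell
  have hone : ∀ J : ℤ, ((Q.filter fun y => zc (lev n u) y.2 = J).card : ℝ) ≤ T := by
    intro J
    obtain ⟨t, ht1, ht2, ht3⟩ := hb x hx J
    have h1 := hdm J t ht1
    have h2 : ((Q.filter fun y => zc (lev n u) y.2 = J).card : ℝ) ≤
        (((alive (I n) (lev n u) J).filter fun l => G.mem n (lev n u) J t l).card : ℝ) *
          B.d n ^ (-(1 - (u : ℝ)) + (s * 1 - s * u) - ε / 8) := by
      have hmaps : ∀ y ∈ Q.filter fun y => zc (lev n u) y.2 = J, y.1 ∈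
          (alive (I n) (lev n u) J).filter fun l => G.mem n (lev n u) J t l := by
        intro y hy
        rw [mem_filter, hQ, mem_filter] at hy
        rw [mem_filter]
        refine ⟨MkRef627.mem_alive.2 ⟨y, hy.1.1, rfl, hy.2⟩, ht3 y hy.1.1 hy.1.2 hy.2⟩
      have h4 := Finset.card_eq_sum_card_fiberwise hmaps
      rw [h4]
      push_cast
      rw [← nsmul_eq_mul, ← Finset.sum_const]
      refine Finset.sum_le_sum fun l hl => ?_
      by_cases hne : ((Q.filter fun y => zc (lev n u) y.2 = J).filter fun y => y.1 = l).Nonempty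
      · obtain ⟨y0, hy0⟩ := hne
        rw [mem_filter, mem_filter, hQ, mem_filter] at hy0
        refine le_trans ?_ (hfib y0 hy0.1.1.1).2
        norm_cast
        refine Finset.card_le_card fun y hy => ?_
        rw [mem_filter, mem_filter, hQ, mem_filter] at hy
        rw [mem_filter]
        refine ⟨hy.1.1.1, ?_⟩
        unfold lc
        rw [hy.2, hy0.2, hy.1.2, hy0.1.2]
      · rw [Finset.not_nonempty_iff_eq_empty] at hne
        rw [hne, Finset.card_empty, Nat.cast_zero]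
        exact (hdp _).le
    refine h2.trans ?_
    rw [hT]
    refine mul_le_mul_of_nonneg_right (h1.trans ?_) (hdp _).le
    exact mul_le_mul_of_nonneg_left ht2 (mul_nonneg (hdp _).le hamp)
  -- three cells
  have hsum : (Q.card : ℝ) ≤ 3 * T := by
    have h5 : Q.card = ∑ J ∈ Finset.Icc (J0 - 1) (J0 + 1), (Q.filter fun y => zc (lev n u) y.2 = J).card := by
      refine Finset.card_eq_sum_card_fiberwise fun y hy => ?_
      have hy' := hy
      rw [hQ, Finset.mem_coe, mem_filter] at hy'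
      exact hc x hx y hy'.1 hy'.2
    rw [h5]
    push_cast
    refine (Finset.sum_le_sum fun J _ => hone J).trans ?_
    rw [Finset.sum_const, Int.card_Icc, nsmul_eq_mul]
    have : ((J0 + 1 + 1 - (J0 - 1)).toNat : ℝ) = 3 := by
      have : J0 + 1 + 1 - (J0 - 1) = 3 := by ring
      rw [this]
      change ((3 : ℕ) : ℝ) = 3
      norm_num
    rw [this]
  refine hsum.trans ?_
  have hmax : |max (p kz - w0) 0 - u| ≤ ε1 := by
    rcases hor with hlt | ⟨h0, h1⟩
    · rw [max_eq_left (by linarith), abs_of_pos (by linarith)]; linarith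
    · rw [max_eq_right h1, h0]; simp [hε1p.le]
  have e1 : 3 * T = 3 * (A n * V n * B.d n ^ (-(ε / 8) + (-(g * u)) + (F - ε1) +
      (-(1 - (u : ℝ)) + (s * 1 - s * u) - ε / 8))) := by
    rw [hT, Dp76.dpow_add, Dp76.dpow_add, Dp76.dpow_add]
    unfold ampA
    ring
  have e2 : (A n * V n * B.d n ^ (-(1 - s))) * B.d n ^ (-(D + ε)) =
      A n * V n * B.d n ^ (-(1 - s) + -(D + ε)) := by
    rw [Dp76.dpow_add B n (-(1 - s))]; ring
  rw [e1, e2]
  have hAV : 0 < A n * V n := mul_pos (hM.Apos n) hVn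
  have h6 : |(g - (1 - s)) * (max (p kz - w0) 0 - u)| ≤ ε / 8 := by
    rw [abs_mul]
    have : |g - (1 - s)| * |max (p kz - w0) 0 - u| ≤ c0 * ε1 :=
      mul_le_mul (by rw [hc0]; linarith) hmax (abs_nonneg _) hc0p.le
    linarith
  rw [abs_le] at h6
  have h7 : B.d n ^ (-(ε / 8) + (-(g * u)) + (F - ε1) +
      (-(1 - (u : ℝ)) + (s * 1 - s * u) - ε / 8)) ≤
      B.d n ^ (ε / 8) * B.d n ^ (-(1 - s) + -(D + ε)) := by
    rw [← Dp76.dpow_add]
    refine Dp76.dpow_le B n ?_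
    rw [hD]
    nlinarith [h6.1, h6.2]
  calc 3 * (A n * V n * B.d n ^ (-(ε / 8) + (-(g * u)) + (F - ε1) +
      (-(1 - (u : ℝ)) + (s * 1 - s * u) - ε / 8)))
      ≤ 3 * (A n * V n * (B.d n ^ (ε / 8) * B.d n ^ (-(1 - s) + -(D + ε)))) := by
        refine mul_le_mul_of_nonneg_left (mul_le_mul_of_nonneg_left h7 hAV.le) (by norm_num)
    _ = (3 * B.d n ^ (ε / 8)) * (A n * V n * B.d n ^ (-(1 - s) + -(D + ε))) := by ring
    _ ≤ 1 * (A n * V n * B.d n ^ (-(1 - s) + -(D + ε))) :=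
        mul_le_mul_of_nonneg_right h3 (mul_pos hAV (hdp _)).le
    _ = _ := one_mul _

end gD

end Crest.Agent.R136.PqG464
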