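import Crest.Agent.R136.Qg3_926

/-!
# R136: pruned sets of incidences are models (helper926), part 3b

`Pruned.rmodel` : the configurations of a pruned set of incidences form 356's `RModel` with profile
`ν' p = lam (cut S p top) - lam top`.
-/

set_option autoImplicit false
set_option linter.unusedSectionVars false
set_option linter.unusedVariables false

open Filter Topology

namespace Crest.Agent.R136.Qg926

open Finset Crest.Agent.R138.Ex926 Crest.Agent.R136.Net191 Crest.Agent.R136.Gf356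

variable {m : ℕ} {ι : ℕ → Type*} [∀ n, DecidableEq (ι n)]

namespace Wnd

variable {W : Wnd m ι}

/-- legal exponents of the line slots -/
def legW (W : Wnd m ι) : Set (Fin m → ℝ) :=
  {p | cut W.S p W.top ∈ Leg W.Mw W.R' ∧ ∀ s, s ∉ W.S → p s ≤ W.top s}

/-- the profile of the window -/
noncomputable def nu (W : Wnd m ι) (p : Fin m → ℝ) : ℝ := W.lam (cut W.S p W.top) - W.lam W.top

/-- sum of the weights -/
noncomputable def W0 (W : Wnd m ι) : ℝ := ∑ s, wg W.Mw s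

theorem wg_le_W0 (W : Wnd m ι) (s : Fin m) : wg W.Mw s ≤ W.W0 :=
  single_le_sum (f := wg W.Mw) (fun k _ => by linarith [wg_one W.Mw k]) (mem_univ s)

theorem W0_one (W : Wnd m ι) : 1 ≤ W.W0 := (wg_one W.Mw W.kz).trans (wg_le_W0 W W.kz)

/-- the loss constant -/
noncomputable def Dc (W : Wnd m ι) : ℝ := (m + 1) * W.W0 + 4

theorem Dc_one (W : Wnd m ι) : 1 ≤ W.Dc := by
  unfold Dc
  have := W0_one W
  have : (0 : ℝ) ≤ m := Nat.cast_nonneg m
  nlinarith

/-- a bound for the normalising constants and `K0` -/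
noncomputable def K2 (W : Wnd m ι) : ℝ := W.K0 + ∑ s, |W.kap s|

theorem kap_le_K2 (h : W.Ok) (s : Fin m) : W.kap s ≤ W.K2 := by
  have h1 : |W.kap s| ≤ ∑ s, |W.kap s| :=
    single_le_sum (f := fun s => |W.kap s|) (fun k _ => abs_nonneg _) (mem_univ s)
  have := h.K0_one
  have := le_abs_self (W.kap s)
  unfold K2; linarith

theorem K0_le_K2 (W : Wnd m ι) : W.K0 ≤ W.K2 := by
  have : 0 ≤ ∑ s, |W.kap s| := sum_nonneg fun k _ => abs_nonneg _
  unfold K2; linarith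

theorem K2_one (h : W.Ok) : 1 ≤ W.K2 := h.K0_one.trans (K0_le_K2 W)

section Finite

variable {n : ℕ}

theorem abs_crd (h : W.Ok) (x y : ι n) (s : Fin m) :
    |W.crd n x y s| = |W.co n x y s| / (W.kap s * W.B.d n ^ W.X n s) := by
  have h1 : 0 < W.kap s * W.B.d n ^ W.X n s :=
    mul_pos (h.kap s) (Real.rpow_pos_of_pos (W.B.pos n) _)
  unfold crd
  rw [abs_div, abs_of_pos h1]

theorem crd_le_iff (h : W.Ok) (x y : ι n) (s : Fin m) (t : ℝ) :
    |W.crd n x y s| ≤ t ↔ |W.co n x y s| ≤ W.kap s * t * W.B.d n ^ W.X n s := by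
  have h1 : 0 < W.kap s * W.B.d n ^ W.X n s :=
    mul_pos (h.kap s) (Real.rpow_pos_of_pos (W.B.pos n) _)
  rw [abs_crd h, div_le_iff₀ h1]
  constructor <;> intro h2 <;> linarith

/-- from a loose box to a legal box -/
theorem bx_of_loose (h : W.Ok) (g : W.Good n) {q : Fin m → ℝ} (hqS : ∀ s ∈ W.S, q s ≤ W.top s)
    {ε : ℝ} (hε : 0 < ε) {x y : ι n}
    (hx : x ∈ W.Cl n) (hy : y ∈ W.Cl n) (hz : W.zc n x = W.zc n y)
    (hl : ∀ s, s ∉ W.S → |W.crd n x y s| ≤ W.B'.d n ^ (q s - ε)) :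
    W.bx n (lowp W.Mw ε q) W.K2 x y := by
  intro s
  have hX : 0 < W.B.d n ^ W.X n s := Real.rpow_pos_of_pos (W.B.pos n) _
  have hd := W.B'.pos n
  have hd1 := (W.B'.lt n).le
  rcases le_total (q s - wg W.Mw s * ε) 0 with h0 | h0
  · have e1 : lowp W.Mw ε q s = 0 := max_eq_right h0
    rw [e1]
    have := h.near0 g hx hy s
    exact this.trans (mul_le_mul_of_nonneg_right (K0_le_K2 W) (side_pos W n 0 s).le)
  · have e1 : lowp W.Mw ε q s = q s - wg W.Mw s * ε := max_eq_left h0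
    rw [e1]
    have hwg := wg_one W.Mw s
    by_cases hs : s ∈ W.S
    · have h1 := h.near_zc g hx hy hz s
      rw [cut_of_mem hs] at h1
      refine h1.trans ?_
      have h2 : W.B'.d n ^ W.top s ≤ W.B'.d n ^ (q s - wg W.Mw s * ε) :=
        Real.rpow_le_rpow_of_exponent_ge hd hd1 (by have := hqS s hs; nlinarith)
      have := K0_le_K2 W
      have hK := h.K0_one
      calc W.K0 * (W.B.d n ^ W.X n s * W.B'.d n ^ W.top s)
          ≤ W.K0 * (W.B.d n ^ W.X n s * W.B'.d n ^ (q s - wg W.Mw s * ε)) := by gcongr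
        _ ≤ _ := by gcongr
    · have h1 := (crd_le_iff h x y s _).1 (hl s hs)
      refine h1.trans ?_
      have h2 : W.B'.d n ^ (q s - ε) ≤ W.B'.d n ^ (q s - wg W.Mw s * ε) :=
        Real.rpow_le_rpow_of_exponent_ge hd hd1 (by nlinarith)
      have h3 := kap_le_K2 h s
      have h4 := h.kap s
      have h5 : 0 ≤ W.K2 := by linarith [K2_one h]
      calc W.kap s * W.B'.d n ^ (q s - ε) * W.B.d n ^ W.X n s
          ≤ W.K2 * W.B'.d n ^ (q s - wg W.Mw s * ε) * W.B.d n ^ W.X n s := by gcongr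
        _ = _ := by ring

/-- from a legal box to a loose box -/
theorem loose_of_bx (h : W.Ok) {q : Fin m → ℝ} {ε K : ℝ} (hε : 0 < ε) {x y : ι n}
    (hb : W.bx n (lowp W.Mw ε q) K x y) (hK0 : 0 ≤ K) (s : Fin m)
    (hK : K ≤ W.kap s * W.B'.d n ^ (-ε)) {D : ℝ} (hD : wg W.Mw s + 1 ≤ D) :
    |W.crd n x y s| ≤ W.B'.d n ^ (q s - D * ε) := by
  rw [crd_le_iff h]
  refine (hb s).trans ?_
  have hX : 0 < W.B.d n ^ W.X n s := Real.rpow_pos_of_pos (W.B.pos n) _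
  have hd := W.B'.pos n
  have hd1 := (W.B'.lt n).le
  have hk := h.kap s
  have h1 : W.B'.d n ^ lowp W.Mw ε q s ≤ W.B'.d n ^ (q s - wg W.Mw s * ε) :=
    Real.rpow_le_rpow_of_exponent_ge hd hd1 (le_max_left _ _)
  have h2 : W.B'.d n ^ (-ε) * W.B'.d n ^ (q s - wg W.Mw s * ε) ≤ W.B'.d n ^ (q s - D * ε) := by
    rw [← Real.rpow_add hd]
    exact Real.rpow_le_rpow_of_exponent_ge hd hd1 (by nlinarith)
  have hp := Real.rpow_pos_of_pos hd (q s - wg W.Mw s * ε)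
  calc K * (W.B.d n ^ W.X n s * W.B'.d n ^ lowp W.Mw ε q s)
      ≤ (W.kap s * W.B'.d n ^ (-ε)) * (W.B.d n ^ W.X n s *
        W.B'.d n ^ (q s - wg W.Mw s * ε)) := by gcongr
    _ = W.kap s * (W.B'.d n ^ (-ε) * W.B'.d n ^ (q s - wg W.Mw s * ε)) * W.B.d n ^ W.X n s := by
        ring
    _ ≤ _ := by gcongr

/-- from a box at exponents `q` to a loose box -/
theorem loose_of_bx' (h : W.Ok) {q : Fin m → ℝ} {ε K : ℝ} {x y : ι n}
    (hb : W.bx n q K x y) (s : Fin m)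
    (hK : K ≤ W.kap s * W.B'.d n ^ (-ε)) : |W.crd n x y s| ≤ W.B'.d n ^ (q s - ε) := by
  rw [crd_le_iff h]
  refine (hb s).trans ?_
  have hX : 0 < W.B.d n ^ W.X n s := Real.rpow_pos_of_pos (W.B.pos n) _
  have hd := W.B'.pos n
  have hp := Real.rpow_pos_of_pos hd (q s)
  have e1 : W.B'.d n ^ (q s - ε) = W.B'.d n ^ (-ε) * W.B'.d n ^ q s := by
    rw [← Real.rpow_add hd]; congr 1; ring
  rw [e1]
  calc K * (W.B.d n ^ W.X n s * W.B'.d n ^ q s)
      ≤ (W.kap s * W.B'.d n ^ (-ε)) * (W.B.d n ^ W.X n s * W.B'.d n ^ q s) := by gcongr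
    _ = _ := by ring

/-- membership in the configuration -/
theorem mem_I {E : Finset (ι n)} {l k : ℕ} :
    (l, k) ∈ (W.cfg0 n E).I ↔ ∃ x ∈ E, W.lc n x = l ∧ W.zc n x = k := by
  unfold cfg0
  simp only [mem_image, Prod.mk.injEq]

theorem cfg_eq {E : ∀ n, Finset (ι n)} (h1 : E n ⊆ W.Cl n) (h2 : W.Cl n ⊆ W.I n)
    (h3 : (E n).Nonempty) : W.cfg E n = W.cfg0 n (E n) := by
  unfold cfg
  rw [if_pos ⟨h1, h2, h3⟩]

end Finite

theorem cfg_ρ (E : ∀ n, Finset (ι n)) (n : ℕ) : (W.cfg E n).ρ = W.B'.d n := by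
  unfold cfg; split_ifs <;> rfl

theorem cfg_sub (E : ∀ n, Finset (ι n)) (n : ℕ) :
    (W.cfg E n).I ⊆ (W.cfg E n).L ×ˢ (W.cfg E n).Z := by
  unfold cfg
  split_ifs
  · intro p hp
    obtain ⟨l, k⟩ := p
    obtain ⟨x, hx, rfl, rfl⟩ := mem_I.1 hp
    exact mem_product.2 ⟨mem_image_of_mem _ hx, mem_image_of_mem _ hx⟩
  · simp [dummy]

theorem cfg_nonempty (E : ∀ n, Finset (ι n)) (n : ℕ) : (W.cfg E n).I.Nonempty := by
  unfold cfg
  split_ifs with hc
  · exact hc.2.2.image _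
  · simp [dummy]

theorem cfg_refl (h : W.Ok) (E : ∀ n, Finset (ι n)) (n k i : ℕ) (hi : (i, k) ∈ (W.cfg E n).I)
    (j : Fin m) : (W.cfg E n).rel k i i j = 0 := by
  unfold cfg at hi ⊢
  split_ifs with hc
  · rw [if_pos hc] at hi
    obtain ⟨x, hx, rfl, rfl⟩ := mem_I.1 hi
    have h1 := hc.2.1 (W.rep_spec (hc.1 hx)).1
    show (if j ∈ W.S then (0 : ℝ) else W.crd n _ _ j) = 0
    split_ifs
    · rfl
    · unfold crd
      rw [(h.cls.chart n).refl _ h1 j, zero_div]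
  · rfl

/-- a bound for a finite vector of constants -/
theorem ev_kap (h : W.Ok) (K : ℝ) {ε : ℝ} (hε : 0 < ε) :
    ∀ᶠ n in (U : Filter ℕ), ∀ s, K ≤ W.kap s * W.B'.d n ^ (-ε) := by
  rw [Filter.eventually_all]
  intro s
  have hk := h.kap s
  filter_upwards [Crest.Agent.R136.Gf356.ev_const_le W.B' hε (K / W.kap s)] with n hn
  rw [div_le_iff₀ hk] at hn
  linarith

section Model

variable {E E' : ∀ n, Finset (ι n)} {Mu g : ℕ → ℝ} {ex : ℕ → ∀ n, ι n → ℕ}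

/-- good `n` for a pruned set -/
theorem ev_cfg (h : W.Ok) (hE : EOk W E Mu) (hP : Pruned W E E' g ex) :
    ∀ᶠ n in (U : Filter ℕ), W.Good n ∧ E n ⊆ W.Cl n ∧ (E' n).Nonempty ∧
      W.cfg E' n = W.cfg0 n (E' n) := by
  filter_upwards [h.ev_good, hE.sub, hE.big 1 one_pos] with n g1 h1 h2
  have h3 : (0 : ℝ) < (E n).card :=
    lt_of_lt_of_le (mul_pos (hE.pos n) (Real.rpow_pos_of_pos (W.B'.pos n) _)) h2
  have h4 := hP.half n
  have h5 : (E' n).Nonempty := by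
    rw [← card_pos]
    have : (0 : ℝ) < (E' n).card := by linarith
    exact_mod_cast this
  exact ⟨g1, h1, h5, cfg_eq ((hP.sub n).trans h1) g1.clI h5⟩

theorem q_le_top {p : Fin m → ℝ} (hp : p ∈ W.legW) : cut W.S p W.top ≤ W.top := by
  conv_rhs => rw [← cut_self W.S W.top]
  exact cut_mono hp.2 (fun _ _ => le_rfl)

theorem lev_le_q (h : W.Ok) {p : Fin m → ℝ} (hp : p ∈ W.legW) :
    cut W.S 0 W.top ≤ cut W.S p W.top := by
  refine cut_mono (fun s hs => ?_) (fun _ _ => le_rfl)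
  have := hp.1.1.nonneg s
  rwa [cut_of_notMem hs] at this

theorem cfg0_slice {n : ℕ} {E : Finset (ι n)} {l k : ℕ} :
    l ∈ (W.cfg0 n E).slice k ↔ ∃ x ∈ E, W.lc n x = l ∧ W.zc n x = k := by
  rw [RCfg.mem_slice, mem_I]
  constructor
  · exact fun hx => hx.2
  · rintro ⟨x, hx, h1, h2⟩
    exact ⟨mem_image.2 ⟨x, hx, h1⟩, x, hx, h1, h2⟩

theorem cfg0_hts {n : ℕ} {E : Finset (ι n)} {l k : ℕ} :
    k ∈ (W.cfg0 n E).hts l ↔ ∃ x ∈ E, W.lc n x = l ∧ W.zc n x = k := by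
  rw [RCfg.mem_hts, mem_I]
  constructor
  · exact fun hx => hx.2
  · rintro ⟨x, hx, h1, h2⟩
    exact ⟨mem_image.2 ⟨x, hx, h2⟩, x, hx, h1, h2⟩

/-- multiplicities: number of codes in a set with one of the two codes fixed -/
theorem card_le_mult {n : ℕ} {A : Finset (ι n)} {Mm : ℝ}
    (hA : ∀ i ∈ A, ((R138.Ex926.cls A (W.pc n) i).card : ℝ) ≤ Mm) (f : ι n → ℕ)
    (hf : ∀ i ∈ A, ∀ j ∈ A, f i = f j → W.pc n i = W.pc n j) :
    (A.card : ℝ) ≤ Mm * (A.image f).card := by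
  have h1 := le_count_mul A (fun _ => (1 : ℝ)) f (m := Mm) (fun i hi => by
    rw [sum_const, nsmul_eq_mul, mul_one]
    refine le_trans ?_ (hA i hi)
    refine Nat.cast_le.2 (card_le_card fun j hj => ?_)
    obtain ⟨h2, h3⟩ := mem_cls.1 hj
    exact mem_cls.2 ⟨h2, hf j h2 i hi h3⟩)
  rwa [sum_const, nsmul_eq_mul, mul_one] at h1

/-- **heights of a surviving line, from below** -/
theorem ev_hts (h : W.Ok) (hE : EOk W E Mu) (hP : Pruned W E E' g ex)
    (hdens : W.lam W.top ≤ W.lam (cut W.S W.top 0) + W.lam (cut W.S 0 W.top)) {ε : ℝ}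
    (hε : 0 < ε) : ∀ᶠ n in (U : Filter ℕ), ∀ l ∈ (W.cfg0 n (E' n)).L,
      W.B'.d n ^ (W.lam (cut W.S 0 W.top) + ε) ≤ (((W.cfg0 n (E' n)).hts l).card : ℝ) := by
  have hε4 : 0 < ε / 4 := by positivity
  filter_upwards [ev_cfg h hE hP, h.card_lc_le hε4, hE.mult _ hε4, hE.big _ hε4,
    hP.gsub _ hε4] with n ⟨hg, hsub, hne, _⟩ h1 h2 h3 h4 l hl
  have hpos : ∀ t : ℝ, 0 < W.B'.d n ^ t := fun t => Real.rpow_pos_of_pos (W.B'.pos n) t
  obtain ⟨x, hx, rfl⟩ := mem_image.1 hl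
  set A := R138.Ex926.cls (E' n) (W.lc n) x with hA
  have hAE : A ⊆ E n := (cls_subset _ _ _).trans (hP.sub n)
  have c1 : (A.card : ℝ) ≤ Mu n * W.B'.d n ^ (-(ε / 4)) * (A.image (W.zc n)).card := by
    refine card_le_mult (W := W) (fun i hi => ?_) _ (fun i hi j hj he => ?_)
    · refine le_trans ?_ (h2 i (hAE hi))
      exact_mod_cast card_le_card (cls_mono hAE _ _)
    · have e1 := (mem_cls.1 hi).2.trans (mem_cls.1 hj).2.symm
      unfold pc
      rw [e1, he]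
  have c2 : (A.image (W.zc n)).card ≤ ((W.cfg0 n (E' n)).hts (W.lc n x)).card := by
    refine card_le_card fun k hk => ?_
    obtain ⟨y, hy, rfl⟩ := mem_image.1 hk
    obtain ⟨hy1, hy2⟩ := mem_cls.1 hy
    exact cfg0_hts.2 ⟨y, hy1, hy2, rfl⟩
  have c3 := hP.lines n x hx
  have c4 := h1 (E n) hsub
  set H : ℝ := (((W.cfg0 n (E' n)).hts (W.lc n x)).card : ℝ) with hH
  have hH0 : 0 ≤ H := Nat.cast_nonneg _
  have c2' : ((A.image (W.zc n)).card : ℝ) ≤ H := Nat.cast_le.2 c2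
  have hMu := hE.pos n
  have key : Mu n * W.B'.d n ^ (W.lam W.top + ε / 4) ≤ W.B'.d n ^ (-(ε / 4)) *
      W.B'.d n ^ (W.lam (cut W.S W.top 0) - ε / 4) * (Mu n * W.B'.d n ^ (-(ε / 4)) * H) := by
    refine (h3.trans c3).trans ?_
    refine mul_le_mul (mul_le_mul h4 c4 (Nat.cast_nonneg _) (hpos _).le) ?_ (Nat.cast_nonneg _)
      (mul_pos (hpos _) (hpos _)).le
    refine c1.trans ?_
    have := hpos (-(ε / 4))
    gcongr
  have e1 : W.B'.d n ^ (-(ε / 4)) * W.B'.d n ^ (W.lam (cut W.S W.top 0) - ε / 4) *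
      (Mu n * W.B'.d n ^ (-(ε / 4)) * H) =
      Mu n * (W.B'.d n ^ (W.lam (cut W.S W.top 0) - 3 * (ε / 4)) * H) := by
    have : W.B'.d n ^ (W.lam (cut W.S W.top 0) - 3 * (ε / 4)) = W.B'.d n ^ (-(ε / 4)) *
        W.B'.d n ^ (W.lam (cut W.S W.top 0) - ε / 4) * W.B'.d n ^ (-(ε / 4)) := by
      rw [← Real.rpow_add (W.B'.pos n), ← Real.rpow_add (W.B'.pos n)]; congr 1; ring
    rw [this]; ring
  rw [e1] at key
  have key2 := le_of_mul_le_mul_left key hMu
  have e2 : W.B'.d n ^ (W.lam (cut W.S W.top 0) - 3 * (ε / 4)) *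
      W.B'.d n ^ (W.lam (cut W.S 0 W.top) + ε) ≤ W.B'.d n ^ (W.lam W.top + ε / 4) := by
    rw [← Real.rpow_add (W.B'.pos n)]
    exact Real.rpow_le_rpow_of_exponent_ge (W.B'.pos n) (W.B'.lt n).le (by linarith)
  exact le_of_mul_le_mul_left (e2.trans key2) (hpos _)

/-- **lines of a surviving height, from below** -/
theorem ev_slice (h : W.Ok) (hE : EOk W E Mu) (hP : Pruned W E E' g ex)
    (hdens : W.lam W.top ≤ W.lam (cut W.S W.top 0) + W.lam (cut W.S 0 W.top)) {ε : ℝ}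
    (hε : 0 < ε) : ∀ᶠ n in (U : Filter ℕ), ∀ k ∈ (W.cfg0 n (E' n)).Z,
      W.B'.d n ^ (W.lam (cut W.S W.top 0) + ε) ≤ (((W.cfg0 n (E' n)).slice k).card : ℝ) := by
  have hε4 : 0 < ε / 4 := by positivity
  filter_upwards [ev_cfg h hE hP, h.card_zc_le hε4, hE.mult _ hε4, hE.big _ hε4,
    hP.gsub _ hε4] with n ⟨hg, hsub, hne, _⟩ h1 h2 h3 h4 l hl
  have hpos : ∀ t : ℝ, 0 < W.B'.d n ^ t := fun t => Real.rpow_pos_of_pos (W.B'.pos n) t
  obtain ⟨x, hx, rfl⟩ := mem_image.1 hl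
  set A := R138.Ex926.cls (E' n) (W.zc n) x with hA
  have hAE : A ⊆ E n := (cls_subset _ _ _).trans (hP.sub n)
  have c1 : (A.card : ℝ) ≤ Mu n * W.B'.d n ^ (-(ε / 4)) * (A.image (W.lc n)).card := by
    refine card_le_mult (W := W) (fun i hi => ?_) _ (fun i hi j hj he => ?_)
    · refine le_trans ?_ (h2 i (hAE hi))
      exact_mod_cast card_le_card (cls_mono hAE _ _)
    · have e1 := (mem_cls.1 hi).2.trans (mem_cls.1 hj).2.symm
      unfold pc
      rw [e1, he]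
  have c2 : (A.image (W.lc n)).card ≤ ((W.cfg0 n (E' n)).slice (W.zc n x)).card := by
    refine card_le_card fun k hk => ?_
    obtain ⟨y, hy, rfl⟩ := mem_image.1 hk
    obtain ⟨hy1, hy2⟩ := mem_cls.1 hy
    exact cfg0_slice.2 ⟨y, hy1, rfl, hy2⟩
  have c3 := hP.slices n x hx
  have c4 := h1 (E n) hsub
  set H : ℝ := (((W.cfg0 n (E' n)).slice (W.zc n x)).card : ℝ) with hH
  have hH0 : 0 ≤ H := Nat.cast_nonneg _
  have c2' : ((A.image (W.lc n)).card : ℝ) ≤ H := Nat.cast_le.2 c2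
  have hMu := hE.pos n
  have key : Mu n * W.B'.d n ^ (W.lam W.top + ε / 4) ≤ W.B'.d n ^ (-(ε / 4)) *
      W.B'.d n ^ (W.lam (cut W.S 0 W.top) - ε / 4) * (Mu n * W.B'.d n ^ (-(ε / 4)) * H) := by
    refine (h3.trans c3).trans ?_
    refine mul_le_mul (mul_le_mul h4 c4 (Nat.cast_nonneg _) (hpos _).le) ?_ (Nat.cast_nonneg _)
      (mul_pos (hpos _) (hpos _)).le
    refine c1.trans ?_
    have := hpos (-(ε / 4))
    gcongr
  have e1 : W.B'.d n ^ (-(ε / 4)) * W.B'.d n ^ (W.lam (cut W.S 0 W.top) - ε / 4) *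
      (Mu n * W.B'.d n ^ (-(ε / 4)) * H) =
      Mu n * (W.B'.d n ^ (W.lam (cut W.S 0 W.top) - 3 * (ε / 4)) * H) := by
    have : W.B'.d n ^ (W.lam (cut W.S 0 W.top) - 3 * (ε / 4)) = W.B'.d n ^ (-(ε / 4)) *
        W.B'.d n ^ (W.lam (cut W.S 0 W.top) - ε / 4) * W.B'.d n ^ (-(ε / 4)) := by
      rw [← Real.rpow_add (W.B'.pos n), ← Real.rpow_add (W.B'.pos n)]; congr 1; ring
    rw [this]; ring
  rw [e1] at key
  have key2 := le_of_mul_le_mul_left key hMu
  have e2 : W.B'.d n ^ (W.lam (cut W.S 0 W.top) - 3 * (ε / 4)) *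
      W.B'.d n ^ (W.lam (cut W.S W.top 0) + ε) ≤ W.B'.d n ^ (W.lam W.top + ε / 4) := by
    rw [← Real.rpow_add (W.B'.pos n)]
    exact Real.rpow_le_rpow_of_exponent_ge (W.B'.pos n) (W.B'.lt n).le (by linarith)
  exact le_of_mul_le_mul_left (e2.trans key2) (hpos _)

/-- loose boxes of the configuration -/
theorem cfg0_loose {n : ℕ} {E : Finset (ι n)} {p : Fin m → ℝ} {ε : ℝ} {k i l : ℕ} :
    (W.cfg0 n E).loose p ε k i l ↔
      ∀ s, s ∉ W.S → |W.crd n (W.rep n i k) (W.rep n l k) s| ≤ W.B'.d n ^ (p s - ε) := by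
  constructor
  · intro hl s hs
    have := hl s
    simp only [cfg0, if_neg hs] at this
    exact this
  · intro hl s
    show |if s ∈ W.S then (0 : ℝ) else W.crd n (W.rep n i k) (W.rep n l k) s| ≤ W.B'.d n ^ _
    split_ifs with hs
    · rw [abs_zero]; exact Real.rpow_nonneg (W.B'.pos n).le _
    · exact hl s hs

theorem rep_of_mem {n : ℕ} {E : Finset (ι n)} (hE : E ⊆ W.Cl n) {l k : ℕ}
    (hI : (l, k) ∈ (W.cfg0 n E).I) : W.rep n l k ∈ W.Cl n ∧ W.lc n (W.rep n l k) = l ∧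
      W.zc n (W.rep n l k) = k := by
  obtain ⟨x, hx, rfl, rfl⟩ := mem_I.1 hI
  exact W.rep_spec (hE hx)

/-- lower counts -/
theorem ev_low (h : W.Ok) (hE : EOk W E Mu) (hP : Pruned W E E' g ex) {p : Fin m → ℝ}
    (hp : p ∈ W.legW) {ε : ℝ} (hε : 0 < ε) : ∀ᶠ n in (U : Filter ℕ), ∀ i k,
      (i, k) ∈ (W.cfg0 n (E' n)).I → W.B'.d n ^ (-W.nu p + ε) ≤
        (((W.cfg0 n (E' n)).box p ε i k).card : ℝ) := by
  set q := cut W.S p W.top with hq
  have hε8 : 0 < ε / 8 := by positivity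
  have hη : 0 < ε / (8 * ((m : ℝ) + 1)) := by positivity
  set K1 := triC W.M W.C W.K0 with hK1
  set K3 := triC W.M W.C K1 with hK3
  have hK0 := h.K0_one
  have hK01 : W.K0 ≤ K1 := triC_ge h.C0 hK0
  have hK11 : 1 ≤ K1 := hK0.trans hK01
  filter_upwards [ev_cfg h hE hP, h.card_zb_le hε8, hE.mult _ hε8, hE.big _ hε8,
    hP.gsub _ hε8, hP.net _ hη, ev_kap h K3 hε] with
    n ⟨hg, hsub, hne, _⟩ h1 h2 h3 h4 h5 h6 i k hik
  have hpos : ∀ t : ℝ, 0 < W.B'.d n ^ t := fun t => Real.rpow_pos_of_pos (W.B'.pos n) t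
  obtain ⟨b, hb, hqb, hbq, hcls⟩ := h5 q hp.1
  obtain ⟨x, hx, hxi, hxk⟩ := mem_I.1 hik
  have hE'Cl : E' n ⊆ W.Cl n := (hP.sub n).trans hsub
  obtain ⟨r1, r2, r3⟩ := rep_of_mem hE'Cl hik
  set A := R138.Ex926.cls (E' n) (W.zb n b) x with hA
  have hAE' : A ⊆ E' n := cls_subset _ _ _
  have hAE : A ⊆ E n := hAE'.trans (hP.sub n)
  have hzA : ∀ y ∈ A, W.zc n y = k ∧ W.lab n b x = W.lab n b y := fun y hy => by
    obtain ⟨e1, e2⟩ := zb_eq (mem_cls.1 hy).2
    exact ⟨e1.trans hxk, enc_inj (h.lab_mem hg hb (hg.clI (hE'Cl hx)))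
      (h.lab_mem hg hb (hg.clI (hE'Cl (hAE' hy)))) e2.symm⟩
  have c1 : (A.card : ℝ) ≤ Mu n * W.B'.d n ^ (-(ε / 8)) * (A.image (W.lc n)).card := by
    refine card_le_mult (W := W) (fun i hi => ?_) _ (fun i hi j hj he => ?_)
    · refine le_trans ?_ (h2 i (hAE hi))
      exact_mod_cast card_le_card (cls_mono hAE _ _)
    · have e1 := (hzA i hi).1.trans (hzA j hj).1.symm
      unfold pc
      rw [e1, he]
  have c2 : (A.image (W.lc n)).card ≤ ((W.cfg0 n (E' n)).box p ε i k).card := by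
    refine card_le_card fun l hl => ?_
    obtain ⟨y, hy, rfl⟩ := mem_image.1 hl
    obtain ⟨hyk, hyl⟩ := hzA y hy
    have hyCl := hE'Cl (hAE' hy)
    have hyI : (W.lc n y, k) ∈ (W.cfg0 n (E' n)).I := mem_I.2 ⟨y, hAE' hy, rfl, hyk⟩
    obtain ⟨t1, t2, t3⟩ := rep_of_mem hE'Cl hyI
    refine RCfg.mem_box.2 ⟨cfg0_slice.2 ⟨y, hAE' hy, rfl, hyk⟩, cfg0_loose.2 fun s hs => ?_⟩
    -- the chain
    have n1 : W.bx n q W.K0 (W.rep n i k) x := bx_anti (q_le_top hp) (by linarith)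
      (h.near_top hg r1 (hE'Cl hx) (r2.trans hxi.symm) (r3.trans hxk.symm))
    have n2 : W.bx n q W.K0 x y := by
      intro s
      by_cases hs : s ∈ W.S
      · have a1 := h.near_zc hg (hE'Cl hx) hyCl (hxk.trans hyk.symm) s
        rw [cut_of_mem hs] at a1
        rw [hq, cut_of_mem hs]
        exact a1
      · have a1 := h.near_lab hg hb (hg.clI (hE'Cl hx)) (hg.clI hyCl) hyl s
        exact a1.trans (mul_le_mul_of_nonneg_left (side_anti W n (hqb s)) (by linarith))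
    have n3 : W.bx n q W.K0 y (W.rep n (W.lc n y) k) := bx_anti (q_le_top hp) (by linarith)
      (h.near_top hg hyCl t1 t2.symm (hyk.trans t3.symm))
    have n4 := h.tri hg hp.1 hK0 (hg.clI r1) (hg.clI (hE'Cl hx)) (hg.clI hyCl) n1 n2
    have n5 := h.tri hg hp.1 hK11 (hg.clI r1) (hg.clI hyCl) (hg.clI t1) n4 (bx_mono hK01 n3)
    have n6 := loose_of_bx' h n5 s (h6 s)
    rwa [cut_of_notMem hs] at n6
  have c3 := hcls x hx
  have c4 := h1 b hb ((lev_le_q h hp).trans hqb) (E n) hsub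
  set H : ℝ := (((W.cfg0 n (E' n)).box p ε i k).card : ℝ) with hH
  have hH0 : 0 ≤ H := Nat.cast_nonneg _
  have c2' : ((A.image (W.lc n)).card : ℝ) ≤ H := Nat.cast_le.2 c2
  have hMu := hE.pos n
  have key : Mu n * W.B'.d n ^ (W.lam W.top + ε / 8) ≤ W.B'.d n ^ (-(ε / 8)) *
      W.B'.d n ^ (W.lam b - ε / 8) * (Mu n * W.B'.d n ^ (-(ε / 8)) * H) := by
    refine (h3.trans c3).trans ?_
    refine mul_le_mul (mul_le_mul h4 c4 (Nat.cast_nonneg _) (hpos _).le) ?_ (Nat.cast_nonneg _)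
      (mul_pos (hpos _) (hpos _)).le
    refine c1.trans ?_
    have := hpos (-(ε / 8))
    gcongr
  have e1 : W.B'.d n ^ (-(ε / 8)) * W.B'.d n ^ (W.lam b - ε / 8) *
      (Mu n * W.B'.d n ^ (-(ε / 8)) * H) =
      Mu n * (W.B'.d n ^ (W.lam b - 3 * (ε / 8)) * H) := by
    have : W.B'.d n ^ (W.lam b - 3 * (ε / 8)) = W.B'.d n ^ (-(ε / 8)) *
        W.B'.d n ^ (W.lam b - ε / 8) * W.B'.d n ^ (-(ε / 8)) := by
      rw [← Real.rpow_add (W.B'.pos n), ← Real.rpow_add (W.B'.pos n)]; congr 1; ring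
    rw [this]; ring
  rw [e1] at key
  have key2 := le_of_mul_le_mul_left key hMu
  have hlip : W.lam q ≤ W.lam b + ε / 8 := by
    have h7 := h.cls.lip q (h.leg hp.1) b (h.leg hb)
    rw [norm_sub_rev] at h7
    have h8 : (m : ℝ) * ‖b - q‖ ≤ ε / 8 := by
      have h9 : (m : ℝ) * ‖b - q‖ ≤ ((m : ℝ) + 1) * (ε / (8 * ((m : ℝ) + 1))) :=
        mul_le_mul (by linarith) hbq (norm_nonneg _) (by positivity)
      refine h9.trans (le_of_eq ?_)
      field_simp
    have := le_abs_self (W.lam q - W.lam b)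
    linarith
  have e2 : W.B'.d n ^ (W.lam b - 3 * (ε / 8)) * W.B'.d n ^ (-W.nu p + ε) ≤
      W.B'.d n ^ (W.lam W.top + ε / 8) := by
    rw [← Real.rpow_add (W.B'.pos n)]
    refine Real.rpow_le_rpow_of_exponent_ge (W.B'.pos n) (W.B'.lt n).le ?_
    unfold nu
    rw [← hq]
    linarith
  exact le_of_mul_le_mul_left (e2.trans key2) (hpos _)

theorem lowp_le {M : Mons m} {ε : ℝ} (hε : 0 ≤ ε) {q : Fin m → ℝ} (hq : ∀ s, 0 ≤ q s) :
    lowp M ε q ≤ q := fun s =>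
  max_le (by have := wg_one M s; nlinarith) (hq s)

theorem norm_sub_lowp_le {ε : ℝ} (hε : 0 ≤ ε) {q : Fin m → ℝ} (hq : ∀ s, 0 ≤ q s) :
    ‖q - lowp W.Mw ε q‖ ≤ W.W0 * ε := by
  have h0 : 0 ≤ W.W0 * ε := mul_nonneg (by linarith [W0_one W]) hε
  refine (pi_norm_le_iff_of_nonneg h0).2 fun s => ?_
  rw [Real.norm_eq_abs, Pi.sub_apply, abs_of_nonneg (by linarith [lowp_le (M := W.Mw) hε hq s])]
  have h1 : q s - wg W.Mw s * ε ≤ lowp W.Mw ε q s := le_max_left _ _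
  have h2 := mul_le_mul_of_nonneg_right (wg_le_W0 W s) hε
  linarith

/-- upper counts, for any set of incidences inside the class -/
theorem ev_up (h : W.Ok) {p : Fin m → ℝ}
    (hp : p ∈ W.legW) {ε : ℝ} (hε : 0 < ε) : ∀ᶠ n in (U : Filter ℕ), ∀ A ⊆ W.Cl n, ∀ i k,
      (i, k) ∈ (W.cfg0 n A).I → (((W.cfg0 n A).box p ε i k).card : ℝ) ≤
        W.B'.d n ^ (-W.nu p - W.Dc * ε) := by
  classical
  set q := cut W.S p W.top with hq
  set c' := lowp W.Mw ε q with hc'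
  have hc'leg : c' ∈ Leg W.Mw W.R' := lowp_mem h.R0 hε.le hp.1
  have hc'q : c' ≤ q := lowp_le hε.le hp.1.1.nonneg
  have hc't : c' ≤ W.top := hc'q.trans (q_le_top hp)
  have hN := h.N_pos h.K0_one
  have hK2 := K2_one h
  filter_upwards [h.ev_good, h.cls.child_count hK2 W.R' hε,
    ev_const_le W.B' hN hε] with n hg h1 h2 A hA i k hik
  have hpos : ∀ t : ℝ, 0 < W.B'.d n ^ t := fun t => Real.rpow_pos_of_pos (W.B'.pos n) t
  obtain ⟨r1, r2, r3⟩ := rep_of_mem hA hik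
  set F := (W.Cl n).filter fun j => W.bx n c' W.K2 (W.rep n i k) j with hF
  have hFI : F ⊆ W.I n := (filter_subset _ _).trans hg.clI
  have c1 : ((W.cfg0 n A).box p ε i k).card ≤ (F.image (W.lc n)).card := by
    refine card_le_card fun l hl => ?_
    obtain ⟨h3, h4⟩ := RCfg.mem_box.1 hl
    obtain ⟨y, hy, hyl, hyk⟩ := cfg0_slice.1 h3
    have hI : (l, k) ∈ (W.cfg0 n A).I := mem_I.2 ⟨y, hy, hyl, hyk⟩
    obtain ⟨t1, t2, t3⟩ := rep_of_mem hA hI
    refine mem_image.2 ⟨W.rep n l k, mem_filter.2 ⟨t1, ?_⟩, t2⟩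
    refine bx_of_loose h hg (q := q) (fun s hs => by rw [hq, cut_of_mem hs]) hε r1 t1
      (r3.trans t3.symm) fun s hs => ?_
    rw [hq, cut_of_notMem hs]
    exact cfg0_loose.1 h4 s hs
  have c2 : ((F.image (W.lc n)).card : ℝ) ≤ W.N W.K0 * (F.image (W.lab n W.top)).card := by
    refine card_image_le_mul F _ _ fun x hx => ?_
    set O := R138.Ex926.cls F (W.lab n W.top) x with hO
    have hOI : O ⊆ W.I n := (cls_subset _ _ _).trans hFI
    exact h.card_lc_box hg h.K0_one hOI (hFI hx) fun j hj =>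
      h.near_lab hg h.top_leg (hFI hx) (hOI hj) (mem_cls.1 hj).2.symm
  have c3 : ((F.image (W.lab n W.top)).card : ℝ) ≤ W.B'.d n ^ (-(W.lam c' - W.lam W.top + ε)) := by
    have h5 := h1 c' (h.leg hc'leg) (norm_le_of_Leg h.R0 hc'leg) W.top (h.leg h.top_leg)
      (norm_le_of_Leg h.R0 h.top_leg) hc't (W.rep n i k) (hg.clI r1)
    exact h5
  have hlip : W.lam c' ≤ W.lam q + m * (W.W0 * ε) := by
    have h7 := h.cls.lip c' (h.leg hc'leg) q (h.leg hp.1)
    rw [norm_sub_rev] at h7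
    have h8 := mul_le_mul_of_nonneg_left (norm_sub_lowp_le (W := W) hε.le hp.1.1.nonneg)
      (Nat.cast_nonneg m : (0 : ℝ) ≤ m)
    have := le_abs_self (W.lam c' - W.lam q)
    rw [← hq, ← hc'] at h8
    linarith
  calc (((W.cfg0 n A).box p ε i k).card : ℝ) ≤ ((F.image (W.lc n)).card : ℝ) := by
        exact_mod_cast c1
    _ ≤ W.N W.K0 * (F.image (W.lab n W.top)).card := c2
    _ ≤ W.B'.d n ^ (-ε) * W.B'.d n ^ (-(W.lam c' - W.lam W.top + ε)) :=
        mul_le_mul h2 c3 (Nat.cast_nonneg _) (hpos _).le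
    _ = W.B'.d n ^ (-(W.lam c' - W.lam W.top) - 2 * ε) := by
        rw [← Real.rpow_add (W.B'.pos n)]; congr 1; ring
    _ ≤ W.B'.d n ^ (-W.nu p - W.Dc * ε) := by
        refine Real.rpow_le_rpow_of_exponent_ge (W.B'.pos n) (W.B'.lt n).le ?_
        unfold nu Dc
        rw [← hq]
        have := W0_one W
        nlinarith

/-- Frostman bound for the heights, any set of incidences inside the class -/
theorem ev_hbox (h : W.Ok) {y : ℝ} (hy0 : 0 ≤ y) (hyt : y ≤ W.top W.kz) {ε : ℝ} (hε : 0 < ε) :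
    ∀ᶠ n in (U : Filter ℕ), ∀ A ⊆ W.Cl n, ∀ k ∈ (W.cfg0 n A).Z,
      (((W.cfg0 n A).hbox y k).card : ℝ) ≤
        W.B'.d n ^ (-(W.lam (Pi.single W.kz y) - W.lam (cut W.S 0 W.top) + ε)) := by
  classical
  set c : Fin m → ℝ := Pi.single W.kz y with hc
  have hcs : ∀ s, s ≠ W.kz → c s = 0 := fun s hs => by rw [hc]; exact Pi.single_eq_of_ne hs _
  have hck : c W.kz = y := by rw [hc]; exact Pi.single_eq_same _ _
  have hc0 : ∀ s, 0 ≤ c s := fun s => by
    by_cases hs : s = W.kz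
    · rw [hs, hck]; exact hy0
    · rw [hcs s hs]
  have hcleg : c ∈ Leg W.Mw W.R' := by
    refine ⟨⟨hc0, fun k e he => ?_⟩, fun k => ?_⟩
    · by_cases hk : k = W.kz
      · rw [hk, h.kzw] at he; exact absurd he (notMem_empty _)
      · rw [hcs k hk]
        exact sum_nonneg fun s _ => mul_nonneg (Nat.cast_nonneg _) (hc0 s)
    · by_cases hk : k = W.kz
      · rw [hk, hck]; exact hyt.trans (h.top_leg.2 _)
      · rw [hcs k hk]; exact h.R0
  have hclev : c ≤ cut W.S 0 W.top := fun s => by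
    by_cases hs : s = W.kz
    · rw [hs, hck, cut_of_mem h.kzS]; exact hyt
    · rw [hcs s hs]; exact h.lev_nonneg s
  filter_upwards [h.ev_good, h.cls.child_count (K2_one h) W.R' hε] with n hg h1 A hA k hk
  obtain ⟨x0, hx0, rfl⟩ := mem_image.1 hk
  obtain ⟨r1, r2⟩ := W.zrep_spec (hA hx0)
  set x := W.zrep n (W.zc n x0) with hx
  set F := (W.Cl n).filter fun j => wbox W.B W.B' W.co W.X n c W.K2 x j with hF
  have c1 : ((W.cfg0 n A).hbox y (W.zc n x0)).card ≤ (F.image (W.zc n)).card := by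
    refine card_le_card fun k' hk' => ?_
    unfold RCfg.hbox at hk'
    obtain ⟨h2, h3⟩ := mem_filter.1 hk'
    obtain ⟨x1, hx1, rfl⟩ := mem_image.1 h2
    obtain ⟨t1, t2⟩ := W.zrep_spec (hA hx1)
    refine mem_image.2 ⟨W.zrep n (W.zc n x1), mem_filter.2 ⟨t1, fun s => ?_⟩, t2⟩
    by_cases hs : s = W.kz
    · rw [hs]
      have hkap := h.kap W.kz
      have hXp : 0 < W.B.d n ^ W.X n W.kz := Real.rpow_pos_of_pos (W.B.pos n) _
      have h4 : |W.crd n (W.s₀ n) (W.zrep n (W.zc n x1)) W.kz - W.crd n (W.s₀ n) x W.kz| ≤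
          W.B'.d n ^ y := h3
      have h5 := h.add_kz (hg.clI hg.s0) (hg.clI r1) (hg.clI t1)
      have e1 : W.crd n (W.s₀ n) (W.zrep n (W.zc n x1)) W.kz - W.crd n (W.s₀ n) x W.kz =
          W.crd n x (W.zrep n (W.zc n x1)) W.kz := by
        unfold crd
        rw [← sub_div, h5]; congr 1; ring
      rw [e1, crd_le_iff h] at h4
      refine h4.trans ?_
      rw [hck]
      have h6 := kap_le_K2 h W.kz
      have hp := Real.rpow_pos_of_pos (W.B'.pos n) y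
      calc W.kap W.kz * W.B'.d n ^ y * W.B.d n ^ W.X n W.kz
          ≤ W.K2 * W.B'.d n ^ y * W.B.d n ^ W.X n W.kz := by gcongr
        _ = _ := by ring
    · rw [hcs s hs]
      have h4 := h.near0 hg r1 t1 s
      refine h4.trans (mul_le_mul_of_nonneg_right (K0_le_K2 W) ?_)
      exact (side_pos W n 0 s).le
  have c2 : ((F.image (W.zc n)).card : ℝ) ≤ ((F.image (W.lab n (cut W.S 0 W.top))).card : ℝ) := by
    exact_mod_cast card_enc_image _ _ _
  have c3 := h1 c (h.leg hcleg) (norm_le_of_Leg h.R0 hcleg) _ (h.leg h.lev_leg)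
    (norm_le_of_Leg h.R0 h.lev_leg) hclev x (hg.clI r1)
  calc (((W.cfg0 n A).hbox y (W.zc n x0)).card : ℝ) ≤ ((F.image (W.zc n)).card : ℝ) := by
        exact_mod_cast c1
    _ ≤ _ := c2
    _ ≤ _ := c3

/-- **the configurations of a pruned set are a model** -/
theorem Pruned.rmodel (h : W.Ok) (hE : EOk W E Mu) (hP : Pruned W E E' g ex)
    (hdens : W.lam W.top ≤ W.lam (cut W.S W.top 0) + W.lam (cut W.S 0 W.top)) {σ R : ℝ}
    (hσ0 : 0 ≤ σ) (hσ1 : σ ≤ 1) (hR : R ≤ W.top W.kz)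
    (hfrost : ∀ y, 0 ≤ y → y ≤ R → W.lam (Pi.single W.kz y) ≤ -(σ * y)) :
    RModel W.B' (W.cfg E') σ R W.legW W.nu W.Dc where
  D1 := Dc_one W
  base := cfg_ρ E'
  sub := cfg_sub E'
  nonempty := cfg_nonempty E'
  refl := cfg_refl h E'
  symm := fun p hp ε hε => by
    have hc' : lowp W.Mw ε (cut W.S p W.top) ∈ Leg W.Mw W.R' := lowp_mem h.R0 hε.le hp.1
    have hK2 := K2_one h
    have hs1 : 0 ≤ symC W.M W.C W.K2 m := by linarith [symC_ge W.M h.C0 hK2 m]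
    filter_upwards [ev_cfg h hE hP, ev_kap h (symC W.M W.C W.K2 m) hε] with
      n ⟨hg, hsub, hne, heq⟩ hk k i l hi hl hil
    rw [heq] at hi hl hil ⊢
    have hE'Cl : E' n ⊆ W.Cl n := (hP.sub n).trans hsub
    obtain ⟨r1, r2, r3⟩ := rep_of_mem hE'Cl hi
    obtain ⟨t1, t2, t3⟩ := rep_of_mem hE'Cl hl
    have b1 := bx_of_loose h hg (q := cut W.S p W.top) (fun s hs => by rw [cut_of_mem hs]) hε r1 t1
      (r3.trans t3.symm) (fun s hs => by rw [cut_of_notMem hs]; exact cfg0_loose.1 hil s hs)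
    have b2 := h.symm hg hc' hK2 (hg.clI r1) (hg.clI t1) b1
    refine cfg0_loose.2 fun s hs => ?_
    have b3 := loose_of_bx h hε b2 hs1 s (hk s) (D := W.Dc) (by
      have := wg_le_W0 W s
      have := W0_one W
      have hm : (0 : ℝ) ≤ m := Nat.cast_nonneg m
      unfold Dc; nlinarith)
    rwa [cut_of_notMem hs] at b3
  tri := fun p hp ε hε => by
    have hc' : lowp W.Mw ε (cut W.S p W.top) ∈ Leg W.Mw W.R' := lowp_mem h.R0 hε.le hp.1
    have hK2 := K2_one h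
    have hs1 : 0 ≤ triC W.M W.C W.K2 := by linarith [triC_ge (M := W.M) h.C0 hK2]
    filter_upwards [ev_cfg h hE hP, ev_kap h (triC W.M W.C W.K2) hε] with
      n ⟨hg, hsub, hne, heq⟩ hk k i l j hi hl hj hil hlj
    rw [heq] at hi hl hj hil hlj ⊢
    have hE'Cl : E' n ⊆ W.Cl n := (hP.sub n).trans hsub
    obtain ⟨r1, r2, r3⟩ := rep_of_mem hE'Cl hi
    obtain ⟨t1, t2, t3⟩ := rep_of_mem hE'Cl hl
    obtain ⟨u1, u2, u3⟩ := rep_of_mem hE'Cl hj
    have b1 := bx_of_loose h hg (q := cut W.S p W.top) (fun s hs => by rw [cut_of_mem hs]) hε r1 t1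
      (r3.trans t3.symm) (fun s hs => by rw [cut_of_notMem hs]; exact cfg0_loose.1 hil s hs)
    have b1' := bx_of_loose h hg (q := cut W.S p W.top) (fun s hs => by rw [cut_of_mem hs]) hε t1 u1
      (t3.trans u3.symm) (fun s hs => by rw [cut_of_notMem hs]; exact cfg0_loose.1 hlj s hs)
    have b2 := h.tri hg hc' hK2 (hg.clI r1) (hg.clI t1) (hg.clI u1) b1 b1'
    refine cfg0_loose.2 fun s hs => ?_
    have b3 := loose_of_bx h hε b2 hs1 s (hk s) (D := W.Dc) (by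
      have := wg_le_W0 W s
      have := W0_one W
      have hm : (0 : ℝ) ≤ m := Nat.cast_nonneg m
      unfold Dc; nlinarith)
    rwa [cut_of_notMem hs] at b3
  low := fun p hp ε hε => by
    filter_upwards [ev_cfg h hE hP, ev_low h hE hP hp hε] with n ⟨hg, hsub, hne, heq⟩ h1 i k hik
    rw [heq] at hik ⊢
    exact h1 i k hik
  up := fun p hp ε hε => by
    filter_upwards [ev_cfg h hE hP, ev_up h hp hε] with n ⟨hg, hsub, hne, heq⟩ h1 i k hik
    rw [heq] at hik ⊢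
    exact h1 _ ((hP.sub n).trans hsub) i k hik
  σ_nonneg := hσ0
  σ_le := hσ1
  line := fun ε hε => by
    filter_upwards [ev_cfg h hE hP, ev_hts h hE hP hdens (ε := ε / 2) (by positivity),
      h.card_zc_le (ε := ε / 2) (by positivity)] with n ⟨hg, hsub, hne, heq⟩ h1 h2 i hi
    rw [heq] at hi ⊢
    have h3 := h2 _ ((hP.sub n).trans hsub)
    refine le_trans ?_ (h1 i hi)
    have hp := Real.rpow_pos_of_pos (W.B'.pos n) ε
    calc W.B'.d n ^ ε * ((W.cfg0 n (E' n)).Z.card : ℝ)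
        ≤ W.B'.d n ^ ε * W.B'.d n ^ (W.lam (cut W.S 0 W.top) - ε / 2) :=
          mul_le_mul_of_nonneg_left h3 hp.le
      _ = _ := by rw [← Real.rpow_add (W.B'.pos n)]; congr 1; ring
  slice := fun ε hε => by
    filter_upwards [ev_cfg h hE hP, ev_slice h hE hP hdens (ε := ε / 2) (by positivity),
      h.card_lc_le (ε := ε / 2) (by positivity)] with n ⟨hg, hsub, hne, heq⟩ h1 h2 i hi
    rw [heq] at hi ⊢
    have h3 := h2 _ ((hP.sub n).trans hsub)
    refine le_trans ?_ (h1 i hi)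
    have hp := Real.rpow_pos_of_pos (W.B'.pos n) ε
    calc W.B'.d n ^ ε * ((W.cfg0 n (E' n)).L.card : ℝ)
        ≤ W.B'.d n ^ ε * W.B'.d n ^ (W.lam (cut W.S W.top 0) - ε / 2) :=
          mul_le_mul_of_nonneg_left h3 hp.le
      _ = _ := by rw [← Real.rpow_add (W.B'.pos n)]; congr 1; ring
  frost := fun y hy0 hyR ε hε => by
    filter_upwards [ev_cfg h hE hP, ev_hts h hE hP hdens (ε := ε / 2) (by positivity),
      ev_hbox h hy0 (hyR.trans hR) (ε := ε / 2) (by positivity)] with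
      n ⟨hg, hsub, hne, heq⟩ h1 h2 k hk
    rw [heq] at hk ⊢
    have h3 := h2 _ ((hP.sub n).trans hsub) k hk
    obtain ⟨x, hx⟩ := hne
    have h4 := h1 (W.lc n x) (mem_image_of_mem _ hx)
    have h5 : (((W.cfg0 n (E' n)).hts (W.lc n x)).card : ℝ) ≤ ((W.cfg0 n (E' n)).Z.card : ℝ) := by
      refine Nat.cast_le.2 (card_le_card ?_)
      exact filter_subset _ _
    have h6 := h4.trans h5
    have hfr := hfrost y hy0 hyR
    have hp := Real.rpow_pos_of_pos (W.B'.pos n) (σ * y - ε)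
    refine h3.trans ?_
    calc W.B'.d n ^ (-(W.lam (Pi.single W.kz y) - W.lam (cut W.S 0 W.top) + ε / 2))
        ≤ W.B'.d n ^ (σ * y - ε) * W.B'.d n ^ (W.lam (cut W.S 0 W.top) + ε / 2) := by
          rw [← Real.rpow_add (W.B'.pos n)]
          exact Real.rpow_le_rpow_of_exponent_ge (W.B'.pos n) (W.B'.lt n).le (by linarith)
      _ ≤ _ := mul_le_mul_of_nonneg_left h6 hp.le

/-- **the window theorem**: inside every set of incidences with controlled multiplicities there is a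
pruned set whose configurations are a model; the loss `g` grows as slowly as wanted. -/
theorem EOk.exists_model (h : W.Ok) (hE : EOk W E Mu) (ex : ℕ → ∀ n, ι n → ℕ) {g₀ : ℕ → ℝ}
    (hg₀ : Tendsto g₀ U atTop)
    (hdens : W.lam W.top ≤ W.lam (cut W.S W.top 0) + W.lam (cut W.S 0 W.top)) {σ R : ℝ}
    (hσ0 : 0 ≤ σ) (hσ1 : σ ≤ 1) (hR : R ≤ W.top W.kz)
    (hfrost : ∀ y, 0 ≤ y → y ≤ R → W.lam (Pi.single W.kz y) ≤ -(σ * y)) :
    ∃ (E' : ∀ n, Finset (ι n)) (g : ℕ → ℝ), Pruned W E E' g ex ∧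
      (∀ᶠ n in (U : Filter ℕ), g n ≤ g₀ n) ∧
      RModel W.B' (W.cfg E') σ R W.legW W.nu W.Dc := by
  obtain ⟨E', g, h1, h2⟩ := exists_pruned W h.R0 E ex hg₀
  exact ⟨E', g, h1, h2, h1.rmodel h hE hdens hσ0 hσ1 hR hfrost⟩

/-- a pruned set is again a set with controlled multiplicities -/
theorem Pruned.eok (hE : EOk W E Mu) (hP : Pruned W E E' g ex) : EOk W E' Mu :=
  hE.refine (Eventually.of_forall hP.sub) fun ε hε => by
    filter_upwards [W.B'.ev_rpow_small hε (c := 1 / 2) (by norm_num)] with n hn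
    have h1 := hP.half n
    have h2 : (0 : ℝ) ≤ (E n).card := Nat.cast_nonneg _
    have h3 := mul_le_mul_of_nonneg_right hn h2
    linarith

/-- number of heights of every surviving line, multiplicity one: at least the average divided by
`g n` -/
theorem Pruned.hts_sec (hP : Pruned W W.sec E' g ex) (n : ℕ) {l : ℕ}
    (hl : l ∈ (W.cfg0 n (E' n)).L) : (((W.Cl n).image (W.pc n)).card : ℝ) ≤
      g n * ((W.Cl n).image (W.lc n)).card * ((W.cfg0 n (E' n)).hts l).card := by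
  obtain ⟨x, hx, rfl⟩ := mem_image.1 hl
  have h1 := hP.lines n x hx
  rw [card_sec] at h1
  refine h1.trans ?_
  have hg := hP.g1 n
  have c1 : (((W.sec n).image (W.lc n)).card : ℝ) ≤ (((W.Cl n).image (W.lc n)).card : ℝ) := by
    exact_mod_cast card_le_card (image_subset_image (filter_subset _ _))
  have c2 : ((R138.Ex926.cls (E' n) (W.lc n) x).card : ℝ) ≤
      (((W.cfg0 n (E' n)).hts (W.lc n x)).card : ℝ) := by
    refine Nat.cast_le.2 (card_le_card_of_injOn (W.zc n) (fun y hy => ?_) fun y hy y' hy' he => ?_)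
    · obtain ⟨a, b⟩ := mem_cls.1 (Finset.mem_coe.1 hy)
      exact Finset.mem_coe.2 (cfg0_hts.2 ⟨y, a, b, rfl⟩)
    · obtain ⟨a, b⟩ := mem_cls.1 (Finset.mem_coe.1 hy)
      obtain ⟨a', b'⟩ := mem_cls.1 (Finset.mem_coe.1 hy')
      refine sec_inj (hP.sub n a) (hP.sub n a') ?_
      unfold pc
      rw [b, b', he]
  gcongr

end Model

end Wnd

end Crest.Agent.R136.Qg926
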