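import Crest.Agent.R136.Qg6_926
import Crest.Agent.R136.Qg3b_926

/-!
# R136: from a tangent to a window and to a model (helper926)

* `WSt`, `WSt.Ok`, `WSt.Dens` : static data of a window, static conditions (legal set, density,
  Frostman exponent of the heights).
* `ZWin.exists_wnd` : a zoom window and a dense set of points give a window `W` with `W.Ok`.
* `exists_wnd` : the same from a network with a profile and a tangent (moving base points).
* `exists_rmodel` : tangent `lam` + static conditions give models `RModel` (one theorem).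
* `tightM M x` : monomials which are equalities at `x`; `tight_leg` : all `c` legal for them are
  legal directions at `x`.
* `dens_of_flags` : density condition for several level slots from the shading (height slot only)
  and "the flags cost nothing given the height".
-/

set_option autoImplicit false
set_option linter.unusedSectionVars false
set_option linter.unusedVariables false

open Filter Topology

namespace Crest.Agent.R136.Qg926

open Finset Crest.Agent.R138.Ex926 Crest.Agent.R136.Net191 Crest.Agent.R136.Gf356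

variable {m : ℕ} {ι : ℕ → Type*} [∀ n, DecidableEq (ι n)]

/-! ### static data -/

/-- static data of a window: level slots `S`, height slot `kz`, resolution `top`, normalising
constants `kap`, monomials kept `Mw`, box `R'` -/
structure WSt (m : ℕ) where
  S : Finset (Fin m)
  kz : Fin m
  top : Fin m → ℝ
  kap : Fin m → ℝ
  Mw : Mons m
  R' : ℝ

/-- static conditions (legal directions) -/
structure WSt.Ok (st : WSt m) (M : Mons m) (D : Set (Fin m → ℝ)) : Prop where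
  R0 : 0 ≤ st.R'
  leg : Leg st.Mw st.R' ⊆ D
  top_leg : st.top ∈ Leg st.Mw st.R'
  lin_leg : cut st.S st.top 0 ∈ Leg st.Mw st.R'
  lev_leg : cut st.S 0 st.top ∈ Leg st.Mw st.R'
  kzS : st.kz ∈ st.S
  kz0 : M.mon st.kz = ∅
  kzw : st.Mw.mon st.kz = ∅
  kap : ∀ s, 0 < st.kap s

/-- density: lines and heights are independent; Frostman exponent `σ` of the heights -/
structure WSt.Dens (st : WSt m) (lam : (Fin m → ℝ) → ℝ) (σ R : ℝ) : Prop where
  dens : lam st.top ≤ lam (cut st.S st.top 0) + lam (cut st.S 0 st.top)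
  σ0 : 0 ≤ σ
  σ1 : σ ≤ 1
  hR : R ≤ st.top st.kz
  frost : ∀ y, 0 ≤ y → y ≤ R → lam (Pi.single st.kz y) ≤ -(σ * y)

/-- the window with the static data `st` -/
def WSt.wnd (st : WSt m) (B B' : Base) (I J : ∀ n, Finset (ι n))
    (co : ∀ n, ι n → ι n → Fin m → ℝ) (M : Mons m) (C : ℝ) (X : ℕ → Fin m → ℝ) (w : ℕ → ℝ)
    (D : Set (Fin m → ℝ)) (T : ℕ → ℝ) (lam : (Fin m → ℝ) → ℝ) (Cl : ∀ n, Finset (ι n))
    (s₀ : ∀ n, ι n) : Wnd m ι where
  B := B
  B' := B'
  I := I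
  J := J
  co := co
  M := M
  C := C
  X := X
  w := w
  D := D
  T := T
  lam := lam
  Cl := Cl
  s₀ := s₀
  S := st.S
  kz := st.kz
  top := st.top
  kap := st.kap
  Mw := st.Mw
  R' := st.R'

section

variable {B B' : Base} {I J : ∀ n, Finset (ι n)} {co : ∀ n, ι n → ι n → Fin m → ℝ}
  {M : Mons m} {C : ℝ} {X : ℕ → Fin m → ℝ} {w : ℕ → ℝ} {D : Set (Fin m → ℝ)} {T : ℕ → ℝ}
  {lam : (Fin m → ℝ) → ℝ} {Cl : ∀ n, Finset (ι n)} {s₀ : ∀ n, ι n} {st : WSt m}

theorem WSt.Ok.wnd_ok (hst : st.Ok M D) (hc : ZCls B B' I J co M C X w D T lam Cl s₀) :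
    (st.wnd B B' I J co M C X w D T lam Cl s₀).Ok where
  cls := hc
  R0 := hst.R0
  leg := hst.leg
  top_leg := hst.top_leg
  lin_leg := hst.lin_leg
  lev_leg := hst.lev_leg
  kzS := hst.kzS
  kz0 := hst.kz0
  kzw := hst.kzw
  kap := hst.kap

/-- the profile of the models -/
theorem WSt.wnd_nu (p : Fin m → ℝ) : (st.wnd B B' I J co M C X w D T lam Cl s₀).nu p =
    lam (cut st.S p st.top) - lam st.top := rfl

/-- the legal set of the models -/
theorem WSt.mem_legW (p : Fin m → ℝ) :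
    p ∈ (st.wnd B B' I J co M C X w D T lam Cl s₀).legW ↔
      cut st.S p st.top ∈ Leg st.Mw st.R' ∧ ∀ s, s ∉ st.S → p s ≤ st.top s := Iff.rfl

/-- **from a zoom window to a window with classes** -/
theorem ZWin.exists_wnd (h : ZWin B B' I J co M C X w D T lam) (hst : st.Ok M D)
    (i₀ : ∀ n, ι n) {Gd E : ∀ n, Finset (ι n)}
    (hGd : ∀ᶠ n in (U : Filter ℕ), Gd n ⊆ J n) (hE : ∀ᶠ n in (U : Filter ℕ), E n ⊆ Gd n)
    {Sd : ℕ → ℝ} (hS : B'.Sub Sd)
    (hd : ∀ᶠ n in (U : Filter ℕ), ((J n).card : ℝ) ≤ Sd n * (E n).card) :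
    ∃ s₀ : ∀ n, ι n, (∀ᶠ n in (U : Filter ℕ), s₀ n ∈ E n) ∧
      (st.wnd B B' I J co M C X w D T lam
        (fun n => cls (Gd n) (zlab B I co M C X w n 0) (s₀ n)) s₀).Ok := by
  obtain ⟨s₀, h1, h2⟩ := h.exists_zcls i₀ hGd hE hS hd
  exact ⟨s₀, h1, hst.wnd_ok h2⟩

/-- **models in a window** -/
theorem WSt.Dens.model {σ R : ℝ} (hden : st.Dens lam σ R) {E : ∀ n, Finset (ι n)} {Mu : ℕ → ℝ}
    (hW : (st.wnd B B' I J co M C X w D T lam Cl s₀).Ok)
    (hE : Wnd.EOk (st.wnd B B' I J co M C X w D T lam Cl s₀) E Mu)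
    (ex : ℕ → ∀ n, ι n → ℕ) {g₀ : ℕ → ℝ} (hg₀ : Tendsto g₀ U atTop) :
    ∃ (E' : ∀ n, Finset (ι n)) (g : ℕ → ℝ),
      Wnd.Pruned (st.wnd B B' I J co M C X w D T lam Cl s₀) E E' g ex ∧
      (∀ᶠ n in (U : Filter ℕ), g n ≤ g₀ n) ∧
      RModel B' ((st.wnd B B' I J co M C X w D T lam Cl s₀).cfg E') σ R
        (st.wnd B B' I J co M C X w D T lam Cl s₀).legW
        (st.wnd B B' I J co M C X w D T lam Cl s₀).nu
        (st.wnd B B' I J co M C X w D T lam Cl s₀).Dc :=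
  Wnd.EOk.exists_model hW hE ex hg₀ hden.dens hden.σ0 hden.σ1 hden.hR hden.frost

end

/-- **from a profile and a tangent to windows** (moving base points `x`, scales `h`); `E ⊆ Gd ⊆ J`
dense in `J` -/
theorem exists_wnd {B : Base} {I J : ∀ n, Finset (ι n)} {co : ∀ n, ι n → ι n → Fin m → ℝ}
    {M : Mons m} {C R : ℝ} {ν : (Fin m → ℝ) → ℝ} (hN : NProf B I J co M C R ν)
    {x : ℕ → Fin m → ℝ} {h : ℕ → ℝ} (hpos : ∀ l, 0 < h l) {D : Set (Fin m → ℝ)}
    (h0 : (0 : Fin m → ℝ) ∈ D) {lam : (Fin m → ℝ) → ℝ} (htan : IsTan (Leg M R) D ν x h lam)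
    {st : WSt m} (hst : st.Ok M D) (s : ℕ → ℕ → ℝ) (hs : ∀ i, B.Sub (s i)) (i₀ : ∀ n, ι n)
    {Gd E : ∀ n, Finset (ι n)}
    (hGd : ∀ᶠ n in (U : Filter ℕ), Gd n ⊆ J n) (hE : ∀ᶠ n in (U : Filter ℕ), E n ⊆ Gd n)
    {Sd : ℕ → ℝ} (hS : B.Sub Sd)
    (hd : ∀ᶠ n in (U : Filter ℕ), ((J n).card : ℝ) ≤ Sd n * (E n).card) :
    ∃ k : ℕ → ℕ, Tendsto k U atTop ∧ ∀ k' : ℕ → ℕ, Tendsto k' U atTop →
      (∀ᶠ n in (U : Filter ℕ), k' n ≤ k n) → ∃ (B' : Base) (s₀ : ∀ n, ι n),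
        (∀ n, B'.d n = B.d n ^ h (k' n)) ∧ (∀ n, B'.L n = h (k' n) * B.L n) ∧
        (∀ i, B'.Sub (s i)) ∧ (∀ᶠ n in (U : Filter ℕ), s₀ n ∈ E n) ∧
        (st.wnd B B' I J co M C (fun n => x (k' n)) (fun n => h (k' n)) D
          (fun n => B.d n ^ (-(ν (x (k' n))))) lam
          (fun n => cls (Gd n) (zlab B I co M C (fun n => x (k' n)) (fun n => h (k' n)) n 0)
            (s₀ n)) s₀).Ok := by
  obtain ⟨k, hk, hk2⟩ := exists_zwin hN hpos h0 htan
    (fun i => Nat.casesOn i Sd s) (fun i => by cases i with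
      | zero => exact hS
      | succ i => exact hs i)
  refine ⟨k, hk, fun k' hk' hle => ?_⟩
  obtain ⟨B', b1, b2, b3, b4⟩ := hk2 k' hk' hle
  obtain ⟨s₀, c1, c2⟩ := b4.exists_wnd hst i₀ hGd hE (b3 0) hd
  exact ⟨B', s₀, b1, b2, fun i => b3 (i + 1), c1, c2⟩

/-- **from a tangent to models**, one theorem: `Gd = E = J` -/
theorem exists_rmodel {B : Base} {I J : ∀ n, Finset (ι n)} {co : ∀ n, ι n → ι n → Fin m → ℝ}
    {M : Mons m} {C R : ℝ} {ν : (Fin m → ℝ) → ℝ} (hN : NProf B I J co M C R ν)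
    {x : ℕ → Fin m → ℝ} {h : ℕ → ℝ} (hpos : ∀ l, 0 < h l) {D : Set (Fin m → ℝ)}
    (h0 : (0 : Fin m → ℝ) ∈ D) {lam : (Fin m → ℝ) → ℝ} (htan : IsTan (Leg M R) D ν x h lam)
    {st : WSt m} (hst : st.Ok M D) {σ Rr : ℝ} (hden : st.Dens lam σ Rr)
    (s : ℕ → ℕ → ℝ) (hs : ∀ i, B.Sub (s i)) (i₀ : ∀ n, ι n) :
    ∃ k : ℕ → ℕ, Tendsto k U atTop ∧ ∀ k' : ℕ → ℕ, Tendsto k' U atTop →
      (∀ᶠ n in (U : Filter ℕ), k' n ≤ k n) → ∃ W : Wnd m ι,
        W.Ok ∧ W.B = B ∧ W.I = I ∧ W.J = J ∧ W.co = co ∧ W.M = M ∧ W.C = C ∧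
        (W.X = fun n => x (k' n)) ∧ (W.w = fun n => h (k' n)) ∧ W.D = D ∧ W.lam = lam ∧
        W.S = st.S ∧ W.kz = st.kz ∧ W.top = st.top ∧ W.kap = st.kap ∧ W.Mw = st.Mw ∧
        W.R' = st.R' ∧ (W.T = fun n => B.d n ^ (-(ν (x (k' n))))) ∧
        (∀ n, W.B'.d n = B.d n ^ h (k' n)) ∧ (∀ n, W.B'.L n = h (k' n) * B.L n) ∧
        (∀ i, W.B'.Sub (s i)) ∧
        ∀ (E : ∀ n, Finset (ι n)) (Mu : ℕ → ℝ), Wnd.EOk W E Mu →
          ∀ (ex : ℕ → ∀ n, ι n → ℕ) (g₀ : ℕ → ℝ), Tendsto g₀ U atTop →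
          ∃ (E' : ∀ n, Finset (ι n)) (g : ℕ → ℝ), Wnd.Pruned W E E' g ex ∧
            (∀ᶠ n in (U : Filter ℕ), g n ≤ g₀ n) ∧
            RModel W.B' (W.cfg E') σ Rr W.legW W.nu W.Dc := by
  obtain ⟨k, hk, hk2⟩ := exists_wnd hN hpos h0 htan hst s hs i₀ (Gd := J) (E := J)
    (Eventually.of_forall fun n => Subset.refl _) (Eventually.of_forall fun n => Subset.refl _)
    (Sd := fun _ => 1) (Base.Sub.const one_pos) (Eventually.of_forall fun n => by rw [one_mul])
  refine ⟨k, hk, fun k' hk' hle => ?_⟩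
  obtain ⟨B', s₀, b1, b2, b3, b4, b5⟩ := hk2 k' hk' hle
  refine ⟨_, b5, rfl, rfl, rfl, rfl, rfl, rfl, rfl, rfl, rfl, rfl, rfl, rfl, rfl, rfl, rfl, rfl,
    rfl, b1, b2, b3, ?_⟩
  intro E Mu hE ex g₀ hg₀
  exact hden.model b5 hE ex hg₀

/-! ### tight monomials -/

open Classical in
/-- the monomials which are equalities at `x` -/
noncomputable def tightM (M : Mons m) (x : Fin m → ℝ) : Mons m where
  mon k := (M.mon k).filter fun e => x k = ∑ s, (e s : ℝ) * x s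
  low := fun k e he => M.low k e (mem_filter.1 he).1
  ne := fun k e he => M.ne k e (mem_filter.1 he).1

theorem mem_tightM {M : Mons m} {x : Fin m → ℝ} {k : Fin m} {e : Fin m → ℕ} :
    e ∈ (tightM M x).mon k ↔ e ∈ M.mon k ∧ x k = ∑ s, (e s : ℝ) * x s := by
  unfold tightM
  rw [mem_filter]

theorem tightM_empty {M : Mons m} {x : Fin m → ℝ} {k : Fin m} (h : M.mon k = ∅) :
    (tightM M x).mon k = ∅ := by
  ext e
  rw [mem_tightM, h]
  simp

/-- monomials kept in the window: all those of `M` which are equalities at `x` -/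
def Keeps (M Mw : Mons m) (x : Fin m → ℝ) : Prop :=
  ∀ k, ∀ e ∈ M.mon k, x k = ∑ s, (e s : ℝ) * x s → e ∈ Mw.mon k

theorem keeps_tightM (M : Mons m) (x : Fin m → ℝ) : Keeps M (tightM M x) x :=
  fun k e he hx => mem_tightM.2 ⟨he, hx⟩

/-- **legal directions at a natural point**: every `c` legal for the tight monomials is a legal
direction at `x` -/
theorem tight_leg {M Mw : Mons m} {x : Fin m → ℝ} (hk : Keeps M Mw x) (hx : Legal M x) {R : ℝ}
    (hR : ∀ s, x s < R) {R' : ℝ} (hR0 : 0 ≤ R') : ∃ h0 : ℝ, 0 < h0 ∧ ∀ h, 0 ≤ h → h ≤ h0 →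
      ∀ c ∈ Leg Mw R', x + h • c ∈ Leg M R := by
  have h1 : ∀ᶠ h in 𝓝 (0 : ℝ), (∀ s, x s + |h| * R' < R) ∧
      ∀ k, ∀ e ∈ M.mon k, x k ≠ ∑ s, (e s : ℝ) * x s →
        x k + |h| * R' < ∑ s, (e s : ℝ) * x s := by
    have hc : ∀ a : ℝ, Tendsto (fun h : ℝ => a + |h| * R') (𝓝 0) (𝓝 a) := by
      intro a
      have : Tendsto (fun h : ℝ => a + |h| * R') (𝓝 0) (𝓝 (a + |(0 : ℝ)| * R')) :=
        (tendsto_const_nhds).add ((continuous_abs.tendsto 0).mul_const R')
      simpa using this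
    refine (Filter.eventually_all.2 fun s => (hc (x s)).eventually_lt_const (hR s)).and ?_
    refine Filter.eventually_all.2 fun k => ?_
    rw [Filter.eventually_all_finset]
    intro e he
    by_cases hxe : x k = ∑ s, (e s : ℝ) * x s
    · exact Eventually.of_forall fun h hne => absurd hxe hne
    · have hlt : x k < ∑ s, (e s : ℝ) * x s := lt_of_le_of_ne (hx.wall k e he) hxe
      exact ((hc (x k)).eventually_lt_const hlt).mono fun h hh _ => hh
  obtain ⟨δ, hδ, hδ2⟩ := Metric.eventually_nhds_iff.1 h1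
  refine ⟨δ / 2, by positivity, fun h hh0 hhδ c hc => ?_⟩
  obtain ⟨g1, g2⟩ := hδ2 (y := h) (by
    rw [Real.dist_eq, sub_zero, abs_of_nonneg hh0]; linarith)
  rw [abs_of_nonneg hh0] at g1 g2
  have hcs : ∀ s, h * c s ≤ h * R' := fun s => mul_le_mul_of_nonneg_left (hc.2 s) hh0
  have hc0 : ∀ s, 0 ≤ h * c s := fun s => mul_nonneg hh0 (hc.1.nonneg s)
  have hsum : ∀ e : Fin m → ℕ, ∑ s, (e s : ℝ) * (x + h • c) s =
      ∑ s, (e s : ℝ) * x s + h * ∑ s, (e s : ℝ) * c s := by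
    intro e
    rw [mul_sum, ← sum_add_distrib]
    refine sum_congr rfl fun s _ => ?_
    simp only [Pi.add_apply, Pi.smul_apply, smul_eq_mul]; ring
  refine ⟨⟨fun k => ?_, fun k e he => ?_⟩, fun k => ?_⟩
  · simp only [Pi.add_apply, Pi.smul_apply, smul_eq_mul]
    have := hx.nonneg k
    have := hc0 k
    linarith
  · rw [hsum]
    simp only [Pi.add_apply, Pi.smul_apply, smul_eq_mul]
    by_cases hxe : x k = ∑ s, (e s : ℝ) * x s
    · have h3 := mul_le_mul_of_nonneg_left (hc.1.wall k e (hk k e he hxe)) hh0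
      linarith
    · have h3 := g2 k e he hxe
      have h4 : 0 ≤ h * ∑ s, (e s : ℝ) * c s :=
        mul_nonneg hh0 (sum_nonneg fun s _ => mul_nonneg (Nat.cast_nonneg _) (hc.1.nonneg s))
      have := hcs k
      linarith
  · simp only [Pi.add_apply, Pi.smul_apply, smul_eq_mul]
    have := g1 k
    have := hcs k
    linarith

/-! ### the density condition with several level slots -/

/-- **density with flags as level slots**: shading for the height slot alone (flags of `S` at `0`)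
and flags cost nothing given the height -/
theorem dens_of_flags {S : Finset (Fin m)} {kz : Fin m} (hkz : kz ∈ S) {top : Fin m → ℝ}
    (htop : ∀ s, 0 ≤ top s) {D : Set (Fin m → ℝ)} {lam : (Fin m → ℝ) → ℝ}
    (anti : ∀ c ∈ D, ∀ c' ∈ D, c ≤ c' → lam c' ≤ lam c)
    (hD : top ∈ D) (hD1 : cut (S.erase kz) top 0 ∈ D)
    (hsh : lam (cut (S.erase kz) top 0) ≤ lam (cut S top 0) + lam (Pi.single kz (top kz)))
    (hfl : lam (Pi.single kz (top kz)) ≤ lam (cut S 0 top)) :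
    lam top ≤ lam (cut S top 0) + lam (cut S 0 top) := by
  have h1 : cut (S.erase kz) top 0 ≤ top := by
    intro s
    unfold cut
    split_ifs
    · exact htop s
    · exact le_rfl
  have h2 := anti _ hD1 _ hD h1
  linarith

theorem cut_single {S : Finset (Fin m)} {kz : Fin m} {top : Fin m → ℝ} :
    cut {kz} 0 top = Pi.single kz (top kz) := by
  funext s
  unfold cut
  by_cases hs : s = kz
  · subst hs; simp
  · rw [if_neg (by simpa using hs), Pi.single_eq_of_ne hs]; rfl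

end Crest.Agent.R136.Qg926
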