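import Crest.Agent.R136.Lq1_196
import Crest.Agent.R138.L15A_196
import Crest.Agent.R138.Comb_628
import Crest.Agent.R138.Cont_627
import Crest.Agent.R138.MkZoom_779

/-!
# R136, leaf L15 of `ℝ⁴` (helper196), part 2: tools

* `near_labels` : few labels in a slightly larger box;
* `prod_QFam`   : (line, label) is a quasi-nested family;
* counts of cells of one line.
-/

set_option autoImplicit false
set_option linter.unusedVariables false
set_option linter.unusedSectionVars false

open Finset Filter Topology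

namespace Crest.Agent.R136.Lq196

open Crest.Agent.R138.Ex926
open Crest.Agent.R138.Mk163 (zc zl rho alive)
open Crest.Agent.R138.MkRef627 (lc kc own_one)
open Crest.Agent.R138.Dp76 (Dense)
open Crest.Agent.R138.Dp76 (dpow_pos dpow_add dpow_le)
open Crest.Agent.R136.MkA627
open Crest.Agent.R136.Net191

variable {m : ℕ}

/-- sum of the weights -/
noncomputable def WS (M : Mons m) : ℝ := ∑ k, wg M k

theorem WS_nonneg (M : Mons m) : 0 ≤ WS M :=
  Finset.sum_nonneg fun k _ => by linarith [wg_one M k]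

section lab

variable {B : Base} {ι : ℕ → Type*} [∀ n, DecidableEq (ι n)] {I : ∀ n, Finset (ι n)}
    {co : ∀ n, ι n → ι n → Fin m → ℝ} {M : Mons m} {C R : ℝ}

open Classical in
/-- few labels of exponents `p` among the points which are `d^(p - η)`-near and `1`-near -/
theorem near_labels (h : ∀ n, Chart (I n) (co n) M C) (hR : 0 ≤ R) {p : Fin m → ℝ}
    (hp : p ∈ Leg M R) {η : ℝ} (hη : 0 ≤ η) {n : ℕ} {x : ι n} (hx : x ∈ I n)
    (S : Finset (ι n)) (hS : S ⊆ I n)
    (h1 : ∀ y ∈ S, ∀ k, |co n x y k| ≤ B.d n ^ (p k - η) ∧ |co n x y k| ≤ 1) :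
    ((S.image (nlab B I co M C n p)).card : ℝ) ≤ cN M C 1 * B.d n ^ (-(WS M * η)) := by
  have hq := lowp_mem (M := M) hR hη hp
  have hqp : lowp M η p ≤ p := by
    intro k
    refine max_le ?_ (hp.1.nonneg k)
    have := mul_nonneg (by linarith [wg_one M k] : 0 ≤ wg M k) hη
    linarith
  have h2 := card_nlab_le (B := B) h (n := n) hq.1 hp.1 hqp (K := 1) le_rfl hx
  have hsub : S.image (nlab B I co M C n p) ⊆ ((I n).filter fun j =>
      Near (co n) (B.d n) (lowp M η p) 1 x j).image (nlab B I co M C n p) := by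
    refine image_subset_image fun y hy => mem_filter.2 ⟨hS hy, fun k => ?_⟩
    obtain ⟨a1, a2⟩ := h1 y hy k
    rw [one_mul]
    by_cases hc : p k - wg M k * η ≤ 0
    · have : lowp M η p k = 0 := max_eq_right hc
      rw [this, Real.rpow_zero]
      exact a2
    · have e1 : lowp M η p k = p k - wg M k * η := max_eq_left (by linarith)
      rw [e1]
      refine a1.trans (dpow_le B n ?_)
      have : η ≤ wg M k * η := le_mul_of_one_le_left hη (wg_one M k)
      linarith
  have h3 : ((S.image (nlab B I co M C n p)).card : ℝ) ≤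
      ((((I n).filter fun j => Near (co n) (B.d n) (lowp M η p) 1 x j).image
        (nlab B I co M C n p)).card : ℝ) := by exact_mod_cast card_le_card hsub
  refine h3.trans (h2.trans ?_)
  refine mul_le_mul_of_nonneg_left ?_ (cN_pos M (h 0).C0 le_rfl).le
  refine dpow_le B n ?_
  have : ∑ k, (p k - lowp M η p k) ≤ WS M * η := by
    unfold WS
    rw [sum_mul]
    refine sum_le_sum fun k _ => ?_
    have := le_max_left (p k - wg M k * η) 0
    unfold lowp
    linarith
  linarith

/-- (line, label) is a quasi-nested family -/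
theorem prod_QFam {κ : ℕ → Type*} [∀ n, DecidableEq (κ n)] {f : ∀ n, (Fin m → ℝ) → ι n → κ n}
    {K : ℝ} {P : Set (Fin m → ℝ)} (h : QFam B I f K P) (line : ∀ n, ι n → ℕ) :
    QFam B I (fun n p x => (line n x, f n p x)) K P where
  nest := by
    obtain ⟨N, hN, h1⟩ := h.nest
    refine ⟨N, hN, ?_⟩
    filter_upwards [h1] with n hn p hp p' hp' hpp i hi
    refine le_trans ?_ (hn p hp p' hp' hpp i hi)
    have hs : (two (I n) (fun x => (line n x, f n p x)) (fun x => (line n x, f n p' x)) i).image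
        (fun x => (line n x, f n p x)) ⊆
        ((two (I n) (f n p) (f n p') i).image (f n p)).image fun c => (line n i, c) := by
      intro c hc
      obtain ⟨z, hz, rfl⟩ := mem_image.1 hc
      obtain ⟨z1, y, y1, y2, y3⟩ := mem_two.1 hz
      simp only [Prod.mk.injEq] at y2 y3
      refine mem_image.2 ⟨f n p z, mem_image_of_mem _ (mem_two.2 ⟨z1, y, y1, y2.2, y3.2⟩), ?_⟩
      rw [y3.1, y2.1]
    exact_mod_cast (card_le_card hs).trans card_image_le
  child := by
    intro ε hε
    filter_upwards [h.child ε hε] with n hn p hp p' hp' hpp i hi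
    refine le_trans ?_ (hn p hp p' hp' hpp i hi)
    have hs : (cls (I n) (fun x => (line n x, f n p x)) i).image (fun x => (line n x, f n p' x)) ⊆
        ((cls (I n) (f n p) i).image (f n p')).image fun c => (line n i, c) := by
      intro c hc
      obtain ⟨z, hz, rfl⟩ := mem_image.1 hc
      obtain ⟨z1, z2⟩ := mem_cls.1 hz
      simp only [Prod.mk.injEq] at z2
      refine mem_image.2 ⟨f n p' z, mem_image_of_mem _ (mem_cls.2 ⟨z1, z2.2⟩), ?_⟩
      rw [z2.1]
    exact_mod_cast (card_le_card hs).trans card_image_le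

end lab

section mk

variable {σ κ : Type*} {B : Base} {I : ℕ → Finset (ℕ × ℝ)} {G : Geo σ κ} {lev : ℕ → ℚ → ℕ}
    {A : ℕ → ℝ} {g s : ℝ} {τ : κ → ℝ → ℝ} {f : ℕ → ℚ → ℕ → ℤ → ℕ} {b : ℕ → ℚ → ℕ → σ}
    {vm : ℕ → ℚ → ℝ} {w : κ → ℕ → ℚ → ℝ}

theorem s_bounds (h : MkA B I G lev A (fun v => g * v) (fun v => s * v) τ f b vm w) :
    0 ≤ s ∧ s ≤ 1 := by
  have := h.lam 0 1 le_rfl zero_le_one le_rfl
  simp only [mul_one, mul_zero, sub_zero] at this
  exact this

open Classical in
/-- own counts of incidences -/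
theorem fibq (h : MkA B I G lev A (fun v => g * v) (fun v => s * v) τ f b vm w) {v : ℚ}
    (hv0 : 0 ≤ v) (hv1 : v ≤ 1) {ε : ℝ} (hε : 0 < ε) :
    ∀ᶠ n in (U : Filter ℕ), ∀ x ∈ I n,
      B.d n ^ (-((1 - s) * (1 - v)) + ε) ≤
        (((I n).filter fun y => lc (lev n v) y = lc (lev n v) x).card : ℝ) ∧
      (((I n).filter fun y => lc (lev n v) y = lc (lev n v) x).card : ℝ) ≤
        B.d n ^ (-((1 - s) * (1 - v) + ε)) := by
  filter_upwards [fib_bounds h v hv0 hv1 hε] with n hn x hx
  obtain ⟨h1, h2⟩ := hn x hx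
  have e1 : -(1 - (v : ℝ)) + (s * 1 - s * v) + ε = -((1 - s) * (1 - v)) + ε := by ring
  have e2 : -(1 - (v : ℝ)) + (s * 1 - s * v) - ε = -((1 - s) * (1 - v) + ε) := by ring
  rw [e1] at h1
  rw [e2] at h2
  exact ⟨h1, h2⟩

open Classical in
/-- own counts between two levels -/
theorem ownq (h : MkA B I G lev A (fun v => g * v) (fun v => s * v) τ f b vm w) {u v : ℚ}
    (hu0 : 0 ≤ u) (huv : u ≤ v) (hv1 : v ≤ 1) {ε : ℝ} (hε : 0 < ε) :
    ∀ᶠ n in (U : Filter ℕ), ∀ x ∈ I n,
      ((((I n).filter fun y => lc (lev n u) y = lc (lev n u) x).image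
        (fun y => zc (lev n v) y.2)).card : ℝ) ≤ B.d n ^ (-((1 - s) * (v - u) + ε)) := by
  filter_upwards [h.own u v hu0 huv hv1 ε hε] with n hn x hx
  have h2 := (hn x hx).2
  have e2 : -((v : ℝ) - u) + (s * v - s * u) - ε = -((1 - s) * (v - u) + ε) := by ring
  rw [e2] at h2
  refine le_trans (le_of_eq ?_) h2
  unfold Crest.Agent.R138.Mk163.own
  have : ((I n).filter fun y => lc (lev n u) y = lc (lev n u) x) =
      (I n).filter fun y => y.1 = x.1 ∧ zc (lev n u) y.2 = zc (lev n u) x.2 := by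
    ext y
    simp only [mem_filter, lc, Prod.mk.injEq]
  rw [this]

open Classical in
/-- the incidence count of a marked class -/
theorem kc_lower (h : MkA B I G lev A (fun v => g * v) (fun v => s * v) τ f b vm w) {u : ℚ}
    (hu0 : 0 ≤ u) (hu1 : u ≤ 1) {ε : ℝ} (hε : 0 < ε) :
    ∀ᶠ n in (U : Filter ℕ), ∀ x ∈ I n,
      B.d n ^ ε * (ampA B A (fun v => g * v) n u * vm n u * B.d n ^ (-((1 - s) * (1 - u)))) ≤
        (((I n).filter fun y => kc (lev n u) (f n u) y = kc (lev n u) (f n u) x).card : ℝ) := by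
  have hε2 : 0 < ε / 2 := by positivity
  filter_upwards [h.near u hu0 hu1 _ hε2, fibq h hu0 hu1 hε2] with n h1 h2 x hx
  set J := zc (lev n u) x.2 with hJ
  have hal : x.1 ∈ alive (I n) (lev n u) J :=
    Crest.Agent.R138.MkRef627.mem_alive.2 ⟨x, hx, rfl, rfl⟩
  have h3 := h1 J x.1 hal
  set a : ℕ := f n u x.1 J with ha
  have kI : ((I n).filter fun y => kc (lev n u) (f n u) y = kc (lev n u) (f n u) x) =
      (I n).filter fun y => (lc (lev n u) y).2 = J ∧ f n u (lc (lev n u) y).1 J = a := by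
    ext y
    rw [mem_filter, mem_filter]
    simp only [kc, lc, Prod.mk.injEq, ← hJ, ← ha]
    constructor
    · rintro ⟨h5, h6, h7⟩
      exact ⟨h5, h7, by rw [← h7]; exact h6⟩
    · rintro ⟨h5, h7, h6⟩
      exact ⟨h5, by rw [h7]; exact h6, h7⟩
  set m₁ : ℝ := B.d n ^ (-((1 - s) * (1 - (u : ℝ))) + ε / 2) with hm₁
  have p1 : m₁ * (((alive (I n) (lev n u) J).filter fun t => f n u t J = a).card : ℝ) ≤
      (((I n).filter fun y => kc (lev n u) (f n u) y = kc (lev n u) (f n u) x).card : ℝ) := by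
    rw [Crest.Agent.R138.MkRef627.card_class (I n) (lev n u) J (fun t => f n u t J) a, kI]
    have := Crest.Agent.R138.Ps627.mul_card_filter_le (n₁ := m₁) (lc (lev n u)) (I n)
      (fun o => o.2 = J ∧ f n u o.1 J = a) (fun y hy => by convert (h2 y hy).1)
    convert this
  refine le_trans ?_ p1
  have hm : 0 < m₁ := dpow_pos B n _
  have e1 : B.d n ^ ε * (ampA B A (fun v => g * v) n u * vm n u *
      B.d n ^ (-((1 - s) * (1 - (u : ℝ))))) =
      m₁ * (B.d n ^ (ε / 2) * (ampA B A (fun v => g * v) n u * vm n u)) := by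
    have : B.d n ^ ε = B.d n ^ (ε / 2) * B.d n ^ (ε / 2) := by rw [← dpow_add]; congr 1; ring
    rw [this, hm₁, dpow_add]
    ring
  rw [e1]
  refine mul_le_mul_of_nonneg_left ?_ hm.le
  have h4 := mul_le_mul_of_nonneg_left h3 (dpow_pos B n (ε / 2)).le
  refine h4.trans (le_of_eq ?_)
  rw [← mul_assoc, ← dpow_add]
  have : ε / 2 + -(ε / 2) = 0 := by ring
  rw [this, Real.rpow_zero, one_mul]

/-- number of cells of level `v` in the cell of level `0` -/
theorem cells_le (h : MkA B I G lev A (fun v => g * v) (fun v => s * v) τ f b vm w) {v : ℚ}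
    (hv0 : 0 ≤ v) (hv1 : v ≤ 1) {ε : ℝ} (hε : 0 < ε) :
    ∀ᶠ n in (U : Filter ℕ), (((I n).image fun y => zc (lev n v) y.2).card : ℝ) ≤
      B.d n ^ (-((v : ℝ) + ε)) := by
  have h1 := h.lev_lim 0 v le_rfl hv0 hv1
  rw [Rat.cast_zero, sub_zero] at h1
  have h2 : ∀ᶠ n in (U : Filter ℕ), ((lev n v : ℝ) - lev n 0) * Real.log 2 / B.L n < v + ε :=
    (tendsto_order.1 h1).2 _ (by linarith)
  filter_upwards [h2, h.cell0, h.lev_mono 0 v le_rfl hv0 hv1] with n a1 a2 a3
  have hL := B.L_pos n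
  rcases (I n).eq_empty_or_nonempty with he | ⟨x0, hx0⟩
  · rw [he, image_empty, card_empty, Nat.cast_zero]
    exact (dpow_pos B n _).le
  set N : ℕ := 2 ^ (lev n v - lev n 0) with hN
  have hNpos : 0 < N := by positivity
  set c0 : ℤ := zc (lev n 0) x0.2 with hc0
  have hsub : ((I n).image fun y => zc (lev n v) y.2) ⊆ Finset.Ico (c0 * N) (c0 * N + N) := by
    intro c hc
    obtain ⟨y, hy, rfl⟩ := mem_image.1 hc
    have h4 := a2 y hy x0 hx0
    rw [← hc0, Crest.Agent.R138.MkZoom779.zc_eq a3] at h4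
    have h5 : (0 : ℤ) < ((N : ℕ) : ℤ) := by exact_mod_cast hNpos
    have h6 := Int.emod_add_mul_ediv (zc (lev n v) y.2) ((N : ℕ) : ℤ)
    have h7 := Int.emod_nonneg (zc (lev n v) y.2) h5.ne'
    have h8 := Int.emod_lt_of_pos (zc (lev n v) y.2) h5
    rw [Finset.mem_Ico]
    rw [h4] at h6
    constructor
    · linarith [mul_comm c0 (N : ℤ)]
    · linarith [mul_comm c0 (N : ℤ)]
  have h5 := card_le_card hsub
  rw [Int.card_Ico] at h5
  have h6 : (c0 * N + N - c0 * N).toNat = N := by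
    rw [add_sub_cancel_left]; exact Int.toNat_natCast N
  rw [h6] at h5
  have h7 : (((I n).image fun y => zc (lev n v) y.2).card : ℝ) ≤ (N : ℝ) := by exact_mod_cast h5
  refine h7.trans ?_
  rw [hN]
  push_cast
  rw [Crest.Agent.R138.L15.two_pow_eq, ← B.exp_eq, Real.exp_le_exp]
  rw [div_lt_iff₀ hL] at a1
  rw [Nat.cast_sub a3]
  exact a1.le

end mk

end Crest.Agent.R136.Lq196
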