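import Crest.Agent.R136.Cuu2_57

/-!
# R136, PLAN 2 (AL): closeness is transported along `U t - V t - U t'` (helper57)

* `one_step`   : a point near the sheet `S`, near `T`, is near the second sheet `S'`;
* `close_small`: two steps, points of `U` very near `t`;
* `close_uu`   : closeness of `U` and `R = U t'` around `t` (eighth of the base box);
* `val_uu`     : the value of `R.q` at a point of `t` where `t`, `t'` are near.
-/

set_option autoImplicit false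

namespace Crest.Agent.R136.Cuu57

open Crest.Agent.R136.Sh605 Crest.Agent.R136.Tl102
open Crest.Agent.R136.K4 (Plk4)
open Crest.Agent.R136.Tlt51 (Shp InP)
open Crest.Agent.R136.Deep51 (CloseC dt_exp)
open Crest.Agent.R136.Rk601 (Jt dp qf)
open Crest.Agent.R136.Adj214 (cx ev JB KD KD_pos KD_one divide)
open Crest.Agent.R136.KapP335 (kapP expP kapP_eq expP_spec expP_eq)

theorem wpos {S : Plk4} {z0 ρ r : ℝ} (hr : 0 < r) (hS : Shp S z0 ρ r) :
    0 < S.a ∧ 0 < S.w 0 ∧ 0 < S.w 1 ∧ 0 < S.w 2 ∧ (∀ k, 0 < S.w k) ∧ S.w 0 ≤ S.w 1 := by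
  have h0 : 0 < S.a := hr.trans_le hS.r0_le
  have h1 : 0 < S.w 0 := h0.trans_le hS.a_le0
  have h2 : 0 < S.w 2 := h1.trans_le hS.w0_le
  have h3 : 0 < S.w 1 := h2.trans_le hS.w_le
  refine ⟨h0, h1, h3, h2, fun k => ?_, hS.w0_le.trans hS.w_le⟩
  fin_cases k
  · exact h1
  · exact h3
  · exact h2

/-- **one step** -/
theorem one_step {S S' : Plk4} {T : Ln4} {z0 ρ r W Λ : ℝ} (hr : 0 < r) (hρ : 0 < ρ) (hW : 1 ≤ W)
    (hS : Shp S z0 ρ r) (hS' : Shp S' z0 ρ r) (hT : InP T S z0 ρ) (hT' : InP T S' z0 ρ)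
    (hk : 10 ^ 6 * S.a ≤ kapP S z0 ρ T) (hC : CloseC S.e S.w S.q S.a S'.q Λ T z0 ρ)
    (hΛ : 0 ≤ Λ) (hΛk : Λ ≤ 2 * W * kapP S z0 ρ T) {z : ℝ} (hz : z0 ≤ z) (hz' : z ≤ z0 + ρ)
    {X : V3} (hX : InK S.e S.c (dbl3 S.w) z X) {s A0 M : ℝ} (hs : s ≤ 1 / 8)
    (h1 : |dt (S.e 1) (X - T.pos z)| ≤ s * S.w 1) (h2 : |dt (S.e 2) (X - T.pos z)| ≤ s * S.w 2)
    (hA : |S.q z X| ≤ A0) (hM : 512 * ((A0 + S.a) / kapP S z0 ρ T) + 1280 * s ≤ M) (hM1 : M ≤ 1) :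
    |S'.q z X| ≤ 2000 * KD * W * (A0 + S.a) + S'.a + 12 * (KD * Λ) * M ∧
    ∀ s' : ℝ, |dt (S'.e 1) (X - T.pos z)| ≤ s' * S'.w 1 →
      |dt (S'.e 2) (X - T.pos z)| ≤ s' * S'.w 2 →
      |dt (S'.e 0) (X - T.pos z)| ≤ 2 * (2000 * KD * W * kapP S z0 ρ T * M + 3 * (KD * Λ) * M +
        2 * s' * S'.w 0) := by
  obtain ⟨ζ, hζ, hζ', rfl⟩ := height_exists hρ hz hz'
  obtain ⟨a0, w0, w1, w2, wp, w01⟩ := wpos hr hS
  obtain ⟨a0', w0', w1', w2', wp', w01'⟩ := wpos hr hS'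
  have SP := StP.of_shN hS w0
  have SP' := StP.of_shN hS' w0'
  have KDp := KD_pos
  have KD1 := KD_one
  obtain ⟨b0, b1, G, hE⟩ := exists_isExp hS.isQ S.e w0.ne' T z0 ρ
  obtain ⟨d0, d1, Hq, hH⟩ := exists_isExp hS'.isQ S'.e w0'.ne' T z0 ρ
  have N := hE.nrmC SP hρ.le (fun z h1 h2 => (hT z h1 h2).1)
  have N' := hH.nrmC SP' hρ.le (fun z h1 h2 => (hT' z h1 h2).1)
  have ek : kapP S z0 ρ T = S.w 0 * kap b0 b1 G := kapP_eq w0.ne' hE
  rw [ek] at hk hΛk hM ⊢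
  have hwk : 0 < S.w 0 * kap b0 b1 G := by
    have : 0 < 10 ^ 6 * S.a := by positivity
    linarith
  have hκ : 0 < kap b0 b1 G := (pos_iff_pos_of_mul_pos hwk).1 w0
  obtain ⟨μ, c', D, hD, hid⟩ := divide hS a0 hρ.le hT hE hk hS'.isQ hC
  have hA0 : 0 ≤ A0 := (abs_nonneg _).trans hA
  have hTq := (hT (z0 + ρ * ζ) hz hz').2
  have hTq' := (hT' (z0 + ρ * ζ) hz hz').2
  have hs0 : 0 ≤ s := by
    have := (abs_nonneg _).trans h1
    by_contra hc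
    push Not at hc
    nlinarith
  obtain ⟨y, u, v, hXc, hu, hv, hy⟩ := pt_chart SP hρ.le (fun z h1 h2 => (hT z h1 h2).1) hE hκ hζ hζ'
    hX hs h1 h2 (A := A0 + S.a) (add_le_add hA hTq)
  have hq0 : 0 ≤ (A0 + S.a) / (S.w 0 * kap b0 b1 G) := by positivity
  have yM : |y| ≤ M := hy.trans hM
  have uM : |u| ≤ M := by linarith
  have vM : |v| ≤ M := by linarith
  have M0 : 0 ≤ M := (abs_nonneg _).trans yM
  have hζa : |ζ| ≤ 1 := by rw [abs_of_nonneg hζ]; exact hζ'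
  have hμ : |μ| ≤ 2000 * KD * W := by
    have h3 := mu_le hS.ortho hS'.ortho wp wp' w01' hS'.w0_le hS'.isQ N N' hκ hE hH hid hD
    have h4 : KD * Λ / (S.w 0 * kap b0 b1 G) ≤ 2 * (KD * W) := by
      rw [div_le_iff₀ hwk]
      calc KD * Λ ≤ KD * (2 * W * (S.w 0 * kap b0 b1 G)) := mul_le_mul_of_nonneg_left hΛk KDp.le
        _ = _ := by ring
    have h5 : 1 ≤ KD * W := by nlinarith
    linarith
  have hKΛ : 0 ≤ KD * Λ := mul_nonneg KDp.le hΛ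
  constructor
  · have h3 := val_of_div hid hD hζa M0 hM1 yM uM vM
    rw [← hXc] at h3
    have h4 : |μ| * (|S.q (z0 + ρ * ζ) X| + |S.q (z0 + ρ * ζ) (T.pos (z0 + ρ * ζ))|) ≤
        2000 * KD * W * (A0 + S.a) :=
      mul_le_mul hμ (add_le_add hA hTq) (by positivity) (by positivity)
    linarith
  · intro s' g1 g2
    have h3 := e0_le hS.ortho hS'.ortho wp wp' hS'.isQ N N' hE hH hid hD yM uM vM hXc g1 g2
    have h4 : |μ| * (S.w 0 * kap b0 b1 G) * M ≤ 2000 * KD * W * (S.w 0 * kap b0 b1 G) * M :=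
      mul_le_mul_of_nonneg_right (mul_le_mul_of_nonneg_right hμ hwk.le) M0
    linarith

/-- the configuration of one step `U t - V t - U t'` -/
structure Uu (U V R : Plk4) (t t' : Ln4) (z0 ρ r W a Λ κ : ℝ) : Prop where
  r0 : 0 < r
  ρ0 : 0 < ρ
  W1 : 1 ≤ W
  a0 : 0 < a
  hU : Shp U z0 ρ r
  hV : Shp V z0 ρ r
  hR : Shp R z0 ρ r
  tU : InP t U z0 ρ
  tV : InP t V z0 ρ
  tV' : InP t' V z0 ρ
  tR : InP t' R z0 ρ
  aU : U.a ≤ W * a
  aU' : a ≤ W * U.a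
  aV : V.a ≤ W * a
  aV' : a ≤ W * V.a
  aR : R.a ≤ W * a
  w1 : U.w 1 ≤ W ^ 2 * V.w 1
  w2 : U.w 2 ≤ W ^ 2 * V.w 2
  tl : |dt (V.e 2) (U.e 1)| * U.w 1 ≤ W ^ 3 * V.w 2
  c1 : CloseC U.e U.w U.q U.a V.q Λ t z0 ρ
  c2 : CloseC V.e V.w V.q V.a R.q Λ t' z0 ρ
  aΛ : a ≤ Λ
  ΛU : Λ ≤ 2 * W * kapP U z0 ρ t
  ΛV : Λ ≤ 2 * W * kapP V z0 ρ t'
  kU : kapP U z0 ρ t ≤ 13 * W * V.w 0
  bU : 10 ^ 26 * KD ^ 2 * W ^ 6 * U.a ≤ kapP U z0 ρ t
  bV : 10 ^ 10 * KD * W ^ 3 * V.a ≤ kapP V z0 ρ t'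
  bw : 64 * V.a ≤ V.w 0
  κ0 : 0 ≤ κ
  κ1 : 10 ^ 4 * κ ≤ 1
  tub : ∀ z, z0 ≤ z → z ≤ z0 + ρ → |dt (V.e 1) (t.pos z - t'.pos z)| ≤ κ * V.w 1 ∧
    |dt (V.e 2) (t.pos z - t'.pos z)| ≤ κ * V.w 2 ∧
    |dt (V.e 0) (t.pos z - t'.pos z)| ≤ 4 * (V.a + κ * V.w 0)

section

variable {U V R : Plk4} {t t' : Ln4} {z0 ρ r W a Λ κ δ : ℝ}

theorem lat_le (h : Uu U V R t t' z0 ρ r W a Λ κ) {D : V3} {s : ℝ} (hs : 0 ≤ s)
    (hD : ∀ i, |dt (U.e i) D| ≤ s * U.w i) :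
    |dt (V.e 1) D| ≤ 3 * s * W ^ 3 * V.w 1 ∧ |dt (V.e 2) D| ≤ 3 * s * W ^ 3 * V.w 2 := by
  obtain ⟨a0, w0, w1, w2, wp, w01⟩ := wpos h.r0 h.hU
  obtain ⟨a0', w0', w1', w2', wp', w01'⟩ := wpos h.r0 h.hV
  have hW := h.W1
  have hl := fun i j => dt_le_one h.hV.ortho h.hU.ortho i j
  have key : ∀ k, |dt (V.e k) D| ≤ s * U.w 0 + |dt (V.e k) (U.e 1)| * (s * U.w 1) + s * U.w 2 := by
    intro k
    rw [dt_exp h.hU.ortho (V.e k) D]
    have t0 := mul_abs_le (hl k 0) (hD 0)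
    have t1 := mul_abs_le (le_refl |dt (V.e k) (U.e 1)|) (hD 1)
    have t2 := mul_abs_le (hl k 2) (hD 2)
    rw [one_mul] at t0 t2
    exact (abs_add_three _ _ _).trans (by linarith)
  have hw2 : U.w 0 ≤ U.w 2 := h.hU.w0_le
  have hw12 : U.w 2 ≤ U.w 1 := h.hU.w_le
  have W23 : W ^ 2 ≤ W ^ 3 := pow_le_pow_right₀ hW (by norm_num)
  constructor
  · refine (key 1).trans ?_
    have h3 : |dt (V.e 1) (U.e 1)| * (s * U.w 1) ≤ 1 * (s * U.w 1) :=
      mul_le_mul_of_nonneg_right (hl 1 1) (by positivity)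
    have h4 : s * U.w 0 ≤ s * U.w 1 := mul_le_mul_of_nonneg_left (hw2.trans hw12) hs
    have h5 : s * U.w 2 ≤ s * U.w 1 := mul_le_mul_of_nonneg_left hw12 hs
    have h6 : s * U.w 1 ≤ s * (W ^ 3 * V.w 1) :=
      mul_le_mul_of_nonneg_left (h.w1.trans (mul_le_mul_of_nonneg_right W23 w1'.le)) hs
    linarith
  · refine (key 2).trans ?_
    have h3 : |dt (V.e 2) (U.e 1)| * (s * U.w 1) ≤ s * (W ^ 3 * V.w 2) := by
      have := mul_le_mul_of_nonneg_left h.tl hs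
      linarith
    have h4 : s * U.w 0 ≤ s * U.w 2 := mul_le_mul_of_nonneg_left hw2 hs
    have h6 : s * U.w 2 ≤ s * (W ^ 3 * V.w 2) :=
      mul_le_mul_of_nonneg_left (h.w2.trans (mul_le_mul_of_nonneg_right W23 w2'.le)) hs
    linarith

/-- **two steps, very near `t`** -/
theorem close_small (h : Uu U V R t t' z0 ρ r W a Λ κ) (hδ : 0 < δ)
    (hδ1 : 10 ^ 10 * KD * W ^ 3 * δ ≤ 1) (hδU : U.a ≤ δ * kapP U z0 ρ t)
    (hδV : V.a ≤ δ * kapP V z0 ρ t') {z : ℝ} (hz : z0 ≤ z) (hz' : z ≤ z0 + ρ) {x : V3}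
    (hx : ∀ i, |dt (U.e i) (x - t.pos z)| ≤ δ / 8 * U.w i) (hq : |U.q z x| ≤ 3 * U.a) :
    |R.q z x| ≤ 2 * 10 ^ 7 * KD ^ 2 * W ^ 3 * Λ := by
  obtain ⟨a0, w0, w1, w2, wp, w01⟩ := wpos h.r0 h.hU
  obtain ⟨a0', w0', w1', w2', wp', w01'⟩ := wpos h.r0 h.hV
  have KDp := KD_pos
  have KD1 := KD_one
  have hW := h.W1
  have hW0 : 0 < W := by linarith
  have haΛ := h.aΛ
  have hΛ : 0 < Λ := h.a0.trans_le haΛ
  obtain ⟨k, hkd⟩ : ∃ k, k = kapP U z0 ρ t := ⟨_, rfl⟩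
  obtain ⟨k', hkd'⟩ : ∃ k', k' = kapP V z0 ρ t' := ⟨_, rfl⟩
  have ΛU := h.ΛU
  have ΛV := h.ΛV
  have hkU := h.kU
  have bU := h.bU
  have bV := h.bV
  rw [← hkd] at hδU ΛU hkU bU
  rw [← hkd'] at hδV ΛV bV
  have W3 : (1 : ℝ) ≤ W ^ 3 := one_le_pow₀ hW
  have W2 : (1 : ℝ) ≤ W ^ 2 := one_le_pow₀ hW
  have W6 : (1 : ℝ) ≤ W ^ 6 := one_le_pow₀ hW
  have KDW : 1 ≤ KD * W ^ 3 := by nlinarith
  have kp : 0 < k := by
    have : 0 < 10 ^ 26 * KD ^ 2 * W ^ 6 * U.a := by positivity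
    linarith
  have kp' : 0 < k' := by
    have : 0 < 10 ^ 10 * KD * W ^ 3 * V.a := by positivity
    linarith
  have hk6 : 10 ^ 6 * U.a ≤ k := by
    refine le_trans ?_ bU
    refine mul_le_mul_of_nonneg_right ?_ a0.le
    have : (1 : ℝ) ≤ KD ^ 2 * W ^ 6 := by
      have h1 : (1 : ℝ) ≤ KD ^ 2 := one_le_pow₀ KD1
      nlinarith
    nlinarith
  have hk6' : 10 ^ 6 * V.a ≤ k' := by
    refine le_trans ?_ bV
    refine mul_le_mul_of_nonneg_right ?_ a0'.le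
    nlinarith
  have δs : δ ≤ 1 / 10 ^ 10 := by
    rw [le_div_iff₀ (by norm_num)]
    have : δ * 1 ≤ δ * (KD * W ^ 3) := mul_le_mul_of_nonneg_left KDW hδ.le
    nlinarith
  -- `x` in the box of `U`
  have hxU : InK U.e U.c (dbl3 U.w) z x := by
    intro i
    have h1 := hx i
    have h2 := (h.tU z hz hz').1 i
    have e1 : dt (U.e i) (x - U.c.pos z) = dt (U.e i) (x - t.pos z) +
        dt (U.e i) (t.pos z - U.c.pos z) := by
      simp only [dt, Pi.sub_apply]; ring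
    rw [e1]
    refine (abs_add_le _ _).trans ?_
    change _ ≤ 2 * U.w i
    have : δ / 8 * U.w i ≤ 1 * U.w i := mul_le_mul_of_nonneg_right (by linarith) (wp i).le
    linarith
  -- first step
  have hq1 : (3 * U.a + U.a) / k ≤ 4 * δ := by
    rw [div_le_iff₀ kp]; linarith
  obtain ⟨v1, e1⟩ := one_step h.r0 h.ρ0 hW h.hU h.hV h.tU h.tV (by rw [← hkd]; exact hk6) h.c1
    hΛ.le (by rw [← hkd]; exact ΛU) hz hz' hxU (s := δ / 8) (A0 := 3 * U.a) (M := 2300 * δ)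
    (by linarith) (hx 1) (hx 2) hq (by rw [← hkd]; linarith) (by linarith)
  rw [← hkd] at e1
  obtain ⟨l1, l2⟩ := lat_le h (by positivity : 0 ≤ δ / 8) hx
  obtain ⟨g, hg⟩ : ∃ g, g = W ^ 3 * δ := ⟨_, rfl⟩
  have hg0 : 0 < g := by rw [hg]; positivity
  have hKg : 10 ^ 10 * (KD * g) ≤ 1 := by rw [hg]; linarith
  have hgs : 10 ^ 10 * g ≤ 1 := by nlinarith
  have lg1 : |dt (V.e 1) (x - t.pos z)| ≤ g * V.w 1 := by
    refine l1.trans ?_
    have : 3 * (δ / 8) * W ^ 3 * V.w 1 = 3 / 8 * (g * V.w 1) := by rw [hg]; ring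
    rw [this]
    have : 0 ≤ g * V.w 1 := by positivity
    linarith
  have lg2 : |dt (V.e 2) (x - t.pos z)| ≤ g * V.w 2 := by
    refine l2.trans ?_
    have : 3 * (δ / 8) * W ^ 3 * V.w 2 = 3 / 8 * (g * V.w 2) := by rw [hg]; ring
    rw [this]
    have : 0 ≤ g * V.w 2 := by positivity
    linarith
  have lg0 : |dt (V.e 0) (x - t.pos z)| ≤ V.w 0 / 16 := by
    refine (e1 g lg1 lg2).trans ?_
    have h3 : KD * Λ ≤ 2 * (KD * W * k) := by
      have := mul_le_mul_of_nonneg_left ΛU KDp.le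
      linarith
    have h4 : KD * W * k ≤ 13 * (KD * W ^ 2 * V.w 0) := by
      have := mul_le_mul_of_nonneg_left hkU (by positivity : 0 ≤ KD * W)
      linarith
    have h5 : KD * W ^ 2 * V.w 0 * δ ≤ KD * g * V.w 0 := by
      rw [hg]
      have h6 : KD * W ^ 2 * V.w 0 * δ ≤ KD * W ^ 3 * V.w 0 * δ := by
        have : W ^ 2 ≤ W ^ 3 := pow_le_pow_right₀ hW (by norm_num)
        gcongr
      linarith
    have h7 : KD * W * k * δ ≤ 13 * (KD * g * V.w 0) := by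
      have := mul_le_mul_of_nonneg_right h4 hδ.le
      linarith
    have h8 : KD * Λ * δ ≤ 26 * (KD * g * V.w 0) := by
      have := mul_le_mul_of_nonneg_right h3 hδ.le
      linarith
    have h9 : 10 ^ 10 * (KD * g * V.w 0) ≤ V.w 0 := by
      have := mul_le_mul_of_nonneg_right hKg w0'.le
      linarith
    have h10 : 10 ^ 10 * (g * V.w 0) ≤ V.w 0 := by
      have := mul_le_mul_of_nonneg_right hgs w0'.le
      linarith
    have e3 : 2 * (2000 * KD * W * k * (2300 * δ) + 3 * (KD * Λ) * (2300 * δ) + 2 * g * V.w 0) =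
        9200000 * (KD * W * k * δ) + 13800 * (KD * Λ * δ) + 4 * (g * V.w 0) := by ring
    rw [e3]
    linarith
  -- the point relative to `t'`
  obtain ⟨tb1, tb2, tb0⟩ := h.tub z hz hz'
  have spl : ∀ i, dt (V.e i) (x - t'.pos z) = dt (V.e i) (x - t.pos z) +
      dt (V.e i) (t.pos z - t'.pos z) := by
    intro i; simp only [dt, Pi.sub_apply]; ring
  have κ0 := h.κ0
  have κ1 := h.κ1
  have m1 : |dt (V.e 1) (x - t'.pos z)| ≤ (g + κ) * V.w 1 := by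
    rw [spl]; exact (abs_add_le _ _).trans (by linarith)
  have m2 : |dt (V.e 2) (x - t'.pos z)| ≤ (g + κ) * V.w 2 := by
    rw [spl]; exact (abs_add_le _ _).trans (by linarith)
  have m0 : |dt (V.e 0) (x - t'.pos z)| ≤ V.w 0 := by
    rw [spl]
    refine (abs_add_le _ _).trans ?_
    have h1 : κ * V.w 0 ≤ 1 / 64 * V.w 0 := mul_le_mul_of_nonneg_right (by linarith) w0'.le
    have := h.bw
    linarith
  have hxV : InK V.e V.c (dbl3 V.w) z x := by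
    intro i
    have h2 := (h.tV' z hz hz').1 i
    have e1 : dt (V.e i) (x - V.c.pos z) = dt (V.e i) (x - t'.pos z) +
        dt (V.e i) (t'.pos z - V.c.pos z) := by
      simp only [dt, Pi.sub_apply]; ring
    have h1 : |dt (V.e i) (x - t'.pos z)| ≤ V.w i := by
      have hgk : g + κ ≤ 1 := by linarith
      fin_cases i
      · exact m0
      · exact m1.trans (by
          calc (g + κ) * V.w 1 ≤ 1 * V.w 1 := mul_le_mul_of_nonneg_right hgk w1'.le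
            _ = V.w 1 := one_mul _)
      · exact m2.trans (by
          calc (g + κ) * V.w 2 ≤ 1 * V.w 2 := mul_le_mul_of_nonneg_right hgk w2'.le
            _ = V.w 2 := one_mul _)
    rw [e1]
    refine (abs_add_le _ _).trans ?_
    change _ ≤ 2 * V.w i
    linarith
  -- second step
  obtain ⟨A1, hA1⟩ : ∃ A1, A1 = 2000 * KD * W * (3 * U.a + U.a) + V.a +
      12 * (KD * Λ) * (2300 * δ) := ⟨_, rfl⟩
  rw [← hA1] at v1
  have UaVa : U.a ≤ W ^ 2 * V.a := by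
    calc U.a ≤ W * a := h.aU
      _ ≤ W * (W * V.a) := mul_le_mul_of_nonneg_left h.aV' hW0.le
      _ = _ := by ring
  have hA1k : A1 + V.a ≤ 64000 * (KD * g) * k' := by
    have h1 : KD * W * U.a ≤ KD * g * k' := by
      calc KD * W * U.a ≤ KD * W * (W ^ 2 * (δ * k')) :=
            mul_le_mul_of_nonneg_left (UaVa.trans (mul_le_mul_of_nonneg_left hδV (by positivity)))
              (by positivity)
        _ = KD * g * k' := by rw [hg]; ring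
    have h2 : KD * Λ * δ ≤ 2 * (KD * g * k') := by
      calc KD * Λ * δ ≤ KD * (2 * W * k') * δ := by gcongr
        _ = 2 * (KD * (W * δ) * k') := by ring
        _ ≤ 2 * (KD * g * k') := by
            rw [hg]
            have : W ≤ W ^ 3 := by
              calc W = W ^ 1 := (pow_one W).symm
                _ ≤ W ^ 3 := pow_le_pow_right₀ hW (by norm_num)
            gcongr
    have h3 : V.a ≤ KD * g * k' := by
      refine hδV.trans ?_
      have : δ * 1 ≤ δ * (KD * W ^ 3) := mul_le_mul_of_nonneg_left KDW hδ.le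
      have h4 : δ ≤ KD * g := by rw [hg]; linarith
      exact mul_le_mul_of_nonneg_right h4 kp'.le
    have e3 : A1 = 8000 * (KD * W * U.a) + V.a + 27600 * (KD * Λ * δ) := by rw [hA1]; ring
    rw [e3]
    have h5 : 0 ≤ KD * g * k' := by positivity
    linarith
  have hM2 : 512 * ((A1 + V.a) / k') + 1280 * (g + κ) ≤ 1 := by
    have h1 : (A1 + V.a) / k' ≤ 64000 * (KD * g) := by
      rw [div_le_iff₀ kp']; exact hA1k
    linarith
  obtain ⟨v2, -⟩ := one_step h.r0 h.ρ0 hW h.hV h.hR h.tV' h.tR (by rw [← hkd']; exact hk6') h.c2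
    hΛ.le (by rw [← hkd']; exact ΛV) hz hz' hxV (s := g + κ) (A0 := A1) (M := 1)
    (by linarith) m1 m2 v1 (by rw [← hkd']; exact hM2) le_rfl
  refine v2.trans ?_
  have UaΛ : U.a ≤ W * Λ := h.aU.trans (mul_le_mul_of_nonneg_left haΛ hW0.le)
  have VaΛ : V.a ≤ W * Λ := h.aV.trans (mul_le_mul_of_nonneg_left haΛ hW0.le)
  have RaΛ : R.a ≤ W * Λ := h.aR.trans (mul_le_mul_of_nonneg_left haΛ hW0.le)
  have h27 : 27600 * (KD * Λ * δ) ≤ Λ := by
    have h1 : KD * δ ≤ KD * g := by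
      rw [hg]
      have : 1 * δ ≤ W ^ 3 * δ := mul_le_mul_of_nonneg_right W3 hδ.le
      nlinarith
    have h2 : 27600 * (KD * δ) ≤ 1 := by nlinarith
    have := mul_le_mul_of_nonneg_right h2 hΛ.le
    linarith
  have KW1 : 1 ≤ KD * W := by nlinarith
  obtain ⟨Y, hY⟩ : ∃ Y, Y = KD * W ^ 2 * Λ := ⟨_, rfl⟩
  have Y1 : W * Λ ≤ Y := by
    rw [hY]
    calc W * Λ = 1 * (W * Λ) := (one_mul _).symm
      _ ≤ (KD * W) * (W * Λ) := mul_le_mul_of_nonneg_right KW1 (by positivity)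
      _ = _ := by ring
  have Y0 : Λ ≤ Y := by
    refine le_trans ?_ Y1
    calc Λ = 1 * Λ := (one_mul _).symm
      _ ≤ W * Λ := mul_le_mul_of_nonneg_right hW hΛ.le
  have hA1Y : A1 + V.a ≤ 8003 * Y := by
    have h1 : KD * W * U.a ≤ Y := by
      rw [hY]
      calc KD * W * U.a ≤ KD * W * (W * Λ) := mul_le_mul_of_nonneg_left UaΛ (by positivity)
        _ = _ := by ring
    have e3 : A1 = 8000 * (KD * W * U.a) + V.a + 27600 * (KD * Λ * δ) := by rw [hA1]; ring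
    rw [e3]
    linarith
  have Z1 : 2000 * KD * W * (A1 + V.a) ≤ 2000 * 8003 * (KD * W * Y) := by
    have := mul_le_mul_of_nonneg_left hA1Y (by positivity : 0 ≤ 2000 * KD * W)
    linarith
  have Z2 : Y ≤ KD * W * Y := by
    have hY0 : 0 ≤ Y := by linarith
    calc Y = 1 * Y := (one_mul _).symm
      _ ≤ _ := mul_le_mul_of_nonneg_right KW1 hY0
  have Z3 : KD * Λ ≤ KD * W * Y := by
    have : KD * Λ ≤ KD * Y := mul_le_mul_of_nonneg_left Y0 KDp.le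
    have h4 : KD * Y ≤ KD * W * Y := by
      have hY0 : 0 ≤ KD * Y := mul_nonneg KDp.le (by linarith)
      calc KD * Y = 1 * (KD * Y) := (one_mul _).symm
        _ ≤ W * (KD * Y) := mul_le_mul_of_nonneg_right hW hY0
        _ = _ := by ring
    linarith
  have e4 : 2 * 10 ^ 7 * KD ^ 2 * W ^ 3 * Λ = 2 * 10 ^ 7 * (KD * W * Y) := by rw [hY]; ring
  rw [e4]
  have hZ0 : 0 ≤ KD * W * Y := by
    have : 0 ≤ Y := by linarith
    positivity
  linarith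

end

end Crest.Agent.R136.Cuu57
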