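import Crest.Agent.R136.V6p_467
import Crest.Agent.R136.Cuu3_57

/-!
# R136 (S0187), PLAN 2 (AL), leaf V6: the end sheet at the point of `T` (helper467)

* `near_box` : the point of `T` at the height `j` lies in the `3/2`-box of `R` (`T' ∈ V ∩ R` near `T ∈ V`).
* `a0_gen`   : size of the normal derivative in the chart of `U` if the tangential gradient is small.
-/

set_option autoImplicit false

namespace Crest.Agent.R136.V6p467

open Crest.Agent.R136.Sh605 Crest.Agent.R136.Tl102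
open Crest.Agent.R136.K4 (Plk4)
open Crest.Agent.R136.Tlt51 (Shp InP)
open Crest.Agent.R136.Deep51 (CloseC)
open Crest.Agent.R136.KapP335 (kapP kapP_eq)
open Crest.Agent.R136.Gbx862 (zj)
open Crest.Agent.R136.Rk601
open Crest.Agent.R136.AlD601
open Crest.Agent.R136.Hcp208 (Nr)
open Crest.Agent.R136.Chm862 (gm df Tr co)
open Crest.Agent.R136.Adj214 (KD KD_pos KD_one)

/-- displacement of two near lines of `V` in the frame of `V` -/
theorem disp_V {V : Plk4} {T T' : Ln4} {z0 ρ r h m : ℝ} {H j : ℕ} (hr : 0 < r) (hρ : 0 ≤ ρ)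
    (hV : Shp V z0 ρ r) (hT : InP T V z0 ρ) (hT' : InP T' V z0 ρ) (hj : j ≤ H) (hh : h ≤ 1 / 8)
    (hn : Nr V h (zj z0 ρ H j) T T') (hm : 4 * V.a + 69 * h * V.w 0 ≤ m * V.w 0) (hhm : h ≤ m)
    (i : Fin 3) :
    |dt (V.e i) (T.pos (zj z0 ρ H j) - T'.pos (zj z0 ρ H j))| ≤ m * V.w i := by
  have w0 : 0 < V.w 0 := hr.trans_le (hV.r0_le.trans hV.a_le0)
  have SP := StP.of_shN hV w0
  obtain ⟨b0, b1, G, hE⟩ := exists_isExp hV.isQ V.e w0.ne' T' z0 ρ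
  obtain ⟨z1, z2⟩ := ratio_mem hj
  have zm1 : z0 ≤ zj z0 ρ H j := by rw [zj_eq]; nlinarith
  have zm2 : zj z0 ρ H j ≤ z0 + ρ := by rw [zj_eq]; nlinarith
  have hX := hT _ zm1 zm2
  have hX' := hT' _ zm1 zm2
  have N := hE.nrmC SP hρ (fun z g0 g1 => (hT' z g0 g1).1)
  obtain ⟨-, -, -, -, -, -, -, s1, s2⟩ := N.b1_le
  have p1 : |pc V.e V.w T' (z0 + ρ * ((j : ℝ) / H)) (T.pos (zj z0 ρ H j)) 1| ≤ h := by
    have p := SP.pos 1
    show |dt (V.e 1) (T.pos (zj z0 ρ H j) - T'.pos (zj z0 ρ H j)) / V.w 1| ≤ h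
    rw [abs_div, abs_of_pos p, div_le_iff₀ p]
    exact hn.1
  have p2 : |pc V.e V.w T' (z0 + ρ * ((j : ℝ) / H)) (T.pos (zj z0 ρ H j)) 2| ≤ h := by
    have p := SP.pos 2
    show |dt (V.e 2) (T.pos (zj z0 ρ H j) - T'.pos (zj z0 ρ H j)) / V.w 2| ≤ h
    rw [abs_div, abs_of_pos p, div_le_iff₀ p]
    exact hn.2
  have hy := yc_le SP hρ (fun z g0 g1 => (hT' z g0 g1).1) hE z1 z2
    (X := T.pos (zj z0 ρ H j)) hX.1 hh p1 p2
  have hqx : |V.q (z0 + ρ * ((j : ℝ) / H)) (T.pos (zj z0 ρ H j))| ≤ V.a := hX.2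
  have hqt : |V.q (z0 + ρ * ((j : ℝ) / H)) (T'.pos (z0 + ρ * ((j : ℝ) / H)))| ≤ V.a := hX'.2
  have hk : V.w 0 * kap b0 b1 G ≤ 13 * V.w 0 := by
    have := kap_le N
    nlinarith
  have h0 : 0 ≤ h := (abs_nonneg _).trans p1
  set x := pc V.e V.w T' (z0 + ρ * ((j : ℝ) / H)) (T.pos (zj z0 ρ H j)) with hx
  have ex : x 0 = yc b0 x + -(b0 1 / b0 0 * x 1) + -(b0 2 / b0 0 * x 2) := by
    simp only [yc]; ring
  have hx0 : |x 0| ≤ |yc b0 x| + 4 * h := by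
    rw [ex]
    refine (abs_add_three _ _ _).trans ?_
    rw [abs_neg, abs_neg, abs_mul, abs_mul]
    have t1 := mul_le_mul s1 p1 (abs_nonneg _) (by norm_num : (0:ℝ) ≤ 2)
    have t2 := mul_le_mul s2 p2 (abs_nonneg _) (by norm_num : (0:ℝ) ≤ 2)
    linarith
  have e0 : |dt (V.e 0) (T.pos (zj z0 ρ H j) - T'.pos (zj z0 ρ H j))| = |x 0| * V.w 0 := by
    have : x 0 = dt (V.e 0) (T.pos (zj z0 ρ H j) - T'.pos (zj z0 ρ H j)) / V.w 0 := rfl
    rw [this, abs_div, abs_of_pos w0, div_mul_cancel₀ _ w0.ne']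
  fin_cases i
  · show |dt (V.e 0) _| ≤ m * V.w 0
    rw [e0]
    have g1 := mul_le_mul_of_nonneg_right hx0 w0.le
    have g2 : 5 * h * (V.w 0 * kap b0 b1 G) ≤ 5 * h * (13 * V.w 0) :=
      mul_le_mul_of_nonneg_left hk (by positivity)
    nlinarith
  · show |dt (V.e 1) _| ≤ m * V.w 1
    exact hn.1.trans (mul_le_mul_of_nonneg_right hhm (SP.pos 1).le)
  · show |dt (V.e 2) _| ≤ m * V.w 2
    exact hn.2.trans (mul_le_mul_of_nonneg_right hhm (SP.pos 2).le)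

/-- **the point of `T` in the box of `R`** -/
theorem near_box {V R : Plk4} {T T' : Ln4} {z0 ρ r h m K M Λ : ℝ} {H j : ℕ} (hr : 0 < r)
    (hρ : 0 < ρ) (hK : 1 ≤ K) (hV : Shp V z0 ρ r) (hR : Shp R z0 ρ r) (hT : InP T V z0 ρ)
    (hT' : InP T' V z0 ρ) (hTR : InP T' R z0 ρ) (hj : j ≤ H) (hh : h ≤ 1 / 8)
    (hn : Nr V h (zj z0 ρ H j) T T') (hm : 4 * V.a + 69 * h * V.w 0 ≤ m * V.w 0) (hhm : h ≤ m)
    (tr : Tr K V R) (hk : 10 ^ 6 * V.a ≤ kapP V z0 ρ T')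
    (hC : CloseC V.e V.w V.q V.a R.q Λ T' z0 ρ) (hΛ : 0 ≤ Λ) (hΛk : Λ ≤ 2 * K * kapP V z0 ρ T')
    (hkR : kapP V z0 ρ T' ≤ K * R.w 0)
    (hM : 512 * ((V.a + V.a) / kapP V z0 ρ T') + 1280 * h ≤ M) (hM1 : 10 ^ 5 * KD * K ^ 2 * M ≤ 1)
    (hm1 : 48 * K * m ≤ 1) (i : Fin 3) :
    |dt (R.e i) (T.pos (zj z0 ρ H j) - T'.pos (zj z0 ρ H j))| ≤ 1 / 2 * R.w i := by
  obtain ⟨z1, z2⟩ := ratio_mem hj
  have zm1 : z0 ≤ zj z0 ρ H j := by rw [zj_eq]; nlinarith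
  have zm2 : zj z0 ρ H j ≤ z0 + ρ := by rw [zj_eq]; nlinarith
  have hX := hT _ zm1 zm2
  have wV : ∀ i, 0 < V.w i := tr.pos
  have wR : ∀ i, 0 < R.w i := tr.pos'
  have hD := disp_V hr hρ.le hV hT hT' hj hh hn hm hhm
  have hlat : ∀ k : Fin 3, k ≠ 0 →
      |dt (R.e k) (T.pos (zj z0 ρ H j) - T'.pos (zj z0 ρ H j))| ≤ 3 * (K * m) * R.w k := by
    intro k hk
    have h1 := tr.box hD k hk
    unfold co at h1
    rw [abs_div, abs_of_pos (wR k), div_le_iff₀ (wR k)] at h1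
    exact h1
  have KDp := KD_pos
  have KD1 := KD_one
  have hkp : 0 < kapP V z0 ρ T' := by
    have : 0 < 10 ^ 6 * V.a := by have := hr.trans_le hV.r0_le; positivity
    linarith
  have ha0 : 0 < V.a := hr.trans_le hV.r0_le
  have hh0 : 0 ≤ h := by
    have h1 := (abs_nonneg _).trans hn.1
    have h2 := wV 1
    by_contra hc
    push Not at hc
    have := mul_neg_of_neg_of_pos hc h2
    linarith
  have hM0 : 0 ≤ M := le_trans (by positivity) hM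
  have hMle : M ≤ 1 := by
    have h1 : (1 : ℝ) ≤ 10 ^ 5 * KD * K ^ 2 := by
      have : (1 : ℝ) ≤ K ^ 2 := one_le_pow₀ hK
      nlinarith
    nlinarith
  have hXd : InK V.e V.c (dbl3 V.w) (zj z0 ρ H j) (T.pos (zj z0 ρ H j)) := fun k => by
    have := hX.1 k
    have := wV k
    show _ ≤ 2 * V.w k
    linarith
  obtain ⟨-, h0⟩ := Cuu57.one_step hr hρ hK hV hR hT' hTR hk hC hΛ hΛk zm1 zm2 hXd hh hn.1 hn.2
    hX.2 hM hMle
  have h00 := h0 (3 * (K * m)) (hlat 1 (by decide)) (hlat 2 (by decide))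
  have m0 : 0 ≤ m := hh0.trans hhm
  have hKm : 3 * (K * m) ≤ 1 / 16 := by linarith
  fin_cases i
  · show |dt (R.e 0) _| ≤ 1 / 2 * R.w 0
    refine h00.trans ?_
    have g1 : 2000 * KD * K * kapP V z0 ρ T' * M ≤ 2000 * KD * K ^ 2 * M * R.w 0 := by
      calc 2000 * KD * K * kapP V z0 ρ T' * M ≤ 2000 * KD * K * (K * R.w 0) * M := by gcongr
        _ = _ := by ring
    have g2 : 3 * (KD * Λ) * M ≤ 6 * KD * K ^ 2 * M * R.w 0 := by
      calc 3 * (KD * Λ) * M ≤ 3 * (KD * (2 * K * (K * R.w 0))) * M := by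
            have : Λ ≤ 2 * K * (K * R.w 0) :=
              hΛk.trans (mul_le_mul_of_nonneg_left hkR (by positivity))
            gcongr
        _ = _ := by ring
    have g3 : 2006 * KD * K ^ 2 * M * R.w 0 ≤ 1 / 40 * R.w 0 := by
      refine mul_le_mul_of_nonneg_right ?_ (wR 0).le
      linarith
    have g4 : 2 * (3 * (K * m)) * R.w 0 ≤ 1 / 8 * R.w 0 :=
      mul_le_mul_of_nonneg_right (by linarith) (wR 0).le
    have := wR 0
    linarith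
  · show |dt (R.e 1) _| ≤ 1 / 2 * R.w 1
    refine (hlat 1 (by decide)).trans (mul_le_mul_of_nonneg_right (by linarith) (wR 1).le)
  · show |dt (R.e 2) _| ≤ 1 / 2 * R.w 2
    refine (hlat 2 (by decide)).trans (mul_le_mul_of_nonneg_right (by linarith) (wR 2).le)

/-- a small sub-box at one height -/
theorem stP_sub {R : Plk4} {z0 ρ z : ℝ} {T : Ln4} (S : StP R.e R.c R.w R.q z0 ρ) (hz : z0 ≤ z)
    (hz' : z ≤ z0 + ρ) (hT : ∀ i, |dt (R.e i) (T.pos z - R.c.pos z)| ≤ 3 / 2 * R.w i) :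
    StP R.e T (fun i => R.w i / 4) R.q z 0 := by
  have key : ∀ z' : ℝ, z ≤ z' → z' ≤ z + 0 → ∀ x : V3, InK R.e T (dbl3 fun i => R.w i / 4) z' x →
      InK R.e R.c (dbl3 R.w) z' x := by
    intro z' h1 h2 x hx i
    have e : z' = z := by linarith
    subst e
    have h3 := hx i
    have h4 := hT i
    change _ ≤ 2 * (R.w i / 4) at h3
    show _ ≤ 2 * R.w i
    have e1 : dt (R.e i) (x - R.c.pos z') = dt (R.e i) (x - T.pos z') +
        dt (R.e i) (T.pos z' - R.c.pos z') := by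
      simp only [dt, Pi.sub_apply]; ring
    rw [e1]
    refine (abs_add_le _ _).trans ?_
    linarith
  refine ⟨S.ortho, S.isQ, fun i => by have := S.pos i; positivity, ?_, ?_, ?_⟩
  · intro z' h1 h2 x τ hτ hx hx'
    exact S.st0 z' (by linarith) (by linarith) x τ hτ (key z' h1 h2 x hx) (key z' h1 h2 _ hx')
  · intro z' h1 h2 x τ hτ hx hx'
    have h := S.st1 z' (by linarith) (by linarith) x τ hτ (key z' h1 h2 x hx) (key z' h1 h2 _ hx')
    have e : R.w 0 / 4 / (R.w 1 / 4) = R.w 0 / R.w 1 := by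
      have := (S.pos 1).ne'
      field_simp
    show _ ≤ R.w 0 / 4 / (R.w 1 / 4) * τ
    rw [e]; exact h
  · intro z' h1 h2 x τ hτ hx hx'
    have h := S.st2 z' (by linarith) (by linarith) x τ hτ (key z' h1 h2 x hx) (key z' h1 h2 _ hx')
    have e : R.w 0 / 4 / (R.w 2 / 4) = R.w 0 / R.w 2 := by
      have := (S.pos 2).ne'
      field_simp
    show _ ≤ R.w 0 / 4 / (R.w 2 / 4) * τ
    rw [e]; exact h

/-- the spatial gradient does not depend on the unit of time -/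
theorem jt_rho (q : ℝ → V3 → ℝ) (f : Fin 3 → V3) (V : V3) (z : ℝ) (X : V3) (ρ ρ' : ℝ) :
    (jt q f V z X ρ).a0 = (jt q f V z X ρ').a0 ∧ (jt q f V z X ρ).a 1 = (jt q f V z X ρ').a 1 ∧
      (jt q f V z X ρ).a 2 = (jt q f V z X ρ').a 2 := by
  refine ⟨?_, ?_, ?_⟩ <;>
    simp only [jt, ch, ei, Pi.zero_apply, Pi.neg_apply, Matrix.cons_val, neg_zero, mul_zero]

/-- **normal derivative of another sheet in the chart of `U`** -/
theorem a0_gen {U R : Plk4} {z0 ρ r : ℝ} {H j : ℕ} {T : Ln4} (hr : 0 < r) (hρ : 0 ≤ ρ)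
    (hU : Shp U z0 ρ r) (hR : Shp R z0 ρ r) (hTU : InP T U z0 ρ) (hj : j ≤ H)
    (hT : ∀ i, |dt (R.e i) (T.pos (zj z0 ρ H j) - R.c.pos (zj z0 ρ H j))| ≤ 3 / 2 * R.w i)
    {l m s : ℝ} (h : ¬ Nd U R.q z0 ρ H j T l m s) (hls : l * s ≤ U.w 0 / 64) :
    U.w 0 / 32 ≤ |(jS U R.q z0 ρ H j T).a0| ∧ |(jS U R.q z0 ρ H j T).a0| ≤ 4 * U.w 0 := by
  have w0 : 0 < U.w 0 := hr.trans_le (hU.r0_le.trans hU.a_le0)
  have w0' : 0 < R.w 0 := hr.trans_le (hR.r0_le.trans hR.a_le0)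
  have SP := StP.of_shN hU w0
  have SP' := StP.of_shN hR w0'
  obtain ⟨z1, z2⟩ := ratio_mem hj
  have zm1 : z0 ≤ zj z0 ρ H j := by rw [zj_eq]; nlinarith
  have zm2 : zj z0 ρ H j ≤ z0 + ρ := by rw [zj_eq]; nlinarith
  obtain ⟨s1, s2, s3⟩ := Wdg296.jS_self SP hρ hj hTU
  have SS := stP_sub SP' zm1 zm2 hT
  have hXK : InK R.e T (fun i => R.w i / 4) (zj z0 ρ H j) (T.pos (zj z0 ρ H j)) := by
    intro i
    have e : T.pos (zj z0 ρ H j) - T.pos (zj z0 ρ H j) = 0 := sub_self _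
    rw [e]
    have e2 : dt (R.e i) 0 = 0 := by simp [Sh605.dt]
    rw [e2, abs_zero]
    have := SP'.pos i
    show (0 : ℝ) ≤ R.w i / 4
    positivity
  obtain ⟨o1, o2, -, -⟩ := Wdg296.jet_other SP.ortho SP.pos SS le_rfl (by linarith) hXK
    (by have := hR.w0_le; show R.w 0 / 4 ≤ R.w 2 / 4; linarith)
    (by have := hR.w_le; show R.w 2 / 4 ≤ R.w 1 / 4; linarith)
    (jt_jet hR.isQ (fr U.e U.w) U.c.v (zj z0 ρ H j) (T.pos (zj z0 ρ H j)) 0).1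
  obtain ⟨i0, i1, i2⟩ := jt_rho R.q (fr U.e U.w) U.c.v (zj z0 ρ H j) (T.pos (zj z0 ρ H j)) 0 ρ
  rw [i0] at o1 o2
  rw [i1, i2] at o1
  obtain ⟨g, -⟩ := not_Nd.1 h
  change 1 / 2 ≤ |(jS U R.q z0 ρ H j T).a0| / U.w 0 + |(jS U R.q z0 ρ H j T).a 1| / U.w 1 +
    |(jS U R.q z0 ρ H j T).a 2| / U.w 2 at o1
  change |(jS U R.q z0 ρ H j T).a0| / U.w 0 ≤ 4 at o2
  set J0 := jS U U.q z0 ρ H j T with hJ0
  set J := jS U R.q z0 ρ H j T with hJ
  have p0 := SP.pos 0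
  have p1 := SP.pos 1
  have p2 := SP.pos 2
  have a0pos : 0 < J0.a0 := by linarith
  have key : ∀ k : Fin 3, k ≠ 0 → |J.a k| ≤ U.w 0 / 64 + 2 * |J.a0| := by
    intro k hk
    have h1 := (g k).trans hls
    unfold Rk601.tg at h1
    have h2 := s3 k hk
    have h3 : |J.a0 / J0.a0 * J0.a k| ≤ 2 * |J.a0| := by
      rw [abs_mul, abs_div, abs_of_pos a0pos, div_mul_eq_mul_div, div_le_iff₀ a0pos]
      have h4 : |J0.a k| ≤ 2 * J0.a0 := by linarith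
      calc |J.a0| * |J0.a k| ≤ |J.a0| * (2 * J0.a0) := mul_le_mul_of_nonneg_left h4 (abs_nonneg _)
        _ = 2 * |J.a0| * J0.a0 := by ring
    have h5 : |J.a k| ≤ |J.a k - J.a0 / J0.a0 * J0.a k| + |J.a0 / J0.a0 * J0.a k| := by
      have := abs_add_le (J.a k - J.a0 / J0.a0 * J0.a k) (J.a0 / J0.a0 * J0.a k)
      rwa [sub_add_cancel] at this
    linarith
  have k1 := key 1 (by decide)
  have k2 := key 2 (by decide)
  have w02 := hU.w0_le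
  have w21 := hU.w_le
  have f1 : |J.a 1| / U.w 1 ≤ |J.a 1| / U.w 0 :=
    div_le_div_of_nonneg_left (abs_nonneg _) p0 (w02.trans w21)
  have f2 : |J.a 2| / U.w 2 ≤ |J.a 2| / U.w 0 := div_le_div_of_nonneg_left (abs_nonneg _) p0 w02
  have o3 : U.w 0 / 2 ≤ |J.a0| + |J.a 1| + |J.a 2| := by
    have h1 : 1 / 2 ≤ (|J.a0| + |J.a 1| + |J.a 2|) / U.w 0 := by
      rw [add_div, add_div]; linarith
    rw [le_div_iff₀ p0] at h1
    linarith
  have l0 : U.w 0 / 16 ≤ |J.a0| := by linarith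
  refine ⟨by linarith, ?_⟩
  rwa [div_le_iff₀ p0] at o2

end Crest.Agent.R136.V6p467
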