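import Crest.Agent.R136.Wk5_323
import Crest.Agent.R136.Gr2_356

/-!
# R136 (S0187): RIG wrapper, definitions and literals (helper323)

`AbsWin` : a relative model whose line slots are computed from absolute straight lines `T n l`,
axes `E n l` of `V2` and flags `fa n l k`, `fb n k` (lightlike window: `F_b` is a level slot, so `fb`
depends on the height only), up to `ρ^(x-ε)`; the flags rotate around the axis; `fb` is affine in `z`.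
Numbering of 186's `coQ`: `0 z, 1 R, 2 E, 3 F_b, 4 F_a, 5 C_a, 6 C_b, 7 P, 8 X_a, 9 X_b, 10 N`.
-/

set_option autoImplicit false
set_option linter.unusedVariables false

open Filter Topology Finset

namespace Crest.Agent.R136.Wk323

open Crest.Agent.R136.Sh605
open Crest.Agent.R138.Ex926 (Base U)
open Crest.Agent.R136.Gf356

/-- `x` on the slots of `F`, `0` elsewhere -/
def vec (F : Finset (Fin 11)) (x : ℝ) : Fin 11 → ℝ := fun s => if s ∈ F then x else 0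

/-- the line slots -/
def fAll : Finset (Fin 11) := {2, 4, 5, 6, 7, 8, 9, 10}
/-- position, hyperplane flag -/
def fPos : Finset (Fin 11) := {4, 7, 8, 9, 10}
/-- direction, axis -/
def fDir : Finset (Fin 11) := {2, 5, 6}

/-- base position at `x`, normal position at `y` -/
def qv (x y : ℝ) : Fin 11 → ℝ := fun s => if s = 10 then y else if s = 8 ∨ s = 9 then x else 0

/-- relative coordinates computed from absolute lines and flags, at the height `z` -/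
def coA (T T' : Ln4) (E E' fa fa' fb z : ℝ) : Fin 11 → ℝ :=
  ![0, 0, E' - E, 0, fa' - fa, T'.v 1 - T.v 1,
    (T'.v 2 - T.v 2) - E * (T'.v 1 - T.v 1),
    (T'.v 0 - T.v 0) - fa * (T'.v 1 - T.v 1) - fb * (T'.v 2 - T.v 2),
    T'.pos z 1 - T.pos z 1,
    (T'.pos z 2 - T.pos z 2) - E * (T'.pos z 1 - T.pos z 1),
    (T'.pos z 0 - T.pos z 0) - fa * (T'.pos z 1 - T.pos z 1) - fb * (T'.pos z 2 - T.pos z 2)]

/-- a lightlike window in absolute coordinates -/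
structure AbsWin (B : Base) (G : ℕ → RCfg (Fin 11)) (x : ℝ) (T : ℕ → ℕ → Ln4) (E : ℕ → ℕ → ℝ)
    (fa : ℕ → ℕ → ℕ → ℝ) (fb : ℕ → ℕ → ℝ) (mu be : ℕ → ℝ) : Prop where
  bd : ∀ᶠ n in (U : Filter ℕ), ∀ l k, (l, k) ∈ (G n).I → |(G n).z k| ≤ 1 ∧
    (∀ j, |(T n l).pos ((G n).z k) j| ≤ 1) ∧ (∀ j, |(T n l).v j| ≤ 1) ∧ |E n l| ≤ 1 ∧
      |fa n l k| ≤ 1 ∧ |fb n k| ≤ 1
  bdr : ∀ᶠ n in (U : Filter ℕ), ∀ k i l, (i, k) ∈ (G n).I → (l, k) ∈ (G n).I →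
    ∀ s, |(G n).rel k i l s| ≤ 1
  rel : ∀ ε : ℝ, 0 < ε → ∀ᶠ n in (U : Filter ℕ), ∀ k i l, (i, k) ∈ (G n).I → (l, k) ∈ (G n).I →
    ∀ s ∈ fAll, |(G n).rel k i l s - coA (T n i) (T n l) (E n i) (E n l) (fa n i k) (fa n l k)
      (fb n k) ((G n).z k) s| ≤ B.d n ^ (x - ε)
  own : ∀ ε : ℝ, 0 < ε → ∀ᶠ n in (U : Filter ℕ), ∀ l k k', (l, k) ∈ (G n).I → (l, k') ∈ (G n).I →
    |fa n l k' - fa n l k + E n l * (fb n k' - fb n k)| ≤ B.d n ^ (x - ε)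
  aff : ∀ ε : ℝ, 0 < ε → ∀ᶠ n in (U : Filter ℕ), ∀ l k, (l, k) ∈ (G n).I →
    |fb n k - be n - mu n * (G n).z k| ≤ B.d n ^ (x - ε)

/-- position label (mesh `δ`) of the line `T` with the hyperplane flag `(fa, fb)` at the height `z` -/
noncomputable def posL (δ : ℝ) (T : Ln4) (fa fb z : ℝ) : Fin 5 → ℤ :=
  ![⌊T.pos z 0 / δ⌋, ⌊T.pos z 1 / δ⌋, ⌊T.pos z 2 / δ⌋, ⌊fa / δ⌋,
    ⌊(T.v 0 - fa * T.v 1 - fb * T.v 2) / δ⌋]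

/-- direction label -/
noncomputable def dirL (δ : ℝ) (T : Ln4) (E : ℝ) : Fin 3 → ℤ := ![⌊T.v 1 / δ⌋, ⌊T.v 2 / δ⌋, ⌊E / δ⌋]

/-- label of the fat line; `Fc` = slope of `V2`, i.e. `fa + E fb` at one height -/
noncomputable def cellL (δ : ℝ) (T : Ln4) (E Fc : ℝ) : Fin 8 → ℤ :=
  ![⌊T.p 0 / δ⌋, ⌊T.p 1 / δ⌋, ⌊T.p 2 / δ⌋, ⌊T.v 0 / δ⌋, ⌊T.v 1 / δ⌋, ⌊T.v 2 / δ⌋, ⌊E / δ⌋, ⌊Fc / δ⌋]

/-- hypotheses of the RIG wrapper on the profile -/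
structure RigProf (Leg : Set (Fin 11 → ℝ)) (ν : (Fin 11 → ℝ) → ℝ) (x a m : ℝ) : Prop where
  x0 : 0 < x
  a0 : 0 ≤ a
  a1 : a < 1
  m0 : 0 < m
  zero : (0 : Fin 11 → ℝ) ∈ Leg
  all : vec fAll x ∈ Leg
  pos : vec fPos x ∈ Leg
  dir : vec fDir x ∈ Leg
  q : ∀ y, 0 ≤ y → y ≤ x → qv x y ∈ Leg
  c : ∀ y, 0 ≤ y → y ≤ x → vec {5} y ∈ Leg
  /-- positions and directions are decoupled -/
  dec : ν 0 + ν (vec fAll x) ≤ ν (vec fPos x) + ν (vec fDir x)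
  /-- fibre rate over a base point -/
  fib : ∀ y, 0 ≤ y → y ≤ x → ν (qv x y) - ν (qv x x) ≤ a * (x - y)
  /-- the fan is spread in the direction `A` -/
  conc : ∀ y, 0 ≤ y → y ≤ x → m * y ≤ ν 0 - ν (vec {5} y)

/-- **target**: rigidity of a lightlike window (proved in `Wk9_323` / by helper120) -/
def RigWin : Prop :=
  ∀ (B : Base) (G : ℕ → RCfg (Fin 11)) (Leg : Set (Fin 11 → ℝ)) (ν : (Fin 11 → ℝ) → ℝ)
    (D R x a m : ℝ) (T : ℕ → ℕ → Ln4) (E : ℕ → ℕ → ℝ) (fa : ℕ → ℕ → ℕ → ℝ) (fb : ℕ → ℕ → ℝ)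
    (mu be : ℕ → ℝ),
    RModel B G 1 R Leg ν D → x ≤ R → AbsWin B G x T E fa fb mu be → RigProf Leg ν x a m →
    (∀ ε : ℝ, 0 < ε → ∀ᶠ n in (U : Filter ℕ), B.d n ^ ε ≤ |mu n| ∧ |mu n| ≤ B.d n ^ (-ε)) →
    ∀ ε : ℝ, 0 < ε → ∀ᶠ n in (U : Filter ℕ), ∃ s0 c0 C0 E0 : ℝ, |s0| ≤ B.d n ^ (-ε) ∧ |c0| ≤ 1 ∧
      |C0| ≤ 1 ∧ |E0| ≤ 1 ∧
      ∃ L' ⊆ (G n).L, B.d n ^ ε * ((G n).L.card : ℝ) ≤ (L'.card : ℝ) ∧
        ∀ l ∈ L', |E n l - (E0 - s0 * ((T n l).v 1 - c0))| ≤ B.d n ^ (x - ε) ∧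
          |(T n l).v 2 - (C0 + E0 * ((T n l).v 1 - c0) - s0 * ((T n l).v 1 - c0) ^ 2 / 2)| ≤
            B.d n ^ (x - ε)

/-! ### literals of the counting part (helper344) -/

section counting

variable (B : Base) (G : ℕ → RCfg (Fin 11)) (ν : (Fin 11 → ℝ) → ℝ) (x a : ℝ)
  (T : ℕ → ℕ → Ln4) (E : ℕ → ℕ → ℝ) (fa : ℕ → ℕ → ℕ → ℝ) (fb : ℕ → ℕ → ℝ)

/-- number of lines of a slice -/
def SliceUp : Prop := ∀ ε : ℝ, 0 < ε → ∀ᶠ n in (U : Filter ℕ), ∀ k,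
  (((G n).slice k).card : ℝ) ≤ B.d n ^ (-ν 0 - ε)

/-- number of position labels at one height, mesh `ρ^(x-ε₀)` -/
def PosCount : Prop := ∀ ε₀ : ℝ, 0 < ε₀ → ∀ ε : ℝ, 0 < ε → ∀ᶠ n in (U : Filter ℕ), ∀ k,
  ((((G n).slice k).image fun l =>
    posL (B.d n ^ (x - ε₀)) (T n l) (fa n l k) (fb n k) ((G n).z k)).card : ℝ) ≤
    B.d n ^ (-(ν 0 - ν (vec fPos x)) - ε)

/-- number of direction labels at one height -/
def DirCount : Prop := ∀ ε₀ : ℝ, 0 < ε₀ → ∀ ε : ℝ, 0 < ε → ∀ᶠ n in (U : Filter ℕ), ∀ k,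
  ((((G n).slice k).image fun l => dirL (B.d n ^ (x - ε₀)) (T n l) (E n l)).card : ℝ) ≤
    B.d n ^ (-(ν 0 - ν (vec fDir x)) - ε)

/-- the lines of a slice whose relative coordinates on all line slots are `≤ ρ^(x-ε₀)` -/
def CellUp : Prop := ∃ C : ℝ, 0 ≤ C ∧ ∀ ε₀ : ℝ, 0 < ε₀ → ∀ᶠ n in (U : Filter ℕ), ∀ k i,
  (i, k) ∈ (G n).I → ∀ F ⊆ (G n).slice k, (∀ l ∈ F, ∀ s ∈ fAll, |coA (T n i) (T n l) (E n i) (E n l)
    (fa n i k) (fa n l k) (fb n k) ((G n).z k) s| ≤ B.d n ^ (x - ε₀)) →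
    (F.card : ℝ) ≤ B.d n ^ (-ν (vec fAll x) - C * ε₀)

/-- many lines in every fat line -/
def CellLow : Prop := ∀ ε : ℝ, 0 < ε → ∀ᶠ n in (U : Filter ℕ), ∀ k i, (i, k) ∈ (G n).I →
  ∃ F ⊆ (G n).slice k, B.d n ^ (-ν (vec fAll x) + ε) ≤ (F.card : ℝ) ∧
    ∀ l ∈ F, ∀ s ∈ fAll, |coA (T n i) (T n l) (E n i) (E n l)
      (fa n i k) (fa n l k) (fb n k) ((G n).z k) s| ≤ B.d n ^ (x - ε)

/-- fibres over base points -/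
def FibBound : Prop := ∃ C : ℝ, 1 ≤ C ∧ ∀ ε₀ : ℝ, 0 < ε₀ → C * ε₀ ≤ x → ∀ᶠ n in (U : Filter ℕ),
  ∀ k, ∀ F ⊆ (G n).slice k, F.Nonempty →
  (∀ i ∈ F, ∀ i' ∈ F, ∀ m : Fin 3, m ≠ 0 →
    |(T n i).pos ((G n).z k) m - (T n i').pos ((G n).z k) m| ≤ B.d n ^ (x - ε₀)) →
  ∀ R0 : ℝ, B.d n ^ (x - C * ε₀) ≤ R0 →
  (∀ i ∈ F, ∀ i' ∈ F, |(T n i).pos ((G n).z k) 0 - (T n i').pos ((G n).z k) 0| ≤ R0) →
  (∀ i ∈ F, ∀ i' ∈ F, i ≠ i' →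
    B.d n ^ (x - C * ε₀) ≤ |(T n i).pos ((G n).z k) 0 - (T n i').pos ((G n).z k) 0|) →
  (F.card : ℝ) ≤ B.d n ^ (-(C * ε₀)) * (R0 / B.d n ^ (x - C * ε₀)) ^ a

/-- direction labels with `c` in a short interval -/
def DirConc : Prop := ∃ C : ℝ, 0 ≤ C ∧ ∀ ε₀ : ℝ, 0 < ε₀ → ∀ y : ℝ, 0 ≤ y → y ≤ x →
  ∀ᶠ n in (U : Filter ℕ), ∀ k, ∀ c : ℝ,
  (((((G n).slice k).filter fun l => |(T n l).v 1 - c| ≤ B.d n ^ y).image fun l =>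
    dirL (B.d n ^ (x - ε₀)) (T n l) (E n l)).card : ℝ) ≤
    B.d n ^ (-(ν (vec {5} y) - ν (vec fDir x)) - C * ε₀)

end counting

end Crest.Agent.R136.Wk323
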