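import Crest.Agent.R136.Ev6_356
import Crest.Agent.R136.WkD_323

/-!
# R136: lightlike windows in absolute coordinates (helper356), part 1

Window of helper926, chart of helper186, all walls tight with coefficient `1` (`CfOne`): composition
law with coefficients `1` (`QWnd.law`); relative coordinates are computed from absolute straight
lines (`coA_exact`), the formula is Lipschitz (`coA_lip`).
-/

set_option autoImplicit false
set_option linter.unusedSectionVars false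
set_option linter.unusedVariables false

open Filter Topology

namespace Crest.Agent.R136.Ab356

open Finset Crest.Agent.R136.NetQ186 Crest.Agent.R136.Net191 Crest.Agent.R136.Qg926
open Crest.Agent.R136.Gf356 Crest.Agent.R136.Ev356 Crest.Agent.R136.Sh605
open Crest.Agent.R136.Wk323
open Crest.Agent.R138.Ex926 (Base U)

/-- the composition law with coefficients `1`; `r` = coefficient of the slot `R` -/
structure Law (r : ℝ) (g b c : Fin 11 → ℝ) : Prop where
  e0 : g 0 = b 0 + c 0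
  e2 : g 2 = b 2 + c 2
  e3 : g 3 = b 3 + c 3
  e4 : g 4 = b 4 + c 4 - b 2 * c 3
  e5 : g 5 = b 5 + c 5
  e6 : g 6 = b 6 + c 6 + b 2 * c 5
  e7 : g 7 = b 7 + c 7 - 2 * (b 0 * (r * c 1)) + (b 4 + b 2 * b 3) * c 5 + b 3 * c 6
  e8 : g 8 = b 8 + c 8 - b 0 * c 5
  e9 : g 9 = b 9 + (c 9 - b 0 * c 6) + b 2 * (c 8 - b 0 * c 5)
  e10 : g 10 = b 10 + (c 10 - b 0 * c 7 + b 0 ^ 2 * (r * c 1)) +
    (b 4 + b 2 * b 3) * (c 8 - b 0 * c 5) + b 3 * (c 9 - b 0 * c 6)

/-- the straight line with given absolute coordinates -/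
def lnOf (b : Fin 11 → ℝ) : Ln4 := ⟨![b 10, b 8, b 9], ![b 7, b 5, b 6]⟩

/-- the error of the formula -/
def errA (r : ℝ) (b c : Fin 11 → ℝ) : Fin 11 → ℝ :=
  ![0, 0, 0, 0, b 2 * c 3, 0, 0, 2 * (b 0 * (r * c 1)), 0, 0, b 0 ^ 2 * (r * c 1)]

theorem coA_exact {r : ℝ} {g b c : Fin 11 → ℝ} (h : Law r g b c) (s : Fin 11) (hs : s ∈ fAll) :
    c s = coA (lnOf b) (lnOf g) (b 2) (g 2) (b 4) (g 4) (b 3) (b 0) s + errA r b c s := by
  obtain ⟨e0, e2, e3, e4, e5, e6, e7, e8, e9, e10⟩ := h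
  have hs' : s = 2 ∨ s = 4 ∨ s = 5 ∨ s = 6 ∨ s = 7 ∨ s = 8 ∨ s = 9 ∨ s = 10 := by
    revert hs; unfold fAll; revert s; decide
  rcases hs' with rfl | rfl | rfl | rfl | rfl | rfl | rfl | rfl
  · simp only [coA, errA, Matrix.cons_val]
    linear_combination -e2
  · simp only [coA, errA, Matrix.cons_val]
    linear_combination -e4
  · simp only [coA, errA, lnOf, Matrix.cons_val]
    linear_combination -e5
  · simp only [coA, errA, lnOf, Matrix.cons_val]
    linear_combination -e6 + b 2 * e5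
  · simp only [coA, errA, lnOf, Matrix.cons_val]
    linear_combination -e7 + b 4 * e5 + b 3 * e6
  · simp only [coA, errA, lnOf, Ln4.pos, Matrix.cons_val]
    linear_combination -e8 - b 0 * e5
  · simp only [coA, errA, lnOf, Ln4.pos, Matrix.cons_val]
    linear_combination -e9 - b 0 * e6 + b 2 * (e8 + b 0 * e5)
  · simp only [coA, errA, lnOf, Ln4.pos, Matrix.cons_val]
    linear_combination -e10 - b 0 * e7 + b 4 * (e8 + b 0 * e5) + b 3 * (e9 + b 0 * e6)

/-- the formula is Lipschitz -/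
theorem coA_lip {η : ℝ} (hη : 0 ≤ η) {b b' g g' : Fin 11 → ℝ} {fa fa' fb fb' z z' : ℝ}
    (hb : ∀ s : Fin 11, s = 2 ∨ s = 5 ∨ s = 6 ∨ s = 7 ∨ s = 8 ∨ s = 9 ∨ s = 10 →
      Ap η 1 1 (b s) (b' s))
    (hg : ∀ s : Fin 11, s = 2 ∨ s = 5 ∨ s = 6 ∨ s = 7 ∨ s = 8 ∨ s = 9 ∨ s = 10 →
      Ap η 1 1 (g s) (g' s))
    (hfa : |fa| ≤ 1) (hfb : Ap η 1 1 fb fb') (hz : Ap η 1 1 z z') (s : Fin 11) (hs : s ∈ fAll) :
    |coA (lnOf b) (lnOf g) (b 2) (g 2) fa fa' fb z s -
      coA (lnOf b') (lnOf g') (b' 2) (g' 2) fa fa' fb' z' s| ≤ 50 * η := by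
  have hs' : s = 2 ∨ s = 4 ∨ s = 5 ∨ s = 6 ∨ s = 7 ∨ s = 8 ∨ s = 9 ∨ s = 10 := by
    revert hs; unfold fAll; revert s; decide
  have b2 := hb 2 (by simp)
  have b5 := hb 5 (by simp)
  have b6 := hb 6 (by simp)
  have b7 := hb 7 (by simp)
  have b8 := hb 8 (by simp)
  have b9 := hb 9 (by simp)
  have b10 := hb 10 (by simp)
  have g2 := hg 2 (by simp)
  have g5 := hg 5 (by simp)
  have g6 := hg 6 (by simp)
  have g7 := hg 7 (by simp)
  have g8 := hg 8 (by simp)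
  have g9 := hg 9 (by simp)
  have g10 := hg 10 (by simp)
  have ka : Ap η 1 0 fa fa := Ap.const hη hfa
  rcases hs' with rfl | rfl | rfl | rfl | rfl | rfl | rfl | rfl
  · simp only [coA, Matrix.cons_val]
    exact (g2.sub b2).mono hη (by norm_num)
  · simp only [coA, Matrix.cons_val]
    rw [sub_self, abs_zero]
    positivity
  · simp only [coA, lnOf, Matrix.cons_val]
    exact (g5.sub b5).mono hη (by norm_num)
  · simp only [coA, lnOf, Matrix.cons_val]
    exact ((g6.sub b6).sub (b2.mul (g5.sub b5))).mono hη (by norm_num)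
  · simp only [coA, lnOf, Matrix.cons_val]
    exact (((g7.sub b7).sub (ka.mul (g5.sub b5))).sub (hfb.mul (g6.sub b6))).mono hη (by norm_num)
  · simp only [coA, lnOf, Ln4.pos, Matrix.cons_val]
    exact ((g8.add (hz.mul g5)).sub (b8.add (hz.mul b5))).mono hη (by norm_num)
  · simp only [coA, lnOf, Ln4.pos, Matrix.cons_val]
    exact (((g9.add (hz.mul g6)).sub (b9.add (hz.mul b6))).sub
      (b2.mul ((g8.add (hz.mul g5)).sub (b8.add (hz.mul b5))))).mono hη (by norm_num)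
  · simp only [coA, lnOf, Ln4.pos, Matrix.cons_val]
    exact ((((g10.add (hz.mul g7)).sub (b10.add (hz.mul b7))).sub
      (ka.mul ((g8.add (hz.mul g5)).sub (b8.add (hz.mul b5))))).sub
      (hfb.mul ((g9.add (hz.mul g6)).sub (b9.add (hz.mul b6))))).mono hη (by norm_num)

variable {ι : ℕ → Type*} [∀ n, DecidableEq (ι n)]

/-- all walls are tight with coefficient `1` -/
def CfOne (W : Wnd 11 ι) (n : ℕ) : Prop :=
  cf W n 2 3 4 = 1 ∧ cf W n 2 5 6 = 1 ∧ cf W n 4 5 7 = 1 ∧ cf W n 3 6 7 = 1 ∧ cf W n 0 5 8 = 1 ∧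
  cf W n 0 6 9 = 1 ∧ cf W n 2 8 9 = 1 ∧ cf W n 0 7 10 = 1 ∧ cf W n 4 8 10 = 1 ∧ cf W n 3 9 10 = 1

variable {W : Wnd 11 ι} {f : ∀ n, ι n → Fq4}

/-- weights of the slots -/
def wtQ : Fin 11 → ℕ := ![1, 1, 1, 1, 2, 1, 2, 3, 2, 3, 4]

theorem cfOne_of (h : QWnd W f) {K : ℝ} (hK : 0 < K) (hkap : ∀ s, W.kap s = K ^ wtQ s) {n : ℕ}
    (w4 : W.X n 4 = W.X n 2 + W.X n 3) (w6 : W.X n 6 = W.X n 2 + W.X n 5)
    (w7b : W.X n 7 = W.X n 4 + W.X n 5) (w7c : W.X n 7 = W.X n 3 + W.X n 6)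
    (w8 : W.X n 8 = W.X n 0 + W.X n 5) (w9a : W.X n 9 = W.X n 0 + W.X n 6)
    (w9b : W.X n 9 = W.X n 2 + W.X n 8) (w10a : W.X n 10 = W.X n 0 + W.X n 7)
    (w10b : W.X n 10 = W.X n 4 + W.X n 8) (w10c : W.X n 10 = W.X n 3 + W.X n 9) :
    CfOne W n := by
  have hK0 := hK.ne'
  have key : ∀ i j s : Fin 11, W.X n s = W.X n i + W.X n j → wtQ s = wtQ i + wtQ j →
      cf W n i j s = 1 := by
    intro i j s hw hwt
    rw [h.cf_eq hw, hkap, hkap, hkap, hwt, pow_add]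
    field_simp
  exact ⟨key _ _ _ w4 rfl, key _ _ _ w6 rfl, key _ _ _ w7b rfl, key _ _ _ w7c rfl, key _ _ _ w8 rfl,
    key _ _ _ w9a rfl, key _ _ _ w9b rfl, key _ _ _ w10a rfl, key _ _ _ w10b rfl,
    key _ _ _ w10c rfl⟩

/-- **the composition law** with coefficients `1` -/
theorem law (h : QWnd W f) {n : ℕ} (g : W.Good n) (hc : CfOne W n) {p x y : ι n}
    (hp : p ∈ W.Cl n) (hx : x ∈ W.Cl n) (hy : y ∈ W.Cl n) :
    Law (cf W n 0 1 7) (W.crd n p y) (W.crd n p x) (W.crd n x y) := by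
  obtain ⟨c4, c6, c7b, c7c, c8, c9a, c9b, c10a, c10b, c10c⟩ := hc
  have hu : ∀ s, un W n s ≠ 0 := fun s => (h.un_pos n s).ne'
  have key : ∀ i j s : Fin 11, cf W n i j s = 1 → un W n i * un W n j = un W n s := by
    intro i j s hcf
    have h1 := hu s
    unfold cf at hcf
    rwa [div_eq_iff h1, one_mul] at hcf
  have e4 := key _ _ _ c4
  have e6 := key _ _ _ c6
  have e7b := key _ _ _ c7b
  have e7c := key _ _ _ c7c
  have e8 := key _ _ _ c8
  have e9a := key _ _ _ c9a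
  have e9b := key _ _ _ c9b
  have e10a := key _ _ _ c10a
  have e10b := key _ _ _ c10b
  have e10c := key _ _ _ c10c
  have er : un W n 0 * un W n 1 = cf W n 0 1 7 * un W n 7 := by
    unfold cf
    have := hu 7
    field_simp
  obtain ⟨p0, p1, p2, p3, p4, p5, p6, p7, p8, p9, p10⟩ := coQ_add (f n p) (f n x) (f n y)
  have ea : ∀ s, coQ (f n p) (f n x) s = un W n s * W.crd n p x s := h.crd_eq g hp hx
  have eb : ∀ s, coQ (f n x) (f n y) s = un W n s * W.crd n x y s := h.crd_eq g hx hy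
  have ee : ∀ s, coQ (f n p) (f n y) s = un W n s * W.crd n p y s := h.crd_eq g hp hy
  simp only [ea, eb, ee] at p0 p1 p2 p3 p4 p5 p6 p7 p8 p9 p10
  refine ⟨?_, ?_, ?_, ?_, ?_, ?_, ?_, ?_, ?_, ?_⟩
  · refine mul_left_cancel₀ (hu 0) ?_
    linear_combination p0
  · refine mul_left_cancel₀ (hu 2) ?_
    linear_combination p2
  · refine mul_left_cancel₀ (hu 3) ?_
    linear_combination p3
  · refine mul_left_cancel₀ (hu 4) ?_
    linear_combination p4 - W.crd n p x 2 * W.crd n x y 3 * e4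
  · refine mul_left_cancel₀ (hu 5) ?_
    linear_combination p5
  · refine mul_left_cancel₀ (hu 6) ?_
    linear_combination p6 + W.crd n p x 2 * W.crd n x y 5 * e6
  · refine mul_left_cancel₀ (hu 7) ?_
    linear_combination p7 - 2 * W.crd n p x 0 * W.crd n x y 1 * er +
      W.crd n p x 4 * W.crd n x y 5 * e7b +
      W.crd n p x 2 * W.crd n p x 3 * W.crd n x y 5 * (un W n 5 * e4 + e7b) +
      W.crd n p x 3 * W.crd n x y 6 * e7c
  · refine mul_left_cancel₀ (hu 8) ?_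
    linear_combination p8 - W.crd n p x 0 * W.crd n x y 5 * e8
  · refine mul_left_cancel₀ (hu 9) ?_
    linear_combination p9 - W.crd n p x 0 * W.crd n x y 6 * e9a +
      W.crd n p x 2 * W.crd n x y 8 * e9b -
      W.crd n p x 2 * W.crd n p x 0 * W.crd n x y 5 * (un W n 2 * e8 + e9b)
  · refine mul_left_cancel₀ (hu 10) ?_
    linear_combination p10 - W.crd n p x 0 * W.crd n x y 7 * e10a +
      W.crd n p x 0 ^ 2 * W.crd n x y 1 * (un W n 0 * er + cf W n 0 1 7 * e10a) +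
      W.crd n p x 4 * W.crd n x y 8 * e10b -
      W.crd n p x 4 * W.crd n p x 0 * W.crd n x y 5 * (un W n 4 * e8 + e10b) +
      W.crd n p x 2 * W.crd n p x 3 * W.crd n x y 8 * (un W n 8 * e4 + e10b) -
      W.crd n p x 2 * W.crd n p x 3 * W.crd n p x 0 * W.crd n x y 5 *
        (un W n 0 * un W n 5 * e4 + un W n 4 * e8 + e10b) +
      W.crd n p x 3 * W.crd n x y 9 * e10c -
      W.crd n p x 3 * W.crd n p x 0 * W.crd n x y 6 * (un W n 3 * e9a + e10c)

end Crest.Agent.R136.Ab356
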