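import Crest.Agent.R136.Ab1_356

/-!
# R136: lightlike windows in absolute coordinates (helper356), part 2

`AbsHyp` : hypotheses on a window (lightlike: level slots `z, F_b`, walls tight with coefficient `1`,
slot `R` negligible); **`AbsHyp.absWin`**: `W.cfg E` is a lightlike window in absolute coordinates
(`Wk323.AbsWin`) as soon as `F_b` is affine in `z`.
-/

set_option autoImplicit false
set_option linter.unusedSectionVars false
set_option linter.unusedVariables false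

open Filter Topology

namespace Crest.Agent.R136.Ab356

open Finset Crest.Agent.R136.NetQ186 Crest.Agent.R136.Net191 Crest.Agent.R136.Qg926
open Crest.Agent.R136.Gf356 Crest.Agent.R136.Ev356 Crest.Agent.R136.Sh605
open Crest.Agent.R136.Wk323
open Crest.Agent.R138.Ex926 (Base U)

variable {ι : ℕ → Type*} [∀ n, DecidableEq (ι n)]

open Classical in
/-- a chosen incidence on a fat line -/
noncomputable def lrep (W : Wnd 11 ι) (n l : ℕ) : ι n :=
  if h : ∃ i ∈ W.Cl n, W.lc n i = l then h.choose else W.s₀ n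

theorem lrep_spec {W : Wnd 11 ι} {n : ℕ} {i : ι n} (hi : i ∈ W.Cl n) :
    lrep W n (W.lc n i) ∈ W.Cl n ∧ W.lc n (lrep W n (W.lc n i)) = W.lc n i := by
  have h : ∃ j ∈ W.Cl n, W.lc n j = W.lc n i := ⟨i, hi, rfl⟩
  unfold lrep
  rw [dif_pos h]
  exact h.choose_spec

/-- the absolute straight line of a fat line, frame of the base incidence -/
noncomputable def absT (W : Wnd 11 ι) (n l : ℕ) : Ln4 := lnOf (W.crd n (W.s₀ n) (lrep W n l))

/-- the axis of a fat line -/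
noncomputable def absE (W : Wnd 11 ι) (n l : ℕ) : ℝ := W.crd n (W.s₀ n) (lrep W n l) 2

/-- the flag `F_a` of an incidence -/
noncomputable def absFa (W : Wnd 11 ι) (n l k : ℕ) : ℝ := W.crd n (W.s₀ n) (W.rep n l k) 4

/-- the flag `F_b` of a height -/
noncomputable def absFb (W : Wnd 11 ι) (n k : ℕ) : ℝ := flg W n k 3

/-- **hypotheses on a lightlike window** -/
structure AbsHyp (W : Wnd 11 ι) (f : ∀ n, ι n → Fq4) (E : ∀ n, Finset (ι n)) (x : ℝ) : Prop where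
  q : QWnd W f
  kz : W.kz = 0
  S0 : (0 : Fin 11) ∈ W.S
  S3 : (3 : Fin 11) ∈ W.S
  S2 : (2 : Fin 11) ∉ W.S
  S4 : (4 : Fin 11) ∉ W.S
  kap : ∀ s, 4 * W.K0 ≤ W.kap s
  tight : ∀ᶠ n in (U : Filter ℕ), CfOne W n
  R : ∀ ε : ℝ, 0 < ε → ∀ᶠ n in (U : Filter ℕ), ∀ u ∈ W.Cl n, ∀ v ∈ W.Cl n,
    cf W n 0 1 7 * |W.crd n u v 1| ≤ W.B'.d n ^ (x - ε)
  top : ∀ s, x ≤ W.top s
  cfg : ∀ᶠ n in (U : Filter ℕ), W.Good n ∧ E n ⊆ W.Cl n ∧ W.cfg E n = W.cfg0 n (E n)

namespace AbsHyp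

variable {W : Wnd 11 ι} {f : ∀ n, ι n → Fq4} {E : ∀ n, Finset (ι n)} {x : ℝ}
  (h : AbsHyp W f E x)

include h

theorem K0kap (s : Fin 11) : W.K0 / W.kap s ≤ 1 / 4 := by
  have h1 := h.q.ok.kap s
  have h2 := h.kap s
  rw [div_le_div_iff₀ h1 (by norm_num)]
  linarith

theorem crd4 {n : ℕ} (g : W.Good n) {u v : ι n} (hu : u ∈ W.Cl n) (hv : v ∈ W.Cl n)
    (s : Fin 11) : |W.crd n u v s| ≤ 1 / 4 := (h.q.crd_le g hu hv s).trans (h.K0kap s)

theorem lev {n : ℕ} (g : W.Good n) {η : ℝ} (hη : W.B'.d n ^ x ≤ η) {u v : ι n}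
    (hu : u ∈ W.Cl n) (hv : v ∈ W.Cl n) (hl : W.zc n u = W.zc n v) {s : Fin 11} (hs : s ∈ W.S) :
    Ap η 1 1 (W.crd n u v s) 0 := by
  have h0 : 0 ≤ W.B'.d n ^ x := Real.rpow_nonneg (W.B'.pos n).le x
  refine ⟨(h.crd4 g hu hv s).trans (by norm_num), by rw [abs_zero]; norm_num, ?_⟩
  rw [sub_zero, one_mul]
  have h1 := h.q.crd_lev g hu hv hl hs (h.top s)
  have h2 := h.K0kap s
  nlinarith

theorem own {n : ℕ} (g : W.Good n) {η : ℝ} (hη : W.B'.d n ^ x ≤ η) {u v : ι n}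
    (hu : u ∈ W.Cl n) (hv : v ∈ W.Cl n) (hl : W.lc n u = W.lc n v) {s : Fin 11} (hs : s ∉ W.S) :
    Ap η 1 1 (W.crd n u v s) 0 := by
  have h0 : 0 ≤ W.B'.d n ^ x := Real.rpow_nonneg (W.B'.pos n).le x
  refine ⟨(h.crd4 g hu hv s).trans (by norm_num), by rw [abs_zero]; norm_num, ?_⟩
  rw [sub_zero, one_mul]
  have h1 := h.q.crd_own g hu hv hl hs (h.top s)
  have h2 := h.K0kap s
  nlinarith

/-- absolute coordinates of the incidences of one fat line -/
theorem line {n : ℕ} (g : W.Good n) (hc : CfOne W n) {η : ℝ} (hη : W.B'.d n ^ x ≤ η)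
    (hR : ∀ u ∈ W.Cl n, ∀ v ∈ W.Cl n, cf W n 0 1 7 * |W.crd n u v 1| ≤ η) {u v : ι n}
    (hu : u ∈ W.Cl n) (hv : v ∈ W.Cl n) (hl : W.lc n u = W.lc n v) (s : Fin 11)
    (hs : s = 2 ∨ s = 5 ∨ s = 6 ∨ s = 7 ∨ s = 8 ∨ s = 9 ∨ s = 10) :
    Ap (20 * η) 1 1 (W.crd n (W.s₀ n) u s) (W.crd n (W.s₀ n) v s) := by
  have h0 : 0 ≤ W.B'.d n ^ x := Real.rpow_nonneg (W.B'.pos n).le x
  have hη0 : 0 ≤ η := h0.trans hη
  obtain ⟨e0, e2, e3, e4, e5, e6, e7, e8, e9, e10⟩ := law h.q g hc g.s0 hu hv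
  have B : ∀ s, Ap η 1 0 (W.crd n (W.s₀ n) u s) (W.crd n (W.s₀ n) u s) := fun s =>
    Ap.const hη0 ((h.crd4 g g.s0 hu s).trans (by norm_num))
  have bu : ∀ s, |W.crd n (W.s₀ n) u s| ≤ 1 := fun s =>
    (h.crd4 g g.s0 hu s).trans (by norm_num)
  have bv : ∀ s, |W.crd n (W.s₀ n) v s| ≤ 1 := fun s =>
    (h.crd4 g g.s0 hv s).trans (by norm_num)
  have cS : ∀ s, s ∉ W.S → Ap η 1 1 (W.crd n u v s) 0 := fun s hs => h.own g hη hu hv hl hs
  have nS : ∀ s : Fin 11, s = 1 ∨ s = 5 ∨ s = 6 ∨ s = 7 ∨ s = 8 ∨ s = 9 ∨ s = 10 → s ∉ W.S :=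
    fun s hs => h.q.notMem hs
  have c2 := cS 2 h.S2
  have c5 := cS 5 (nS 5 (by simp))
  have c6 := cS 6 (nS 6 (by simp))
  have c7 := cS 7 (nS 7 (by simp))
  have c8 := cS 8 (nS 8 (by simp))
  have c9 := cS 9 (nS 9 (by simp))
  have c10 := cS 10 (nS 10 (by simp))
  have hr : |cf W n 0 1 7 * W.crd n u v 1| ≤ η := by
    rw [abs_mul, abs_of_pos (h.q.cf_pos n 0 1 7)]
    exact hR u hu v hv
  have key : ∀ {m c z : ℝ} {s : Fin 11}, Ap η m c (W.crd n (W.s₀ n) v s) z →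
      z = W.crd n (W.s₀ n) u s → c ≤ 18 → 
      |W.crd n (W.s₀ n) u s - W.crd n (W.s₀ n) v s| ≤ 18 * η := by
    intro m c z s hA hz hc
    rw [abs_sub_comm, ← hz]
    exact hA.mono hη0 hc
  have main : |W.crd n (W.s₀ n) u s - W.crd n (W.s₀ n) v s| ≤ 20 * η := by
    rcases hs with rfl | rfl | rfl | rfl | rfl | rfl | rfl
    · have a := (B 2).add c2
      rw [← e2] at a
      exact (key a (by ring) (by norm_num)).trans (by linarith)
    · have a := (B 5).add c5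
      rw [← e5] at a
      exact (key a (by ring) (by norm_num)).trans (by linarith)
    · have a := ((B 6).add c6).add ((B 2).mul c5)
      rw [← e6] at a
      exact (key a (by ring) (by norm_num)).trans (by linarith)
    · have a := (((B 7).add c7).add (((B 4).add ((B 2).mul (B 3))).mul c5)).add ((B 3).mul c6)
      have e7' : W.crd n (W.s₀ n) u 7 + W.crd n u v 7 + (W.crd n (W.s₀ n) u 4 +
          W.crd n (W.s₀ n) u 2 * W.crd n (W.s₀ n) u 3) * W.crd n u v 5 +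
          W.crd n (W.s₀ n) u 3 * W.crd n u v 6 = W.crd n (W.s₀ n) v 7 +
          2 * (W.crd n (W.s₀ n) u 0 * (cf W n 0 1 7 * W.crd n u v 1)) := by
        rw [e7]; ring
      rw [e7'] at a
      have h1 : |W.crd n (W.s₀ n) v 7 + 2 * (W.crd n (W.s₀ n) u 0 *
          (cf W n 0 1 7 * W.crd n u v 1)) - W.crd n (W.s₀ n) u 7| ≤ 18 * η := by
        have := a.mono (c' := 18) hη0 (by norm_num)
        refine le_trans (le_of_eq ?_) this
        congr 1
        ring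
      have h2 : |2 * (W.crd n (W.s₀ n) u 0 * (cf W n 0 1 7 * W.crd n u v 1))| ≤ 2 * η := by
        rw [abs_mul, abs_mul, abs_of_pos (by norm_num : (0 : ℝ) < 2)]
        have h3 := mul_le_mul (bu 0) hr (abs_nonneg _) zero_le_one
        linarith
      have e : W.crd n (W.s₀ n) u 7 - W.crd n (W.s₀ n) v 7 =
          2 * (W.crd n (W.s₀ n) u 0 * (cf W n 0 1 7 * W.crd n u v 1)) -
          (W.crd n (W.s₀ n) v 7 + 2 * (W.crd n (W.s₀ n) u 0 *
          (cf W n 0 1 7 * W.crd n u v 1)) - W.crd n (W.s₀ n) u 7) := by ring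
      rw [e]
      have h3 := abs_sub (2 * (W.crd n (W.s₀ n) u 0 * (cf W n 0 1 7 * W.crd n u v 1)))
        (W.crd n (W.s₀ n) v 7 + 2 * (W.crd n (W.s₀ n) u 0 *
          (cf W n 0 1 7 * W.crd n u v 1)) - W.crd n (W.s₀ n) u 7)
      linarith
    · have a := ((B 8).add c8).sub ((B 0).mul c5)
      rw [← e8] at a
      exact (key a (by ring) (by norm_num)).trans (by linarith)
    · have a := ((B 9).add (c9.sub ((B 0).mul c6))).add ((B 2).mul (c8.sub ((B 0).mul c5)))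
      rw [← e9] at a
      exact (key a (by ring) (by norm_num)).trans (by linarith)
    · have a := (((B 10).add (c10.sub ((B 0).mul c7))).add
        (((B 4).add ((B 2).mul (B 3))).mul (c8.sub ((B 0).mul c5)))).add
        ((B 3).mul (c9.sub ((B 0).mul c6)))
      have e10' : W.crd n (W.s₀ n) u 10 + (W.crd n u v 10 - W.crd n (W.s₀ n) u 0 *
          W.crd n u v 7) + (W.crd n (W.s₀ n) u 4 + W.crd n (W.s₀ n) u 2 *
          W.crd n (W.s₀ n) u 3) * (W.crd n u v 8 - W.crd n (W.s₀ n) u 0 * W.crd n u v 5) +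
          W.crd n (W.s₀ n) u 3 * (W.crd n u v 9 - W.crd n (W.s₀ n) u 0 * W.crd n u v 6) =
          W.crd n (W.s₀ n) v 10 - W.crd n (W.s₀ n) u 0 ^ 2 *
          (cf W n 0 1 7 * W.crd n u v 1) := by
        rw [e10]; ring
      rw [e10'] at a
      have h1 : |W.crd n (W.s₀ n) v 10 - W.crd n (W.s₀ n) u 0 ^ 2 *
          (cf W n 0 1 7 * W.crd n u v 1) - W.crd n (W.s₀ n) u 10| ≤ 18 * η := by
        have := a.mono (c' := 18) hη0 (by norm_num)
        refine le_trans (le_of_eq ?_) this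
        congr 1
        ring
      have h2 : |W.crd n (W.s₀ n) u 0 ^ 2 * (cf W n 0 1 7 * W.crd n u v 1)| ≤ 2 * η := by
        rw [abs_mul, abs_pow]
        have h3 : |W.crd n (W.s₀ n) u 0| ^ 2 ≤ 1 := pow_le_one₀ (abs_nonneg _) (bu 0)
        have h4 := mul_le_mul h3 hr (abs_nonneg _) zero_le_one
        linarith
      have e : W.crd n (W.s₀ n) u 10 - W.crd n (W.s₀ n) v 10 =
          -(W.crd n (W.s₀ n) u 0 ^ 2 * (cf W n 0 1 7 * W.crd n u v 1)) -
          (W.crd n (W.s₀ n) v 10 - W.crd n (W.s₀ n) u 0 ^ 2 *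
          (cf W n 0 1 7 * W.crd n u v 1) - W.crd n (W.s₀ n) u 10) := by ring
      rw [e]
      have h3 := abs_sub (-(W.crd n (W.s₀ n) u 0 ^ 2 * (cf W n 0 1 7 * W.crd n u v 1)))
        (W.crd n (W.s₀ n) v 10 - W.crd n (W.s₀ n) u 0 ^ 2 *
          (cf W n 0 1 7 * W.crd n u v 1) - W.crd n (W.s₀ n) u 10)
      rw [abs_neg] at h3
      linarith
  exact ⟨bu s, bv s, by rw [one_mul]; exact main⟩

end AbsHyp

end Crest.Agent.R136.Ab356
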