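import Crest.Agent.R136.Ab2_356

/-!
# R136: lightlike windows in absolute coordinates (helper356), part 3: `AbsHyp.absWin`
-/

set_option autoImplicit false
set_option linter.unusedSectionVars false
set_option linter.unusedVariables false

open Filter Topology

namespace Crest.Agent.R136.Ab356

open Finset Crest.Agent.R136.NetQ186 Crest.Agent.R136.Net191 Crest.Agent.R136.Qg926
open Crest.Agent.R136.Gf356 Crest.Agent.R136.Ev356 Crest.Agent.R136.Sh605
open Crest.Agent.R136.Wk323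
open Crest.Agent.R138.Ex926 (Base U)

variable {ι : ℕ → Type*} [∀ n, DecidableEq (ι n)]

theorem mem_fAll {s : Fin 11} (hs : s ∈ fAll) :
    s = 2 ∨ s = 4 ∨ s = 5 ∨ s = 6 ∨ s = 7 ∨ s = 8 ∨ s = 9 ∨ s = 10 := by
  revert hs; unfold fAll; revert s; decide

namespace AbsHyp

variable {W : Wnd 11 ι} {f : ∀ n, ι n → Fq4} {E : ∀ n, Finset (ι n)} {x : ℝ}
  (h : AbsHyp W f E x)

include h

theorem fAll_notMem {s : Fin 11} (hs : s ∈ fAll) : s ∉ W.S := by
  rcases mem_fAll hs with rfl | rfl | rfl | rfl | rfl | rfl | rfl | rfl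
  · exact h.S2
  · exact h.S4
  all_goals exact h.q.notMem (by simp)

theorem Z_of_mem {n : ℕ} {E0 : Finset (ι n)} (hE : E0 ⊆ W.Cl n) {i k : ℕ}
    (h1 : (i, k) ∈ (W.cfg0 n E0).I) : W.zrep n k ∈ W.Cl n ∧ W.zc n (W.zrep n k) = k := by
  have hk : k ∈ (W.cfg0 n E0).Z := mem_image.2 (by
    obtain ⟨u, hu, -, h6⟩ := mem_cfg0 h1; exact ⟨u, hu, h6⟩)
  exact zrep_of_mem hE hk

theorem lrep_of_mem {n : ℕ} {E0 : Finset (ι n)} (hE : E0 ⊆ W.Cl n) {i k : ℕ}
    (h1 : (i, k) ∈ (W.cfg0 n E0).I) : lrep W n i ∈ W.Cl n ∧ W.lc n (lrep W n i) = i := by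
  obtain ⟨a1, a2, a3⟩ := rep_of_mem hE h1
  have := lrep_spec a1
  rw [a2] at this
  exact this

theorem hz {n : ℕ} {E0 : Finset (ι n)} (k : ℕ) : (W.cfg0 n E0).z k = flg W n k 0 := by
  show W.crd n (W.s₀ n) (W.zrep n k) W.kz = _
  rw [h.kz]; rfl

/-- relative coordinates from absolute ones, one `n` -/
theorem rel0 {n : ℕ} (g : W.Good n) (hc : CfOne W n) {η : ℝ} (hη : W.B'.d n ^ x ≤ η)
    (hR : ∀ u ∈ W.Cl n, ∀ v ∈ W.Cl n, cf W n 0 1 7 * |W.crd n u v 1| ≤ η)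
    {E0 : Finset (ι n)} (hE : E0 ⊆ W.Cl n) {k i l : ℕ} (h1 : (i, k) ∈ (W.cfg0 n E0).I)
    (h2 : (l, k) ∈ (W.cfg0 n E0).I) {s : Fin 11} (hs : s ∈ fAll) :
    |(W.cfg0 n E0).rel k i l s - coA (absT W n i) (absT W n l) (absE W n i) (absE W n l)
      (absFa W n i k) (absFa W n l k) (absFb W n k) ((W.cfg0 n E0).z k) s| ≤ 1002 * η := by
  have h0 : 0 ≤ W.B'.d n ^ x := Real.rpow_nonneg (W.B'.pos n).le x
  have hη0 : 0 ≤ η := h0.trans hη
  obtain ⟨a1, a2, a3⟩ := rep_of_mem hE h1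
  obtain ⟨b1, b2, b3⟩ := rep_of_mem hE h2
  obtain ⟨z1, z2⟩ := h.Z_of_mem hE h1
  obtain ⟨l1, l2⟩ := h.lrep_of_mem hE h1
  obtain ⟨m1, m2⟩ := h.lrep_of_mem hE h2
  have hL := law h.q g hc g.s0 a1 b1
  have ex := coA_exact hL s hs
  have B : ∀ {u v : ι n}, u ∈ W.Cl n → v ∈ W.Cl n → ∀ s, |W.crd n u v s| ≤ 1 := fun hu hv s =>
    (h.crd4 g hu hv s).trans (by norm_num)
  have hlev : ∀ s : Fin 11, s = 0 ∨ s = 2 ∨ s = 3 → s ∈ W.S →
      Ap (20 * η) 1 1 (W.crd n (W.s₀ n) (W.rep n i k) s) (flg W n k s) := by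
    intro s hs hsS
    refine ⟨B g.s0 a1 s, B g.s0 z1 s, ?_⟩
    have e1 := h.q.crd_add g g.s0 a1 z1 (s := s) (by tauto)
    have e2 := (h.lev g hη a1 z1 (a3.trans z2.symm) hsS).d
    rw [sub_zero, one_mul] at e2
    have e3 : W.crd n (W.s₀ n) (W.rep n i k) s - flg W n k s =
        -W.crd n (W.rep n i k) (W.zrep n k) s := by unfold flg; linarith
    rw [e3, abs_neg, one_mul]
    linarith
  have lip := coA_lip (η := 20 * η) (by positivity)
    (b := W.crd n (W.s₀ n) (W.rep n i k)) (b' := W.crd n (W.s₀ n) (lrep W n i))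
    (g := W.crd n (W.s₀ n) (W.rep n l k)) (g' := W.crd n (W.s₀ n) (lrep W n l))
    (fa := W.crd n (W.s₀ n) (W.rep n i k) 4) (fa' := W.crd n (W.s₀ n) (W.rep n l k) 4)
    (fun s hs => h.line g hc hη hR a1 l1 (a2.trans l2.symm) s hs)
    (fun s hs => h.line g hc hη hR b1 m1 (b2.trans m2.symm) s hs)
    (B g.s0 a1 4) (hlev 3 (by simp) h.S3) (hlev 0 (by simp) h.S0) s hs
  have herr : |errA (cf W n 0 1 7) (W.crd n (W.s₀ n) (W.rep n i k))
      (W.crd n (W.rep n i k) (W.rep n l k)) s| ≤ 2 * η := by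
    have hr : |cf W n 0 1 7 * W.crd n (W.rep n i k) (W.rep n l k) 1| ≤ η := by
      rw [abs_mul, abs_of_pos (h.q.cf_pos n 0 1 7)]
      exact hR _ a1 _ b1
    have hz0 : |(0 : ℝ)| ≤ 2 * η := by rw [abs_zero]; positivity
    have u0 := B g.s0 a1 0
    have u2 := B g.s0 a1 2
    rcases mem_fAll hs with rfl | rfl | rfl | rfl | rfl | rfl | rfl | rfl
    · simpa only [errA, Matrix.cons_val] using hz0
    · simp only [errA, Matrix.cons_val]
      have c3 := (h.lev g hη a1 b1 (a3.trans b3.symm) h.S3).d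
      rw [sub_zero, one_mul] at c3
      rw [abs_mul]
      have := mul_le_mul u2 c3 (abs_nonneg _) zero_le_one
      linarith
    · simpa only [errA, Matrix.cons_val] using hz0
    · simpa only [errA, Matrix.cons_val] using hz0
    · simp only [errA, Matrix.cons_val]
      rw [abs_mul, abs_mul, abs_of_pos (by norm_num : (0 : ℝ) < 2)]
      have := mul_le_mul u0 hr (abs_nonneg _) zero_le_one
      linarith
    · simpa only [errA, Matrix.cons_val] using hz0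
    · simpa only [errA, Matrix.cons_val] using hz0
    · simp only [errA, Matrix.cons_val]
      rw [abs_mul, abs_pow]
      have h3 : |W.crd n (W.s₀ n) (W.rep n i k) 0| ^ 2 ≤ 1 := pow_le_one₀ (abs_nonneg _) u0
      have := mul_le_mul h3 hr (abs_nonneg _) zero_le_one
      linarith
  rw [rel_cfg0, if_neg (h.fAll_notMem hs), ex, h.hz]
  have tri := abs_add_le
    (coA (lnOf (W.crd n (W.s₀ n) (W.rep n i k))) (lnOf (W.crd n (W.s₀ n) (W.rep n l k)))
      (W.crd n (W.s₀ n) (W.rep n i k) 2) (W.crd n (W.s₀ n) (W.rep n l k) 2)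
      (W.crd n (W.s₀ n) (W.rep n i k) 4) (W.crd n (W.s₀ n) (W.rep n l k) 4)
      (W.crd n (W.s₀ n) (W.rep n i k) 3) (W.crd n (W.s₀ n) (W.rep n i k) 0) s -
    coA (absT W n i) (absT W n l) (absE W n i) (absE W n l)
      (absFa W n i k) (absFa W n l k) (absFb W n k) (flg W n k 0) s)
    (errA (cf W n 0 1 7) (W.crd n (W.s₀ n) (W.rep n i k))
      (W.crd n (W.rep n i k) (W.rep n l k)) s)
  have lip' : |coA (lnOf (W.crd n (W.s₀ n) (W.rep n i k)))
      (lnOf (W.crd n (W.s₀ n) (W.rep n l k)))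
      (W.crd n (W.s₀ n) (W.rep n i k) 2) (W.crd n (W.s₀ n) (W.rep n l k) 2)
      (W.crd n (W.s₀ n) (W.rep n i k) 4) (W.crd n (W.s₀ n) (W.rep n l k) 4)
      (W.crd n (W.s₀ n) (W.rep n i k) 3) (W.crd n (W.s₀ n) (W.rep n i k) 0) s -
    coA (absT W n i) (absT W n l) (absE W n i) (absE W n l)
      (absFa W n i k) (absFa W n l k) (absFb W n k) (flg W n k 0) s| ≤ 50 * (20 * η) := lip
  refine le_trans (le_of_eq ?_) (tri.trans (by linarith))
  congr 1
  ring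

/-- own rotation of the flag `F_a`, one `n` -/
theorem own0 {n : ℕ} (g : W.Good n) (hc : CfOne W n) {η : ℝ} (hη : W.B'.d n ^ x ≤ η)
    (hR : ∀ u ∈ W.Cl n, ∀ v ∈ W.Cl n, cf W n 0 1 7 * |W.crd n u v 1| ≤ η)
    {E0 : Finset (ι n)} (hE : E0 ⊆ W.Cl n) {l k k' : ℕ} (h1 : (l, k) ∈ (W.cfg0 n E0).I)
    (h2 : (l, k') ∈ (W.cfg0 n E0).I) :
    |absFa W n l k' - absFa W n l k + absE W n l * (absFb W n k' - absFb W n k)| ≤ 100 * η := by
  have h0 : 0 ≤ W.B'.d n ^ x := Real.rpow_nonneg (W.B'.pos n).le x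
  have hη0 : 0 ≤ η := h0.trans hη
  obtain ⟨a1, a2, a3⟩ := rep_of_mem hE h1
  obtain ⟨b1, b2, b3⟩ := rep_of_mem hE h2
  obtain ⟨z1, z2⟩ := h.Z_of_mem hE h1
  obtain ⟨z1', z2'⟩ := h.Z_of_mem hE h2
  obtain ⟨l1, l2⟩ := h.lrep_of_mem hE h1
  have B : ∀ {u v : ι n}, u ∈ W.Cl n → v ∈ W.Cl n → ∀ s, |W.crd n u v s| ≤ 1 := fun hu hv s =>
    (h.crd4 g hu hv s).trans (by norm_num)
  have hL := law h.q g hc g.s0 a1 b1
  have c4 := (h.own g hη a1 b1 (a2.trans b2.symm) h.S4).d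
  rw [sub_zero, one_mul] at c4
  have dE := (h.line g hc hη hR a1 l1 (a2.trans l2.symm) 2 (by simp)).d
  rw [one_mul] at dE
  have d3 := (h.lev g hη a1 z1 (a3.trans z2.symm) h.S3).d
  have d3' := (h.lev g hη b1 z1' (b3.trans z2'.symm) h.S3).d
  rw [sub_zero, one_mul] at d3 d3'
  have f1 := h.q.crd_add g g.s0 a1 z1 (s := 3) (by simp)
  have f2 := h.q.crd_add g g.s0 b1 z1' (s := 3) (by simp)
  have e3 := hL.e3
  have e4 := hL.e4
  set r := W.rep n l k
  set r' := W.rep n l k'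
  have u2 : |W.crd n (W.s₀ n) r 2| ≤ 1 := B g.s0 a1 2
  have hfb : |absFb W n k' - absFb W n k| ≤ 2 := by
    have h3 := abs_sub (absFb W n k') (absFb W n k)
    have h4 : |absFb W n k'| ≤ 1 := B g.s0 z1' 3
    have h5 : |absFb W n k| ≤ 1 := B g.s0 z1 3
    linarith
  have key : absFa W n l k' - absFa W n l k + absE W n l * (absFb W n k' - absFb W n k) =
      W.crd n r r' 4 + W.crd n (W.s₀ n) r 2 * (W.crd n r' (W.zrep n k') 3 -
        W.crd n r (W.zrep n k) 3) - (W.crd n (W.s₀ n) r 2 - absE W n l) *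
        (absFb W n k' - absFb W n k) := by
    have g1 : absFb W n k' = W.crd n (W.s₀ n) r' 3 + W.crd n r' (W.zrep n k') 3 := f2
    have g2 : absFb W n k = W.crd n (W.s₀ n) r 3 + W.crd n r (W.zrep n k) 3 := f1
    have g3 : absFa W n l k' = W.crd n (W.s₀ n) r' 4 := rfl
    have g4 : absFa W n l k = W.crd n (W.s₀ n) r 4 := rfl
    rw [g3, g4, g1, g2]
    linear_combination e4 + W.crd n (W.s₀ n) r 2 * e3
  rw [key]
  have t1 := abs_sub (W.crd n r r' 4 + W.crd n (W.s₀ n) r 2 *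
    (W.crd n r' (W.zrep n k') 3 - W.crd n r (W.zrep n k) 3))
    ((W.crd n (W.s₀ n) r 2 - absE W n l) * (absFb W n k' - absFb W n k))
  have t2 := abs_add_le (W.crd n r r' 4) (W.crd n (W.s₀ n) r 2 *
    (W.crd n r' (W.zrep n k') 3 - W.crd n r (W.zrep n k) 3))
  have t3 : |W.crd n (W.s₀ n) r 2 * (W.crd n r' (W.zrep n k') 3 - W.crd n r (W.zrep n k) 3)| ≤
      2 * η := by
    rw [abs_mul]
    have h4 := abs_sub (W.crd n r' (W.zrep n k') 3) (W.crd n r (W.zrep n k) 3)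
    have h5 := mul_le_mul u2 (h4.trans (add_le_add d3' d3)) (abs_nonneg _) zero_le_one
    linarith
  have t4 : |(W.crd n (W.s₀ n) r 2 - absE W n l) * (absFb W n k' - absFb W n k)| ≤ 40 * η := by
    rw [abs_mul]
    have dE' : |W.crd n (W.s₀ n) r 2 - absE W n l| ≤ 20 * η := dE
    have := mul_le_mul dE' hfb (abs_nonneg _) (by positivity)
    linarith
  linarith

/-- **lightlike windows in absolute coordinates** -/
theorem absWin {mu be : ℕ → ℝ}
    (haff : ∀ ε : ℝ, 0 < ε → ∀ᶠ n in (U : Filter ℕ), ∀ l k, (l, k) ∈ (W.cfg E n).I →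
      |absFb W n k - be n - mu n * (W.cfg E n).z k| ≤ W.B'.d n ^ (x - ε)) :
    AbsWin W.B' (W.cfg E) x (absT W) (absE W) (absFa W) (absFb W) mu be where
  bd := by
    filter_upwards [h.cfg] with n hn l k hlk
    obtain ⟨g, hE, hcfg⟩ := hn
    rw [hcfg] at hlk ⊢
    obtain ⟨a1, a2, a3⟩ := rep_of_mem hE hlk
    obtain ⟨z1, z2⟩ := h.Z_of_mem hE hlk
    obtain ⟨l1, l2⟩ := h.lrep_of_mem hE hlk
    have B : ∀ {u v : ι n}, u ∈ W.Cl n → v ∈ W.Cl n → ∀ s, |W.crd n u v s| ≤ 1 / 4 :=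
      fun hu hv s => h.crd4 g hu hv s
    have hz : |flg W n k 0| ≤ 1 / 4 := B g.s0 z1 0
    have hp : ∀ a b : ℝ, |a| ≤ 1 / 4 → |b| ≤ 1 / 4 → |a + flg W n k 0 * b| ≤ 1 := by
      intro a b ha hb
      have h1 := abs_add_le a (flg W n k 0 * b)
      rw [abs_mul] at h1
      have h2 := mul_le_mul hz hb (abs_nonneg _) (by norm_num)
      linarith
    rw [h.hz]
    refine ⟨hz.trans (by norm_num), fun j => ?_, fun j => ?_, ?_, ?_, ?_⟩
    · fin_cases j
      · exact hp _ _ (B g.s0 l1 10) (B g.s0 l1 7)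
      · exact hp _ _ (B g.s0 l1 8) (B g.s0 l1 5)
      · exact hp _ _ (B g.s0 l1 9) (B g.s0 l1 6)
    · fin_cases j
      · exact (B g.s0 l1 7).trans (by norm_num)
      · exact (B g.s0 l1 5).trans (by norm_num)
      · exact (B g.s0 l1 6).trans (by norm_num)
    · exact (B g.s0 l1 2).trans (by norm_num)
    · exact (B g.s0 a1 4).trans (by norm_num)
    · exact (B g.s0 z1 3).trans (by norm_num)
  bdr := by
    filter_upwards [h.cfg] with n hn k i l h1 h2 s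
    obtain ⟨g, hE, hcfg⟩ := hn
    rw [hcfg] at h1 h2 ⊢
    obtain ⟨a1, a2, a3⟩ := rep_of_mem hE h1
    obtain ⟨b1, b2, b3⟩ := rep_of_mem hE h2
    rw [rel_cfg0]
    split_ifs
    · rw [abs_zero]; norm_num
    · exact (h.crd4 g a1 b1 s).trans (by norm_num)
  rel := by
    intro ε hε
    filter_upwards [h.cfg, h.tight, h.R (ε / 2) (by positivity),
      Crest.Agent.R136.Gf356.ev_const_le W.B' (half_pos hε) 1002] with
      n hn hc hR hk k i l h1 h2 s hs
    obtain ⟨g, hE, hcfg⟩ := hn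
    rw [hcfg] at h1 h2 ⊢
    have hη : W.B'.d n ^ x ≤ W.B'.d n ^ (x - ε / 2) :=
      Real.rpow_le_rpow_of_exponent_ge (W.B'.pos n) (W.B'.lt n).le (by linarith)
    refine (h.rel0 g hc hη hR hE h1 h2 hs).trans ?_
    refine (mul_le_mul_of_nonneg_right hk (Real.rpow_nonneg (W.B'.pos n).le _)).trans
      (le_of_eq ?_)
    rw [← Real.rpow_add (W.B'.pos n)]
    congr 1; ring
  own := by
    intro ε hε
    filter_upwards [h.cfg, h.tight, h.R (ε / 2) (by positivity),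
      Crest.Agent.R136.Gf356.ev_const_le W.B' (half_pos hε) 100] with
      n hn hc hR hk l k k' h1 h2
    obtain ⟨g, hE, hcfg⟩ := hn
    rw [hcfg] at h1 h2
    have hη : W.B'.d n ^ x ≤ W.B'.d n ^ (x - ε / 2) :=
      Real.rpow_le_rpow_of_exponent_ge (W.B'.pos n) (W.B'.lt n).le (by linarith)
    refine (h.own0 g hc hη hR hE h1 h2).trans ?_
    refine (mul_le_mul_of_nonneg_right hk (Real.rpow_nonneg (W.B'.pos n).le _)).trans
      (le_of_eq ?_)
    rw [← Real.rpow_add (W.B'.pos n)]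
    congr 1; ring
  aff := haff

end AbsHyp

end Crest.Agent.R136.Ab356
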