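import Crest.Agent.R136.Row1_214

/-!
# R136 (S0187), U4 (AL): division by a quadratic sheet along one slice (helper214)

`cau`: a quadratic function `p` which is small on the graph `F = 0` of a steep quadratic function of
two variables has a small chain `(D_F^k p)(0, 0)`, `k ≤ 4`.  `alg`: consequences for the
coefficients.
-/

set_option autoImplicit false

namespace Crest.Agent.R136.Adj214

open Set
open Crest.Agent.R136.Row214 (Q2 Gr)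
open Crest.Agent.R136.Row214

theorem graph {F : Q2} {J : Set ℝ} (hst : ∀ t ∈ J, ∀ y, |y| ≤ 1 / 2 → 1 / 2 ≤ F.dy y t ∧ F.dy y t ≤ 2)
    (h8 : ∀ t ∈ J, |F.ev 0 t| ≤ 1 / 8) : ∃ φ : ℝ → ℝ, Gr F 0 φ J := by
  have key : ∀ t ∈ J, ∃ y : ℝ, |y| ≤ 1 / 4 ∧ F.ev y t = 0 := by
    intro t ht
    have h1 := abs_le.1 (h8 t ht)
    have a1 : F.ev (1 / 4) t = F.ev 0 t + 1 / 4 * F.dy (1 / 8) t := by
      simp only [Q2.ev, Q2.dy]; ring
    have a2 : F.ev (-1 / 4) t = F.ev 0 t - 1 / 4 * F.dy (-1 / 8) t := by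
      simp only [Q2.ev, Q2.dy]; ring
    have s1 := hst t ht (1 / 8) (by rw [abs_of_pos] <;> norm_num)
    have s2 := hst t ht (-1 / 8) (by rw [abs_of_neg] <;> norm_num)
    have p1 : 0 ≤ F.ev (1 / 4) t := by rw [a1]; linarith [h1.1, s1.1]
    have p2 : F.ev (-1 / 4) t ≤ 0 := by rw [a2]; linarith [h1.2, s2.1]
    have hc : ContinuousOn (fun y => F.ev y t) (Icc (-1 / 4) (1 / 4)) := by
      apply Continuous.continuousOn
      unfold Q2.ev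
      fun_prop
    have := intermediate_value_Icc (by norm_num : (-1 / 4 : ℝ) ≤ 1 / 4) hc ⟨p2, p1⟩
    obtain ⟨y, hy, hy'⟩ := this
    exact ⟨y, abs_le.2 ⟨by linarith [hy.1], by linarith [hy.2]⟩, hy'⟩
  choose! φ h1 h2 using key
  exact ⟨φ, ⟨h1, h2, hst⟩⟩

/-- **the chain at the base point** -/
theorem cau {F p : Q2} {lam : ℝ} (hc : F.c = 0)
    (hst : ∀ t, 0 ≤ t → t ≤ 1 / 2000 → ∀ y, |y| ≤ 1 / 2 → 1 / 2 ≤ F.dy y t ∧ F.dy y t ≤ 2)
    (h8 : ∀ t, 0 ≤ t → t ≤ 1 / 2000 → |F.ev 0 t| ≤ 1 / 8) (hν : |F.nu| ≤ 5)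
    (hp : ∀ t, 0 ≤ t → t ≤ 1 / 2000 → ∀ y, |y| ≤ 1 / 4 → F.ev y t = 0 → |p.ev y t| ≤ lam) :
    ∀ k, k ≤ 4 → |((Q2.D F)^[k] p).ev 0 0| ≤ 512 * lam / (1 / 32000) ^ 4 := by
  obtain ⟨φ, H⟩ := graph (F := F) (J := Icc 0 (1 / 2000)) (fun t ht => hst t ht.1 ht.2)
    (fun t ht => h8 t ht.1 ht.2)
  have h0m : (0 : ℝ) ∈ Icc (0 : ℝ) (1 / 2000) := ⟨le_rfl, by norm_num⟩
  have hφ0 : φ 0 = 0 := by
    have h1 := H.eq 0 h0m
    have h2 := H.small 0 h0m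
    have h3 : φ 0 * F.dy (φ 0 / 2) 0 = 0 := by
      have : F.ev (φ 0) 0 = φ 0 * F.dy (φ 0 / 2) 0 + F.c := by
        simp only [Q2.ev, Q2.dy]; ring
      rw [h1, hc] at this; linarith
    have h4 := (H.st 0 h0m (φ 0 / 2) (by
      rw [abs_div, abs_of_pos (by norm_num : (0 : ℝ) < 2)]; linarith)).1
    rcases mul_eq_zero.1 h3 with h | h
    · exact h
    · linarith
  have S := H.sys hν p
  have hpts := Sa705.pts S (by norm_num) (δ := 1 / 32000) (lam := lam) (by norm_num) (by norm_num)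
    (t := fun i => (i : ℝ) / 32000) ?_ ?_ ?_ h0m
  · intro k hk
    have := hpts k hk
    simp only [hφ0] at this
    exact this
  · intro i hi
    have : (i : ℝ) ≤ 15 := by exact_mod_cast Nat.lt_succ_iff.1 hi
    constructor
    · positivity
    · rw [div_le_div_iff₀ (by norm_num) (by norm_num)]; linarith
  · intro i _
    push_cast
    apply le_of_eq
    ring
  · intro i hi
    have hi' : (i : ℝ) ≤ 15 := by exact_mod_cast Nat.lt_succ_iff.1 hi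
    have h1 : (0 : ℝ) ≤ (i : ℝ) / 32000 := by positivity
    have h2 : (i : ℝ) / 32000 ≤ 1 / 2000 := by
      rw [div_le_div_iff₀ (by norm_num) (by norm_num)]; linarith
    simp only [Function.iterate_zero, id_eq]
    exact hp _ h1 h2 _ (H.small _ ⟨h1, h2⟩) (H.eq _ ⟨h1, h2⟩)

/-- `B` of `cau` -/
noncomputable def cB : ℝ := 512 * 32000 ^ 4

theorem cB_pos : 0 < cB := by unfold cB; positivity

theorem abs3 {x y z X Y Z : ℝ} (hx : |x| ≤ X) (hy : |y| ≤ Y) (hz : |z| ≤ Z) :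
    |x * y * z| ≤ X * Y * Z := by
  rw [abs_mul, abs_mul]
  have hX : 0 ≤ X := (abs_nonneg _).trans hx
  have hY : 0 ≤ Y := (abs_nonneg _).trans hy
  exact mul_le_mul (mul_le_mul hx hy (abs_nonneg _) hX) hz (abs_nonneg _) (mul_nonneg hX hY)

theorem abs2 {x y X Y : ℝ} (hx : |x| ≤ X) (hy : |y| ≤ Y) : |x * y| ≤ X * Y := by
  rw [abs_mul]
  exact mul_le_mul hx hy (abs_nonneg _) ((abs_nonneg _).trans hx)

theorem half_le {A x B : ℝ} (hA : 1 / 2 ≤ A) (hx : |A * x| ≤ B) : |x| ≤ 2 * B := by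
  rw [abs_mul, abs_of_pos (by linarith)] at hx
  have := mul_le_mul_of_nonneg_right hA (abs_nonneg x)
  linarith

/-- pure algebra of `alg` -/
theorem alg0 {K B A Fk Fh S f g h k f1 f2 f3 : ℝ} (hK : 1 ≤ K) (hB : 0 ≤ B)
    (hA : 1 / 2 ≤ A) (hA' : A ≤ 2) (hk : |Fk| ≤ K) (hh : |Fh| ≤ K) (hg : |S| ≤ K)
    (hf1 : f1 = Fh * f + 2 * A * g)
    (hf2 : f2 = Fh * f1 + 4 * A * Fh * g - 2 * Fk * S * f - 3 * A * (S * h))
    (hf3 : f3 = Fh * f2 + 8 * A * Fh ^ 2 * g - 3 * A * Fh * (S * h) - 12 * A * Fk * S * g +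
      6 * A * (S ^ 2 * k) - 2 * Fk * S * f1 + 2 * Fk * Fh * S * f)
    (k1 : |f| ≤ 2 * B) (k2 : |f1| ≤ 2 * B) (k3 : |f2| ≤ 2 * B) (k4 : |f3| ≤ 2 * B) :
    |g| ≤ 4 * K * B ∧ |S * h| ≤ 40 * K ^ 2 * B ∧ |S ^ 2 * k| ≤ 150 * K ^ 3 * B := by
  have hAa : |A| ≤ 2 := by rw [abs_le]; constructor <;> linarith
  have hK2 : K ≤ K ^ 2 := by nlinarith
  have hK3 : K ^ 2 ≤ K ^ 3 := by nlinarith [sq_nonneg K]
  have kb : B ≤ K * B := le_mul_of_one_le_left hB hK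
  have kb2 : K * B ≤ K ^ 2 * B := mul_le_mul_of_nonneg_right hK2 hB
  have kb3 : K ^ 2 * B ≤ K ^ 3 * B := mul_le_mul_of_nonneg_right hK3 hB
  have c2 : |(2 : ℝ)| ≤ 2 := by norm_num
  have k5 : |g| ≤ 4 * K * B := by
    have e1 : 2 * A * g = f1 - Fh * f := by rw [hf1]; ring
    have e2 := abs2 hh k1
    have e3 : |2 * A * g| ≤ 2 * B + K * (2 * B) := by
      rw [e1]; exact (abs_sub _ _).trans (add_le_add k2 e2)
    rw [abs_mul, abs_of_pos (by linarith : (0 : ℝ) < 2 * A)] at e3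
    have e4 := mul_le_mul_of_nonneg_right (by linarith : 1 ≤ 2 * A) (abs_nonneg g)
    linarith
  have k6 : |S * h| ≤ 40 * K ^ 2 * B := by
    have e1 : 3 * A * (S * h) = Fh * f1 + 4 * A * Fh * g - 2 * Fk * S * f - f2 := by
      rw [hf2]; ring
    have e2 := abs2 hh k2
    have e3 : |4 * A * Fh * g| ≤ 4 * 2 * K * (4 * K * B) :=
      abs2 (abs3 (by norm_num : |(4 : ℝ)| ≤ 4) hAa hh) k5
    have e4 : |2 * Fk * S * f| ≤ 2 * K * K * (2 * B) := abs2 (abs3 c2 hk hg) k1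
    have e5 : |3 * A * (S * h)| ≤ K * (2 * B) + 4 * 2 * K * (4 * K * B) + 2 * K * K * (2 * B) +
        2 * B := by
      rw [e1]
      exact (abs_sub _ _).trans (add_le_add ((abs_sub _ _).trans
        (add_le_add ((abs_add_le _ _).trans (add_le_add e2 e3)) e4)) k3)
    rw [abs_mul, abs_of_pos (by linarith : (0 : ℝ) < 3 * A)] at e5
    have e6 := mul_le_mul_of_nonneg_right (by linarith : 3 / 2 ≤ 3 * A) (abs_nonneg (S * h))
    have e7 : K * (2 * B) + 4 * 2 * K * (4 * K * B) + 2 * K * K * (2 * B) + 2 * B =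
      2 * (K * B) + 36 * (K ^ 2 * B) + 2 * B := by ring
    rw [e7] at e5
    linarith
  have k7 : |S ^ 2 * k| ≤ 150 * K ^ 3 * B := by
    have e1 : 6 * A * (S ^ 2 * k) = f3 - Fh * f2 - 8 * A * Fh ^ 2 * g + 3 * A * Fh * (S * h) +
      12 * A * Fk * S * g + 2 * Fk * S * f1 - 2 * Fk * Fh * S * f := by
      rw [hf3]; ring
    have e2 := abs2 hh k3
    have h2 : |Fh ^ 2| ≤ K ^ 2 := by
      rw [abs_pow]; exact pow_le_pow_left₀ (abs_nonneg _) hh 2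
    have e3 : |8 * A * Fh ^ 2 * g| ≤ 8 * 2 * K ^ 2 * (4 * K * B) :=
      abs2 (abs3 (by norm_num : |(8 : ℝ)| ≤ 8) hAa h2) k5
    have e4 : |3 * A * Fh * (S * h)| ≤ 3 * 2 * K * (40 * K ^ 2 * B) :=
      abs2 (abs3 (by norm_num : |(3 : ℝ)| ≤ 3) hAa hh) k6
    have e5 : |12 * A * Fk * S * g| ≤ 12 * 2 * K * K * (4 * K * B) :=
      abs2 (abs2 (abs3 (by norm_num : |(12 : ℝ)| ≤ 12) hAa hk) hg) k5
    have e6 : |2 * Fk * S * f1| ≤ 2 * K * K * (2 * B) := abs2 (abs3 c2 hk hg) k2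
    have e7 : |2 * Fk * Fh * S * f| ≤ 2 * K * K * K * (2 * B) :=
      abs2 (abs2 (abs3 c2 hk hh) hg) k1
    have e8 : |6 * A * (S ^ 2 * k)| ≤ 2 * B + K * (2 * B) + 8 * 2 * K ^ 2 * (4 * K * B) +
        3 * 2 * K * (40 * K ^ 2 * B) + 12 * 2 * K * K * (4 * K * B) + 2 * K * K * (2 * B) +
        2 * K * K * K * (2 * B) := by
      rw [e1]
      exact (abs_sub _ _).trans (add_le_add ((abs_add_le _ _).trans (add_le_add
        ((abs_add_le _ _).trans (add_le_add ((abs_add_le _ _).trans (add_le_add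
        ((abs_sub _ _).trans (add_le_add ((abs_sub _ _).trans (add_le_add k4 e2)) e3)) e4)) e5))
        e6)) e7)
    rw [abs_mul, abs_of_pos (by linarith : (0 : ℝ) < 6 * A)] at e8
    have e9 := mul_le_mul_of_nonneg_right (by linarith : 3 ≤ 6 * A) (abs_nonneg (S ^ 2 * k))
    have e10 : 2 * B + K * (2 * B) + 8 * 2 * K ^ 2 * (4 * K * B) +
        3 * 2 * K * (40 * K ^ 2 * B) + 12 * 2 * K * K * (4 * K * B) + 2 * K * K * (2 * B) +
        2 * K * K * K * (2 * B) = 2 * B + 2 * (K * B) + 4 * (K ^ 2 * B) + 404 * (K ^ 3 * B) := by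
      ring
    rw [e10] at e8
    linarith
  exact ⟨k5, k6, k7⟩

/-- **the coefficients from the chain** -/
theorem alg {F d : Q2} {K B : ℝ} (hK : 1 ≤ K) (hf : F.f = 0) (he : d.e = 0)
    (hA : 1 / 2 ≤ F.e) (hA' : F.e ≤ 2) (hk : |F.k| ≤ K) (hh : |F.h| ≤ K) (hg : |2 * F.g| ≤ K)
    (H : ∀ k, k ≤ 4 → |((Q2.D F)^[k] d).ev 0 0| ≤ B) :
    |d.c| ≤ B ∧ |d.f| ≤ 2 * B ∧ |d.g| ≤ 4 * K * B ∧ |2 * F.g * d.h| ≤ 40 * K ^ 2 * B ∧
      |(2 * F.g) ^ 2 * d.k| ≤ 150 * K ^ 3 * B := by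
  obtain ⟨Fk, Fh, Fg, A, Ff, Fc⟩ := F
  obtain ⟨k, h, g, e, f, c⟩ := d
  simp only at hf he hA hA' hk hh hg ⊢
  subst hf he
  have h0 := H 0 (by norm_num)
  have h1 := H 1 (by norm_num)
  have h2 := H 2 (by norm_num)
  have h3 := H 3 (by norm_num)
  have h4 := H 4 (by norm_num)
  simp only [Function.iterate_succ, Function.comp_apply, Function.iterate_zero, id_eq, Q2.D,
    Q2.ev] at h0 h1 h2 h3 h4
  have hB : 0 ≤ B := (abs_nonneg _).trans h0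
  obtain ⟨S, hS⟩ : ∃ S, S = 2 * Fg := ⟨_, rfl⟩
  have eFg : Fg = S / 2 := by rw [hS]; ring
  obtain ⟨f1, hf1⟩ : ∃ f1, f1 = Fh * f + 2 * A * g := ⟨_, rfl⟩
  obtain ⟨f2, hf2⟩ : ∃ f2, f2 = Fh * f1 + 4 * A * Fh * g - 2 * Fk * S * f - 3 * A * (S * h) :=
    ⟨_, rfl⟩
  obtain ⟨f3, hf3⟩ : ∃ f3, f3 = Fh * f2 + 8 * A * Fh ^ 2 * g - 3 * A * Fh * (S * h) -
    12 * A * Fk * S * g + 6 * A * (S ^ 2 * k) - 2 * Fk * S * f1 + 2 * Fk * Fh * S * f := ⟨_, rfl⟩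
  have g1 : |A * f| ≤ B := by
    refine le_trans (le_of_eq ?_) h1
    congr 1; ring
  have g2 : |A * f1| ≤ B := by
    refine le_trans (le_of_eq ?_) h2
    congr 1; rw [hf1]; ring
  have g3 : |A * f2| ≤ B := by
    refine le_trans (le_of_eq ?_) h3
    congr 1; rw [hf2, hf1, hS]; ring
  have g4 : |A * f3| ≤ B := by
    refine le_trans (le_of_eq ?_) h4
    congr 1; rw [hf3, hf2, hf1, hS]; ring
  rw [← hS] at hg ⊢
  have k1 := half_le hA g1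
  obtain ⟨a, b, c'⟩ := alg0 hK hB hA hA' hk hh hg hf1 hf2 hf3 k1 (half_le hA g2) (half_le hA g3)
    (half_le hA g4)
  refine ⟨?_, k1, a, b, c'⟩
  refine le_trans (le_of_eq ?_) h0
  congr 1; ring

end Crest.Agent.R136.Adj214
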