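import Mathlib

/-!
# R136 (U4, PLAN 2 (3) = (AL)): definitions (helper601)

`mn` = 2x2 minors, `dp`, `qf`; `Jt` = 2-jet (gradient, Hessian) in coordinates `(y; ζ, u, v)`,
`y` = normal coordinate; `tg q q'`, `th q q'` = gradient and Hessian at the point of the restriction of
`q'` to the graph of `q`.
-/

set_option autoImplicit false

namespace Crest.Agent.R136.Rk601

/-- `2 × 2` minor of the rows `i, k` and the columns `j, l` -/
def mn (H : Fin 3 → Fin 3 → ℝ) (i j k l : Fin 3) : ℝ := H i j * H k l - H i l * H k j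

/-- scalar product of `ℝ³` -/
def dp (n v : Fin 3 → ℝ) : ℝ := ∑ i, n i * v i

/-- value of the quadratic form -/
def qf (H : Fin 3 → Fin 3 → ℝ) (v : Fin 3 → ℝ) : ℝ := ∑ i, ∑ j, H i j * v i * v j

/-- 2-jet without the constant term: normal derivative `a0`, derivatives `a` in `(ζ, u, v)`, second
derivatives `h00`, `h0`, `h` -/
structure Jt where
  a0 : ℝ
  a : Fin 3 → ℝ
  h00 : ℝ
  h0 : Fin 3 → ℝ
  h : Fin 3 → Fin 3 → ℝ

/-- slopes of the graph `q = const` -/
noncomputable def sl (q : Jt) (i : Fin 3) : ℝ := -q.a i / q.a0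

/-- Hessian of `P` on the vectors `e_i + s_i e_y` -/
def lf (P : Jt) (s : Fin 3 → ℝ) (i j : Fin 3) : ℝ :=
  P.h i j + P.h0 i * s j + P.h0 j * s i + P.h00 * (s i * s j)

/-- gradient of the restriction of `q'` to the graph of `q` -/
noncomputable def tg (q q' : Jt) (i : Fin 3) : ℝ := q'.a i - q'.a0 / q.a0 * q.a i

/-- Hessian of the restriction of `q'` to the graph of `q` -/
noncomputable def th (q q' : Jt) (i j : Fin 3) : ℝ :=
  lf q' (sl q) i j - q'.a0 / q.a0 * lf q (sl q) i j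

/-- `q' + k q` -/
def Jt.addm (q' : Jt) (k : ℝ) (q : Jt) : Jt where
  a0 := q'.a0 + k * q.a0
  a := fun i => q'.a i + k * q.a i
  h00 := q'.h00 + k * q.h00
  h0 := fun i => q'.h0 i + k * q.h0 i
  h := fun i j => q'.h i j + k * q.h i j

/-- symmetric Hessian -/
def Jt.Sym (J : Jt) : Prop := ∀ i j, J.h i j = J.h j i

/-- the jet at another point of the chart -/
def Jt.shift (J : Jt) (y0 : ℝ) (w0 : Fin 3 → ℝ) : Jt where
  a0 := J.a0 + J.h00 * y0 + dp J.h0 w0
  a := fun i => J.a i + y0 * J.h0 i + ∑ j, J.h i j * w0 j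
  h00 := J.h00
  h0 := J.h0
  h := J.h

end Crest.Agent.R136.Rk601
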