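import Crest.Agent.R136.Adj1_214
import Crest.Agent.R136.Rk3D_601

/-!
# R136 (S0187), U4 (AL): division by a sheet jet, algebra of jets (helper214)

`prod`: if `|qf H ω| |E·ω| ≤ N` for all small nonnegative `ω` and `H` has a large entry, then `E` is
small.  `NJ c J`: normal form of a sheet in a chart.  `div_jet`: a quadratic function which is small
on the sheet is a multiple of the sheet function plus a small quadratic function.
-/

set_option autoImplicit false

namespace Crest.Agent.R136.Adj214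

open Set
open Crest.Agent.R136.Row214 (Q2 Gr)
open Crest.Agent.R136.Rk601 (Jt dp qf lf sl)

/-- value of the polynomial of a jet -/
noncomputable def ev (J : Jt) (y : ℝ) (ξ : Fin 3 → ℝ) : ℝ :=
  J.a0 * y + dp J.a ξ + 1 / 2 * (J.h00 * y ^ 2 + 2 * y * dp J.h0 ξ + qf J.h ξ)

/-- mixed second derivatives in the slice -/
def hs (P : Jt) (s : Fin 3 → ℝ) (i : Fin 3) : ℝ := P.h0 i + P.h00 * s i

/-- slice of the sheet function -/
noncomputable def sF (J : Jt) (ω : Fin 3 → ℝ) : Q2 :=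
  ⟨1 / 2 * J.h00, dp (hs J (sl J)) ω, 1 / 2 * qf (lf J (sl J)) ω, J.a0, 0, 0⟩

/-- slice of another function without normal derivative -/
noncomputable def sD (s : Fin 3 → ℝ) (D : Jt) (c0 : ℝ) (ω : Fin 3 → ℝ) : Q2 :=
  ⟨1 / 2 * D.h00, dp (hs D s) ω, 1 / 2 * qf (lf D s) ω, 0, dp D.a ω, c0⟩

theorem sF_ev {J : Jt} (h : J.a0 ≠ 0) (ω : Fin 3 → ℝ) (y t : ℝ) :
    (sF J ω).ev y t = ev J (y + t * dp (sl J) ω) (fun i => t * ω i) := by
  have e : J.a0 * dp (sl J) ω = - dp J.a ω := by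
    simp only [dp, sl, Fin.sum_univ_three]
    field_simp
    ring
  have e2 : ev J (y + t * dp (sl J) ω) (fun i => t * ω i) = J.a0 * y + t * (J.a0 * dp (sl J) ω) +
      t * dp J.a ω + 1 / 2 * (J.h00 * (y + t * dp (sl J) ω) ^ 2 +
      2 * (y + t * dp (sl J) ω) * (t * dp J.h0 ω) + t ^ 2 * qf J.h ω) := by
    simp only [ev, dp, qf, Fin.sum_univ_three]
    ring
  rw [e2, e]
  have e3 : dp (hs J (sl J)) ω = dp J.h0 ω + J.h00 * dp (sl J) ω := by
    simp only [dp, hs, Fin.sum_univ_three]; ring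
  have e4 : qf (lf J (sl J)) ω = qf J.h ω + 2 * dp J.h0 ω * dp (sl J) ω +
      J.h00 * dp (sl J) ω ^ 2 := by
    simp only [dp, qf, lf, Fin.sum_univ_three]; ring
  simp only [Q2.ev, sF, e3, e4]
  ring

theorem sD_ev {D : Jt} (h : D.a0 = 0) (s : Fin 3 → ℝ) (c0 : ℝ) (ω : Fin 3 → ℝ) (y t : ℝ) :
    (sD s D c0 ω).ev y t = c0 + ev D (y + t * dp s ω) (fun i => t * ω i) := by
  have e2 : ev D (y + t * dp s ω) (fun i => t * ω i) =
      t * dp D.a ω + 1 / 2 * (D.h00 * (y + t * dp s ω) ^ 2 +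
      2 * (y + t * dp s ω) * (t * dp D.h0 ω) + t ^ 2 * qf D.h ω) := by
    simp only [ev, dp, qf, Fin.sum_univ_three, h]
    ring
  rw [e2]
  have e3 : dp (hs D s) ω = dp D.h0 ω + D.h00 * dp s ω := by
    simp only [dp, hs, Fin.sum_univ_three]; ring
  have e4 : qf (lf D s) ω = qf D.h ω + 2 * dp D.h0 ω * dp s ω + D.h00 * dp s ω ^ 2 := by
    simp only [dp, qf, lf, Fin.sum_univ_three]; ring
  simp only [Q2.ev, sD, e3, e4]
  ring

theorem sF_dy (J : Jt) (ω : Fin 3 → ℝ) (y t : ℝ) :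
    (sF J ω).dy y t = J.a0 + J.h00 * (y + t * dp (sl J) ω) + dp J.h0 (fun i => t * ω i) := by
  have e3 : dp (hs J (sl J)) ω = dp J.h0 ω + J.h00 * dp (sl J) ω := by
    simp only [dp, hs, Fin.sum_univ_three]; ring
  have e5 : dp J.h0 (fun i => t * ω i) = t * dp J.h0 ω := by
    simp only [dp, Fin.sum_univ_three]; ring
  simp only [Q2.dy, sF, e3, e5]
  ring

/-- unit vectors -/
def uv (i : Fin 3) (a : ℝ) : Fin 3 → ℝ := fun l => if l = i then a else 0

theorem dp_uv (E : Fin 3 → ℝ) (i : Fin 3) (a : ℝ) : dp E (uv i a) = E i * a := by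
  fin_cases i <;> simp [dp, uv]

theorem qf_uv (H : Fin 3 → Fin 3 → ℝ) (i : Fin 3) (a : ℝ) : qf H (uv i a) = H i i * a ^ 2 := by
  fin_cases i <;> simp [qf, uv] <;> ring

theorem qf_uv2 {H : Fin 3 → Fin 3 → ℝ} (hs : ∀ i j, H i j = H j i) (i j : Fin 3) (a : ℝ) :
    qf H (fun l => uv i a l + uv j a l) = (H i i + 2 * H i j + H j j) * a ^ 2 := by
  have s10 := hs 1 0
  have s20 := hs 2 0
  have s21 := hs 2 1
  fin_cases i <;> fin_cases j <;> simp [qf, uv, Fin.sum_univ_three] <;>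
    (try simp only [s10, s20, s21]) <;> ring

theorem dp_le' {n v : Fin 3 → ℝ} {a b : ℝ} (ha : ∀ i, |n i| ≤ a) (hb : ∀ i, |v i| ≤ b) :
    |dp n v| ≤ 3 * (a * b) := by
  unfold dp
  rw [Fin.sum_univ_three]
  have h0 := abs2 (ha 0) (hb 0)
  have h1 := abs2 (ha 1) (hb 1)
  have h2 := abs2 (ha 2) (hb 2)
  refine (abs_add_le _ _).trans ((add_le_add (abs_add_le _ _) le_rfl).trans ?_)
  linarith

theorem qf_le' {H : Fin 3 → Fin 3 → ℝ} {v : Fin 3 → ℝ} {a b : ℝ} (ha : ∀ i j, |H i j| ≤ a)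
    (hb : ∀ i, |v i| ≤ b) : |qf H v| ≤ 9 * (a * b ^ 2) := by
  have h : ∀ i, |∑ j, H i j * v i * v j| ≤ 3 * (a * b ^ 2) := by
    intro i
    rw [Fin.sum_univ_three]
    have h0 := abs3 (ha i 0) (hb i) (hb 0)
    have h1 := abs3 (ha i 1) (hb i) (hb 1)
    have h2 := abs3 (ha i 2) (hb i) (hb 2)
    refine (abs_add_le _ _).trans ((add_le_add (abs_add_le _ _) le_rfl).trans ?_)
    linarith
  unfold qf
  rw [Fin.sum_univ_three]
  refine (abs_add_le _ _).trans ((add_le_add (abs_add_le _ _) le_rfl).trans ?_)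
  linarith [h 0, h 1, h 2]

theorem qf_diff (H : Fin 3 → Fin 3 → ℝ) (v : Fin 3 → ℝ) (k : Fin 3) (τ : ℝ) :
    qf H (fun l => v l + uv k τ l) = qf H v + τ * dp (fun l => H k l + H l k) v +
      H k k * τ ^ 2 := by
  fin_cases k <;> simp [qf, dp, uv, Fin.sum_univ_three] <;> ring

theorem dp_diff (E : Fin 3 → ℝ) (v : Fin 3 → ℝ) (k : Fin 3) (τ : ℝ) :
    dp E (fun l => v l + uv k τ l) = dp E v + E k * τ := by
  fin_cases k <;> simp [dp, uv, Fin.sum_univ_three] <;> ring

/-- a direction on which the form is large -/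
theorem exists_dir {H : Fin 3 → Fin 3 → ℝ} {m : ℝ} (hs : ∀ i j, H i j = H j i)
    (hm : ∃ i j, m ≤ |H i j|) :
    ∃ ω : Fin 3 → ℝ, (∀ i, 0 ≤ ω i ∧ ω i ≤ 1 / 2) ∧ m / 8 ≤ |qf H ω| := by
  by_cases hd : ∃ i, m / 2 ≤ |H i i|
  · obtain ⟨i, hi⟩ := hd
    refine ⟨uv i (1 / 2), fun l => ?_, ?_⟩
    · unfold uv; split_ifs <;> norm_num
    · rw [qf_uv, abs_mul, abs_of_pos (by norm_num : (0 : ℝ) < (1 / 2) ^ 2)]
      linarith
  · push Not at hd
    obtain ⟨i, j, hij⟩ := hm
    have hne : i ≠ j := by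
      rintro rfl
      have := hd i
      have h0 : 0 ≤ |H i i| := abs_nonneg _
      linarith
    refine ⟨fun l => uv i (1 / 2) l + uv j (1 / 2) l, fun l => ?_, ?_⟩
    · unfold uv
      by_cases h1 : l = i
      · have h2 : l ≠ j := fun h => hne (h1.symm.trans h)
        simp [h1, hne]
      · by_cases h2 : l = j
        · simp [h2, hne.symm]
        · simp [h1, h2]
    · rw [qf_uv2 hs, abs_mul, abs_of_pos (by norm_num : (0 : ℝ) < (1 / 2) ^ 2)]
      have a1 := hd i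
      have a2 := hd j
      have a3 : 2 * |H i j| ≤ |H i i + 2 * H i j + H j j| + |H i i| + |H j j| := by
        have : 2 * H i j = (H i i + 2 * H i j + H j j) - H i i - H j j := by ring
        have e : |2 * H i j| = 2 * |H i j| := by
          rw [abs_mul, abs_of_pos (by norm_num : (0 : ℝ) < 2)]
        rw [← e]
        conv_lhs => rw [this]
        exact (abs_sub _ _).trans (add_le_add (abs_sub _ _) le_rfl)
      have a4 : 0 ≤ |H i i| := abs_nonneg _
      linarith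

/-- **product lemma** -/
theorem prod {H : Fin 3 → Fin 3 → ℝ} {E : Fin 3 → ℝ} {K m N : ℝ} (hs : ∀ i j, H i j = H j i)
    (hb : ∀ i j, |H i j| ≤ K) (hm0 : 0 < m) (hm : ∃ i j, m ≤ |H i j|)
    (hN : ∀ ω : Fin 3 → ℝ, (∀ i, 0 ≤ ω i ∧ ω i ≤ 1) → |qf H ω * dp E ω| ≤ N) (k : Fin 3) :
    |E k| ≤ 1536 * K * N / m ^ 2 := by
  obtain ⟨ω, h1, h2⟩ := exists_dir hs hm
  obtain ⟨i, j, hij⟩ := hm
  have hmK : m ≤ K := hij.trans (hb i j)
  have hK : 0 < K := hm0.trans_le hmK
  set τ := m / (64 * K) with hτ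
  have hτ0 : 0 < τ := by positivity
  have hτK : K * τ = m / 64 := by rw [hτ]; field_simp
  have hτ1 : τ ≤ 1 / 64 := by
    rw [hτ, div_le_div_iff₀ (by positivity) (by norm_num)]; linarith
  have a1 := hN ω (fun i => ⟨(h1 i).1, (h1 i).2.trans (by norm_num)⟩)
  have a2 := hN (fun l => ω l + uv k τ l) (fun l => by
    have := h1 l
    unfold uv
    split_ifs
    · constructor <;> linarith [this.1, this.2]
    · constructor <;> linarith [this.1, this.2])
  have b1 : m / 16 ≤ |qf H (fun l => ω l + uv k τ l)| := by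
    rw [qf_diff]
    have c1 : |dp (fun l => H k l + H l k) ω| ≤ 3 * (2 * K * (1 / 2)) := by
      apply dp_le'
      · intro l
        exact (abs_add_le _ _).trans (by linarith [hb k l, hb l k])
      · intro l
        rw [abs_of_nonneg (h1 l).1]; exact (h1 l).2
    have c2 : |τ * dp (fun l => H k l + H l k) ω| ≤ 3 * (m / 64) := by
      rw [abs_mul, abs_of_pos hτ0]
      calc τ * |dp (fun l => H k l + H l k) ω| ≤ τ * (3 * (2 * K * (1 / 2))) :=
            mul_le_mul_of_nonneg_left c1 hτ0.le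
        _ = 3 * (K * τ) := by ring
        _ = _ := by rw [hτK]
    have c3 : |H k k * τ ^ 2| ≤ m / 64 := by
      rw [abs_mul, abs_of_pos (by positivity : 0 < τ ^ 2)]
      calc |H k k| * τ ^ 2 ≤ K * τ ^ 2 := mul_le_mul_of_nonneg_right (hb k k) (by positivity)
        _ = (K * τ) * τ := by ring
        _ = m / 64 * τ := by rw [hτK]
        _ ≤ m / 64 * 1 := by
            apply mul_le_mul_of_nonneg_left _ (by positivity)
            linarith
        _ = _ := by ring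
    have c4 : |qf H ω| ≤ |qf H ω + τ * dp (fun l => H k l + H l k) ω + H k k * τ ^ 2| +
        |τ * dp (fun l => H k l + H l k) ω| + |H k k * τ ^ 2| := by
      have : qf H ω = (qf H ω + τ * dp (fun l => H k l + H l k) ω + H k k * τ ^ 2) -
        τ * dp (fun l => H k l + H l k) ω - H k k * τ ^ 2 := by ring
      conv_lhs => rw [this]
      exact (abs_sub _ _).trans (add_le_add (abs_sub _ _) le_rfl)
    linarith
  rw [abs_mul] at a1 a2
  have d1 : |dp E ω| ≤ 8 * N / m := by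
    rw [le_div_iff₀ hm0]
    nlinarith [abs_nonneg (dp E ω)]
  have d2 : |dp E (fun l => ω l + uv k τ l)| ≤ 16 * N / m := by
    rw [le_div_iff₀ hm0]
    nlinarith [abs_nonneg (dp E (fun l => ω l + uv k τ l))]
  have d3 : |E k * τ| ≤ 24 * N / m := by
    have : E k * τ = dp E (fun l => ω l + uv k τ l) - dp E ω := by rw [dp_diff]; ring
    rw [this]
    refine (abs_sub _ _).trans ((add_le_add d2 d1).trans (le_of_eq ?_))
    ring
  rw [abs_mul, abs_of_pos hτ0] at d3
  have d4 : |E k| ≤ 24 * N / m / τ := by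
    rw [le_div_iff₀ hτ0]; exact d3
  refine d4.trans (le_of_eq ?_)
  rw [hτ]
  field_simp
  ring

end Crest.Agent.R136.Adj214
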