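import Crest.Agent.R136.Adj2_214

/-!
# R136 (S0187), U4 (AL): division by a sheet jet (helper214)

`NJ c J`: normal form of the sheet function in a chart.  `div_jet`: a quadratic function which is
small on the sheet is a multiple of the sheet function plus a small quadratic function.
-/

set_option autoImplicit false

namespace Crest.Agent.R136.Adj214

open Set
open Crest.Agent.R136.Row214 (Q2 Gr)
open Crest.Agent.R136.Rk601 (Jt dp qf lf sl)

/-- normal form of a sheet function `c + ev J` in a chart -/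
structure NJ (c : ℝ) (J : Jt) : Prop where
  sym : J.Sym
  st : ∀ (y : ℝ) (ξ : Fin 3 → ℝ), |y| ≤ 1 → 0 ≤ ξ 0 → ξ 0 ≤ 1 → |ξ 1| ≤ 1 → |ξ 2| ≤ 1 →
    1 / 2 ≤ J.a0 + J.h00 * y + dp J.h0 ξ ∧ J.a0 + J.h00 * y + dp J.h0 ξ ≤ 2
  h00 : |J.h00| ≤ 2
  h0 : |J.h0 0| ≤ 3 / 2
  h1 : |J.h0 1| ≤ 1 / 50
  h2 : |J.h0 2| ≤ 1 / 50
  h : ∀ i j, |J.h i j| ≤ 2
  a0 : |J.a 0| ≤ 1 / 400
  a1 : J.a 1 = 0
  a2 : J.a 2 = 0
  c : |c| ≤ 1 / 3000
  big : (∃ j, j ≠ 0 ∧ 1 / 2 ≤ |J.h 0 j|) ∨ ∃ i j, i ≠ 0 ∧ j ≠ 0 ∧ 1 / 256 ≤ |J.h i j|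

/-- shift in the normal direction -/
def bs (J : Jt) (y0 : ℝ) : Jt where
  a0 := J.a0 + J.h00 * y0
  a := fun i => J.a i + y0 * J.h0 i
  h00 := J.h00
  h0 := J.h0
  h := J.h

/-- `P - μ Q` -/
def sbm (P : Jt) (μ : ℝ) (Q : Jt) : Jt where
  a0 := P.a0 - μ * Q.a0
  a := fun i => P.a i - μ * Q.a i
  h00 := P.h00 - μ * Q.h00
  h0 := fun i => P.h0 i - μ * Q.h0 i
  h := fun i j => P.h i j - μ * Q.h i j

theorem ev_bs (J : Jt) (y0 y : ℝ) (ξ : Fin 3 → ℝ) :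
    ev J (y0 + y) ξ = ev J y0 0 + ev (bs J y0) y ξ := by
  simp only [ev, bs, dp, qf, Fin.sum_univ_three, Pi.zero_apply]
  ring

theorem ev_sbm (P : Jt) (μ : ℝ) (Q : Jt) (y : ℝ) (ξ : Fin 3 → ℝ) :
    ev (sbm P μ Q) y ξ = ev P y ξ - μ * ev Q y ξ := by
  simp only [ev, sbm, dp, qf, Fin.sum_univ_three]
  ring

theorem ev_zero (J : Jt) (y : ℝ) : ev J y 0 = J.a0 * y + 1 / 2 * J.h00 * y ^ 2 := by
  simp only [ev, dp, qf, Fin.sum_univ_three, Pi.zero_apply]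
  ring

/-- base point -/
theorem NJ.base {c : ℝ} {J : Jt} (N : NJ c J) : ∃ ys, |ys| ≤ 1 / 1500 ∧ c + ev J ys 0 = 0 := by
  have hst : ∀ y : ℝ, |y| ≤ 1 → 1 / 2 ≤ J.a0 + J.h00 * y := by
    intro y hy
    have := (N.st y 0 hy le_rfl zero_le_one (by simp) (by simp)).1
    simpa [dp] using this
  have hc := abs_le.1 N.c
  have s1 := hst (1 / 3000) (by rw [abs_of_pos] <;> norm_num)
  have s2 := hst (-1 / 3000) (by rw [abs_of_neg] <;> norm_num)
  have p1 : 0 ≤ c + ev J (1 / 1500) 0 := by rw [ev_zero]; linarith [hc.1]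
  have p2 : c + ev J (-1 / 1500) 0 ≤ 0 := by rw [ev_zero]; linarith [hc.2]
  have hcont : ContinuousOn (fun y => c + ev J y 0) (Icc (-1 / 1500) (1 / 1500)) := by
    apply Continuous.continuousOn
    simp only [ev_zero]
    fun_prop
  obtain ⟨y, hy, hy'⟩ := intermediate_value_Icc (by norm_num : (-1 / 1500 : ℝ) ≤ 1 / 1500) hcont
    ⟨p2, p1⟩
  exact ⟨y, abs_le.2 ⟨by linarith [hy.1], by linarith [hy.2]⟩, hy'⟩

/-- bounds at the base point -/
theorem NJ.at_base {c : ℝ} {J : Jt} (N : NJ c J) {ys : ℝ} (hys : |ys| ≤ 1 / 1500) :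
    1 / 2 ≤ (bs J ys).a0 ∧ (bs J ys).a0 ≤ 2 ∧ |sl (bs J ys) 0| ≤ 1 / 100 ∧
      |sl (bs J ys) 1| ≤ 1 / 30000 ∧ |sl (bs J ys) 2| ≤ 1 / 30000 := by
  have h0 := N.st ys 0 (hys.trans (by norm_num)) le_rfl zero_le_one (by simp) (by simp)
  have h1 : 1 / 2 ≤ (bs J ys).a0 ∧ (bs J ys).a0 ≤ 2 := by
    simpa [dp, bs] using h0
  obtain ⟨g1, g2⟩ := h1
  have key : ∀ i (x : ℝ), |(bs J ys).a i| ≤ x → |sl (bs J ys) i| ≤ 2 * x := by
    intro i x hx
    unfold sl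
    rw [abs_div, abs_neg, abs_of_pos (by linarith : 0 < (bs J ys).a0), div_le_iff₀ (by linarith)]
    have := mul_le_mul_of_nonneg_left g1 ((abs_nonneg _).trans hx)
    linarith
  refine ⟨g1, g2, ?_, ?_, ?_⟩
  · have : |(bs J ys).a 0| ≤ 1 / 400 + 1 / 1500 * (3 / 2) :=
      (abs_add_le _ _).trans (add_le_add N.a0 (abs2 hys N.h0))
    exact (key _ _ this).trans (by norm_num)
  · have : |(bs J ys).a 1| ≤ 1 / 1500 * (1 / 50) := by
      have e : (bs J ys).a 1 = ys * J.h0 1 := by simp [bs, N.a1]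
      rw [e]; exact abs2 hys N.h1
    exact (key _ _ this).trans (by norm_num)
  · have : |(bs J ys).a 2| ≤ 1 / 1500 * (1 / 50) := by
      have e : (bs J ys).a 2 = ys * J.h0 2 := by simp [bs, N.a2]
      rw [e]; exact abs2 hys N.h2
    exact (key _ _ this).trans (by norm_num)

theorem abs_sub3 {x y z w X Y Z W : ℝ} (hx : |x| ≤ X) (hy : |y| ≤ Y) (hz : |z| ≤ Z)
    (hw : |w| ≤ W) : |x + y + z + w| ≤ X + Y + Z + W :=
  (abs_add_le _ _).trans (add_le_add ((abs_add_le _ _).trans (add_le_add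
    ((abs_add_le _ _).trans (add_le_add hx hy)) hz)) hw)

/-- second order part at the base point -/
theorem NJ.lf_le {c : ℝ} {J : Jt} (N : NJ c J) {ys : ℝ} (hys : |ys| ≤ 1 / 1500) :
    (∀ i j, |lf (bs J ys) (sl (bs J ys)) i j| ≤ 3) ∧ (∀ i, |hs (bs J ys) (sl (bs J ys)) i| ≤ 2) ∧
      (∃ i j, 1 / 512 ≤ |lf (bs J ys) (sl (bs J ys)) i j|) ∧
      (∀ i j, lf (bs J ys) (sl (bs J ys)) i j = lf (bs J ys) (sl (bs J ys)) j i) := by
  obtain ⟨-, -, s0, s1, s2⟩ := N.at_base hys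
  set s := sl (bs J ys) with hsdef
  have hh : (bs J ys).h = J.h := rfl
  have hh0 : (bs J ys).h0 = J.h0 := rfl
  have hh00 : (bs J ys).h00 = J.h00 := rfl
  have sle : ∀ i, |s i| ≤ 1 / 100 := by
    intro i; fin_cases i
    · exact s0
    · exact s1.trans (by norm_num)
    · exact s2.trans (by norm_num)
  have sle' : ∀ i, i ≠ 0 → |s i| ≤ 1 / 30000 := by
    intro i hi; fin_cases i
    · exact absurd rfl hi
    · exact s1
    · exact s2
  have hle : ∀ i, |J.h0 i| ≤ 3 / 2 := by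
    intro i; fin_cases i
    · exact N.h0
    · exact N.h1.trans (by norm_num)
    · exact N.h2.trans (by norm_num)
  have hle' : ∀ i, i ≠ 0 → |J.h0 i| ≤ 1 / 50 := by
    intro i hi; fin_cases i
    · exact absurd rfl hi
    · exact N.h1
    · exact N.h2
  refine ⟨?_, ?_, ?_, ?_⟩
  · intro i j
    unfold lf
    rw [hh, hh0, hh00]
    refine (abs_sub3 (N.h i j) (abs2 (hle i) (sle j)) (abs2 (hle j) (sle i))
      (abs2 N.h00 (abs2 (sle i) (sle j)))).trans ?_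
    norm_num
  · intro i
    unfold hs
    rw [hh0, hh00]
    refine (abs_add_le _ _).trans ((add_le_add (hle i) (abs2 N.h00 (sle i))).trans ?_)
    norm_num
  · rcases N.big with ⟨j, hj, hb⟩ | ⟨i, j, hi, hj, hb⟩
    · refine ⟨0, j, ?_⟩
      have e : J.h 0 j = lf (bs J ys) s 0 j + (-(J.h0 0 * s j)) + (-(J.h0 j * s 0)) +
          (-(J.h00 * (s 0 * s j))) := by
        unfold lf; rw [hh, hh0, hh00]; ring
      have h1 : |J.h 0 j| ≤ |lf (bs J ys) s 0 j| + 3 / 2 * (1 / 30000) + 1 / 50 * (1 / 100) +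
          2 * (1 / 100 * (1 / 30000)) := by
        conv_lhs => rw [e]
        refine abs_sub3 le_rfl ?_ ?_ ?_
        · rw [abs_neg]; exact abs2 N.h0 (sle' j hj)
        · rw [abs_neg]; exact abs2 (hle' j hj) s0
        · rw [abs_neg]; exact abs2 N.h00 (abs2 s0 (sle' j hj))
      norm_num at h1 ⊢
      linarith
    · refine ⟨i, j, ?_⟩
      have e : J.h i j = lf (bs J ys) s i j + (-(J.h0 i * s j)) + (-(J.h0 j * s i)) +
          (-(J.h00 * (s i * s j))) := by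
        unfold lf; rw [hh, hh0, hh00]; ring
      have h1 : |J.h i j| ≤ |lf (bs J ys) s i j| + 1 / 50 * (1 / 30000) + 1 / 50 * (1 / 30000) +
          2 * (1 / 30000 * (1 / 30000)) := by
        conv_lhs => rw [e]
        refine abs_sub3 le_rfl ?_ ?_ ?_
        · rw [abs_neg]; exact abs2 (hle' i hi) (sle' j hj)
        · rw [abs_neg]; exact abs2 (hle' j hj) (sle' i hi)
        · rw [abs_neg]; exact abs2 N.h00 (abs2 (sle' i hi) (sle' j hj))
      norm_num at h1 ⊢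
      linarith
  · intro i j
    unfold lf
    rw [hh, N.sym i j]
    ring

/-- the bounds on all slices -/
theorem NJ.slices {c : ℝ} {J : Jt} (N : NJ c J) {ys : ℝ} (hys : |ys| ≤ 1 / 1500) {D : Jt}
    (hD : D.a0 = 0) {cs lam : ℝ}
    (h : ∀ (y : ℝ) (ξ : Fin 3 → ℝ), |ys + y| ≤ 1 → 0 ≤ ξ 0 → ξ 0 ≤ 1 → |ξ 1| ≤ 1 → |ξ 2| ≤ 1 →
      ev (bs J ys) y ξ = 0 → |cs + ev D y ξ| ≤ lam) (ω : Fin 3 → ℝ)
    (hω : ∀ i, 0 ≤ ω i ∧ ω i ≤ 1 / 8) :
    |cs| ≤ cB * lam ∧ |dp D.a ω| ≤ 2 * (cB * lam) ∧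
      |qf (lf D (sl (bs J ys))) ω| ≤ 72 * (cB * lam) ∧
      |qf (lf (bs J ys) (sl (bs J ys))) ω * dp (hs D (sl (bs J ys))) ω| ≤ 3240 * (cB * lam) ∧
      |qf (lf (bs J ys) (sl (bs J ys))) ω ^ 2 * D.h00| ≤ 218700 * (cB * lam) := by
  obtain ⟨g1, g2, s0, s1, s2⟩ := N.at_base hys
  obtain ⟨l1, l2, -, -⟩ := N.lf_le hys
  set s := sl (bs J ys) with hsdef
  have g0 : (bs J ys).a0 ≠ 0 := by linarith
  have sle : ∀ i, |s i| ≤ 1 / 100 := by
    intro i; fin_cases i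
    · exact s0
    · exact s1.trans (by norm_num)
    · exact s2.trans (by norm_num)
  have ωle : ∀ i, |ω i| ≤ 1 / 8 := by
    intro i; rw [abs_of_nonneg (hω i).1]; exact (hω i).2
  have dple : |dp s ω| ≤ 3 * (1 / 100 * (1 / 8)) := dp_le' sle ωle
  have tle : ∀ t : ℝ, 0 ≤ t → t ≤ 1 / 2000 → |t * dp s ω| ≤ 1 / 100 := by
    intro t h1 h2
    have ht : |t| ≤ 1 / 2000 := by rw [abs_of_nonneg h1]; exact h2
    exact (abs2 ht dple).trans (by norm_num)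
  have box : ∀ t : ℝ, 0 ≤ t → t ≤ 1 / 2000 → ∀ y : ℝ, |y| ≤ 1 / 2 →
      |ys + (y + t * dp s ω)| ≤ 1 ∧ 0 ≤ t * ω 0 ∧ t * ω 0 ≤ 1 ∧ |t * ω 1| ≤ 1 ∧ |t * ω 2| ≤ 1 := by
    intro t h1 h2 y hy
    have ht : |t| ≤ 1 / 2000 := by rw [abs_of_nonneg h1]; exact h2
    refine ⟨?_, mul_nonneg h1 (hω 0).1, ?_, ?_, ?_⟩
    · have := (abs_add_le ys (y + t * dp s ω)).trans (add_le_add hys
        ((abs_add_le _ _).trans (add_le_add hy (tle t h1 h2))))
      exact this.trans (by norm_num)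
    · have := (le_abs_self _).trans (abs2 ht (ωle 0))
      exact this.trans (by norm_num)
    · exact (abs2 ht (ωle 1)).trans (by norm_num)
    · exact (abs2 ht (ωle 2)).trans (by norm_num)
  have hlam : 0 ≤ lam := by
    have e0 : ev (bs J ys) 0 0 = 0 := by rw [ev_zero]; ring
    exact (abs_nonneg _).trans (h 0 0 (by rw [add_zero]; exact hys.trans (by norm_num)) le_rfl
      zero_le_one (by simp) (by simp) e0)
  have hk : |(sF (bs J ys) ω).k| ≤ 9 := by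
    change |1 / 2 * J.h00| ≤ 9
    rw [abs_mul, abs_of_pos (by norm_num : (0 : ℝ) < 1 / 2)]
    linarith [N.h00]
  have hhl : |(sF (bs J ys) ω).h| ≤ 3 / 4 := by
    change |dp (hs (bs J ys) s) ω| ≤ 3 / 4
    exact (dp_le' l2 ωle).trans (by norm_num)
  have hg' : |qf (lf (bs J ys) s) ω| ≤ 1 / 2 := (qf_le' l1 ωle).trans (by norm_num)
  have e2g : 2 * (sF (bs J ys) ω).g = qf (lf (bs J ys) s) ω := by
    change 2 * (1 / 2 * qf (lf (bs J ys) s) ω) = _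
    ring
  have hgl : |2 * (sF (bs J ys) ω).g| ≤ 9 := by
    rw [e2g]; exact hg'.trans (by norm_num)
  have H := cau (F := sF (bs J ys) ω) (p := sD s D cs ω) (lam := lam) rfl ?_ ?_ ?_ ?_
  · obtain ⟨c1, c2, c3, c4, c5⟩ := alg (K := 9) (by norm_num) rfl rfl g1 g2 hk
      (hhl.trans (by norm_num)) hgl H
    have eB : 512 * lam / (1 / 32000) ^ 4 = cB * lam := by unfold cB; norm_num; ring
    rw [eB] at c1 c2 c3 c4 c5
    rw [e2g] at c4 c5
    refine ⟨c1, c2, ?_, ?_, ?_⟩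
    · change |1 / 2 * qf (lf D s) ω| ≤ _ at c3
      rw [abs_mul, abs_of_pos (by norm_num : (0 : ℝ) < 1 / 2)] at c3
      linarith
    · refine (c4).trans (by norm_num)
    · change |qf (lf (bs J ys) s) ω ^ 2 * (1 / 2 * D.h00)| ≤ _ at c5
      have e : qf (lf (bs J ys) s) ω ^ 2 * (1 / 2 * D.h00) =
        1 / 2 * (qf (lf (bs J ys) s) ω ^ 2 * D.h00) := by ring
      rw [e, abs_mul, abs_of_pos (by norm_num : (0 : ℝ) < 1 / 2)] at c5
      linarith
  · intro t h1 h2 y hy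
    rw [sF_dy]
    obtain ⟨b1, b2, b3, b4, b5⟩ := box t h1 h2 y hy
    have := N.st (ys + (y + t * dp s ω)) (fun i => t * ω i) b1 b2 b3 b4 b5
    have e : (bs J ys).a0 + (bs J ys).h00 * (y + t * dp (sl (bs J ys)) ω) +
        dp (bs J ys).h0 (fun i => t * ω i) = J.a0 + J.h00 * (ys + (y + t * dp s ω)) +
        dp J.h0 (fun i => t * ω i) := by
      simp only [bs]
      rw [hsdef]
      simp only [bs]
      ring
    rw [e]
    exact this
  · intro t h1 h2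
    have e : (sF (bs J ys) ω).ev 0 t = 1 / 2 * qf (lf (bs J ys) s) ω * (t * t) := by
      simp only [Q2.ev, sF]; ring
    rw [e]
    have ht : |t| ≤ 1 / 2000 := by rw [abs_of_nonneg h1]; exact h2
    have h3 : |1 / 2 * qf (lf (bs J ys) s) ω| ≤ 1 / 2 * (1 / 2) :=
      abs2 (by norm_num : |(1 / 2 : ℝ)| ≤ 1 / 2) hg'
    exact (abs2 h3 (abs2 ht ht)).trans (by norm_num)
  · have hF : (sF (bs J ys) ω).nu = (sF (bs J ys) ω).h ^ 2 + (-(J.h00 *
        qf (lf (bs J ys) s) ω)) := by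
      simp only [Q2.nu, sF]
      have : (bs J ys).h00 = J.h00 := rfl
      rw [this]
      ring
    rw [hF]
    refine (abs_add_le _ _).trans ?_
    rw [abs_neg, abs_pow]
    have h3 := pow_le_pow_left₀ (abs_nonneg _) hhl 2
    have h4 := abs2 N.h00 hg'
    norm_num at h3 h4 ⊢
    linarith
  · intro t h1 h2 y hy hF
    rw [sD_ev hD]
    rw [sF_ev g0] at hF
    obtain ⟨b1, b2, b3, b4, b5⟩ := box t h1 h2 y (hy.trans (by norm_num))
    exact h _ _ b1 b2 b3 b4 b5 hF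

end Crest.Agent.R136.Adj214
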