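import Crest.Agent.R136.Adj3_214

/-!
# R136 (S0187), U4 (AL): division by a sheet jet, end (helper214)

`div_jet`: a quadratic function which is small on the sheet is a multiple of the sheet function plus
a small quadratic function.
-/

set_option autoImplicit false

namespace Crest.Agent.R136.Adj214

open Set
open Crest.Agent.R136.Row214 (Q2 Gr)
open Crest.Agent.R136.Rk601 (Jt dp qf lf sl)

/-- all entries bounded -/
structure JB (K c : ℝ) (J : Jt) : Prop where
  sym : J.Sym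
  c : |c| ≤ K
  a0 : |J.a0| ≤ K
  a : ∀ i, |J.a i| ≤ K
  h00 : |J.h00| ≤ K
  h0 : ∀ i, |J.h0 i| ≤ K
  h : ∀ i j, |J.h i j| ≤ K

theorem JB.mono {K K' c : ℝ} {J : Jt} (h : JB K c J) (hK : K ≤ K') : JB K' c J :=
  ⟨h.sym, h.c.trans hK, h.a0.trans hK, fun i => (h.a i).trans hK, h.h00.trans hK,
    fun i => (h.h0 i).trans hK, fun i j => (h.h i j).trans hK⟩

theorem dp_scale (E ω : Fin 3 → ℝ) : dp E (fun i => 1 / 8 * ω i) = 1 / 8 * dp E ω := by
  simp only [dp, Fin.sum_univ_three]; ring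

theorem qf_scale (H : Fin 3 → Fin 3 → ℝ) (ω : Fin 3 → ℝ) :
    qf H (fun i => 1 / 8 * ω i) = 1 / 64 * qf H ω := by
  simp only [qf, Fin.sum_univ_three]; ring

/-- the difference jet at the base point -/
theorem NJ.diff {c : ℝ} {J : Jt} (N : NJ c J) {ys : ℝ} (hys : |ys| ≤ 1 / 1500) {D : Jt}
    (hD : D.a0 = 0) (hDs : D.Sym) {cs lam : ℝ}
    (h : ∀ (y : ℝ) (ξ : Fin 3 → ℝ), |ys + y| ≤ 1 → 0 ≤ ξ 0 → ξ 0 ≤ 1 → |ξ 1| ≤ 1 → |ξ 2| ≤ 1 →
      ev (bs J ys) y ξ = 0 → |cs + ev D y ξ| ≤ lam) :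
    JB (10 ^ 17 * (cB * lam)) cs D := by
  have S := fun ω hω => N.slices hys hD h ω hω
  obtain ⟨g1, g2, s0, s1, s2⟩ := N.at_base hys
  obtain ⟨l1, l2, l3, l4⟩ := N.lf_le hys
  set s := sl (bs J ys) with hsdef
  set H := lf (bs J ys) s with hH
  set B := cB * lam with hB
  have sle : ∀ i, |s i| ≤ 1 / 100 := by
    intro i; fin_cases i
    · exact s0
    · exact s1.trans (by norm_num)
    · exact s2.trans (by norm_num)
  have hcs : |cs| ≤ B := (S 0 (fun i => ⟨le_rfl, by simp⟩)).1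
  have hB0 : 0 ≤ B := (abs_nonneg _).trans hcs
  have uvle : ∀ i : Fin 3, ∀ l, 0 ≤ uv i (1 / 8) l ∧ uv i (1 / 8) l ≤ 1 / 8 := by
    intro i l; unfold uv; split_ifs <;> norm_num
  have uvle' : ∀ i j : Fin 3, ∀ l, 0 ≤ uv i (1 / 16) l + uv j (1 / 16) l ∧
      uv i (1 / 16) l + uv j (1 / 16) l ≤ 1 / 8 := by
    intro i j l; unfold uv; split_ifs <;> norm_num
  have ha : ∀ i, |D.a i| ≤ 16 * B := by
    intro i
    have := (S (uv i (1 / 8)) (uvle i)).2.1
    rw [dp_uv, abs_mul, abs_of_pos (by norm_num : (0 : ℝ) < 1 / 8)] at this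
    linarith
  have hld : ∀ i, |lf D s i i| ≤ 4608 * B := by
    intro i
    have := (S (uv i (1 / 8)) (uvle i)).2.2.1
    rw [qf_uv, abs_mul, abs_of_pos (by norm_num : (0 : ℝ) < (1 / 8) ^ 2)] at this
    linarith
  have lsym : ∀ i j, lf D s i j = lf D s j i := by
    intro i j
    unfold lf
    rw [hDs i j]; ring
  have hl : ∀ i j, |lf D s i j| ≤ 13824 * B := by
    intro i j
    have h1 := (S (fun l => uv i (1 / 16) l + uv j (1 / 16) l) (uvle' i j)).2.2.1
    rw [qf_uv2 lsym, abs_mul, abs_of_pos (by norm_num : (0 : ℝ) < (1 / 16) ^ 2)] at h1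
    have h2 : 2 * |lf D s i j| ≤ |lf D s i i + 2 * lf D s i j + lf D s j j| + |lf D s i i| +
        |lf D s j j| := by
      have e : |2 * lf D s i j| = 2 * |lf D s i j| := by
        rw [abs_mul, abs_of_pos (by norm_num : (0 : ℝ) < 2)]
      rw [← e]
      have : 2 * lf D s i j = (lf D s i i + 2 * lf D s i j + lf D s j j) - lf D s i i -
        lf D s j j := by ring
      conv_lhs => rw [this]
      exact (abs_sub _ _).trans (add_le_add (abs_sub _ _) le_rfl)
    linarith [hld i, hld j]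
  have half : ∀ ω : Fin 3 → ℝ, (∀ i, 0 ≤ ω i ∧ ω i ≤ 1) →
      ∀ i, 0 ≤ (fun i => 1 / 8 * ω i) i ∧ (fun i => 1 / 8 * ω i) i ≤ 1 / 8 := by
    intro ω hω i
    have := hω i
    constructor
    · show 0 ≤ 1 / 8 * ω i
      linarith [this.1]
    · show 1 / 8 * ω i ≤ 1 / 8
      linarith [this.2]
  have hE : ∀ k, |hs D s k| ≤ 10 ^ 16 * B := by
    intro k
    have := prod (H := H) (E := hs D s) (K := 3) (m := 1 / 512) (N := 512 * (3240 * B)) l4 l1
      (by norm_num) l3 (fun ω hω => by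
        have h1 := (S _ (half ω hω)).2.2.2.1
        rw [dp_scale, qf_scale] at h1
        have e : 1 / 64 * qf H ω * (1 / 8 * dp (hs D s) ω) =
          1 / 512 * (qf H ω * dp (hs D s) ω) := by ring
        rw [e, abs_mul, abs_of_pos (by norm_num : (0 : ℝ) < 1 / 512)] at h1
        linarith) k
    refine this.trans ?_
    norm_num
    linarith
  have hh00 : |D.h00| ≤ 2 * 10 ^ 16 * B := by
    obtain ⟨ω, w1, w2⟩ := exists_dir l4 l3
    have h1 := (S _ (half ω (fun i => ⟨(w1 i).1, (w1 i).2.trans (by norm_num)⟩))).2.2.2.2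
    rw [qf_scale] at h1
    have e : (1 / 64 * qf H ω) ^ 2 * D.h00 = 1 / 4096 * (|qf H ω| ^ 2 * D.h00) := by
      rw [sq_abs]; ring
    rw [e, abs_mul, abs_of_pos (by norm_num : (0 : ℝ) < 1 / 4096), abs_mul,
      abs_of_nonneg (by positivity : 0 ≤ |qf H ω| ^ 2)] at h1
    have h2 : (1 / 4096 : ℝ) ^ 2 ≤ |qf H ω| ^ 2 := by
      apply pow_le_pow_left₀ (by norm_num)
      linarith
    have h3 := mul_le_mul_of_nonneg_right h2 (abs_nonneg D.h00)
    norm_num at h1 h3 ⊢
    linarith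
  have hh0 : ∀ i, |D.h0 i| ≤ 2 * 10 ^ 16 * B := by
    intro i
    have e : D.h0 i = hs D s i - D.h00 * s i := by unfold hs; ring
    rw [e]
    have := abs2 hh00 (sle i)
    refine (abs_sub _ _).trans ((add_le_add (hE i) this).trans ?_)
    linarith
  refine ⟨hDs, hcs.trans ?_, ?_, fun i => (ha i).trans ?_, hh00.trans ?_,
    fun i => (hh0 i).trans ?_, fun i j => ?_⟩
  · linarith
  · rw [hD, abs_zero]; positivity
  · linarith
  · linarith
  · linarith
  · have e : D.h i j = lf D s i j + (-(D.h0 i * s j)) + (-(D.h0 j * s i)) +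
        (-(D.h00 * (s i * s j))) := by
      unfold lf; ring
    have h1 : |D.h i j| ≤ 13824 * B + 2 * 10 ^ 16 * B * (1 / 100) + 2 * 10 ^ 16 * B * (1 / 100) +
        2 * 10 ^ 16 * B * (1 / 100 * (1 / 100)) := by
      rw [e]
      refine abs_sub3 (hl i j) ?_ ?_ ?_
      · rw [abs_neg]; exact abs2 (hh0 i) (sle j)
      · rw [abs_neg]; exact abs2 (hh0 j) (sle i)
      · rw [abs_neg]; exact abs2 hh00 (abs2 (sle i) (sle j))
    linarith

/-- the absolute constant of the division -/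
noncomputable def KD : ℝ := 4 * 10 ^ 17 * cB

theorem KD_pos : 0 < KD := by have := cB_pos; unfold KD; positivity

theorem KD_one : 1 ≤ KD := by unfold KD cB; norm_num

/-- **division by a sheet**: a quadratic function which is at most `lam` on the sheet is a multiple of
the sheet function plus a quadratic function with all coefficients at most `KD * lam` -/
theorem div_jet {c : ℝ} {J : Jt} (N : NJ c J) {cR : ℝ} {R : Jt} (hR : R.Sym) {lam : ℝ}
    (h : ∀ (y : ℝ) (ξ : Fin 3 → ℝ), |y| ≤ 1 → 0 ≤ ξ 0 → ξ 0 ≤ 1 → |ξ 1| ≤ 1 → |ξ 2| ≤ 1 →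
      c + ev J y ξ = 0 → |cR + ev R y ξ| ≤ lam) :
    ∃ (μ c' : ℝ) (D : Jt), (∀ y ξ, cR + ev R y ξ - μ * (c + ev J y ξ) = c' + ev D y ξ) ∧
      JB (KD * lam) c' D := by
  obtain ⟨ys, hys, hbase⟩ := N.base
  obtain ⟨g1, g2, -, -, -⟩ := N.at_base hys
  have g0 : (bs J ys).a0 ≠ 0 := by linarith
  set μ := (bs R ys).a0 / (bs J ys).a0 with hμ
  set D := sbm (bs R ys) μ (bs J ys) with hDdef
  set cs := cR + ev R ys 0 with hcs
  have hD0 : D.a0 = 0 := by
    rw [hDdef]
    simp only [sbm]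
    rw [hμ]
    field_simp
    ring
  have hDs : D.Sym := by
    intro i j
    rw [hDdef]
    simp only [sbm, bs]
    rw [hR i j, N.sym i j]
  have key : ∀ y ξ, cR + ev R (ys + y) ξ - μ * (c + ev J (ys + y) ξ) = cs + ev D y ξ := by
    intro y ξ
    rw [ev_bs R, ev_bs J, hDdef, ev_sbm, hcs]
    have : c + (ev J ys 0 + ev (bs J ys) y ξ) = ev (bs J ys) y ξ := by linarith
    rw [this]
    ring
  have B := N.diff hys hD0 hDs (cs := cs) (lam := lam) (fun y ξ h1 h2 h3 h4 h5 h6 => by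
    rw [← key y ξ]
    have e : c + ev J (ys + y) ξ = 0 := by
      rw [ev_bs J]; linarith
    rw [e, mul_zero, sub_zero]
    exact h _ _ h1 h2 h3 h4 h5 e)
  have hX0 : 0 ≤ 10 ^ 17 * (cB * lam) := (abs_nonneg _).trans B.c
  set X := 10 ^ 17 * (cB * lam) with hX
  have hKX : KD * lam = 4 * X := by rw [hX]; unfold KD; ring
  have hys1 : |-ys| ≤ 1 := by rw [abs_neg]; exact hys.trans (by norm_num)
  refine ⟨μ, cs + ev D (-ys) 0, bs D (-ys), fun y ξ => ?_, ?_⟩
  · have h1 := key (-ys + y) ξ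
    have e : ys + (-ys + y) = y := by ring
    rw [e, ev_bs D] at h1
    rw [h1]; ring
  · rw [hKX]
    refine ⟨hDs, ?_, ?_, fun i => ?_, B.h00.trans (by linarith), fun i => (B.h0 i).trans
      (by linarith), fun i j => (B.h i j).trans (by linarith)⟩
    · rw [ev_zero, hD0]
      have e : cs + (0 * -ys + 1 / 2 * D.h00 * (-ys) ^ 2) = cs + D.h00 * (1 / 2 * (-ys * -ys)) := by
        ring
      rw [e]
      have h1 := abs2 B.h00 (abs2 (by norm_num : |(1 / 2 : ℝ)| ≤ 1 / 2) (abs2 hys1 hys1))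
      refine (abs_add_le _ _).trans ((add_le_add B.c h1).trans ?_)
      linarith
    · change |D.a0 + D.h00 * -ys| ≤ _
      have h1 := abs2 B.h00 hys1
      refine (abs_add_le _ _).trans ((add_le_add B.a0 h1).trans ?_)
      linarith
    · change |D.a i + -ys * D.h0 i| ≤ _
      have h1 := abs2 hys1 (B.h0 i)
      refine (abs_add_le _ _).trans ((add_le_add (B.a i) h1).trans ?_)
      linarith

end Crest.Agent.R136.Adj214
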