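import Crest.Agent.R136.En4c_879

/-!
# R136: literal configurations in `ℝ⁴` (helper879, port of `KDef_294`)

Lines `l : Ln4` (Sh1_605), incidences `(l, z)` with real height `z`, dyadic `z`-cells of level `m`
(absolute scales).  A test set of level `m` is a 605 sheet `Plk4` over one cell of level `m`;
objects are pairs (line, cell).  `cap4 q1 q2 m K = a w2 w1 (w2 2^m)^q2 (w1 2^m)^q1`; no reward on
the thickness `a`.  Slope cap `Λm` (818).  `Cf4` = finite configuration of the window `[m, m + M]`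
with ASSIGNED classes at the deep level; full shading: value `= log₂ (D1 / D0) / M`.

`enemy4`: if `KS4` fails there are admissible configurations of value `≥ b0 - q1 - q2`.
-/

set_option autoImplicit false

open Finset

namespace Crest.Agent.R136.K4

open Sh605 KS879 En879

noncomputable section

/-- a sheet over the cell `j` (of a level which is not recorded) -/
structure Plk4 where
  j : ℤ
  e : Fin 3 → V3
  c : Ln4
  w : V3
  q : ℝ → V3 → ℝ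
  a : ℝ

/-- the object `o` = (line, cell of level `m`) lies in the sheet `K` -/
def In4 (m : ℕ) (K : Plk4) (o : Ln4 × ℤ) : Prop :=
  o.2 = K.j ∧ InSheet o.1 K.e K.c K.w K.q K.a ((K.j : ℝ) / 2 ^ m) (1 / 2 ^ m)

/-- legal sheets of level `m` at resolution `r`, slope at most `Λm` -/
structure Legal4 (m : ℕ) (r Λm : ℝ) (K : Plk4) : Prop where
  sheet : Sheet K.e K.c K.w K.q K.a ((K.j : ℝ) / 2 ^ m) (1 / 2 ^ m) r
  slope : ∃ Λ, 0 ≤ Λ ∧ Λ ≤ Λm ∧
    LipK K.q K.e K.c (dbl K.w) ((K.j : ℝ) / 2 ^ m) (1 / 2 ^ m) Λ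
  w1 : K.w 1 ≤ 1 / 2 ^ m

/-- capacity -/
def cap4 (q1 q2 : ℝ) (m : ℕ) (K : Plk4) : ℝ :=
  K.a * K.w 2 * K.w 1 * ((K.w 2 * 2 ^ m) ^ q2 * (K.w 1 * 2 ^ m) ^ q1)

open Classical in
/-- the objects of `I` in the sheet `K` -/
def objs4 (m : ℕ) (I : Finset (Ln4 × ℝ)) (K : Plk4) : Finset (Ln4 × ℤ) :=
  (I.image (ob4 m)).filter (In4 m K)

open Classical in
/-- number of cells of level `m'` which the line of `x` has in the `m`-cell of `x` -/
def ownc4 (m m' : ℕ) (I : Finset (Ln4 × ℝ)) (x : Ln4 × ℝ) : ℕ :=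
  ((I.filter fun y => ob4 m y = ob4 m x).image (ob4 m')).card

/-- finite configuration of the window `[m, m + M]`, with assigned deep classes -/
structure Cf4 where
  /-- coarse level -/
  m : ℕ
  /-- number of dyadic levels of the window -/
  M : ℕ
  /-- resolution -/
  r : ℝ
  /-- slope cap -/
  Λm : ℝ
  /-- incidences -/
  I : Finset (Ln4 × ℝ)
  /-- class of an object of level `m + M` -/
  cl : Ln4 × ℤ → ℕ
  /-- sheet of a class -/
  K : ℕ → Plk4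
  /-- upper bound for the densities of level `m` -/
  D0 : ℝ
  /-- lower bound for the class densities of level `m + M` -/
  D1 : ℝ

/-- the deep level -/
def Cf4.top (F : Cf4) : ℕ := F.m + F.M

open Classical in
/-- the objects of the class of `x` -/
def Cf4.cls (F : Cf4) (x : Ln4 × ℝ) : Finset (Ln4 × ℤ) :=
  (F.I.image (ob4 F.top)).filter fun o => F.cl o = F.cl (ob4 F.top x)

/-- validity of a configuration for the rewards `q1` (wide width `w 1`), `q2` (`w 2`) -/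
structure Cf4.Ok (q1 q2 : ℝ) (F : Cf4) : Prop where
  M1 : 1 ≤ F.M
  r0 : 0 < F.r
  rle : F.r ≤ 1 / 2 ^ F.top
  Λ1 : 1 ≤ F.Λm
  ne : F.I.Nonempty
  cell : ∀ x ∈ F.I, ∀ y ∈ F.I, zc4 F.m x.2 = zc4 F.m y.2
  D1p : 0 < F.D1
  legal : ∀ x ∈ F.I, Legal4 F.top F.r F.Λm (F.K (F.cl (ob4 F.top x)))
  mem : ∀ x ∈ F.I, In4 F.top (F.K (F.cl (ob4 F.top x))) (ob4 F.top x)
  low : ∀ x ∈ F.I, F.D1 * cap4 q1 q2 F.top (F.K (F.cl (ob4 F.top x))) ≤ ((F.cls x).card : ℝ)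
  up : ∀ K, Legal4 F.m F.r F.Λm K → ((objs4 F.m F.I K).card : ℝ) ≤ F.D0 * cap4 q1 q2 F.m K

/-- the value `D(1) - D(0)` of the configuration, in units of the window -/
def Cf4.val (F : Cf4) : ℝ := Real.logb 2 (F.D1 / F.D0) / F.M

/-- admissibility with error `δ`: own loss, size, resolution, slope cap; velocities bounded -/
structure Cf4.Adm (δ : ℝ) (F : Cf4) : Prop where
  own : ∀ x ∈ F.I, (2:ℝ) ^ ((1 - δ) * F.M) ≤ (ownc4 F.m F.top F.I x : ℝ)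
  size : Real.logb 2 (F.I.card : ℝ) ≤ (2:ℝ) ^ (δ * F.M)
  res : Real.logb 2 (1 / (F.r * 2 ^ F.m)) ≤ (2:ℝ) ^ (δ * F.M)
  slope : F.Λm ≤ (2:ℝ) ^ (δ * F.M)
  vel : ∀ x ∈ F.I, ∀ i, |x.1.v i| ≤ 1

/-! ### the configuration of a grid family -/

theorem legal_a {m : ℕ} {r Λm : ℝ} {K : Plk4} (h : Legal4 m r Λm K) : r ≤ K.a := h.sheet.r0_le

/-- the cube sheet over the cell `j` of level `m` -/
def cubeK (r : ℝ) (o : Ln4 × ℤ) : Plk4 := ⟨o.2, stdE, o.1, ![r, r, r], cubeQ o.1, r⟩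

theorem cube_legal (m : ℕ) {r Λm : ℝ} (hΛ : 1 ≤ Λm) (hr : r ≤ 1 / 2 ^ m) (o : Ln4 × ℤ) :
    Legal4 m r Λm (cubeK r o) where
  sheet := cubeSheet o.1
  slope := by
    refine ⟨1, zero_le_one, hΛ, ?_⟩
    intro z _ _ x x' _ _
    have h1 : cubeQ o.1 z x - cubeQ o.1 z x' = x 0 - x' 0 := by simp only [cubeQ]; ring
    show |cubeQ o.1 z x - cubeQ o.1 z x'| ≤ _
    rw [h1, one_mul]
    have := abs_nonneg (x 1 - x' 1)
    have := abs_nonneg (x 2 - x' 2)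
    linarith
  w1 := hr

theorem cap_cube {q1 q2 : ℝ} {M : ℕ} (o : Ln4 × ℤ) :
    cap4 q1 q2 M (cubeK (1 / 2 ^ M) o) = 1 / 8 ^ M := by
  unfold cap4
  show (1:ℝ) / 2 ^ M * (1 / 2 ^ M) * (1 / 2 ^ M) *
    ((1 / 2 ^ M * 2 ^ M) ^ q2 * (1 / 2 ^ M * 2 ^ M) ^ q1) = 1 / 8 ^ M
  have h1 : (1:ℝ) / 2 ^ M * 2 ^ M = 1 := by field_simp
  have e1 : (8:ℝ) ^ M = (2 ^ M) ^ 3 := by rw [← pow_mul, mul_comm, pow_mul]; norm_num
  rw [h1, Real.one_rpow, Real.one_rpow, e1]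
  field_simp

/-- at level `0` the reward is at least `2^(-(q1+q2) M)` -/
theorem reward_low {q1 q2 : ℝ} (hq1 : 0 ≤ q1) (hq2 : 0 ≤ q2) {M : ℕ} {K : Plk4} {Λm : ℝ}
    (h : Legal4 0 (1 / 2 ^ M) Λm K) :
    1 ≤ (2:ℝ) ^ ((q1 + q2) * M) * ((K.w 2 * 2 ^ 0) ^ q2 * (K.w 1 * 2 ^ 0) ^ q1) := by
  have hp : (0:ℝ) < 2 ^ M := by positivity
  have hr : (0:ℝ) < 1 / 2 ^ M := by positivity
  have h2 : 1 / 2 ^ M ≤ K.w 2 := h.sheet.r0_le.trans h.sheet.a_le
  have h1 : 1 / 2 ^ M ≤ K.w 1 := h2.trans h.sheet.w_le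
  have p2 : 0 < K.w 2 := hr.trans_le h2
  have p1 : 0 < K.w 1 := hr.trans_le h1
  have f2 : (1:ℝ) ≤ 2 ^ M * K.w 2 := by rw [div_le_iff₀ hp] at h2; linarith
  have f1 : (1:ℝ) ≤ 2 ^ M * K.w 1 := by rw [div_le_iff₀ hp] at h1; linarith
  have e : (2:ℝ) ^ ((q1 + q2) * M) = ((2:ℝ) ^ M) ^ q2 * ((2:ℝ) ^ M) ^ q1 := by
    rw [← Real.rpow_add hp, ← Real.rpow_natCast, ← Real.rpow_mul (by norm_num)]
    congr 1; ring
  rw [pow_zero, mul_one, mul_one, e]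
  have g2 : 1 ≤ ((2:ℝ) ^ M) ^ q2 * (K.w 2) ^ q2 := by
    rw [← Real.mul_rpow hp.le p2.le]; exact Real.one_le_rpow f2 hq2
  have g1 : 1 ≤ ((2:ℝ) ^ M) ^ q1 * (K.w 1) ^ q1 := by
    rw [← Real.mul_rpow hp.le p1.le]; exact Real.one_le_rpow f1 hq1
  calc (1:ℝ) ≤ (((2:ℝ) ^ M) ^ q2 * (K.w 2) ^ q2) * (((2:ℝ) ^ M) ^ q1 * (K.w 1) ^ q1) :=
        one_le_mul_of_one_le_of_one_le g2 g1
    _ = _ := by ring

open Classical in
/-- **configuration of a raw grid family** -/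
theorem exists_cf4 {b0 η : ℝ} {N M : ℕ} {s : Finset GLine4} {I : Finset (GLine4 × ℤ)} {μ : ℝ}
    (h : Raw b0 η N M s I μ) {q1 q2 : ℝ} (hq1 : 0 ≤ q1) (hq2 : 0 ≤ q2) {Λm : ℝ}
    (hΛ : 1 ≤ Λm) :
    ∃ F : Cf4, F.Ok q1 q2 ∧ F.m = 0 ∧ F.M = M ∧ F.r = 1 / 2 ^ M ∧ F.Λm = Λm ∧
      (F.I.card : ℝ) ≤ 2 ^ (5 * M) ∧ F.D1 = μ * 8 ^ M ∧
      F.D0 = 128000000 * ((M : ℝ) + 6) ^ 2 * 8 ^ M * (2:ℝ) ^ ((q1 + q2) * M) ∧
      (∀ x ∈ F.I, (2:ℝ) ^ ((1 - η) * M) ≤ 32 * (ownc4 F.m F.top F.I x : ℝ)) ∧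
      (∀ x ∈ F.I, 1 / 4 ≤ x.2 ∧ x.2 ≤ 3 / 4) ∧
      (∀ x ∈ F.I, ∀ y ∈ F.I, ob4 M x = ob4 M y → x = y) ∧
      (∀ x ∈ F.I, ∀ i, |x.1.v i| ≤ 1 / 16 ∧ |x.1.p i| ≤ 3 / 64) := by
  obtain ⟨J, cl, ctr, hne, hcard, hcard5, hz, hz0, hinj, hvel, hmem, hmul, hown, hup⟩ := grid_cf h
  have hμ : 0 < μ := lt_of_lt_of_le (by positivity) h.big
  have hp : (0:ℝ) < 2 ^ M := by positivity
  refine ⟨⟨0, M, 1 / 2 ^ M, Λm, J, cl, fun n => cubeK (1 / 2 ^ M) (ctr n),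
    128000000 * ((M : ℝ) + 6) ^ 2 * 8 ^ M * (2:ℝ) ^ ((q1 + q2) * M), μ * 8 ^ M⟩,
    ?_, rfl, rfl, rfl, rfl, hcard5, rfl, rfl, ?_, hz, hinj, hvel⟩
  · have htop : (0 + M) = M := by omega
    constructor
    · exact h.M1
    · show (0:ℝ) < 1 / 2 ^ M; positivity
    · show (1:ℝ) / 2 ^ M ≤ 1 / 2 ^ (0 + M); rw [htop]
    · exact hΛ
    · exact hne
    · intro x hx y hy
      show zc4 0 x.2 = zc4 0 y.2
      rw [hz0 x hx, hz0 y hy]
    · show 0 < μ * 8 ^ M; positivity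
    · intro x hx
      exact cube_legal _ hΛ (by show (1:ℝ) / 2 ^ M ≤ 1 / 2 ^ (0 + M); rw [htop]) _
    · intro x hx
      show In4 (0 + M) (cubeK (1 / 2 ^ M) (ctr (cl (ob4 (0 + M) x)))) (ob4 (0 + M) x)
      rw [htop]
      exact hmem x hx
    · intro x hx
      show μ * 8 ^ M * cap4 q1 q2 (0 + M) (cubeK (1 / 2 ^ M) (ctr (cl (ob4 (0 + M) x)))) ≤
        (((J.image (ob4 (0 + M))).filter fun o => cl o = cl (ob4 (0 + M) x)).card : ℝ)
      rw [htop, cap_cube]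
      have e2 : μ * 8 ^ M * (1 / 8 ^ M) = μ := by field_simp
      rw [e2]
      exact hmul x hx
    · intro K hK
      show ((objs4 0 J K).card : ℝ) ≤
        128000000 * ((M : ℝ) + 6) ^ 2 * 8 ^ M * (2:ℝ) ^ ((q1 + q2) * M) * cap4 q1 q2 0 K
      have hK' : Legal4 0 (1 / 2 ^ M) Λm K := hK
      have hw1 : K.w 1 ≤ 1 := by have := hK'.w1; simpa using this
      have hr : (0:ℝ) < 1 / 2 ^ M := by positivity
      have pa : 0 < K.a := hr.trans_le hK'.sheet.r0_le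
      have p2 : 0 < K.w 2 := pa.trans_le hK'.sheet.a_le
      have p1 : 0 < K.w 1 := p2.trans_le hK'.sheet.w_le
      have hrew := reward_low hq1 hq2 hK'
      by_cases hj : K.j = 0
      · have hS : Sheet K.e K.c K.w K.q K.a 0 1 (1 / 2 ^ M) := by
          have := hK'.sheet
          rw [hj] at this
          simpa using this
        have h1 := hup K.e K.c K.w K.q K.a hS hw1
        have h2 : ((objs4 0 J K).card : ℝ) ≤
            (((J.image fun x => x.1).filter fun t => InSheet t K.e K.c K.w K.q K.a 0 1).card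
              : ℝ) := by
          refine Nat.cast_le.2 (card_le_card_of_injOn (fun o => o.1) (fun o ho => ?_) ?_)
          · unfold objs4 at ho
            rw [Finset.mem_coe, mem_filter, mem_image] at ho
            obtain ⟨⟨x, hx, rfl⟩, ho1, ho2⟩ := ho
            rw [Finset.mem_coe, mem_filter]
            refine ⟨mem_image_of_mem _ hx, ?_⟩
            rw [hj] at ho2
            simpa using ho2
          · intro o ho o' ho' hoo
            unfold objs4 at ho ho'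
            rw [Finset.mem_coe, mem_filter] at ho ho'
            exact Prod.ext hoo (ho.2.1.trans ho'.2.1.symm)
        refine h2.trans (h1.trans ?_)
        unfold cap4
        have h3 : 0 ≤ 128000000 * ((M : ℝ) + 6) ^ 2 * 8 ^ M * (K.a * K.w 2 * K.w 1) := by
          positivity
        calc 128000000 * ((M : ℝ) + 6) ^ 2 * 8 ^ M * (K.a * K.w 2 * K.w 1)
            ≤ 128000000 * ((M : ℝ) + 6) ^ 2 * 8 ^ M * (K.a * K.w 2 * K.w 1) *
              ((2:ℝ) ^ ((q1 + q2) * M) * ((K.w 2 * 2 ^ 0) ^ q2 * (K.w 1 * 2 ^ 0) ^ q1)) :=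
              le_mul_of_one_le_right h3 hrew
          _ = _ := by ring
      · have h2 : objs4 0 J K = ∅ := by
          unfold objs4
          rw [filter_eq_empty_iff]
          intro o ho
          obtain ⟨x, hx, rfl⟩ := mem_image.1 ho
          intro hin
          exact hj (by rw [← hin.1]; exact hz0 x hx)
        rw [h2, card_empty, Nat.cast_zero]
        unfold cap4
        positivity
  · intro x hx
    show (2:ℝ) ^ ((1 - η) * M) ≤ 32 * (ownc4 0 (0 + M) J x : ℝ)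
    have htop : (0 + M) = M := by omega
    rw [htop]
    refine (hown x hx).trans ?_
    unfold ownc4
    have hsub : (J.filter fun y => y.1 = x.1) ⊆ (J.filter fun y => ob4 0 y = ob4 0 x) := by
      intro y hy
      rw [mem_filter] at hy ⊢
      refine ⟨hy.1, ?_⟩
      unfold ob4
      rw [hy.2, hz0 y hy.1, hz0 x hx]
    have := card_le_card (image_subset_image (f := ob4 M) hsub)
    have h2 : (((J.filter fun y => y.1 = x.1).image (ob4 M)).card : ℝ) ≤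
        (((J.filter fun y => ob4 0 y = ob4 0 x).image (ob4 M)).card : ℝ) := Nat.cast_le.2 this
    linarith

open Filter Topology in
/-- polynomials of `M` are negligible -/
theorem poly_small (C : ℝ) (hC : 0 < C) {b : ℝ} (hb : 0 < b) :
    ∀ᶠ M : ℕ in atTop, C * ((M : ℝ) + 6) ^ 2 ≤ (2:ℝ) ^ (b * M) := by
  have h1 : (1:ℝ) < 2 ^ b := Real.one_lt_rpow (by norm_num) hb
  have h2 := tendsto_pow_const_div_const_pow_of_one_lt 2 h1
  have h3 := (tendsto_add_atTop_iff_nat 6).2 h2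
  have h4 : (0:ℝ) < 1 / (C * ((2:ℝ) ^ b) ^ 6) := by positivity
  filter_upwards [h3.eventually_lt_const h4] with M hM
  have h5 : (0:ℝ) < ((2:ℝ) ^ b) ^ (M + 6) := by positivity
  rw [div_lt_div_iff₀ h5 (by positivity), one_mul, pow_add] at hM
  have h6 : (0:ℝ) < ((2:ℝ) ^ b) ^ 6 := by positivity
  have h7 : (2:ℝ) ^ (b * M) = ((2:ℝ) ^ b) ^ M := by
    rw [Real.rpow_mul (by norm_num), Real.rpow_natCast]
  rw [h7]
  push_cast at hM
  have h8 : (C * ((M : ℝ) + 6) ^ 2) * ((2:ℝ) ^ b) ^ 6 ≤ ((2:ℝ) ^ b) ^ M * ((2:ℝ) ^ b) ^ 6 := by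
    calc (C * ((M : ℝ) + 6) ^ 2) * ((2:ℝ) ^ b) ^ 6
        = ((M : ℝ) + 6) ^ 2 * (C * ((2:ℝ) ^ b) ^ 6) := by ring
      _ ≤ ((2:ℝ) ^ b) ^ M * ((2:ℝ) ^ b) ^ 6 := hM.le
  exact le_of_mul_le_mul_right h8 h6

/-- **ENEMY**: if `KS4` fails there are admissible configurations of value `≥ b0 - q1 - q2`,
arbitrarily long, of polynomial size, with resolution `2^-M`. -/
theorem enemy4 (h : ¬ KS4) : ∃ b0 : ℝ, 0 < b0 ∧ ∀ q1 q2 : ℝ, 0 ≤ q1 → 0 ≤ q2 →
    ∀ δ : ℝ, 0 < δ → ∀ M0 : ℕ, ∃ F : Cf4, F.Ok q1 q2 ∧ F.Adm δ ∧ M0 ≤ F.M ∧ F.m = 0 ∧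
      F.r = 1 / 2 ^ F.M ∧ (F.I.card : ℝ) ≤ 2 ^ (5 * F.M) ∧ b0 - (q1 + q2) ≤ F.val := by
  obtain ⟨b0, hb0, hraw⟩ := enemy_raw h
  refine ⟨b0 / 2, by linarith, fun q1 q2 hq1 hq2 δ hδ M0 => ?_⟩
  have ev := ((poly_small (32 + 5) (by norm_num) (by positivity : 0 < δ / 2)).and
    ((poly_small 128000000 (by norm_num) (by positivity : 0 < b0 / 2)).and
      (Filter.eventually_ge_atTop M0))).exists_forall_of_atTop
  obtain ⟨M1, hM1⟩ := ev
  obtain ⟨N, M, s, I, μ, hMM, hR⟩ := hraw (δ / 2) (by positivity) M1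
  obtain ⟨k1, k2, k3⟩ := hM1 M hMM
  have hMr : (1:ℝ) ≤ M := by exact_mod_cast hR.M1
  have hM0 : (0:ℝ) < M := by linarith
  have hΛ : (1:ℝ) ≤ (2:ℝ) ^ (δ * M) := Real.one_le_rpow (by norm_num) (by positivity)
  obtain ⟨F, hF, hm, hM, hr, hΛm, hcard, hD1, hD0, hown, hz, hinj, hvel⟩ :=
    exists_cf4 hR hq1 hq2 hΛ
  have hbig : (37:ℝ) * (M + 6) ≤ (2:ℝ) ^ (δ / 2 * M) := by
    refine le_trans ?_ k1
    have : (M:ℝ) + 6 ≤ (M + 6) ^ 2 := by nlinarith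
    nlinarith
  have hpos1 : (1:ℝ) ≤ (2:ℝ) ^ (δ / 2 * M) := Real.one_le_rpow (by norm_num) (by positivity)
  have hmono : (2:ℝ) ^ (δ / 2 * M) ≤ (2:ℝ) ^ (δ * M) :=
    Real.rpow_le_rpow_of_exponent_le (by norm_num) (by nlinarith)
  have h5M : (5:ℝ) * M ≤ (2:ℝ) ^ (δ * M) := by
    refine le_trans ?_ (hbig.trans hmono); linarith
  refine ⟨F, hF, ⟨?_, ?_, ?_, ?_, ?_⟩, by rw [hM]; exact k3, hm, by rw [hr, hM],
    by rw [hM]; exact hcard, ?_⟩
  · -- own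
    intro x hx
    have h1 := hown x hx
    rw [hM]
    have h2 : (2:ℝ) ^ ((1 - δ / 2) * M) = 2 ^ ((1 - δ) * M) * 2 ^ (δ / 2 * M) := by
      rw [← Real.rpow_add (by norm_num)]; congr 1; ring
    rw [h2] at h1
    have h3 : (32:ℝ) ≤ (2:ℝ) ^ (δ / 2 * M) := by linarith
    have h4 : (0:ℝ) < 2 ^ ((1 - δ) * M) := by positivity
    nlinarith
  · -- size
    rw [hM]
    have hne : (0:ℝ) < F.I.card := by exact_mod_cast card_pos.2 hF.ne
    calc Real.logb 2 (F.I.card : ℝ) ≤ Real.logb 2 (2 ^ (5 * M)) :=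
          Real.logb_le_logb_of_le one_lt_two hne hcard
      _ = 5 * M := by
        rw [Real.logb_pow, Real.logb_self_eq_one one_lt_two, mul_one]; push_cast; ring
      _ ≤ _ := h5M
  · -- resolution
    rw [hM, hr, hm, pow_zero, mul_one, one_div_one_div, Real.logb_pow,
      Real.logb_self_eq_one one_lt_two, mul_one]
    linarith
  · rw [hM, hΛm]
  · intro x hx i
    have := (hvel x hx i).1
    linarith
  · -- value
    unfold Cf4.val
    rw [hD1, hD0, hM, le_div_iff₀ hM0]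
    have hμ : (0:ℝ) < (2:ℝ) ^ (b0 * M) := by positivity
    have e1 : (2:ℝ) ^ ((b0 / 2 - (q1 + q2)) * M) ≤
        μ * 8 ^ M / (128000000 * ((M : ℝ) + 6) ^ 2 * 8 ^ M * (2:ℝ) ^ ((q1 + q2) * M)) := by
      rw [le_div_iff₀ (by positivity)]
      have h8 : (0:ℝ) < 8 ^ M := by positivity
      calc (2:ℝ) ^ ((b0 / 2 - (q1 + q2)) * M) *
            (128000000 * ((M : ℝ) + 6) ^ 2 * 8 ^ M * (2:ℝ) ^ ((q1 + q2) * M))
          = (2:ℝ) ^ ((b0 / 2 - (q1 + q2)) * M) * (2:ℝ) ^ ((q1 + q2) * M) *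
            (128000000 * ((M : ℝ) + 6) ^ 2) * 8 ^ M := by ring
        _ = (2:ℝ) ^ (b0 / 2 * M) * (128000000 * ((M : ℝ) + 6) ^ 2) * 8 ^ M := by
          rw [← Real.rpow_add (by norm_num)]; congr 3; ring
        _ ≤ (2:ℝ) ^ (b0 / 2 * M) * (2:ℝ) ^ (b0 / 2 * M) * 8 ^ M := by gcongr
        _ = (2:ℝ) ^ (b0 * M) * 8 ^ M := by
          rw [← Real.rpow_add (by norm_num)]; congr 2; ring
        _ ≤ μ * 8 ^ M := by
          have := hR.big
          gcongr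
    have e2 := Real.logb_le_logb_of_le one_lt_two (by positivity) e1
    rw [Real.logb_rpow (by norm_num) (by norm_num)] at e2
    linarith

end

end Crest.Agent.R136.K4
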