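import Crest.Agent.R136.Cap1_102
import Crest.Agent.R136.KDef4_879

/-!
# R136 / U5: curvature extent and non-degeneracy of a sheet along a line, definitions (helper335)

`kapP S z0 ρ T` (a length) and `DetP δ S z0 ρ T` : the instances of the parameters `kap`, `Det` of
`Tlt0_51` : `w 0 * kap` and `det3 (fan ..)` of the expansion of `q` around the line `T` (`IsExp`).
The expansion is unique (`isExp_unique`).
-/

set_option autoImplicit false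
set_option linter.unusedVariables false

namespace Crest.Agent.R136.KapP335

open Crest.Agent.R136.Sh605 Crest.Agent.R136.K4
open Crest.Agent.R136.Tl102 (QF Fq bz fan shB0 scB1 scG shG shB1 kap NrmC IsExp fr cmb exists_isExp)
open Crest.Agent.R136.Arc880 (det3)

theorem Fq_inj {b0 b1 b0' b1' : V3} {G G' : QF} (h : ∀ ζ x, Fq b0 b1 G ζ x = Fq b0' b1' G' ζ x) :
    b0 = b0' ∧ b1 = b1' ∧ G = G' := by
  have hp : ∀ ζ (k : Fin 3), b0 k + ζ * b1 k = b0' k + ζ * b1' k := by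
    intro ζ k
    have h1 := h ζ (Pi.single k 1)
    have h2 := h ζ (Pi.single k (-1))
    simp only [Fq, dt, bz, QF.ev] at h1 h2
    fin_cases k <;> simp at h1 h2 ⊢ <;> linarith
  have e0 : b0 = b0' := by
    funext k; have := hp 0 k; simpa using this
  have e1 : b1 = b1' := by
    funext k
    have := hp 1 k
    rw [e0] at this
    linarith
  refine ⟨e0, e1, ?_⟩
  subst e0 e1
  have g : ∀ x, G.ev x = G'.ev x := by
    intro x
    have := h 0 x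
    simp only [Fq] at this
    linarith
  have g1 := g ![1, 0, 0]
  have g2 := g ![0, 1, 0]
  have g3 := g ![0, 0, 1]
  have g4 := g ![1, 1, 0]
  have g5 := g ![1, 0, 1]
  have g6 := g ![0, 1, 1]
  simp only [QF.ev, Matrix.cons_val] at g1 g2 g3 g4 g5 g6
  obtain ⟨a1, a2, a3, a4, a5, a6⟩ := G
  obtain ⟨c1, c2, c3, c4, c5, c6⟩ := G'
  simp only [QF.mk.injEq] at *
  refine ⟨?_, ?_, ?_, ?_, ?_, ?_⟩ <;> linarith

/-- the expansion is unique -/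
theorem isExp_unique {q : ℝ → V3 → ℝ} {e : Fin 3 → V3} {w : V3} {T : Ln4} {z0 ρ : ℝ}
    (hw : w 0 ≠ 0) {b0 b1 b0' b1' : V3} {G G' : QF} (h : IsExp q e w T z0 ρ b0 b1 G)
    (h' : IsExp q e w T z0 ρ b0' b1' G') : b0 = b0' ∧ b1 = b1' ∧ G = G' := by
  refine Fq_inj fun ζ x => ?_
  have := (h ζ x).symm.trans (h' ζ x)
  exact mul_left_cancel₀ hw (add_left_cancel this)

open Classical in
/-- the expansion of `S.q` around the line `T` (plank coordinates of `S`) -/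
noncomputable def expP (S : Plk4) (z0 ρ : ℝ) (T : Ln4) : V3 × V3 × QF :=
  if h : ∃ p : V3 × V3 × QF, IsExp S.q S.e S.w T z0 ρ p.1 p.2.1 p.2.2 then h.choose
  else (0, 0, ⟨0, 0, 0, 0, 0, 0⟩)

/-- **curvature extent** of the sheet along the line, a length -/
noncomputable def kapP (S : Plk4) (z0 ρ : ℝ) (T : Ln4) : ℝ :=
  S.w 0 * kap (expP S z0 ρ T).1 (expP S z0 ρ T).2.1 (expP S z0 ρ T).2.2

/-- conic of the fan at the height `z0 + ρ ζ` (plank coordinates, thickness in units of `kapP`) -/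
noncomputable def fanP (S : Plk4) (z0 ρ : ℝ) (T : Ln4) (ζ : ℝ) : Fin 3 → Fin 3 → ℝ :=
  fan (shB0 (expP S z0 ρ T).1)
    (scB1 (kap (expP S z0 ρ T).1 (expP S z0 ρ T).2.1 (expP S z0 ρ T).2.2) (expP S z0 ρ T).1
      (expP S z0 ρ T).2.1)
    (scG (kap (expP S z0 ρ T).1 (expP S z0 ρ T).2.1 (expP S z0 ρ T).2.2) (expP S z0 ρ T).1
      (expP S z0 ρ T).2.2) ζ

/-- **non-degeneracy** of the sheet along the line -/
def DetP (δ : ℝ) (S : Plk4) (z0 ρ : ℝ) (T : Ln4) : Prop :=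
  ∀ ζ, 0 ≤ ζ → ζ ≤ 1 → δ ≤ |det3 (fanP S z0 ρ T ζ)|

theorem expP_spec {S : Plk4} (hq : IsQ S.q) (hw : S.w 0 ≠ 0) (z0 ρ : ℝ) (T : Ln4) :
    IsExp S.q S.e S.w T z0 ρ (expP S z0 ρ T).1 (expP S z0 ρ T).2.1 (expP S z0 ρ T).2.2 := by
  obtain ⟨b0, b1, G, h⟩ := exists_isExp hq S.e hw T z0 ρ
  have hex : ∃ p : V3 × V3 × QF, IsExp S.q S.e S.w T z0 ρ p.1 p.2.1 p.2.2 := ⟨(b0, b1, G), h⟩
  unfold expP
  rw [dif_pos hex]
  exact hex.choose_spec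

theorem expP_eq {S : Plk4} (hw : S.w 0 ≠ 0) {z0 ρ : ℝ} {T : Ln4} {b0 b1 : V3} {G : QF}
    (h : IsExp S.q S.e S.w T z0 ρ b0 b1 G) : expP S z0 ρ T = (b0, b1, G) := by
  have hex : ∃ p : V3 × V3 × QF, IsExp S.q S.e S.w T z0 ρ p.1 p.2.1 p.2.2 := ⟨(b0, b1, G), h⟩
  have h1 : IsExp S.q S.e S.w T z0 ρ (expP S z0 ρ T).1 (expP S z0 ρ T).2.1
      (expP S z0 ρ T).2.2 := by
    unfold expP
    rw [dif_pos hex]
    exact hex.choose_spec
  obtain ⟨e1, e2, e3⟩ := isExp_unique hw h1 h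
  exact Prod.ext e1 (Prod.ext e2 e3)

theorem kapP_eq {S : Plk4} (hw : S.w 0 ≠ 0) {z0 ρ : ℝ} {T : Ln4} {b0 b1 : V3} {G : QF}
    (h : IsExp S.q S.e S.w T z0 ρ b0 b1 G) : kapP S z0 ρ T = S.w 0 * kap b0 b1 G := by
  unfold kapP
  rw [expP_eq hw h]

theorem fanP_eq {S : Plk4} (hw : S.w 0 ≠ 0) {z0 ρ : ℝ} {T : Ln4} {b0 b1 : V3} {G : QF}
    (h : IsExp S.q S.e S.w T z0 ρ b0 b1 G) (ζ : ℝ) :
    fanP S z0 ρ T ζ = fan (shB0 b0) (scB1 (kap b0 b1 G) b0 b1) (scG (kap b0 b1 G) b0 G) ζ := by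
  unfold fanP
  rw [expP_eq hw h]

theorem detP_iff {S : Plk4} (hw : S.w 0 ≠ 0) {z0 ρ : ℝ} {T : Ln4} {b0 b1 : V3} {G : QF}
    (h : IsExp S.q S.e S.w T z0 ρ b0 b1 G) (δ : ℝ) : DetP δ S z0 ρ T ↔
      ∀ ζ, 0 ≤ ζ → ζ ≤ 1 →
        δ ≤ |det3 (fan (shB0 b0) (scB1 (kap b0 b1 G) b0 b1) (scG (kap b0 b1 G) b0 G) ζ)| := by
  unfold DetP
  simp only [fanP_eq hw h]

theorem DetP.mono {δ δ' : ℝ} {S : Plk4} {z0 ρ : ℝ} {T : Ln4} (h : DetP δ S z0 ρ T) (hδ : δ' ≤ δ) :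
    DetP δ' S z0 ρ T := fun ζ h0 h1 => hδ.trans (h ζ h0 h1)

end Crest.Agent.R136.KapP335
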