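import Crest.Agent.R136.Adj_214
import Crest.Agent.R136.KapP_335

/-!
# R136 (S0187), U4 (AL): points of the sheet in the chart, plank form (helper214)

`point_of`: points of the sheet near `T` are chart points with `|y| ≤ 1/2`; `chartP`, `divideP`,
`pointP`: the three statements for a plank `S : Plk4` with `expP`, `kapP`; `chart_jet`, `divide_jet`:
the same as `JetAt` (helper601).
-/

set_option autoImplicit false

namespace Crest.Agent.R136.Adj214

open Crest.Agent.R136.Sh605 Crest.Agent.R136.Tl102 Crest.Agent.R136.K4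
open Crest.Agent.R136.Deep51 (CloseC)
open Crest.Agent.R136.KapP335 (expP kapP expP_spec)
open Crest.Agent.R136.Rk601 (Jt dp qf lf sl JetAt exists_jet)

theorem NJ.jb {c : ℝ} {J : Jt} (N : NJ c J) : JB 2 c J where
  sym := N.sym
  c := N.c.trans (by norm_num)
  a0 := by
    have := N.st 0 0 (by simp) le_rfl zero_le_one (by simp) (by simp)
    have e : J.a0 + J.h00 * 0 + dp J.h0 0 = J.a0 := by simp [dp]
    rw [e] at this
    rw [abs_le]; constructor <;> linarith [this.1, this.2]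
  a := by
    intro i; fin_cases i
    · exact N.a0.trans (by norm_num)
    · show |J.a 1| ≤ 2
      rw [N.a1]; norm_num
    · show |J.a 2| ≤ 2
      rw [N.a2]; norm_num
  h00 := N.h00
  h0 := by
    intro i; fin_cases i
    · exact N.h0.trans (by norm_num)
    · exact N.h1.trans (by norm_num)
    · exact N.h2.trans (by norm_num)
  h := N.h

theorem kap_pos_of {w0 a κ : ℝ} (hw0 : 0 < w0) (ha : 0 < a) (hk : 10 ^ 6 * a ≤ w0 * κ) : 0 < κ := by
  by_contra h
  push Not at h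
  have := mul_nonpos_of_nonneg_of_nonpos hw0.le h
  have h2 : 0 < 10 ^ 6 * a := by positivity
  linarith

section
variable {e : Fin 3 → V3} {c T : Ln4} {w : V3} {q : ℝ → V3 → ℝ} {a z0 ρ r0 : ℝ}
  {b0 b1 : V3} {G : QF}

/-- **(C) points of the sheet near `T`** -/
theorem point_of (S : ShN e c w q a z0 ρ r0) (ha : 0 < a) (hρ : 0 ≤ ρ)
    (hT : InSheet T e c w q a z0 ρ) (hE : IsExp q e w T z0 ρ b0 b1 G)
    (hk : 10 ^ 6 * a ≤ w 0 * kap b0 b1 G) {ζ : ℝ} (z1 : 0 ≤ ζ) (z2 : ζ ≤ 1) {X : V3}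
    (hX : InK e c w (z0 + ρ * ζ) X)
    (h1 : |dt (e 1) (X - T.pos (z0 + ρ * ζ))| ≤ w 1 / 8192)
    (h2 : |dt (e 2) (X - T.pos (z0 + ρ * ζ))| ≤ w 2 / 8192)
    (hA : |q (z0 + ρ * ζ) X| ≤ 1 / 100 * (kap b0 b1 G * (1 / 256) * w 0)) :
    ∃ y u v, |y| ≤ 1 / 2 ∧ |u| ≤ 1 / 32 ∧ |v| ≤ 1 / 32 ∧
      X = cx e w b0 (kap b0 b1 G) z0 ρ T ζ y u v ∧
      w 1 * u = 256 * dt (e 1) (X - T.pos (z0 + ρ * ζ)) ∧
      w 2 * v = 256 * dt (e 2) (X - T.pos (z0 + ρ * ζ)) := by
  have hw0 : 0 < w 0 := ha.trans_le S.a_le0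
  have SP := StP.of_shN S hw0
  have N := hE.nrmC SP hρ (fun z h1 h2 => (hT z h1 h2).1)
  obtain ⟨-, -, -, -, -, -, -, s1, s2⟩ := N.b1_le
  obtain ⟨c0, J, NN, -, -, hh0, hq⟩ := chart S ha hρ hT hE hk
  have hκ := kap_pos_of hw0 ha hk
  set κ := kap b0 b1 G with hκdef
  have hw1 := SP.pos 1
  have hw2 := SP.pos 2
  have hz1 : z0 ≤ z0 + ρ * ζ := by nlinarith
  have hz2 : z0 + ρ * ζ ≤ z0 + ρ := by nlinarith
  set z := z0 + ρ * ζ with hz
  set P := T.pos z with hP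
  set x0 := dt (e 0) (X - P) / w 0 with hx0
  set x1 := dt (e 1) (X - P) / w 1 with hx1
  set x2 := dt (e 2) (X - P) / w 2 with hx2
  have b1' : |x1| ≤ 1 / 8192 := by
    rw [hx1, abs_div, abs_of_pos hw1, div_le_iff₀ hw1]; linarith
  have b2' : |x2| ≤ 1 / 8192 := by
    rw [hx2, abs_div, abs_of_pos hw2, div_le_iff₀ hw2]; linarith
  have eX : X = P + cmb (fr e w) ![x0, x1, x2] := by
    funext i
    have := S.ortho.expand (X - P) i
    simp only [Pi.sub_apply] at this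
    simp only [cmb, fr, Pi.add_apply, Pi.smul_apply, smul_eq_mul, Matrix.cons_val]
    have f0 : x0 * (w 0 * e 0 i) = dt (e 0) (X - P) * e 0 i := by rw [hx0]; field_simp
    have f1 : x1 * (w 1 * e 1 i) = dt (e 1) (X - P) * e 1 i := by rw [hx1]; field_simp
    have f2 : x2 * (w 2 * e 2 i) = dt (e 2) (X - P) * e 2 i := by rw [hx2]; field_simp
    rw [f0, f1, f2]
    linarith
  -- reference point
  set u := 256 * x1 with hu
  set v := 256 * x2 with hv
  have hu1 : |u| ≤ 1 / 32 := by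
    rw [hu, abs_mul, abs_of_pos (by norm_num : (0 : ℝ) < 256)]; linarith
  have hv1 : |v| ≤ 1 / 32 := by
    rw [hv, abs_mul, abs_of_pos (by norm_num : (0 : ℝ) < 256)]; linarith
  set y := (x0 + b0 1 / b0 0 * x1 + b0 2 / b0 0 * x2) / (κ * (1 / 256)) with hy
  have hκ0 := hκ.ne'
  have eX2 : X = cx e w b0 κ z0 ρ T ζ y u v := by
    rw [eX]
    unfold cx unsh
    rw [← hz, ← hP]
    congr 2
    have e0 : κ * (1 / 256 * y) - b0 1 / b0 0 * (1 / 256 * u) - b0 2 / b0 0 * (1 / 256 * v) =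
        x0 := by
      rw [hy, hu, hv]
      have : κ * (1 / 256 * ((x0 + b0 1 / b0 0 * x1 + b0 2 / b0 0 * x2) / (κ * (1 / 256)))) =
        x0 + b0 1 / b0 0 * x1 + b0 2 / b0 0 * x2 := by
        field_simp
      rw [this]; ring
    have e1 : 1 / 256 * u = x1 := by rw [hu]; ring
    have e2 : 1 / 256 * v = x2 := by rw [hv]; ring
    rw [e0, e1, e2]
  refine ⟨y, u, v, ?_, hu1, hv1, eX2, ?_, ?_⟩
  · -- the size of `y`
    set X0 := cx e w b0 κ z0 ρ T ζ 0 u v with hX0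
    have hd : X = X0 + (y * (κ * (1 / 256)) * w 0) • e 0 := by
      rw [eX2, hX0]
      funext i
      simp only [cx, cmb, fr, unsh, Pi.add_apply, Pi.smul_apply, smul_eq_mul, Matrix.cons_val]
      ring
    have hin : InK e c (dbl3 w) z X0 := by
      have hTz := (hT z hz1 hz2).1
      intro i
      have e1 : dt (e i) (X0 - c.pos z) = dt (e i) (T.pos z - c.pos z) +
          dt (e i) (cmb (fr e w) (unsh b0 (κ * (1 / 256 * 0)) (1 / 256 * u) (1 / 256 * v))) := by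
        rw [hX0]
        simp only [cx, dt, Pi.add_apply, Pi.sub_apply, hz]; ring
      rw [e1, dt_cmb_fr S.ortho]
      refine (abs_add_le _ _).trans ?_
      rw [abs_mul, abs_of_nonneg (SP.pos i).le]
      have k1 := hTz i
      have k2 : |unsh b0 (κ * (1 / 256 * 0)) (1 / 256 * u) (1 / 256 * v) i| ≤ 1 := by
        have half : ∀ {x B : ℝ}, |x| ≤ B → |1 / 256 * x| ≤ 1 / 256 * B := fun hx =>
          abs2 (by norm_num : |(1 / 256 : ℝ)| ≤ 1 / 256) hx
        fin_cases i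
        · change |κ * (1 / 256 * 0) - b0 1 / b0 0 * (1 / 256 * u) -
            b0 2 / b0 0 * (1 / 256 * v)| ≤ 1
          have a2 := abs2 s1 (half hu1)
          have a3 := abs2 s2 (half hv1)
          rw [mul_zero, mul_zero, zero_sub]
          refine (abs_sub _ _).trans ?_
          rw [abs_neg]
          norm_num at a2 a3 ⊢
          linarith
        · exact (half hu1).trans (by norm_num)
        · exact (half hv1).trans (by norm_num)
      have k3 := mul_le_mul_of_nonneg_left k2 (SP.pos i).le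
      change _ ≤ 2 * w i
      linarith
    have hin' : InK e c (dbl3 w) z X := by
      intro i
      have := hX i
      have h3 := (SP.pos i).le
      change _ ≤ 2 * w i
      linarith
    have hM : 0 < κ * (1 / 256) * w 0 := by positivity
    -- the value at the reference point
    have hq0 := hq ζ 0 u v
    have hε : a / (κ * (1 / 256) * w 0) ≤ 256 / 10 ^ 6 := by
      rw [div_le_div_iff₀ hM (by norm_num)]
      nlinarith
    have hev : |c0 + ev J 0 ![ζ, u, v]| ≤ 3 / 20 := by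
      have e : c0 + ev J 0 ![ζ, u, v] = c0 + J.a 0 * ζ + (1 / 2 * J.h 0 0) * (ζ * ζ) +
          (J.h 0 1 * (ζ * u) + J.h 0 2 * (ζ * v) + (1 / 2 * J.h 1 1) * (u * u) +
          (1 / 2 * J.h 2 2) * (v * v) + J.h 1 2 * (u * v)) := by
        have m10 := NN.sym 1 0
        have m20 := NN.sym 2 0
        have m21 := NN.sym 2 1
        simp only [ev, dp, qf, Fin.sum_univ_three, Matrix.cons_val, NN.a1, NN.a2, m10, m20, m21]
        ring
      rw [e]
      have hζ : |ζ| ≤ 1 := by rw [abs_of_nonneg z1]; exact z2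
      have g1 := abs2 NN.a0 hζ
      have g2 : |1 / 2 * J.h 0 0 * (ζ * ζ)| ≤ 1 / 2 * (16 * (256 / 10 ^ 6)) * (1 * 1) := by
        refine abs2 (abs2 (by norm_num : |(1 / 2 : ℝ)| ≤ 1 / 2) (hh0.trans ?_)) (abs2 hζ hζ)
        exact mul_le_mul_of_nonneg_left hε (by norm_num)
      have g3 := abs2 (NN.h 0 1) (abs2 hζ hu1)
      have g4 := abs2 (NN.h 0 2) (abs2 hζ hv1)
      have g5 := abs2 (abs2 (by norm_num : |(1 / 2 : ℝ)| ≤ 1 / 2) (NN.h 1 1)) (abs2 hu1 hu1)
      have g6 := abs2 (abs2 (by norm_num : |(1 / 2 : ℝ)| ≤ 1 / 2) (NN.h 2 2)) (abs2 hv1 hv1)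
      have g7 := abs2 (NN.h 1 2) (abs2 hu1 hv1)
      refine (abs_add_le _ _).trans ((add_le_add ((abs_add_le _ _).trans (add_le_add
        ((abs_add_le _ _).trans (add_le_add NN.c g1)) g2)) ((abs_add_le _ _).trans (add_le_add
        ((abs_add_le _ _).trans (add_le_add ((abs_add_le _ _).trans (add_le_add
        ((abs_add_le _ _).trans (add_le_add g3 g4)) g5)) g6)) g7))).trans ?_)
      norm_num
    have hqX0 : |q z X0| ≤ κ * (1 / 256) * w 0 * (3 / 20) := by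
      rw [hq0, abs_mul, abs_of_pos hM]
      exact mul_le_mul_of_nonneg_left hev hM.le
    have hdiff : |y| * (κ * (1 / 256) * w 0) / 2 ≤ |q z X - q z X0| := by
      rcases le_total 0 y with h0 | h0
      · have := (S.st0 z hz1 hz2 X0 (y * (κ * (1 / 256)) * w 0) (by positivity) hin
          (by rw [← hd]; exact hin')).1
        rw [← hd] at this
        rw [abs_of_nonneg h0]
        refine le_trans (le_of_eq ?_) (this.trans (le_abs_self _))
        ring
      · have e1 : X + (-y * (κ * (1 / 256)) * w 0) • e 0 = X0 := by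
          rw [hd]
          funext i
          simp only [Pi.add_apply, Pi.smul_apply, smul_eq_mul]; ring
        have h3 : 0 ≤ -y := by linarith
        have := (S.st0 z hz1 hz2 X (-y * (κ * (1 / 256)) * w 0) (by positivity) hin'
          (by rw [e1]; exact hin)).1
        rw [e1] at this
        rw [abs_of_nonpos h0, abs_sub_comm]
        refine le_trans (le_of_eq ?_) (this.trans (le_abs_self _))
        ring
    have h5 : |q z X - q z X0| ≤ (1 / 100 + 3 / 20) * (κ * (1 / 256) * w 0) :=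
      (abs_sub _ _).trans (by linarith)
    have h6 : |y| * (κ * (1 / 256) * w 0) ≤ 1 / 2 * (κ * (1 / 256) * w 0) := by linarith
    exact le_of_mul_le_mul_right h6 hM
  · rw [hu, hx1]; field_simp
  · rw [hv, hx2]; field_simp

end

/-! ### plank form -/

/-- chart of the plank `S` around the line `T` -/
noncomputable def cP (S : Plk4) (z0 ρ : ℝ) (T : Ln4) (ζ y u v : ℝ) : V3 :=
  cx S.e S.w (expP S z0 ρ T).1 (kap (expP S z0 ρ T).1 (expP S z0 ρ T).2.1 (expP S z0 ρ T).2.2)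
    z0 ρ T ζ y u v

section
variable {S : Plk4} {T : Ln4} {z0 ρ r0 : ℝ}

theorem chartP (h : ShN S.e S.c S.w S.q S.a z0 ρ r0) (ha : 0 < S.a) (hρ : 0 ≤ ρ)
    (hT : InSheet T S.e S.c S.w S.q S.a z0 ρ) (hk : 10 ^ 6 * S.a ≤ kapP S z0 ρ T) :
    ∃ (c0 : ℝ) (J : Jt), NJ c0 J ∧ |c0| ≤ 256 * (S.a / kapP S z0 ρ T) ∧
      |J.a 0| ≤ 2048 * (S.a / kapP S z0 ρ T) ∧ |J.h 0 0| ≤ 4096 * (S.a / kapP S z0 ρ T) ∧
      ∀ ζ y u v, S.q (z0 + ρ * ζ) (cP S z0 ρ T ζ y u v) =
        kapP S z0 ρ T / 256 * (c0 + ev J y ![ζ, u, v]) := by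
  have hw0 : 0 < S.w 0 := ha.trans_le h.a_le0
  obtain ⟨c0, J, h1, h2, h3, h4, h5⟩ := chart h ha hρ hT (expP_spec h.isQ hw0.ne' z0 ρ T) hk
  have e : ∀ x, S.a / (kap (expP S z0 ρ T).1 (expP S z0 ρ T).2.1 (expP S z0 ρ T).2.2 * (1 / 256) *
      S.w 0) * x = 256 * (S.a / kapP S z0 ρ T) * x := by
    intro x
    unfold kapP
    have hκ := kap_pos_of hw0 ha hk
    have hκ0 := hκ.ne'
    have hw00 := hw0.ne'
    field_simp
  have e1 := e 1
  rw [mul_one, mul_one] at e1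
  rw [e1] at h2 h3 h4
  refine ⟨c0, J, h1, h2, by linarith, by linarith, fun ζ y u v => ?_⟩
  unfold cP
  rw [h5]
  unfold kapP
  ring

theorem divideP (h : ShN S.e S.c S.w S.q S.a z0 ρ r0) (ha : 0 < S.a) (hρ : 0 ≤ ρ)
    (hT : InSheet T S.e S.c S.w S.q S.a z0 ρ) (hk : 10 ^ 6 * S.a ≤ kapP S z0 ρ T)
    {q' : ℝ → V3 → ℝ} (hq' : IsQ q') {E : ℝ} (hC : CloseC S.e S.w S.q S.a q' E T z0 ρ) :
    ∃ (μ c' : ℝ) (D : Jt), JB (KD * E) c' D ∧
      ∀ ζ y u v, q' (z0 + ρ * ζ) (cP S z0 ρ T ζ y u v) -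
        μ * S.q (z0 + ρ * ζ) (cP S z0 ρ T ζ y u v) = c' + ev D y ![ζ, u, v] := by
  have hw0 : 0 < S.w 0 := ha.trans_le h.a_le0
  exact divide h ha hρ hT (expP_spec h.isQ hw0.ne' z0 ρ T) hk hq' hC

theorem pointP (h : ShN S.e S.c S.w S.q S.a z0 ρ r0) (ha : 0 < S.a) (hρ : 0 ≤ ρ)
    (hT : InSheet T S.e S.c S.w S.q S.a z0 ρ) (hk : 10 ^ 6 * S.a ≤ kapP S z0 ρ T)
    {ζ : ℝ} (z1 : 0 ≤ ζ) (z2 : ζ ≤ 1) {X : V3} (hX : InK S.e S.c S.w (z0 + ρ * ζ) X)
    (h1 : |dt (S.e 1) (X - T.pos (z0 + ρ * ζ))| ≤ S.w 1 / 8192)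
    (h2 : |dt (S.e 2) (X - T.pos (z0 + ρ * ζ))| ≤ S.w 2 / 8192)
    (hA : |S.q (z0 + ρ * ζ) X| ≤ kapP S z0 ρ T / 25600) :
    ∃ y u v, |y| ≤ 1 / 2 ∧ |u| ≤ 1 / 32 ∧ |v| ≤ 1 / 32 ∧ X = cP S z0 ρ T ζ y u v ∧
      S.w 1 * u = 256 * dt (S.e 1) (X - T.pos (z0 + ρ * ζ)) ∧
      S.w 2 * v = 256 * dt (S.e 2) (X - T.pos (z0 + ρ * ζ)) := by
  have hw0 : 0 < S.w 0 := ha.trans_le h.a_le0
  refine point_of h ha hρ hT (expP_spec h.isQ hw0.ne' z0 ρ T) hk z1 z2 hX h1 h2 (hA.trans ?_)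
  apply le_of_eq
  unfold kapP
  ring

end

end Crest.Agent.R136.Adj214
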