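import Mathlib

/-!
# R136 tilt lemma, counting core (helper51): "class counting at a deeper level"

`P` = incidences (line, deep cell) of one parent cell.  Labels:
* `S x` = (first class, deep cell), `s x` = its small box;
* `C x` = (second class, deep cell), `t x` = its small box.

If every first class has many lines over every deep cell (`M1`), every second class too (`M2`), there
are few small boxes per class (`K1`, `K2`), a second class captures at most `s0` lines of an `s`-box
outside an exceptional set `Bad`, and all `t`-boxes meeting one `s`-box contain together at most `D`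
incidences, then `M1 * M2 ≤ 16 * K1 * K2 * s0 * D`.
-/

set_option autoImplicit false
set_option linter.unusedVariables false
set_option linter.unusedSectionVars false

open Finset

namespace Crest.Agent.R136.Deep51

/-- fibre decomposition with real values -/
theorem card_fib {X γ : Type*} [DecidableEq γ] (Q : Finset X) (T : Finset γ) (f : X → γ)
    (h : ∀ x ∈ Q, f x ∈ T) :
    (Q.card : ℝ) = ∑ g ∈ T, ((Q.filter fun x => f x = g).card : ℝ) := by
  rw [card_eq_sum_card_fiberwise h]
  push_cast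
  rfl

/-- a set all of whose fibres are small -/
theorem card_le_of_fib {X γ : Type*} [DecidableEq γ] (Q : Finset X) (T : Finset γ) (f : X → γ)
    (h : ∀ x ∈ Q, f x ∈ T) {m K : ℝ} (hm : 0 ≤ m) (hT : (T.card : ℝ) ≤ K)
    (hq : ∀ g ∈ T, ((Q.filter fun x => f x = g).card : ℝ) ≤ m) : (Q.card : ℝ) ≤ K * m := by
  rw [card_fib Q T f h]
  refine (sum_le_sum hq).trans ?_
  rw [sum_const, nsmul_eq_mul]
  exact mul_le_mul_of_nonneg_right hT hm

/-- **popular boxes.** `P` is divided into classes `S`, each class into at most `K` boxes `s`; each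
class has at least `M` elements. A part `Q` of `P` which meets every box in less than `θ M / K`
elements is at most a share `θ` of `P`. -/
theorem card_sparse {X β γ : Type*} [DecidableEq β] [DecidableEq γ] (P Q : Finset X) (hQP : Q ⊆ P)
    (S : X → γ) (s : X → β) {M K θ : ℝ} (hK : 0 < K) (hθ : 0 ≤ θ)
    (hM : ∀ x ∈ P, M ≤ ((P.filter fun y => S y = S x).card : ℝ))
    (hKc : ∀ x ∈ P, (((P.filter fun y => S y = S x).image s).card : ℝ) ≤ K)
    (hQ : ∀ x ∈ Q, ((Q.filter fun y => S y = S x ∧ s y = s x).card : ℝ) ≤ θ * M / K) :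
    (Q.card : ℝ) ≤ θ * (P.card : ℝ) := by
  rw [card_fib Q (P.image S) S (fun x hx => mem_image_of_mem _ (hQP hx)),
    card_fib P (P.image S) S (fun x hx => mem_image_of_mem _ hx), mul_sum]
  refine sum_le_sum fun g hg => ?_
  obtain ⟨x0, hx0, rfl⟩ := mem_image.1 hg
  have hc : (0 : ℝ) ≤ ((P.filter fun x => S x = S x0).card : ℝ) := by positivity
  rcases (Q.filter fun x => S x = S x0).eq_empty_or_nonempty with h | ⟨x1, hx1⟩
  · rw [h]; simp only [card_empty, Nat.cast_zero]; positivity
  have hx1' := mem_filter.1 hx1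
  have hpos : 0 ≤ θ * M / K := le_trans (by positivity) (hQ x1 hx1'.1)
  have h7 : ((Q.filter fun x => S x = S x0).card : ℝ) ≤ K * (θ * M / K) := by
    refine card_le_of_fib _ ((P.filter fun y => S y = S x0).image s) s ?_ hpos (hKc x0 hx0) ?_
    · intro x hx
      rw [mem_filter] at hx
      exact mem_image_of_mem _ (mem_filter.2 ⟨hQP hx.1, hx.2⟩)
    · intro b hb
      rcases (((Q.filter fun x => S x = S x0).filter fun x => s x = b)).eq_empty_or_nonempty
        with h | ⟨x, hx⟩
      · rw [h]; simpa using hpos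
      · rw [mem_filter, mem_filter] at hx
        obtain ⟨⟨hxQ, hxS⟩, hxb⟩ := hx
        refine le_trans ?_ (hQ x hxQ)
        norm_cast
        refine card_le_card ?_
        intro y hy
        rw [mem_filter, mem_filter] at hy
        exact mem_filter.2 ⟨hy.1.1, hy.1.2.trans hxS.symm, hy.2.trans hxb.symm⟩
  refine h7.trans ?_
  rw [mul_div_cancel₀ _ hK.ne']
  exact mul_le_mul_of_nonneg_left (hM x0 hx0) hθ

/-- algebra of `deep_count` -/
theorem deep_alg {M1 M2 K1 K2 s0 D a b : ℝ} (hK1 : 0 < K1) (hK2 : 0 < K2) (hs0 : 0 ≤ s0)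
    (hM2 : 0 ≤ M2) (ha : 1 / 4 * M1 / K1 ≤ a) (hab : a ≤ b * s0)
    (hb : b * (1 / 4 * M2 / K2) ≤ D) : M1 * M2 ≤ 16 * K1 * K2 * s0 * D := by
  have h1 : M1 ≤ 4 * K1 * (b * s0) := by
    have h2 := ha.trans hab
    have e : 1 / 4 * M1 / K1 = M1 / (4 * K1) := by field_simp
    rw [e, div_le_iff₀ (by positivity)] at h2
    linarith
  have h3 : b * M2 ≤ 4 * K2 * D := by
    have h4 : b * (1 / 4 * M2 / K2) = b * M2 / (4 * K2) := by field_simp
    rw [h4, div_le_iff₀ (by positivity)] at hb
    linarith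
  calc M1 * M2 ≤ 4 * K1 * (b * s0) * M2 := mul_le_mul_of_nonneg_right h1 hM2
    _ = 4 * K1 * s0 * (b * M2) := by ring
    _ ≤ 4 * K1 * s0 * (4 * K2 * D) := mul_le_mul_of_nonneg_left h3 (by positivity)
    _ = 16 * K1 * K2 * s0 * D := by ring

/-- a popular box: if `G` is at least half of `P`, some box contains more than `M / (4 K)` elements
of `G`. -/
theorem exists_popular {X β γ : Type*} [DecidableEq β] [DecidableEq γ] (P G : Finset X) (hGP : G ⊆ P)
    (S : X → γ) (s : X → β) {M K : ℝ} (hK : 0 < K) (hP : P.Nonempty)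
    (hG : (P.card : ℝ) ≤ 2 * (G.card : ℝ))
    (hM : ∀ x ∈ P, M ≤ ((P.filter fun y => S y = S x).card : ℝ))
    (hKc : ∀ x ∈ P, (((P.filter fun y => S y = S x).image s).card : ℝ) ≤ K) :
    ∃ x ∈ G, 1 / 4 * M / K ≤ ((G.filter fun y => S y = S x ∧ s y = s x).card : ℝ) := by
  by_contra hcon
  push Not at hcon
  have h1 := card_sparse P G hGP S s hK (by norm_num : (0:ℝ) ≤ 1 / 4) hM hKc
    (fun x hx => (hcon x hx).le)
  have hPpos : (0 : ℝ) < (P.card : ℝ) := by exact_mod_cast card_pos.2 hP
  linarith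

/-- disjoint classes inside a set -/
theorem classes_le {X δ : Type*} [DecidableEq X] [DecidableEq δ] (Z : Finset X) (T : Finset δ)
    (C : X → δ) {m : ℝ} (h : ∀ c ∈ T, m ≤ ((Z.filter fun z => C z = c).card : ℝ)) :
    (T.card : ℝ) * m ≤ (Z.card : ℝ) := by
  have h1 : (∑ c ∈ T, ((Z.filter fun z => C z = c).card : ℝ)) ≤ (Z.card : ℝ) := by
    have h2 : (∑ c ∈ T, (Z.filter fun z => C z = c).card) ≤ Z.card := by
      rw [← card_biUnion]
      · refine card_le_card ?_
        intro z hz
        rw [mem_biUnion] at hz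
        obtain ⟨c, -, hz⟩ := hz
        exact (mem_filter.1 hz).1
      · intro c _ c' _ hcc
        rw [Function.onFun, disjoint_left]
        intro z hz hz'
        exact hcc ((mem_filter.1 hz).2.symm.trans (mem_filter.1 hz').2)
    exact_mod_cast h2
  refine le_trans ?_ h1
  have h3 : (T.card : ℝ) * m = ∑ c ∈ T, m := by rw [sum_const, nsmul_eq_mul]
  rw [h3]
  exact sum_le_sum h

/-- **Deep counting.** -/
theorem deep_count {X β γ δ β' : Type*} [DecidableEq X] [DecidableEq β] [DecidableEq γ]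
    [DecidableEq δ] [DecidableEq β']
    (P Bad : Finset X) (S : X → γ) (s : X → β) (C : X → δ) (t : X → β')
    {M1 M2 K1 K2 s0 D : ℝ} (hK1 : 0 < K1) (hK2 : 0 < K2) (hs0 : 0 ≤ s0) (hM2 : 0 ≤ M2)
    (hP : P.Nonempty) (hBad : (Bad.card : ℝ) * 4 ≤ (P.card : ℝ))
    -- first classes: many lines, few boxes
    (hM1 : ∀ x ∈ P, M1 ≤ ((P.filter fun y => S y = S x).card : ℝ))
    (hKc1 : ∀ x ∈ P, (((P.filter fun y => S y = S x).image s).card : ℝ) ≤ K1)
    -- second classes: many lines, few boxes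
    (hMc2 : ∀ x ∈ P, M2 ≤ ((P.filter fun y => C y = C x).card : ℝ))
    (hKc2 : ∀ x ∈ P, (((P.filter fun y => C y = C x).image t).card : ℝ) ≤ K2)
    -- capture: a second class contains at most `s0` elements of a box of a first class
    (cap : ∀ x ∈ P, x ∉ Bad →
      (((P.filter fun y => (S y = S x ∧ s y = s x) ∧ C y = C x).card : ℝ)) ≤ s0)
    -- the boxes of second classes through one box of a first class
    (coin : ∀ x ∈ P,
      (((P.filter fun z => ∃ y ∈ P, (S y = S x ∧ s y = s x) ∧ C z = C y ∧ t z = t y).card : ℝ)) ≤ D) :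
    M1 * M2 ≤ 16 * K1 * K2 * s0 * D := by
  classical
  -- incidences in unpopular `t`-boxes
  set U2 := P.filter fun x => ((P.filter fun y => C y = C x ∧ t y = t x).card : ℝ) ≤ 1 / 4 * M2 / K2
    with hU2
  have hu2 : (U2.card : ℝ) ≤ 1 / 4 * (P.card : ℝ) := by
    refine card_sparse P U2 (filter_subset _ _) C t hK2 (by norm_num) hMc2 hKc2 ?_
    intro x hx
    refine le_trans ?_ (mem_filter.1 hx).2
    exact_mod_cast card_le_card (filter_subset_filter _ (filter_subset _ _))
  set G := P.filter fun x => x ∉ Bad ∧ x ∉ U2 with hG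
  have hGc : (P.card : ℝ) ≤ 2 * (G.card : ℝ) := by
    have h1 : P ⊆ G ∪ (Bad ∪ U2) := by
      intro x hx
      by_cases hb : x ∈ Bad
      · exact mem_union_right _ (mem_union_left _ hb)
      · by_cases hu : x ∈ U2
        · exact mem_union_right _ (mem_union_right _ hu)
        · exact mem_union_left _ (mem_filter.2 ⟨hx, hb, hu⟩)
    have h3 := card_le_card h1
    have h4 := card_union_le G (Bad ∪ U2)
    have h5 := card_union_le Bad U2
    have h2 : (P.card : ℝ) ≤ (G.card : ℝ) + ((Bad.card : ℝ) + (U2.card : ℝ)) := by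
      exact_mod_cast h3.trans (h4.trans (by omega))
    linarith
  obtain ⟨x, hxG, hxm⟩ := exists_popular P G (filter_subset _ _) S s hK1 hP hGc hM1 hKc1
  have hx : x ∈ P := (mem_filter.1 hxG).1
  set Gx := G.filter fun y => S y = S x ∧ s y = s x with hGx
  have hGxP : ∀ y ∈ Gx, y ∈ P ∧ y ∉ Bad ∧ y ∉ U2 ∧ S y = S x ∧ s y = s x := by
    intro y hy
    rw [hGx, mem_filter, hG, mem_filter] at hy
    exact ⟨hy.1.1, hy.1.2.1, hy.1.2.2, hy.2.1, hy.2.2⟩
  have hcl : (Gx.card : ℝ) ≤ ((Gx.image C).card : ℝ) * s0 := by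
    refine card_le_of_fib Gx (Gx.image C) C (fun y hy => mem_image_of_mem _ hy) hs0 le_rfl ?_
    intro c hc
    obtain ⟨y, hy, rfl⟩ := mem_image.1 hc
    obtain ⟨hyP, hyB, hyU, hyS, hys⟩ := hGxP y hy
    refine le_trans ?_ (cap y hyP hyB)
    norm_cast
    refine card_le_card ?_
    intro z hz
    rw [mem_filter] at hz
    obtain ⟨hzP, -, -, hzS, hzs⟩ := hGxP z hz.1
    exact mem_filter.2 ⟨hzP, ⟨hzS.trans hyS.symm, hzs.trans hys.symm⟩, hz.2⟩
  have hbig : ((Gx.image C).card : ℝ) * (1 / 4 * M2 / K2) ≤ D := by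
    refine le_trans (classes_le _ _ C ?_) (coin x hx)
    intro c hc
    obtain ⟨y, hy, rfl⟩ := mem_image.1 hc
    obtain ⟨hyP, hyB, hyU, hyS, hys⟩ := hGxP y hy
    have h4 : 1 / 4 * M2 / K2 ≤ ((P.filter fun z => C z = C y ∧ t z = t y).card : ℝ) := by
      by_contra h5
      push Not at h5
      exact hyU (mem_filter.2 ⟨hyP, h5.le⟩)
    refine h4.trans ?_
    norm_cast
    refine card_le_card ?_
    intro z hz
    rw [mem_filter] at hz
    exact mem_filter.2 ⟨mem_filter.2 ⟨hz.1, y, hyP, ⟨hyS, hys⟩, hz.2.1, hz.2.2⟩, hz.2.1⟩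
  exact deep_alg hK1 hK2 hs0 hM2 hxm hcl hbig

end Crest.Agent.R136.Deep51
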