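import Mathlib

/-!
# R136 (U4 / PLAN 2): two-sided capacity of a test sheet against a mark (helper248)

`ph m p r = max (r ^ (1 + m)) (r ^ (1 + p))` : for `m ≤ p` it is `r ^ (1 + m)` for `r ≤ 1` (narrower
test) and `r ^ (1 + p)` for `1 ≤ r` (wider test).
`phC qm qp a w1 w2 a' w1' w2'` : product of the three factors, shape `(a', w2', w1')` against the
mark `(a, w2, w1)`. In the linear case `qm = qp = q` it is the ratio of the capacities.
The record literals `Ex2`, `DAll` are in `DAl_879`, `TwoS` in `Dd1_325`.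
-/

set_option autoImplicit false

namespace Crest.Agent.R136.Phc248

open Real

/-- one-coordinate capacity factor, `m` = slope for narrower, `p` = slope for wider tests -/
noncomputable def ph (m p r : ℝ) : ℝ := max (r ^ (1 + m)) (r ^ (1 + p))

/-- capacity of the shape `(a', w2', w1')` against `(a, w2, w1)` -/
noncomputable def phC (qm qp : Fin 3 → ℝ) (a w1 w2 a' w1' w2' : ℝ) : ℝ :=
  ph (qm 0) (qp 0) (a' / a) * ph (qm 1) (qp 1) (w1' / w1) * ph (qm 2) (qp 2) (w2' / w2)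

variable {m p r s C : ℝ}

theorem ph_ge_m (m p r : ℝ) : r ^ (1 + m) ≤ ph m p r := le_max_left _ _

theorem ph_ge_p (m p r : ℝ) : r ^ (1 + p) ≤ ph m p r := le_max_right _ _

theorem ph_le_one (hm : 0 ≤ m) (hmp : m ≤ p) (h0 : 0 ≤ r) (h : r ≤ 1) :
    ph m p r = r ^ (1 + m) := by
  unfold ph
  apply max_eq_left
  rcases h0.eq_or_lt with h1 | h1
  · rw [← h1, zero_rpow (by linarith), zero_rpow (by linarith)]
  · exact rpow_le_rpow_of_exponent_ge h1 h (by linarith)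

theorem ph_ge_one (hmp : m ≤ p) (h : 1 ≤ r) : ph m p r = r ^ (1 + p) := by
  unfold ph
  exact max_eq_right (rpow_le_rpow_of_exponent_le h (by linarith))

theorem ph_one : ph m p 1 = 1 := by simp [ph]

theorem ph_pos (hr : 0 < r) : 0 < ph m p r := lt_max_of_lt_left (by positivity)

theorem ph_nonneg (hr : 0 ≤ r) : 0 ≤ ph m p r := le_max_of_le_left (by positivity)

theorem ph_self (m r : ℝ) : ph m m r = r ^ (1 + m) := by simp [ph]

theorem ph_mono (hm : 0 ≤ m) (hp : 0 ≤ p) (hr : 0 ≤ r) (h : r ≤ s) : ph m p r ≤ ph m p s :=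
  max_le_max (rpow_le_rpow hr h (by linarith)) (rpow_le_rpow hr h (by linarith))

/-- a narrower test -/
theorem ph_le_narrow (hm : 0 ≤ m) (hmp : m ≤ p) (hr : 0 ≤ r) (h : r ≤ s) (hs : s ≤ 1) :
    ph m p r ≤ s ^ (1 + m) := by
  rw [ph_le_one hm hmp hr (h.trans hs)]
  exact rpow_le_rpow hr h (by linarith)

/-- a wider test -/
theorem ph_le_wide (hm : 0 ≤ m) (hmp : m ≤ p) (hr : 0 ≤ r) (h : r ≤ s) (hs : 1 ≤ s) :
    ph m p r ≤ s ^ (1 + p) := by
  rw [← ph_ge_one hmp hs]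
  exact ph_mono hm (hm.trans hmp) hr h

/-- dilations -/
theorem ph_mul (hm : 0 ≤ m) (hmp : m ≤ p) (hr : 0 ≤ r) (hC : 1 ≤ C) :
    ph m p (C * r) ≤ C ^ (1 + p) * ph m p r := by
  have c0 : 0 ≤ C := by linarith
  unfold ph
  rw [mul_rpow c0 hr, mul_rpow c0 hr]
  refine max_le ?_ ?_
  · exact mul_le_mul (rpow_le_rpow_of_exponent_le hC (by linarith)) (le_max_left _ _)
      (rpow_nonneg hr _) (rpow_nonneg c0 _)
  · exact mul_le_mul_of_nonneg_left (le_max_right _ _) (rpow_nonneg c0 _)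

/-- the factor in logarithmic form, `x = -log₂ r` -/
theorem ph_two (hmp : m ≤ p) (hm : 0 ≤ m) (x : ℝ) :
    ph m p (2 ^ (-x)) = 2 ^ (-x - (m * max x 0 - p * max (-x) 0)) := by
  have l2 : (1:ℝ) < 2 := one_lt_two
  rcases le_total 0 x with h | h
  · have h1 : (2:ℝ) ^ (-x) ≤ 1 := by
      rw [← rpow_zero (2:ℝ)]
      exact rpow_le_rpow_of_exponent_le l2.le (by linarith)
    rw [ph_le_one hm hmp (by positivity) h1, max_eq_left h, max_eq_right (by linarith : -x ≤ 0),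
      ← rpow_mul (by norm_num : (0:ℝ) ≤ 2)]
    congr 1; ring
  · have h1 : 1 ≤ (2:ℝ) ^ (-x) := by
      rw [← rpow_zero (2:ℝ)]
      exact rpow_le_rpow_of_exponent_le l2.le (by linarith)
    rw [ph_ge_one hmp h1, max_eq_right h, max_eq_left (by linarith : 0 ≤ -x),
      ← rpow_mul (by norm_num : (0:ℝ) ≤ 2)]
    congr 1; ring

section cap

variable {qm qp : Fin 3 → ℝ} {a w1 w2 a' w1' w2' a'' w1'' w2'' : ℝ}

theorem phC_self (q : Fin 3 → ℝ) : phC q q a w1 w2 a' w1' w2' =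
    (a' / a) ^ (1 + q 0) * (w1' / w1) ^ (1 + q 1) * (w2' / w2) ^ (1 + q 2) := by
  unfold phC; rw [ph_self, ph_self, ph_self]

theorem phC_nonneg (ha : 0 ≤ a) (h1 : 0 ≤ w1) (h2 : 0 ≤ w2) (ha' : 0 ≤ a') (h1' : 0 ≤ w1')
    (h2' : 0 ≤ w2') : 0 ≤ phC qm qp a w1 w2 a' w1' w2' := by
  unfold phC
  have e0 := ph_nonneg (m := qm 0) (p := qp 0) (div_nonneg ha' ha)
  have e1 := ph_nonneg (m := qm 1) (p := qp 1) (div_nonneg h1' h1)
  have e2 := ph_nonneg (m := qm 2) (p := qp 2) (div_nonneg h2' h2)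
  positivity

theorem phC_pos (ha : 0 < a) (h1 : 0 < w1) (h2 : 0 < w2) (ha' : 0 < a') (h1' : 0 < w1')
    (h2' : 0 < w2') : 0 < phC qm qp a w1 w2 a' w1' w2' := by
  unfold phC
  have e0 := ph_pos (m := qm 0) (p := qp 0) (div_pos ha' ha)
  have e1 := ph_pos (m := qm 1) (p := qp 1) (div_pos h1' h1)
  have e2 := ph_pos (m := qm 2) (p := qp 2) (div_pos h2' h2)
  positivity

/-- monotone in the test shape -/
theorem phC_mono (hm : ∀ k, 0 ≤ qm k) (hp : ∀ k, 0 ≤ qp k) (ha : 0 ≤ a) (h1 : 0 ≤ w1)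
    (h2 : 0 ≤ w2) (ha' : 0 ≤ a') (h1' : 0 ≤ w1') (h2' : 0 ≤ w2')
    (ea : a' ≤ a'') (e1 : w1' ≤ w1'') (e2 : w2' ≤ w2'') :
    phC qm qp a w1 w2 a' w1' w2' ≤ phC qm qp a w1 w2 a'' w1'' w2'' := by
  unfold phC
  have f0 := ph_mono (hm 0) (hp 0) (div_nonneg ha' ha) (div_le_div_of_nonneg_right ea ha)
  have f1 := ph_mono (hm 1) (hp 1) (div_nonneg h1' h1) (div_le_div_of_nonneg_right e1 h1)
  have f2 := ph_mono (hm 2) (hp 2) (div_nonneg h2' h2) (div_le_div_of_nonneg_right e2 h2)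
  have g0 := ph_nonneg (m := qm 0) (p := qp 0) (div_nonneg ha' ha)
  have g1 := ph_nonneg (m := qm 1) (p := qp 1) (div_nonneg h1' h1)
  have g2 := ph_nonneg (m := qm 2) (p := qp 2) (div_nonneg h2' h2)
  have g0' := g0.trans f0
  have g1' := g1.trans f1
  exact mul_le_mul (mul_le_mul f0 f1 g1 g0') f2 g2 (mul_nonneg g0' g1')

/-- dilation of the test shape by constants `≥ 1` -/
theorem phC_mul {C0 C1 C2 : ℝ} (hm : ∀ k, 0 ≤ qm k) (hmp : ∀ k, qm k ≤ qp k) (ha : 0 ≤ a)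
    (h1 : 0 ≤ w1) (h2 : 0 ≤ w2) (ha' : 0 ≤ a') (h1' : 0 ≤ w1') (h2' : 0 ≤ w2')
    (hC0 : 1 ≤ C0) (hC1 : 1 ≤ C1) (hC2 : 1 ≤ C2) :
    phC qm qp a w1 w2 (C0 * a') (C1 * w1') (C2 * w2') ≤
      C0 ^ (1 + qp 0) * C1 ^ (1 + qp 1) * C2 ^ (1 + qp 2) * phC qm qp a w1 w2 a' w1' w2' := by
  unfold phC
  rw [mul_div_assoc, mul_div_assoc, mul_div_assoc]
  have f0 := ph_mul (hm 0) (hmp 0) (div_nonneg ha' ha) hC0
  have f1 := ph_mul (hm 1) (hmp 1) (div_nonneg h1' h1) hC1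
  have f2 := ph_mul (hm 2) (hmp 2) (div_nonneg h2' h2) hC2
  have c0 : 0 ≤ C0 := by linarith
  have c1 : 0 ≤ C1 := by linarith
  have c2 : 0 ≤ C2 := by linarith
  have g0 := ph_nonneg (m := qm 0) (p := qp 0) (div_nonneg ha' ha)
  have g1 := ph_nonneg (m := qm 1) (p := qp 1) (div_nonneg h1' h1)
  have g2 := ph_nonneg (m := qm 2) (p := qp 2) (div_nonneg h2' h2)
  have k1 := ph_nonneg (m := qm 1) (p := qp 1) (mul_nonneg c1 (div_nonneg h1' h1))
  have k2 := ph_nonneg (m := qm 2) (p := qp 2) (mul_nonneg c2 (div_nonneg h2' h2))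
  calc _ ≤ (C0 ^ (1 + qp 0) * ph (qm 0) (qp 0) (a' / a)) *
        (C1 ^ (1 + qp 1) * ph (qm 1) (qp 1) (w1' / w1)) *
        (C2 ^ (1 + qp 2) * ph (qm 2) (qp 2) (w2' / w2)) := by
        refine mul_le_mul (mul_le_mul f0 f1 k1 (by positivity)) f2 k2 (by positivity)
    _ = _ := by ring

/-- change of the reference shape by constants -/
theorem phC_ref {C : ℝ} (hm : ∀ k, 0 ≤ qm k) (hmp : ∀ k, qm k ≤ qp k) (ha : 0 < a)
    (h1 : 0 < w1) (h2 : 0 < w2) (hC : 1 ≤ C) (ha' : 0 ≤ a') (h1' : 0 ≤ w1') (h2' : 0 ≤ w2')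
    (ha'' : 0 < a'') (h1'' : 0 < w1'') (h2'' : 0 < w2'')
    (ea : a ≤ C * a'') (e1 : w1 ≤ C * w1'') (e2 : w2 ≤ C * w2'') :
    phC qm qp a'' w1'' w2'' a' w1' w2' ≤
      C ^ (1 + qp 0) * C ^ (1 + qp 1) * C ^ (1 + qp 2) * phC qm qp a w1 w2 a' w1' w2' := by
  have hp : ∀ k, 0 ≤ qp k := fun k => (hm k).trans (hmp k)
  have c0 : 0 < C := by linarith
  refine le_trans ?_ (phC_mul hm hmp ha.le h1.le h2.le ha' h1' h2' hC hC hC)
  unfold phC
  have f0 := ph_mono (hm 0) (hp 0) (div_nonneg ha' ha''.le)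
    (show a' / a'' ≤ C * a' / a by
      rw [div_le_div_iff₀ ha'' ha]; nlinarith)
  have f1 := ph_mono (hm 1) (hp 1) (div_nonneg h1' h1''.le)
    (show w1' / w1'' ≤ C * w1' / w1 by
      rw [div_le_div_iff₀ h1'' h1]; nlinarith)
  have f2 := ph_mono (hm 2) (hp 2) (div_nonneg h2' h2''.le)
    (show w2' / w2'' ≤ C * w2' / w2 by
      rw [div_le_div_iff₀ h2'' h2]; nlinarith)
  have g0 := ph_nonneg (m := qm 0) (p := qp 0) (div_nonneg ha' ha''.le)
  have g1 := ph_nonneg (m := qm 1) (p := qp 1) (div_nonneg h1' h1''.le)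
  have g2 := ph_nonneg (m := qm 2) (p := qp 2) (div_nonneg h2' h2''.le)
  have g0' := g0.trans f0
  have g1' := g1.trans f1
  exact mul_le_mul (mul_le_mul f0 f1 g1 g0') f2 g2 (mul_nonneg g0' g1')

end cap

end Crest.Agent.R136.Phc248
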