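import Crest.Agent.R136.Sh1_605

/-!
# R136 (S0187): the official class of sheets `ShN` (class C*, helper605; helper321's version)

A sheet lives in a straight box `K_z` with orthonormal axes `e 0` (half-width `w 0`), `e 2`
(half-width `w 2 ≥ w 0`) and `e 1` (half-width `w 1 ≥ w 2`) around a line `c`; `q` is quadratic and
on the doubled box `∂_{e 0} q ∈ [1/2, 2]`, `|∂_{e 2} q| ≤ w 0 / w 2`, `|∂_{e 1} q| ≤ w 0 / w 1`.
`ShN0` = the subclass `w 0 = w 2` (cigars).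
-/

set_option autoImplicit false
set_option linter.unusedVariables false

namespace Crest.Agent.R136.Sh605

open Finset

/-- the doubled box -/
def dbl3 (w : V3) : V3 := fun i => 2 * w i

/-- the class of cigars (the old class C\*): `w 0 = w 2` -/
structure ShN0 (e : Fin 3 → V3) (c : Ln4) (w : V3) (q : ℝ → V3 → ℝ) (a z0 ρ r0 : ℝ) : Prop where
  ortho : Ortho e
  isQ : IsQ q
  w0_eq : w 0 = w 2
  a_le : a ≤ w 2
  w_le : w 2 ≤ w 1
  r0_le : r0 ≤ a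
  st0 : ∀ z, z0 ≤ z → z ≤ z0 + ρ → ∀ (x : V3) (τ : ℝ), 0 ≤ τ → InK e c (dbl3 w) z x →
    InK e c (dbl3 w) z (x + τ • e 0) →
      τ / 2 ≤ q z (x + τ • e 0) - q z x ∧ q z (x + τ • e 0) - q z x ≤ 2 * τ
  st1 : ∀ z, z0 ≤ z → z ≤ z0 + ρ → ∀ (x : V3) (τ : ℝ), 0 ≤ τ → InK e c (dbl3 w) z x →
    InK e c (dbl3 w) z (x + τ • e 1) → |q z (x + τ • e 1) - q z x| ≤ w 2 / w 1 * τ
  st2 : ∀ z, z0 ≤ z → z ≤ z0 + ρ → ∀ (x : V3) (τ : ℝ), 0 ≤ τ → InK e c (dbl3 w) z x →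
    InK e c (dbl3 w) z (x + τ • e 2) → |q z (x + τ • e 2) - q z x| ≤ τ

/-- **the class of sheets** (helper321): the half-width `w 0` along the normal axis is free,
`a ≤ w 0 ≤ w 2 ≤ w 1`, and the slopes of `q` are at most `w 0 / w 1`, `w 0 / w 2`: the function
`q / w 0` is bounded in the coordinates of the plank. -/
structure ShN (e : Fin 3 → V3) (c : Ln4) (w : V3) (q : ℝ → V3 → ℝ) (a z0 ρ r0 : ℝ) : Prop where
  ortho : Ortho e
  isQ : IsQ q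
  a_le0 : a ≤ w 0
  w0_le : w 0 ≤ w 2
  w_le : w 2 ≤ w 1
  r0_le : r0 ≤ a
  st0 : ∀ z, z0 ≤ z → z ≤ z0 + ρ → ∀ (x : V3) (τ : ℝ), 0 ≤ τ → InK e c (dbl3 w) z x →
    InK e c (dbl3 w) z (x + τ • e 0) →
      τ / 2 ≤ q z (x + τ • e 0) - q z x ∧ q z (x + τ • e 0) - q z x ≤ 2 * τ
  sl1 : ∀ z, z0 ≤ z → z ≤ z0 + ρ → ∀ (x : V3) (τ : ℝ), 0 ≤ τ → InK e c (dbl3 w) z x →
    InK e c (dbl3 w) z (x + τ • e 1) → |q z (x + τ • e 1) - q z x| ≤ w 0 / w 1 * τ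
  sl2 : ∀ z, z0 ≤ z → z ≤ z0 + ρ → ∀ (x : V3) (τ : ℝ), 0 ≤ τ → InK e c (dbl3 w) z x →
    InK e c (dbl3 w) z (x + τ • e 2) → |q z (x + τ • e 2) - q z x| ≤ w 0 / w 2 * τ

section
variable {e : Fin 3 → V3} {c : Ln4} {w : V3} {q : ℝ → V3 → ℝ} {a z0 ρ r0 : ℝ}

theorem ShN.a_le (h : ShN e c w q a z0 ρ r0) : a ≤ w 2 := h.a_le0.trans h.w0_le

theorem ShN.st1 (h : ShN e c w q a z0 ρ r0) : ∀ z, z0 ≤ z → z ≤ z0 + ρ → ∀ (x : V3) (τ : ℝ),
    0 ≤ τ → InK e c (dbl3 w) z x → InK e c (dbl3 w) z (x + τ • e 1) →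
      |q z (x + τ • e 1) - q z x| ≤ w 2 / w 1 * τ := by
  intro z hz hz' x τ hτ h1 h2
  refine (h.sl1 z hz hz' x τ hτ h1 h2).trans ?_
  have h3 : 0 ≤ dbl3 w 1 := (abs_nonneg _).trans (h1 1)
  have h4 : 0 ≤ w 1 := by simp only [dbl3] at h3; linarith
  exact mul_le_mul_of_nonneg_right (div_le_div_of_nonneg_right h.w0_le h4) hτ

theorem ShN.st2 (h : ShN e c w q a z0 ρ r0) : ∀ z, z0 ≤ z → z ≤ z0 + ρ → ∀ (x : V3) (τ : ℝ),
    0 ≤ τ → InK e c (dbl3 w) z x → InK e c (dbl3 w) z (x + τ • e 2) →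
      |q z (x + τ • e 2) - q z x| ≤ τ := by
  intro z hz hz' x τ hτ h1 h2
  refine (h.sl2 z hz hz' x τ hτ h1 h2).trans ?_
  have h3 : 0 ≤ dbl3 w 2 := (abs_nonneg _).trans (h1 2)
  have h4 : 0 ≤ w 2 := by simp only [dbl3] at h3; linarith
  have h5 : w 0 / w 2 ≤ 1 := div_le_one_of_le₀ h.w0_le h4
  calc w 0 / w 2 * τ ≤ 1 * τ := mul_le_mul_of_nonneg_right h5 hτ
    _ = τ := one_mul τ

theorem ortho_self_aux (he : Ortho e) (i : Fin 3) : dt (e i) (e i) = 1 := by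
  have := he i i
  simpa using this

/-- every cigar is a sheet of the class -/
theorem ShN0.toN (h : ShN0 e c w q a z0 ρ r0) : ShN e c w q a z0 ρ r0 where
  ortho := h.ortho
  isQ := h.isQ
  a_le0 := by rw [h.w0_eq]; exact h.a_le
  w0_le := h.w0_eq.le
  w_le := h.w_le
  r0_le := h.r0_le
  st0 := h.st0
  sl1 := by
    intro z hz hz' x τ hτ h1 h2
    rw [h.w0_eq]
    exact h.st1 z hz hz' x τ hτ h1 h2
  sl2 := by
    intro z hz hz' x τ hτ h1 h2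
    have h3 : 0 ≤ dbl3 w 2 := (abs_nonneg _).trans (h1 2)
    have h4 : 0 ≤ w 2 := by simp only [dbl3] at h3; linarith
    rcases h4.eq_or_lt with h5 | h5
    · have k1 := h1 2
      have k2 := h2 2
      have k3 : dt (e 2) (x + τ • e 2 - c.pos z) = dt (e 2) (x - c.pos z) + τ := by
        have : x + τ • e 2 - c.pos z = (x - c.pos z) + τ • e 2 := by
          funext i; simp only [Pi.sub_apply, Pi.add_apply]; ring
        rw [this, dt_add, dt_smul, ortho_self_aux h.ortho 2, mul_one]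
      simp only [dbl3, ← h5, mul_zero] at k1 k2
      have k1' := abs_nonpos_iff.1 k1
      have k2' := abs_nonpos_iff.1 k2
      have k4 : τ = 0 := by linarith [k3, k1', k2']
      subst k4
      simp
    · rw [h.w0_eq, div_self h5.ne', one_mul]
      exact h.st2 z hz hz' x τ hτ h1 h2

end

open Classical in
/-- **D-max for the class C\***, reward `R a (w 2) (w 1)` -/
def DMaxN {ι : Type} (A : Finset ι) (L : ι → Ln4) (z0 ρ D : ℝ) (R : ℝ → ℝ → ℝ → ℝ)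
    (r0 wmax : ℝ) : Prop :=
  ∀ (e : Fin 3 → V3) (c : Ln4) (w : V3) (q : ℝ → V3 → ℝ) (a : ℝ), ShN e c w q a z0 ρ r0 →
    w 1 ≤ wmax →
    ((A.filter fun t => InSheet (L t) e c w q a z0 ρ).card : ℝ) ≤
      D * (a * w 2 * w 1 * R a (w 2) (w 1))

end Crest.Agent.R136.Sh605
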