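import Mathlib
import Crest.Agent.R136.Sh6_605
import Crest.Agent.R136.KDef4_879
import Crest.Agent.R138.MkRef_627
import Crest.Agent.R136.Phc_248

/-!
# R136 (S0187), U4: D-max at the marked levels with two-sided exponents (helper879)

* `Ex2 η qm qp` : the two-sided exponents (narrower tests `qm`, wider tests `qp`).
* `DAll` : D-max for ALL sheets (no range) at the marked levels, against the shape of the marks.
-/

set_option autoImplicit false
set_option linter.unusedVariables false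

open Finset Filter Topology

namespace Crest.Agent.R136.DAl879

open Crest.Agent.R138.Ex926 (Base U)
open Crest.Agent.R138.Mk163 (zc zl rho alive)
open Crest.Agent.R136.Sh605 Crest.Agent.R136.K4
open Crest.Agent.R136.Phc248 (ph phC)

/-- **two-sided exponents**: `qm k` for tests narrower than the mark, `qp k` for wider ones
(`0` = thickness, `1` = wide, `2` = narrow). -/
structure Ex2 (η : ℝ) (qm qp : Fin 3 → ℝ) : Prop where
  le : ∀ k, 0 ≤ qm k ∧ qm k ≤ qp k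
  pos : 0 < qm 2
  e02 : 2 * qp 0 ≤ qm 2
  e1 : 8 * (qp 2 + qp 0) ≤ qm 1
  e00 : qp 0 ≤ η * qm 2 ^ 2
  e21 : qp 2 ≤ η * qm 1

/-- size of a mark of level `v` (without the amplitude), in units of the cell -/
noncomputable def vmk (q : Fin 3 → ℝ) (ρ a w1 w2 : ℝ) : ℝ :=
  a * w2 * w1 * ((a / ρ) ^ q 0 * (w1 / ρ) ^ q 1 * (w2 / ρ) ^ q 2)

open Classical in
/-- **(DD)** (helper248): D-max at the marked levels for ALL sheets, two-sided exponents. -/
def DAll (B : Base) (I : ℕ → Finset (ℕ × ℝ)) (L : ℕ → ℕ → Ln4) (lev : ℕ → ℚ → ℕ) (A : ℕ → ℝ)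
    (g : ℝ) (q : Fin 3 → ℝ) (r0 : ℕ → ℝ) (w : Fin 3 → ℕ → ℚ → ℝ) (qm qp : Fin 3 → ℝ) : Prop :=
  ∀ v : ℚ, 0 ≤ v → v ≤ 1 → ∀ ε : ℝ, 0 < ε → ∀ᶠ n in (U : Filter ℕ), ∀ (j : ℤ) (s : Plk4),
    ShN s.e s.c s.w s.q s.a (zl (lev n v) j) (rho (lev n v)) (r0 n) → s.w 1 ≤ rho (lev n v) →
    (((alive (I n) (lev n v) j).filter fun t =>
        InSheet (L n t) s.e s.c s.w s.q s.a (zl (lev n v) j) (rho (lev n v))).card : ℝ) ≤
      B.d n ^ (-ε) * (A n * B.d n ^ (-(g * v)) *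
          vmk q (rho (lev n v)) (w 0 n v) (w 1 n v) (w 2 n v)) *
        phC qm qp (w 0 n v) (w 1 n v) (w 2 n v) s.a (s.w 1) (s.w 2)

variable {B : Base} {I I' : ℕ → Finset (ℕ × ℝ)} {L : ℕ → ℕ → Ln4} {lev : ℕ → ℚ → ℕ} {A : ℕ → ℝ}
    {g : ℝ} {q : Fin 3 → ℝ} {r0 : ℕ → ℝ} {w : Fin 3 → ℕ → ℚ → ℝ} {qm qp : Fin 3 → ℝ}

/-- `DAll` passes to parts. -/
theorem DAll.sub (h : DAll B I L lev A g q r0 w qm qp) (hI : ∀ n, I' n ⊆ I n) :
    DAll B I' L lev A g q r0 w qm qp := by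
  classical
  intro v h0 h1 ε hε
  filter_upwards [h v h0 h1 ε hε] with n hn j s hs hw
  refine le_trans (Nat.cast_le.2 (card_le_card fun t ht => ?_)) (hn j s hs hw)
  rw [mem_filter] at ht ⊢
  exact ⟨Crest.Agent.R138.MkRef627.alive_mono (hI n) _ _ ht.1, ht.2⟩

theorem Ex2.mono {η η' : ℝ} (h : Ex2 η qm qp) (hη : η ≤ η') : Ex2 η' qm qp :=
  ⟨h.le, h.pos, h.e02, h.e1,
    h.e00.trans (mul_le_mul_of_nonneg_right hη (by positivity)),
    h.e21.trans (mul_le_mul_of_nonneg_right hη (h.le 1).1)⟩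

end Crest.Agent.R136.DAl879
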