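import Mathlib
import Crest.Agent.R136.DAl_879

/-!
# R136 (S0187), U4: two-sided D-max `k` levels below the marked levels (helper879, text of 685)

* `DAllK k` : for every marked level `v` and every loss, a part `P` of the objects of level
  `lev n v + k` which contains one sub-cell for every incidence and on which the D-max bound of `DAll`
  holds for all sheets over the sub-cells.
-/

set_option autoImplicit false
set_option linter.unusedVariables false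

open Finset Filter Topology

namespace Crest.Agent.R136.DAl879

open Crest.Agent.R138.Ex926 (Base U)
open Crest.Agent.R138.Mk163 (zc zl rho alive)
open Crest.Agent.R136.Sh605 Crest.Agent.R136.K4
open Crest.Agent.R136.Phc248 (ph phC)

open Classical in
/-- **(DD), `k` levels below the marks** (helper685). -/
def DAllK (k : ℕ) (B : Base) (I : ℕ → Finset (ℕ × ℝ)) (L : ℕ → ℕ → Ln4) (lev : ℕ → ℚ → ℕ)
    (A : ℕ → ℝ) (g : ℝ) (q : Fin 3 → ℝ) (r0 : ℕ → ℝ) (w : Fin 3 → ℕ → ℚ → ℝ)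
    (qm qp : Fin 3 → ℝ) : Prop :=
  ∀ v : ℚ, 0 ≤ v → v ≤ 1 → ∀ ε : ℝ, 0 < ε → ∃ P : ℕ → Finset (ℕ × ℤ),
    (∀ᶠ n in (U : Filter ℕ), ∀ x ∈ I n, ∃ j : ℤ, j / 2 ^ k = zc (lev n v) x.2 ∧
      (x.1, j) ∈ P n) ∧
    ∀ᶠ n in (U : Filter ℕ), ∀ (j : ℤ) (s : Plk4),
      ShN s.e s.c s.w s.q s.a (zl (lev n v + k) j) (rho (lev n v + k)) (r0 n) →
      s.w 1 ≤ rho (lev n v + k) →
      (((P n).filter fun o => o.2 = j ∧
          InSheet (L n o.1) s.e s.c s.w s.q s.a (zl (lev n v + k) j)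
            (rho (lev n v + k))).card : ℝ) ≤
        B.d n ^ (-ε) * (A n * B.d n ^ (-(g * v)) *
            vmk q (rho (lev n v)) (w 0 n v) (w 1 n v) (w 2 n v)) *
          phC qm qp (w 0 n v) (w 1 n v) (w 2 n v) s.a (s.w 1) (s.w 2)

variable {k : ℕ} {B : Base} {I I' : ℕ → Finset (ℕ × ℝ)} {L : ℕ → ℕ → Ln4} {lev : ℕ → ℚ → ℕ}
    {A : ℕ → ℝ} {g : ℝ} {q : Fin 3 → ℝ} {r0 : ℕ → ℝ} {w : Fin 3 → ℕ → ℚ → ℝ} {qm qp : Fin 3 → ℝ}

/-- `DAllK` passes to parts. -/
theorem DAllK.sub (h : DAllK k B I L lev A g q r0 w qm qp) (hI : ∀ n, I' n ⊆ I n) :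
    DAllK k B I' L lev A g q r0 w qm qp := by
  intro v h0 h1 ε hε
  obtain ⟨P, hP1, hP2⟩ := h v h0 h1 ε hε
  refine ⟨P, ?_, hP2⟩
  filter_upwards [hP1] with n hn x hx
  exact hn x (hI n hx)

/-- the same with eventual inclusion. -/
theorem DAllK.sub' (h : DAllK k B I L lev A g q r0 w qm qp)
    (hI : ∀ᶠ n in (U : Filter ℕ), I' n ⊆ I n) : DAllK k B I' L lev A g q r0 w qm qp := by
  intro v h0 h1 ε hε
  obtain ⟨P, hP1, hP2⟩ := h v h0 h1 ε hε
  refine ⟨P, ?_, hP2⟩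
  filter_upwards [hP1, hI] with n hn hi x hx
  exact hn x (hi hx)

/-- `DAll` with eventual inclusion. -/
theorem DAll.sub' (h : DAll B I L lev A g q r0 w qm qp)
    (hI : ∀ᶠ n in (U : Filter ℕ), I' n ⊆ I n) : DAll B I' L lev A g q r0 w qm qp := by
  classical
  intro v h0 h1 ε hε
  filter_upwards [h v h0 h1 ε hε, hI] with n hn hi j s hs hw
  refine le_trans (Nat.cast_le.2 (card_le_card fun t ht => ?_)) (hn j s hs hw)
  rw [mem_filter] at ht ⊢
  exact ⟨Crest.Agent.R138.MkRef627.alive_mono hi _ _ ht.1, ht.2⟩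

end Crest.Agent.R136.DAl879
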