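import Mathlib
import Crest.Agent.R136.MkA_627

/-!
# R136 (helper770): deep D-max, definitions

* `extO I l1 m` : objects (line, cell of level `m`); beyond the level `l1` every sub-cell of an alive
  cell of level `l1` is alive.
* `AllD` : D-max at ALL levels between `lev n 0` and `lev n 1`.
* `DeepP` : D-max at arbitrary depth on a part `P` of the objects of level `m` which contains all but
  a `d^γ`-part of them.
-/

set_option autoImplicit false
set_option linter.unusedVariables false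
set_option linter.unusedSectionVars false

open Finset Filter Topology

namespace Crest.Agent.R136.Dia770

open Crest.Agent.R138.Ex926 Crest.Agent.R138.Dp76
open Crest.Agent.R138.Mk163 (zc zl rho alive own)
open Crest.Agent.R138.MkRef627 (lc)
open Crest.Agent.R136.MkA627 (Geo)

open Classical in
/-- objects (line, cell) of level `m`; beyond the level `l1` every sub-cell of an alive cell of level
`l1` is alive -/
noncomputable def extO (I : Finset (ℕ × ℝ)) (l1 m : ℕ) : Finset (ℕ × ℤ) :=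
  if m ≤ l1 then I.image (lc m) else
    (I.image (lc l1)).biUnion fun o =>
      (Finset.Ico (o.2 * 2 ^ (m - l1)) (o.2 * 2 ^ (m - l1) + 2 ^ (m - l1))).image fun j => (o.1, j)

variable {σ κ : Type*}

open Classical in
/-- **D-max at ALL levels** between `lev n 0` and `lev n 1` -/
def AllD (B : Base) (I : ℕ → Finset (ℕ × ℝ)) (G : Geo σ κ) (lev : ℕ → ℚ → ℕ) (A : ℕ → ℝ) (g : ℝ) :
    Prop :=
  ∀ ε : ℝ, 0 < ε → ∀ᶠ n in (U : Filter ℕ), ∀ i : ℕ, lev n 0 ≤ i → i ≤ lev n 1 → ∀ (j : ℤ) (s : σ),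
    G.adm n i j s → (((alive (I n) i j).filter fun t => G.mem n i j s t).card : ℝ) ≤
      B.d n ^ (-ε) * (A n * 2 ^ (g * ((i : ℝ) - lev n 0))) * G.val n i j s

open Classical in
/-- **D-max at arbitrary depth.**  `v` a level of the marks, `m n ≥ lev n v` any level with cells not
shorter than the resolution, `J` any dense part: outside a `d^γ`-part of the objects (line, cell) of
level `m`, every admissible test set over a cell of level `m` contains at most the expected number of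
lines. -/
def DeepP (B : Base) (I : ℕ → Finset (ℕ × ℝ)) (G : Geo σ κ) (lev : ℕ → ℚ → ℕ) (A : ℕ → ℝ) (g : ℝ)
    (r0 : ℕ → ℝ) : Prop :=
  ∀ v : ℚ, 0 ≤ v → v ≤ 1 → ∀ m : ℕ → ℕ, (∀ᶠ n in (U : Filter ℕ), lev n v ≤ m n) →
    (∀ᶠ n in (U : Filter ℕ), r0 n ≤ rho (m n)) →
    ∀ J : ℕ → Finset (ℕ × ℝ), Dense B J I → ∀ ε : ℝ, 0 < ε →
      ∃ P : ℕ → Finset (ℕ × ℤ), (∀ n, P n ⊆ extO (J n) (lev n 1) (m n)) ∧
        (∃ γ : ℝ, 0 < γ ∧ ∀ᶠ n in (U : Filter ℕ), ((extO (J n) (lev n 1) (m n)).card : ℝ) ≤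
          (P n).card + B.d n ^ γ * (extO (J n) (lev n 1) (m n)).card) ∧
        ∀ᶠ n in (U : Filter ℕ), ∀ (j : ℤ) (s : σ), G.adm n (m n) j s →
          (((P n).filter fun o => o.2 = j ∧ G.mem n (m n) j s o.1).card : ℝ) ≤
            B.d n ^ (-ε) * (A n * B.d n ^ (-(g * v))) *
              2 ^ ((g + ε) * ((m n : ℝ) - lev n v)) * G.val n (m n) j s

theorem zc_div {i m : ℕ} (h : i ≤ m) (z : ℝ) : zc i z = zc m z / 2 ^ (m - i) := by
  unfold Crest.Agent.R138.Mk163.zc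
  have e : (2:ℝ) ^ i * z = ((2:ℝ) ^ m * z) / ((2 ^ (m - i) : ℕ) : ℝ) := by
    push_cast
    have : (2:ℝ) ^ m = 2 ^ i * 2 ^ (m - i) := by rw [← pow_add]; congr 1; omega
    rw [this]; field_simp
  rw [e, Int.floor_div_natCast]
  push_cast
  rfl

theorem ico_div {k : ℕ} {j c : ℤ} : j ∈ Finset.Ico (c * 2 ^ k) (c * 2 ^ k + 2 ^ k) ↔
    j / 2 ^ k = c := by
  have h1 : (0:ℤ) < 2 ^ k := by positivity
  rw [Finset.mem_Ico]
  constructor
  · rintro ⟨a, b⟩
    refine le_antisymm ?_ ?_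
    · exact Int.lt_add_one_iff.1 ((Int.ediv_lt_iff_lt_mul h1).2 (by linarith))
    · exact (Int.le_ediv_iff_mul_le h1).2 a
  · intro h
    subst h
    have e1 := Int.ediv_mul_le j h1.ne'
    have e2 := Int.lt_ediv_add_one_mul_self j h1
    exact ⟨e1, by linarith⟩

theorem mem_extO_le {I : Finset (ℕ × ℝ)} {l1 m : ℕ} (h : m ≤ l1) {o : ℕ × ℤ} :
    o ∈ extO I l1 m ↔ ∃ x ∈ I, lc m x = o := by
  unfold extO
  rw [if_pos h, mem_image]

theorem mem_extO_ge {I : Finset (ℕ × ℝ)} {l1 m : ℕ} (h : l1 ≤ m) {o : ℕ × ℤ} :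
    o ∈ extO I l1 m ↔ ∃ x ∈ I, lc l1 x = (o.1, o.2 / 2 ^ (m - l1)) := by
  rcases h.lt_or_eq with h' | h'
  · unfold extO
    rw [if_neg (by omega)]
    simp only [mem_biUnion, mem_image]
    constructor
    · rintro ⟨p, ⟨x, hx, rfl⟩, j, hj, rfl⟩
      rw [ico_div] at hj
      exact ⟨x, hx, by simp only [hj]⟩
    · rintro ⟨x, hx, hxo⟩
      refine ⟨lc l1 x, ⟨x, hx, rfl⟩, o.2, ?_, ?_⟩
      · rw [ico_div, hxo]
      · rw [hxo]
  · subst h'
    rw [mem_extO_le le_rfl]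
    simp

/-- ancestors of extended objects are alive -/
theorem extO_anc {I : Finset (ℕ × ℝ)} {l1 m i : ℕ} (hi : i ≤ l1) (him : i ≤ m) {o : ℕ × ℤ}
    (ho : o ∈ extO I l1 m) : ∃ x ∈ I, lc i x = (o.1, o.2 / 2 ^ (m - i)) := by
  rcases le_total m l1 with h | h
  · rw [mem_extO_le h] at ho
    obtain ⟨x, hx, rfl⟩ := ho
    refine ⟨x, hx, ?_⟩
    simp only [lc, Prod.mk.injEq, true_and]
    exact zc_div him x.2
  · rw [mem_extO_ge h] at ho
    obtain ⟨x, hx, hxo⟩ := ho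
    refine ⟨x, hx, ?_⟩
    simp only [lc, Prod.mk.injEq] at hxo ⊢
    refine ⟨hxo.1, ?_⟩
    rw [zc_div hi, hxo.2, Int.ediv_ediv_of_nonneg (by positivity), ← pow_add]
    congr 2; omega

theorem extO_mono {I J : Finset (ℕ × ℝ)} (h : J ⊆ I) (l1 m : ℕ) : extO J l1 m ⊆ extO I l1 m := by
  intro o ho
  rcases le_total m l1 with h1 | h1
  · rw [mem_extO_le h1] at ho ⊢
    obtain ⟨x, hx, hxo⟩ := ho
    exact ⟨x, h hx, hxo⟩
  · rw [mem_extO_ge h1] at ho ⊢
    obtain ⟨x, hx, hxo⟩ := ho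
    exact ⟨x, h hx, hxo⟩

open Classical in
/-- number of extended objects -/
theorem card_extO {I : Finset (ℕ × ℝ)} {l1 m : ℕ} (h : l1 ≤ m) :
    (extO I l1 m).card = 2 ^ (m - l1) * (I.image (lc l1)).card := by
  have hmaps : ∀ o ∈ extO I l1 m, (o.1, o.2 / 2 ^ (m - l1)) ∈ I.image (lc l1) := by
    intro o ho
    rw [mem_extO_ge h] at ho
    obtain ⟨x, hx, hxo⟩ := ho
    exact mem_image.2 ⟨x, hx, hxo⟩
  rw [card_eq_sum_card_fiberwise hmaps]
  have h2 : ∀ p ∈ I.image (lc l1),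
      ((extO I l1 m).filter fun o => (o.1, o.2 / 2 ^ (m - l1)) = p).card = 2 ^ (m - l1) := by
    intro p hp
    have e : (extO I l1 m).filter (fun o => (o.1, o.2 / 2 ^ (m - l1)) = p) =
        (Finset.Ico (p.2 * 2 ^ (m - l1)) (p.2 * 2 ^ (m - l1) + 2 ^ (m - l1))).image
          fun j => (p.1, j) := by
      ext o
      rw [mem_filter, mem_extO_ge h, mem_image]
      constructor
      · rintro ⟨-, h3⟩
        subst h3
        exact ⟨o.2, ico_div.2 rfl, rfl⟩
      · rintro ⟨j, hj, rfl⟩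
        rw [ico_div] at hj
        obtain ⟨x, hx, rfl⟩ := mem_image.1 hp
        refine ⟨⟨x, hx, ?_⟩, ?_⟩
        · simp only [hj]
        · simp only [hj]
    rw [e, card_image_of_injective _ (fun a b hab => by simpa using hab), Int.card_Ico]
    have e2 : p.2 * 2 ^ (m - l1) + 2 ^ (m - l1) - p.2 * 2 ^ (m - l1) = ((2 ^ (m - l1) : ℕ) : ℤ) := by
      push_cast; ring
    rw [e2, Int.toNat_natCast]
  rw [sum_congr rfl h2, sum_const, smul_eq_mul, mul_comm]

end Crest.Agent.R136.Dia770
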