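import Mathlib

/-!
# R136 (S0187): the combinatorial normal form `FK4` of Kakeya sets in `ℝ⁴` (helper480)

Grid lines `x(t) = (a + t v)/N`, `t ∈ [0,1]`, `a, v ∈ ℤ³`, at most one line for each direction `v`.
`FK4`: for all `ε > 0` there is `η > 0` such that for large `N`, if there are at least `N^(3-η)` lines
and each of them has at least `N^(1-η)` of its `N` cells in `E`, then `#E ≥ N^(4-ε)`.
-/

set_option autoImplicit false

namespace Crest.Agent.R136.Fin480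

/-- grid lines of `ℝ⁴`: the line `x(t) = (a + t v)/N`. -/
abbrev GL4 := (Fin 3 → ℤ) × (Fin 3 → ℤ)

/-- the cell of side `1/N` containing the point of `l` at time `j/N`. -/
noncomputable def cell4 (N : ℕ) (l : GL4) (j : ℤ) : Fin 3 → ℤ :=
  fun i => ⌊(l.1 i : ℝ) + l.2 i * (j : ℝ) / N⌋

open Classical in
/-- **FK4**: full-shading Kakeya in `ℝ⁴`, one grid line per direction. -/
def FK4 : Prop :=
  ∀ ε : ℝ, 0 < ε → ∃ η : ℝ, 0 < η ∧ ∃ N0 : ℕ, ∀ N : ℕ, N0 ≤ N →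
    ∀ (s : Finset GL4) (E : Finset ((Fin 3 → ℤ) × ℤ)),
      (∀ l ∈ s, ∀ i, |l.1 i| ≤ (N : ℤ) ∧ |l.2 i| ≤ (N : ℤ)) →
      (∀ l ∈ s, ∀ l' ∈ s, l.2 = l'.2 → l = l') →
      (∀ l ∈ s, (N : ℝ) ^ (1 - η) ≤
        (((Finset.range N).filter fun j : ℕ => (cell4 N l j, (j : ℤ)) ∈ E).card : ℝ)) →
      (N : ℝ) ^ (3 - η) ≤ (s.card : ℝ) →
      (N : ℝ) ^ (4 - ε) ≤ (E.card : ℝ)

end Crest.Agent.R136.Fin480
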