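import Mathlib
import Crest.Agent.R136.FDef_480

/-!
# R136 (S0187): dyadic covers of a set of small Hausdorff dimension
-/

set_option autoImplicit false

open MeasureTheory Set Metric
open scoped ENNReal NNReal

namespace Crest.Agent.R136.Fin480

theorem exists_scale (d : ℝ) (hd : 0 < d) (k0 n : ℕ) (r : ℝ) (hr0 : 0 ≤ r)
    (hr : r ≤ (2⁻¹ : ℝ) ^ k0) :
    ∃ k, k0 ≤ k ∧ r ≤ (2⁻¹ : ℝ) ^ k ∧ ((2⁻¹ : ℝ) ^ k) ^ d ≤ 2 ^ d * r ^ d + (2⁻¹ : ℝ) ^ n := by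
  rcases hr0.eq_or_lt with h | h
  · subst h
    have h1 : (2⁻¹ : ℝ) ^ d < 1 := Real.rpow_lt_one (by norm_num) (by norm_num) hd
    obtain ⟨k, hk⟩ := exists_pow_lt_of_lt_one (show (0:ℝ) < (2⁻¹ : ℝ) ^ n by positivity) h1
    refine ⟨max k0 k, le_max_left _ _, by positivity, ?_⟩
    have h2 : ((2⁻¹ : ℝ) ^ (max k0 k)) ^ d = ((2⁻¹ : ℝ) ^ d) ^ (max k0 k) := by
      rw [← Real.rpow_natCast, ← Real.rpow_mul (by norm_num), mul_comm, Real.rpow_mul (by norm_num),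
        Real.rpow_natCast]
    rw [h2, Real.zero_rpow hd.ne', mul_zero, zero_add]
    exact (pow_le_pow_of_le_one (by positivity) h1.le (le_max_right _ _)).trans hk.le
  · have hr1 : r ≤ 1 := hr.trans (pow_le_one₀ (by norm_num) (by norm_num))
    obtain ⟨k, hk1, hk2⟩ := exists_nat_pow_near_of_lt_one h hr1 (show (0:ℝ) < 2⁻¹ by norm_num)
      (by norm_num)
    refine ⟨k, ?_, hk2, ?_⟩
    · by_contra hlt
      push Not at hlt
      have h1 : (2⁻¹ : ℝ) ^ k0 ≤ (2⁻¹ : ℝ) ^ (k + 1) :=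
        pow_le_pow_of_le_one (by norm_num) (by norm_num) hlt
      linarith
    · have h1 : (2⁻¹ : ℝ) ^ k ≤ 2 * r := by
        rw [pow_succ] at hk1
        linarith
      have h2 : ((2⁻¹ : ℝ) ^ k) ^ d ≤ (2 * r) ^ d := Real.rpow_le_rpow (by positivity) h1 hd.le
      rw [Real.mul_rpow (by norm_num) h.le] at h2
      have : (0:ℝ) < (2⁻¹ : ℝ) ^ n := by positivity
      linarith

/-- dyadic cell index in `ℝ⁴`. -/
noncomputable def ix (k : ℕ) (x : EuclideanSpace ℝ (Fin 4)) : Fin 4 → ℤ :=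
  fun i => ⌊(2 : ℝ) ^ k * x i⌋

/-- covering sequence. -/
theorem exists_seq (K : Set (EuclideanSpace ℝ (Fin 4))) (d : ℝ) (hd : 0 < d)
    (h : dimH K < ENNReal.ofReal d) (k0 : ℕ) :
    ∃ t : ℕ → Set (EuclideanSpace ℝ (Fin 4)), K ⊆ ⋃ n, t n ∧
      (∀ n, ediam (t n) ≤ ENNReal.ofReal ((2⁻¹ : ℝ) ^ k0)) ∧
      ∀ F : Finset ℕ, (∀ n ∈ F, (t n).Nonempty) → ∑ n ∈ F, (ediam (t n)).toReal ^ d ≤ 1 := by
  have h0 : (μH[d] : Measure (EuclideanSpace ℝ (Fin 4))) K = 0 := by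
    have := hausdorffMeasure_of_dimH_lt (s := K) (d := d.toNNReal) h
    rwa [Real.coe_toNNReal d hd.le] at this
  rw [Measure.hausdorffMeasure_apply] at h0
  have h1 : (⨅ (t : ℕ → Set (EuclideanSpace ℝ (Fin 4))) (_ : K ⊆ ⋃ n, t n)
      (_ : ∀ n, ediam (t n) ≤ ENNReal.ofReal ((2⁻¹ : ℝ) ^ k0)),
      ∑' n, ⨆ _ : (t n).Nonempty, ediam (t n) ^ d) < 1 := by
    refine lt_of_le_of_lt ?_ zero_lt_one
    rw [← h0]
    exact le_iSup₂ (f := fun (r : ℝ≥0∞) (_ : 0 < r) =>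
      ⨅ (t : ℕ → Set (EuclideanSpace ℝ (Fin 4))) (_ : K ⊆ ⋃ n, t n)
      (_ : ∀ n, ediam (t n) ≤ r), ∑' n, ⨆ _ : (t n).Nonempty, ediam (t n) ^ d)
      (ENNReal.ofReal ((2⁻¹ : ℝ) ^ k0)) (by rw [ENNReal.ofReal_pos]; positivity)
  simp only [iInf_lt_iff] at h1
  obtain ⟨t, ht, hdm, hs⟩ := h1
  refine ⟨t, ht, hdm, fun F hF => ?_⟩
  have h2 : ∑ n ∈ F, ediam (t n) ^ d ≤ 1 := by
    refine le_trans ?_ hs.le
    refine le_trans (Finset.sum_le_sum fun n hn => ?_) (ENNReal.sum_le_tsum F)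
    exact le_iSup (fun _ : (t n).Nonempty => ediam (t n) ^ d) (hF n hn)
  have h3 : ∀ n, ediam (t n) ≠ ∞ := fun n => ((hdm n).trans_lt ENNReal.ofReal_lt_top).ne
  have h4 : ∑ n ∈ F, (ediam (t n)).toReal ^ d = (∑ n ∈ F, ediam (t n) ^ d).toReal := by
    rw [ENNReal.toReal_sum]
    · exact Finset.sum_congr rfl fun n _ => by rw [ENNReal.toReal_rpow]
    · intro n _
      exact ENNReal.rpow_ne_top_of_nonneg hd.le (h3 n)
  rw [h4]
  exact ENNReal.toReal_le_of_le_ofReal (by norm_num) (by simpa using h2)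

/-- neighbours of a cell. -/
noncomputable def nb (q : Fin 4 → ℤ) : Finset (Fin 4 → ℤ) :=
  Fintype.piFinset fun i => Finset.Icc (q i - 1) (q i + 1)

theorem card_nb (q : Fin 4 → ℤ) : (nb q).card = 81 := by
  unfold nb
  rw [Fintype.card_piFinset]
  simp only [Int.card_Icc]
  have : ∀ i : Fin 4, (q i + 1 + 1 - (q i - 1)).toNat = 3 := fun i => by
    have : q i + 1 + 1 - (q i - 1) = 3 := by ring
    rw [this]; rfl
  simp [this]

theorem mem_nb {k : ℕ} {x y : EuclideanSpace ℝ (Fin 4)} (h : ‖x - y‖ ≤ (2⁻¹ : ℝ) ^ k) :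
    ix k x ∈ nb (ix k y) := by
  unfold nb
  rw [Fintype.mem_piFinset]
  intro i
  have h1 : |x i - y i| ≤ (2⁻¹ : ℝ) ^ k := by
    have := PiLp.norm_apply_le (x - y) i
    rw [PiLp.sub_apply, Real.norm_eq_abs] at this
    exact this.trans h
  have h2 : |(2 : ℝ) ^ k * x i - (2 : ℝ) ^ k * y i| ≤ 1 := by
    rw [← mul_sub, abs_mul, abs_of_pos (by positivity : (0:ℝ) < 2 ^ k)]
    calc (2 : ℝ) ^ k * |x i - y i| ≤ 2 ^ k * (2⁻¹ : ℝ) ^ k := by gcongr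
      _ = 1 := by rw [← mul_pow]; norm_num
  rw [abs_le] at h2
  rw [Finset.mem_Icc]
  unfold ix
  constructor
  · rw [sub_le_iff_le_add]
    have : (2:ℝ) ^ k * y i ≤ 2 ^ k * x i + 1 := by linarith
    calc ⌊(2:ℝ) ^ k * y i⌋ ≤ ⌊(2:ℝ) ^ k * x i + 1⌋ := Int.floor_le_floor this
      _ = _ := by rw [Int.floor_add_one]
  · have : (2:ℝ) ^ k * x i ≤ 2 ^ k * y i + 1 := by linarith
    calc ⌊(2:ℝ) ^ k * x i⌋ ≤ ⌊(2:ℝ) ^ k * y i + 1⌋ := Int.floor_le_floor this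
      _ = _ := by rw [Int.floor_add_one]

/-- **dyadic covers**. -/
theorem exists_cover (K : Set (EuclideanSpace ℝ (Fin 4))) (d : ℝ) (hd : 0 < d) (hd4 : d ≤ 4)
    (h : dimH K < ENNReal.ofReal d) (k0 : ℕ) :
    ∃ E : ℕ → Finset (Fin 4 → ℤ), (∀ k, ((E k).card : ℝ) ≤ 81 * 18 * (2 : ℝ) ^ ((k : ℝ) * d)) ∧
      ∀ x ∈ K, ∃ k, k0 ≤ k ∧ ix k x ∈ E k := by
  classical
  obtain ⟨t, hKt, hdm, hsum⟩ := exists_seq K d hd h k0
  set r : ℕ → ℝ := fun n => (ediam (t n)).toReal with hr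
  have hfin : ∀ n, ediam (t n) ≠ ∞ := fun n => ((hdm n).trans_lt ENNReal.ofReal_lt_top).ne
  have hrk : ∀ n, r n ≤ (2⁻¹ : ℝ) ^ k0 := fun n =>
    ENNReal.toReal_le_of_le_ofReal (by positivity) (hdm n)
  choose κ hκ0 hκ1 hκ2 using fun n => exists_scale d hd k0 n (r n) ENNReal.toReal_nonneg (hrk n)
  -- the number of pieces of scale `k`
  have hcard : ∀ k, ∀ F : Finset ℕ, (∀ n ∈ F, (t n).Nonempty ∧ κ n = k) →
      (F.card : ℝ) ≤ 18 * (2 : ℝ) ^ ((k : ℝ) * d) := by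
    intro k F hF
    have h1 : (F.card : ℝ) * ((2⁻¹ : ℝ) ^ k) ^ d ≤ 18 := by
      calc (F.card : ℝ) * ((2⁻¹ : ℝ) ^ k) ^ d = ∑ n ∈ F, ((2⁻¹ : ℝ) ^ κ n) ^ d := by
            rw [Finset.sum_congr rfl fun n hn => by rw [(hF n hn).2]]
            simp
        _ ≤ ∑ n ∈ F, (2 ^ d * r n ^ d + (2⁻¹ : ℝ) ^ n) := Finset.sum_le_sum fun n _ => hκ2 n
        _ = 2 ^ d * ∑ n ∈ F, r n ^ d + ∑ n ∈ F, (2⁻¹ : ℝ) ^ n := by
            rw [Finset.sum_add_distrib, Finset.mul_sum]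
        _ ≤ 2 ^ (4:ℝ) * 1 + 2 := by
            have a1 : ∑ n ∈ F, r n ^ d ≤ 1 := hsum F fun n hn => (hF n hn).1
            have a2 : (2:ℝ) ^ d ≤ 2 ^ (4:ℝ) := Real.rpow_le_rpow_of_exponent_le (by norm_num) hd4
            have a3 : ∑ n ∈ F, (2⁻¹ : ℝ) ^ n ≤ 2 := by
              have hs : Summable fun n : ℕ => (2⁻¹ : ℝ) ^ n :=
                summable_geometric_of_lt_one (by norm_num) (by norm_num)
              refine (hs.sum_le_tsum F fun n _ => by positivity).trans ?_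
              rw [tsum_geometric_of_lt_one (by norm_num) (by norm_num)]
              norm_num
            have a4 : 0 ≤ ∑ n ∈ F, r n ^ d :=
              Finset.sum_nonneg fun n _ => Real.rpow_nonneg ENNReal.toReal_nonneg _
            have : (2:ℝ) ^ d * ∑ n ∈ F, r n ^ d ≤ 2 ^ (4:ℝ) * 1 := by gcongr
            linarith
        _ = 18 := by norm_num
    have h2 : ((2⁻¹ : ℝ) ^ k) ^ d * (2 : ℝ) ^ ((k : ℝ) * d) = 1 := by
      rw [Real.rpow_mul (by norm_num), Real.rpow_natCast, ← Real.mul_rpow (by positivity)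
        (by positivity), ← mul_pow]
      norm_num
    calc (F.card : ℝ) = (F.card : ℝ) * ((2⁻¹ : ℝ) ^ k) ^ d * (2 : ℝ) ^ ((k : ℝ) * d) := by
          rw [mul_assoc, h2, mul_one]
      _ ≤ 18 * (2 : ℝ) ^ ((k : ℝ) * d) := by gcongr
  have hfinI : ∀ k, {n | (t n).Nonempty ∧ κ n = k}.Finite := by
    intro k
    by_contra hinf
    obtain ⟨F, hF1, hF2⟩ := Set.Infinite.exists_subset_card_eq hinf
      (⌊18 * (2 : ℝ) ^ ((k : ℝ) * d)⌋₊ + 1)
    have h1 := hcard k F fun n hn => hF1 hn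
    rw [hF2] at h1
    have h2 := Nat.lt_floor_add_one (18 * (2 : ℝ) ^ ((k : ℝ) * d))
    push_cast at h1
    linarith
  choose! x hx using fun n (hn : (t n).Nonempty) => hn
  refine ⟨fun k => (hfinI k).toFinset.biUnion fun n => nb (ix k (x n)), fun k => ?_, ?_⟩
  · have h1 : (((hfinI k).toFinset.biUnion fun n => nb (ix k (x n))).card : ℝ) ≤
        ((hfinI k).toFinset.card * 81 : ℕ) := by
      exact_mod_cast Finset.card_biUnion_le_card_mul _ _ _ fun n _ => (card_nb _).le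
    have h2 := hcard k (hfinI k).toFinset fun n hn => by simpa using hn
    push_cast at h1
    calc _ ≤ ((hfinI k).toFinset.card : ℝ) * 81 := h1
      _ ≤ (18 * (2 : ℝ) ^ ((k : ℝ) * d)) * 81 := by gcongr
      _ = _ := by ring
  · intro y hy
    obtain ⟨n, hn⟩ := mem_iUnion.1 (hKt hy)
    refine ⟨κ n, hκ0 n, ?_⟩
    rw [Finset.mem_biUnion]
    refine ⟨n, by simpa using ⟨y, hn⟩, mem_nb ?_⟩
    refine le_trans ?_ (hκ1 n)
    have h1 : edist y (x n) ≤ ediam (t n) := edist_le_ediam_of_mem hn (hx n ⟨y, hn⟩)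
    rw [← dist_eq_norm, dist_edist]
    exact ENNReal.toReal_mono (hfin n) h1

end Crest.Agent.R136.Fin480
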