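import Mathlib
import Crest.Agent.R136.Fin1_480

/-!
# R136 (S0187): directions, pigeonholes over scales
-/

set_option autoImplicit false

open MeasureTheory Set Metric
open scoped ENNReal NNReal

namespace Crest.Agent.R136.Fin480

/-! ### the direction `(c, 1)` -/

/-- the vector `(c, 1)`. -/
noncomputable def dv (c : Fin 3 → ℝ) : EuclideanSpace ℝ (Fin 4) :=
  WithLp.toLp 2 (Fin.snoc (α := fun _ => ℝ) c 1)

theorem dv_castSucc (c : Fin 3 → ℝ) (i : Fin 3) : dv c i.castSucc = c i := by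
  simp only [dv]
  exact Fin.snoc_castSucc (α := fun _ => ℝ) _ _ _

theorem dv_last (c : Fin 3 → ℝ) : dv c (Fin.last 3) = 1 := by
  simp only [dv]
  exact Fin.snoc_last (α := fun _ => ℝ) _ _

theorem norm_dv_sq (c : Fin 3 → ℝ) : ‖dv c‖ ^ 2 = (∑ i, c i ^ 2) + 1 := by
  rw [EuclideanSpace.norm_sq_eq, Fin.sum_univ_castSucc, dv_last]
  simp [dv_castSucc]

theorem norm_dv_pos (c : Fin 3 → ℝ) : 0 < ‖dv c‖ := by
  have h := norm_dv_sq c
  have h1 : 0 ≤ ∑ i, c i ^ 2 := Finset.sum_nonneg fun i _ => sq_nonneg _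
  by_contra h2
  have h3 : ‖dv c‖ = 0 := le_antisymm (not_lt.1 h2) (norm_nonneg _)
  rw [h3] at h
  nlinarith

theorem norm_dv_le {c : Fin 3 → ℝ} (hc : ∀ i, |c i| ≤ 1 / 2) : ‖dv c‖ ≤ 4 / 3 := by
  have h := norm_dv_sq c
  have h1 : ∑ i, c i ^ 2 ≤ 3 / 4 := by
    calc ∑ i, c i ^ 2 ≤ ∑ _i : Fin 3, (1 / 4 : ℝ) := Finset.sum_le_sum fun i _ => by
          have := hc i
          rw [← sq_abs]
          have h0 := abs_nonneg (c i)
          nlinarith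
      _ = 3 / 4 := by norm_num
  by_contra h2
  push Not at h2
  nlinarith

theorem exists_line {K : Set (EuclideanSpace ℝ (Fin 4))}
    (hK : ∀ e : EuclideanSpace ℝ (Fin 4), ‖e‖ = 1 →
      ∃ a : EuclideanSpace ℝ (Fin 4), segment ℝ a (a + e) ⊆ K)
    {c : Fin 3 → ℝ} (hc : ∀ i, |c i| ≤ 1 / 2) :
    ∃ a : EuclideanSpace ℝ (Fin 4), ∀ t : ℝ, 0 ≤ t → t ≤ 3 / 4 → a + t • dv c ∈ K := by
  have hp := norm_dv_pos c
  obtain ⟨a, ha⟩ := hK (‖dv c‖⁻¹ • dv c) (by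
    rw [norm_smul, norm_inv, norm_norm, inv_mul_cancel₀ hp.ne'])
  refine ⟨a, fun t ht0 ht1 => ha ?_⟩
  rw [segment_eq_image']
  refine ⟨t * ‖dv c‖, ⟨by positivity, ?_⟩, ?_⟩
  · have := norm_dv_le hc
    nlinarith
  · simp only
    rw [add_sub_cancel_left, smul_smul, mul_assoc, mul_inv_cancel₀ hp.ne', mul_one]

/-- **the lines**, localised. -/
theorem directions {K : Set (EuclideanSpace ℝ (Fin 4))}
    (hK : ∀ e : EuclideanSpace ℝ (Fin 4), ‖e‖ = 1 →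
      ∃ a : EuclideanSpace ℝ (Fin 4), segment ℝ a (a + e) ⊆ K) :
    ∃ (D : Set (Fin 3 → ℝ)) (q : (Fin 3 → ℝ) → Fin 3 → ℝ) (z : Fin 4 → ℤ),
      volume D ≠ 0 ∧ (∀ c ∈ D, ∀ i, |c i| ≤ 1 / 2) ∧ (∀ c ∈ D, ∀ i, |q c i| ≤ 1 / 4) ∧
      ∀ c ∈ D, ∀ τ : ℝ, 0 ≤ τ → τ ≤ 1 / 2 → ∃ x ∈ K,
        (∀ i : Fin 3, x i.castSucc = q c i + τ * c i + (z i.castSucc : ℝ) / 8) ∧
        x (Fin.last 3) = τ + (z (Fin.last 3) : ℝ) / 8 := by
  classical
  set B : Set (Fin 3 → ℝ) := Set.Icc (fun _ => -(1 / 2)) (fun _ => 1 / 2) with hB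
  have hBc : ∀ c ∈ B, ∀ i, |c i| ≤ 1 / 2 := fun c hc i => by
    rw [abs_le]
    exact ⟨hc.1 i, hc.2 i⟩
  choose! a ha using fun (c : Fin 3 → ℝ) (hc : ∀ i, |c i| ≤ 1 / 2) => exists_line hK hc
  have hvol : volume B = 1 := by
    rw [hB, Real.volume_Icc_pi]
    simp
    norm_num
  have hne : volume (⋃ w : Fin 4 → ℤ, {c | c ∈ B ∧ (fun i => ⌊8 * a c i⌋) = w}) ≠ 0 := by
    have : (⋃ w : Fin 4 → ℤ, {c | c ∈ B ∧ (fun i => ⌊8 * a c i⌋) = w}) = B := by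
      ext c
      simp
    rw [this, hvol]
    exact one_ne_zero
  obtain ⟨w, hw⟩ := exists_measure_pos_of_not_measure_iUnion_null hne
  refine ⟨{c | c ∈ B ∧ (fun i => ⌊8 * a c i⌋) = w},
    fun c i => a c i.castSucc + (((w (Fin.last 3) : ℝ) + 1) / 8 - a c (Fin.last 3)) * c i
      - (w i.castSucc : ℝ) / 8,
    fun i => if i = Fin.last 3 then w i + 1 else w i, hw.ne', fun c hc => hBc c hc.1, ?_, ?_⟩
  · intro c hc i
    have h1 : ⌊8 * a c i.castSucc⌋ = w i.castSucc := congrFun hc.2 _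
    have h2 : ⌊8 * a c (Fin.last 3)⌋ = w (Fin.last 3) := congrFun hc.2 _
    rw [Int.floor_eq_iff] at h1 h2
    have h3 := hBc c hc.1 i
    rw [abs_le] at h3 ⊢
    obtain ⟨h1a, h1b⟩ := h1
    obtain ⟨h2a, h2b⟩ := h2
    obtain ⟨h3a, h3b⟩ := h3
    set u := ((w (Fin.last 3) : ℝ) + 1) / 8 - a c (Fin.last 3) with hu
    have hu0 : 0 ≤ u := by rw [hu]; linarith
    have hu1 : u ≤ 1 / 8 := by rw [hu]; linarith
    constructor <;> nlinarith
  · intro c hc τ hτ0 hτ1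
    have h2 : ⌊8 * a c (Fin.last 3)⌋ = w (Fin.last 3) := congrFun hc.2 _
    rw [Int.floor_eq_iff] at h2
    obtain ⟨h2a, h2b⟩ := h2
    refine ⟨_, ha c (hBc c hc.1) (((w (Fin.last 3) : ℝ) + 1) / 8 - a c (Fin.last 3) + τ)
      (by linarith) (by linarith), ?_, ?_⟩
    · intro i
      rw [PiLp.add_apply, PiLp.smul_apply, dv_castSucc, smul_eq_mul]
      simp only
      rw [if_neg (Fin.castSucc_ne_last i)]
      ring
    · rw [PiLp.add_apply, PiLp.smul_apply, dv_last, smul_eq_mul]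
      simp only
      rw [if_pos trivial]
      push_cast
      ring

/-! ### pigeonhole over scales -/

/-- weights. -/
noncomputable def wt (k : ℕ) : ℝ := 1 / (((k : ℝ) + 1) * (k + 2))

theorem wt_pos (k : ℕ) : 0 < wt k := by unfold wt; positivity

theorem sum_wt (n : ℕ) : ∑ k ∈ Finset.range n, wt k = 1 - 1 / ((n : ℝ) + 1) := by
  induction n with
  | zero => simp
  | succ n ih =>
    rw [Finset.sum_range_succ, ih]
    unfold wt
    push_cast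
    field_simp
    ring

theorem tsum_wt : ∑' k, ENNReal.ofReal (wt k) ≤ 1 := by
  refine ENNReal.tsum_le_of_sum_range_le fun n => ?_
  rw [← ENNReal.ofReal_sum_of_nonneg fun k _ => (wt_pos k).le, sum_wt]
  rw [ENNReal.ofReal_le_one]
  have : (0:ℝ) ≤ 1 / ((n : ℝ) + 1) := by positivity
  linarith

theorem pigeon (f : ℕ → ℝ≥0∞) (κ : ℝ≥0∞) (h0 : κ ≠ 0) (ht : κ ≠ ∞) (h : κ ≤ ∑' k, f k) :
    ∃ k, κ / 2 * ENNReal.ofReal (wt k) ≤ f k ∧ f k ≠ 0 := by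
  by_contra hcon
  push Not at hcon
  have h1 : ∀ k, f k ≤ κ / 2 * ENNReal.ofReal (wt k) := fun k => by
    by_contra hk
    push Not at hk
    have := hcon k hk.le
    rw [this] at hk
    exact not_lt_zero hk
  have h2 : ∑' k, f k ≤ κ / 2 := by
    calc ∑' k, f k ≤ ∑' k, κ / 2 * ENNReal.ofReal (wt k) := ENNReal.tsum_le_tsum h1
      _ = κ / 2 * ∑' k, ENNReal.ofReal (wt k) := ENNReal.tsum_mul_left
      _ ≤ κ / 2 * 1 := by gcongr; exact tsum_wt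
      _ = κ / 2 := mul_one _
  exact absurd (h.trans h2) (not_le.2 (ENNReal.half_lt_self h0 ht))

/-! ### one line: a good scale -/

/-- the cell (space) of the point at time `τ` of the line `q + τ c`. -/
noncomputable def sc (k : ℕ) (q c : Fin 3 → ℝ) (τ : ℝ) : Fin 3 → ℤ :=
  fun i => ⌊(2 : ℝ) ^ k * (q i + τ * c i)⌋

open Classical in
/-- good time steps. -/
noncomputable def JJ (E : Finset ((Fin 3 → ℤ) × ℤ)) (k : ℕ) (q c : Fin 3 → ℝ) : Finset ℕ :=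
  (Finset.range (2 ^ k)).filter fun j => ∃ τ : ℝ, 0 ≤ τ ∧ ⌊(2 : ℝ) ^ k * τ⌋ = (j : ℤ) ∧
    (sc k q c τ, (j : ℤ)) ∈ E

theorem good_scale (E : ℕ → Finset ((Fin 3 → ℤ) × ℤ)) (k0 : ℕ) (q c : Fin 3 → ℝ)
    (h : ∀ τ : ℝ, 0 ≤ τ → τ ≤ 1 / 2 → ∃ k, k0 ≤ k ∧ (sc k q c τ, ⌊(2 : ℝ) ^ k * τ⌋) ∈ E k) :
    ∃ k, k0 ≤ k ∧ wt k / 4 * 2 ^ k ≤ ((JJ (E k) k q c).card : ℝ) := by
  classical
  set T : ℕ → Set ℝ := fun k => if k0 ≤ k then
    {τ | 0 ≤ τ ∧ τ ≤ 1 / 2 ∧ (sc k q c τ, ⌊(2 : ℝ) ^ k * τ⌋) ∈ E k} else ∅ with hT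
  have h1 : ENNReal.ofReal (1 / 2) ≤ ∑' k, volume (T k) := by
    calc ENNReal.ofReal (1 / 2) = volume (Set.Icc (0:ℝ) (1 / 2)) := by
          rw [Real.volume_Icc]; norm_num
      _ ≤ volume (⋃ k, T k) := by
          refine measure_mono fun τ hτ => ?_
          obtain ⟨k, hk0, hk⟩ := h τ hτ.1 hτ.2
          rw [mem_iUnion]
          refine ⟨k, ?_⟩
          simp only [hT, if_pos hk0]
          exact ⟨hτ.1, hτ.2, hk⟩
      _ ≤ ∑' k, volume (T k) := measure_iUnion_le _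
  obtain ⟨k, hk, hk'⟩ := pigeon (fun k => volume (T k)) _ (by simp)
    ENNReal.ofReal_ne_top h1
  have hk0 : k0 ≤ k := by
    by_contra hlt
    apply hk'
    simp only [hT, if_neg hlt, measure_empty]
  refine ⟨k, hk0, ?_⟩
  have h2 : T k ⊆ ⋃ j ∈ JJ (E k) k q c, Set.Icc ((j : ℝ) / 2 ^ k) (((j : ℝ) + 1) / 2 ^ k) := by
    intro τ hτ
    simp only [hT, if_pos hk0] at hτ
    obtain ⟨hτ0, hτ1, hτE⟩ := hτ
    have hf0 : 0 ≤ ⌊(2 : ℝ) ^ k * τ⌋ := Int.floor_nonneg.2 (by positivity)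
    obtain ⟨j, hj⟩ := Int.eq_ofNat_of_zero_le hf0
    rw [hj] at hτE
    rw [mem_iUnion₂]
    rw [Int.floor_eq_iff] at hj
    push_cast at hj
    refine ⟨j, ?_, ?_, ?_⟩
    · unfold JJ
      rw [Finset.mem_filter, Finset.mem_range]
      refine ⟨?_, τ, hτ0, ?_, hτE⟩
      · have h3 : (j : ℝ) < 2 ^ k := by
          have h4 : (2:ℝ) ^ k * τ ≤ 2 ^ k * (1 / 2) := by gcongr
          have : (0:ℝ) < 2 ^ k := by positivity
          linarith [hj.1]
        exact_mod_cast h3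
      · rw [Int.floor_eq_iff]
        push_cast
        exact hj
    · rw [div_le_iff₀ (by positivity)]
      linarith [hj.1]
    · rw [le_div_iff₀ (by positivity)]
      linarith [hj.2]
  have h3 : volume (T k) ≤ ENNReal.ofReal ((JJ (E k) k q c).card / 2 ^ k) := by
    calc volume (T k) ≤ ∑ j ∈ JJ (E k) k q c,
          volume (Set.Icc ((j : ℝ) / 2 ^ k) (((j : ℝ) + 1) / 2 ^ k)) :=
          (measure_mono h2).trans (measure_biUnion_finset_le _ _)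
      _ = ∑ j ∈ JJ (E k) k q c, ENNReal.ofReal (1 / 2 ^ k) := by
          refine Finset.sum_congr rfl fun j _ => ?_
          rw [Real.volume_Icc]
          congr 1
          ring
      _ = ENNReal.ofReal ((JJ (E k) k q c).card / 2 ^ k) := by
          rw [Finset.sum_const, nsmul_eq_mul, ← ENNReal.ofReal_natCast,
            ← ENNReal.ofReal_mul (by positivity)]
          congr 1
          ring
  have h4 := hk.trans h3
  have h5 : ENNReal.ofReal (1 / 2) / 2 = ENNReal.ofReal (1 / 4) := by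
    rw [show (2 : ℝ≥0∞) = ENNReal.ofReal 2 by norm_num, ← ENNReal.ofReal_div_of_pos (by norm_num)]
    norm_num
  rw [h5, ← ENNReal.ofReal_mul (by norm_num)] at h4
  rw [ENNReal.ofReal_le_ofReal_iff (by positivity), le_div_iff₀ (by positivity)] at h4
  linarith

end Crest.Agent.R136.Fin480
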