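import Mathlib
import Crest.Agent.R136.Fin2_480

/-!
# R136 (S0187): the finish, `s0187_of_FK4`
-/

set_option autoImplicit false

open MeasureTheory Set Metric Filter
open scoped ENNReal NNReal Topology

namespace Crest.Agent.R136.Fin480

/-! ### snapping to grid lines -/

/-- the grid line of `(q, c)`. -/
noncomputable def snap (k : ℕ) (q c : Fin 3 → ℝ) : GL4 :=
  (fun i => ⌊(2 : ℝ) ^ k * q i⌋, fun i => ⌊(2 : ℝ) ^ k * c i⌋)

theorem cell_close (k : ℕ) (q c : Fin 3 → ℝ) (hc : ∀ i, |c i| ≤ 1 / 2) (j : ℕ) (hj : j < 2 ^ k)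
    (τ : ℝ) (hτ : ⌊(2 : ℝ) ^ k * τ⌋ = (j : ℤ)) (i : Fin 3) :
    cell4 (2 ^ k) (snap k q c) j i ∈ Finset.Icc (sc k q c τ i - 3) (sc k q c τ i + 1) := by
  have hN : (0 : ℝ) < 2 ^ k := by positivity
  rw [Int.floor_eq_iff] at hτ
  push_cast at hτ
  obtain ⟨hτ1, hτ2⟩ := hτ
  have hj' : (j : ℝ) ≤ 2 ^ k := by exact_mod_cast hj.le
  have hj0 : (0 : ℝ) ≤ j := by positivity
  set Q := (2 : ℝ) ^ k * q i with hQ
  set V := (2 : ℝ) ^ k * c i with hV
  set T := (2 : ℝ) ^ k * τ with hT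
  have hQ1 := Int.floor_le Q
  have hQ2 := Int.lt_floor_add_one Q
  have hV1 := Int.floor_le V
  have hV2 := Int.lt_floor_add_one V
  have hci := abs_le.1 (hc i)
  set R := (2 : ℝ) ^ k * (q i + τ * c i) with hR
  set G := (⌊Q⌋ : ℝ) + (⌊V⌋ : ℝ) * (j : ℝ) / 2 ^ k with hG
  have hcell : cell4 (2 ^ k) (snap k q c) j i = ⌊G⌋ := by
    unfold cell4 snap
    simp only
    push_cast
    rfl
  have hsc : sc k q c τ i = ⌊R⌋ := rfl
  have hRG : R - G = (Q - ⌊Q⌋) + (T - j) * c i + (j / 2 ^ k) * (V - ⌊V⌋) := by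
    rw [hR, hG, hQ, hV, hT]
    field_simp
    ring
  have hu0 : 0 ≤ (j : ℝ) / 2 ^ k := by positivity
  have hu1 : (j : ℝ) / 2 ^ k ≤ 1 := by rw [div_le_one hN]; exact hj'
  have h1 : 0 ≤ ((j : ℝ) / 2 ^ k) * (V - ⌊V⌋) := mul_nonneg hu0 (by linarith)
  have h2 : ((j : ℝ) / 2 ^ k) * (V - ⌊V⌋) ≤ 1 := by
    have : ((j : ℝ) / 2 ^ k) * (V - ⌊V⌋) ≤ 1 * 1 := by
      apply mul_le_mul hu1 (by linarith) (by linarith) (by norm_num)
    linarith
  have h3 : |(T - j) * c i| ≤ 1 / 2 := by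
    rw [abs_mul]
    have a1 : |T - j| ≤ 1 := by rw [abs_le]; constructor <;> linarith
    calc |T - j| * |c i| ≤ 1 * (1 / 2) := by gcongr; exact hc i
      _ = 1 / 2 := by ring
  rw [abs_le] at h3
  rw [hcell, hsc, Finset.mem_Icc]
  have g1 := Int.floor_le R
  have g2 := Int.lt_floor_add_one R
  have g3 := Int.floor_le G
  have g4 := Int.lt_floor_add_one G
  constructor
  · have : (⌊R⌋ : ℝ) - 3 < ⌊G⌋ + 1 := by linarith [h3.1, h3.2]
    have : ⌊R⌋ - 3 < ⌊G⌋ + 1 := by exact_mod_cast this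
    omega
  · have : (⌊G⌋ : ℝ) < ⌊R⌋ + 1 + 1 := by linarith [h3.1, h3.2]
    have : ⌊G⌋ < ⌊R⌋ + 1 + 1 := by exact_mod_cast this
    omega

open Classical in
/-- fattened set of cells. -/
noncomputable def fat (E : Finset ((Fin 3 → ℤ) × ℤ)) : Finset ((Fin 3 → ℤ) × ℤ) :=
  E.biUnion fun x => (Fintype.piFinset fun i => Finset.Icc (x.1 i - 3) (x.1 i + 1)).image
    fun w => (w, x.2)

theorem card_fat (E : Finset ((Fin 3 → ℤ) × ℤ)) : (fat E).card ≤ E.card * 125 := by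
  classical
  unfold fat
  refine Finset.card_biUnion_le_card_mul _ _ _ fun x _ => ?_
  refine Finset.card_image_le.trans ?_
  rw [Fintype.card_piFinset]
  have : ∀ i : Fin 3, (Finset.Icc (x.1 i - 3) (x.1 i + 1)).card = 5 := fun i => by
    rw [Int.card_Icc]
    have : x.1 i + 1 + 1 - (x.1 i - 3) = 5 := by ring
    rw [this]; rfl
  simp [this]

open Classical in
theorem JJ_le (E : Finset ((Fin 3 → ℤ) × ℤ)) (k : ℕ) (q c : Fin 3 → ℝ) (hc : ∀ i, |c i| ≤ 1 / 2) :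
    (JJ E k q c).card ≤ ((Finset.range (2 ^ k)).filter fun j : ℕ =>
      (cell4 (2 ^ k) (snap k q c) j, (j : ℤ)) ∈ fat E).card := by
  refine Finset.card_le_card fun j hj => ?_
  unfold JJ at hj
  rw [Finset.mem_filter, Finset.mem_range] at hj
  obtain ⟨hj1, τ, _, hτ, hE⟩ := hj
  rw [Finset.mem_filter, Finset.mem_range]
  refine ⟨hj1, ?_⟩
  unfold fat
  rw [Finset.mem_biUnion]
  refine ⟨_, hE, ?_⟩
  rw [Finset.mem_image]
  refine ⟨cell4 (2 ^ k) (snap k q c) j, ?_, rfl⟩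
  rw [Fintype.mem_piFinset]
  intro i
  exact cell_close k q c hc j hj1 τ hτ i

theorem snap_bd (k : ℕ) (q c : Fin 3 → ℝ) (hq : ∀ i, |q i| ≤ 1 / 4) (hc : ∀ i, |c i| ≤ 1 / 2)
    (i : Fin 3) : |(snap k q c).1 i| ≤ ((2 ^ k : ℕ) : ℤ) ∧ |(snap k q c).2 i| ≤ ((2 ^ k : ℕ) : ℤ) := by
  have hN : (1 : ℝ) ≤ 2 ^ k := one_le_pow₀ (by norm_num)
  have key : ∀ x : ℝ, |x| ≤ 1 / 2 → |⌊(2 : ℝ) ^ k * x⌋| ≤ ((2 ^ k : ℕ) : ℤ) := by
    intro x hx
    rw [abs_le] at hx ⊢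
    have h1 : -(2 ^ k : ℝ) ≤ 2 ^ k * x := by nlinarith [hx.1]
    have h2 : (2 : ℝ) ^ k * x ≤ 2 ^ k := by nlinarith [hx.2]
    constructor
    · rw [Int.le_floor]
      push_cast
      exact h1
    · have h3 := (Int.floor_le ((2 : ℝ) ^ k * x)).trans h2
      have h4 : (⌊(2 : ℝ) ^ k * x⌋ : ℝ) ≤ ((2 ^ k : ℕ) : ℤ) := by
        push_cast
        exact h3
      exact_mod_cast h4
  exact ⟨key _ ((hq i).trans (by norm_num)), key _ (hc i)⟩

/-! ### the family of directions at one scale -/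

theorem exists_family (k : ℕ) (D : Set (Fin 3 → ℝ)) (hc : ∀ c ∈ D, ∀ i, |c i| ≤ 1 / 2) :
    ∃ F : Finset (Fin 3 → ℝ), (∀ c ∈ F, c ∈ D) ∧
      (∀ c ∈ F, ∀ c' ∈ F, (fun i => ⌊(2 : ℝ) ^ k * c i⌋) = (fun i => ⌊(2 : ℝ) ^ k * c' i⌋) → c = c') ∧
      volume D ≤ ENNReal.ofReal (F.card / ((2 : ℝ) ^ k) ^ 3) := by
  classical
  set fl : (Fin 3 → ℝ) → Fin 3 → ℤ := fun c i => ⌊(2 : ℝ) ^ k * c i⌋ with hfl
  have hN : (0 : ℝ) < 2 ^ k := by positivity
  have hfin : (fl '' D).Finite := by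
    refine Set.Finite.subset (Fintype.piFinset fun _ : Fin 3 =>
      Finset.Icc (-((2 ^ k : ℕ) : ℤ)) ((2 ^ k : ℕ) : ℤ)).finite_toSet ?_
    rintro _ ⟨c, hcD, rfl⟩
    rw [Finset.mem_coe, Fintype.mem_piFinset]
    intro i
    have := (snap_bd k 0 c (by simp) (hc c hcD) i).2
    rw [abs_le] at this
    rw [Finset.mem_Icc]
    exact this
  choose! g hg using fun (v : Fin 3 → ℤ) (hv : v ∈ fl '' D) => hv
  set VV := hfin.toFinset with hVV
  have hmem : ∀ v ∈ VV, g v ∈ D ∧ fl (g v) = v := fun v hv => hg v (by simpa [hVV] using hv)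
  refine ⟨VV.image g, ?_, ?_, ?_⟩
  · intro c hc'
    obtain ⟨v, hv, rfl⟩ := Finset.mem_image.1 hc'
    exact (hmem v hv).1
  · intro c hc1 c' hc2 he
    obtain ⟨v, hv, rfl⟩ := Finset.mem_image.1 hc1
    obtain ⟨v', hv', rfl⟩ := Finset.mem_image.1 hc2
    have h1 : fl (g v) = fl (g v') := he
    rw [(hmem v hv).2, (hmem v' hv').2] at h1
    rw [h1]
  · have hcard : (VV.image g).card = VV.card := by
      refine Finset.card_image_of_injOn fun v hv v' hv' he => ?_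
      have h1 := congrArg fl he
      rwa [(hmem v hv).2, (hmem v' hv').2] at h1
    rw [hcard]
    have hsub : D ⊆ ⋃ v ∈ VV, Set.Icc (fun i => (v i : ℝ) / 2 ^ k) (fun i => ((v i : ℝ) + 1) / 2 ^ k) := by
      intro c hcD
      rw [mem_iUnion₂]
      refine ⟨fl c, by simp [hVV]; exact ⟨c, hcD, rfl⟩, ?_, ?_⟩
      · intro i
        simp only [hfl]
        rw [div_le_iff₀ hN]
        linarith [Int.floor_le ((2 : ℝ) ^ k * c i)]
      · intro i
        simp only [hfl]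
        rw [le_div_iff₀ hN]
        linarith [Int.lt_floor_add_one ((2 : ℝ) ^ k * c i)]
    calc volume D ≤ ∑ v ∈ VV, volume
          (Set.Icc (fun i => (v i : ℝ) / 2 ^ k) (fun i => ((v i : ℝ) + 1) / 2 ^ k)) :=
          (measure_mono hsub).trans (measure_biUnion_finset_le _ _)
      _ = ∑ v ∈ VV, ENNReal.ofReal ((1 / 2 ^ k) ^ 3) := by
          refine Finset.sum_congr rfl fun v _ => ?_
          rw [Real.volume_Icc_pi]
          have : ∀ i : Fin 3, ((v i : ℝ) + 1) / 2 ^ k - (v i : ℝ) / 2 ^ k = 1 / 2 ^ k := fun i => by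
            ring
          simp only [this, Finset.prod_const, Finset.card_univ, Fintype.card_fin]
          rw [ENNReal.ofReal_pow (by positivity)]
      _ = ENNReal.ofReal (VV.card / ((2 : ℝ) ^ k) ^ 3) := by
          rw [Finset.sum_const, nsmul_eq_mul, ← ENNReal.ofReal_natCast,
            ← ENNReal.ofReal_mul (by positivity)]
          congr 1
          field_simp

/-! ### large scales -/

theorem large_scale (η κ ε d : ℝ) (hη : 0 < η) (hκ : 0 < κ) (hε : 0 < ε) (hd : d + ε = 4 - ε)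
    (N0 : ℕ) :
    ∃ k0 : ℕ, ∀ k : ℕ, k0 ≤ k → 3 ≤ k ∧ N0 ≤ 2 ^ k ∧
      (((2 ^ k : ℕ) : ℝ)) ^ (1 - η) ≤ wt k / 4 * 2 ^ k ∧
      (((2 ^ k : ℕ) : ℝ)) ^ (3 - η) ≤ κ / 2 * wt k * ((2 : ℝ) ^ k) ^ 3 ∧
      125 * (81 * 18 * (2 : ℝ) ^ ((k : ℝ) * d)) < (((2 ^ k : ℕ) : ℝ)) ^ (4 - ε) := by
  set ρ : ℝ := (2 : ℝ) ^ (-η) with hρ
  have hρ0 : 0 < ρ := by positivity
  have hρ1 : ρ < 1 := Real.rpow_lt_one_of_one_lt_of_neg (by norm_num) (by linarith)
  have hab : |ρ| < 1 := by rwa [abs_of_pos hρ0]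
  have t1 : Tendsto (fun k : ℕ => (((k : ℝ) + 1) * (k + 2)) * ρ ^ k) atTop (𝓝 0) := by
    have a1 := tendsto_pow_const_mul_const_pow_of_abs_lt_one 2 hab
    have a2 := (tendsto_pow_const_mul_const_pow_of_abs_lt_one 1 hab).const_mul 3
    have a3 := (tendsto_pow_const_mul_const_pow_of_abs_lt_one 0 hab).const_mul 2
    have a4 := (a1.add a2).add a3
    simp only [mul_zero, add_zero] at a4
    refine a4.congr fun k => ?_
    ring
  have e1 : ∀ᶠ k : ℕ in atTop, (((k : ℝ) + 1) * (k + 2)) * ρ ^ k < min (1 / 4) (κ / 2) :=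
    t1.eventually_lt_const (by positivity)
  have h2ε : (1 : ℝ) < 2 ^ ε := Real.one_lt_rpow (by norm_num) hε
  have e2 : ∀ᶠ k : ℕ in atTop, (125 * (81 * 18) : ℝ) < ((2 : ℝ) ^ ε) ^ k :=
    (tendsto_pow_atTop_atTop_of_one_lt h2ε).eventually_gt_atTop _
  have e3 : ∀ᶠ k : ℕ in atTop, (N0 : ℝ) < (2 : ℝ) ^ k :=
    (tendsto_pow_atTop_atTop_of_one_lt (by norm_num)).eventually_gt_atTop _
  obtain ⟨k0, hk0⟩ := eventually_atTop.1 ((e1.and (e2.and e3)).and (eventually_ge_atTop 3))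
  refine ⟨k0, fun k hk => ?_⟩
  obtain ⟨⟨h1, h2, h3⟩, h4⟩ := hk0 k hk
  have hN : (0 : ℝ) < 2 ^ k := by positivity
  have hcast : (((2 ^ k : ℕ) : ℝ)) = (2 : ℝ) ^ k := by push_cast; rfl
  have hρk : ((2 : ℝ) ^ k) ^ (-η) = ρ ^ k := by
    rw [hρ, ← Real.rpow_natCast, ← Real.rpow_mul (by norm_num), mul_comm, Real.rpow_mul (by norm_num),
      Real.rpow_natCast]
  have hwt : ρ ^ k = (((k : ℝ) + 1) * (k + 2)) * ρ ^ k * wt k := by
    unfold wt
    field_simp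
  have hw0 := wt_pos k
  have hA : ρ ^ k ≤ wt k / 4 := by
    rw [hwt]
    have := (h1.trans_le (min_le_left _ _)).le
    nlinarith
  have hB : ρ ^ k ≤ κ / 2 * wt k := by
    rw [hwt]
    have := (h1.trans_le (min_le_right _ _)).le
    nlinarith
  refine ⟨h4, ?_, ?_, ?_, ?_⟩
  · have : (N0 : ℝ) ≤ ((2 ^ k : ℕ) : ℝ) := by rw [hcast]; exact h3.le
    exact_mod_cast this
  · rw [hcast, sub_eq_add_neg, Real.rpow_add hN, Real.rpow_one, hρk, mul_comm]
    gcongr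
  · rw [hcast, sub_eq_add_neg, Real.rpow_add hN, hρk, mul_comm]
    rw [show ((2 : ℝ) ^ k) ^ (3 : ℝ) = ((2 : ℝ) ^ k) ^ 3 by
      rw [← Real.rpow_natCast]; norm_num]
    gcongr
  · rw [hcast, ← hd, Real.rpow_add hN]
    have c1 : ((2 : ℝ) ^ k) ^ d = (2 : ℝ) ^ ((k : ℝ) * d) := by
      rw [← Real.rpow_natCast, ← Real.rpow_mul (by norm_num)]
    have c2 : ((2 : ℝ) ^ k) ^ ε = ((2 : ℝ) ^ ε) ^ k := by
      rw [← Real.rpow_natCast, ← Real.rpow_mul (by norm_num), mul_comm,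
        Real.rpow_mul (by norm_num), Real.rpow_natCast]
    rw [c1, c2]
    have : (0:ℝ) < (2 : ℝ) ^ ((k : ℝ) * d) := by positivity
    nlinarith

/-- **main contradiction**. -/
theorem main (hF : FK4) {K : Set (EuclideanSpace ℝ (Fin 4))}
    (hK : ∀ e : EuclideanSpace ℝ (Fin 4), ‖e‖ = 1 →
      ∃ a : EuclideanSpace ℝ (Fin 4), segment ℝ a (a + e) ⊆ K)
    (d : ℝ) (hd0 : 0 < d) (hd4 : d < 4) (h : dimH K < ENNReal.ofReal d) : False := by
  classical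
  obtain ⟨D, q, z, hD0, hDc, hDq, hDK⟩ := directions hK
  have hDfin : volume D ≠ ∞ := by
    obtain ⟨F, _, _, h3⟩ := exists_family 0 D hDc
    exact (h3.trans_lt ENNReal.ofReal_lt_top).ne
  set κ : ℝ := (volume D).toReal with hκ
  have hκ0 : 0 < κ := ENNReal.toReal_pos hD0 hDfin
  set ε : ℝ := (4 - d) / 2 with hε
  obtain ⟨η, hη, N0, hFK⟩ := hF ε (by rw [hε]; linarith)
  obtain ⟨k0, hk0⟩ := large_scale η κ ε d hη hκ0 (by rw [hε]; linarith) (by rw [hε]; ring) N0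
  obtain ⟨E, hEc, hEK⟩ := exists_cover K d hd0 hd4.le h k0
  set E' : ℕ → Finset ((Fin 3 → ℤ) × ℤ) := fun k => (E k).image fun w =>
    ((fun i : Fin 3 => w i.castSucc - 2 ^ (k - 3) * z i.castSucc),
      w (Fin.last 3) - 2 ^ (k - 3) * z (Fin.last 3)) with hE'
  -- every point of every line is covered
  have hcov : ∀ c ∈ D, ∀ τ : ℝ, 0 ≤ τ → τ ≤ 1 / 2 →
      ∃ k, k0 ≤ k ∧ (sc k (q c) c τ, ⌊(2 : ℝ) ^ k * τ⌋) ∈ E' k := by
    intro c hc τ hτ0 hτ1
    obtain ⟨x, hxK, hx1, hx2⟩ := hDK c hc τ hτ0 hτ1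
    obtain ⟨k, hk, hkE⟩ := hEK x hxK
    refine ⟨k, hk, ?_⟩
    obtain ⟨h3, -⟩ := hk0 k hk
    have h8 : ∀ m : ℤ, (2 : ℝ) ^ k * ((m : ℝ) / 8) = ((2 ^ (k - 3) * m : ℤ) : ℝ) := by
      intro m
      have : (2 : ℝ) ^ k = 2 ^ (k - 3) * 8 := by
        rw [show (8 : ℝ) = 2 ^ 3 by norm_num, ← pow_add]
        congr 1
        omega
      rw [this]
      push_cast
      ring
    rw [hE', Finset.mem_image]
    refine ⟨_, hkE, ?_⟩
    refine Prod.ext ?_ ?_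
    · funext i
      simp only [ix, sc]
      rw [hx1 i, mul_add ((2 : ℝ) ^ k) (q c i + τ * c i), h8, Int.floor_add_intCast]
      ring
    · simp only [ix]
      rw [hx2, mul_add, h8, Int.floor_add_intCast]
      ring
  -- a good scale for every line
  have hgs : ∀ c ∈ D, ∃ k, k0 ≤ k ∧ wt k / 4 * 2 ^ k ≤ ((JJ (E' k) k (q c) c).card : ℝ) :=
    fun c hc => good_scale E' k0 (q c) c (hcov c hc)
  -- pigeonhole over scales
  set DD : ℕ → Set (Fin 3 → ℝ) := fun k => if k0 ≤ k then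
    {c | c ∈ D ∧ wt k / 4 * 2 ^ k ≤ ((JJ (E' k) k (q c) c).card : ℝ)} else ∅ with hDD
  have h1 : volume D ≤ ∑' k, volume (DD k) := by
    refine le_trans (measure_mono fun c hc => ?_) (measure_iUnion_le DD)
    obtain ⟨k, hk, hk'⟩ := hgs c hc
    rw [mem_iUnion]
    refine ⟨k, ?_⟩
    simp only [hDD, if_pos hk]
    exact ⟨hc, hk'⟩
  obtain ⟨k, hk, hk'⟩ := pigeon (fun k => volume (DD k)) _ hD0 hDfin h1
  have hkk : k0 ≤ k := by
    by_contra hlt
    apply hk'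
    simp only [hDD, if_neg hlt, measure_empty]
  have hDDk : ∀ c ∈ DD k, c ∈ D ∧ wt k / 4 * 2 ^ k ≤ ((JJ (E' k) k (q c) c).card : ℝ) := by
    intro c hc
    simp only [hDD, if_pos hkk] at hc
    exact hc
  obtain ⟨F, hF1, hF2, hF3⟩ := exists_family k (DD k) fun c hc => hDc c (hDDk c hc).1
  obtain ⟨_, hN0, hp1, hp3, hp4⟩ := hk0 k hkk
  have hFcard : κ / 2 * wt k * ((2 : ℝ) ^ k) ^ 3 ≤ (F.card : ℝ) := by
    have h2 := hk.trans hF3
    have h3 : volume D / 2 * ENNReal.ofReal (wt k) = ENNReal.ofReal (κ / 2 * wt k) := by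
      rw [ENNReal.ofReal_mul (by positivity), ENNReal.ofReal_div_of_pos (by norm_num), hκ,
        ENNReal.ofReal_toReal hDfin]
      norm_num
    rw [h3, ENNReal.ofReal_le_ofReal_iff (by positivity), le_div_iff₀ (by positivity)] at h2
    exact h2
  -- the family of grid lines
  have hinj : ∀ c ∈ F, ∀ c' ∈ F, (snap k (q c) c).2 = (snap k (q c') c').2 → c = c' :=
    fun c hc c' hc' he => hF2 c hc c' hc' he
  have hFs : (F.image fun c => snap k (q c) c).card = F.card := by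
    refine Finset.card_image_of_injOn fun c hc c' hc' he => ?_
    exact hinj c hc c' hc' (congrArg Prod.snd he)
  have hfinal := hFK (2 ^ k) hN0 (F.image fun c => snap k (q c) c) (fat (E' k)) ?_ ?_ ?_ ?_
  · have h5 : ((fat (E' k)).card : ℝ) ≤ 125 * (81 * 18 * (2 : ℝ) ^ ((k : ℝ) * d)) := by
      have h6 : ((fat (E' k)).card : ℝ) ≤ ((E' k).card : ℝ) * 125 := by
        exact_mod_cast card_fat (E' k)
      have h7 : ((E' k).card : ℝ) ≤ ((E k).card : ℝ) := by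
        exact_mod_cast Finset.card_image_le
      have h8 := hEc k
      linarith
    linarith
  · intro l hl i
    obtain ⟨c, hc, rfl⟩ := Finset.mem_image.1 hl
    have hcD := (hDDk c (hF1 c hc)).1
    exact snap_bd k (q c) c (hDq c hcD) (hDc c hcD) i
  · intro l hl l' hl' he
    obtain ⟨c, hc, rfl⟩ := Finset.mem_image.1 hl
    obtain ⟨c', hc', rfl⟩ := Finset.mem_image.1 hl'
    rw [hinj c hc c' hc' he]
  · intro l hl
    obtain ⟨c, hc, rfl⟩ := Finset.mem_image.1 hl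
    obtain ⟨hcD, hcJ⟩ := hDDk c (hF1 c hc)
    refine hp1.trans (hcJ.trans ?_)
    exact_mod_cast JJ_le (E' k) k (q c) c (hDc c hcD)
  · rw [hFs]
    exact hp3.trans hFcard

/-- **the finish**: `S0187` from `FK4`. -/
theorem s0187_of_FK4 (hF : FK4) (K : Set (EuclideanSpace ℝ (Fin 4)))
    (hK : ∀ e : EuclideanSpace ℝ (Fin 4), ‖e‖ = 1 →
      ∃ a : EuclideanSpace ℝ (Fin 4), segment ℝ a (a + e) ⊆ K) :
    dimH K = 4 := by
  have hle : dimH K ≤ 4 := by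
    refine (dimH_mono (subset_univ K)).trans ?_
    rw [Real.dimH_univ_eq_finrank, finrank_euclideanSpace_fin]
    norm_num
  refine le_antisymm hle ?_
  by_contra hlt
  push Not at hlt
  obtain ⟨d, hd1, hd2⟩ := ENNReal.lt_iff_exists_nnreal_btwn.1 hlt
  have hd4 : (d : ℝ) < 4 := by
    have : d < 4 := by exact_mod_cast hd2
    exact_mod_cast this
  have hd0 : 0 < (d : ℝ) := by
    have : (0 : ℝ≥0∞) < d := lt_of_le_of_lt (by simp) hd1
    exact_mod_cast this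
  refine main hF hK d hd0 hd4 ?_
  rw [ENNReal.ofReal_coe_nnreal]
  exact hd1

end Crest.Agent.R136.Fin480
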