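import Crest.Agent.R136.Fin4_879
import Crest.Agent.R136.Fin3_480

/-!
# R136 (helper879): `KS4 → S0187` (literal statement)
-/

set_option autoImplicit false

namespace Crest.Agent.R136.KS879

/-- **the finish of S0187**. -/
theorem s0187_of_KS4 (hKS : KS4) (K : Set (EuclideanSpace ℝ (Fin 4)))
    (hK : ∀ e : EuclideanSpace ℝ (Fin 4), ‖e‖ = 1 →
      ∃ a : EuclideanSpace ℝ (Fin 4), segment ℝ a (a + e) ⊆ K) : dimH K = 4 :=
  Crest.Agent.R136.Fin480.s0187_of_FK4 (FK4_of_KS4 hKS) K hK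

end Crest.Agent.R136.KS879
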