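import Crest.Agent.R136.MkA_627

/-!
# R136: D-max on sub-cells, weak form (helper335)

`SubD B I G lev A g v k` : a family `P` of pairs (line, cell of level `lev n v + k`) with D-max, such
that every incidence of `I` has a sub-cell in `P`.  The only information below the level `lev n 1`
which is used by the non-degeneracy (3.0) (`k = 7`).
-/

set_option autoImplicit false

open Finset Filter Topology

namespace Crest.Agent.R136.Ndc335

open Crest.Agent.R138.Ex926
open Crest.Agent.R138.Mk163 (zc)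
open Crest.Agent.R136.MkA627

variable {σ κ : Type*}

open Classical in
/-- D-max at the level `lev n v + k` for a family of (line, cell) which meets every incidence -/
def SubD (B : Base) (I : ℕ → Finset (ℕ × ℝ)) (G : Geo σ κ) (lev : ℕ → ℚ → ℕ) (A : ℕ → ℝ) (g : ℝ)
    (v : ℚ) (k : ℕ) : Prop :=
  ∀ ε : ℝ, 0 < ε → ∃ P : ℕ → Finset (ℕ × ℤ),
    (∀ᶠ n in (U : Filter ℕ), ∀ x ∈ I n, ∃ j : ℤ, j / 2 ^ k = zc (lev n v) x.2 ∧ (x.1, j) ∈ P n) ∧
    ∀ᶠ n in (U : Filter ℕ), ∀ (j : ℤ) (s : σ), G.adm n (lev n v + k) j s →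
      (((P n).filter fun o => o.2 = j ∧ G.mem n (lev n v + k) j s o.1).card : ℝ) ≤
        B.d n ^ (-ε) * (A n * B.d n ^ (-(g * v))) * 2 ^ ((g + ε) * k) * G.val n (lev n v + k) j s

/-- parts -/
theorem SubD.mono {B : Base} {I J : ℕ → Finset (ℕ × ℝ)} {G : Geo σ κ} {lev : ℕ → ℚ → ℕ}
    {A : ℕ → ℝ} {g : ℝ} {v : ℚ} {k : ℕ} (h : SubD B I G lev A g v k)
    (hJ : ∀ᶠ n in (U : Filter ℕ), J n ⊆ I n) : SubD B J G lev A g v k := by
  intro ε hε
  obtain ⟨P, h1, h2⟩ := h ε hε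
  refine ⟨P, ?_, h2⟩
  filter_upwards [h1, hJ] with n hn hJn x hx
  exact hn x (hJn hx)

end Crest.Agent.R136.Ndc335
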