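import Mathlib
import Crest.Agent.R136.Sh6_605
import Crest.Agent.R136.KDef4_879
import Crest.Agent.R136.MkF_627
import Crest.Agent.R136.FinT_879
import Crest.Agent.R136.Deep0_770
import Crest.Agent.R136.SubD_335
import Crest.Agent.R136.DAl7_879

/-!
# R136: upstream seams of S0187 (helper484), definitions

* `geo4` : the geometry of sheets of the class `C*` (`Sh605.ShN`) for `MkA627.MkA`; index of the
  widths and rewards: `0` = thickness, `1` = wide, `2` = narrow.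
* `J1` : output of block [EXT] : marked extremal sequence of sheets, full shading, all exponents
  linear, D-max at all levels and at arbitrary depth (`Dia770.AllD`, `Dia770.DeepP`).
-/

set_option autoImplicit false
set_option linter.unusedVariables false

open Finset Filter Topology

namespace Crest.Agent.R136.Top484

open Crest.Agent.R138.Ex926 (Base U)
open Crest.Agent.R138.Dp76 (Dense)
open Crest.Agent.R138.Mk163 (zc zl rho alive own Negl)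
open Crest.Agent.R136.MkA627 Crest.Agent.R136.Sh605 Crest.Agent.R136.K4

/-- **geometry of sheets** (class `C*`), rewards `(a/ρ)^(q 0) (w₁/ρ)^(q 1) (w₂/ρ)^(q 2)`; `wr`,
`cr` = range of the three widths: only sheets with `wr k n ≤ ![a, w 1, w 2] k ≤ cr k n` are tested -/
noncomputable def geo4 (L : ℕ → ℕ → Ln4) (r0 : ℕ → ℝ) (wr cr : Fin 3 → ℕ → ℝ) (q : Fin 3 → ℝ) :
    Geo Plk4 (Fin 3) where
  mem := fun n i J s t => InSheet (L n t) s.e s.c s.w s.q s.a (zl i J) (rho i)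
  adm := fun n i J s => ShN s.e s.c s.w s.q s.a (zl i J) (rho i) (r0 n) ∧ s.w 1 ≤ rho i ∧
    ∀ k : Fin 3, wr k n ≤ ![s.a, s.w 1, s.w 2] k ∧ ![s.a, s.w 1, s.w 2] k ≤ cr k n
  val := fun n i J s => s.a * s.w 2 * s.w 1 *
    ((s.a / rho i) ^ q 0 * (s.w 1 / rho i) ^ q 1 * (s.w 2 / rho i) ^ q 2)
  wid := fun k s => ![s.a, s.w 1, s.w 2] k

/-- lines alive in the cell `j` of level `m`; beyond the level `l1` every sub-cell of an alive cell of
level `l1` is alive -/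
noncomputable def aliveX (I : Finset (ℕ × ℝ)) (l1 m : ℕ) (j : ℤ) : Finset ℕ :=
  if m ≤ l1 then alive I m j else alive I l1 (j / 2 ^ (m - l1))

open Classical in
/-- **D-max below the level of the marks, at arbitrary depth** (helper808) -/
def DeepA {σ κ : Type} (B : Base) (I : ℕ → Finset (ℕ × ℝ)) (G : Geo σ κ) (lev : ℕ → ℚ → ℕ)
    (A : ℕ → ℝ) (g : ℝ) (r0 : ℕ → ℝ) : Prop :=
  ∀ v : ℚ, 0 ≤ v → v ≤ 1 → ∀ m : ℕ → ℕ, (∀ n, lev n v ≤ m n) → (∀ n, r0 n ≤ rho (m n)) →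
    ∀ J : ℕ → Finset (ℕ × ℝ), Dense B J I → ∀ ε : ℝ, 0 < ε →
      ∃ J' : ℕ → Finset (ℕ × ℝ), (∀ n, J' n ⊆ J n) ∧ Dense B J' J ∧
        Negl B J (fun n x => x ∉ J' n) ∧
        ∀ᶠ n in (U : Filter ℕ), ∀ j : ℤ, ∀ s : σ, G.adm n (m n) j s →
          (((aliveX (J' n) (lev n 1) (m n) j).filter fun t => G.mem n (m n) j s t).card : ℝ) ≤
            B.d n ^ (-ε) * (A n * B.d n ^ (-(g * v))) *
              2 ^ ((g + ε) * ((m n : ℝ) - lev n v)) * G.val n (m n) j s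

/-- parameters of the extremiser -/
structure Par4 where
  /-- rewards: thickness, wide, narrow -/
  q : Fin 3 → ℝ
  /-- growth -/
  g : ℝ
  /-- slopes of the widths -/
  θ : Fin 3 → ℝ

/-- the data of a marked sequence of sheets -/
structure Dat4 where
  B : Base
  I : ℕ → Finset (ℕ × ℝ)
  L : ℕ → ℕ → Ln4
  r0 : ℕ → ℝ
  wr : Fin 3 → ℕ → ℝ
  cr : Fin 3 → ℕ → ℝ
  lev : ℕ → ℚ → ℕ
  A : ℕ → ℝ
  f : ℕ → ℚ → ℕ → ℤ → ℕ
  b : ℕ → ℚ → ℕ → Plk4
  vm : ℕ → ℚ → ℝ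
  w : Fin 3 → ℕ → ℚ → ℝ

/-- the geometry of the data -/
noncomputable def Dat4.G (D : Dat4) (p : Par4) : Geo Plk4 (Fin 3) := geo4 D.L D.r0 D.wr D.cr p.q

/-- the widths of the marks are superpolynomially far from both ends of the range -/
def Rng (B : Base) (wr cr : Fin 3 → ℕ → ℝ) (w : Fin 3 → ℕ → ℚ → ℝ) : Prop :=
  ∀ (C : ℝ) (k : Fin 3) (v : ℚ), 0 ≤ v → v ≤ 1 → ∀ᶠ n in (U : Filter ℕ),
    wr k n ≤ B.d n ^ C * w k n v ∧ w k n v ≤ B.d n ^ C * cr k n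

/-- **J1, core**: marked extremal sequence of sheets; no relation between `g` and `q 1` -/
structure J1c (η : ℝ) (p : Par4) (D : Dat4) : Prop where
  mka : MkA D.B D.I (D.G p) D.lev D.A (fun v => p.g * v) (fun v => 0 * v)
    (fun j v => p.θ j * (1 - v)) D.f D.b D.vm D.w
  /-- D-max at all levels (helper770) -/
  alld : Dia770.AllD D.B D.I (D.G p) D.lev D.A p.g
  /-- D-max seven steps below the last level, weak form (helper335) -/
  sub7 : Ndc335.SubD D.B D.I (D.G p) D.lev D.A p.g 1 7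
  /-- D-max at the marked levels (and seven steps below) for all sheets, two-sided exponents
  (helper248, helper879, helper685) -/
  dall : ∃ qm qp : Fin 3 → ℝ, DAl879.Ex2 η qm qp ∧
    DAl879.DAll D.B D.I D.L D.lev D.A p.g p.q D.r0 D.w qm qp ∧
    DAl879.DAllK 7 D.B D.I D.L D.lev D.A p.g p.q D.r0 D.w qm qp
  /-- rewards `0 ≤ q₀ ≤ η q₂`, `q₂ ≤ η g`, `q₂ ≤ η q₁` -/
  q0 : 0 ≤ p.q 0 ∧ p.q 0 ≤ η * p.q 2
  q2 : 0 < p.q 2 ∧ p.q 2 ≤ η * p.g
  q21 : p.q 2 ≤ η * p.q 1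
  g0 : 0 < p.g ∧ 0 < p.q 1
  θ1 : 0 < p.θ 1
  /-- the slopes are bounded in terms of the rewards (helper823) -/
  θb : p.q 2 * max (p.θ 1 - p.θ 2) 0 + p.q 0 * (max (-(p.θ 0)) 0 + |p.θ 1| + |p.θ 2|) ≤ η * p.g
  θ1b : p.q 2 * p.θ 1 ≤ η * p.g ∧ p.q 2 * max (-(p.θ 2)) 0 ≤ η * p.g
  /-- range of the tests -/
  wrs : Rng D.B D.wr D.cr D.w
  r0pos : ∀ n, 0 < D.r0 n
  r0log : ∀ ε : ℝ, 0 < ε → ∀ᶠ n in (U : Filter ℕ), Real.log (1 / D.r0 n) ≤ D.B.d n ^ (-ε)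
  vel : ∀ᶠ n in (U : Filter ℕ), ∀ x ∈ D.I n, ∀ i, |(D.L n x.1).v i| ≤ 1

/-- **J1**: the old output of block [EXT]; rewards `g ≤ η q₁`, `g² ≤ η q₁ q₂` -/
structure J1 (η : ℝ) (p : Par4) (D : Dat4) : Prop extends J1c η p D where
  g1 : p.g ≤ η * p.q 1
  gq : p.g ^ 2 ≤ η * (p.q 1 * p.q 2)

/-- **[EXT]** -/
def SeamExt : Prop := ∀ η : ℝ, 0 < η → ¬ KS879.KS4 → ∃ (p : Par4) (D : Dat4), J1 η p D

/-- **end of S0187** from the two halves. -/
theorem ks4_of (hE : SeamExt) {η : ℝ} (hη : 0 < η)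
    (hF : ∀ (p : Par4) (D : Dat4), J1 η p D → False) : KS879.KS4 := by
  by_contra h
  obtain ⟨p, D, hJ⟩ := hE η hη h
  exact hF p D hJ

end Crest.Agent.R136.Top484
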