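import Mathlib
import Crest.Agent.R136.Deep1_51
import Crest.Agent.R136.TopD_484
import Crest.Agent.R138.TiltU1_51

/-!
# R136 (U5 TILT), deep count on pairs (line, deep cell) (helper51)

`deepQ I l1 m` : pairs (line, cell of level `m`) alive (below the level `l1` every sub-cell of an alive
cell of level `l1` is alive).  `deep_stage` : the deep count for two class systems of levels `lv` and
`lu`, abstract box labels.
-/

set_option autoImplicit false
set_option linter.unusedVariables false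

open Finset Filter Topology

namespace Crest.Agent.R136.Deep51

open Crest.Agent.R138.Mk163 (zc zl rho alive own)
open Crest.Agent.R138.TiltU51 (zc_mul_le zc_lt_mul zc_nest mem_alive)
open Crest.Agent.R136.Top484 (aliveX)

/-! ### cells -/

/-- ancestor of the cell `j` of level `m` at level `i` -/
def anc (i m : ℕ) (j : ℤ) : ℤ := j / 2 ^ (m - i)

theorem anc_eq {i m : ℕ} {j J : ℤ} : anc i m j = J ↔ 2 ^ (m - i) * J ≤ j ∧ j < 2 ^ (m - i) * (J + 1) := by
  unfold anc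
  have hp : (0 : ℤ) < 2 ^ (m - i) := by positivity
  rw [Int.ediv_eq_iff_of_pos hp]
  constructor
  · rintro ⟨h1, h2⟩; constructor <;> nlinarith
  · rintro ⟨h1, h2⟩; constructor <;> nlinarith

theorem anc_zc {i m : ℕ} (h : i ≤ m) (z : ℝ) : anc i m (zc m z) = zc i z :=
  anc_eq.2 ⟨zc_mul_le h z, zc_lt_mul h z⟩

theorem anc_anc {i k m : ℕ} (h1 : i ≤ k) (h2 : k ≤ m) (j : ℤ) : anc i k (anc k m j) = anc i m j := by
  unfold anc
  rw [Int.ediv_ediv_of_nonneg (by positivity), ← pow_add]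
  congr 2; omega

theorem anc_self (m : ℕ) (j : ℤ) : anc m m j = j := by unfold anc; simp

/-! ### alive pairs -/

open Classical in
/-- pairs (line, cell of level `m`), alive -/
noncomputable def deepQ (I : Finset (ℕ × ℝ)) (l1 m : ℕ) : Finset (ℕ × ℤ) :=
  if m ≤ l1 then I.image fun x => (x.1, zc m x.2)
  else (I.image fun x => (x.1, zc l1 x.2)).biUnion fun o =>
    (Finset.range (2 ^ (m - l1))).image fun k : ℕ => (o.1, 2 ^ (m - l1) * o.2 + (k : ℤ))

theorem mem_deepQ {I : Finset (ℕ × ℝ)} {l1 m : ℕ} {o : ℕ × ℤ} :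
    o ∈ deepQ I l1 m ↔ o.1 ∈ aliveX I l1 m o.2 := by
  classical
  unfold deepQ aliveX
  by_cases h : m ≤ l1
  · rw [if_pos h, if_pos h, mem_image, mem_alive]
    constructor
    · rintro ⟨x, hx, rfl⟩; exact ⟨x, hx, rfl, rfl⟩
    · rintro ⟨x, hx, h1, h2⟩; exact ⟨x, hx, by rw [h1, h2]⟩
  · rw [if_neg h, if_neg h, mem_biUnion, mem_alive]
    constructor
    · rintro ⟨o', ho', ho⟩
      obtain ⟨x, hx, rfl⟩ := mem_image.1 ho'
      obtain ⟨k, hk, rfl⟩ := mem_image.1 ho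
      rw [mem_range] at hk
      have hk' : (k : ℤ) < 2 ^ (m - l1) := by exact_mod_cast hk
      refine ⟨x, hx, ?_, rfl⟩
      have := (anc_eq (i := l1) (m := m) (j := 2 ^ (m - l1) * zc l1 x.2 + (k : ℤ))
        (J := zc l1 x.2)).2 ⟨by linarith [Int.natCast_nonneg k], by nlinarith⟩
      exact this.symm
    · rintro ⟨x, hx, h1, h2⟩
      obtain ⟨a1, a2⟩ := (anc_eq (i := l1) (m := m) (j := o.2) (J := zc l1 x.2)).1 h1.symm
      refine ⟨(x.1, zc l1 x.2), mem_image_of_mem _ hx, mem_image.2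
        ⟨(o.2 - 2 ^ (m - l1) * zc l1 x.2).toNat, ?_, ?_⟩⟩
      · rw [mem_range]
        have : ((o.2 - 2 ^ (m - l1) * zc l1 x.2).toNat : ℤ) < ((2 ^ (m - l1) : ℕ) : ℤ) := by
          rw [Int.toNat_of_nonneg (by linarith)]; push_cast; linarith
        exact_mod_cast this
      · rw [Int.toNat_of_nonneg (by linarith)]
        ext
        · exact h2
        · simp


/-- (L1) ancestors of alive pairs are alive -/
theorem alive_anc {I : Finset (ℕ × ℝ)} {lv l1 m : ℕ} (h1 : lv ≤ l1) (h2 : lv ≤ m) {o : ℕ × ℤ}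
    (ho : o ∈ deepQ I l1 m) : o.1 ∈ alive I lv (anc lv m o.2) := by
  rw [mem_deepQ] at ho
  unfold aliveX at ho
  by_cases h : m ≤ l1
  · rw [if_pos h, mem_alive] at ho
    obtain ⟨x, hx, h3, h4⟩ := ho
    rw [mem_alive]
    exact ⟨x, hx, by rw [← h3, anc_zc h2], h4⟩
  · rw [if_neg h, mem_alive] at ho
    obtain ⟨x, hx, h3, h4⟩ := ho
    rw [mem_alive]
    refine ⟨x, hx, ?_, h4⟩
    rw [← anc_anc h1 (le_of_not_ge h) o.2, ← anc_zc h1 x.2, h3]
    rfl

open Classical in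
/-- level-`l1` cells of the line `t` in the cell `J` of level `lv` -/
noncomputable def topc (I : Finset (ℕ × ℝ)) (l1 lv : ℕ) (t : ℕ) (J : ℤ) : Finset ℤ :=
  (I.filter fun y => y.1 = t ∧ zc lv y.2 = J).image fun y => zc l1 y.2

open Classical in
/-- deep cells of the line `t` in the cell `J` of level `lv` -/
noncomputable def deepc (I : Finset (ℕ × ℝ)) (l1 m lv : ℕ) (t : ℕ) (J : ℤ) : Finset ℤ :=
  ((deepQ I l1 m).filter fun o => o.1 = t ∧ anc lv m o.2 = J).image Prod.snd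

open Classical in
theorem mem_deepc {I : Finset (ℕ × ℝ)} {l1 m lv : ℕ} {t : ℕ} {J j : ℤ} :
    j ∈ deepc I l1 m lv t J ↔ (t, j) ∈ deepQ I l1 m ∧ anc lv m j = J := by
  unfold deepc
  rw [mem_image]
  constructor
  · rintro ⟨o, ho, rfl⟩
    obtain ⟨h1, h2, h3⟩ := mem_filter.1 ho
    refine ⟨?_, h3⟩
    rw [← h2]; exact h1
  · rintro ⟨h1, h2⟩
    exact ⟨(t, j), mem_filter.2 ⟨h1, rfl, h2⟩, rfl⟩

/-- the cells of level `m` below one cell of level `i` -/
theorem card_anc {i m : ℕ} (S : Finset ℤ) (J : ℤ) (hS : ∀ j ∈ S, anc i m j = J) :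
    S.card ≤ 2 ^ (m - i) := by
  have h1 : S ⊆ Ico (2 ^ (m - i) * J) (2 ^ (m - i) * (J + 1)) := by
    intro j hj
    obtain ⟨a, b⟩ := anc_eq.1 (hS j hj)
    exact mem_Ico.2 ⟨a, b⟩
  refine (card_le_card h1).trans (le_of_eq ?_)
  rw [Int.card_Ico]
  have : (2 : ℤ) ^ (m - i) * (J + 1) - 2 ^ (m - i) * J = ((2 ^ (m - i) : ℕ) : ℤ) := by
    push_cast; ring
  rw [this, Int.toNat_natCast]

theorem card_deepc_le {I : Finset (ℕ × ℝ)} {l1 m lv : ℕ} (t : ℕ) (J : ℤ) :
    (deepc I l1 m lv t J).card ≤ 2 ^ (m - lv) :=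
  card_anc _ J fun j hj => (mem_deepc.1 hj).2

open Classical in
/-- (L2) full shading at the top gives full shading at every integer level below `lv` -/
theorem card_deepc {I : Finset (ℕ × ℝ)} {lv l1 m : ℕ} (h1 : lv ≤ l1) (h2 : lv ≤ m) {X : ℝ}
    (hX : 0 ≤ X) {t : ℕ} {J : ℤ}
    (hown : (2:ℝ) ^ (l1 - lv) ≤ X * ((topc I l1 lv t J).card : ℝ)) :
    (2:ℝ) ^ (m - lv) ≤ X * ((deepc I l1 m lv t J).card : ℝ) := by
  rcases le_or_gt m l1 with h | h
  · -- above the top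
    have hc : (topc I l1 lv t J).card ≤ (deepc I l1 m lv t J).card * 2 ^ (l1 - m) := by
      have e : (topc I l1 lv t J).card = ∑ j ∈ deepc I l1 m lv t J,
          ((topc I l1 lv t J).filter fun j1 => anc m l1 j1 = j).card := by
        refine card_eq_sum_card_fiberwise fun j1 hj1 => ?_
        have hj1 : j1 ∈ topc I l1 lv t J := hj1
        show anc m l1 j1 ∈ deepc I l1 m lv t J
        unfold topc at hj1
        obtain ⟨y, hy, rfl⟩ := mem_image.1 hj1
        obtain ⟨hy1, hy2, hy3⟩ := mem_filter.1 hy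
        rw [anc_zc h, mem_deepc, mem_deepQ]
        refine ⟨?_, by rw [anc_zc h2]; exact hy3⟩
        unfold aliveX
        rw [if_pos h, mem_alive]
        exact ⟨y, hy1, rfl, hy2⟩
      rw [e, ← smul_eq_mul]
      refine sum_le_card_nsmul _ _ _ fun j _ => ?_
      exact card_anc _ j fun j1 hj1 => (mem_filter.1 hj1).2
    have hc' : ((topc I l1 lv t J).card : ℝ) ≤ (deepc I l1 m lv t J).card * 2 ^ (l1 - m) := by
      exact_mod_cast hc
    have e2 : (2:ℝ) ^ (l1 - lv) = 2 ^ (m - lv) * 2 ^ (l1 - m) := by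
      rw [← pow_add]; congr 1; omega
    rw [e2] at hown
    have hp : (0:ℝ) < 2 ^ (l1 - m) := by positivity
    have h3 : (2:ℝ) ^ (m - lv) * 2 ^ (l1 - m) ≤
        (X * ((deepc I l1 m lv t J).card : ℝ)) * 2 ^ (l1 - m) := by
      refine hown.trans ?_
      calc X * ((topc I l1 lv t J).card : ℝ) ≤ X * ((deepc I l1 m lv t J).card * 2 ^ (l1 - m)) :=
            mul_le_mul_of_nonneg_left hc' hX
        _ = _ := by ring
    exact le_of_mul_le_mul_right h3 hp
  · -- below the top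
    have hc : (topc I l1 lv t J).card * 2 ^ (m - l1) ≤ (deepc I l1 m lv t J).card := by
      have e : (deepc I l1 m lv t J).card = ∑ j1 ∈ topc I l1 lv t J,
          ((deepc I l1 m lv t J).filter fun j => anc l1 m j = j1).card := by
        refine card_eq_sum_card_fiberwise fun j hj => ?_
        have hj : j ∈ deepc I l1 m lv t J := hj
        show anc l1 m j ∈ topc I l1 lv t J
        obtain ⟨h3, h4⟩ := mem_deepc.1 hj
        rw [mem_deepQ] at h3
        unfold aliveX at h3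
        rw [if_neg (not_le.2 h), mem_alive] at h3
        obtain ⟨y, hy, h5, h6⟩ := h3
        unfold topc
        refine mem_image.2 ⟨y, mem_filter.2 ⟨hy, h6, ?_⟩, h5⟩
        rw [← anc_zc h1 y.2, h5, ← h4]
        exact anc_anc h1 h.le j
      rw [e, ← smul_eq_mul]
      refine card_nsmul_le_sum _ _ _ fun j1 hj1 => ?_
      unfold topc at hj1
      obtain ⟨y, hy, rfl⟩ := mem_image.1 hj1
      obtain ⟨hy1, hy2, hy3⟩ := mem_filter.1 hy
      have hI : (Ico (2 ^ (m - l1) * zc l1 y.2) (2 ^ (m - l1) * (zc l1 y.2 + 1)) : Finset ℤ) ⊆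
          (deepc I l1 m lv t J).filter fun j => anc l1 m j = zc l1 y.2 := by
        intro j hj
        rw [mem_Ico] at hj
        have h7 : anc l1 m j = zc l1 y.2 := anc_eq.2 hj
        refine mem_filter.2 ⟨mem_deepc.2 ⟨?_, ?_⟩, h7⟩
        · rw [mem_deepQ]
          unfold aliveX
          rw [if_neg (not_le.2 h), mem_alive]
          exact ⟨y, hy1, h7.symm, hy2⟩
        · rw [← anc_anc h1 h.le j, h7, anc_zc h1]; exact hy3
      refine le_trans (le_of_eq ?_) (card_le_card hI)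
      rw [Int.card_Ico]
      have : (2 : ℤ) ^ (m - l1) * (zc l1 y.2 + 1) - 2 ^ (m - l1) * zc l1 y.2 =
          ((2 ^ (m - l1) : ℕ) : ℤ) := by
        push_cast; ring
      rw [this, Int.toNat_natCast]
    have hc' : ((topc I l1 lv t J).card : ℝ) * 2 ^ (m - l1) ≤ (deepc I l1 m lv t J).card := by
      exact_mod_cast hc
    have e2 : (2:ℝ) ^ (m - lv) = 2 ^ (l1 - lv) * 2 ^ (m - l1) := by
      rw [← pow_add]; congr 1; omega
    rw [e2]
    calc (2:ℝ) ^ (l1 - lv) * 2 ^ (m - l1) ≤ (X * ((topc I l1 lv t J).card : ℝ)) * 2 ^ (m - l1) :=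
          mul_le_mul_of_nonneg_right hown (by positivity)
      _ = X * (((topc I l1 lv t J).card : ℝ) * 2 ^ (m - l1)) := by ring
      _ ≤ _ := mul_le_mul_of_nonneg_left hc' hX

open Classical in
/-- (L3) pairs of a class -/
theorem card_classQ {I : Finset (ℕ × ℝ)} {lv l1 m : ℕ} (h1 : lv ≤ l1) (h2 : lv ≤ m) {X : ℝ}
    (hX : 0 < X) {J : ℤ}
    (hown : ∀ t ∈ alive I lv J, (2:ℝ) ^ (l1 - lv) ≤ X * ((topc I l1 lv t J).card : ℝ))
    (f : ℕ → ℤ → ℕ) (a : ℕ) :
    (2:ℝ) ^ (m - lv) * (((alive I lv J).filter fun t => f t J = a).card : ℝ) ≤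
      X * (((deepQ I l1 m).filter fun o => anc lv m o.2 = J ∧ f o.1 (anc lv m o.2) = a).card : ℝ) := by
  set T := (alive I lv J).filter fun t => f t J = a with hT
  set Q := (deepQ I l1 m).filter fun o => anc lv m o.2 = J ∧ f o.1 (anc lv m o.2) = a with hQ
  have e : Q.card = ∑ t ∈ T, (Q.filter fun o => o.1 = t).card := by
    refine card_eq_sum_card_fiberwise fun o ho => ?_
    have ho : o ∈ Q := ho
    show o.1 ∈ T
    obtain ⟨h3, h4, h5⟩ := mem_filter.1 ho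
    have h6 := alive_anc h1 h2 h3
    rw [h4] at h6 h5
    exact mem_filter.2 ⟨h6, h5⟩
  have hf : ∀ t ∈ T, (2:ℝ) ^ (m - lv) ≤ X * ((Q.filter fun o => o.1 = t).card : ℝ) := by
    intro t ht
    obtain ⟨ht1, ht2⟩ := mem_filter.1 ht
    refine (card_deepc h1 h2 hX.le (hown t ht1)).trans ?_
    refine mul_le_mul_of_nonneg_left ?_ hX.le
    norm_cast
    refine card_le_card_of_injOn (fun j => (t, j)) (fun j hj => ?_) (fun a _ b _ h => by
      simpa using h)
    obtain ⟨h3, h4⟩ := mem_deepc.1 hj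
    rw [Finset.mem_coe, mem_filter, mem_filter]
    exact ⟨⟨h3, h4, by rw [h4]; exact ht2⟩, rfl⟩
  rw [e]
  push_cast
  rw [mul_sum]
  calc (2:ℝ) ^ (m - lv) * (T.card : ℝ) = ∑ t ∈ T, (2:ℝ) ^ (m - lv) := by
        rw [sum_const, nsmul_eq_mul]; ring
    _ ≤ _ := sum_le_sum hf

/-- class of the pair `o` : (cell of level `lv`, class number) -/
def clQ (lv m : ℕ) (f : ℕ → ℤ → ℕ) (o : ℕ × ℤ) : ℤ × ℕ := (anc lv m o.2, f o.1 (anc lv m o.2))

open Classical in
/-- number of boxes of a class -/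
theorem card_boxes {I : Finset (ℕ × ℝ)} {lv l1 m : ℕ} {β : Type*} (f : ℕ → ℤ → ℕ)
    (sb : ℕ × ℤ → β) {n1 : ℝ} (hn1 : 0 ≤ n1)
    (h : ∀ (c : ℤ × ℕ) (j : ℤ), ((((deepQ I l1 m).filter fun o => o.2 = j ∧ clQ lv m f o = c).image
      sb).card : ℝ) ≤ n1) (c : ℤ × ℕ) :
    ((((deepQ I l1 m).filter fun o => clQ lv m f o = c).image fun o => (o.2, sb o)).card : ℝ) ≤
      2 ^ (m - lv) * n1 := by
  set T := ((deepQ I l1 m).filter fun o => clQ lv m f o = c).image fun o => (o.2, sb o) with hT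
  have e : T.card = ∑ j ∈ T.image Prod.fst, (T.filter fun p => p.1 = j).card :=
    card_eq_sum_card_image _ _
  have h1 : (T.image Prod.fst).card ≤ 2 ^ (m - lv) := by
    refine card_anc _ c.1 fun j hj => ?_
    obtain ⟨p, hp, rfl⟩ := mem_image.1 hj
    obtain ⟨o, ho, rfl⟩ := mem_image.1 hp
    have := (mem_filter.1 ho).2
    rw [← this]; rfl
  have h2 : ∀ j ∈ T.image Prod.fst, (((T.filter fun p => p.1 = j).card : ℕ) : ℝ) ≤ n1 := by
    intro j _
    refine le_trans ?_ (h c j)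
    norm_cast
    refine card_le_card_of_injOn Prod.snd (fun p hp => ?_) (fun p hp p' hp' hpp => ?_)
    · obtain ⟨hp1, hp2⟩ := mem_filter.1 (Finset.mem_coe.1 hp)
      obtain ⟨o, ho, rfl⟩ := mem_image.1 hp1
      obtain ⟨ho1, ho2⟩ := mem_filter.1 ho
      exact Finset.mem_coe.2 (mem_image.2 ⟨o, mem_filter.2 ⟨ho1, hp2, ho2⟩, rfl⟩)
    · have q1 := (mem_filter.1 (Finset.mem_coe.1 hp)).2
      have q2 := (mem_filter.1 (Finset.mem_coe.1 hp')).2
      exact Prod.ext (q1.trans q2.symm) hpp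
  rw [e]
  push_cast
  calc ∑ j ∈ T.image Prod.fst, (((T.filter fun p => p.1 = j).card : ℕ) : ℝ)
      ≤ ∑ j ∈ T.image Prod.fst, n1 := sum_le_sum h2
    _ = ((T.image Prod.fst).card : ℝ) * n1 := by rw [sum_const, nsmul_eq_mul]
    _ ≤ _ := mul_le_mul_of_nonneg_right (by exact_mod_cast h1) hn1

open Classical in
/-- few bad cells on every line give few bad pairs -/
theorem card_bad {I : Finset (ℕ × ℝ)} {lv l1 m : ℕ} (Bad : Finset (ℕ × ℤ))
    (hB : Bad ⊆ deepQ I l1 m)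
    (h : ∀ (t : ℕ) (J : ℤ), t ∈ alive I lv J → (((deepc I l1 m lv t J).filter fun j =>
      (t, j) ∈ Bad).card : ℝ) * 4 ≤ ((deepc I l1 m lv t J).card : ℝ)) (h1 : lv ≤ l1) (h2 : lv ≤ m) :
    (Bad.card : ℝ) * 4 ≤ ((deepQ I l1 m).card : ℝ) := by
  set g : ℕ × ℤ → ℕ × ℤ := fun o => (o.1, anc lv m o.2) with hg
  set R := (deepQ I l1 m).image g with hR
  have e1 : Bad.card = ∑ r ∈ R, (Bad.filter fun o => g o = r).card :=
    card_eq_sum_card_fiberwise fun o ho => mem_image_of_mem _ (hB (Finset.mem_coe.1 ho))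
  have e2 : (deepQ I l1 m).card = ∑ r ∈ R, ((deepQ I l1 m).filter fun o => g o = r).card :=
    card_eq_sum_card_image _ _
  rw [e1, e2]
  push_cast
  rw [sum_mul]
  refine sum_le_sum fun r hr => ?_
  obtain ⟨o, ho, rfl⟩ := mem_image.1 hr
  have h3 := h o.1 (anc lv m o.2) (alive_anc h1 h2 ho)
  have a1 : (Bad.filter fun o' => g o' = g o).card ≤ ((deepc I l1 m lv o.1 (anc lv m o.2)).filter
      fun j => (o.1, j) ∈ Bad).card := by
    refine card_le_card_of_injOn Prod.snd (fun p hp => ?_) (fun p hp p' hp' hpp => ?_)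
    · obtain ⟨hp1, hp2⟩ := mem_filter.1 (Finset.mem_coe.1 hp)
      simp only [hg, Prod.mk.injEq] at hp2
      have e3 : (o.1, p.2) = p := by rw [← hp2.1]
      refine Finset.mem_coe.2 (mem_filter.2 ⟨mem_deepc.2 ⟨?_, hp2.2⟩, ?_⟩)
      · rw [e3]; exact hB hp1
      · rw [e3]; exact hp1
    · have q1 := (mem_filter.1 (Finset.mem_coe.1 hp)).2
      have q2 := (mem_filter.1 (Finset.mem_coe.1 hp')).2
      simp only [hg, Prod.mk.injEq] at q1 q2
      exact Prod.ext (q1.1.trans q2.1.symm) hpp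
  have a2 : (deepc I l1 m lv o.1 (anc lv m o.2)).card ≤
      ((deepQ I l1 m).filter fun o' => g o' = g o).card := by
    refine card_le_card_of_injOn (fun j => (o.1, j)) (fun j hj => ?_) (fun a _ b _ hab => by
      simpa using hab)
    obtain ⟨b1, b2⟩ := mem_deepc.1 (Finset.mem_coe.1 hj)
    refine Finset.mem_coe.2 (mem_filter.2 ⟨b1, ?_⟩)
    simp only [hg, b2]
  calc (((Bad.filter fun o' => g o' = g o).card : ℕ) : ℝ) * 4
      ≤ (((deepc I l1 m lv o.1 (anc lv m o.2)).filter fun j => (o.1, j) ∈ Bad).card : ℝ) * 4 := by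
        gcongr
    _ ≤ _ := h3
    _ ≤ _ := by exact_mod_cast a2

open Classical in
/-- **deep count on pairs (line, deep cell)** -/
theorem deep_stage {I : Finset (ℕ × ℝ)} {lu lv l1 m : ℕ} (hne : I.Nonempty) (huv : lu ≤ lv)
    (h1 : lv ≤ l1) (h2 : lv ≤ m) (fu fv : ℕ → ℤ → ℕ) {β β' : Type*} (sb : ℕ × ℤ → β)
    (tb : ℕ × ℤ → β') (Bad : Finset (ℕ × ℤ)) {X Nu Nv n1 n2 s0 D : ℝ} (hX : 0 < X)
    (hNu : 0 ≤ Nu) (hn1 : 0 < n1) (hn2 : 0 < n2) (hs0 : 0 ≤ s0)
    (hownv : ∀ J, ∀ t ∈ alive I lv J, (2:ℝ) ^ (l1 - lv) ≤ X * ((topc I l1 lv t J).card : ℝ))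
    (hownu : ∀ J, ∀ t ∈ alive I lu J, (2:ℝ) ^ (l1 - lu) ≤ X * ((topc I l1 lu t J).card : ℝ))
    (hnearv : ∀ J, ∀ t ∈ alive I lv J, Nv ≤ (((alive I lv J).filter fun s => fv s J = fv t J).card : ℝ))
    (hnearu : ∀ J, ∀ t ∈ alive I lu J, Nu ≤ (((alive I lu J).filter fun s => fu s J = fu t J).card : ℝ))
    (hbox1 : ∀ (c : ℤ × ℕ) (j : ℤ), ((((deepQ I l1 m).filter fun o => o.2 = j ∧
      clQ lv m fv o = c).image sb).card : ℝ) ≤ n1)
    (hbox2 : ∀ (c : ℤ × ℕ) (j : ℤ), ((((deepQ I l1 m).filter fun o => o.2 = j ∧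
      clQ lu m fu o = c).image tb).card : ℝ) ≤ n2)
    (hBs : Bad ⊆ deepQ I l1 m)
    (hbad : ∀ (t : ℕ) (J : ℤ), t ∈ alive I lv J → (((deepc I l1 m lv t J).filter fun j =>
      (t, j) ∈ Bad).card : ℝ) * 4 ≤ ((deepc I l1 m lv t J).card : ℝ))
    (cap : ∀ o ∈ deepQ I l1 m, o ∉ Bad → (((deepQ I l1 m).filter fun y => y.2 = o.2 ∧
      clQ lv m fv y = clQ lv m fv o ∧ sb y = sb o ∧ clQ lu m fu y = clQ lu m fu o).card : ℝ) ≤ s0)
    (coin : ∀ o ∈ deepQ I l1 m, (((deepQ I l1 m).filter fun z => z.2 = o.2 ∧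
      ∃ y ∈ deepQ I l1 m, y.2 = o.2 ∧ clQ lv m fv y = clQ lv m fv o ∧ sb y = sb o ∧
        clQ lu m fu z = clQ lu m fu y ∧ tb z = tb y).card : ℝ) ≤ D) :
    Nv * Nu ≤ 16 * X ^ 2 * n1 * n2 * s0 * D := by
  have hQne : (deepQ I l1 m).Nonempty := by
    obtain ⟨x, hx⟩ := hne
    have hx1 : x.1 ∈ alive I lv (zc lv x.2) := mem_alive.2 ⟨x, hx, rfl, rfl⟩
    have h3 := card_deepc h1 h2 hX.le (hownv _ _ hx1)
    have h4 : (0:ℝ) < (2:ℝ) ^ (m - lv) := by positivity
    have h5 : 0 < X * ((deepc I l1 m lv x.1 (zc lv x.2)).card : ℝ) := lt_of_lt_of_le h4 h3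
    have h6 : (0:ℝ) < ((deepc I l1 m lv x.1 (zc lv x.2)).card : ℝ) := by
      by_contra h7
      have h8 : ((deepc I l1 m lv x.1 (zc lv x.2)).card : ℝ) = 0 :=
        le_antisymm (not_lt.1 h7) (Nat.cast_nonneg _)
      rw [h8, mul_zero] at h5
      exact lt_irrefl _ h5
    obtain ⟨j, hj⟩ := card_pos.1 (by exact_mod_cast h6 : 0 < (deepc I l1 m lv x.1 (zc lv x.2)).card)
    exact ⟨_, (mem_deepc.1 hj).1⟩
  have hp1 : (0:ℝ) < 2 ^ (m - lv) := by positivity
  have hp2 : (0:ℝ) < 2 ^ (m - lu) := by positivity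
  have hM : ∀ (l : ℕ) (f : ℕ → ℤ → ℕ) (N : ℝ), l ≤ l1 → l ≤ m →
      (∀ J, ∀ t ∈ alive I l J, (2:ℝ) ^ (l1 - l) ≤ X * ((topc I l1 l t J).card : ℝ)) →
      (∀ J, ∀ t ∈ alive I l J, N ≤ (((alive I l J).filter fun s => f s J = f t J).card : ℝ)) →
      ∀ x ∈ deepQ I l1 m, 2 ^ (m - l) * N / X ≤
        (((deepQ I l1 m).filter fun y => clQ l m f y = clQ l m f x).card : ℝ) := by
    intro l f N hl1 hlm ho hn x hx
    have h3 := alive_anc hl1 hlm hx
    have h4 := card_classQ hl1 hlm hX (ho (anc l m x.2)) f (f x.1 (anc l m x.2))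
    have h5 := hn _ _ h3
    rw [div_le_iff₀ hX]
    have h6 : ((deepQ I l1 m).filter fun o => anc l m o.2 = anc l m x.2 ∧
        f o.1 (anc l m o.2) = f x.1 (anc l m x.2)) =
        (deepQ I l1 m).filter fun y => clQ l m f y = clQ l m f x := by
      ext y
      simp only [mem_filter, clQ, Prod.mk.injEq]
    rw [h6] at h4
    calc (2:ℝ) ^ (m - l) * N ≤ 2 ^ (m - l) *
          (((alive I l (anc l m x.2)).filter fun s => f s (anc l m x.2) =
            f x.1 (anc l m x.2)).card : ℝ) := by gcongr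
      _ ≤ _ := h4
      _ = _ := by ring
  have key := deep_count (deepQ I l1 m) Bad (clQ lv m fv) (fun o => (o.2, sb o)) (clQ lu m fu)
    (fun o => (o.2, tb o)) (M1 := 2 ^ (m - lv) * Nv / X) (M2 := 2 ^ (m - lu) * Nu / X)
    (K1 := 2 ^ (m - lv) * n1) (K2 := 2 ^ (m - lu) * n2) (s0 := s0) (D := D)
    (mul_pos hp1 hn1) (mul_pos hp2 hn2) hs0 (div_nonneg (mul_nonneg hp2.le hNu) hX.le) hQne
    (card_bad Bad hBs hbad h1 h2) (hM lv fv Nv h1 h2 hownv hnearv)
    (fun x _ => by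
      have := card_boxes (I := I) (l1 := l1) fv sb hn1.le hbox1 (clQ lv m fv x)
      exact this)
    (hM lu fu Nu (huv.trans h1) (huv.trans h2) hownu hnearu)
    (fun x _ => by
      have := card_boxes (I := I) (l1 := l1) fu tb hn2.le hbox2 (clQ lu m fu x)
      exact this)
    (fun x hx hxB => by
      refine le_trans ?_ (cap x hx hxB)
      norm_cast
      refine card_le_card fun y hy => ?_
      obtain ⟨q1, ⟨q2, q3⟩, q4⟩ := mem_filter.1 hy
      rw [Prod.mk.injEq] at q3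
      exact mem_filter.2 ⟨q1, q3.1, q2, q3.2, q4⟩)
    (fun x hx => by
      refine le_trans ?_ (coin x hx)
      norm_cast
      refine card_le_card fun z hz => ?_
      obtain ⟨q1, y, q2, ⟨q3, q4⟩, q5, q6⟩ := mem_filter.1 hz
      rw [Prod.mk.injEq] at q4 q6
      exact mem_filter.2 ⟨q1, q6.1.trans q4.1, y, q2, q4.1, q3, q4.2, q5, q6.2⟩)
  have e : 2 ^ (m - lv) * Nv / X * (2 ^ (m - lu) * Nu / X) =
      (2 ^ (m - lv) * 2 ^ (m - lu)) * (Nv * Nu / X ^ 2) := by ring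
  have e' : 16 * (2 ^ (m - lv) * n1) * (2 ^ (m - lu) * n2) * s0 * D =
      (2 ^ (m - lv) * 2 ^ (m - lu)) * (16 * n1 * n2 * s0 * D) := by ring
  rw [e, e'] at key
  have k2 := le_of_mul_le_mul_left key (mul_pos hp1 hp2)
  rw [div_le_iff₀ (by positivity)] at k2
  linarith

end Crest.Agent.R136.Deep51
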