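import Crest.Agent.R136.KDef5_879

/-!
# R136 (S0187): the class of sheets with free chart width (helper321)

`ShC` : as `ShN` (class C*), but the half-width `w 0` of the chart is free, `a ≤ w 0 ≤ w 2 ≤ w 1`,
and on the doubled box `∂_{e 0} q ∈ [1/2, 2]`, `|∂_{e 1} q| ≤ w 0 / w 1`, `|∂_{e 2} q| ≤ w 0 / w 2`
(`q / w 0` is bounded in the coordinates of the box).

* `ShN.toC` : class C* is contained in `ShC`; `ShC.toSheet`; `clsOK_C`.
* `ShC.of_step` : `ShC` from slopes; `ShC.sub` : sub-boxes; `ShC.cigar` : a cigar in `ShC` is `ShN`.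
* `flat_ShC` : flat boxes; `DMaxC`, `DMaxC.toN`.
-/

set_option autoImplicit false
set_option linter.unusedVariables false

namespace Crest.Agent.R136.Sh321

open Finset Sh605 K4

/-- **sheets with free chart width** -/
structure ShC (e : Fin 3 → V3) (c : Ln4) (w : V3) (q : ℝ → V3 → ℝ) (a z0 ρ r0 : ℝ) : Prop where
  ortho : Ortho e
  isQ : IsQ q
  r0_le : r0 ≤ a
  w0_ge : a ≤ w 0
  w0_le : w 0 ≤ w 2
  w_le : w 2 ≤ w 1
  st0 : ∀ z, z0 ≤ z → z ≤ z0 + ρ → ∀ (x : V3) (τ : ℝ), 0 ≤ τ → InK e c (dbl3 w) z x →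
    InK e c (dbl3 w) z (x + τ • e 0) →
      τ / 2 ≤ q z (x + τ • e 0) - q z x ∧ q z (x + τ • e 0) - q z x ≤ 2 * τ
  st1 : ∀ z, z0 ≤ z → z ≤ z0 + ρ → ∀ (x : V3) (τ : ℝ), 0 ≤ τ → InK e c (dbl3 w) z x →
    InK e c (dbl3 w) z (x + τ • e 1) → |q z (x + τ • e 1) - q z x| ≤ w 0 / w 1 * τ
  st2 : ∀ z, z0 ≤ z → z ≤ z0 + ρ → ∀ (x : V3) (τ : ℝ), 0 ≤ τ → InK e c (dbl3 w) z x →
    InK e c (dbl3 w) z (x + τ • e 2) → |q z (x + τ • e 2) - q z x| ≤ w 0 / w 2 * τ

variable {e : Fin 3 → V3} {c : Ln4} {w : V3} {q : ℝ → V3 → ℝ} {a z0 ρ r0 : ℝ}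

/-- **class C\* is contained in `ShC`** -/
theorem ShN.toC (hr : 0 < r0) (h : ShN e c w q a z0 ρ r0) : ShC e c w q a z0 ρ r0 where
  ortho := h.ortho
  isQ := h.isQ
  r0_le := h.r0_le
  w0_ge := h.a_le0
  w0_le := h.w0_le
  w_le := h.w_le
  st0 := h.st0
  st1 := h.sl1
  st2 := h.sl2

/-- since the migration of 02:50 `ShN` and `ShC` are the same class -/
theorem ShC.toN (h : ShC e c w q a z0 ρ r0) : ShN e c w q a z0 ρ r0 where
  ortho := h.ortho
  isQ := h.isQ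
  a_le0 := h.w0_ge
  w0_le := h.w0_le
  w_le := h.w_le
  r0_le := h.r0_le
  st0 := h.st0
  sl1 := h.st1
  sl2 := h.st2

/-- a cigar of `ShC` is in the class of cigars `ShN0` -/
theorem ShC.cigar (hr : 0 < r0) (h : ShC e c w q a z0 ρ r0) (h0 : w 0 = w 2) :
    ShN0 e c w q a z0 ρ r0 where
  ortho := h.ortho
  isQ := h.isQ
  w0_eq := h0
  a_le := h.w0_ge.trans h.w0_le
  w_le := h.w_le
  r0_le := h.r0_le
  st0 := h.st0
  st1 := by
    intro z hz hz' x τ hτ hx hx'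
    rw [← h0]
    exact h.st1 z hz hz' x τ hτ hx hx'
  st2 := by
    intro z hz hz' x τ hτ hx hx'
    have p : 0 < w 2 := ((hr.trans_le h.r0_le).trans_le h.w0_ge).trans_le h.w0_le
    have := h.st2 z hz hz' x τ hτ hx hx'
    rwa [h0, div_self p.ne', one_mul] at this

theorem ShC.pos (hr : 0 < r0) (h : ShC e c w q a z0 ρ r0) :
    0 < a ∧ 0 < w 0 ∧ 0 < w 2 ∧ 0 < w 1 := by
  have h0 := hr.trans_le h.r0_le
  have h1 := h0.trans_le h.w0_ge
  have h2 := h1.trans_le h.w0_le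
  exact ⟨h0, h1, h2, h2.trans_le h.w_le⟩

theorem ShC.a_le (h : ShC e c w q a z0 ρ r0) : a ≤ w 2 := h.w0_ge.trans h.w0_le

/-- slope along the narrow axis, weak form (as in class C*) -/
theorem ShC.st2p (hr : 0 < r0) (h : ShC e c w q a z0 ρ r0) : ∀ z, z0 ≤ z → z ≤ z0 + ρ →
    ∀ (x : V3) (τ : ℝ), 0 ≤ τ → InK e c (dbl3 w) z x →
    InK e c (dbl3 w) z (x + τ • e 2) → |q z (x + τ • e 2) - q z x| ≤ τ := by
  intro z hz hz' x τ hτ hx hx'
  obtain ⟨-, -, p2, -⟩ := h.pos hr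
  refine (h.st2 z hz hz' x τ hτ hx hx').trans ?_
  have : w 0 / w 2 ≤ 1 := (div_le_one p2).2 h.w0_le
  nlinarith

/-- slope along the wide axis, weak form (as in class C*) -/
theorem ShC.st1p (hr : 0 < r0) (h : ShC e c w q a z0 ρ r0) : ∀ z, z0 ≤ z → z ≤ z0 + ρ →
    ∀ (x : V3) (τ : ℝ), 0 ≤ τ → InK e c (dbl3 w) z x →
    InK e c (dbl3 w) z (x + τ • e 1) → |q z (x + τ • e 1) - q z x| ≤ w 2 / w 1 * τ := by
  intro z hz hz' x τ hτ hx hx'
  obtain ⟨-, -, p2, p1⟩ := h.pos hr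
  refine (h.st1 z hz hz' x τ hτ hx hx').trans ?_
  exact mul_le_mul_of_nonneg_right (div_le_div_of_nonneg_right h.w0_le p1.le) hτ

/-- **sub-boxes**: same function, same frame, a smaller box inside, slopes still small -/
theorem ShC.sub (hr : 0 < r0) (h : ShC e c w q a z0 ρ r0) {c' : Ln4} {w' : V3} {a' z0' ρ' : ℝ}
    (hz : z0 ≤ z0') (hz' : z0' + ρ' ≤ z0 + ρ)
    (hbox : ∀ z, z0' ≤ z → z ≤ z0' + ρ' → ∀ x, InK e c' (dbl3 w') z x → InK e c (dbl3 w) z x)
    (ha : r0 ≤ a') (ha' : a' ≤ w' 0) (h02 : w' 0 ≤ w' 2) (h21 : w' 2 ≤ w' 1)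
    (s1 : w 0 * w' 1 ≤ w' 0 * w 1) (s2 : w 0 * w' 2 ≤ w' 0 * w 2) :
    ShC e c' w' q a' z0' ρ' r0 where
  ortho := h.ortho
  isQ := h.isQ
  r0_le := ha
  w0_ge := ha'
  w0_le := h02
  w_le := h21
  st0 := by
    intro z k k' x τ hτ hx hx'
    exact h.st0 z (hz.trans k) (k'.trans hz') x τ hτ (hbox z k k' _ hx) (hbox z k k' _ hx')
  st1 := by
    intro z k k' x τ hτ hx hx'
    obtain ⟨-, -, -, p1⟩ := h.pos hr
    have p1' : 0 < w' 1 := (((hr.trans_le ha).trans_le ha').trans_le h02).trans_le h21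
    refine (h.st1 z (hz.trans k) (k'.trans hz') x τ hτ (hbox z k k' _ hx)
      (hbox z k k' _ hx')).trans (mul_le_mul_of_nonneg_right ?_ hτ)
    rw [div_le_div_iff₀ p1 p1']
    exact s1
  st2 := by
    intro z k k' x τ hτ hx hx'
    obtain ⟨-, -, p2, -⟩ := h.pos hr
    have p2' : 0 < w' 2 := ((hr.trans_le ha).trans_le ha').trans_le h02
    refine (h.st2 z (hz.trans k) (k'.trans hz') x τ hτ (hbox z k k' _ hx)
      (hbox z k k' _ hx')).trans (mul_le_mul_of_nonneg_right ?_ hτ)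
    rw [div_le_div_iff₀ p2 p2']
    exact s2

/-- `ShC` at resolution `r0` is a `Sheet` at resolution `r0 / 4` -/
theorem ShC.toSheet (hr : 0 < r0) (h : ShC e c w q a z0 ρ r0) :
    Sheet e c w q a z0 ρ (r0 / 2 ^ 2) := by
  obtain ⟨pa, p0, p2, p1⟩ := h.pos hr
  have hd : ∀ i, dbl w i ≤ dbl3 w i := by
    intro i
    fin_cases i
    · show w 0 ≤ 2 * w 0; linarith
    · exact le_rfl
    · exact le_rfl
  have hin : ∀ {z : ℝ} {x : V3}, InK e c (dbl w) z x → InK e c (dbl3 w) z x :=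
    fun hx i => (hx i).trans (hd i)
  refine ⟨h.ortho, h.isQ, ?_, h.a_le, h.w_le, ?_, ?_⟩
  · intro z hz0 hz1 x τ hτ hx hx'
    exact h.st0 z hz0 hz1 x τ hτ (hin hx) (hin hx')
  · have : r0 / 2 ^ 2 ≤ r0 := div_le_self hr.le (by norm_num)
    linarith [h.r0_le]
  · refine ⟨4, by norm_num, ?_, by
      have := h.r0_le
      have e1 : r0 / 2 ^ 2 * 4 = r0 := by ring
      rw [e1]; exact this⟩
    intro z hz0 hz1 x x' hx hx'
    set t : Fin 3 → ℝ := fun i => dt (e i) (x - x') with ht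
    have hxe : x = x' + t 0 • e 0 + t 1 • e 1 + t 2 • e 2 := by
      funext j
      have := h.ortho.expand (x - x') j
      simp only [Pi.sub_apply] at this
      simp only [Pi.add_apply, Pi.smul_apply, smul_eq_mul, ht]
      linarith
    set x1 : V3 := x' + t 0 • e 0 with hx1
    set x2 : V3 := x1 + t 1 • e 1 with hx2
    have hx3 : x = x2 + t 2 • e 2 := by rw [hx2, hx1]; exact hxe
    have c1 : InK e c (dbl3 w) z x1 := by
      intro i
      rw [hx1, KR879.dt_move]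
      fin_cases i
      · show |dt (e 0) (x' - c.pos z) + t 0 * dt (e 0) (e 0)| ≤ dbl3 w 0
        rw [KR879.dt_self h.ortho, mul_one, ht]
        have : dt (e 0) (x' - c.pos z) + dt (e 0) (x - x') = dt (e 0) (x - c.pos z) := by
          simp only [dt, Pi.sub_apply]; ring
        simp only [this]
        exact hin hx 0
      · show |dt (e 1) (x' - c.pos z) + t 0 * dt (e 1) (e 0)| ≤ dbl3 w 1
        rw [KR879.dt_ne h.ortho (by decide : (1 : Fin 3) ≠ 0), mul_zero, add_zero]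
        exact hin hx' 1
      · show |dt (e 2) (x' - c.pos z) + t 0 * dt (e 2) (e 0)| ≤ dbl3 w 2
        rw [KR879.dt_ne h.ortho (by decide : (2 : Fin 3) ≠ 0), mul_zero, add_zero]
        exact hin hx' 2
    have c2 : InK e c (dbl3 w) z x2 := by
      intro i
      rw [hx2, KR879.dt_move]
      fin_cases i
      · show |dt (e 0) (x1 - c.pos z) + t 1 * dt (e 0) (e 1)| ≤ dbl3 w 0
        rw [KR879.dt_ne h.ortho (by decide : (0 : Fin 3) ≠ 1), mul_zero, add_zero]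
        exact c1 0
      · show |dt (e 1) (x1 - c.pos z) + t 1 * dt (e 1) (e 1)| ≤ dbl3 w 1
        rw [KR879.dt_self h.ortho, mul_one, ht]
        have e2 : dt (e 1) (x1 - c.pos z) = dt (e 1) (x' - c.pos z) := by
          rw [hx1, KR879.dt_move, KR879.dt_ne h.ortho (by decide : (1 : Fin 3) ≠ 0), mul_zero,
            add_zero]
        have : dt (e 1) (x1 - c.pos z) + dt (e 1) (x - x') = dt (e 1) (x - c.pos z) := by
          rw [e2]; simp only [dt, Pi.sub_apply]; ring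
        simp only [this]
        exact hin hx 1
      · show |dt (e 2) (x1 - c.pos z) + t 1 * dt (e 2) (e 1)| ≤ dbl3 w 2
        rw [KR879.dt_ne h.ortho (by decide : (2 : Fin 3) ≠ 1), mul_zero, add_zero]
        exact c1 2
    have m0 := step_move (q := q) (k := 0) (Λ := 2) (fun y τ hτ hy hy' => by
      have := h.st0 z hz0 hz1 y τ hτ hy hy'
      rw [abs_le]; constructor <;> linarith [this.1, this.2]) (hin hx') c1
    have m1 := step_move (q := q) (k := 1) (Λ := 1) (fun y τ hτ hy hy' => by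
      refine (h.st1p hr z hz0 hz1 y τ hτ hy hy').trans ?_
      have : w 2 / w 1 ≤ 1 := (div_le_one p1).2 h.w_le
      nlinarith) c1 c2
    have m2 := step_move (q := q) (k := 2) (Λ := 1) (fun y τ hτ hy hy' => by
      refine (h.st2p hr z hz0 hz1 y τ hτ hy hy').trans ?_
      linarith) c2 (by rw [← hx3]; exact hin hx)
    rw [← hx1] at m0
    rw [← hx2] at m1
    rw [← hx3] at m2
    have d0 := abs_dt_le (e := e 0) (x := x - x') (KR879.dt_self h.ortho 0)
    have d1 := abs_dt_le (e := e 1) (x := x - x') (KR879.dt_self h.ortho 1)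
    have d2 := abs_dt_le (e := e 2) (x := x - x') (KR879.dt_self h.ortho 2)
    simp only [Pi.sub_apply] at d0 d1 d2
    have hsum : |q z x - q z x'| ≤ |q z x1 - q z x'| + |q z x2 - q z x1| + |q z x - q z x2| := by
      have e1 : q z x - q z x' = (q z x1 - q z x') + (q z x2 - q z x1) + (q z x - q z x2) := by
        ring
      rw [e1]
      refine (abs_add_le _ _).trans ?_
      have := abs_add_le (q z x1 - q z x') (q z x2 - q z x1)
      linarith
    simp only [ht] at m0 m1 m2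
    linarith

/-- legal sheets of level `m` at resolution `r` (the slope cap is not used) -/
def LegC (m : ℕ) (r _Λm : ℝ) (K : Plk4) : Prop :=
  ShC K.e K.c K.w K.q K.a ((K.j : ℝ) / 2 ^ m) (1 / 2 ^ m) r ∧ K.w 1 ≤ 1 / 2 ^ m

theorem LegN.toC {m : ℕ} {r Λ : ℝ} {K : Plk4} (hr : 0 < r) (h : LegN m r Λ K) : LegC m r Λ K :=
  ⟨ShN.toC hr h.1, h.2⟩

/-- **the class with free chart width satisfies what the enemy needs** -/
theorem clsOK_C : ClsOK LegC 2 where
  sheet := by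
    intro r Λm K hr h hj
    have h1 := h.1
    rw [hj] at h1
    have h2 : ShC K.e K.c K.w K.q K.a 0 1 r := by simpa using h1
    exact h2.toSheet hr
  width := by
    intro r Λm K _ h
    refine ⟨h.1.r0_le, h.1.a_le, h.1.w_le, ?_⟩
    have := h.2
    simp only [pow_zero, div_one] at this
    linarith
  cube := by
    intro m r Λm o hr _ hrm
    exact ⟨ShN.toC hr (cubeN o.1 hr), hrm⟩

/-- the function of a flat box -/
def qfl (e : Fin 3 → V3) (c : Ln4) : ℝ → V3 → ℝ := fun z x => dt (e 0) (x - c.pos z)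

theorem qfl_add (e : Fin 3 → V3) (c : Ln4) (z : ℝ) (x : V3) (τ : ℝ) (u : V3) :
    qfl e c z (x + τ • u) - qfl e c z x = τ * dt (e 0) u := by
  simp only [qfl, dt, Pi.sub_apply, Pi.add_apply, Pi.smul_apply, smul_eq_mul]
  ring

/-- **flat orthonormal boxes**, any chart width -/
theorem flat_ShC {e : Fin 3 → V3} (he : Ortho e) (c : Ln4) {a w0 w1 w2 z0 ρ r0 : ℝ} (ha : 0 < a)
    (hr : r0 ≤ a) (h0 : a ≤ w0) (h2 : w0 ≤ w2) (h1 : w2 ≤ w1) :
    ShC e c ![w0, w1, w2] (qfl e c) a z0 ρ r0 where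
  ortho := he
  isQ := by
    refine ⟨-(dt (e 0) c.p), -(dt (e 0) c.v), 0, e 0, 0, 0, fun z x => ?_⟩
    simp only [qfl, dt, Pi.sub_apply, Ln4.pos, Fin.sum_univ_three, Pi.zero_apply]
    ring
  r0_le := hr
  w0_ge := h0
  w0_le := h2
  w_le := h1
  st0 := by
    intro z _ _ x τ hτ _ _
    have h := he 0 0
    rw [if_pos rfl] at h
    rw [qfl_add, h, mul_one]
    constructor <;> linarith
  st1 := by
    intro z _ _ x τ hτ _ _
    have h := he 0 1
    rw [if_neg (by decide)] at h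
    rw [qfl_add, h, mul_zero, abs_zero]
    have p0 : 0 < w0 := lt_of_lt_of_le ha h0
    have p2 : 0 < w2 := lt_of_lt_of_le p0 h2
    have p1 : 0 < w1 := lt_of_lt_of_le p2 h1
    exact mul_nonneg (div_pos p0 p1).le hτ
  st2 := by
    intro z _ _ x τ hτ _ _
    have h := he 0 2
    rw [if_neg (by decide)] at h
    rw [qfl_add, h, mul_zero, abs_zero]
    have p0 : 0 < w0 := lt_of_lt_of_le ha h0
    have p2 : 0 < w2 := lt_of_lt_of_le p0 h2
    exact mul_nonneg (div_pos p0 p2).le hτ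

open Classical in
/-- **D-max for the class `ShC`**, reward `R a (w 2) (w 1)` -/
def DMaxC {ι : Type} (A : Finset ι) (L : ι → Ln4) (z0 ρ D : ℝ) (R : ℝ → ℝ → ℝ → ℝ)
    (r0 wmax : ℝ) : Prop :=
  ∀ (e : Fin 3 → V3) (c : Ln4) (w : V3) (q : ℝ → V3 → ℝ) (a : ℝ), ShC e c w q a z0 ρ r0 →
    w 1 ≤ wmax →
    ((A.filter fun t => InSheet (L t) e c w q a z0 ρ).card : ℝ) ≤
      D * (a * w 2 * w 1 * R a (w 2) (w 1))

theorem DMaxC.toN {ι : Type} {A : Finset ι} {L : ι → Ln4} {z0 ρ D : ℝ} {R : ℝ → ℝ → ℝ → ℝ}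
    {r0 wmax : ℝ} (hr : 0 < r0) (h : DMaxC A L z0 ρ D R r0 wmax) :
    DMaxN A L z0 ρ D R r0 wmax := by
  intro e c w q a hs hw
  exact h e c w q a (ShN.toC hr hs) hw

end Crest.Agent.R136.Sh321
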