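import Mathlib
import Crest.Agent.R136.Deep2_51
import Crest.Agent.R136.Sh7_321

/-!
# R136 (U5 TILT), geometry of the deep count (helper51)

Class `ShC`.  Offsets in the steep direction, frames, labels of boxes, test sheets.
-/

set_option autoImplicit false
set_option linter.unusedVariables false

open Finset

namespace Crest.Agent.R136.Deep51

open Crest.Agent.R136.Sh605 Crest.Agent.R136.Sh321 Crest.Agent.R136.K4

/-! ### linear algebra -/

theorem dt_exp {e' : Fin 3 → V3} (h : Ortho e') (x D : V3) :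
    dt x D = dt x (e' 0) * dt (e' 0) D + dt x (e' 1) * dt (e' 1) D + dt x (e' 2) * dt (e' 2) D := by
  have h0 := h.expand D 0
  have h1 := h.expand D 1
  have h2 := h.expand D 2
  have : dt x D = x 0 * D 0 + x 1 * D 1 + x 2 * D 2 := rfl
  rw [this, h0, h1, h2]
  simp only [dt]
  ring

theorem dt_self_nonneg (x : V3) : 0 ≤ dt x x := by
  unfold dt; nlinarith [mul_self_nonneg (x 0), mul_self_nonneg (x 1), mul_self_nonneg (x 2)]

theorem dt_cs (x y : V3) : (dt x y) ^ 2 ≤ dt x x * dt y y := by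
  unfold dt
  nlinarith [sq_nonneg (x 0 * y 1 - x 1 * y 0), sq_nonneg (x 0 * y 2 - x 2 * y 0),
    sq_nonneg (x 1 * y 2 - x 2 * y 1)]

theorem abs_dt_unit {e e' : Fin 3 → V3} (h : Ortho e) (h' : Ortho e') (i j : Fin 3) :
    |dt (e i) (e' j)| ≤ 1 := by
  have h1 := dt_cs (e i) (e' j)
  rw [h i i, h' j j, if_pos rfl, if_pos rfl, mul_one] at h1
  rw [abs_le]
  constructor <;> nlinarith

/-- offsets in one frame from the offsets in another one -/
theorem abs_dt_exp {e e' : Fin 3 → V3} (h : Ortho e) (h' : Ortho e') (i : Fin 3) (D : V3) :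
    |dt (e i) D| ≤ |dt (e i) (e' 0)| * |dt (e' 0) D| + |dt (e i) (e' 1)| * |dt (e' 1) D| +
      |dt (e i) (e' 2)| * |dt (e' 2) D| := by
  rw [dt_exp h' (e i) D]
  refine (abs_add_le _ _).trans ?_
  have h1 := abs_add_le (dt (e i) (e' 0) * dt (e' 0) D) (dt (e i) (e' 1) * dt (e' 1) D)
  rw [abs_mul, abs_mul] at h1
  rw [abs_mul (dt (e i) (e' 2))]
  linarith

theorem dt_pos_sub (x : V3) (t T : Ln4) (z : ℝ) :
    dt x (t.pos z - T.pos z) = dt x (t.p - T.p) + z * dt x (t.v - T.v) := by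
  simp only [dt, Ln4.pos, Pi.sub_apply]; ring

/-- offset of two lines at the height `z` from the offset at the height `ζ` -/
theorem dt_pos_move (x : V3) (t T : Ln4) (z ζ : ℝ) :
    dt x (t.pos z - T.pos z) = dt x (t.pos ζ - T.pos ζ) + (z - ζ) * dt x (t.v - T.v) := by
  rw [dt_pos_sub, dt_pos_sub]; ring

theorem abs_dt_move {x : V3} {t T : Ln4} {z ζ μ ν ρ : ℝ} (h : |dt x (t.pos ζ - T.pos ζ)| ≤ μ)
    (hv : |dt x (t.v - T.v)| * ρ ≤ ν) (hz : |z - ζ| ≤ ρ) :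
    |dt x (t.pos z - T.pos z)| ≤ μ + ν := by
  rw [dt_pos_move x t T z ζ]
  refine (abs_add_le _ _).trans (add_le_add h ?_)
  rw [abs_mul, mul_comm]
  exact (mul_le_mul_of_nonneg_left hz (abs_nonneg _)).trans hv

/-- velocities of two lines which are close at both ends of an interval -/
theorem abs_vel {x : V3} {t T : Ln4} {z0 ρ m : ℝ} (hρ : 0 ≤ ρ)
    (h0 : |dt x (t.pos z0 - T.pos z0)| ≤ m) (h1 : |dt x (t.pos (z0 + ρ) - T.pos (z0 + ρ))| ≤ m) :
    |dt x (t.v - T.v)| * ρ ≤ 2 * m := by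
  have e := dt_pos_move x t T (z0 + ρ) z0
  have e2 : (z0 + ρ - z0) * dt x (t.v - T.v) =
      dt x (t.pos (z0 + ρ) - T.pos (z0 + ρ)) - dt x (t.pos z0 - T.pos z0) := by rw [e]; ring
  have e3 : |dt x (t.v - T.v)| * ρ = |(z0 + ρ - z0) * dt x (t.v - T.v)| := by
    rw [abs_mul, add_sub_cancel_left, abs_of_nonneg hρ]; ring
  rw [e3, e2]
  refine (abs_sub _ _).trans ?_
  linarith

theorem dt_tri (x y z w : V3) : |dt x (y - z)| ≤ |dt x (y - w)| + |dt x (w - z)| := by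
  have : dt x (y - z) = dt x (y - w) + dt x (w - z) := by
    simp only [dt, Pi.sub_apply]; ring
  rw [this]; exact abs_add_le _ _

theorem dt_swap (x y z : V3) : |dt x (y - z)| = |dt x (z - y)| := by
  have : dt x (y - z) = -dt x (z - y) := by simp only [dt, Pi.sub_apply]; ring
  rw [this, abs_neg]

/-! ### steepness -/

section
variable {e : Fin 3 → V3} {c : Ln4} {w : V3} {q : ℝ → V3 → ℝ} {a z0 ρ r0 : ℝ}

/-- **offset in the steep direction** of two points of the doubled box -/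
theorem steep_off (hr : 0 < r0) (h : ShC e c w q a z0 ρ r0) {z : ℝ} (hz0 : z0 ≤ z)
    (hz1 : z ≤ z0 + ρ) {x y : V3} (hx : InK e c (dbl3 w) z x) (hy : InK e c (dbl3 w) z y) :
    |dt (e 0) (y - x)| ≤ 2 * (|q z y| + |q z x| + w 0 / w 1 * |dt (e 1) (y - x)| +
      w 0 / w 2 * |dt (e 2) (y - x)|) := by
  set t : Fin 3 → ℝ := fun i => dt (e i) (y - x) with ht
  have hye : y = x + t 1 • e 1 + t 2 • e 2 + t 0 • e 0 := by
    funext j
    have := h.ortho.expand (y - x) j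
    simp only [Pi.sub_apply] at this
    simp only [Pi.add_apply, Pi.smul_apply, smul_eq_mul, ht]
    linarith
  set x1 : V3 := x + t 1 • e 1 with hx1
  set x2 : V3 := x1 + t 2 • e 2 with hx2
  have hx3 : y = x2 + t 0 • e 0 := by rw [hx2, hx1]; exact hye
  have key : ∀ i, dt (e i) (x - c.pos z) + dt (e i) (y - x) = dt (e i) (y - c.pos z) := by
    intro i; simp only [dt, Pi.sub_apply]; ring
  have c1 : InK e c (dbl3 w) z x1 := by
    intro i
    rw [hx1, KR879.dt_move]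
    fin_cases i
    · show |dt (e 0) (x - c.pos z) + t 1 * dt (e 0) (e 1)| ≤ dbl3 w 0
      rw [KR879.dt_ne h.ortho (by decide : (0 : Fin 3) ≠ 1), mul_zero, add_zero]
      exact hx 0
    · show |dt (e 1) (x - c.pos z) + t 1 * dt (e 1) (e 1)| ≤ dbl3 w 1
      rw [KR879.dt_self h.ortho, mul_one]
      simp only [ht, key]
      exact hy 1
    · show |dt (e 2) (x - c.pos z) + t 1 * dt (e 2) (e 1)| ≤ dbl3 w 2
      rw [KR879.dt_ne h.ortho (by decide : (2 : Fin 3) ≠ 1), mul_zero, add_zero]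
      exact hx 2
  have c2 : InK e c (dbl3 w) z x2 := by
    intro i
    rw [hx2, KR879.dt_move]
    fin_cases i
    · show |dt (e 0) (x1 - c.pos z) + t 2 * dt (e 0) (e 2)| ≤ dbl3 w 0
      rw [KR879.dt_ne h.ortho (by decide : (0 : Fin 3) ≠ 2), mul_zero, add_zero]
      exact c1 0
    · show |dt (e 1) (x1 - c.pos z) + t 2 * dt (e 1) (e 2)| ≤ dbl3 w 1
      rw [KR879.dt_ne h.ortho (by decide : (1 : Fin 3) ≠ 2), mul_zero, add_zero]
      exact c1 1
    · show |dt (e 2) (x1 - c.pos z) + t 2 * dt (e 2) (e 2)| ≤ dbl3 w 2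
      rw [KR879.dt_self h.ortho, mul_one]
      have e2 : dt (e 2) (x1 - c.pos z) = dt (e 2) (x - c.pos z) := by
        rw [hx1, KR879.dt_move, KR879.dt_ne h.ortho (by decide : (2 : Fin 3) ≠ 1), mul_zero,
          add_zero]
      rw [e2]
      simp only [ht, key]
      exact hy 2
  have m1 := step_move (q := q) (k := 1) (Λ := w 0 / w 1) (fun y τ hτ hy hy' =>
    h.st1 z hz0 hz1 y τ hτ hy hy') hx c1
  have m2 := step_move (q := q) (k := 2) (Λ := w 0 / w 2) (fun y τ hτ hy hy' =>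
    h.st2 z hz0 hz1 y τ hτ hy hy') c1 c2
  rw [← hx1] at m1
  rw [← hx2] at m2
  have m0 : |t 0| / 2 ≤ |q z y - q z x2| := by
    rcases le_total 0 (t 0) with h0 | h0
    · have := (h.st0 z hz0 hz1 x2 (t 0) h0 c2 (by rw [← hx3]; exact hy)).1
      rw [← hx3] at this
      rw [abs_of_nonneg h0]
      exact this.trans (le_abs_self _)
    · have e1 : y + (-t 0) • e 0 = x2 := by
        rw [hx3, add_assoc, ← add_smul]; simp
      have := (h.st0 z hz0 hz1 y (-t 0) (by linarith) hy (by rw [e1]; exact c2)).1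
      rw [e1] at this
      rw [abs_of_nonpos h0, abs_sub_comm]
      refine le_trans ?_ (le_abs_self _)
      linarith
  have hs : |q z y - q z x2| ≤ |q z y| + |q z x| + |q z x1 - q z x| + |q z x2 - q z x1| := by
    have e1 : q z y - q z x2 = q z y - q z x - (q z x1 - q z x) - (q z x2 - q z x1) := by ring
    rw [e1]
    refine (abs_sub _ _).trans ?_
    have k1 := abs_sub (q z y - q z x) (q z x1 - q z x)
    have k2 := abs_sub (q z y) (q z x)
    linarith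
  simp only [ht] at m0 m1 m2
  linarith

/-- two lines of one sheet -/
theorem off_lines (hr : 0 < r0) (h : ShC e c w q a z0 ρ r0) {t T : Ln4}
    (ht : InSheet t e c w q a z0 ρ) (hT : InSheet T e c w q a z0 ρ) {z : ℝ} (hz0 : z0 ≤ z)
    (hz1 : z ≤ z0 + ρ) :
    |dt (e 0) (t.pos z - T.pos z)| ≤ 2 * (2 * a + w 0 / w 1 * |dt (e 1) (t.pos z - T.pos z)| +
      w 0 / w 2 * |dt (e 2) (t.pos z - T.pos z)|) := by
  obtain ⟨pa, p0, p2, p1⟩ := h.pos hr
  have hp : ∀ i, 0 ≤ w i := by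
    intro i; fin_cases i
    · exact p0.le
    · exact p1.le
    · exact p2.le
  have hin : ∀ {x : V3}, InK e c w z x → InK e c (dbl3 w) z x := fun hx i => (hx i).trans (by
    show w i ≤ 2 * w i
    linarith [hp i])
  have := steep_off hr h hz0 hz1 (hin (hT z hz0 hz1).1) (hin (ht z hz0 hz1).1)
  have h1 := (hT z hz0 hz1).2
  have h2 := (ht z hz0 hz1).2
  linarith

/-- relative velocity of two lines of one sheet -/
theorem vel_lines (hρ : 0 ≤ ρ) {t T : Ln4} (ht : InSheet t e c w q a z0 ρ)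
    (hT : InSheet T e c w q a z0 ρ) (k : Fin 3) :
    |dt (e k) (t.v - T.v)| * ρ ≤ 4 * w k := by
  have h0 : ∀ z, z0 ≤ z → z ≤ z0 + ρ → |dt (e k) (t.pos z - T.pos z)| ≤ 2 * w k := by
    intro z h1 h2
    have := dt_tri (e k) (t.pos z) (T.pos z) (c.pos z)
    have k1 := (ht z h1 h2).1 k
    have k2 := (hT z h1 h2).1 k
    rw [dt_swap (e k) (c.pos z) (T.pos z)] at this
    linarith
  have := abs_vel (x := e k) hρ (h0 z0 le_rfl (by linarith)) (h0 (z0 + ρ) (by linarith) le_rfl)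
  linarith

end

/-! ### labels of boxes -/

theorem card_floor {ι : Type*} [DecidableEq ι] (F : Finset ι) (f : ι → ℝ) {M μ : ℝ} (hμ : 0 < μ)
    (hM0 : 0 ≤ M) (hM : ∀ i ∈ F, |f i| ≤ M) :
    ((F.image fun i => ⌊f i / μ⌋).card : ℝ) ≤ 2 * (M / μ) + 2 := by
  have h1 : (F.image fun i => ⌊f i / μ⌋) ⊆ Icc ⌊-(M / μ)⌋ ⌊M / μ⌋ := by
    intro j hj
    obtain ⟨i, hi, rfl⟩ := mem_image.1 hj
    have h2 := abs_le.1 (hM i hi)
    rw [mem_Icc]
    constructor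
    · apply Int.floor_le_floor
      rw [← neg_div]
      exact div_le_div_of_nonneg_right h2.1 hμ.le
    · exact Int.floor_le_floor (div_le_div_of_nonneg_right h2.2 hμ.le)
  have h2 := card_le_card h1
  rw [Int.card_Icc] at h2
  have h3 : (0:ℝ) ≤ M / μ := div_nonneg hM0 hμ.le
  have h4 : (0 : ℤ) ≤ ⌊M / μ⌋ + 1 - ⌊-(M / μ)⌋ := by
    have a1 : (0:ℤ) ≤ ⌊M / μ⌋ := Int.floor_nonneg.2 h3
    have a2 : ⌊-(M / μ)⌋ ≤ 0 := by
      have : (⌊-(M / μ)⌋ : ℝ) ≤ -(M / μ) := Int.floor_le _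
      have h5 : (⌊-(M / μ)⌋ : ℝ) ≤ 0 := by linarith
      exact_mod_cast h5
    omega
  have h5 : ((⌊M / μ⌋ + 1 - ⌊-(M / μ)⌋).toNat : ℝ) ≤ 2 * (M / μ) + 2 := by
    have e : ((⌊M / μ⌋ + 1 - ⌊-(M / μ)⌋).toNat : ℝ) = ((⌊M / μ⌋ + 1 - ⌊-(M / μ)⌋ : ℤ) : ℝ) := by
      have := Int.toNat_of_nonneg h4
      exact_mod_cast this
    rw [e]
    push_cast
    have a1 : (⌊M / μ⌋ : ℝ) ≤ M / μ := Int.floor_le _
    have a2 : -(M / μ) < (⌊-(M / μ)⌋ : ℝ) + 1 := Int.lt_floor_add_one _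
    linarith
  exact le_trans (by exact_mod_cast h2) h5

theorem card_image_pair {ι α β : Type*} [DecidableEq α] [DecidableEq β] (F : Finset ι)
    (f : ι → α) (g : ι → β) :
    (F.image fun i => (f i, g i)).card ≤ (F.image f).card * (F.image g).card := by
  rw [← card_product]
  refine card_le_card fun p hp => ?_
  obtain ⟨i, hi, rfl⟩ := mem_image.1 hp
  exact mem_product.2 ⟨mem_image_of_mem _ hi, mem_image_of_mem _ hi⟩

/-- label of a line: positions and velocities in the base directions -/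
noncomputable def lab4 (e : Fin 3 → V3) (c : Ln4) (μ1 μ2 ν1 ν2 ζ : ℝ) (t : Ln4) :
    (ℤ × ℤ) × (ℤ × ℤ) :=
  ((⌊dt (e 1) (t.pos ζ - c.pos ζ) / μ1⌋, ⌊dt (e 2) (t.pos ζ - c.pos ζ) / μ2⌋),
    (⌊dt (e 1) (t.v - c.v) / ν1⌋, ⌊dt (e 2) (t.v - c.v) / ν2⌋))

theorem floor_close {x y μ : ℝ} (hμ : 0 < μ) (h : ⌊x / μ⌋ = ⌊y / μ⌋) : |x - y| ≤ μ := by
  have h1 := Int.abs_sub_lt_one_of_floor_eq_floor h
  rw [← sub_div, abs_div, abs_of_pos hμ, div_lt_one hμ] at h1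
  exact h1.le

theorem lab4_close {e : Fin 3 → V3} {c : Ln4} {μ1 μ2 ν1 ν2 ζ : ℝ} {t T : Ln4} (h1 : 0 < μ1)
    (h2 : 0 < μ2) (h3 : 0 < ν1) (h4 : 0 < ν2)
    (h : lab4 e c μ1 μ2 ν1 ν2 ζ t = lab4 e c μ1 μ2 ν1 ν2 ζ T) :
    (|dt (e 1) (t.pos ζ - T.pos ζ)| ≤ μ1 ∧ |dt (e 2) (t.pos ζ - T.pos ζ)| ≤ μ2) ∧
      |dt (e 1) (t.v - T.v)| ≤ ν1 ∧ |dt (e 2) (t.v - T.v)| ≤ ν2 := by
  simp only [lab4, Prod.mk.injEq] at h
  obtain ⟨⟨k1, k2⟩, k3, k4⟩ := h
  have e1 : ∀ x : V3, ∀ A B C : V3, dt x (A - C) - dt x (B - C) = dt x (A - B) := by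
    intro x A B C; simp only [dt, Pi.sub_apply]; ring
  have a1 := floor_close h1 k1
  have a2 := floor_close h2 k2
  have a3 := floor_close h3 k3
  have a4 := floor_close h4 k4
  rw [e1] at a1 a2 a3 a4
  exact ⟨⟨a1, a2⟩, a3, a4⟩

theorem card_lab4 {ι : Type*} [DecidableEq ι] (F : Finset ι) (t : ι → Ln4) {e : Fin 3 → V3}
    {c : Ln4} {μ1 μ2 ν1 ν2 ζ : ℝ} (h1 : 0 < μ1) (h2 : 0 < μ2) (h3 : 0 < ν1) (h4 : 0 < ν2)
    {M1 M2 N1 N2 : ℝ} (hM1 : 0 ≤ M1) (hM2 : 0 ≤ M2) (hN1 : 0 ≤ N1) (hN2 : 0 ≤ N2)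
    (k1 : ∀ i ∈ F, |dt (e 1) ((t i).pos ζ - c.pos ζ)| ≤ M1)
    (k2 : ∀ i ∈ F, |dt (e 2) ((t i).pos ζ - c.pos ζ)| ≤ M2)
    (k3 : ∀ i ∈ F, |dt (e 1) ((t i).v - c.v)| ≤ N1)
    (k4 : ∀ i ∈ F, |dt (e 2) ((t i).v - c.v)| ≤ N2) :
    ((F.image fun i => lab4 e c μ1 μ2 ν1 ν2 ζ (t i)).card : ℝ) ≤
      ((2 * (M1 / μ1) + 2) * (2 * (M2 / μ2) + 2)) * ((2 * (N1 / ν1) + 2) * (2 * (N2 / ν2) + 2)) := by
  have a1 := card_floor F (fun i => dt (e 1) ((t i).pos ζ - c.pos ζ)) h1 hM1 k1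
  have a2 := card_floor F (fun i => dt (e 2) ((t i).pos ζ - c.pos ζ)) h2 hM2 k2
  have a3 := card_floor F (fun i => dt (e 1) ((t i).v - c.v)) h3 hN1 k3
  have a4 := card_floor F (fun i => dt (e 2) ((t i).v - c.v)) h4 hN2 k4
  have b1 := card_image_pair F (fun i => ⌊dt (e 1) ((t i).pos ζ - c.pos ζ) / μ1⌋)
    (fun i => ⌊dt (e 2) ((t i).pos ζ - c.pos ζ) / μ2⌋)
  have b2 := card_image_pair F (fun i => ⌊dt (e 1) ((t i).v - c.v) / ν1⌋)
    (fun i => ⌊dt (e 2) ((t i).v - c.v) / ν2⌋)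
  have b3 := card_image_pair F (fun i => (⌊dt (e 1) ((t i).pos ζ - c.pos ζ) / μ1⌋,
    ⌊dt (e 2) ((t i).pos ζ - c.pos ζ) / μ2⌋)) (fun i => (⌊dt (e 1) ((t i).v - c.v) / ν1⌋,
    ⌊dt (e 2) ((t i).v - c.v) / ν2⌋))
  have b1' := (Nat.cast_le (α := ℝ)).2 b1
  have b2' := (Nat.cast_le (α := ℝ)).2 b2
  have b3' := (Nat.cast_le (α := ℝ)).2 b3
  rw [Nat.cast_mul] at b1' b2' b3'
  refine le_trans b3' ?_
  refine mul_le_mul (b1'.trans ?_) (b2'.trans ?_) (Nat.cast_nonneg _) ?_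
  · exact mul_le_mul a1 a2 (Nat.cast_nonneg _) (by positivity)
  · exact mul_le_mul a3 a4 (Nat.cast_nonneg _) (by positivity)
  · positivity

/-! ### test sheets -/

/-- half-widths of the test sheets -/
def tw (w : V3) (A G G' : ℝ) : V3 := ![max (G * w 0) (8 * A), G' * w 1, G * w 2]

section
variable {e : Fin 3 → V3} {c : Ln4} {w : V3} {q : ℝ → V3 → ℝ} {a z0 ρ r0 : ℝ}

/-- **test sheet** around a line of the sheet -/
theorem test_shC (hr : 0 < r0) (h : ShC e c w q a z0 ρ r0) {T : Ln4}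
    (hT : InSheet T e c w q a z0 ρ) {A G G' z1 ρ1 : ℝ} (haA : a ≤ A) (hA : 16 * A ≤ w 0)
    (hG : 0 < G) (hG1 : G ≤ 1 / 2) (hGG : G' ≤ G) (hGw : G * w 2 ≤ G' * w 1) (hAG : 8 * A ≤ G * w 2)
    (hz : z0 ≤ z1) (hz' : z1 + ρ1 ≤ z0 + ρ) :
    ShC e T (tw w A G G') q A z1 ρ1 r0 := by
  obtain ⟨pa, p0, p2, p1⟩ := h.pos hr
  have hA0 : 0 < A := pa.trans_le haA
  have t0 : tw w A G G' 0 = max (G * w 0) (8 * A) := rfl
  have t1 : tw w A G G' 1 = G' * w 1 := rfl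
  have t2 : tw w A G G' 2 = G * w 2 := rfl
  have m0 : max (G * w 0) (8 * A) ≤ w 0 / 2 := max_le (by nlinarith) (by linarith)
  refine h.sub hr hz hz' ?_ (h.r0_le.trans haA) ?_ ?_ ?_ ?_ ?_
  · intro z k k' x hx i
    have h1 := (hT z (hz.trans k) (k'.trans hz')).1 i
    have h2 := hx i
    have h3 := dt_tri (e i) x (c.pos z) (T.pos z)
    have h4 : dbl3 (tw w A G G') i + w i ≤ dbl3 w i := by
      show 2 * tw w A G G' i + w i ≤ 2 * w i
      fin_cases i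
      · show 2 * tw w A G G' 0 + w 0 ≤ 2 * w 0
        rw [t0]; linarith
      · show 2 * tw w A G G' 1 + w 1 ≤ 2 * w 1
        rw [t1]; nlinarith
      · show 2 * tw w A G G' 2 + w 2 ≤ 2 * w 2
        rw [t2]; nlinarith
    linarith
  · rw [t0]; exact le_trans (by linarith) (le_max_right _ _)
  · rw [t0, t2]; exact max_le (mul_le_mul_of_nonneg_left h.w0_le hG.le) hAG
  · rw [t1, t2]; exact hGw
  · rw [t0, t1]
    calc w 0 * (G' * w 1) = G' * (w 0 * w 1) := by ring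
      _ ≤ G * (w 0 * w 1) := mul_le_mul_of_nonneg_right hGG (by positivity)
      _ = (G * w 0) * w 1 := by ring
      _ ≤ _ := mul_le_mul_of_nonneg_right (le_max_left _ _) p1.le
  · rw [t0, t2]
    calc w 0 * (G * w 2) = (G * w 0) * w 2 := by ring
      _ ≤ _ := mul_le_mul_of_nonneg_right (le_max_left _ _) p2.le

/-- **lines of the sheet near `T`** lie in the test sheet -/
theorem mem_test (hr : 0 < r0) (h : ShC e c w q a z0 ρ r0) {T t : Ln4}
    (hT : InSheet T e c w q a z0 ρ) (ht : InSheet t e c w q a z0 ρ) {A G G' z1 ρ1 : ℝ}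
    (haA : a ≤ A) (hG : 0 < G) (hGG : G' ≤ G)
    (hz : z0 ≤ z1) (hz' : z1 + ρ1 ≤ z0 + ρ)
    (k1 : ∀ z, z1 ≤ z → z ≤ z1 + ρ1 → |dt (e 1) (t.pos z - T.pos z)| ≤ G' / 8 * w 1)
    (k2 : ∀ z, z1 ≤ z → z ≤ z1 + ρ1 → |dt (e 2) (t.pos z - T.pos z)| ≤ G / 8 * w 2) :
    InSheet t e T (tw w A G G') q A z1 ρ1 := by
  obtain ⟨pa, p0, p2, p1⟩ := h.pos hr
  have hA0 : 0 < A := pa.trans_le haA
  intro z a1 a2
  have b1 := k1 z a1 a2
  have b2 := k2 z a1 a2
  have b0 := off_lines hr h ht hT (hz.trans a1) (a2.trans hz')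
  have hG'0 : 0 ≤ G' := by
    have := (abs_nonneg _).trans b1
    by_contra hc
    push Not at hc
    nlinarith
  refine ⟨fun i => ?_, ((ht z (hz.trans a1) (a2.trans hz')).2).trans haA⟩
  have c1 : w 0 / w 1 * |dt (e 1) (t.pos z - T.pos z)| ≤ G / 8 * w 0 := by
    calc w 0 / w 1 * |dt (e 1) (t.pos z - T.pos z)| ≤ w 0 / w 1 * (G' / 8 * w 1) :=
          mul_le_mul_of_nonneg_left b1 (by positivity)
      _ = G' / 8 * w 0 := by field_simp
      _ ≤ _ := by nlinarith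
  have c2 : w 0 / w 2 * |dt (e 2) (t.pos z - T.pos z)| ≤ G / 8 * w 0 := by
    calc w 0 / w 2 * |dt (e 2) (t.pos z - T.pos z)| ≤ w 0 / w 2 * (G / 8 * w 2) :=
          mul_le_mul_of_nonneg_left b2 (by positivity)
      _ = _ := by field_simp
  fin_cases i
  · show |dt (e 0) (t.pos z - T.pos z)| ≤ max (G * w 0) (8 * A)
    have m1 := le_max_left (G * w 0) (8 * A)
    have m2 := le_max_right (G * w 0) (8 * A)
    linarith
  · show |dt (e 1) (t.pos z - T.pos z)| ≤ G' * w 1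
    nlinarith
  · show |dt (e 2) (t.pos z - T.pos z)| ≤ G * w 2
    nlinarith

end

end Crest.Agent.R136.Deep51
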