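import Mathlib
import Crest.Agent.R136.Deep3_51

/-!
# R136 (U5 TILT): the hull of a small box, the deep count on an arbitrary part (helper51)

* `CoinC` : coincidence of two sheets near a common line.
* `hull_mem` : lines of the second sheet near a line of both lie in one test sheet of the first one.
* `tilt_stage` : deep count with explicit deficits, on an arbitrary set `P` of objects.
-/

set_option autoImplicit false
set_option linter.unusedVariables false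

open Finset

namespace Crest.Agent.R136.Deep51

open Crest.Agent.R136.Sh605 Crest.Agent.R136.Sh321 Crest.Agent.R136.K4
open Crest.Agent.R138.Mk163 (zc zl rho alive own)

/-- **coincidence** near the line `T` : points of the second sheet at distance at most `m1, m2` from
`T` along its axes `e' 1, e' 2` lie in the first sheet fattened to `A`. -/
def CoinC (e : Fin 3 → V3) (w : V3) (q : ℝ → V3 → ℝ) (e' : Fin 3 → V3) (c' : Ln4) (w' : V3)
    (q' : ℝ → V3 → ℝ) (a' A m1 m2 : ℝ) (T : Ln4) (z0 ρ : ℝ) : Prop :=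
  ∀ z, z0 ≤ z → z ≤ z0 + ρ → ∀ x : V3, InK e' c' w' z x → |q' z x| ≤ a' →
    |dt (e' 1) (x - T.pos z)| ≤ m1 → |dt (e' 2) (x - T.pos z)| ≤ m2 →
      |dt (e 0) (x - T.pos z)| ≤ w 0 / 2 ∧ |q z x| ≤ A

/-- **closeness** : points of the first sheet in an eighth of the base box around `T` lie in the
second sheet fattened to `E`. -/
def CloseC (e : Fin 3 → V3) (w : V3) (q : ℝ → V3 → ℝ) (a : ℝ) (q' : ℝ → V3 → ℝ) (E : ℝ) (T : Ln4)
    (z0 ρ : ℝ) : Prop :=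
  ∀ z, z0 ≤ z → z ≤ z0 + ρ → ∀ x : V3, InK e T (fun i => w i / 8) z x → |q z x| ≤ a →
    |q' z x| ≤ E

theorem CoinC.anti {e e' : Fin 3 → V3} {c' : Ln4} {w w' : V3} {q q' : ℝ → V3 → ℝ}
    {a' A B m1 m2 n1 n2 : ℝ} {T : Ln4} {z0 ρ z1 ρ1 : ℝ}
    (h : CoinC e w q e' c' w' q' a' A m1 m2 T z0 ρ) (hAB : A ≤ B) (h1 : n1 ≤ m1)
    (h2 : n2 ≤ m2) (hz : z0 ≤ z1) (hz' : z1 + ρ1 ≤ z0 + ρ) :
    CoinC e w q e' c' w' q' a' B n1 n2 T z1 ρ1 := by
  intro z a b x c d f g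
  obtain ⟨k1, k2⟩ := h z (hz.trans a) (b.trans hz') x c d (f.trans h1) (g.trans h2)
  exact ⟨k1, k2.trans hAB⟩

section
variable {e : Fin 3 → V3} {c : Ln4} {w : V3} {q : ℝ → V3 → ℝ} {a z0 ρ r0 : ℝ}
variable {e' : Fin 3 → V3} {c' : Ln4} {w' : V3} {q' : ℝ → V3 → ℝ} {a' z0' ρ' r0' : ℝ}

/-- offsets in the first frame from offsets in the second one -/
theorem frame_off (h : Ortho e) (h' : Ortho e') {D : V3} {m1 m2 δ γ : ℝ}
    (d0 : |dt (e' 0) D| ≤ δ) (d1 : |dt (e' 1) D| ≤ m1) (d2 : |dt (e' 2) D| ≤ m2)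
    (hγ : |dt (e 1) (e' 2)| ≤ γ) (hγ' : |dt (e 2) (e' 1)| ≤ γ) :
    |dt (e 1) D| ≤ δ + m1 + γ * m2 ∧ |dt (e 2) D| ≤ δ + γ * m1 + m2 := by
  have hγ0 : 0 ≤ γ := (abs_nonneg _).trans hγ
  constructor
  · have g := abs_dt_exp h h' 1 D
    have g0 : |dt (e 1) (e' 0)| * |dt (e' 0) D| ≤ 1 * δ :=
      mul_le_mul (abs_dt_unit h h' 1 0) d0 (abs_nonneg _) zero_le_one
    have g1 : |dt (e 1) (e' 1)| * |dt (e' 1) D| ≤ 1 * m1 :=
      mul_le_mul (abs_dt_unit h h' 1 1) d1 (abs_nonneg _) zero_le_one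
    have g2 : |dt (e 1) (e' 2)| * |dt (e' 2) D| ≤ γ * m2 :=
      mul_le_mul hγ d2 (abs_nonneg _) hγ0
    linarith
  · have g := abs_dt_exp h h' 2 D
    have g0 : |dt (e 2) (e' 0)| * |dt (e' 0) D| ≤ 1 * δ :=
      mul_le_mul (abs_dt_unit h h' 2 0) d0 (abs_nonneg _) zero_le_one
    have g1 : |dt (e 2) (e' 1)| * |dt (e' 1) D| ≤ γ * m1 :=
      mul_le_mul hγ' d1 (abs_nonneg _) hγ0
    have g2 : |dt (e 2) (e' 2)| * |dt (e' 2) D| ≤ 1 * m2 :=
      mul_le_mul (abs_dt_unit h h' 2 2) d2 (abs_nonneg _) zero_le_one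
    linarith

/-- a point near the line `t` of the sheet, in the fattened sheet, lies in the test box of `T` -/
theorem box_of_near (hr : 0 < r0) (h : ShC e c w q a z0 ρ r0) {T t : Ln4}
    (hT : InSheet T e c w q a z0 ρ) (ht : InSheet t e c w q a z0 ρ) {z : ℝ} (hz0 : z0 ≤ z)
    (hz1 : z ≤ z0 + ρ) {x : V3} {A G G' : ℝ} (haA : a ≤ A) (hG : 0 < G) (hG1 : G ≤ 1 / 2)
    (hGG : G' ≤ G) (c0 : |dt (e 0) (x - t.pos z)| ≤ w 0 / 2)
    (c1 : |dt (e 1) (x - t.pos z)| ≤ w 1) (c2 : |dt (e 2) (x - t.pos z)| ≤ w 2)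
    (cA : |q z x| ≤ A) (F1 : |dt (e 1) (x - T.pos z)| ≤ G' / 8 * w 1)
    (F2 : |dt (e 2) (x - T.pos z)| ≤ G / 8 * w 2) : InK e T (tw w A G G') z x := by
  obtain ⟨pa, p0, p2, p1⟩ := h.pos hr
  have hn : ∀ i, |dt (e i) (x - t.pos z)| ≤ w i := by
    intro i; fin_cases i
    · exact c0.trans (show w 0 / 2 ≤ w 0 by linarith)
    · exact c1
    · exact c2
  have hbt : InK e c (dbl3 w) z x := by
    intro i
    have g1 := dt_tri (e i) x (c.pos z) (t.pos z)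
    have g2 := (ht z hz0 hz1).1 i
    show |dt (e i) (x - c.pos z)| ≤ 2 * w i
    linarith [hn i]
  have hp : ∀ i, 0 ≤ w i := by
    intro i; fin_cases i
    · exact p0.le
    · exact p1.le
    · exact p2.le
  have hbT : InK e c (dbl3 w) z (T.pos z) := fun i => ((hT z hz0 hz1).1 i).trans (by
    show w i ≤ 2 * w i
    linarith [hp i])
  have so := steep_off hr h hz0 hz1 hbT hbt
  have hqT := (hT z hz0 hz1).2
  have s1 : w 0 / w 1 * |dt (e 1) (x - T.pos z)| ≤ G / 8 * w 0 := by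
    calc w 0 / w 1 * |dt (e 1) (x - T.pos z)| ≤ w 0 / w 1 * (G' / 8 * w 1) :=
          mul_le_mul_of_nonneg_left F1 (by positivity)
      _ = G' / 8 * w 0 := by field_simp
      _ ≤ _ := by nlinarith
  have s2 : w 0 / w 2 * |dt (e 2) (x - T.pos z)| ≤ G / 8 * w 0 := by
    calc w 0 / w 2 * |dt (e 2) (x - T.pos z)| ≤ w 0 / w 2 * (G / 8 * w 2) :=
          mul_le_mul_of_nonneg_left F2 (by positivity)
      _ = _ := by field_simp
  have q1 : G' / 8 * w 1 ≤ G' * w 1 := by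
    have := (abs_nonneg _).trans F1
    have e1 : G' * w 1 = 8 * (G' / 8 * w 1) := by ring
    rw [e1]; linarith
  have q2 : G / 8 * w 2 ≤ G * w 2 := by
    have := (abs_nonneg _).trans F2
    have e1 : G * w 2 = 8 * (G / 8 * w 2) := by ring
    rw [e1]; linarith
  have q0 : |dt (e 0) (x - T.pos z)| ≤ max (G * w 0) (8 * A) := by
    have M1 := le_max_left (G * w 0) (8 * A)
    have M2 := le_max_right (G * w 0) (8 * A)
    linarith only [so, hqT, s1, s2, cA, haA, M1, M2]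
  intro i
  fin_cases i
  · exact q0
  · exact F1.trans q1
  · exact F2.trans q2

/-- **hull** : `T, t` lines of the first sheet, `t, t'` lines of the second one, close at the
scale `m1, m2`; coincidence at `t`.  Then `t'` lies in the test sheet around `T`. -/
theorem hull_mem (hr : 0 < r0) (h : ShC e c w q a z0 ρ r0) (hr' : 0 < r0')
    (h' : ShC e' c' w' q' a' z0' ρ' r0') {T t t' : Ln4} (hT : InSheet T e c w q a z0 ρ)
    (ht : InSheet t e c w q a z0 ρ) (ht' : InSheet t e' c' w' q' a' z0' ρ')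
    (hs : InSheet t' e' c' w' q' a' z0' ρ') {z1 ρ1 : ℝ} (hz : z0 ≤ z1) (hz' : z1 + ρ1 ≤ z0 + ρ)
    (hu : z0' ≤ z1) (hu' : z1 + ρ1 ≤ z0' + ρ') {m1 m2 δ γ A G G' : ℝ}
    (k1 : ∀ z, z1 ≤ z → z ≤ z1 + ρ1 → |dt (e 1) (t.pos z - T.pos z)| ≤ m1)
    (k2 : ∀ z, z1 ≤ z → z ≤ z1 + ρ1 → |dt (e 2) (t.pos z - T.pos z)| ≤ m2)
    (l1 : ∀ z, z1 ≤ z → z ≤ z1 + ρ1 → |dt (e' 1) (t'.pos z - t.pos z)| ≤ m1)
    (l2 : ∀ z, z1 ≤ z → z ≤ z1 + ρ1 → |dt (e' 2) (t'.pos z - t.pos z)| ≤ m2)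
    (hc : CoinC e w q e' c' w' q' a' A m1 m2 t z1 ρ1)
    (hδ : 2 * (2 * a' + w' 0 / w' 1 * m1 + w' 0 / w' 2 * m2) ≤ δ)
    (hγ : |dt (e 1) (e' 2)| ≤ γ) (hγ' : |dt (e 2) (e' 1)| ≤ γ)
    (b1 : 2 * m1 + δ + γ * m2 ≤ G' / 8 * w 1) (b2 : 2 * m2 + δ + γ * m1 ≤ G / 8 * w 2)
    (haA : a ≤ A) (hG : 0 < G) (hG1 : G ≤ 1 / 2) (hGG : G' ≤ G) :
    InSheet t' e T (tw w A G G') q A z1 ρ1 := by
  obtain ⟨pa, p0, p2, p1⟩ := h.pos hr
  obtain ⟨pa', p0', p2', p1'⟩ := h'.pos hr'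
  intro z a1 a2
  have K1 := k1 z a1 a2
  have K2 := k2 z a1 a2
  have L1 := l1 z a1 a2
  have L2 := l2 z a1 a2
  clear k1 k2 l1 l2
  have m10 : 0 ≤ m1 := (abs_nonneg _).trans K1
  have m20 : 0 ≤ m2 := (abs_nonneg _).trans K2
  have d0 : |dt (e' 0) (t'.pos z - t.pos z)| ≤ δ := by
    refine (off_lines hr' h' hs ht' (hu.trans a1) (a2.trans hu')).trans (le_trans ?_ hδ)
    have g1 : w' 0 / w' 1 * |dt (e' 1) (t'.pos z - t.pos z)| ≤ w' 0 / w' 1 * m1 :=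
      mul_le_mul_of_nonneg_left L1 (by positivity)
    have g2 : w' 0 / w' 2 * |dt (e' 2) (t'.pos z - t.pos z)| ≤ w' 0 / w' 2 * m2 :=
      mul_le_mul_of_nonneg_left L2 (by positivity)
    linarith
  obtain ⟨c0, cA⟩ := hc z a1 a2 (t'.pos z) (hs z (hu.trans a1) (a2.trans hu')).1
    (hs z (hu.trans a1) (a2.trans hu')).2 L1 L2
  obtain ⟨f1, f2⟩ := frame_off h.ortho h'.ortho d0 L1 L2 hγ hγ'
  have F1 : |dt (e 1) (t'.pos z - T.pos z)| ≤ G' / 8 * w 1 := by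
    refine (dt_tri (e 1) (t'.pos z) (T.pos z) (t.pos z)).trans (le_trans ?_ b1)
    linarith only [f1, K1, m10]
  have F2 : |dt (e 2) (t'.pos z - T.pos z)| ≤ G / 8 * w 2 := by
    refine (dt_tri (e 2) (t'.pos z) (T.pos z) (t.pos z)).trans (le_trans ?_ b2)
    linarith only [f2, K2, m20]
  have hGm : G' / 8 * w 1 ≤ w 1 := by
    have : G' / 8 ≤ 1 := by linarith only [hGG, hG1]
    calc G' / 8 * w 1 ≤ 1 * w 1 := mul_le_mul_of_nonneg_right this p1.le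
      _ = w 1 := one_mul _
  have hGm2 : G / 8 * w 2 ≤ w 2 := by
    have : G / 8 ≤ 1 := by linarith only [hG1]
    calc G / 8 * w 2 ≤ 1 * w 2 := mul_le_mul_of_nonneg_right this p2.le
      _ = w 2 := one_mul _
  refine ⟨?_, cA⟩
  refine box_of_near hr h hT ht (hz.trans a1) (a2.trans hz') haA hG hG1 hGG c0
    (f1.trans ?_) (f2.trans ?_) cA F1 F2
  · linarith only [b1, hGm, m10]
  · linarith only [b2, hGm2, m20]

end

/-! ### counting on an arbitrary part -/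

open Classical in
/-- number of boxes of a class, arbitrary part -/
theorem card_boxesP {P : Finset (ℕ × ℤ)} {lv m : ℕ} {β : Type*} [DecidableEq β] (f : ℕ → ℤ → ℕ)
    (sb : ℕ × ℤ → β) {n1 : ℝ} (hn1 : 0 ≤ n1) (c : ℤ × ℕ)
    (h : ∀ (j : ℤ), (((P.filter fun o => o.2 = j ∧ clQ lv m f o = c).image
      sb).card : ℝ) ≤ n1) :
    (((P.filter fun o => clQ lv m f o = c).image fun o => (o.2, sb o)).card : ℝ) ≤
      2 ^ (m - lv) * n1 := by
  set T := (P.filter fun o => clQ lv m f o = c).image fun o => (o.2, sb o) with hT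
  have e : T.card = ∑ j ∈ T.image Prod.fst, (T.filter fun p => p.1 = j).card :=
    card_eq_sum_card_image _ _
  have h1 : (T.image Prod.fst).card ≤ 2 ^ (m - lv) := by
    refine card_anc _ c.1 fun j hj => ?_
    obtain ⟨p, hp, rfl⟩ := mem_image.1 hj
    obtain ⟨o, ho, rfl⟩ := mem_image.1 hp
    have := (mem_filter.1 ho).2
    rw [← this]; rfl
  have h2 : ∀ j ∈ T.image Prod.fst, (((T.filter fun p => p.1 = j).card : ℕ) : ℝ) ≤ n1 := by
    intro j _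
    refine le_trans ?_ (h j)
    norm_cast
    refine card_le_card_of_injOn Prod.snd (fun p hp => ?_) (fun p hp p' hp' hpp => ?_)
    · obtain ⟨hp1, hp2⟩ := mem_filter.1 (Finset.mem_coe.1 hp)
      obtain ⟨o, ho, rfl⟩ := mem_image.1 hp1
      obtain ⟨ho1, ho2⟩ := mem_filter.1 ho
      exact Finset.mem_coe.2 (mem_image.2 ⟨o, mem_filter.2 ⟨ho1, hp2, ho2⟩, rfl⟩)
    · have q1 := (mem_filter.1 (Finset.mem_coe.1 hp)).2
      have q2 := (mem_filter.1 (Finset.mem_coe.1 hp')).2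
      exact Prod.ext (q1.trans q2.symm) hpp
  rw [e]
  push_cast
  calc ∑ j ∈ T.image Prod.fst, (((T.filter fun p => p.1 = j).card : ℕ) : ℝ)
      ≤ ∑ j ∈ T.image Prod.fst, n1 := sum_le_sum h2
    _ = ((T.image Prod.fst).card : ℝ) * n1 := by rw [sum_const, nsmul_eq_mul]
    _ ≤ _ := mul_le_mul_of_nonneg_right (by exact_mod_cast h1) hn1

open Classical in
/-- few bad cells on every (line, cell of level `lv`) give few bad pairs, arbitrary part -/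
theorem card_badP {P : Finset (ℕ × ℤ)} {lv m : ℕ} (Bad : ℕ × ℤ → Prop)
    (h : ∀ o ∈ P, (((P.filter fun y => y.1 = o.1 ∧ anc lv m y.2 = anc lv m o.2 ∧
      Bad y).card : ℝ)) * 4 ≤ ((P.filter fun y => y.1 = o.1 ∧
        anc lv m y.2 = anc lv m o.2).card : ℝ)) :
    ((P.filter Bad).card : ℝ) * 4 ≤ (P.card : ℝ) := by
  set g : ℕ × ℤ → ℕ × ℤ := fun o => (o.1, anc lv m o.2) with hg
  have e1 : (P.filter Bad).card = ∑ r ∈ P.image g, ((P.filter Bad).filter fun o => g o = r).card :=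
    card_eq_sum_card_fiberwise fun o ho =>
      mem_image_of_mem _ (mem_filter.1 (Finset.mem_coe.1 ho)).1
  have e2 : P.card = ∑ r ∈ P.image g, (P.filter fun o => g o = r).card :=
    card_eq_sum_card_image _ _
  rw [e1, e2]
  push_cast
  rw [sum_mul]
  refine sum_le_sum fun r hr => ?_
  obtain ⟨o, ho, rfl⟩ := mem_image.1 hr
  have h3 := h o ho
  have a1 : ((P.filter Bad).filter fun y => g y = g o) =
      P.filter fun y => y.1 = o.1 ∧ anc lv m y.2 = anc lv m o.2 ∧ Bad y := by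
    ext y
    simp only [mem_filter, hg, Prod.mk.injEq]
    tauto
  have a2 : (P.filter fun y => g y = g o) =
      P.filter fun y => y.1 = o.1 ∧ anc lv m y.2 = anc lv m o.2 := by
    ext y
    simp only [mem_filter, hg, Prod.mk.injEq]
  rw [a1, a2]
  exact h3

/-- cells of level `m` whose left ends lie in an interval -/
theorem card_near {m : ℕ} (S : Finset ℤ) (s r : ℝ) (hr : 0 ≤ r)
    (hS : ∀ j ∈ S, |zl m j - s| ≤ r) : (S.card : ℝ) ≤ 2 * (r * 2 ^ m) + 1 := by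
  have hp : (0:ℝ) < 2 ^ m := by positivity
  have h1 : S ⊆ Icc ⌈(s - r) * 2 ^ m⌉ ⌊(s + r) * 2 ^ m⌋ := by
    intro j hj
    have h2 := abs_le.1 (hS j hj)
    have e : (j : ℝ) = zl m j * 2 ^ m := by unfold zl; field_simp
    rw [mem_Icc, Int.ceil_le, Int.le_floor, e]
    constructor
    · exact mul_le_mul_of_nonneg_right (by linarith) hp.le
    · exact mul_le_mul_of_nonneg_right (by linarith) hp.le
  have h2 := card_le_card h1
  rw [Int.card_Icc] at h2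
  have h3 : (S.card : ℝ) ≤ ((⌊(s + r) * 2 ^ m⌋ + 1 - ⌈(s - r) * 2 ^ m⌉).toNat : ℝ) := by
    exact_mod_cast h2
  refine h3.trans ?_
  have h4 : ((⌊(s + r) * 2 ^ m⌋ + 1 - ⌈(s - r) * 2 ^ m⌉).toNat : ℝ) ≤
      max ((⌊(s + r) * 2 ^ m⌋ + 1 - ⌈(s - r) * 2 ^ m⌉ : ℤ) : ℝ) 0 := by
    rcases le_total 0 (⌊(s + r) * 2 ^ m⌋ + 1 - ⌈(s - r) * 2 ^ m⌉) with h | h
    · have := Int.toNat_of_nonneg h
      have e : ((⌊(s + r) * 2 ^ m⌋ + 1 - ⌈(s - r) * 2 ^ m⌉).toNat : ℝ) =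
          ((⌊(s + r) * 2 ^ m⌋ + 1 - ⌈(s - r) * 2 ^ m⌉ : ℤ) : ℝ) := by exact_mod_cast this
      rw [e]; exact le_max_left _ _
    · rw [Int.toNat_of_nonpos h]; simp
  refine h4.trans (max_le ?_ (by positivity))
  push_cast
  have a1 : (⌊(s + r) * 2 ^ m⌋ : ℝ) ≤ (s + r) * 2 ^ m := Int.floor_le _
  have a2 : (s - r) * 2 ^ m ≤ (⌈(s - r) * 2 ^ m⌉ : ℝ) := Int.le_ceil _
  nlinarith

/-- the cell `j` of level `m` inside its ancestor of level `i` -/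
theorem anc_sub {i m : ℕ} (h : i ≤ m) (j : ℤ) :
    zl i (anc i m j) ≤ zl m j ∧ zl m j + rho m ≤ zl i (anc i m j) + rho i := by
  obtain ⟨h1, h2⟩ := anc_eq.1 (rfl : anc i m j = anc i m j)
  have hp : (0:ℝ) < 2 ^ m := by positivity
  have e : (2:ℝ) ^ m = 2 ^ (m - i) * 2 ^ i := by rw [← pow_add]; congr 1; omega
  have h1' : (2:ℝ) ^ (m - i) * (anc i m j : ℝ) ≤ j := by exact_mod_cast h1
  have h2' : (j : ℝ) + 1 ≤ 2 ^ (m - i) * ((anc i m j : ℝ) + 1) := by exact_mod_cast h2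
  unfold zl rho
  have q1 : (anc i m j : ℝ) / 2 ^ i = 2 ^ (m - i) * (anc i m j : ℝ) / 2 ^ m := by
    rw [e]; field_simp
  have q2 : (anc i m j : ℝ) / 2 ^ i + 1 / 2 ^ i = 2 ^ (m - i) * ((anc i m j : ℝ) + 1) / 2 ^ m := by
    rw [e]; field_simp
  constructor
  · rw [q1]; exact div_le_div_of_nonneg_right h1' hp.le
  · rw [q2, ← add_div]; exact div_le_div_of_nonneg_right h2' hp.le

/-! ### the stage -/

section stage

/-- sheet of the object `o` (line, cell of level `m`) at the level `lv` -/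
def mv (lv m : ℕ) (f : ℕ → ℤ → ℕ) (b : ℕ → Plk4) (o : ℕ × ℤ) : Plk4 := b (f o.1 (anc lv m o.2))

theorem mv_eq {lv m : ℕ} {f : ℕ → ℤ → ℕ} {b : ℕ → Plk4} {o o' : ℕ × ℤ}
    (h : clQ lv m f o = clQ lv m f o') : mv lv m f b o = mv lv m f b o' := by
  unfold clQ at h
  rw [Prod.mk.injEq] at h
  unfold mv
  rw [h.2]

/-- the object lies in its sheet of level `lv` -/
def inv (L : ℕ → Ln4) (lv m : ℕ) (S : Plk4) (o : ℕ × ℤ) : Prop :=
  InSheet (L o.1) S.e S.c S.w S.q S.a (zl lv (anc lv m o.2)) (rho lv)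

/-- label of the object in the frame of its sheet -/
noncomputable def lbl (L : ℕ → Ln4) (m : ℕ) (S : Plk4) (μ1 μ2 ν1 ν2 : ℝ) (o : ℕ × ℤ) :
    (ℤ × ℤ) × (ℤ × ℤ) := lab4 S.e S.c μ1 μ2 ν1 ν2 (zl m o.2) (L o.1)

/-- number of labels of a class -/
noncomputable def nlab (W1 W2 ρ μ1 μ2 ν1 ν2 : ℝ) : ℝ :=
  ((2 * (W1 / μ1) + 2) * (2 * (W2 / μ2) + 2)) *
    ((2 * (2 * W1 / ρ / ν1) + 2) * (2 * (2 * W2 / ρ / ν2) + 2))

theorem rho_pos (i : ℕ) : 0 < rho i := by unfold rho; positivity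

theorem rho_anti {i m : ℕ} (h : i ≤ m) : rho m ≤ rho i := by
  unfold rho
  exact one_div_le_one_div_of_le (by positivity) (pow_le_pow_right₀ (by norm_num) h)

/-- a line in the base box: position and velocity -/
theorem pos_vel {e : Fin 3 → V3} {c : Ln4} {w : V3} {q : ℝ → V3 → ℝ} {a z0 ρ : ℝ} {t : Ln4}
    (hρ : 0 < ρ) (ht : InSheet t e c w q a z0 ρ) (k : Fin 3) :
    (∀ z, z0 ≤ z → z ≤ z0 + ρ → |dt (e k) (t.pos z - c.pos z)| ≤ w k) ∧
      |dt (e k) (t.v - c.v)| ≤ 2 * w k / ρ := by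
  refine ⟨fun z a1 a2 => (ht z a1 a2).1 k, ?_⟩
  have := abs_vel (x := e k) hρ.le ((ht z0 le_rfl (by linarith)).1 k)
    ((ht (z0 + ρ) (by linarith) le_rfl).1 k)
  rw [le_div_iff₀ hρ]
  exact this

open Classical in
/-- labels of one class over one deep cell -/
theorem card_lbl {L : ℕ → Ln4} {P : Finset (ℕ × ℤ)} {lv l0 m : ℕ} (h2 : lv ≤ m) (h0 : lv ≤ l0)
    {f : ℕ → ℤ → ℕ} {b : ℕ → Plk4} {W1 W2 μ1 μ2 ν1 ν2 : ℝ} (q1 : 0 < μ1) (q2 : 0 < μ2)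
    (q3 : 0 < ν1) (q4 : 0 < ν2) (hW1 : 0 ≤ W1) (hW2 : 0 ≤ W2)
    (hin : ∀ o ∈ P, inv L lv m (mv lv m f b o) o)
    (hw1 : ∀ o ∈ P, (mv lv m f b o).w 1 ≤ W1) (hw2 : ∀ o ∈ P, (mv lv m f b o).w 2 ≤ W2)
    (c : ℤ × ℕ) (j : ℤ) :
    (((P.filter fun o => o.2 = j ∧ clQ lv m f o = c).image fun o =>
      lbl L m (mv lv m f b o) μ1 μ2 ν1 ν2 o).card : ℝ) ≤ nlab W1 W2 (rho l0) μ1 μ2 ν1 ν2 := by
  set F := P.filter fun o => o.2 = j ∧ clQ lv m f o = c with hF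
  have hr0 := rho_pos l0
  rcases F.eq_empty_or_nonempty with h | ⟨o0, ho0⟩
  · rw [h]; unfold nlab; simp; positivity
  obtain ⟨ho0P, ho0j, ho0c⟩ := mem_filter.1 ho0
  have e : (F.image fun o => lbl L m (mv lv m f b o) μ1 μ2 ν1 ν2 o) =
      F.image fun o => lab4 (mv lv m f b o0).e (mv lv m f b o0).c μ1 μ2 ν1 ν2 (zl m j) (L o.1) := by
    refine image_congr fun o ho => ?_
    obtain ⟨k1, k2, k3⟩ := mem_filter.1 (Finset.mem_coe.1 ho)
    show lbl L m (mv lv m f b o) μ1 μ2 ν1 ν2 o = _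
    unfold lbl
    rw [mv_eq (k3.trans ho0c.symm), k2]
  rw [e]
  have hpv : ∀ k : Fin 3, ∀ o ∈ F, |dt ((mv lv m f b o0).e k)
      ((L o.1).pos (zl m j) - (mv lv m f b o0).c.pos (zl m j))| ≤ (mv lv m f b o0).w k ∧
      |dt ((mv lv m f b o0).e k) ((L o.1).v - (mv lv m f b o0).c.v)| ≤
        2 * (mv lv m f b o0).w k / rho lv := by
    intro k o ho
    obtain ⟨k1, k2, k3⟩ := mem_filter.1 ho
    have h5 := hin o k1
    rw [mv_eq (k3.trans ho0c.symm)] at h5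
    obtain ⟨h6, h7⟩ := pos_vel (rho_pos lv) h5 k
    obtain ⟨z1, z2⟩ := anc_sub h2 j
    rw [k2] at h6
    exact ⟨h6 _ z1 (by linarith [rho_pos m]), h7⟩
  have hv : ∀ (k : Fin 3) (W : ℝ), (mv lv m f b o0).w k ≤ W → 0 ≤ W →
      2 * (mv lv m f b o0).w k / rho lv ≤ 2 * W / rho l0 := by
    intro k W h5 h6
    exact div_le_div₀ (by positivity) (by linarith) (rho_pos _) (rho_anti h0)
  unfold nlab
  refine card_lab4 F (fun o => L o.1) q1 q2 q3 q4 hW1 hW2 (by positivity) (by positivity)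
    (fun o ho => ((hpv 1 o ho).1).trans (hw1 _ ho0P))
    (fun o ho => ((hpv 2 o ho).1).trans (hw2 _ ho0P))
    (fun o ho => ((hpv 1 o ho).2).trans (hv 1 _ (hw1 _ ho0P) hW1))
    (fun o ho => ((hpv 2 o ho).2).trans (hv 2 _ (hw2 _ ho0P) hW2))

/-- captured at the object `o` : the lines of both classes in the small box of `o` have velocities
in `N` boxes -/
def GoodO (L : ℕ → Ln4) (P : Finset (ℕ × ℤ)) (lu lv m : ℕ) (fu fv : ℕ → ℤ → ℕ) (b : ℕ → Plk4)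
    (N : ℕ) (r μ1 μ2 θ1 θ2 : ℝ) (o : ℕ × ℤ) : Prop :=
  ∃ V : Fin N → V3, ∀ y ∈ P, y.2 = o.2 → clQ lv m fv y = clQ lv m fv o →
    clQ lu m fu y = clQ lu m fu o →
    |dt ((mv lv m fv b o).e 1) ((L y.1).pos (zl m o.2) - (L o.1).pos (zl m o.2))| ≤ μ1 →
    |dt ((mv lv m fv b o).e 2) ((L y.1).pos (zl m o.2) - (L o.1).pos (zl m o.2))| ≤ μ2 →
      ∃ l, |dt ((mv lv m fv b o).e 1) ((L y.1).v - V l)| * r ≤ θ1 ∧
        |dt ((mv lv m fv b o).e 2) ((L y.1).v - V l)| * r ≤ θ2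

/-- not captured -/
def BadO (L : ℕ → Ln4) (P : Finset (ℕ × ℤ)) (lu lv m : ℕ) (fu fv : ℕ → ℤ → ℕ) (b : ℕ → Plk4)
    (N : ℕ) (r μ1 μ2 θ1 θ2 : ℝ) (o : ℕ × ℤ) : Prop :=
  ¬ GoodO L P lu lv m fu fv b N r μ1 μ2 θ1 θ2 o

end stage

end Crest.Agent.R136.Deep51
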