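import Mathlib
import Crest.Agent.R136.Rk3D_601

/-!
# R136 (U4, PLAN 2 (3), volume form, leaf V6): rank one algebra (helper601)

`Rk601.rank_one_of_minors`: a symmetric `3 × 3` matrix with small `2 × 2` minors is `± n nᵀ` up to the
size of the minors.  `Rk601.two_rank_one`: the sum of two rank one forms with transversal kernels has a
large `2 × 2` minor.
-/

set_option autoImplicit false

namespace Crest.Agent.R136.Rk601

/-- **rank one normal form.** -/
theorem rank_one_of_minors {H : Fin 3 → Fin 3 → ℝ} {K m : ℝ} (hK : 1 ≤ K)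
    (hs : ∀ i j, H i j = H j i) (hb : ∀ i j, |H i j| ≤ K) (hl : ∃ i j, 1 / K ≤ |H i j|)
    (hm : ∀ i j k l, |mn H i j k l| ≤ m) (hm' : m ≤ 1 / (4 * K ^ 2)) :
    ∃ (s : ℝ) (n : Fin 3 → ℝ), (s = 1 ∨ s = -1) ∧ (∀ i, |n i| ≤ 2 * K) ∧
      (∃ i, 1 / (2 * K) ≤ |n i|) ∧ ∀ i j, |H i j - s * n i * n j| ≤ 2 * K * m := by
  have hK0 : (0 : ℝ) < K := by linarith
  obtain ⟨⟨i0, j0⟩, -, hmax⟩ := Finset.exists_max_image (Finset.univ : Finset (Fin 3 × Fin 3))
    (fun p => |H p.1 p.2|) ⟨(0, 0), Finset.mem_univ _⟩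
  have hmax' : ∀ i j, |H i j| ≤ |H i0 j0| := fun i j => hmax (i, j) (Finset.mem_univ _)
  obtain ⟨i1, j1, h1⟩ := hl
  set B := |H i0 j0| with hB
  have hB1 : 1 / K ≤ B := h1.trans (hmax' i1 j1)
  have hBK : B ≤ K := hb i0 j0
  have hB0 : 0 < B := lt_of_lt_of_le (by positivity) hB1
  have hm0 : 0 ≤ m := (abs_nonneg _).trans (hm 0 0 0 0)
  -- `m ≤ B² / 4`
  have hmB : m ≤ B ^ 2 / 4 := by
    have : (1 / K) ^ 2 ≤ B ^ 2 := by gcongr
    calc m ≤ 1 / (4 * K ^ 2) := hm'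
      _ = (1 / K) ^ 2 / 4 := by field_simp
      _ ≤ B ^ 2 / 4 := by linarith
  have hdiag : 3 / 4 * B ≤ |H i0 i0| := by
    have h2 := hm i0 j0 j0 i0
    unfold mn at h2
    have h3 : H i0 j0 * H j0 i0 = B ^ 2 := by
      rw [hs j0 i0, hB, sq_abs]; ring
    have h4 : B ^ 2 - |H i0 i0| * |H j0 j0| ≤ m := by
      have h5 : |H i0 j0 * H j0 i0| - |H i0 i0 * H j0 j0| ≤ m := (abs_sub_abs_le_abs_sub _ _).trans h2
      rw [h3, abs_mul, abs_of_nonneg (sq_nonneg B)] at h5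
      exact h5
    have h6 : |H i0 i0| * |H j0 j0| ≤ |H i0 i0| * B :=
      mul_le_mul_of_nonneg_left (hmax' j0 j0) (abs_nonneg _)
    have h7 : 3 / 4 * B * B ≤ |H i0 i0| * B := by nlinarith
    exact le_of_mul_le_mul_right h7 hB0
  set c := H i0 i0 with hc
  have hcpos : 0 < |c| := lt_of_lt_of_le (by positivity) hdiag
  have hc0 : c ≠ 0 := abs_pos.1 hcpos
  have hsq : 0 < Real.sqrt |c| := Real.sqrt_pos.2 hcpos
  have hsq2 : Real.sqrt |c| * Real.sqrt |c| = |c| := Real.mul_self_sqrt (abs_nonneg _)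
  obtain ⟨s, hs1, hsc⟩ : ∃ s : ℝ, (s = 1 ∨ s = -1) ∧ s * c = |c| := by
    rcases lt_or_gt_of_ne hc0 with h | h
    · exact ⟨-1, Or.inr rfl, by rw [abs_of_neg h]; ring⟩
    · exact ⟨1, Or.inl rfl, by rw [abs_of_pos h]; ring⟩
  have hss : s * s = 1 := by rcases hs1 with h | h <;> rw [h] <;> norm_num
  refine ⟨s, fun i => H i0 i / Real.sqrt |c|, hs1, ?_, ⟨i0, ?_⟩, ?_⟩
  · intro i
    rw [abs_div, abs_of_pos hsq, div_le_iff₀ hsq]
    have h1 : |H i0 i| ≤ B := hmax' i0 i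
    -- `B ≤ 2 K √|c|`, as `|c| ≥ 3B/4`, `B ≤ K`
    have h2 : B ^ 2 ≤ (2 * K * Real.sqrt |c|) ^ 2 := by
      have : (2 * K * Real.sqrt |c|) ^ 2 = 4 * K ^ 2 * |c| := by
        rw [mul_pow, mul_pow, sq (Real.sqrt |c|), hsq2]; ring
      rw [this]
      have h3 : B * B ≤ K * B := mul_le_mul_of_nonneg_right hBK hB0.le
      have h4 : K * B ≤ K ^ 2 * B := by
        have : K * 1 ≤ K * K := mul_le_mul_of_nonneg_left hK hK0.le
        nlinarith
      nlinarith [mul_le_mul_of_nonneg_left hdiag (sq_nonneg K)]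
    have h5 : B ≤ 2 * K * Real.sqrt |c| := (sq_le_sq₀ hB0.le (by positivity)).1 h2
    linarith
  · show 1 / (2 * K) ≤ abs (c / Real.sqrt (abs c))
    rw [abs_div, abs_of_pos hsq, le_div_iff₀ hsq]
    have h1 : 1 / (2 * K) * Real.sqrt |c| ≤ Real.sqrt |c| * Real.sqrt |c| := by
      apply mul_le_mul_of_nonneg_right _ hsq.le
      apply Real.le_sqrt_of_sq_le
      have h2 : 3 / 4 * (1 / K) ≤ |c| := le_trans (by gcongr) hdiag
      have h3 : (1 / (2 * K)) ^ 2 ≤ 3 / 4 * (1 / K) := by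
        rw [div_pow, one_pow, mul_pow, div_le_iff₀ (by positivity)]
        have : 3 / 4 * (1 / K) * (2 ^ 2 * K ^ 2) = 3 * K := by field_simp; ring
        rw [this]; linarith
      linarith
    rwa [hsq2] at h1
  · intro i j
    have h1 : s * (H i0 i / Real.sqrt |c|) * (H i0 j / Real.sqrt |c|) = H i0 i * H i0 j / c := by
      have h2 : s * (H i0 i / Real.sqrt |c|) * (H i0 j / Real.sqrt |c|) =
          s * H i0 i * H i0 j / (Real.sqrt |c| * Real.sqrt |c|) := by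
        field_simp
      rw [h2, hsq2, ← hsc, mul_assoc, mul_div_mul_left]
      intro h0; rw [h0] at hss; norm_num at hss
    rw [h1]
    have h3 : H i j - H i0 i * H i0 j / c = mn H i j i0 i0 / c := by
      unfold mn
      rw [← hc, hs i i0]
      field_simp
    rw [h3, abs_div, div_le_iff₀ hcpos]
    have h4 : 3 / 4 * (1 / K) ≤ |c| := le_trans (by gcongr) hdiag
    have h5 : m ≤ 2 * K * m * |c| := by
      have h6 : 2 * K * m * (3 / 4 * (1 / K)) ≤ 2 * K * m * |c| :=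
        mul_le_mul_of_nonneg_left h4 (by positivity)
      have h7 : 2 * K * m * (3 / 4 * (1 / K)) = 3 / 2 * m := by field_simp; ring
      linarith
    exact (hm i j i0 i0).trans h5

theorem dp_le {n v : Fin 3 → ℝ} {a b : ℝ} (ha : ∀ i, |n i| ≤ a) (hb : ∀ i, |v i| ≤ b) :
    |dp n v| ≤ 3 * (a * b) := by
  have ha0 : 0 ≤ a := (abs_nonneg _).trans (ha 0)
  unfold dp
  calc |∑ i, n i * v i| ≤ ∑ i, |n i * v i| := Finset.abs_sum_le_sum_abs _ _
    _ ≤ ∑ _i : Fin 3, a * b := by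
        apply Finset.sum_le_sum
        intro i _
        rw [abs_mul]
        exact mul_le_mul (ha i) (hb i) (abs_nonneg _) ha0
    _ = 3 * (a * b) := by simp

/-- the quadratic form of `s n nᵀ` -/
theorem qf_rank_one (s : ℝ) (n v : Fin 3 → ℝ) :
    qf (fun i j => s * n i * n j) v = s * dp n v ^ 2 := by
  unfold qf dp
  simp only [Fin.sum_univ_three]
  ring

theorem qf_sub (A B : Fin 3 → Fin 3 → ℝ) (v : Fin 3 → ℝ) :
    qf A v - qf B v = qf (fun i j => A i j - B i j) v := by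
  unfold qf
  simp only [Fin.sum_univ_three]
  ring

theorem qf_le {A : Fin 3 → Fin 3 → ℝ} {v : Fin 3 → ℝ} {a b : ℝ} (ha : ∀ i j, |A i j| ≤ a)
    (hb : ∀ i, |v i| ≤ b) : |qf A v| ≤ 9 * (a * b ^ 2) := by
  have ha0 : 0 ≤ a := (abs_nonneg _).trans (ha 0 0)
  have hb0 : 0 ≤ b := (abs_nonneg _).trans (hb 0)
  unfold qf
  calc |∑ i, ∑ j, A i j * v i * v j| ≤ ∑ i, |∑ j, A i j * v i * v j| :=
        Finset.abs_sum_le_sum_abs _ _
    _ ≤ ∑ i, ∑ j, |A i j * v i * v j| :=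
        Finset.sum_le_sum fun i _ => Finset.abs_sum_le_sum_abs _ _
    _ ≤ ∑ _i : Fin 3, ∑ _j : Fin 3, a * b ^ 2 := by
        apply Finset.sum_le_sum
        intro i _
        apply Finset.sum_le_sum
        intro j _
        rw [abs_mul, abs_mul, sq, ← mul_assoc]
        exact mul_le_mul (mul_le_mul (ha i j) (hb i) (abs_nonneg _) ha0) (hb j) (abs_nonneg _)
          (by positivity)
    _ = 9 * (a * b ^ 2) := by simp; ring

/-- a rank one form (up to `ε`) with a small value at `v` has a normal nearly orthogonal to `v` -/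
theorem normal_small {H : Fin 3 → Fin 3 → ℝ} {s : ℝ} {n v : Fin 3 → ℝ} {ε b δ : ℝ}
    (hs : s = 1 ∨ s = -1) (hH : ∀ i j, |H i j - s * n i * n j| ≤ ε) (hv : ∀ i, |v i| ≤ b)
    (hδ : |qf H v| ≤ δ) : dp n v ^ 2 ≤ δ + 9 * (ε * b ^ 2) := by
  have h1 : |qf H v - qf (fun i j => s * n i * n j) v| ≤ 9 * (ε * b ^ 2) := by
    rw [qf_sub]; exact qf_le hH hv
  rw [qf_rank_one] at h1
  have h2 : |s * dp n v ^ 2| = dp n v ^ 2 := by
    rw [abs_mul, abs_of_nonneg (sq_nonneg (dp n v))]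
    rcases hs with h | h <;> rw [h] <;> simp
  have h3 : |s * dp n v ^ 2| ≤ |qf H v| + |qf H v - s * dp n v ^ 2| := by
    have := abs_sub_abs_le_abs_sub (s * dp n v ^ 2) (qf H v)
    rw [abs_sub_comm] at this
    linarith
  linarith

/-- a rank one form (up to `ε`) with a normal transversal to `v` has a large value at `v` -/
theorem value_large {H : Fin 3 → Fin 3 → ℝ} {s : ℝ} {n v : Fin 3 → ℝ} {ε b lam : ℝ}
    (hs : s = 1 ∨ s = -1) (hH : ∀ i j, |H i j - s * n i * n j| ≤ ε) (hv : ∀ i, |v i| ≤ b)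
    (hl0 : 0 ≤ lam) (hl : lam ≤ |dp n v|) : lam ^ 2 - 9 * (ε * b ^ 2) ≤ |qf H v| := by
  have h1 : dp n v ^ 2 ≤ |qf H v| + 9 * (ε * b ^ 2) := normal_small hs hH hv le_rfl
  have h2 : lam ^ 2 ≤ dp n v ^ 2 := by rw [← sq_abs (dp n v)]; gcongr
  linarith

/-- cross product entries: `n_i p_k - n_k p_i` -/
def cx (n p : Fin 3 → ℝ) (i k : Fin 3) : ℝ := n i * p k - n k * p i

/-- the minors of `s n nᵀ + t p pᵀ` -/
theorem mn_two (s t : ℝ) (n p : Fin 3 → ℝ) (i j k l : Fin 3) :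
    mn (fun i j => s * n i * n j + t * p i * p j) i j k l = s * t * (cx n p i k * cx n p j l) := by
  unfold mn cx
  ring

/-- transversality of the kernels gives a large cross product -/
theorem cx_large {n p v : Fin 3 → ℝ} {K lam ε : ℝ} (hK : 1 ≤ K) (hn : ∀ i, |n i| ≤ K)
    (hv : ∀ i, |v i| ≤ K) (hp : ∃ k, 1 / K ≤ |p k|) (hl : lam ≤ |dp n v|) (hε : |dp p v| ≤ ε) :
    ∃ i k, (lam / K - K * ε) / (3 * K) ≤ |cx n p i k| := by
  have hK0 : (0 : ℝ) < K := by linarith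
  obtain ⟨k, hk⟩ := hp
  by_contra hcon
  push Not at hcon
  set X := (lam / K - K * ε) / (3 * K) with hX
  have hid : dp n v * p k = dp (fun i => cx n p i k) v + n k * dp p v := by
    unfold dp cx
    simp only [Fin.sum_univ_three]
    ring
  have hsum : |dp (fun i => cx n p i k) v| < 3 * (X * K) := by
    unfold dp
    have h0 : ∀ i : Fin 3, |cx n p i k * v i| ≤ |cx n p i k| * K := fun i => by
      rw [abs_mul]; exact mul_le_mul_of_nonneg_left (hv i) (abs_nonneg _)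
    have h1 : ∀ i : Fin 3, |cx n p i k * v i| < X * K := fun i =>
      (h0 i).trans_lt (mul_lt_mul_of_pos_right (hcon i k) hK0)
    calc |∑ i, cx n p i k * v i| ≤ ∑ i, |cx n p i k * v i| := Finset.abs_sum_le_sum_abs _ _
      _ < ∑ _i : Fin 3, X * K := Finset.sum_lt_sum_of_nonempty ⟨0, Finset.mem_univ _⟩ fun i _ => h1 i
      _ = 3 * (X * K) := by simp
  have h2 : |dp n v| * |p k| ≤ |dp (fun i => cx n p i k) v| + |n k| * |dp p v| := by
    rw [← abs_mul, hid]
    refine (abs_add_le _ _).trans ?_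
    rw [abs_mul]
  have h3 : |n k| * |dp p v| ≤ K * ε := mul_le_mul (hn k) hε (abs_nonneg _) hK0.le
  have h5 : 3 * (X * K) = lam / K - K * ε := by
    rw [hX]; field_simp
  have h6 : lam / K ≤ |dp n v| * |p k| := by
    rcases le_or_gt 0 lam with h | h
    · calc lam / K = lam * (1 / K) := by ring
        _ ≤ |dp n v| * |p k| := mul_le_mul hl hk (by positivity) (abs_nonneg _)
    · exact (div_neg_of_neg_of_pos h hK0).le.trans (by positivity)
  linarith

/-- **two rank one forms with transversal kernels**: the sum has a large minor. -/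
theorem two_rank_one {H1 H2 : Fin 3 → Fin 3 → ℝ} {s t : ℝ} {n p v : Fin 3 → ℝ}
    {K lam ε m : ℝ} (hK : 1 ≤ K) (hs : s = 1 ∨ s = -1) (ht : t = 1 ∨ t = -1)
    (h1 : ∀ i j, |H1 i j - s * n i * n j| ≤ m) (h2 : ∀ i j, |H2 i j - t * p i * p j| ≤ m)
    (hn : ∀ i, |n i| ≤ K) (hp : ∀ i, |p i| ≤ K) (hp' : ∃ k, 1 / K ≤ |p k|)
    (hv : ∀ i, |v i| ≤ K) (hm : m ≤ 1) (hl : lam ≤ |dp n v|) (hε : |dp p v| ≤ ε)
    (hpos : 0 ≤ lam / K - K * ε) :
    ∃ i k, ((lam / K - K * ε) / (3 * K)) ^ 2 - 24 * K ^ 2 * m ≤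
      |mn (fun i j => H1 i j + H2 i j) i i k k| := by
  have hK0 : (0 : ℝ) < K := by linarith
  obtain ⟨i, k, hik⟩ := cx_large hK hn hv hp' hl hε
  refine ⟨i, k, ?_⟩
  have hm0 : 0 ≤ m := (abs_nonneg _).trans (h1 0 0)
  set A : Fin 3 → Fin 3 → ℝ := fun i j => s * n i * n j + t * p i * p j with hA
  have hAb : ∀ i j, |A i j| ≤ 2 * K ^ 2 := fun i j => by
    have hs' : |s| = 1 := by rcases hs with h | h <;> rw [h] <;> simp
    have ht' : |t| = 1 := by rcases ht with h | h <;> rw [h] <;> simp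
    calc |A i j| ≤ |s * n i * n j| + |t * p i * p j| := abs_add_le _ _
      _ ≤ K * K + K * K := by
          rw [abs_mul, abs_mul, abs_mul, abs_mul, hs', ht', one_mul, one_mul]
          exact add_le_add (mul_le_mul (hn i) (hn j) (abs_nonneg _) hK0.le)
            (mul_le_mul (hp i) (hp j) (abs_nonneg _) hK0.le)
      _ = 2 * K ^ 2 := by ring
  have hd : ∀ i j, |H1 i j + H2 i j - A i j| ≤ 2 * m := fun i j => by
    have : H1 i j + H2 i j - A i j = (H1 i j - s * n i * n j) + (H2 i j - t * p i * p j) := by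
      rw [hA]; ring
    rw [this]
    exact (abs_add_le _ _).trans (by linarith [h1 i j, h2 i j])
  have hHb : ∀ i j, |H1 i j + H2 i j| ≤ 4 * K ^ 2 := fun i j => by
    have h3 : |H1 i j + H2 i j| ≤ |A i j| + |H1 i j + H2 i j - A i j| := by
      have := abs_add_le (A i j) (H1 i j + H2 i j - A i j)
      rwa [add_sub_cancel] at this
    have h4 : (1 : ℝ) ≤ K ^ 2 := one_le_pow₀ hK
    linarith [hAb i j, hd i j]
  have hprod : ∀ i j k l, |(H1 i j + H2 i j) * (H1 k l + H2 k l) - A i j * A k l| ≤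
      12 * K ^ 2 * m := fun i j k l => by
    have h3 : (H1 i j + H2 i j) * (H1 k l + H2 k l) - A i j * A k l =
        (H1 i j + H2 i j - A i j) * (H1 k l + H2 k l) + A i j * (H1 k l + H2 k l - A k l) := by
      ring
    rw [h3]
    refine (abs_add_le _ _).trans ?_
    rw [abs_mul, abs_mul]
    have h4 := mul_le_mul (hd i j) (hHb k l) (abs_nonneg _) (by positivity)
    have h5 := mul_le_mul (hAb i j) (hd k l) (abs_nonneg _) (by positivity)
    linarith
  have hmn : |mn (fun i j => H1 i j + H2 i j) i i k k - mn A i i k k| ≤ 24 * K ^ 2 * m := by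
    unfold mn
    have h3 : ∀ a b c d : ℝ, a - b - (c - d) = (a - c) - (b - d) := by intros; ring
    rw [h3]
    refine (abs_sub _ _).trans ?_
    linarith [hprod i i k k, hprod i k k i]
  have hA2 : |mn A i i k k| = |cx n p i k| ^ 2 := by
    rw [hA, mn_two, abs_mul, abs_mul, abs_mul]
    have hs' : |s| = 1 := by rcases hs with h | h <;> rw [h] <;> simp
    have ht' : |t| = 1 := by rcases ht with h | h <;> rw [h] <;> simp
    rw [hs', ht']; ring
  have h6 : ((lam / K - K * ε) / (3 * K)) ^ 2 ≤ |cx n p i k| ^ 2 := by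
    have : 0 ≤ (lam / K - K * ε) / (3 * K) := by positivity
    gcongr
  have h7 := abs_sub_abs_le_abs_sub (mn A i i k k) (mn (fun i j => H1 i j + H2 i j) i i k k)
  rw [abs_sub_comm] at h7
  rw [hA2] at h7
  linarith

end Crest.Agent.R136.Rk601
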