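import Mathlib
import Crest.Agent.R136.Rk1_601

/-!
# R136 (U4, PLAN 2 (3), volume form, leaf V6): consumer form of the rank one algebra (helper601)

`Rk601.h6_alg`: three quadratic forms `H1`, `H2`, `H ≈ H1 + H2` with small `2 × 2` minors, `H1`, `H2` not
small, `H2` small at the vector `v`: then `H1` is a square `± (n·)²` and `n·v` is small.
-/

set_option autoImplicit false

namespace Crest.Agent.R136.Rk601

/-- minors are stable under small changes -/
theorem mn_sub_le {A B : Fin 3 → Fin 3 → ℝ} {a ε : ℝ} (hA : ∀ i j, |A i j| ≤ a)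
    (hB : ∀ i j, |B i j| ≤ a) (h : ∀ i j, |A i j - B i j| ≤ ε) (i j k l : Fin 3) :
    |mn A i j k l - mn B i j k l| ≤ 4 * (a * ε) := by
  have ha : 0 ≤ a := (abs_nonneg _).trans (hA 0 0)
  have hp : ∀ i j k l, |A i j * A k l - B i j * B k l| ≤ 2 * (a * ε) := fun i j k l => by
    have h3 : A i j * A k l - B i j * B k l =
        (A i j - B i j) * A k l + B i j * (A k l - B k l) := by ring
    rw [h3]
    refine (abs_add_le _ _).trans ?_
    rw [abs_mul, abs_mul]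
    have h4 := mul_le_mul (h i j) (hA k l) (abs_nonneg _) ((abs_nonneg _).trans (h i j))
    have h5 := mul_le_mul (hB i j) (h k l) (abs_nonneg _) ha
    linarith
  unfold mn
  have h3 : ∀ a b c d : ℝ, a - b - (c - d) = (a - c) - (b - d) := by intros; ring
  rw [h3]
  refine (abs_sub _ _).trans ?_
  linarith [hp i j k l, hp i l k j]

/-- **V6, consumer form.** -/
theorem h6_alg {H1 H2 H : Fin 3 → Fin 3 → ℝ} {v : Fin 3 → ℝ} {K m δ : ℝ} (hK : 1 ≤ K)
    (s1 : ∀ i j, H1 i j = H1 j i) (s2 : ∀ i j, H2 i j = H2 j i)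
    (b1 : ∀ i j, |H1 i j| ≤ K) (b2 : ∀ i j, |H2 i j| ≤ K)
    (l1 : ∃ i j, 1 / K ≤ |H1 i j|) (l2 : ∃ i j, 1 / K ≤ |H2 i j|)
    (m1 : ∀ i j k l, |mn H1 i j k l| ≤ m) (m2 : ∀ i j k l, |mn H2 i j k l| ≤ m)
    (m3 : ∀ i j k l, |mn H i j k l| ≤ m) (hH : ∀ i j, |H i j - (H1 i j + H2 i j)| ≤ m)
    (hm : m ≤ 1 / (4 * K ^ 2)) (hv : ∀ i, |v i| ≤ K) (hδ : |qf H2 v| ≤ δ) :
    ∃ (s : ℝ) (n : Fin 3 → ℝ), (s = 1 ∨ s = -1) ∧ (∀ i, |n i| ≤ 2 * K) ∧
      (∃ i, 1 / (2 * K) ≤ |n i|) ∧ (∀ i j, |H1 i j - s * n i * n j| ≤ 2 * K * m) ∧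
      |dp n v| ≤ 300 * K ^ 4 * (Real.sqrt δ + Real.sqrt m) := by
  have hK0 : (0 : ℝ) < K := by linarith
  have hm0 : 0 ≤ m := (abs_nonneg _).trans (m1 0 0 0 0)
  have hδ0 : 0 ≤ δ := (abs_nonneg _).trans hδ
  obtain ⟨s, n, hs, hn, hn', hsn⟩ := rank_one_of_minors hK s1 b1 l1 m1 hm
  obtain ⟨t, p, ht, hp, hp', htp⟩ := rank_one_of_minors hK s2 b2 l2 m2 hm
  refine ⟨s, n, hs, hn, hn', hsn, ?_⟩
  by_contra hcon
  rw [not_le] at hcon
  have hK2 : (1 : ℝ) ≤ 2 * K := by linarith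
  have hv2 : ∀ i, |v i| ≤ 2 * K := fun i => (hv i).trans (by linarith)
  -- `dp p v` is small
  have hpv : dp p v ^ 2 ≤ δ + 9 * (2 * K * m * K ^ 2) := normal_small ht htp hv hδ
  set ε := Real.sqrt δ + 5 * K ^ 2 * Real.sqrt m with hε
  have hsδ : Real.sqrt δ ^ 2 = δ := Real.sq_sqrt hδ0
  have hsm : Real.sqrt m ^ 2 = m := Real.sq_sqrt hm0
  have hδn := Real.sqrt_nonneg δ
  have hmn := Real.sqrt_nonneg m
  have hε0 : 0 ≤ ε := by positivity
  have hpv' : |dp p v| ≤ ε := by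
    apply abs_le_of_sq_le_sq _ hε0
    have h1 : ε ^ 2 = Real.sqrt δ ^ 2 + 10 * K ^ 2 * (Real.sqrt δ * Real.sqrt m) +
        25 * K ^ 4 * Real.sqrt m ^ 2 := by rw [hε]; ring
    rw [h1, hsδ, hsm]
    have h2 : 0 ≤ 10 * K ^ 2 * (Real.sqrt δ * Real.sqrt m) := by positivity
    have h3 : 9 * (2 * K * m * K ^ 2) ≤ 25 * K ^ 4 * m := by
      have h4 : K ^ 3 ≤ K ^ 4 := pow_le_pow_right₀ hK (by norm_num)
      have h5 : K ^ 3 * m ≤ K ^ 4 * m := mul_le_mul_of_nonneg_right h4 hm0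
      have h6 : 9 * (2 * K * m * K ^ 2) = 18 * (K ^ 3 * m) := by ring
      have h7 : 0 ≤ K ^ 4 * m := by positivity
      rw [h6, mul_assoc]; linarith
    linarith
  have hm1 : m ≤ 1 / 4 := by
    refine hm.trans ?_
    have : (1 : ℝ) ≤ K ^ 2 := one_le_pow₀ hK
    rw [div_le_div_iff₀ (by positivity) (by norm_num)]
    linarith
  -- rescaled error of the normal forms
  set lam := |dp n v| with hlam
  have hlam0 : 300 * K ^ 4 * (Real.sqrt δ + Real.sqrt m) < lam := hcon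
  -- positivity of `lam / (2K) - 2K ε`
  have hKε : 2 * K * ε ≤ 10 * K ^ 3 * (Real.sqrt δ + Real.sqrt m) := by
    rw [hε]
    have h1 : 2 * K * Real.sqrt δ ≤ 10 * K ^ 3 * Real.sqrt δ := by
      apply mul_le_mul_of_nonneg_right _ hδn
      have : K ≤ K ^ 3 := le_self_pow₀ hK (by norm_num)
      linarith
    have h2 : 2 * K * (5 * K ^ 2 * Real.sqrt m) = 10 * K ^ 3 * Real.sqrt m := by ring
    nlinarith
  have hlK : 150 * K ^ 3 * (Real.sqrt δ + Real.sqrt m) < lam / (2 * K) := by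
    rw [lt_div_iff₀ (by positivity)]
    calc 150 * K ^ 3 * (Real.sqrt δ + Real.sqrt m) * (2 * K)
        = 300 * K ^ 4 * (Real.sqrt δ + Real.sqrt m) := by ring
      _ < lam := hlam0
  have hsum0 : 0 ≤ Real.sqrt δ + Real.sqrt m := by positivity
  have hK3 : 0 ≤ K ^ 3 * (Real.sqrt δ + Real.sqrt m) := by positivity
  have hdiff : 140 * K ^ 3 * (Real.sqrt δ + Real.sqrt m) < lam / (2 * K) - 2 * K * ε := by
    nlinarith
  have hpos : 0 ≤ lam / (2 * K) - 2 * K * ε := by nlinarith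
  obtain ⟨i, k, hik⟩ := cx_large (K := 2 * K) hK2 hn hv2 hp' le_rfl hpv'
  have hX : 20 * K ^ 2 * (Real.sqrt δ + Real.sqrt m) < |cx n p i k| := by
    refine lt_of_lt_of_le ?_ hik
    rw [lt_div_iff₀ (by positivity)]
    have h1 : 20 * K ^ 2 * (Real.sqrt δ + Real.sqrt m) * (3 * (2 * K)) =
        120 * (K ^ 3 * (Real.sqrt δ + Real.sqrt m)) := by ring
    rw [h1]
    nlinarith
  have hX2 : 400 * K ^ 4 * m ≤ |cx n p i k| ^ 2 := by
    have h1 : (20 * K ^ 2 * (Real.sqrt δ + Real.sqrt m)) ^ 2 ≤ |cx n p i k| ^ 2 := by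
      have : 0 ≤ 20 * K ^ 2 * (Real.sqrt δ + Real.sqrt m) := by positivity
      gcongr
    have h2 : (20 * K ^ 2 * (Real.sqrt δ + Real.sqrt m)) ^ 2 =
        400 * K ^ 4 * (Real.sqrt δ ^ 2 + 2 * (Real.sqrt δ * Real.sqrt m) + Real.sqrt m ^ 2) := by
      ring
    rw [h2, hsm] at h1
    refine le_trans ?_ h1
    apply mul_le_mul_of_nonneg_left _ (by positivity)
    have : 0 ≤ Real.sqrt δ ^ 2 + 2 * (Real.sqrt δ * Real.sqrt m) := by positivity
    linarith
  -- the model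
  have hs' : |s| = 1 := by rcases hs with h | h <;> rw [h] <;> simp
  have ht' : |t| = 1 := by rcases ht with h | h <;> rw [h] <;> simp
  set A : Fin 3 → Fin 3 → ℝ := fun i j => s * n i * n j + t * p i * p j with hA
  have hd : ∀ i j, |H i j - A i j| ≤ 5 * K * m := fun i j => by
    have h1 : H i j - A i j = (H i j - (H1 i j + H2 i j)) + (H1 i j - s * n i * n j) +
        (H2 i j - t * p i * p j) := by
      simp only [hA]; ring
    rw [h1]
    refine (abs_add_three _ _ _).trans ?_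
    have h2 := hH i j
    have h3 := hsn i j
    have h4 := htp i j
    have h5 : m ≤ K * m := le_mul_of_one_le_left hm0 hK
    linarith
  have hHb : ∀ i j, |H i j| ≤ 3 * K := fun i j => by
    have h1 : |H i j| ≤ |H1 i j| + |H2 i j| + |H i j - (H1 i j + H2 i j)| := by
      have h2 : H i j = (H1 i j + H2 i j) + (H i j - (H1 i j + H2 i j)) := by ring
      calc |H i j| = |(H1 i j + H2 i j) + (H i j - (H1 i j + H2 i j))| := by rw [← h2]
        _ ≤ |H1 i j + H2 i j| + |H i j - (H1 i j + H2 i j)| := abs_add_le _ _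
        _ ≤ _ := by linarith [abs_add_le (H1 i j) (H2 i j)]
    linarith [b1 i j, b2 i j, hH i j]
  have hAb : ∀ i j, |A i j| ≤ 5 * K := fun i j => by
    have h1 : |A i j| ≤ |H i j| + |H i j - A i j| := by
      have h2 : A i j = H i j - (H i j - A i j) := by ring
      calc |A i j| = |H i j - (H i j - A i j)| := by rw [← h2]
        _ ≤ _ := abs_sub _ _
    have h3 : 5 * K * m ≤ 2 * K := by nlinarith
    linarith [hHb i j, hd i j]
  have hstab := mn_sub_le hAb (fun i j => (hHb i j).trans (by linarith)) (ε := 5 * K * m)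
    (fun i j => by rw [abs_sub_comm]; exact hd i j) i i k k
  have hA2 : |mn A i i k k| = |cx n p i k| ^ 2 := by
    simp only [hA]
    rw [mn_two, abs_mul, abs_mul, abs_mul, hs', ht']; ring
  have h7 := abs_sub_abs_le_abs_sub (mn A i i k k) (mn H i i k k)
  rw [hA2] at h7
  have h8 := m3 i i k k
  have h9 : 4 * (5 * K * (5 * K * m)) = 100 * K ^ 2 * m := by ring
  rw [h9] at hstab
  have h10 : |cx n p i k| ^ 2 ≤ m + 100 * K ^ 2 * m := by linarith
  -- contradiction with `hX2` (strictness from `hX`)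
  rcases eq_or_lt_of_le hm0 with h0 | h0
  · rw [← h0] at h10 hX
    simp only [mul_zero, add_zero] at h10
    have h11 : |cx n p i k| ^ 2 = 0 := le_antisymm h10 (sq_nonneg _)
    have h12 : |cx n p i k| = 0 := pow_eq_zero_iff (two_ne_zero) |>.1 h11
    rw [h12] at hX
    have : 0 ≤ 20 * K ^ 2 * (Real.sqrt δ + Real.sqrt 0) := by positivity
    linarith
  · have h11 : (1 : ℝ) ≤ K ^ 2 := one_le_pow₀ hK
    have h12 : K ^ 2 ≤ K ^ 4 := pow_le_pow_right₀ hK (by norm_num)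
    have h13 : K ^ 2 * m ≤ K ^ 4 * m := mul_le_mul_of_nonneg_right h12 hm0
    have h14 : m ≤ K ^ 4 * m := le_mul_of_one_le_left hm0 (h11.trans h12)
    have h15 : 0 < K ^ 4 * m := by positivity
    nlinarith

end Crest.Agent.R136.Rk601
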