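import Mathlib
import Crest.Agent.R136.Rk2_601

/-!
# R136 (U4, PLAN 2 (3) = (AL), leaf V6): 2-jets along a hypersurface, composition (helper601)

`Jt` = gradient and Hessian of a function of `(y; ζ, u, v)` at a point (`y` = normal coordinate).
`tg q q'`, `th q q'` = gradient and Hessian of the restriction of `q'` to the graph of `q`.
* `tg_comp`  : `tg q0 q2 = tg q1 q2 + μ tg q0 q1`, `μ = q2.a0 / q1.a0`.
* `th_comp`  : `th q0 q2 = th q1 q2 + μ th q0 q1` up to `2 B (1 + K) η`.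
* `h6_qf`    : intrinsic form of `h6_alg` (value of the first form at the third line).
* `h6_point` : three near squares at one point.
-/

set_option autoImplicit false

namespace Crest.Agent.R136.Rk601

/-- the restriction does not change if a multiple of `q` is added -/
theorem tg_addm {q q' : Jt} (h : q.a0 ≠ 0) (k : ℝ) (i : Fin 3) :
    tg q (q'.addm k q) i = tg q q' i := by
  simp only [tg, Jt.addm]
  field_simp
  ring

theorem th_addm {q q' : Jt} (h : q.a0 ≠ 0) (k : ℝ) (i j : Fin 3) :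
    th q (q'.addm k q) i j = th q q' i j := by
  simp only [th, lf, Jt.addm]
  field_simp
  ring

theorem th_symm {q q' : Jt} (hs : ∀ i j, q.h i j = q.h j i) (hs' : ∀ i j, q'.h i j = q'.h j i)
    (i j : Fin 3) : th q q' i j = th q q' j i := by
  unfold th lf
  rw [hs i j, hs' i j]
  ring

theorem tg_self {q : Jt} (h : q.a0 ≠ 0) (i : Fin 3) : tg q q i = 0 := by
  simp only [tg]
  field_simp
  ring

theorem th_self {q : Jt} (h : q.a0 ≠ 0) (i j : Fin 3) : th q q i j = 0 := by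
  simp only [th]
  field_simp
  ring

/-- difference of the slopes -/
theorem sl_sub {q0 q1 : Jt} (h0 : q0.a0 ≠ 0) (h1 : q1.a0 ≠ 0) (i : Fin 3) :
    sl q0 i - sl q1 i = tg q0 q1 i / q1.a0 := by
  unfold sl tg
  field_simp
  ring

/-- **composition of the gradients** -/
theorem tg_comp {q0 q1 q2 : Jt} (h1 : q1.a0 ≠ 0) (i : Fin 3) :
    tg q0 q2 i = tg q1 q2 i + q2.a0 / q1.a0 * tg q0 q1 i := by
  unfold tg
  field_simp
  ring

/-- **composition of the Hessians** -/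
theorem th_comp {q0 q1 q2 : Jt} {B K η : ℝ} (h0 : q0.a0 ≠ 0) (h1 : q1.a0 ≠ 0)
    (s0 : ∀ i, |sl q0 i| ≤ K) (s1 : ∀ i, |sl q1 i| ≤ K)
    (hη : ∀ i, |tg q0 q1 i| ≤ η * |q1.a0|)
    (hB0 : ∀ i, |q2.h0 i - q2.a0 / q1.a0 * q1.h0 i| ≤ B)
    (hB : |q2.h00 - q2.a0 / q1.a0 * q1.h00| ≤ B) (i j : Fin 3) :
    |th q0 q2 i j - (q2.a0 / q1.a0 * th q0 q1 i j + th q1 q2 i j)| ≤ 2 * B * (1 + K) * η := by
  have hB' : 0 ≤ B := (abs_nonneg _).trans hB
  have hK : 0 ≤ K := (abs_nonneg _).trans (s0 0)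
  have ha1 : 0 < |q1.a0| := abs_pos.2 h1
  have hη' : 0 ≤ η := by
    by_contra hc
    have h2 := (abs_nonneg _).trans (hη 0)
    nlinarith
  have hd : ∀ i, |sl q0 i - sl q1 i| ≤ η := fun i => by
    rw [sl_sub h0 h1, abs_div, div_le_iff₀ ha1]; exact hη i
  have key : th q0 q2 i j - (q2.a0 / q1.a0 * th q0 q1 i j + th q1 q2 i j) =
      (q2.h0 i - q2.a0 / q1.a0 * q1.h0 i) * (sl q0 j - sl q1 j) +
        (q2.h0 j - q2.a0 / q1.a0 * q1.h0 j) * (sl q0 i - sl q1 i) +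
        (q2.h00 - q2.a0 / q1.a0 * q1.h00) *
          ((sl q0 i - sl q1 i) * sl q0 j + sl q1 i * (sl q0 j - sl q1 j)) := by
    have e : q2.a0 / q0.a0 = q2.a0 / q1.a0 * (q1.a0 / q0.a0) := by field_simp
    simp only [th, lf]
    rw [e]
    ring
  rw [key]
  refine (abs_add_three _ _ _).trans ?_
  rw [abs_mul, abs_mul, abs_mul]
  have h2 := mul_le_mul (hB0 i) (hd j) (abs_nonneg _) hB'
  have h3 := mul_le_mul (hB0 j) (hd i) (abs_nonneg _) hB'
  have h4 : |(sl q0 i - sl q1 i) * sl q0 j + sl q1 i * (sl q0 j - sl q1 j)| ≤ η * K + K * η := by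
    refine (abs_add_le _ _).trans ?_
    rw [abs_mul, abs_mul]
    exact add_le_add (mul_le_mul (hd i) (s0 j) (abs_nonneg _) hη')
      (mul_le_mul (s1 i) (hd j) (abs_nonneg _) hK)
  have h5 := mul_le_mul hB h4 (abs_nonneg _) hB'
  linarith

/-- the quadratic form is linear in the matrix -/
theorem qf_smul (c : ℝ) (A : Fin 3 → Fin 3 → ℝ) (v : Fin 3 → ℝ) :
    qf (fun i j => c * A i j) v = c * qf A v := by
  unfold qf
  simp only [Fin.sum_univ_three]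
  ring

theorem mn_smul (c : ℝ) (A : Fin 3 → Fin 3 → ℝ) (i j k l : Fin 3) :
    mn (fun i j => c * A i j) i j k l = c ^ 2 * mn A i j k l := by
  unfold mn
  ring

/-- **V6, intrinsic form.** -/
theorem h6_qf {H1 H2 H : Fin 3 → Fin 3 → ℝ} {v : Fin 3 → ℝ} {K m δ μ : ℝ} (hK : 1 ≤ K)
    (s1 : ∀ i j, H1 i j = H1 j i) (s2 : ∀ i j, H2 i j = H2 j i)
    (b1 : ∀ i j, |H1 i j| ≤ K) (b2 : ∀ i j, |H2 i j| ≤ K)
    (l1 : ∃ i j, 1 / K ≤ |H1 i j|) (l2 : ∃ i j, 1 / K ≤ |H2 i j|)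
    (hμ : 1 / K ≤ |μ|) (hμ' : |μ| ≤ K)
    (m1 : ∀ i j k l, |mn H1 i j k l| ≤ m) (m2 : ∀ i j k l, |mn H2 i j k l| ≤ m)
    (m3 : ∀ i j k l, |mn H i j k l| ≤ m) (hH : ∀ i j, |H i j - (μ * H1 i j + H2 i j)| ≤ m)
    (hm : m ≤ 1 / (4 * K ^ 6)) (hv : ∀ i, |v i| ≤ K) (hδ : |qf H2 v| ≤ δ) :
    |qf H1 v| ≤ 200000 * K ^ 19 * (δ + m) := by
  have hK0 : (0 : ℝ) < K := by linarith
  have hK2 : (1 : ℝ) ≤ K ^ 2 := one_le_pow₀ hK
  have hKK : K ≤ K ^ 2 := le_self_pow₀ hK (by norm_num)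
  have hm0 : 0 ≤ m := (abs_nonneg _).trans (m1 0 0 0 0)
  have hδ0 : 0 ≤ δ := (abs_nonneg _).trans hδ
  have hmm : m ≤ K ^ 2 * m := le_mul_of_one_le_left hm0 hK2
  have hinv : 1 / K ^ 2 ≤ 1 / K := one_div_le_one_div_of_le hK0 hKK
  have hμ2 : μ ^ 2 ≤ K ^ 2 := by
    rw [← sq_abs μ]; exact pow_le_pow_left₀ (abs_nonneg _) hμ' 2
  obtain ⟨s, n, hs, hn, -, hsn, hnv⟩ := h6_alg (H1 := fun i j => μ * H1 i j) (H2 := H2) (H := H)
    (v := v) (K := K ^ 2) (m := K ^ 2 * m) (δ := δ) hK2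
    (fun i j => by show μ * H1 i j = μ * H1 j i; rw [s1 i j]) s2
    (fun i j => by
      show |μ * H1 i j| ≤ K ^ 2
      rw [abs_mul, sq]; exact mul_le_mul hμ' (b1 i j) (abs_nonneg _) hK0.le)
    (fun i j => (b2 i j).trans hKK)
    (by
      obtain ⟨i, j, hij⟩ := l1
      refine ⟨i, j, ?_⟩
      show 1 / K ^ 2 ≤ |μ * H1 i j|
      rw [abs_mul]
      calc 1 / K ^ 2 = 1 / K * (1 / K) := by field_simp
        _ ≤ |μ| * |H1 i j| := mul_le_mul hμ hij (by positivity) (abs_nonneg _))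
    (by
      obtain ⟨i, j, hij⟩ := l2
      exact ⟨i, j, hinv.trans hij⟩)
    (fun i j k l => by
      rw [mn_smul, abs_mul, abs_of_nonneg (sq_nonneg μ)]
      exact mul_le_mul hμ2 (m1 i j k l) (abs_nonneg _) (by positivity))
    (fun i j k l => (m2 i j k l).trans hmm) (fun i j k l => (m3 i j k l).trans hmm)
    (fun i j => (hH i j).trans hmm)
    (by
      have h1 : K ^ 2 * m ≤ K ^ 2 * (1 / (4 * K ^ 6)) := mul_le_mul_of_nonneg_left hm (by positivity)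
      have h2 : K ^ 2 * (1 / (4 * K ^ 6)) = 1 / (4 * (K ^ 2) ^ 2) := by field_simp
      rw [h2] at h1; exact h1)
    (fun i => (hv i).trans hKK) hδ
  -- value of `μ H1` at `v`
  have hsqm : Real.sqrt (K ^ 2 * m) ^ 2 = K ^ 2 * m := Real.sq_sqrt (by positivity)
  have hsqd : Real.sqrt δ ^ 2 = δ := Real.sq_sqrt hδ0
  have hnv2 : dp n v ^ 2 ≤ 180000 * K ^ 16 * (δ + K ^ 2 * m) := by
    have h1 : dp n v ^ 2 ≤
        (300 * (K ^ 2) ^ 4 * (Real.sqrt δ + Real.sqrt (K ^ 2 * m))) ^ 2 := by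
      rw [← sq_abs (dp n v)]; exact pow_le_pow_left₀ (abs_nonneg _) hnv 2
    have h2 : (Real.sqrt δ + Real.sqrt (K ^ 2 * m)) ^ 2 ≤ 2 * (δ + K ^ 2 * m) := by
      nlinarith [sq_nonneg (Real.sqrt δ - Real.sqrt (K ^ 2 * m))]
    calc dp n v ^ 2 ≤ _ := h1
      _ = 90000 * K ^ 16 * (Real.sqrt δ + Real.sqrt (K ^ 2 * m)) ^ 2 := by ring
      _ ≤ 90000 * K ^ 16 * (2 * (δ + K ^ 2 * m)) := by gcongr
      _ = _ := by ring
  have hval : |qf (fun i j => μ * H1 i j) v| ≤ dp n v ^ 2 + 9 * (2 * K ^ 2 * (K ^ 2 * m) * K ^ 2) := by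
    have h1 : |qf (fun i j => μ * H1 i j) v - qf (fun i j => s * n i * n j) v| ≤
        9 * (2 * K ^ 2 * (K ^ 2 * m) * K ^ 2) := by
      rw [qf_sub]
      exact qf_le (a := 2 * K ^ 2 * (K ^ 2 * m)) (b := K) hsn hv
    rw [qf_rank_one] at h1
    have h2 : |s * dp n v ^ 2| = dp n v ^ 2 := by
      rw [abs_mul, abs_of_nonneg (sq_nonneg (dp n v))]
      rcases hs with h | h <;> rw [h] <;> simp
    have h3 := abs_sub_abs_le_abs_sub (qf (fun i j => μ * H1 i j) v) (s * dp n v ^ 2)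
    linarith
  rw [qf_smul, abs_mul] at hval
  have hq0 := abs_nonneg (qf H1 v)
  have h4 : |qf H1 v| ≤ K * (|μ| * |qf H1 v|) := by
    have h5 : 1 ≤ K * |μ| := by
      have := mul_le_mul_of_nonneg_left hμ hK0.le
      rwa [mul_one_div_cancel hK0.ne'] at this
    calc |qf H1 v| = 1 * |qf H1 v| := by ring
      _ ≤ K * |μ| * |qf H1 v| := mul_le_mul_of_nonneg_right h5 hq0
      _ = _ := by ring
  have hp1 : K ^ 6 ≤ K ^ 18 := pow_le_pow_right₀ hK (by norm_num)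
  have hp2 : K ^ 16 ≤ K ^ 18 := pow_le_pow_right₀ hK (by norm_num)
  have h6 : |μ| * |qf H1 v| ≤ 200000 * K ^ 18 * (δ + m) := by
    have h7 : 180000 * K ^ 16 * (δ + K ^ 2 * m) = 180000 * (K ^ 16 * δ) + 180000 * (K ^ 18 * m) := by
      ring
    have h8 : 9 * (2 * K ^ 2 * (K ^ 2 * m) * K ^ 2) = 18 * (K ^ 6 * m) := by ring
    have h9 : K ^ 16 * δ ≤ K ^ 18 * δ := mul_le_mul_of_nonneg_right hp2 hδ0
    have h10 : K ^ 6 * m ≤ K ^ 18 * m := mul_le_mul_of_nonneg_right hp1 hm0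
    have h11 : 0 ≤ K ^ 18 * δ := by positivity
    have h12 : 0 ≤ K ^ 18 * m := by positivity
    rw [h7] at hnv2
    rw [h8] at hval
    have h13 : 200000 * K ^ 18 * (δ + m) = 200000 * (K ^ 18 * δ) + 200000 * (K ^ 18 * m) := by ring
    rw [h13]
    linarith
  calc |qf H1 v| ≤ K * (|μ| * |qf H1 v|) := h4
    _ ≤ K * (200000 * K ^ 18 * (δ + m)) := mul_le_mul_of_nonneg_left h6 hK0.le
    _ = 200000 * K ^ 19 * (δ + m) := by ring

/-- **three near squares at one point** (`c = 1 / (E a)`): the second form of the first pair is small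
at the direction `v` of the line `T'`. -/
theorem h6_point {q0 q1 q2 : Jt} {v : Fin 3 → ℝ} {K m δ c B η : ℝ} (hK : 1 ≤ K)
    (h0 : q0.a0 ≠ 0) (h1 : q1.a0 ≠ 0)
    (y0 : ∀ i j, q0.h i j = q0.h j i) (y1 : ∀ i j, q1.h i j = q1.h j i)
    (y2 : ∀ i j, q2.h i j = q2.h j i)
    (sl0 : ∀ i, |sl q0 i| ≤ K) (sl1 : ∀ i, |sl q1 i| ≤ K)
    (hμ : 1 / K ≤ |q2.a0 / q1.a0|) (hμ' : |q2.a0 / q1.a0| ≤ K)
    (hη : ∀ i, |tg q0 q1 i| ≤ η * |q1.a0|)
    (hB0 : ∀ i, |q2.h0 i - q2.a0 / q1.a0 * q1.h0 i| ≤ B)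
    (hB : |q2.h00 - q2.a0 / q1.a0 * q1.h00| ≤ B) (hc : 0 ≤ c)
    (herr : c * (2 * B * (1 + K) * η) ≤ m)
    (b1 : ∀ i j, c * |th q0 q1 i j| ≤ K) (b2 : ∀ i j, c * |th q1 q2 i j| ≤ K)
    (l1 : ∃ i j, 1 / K ≤ c * |th q0 q1 i j|) (l2 : ∃ i j, 1 / K ≤ c * |th q1 q2 i j|)
    (m1 : ∀ i j k l, c ^ 2 * |mn (th q0 q1) i j k l| ≤ m)
    (m2 : ∀ i j k l, c ^ 2 * |mn (th q1 q2) i j k l| ≤ m)
    (m3 : ∀ i j k l, c ^ 2 * |mn (th q0 q2) i j k l| ≤ m)
    (hm : m ≤ 1 / (4 * K ^ 6)) (hv : ∀ i, |v i| ≤ K) (hδ : c * |qf (th q1 q2) v| ≤ δ) :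
    c * |qf (th q0 q1) v| ≤ 200000 * K ^ 19 * (δ + m) := by
  have hab : ∀ x : ℝ, |c * x| = c * |x| := fun x => by rw [abs_mul, abs_of_nonneg hc]
  have key := h6_qf (H1 := fun i j => c * th q0 q1 i j) (H2 := fun i j => c * th q1 q2 i j)
    (H := fun i j => c * th q0 q2 i j) (v := v) (K := K) (m := m) (δ := δ)
    (μ := q2.a0 / q1.a0) hK
    (fun i j => by show c * th q0 q1 i j = c * th q0 q1 j i; rw [th_symm y0 y1])
    (fun i j => by show c * th q1 q2 i j = c * th q1 q2 j i; rw [th_symm y1 y2])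
    (fun i j => by show |c * th q0 q1 i j| ≤ K; rw [hab]; exact b1 i j)
    (fun i j => by show |c * th q1 q2 i j| ≤ K; rw [hab]; exact b2 i j)
    (by obtain ⟨i, j, h⟩ := l1; exact ⟨i, j, by show _ ≤ |c * th q0 q1 i j|; rw [hab]; exact h⟩)
    (by obtain ⟨i, j, h⟩ := l2; exact ⟨i, j, by show _ ≤ |c * th q1 q2 i j|; rw [hab]; exact h⟩)
    hμ hμ'
    (fun i j k l => by rw [mn_smul, abs_mul, abs_of_nonneg (sq_nonneg c)]; exact m1 i j k l)
    (fun i j k l => by rw [mn_smul, abs_mul, abs_of_nonneg (sq_nonneg c)]; exact m2 i j k l)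
    (fun i j k l => by rw [mn_smul, abs_mul, abs_of_nonneg (sq_nonneg c)]; exact m3 i j k l)
    (fun i j => by
      have e : c * th q0 q2 i j - (q2.a0 / q1.a0 * (c * th q0 q1 i j) + c * th q1 q2 i j) =
          c * (th q0 q2 i j - (q2.a0 / q1.a0 * th q0 q1 i j + th q1 q2 i j)) := by ring
      show |c * th q0 q2 i j - (q2.a0 / q1.a0 * (c * th q0 q1 i j) + c * th q1 q2 i j)| ≤ m
      rw [e, hab]
      exact (mul_le_mul_of_nonneg_left (th_comp h0 h1 sl0 sl1 hη hB0 hB i j) hc).trans herr)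
    hm hv
    (by rw [qf_smul, hab]; exact hδ)
  rwa [qf_smul, hab] at key

end Crest.Agent.R136.Rk601
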