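import Crest.Agent.R136.Cap1_102
import Crest.Agent.R136.Rk3_601

/-!
# R136 (U4, PLAN 2 (3) = (AL)): 2-jets of quadratic functions in a moving frame (helper601)

`JetAt q f V z X ρ J`: `J` is the 2-jet of `q` at `(z, X)` in the coordinates
`(y; ζ, u, v) ↦ (z + ρ ζ, X + ρ ζ V + y f₀ + u f₁ + v f₂)`.
`exists_jet`, `jet_unique`, `jet_shift`, `jet_exp` (from `IsExp`), `jet_line`, `JetAt.addm`.
-/

set_option autoImplicit false

namespace Crest.Agent.R136.Rk601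

open Crest.Agent.R136.Sh605 Crest.Agent.R136.Tl102

/-- `J` is the 2-jet of `q` at `(z, X)` -/
def JetAt (q : ℝ → V3 → ℝ) (f : Fin 3 → V3) (V : V3) (z : ℝ) (X : V3) (ρ : ℝ) (J : Jt) : Prop :=
  ∀ y ζ u v : ℝ, q (z + ρ * ζ) (X + (ρ * ζ) • V + cmb f ![y, u, v]) =
    q z X + J.a0 * y + dp J.a ![ζ, u, v] +
      1 / 2 * (J.h00 * y ^ 2 + 2 * y * dp J.h0 ![ζ, u, v] + qf J.h ![ζ, u, v])

/-- the jet of an explicit quadratic function -/
def jetOf (c1 c2 : ℝ) (b d : Fin 3 → ℝ) (g : Fin 3 → Fin 3 → ℝ) (f : Fin 3 → V3) (V : V3) (z : ℝ)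
    (X : V3) (ρ : ℝ) : Jt :=
  let L : ℝ → V3 → ℝ := fun s x => (c1 + 2 * c2 * z + ∑ i, d i * X i) * s +
    ∑ i, (b i + d i * z + ∑ j, (g i j + g j i) * X j) * x i
  let B : ℝ → V3 → ℝ → V3 → ℝ := fun s x t y => 2 * c2 * s * t + s * ∑ i, d i * y i +
    t * ∑ i, d i * x i + ∑ i, ∑ j, (g i j + g j i) * (x i * y j)
  let S : Fin 3 → ℝ := ![ρ, 0, 0]
  let E : Fin 3 → V3 := ![ρ • V, f 1, f 2]
  { a0 := L 0 (f 0)
    a := fun i => L (S i) (E i)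
    h00 := B 0 (f 0) 0 (f 0)
    h0 := fun i => B 0 (f 0) (S i) (E i)
    h := fun i j => B (S i) (E i) (S j) (E j) }

theorem jetOf_sym (c1 c2 : ℝ) (b d : Fin 3 → ℝ) (g : Fin 3 → Fin 3 → ℝ) (f : Fin 3 → V3) (V : V3)
    (z : ℝ) (X : V3) (ρ : ℝ) : (jetOf c1 c2 b d g f V z X ρ).Sym := by
  intro i j
  simp only [jetOf, Fin.sum_univ_three]
  ring

/-- every function of the class has a jet -/
theorem exists_jet {q : ℝ → V3 → ℝ} (hq : IsQ q) (f : Fin 3 → V3) (V : V3) (z : ℝ) (X : V3)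
    (ρ : ℝ) : ∃ J : Jt, J.Sym ∧ JetAt q f V z X ρ J := by
  obtain ⟨c0, c1, c2, b, d, g, h⟩ := hq
  refine ⟨jetOf c1 c2 b d g f V z X ρ, jetOf_sym _ _ _ _ _ _ _ _ _ _, fun y ζ u v => ?_⟩
  rw [h, h]
  simp only [jetOf, dp, qf, cmb, Fin.sum_univ_three, Pi.add_apply, Pi.smul_apply, smul_eq_mul,
    Matrix.cons_val]
  ring

/-- the jet is unique -/
theorem jet_unique {q : ℝ → V3 → ℝ} {f : Fin 3 → V3} {V : V3} {z : ℝ} {X : V3} {ρ : ℝ} {J J' : Jt}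
    (h : JetAt q f V z X ρ J) (h' : JetAt q f V z X ρ J') (hs : J.Sym) (hs' : J'.Sym) : J = J' := by
  have key : ∀ y ζ u v : ℝ, J.a0 * y + dp J.a ![ζ, u, v] +
      1 / 2 * (J.h00 * y ^ 2 + 2 * y * dp J.h0 ![ζ, u, v] + qf J.h ![ζ, u, v]) =
      J'.a0 * y + dp J'.a ![ζ, u, v] +
      1 / 2 * (J'.h00 * y ^ 2 + 2 * y * dp J'.h0 ![ζ, u, v] + qf J'.h ![ζ, u, v]) := by
    intro y ζ u v
    have h1 := h y ζ u v
    have h2 := h' y ζ u v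
    linarith
  simp only [dp, qf, Fin.sum_univ_three, Matrix.cons_val] at key
  have s10 := hs 1 0
  have s20 := hs 2 0
  have s21 := hs 2 1
  have t10 := hs' 1 0
  have t20 := hs' 2 0
  have t21 := hs' 2 1
  have y1 := key 1 0 0 0
  have y2 := key (-1) 0 0 0
  have z1 := key 0 1 0 0
  have z2 := key 0 (-1) 0 0
  have u1 := key 0 0 1 0
  have u2 := key 0 0 (-1) 0
  have v1 := key 0 0 0 1
  have v2 := key 0 0 0 (-1)
  have yz := key 1 1 0 0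
  have yu := key 1 0 1 0
  have yv := key 1 0 0 1
  have zu := key 0 1 1 0
  have zv := key 0 1 0 1
  have uv := key 0 0 1 1
  norm_num at y1 y2 z1 z2 u1 u2 v1 v2 yz yu yv zu zv uv
  obtain ⟨a0, a, h00, h0, hh⟩ := J
  obtain ⟨a0', a', h00', h0', hh'⟩ := J'
  simp only at *
  have e1 : a0 = a0' := by linarith
  have e2 : h00 = h00' := by linarith
  have e3 : a = a' := by funext i; fin_cases i <;> simp only [Fin.zero_eta, Fin.mk_one,
    Fin.reduceFinMk] <;> linarith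
  have e4 : h0 = h0' := by funext i; fin_cases i <;> simp only [Fin.zero_eta, Fin.mk_one,
    Fin.reduceFinMk] <;> linarith
  have e5 : hh = hh' := by
    funext i j
    fin_cases i <;> fin_cases j <;> simp only [Fin.zero_eta, Fin.mk_one, Fin.reduceFinMk] <;>
      linarith
  rw [e1, e2, e3, e4, e5]

theorem jet_shift {q : ℝ → V3 → ℝ} {f : Fin 3 → V3} {V : V3} {z : ℝ} {X : V3} {ρ : ℝ} {J : Jt}
    (h : JetAt q f V z X ρ J) (hs : J.Sym) (y0 ζ0 u0 v0 : ℝ) :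
    JetAt q f V (z + ρ * ζ0) (X + (ρ * ζ0) • V + cmb f ![y0, u0, v0]) ρ
      (J.shift y0 ![ζ0, u0, v0]) := by
  intro y ζ u v
  have h1 := h (y0 + y) (ζ0 + ζ) (u0 + u) (v0 + v)
  have h2 := h y0 ζ0 u0 v0
  have e1 : z + ρ * ζ0 + ρ * ζ = z + ρ * (ζ0 + ζ) := by ring
  have e2 : X + (ρ * ζ0) • V + cmb f ![y0, u0, v0] + (ρ * ζ) • V + cmb f ![y, u, v] =
      X + (ρ * (ζ0 + ζ)) • V + cmb f ![y0 + y, u0 + u, v0 + v] := by
    funext i
    simp only [cmb, Pi.add_apply, Pi.smul_apply, smul_eq_mul, Matrix.cons_val]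
    ring
  rw [e1, e2, h1, h2]
  have s10 := hs 1 0
  have s20 := hs 2 0
  have s21 := hs 2 1
  simp only [Jt.shift, dp, qf, Fin.sum_univ_three, Matrix.cons_val]
  rw [s10, s20, s21]
  ring

/-- jets are linear -/
theorem JetAt.addm {q q' : ℝ → V3 → ℝ} {f : Fin 3 → V3} {V : V3} {z : ℝ} {X : V3} {ρ : ℝ}
    {J J' : Jt} (h : JetAt q f V z X ρ J) (h' : JetAt q' f V z X ρ J') (k : ℝ) :
    JetAt (fun z x => q' z x + k * q z x) f V z X ρ (J'.addm k J) := by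
  intro y ζ u v
  have h1 := h y ζ u v
  have h2 := h' y ζ u v
  show q' _ _ + k * q _ _ = q' z X + k * q z X + _ + _ + _
  rw [h1, h2]
  simp only [Jt.addm, dp, qf, Fin.sum_univ_three, Matrix.cons_val]
  ring

/-- **the jet on the line `T` from the expansion around `T`**; `k1`, `k2` = coefficients of `q` along
`T` (small if `T` lies in the sheet). -/
theorem jet_exp {q : ℝ → V3 → ℝ} {e : Fin 3 → V3} {w : V3} {T : Ln4} {z0 ρ : ℝ} {b0 b1 : V3}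
    {G : QF} (h : IsExp q e w T z0 ρ b0 b1 G) {ζ0 k1 k2 : ℝ}
    (hk : ∀ ζ, q (z0 + ρ * (ζ0 + ζ)) (T.pos (z0 + ρ * (ζ0 + ζ))) =
      q (z0 + ρ * ζ0) (T.pos (z0 + ρ * ζ0)) + k1 * ζ + k2 * ζ ^ 2) :
    JetAt q (fr e w) T.v (z0 + ρ * ζ0) (T.pos (z0 + ρ * ζ0)) ρ
      { a0 := w 0 * (b0 0 + ζ0 * b1 0)
        a := ![k1, w 0 * (b0 1 + ζ0 * b1 1), w 0 * (b0 2 + ζ0 * b1 2)]
        h00 := 2 * (w 0 * G.yy)
        h0 := ![w 0 * b1 0, w 0 * G.yu, w 0 * G.yv]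
        h := ![![2 * k2, w 0 * b1 1, w 0 * b1 2], ![w 0 * b1 1, 2 * (w 0 * G.uu), w 0 * G.uv],
          ![w 0 * b1 2, w 0 * G.uv, 2 * (w 0 * G.vv)]] } := by
  intro y ζ u v
  have h1 := h (ζ0 + ζ) ![y, u, v]
  rw [hk ζ] at h1
  have e1 : z0 + ρ * ζ0 + ρ * ζ = z0 + ρ * (ζ0 + ζ) := by ring
  have e2 : T.pos (z0 + ρ * ζ0) + (ρ * ζ) • T.v = T.pos (z0 + ρ * (ζ0 + ζ)) := by
    funext i
    simp only [Ln4.pos, Pi.add_apply, Pi.smul_apply, smul_eq_mul]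
    ring
  rw [e1, e2, h1]
  simp only [Fq, Sh605.dt, bz, QF.ev, dp, qf, Fin.sum_univ_three, Matrix.cons_val]
  ring

/-- values along a line through the point: `w = (1, u₁, v₁)`, normal velocity `y₁` -/
theorem jet_line {q : ℝ → V3 → ℝ} {f : Fin 3 → V3} {V : V3} {z : ℝ} {X : V3} {ρ : ℝ} {J : Jt}
    (h : JetAt q f V z X ρ J) {T : Ln4} (hX : T.pos z = X) {y1 u1 v1 : ℝ}
    (hv : ρ • T.v = ρ • V + cmb f ![y1, u1, v1]) (ζ : ℝ) :
    q (z + ρ * ζ) (T.pos (z + ρ * ζ)) = q z X + ζ * (J.a0 * y1 + dp J.a ![1, u1, v1]) +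
      ζ ^ 2 / 2 * (J.h00 * y1 ^ 2 + 2 * y1 * dp J.h0 ![1, u1, v1] + qf J.h ![1, u1, v1]) := by
  have h1 := h (ζ * y1) ζ (ζ * u1) (ζ * v1)
  have e2 : T.pos (z + ρ * ζ) = X + (ρ * ζ) • V + cmb f ![ζ * y1, ζ * u1, ζ * v1] := by
    funext i
    have h2 := congrFun hv i
    simp only [Ln4.pos, cmb, Pi.add_apply, Pi.smul_apply, smul_eq_mul, Matrix.cons_val] at h2 ⊢
    rw [← hX]
    simp only [Ln4.pos]
    linear_combination ζ * h2
  rw [e2, h1]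
  simp only [dp, qf, Fin.sum_univ_three, Matrix.cons_val]
  ring

end Crest.Agent.R136.Rk601
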