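import Crest.Agent.R136.Adj4_214
import Crest.Agent.R136.Rk4_601
import Crest.Agent.R136.Deep4_51

/-!
# R136 (S0187), U4 (AL): the chart of a sheet around one of its lines, division (helper214)

`cx` = chart of the sheet around the line `T` (thickness in units of `κ w 0`, all in units of
`r = 1/256` of the plank); `chart`: normal form `NJ` of `q / (κ r w 0)`; `divide`: a quadratic
function which is close to the sheet near `T` is a multiple of `q` plus a small jet; `point_of`: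
points of the sheet near `T` are chart points.
-/

set_option autoImplicit false

namespace Crest.Agent.R136.Adj214

open Crest.Agent.R136.Sh605 Crest.Agent.R136.Tl102
open Crest.Agent.R136.Deep51 (CloseC)
open Crest.Agent.R136.Rk601 (Jt dp qf lf sl JetAt exists_jet)

/-- chart coordinates `(y; ζ, u, v)` around the line `T` -/
noncomputable def cx (e : Fin 3 → V3) (w b0 : V3) (κ z0 ρ : ℝ) (T : Ln4) (ζ y u v : ℝ) : V3 :=
  T.pos (z0 + ρ * ζ) + cmb (fr e w) (unsh b0 (κ * (1 / 256 * y)) (1 / 256 * u) (1 / 256 * v))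

/-- the frame of the chart -/
noncomputable def cfr (e : Fin 3 → V3) (w b0 : V3) (κ : ℝ) : Fin 3 → V3 :=
  ![(κ * (1 / 256) * w 0) • e 0,
    (1 / 256 : ℝ) • (w 1 • e 1 - (b0 1 / b0 0 * w 0) • e 0),
    (1 / 256 : ℝ) • (w 2 • e 2 - (b0 2 / b0 0 * w 0) • e 0)]

theorem cx_eq (e : Fin 3 → V3) (w b0 : V3) (κ z0 ρ : ℝ) (T : Ln4) (ζ y u v : ℝ) :
    cx e w b0 κ z0 ρ T ζ y u v =
      T.pos z0 + (ρ * ζ) • T.v + cmb (cfr e w b0 κ) ![y, u, v] := by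
  funext i
  simp only [cx, cmb, fr, cfr, unsh, Ln4.pos, Pi.add_apply, Pi.smul_apply, Pi.sub_apply,
    smul_eq_mul, Matrix.cons_val]
  ring

/-- the jet of the sheet function in units of `κ r w 0` -/
noncomputable def jc (b0 b1 : V3) (G : QF) (κ θ1 θ2 : ℝ) : Jt where
  a0 := b0 0
  a := ![θ1, 0, 0]
  h00 := 2 * (1 / 256 * (scG κ b0 G).yy)
  h0 := ![b1 0, 1 / 256 * (scG κ b0 G).yu, 1 / 256 * (scG κ b0 G).yv]
  h := ![![2 * θ2, scB1 κ b0 b1 1, scB1 κ b0 b1 2],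
    ![scB1 κ b0 b1 1, 2 * (1 / 256 * (scG κ b0 G).uu), 1 / 256 * (scG κ b0 G).uv],
    ![scB1 κ b0 b1 2, 1 / 256 * (scG κ b0 G).uv, 2 * (1 / 256 * (scG κ b0 G).vv)]]

section
variable {e : Fin 3 → V3} {c T : Ln4} {w : V3} {q : ℝ → V3 → ℝ} {a z0 ρ r0 : ℝ}
  {b0 b1 : V3} {G : QF}

/-- value of `q` in the chart -/
theorem q_cx (hE : IsExp q e w T z0 ρ b0 b1 G) (hb : b0 0 ≠ 0) {κ : ℝ} (hκ : κ ≠ 0)
    {θ0 θ1 θ2 : ℝ} (hθ : ∀ ζ, q (z0 + ρ * ζ) (T.pos (z0 + ρ * ζ)) =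
      κ * (1 / 256) * w 0 * (θ0 + θ1 * ζ + θ2 * ζ ^ 2)) (ζ y u v : ℝ) :
    q (z0 + ρ * ζ) (cx e w b0 κ z0 ρ T ζ y u v) =
      κ * (1 / 256) * w 0 * (θ0 + ev (jc b0 b1 G κ θ1 θ2) y ![ζ, u, v]) := by
  unfold cx
  rw [hE, hθ, Fq_scaled hb hκ]
  simp only [ev, jc, dp, qf, Fin.sum_univ_three, Matrix.cons_val, Fq, Sh605.dt, bz, QF.ev, shB0]
  have e0 : scB1 κ b0 b1 0 = b1 0 := rfl
  rw [e0]
  ring

theorem theta (hq : IsQ q) (T : Ln4) (z0 ρ : ℝ) : ∃ θ0 θ1 θ2 : ℝ, ∀ ζ,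
    q (z0 + ρ * ζ) (T.pos (z0 + ρ * ζ)) = θ0 + θ1 * ζ + θ2 * ζ ^ 2 := by
  obtain ⟨J, -, hJ⟩ := exists_jet hq (fun _ => 0) T.v z0 (T.pos z0) ρ
  refine ⟨q z0 (T.pos z0), J.a 0, 1 / 2 * J.h 0 0, fun ζ => ?_⟩
  have h1 := hJ 0 ζ 0 0
  have e1 : T.pos z0 + (ρ * ζ) • T.v + cmb (fun _ => 0) ![0, 0, 0] = T.pos (z0 + ρ * ζ) := by
    funext i
    simp only [cmb, Ln4.pos, Pi.add_apply, Pi.smul_apply, smul_eq_mul, Matrix.cons_val,
      Pi.zero_apply]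
    ring
  rw [e1] at h1
  rw [h1]
  simp only [dp, qf, Fin.sum_univ_three, Matrix.cons_val]
  ring

theorem theta_le {θ0 θ1 θ2 B : ℝ} (h : ∀ ζ, 0 ≤ ζ → ζ ≤ 1 → |θ0 + θ1 * ζ + θ2 * ζ ^ 2| ≤ B) :
    |θ0| ≤ B ∧ |θ1| ≤ 8 * B ∧ |θ2| ≤ 8 * B := by
  have h0 := h 0 le_rfl zero_le_one
  have h1 := h 1 zero_le_one le_rfl
  have h2 := h (1 / 2) (by norm_num) (by norm_num)
  norm_num at h0 h1 h2
  rw [abs_le] at h0 h1 h2
  refine ⟨abs_le.2 h0, ?_, ?_⟩ <;> rw [abs_le] <;> constructor <;>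
    linarith [h0.1, h0.2, h1.1, h1.2, h2.1, h2.2]

theorem kap_cases (b0 b1 : V3) (G : QF) : kap b0 b1 G = |shB1 b0 b1 1| ∨
    kap b0 b1 G = |shB1 b0 b1 2| ∨ kap b0 b1 G = |(shG b0 G).uu| ∨
    kap b0 b1 G = |(shG b0 G).uv| ∨ kap b0 b1 G = |(shG b0 G).vv| := by
  unfold kap
  rcases max_choice (max |shB1 b0 b1 1| |shB1 b0 b1 2|)
    (max (max |(shG b0 G).uu| |(shG b0 G).uv|) |(shG b0 G).vv|) with h | h <;> rw [h]
  · rcases max_choice |shB1 b0 b1 1| |shB1 b0 b1 2| with h | h <;> rw [h]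
    · exact Or.inl rfl
    · exact Or.inr (Or.inl rfl)
  · rcases max_choice (max |(shG b0 G).uu| |(shG b0 G).uv|) |(shG b0 G).vv| with h | h <;> rw [h]
    · rcases max_choice |(shG b0 G).uu| |(shG b0 G).uv| with h | h <;> rw [h]
      · exact Or.inr (Or.inr (Or.inl rfl))
      · exact Or.inr (Or.inr (Or.inr (Or.inl rfl)))
    · exact Or.inr (Or.inr (Or.inr (Or.inr rfl)))

/-- **normal form of the jet** -/
theorem nj_of (N : NrmC b0 b1 G) (hκ : 0 < kap b0 b1 G) {θ0 θ1 θ2 : ℝ} (t0 : |θ0| ≤ 1 / 3000)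
    (t1 : |θ1| ≤ 1 / 400) (t2 : |θ2| ≤ 1) : NJ θ0 (jc b0 b1 G (kap b0 b1 G) θ1 θ2) := by
  obtain ⟨-, -, k1, k2, k3, k4, k5, k6, k7, k8⟩ := N.sc_le hκ
  obtain ⟨-, -, -, -, g1, -, -, s1, s2⟩ := N.b1_le
  set κ := kap b0 b1 G with hκdef
  have half : ∀ {x B : ℝ}, |x| ≤ B → |1 / 256 * x| ≤ 1 / 256 * B := fun hx =>
    abs2 (by norm_num : |(1 / 256 : ℝ)| ≤ 1 / 256) hx
  have two : ∀ {x B : ℝ}, |x| ≤ B → |2 * x| ≤ 2 * B := fun hx =>
    abs2 (by norm_num : |(2 : ℝ)| ≤ 2) hx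
  have unit : ∀ x : ℝ, κ = |x| → |x / κ| = 1 := by
    intro x hx
    rw [abs_div, ← hx, abs_of_pos hκ, div_self hκ.ne']
  refine ⟨?_, ?_, ?_, ?_, ?_, ?_, ?_, ?_, rfl, rfl, t0, ?_⟩
  · intro i j
    fin_cases i <;> fin_cases j <;> rfl
  · intro y ξ hy z1 z2 hu hv
    have eyu : (scG κ b0 G).yu = G.yu - 2 * (b0 1 / b0 0) * G.yy := rfl
    have eyv : (scG κ b0 G).yv = G.yv - 2 * (b0 2 / b0 0) * G.yy := rfl
    have eyy : (scG κ b0 G).yy = κ * G.yy := rfl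
    have hk13 : |κ| ≤ 13 := by rw [abs_of_pos hκ]; exact kap_le N
    have hσ : |2 * (1 / 256 * (κ * y)) + -(2 * (1 / 256 * (b0 1 / b0 0 * ξ 1))) +
        -(2 * (1 / 256 * (b0 2 / b0 0 * ξ 2)))| ≤ 1 := by
      refine (abs_add_le _ _).trans ((add_le_add (abs_add_le _ _) le_rfl).trans ?_)
      rw [abs_neg, abs_neg]
      have a1 := two (half (abs2 hk13 hy))
      have a2 := two (half (abs2 s1 hu))
      have a3 := two (half (abs2 s2 hv))
      linarith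
    have hu' : |1 / 256 * ξ 1| ≤ 1 := (half hu).trans (by norm_num)
    have hv' : |1 / 256 * ξ 2| ≤ 1 := (half hv).trans (by norm_num)
    have := N.st (ξ 0) z1 z2 _ _ _ hσ hu' hv'
    have e : (jc b0 b1 G κ θ1 θ2).a0 + (jc b0 b1 G κ θ1 θ2).h00 * y +
        dp (jc b0 b1 G κ θ1 θ2).h0 ξ = b0 0 + ξ 0 * b1 0 + G.yy * (2 * (1 / 256 * (κ * y)) +
        -(2 * (1 / 256 * (b0 1 / b0 0 * ξ 1))) + -(2 * (1 / 256 * (b0 2 / b0 0 * ξ 2)))) +
        G.yu * (1 / 256 * ξ 1) + G.yv * (1 / 256 * ξ 2) := by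
      simp only [jc, dp, Fin.sum_univ_three, Matrix.cons_val, eyu, eyv, eyy]
      ring
    rw [e]
    exact this
  · exact (two (half k3)).trans (by norm_num)
  · exact g1
  · exact (half k4).trans (by norm_num)
  · exact (half k5).trans (by norm_num)
  · intro i j
    fin_cases i <;> fin_cases j
    · exact (two t2).trans (by norm_num)
    · exact k1.trans (by norm_num)
    · exact k2.trans (by norm_num)
    · exact k1.trans (by norm_num)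
    · exact (two (half k6)).trans (by norm_num)
    · exact (half k7).trans (by norm_num)
    · exact k2.trans (by norm_num)
    · exact (half k7).trans (by norm_num)
    · exact (two (half k8)).trans (by norm_num)
  · exact t1
  · rcases kap_cases b0 b1 G with h | h | h | h | h
    · refine Or.inl ⟨1, by decide, ?_⟩
      change 1 / 2 ≤ |shB1 b0 b1 1 / κ|
      rw [unit _ h]; norm_num
    · refine Or.inl ⟨2, by decide, ?_⟩
      change 1 / 2 ≤ |shB1 b0 b1 2 / κ|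
      rw [unit _ h]; norm_num
    · refine Or.inr ⟨1, 1, by decide, by decide, ?_⟩
      change 1 / 256 ≤ |2 * (1 / 256 * ((shG b0 G).uu / κ))|
      rw [abs_mul, abs_mul, unit _ h]; norm_num
    · refine Or.inr ⟨1, 2, by decide, by decide, ?_⟩
      change 1 / 256 ≤ |1 / 256 * ((shG b0 G).uv / κ)|
      rw [abs_mul, unit _ h]; norm_num
    · refine Or.inr ⟨2, 2, by decide, by decide, ?_⟩
      change 1 / 256 ≤ |2 * (1 / 256 * ((shG b0 G).vv / κ))|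
      rw [abs_mul, abs_mul, unit _ h]; norm_num

/-- the chart of the box -/
theorem cx_inK (he : Ortho e) (hw : ∀ i, 0 ≤ w i) (N : NrmC b0 b1 G) {κ : ℝ} (hκ : |κ| ≤ 13)
    {ζ y u v : ℝ} (hy : |y| ≤ 1) (hu : |u| ≤ 1) (hv : |v| ≤ 1) :
    InK e T (fun i => w i / 8) (z0 + ρ * ζ) (cx e w b0 κ z0 ρ T ζ y u v) := by
  obtain ⟨-, -, -, -, -, -, -, s1, s2⟩ := N.b1_le
  have half : ∀ {x B : ℝ}, |x| ≤ B → |1 / 256 * x| ≤ 1 / 256 * B := fun hx =>
    abs2 (by norm_num : |(1 / 256 : ℝ)| ≤ 1 / 256) hx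
  intro i
  have e1 : cx e w b0 κ z0 ρ T ζ y u v - T.pos (z0 + ρ * ζ) =
      cmb (fr e w) (unsh b0 (κ * (1 / 256 * y)) (1 / 256 * u) (1 / 256 * v)) := by
    unfold cx; exact add_sub_cancel_left _ _
  rw [e1, dt_cmb_fr he, abs_mul, abs_of_nonneg (hw i)]
  have h8 : |unsh b0 (κ * (1 / 256 * y)) (1 / 256 * u) (1 / 256 * v) i| ≤ 1 / 8 := by
    fin_cases i
    · change |κ * (1 / 256 * y) - b0 1 / b0 0 * (1 / 256 * u) - b0 2 / b0 0 * (1 / 256 * v)| ≤ _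
      have a1 := abs2 hκ (half hy)
      have a2 := abs2 s1 (half hu)
      have a3 := abs2 s2 (half hv)
      refine (abs_sub _ _).trans ((add_le_add (abs_sub _ _) le_rfl).trans ?_)
      norm_num at a1 a2 a3 ⊢
      linarith
    · exact (half hu).trans (by norm_num)
    · exact (half hv).trans (by norm_num)
  have := mul_le_mul_of_nonneg_left h8 (hw i)
  show w i * _ ≤ w i / 8
  linarith

/-- **(A) the chart of a sheet around one of its lines** -/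
theorem chart (S : ShN e c w q a z0 ρ r0) (ha : 0 < a) (hρ : 0 ≤ ρ)
    (hT : InSheet T e c w q a z0 ρ) (hE : IsExp q e w T z0 ρ b0 b1 G)
    (hk : 10 ^ 6 * a ≤ w 0 * kap b0 b1 G) :
    ∃ (c0 : ℝ) (J : Jt), NJ c0 J ∧ |c0| ≤ a / (kap b0 b1 G * (1 / 256) * w 0) ∧
      |J.a 0| ≤ 8 * (a / (kap b0 b1 G * (1 / 256) * w 0)) ∧
      |J.h 0 0| ≤ 16 * (a / (kap b0 b1 G * (1 / 256) * w 0)) ∧
      ∀ ζ y u v, q (z0 + ρ * ζ) (cx e w b0 (kap b0 b1 G) z0 ρ T ζ y u v) =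
        kap b0 b1 G * (1 / 256) * w 0 * (c0 + ev J y ![ζ, u, v]) := by
  have hw0 : 0 < w 0 := ha.trans_le S.a_le0
  have SP := StP.of_shN S hw0
  have N := hE.nrmC SP hρ (fun z h1 h2 => (hT z h1 h2).1)
  have hb : b0 0 ≠ 0 := by have := N.b1_le.1; linarith
  have hκ : 0 < kap b0 b1 G := by
    by_contra h
    push Not at h
    have := mul_nonpos_of_nonneg_of_nonpos hw0.le h
    have h2 : 0 < 10 ^ 6 * a := by positivity
    linarith
  set κ := kap b0 b1 G with hκdef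
  have hM : 0 < κ * (1 / 256) * w 0 := by positivity
  set ε := a / (κ * (1 / 256) * w 0) with hε
  have hε1 : ε ≤ 256 / 10 ^ 6 := by
    rw [hε, div_le_div_iff₀ hM (by norm_num)]
    nlinarith
  obtain ⟨t0, t1, t2, ht⟩ := theta S.isQ T z0 ρ
  have hθ : ∀ ζ, q (z0 + ρ * ζ) (T.pos (z0 + ρ * ζ)) = κ * (1 / 256) * w 0 *
      (t0 / (κ * (1 / 256) * w 0) + t1 / (κ * (1 / 256) * w 0) * ζ +
        t2 / (κ * (1 / 256) * w 0) * ζ ^ 2) := by
    intro ζ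
    rw [ht]
    field_simp
  obtain ⟨b1', b2', b3'⟩ := theta_le (θ0 := t0 / (κ * (1 / 256) * w 0))
    (θ1 := t1 / (κ * (1 / 256) * w 0)) (θ2 := t2 / (κ * (1 / 256) * w 0)) (B := ε) (by
      intro ζ h1 h2
      have h3 := (hT (z0 + ρ * ζ) (by nlinarith) (by nlinarith)).2
      rw [hθ, abs_mul, abs_of_pos hM] at h3
      rw [hε, le_div_iff₀ hM]
      linarith)
  refine ⟨_, _, nj_of N hκ (θ0 := t0 / (κ * (1 / 256) * w 0))
    (θ1 := t1 / (κ * (1 / 256) * w 0)) (θ2 := t2 / (κ * (1 / 256) * w 0)) ?_ ?_ ?_, b1', b2', ?_,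
    fun ζ y u v => q_cx hE hb hκ.ne' hθ ζ y u v⟩
  · refine b1'.trans (hε1.trans (by norm_num))
  · refine b2'.trans (le_trans (mul_le_mul_of_nonneg_left hε1 (by norm_num)) (by norm_num))
  · refine b3'.trans (le_trans (mul_le_mul_of_nonneg_left hε1 (by norm_num)) (by norm_num))
  · change |2 * (t2 / (κ * (1 / 256) * w 0))| ≤ _
    rw [abs_mul, abs_of_pos (by norm_num : (0 : ℝ) < 2)]
    linarith

/-- **(B) division**: a function of the class which is at most `E` on the sheet near `T` -/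
theorem divide (S : ShN e c w q a z0 ρ r0) (ha : 0 < a) (hρ : 0 ≤ ρ)
    (hT : InSheet T e c w q a z0 ρ) (hE : IsExp q e w T z0 ρ b0 b1 G)
    (hk : 10 ^ 6 * a ≤ w 0 * kap b0 b1 G) {q' : ℝ → V3 → ℝ} (hq' : IsQ q') {E : ℝ}
    (hC : CloseC e w q a q' E T z0 ρ) :
    ∃ (μ c' : ℝ) (D : Jt), JB (KD * E) c' D ∧
      ∀ ζ y u v, q' (z0 + ρ * ζ) (cx e w b0 (kap b0 b1 G) z0 ρ T ζ y u v) -
        μ * q (z0 + ρ * ζ) (cx e w b0 (kap b0 b1 G) z0 ρ T ζ y u v) = c' + ev D y ![ζ, u, v] := by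
  have hw0 : 0 < w 0 := ha.trans_le S.a_le0
  have SP := StP.of_shN S hw0
  have N := hE.nrmC SP hρ (fun z h1 h2 => (hT z h1 h2).1)
  obtain ⟨c0, J, NN, -, -, -, hq⟩ := chart S ha hρ hT hE hk
  set κ := kap b0 b1 G with hκdef
  have hκ13 : |κ| ≤ 13 := by rw [abs_of_nonneg (kap_nonneg _ _ _)]; exact kap_le N
  obtain ⟨R, hRs, hR⟩ := exists_jet hq' (cfr e w b0 κ) T.v z0 (T.pos z0) ρ
  have hR' : ∀ ζ y u v, q' (z0 + ρ * ζ) (cx e w b0 κ z0 ρ T ζ y u v) =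
      q' z0 (T.pos z0) + ev R y ![ζ, u, v] := by
    intro ζ y u v
    rw [cx_eq, hR y ζ u v]
    unfold ev
    ring
  have hvec : ∀ ξ : Fin 3 → ℝ, ![ξ 0, ξ 1, ξ 2] = ξ := by
    intro ξ; funext i; fin_cases i <;> rfl
  obtain ⟨μ, c', D, h1, h2⟩ := div_jet NN hRs (cR := q' z0 (T.pos z0)) (lam := E)
    (fun y ξ hy z1 z2 hu hv h0 => by
      have h3 := hR' (ξ 0) y (ξ 1) (ξ 2)
      rw [hvec] at h3
      rw [← h3]
      apply hC
      · nlinarith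
      · nlinarith
      · exact cx_inK S.ortho (fun i => (SP.pos i).le) N hκ13 hy hu hv
      · rw [hq, hvec, h0, mul_zero, abs_zero]; exact ha.le)
  refine ⟨μ / (κ * (1 / 256) * w 0), c', D, h2, fun ζ y u v => ?_⟩
  have hκ : 0 < κ := by
    by_contra h
    push Not at h
    have := mul_nonpos_of_nonneg_of_nonpos hw0.le h
    have h2 : 0 < 10 ^ 6 * a := by positivity
    linarith
  have hκ0 := hκ.ne'
  have hw00 := hw0.ne'
  rw [hR', hq, ← h1]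
  field_simp

end

end Crest.Agent.R136.Adj214
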