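import Mathlib
import Crest.Agent.R136.Rk3_601

/-!
# R136 (U4, PLAN 2 (AL), leaf (D)): from jets of two quadratic polynomials to Taylor bounds on labels
(helper876)

Two polynomials `q`, `P` of degree `≤ 2` in `(y; ζ, u, v)`, given by a value and a 2-jet `Rk601.Jt` at
the origin.  Points `(y n, X n)`, `n` in a finite set of labels, near the hypersurface `q = 0`.
`F n` = value of `P`, `G n` = `tg`, `H n` = `th` at the point `n`: first and second order Taylor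
bounds between any two labels (`adapter`).
-/

set_option autoImplicit false
set_option linter.unusedVariables false

namespace Crest.Agent.R136.Adp876

open Crest.Agent.R136.Rk601

/-- increment of the polynomial with the jet `J` for the displacement `(y, x)` -/
noncomputable def ev (J : Jt) (y : ℝ) (x : Fin 3 → ℝ) : ℝ :=
  J.a0 * y + ∑ i, J.a i * x i +
    (1 / 2) * (J.h00 * y ^ 2 + 2 * y * ∑ i, J.h0 i * x i + ∑ i, ∑ j, J.h i j * (x i * x j))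

/-- jet after the displacement `(y, x)` -/
def sh (J : Jt) (y : ℝ) (x : Fin 3 → ℝ) : Jt where
  a0 := J.a0 + J.h00 * y + ∑ i, J.h0 i * x i
  a := fun i => J.a i + J.h0 i * y + ∑ j, J.h i j * x j
  h00 := J.h00
  h0 := J.h0
  h := J.h

/-- bounded symmetric jet -/
structure Bd (J : Jt) (K : ℝ) : Prop where
  a0 : |J.a0| ≤ K
  a : ∀ i, |J.a i| ≤ K
  h00 : |J.h00| ≤ K
  h0 : ∀ i, |J.h0 i| ≤ K
  h : ∀ i j, |J.h i j| ≤ K
  s : ∀ i j, J.h i j = J.h j i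

theorem ev_add {J : Jt} (hs : ∀ i j, J.h i j = J.h j i) (y y' : ℝ) (x x' : Fin 3 → ℝ) :
    ev J (y + y') (fun i => x i + x' i) = ev J y x + ev (sh J y x) y' x' := by
  simp only [ev, sh, Fin.sum_univ_three]
  rw [hs 1 0, hs 2 0, hs 2 1]
  ring

theorem sh_sh (J : Jt) (y y' : ℝ) (x x' : Fin 3 → ℝ) :
    sh (sh J y x) y' x' = sh J (y + y') (fun i => x i + x' i) := by
  simp only [sh, Fin.sum_univ_three, Jt.mk.injEq, and_true]
  constructor
  · ring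
  · funext i; ring

theorem Bd.shift {J : Jt} {K : ℝ} (h : Bd J K) {y : ℝ} {x : Fin 3 → ℝ} (hy : |y| ≤ 1)
    (hx : ∀ i, |x i| ≤ 1) : Bd (sh J y x) (5 * K) := by
  have hK : 0 ≤ K := (abs_nonneg _).trans h.a0
  have m : ∀ a b : ℝ, |a| ≤ K → |b| ≤ 1 → |a * b| ≤ K := fun a b ha hb => by
    rw [abs_mul]
    calc |a| * |b| ≤ K * 1 := mul_le_mul ha hb (abs_nonneg _) hK
      _ = K := mul_one K
  refine ⟨?_, fun i => ?_, h.h00.trans (by linarith), fun i => (h.h0 i).trans (by linarith),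
    fun i j => (h.h i j).trans (by linarith), h.s⟩
  · show |J.a0 + J.h00 * y + ∑ i, J.h0 i * x i| ≤ 5 * K
    rw [Fin.sum_univ_three]
    have e0 := h.a0
    have e1 := m _ _ h.h00 hy
    have e2 := m _ _ (h.h0 0) (hx 0)
    have e3 := m _ _ (h.h0 1) (hx 1)
    have e4 := m _ _ (h.h0 2) (hx 2)
    rw [abs_le] at *
    constructor <;> linarith [e0.1, e0.2, e1.1, e1.2, e2.1, e2.2, e3.1, e3.2, e4.1, e4.2]
  · show |J.a i + J.h0 i * y + ∑ j, J.h i j * x j| ≤ 5 * K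
    rw [Fin.sum_univ_three]
    have e0 := h.a i
    have e1 := m _ _ (h.h0 i) hy
    have e2 := m _ _ (h.h i 0) (hx 0)
    have e3 := m _ _ (h.h i 1) (hx 1)
    have e4 := m _ _ (h.h i 2) (hx 2)
    rw [abs_le] at *
    constructor <;> linarith [e0.1, e0.2, e1.1, e1.2, e2.1, e2.2, e3.1, e3.2, e4.1, e4.2]

/-! ### one pair of points -/

theorem dot_le {b x : Fin 3 → ℝ} {B M : ℝ} (hb : ∀ i, |b i| ≤ B) (hx : ∀ i, |x i| ≤ M) :
    |∑ i, b i * x i| ≤ 3 * (B * M) := by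
  have hB : 0 ≤ B := (abs_nonneg _).trans (hb 0)
  have e : ∀ i, |b i * x i| ≤ B * M := fun i => by
    rw [abs_mul]; exact mul_le_mul (hb i) (hx i) (abs_nonneg _) hB
  rw [Fin.sum_univ_three]
  refine (abs_add_three _ _ _).trans ?_
  linarith [e 0, e 1, e 2]

theorem quad_le {b : Fin 3 → Fin 3 → ℝ} {x : Fin 3 → ℝ} {B M : ℝ} (hb : ∀ i j, |b i j| ≤ B)
    (hx : ∀ i, |x i| ≤ M) : |∑ i, ∑ j, b i j * (x i * x j)| ≤ 9 * (B * M ^ 2) := by
  have hB : 0 ≤ B := (abs_nonneg _).trans (hb 0 0)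
  have hM : 0 ≤ M := (abs_nonneg _).trans (hx 0)
  have e : ∀ i j, |b i j * (x i * x j)| ≤ B * M ^ 2 := fun i j => by
    rw [abs_mul, abs_mul, sq]
    exact mul_le_mul (hb i j) (mul_le_mul (hx i) (hx j) (abs_nonneg _) hM)
      (by positivity) hB
  calc |∑ i, ∑ j, b i j * (x i * x j)| ≤ ∑ i, ∑ j, |b i j * (x i * x j)| :=
        (Finset.abs_sum_le_sum_abs _ _).trans
          (Finset.sum_le_sum fun i _ => Finset.abs_sum_le_sum_abs _ _)
    _ ≤ ∑ _i : Fin 3, ∑ _j : Fin 3, B * M ^ 2 :=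
        Finset.sum_le_sum fun i _ => Finset.sum_le_sum fun j _ => e i j
    _ = 9 * (B * M ^ 2) := by simp; ring

/-- second order part of `ev` -/
theorem sec_le {h00 : ℝ} {h0 : Fin 3 → ℝ} {h : Fin 3 → Fin 3 → ℝ} {y : ℝ} {x : Fin 3 → ℝ}
    {B M : ℝ} (b00 : |h00| ≤ B) (b0 : ∀ i, |h0 i| ≤ B) (b : ∀ i j, |h i j| ≤ B) (hy : |y| ≤ M)
    (hx : ∀ i, |x i| ≤ M) :
    |(1 / 2) * (h00 * y ^ 2 + 2 * y * ∑ i, h0 i * x i + ∑ i, ∑ j, h i j * (x i * x j))| ≤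
      8 * (B * M ^ 2) := by
  have hB : 0 ≤ B := (abs_nonneg _).trans b00
  have hM : 0 ≤ M := (abs_nonneg _).trans hy
  have e1 : |h00 * y ^ 2| ≤ B * M ^ 2 := by
    rw [abs_mul, abs_pow]
    exact mul_le_mul b00 (pow_le_pow_left₀ (abs_nonneg _) hy 2) (by positivity) hB
  have e2 : |2 * y * ∑ i, h0 i * x i| ≤ 6 * (B * M ^ 2) := by
    rw [abs_mul, abs_mul, abs_two]
    calc 2 * |y| * |∑ i, h0 i * x i| ≤ 2 * M * (3 * (B * M)) :=
          mul_le_mul (by linarith) (dot_le b0 hx) (abs_nonneg _) (by positivity)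
      _ = _ := by ring
  have e3 := quad_le b hx
  rw [abs_mul, abs_of_pos (by norm_num : (0:ℝ) < 1 / 2)]
  have e4 := abs_add_three (h00 * y ^ 2) (2 * y * ∑ i, h0 i * x i)
    (∑ i, ∑ j, h i j * (x i * x j))
  linarith

/-- `y - s·x` in terms of the increment of `q` -/
theorem normal_le {q : Jt} {K M e : ℝ} (hK : 1 ≤ K) (hq : Bd q K) (h0 : 1 / K ≤ |q.a0|) {y : ℝ}
    {x : Fin 3 → ℝ} (hy : |y| ≤ M) (hx : ∀ i, |x i| ≤ M) (he : |ev q y x| ≤ e) :
    |y - ∑ i, sl q i * x i| ≤ K * (e + 8 * (K * M ^ 2)) := by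
  have hK0 : (0:ℝ) < K := by linarith
  have ha : 0 < |q.a0| := lt_of_lt_of_le (by positivity) h0
  have ha0 : q.a0 ≠ 0 := abs_pos.1 ha
  have hs := sec_le hq.h00 hq.h0 hq.h hy hx
  set S := (1 / 2) * (q.h00 * y ^ 2 + 2 * y * ∑ i, q.h0 i * x i +
    ∑ i, ∑ j, q.h i j * (x i * x j)) with hS
  have e1 : q.a0 * (y - ∑ i, sl q i * x i) = ev q y x - S := by
    have : ∀ i, q.a0 * (sl q i * x i) = -(q.a i * x i) := fun i => by
      unfold sl; field_simp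
    rw [mul_sub, Finset.mul_sum, Finset.sum_congr rfl (fun i _ => this i),
      Finset.sum_neg_distrib]
    unfold ev
    rw [← hS]; ring
  have e2 : |q.a0| * |y - ∑ i, sl q i * x i| ≤ e + 8 * (K * M ^ 2) := by
    rw [← abs_mul, e1]
    exact (abs_sub _ _).trans (add_le_add he hs)
  have e3 : 1 ≤ K * |q.a0| := by
    have := mul_le_mul_of_nonneg_left h0 hK0.le
    rwa [mul_one_div_cancel hK0.ne'] at this
  calc |y - ∑ i, sl q i * x i| = 1 * |y - ∑ i, sl q i * x i| := (one_mul _).symm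
    _ ≤ K * |q.a0| * |y - ∑ i, sl q i * x i| := mul_le_mul_of_nonneg_right e3 (abs_nonneg _)
    _ = K * (|q.a0| * |y - ∑ i, sl q i * x i|) := by ring
    _ ≤ _ := mul_le_mul_of_nonneg_left e2 hK0.le

theorem div_a0_le {q : Jt} {K b B : ℝ} (hK : 1 ≤ K) (h0 : 1 / K ≤ |q.a0|) (hb : |b| ≤ B) :
    |b / q.a0| ≤ K * B := by
  have hK0 : (0:ℝ) < K := by linarith
  have ha : 0 < |q.a0| := lt_of_lt_of_le (by positivity) h0
  rw [abs_div, div_le_iff₀ ha]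
  have e3 : 1 ≤ K * |q.a0| := by
    have := mul_le_mul_of_nonneg_left h0 hK0.le
    rwa [mul_one_div_cancel hK0.ne'] at this
  have hB : 0 ≤ B := (abs_nonneg _).trans hb
  calc |b| ≤ B := hb
    _ = 1 * B := (one_mul _).symm
    _ ≤ K * |q.a0| * B := mul_le_mul_of_nonneg_right e3 hB
    _ = K * B * |q.a0| := by ring

theorem sl_le {q : Jt} {K : ℝ} (hK : 1 ≤ K) (hq : Bd q K) (h0 : 1 / K ≤ |q.a0|) (i : Fin 3) :
    |sl q i| ≤ K ^ 2 := by
  unfold sl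
  rw [sq]
  exact div_a0_le hK h0 (by rw [abs_neg]; exact hq.a i)

theorem mu_le {q P : Jt} {K : ℝ} (hK : 1 ≤ K) (hP : Bd P K) (h0 : 1 / K ≤ |q.a0|) :
    |P.a0 / q.a0| ≤ K ^ 2 := by
  rw [sq]; exact div_a0_le hK h0 hP.a0

/-- `x - μ y` -/
theorem comb_le {K μ x y : ℝ} (hK : 1 ≤ K) (hμ : |μ| ≤ K ^ 2) (hx : |x| ≤ K) (hy : |y| ≤ K) :
    |x - μ * y| ≤ 2 * K ^ 3 := by
  have hK0 : (0:ℝ) < K := by linarith
  have e1 : |μ * y| ≤ K ^ 3 := by
    rw [abs_mul]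
    calc |μ| * |y| ≤ K ^ 2 * K := mul_le_mul hμ hy (abs_nonneg _) (by positivity)
      _ = K ^ 3 := by ring
  have e2 : K ≤ K ^ 3 := le_self_pow₀ hK (by norm_num)
  calc |x - μ * y| ≤ |x| + |μ * y| := abs_sub _ _
    _ ≤ 2 * K ^ 3 := by linarith

theorem tg_le {q P : Jt} {K : ℝ} (hK : 1 ≤ K) (hq : Bd q K) (hP : Bd P K) (h0 : 1 / K ≤ |q.a0|)
    (i : Fin 3) : |tg q P i| ≤ 2 * K ^ 3 :=
  comb_le hK (mu_le hK hP h0) (hP.a i) (hq.a i)

/-- **first order** -/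
theorem pair1 {q P : Jt} {K M e : ℝ} (hK : 1 ≤ K) (hq : Bd q K) (hP : Bd P K)
    (h0 : 1 / K ≤ |q.a0|) {y : ℝ} {x : Fin 3 → ℝ} (hy : |y| ≤ M) (hx : ∀ i, |x i| ≤ M)
    (he : |ev q y x| ≤ e) :
    |ev P y x - ∑ i, x i * tg q P i| ≤ K ^ 2 * e + 16 * (K ^ 3 * M ^ 2) := by
  have hK0 : (0:ℝ) < K := by linarith
  have ha : 0 < |q.a0| := lt_of_lt_of_le (by positivity) h0
  have ha0 : q.a0 ≠ 0 := abs_pos.1 ha
  have hμ := mu_le hK hP h0
  set μ := P.a0 / q.a0 with hμd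
  have hμa : μ * q.a0 = P.a0 := by rw [hμd]; field_simp
  have e1 : ev P y x - ∑ i, x i * tg q P i = μ * ev q y x +
      (1 / 2) * ((P.h00 - μ * q.h00) * y ^ 2 + 2 * y * ∑ i, (P.h0 i - μ * q.h0 i) * x i +
        ∑ i, ∑ j, (P.h i j - μ * q.h i j) * (x i * x j)) := by
    simp only [ev, tg, ← hμd, Fin.sum_univ_three]
    linear_combination (-y) * hμa
  rw [e1]
  have e2 := sec_le (comb_le hK hμ hP.h00 hq.h00) (fun i => comb_le hK hμ (hP.h0 i) (hq.h0 i))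
    (fun i j => comb_le hK hμ (hP.h i j) (hq.h i j)) hy hx
  have e3 : |μ * ev q y x| ≤ K ^ 2 * e := by
    rw [abs_mul]; exact mul_le_mul hμ he (abs_nonneg _) (by positivity)
  refine (abs_add_le _ _).trans (add_le_add e3 (e2.trans (le_of_eq (by ring))))

/-- difference of the slopes -/
theorem sl_diff {q : Jt} {y : ℝ} {x : Fin 3 → ℝ} (h0 : q.a0 ≠ 0) (h0' : (sh q y x).a0 ≠ 0)
    (i : Fin 3) : sl (sh q y x) i - sl q i =
      -((q.h0 i * y + ∑ j, q.h i j * x j) + sl q i * (q.h00 * y + ∑ j, q.h0 j * x j)) /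
        (sh q y x).a0 := by
  have e : (sh q y x).a0 = q.a0 + (q.h00 * y + ∑ j, q.h0 j * x j) := by simp only [sh]; ring
  have e' : (sh q y x).a i = q.a i + (q.h0 i * y + ∑ j, q.h i j * x j) := by simp only [sh]; ring
  unfold sl
  rw [e']
  generalize (sh q y x).a0 = c at *
  generalize (∑ j, q.h i j * x j) = S1 at *
  generalize (∑ j, q.h0 j * x j) = S2 at *
  field_simp
  rw [e]
  ring

theorem four_le {b : ℝ} {c : Fin 3 → ℝ} {y : ℝ} {x : Fin 3 → ℝ} {B M : ℝ} (hb : |b| ≤ B)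
    (hc : ∀ i, |c i| ≤ B) (hy : |y| ≤ M) (hx : ∀ i, |x i| ≤ M) :
    |b * y + ∑ j, c j * x j| ≤ 4 * (B * M) := by
  have hB : 0 ≤ B := (abs_nonneg _).trans hb
  have e1 : |b * y| ≤ B * M := by
    rw [abs_mul]; exact mul_le_mul hb hy (abs_nonneg _) hB
  have e2 := dot_le hc hx
  have e3 := abs_add_le (b * y) (∑ j, c j * x j)
  linarith

theorem sl_diff_le {q : Jt} {K M : ℝ} (hK : 1 ≤ K) (hq : Bd q K) (h0 : 1 / K ≤ |q.a0|) {y : ℝ}
    {x : Fin 3 → ℝ} (h0' : 1 / K ≤ |(sh q y x).a0|) (hy : |y| ≤ M) (hx : ∀ i, |x i| ≤ M)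
    (i : Fin 3) : |sl (sh q y x) i - sl q i| ≤ 8 * (K ^ 4 * M) := by
  have hK0 : (0:ℝ) < K := by linarith
  have hM : 0 ≤ M := (abs_nonneg _).trans hy
  have ha : 0 < |q.a0| := lt_of_lt_of_le (by positivity) h0
  have ha' : 0 < |(sh q y x).a0| := lt_of_lt_of_le (by positivity) h0'
  rw [sl_diff (abs_pos.1 ha) (abs_pos.1 ha')]
  have e1 := four_le (hq.h0 i) (hq.h i) hy hx
  have e2 := four_le hq.h00 hq.h0 hy hx
  have e3 : |sl q i * (q.h00 * y + ∑ j, q.h0 j * x j)| ≤ K ^ 2 * (4 * (K * M)) := by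
    rw [abs_mul]; exact mul_le_mul (sl_le hK hq h0 i) e2 (abs_nonneg _) (by positivity)
  have e4 : K * M ≤ K ^ 3 * M :=
    mul_le_mul_of_nonneg_right (le_self_pow₀ hK (by norm_num)) hM
  refine (div_a0_le (B := 8 * (K ^ 3 * M)) hK h0' ?_).trans (le_of_eq (by ring))
  rw [abs_neg]
  refine (abs_add_le _ _).trans ?_
  have e5 : K ^ 2 * (4 * (K * M)) = 4 * (K ^ 3 * M) := by ring
  linarith

/-- change of `μ` -/
theorem mu_diff {q P : Jt} {y : ℝ} {x : Fin 3 → ℝ} (h0 : q.a0 ≠ 0) (h0' : (sh q y x).a0 ≠ 0) :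
    (sh P y x).a0 / (sh q y x).a0 - P.a0 / q.a0 =
      ((P.h00 - P.a0 / q.a0 * q.h00) * y + ∑ j, (P.h0 j - P.a0 / q.a0 * q.h0 j) * x j) /
        (sh q y x).a0 := by
  have e : (sh q y x).a0 = q.a0 + (q.h00 * y + ∑ j, q.h0 j * x j) := by simp only [sh]; ring
  have e' : (sh P y x).a0 = P.a0 + (P.h00 * y + ∑ j, P.h0 j * x j) := by simp only [sh]; ring
  have e2 : ((P.h00 - P.a0 / q.a0 * q.h00) * y + ∑ j, (P.h0 j - P.a0 / q.a0 * q.h0 j) * x j) =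
      (sh P y x).a0 - P.a0 / q.a0 * (sh q y x).a0 := by
    rw [e, e', Fin.sum_univ_three, Fin.sum_univ_three, Fin.sum_univ_three]
    field_simp
    ring
  rw [e2, sub_div, mul_div_assoc, div_self h0', mul_one]

theorem mu_diff_le {q P : Jt} {K M : ℝ} (hK : 1 ≤ K) (hq : Bd q K) (hP : Bd P K)
    (h0 : 1 / K ≤ |q.a0|) {y : ℝ} {x : Fin 3 → ℝ} (h0' : 1 / K ≤ |(sh q y x).a0|) (hy : |y| ≤ M)
    (hx : ∀ i, |x i| ≤ M) :
    |(sh P y x).a0 / (sh q y x).a0 - P.a0 / q.a0| ≤ 8 * (K ^ 4 * M) := by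
  have hK0 : (0:ℝ) < K := by linarith
  have ha : 0 < |q.a0| := lt_of_lt_of_le (by positivity) h0
  have ha' : 0 < |(sh q y x).a0| := lt_of_lt_of_le (by positivity) h0'
  rw [mu_diff (abs_pos.1 ha) (abs_pos.1 ha')]
  have hμ := mu_le hK hP h0
  refine (div_a0_le hK h0' (four_le (comb_le hK hμ hP.h00 hq.h00)
    (fun i => comb_le hK hμ (hP.h0 i) (hq.h0 i)) hy hx)).trans (le_of_eq (by ring))

/-- `D0` etc.: second derivatives of `P - μ q` -/
theorem tg_diff {q P : Jt} {y : ℝ} {x : Fin 3 → ℝ} (h0 : q.a0 ≠ 0) (h0' : (sh q y x).a0 ≠ 0)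
    (i : Fin 3) :
    tg (sh q y x) (sh P y x) i - tg q P i - ∑ j, th q P i j * x j =
      (P.h0 i - P.a0 / q.a0 * q.h0 i) * (y - ∑ j, sl q j * x j) +
      (sl (sh q y x) i - sl q i) *
        ((P.h00 - P.a0 / q.a0 * q.h00) * y + ∑ j, (P.h0 j - P.a0 / q.a0 * q.h0 j) * x j) +
      sl q i * ((P.h00 - P.a0 / q.a0 * q.h00) * (y - ∑ j, sl q j * x j)) := by
  have hd := mu_diff (P := P) h0 h0'
  set μ := P.a0 / q.a0 with hμ
  set μ' := (sh P y x).a0 / (sh q y x).a0 with hμ'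
  set Δ := (P.h00 - μ * q.h00) * y + ∑ j, (P.h0 j - μ * q.h0 j) * x j with hΔ
  have e1 : (μ' - μ) * (sh q y x).a i = - (sl (sh q y x) i * Δ) := by
    rw [hd]; unfold sl; field_simp
  have e2 : tg (sh q y x) (sh P y x) i = (P.a i - μ * q.a i) + ((P.h0 i - μ * q.h0 i) * y +
      ∑ j, (P.h i j - μ * q.h i j) * x j) + sl (sh q y x) i * Δ := by
    have : tg (sh q y x) (sh P y x) i = (sh P y x).a i - μ * (sh q y x).a i -
        (μ' - μ) * (sh q y x).a i := by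
      unfold tg; rw [← hμ']; ring
    rw [this, e1]
    simp only [sh, Fin.sum_univ_three]
    ring
  have e3 : tg q P i = P.a i - μ * q.a i := by unfold tg; rw [hμ]
  have e4 : ∀ j, th q P i j = (P.h i j - μ * q.h i j) + (P.h0 i - μ * q.h0 i) * sl q j +
      (P.h0 j - μ * q.h0 j) * sl q i + (P.h00 - μ * q.h00) * (sl q i * sl q j) := fun j => by
    unfold th lf; rw [← hμ]; ring
  rw [e2, e3]
  simp only [e4, hΔ, Fin.sum_univ_three]
  ring

/-- **second order** -/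
theorem pair2 {q P : Jt} {K M e : ℝ} (hK : 1 ≤ K) (hq : Bd q K) (hP : Bd P K)
    (h0 : 1 / K ≤ |q.a0|) {y : ℝ} {x : Fin 3 → ℝ} (h0' : 1 / K ≤ |(sh q y x).a0|) (hy : |y| ≤ M)
    (hx : ∀ i, |x i| ≤ M) (he : |ev q y x| ≤ e) (i : Fin 3) :
    |tg (sh q y x) (sh P y x) i - tg q P i - ∑ j, th q P i j * x j| ≤
      4 * (K ^ 6 * e) + 96 * (K ^ 7 * M ^ 2) := by
  have hK0 : (0:ℝ) < K := by linarith
  have hM : 0 ≤ M := (abs_nonneg _).trans hy
  have he0 : 0 ≤ e := (abs_nonneg _).trans he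
  have ha : 0 < |q.a0| := lt_of_lt_of_le (by positivity) h0
  have ha' : 0 < |(sh q y x).a0| := lt_of_lt_of_le (by positivity) h0'
  rw [tg_diff (abs_pos.1 ha) (abs_pos.1 ha')]
  have hμ := mu_le hK hP h0
  have n1 := normal_le hK hq h0 hy hx he
  have d1 := comb_le hK hμ (hP.h0 i) (hq.h0 i)
  have d2 := comb_le hK hμ hP.h00 hq.h00
  have d3 := four_le (comb_le hK hμ hP.h00 hq.h00)
    (fun i => comb_le hK hμ (hP.h0 i) (hq.h0 i)) hy hx
  have s1 := sl_diff_le hK hq h0 h0' hy hx i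
  have s0 := sl_le hK hq h0 i
  set N := |y - ∑ j, sl q j * x j| with hN
  have f1 : |(P.h0 i - P.a0 / q.a0 * q.h0 i) * (y - ∑ j, sl q j * x j)| ≤
      2 * K ^ 3 * (K * (e + 8 * (K * M ^ 2))) := by
    rw [abs_mul]; exact mul_le_mul d1 n1 (abs_nonneg _) (by positivity)
  have f2 : |(sl (sh q y x) i - sl q i) *
        ((P.h00 - P.a0 / q.a0 * q.h00) * y + ∑ j, (P.h0 j - P.a0 / q.a0 * q.h0 j) * x j)| ≤
      8 * (K ^ 4 * M) * (4 * (2 * K ^ 3 * M)) := by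
    rw [abs_mul]; exact mul_le_mul s1 d3 (abs_nonneg _) (by positivity)
  have f3 : |sl q i * ((P.h00 - P.a0 / q.a0 * q.h00) * (y - ∑ j, sl q j * x j))| ≤
      K ^ 2 * (2 * K ^ 3 * (K * (e + 8 * (K * M ^ 2)))) := by
    rw [abs_mul, abs_mul]
    exact mul_le_mul s0 (mul_le_mul d2 n1 (abs_nonneg _) (by positivity)) (by positivity)
      (by positivity)
  refine (abs_add_three _ _ _).trans ?_
  have p1 : K ^ 4 * e ≤ K ^ 6 * e :=
    mul_le_mul_of_nonneg_right (pow_le_pow_right₀ hK (by norm_num)) he0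
  have p2 : K ^ 5 * M ^ 2 ≤ K ^ 7 * M ^ 2 :=
    mul_le_mul_of_nonneg_right (pow_le_pow_right₀ hK (by norm_num)) (by positivity)
  have g1 : 2 * K ^ 3 * (K * (e + 8 * (K * M ^ 2))) = 2 * (K ^ 4 * e) + 16 * (K ^ 5 * M ^ 2) := by
    ring
  have g2 : 8 * (K ^ 4 * M) * (4 * (2 * K ^ 3 * M)) = 64 * (K ^ 7 * M ^ 2) := by ring
  have g3 : K ^ 2 * (2 * K ^ 3 * (K * (e + 8 * (K * M ^ 2)))) =
      2 * (K ^ 6 * e) + 16 * (K ^ 7 * M ^ 2) := by ring
  rw [g1] at f1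
  rw [g2] at f2
  rw [g3] at f3
  linarith

/-- the tangential Hessian in terms of `D = P - μ q` -/
theorem th_eq (q P : Jt) (i j : Fin 3) : th q P i j =
    (P.h i j - P.a0 / q.a0 * q.h i j) + (P.h0 i - P.a0 / q.a0 * q.h0 i) * sl q j +
      (P.h0 j - P.a0 / q.a0 * q.h0 j) * sl q i +
      (P.h00 - P.a0 / q.a0 * q.h00) * (sl q i * sl q j) := by
  unfold th lf; ring

theorem th_le {q P : Jt} {K : ℝ} (hK : 1 ≤ K) (hq : Bd q K) (hP : Bd P K) (h0 : 1 / K ≤ |q.a0|)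
    (i j : Fin 3) : |th q P i j| ≤ 8 * K ^ 7 := by
  have hK0 : (0:ℝ) < K := by linarith
  have hμ := mu_le hK hP h0
  have d1 := comb_le hK hμ (hP.h0 i) (hq.h0 i)
  have d1' := comb_le hK hμ (hP.h0 j) (hq.h0 j)
  have d2 := comb_le hK hμ hP.h00 hq.h00
  have d3 := comb_le hK hμ (hP.h i j) (hq.h i j)
  have s1 := sl_le hK hq h0 i
  have s2 := sl_le hK hq h0 j
  rw [th_eq]
  have f1 : |(P.h0 i - P.a0 / q.a0 * q.h0 i) * sl q j| ≤ 2 * K ^ 3 * K ^ 2 := by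
    rw [abs_mul]; exact mul_le_mul d1 s2 (abs_nonneg _) (by positivity)
  have f2 : |(P.h0 j - P.a0 / q.a0 * q.h0 j) * sl q i| ≤ 2 * K ^ 3 * K ^ 2 := by
    rw [abs_mul]; exact mul_le_mul d1' s1 (abs_nonneg _) (by positivity)
  have f3 : |(P.h00 - P.a0 / q.a0 * q.h00) * (sl q i * sl q j)| ≤ 2 * K ^ 3 * (K ^ 2 * K ^ 2) := by
    rw [abs_mul, abs_mul]
    exact mul_le_mul d2 (mul_le_mul s1 s2 (abs_nonneg _) (by positivity)) (by positivity)
      (by positivity)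
  have p1 : K ^ 3 ≤ K ^ 7 := pow_le_pow_right₀ hK (by norm_num)
  have p2 : K ^ 5 ≤ K ^ 7 := pow_le_pow_right₀ hK (by norm_num)
  have g1 : 2 * K ^ 3 * K ^ 2 = 2 * K ^ 5 := by ring
  have g2 : 2 * K ^ 3 * (K ^ 2 * K ^ 2) = 2 * K ^ 7 := by ring
  rw [g1] at f1 f2
  rw [g2] at f3
  have t1 := abs_add_le ((P.h i j - P.a0 / q.a0 * q.h i j) +
    (P.h0 i - P.a0 / q.a0 * q.h0 i) * sl q j + (P.h0 j - P.a0 / q.a0 * q.h0 j) * sl q i)
    ((P.h00 - P.a0 / q.a0 * q.h00) * (sl q i * sl q j))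
  have t2 := abs_add_three (P.h i j - P.a0 / q.a0 * q.h i j)
    ((P.h0 i - P.a0 / q.a0 * q.h0 i) * sl q j) ((P.h0 j - P.a0 / q.a0 * q.h0 j) * sl q i)
  linarith

/-- **third order** -/
theorem pair3 {q P : Jt} {K M : ℝ} (hK : 1 ≤ K) (hq : Bd q K) (hP : Bd P K)
    (h0 : 1 / K ≤ |q.a0|) {y : ℝ} {x : Fin 3 → ℝ} (h0' : 1 / K ≤ |(sh q y x).a0|)
    (hq' : Bd (sh q y x) K) (hP' : Bd (sh P y x) K) (hy : |y| ≤ M)
    (hx : ∀ i, |x i| ≤ M) (i j : Fin 3) :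
    |th (sh q y x) (sh P y x) i j - th q P i j| ≤ 96 * (K ^ 9 * M) := by
  have hK0 : (0:ℝ) < K := by linarith
  have hM : 0 ≤ M := (abs_nonneg _).trans hy
  have hμ := mu_le hK hP h0
  have hμ' := mu_le hK hP' h0'
  have hd := mu_diff_le hK hq hP h0 h0' hy hx
  rw [th_eq, th_eq]
  set μ := P.a0 / q.a0 with hμd
  set μ' := (sh P y x).a0 / (sh q y x).a0 with hμd'
  have s1 := sl_le hK hq h0
  have s2 := sl_le hK hq' h0'
  have sd := sl_diff_le hK hq h0 h0' hy hx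
  set s := sl q with hs
  set s' := sl (sh q y x) with hs'
  show |(P.h i j - μ' * q.h i j + (P.h0 i - μ' * q.h0 i) * s' j + (P.h0 j - μ' * q.h0 j) * s' i +
      (P.h00 - μ' * q.h00) * (s' i * s' j)) - (P.h i j - μ * q.h i j +
      (P.h0 i - μ * q.h0 i) * s j + (P.h0 j - μ * q.h0 j) * s i +
      (P.h00 - μ * q.h00) * (s i * s j))| ≤ _
  have key : (P.h i j - μ' * q.h i j + (P.h0 i - μ' * q.h0 i) * s' j +
      (P.h0 j - μ' * q.h0 j) * s' i +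
      (P.h00 - μ' * q.h00) * (s' i * s' j)) - (P.h i j - μ * q.h i j +
      (P.h0 i - μ * q.h0 i) * s j + (P.h0 j - μ * q.h0 j) * s i +
      (P.h00 - μ * q.h00) * (s i * s j)) =
      -((μ' - μ) * (q.h i j + q.h0 i * s' j + q.h0 j * s' i + q.h00 * (s' i * s' j))) +
      ((P.h0 i - μ * q.h0 i) * (s' j - s j) + (P.h0 j - μ * q.h0 j) * (s' i - s i) +
        (P.h00 - μ * q.h00) * ((s' i - s i) * s' j + s i * (s' j - s j))) := by ring
  rw [key]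
  have hab : ∀ {a b A B : ℝ}, |a| ≤ A → |b| ≤ B → |a * b| ≤ A * B := fun {a b A B} h1 h2 => by
    rw [abs_mul]; exact mul_le_mul h1 h2 (abs_nonneg _) ((abs_nonneg _).trans h1)
  have b1 : |q.h i j + q.h0 i * s' j + q.h0 j * s' i + q.h00 * (s' i * s' j)| ≤ 4 * K ^ 5 := by
    have t1 := abs_add_le (q.h i j + q.h0 i * s' j + q.h0 j * s' i) (q.h00 * (s' i * s' j))
    have t2 := abs_add_three (q.h i j) (q.h0 i * s' j) (q.h0 j * s' i)
    have u1 := hab (hq.h0 i) (s2 j)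
    have u2 := hab (hq.h0 j) (s2 i)
    have u3 := hab hq.h00 (hab (s2 i) (s2 j))
    have u0 := hq.h i j
    have p1 : K ≤ K ^ 5 := le_self_pow₀ hK (by norm_num)
    have p2 : K ^ 3 ≤ K ^ 5 := pow_le_pow_right₀ hK (by norm_num)
    have g1 : K * K ^ 2 = K ^ 3 := by ring
    have g2 : K * (K ^ 2 * K ^ 2) = K ^ 5 := by ring
    rw [g1] at u1 u2
    rw [g2] at u3
    linarith
  have c1 := hab hd b1
  have c2 := hab (comb_le hK hμ (hP.h0 i) (hq.h0 i)) (sd j)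
  have c3 := hab (comb_le hK hμ (hP.h0 j) (hq.h0 j)) (sd i)
  have c4 : |(s' i - s i) * s' j + s i * (s' j - s j)| ≤
      8 * (K ^ 4 * M) * K ^ 2 + K ^ 2 * (8 * (K ^ 4 * M)) :=
    (abs_add_le _ _).trans (add_le_add (hab (sd i) (s2 j)) (hab (s1 i) (sd j)))
  have c5 := hab (comb_le hK hμ hP.h00 hq.h00) c4
  have t1 := abs_add_le (-((μ' - μ) * (q.h i j + q.h0 i * s' j + q.h0 j * s' i +
      q.h00 * (s' i * s' j)))) ((P.h0 i - μ * q.h0 i) * (s' j - s j) +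
      (P.h0 j - μ * q.h0 j) * (s' i - s i) +
        (P.h00 - μ * q.h00) * ((s' i - s i) * s' j + s i * (s' j - s j)))
  have t2 := abs_add_three ((P.h0 i - μ * q.h0 i) * (s' j - s j))
    ((P.h0 j - μ * q.h0 j) * (s' i - s i))
    ((P.h00 - μ * q.h00) * ((s' i - s i) * s' j + s i * (s' j - s j)))
  rw [abs_neg] at t1
  have g1 : 8 * (K ^ 4 * M) * (4 * K ^ 5) = 32 * (K ^ 9 * M) := by ring
  have g2 : 2 * K ^ 3 * (8 * (K ^ 4 * M)) = 16 * (K ^ 7 * M) := by ring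
  have g3 : 2 * K ^ 3 * (8 * (K ^ 4 * M) * K ^ 2 + K ^ 2 * (8 * (K ^ 4 * M))) =
      32 * (K ^ 9 * M) := by ring
  rw [g1] at c1
  rw [g2] at c2 c3
  rw [g3] at c5
  have p1 : K ^ 7 * M ≤ K ^ 9 * M :=
    mul_le_mul_of_nonneg_right (pow_le_pow_right₀ hK (by norm_num)) hM
  linarith

/-! ### labels -/

/-- **displacement between two points near the hypersurface** -/
theorem disp_le {q : Jt} {K r e : ℝ} (hK : 1 ≤ K) (hq : Bd q K) {y : ℝ} {x : Fin 3 → ℝ}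
    (hst : 1 / K ≤ |q.a0 + q.h00 * (y / 2) + ∑ i, q.h0 i * x i|) (hx : ∀ i, |x i| ≤ r)
    (hr : r ≤ 2) (he : |ev q y x| ≤ e) : |y| ≤ K * e + 12 * (K ^ 2 * r) := by
  have hK0 : (0:ℝ) < K := by linarith
  have hr0 : 0 ≤ r := (abs_nonneg _).trans (hx 0)
  set A := q.a0 + q.h00 * (y / 2) + ∑ i, q.h0 i * x i with hA
  have e1 : A * y = ev q y x - (∑ i, q.a i * x i + 1 / 2 * ∑ i, ∑ j, q.h i j * (x i * x j)) := by
    rw [hA]; unfold ev; ring
  have e2 := dot_le hq.a hx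
  have e3 := quad_le hq.h hx
  have e4 : |A| * |y| ≤ e + 12 * (K * r) := by
    rw [← abs_mul, e1]
    have t1 := abs_sub (ev q y x)
      (∑ i, q.a i * x i + 1 / 2 * ∑ i, ∑ j, q.h i j * (x i * x j))
    have t2 := abs_add_le (∑ i, q.a i * x i) (1 / 2 * ∑ i, ∑ j, q.h i j * (x i * x j))
    rw [abs_mul (1 / 2) (∑ i, ∑ j, q.h i j * (x i * x j)),
      abs_of_pos (by norm_num : (0:ℝ) < 1 / 2)] at t2
    have t3 : K * r ^ 2 ≤ 2 * (K * r) := by
      have : r ^ 2 ≤ 2 * r := by nlinarith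
      calc K * r ^ 2 ≤ K * (2 * r) := mul_le_mul_of_nonneg_left this hK0.le
        _ = _ := by ring
    linarith
  have e5 : 1 ≤ K * |A| := by
    have := mul_le_mul_of_nonneg_left hst hK0.le
    rwa [mul_one_div_cancel hK0.ne'] at this
  calc |y| = 1 * |y| := (one_mul _).symm
    _ ≤ K * |A| * |y| := mul_le_mul_of_nonneg_right e5 (abs_nonneg _)
    _ = K * (|A| * |y|) := by ring
    _ ≤ K * (e + 12 * (K * r)) := mul_le_mul_of_nonneg_left e4 hK0.le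
    _ = _ := by ring

/-- **data of the adapter**: polynomials `(cq, q)`, `(cP, P)` on the box `|y| ≤ 1`, `|x i| ≤ 1`,
`0 ≤ x 0`, points `(y n, X n)`, `n ∈ A`, near `q = 0` -/
structure Data {β : Type} (A : Set β) (cq : ℝ) (q P : Jt) (y : β → ℝ) (X : β → Fin 3 → ℝ)
    (K α : ℝ) : Prop where
  K1 : 1 ≤ K
  α0 : 0 < α
  α1 : α ≤ 1
  bq : Bd q K
  bP : Bd P K
  st : ∀ (y : ℝ) (x : Fin 3 → ℝ), |y| ≤ 1 → (∀ i, |x i| ≤ 1) → 0 ≤ x 0 →
    1 / K ≤ |(sh q y x).a0|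
  y1 : ∀ n ∈ A, |y n| ≤ 1
  X1 : ∀ n ∈ A, ∀ i, |X n i| ≤ 1
  X0 : ∀ n ∈ A, 0 ≤ X n 0
  on : ∀ n ∈ A, |cq + ev q (y n) (X n)| ≤ K * α

/-- constant of the adapter -/
noncomputable def CK (K : ℝ) : ℝ := 10 ^ 14 * K ^ 11

theorem CK_one {K : ℝ} (hK : 1 ≤ K) : 1 ≤ CK K := by
  unfold CK
  have : (1:ℝ) ≤ K ^ 11 := one_le_pow₀ hK
  linarith

section

variable {β : Type} {A : Set β} {cq : ℝ} {q P : Jt} {y : β → ℝ} {X : β → Fin 3 → ℝ} {K α : ℝ}

/-- value of `P` at the point `n` -/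
noncomputable def FF (cP : ℝ) (P : Jt) (y : β → ℝ) (X : β → Fin 3 → ℝ) (n : β) : ℝ :=
  cP + ev P (y n) (X n)

/-- tangential gradient at the point `n` -/
noncomputable def GG (q P : Jt) (y : β → ℝ) (X : β → Fin 3 → ℝ) (n : β) (i : Fin 3) : ℝ :=
  tg (sh q (y n) (X n)) (sh P (y n) (X n)) i

/-- tangential Hessian at the point `n` -/
noncomputable def HH (q P : Jt) (y : β → ℝ) (X : β → Fin 3 → ℝ) (n : β) (i j : Fin 3) : ℝ :=
  th (sh q (y n) (X n)) (sh P (y n) (X n)) i j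

theorem Data.st5 (D : Data A cq q P y X K α) {n : β} (hn : n ∈ A) :
    1 / (5 * K) ≤ |(sh q (y n) (X n)).a0| := by
  have hK0 : (0:ℝ) < K := by linarith [D.K1]
  exact (one_div_le_one_div_of_le hK0 (by linarith)).trans
    (D.st _ _ (D.y1 n hn) (D.X1 n hn) (D.X0 n hn))

/-- one pair of points -/
theorem Data.pair (D : Data A cq q P y X K α) {n n' : β} (hn : n ∈ A) (hn' : n' ∈ A) {r : ℝ}
    (hr : ∀ j, |X n' j - X n j| ≤ r) :
    (∀ i, |X n' i - X n i| ≤ 1000 * K ^ 2 * (r + α)) ∧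
      |y n' - y n| ≤ 1000 * K ^ 2 * (r + α) ∧
      |ev (sh q (y n) (X n)) (y n' - y n) (fun i => X n' i - X n i)| ≤ 2 * (K * α) := by
  have hK := D.K1
  have hK0 : (0:ℝ) < K := by linarith
  have hα := D.α0
  have hr0 : 0 ≤ r := (abs_nonneg _).trans (hr 0)
  have hK2 : (1:ℝ) ≤ K ^ 2 := one_le_pow₀ hK
  have hdx2 : ∀ i, |X n' i - X n i| ≤ 2 := fun i =>
    (abs_sub _ _).trans (by linarith [D.X1 n hn i, D.X1 n' hn' i])
  have hev : |ev (sh q (y n) (X n)) (y n' - y n) (fun i => X n' i - X n i)| ≤ 2 * (K * α) := by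
    have e1 := ev_add (J := q) D.bq.s (y n) (y n' - y n) (X n) (fun i => X n' i - X n i)
    have e2 : (fun i => X n i + (X n' i - X n i)) = X n' := by funext i; ring
    have e3 : y n + (y n' - y n) = y n' := by ring
    rw [e2, e3] at e1
    have e4 : ev (sh q (y n) (X n)) (y n' - y n) (fun i => X n' i - X n i) =
        (cq + ev q (y n') (X n')) - (cq + ev q (y n) (X n)) := by rw [e1]; ring
    rw [e4]
    refine (abs_sub _ _).trans ?_
    linarith [D.on n hn, D.on n' hn']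
  refine ⟨fun i => (hr i).trans ?_, ?_, hev⟩
  · have e1 : 1 * r ≤ K ^ 2 * r := mul_le_mul_of_nonneg_right hK2 hr0
    have e2 : 0 ≤ K ^ 2 * α := by positivity
    have e3 : 1000 * K ^ 2 * (r + α) = 1000 * (K ^ 2 * r) + 1000 * (K ^ 2 * α) := by ring
    have e4 : 0 ≤ K ^ 2 * r := by positivity
    rw [e3]; linarith
  · -- steepness at the midpoint
    have h5 : (1:ℝ) ≤ 5 * K := by linarith
    have bq' : Bd (sh q (y n) (X n)) (5 * K) := D.bq.shift (D.y1 n hn) (D.X1 n hn)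
    have hst : 1 / (5 * K) ≤ |(sh q (y n) (X n)).a0 + (sh q (y n) (X n)).h00 * ((y n' - y n) / 2) +
        ∑ i, (sh q (y n) (X n)).h0 i * (X n' i - X n i)| := by
      have e1 : (sh q (y n) (X n)).a0 + (sh q (y n) (X n)).h00 * ((y n' - y n) / 2) +
          ∑ i, (sh q (y n) (X n)).h0 i * (X n' i - X n i) =
          (sh q ((y n + y n') / 2) (X n')).a0 := by
        simp only [sh, Fin.sum_univ_three]; ring
      rw [e1]
      have e2 : |(y n + y n') / 2| ≤ 1 := by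
        rw [abs_div, abs_two]
        have := abs_add_le (y n) (y n')
        have := D.y1 n hn
        have := D.y1 n' hn'
        linarith
      refine le_trans ?_ (D.st _ _ e2 (D.X1 n' hn') (D.X0 n' hn'))
      exact one_div_le_one_div_of_le hK0 (by linarith)
    have e3 : ∀ i, |X n' i - X n i| ≤ min r 2 := fun i => le_min (hr i) (hdx2 i)
    have e4 := disp_le h5 bq' hst e3 (min_le_right _ _) hev
    have e6 : (5 * K) ^ 2 * min r 2 ≤ (5 * K) ^ 2 * r :=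
      mul_le_mul_of_nonneg_left (min_le_left _ _) (by positivity)
    have e9 : 5 * K * (2 * (K * α)) = 10 * (K ^ 2 * α) := by ring
    have e10 : (5 * K) ^ 2 * r = 25 * (K ^ 2 * r) := by ring
    have e11 : 0 ≤ K ^ 2 * r := by positivity
    have e13 : 0 ≤ K ^ 2 * α := by positivity
    rw [e9] at e4
    rw [e10] at e6
    have e12 : 1000 * K ^ 2 * (r + α) = 1000 * (K ^ 2 * r) + 1000 * (K ^ 2 * α) := by ring
    rw [e12]
    linarith

theorem Data.GG_le (D : Data A cq q P y X K α) {n : β} (hn : n ∈ A) (i : Fin 3) :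
    |GG q P y X n i| ≤ CK K := by
  have hK := D.K1
  have h5 : (1:ℝ) ≤ 5 * K := by linarith
  have e1 := tg_le h5 (D.bq.shift (D.y1 n hn) (D.X1 n hn)) (D.bP.shift (D.y1 n hn) (D.X1 n hn))
    (D.st5 hn) i
  refine e1.trans ?_
  unfold CK
  have e2 : K ^ 3 ≤ K ^ 11 := pow_le_pow_right₀ hK (by norm_num)
  have e3 : 2 * (5 * K) ^ 3 = 250 * K ^ 3 := by ring
  have e4 : 0 ≤ K ^ 11 := by positivity
  rw [e3]
  linarith

theorem Data.HH_le (D : Data A cq q P y X K α) {n : β} (hn : n ∈ A) (i j : Fin 3) :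
    |HH q P y X n i j| ≤ CK K := by
  have hK := D.K1
  have h5 : (1:ℝ) ≤ 5 * K := by linarith
  have e1 := th_le h5 (D.bq.shift (D.y1 n hn) (D.X1 n hn)) (D.bP.shift (D.y1 n hn) (D.X1 n hn))
    (D.st5 hn) i j
  refine e1.trans ?_
  unfold CK
  have e2 : K ^ 7 ≤ K ^ 11 := pow_le_pow_right₀ hK (by norm_num)
  have e3 : 8 * (5 * K) ^ 7 = 625000 * K ^ 7 := by ring
  have e4 : 0 ≤ K ^ 11 := by positivity
  rw [e3]
  linarith

/-- symmetric -/
theorem Data.HH_symm (D : Data A cq q P y X K α) (n : β) (i j : Fin 3) :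
    HH q P y X n i j = HH q P y X n j i := by
  unfold HH
  exact th_symm (q := sh q (y n) (X n)) (q' := sh P (y n) (X n)) D.bq.s D.bP.s i j

theorem m_sq {r α : ℝ} (hα : 0 < α) (hα1 : α ≤ 1) :
    (r + α) ^ 2 ≤ 2 * (r ^ 2 + α) := by
  have h2 : α ^ 2 ≤ α := by nlinarith
  nlinarith [sq_nonneg (r - α)]

/-- **ADAPTER, first order** -/
theorem Data.t1 (D : Data A cq q P y X K α) (cP : ℝ) {n n' : β} (hn : n ∈ A) (hn' : n' ∈ A)
    {r : ℝ} (hr : ∀ j, |X n' j - X n j| ≤ r) :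
    |FF cP P y X n' - FF cP P y X n - ∑ j, GG q P y X n j * (X n' j - X n j)| ≤
      CK K * (r ^ 2 + α) := by
  have hK := D.K1
  have hK0 : (0:ℝ) < K := by linarith
  have h5 : (1:ℝ) ≤ 5 * K := by linarith
  have hα := D.α0
  have hr0 : 0 ≤ r := (abs_nonneg _).trans (hr 0)
  obtain ⟨e4, e5, e6⟩ := D.pair hn hn' hr
  have bq' := D.bq.shift (D.y1 n hn) (D.X1 n hn)
  have bP' := D.bP.shift (D.y1 n hn) (D.X1 n hn)
  have p1 := pair1 h5 bq' bP' (D.st5 hn) e5 e4 e6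
  have hF : FF cP P y X n' - FF cP P y X n =
      ev (sh P (y n) (X n)) (y n' - y n) (fun i => X n' i - X n i) := by
    unfold FF
    have e1 := ev_add (J := P) D.bP.s (y n) (y n' - y n) (X n) (fun i => X n' i - X n i)
    have e2 : (fun i => X n i + (X n' i - X n i)) = X n' := by funext i; ring
    have e3 : y n + (y n' - y n) = y n' := by ring
    rw [e2, e3] at e1
    rw [e1]; ring
  have key : FF cP P y X n' - FF cP P y X n - ∑ j, GG q P y X n j * (X n' j - X n j) =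
      ev (sh P (y n) (X n)) (y n' - y n) (fun i => X n' i - X n i) -
        ∑ i, (X n' i - X n i) * tg (sh q (y n) (X n)) (sh P (y n) (X n)) i := by
    rw [hF]
    simp only [GG, Fin.sum_univ_three]; ring
  rw [key]
  refine p1.trans ?_
  have hm := m_sq (r := r) hα D.α1
  set m := r + α with hmd
  have q1 : (5 * K) ^ 2 * (2 * (K * α)) + 16 * ((5 * K) ^ 3 * (1000 * K ^ 2 * m) ^ 2) =
      50 * (K ^ 3 * α) + 2000000000 * (K ^ 7 * m ^ 2) := by ring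
  rw [q1]
  have q3 : K ^ 3 * α ≤ K ^ 11 * (r ^ 2 + α) :=
    mul_le_mul (pow_le_pow_right₀ hK (by norm_num)) (by nlinarith [sq_nonneg r]) hα.le
      (by positivity)
  have q4 : K ^ 7 * m ^ 2 ≤ K ^ 11 * (2 * (r ^ 2 + α)) :=
    mul_le_mul (pow_le_pow_right₀ hK (by norm_num)) hm (by positivity) (by positivity)
  have q5 : K ^ 11 * (2 * (r ^ 2 + α)) = 2 * (K ^ 11 * (r ^ 2 + α)) := by ring
  have q6 : 0 ≤ K ^ 11 * (r ^ 2 + α) := by positivity
  rw [q5] at q4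
  unfold CK
  have q7 : 10 ^ 14 * K ^ 11 * (r ^ 2 + α) = 10 ^ 14 * (K ^ 11 * (r ^ 2 + α)) := by ring
  rw [q7]
  linarith

theorem Data.sh2 (D : Data A cq q P y X K α) (J : Jt) (n n' : β) :
    sh (sh J (y n) (X n)) (y n' - y n) (fun i => X n' i - X n i) = sh J (y n') (X n') := by
  rw [sh_sh]
  have e2 : (fun i => X n i + (X n' i - X n i)) = X n' := by funext i; ring
  have e3 : y n + (y n' - y n) = y n' := by ring
  rw [e2, e3]

/-- **ADAPTER, second order** -/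
theorem Data.t2 (D : Data A cq q P y X K α) {n n' : β} (hn : n ∈ A) (hn' : n' ∈ A)
    {r : ℝ} (hr : ∀ j, |X n' j - X n j| ≤ r) (i : Fin 3) :
    |GG q P y X n' i - GG q P y X n i - ∑ j, HH q P y X n i j * (X n' j - X n j)| ≤
      CK K * (r ^ 2 + α) := by
  have hK := D.K1
  have hK0 : (0:ℝ) < K := by linarith
  have h5 : (1:ℝ) ≤ 5 * K := by linarith
  have hα := D.α0
  have hr0 : 0 ≤ r := (abs_nonneg _).trans (hr 0)
  obtain ⟨e4, e5, e6⟩ := D.pair hn hn' hr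
  have bq' := D.bq.shift (D.y1 n hn) (D.X1 n hn)
  have bP' := D.bP.shift (D.y1 n hn) (D.X1 n hn)
  have h0' : 1 / (5 * K) ≤
      |(sh (sh q (y n) (X n)) (y n' - y n) (fun i => X n' i - X n i)).a0| := by
    rw [D.sh2]; exact D.st5 hn'
  have p1 := pair2 h5 bq' bP' (D.st5 hn) h0' e5 e4 e6 i
  rw [D.sh2, D.sh2] at p1
  show |tg (sh q (y n') (X n')) (sh P (y n') (X n')) i - tg (sh q (y n) (X n)) (sh P (y n) (X n)) i
    - ∑ j, th (sh q (y n) (X n)) (sh P (y n) (X n)) i j * (X n' j - X n j)| ≤ _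
  refine p1.trans ?_
  have hm := m_sq (r := r) hα D.α1
  set m := r + α with hmd
  have q1 : 4 * ((5 * K) ^ 6 * (2 * (K * α))) + 96 * ((5 * K) ^ 7 * (1000 * K ^ 2 * m) ^ 2) =
      125000 * (K ^ 7 * α) + 7500000000000 * (K ^ 11 * m ^ 2) := by ring
  rw [q1]
  have q3 : K ^ 7 * α ≤ K ^ 11 * (r ^ 2 + α) :=
    mul_le_mul (pow_le_pow_right₀ hK (by norm_num)) (by nlinarith [sq_nonneg r]) hα.le
      (by positivity)
  have q4 : K ^ 11 * m ^ 2 ≤ K ^ 11 * (2 * (r ^ 2 + α)) :=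
    mul_le_mul_of_nonneg_left hm (by positivity)
  have q5 : K ^ 11 * (2 * (r ^ 2 + α)) = 2 * (K ^ 11 * (r ^ 2 + α)) := by ring
  have q6 : 0 ≤ K ^ 11 * (r ^ 2 + α) := by positivity
  rw [q5] at q4
  unfold CK
  have q7 : 10 ^ 14 * K ^ 11 * (r ^ 2 + α) = 10 ^ 14 * (K ^ 11 * (r ^ 2 + α)) := by ring
  rw [q7]
  linarith

/-- **ADAPTER, third order** -/
theorem Data.t3 (D : Data A cq q P y X K α) {n n' : β} (hn : n ∈ A) (hn' : n' ∈ A)
    {r : ℝ} (hr : ∀ j, |X n' j - X n j| ≤ r) (i j : Fin 3) :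
    |HH q P y X n' i j - HH q P y X n i j| ≤ CK K * (r + α) := by
  have hK := D.K1
  have hK0 : (0:ℝ) < K := by linarith
  have h5 : (1:ℝ) ≤ 5 * K := by linarith
  have hα := D.α0
  have hr0 : 0 ≤ r := (abs_nonneg _).trans (hr 0)
  obtain ⟨e4, e5, e6⟩ := D.pair hn hn' hr
  have bq' := D.bq.shift (D.y1 n hn) (D.X1 n hn)
  have bP' := D.bP.shift (D.y1 n hn) (D.X1 n hn)
  have h0' : 1 / (5 * K) ≤
      |(sh (sh q (y n) (X n)) (y n' - y n) (fun i => X n' i - X n i)).a0| := by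
    rw [D.sh2]; exact D.st5 hn'
  have bq2 : Bd (sh (sh q (y n) (X n)) (y n' - y n) (fun i => X n' i - X n i)) (5 * K) := by
    rw [D.sh2]; exact D.bq.shift (D.y1 n' hn') (D.X1 n' hn')
  have bP2 : Bd (sh (sh P (y n) (X n)) (y n' - y n) (fun i => X n' i - X n i)) (5 * K) := by
    rw [D.sh2]; exact D.bP.shift (D.y1 n' hn') (D.X1 n' hn')
  have p1 := pair3 h5 bq' bP' (D.st5 hn) h0' bq2 bP2 e5 e4 i j
  rw [D.sh2, D.sh2] at p1
  refine p1.trans ?_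
  have q1 : 96 * ((5 * K) ^ 9 * (1000 * K ^ 2 * (r + α))) =
      187500000000 * (K ^ 11 * (r + α)) := by ring
  have q6 : 0 ≤ K ^ 11 * (r + α) := by positivity
  rw [q1]
  unfold CK
  have q7 : 10 ^ 14 * K ^ 11 * (r + α) = 10 ^ 14 * (K ^ 11 * (r + α)) := by ring
  rw [q7]
  linarith

end

/-! ### helper601's forms -/

theorem sh_eq (J : Jt) (y : ℝ) (x : Fin 3 → ℝ) : sh J y x = J.shift y x := by
  simp only [sh, Jt.shift, dp, Jt.mk.injEq, and_true, true_and]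
  funext i; ring

theorem ev_eq (J : Jt) (y : ℝ) (x : Fin 3 → ℝ) : ev J y x =
    J.a0 * y + dp J.a x + 1 / 2 * (J.h00 * y ^ 2 + 2 * y * dp J.h0 x + qf J.h x) := by
  simp only [ev, dp, qf, Fin.sum_univ_three]
  ring

end Crest.Agent.R136.Adp876
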