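import Crest.Agent.R136.Cap2_102

/-!
# R136 (S0187): **[CAP]**, the captured fan of a non-degenerate curved sheet (helper102)
-/

set_option autoImplicit false

namespace Crest.Agent.R136.Tl102

open Crest.Agent.R136.Sh605 Crest.Agent.R136.Arc880

/-- arc cover with balls in the plane of lateral velocities -/
theorem arcs3_ball {f : Fin 3 → Fin 3 → ℝ} (hf : ∀ i j, |f i j| ≤ 1) {κ δ β η : ℝ}
    (hκ : κ ≤ |det3 f|) (hκ0 : 0 ≤ κ) (hκ1 : κ ≤ 1) (hβ0 : 0 < β) (hβ1 : β ≤ 1)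
    (hδ : 244 * δ ≤ (κ * β ^ 2 / 216) ^ 3) (hη : η ≤ (κ * β ^ 2 / 216) ^ 3 / 48)
    {x0 y0 : ℝ} (hx0 : |x0| ≤ 1) (hy0 : |y0| ≤ 1) (h0 : |qf f x0 y0| ≤ δ) {X : Set (ℝ × ℝ)}
    (hX : ∀ p ∈ X, |p.1| ≤ 1 ∧ |p.2| ≤ 1 ∧ |qf f p.1 p.2| ≤ δ)
    (htr : ¬ ∃ p : Fin 3 → ℝ × ℝ, (∀ i, p i ∈ X) ∧ ∀ i j, i ≠ j →
      η ≤ |ar x0 y0 (p i).1 (p i).2 (p j).1 (p j).2|) :
    ∃ c : Fin 3 → ℝ × ℝ, ∀ p ∈ X, ∃ i, dist p (c i) < 2 * β := by
  have sep : ∀ p p' : ℝ × ℝ, β ≤ dist p p' → β ^ 2 ≤ (p'.1 - p.1) ^ 2 + (p'.2 - p.2) ^ 2 := by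
    intro p p' h
    rw [Prod.dist_eq, Real.dist_eq, Real.dist_eq] at h
    rcases le_max_iff.1 h with h | h
    · exact sep_fst hβ0.le h
    · have := sep_fst (y := p.1) (y' := p'.1) hβ0.le h
      linarith
  apply coverN 3
  rintro ⟨p, hp, hsep⟩
  have hone : ∃ e : Fin 3 → Fin 4, Function.Injective e ∧ ∀ i, β ≤ dist (x0, y0) (p (e i)) := by
    by_cases hc : ∃ k : Fin 4, dist (x0, y0) (p k) < β
    · obtain ⟨k, hk⟩ := hc
      refine ⟨k.succAbove, Fin.succAbove_right_injective, fun i => ?_⟩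
      by_contra hcon
      push Not at hcon
      have h1 := hsep (k.succAbove i) k (Fin.succAbove_ne k i)
      have h2 := dist_triangle_left (p (k.succAbove i)) (p k) (x0, y0)
      linarith
    · push Not at hc
      exact ⟨Fin.castSucc, Fin.castSucc_injective 3, fun i => hc _⟩
  obtain ⟨e, he, hfar⟩ := hone
  refine htr ⟨fun i => p (e i), fun i => hp _, fun i j hij => ?_⟩
  obtain ⟨a1, a2, a3⟩ := hX _ (hp (e i))
  obtain ⟨b1, b2, b3⟩ := hX _ (hp (e j))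
  have hβ2 : β ^ 2 ≤ 1 := by nlinarith only [hβ0, hβ1]
  have s3 := sep (p (e i)) (p (e j)) (by
    have := hsep (e i) (e j) (fun h => hij (he h))
    linarith)
  exact hη.trans (area hf hκ hκ0 hκ1 hβ2 hx0 hy0 a1 a2 b1 b2 h0 a3 b3 (sep (x0, y0) _ (hfar i))
    (sep (x0, y0) _ (hfar j)) s3 hδ)

/-- entries of the fan -/
theorem fan_le {b0 b1 : V3} {G : QF} (N : NrmC b0 b1 G) (hκ : 0 < kap b0 b1 G) {ζ : ℝ}
    (hζ : 0 ≤ ζ) (hζ' : ζ ≤ 1) :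
    (∀ i j, |fan (shB0 b0) (scB1 (kap b0 b1 G) b0 b1) (scG (kap b0 b1 G) b0 G) ζ i j| ≤ 1) ∧
      |slp (shB0 b0) (scB1 (kap b0 b1 G) b0 b1) 1 ζ| ≤ 2 ∧
      |slp (shB0 b0) (scB1 (kap b0 b1 G) b0 b1) 2 ζ| ≤ 2 := by
  obtain ⟨g1, g2, g3, g4, g5, -, -, -, -⟩ := N.b1_le
  obtain ⟨c1, c2, c3, c4, c5, c6, c7, c8, c9, c10⟩ := N.sc_le hκ
  set κ := kap b0 b1 G with hκd
  set b1' := scB1 κ b0 b1 with hb1'
  set G' := scG κ b0 G with hG'
  have hby : 1 / 2 ≤ shB0 b0 0 + ζ * b1' 0 := by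
    change 1 / 2 ≤ b0 0 + ζ * b1 0
    nlinarith
  have hs : ∀ k : Fin 3, k ≠ 0 → |b1' k| ≤ 1 → |slp (shB0 b0) b1' k ζ| ≤ 2 := by
    intro k hk hb
    unfold slp
    have e0 : shB0 b0 k = 0 := by
      fin_cases k
      · exact absurd rfl hk
      · rfl
      · rfl
    rw [e0, zero_add, abs_div, abs_neg, abs_of_pos (by linarith : 0 < shB0 b0 0 + ζ * b1' 0),
      div_le_iff₀ (by linarith), abs_mul, abs_of_nonneg hζ]
    have := abs_nonneg (b1' k)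
    nlinarith
  have s1 := hs 1 (by decide) c3
  have s2 := hs 2 (by decide) c4
  refine ⟨?_, s1, s2⟩
  set p := slp (shB0 b0) b1' 1 ζ with hp
  set r := slp (shB0 b0) b1' 2 ζ with hr
  have d0 : |b1' 0| ≤ 3 / 2 := c2 0
  have t2 : |(2 : ℝ)| ≤ 2 := by norm_num
  have q1 : |p ^ 2| ≤ 2 * 2 := by rw [sq]; exact mul_abs_le s1 s1
  have q2 : |r ^ 2| ≤ 2 * 2 := by rw [sq]; exact mul_abs_le s2 s2
  have e1 : |(b1' 1 + b1' 0 * p) / 512| ≤ 1 := by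
    rw [abs_div, abs_of_pos (by norm_num : (0 : ℝ) < 512), div_le_one (by norm_num)]
    exact (abs_add2 c3 (mul_abs_le d0 s1)).trans (by norm_num)
  have e2 : |(b1' 2 + b1' 0 * r) / 512| ≤ 1 := by
    rw [abs_div, abs_of_pos (by norm_num : (0 : ℝ) < 512), div_le_one (by norm_num)]
    exact (abs_add2 c4 (mul_abs_le d0 s2)).trans (by norm_num)
  have e3 : |(G'.uu + G'.yu * p + G'.yy * p ^ 2) / 64| ≤ 1 := by
    rw [abs_div, abs_of_pos (by norm_num : (0 : ℝ) < 64), div_le_one (by norm_num)]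
    exact (abs_add2 (abs_add2 c8 (mul_abs_le c6 s1)) (mul_abs_le c5 q1)).trans (by norm_num)
  have e4 : |(G'.uv + G'.yu * r + G'.yv * p + 2 * G'.yy * (p * r)) / 128| ≤ 1 := by
    rw [abs_div, abs_of_pos (by norm_num : (0 : ℝ) < 128), div_le_one (by norm_num)]
    exact (abs_add2 (abs_add2 (abs_add2 c9 (mul_abs_le c6 s2)) (mul_abs_le c7 s1))
      (mul_abs_le (mul_abs_le t2 c5) (mul_abs_le s1 s2))).trans (by norm_num)
  have e5 : |(G'.vv + G'.yv * r + G'.yy * r ^ 2) / 64| ≤ 1 := by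
    rw [abs_div, abs_of_pos (by norm_num : (0 : ℝ) < 64), div_le_one (by norm_num)]
    exact (abs_add2 (abs_add2 c10 (mul_abs_le c7 s2)) (mul_abs_le c5 q2)).trans (by norm_num)
  intro i j
  fin_cases i <;> fin_cases j
  · change |(0 : ℝ)| ≤ 1; norm_num
  · exact e1
  · exact e2
  · exact e1
  · exact e3
  · exact e4
  · exact e2
  · exact e4
  · exact e5

/-- the velocity of a captured line lies on the conic of the fan -/
theorem qf_captured {b0 b1 : V3} {G : QF} (N : NrmC b0 b1 G) (hκ : 0 < kap b0 b1 G) {ζ r A : ℝ}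
    (hζ : 0 ≤ ζ) (hζ' : ζ ≤ 1) {D t : V3} (hr : 0 ≤ r) (hA : 0 ≤ A)
    (hsm : 400000 * (r + A) ≤ 1)
    (hD : ∀ k, |D k| ≤ 5 * r + 4 * A) (ht : ∀ k, |t k| ≤ 256)
    (h0 : ∀ z', 0 ≤ z' → z' ≤ 1 → |Fq (shB0 b0) (scB1 (kap b0 b1 G) b0 b1)
      (scG (kap b0 b1 G) b0 G) z' (pos D t ζ z')| ≤ 2 * A) :
    |qf (fan (shB0 b0) (scB1 (kap b0 b1 G) b0 b1) (scG (kap b0 b1 G) b0 G) ζ) (t 1 / 4) (t 2 / 4)| ≤
      5000000 * (r + A) := by
  obtain ⟨g1, g2, g3, g4, g5, -, -, -, -⟩ := N.b1_le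
  obtain ⟨c1, c2, c3, c4, c5, c6, c7, c8, c9, c10⟩ := N.sc_le hκ
  set κ := kap b0 b1 G with hκd
  set b1' := scB1 κ b0 b1 with hb1'
  set G' := scG κ b0 G with hG'
  have hG13 : G'.Le 13 := ⟨c5, c6.trans (by norm_num), c7.trans (by norm_num),
    c8.trans (by norm_num), c9.trans (by norm_num), c10.trans (by norm_num)⟩
  obtain ⟨L1, L2⟩ := line_coef hζ hζ' h0 hG13 c2 hD ht
  have hby : 1 / 2 ≤ shB0 b0 0 + ζ * b1' 0 := by
    change 1 / 2 ≤ b0 0 + ζ * b1 0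
    nlinarith
  set e1 := 200000 * (r + A) with he1
  have hL1 : |dt (bz (shB0 b0) b1' ζ) t| ≤ e1 := by
    refine L1.trans ?_
    rw [he1]
    nlinarith
  set y' := slp (shB0 b0) b1' 1 ζ * t 1 + slp (shB0 b0) b1' 2 ζ * t 2 with hy'
  have hne : shB0 b0 0 + ζ * b1' 0 ≠ 0 := by linarith
  have e : y' - t 0 = -(dt (bz (shB0 b0) b1' ζ) t) / (shB0 b0 0 + ζ * b1' 0) := by
    rw [hy']
    simp only [slp, dt, bz]
    field_simp
    ring
  have h3 : |y' - t 0| ≤ 2 * e1 := by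
    rw [e, abs_div, abs_neg, abs_of_pos (by linarith : (0 : ℝ) < shB0 b0 0 + ζ * b1' 0),
      div_le_iff₀ (by linarith)]
    nlinarith [abs_nonneg (dt (bz (shB0 b0) b1' ζ) t)]
  have h1024 := qf_fan (shB0 b0) b1' G' ζ (t 1 / 4) (t 2 / 4)
  have e4 : 4 * (t 1 / 4) = t 1 := by ring
  have e5 : 4 * (t 2 / 4) = t 2 := by ring
  rw [e4, e5] at h1024
  have hval : dt b1' (lft (shB0 b0) b1' ζ (t 1) (t 2)) + G'.ev (lft (shB0 b0) b1' ζ (t 1) (t 2)) =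
      (dt b1' t + G'.ev t) + (y' - t 0) * (b1' 0 + G'.yy * (y' - t 0) + 2 * (G'.yy * t 0) +
        (G'.yu * t 1 + G'.yv * t 2)) := by
    simp only [dt, QF.ev, lft, Matrix.cons_val]
    rw [← hy']
    ring
  have he1' : 0 ≤ e1 := by positivity
  have he2 : 2 * e1 ≤ 1 := by rw [he1]; linarith
  have h5 : |b1' 0 + G'.yy * (y' - t 0) + 2 * (G'.yy * t 0) + (G'.yu * t 1 + G'.yv * t 2)| ≤
      10000 := by
    have t2 : |(2 : ℝ)| ≤ 2 := by norm_num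
    refine (abs_add2 (abs_add2 (abs_add2 (c2 0) (mul_abs_le c5 (h3.trans he2)))
      (mul_abs_le t2 (mul_abs_le c5 (ht 0)))) (abs_add2 (mul_abs_le c6 (ht 1))
        (mul_abs_le c7 (ht 2)))).trans (by norm_num)
  have h6 : |1024 * qf (fan (shB0 b0) b1' G' ζ) (t 1 / 4) (t 2 / 4)| ≤
      8 * (2 * A) + (2 * e1) * 10000 := by
    rw [h1024, hval]
    exact abs_add2 L2 (mul_abs_le h3 h5)
  rw [abs_mul, abs_of_pos (by norm_num : (0 : ℝ) < 1024)] at h6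
  rw [he1] at h6
  nlinarith

/-- **[CAP]**.  `T` a line of the non-degenerate curved sheet `S₁` (function `q`) with `q₂ = O(a₂)`
on `T`; `𝓛` lines of `S₁` with `q₂ = O(a₂)` on them.  If `q₂` is not `O((a + a₂) η⁻²⁰)` on `S₁` near
`T`, then for all heights outside two intervals of radius `η` the relative lateral velocities of the
lines of `𝓛` passing `T` within lateral distance `r` lie in three balls of radius `8 β`. -/
theorem cap {e : Fin 3 → V3} {c : Ln4} {w : V3} {q q₂ : ℝ → V3 → ℝ} {z0 ρ a a₂ : ℝ}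
    (S : StP e c w q z0 ρ) (hρ : 0 ≤ ρ) {T : Ln4} (hT : InSheet T e c w q a z0 ρ)
    {b0 b1 : V3} {G : QF} (hE : IsExp q e w T z0 ρ b0 b1 G) (hκ : 0 < kap b0 b1 G)
    {b0' b1' : V3} {G' : QF} (hE' : IsExp q₂ e w T z0 ρ b0' b1' G') (hm : |b0' 0| ≤ 4)
    (hT₂ : ∀ z, z0 ≤ z → z ≤ z0 + ρ → |q₂ z (T.pos z)| ≤ a₂)
    {κd β η r : ℝ} (hκd : 0 < κd) (hκd1 : κd ≤ 1) (hβ : 0 < β) (hβ1 : β ≤ 1)
    (hnd : ∀ ζ, 0 ≤ ζ → ζ ≤ 1 →
      κd ≤ |det3 (fan (shB0 b0) (scB1 (kap b0 b1 G) b0 b1) (scG (kap b0 b1 G) b0 G) ζ)|)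
    (hη : 0 < η) (hη3 : η ≤ (κd * β ^ 2 / 216) ^ 3 / 48) (hr : 0 ≤ r)
    (hsm : cSm * (r + a / (w 0 * kap b0 b1 G)) ≤ η ^ 20)
    {𝓛 : Set Ln4} (hL : ∀ L ∈ 𝓛, InSheet L e c w q a z0 ρ)
    (hL₂ : ∀ L ∈ 𝓛, ∀ z, z0 ≤ z → z ≤ z0 + ρ → |q₂ z (L.pos z)| ≤ a₂)
    (hbig : ¬ ∀ ζ, 0 ≤ ζ → ζ ≤ 1 → ∀ X, InK e c w (z0 + ρ * ζ) X → |q (z0 + ρ * ζ) X| ≤ a →
      |pc e w T (z0 + ρ * ζ) X 1| ≤ 1 / 8 → |pc e w T (z0 + ρ * ζ) X 2| ≤ 1 / 8 →
      |q₂ (z0 + ρ * ζ) X| ≤ cOut * (a + a₂) / η ^ 20) :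
    ∃ s : Fin 2 → ℝ, ∀ ζ, 0 ≤ ζ → ζ ≤ 1 → (∀ i, η ≤ |ζ - s i|) →
      ∃ p : Fin 3 → ℝ × ℝ, ∀ L ∈ 𝓛, |rp e w z0 ρ T L ζ 1| ≤ r → |rp e w z0 ρ T L ζ 2| ≤ r →
        ∃ i, dist (vel e w ρ T L 1, vel e w ρ T L 2) (p i) < 8 * β := by
  have hTK : ∀ z, z0 ≤ z → z ≤ z0 + ρ → InK e c w z (T.pos z) := fun z h1 h2 => (hT z h1 h2).1
  have N := hE.nrmC S hρ hTK
  obtain ⟨g1, g2, g3, g4, g5, -, -, -, -⟩ := N.b1_le
  have hb0 : b0 0 ≠ 0 := by linarith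
  have hw0 := S.pos 0
  have hwne : ∀ i, w i ≠ 0 := fun i => (S.pos i).ne'
  have hz : ∀ ζ, 0 ≤ ζ → ζ ≤ 1 → z0 ≤ z0 + ρ * ζ ∧ z0 + ρ * ζ ≤ z0 + ρ := by
    intro ζ h1 h2
    constructor
    · nlinarith
    · nlinarith
  have ha : 0 ≤ a := (abs_nonneg _).trans (hT z0 le_rfl (by linarith)).2
  set κ := kap b0 b1 G with hκdef
  have hwk : 0 < w 0 * κ := mul_pos hw0 hκ
  set A := a / (w 0 * κ) with hAd
  have hA0 : 0 ≤ A := by positivity
  -- smallness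
  have hβ2 : β ^ 2 ≤ 1 := pow_le_one₀ hβ.le hβ1
  have hθ0 : 0 ≤ κd * β ^ 2 / 216 := by positivity
  have hθ1 : κd * β ^ 2 / 216 ≤ 1 := by
    rw [div_le_one (by norm_num)]
    have : κd * β ^ 2 ≤ 1 * 1 := mul_le_mul hκd1 hβ2 (by positivity) (by norm_num)
    linarith
  have hθ31 : (κd * β ^ 2 / 216) ^ 3 ≤ 1 := pow_le_one₀ hθ0 hθ1
  have hη1 : η ≤ 1 := by linarith
  have hη20 : η ^ 20 ≤ η := by
    calc η ^ 20 ≤ η ^ 1 := pow_le_pow_of_le_one hη.le hη1 (by norm_num)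
      _ = η := pow_one _
  have hcSm : 10 ^ 12 ≤ cSm := by
    have h1 : 1 ≤ cTw ^ 10 := one_le_pow₀ one_le_cTw
    unfold cSm
    nlinarith
  have hrA : 0 ≤ r + A := by positivity
  have hsm1 : 10 ^ 12 * (r + A) ≤ η := by
    have := mul_le_mul_of_nonneg_right hcSm hrA
    linarith
  have hδ : 244 * (5000000 * (r + A)) ≤ (κd * β ^ 2 / 216) ^ 3 := by linarith
  have hr40 : r ≤ 1 / 40 := by linarith
  have hA2 : A ≤ 1 / 2 := by linarith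
  -- the bad heights
  set bad : Set ℝ := {ζ | 0 ≤ ζ ∧ ζ ≤ 1 ∧ ¬ ∃ p : Fin 3 → ℝ × ℝ, ∀ L ∈ 𝓛,
    |rp e w z0 ρ T L ζ 1| ≤ r → |rp e w z0 ρ T L ζ 2| ≤ r →
      ∃ i, dist (vel e w ρ T L 1, vel e w ρ T L 2) (p i) < 8 * β} with hbad
  have hno : ¬ ∃ s : Fin (2 + 1) → ℝ, (∀ i, s i ∈ bad) ∧ ∀ i j, i ≠ j → η ≤ dist (s i) (s j) := by
    rintro ⟨s, hs, hsd⟩
    have hex : ∀ i, ∃ L : Fin 3 → Ln4, (∀ j, L j ∈ 𝓛) ∧
        (∀ j, |rp e w z0 ρ T (L j) (s i) 1| ≤ r) ∧ (∀ j, |rp e w z0 ρ T (L j) (s i) 2| ≤ r) ∧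
        ∀ j j', j ≠ j' → η ≤ |vel e w ρ T (L j) 1 * vel e w ρ T (L j') 2 -
          vel e w ρ T (L j') 1 * vel e w ρ T (L j) 2| := by
      intro i
      obtain ⟨s1, s2, s3⟩ := hs i
      by_contra hcon
      apply s3
      set X : Set (ℝ × ℝ) := {p | ∃ L ∈ 𝓛, |rp e w z0 ρ T L (s i) 1| ≤ r ∧
        |rp e w z0 ρ T L (s i) 2| ≤ r ∧ p = (vel e w ρ T L 1 / 4, vel e w ρ T L 2 / 4)} with hXd
      have hcap : ∀ L ∈ 𝓛, |rp e w z0 ρ T L (s i) 1| ≤ r → |rp e w z0 ρ T L (s i) 2| ≤ r →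
          |vel e w ρ T L 1 / 4| ≤ 1 ∧ |vel e w ρ T L 2 / 4| ≤ 1 ∧
          |qf (fan (shB0 b0) (scB1 κ b0 b1) (scG κ b0 G) (s i)) (vel e w ρ T L 1 / 4)
            (vel e w ρ T L 2 / 4)| ≤ 5000000 * (r + A) := by
        intro L hLL k1 k2
        obtain ⟨d1, d2⟩ := captured S hρ hT (hL L hLL) hE hκ hA2 s1 s2 hr40 k1 k2
        have hx : ∀ ζ, 0 ≤ ζ → ζ ≤ 1 → ∀ k, |rp e w z0 ρ T L ζ k| ≤ 2 := by
          intro ζ hζ hζ' k
          obtain ⟨z1, z2⟩ := hz ζ hζ hζ'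
          have k1 := (hL L hLL _ z1 z2).1 k
          have k2 := (hT _ z1 z2).1 k
          have hwk := S.pos k
          have e1 : dt (e k) (L.pos (z0 + ρ * ζ) - T.pos (z0 + ρ * ζ)) =
              dt (e k) (L.pos (z0 + ρ * ζ) - c.pos (z0 + ρ * ζ)) -
                dt (e k) (T.pos (z0 + ρ * ζ) - c.pos (z0 + ρ * ζ)) := by
            rw [dt_sub, dt_sub, dt_sub]; ring
          change |dt (e k) (L.pos (z0 + ρ * ζ) - T.pos (z0 + ρ * ζ)) / w k| ≤ 2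
          rw [abs_div, abs_of_pos hwk, div_le_iff₀ hwk, e1]
          exact (abs_sub _ _).trans (by linarith)
        have hv : ∀ k, |vel e w ρ T L k / 4| ≤ 1 := by
          intro k
          have e1 := rp_affine e w z0 ρ T L 0 1 k
          have e2 : vel e w ρ T L k = rp e w z0 ρ T L 1 k - rp e w z0 ρ T L 0 k := by
            rw [e1]; ring
          rw [abs_div, abs_of_pos (by norm_num : (0 : ℝ) < 4), div_le_one (by norm_num), e2]
          refine (abs_sub _ _).trans ?_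
          have := hx 1 zero_le_one le_rfl k
          have := hx 0 le_rfl zero_le_one k
          linarith
        refine ⟨hv 1, hv 2, ?_⟩
        have := qf_captured (D := sD κ b0 (rp e w z0 ρ T L (s i)))
          (t := sD κ b0 (vel e w ρ T L)) N hκ s1 s2 hr hA0 (by linarith) d1 d2 (by
            intro ζ hζ hζ'
            obtain ⟨z1, z2⟩ := hz ζ hζ hζ'
            rw [sD_pos]
            have h1 := hE.at S.ortho hwne hκ.ne' b0 ζ (L.pos (z0 + ρ * ζ))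
            rw [gl_own hb0, gl_own1, gM_own] at h1
            have q1 := (hL L hLL _ z1 z2).2
            have q2 := (hT _ z1 z2).2
            have h2 : w 0 * κ * |Fq (shB0 b0) (scB1 κ b0 b1) (scG κ b0 G) ζ
                (sD κ b0 (rp e w z0 ρ T L ζ))| ≤ 2 * a := by
              rw [← abs_of_pos hwk, ← abs_mul, mul_assoc]
              have e1 : w 0 * (κ * Fq (shB0 b0) (scB1 κ b0 b1) (scG κ b0 G) ζ
                  (sD κ b0 (rp e w z0 ρ T L ζ))) =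
                  q (z0 + ρ * ζ) (L.pos (z0 + ρ * ζ)) - q (z0 + ρ * ζ) (T.pos (z0 + ρ * ζ)) := by
                rw [h1]; unfold rp; ring
              rw [e1]
              exact (abs_sub _ _).trans (by linarith)
            have h3 : 2 * A * (w 0 * κ) = 2 * a := by rw [hAd]; field_simp
            exact le_of_mul_le_mul_left (by linarith) hwk)
        exact this
      obtain ⟨p, hp⟩ := arcs3_ball (x0 := 0) (y0 := 0) (X := X) (fan_le N hκ s1 s2).1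
        (hnd _ s1 s2) hκd.le hκd1 hβ hβ1 hδ hη3 (by norm_num) (by norm_num) (by
          have : qf (fan (shB0 b0) (scB1 κ b0 b1) (scG κ b0 G) (s i)) 0 0 = 0 := by
            simp [qf, fan]
          rw [this, abs_zero]; positivity)
        (by
          rintro p ⟨L, hLL, k1, k2, rfl⟩
          exact hcap L hLL k1 k2)
        (by
          rintro ⟨p, hpX, hpt⟩
          choose L hLL k1 k2 hpe using hpX
          refine hcon ⟨L, hLL, k1, k2, fun j j' hj => ?_⟩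
          have := hpt j j' hj
          rw [hpe j, hpe j'] at this
          have e1 : ar 0 0 (vel e w ρ T (L j) 1 / 4) (vel e w ρ T (L j) 2 / 4)
              (vel e w ρ T (L j') 1 / 4) (vel e w ρ T (L j') 2 / 4) =
              (vel e w ρ T (L j) 1 * vel e w ρ T (L j') 2 -
                vel e w ρ T (L j') 1 * vel e w ρ T (L j) 2) / 16 := by
            unfold ar; ring
          simp only at this
          rw [e1, abs_div, abs_of_pos (by norm_num : (0 : ℝ) < 16), le_div_iff₀ (by norm_num)] at this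
          linarith)
      refine ⟨fun i => (4 * (p i).1, 4 * (p i).2), fun L hLL k1 k2 => ?_⟩
      obtain ⟨i, hi⟩ := hp _ ⟨L, hLL, k1, k2, rfl⟩
      refine ⟨i, ?_⟩
      rw [Prod.dist_eq, max_lt_iff, Real.dist_eq, Real.dist_eq] at hi ⊢
      obtain ⟨i1, i2⟩ := hi
      have f1 : ∀ x y : ℝ, |x / 4 - y| < 2 * β → |x - 4 * y| < 8 * β := by
        intro x y h
        have : x - 4 * y = 4 * (x / 4 - y) := by ring
        rw [this, abs_mul, abs_of_pos (by norm_num : (0 : ℝ) < 4)]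
        linarith
      exact ⟨f1 _ _ i1, f1 _ _ i2⟩
    choose L hLm k1 k2 htr using hex
    exact hbig (pencil_sheet S hρ hT hE hκ hE' hm hT₂ hη hη1 (fun i => ⟨(hs i).1, (hs i).2.1⟩)
      (fun i j h => by have := hsd i j h; rwa [Real.dist_eq] at this) (fun i j => hL _ (hLm i j))
      (fun i j => hL₂ _ (hLm i j)) k1 k2 htr hsm)
  obtain ⟨s, hs⟩ := coverN 2 hno
  refine ⟨s, fun ζ hζ hζ' hfar => ?_⟩
  by_contra hcon
  obtain ⟨i, hi⟩ := hs ζ ⟨hζ, hζ', hcon⟩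
  rw [Real.dist_eq] at hi
  exact absurd hi (not_lt.2 (hfar i))

end Crest.Agent.R136.Tl102
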