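import Crest.Agent.R136.Fn1_880
import Crest.Agent.R136.Cap3_102

/-!
# R136 (S0187), U5: sub-cells of the expansion of a sheet around a line (helper605)

Cell `[z0', z0' + ρ']`, sub-cell `[z0, z0 + ρ]`, `ζ0 = (z0 - z0') / ρ'`, `τ = ρ / ρ'`;
`b0s = b0 + ζ0 b1`, `b1s = τ b1`, same `G`.

* `stP_mono`, `inSheet_mono`, `isExp_mono`, `nrmC_mono`, `rp_mono`, `vel_mono`.
* `slope_sub`    : `|s_k(ζ0) - s_k| ≤ 2 |ζ0| |shB1 k|`.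
* `kap_sub_le`   : `kap b0s b1s G ≤ 128 kap b0 b1 G`.
* `kap_le_sub`   : `τ kap b0 b1 G ≤ 160 kap b0s b1s G`.
* `fan_sub`      : `fan b0s b1s G ζ` = `fan b0 b1 G (ζ0 + τ ζ)` with the row and the column `0` times `τ`.
* `det3_sub`     : `det3 (fan b0s b1s G ζ) = τ² det3 (fan b0 b1 G (ζ0 + τ ζ))`.
* `det3_scaled_sub` : the same for the scaled fans: factor `τ² (κ/κs)³`.
* `det3_scaled_ge`  : `τ² / 128³ |det3 scaled fan (ζ0 + τ ζ)| ≤ |det3 scaled fan of the sub-cell ζ|`.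
* `nd_mono`      : non-degeneracy passes to sub-cells.
-/

set_option autoImplicit false

namespace Crest.Agent.R136.Cps605

open Crest.Agent.R136.Sh605 Crest.Agent.R136.Tl102
open Crest.Agent.R136.Arc880 (det3)
open Crest.Agent.R136.Fn880 (fan_scaled det3_scaled)

/-- constant part of the expansion over the sub-cell -/
def b0s (b0 b1 : V3) (ζ0 : ℝ) : V3 := fun k => b0 k + ζ0 * b1 k

/-- rotation part of the expansion over the sub-cell -/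
def b1s (b1 : V3) (τ : ℝ) : V3 := fun k => τ * b1 k

variable {e : Fin 3 → V3} {c T T' : Ln4} {w : V3} {q : ℝ → V3 → ℝ} {a z0 ρ z0' ρ' : ℝ}
  {b0 b1 : V3} {G : QF}

/-! ### restriction -/

theorem stP_mono (S : StP e c w q z0' ρ') (h : z0' ≤ z0) (h' : z0 + ρ ≤ z0' + ρ') :
    StP e c w q z0 ρ where
  ortho := S.ortho
  isQ := S.isQ
  pos := S.pos
  st0 := fun z a b => S.st0 z (h.trans a) (b.trans h')
  st1 := fun z a b => S.st1 z (h.trans a) (b.trans h')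
  st2 := fun z a b => S.st2 z (h.trans a) (b.trans h')

theorem inSheet_mono (S : InSheet T e c w q a z0' ρ') (h : z0' ≤ z0) (h' : z0 + ρ ≤ z0' + ρ') :
    InSheet T e c w q a z0 ρ :=
  fun z x y => S z (h.trans x) (y.trans h')

/-- heights of the sub-cell in the units of the cell -/
theorem hgt (hρ' : ρ' ≠ 0) (ζ : ℝ) :
    z0 + ρ * ζ = z0' + ρ' * ((z0 - z0') / ρ' + ρ / ρ' * ζ) := by
  field_simp
  ring

theorem hgt_mem (hρ' : 0 < ρ') (hρ : 0 ≤ ρ) (h : z0' ≤ z0) (h' : z0 + ρ ≤ z0' + ρ') :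
    0 ≤ (z0 - z0') / ρ' ∧ 0 ≤ ρ / ρ' ∧ (z0 - z0') / ρ' + ρ / ρ' ≤ 1 := by
  refine ⟨div_nonneg (by linarith) hρ'.le, div_nonneg hρ hρ'.le, ?_⟩
  rw [← add_div, div_le_one hρ']; linarith

theorem isExp_mono (hE : IsExp q e w T z0' ρ' b0 b1 G) (hρ' : ρ' ≠ 0) :
    IsExp q e w T z0 ρ (b0s b0 b1 ((z0 - z0') / ρ')) (b1s b1 (ρ / ρ')) G := by
  intro ζ x
  rw [hgt (z0' := z0') hρ' ζ, hE]
  congr 2
  simp only [Fq, dt, bz, b0s, b1s]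
  ring

/-- the same in units of the cell -/
theorem isExp_sub (hE : IsExp q e w T z0' ρ' b0 b1 G) (ζ0 τ : ℝ) :
    IsExp q e w T (z0' + ρ' * ζ0) (ρ' * τ) (b0s b0 b1 ζ0) (b1s b1 τ) G := by
  intro ζ x
  have h := hE (ζ0 + τ * ζ) x
  have e1 : z0' + ρ' * ζ0 + ρ' * τ * ζ = z0' + ρ' * (ζ0 + τ * ζ) := by ring
  rw [e1, h]
  congr 2
  simp only [Fq, dt, bz, b0s, b1s]
  ring

theorem rp_mono (hρ' : ρ' ≠ 0) (ζ : ℝ) :
    rp e w z0 ρ T T' ζ = rp e w z0' ρ' T T' ((z0 - z0') / ρ' + ρ / ρ' * ζ) := by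
  unfold rp
  rw [hgt (z0' := z0') hρ' ζ]

theorem vel_mono (hρ' : ρ' ≠ 0) (k : Fin 3) :
    vel e w ρ T T' k = ρ / ρ' * vel e w ρ' T T' k := by
  unfold vel
  field_simp

/-- the expansion over the sub-cell is normalised -/
theorem nrmC_mono (N : NrmC b0 b1 G) {ζ0 τ : ℝ} (h0 : 0 ≤ ζ0) (h1 : 0 ≤ τ) (h2 : ζ0 + τ ≤ 1) :
    NrmC (b0s b0 b1 ζ0) (b1s b1 τ) G where
  st := by
    intro ζ hζ hζ' σ u v hσ hu hv
    have e1 : b0s b0 b1 ζ0 0 + ζ * b1s b1 τ 0 = b0 0 + (ζ0 + τ * ζ) * b1 0 := by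
      simp only [b0s, b1s]; ring
    rw [e1]
    exact N.st (ζ0 + τ * ζ) (by positivity) (by nlinarith) σ u v hσ hu hv
  b01 := by
    have h3 := N.b01
    have h4 := N.b11
    have e1 : b0s b0 b1 ζ0 1 = (1 - ζ0) * b0 1 + ζ0 * (b0 1 + b1 1) := by
      simp only [b0s]; ring
    rw [abs_le] at h3 h4
    rw [e1, abs_le]
    constructor <;> nlinarith [h3.1, h3.2, h4.1, h4.2]
  b02 := by
    have h3 := N.b02
    have h4 := N.b12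
    have e1 : b0s b0 b1 ζ0 2 = (1 - ζ0) * b0 2 + ζ0 * (b0 2 + b1 2) := by
      simp only [b0s]; ring
    rw [abs_le] at h3 h4
    rw [e1, abs_le]
    constructor <;> nlinarith [h3.1, h3.2, h4.1, h4.2]
  b11 := by
    have h3 := N.b01
    have h4 := N.b11
    have e1 : b0s b0 b1 ζ0 1 + b1s b1 τ 1 =
        (1 - (ζ0 + τ)) * b0 1 + (ζ0 + τ) * (b0 1 + b1 1) := by
      simp only [b0s, b1s]; ring
    rw [abs_le] at h3 h4
    rw [e1, abs_le]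
    constructor <;> nlinarith [h3.1, h3.2, h4.1, h4.2]
  b12 := by
    have h3 := N.b02
    have h4 := N.b12
    have e1 : b0s b0 b1 ζ0 2 + b1s b1 τ 2 =
        (1 - (ζ0 + τ)) * b0 2 + (ζ0 + τ) * (b0 2 + b1 2) := by
      simp only [b0s, b1s]; ring
    rw [abs_le] at h3 h4
    rw [e1, abs_le]
    constructor <;> nlinarith [h3.1, h3.2, h4.1, h4.2]
  G_le := N.G_le

/-! ### basic quantities -/

theorem D_ge (N : NrmC b0 b1 G) {ζ0 : ℝ} (h0 : 0 ≤ ζ0) (h1 : ζ0 ≤ 1) :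
    1 / 2 ≤ b0s b0 b1 ζ0 0 ∧ b0s b0 b1 ζ0 0 ≤ 2 := by
  have a0 : |(0 : ℝ)| ≤ 1 := by norm_num
  have hst := N.st ζ0 h0 h1 0 0 0 a0 a0 a0
  simp only [mul_zero, add_zero] at hst
  exact hst

/-- the rotation part of the sub-cell, exactly -/
theorem shB1_sub {ζ0 τ : ℝ} (g0 : b0 0 ≠ 0) (g1 : b0s b0 b1 ζ0 0 ≠ 0) {k : Fin 3}
    (hk : k = 1 ∨ k = 2) :
    shB1 (b0s b0 b1 ζ0) (b1s b1 τ) k = τ * (b0 0 / b0s b0 b1 ζ0 0 * shB1 b0 b1 k) := by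
  have e0 : b0s b0 b1 ζ0 0 = b0 0 + ζ0 * b1 0 := rfl
  rw [e0] at g1
  rcases hk with rfl | rfl
  · simp only [shB1, b0s, b1s, Matrix.cons_val]
    field_simp
    ring
  · simp only [shB1, b0s, b1s, Matrix.cons_val]
    field_simp
    ring

/-- the shift of the tangent slopes, exactly -/
theorem slope_eq {ζ0 : ℝ} (g0 : b0 0 ≠ 0) (g1 : b0s b0 b1 ζ0 0 ≠ 0) {k : Fin 3}
    (hk : k = 1 ∨ k = 2) :
    b0s b0 b1 ζ0 k / b0s b0 b1 ζ0 0 - b0 k / b0 0 =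
      ζ0 * (1 / b0s b0 b1 ζ0 0 * shB1 b0 b1 k) := by
  have e0 : b0s b0 b1 ζ0 0 = b0 0 + ζ0 * b1 0 := rfl
  rw [e0] at g1
  rcases hk with rfl | rfl
  · simp only [shB1, b0s, Matrix.cons_val]
    field_simp
    ring
  · simp only [shB1, b0s, Matrix.cons_val]
    field_simp
    ring

theorem slope_sub (N : NrmC b0 b1 G) {ζ0 : ℝ} (h0 : 0 ≤ ζ0) (h1 : ζ0 ≤ 1) {k : Fin 3}
    (hk : k = 1 ∨ k = 2) :
    |b0s b0 b1 ζ0 k / b0s b0 b1 ζ0 0 - b0 k / b0 0| ≤ 2 * ζ0 * |shB1 b0 b1 k| := by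
  obtain ⟨g1, -⟩ := N.b1_le
  obtain ⟨d1, -⟩ := D_ge N h0 h1
  rw [slope_eq (by linarith) (by linarith) hk, abs_mul, abs_mul, abs_of_nonneg h0]
  have hDi : |1 / b0s b0 b1 ζ0 0| ≤ 2 := by
    rw [abs_of_pos (by positivity), div_le_iff₀ (by linarith)]; linarith
  have := mul_le_mul_of_nonneg_right hDi (abs_nonneg (shB1 b0 b1 k))
  nlinarith

/-- the slopes of the sub-cell are bounded -/
theorem slope_abs (N : NrmC b0 b1 G) {ζ0 : ℝ} (h0 : 0 ≤ ζ0) (h1 : ζ0 ≤ 1) {k : Fin 3}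
    (hk : k = 1 ∨ k = 2) : |b0s b0 b1 ζ0 k / b0s b0 b1 ζ0 0| ≤ 2 := by
  have N' := nrmC_mono (τ := 0) N h0 le_rfl (by linarith)
  obtain ⟨-, -, -, -, -, -, -, s1, s2⟩ := N'.b1_le
  rcases hk with rfl | rfl
  · exact s1
  · exact s2

theorem kap_comp (b0 b1 : V3) (G : QF) : |shB1 b0 b1 1| ≤ kap b0 b1 G ∧
    |shB1 b0 b1 2| ≤ kap b0 b1 G ∧ |(shG b0 G).uu| ≤ kap b0 b1 G ∧
    |(shG b0 G).uv| ≤ kap b0 b1 G ∧ |(shG b0 G).vv| ≤ kap b0 b1 G :=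
  ⟨(le_max_left _ _).trans (le_max_left _ _), (le_max_right _ _).trans (le_max_left _ _),
    (le_max_left _ _).trans ((le_max_left _ _).trans (le_max_right _ _)),
    (le_max_right _ _).trans ((le_max_left _ _).trans (le_max_right _ _)),
    (le_max_right _ _).trans (le_max_right _ _)⟩

/-- change of the second order part with the slopes -/
theorem shG_shift (b0 b0' : V3) (G : QF) {d1 d2 : ℝ} (h1 : b0' 1 / b0' 0 = b0 1 / b0 0 + d1)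
    (h2 : b0' 2 / b0' 0 = b0 2 / b0 0 + d2) :
    (shG b0' G).uu = (shG b0 G).uu - d1 * (shG b0 G).yu + d1 * d1 * G.yy ∧
    (shG b0' G).uv = (shG b0 G).uv - d2 * (shG b0 G).yu - d1 * (shG b0 G).yv +
      2 * (d1 * d2) * G.yy ∧
    (shG b0' G).vv = (shG b0 G).vv - d2 * (shG b0 G).yv + d2 * d2 * G.yy := by
  refine ⟨?_, ?_, ?_⟩
  · change G.uu - b0' 1 / b0' 0 * G.yu + (b0' 1 / b0' 0) ^ 2 * G.yy = _
    rw [h1]
    simp only [shG]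
    ring
  · change G.uv - b0' 2 / b0' 0 * G.yu - b0' 1 / b0' 0 * G.yv +
      2 * (b0' 1 / b0' 0 * (b0' 2 / b0' 0)) * G.yy = _
    rw [h1, h2]
    simp only [shG]
    ring
  · change G.vv - b0' 2 / b0' 0 * G.yv + (b0' 2 / b0' 0) ^ 2 * G.yy = _
    rw [h2]
    simp only [shG]
    ring

/-- bound of the second order part after a shift of the slopes `|d_k| ≤ m`, `|d_k| ≤ 4` -/
theorem shG_shift_le (b0 b0' : V3) {G : QF} {d1 d2 m κ : ℝ}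
    (h1 : b0' 1 / b0' 0 = b0 1 / b0 0 + d1) (h2 : b0' 2 / b0' 0 = b0 2 / b0 0 + d2)
    (hd1 : |d1| ≤ m) (hd2 : |d2| ≤ m) (hd1' : |d1| ≤ 4) (hd2' : |d2| ≤ 4)
    (hyu : |(shG b0 G).yu| ≤ 5) (hyv : |(shG b0 G).yv| ≤ 5) (hyy : |G.yy| ≤ 1)
    (huu : |(shG b0 G).uu| ≤ κ) (huv : |(shG b0 G).uv| ≤ κ) (hvv : |(shG b0 G).vv| ≤ κ) :
    |(shG b0' G).uu| ≤ κ + 9 * m ∧ |(shG b0' G).uv| ≤ κ + 18 * m ∧
      |(shG b0' G).vv| ≤ κ + 9 * m := by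
  obtain ⟨u1, u2, u3⟩ := shG_shift b0 b0' G h1 h2
  have hm : 0 ≤ m := (abs_nonneg _).trans hd1
  refine ⟨?_, ?_, ?_⟩
  · rw [u1]
    have t1 := mul_abs_le hd1 hyu
    have t2 := mul_abs_le (mul_abs_le hd1 hd1') hyy
    refine (Arc880.abs_add2 (Arc880.abs_sub2 huu t1) t2).trans ?_
    linarith
  · rw [u2]
    have t1 := mul_abs_le hd2 hyu
    have t2 := mul_abs_le hd1 hyv
    have t3 := mul_abs_le (mul_abs_le (show |(2 : ℝ)| ≤ 2 by norm_num)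
      (mul_abs_le hd1 hd2')) hyy
    refine (Arc880.abs_add2 (Arc880.abs_sub2 (Arc880.abs_sub2 huv t1) t2) t3).trans ?_
    linarith
  · rw [u3]
    have t1 := mul_abs_le hd2 hyv
    have t2 := mul_abs_le (mul_abs_le hd2 hd2') hyy
    refine (Arc880.abs_add2 (Arc880.abs_sub2 hvv t1) t2).trans ?_
    linarith

/-! ### the curvature extent -/

/-- **the extent of a sub-cell is at most that of the cell** -/
theorem kap_sub_le (N : NrmC b0 b1 G) {ζ0 τ : ℝ} (h0 : 0 ≤ ζ0) (h1 : 0 ≤ τ) (h2 : ζ0 + τ ≤ 1) :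
    kap (b0s b0 b1 ζ0) (b1s b1 τ) G ≤ 40 * kap b0 b1 G := by
  obtain ⟨k1, k2, k3, k4, k5⟩ := kap_comp b0 b1 G
  have hκ := kap_nonneg b0 b1 G
  obtain ⟨g1, g2, -, -, -, -, -, s1, s2⟩ := N.b1_le
  obtain ⟨-, -, j3, j4, -, -, -⟩ := N.sh_le
  obtain ⟨m1, -⟩ := N.G_le
  have hζ1 : ζ0 ≤ 1 := by linarith
  have hτ1 : τ ≤ 1 := by linarith
  obtain ⟨d1, d2⟩ := D_ge N h0 hζ1
  set κ := kap b0 b1 G with hκd
  have sl : ∀ k : Fin 3, k = 1 ∨ k = 2 → |shB1 b0 b1 k| ≤ κ →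
      |b0s b0 b1 ζ0 k / b0s b0 b1 ζ0 0 - b0 k / b0 0| ≤ 2 * κ := by
    intro k hk hb
    refine (slope_sub N h0 hζ1 hk).trans ?_
    have := abs_nonneg (shB1 b0 b1 k)
    nlinarith
  have rot : ∀ k : Fin 3, k = 1 ∨ k = 2 → |shB1 b0 b1 k| ≤ κ →
      |shB1 (b0s b0 b1 ζ0) (b1s b1 τ) k| ≤ 40 * κ := by
    intro k hk hb
    rw [shB1_sub (by linarith) (by linarith) hk]
    have hr : |τ| ≤ 1 := by rw [abs_of_nonneg h1]; exact hτ1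
    have hD : |b0 0 / b0s b0 b1 ζ0 0| ≤ 4 := by
      rw [abs_of_pos (by positivity), div_le_iff₀ (by linarith)]; linarith
    have := mul_abs_le hr (mul_abs_le hD hb)
    linarith
  have f4 : ∀ k : Fin 3, k = 1 ∨ k = 2 → |b0 k / b0 0| ≤ 2 →
      |b0s b0 b1 ζ0 k / b0s b0 b1 ζ0 0 - b0 k / b0 0| ≤ 4 := by
    intro k hk hb
    exact (Arc880.abs_sub2 (slope_abs N h0 hζ1 hk) hb).trans (by norm_num)
  obtain ⟨u1, u2, u3⟩ := shG_shift_le (G := G) b0 (b0s b0 b1 ζ0)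
    (d1 := b0s b0 b1 ζ0 1 / b0s b0 b1 ζ0 0 - b0 1 / b0 0)
    (d2 := b0s b0 b1 ζ0 2 / b0s b0 b1 ζ0 0 - b0 2 / b0 0) (m := 2 * κ) (κ := κ)
    (by ring) (by ring) (sl 1 (Or.inl rfl) k1) (sl 2 (Or.inr rfl) k2)
    (f4 1 (Or.inl rfl) s1) (f4 2 (Or.inr rfl) s2) j3 j4 m1 k3 k4 k5
  exact max_le (max_le (rot 1 (Or.inl rfl) k1) (rot 2 (Or.inr rfl) k2))
    (max_le (max_le (u1.trans (by linarith)) (u2.trans (by linarith))) (u3.trans (by linarith)))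

/-- **the extent of a sub-cell is at least `τ` times that of the cell** -/
theorem kap_le_sub (N : NrmC b0 b1 G) {ζ0 τ : ℝ} (h0 : 0 ≤ ζ0) (h1 : 0 ≤ τ) (h2 : ζ0 + τ ≤ 1) :
    τ * kap b0 b1 G ≤ 160 * kap (b0s b0 b1 ζ0) (b1s b1 τ) G := by
  obtain ⟨k1, k2, k3, k4, k5⟩ := kap_comp (b0s b0 b1 ζ0) (b1s b1 τ) G
  have hκ := kap_nonneg (b0s b0 b1 ζ0) (b1s b1 τ) G
  obtain ⟨g1, g2, -, -, -, -, -, s1, s2⟩ := N.b1_le
  have N' := nrmC_mono N h0 h1 h2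
  obtain ⟨-, -, j3, j4, -, -, -⟩ := N'.sh_le
  obtain ⟨m1, -⟩ := N.G_le
  have hζ1 : ζ0 ≤ 1 := by linarith
  have hτ1 : τ ≤ 1 := by linarith
  obtain ⟨d1, d2⟩ := D_ge N h0 hζ1
  set κ := kap (b0s b0 b1 ζ0) (b1s b1 τ) G with hκd
  rcases h1.eq_or_lt with h | hτ
  · rw [← h, zero_mul]; positivity
  -- rotation
  have rot : ∀ k : Fin 3, k = 1 ∨ k = 2 → |shB1 (b0s b0 b1 ζ0) (b1s b1 τ) k| ≤ κ →
      |shB1 b0 b1 k| ≤ 4 * κ / τ := by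
    intro k hk hb
    have e1 : shB1 b0 b1 k =
        b0s b0 b1 ζ0 0 / b0 0 * shB1 (b0s b0 b1 ζ0) (b1s b1 τ) k / τ := by
      rw [shB1_sub (by linarith) (by linarith) hk]
      have : b0 0 ≠ 0 := by linarith
      have : b0s b0 b1 ζ0 0 ≠ 0 := by linarith
      field_simp
    have hD : |b0s b0 b1 ζ0 0 / b0 0| ≤ 4 := by
      rw [abs_of_pos (by positivity), div_le_iff₀ (by linarith)]; linarith
    rw [e1, abs_div, abs_of_pos hτ]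
    exact div_le_div_of_nonneg_right (mul_abs_le hD hb) hτ.le
  have r1 := rot 1 (Or.inl rfl) k1
  have r2 := rot 2 (Or.inr rfl) k2
  have sl : ∀ k : Fin 3, k = 1 ∨ k = 2 → |shB1 b0 b1 k| ≤ 4 * κ / τ →
      |b0 k / b0 0 - b0s b0 b1 ζ0 k / b0s b0 b1 ζ0 0| ≤ 8 * κ / τ := by
    intro k hk hb
    rw [abs_sub_comm]
    refine (slope_sub N h0 hζ1 hk).trans ?_
    have := abs_nonneg (shB1 b0 b1 k)
    have e1 : 8 * κ / τ = 2 * (4 * κ / τ) := by ring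
    rw [e1]
    nlinarith
  have f4 : ∀ k : Fin 3, k = 1 ∨ k = 2 → |b0 k / b0 0| ≤ 2 →
      |b0 k / b0 0 - b0s b0 b1 ζ0 k / b0s b0 b1 ζ0 0| ≤ 4 := by
    intro k hk hb
    exact (Arc880.abs_sub2 hb (slope_abs N h0 hζ1 hk)).trans (by norm_num)
  obtain ⟨u1, u2, u3⟩ := shG_shift_le (G := G) (b0s b0 b1 ζ0) b0
    (d1 := b0 1 / b0 0 - b0s b0 b1 ζ0 1 / b0s b0 b1 ζ0 0)
    (d2 := b0 2 / b0 0 - b0s b0 b1 ζ0 2 / b0s b0 b1 ζ0 0) (m := 8 * κ / τ) (κ := κ)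
    (by ring) (by ring) (sl 1 (Or.inl rfl) r1) (sl 2 (Or.inr rfl) r2)
    (f4 1 (Or.inl rfl) s1) (f4 2 (Or.inr rfl) s2) j3 j4 m1 k3 k4 k5
  have c1 : κ ≤ κ / τ := by rw [le_div_iff₀ hτ]; nlinarith
  have c2 : 0 ≤ κ / τ := by positivity
  have e1 : 4 * κ / τ = 4 * (κ / τ) := by ring
  have e2 : 8 * κ / τ = 8 * (κ / τ) := by ring
  rw [e1] at r1 r2
  rw [e2] at u1 u2 u3
  have : kap b0 b1 G ≤ 160 * (κ / τ) :=
    max_le (max_le (by linarith) (by linarith))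
      (max_le (max_le (by linarith) (by linarith)) (by linarith))
  calc τ * kap b0 b1 G ≤ τ * (160 * (κ / τ)) := mul_le_mul_of_nonneg_left this h1
    _ = 160 * κ := by field_simp

/-! ### the fan -/

theorem slp_sub (b0 b1 : V3) (ζ0 τ ζ : ℝ) (k : Fin 3) :
    slp (b0s b0 b1 ζ0) (b1s b1 τ) k ζ = slp b0 b1 k (ζ0 + τ * ζ) := by
  simp only [slp, b0s, b1s]
  congr 1
  · ring
  · ring

/-- **the fan of the sub-cell** -/
theorem fan_sub (b0 b1 : V3) (G : QF) (ζ0 τ ζ : ℝ) (i j : Fin 3) :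
    fan (b0s b0 b1 ζ0) (b1s b1 τ) G ζ i j =
      (if i = 0 then τ else 1) * (if j = 0 then τ else 1) * fan b0 b1 G (ζ0 + τ * ζ) i j := by
  have e1 := slp_sub b0 b1 ζ0 τ ζ 1
  have e2 := slp_sub b0 b1 ζ0 τ ζ 2
  fin_cases i <;> fin_cases j <;>
    simp [fan, e1, e2, b1s] <;> ring

/-- **the determinant of the fan of the sub-cell** -/
theorem det3_sub (b0 b1 : V3) (G : QF) (ζ0 τ ζ : ℝ) :
    det3 (fan (b0s b0 b1 ζ0) (b1s b1 τ) G ζ) = τ ^ 2 * det3 (fan b0 b1 G (ζ0 + τ * ζ)) := by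
  unfold det3
  simp only [fan_sub]
  simp
  ring

/-- scaled fans, exactly -/
theorem det3_scaled_sub {κ κs ζ0 τ ζ : ℝ} (g0 : b0 0 ≠ 0) (g1 : b0 0 + ζ0 * b1 0 ≠ 0)
    (g2 : b0 0 + (ζ0 + τ * ζ) * b1 0 ≠ 0) (hκ : κ ≠ 0) (hκs : κs ≠ 0) :
    det3 (fan (shB0 (b0s b0 b1 ζ0)) (scB1 κs (b0s b0 b1 ζ0) (b1s b1 τ))
      (scG κs (b0s b0 b1 ζ0) G) ζ) = τ ^ 2 * (κ / κs) ^ 3 *
        det3 (fan (shB0 b0) (scB1 κ b0 b1) (scG κ b0 G) (ζ0 + τ * ζ)) := by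
  rw [det3_scaled (b0 := b0s b0 b1 ζ0) (b1 := b1s b1 τ) (by exact g1)
    (by
      have : b0s b0 b1 ζ0 0 + ζ * b1s b1 τ 0 = b0 0 + (ζ0 + τ * ζ) * b1 0 := by
        simp only [b0s, b1s]; ring
      rw [this]; exact g2) hκs, det3_scaled g0 g2 hκ, det3_sub]
  field_simp

/-- **non-degeneracy on a sub-cell** : scaled fans -/
theorem det3_scaled_ge (N : NrmC b0 b1 G) {ζ0 τ ζ : ℝ} (h0 : 0 ≤ ζ0) (h1 : 0 ≤ τ)
    (h2 : ζ0 + τ ≤ 1) (hζ : 0 ≤ ζ) (hζ' : ζ ≤ 1) (hκ : 0 < kap b0 b1 G)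
    (hκs : 0 < kap (b0s b0 b1 ζ0) (b1s b1 τ) G) :
    τ ^ 2 / 40 ^ 3 * |det3 (fan (shB0 b0) (scB1 (kap b0 b1 G) b0 b1) (scG (kap b0 b1 G) b0 G)
        (ζ0 + τ * ζ))| ≤
      |det3 (fan (shB0 (b0s b0 b1 ζ0))
        (scB1 (kap (b0s b0 b1 ζ0) (b1s b1 τ) G) (b0s b0 b1 ζ0) (b1s b1 τ))
        (scG (kap (b0s b0 b1 ζ0) (b1s b1 τ) G) (b0s b0 b1 ζ0) G) ζ)| := by
  obtain ⟨g1, -⟩ := N.b1_le
  have hζ1 : ζ0 ≤ 1 := by linarith
  obtain ⟨d1, -⟩ := D_ge N h0 hζ1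
  obtain ⟨d2, -⟩ := D_ge N (ζ0 := ζ0 + τ * ζ) (by positivity) (by nlinarith)
  have d1' : 1 / 2 ≤ b0 0 + ζ0 * b1 0 := d1
  have d2' : 1 / 2 ≤ b0 0 + (ζ0 + τ * ζ) * b1 0 := d2
  have hle := kap_sub_le N h0 h1 h2
  rw [det3_scaled_sub (b0 := b0) (b1 := b1) (G := G) (κ := kap b0 b1 G) (by linarith)
    (by linarith) (by linarith) hκ.ne' hκs.ne']
  set κ := kap b0 b1 G with hκd
  set κs := kap (b0s b0 b1 ζ0) (b1s b1 τ) G with hκsd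
  rw [abs_mul]
  refine mul_le_mul_of_nonneg_right ?_ (abs_nonneg _)
  rw [abs_mul, abs_of_nonneg (by positivity : 0 ≤ τ ^ 2), abs_of_pos (by positivity),
    div_eq_mul_inv]
  refine mul_le_mul_of_nonneg_left ?_ (by positivity)
  have h3 : (1 : ℝ) / 40 ≤ κ / κs := by
    rw [div_le_div_iff₀ (by norm_num) hκs]; linarith
  calc ((40 : ℝ) ^ 3)⁻¹ = (1 / 40) ^ 3 := by norm_num
    _ ≤ (κ / κs) ^ 3 := pow_le_pow_left₀ (by norm_num) h3 3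

/-- **non-degeneracy passes to the sub-cells** (`hnd` of `Tl102.cap`) -/
theorem nd_mono (N : NrmC b0 b1 G) {ζ0 τ κd : ℝ} (h0 : 0 ≤ ζ0) (h1 : 0 < τ)
    (h2 : ζ0 + τ ≤ 1) (hκ : 0 < kap b0 b1 G)
    (hnd : ∀ ζ, 0 ≤ ζ → ζ ≤ 1 →
      κd ≤ |det3 (fan (shB0 b0) (scB1 (kap b0 b1 G) b0 b1) (scG (kap b0 b1 G) b0 G) ζ)|) :
    0 < kap (b0s b0 b1 ζ0) (b1s b1 τ) G ∧ ∀ ζ, 0 ≤ ζ → ζ ≤ 1 →
      τ ^ 2 / 40 ^ 3 * κd ≤ |det3 (fan (shB0 (b0s b0 b1 ζ0))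
        (scB1 (kap (b0s b0 b1 ζ0) (b1s b1 τ) G) (b0s b0 b1 ζ0) (b1s b1 τ))
        (scG (kap (b0s b0 b1 ζ0) (b1s b1 τ) G) (b0s b0 b1 ζ0) G) ζ)| := by
  have hs : 0 < kap (b0s b0 b1 ζ0) (b1s b1 τ) G := by
    have := kap_le_sub N h0 h1.le h2
    have h3 : 0 < τ * kap b0 b1 G := mul_pos h1 hκ
    linarith
  refine ⟨hs, fun ζ hζ hζ' => ?_⟩
  refine le_trans ?_ (det3_scaled_ge N h0 h1.le h2 hζ hζ' hκ hs)
  exact mul_le_mul_of_nonneg_left (hnd _ (by positivity) (by nlinarith)) (by positivity)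

end Crest.Agent.R136.Cps605
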