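import Mathlib
import Crest.Agent.R136.Deep4_51

/-!
# R136 (U5 TILT): `tilt_stage`, deep count for curved sheets, finite form (helper51)
-/

set_option autoImplicit false
set_option linter.unusedVariables false

open Finset

namespace Crest.Agent.R136.Deep51

open Crest.Agent.R136.Sh605 Crest.Agent.R136.Sh321 Crest.Agent.R136.K4
open Crest.Agent.R138.Mk163 (zc zl rho alive own)

/-- the object `z` lies in the test sheet around the line of `o`, over the cell of level `l` -/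
def InTest (L : ℕ → Ln4) (S : Plk4) (A G G' : ℝ) (m l : ℕ) (o z : ℕ × ℤ) : Prop :=
  InSheet (L z.1) S.e (L o.1) (tw S.w A G G') S.q A (zl l (anc l m o.2)) (rho l)

open Classical in
/-- **capture bound** -/
theorem cap_count {L : ℕ → Ln4} {P : Finset (ℕ × ℤ)} {lu lv m2 m : ℕ} (h2 : lv ≤ m2) (h2m : m2 ≤ m)
    {fu fv : ℕ → ℤ → ℕ} {b : ℕ → Plk4} {N : ℕ} {r μ1 μ2 ν1 ν2 θ1 θ2 A G G' Dc r0 : ℝ}
    (hr : 0 < r0) (hrr : 0 < r) (q1 : 0 < μ1) (q2 : 0 < μ2) (q3 : 0 < ν1) (q4 : 0 < ν2) (hDc0 : 0 ≤ Dc)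
    (hin : ∀ o ∈ P, inv L lv m (mv lv m fv b o) o)
    (hS : ∀ o ∈ P, ShC (mv lv m fv b o).e (mv lv m fv b o).c (mv lv m fv b o).w (mv lv m fv b o).q
      (mv lv m fv b o).a (zl lv (anc lv m o.2)) (rho lv) r0)
    (hA : ∀ o ∈ P, (mv lv m fv b o).a ≤ A) (hG : 0 < G) (hGG : G' ≤ G)
    (c1 : ∀ o ∈ P, μ1 + 2 * θ1 * (rho m2 / r) ≤ G' / 8 * (mv lv m fv b o).w 1)
    (c2 : ∀ o ∈ P, μ2 + 2 * θ2 * (rho m2 / r) ≤ G / 8 * (mv lv m fv b o).w 2)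
    (hDc : ∀ o ∈ P, ((P.filter fun z => z.2 = o.2 ∧
      InTest L (mv lv m fv b o) A G G' m m2 o z).card : ℝ) ≤ Dc)
    {x : ℕ × ℤ} (hx : x ∈ P) (hgood : GoodO L P lu lv m fu fv b N r μ1 μ2 θ1 θ2 x) :
    ((P.filter fun y => (clQ lv m fv y = clQ lv m fv x ∧
      (y.2, lbl L m (mv lv m fv b y) μ1 μ2 ν1 ν2 y) =
        (x.2, lbl L m (mv lv m fv b x) μ1 μ2 ν1 ν2 x)) ∧
        clQ lu m fu y = clQ lu m fu x).card : ℝ) ≤ N * Dc := by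
  obtain ⟨V, hV⟩ := hgood
  set S := mv lv m fv b x with hSx
  set Q := P.filter fun y => (clQ lv m fv y = clQ lv m fv x ∧
      (y.2, lbl L m (mv lv m fv b y) μ1 μ2 ν1 ν2 y) =
        (x.2, lbl L m (mv lv m fv b x) μ1 μ2 ν1 ν2 x)) ∧
        clQ lu m fu y = clQ lu m fu x with hQ
  set pc : Fin N → Finset (ℕ × ℤ) := fun l => Q.filter fun y =>
    |dt (S.e 1) ((L y.1).v - V l)| * r ≤ θ1 ∧ |dt (S.e 2) ((L y.1).v - V l)| * r ≤ θ2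
    with hpc
  have hQP : ∀ y ∈ Q, y ∈ P ∧ y.2 = x.2 ∧ mv lv m fv b y = S ∧ clQ lv m fv y = clQ lv m fv x ∧
      clQ lu m fu y = clQ lu m fu x ∧ lbl L m S μ1 μ2 ν1 ν2 y = lbl L m S μ1 μ2 ν1 ν2 x := by
    intro y hy
    obtain ⟨k1, ⟨k2, k3⟩, k4⟩ := mem_filter.1 hy
    rw [Prod.mk.injEq] at k3
    have k5 := mv_eq (b := b) k2
    refine ⟨k1, k3.1, k5, k2, k4, ?_⟩
    have := k3.2
    rw [k5] at this
    exact this
  have hclose : ∀ y ∈ Q, ∀ y' ∈ Q,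
      |dt (S.e 1) ((L y.1).pos (zl m x.2) - (L y'.1).pos (zl m x.2))| ≤ μ1 ∧
      |dt (S.e 2) ((L y.1).pos (zl m x.2) - (L y'.1).pos (zl m x.2))| ≤ μ2 := by
    intro y hy y' hy'
    obtain ⟨k1, k2, k3, k4, k5, k6⟩ := hQP y hy
    obtain ⟨k1', k2', k3', k4', k5', k6'⟩ := hQP y' hy'
    have := k6.trans k6'.symm
    unfold lbl at this
    rw [k2, k2'] at this
    exact (lab4_close q1 q2 q3 q4 this).1
  have hcov : Q ⊆ univ.biUnion pc := by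
    intro y hy
    obtain ⟨k1, k2, k3, k4, k5, k6⟩ := hQP y hy
    have hxQ : x ∈ Q := mem_filter.2 ⟨hx, ⟨rfl, rfl⟩, rfl⟩
    obtain ⟨r1, r2⟩ := hclose y hy x hxQ
    obtain ⟨l, hl⟩ := hV y k1 k2 k4 k5 r1 r2
    exact mem_biUnion.2 ⟨l, mem_univ _, mem_filter.2 ⟨hy, hl⟩⟩
  have hpiece : ∀ l, ((pc l).card : ℝ) ≤ Dc := by
    intro l
    rcases (pc l).eq_empty_or_nonempty with h | ⟨y0, hy0⟩
    · rw [h]; simpa using hDc0
    obtain ⟨hy0Q, hy0v⟩ := mem_filter.1 hy0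
    obtain ⟨k1, k2, k3, k4, k5, k6⟩ := hQP y0 hy0Q
    refine le_trans ?_ (hDc y0 k1)
    norm_cast
    refine card_le_card fun y hy => ?_
    obtain ⟨hyQ, hyv⟩ := mem_filter.1 hy
    obtain ⟨k1', k2', k3', k4', k5', k6'⟩ := hQP y hyQ
    refine mem_filter.2 ⟨k1', k2'.trans k2.symm, ?_⟩
    show InSheet (L y.1) (mv lv m fv b y0).e (L y0.1) (tw (mv lv m fv b y0).w A G G')
      (mv lv m fv b y0).q A (zl m2 (anc m2 m y0.2)) (rho m2)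
    have hSy := hS y0 k1
    have hin0 := hin y0 k1
    have hiny := hin y k1'
    have c1' := c1 y0 k1
    have c2' := c2 y0 k1
    have hA' := hA y0 k1
    unfold inv at hin0 hiny
    rw [k3] at hSy hin0 c1' c2' hA'
    rw [k3'] at hiny
    rw [k2', ← k2] at hiny
    rw [k3]
    obtain ⟨s1, s2⟩ := anc_sub h2 (anc m2 m y0.2)
    rw [anc_anc h2 h2m] at s1 s2
    obtain ⟨t1, t2⟩ := anc_sub h2m y0.2
    obtain ⟨d1, d2⟩ := hclose y hyQ y0 hy0Q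
    rw [← k2] at d1 d2
    have hrm := rho_pos m
    have hr2 := rho_pos m2
    have hrv := rho_pos lv
    have mov : ∀ (k : Fin 3) (μ θ : ℝ),
        |dt (S.e k) ((L y.1).pos (zl m y0.2) - (L y0.1).pos (zl m y0.2))| ≤ μ →
        |dt (S.e k) ((L y.1).v - V l)| * r ≤ θ → |dt (S.e k) ((L y0.1).v - V l)| * r ≤ θ →
        ∀ z, zl m2 (anc m2 m y0.2) ≤ z → z ≤ zl m2 (anc m2 m y0.2) + rho m2 →
          |dt (S.e k) ((L y.1).pos z - (L y0.1).pos z)| ≤ μ + 2 * θ * (rho m2 / r) := by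
      intro k μ θ g1 g2 g3 z g4 g5
      have g6 := dt_tri (S.e k) (L y.1).v (L y0.1).v (V l)
      rw [dt_swap (S.e k) (V l) (L y0.1).v] at g6
      have g7 : |dt (S.e k) ((L y.1).v - (L y0.1).v)| * rho m2 ≤ 2 * θ * (rho m2 / r) := by
        have g8 : |dt (S.e k) ((L y.1).v - (L y0.1).v)| * r ≤ 2 * θ := by nlinarith
        have e : |dt (S.e k) ((L y.1).v - (L y0.1).v)| * rho m2 =
            (|dt (S.e k) ((L y.1).v - (L y0.1).v)| * r) * (rho m2 / r) := by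
          field_simp
        rw [e]
        exact mul_le_mul_of_nonneg_right g8 (by positivity)
      refine abs_dt_move g1 g7 ?_
      rw [abs_le]; constructor <;> linarith
    refine mem_test hr hSy hin0 hiny hA' hG hGG s1 s2 (fun z g1 g2 => ?_) (fun z g1 g2 => ?_)
    · exact (mov 1 μ1 θ1 d1 hyv.1 hy0v.1 z g1 g2).trans c1'
    · exact (mov 2 μ2 θ2 d2 hyv.2 hy0v.2 z g1 g2).trans c2'
  calc (Q.card : ℝ) ≤ ((univ.biUnion pc).card : ℝ) := by exact_mod_cast card_le_card hcov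
    _ ≤ ∑ l, ((pc l).card : ℝ) := by exact_mod_cast card_biUnion_le
    _ ≤ ∑ l : Fin N, Dc := sum_le_sum fun l _ => hpiece l
    _ = N * Dc := by rw [sum_const, nsmul_eq_mul, card_univ, Fintype.card_fin]

open Classical in
/-- **hull bound** -/
theorem hull_count {L : ℕ → Ln4} {P : Finset (ℕ × ℤ)} {lu lv m : ℕ} (h2' : lu ≤ m) (h2 : lv ≤ m)
    {fu fv : ℕ → ℤ → ℕ} {b b' : ℕ → Plk4} {μ1 μ2 ν1 ν2 δ γ A G G' Dh r0 : ℝ}
    (hr : 0 < r0) (q1 : 0 < μ1) (q2 : 0 < μ2) (q3 : 0 < ν1) (q4 : 0 < ν2)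
    (n1 : ν1 * rho m ≤ μ1) (n2 : ν2 * rho m ≤ μ2)
    (hin : ∀ o ∈ P, inv L lv m (mv lv m fv b o) o)
    (hin' : ∀ o ∈ P, inv L lu m (mv lu m fu b' o) o)
    (hS : ∀ o ∈ P, ShC (mv lv m fv b o).e (mv lv m fv b o).c (mv lv m fv b o).w (mv lv m fv b o).q
      (mv lv m fv b o).a (zl lv (anc lv m o.2)) (rho lv) r0)
    (hS' : ∀ o ∈ P, ShC (mv lu m fu b' o).e (mv lu m fu b' o).c (mv lu m fu b' o).w
      (mv lu m fu b' o).q (mv lu m fu b' o).a (zl lu (anc lu m o.2)) (rho lu) r0)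
    (hA : ∀ o ∈ P, (mv lv m fv b o).a ≤ A) (hG : 0 < G) (hG1 : G ≤ 1 / 2) (hGG : G' ≤ G)
    (hδ : ∀ o ∈ P, 2 * (2 * (mv lu m fu b' o).a +
      (mv lu m fu b' o).w 0 / (mv lu m fu b' o).w 1 * (2 * μ1) +
      (mv lu m fu b' o).w 0 / (mv lu m fu b' o).w 2 * (2 * μ2)) ≤ δ)
    (hγ : ∀ o ∈ P, |dt ((mv lv m fv b o).e 1) ((mv lu m fu b' o).e 2)| ≤ γ)
    (hγ' : ∀ o ∈ P, |dt ((mv lv m fv b o).e 2) ((mv lu m fu b' o).e 1)| ≤ γ)
    (b1 : ∀ o ∈ P, 2 * (2 * μ1) + δ + γ * (2 * μ2) ≤ G' / 8 * (mv lv m fv b o).w 1)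
    (b2 : ∀ o ∈ P, 2 * (2 * μ2) + δ + γ * (2 * μ1) ≤ G / 8 * (mv lv m fv b o).w 2)
    (hc : ∀ o ∈ P, CoinC (mv lv m fv b o).e (mv lv m fv b o).w (mv lv m fv b o).q
      (mv lu m fu b' o).e (mv lu m fu b' o).c (mv lu m fu b' o).w (mv lu m fu b' o).q
      (mv lu m fu b' o).a A
      (2 * μ1) (2 * μ2) (L o.1) (zl m o.2) (rho m))
    (hDh : ∀ o ∈ P, ((P.filter fun z => z.2 = o.2 ∧
      InTest L (mv lv m fv b o) A G G' m m o z).card : ℝ) ≤ Dh)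
    {x : ℕ × ℤ} (hx : x ∈ P) :
    ((P.filter fun z => ∃ y ∈ P, (clQ lv m fv y = clQ lv m fv x ∧
      (y.2, lbl L m (mv lv m fv b y) μ1 μ2 ν1 ν2 y) =
        (x.2, lbl L m (mv lv m fv b x) μ1 μ2 ν1 ν2 x)) ∧
        clQ lu m fu z = clQ lu m fu y ∧
        (z.2, lbl L m (mv lu m fu b' z) μ1 μ2 ν1 ν2 z) =
        (y.2, lbl L m (mv lu m fu b' y) μ1 μ2 ν1 ν2 y)).card : ℝ) ≤ Dh := by
  refine le_trans ?_ (hDh x hx)
  norm_cast
  refine card_le_card fun z hz => ?_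
  obtain ⟨hzP, y, hyP, ⟨k1, k2⟩, k3, k4⟩ := mem_filter.1 hz
  rw [Prod.mk.injEq] at k2 k4
  have hzx : z.2 = x.2 := k4.1.trans k2.1
  refine mem_filter.2 ⟨hzP, hzx, ?_⟩
  have ey := mv_eq (b := b) k1
  have ez := mv_eq (b := b') k3
  have l1 := k2.2
  have l2 := k4.2
  rw [ey] at l1
  rw [ez] at l2
  unfold lbl at l1 l2
  rw [k2.1] at l1
  rw [k4.1] at l2
  have g1 := lab4_close q1 q2 q3 q4 l1
  have g2 := lab4_close q1 q2 q3 q4 l2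
  unfold InTest
  rw [anc_self]
  set S := mv lv m fv b x with hSd
  set S' := mv lu m fu b' y with hSd'
  have hrm := rho_pos m
  have a1 := hS x hx
  have a2 := hS' y hyP
  have a3 := hin x hx
  have a4 := hin y hyP
  have a5 := hin' y hyP
  have a6 := hin' z hzP
  unfold inv at a3 a4 a5 a6
  rw [ey, k2.1] at a4
  rw [k2.1] at a2 a5
  rw [ez, hzx] at a6
  obtain ⟨s1, s2⟩ := anc_sub h2 x.2
  obtain ⟨t1, t2⟩ := anc_sub h2' x.2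
  have mov : ∀ (v : V3) (t t' : Ln4) (μ ν : ℝ), |dt v (t.pos (zl m x.2) - t'.pos (zl m x.2))| ≤ μ →
      |dt v (t.v - t'.v)| ≤ ν → ν * rho m ≤ μ → ∀ z, zl m x.2 ≤ z → z ≤ zl m x.2 + rho m →
        |dt v (t.pos z - t'.pos z)| ≤ 2 * μ := by
    intro v t t' μ ν r1 r2 r3 z r4 r5
    have r6 : |dt v (t.v - t'.v)| * rho m ≤ μ :=
      (mul_le_mul_of_nonneg_right r2 hrm.le).trans r3
    have := abs_dt_move r1 r6 (z := z) (by rw [abs_le]; constructor <;> linarith)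
    linarith
  have b1' := b1 x hx
  have b2' := b2 x hx
  have hc' := hc y hyP
  have hγx := hγ y hyP
  have hγx' := hγ' y hyP
  rw [ey] at hc' hγx hγx'
  rw [k2.1] at hc'
  rw [k2.1] at g2
  exact hull_mem hr a1 hr a2 a3 a4 a5 a6 s1 s2 t1 t2
    (mov _ _ _ _ _ g1.1.1 g1.2.1 n1) (mov _ _ _ _ _ g1.1.2 g1.2.2 n2)
    (mov _ _ _ _ _ g2.1.1 g2.2.1 n1) (mov _ _ _ _ _ g2.1.2 g2.2.2 n2)
    hc' (hδ y hyP) hγx hγx' b1' b2' (hA x hx) hG hG1 hGG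

open Classical in
/-- few uncaptured objects -/
theorem bad_count {L : ℕ → Ln4} {P : Finset (ℕ × ℤ)} {lu lv lf m : ℕ} (h2 : lf ≤ m)
    {fu fv : ℕ → ℤ → ℕ} {b : ℕ → Plk4} {N : ℕ} {r μ1 μ2 θ1 θ2 θ X : ℝ} (hX : 0 ≤ X) (hθ : 0 ≤ θ)
    (hXθ : 8 * X * (2 * θ * 2 ^ (m - lf) + 1) ≤ 2 ^ (m - lf))
    (hfib : ∀ o ∈ P, (2:ℝ) ^ (m - lf) ≤ X * ((P.filter fun y => y.1 = o.1 ∧
      anc lf m y.2 = anc lf m o.2).card : ℝ))
    (hcap : ∀ o ∈ P, ∃ s : Fin 2 → ℝ, ∀ y ∈ P, y.1 = o.1 → anc lf m y.2 = anc lf m o.2 →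
      (∀ i, θ * rho lf ≤ |zl m y.2 - s i|) → GoodO L P lu lv m fu fv b N r μ1 μ2 θ1 θ2 y) :
    ((P.filter (BadO L P lu lv m fu fv b N r μ1 μ2 θ1 θ2)).card : ℝ) * 4 ≤
      (P.card : ℝ) := by
  refine card_badP (lv := lf) (m := m) _ fun o ho => ?_
  obtain ⟨s, hs⟩ := hcap o ho
  set F := P.filter fun y => y.1 = o.1 ∧ anc lf m y.2 = anc lf m o.2 with hF
  set B := P.filter fun y => y.1 = o.1 ∧ anc lf m y.2 = anc lf m o.2 ∧
    BadO L P lu lv m fu fv b N r μ1 μ2 θ1 θ2 y with hB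
  have hBp : ∀ y ∈ B, y.1 = o.1 ∧ ∃ i, |zl m y.2 - s i| ≤ θ * rho lf := by
    intro y hy
    obtain ⟨k1, k2, k3, k4⟩ := mem_filter.1 hy
    refine ⟨k2, ?_⟩
    by_contra hcon
    push Not at hcon
    exact k4 (hs y k1 k2 k3 fun i => (hcon i).le)
  have hcov : B ⊆ univ.biUnion fun i : Fin 2 => B.filter fun y => |zl m y.2 - s i| ≤ θ * rho lf := by
    intro y hy
    obtain ⟨i, hi⟩ := (hBp y hy).2
    exact mem_biUnion.2 ⟨i, mem_univ _, mem_filter.2 ⟨hy, hi⟩⟩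
  have hpiece : ∀ i : Fin 2, ((B.filter fun y => |zl m y.2 - s i| ≤ θ * rho lf).card : ℝ) ≤
      2 * θ * 2 ^ (m - lf) + 1 := by
    intro i
    have e : (B.filter fun y => |zl m y.2 - s i| ≤ θ * rho lf).card =
        ((B.filter fun y => |zl m y.2 - s i| ≤ θ * rho lf).image Prod.snd).card := by
      refine (card_image_of_injOn fun y hy y' hy' hyy => ?_).symm
      have r1 := (hBp y (mem_filter.1 (Finset.mem_coe.1 hy)).1).1
      have r2 := (hBp y' (mem_filter.1 (Finset.mem_coe.1 hy')).1).1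
      exact Prod.ext (r1.trans r2.symm) hyy
    rw [e]
    refine (card_near (m := m) _ (s i) (θ * rho lf) (mul_nonneg hθ (rho_pos lf).le) ?_).trans ?_
    · intro j hj
      obtain ⟨y, hy, rfl⟩ := mem_image.1 hj
      exact (mem_filter.1 hy).2
    · have e2 : (2:ℝ) ^ m = 2 ^ (m - lf) * 2 ^ lf := by rw [← pow_add]; congr 1; omega
      have e3 : θ * rho lf * 2 ^ m = θ * 2 ^ (m - lf) := by
        rw [e2]; unfold rho; field_simp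
      rw [e3]; linarith
  have hBc : (B.card : ℝ) ≤ 2 * (2 * θ * 2 ^ (m - lf) + 1) := by
    calc (B.card : ℝ) ≤ ((univ.biUnion fun i : Fin 2 =>
          B.filter fun y => |zl m y.2 - s i| ≤ θ * rho lf).card : ℝ) := by
          exact_mod_cast card_le_card hcov
      _ ≤ ∑ i : Fin 2, ((B.filter fun y => |zl m y.2 - s i| ≤ θ * rho lf).card : ℝ) := by
          exact_mod_cast card_biUnion_le
      _ ≤ ∑ i : Fin 2, (2 * θ * 2 ^ (m - lf) + 1) := sum_le_sum fun i _ => hpiece i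
      _ = _ := by rw [Fin.sum_univ_two]; ring
  have hFc := hfib o ho
  have hX0 : 0 < X := by
    rcases hX.lt_or_eq with h | h
    · exact h
    · rw [← h, zero_mul] at hFc
      have : (0:ℝ) < 2 ^ (m - lf) := by positivity
      linarith
  have k1 : X * ((B.card : ℝ) * 4) ≤ X * (F.card : ℝ) := by
    refine le_trans ?_ hFc
    refine le_trans ?_ hXθ
    nlinarith
  exact le_of_mul_le_mul_left k1 hX0

open Classical in
/-- **`tilt_stage`** : the deep count for two class systems of curved sheets with explicit deficits,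
on an arbitrary set `P` of objects (line, cell of level `m`). -/
theorem tilt_stage {L : ℕ → Ln4} {P : Finset (ℕ × ℤ)} {lu lv lf m2 m : ℕ} (hne : P.Nonempty)
    (huf : lu ≤ lf) (hvf : lv ≤ lf) (h2 : lf ≤ m2) (h2m : m2 ≤ m)
    {fu fv : ℕ → ℤ → ℕ} {b b' : ℕ → Plk4} {N : ℕ}
    {μ1 μ2 ν1 ν2 θ1 θ2 θ δ γ A G G' W1 W2 X M1 M2 Dc Dh r0 : ℝ}
    (hr : 0 < r0) (q1 : 0 < μ1) (q2 : 0 < μ2) (q3 : 0 < ν1) (q4 : 0 < ν2)
    (n1 : ν1 * rho m ≤ μ1) (n2 : ν2 * rho m ≤ μ2) (hX : 0 ≤ X) (hθ : 0 ≤ θ)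
    (hDc0 : 0 ≤ Dc) (hM2 : 0 ≤ M2) (hW1 : 0 ≤ W1) (hW2 : 0 ≤ W2)
    -- sheets
    (hin : ∀ o ∈ P, inv L lv m (mv lv m fv b o) o)
    (hin' : ∀ o ∈ P, inv L lu m (mv lu m fu b' o) o)
    (hS : ∀ o ∈ P, ShC (mv lv m fv b o).e (mv lv m fv b o).c (mv lv m fv b o).w (mv lv m fv b o).q
      (mv lv m fv b o).a (zl lv (anc lv m o.2)) (rho lv) r0)
    (hS' : ∀ o ∈ P, ShC (mv lu m fu b' o).e (mv lu m fu b' o).c (mv lu m fu b' o).w
      (mv lu m fu b' o).q (mv lu m fu b' o).a (zl lu (anc lu m o.2)) (rho lu) r0)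
    (hw1 : ∀ o ∈ P, (mv lv m fv b o).w 1 ≤ W1) (hw2 : ∀ o ∈ P, (mv lv m fv b o).w 2 ≤ W2)
    (hw1' : ∀ o ∈ P, (mv lu m fu b' o).w 1 ≤ W1) (hw2' : ∀ o ∈ P, (mv lu m fu b' o).w 2 ≤ W2)
    (hA : ∀ o ∈ P, (mv lv m fv b o).a ≤ A) (hG : 0 < G) (hG1 : G ≤ 1 / 2) (hGG : G' ≤ G)
    -- numbers
    (hMc1 : ∀ x ∈ P, M1 ≤ ((P.filter fun y => clQ lv m fv y = clQ lv m fv x).card : ℝ))
    (hMc2 : ∀ x ∈ P, M2 ≤ ((P.filter fun y => clQ lu m fu y = clQ lu m fu x).card : ℝ))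
    (hfib : ∀ o ∈ P, (2:ℝ) ^ (m - lf) ≤ X * ((P.filter fun y => y.1 = o.1 ∧
      anc lf m y.2 = anc lf m o.2).card : ℝ))
    (hXθ : 8 * X * (2 * θ * 2 ^ (m - lf) + 1) ≤ 2 ^ (m - lf))
    -- capture
    (c1 : ∀ o ∈ P, μ1 + 2 * θ1 * (rho m2 / rho lf) ≤ G' / 8 * (mv lv m fv b o).w 1)
    (c2 : ∀ o ∈ P, μ2 + 2 * θ2 * (rho m2 / rho lf) ≤ G / 8 * (mv lv m fv b o).w 2)
    (hcap : ∀ o ∈ P, ∃ s : Fin 2 → ℝ, ∀ y ∈ P, y.1 = o.1 → anc lf m y.2 = anc lf m o.2 →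
      (∀ i, θ * rho lf ≤ |zl m y.2 - s i|) →
        GoodO L P lu lv m fu fv b N (rho lf) μ1 μ2 θ1 θ2 y)
    (hDc : ∀ o ∈ P, ((P.filter fun z => z.2 = o.2 ∧
      InTest L (mv lv m fv b o) A G G' m m2 o z).card : ℝ) ≤ Dc)
    -- hull
    (hδ : ∀ o ∈ P, 2 * (2 * (mv lu m fu b' o).a +
      (mv lu m fu b' o).w 0 / (mv lu m fu b' o).w 1 * (2 * μ1) +
      (mv lu m fu b' o).w 0 / (mv lu m fu b' o).w 2 * (2 * μ2)) ≤ δ)
    (hγ : ∀ o ∈ P, |dt ((mv lv m fv b o).e 1) ((mv lu m fu b' o).e 2)| ≤ γ)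
    (hγ' : ∀ o ∈ P, |dt ((mv lv m fv b o).e 2) ((mv lu m fu b' o).e 1)| ≤ γ)
    (b1 : ∀ o ∈ P, 2 * (2 * μ1) + δ + γ * (2 * μ2) ≤ G' / 8 * (mv lv m fv b o).w 1)
    (b2 : ∀ o ∈ P, 2 * (2 * μ2) + δ + γ * (2 * μ1) ≤ G / 8 * (mv lv m fv b o).w 2)
    (hc : ∀ o ∈ P, CoinC (mv lv m fv b o).e (mv lv m fv b o).w (mv lv m fv b o).q
      (mv lu m fu b' o).e (mv lu m fu b' o).c (mv lu m fu b' o).w (mv lu m fu b' o).q
      (mv lu m fu b' o).a A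
      (2 * μ1) (2 * μ2) (L o.1) (zl m o.2) (rho m))
    (hDh : ∀ o ∈ P, ((P.filter fun z => z.2 = o.2 ∧
      InTest L (mv lv m fv b o) A G G' m m o z).card : ℝ) ≤ Dh) :
    M1 * M2 ≤ 16 * (2 ^ (m - lv) * nlab W1 W2 (rho lf) μ1 μ2 ν1 ν2) *
      (2 ^ (m - lu) * nlab W1 W2 (rho lf) μ1 μ2 ν1 ν2) * (N * Dc) * Dh := by
  have hn : 0 < nlab W1 W2 (rho lf) μ1 μ2 ν1 ν2 := by
    have := rho_pos lf
    unfold nlab; positivity
  refine deep_count P (P.filter (BadO L P lu lv m fu fv b N (rho lf) μ1 μ2 θ1 θ2))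
    (clQ lv m fv) (fun o => (o.2, lbl L m (mv lv m fv b o) μ1 μ2 ν1 ν2 o))
    (clQ lu m fu) (fun o => (o.2, lbl L m (mv lu m fu b' o) μ1 μ2 ν1 ν2 o))
    (by positivity) (by positivity) (by positivity) hM2 hne
    (bad_count (h2.trans h2m) hX hθ hXθ hfib hcap) hMc1 ?_ hMc2 ?_ ?_ ?_
  · intro x _
    refine card_boxesP (P := P) (lv := lv) (m := m) fv
      (fun o => lbl L m (mv lv m fv b o) μ1 μ2 ν1 ν2 o) hn.le _ fun j => ?_
    exact card_lbl (hvf.trans (h2.trans h2m)) hvf q1 q2 q3 q4 hW1 hW2 hin hw1 hw2 _ j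
  · intro x _
    refine card_boxesP (P := P) (lv := lu) (m := m) fu
      (fun o => lbl L m (mv lu m fu b' o) μ1 μ2 ν1 ν2 o) hn.le _ fun j => ?_
    exact card_lbl (huf.trans (h2.trans h2m)) huf q1 q2 q3 q4 hW1 hW2 hin' hw1' hw2' _ j
  · intro x hx hxB
    have hgood : GoodO L P lu lv m fu fv b N (rho lf) μ1 μ2 θ1 θ2 x := by
      by_contra hcon
      exact hxB (mem_filter.2 ⟨hx, hcon⟩)
    exact cap_count (fu := fu) (hvf.trans h2) h2m hr (rho_pos lf) q1 q2 q3 q4 hDc0 hin hS hA hG hGG c1 c2 hDc hx hgood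
  · intro x hx
    exact hull_count (huf.trans (h2.trans h2m)) (hvf.trans (h2.trans h2m)) hr q1 q2 q3 q4 n1 n2 hin hin' hS hS' hA hG hG1 hGG hδ
      hγ hγ' b1 b2 hc hDh hx

end Crest.Agent.R136.Deep51
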