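import Mathlib
import Crest.Agent.R136.TopD_484

/-!
# R136 (U5 TILT), literals (helper51)

Seams of the tilt lemma for curved sheets (class C*): `Coin` (coincidence of two sheets on a small box),
`Close` (one sheet inside the other one, fattened), `Cap` (capture), `NonDeg` ((3.0)), `Mid` (both
sheets nearly flat compared with the discrepancy), `TiltOK`, `Tilt4`.
-/

set_option autoImplicit false
set_option linter.unusedVariables false

open Finset Filter Topology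

namespace Crest.Agent.R136.Tlt51

open Crest.Agent.R138.Ex926 (Base U)
open Crest.Agent.R138.Dp76 (Dense)
open Crest.Agent.R138.Mk163 (zc zl rho alive own Negl)
open Crest.Agent.R136.MkA627 Crest.Agent.R136.Sh605 Crest.Agent.R136.K4 Crest.Agent.R136.Top484

noncomputable section

/-- sine of the angle between the axes of the two cigars (maximum norm) -/
def ang (e e' : Fin 3 → V3) : ℝ := max |dt (e 0) (e' 1)| |dt (e 2) (e' 1)|

/-- half-widths of the small box: `s w₂` across, `(s / lam) w₁` along the cigar -/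
def sbox (s lam : ℝ) (w : V3) : V3 := ![s * w 0, s / lam * w 1, s * w 2]

/-- **coincidence at the relative scale `s`**: near the line `T` the sheet `S'` is contained in the
`K`-fattened sheet `S`. -/
def Coin (K s lam : ℝ) (S S' : Plk4) (T : Ln4) (z0 ρ : ℝ) : Prop :=
  ∀ z, z0 ≤ z → z ≤ z0 + ρ → ∀ x : V3, InK S.e T (sbox s lam S.w) z x →
    |S'.q z x| ≤ S'.a → |S.q z x| ≤ K * S.a

/-- **closeness on the whole base box around the line `T`**: `S` is contained in the sheet `S'`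
fattened to `E`. -/
def Close (E : ℝ) (S S' : Plk4) (T : Ln4) (z0 ρ : ℝ) : Prop :=
  ∀ z, z0 ≤ z → z ≤ z0 + ρ → ∀ x : V3, InK S.e T (fun i => S.w i / 8) z x →
    |S.q z x| ≤ S.a → |S'.q z x| ≤ E

/-- `S` is a C*-sheet over `[z0, z0 + ρ]` at resolution `r` -/
def Shp (S : Plk4) (z0 ρ r : ℝ) : Prop := ShN S.e S.c S.w S.q S.a z0 ρ r

/-- the line `t` lies in `S` over `[z0, z0 + ρ]` -/
def InP (t : Ln4) (S : Plk4) (z0 ρ : ℝ) : Prop := InSheet t S.e S.c S.w S.q S.a z0 ρ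

/-- the two sheets have comparable dimensions and cigars up to `1 / θ` -/
structure Comp (θ : ℝ) (S S' : Plk4) : Prop where
  w : ∀ i, θ * S.w i ≤ S'.w i ∧ θ * S'.w i ≤ S.w i
  a : θ * S.a ≤ S'.a ∧ θ * S'.a ≤ S.a
  g : θ * (ang S.e S'.e * S.w 1) ≤ S.w 2

/-- **[CAP]** capture.  `kap S z0 ρ T` = curvature extent (length), `Det δ S z0 ρ T` = nondegeneracy
of the sheet along its line `T`.  `S` over `[z0, z0+ρ]`, `S'` over the longer cell `[z0', z0'+ρ']`. If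
one of the two sheets is curved (extent `≥ θ^-C1 a`) and nondegenerate (`Det θ`) and the sheets do
not coincide to scale `θ^C1` or are not close to `θ^-C1 a`, then of three heights, `θ ρ`-separated,
one has its captured lines in `N` balls of radius `θ` (velocities, normalised coordinates). -/
def Cap (kap : Plk4 → ℝ → ℝ → Ln4 → ℝ) (Det : ℝ → Plk4 → ℝ → ℝ → Ln4 → Prop) : Prop :=
  ∃ C1 : ℝ, 1 ≤ C1 ∧ ∃ N : ℕ, ∀ (θ lam K : ℝ) (S S' : Plk4) (T : Ln4) (z0 ρ z0' ρ' r r' : ℝ),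
    0 < θ → θ ≤ 1 / 2 → 1 ≤ lam → lam * θ ≤ 1 → 64 ≤ K → 0 < r → 0 < r' → 0 < ρ →
    z0' ≤ z0 → z0 + ρ ≤ z0' + ρ' → θ * ρ' ≤ ρ →
    Shp S z0 ρ r → Shp S' z0' ρ' r' → Comp θ S S' → InP T S z0 ρ → InP T S' z0' ρ' →
    ((θ ^ (-C1) * S.a ≤ kap S z0 ρ T ∧ Det θ S z0 ρ T) ∨
      (θ ^ (-C1) * S'.a ≤ kap S' z0' ρ' T ∧ Det θ S' z0' ρ' T)) →
    ¬ (Coin K (θ ^ C1) lam S S' T z0 ρ ∧ Close (θ ^ (-C1) * S.a) S S' T z0 ρ) →
    ∀ ζ : Fin 3 → ℝ, (∀ i, z0 ≤ ζ i ∧ ζ i ≤ z0 + ρ) → (∀ i j, i ≠ j → θ * ρ ≤ |ζ i - ζ j|) →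
      ∃ i, ∃ V : Fin N → V3, ∀ t : Ln4, InP t S z0 ρ → InP t S' z0' ρ' →
        InK S.e T (fun k => θ ^ C1 * S.w k) (ζ i) (t.pos (ζ i)) →
          ∃ l, |dt (S.e 1) (t.v - V l)| * ρ ≤ θ * S.w 1 ∧ |dt (S.e 2) (t.v - V l)| * ρ ≤ θ * S.w 2

/-- mark of the incidence `x` at level `v` -/
def mk4 (D : Dat4) (n : ℕ) (v : ℚ) (x : ℕ × ℝ) : Plk4 :=
  D.b n v (D.f n v x.1 (zc (D.lev n v) x.2))

/-- left end of the cell of level `v` of the incidence `x` -/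
def zx (D : Dat4) (n : ℕ) (v : ℚ) (x : ℕ × ℝ) : ℝ := zl (D.lev n v) (zc (D.lev n v) x.2)

/-- length of the cells of level `v` -/
def rh (D : Dat4) (n : ℕ) (v : ℚ) : ℝ := rho (D.lev n v)

/-- **(3.0)**: near-maximal sheets are flat or nondegenerate, every level -/
def NonDeg (kap : Plk4 → ℝ → ℝ → Ln4 → ℝ) (Det : ℝ → Plk4 → ℝ → ℝ → Ln4 → Prop) : Prop :=
  ∃ η : ℝ, 0 < η ∧ ∀ (p : Par4) (D : Dat4), J1 η p D → ∀ v : ℚ, 0 ≤ v → v ≤ 1 →
    ∀ ε : ℝ, 0 < ε → Negl D.B D.I fun n x =>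
      D.B.d n ^ (-ε) * (mk4 D n v x).a < kap (mk4 D n v x) (zx D n v x) (rh D n v) (D.L n x.1) ∧
        ¬ Det (D.B.d n ^ ε) (mk4 D n v x) (zx D n v x) (rh D n v) (D.L n x.1)

/-- **[MID]** (iii) of the assembly: base tilt and both curvature extents are small powers of the
discrepancy `1 / s` (contains (flat, flat)). `c = K √(q₂ / q₁)`. -/
def Mid (kap : Plk4 → ℝ → ℝ → Ln4 → ℝ) : Prop :=
  ∀ K : ℝ, 1 ≤ K → ∃ η : ℝ, 0 < η ∧ ∀ (p : Par4) (D : Dat4), J1 η p D → ∃ C : ℝ, 0 ≤ C ∧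
    ∀ u v : ℚ, 0 ≤ u → u < v → v ≤ 1 → ∀ ε : ℝ, 0 < ε → Negl D.B D.I fun n x =>
      ∃ s lam : ℝ, 0 < s ∧ s ≤ D.B.d n ^ (C * ((v : ℝ) - u) + ε) ∧ 1 ≤ lam ∧
        lam ≤ s ^ (-(K * Real.sqrt (p.q 2 / p.q 1))) ∧
        ang (mk4 D n v x).e (mk4 D n u x).e * (mk4 D n v x).w 1 ≤ lam * (mk4 D n v x).w 2 ∧
        ¬ (Coin 64 s lam (mk4 D n v x) (mk4 D n u x) (D.L n x.1) (zx D n v x) (rh D n v) ∧
          Close ((mk4 D n v x).a / s) (mk4 D n v x) (mk4 D n u x) (D.L n x.1) (zx D n v x)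
            (rh D n v)) ∧
        kap (mk4 D n v x) (zx D n v x) (rh D n v) (D.L n x.1) ≤
          s ^ (-(K * Real.sqrt (p.q 2 / p.q 1))) * (mk4 D n v x).a ∧
        kap (mk4 D n u x) (zx D n u x) (rh D n u) (D.L n x.1) ≤
          s ^ (-(K * Real.sqrt (p.q 2 / p.q 1))) * (mk4 D n u x).a

/-- the marks of the levels `u < v` of the incidence `x` agree up to `E` -/
def TiltOK (D : Dat4) (E : ℝ) (u v : ℚ) (n : ℕ) (x : ℕ × ℝ) : Prop :=
  Close (E * max (D.w 0 n u) (D.w 0 n v)) (mk4 D n v x) (mk4 D n u x) (D.L n x.1) (zx D n v x)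
      (rh D n v) ∧
    ang (mk4 D n v x).e (mk4 D n u x).e ≤ E * max (D.w 2 n u / D.w 1 n u) (D.w 2 n v / D.w 1 n v)

/-- **TILT**, conclusion of the block -/
def Tilt4 : Prop :=
  ∃ η : ℝ, 0 < η ∧ ∀ (p : Par4) (D : Dat4), J1 η p D → ∃ C : ℝ, 0 ≤ C ∧
    ∀ u v : ℚ, 0 ≤ u → u < v → v ≤ 1 → ∀ ε : ℝ, 0 < ε → Negl D.B D.I fun n x =>
      ¬ TiltOK D (D.B.d n ^ (-(C * ((v : ℝ) - u)) - ε)) u v n x

end

end Crest.Agent.R136.Tlt51
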