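import Mathlib
import Crest.Agent.R136.Deep5_51
import Crest.Agent.R136.Tlt0_51

/-!
# R136 (U5 TILT), literals, second version (class `ShN` with free `w 0`) (helper51)

* `CoinC`, `CloseC` (in Deep4_51): coincidence near a common line, closeness on the base box.
* `CompC` : comparable widths, base tilt at most `lam`.
* `Agree` : coincidence at the scale `s` and closeness up to `E`, both directions.
* `CapC` : capture (base sheet curved and nondegenerate).  `MidC` : both sheets nearly flat.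
* `Tilt4C` : conclusion.  (`NonDeg`, `mk4`, `zx`, `rh` : Tlt0_51.)
-/

set_option autoImplicit false
set_option linter.unusedVariables false

open Finset Filter Topology

namespace Crest.Agent.R136.Tlt51

open Crest.Agent.R138.Ex926 (Base U)
open Crest.Agent.R138.Dp76 (Dense)
open Crest.Agent.R138.Mk163 (zc zl rho alive own Negl)
open Crest.Agent.R136.MkA627 Crest.Agent.R136.Sh605 Crest.Agent.R136.K4 Crest.Agent.R136.Top484
open Crest.Agent.R136.Deep51 (CoinC CloseC)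

noncomputable section

/-- the two sheets have lateral widths and thickness comparable up to `B`, and their long axes make an
angle of at most `lam w₂ / w₁`. -/
structure CompC (B lam : ℝ) (S S' : Plk4) : Prop where
  w : ∀ i, i ≠ 0 → S.w i ≤ B * S'.w i ∧ S'.w i ≤ B * S.w i
  a : S.a ≤ B * S'.a ∧ S'.a ≤ B * S.a
  g : ∀ i, i ≠ 1 → |dt (S.e 1) (S'.e i)| * S.w 1 ≤ lam * S.w 2
  g' : ∀ i, i ≠ 1 → |dt (S.e i) (S'.e 1)| * S.w 1 ≤ lam * S.w 2

/-- the sheets `S`, `S'` agree near their common line `T` : coincidence (`S'` in the `A`-fattened `S`)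
at the scale `s`, closeness in both directions up to `E`. -/
structure Agree (A E s lam : ℝ) (S S' : Plk4) (T : Ln4) (z0 ρ : ℝ) : Prop where
  coin : CoinC S.e S.w S.q S'.e S'.c S'.w S'.q S'.a A (s / lam * S.w 1) (s * S.w 2) T z0 ρ
  close : CloseC S.e S.w S.q S.a S'.q E T z0 ρ
  close' : CloseC S'.e S'.w S'.q S'.a S.q E T z0 ρ

/-- **[CAP]** capture.  `kap S z ρ T` = curvature extent (length), `Det δ S z ρ T` = nondegeneracy
of the sheet along its line `T`.  `[z0, z0+ρ]` = common cell, `[z1, z1+ρ1]` = cell of the base sheet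
`S`, `[z2, z2+ρ2]` = cell of `S'`. If the base sheet is curved and nondegenerate and the sheets do
not agree, then at all heights outside two intervals the lines of both sheets near `T` have
velocities in `N` boxes. -/
def CapC (kap : Plk4 → ℝ → ℝ → Ln4 → ℝ) (Det : ℝ → Plk4 → ℝ → ℝ → Ln4 → Prop) : Prop :=
  ∃ C1 : ℝ, 1 ≤ C1 ∧ ∃ N : ℕ, 1 ≤ N ∧
    ∀ (θ lam A : ℝ) (S S' : Plk4) (T : Ln4) (z0 ρ z1 ρ1 z2 ρ2 r : ℝ),
    0 < θ → C1 * θ ≤ 1 → 1 ≤ lam → lam * θ ≤ 1 → 0 < r → 0 < ρ →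
    z1 ≤ z0 → z0 + ρ ≤ z1 + ρ1 → θ * ρ1 ≤ ρ → z2 ≤ z0 → z0 + ρ ≤ z2 + ρ2 → θ * ρ2 ≤ ρ →
    Shp S z1 ρ1 r → Shp S' z2 ρ2 r → CompC θ⁻¹ lam S S' → InP T S z1 ρ1 → InP T S' z2 ρ2 →
    θ ^ (-C1) * (S.a + S'.a) ≤ kap S z1 ρ1 T → Det θ S z1 ρ1 T → C1 * (S.a + S'.a) ≤ A →
    ¬ Agree A (θ ^ (-C1) * (S.a + S'.a)) (θ ^ C1) lam S S' T z0 ρ →
    ∃ s : Fin 2 → ℝ, ∀ ζ, z0 ≤ ζ → ζ ≤ z0 + ρ → (∀ i, θ * ρ ≤ |ζ - s i|) →
      ∃ V : Fin N → V3, ∀ t : Ln4, InP t S z1 ρ1 → InP t S' z2 ρ2 →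
        |dt (S.e 1) (t.pos ζ - T.pos ζ)| ≤ θ ^ C1 * S.w 1 →
        |dt (S.e 2) (t.pos ζ - T.pos ζ)| ≤ θ ^ C1 * S.w 2 →
          ∃ l, |dt (S.e 1) (t.v - V l)| * ρ ≤ θ * S.w 1 ∧ |dt (S.e 2) (t.v - V l)| * ρ ≤ θ * S.w 2

/-- exponent of the case distinction -/
def cx (K : ℝ) (p : Par4) : ℝ := K * Real.sqrt (p.q 2 / p.q 1)

/-- **[MID]** base tilt and both curvature extents are small powers of the discrepancy `1 / s`.
`b` : level of the base mark, `c` : level of the other one; common cell = cell of level `max b c`. -/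
def MidC (kap : Plk4 → ℝ → ℝ → Ln4 → ℝ) : Prop :=
  ∃ K0 : ℝ, 1 ≤ K0 ∧ ∀ K : ℝ, K0 ≤ K → ∃ η : ℝ, 0 < η ∧ ∀ (p : Par4) (D : Dat4), J1 η p D →
    ∃ C : ℝ, 0 ≤ C ∧ ∀ b c : ℚ, 0 ≤ b → b ≤ 1 → 0 ≤ c → c ≤ 1 → b ≠ c → ∀ ε : ℝ, 0 < ε →
      Negl D.B D.I fun n x =>
      ∃ s lam : ℝ, 0 < s ∧ s ≤ D.B.d n ^ (C * |(b : ℝ) - c| + ε) ∧ 1 ≤ lam ∧
        lam ≤ s ^ (-(cx K p)) ∧
        CompC (s ^ (-(cx K p))) lam (mk4 D n b x) (mk4 D n c x) ∧
        ¬ Agree (K * ((mk4 D n b x).a + (mk4 D n c x).a))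
            (s ^ (-K) * ((mk4 D n b x).a + (mk4 D n c x).a)) s lam (mk4 D n b x) (mk4 D n c x)
            (D.L n x.1) (zx D n (max b c) x) (rh D n (max b c)) ∧
        K * ((mk4 D n b x).a + (mk4 D n c x).a) ≤
          kap (mk4 D n b x) (zx D n b x) (rh D n b) (D.L n x.1) ∧
        kap (mk4 D n b x) (zx D n b x) (rh D n b) (D.L n x.1) ≤
          s ^ (-(cx K p)) * ((mk4 D n b x).a + (mk4 D n c x).a) ∧
        kap (mk4 D n c x) (zx D n c x) (rh D n c) (D.L n x.1) ≤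
          s ^ (-(cx K p)) * ((mk4 D n b x).a + (mk4 D n c x).a)

/-- the marks of the levels `u < v` of the incidence `x` agree up to `E` -/
structure TiltOKC (D : Dat4) (E : ℝ) (u v : ℚ) (n : ℕ) (x : ℕ × ℝ) : Prop where
  close : CloseC (mk4 D n v x).e (mk4 D n v x).w (mk4 D n v x).q (mk4 D n v x).a (mk4 D n u x).q
    (E * max (D.w 0 n u) (D.w 0 n v)) (D.L n x.1) (zx D n v x) (rh D n v)
  close' : CloseC (mk4 D n u x).e (mk4 D n u x).w (mk4 D n u x).q (mk4 D n u x).a (mk4 D n v x).q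
    (E * max (D.w 0 n u) (D.w 0 n v)) (D.L n x.1) (zx D n v x) (rh D n v)
  ang : ∀ i, i ≠ 1 → |dt ((mk4 D n v x).e 1) ((mk4 D n u x).e i)| ≤
      E * max (D.w 2 n u / D.w 1 n u) (D.w 2 n v / D.w 1 n v) ∧
    |dt ((mk4 D n v x).e i) ((mk4 D n u x).e 1)| ≤
      E * max (D.w 2 n u / D.w 1 n u) (D.w 2 n v / D.w 1 n v)

/-- **TILT** for curved pairs, conclusion of the block: if one of the two marks has curvature extent at
least `E · thickness`, they agree up to `E`, `E = d^(-C(v-u)-ε)`, off a negligible set. -/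
def Tilt4C (kap : Plk4 → ℝ → ℝ → Ln4 → ℝ) : Prop :=
  ∃ η : ℝ, 0 < η ∧ ∀ (p : Par4) (D : Dat4), J1 η p D → ∃ C : ℝ, 0 ≤ C ∧
    ∀ u v : ℚ, 0 ≤ u → u < v → v ≤ 1 → ∀ ε : ℝ, 0 < ε → Negl D.B D.I fun n x =>
      D.B.d n ^ (-(C * ((v : ℝ) - u)) - ε) * max (D.w 0 n u) (D.w 0 n v) ≤
        max (kap (mk4 D n v x) (zx D n v x) (rh D n v) (D.L n x.1))
          (kap (mk4 D n u x) (zx D n u x) (rh D n u) (D.L n x.1)) ∧
      ¬ TiltOKC D (D.B.d n ^ (-(C * ((v : ℝ) - u)) - ε)) u v n x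

end

end Crest.Agent.R136.Tlt51
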