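import Crest.Agent.R136.Coi5_102
import Crest.Agent.R136.Cps_605
import Crest.Agent.R136.KapP_335
import Crest.Agent.R136.Tlt1_51

/-!
# R136 (S0187): capture, official literal `CapC` (helper102)

`capP` (stronger: also the coefficients of `ω`) and `capC : CapC kapP DetP`.
-/

set_option autoImplicit false

namespace Crest.Agent.R136.Tl102

open Crest.Agent.R136.Sh605
open Crest.Agent.R136.Arc880 (det3)
open Crest.Agent.R136.K4 (Plk4)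
open Crest.Agent.R136.Deep51 (CoinC CloseC)
open Crest.Agent.R136.Tlt51 (CompC Agree CapC Shp InP)
open Crest.Agent.R136.KapP335
open Crest.Agent.R136.Cps605

/-- **coefficient form of closeness**: `q' = m q + ω`, coefficients of `ω` at most `E` -/
def PolyC (E : ℝ) (S S' : Plk4) (T : Ln4) (z0 ρ : ℝ) : Prop :=
  ∀ (b0 b1 : V3) (G : QF) (b0' b1' : V3) (G' : QF), IsExp S.q S.e S.w T z0 ρ b0 b1 G →
    IsExp S'.q S.e S.w T z0 ρ b0' b1' G' → 1 / 16 ≤ |b0' 0 / b0 0| ∧ |b0' 0 / b0 0| ≤ 8 ∧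
      ∃ X, X * (S.w 0 * kap b0 b1 G) ≤ E ∧ OmB (kap b0 b1 G) X X X b0 b1 G b0' b1' G'

/-- `Agree` and closeness of the coefficients -/
structure AgreeP (A E s lam : ℝ) (S S' : Plk4) (T : Ln4) (z0 ρ : ℝ) : Prop
    extends Agree A E s lam S S' T z0 ρ where
  poly : PolyC E S S' T z0 ρ

section two

variable {e : Fin 3 → V3} {c : Ln4} {w : V3} {q : ℝ → V3 → ℝ} {e' : Fin 3 → V3} {c' : Ln4}
  {w' : V3} {q' : ℝ → V3 → ℝ} {T : Ln4} {z0 ρ a a' : ℝ} {b0 b1 : V3} {G : QF}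
  {b0' b1' : V3} {G' : QF} {d0 d1 : V3} {H : QF} {B lam : ℝ}

theorem height_exists {z0 ρ z : ℝ} (hρ : 0 < ρ) (h0 : z0 ≤ z) (h1 : z ≤ z0 + ρ) :
    ∃ ζ, 0 ≤ ζ ∧ ζ ≤ 1 ∧ z = z0 + ρ * ζ := by
  refine ⟨(z - z0) / ρ, div_nonneg (by linarith) hρ.le, ?_, ?_⟩
  · rw [div_le_one hρ]; linarith
  · rw [mul_div_cancel₀ _ hρ.ne']; ring

/-- coincidence in the form `CoinC` -/
theorem Two.coinC (D : Two e c w q e' c' w' q' T z0 ρ a a' b0 b1 G b0' b1' G' d0 d1 H B lam)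
    (hρ : 0 < ρ) {κ X Λ δ s A : ℝ} (hκ : 0 < κ) (hk : kap b0 b1 G ≤ κ) (hκ1 : κ ≤ 13)
    (O : OmB κ X X X b0 b1 G b0' b1' G') (hX : 8 * (X * (w 0 * κ)) ≤ w 2) (hX1 : X ≤ 1)
    (hΛ : X * (w 0 * κ) ≤ Λ) (hδ : a' ≤ δ * (w 0 * κ)) (hs : 0 ≤ s) (hr : s * B ≤ 1 / 8)
    (hε : 10 ^ 12 * (δ + s * B * (B * lam) ^ 2) ≤ 1 / 34)
    (hA : a + 16 * (2 * a' + 11 * (10 ^ 12 * (δ + s * B * (B * lam) ^ 2)) * Λ) ≤ A) :
    CoinC e w q e' c' w' q' a' A (s / lam * w 1) (s * w 2) T z0 ρ := by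
  intro z hz hz' P hP hq h1 h2
  obtain ⟨ζ, hζ, hζ', rfl⟩ := height_exists hρ hz hz'
  have hlam := D.lam1
  have hB := D.B1
  have hPK : InK e' c' (dbl3 w') (z0 + ρ * ζ) P := by
    intro i
    have := hP i
    have hwi := D.S'.pos i
    change _ ≤ 2 * w' i
    linarith
  have g1 : |pv e' w' (P - T.pos (z0 + ρ * ζ)) 1| ≤ s * B := by
    have hwi := D.S'.pos 1
    change |dt (e' 1) (P - T.pos (z0 + ρ * ζ)) / w' 1| ≤ _
    rw [abs_div, abs_of_pos hwi, div_le_iff₀ hwi]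
    refine h1.trans ?_
    have h3 : s / lam ≤ s := div_le_self hs hlam
    calc s / lam * w 1 ≤ s * (B * w' 1) :=
          mul_le_mul h3 D.wB1' (D.S.pos 1).le hs
      _ = _ := by ring
  have g2 : |pv e' w' (P - T.pos (z0 + ρ * ζ)) 2| ≤ s * B := by
    have hwi := D.S'.pos 2
    change |dt (e' 2) (P - T.pos (z0 + ρ * ζ)) / w' 2| ≤ _
    rw [abs_div, abs_of_pos hwi, div_le_iff₀ hwi]
    refine h2.trans ?_
    calc s * w 2 ≤ s * (B * w' 2) := mul_le_mul_of_nonneg_left D.wB2' hs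
      _ = _ := by ring
  obtain ⟨k1, k2⟩ := D.coin hκ hk hκ1 O hX hX1 hΛ hδ hr (hε.trans (by norm_num)) hζ hζ' hPK hq g1 g2
  refine ⟨k1.trans ?_, k2.trans hA⟩
  have hw0 := D.S.pos 0
  have := mul_le_mul_of_nonneg_left hε hw0.le
  linarith

/-- closeness in the form `CloseC` -/
theorem Two.closeC (D : Two e c w q e' c' w' q' T z0 ρ a a' b0 b1 G b0' b1' G' d0 d1 H B lam)
    (hρ : 0 < ρ) {κ X Λ E : ℝ} (hκ : 0 < κ) (hk : kap b0 b1 G ≤ κ)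
    (O : OmB κ X X X b0 b1 G b0' b1' G')
    (hΛ : X * (w 0 * κ) ≤ Λ) (hδ : 16 * a ≤ w 0 * κ) (hE : a' + 16 * a + 4 * Λ ≤ E) :
    CloseC e w q a q' E T z0 ρ := by
  intro z hz hz' P hP hq
  obtain ⟨ζ, hζ, hζ', rfl⟩ := height_exists hρ hz hz'
  exact (D.closeA hκ hk O hΛ hδ hζ hζ' hP hq).trans hE

/-- closeness in the form `CloseC`, other direction -/
theorem Two.closeC' (D : Two e c w q e' c' w' q' T z0 ρ a a' b0 b1 G b0' b1' G' d0 d1 H B lam)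
    (hρ : 0 < ρ) {κ X Λ E : ℝ} (hκ : 0 < κ) (hk : kap b0 b1 G ≤ κ) (hκ1 : κ ≤ 13)
    (O : OmB κ X X X b0 b1 G b0' b1' G') (hX : 8 * (X * (w 0 * κ)) ≤ w 2) (hX1 : X ≤ 1)
    (hΛ : X * (w 0 * κ) ≤ Λ) (hδ : a' ≤ w 0 * κ)
    (hE : a + 16 * (2 * a' + 11 * (10 ^ 11 * (B * lam) ^ 2) ^ 2 * Λ) ≤ E) :
    CloseC e' w' q' a' q E T z0 ρ := by
  intro z hz hz' P hP hq
  obtain ⟨ζ, hζ, hζ', rfl⟩ := height_exists hρ hz hz'
  exact (D.closeB hκ hk hκ1 O hX hX1 hΛ hδ hζ hζ' hP hq).trans hE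

end two

/-! ### numbers -/

/-- constant of `η ^ 20` -/
noncomputable def cH : ℝ := (48 * 884736000 ^ 3) ^ 20

/-- the constant -/
noncomputable def cK : ℝ := 2 * 10 ^ 24 + 2 * cSm * cH + 16 * cX * cH

/-- exponent and constant of `CapC` -/
noncomputable def cC : ℝ := 700 + cK

theorem cH_pos : 0 < cH := by unfold cH; positivity

theorem cK_ge : 2 * 10 ^ 24 ≤ cK ∧ 2 * cSm * cH ≤ cK ∧ 16 * cX * cH ≤ cK := by
  have h1 := cH_pos
  have h2 := cSm_pos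
  have h3 := cX_pos
  have h4 : 0 < 2 * cSm * cH := by positivity
  have h5 : 0 < 16 * cX * cH := by positivity
  unfold cK
  refine ⟨by linarith, by linarith, by linarith⟩

/-- `η` of the capture lemma -/
noncomputable def etaC (θ : ℝ) : ℝ := (θ ^ 3 / 64000 * (θ / 8) ^ 2 / 216) ^ 3 / 48

theorem etaC_eq (θ : ℝ) : etaC θ = θ ^ 15 / (48 * 884736000 ^ 3) := by
  unfold etaC; ring

theorem etaC_pow (θ : ℝ) : etaC θ ^ 20 = θ ^ 300 / cH := by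
  rw [etaC_eq, cH, div_pow]; ring

theorem pow_le_pow_of {θ : ℝ} (h0 : 0 ≤ θ) (h1 : θ ≤ 1) {m n : ℕ} (h : m ≤ n) :
    θ ^ n ≤ θ ^ m := pow_le_pow_of_le_one h0 h1 h

/-- numbers for the capture lemma -/
theorem num_cap {θ u a v : ℝ} (hθ : 0 < θ) (hK : cK * θ ≤ 1) (hu : u ≤ θ ^ 700)
    (hv : 0 < v) (ha : a ≤ θ ^ 698 * v) : cSm * (u + a / v) ≤ etaC θ ^ 20 := by
  obtain ⟨k1, k2, -⟩ := cK_ge
  have hS := cSm_pos
  have hH := cH_pos
  have hθ1 : θ ≤ 1 := by nlinarith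
  have h1 : a / v ≤ θ ^ 698 := by rw [div_le_iff₀ hv]; exact ha
  have h2 : θ ^ 700 ≤ θ ^ 698 := pow_le_pow_of hθ.le hθ1 (by norm_num)
  have h3 : 2 * cSm * cH * θ ≤ 1 := (mul_le_mul_of_nonneg_right k2 hθ.le).trans hK
  rw [etaC_pow, le_div_iff₀ hH]
  calc cSm * (u + a / v) * cH ≤ cSm * (θ ^ 698 + θ ^ 698) * cH := by gcongr; linarith
    _ = (2 * cSm * cH * θ) * θ ^ 697 := by ring
    _ ≤ 1 * θ ^ 697 := by gcongr
    _ = θ ^ 697 := one_mul _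
    _ ≤ θ ^ 300 := pow_le_pow_of hθ.le hθ1 (by norm_num)

/-- numbers for the coefficients -/
theorem num_X {θ a a' v : ℝ} (hθ : 0 < θ) (hK : cK * θ ≤ 1) (ha : 0 ≤ a) (ha' : 0 ≤ a')
    (hv : 0 < v) (h : a + a' ≤ θ ^ 698 * v) :
    xP (etaC θ) a a' v * v ≤ (a + a') / θ ^ 301 ∧ xP (etaC θ) a a' v ≤ θ ^ 397 := by
  obtain ⟨k1, -, k3⟩ := cK_ge
  have hX := cX_pos
  have hH := cH_pos
  have hη : 0 < etaC θ := by rw [etaC_eq]; positivity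
  have h3 : 16 * cX * cH * θ ≤ 1 := (mul_le_mul_of_nonneg_right k3 hθ.le).trans hK
  have h1 : xP (etaC θ) a a' v * v ≤ (a + a') / θ ^ 301 := by
    rw [xP_mul hη a a' hv.ne', etaC_pow, le_div_iff₀ (by positivity)]
    have e1 : cX * (2 * a' + 16 * a) / (θ ^ 300 / cH) * θ ^ 301 =
        cX * (2 * a' + 16 * a) * cH * θ := by field_simp
    rw [e1]
    calc cX * (2 * a' + 16 * a) * cH * θ ≤ cX * (16 * (a + a')) * cH * θ := by
          gcongr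
          linarith
      _ = (16 * cX * cH * θ) * (a + a') := by ring
      _ ≤ 1 * (a + a') := by gcongr
      _ = a + a' := one_mul _
  refine ⟨h1, ?_⟩
  have h4 : (a + a') / θ ^ 301 ≤ θ ^ 397 * v := by
    rw [div_le_iff₀ (by positivity)]
    calc a + a' ≤ θ ^ 698 * v := h
      _ = θ ^ 397 * v * θ ^ 301 := by ring
  exact le_of_mul_le_mul_right (h1.trans h4) hv

end Crest.Agent.R136.Tl102
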