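import Crest.Agent.R136.Pl2Def_860
import Crest.Agent.R136.Rk3_601
import Crest.Agent.R136.Coi6_102

/-!
# R136 (S0187), PLAN 2 (3) = (AL), aligned curved sheets, volume form: definitions (helper121)

* `chF`, `chX`, `chD` : the chart of a sheet: functions, positions and directions of lines;
* `jt`, `JetAt`       : 2-jets (exact finite differences);
* `tgP`, `thP`        : tangential gradient and Hessian of `q'` on the sheet `S` (601's `tg`, `th`);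
* `Nd`, `Small`, `GenD` : the predicates of the double count;
* `bxL`               : box labels;
* `Cfg`               : the configuration of the volume form;
* `LeafK`, `LeafB`, `LeafC`, `LeafP`, `LeafD`, `LeafV6`, `LeafV7`, `LeafW` : the leaves.
-/

set_option autoImplicit false
set_option linter.unusedVariables false

open Finset

namespace Crest.Agent.R136.Al121

open Crest.Agent.R136.Sh605
open Crest.Agent.R136.K4 (Plk4)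
open Crest.Agent.R136.Tlt51 (Shp InP)
open Crest.Agent.R136.KapP335 (kapP expP DetP)
open Crest.Agent.R136.Tl102
open Crest.Agent.R136.Pl2W102 (Near Ex2 Two1)
open Crest.Agent.R136.Pl2 (kp)
open Crest.Agent.R136.Rk601 (Jt)

/-! ### the chart of a sheet -/

/-- the function `q` in the chart of `S`; the point `(ζ, X)` is
`(z0 + ρ ζ, S.c.pos (z0 + ρ ζ) + ∑ X k * S.w k • S.e k)` -/
noncomputable def chF (S : Plk4) (z0 ρ : ℝ) (q : ℝ → V3 → ℝ) (ζ : ℝ) (X : V3) : ℝ :=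
  q (z0 + ρ * ζ) (S.c.pos (z0 + ρ * ζ) + cmb (fr S.e S.w) X)

/-- position of the line `T` in the chart of `S` at the height `ζ` -/
noncomputable def chX (S : Plk4) (z0 ρ : ℝ) (T : Ln4) (ζ : ℝ) : V3 :=
  pv S.e S.w (T.pos (z0 + ρ * ζ) - S.c.pos (z0 + ρ * ζ))

/-- direction of the line `T` in the chart of `S`, coordinates `(ζ, X 1, X 2)` -/
noncomputable def chD (S : Plk4) (ρ : ℝ) (T : Ln4) : Fin 3 → ℝ :=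
  ![1, ρ * pv S.e S.w (T.v - S.c.v) 1, ρ * pv S.e S.w (T.v - S.c.v) 2]

/-- value at the displacement `y` (normal), `d` (in `(ζ, X 1, X 2)`) -/
noncomputable def evd (F : ℝ → V3 → ℝ) (ζ : ℝ) (X : V3) (y : ℝ) (d : Fin 3 → ℝ) : ℝ :=
  F (ζ + d 0) (X + ![y, d 1, d 2])

/-- the 2-jet of a quadratic function -/
def JetAt (F : ℝ → V3 → ℝ) (ζ : ℝ) (X : V3) (J : Jt) : Prop :=
  ∀ (y : ℝ) (d : Fin 3 → ℝ), evd F ζ X y d = F ζ X + (J.a0 * y + ∑ i, J.a i * d i) +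
    1 / 2 * (J.h00 * y ^ 2 + 2 * (y * ∑ i, J.h0 i * d i) + ∑ i, ∑ j, J.h i j * (d i * d j))

/-- 2-jet by finite differences (exact for quadratic functions) -/
noncomputable def jt (F : ℝ → V3 → ℝ) (ζ : ℝ) (X : V3) : Jt where
  a0 := (evd F ζ X 1 0 - evd F ζ X (-1) 0) / 2
  a := fun i => (evd F ζ X 0 (Pi.single i 1) - evd F ζ X 0 (Pi.single i (-1))) / 2
  h00 := evd F ζ X 1 0 + evd F ζ X (-1) 0 - 2 * F ζ X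
  h0 := fun i => (evd F ζ X 1 (Pi.single i 1) - evd F ζ X 1 (Pi.single i (-1)) -
    evd F ζ X (-1) (Pi.single i 1) + evd F ζ X (-1) (Pi.single i (-1))) / 4
  h := fun i j => (evd F ζ X 0 (Pi.single i 1 + Pi.single j 1) -
    evd F ζ X 0 (Pi.single i 1 + Pi.single j (-1)) -
    evd F ζ X 0 (Pi.single i (-1) + Pi.single j 1) +
    evd F ζ X 0 (Pi.single i (-1) + Pi.single j (-1))) / 4

/-- tangential gradient of `q'` on the sheet `S` at the point `(ζ, X)` of the chart of `S` -/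
noncomputable def tgP (S : Plk4) (z0 ρ : ℝ) (q' : ℝ → V3 → ℝ) (ζ : ℝ) (X : V3) (i : Fin 3) : ℝ :=
  Rk601.tg (jt (chF S z0 ρ S.q) ζ X) (jt (chF S z0 ρ q') ζ X) i

/-- tangential Hessian of `q'` on the sheet `S` -/
noncomputable def thP (S : Plk4) (z0 ρ : ℝ) (q' : ℝ → V3 → ℝ) (ζ : ℝ) (X : V3) (i j : Fin 3) : ℝ :=
  Rk601.th (jt (chF S z0 ρ S.q) ζ X) (jt (chF S z0 ρ q') ζ X) i j

/-- nondegenerate point of `{q' = 0}` in the sheet `S` at the scale `ε` -/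
def Nd (lam m ε : ℝ) (S : Plk4) (z0 ρ : ℝ) (q' : ℝ → V3 → ℝ) (ζ : ℝ) (X : V3) : Prop :=
  (∃ i, lam * ε < |tgP S z0 ρ q' ζ X i|) ∨
    ∃ i j k l, m * ε ^ 2 < |Rk601.mn (thP S z0 ρ q' ζ X) i j k l|

/-- small Hessian -/
def Small (δ ε : ℝ) (S : Plk4) (z0 ρ : ℝ) (q' : ℝ → V3 → ℝ) (ζ : ℝ) (X : V3) : Prop :=
  ∀ i j, |thP S z0 ρ q' ζ X i j| ≤ δ * ε

/-- generic direction -/
def GenD (θ ε : ℝ) (S : Plk4) (z0 ρ : ℝ) (q' : ℝ → V3 → ℝ) (ζ : ℝ) (X : V3) (d : Fin 3 → ℝ) : Prop :=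
  ∃ i, θ * ε < |∑ j, thP S z0 ρ q' ζ X i j * d j|

/-- box label of the line `T` at the height `j / H` -/
noncomputable def bxL (S : Plk4) (z0 ρ : ℝ) (H : ℕ) (T : Ln4) (j : ℕ) : ℤ × ℤ :=
  (⌊(H : ℝ) * chX S z0 ρ T ((j : ℝ) / H) 1⌋, ⌊(H : ℝ) * chX S z0 ρ T ((j : ℝ) / H) 2⌋)

/-- `T'` within `s` of `T` in the chart of `S` at the height `ζ` -/
def NearX (s : ℝ) (S : Plk4) (z0 ρ : ℝ) (T T' : Ln4) (ζ : ℝ) : Prop :=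
  ∀ k, k ≠ 0 → |chX S z0 ρ T' ζ k - chX S z0 ρ T ζ k| ≤ s

/-- closeness of the coefficients, with a factor `K` -/
def OmC (K E : ℝ) (S : Plk4) (q' : ℝ → V3 → ℝ) (T : Ln4) (z0 ρ : ℝ) : Prop :=
  ∀ (b0 b1 : V3) (G : QF) (b0' b1' : V3) (G' : QF), IsExp S.q S.e S.w T z0 ρ b0 b1 G →
    IsExp q' S.e S.w T z0 ρ b0' b1' G' → 1 / K ≤ |b0' 0 / b0 0| ∧ |b0' 0 / b0 0| ≤ K ∧
      ∃ X, X * (S.w 0 * kap b0 b1 G) ≤ E ∧ OmB (kap b0 b1 G) X X X b0 b1 G b0' b1' G'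

/-! ### the configuration -/

open Classical in
/-- **configuration of the volume form**. `W` : comparability; `B` : counts; `κr` : the classes are
`κr`-tubes; `E a` : discrepancy of every pair `(U t, V t)` at its line. -/
structure Cfg (qm qp : Fin 3 → ℝ) (L : ℕ → Ln4) (P : Finset ℕ) (cu cv : ℕ → ℕ) (Uf Vf : ℕ → Plk4)
    (W B M a w1 w2 z0 ρ r κr E : ℝ) : Prop where
  two : Two1 qm qp L P cu cv Uf Vf B M a w1 w2 z0 ρ r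
  ne : P.Nonempty
  W1 : 1 ≤ W
  WB : W ≤ B
  κ0 : 0 < κr
  E1 : 1 ≤ E
  cmU : ∀ t ∈ P, Near W a (Uf (cu t)).a ∧ Near W w1 ((Uf (cu t)).w 1) ∧ Near W w2 ((Uf (cu t)).w 2)
  cmV : ∀ t ∈ P, Near W a (Vf (cv t)).a ∧ Near W w1 ((Vf (cv t)).w 1) ∧ Near W w2 ((Vf (cv t)).w 2)
  ang : ∀ t ∈ P, angC (Uf (cu t)) (Vf (cv t)) * w1 ≤ W * w2
  up : ∀ t ∈ P, PolyC (2 * E * a) (Uf (cu t)) (Vf (cv t)) (L t) z0 ρ
  lo : ∀ t ∈ P, ¬ PolyC (E * a) (Uf (cu t)) (Vf (cv t)) (L t) z0 ρ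
  kE : ∀ t ∈ P, E * a ≤ W * kp (Uf (cu t)) z0 ρ (L t)
  kUV : ∀ t ∈ P, kp (Uf (cu t)) z0 ρ (L t) ≤ W * kp (Vf (cv t)) z0 ρ (L t)
  kVU : ∀ t ∈ P, kp (Vf (cv t)) z0 ρ (L t) ≤ kp (Uf (cu t)) z0 ρ (L t)
  detU : ∀ t ∈ P, DetP W⁻¹ (Uf (cu t)) z0 ρ (L t)
  detV : ∀ t ∈ P, DetP W⁻¹ (Vf (cv t)) z0 ρ (L t)
  tubeU : ∀ s ∈ P, ∀ t ∈ P, cu s = cu t → ∀ z, z0 ≤ z → z ≤ z0 + ρ → ∀ i : Fin 3, i ≠ 0 →
    |dt ((Uf (cu t)).e i) ((L s).pos z - (L t).pos z)| ≤ κr * (Uf (cu t)).w i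
  tubeV : ∀ s ∈ P, ∀ t ∈ P, cv s = cv t → ∀ z, z0 ≤ z → z ≤ z0 + ρ → ∀ i : Fin 3, i ≠ 0 →
    |dt ((Vf (cv t)).e i) ((L s).pos z - (L t).pos z)| ≤ κr * (Vf (cv t)).w i

/-! ### the leaves -/

open Classical in
/-- **leaf K** (571) : Kakeya maximal bound for balls of directions, both systems. -/
def LeafK : Prop := ∀ (qm qp : Fin 3 → ℝ), (∀ k, 0 ≤ qm k ∧ qm k ≤ qp k) → ∀ ε : ℝ, 0 < ε →
  ∃ C : ℝ, 1 ≤ C ∧ ∀ (L : ℕ → Ln4) (P : Finset ℕ) (cu cv : ℕ → ℕ) (Uf Vf : ℕ → Plk4)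
    (W B M a w1 w2 z0 ρ r κr E : ℝ), Cfg qm qp L P cu cv Uf Vf W B M a w1 w2 z0 ρ r κr E →
    C * W ^ C * κr ≤ 1 → ∀ H : ℕ, E ≤ H → (H : ℝ) ≤ 2 * E → (C * B) ^ C ≤ H →
    ∀ b θ : ℝ, 3 / (H : ℝ) ≤ b → b ≤ 1 → 0 < θ → θ ≤ 1 →
    (∃ Bad : Finset (ℕ × ℕ), (Bad.card : ℝ) ≤ θ * ((P.card : ℝ) * H) ∧
      ∀ p ∈ (P ×ˢ range H) \ Bad, ∀ K : ℝ, 1 ≤ K →
        ((((P ×ˢ range H) \ Bad).filter fun x => cu x.1 = cu p.1 ∧ x.2 = p.2 ∧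
          NearX (K / H) (Uf (cu p.1)) z0 ρ (L p.1) (L x.1) ((p.2 : ℝ) / H) ∧
          ∀ k : Fin 3, |chD (Uf (cu p.1)) ρ (L x.1) k - chD (Uf (cu p.1)) ρ (L p.1) k| ≤
            K * b).card : ℝ) * (H : ℝ) ^ 2 ≤
        (C * B * K / θ) ^ C * (H : ℝ) ^ ε * b ^ (qm 1 + qm 2) * M) ∧
    (∃ Bad : Finset (ℕ × ℕ), (Bad.card : ℝ) ≤ θ * ((P.card : ℝ) * H) ∧
      ∀ p ∈ (P ×ˢ range H) \ Bad, ∀ K : ℝ, 1 ≤ K →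
        ((((P ×ˢ range H) \ Bad).filter fun x => cv x.1 = cv p.1 ∧ x.2 = p.2 ∧
          NearX (K / H) (Vf (cv p.1)) z0 ρ (L p.1) (L x.1) ((p.2 : ℝ) / H) ∧
          ∀ k : Fin 3, |chD (Vf (cv p.1)) ρ (L x.1) k - chD (Vf (cv p.1)) ρ (L p.1) k| ≤
            K * b).card : ℝ) * (H : ℝ) ^ 2 ≤
        (C * B * K / θ) ^ C * (H : ℝ) ^ ε * b ^ (qm 1 + qm 2) * M)

/-- **leaf B** (208) : capture. Outside few heights per line the common lines of `U t` and `V t`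
through a box have directions in 16 small balls (chart of `U t`). -/
def LeafB : Prop := ∃ C : ℝ, 1 ≤ C ∧ ∀ (qm qp : Fin 3 → ℝ) (L : ℕ → Ln4) (P : Finset ℕ)
    (cu cv : ℕ → ℕ) (Uf Vf : ℕ → Plk4) (W B M a w1 w2 z0 ρ r κr E : ℝ),
    Cfg qm qp L P cu cv Uf Vf W B M a w1 w2 z0 ρ r κr E →
    C * W ^ C * κr ≤ 1 → ∀ H : ℕ, E ≤ H → (H : ℝ) ≤ 2 * E →
    ∀ K θ : ℝ, 1 ≤ K → 0 < θ → θ ≤ 1 → (C * B * K / θ) ^ C ≤ H →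
    ∃ Bad : Finset (ℕ × ℕ), (Bad.card : ℝ) ≤ θ * ((P.card : ℝ) * H) ∧
      ∀ p ∈ P ×ˢ range H, p ∉ Bad → ∃ o : Fin 16 → ℝ × ℝ, ∀ s ∈ P, cu s = cu p.1 → cv s = cv p.1 →
        NearX (K / H) (Uf (cu p.1)) z0 ρ (L p.1) (L s) ((p.2 : ℝ) / H) →
        ∃ i, |chD (Uf (cu p.1)) ρ (L s) 1 - (o i).1| ≤ (C * B * K / θ) ^ C * (H : ℝ) ^ (-(1 / C)) ∧
          |chD (Uf (cu p.1)) ρ (L s) 2 - (o i).2| ≤ (C * B * K / θ) ^ C * (H : ℝ) ^ (-(1 / C))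

open Classical in
/-- **leaf C** (412, 792) : hull counts, one step and two steps. -/
def LeafC : Prop := ∀ (qm qp : Fin 3 → ℝ), (∀ k, 0 ≤ qm k ∧ qm k ≤ qp k) → ∃ C : ℝ, 1 ≤ C ∧
  ∀ (L : ℕ → Ln4) (P : Finset ℕ) (cu cv : ℕ → ℕ) (Uf Vf : ℕ → Plk4)
    (W B M a w1 w2 z0 ρ r κr E : ℝ), Cfg qm qp L P cu cv Uf Vf W B M a w1 w2 z0 ρ r κr E →
    C * W ^ C * κr ≤ 1 →
    (∀ c, (((P.filter fun s => cu s = c).image cv).card : ℝ) ≤ (C * B) ^ C * E ^ (1 + qp 0)) ∧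
    ∀ c, (((P.filter fun s => ∃ t ∈ P, cu t = c ∧ cv s = cv t).image cu).card : ℝ) ≤
      (C * B) ^ C * E ^ (1 + qp 0)

/-- **leaf P** : composition of the closeness of coefficients along a step `U t - V t - U t'`. -/
def LeafP : Prop := ∃ C : ℝ, 1 ≤ C ∧ ∀ (qm qp : Fin 3 → ℝ) (L : ℕ → Ln4) (P : Finset ℕ)
    (cu cv : ℕ → ℕ) (Uf Vf : ℕ → Plk4) (W B M a w1 w2 z0 ρ r κr E : ℝ),
    Cfg qm qp L P cu cv Uf Vf W B M a w1 w2 z0 ρ r κr E →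
    C * W ^ C * κr ≤ 1 → ∀ t ∈ P, ∀ t' ∈ P, cv t = cv t' →
      OmC (C * W ^ C) (C * W ^ C * (E * a)) (Uf (cu t)) (Uf (cu t')).q (L t) z0 ρ ∧
      OmC (C * W ^ C) (C * W ^ C * (E * a)) (Uf (cu t)) (Vf (cv t)).q (L t) z0 ρ

open Classical in
/-- **leaf D** (57, 876) : few boxes of nondegenerate points, pairs `U, V` and pairs `U, U'`. -/
def LeafD : Prop := ∃ C : ℝ, 1 ≤ C ∧ ∀ (qm qp : Fin 3 → ℝ) (L : ℕ → Ln4) (P : Finset ℕ)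
    (cu cv : ℕ → ℕ) (Uf Vf : ℕ → Plk4) (W B M a w1 w2 z0 ρ r κr E : ℝ),
    Cfg qm qp L P cu cv Uf Vf W B M a w1 w2 z0 ρ r κr E →
    C * W ^ C * κr ≤ 1 → ∀ H : ℕ, E ≤ H → (H : ℝ) ≤ 2 * E → ∀ lam m K : ℝ, 0 < lam → lam ≤ 1 →
    0 < m → m ≤ 1 → 1 ≤ K → ∀ c : ℕ, ∀ q' : ℝ → V3 → ℝ, IsQ q' → ∀ A : Finset (ℕ × ℕ),
      (∀ p ∈ A, p.1 ∈ P ∧ p.2 < H ∧ cu p.1 = c ∧ OmC K (K * (E * a)) (Uf c) q' (L p.1) z0 ρ ∧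
        |chF (Uf c) z0 ρ q' ((p.2 : ℝ) / H) (chX (Uf c) z0 ρ (L p.1) ((p.2 : ℝ) / H))| ≤ K * a ∧
        Nd lam m (E * a) (Uf c) z0 ρ q' ((p.2 : ℝ) / H)
          (chX (Uf c) z0 ρ (L p.1) ((p.2 : ℝ) / H))) →
      ((A.image fun p => (bxL (Uf c) z0 ρ H (L p.1) p.2, p.2)).card : ℝ) ≤
        (C * B * K / (lam * m)) ^ C * (H : ℝ) ^ 2

/-- **leaf V6** (601, 862) : the path. -/
def LeafV6 : Prop := ∃ C : ℝ, 1 ≤ C ∧ ∀ (qm qp : Fin 3 → ℝ) (L : ℕ → Ln4) (P : Finset ℕ)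
    (cu cv : ℕ → ℕ) (Uf Vf : ℕ → Plk4) (W B M a w1 w2 z0 ρ r κr E : ℝ),
    Cfg qm qp L P cu cv Uf Vf W B M a w1 w2 z0 ρ r κr E →
    C * W ^ C * κr ≤ 1 → ∀ H : ℕ, E ≤ H → (H : ℝ) ≤ 2 * E → ∀ x δ : ℝ, 0 < x → x ≤ 1 → 0 < δ →
    δ ≤ 1 → (C * B / δ) ^ C * x ≤ 1 → 1 ≤ x * H → ∀ t ∈ P, ∀ t' ∈ P, ∀ j : ℕ, j < H → cv t' = cv t →
      bxL (Vf (cv t)) z0 ρ H (L t') j = bxL (Vf (cv t)) z0 ρ H (L t) j →
      ¬ Nd x x (E * a) (Uf (cu t)) z0 ρ (Vf (cv t)).q ((j : ℝ) / H)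
        (chX (Uf (cu t)) z0 ρ (L t) ((j : ℝ) / H)) →
      ¬ Nd x x (E * a) (Uf (cu t')) z0 ρ (Vf (cv t')).q ((j : ℝ) / H)
        (chX (Uf (cu t')) z0 ρ (L t') ((j : ℝ) / H)) →
      ¬ Nd x x (E * a) (Uf (cu t)) z0 ρ (Uf (cu t')).q ((j : ℝ) / H)
        (chX (Uf (cu t)) z0 ρ (L t) ((j : ℝ) / H)) →
      ¬ Small δ (E * a) (Uf (cu t)) z0 ρ (Vf (cv t)).q ((j : ℝ) / H)
        (chX (Uf (cu t)) z0 ρ (L t) ((j : ℝ) / H)) →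
      ¬ Small δ (E * a) (Uf (cu t')) z0 ρ (Vf (cv t')).q ((j : ℝ) / H)
        (chX (Uf (cu t')) z0 ρ (L t') ((j : ℝ) / H)) →
      ¬ GenD ((C * B / δ) ^ C * x ^ (1 / C)) (E * a) (Uf (cu t)) z0 ρ (Vf (cv t)).q ((j : ℝ) / H)
        (chX (Uf (cu t)) z0 ρ (L t) ((j : ℝ) / H)) (chD (Uf (cu t)) ρ (L t'))

/-- **leaf V7** (818) : no three separated heights with small jets. `h` = separation. -/
def LeafV7 : Prop := ∃ C : ℝ, 1 ≤ C ∧ ∀ (qm qp : Fin 3 → ℝ) (L : ℕ → Ln4) (P : Finset ℕ)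
    (cu cv : ℕ → ℕ) (Uf Vf : ℕ → Plk4) (W B M a w1 w2 z0 ρ r κr E : ℝ),
    Cfg qm qp L P cu cv Uf Vf W B M a w1 w2 z0 ρ r κr E →
    C * W ^ C * κr ≤ 1 → ∀ h δ : ℝ, 0 < h → h ≤ 1 → 0 < δ → (C * B / h) ^ C * δ ≤ 1 →
    (C * B / h) ^ C ≤ E → ∀ t ∈ P, ∀ ζ0 ζ1 ζ2 : ℝ, 0 ≤ ζ0 → ζ0 + h ≤ ζ1 → ζ1 + h ≤ ζ2 → ζ2 ≤ 1 →
      ¬ (∀ ζ ∈ ({ζ0, ζ1, ζ2} : Set ℝ),
        (∀ i, |tgP (Uf (cu t)) z0 ρ (Vf (cv t)).q ζ (chX (Uf (cu t)) z0 ρ (L t) ζ) i| ≤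
          δ * (E * a)) ∧
        Small δ (E * a) (Uf (cu t)) z0 ρ (Vf (cv t)).q ζ (chX (Uf (cu t)) z0 ρ (L t) ζ))

/-- **leaf W** (262) : non-generic directions in the second sheet lie in 16 small balls (chart of
`V t`). -/
def LeafW : Prop := ∃ C : ℝ, 1 ≤ C ∧ ∀ (qm qp : Fin 3 → ℝ) (L : ℕ → Ln4) (P : Finset ℕ)
    (cu cv : ℕ → ℕ) (Uf Vf : ℕ → Plk4) (W B M a w1 w2 z0 ρ r κr E : ℝ),
    Cfg qm qp L P cu cv Uf Vf W B M a w1 w2 z0 ρ r κr E →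
    C * W ^ C * κr ≤ 1 → ∀ H : ℕ, E ≤ H → (H : ℝ) ≤ 2 * E → ∀ x δ : ℝ, 0 < x → x ≤ 1 → 0 < δ →
    δ ≤ 1 → (C * B / δ) ^ C * x ≤ 1 → 1 ≤ x * H → ∀ t ∈ P, ∀ j : ℕ, j < H →
      (∀ i, |tgP (Uf (cu t)) z0 ρ (Vf (cv t)).q ((j : ℝ) / H)
        (chX (Uf (cu t)) z0 ρ (L t) ((j : ℝ) / H)) i| ≤ x * (E * a)) →
      ¬ Small δ (E * a) (Uf (cu t)) z0 ρ (Vf (cv t)).q ((j : ℝ) / H)
        (chX (Uf (cu t)) z0 ρ (L t) ((j : ℝ) / H)) →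
      ∃ o : Fin 16 → ℝ × ℝ, ∀ t' ∈ P, cv t' = cv t →
        bxL (Vf (cv t)) z0 ρ H (L t') j = bxL (Vf (cv t)) z0 ρ H (L t) j →
        ¬ GenD x (E * a) (Uf (cu t)) z0 ρ (Vf (cv t)).q ((j : ℝ) / H)
          (chX (Uf (cu t)) z0 ρ (L t) ((j : ℝ) / H)) (chD (Uf (cu t)) ρ (L t')) →
        ∃ i, |chD (Vf (cv t)) ρ (L t') 1 - (o i).1| ≤ (C * B / δ) ^ C * x ^ (1 / C) ∧
          |chD (Vf (cv t)) ρ (L t') 2 - (o i).2| ≤ (C * B / δ) ^ C * x ^ (1 / C)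

end Crest.Agent.R136.Al121
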