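import Mathlib

/-!
# R136 (S0187): sheets of `ℝ × ℝ³` over a `z`-interval (helper605)

Lines `z ↦ p + z v` of `ℝ³`, quadratic functions `q (z, x)`, sheets `{x ∈ K_z, |q z x| ≤ a}` where
`K_z` is a box with orthonormal axes `e 0` (steep), `e 1`, `e 2` (base) around a centre line, and `q`
is steep in the direction `e 0`.
-/

set_option autoImplicit false
set_option linter.unusedVariables false

namespace Crest.Agent.R136.Sh605

open Finset

/-- vectors of `ℝ³` -/
abbrev V3 := Fin 3 → ℝ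

/-- scalar product -/
def dt (x y : V3) : ℝ := x 0 * y 0 + x 1 * y 1 + x 2 * y 2

/-- lines of `ℝ⁴`, graphs over the `z`-axis -/
structure Ln4 where
  /-- position at height `0` -/
  p : V3
  /-- velocity -/
  v : V3

/-- position at height `z` -/
def Ln4.pos (t : Ln4) (z : ℝ) : V3 := fun i => t.p i + z * t.v i

/-- polynomials of degree at most `2` in `(z, x)` -/
def IsQ (q : ℝ → V3 → ℝ) : Prop :=
  ∃ (c0 c1 c2 : ℝ) (b d : V3) (g : Fin 3 → Fin 3 → ℝ), ∀ z x,
    q z x = c0 + c1 * z + c2 * z ^ 2 + ∑ i, (b i + d i * z) * x i + ∑ i, ∑ j, g i j * (x i * x j)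

/-- the rows `e 0, e 1, e 2` are orthonormal -/
def Ortho (e : Fin 3 → V3) : Prop := ∀ i j, dt (e i) (e j) = if i = j then 1 else 0

/-- the box with axes `e`, half-widths `w`, around the centre line `c`, at height `z` -/
def InK (e : Fin 3 → V3) (c : Ln4) (w : V3) (z : ℝ) (x : V3) : Prop :=
  ∀ i, |dt (e i) (x - c.pos z)| ≤ w i

/-- `q` is steep in the direction `e 0` on the box, over the heights `[z0, z0 + ρ]` -/
def Steep (q : ℝ → V3 → ℝ) (e : Fin 3 → V3) (c : Ln4) (w : V3) (z0 ρ : ℝ) : Prop :=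
  ∀ z, z0 ≤ z → z ≤ z0 + ρ → ∀ (x : V3) (τ : ℝ), 0 ≤ τ → InK e c w z x →
    InK e c w z (x + τ • e 0) →
      τ / 2 ≤ q z (x + τ • e 0) - q z x ∧ q z (x + τ • e 0) - q z x ≤ 2 * τ

/-- the line `t` lies in the sheet over the heights `[z0, z0 + ρ]` -/
def InSheet (t : Ln4) (e : Fin 3 → V3) (c : Ln4) (w : V3) (q : ℝ → V3 → ℝ) (a z0 ρ : ℝ) : Prop :=
  ∀ z, z0 ≤ z → z ≤ z0 + ρ → InK e c w z (t.pos z) ∧ |q z (t.pos z)| ≤ a

/-- the box with doubled base -/
def dbl (w : V3) : V3 := ![w 0, 2 * w 1, 2 * w 2]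

/-- `q` is `Λ`-Lipschitz in `x` on the box, over the heights `[z0, z0 + ρ]` -/
def LipK (q : ℝ → V3 → ℝ) (e : Fin 3 → V3) (c : Ln4) (w : V3) (z0 ρ Λ : ℝ) : Prop :=
  ∀ z, z0 ≤ z → z ≤ z0 + ρ → ∀ x x' : V3, InK e c w z x → InK e c w z x' →
    |q z x - q z x'| ≤ Λ * (|x 0 - x' 0| + |x 1 - x' 1| + |x 2 - x' 2|)

/-- **the class of sheets** at resolution `r0`: orthonormal frame `e` (`e 0` steep), centre line `c`,
half-widths `w` (`w 0` = range of the chart, `w 1 ≥ w 2` = base), quadratic function `q`, steep on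
the doubled base, thickness `a` with `r0 (1 + Λ) ≤ a ≤ w 2 ≤ w 1`, `Λ` = Lipschitz constant of `q`
on the doubled base. -/
structure Sheet (e : Fin 3 → V3) (c : Ln4) (w : V3) (q : ℝ → V3 → ℝ) (a z0 ρ r0 : ℝ) : Prop where
  ortho : Ortho e
  isQ : IsQ q
  steep : Steep q e c (dbl w) z0 ρ
  a_le : a ≤ w 2
  w_le : w 2 ≤ w 1
  r0_le : r0 ≤ a
  res : ∃ Λ, 0 ≤ Λ ∧ LipK q e c (dbl w) z0 ρ Λ ∧ r0 * Λ ≤ a

open Classical in
/-- **D-max for sheets** with reward `R a (w 2) (w 1)` (e.g. `a ^ q3 * w2 ^ q2 * w1 ^ q1`) -/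
def DMaxR {ι : Type} (A : Finset ι) (L : ι → Ln4) (z0 ρ D : ℝ) (R : ℝ → ℝ → ℝ → ℝ)
    (r0 wmax : ℝ) : Prop :=
  ∀ (e : Fin 3 → V3) (c : Ln4) (w : V3) (q : ℝ → V3 → ℝ) (a : ℝ), Sheet e c w q a z0 ρ r0 →
    w 1 ≤ wmax →
    ((A.filter fun t => InSheet (L t) e c w q a z0 ρ).card : ℝ) ≤
      D * (a * w 2 * w 1 * R a (w 2) (w 1))

/-! ### linear algebra -/

theorem dt_comm (x y : V3) : dt x y = dt y x := by unfold dt; ring

theorem dt_add (x y z : V3) : dt x (y + z) = dt x y + dt x z := by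
  simp only [dt, Pi.add_apply]; ring

theorem dt_sub (x y z : V3) : dt x (y - z) = dt x y - dt x z := by
  simp only [dt, Pi.sub_apply]; ring

theorem dt_smul (x y : V3) (c : ℝ) : dt x (c • y) = c * dt x y := by
  simp only [dt, Pi.smul_apply, smul_eq_mul]; ring

theorem add_dt (x y z : V3) : dt (x + y) z = dt x z + dt y z := by
  simp only [dt, Pi.add_apply]; ring

theorem smul_dt (x y : V3) (c : ℝ) : dt (c • x) y = c * dt x y := by
  simp only [dt, Pi.smul_apply, smul_eq_mul]; ring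

/-- columns of an orthonormal matrix -/
theorem Ortho.col {e : Fin 3 → V3} (h : Ortho e) (j k : Fin 3) :
    e 0 j * e 0 k + e 1 j * e 1 k + e 2 j * e 2 k = if j = k then 1 else 0 := by
  have h1 : (Matrix.of e) * (Matrix.of e).transpose = 1 := by
    ext i j
    have := h i j
    simp only [dt] at this
    simp only [Matrix.mul_apply, Matrix.transpose_apply, Matrix.of_apply, Fin.sum_univ_three,
      Matrix.one_apply]
    exact this
  have h2 : (Matrix.of e).transpose * (Matrix.of e) = 1 := mul_eq_one_comm.1 h1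
  have h3 := congrFun (congrFun h2 j) k
  simp only [Matrix.mul_apply, Matrix.transpose_apply, Matrix.of_apply, Fin.sum_univ_three,
    Matrix.one_apply] at h3
  exact h3

/-- expansion in an orthonormal frame -/
theorem Ortho.expand {e : Fin 3 → V3} (h : Ortho e) (u : V3) (j : Fin 3) :
    u j = dt (e 0) u * e 0 j + dt (e 1) u * e 1 j + dt (e 2) u * e 2 j := by
  have h0 := h.col 0 j
  have h1 := h.col 1 j
  have h2 := h.col 2 j
  have : dt (e 0) u * e 0 j + dt (e 1) u * e 1 j + dt (e 2) u * e 2 j =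
      u 0 * (e 0 0 * e 0 j + e 1 0 * e 1 j + e 2 0 * e 2 j) +
      u 1 * (e 0 1 * e 0 j + e 1 1 * e 1 j + e 2 1 * e 2 j) +
      u 2 * (e 0 2 * e 0 j + e 1 2 * e 1 j + e 2 2 * e 2 j) := by
    simp only [dt]; ring
  rw [this, h0, h1, h2]
  fin_cases j <;> simp

/-- the `2 × 2` minors in the columns `1, 2` -/
theorem Ortho.minor {e : Fin 3 → V3} (h : Ortho e) {i j k : Fin 3} (hij : i ≠ j) (hik : i ≠ k)
    (hjk : j ≠ k) : (e i 1 * e j 2 - e i 2 * e j 1) ^ 2 = (e k 0) ^ 2 := by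
  have hi := h i i
  have hj := h j j
  have hd := h i j
  have hc := h.col 0 0
  simp only [dt, if_true, hij, if_false] at hi hj hd hc
  have hs : e i 0 * e i 0 + e j 0 * e j 0 + e k 0 * e k 0 = 1 := by
    fin_cases i <;> fin_cases j <;> fin_cases k <;> simp_all <;> linarith
  have e1 : (e i 1 * e j 2 - e i 2 * e j 1) ^ 2 =
      (e i 1 * e i 1 + e i 2 * e i 2) * (e j 1 * e j 1 + e j 2 * e j 2) -
        (e i 1 * e j 1 + e i 2 * e j 2) ^ 2 := by ring
  have e2 : e i 1 * e i 1 + e i 2 * e i 2 = 1 - e i 0 * e i 0 := by linarith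
  have e3 : e j 1 * e j 1 + e j 2 * e j 2 = 1 - e j 0 * e j 0 := by linarith
  have e4 : e i 1 * e j 1 + e i 2 * e j 2 = - (e i 0 * e j 0) := by linarith
  rw [e1, e2, e3, e4]
  nlinarith

end Crest.Agent.R136.Sh605
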