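import Mathlib
import Crest.Agent.R136.Sh1_605

/-!
# R136, PLAN 2 (3) (aligned curved pairs): the grid of a class (helper862)

Heights `zj z0 ρ H j = z0 + ρ j / H` and labels `gb e c w1 w2 z0 ρ H t j : ℤ × ℤ` = cell of the line
`t` at the height `z_j` in the grid of sides `w1 / H`, `w2 / H` of the frame `e 1`, `e 2` around `c`.

* `gb_close` : same label ⊢ the lateral differences are less than `w_k / H`;
* `gb_near`  : differences at most `r w_k / H` ⊢ the labels differ by at most `r + 1`;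
* `gb_card`  : at most `(2 B H + 3)^2` labels at one height on a class of extent `B w_k`;
* `gb_nbh`   : lines within `r w_k / H` of `t` have at most `(2 r + 3)^2` labels;
* `gb_change`: change of the frame (long axes within `W w2 / w1`).
* `gn`       : labels `(z, y1, y2)` in `Fin 3 → ℕ`.
-/

set_option autoImplicit false

namespace Crest.Agent.R136.Gbx862

open Finset Crest.Agent.R136.Sh605

/-! ### one dimension -/

theorem fl_close {x y w H : ℝ} (hw : 0 < w) (hH : 0 < H) (h : ⌊H * x / w⌋ = ⌊H * y / w⌋) :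
    |x - y| < w / H := by
  have h1 := Int.abs_sub_lt_one_of_floor_eq_floor h
  have h2 : H * x / w - H * y / w = (x - y) * (H / w) := by ring
  rw [h2, abs_mul, abs_of_pos (by positivity : 0 < H / w)] at h1
  rw [lt_div_iff₀ hH]
  have h3 : |x - y| * H = |x - y| * (H / w) * w := by field_simp
  rw [h3]
  nlinarith

theorem fl_near {x y w H r : ℝ} (hw : 0 < w) (hH : 0 < H) (h : |x - y| ≤ r * (w / H)) :
    |((⌊H * x / w⌋ : ℤ) : ℝ) - ((⌊H * y / w⌋ : ℤ) : ℝ)| ≤ r + 1 := by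
  have h1 := Int.floor_le (H * x / w)
  have h2 := Int.lt_floor_add_one (H * x / w)
  have h3 := Int.floor_le (H * y / w)
  have h4 := Int.lt_floor_add_one (H * y / w)
  have h5 : |H * x / w - H * y / w| ≤ r := by
    have : H * x / w - H * y / w = (x - y) * (H / w) := by ring
    rw [this, abs_mul, abs_of_pos (by positivity : 0 < H / w)]
    calc |x - y| * (H / w) ≤ r * (w / H) * (H / w) :=
          mul_le_mul_of_nonneg_right h (by positivity)
      _ = r := by field_simp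
  rw [abs_le] at h5 ⊢
  constructor <;> linarith [h5.1, h5.2]

theorem fl_range {x w H B : ℝ} (hw : 0 < w) (hH : 0 < H) (h : |x| ≤ B * w) :
    -(B * H + 1) ≤ ((⌊H * x / w⌋ : ℤ) : ℝ) ∧ ((⌊H * x / w⌋ : ℤ) : ℝ) ≤ B * H := by
  have h1 := Int.floor_le (H * x / w)
  have h2 := Int.lt_floor_add_one (H * x / w)
  have h5 : |H * x / w| ≤ B * H := by
    have : H * x / w = x * (H / w) := by ring
    rw [this, abs_mul, abs_of_pos (by positivity : 0 < H / w)]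
    calc |x| * (H / w) ≤ B * w * (H / w) := mul_le_mul_of_nonneg_right h (by positivity)
      _ = B * H := by field_simp
  rw [abs_le] at h5
  constructor <;> linarith [h5.1, h5.2]

/-- integers within `s` of `x` -/
theorem card_int {A : Finset ℤ} {x s : ℝ} (hs : 0 ≤ s) (h : ∀ m ∈ A, |(m : ℝ) - x| ≤ s) :
    (A.card : ℝ) ≤ 2 * s + 1 := by
  have h1 : A ⊆ Icc ⌈x - s⌉ ⌊x + s⌋ := by
    intro m hm
    have h2 := abs_le.1 (h m hm)
    rw [mem_Icc]
    exact ⟨Int.ceil_le.2 (by linarith [h2.1]), Int.le_floor.2 (by linarith [h2.2])⟩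
  have h3 : (A.card : ℝ) ≤ ((Icc ⌈x - s⌉ ⌊x + s⌋).card : ℝ) := by exact_mod_cast card_le_card h1
  refine h3.trans ?_
  rw [Int.card_Icc]
  have h4 := Int.floor_le (x + s)
  have h5 := Int.le_ceil (x - s)
  rcases le_or_gt 0 (⌊x + s⌋ + 1 - ⌈x - s⌉) with h6 | h6
  · have h7 : (((⌊x + s⌋ + 1 - ⌈x - s⌉).toNat : ℕ) : ℝ) = ((⌊x + s⌋ + 1 - ⌈x - s⌉ : ℤ) : ℝ) := by
      exact_mod_cast Int.toNat_of_nonneg h6
    rw [h7]; push_cast; linarith
  · rw [Int.toNat_of_nonpos h6.le]; push_cast; linarith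

/-- pairs of integers within `s` of `(x, y)` -/
theorem card_int2 {A : Finset (ℤ × ℤ)} {x y s : ℝ} (hs : 0 ≤ s)
    (h1 : ∀ m ∈ A, |(m.1 : ℝ) - x| ≤ s) (h2 : ∀ m ∈ A, |(m.2 : ℝ) - y| ≤ s) :
    (A.card : ℝ) ≤ (2 * s + 1) ^ 2 := by
  classical
  have h3 : A ⊆ (A.image Prod.fst) ×ˢ (A.image Prod.snd) := by
    intro m hm
    rw [mem_product]
    exact ⟨mem_image_of_mem _ hm, mem_image_of_mem _ hm⟩
  have h4 : (A.card : ℝ) ≤ ((A.image Prod.fst).card : ℝ) * ((A.image Prod.snd).card : ℝ) := by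
    have := card_le_card h3
    rw [card_product] at this
    exact_mod_cast this
  have h5 : ((A.image Prod.fst).card : ℝ) ≤ 2 * s + 1 := by
    refine card_int (x := x) hs fun m hm => ?_
    obtain ⟨p, hp, rfl⟩ := mem_image.1 hm
    exact h1 p hp
  have h6 : ((A.image Prod.snd).card : ℝ) ≤ 2 * s + 1 := by
    refine card_int (x := y) hs fun m hm => ?_
    obtain ⟨p, hp, rfl⟩ := mem_image.1 hm
    exact h2 p hp
  calc (A.card : ℝ) ≤ _ := h4
    _ ≤ (2 * s + 1) * (2 * s + 1) := mul_le_mul h5 h6 (by positivity) (by linarith)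
    _ = _ := by ring

/-! ### heights and labels -/

/-- the height number `j` of `H` -/
noncomputable def zj (z0 ρ : ℝ) (H j : ℕ) : ℝ := z0 + ρ * ((j : ℝ) / H)

theorem zj_mem {z0 ρ : ℝ} {H j : ℕ} (hρ : 0 ≤ ρ) (h : j ≤ H) :
    z0 ≤ zj z0 ρ H j ∧ zj z0 ρ H j ≤ z0 + ρ := by
  unfold zj
  have h0 : (0:ℝ) ≤ (j : ℝ) / H := by positivity
  have h1 : (j : ℝ) / H ≤ 1 := by
    rcases Nat.eq_zero_or_pos H with h2 | h2
    · subst h2; simp
    · rw [div_le_one (by exact_mod_cast h2)]; exact_mod_cast h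
  constructor
  · nlinarith
  · nlinarith

theorem zj_sub (z0 ρ : ℝ) (H i j : ℕ) :
    zj z0 ρ H i - zj z0 ρ H j = ρ * (((i : ℝ) - j) / H) := by
  unfold zj; ring

/-- lateral coordinate `k` of `t` relative to `c` at the height `z` -/
def lc (e : Fin 3 → V3) (c : Ln4) (k : Fin 3) (t : Ln4) (z : ℝ) : ℝ := dt (e k) (t.pos z - c.pos z)

theorem lc_sub (e : Fin 3 → V3) (c : Ln4) (k : Fin 3) (t t' : Ln4) (z : ℝ) :
    lc e c k t z - lc e c k t' z = dt (e k) (t.pos z - t'.pos z) := by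
  unfold lc; simp only [dt_sub]; ring

/-- the label of the line `t` at the height `z_j` -/
noncomputable def gb (e : Fin 3 → V3) (c : Ln4) (w1 w2 z0 ρ : ℝ) (H : ℕ) (t : Ln4) (j : ℕ) : ℤ × ℤ :=
  (⌊(H : ℝ) * lc e c 1 t (zj z0 ρ H j) / w1⌋, ⌊(H : ℝ) * lc e c 2 t (zj z0 ρ H j) / w2⌋)

section
variable {e : Fin 3 → V3} {c : Ln4} {w1 w2 z0 ρ : ℝ} {H : ℕ}

/-- same label ⊢ close -/
theorem gb_close (h1 : 0 < w1) (h2 : 0 < w2) (hH : 0 < H) {t t' : Ln4} {j : ℕ}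
    (h : gb e c w1 w2 z0 ρ H t j = gb e c w1 w2 z0 ρ H t' j) :
    |dt (e 1) (t.pos (zj z0 ρ H j) - t'.pos (zj z0 ρ H j))| < w1 / H ∧
    |dt (e 2) (t.pos (zj z0 ρ H j) - t'.pos (zj z0 ρ H j))| < w2 / H := by
  have hH' : (0:ℝ) < H := by exact_mod_cast hH
  unfold gb at h
  rw [Prod.mk.injEq] at h
  have a1 := fl_close h1 hH' h.1
  have a2 := fl_close h2 hH' h.2
  rw [lc_sub] at a1 a2
  exact ⟨a1, a2⟩

/-- close ⊢ labels near -/
theorem gb_near (h1 : 0 < w1) (h2 : 0 < w2) (hH : 0 < H) {t t' : Ln4} {j : ℕ} {r : ℝ}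
    (a1 : |dt (e 1) (t.pos (zj z0 ρ H j) - t'.pos (zj z0 ρ H j))| ≤ r * (w1 / H))
    (a2 : |dt (e 2) (t.pos (zj z0 ρ H j) - t'.pos (zj z0 ρ H j))| ≤ r * (w2 / H)) :
    |((gb e c w1 w2 z0 ρ H t j).1 : ℝ) - ((gb e c w1 w2 z0 ρ H t' j).1 : ℝ)| ≤ r + 1 ∧
    |((gb e c w1 w2 z0 ρ H t j).2 : ℝ) - ((gb e c w1 w2 z0 ρ H t' j).2 : ℝ)| ≤ r + 1 := by
  have hH' : (0:ℝ) < H := by exact_mod_cast hH
  rw [← lc_sub e c] at a1 a2
  exact ⟨fl_near h1 hH' a1, fl_near h2 hH' a2⟩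

open Classical in
/-- number of labels at one height -/
theorem gb_card (h1 : 0 < w1) (h2 : 0 < w2) (hH : 0 < H) {ι : Type} (L : ι → Ln4) (A : Finset ι)
    (j : ℕ) {B : ℝ} (hB : 0 ≤ B) (a1 : ∀ t ∈ A, |lc e c 1 (L t) (zj z0 ρ H j)| ≤ B * w1)
    (a2 : ∀ t ∈ A, |lc e c 2 (L t) (zj z0 ρ H j)| ≤ B * w2) :
    ((A.image fun t => gb e c w1 w2 z0 ρ H (L t) j).card : ℝ) ≤ (2 * (B * H) + 3) ^ 2 := by
  have hH' : (0:ℝ) < H := by exact_mod_cast hH
  have e1 : (2 * (B * H) + 3 : ℝ) ^ 2 = (2 * (B * H + 1) + 1) ^ 2 := by ring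
  rw [e1]
  refine card_int2 (x := 0) (y := 0) (by positivity) ?_ ?_
  · intro m hm
    obtain ⟨t, ht, rfl⟩ := mem_image.1 hm
    have := fl_range h1 hH' (a1 t ht)
    rw [sub_zero, abs_le]
    exact ⟨this.1, this.2.trans (by linarith)⟩
  · intro m hm
    obtain ⟨t, ht, rfl⟩ := mem_image.1 hm
    have := fl_range h2 hH' (a2 t ht)
    rw [sub_zero, abs_le]
    exact ⟨this.1, this.2.trans (by linarith)⟩

open Classical in
/-- number of labels of the lines near `t0` -/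
theorem gb_nbh (h1 : 0 < w1) (h2 : 0 < w2) (hH : 0 < H) {ι : Type} (L : ι → Ln4) (A : Finset ι)
    (t0 : Ln4) (j : ℕ) {r : ℝ} (hr : 0 ≤ r)
    (a1 : ∀ t ∈ A, |dt (e 1) ((L t).pos (zj z0 ρ H j) - t0.pos (zj z0 ρ H j))| ≤ r * (w1 / H))
    (a2 : ∀ t ∈ A, |dt (e 2) ((L t).pos (zj z0 ρ H j) - t0.pos (zj z0 ρ H j))| ≤ r * (w2 / H)) :
    ((A.image fun t => gb e c w1 w2 z0 ρ H (L t) j).card : ℝ) ≤ (2 * r + 3) ^ 2 := by
  have e1 : (2 * r + 3 : ℝ) ^ 2 = (2 * (r + 1) + 1) ^ 2 := by ring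
  rw [e1]
  refine card_int2 (x := ((gb e c w1 w2 z0 ρ H t0 j).1 : ℝ))
    (y := ((gb e c w1 w2 z0 ρ H t0 j).2 : ℝ)) (by positivity) ?_ ?_
  · intro m hm
    obtain ⟨t, ht, rfl⟩ := mem_image.1 hm
    exact (gb_near h1 h2 hH (a1 t ht) (a2 t ht)).1
  · intro m hm
    obtain ⟨t, ht, rfl⟩ := mem_image.1 hm
    exact (gb_near h1 h2 hH (a1 t ht) (a2 t ht)).2

open Classical in
/-- a set of lines with one label in every box has a popular box: passing from balls to boxes -/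
theorem gb_pop (h1 : 0 < w1) (h2 : 0 < w2) (hH : 0 < H) {ι : Type} (L : ι → Ln4) (A : Finset ι)
    (t0 : Ln4) (j : ℕ) {r m : ℝ} (hr : 0 ≤ r) (hm : 0 ≤ m)
    (a1 : ∀ t ∈ A, |dt (e 1) ((L t).pos (zj z0 ρ H j) - t0.pos (zj z0 ρ H j))| ≤ r * (w1 / H))
    (a2 : ∀ t ∈ A, |dt (e 2) ((L t).pos (zj z0 ρ H j) - t0.pos (zj z0 ρ H j))| ≤ r * (w2 / H))
    (hb : ∀ t ∈ A, ((A.filter fun t' => gb e c w1 w2 z0 ρ H (L t') j =
      gb e c w1 w2 z0 ρ H (L t) j).card : ℝ) ≤ m) :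
    (A.card : ℝ) ≤ (2 * r + 3) ^ 2 * m := by
  have h3 := gb_nbh (e := e) (c := c) h1 h2 hH L A t0 j hr a1 a2
  have h4 : (A.card : ℝ) ≤ ((A.image fun t => gb e c w1 w2 z0 ρ H (L t) j).card : ℝ) * m := by
    rw [card_eq_sum_card_image (fun t => gb e c w1 w2 z0 ρ H (L t) j) A]
    push_cast
    calc ∑ b ∈ A.image (fun t => gb e c w1 w2 z0 ρ H (L t) j),
          ((A.filter fun t => gb e c w1 w2 z0 ρ H (L t) j = b).card : ℝ)
        ≤ ∑ b ∈ A.image (fun t => gb e c w1 w2 z0 ρ H (L t) j), m := by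
          refine sum_le_sum fun b hb' => ?_
          obtain ⟨t, ht, rfl⟩ := mem_image.1 hb'
          exact hb t ht
      _ = _ := by rw [sum_const, nsmul_eq_mul]
  exact h4.trans (mul_le_mul_of_nonneg_right h3 hm)

end

/-! ### change of the frame -/

/-- a scalar product in an orthonormal frame -/
theorem dt_frame {e : Fin 3 → V3} (h : Ortho e) (f u : V3) :
    dt f u = dt f (e 0) * dt (e 0) u + dt f (e 1) * dt (e 1) u + dt f (e 2) * dt (e 2) u := by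
  have h0 := h.expand u 0
  have h1 := h.expand u 1
  have h2 := h.expand u 2
  have : dt f u = f 0 * u 0 + f 1 * u 1 + f 2 * u 2 := rfl
  rw [this, h0, h1, h2]
  simp only [dt]; ring

theorem dt_le_one {f g : V3} (hf : dt f f = 1) (hg : dt g g = 1) : |dt f g| ≤ 1 := by
  have h : dt f g ^ 2 ≤ 1 := by
    have h1 : dt f g ^ 2 ≤ dt f f * dt g g := by
      simp only [dt]
      nlinarith [sq_nonneg (f 0 * g 1 - f 1 * g 0), sq_nonneg (f 0 * g 2 - f 2 * g 0),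
        sq_nonneg (f 1 * g 2 - f 2 * g 1)]
    rw [hf, hg] at h1; linarith
  rw [← sq_le_one_iff_abs_le_one]; exact h

/-- lateral components in a frame with almost the same long axis -/
theorem dt_change {e f : Fin 3 → V3} (he : Ortho e) (hf : Ortho f) {w1 w2 W K s : ℝ} (hs : 0 ≤ s)
    (hw2 : 0 < w2) (hw : w2 ≤ w1) (hW : 0 ≤ W) (ht : |dt (f 2) (e 1)| * w1 ≤ W * w2) {u : V3}
    (u0 : |dt (e 0) u| ≤ K * (s * w2)) (u1 : |dt (e 1) u| ≤ s * w1) (u2 : |dt (e 2) u| ≤ s * w2) :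
    |dt (f 1) u| ≤ (K + 2) * (s * w1) ∧ |dt (f 2) u| ≤ (K + W + 1) * (s * w2) := by
  have n1 : ∀ i j, |dt (f i) (e j)| ≤ 1 := fun i j =>
    dt_le_one (by simpa using hf i i) (by simpa using he j j)
  have hsw1 : 0 ≤ s * w1 := by nlinarith
  have hsw2 : 0 ≤ s * w2 := by nlinarith
  have hle : s * w2 ≤ s * w1 := mul_le_mul_of_nonneg_left hw hs
  have hK : 0 ≤ K * (s * w2) := (abs_nonneg _).trans u0
  have tri : ∀ i, |dt (f i) u| ≤ |dt (f i) (e 0)| * |dt (e 0) u| + |dt (f i) (e 1)| * |dt (e 1) u| +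
      |dt (f i) (e 2)| * |dt (e 2) u| := by
    intro i
    rw [dt_frame he (f i) u, ← abs_mul, ← abs_mul, ← abs_mul]
    exact (abs_add_le _ _).trans (add_le_add_left (abs_add_le _ _) _)
  constructor
  · have h1 := tri 1
    have a0 : |dt (f 1) (e 0)| * |dt (e 0) u| ≤ 1 * (K * (s * w2)) :=
      mul_le_mul (n1 1 0) u0 (abs_nonneg _) (by norm_num)
    have a1 : |dt (f 1) (e 1)| * |dt (e 1) u| ≤ 1 * (s * w1) :=
      mul_le_mul (n1 1 1) u1 (abs_nonneg _) (by norm_num)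
    have a2 : |dt (f 1) (e 2)| * |dt (e 2) u| ≤ 1 * (s * w2) :=
      mul_le_mul (n1 1 2) u2 (abs_nonneg _) (by norm_num)
    rcases hsw2.eq_or_lt with h | h
    · have : K * (s * w2) = 0 := by rw [← h]; ring
      have h5 : K * (s * w2) ≤ K * (s * w1) ∨ s * w1 = 0 := by
        right
        have : s = 0 := by
          rcases mul_eq_zero.1 h.symm with h6 | h6
          · exact h6
          · exact absurd h6 hw2.ne'
        rw [this]; ring
      rcases h5 with h5 | h5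
      · nlinarith
      · rw [h5] at a1 ⊢; linarith
    · have hK' : 0 ≤ K := by
        by_contra hc
        push Not at hc
        nlinarith
      nlinarith [mul_le_mul_of_nonneg_left hle hK']
  · have h1 := tri 2
    have a0 : |dt (f 2) (e 0)| * |dt (e 0) u| ≤ 1 * (K * (s * w2)) :=
      mul_le_mul (n1 2 0) u0 (abs_nonneg _) (by norm_num)
    have a1 : |dt (f 2) (e 1)| * |dt (e 1) u| ≤ W * (s * w2) := by
      calc |dt (f 2) (e 1)| * |dt (e 1) u| ≤ |dt (f 2) (e 1)| * (s * w1) :=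
            mul_le_mul_of_nonneg_left u1 (abs_nonneg _)
        _ = s * (|dt (f 2) (e 1)| * w1) := by ring
        _ ≤ s * (W * w2) := mul_le_mul_of_nonneg_left ht hs
        _ = _ := by ring
    have a2 : |dt (f 2) (e 2)| * |dt (e 2) u| ≤ 1 * (s * w2) :=
      mul_le_mul (n1 2 2) u2 (abs_nonneg _) (by norm_num)
    linarith

open Classical in
/-- **change of the frame**: lines of one box of the frame `e` (heights over the tangent plane at most
`K w2 / H`) have at most `(2 (K + W + 2) + 3)^2` labels of the frame `f`. -/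
theorem gb_change {e f : Fin 3 → V3} (he : Ortho e) (hf : Ortho f) {c c' : Ln4}
    {w1 w2 z0 ρ W K : ℝ} {H : ℕ} (hw2 : 0 < w2) (hw : w2 ≤ w1) (hW : 0 ≤ W) (hK : 0 ≤ K)
    (ht : |dt (f 2) (e 1)| * w1 ≤ W * w2) (hH : 0 < H) {ι : Type} (L : ι → Ln4) (A : Finset ι)
    (t0 : Ln4) (j : ℕ)
    (hb : ∀ t ∈ A, gb e c w1 w2 z0 ρ H (L t) j = gb e c w1 w2 z0 ρ H t0 j)
    (h0 : ∀ t ∈ A, |dt (e 0) ((L t).pos (zj z0 ρ H j) - t0.pos (zj z0 ρ H j))| ≤ K * (w2 / H)) :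
    ((A.image fun t => gb f c' w1 w2 z0 ρ H (L t) j).card : ℝ) ≤ (2 * (K + W + 2) + 3) ^ 2 := by
  have hH' : (0:ℝ) < H := by exact_mod_cast hH
  have hw1 : 0 < w1 := hw2.trans_le hw
  have key : ∀ t ∈ A, |dt (f 1) ((L t).pos (zj z0 ρ H j) - t0.pos (zj z0 ρ H j))| ≤
      (K + W + 2) * (w1 / H) ∧ |dt (f 2) ((L t).pos (zj z0 ρ H j) - t0.pos (zj z0 ρ H j))| ≤
      (K + W + 2) * (w2 / H) := by
    intro t ht'
    have h3 := gb_close hw1 hw2 hH (hb t ht')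
    have h4 := dt_change he hf (w1 := w1) (w2 := w2) (W := W) (K := K) (s := 1 / (H : ℝ))
      (by positivity) hw2 hw hW ht (u := (L t).pos (zj z0 ρ H j) - t0.pos (zj z0 ρ H j))
      ((h0 t ht').trans (le_of_eq (by ring))) (h3.1.le.trans (le_of_eq (by ring)))
      (h3.2.le.trans (le_of_eq (by ring)))
    have p1 : 0 ≤ w1 / (H : ℝ) := by positivity
    have p2 : 0 ≤ w2 / (H : ℝ) := by positivity
    have e1 : (1 : ℝ) / H * w1 = w1 / H := by ring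
    have e2 : (1 : ℝ) / H * w2 = w2 / H := by ring
    rw [e1, e2] at h4
    exact ⟨h4.1.trans (mul_le_mul_of_nonneg_right (by linarith) p1),
      h4.2.trans (mul_le_mul_of_nonneg_right (by linarith) p2)⟩
  exact gb_nbh hw1 hw2 hH L A t0 j (by positivity) (fun t ht' => (key t ht').1)
    fun t ht' => (key t ht').2

/-! ### labels in `Fin 3 → ℕ` -/

/-- the label `(j, y1, y2)` shifted by `N` -/
def gn (N : ℕ) (b : (ℤ × ℤ) × ℕ) : Fin 3 → ℕ := ![b.2, (b.1.1 + N).toNat, (b.1.2 + N).toNat]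

theorem gn_inj {N : ℕ} {b b' : (ℤ × ℤ) × ℕ} (h1 : -(N : ℤ) ≤ b.1.1) (h2 : -(N : ℤ) ≤ b.1.2)
    (h1' : -(N : ℤ) ≤ b'.1.1) (h2' : -(N : ℤ) ≤ b'.1.2) (h : gn N b = gn N b') : b = b' := by
  have a0 := congrFun h 0
  have a1 := congrFun h 1
  have a2 := congrFun h 2
  simp only [gn, Matrix.cons_val_zero, Matrix.cons_val_one, Matrix.cons_val] at a0 a1 a2
  have c1 : b.1.1 = b'.1.1 := by omega
  have c2 : b.1.2 = b'.1.2 := by omega
  exact Prod.ext (Prod.ext c1 c2) a0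

theorem gn_one {N : ℕ} {b : (ℤ × ℤ) × ℕ} (h1 : -(N : ℤ) ≤ b.1.1) :
    ((gn N b 1 : ℕ) : ℝ) = (b.1.1 : ℝ) + N := by
  have : ((gn N b 1 : ℕ) : ℤ) = b.1.1 + N := by
    simp only [gn, Matrix.cons_val_one, Matrix.cons_val_zero, Matrix.cons_val]
    exact Int.toNat_of_nonneg (by omega)
  have h2 : (((gn N b 1 : ℕ) : ℤ) : ℝ) = ((b.1.1 + N : ℤ) : ℝ) := by rw [this]
  push_cast at h2; exact h2

theorem gn_two {N : ℕ} {b : (ℤ × ℤ) × ℕ} (h1 : -(N : ℤ) ≤ b.1.2) :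
    ((gn N b 2 : ℕ) : ℝ) = (b.1.2 : ℝ) + N := by
  have : ((gn N b 2 : ℕ) : ℤ) = b.1.2 + N := by
    simp only [gn, Matrix.cons_val]
    exact Int.toNat_of_nonneg (by omega)
  have h2 : (((gn N b 2 : ℕ) : ℤ) : ℝ) = ((b.1.2 + N : ℤ) : ℝ) := by rw [this]
  push_cast at h2; exact h2

theorem gn_zero {N : ℕ} {b : (ℤ × ℤ) × ℕ} : gn N b 0 = b.2 := by simp [gn]

/-- the real position of a line and its label -/
theorem lc_label {e : Fin 3 → V3} {c : Ln4} {w1 w2 z0 ρ : ℝ} {H : ℕ} (h1 : 0 < w1) (h2 : 0 < w2)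
    (hH : 0 < H) (t : Ln4) (j : ℕ) :
    |lc e c 1 t (zj z0 ρ H j) / w1 - ((gb e c w1 w2 z0 ρ H t j).1 : ℝ) / H| ≤ 1 / H ∧
    |lc e c 2 t (zj z0 ρ H j) / w2 - ((gb e c w1 w2 z0 ρ H t j).2 : ℝ) / H| ≤ 1 / H := by
  have hH' : (0:ℝ) < H := by exact_mod_cast hH
  have key : ∀ x w : ℝ, 0 < w → |x / w - ((⌊(H:ℝ) * x / w⌋ : ℤ) : ℝ) / H| ≤ 1 / H := by
    intro x w hw
    have a1 := Int.floor_le ((H:ℝ) * x / w)
    have a2 := Int.lt_floor_add_one ((H:ℝ) * x / w)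
    have e1 : x / w - ((⌊(H:ℝ) * x / w⌋ : ℤ) : ℝ) / H =
        ((H:ℝ) * x / w - ((⌊(H:ℝ) * x / w⌋ : ℤ) : ℝ)) / H := by field_simp
    rw [e1, abs_div, abs_of_pos hH']
    refine div_le_div_of_nonneg_right ?_ hH'.le
    rw [abs_le]; constructor <;> linarith
  exact ⟨key _ _ h1, key _ _ h2⟩

end Crest.Agent.R136.Gbx862
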