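import Crest.Agent.R136.Coi7_102

/-!
# R136 (S0187), U5: finite lemmas for the last assembly of the tilt block (helper102)

* `agree_mono` : monotonicity of `Agree`;
* `StP.steep`, `StP.lip` : offsets and values of two points of the doubled box;
* `angC`, `base_tilt` : lines of two sheets with a base tilt have velocities in one box;
* `agree_tiny` : `Agree` at a tiny scale.
-/

set_option autoImplicit false

namespace Crest.Agent.R136.Tl102

open Crest.Agent.R136.Sh605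
open Crest.Agent.R136.K4 (Plk4)
open Crest.Agent.R136.Deep51 (CoinC CloseC CoinC.anti dt_exp)
open Crest.Agent.R136.Tlt51 (CompC Agree Shp InP)

/-- monotonicity of `Agree` -/
theorem agree_mono {A A' E E' s s' lam : ℝ} {S S' : Plk4} {T : Ln4} {z0 ρ : ℝ}
    (h : Agree A E s lam S S' T z0 ρ) (hA : A ≤ A') (hE : E ≤ E') (hs : s' ≤ s) (hlam : 0 < lam)
    (hw : ∀ k, 0 ≤ S.w k) : Agree A' E' s' lam S S' T z0 ρ where
  coin := h.coin.anti hA
    (mul_le_mul_of_nonneg_right (div_le_div_of_nonneg_right hs hlam.le) (hw 1))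
    (mul_le_mul_of_nonneg_right hs (hw 2)) le_rfl le_rfl
  close := fun z h1 h2 x hx hq => (h.close z h1 h2 x hx hq).trans hE
  close' := fun z h1 h2 x hx hq => (h.close' z h1 h2 x hx hq).trans hE

/-! ### offsets and values -/

section
variable {e : Fin 3 → V3} {c : Ln4} {w : V3} {q : ℝ → V3 → ℝ} {z0 ρ : ℝ}

/-- one step, signed -/
theorem step_signed {i : Fin 3} {Lc z : ℝ}
    (h : ∀ (x : V3) (τ : ℝ), 0 ≤ τ → InK e c (dbl3 w) z x → InK e c (dbl3 w) z (x + τ • e i) →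
      |q z (x + τ • e i) - q z x| ≤ Lc * τ) {x : V3} {τ : ℝ} (hx : InK e c (dbl3 w) z x)
    (hy : InK e c (dbl3 w) z (x + τ • e i)) : |q z (x + τ • e i) - q z x| ≤ Lc * |τ| := by
  rcases le_total 0 τ with h0 | h0
  · rw [abs_of_nonneg h0]; exact h x τ h0 hx hy
  · have e1 : x + τ • e i + (-τ) • e i = x := by
      ext j; simp only [Pi.add_apply, Pi.smul_apply, smul_eq_mul]; ring
    have := h (x + τ • e i) (-τ) (by linarith) hy (by rw [e1]; exact hx)
    rw [e1] at this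
    rw [abs_of_nonpos h0, abs_sub_comm]
    exact this

/-- **steepness and Lipschitz bound on the doubled box** -/
theorem StP.path (S : StP e c w q z0 ρ) {z : ℝ} (hz0 : z0 ≤ z) (hz1 : z ≤ z0 + ρ) {x y : V3}
    (hx : InK e c (dbl3 w) z x) (hy : InK e c (dbl3 w) z y) :
    |q z y - q z x| ≤ 2 * |dt (e 0) (y - x)| + w 0 / w 1 * |dt (e 1) (y - x)| +
        w 0 / w 2 * |dt (e 2) (y - x)| ∧
      |dt (e 0) (y - x)| ≤ 2 * (|q z y - q z x| + w 0 / w 1 * |dt (e 1) (y - x)| +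
        w 0 / w 2 * |dt (e 2) (y - x)|) := by
  set t : Fin 3 → ℝ := fun i => dt (e i) (y - x) with ht
  have hye : y = x + t 1 • e 1 + t 2 • e 2 + t 0 • e 0 := by
    funext j
    have := S.ortho.expand (y - x) j
    simp only [Pi.sub_apply] at this
    simp only [Pi.add_apply, Pi.smul_apply, smul_eq_mul, ht]
    linarith
  set x1 : V3 := x + t 1 • e 1 with hx1
  set x2 : V3 := x1 + t 2 • e 2 with hx2
  have o : ∀ i j, dt (e i) (e j) = if i = j then 1 else 0 := S.ortho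
  have cy : ∀ i, dt (e i) (y - c.pos z) = dt (e i) (x - c.pos z) + t i := by
    intro i
    simp only [ht, dt_sub]; ring
  have c1 : ∀ i, dt (e i) (x1 - c.pos z) = dt (e i) (x - c.pos z) + t 1 * (if i = 1 then 1 else 0) := by
    intro i
    rw [hx1, dt_sub, dt_add, dt_smul, o, dt_sub]; ring
  have c2 : ∀ i, dt (e i) (x2 - c.pos z) = dt (e i) (x - c.pos z) + t 1 * (if i = 1 then 1 else 0) +
      t 2 * (if i = 2 then 1 else 0) := by
    intro i
    rw [hx2, hx1, dt_sub, dt_add, dt_add, dt_smul, dt_smul, o, o, dt_sub]; ring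
  have k1 : InK e c (dbl3 w) z x1 := by
    intro i
    rw [c1 i]
    fin_cases i
    · simpa using hx 0
    · have := hy 1
      rw [cy 1] at this
      simpa using this
    · simpa using hx 2
  have k2 : InK e c (dbl3 w) z x2 := by
    intro i
    rw [c2 i]
    fin_cases i
    · simpa using hx 0
    · have := hy 1
      rw [cy 1] at this
      simpa using this
    · have := hy 2
      rw [cy 2] at this
      simpa using this
  have s1 := step_signed (i := 1) (fun x τ hτ a b => S.st1 z hz0 hz1 x τ hτ a b) hx k1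
  have s2 := step_signed (i := 2) (fun x τ hτ a b => S.st2 z hz0 hz1 x τ hτ a b) k1 k2
  have k3 : InK e c (dbl3 w) z (x2 + t 0 • e 0) := by rw [← hye]; exact hy
  have s0 := step_signed (i := 0) (Lc := 2) (fun x τ hτ a b => by
    have := S.st0 z hz0 hz1 x τ hτ a b
    rw [abs_of_nonneg (by linarith)]
    exact this.2) k2 k3
  rw [← hye] at s0
  have s0' : |t 0| / 2 ≤ |q z y - q z x2| := by
    rcases le_total 0 (t 0) with h0 | h0
    · have := (S.st0 z hz0 hz1 x2 (t 0) h0 k2 k3).1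
      rw [← hye] at this
      rw [abs_of_nonneg h0]
      exact this.trans (le_abs_self _)
    · have e1 : y + (-t 0) • e 0 = x2 := by
        rw [hye]
        ext j; simp only [Pi.add_apply, Pi.smul_apply, smul_eq_mul]; ring
      have := (S.st0 z hz0 hz1 y (-t 0) (by linarith) hy (by rw [e1]; exact k2)).1
      rw [e1] at this
      rw [abs_of_nonpos h0, abs_sub_comm]
      exact this.trans (le_abs_self _)
  have a1 : |q z y - q z x| ≤ |q z y - q z x2| + |q z x2 - q z x1| + |q z x1 - q z x| := by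
    have : q z y - q z x = (q z y - q z x2) + (q z x2 - q z x1) + (q z x1 - q z x) := by ring
    rw [this]
    exact (abs_add_le _ _).trans (add_le_add (abs_add_le _ _) le_rfl)
  have a2 : |q z y - q z x2| ≤ |q z y - q z x| + |q z x2 - q z x1| + |q z x1 - q z x| := by
    have : q z y - q z x2 = (q z y - q z x) - (q z x2 - q z x1) - (q z x1 - q z x) := by ring
    rw [this]
    exact (abs_sub _ _).trans (add_le_add (abs_sub _ _) le_rfl)
  constructor
  · linarith
  · change |t 0| ≤ _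
    linarith

end

/-! ### base tilt -/

/-- sine of the angle of the long axes -/
noncomputable def angC (S S' : Plk4) : ℝ :=
  max (max |dt (S.e 1) (S'.e 0)| |dt (S.e 1) (S'.e 2)|)
    (max |dt (S.e 0) (S'.e 1)| |dt (S.e 2) (S'.e 1)|)

theorem parseval {e e' : Fin 3 → V3} (he : Ortho e) (he' : Ortho e') (i : Fin 3) :
    dt (e i) (e' 0) ^ 2 + dt (e i) (e' 1) ^ 2 + dt (e i) (e' 2) ^ 2 = 1 := by
  have h := dt_exp he' (e i) (e i)
  have h1 : dt (e i) (e i) = 1 := by simpa using he i i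
  rw [h1] at h
  rw [dt_comm (e' 0) (e i), dt_comm (e' 1) (e i), dt_comm (e' 2) (e i)] at h
  linarith

/-- the angle is seen by the transverse axes of the second sheet -/
theorem angC_le {S S' : Plk4} (he : Ortho S.e) (he' : Ortho S'.e) :
    angC S S' ≤ 2 * max |dt (S.e 1) (S'.e 0)| |dt (S.e 1) (S'.e 2)| := by
  set γ := max |dt (S.e 1) (S'.e 0)| |dt (S.e 1) (S'.e 2)| with hγ
  have g0 : |dt (S.e 1) (S'.e 0)| ≤ γ := le_max_left _ _
  have g2 : |dt (S.e 1) (S'.e 2)| ≤ γ := le_max_right _ _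
  have hγ0 : 0 ≤ γ := (abs_nonneg _).trans g0
  have p1 := parseval he he' 1
  have p2 := parseval he' he 1
  rw [dt_comm (S'.e 1) (S.e 0), dt_comm (S'.e 1) (S.e 1), dt_comm (S'.e 1) (S.e 2)] at p2
  have q0 : dt (S.e 1) (S'.e 0) ^ 2 ≤ γ ^ 2 := by
    rw [← sq_abs]; exact pow_le_pow_left₀ (abs_nonneg _) g0 2
  have q2 : dt (S.e 1) (S'.e 2) ^ 2 ≤ γ ^ 2 := by
    rw [← sq_abs]; exact pow_le_pow_left₀ (abs_nonneg _) g2 2
  have r : ∀ x : ℝ, x ^ 2 ≤ 2 * γ ^ 2 → |x| ≤ 2 * γ := by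
    intro x hx
    apply abs_le_of_sq_le_sq _ (by linarith)
    nlinarith [sq_nonneg γ]
  refine max_le (max_le (by linarith) (by linarith)) (max_le (r _ ?_) (r _ ?_))
  · nlinarith [sq_nonneg (dt (S.e 2) (S'.e 1))]
  · nlinarith [sq_nonneg (dt (S.e 0) (S'.e 1))]

/-- offset along the long axis of two common lines -/
theorem tilt_off {S S' : Plk4} (he : Ortho S.e) (he' : Ortho S'.e) {B : ℝ} {V : V3} (hB : 1 ≤ B)
    (w0 : 0 ≤ S.w 0) (w02 : S.w 0 ≤ S.w 2) (w02' : S'.w 0 ≤ S'.w 2) (hw2 : S'.w 2 ≤ B * S.w 2)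
    (h0 : |dt (S.e 0) V| ≤ 2 * S.w 0) (h2 : |dt (S.e 2) V| ≤ 2 * S.w 2)
    (h0' : |dt (S'.e 0) V| ≤ 2 * S'.w 0) (h2' : |dt (S'.e 2) V| ≤ 2 * S'.w 2) :
    angC S S' * |dt (S.e 1) V| ≤ 12 * B * S.w 2 := by
  have hang := angC_le he he'
  have w2 : 0 ≤ S.w 2 := w0.trans w02
  have hBw : S.w 2 ≤ B * S.w 2 := le_mul_of_one_le_left w2 hB
  have g : ∀ i, |dt (S'.e i) V| ≤ 2 * (B * S.w 2) →
      |dt (S.e 1) (S'.e i)| * |dt (S.e 1) V| ≤ 6 * (B * S.w 2) := by
    intro i hi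
    have e1 : dt (S.e 1) (S'.e i) * dt (S.e 1) V = dt (S'.e i) V - dt (S'.e i) (S.e 0) * dt (S.e 0) V -
        dt (S'.e i) (S.e 2) * dt (S.e 2) V := by
      have := dt_exp he (S'.e i) V
      rw [dt_comm (S.e 1) (S'.e i)]
      linarith
    rw [← abs_mul, e1]
    have k0 := dt_le_one he' he i 0
    have k2 := dt_le_one he' he i 2
    have k3 := Arc880.abs_sub2 (Arc880.abs_sub2 hi (mul_abs_le k0 h0)) (mul_abs_le k2 h2)
    linarith
  have g0 := g 0 (by linarith)
  have g2 := g 2 (by linarith)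
  have hm : max |dt (S.e 1) (S'.e 0)| |dt (S.e 1) (S'.e 2)| * |dt (S.e 1) V| ≤
      6 * (B * S.w 2) := by
    rcases max_cases |dt (S.e 1) (S'.e 0)| |dt (S.e 1) (S'.e 2)| with ⟨h, -⟩ | ⟨h, -⟩
    · rw [h]; exact g0
    · rw [h]; exact g2
  calc angC S S' * |dt (S.e 1) V| ≤
        2 * max |dt (S.e 1) (S'.e 0)| |dt (S.e 1) (S'.e 2)| * |dt (S.e 1) V| :=
        mul_le_mul_of_nonneg_right hang (abs_nonneg _)
    _ ≤ _ := by linarith

/-- **base tilt**: all common lines have velocities in one box -/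
theorem base_tilt {S S' : Plk4} {T : Ln4} {z0 ρ z1 ρ1 z2 ρ2 B lam r : ℝ} (hr : 0 < r)
    (hρ : 0 ≤ ρ) (hB : 1 ≤ B) (hS : Shp S z1 ρ1 r) (hS' : Shp S' z2 ρ2 r)
    (hw2 : S'.w 2 ≤ B * S.w 2)
    (hlam : 0 < lam) (hang : lam * S.w 2 ≤ 2 * (angC S S' * S.w 1))
    (hT : InP T S z0 ρ) (hT' : InP T S' z0 ρ) {t : Ln4} (ht : InP t S z0 ρ) (ht' : InP t S' z0 ρ) :
    |dt (S.e 1) (t.v - T.v)| * ρ ≤ 48 * B / lam * S.w 1 ∧
      |dt (S.e 2) (t.v - T.v)| * ρ ≤ 4 * S.w 2 := by
  have hw0 : 0 < S.w 0 := hr.trans_le (hS.r0_le.trans hS.a_le0)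
  have hw2p : 0 < S.w 2 := hw0.trans_le hS.w0_le
  have hw1p : 0 < S.w 1 := hw2p.trans_le hS.w_le
  have off : ∀ (R : Plk4), InP T R z0 ρ → InP t R z0 ρ → ∀ z, z0 ≤ z → z ≤ z0 + ρ → ∀ k,
      |dt (R.e k) (t.pos z - T.pos z)| ≤ 2 * R.w k := by
    intro R hTR htR z h1 h2 k
    have := Deep51.dt_tri (R.e k) (t.pos z) (T.pos z) (R.c.pos z)
    have k1 := (htR z h1 h2).1 k
    have k2 := (hTR z h1 h2).1 k
    rw [Deep51.dt_swap (R.e k) (R.c.pos z) (T.pos z)] at this
    linarith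
  have key : ∀ z, z0 ≤ z → z ≤ z0 + ρ → |dt (S.e 1) (t.pos z - T.pos z)| ≤ 24 * B / lam * S.w 1 := by
    intro z h1 h2
    have o := off S hT ht z h1 h2
    have o' := off S' hT' ht' z h1 h2
    have h := tilt_off hS.ortho hS'.ortho hB hw0.le hS.w0_le hS'.w0_le hw2 (o 0) (o 2) (o' 0) (o' 2)
    set x := |dt (S.e 1) (t.pos z - T.pos z)| with hx
    have hx0 : 0 ≤ x := abs_nonneg _
    -- lam w2 x ≤ 2 ang w1 x ≤ 24 B w2 w1
    have h3 : lam * S.w 2 * x ≤ 24 * B * S.w 2 * S.w 1 := by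
      calc lam * S.w 2 * x ≤ 2 * (angC S S' * S.w 1) * x := mul_le_mul_of_nonneg_right hang hx0
        _ = 2 * (angC S S' * x) * S.w 1 := by ring
        _ ≤ 2 * (12 * B * S.w 2) * S.w 1 := by gcongr
        _ = _ := by ring
    have h4 : lam * x ≤ 24 * B * S.w 1 := by
      have : S.w 2 * (lam * x) ≤ S.w 2 * (24 * B * S.w 1) := by linarith
      exact le_of_mul_le_mul_left this hw2p
    rw [div_mul_eq_mul_div, le_div_iff₀ hlam]
    linarith
  constructor
  · have := Deep51.abs_vel (x := S.e 1) hρ (key z0 le_rfl (by linarith))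
      (key (z0 + ρ) (by linarith) le_rfl)
    refine this.trans (le_of_eq (by ring))
  · exact Deep51.vel_lines hρ ht hT 2

end Crest.Agent.R136.Tl102
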