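import Crest.Agent.R136.Tlt1_51
import Crest.Agent.R136.KapP_335
import Crest.Agent.R136.Asm1_102
import Crest.Agent.R136.Phc_248

/-!
# R136 (S0187), PLAN 2 (tilt without deep levels): one-level data (helper102)

`Two1` : two systems of near-maximal sheets of common dimensions in one cell; D-max for all sheets
with two-sided exponents (`Phc248.phC`), no range. `Ex2` : the exponents.
-/

set_option autoImplicit false
set_option linter.unusedVariables false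

open Finset

namespace Crest.Agent.R136.Pl2W102

open Crest.Agent.R136.Sh605
open Crest.Agent.R136.K4 (Plk4)
open Crest.Agent.R136.Tlt51 (Shp InP)
open Crest.Agent.R136.Phc248 (ph phC)

/-- comparable up to `W` -/
def Near (W x y : ℝ) : Prop := x ≤ W * y ∧ y ≤ W * x

/-- the exponents of the two-sided D-max -/
structure Ex2 (η : ℝ) (qm qp : Fin 3 → ℝ) : Prop where
  le : ∀ k, 0 ≤ qm k ∧ qm k ≤ qp k
  pos : 0 < qm 2
  e02 : 2 * qp 0 ≤ qm 2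
  e1 : 8 * (qp 2 + qp 0) ≤ qm 1
  e00 : qp 0 ≤ η * qm 2 ^ 2
  e21 : qp 2 ≤ η * qm 1

open Classical in
/-- **two systems in one cell** : lines `L t`, `t ∈ P`; class labels `cu`, `cv`; sheets `Uf (cu t)`,
`Vf (cv t)`; dimensions `a, w1, w2` up to `W`; classes of size `M` up to `W`; D-max for all sheets of
length at most `ρ`. -/
structure Two1 (qm qp : Fin 3 → ℝ) (L : ℕ → Ln4) (P : Finset ℕ) (cu cv : ℕ → ℕ) (Uf Vf : ℕ → Plk4)
    (W M a w1 w2 z0 ρ r : ℝ) : Prop where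
  W1 : 1 ≤ W
  M0 : 0 < M
  r0 : 0 < r
  ρ0 : 0 < ρ
  a0 : 0 < a
  w10 : 0 < w1
  w20 : 0 < w2
  w1ρ : w1 ≤ W * ρ
  lg : Real.log (w1 / a) ≤ W
  vel : ∀ t ∈ P, ∀ i, |(L t).v i| ≤ 1
  shU : ∀ t ∈ P, Shp (Uf (cu t)) z0 ρ r
  shV : ∀ t ∈ P, Shp (Vf (cv t)) z0 ρ r
  inU : ∀ t ∈ P, InP (L t) (Uf (cu t)) z0 ρ
  inV : ∀ t ∈ P, InP (L t) (Vf (cv t)) z0 ρ
  dimU : ∀ t ∈ P, Near W a (Uf (cu t)).a ∧ Near W w1 ((Uf (cu t)).w 1) ∧
    Near W w2 ((Uf (cu t)).w 2)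
  dimV : ∀ t ∈ P, Near W a (Vf (cv t)).a ∧ Near W w1 ((Vf (cv t)).w 1) ∧
    Near W w2 ((Vf (cv t)).w 2)
  fullU : ∀ t ∈ P, M ≤ W * ((P.filter fun s => cu s = cu t).card : ℝ)
  fullV : ∀ t ∈ P, M ≤ W * ((P.filter fun s => cv s = cv t).card : ℝ)
  dmax : ∀ S : Plk4, Shp S z0 ρ r → S.w 1 ≤ ρ →
    ((P.filter fun t => InP (L t) S z0 ρ).card : ℝ) ≤
      W * M * phC qm qp a w1 w2 S.a (S.w 1) (S.w 2)

open Classical in
/-- `Two1` over a cell whose sheets and lines live over a longer cell `[zL, zL + ρL]` (helper685) -/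
structure Two7 (qm qp : Fin 3 → ℝ) (L : ℕ → Ln4) (P : Finset ℕ) (cu cv : ℕ → ℕ) (Uf Vf : ℕ → Plk4)
    (W M a w1 w2 z0 ρ zL ρL r : ℝ) : Prop where
  to1 : Two1 qm qp L P cu cv Uf Vf W M a w1 w2 z0 ρ r
  z1 : zL ≤ z0
  z2 : z0 + ρ ≤ zL + ρL
  l1 : 128 * ρ ≤ ρL
  l2 : ρL ≤ W * ρ
  shU : ∀ t ∈ P, Shp (Uf (cu t)) zL ρL r
  shV : ∀ t ∈ P, Shp (Vf (cv t)) zL ρL r
  inU : ∀ t ∈ P, InP (L t) (Uf (cu t)) zL ρL
  inV : ∀ t ∈ P, InP (L t) (Vf (cv t)) zL ρL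

end Crest.Agent.R136.Pl2W102
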