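import Crest.Agent.R136.Rk4_601
import Crest.Agent.R136.Gbx_862
import Crest.Agent.R136.Pl2W_102

/-!
# R136 (S0187), PLAN 2 (3) = (AL) (aligned curved pairs): definitions of record (helper601)

* `jt q f V z X ρ` : 2-jet of `q` at `(z, X)` in the coordinates
  `(y; ζ, u, v) ↦ (z + ρ ζ, X + ρ ζ V + y f₀ + u f₁ + v f₂)`, by finite differences (total).
* `jS S q z0 ρ H j T` : jet of `q` at the point of `T` at the height number `j` of `H`, chart of `S`.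
* `vS S ρ T` : velocity `(1, ..)` of `T` in the chart of `S`.
* `Nd`, `Sm`, `Gn` : nondegenerate / small / generic, `s` = discrepancy (a length `E a`).
-/

set_option autoImplicit false

namespace Crest.Agent.R136.AlD601

open Crest.Agent.R136.Sh605
open Crest.Agent.R136.Tl102 (cmb fr)
open Crest.Agent.R136.Rk601
open Crest.Agent.R136.K4 (Plk4)
open Crest.Agent.R136.Gbx862 (zj)

/-- `q` in the coordinates `(y; w)`, `w = (ζ, u, v)` -/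
def ch (q : ℝ → V3 → ℝ) (f : Fin 3 → V3) (V : V3) (z : ℝ) (X : V3) (ρ y : ℝ) (w : Fin 3 → ℝ) : ℝ :=
  q (z + ρ * w 0) (X + (ρ * w 0) • V + cmb f ![y, w 1, w 2])

/-- unit vectors -/
def ei : Fin 3 → Fin 3 → ℝ := ![![1, 0, 0], ![0, 1, 0], ![0, 0, 1]]

/-- **2-jet of `q` at `(z, X)`**, by finite differences -/
noncomputable def jt (q : ℝ → V3 → ℝ) (f : Fin 3 → V3) (V : V3) (z : ℝ) (X : V3) (ρ : ℝ) : Jt where
  a0 := (ch q f V z X ρ 1 0 - ch q f V z X ρ (-1) 0) / 2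
  a := fun i => (ch q f V z X ρ 0 (ei i) - ch q f V z X ρ 0 (-ei i)) / 2
  h00 := ch q f V z X ρ 1 0 + ch q f V z X ρ (-1) 0 - 2 * ch q f V z X ρ 0 0
  h0 := fun i => ch q f V z X ρ 1 (ei i) - ch q f V z X ρ 1 0 - ch q f V z X ρ 0 (ei i) +
    ch q f V z X ρ 0 0
  h := fun i j => ch q f V z X ρ 0 (ei i + ei j) - ch q f V z X ρ 0 (ei i) -
    ch q f V z X ρ 0 (ei j) + ch q f V z X ρ 0 0

theorem ch_eq {q : ℝ → V3 → ℝ} {f : Fin 3 → V3} {V : V3} {z : ℝ} {X : V3} {ρ : ℝ} {J : Jt}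
    (h : JetAt q f V z X ρ J) (y : ℝ) (w : Fin 3 → ℝ) : ch q f V z X ρ y w =
      q z X + J.a0 * y + dp J.a w + 1 / 2 * (J.h00 * y ^ 2 + 2 * y * dp J.h0 w + qf J.h w) := by
  have h1 := h y (w 0) (w 1) (w 2)
  have e : (![w 0, w 1, w 2] : Fin 3 → ℝ) = w := by
    funext i; fin_cases i <;> rfl
  rw [e] at h1
  exact h1

/-- the finite differences are the jet -/
theorem jt_eq {q : ℝ → V3 → ℝ} {f : Fin 3 → V3} {V : V3} {z : ℝ} {X : V3} {ρ : ℝ} {J : Jt}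
    (h : JetAt q f V z X ρ J) (hs : J.Sym) : jt q f V z X ρ = J := by
  have s10 := hs 1 0
  have s20 := hs 2 0
  have s21 := hs 2 1
  have e0 : (jt q f V z X ρ).a0 = J.a0 := by
    simp only [jt, ch_eq h, dp, qf, Fin.sum_univ_three, Pi.zero_apply]; ring
  have e1 : (jt q f V z X ρ).a = J.a := by
    funext i
    simp only [jt, ch_eq h, dp, qf, Fin.sum_univ_three, Pi.neg_apply]
    fin_cases i <;> simp [ei]
  have e2 : (jt q f V z X ρ).h00 = J.h00 := by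
    simp only [jt, ch_eq h, dp, qf, Fin.sum_univ_three, Pi.zero_apply]; ring
  have e3 : (jt q f V z X ρ).h0 = J.h0 := by
    funext i
    simp only [jt, ch_eq h, dp, qf, Fin.sum_univ_three, Pi.zero_apply]
    fin_cases i <;> simp [ei] <;> ring
  have e4 : (jt q f V z X ρ).h = J.h := by
    funext i j
    simp only [jt, ch_eq h, dp, qf, Fin.sum_univ_three, Pi.zero_apply, Pi.add_apply]
    fin_cases i <;> fin_cases j <;> simp [ei] <;> linarith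
  generalize jt q f V z X ρ = J' at e0 e1 e2 e3 e4
  obtain ⟨b0, b, k00, k0, k⟩ := J'
  simp only at e0 e1 e2 e3 e4
  rw [e0, e1, e2, e3, e4]

theorem jt_jet {q : ℝ → V3 → ℝ} (hq : IsQ q) (f : Fin 3 → V3) (V : V3) (z : ℝ) (X : V3) (ρ : ℝ) :
    JetAt q f V z X ρ (jt q f V z X ρ) ∧ (jt q f V z X ρ).Sym := by
  obtain ⟨J, hs, hJ⟩ := exists_jet hq f V z X ρ
  rw [jt_eq hJ hs]
  exact ⟨hJ, hs⟩

/-- jet of `q` at the point of `T` at the height number `j` of `H`, in the chart of `S` -/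
noncomputable def jS (S : Plk4) (q : ℝ → V3 → ℝ) (z0 ρ : ℝ) (H j : ℕ) (T : Ln4) : Jt :=
  jt q (fr S.e S.w) S.c.v (zj z0 ρ H j) (T.pos (zj z0 ρ H j)) ρ

/-- velocity of `T` in the chart of `S` (tangential coordinates) -/
noncomputable def vS (S : Plk4) (ρ : ℝ) (T : Ln4) : Fin 3 → ℝ :=
  ![1, ρ * dt (S.e 1) (T.v - S.c.v) / S.w 1, ρ * dt (S.e 2) (T.v - S.c.v) / S.w 2]

/-- **nondegenerate point** of the restriction of `q'` to the sheet `S`, at the scale `s` -/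
def Nd (S : Plk4) (q' : ℝ → V3 → ℝ) (z0 ρ : ℝ) (H j : ℕ) (T : Ln4) (l m s : ℝ) : Prop :=
  (∃ i, l * s < |tg (jS S S.q z0 ρ H j T) (jS S q' z0 ρ H j T) i|) ∨
    ∃ i j' k k', m * s ^ 2 <
      |mn (th (jS S S.q z0 ρ H j T) (jS S q' z0 ρ H j T)) i j' k k'|

/-- small Hessian -/
def Sm (S : Plk4) (q' : ℝ → V3 → ℝ) (z0 ρ : ℝ) (H j : ℕ) (T : Ln4) (k s : ℝ) : Prop :=
  ∀ i j', |th (jS S S.q z0 ρ H j T) (jS S q' z0 ρ H j T) i j'| ≤ k * s

/-- the line `T'` is generic at the point of `T` -/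
def Gn (S : Plk4) (q' : ℝ → V3 → ℝ) (z0 ρ : ℝ) (H j : ℕ) (T T' : Ln4) (k g s : ℝ) : Prop :=
  Sm S q' z0 ρ H j T k s ∨
    ∃ i, g * s < |∑ j', th (jS S S.q z0 ρ H j T) (jS S q' z0 ρ H j T) i j' * vS S ρ T' j'|

/-- `Nd` is monotone in the thresholds -/
theorem Nd.mono {S : Plk4} {q' : ℝ → V3 → ℝ} {z0 ρ : ℝ} {H j : ℕ} {T : Ln4} {l l' m m' s : ℝ}
    (hs : 0 ≤ s) (hl : l' ≤ l) (hm : m' ≤ m) (h : Nd S q' z0 ρ H j T l m s) :
    Nd S q' z0 ρ H j T l' m' s := by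
  rcases h with ⟨i, h⟩ | ⟨i, j', k, k', h⟩
  · exact Or.inl ⟨i, lt_of_le_of_lt (mul_le_mul_of_nonneg_right hl hs) h⟩
  · exact Or.inr ⟨i, j', k, k', lt_of_le_of_lt (mul_le_mul_of_nonneg_right hm (sq_nonneg s)) h⟩

theorem not_Nd {S : Plk4} {q' : ℝ → V3 → ℝ} {z0 ρ : ℝ} {H j : ℕ} {T : Ln4} {l m s : ℝ} :
    ¬ Nd S q' z0 ρ H j T l m s ↔
      (∀ i, |tg (jS S S.q z0 ρ H j T) (jS S q' z0 ρ H j T) i| ≤ l * s) ∧
      ∀ i j' k k', |mn (th (jS S S.q z0 ρ H j T) (jS S q' z0 ρ H j T)) i j' k k'| ≤ m * s ^ 2 := by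
  unfold Nd
  push Not
  exact Iff.rfl

theorem not_Gn {S : Plk4} {q' : ℝ → V3 → ℝ} {z0 ρ : ℝ} {H j : ℕ} {T T' : Ln4} {k g s : ℝ} :
    ¬ Gn S q' z0 ρ H j T T' k g s ↔ ¬ Sm S q' z0 ρ H j T k s ∧
      ∀ i, |∑ j', th (jS S S.q z0 ρ H j T) (jS S q' z0 ρ H j T) i j' * vS S ρ T' j'| ≤ g * s := by
  unfold Gn
  push Not
  exact Iff.rfl

end Crest.Agent.R136.AlD601
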