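import Crest.Agent.R136.Vq3_571
import Crest.Agent.R136.Tlt1_51

/-!
# R136, PLAN 2 (3), volume form: (KMb) for a system of sheets (helper571)

* `chp`, `chv` : base chart of a sheet `S` over the cell `[z0, z0 + ρ]`: the coordinates along `e 1`,
  `e 2` of the line relative to the centre, in units `w 1`, `w 2`, at the middle of the cell, and
  their increment over half of the cell.
* `kmb_sh` : (KMb) for all sheets of a system: outside `θ H #P` incidences, the good lines of the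
  class within `K w k / H` at the height `z0 + ρ j / H` and with velocities within `K b w k / ρ` are at
  most `(3 K W)^6 m`; `kmb_num` : the same with numbers.
-/

set_option autoImplicit false
set_option linter.unusedVariables false

open Finset

namespace Crest.Agent.R136.Vq571

open Crest.Agent.R138.Defs (E2)
open Crest.Agent.R136.Slb480 (ps km3_mult)
open Crest.Agent.R138.Tub70 (InPl KM32)
open Crest.Agent.R136.Sh605
open Crest.Agent.R136.K4 (Plk4)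
open Crest.Agent.R136.Tlt51 (Shp InP)

/-- position of the line in the base chart of `S`, at the middle of the cell -/
noncomputable def chp (S : Plk4) (z0 ρ : ℝ) (t : Ln4) : E2 :=
  !₂[dt (S.e 1) (t.pos (z0 + ρ / 2) - S.c.pos (z0 + ρ / 2)) / S.w 1,
    dt (S.e 2) (t.pos (z0 + ρ / 2) - S.c.pos (z0 + ρ / 2)) / S.w 2]

/-- velocity of the line in the base chart of `S`, unit of height `ρ / 2` -/
noncomputable def chv (S : Plk4) (z0 ρ : ℝ) (t : Ln4) : E2 :=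
  !₂[ρ / 2 * dt (S.e 1) (t.v - S.c.v) / S.w 1, ρ / 2 * dt (S.e 2) (t.v - S.c.v) / S.w 2]

theorem ch_zero (S : Plk4) (z0 ρ ζ : ℝ) (t : Ln4) :
    (chp S z0 ρ t + ζ • chv S z0 ρ t) 0 =
      dt (S.e 1) (t.pos (z0 + ρ / 2 + ρ / 2 * ζ) - S.c.pos (z0 + ρ / 2 + ρ / 2 * ζ)) / S.w 1 := by
  simp only [chp, chv, PiLp.add_apply, PiLp.smul_apply, smul_eq_mul, Matrix.cons_val_zero, dt,
    Ln4.pos, Pi.sub_apply]
  ring

theorem ch_one (S : Plk4) (z0 ρ ζ : ℝ) (t : Ln4) :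
    (chp S z0 ρ t + ζ • chv S z0 ρ t) 1 =
      dt (S.e 2) (t.pos (z0 + ρ / 2 + ρ / 2 * ζ) - S.c.pos (z0 + ρ / 2 + ρ / 2 * ζ)) / S.w 2 := by
  simp only [chp, chv, PiLp.add_apply, PiLp.smul_apply, smul_eq_mul, Matrix.cons_val_one,
    Matrix.cons_val_zero, dt, Ln4.pos, Pi.sub_apply]
  ring

theorem ch_bd {S : Plk4} {z0 ρ : ℝ} {t : Ln4} (hρ : 0 ≤ ρ) (h1 : 0 < S.w 1) (h2 : 0 < S.w 2)
    (h : InP t S z0 ρ) : ‖chp S z0 ρ t‖ ≤ 2 ∧ ‖chv S z0 ρ t‖ ≤ 2 := by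
  have key : ∀ ζ : ℝ, |ζ| ≤ 1 → |(chp S z0 ρ t + ζ • chv S z0 ρ t) 0| ≤ 1 ∧
      |(chp S z0 ρ t + ζ • chv S z0 ρ t) 1| ≤ 1 := by
    intro ζ hζ
    obtain ⟨a1, a2⟩ := abs_le.1 hζ
    have hz := h (z0 + ρ / 2 + ρ / 2 * ζ) (by nlinarith) (by nlinarith)
    rw [ch_zero, ch_one, abs_div, abs_div, abs_of_pos h1, abs_of_pos h2, div_le_one h1,
      div_le_one h2]
    exact ⟨hz.1 1, hz.1 2⟩
  have k0 := key 0 (by simp)
  have k1 := key 1 (by simp)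
  have k2 := key (-1) (by simp)
  simp only [zero_smul, add_zero] at k0
  simp only [PiLp.add_apply, PiLp.smul_apply, smul_eq_mul, one_mul, neg_mul] at k1 k2
  constructor
  · exact (norm_le_coord _ 1 (by norm_num) k0.1 k0.2).trans (by norm_num)
  · refine (norm_le_coord _ 1 (by norm_num) ?_ ?_).trans (by norm_num)
    · have a := abs_le.1 k1.1
      have b := abs_le.1 k2.1
      rw [abs_le]
      constructor <;> linarith
    · have a := abs_le.1 k1.2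
      have b := abs_le.1 k2.2
      rw [abs_le]
      constructor <;> linarith

theorem pos_aux {x K w H W0 s : ℝ} (hH : 0 < H) (hs : 0 < s) (hK : 0 ≤ K) (h : x ≤ K * w / H)
    (hw : w ≤ W0 * s) : x / s ≤ K * W0 / H := by
  rw [div_le_iff₀ hs]
  refine h.trans ?_
  rw [div_mul_eq_mul_div]
  refine div_le_div_of_nonneg_right ?_ hH.le
  rw [mul_assoc]
  exact mul_le_mul_of_nonneg_left hw hK

theorem vel_aux {ρ x K b w W0 s : ℝ} (hs : 0 < s) (hK : 0 ≤ K) (hb : 0 ≤ b) (hW : 0 ≤ W0)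
    (h : x * ρ ≤ K * b * w) (hw : w ≤ W0 * s) : ρ / 2 * x / s ≤ K * W0 * b := by
  rw [div_le_iff₀ hs]
  have h1 : K * b * w ≤ K * b * (W0 * s) := mul_le_mul_of_nonneg_left hw (mul_nonneg hK hb)
  have h2 : 0 ≤ K * b * (W0 * s) := mul_nonneg (mul_nonneg hK hb) (mul_nonneg hW hs.le)
  have e1 : ρ / 2 * x = x * ρ / 2 := by ring
  have e2 : K * W0 * b * s = K * b * (W0 * s) := by ring
  rw [e1, e2]
  linarith

open Classical in
/-- **(KMb) for a system of sheets.** -/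
theorem kmb_sh (hKM : ∀ V : ℝ, KM32 V) (ε : ℝ) (hε : 0 < ε) :
    ∃ C : ℝ, 0 < C ∧ ∀ H : ℕ, 4 ≤ H → ∀ (ι κ : Type) (P : Finset ι) (u : ι → κ)
      (L : ι → Ln4) (Sf : κ → Plk4) (J : Finset ℕ) (z0 ρ w1 w2 W0 m θ W M q b : ℝ), 0 ≤ ρ →
      0 < m → 0 < θ → 0 ≤ W → 0 ≤ M → 0 ≤ q → 3 / (H : ℝ) ≤ b → b ≤ 1 → 1 ≤ W0 →
      (∀ t ∈ P, InP (L t) (Sf (u t)) z0 ρ ∧ 0 < (Sf (u t)).w 1 ∧ 0 < (Sf (u t)).w 2 ∧
        w1 ≤ W0 * (Sf (u t)).w 1 ∧ w2 ≤ W0 * (Sf (u t)).w 2) → (∀ j ∈ J, j ≤ H) →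
      (∀ (c : κ) (e : OrthonormalBasis (Fin 2) ℝ E2) (s : Fin 2 → ℝ) (p0 v0 : E2),
        (∀ j, 1 / (H : ℝ) ≤ s j ∧ s j ≤ 1) →
        ((P.filter fun t => u t = c ∧
          InPl e s p0 v0 (chp (Sf c) z0 ρ (L t)) (chv (Sf c) z0 ρ (L t))).card : ℝ) ≤
          W * (s 0 * s 1) * (max (s 0) (s 1)) ^ q * M) →
      C * (H : ℝ) ^ ε * W * b ^ q * M ≤ m * θ ^ 2 * (H : ℝ) ^ 2 →
      ∃ B ⊆ P ×ˢ J, (B.card : ℝ) ≤ θ * H * P.card ∧ ∀ K : ℝ, 1 ≤ K → ∀ x ∈ P ×ˢ J, x ∉ B →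
        ∀ G : Finset (ι × ℕ), (∀ y ∈ G, y ∈ P ×ˢ J ∧ y ∉ B ∧ y.2 = x.2 ∧ u y.1 = u x.1 ∧
          |dt ((Sf (u x.1)).e 1) ((L y.1).pos (z0 + ρ * (x.2 / H)) -
            (L x.1).pos (z0 + ρ * (x.2 / H)))| ≤ K * w1 / H ∧
          |dt ((Sf (u x.1)).e 2) ((L y.1).pos (z0 + ρ * (x.2 / H)) -
            (L x.1).pos (z0 + ρ * (x.2 / H)))| ≤ K * w2 / H ∧
          |dt ((Sf (u x.1)).e 1) ((L y.1).v - (L x.1).v)| * ρ ≤ K * b * w1 ∧
          |dt ((Sf (u x.1)).e 2) ((L y.1).v - (L x.1).v)| * ρ ≤ K * b * w2) →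
        (G.card : ℝ) ≤ (3 * K * W0) ^ 6 * m := by
  obtain ⟨C, hC, key⟩ := kmb_sys hKM 2 (by norm_num) ε hε
  refine ⟨C, hC, ?_⟩
  intro H hH ι κ P u L Sf J z0 ρ w1 w2 W0 m θ W M q b hρ hm hθ hW hM hq hb3 hb1 hW0 hin hJ hpl hlt
  have hH4 : (4 : ℝ) ≤ H := by exact_mod_cast hH
  have hH0 : (0 : ℝ) < H := by linarith
  have hb : 0 < b := lt_of_lt_of_le (by positivity) hb3
  set p : ι → E2 := fun t => chp (Sf (u t)) z0 ρ (L t) with hp
  set v : ι → E2 := fun t => chv (Sf (u t)) z0 ρ (L t) with hv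
  set hz : ℕ → ℤ := fun j => 2 * (j : ℤ) - H with hhz
  have hinj : Function.Injective hz := by
    intro i j h
    simp only [hhz] at h
    omega
  have hzr : ∀ j : ℕ, ((hz j : ℤ) : ℝ) / H = 2 * (j / H) - 1 := by
    intro j
    simp only [hhz]
    push_cast
    field_simp
  obtain ⟨B, hB, hBc, hgood⟩ := key H (by omega) (by linarith) ι κ P u p v J hz m θ W M q b hinj
    hm hθ hW hM hq hb3 hb1
    (fun t ht => by
      obtain ⟨a1, a2, a3, _, _⟩ := hin t ht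
      exact ch_bd hρ a2 a3 a1)
    (fun j hj => by
      have := hJ j hj
      simp only [hhz, abs_le]
      constructor <;> omega)
    (fun c e s p0 v0 hs => by
      refine le_trans (le_of_eq ?_) (hpl c e s p0 v0 hs)
      congr 2
      ext t
      simp only [mem_filter, hp, hv]
      constructor
      · rintro ⟨h1, h2, h3⟩
        rw [h2] at h3
        exact ⟨h1, h2, h3⟩
      · rintro ⟨h1, h2, h3⟩
        refine ⟨h1, h2, ?_⟩
        rw [h2]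
        exact h3)
    hlt
  refine ⟨B, hB, hBc, ?_⟩
  intro K hK x hx hxB G hG
  have hxP : x.1 ∈ P := (mem_product.1 hx).1
  obtain ⟨_, x1, x2, x3, x4⟩ := hin x.1 hxP
  have hK0 : 0 ≤ K := by linarith
  have hW00 : 0 ≤ W0 := by linarith
  set K' : ℕ := ⌈3 / 2 * K * W0⌉₊ with hK'
  have hKW : 1 ≤ K * W0 := one_le_mul_of_one_le_of_one_le hK hW0
  have hK'1 : 3 / 2 * K * W0 ≤ (K' : ℝ) := Nat.le_ceil _
  have hK'2 : (K' : ℝ) ≤ 3 * K * W0 := by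
    have := Nat.ceil_lt_add_one (a := 3 / 2 * K * W0) (by nlinarith)
    have h2 : (K' : ℝ) < 3 / 2 * K * W0 + 1 := this
    nlinarith
  have hK'0 : 1 ≤ K' := by
    have : (1 : ℝ) ≤ (K' : ℝ) := by nlinarith
    exact_mod_cast this
  have hfin := hgood K' hK'0 x hx hxB G (fun y hy => by
    obtain ⟨y1, y2, y3, y4, y5, y6, y7, y8⟩ := hG y hy
    refine ⟨y1, y2, y3, y4, ?_, ?_⟩
    · have e1 : z0 + ρ / 2 + ρ / 2 * (2 * ((x.2 : ℝ) / H) - 1) = z0 + ρ * (x.2 / H) := by ring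
      have d1 : (ps p v y.1 (hz x.2 / H) - ps p v x.1 (hz x.2 / H)) 0 =
          dt ((Sf (u x.1)).e 1) ((L y.1).pos (z0 + ρ * (x.2 / H)) -
            (L x.1).pos (z0 + ρ * (x.2 / H))) / (Sf (u x.1)).w 1 := by
        rw [hzr]
        simp only [ps, hp, hv, y4]
        rw [PiLp.sub_apply, ch_zero, ch_zero, e1]
        simp only [dt, Pi.sub_apply]
        ring
      have d2 : (ps p v y.1 (hz x.2 / H) - ps p v x.1 (hz x.2 / H)) 1 =
          dt ((Sf (u x.1)).e 2) ((L y.1).pos (z0 + ρ * (x.2 / H)) -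
            (L x.1).pos (z0 + ρ * (x.2 / H))) / (Sf (u x.1)).w 2 := by
        rw [hzr]
        simp only [ps, hp, hv, y4]
        rw [PiLp.sub_apply, ch_one, ch_one, e1]
        simp only [dt, Pi.sub_apply]
        ring
      refine (norm_le_coord _ (K * W0 / H) (by positivity) ?_ ?_).trans ?_
      · rw [d1, abs_div, abs_of_pos x1]
        exact pos_aux hH0 x1 hK0 y5 x3
      · rw [d2, abs_div, abs_of_pos x2]
        exact pos_aux hH0 x2 hK0 y6 x4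
      · rw [← mul_div_assoc]
        gcongr
        linarith
    · have d1 : (v y.1 - v x.1) 0 = ρ / 2 * dt ((Sf (u x.1)).e 1) ((L y.1).v - (L x.1).v) /
          (Sf (u x.1)).w 1 := by
        simp only [hv, y4, chv, PiLp.sub_apply, Matrix.cons_val_zero, dt, Pi.sub_apply]
        ring
      have d2 : (v y.1 - v x.1) 1 = ρ / 2 * dt ((Sf (u x.1)).e 2) ((L y.1).v - (L x.1).v) /
          (Sf (u x.1)).w 2 := by
        simp only [hv, y4, chv, PiLp.sub_apply, Matrix.cons_val_one, Matrix.cons_val_zero, dt,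
          Pi.sub_apply]
        ring
      refine (norm_le_coord _ (K * W0 * b) (by positivity) ?_ ?_).trans ?_
      · rw [d1, abs_div, abs_of_pos x1, abs_mul, abs_of_nonneg (by linarith : 0 ≤ ρ / 2)]
        exact vel_aux x1 hK0 hb.le hW00 y7 x3
      · rw [d2, abs_div, abs_of_pos x2, abs_mul, abs_of_nonneg (by linarith : 0 ≤ ρ / 2)]
        exact vel_aux x2 hK0 hb.le hW00 y8 x4
      · rw [← mul_assoc]
        gcongr
        linarith)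
  refine hfin.trans ?_
  gcongr

open Classical in
/-- **(KMb) with numbers**: `θ = H^-ε`, multiplicity `H^(4ε) b^q M / H²`. -/
theorem kmb_num (hKM : ∀ V : ℝ, KM32 V) (ε : ℝ) (hε : 0 < ε) :
    ∃ C : ℝ, 0 < C ∧ ∀ H : ℕ, 4 ≤ H → ∀ (ι κ : Type) (P : Finset ι) (u : ι → κ)
      (L : ι → Ln4) (Sf : κ → Plk4) (J : Finset ℕ) (z0 ρ w1 w2 W0 W M q b : ℝ), 0 ≤ ρ →
      0 ≤ W → 0 < M → 0 ≤ q → 3 / (H : ℝ) ≤ b → b ≤ 1 → 1 ≤ W0 → C * W ≤ (H : ℝ) ^ ε →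
      (∀ t ∈ P, InP (L t) (Sf (u t)) z0 ρ ∧ 0 < (Sf (u t)).w 1 ∧ 0 < (Sf (u t)).w 2 ∧
        w1 ≤ W0 * (Sf (u t)).w 1 ∧ w2 ≤ W0 * (Sf (u t)).w 2) → (∀ j ∈ J, j ≤ H) →
      (∀ (c : κ) (e : OrthonormalBasis (Fin 2) ℝ E2) (s : Fin 2 → ℝ) (p0 v0 : E2),
        (∀ j, 1 / (H : ℝ) ≤ s j ∧ s j ≤ 1) →
        ((P.filter fun t => u t = c ∧
          InPl e s p0 v0 (chp (Sf c) z0 ρ (L t)) (chv (Sf c) z0 ρ (L t))).card : ℝ) ≤
          W * (s 0 * s 1) * (max (s 0) (s 1)) ^ q * M) →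
      ∃ B ⊆ P ×ˢ J, (B.card : ℝ) ≤ (H : ℝ) ^ (-ε) * H * P.card ∧
        ∀ K : ℝ, 1 ≤ K → ∀ x ∈ P ×ˢ J, x ∉ B →
        ∀ G : Finset (ι × ℕ), (∀ y ∈ G, y ∈ P ×ˢ J ∧ y ∉ B ∧ y.2 = x.2 ∧ u y.1 = u x.1 ∧
          |dt ((Sf (u x.1)).e 1) ((L y.1).pos (z0 + ρ * (x.2 / H)) -
            (L x.1).pos (z0 + ρ * (x.2 / H)))| ≤ K * w1 / H ∧
          |dt ((Sf (u x.1)).e 2) ((L y.1).pos (z0 + ρ * (x.2 / H)) -
            (L x.1).pos (z0 + ρ * (x.2 / H)))| ≤ K * w2 / H ∧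
          |dt ((Sf (u x.1)).e 1) ((L y.1).v - (L x.1).v)| * ρ ≤ K * b * w1 ∧
          |dt ((Sf (u x.1)).e 2) ((L y.1).v - (L x.1).v)| * ρ ≤ K * b * w2) →
        (G.card : ℝ) ≤ (K * W0) ^ 6 * ((H : ℝ) ^ (4 * ε) * b ^ q * M / (H : ℝ) ^ 2) := by
  obtain ⟨C, hC, key⟩ := kmb_sh hKM ε hε
  refine ⟨729 * C, by positivity, ?_⟩
  intro H hH ι κ P u L Sf J z0 ρ w1 w2 W0 W M q b hρ hW hM hq hb3 hb1 hW0 hCW hin hJ hpl
  have hH4 : (4 : ℝ) ≤ H := by exact_mod_cast hH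
  have hH0 : (0 : ℝ) < H := by linarith
  have hb : 0 < b := lt_of_lt_of_le (by positivity) hb3
  have hbq : 0 < b ^ q := Real.rpow_pos_of_pos hb q
  have h1 : 0 < (H : ℝ) ^ ε := Real.rpow_pos_of_pos hH0 _
  have e4 : (H : ℝ) ^ (4 * ε) = ((H : ℝ) ^ ε) ^ 4 := by
    rw [mul_comm, Real.rpow_mul hH0.le]
    norm_cast
  have eθ : (H : ℝ) ^ (-ε) = ((H : ℝ) ^ ε)⁻¹ := Real.rpow_neg hH0.le ε
  set X := (H : ℝ) ^ ε with hX
  set m : ℝ := X ^ 4 * b ^ q * M / (H : ℝ) ^ 2 / 729 with hm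
  have hm0 : 0 < m := by positivity
  obtain ⟨B, hB, hBc, hG⟩ := key H hH ι κ P u L Sf J z0 ρ w1 w2 W0 m (X⁻¹) W M q b hρ hm0
    (by positivity) hW hM.le hq hb3 hb1 hW0 hin hJ hpl (by
      have e1 : m * X⁻¹ ^ 2 * (H : ℝ) ^ 2 = X * (X * (b ^ q * M)) / 729 := by
        rw [hm]; field_simp
      have e2 : C * X * W * b ^ q * M = (729 * C * W) * (X * (b ^ q * M)) / 729 := by
        field_simp
      rw [e1, e2]
      have h3 : 0 ≤ X * (b ^ q * M) := by positivity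
      have := mul_le_mul_of_nonneg_right hCW h3
      linarith)
  refine ⟨B, hB, by rw [eθ]; exact hBc, ?_⟩
  intro K hK x hx hxB G hGG
  refine (hG K hK x hx hxB G hGG).trans (le_of_eq ?_)
  rw [e4, hm]
  ring

end Crest.Agent.R136.Vq571
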