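import Crest.Agent.R136.R2h_500
import Crest.Agent.R136.Gbx_862
import Crest.Agent.R136.Vq4_571
import Crest.Agent.R136.Pl2W_102

/-!
# R136, PLAN 2 (AL): multiplicity bounds in the form of `al_end` (helper500)

* `al_end'` : `al_end`, number of labels asked only at the heights `j < H`;
* `Mul` : multiplicity bound in velocity balls of radius `b`, outside `B`;
* `kmb_two` : the six bounds (two systems, radii `1, b0, b1`) with one bad set;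
* `up_of_mul`, `box_two` : hypotheses `hup`, `hbox` of `al_end`.
-/

set_option autoImplicit false
set_option linter.unusedVariables false

open Finset

namespace Crest.Agent.R136.Alw500

open Crest.Agent.R136.R2b500
open Crest.Agent.R136.Sh605
open Crest.Agent.R136.K4 (Plk4)
open Crest.Agent.R136.Tlt51 (Shp InP)
open Crest.Agent.R136.Pl2W102 (Near Ex2 Two1)
open Crest.Agent.R136.Gbx862 (zj zj_mem gb gb_close gb_card lc)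
open Crest.Agent.R136.Vq571 (chp chv)
open Crest.Agent.R138.Defs (E2)
open Crest.Agent.R138.Tub70 (InPl KM32)

section

variable {ι κ κ' β β' : Type} [DecidableEq ι] [DecidableEq κ] [DecidableEq κ'] [DecidableEq β]
  [DecidableEq β']

open Classical in
/-- **end of (AL)**, labels counted only at the heights `j < H` -/
theorem al_end' (P : Finset ι) (u : ι → κ) (v : ι → κ') (bx : κ → ι → ℕ → β)
    (bx' : κ' → ι → ℕ → β') (H : ℕ) (Bad B0 Nd1 : ι × ℕ → Prop) (Nd2 Gen : ι × ℕ → ι → Prop)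
    {M W Cb X Y Q Z : ℝ} (hM : 0 < M) (hW : 1 ≤ W) (hCb : 1 ≤ Cb) (hH : 1 ≤ H)
    (hX : 4 * Cb * W ≤ X) (hY : 0 < Y) (hQ : 0 ≤ Q) (hZ : 0 ≤ Z) (hP : P.Nonempty)
    (hu : ∀ t ∈ P, M ≤ W * ((P.filter fun s => u s = u t).card : ℝ))
    (hv : ∀ t ∈ P, M ≤ W * ((P.filter fun s => v s = v t).card : ℝ))
    (hbox : ∀ c', ∀ j < H, (((P.filter fun t => v t = c').image fun t => bx' c' t j).card : ℝ) ≤
      Cb * (H : ℝ) ^ 2)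
    (hBad : 4 * (((P ×ˢ range H).filter Bad).card : ℝ) ≤ (P.card : ℝ) * H)
    (hB0 : 128 * X ^ 2 * (((P ×ˢ range H).filter B0).card : ℝ) ≤ (P.card : ℝ) * H)
    (hup : ∀ t ∈ P, ∀ j < H, ¬ Bad (t, j) → (H : ℝ) ^ 2 * ((P.filter fun s => ¬ Bad (s, j) ∧
      u s = u t ∧ bx (u t) s j = bx (u t) t j).card : ℝ) ≤ X * M)
    (hup' : ∀ t ∈ P, ∀ j < H, ¬ Bad (t, j) → (H : ℝ) ^ 2 * ((P.filter fun s => ¬ Bad (s, j) ∧
      v s = v t ∧ bx' (v t) s j = bx' (v t) t j).card : ℝ) ≤ X * M)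
    (hcap : ∀ t ∈ P, ∀ j < H, ¬ Bad (t, j) → Y * (H : ℝ) ^ 2 * ((P.filter fun s =>
      ¬ Bad (s, j) ∧ u s = u t ∧ v s = v t ∧ bx (u t) s j = bx (u t) t j).card : ℝ) ≤ M)
    (hcap' : ∀ t ∈ P, ∀ j < H, ¬ Bad (t, j) → Y * (H : ℝ) ^ 2 * ((P.filter fun s =>
      ¬ Bad (s, j) ∧ u s = u t ∧ v s = v t ∧ bx' (v t) s j = bx' (v t) t j).card : ℝ) ≤ M)
    (hK : ∀ c, (((P.filter fun t => u t = c).image v).card : ℝ) ≤ X * Q * H)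
    (hK' : ∀ (c : κ) (T : Finset κ), (∀ c1 ∈ T, ∃ t ∈ P, ∃ t' ∈ P, ∃ j < H, u t = c ∧ u t' = c1 ∧
      v t' = v t ∧ bx' (v t) t' j = bx' (v t) t j ∧ ¬ Bad (t, j) ∧ ¬ Bad (t', j)) →
      (T.card : ℝ) ≤ X * Q * H)
    (hNd1 : ∀ (c : κ) (c' : κ') (T : Finset (β × ℕ)), (∀ y ∈ T, ∃ t ∈ P, y.2 < H ∧ u t = c ∧
      v t = c' ∧ bx c t y.2 = y.1 ∧ ¬ Bad (t, y.2) ∧ Nd1 (t, y.2)) →
      (T.card : ℝ) ≤ Z * (H : ℝ) ^ 2)
    (hNd2 : ∀ (c c1 : κ) (T : Finset (β × ℕ)), (∀ y ∈ T, ∃ t ∈ P, ∃ t' ∈ P, y.2 < H ∧ u t = c ∧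
      u t' = c1 ∧ v t' = v t ∧ bx' (v t) t' y.2 = bx' (v t) t y.2 ∧ bx c t y.2 = y.1 ∧
      ¬ Bad (t, y.2) ∧ ¬ Bad (t', y.2) ∧ Nd2 (t, y.2) t') → (T.card : ℝ) ≤ Z * (H : ℝ) ^ 2)
    (hGen : ∀ t ∈ P, ∀ j < H, ¬ Bad (t, j) → 8 * (X * (H : ℝ) ^ 2 * ((P.filter fun s =>
      ¬ Bad (s, j) ∧ v s = v t ∧ bx' (v t) s j = bx' (v t) t j ∧ ¬ Gen (t, j) s).card : ℝ)) ≤ M)
    (hnum : 64 * (X ^ 4 * Q * Z) < Y) :
    ∃ t ∈ P, ∃ t' ∈ P, ∃ j < H, v t' = v t ∧ bx' (v t) t' j = bx' (v t) t j ∧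
      ¬ Bad (t, j) ∧ ¬ Bad (t', j) ∧ ¬ B0 (t, j) ∧ ¬ B0 (t', j) ∧ ¬ Nd1 (t, j) ∧ ¬ Nd1 (t', j) ∧
      ¬ Nd2 (t, j) t' ∧ Gen (t, j) t' := by
  obtain ⟨t0, ht0⟩ := hP
  set b0 : β' := bx' (v t0) t0 0 with hb0
  obtain ⟨by', hlt, hge⟩ : ∃ by' : κ' → ι → ℕ → β', (∀ c t j, j < H → by' c t j = bx' c t j) ∧
      ∀ c t j, ¬ j < H → by' c t j = b0 :=
    ⟨fun c t j => if j < H then bx' c t j else b0, fun c t j hj => if_pos hj,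
      fun c t j hj => if_neg hj⟩
  have hHr : (1 : ℝ) ≤ H := by exact_mod_cast hH
  obtain ⟨t, ht, t', ht', j, hj, h1, h2, h3⟩ := al_end P u v bx by' H Bad B0 Nd1 Nd2 Gen (Cb := Cb)
    (X := X) (Y := Y) (Q := Q) (Z := Z) hM hW hCb hH hX hY hQ hZ ⟨t0, ht0⟩ hu hv
    (by
      intro c' j
      by_cases hj : j < H
      · simp only [hlt _ _ j hj]
        exact hbox c' j hj
      · simp only [hge _ _ j hj]
        have h1 : (((P.filter fun t => v t = c').image fun _ => b0).card : ℝ) ≤ 1 := by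
          have : (((P.filter fun t => v t = c').image fun _ => b0)) ⊆ {b0} := by
            intro x hx
            obtain ⟨_, _, rfl⟩ := mem_image.1 hx
            exact mem_singleton_self _
          have h2 := card_le_card this
          rw [card_singleton] at h2
          exact_mod_cast h2
        refine h1.trans ?_
        have : (1 : ℝ) ≤ (H : ℝ) ^ 2 := one_le_pow₀ hHr
        nlinarith)
    hBad hB0 hup
    (by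
      intro t ht j hj hb
      simp only [hlt _ _ j hj]
      exact hup' t ht j hj hb)
    hcap
    (by
      intro t ht j hj hb
      simp only [hlt _ _ j hj]
      exact hcap' t ht j hj hb)
    hK
    (by
      intro c T hT
      refine hK' c T ?_
      intro c1 hc1
      obtain ⟨t, ht, t', ht', j, hj, h1, h2, h3, h4, h5⟩ := hT c1 hc1
      rw [hlt _ _ j hj, hlt _ _ j hj] at h4
      exact ⟨t, ht, t', ht', j, hj, h1, h2, h3, h4, h5⟩)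
    hNd1
    (by
      intro c c1 T hT
      refine hNd2 c c1 T ?_
      intro y hy
      obtain ⟨t, ht, t', ht', hj, h1, h2, h3, h4, h5⟩ := hT y hy
      rw [hlt _ _ _ hj, hlt _ _ _ hj] at h4
      exact ⟨t, ht, t', ht', hj, h1, h2, h3, h4, h5⟩)
    (by
      intro t ht j hj hb
      simp only [hlt _ _ j hj]
      exact hGen t ht j hj hb)
    hnum
  rw [hlt _ _ j hj, hlt _ _ j hj] at h2
  exact ⟨t, ht, t', ht', j, hj, h1, h2, h3⟩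

end

/-! ### multiplicities -/

/-- **multiplicity bound** in velocity balls of radius `b` (units `w1, w2`), outside `B` -/
def Mul (P : Finset ℕ) (u : ℕ → ℕ) (L : ℕ → Ln4) (Sf : ℕ → Plk4) (B : ℕ × ℕ → Prop)
    (z0 ρ w1 w2 W0 : ℝ) (H : ℕ) (b m : ℝ) : Prop :=
  ∀ K : ℝ, 1 ≤ K → ∀ t ∈ P, ∀ j < H, ¬ B (t, j) → ∀ G : Finset ℕ,
    (∀ s ∈ G, s ∈ P ∧ ¬ B (s, j) ∧ u s = u t ∧
      |dt ((Sf (u t)).e 1) ((L s).pos (z0 + ρ * (j / H)) - (L t).pos (z0 + ρ * (j / H)))| ≤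
        K * w1 / H ∧
      |dt ((Sf (u t)).e 2) ((L s).pos (z0 + ρ * (j / H)) - (L t).pos (z0 + ρ * (j / H)))| ≤
        K * w2 / H ∧
      |dt ((Sf (u t)).e 1) ((L s).v - (L t).v)| * ρ ≤ K * b * w1 ∧
      |dt ((Sf (u t)).e 2) ((L s).v - (L t).v)| * ρ ≤ K * b * w2) →
    (G.card : ℝ) ≤ (K * W0) ^ 6 * m

theorem Mul.mono {P : Finset ℕ} {u : ℕ → ℕ} {L : ℕ → Ln4} {Sf : ℕ → Plk4} {B B' : ℕ × ℕ → Prop}
    {z0 ρ w1 w2 W0 : ℝ} {H : ℕ} {b m : ℝ} (h : Mul P u L Sf B z0 ρ w1 w2 W0 H b m)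
    (hB : ∀ p, B p → B' p) : Mul P u L Sf B' z0 ρ w1 w2 W0 H b m := by
  intro K hK t ht j hj hb G hG
  refine h K hK t ht j hj (fun hh => hb (hB _ hh)) G ?_
  intro s hs
  obtain ⟨h1, h2, h3⟩ := hG s hs
  exact ⟨h1, fun hh => h2 (hB _ hh), h3⟩

/-- plank hypothesis of `kmb_num` -/
def PLh (P : Finset ℕ) (u : ℕ → ℕ) (L : ℕ → Ln4) (Sf : ℕ → Plk4) (z0 ρ Wp M q : ℝ) (H : ℕ) : Prop :=
  ∀ (c : ℕ) (e : OrthonormalBasis (Fin 2) ℝ E2) (s : Fin 2 → ℝ) (p0 v0 : E2),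
    (∀ j, 1 / (H : ℝ) ≤ s j ∧ s j ≤ 1) →
    ∀ G : Finset ℕ, (∀ t ∈ G, t ∈ P ∧ u t = c ∧
      InPl e s p0 v0 (chp (Sf c) z0 ρ (L t)) (chv (Sf c) z0 ρ (L t))) →
      (G.card : ℝ) ≤ Wp * (s 0 * s 1) * (max (s 0) (s 1)) ^ q * M

open Classical in
theorem mul_kmb (hKM : ∀ V : ℝ, KM32 V) (ε : ℝ) (hε : 0 < ε) :
    ∃ C : ℝ, 0 < C ∧ ∀ H : ℕ, 4 ≤ H → ∀ (P : Finset ℕ) (u : ℕ → ℕ)
      (L : ℕ → Ln4) (Sf : ℕ → Plk4) (z0 ρ w1 w2 W0 Wp M q b : ℝ), 0 ≤ ρ →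
      0 ≤ Wp → 0 < M → 0 ≤ q → 3 / (H : ℝ) ≤ b → b ≤ 1 → 1 ≤ W0 → C * Wp ≤ (H : ℝ) ^ ε →
      (∀ t ∈ P, InP (L t) (Sf (u t)) z0 ρ ∧ 0 < (Sf (u t)).w 1 ∧ 0 < (Sf (u t)).w 2 ∧
        w1 ≤ W0 * (Sf (u t)).w 1 ∧ w2 ≤ W0 * (Sf (u t)).w 2) →
      PLh P u L Sf z0 ρ Wp M q H →
      ∃ B : ℕ × ℕ → Prop, (((P ×ˢ range H).filter B).card : ℝ) ≤ (H : ℝ) ^ (-ε) * H * P.card ∧
        Mul P u L Sf B z0 ρ w1 w2 W0 H b ((H : ℝ) ^ (4 * ε) * b ^ q * M / (H : ℝ) ^ 2) := by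
  obtain ⟨C, hC, key⟩ := Vq571.kmb_num hKM ε hε
  refine ⟨C, hC, ?_⟩
  intro H hH P u L Sf z0 ρ w1 w2 W0 Wp M q b hρ hWp hM hq hb3 hb1 hW0 hCW hin hpl
  obtain ⟨B, hB, hBc, hG⟩ := key H hH ℕ ℕ P u L Sf (range H) z0 ρ w1 w2 W0 Wp M q b hρ hWp hM hq
    hb3 hb1 hW0 hCW hin (fun j hj => (mem_range.1 hj).le)
    (by
      intro c e s p0 v0 hs
      refine hpl c e s p0 v0 hs _ ?_
      intro t ht
      simpa using ht)
  refine ⟨fun p => p ∈ B, ?_, ?_⟩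
  · refine le_trans ?_ hBc
    refine Nat.cast_le.2 (card_le_card ?_)
    intro p hp
    simp only [mem_filter] at hp
    exact hp.2
  · intro K hK t ht j hj hb G hGG
    have h1 := hG K hK (t, j) (mem_product.2 ⟨ht, mem_range.2 hj⟩) hb (G.image fun s => (s, j)) (by
      intro y hy
      obtain ⟨s, hs, rfl⟩ := mem_image.1 hy
      obtain ⟨h1, h2, h3, h4, h5, h6, h7⟩ := hGG s hs
      exact ⟨mem_product.2 ⟨h1, mem_range.2 hj⟩, h2, rfl, h3, h4, h5, h6, h7⟩)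
    rwa [card_image_of_injective _ (fun a b hab => congrArg Prod.fst hab)] at h1

/-- a line of a sheet: velocities relative to another line of the sheet -/
theorem vel_le {S : Plk4} {z0 ρ : ℝ} {s t : Ln4} (hρ : 0 ≤ ρ) (hs : InP s S z0 ρ)
    (ht : InP t S z0 ρ) (k : Fin 3) : |dt (S.e k) (s.v - t.v)| * ρ ≤ 4 * S.w k := by
  have a1 := (hs z0 le_rfl (by linarith)).1 k
  have a2 := (hs (z0 + ρ) (by linarith) le_rfl).1 k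
  have b1 := (ht z0 le_rfl (by linarith)).1 k
  have b2 := (ht (z0 + ρ) (by linarith) le_rfl).1 k
  have e : dt (S.e k) (s.v - t.v) * ρ =
      (dt (S.e k) (s.pos (z0 + ρ) - S.c.pos (z0 + ρ)) - dt (S.e k) (s.pos z0 - S.c.pos z0)) -
      (dt (S.e k) (t.pos (z0 + ρ) - S.c.pos (z0 + ρ)) - dt (S.e k) (t.pos z0 - S.c.pos z0)) := by
    simp only [dt, Ln4.pos, Pi.sub_apply]
    ring
  have e' : |dt (S.e k) (s.v - t.v)| * ρ = |dt (S.e k) (s.v - t.v) * ρ| := by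
    rw [abs_mul, abs_of_nonneg hρ]
  rw [e', e]
  rw [abs_le] at a1 a2 b1 b2 ⊢
  constructor <;> linarith [a1.1, a1.2, a2.1, a2.2, b1.1, b1.2, b2.1, b2.2]

section two

variable {qm qp : Fin 3 → ℝ} {L : ℕ → Ln4} {P : Finset ℕ} {cu cv : ℕ → ℕ} {Uf Vf : ℕ → Plk4}
  {W M a w1 w2 z0 ρ r : ℝ}

/-- exchange of the two systems -/
theorem two_swap (h : Two1 qm qp L P cu cv Uf Vf W M a w1 w2 z0 ρ r) :
    Two1 qm qp L P cv cu Vf Uf W M a w1 w2 z0 ρ r :=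
  ⟨h.W1, h.M0, h.r0, h.ρ0, h.a0, h.w10, h.w20, h.w1ρ, h.lg, h.vel, h.shV, h.shU, h.inV, h.inU,
    h.dimV, h.dimU, h.fullV, h.fullU, h.dmax⟩

theorem two_pos (h : Two1 qm qp L P cu cv Uf Vf W M a w1 w2 z0 ρ r) {t : ℕ} (ht : t ∈ P) :
    0 < (Uf (cu t)).w 1 ∧ 0 < (Uf (cu t)).w 2 := by
  obtain ⟨_, h1, h2⟩ := h.dimU t ht
  constructor
  · by_contra hc
    push Not at hc
    have := h1.1
    nlinarith [h.W1, h.w10]
  · by_contra hc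
    push Not at hc
    have := h2.1
    nlinarith [h.W1, h.w20]

/-- label of the line number `t` in the class `c` -/
noncomputable def lbl (Sf : ℕ → Plk4) (L : ℕ → Ln4) (w1 w2 z0 ρ : ℝ) (H : ℕ) (c t j : ℕ) : ℤ × ℤ :=
  gb (Sf c).e (Sf c).c w1 w2 z0 ρ H (L t) j

open Classical in
/-- number of labels -/
theorem box_two (h : Two1 qm qp L P cu cv Uf Vf W M a w1 w2 z0 ρ r) {H : ℕ} (hH : 1 ≤ H) :
    ∀ c, ∀ j < H, (((P.filter fun t => cu t = c).image fun t =>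
      lbl Uf L w1 w2 z0 ρ H c t j).card : ℝ) ≤ (25 * W ^ 2) * (H : ℝ) ^ 2 := by
  intro c j hj
  have hHr : (1 : ℝ) ≤ H := by exact_mod_cast hH
  have hW := h.W1
  have hz := zj_mem (z0 := z0) (H := H) h.ρ0.le hj.le
  have key : ∀ t ∈ P.filter fun t => cu t = c,
      |lc (Uf c).e (Uf c).c 1 (L t) (zj z0 ρ H j)| ≤ W * w1 ∧
      |lc (Uf c).e (Uf c).c 2 (L t) (zj z0 ρ H j)| ≤ W * w2 := by
    intro t ht
    rw [mem_filter] at ht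
    obtain ⟨ht, rfl⟩ := ht
    have h1 := (h.inU t ht _ hz.1 hz.2).1
    obtain ⟨_, h2, h3⟩ := h.dimU t ht
    exact ⟨(h1 1).trans h2.2, (h1 2).trans h3.2⟩
  have h1 := gb_card (e := (Uf c).e) (c := (Uf c).c) (z0 := z0) (ρ := ρ) h.w10 h.w20
    (show 0 < H by omega) L (P.filter fun t => cu t = c) j (B := W) (by linarith)
    (fun t ht => (key t ht).1) (fun t ht => (key t ht).2)
  refine le_trans ?_ (h1.trans ?_)
  · exact le_of_eq (by unfold lbl; rfl)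
  · have h2 : 2 * (W * H) + 3 ≤ 5 * (W * H) := by nlinarith
    calc (2 * (W * H) + 3) ^ 2 ≤ (5 * (W * H)) ^ 2 := by
          apply pow_le_pow_left₀ (by positivity) h2
      _ = _ := by ring

open Classical in
/-- hypothesis `hup` -/
theorem up_of_mul (h : Two1 qm qp L P cu cv Uf Vf W M a w1 w2 z0 ρ r) {H : ℕ} (hH : 1 ≤ H)
    {B : ℕ × ℕ → Prop} {m X : ℝ} (hB : Mul P cu L Uf B z0 ρ w1 w2 W H 1 m)
    (hX : (H : ℝ) ^ 2 * ((4 * W * W) ^ 6 * m) ≤ X * M) :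
    ∀ t ∈ P, ∀ j < H, ¬ B (t, j) → (H : ℝ) ^ 2 * ((P.filter fun s => ¬ B (s, j) ∧ cu s = cu t ∧
      lbl Uf L w1 w2 z0 ρ H (cu t) s j = lbl Uf L w1 w2 z0 ρ H (cu t) t j).card : ℝ) ≤ X * M := by
  intro t ht j hj hb
  have hW := h.W1
  have hHr : (0 : ℝ) < H := by exact_mod_cast (show 0 < H by omega)
  refine le_trans (mul_le_mul_of_nonneg_left ?_ (by positivity)) hX
  refine hB (4 * W) (by linarith) t ht j hj hb _ ?_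
  intro s hs
  rw [mem_filter] at hs
  obtain ⟨hs1, hs2, hs3, hs4⟩ := hs
  have h1 := gb_close h.w10 h.w20 (show 0 < H by omega) hs4
  obtain ⟨_, h2, h3⟩ := h.dimU t ht
  have hin : InP (L s) (Uf (cu t)) z0 ρ := by rw [← hs3]; exact h.inU s hs1
  have v1 := vel_le h.ρ0.le hin (h.inU t ht) 1
  have v2 := vel_le h.ρ0.le hin (h.inU t ht) 2
  have c1 : w1 / H ≤ 4 * W * w1 / H := by
    have : w1 ≤ 4 * W * w1 := by nlinarith [h.w10]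
    exact div_le_div_of_nonneg_right this hHr.le
  have c2 : w2 / H ≤ 4 * W * w2 / H := by
    have : w2 ≤ 4 * W * w2 := by nlinarith [h.w20]
    exact div_le_div_of_nonneg_right this hHr.le
  refine ⟨hs1, hs2, hs3, h1.1.le.trans c1, h1.2.le.trans c2, ?_, ?_⟩
  · refine v1.trans ?_
    have := h2.2
    linarith
  · refine v2.trans ?_
    have := h3.2
    linarith

/-- union bound -/
theorem bad_or (P : Finset ℕ) (H : ℕ) (B B' C : ℕ × ℕ → Prop) [DecidablePred B] [DecidablePred B']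
    [DecidablePred C] {x y : ℝ} (hC : ∀ p, C p → B p ∨ B' p)
    (h : (((P ×ˢ range H).filter B).card : ℝ) ≤ x)
    (h' : (((P ×ˢ range H).filter B').card : ℝ) ≤ y) :
    (((P ×ˢ range H).filter C).card : ℝ) ≤ x + y := by
  have h1 : ((P ×ˢ range H).filter C).card ≤
      ((P ×ˢ range H).filter B).card + ((P ×ˢ range H).filter B').card := by
    refine (card_le_card ?_).trans (card_union_le _ _)
    intro p hp
    rw [mem_filter] at hp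
    rcases hC p hp.2 with h | h
    · exact mem_union_left _ (mem_filter.2 ⟨hp.1, h⟩)
    · exact mem_union_right _ (mem_filter.2 ⟨hp.1, h⟩)
  have h2 : (((P ×ˢ range H).filter C).card : ℝ) ≤
      (((P ×ˢ range H).filter B).card : ℝ) + (((P ×ˢ range H).filter B').card : ℝ) := by
    exact_mod_cast h1
  linarith

open Classical in
/-- **the six multiplicity bounds** -/
theorem kmb_two (hKM : ∀ V : ℝ, KM32 V) (ε : ℝ) (hε : 0 < ε) :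
    ∃ C : ℝ, 0 < C ∧ ∀ (qm qp : Fin 3 → ℝ) (L : ℕ → Ln4) (P : Finset ℕ) (cu cv : ℕ → ℕ)
      (Uf Vf : ℕ → Plk4) (W M a w1 w2 z0 ρ r : ℝ),
      Two1 qm qp L P cu cv Uf Vf W M a w1 w2 z0 ρ r → ∀ (H : ℕ) (Wp q b0 b1 : ℝ), 4 ≤ H →
      0 ≤ Wp → 0 ≤ q → 3 / (H : ℝ) ≤ b0 → b0 ≤ 1 → 3 / (H : ℝ) ≤ b1 → b1 ≤ 1 →
      C * Wp ≤ (H : ℝ) ^ ε →
      PLh P cu L Uf z0 ρ Wp M q H → PLh P cv L Vf z0 ρ Wp M q H →
      ∃ B : ℕ × ℕ → Prop,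
        (((P ×ˢ range H).filter B).card : ℝ) ≤ 6 * ((H : ℝ) ^ (-ε) * H * P.card) ∧
        Mul P cu L Uf B z0 ρ w1 w2 W H 1 ((H : ℝ) ^ (4 * ε) * M / (H : ℝ) ^ 2) ∧
        Mul P cu L Uf B z0 ρ w1 w2 W H b0 ((H : ℝ) ^ (4 * ε) * b0 ^ q * M / (H : ℝ) ^ 2) ∧
        Mul P cu L Uf B z0 ρ w1 w2 W H b1 ((H : ℝ) ^ (4 * ε) * b1 ^ q * M / (H : ℝ) ^ 2) ∧
        Mul P cv L Vf B z0 ρ w1 w2 W H 1 ((H : ℝ) ^ (4 * ε) * M / (H : ℝ) ^ 2) ∧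
        Mul P cv L Vf B z0 ρ w1 w2 W H b0 ((H : ℝ) ^ (4 * ε) * b0 ^ q * M / (H : ℝ) ^ 2) ∧
        Mul P cv L Vf B z0 ρ w1 w2 W H b1 ((H : ℝ) ^ (4 * ε) * b1 ^ q * M / (H : ℝ) ^ 2) := by
  obtain ⟨C, hC, key⟩ := mul_kmb hKM ε hε
  refine ⟨C, hC, ?_⟩
  intro qm qp L P cu cv Uf Vf W M a w1 w2 z0 ρ r h H Wp q b0 b1 hH hWp hq hb0 hb0' hb1 hb1' hCW pu pv
  have h' := two_swap h
  have hH4 : (4 : ℝ) ≤ H := by exact_mod_cast hH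
  have h31 : 3 / (H : ℝ) ≤ 1 := by
    rw [div_le_one (by linarith)]; linarith
  have inu : ∀ t ∈ P, InP (L t) (Uf (cu t)) z0 ρ ∧ 0 < (Uf (cu t)).w 1 ∧ 0 < (Uf (cu t)).w 2 ∧
      w1 ≤ W * (Uf (cu t)).w 1 ∧ w2 ≤ W * (Uf (cu t)).w 2 := fun t ht =>
    ⟨h.inU t ht, (two_pos h ht).1, (two_pos h ht).2, (h.dimU t ht).2.1.1, (h.dimU t ht).2.2.1⟩
  have inv : ∀ t ∈ P, InP (L t) (Vf (cv t)) z0 ρ ∧ 0 < (Vf (cv t)).w 1 ∧ 0 < (Vf (cv t)).w 2 ∧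
      w1 ≤ W * (Vf (cv t)).w 1 ∧ w2 ≤ W * (Vf (cv t)).w 2 := fun t ht =>
    ⟨h.inV t ht, (two_pos h' ht).1, (two_pos h' ht).2, (h.dimV t ht).2.1.1, (h.dimV t ht).2.2.1⟩
  obtain ⟨B1, c1, m1⟩ := key H hH P cu L Uf z0 ρ w1 w2 W Wp M q 1 h.ρ0.le hWp h.M0 hq h31 le_rfl
    h.W1 hCW inu pu
  obtain ⟨B2, c2, m2⟩ := key H hH P cu L Uf z0 ρ w1 w2 W Wp M q b0 h.ρ0.le hWp h.M0 hq hb0 hb0'
    h.W1 hCW inu pu
  obtain ⟨B3, c3, m3⟩ := key H hH P cu L Uf z0 ρ w1 w2 W Wp M q b1 h.ρ0.le hWp h.M0 hq hb1 hb1'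
    h.W1 hCW inu pu
  obtain ⟨B4, c4, m4⟩ := key H hH P cv L Vf z0 ρ w1 w2 W Wp M q 1 h.ρ0.le hWp h.M0 hq h31 le_rfl
    h.W1 hCW inv pv
  obtain ⟨B5, c5, m5⟩ := key H hH P cv L Vf z0 ρ w1 w2 W Wp M q b0 h.ρ0.le hWp h.M0 hq hb0 hb0'
    h.W1 hCW inv pv
  obtain ⟨B6, c6, m6⟩ := key H hH P cv L Vf z0 ρ w1 w2 W Wp M q b1 h.ρ0.le hWp h.M0 hq hb1 hb1'
    h.W1 hCW inv pv
  rw [Real.one_rpow, mul_one] at m1 m4
  obtain ⟨C1, hC1⟩ : ∃ C1 : ℕ × ℕ → Prop, ∀ p, C1 p ↔ (B1 p ∨ B2 p) := ⟨_, fun _ => Iff.rfl⟩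
  obtain ⟨C2, hC2⟩ : ∃ C1 : ℕ × ℕ → Prop, ∀ p, C1 p ↔ (B3 p ∨ B4 p) := ⟨_, fun _ => Iff.rfl⟩
  obtain ⟨C3, hC3⟩ : ∃ C1 : ℕ × ℕ → Prop, ∀ p, C1 p ↔ (B5 p ∨ B6 p) := ⟨_, fun _ => Iff.rfl⟩
  obtain ⟨C4, hC4⟩ : ∃ C4 : ℕ × ℕ → Prop, ∀ p, C4 p ↔ (C1 p ∨ C2 p) := ⟨_, fun _ => Iff.rfl⟩
  obtain ⟨C5, hC5⟩ : ∃ C5 : ℕ × ℕ → Prop, ∀ p, C5 p ↔ (C4 p ∨ C3 p) := ⟨_, fun _ => Iff.rfl⟩
  have d1 := bad_or P H B1 B2 C1 (fun p => (hC1 p).1) c1 c2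
  have d2 := bad_or P H B3 B4 C2 (fun p => (hC2 p).1) c3 c4
  have d3 := bad_or P H B5 B6 C3 (fun p => (hC3 p).1) c5 c6
  have d4 := bad_or P H C1 C2 C4 (fun p => (hC4 p).1) d1 d2
  have d5 := bad_or P H C4 C3 C5 (fun p => (hC5 p).1) d4 d3
  refine ⟨C5, d5.trans (le_of_eq (by ring)), ?_, ?_, ?_, ?_, ?_, ?_⟩
  · exact m1.mono fun p h => (hC5 p).2 (Or.inl ((hC4 p).2 (Or.inl ((hC1 p).2 (Or.inl h)))))
  · exact m2.mono fun p h => (hC5 p).2 (Or.inl ((hC4 p).2 (Or.inl ((hC1 p).2 (Or.inr h)))))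
  · exact m3.mono fun p h => (hC5 p).2 (Or.inl ((hC4 p).2 (Or.inr ((hC2 p).2 (Or.inl h)))))
  · exact m4.mono fun p h => (hC5 p).2 (Or.inl ((hC4 p).2 (Or.inr ((hC2 p).2 (Or.inr h)))))
  · exact m5.mono fun p h => (hC5 p).2 (Or.inr ((hC3 p).2 (Or.inl h)))
  · exact m6.mono fun p h => (hC5 p).2 (Or.inr ((hC3 p).2 (Or.inr h)))

end two

end Crest.Agent.R136.Alw500
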