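import Crest.Agent.R136.Hcp2_208
import Crest.Agent.R136.Gbx_862

/-!
# R136 (S0187), PLAN 2 (3), block (B), final form (helper208)

* `hcap_sys` : all pairs at once. `u`, `Sf` = labels and sheets of the CURVED system, `v`, `Sf'` = the
  other one; `kmb` = the ball count of the curved system (571's `kmb_num`).
* `hcap_gb` : `hcap` and `hcap'` of `R2b500.al_end` for the grid `Gbx862.gb`, boxes in the frame of
  either system.
-/

set_option autoImplicit false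
set_option linter.unusedVariables false

open Finset

namespace Crest.Agent.R136.Hcp208

open Crest.Agent.R136.Sh605
open Crest.Agent.R136.K4 (Plk4)
open Crest.Agent.R136.Tlt51 (Shp InP CompC Agree)
open Crest.Agent.R136.Deep51 (CoinC CloseC dt_exp)
open Crest.Agent.R136.Tl102 (StP StP.of_shN IsExp exists_isExp angC)
open Crest.Agent.R136.KapP335 (kapP kapP_eq DetP)
open Crest.Agent.R136.Pl2W102 (Near Two1)
open Crest.Agent.R136.Gbx862 (zj gb gb_close zj_mem)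

/-- lines within `c w_k / H` at the height `z` (common units `w1, w2`) in the frame `e` -/
def Bx (e : Fin 3 → V3) (c w1 w2 H z : ℝ) (t T : Ln4) : Prop :=
  |dt (e 1) (t.pos z - T.pos z)| ≤ c * w1 / H ∧ |dt (e 2) (t.pos z - T.pos z)| ≤ c * w2 / H

/-- velocities within `c b w_k` (common units) in the frame `e` -/
def Bv (e : Fin 3 → V3) (c b w1 w2 ρ : ℝ) (v v' : V3) : Prop :=
  |dt (e 1) (v - v')| * ρ ≤ c * b * w1 ∧ |dt (e 2) (v - v')| * ρ ≤ c * b * w2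

/-- **all pairs at once** : `Sf`, `u` = the curved system. -/
theorem hcap_sys : ∃ c0 : ℝ, 0 < c0 ∧ c0 ≤ 1 / 4 ∧ ∃ C : ℝ, 1 ≤ C ∧ ∃ N : ℕ, 1 ≤ N ∧
    ∀ {ι κ κ' : Type} (P : Finset ι) (u : ι → κ) (v : ι → κ') (L : ι → Ln4) (Sf : κ → Plk4)
      (Sf' : κ' → Plk4) (K E a w1 w2 z0 ρ r : ℝ) (H : ℕ), E ≤ H → (H : ℝ) ≤ 2 * E →
      (2 * K) ^ C ≤ E →
      (∀ t ∈ P, Al K E a w1 w2 z0 ρ r (Sf (u t)) (Sf' (v t)) (L t)) →
      ∃ s : ι → Fin 2 → ℝ, ∀ (Bad : ι × ℕ → Prop) (b m : ℝ), E ^ (-c0) ≤ 2 * b → 0 ≤ m →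
        (∀ t ∈ P, ∀ j < H, ∀ i, |(j : ℝ) / H - s t i| < E ^ (-c0) → Bad (t, j)) →
        (∀ t ∈ P, ∀ j < H, ¬ Bad (t, j) → ∀ G ⊆ P, (∀ y ∈ G, ¬ Bad (y, j) ∧ u y = u t ∧
          Bx (Sf (u t)).e (240 * K ^ 7) w1 w2 H (z0 + ρ * (j / H)) (L y) (L t) ∧
          Bv (Sf (u t)).e (240 * K ^ 7) b w1 w2 ρ (L y).v (L t).v) → (G.card : ℝ) ≤ m) →
        ∀ t ∈ P, ∀ j < H, ¬ Bad (t, j) → ∀ G ⊆ P,
          (∀ y ∈ G, ¬ Bad (y, j) ∧ u y = u t ∧ v y = v t) →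
          ((∀ y ∈ G, Bx (Sf (u t)).e 1 w1 w2 H (z0 + ρ * (j / H)) (L y) (L t)) ∨
            (∀ y ∈ G, Bx (Sf' (v t)).e 1 w1 w2 H (z0 + ρ * (j / H)) (L y) (L t))) →
          (G.card : ℝ) ≤ N * m := by
  classical
  obtain ⟨c0, h1, h2, C, h3, N, hN, key⟩ := cnt_al
  refine ⟨c0, h1, h2, C + 4, by linarith, N, hN, ?_⟩
  intro ι κ κ' P u v L Sf Sf' K E a w1 w2 z0 ρ r H hEH hHE hE hAl
  have hex : ∀ t : ι, ∃ s : Fin 2 → ℝ, t ∈ P → ∀ h, 0 ≤ h → h ≤ 1 →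
      (∀ i, E ^ (-c0) ≤ |h - s i|) →
      ∀ {ι : Type} (G : Finset ι) (L' : ι → Ln4) (c m : ℝ), 0 ≤ c → c ≤ E ^ (-(1 / 4 : ℝ)) →
        0 ≤ m → (∀ y ∈ G, InP (L' y) (Sf (u t)) z0 ρ) → (∀ y ∈ G, InP (L' y) (Sf' (v t)) z0 ρ) →
        ((∀ y ∈ G, Nr (Sf (u t)) c (z0 + ρ * h) (L' y) (L t)) ∨
          (∀ y ∈ G, Nr (Sf' (v t)) c (z0 + ρ * h) (L' y) (L t))) →
        (∀ x ∈ G, ∀ G' ⊆ G, (∀ y ∈ G',
          Nr (Sf (u t)) (60 * K ^ 5 * (2 * c + 1 / E)) (z0 + ρ * h) (L' y) (L' x) ∧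
          Nv (Sf (u t)) (2 * E ^ (-c0)) ρ (L' y).v (L' x).v) → (G'.card : ℝ) ≤ m) →
        (G.card : ℝ) ≤ N * m := by
    intro t
    by_cases ht : t ∈ P
    · have hK := (hAl t ht).K1
      obtain ⟨s, hs⟩ := key K E a w1 w2 z0 ρ r (Sf (u t)) (Sf' (v t)) (L t)
        ((Real.rpow_le_rpow_of_exponent_le (by linarith) (by linarith)).trans hE) (hAl t ht)
      exact ⟨s, fun _ => hs⟩
    · exact ⟨fun _ => 0, fun h => absurd h ht⟩
  choose s hs using hex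
  refine ⟨s, fun Bad b m hb hm hbad kmb t ht j hj hgood G hGP hG hbox => ?_⟩
  have hA := hAl t ht
  have hK := hA.K1
  have hK0 : 0 < K := by linarith
  have h2K0 : 0 < 2 * K := by linarith
  have hCp : 0 < (2 * K) ^ (C + 4) := Real.rpow_pos_of_pos h2K0 _
  have hE0 : 0 < E := hCp.trans_le hE
  have hH0 : (0 : ℝ) < H := hE0.trans_le hEH
  have hρ := hA.ρ0
  have hw0 : 0 < (Sf (u t)).w 0 := hA.r0.trans_le (hA.sh.r0_le.trans hA.sh.a_le0)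
  have hw2 : 0 < (Sf (u t)).w 2 := hw0.trans_le hA.sh.w0_le
  have hw1 : 0 < (Sf (u t)).w 1 := hw2.trans_le hA.sh.w_le
  have hw0' : 0 < (Sf' (v t)).w 0 := hA.r0.trans_le (hA.sh'.r0_le.trans hA.sh'.a_le0)
  have hw2' : 0 < (Sf' (v t)).w 2 := hw0'.trans_le hA.sh'.w0_le
  have hw1' : 0 < (Sf' (v t)).w 1 := hw2'.trans_le hA.sh'.w_le
  obtain ⟨_, ⟨b1, b2⟩, ⟨c1, c2⟩⟩ := hA.dim
  obtain ⟨_, ⟨b1', b2'⟩, ⟨c1', c2'⟩⟩ := hA.dim'
  -- `K / H ≤ E^(-1/4)`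
  have hcE : K / H ≤ E ^ (-(1 / 4 : ℝ)) := by
    have g1 : ((2 * K) ^ (4 : ℝ)) ≤ E :=
      (Real.rpow_le_rpow_of_exponent_le (by linarith) (by linarith)).trans hE
    have g2 : 2 * K ≤ E ^ (1 / 4 : ℝ) := by
      have := Real.rpow_le_rpow (by positivity) g1 (by norm_num : (0:ℝ) ≤ 1 / 4)
      rw [← Real.rpow_mul h2K0.le] at this
      norm_num at this
      exact this
    have hE1 : 1 ≤ E := (Real.one_le_rpow (by linarith) (by norm_num)).trans g1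
    have g3 : E ^ (1 / 4 : ℝ) * E ^ (1 / 4 : ℝ) ≤ E := by
      rw [← Real.rpow_add hE0]
      calc E ^ (1 / 4 + 1 / 4 : ℝ) ≤ E ^ (1 : ℝ) :=
            Real.rpow_le_rpow_of_exponent_le hE1 (by norm_num)
        _ = E := Real.rpow_one E
    have hq : 0 < E ^ (1 / 4 : ℝ) := Real.rpow_pos_of_pos hE0 _
    rw [Real.rpow_neg hE0.le, div_le_iff₀ hH0]
    calc K ≤ E ^ (1 / 4 : ℝ) := by linarith
      _ = (E ^ (1 / 4 : ℝ))⁻¹ * (E ^ (1 / 4 : ℝ) * E ^ (1 / 4 : ℝ)) := by field_simp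
      _ ≤ (E ^ (1 / 4 : ℝ))⁻¹ * H := mul_le_mul_of_nonneg_left (g3.trans hEH) (by positivity)
  have hj1 : (j : ℝ) / H ≤ 1 := by
    rw [div_le_one hH0]; exact_mod_cast hj.le
  have hGin : ∀ y ∈ G, InP (L y) (Sf (u t)) z0 ρ ∧ InP (L y) (Sf' (v t)) z0 ρ := by
    intro y hy
    obtain ⟨_, k1, k2⟩ := hG y hy
    have := hAl y (hGP hy)
    rw [k1, k2] at this
    exact ⟨this.mem, this.mem'⟩
  refine hs t ht (j / H) (by positivity) hj1 (fun i => ?_) G L (K / H) m (by positivity) hcE hm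
    (fun y hy => (hGin y hy).1) (fun y hy => (hGin y hy).2) ?_ ?_
  · by_contra hcon
    exact hgood (hbad t ht j hj i (not_le.1 hcon))
  · rcases hbox with k | k
    · left
      intro y hy
      obtain ⟨k1, k2⟩ := k y hy
      refine ⟨k1.trans ?_, k2.trans ?_⟩
      · rw [one_mul, div_mul_eq_mul_div]; exact div_le_div_of_nonneg_right b1 hH0.le
      · rw [one_mul, div_mul_eq_mul_div]; exact div_le_div_of_nonneg_right c1 hH0.le
    · right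
      intro y hy
      obtain ⟨k1, k2⟩ := k y hy
      refine ⟨k1.trans ?_, k2.trans ?_⟩
      · rw [one_mul, div_mul_eq_mul_div]; exact div_le_div_of_nonneg_right b1' hH0.le
      · rw [one_mul, div_mul_eq_mul_div]; exact div_le_div_of_nonneg_right c1' hH0.le
  · intro x hx G' hG' hcl
    obtain ⟨hxB, hxu, hxv⟩ := hG x hx
    refine kmb x (hGP hx) j hj hxB G' (hG'.trans hGP) fun y hy => ?_
    obtain ⟨hyB, hyu, hyv⟩ := hG y (hG' hy)
    obtain ⟨⟨k1, k2⟩, ⟨k3, k4⟩⟩ := hcl y hy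
    refine ⟨hyB, hyu.trans hxu.symm, ?_, ?_⟩
    · -- positions
      have hK7 : 1 ≤ K ^ 5 := one_le_pow₀ hK
      have e1 : 60 * K ^ 5 * (2 * (K / H) + 1 / E) ≤ 240 * K ^ 6 / H := by
        have g1 : 1 / E ≤ 2 / H := by
          rw [div_le_div_iff₀ hE0 hH0]; linarith
        have g2 : K ^ 5 * (1 / E) ≤ K ^ 5 * (2 / H) := mul_le_mul_of_nonneg_left g1 (by positivity)
        have g3 : K ^ 5 / H ≤ K ^ 6 / H :=
          div_le_div_of_nonneg_right (pow_le_pow_right₀ hK (by norm_num)) hH0.le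
        have e2 : 60 * K ^ 5 * (2 * (K / H) + 1 / E) = 120 * (K ^ 6 / H) + 60 * (K ^ 5 * (1 / E)) := by
          ring
        have e3 : K ^ 5 * (2 / H) = 2 * (K ^ 5 / H) := by ring
        have e4 : 240 * K ^ 6 / (H : ℝ) = 240 * (K ^ 6 / H) := by ring
        rw [e2, e4]; linarith
      have hc6 : 0 ≤ 240 * K ^ 6 / (H : ℝ) := by positivity
      rw [hxu]
      refine ⟨k1.trans ?_, k2.trans ?_⟩
      · calc 60 * K ^ 5 * (2 * (K / H) + 1 / E) * (Sf (u t)).w 1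
            ≤ 240 * K ^ 6 / H * (K * w1) := mul_le_mul e1 b2 hw1.le hc6
          _ = _ := by ring
      · calc 60 * K ^ 5 * (2 * (K / H) + 1 / E) * (Sf (u t)).w 2
            ≤ 240 * K ^ 6 / H * (K * w2) := mul_le_mul e1 c2 hw2.le hc6
          _ = _ := by ring
    · -- velocities
      have hb0 : 0 ≤ b := by
        have : 0 < E ^ (-c0) := Real.rpow_pos_of_pos hE0 _
        linarith
      have hw10 : 0 ≤ w1 := by
        have : 0 < K * w1 := hw1.trans_le b2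
        exact (pos_of_mul_pos_right this hK0.le).le
      have hw20 : 0 ≤ w2 := by
        have : 0 < K * w2 := hw2.trans_le c2
        exact (pos_of_mul_pos_right this hK0.le).le
      have hKK : 4 * K ≤ 240 * K ^ 7 := by
        have : K ≤ K ^ 7 := le_self_pow₀ hK (by norm_num)
        linarith
      have hE2 : 2 * E ^ (-c0) ≤ 4 * b := by linarith
      rw [hxu]
      refine ⟨k3.trans ?_, k4.trans ?_⟩
      · calc 2 * E ^ (-c0) * (Sf (u t)).w 1 ≤ 4 * b * (K * w1) :=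
              mul_le_mul hE2 b2 hw1.le (by linarith)
          _ = 4 * K * (b * w1) := by ring
          _ ≤ 240 * K ^ 7 * (b * w1) := mul_le_mul_of_nonneg_right hKK (mul_nonneg hb0 hw10)
          _ = _ := by ring
      · calc 2 * E ^ (-c0) * (Sf (u t)).w 2 ≤ 4 * b * (K * w2) :=
              mul_le_mul hE2 c2 hw2.le (by linarith)
          _ = 4 * K * (b * w2) := by ring
          _ ≤ 240 * K ^ 7 * (b * w2) := mul_le_mul_of_nonneg_right hKK (mul_nonneg hb0 hw20)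
          _ = _ := by ring

open Classical in
/-- **`hcap` and `hcap'` of `al_end`**, grid `Gbx862.gb`. `u`, `Sf` = the curved system. -/
theorem hcap_gb : ∃ c0 : ℝ, 0 < c0 ∧ c0 ≤ 1 / 4 ∧ ∃ C : ℝ, 1 ≤ C ∧ ∃ N : ℕ, 1 ≤ N ∧
    ∀ {ι κ κ' : Type} (P : Finset ι) (u : ι → κ) (v : ι → κ') (L : ι → Ln4) (Sf : κ → Plk4)
      (Sf' : κ' → Plk4) (K E a w1 w2 z0 ρ r : ℝ) (H : ℕ), E ≤ H → (H : ℝ) ≤ 2 * E →
      (2 * K) ^ C ≤ E →
      (∀ t ∈ P, Al K E a w1 w2 z0 ρ r (Sf (u t)) (Sf' (v t)) (L t)) →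
      ∃ s : ι → Fin 2 → ℝ, ∀ (Bad : ι × ℕ → Prop) (b m : ℝ), E ^ (-c0) ≤ 2 * b → 0 ≤ m →
        (∀ t ∈ P, ∀ j < H, ∀ i, |(j : ℝ) / H - s t i| < E ^ (-c0) → Bad (t, j)) →
        (∀ t ∈ P, ∀ j < H, ¬ Bad (t, j) → ∀ G ⊆ P, (∀ y ∈ G, ¬ Bad (y, j) ∧ u y = u t ∧
          Bx (Sf (u t)).e (240 * K ^ 7) w1 w2 H (z0 + ρ * (j / H)) (L y) (L t) ∧
          Bv (Sf (u t)).e (240 * K ^ 7) b w1 w2 ρ (L y).v (L t).v) → (G.card : ℝ) ≤ m) →
        (∀ t ∈ P, ∀ j < H, ¬ Bad (t, j) → ((P.filter fun y => ¬ Bad (y, j) ∧ u y = u t ∧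
          v y = v t ∧ gb (Sf (u t)).e (Sf (u t)).c w1 w2 z0 ρ H (L y) j =
            gb (Sf (u t)).e (Sf (u t)).c w1 w2 z0 ρ H (L t) j).card : ℝ) ≤ N * m) ∧
        (∀ t ∈ P, ∀ j < H, ¬ Bad (t, j) → ((P.filter fun y => ¬ Bad (y, j) ∧ u y = u t ∧
          v y = v t ∧ gb (Sf' (v t)).e (Sf' (v t)).c w1 w2 z0 ρ H (L y) j =
            gb (Sf' (v t)).e (Sf' (v t)).c w1 w2 z0 ρ H (L t) j).card : ℝ) ≤ N * m) := by
  obtain ⟨c0, h1, h2, C, h3, N, hN, key⟩ := hcap_sys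
  refine ⟨c0, h1, h2, C, h3, N, hN, ?_⟩
  intro ι κ κ' P u v L Sf Sf' K E a w1 w2 z0 ρ r H hEH hHE hE hAl
  obtain ⟨s, hs⟩ := key P u v L Sf Sf' K E a w1 w2 z0 ρ r H hEH hHE hE hAl
  refine ⟨s, fun Bad b m hb hm hbad kmb => ?_⟩
  have hS := hs Bad b m hb hm hbad kmb
  have pos : ∀ t ∈ P, 0 < w1 ∧ 0 < w2 ∧ 0 < H := by
    intro t ht
    have hA := hAl t ht
    have hK := hA.K1
    have hK0 : 0 < K := by linarith
    have hw0 : 0 < (Sf (u t)).w 0 := hA.r0.trans_le (hA.sh.r0_le.trans hA.sh.a_le0)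
    have hw2 : 0 < (Sf (u t)).w 2 := hw0.trans_le hA.sh.w0_le
    have hw1 : 0 < (Sf (u t)).w 1 := hw2.trans_le hA.sh.w_le
    have hE0 : 0 < E := (Real.rpow_pos_of_pos (by linarith) _).trans_le hE
    refine ⟨pos_of_mul_pos_right (hw1.trans_le hA.dim.2.1.2) hK0.le,
      pos_of_mul_pos_right (hw2.trans_le hA.dim.2.2.2) hK0.le, ?_⟩
    exact_mod_cast hE0.trans_le hEH
  constructor
  · intro t ht j hj hgood
    obtain ⟨p1, p2, p3⟩ := pos t ht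
    refine hS t ht j hj hgood _ (filter_subset _ _) (fun y hy => ?_) (Or.inl fun y hy => ?_)
    · obtain ⟨_, k1, k2, k3, k4⟩ := mem_filter.1 hy
      exact ⟨k1, k2, k3⟩
    · obtain ⟨_, k1, k2, k3, k4⟩ := mem_filter.1 hy
      have := gb_close p1 p2 p3 k4
      exact ⟨by rw [one_mul]; exact this.1.le, by rw [one_mul]; exact this.2.le⟩
  · intro t ht j hj hgood
    obtain ⟨p1, p2, p3⟩ := pos t ht
    refine hS t ht j hj hgood _ (filter_subset _ _) (fun y hy => ?_) (Or.inr fun y hy => ?_)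
    · obtain ⟨_, k1, k2, k3, k4⟩ := mem_filter.1 hy
      exact ⟨k1, k2, k3⟩
    · obtain ⟨_, k1, k2, k3, k4⟩ := mem_filter.1 hy
      have := gb_close p1 p2 p3 k4
      exact ⟨by rw [one_mul]; exact this.1.le, by rw [one_mul]; exact this.2.le⟩

end Crest.Agent.R136.Hcp208
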