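import Crest.Agent.R136.Alw_500
import Crest.Agent.R136.Hcp3_208

/-!
# R136, PLAN 2 (3) (aligned curved pairs): glue between the multiplicities and `al_end'` (helper467)

* `kmb_of_mul` : `Mul` (500) ⊢ the hypothesis `kmb` of `Hcp208.hcap_sys`, `hcap_gb`;
* `ball_mul`   : lines of one class in one ball (`Nr`, `Nv` in the frame of the sheet of the class);
* `cap_num`    : `hcap` from the count and the number.
-/

set_option autoImplicit false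
set_option linter.unusedVariables false

open Finset

namespace Crest.Agent.R136.Gen467

open Crest.Agent.R136.Sh605 Crest.Agent.R136.Hcp208
open Crest.Agent.R136.K4 (Plk4)
open Crest.Agent.R136.Tlt51 (Shp InP)
open Crest.Agent.R136.Pl2W102 (Near Two1)
open Crest.Agent.R136.Alw500 (Mul lbl two_swap two_pos)
open Crest.Agent.R136.Gbx862 (zj gb gb_close zj_mem)

/-- **`Mul` gives the ball count of `hcap_sys` / `hcap_gb`** -/
theorem kmb_of_mul {P : Finset ℕ} {u : ℕ → ℕ} {L : ℕ → Ln4} {Sf : ℕ → Plk4}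
    {B Bad : ℕ × ℕ → Prop} {z0 ρ w1 w2 W0 b m K1 : ℝ} {H : ℕ}
    (hM : Mul P u L Sf B z0 ρ w1 w2 W0 H b m) (hB : ∀ p, B p → Bad p) (hK1 : 1 ≤ K1) :
    ∀ t ∈ P, ∀ j < H, ¬ Bad (t, j) → ∀ G ⊆ P, (∀ y ∈ G, ¬ Bad (y, j) ∧ u y = u t ∧
      Bx (Sf (u t)).e K1 w1 w2 H (z0 + ρ * (j / H)) (L y) (L t) ∧
      Bv (Sf (u t)).e K1 b w1 w2 ρ (L y).v (L t).v) → (G.card : ℝ) ≤ (K1 * W0) ^ 6 * m := by
  intro t ht j hj hb G hG hy
  refine (hM.mono hB) K1 hK1 t ht j hj hb G fun s hs => ?_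
  obtain ⟨h1, h2, ⟨h3, h4⟩, h5, h6⟩ := hy s hs
  exact ⟨hG hs, h1, h2, h3, h4, h5, h6⟩

/-- **one ball** in the frame and units of the sheet of the class -/
theorem ball_mul {P : Finset ℕ} {u : ℕ → ℕ} {L : ℕ → Ln4} {Sf : ℕ → Plk4}
    {B : ℕ × ℕ → Prop} {z0 ρ w1 w2 W0 b m K1 W r' b' : ℝ} {H : ℕ}
    (hM : Mul P u L Sf B z0 ρ w1 w2 W0 H b m) (hK1 : 1 ≤ K1) (hw1 : 0 ≤ w1) (hw2 : 0 ≤ w2)
    (hH : 0 < H) (hr' : 0 ≤ r') (hb' : 0 ≤ b') (hr : r' * W ≤ K1 / H) (hb : b' * W ≤ K1 * b)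
    {x j : ℕ} (hx : x ∈ P) (hj : j < H) (hxB : ¬ B (x, j))
    (h1 : (Sf (u x)).w 1 ≤ W * w1) (h2 : (Sf (u x)).w 2 ≤ W * w2)
    (G : Finset ℕ) (hG : ∀ y ∈ G, y ∈ P ∧ ¬ B (y, j) ∧ u y = u x ∧
      Nr (Sf (u x)) r' (z0 + ρ * (j / H)) (L y) (L x) ∧ Nv (Sf (u x)) b' ρ (L y).v (L x).v) :
    (G.card : ℝ) ≤ (K1 * W0) ^ 6 * m := by
  have hH0 : (0 : ℝ) < H := by exact_mod_cast hH
  have key : ∀ {y w S : ℝ}, 0 ≤ w → y ≤ r' * S → S ≤ W * w → y ≤ K1 * w / H := by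
    intro y w S hw hy hS
    calc y ≤ r' * S := hy
      _ ≤ r' * (W * w) := mul_le_mul_of_nonneg_left hS hr'
      _ = r' * W * w := by ring
      _ ≤ K1 / H * w := mul_le_mul_of_nonneg_right hr hw
      _ = K1 * w / H := by ring
  have key' : ∀ {y w S : ℝ}, 0 ≤ w → y ≤ b' * S → S ≤ W * w → y ≤ K1 * b * w := by
    intro y w S hw hy hS
    calc y ≤ b' * S := hy
      _ ≤ b' * (W * w) := mul_le_mul_of_nonneg_left hS hb'
      _ = b' * W * w := by ring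
      _ ≤ K1 * b * w := mul_le_mul_of_nonneg_right hb hw
  refine hM K1 hK1 x hx j hj hxB G fun s hs => ?_
  obtain ⟨g1, g2, g3, ⟨g4, g5⟩, g6, g7⟩ := hG s hs
  exact ⟨g1, g2, g3, key hw1 g4 h1, key hw2 g5 h2, key' hw1 g6 h1, key' hw2 g7 h2⟩

/-- two lines with the same label are close in the units of the sheet of the class -/
theorem lbl_nr {Sf : ℕ → Plk4} {L : ℕ → Ln4} {w1 w2 z0 ρ W : ℝ} {H c s t j : ℕ} (hw1 : 0 < w1)
    (hw2 : 0 < w2) (hH : 0 < H) (h1 : w1 ≤ W * (Sf c).w 1) (h2 : w2 ≤ W * (Sf c).w 2)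
    (h : lbl Sf L w1 w2 z0 ρ H c s j = lbl Sf L w1 w2 z0 ρ H c t j) :
    Nr (Sf c) (W / H) (z0 + ρ * (j / H)) (L s) (L t) := by
  have hH0 : (0 : ℝ) < H := by exact_mod_cast hH
  obtain ⟨g1, g2⟩ := gb_close hw1 hw2 hH h
  have key : ∀ {y w S : ℝ}, y < w / H → w ≤ W * S → y ≤ W / H * S := by
    intro y w S hy hS
    calc y ≤ w / H := hy.le
      _ ≤ W * S / H := div_le_div_of_nonneg_right hS hH0.le
      _ = W / H * S := by ring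
  exact ⟨key g1 h1, key g2 h2⟩

section two

variable {qm qp : Fin 3 → ℝ} {L : ℕ → Ln4} {P : Finset ℕ} {cu cv : ℕ → ℕ} {Uf Vf : ℕ → Plk4}
  {W M a w1 w2 z0 ρ r : ℝ}

/-- **wedge count** (conclusion of the wedge lemma at the good incidence `(t, j)`): `2 m` lines, if
every ball (`2 W / H` in position, `β` in velocity) has at most `m`. -/
def Wedge (L : ℕ → Ln4) (cv : ℕ → ℕ) (Vf : ℕ → Plk4) (W z0 ρ β : ℝ) (H : ℕ)
    (Gen : ℕ × ℕ → ℕ → Prop) (t j : ℕ) : Prop :=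
  ∀ (G : Finset ℕ) (m : ℝ), 0 ≤ m → (∀ y ∈ G, InP (L y) (Vf (cv t)) z0 ρ ∧
      Nr (Vf (cv t)) (W / H) (z0 + ρ * (j / H)) (L y) (L t) ∧ ¬ Gen (t, j) y) →
    (∀ x ∈ G, ∀ G' ⊆ G, (∀ y ∈ G', Nr (Vf (cv t)) (2 * (W / H)) (z0 + ρ * (j / H)) (L y) (L x) ∧
      Nv (Vf (cv t)) β ρ (L y).v (L x).v) → (G'.card : ℝ) ≤ m) → (G.card : ℝ) ≤ 2 * m

open Classical in
/-- **`hGen`** : the lines of the second class of `t` through its label which are not generic -/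
theorem hgen_of (h : Two1 qm qp L P cu cv Uf Vf W M a w1 w2 z0 ρ r) {H : ℕ} (hH : 1 ≤ H)
    {B Bad : ℕ × ℕ → Prop} {Gen : ℕ × ℕ → ℕ → Prop} {b m K1 β : ℝ} (hm : 0 ≤ m)
    (hM : Mul P cv L Vf B z0 ρ w1 w2 W H b m) (hB : ∀ p, B p → Bad p) (hK1 : 1 ≤ K1)
    (hr : 2 * W ^ 2 ≤ K1) (hβ : 0 ≤ β) (hb : β * W ≤ K1 * b)
    (hw : ∀ t ∈ P, ∀ j < H, ¬ Bad (t, j) → Wedge L cv Vf W z0 ρ β H Gen t j) :
    ∀ t ∈ P, ∀ j < H, ¬ Bad (t, j) → ((P.filter fun s => ¬ Bad (s, j) ∧ cv s = cv t ∧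
      lbl Vf L w1 w2 z0 ρ H (cv t) s j = lbl Vf L w1 w2 z0 ρ H (cv t) t j ∧
      ¬ Gen (t, j) s).card : ℝ) ≤ 2 * ((K1 * W) ^ 6 * m) := by
  intro t ht j hj hb'
  have hW := h.W1
  have hH0 : (0 : ℝ) < H := by exact_mod_cast (show 0 < H by omega)
  refine hw t ht j hj hb' _ ((K1 * W) ^ 6 * m) (by positivity) (fun y hy => ?_) ?_
  · obtain ⟨hyP, k1, k2, k3, k4⟩ := mem_filter.1 hy
    obtain ⟨_, n1, n2⟩ := h.dimV t ht
    refine ⟨?_, lbl_nr h.w10 h.w20 (by omega) n1.1 n2.1 k3, k4⟩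
    have := h.inV y hyP
    rwa [k2] at this
  · intro x hx G' hG' hy
    obtain ⟨hxP, x1, x2, x3, x4⟩ := mem_filter.1 hx
    obtain ⟨_, n1, n2⟩ := h.dimV x hxP
    refine ball_mul (r' := 2 * (W / H)) (b' := β) (W := W) (hM.mono hB) hK1 h.w10.le h.w20.le
      (by omega) (by positivity) hβ ?_ hb hxP hj x1 n1.2 n2.2 G' fun y hyG => ?_
    · calc 2 * (W / H) * W = 2 * W ^ 2 / H := by ring
        _ ≤ K1 / H := div_le_div_of_nonneg_right hr hH0.le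
    · obtain ⟨hyP, y1, y2, y3, y4⟩ := mem_filter.1 (hG' hyG)
      obtain ⟨k1, k2⟩ := hy y hyG
      rw [x2]
      exact ⟨hyP, y1, y2, k1, k2⟩

end two

end Crest.Agent.R136.Gen467
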