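import Crest.Agent.R136.Pl2B_860

/-!
# R136 (S0187), PLAN 2: final interfaces (helper860)

* `Two7` : `Two1` over a sub-cell `[z0, z0 + ρ]` of the cell `[zL, zL + ρL]` of the sheets.
* `Al1`  : output of the base tilt theorem at one line = input of the alignment theorem.
* `BTR R`, `ALR R` : base tilt and alignment theorems for a relation `R` (`R = Al1` is the official
  one).  `UBal` : mixed curvatures (one step).  `ALB` : balanced curvatures.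
-/

set_option autoImplicit false
set_option linter.unusedVariables false

open Finset

namespace Crest.Agent.R136.Pl2

open Crest.Agent.R136.Sh605 Crest.Agent.R136.Fl808
open Crest.Agent.R136.K4 (Plk4)
open Crest.Agent.R136.Tlt51 (Shp InP)
open Crest.Agent.R136.Deep51 (CloseC)
open Crest.Agent.R136.KapP335 (kapP expP DetP)
open Crest.Agent.R136.Tl102 (angC)
open Crest.Agent.R136.Pl2W102 (Near Ex2 Two1)

/-- `Two1` over a sub-cell, the sheets and lines over the long cell -/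
structure Two7 (qm qp : Fin 3 → ℝ) (L : ℕ → Ln4) (P : Finset ℕ) (cu cv : ℕ → ℕ)
    (Uf Vf : ℕ → Plk4) (W M a w1 w2 z0 ρ zL ρL r : ℝ) : Prop where
  to1 : Two1 qm qp L P cu cv Uf Vf W M a w1 w2 z0 ρ r
  rρ : r ≤ ρ
  lo : zL ≤ z0
  hi : z0 + ρ ≤ zL + ρL
  long : 128 * ρ ≤ ρL
  short : ρL ≤ 128 * ρ
  shU : ∀ t ∈ P, Shp (Uf (cu t)) zL ρL r
  shV : ∀ t ∈ P, Shp (Vf (cv t)) zL ρL r
  inU : ∀ t ∈ P, InP (L t) (Uf (cu t)) zL ρL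
  inV : ∀ t ∈ P, InP (L t) (Vf (cv t)) zL ρL

/-- relation between two sheets at a common line: `R X S S' T a w1 w2 z0 ρ` -/
abbrev Rel := ℝ → Plk4 → Plk4 → Ln4 → ℝ → ℝ → ℝ → ℝ → ℝ → Prop

/-- **output of the base tilt theorem at one line** (`S` = the more curved sheet), `Y = kp S` :
small base tilt, `S'` close to `S` up to `K Y`, hull frames of both sheets with tilts `≤ K Y`. -/
structure Al1 (K : ℝ) (S S' : Plk4) (T : Ln4) (a w1 w2 z0 ρ : ℝ) : Prop where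
  ang : angC S S' * w1 ≤ K * w2
  close : CloseC S'.e S'.w S'.q S'.a S.q (K * kp S z0 ρ T) T z0 ρ
  fr : ∃ f g : Fin 3 → V3, FH K (kp S z0 ρ T) S f z0 ρ ∧ FL K (kp S z0 ρ T) S f z0 ρ ∧
    FH K (kp S z0 ρ T) S' g z0 ρ ∧ |dt (f 0) (g 1)| * w1 ≤ K * kp S z0 ρ T ∧
    |dt (f 0) (g 2)| * w2 ≤ K * kp S z0 ρ T ∧ |dt (g 0) (f 1)| * w1 ≤ K * kp S z0 ρ T ∧
    |dt (g 0) (f 2)| * w2 ≤ K * kp S z0 ρ T

/-- **base tilt theorem** with output `R` -/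
def BTR (R : Rel) : Prop := ∀ (η : ℝ) (qm qp : Fin 3 → ℝ), Ex2 η qm qp →
  ∃ K0 C : ℝ, 0 ≤ K0 ∧ 0 ≤ C ∧
  ∀ (L : ℕ → Ln4) (P : Finset ℕ) (cu cv : ℕ → ℕ) (Uf Vf : ℕ → Plk4) (W M a w1 w2 z0 ρ r : ℝ),
    Two1 qm qp L P cu cv Uf Vf W M a w1 w2 z0 ρ r → P.Nonempty →
    (∀ t ∈ P, TypP ((2 * W) ^ K0) W a (Uf (cu t)) (Vf (cv t)) (L t) z0 ρ) →
    ∃ t ∈ P, R ((2 * W) ^ C) (Uf (cu t)) (Vf (cv t)) (L t) a w1 w2 z0 ρ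

/-- **alignment theorem** with input `R` -/
def ALR (R : Rel) : Prop := ∃ η : ℝ, 0 < η ∧ ∀ qm qp : Fin 3 → ℝ, Ex2 η qm qp →
  ∃ K0 C : ℝ, 0 ≤ K0 ∧ 0 ≤ C ∧
  ∀ (L : ℕ → Ln4) (P : Finset ℕ) (cu cv : ℕ → ℕ) (Uf Vf : ℕ → Plk4)
    (W M a w1 w2 z0 ρ zL ρL r : ℝ),
    Two7 qm qp L P cu cv Uf Vf W M a w1 w2 z0 ρ zL ρL r → P.Nonempty →
    (∀ t ∈ P, TypP ((2 * W) ^ K0) W a (Uf (cu t)) (Vf (cv t)) (L t) z0 ρ) →
    (∀ t ∈ P, R W (Uf (cu t)) (Vf (cv t)) (L t) a w1 w2 z0 ρ) →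
    ∃ t ∈ P,
      CloseC (Uf (cu t)).e (Uf (cu t)).w (Uf (cu t)).q (Uf (cu t)).a (Vf (cv t)).q
        ((2 * W) ^ C * a) (L t) z0 ρ ∧
      CloseC (Vf (cv t)).e (Vf (cv t)).w (Vf (cv t)).q (Vf (cv t)).a (Uf (cu t)).q
        ((2 * W) ^ C * a) (L t) z0 ρ

/-- **(A) mixed curvatures** : the curvature of the flatter sheet is comparable somewhere. -/
def UBal (R : Rel) : Prop := ∃ η : ℝ, 0 < η ∧ ∀ qm qp : Fin 3 → ℝ, Ex2 η qm qp →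
  ∃ K0 C : ℝ, 0 ≤ K0 ∧ 0 ≤ C ∧
  ∀ (L : ℕ → Ln4) (P : Finset ℕ) (cu cv : ℕ → ℕ) (Uf Vf : ℕ → Plk4)
    (W M a w1 w2 z0 ρ zL ρL r : ℝ),
    Two7 qm qp L P cu cv Uf Vf W M a w1 w2 z0 ρ zL ρL r → P.Nonempty →
    (∀ t ∈ P, TypP ((2 * W) ^ K0) W a (Uf (cu t)) (Vf (cv t)) (L t) z0 ρ) →
    (∀ t ∈ P, R W (Uf (cu t)) (Vf (cv t)) (L t) a w1 w2 z0 ρ) →
    ∃ t ∈ P, kp (Uf (cu t)) z0 ρ (L t) ≤ (2 * W) ^ C * kp (Vf (cv t)) z0 ρ (L t)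

/-- **(B) balanced curvatures** : alignment when the two curvature extents are comparable. -/
def ALB (R : Rel) : Prop := ∃ η : ℝ, 0 < η ∧ ∀ qm qp : Fin 3 → ℝ, Ex2 η qm qp →
  ∃ K0 C : ℝ, 0 ≤ K0 ∧ 0 ≤ C ∧
  ∀ (L : ℕ → Ln4) (P : Finset ℕ) (cu cv : ℕ → ℕ) (Uf Vf : ℕ → Plk4)
    (W M a w1 w2 z0 ρ zL ρL r : ℝ),
    Two7 qm qp L P cu cv Uf Vf W M a w1 w2 z0 ρ zL ρL r → P.Nonempty →
    (∀ t ∈ P, TypP ((2 * W) ^ K0) W a (Uf (cu t)) (Vf (cv t)) (L t) z0 ρ) →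
    (∀ t ∈ P, R W (Uf (cu t)) (Vf (cv t)) (L t) a w1 w2 z0 ρ) →
    (∀ t ∈ P, kp (Uf (cu t)) z0 ρ (L t) ≤ W * kp (Vf (cv t)) z0 ρ (L t)) →
    ∃ t ∈ P,
      CloseC (Uf (cu t)).e (Uf (cu t)).w (Uf (cu t)).q (Uf (cu t)).a (Vf (cv t)).q
        ((2 * W) ^ C * a) (L t) z0 ρ ∧
      CloseC (Vf (cv t)).e (Vf (cv t)).w (Vf (cv t)).q (Vf (cv t)).a (Uf (cu t)).q
        ((2 * W) ^ C * a) (L t) z0 ρ

end Crest.Agent.R136.Pl2
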