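import Mathlib

/-!
# R136, PLAN 2 (AL): refinement of two systems of classes, abstract part (helper877)

* `prune2` : two labels, thresholds `m1`, `m2`;
* `refine_abs` : every class of `u` (resp. `v`) has at least `M / W` members and is cut into at most `N`
  cells; after removal of at most half of the members every remaining cell has at least `M / (4 N W)`
  remaining members, for both systems.
-/

set_option autoImplicit false

open Finset

namespace Crest.Agent.R136.Rf877

variable {ι : Type}

open Classical in
/-- **pruning for two labels** -/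
theorem prune2 (f g : ι → ℕ) {m1 m2 : ℝ} (h1 : 0 ≤ m1) (h2 : 0 ≤ m2) :
    ∀ (n : ℕ) (O : Finset ι), O.card ≤ n →
    ∃ G ⊆ O, (O.card : ℝ) - m1 * ((O.image f).card : ℝ) - m2 * ((O.image g).card : ℝ) ≤ (G.card : ℝ) ∧
      ∀ o ∈ G, m1 ≤ ((G.filter fun p => f p = f o).card : ℝ) ∧
        m2 ≤ ((G.filter fun p => g p = g o).card : ℝ) := by
  intro n
  induction n with
  | zero =>
    intro O hO
    have h0 : O = ∅ := card_eq_zero.1 (Nat.le_zero.1 hO)
    subst h0
    exact ⟨∅, Subset.refl _, by simp, by simp⟩
  | succ n ih =>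
    intro O hO
    -- removal of one class of a label
    have key : ∀ (a b : ι → ℕ) (o : ι), o ∈ O → ∀ m m' : ℝ, 0 ≤ m → 0 ≤ m' →
        ((O.filter fun p => a p = a o).card : ℝ) < m →
        (O.card : ℝ) - m * ((O.image a).card : ℝ) - m' * ((O.image b).card : ℝ) ≤
          ((O.filter fun p => a p ≠ a o).card : ℝ) -
            m * (((O.filter fun p => a p ≠ a o).image a).card : ℝ) -
            m' * (((O.filter fun p => a p ≠ a o).image b).card : ℝ) := by
      intro a b o ho m m' hm hm' hlt
      have e1 : (O.card : ℝ) = ((O.filter fun p => a p = a o).card : ℝ) +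
          ((O.filter fun p => a p ≠ a o).card : ℝ) := by
        have := card_filter_add_card_filter_not (s := O) (fun p => a p = a o)
        exact_mod_cast this.symm
      have e2 : (((O.filter fun p => a p ≠ a o).image a).card : ℝ) + 1 ≤ ((O.image a).card : ℝ) := by
        have hn : a o ∉ (O.filter fun p => a p ≠ a o).image a := by
          intro h
          obtain ⟨p, hp, hpo⟩ := mem_image.1 h
          exact (mem_filter.1 hp).2 hpo
        have hs : insert (a o) ((O.filter fun p => a p ≠ a o).image a) ⊆ O.image a := by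
          intro x hx
          rcases mem_insert.1 hx with h | h
          · rw [h]; exact mem_image_of_mem _ ho
          · exact image_subset_image (filter_subset _ _) h
        have := card_le_card hs
        rw [card_insert_of_notMem hn] at this
        exact_mod_cast this
      have e3 : (((O.filter fun p => a p ≠ a o).image b).card : ℝ) ≤ ((O.image b).card : ℝ) := by
        exact_mod_cast card_le_card (image_subset_image (filter_subset _ _))
      have e4 := mul_le_mul_of_nonneg_left e2 hm
      have e5 := mul_le_mul_of_nonneg_left e3 hm'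
      linarith
    have hlt' : ∀ (a : ι → ℕ) (o : ι), o ∈ O →
        (O.filter fun p => a p ≠ a o).card < O.card := by
      intro a o ho
      refine card_lt_card ⟨filter_subset _ _, fun h => ?_⟩
      have := h ho
      rw [mem_filter] at this
      exact this.2 rfl
    by_cases hg : ∀ o ∈ O, m1 ≤ ((O.filter fun p => f p = f o).card : ℝ) ∧
        m2 ≤ ((O.filter fun p => g p = g o).card : ℝ)
    · refine ⟨O, Subset.refl _, ?_, hg⟩
      have k1 : 0 ≤ m1 * ((O.image f).card : ℝ) := by positivity
      have k2 : 0 ≤ m2 * ((O.image g).card : ℝ) := by positivity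
      linarith
    · push Not at hg
      obtain ⟨o, ho, hlt⟩ := hg
      by_cases hf : m1 ≤ ((O.filter fun p => f p = f o).card : ℝ)
      · have hlt2 := hlt hf
        obtain ⟨G, hG, hcard, hgood⟩ := ih (O.filter fun p => g p ≠ g o) (by
          have := hlt' g o ho; omega)
        refine ⟨G, hG.trans (filter_subset _ _), le_trans ?_ hcard, hgood⟩
        have := key g f o ho m2 m1 h2 h1 hlt2
        linarith
      · have hlt2 := not_le.1 hf
        obtain ⟨G, hG, hcard, hgood⟩ := ih (O.filter fun p => f p ≠ f o) (by
          have := hlt' f o ho; omega)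
        exact ⟨G, hG.trans (filter_subset _ _), (key f g o ho m1 m2 h1 h2 hlt2).trans hcard, hgood⟩

open Classical in
/-- number of classes of a full system -/
theorem classes_le (P : Finset ι) (u : ι → ℕ) {M W : ℝ}
    (hfull : ∀ t ∈ P, M ≤ W * ((P.filter fun s => u s = u t).card : ℝ)) :
    ((P.image u).card : ℝ) * M ≤ W * (P.card : ℝ) := by
  have h1 : (P.card : ℝ) = ∑ c ∈ P.image u, ((P.filter fun s => u s = c).card : ℝ) := by
    have := card_eq_sum_card_fiberwise (s := P) (t := P.image u) (f := u)
      (fun x hx => mem_image_of_mem u hx)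
    exact_mod_cast this
  rw [h1, mul_sum]
  calc ((P.image u).card : ℝ) * M = ∑ c ∈ P.image u, M := by rw [sum_const, nsmul_eq_mul]
    _ ≤ _ := by
      refine sum_le_sum fun c hc => ?_
      obtain ⟨t, ht, rfl⟩ := mem_image.1 hc
      exact hfull t ht

open Classical in
/-- number of cells of a system cut into cells -/
theorem cells_le (P : Finset ι) (u c : ι → ℕ) {N : ℝ}
    (hN : ∀ t ∈ P, (((P.filter fun s => u s = u t).image c).card : ℝ) ≤ N) :
    ((P.image fun t => Nat.pair (u t) (c t)).card : ℝ) ≤ N * ((P.image u).card : ℝ) := by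
  have h1 : (P.image fun t => Nat.pair (u t) (c t)) ⊆
      (P.image u).biUnion fun k => ((P.filter fun s => u s = k).image c).image fun b =>
        Nat.pair k b := by
    intro x hx
    obtain ⟨t, ht, rfl⟩ := mem_image.1 hx
    rw [mem_biUnion]
    refine ⟨u t, mem_image_of_mem u ht, ?_⟩
    exact mem_image.2 ⟨c t, mem_image_of_mem c (mem_filter.2 ⟨ht, rfl⟩), rfl⟩
  have h2 : ((P.image fun t => Nat.pair (u t) (c t)).card : ℝ) ≤
      ∑ k ∈ P.image u, (((P.filter fun s => u s = k).image c).card : ℝ) := by
    have := (card_le_card h1).trans card_biUnion_le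
    have h3 : ((P.image fun t => Nat.pair (u t) (c t)).card : ℝ) ≤
      ∑ k ∈ P.image u, ((((P.filter fun s => u s = k).image c).image fun b => Nat.pair k b).card : ℝ) := by
      exact_mod_cast this
    refine h3.trans (sum_le_sum fun k _ => ?_)
    exact_mod_cast card_image_le
  refine h2.trans ?_
  calc ∑ k ∈ P.image u, (((P.filter fun s => u s = k).image c).card : ℝ) ≤
      ∑ k ∈ P.image u, N := by
        refine sum_le_sum fun k hk => ?_
        obtain ⟨t, ht, rfl⟩ := mem_image.1 hk
        exact hN t ht
    _ = _ := by rw [sum_const, nsmul_eq_mul]; ring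

open Classical in
/-- **refinement of two full systems** -/
theorem refine_abs (P : Finset ι) (u v cu cv : ι → ℕ) {M W N : ℝ} (hM : 0 < M) (hW : 0 < W)
    (hN : 0 < N)
    (fu : ∀ t ∈ P, M ≤ W * ((P.filter fun s => u s = u t).card : ℝ))
    (fv : ∀ t ∈ P, M ≤ W * ((P.filter fun s => v s = v t).card : ℝ))
    (nu : ∀ t ∈ P, (((P.filter fun s => u s = u t).image cu).card : ℝ) ≤ N)
    (nv : ∀ t ∈ P, (((P.filter fun s => v s = v t).image cv).card : ℝ) ≤ N) :
    ∃ G ⊆ P, (P.card : ℝ) ≤ 2 * (G.card : ℝ) ∧ ∀ t ∈ G,
      M ≤ 4 * N * W * ((G.filter fun s => Nat.pair (u s) (cu s) = Nat.pair (u t) (cu t)).card : ℝ) ∧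
      M ≤ 4 * N * W * ((G.filter fun s => Nat.pair (v s) (cv s) = Nat.pair (v t) (cv t)).card : ℝ) := by
  have m0 : 0 ≤ M / (4 * N * W) := by positivity
  obtain ⟨G, hG, hcard, hgood⟩ := prune2 (fun t => Nat.pair (u t) (cu t))
    (fun t => Nat.pair (v t) (cv t)) m0 m0 P.card P le_rfl
  refine ⟨G, hG, ?_, ?_⟩
  · have k : ∀ (u c : ι → ℕ), (∀ t ∈ P, M ≤ W * ((P.filter fun s => u s = u t).card : ℝ)) →
        (∀ t ∈ P, (((P.filter fun s => u s = u t).image c).card : ℝ) ≤ N) →
        M / (4 * N * W) * ((P.image fun t => Nat.pair (u t) (c t)).card : ℝ) ≤ (P.card : ℝ) / 4 := by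
      intro u c h1 h2
      have e1 := classes_le P u h1
      have e2 := cells_le P u c h2
      have e3 : M / (4 * N * W) * ((P.image fun t => Nat.pair (u t) (c t)).card : ℝ) ≤
          M / (4 * N * W) * (N * ((P.image u).card : ℝ)) := mul_le_mul_of_nonneg_left e2 m0
      refine e3.trans ?_
      have e4 : M / (4 * N * W) * (N * ((P.image u).card : ℝ)) =
          ((P.image u).card : ℝ) * M / (4 * W) := by
        field_simp
      rw [e4, div_le_div_iff₀ (by positivity) (by norm_num)]
      nlinarith
    have k1 := k u cu fu nu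
    have k2 := k v cv fv nv
    linarith
  · intro t ht
    obtain ⟨g1, g2⟩ := hgood t ht
    rw [div_le_iff₀ (by positivity)] at g1 g2
    exact ⟨by linarith, by linarith⟩

end Crest.Agent.R136.Rf877
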