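import Crest.Agent.R136.Pl2W_102
import Crest.Agent.R136.Rfa_877

/-!
# R136, PLAN 2 (AL): refinement of the classes of `Two1` by tubes (helper877)

`refine2` : the classes of both systems are cut into cells (lines which are within `1 / m` of each
other, in units of the sheet, over the whole cell `[z0, z0 + ρ]`), and half of the lines are kept such
that every remaining cell is full up to `4 (3 m)^4 W`. `Two1` is preserved with this deficit.
-/

set_option autoImplicit false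
set_option linter.unusedVariables false

open Finset

namespace Crest.Agent.R136.Rf877

open Crest.Agent.R136.Sh605
open Crest.Agent.R136.K4 (Plk4)
open Crest.Agent.R136.Tlt51 (Shp InP)
open Crest.Agent.R136.Tl102 (StP)
open Crest.Agent.R136.Pl2W102 (Near Ex2 Two1)
open Crest.Agent.R136.Phc248 (phC)

/-- the lines `s`, `t` are within `κ` of each other in the units of the sheet `S` -/
def Tub (S : Plk4) (κ : ℝ) (s t : Ln4) (z0 ρ : ℝ) : Prop :=
  ∀ z, z0 ≤ z → z ≤ z0 + ρ →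
    |dt (S.e 1) (s.pos z - t.pos z)| ≤ κ * S.w 1 ∧ |dt (S.e 2) (s.pos z - t.pos z)| ≤ κ * S.w 2 ∧
    |dt (S.e 0) (s.pos z - t.pos z)| ≤ 4 * (S.a + κ * S.w 0)

theorem Tub.symm {S : Plk4} {κ : ℝ} {s t : Ln4} {z0 ρ : ℝ} (h : Tub S κ s t z0 ρ) :
    Tub S κ t s z0 ρ := by
  intro z h1 h2
  obtain ⟨a, b, c⟩ := h z h1 h2
  have e : ∀ i, |dt (S.e i) (t.pos z - s.pos z)| = |dt (S.e i) (s.pos z - t.pos z)| := by
    intro i
    rw [dt_sub, dt_sub, abs_sub_comm]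
  rw [e 1, e 2, e 0]
  exact ⟨a, b, c⟩

/-- integer code of the lateral position at the height `z` -/
noncomputable def cd (S : Plk4) (m : ℕ) (t : Ln4) (i : Fin 3) (z : ℝ) : ℤ :=
  ⌊(m : ℝ) * (dt (S.e i) (t.pos z - S.c.pos z) / S.w i)⌋

/-- code of a line in a sheet -/
noncomputable def code (S : Plk4) (m : ℕ) (z0 ρ : ℝ) (t : Ln4) : ℕ :=
  Encodable.encode ((cd S m t 1 z0, cd S m t 1 (z0 + ρ)), (cd S m t 2 z0, cd S m t 2 (z0 + ρ)))

theorem cd_mem {S : Plk4} {m : ℕ} {t : Ln4} {i : Fin 3} {z : ℝ} (hw : 0 < S.w i)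
    (h : |dt (S.e i) (t.pos z - S.c.pos z)| ≤ S.w i) :
    cd S m t i z ∈ Finset.Icc (-(m : ℤ)) (m : ℤ) := by
  have h1 : |dt (S.e i) (t.pos z - S.c.pos z) / S.w i| ≤ 1 := by
    rw [abs_div, abs_of_pos hw, div_le_one hw]; exact h
  have m0 : (0:ℝ) ≤ m := Nat.cast_nonneg m
  rw [abs_le] at h1
  rw [Finset.mem_Icc, cd]
  constructor
  · rw [Int.le_floor]
    push_cast
    nlinarith
  · have : (m : ℝ) * (dt (S.e i) (t.pos z - S.c.pos z) / S.w i) ≤ (m : ℝ) := by nlinarith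
    have h2 := Int.floor_le_floor this
    simpa using h2

theorem cd_close {S : Plk4} {m : ℕ} (hm : 1 ≤ m) {s t : Ln4} {i : Fin 3} {z : ℝ} (hw : 0 < S.w i)
    (h : cd S m s i z = cd S m t i z) :
    |dt (S.e i) (s.pos z - t.pos z)| ≤ 1 / m * S.w i := by
  have m0 : (0:ℝ) < m := by exact_mod_cast hm
  have h1 := Int.abs_sub_lt_one_of_floor_eq_floor h
  have e1 : (m : ℝ) * (dt (S.e i) (s.pos z - S.c.pos z) / S.w i) -
      (m : ℝ) * (dt (S.e i) (t.pos z - S.c.pos z) / S.w i) =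
      (m : ℝ) / S.w i * dt (S.e i) (s.pos z - t.pos z) := by
    have : dt (S.e i) (s.pos z - t.pos z) =
        dt (S.e i) (s.pos z - S.c.pos z) - dt (S.e i) (t.pos z - S.c.pos z) := by
      simp only [dt_sub]; ring
    rw [this]; field_simp
  rw [e1, abs_mul, abs_of_pos (by positivity : (0:ℝ) < m / S.w i)] at h1
  rw [div_mul_eq_mul_div, div_lt_one hw] at h1
  rw [one_div, inv_mul_eq_div, le_div_iff₀ m0]
  linarith

/-- affine functions which are small at both ends -/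
theorem aff_le {s t : Ln4} {x : V3} {z0 ρ z B : ℝ} (hρ : 0 < ρ) (h1 : z0 ≤ z) (h2 : z ≤ z0 + ρ)
    (ha : |dt x (s.pos z0 - t.pos z0)| ≤ B) (hb : |dt x (s.pos (z0 + ρ) - t.pos (z0 + ρ))| ≤ B) :
    |dt x (s.pos z - t.pos z)| ≤ B := by
  have e : dt x (s.pos z - t.pos z) = (1 - (z - z0) / ρ) * dt x (s.pos z0 - t.pos z0) +
      (z - z0) / ρ * dt x (s.pos (z0 + ρ) - t.pos (z0 + ρ)) := by
    simp only [dt, Ln4.pos, Pi.sub_apply]
    field_simp
    ring
  have l0 : 0 ≤ (z - z0) / ρ := div_nonneg (by linarith) hρ.le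
  have l1 : (z - z0) / ρ ≤ 1 := by rw [div_le_one hρ]; linarith
  rw [e]
  calc _ ≤ |(1 - (z - z0) / ρ) * dt x (s.pos z0 - t.pos z0)| +
        |(z - z0) / ρ * dt x (s.pos (z0 + ρ) - t.pos (z0 + ρ))| := abs_add_le _ _
    _ ≤ (1 - (z - z0) / ρ) * B + (z - z0) / ρ * B := by
        rw [abs_mul, abs_mul, abs_of_nonneg (by linarith : 0 ≤ 1 - (z - z0) / ρ), abs_of_nonneg l0]
        exact add_le_add (mul_le_mul_of_nonneg_left ha (by linarith))
          (mul_le_mul_of_nonneg_left hb l0)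
    _ = B := by ring

theorem tub_of_code {S : Plk4} {m : ℕ} (hm : 1 ≤ m) {s t : Ln4} {z0 ρ r : ℝ} (hρ : 0 < ρ)
    (hS : Shp S z0 ρ r) (hr : 0 < r) (hs : InP s S z0 ρ) (ht : InP t S z0 ρ)
    (h : code S m z0 ρ s = code S m z0 ρ t) : Tub S (1 / m) s t z0 ρ := by
  have a0 : 0 < S.a := hr.trans_le hS.r0_le
  have w0 : 0 < S.w 0 := a0.trans_le hS.a_le0
  have w2 : 0 < S.w 2 := w0.trans_le hS.w0_le
  have w1 : 0 < S.w 1 := w2.trans_le hS.w_le
  have h' := Encodable.encode_injective h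
  simp only [Prod.mk.injEq] at h'
  obtain ⟨⟨k1, k2⟩, ⟨k3, k4⟩⟩ := h'
  have SP : StP S.e S.c S.w S.q z0 ρ := StP.of_shN hS w0
  intro z h1 h2
  have g1 := aff_le hρ h1 h2 (cd_close hm w1 k1) (cd_close hm w1 k2)
  have g2 := aff_le hρ h1 h2 (cd_close hm w2 k3) (cd_close hm w2 k4)
  refine ⟨g1, g2, ?_⟩
  have dbl : ∀ u : Ln4, InK S.e S.c S.w z (u.pos z) → InK S.e S.c (dbl3 S.w) z (u.pos z) := by
    intro u hu i
    refine (hu i).trans ?_
    have : 0 ≤ S.w i := by fin_cases i <;> [exact w0.le; exact w1.le; exact w2.le]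
    simp only [dbl3]; linarith
  obtain ⟨p1, p2⟩ := hs z h1 h2
  obtain ⟨q1, q2⟩ := ht z h1 h2
  have P := (SP.path h1 h2 (dbl t q1) (dbl s p1)).2
  refine P.trans ?_
  have m0 : (0:ℝ) < m := by exact_mod_cast hm
  have e1 : S.w 0 / S.w 1 * |dt (S.e 1) (s.pos z - t.pos z)| ≤ 1 / m * S.w 0 := by
    calc _ ≤ S.w 0 / S.w 1 * (1 / m * S.w 1) := mul_le_mul_of_nonneg_left g1 (by positivity)
      _ = _ := by field_simp
  have e2 : S.w 0 / S.w 2 * |dt (S.e 2) (s.pos z - t.pos z)| ≤ 1 / m * S.w 0 := by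
    calc _ ≤ S.w 0 / S.w 2 * (1 / m * S.w 2) := mul_le_mul_of_nonneg_left g2 (by positivity)
      _ = _ := by field_simp
  have e3 : |S.q z (s.pos z) - S.q z (t.pos z)| ≤ 2 * S.a := by
    have := abs_sub (S.q z (s.pos z)) (S.q z (t.pos z))
    linarith
  linarith

theorem code_mem {S : Plk4} {m : ℕ} {t : Ln4} {z0 ρ r : ℝ} (hρ : 0 < ρ) (hr : 0 < r)
    (hS : Shp S z0 ρ r) (ht : InP t S z0 ρ) :
    code S m z0 ρ t ∈ (((Finset.Icc (-(m : ℤ)) m ×ˢ Finset.Icc (-(m : ℤ)) m) ×ˢ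
      (Finset.Icc (-(m : ℤ)) m ×ˢ Finset.Icc (-(m : ℤ)) m)).image Encodable.encode) := by
  have a0 : 0 < S.a := hr.trans_le hS.r0_le
  have w0 : 0 < S.w 0 := a0.trans_le hS.a_le0
  have w2 : 0 < S.w 2 := w0.trans_le hS.w0_le
  have w1 : 0 < S.w 1 := w2.trans_le hS.w_le
  have l0 := (ht z0 le_rfl (by linarith)).1
  have l1 := (ht (z0 + ρ) (by linarith) le_rfl).1
  refine mem_image.2 ⟨_, ?_, rfl⟩
  simp only [mem_product]
  exact ⟨⟨cd_mem w1 (l0 1), cd_mem w1 (l1 1)⟩, ⟨cd_mem w2 (l0 2), cd_mem w2 (l1 2)⟩⟩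

theorem box_card (m : ℕ) (hm : 1 ≤ m) :
    (((((Finset.Icc (-(m : ℤ)) m ×ˢ Finset.Icc (-(m : ℤ)) m) ×ˢ
      (Finset.Icc (-(m : ℤ)) m ×ˢ Finset.Icc (-(m : ℤ)) m)).image
        (Encodable.encode : (ℤ × ℤ) × (ℤ × ℤ) → ℕ)).card : ℕ) : ℝ) ≤ (3 * (m : ℝ)) ^ 4 := by
  have h1 := card_image_le (s := ((Finset.Icc (-(m : ℤ)) m ×ˢ Finset.Icc (-(m : ℤ)) m) ×ˢ
      (Finset.Icc (-(m : ℤ)) m ×ˢ Finset.Icc (-(m : ℤ)) m)))
      (f := (Encodable.encode : (ℤ × ℤ) × (ℤ × ℤ) → ℕ))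
  rw [card_product, card_product, Int.card_Icc] at h1
  have h2 : ((m : ℤ) + 1 - -(m : ℤ)).toNat = 2 * m + 1 := by omega
  rw [h2] at h1
  have h3 : ((((((Finset.Icc (-(m : ℤ)) m ×ˢ Finset.Icc (-(m : ℤ)) m) ×ˢ
      (Finset.Icc (-(m : ℤ)) m ×ˢ Finset.Icc (-(m : ℤ)) m)).image
        (Encodable.encode : (ℤ × ℤ) × (ℤ × ℤ) → ℕ)).card : ℕ) : ℝ)) ≤
        (2 * (m : ℝ) + 1) * (2 * m + 1) * ((2 * m + 1) * (2 * m + 1)) := by
    exact_mod_cast h1
  refine h3.trans ?_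
  have m1 : (1:ℝ) ≤ m := by exact_mod_cast hm
  have e : (2 * (m : ℝ) + 1) * (2 * m + 1) * ((2 * m + 1) * (2 * m + 1)) = (2 * (m:ℝ) + 1) ^ 4 := by
    ring
  rw [e]
  exact pow_le_pow_left₀ (by positivity) (by linarith) 4

open Classical in
/-- **refinement of `Two1` by tubes** -/
theorem refine2 {qm qp : Fin 3 → ℝ} {L : ℕ → Ln4} {P : Finset ℕ} {cu cv : ℕ → ℕ}
    {Uf Vf : ℕ → Plk4} {W M a w1 w2 z0 ρ r : ℝ} (hq : ∀ k, 0 ≤ qm k ∧ qm k ≤ qp k)
    (h : Two1 qm qp L P cu cv Uf Vf W M a w1 w2 z0 ρ r) (m : ℕ) (hm : 1 ≤ m) :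
    ∃ P' ⊆ P, (P.card : ℝ) ≤ 2 * (P'.card : ℝ) ∧ ∃ du dv : ℕ → ℕ,
      (∀ t, (Nat.unpair (du t)).1 = cu t) ∧ (∀ t, (Nat.unpair (dv t)).1 = cv t) ∧
      Two1 qm qp L P' du dv (fun k => Uf (Nat.unpair k).1) (fun k => Vf (Nat.unpair k).1)
        (4 * (3 * (m : ℝ)) ^ 4 * W) M a w1 w2 z0 ρ r ∧
      (∀ s ∈ P, ∀ t ∈ P, du s = du t → cu s = cu t ∧ Tub (Uf (cu t)) (1 / m) (L s) (L t) z0 ρ) ∧
      (∀ s ∈ P, ∀ t ∈ P, dv s = dv t → cv s = cv t ∧
        Tub (Vf (cv t)) (1 / m) (L s) (L t) z0 ρ) := by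
  set kU : ℕ → ℕ := fun t => code (Uf (cu t)) m z0 ρ (L t) with hkU
  set kV : ℕ → ℕ := fun t => code (Vf (cv t)) m z0 ρ (L t) with hkV
  have m0 : (1:ℝ) ≤ m := by exact_mod_cast hm
  have N0 : (0:ℝ) < (3 * (m : ℝ)) ^ 4 := by positivity
  have W0 : 0 < W := lt_of_lt_of_le one_pos h.W1
  obtain ⟨P', hP', hcard, hfull⟩ := refine_abs P cu cv kU kV h.M0 W0 N0 h.fullU h.fullV
    (by
      intro t ht
      refine le_trans ?_ (box_card m hm)
      have : ((P.filter fun s => cu s = cu t).image kU) ⊆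
          (((Finset.Icc (-(m : ℤ)) m ×ˢ Finset.Icc (-(m : ℤ)) m) ×ˢ
      (Finset.Icc (-(m : ℤ)) m ×ˢ Finset.Icc (-(m : ℤ)) m)).image
        (Encodable.encode : (ℤ × ℤ) × (ℤ × ℤ) → ℕ)) := by
        intro x hx
        obtain ⟨s, hs, rfl⟩ := mem_image.1 hx
        have hsP := (mem_filter.1 hs).1
        exact code_mem h.ρ0 h.r0 (h.shU s hsP) (h.inU s hsP)
      exact_mod_cast card_le_card this)
    (by
      intro t ht
      refine le_trans ?_ (box_card m hm)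
      have : ((P.filter fun s => cv s = cv t).image kV) ⊆
          (((Finset.Icc (-(m : ℤ)) m ×ˢ Finset.Icc (-(m : ℤ)) m) ×ˢ
      (Finset.Icc (-(m : ℤ)) m ×ˢ Finset.Icc (-(m : ℤ)) m)).image
        (Encodable.encode : (ℤ × ℤ) × (ℤ × ℤ) → ℕ)) := by
        intro x hx
        obtain ⟨s, hs, rfl⟩ := mem_image.1 hx
        have hsP := (mem_filter.1 hs).1
        exact code_mem h.ρ0 h.r0 (h.shV s hsP) (h.inV s hsP)
      exact_mod_cast card_le_card this)
  refine ⟨P', hP', hcard, fun t => Nat.pair (cu t) (kU t), fun t => Nat.pair (cv t) (kV t), ?_, ?_,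
    ?_, ?_, ?_⟩
  · intro t; simp
  · intro t; simp
  · have hW1 : W ≤ 4 * (3 * (m : ℝ)) ^ 4 * W := by
      have : (1:ℝ) ≤ (3 * (m : ℝ)) ^ 4 := one_le_pow₀ (by linarith)
      nlinarith
    have nr : ∀ {x y : ℝ}, 0 ≤ x → 0 ≤ y → Near W x y → Near (4 * (3 * (m : ℝ)) ^ 4 * W) x y := by
      intro x y hx hy hn
      exact ⟨hn.1.trans (mul_le_mul_of_nonneg_right hW1 hy),
        hn.2.trans (mul_le_mul_of_nonneg_right hW1 hx)⟩
    have posS : ∀ {S : Plk4}, Shp S z0 ρ r → 0 ≤ S.a ∧ 0 ≤ S.w 1 ∧ 0 ≤ S.w 2 := by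
      intro S hS
      have a0 : 0 < S.a := h.r0.trans_le hS.r0_le
      have w0 : 0 < S.w 0 := a0.trans_le hS.a_le0
      have w2 : 0 < S.w 2 := w0.trans_le hS.w0_le
      exact ⟨a0.le, (w2.trans_le hS.w_le).le, w2.le⟩
    exact
      { W1 := h.W1.trans hW1
        M0 := h.M0
        r0 := h.r0
        ρ0 := h.ρ0
        a0 := h.a0
        w10 := h.w10
        w20 := h.w20
        w1ρ := h.w1ρ.trans (mul_le_mul_of_nonneg_right hW1 h.ρ0.le)
        lg := h.lg.trans hW1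
        vel := fun t ht => h.vel t (hP' ht)
        shU := fun t ht => by simpa using h.shU t (hP' ht)
        shV := fun t ht => by simpa using h.shV t (hP' ht)
        inU := fun t ht => by simpa using h.inU t (hP' ht)
        inV := fun t ht => by simpa using h.inV t (hP' ht)
        dimU := fun t ht => by
          obtain ⟨d1, d2, d3⟩ := h.dimU t (hP' ht)
          obtain ⟨p1, p2, p3⟩ := posS (h.shU t (hP' ht))
          simp only [Nat.unpair_pair]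
          exact ⟨nr h.a0.le p1 d1, nr h.w10.le p2 d2, nr h.w20.le p3 d3⟩
        dimV := fun t ht => by
          obtain ⟨d1, d2, d3⟩ := h.dimV t (hP' ht)
          obtain ⟨p1, p2, p3⟩ := posS (h.shV t (hP' ht))
          simp only [Nat.unpair_pair]
          exact ⟨nr h.a0.le p1 d1, nr h.w10.le p2 d2, nr h.w20.le p3 d3⟩
        fullU := fun t ht => (hfull t ht).1
        fullV := fun t ht => (hfull t ht).2
        dmax := fun S hS hSρ => by
          have k1 := h.dmax S hS hSρ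
          have k2 : ((P'.filter fun t => InP (L t) S z0 ρ).card : ℝ) ≤
              ((P.filter fun t => InP (L t) S z0 ρ).card : ℝ) := by
            exact_mod_cast card_le_card (filter_subset_filter _ hP')
          refine (k2.trans k1).trans ?_
          obtain ⟨p1, p2, p3⟩ := posS hS
          have k3 := Phc248.phC_nonneg (qm := qm) (qp := qp) h.a0.le h.w10.le h.w20.le p1 p2 p3
          exact mul_le_mul_of_nonneg_right (mul_le_mul_of_nonneg_right hW1 h.M0.le) k3 }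
  · intro s hs t ht hst
    simp only [Nat.pair_eq_pair] at hst
    obtain ⟨h1, h2⟩ := hst
    refine ⟨h1, ?_⟩
    have h2' : code (Uf (cu t)) m z0 ρ (L s) = code (Uf (cu t)) m z0 ρ (L t) := by
      have : kU s = kU t := h2
      simp only [hkU, h1] at this
      exact this
    exact tub_of_code hm h.ρ0 (h.shU t ht) h.r0 (by have := h.inU s hs; rwa [h1] at this)
      (h.inU t ht) h2'
  · intro s hs t ht hst
    simp only [Nat.pair_eq_pair] at hst
    obtain ⟨h1, h2⟩ := hst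
    refine ⟨h1, ?_⟩
    have h2' : code (Vf (cv t)) m z0 ρ (L s) = code (Vf (cv t)) m z0 ρ (L t) := by
      have : kV s = kV t := h2
      simp only [hkV, h1] at this
      exact this
    exact tub_of_code hm h.ρ0 (h.shV t ht) h.r0 (by have := h.inV s hs; rwa [h1] at this)
      (h.inV t ht) h2'

end Crest.Agent.R136.Rf877
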