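import Crest.Agent.R136.AlD_601
import Crest.Agent.R136.Alw_500
import Crest.Agent.R136.Gen_467
import Crest.Agent.R136.Rft_877
import Crest.Agent.R136.Pl2C_860

/-!
# R136 (S0187), PLAN 2 (AL), balanced case: configuration and leaves of record (helper500)

* `Cf` : configuration after the popular discrepancy `E` and the refinement of the classes by tubes.
  `W` = comparability, `B` = counts (`B ≤` power of `W`), `κ` = tubes, `E ≤ H ≤ 2 E`.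
* `LeafPL` (685), `LeafHull` (412, 792), `LeafNd` (57, 876, 214), `LeafWedge` (467, 296),
  `LeafV7` (818), `LeafV6` (601, 862).
-/

set_option autoImplicit false
set_option linter.unusedVariables false

open Finset

namespace Crest.Agent.R136.Al500

open Crest.Agent.R136.Sh605
open Crest.Agent.R136.K4 (Plk4)
open Crest.Agent.R136.Tlt51 (Shp InP)
open Crest.Agent.R136.Deep51 (CloseC)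
open Crest.Agent.R136.KapP335 (DetP)
open Crest.Agent.R136.Tl102 (angC)
open Crest.Agent.R136.Pl2W102 (Near Ex2 Two1)
open Crest.Agent.R136.Pl2 (Two7 kp FH FL)
open Crest.Agent.R136.Rf877 (Tub)
open Crest.Agent.R136.Alw500 (PLh Mul lbl)
open Crest.Agent.R136.Gen467 (Wedge)
open Crest.Agent.R136.AlD601 (Nd Sm Gn)

/-- dimensions up to `W` -/
def Dm (W a w1 w2 : ℝ) (S : Plk4) : Prop := Near W a S.a ∧ Near W w1 (S.w 1) ∧ Near W w2 (S.w 2)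

/-- closeness in both directions at the line `T`, at the size `s` -/
def Cl2 (S S' : Plk4) (s : ℝ) (T : Ln4) (z0 ρ : ℝ) : Prop :=
  CloseC S.e S.w S.q S.a S'.q s T z0 ρ ∧ CloseC S'.e S'.w S'.q S'.a S.q s T z0 ρ

/-- **the configuration** -/
structure Cf (qm qp : Fin 3 → ℝ) (L : ℕ → Ln4) (P : Finset ℕ) (cu cv : ℕ → ℕ) (Uf Vf : ℕ → Plk4)
    (W B M a w1 w2 z0 ρ zL ρL r κ E : ℝ) (H : ℕ) : Prop where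
  ne : P.Nonempty
  two : Two7 qm qp L P cu cv Uf Vf B M a w1 w2 z0 ρ zL ρL r
  qq : ∀ k, 0 ≤ qm k ∧ qm k ≤ qp k
  W1 : 1 ≤ W
  WB : W ≤ B
  κ0 : 0 < κ
  E1 : 1 ≤ E
  EH : E ≤ H
  HE : (H : ℝ) ≤ 2 * E
  dmU : ∀ t ∈ P, Dm W a w1 w2 (Uf (cu t))
  dmV : ∀ t ∈ P, Dm W a w1 w2 (Vf (cv t))
  ang : ∀ t ∈ P, angC (Uf (cu t)) (Vf (cv t)) * w1 ≤ W * w2
  up : ∀ t ∈ P, Cl2 (Uf (cu t)) (Vf (cv t)) (2 * E * a) (L t) z0 ρ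
  lo : ∀ t ∈ P, ¬ Cl2 (Uf (cu t)) (Vf (cv t)) (E * a) (L t) z0 ρ
  kE : ∀ t ∈ P, E * a ≤ W * kp (Uf (cu t)) z0 ρ (L t)
  kE' : ∀ t ∈ P, E * a ≤ W * kp (Vf (cv t)) z0 ρ (L t)
  kUV : ∀ t ∈ P, kp (Uf (cu t)) z0 ρ (L t) ≤ W * kp (Vf (cv t)) z0 ρ (L t)
  kVU : ∀ t ∈ P, kp (Vf (cv t)) z0 ρ (L t) ≤ W * kp (Uf (cu t)) z0 ρ (L t)
  detU : ∀ t ∈ P, DetP W⁻¹ (Uf (cu t)) z0 ρ (L t)
  detV : ∀ t ∈ P, DetP W⁻¹ (Vf (cv t)) z0 ρ (L t)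
  tubU : ∀ s ∈ P, ∀ t ∈ P, cu s = cu t → Tub (Uf (cu t)) κ (L s) (L t) z0 ρ
  tubV : ∀ s ∈ P, ∀ t ∈ P, cv s = cv t → Tub (Vf (cv t)) κ (L s) (L t) z0 ρ
  fr : ∀ t ∈ P, ∃ f g : Fin 3 → V3,
    FH W (kp (Uf (cu t)) z0 ρ (L t)) (Uf (cu t)) f z0 ρ ∧
    FL W (kp (Uf (cu t)) z0 ρ (L t)) (Uf (cu t)) f z0 ρ ∧
    FH W (kp (Uf (cu t)) z0 ρ (L t)) (Vf (cv t)) g z0 ρ ∧
    |dt (f 0) (g 1)| * w1 ≤ W * kp (Uf (cu t)) z0 ρ (L t) ∧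
    |dt (f 0) (g 2)| * w2 ≤ W * kp (Uf (cu t)) z0 ρ (L t) ∧
    |dt (g 0) (f 1)| * w1 ≤ W * kp (Uf (cu t)) z0 ρ (L t) ∧
    |dt (g 0) (f 2)| * w2 ≤ W * kp (Uf (cu t)) z0 ρ (L t)

/-- **PL** (685) -/
def LeafPL : Prop := ∀ (qm qp : Fin 3 → ℝ), (∀ k, 0 ≤ qm k ∧ qm k ≤ qp k) → ∃ C : ℝ, 1 ≤ C ∧
  ∀ (L : ℕ → Ln4) (P : Finset ℕ) (cu cv : ℕ → ℕ) (Uf Vf : ℕ → Plk4)
    (W B M a w1 w2 z0 ρ zL ρL r κ E : ℝ) (H : ℕ),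
    Cf qm qp L P cu cv Uf Vf W B M a w1 w2 z0 ρ zL ρL r κ E H → C * W ^ C * κ ≤ 1 →
    (C * B) ^ C ≤ H →
    PLh P cu L Uf z0 ρ ((C * B) ^ C * (1 + Real.log H)) M (qm 1 + qm 2) H ∧
    PLh P cv L Vf z0 ρ ((C * B) ^ C * (1 + Real.log H)) M (qm 1 + qm 2) H

open Classical in
/-- **hulls** (412, 792) -/
def LeafHull : Prop := ∀ (qm qp : Fin 3 → ℝ), (∀ k, 0 ≤ qm k ∧ qm k ≤ qp k) → ∃ C : ℝ, 1 ≤ C ∧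
  ∀ (L : ℕ → Ln4) (P : Finset ℕ) (cu cv : ℕ → ℕ) (Uf Vf : ℕ → Plk4)
    (W B M a w1 w2 z0 ρ zL ρL r κ E : ℝ) (H : ℕ),
    Cf qm qp L P cu cv Uf Vf W B M a w1 w2 z0 ρ zL ρL r κ E H → C * W ^ C * κ ≤ 1 →
    (C * B) ^ C ≤ H →
    (∀ c, (((P.filter fun t => cu t = c).image cv).card : ℝ) ≤ (C * B) ^ C * E ^ (1 + qp 0)) ∧
    ∀ (c : ℕ) (T : Finset ℕ), (∀ c1 ∈ T, ∃ t ∈ P, ∃ t' ∈ P, cu t = c ∧ cu t' = c1 ∧ cv t' = cv t) →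
      (T.card : ℝ) ≤ (C * B) ^ C * E ^ (1 + qp 0)

/-- **nondegenerate boxes** (57, 876, 214) : pairs `U t, V t` and `U t, U t'` -/
def LeafNd : Prop := ∃ C : ℝ, 1 ≤ C ∧ ∀ (qm qp : Fin 3 → ℝ)
  (L : ℕ → Ln4) (P : Finset ℕ) (cu cv : ℕ → ℕ) (Uf Vf : ℕ → Plk4)
    (W B M a w1 w2 z0 ρ zL ρL r κ E : ℝ) (H : ℕ),
    Cf qm qp L P cu cv Uf Vf W B M a w1 w2 z0 ρ zL ρL r κ E H → C * W ^ C * κ ≤ 1 →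
    (C * B) ^ C ≤ H → ∀ l m : ℝ, 0 < l → l ≤ 1 → 0 < m → m ≤ 1 →
    (∀ (c c' : ℕ) (T : Finset ((ℤ × ℤ) × ℕ)), (∀ y ∈ T, ∃ t ∈ P, y.2 < H ∧ cu t = c ∧ cv t = c' ∧
      lbl Uf L w1 w2 z0 ρ H c t y.2 = y.1 ∧
      Nd (Uf (cu t)) (Vf (cv t)).q z0 ρ H y.2 (L t) l m (E * a)) →
      (T.card : ℝ) ≤ (C * B / (l * m)) ^ C * (1 + Real.log H) * (H : ℝ) ^ 2) ∧
    (∀ (c c1 : ℕ) (T : Finset ((ℤ × ℤ) × ℕ)), (∀ y ∈ T, ∃ t ∈ P, ∃ t' ∈ P, y.2 < H ∧ cu t = c ∧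
      cu t' = c1 ∧ cv t' = cv t ∧
      lbl Vf L w1 w2 z0 ρ H (cv t) t' y.2 = lbl Vf L w1 w2 z0 ρ H (cv t) t y.2 ∧
      lbl Uf L w1 w2 z0 ρ H c t y.2 = y.1 ∧
      Nd (Uf (cu t)) (Uf (cu t')).q z0 ρ H y.2 (L t) l m (E * a)) →
      (T.card : ℝ) ≤ (C * B / (l * m)) ^ C * (1 + Real.log H) * (H : ℝ) ^ 2)

/-- **wedge** (467, 296) : `Gen (t, j) t' := Nd1 (t, j) ∨ Gn` -/
def LeafWedge : Prop := ∃ C : ℝ, 1 ≤ C ∧ ∀ (qm qp : Fin 3 → ℝ)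
  (L : ℕ → Ln4) (P : Finset ℕ) (cu cv : ℕ → ℕ) (Uf Vf : ℕ → Plk4)
    (W B M a w1 w2 z0 ρ zL ρL r κ E : ℝ) (H : ℕ),
    Cf qm qp L P cu cv Uf Vf W B M a w1 w2 z0 ρ zL ρL r κ E H → C * W ^ C * κ ≤ 1 →
    (C * B) ^ C ≤ H → ∀ l m k g β : ℝ, 0 < l → 0 < m → 0 < k → k ≤ 1 → 0 < g → 0 < β → β ≤ 1 →
    (C * B / k) ^ C * (l + g + 1 / H) ≤ β ^ C →
    ∀ t ∈ P, ∀ j < H, Wedge L cv Vf B z0 ρ β H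
      (fun p t' => Nd (Uf (cu p.1)) (Vf (cv p.1)).q z0 ρ H p.2 (L p.1) l m (E * a) ∨
        Gn (Uf (cu p.1)) (Vf (cv p.1)).q z0 ρ H p.2 (L p.1) (L t') k g (E * a)) t j

/-- **V7** (818) : no three separated heights with a small jet -/
def LeafV7 : Prop := ∃ C : ℝ, 1 ≤ C ∧ ∀ (qm qp : Fin 3 → ℝ)
  (L : ℕ → Ln4) (P : Finset ℕ) (cu cv : ℕ → ℕ) (Uf Vf : ℕ → Plk4)
    (W B M a w1 w2 z0 ρ zL ρL r κ E : ℝ) (H : ℕ),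
    Cf qm qp L P cu cv Uf Vf W B M a w1 w2 z0 ρ zL ρL r κ E H → C * W ^ C * κ ≤ 1 →
    (C * B) ^ C ≤ H → ∀ l m k : ℝ, 0 < l → 0 < m → 0 < k → (C * B) ^ C * (l + k) ≤ 1 →
    ∀ t ∈ P, ∀ i0 i1 i2 : ℕ, i2 < H → (i0 : ℝ) / H + 1 / 256 ≤ i1 / H →
      (i1 : ℝ) / H + 1 / 256 ≤ i2 / H →
      ¬ (∀ j, j = i0 ∨ j = i1 ∨ j = i2 →
        ¬ Nd (Uf (cu t)) (Vf (cv t)).q z0 ρ H j (L t) l m (E * a) ∧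
        Sm (Uf (cu t)) (Vf (cv t)).q z0 ρ H j (L t) k (E * a))

/-- **V6** (601, 862) : the path -/
def LeafV6 : Prop := ∃ C : ℝ, 1 ≤ C ∧ ∀ (qm qp : Fin 3 → ℝ)
  (L : ℕ → Ln4) (P : Finset ℕ) (cu cv : ℕ → ℕ) (Uf Vf : ℕ → Plk4)
    (W B M a w1 w2 z0 ρ zL ρL r κ E : ℝ) (H : ℕ),
    Cf qm qp L P cu cv Uf Vf W B M a w1 w2 z0 ρ zL ρL r κ E H → C * W ^ C * κ ≤ 1 →
    (C * B) ^ C ≤ H → ∀ l m k g : ℝ, 0 < l → 0 < m → 0 < k → k ≤ 1 → 0 < g → g ≤ 1 →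
    (C * B / k) ^ C * (l + m + 1 / H) ≤ g ^ C →
    ∀ t ∈ P, ∀ t' ∈ P, ∀ j < H, cv t' = cv t →
      lbl Vf L w1 w2 z0 ρ H (cv t) t' j = lbl Vf L w1 w2 z0 ρ H (cv t) t j →
      ¬ Nd (Uf (cu t)) (Vf (cv t)).q z0 ρ H j (L t) l m (E * a) →
      ¬ Nd (Uf (cu t')) (Vf (cv t')).q z0 ρ H j (L t') l m (E * a) →
      ¬ Nd (Uf (cu t)) (Uf (cu t')).q z0 ρ H j (L t) l m (E * a) →
      ¬ Sm (Uf (cu t)) (Vf (cv t)).q z0 ρ H j (L t) k (E * a) →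
      ¬ Sm (Uf (cu t')) (Vf (cv t')).q z0 ρ H j (L t') k (E * a) →
      ¬ Gn (Uf (cu t)) (Vf (cv t)).q z0 ρ H j (L t) (L t') k g (E * a)

end Crest.Agent.R136.Al500
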