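import Crest.Agent.R136.NumE_624

/-!
# R136, PLAN 2 (AL), balanced case: the numbers of `alk_false` (helper500)

* `PB f` : `0 ≤ f B ≤ (2 B)^k` for `B ≥ 1`.
* `nums` : all the inequalities between powers used in `alk_false`.
-/

set_option autoImplicit false
set_option linter.unusedVariables false

namespace Crest.Agent.R136.Al500

open Crest.Agent.R136.Bt624
open Crest.Agent.R136.Pl2W102 (Ex2)

/-- polynomially bounded -/
def PB (f : ℝ → ℝ) : Prop := (∀ B, 1 ≤ B → 0 ≤ f B) ∧ ∃ k : ℝ, 0 ≤ k ∧ ∀ B, 1 ≤ B → f B ≤ (2 * B) ^ k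

theorem PB.const {c : ℝ} (hc : 0 ≤ c) : PB fun _ => c := by
  obtain ⟨k, hk, h⟩ := exists_pow_ge c
  exact ⟨fun _ _ => hc, k, hk, fun B hB => two_le hB hk h⟩

theorem PB.id' : PB fun B => B :=
  ⟨fun B hB => by linarith, 1, zero_le_one, fun B hB => by rw [Real.rpow_one]; linarith⟩

theorem PB.mul {f g : ℝ → ℝ} (hf : PB f) (hg : PB g) : PB fun B => f B * g B := by
  obtain ⟨f0, k, hk, h⟩ := hf
  obtain ⟨g0, k', hk', h'⟩ := hg
  refine ⟨fun B hB => mul_nonneg (f0 B hB) (g0 B hB), k + k', by linarith, fun B hB => ?_⟩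
  have h2 : (0 : ℝ) < 2 * B := by linarith
  rw [Real.rpow_add h2]
  exact mul_le_mul (h B hB) (h' B hB) (g0 B hB) (Real.rpow_nonneg h2.le _)

theorem PB.rpow {f : ℝ → ℝ} (hf : PB f) {d : ℝ} (hd : 0 ≤ d) : PB fun B => f B ^ d := by
  obtain ⟨f0, k, hk, h⟩ := hf
  refine ⟨fun B hB => Real.rpow_nonneg (f0 B hB) _, k * d, by positivity, fun B hB => ?_⟩
  have h2 : (0 : ℝ) < 2 * B := by linarith
  rw [Real.rpow_mul h2.le]
  exact Real.rpow_le_rpow (f0 B hB) (h B hB) hd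

theorem PB.pow {f : ℝ → ℝ} (hf : PB f) (n : ℕ) : PB fun B => f B ^ n := by
  have := hf.rpow (d := (n : ℝ)) (Nat.cast_nonneg n)
  simpa only [Real.rpow_natCast] using this

theorem PB.add {f g : ℝ → ℝ} (hf : PB f) (hg : PB g) : PB fun B => f B + g B := by
  obtain ⟨f0, k, hk, h⟩ := hf
  obtain ⟨g0, k', hk', h'⟩ := hg
  refine ⟨fun B hB => add_nonneg (f0 B hB) (g0 B hB), k + k' + 1, by linarith, fun B hB => ?_⟩
  have h1 : (1 : ℝ) ≤ 2 * B := by linarith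
  have h2 : (0 : ℝ) < 2 * B := by linarith
  have e1 : (2 * B) ^ k ≤ (2 * B) ^ (k + k') := Real.rpow_le_rpow_of_exponent_le h1 (by linarith)
  have e2 : (2 * B) ^ k' ≤ (2 * B) ^ (k + k') := Real.rpow_le_rpow_of_exponent_le h1 (by linarith)
  have e3 : (2 * B) ^ (k + k' + 1) = (2 * B) ^ (k + k') * (2 * B) := by
    rw [Real.rpow_add h2, Real.rpow_one]
  have e4 : 0 ≤ (2 * B) ^ (k + k') := Real.rpow_nonneg h2.le _
  rw [e3]
  have := h B hB
  have := h' B hB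
  nlinarith

/-- `(C B)^D` -/
theorem PB.cb {C D : ℝ} (hC : 0 ≤ C) (hD : 0 ≤ D) : PB fun B => (C * B) ^ D :=
  ((PB.const hC).mul PB.id').rpow hD

theorem log_one {H δ : ℝ} (hH : 1 ≤ H) (hδ : 0 < δ) : 1 + Real.log H ≤ (1 + 1 / δ) * H ^ δ := by
  have h1 := Real.log_le_rpow_div (by linarith : (0:ℝ) ≤ H) hδ
  have h2 : 1 ≤ H ^ δ := Real.one_le_rpow hH hδ.le
  have e : (1 + 1 / δ) * H ^ δ = H ^ δ + H ^ δ / δ := by ring
  rw [e]; linarith

theorem split16 {a1 a2 a3 a4 a5 a6 b1 b2 b3 b4 b5 b6 d1 d2 d3 d4 S : ℝ}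
    (h : a1 + a2 + (a3 + a4) + (a5 + a6) + (b1 + b2 + (b3 + b4) + (b5 + b6)) +
      (d1 + d2 + (d3 + d4)) ≤ S) (ha1 : 0 ≤ a1) (ha2 : 0 ≤ a2) (ha3 : 0 ≤ a3) (ha4 : 0 ≤ a4)
    (ha5 : 0 ≤ a5) (ha6 : 0 ≤ a6) (hb1 : 0 ≤ b1) (hb2 : 0 ≤ b2) (hb3 : 0 ≤ b3) (hb4 : 0 ≤ b4)
    (hb5 : 0 ≤ b5) (hb6 : 0 ≤ b6) (hd1 : 0 ≤ d1) (hd2 : 0 ≤ d2) (hd3 : 0 ≤ d3) (hd4 : 0 ≤ d4) :
    (a1 ≤ S ∧ a2 ≤ S ∧ a3 ≤ S ∧ a4 ≤ S ∧ a5 ≤ S ∧ a6 ≤ S) ∧
    (b1 ≤ S ∧ b2 ≤ S ∧ b3 ≤ S ∧ b4 ≤ S ∧ b5 ≤ S ∧ b6 ≤ S) ∧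
    (d1 ≤ S ∧ d2 ≤ S ∧ d3 ≤ S ∧ d4 ≤ S) := by
  have hA : 0 ≤ a1 + a2 + (a3 + a4) + (a5 + a6) := by positivity
  have hB : 0 ≤ b1 + b2 + (b3 + b4) + (b5 + b6) := by positivity
  have hD : 0 ≤ d1 + d2 + (d3 + d4) := by positivity
  have h1 : a1 + a2 + (a3 + a4) + (a5 + a6) ≤ S := by
    clear ha1 ha2 ha3 ha4 ha5 ha6 hb1 hb2 hb3 hb4 hb5 hb6 hd1 hd2 hd3 hd4
    linarith
  have h2 : b1 + b2 + (b3 + b4) + (b5 + b6) ≤ S := by
    clear ha1 ha2 ha3 ha4 ha5 ha6 hb1 hb2 hb3 hb4 hb5 hb6 hd1 hd2 hd3 hd4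
    linarith
  have h3 : d1 + d2 + (d3 + d4) ≤ S := by
    clear ha1 ha2 ha3 ha4 ha5 ha6 hb1 hb2 hb3 hb4 hb5 hb6 hd1 hd2 hd3 hd4
    linarith
  clear h hA hB hD
  refine ⟨?_, ?_, ?_⟩
  · clear h2 h3 hb1 hb2 hb3 hb4 hb5 hb6 hd1 hd2 hd3 hd4
    refine ⟨?_, ?_, ?_, ?_, ?_, ?_⟩ <;> linarith
  · clear h1 h3 ha1 ha2 ha3 ha4 ha5 ha6 hd1 hd2 hd3 hd4
    refine ⟨?_, ?_, ?_, ?_, ?_, ?_⟩ <;> linarith
  · clear h1 h2 ha1 ha2 ha3 ha4 ha5 ha6 hb1 hb2 hb3 hb4 hb5 hb6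
    refine ⟨?_, ?_, ?_, ?_⟩ <;> linarith

/-- the inequalities used in `alk_false`; `β = H^(-c3)`, `x` = `l = m`, `k`, `g` thresholds. -/
structure Nm (C2 C2' C3 C4 C5 C6 Ch Ck : ℝ) (N : ℕ) (c0 c0' c3 ε q p B H R X Q Z Y x k g : ℝ) :
    Prop where
  nb : Numb c0' q p (2 * (C6 * (C4 + 2) + 2) * C3 + 1) c3 ε R H X Q Z Y
  ε0 : 0 < ε
  c3p : 0 < c3
  c0p : 0 < c0'
  c00 : c0' ≤ c0
  R512 : 512 ≤ R
  rX : 4 * (25 * B ^ 2) * B ≤ R
  rup : (4 * B * B) ^ 6 ≤ R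
  rcap : N * (240 * B ^ 7 * B) ^ 6 ≤ R
  rgen : 2 * (2 * B ^ 2 * B) ^ 6 ≤ R
  r2 : (C2 * B) ^ C2 ≤ R
  r2' : (C2' * B) ^ C2' ≤ R
  r3 : (C3 * B) ^ C3 ≤ R
  r4 : (C4 * B) ^ C4 ≤ R
  r5 : (C5 * B) ^ C5 ≤ R
  r6 : (C6 * B) ^ C6 ≤ R
  rk : Ck * ((C2 * B) ^ C2 * (1 + Real.log H)) ≤ H ^ (ε / 4)
  rh : 2 * (2 * B) ^ Ch ≤ H
  big : 512 ≤ (H / 2) ^ c0
  x0 : 0 < x
  x1 : x ≤ 1
  k0 : 0 < k
  k1 : k ≤ 1
  g0 : 0 < g
  g1 : g ≤ 1
  nd : (C3 * B / (x * x)) ^ C3 * (1 + Real.log H) ≤ Z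
  wd : (C4 * B / k) ^ C4 * (x + g + 1 / H) ≤ (H ^ (-c3)) ^ C4
  v7 : (C5 * B) ^ C5 * (x + k) ≤ 1
  v6 : (C6 * B / k) ^ C6 * (x + x + 1 / H) ≤ g ^ C6

set_option maxHeartbeats 1600000 in
theorem nums {C3 C4 C5 C6 c0 : ℝ} (h3 : 1 ≤ C3) (h4 : 1 ≤ C4) (h5 : 1 ≤ C5) (h6 : 1 ≤ C6)
    (hc0 : 0 < c0) (hc1 : c0 ≤ 1 / 2) :
    ∃ c0' η : ℝ, 0 < c0' ∧ c0' ≤ c0 ∧ 0 < η ∧ ∀ qm qp : Fin 3 → ℝ, Ex2 η qm qp →
      ∃ c3 ε : ℝ, 0 < c3 ∧ 0 < ε ∧ ∀ (C2 C2' Ch Ck : ℝ) (N : ℕ), 1 ≤ C2 → 1 ≤ C2' → 1 ≤ Ch →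
        0 < Ck → ∃ K : ℝ, 0 ≤ K ∧ ∀ B H : ℝ, 1 ≤ B → (2 * B) ^ K ≤ H → ∃ R X Q Z Y x k g : ℝ,
          Nm C2 C2' C3 C4 C5 C6 Ch Ck N c0 c0' c3 ε (qm 1 + qm 2) (qp 0) B H R X Q Z Y x k g ∧
          Q = H ^ (qp 0) := by
  set N0 : ℝ := C6 * (C4 + 2) + 2 with hN0
  have hN05 : 5 ≤ N0 := by nlinarith
  have hN00 : 0 < N0 := by linarith
  set A : ℝ := 2 * N0 * C3 + 1 with hA
  have hA8 : 8 ≤ A := by nlinarith
  set d : ℝ := min c0 (1 / N0) with hd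
  have hd0 : 0 < d := lt_min hc0 (by positivity)
  have hdc : d ≤ c0 := min_le_left _ _
  have hdN : d ≤ 1 / N0 := min_le_right _ _
  refine ⟨d, d / 2, hd0, hdc, by positivity, fun qm qp hE => ?_⟩
  obtain ⟨c3, ε, hc3, hε, hc3d, hεc, -, hnum⟩ := numbers_ex2 (A := A) hd0 (by linarith)
    (by positivity) le_rfl hE hA8
  refine ⟨c3, ε, hc3, hε, fun C2 C2' Ch Ck N h2 h2' hh hk => ?_⟩
  have hNc : N0 * c3 ≤ 1 := by
    have : c3 ≤ 1 / N0 := hc3d.trans hdN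
    rw [le_div_iff₀ hN00] at this
    linarith
  -- all the constants
  have p0 : PB fun _ => (512 : ℝ) := PB.const (by norm_num)
  have p1 : PB fun B => 4 * (25 * B ^ 2) * B :=
    ((PB.const (by norm_num)).mul ((PB.const (by norm_num)).mul (PB.id'.pow 2))).mul PB.id'
  have p2 : PB fun B => (4 * B * B) ^ 6 := (((PB.const (by norm_num)).mul PB.id').mul PB.id').pow 6
  have p3 : PB fun B => (N : ℝ) * (240 * B ^ 7 * B) ^ 6 :=
    (PB.const (Nat.cast_nonneg N)).mul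
      ((((PB.const (by norm_num)).mul (PB.id'.pow 7)).mul PB.id').pow 6)
  have p4 : PB fun B => 2 * (2 * B ^ 2 * B) ^ 6 :=
    (PB.const (by norm_num)).mul ((((PB.const (by norm_num)).mul (PB.id'.pow 2)).mul PB.id').pow 6)
  have q2 : PB fun B => (C2 * B) ^ C2 := PB.cb (by linarith) (by linarith)
  have q2' : PB fun B => (C2' * B) ^ C2' := PB.cb (by linarith) (by linarith)
  have q3 : PB fun B => (C3 * B) ^ C3 := PB.cb (by linarith) (by linarith)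
  have q4 : PB fun B => (C4 * B) ^ C4 := PB.cb (by linarith) (by linarith)
  have q5 : PB fun B => (C5 * B) ^ C5 := PB.cb (by linarith) (by linarith)
  have q6 : PB fun B => (C6 * B) ^ C6 := PB.cb (by linarith) (by linarith)
  have q3' : PB fun B => (C3 * B) ^ C3 * (1 + 1 / c3) := q3.mul (PB.const (by positivity))
  have qk : PB fun B => Ck * ((C2 * B) ^ C2 * (1 + 1 / (ε / 8))) :=
    (PB.const hk.le).mul (q2.mul (PB.const (by positivity)))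
  have q5' : PB fun B => 2 * (C5 * B) ^ C5 := (PB.const (by norm_num)).mul q5
  have q4' : PB fun B => 3 * (C4 * B * (2 * (C5 * B) ^ C5)) ^ C4 :=
    (PB.const (by norm_num)).mul (((((PB.const (by linarith)).mul PB.id')).mul q5').rpow
      (by linarith))
  have q6' : PB fun B => 3 * (C6 * B * (2 * (C5 * B) ^ C5)) ^ C6 :=
    (PB.const (by norm_num)).mul (((((PB.const (by linarith)).mul PB.id')).mul q5').rpow
      (by linarith))
  have s1 := ((p0.add p1).add (p2.add p3)).add (p4.add q2)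
  have s2 := ((q2'.add q3).add (q4.add q5)).add (q6.add q3')
  have s3 := (qk.add q5').add (q4'.add q6')
  obtain ⟨-, kk, hkk, hF⟩ := (s1.add s2).add s3
  obtain ⟨K, hK1, hK⟩ := hnum kk hkk
  obtain ⟨K2, hK21, hK2⟩ := exists_K [(kk, ε / 8)] (by
    intro p hp
    simp only [List.mem_cons, List.not_mem_nil, or_false] at hp
    subst hp
    exact ⟨hkk, by positivity⟩)
  set K' : ℝ := max (max K K2) (max (Ch + 1) (9 / c0 + 1)) with hK'
  have k1 : K ≤ K' := (le_max_left _ _).trans (le_max_left _ _)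
  have k2 : K2 ≤ K' := (le_max_right _ _).trans (le_max_left _ _)
  have k3 : Ch + 1 ≤ K' := (le_max_left _ _).trans (le_max_right _ _)
  have k4 : 9 / c0 + 1 ≤ K' := (le_max_right _ _).trans (le_max_right _ _)
  have hK'0 : 0 < K' := by linarith
  refine ⟨K', hK'0.le, fun B H hB hH => ?_⟩
  have h2B : (1 : ℝ) ≤ 2 * B := by linarith
  have h2B0 : (0 : ℝ) < 2 * B := by linarith
  have hHK : (2 * B) ^ K ≤ H := (Real.rpow_le_rpow_of_exponent_le h2B k1).trans hH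
  set R : ℝ := (2 * B) ^ kk with hR
  have hR1 : 1 ≤ R := Real.one_le_rpow h2B hkk
  have nb := hK B H R hB hHK hR1 le_rfl
  have hH1 : 1 ≤ H := nb.H1
  have hH0 : 0 < H := by linarith
  obtain ⟨⟨v0, v1, v2, v3, v4, w2⟩, ⟨w2', w3, w4, w5, w6, w3'⟩, ⟨wk, w5', w4', w6'⟩⟩ :=
    split16 (hF B hB) (p0.1 B hB) (p1.1 B hB) (p2.1 B hB) (p3.1 B hB) (p4.1 B hB) (q2.1 B hB)
      (q2'.1 B hB) (q3.1 B hB) (q4.1 B hB) (q5.1 B hB) (q6.1 B hB) (q3'.1 B hB) (qk.1 B hB)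
      (q5'.1 B hB) (q4'.1 B hB) (q6'.1 B hB)
  have u2 : 0 ≤ (C2 * B) ^ C2 := q2.1 B hB
  have u3 : 0 ≤ (C3 * B) ^ C3 := q3.1 B hB
  clear hF hK hnum s1 s2 s3 p0 p1 p2 p3 p4 q2 q2' q3 q4 q5 q6 q3' qk q5' q4' q6'
  -- powers of `H`
  have hpos : ∀ y : ℝ, 0 < H ^ y := fun y => Real.rpow_pos_of_pos hH0 y
  have hmono : ∀ {y z : ℝ}, y ≤ z → H ^ y ≤ H ^ z := fun h =>
    Real.rpow_le_rpow_of_exponent_le hH1 h
  have hRc : R ≤ H ^ c3 := nb.Rc3
  set x : ℝ := H ^ (-(N0 * c3)) with hx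
  set g : ℝ := H ^ (-((C4 + 2) * c3)) with hg
  set P5 : ℝ := (C5 * B) ^ C5 with hP5
  have hP51 : 1 ≤ P5 :=
    Real.one_le_rpow (one_le_mul_of_one_le_of_one_le h5 hB) (by linarith)
  set k : ℝ := 1 / (2 * P5) with hkd
  have hk0 : 0 < k := by positivity
  have hk1 : k ≤ 1 := by
    rw [hkd, div_le_one (by positivity)]; linarith
  have hx0 : 0 < x := hpos _
  have hg0 : 0 < g := hpos _
  have hx1 : x ≤ 1 := by
    have := hmono (y := -(N0 * c3)) (z := 0) (by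
      have : 0 < N0 * c3 := by positivity
      linarith)
    rwa [Real.rpow_zero] at this
  have hg1 : g ≤ 1 := by
    have := hmono (y := -((C4 + 2) * c3)) (z := 0) (by
      have : 0 < (C4 + 2) * c3 := by positivity
      linarith)
    rwa [Real.rpow_zero] at this
  have hHx : 1 / H ≤ x := by
    have := hmono (y := -1) (z := -(N0 * c3)) (by linarith)
    rwa [Real.rpow_neg_one, ← one_div] at this
  have hN4 : C4 + 2 ≤ N0 := by
    have := mul_le_mul_of_nonneg_right h6 (by linarith : (0:ℝ) ≤ C4 + 2)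
    rw [hN0]; linarith
  have hN4c : (C4 + 2) * c3 ≤ N0 * c3 := mul_le_mul_of_nonneg_right hN4 hc3.le
  have hxg : x ≤ g := hmono (neg_le_neg hN4c)
  refine ⟨R, R * H ^ ε, H ^ (qp 0), R * H ^ (A * c3), H ^ (d * (qm 1 + qm 2)) / (R * H ^ ε),
    x, k, g, ?_, rfl⟩
  · refine
      { nb := nb
        ε0 := hε
        c3p := hc3
        c0p := hd0
        c00 := hdc
        R512 := v0
        rX := v1
        rup := v2
        rcap := v3
        rgen := v4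
        r2 := w2
        r2' := w2'
        r3 := w3
        r4 := w4
        r5 := w5
        r6 := w6
        rk := ?_
        rh := ?_
        big := ?_
        x0 := hx0
        x1 := hx1
        k0 := hk0
        k1 := hk1
        g0 := hg0
        g1 := hg1
        nd := ?_
        wd := ?_
        v7 := ?_
        v6 := ?_ }
    · -- rk
      have e1 := log_one hH1 (show 0 < ε / 8 by positivity)
      have e2 : R ≤ H ^ (ε / 8) := by
        have h1 := beat (x := 0) (y := ε / 8) (k := kk) hB hK'0 hkk hH (by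
          have := hK2 K' k2 (kk, ε / 8) (by simp)
          simp only at this
          linarith)
        rwa [Real.rpow_zero, mul_one] at h1
      have e3 : Ck * ((C2 * B) ^ C2 * (1 + 1 / (ε / 8))) ≤ R := wk
      calc Ck * ((C2 * B) ^ C2 * (1 + Real.log H))
          ≤ Ck * ((C2 * B) ^ C2 * ((1 + 1 / (ε / 8)) * H ^ (ε / 8))) :=
            mul_le_mul_of_nonneg_left (mul_le_mul_of_nonneg_left e1 u2) hk.le
        _ = (Ck * ((C2 * B) ^ C2 * (1 + 1 / (ε / 8)))) * H ^ (ε / 8) := by ring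
        _ ≤ H ^ (ε / 8) * H ^ (ε / 8) :=
            mul_le_mul_of_nonneg_right (e3.trans e2) (hpos _).le
        _ = H ^ (ε / 4) := by rw [← Real.rpow_add hH0]; congr 1; ring
    · -- rh
      have e1 : (2 * B) ^ (Ch + 1) ≤ H := (Real.rpow_le_rpow_of_exponent_le h2B k3).trans hH
      rw [Real.rpow_add h2B0, Real.rpow_one] at e1
      have h0 : 0 ≤ (2 * B) ^ Ch := Real.rpow_nonneg h2B0.le _
      have h1 := mul_le_mul_of_nonneg_left (show (2 : ℝ) ≤ 2 * B by linarith) h0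
      linarith
    · -- big
      have e1 : (2 : ℝ) ^ (9 / c0 + 1) ≤ H := by
        refine le_trans ?_ hH
        calc (2 : ℝ) ^ (9 / c0 + 1) ≤ 2 ^ K' :=
              Real.rpow_le_rpow_of_exponent_le (by norm_num) k4
          _ ≤ (2 * B) ^ K' := Real.rpow_le_rpow (by norm_num) (by linarith) hK'0.le
      rw [Real.rpow_add (by norm_num), Real.rpow_one] at e1
      have e2 : (2 : ℝ) ^ (9 / c0) ≤ H / 2 := by linarith
      have e3 := Real.rpow_le_rpow (by positivity) e2 hc0.le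
      rw [← Real.rpow_mul (by norm_num), div_mul_cancel₀ _ hc0.ne'] at e3
      have e4 : (2 : ℝ) ^ (9 : ℝ) = 512 := by norm_num
      rwa [e4] at e3
    · -- nd
      have e1 := log_one hH1 hc3
      have e2 : (C3 * B / (x * x)) ^ C3 = (C3 * B) ^ C3 * H ^ (2 * N0 * C3 * c3) := by
        have e3 : C3 * B / (x * x) = (C3 * B) * H ^ (2 * N0 * c3) := by
          have e5 : x * x = H ^ (-(2 * N0 * c3)) := by
            rw [hx, ← Real.rpow_add hH0]; congr 1; ring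
          rw [e5, Real.rpow_neg hH0.le, div_inv_eq_mul]
        rw [e3, Real.mul_rpow (by positivity) (hpos _).le, ← Real.rpow_mul hH0.le]
        congr 2; ring
      rw [e2]
      have e6 : (C3 * B) ^ C3 * (1 + 1 / c3) ≤ R := w3'
      calc (C3 * B) ^ C3 * H ^ (2 * N0 * C3 * c3) * (1 + Real.log H)
          ≤ (C3 * B) ^ C3 * H ^ (2 * N0 * C3 * c3) * ((1 + 1 / c3) * H ^ c3) :=
            mul_le_mul_of_nonneg_left e1 (mul_nonneg u3 (hpos _).le)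
        _ = ((C3 * B) ^ C3 * (1 + 1 / c3)) * (H ^ (2 * N0 * C3 * c3) * H ^ c3) := by ring
        _ ≤ R * (H ^ (2 * N0 * C3 * c3) * H ^ c3) :=
            mul_le_mul_of_nonneg_right e6 (mul_nonneg (hpos _).le (hpos _).le)
        _ = R * H ^ (A * c3) := by
            rw [← Real.rpow_add hH0]
            congr 2
            rw [hA]; ring
    · -- wd
      have e1 : C4 * B / k = C4 * B * (2 * P5) := by
        rw [hkd]; field_simp
      rw [e1]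
      have e2 : 3 * (C4 * B * (2 * P5)) ^ C4 ≤ R := w4'
      have e3 : 0 ≤ (C4 * B * (2 * P5)) ^ C4 := Real.rpow_nonneg (by positivity) _
      have e4 : x + g + 1 / H ≤ 3 * g := by linarith
      calc (C4 * B * (2 * P5)) ^ C4 * (x + g + 1 / H)
          ≤ (C4 * B * (2 * P5)) ^ C4 * (3 * g) := mul_le_mul_of_nonneg_left e4 e3
        _ = (3 * (C4 * B * (2 * P5)) ^ C4) * g := by ring
        _ ≤ H ^ c3 * g := mul_le_mul_of_nonneg_right (e2.trans hRc) hg0.le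
        _ = H ^ (c3 + -((C4 + 2) * c3)) := by rw [hg, ← Real.rpow_add hH0]
        _ ≤ H ^ (-c3 * C4) := hmono (by
            have e : c3 + -((C4 + 2) * c3) = -c3 * C4 - c3 := by ring
            rw [e]; linarith)
        _ = (H ^ (-c3)) ^ C4 := by rw [Real.rpow_mul hH0.le]
    · -- v7
      have e1 : P5 * k = 1 / 2 := by
        rw [hkd]; field_simp
      have e2 : 2 * P5 ≤ H ^ (N0 * c3) := by
        have e3 : 2 * P5 ≤ R := w5'
        refine (e3.trans hRc).trans (hmono ?_)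
        have := mul_le_mul_of_nonneg_right (show (1 : ℝ) ≤ N0 by linarith) hc3.le
        linarith
      have e4 : 2 * P5 * x ≤ 1 := by
        calc 2 * P5 * x ≤ H ^ (N0 * c3) * x := mul_le_mul_of_nonneg_right e2 hx0.le
          _ = 1 := by rw [hx, ← Real.rpow_add hH0, add_neg_cancel, Real.rpow_zero]
      have e5 : P5 * (x + k) = P5 * x + P5 * k := by ring
      rw [e5, e1]; linarith
    · -- v6
      have e1 : C6 * B / k = C6 * B * (2 * P5) := by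
        rw [hkd]; field_simp
      rw [e1]
      have e2 : 3 * (C6 * B * (2 * P5)) ^ C6 ≤ R := w6'
      have e3 : 0 ≤ (C6 * B * (2 * P5)) ^ C6 := Real.rpow_nonneg (by positivity) _
      have e4 : x + x + 1 / H ≤ 3 * x := by linarith
      calc (C6 * B * (2 * P5)) ^ C6 * (x + x + 1 / H)
          ≤ (C6 * B * (2 * P5)) ^ C6 * (3 * x) := mul_le_mul_of_nonneg_left e4 e3
        _ = (3 * (C6 * B * (2 * P5)) ^ C6) * x := by ring
        _ ≤ H ^ c3 * x := mul_le_mul_of_nonneg_right (e2.trans hRc) hx0.le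
        _ = H ^ (c3 + -(N0 * c3)) := by rw [hx, ← Real.rpow_add hH0]
        _ ≤ H ^ (-((C4 + 2) * c3) * C6) := hmono (by
            have e : c3 + -((C6 * (C4 + 2) + 2) * c3) = -((C4 + 2) * c3) * C6 - c3 := by ring
            rw [hN0, e]; linarith)
        _ = g ^ C6 := by rw [hg, Real.rpow_mul hH0.le]

end Crest.Agent.R136.Al500
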