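import Crest.Agent.R136.R2f_500

/-!
# R136, PLAN 2 (3) (aligned curved pairs, volume form): bookkeeping of the bad incidences (helper467)

* `near_heights` : `#{j < H : |j/H - s| < θ} ≤ 2 θ H + 1`;
* `capt_bad`     : incidences near `n` heights of their line;
* `sep_bad`      : no three separated bad heights on a line, share form;
* `bad_union`    : union of finitely many bad sets;
* `start_all`    : `start_inc` with finitely many bad sets.
-/

set_option autoImplicit false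

open Finset

namespace Crest.Agent.R136.Bk467

open Crest.Agent.R136.R2b500

/-- integers in an interval -/
theorem card_int_near (A : Finset ℕ) (x r : ℝ) (hr : 0 ≤ r) (h : ∀ j ∈ A, |(j : ℝ) - x| < r) :
    (A.card : ℝ) ≤ 2 * r + 1 := by
  classical
  by_cases hA : A.Nonempty
  · set m := A.min' hA with hm
    set M := A.max' hA with hM
    have h1 : A ⊆ Finset.Icc m M := fun x hx => mem_Icc.2 ⟨A.min'_le x hx, A.le_max' x hx⟩
    have h2 : A.card ≤ M + 1 - m := (card_le_card h1).trans (by rw [Nat.card_Icc])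
    have hmM : m ≤ M := A.min'_le_max' hA
    have h3 := abs_lt.1 (h m (A.min'_mem hA))
    have h4 := abs_lt.1 (h M (A.max'_mem hA))
    have h5 : (A.card : ℝ) ≤ (M : ℝ) + 1 - m := by
      have : A.card + m ≤ M + 1 := by omega
      have h6 : (A.card : ℝ) + m ≤ (M : ℝ) + 1 := by exact_mod_cast this
      linarith
    linarith
  · rw [not_nonempty_iff_eq_empty] at hA
    rw [hA]; simp; linarith

/-- **near heights** -/
theorem near_heights (H : ℕ) (hH : 0 < H) (s θ : ℝ) (hθ : 0 ≤ θ) :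
    (((range H).filter fun j : ℕ => |(j : ℝ) / H - s| < θ).card : ℝ) ≤ 2 * θ * H + 1 := by
  have hH0 : (0 : ℝ) < H := by exact_mod_cast hH
  refine (card_int_near _ (s * H) (θ * H) (by positivity) fun j hj => ?_).trans (by linarith)
  rw [mem_filter] at hj
  have h1 : ((j : ℝ) - s * H) = ((j : ℝ) / H - s) * H := by field_simp
  rw [h1, abs_mul, abs_of_pos hH0]
  exact mul_lt_mul_of_pos_right hj.2 hH0

section

variable {ι κ κ' β' : Type} [DecidableEq ι] [DecidableEq κ] [DecidableEq κ'] [DecidableEq β']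

open Classical in
/-- heights of each line in a set of at most `X` elements -/
theorem fib_bad (P : Finset ι) (H : ℕ) (Bad : ι × ℕ → Prop) {X : ℝ}
    (h : ∀ t ∈ P, (((range H).filter fun j => Bad (t, j)).card : ℝ) ≤ X) :
    (((P ×ˢ range H).filter Bad).card : ℝ) ≤ (P.card : ℝ) * X := by
  have h1 : ((P ×ˢ range H).filter Bad) ⊆ P.biUnion fun t =>
      ((range H).filter fun j => Bad (t, j)).image fun j => (t, j) := by
    intro p hp
    rw [mem_filter, mem_product] at hp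
    exact mem_biUnion.2 ⟨p.1, hp.1.1, mem_image.2 ⟨p.2, mem_filter.2 ⟨hp.1.2, hp.2⟩, rfl⟩⟩
  have h2 : (((P ×ˢ range H).filter Bad).card : ℝ) ≤ ∑ t ∈ P,
      ((((range H).filter fun j => Bad (t, j)).image fun j => (t, j)).card : ℝ) := by
    exact_mod_cast (card_le_card h1).trans card_biUnion_le
  refine h2.trans ((sum_le_card_nsmul _ _ X fun t ht => ?_).trans
    (le_of_eq (by rw [nsmul_eq_mul])))
  exact (by exact_mod_cast card_image_le :
    ((((range H).filter fun j => Bad (t, j)).image fun j => (t, j)).card : ℝ) ≤ _).trans (h t ht)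

open Classical in
/-- **heights near `n` special heights of the line** -/
theorem capt_bad {n : ℕ} (P : Finset ι) (H : ℕ) (hH : 0 < H) (s : ι → Fin n → ℝ) {θ : ℝ}
    (hθ : 0 ≤ θ) :
    (((P ×ˢ range H).filter fun p => ∃ i, |(p.2 : ℝ) / H - s p.1 i| < θ).card : ℝ) ≤
      (P.card : ℝ) * (n * (2 * θ * H + 1)) := by
  have hmain : ∀ t ∈ P, (((range H).filter fun j : ℕ =>
      ∃ i, |(j : ℝ) / H - s t i| < θ).card : ℝ) ≤ n * (2 * θ * H + 1) := ?_
  · have h0 := fib_bad P H (fun p => ∃ i, |(p.2 : ℝ) / H - s p.1 i| < θ)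
      (X := n * (2 * θ * H + 1)) (fun t ht => by convert hmain t ht)
    convert h0
  intro t _
  have h1 : ((range H).filter fun j : ℕ => ∃ i, |(j : ℝ) / H - s t i| < θ) ⊆
      (univ : Finset (Fin n)).biUnion fun i =>
        (range H).filter fun j : ℕ => |(j : ℝ) / H - s t i| < θ := by
    intro j hj
    rw [mem_filter] at hj
    obtain ⟨i, hi⟩ := hj.2
    exact mem_biUnion.2 ⟨i, mem_univ _, mem_filter.2 ⟨hj.1, hi⟩⟩
  have h2 : (((range H).filter fun j : ℕ => ∃ i, |(j : ℝ) / H - s t i| < θ).card : ℝ) ≤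
      ∑ i : Fin n, (((range H).filter fun j : ℕ => |(j : ℝ) / H - s t i| < θ).card : ℝ) := by
    exact_mod_cast (card_le_card h1).trans card_biUnion_le
  refine h2.trans ((sum_le_card_nsmul _ _ (2 * θ * H + 1) fun i _ =>
    near_heights H hH _ _ hθ).trans (le_of_eq ?_))
  rw [nsmul_eq_mul, card_univ, Fintype.card_fin]

open Classical in
/-- **no three separated bad heights**, share form: `k` = number of parts -/
theorem sep_bad (P : Finset ι) (H k : ℕ) (hk : 1 ≤ k) (hH : 8 * k ≤ H) (Bad : ι × ℕ → Prop)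
    (h : ∀ t ∈ P, ∀ a b c : ℕ, a < H → b < H → c < H →
      1 / (8 * k : ℝ) ≤ (b : ℝ) / H - (a : ℝ) / H + 1 / H →
      1 / (8 * k : ℝ) ≤ (c : ℝ) / H - (b : ℝ) / H + 1 / H → Bad (t, a) → Bad (t, b) →
      ¬ Bad (t, c)) :
    4 * k * (((P ×ˢ range H).filter Bad).card : ℝ) ≤ (P.card : ℝ) * H := by
  have hk0 : (0 : ℝ) < k := by exact_mod_cast hk
  have hH0 : 0 < H := by omega
  have hHR : (0 : ℝ) < H := by exact_mod_cast hH0
  have hs : 1 ≤ H / (8 * k) := by
    rw [Nat.one_le_div_iff (by omega)]; exact hH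
  have key : ∀ a b : ℕ, a + H / (8 * k) ≤ b →
      1 / (8 * k : ℝ) ≤ (b : ℝ) / H - (a : ℝ) / H + 1 / H := by
    intro a b hab
    have h1 : H < (8 * k) * (H / (8 * k) + 1) := Nat.lt_mul_div_succ H (by omega)
    have h2 : (H : ℝ) < (8 * k) * (((H / (8 * k) : ℕ) : ℝ) + 1) := by exact_mod_cast h1
    have h3 : (a : ℝ) + ((H / (8 * k) : ℕ) : ℝ) ≤ b := by exact_mod_cast hab
    have h4 : (b : ℝ) / H - (a : ℝ) / H + 1 / H = ((b : ℝ) - a + 1) / H := by ring
    rw [h4, div_le_div_iff₀ (by positivity) hHR]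
    nlinarith
  have h1 := bad_heights P H (H / (8 * k)) hs Bad (by
    intro t ht a b c hab hbc hc ha hb
    exact h t ht a b c (by omega) (by omega) hc (key a b hab) (key b c hbc) ha hb)
  have h2 : ((H / (8 * k) : ℕ) : ℝ) * (8 * k) ≤ H := by
    exact_mod_cast Nat.div_mul_le_self H (8 * k)
  have hP : (0 : ℝ) ≤ P.card := by positivity
  calc 4 * k * (((P ×ˢ range H).filter Bad).card : ℝ)
      ≤ 4 * k * ((P.card : ℝ) * (2 * ((H / (8 * k) : ℕ) : ℝ))) := by gcongr
    _ = (P.card : ℝ) * (((H / (8 * k) : ℕ) : ℝ) * (8 * k)) := by ring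
    _ ≤ (P.card : ℝ) * H := mul_le_mul_of_nonneg_left h2 hP

/-- **union of finitely many bad sets** -/
theorem bad_union {n : ℕ} (N : ℝ) (hN : 0 ≤ N) (B : Fin n → Finset (ι × ℕ))
    (hB : ∀ i, 4 * (n : ℝ) * ((B i).card : ℝ) ≤ N) :
    4 * (((univ : Finset (Fin n)).biUnion B).card : ℝ) ≤ N := by
  rcases Nat.eq_zero_or_pos n with rfl | hn
  · simpa using hN
  · have hn0 : (0 : ℝ) < n := by exact_mod_cast hn
    have h1 : (((univ : Finset (Fin n)).biUnion B).card : ℝ) ≤ ∑ i : Fin n, ((B i).card : ℝ) := by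
      exact_mod_cast card_biUnion_le
    have h2 : ∑ i : Fin n, ((B i).card : ℝ) ≤ n * (N / (4 * n)) := by
      refine (sum_le_card_nsmul _ _ (N / (4 * n)) fun i _ => ?_).trans (le_of_eq ?_)
      · rw [le_div_iff₀ (by positivity)]; linarith [hB i]
      · rw [nsmul_eq_mul, card_univ, Fintype.card_fin]
    have h3 : (n : ℝ) * (N / (4 * n)) = N / 4 := by field_simp
    linarith

/-- **start data with finitely many bad sets** (each at most `1/(4n)` of the incidences) -/
theorem start_all {n : ℕ} (P : Finset ι) (u : ι → κ) (v : ι → κ') (bx' : κ' → ι → ℕ → β') (H : ℕ)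
    (B : Fin n → Finset (ι × ℕ)) {M W Cb : ℝ} (hM : 0 < M) (hW : 1 ≤ W) (hCb : 1 ≤ Cb)
    (hH : 1 ≤ H) (hP : P.Nonempty)
    (hu : ∀ t ∈ P, M ≤ W * ((P.filter fun s => u s = u t).card : ℝ))
    (hv : ∀ t ∈ P, M ≤ W * ((P.filter fun s => v s = v t).card : ℝ))
    (hbox : ∀ c' j, (((P.filter fun t => v t = c').image fun t => bx' c' t j).card : ℝ) ≤
      Cb * (H : ℝ) ^ 2)
    (hB : ∀ i, 4 * (n : ℝ) * ((B i).card : ℝ) ≤ (P.card : ℝ) * H) :
    ∃ I : Finset (ι × ℕ), I.Nonempty ∧ (∀ p ∈ I, p.1 ∈ P ∧ p.2 < H ∧ ∀ i, p ∉ B i) ∧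
      (P.card : ℝ) * H ≤ 2 * (I.card : ℝ) ∧
      ((I.image fun p => u p.1).card : ℝ) * (M * H) ≤ (4 * Cb * W) * (I.card : ℝ) ∧
      ∀ p ∈ I, M ≤ (4 * Cb * W) * (H : ℝ) ^ 2 * ((nb I v bx' p.1 p.2).card : ℝ) := by
  classical
  have h0 := bad_union ((P.card : ℝ) * H) (by positivity) B hB
  obtain ⟨I, h1, h2, h3, h4, h5⟩ := start_inc P u v bx' H _ hM hW hCb hH hP
    (fun t ht => by convert hu t ht) (fun t ht => by convert hv t ht)
    (fun c' j => by convert hbox c' j) h0
  refine ⟨I, h1, fun p hp => ?_, h3, ?_, ?_⟩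
  · obtain ⟨h6, h7, h8⟩ := h2 p hp
    refine ⟨h6, h7, fun i hi => h8 ?_⟩
    exact mem_biUnion.2 ⟨i, mem_univ _, hi⟩
  · convert h4
  · intro p hp; convert h5 p hp

end

end Crest.Agent.R136.Bk467
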