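import Mathlib

/-! # Popular label + double pruning (finite)

`popular`: pigeonhole over a finite label set. `prune2`: every subfamily which is not too thin against
the number of classes of two partitions contains a subfamily, of half the size, all of whose classes
(of both partitions) are full. `classes_le`: number of classes from the fullness. `pop_full` and
`pop_full_log` : popular label (arbitrary finite label set; dyadic value of a real function with
`log ≤ W`) + double pruning. -/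

namespace Crest.Agent.R136.Pop615

open Finset

variable {ι α β γ : Type*}

/-- Pigeonhole over the labels which occur. -/
theorem popular [DecidableEq γ] (P : Finset ι) (lab : ι → γ) (hP : P.Nonempty) :
    ∃ b ∈ P.image lab, (P.card : ℝ) ≤ ((P.image lab).card : ℝ) * ((P.filter fun t => lab t = b).card : ℝ) := by
  classical
  by_contra hcon
  push Not at hcon
  have hne : (P.image lab).Nonempty := hP.image lab
  have h1 : P.card = ∑ b ∈ P.image lab, (P.filter fun t => lab t = b).card :=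
    Finset.card_eq_sum_card_image lab P
  have h2 : (P.card : ℝ) = ∑ b ∈ P.image lab, ((P.filter fun t => lab t = b).card : ℝ) := by
    exact_mod_cast h1
  have hpos : (0 : ℝ) < ((P.image lab).card : ℝ) := by
    exact_mod_cast Finset.card_pos.mpr hne
  have h3 : ∑ b ∈ P.image lab, ((P.image lab).card : ℝ) * ((P.filter fun t => lab t = b).card : ℝ) <
      ∑ b ∈ P.image lab, (P.card : ℝ) :=
    Finset.sum_lt_sum_of_nonempty hne fun b hb => hcon b hb
  rw [← Finset.mul_sum, ← h2, Finset.sum_const, nsmul_eq_mul] at h3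
  exact lt_irrefl _ h3

/-- Double pruning. -/
theorem prune2 [DecidableEq ι] [DecidableEq α] [DecidableEq β] (Q : Finset ι) (cu : ι → α) (cv : ι → β)
    {τ : ℝ} (h : 2 * (τ * ((Q.image cu).card + (Q.image cv).card)) ≤ Q.card) :
    ∃ P' ⊆ Q, (Q.card : ℝ) ≤ 2 * P'.card ∧ ∀ t ∈ P',
      τ ≤ ((P'.filter fun s => cu s = cu t).card : ℝ) ∧ τ ≤ ((P'.filter fun s => cv s = cv t).card : ℝ) := by
  classical
  let f : Finset ι → ℝ := fun S => (S.card : ℝ) - τ * ((S.image cu).card + (S.image cv).card)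
  obtain ⟨S, hS, hmax⟩ := Finset.exists_max_image Q.powerset f ⟨Q, Finset.mem_powerset_self Q⟩
  rw [Finset.mem_powerset] at hS
  have hfQ : f Q ≤ f S := hmax Q (Finset.mem_powerset_self Q)
  have hτ : ∀ t ∈ S, τ ≤ ((S.filter fun s => cu s = cu t).card : ℝ) ∧
      τ ≤ ((S.filter fun s => cv s = cv t).card : ℝ) := by
    intro t ht
    by_cases hτ0 : τ ≤ 0
    · exact ⟨hτ0.trans (by positivity), hτ0.trans (by positivity)⟩
    push Not at hτ0
    constructor
    · by_contra hlt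
      push Not at hlt
      set S' := S.filter fun s => cu s ≠ cu t with hS'
      have hsub : S' ⊆ S := Finset.filter_subset _ _
      have h1 : f S' ≤ f S := hmax S' (Finset.mem_powerset.mpr (hsub.trans hS))
      have hc : (S.card : ℝ) = (S.filter fun s => cu s = cu t).card + S'.card := by
        have := Finset.card_filter_add_card_filter_not (s := S) (fun s => cu s = cu t)
        rw [hS']
        exact_mod_cast this.symm
      have hiu : ((S'.image cu).card : ℝ) + 1 ≤ (S.image cu).card := by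
        have hsub2 : S'.image cu ⊆ (S.image cu).erase (cu t) := by
          intro c hc'
          rw [Finset.mem_image] at hc'
          obtain ⟨s, hs, rfl⟩ := hc'
          rw [hS', Finset.mem_filter] at hs
          exact Finset.mem_erase.mpr ⟨hs.2, Finset.mem_image_of_mem cu hs.1⟩
        have h2 := Finset.card_le_card hsub2
        have hmem : cu t ∈ S.image cu := Finset.mem_image_of_mem cu ht
        rw [Finset.card_erase_of_mem hmem] at h2
        have h3 : 0 < (S.image cu).card := Finset.card_pos.mpr ⟨_, hmem⟩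
        have h4 : (S'.image cu).card + 1 ≤ (S.image cu).card := by omega
        exact_mod_cast h4
      have hiv : ((S'.image cv).card : ℝ) ≤ (S.image cv).card := by
        exact_mod_cast Finset.card_le_card (Finset.image_subset_image hsub)
      have hS'f : f S' = (S'.card : ℝ) - τ * ((S'.image cu).card + (S'.image cv).card) := rfl
      have hSf : f S = (S.card : ℝ) - τ * ((S.image cu).card + (S.image cv).card) := rfl
      have h5 : τ * (((S'.image cu).card : ℝ) + (S'.image cv).card) + τ ≤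
          τ * ((S.image cu).card + (S.image cv).card) := by nlinarith
      rw [hS'f, hSf] at h1
      linarith
    · by_contra hlt
      push Not at hlt
      set S' := S.filter fun s => cv s ≠ cv t with hS'
      have hsub : S' ⊆ S := Finset.filter_subset _ _
      have h1 : f S' ≤ f S := hmax S' (Finset.mem_powerset.mpr (hsub.trans hS))
      have hc : (S.card : ℝ) = (S.filter fun s => cv s = cv t).card + S'.card := by
        have := Finset.card_filter_add_card_filter_not (s := S) (fun s => cv s = cv t)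
        rw [hS']
        exact_mod_cast this.symm
      have hiv : ((S'.image cv).card : ℝ) + 1 ≤ (S.image cv).card := by
        have hsub2 : S'.image cv ⊆ (S.image cv).erase (cv t) := by
          intro c hc'
          rw [Finset.mem_image] at hc'
          obtain ⟨s, hs, rfl⟩ := hc'
          rw [hS', Finset.mem_filter] at hs
          exact Finset.mem_erase.mpr ⟨hs.2, Finset.mem_image_of_mem cv hs.1⟩
        have h2 := Finset.card_le_card hsub2
        have hmem : cv t ∈ S.image cv := Finset.mem_image_of_mem cv ht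
        rw [Finset.card_erase_of_mem hmem] at h2
        have h3 : 0 < (S.image cv).card := Finset.card_pos.mpr ⟨_, hmem⟩
        have h4 : (S'.image cv).card + 1 ≤ (S.image cv).card := by omega
        exact_mod_cast h4
      have hiu : ((S'.image cu).card : ℝ) ≤ (S.image cu).card := by
        exact_mod_cast Finset.card_le_card (Finset.image_subset_image hsub)
      have hS'f : f S' = (S'.card : ℝ) - τ * ((S'.image cu).card + (S'.image cv).card) := rfl
      have hSf : f S = (S.card : ℝ) - τ * ((S.image cu).card + (S.image cv).card) := rfl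
      have h5 : τ * (((S'.image cu).card : ℝ) + (S'.image cv).card) + τ ≤
          τ * ((S.image cu).card + (S.image cv).card) := by nlinarith
      rw [hS'f, hSf] at h1
      linarith
  refine ⟨S, hS, ?_, hτ⟩
  by_cases hτ0 : 0 ≤ τ
  · have hSf : f S = (S.card : ℝ) - τ * ((S.image cu).card + (S.image cv).card) := rfl
    have hQf : f Q = (Q.card : ℝ) - τ * ((Q.image cu).card + (Q.image cv).card) := rfl
    have h6 : 0 ≤ τ * (((S.image cu).card : ℝ) + (S.image cv).card) := by positivity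
    rw [hSf, hQf] at hfQ
    linarith
  · push Not at hτ0
    -- then `f` is monotone in the number of classes; use `Q` itself
    have hSf : f S = (S.card : ℝ) - τ * ((S.image cu).card + (S.image cv).card) := rfl
    have hQf : f Q = (Q.card : ℝ) - τ * ((Q.image cu).card + (Q.image cv).card) := rfl
    have h7 : ((S.image cu).card : ℝ) ≤ (Q.image cu).card := by
      exact_mod_cast Finset.card_le_card (Finset.image_subset_image hS)
    have h8 : ((S.image cv).card : ℝ) ≤ (Q.image cv).card := by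
      exact_mod_cast Finset.card_le_card (Finset.image_subset_image hS)
    rw [hSf, hQf] at hfQ
    have h9 : τ * (((Q.image cu).card : ℝ) + (Q.image cv).card) ≤
        τ * ((S.image cu).card + (S.image cv).card) := by nlinarith
    have h10 : (0 : ℝ) ≤ S.card := by positivity
    linarith

/-- The number of classes is bounded by fullness. -/
theorem classes_le [DecidableEq α] (P : Finset ι) (cu : ι → α) {M W : ℝ}
    (hfull : ∀ t ∈ P, M ≤ W * ((P.filter fun s => cu s = cu t).card : ℝ)) :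
    M * ((P.image cu).card : ℝ) ≤ W * (P.card : ℝ) := by
  classical
  have h1 : P.card = ∑ b ∈ P.image cu, (P.filter fun t => cu t = b).card :=
    Finset.card_eq_sum_card_image cu P
  have h2 : (P.card : ℝ) = ∑ b ∈ P.image cu, ((P.filter fun t => cu t = b).card : ℝ) := by
    exact_mod_cast h1
  rw [h2, Finset.mul_sum]
  calc M * ((P.image cu).card : ℝ) = ∑ _b ∈ P.image cu, M := by
        rw [Finset.sum_const, nsmul_eq_mul]; ring
    _ ≤ _ := Finset.sum_le_sum fun b hb => by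
        rw [Finset.mem_image] at hb
        obtain ⟨t, ht, rfl⟩ := hb
        exact hfull t ht

/-- Popular subfamily + double pruning. -/
theorem full_sub [DecidableEq ι] [DecidableEq α] [DecidableEq β] {P Q : Finset ι} {cu : ι → α} {cv : ι → β}
    {M W L : ℝ} (hQP : Q ⊆ P) (hQ : Q.Nonempty) (hM : 0 < M) (hW : 0 < W) (hL : 0 < L)
    (hu : ∀ t ∈ P, M ≤ W * ((P.filter fun s => cu s = cu t).card : ℝ))
    (hv : ∀ t ∈ P, M ≤ W * ((P.filter fun s => cv s = cv t).card : ℝ))
    (hPQ : (P.card : ℝ) ≤ L * Q.card) :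
    ∃ P' ⊆ Q, P'.Nonempty ∧ (Q.card : ℝ) ≤ 2 * P'.card ∧ (P.card : ℝ) ≤ 2 * L * P'.card ∧ ∀ t ∈ P',
      M ≤ 4 * L * W * ((P'.filter fun s => cu s = cu t).card : ℝ) ∧
      M ≤ 4 * L * W * ((P'.filter fun s => cv s = cv t).card : ℝ) := by
  classical
  have h1 := classes_le P cu hu
  have h2 := classes_le P cv hv
  have hiu : ((Q.image cu).card : ℝ) ≤ (P.image cu).card := by
    exact_mod_cast Finset.card_le_card (Finset.image_subset_image hQP)
  have hiv : ((Q.image cv).card : ℝ) ≤ (P.image cv).card := by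
    exact_mod_cast Finset.card_le_card (Finset.image_subset_image hQP)
  have hLW : (0 : ℝ) < 4 * L * W := by positivity
  obtain ⟨P', hP'Q, hcard, hτ⟩ := prune2 Q cu cv (τ := M / (4 * L * W)) (by
    have h3 : M * (((Q.image cu).card : ℝ) + (Q.image cv).card) ≤ 2 * W * P.card := by nlinarith
    have h4 : 2 * (M / (4 * L * W) * (((Q.image cu).card : ℝ) + (Q.image cv).card)) =
        (M * (((Q.image cu).card : ℝ) + (Q.image cv).card)) / (2 * L * W) := by
      field_simp; ring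
    rw [h4, div_le_iff₀ (by positivity)]
    nlinarith)
  have hQc : (0 : ℝ) < Q.card := by exact_mod_cast Finset.card_pos.mpr hQ
  refine ⟨P', hP'Q, ?_, hcard, ?_, ?_⟩
  · rw [← Finset.card_pos]
    have : (0 : ℝ) < P'.card := by linarith
    exact_mod_cast this
  · nlinarith
  · intro t ht
    obtain ⟨ha, hb⟩ := hτ t ht
    rw [div_le_iff₀ hLW] at ha hb
    constructor <;> nlinarith

/-- Popular label (finite label set) + double pruning. -/
theorem pop_full [DecidableEq ι] [DecidableEq α] [DecidableEq β] [DecidableEq γ] {P : Finset ι}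
    {cu : ι → α} {cv : ι → β} (lab : ι → γ) {M W L : ℝ} (hP : P.Nonempty) (hM : 0 < M) (hW : 0 < W)
    (hL : ((P.image lab).card : ℝ) ≤ L)
    (hu : ∀ t ∈ P, M ≤ W * ((P.filter fun s => cu s = cu t).card : ℝ))
    (hv : ∀ t ∈ P, M ≤ W * ((P.filter fun s => cv s = cv t).card : ℝ)) :
    ∃ b, ∃ P' ⊆ P, P'.Nonempty ∧ (∀ t ∈ P', lab t = b) ∧ (P.card : ℝ) ≤ 2 * L * P'.card ∧ ∀ t ∈ P',
      M ≤ 4 * L * W * ((P'.filter fun s => cu s = cu t).card : ℝ) ∧
      M ≤ 4 * L * W * ((P'.filter fun s => cv s = cv t).card : ℝ) := by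
  classical
  obtain ⟨b, hb, hcard⟩ := popular P lab hP
  have hne : (P.filter fun t => lab t = b).Nonempty := by
    rw [Finset.mem_image] at hb
    obtain ⟨t, ht, rfl⟩ := hb
    exact ⟨t, Finset.mem_filter.mpr ⟨ht, rfl⟩⟩
  have hLpos : 0 < L := by
    have : (0 : ℝ) < ((P.image lab).card : ℝ) := by exact_mod_cast Finset.card_pos.mpr (hP.image lab)
    linarith
  have hPQ : (P.card : ℝ) ≤ L * ((P.filter fun t => lab t = b).card : ℝ) := by
    have : (0 : ℝ) ≤ ((P.filter fun t => lab t = b).card : ℝ) := by positivity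
    nlinarith
  obtain ⟨P', h1, h2, _, h4, h5⟩ := full_sub (Finset.filter_subset _ _) hne hM hW hLpos hu hv hPQ
  exact ⟨b, P', h1.trans (Finset.filter_subset _ _), h2, fun t ht => (Finset.mem_filter.mp (h1 ht)).2, h4, h5⟩

/-- number of dyadic values of a function with `1 ≤ E`, `log E ≤ W`. -/
theorem image_log_le (P : Finset ι) (E : ι → ℝ) {W : ℝ} (hW : 1 ≤ W)
    (hE : ∀ t ∈ P, 1 ≤ E t ∧ Real.log (E t) ≤ W) :
    ((P.image fun t => Nat.log 2 ⌊E t⌋₊).card : ℝ) ≤ 3 * W := by
  classical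
  have hsub : (P.image fun t => Nat.log 2 ⌊E t⌋₊) ⊆ Finset.range (⌊2 * W⌋₊ + 1) := by
    intro b hb
    rw [Finset.mem_image] at hb
    obtain ⟨t, ht, rfl⟩ := hb
    rw [Finset.mem_range, Nat.lt_succ_iff]
    obtain ⟨h1, h2⟩ := hE t ht
    have hfl : ⌊E t⌋₊ ≠ 0 := by
      have : 1 ≤ ⌊E t⌋₊ := Nat.le_floor (by exact_mod_cast h1)
      omega
    have h3 : (2 : ℝ) ^ (Nat.log 2 ⌊E t⌋₊) ≤ E t := by
      have h4 : 2 ^ (Nat.log 2 ⌊E t⌋₊) ≤ ⌊E t⌋₊ := Nat.pow_log_le_self 2 hfl
      calc (2 : ℝ) ^ (Nat.log 2 ⌊E t⌋₊) ≤ (⌊E t⌋₊ : ℝ) := by exact_mod_cast h4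
        _ ≤ E t := Nat.floor_le (by linarith)
    have h5 : (Nat.log 2 ⌊E t⌋₊ : ℝ) * Real.log 2 ≤ W := by
      have := Real.log_le_log (by positivity) h3
      rw [Real.log_pow] at this
      linarith
    apply Nat.le_floor
    have hl2 : (0.5 : ℝ) ≤ Real.log 2 := by have := Real.log_two_gt_d9; linarith
    have h6 : (0 : ℝ) ≤ (Nat.log 2 ⌊E t⌋₊ : ℝ) := by positivity
    nlinarith
  have h7 := Finset.card_le_card hsub
  rw [Finset.card_range] at h7
  have h8 : (⌊2 * W⌋₊ : ℝ) ≤ 2 * W := Nat.floor_le (by linarith)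
  have h9 : (((P.image fun t => Nat.log 2 ⌊E t⌋₊).card : ℕ) : ℝ) ≤ (⌊2 * W⌋₊ : ℝ) + 1 := by exact_mod_cast h7
  linarith

theorem dyadic_bounds {x : ℝ} (hx : 1 ≤ x) :
    (2 : ℝ) ^ (Nat.log 2 ⌊x⌋₊) ≤ x ∧ x < 2 * (2 : ℝ) ^ (Nat.log 2 ⌊x⌋₊) := by
  have hfl : ⌊x⌋₊ ≠ 0 := by
    have : 1 ≤ ⌊x⌋₊ := Nat.le_floor (by exact_mod_cast hx)
    omega
  constructor
  · have h4 : 2 ^ (Nat.log 2 ⌊x⌋₊) ≤ ⌊x⌋₊ := Nat.pow_log_le_self 2 hfl
    calc (2 : ℝ) ^ (Nat.log 2 ⌊x⌋₊) ≤ (⌊x⌋₊ : ℝ) := by exact_mod_cast h4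
      _ ≤ x := Nat.floor_le (by linarith)
  · have h5 : ⌊x⌋₊ < 2 ^ (Nat.log 2 ⌊x⌋₊ + 1) := Nat.lt_pow_succ_log_self (by norm_num) _
    have h6 : ⌊x⌋₊ + 1 ≤ 2 ^ (Nat.log 2 ⌊x⌋₊ + 1) := h5
    have h7 : x < (⌊x⌋₊ : ℝ) + 1 := Nat.lt_floor_add_one x
    have h8 : ((⌊x⌋₊ : ℝ) + 1) ≤ (2 : ℝ) ^ (Nat.log 2 ⌊x⌋₊ + 1) := by exact_mod_cast h6
    rw [pow_succ] at h8
    linarith

/-- **Popular dyadic value + double pruning.** -/
theorem pop_full_log [DecidableEq ι] [DecidableEq α] [DecidableEq β] {P : Finset ι}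
    {cu : ι → α} {cv : ι → β} (E : ι → ℝ) {M W : ℝ} (hP : P.Nonempty) (hM : 0 < M) (hW : 1 ≤ W)
    (hE : ∀ t ∈ P, 1 ≤ E t ∧ Real.log (E t) ≤ W)
    (hu : ∀ t ∈ P, M ≤ W * ((P.filter fun s => cu s = cu t).card : ℝ))
    (hv : ∀ t ∈ P, M ≤ W * ((P.filter fun s => cv s = cv t).card : ℝ)) :
    ∃ k : ℕ, ∃ P' ⊆ P, P'.Nonempty ∧ (∀ t ∈ P', (2 : ℝ) ^ k ≤ E t ∧ E t < 2 * 2 ^ k) ∧
      (P.card : ℝ) ≤ 6 * W * P'.card ∧ ∀ t ∈ P',
      M ≤ 12 * W ^ 2 * ((P'.filter fun s => cu s = cu t).card : ℝ) ∧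
      M ≤ 12 * W ^ 2 * ((P'.filter fun s => cv s = cv t).card : ℝ) := by
  obtain ⟨b, P', h1, h2, h3, h4, h5⟩ := pop_full (cu := cu) (cv := cv) (fun t => Nat.log 2 ⌊E t⌋₊) hP hM
    (lt_of_lt_of_le one_pos hW) (image_log_le P E hW hE) hu hv
  refine ⟨b, P', h1, h2, fun t ht => ?_, by linarith, fun t ht => ?_⟩
  · have := dyadic_bounds (hE t (h1 ht)).1
    rw [← h3 t ht]
    exact this
  · obtain ⟨ha, hb⟩ := h5 t ht
    exact ⟨by linarith, by linarith⟩

/-- **Two popular dyadic values at once + double pruning.** -/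
theorem pop_full_log2 [DecidableEq ι] [DecidableEq α] [DecidableEq β] {P : Finset ι}
    {cu : ι → α} {cv : ι → β} (E F : ι → ℝ) {M W : ℝ} (hP : P.Nonempty) (hM : 0 < M) (hW : 1 ≤ W)
    (hE : ∀ t ∈ P, 1 ≤ E t ∧ Real.log (E t) ≤ W) (hF : ∀ t ∈ P, 1 ≤ F t ∧ Real.log (F t) ≤ W)
    (hu : ∀ t ∈ P, M ≤ W * ((P.filter fun s => cu s = cu t).card : ℝ))
    (hv : ∀ t ∈ P, M ≤ W * ((P.filter fun s => cv s = cv t).card : ℝ)) :
    ∃ k l : ℕ, ∃ P' ⊆ P, P'.Nonempty ∧ (∀ t ∈ P', (2 : ℝ) ^ k ≤ E t ∧ E t < 2 * 2 ^ k) ∧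
      (∀ t ∈ P', (2 : ℝ) ^ l ≤ F t ∧ F t < 2 * 2 ^ l) ∧
      (P.card : ℝ) ≤ 18 * W ^ 2 * P'.card ∧ ∀ t ∈ P',
      M ≤ 36 * W ^ 3 * ((P'.filter fun s => cu s = cu t).card : ℝ) ∧
      M ≤ 36 * W ^ 3 * ((P'.filter fun s => cv s = cv t).card : ℝ) := by
  classical
  have hL : ((P.image fun t => (Nat.log 2 ⌊E t⌋₊, Nat.log 2 ⌊F t⌋₊)).card : ℝ) ≤ 9 * W ^ 2 := by
    have hsub : (P.image fun t => (Nat.log 2 ⌊E t⌋₊, Nat.log 2 ⌊F t⌋₊)) ⊆
        (P.image fun t => Nat.log 2 ⌊E t⌋₊) ×ˢ (P.image fun t => Nat.log 2 ⌊F t⌋₊) := by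
      intro b hb
      rw [Finset.mem_image] at hb
      obtain ⟨t, ht, rfl⟩ := hb
      exact Finset.mem_product.mpr ⟨Finset.mem_image_of_mem _ ht, Finset.mem_image_of_mem _ ht⟩
    have h1 := Finset.card_le_card hsub
    rw [Finset.card_product] at h1
    have h2 := image_log_le P E hW hE
    have h3 := image_log_le P F hW hF
    have h4 : ((P.image fun t => (Nat.log 2 ⌊E t⌋₊, Nat.log 2 ⌊F t⌋₊)).card : ℝ) ≤
        ((P.image fun t => Nat.log 2 ⌊E t⌋₊).card : ℝ) * ((P.image fun t => Nat.log 2 ⌊F t⌋₊).card : ℝ) := by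
      exact_mod_cast h1
    have h5 : (0 : ℝ) ≤ ((P.image fun t => Nat.log 2 ⌊F t⌋₊).card : ℝ) := by positivity
    have h6 : (0 : ℝ) ≤ ((P.image fun t => Nat.log 2 ⌊E t⌋₊).card : ℝ) := by positivity
    calc _ ≤ _ := h4
      _ ≤ (3 * W) * (3 * W) := mul_le_mul h2 h3 h5 (by linarith)
      _ = 9 * W ^ 2 := by ring
  obtain ⟨b, P', h1, h2, h3, h4, h5⟩ := pop_full (cu := cu) (cv := cv)
    (fun t => (Nat.log 2 ⌊E t⌋₊, Nat.log 2 ⌊F t⌋₊)) hP hM (lt_of_lt_of_le one_pos hW) hL hu hv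
  refine ⟨b.1, b.2, P', h1, h2, fun t ht => ?_, fun t ht => ?_, by linarith, fun t ht => ?_⟩
  · have := dyadic_bounds (hE t (h1 ht)).1
    rw [← h3 t ht]
    exact this
  · have := dyadic_bounds (hF t (h1 ht)).1
    rw [← h3 t ht]
    exact this
  · obtain ⟨ha, hb⟩ := h5 t ht
    have hW3 : 4 * (9 * W ^ 2) * W = 36 * W ^ 3 := by ring
    rw [hW3] at ha hb
    exact ⟨ha, hb⟩

end Crest.Agent.R136.Pop615
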