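import Crest.Agent.R136.Pl2Def_860
import Crest.Agent.R136.Pop_615
import Crest.Agent.R136.Rft_877

/-!
# R136, PLAN 2 (AL): last step (helper877)

* `TypA` : the part of `TypP` used in (AL), monotone in `K` and `W`;
* `two_sub`, `two_prune` : `Two1` passes to full subfamilies;
* `AlMixed` (case (A), the flatter sheet is much flatter), `AlBal` (case (B), comparable curvature
  extents), `al_top : AlMixed → AlBal → AL`.
-/

set_option autoImplicit false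
set_option linter.unusedVariables false

open Finset

namespace Crest.Agent.R136.Al877

open Crest.Agent.R136.Sh605 Crest.Agent.R136.Pl2
open Crest.Agent.R136.K4 (Plk4)
open Crest.Agent.R136.Tlt51 (Shp InP)
open Crest.Agent.R136.Phc248 (phC)
open Crest.Agent.R136.Deep51 (CloseC)
open Crest.Agent.R136.KapP335 (kapP DetP)
open Crest.Agent.R136.Tl102 (angC)
open Crest.Agent.R136.Pl2W102 (Near Ex2 Two1)

/-- facts at the lines used in (AL), monotone in `K` and `W` -/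
structure TypA (K W a : ℝ) (S S' : Plk4) (T : Ln4) (z0 ρ : ℝ) : Prop where
  big : K * a ≤ kp S z0 ρ T
  le : kp S' z0 ρ T ≤ kp S z0 ρ T
  det : W * a ≤ kp S z0 ρ T → DetP W⁻¹ S z0 ρ T
  det' : W * a ≤ kp S' z0 ρ T → DetP W⁻¹ S' z0 ρ T

theorem TypA.mono {K W K' W' a : ℝ} {S S' : Plk4} {T : Ln4} {z0 ρ : ℝ}
    (h : TypA K W a S S' T z0 ρ) (ha : 0 ≤ a) (hW0 : 0 < W) (hK : K' ≤ K) (hW : W ≤ W') :
    TypA K' W' a S S' T z0 ρ where
  big := (mul_le_mul_of_nonneg_right hK ha).trans h.big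
  le := h.le
  det := fun h1 => (h.det ((mul_le_mul_of_nonneg_right hW ha).trans h1)).mono
    (inv_anti₀ hW0 hW)
  det' := fun h1 => (h.det' ((mul_le_mul_of_nonneg_right hW ha).trans h1)).mono
    (inv_anti₀ hW0 hW)

theorem TypA.of_typP {K W a : ℝ} {S S' : Plk4} {T : Ln4} {z0 ρ : ℝ}
    (h : TypP K W a S S' T z0 ρ) : TypA K W a S S' T z0 ρ where
  big := h.big
  le := h.le
  det := h.typ.det
  det' := h.typ'.det

/-- alignment and closeness hypothesis of (AL) -/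
structure AlH (W w1 w2 : ℝ) (S S' : Plk4) (T : Ln4) (z0 ρ : ℝ) : Prop where
  ang : angC S S' * w1 ≤ W * w2
  close : CloseC S'.e S'.w S'.q S'.a S.q (W * kp S z0 ρ T) T z0 ρ

theorem closeC_mono {e : Fin 3 → V3} {w : V3} {q : ℝ → V3 → ℝ} {a : ℝ} {q' : ℝ → V3 → ℝ}
    {E E' : ℝ} {T : Ln4} {z0 ρ : ℝ} (h : CloseC e w q a q' E T z0 ρ) (hE : E ≤ E') :
    CloseC e w q a q' E' T z0 ρ :=
  fun z h1 h2 x hx hq => (h z h1 h2 x hx hq).trans hE

theorem AlH.mono {W W' w1 w2 : ℝ} {S S' : Plk4} {T : Ln4} {z0 ρ : ℝ}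
    (h : AlH W w1 w2 S S' T z0 ρ) (hw : 0 ≤ w2) (hk : 0 ≤ kp S z0 ρ T) (hW : W ≤ W') :
    AlH W' w1 w2 S S' T z0 ρ where
  ang := h.ang.trans (mul_le_mul_of_nonneg_right hW hw)
  close := closeC_mono h.close (mul_le_mul_of_nonneg_right hW hk)

theorem ex2_mono {η η' : ℝ} {qm qp : Fin 3 → ℝ} (h : Ex2 η qm qp) (hη : η ≤ η') :
    Ex2 η' qm qp :=
  ⟨h.le, h.pos, h.e02, h.e1,
    h.e00.trans (mul_le_mul_of_nonneg_right hη (by positivity)),
    h.e21.trans (mul_le_mul_of_nonneg_right hη (h.le 1).1)⟩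

section
variable {qm qp : Fin 3 → ℝ} {L : ℕ → Ln4} {P : Finset ℕ} {cu cv : ℕ → ℕ} {Uf Vf : ℕ → Plk4}
  {W M a w1 w2 z0 ρ r : ℝ}

open Classical in
/-- `Two1` passes to subfamilies which are full -/
theorem two_sub (h : Two1 qm qp L P cu cv Uf Vf W M a w1 w2 z0 ρ r) {P' : Finset ℕ} (hP : P' ⊆ P)
    {W' : ℝ} (hW : W ≤ W')
    (fu : ∀ t ∈ P', M ≤ W' * ((P'.filter fun s => cu s = cu t).card : ℝ))
    (fv : ∀ t ∈ P', M ≤ W' * ((P'.filter fun s => cv s = cv t).card : ℝ)) :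
    Two1 qm qp L P' cu cv Uf Vf W' M a w1 w2 z0 ρ r := by
  have nr : ∀ {x y : ℝ}, 0 ≤ x → 0 ≤ y → Near W x y → Near W' x y := by
    intro x y hx hy hn
    exact ⟨hn.1.trans (mul_le_mul_of_nonneg_right hW hy),
      hn.2.trans (mul_le_mul_of_nonneg_right hW hx)⟩
  have posS : ∀ {S : Plk4}, Shp S z0 ρ r → 0 ≤ S.a ∧ 0 ≤ S.w 1 ∧ 0 ≤ S.w 2 := by
    intro S hS
    have a0 : 0 < S.a := h.r0.trans_le hS.r0_le
    have w0 : 0 < S.w 0 := a0.trans_le hS.a_le0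
    have w2 : 0 < S.w 2 := w0.trans_le hS.w0_le
    exact ⟨a0.le, (w2.trans_le hS.w_le).le, w2.le⟩
  exact
    { W1 := h.W1.trans hW
      M0 := h.M0
      r0 := h.r0
      ρ0 := h.ρ0
      a0 := h.a0
      w10 := h.w10
      w20 := h.w20
      w1ρ := h.w1ρ.trans (mul_le_mul_of_nonneg_right hW h.ρ0.le)
      lg := h.lg.trans hW
      vel := fun t ht => h.vel t (hP ht)
      shU := fun t ht => h.shU t (hP ht)
      shV := fun t ht => h.shV t (hP ht)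
      inU := fun t ht => h.inU t (hP ht)
      inV := fun t ht => h.inV t (hP ht)
      dimU := fun t ht => by
        obtain ⟨d1, d2, d3⟩ := h.dimU t (hP ht)
        obtain ⟨p1, p2, p3⟩ := posS (h.shU t (hP ht))
        exact ⟨nr h.a0.le p1 d1, nr h.w10.le p2 d2, nr h.w20.le p3 d3⟩
      dimV := fun t ht => by
        obtain ⟨d1, d2, d3⟩ := h.dimV t (hP ht)
        obtain ⟨p1, p2, p3⟩ := posS (h.shV t (hP ht))
        exact ⟨nr h.a0.le p1 d1, nr h.w10.le p2 d2, nr h.w20.le p3 d3⟩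
      fullU := fu
      fullV := fv
      dmax := fun S hS hSρ => by
        have k1 := h.dmax S hS hSρ
        have k2 : ((P'.filter fun t => InP (L t) S z0 ρ).card : ℝ) ≤
            ((P.filter fun t => InP (L t) S z0 ρ).card : ℝ) := by
          exact_mod_cast card_le_card (filter_subset_filter _ hP)
        refine (k2.trans k1).trans ?_
        obtain ⟨p1, p2, p3⟩ := posS hS
        have k3 := Phc248.phC_nonneg (qm := qm) (qp := qp) h.a0.le h.w10.le h.w20.le p1 p2 p3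
        exact mul_le_mul_of_nonneg_right (mul_le_mul_of_nonneg_right hW h.M0.le) k3 }

/-- pruning of a subfamily of proportion `1 / Lo` -/
theorem two_prune (h : Two1 qm qp L P cu cv Uf Vf W M a w1 w2 z0 ρ r) {Q : Finset ℕ} (hQ : Q ⊆ P)
    (hne : Q.Nonempty) {Lo : ℝ} (hLo : 1 ≤ Lo) (hc : (P.card : ℝ) ≤ Lo * (Q.card : ℝ)) :
    ∃ P' ⊆ Q, P'.Nonempty ∧ (Q.card : ℝ) ≤ 2 * (P'.card : ℝ) ∧
      Two1 qm qp L P' cu cv Uf Vf (4 * Lo * W) M a w1 w2 z0 ρ r := by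
  have hW0 : 0 < W := lt_of_lt_of_le one_pos h.W1
  obtain ⟨P', h1, h2, h3, -, h4⟩ := Pop615.full_sub hQ hne h.M0 hW0 (lt_of_lt_of_le one_pos hLo)
    h.fullU h.fullV hc
  refine ⟨P', h1, h2, h3, two_sub h (h1.trans hQ) ?_ (fun t ht => ?_) (fun t ht => ?_)⟩
  · have := h.W1
    nlinarith
  · convert (h4 t ht).1
  · convert (h4 t ht).2

end

/-- **case (A)**: mixed curvature is impossible -/
def AlMixed : Prop := ∃ η : ℝ, 0 < η ∧ ∀ qm qp : Fin 3 → ℝ, Ex2 η qm qp → ∃ K0 C : ℝ, 0 ≤ K0 ∧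
  0 ≤ C ∧
  ∀ (L : ℕ → Ln4) (P : Finset ℕ) (cu cv : ℕ → ℕ) (Uf Vf : ℕ → Plk4) (W M a w1 w2 z0 ρ r : ℝ),
    Two1 qm qp L P cu cv Uf Vf W M a w1 w2 z0 ρ r → P.Nonempty →
    (∀ t ∈ P, TypA ((2 * W) ^ K0) W a (Uf (cu t)) (Vf (cv t)) (L t) z0 ρ) →
    (∀ t ∈ P, AlH W w1 w2 (Uf (cu t)) (Vf (cv t)) (L t) z0 ρ) →
    ∃ t ∈ P, kp (Uf (cu t)) z0 ρ (L t) ≤ (2 * W) ^ C * max a (kp (Vf (cv t)) z0 ρ (L t))

/-- **case (B)**: comparable curvature extents -/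
def AlBal : Prop := ∃ η : ℝ, 0 < η ∧ ∀ qm qp : Fin 3 → ℝ, Ex2 η qm qp → ∀ Cm : ℝ, 0 ≤ Cm →
  ∃ K0 C : ℝ, 0 ≤ K0 ∧ 0 ≤ C ∧
  ∀ (L : ℕ → Ln4) (P : Finset ℕ) (cu cv : ℕ → ℕ) (Uf Vf : ℕ → Plk4) (W M a w1 w2 z0 ρ r : ℝ),
    Two1 qm qp L P cu cv Uf Vf W M a w1 w2 z0 ρ r → P.Nonempty →
    (∀ t ∈ P, TypA ((2 * W) ^ K0) W a (Uf (cu t)) (Vf (cv t)) (L t) z0 ρ) →
    (∀ t ∈ P, AlH W w1 w2 (Uf (cu t)) (Vf (cv t)) (L t) z0 ρ) →
    (∀ t ∈ P, kp (Uf (cu t)) z0 ρ (L t) ≤ (2 * W) ^ Cm * max a (kp (Vf (cv t)) z0 ρ (L t))) →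
    ∃ t ∈ P,
      CloseC (Uf (cu t)).e (Uf (cu t)).w (Uf (cu t)).q (Uf (cu t)).a (Vf (cv t)).q
        ((2 * W) ^ C * a) (L t) z0 ρ ∧
      CloseC (Vf (cv t)).e (Vf (cv t)).w (Vf (cv t)).q (Vf (cv t)).a (Uf (cu t)).q
        ((2 * W) ^ C * a) (L t) z0 ρ

/-- powers after a loss `8` -/
theorem pow8_le {W C : ℝ} (hW : 1 ≤ W) (hC : 0 ≤ C) : (2 * (8 * W)) ^ C ≤ (2 * W) ^ (4 * C) := by
  have h1 : 2 * (8 * W) ≤ (2 * W) ^ (4 : ℝ) := by
    have : (2 * W) ^ (4 : ℝ) = (2 * W) ^ 4 := by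
      rw [show (4:ℝ) = ((4:ℕ) : ℝ) by norm_num, Real.rpow_natCast]
    rw [this]
    have e : (2 * W) ^ 4 = 16 * W * W ^ 3 := by ring
    rw [e]
    have : 1 ≤ W ^ 3 := one_le_pow₀ hW
    nlinarith
  calc (2 * (8 * W)) ^ C ≤ ((2 * W) ^ (4 : ℝ)) ^ C := Real.rpow_le_rpow (by linarith) h1 hC
    _ = (2 * W) ^ (4 * C) := by rw [← Real.rpow_mul (by linarith)]

/-- **(AL) from the two cases** -/
theorem al_top (hA : AlMixed) (hB : AlBal) : AL := by
  classical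
  obtain ⟨ηA, hηA, hA⟩ := hA
  obtain ⟨ηB, hηB, hB⟩ := hB
  refine ⟨min ηA ηB, lt_min hηA hηB, fun qm qp hE => ?_⟩
  obtain ⟨KA, CA, hKA, hCA, hA⟩ := hA qm qp (ex2_mono hE (min_le_left _ _))
  obtain ⟨KB, CB, hKB, hCB, hB⟩ := hB qm qp (ex2_mono hE (min_le_right _ _)) (4 * CA) (by linarith)
  refine ⟨4 * (KA + KB), 4 * CB, by linarith, by linarith, ?_⟩
  intro L P cu cv Uf Vf W M a w1 w2 z0 ρ r h hP hT hH
  have W1 := h.W1
  have W0 : 0 < W := by linarith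
  have b1 : (1:ℝ) ≤ 2 * W := by linarith
  have hW8 : 4 * 2 * W = 8 * W := by ring
  have kU0 : ∀ t ∈ P, 0 ≤ kp (Uf (cu t)) z0 ρ (L t) := fun t ht =>
    (mul_nonneg (Real.rpow_nonneg (by linarith) _) h.a0.le).trans (hT t ht).big
  have hTA : ∀ K, 0 ≤ K → K ≤ KA + KB → ∀ t ∈ P,
      TypA ((2 * (8 * W)) ^ K) (8 * W) a (Uf (cu t)) (Vf (cv t)) (L t) z0 ρ := by
    intro K hK hK' t ht
    refine (TypA.of_typP (hT t ht)).mono h.a0.le W0 ?_ (by linarith)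
    exact (pow8_le W1 hK).trans (Real.rpow_le_rpow_of_exponent_le b1 (by linarith))
  have hHA : ∀ t ∈ P, AlH (8 * W) w1 w2 (Uf (cu t)) (Vf (cv t)) (L t) z0 ρ := by
    intro t ht
    exact AlH.mono ⟨(hH t ht).1, (hH t ht).2⟩ h.w20.le (kU0 t ht) (by linarith)
  set G : ℕ → Prop := fun t => kp (Uf (cu t)) z0 ρ (L t) ≤
    (2 * W) ^ (4 * CA) * max a (kp (Vf (cv t)) z0 ρ (L t)) with hG
  have hsplit : (P.card : ℝ) = ((P.filter G).card : ℝ) + ((P.filter fun t => ¬ G t).card : ℝ) := by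
    have := card_filter_add_card_filter_not (s := P) G
    exact_mod_cast this.symm
  have hPc : (0 : ℝ) < P.card := by exact_mod_cast hP.card_pos
  have mx0 : ∀ t, 0 ≤ max a (kp (Vf (cv t)) z0 ρ (L t)) := fun t => h.a0.le.trans (le_max_left _ _)
  rcases le_total ((P.filter fun t => ¬ G t).card : ℝ) ((P.filter G).card : ℝ) with hc | hc
  · -- comparable curvature extents
    have hne : (P.filter G).Nonempty := by
      rw [← card_pos]
      have : (0:ℝ) < ((P.filter G).card : ℝ) := by linarith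
      exact_mod_cast this
    obtain ⟨P', hP', hne', -, h'⟩ := two_prune h (filter_subset G P) hne (Lo := 2) (by norm_num)
      (by linarith)
    rw [hW8] at h'
    have hsub : P' ⊆ P := hP'.trans (filter_subset _ _)
    obtain ⟨t, ht, c1, c2⟩ := hB L P' cu cv Uf Vf (8 * W) M a w1 w2 z0 ρ r h' hne'
      (fun t ht => hTA KB hKB (by linarith) t (hsub ht)) (fun t ht => hHA t (hsub ht))
      (fun t ht => by
        have hg : G t := (mem_filter.1 (hP' ht)).2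
        refine hg.trans (mul_le_mul_of_nonneg_right ?_ (mx0 t))
        exact Real.rpow_le_rpow (by linarith) (by linarith) (by linarith))
    have hle : (2 * (8 * W)) ^ CB * a ≤ (2 * W) ^ (4 * CB) * a :=
      mul_le_mul_of_nonneg_right (pow8_le W1 hCB) h.a0.le
    exact ⟨t, hsub ht, closeC_mono c1 hle, closeC_mono c2 hle⟩
  · -- mixed curvature
    exfalso
    have hne : (P.filter fun t => ¬ G t).Nonempty := by
      rw [← card_pos]
      have : (0:ℝ) < ((P.filter fun t => ¬ G t).card : ℝ) := by linarith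
      exact_mod_cast this
    obtain ⟨P', hP', hne', -, h'⟩ := two_prune h (filter_subset (fun t => ¬ G t) P) hne (Lo := 2)
      (by norm_num) (by linarith)
    rw [hW8] at h'
    have hsub : P' ⊆ P := hP'.trans (filter_subset _ _)
    obtain ⟨t, ht, hk⟩ := hA L P' cu cv Uf Vf (8 * W) M a w1 w2 z0 ρ r h' hne'
      (fun t ht => hTA KA hKA (by linarith) t (hsub ht)) (fun t ht => hHA t (hsub ht))
    refine (mem_filter.1 (hP' ht)).2 (hk.trans ?_)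
    exact mul_le_mul_of_nonneg_right (pow8_le W1 hCA) (mx0 t)

end Crest.Agent.R136.Al877
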