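import Crest.Agent.R136.Asm2_102

/-!
# R136 (S0187), U5: finite lemmas for the last assembly of the tilt block III (helper102)

* `AgreeQ` : `Agree` and closeness of coefficients unless the short axis is thin;
* `exists_lam`, `compC_of`, `compC_mono` : the dyadic base tilt;
* `coin_triv` : coincidence at the trivial scale;
* `hcap_tilt`, `hcap_curv` : the capture hypothesis of `tilt_num`, cases (i) and (ii);
* `tiltOK_of`, `tiltOKP_of` : the conclusion.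
-/

set_option autoImplicit false

namespace Crest.Agent.R136.Tl102

open Crest.Agent.R136.Sh605
open Crest.Agent.R136.K4 (Plk4)
open Crest.Agent.R136.Top484 (Dat4)
open Crest.Agent.R136.Deep51 (CoinC CloseC dt_exp)
open Crest.Agent.R136.Tlt51 (CompC Agree Shp InP mk4 zx rh TiltOKC)
open Crest.Agent.R136.KapP335
open Crest.Agent.R136.Cps605

/-! ### `AgreeQ` -/

theorem PolyC.mono {E E' : ℝ} {S S' : Plk4} {T : Ln4} {z0 ρ : ℝ} (h : PolyC E S S' T z0 ρ)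
    (hE : E ≤ E') : PolyC E' S S' T z0 ρ := by
  intro b0 b1 G b0' b1' G' h1 h2
  obtain ⟨k1, k2, X, k3, k4⟩ := h b0 b1 G b0' b1' G' h1 h2
  exact ⟨k1, k2, X, k3.trans hE, k4⟩

/-- `Agree` and closeness of the coefficients, unless the short axis is thin -/
structure AgreeQ (A E s lam : ℝ) (S S' : Plk4) (T : Ln4) (z0 ρ : ℝ) : Prop
    extends Agree A E s lam S S' T z0 ρ where
  poly : PolyC E S S' T z0 ρ ∨ S.w 2 ≤ E

theorem AgreeP.toQ {A E s lam : ℝ} {S S' : Plk4} {T : Ln4} {z0 ρ : ℝ}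
    (h : AgreeP A E s lam S S' T z0 ρ) : AgreeQ A E s lam S S' T z0 ρ :=
  ⟨h.toAgree, Or.inl h.poly⟩

theorem agreeP_mono {A A' E E' s s' lam : ℝ} {S S' : Plk4} {T : Ln4} {z0 ρ : ℝ}
    (h : AgreeP A E s lam S S' T z0 ρ) (hA : A ≤ A') (hE : E ≤ E') (hs : s' ≤ s) (hlam : 0 < lam)
    (hw : ∀ k, 0 ≤ S.w k) : AgreeP A' E' s' lam S S' T z0 ρ :=
  ⟨agree_mono h.toAgree hA hE hs hlam hw, h.poly.mono hE⟩

/-- monotonicity of `AgreeQ` -/
theorem agreeQ_mono {A A' E E' s s' lam : ℝ} {S S' : Plk4} {T : Ln4} {z0 ρ : ℝ}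
    (h : AgreeQ A E s lam S S' T z0 ρ) (hA : A ≤ A') (hE : E ≤ E') (hs : s' ≤ s) (hlam : 0 < lam)
    (hw : ∀ k, 0 ≤ S.w k) : AgreeQ A' E' s' lam S S' T z0 ρ :=
  ⟨agree_mono h.toAgree hA hE hs hlam hw, h.poly.imp (fun h => h.mono hE) fun h => h.trans hE⟩

/-! ### the base tilt -/

theorem angC_nonneg (S S' : Plk4) : 0 ≤ angC S S' :=
  (abs_nonneg _).trans ((le_max_left _ _).trans (le_max_left _ _))

theorem angC_le_one {S S' : Plk4} (he : Ortho S.e) (he' : Ortho S'.e) : angC S S' ≤ 1 :=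
  max_le (max_le (dt_le_one he he' 1 0) (dt_le_one he he' 1 2))
    (max_le (dt_le_one he he' 0 1) (dt_le_one he he' 2 1))

theorem le_angC (S S' : Plk4) {i : Fin 3} (hi : i ≠ 1) : |dt (S.e 1) (S'.e i)| ≤ angC S S' := by
  fin_cases i
  · exact (le_max_left _ _).trans (le_max_left _ _)
  · exact absurd rfl hi
  · exact (le_max_right _ _).trans (le_max_left _ _)

theorem le_angC' (S S' : Plk4) {i : Fin 3} (hi : i ≠ 1) : |dt (S.e i) (S'.e 1)| ≤ angC S S' := by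
  fin_cases i
  · exact (le_max_left _ _).trans (le_max_right _ _)
  · exact absurd rfl hi
  · exact (le_max_right _ _).trans (le_max_right _ _)

theorem compC_of {S S' : Plk4} {B lam : ℝ}
    (hw : ∀ i, i ≠ 0 → S.w i ≤ B * S'.w i ∧ S'.w i ≤ B * S.w i)
    (ha : S.a ≤ B * S'.a ∧ S'.a ≤ B * S.a) (hw1 : 0 ≤ S.w 1)
    (hlam : angC S S' * S.w 1 ≤ lam * S.w 2) : CompC B lam S S' where
  w := hw
  a := ha
  g := fun i hi => (mul_le_mul_of_nonneg_right (le_angC S S' hi) hw1).trans hlam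
  g' := fun i hi => (mul_le_mul_of_nonneg_right (le_angC' S S' hi) hw1).trans hlam

theorem compC_mono {S S' : Plk4} {B B' lam lam' : ℝ} (h : CompC B lam S S') (hB : B ≤ B')
    (hl : lam ≤ lam') (hw : ∀ k, 0 ≤ S.w k) (hw' : ∀ k, 0 ≤ S'.w k) (ha : 0 ≤ S.a)
    (ha' : 0 ≤ S'.a) : CompC B' lam' S S' where
  w := fun i hi => ⟨(h.w i hi).1.trans (mul_le_mul_of_nonneg_right hB (hw' i)),
    (h.w i hi).2.trans (mul_le_mul_of_nonneg_right hB (hw i))⟩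
  a := ⟨h.a.1.trans (mul_le_mul_of_nonneg_right hB ha'),
    h.a.2.trans (mul_le_mul_of_nonneg_right hB ha)⟩
  g := fun i hi => (h.g i hi).trans (mul_le_mul_of_nonneg_right hl (hw 2))
  g' := fun i hi => (h.g' i hi).trans (mul_le_mul_of_nonneg_right hl (hw 2))

/-- the base tilt at most `angC` times a constant -/
theorem CompC.angC_le {S S' : Plk4} {B lam : ℝ} (h : CompC B lam S S') (hw1 : 0 ≤ S.w 1) :
    angC S S' * S.w 1 ≤ lam * S.w 2 := by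
  unfold angC
  rcases max_cases (max |dt (S.e 1) (S'.e 0)| |dt (S.e 1) (S'.e 2)|)
    (max |dt (S.e 0) (S'.e 1)| |dt (S.e 2) (S'.e 1)|) with ⟨h1, -⟩ | ⟨h1, -⟩ <;> rw [h1]
  · rcases max_cases |dt (S.e 1) (S'.e 0)| |dt (S.e 1) (S'.e 2)| with ⟨h2, -⟩ | ⟨h2, -⟩ <;> rw [h2]
    · exact h.g 0 (by decide)
    · exact h.g 2 (by decide)
  · rcases max_cases |dt (S.e 0) (S'.e 1)| |dt (S.e 2) (S'.e 1)| with ⟨h2, -⟩ | ⟨h2, -⟩ <;> rw [h2]
    · exact h.g' 0 (by decide)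
    · exact h.g' 2 (by decide)

/-- the dyadic base tilt -/
theorem exists_lam {S S' : Plk4} (he : Ortho S.e) (he' : Ortho S'.e) (hw2 : 0 < S.w 2)
    (hw : S.w 2 ≤ S.w 1) : ∃ k : ℕ, angC S S' * S.w 1 ≤ 2 ^ k * S.w 2 ∧ 2 ^ k * S.w 2 ≤ 2 * S.w 1 ∧
      (k = 0 ∨ 2 ^ k * S.w 2 ≤ 2 * (angC S S' * S.w 1)) := by
  classical
  have hw1 : 0 < S.w 1 := hw2.trans_le hw
  have hex : ∃ k : ℕ, angC S S' * S.w 1 ≤ 2 ^ k * S.w 2 := by
    obtain ⟨k, hk⟩ := pow_unbounded_of_one_lt (angC S S' * S.w 1 / S.w 2) (one_lt_two (α := ℝ))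
    exact ⟨k, by rw [← div_le_iff₀ hw2]; exact hk.le⟩
  refine ⟨Nat.find hex, Nat.find_spec hex, ?_, ?_⟩
  · rcases Nat.eq_zero_or_pos (Nat.find hex) with h0 | h0
    · rw [h0]; linarith
    · obtain ⟨j, hj⟩ := Nat.exists_eq_succ_of_ne_zero h0.ne'
      have h1 := Nat.find_min hex (m := j) (by omega)
      push Not at h1
      rw [hj, pow_succ]
      have h2 := mul_le_mul_of_nonneg_right (angC_le_one he he') hw1.le
      linarith
  · rcases Nat.eq_zero_or_pos (Nat.find hex) with h0 | h0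
    · exact Or.inl h0
    · obtain ⟨j, hj⟩ := Nat.exists_eq_succ_of_ne_zero h0.ne'
      have h1 := Nat.find_min hex (m := j) (by omega)
      push Not at h1
      right
      rw [hj, pow_succ]
      linarith

/-! ### coincidence at the trivial scale -/

/-- **coincidence at the trivial scale** -/
theorem coin_triv {S S' : Plk4} {T : Ln4} {z0 ρ z1 ρ1 z2 ρ2 r B lam s A : ℝ} (hr : 0 < r)
    (hz1 : z1 ≤ z0) (hz1' : z0 + ρ ≤ z1 + ρ1) (hz2 : z2 ≤ z0) (hz2' : z0 + ρ ≤ z2 + ρ2)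
    (hB : 1 ≤ B) (hlam : 1 ≤ lam) (hS : Shp S z1 ρ1 r) (hS' : Shp S' z2 ρ2 r)
    (hC : CompC B lam S S') (hT : InP T S z1 ρ1) (hT' : InP T S' z2 ρ2) (hs : 0 ≤ s)
    (hs1 : s ≤ 1 / 2) (hst : B ^ 2 * (s * S.w 2) ≤ S.a + S'.a)
    (hw0 : 20 * (S.a + S'.a) ≤ S.w 0) (hA : 41 * (S.a + S'.a) ≤ A) :
    CoinC S.e S.w S.q S'.e S'.c S'.w S'.q S'.a A (s / lam * S.w 1) (s * S.w 2) T z0 ρ := by
  have ha : 0 < S.a := hr.trans_le hS.r0_le
  have ha' : 0 < S'.a := hr.trans_le hS'.r0_le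
  have hw0p : 0 < S.w 0 := ha.trans_le hS.a_le0
  have hw0p' : 0 < S'.w 0 := ha'.trans_le hS'.a_le0
  have hw2p : 0 < S.w 2 := hw0p.trans_le hS.w0_le
  have hw1p : 0 < S.w 1 := hw2p.trans_le hS.w_le
  have hw2p' : 0 < S'.w 2 := hw0p'.trans_le hS'.w0_le
  have hw1p' : 0 < S'.w 1 := hw2p'.trans_le hS'.w_le
  have P1 := StP.of_shN hS hw0p
  have P2 := StP.of_shN hS' hw0p'
  set b := S.a + S'.a with hb
  have hb0 : 0 < b := by positivity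
  have hlam0 : 0 < lam := by linarith
  have hsw2 : s * S.w 2 ≤ b := by
    have h1 : 1 ≤ B ^ 2 := one_le_pow₀ hB
    have h2 : 0 ≤ s * S.w 2 := by positivity
    exact (le_mul_of_one_le_left h2 h1).trans hst
  have hBs : S'.w 0 * (s * B) ≤ b := by
    refine le_trans ?_ hst
    have h1 : S'.w 0 ≤ B * S.w 2 := hS'.w0_le.trans (hC.w 2 (by decide)).2
    calc S'.w 0 * (s * B) ≤ B * S.w 2 * (s * B) := by gcongr
      _ = _ := by ring
  intro z hz0 hz1'' x hx hq h1 h2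
  have hza : z1 ≤ z := hz1.trans hz0
  have hzb : z ≤ z1 + ρ1 := hz1''.trans hz1'
  have hzc : z2 ≤ z := hz2.trans hz0
  have hzd : z ≤ z2 + ρ2 := hz1''.trans hz2'
  have hxd : InK S'.e S'.c (dbl3 S'.w) z x := fun i => (hx i).trans (by
    change _ ≤ 2 * S'.w i
    have := P2.pos i
    linarith)
  have hTd : InK S'.e S'.c (dbl3 S'.w) z (T.pos z) := fun i => ((hT' z hzc hzd).1 i).trans (by
    change _ ≤ 2 * S'.w i
    have := P2.pos i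
    linarith)
  have hp := (P2.path hzc hzd hTd hxd).2
  have hTq := (hT' z hzc hzd).2
  have k1 : S'.w 0 / S'.w 1 * |dt (S'.e 1) (x - T.pos z)| ≤ b := by
    refine le_trans ?_ hBs
    have h3 : |dt (S'.e 1) (x - T.pos z)| ≤ s * B * S'.w 1 := by
      refine h1.trans ?_
      calc s / lam * S.w 1 ≤ s * (B * S'.w 1) :=
            mul_le_mul (div_le_self hs hlam) (hC.w 1 (by decide)).1 hw1p.le hs
        _ = _ := by ring
    calc S'.w 0 / S'.w 1 * |dt (S'.e 1) (x - T.pos z)| ≤ S'.w 0 / S'.w 1 * (s * B * S'.w 1) := by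
          gcongr
      _ = _ := by field_simp
  have k2 : S'.w 0 / S'.w 2 * |dt (S'.e 2) (x - T.pos z)| ≤ b := by
    refine le_trans ?_ hBs
    have h3 : |dt (S'.e 2) (x - T.pos z)| ≤ s * B * S'.w 2 := by
      refine h2.trans ?_
      calc s * S.w 2 ≤ s * (B * S'.w 2) := mul_le_mul_of_nonneg_left (hC.w 2 (by decide)).1 hs
        _ = _ := by ring
    calc S'.w 0 / S'.w 2 * |dt (S'.e 2) (x - T.pos z)| ≤ S'.w 0 / S'.w 2 * (s * B * S'.w 2) := by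
          gcongr
      _ = _ := by field_simp
  have k3 : |S'.q z x - S'.q z (T.pos z)| ≤ 2 * S'.a := (Arc880.abs_sub2 hq hTq).trans (by linarith)
  have k0 : |dt (S'.e 0) (x - T.pos z)| ≤ 8 * b := by
    rw [hb] at k1 k2 ⊢
    linarith
  have hoff : ∀ k, k ≠ 1 → |dt (S.e k) (x - T.pos z)| ≤ 10 * b := by
    intro k hk
    rw [dt_exp hS'.ortho (S.e k) (x - T.pos z)]
    have h3 : |dt (S.e k) (S'.e 1)| * |dt (S'.e 1) (x - T.pos z)| ≤ b := by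
      calc |dt (S.e k) (S'.e 1)| * |dt (S'.e 1) (x - T.pos z)| ≤
            |dt (S.e k) (S'.e 1)| * (s / lam * S.w 1) := by gcongr
        _ = s / lam * (|dt (S.e k) (S'.e 1)| * S.w 1) := by ring
        _ ≤ s / lam * (lam * S.w 2) :=
            mul_le_mul_of_nonneg_left (hC.g' k hk) (div_nonneg hs hlam0.le)
        _ = s * S.w 2 := by field_simp
        _ ≤ b := hsw2
    rw [← abs_mul] at h3
    refine (Arc880.abs_add2 (Arc880.abs_add2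
      (mul_abs_le (dt_le_one hS.ortho hS'.ortho k 0) k0) h3)
      (mul_abs_le (dt_le_one hS.ortho hS'.ortho k 2) (h2.trans hsw2))).trans ?_
    linarith
  have hoff1 : |dt (S.e 1) (x - T.pos z)| ≤ 9 * b + s * S.w 1 := by
    rw [dt_exp hS'.ortho (S.e 1) (x - T.pos z)]
    have h3 : |dt (S'.e 1) (x - T.pos z)| ≤ s * S.w 1 :=
      h1.trans (mul_le_mul_of_nonneg_right (div_le_self hs hlam) hw1p.le)
    refine (Arc880.abs_add2 (Arc880.abs_add2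
      (mul_abs_le (dt_le_one hS.ortho hS'.ortho 1 0) k0)
      (mul_abs_le (dt_le_one hS.ortho hS'.ortho 1 1) h3))
      (mul_abs_le (dt_le_one hS.ortho hS'.ortho 1 2) (h2.trans hsw2))).trans ?_
    linarith
  have o0 := hoff 0 (by decide)
  have o2 := hoff 2 (by decide)
  have hw02 : S.w 0 ≤ S.w 2 := hS.w0_le
  have hw01 : S.w 0 ≤ S.w 1 := hS.w0_le.trans hS.w_le
  have hsw1 : s * S.w 1 ≤ 1 / 2 * S.w 1 := mul_le_mul_of_nonneg_right hs1 hw1p.le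
  have hxD : InK S.e S.c (dbl3 S.w) z x := by
    intro k
    have e1 : dt (S.e k) (x - S.c.pos z) = dt (S.e k) (x - T.pos z) +
        dt (S.e k) (T.pos z - S.c.pos z) := by
      rw [dt_sub, dt_sub, dt_sub]; ring
    rw [e1]
    refine (abs_add_le _ _).trans ?_
    have k4 := (hT z hza hzb).1 k
    change _ ≤ 2 * S.w k
    fin_cases k
    · change |dt (S.e 0) (x - T.pos z)| + |dt (S.e 0) (T.pos z - S.c.pos z)| ≤ 2 * S.w 0
      change |dt (S.e 0) (T.pos z - S.c.pos z)| ≤ S.w 0 at k4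
      linarith
    · change |dt (S.e 1) (x - T.pos z)| + |dt (S.e 1) (T.pos z - S.c.pos z)| ≤ 2 * S.w 1
      change |dt (S.e 1) (T.pos z - S.c.pos z)| ≤ S.w 1 at k4
      linarith
    · change |dt (S.e 2) (x - T.pos z)| + |dt (S.e 2) (T.pos z - S.c.pos z)| ≤ 2 * S.w 2
      change |dt (S.e 2) (T.pos z - S.c.pos z)| ≤ S.w 2 at k4
      linarith
  have hTD : InK S.e S.c (dbl3 S.w) z (T.pos z) := fun i => ((hT z hza hzb).1 i).trans (by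
    change _ ≤ 2 * S.w i
    have := P1.pos i
    linarith)
  have hv := (P1.path hza hzb hTD hxD).1
  have hTa := (hT z hza hzb).2
  have r1 : S.w 0 / S.w 1 * |dt (S.e 1) (x - T.pos z)| ≤ 9 * b + s * S.w 0 := by
    have h3 : S.w 0 / S.w 1 ≤ 1 := by rw [div_le_one hw1p]; exact hw01
    calc S.w 0 / S.w 1 * |dt (S.e 1) (x - T.pos z)| ≤ S.w 0 / S.w 1 * (9 * b + s * S.w 1) := by
          gcongr
      _ = S.w 0 / S.w 1 * (9 * b) + s * S.w 0 := by field_simp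
      _ ≤ 1 * (9 * b) + s * S.w 0 := by gcongr
      _ = _ := by ring
  have r2 : S.w 0 / S.w 2 * |dt (S.e 2) (x - T.pos z)| ≤ 1 * (10 * b) := by
    apply mul_le_mul _ o2 (abs_nonneg _) zero_le_one
    rw [div_le_one hw2p]; exact hw02
  have r3 : s * S.w 0 ≤ b := (mul_le_mul_of_nonneg_left hw02 hs).trans hsw2
  refine ⟨by linarith, ?_⟩
  have h5 : |S.q z x| ≤ |S.q z (T.pos z)| + |S.q z x - S.q z (T.pos z)| := by
    have := abs_add_le (S.q z (T.pos z)) (S.q z x - S.q z (T.pos z))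
    rwa [add_sub_cancel] at this
  have h6 : S.a ≤ b := by rw [hb]; linarith
  linarith

/-! ### capture -/

/-- **case (i)**: the capture hypothesis from a base tilt -/
theorem hcap_tilt {S S' : Plk4} {T : Ln4} {z0 ρ z1 ρ1 z2 ρ2 r B lam θ τ m1 m2 : ℝ} {N : ℕ}
    (hN : 1 ≤ N) (hr : 0 < r) (hρ : 0 ≤ ρ) (hz1 : z1 ≤ z0) (hz1' : z0 + ρ ≤ z1 + ρ1)
    (hz2 : z2 ≤ z0) (hz2' : z0 + ρ ≤ z2 + ρ2) (hB : 1 ≤ B) (hS : Shp S z1 ρ1 r)
    (hS' : Shp S' z2 ρ2 r) (hw2 : S'.w 2 ≤ B * S.w 2) (hlam : 0 < lam)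
    (hang : lam * S.w 2 ≤ 2 * (angC S S' * S.w 1)) (hτ : 48 * B ≤ lam * τ)
    (hT : InP T S z1 ρ1) (hT' : InP T S' z2 ρ2) :
    ∃ c : Fin 2 → ℝ, ∀ ζ, z0 ≤ ζ → ζ ≤ z0 + ρ → (∀ i, θ * ρ ≤ |ζ - c i|) →
      ∃ V : Fin N → V3, ∀ t : Ln4, InP t S z1 ρ1 → InP t S' z2 ρ2 →
        |dt (S.e 1) (t.pos ζ - T.pos ζ)| ≤ m1 → |dt (S.e 2) (t.pos ζ - T.pos ζ)| ≤ m2 →
          ∃ l, |dt (S.e 1) (t.v - V l)| * ρ ≤ τ * S.w 1 ∧
            |dt (S.e 2) (t.v - V l)| * ρ ≤ lam * τ * S.w 2 := by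
  refine ⟨fun _ => 0, fun ζ _ _ _ => ⟨fun _ => T.v, fun t ht ht' _ _ => ⟨⟨0, hN⟩, ?_⟩⟩⟩
  have hw0 : 0 < S.w 0 := hr.trans_le (hS.r0_le.trans hS.a_le0)
  have hw2p : 0 < S.w 2 := hw0.trans_le hS.w0_le
  have hw1p : 0 < S.w 1 := hw2p.trans_le hS.w_le
  obtain ⟨k1, k2⟩ := base_tilt hr hρ hB hS hS' hw2 hlam hang (inSheet_mono hT hz1 hz1')
    (inSheet_mono hT' hz2 hz2') (inSheet_mono ht hz1 hz1') (inSheet_mono ht' hz2 hz2')
  refine ⟨k1.trans ?_, k2.trans ?_⟩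
  · apply mul_le_mul_of_nonneg_right _ hw1p.le
    rw [div_le_iff₀ hlam]; linarith
  · apply mul_le_mul_of_nonneg_right _ hw2p.le
    linarith

/-- **case (ii)**: the capture hypothesis from the curvature of the base sheet -/
theorem hcap_curv : ∃ C1 : ℝ, 1 ≤ C1 ∧ ∃ N : ℕ, 1 ≤ N ∧
    ∀ (θ lam A E s s' : ℝ) (S S' : Plk4) (T : Ln4) (z0 ρ z1 ρ1 z2 ρ2 r : ℝ),
    0 < θ → C1 * θ ≤ 1 → 1 ≤ lam → lam * θ ≤ 1 → 0 < r → 0 < ρ →
    z1 ≤ z0 → z0 + ρ ≤ z1 + ρ1 → θ * ρ1 ≤ ρ → z2 ≤ z0 → z0 + ρ ≤ z2 + ρ2 → θ * ρ2 ≤ ρ →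
    Shp S z1 ρ1 r → Shp S' z2 ρ2 r → CompC θ⁻¹ lam S S' → InP T S z1 ρ1 → InP T S' z2 ρ2 →
    θ ^ (-C1) * (S.a + S'.a) ≤ kapP S z1 ρ1 T → DetP θ S z1 ρ1 T → C1 * (S.a + S'.a) ≤ A →
    s ≤ θ ^ C1 → s' ≤ θ ^ C1 → θ ^ (-C1) * (S.a + S'.a) ≤ E →
    ¬ AgreeQ A E s' lam S S' T z0 ρ →
    ∃ c : Fin 2 → ℝ, ∀ ζ, z0 ≤ ζ → ζ ≤ z0 + ρ → (∀ i, θ * ρ ≤ |ζ - c i|) →
      ∃ V : Fin N → V3, ∀ t : Ln4, InP t S z1 ρ1 → InP t S' z2 ρ2 →
        |dt (S.e 1) (t.pos ζ - T.pos ζ)| ≤ s * S.w 1 →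
        |dt (S.e 2) (t.pos ζ - T.pos ζ)| ≤ s * S.w 2 →
          ∃ l, |dt (S.e 1) (t.v - V l)| * ρ ≤ θ * S.w 1 ∧
            |dt (S.e 2) (t.v - V l)| * ρ ≤ lam * θ * S.w 2 := by
  obtain ⟨C1, h1, N, hN, h⟩ := capP
  refine ⟨C1, h1, N, hN, ?_⟩
  intro θ lam A E s s' S S' T z0 ρ z1 ρ1 z2 ρ2 r hθ g2 g3 g4 hr hρ g7 g8 g9 g10 g11 g12 hS hS' g15
    g16 g17 g18 g19 g20 hs hs' hE hnot
  have hw0 : 0 < S.w 0 := hr.trans_le (hS.r0_le.trans hS.a_le0)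
  have P := StP.of_shN hS hw0
  obtain ⟨c, hc⟩ := h θ lam A S S' T z0 ρ z1 ρ1 z2 ρ2 r hθ g2 g3 g4 hr hρ g7 g8 g9 g10 g11 g12 hS
    hS' g15 g16 g17 g18 g19 g20 fun hA => hnot
      (agreeQ_mono hA.toQ le_rfl hE hs' (by linarith) fun k => (P.pos k).le)
  refine ⟨c, fun ζ a b d => ?_⟩
  obtain ⟨V, hV⟩ := hc ζ a b d
  refine ⟨V, fun t ht ht' k1 k2 => ?_⟩
  obtain ⟨l, l1, l2⟩ := hV t ht ht'
    (k1.trans (mul_le_mul_of_nonneg_right hs (P.pos 1).le))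
    (k2.trans (mul_le_mul_of_nonneg_right hs (P.pos 2).le))
  refine ⟨l, l1, l2.trans ?_⟩
  apply mul_le_mul_of_nonneg_right _ (P.pos 2).le
  exact le_mul_of_one_le_left hθ.le g3

/-- **case (ii)**, with `Agree` -/
theorem hcap_curv' : ∃ C1 : ℝ, 1 ≤ C1 ∧ ∃ N : ℕ, 1 ≤ N ∧
    ∀ (θ lam A E s s' : ℝ) (S S' : Plk4) (T : Ln4) (z0 ρ z1 ρ1 z2 ρ2 r : ℝ),
    0 < θ → C1 * θ ≤ 1 → 1 ≤ lam → lam * θ ≤ 1 → 0 < r → 0 < ρ →
    z1 ≤ z0 → z0 + ρ ≤ z1 + ρ1 → θ * ρ1 ≤ ρ → z2 ≤ z0 → z0 + ρ ≤ z2 + ρ2 → θ * ρ2 ≤ ρ →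
    Shp S z1 ρ1 r → Shp S' z2 ρ2 r → CompC θ⁻¹ lam S S' → InP T S z1 ρ1 → InP T S' z2 ρ2 →
    θ ^ (-C1) * (S.a + S'.a) ≤ kapP S z1 ρ1 T → DetP θ S z1 ρ1 T → C1 * (S.a + S'.a) ≤ A →
    s ≤ θ ^ C1 → s' ≤ θ ^ C1 → θ ^ (-C1) * (S.a + S'.a) ≤ E →
    ¬ Agree A E s' lam S S' T z0 ρ →
    ∃ c : Fin 2 → ℝ, ∀ ζ, z0 ≤ ζ → ζ ≤ z0 + ρ → (∀ i, θ * ρ ≤ |ζ - c i|) →
      ∃ V : Fin N → V3, ∀ t : Ln4, InP t S z1 ρ1 → InP t S' z2 ρ2 →
        |dt (S.e 1) (t.pos ζ - T.pos ζ)| ≤ s * S.w 1 →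
        |dt (S.e 2) (t.pos ζ - T.pos ζ)| ≤ s * S.w 2 →
          ∃ l, |dt (S.e 1) (t.v - V l)| * ρ ≤ θ * S.w 1 ∧
            |dt (S.e 2) (t.v - V l)| * ρ ≤ lam * θ * S.w 2 := by
  obtain ⟨C1, h1, N, hN, h⟩ := hcap_curv
  refine ⟨C1, h1, N, hN, ?_⟩
  intro θ lam A E s s' S S' T z0 ρ z1 ρ1 z2 ρ2 r g1 g2 g3 g4 g5 g6 g7 g8 g9 g10 g11 g12 g13 g14 g15
    g16 g17 g18 g19 g20 g21 g22 g23 g24
  exact h θ lam A E s s' S S' T z0 ρ z1 ρ1 z2 ρ2 r g1 g2 g3 g4 g5 g6 g7 g8 g9 g10 g11 g12 g13 g14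
    g15 g16 g17 g18 g19 g20 g21 g22 g23 fun hA => g24 hA.toAgree

/-! ### the conclusion -/

/-- **the conclusion from agreement** at a scale -/
theorem tiltOK_of {D : Dat4} {n : ℕ} {x : ℕ × ℝ} {b c u v : ℚ} {A B E E' s lam : ℝ} (huv : u < v)
    (hbc : (b = v ∧ c = u) ∨ (b = u ∧ c = v))
    (h : Agree A E' s lam (mk4 D n b x) (mk4 D n c x) (D.L n x.1) (zx D n (max b c) x)
      (rh D n (max b c)))
    (hC : CompC B lam (mk4 D n b x) (mk4 D n c x))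
    (hE' : E' ≤ E * max (D.w 0 n u) (D.w 0 n v)) (h1 : (mk4 D n b x).w 1 = D.w 1 n b)
    (h2 : (mk4 D n b x).w 2 = D.w 2 n b) (hw1 : 0 < D.w 1 n b) (hw2 : 0 ≤ D.w 2 n b)
    (hE : 0 ≤ E) (hlam : lam ≤ E) : TiltOKC D E u v n x := by
  have hm : max b c = v := by
    rcases hbc with ⟨rfl, rfl⟩ | ⟨rfl, rfl⟩
    · exact max_eq_left huv.le
    · exact max_eq_right huv.le
  rw [hm] at h
  have g : ∀ i, i ≠ 1 → |dt ((mk4 D n b x).e 1) ((mk4 D n c x).e i)| ≤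
      E * (D.w 2 n b / D.w 1 n b) := by
    intro i hi
    have := hC.g i hi
    rw [h1, h2] at this
    rw [← mul_div_assoc, le_div_iff₀ hw1]
    exact this.trans (mul_le_mul_of_nonneg_right hlam hw2)
  have g' : ∀ i, i ≠ 1 → |dt ((mk4 D n b x).e i) ((mk4 D n c x).e 1)| ≤
      E * (D.w 2 n b / D.w 1 n b) := by
    intro i hi
    have := hC.g' i hi
    rw [h1, h2] at this
    rw [← mul_div_assoc, le_div_iff₀ hw1]
    exact this.trans (mul_le_mul_of_nonneg_right hlam hw2)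
  rcases hbc with ⟨rfl, rfl⟩ | ⟨rfl, rfl⟩
  · have hle : E * (D.w 2 n b / D.w 1 n b) ≤
        E * max (D.w 2 n c / D.w 1 n c) (D.w 2 n b / D.w 1 n b) :=
      mul_le_mul_of_nonneg_left (le_max_right _ _) hE
    exact
      { close := fun z a1 a2 y hy hq => (h.close z a1 a2 y hy hq).trans hE'
        close' := fun z a1 a2 y hy hq => (h.close' z a1 a2 y hy hq).trans hE'
        ang := fun i hi => ⟨(g i hi).trans hle, (g' i hi).trans hle⟩ }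
  · have hle : E * (D.w 2 n b / D.w 1 n b) ≤
        E * max (D.w 2 n b / D.w 1 n b) (D.w 2 n c / D.w 1 n c) :=
      mul_le_mul_of_nonneg_left (le_max_left _ _) hE
    refine
      { close := fun z a1 a2 y hy hq => (h.close' z a1 a2 y hy hq).trans hE'
        close' := fun z a1 a2 y hy hq => (h.close z a1 a2 y hy hq).trans hE'
        ang := fun i hi => ⟨?_, ?_⟩ }
    · rw [dt_comm]; exact (g' i hi).trans hle
    · rw [dt_comm]; exact (g i hi).trans hle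

/-- the angles bound the base tilt from the other side: `¬ TiltOKC` because of the angles means a
large base tilt, otherwise the closeness fails -/
theorem not_tiltOK {D : Dat4} {n : ℕ} {x : ℕ × ℝ} {b c u v : ℚ} {A B E E' s lam : ℝ} (huv : u < v)
    (hbc : (b = v ∧ c = u) ∨ (b = u ∧ c = v)) (hC : CompC B lam (mk4 D n b x) (mk4 D n c x))
    (hE' : E' ≤ E * max (D.w 0 n u) (D.w 0 n v)) (h1 : (mk4 D n b x).w 1 = D.w 1 n b)
    (h2 : (mk4 D n b x).w 2 = D.w 2 n b) (hw1 : 0 < D.w 1 n b) (hw2 : 0 ≤ D.w 2 n b)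
    (hE : 0 ≤ E) (hnot : ¬ TiltOKC D E u v n x) :
    E < lam ∨ ¬ Agree A E' s lam (mk4 D n b x) (mk4 D n c x) (D.L n x.1) (zx D n (max b c) x)
      (rh D n (max b c)) := by
  by_contra hcon
  push Not at hcon
  exact hnot (tiltOK_of huv hbc hcon.2 hC hE' h1 h2 hw1 hw2 hE hcon.1)

end Crest.Agent.R136.Tl102
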