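import Crest.Agent.R136.Pl2C_860
import Crest.Agent.R136.Alo_877
import Crest.Agent.R136.Asm3_102

/-!
# R136, PLAN 2 (AL), final interfaces of 860 (helper877)

`two7_sub`, `two7_prune`, `refine7` for `Pl2.Two7`; `Al1.mono`; `UBalA` (mixed curvatures), `Bal`,
`AlCore` (balanced curvatures, closeness both ways), `CloseBack` (closeness in the other direction),
`alr_of : UBalA → CloseBack → AlCore → ALR Al1`.
-/

set_option autoImplicit false
set_option linter.unusedVariables false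

open Finset

namespace Crest.Agent.R136.Alr877

open Crest.Agent.R136.Sh605 Crest.Agent.R136.Pl2 Crest.Agent.R136.Fl808
open Crest.Agent.R136.K4 (Plk4)
open Crest.Agent.R136.Tlt51 (Shp InP)
open Crest.Agent.R136.Deep51 (CloseC)
open Crest.Agent.R136.Tl102 (angC StP exists_isExp)
open Crest.Agent.R136.KapP335 (kapP kapP_eq DetP)
open Crest.Agent.R136.Rf877 (Tub refine2)
open Crest.Agent.R136.Pl2W102 (Near Ex2 Two1)
open Crest.Agent.R136.Al877 (TypA AlH closeC_mono ex2_mono two_sub two_prune pow8_le)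

section
variable {qm qp : Fin 3 → ℝ} {L : ℕ → Ln4} {P : Finset ℕ} {cu cv : ℕ → ℕ} {Uf Vf : ℕ → Plk4}
  {W M a w1 w2 z0 ρ zL ρL r : ℝ}

open Classical in
/-- `Two7` passes to subfamilies which are full -/
theorem two7_sub (h : Two7 qm qp L P cu cv Uf Vf W M a w1 w2 z0 ρ zL ρL r) {P' : Finset ℕ}
    (hP : P' ⊆ P) {W' : ℝ} (hW : W ≤ W')
    (fu : ∀ t ∈ P', M ≤ W' * ((P'.filter fun s => cu s = cu t).card : ℝ))
    (fv : ∀ t ∈ P', M ≤ W' * ((P'.filter fun s => cv s = cv t).card : ℝ)) :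
    Two7 qm qp L P' cu cv Uf Vf W' M a w1 w2 z0 ρ zL ρL r where
  to1 := two_sub h.to1 hP hW fu fv
  rρ := h.rρ
  lo := h.lo
  hi := h.hi
  long := h.long
  short := h.short
  shU := fun t ht => h.shU t (hP ht)
  shV := fun t ht => h.shV t (hP ht)
  inU := fun t ht => h.inU t (hP ht)
  inV := fun t ht => h.inV t (hP ht)

/-- `Two7` is monotone in the deficit -/
theorem two7_mono (h : Two7 qm qp L P cu cv Uf Vf W M a w1 w2 z0 ρ zL ρL r) {W' : ℝ}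
    (hW : W ≤ W') : Two7 qm qp L P cu cv Uf Vf W' M a w1 w2 z0 ρ zL ρL r := by
  classical
  refine two7_sub h subset_rfl hW (fun t ht => ?_) (fun t ht => ?_)
  · refine (h.to1.fullU t ht).trans ?_
    exact mul_le_mul_of_nonneg_right hW (Nat.cast_nonneg _)
  · refine (h.to1.fullV t ht).trans ?_
    exact mul_le_mul_of_nonneg_right hW (Nat.cast_nonneg _)

/-- pruning of a subfamily of proportion `1 / Lo` -/
theorem two7_prune (h : Two7 qm qp L P cu cv Uf Vf W M a w1 w2 z0 ρ zL ρL r) {Q : Finset ℕ}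
    (hQ : Q ⊆ P) (hne : Q.Nonempty) {Lo : ℝ} (hLo : 1 ≤ Lo)
    (hc : (P.card : ℝ) ≤ Lo * (Q.card : ℝ)) :
    ∃ P' ⊆ Q, P'.Nonempty ∧ (Q.card : ℝ) ≤ 2 * (P'.card : ℝ) ∧
      Two7 qm qp L P' cu cv Uf Vf (4 * Lo * W) M a w1 w2 z0 ρ zL ρL r := by
  obtain ⟨P', h1, h2, h3, h4⟩ := two_prune h.to1 hQ hne hLo hc
  have hP : P' ⊆ P := h1.trans hQ
  exact ⟨P', h1, h2, h3,
    { to1 := h4
      rρ := h.rρ
      lo := h.lo
      hi := h.hi
      long := h.long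
      short := h.short
      shU := fun t ht => h.shU t (hP ht)
      shV := fun t ht => h.shV t (hP ht)
      inU := fun t ht => h.inU t (hP ht)
      inV := fun t ht => h.inV t (hP ht) }⟩

/-- **refinement of `Two7` by tubes** (over the short cell) -/
theorem refine7 (hq : ∀ k, 0 ≤ qm k ∧ qm k ≤ qp k)
    (h : Two7 qm qp L P cu cv Uf Vf W M a w1 w2 z0 ρ zL ρL r) (m : ℕ) (hm : 1 ≤ m) :
    ∃ P' ⊆ P, (P.card : ℝ) ≤ 2 * (P'.card : ℝ) ∧ ∃ du dv : ℕ → ℕ,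
      (∀ t, (Nat.unpair (du t)).1 = cu t) ∧ (∀ t, (Nat.unpair (dv t)).1 = cv t) ∧
      Two7 qm qp L P' du dv (fun k => Uf (Nat.unpair k).1) (fun k => Vf (Nat.unpair k).1)
        (4 * (3 * (m : ℝ)) ^ 4 * W) M a w1 w2 z0 ρ zL ρL r ∧
      (∀ s ∈ P, ∀ t ∈ P, du s = du t → cu s = cu t ∧ Tub (Uf (cu t)) (1 / m) (L s) (L t) z0 ρ) ∧
      (∀ s ∈ P, ∀ t ∈ P, dv s = dv t → cv s = cv t ∧
        Tub (Vf (cv t)) (1 / m) (L s) (L t) z0 ρ) := by
  obtain ⟨P', h1, h2, du, dv, hu, hv, h3, h4, h5⟩ := refine2 hq h.to1 m hm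
  exact ⟨P', h1, h2, du, dv, hu, hv,
    { to1 := h3
      rρ := h.rρ
      lo := h.lo
      hi := h.hi
      long := h.long
      short := h.short
      shU := fun t ht => by simpa only [hu] using h.shU t (h1 ht)
      shV := fun t ht => by simpa only [hv] using h.shV t (h1 ht)
      inU := fun t ht => by simpa only [hu] using h.inU t (h1 ht)
      inV := fun t ht => by simpa only [hv] using h.inV t (h1 ht) }, h4, h5⟩

end

theorem fh_mono {C C' Y : ℝ} {S : Plk4} {f : Fin 3 → V3} {z0 ρ : ℝ} (h : FH C Y S f z0 ρ)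
    (hC : C ≤ C') (hY : 0 ≤ Y) (h1 : 0 ≤ S.w 1) (h2 : 0 ≤ S.w 2) : FH C' Y S f z0 ρ where
  ortho := h.ortho
  e01 := h.e01.trans (mul_le_mul_of_nonneg_right hC h2)
  e10 := h.e10.trans (mul_le_mul_of_nonneg_right hC h2)
  e12 := h.e12.trans (mul_le_mul_of_nonneg_right hC h2)
  e21 := h.e21.trans (mul_le_mul_of_nonneg_right hC h2)
  e00 := h.e00.trans (mul_le_mul_of_nonneg_right hC (abs_nonneg _))
  box := fun t t' ht ht' z hz hz' i => by
    refine (h.box t t' ht ht' z hz hz' i).trans ?_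
    fin_cases i
    · exact mul_le_mul_of_nonneg_right hC hY
    · exact mul_le_mul_of_nonneg_right hC h1
    · exact mul_le_mul_of_nonneg_right hC h2
  pt := fun T hT z hz hz' x hx hq =>
    (h.pt T hT z hz hz' x hx hq).trans (mul_le_mul_of_nonneg_right hC hY)

theorem fl_mono {C C' Y : ℝ} {S : Plk4} {f : Fin 3 → V3} {z0 ρ : ℝ} (h : FL C Y S f z0 ρ)
    (hC : C ≤ C') (hC0 : 0 < C) (hY : 0 ≤ Y) : FL C' Y S f z0 ρ := by
  intro T hT
  obtain ⟨b0, h1, h2, h3⟩ := h T hT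
  have hb : 0 ≤ b0 := by
    by_contra hb
    push Not at hb
    have := mul_neg_of_pos_of_neg hC0 hb
    linarith
  refine ⟨b0, h1.trans (mul_le_mul_of_nonneg_right hC hb), h2.trans hC, ?_⟩
  intro m hm z hz hz' x k0 k1 k2
  refine (h3 m hm z hz hz' x k0 k1 k2).trans ?_
  have : C * m ^ 2 * Y = C * (m ^ 2 * Y) := by ring
  rw [this, show C' * m ^ 2 * Y = C' * (m ^ 2 * Y) by ring]
  exact mul_le_mul_of_nonneg_right hC (by positivity)

/-- the output of the base tilt theorem is monotone in `K` -/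
theorem al1_mono {K K' a w1 w2 z0 ρ : ℝ} {S S' : Plk4} {T : Ln4}
    (h : Al1 K S S' T a w1 w2 z0 ρ) (hK : K ≤ K') (hK0 : 0 < K) (hw2 : 0 ≤ w2)
    (hk : 0 ≤ kp S z0 ρ T) (s1 : 0 ≤ S.w 1) (s2 : 0 ≤ S.w 2) (s1' : 0 ≤ S'.w 1)
    (s2' : 0 ≤ S'.w 2) : Al1 K' S S' T a w1 w2 z0 ρ where
  ang := h.ang.trans (mul_le_mul_of_nonneg_right hK hw2)
  close := closeC_mono h.close (mul_le_mul_of_nonneg_right hK hk)
  fr := by
    obtain ⟨f, g, h1, h2, h3, h4, h5, h6, h7⟩ := h.fr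
    have := mul_le_mul_of_nonneg_right hK hk
    exact ⟨f, g, fh_mono h1 hK hk s1 s2, fl_mono h2 hK hK0 hk, fh_mono h3 hK hk s1' s2',
      h4.trans this, h5.trans this, h6.trans this, h7.trans this⟩

/-- **(A) mixed curvatures**, with `TypA` -/
def UBalA (R : Rel) : Prop := ∃ η : ℝ, 0 < η ∧ ∀ qm qp : Fin 3 → ℝ, Ex2 η qm qp →
  ∃ K0 C : ℝ, 0 ≤ K0 ∧ 0 ≤ C ∧
  ∀ (L : ℕ → Ln4) (P : Finset ℕ) (cu cv : ℕ → ℕ) (Uf Vf : ℕ → Plk4)
    (W M a w1 w2 z0 ρ zL ρL r : ℝ),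
    Two7 qm qp L P cu cv Uf Vf W M a w1 w2 z0 ρ zL ρL r → P.Nonempty →
    (∀ t ∈ P, TypA ((2 * W) ^ K0) W a (Uf (cu t)) (Vf (cv t)) (L t) z0 ρ) →
    (∀ t ∈ P, R W (Uf (cu t)) (Vf (cv t)) (L t) a w1 w2 z0 ρ) →
    ∃ t ∈ P, kp (Uf (cu t)) z0 ρ (L t) ≤ (2 * W) ^ C * max a (kp (Vf (cv t)) z0 ρ (L t))

/-- balanced, nondegenerate, aligned pair of sheets, close both ways up to the curvature extent
(helper500) -/
structure Bal (W : ℝ) (S S' : Plk4) (T : Ln4) (w1 w2 z0 ρ : ℝ) : Prop where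
  near : kp S' z0 ρ T ≤ W * kp S z0 ρ T
  near' : kp S z0 ρ T ≤ W * kp S' z0 ρ T
  det : DetP W⁻¹ S z0 ρ T
  det' : DetP W⁻¹ S' z0 ρ T
  ang : angC S S' * w1 ≤ W * w2
  cl : CloseC S.e S.w S.q S.a S'.q (W * kp S z0 ρ T) T z0 ρ
  cl' : CloseC S'.e S'.w S'.q S'.a S.q (W * kp S z0 ρ T) T z0 ρ
  fr : ∃ f g : Fin 3 → V3, FH W (kp S z0 ρ T) S f z0 ρ ∧ FL W (kp S z0 ρ T) S f z0 ρ ∧
    FH W (kp S z0 ρ T) S' g z0 ρ ∧ |dt (f 0) (g 1)| * w1 ≤ W * kp S z0 ρ T ∧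
    |dt (f 0) (g 2)| * w2 ≤ W * kp S z0 ρ T ∧ |dt (g 0) (f 1)| * w1 ≤ W * kp S z0 ρ T ∧
    |dt (g 0) (f 2)| * w2 ≤ W * kp S z0 ρ T

/-- **(B) balanced curvatures**, core (helper500) -/
def AlCore : Prop := ∃ η : ℝ, 0 < η ∧ ∀ qm qp : Fin 3 → ℝ, Ex2 η qm qp →
  ∃ K0 C : ℝ, 0 ≤ K0 ∧ 0 ≤ C ∧
  ∀ (L : ℕ → Ln4) (P : Finset ℕ) (cu cv : ℕ → ℕ) (Uf Vf : ℕ → Plk4)
    (W M a w1 w2 z0 ρ zL ρL r : ℝ),
    Two7 qm qp L P cu cv Uf Vf W M a w1 w2 z0 ρ zL ρL r → P.Nonempty →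
    (∀ t ∈ P, (2 * W) ^ K0 * a ≤ kp (Uf (cu t)) z0 ρ (L t) ∧
      Bal W (Uf (cu t)) (Vf (cv t)) (L t) w1 w2 z0 ρ) →
    ∃ t ∈ P,
      CloseC (Uf (cu t)).e (Uf (cu t)).w (Uf (cu t)).q (Uf (cu t)).a (Vf (cv t)).q
        ((2 * W) ^ C * a) (L t) z0 ρ ∧
      CloseC (Vf (cv t)).e (Vf (cv t)).w (Vf (cv t)).q (Vf (cv t)).a (Uf (cu t)).q
        ((2 * W) ^ C * a) (L t) z0 ρ

/-- **closeness in the other direction** (`S` = the more curved sheet; helper208's literal) -/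
def CloseBack : Prop := ∃ C : ℝ, 0 ≤ C ∧ ∀ (K a w1 w2 z0 ρ r : ℝ) (S S' : Plk4) (T : Ln4),
  1 ≤ K → 0 < r → 0 < ρ → Shp S z0 ρ r → Shp S' z0 ρ r → InP T S z0 ρ → InP T S' z0 ρ →
  Near K w1 (S.w 1) → Near K w2 (S.w 2) → Near K w1 (S'.w 1) → Near K w2 (S'.w 2) →
  10 ^ 5 * K * S'.a ≤ kp S z0 ρ T → kp S' z0 ρ T ≤ K * kp S z0 ρ T →
  kp S z0 ρ T ≤ K * kp S' z0 ρ T → Al1 K S S' T a w1 w2 z0 ρ →
  CloseC S.e S.w S.q S.a S'.q ((2 * K) ^ C * kp S z0 ρ T) T z0 ρ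

theorem kapP_le {S : Plk4} {T : Ln4} {z0 ρ r : ℝ} (hr : 0 < r) (hρ : 0 ≤ ρ) (hS : Shp S z0 ρ r)
    (hT : InP T S z0 ρ) : kapP S z0 ρ T ≤ 13 * S.w 0 := by
  have hw0 : 0 < S.w 0 := hr.trans_le (hS.r0_le.trans hS.a_le0)
  have P := StP.of_shN hS hw0
  obtain ⟨b0, b1, G, hE⟩ := exists_isExp P.isQ S.e hw0.ne' T z0 ρ
  have N := hE.nrmC P hρ (fun z h1 h2 => (hT z h1 h2).1)
  rw [kapP_eq hw0.ne' hE]
  have := Tl102.kap_le N
  nlinarith

/-- one power of `2 W` beats small constants -/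
theorem pw_add {W x y : ℝ} (hW : 1 ≤ W) : (2 * W) ^ (x + y) = (2 * W) ^ x * (2 * W) ^ y :=
  Real.rpow_add (by linarith) x y

theorem pw_nat {W : ℝ} (n : ℕ) : (2 * W) ^ (n : ℝ) = (2 * W) ^ n := Real.rpow_natCast _ _

theorem pw_one_le {W x : ℝ} (hW : 1 ≤ W) (hx : 0 ≤ x) : 1 ≤ (2 * W) ^ x :=
  Real.one_le_rpow (by linarith) hx

theorem pw_le {W x y : ℝ} (hW : 1 ≤ W) (h : x ≤ y) : (2 * W) ^ x ≤ (2 * W) ^ y :=
  Real.rpow_le_rpow_of_exponent_le (by linarith) h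

/-- facts of the core at one line -/
theorem bal_of {Cc : ℝ} (hCc : 0 ≤ Cc)
    (hC : ∀ (K a w1 w2 z0 ρ r : ℝ) (S S' : Plk4) (T : Ln4),
      1 ≤ K → 0 < r → 0 < ρ → Shp S z0 ρ r → Shp S' z0 ρ r → InP T S z0 ρ → InP T S' z0 ρ →
      Near K w1 (S.w 1) → Near K w2 (S.w 2) → Near K w1 (S'.w 1) → Near K w2 (S'.w 2) →
      10 ^ 5 * K * S'.a ≤ kp S z0 ρ T → kp S' z0 ρ T ≤ K * kp S z0 ρ T →
      kp S z0 ρ T ≤ K * kp S' z0 ρ T → Al1 K S S' T a w1 w2 z0 ρ →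
      CloseC S.e S.w S.q S.a S'.q ((2 * K) ^ Cc * kp S z0 ρ T) T z0 ρ)
    {A N X : ℝ} (hA : 0 ≤ A) (hN : (A + 2) * Cc + A + 12 ≤ N) (hX : A + 20 ≤ X)
    {W a w1 w2 z0 ρ r : ℝ} {S S' : Plk4} {T : Ln4} (W1 : 1 ≤ W) (a0 : 0 < a) (r0 : 0 < r)
    (ρ0 : 0 < ρ) (w10 : 0 < w1) (w20 : 0 < w2) (sh : Shp S z0 ρ r) (sh' : Shp S' z0 ρ r)
    (hi : InP T S z0 ρ) (hi' : InP T S' z0 ρ)
    (d : Near W a S.a ∧ Near W w1 (S.w 1) ∧ Near W w2 (S.w 2))
    (d' : Near W a S'.a ∧ Near W w1 (S'.w 1) ∧ Near W w2 (S'.w 2))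
    (hT : TypA ((2 * W) ^ X) W a S S' T z0 ρ) (hH : Al1 W S S' T a w1 w2 z0 ρ)
    (hG : kp S z0 ρ T ≤ (2 * W) ^ A * max a (kp S' z0 ρ T)) :
    Bal ((2 * W) ^ N / 2) S S' T w1 w2 z0 ρ := by
  have W0 : 0 < W := by linarith
  have b1 : (1:ℝ) ≤ 2 * W := by linarith
  obtain ⟨nU0, nU1, nU2⟩ := d
  obtain ⟨nV0, nV1, nV2⟩ := d'
  have posS : ∀ {S : Plk4}, Shp S z0 ρ r → 0 ≤ S.w 1 ∧ 0 ≤ S.w 2 := by
    intro S hS
    have a0 : 0 < S.a := r0.trans_le hS.r0_le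
    have w0 : 0 < S.w 0 := a0.trans_le hS.a_le0
    have w2 : 0 < S.w 2 := w0.trans_le hS.w0_le
    exact ⟨(w2.trans_le hS.w_le).le, w2.le⟩
  obtain ⟨u1, u2⟩ := posS sh
  obtain ⟨v1, v2⟩ := posS sh'
  have hpC : 0 < (2 * W) ^ A := Real.rpow_pos_of_pos (by linarith) _
  set k : ℝ := kp S z0 ρ T with hk
  set k' : ℝ := kp S' z0 ρ T with hk'
  have hbig : (2 * W) ^ X * a ≤ k := hT.big
  have hle : k' ≤ k := hT.le
  have hlow : ∀ x : ℝ, x ≤ X → (2 * W) ^ x * a ≤ k := fun x hx =>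
    (mul_le_mul_of_nonneg_right (pw_le W1 hx) a0.le).trans hbig
  have hk0 : 0 ≤ k := (mul_nonneg (Real.rpow_nonneg (by linarith) _) a0.le).trans hbig
  -- `(2 W)^(A + 19) a ≤ k`
  have h19 : (2 * W) ^ A * ((2 * W) ^ (19:ℕ) * a) ≤ k := by
    have h1 := hlow (A + ((19:ℕ):ℝ)) (by push_cast; linarith)
    rw [pw_add W1, pw_nat] at h1
    calc _ = (2 * W) ^ A * (2 * W) ^ 19 * a := by ring
      _ ≤ _ := h1
  have p19 : (2:ℝ) ^ 18 * (2 * W ^ 2) ≤ (2 * W) ^ (19:ℕ) := by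
    have e : (2 * W) ^ 19 = 2 ^ 18 * (2 * W ^ 2) * W ^ 17 := by ring
    rw [e]
    exact le_mul_of_one_le_right (by positivity) (one_le_pow₀ W1)
  have hWW : W ≤ W ^ 2 := by nlinarith
  have hWa : 0 < W * a := by positivity
  have h19' : (2 * W) ^ A * ((2:ℝ) ^ 18 * (2 * W ^ 2) * a) ≤ k :=
    (mul_le_mul_of_nonneg_left (mul_le_mul_of_nonneg_right p19 a0.le) hpC.le).trans h19
  have hA1 : 1 ≤ (2 * W) ^ A := pw_one_le W1 hA
  have hW2a : W * a ≤ W ^ 2 * a := mul_le_mul_of_nonneg_right hWW a0.le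
  -- the curvature extents are comparable
  have hkV : k ≤ (2 * W) ^ A * k' := by
    rcases le_total a k' with h1 | h1
    · rwa [max_eq_right h1] at hG
    · rw [max_eq_left h1] at hG
      exfalso
      have h4 : (2 * W) ^ A * (2 * a) ≤ (2 * W) ^ A * ((2:ℝ) ^ 18 * (2 * W ^ 2) * a) := by
        refine mul_le_mul_of_nonneg_left ?_ hpC.le
        have : 1 * a ≤ W ^ 2 * a := mul_le_mul_of_nonneg_right (one_le_pow₀ W1) a0.le
        nlinarith
      have h5 : 0 < (2 * W) ^ A * a := by positivity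
      nlinarith
  have hkV0 : 0 ≤ k' := by
    by_contra hneg
    push Not at hneg
    have := mul_neg_of_pos_of_neg hpC hneg
    linarith
  -- thresholds of nondegeneracy
  have dV : W * a ≤ k' := by
    have h2 : (2 * W) ^ A * (W * a) ≤ (2 * W) ^ A * k' := by
      refine le_trans ?_ (h19'.trans hkV)
      exact mul_le_mul_of_nonneg_left (by nlinarith) hpC.le
    exact le_of_mul_le_mul_left h2 hpC
  have dU : W * a ≤ k := dV.trans hle
  -- the constant of the closeness in the other direction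
  set K : ℝ := (2 * W) ^ (A + 1) with hK
  have eK : K = (2 * W) ^ A * (2 * W) := by rw [hK, pw_add W1, Real.rpow_one]
  have hWK : W ≤ K := by
    rw [eK]
    nlinarith
  have hAK : (2 * W) ^ A ≤ K := by
    rw [eK]
    nlinarith
  have hK1 : 1 ≤ K := W1.trans hWK
  have nr : ∀ {x y : ℝ}, 0 ≤ x → 0 ≤ y → Near W x y → Near K x y := by
    intro x y hx hy hn
    exact ⟨hn.1.trans (mul_le_mul_of_nonneg_right hWK hy),
      hn.2.trans (mul_le_mul_of_nonneg_right hWK hx)⟩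
  have hSa : 10 ^ 5 * K * S'.a ≤ k := by
    have h1 : S'.a ≤ W * a := nV0.2
    calc 10 ^ 5 * K * S'.a ≤ 10 ^ 5 * K * (W * a) :=
          mul_le_mul_of_nonneg_left h1 (by positivity)
      _ = (2 * W) ^ A * (10 ^ 5 * (2 * W ^ 2) * a) := by rw [eK]; ring
      _ ≤ (2 * W) ^ A * ((2:ℝ) ^ 18 * (2 * W ^ 2) * a) := by
          refine mul_le_mul_of_nonneg_left ?_ hpC.le
          refine mul_le_mul_of_nonneg_right ?_ a0.le
          exact mul_le_mul_of_nonneg_right (by norm_num) (by positivity)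
      _ ≤ _ := h19'
  have hcb := hC K a w1 w2 z0 ρ r S S' T hK1 r0 ρ0 sh sh' hi hi' (nr w10.le u1 nU1)
    (nr w20.le u2 nU2) (nr w10.le v1 nV1) (nr w20.le v2 nV2) hSa
    (hle.trans (le_mul_of_one_le_left hk0 hK1)) (hkV.trans (mul_le_mul_of_nonneg_right hAK hkV0))
    (al1_mono hH hWK W0 w20.le hk0 u1 u2 v1 v2)
  -- the deficit
  set W2 : ℝ := (2 * W) ^ N / 2 with hW2
  have hpwN : ∀ x : ℝ, x + 1 ≤ N → (2 * W) ^ x ≤ W2 := by
    intro x hx
    have h1 : (2 * W) ^ (x + 1) ≤ (2 * W) ^ N := pw_le W1 hx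
    rw [pw_add W1, Real.rpow_one] at h1
    have h2 : 0 ≤ (2 * W) ^ x := Real.rpow_nonneg (by linarith) x
    have : (2 * W) ^ x * 2 ≤ (2 * W) ^ x * (2 * W) := mul_le_mul_of_nonneg_left (by linarith) h2
    rw [hW2]
    linarith
  have hAC : 0 ≤ (A + 2) * Cc := by positivity
  have hWW2 : W ≤ W2 := by
    have h1 := hpwN 1 (by linarith)
    rw [Real.rpow_one] at h1
    linarith
  have hfin : (2 * K) ^ Cc * k ≤ W2 * k := by
    refine mul_le_mul_of_nonneg_right ?_ hk0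
    have k1 : 2 * K ≤ (2 * W) ^ (A + 2) := by
      rw [show A + 2 = (A + 1) + 1 by ring, pw_add W1 (y := 1), Real.rpow_one, ← hK]
      nlinarith
    have k2 : (2 * K) ^ Cc ≤ (2 * W) ^ ((A + 2) * Cc) := by
      rw [Real.rpow_mul (by linarith)]
      exact Real.rpow_le_rpow (by positivity) k1 hCc
    exact k2.trans (hpwN _ (by linarith))
  have hiW : W2⁻¹ ≤ W⁻¹ := inv_anti₀ W0 hWW2
  exact
    { near := hle.trans (le_mul_of_one_le_left hk0 (W1.trans hWW2))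
      near' := hkV.trans (mul_le_mul_of_nonneg_right (hpwN _ (by linarith)) hkV0)
      det := (hT.det dU).mono hiW
      det' := (hT.det' dV).mono hiW
      ang := hH.ang.trans (mul_le_mul_of_nonneg_right hWW2 w20.le)
      cl := closeC_mono hcb hfin
      cl' := closeC_mono hH.close (mul_le_mul_of_nonneg_right hWW2 hk0)
      fr := (al1_mono hH hWW2 W0 w20.le hk0 u1 u2 v1 v2).fr }

/-- **(AL) from its two cases** -/
theorem alr_of (hA : UBalA Al1) (hC : CloseBack) (hB : AlCore) : ALR Al1 := by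
  classical
  obtain ⟨ηA, hηA, hA⟩ := hA
  obtain ⟨ηB, hηB, hB⟩ := hB
  obtain ⟨Cc, hCc, hC⟩ := hC
  refine ⟨min ηA ηB, lt_min hηA hηB, fun qm qp hE => ?_⟩
  obtain ⟨KA, CA, hKA, hCA, hA⟩ := hA qm qp (ex2_mono hE (min_le_left _ _))
  obtain ⟨KB, CB, hKB, hCB, hB⟩ := hB qm qp (ex2_mono hE (min_le_right _ _))
  -- exponent of the deficit in the balanced case
  set N : ℝ := (4 * CA + 2) * Cc + 4 * CA + 12 with hN
  have hAC : 0 ≤ (4 * CA + 2) * Cc := by positivity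
  have hN0 : 12 ≤ N := by linarith
  have hNKB : 0 ≤ N * KB := by positivity
  refine ⟨4 * KA + N * KB + N + 20, N * CB, by positivity, by positivity, ?_⟩
  intro L P cu cv Uf Vf W M a w1 w2 z0 ρ zL ρL r h hP hT hH
  have W1 := h.to1.W1
  have W0 : 0 < W := by linarith
  have a0 := h.to1.a0
  have b1 : (1:ℝ) ≤ 2 * W := by linarith
  have hW8 : 4 * 2 * W = 8 * W := by ring
  have kU0 : ∀ t ∈ P, 0 ≤ kp (Uf (cu t)) z0 ρ (L t) := fun t ht =>
    (mul_nonneg (Real.rpow_nonneg (by linarith) _) a0.le).trans (hT t ht).big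
  have posS : ∀ {S : Plk4}, Shp S z0 ρ r → 0 ≤ S.w 1 ∧ 0 ≤ S.w 2 := by
    intro S hS
    have a0 : 0 < S.a := h.to1.r0.trans_le hS.r0_le
    have w0 : 0 < S.w 0 := a0.trans_le hS.a_le0
    have w2 : 0 < S.w 2 := w0.trans_le hS.w0_le
    exact ⟨(w2.trans_le hS.w_le).le, w2.le⟩
  set G : ℕ → Prop := fun t => kp (Uf (cu t)) z0 ρ (L t) ≤
    (2 * W) ^ (4 * CA) * max a (kp (Vf (cv t)) z0 ρ (L t)) with hG
  have hsplit : (P.card : ℝ) = ((P.filter G).card : ℝ) + ((P.filter fun t => ¬ G t).card : ℝ) := by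
    have := card_filter_add_card_filter_not (s := P) G
    exact_mod_cast this.symm
  have hPc : (0 : ℝ) < P.card := by exact_mod_cast hP.card_pos
  have mx0 : ∀ t, 0 ≤ max a (kp (Vf (cv t)) z0 ρ (L t)) :=
    fun t => a0.le.trans (le_max_left _ _)
  rcases le_total ((P.filter fun t => ¬ G t).card : ℝ) ((P.filter G).card : ℝ) with hc | hc
  · -- comparable curvature extents
    have hne : (P.filter G).Nonempty := by
      rw [← card_pos]
      have : (0:ℝ) < ((P.filter G).card : ℝ) := by linarith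
      exact_mod_cast this
    obtain ⟨P', hP', hne', -, h'⟩ := two7_prune h (filter_subset G P) hne (Lo := 2) (by norm_num)
      (by linarith)
    rw [hW8] at h'
    have hsub : P' ⊆ P := hP'.trans (filter_subset _ _)
    have e2 : 2 * ((2 * W) ^ N / 2) = (2 * W) ^ N := by ring
    have q8 : 8 * W ≤ (2 * W) ^ N / 2 := by
      have h4 : (2 * W) ^ ((4:ℕ):ℝ) ≤ (2 * W) ^ N := pw_le W1 (by push_cast; linarith)
      rw [pw_nat] at h4
      have : 16 * W ≤ (2 * W) ^ 4 := by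
        have : (2 * W) ^ 4 = 16 * W * W ^ 3 := by ring
        rw [this]
        exact le_mul_of_one_le_right (by positivity) (one_le_pow₀ W1)
      linarith
    obtain ⟨t, ht, c1, c2⟩ := hB L P' cu cv Uf Vf ((2 * W) ^ N / 2) M a w1 w2 z0 ρ zL ρL r
      (two7_mono h' q8) hne' (fun t ht => by
        have htP := hsub ht
        have hg : G t := (mem_filter.1 (hP' ht)).2
        refine ⟨?_, bal_of hCc hC (by linarith) le_rfl (X := 4 * CA + 20) le_rfl W1 a0 h.to1.r0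
          h.to1.ρ0 h.to1.w10 h.to1.w20 (h.to1.shU t htP) (h.to1.shV t htP) (h.to1.inU t htP)
          (h.to1.inV t htP) (h.to1.dimU t htP) (h.to1.dimV t htP) ?_ (hH t htP) hg⟩
        · rw [e2, ← Real.rpow_mul (by linarith)]
          refine (mul_le_mul_of_nonneg_right (pw_le W1 ?_) a0.le).trans (hT t htP).big
          linarith
        · refine (TypA.of_typP (hT t htP)).mono a0.le W0 (pw_le W1 ?_) le_rfl
          linarith)
    have hle : (2 * ((2 * W) ^ N / 2)) ^ CB * a ≤ (2 * W) ^ (N * CB) * a := by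
      rw [e2, ← Real.rpow_mul (by linarith)]
    exact ⟨t, hsub ht, closeC_mono c1 hle, closeC_mono c2 hle⟩
  · -- mixed curvatures
    exfalso
    have hne : (P.filter fun t => ¬ G t).Nonempty := by
      rw [← card_pos]
      have : (0:ℝ) < ((P.filter fun t => ¬ G t).card : ℝ) := by linarith
      exact_mod_cast this
    obtain ⟨P', hP', hne', -, h'⟩ := two7_prune h (filter_subset (fun t => ¬ G t) P) hne (Lo := 2)
      (by norm_num) (by linarith)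
    rw [hW8] at h'
    have hsub : P' ⊆ P := hP'.trans (filter_subset _ _)
    obtain ⟨t, ht, hk⟩ := hA L P' cu cv Uf Vf (8 * W) M a w1 w2 z0 ρ zL ρL r h' hne'
      (fun t ht => by
        refine (TypA.of_typP (hT t (hsub ht))).mono a0.le W0 ?_ (by linarith)
        exact (pow8_le W1 hKA).trans (pw_le W1 (by linarith)))
      (fun t ht => by
        obtain ⟨u1, u2⟩ := posS (h.to1.shU t (hsub ht))
        obtain ⟨v1, v2⟩ := posS (h.to1.shV t (hsub ht))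
        exact al1_mono (hH t (hsub ht)) (by linarith) W0 h.to1.w20.le (kU0 t (hsub ht)) u1 u2 v1
          v2)
    refine (mem_filter.1 (hP' ht)).2 (hk.trans ?_)
    exact mul_le_mul_of_nonneg_right (pow8_le W1 hCA) (mx0 t)

end Crest.Agent.R136.Alr877
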