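import Crest.Agent.R136.AlK_500
import Crest.Agent.R136.Alr_877

/-!
# R136, PLAN 2 (AL), balanced case: the configuration of record (helper877)

`cf_of` : from the hypotheses of `AlCore` with no line at which the sheets are close up to
`(2 W)^(K + 1) a` in both directions, a configuration `Al500.Cf` with `H ≥ (2 W)^K`;
`alCore_of` : `AlCore` from the impossibility of such configurations.
-/

set_option autoImplicit false
set_option linter.unusedVariables false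

open Finset

namespace Crest.Agent.R136.Cfo877

open Crest.Agent.R136.Sh605 Crest.Agent.R136.Alr877
open Crest.Agent.R136.K4 (Plk4)
open Crest.Agent.R136.Tlt51 (Shp InP)
open Crest.Agent.R136.Deep51 (CloseC)
open Crest.Agent.R136.KapP335 (DetP kapP)
open Crest.Agent.R136.Tl102 (angC)
open Crest.Agent.R136.Pl2W102 (Near Ex2 Two1)
open Crest.Agent.R136.Pl2 (Two7 kp)
open Crest.Agent.R136.Rf877 (Tub)
open Crest.Agent.R136.Al877 (closeC_mono)
open Crest.Agent.R136.Al500 (Dm Cl2 Cf)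

theorem cl2_mono {S S' : Plk4} {s s' : ℝ} {T : Ln4} {z0 ρ : ℝ} (h : Cl2 S S' s T z0 ρ)
    (hs : s ≤ s') : Cl2 S S' s' T z0 ρ :=
  ⟨closeC_mono h.1 hs, closeC_mono h.2 hs⟩

/-- level of the discrepancy of two sheets -/
theorem exists_lv {S S' : Plk4} {T : Ln4} {z0 ρ a X Y : ℝ} (ha : 0 < a) (hX : 1 ≤ X)
    (lo : ¬ Cl2 S S' (X * a) T z0 ρ) (up : Cl2 S S' (Y * a) T z0 ρ) :
    ∃ n : ℕ, X < 2 * 2 ^ n ∧ (2:ℝ) ^ n < Y ∧ Cl2 S S' (2 * 2 ^ n * a) T z0 ρ ∧
      ¬ Cl2 S S' (2 ^ n * a) T z0 ρ := by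
  classical
  have hex : ∃ n : ℕ, Cl2 S S' (2 ^ n * a) T z0 ρ := by
    obtain ⟨n, hn⟩ := pow_unbounded_of_one_lt Y (one_lt_two)
    exact ⟨n, cl2_mono up (mul_le_mul_of_nonneg_right hn.le ha.le)⟩
  obtain ⟨m, h1, h2⟩ : ∃ m : ℕ, Cl2 S S' (2 ^ m * a) T z0 ρ ∧
      ∀ k < m, ¬ Cl2 S S' (2 ^ k * a) T z0 ρ :=
    ⟨Nat.find hex, Nat.find_spec hex, fun k hk => Nat.find_min hex hk⟩
  have hm : X < 2 ^ m := by
    by_contra hcon
    push Not at hcon
    exact lo (cl2_mono h1 (mul_le_mul_of_nonneg_right hcon ha.le))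
  rcases m with _ | n
  · exfalso
    rw [pow_zero] at hm
    linarith
  · have h3 := h2 n (Nat.lt_succ_self n)
    have e : (2:ℝ) ^ (n + 1) = 2 * 2 ^ n := by rw [pow_succ]; ring
    rw [e] at hm h1
    refine ⟨n, hm, ?_, h1, h3⟩
    by_contra hcon
    push Not at hcon
    exact h3 (cl2_mono up (mul_le_mul_of_nonneg_right hcon ha.le))

/-- number of levels -/
theorem lv_le {n : ℕ} {W k a w1 : ℝ} (hW : 1 ≤ W) (ha : 0 < a) (hw : 0 < w1)
    (hlg : Real.log (w1 / a) ≤ W) (hn : (2:ℝ) ^ n < W * k / a) (hk : k ≤ 13 * (W * w1)) :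
    (n : ℝ) ≤ 9 * W := by
  have W0 : 0 < W := by linarith
  have h1 : (2:ℝ) ^ n ≤ 2 ^ 4 * W ^ 2 * (w1 / a) := by
    refine hn.le.trans ?_
    have : W * k / a ≤ W * (13 * (W * w1)) / a :=
      div_le_div_of_nonneg_right (mul_le_mul_of_nonneg_left hk W0.le) ha.le
    refine this.trans ?_
    have e : W * (13 * (W * w1)) / a = 13 * (W ^ 2 * (w1 / a)) := by ring
    rw [e]
    have : 0 ≤ W ^ 2 * (w1 / a) := by positivity
    nlinarith
  have h2 := Real.log_le_log (by positivity) h1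
  rw [Real.log_pow, Real.log_mul (by positivity) (by positivity),
    Real.log_mul (by positivity) (by positivity), Real.log_pow, Real.log_pow] at h2
  have h3 : Real.log W ≤ W - 1 := Real.log_le_sub_one_of_pos W0
  have h4 := Real.log_two_gt_d9
  push_cast at h2
  have h5 : (n : ℝ) * Real.log 2 ≤ 4 * Real.log 2 + 3 * W := by linarith
  by_contra hcon
  push Not at hcon
  have h6 : ((n : ℝ) - 4) * Real.log 2 ≤ 3 * W := by linarith
  have h7 : 5 * W < (n : ℝ) - 4 := by linarith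
  have h8 : 5 * W * Real.log 2 < ((n : ℝ) - 4) * Real.log 2 :=
    mul_lt_mul_of_pos_right h7 (by linarith)
  nlinarith

/-- numbers of the refinement -/
theorem num_of {C1 W : ℝ} (hC1 : 1 ≤ C1) (hW : 1 ≤ W) :
    1 ≤ ⌈C1 * (W ^ 2) ^ C1⌉₊ ∧
    C1 * (W ^ 2) ^ C1 * (1 / (⌈C1 * (W ^ 2) ^ C1⌉₊ : ℝ)) ≤ 1 ∧
    4 * (3 * (⌈C1 * (W ^ 2) ^ C1⌉₊ : ℝ)) ^ 4 * (4 * (10 * W) * W) ≤
      (2 * W) ^ (8 * C1 + 20) := by
  have W0 : 0 < W := by linarith
  set x : ℝ := C1 * (W ^ 2) ^ C1 with hx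
  have hp : 1 ≤ (W ^ 2) ^ C1 := Real.one_le_rpow (one_le_pow₀ hW) (by linarith)
  have hx1 : 1 ≤ x := by
    rw [hx]
    nlinarith
  have h1 : 1 ≤ ⌈x⌉₊ := Nat.one_le_iff_ne_zero.2 (by
    have : 0 < ⌈x⌉₊ := Nat.ceil_pos.2 (by linarith)
    omega)
  have hm0 : (0:ℝ) < (⌈x⌉₊ : ℝ) := by exact_mod_cast h1
  have hm1 : x ≤ (⌈x⌉₊ : ℝ) := Nat.le_ceil x
  have hm2 : (⌈x⌉₊ : ℝ) ≤ 2 * x := by
    have := Nat.ceil_lt_add_one (by linarith : 0 ≤ x)
    linarith
  refine ⟨h1, ?_, ?_⟩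
  · rw [mul_one_div, div_le_one hm0]
    exact hm1
  · have hC2 : C1 ≤ (2:ℝ) ^ C1 := by
      have := one_add_mul_self_le_rpow_one_add (s := 1) (by norm_num) hC1
      norm_num at this
      linarith
    have hx2 : x ≤ (2 * W) ^ C1 * W ^ C1 := by
      have e : (W ^ 2) ^ C1 = W ^ C1 * W ^ C1 := by
        rw [← Real.mul_rpow W0.le W0.le]
        congr 1
        ring
      rw [hx, e, Real.mul_rpow (by norm_num) W0.le]
      have : 0 ≤ W ^ C1 * W ^ C1 := by positivity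
      calc C1 * (W ^ C1 * W ^ C1) ≤ 2 ^ C1 * (W ^ C1 * W ^ C1) :=
            mul_le_mul_of_nonneg_right hC2 this
        _ = _ := by ring
    have hx3 : x ≤ (2 * W) ^ (2 * C1) := by
      refine hx2.trans ?_
      rw [show 2 * C1 = C1 + C1 by ring, Real.rpow_add (by linarith)]
      refine mul_le_mul_of_nonneg_left ?_ (by positivity)
      exact Real.rpow_le_rpow W0.le (by linarith) (by linarith)
    have hx4 : x ^ 4 ≤ (2 * W) ^ (8 * C1) := by
      calc x ^ 4 ≤ ((2 * W) ^ (2 * C1)) ^ 4 := pow_le_pow_left₀ (by linarith) hx3 4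
        _ = (2 * W) ^ (8 * C1) := by
            rw [← Real.rpow_natCast, ← Real.rpow_mul (by linarith)]
            congr 1
            push_cast
            ring
    calc 4 * (3 * (⌈x⌉₊ : ℝ)) ^ 4 * (4 * (10 * W) * W)
        = 12960 * W ^ 2 * (⌈x⌉₊ : ℝ) ^ 4 := by ring
      _ ≤ 12960 * W ^ 2 * (2 * x) ^ 4 :=
          mul_le_mul_of_nonneg_left (pow_le_pow_left₀ hm0.le hm2 4) (by positivity)
      _ = 207360 * W ^ 2 * x ^ 4 := by ring
      _ ≤ 207360 * W ^ 2 * (2 * W) ^ (8 * C1) :=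
          mul_le_mul_of_nonneg_left hx4 (by positivity)
      _ ≤ (2 * W) ^ 20 * (2 * W) ^ (8 * C1) := by
          refine mul_le_mul_of_nonneg_right ?_ (by positivity)
          have e : (2 * W) ^ 20 = 1048576 * W ^ 2 * W ^ 18 := by ring
          rw [e]
          have h18 : 1 ≤ W ^ 18 := one_le_pow₀ hW
          have h2 : 0 ≤ W ^ 2 := by positivity
          nlinarith [mul_le_mul_of_nonneg_left h18 h2]
      _ = (2 * W) ^ (8 * C1 + 20) := by
          rw [Real.rpow_add (by linarith), mul_comm]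
          congr 1
          have := pw_nat (W := W) 20
          push_cast at this
          exact this.symm

/-- **the configuration of record** -/
theorem cf_of (C1 : ℝ) (hC1 : 1 ≤ C1) {qm qp : Fin 3 → ℝ} (hq : ∀ k, 0 ≤ qm k ∧ qm k ≤ qp k)
    {K : ℝ} (hK : 0 ≤ K) {L : ℕ → Ln4} {P : Finset ℕ} {cu cv : ℕ → ℕ} {Uf Vf : ℕ → Plk4}
    {W M a w1 w2 z0 ρ zL ρL r : ℝ} (h : Two7 qm qp L P cu cv Uf Vf W M a w1 w2 z0 ρ zL ρL r)
    (hP : P.Nonempty) (hB : ∀ t ∈ P, Bal W (Uf (cu t)) (Vf (cv t)) (L t) w1 w2 z0 ρ)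
    (hlo : ∀ t ∈ P, ¬ Cl2 (Uf (cu t)) (Vf (cv t)) ((2 * W) ^ (K + 1) * a) (L t) z0 ρ) :
    ∃ (P' : Finset ℕ) (du dv : ℕ → ℕ) (W' B κ E : ℝ) (H : ℕ), P' ⊆ P ∧
      Cf qm qp L P' du dv (fun k => Uf (Nat.unpair k).1) (fun k => Vf (Nat.unpair k).1)
        W' B M a w1 w2 z0 ρ zL ρL r κ E H ∧
      C1 * W' ^ C1 * κ ≤ 1 ∧ B ≤ (2 * W) ^ (8 * C1 + 20) ∧ W' = W ^ 2 ∧ (2 * W) ^ K ≤ H := by
  classical
  have W1 := h.to1.W1
  have W0 : 0 < W := by linarith
  have a0 := h.to1.a0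
  have hX1 : 1 ≤ (2 * W) ^ (K + 1) := pw_one_le W1 (by linarith)
  -- levels
  have hlv : ∀ t, ∃ n : ℕ, t ∈ P → (2 * W) ^ (K + 1) < 2 * 2 ^ n ∧
      (2:ℝ) ^ n < W * kp (Uf (cu t)) z0 ρ (L t) / a ∧
      Cl2 (Uf (cu t)) (Vf (cv t)) (2 * 2 ^ n * a) (L t) z0 ρ ∧
      ¬ Cl2 (Uf (cu t)) (Vf (cv t)) (2 ^ n * a) (L t) z0 ρ := by
    intro t
    by_cases ht : t ∈ P
    · obtain ⟨n, hn⟩ := exists_lv (Y := W * kp (Uf (cu t)) z0 ρ (L t) / a) a0 hX1 (hlo t ht)
        (by rw [div_mul_cancel₀ _ a0.ne']; exact ⟨(hB t ht).cl, (hB t ht).cl'⟩)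
      exact ⟨n, fun _ => hn⟩
    · exact ⟨0, fun h => absurd h ht⟩
  choose lv hlv using hlv
  have hk13 : ∀ t ∈ P, kp (Uf (cu t)) z0 ρ (L t) ≤ 13 * (W * w1) := by
    intro t ht
    have k1 : kp (Uf (cu t)) z0 ρ (L t) ≤ 13 * (Uf (cu t)).w 0 :=
      kapP_le h.to1.r0 h.to1.ρ0.le (h.to1.shU t ht) (h.to1.inU t ht)
    have k2 := (h.to1.shU t ht).w0_le
    have k3 := (h.to1.shU t ht).w_le
    have k4 := (h.to1.dimU t ht).2.1.2
    linarith
  have hcnt : ((P.image lv).card : ℝ) ≤ 10 * W := by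
    have hsub : P.image lv ⊆ Finset.range (⌊9 * W⌋₊ + 1) := by
      intro b hb
      obtain ⟨t, ht, rfl⟩ := mem_image.1 hb
      rw [mem_range, Nat.lt_succ_iff]
      exact Nat.le_floor (lv_le W1 a0 h.to1.w10 h.to1.lg (hlv t ht).2.1 (hk13 t ht))
    have h1 := card_le_card hsub
    rw [card_range] at h1
    have h2 : ((P.image lv).card : ℝ) ≤ (⌊9 * W⌋₊ : ℝ) + 1 := by exact_mod_cast h1
    have h3 := Nat.floor_le (by positivity : 0 ≤ 9 * W)
    linarith
  obtain ⟨n0, hn0, hpop⟩ := Pop615.popular P lv hP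
  have hQne : (P.filter fun t => lv t = n0).Nonempty := by
    obtain ⟨t, ht, he⟩ := mem_image.1 hn0
    exact ⟨t, mem_filter.2 ⟨ht, he⟩⟩
  obtain ⟨P1, hP1, hne1, -, h1⟩ := two7_prune h (filter_subset _ P) hQne (Lo := 10 * W)
    (by linarith) (hpop.trans (mul_le_mul_of_nonneg_right hcnt (Nat.cast_nonneg _)))
  obtain ⟨hm1, hm2, hm3⟩ := num_of hC1 W1
  set m : ℕ := ⌈C1 * (W ^ 2) ^ C1⌉₊ with hm
  obtain ⟨P2, hP2, hc2, du, dv, hu, hv, h2, t1, t2⟩ := refine7 hq h1 m hm1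
  have hP1P : P1 ⊆ P := hP1.trans (filter_subset _ _)
  have hsub : P2 ⊆ P := hP2.trans hP1P
  have hl0 : ∀ t ∈ P2, lv t = n0 := fun t ht => (mem_filter.1 (hP1 (hP2 ht))).2
  have hne2 : P2.Nonempty := by
    rw [← card_pos]
    have : (0:ℝ) < P1.card := by exact_mod_cast hne1.card_pos
    have : (0:ℝ) < P2.card := by linarith
    exact_mod_cast this
  have WW : W ≤ W ^ 2 := by nlinarith
  have WW1 : 1 ≤ W ^ 2 := one_le_pow₀ W1
  have hdim : ∀ {x y : ℝ}, 0 ≤ x → 0 ≤ y → Near W x y → Near (W ^ 2) x y := by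
    intro x y hx hy hn
    exact ⟨hn.1.trans (mul_le_mul_of_nonneg_right WW hy),
      hn.2.trans (mul_le_mul_of_nonneg_right WW hx)⟩
  have posS : ∀ {S : Plk4}, Shp S z0 ρ r → 0 ≤ S.a ∧ 0 ≤ S.w 1 ∧ 0 ≤ S.w 2 := by
    intro S hS
    have a0 : 0 < S.a := h.to1.r0.trans_le hS.r0_le
    have w0 : 0 < S.w 0 := a0.trans_le hS.a_le0
    have w2 : 0 < S.w 2 := w0.trans_le hS.w0_le
    exact ⟨a0.le, (w2.trans_le hS.w_le).le, w2.le⟩
  have hWB : W ^ 2 ≤ 4 * (3 * (m : ℝ)) ^ 4 * (4 * (10 * W) * W) := by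
    have hm1' : (1:ℝ) ≤ m := by exact_mod_cast hm1
    have h3 : (1:ℝ) ≤ (3 * (m : ℝ)) ^ 4 := one_le_pow₀ (by linarith)
    have h4 : 0 ≤ W ^ 2 := by positivity
    calc W ^ 2 ≤ 160 * W ^ 2 * 1 := by linarith
      _ ≤ 160 * W ^ 2 * (3 * (m : ℝ)) ^ 4 := mul_le_mul_of_nonneg_left h3 (by positivity)
      _ = _ := by ring
  -- curvature extents are nonnegative
  have hkU : ∀ t ∈ P, 0 ≤ kp (Uf (cu t)) z0 ρ (L t) := by
    intro t ht
    by_contra hneg
    push Not at hneg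
    have k1 := (hlv t ht).2.1
    have : W * kp (Uf (cu t)) z0 ρ (L t) / a < 0 := div_neg_of_neg_of_pos
      (mul_neg_of_pos_of_neg W0 hneg) a0
    have : (0:ℝ) < 2 ^ (lv t) := by positivity
    linarith
  have hkV : ∀ t ∈ P, 0 ≤ kp (Vf (cv t)) z0 ρ (L t) := by
    intro t ht
    by_contra hneg
    push Not at hneg
    have := mul_neg_of_pos_of_neg W0 hneg
    have := hkU t ht
    have := (hB t ht).near'
    linarith
  have hkE : ∀ t ∈ P2, (2:ℝ) ^ n0 * a ≤ W * kp (Uf (cu t)) z0 ρ (L t) := by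
    intro t ht
    have k1 := (hlv t (hsub ht)).2.1
    rw [hl0 t ht, lt_div_iff₀ a0] at k1
    exact k1.le
  have hinv : (W ^ 2)⁻¹ ≤ W⁻¹ := inv_anti₀ W0 WW
  refine ⟨P2, du, dv, W ^ 2, 4 * (3 * (m : ℝ)) ^ 4 * (4 * (10 * W) * W), 1 / (m : ℝ), (2:ℝ) ^ n0,
    2 ^ n0, hsub, ?_, hm2, hm3, rfl, ?_⟩
  · have m0 : (0:ℝ) < m := by exact_mod_cast hm1
    exact
      { ne := hne2
        two := h2
        qq := hq
        W1 := WW1
        WB := hWB
        κ0 := by positivity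
        E1 := one_le_pow₀ (by norm_num)
        EH := by push_cast; exact le_rfl
        HE := by
          push_cast
          have : (0:ℝ) ≤ 2 ^ n0 := by positivity
          linarith
        dmU := fun t ht => by
          obtain ⟨d1, d2, d3⟩ := h.to1.dimU t (hsub ht)
          obtain ⟨p1, p2, p3⟩ := posS (h.to1.shU t (hsub ht))
          simp only [hu, Dm]
          exact ⟨hdim a0.le p1 d1, hdim h.to1.w10.le p2 d2, hdim h.to1.w20.le p3 d3⟩
        dmV := fun t ht => by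
          obtain ⟨d1, d2, d3⟩ := h.to1.dimV t (hsub ht)
          obtain ⟨p1, p2, p3⟩ := posS (h.to1.shV t (hsub ht))
          simp only [hv, Dm]
          exact ⟨hdim a0.le p1 d1, hdim h.to1.w10.le p2 d2, hdim h.to1.w20.le p3 d3⟩
        ang := fun t ht => by
          simp only [hu, hv]
          exact (hB t (hsub ht)).ang.trans (mul_le_mul_of_nonneg_right WW h.to1.w20.le)
        up := fun t ht => by
          simp only [hu, hv]
          have k1 := (hlv t (hsub ht)).2.2.1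
          rwa [hl0 t ht] at k1
        lo := fun t ht => by
          simp only [hu, hv]
          have k1 := (hlv t (hsub ht)).2.2.2
          rwa [hl0 t ht] at k1
        kE := fun t ht => by
          simp only [hu]
          exact (hkE t ht).trans (mul_le_mul_of_nonneg_right WW (hkU t (hsub ht)))
        kE' := fun t ht => by
          simp only [hv]
          refine (hkE t ht).trans ?_
          calc W * kp (Uf (cu t)) z0 ρ (L t) ≤ W * (W * kp (Vf (cv t)) z0 ρ (L t)) :=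
                mul_le_mul_of_nonneg_left (hB t (hsub ht)).near' W0.le
            _ = _ := by ring
        kUV := fun t ht => by
          simp only [hu, hv]
          exact (hB t (hsub ht)).near'.trans (mul_le_mul_of_nonneg_right WW (hkV t (hsub ht)))
        kVU := fun t ht => by
          simp only [hu, hv]
          exact (hB t (hsub ht)).near.trans (mul_le_mul_of_nonneg_right WW (hkU t (hsub ht)))
        detU := fun t ht => by
          simp only [hu]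
          exact (hB t (hsub ht)).det.mono hinv
        detV := fun t ht => by
          simp only [hv]
          exact (hB t (hsub ht)).det'.mono hinv
        tubU := fun s hs t ht hst => by
          simp only [hu]
          exact (t1 s (hP2 hs) t (hP2 ht) hst).2
        tubV := fun s hs t ht hst => by
          simp only [hv]
          exact (t2 s (hP2 hs) t (hP2 ht) hst).2
        fr := fun t ht => by
          have hk := hkU t (hsub ht)
          obtain ⟨-, u1, u2⟩ := posS (h.to1.shU t (hsub ht))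
          obtain ⟨-, v1, v2⟩ := posS (h.to1.shV t (hsub ht))
          obtain ⟨f, g, h1, h2, h3, h4, h5, h6, h7⟩ := (hB t (hsub ht)).fr
          have hm := mul_le_mul_of_nonneg_right WW hk
          simp only [hu, hv]
          exact ⟨f, g, fh_mono h1 WW hk u1 u2, fl_mono h2 WW W0 hk, fh_mono h3 WW hk v1 v2,
            h4.trans hm, h5.trans hm, h6.trans hm, h7.trans hm⟩ }
  · obtain ⟨t, ht⟩ := hne2
    have k1 := (hlv t (hsub ht)).1
    rw [hl0 t ht, pw_add W1, Real.rpow_one] at k1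
    have k2 : 0 ≤ (2 * W) ^ K := Real.rpow_nonneg (by linarith) _
    push_cast
    nlinarith

/-- **no configuration with large discrepancy** (the theorem of helper500) -/
def AlkFalse : Prop := ∃ η : ℝ, 0 < η ∧ ∀ qm qp : Fin 3 → ℝ, Ex2 η qm qp →
  ∃ C1 K : ℝ, 1 ≤ C1 ∧ 0 ≤ K ∧
  ∀ (L : ℕ → Ln4) (P : Finset ℕ) (cu cv : ℕ → ℕ) (Uf Vf : ℕ → Plk4)
    (W B M a w1 w2 z0 ρ zL ρL r κ E : ℝ) (H : ℕ),
    Cf qm qp L P cu cv Uf Vf W B M a w1 w2 z0 ρ zL ρL r κ E H → C1 * W ^ C1 * κ ≤ 1 →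
    (2 * B) ^ K ≤ H → False

/-- **(B) balanced curvatures from the impossibility of configurations** -/
theorem alCore_of (hF : AlkFalse) : AlCore := by
  obtain ⟨η, hη, hF⟩ := hF
  refine ⟨η, hη, fun qm qp hE => ?_⟩
  obtain ⟨C1, K, hC1, hK, hF⟩ := hF qm qp hE
  set K1 : ℝ := (8 * C1 + 21) * K with hK1
  have hK10 : 0 ≤ K1 := by positivity
  refine ⟨0, K1 + 1, le_rfl, by linarith, ?_⟩
  intro L P cu cv Uf Vf W M a w1 w2 z0 ρ zL ρL r h hP hB
  by_contra hcon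
  push Not at hcon
  have W1 := h.to1.W1
  obtain ⟨P', du, dv, W', B, κ, E, H, hP', hCf, hκ, hBb, hW', hH⟩ := cf_of C1 hC1 hE.le hK10 h hP
    (fun t ht => (hB t ht).2) (fun t ht hc => hcon t ht hc.1 hc.2)
  refine hF L P' du dv _ _ W' B M a w1 w2 z0 ρ zL ρL r κ E H hCf hκ (le_trans ?_ hH)
  have hB0 : 0 ≤ B := by
    have := hCf.W1
    have := hCf.WB
    linarith
  have h1 : 2 * B ≤ (2 * W) ^ (8 * C1 + 21) := by
    have e : (2 * W) ^ (8 * C1 + 21) = (2 * W) ^ (8 * C1 + 20) * (2 * W) := by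
      rw [show 8 * C1 + 21 = (8 * C1 + 20) + 1 by ring, pw_add W1 (y := 1), Real.rpow_one]
    rw [e]
    have h2 : 0 ≤ (2 * W) ^ (8 * C1 + 20) := Real.rpow_nonneg (by linarith) _
    nlinarith
  calc (2 * B) ^ K ≤ ((2 * W) ^ (8 * C1 + 21)) ^ K :=
        Real.rpow_le_rpow (by linarith) h1 hK
    _ = (2 * W) ^ K1 := by rw [← Real.rpow_mul (by linarith)]

end Crest.Agent.R136.Cfo877
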