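import Crest.Agent.R136.Bt1_624

/-!
# R136, PLAN 2 (AL): the numbers of `al_end` (helper624)

Order of the constants: `c0` (capture, `b0 = H^(-c0)`), `q = qm 1 + qm 2`, `p = qp 0 ≤ c0 q / 4`,
`A` (algebraic losses in powers of `H^c3`) ⊢ `c3` (wedge radius `b' = H^(-c3)`), `ε` (KM);
then `k` (all constants: `R ≤ (2 W)^k`) ⊢ `K`; then `W`, `H ≥ (2 W)^K`.

`X = R H^ε`, `Q = H^p`, `Z = R H^(A c3)`, `Y = H^(c0 q) / X`.
-/

set_option autoImplicit false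

namespace Crest.Agent.R136.Bt624

/-- the numbers of `al_end` -/
structure Numb (c0 q p A c3 ε R H X Q Z Y : ℝ) : Prop where
  H1 : 1 ≤ H
  R1 : 1 ≤ R
  X0 : 0 < X
  Y0 : 0 < Y
  Q1 : 1 ≤ Q
  Z1 : 1 ≤ Z
  RX : R ≤ X
  eX : X = R * H ^ ε
  eQ : Q = H ^ p
  eZ : Z = R * H ^ (A * c3)
  eY : Y = H ^ (c0 * q) / X
  /-- `H` beats all constants -/
  RH : R ≤ H
  /-- `√H` beats all constants -/
  Rh : R ≤ H ^ (1 / 2 : ℝ)
  /-- `H^c3` beats all constants -/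
  Rc3 : R ≤ H ^ c3
  /-- `H^ε` beats all constants -/
  Rε : R ≤ H ^ ε
  /-- `H^(ε/4)` beats all constants (`kmb_num` is called with `ε / 4`) -/
  Rε4 : R ≤ H ^ (ε / 4)
  b0 : 3 / H ≤ H ^ (-c0)
  b3 : 3 / H ≤ H ^ (-c3)
  b01 : H ^ (-c0) ≤ 1
  b31 : H ^ (-c3) ≤ 1
  /-- capture: `X H^(-c0 q) = 1 / Y` -/
  cap : X * H ^ (-(c0 * q)) * Y = 1
  /-- wedge -/
  gen : 8 * (X * (X * H ^ (-(c3 * q)))) ≤ 1
  num : 64 * (X ^ 4 * Q * Z) < Y

theorem numbers {c0 q p A : ℝ} (hc0 : 0 < c0) (hc1 : c0 ≤ 1 / 2) (hq : 0 < q) (hp0 : 0 ≤ p)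
    (hp : p ≤ c0 * q / 4) (hA : 8 ≤ A) :
    ∃ c3 ε : ℝ, 0 < c3 ∧ 0 < ε ∧ c3 ≤ c0 ∧ ε ≤ c3 ∧ A * ε ≤ c3 * q / 4 ∧
      ∀ k : ℝ, 0 ≤ k → ∃ K : ℝ, 1 ≤ K ∧ ∀ W H R : ℝ, 1 ≤ W → (2 * W) ^ K ≤ H → 1 ≤ R →
        R ≤ (2 * W) ^ k →
        Numb c0 q p A c3 ε R H (R * H ^ ε) (H ^ p) (R * H ^ (A * c3))
          (H ^ (c0 * q) / (R * H ^ ε)) := by
  obtain ⟨c3, ε, h1, h2, h3, h4, h5, h6⟩ := scales hc0 hq hp (by linarith : 1 ≤ A)
  refine ⟨c3, ε, h1, h2, h3, h4, h5, fun k hk => ?_⟩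
  obtain ⟨K, hK1, hK⟩ := exists_K [(k, 1), (k, 1 / 2), (k, c3), (k, ε), (k, ε / 4), (2, 1 / 2),
    (2 * k + 3, c3 * q / 2), (6 * k + 7, c0 * q / 4)] (by
      intro p hp
      simp only [List.mem_cons, List.not_mem_nil, or_false] at hp
      rcases hp with rfl | rfl | rfl | rfl | rfl | rfl | rfl | rfl
      · exact ⟨hk, one_pos⟩
      · exact ⟨hk, by norm_num⟩
      · exact ⟨hk, h1⟩
      · exact ⟨hk, h2⟩
      · exact ⟨hk, by simp only; positivity⟩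
      · exact ⟨by norm_num, by norm_num⟩
      · exact ⟨by simp only; linarith, by simp only; positivity⟩
      · exact ⟨by simp only; linarith, by simp only; positivity⟩)
  have g1 : k / K ≤ 1 := hK K le_rfl (k, 1) (by simp)
  have g0 : k / K ≤ 1 / 2 := hK K le_rfl (k, 1 / 2) (by simp)
  have g2 : k / K ≤ c3 := hK K le_rfl (k, c3) (by simp)
  have g3 : k / K ≤ ε := hK K le_rfl (k, ε) (by simp)
  have g3' : k / K ≤ ε / 4 := hK K le_rfl (k, ε / 4) (by simp)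
  have g4 : (2:ℝ) / K ≤ 1 / 2 := hK K le_rfl (2, 1 / 2) (by simp)
  have g5 : (2 * k + 3) / K ≤ c3 * q / 2 := hK K le_rfl (2 * k + 3, c3 * q / 2) (by simp)
  have g6 : (6 * k + 7) / K ≤ c0 * q / 4 := hK K le_rfl (6 * k + 7, c0 * q / 4) (by simp)
  refine ⟨K, hK1, fun W H R hW hH hR1 hR => ?_⟩
  have hK0 : 0 < K := by linarith
  have hH1 : 1 ≤ H := one_le_H hW hK0.le hH
  have hH0 : 0 < H := by linarith
  have hR0 : 0 < R := by linarith
  have hpos : ∀ x : ℝ, 0 < H ^ x := fun x => Real.rpow_pos_of_pos hH0 x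
  have hone : ∀ x : ℝ, 0 ≤ x → 1 ≤ H ^ x := fun x hx => Real.one_le_rpow hH1 hx
  have w0 : (0:ℝ) < 2 * W := by linarith
  have hRk : ∀ y : ℝ, k / K ≤ y → R ≤ H ^ y := fun y hy => by
    have := beat (x := 0) (y := y) hW hK0 hk hH (by linarith)
    rw [Real.rpow_zero, mul_one] at this
    exact hR.trans this
  have hX0 : 0 < R * H ^ ε := mul_pos hR0 (hpos _)
  have hRX : R ≤ R * H ^ ε := le_mul_of_one_le_right hR0.le (hone _ h2.le)
  have hb : ∀ c : ℝ, c ≤ 1 / 2 → 3 / H ≤ H ^ (-c) := fun c hc => by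
    rw [div_le_iff₀ hH0]
    have e : H ^ (-c) * H = H ^ (1 - c) := by
      have := Real.rpow_add hH0 (-c) 1
      rw [Real.rpow_one] at this
      rw [← this]; congr 1; ring
    rw [e]
    have := beat_c (x := 0) (y := 1 - c) (c := 3) (k' := 2) hW hK0 le_rfl (by norm_num) hH
      (by norm_num) (by linarith)
    rw [Real.rpow_zero, Real.rpow_zero, mul_one, mul_one] at this
    exact this
  refine
    { H1 := hH1
      R1 := hR1
      X0 := hX0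
      Y0 := div_pos (hpos _) hX0
      Q1 := hone _ hp0
      Z1 := one_le_mul_of_one_le_of_one_le hR1 (hone _ (by positivity))
      RX := hRX
      eX := rfl
      eQ := rfl
      eZ := rfl
      eY := rfl
      RH := by have := hRk 1 g1; rwa [Real.rpow_one] at this
      Rh := hRk _ g0
      Rc3 := hRk _ g2
      Rε := hRk _ g3
      Rε4 := hRk _ g3'
      b0 := hb _ hc1
      b3 := hb _ (h3.trans hc1)
      b01 := Real.rpow_le_one_of_one_le_of_nonpos hH1 (by linarith)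
      b31 := Real.rpow_le_one_of_one_le_of_nonpos hH1 (by linarith)
      cap := ?_
      gen := ?_
      num := ?_ }
  · rw [Real.rpow_neg hH0.le]
    have := (hpos (c0 * q)).ne'
    field_simp
  · have e : 8 * (R * H ^ ε * (R * H ^ ε * H ^ (-(c3 * q)))) =
        8 * (R ^ 2 * H ^ (2 * ε - c3 * q)) := by
      have e1 : H ^ (2 * ε - c3 * q) = H ^ ε * H ^ ε * H ^ (-(c3 * q)) := by
        rw [← Real.rpow_add hH0, ← Real.rpow_add hH0]; congr 1; ring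
      rw [e1]; ring
    rw [e]
    have hR2 : R ^ 2 ≤ (2 * W) ^ (2 * k) := by
      have := pow_le_pow_left₀ hR0.le hR 2
      rw [← Real.rpow_natCast ((2 * W) ^ k) 2, ← Real.rpow_mul w0.le] at this
      refine this.trans (le_of_eq ?_)
      congr 1; push_cast; ring
    have hAε : 8 * ε ≤ c3 * q / 4 :=
      (mul_le_mul_of_nonneg_right hA h2.le).trans h5
    have := beat_c (x := 2 * ε - c3 * q) (y := 0) (c := 8) (k := 2 * k) (k' := 3) hW hK0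
      (by linarith) (by norm_num) hH (by norm_num) (by nlinarith [mul_pos h1 hq])
    rw [Real.rpow_zero] at this
    refine le_trans ?_ this
    exact mul_le_mul_of_nonneg_left (mul_le_mul_of_nonneg_right hR2 (hpos _).le) (by norm_num)
  · rw [lt_div_iff₀ hX0]
    have e : 64 * ((R * H ^ ε) ^ 4 * H ^ p * (R * H ^ (A * c3))) * (R * H ^ ε) =
        64 * (R ^ 6 * H ^ (5 * ε + p + A * c3)) := by
      have e1 : H ^ (5 * ε + p + A * c3) = (H ^ ε) ^ 5 * H ^ p * H ^ (A * c3) := by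
        rw [Real.rpow_add hH0, Real.rpow_add hH0, mul_comm 5 ε, Real.rpow_mul hH0.le]
        congr 2
        rw [← Real.rpow_natCast]; norm_num
      rw [e1]; ring
    rw [e]
    have hR6 : R ^ 6 ≤ (2 * W) ^ (6 * k) := by
      have := pow_le_pow_left₀ hR0.le hR 6
      rw [← Real.rpow_natCast ((2 * W) ^ k) 6, ← Real.rpow_mul w0.le] at this
      refine this.trans (le_of_eq ?_)
      congr 1; push_cast; ring
    have h58 : 5 * ε ≤ A * ε := mul_le_mul_of_nonneg_right (by linarith) h2.le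
    have := beat_lt (x := 5 * ε + p + A * c3) (y := c0 * q) (c := 64) (k := 6 * k) (k' := 7) hW hK0
      (by linarith) (by norm_num) hH (by norm_num) (by linarith)
    refine lt_of_le_of_lt ?_ this
    exact mul_le_mul_of_nonneg_left (mul_le_mul_of_nonneg_right hR6 (hpos _).le) (by norm_num)

/-- multiplicity of KMb at the radius `b` -/
noncomputable def mb (C Wp θ M q ε H b : ℝ) : ℝ := C * H ^ ε * Wp * b ^ q * M / (θ ^ 2 * H ^ 2)

/-- the hypothesis of `Vq571.kmb`, `kmb_sys` for `m := mb ..` -/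
theorem mb_hyp {C Wp θ M q ε H b : ℝ} (hθ : 0 < θ) (hH : 0 < H) :
    C * H ^ ε * Wp * b ^ q * M ≤ mb C Wp θ M q ε H b * θ ^ 2 * H ^ 2 := by
  unfold mb
  apply le_of_eq
  field_simp

theorem mb_pos {C Wp θ M q ε H b : ℝ} (hC : 0 < C) (hW : 0 < Wp) (hθ : 0 < θ) (hM : 0 < M)
    (hH : 0 < H) (hb : 0 < b) : 0 < mb C Wp θ M q ε H b := by
  unfold mb
  have := Real.rpow_pos_of_pos hH ε
  have := Real.rpow_pos_of_pos hb q
  positivity

section

variable {c0 q p A c3 ε R H X Q Z Y C Wp θ M G n : ℝ}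

/-- all counts: `n ≤ G m_b`, `G C Wp / θ² ≤ R` ⊢ `H² n ≤ X b^q M` -/
theorem Numb.ball (h : Numb c0 q p A c3 ε R H X Q Z Y) {b : ℝ} (hb : 0 ≤ b) (hM : 0 ≤ M)
    (hθ : 0 < θ) (hR : G * (C * Wp) ≤ R * θ ^ 2) (hn : n ≤ G * mb C Wp θ M q ε H b) :
    H ^ 2 * n ≤ X * b ^ q * M := by
  have hH0 : 0 < H := by linarith [h.H1]
  have h1 : 0 ≤ H ^ ε * b ^ q * M :=
    mul_nonneg (mul_nonneg (Real.rpow_nonneg hH0.le _) (Real.rpow_nonneg hb _)) hM
  have e : H ^ 2 * (G * mb C Wp θ M q ε H b) = G * (C * Wp) / θ ^ 2 * (H ^ ε * b ^ q * M) := by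
    unfold mb
    field_simp
  have h2 : G * (C * Wp) / θ ^ 2 ≤ R := by
    rw [div_le_iff₀ (by positivity)]; exact hR
  calc H ^ 2 * n ≤ H ^ 2 * (G * mb C Wp θ M q ε H b) := mul_le_mul_of_nonneg_left hn (by positivity)
    _ = G * (C * Wp) / θ ^ 2 * (H ^ ε * b ^ q * M) := e
    _ ≤ R * (H ^ ε * b ^ q * M) := mul_le_mul_of_nonneg_right h2 h1
    _ = X * b ^ q * M := by rw [h.eX]; ring

/-- `hup`, `hup'` of `al_end` : `b = 1` -/
theorem Numb.up (h : Numb c0 q p A c3 ε R H X Q Z Y) (hM : 0 ≤ M)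
    (hθ : 0 < θ) (hR : G * (C * Wp) ≤ R * θ ^ 2) (hn : n ≤ G * mb C Wp θ M q ε H 1) :
    H ^ 2 * n ≤ X * M := by
  have := h.ball (b := 1) zero_le_one hM hθ hR hn
  rwa [Real.one_rpow, mul_one] at this

/-- `hcap`, `hcap'` of `al_end` : `b = H^(-c0)` -/
theorem Numb.capt (h : Numb c0 q p A c3 ε R H X Q Z Y) (hM : 0 ≤ M)
    (hθ : 0 < θ) (hR : G * (C * Wp) ≤ R * θ ^ 2)
    (hn : n ≤ G * mb C Wp θ M q ε H (H ^ (-c0))) : Y * H ^ 2 * n ≤ M := by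
  have hH0 : 0 < H := by linarith [h.H1]
  have h1 := h.ball (Real.rpow_nonneg hH0.le _) hM hθ hR hn
  rw [← Real.rpow_mul hH0.le] at h1
  calc Y * H ^ 2 * n = Y * (H ^ 2 * n) := by ring
    _ ≤ Y * (X * H ^ (-c0 * q) * M) := mul_le_mul_of_nonneg_left h1 h.Y0.le
    _ = (X * H ^ (-(c0 * q)) * Y) * M := by rw [neg_mul]; ring
    _ = M := by rw [h.cap, one_mul]

/-- `hGen` of `al_end` : `b = H^(-c3)` -/
theorem Numb.wedge (h : Numb c0 q p A c3 ε R H X Q Z Y) (hM : 0 ≤ M)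
    (hθ : 0 < θ) (hR : G * (C * Wp) ≤ R * θ ^ 2)
    (hn : n ≤ G * mb C Wp θ M q ε H (H ^ (-c3))) : 8 * (X * H ^ 2 * n) ≤ M := by
  have hH0 : 0 < H := by linarith [h.H1]
  have h1 := h.ball (Real.rpow_nonneg hH0.le _) hM hθ hR hn
  rw [← Real.rpow_mul hH0.le] at h1
  calc 8 * (X * H ^ 2 * n) = 8 * (X * (H ^ 2 * n)) := by ring
    _ ≤ 8 * (X * (X * H ^ (-c3 * q) * M)) := by
        have := mul_le_mul_of_nonneg_left h1 h.X0.le
        linarith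
    _ = 8 * (X * (X * H ^ (-(c3 * q)))) * M := by rw [neg_mul]; ring
    _ ≤ 1 * M := mul_le_mul_of_nonneg_right h.gen hM
    _ = M := one_mul M

/-- the same for the output of `Vq571.kmb_num` called with `ε / 4` : `n ≤ G (H^(4 (ε/4)) b^q M / H²)`,
`G ≤ R` -/
theorem Numb.ball4 (h : Numb c0 q p A c3 ε R H X Q Z Y) {b : ℝ} (hb : 0 ≤ b) (hM : 0 ≤ M)
    (hG : G ≤ R) (hn : n ≤ G * (H ^ (4 * (ε / 4)) * b ^ q * M / H ^ 2)) :
    H ^ 2 * n ≤ X * b ^ q * M := by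
  have hH0 : 0 < H := by linarith [h.H1]
  have h1 : 0 ≤ H ^ ε * b ^ q * M :=
    mul_nonneg (mul_nonneg (Real.rpow_nonneg hH0.le _) (Real.rpow_nonneg hb _)) hM
  have e4 : 4 * (ε / 4) = ε := by ring
  rw [e4] at hn
  have e : H ^ 2 * (G * (H ^ ε * b ^ q * M / H ^ 2)) = G * (H ^ ε * b ^ q * M) := by
    field_simp
  calc H ^ 2 * n ≤ H ^ 2 * (G * (H ^ ε * b ^ q * M / H ^ 2)) :=
        mul_le_mul_of_nonneg_left hn (by positivity)
    _ = G * (H ^ ε * b ^ q * M) := e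
    _ ≤ R * (H ^ ε * b ^ q * M) := mul_le_mul_of_nonneg_right hG h1
    _ = X * b ^ q * M := by rw [h.eX]; ring

theorem Numb.up4 (h : Numb c0 q p A c3 ε R H X Q Z Y) (hM : 0 ≤ M) (hG : G ≤ R)
    (hn : n ≤ G * (H ^ (4 * (ε / 4)) * (1:ℝ) ^ q * M / H ^ 2)) : H ^ 2 * n ≤ X * M := by
  have := h.ball4 (b := 1) zero_le_one hM hG hn
  rwa [Real.one_rpow, mul_one] at this

theorem Numb.capt4 (h : Numb c0 q p A c3 ε R H X Q Z Y) (hM : 0 ≤ M) (hG : G ≤ R)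
    (hn : n ≤ G * (H ^ (4 * (ε / 4)) * (H ^ (-c0)) ^ q * M / H ^ 2)) : Y * H ^ 2 * n ≤ M := by
  have hH0 : 0 < H := by linarith [h.H1]
  have h1 := h.ball4 (Real.rpow_nonneg hH0.le _) hM hG hn
  rw [← Real.rpow_mul hH0.le] at h1
  calc Y * H ^ 2 * n = Y * (H ^ 2 * n) := by ring
    _ ≤ Y * (X * H ^ (-c0 * q) * M) := mul_le_mul_of_nonneg_left h1 h.Y0.le
    _ = (X * H ^ (-(c0 * q)) * Y) * M := by rw [neg_mul]; ring
    _ = M := by rw [h.cap, one_mul]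

theorem Numb.wedge4 (h : Numb c0 q p A c3 ε R H X Q Z Y) (hM : 0 ≤ M) (hG : G ≤ R)
    (hn : n ≤ G * (H ^ (4 * (ε / 4)) * (H ^ (-c3)) ^ q * M / H ^ 2)) :
    8 * (X * H ^ 2 * n) ≤ M := by
  have hH0 : 0 < H := by linarith [h.H1]
  have h1 := h.ball4 (Real.rpow_nonneg hH0.le _) hM hG hn
  rw [← Real.rpow_mul hH0.le] at h1
  calc 8 * (X * H ^ 2 * n) = 8 * (X * (H ^ 2 * n)) := by ring
    _ ≤ 8 * (X * (X * H ^ (-c3 * q) * M)) := by
        have := mul_le_mul_of_nonneg_left h1 h.X0.le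
        linarith
    _ = 8 * (X * (X * H ^ (-(c3 * q)))) * M := by rw [neg_mul]; ring
    _ ≤ 1 * M := mul_le_mul_of_nonneg_right h.gen hM
    _ = M := one_mul M

/-- the bad set of `kmb_num` (called with `ε / 4`) is a small part: `B ≤ H^(-ε/4) H P`, `n ≤ R` ⊢
`n B ≤ P H` -/
theorem Numb.bad (h : Numb c0 q p A c3 ε R H X Q Z Y) {B Pc : ℝ} (hn0 : 0 ≤ n) (hn : n ≤ R)
    (hP : 0 ≤ Pc) (hB : B ≤ H ^ (-(ε / 4)) * H * Pc) : n * B ≤ Pc * H := by
  have hH0 : 0 < H := by linarith [h.H1]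
  have h1 : 0 < H ^ (-(ε / 4)) := Real.rpow_pos_of_pos hH0 _
  have h2 : R * H ^ (-(ε / 4)) ≤ 1 := by
    have := mul_le_mul_of_nonneg_right h.Rε4 h1.le
    rwa [← Real.rpow_add hH0, add_neg_cancel, Real.rpow_zero] at this
  calc n * B ≤ n * (H ^ (-(ε / 4)) * H * Pc) := mul_le_mul_of_nonneg_left hB hn0
    _ ≤ R * (H ^ (-(ε / 4)) * H * Pc) := mul_le_mul_of_nonneg_right hn (by positivity)
    _ = R * H ^ (-(ε / 4)) * (H * Pc) := by ring
    _ ≤ 1 * (H * Pc) := mul_le_mul_of_nonneg_right h2 (by positivity)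
    _ = Pc * H := by ring

end

end Crest.Agent.R136.Bt624
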