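import Crest.Agent.R136.Gen_467
import Crest.Agent.R136.Num_624

/-!
# R136, PLAN 2 (3) (aligned curved pairs): numbers of `hGen` (helper467)

* `gen_num` : the number condition of `wedge_at` from `Numb`;
* `hGen_lit` : `hGen` of `al_end'`.
-/

set_option autoImplicit false
set_option linter.unusedVariables false

open Finset

namespace Crest.Agent.R136.Gen467

open Crest.Agent.R136.Sh605 Crest.Agent.R136.Hcp208
open Crest.Agent.R136.K4 (Plk4)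
open Crest.Agent.R136.Tlt51 (Shp InP)
open Crest.Agent.R136.Pl2W102 (Near Two1)
open Crest.Agent.R136.Alw500 (Mul lbl)
open Crest.Agent.R136.Bt624 (Numb)

/-- **numbers of the wedge** -/
theorem gen_num {c0 q p A c3 ε R H X Q Z Y K B x g β : ℝ} (N : Numb c0 q p A c3 ε R H X Q Z Y)
    (h7 : 7 * c3 ≤ 1) (hK : 1 ≤ K) (hB : 1 ≤ B)
    (hR : 4 * 10 ^ 12 * 13824 ^ 3 * K ^ 17 * B ≤ R) (hx : x ≤ B / H) (hg : g ≤ H ^ (-(7 * c3)))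
    (hβ : β = H ^ (-c3) / 8) :
    2 * 10 ^ 12 * (K ^ 2) ^ 7 * x + 10 ^ 5 * (K ^ 2) ^ 4 * g ≤ (K⁻¹ * β ^ 2 / 216) ^ 3 := by
  have hH1 := N.H1
  have hH0 : 0 < H := by linarith
  have hK0 : 0 < K := by linarith
  set y := H ^ (-c3) with hy
  have hy0 : 0 < y := Real.rpow_pos_of_pos hH0 _
  have e6 : y ^ 6 = H ^ (-(6 * c3)) := by
    rw [hy, ← Real.rpow_natCast, ← Real.rpow_mul hH0.le]; congr 1; push_cast; ring
  have hy6 : 0 < y ^ 6 := by positivity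
  -- the right side
  have er : (K⁻¹ * β ^ 2 / 216) ^ 3 = y ^ 6 / (K ^ 3 * 13824 ^ 3) := by
    rw [hβ]; field_simp; ring
  -- `R * H^(-7 c3) ≤ H^(-6 c3)` and `R / H ≤ H^(-6 c3)`
  have h1 : R * H ^ (-(7 * c3)) ≤ y ^ 6 := by
    calc R * H ^ (-(7 * c3)) ≤ H ^ c3 * H ^ (-(7 * c3)) :=
          mul_le_mul_of_nonneg_right N.Rc3 (Real.rpow_nonneg hH0.le _)
      _ = H ^ (-(6 * c3)) := by rw [← Real.rpow_add hH0]; congr 1; ring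
      _ = y ^ 6 := e6.symm
  have h2 : R / H ≤ y ^ 6 := by
    calc R / H ≤ H ^ c3 / H := div_le_div_of_nonneg_right N.Rc3 hH0.le
      _ = H ^ (c3 - 1) := by rw [Real.rpow_sub hH0, Real.rpow_one]
      _ ≤ H ^ (-(6 * c3)) := Real.rpow_le_rpow_of_exponent_le hH1 (by linarith)
      _ = y ^ 6 := e6.symm
  rw [er, le_div_iff₀ (by positivity)]
  have hK8 : (K ^ 2) ^ 4 * K ^ 3 ≤ K ^ 17 := by
    have : K ^ 11 ≤ K ^ 17 := pow_le_pow_right₀ hK (by norm_num)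
    calc (K ^ 2) ^ 4 * K ^ 3 = K ^ 11 := by ring
      _ ≤ _ := this
  have hR0 : 0 ≤ 4 * 10 ^ 12 * 13824 ^ 3 * K ^ 17 := by positivity
  have hR1 : 4 * 10 ^ 12 * 13824 ^ 3 * K ^ 17 ≤ R := by
    refine le_trans ?_ hR
    exact le_mul_of_one_le_right hR0 hB
  -- first term
  have t1 : 2 * 10 ^ 12 * (K ^ 2) ^ 7 * x * (K ^ 3 * 13824 ^ 3) ≤ y ^ 6 / 2 := by
    calc 2 * 10 ^ 12 * (K ^ 2) ^ 7 * x * (K ^ 3 * 13824 ^ 3)
        = (2 * 10 ^ 12 * 13824 ^ 3 * K ^ 17) * x := by ring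
      _ ≤ (2 * 10 ^ 12 * 13824 ^ 3 * K ^ 17) * (B / H) :=
          mul_le_mul_of_nonneg_left hx (by positivity)
      _ = (4 * 10 ^ 12 * 13824 ^ 3 * K ^ 17 * B) / H / 2 := by ring
      _ ≤ R / H / 2 := by
          apply div_le_div_of_nonneg_right _ (by norm_num)
          exact div_le_div_of_nonneg_right hR hH0.le
      _ ≤ y ^ 6 / 2 := by linarith
  have t2 : 10 ^ 5 * (K ^ 2) ^ 4 * g * (K ^ 3 * 13824 ^ 3) ≤ y ^ 6 / 2 := by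
    have hp : 0 ≤ H ^ (-(7 * c3)) := Real.rpow_nonneg hH0.le _
    calc 10 ^ 5 * (K ^ 2) ^ 4 * g * (K ^ 3 * 13824 ^ 3)
        = (10 ^ 5 * 13824 ^ 3 * ((K ^ 2) ^ 4 * K ^ 3)) * g := by ring
      _ ≤ (10 ^ 5 * 13824 ^ 3 * ((K ^ 2) ^ 4 * K ^ 3)) * H ^ (-(7 * c3)) :=
          mul_le_mul_of_nonneg_left hg (by positivity)
      _ ≤ (2 * 10 ^ 12 * 13824 ^ 3 * K ^ 17) * H ^ (-(7 * c3)) := by
          apply mul_le_mul_of_nonneg_right _ hp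
          calc 10 ^ 5 * 13824 ^ 3 * ((K ^ 2) ^ 4 * K ^ 3) ≤ 10 ^ 5 * 13824 ^ 3 * K ^ 17 :=
                mul_le_mul_of_nonneg_left hK8 (by positivity)
            _ ≤ 2 * 10 ^ 12 * 13824 ^ 3 * K ^ 17 := by
                apply mul_le_mul_of_nonneg_right _ (by positivity)
                norm_num
      _ = (4 * 10 ^ 12 * 13824 ^ 3 * K ^ 17) * H ^ (-(7 * c3)) / 2 := by ring
      _ ≤ R * H ^ (-(7 * c3)) / 2 := by
          apply div_le_div_of_nonneg_right _ (by norm_num)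
          exact mul_le_mul_of_nonneg_right hR1 hp
      _ ≤ y ^ 6 / 2 := by linarith
  have : (2 * 10 ^ 12 * (K ^ 2) ^ 7 * x + 10 ^ 5 * (K ^ 2) ^ 4 * g) * (K ^ 3 * 13824 ^ 3) =
      2 * 10 ^ 12 * (K ^ 2) ^ 7 * x * (K ^ 3 * 13824 ^ 3) +
      10 ^ 5 * (K ^ 2) ^ 4 * g * (K ^ 3 * 13824 ^ 3) := by ring
  rw [this]
  linarith

section two

variable {qm qp : Fin 3 → ℝ} {L : ℕ → Ln4} {P : Finset ℕ} {cu cv : ℕ → ℕ} {Uf Vf : ℕ → Plk4}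
  {W M a w1 w2 z0 ρ r : ℝ}

open Classical in
/-- **`hGen` of `al_end'`** -/
theorem hGen_lit (h : Two1 qm qp L P cu cv Uf Vf W M a w1 w2 z0 ρ r) {H : ℕ} (hH : 1 ≤ H)
    {c0 q p A c3 ε R X Q Z Y : ℝ} (N : Numb c0 q p A c3 ε R H X Q Z Y)
    {B Bad : ℕ × ℕ → Prop} {Gen : ℕ × ℕ → ℕ → Prop}
    (hM : Mul P cv L Vf B z0 ρ w1 w2 W H ((H : ℝ) ^ (-c3))
      ((H : ℝ) ^ (4 * (ε / 4)) * ((H : ℝ) ^ (-c3)) ^ q * M / (H : ℝ) ^ 2))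
    (hB : ∀ p, B p → Bad p) (hR : 2 * (2 * W ^ 3) ^ 6 ≤ R)
    (hw : ∀ t ∈ P, ∀ j < H, ¬ Bad (t, j) → Wedge L cv Vf W z0 ρ ((H : ℝ) ^ (-c3)) H Gen t j) :
    ∀ t ∈ P, ∀ j < H, ¬ Bad (t, j) → 8 * (X * (H : ℝ) ^ 2 * ((P.filter fun s =>
      ¬ Bad (s, j) ∧ cv s = cv t ∧
      lbl Vf L w1 w2 z0 ρ H (cv t) s j = lbl Vf L w1 w2 z0 ρ H (cv t) t j ∧
      ¬ Gen (t, j) s).card : ℝ)) ≤ M := by
  intro t ht j hj hb
  have hW := h.W1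
  have hH0 : (0 : ℝ) < H := by linarith [N.H1]
  have hb0 : 0 ≤ (H : ℝ) ^ (-c3) := Real.rpow_nonneg hH0.le _
  have hm : 0 ≤ (H : ℝ) ^ (4 * (ε / 4)) * ((H : ℝ) ^ (-c3)) ^ q * M / (H : ℝ) ^ 2 := by
    have := h.M0.le
    positivity
  have h1 := hgen_of h hH (Gen := Gen) (K1 := 2 * W ^ 2) (β := (H : ℝ) ^ (-c3)) hm hM hB
    (by nlinarith) le_rfl hb0 (by
      have : W ≤ 2 * W ^ 2 := by nlinarith
      calc (H : ℝ) ^ (-c3) * W ≤ (H : ℝ) ^ (-c3) * (2 * W ^ 2) := mul_le_mul_of_nonneg_left this hb0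
        _ = 2 * W ^ 2 * (H : ℝ) ^ (-c3) := by ring) hw t ht j hj hb
  refine N.wedge4 (G := 2 * (2 * W ^ 3) ^ 6) h.M0.le hR (h1.trans (le_of_eq ?_))
  ring

end two

end Crest.Agent.R136.Gen467
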