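import Crest.Agent.R136.AlN_500
import Crest.Agent.R136.AlK_500
import Crest.Agent.R136.Gen3_467
import Crest.Agent.R136.Hcp3_208
import Crest.Agent.R136.Bk_467
import Crest.Agent.R136.Cfo_877

/-!
# R136 (S0187), PLAN 2 (AL), balanced case: no configuration (helper500)

* `alkFalse_of` : `Cfo877.AlkFalse` from the six leaves of `AlK_500` and `KM32`.
-/

set_option autoImplicit false
set_option linter.unusedVariables false

open Finset

namespace Crest.Agent.R136.Al500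

open Crest.Agent.R136.Sh605
open Crest.Agent.R136.K4 (Plk4)
open Crest.Agent.R136.Tlt51 (Shp InP)
open Crest.Agent.R136.Deep51 (CloseC)
open Crest.Agent.R136.KapP335 (DetP kapP)
open Crest.Agent.R136.Tl102 (angC)
open Crest.Agent.R136.Pl2W102 (Near Ex2 Two1)
open Crest.Agent.R136.Pl2 (Two7 kp)
open Crest.Agent.R136.Rf877 (Tub)
open Crest.Agent.R136.Alw500 (PLh Mul lbl two_swap kmb_two box_two up_of_mul al_end' bad_or)
open Crest.Agent.R136.Gen467 (Wedge hGen_lit kmb_of_mul)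
open Crest.Agent.R136.AlD601 (Nd Sm Gn)
open Crest.Agent.R136.Bt624 (Numb)
open Crest.Agent.R136.Gbx862 (gb)
open Crest.Agent.R138.Tub70 (KM32)

theorem cnst_mono {C D W κ : ℝ} (h1 : 0 ≤ C) (h : C ≤ D) (hW : 1 ≤ W) (hκ : 0 ≤ κ)
    (hD : D * W ^ D * κ ≤ 1) : C * W ^ C * κ ≤ 1 := by
  refine le_trans ?_ hD
  refine mul_le_mul_of_nonneg_right ?_ hκ
  exact mul_le_mul h (Real.rpow_le_rpow_of_exponent_le hW h) (Real.rpow_nonneg (by linarith) _)
    (h1.trans h)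

section

variable {qm qp : Fin 3 → ℝ} {L : ℕ → Ln4} {P : Finset ℕ} {cu cv : ℕ → ℕ} {Uf Vf : ℕ → Plk4}
  {W B M a w1 w2 z0 ρ zL ρL r κ E : ℝ} {H : ℕ}

theorem Cf.al (h : Cf qm qp L P cu cv Uf Vf W B M a w1 w2 z0 ρ zL ρL r κ E H) :
    ∀ t ∈ P, Hcp208.Al W E a w1 w2 z0 ρ r (Uf (cu t)) (Vf (cv t)) (L t) := fun t ht =>
  { K1 := h.W1
    r0 := h.two.to1.r0
    ρ0 := h.two.to1.ρ0
    a0 := h.two.to1.a0
    sh := h.two.to1.shU t ht
    sh' := h.two.to1.shV t ht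
    mem := h.two.to1.inU t ht
    mem' := h.two.to1.inV t ht
    dim := h.dmU t ht
    dim' := h.dmV t ht
    ang := h.ang t ht
    cur := h.kE t ht
    det := h.detU t ht
    far := h.lo t ht }

end

open Classical in
set_option maxHeartbeats 1600000 in
/-- **no configuration** -/
theorem alkFalse_of (hKM : ∀ V : ℝ, KM32 V) (l1 : LeafPL) (l2 : LeafHull) (l3 : LeafNd)
    (l4 : LeafWedge) (l5 : LeafV7) (l6 : LeafV6) : Cfo877.AlkFalse := by
  obtain ⟨c0, hc0, hc01, Ch, hCh, N, hN, hcap⟩ := Hcp208.hcap_gb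
  obtain ⟨C3, h3, L3⟩ := l3
  obtain ⟨C4, h4, L4⟩ := l4
  obtain ⟨C5, h5, L5⟩ := l5
  obtain ⟨C6, h6, L6⟩ := l6
  obtain ⟨c0', η, hc0', hc0'c, hη, key⟩ := nums h3 h4 h5 h6 hc0 (by linarith)
  refine ⟨η, hη, fun qm qp hE => ?_⟩
  obtain ⟨c3, ε, hc3, hε, key⟩ := key qm qp hE
  obtain ⟨C1, h1, L1⟩ := l1 qm qp hE.le
  obtain ⟨C2, h2, L2⟩ := l2 qm qp hE.le
  obtain ⟨Ck, hCk, hkmb⟩ := kmb_two hKM (ε / 4) (by positivity)
  obtain ⟨K, hK, key⟩ := key C1 C2 Ch Ck N h1 h2 hCh hCk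
  refine ⟨C1 + C2 + C3 + C4 + C5 + C6, K, by linarith, hK, ?_⟩
  intro L P cu cv Uf Vf W B M a w1 w2 z0 ρ zL ρL r κ E H hC hκ hH
  have hB : 1 ≤ B := hC.W1.trans hC.WB
  obtain ⟨R, X, Q, Z, Y, x, k, g, n, hQ⟩ := key B H hB hH
  have nb := n.nb
  have to1 := hC.two.to1
  have hκ0 := hC.κ0.le
  have κ1 : C1 * W ^ C1 * κ ≤ 1 := cnst_mono (by linarith) (by linarith) hC.W1 hκ0 hκ
  have κ2 : C2 * W ^ C2 * κ ≤ 1 := cnst_mono (by linarith) (by linarith) hC.W1 hκ0 hκ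
  have κ3 : C3 * W ^ C3 * κ ≤ 1 := cnst_mono (by linarith) (by linarith) hC.W1 hκ0 hκ
  have κ4 : C4 * W ^ C4 * κ ≤ 1 := cnst_mono (by linarith) (by linarith) hC.W1 hκ0 hκ
  have κ5 : C5 * W ^ C5 * κ ≤ 1 := cnst_mono (by linarith) (by linarith) hC.W1 hκ0 hκ
  have κ6 : C6 * W ^ C6 * κ ≤ 1 := cnst_mono (by linarith) (by linarith) hC.W1 hκ0 hκ
  have hH1 : (1 : ℝ) ≤ H := nb.H1
  have hH0 : (0 : ℝ) < H := by linarith
  have hHR : (512 : ℝ) ≤ H := n.R512.trans nb.RH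
  have hHn : 512 ≤ H := by exact_mod_cast hHR
  have hE0 : 0 < E := by linarith [hC.E1]
  have hq0 : 0 ≤ qm 1 + qm 2 := by linarith [(hE.le 1).1, (hE.le 2).1]
  have hM0 := to1.M0
  -- the leaves
  obtain ⟨pl1, pl2⟩ := L1 L P cu cv Uf Vf W B M a w1 w2 z0 ρ zL ρL r κ E H hC κ1
    (n.r2.trans nb.RH)
  obtain ⟨hu1, hu2⟩ := L2 L P cu cv Uf Vf W B M a w1 w2 z0 ρ zL ρL r κ E H hC κ2
    (n.r2'.trans nb.RH)
  obtain ⟨nd1, nd2⟩ := L3 qm qp L P cu cv Uf Vf W B M a w1 w2 z0 ρ zL ρL r κ E H hC κ3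
    (n.r3.trans nb.RH) x x n.x0 n.x1 n.x0 n.x1
  have wd := L4 qm qp L P cu cv Uf Vf W B M a w1 w2 z0 ρ zL ρL r κ E H hC κ4
    (n.r4.trans nb.RH) x x k g ((H : ℝ) ^ (-c3)) n.x0 n.x0 n.k0 n.k1 n.g0
    (Real.rpow_pos_of_pos hH0 _) nb.b31 n.wd
  have v7 := L5 qm qp L P cu cv Uf Vf W B M a w1 w2 z0 ρ zL ρL r κ E H hC κ5
    (n.r5.trans nb.RH) x x k n.x0 n.x0 n.k0 n.v7
  have v6 := L6 qm qp L P cu cv Uf Vf W B M a w1 w2 z0 ρ zL ρL r κ E H hC κ6
    (n.r6.trans nb.RH) x x k g n.x0 n.x0 n.k0 n.k1 n.g0 n.g1 n.v6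
  -- multiplicities
  have hWp : 0 ≤ (C1 * B) ^ C1 * (1 + Real.log H) :=
    mul_nonneg (Real.rpow_nonneg (by nlinarith) _) (by linarith [Real.log_nonneg hH1])
  obtain ⟨B1, hB1, mu1, mu0, mu3, mv1, mv0, mv3⟩ := hkmb qm qp L P cu cv Uf Vf B M a w1 w2 z0 ρ r
    to1 H ((C1 * B) ^ C1 * (1 + Real.log H)) (qm 1 + qm 2) ((H : ℝ) ^ (-c0')) ((H : ℝ) ^ (-c3))
    (by omega) hWp hq0 nb.b0 nb.b01 nb.b3 nb.b31 n.rk pl1 pl2
  -- capture heights
  obtain ⟨s, hs⟩ := hcap P cu cv L Uf Vf W E a w1 w2 z0 ρ r H hC.EH hC.HE (by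
    have h1 : (2 * W) ^ Ch ≤ (2 * B) ^ Ch :=
      Real.rpow_le_rpow (by linarith [hC.W1]) (by linarith [hC.WB]) (by linarith)
    have := n.rh
    have := hC.HE
    linarith) hC.al
  set V : ℕ × ℕ → Prop := fun p => ¬ Nd (Uf (cu p.1)) (Vf (cv p.1)).q z0 ρ H p.2 (L p.1) x x (E * a) ∧
    Sm (Uf (cu p.1)) (Vf (cv p.1)).q z0 ρ H p.2 (L p.1) k (E * a) with hV
  set Cp : ℕ × ℕ → Prop := fun p => ∃ i, |(p.2 : ℝ) / H - s p.1 i| < E ^ (-c0) with hCp
  set Bad : ℕ × ℕ → Prop := fun p => B1 p ∨ (Cp p ∨ V p) with hBad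
  have hBB : ∀ p, B1 p → Bad p := fun p hp => Or.inl hp
  have hW1 := hC.W1
  have hWB := hC.WB
  -- number of bad pairs
  have cB : 16 * (((P ×ˢ range H).filter B1).card : ℝ) ≤ (P.card : ℝ) * H := by
    have h1 := nb.bad (n := 96) (B := (((P ×ˢ range H).filter B1).card : ℝ) / 6)
      (Pc := (P.card : ℝ)) (by norm_num) (by linarith [n.R512]) (Nat.cast_nonneg _) (by
        rw [div_le_iff₀ (by norm_num)]
        linarith)
    linarith
  have cC : 64 * (((P ×ˢ range H).filter Cp).card : ℝ) ≤ (P.card : ℝ) * H := by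
    have h1 := Bk467.capt_bad P H (by omega) s (θ := E ^ (-c0)) (Real.rpow_nonneg hE0.le _)
    have h2 : E ^ (-c0) ≤ 1 / 512 := by
      have h3 : (H / 2 : ℝ) ^ c0 ≤ E ^ c0 :=
        Real.rpow_le_rpow (by positivity) (by linarith [hC.HE]) hc0.le
      rw [Real.rpow_neg hE0.le, ← one_div]
      exact one_div_le_one_div_of_le (by norm_num) (n.big.trans h3)
    have h3 : ((2 : ℕ) : ℝ) * (2 * E ^ (-c0) * H + 1) ≤ H / 64 := by
      have := mul_le_mul_of_nonneg_right h2 hH0.le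
      push_cast
      linarith
    have h4 : (((P ×ˢ range H).filter Cp).card : ℝ) ≤ (P.card : ℝ) * (H / 64) :=
      le_trans (by convert h1) (mul_le_mul_of_nonneg_left h3 (Nat.cast_nonneg _))
    linarith
  have cV : 64 * (((P ×ˢ range H).filter V).card : ℝ) ≤ (P.card : ℝ) * H := by
    have h1 := Bk467.sep_bad P H 16 (by norm_num) (by omega) V (by
      intro t ht i0 i1 i2 hi0 hi1 hi2 g1 g2 b0 b1 b2
      have hh : (1 : ℝ) / H ≤ 1 / 512 := one_div_le_one_div_of_le (by norm_num) hHR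
      push_cast at g1 g2
      refine v7 t ht i0 i1 i2 hi2 (by linarith) (by linarith) ?_
      intro j hj
      rcases hj with rfl | rfl | rfl
      · exact b0
      · exact b1
      · exact b2)
    have e : (4 * ((16 : ℕ) : ℝ)) = 64 := by norm_num
    rw [e] at h1
    convert h1
  have cBad : 4 * (((P ×ˢ range H).filter Bad).card : ℝ) ≤ (P.card : ℝ) * H := by
    have h1 := bad_or P H Cp V (fun p => Cp p ∨ V p) (fun p hp => hp)
      (x := (P.card : ℝ) * H / 64) (y := (P.card : ℝ) * H / 64) (by linarith) (by linarith)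
    have h2 := bad_or P H B1 (fun p => Cp p ∨ V p) Bad (fun p hp => hp)
      (x := (P.card : ℝ) * H / 16) (by linarith) h1
    have : 0 ≤ (P.card : ℝ) * H := by positivity
    linarith
  have eE : E ^ (1 + qp 0) ≤ H * Q := by
    have h1 : E ^ (1 + qp 0) ≤ (H : ℝ) ^ (1 + qp 0) :=
      Real.rpow_le_rpow hE0.le hC.EH (by linarith [(hE.le 0).1, (hE.le 0).2])
    rw [Real.rpow_add hH0, Real.rpow_one, ← hQ] at h1
    exact h1
  have hX0 := nb.X0
  have hQ1 := nb.Q1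
  have hull : ∀ y : ℝ, y ≤ (C2 * B) ^ C2 * E ^ (1 + qp 0) → y ≤ X * Q * H := by
    intro y hy
    have h1 : (C2 * B) ^ C2 ≤ X := n.r2'.trans nb.RX
    calc y ≤ (C2 * B) ^ C2 * E ^ (1 + qp 0) := hy
      _ ≤ X * (H * Q) := mul_le_mul h1 eE (Real.rpow_nonneg hE0.le _) hX0.le
      _ = X * Q * H := by ring
  have hndZ : ∀ y : ℝ, y ≤ (C3 * B / (x * x)) ^ C3 * (1 + Real.log H) * (H : ℝ) ^ 2 →
      y ≤ Z * (H : ℝ) ^ 2 := fun y hy =>
    hy.trans (mul_le_mul_of_nonneg_right n.nd (by positivity))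
  -- one radius at the heights far from the capture heights
  have hGB : (N : ℝ) * (240 * W ^ 7 * B) ^ 6 ≤ R := by
    refine le_trans (mul_le_mul_of_nonneg_left ?_ (Nat.cast_nonneg N)) n.rcap
    have hW0 : 0 ≤ W := by linarith
    have : W ^ 7 ≤ B ^ 7 := pow_le_pow_left₀ hW0 hWB 7
    refine pow_le_pow_left₀ (by positivity) ?_ 6
    exact mul_le_mul_of_nonneg_right (by linarith) (by linarith)
  have hm0 : 0 ≤ (H : ℝ) ^ (4 * (ε / 4)) * ((H : ℝ) ^ (-c0')) ^ (qm 1 + qm 2) * M / (H : ℝ) ^ 2 := by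
    positivity
  obtain ⟨cap1, cap2⟩ := hs Bad ((H : ℝ) ^ (-c0')) ((240 * W ^ 7 * B) ^ 6 *
    ((H : ℝ) ^ (4 * (ε / 4)) * ((H : ℝ) ^ (-c0')) ^ (qm 1 + qm 2) * M / (H : ℝ) ^ 2)) (by
      have h1 := Bt624.b_E (c0 := c0) hE0 hH0 hC.HE hc0.le (by linarith)
      have h2 : (H : ℝ) ^ (-c0) ≤ (H : ℝ) ^ (-c0') :=
        Real.rpow_le_rpow_of_exponent_le hH1 (by linarith)
      linarith) (by
      have hW0 : 0 ≤ W := by linarith
      have hB0 : 0 ≤ B := by linarith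
      positivity)
    (fun t ht j hj i hi => Or.inr (Or.inl ⟨i, hi⟩))
    (kmb_of_mul mu0 hBB (by
      have : 1 ≤ W ^ 7 := one_le_pow₀ hW1
      linarith))
  -- the theorem
  obtain ⟨t, ht, t', ht', j, hj, e1, e2, b1, b2, -, -, n1, n1', n2, hg⟩ :=
    al_end' P cu cv (fun c t j => lbl Uf L w1 w2 z0 ρ H c t j)
      (fun c t j => lbl Vf L w1 w2 z0 ρ H c t j) H Bad (fun _ => False)
      (fun p => Nd (Uf (cu p.1)) (Vf (cv p.1)).q z0 ρ H p.2 (L p.1) x x (E * a))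
      (fun p t' => Nd (Uf (cu p.1)) (Uf (cu t')).q z0 ρ H p.2 (L p.1) x x (E * a))
      (fun p t' => Nd (Uf (cu p.1)) (Vf (cv p.1)).q z0 ρ H p.2 (L p.1) x x (E * a) ∨
        Gn (Uf (cu p.1)) (Vf (cv p.1)).q z0 ρ H p.2 (L p.1) (L t') k g (E * a))
      (M := M) (W := B) (Cb := 25 * B ^ 2) (X := X) (Y := Y) (Q := Q) (Z := Z)
      hM0 hB (by nlinarith) (by omega) (n.rX.trans nb.RX) nb.Y0 (by linarith)
      (by linarith [nb.Z1]) hC.ne
      (fun t ht => by convert to1.fullU t ht)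
      (fun t ht => by convert to1.fullV t ht)
      (fun c j hj => by convert box_two (two_swap to1) (by omega) c j hj)
      (by convert cBad)
      (by simp only [filter_false, card_empty, Nat.cast_zero, mul_zero]; positivity)
      (fun t ht j hj hb => by
        convert up_of_mul to1 (by omega) (mu1.mono hBB) (X := X) (by
          refine nb.up4 (G := (4 * B * B) ^ 6) hM0.le n.rup ?_
          rw [Real.one_rpow, mul_one]) t ht j hj hb)
      (fun t ht j hj hb => by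
        convert up_of_mul (two_swap to1) (by omega) (mv1.mono hBB) (X := X) (by
          refine nb.up4 (G := (4 * B * B) ^ 6) hM0.le n.rup ?_
          rw [Real.one_rpow, mul_one]) t ht j hj hb)
      (fun t ht j hj hb => by
        refine nb.capt4 (G := (N : ℝ) * (240 * W ^ 7 * B) ^ 6) hM0.le hGB ?_
        rw [mul_assoc (N : ℝ)]
        convert cap1 t ht j hj hb
        all_goals rfl)
      (fun t ht j hj hb => by
        refine nb.capt4 (G := (N : ℝ) * (240 * W ^ 7 * B) ^ 6) hM0.le hGB ?_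
        rw [mul_assoc (N : ℝ)]
        convert cap2 t ht j hj hb
        all_goals rfl)
      (fun c => hull _ (by convert hu1 c))
      (fun c T hT => hull _ (hu2 c T fun c1 hc1 => by
        obtain ⟨t, ht, t', ht', j, hj, a1, a2, a3, -⟩ := hT c1 hc1
        exact ⟨t, ht, t', ht', a1, a2, a3⟩))
      (fun c c' T hT => hndZ _ (nd1 c c' T fun y hy => by
        obtain ⟨t, ht, a1, a2, a3, a4, a5, a6⟩ := hT y hy
        exact ⟨t, ht, a1, a2, a3, a4, a6⟩))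
      (fun c c1 T hT => hndZ _ (nd2 c c1 T fun y hy => by
        obtain ⟨t, ht, t', ht', a1, a2, a3, a4, a5, a6, a7, a8, a9⟩ := hT y hy
        exact ⟨t, ht, t', ht', a1, a2, a3, a4, a5, a6, a9⟩))
      (fun t ht j hj hb => by
        convert hGen_lit to1 (by omega) nb mv3 hBB (by
          have e : 2 * (2 * B ^ 3) ^ 6 = 2 * (2 * B ^ 2 * B) ^ 6 := by ring
          rw [e]; exact n.rgen)
          (fun t ht j hj _ => wd t ht j hj) t ht j hj hb)
      nb.num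
  have s1 : ¬ Sm (Uf (cu t)) (Vf (cv t)).q z0 ρ H j (L t) k (E * a) := fun hh =>
    b1 (Or.inr (Or.inr ⟨n1, hh⟩))
  have s2 : ¬ Sm (Uf (cu t')) (Vf (cv t')).q z0 ρ H j (L t') k (E * a) := fun hh =>
    b2 (Or.inr (Or.inr ⟨n1', hh⟩))
  have hG : Gn (Uf (cu t)) (Vf (cv t)).q z0 ρ H j (L t) (L t') k g (E * a) :=
    hg.resolve_left n1
  exact v6 t ht t' ht' j hj e1 e2 n1 n1' n2 s1 s2 hG

end Crest.Agent.R136.Al500
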