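import Crest.Agent.R136.Sh6_605

/-!
# R136 (U5 TILT), helper705: replacement of a thin chart by an affine cigar

A sheet whose chart width `w 0` is at most `K a` is contained in the flat sheet of thickness `K a`
with the same axes around the same centre line (widths enlarged to at least `K a`).
-/

set_option autoImplicit false
set_option linter.unusedVariables false

namespace Crest.Agent.R136.Cig705

open Crest.Agent.R136.Sh605

/-- the affine function of the centre line -/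
def qaf (e : Fin 3 → V3) (c : Ln4) : ℝ → V3 → ℝ := fun z x => dt (e 0) (x - c.pos z)

/-- half-widths of the affine cigar -/
noncomputable def wcig (w : V3) (A : ℝ) : V3 := ![max (w 2) A, max (w 1) A, max (w 2) A]

theorem qaf_add (e : Fin 3 → V3) (c : Ln4) (z : ℝ) (x : V3) (τ : ℝ) (u : V3) :
    qaf e c z (x + τ • u) - qaf e c z x = τ * dt (e 0) u := by
  simp only [qaf, dt, Pi.sub_apply, Pi.add_apply, Pi.smul_apply, smul_eq_mul]
  ring

theorem qaf_isQ (e : Fin 3 → V3) (c : Ln4) : IsQ (qaf e c) := by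
  refine ⟨-(dt (e 0) c.p), -(dt (e 0) c.v), 0, e 0, 0, 0, fun z x => ?_⟩
  simp only [qaf, dt, Pi.sub_apply, Ln4.pos, Fin.sum_univ_three, Pi.zero_apply]
  ring

/-- the lines of the sheet lie in the affine cigar -/
theorem in_cig {e : Fin 3 → V3} {c : Ln4} {w : V3} {q : ℝ → V3 → ℝ} {a z0 ρ A : ℝ}
    (h0 : w 0 ≤ A) (h02 : w 0 ≤ w 2) {t : Ln4} (h : InSheet t e c w q a z0 ρ) :
    InSheet t e c (wcig w A) (qaf e c) A z0 ρ := by
  intro z hz hz'
  obtain ⟨h1, -⟩ := h z hz hz'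
  refine ⟨fun k => ?_, (h1 0).trans h0⟩
  fin_cases k
  · exact (h1 0).trans (h02.trans (le_max_left _ _))
  · exact (h1 1).trans (le_max_left _ _)
  · exact (h1 2).trans (le_max_left _ _)

/-- the affine cigar is a cigar -/
theorem cig_ShN0 {e : Fin 3 → V3} (he : Ortho e) (c : Ln4) {w : V3} {A z0 ρ r0 : ℝ} (hA : 0 < A)
    (hr : r0 ≤ A) (hw : w 2 ≤ w 1) : ShN0 e c (wcig w A) (qaf e c) A z0 ρ r0 where
  ortho := he
  isQ := qaf_isQ e c
  w0_eq := rfl
  a_le := le_max_right _ _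
  w_le := max_le_max_right _ hw
  r0_le := hr
  st0 := by
    intro z _ _ x τ hτ _ _
    have h := he 0 0
    rw [if_pos rfl] at h
    rw [qaf_add, h, mul_one]
    constructor <;> linarith
  st1 := by
    intro z _ _ x τ hτ _ _
    have h := he 0 1
    rw [if_neg (by decide)] at h
    rw [qaf_add, h, mul_zero, abs_zero]
    have p2 : 0 < wcig w A 2 := lt_of_lt_of_le hA (le_max_right _ _)
    have p1 : 0 < wcig w A 1 := lt_of_lt_of_le hA (le_max_right _ _)
    exact mul_nonneg (div_pos p2 p1).le hτ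
  st2 := by
    intro z _ _ x τ hτ _ _
    have h := he 0 2
    rw [if_neg (by decide)] at h
    rw [qaf_add, h, mul_zero, abs_zero]
    exact hτ

/-- the affine cigar is a sheet -/
theorem cig_ShN {e : Fin 3 → V3} (he : Ortho e) (c : Ln4) {w : V3} {A z0 ρ r0 : ℝ} (hA : 0 < A)
    (hr : r0 ≤ A) (hw : w 2 ≤ w 1) : ShN e c (wcig w A) (qaf e c) A z0 ρ r0 :=
  (cig_ShN0 he c hA hr hw).toN

/-- half-widths of the affine plank -/
noncomputable def wpl (w : V3) (A : ℝ) : V3 := ![A, max (w 1) A, max (w 2) A]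

/-- the lines of the sheet lie in the affine plank (half-height = thickness = `A`) -/
theorem in_pl {e : Fin 3 → V3} {c : Ln4} {w : V3} {q : ℝ → V3 → ℝ} {a z0 ρ A : ℝ}
    (h0 : w 0 ≤ A) {t : Ln4} (h : InSheet t e c w q a z0 ρ) :
    InSheet t e c (wpl w A) (qaf e c) A z0 ρ := by
  intro z hz hz'
  obtain ⟨h1, -⟩ := h z hz hz'
  refine ⟨fun k => ?_, (h1 0).trans h0⟩
  fin_cases k
  · exact (h1 0).trans h0
  · exact (h1 1).trans (le_max_left _ _)
  · exact (h1 2).trans (le_max_left _ _)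

/-- the affine plank is a sheet -/
theorem pl_ShN {e : Fin 3 → V3} (he : Ortho e) (c : Ln4) {w : V3} {A z0 ρ r0 : ℝ} (hA : 0 < A)
    (hr : r0 ≤ A) (hw : w 2 ≤ w 1) : ShN e c (wpl w A) (qaf e c) A z0 ρ r0 where
  ortho := he
  isQ := qaf_isQ e c
  a_le0 := le_refl A
  w0_le := le_max_right _ _
  w_le := max_le_max_right _ hw
  r0_le := hr
  st0 := by
    intro z _ _ x τ hτ _ _
    have h := he 0 0
    rw [if_pos rfl] at h
    rw [qaf_add, h, mul_one]
    constructor <;> linarith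
  sl1 := by
    intro z _ _ x τ hτ _ _
    have h := he 0 1
    rw [if_neg (by decide)] at h
    rw [qaf_add, h, mul_zero, abs_zero]
    have p1 : 0 < wpl w A 1 := lt_of_lt_of_le hA (le_max_right _ _)
    exact mul_nonneg (div_pos hA p1).le hτ
  sl2 := by
    intro z _ _ x τ hτ _ _
    have h := he 0 2
    rw [if_neg (by decide)] at h
    rw [qaf_add, h, mul_zero, abs_zero]
    have p2 : 0 < wpl w A 2 := lt_of_lt_of_le hA (le_max_right _ _)
    exact mul_nonneg (div_pos hA p2).le hτ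

/-- widths of the affine cigar -/
theorem wcig_le {w : V3} {a K : ℝ} (hK : 1 ≤ K) (ha : 0 ≤ a) (h2 : a ≤ w 2) (h1 : w 2 ≤ w 1) :
    wcig w (K * a) 1 ≤ K * w 1 ∧ wcig w (K * a) 2 ≤ K * w 2 := by
  have hw2 : 0 ≤ w 2 := ha.trans h2
  have hw1 : 0 ≤ w 1 := hw2.trans h1
  have k1 : w 1 ≤ K * w 1 := le_mul_of_one_le_left hw1 hK
  have k2 : w 2 ≤ K * w 2 := le_mul_of_one_le_left hw2 hK
  have k0 : 0 ≤ K := zero_le_one.trans hK
  exact ⟨max_le k1 (mul_le_mul_of_nonneg_left (h2.trans h1) k0),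
    max_le k2 (mul_le_mul_of_nonneg_left h2 k0)⟩

/-- value of the affine cigar -/
theorem cig_val {w : V3} {a K : ℝ} (hK : 1 ≤ K) (ha : 0 ≤ a) (h2 : a ≤ w 2) (h1 : w 2 ≤ w 1) :
    K * a * wcig w (K * a) 2 * wcig w (K * a) 1 ≤ K ^ 3 * (a * w 2 * w 1) := by
  obtain ⟨e1, e2⟩ := wcig_le hK ha h2 h1
  have hw2 : 0 ≤ w 2 := ha.trans h2
  have k0 : 0 ≤ K := zero_le_one.trans hK
  have p1 : 0 ≤ wcig w (K * a) 1 := (mul_nonneg k0 ha).trans (le_max_right _ _)
  have p2 : 0 ≤ wcig w (K * a) 2 := (mul_nonneg k0 ha).trans (le_max_right _ _)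
  calc K * a * wcig w (K * a) 2 * wcig w (K * a) 1
      ≤ K * a * (K * w 2) * (K * w 1) := by
        refine mul_le_mul (mul_le_mul_of_nonneg_left e2 (mul_nonneg k0 ha)) e1 p1 ?_
        exact mul_nonneg (mul_nonneg k0 ha) (mul_nonneg k0 hw2)
    _ = K ^ 3 * (a * w 2 * w 1) := by ring

/-- **thin sheets** (`w 0 ≤ K a`) are replaced by the affine cigar of thickness `K a` -/
theorem thin_repl {e : Fin 3 → V3} {c : Ln4} {w : V3} {q : ℝ → V3 → ℝ} {a z0 ρ r0 K : ℝ}
    (S : ShN e c w q a z0 ρ r0) (ha : 0 < a) (hK : 1 ≤ K) (h : w 0 ≤ K * a) :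
    ShN0 e c (wcig w (K * a)) (qaf e c) (K * a) z0 ρ r0 ∧
      (∀ t, InSheet t e c w q a z0 ρ → InSheet t e c (wcig w (K * a)) (qaf e c) (K * a) z0 ρ) ∧
      w 1 ≤ wcig w (K * a) 1 ∧ wcig w (K * a) 1 ≤ K * w 1 ∧
      w 2 ≤ wcig w (K * a) 2 ∧ wcig w (K * a) 2 ≤ K * w 2 ∧
      K * a * wcig w (K * a) 2 * wcig w (K * a) 1 ≤ K ^ 3 * (a * w 2 * w 1) := by
  have hKa : a ≤ K * a := le_mul_of_one_le_left ha.le hK
  obtain ⟨e1, e2⟩ := wcig_le hK ha.le S.a_le S.w_le
  exact ⟨cig_ShN0 S.ortho c (ha.trans_le hKa) (S.r0_le.trans hKa) S.w_le,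
    fun t ht => in_cig h S.w0_le ht, le_max_left _ _, e1, le_max_left _ _, e2,
    cig_val hK ha.le S.a_le S.w_le⟩

end Crest.Agent.R136.Cig705
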