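import Crest.Agent.R136.Rnd_289
import Crest.Agent.R136.Cig_705

/-!
# R136, block U4 (helper823): D-max at all natural levels, part 1 (finite)

`shrink_cover` : the lines of a sheet of the class `ShN` over `[z0, z0 + ρ]` (widths `≤ ρ`) restricted
to a shorter window `[z0', z0' + ρ']`, `ρ ≤ N ρ'`: a `1 / (2 N + 1)^6` part lies in a `ShN`-sheet over
the short window with the widths `min (w i) ρ'` and the thickness `min a ρ'`.
-/

set_option autoImplicit false
set_option linter.unusedVariables false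

open Finset

namespace Crest.Agent.R136.AllD823

open Sh605 UB289 Rnd289 Cig705

noncomputable section

theorem window {e : Fin 3 → V3} {c : Ln4} {w : V3} {q : ℝ → V3 → ℝ} {a z0 ρ r0 z0' ρ' : ℝ}
    (h : ShN e c w q a z0 ρ r0) (h0 : z0 ≤ z0') (h1 : z0' + ρ' ≤ z0 + ρ) :
    ShN e c w q a z0' ρ' r0 :=
  { ortho := h.ortho, isQ := h.isQ, a_le0 := h.a_le0, w0_le := h.w0_le, w_le := h.w_le
    r0_le := h.r0_le
    st0 := fun z hz hz' => h.st0 z (h0.trans hz) (hz'.trans h1)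
    sl1 := fun z hz hz' => h.sl1 z (h0.trans hz) (hz'.trans h1)
    sl2 := fun z hz hz' => h.sl2 z (h0.trans hz) (hz'.trans h1) }

theorem window_mem {t : Ln4} {e : Fin 3 → V3} {c : Ln4} {w : V3} {q : ℝ → V3 → ℝ}
    {a z0 ρ z0' ρ' : ℝ} (h : InSheet t e c w q a z0 ρ) (h0 : z0 ≤ z0')
    (h1 : z0' + ρ' ≤ z0 + ρ) : InSheet t e c w q a z0' ρ' :=
  fun z hz hz' => h z (h0.trans hz) (hz'.trans h1)

/-- a point close to `u` is at distance `≤ w'` from the clamped `u` -/
theorem clp_closeN {w w' u t μ : ℝ} (h1 : w' ≤ w) (h2 : μ ≤ w') (hu : |u| ≤ w) (ht : |t| ≤ w)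
    (htu : |t - u| ≤ μ) : |t - clp (w - w') u| ≤ w' := by
  unfold clp
  rw [abs_le] at hu ht htu ⊢
  rcases le_total (w - w') u with h3 | h3
  · rw [min_eq_left h3, max_eq_right (by linarith)]
    constructor <;> linarith
  · rw [min_eq_right h3]
    rcases le_total (-(w - w')) u with h4 | h4
    · rw [max_eq_right h4]
      constructor <;> linarith
    · rw [max_eq_left h4]
      constructor <;> linarith

theorem ctl_closeN {e : Fin 3 → V3} (he : Ortho e) {c : Ln4} {w w' : V3} {z0 ρ κ : ℝ} (hρ : 0 < ρ)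
    (hw : ∀ i, w' i ≤ w i) (hw8 : ∀ i, κ * w i ≤ w' i) {y t : Ln4}
    (hy0 : ∀ i, |crd e c y z0 i| ≤ w i) (hy1 : ∀ i, |crd e c y (z0 + ρ) i| ≤ w i)
    (ht0 : ∀ i, |crd e c t z0 i| ≤ w i) (ht1 : ∀ i, |crd e c t (z0 + ρ) i| ≤ w i)
    (c0 : ∀ i, |dt (e i) (t.pos z0 - y.pos z0)| ≤ κ * w i)
    (c1 : ∀ i, |dt (e i) (t.pos (z0 + ρ) - y.pos (z0 + ρ))| ≤ κ * w i)
    {z : ℝ} (h0 : z0 ≤ z) (h1 : z ≤ z0 + ρ) (i : Fin 3) :
    |dt (e i) (t.pos z - (ctl e c w w' z0 ρ y).pos z)| ≤ w' i := by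
  have k0 := c0 i
  have k1 := c1 i
  rw [crd_sub e c t y] at k0 k1
  have g0 := clp_closeN (hw i) (hw8 i) (hy0 i) (ht0 i) k0
  have g1 := clp_closeN (hw i) (hw8 i) (hy1 i) (ht1 i) k1
  rw [crd_sub e c t]
  unfold ctl
  rw [cen_crd he c hρ, crd_affine e c t hρ z i]
  have e1 : (crd e c t z0 i * (z0 + ρ - z) + crd e c t (z0 + ρ) i * (z - z0)) / ρ -
      (clp (w i - w' i) (crd e c y z0 i) * (z0 + ρ - z) +
        clp (w i - w' i) (crd e c y (z0 + ρ) i) * (z - z0)) / ρ =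
      ((crd e c t z0 i - clp (w i - w' i) (crd e c y z0 i)) * (z0 + ρ - z) +
        (crd e c t (z0 + ρ) i - clp (w i - w' i) (crd e c y (z0 + ρ) i)) * (z - z0)) / ρ := by
    ring
  rw [e1]
  exact conv_abs hρ h0 h1 g0 g1

/-- the widths over the short window -/
def wm (w : V3) (ρ' : ℝ) : V3 := fun i => min (w i) ρ'

/-- smaller widths, same function -/
theorem small_sheet {e : Fin 3 → V3} {c : Ln4} {w w' : V3} {q : ℝ → V3 → ℝ} {a z0 ρ r0 : ℝ}
    (S : ShN e c w q a z0 ρ r0) (hρ : 0 < ρ) (hw : ∀ i, w' i ≤ w i) (hp : ∀ i, 0 < w' i)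
    (ha : a ≤ w' 0) (h02 : w' 0 ≤ w' 2) (h21 : w' 2 ≤ w' 1) (r1 : w 0 * w' 1 ≤ w' 0 * w 1)
    (r2 : w 0 * w' 2 ≤ w' 0 * w 2) (y : Ln4) :
    ShN e (ctl e c w w' z0 ρ y) w' q a z0 ρ r0 := by
  have hq : ∀ i, 0 < w i := fun i => (hp i).trans_le (hw i)
  have hin : ∀ {z : ℝ} {x : V3}, z0 ≤ z → z ≤ z0 + ρ →
      InK e (ctl e c w w' z0 ρ y) (dbl3 w') z x → InK e c (dbl3 w) z x := by
    intro z x h0 h1 hx i
    have g1 := hx i
    have g2 := ctl_abs (c := c) S.ortho hρ hw y h0 h1 i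
    have g3 := hw i
    have e1 : dt (e i) (x - c.pos z) = dt (e i) (x - (ctl e c w w' z0 ρ y).pos z) +
        crd e c (ctl e c w w' z0 ρ y) z i := by
      simp only [crd, dt, Pi.sub_apply]; ring
    rw [e1]
    refine (abs_add_le _ _).trans ?_
    unfold dbl3 at g1 ⊢
    linarith
  refine ⟨S.ortho, S.isQ, ha, h02, h21, S.r0_le, ?_, ?_, ?_⟩
  · intro z h0 h1 x τ hτ hx hx'
    exact S.st0 z h0 h1 x τ hτ (hin h0 h1 hx) (hin h0 h1 hx')
  · intro z h0 h1 x τ hτ hx hx'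
    refine (S.sl1 z h0 h1 x τ hτ (hin h0 h1 hx) (hin h0 h1 hx')).trans
      (mul_le_mul_of_nonneg_right ?_ hτ)
    rw [div_le_div_iff₀ (hq 1) (hp 1)]
    exact r1
  · intro z h0 h1 x τ hτ hx hx'
    refine (S.sl2 z h0 h1 x τ hτ (hin h0 h1 hx) (hin h0 h1 hx')).trans
      (mul_le_mul_of_nonneg_right ?_ hτ)
    rw [div_le_div_iff₀ (hq 2) (hp 2)]
    exact r2

theorem min_slope {u v s : ℝ} (hs : 0 < s) (hu : 0 < u) (huv : u ≤ v) :
    u * min v s ≤ min u s * v := by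
  rcases le_total u s with h | h
  · rw [min_eq_left h]
    exact mul_le_mul_of_nonneg_left (min_le_left _ _) hu.le
  · rw [min_eq_right h, min_eq_right (h.trans huv), mul_comm]
    exact mul_le_mul_of_nonneg_left huv hs.le

open Classical in
/-- **shrinking of the window** -/
theorem shrink_cover {ι : Type} {e : Fin 3 → V3} {c : Ln4} {w : V3} {q : ℝ → V3 → ℝ}
    {a z0 ρ r0 z0' ρ' : ℝ} (S : ShN e c w q a z0 ρ r0) (hr : 0 < r0) (hρ' : 0 < ρ')
    (h0 : z0 ≤ z0') (h1 : z0' + ρ' ≤ z0 + ρ) (hw1 : w 1 ≤ ρ) (hr' : r0 ≤ ρ') {N : ℕ}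
    (hN : ρ ≤ N * ρ') (L : ι → Ln4) (T : Finset ι)
    (hT : ∀ t ∈ T, InSheet (L t) e c w q a z0 ρ) :
    ∃ (c' : Ln4) (q' : ℝ → V3 → ℝ), ShN e c' (wm w ρ') q' (min a ρ') z0' ρ' r0 ∧
      (T.card : ℝ) ≤ (2 * N + 1) ^ 6 *
        ((T.filter fun t => InSheet (L t) e c' (wm w ρ') q' (min a ρ') z0' ρ').card : ℝ) := by
  classical
  have pa : 0 < a := hr.trans_le S.r0_le
  have p0 : 0 < w 0 := pa.trans_le S.a_le0
  have p2 : 0 < w 2 := p0.trans_le S.w0_le
  have p1 : 0 < w 1 := p2.trans_le S.w_le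
  have hwp : ∀ i, 0 < w i := by
    intro i; fin_cases i
    · exact p0
    · exact p1
    · exact p2
  have hwle : ∀ i, w i ≤ w 1 := by
    intro i; fin_cases i
    · exact S.w0_le.trans S.w_le
    · exact le_rfl
    · exact S.w_le
  have hρ : 0 < ρ := p1.trans_le hw1
  have hNp : 0 < N := by
    rcases Nat.eq_zero_or_pos N with h | h
    · rw [h, Nat.cast_zero, zero_mul] at hN; linarith
    · exact h
  have hNR : (0:ℝ) < N := by exact_mod_cast hNp
  have hmp : ∀ i, 0 < wm w ρ' i := fun i => lt_min (hwp i) hρ'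
  have hml : ∀ i, wm w ρ' i ≤ w i := fun i => min_le_left _ _
  have hmk : ∀ i, 1 / (N:ℝ) * w i ≤ wm w ρ' i := by
    intro i
    have hN1 : (1:ℝ) ≤ N := by exact_mod_cast hNp
    rw [one_div, inv_mul_le_iff₀ hNR]
    unfold wm
    rcases le_total (w i) ρ' with h | h
    · rw [min_eq_left h]
      nlinarith [hwp i]
    · rw [min_eq_right h]
      exact ((hwle i).trans hw1).trans hN
  have hms0 : wm w ρ' 0 ≤ wm w ρ' 2 := min_le_min_right _ S.w0_le
  have hms2 : wm w ρ' 2 ≤ wm w ρ' 1 := min_le_min_right _ S.w_le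
  have S' := window S h0 h1
  have hT' : ∀ t ∈ T, InSheet (L t) e c w q a z0' ρ' := fun t ht => window_mem (hT t ht) h0 h1
  rcases T.eq_empty_or_nonempty with hTe | hne
  · -- no lines
    have hc : ∀ y, ShN e (ctl e c w (wm w ρ') z0' ρ' y) (wm w ρ') (qaf e c) (min a ρ') z0' ρ' r0 := by
      intro y
      refine ⟨S.ortho, qaf_isQ e c, min_le_min_right _ S.a_le0, hms0, hms2, le_min S.r0_le hr',
        ?_, ?_, ?_⟩
      · intro z _ _ x τ hτ _ _
        have h := S.ortho 0 0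
        rw [if_pos rfl] at h
        rw [qaf_add, h, mul_one]
        constructor <;> linarith
      · intro z _ _ x τ hτ _ _
        have h := S.ortho 0 1
        rw [if_neg (by decide)] at h
        rw [qaf_add, h, mul_zero, abs_zero]
        exact mul_nonneg (div_pos (hmp 0) (hmp 1)).le hτ
      · intro z _ _ x τ hτ _ _
        have h := S.ortho 0 2
        rw [if_neg (by decide)] at h
        rw [qaf_add, h, mul_zero, abs_zero]
        exact mul_nonneg (div_pos (hmp 0) (hmp 2)).le hτ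
    refine ⟨_, _, hc c, ?_⟩
    rw [hTe, card_empty, Nat.cast_zero]
    positivity
  -- popular class
  set P := (Fintype.piFinset fun _ : Fin 3 => Icc (-(N:ℤ)) N) ×ˢ
      (Fintype.piFinset fun _ : Fin 3 => Icc (-(N:ℤ)) N) with hP
  have hPc : (P.card : ℝ) = (2 * N + 1) ^ 6 := by
    rw [hP, code_card]; push_cast; ring
  have hmap : ∀ t ∈ T, code e c w (1 / N) z0' (z0' + ρ') (L t) ∈ P :=
    fun t ht => code_mem hρ'.le hNp hwp (hT' t ht)
  have hPne : P.Nonempty := by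
    obtain ⟨t, ht⟩ := hne
    exact ⟨_, hmap t ht⟩
  have hPpos : (0:ℝ) < (2 * N + 1) ^ 6 := by positivity
  obtain ⟨b, hb, hb2⟩ := Finset.exists_le_card_fiber_of_nsmul_le_card_of_maps_to (s := T)
    (t := P) (f := fun t => code e c w (1 / N) z0' (z0' + ρ') (L t))
    (b := (T.card : ℝ) / (2 * N + 1) ^ 6)
    hmap hPne (by
      rw [nsmul_eq_mul, hPc, mul_div_cancel₀]
      exact hPpos.ne')
  rw [div_le_iff₀ hPpos] at hb2
  have hpos : (0:ℝ) < T.card := by exact_mod_cast card_pos.2 hne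
  have hfne : (T.filter fun t => code e c w (1 / N) z0' (z0' + ρ') (L t) = b).Nonempty := by
    rw [← card_pos]
    by_contra hn
    have h0 : (T.filter fun t => code e c w (1 / N) z0' (z0' + ρ') (L t) = b).card = 0 := by omega
    rw [h0, Nat.cast_zero, zero_mul] at hb2
    linarith
  obtain ⟨y, hy⟩ := hfne
  rw [mem_filter] at hy
  have hInK : ∀ t ∈ T, code e c w (1 / N) z0' (z0' + ρ') (L t) = b → ∀ z, z0' ≤ z →
      z ≤ z0' + ρ' → InK e (ctl e c w (wm w ρ') z0' ρ' (L y)) (wm w ρ') z ((L t).pos z) := by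
    intro t ht hc z hz hz' i
    obtain ⟨c0, c1⟩ := code_close (κ := 1 / (N:ℝ)) (by positivity) hwp (hc.trans hy.2.symm)
    exact ctl_closeN S.ortho hρ' hml hmk (hT' y hy.1 z0' le_rfl (by linarith)).1
      (hT' y hy.1 (z0' + ρ') (by linarith) le_rfl).1 (hT' t ht z0' le_rfl (by linarith)).1
      (hT' t ht (z0' + ρ') (by linarith) le_rfl).1 c0 c1 hz hz' i
  rcases le_total a ρ' with haρ | haρ
  · -- the same function
    refine ⟨ctl e c w (wm w ρ') z0' ρ' (L y), q, ?_, ?_⟩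
    · rw [min_eq_left haρ]
      exact small_sheet S' hρ' hml hmp (le_min S.a_le0 haρ) hms0 hms2
        (min_slope hρ' p0 (S.w0_le.trans S.w_le)) (min_slope hρ' p0 S.w0_le) (L y)
    · refine hb2.trans ?_
      rw [mul_comm]
      refine mul_le_mul_of_nonneg_left (Nat.cast_le.2 (card_le_card fun t ht => ?_)) hPpos.le
      rw [mem_filter] at ht ⊢
      refine ⟨ht.1, fun z hz hz' => ⟨hInK t ht.1 ht.2 z hz hz', ?_⟩⟩
      rw [min_eq_left haρ]
      exact (hT' t ht.1 z hz hz').2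
  · -- thick sheet: cubes
    set c' := ctl e c w (wm w ρ') z0' ρ' (L y) with hc'
    have e0 : wm w ρ' 0 = ρ' := min_eq_right (haρ.trans S.a_le0)
    refine ⟨c', qaf e c', ?_, ?_⟩
    · refine ⟨S.ortho, qaf_isQ e c', min_le_min_right _ S.a_le0, hms0, hms2, le_min S.r0_le hr',
        ?_, ?_, ?_⟩
      · intro z _ _ x τ hτ _ _
        have h := S.ortho 0 0
        rw [if_pos rfl] at h
        rw [qaf_add, h, mul_one]
        constructor <;> linarith
      · intro z _ _ x τ hτ _ _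
        have h := S.ortho 0 1
        rw [if_neg (by decide)] at h
        rw [qaf_add, h, mul_zero, abs_zero]
        exact mul_nonneg (div_pos (hmp 0) (hmp 1)).le hτ
      · intro z _ _ x τ hτ _ _
        have h := S.ortho 0 2
        rw [if_neg (by decide)] at h
        rw [qaf_add, h, mul_zero, abs_zero]
        exact mul_nonneg (div_pos (hmp 0) (hmp 2)).le hτ
    · refine hb2.trans ?_
      rw [mul_comm]
      refine mul_le_mul_of_nonneg_left (Nat.cast_le.2 (card_le_card fun t ht => ?_)) hPpos.le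
      rw [mem_filter] at ht ⊢
      refine ⟨ht.1, fun z hz hz' => ⟨hInK t ht.1 ht.2 z hz hz', ?_⟩⟩
      rw [min_eq_right haρ]
      have := hInK t ht.1 ht.2 z hz hz' 0
      rw [e0] at this
      exact this

end

end Crest.Agent.R136.AllD823
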