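import Mathlib
import Crest.Agent.R136.Dia1_770

/-!
# R136 (helper770): refinement and extension of marked sequences with finitely many levels

* `mk_diag_ev` : the final diagonal from eventual finite stages.
* `MkS.refine` : a dense part of an `MkS` contains a dense part which is again an `MkS`.
* `MkS.insert` : one more marked level.
* `full_own`   : full shading between level `0` and `1` gives full shading between all levels.
-/

set_option autoImplicit false
set_option linter.unusedVariables false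
set_option linter.unusedSectionVars false

open Finset Filter Topology

namespace Crest.Agent.R136.Dia770

open Crest.Agent.R138.Ex926 Crest.Agent.R138.Dp76 Crest.Agent.R138.Ps627
open Crest.Agent.R138.Mk163 (zc zl rho alive own)
open Crest.Agent.R138.MkRef627 (lc kc own_one alive_mono mem_alive card_class own_lower hh hh_even
  hh_odd exists_num)
open MkA627 (Geo MkA ampA)

variable {σ κ : Type*}

/-- **FINAL DIAGONAL from eventual stages.** -/
theorem mk_diag_ev [Finite κ] (B : ℕ → Base) (I : ℕ → ℕ → Finset (ℕ × ℝ)) (G : ℕ → Geo σ κ)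
    (lev : ℕ → ℕ → ℚ → ℕ) (A : ℕ → ℕ → ℝ) (g : ℝ) (θ : κ → ℝ) (f : ℕ → ℕ → ℚ → ℕ → ℤ → ℕ)
    (b : ℕ → ℕ → ℚ → ℕ → σ) (vm : ℕ → ℕ → ℚ → ℝ) (w : ℕ → κ → ℕ → ℚ → ℝ) (wd : κ → σ → ℝ)
    (hwd : ∀ K, (G K).wid = wd) (S : ℕ → Finset ℚ) (e : ℕ → ℝ)
    (hA : ∀ K n, 0 < A K n) (he : Tendsto e atTop (𝓝 0))
    (hS : ∀ v : ℚ, 0 ≤ v → v ≤ 1 → ∀ᶠ K in atTop, v ∈ S K)
    (h : ∀ K, ∀ᶠ n in (U : Filter ℕ), Stage ((B K).d n) (I K n) ((G K).mem n) ((G K).adm n)
      ((G K).val n) (G K).wid (lev K n) (A K n) g θ (f K n) (b K n) (vm K n)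
      (fun j v => w K j n v) (S K) (e K))
    (extra : ℕ → ℕ → Prop) (hx : ∀ K, ∀ᶠ n in (U : Filter ℕ), extra K n) :
    ∃ (sel : ℕ → ℕ) (hsel : ∀ K, (B K).d (sel K) ≤ 1 / ((K : ℝ) + 1)),
      (∀ K, extra K (sel K)) ∧
      MkA (diaB B sel hsel) (fun K => I K (sel K)) (diaG G wd sel) (fun K => lev K (sel K))
        (fun K => A K (sel K)) (fun v => g * v) (fun _ => 0) (fun j v => θ j * (1 - v))
        (fun K => f K (sel K)) (fun K => b K (sel K)) (fun K => vm K (sel K))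
        (fun j K => w K j (sel K)) := by
  have key : ∀ K, ∃ n, (B K).d n ≤ 1 / ((K : ℝ) + 1) ∧ extra K n ∧
      Stage ((B K).d n) (I K n) ((G K).mem n) ((G K).adm n) ((G K).val n) (G K).wid (lev K n)
        (A K n) g θ (f K n) (b K n) (vm K n) (fun j v => w K j n v) (S K) (e K) := by
    intro K
    have hpos : (0:ℝ) < 1 / ((K : ℝ) + 1) := by positivity
    have h2 : ∀ᶠ n in (U : Filter ℕ), (B K).d n ≤ 1 / ((K : ℝ) + 1) :=
      ((B K).lim0.eventually (Iio_mem_nhds hpos)).mono fun n hn => le_of_lt hn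
    obtain ⟨n, hn⟩ := ((h K).and (h2.and (hx K))).exists
    exact ⟨n, hn.2.1, hn.2.2, hn.1⟩
  choose sel h1 h2 h3 using key
  refine ⟨sel, h1, h2, ?_⟩
  refine mkA_of_stages (S := S) (ε := e) (fun K => hA K _) he hS
    (Eventually.of_forall fun K => ?_)
  have h4 := h3 K
  rw [hwd K] at h4
  exact h4

section

variable {B : Base} {I : ℕ → Finset (ℕ × ℝ)} {G : Geo σ κ} {lev : ℕ → ℚ → ℕ} {A : ℕ → ℝ} {g : ℝ}
  {θ : κ → ℝ} {f : ℕ → ℚ → ℕ → ℤ → ℕ} {b : ℕ → ℚ → ℕ → σ} {vm : ℕ → ℚ → ℝ} {w : κ → ℕ → ℚ → ℝ}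
  {S : Finset ℚ} {e : ℝ}

open Classical in
/-- trivial upper bound for own counts, sequence form. -/
theorem own_upper (B : Base) (I : ℕ → Finset (ℕ × ℝ)) {l1 l2 : ℕ → ℕ} {t : ℝ}
    (hmono : ∀ᶠ n in (U : Filter ℕ), l1 n ≤ l2 n)
    (hlim : Tendsto (fun n => ((l2 n : ℝ) - l1 n) * Real.log 2 / B.L n) U (𝓝 t))
    {ε : ℝ} (hε : 0 < ε) :
    ∀ᶠ n in (U : Filter ℕ), ∀ x, ((own (I n) (l1 n) (l2 n) x).card : ℝ) ≤ B.d n ^ (-t - ε) := by
  have h1 : ∀ᶠ n in (U : Filter ℕ), ((l2 n : ℝ) - l1 n) * Real.log 2 / B.L n < t + ε :=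
    hlim.eventually (Iio_mem_nhds (by linarith))
  filter_upwards [hmono, h1] with n hm h2 x
  have h6 : ((own (I n) (l1 n) (l2 n) x).card : ℝ) ≤ 2 ^ (l2 n - l1 n) := by
    exact_mod_cast own_le (I n) hm x
  refine h6.trans ?_
  have hL := B.L_pos n
  have h8 : ((l2 n : ℝ) - l1 n) * Real.log 2 ≤ (t + ε) * B.L n := by
    rw [div_lt_iff₀ hL] at h2; exact h2.le
  have e1 : (2:ℝ) ^ (l2 n - l1 n) = Real.exp (((l2 n : ℝ) - l1 n) * Real.log 2) := by
    rw [← Nat.cast_sub hm, ← Real.log_pow, Real.exp_log (by positivity)]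
  have e2 : B.d n ^ (-t - ε) = Real.exp ((t + ε) * B.L n) := by
    rw [Real.rpow_def_of_pos (B.pos n)]
    congr 1
    unfold Base.L; ring
  rw [e1, e2]
  exact Real.exp_le_exp.2 h8

open Classical in
/-- incidence counts of (line, cell) pairs. -/
theorem MkS.fib (h : MkS B I G lev A g θ f b vm w S e) (h1S : (1:ℚ) ∈ S) (hS1 : ∀ v ∈ S, v ≤ 1)
    {v : ℚ} (hv : v ∈ S) {ε : ℝ} (hε : 0 < ε) :
    ∀ᶠ n in (U : Filter ℕ), ∀ x ∈ I n,
      B.d n ^ (-(1 - (v : ℝ)) + ε) ≤
        (((I n).filter fun y => lc (lev n v) y = lc (lev n v) x).card : ℝ) ∧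
      (((I n).filter fun y => lc (lev n v) y = lc (lev n v) x).card : ℝ) ≤
        B.d n ^ (-(1 - (v : ℝ)) - ε) := by
  have a1 := h.own v hv 1 h1S (hS1 v hv) ε hε
  have a2 := own_upper B I (h.lev_mono v hv 1 h1S (hS1 v hv)) (h.lev_lim v hv 1 h1S (hS1 v hv)) hε
  filter_upwards [a1, a2, h.one] with n hn hn2 hone x hx
  have h2 := hn x hx
  have h3 := hn2 x
  have e1 : ((1 : ℚ) : ℝ) = 1 := by norm_num
  rw [own_one hone] at h2 h3
  rw [e1] at h2 h3
  exact ⟨h2, h3⟩

open Classical in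
/-- **a part which keeps its (line, cell) and (class, cell) fibres is again an `MkS`.** -/
theorem MkS.of_fib (h : MkS B I G lev A g θ f b vm w S e) (h1S : (1:ℚ) ∈ S)
    (hS1 : ∀ v ∈ S, v ≤ 1) {J' : ℕ → Finset (ℕ × ℝ)}
    (hsub : ∀ n, J' n ⊆ I n) (hne : ∀ᶠ n in (U : Filter ℕ), (J' n).Nonempty)
    (fl : ∀ v ∈ S, ∀ ε : ℝ, 0 < ε → ∀ᶠ n in (U : Filter ℕ), ∀ x ∈ J' n,
      B.d n ^ ε * (((I n).filter fun y => lc (lev n v) y = lc (lev n v) x).card : ℝ) ≤
        (((J' n).filter fun y => lc (lev n v) y = lc (lev n v) x).card : ℝ))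
    (fk : ∀ v ∈ S, ∀ ε : ℝ, 0 < ε → ∀ᶠ n in (U : Filter ℕ), ∀ x ∈ J' n,
      B.d n ^ ε * (((I n).filter fun y => kc (lev n v) (f n v) y = kc (lev n v) (f n v) x).card : ℝ)
        ≤ (((J' n).filter fun y => kc (lev n v) (f n v) y = kc (lev n v) (f n v) x).card : ℝ)) :
    MkS B J' G lev A g θ f b vm w S e := by
  refine
    { ne := hne
      card := ?_
      Apos := h.Apos
      lev_mono := h.lev_mono
      lev_lim := h.lev_lim
      cell0 := by
        filter_upwards [h.cell0] with n hn x hx y hy using hn x ((hsub n) hx) y ((hsub n) hy)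
      one := by
        filter_upwards [h.one] with n hn x hx y hy using hn x ((hsub n) hx) y ((hsub n) hy)
      own := ?_
      dmax := ?_
      mark := ?_
      near := ?_
      vpos := h.vpos
      wpos := h.wpos
      tau := h.tau }
  · intro ε hε
    filter_upwards [h.card ε hε, hne] with n hn hne
    refine le_trans (Real.log_le_log (by exact_mod_cast card_pos.2 hne)
      (by exact_mod_cast card_le_card (hsub n))) hn
  · intro u hu v hv huv ε hε
    have hε3 : 0 < ε / 3 := by linarith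
    filter_upwards [h.fib h1S hS1 hu hε3, h.fib h1S hS1 hv hε3, fl u hu (ε / 3) hε3] with
      n h2 h3 h4 x hx
    have h5 := own_lower (J := J' n) (i := lev n u) (j := lev n v) (x := x)
      (m := B.d n ^ (-(1 - (v : ℝ)) - ε / 3)) (fun y hy =>
        le_trans (by exact_mod_cast card_le_card (filter_subset_filter _ (hsub n)))
          (h3 y ((hsub n) hy)).2) hx
    have h6 := (mul_le_mul_of_nonneg_left (h2 x ((hsub n) hx)).1 (dpow_pos B n (ε / 3)).le).trans
      ((h4 x hx).trans h5)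
    rw [← dpow_add] at h6
    have hp := dpow_pos B n (-(1 - (v : ℝ)) - ε / 3)
    rw [← div_le_iff₀' hp, ← Real.rpow_sub (B.pos n)] at h6
    refine le_trans (le_of_eq ?_) h6
    congr 1; ring
  · intro v hv ε hε
    filter_upwards [h.dmax v hv ε hε] with n hn J s hs
    refine le_trans ?_ (hn J s hs)
    exact_mod_cast card_le_card (filter_subset_filter _ (alive_mono (hsub n) _ _))
  · intro v hv
    filter_upwards [h.mark v hv] with n hn J t ht
    exact hn J t (alive_mono (hsub n) _ _ ht)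
  · intro v hv ε hε
    have hε4 : 0 < ε / 4 := by linarith
    filter_upwards [h.near v hv (ε / 4) hε4, h.fib h1S hS1 hv hε4, fk v hv (ε / 4) hε4]
      with n h1 h2 h3 J t ht
    obtain ⟨x, hx, hx1, hx2⟩ := mem_alive.1 ht
    have hxI := (hsub n) hx
    have h4 := h1 J t (alive_mono (hsub n) _ _ ht)
    set a : ℕ := f n v t J with ha
    have kI : ∀ K : Finset (ℕ × ℝ), (K.filter fun y => kc (lev n v) (f n v) y =
        kc (lev n v) (f n v) x) = K.filter fun y => (lc (lev n v) y).2 = J ∧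
          f n v (lc (lev n v) y).1 J = a := by
      intro K
      ext y
      rw [mem_filter, mem_filter]
      simp only [kc, lc, Prod.mk.injEq, hx1, hx2, ← ha]
      constructor
      · rintro ⟨h5, h6, h7⟩
        exact ⟨h5, h7, by rw [← h7]; exact h6⟩
      · rintro ⟨h5, h7, h6⟩
        exact ⟨h5, by rw [h7]; exact h6, h7⟩
    set m₁ : ℝ := B.d n ^ (-(1 - (v : ℝ)) + ε / 4) with hm₁
    set m₂ : ℝ := B.d n ^ (-(1 - (v : ℝ)) - ε / 4) with hm₂
    have p1 : m₁ * (((alive (I n) (lev n v) J).filter fun s => f n v s J = a).card : ℝ) ≤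
        (((I n).filter fun y => kc (lev n v) (f n v) y = kc (lev n v) (f n v) x).card : ℝ) := by
      rw [card_class (I n) (lev n v) J (fun s => f n v s J) a, kI (I n)]
      have := mul_card_filter_le (n₁ := m₁) (lc (lev n v)) (I n)
        (fun o => o.2 = J ∧ f n v o.1 J = a) (fun y hy => by convert (h2 y hy).1)
      convert this
    have p2 : (((J' n).filter fun y => kc (lev n v) (f n v) y = kc (lev n v) (f n v) x).card : ℝ) ≤
        m₂ * (((alive (J' n) (lev n v) J).filter fun s => f n v s J = a).card : ℝ) := by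
      rw [card_class (J' n) (lev n v) J (fun s => f n v s J) a, kI (J' n)]
      have h7 : ∀ y ∈ J' n, (((J' n).filter fun z => lc (lev n v) z = lc (lev n v) y).card : ℝ) ≤
          m₂ := by
        intro y hy
        have h6 := card_le_card (filter_subset_filter (fun z => lc (lev n v) z = lc (lev n v) y)
          (hsub n))
        have h8 : (((J' n).filter fun z => lc (lev n v) z = lc (lev n v) y).card : ℝ) ≤
          (((I n).filter fun z => lc (lev n v) z = lc (lev n v) y).card : ℝ) := by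
          exact_mod_cast h6
        exact h8.trans (h2 y ((hsub n) hy)).2
      have := card_filter_le_mul (n₂ := m₂) (lc (lev n v)) (J' n)
        (fun o => o.2 = J ∧ f n v o.1 J = a) (fun y hy => by convert h7 y hy)
      convert this
    have p3 := h3 x hx
    set NI : ℝ := (((alive (I n) (lev n v) J).filter fun s => f n v s J = a).card : ℝ) with hNI
    set NJ : ℝ := (((alive (J' n) (lev n v) J).filter fun s => f n v s J = a).card : ℝ) with hNJ
    have p4 : B.d n ^ (ε / 4) * (m₁ * NI) ≤ m₂ * NJ :=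
      (mul_le_mul_of_nonneg_left p1 (dpow_pos B n _).le).trans (p3.trans p2)
    have p5 : NI ≤ B.d n ^ (-(3 * (ε / 4))) * NJ := by
      have hpos : 0 < B.d n ^ (ε / 4) * m₁ := mul_pos (dpow_pos B n _) (dpow_pos B n _)
      have h7 : m₂ = B.d n ^ (-(3 * (ε / 4))) * (B.d n ^ (ε / 4) * m₁) := by
        rw [hm₁, hm₂, ← dpow_add, ← dpow_add]; congr 1; ring
      rw [h7] at p4
      have h8 : (B.d n ^ (ε / 4) * m₁) * NI ≤ (B.d n ^ (ε / 4) * m₁) *
          (B.d n ^ (-(3 * (ε / 4))) * NJ) := by linarith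
      exact le_of_mul_le_mul_left h8 hpos
    refine h4.trans ?_
    have h9 : B.d n ^ (-ε) = B.d n ^ (-(ε / 4)) * B.d n ^ (-(3 * (ε / 4))) := by
      rw [← dpow_add]; congr 1; ring
    rw [h9, mul_assoc]
    exact mul_le_mul_of_nonneg_left p5 (dpow_pos B n _).le

open Classical in
/-- **refinement**, with extra fibre maps `k` which keep their fibres. -/
theorem MkS.refine' (h : MkS B I G lev A g θ f b vm w S e) (h1S : (1:ℚ) ∈ S)
    (hS1 : ∀ v ∈ S, v ≤ 1) {J : ℕ → Finset (ℕ × ℝ)} (hJ : Dense B J I) :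
    ∃ J' : ℕ → Finset (ℕ × ℝ), (∀ n, J' n ⊆ J n) ∧ Dense B J' J ∧
      (∀ᶠ n in (U : Filter ℕ), ((J n).card : ℝ) ≤ 2 * ((J' n).card : ℝ)) ∧
      MkS B J' G lev A g θ f b vm w S e := by
  obtain ⟨J', hsub, hhalf, hfib⟩ := prune_seq (η := fun _ _ => ℕ × ℤ) hJ (hh lev f)
  have hJ'J : Dense B J' J := dense_of_half (by
    filter_upwards [hhalf] with n hn using ⟨(hsub n).1, hn⟩)
  have hJ'I : Dense B J' I := hJ'J.trans hJ
  have fl : ∀ v : ℚ, ∀ ε : ℝ, 0 < ε → ∀ᶠ n in (U : Filter ℕ), ∀ x ∈ J' n,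
      B.d n ^ ε * (((I n).filter fun y => lc (lev n v) y = lc (lev n v) x).card : ℝ) ≤
        (((J' n).filter fun y => lc (lev n v) y = lc (lev n v) x).card : ℝ) := by
    intro v ε hε
    obtain ⟨j, rfl⟩ := exists_num v
    filter_upwards [hfib (2 * j) ε hε] with n hn x hx
    have := hn x hx
    simp only [hh_even] at this
    exact this
  have fk : ∀ v : ℚ, ∀ ε : ℝ, 0 < ε → ∀ᶠ n in (U : Filter ℕ), ∀ x ∈ J' n,
      B.d n ^ ε * (((I n).filter fun y => kc (lev n v) (f n v) y = kc (lev n v) (f n v) x).card : ℝ)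
        ≤ (((J' n).filter fun y => kc (lev n v) (f n v) y = kc (lev n v) (f n v) x).card : ℝ) := by
    intro v ε hε
    obtain ⟨j, rfl⟩ := exists_num v
    filter_upwards [hfib (2 * j + 1) ε hε] with n hn x hx
    have := hn x hx
    simp only [hh_odd] at this
    exact this
  exact ⟨J', fun n => (hsub n).1, hJ'J, hhalf, h.of_fib h1S hS1 (fun n => (hsub n).2)
    (hJ'I.nonempty h.ne) (fun v _ => fl v) (fun v _ => fk v)⟩

/-- **refinement of an `MkS`.** -/
theorem MkS.refine (h : MkS B I G lev A g θ f b vm w S e) (h1S : (1:ℚ) ∈ S)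
    (hS1 : ∀ v ∈ S, v ≤ 1) {J : ℕ → Finset (ℕ × ℝ)} (hJ : Dense B J I) :
    ∃ J' : ℕ → Finset (ℕ × ℝ), (∀ n, J' n ⊆ J n) ∧ Dense B J' J ∧
      MkS B J' G lev A g θ f b vm w S e := by
  obtain ⟨J', h1, h2, -, h4⟩ := h.refine' h1S hS1 hJ
  exact ⟨J', h1, h2, h4⟩

end

end Crest.Agent.R136.Dia770
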