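import Mathlib
import Crest.Agent.R136.Dia2_770

/-!
# R136 (helper770): one more marked level; full shading at all levels

* `near_step` : finite: near-maximal classes survive a pruning.
* `MkS.insert` : one more marked level below all levels of `S`.
* `prune_all` : finite pruning of all fibres with absolute thresholds.
* `full_own`  : full shading between two levels gives, on every dense part, a dense part with full
  shading from every intermediate level on.
-/

set_option autoImplicit false
set_option linter.unusedVariables false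
set_option linter.unusedSectionVars false

open Finset Filter Topology

namespace Crest.Agent.R136.Dia770

open Crest.Agent.R138.Ex926 Crest.Agent.R138.Dp76 Crest.Agent.R138.Ps627
open Crest.Agent.R138.Mk163 (zc zl rho alive own)
open Crest.Agent.R138.MkRef627 (lc kc own_one alive_mono mem_alive card_class own_lower hh hh_even
  hh_odd exists_num)
open MkA627 (Geo MkA ampA)

variable {σ κ : Type*}

open Classical in
/-- classes survive a pruning: finite form. -/
theorem near_step {I J' : Finset (ℕ × ℝ)} {i : ℕ} {φ : ℕ → ℤ → ℕ} (hsub : J' ⊆ I) {m₁ m₂ c : ℝ}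
    (hc : 0 ≤ c)
    (hlo : ∀ y ∈ I, m₁ ≤ ((I.filter fun z => lc i z = lc i y).card : ℝ))
    (hup : ∀ y ∈ I, ((I.filter fun z => lc i z = lc i y).card : ℝ) ≤ m₂)
    (hk : ∀ x ∈ J', c * ((I.filter fun y => kc i φ y = kc i φ x).card : ℝ) ≤
      ((J'.filter fun y => kc i φ y = kc i φ x).card : ℝ)) (J : ℤ) (t : ℕ) (ht : t ∈ alive J' i J) :
    c * (m₁ * (((alive I i J).filter fun s => φ s J = φ t J).card : ℝ)) ≤
      m₂ * (((alive J' i J).filter fun s => φ s J = φ t J).card : ℝ) := by
  obtain ⟨x, hx, hx1, hx2⟩ := mem_alive.1 ht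
  have hxI := hsub hx
  set a : ℕ := φ t J with ha
  have kI : ∀ K : Finset (ℕ × ℝ), (K.filter fun y => kc i φ y = kc i φ x) =
      K.filter fun y => (lc i y).2 = J ∧ φ (lc i y).1 J = a := by
    intro K
    ext y
    rw [mem_filter, mem_filter]
    simp only [kc, lc, Prod.mk.injEq, hx1, hx2, ← ha]
    constructor
    · rintro ⟨h5, h6, h7⟩
      exact ⟨h5, h7, by rw [← h7]; exact h6⟩
    · rintro ⟨h5, h7, h6⟩
      exact ⟨h5, by rw [h7]; exact h6, h7⟩
  have p1 : m₁ * (((alive I i J).filter fun s => φ s J = a).card : ℝ) ≤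
      ((I.filter fun y => kc i φ y = kc i φ x).card : ℝ) := by
    rw [card_class I i J (fun s => φ s J) a, kI I]
    have := mul_card_filter_le (n₁ := m₁) (lc i) I
      (fun o => o.2 = J ∧ φ o.1 J = a) (fun y hy => by convert hlo y hy)
    convert this
  have p2 : ((J'.filter fun y => kc i φ y = kc i φ x).card : ℝ) ≤
      m₂ * (((alive J' i J).filter fun s => φ s J = a).card : ℝ) := by
    rw [card_class J' i J (fun s => φ s J) a, kI J']
    have h7 : ∀ y ∈ J', ((J'.filter fun z => lc i z = lc i y).card : ℝ) ≤ m₂ := by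
      intro y hy
      have h6 := card_le_card (filter_subset_filter (fun z => lc i z = lc i y) hsub)
      have h8 : ((J'.filter fun z => lc i z = lc i y).card : ℝ) ≤
        ((I.filter fun z => lc i z = lc i y).card : ℝ) := by
        exact_mod_cast h6
      exact h8.trans (hup y (hsub hy))
    have := card_filter_le_mul (n₂ := m₂) (lc i) J'
      (fun o => o.2 = J ∧ φ o.1 J = a) (fun y hy => by convert h7 y hy)
    convert this
  exact (mul_le_mul_of_nonneg_left p1 hc).trans ((hk x hx).trans p2)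

section

variable {B : Base} {I : ℕ → Finset (ℕ × ℝ)} {G : Geo σ κ} {lev : ℕ → ℚ → ℕ} {A : ℕ → ℝ} {g : ℝ}
  {θ : κ → ℝ} {f : ℕ → ℚ → ℕ → ℤ → ℕ} {b : ℕ → ℚ → ℕ → σ} {vm : ℕ → ℚ → ℝ} {w : κ → ℕ → ℚ → ℝ}
  {S : Finset ℚ} {e : ℝ}

open Classical in
/-- **one more marked level** below all levels of `S`. -/
theorem MkS.insertLev (h : MkS B I G lev A g θ f b vm w S e) (h1S : (1:ℚ) ∈ S)
    (hS1 : ∀ v ∈ S, v ≤ 1) {u : ℚ} (hu : ∀ v ∈ S, u < v) {J : ℕ → Finset (ℕ × ℝ)} (hJ : Dense B J I)
    (lu : ℕ → ℕ) (fu : ℕ → ℕ → ℤ → ℕ) (bu : ℕ → ℕ → σ) (vmu : ℕ → ℝ) (wu : κ → ℕ → ℝ)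
    (hmono : ∀ v ∈ S, ∀ᶠ n in (U : Filter ℕ), lu n ≤ lev n v)
    (hlim : ∀ v ∈ S, Tendsto (fun n => ((lev n v : ℝ) - lu n) * Real.log 2 / B.L n) U
      (𝓝 ((v : ℝ) - u)))
    (hcell : u = 0 → ∀ᶠ n in (U : Filter ℕ), ∀ x ∈ J n, ∀ y ∈ J n, zc (lu n) x.2 = zc (lu n) y.2)
    (hown : ∀ ε : ℝ, 0 < ε → ∀ᶠ n in (U : Filter ℕ), ∀ x ∈ J n,
      B.d n ^ (-(1 - (u : ℝ)) + ε) ≤ ((Crest.Agent.R138.Mk163.own (J n) (lu n) (lev n 1) x).card : ℝ))
    (hdmax : ∀ ε : ℝ, 0 < ε → ∀ᶠ n in (U : Filter ℕ), ∀ c : ℤ, ∀ s : σ,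
      G.adm n (lu n) c s →
        (((alive (J n) (lu n) c).filter fun t => G.mem n (lu n) c s t).card : ℝ) ≤
          B.d n ^ (-ε) * (A n * B.d n ^ (-(g * u))) * G.val n (lu n) c s)
    (hmark : ∀ᶠ n in (U : Filter ℕ), ∀ c : ℤ, ∀ t ∈ alive (J n) (lu n) c,
      G.mem n (lu n) c (bu n (fu n t c)) t ∧ G.adm n (lu n) c (bu n (fu n t c)) ∧
      G.val n (lu n) c (bu n (fu n t c)) = vmu n ∧ ∀ j, G.wid j (bu n (fu n t c)) = wu j n)
    (hnear : ∀ ε : ℝ, 0 < ε → ∀ᶠ n in (U : Filter ℕ), ∀ c : ℤ, ∀ t ∈ alive (J n) (lu n) c,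
      (A n * B.d n ^ (-(g * u))) * vmu n ≤ B.d n ^ (-ε) *
        (((alive (J n) (lu n) c).filter fun s => fu n s c = fu n t c).card : ℝ))
    (hvpos : ∀ᶠ n in (U : Filter ℕ), 0 < vmu n)
    (hwpos : ∀ j, ∀ᶠ n in (U : Filter ℕ), 0 < wu j n)
    (htau : ∀ j, ∀ᶠ n in (U : Filter ℕ),
      |Real.log ((rho (lu n) / wu j n) / (rho (lev n 1) / w j n 1)) / B.L n - θ j * (1 - u)| ≤ e) :
    ∃ J' : ℕ → Finset (ℕ × ℝ), (∀ n, J' n ⊆ J n) ∧ Dense B J' J ∧
      MkS B J' G (fun n => Function.update (lev n) u (lu n)) A g θ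
        (fun n => Function.update (f n) u (fu n)) (fun n => Function.update (b n) u (bu n))
        (fun n => Function.update (vm n) u (vmu n)) (fun j n => Function.update (w j n) u (wu j n))
        (insert u S) e := by
  have hu1 : u < 1 := hu 1 h1S
  have huS : ∀ v ∈ S, v ≠ u := fun v hv => (hu v hv).ne'
  set lev' : ℕ → ℚ → ℕ := fun n => Function.update (lev n) u (lu n) with hlev'
  set f' : ℕ → ℚ → ℕ → ℤ → ℕ := fun n => Function.update (f n) u (fu n) with hf'
  have levS : ∀ n, ∀ v, v ≠ u → lev' n v = lev n v := fun n v hv => Function.update_of_ne hv _ _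
  have levu : ∀ n, lev' n u = lu n := fun n => Function.update_self _ _ _
  have fS : ∀ n, ∀ v, v ≠ u → f' n v = f n v := fun n v hv => Function.update_of_ne hv _ _
  have fuu : ∀ n, f' n u = fu n := fun n => Function.update_self _ _ _
  obtain ⟨J', hsub, hhalf, hfib⟩ := prune_seq (η := fun _ _ => ℕ × ℤ) hJ (hh lev' f')
  have hJ'J : Dense B J' J := dense_of_half (by
    filter_upwards [hhalf] with n hn using ⟨(hsub n).1, hn⟩)
  have hJ'I : Dense B J' I := hJ'J.trans hJ
  have fl : ∀ v : ℚ, ∀ ε : ℝ, 0 < ε → ∀ᶠ n in (U : Filter ℕ), ∀ x ∈ J' n,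
      B.d n ^ ε * (((I n).filter fun y => lc (lev' n v) y = lc (lev' n v) x).card : ℝ) ≤
        (((J' n).filter fun y => lc (lev' n v) y = lc (lev' n v) x).card : ℝ) := by
    intro v ε hε
    obtain ⟨j, rfl⟩ := exists_num v
    filter_upwards [hfib (2 * j) ε hε] with n hn x hx
    have := hn x hx
    simp only [hh_even] at this
    exact this
  have fk : ∀ v : ℚ, ∀ ε : ℝ, 0 < ε → ∀ᶠ n in (U : Filter ℕ), ∀ x ∈ J' n,
      B.d n ^ ε * (((I n).filter fun y => kc (lev' n v) (f' n v) y =
        kc (lev' n v) (f' n v) x).card : ℝ)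
        ≤ (((J' n).filter fun y => kc (lev' n v) (f' n v) y = kc (lev' n v) (f' n v) x).card : ℝ) := by
    intro v ε hε
    obtain ⟨j, rfl⟩ := exists_num v
    filter_upwards [hfib (2 * j + 1) ε hε] with n hn x hx
    have := hn x hx
    simp only [hh_odd] at this
    exact this
  have hS : MkS B J' G lev A g θ f b vm w S e := by
    refine h.of_fib h1S hS1 (fun n => (hsub n).2) (hJ'I.nonempty h.ne) ?_ ?_
    · intro v hv ε hε
      filter_upwards [fl v ε hε] with n hn x hx
      have := hn x hx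
      rwa [levS n v (huS v hv)] at this
    · intro v hv ε hε
      filter_upwards [fk v ε hε] with n hn x hx
      have := hn x hx
      rwa [levS n v (huS v hv), fS n v (huS v hv)] at this
  -- fibres of level `u`
  have one' : ∀ᶠ n in (U : Filter ℕ), ∀ x ∈ J' n, ∀ y ∈ J' n, x.1 = y.1 →
      zc (lev n 1) x.2 = zc (lev n 1) y.2 → x = y := hS.one
  have fibJ : ∀ ε : ℝ, 0 < ε → ∀ᶠ n in (U : Filter ℕ), ∀ x ∈ J n, x ∈ I n →
      B.d n ^ (-(1 - (u : ℝ)) + ε) ≤
        (((J n).filter fun y => lc (lu n) y = lc (lu n) x).card : ℝ) ∧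
      (((J n).filter fun y => lc (lu n) y = lc (lu n) x).card : ℝ) ≤
        B.d n ^ (-(1 - (u : ℝ)) - ε) := by
    intro ε hε
    have a2 := own_upper B J (hmono 1 h1S) (hlim 1 h1S) hε
    filter_upwards [hown ε hε, a2, h.one, hJ.1] with n hn hn2 hone hJI x hx hxI
    have h2 := hn x hx
    have h3 := hn2 x
    have e1 : ((1 : ℚ) : ℝ) = 1 := by norm_num
    have hone' : ∀ x ∈ J n, ∀ y ∈ J n, x.1 = y.1 → zc (lev n 1) x.2 = zc (lev n 1) y.2 → x = y :=
      fun x hx y hy => hone x (hJI hx) y (hJI hy)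
    rw [own_one hone'] at h2 h3
    rw [e1] at h3
    exact ⟨h2, h3⟩
  have fibu : ∀ ε : ℝ, 0 < ε → ∀ᶠ n in (U : Filter ℕ), ∀ x ∈ J' n,
      B.d n ^ (-(1 - (u : ℝ)) + ε) ≤
        (((J' n).filter fun y => lc (lu n) y = lc (lu n) x).card : ℝ) ∧
      (((J' n).filter fun y => lc (lu n) y = lc (lu n) x).card : ℝ) ≤
        B.d n ^ (-(1 - (u : ℝ)) - ε) := by
    intro ε hε
    have hε2 : 0 < ε / 2 := by linarith
    filter_upwards [fibJ (ε / 2) hε2, fibJ ε hε, fl u (ε / 2) hε2, hJ.1] with n h1 h2 h3 hJI x hx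
    have hxJ := (hsub n).1 hx
    have hxI := (hsub n).2 hx
    constructor
    · have h4 := h3 x hx
      rw [levu] at h4
      have h5 : (((J n).filter fun y => lc (lu n) y = lc (lu n) x).card : ℝ) ≤
          (((I n).filter fun y => lc (lu n) y = lc (lu n) x).card : ℝ) := by
        exact_mod_cast card_le_card (filter_subset_filter _ hJI)
      have h6 : B.d n ^ (-(1 - (u : ℝ)) + ε) =
          B.d n ^ (ε / 2) * B.d n ^ (-(1 - (u : ℝ)) + ε / 2) := by
        rw [← dpow_add]; congr 1; ring
      rw [h6]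
      exact (mul_le_mul_of_nonneg_left ((h1 x hxJ hxI).1.trans h5) (dpow_pos B n _).le).trans h4
    · refine le_trans ?_ (h2 x hxJ hxI).2
      exact_mod_cast card_le_card (filter_subset_filter _ (hsub n).1)
  -- fibres of all levels
  have fiba : ∀ v ∈ insert u S, ∀ ε : ℝ, 0 < ε → ∀ᶠ n in (U : Filter ℕ), ∀ x ∈ J' n,
      B.d n ^ (-(1 - (v : ℝ)) + ε) ≤
        (((J' n).filter fun y => lc (lev' n v) y = lc (lev' n v) x).card : ℝ) ∧
      (((J' n).filter fun y => lc (lev' n v) y = lc (lev' n v) x).card : ℝ) ≤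
        B.d n ^ (-(1 - (v : ℝ)) - ε) := by
    intro v hv ε hε
    rcases Finset.mem_insert.1 hv with rfl | hv
    · filter_upwards [fibu ε hε] with n hn x hx
      rw [levu]
      exact hn x hx
    · filter_upwards [hS.fib h1S hS1 hv hε] with n hn x hx
      rw [levS n v (huS v hv)]
      exact hn x hx
  refine ⟨J', fun n => (hsub n).1, hJ'J, ?_⟩
  refine
    { ne := hS.ne
      card := hS.card
      Apos := hS.Apos
      lev_mono := ?_
      lev_lim := ?_
      cell0 := ?_
      one := ?_
      own := ?_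
      dmax := ?_
      mark := ?_
      near := ?_
      vpos := ?_
      wpos := ?_
      tau := ?_ }
  · intro u1 h1 v1 h2 huv
    rcases Finset.mem_insert.1 h1 with rfl | h1'
    · rcases Finset.mem_insert.1 h2 with rfl | h2'
      · exact Eventually.of_forall fun n => le_rfl
      · filter_upwards [hmono v1 h2'] with n hn
        change lev' n u1 ≤ lev' n v1
        rw [levu, levS n v1 (huS v1 h2')]; exact hn
    · rcases Finset.mem_insert.1 h2 with rfl | h2'
      · exact absurd huv (not_le.2 (hu u1 h1'))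
      · filter_upwards [h.lev_mono u1 h1' v1 h2' huv] with n hn
        change lev' n u1 ≤ lev' n v1
        rw [levS n u1 (huS u1 h1'), levS n v1 (huS v1 h2')]; exact hn
  · intro u1 h1 v1 h2 huv
    change Tendsto (fun n => ((lev' n v1 : ℝ) - lev' n u1) * Real.log 2 / B.L n) U _
    rcases Finset.mem_insert.1 h1 with rfl | h1'
    · rcases Finset.mem_insert.1 h2 with rfl | h2'
      · simp
      · have e1 : (fun n => ((lev' n v1 : ℝ) - lev' n u1) * Real.log 2 / B.L n) =
            fun n => ((lev n v1 : ℝ) - lu n) * Real.log 2 / B.L n := by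
          funext n; rw [levu, levS n v1 (huS v1 h2')]
        rw [e1]; exact hlim v1 h2'
    · rcases Finset.mem_insert.1 h2 with rfl | h2'
      · exact absurd huv (not_le.2 (hu u1 h1'))
      · have e1 : (fun n => ((lev' n v1 : ℝ) - lev' n u1) * Real.log 2 / B.L n) =
            fun n => ((lev n v1 : ℝ) - lev n u1) * Real.log 2 / B.L n := by
          funext n; rw [levS n u1 (huS u1 h1'), levS n v1 (huS v1 h2')]
        rw [e1]; exact h.lev_lim u1 h1' v1 h2' huv
  · change ∀ᶠ n in (U : Filter ℕ), ∀ x ∈ J' n, ∀ y ∈ J' n, zc (lev' n 0) x.2 = zc (lev' n 0) y.2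
    by_cases h0 : u = 0
    · filter_upwards [hcell h0] with n hn x hx y hy
      have : lev' n 0 = lu n := by rw [← h0]; exact levu n
      rw [this]
      exact hn x ((hsub n).1 hx) y ((hsub n).1 hy)
    · filter_upwards [hS.cell0] with n hn x hx y hy
      rw [levS n 0 (Ne.symm h0)]
      exact hn x hx y hy
  · change ∀ᶠ n in (U : Filter ℕ), ∀ x ∈ J' n, ∀ y ∈ J' n, x.1 = y.1 →
      zc (lev' n 1) x.2 = zc (lev' n 1) y.2 → x = y
    filter_upwards [hS.one] with n hn x hx y hy h3 h4
    rw [levS n 1 hu1.ne'] at h4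
    exact hn x hx y hy h3 h4
  · intro u1 h1 v1 h2 huv ε hε
    have hε3 : 0 < ε / 2 := by linarith
    filter_upwards [fiba u1 h1 (ε / 2) hε3, fiba v1 h2 (ε / 2) hε3] with n h3 h4 x hx
    change _ ≤ ((Crest.Agent.R138.Mk163.own (J' n) (lev' n u1) (lev' n v1) x).card : ℝ)
    have h5 := own_lower (J := J' n) (i := lev' n u1) (j := lev' n v1) (x := x)
      (m := B.d n ^ (-(1 - (v1 : ℝ)) - ε / 2)) (fun y hy => (h4 y hy).2) hx
    have h6 := (h3 x hx).1.trans h5
    have hp := dpow_pos B n (-(1 - (v1 : ℝ)) - ε / 2)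
    rw [← div_le_iff₀' hp, ← Real.rpow_sub (B.pos n)] at h6
    refine le_trans (le_of_eq ?_) h6
    congr 1; ring
  · intro v hv ε hε
    rcases Finset.mem_insert.1 hv with rfl | hv'
    · filter_upwards [hdmax ε hε] with n hn c s hs
      change G.adm n (lev' n v) c s at hs
      change (((alive (J' n) (lev' n v) c).filter fun t => G.mem n (lev' n v) c s t).card : ℝ) ≤
        B.d n ^ (-ε) * (A n * B.d n ^ (-(g * v))) * G.val n (lev' n v) c s
      rw [levu] at hs ⊢
      refine le_trans ?_ (hn c s hs)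
      exact_mod_cast card_le_card (filter_subset_filter _ (alive_mono (hsub n).1 _ _))
    · filter_upwards [hS.dmax v hv' ε hε] with n hn c s hs
      change G.adm n (lev' n v) c s at hs
      change (((alive (J' n) (lev' n v) c).filter fun t => G.mem n (lev' n v) c s t).card : ℝ) ≤
        B.d n ^ (-ε) * (A n * B.d n ^ (-(g * v))) * G.val n (lev' n v) c s
      rw [levS n v (huS v hv')] at hs ⊢
      exact hn c s hs
  · intro v hv
    rcases Finset.mem_insert.1 hv with rfl | hv'
    · filter_upwards [hmark] with n hn c t ht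
      change t ∈ alive (J' n) (lev' n v) c at ht
      rw [levu] at ht
      have h3 := hn c t (alive_mono (hsub n).1 _ _ ht)
      simp only [Function.update_self, levu, fuu]
      exact h3
    · filter_upwards [hS.mark v hv'] with n hn c t ht
      change t ∈ alive (J' n) (lev' n v) c at ht
      rw [levS n v (huS v hv')] at ht
      have h3 := hn c t ht
      simp only [Function.update_of_ne (huS v hv'), levS n v (huS v hv'), fS n v (huS v hv')]
      exact h3
  · intro v hv ε hε
    rcases Finset.mem_insert.1 hv with rfl | hv'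
    · have hε4 : 0 < ε / 4 := by linarith
      filter_upwards [hnear (ε / 4) hε4, fibJ (ε / 4) hε4, fk v (ε / 4) hε4, hJ.1] with
        n h1 h2 h3 hJI c t ht
      change t ∈ alive (J' n) (lev' n v) c at ht
      rw [levu] at ht
      have h4 := h1 c t (alive_mono (hsub n).1 _ _ ht)
      have h5 := near_step (φ := fu n) (hsub n).1 (m₁ := B.d n ^ (-(1 - (v : ℝ)) + ε / 4))
        (m₂ := B.d n ^ (-(1 - (v : ℝ)) - ε / 4)) (c := B.d n ^ (ε / 4)) (dpow_pos B n _).le
        (fun y hy => (h2 y hy (hJI hy)).1) (fun y hy => (h2 y hy (hJI hy)).2)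
        (fun x hx => by
          have h6 := h3 x hx
          rw [levu, fuu] at h6
          refine le_trans (mul_le_mul_of_nonneg_left ?_ (dpow_pos B n _).le) h6
          exact_mod_cast card_le_card (filter_subset_filter _ hJI)) c t ht
      simp only [Function.update_self, levu, fuu]
      set NI : ℝ := (((alive (J n) (lu n) c).filter fun s => fu n s c = fu n t c).card : ℝ) with hNI
      set NJ : ℝ := (((alive (J' n) (lu n) c).filter fun s => fu n s c = fu n t c).card : ℝ)
        with hNJ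
      have p5 : NI ≤ B.d n ^ (-(3 * (ε / 4))) * NJ := by
        have hpos : 0 < B.d n ^ (ε / 4) * B.d n ^ (-(1 - (v : ℝ)) + ε / 4) :=
          mul_pos (dpow_pos B n _) (dpow_pos B n _)
        have h7 : B.d n ^ (-(1 - (v : ℝ)) - ε / 4) =
            B.d n ^ (-(3 * (ε / 4))) * (B.d n ^ (ε / 4) * B.d n ^ (-(1 - (v : ℝ)) + ε / 4)) := by
          rw [← dpow_add, ← dpow_add]; congr 1; ring
        rw [h7] at h5
        have h8 : (B.d n ^ (ε / 4) * B.d n ^ (-(1 - (v : ℝ)) + ε / 4)) * NI ≤
            (B.d n ^ (ε / 4) * B.d n ^ (-(1 - (v : ℝ)) + ε / 4)) *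
            (B.d n ^ (-(3 * (ε / 4))) * NJ) := by linarith
        exact le_of_mul_le_mul_left h8 hpos
      refine h4.trans ?_
      have h9 : B.d n ^ (-ε) = B.d n ^ (-(ε / 4)) * B.d n ^ (-(3 * (ε / 4))) := by
        rw [← dpow_add]; congr 1; ring
      rw [h9, mul_assoc]
      exact mul_le_mul_of_nonneg_left p5 (dpow_pos B n _).le
    · filter_upwards [hS.near v hv' ε hε] with n hn c t ht
      change t ∈ alive (J' n) (lev' n v) c at ht
      rw [levS n v (huS v hv')] at ht
      have h3 := hn c t ht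
      simp only [Function.update_of_ne (huS v hv'), levS n v (huS v hv'), fS n v (huS v hv')]
      exact h3
  · intro v hv
    rcases Finset.mem_insert.1 hv with rfl | hv'
    · simpa only [Function.update_self] using hvpos
    · simpa only [Function.update_of_ne (huS v hv')] using hS.vpos v hv'
  · intro j v hv
    rcases Finset.mem_insert.1 hv with rfl | hv'
    · simpa only [Function.update_self] using hwpos j
    · simpa only [Function.update_of_ne (huS v hv')] using hS.wpos j v hv'
  · intro j v hv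
    rcases Finset.mem_insert.1 hv with rfl | hv'
    · simp only [Function.update_self, Function.update_of_ne hu1.ne', levu, fun n => levS n 1 hu1.ne']
      exact htau j
    · simp only [Function.update_of_ne (huS v hv'), Function.update_of_ne hu1.ne',
        fun n => levS n v (huS v hv'), fun n => levS n 1 hu1.ne']
      exact hS.tau j v hv'

end

/-! ### pruning with absolute thresholds -/

open Classical in
/-- finite pruning: all fibres of all maps of `ι` get at least `thr` elements. -/
theorem prune_all {α ι : Type*} {β : ι → Type*} (L : Finset ι) (h : ∀ i, α → β i) (thr : ι → ℝ)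
    (hthr : ∀ i ∈ L, 0 ≤ thr i) (J : Finset α) :
    ∃ J' : Finset α, J' ⊆ J ∧
      (∀ i ∈ L, ∀ x ∈ J', thr i ≤ ((J'.filter fun y => h i y = h i x).card : ℝ)) ∧
      (J.card : ℝ) ≤ J'.card + ∑ i ∈ L, thr i * ((J.image (h i)).card : ℝ) := by
  induction hn : J.card using Nat.strong_induction_on generalizing J with
  | _ n ih =>
    subst hn
    by_cases hgood : ∀ i ∈ L, ∀ x ∈ J, thr i ≤ ((J.filter fun y => h i y = h i x).card : ℝ)
    · refine ⟨J, Finset.Subset.refl _, hgood, ?_⟩
      have : 0 ≤ ∑ i ∈ L, thr i * ((J.image (h i)).card : ℝ) :=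
        sum_nonneg fun i hi => mul_nonneg (hthr i hi) (Nat.cast_nonneg _)
      linarith
    · push Not at hgood
      obtain ⟨i, hi, x, hx, hlt⟩ := hgood
      set F := J.filter fun y => h i y = h i x with hF
      set J1 := J \ F with hJ1
      have hFsub : F ⊆ J := filter_subset _ _
      have hxF : x ∈ F := mem_filter.2 ⟨hx, rfl⟩
      have hlt1 : J1.card < J.card := card_lt_card
        ⟨sdiff_subset, fun hh => (Finset.mem_sdiff.1 (hh hx)).2 hxF⟩
      obtain ⟨J', h1, h2, h3⟩ := ih J1.card hlt1 J1 rfl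
      refine ⟨J', h1.trans sdiff_subset, h2, ?_⟩
      have hc : (J.card : ℝ) = J1.card + F.card := by
        have := card_sdiff_add_card_eq_card hFsub
        exact_mod_cast this.symm
      have himg : ∀ j, ((J1.image (h j)).card : ℝ) ≤ (J.image (h j)).card := fun j => by
        exact_mod_cast card_le_card (image_subset_image sdiff_subset)
      have himg1 : ((J1.image (h i)).card : ℝ) + 1 ≤ (J.image (h i)).card := by
        have hss : J1.image (h i) ⊆ (J.image (h i)).erase (h i x) := by
          intro c hc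
          obtain ⟨y, hy, rfl⟩ := mem_image.1 hc
          rw [hJ1, Finset.mem_sdiff] at hy
          refine mem_erase.2 ⟨fun hh => hy.2 (mem_filter.2 ⟨hy.1, hh⟩), mem_image_of_mem _ hy.1⟩
        have h5 := card_le_card hss
        rw [card_erase_of_mem (mem_image_of_mem _ hx)] at h5
        have h6 : 0 < (J.image (h i)).card := card_pos.2 ⟨_, mem_image_of_mem _ hx⟩
        have h7 : (J1.image (h i)).card + 1 ≤ (J.image (h i)).card := by omega
        exact_mod_cast h7
      have hsum : (F.card : ℝ) + ∑ j ∈ L, thr j * ((J1.image (h j)).card : ℝ) ≤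
          ∑ j ∈ L, thr j * ((J.image (h j)).card : ℝ) := by
        rw [← add_sum_erase L _ hi, ← add_sum_erase L (fun j => thr j * ((J.image (h j)).card : ℝ)) hi]
        have h8 : ∑ j ∈ L.erase i, thr j * ((J1.image (h j)).card : ℝ) ≤
            ∑ j ∈ L.erase i, thr j * ((J.image (h j)).card : ℝ) :=
          sum_le_sum fun j hj => mul_le_mul_of_nonneg_left (himg j) (hthr j (mem_of_mem_erase hj))
        have h9 : thr i * ((J1.image (h i)).card : ℝ) + thr i ≤
            thr i * ((J.image (h i)).card : ℝ) := by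
          have := mul_le_mul_of_nonneg_left himg1 (hthr i hi)
          linarith
        linarith [hlt.le]
      linarith

end Crest.Agent.R136.Dia770
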