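import Mathlib
import Crest.Agent.R136.Dia3_770

/-!
# R136 (helper770): full shading at all levels

`full_own`: full shading between the levels `l0` and `l1` gives, in every dense part, a dense part
with full shading from EVERY intermediate level (simultaneously) to `l1`.
-/

set_option autoImplicit false
set_option linter.unusedVariables false
set_option linter.unusedSectionVars false

open Finset Filter Topology

namespace Crest.Agent.R136.Dia770

open Crest.Agent.R138.Ex926 Crest.Agent.R138.Dp76 Crest.Agent.R138.Ps627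
open Crest.Agent.R138.Mk163 (zc zl rho alive own)
open Crest.Agent.R138.MkRef627 (lc kc own_one alive_mono mem_alive card_class own_lower)
open Crest.Agent.R138.Ps926 (dpow_small)

theorem lin_small (B : Base) (C : ℝ) {ε : ℝ} (hε : 0 < ε) :
    ∀ᶠ n in (U : Filter ℕ), C * B.L n ≤ B.d n ^ (-ε) := by
  filter_upwards [dpow_small B (c := ε / 2) (by linarith) (ε := ε / (2 * (|C| + 1)))
    (by positivity)] with n hn
  have hL := B.L_pos n
  have e1 : B.d n ^ (-ε) = B.d n ^ (-(ε / 2)) * B.d n ^ (-(ε / 2)) := by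
    rw [← dpow_add]; congr 1; ring
  have e2 : B.d n ^ (-(ε / 2)) = Real.exp (ε / 2 * B.L n) := by
    rw [Real.rpow_def_of_pos (B.pos n)]
    congr 1
    unfold Base.L; ring
  have h1 : ε / 2 * B.L n ≤ B.d n ^ (-(ε / 2)) := by
    rw [e2]; linarith [Real.add_one_le_exp (ε / 2 * B.L n)]
  have hp := dpow_pos B n (ε / 2)
  have h2 : 2 * (|C| + 1) / ε ≤ B.d n ^ (-(ε / 2)) := by
    rw [Real.rpow_neg (B.pos n).le]
    rw [lt_div_iff₀ (by positivity)] at hn
    rw [div_le_iff₀ hε, ← one_div, div_mul_eq_mul_div, le_div_iff₀ hp]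
    linarith
  have h3 : (2 * (|C| + 1) / ε) * (ε / 2 * B.L n) ≤ B.d n ^ (-(ε / 2)) * B.d n ^ (-(ε / 2)) :=
    mul_le_mul h2 h1 (by positivity) (dpow_pos B n _).le
  have e3 : (2 * (|C| + 1) / ε) * (ε / 2 * B.L n) = (|C| + 1) * B.L n := by field_simp
  rw [e1]
  rw [e3] at h3
  have h4 : C * B.L n ≤ (|C| + 1) * B.L n :=
    mul_le_mul_of_nonneg_right (by linarith [le_abs_self C]) hL.le
  linarith

open Classical in
/-- number of cells: `lc i` refines `lc l0`. -/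
theorem image_lc_le (I : Finset (ℕ × ℝ)) {l0 i : ℕ} (h : l0 ≤ i) :
    (I.image (lc i)).card ≤ 2 ^ (i - l0) * (I.image (lc l0)).card := by
  -- project
  have h1 : (I.image (lc i)).card ≤ ∑ o ∈ I.image (lc l0),
      ((I.filter fun y => lc l0 y = o).image (lc i)).card := by
    refine le_trans (card_le_card (t := (I.image (lc l0)).biUnion fun o =>
      (I.filter fun y => lc l0 y = o).image (lc i)) ?_) card_biUnion_le
    intro p hp
    obtain ⟨x, hx, rfl⟩ := mem_image.1 hp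
    rw [mem_biUnion]
    exact ⟨lc l0 x, mem_image_of_mem _ hx, mem_image_of_mem _ (mem_filter.2 ⟨hx, rfl⟩)⟩
  refine h1.trans ?_
  have h2 : ∀ o ∈ I.image (lc l0), ((I.filter fun y => lc l0 y = o).image (lc i)).card ≤
      2 ^ (i - l0) := by
    intro o ho
    obtain ⟨x, hx, rfl⟩ := mem_image.1 ho
    refine le_trans ?_ (own_le I h x)
    have e : (I.filter fun y => lc l0 y = lc l0 x).image (lc i) ⊆
        (own I l0 i x).image fun c => (x.1, c) := by
      intro p hp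
      obtain ⟨y, hy, rfl⟩ := mem_image.1 hp
      obtain ⟨hyI, hy2⟩ := mem_filter.1 hy
      simp only [lc, Prod.mk.injEq] at hy2
      refine mem_image.2 ⟨zc i y.2, ?_, ?_⟩
      · unfold Crest.Agent.R138.Mk163.own
        exact mem_image.2 ⟨y, mem_filter.2 ⟨hyI, hy2.1, hy2.2⟩, rfl⟩
      · simp only [lc, hy2.1]
    exact (card_le_card e).trans card_image_le
  calc ∑ o ∈ I.image (lc l0), ((I.filter fun y => lc l0 y = o).image (lc i)).card
      ≤ ∑ o ∈ I.image (lc l0), 2 ^ (i - l0) := sum_le_sum h2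
    _ = 2 ^ (i - l0) * (I.image (lc l0)).card := by rw [sum_const, smul_eq_mul, mul_comm]

open Classical in
/-- incidence count from own counts -/
theorem card_ge_own {I : Finset (ℕ × ℝ)} {l0 l1 : ℕ} {m : ℝ} (hm : 0 ≤ m)
    (hown : ∀ x ∈ I, m ≤ ((own I l0 l1 x).card : ℝ)) :
    m * ((I.image (lc l0)).card : ℝ) ≤ (I.card : ℝ) := by
  have h1 : I.card = ∑ o ∈ I.image (lc l0), (I.filter fun y => lc l0 y = o).card :=
    card_eq_sum_card_image (lc l0) I
  have h2 : ∀ o ∈ I.image (lc l0), m ≤ ((I.filter fun y => lc l0 y = o).card : ℝ) := by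
    intro o ho
    obtain ⟨x, hx, rfl⟩ := mem_image.1 ho
    refine (hown x hx).trans ?_
    have : (own I l0 l1 x).card ≤ (I.filter fun y => lc l0 y = lc l0 x).card := by
      unfold Crest.Agent.R138.Mk163.own
      refine card_image_le.trans (card_le_card ?_)
      intro y hy
      rw [mem_filter] at hy ⊢
      simp only [lc, Prod.mk.injEq]
      exact hy
    exact_mod_cast this
  rw [h1]
  push_cast
  calc m * ((I.image (lc l0)).card : ℝ) = ∑ o ∈ I.image (lc l0), m := by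
        rw [sum_const, nsmul_eq_mul, mul_comm]
    _ ≤ _ := sum_le_sum h2

open Classical in
/-- finite form: pruning with all levels. -/
theorem full_own_fin {I J : Finset (ℕ × ℝ)} {l0 l1 : ℕ} (h01 : l0 ≤ l1) (hJI : J ⊆ I)
    (one : ∀ x ∈ I, ∀ y ∈ I, x.1 = y.1 → zc l1 x.2 = zc l1 y.2 → x = y)
    {a b c : ℝ} (ha : 0 < a) (hb : 0 < b) (hc : 0 < c)
    (hown : ∀ x ∈ I, a * 2 ^ (l1 - l0) ≤ ((own I l0 l1 x).card : ℝ))
    (hJ : b * (I.card : ℝ) ≤ (J.card : ℝ))
    (hsmall : 2 * c * ((l1 : ℝ) - l0 + 1) ≤ a * b) :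
    ∃ J' : Finset (ℕ × ℝ), J' ⊆ J ∧ (J.card : ℝ) ≤ 2 * J'.card ∧
      ∀ i, l0 ≤ i → i ≤ l1 → ∀ x ∈ J', c * 2 ^ (l1 - i) ≤ ((own J' i l1 x).card : ℝ) := by
  obtain ⟨J', h1, h2, h3⟩ := prune_all (Icc l0 l1) (fun i => lc i) (fun i => c * 2 ^ (l1 - i))
    (fun i _ => by positivity) J
  have hI := card_ge_own (l0 := l0) (l1 := l1) (by positivity) hown
  have hterm : ∀ i ∈ Icc l0 l1, c * 2 ^ (l1 - i) * ((J.image (lc i)).card : ℝ) ≤
      c * (I.card : ℝ) / a := by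
    intro i hi
    rw [mem_Icc] at hi
    have g1 : ((J.image (lc i)).card : ℝ) ≤ 2 ^ (i - l0) * (I.image (lc l0)).card := by
      have := (card_le_card (image_subset_image (f := lc i) hJI)).trans (image_lc_le I hi.1)
      exact_mod_cast this
    have g2 : (2:ℝ) ^ (l1 - i) * 2 ^ (i - l0) = 2 ^ (l1 - l0) := by
      rw [← pow_add]; congr 1; omega
    rw [le_div_iff₀ ha]
    calc c * 2 ^ (l1 - i) * ((J.image (lc i)).card : ℝ) * a
        ≤ c * 2 ^ (l1 - i) * (2 ^ (i - l0) * (I.image (lc l0)).card) * a := by gcongr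
      _ = c * (a * (2 ^ (l1 - i) * 2 ^ (i - l0)) * (I.image (lc l0)).card) := by ring
      _ = c * (a * 2 ^ (l1 - l0) * (I.image (lc l0)).card) := by rw [g2]
      _ ≤ c * (I.card : ℝ) := mul_le_mul_of_nonneg_left hI hc.le
  have hsum : ∑ i ∈ Icc l0 l1, c * 2 ^ (l1 - i) * ((J.image (lc i)).card : ℝ) ≤
      ((l1 : ℝ) - l0 + 1) * (c * (I.card : ℝ) / a) := by
    refine (sum_le_sum hterm).trans ?_
    rw [sum_const, nsmul_eq_mul, Nat.card_Icc]
    have : ((l1 + 1 - l0 : ℕ) : ℝ) = (l1 : ℝ) - l0 + 1 := by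
      rw [Nat.cast_sub (by omega)]; push_cast; ring
    rw [this]
  have hfin : ((l1 : ℝ) - l0 + 1) * (c * (I.card : ℝ) / a) ≤ (J.card : ℝ) / 2 := by
    have e : ((l1 : ℝ) - l0 + 1) * (c * (I.card : ℝ) / a) =
        (2 * c * ((l1 : ℝ) - l0 + 1)) * (I.card : ℝ) / (2 * a) := by field_simp
    rw [e, div_le_div_iff₀ (by positivity) (by positivity)]
    have g3 : (2 * c * ((l1 : ℝ) - l0 + 1)) * (I.card : ℝ) ≤ a * b * (I.card : ℝ) :=
      mul_le_mul_of_nonneg_right hsmall (Nat.cast_nonneg _)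
    have g4 : a * (b * (I.card : ℝ)) ≤ a * (J.card : ℝ) := mul_le_mul_of_nonneg_left hJ ha.le
    nlinarith
  have h3' : (J.card : ℝ) ≤ J'.card +
      ∑ i ∈ Icc l0 l1, c * 2 ^ (l1 - i) * ((J.image (lc i)).card : ℝ) := by
    convert h3
  refine ⟨J', h1, by linarith, fun i hi0 hi1 x hx => ?_⟩
  have one' : ∀ x ∈ J', ∀ y ∈ J', x.1 = y.1 → zc l1 x.2 = zc l1 y.2 → x = y :=
    fun x hx y hy => one x (hJI (h1 hx)) y (hJI (h1 hy))
  rw [own_one one']
  have h4 := h2 i (mem_Icc.2 ⟨hi0, hi1⟩) x hx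
  convert h4

open Classical in
/-- **full shading at all levels, sequence form.** -/
theorem full_own (B : Base) {I J : ℕ → Finset (ℕ × ℝ)} {l0 l1 : ℕ → ℕ} {t : ℝ}
    (hmono : ∀ᶠ n in (U : Filter ℕ), l0 n ≤ l1 n)
    (hlim : Tendsto (fun n => ((l1 n : ℝ) - l0 n) * Real.log 2 / B.L n) U (𝓝 t))
    (one : ∀ᶠ n in (U : Filter ℕ), ∀ x ∈ I n, ∀ y ∈ I n, x.1 = y.1 →
      zc (l1 n) x.2 = zc (l1 n) y.2 → x = y)
    (hown : ∀ ε : ℝ, 0 < ε → ∀ᶠ n in (U : Filter ℕ), ∀ x ∈ I n,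
      B.d n ^ ε * 2 ^ (l1 n - l0 n) ≤ ((own (I n) (l0 n) (l1 n) x).card : ℝ))
    (hJ : Dense B J I) :
    ∃ J' : ℕ → Finset (ℕ × ℝ), (∀ n, J' n ⊆ J n) ∧ Dense B J' J ∧
      ∀ ε : ℝ, 0 < ε → ∀ᶠ n in (U : Filter ℕ), ∀ i, l0 n ≤ i → i ≤ l1 n → ∀ x ∈ J' n,
        B.d n ^ ε * 2 ^ (l1 n - i) ≤ ((own (J' n) i (l1 n) x).card : ℝ) := by
  set ee : ℕ → ℝ := fun k => 1 / ((k : ℝ) + 1) with hee
  have hee0 : ∀ k, 0 < ee k := fun k => by simp only [hee]; positivity
  set Q : ℕ → ℕ → Prop := fun k n => ∃ J' : Finset (ℕ × ℝ), J' ⊆ J n ∧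
    ((J n).card : ℝ) ≤ 2 * J'.card ∧
      ∀ i, l0 n ≤ i → i ≤ l1 n → ∀ x ∈ J', B.d n ^ (ee k) * 2 ^ (l1 n - i) ≤
        ((own J' i (l1 n) x).card : ℝ) with hQ
  have hQev : ∀ k, ∀ᶠ n in (U : Filter ℕ), Q k n := by
    intro k
    have h4 : 0 < ee k / 4 := by have := hee0 k; linarith
    have hlen : ∀ᶠ n in (U : Filter ℕ), ((l1 n : ℝ) - l0 n) * Real.log 2 / B.L n < t + 1 :=
      hlim.eventually (Iio_mem_nhds (by linarith))
    filter_upwards [hmono, one, hown (ee k / 4) h4, hJ.1, hJ.2 (ee k / 4) h4, hlen,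
      lin_small B (2 * ((|t| + 1) / Real.log 2 + 1)) h4, B.ev_L_ge 1] with
      n a1 a2 a3 a4 a5 a6 a7 a8
    have hlog : (0:ℝ) < Real.log 2 := Real.log_pos one_lt_two
    have hL := B.L_pos n
    obtain ⟨J', b1, b2, b3⟩ := full_own_fin (a := B.d n ^ (ee k / 4)) (b := B.d n ^ (ee k / 4))
      (c := B.d n ^ (ee k)) a1 a4 a2 (dpow_pos B n _) (dpow_pos B n _) (dpow_pos B n _) a3 a5 (by
        have g1 : (l1 n : ℝ) - l0 n + 1 ≤ ((|t| + 1) / Real.log 2 + 1) * B.L n := by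
          rw [div_lt_iff₀ hL] at a6
          have g2 : (l1 n : ℝ) - l0 n ≤ (|t| + 1) / Real.log 2 * B.L n := by
            rw [div_mul_eq_mul_div, le_div_iff₀ hlog]
            have : (t + 1) * B.L n ≤ (|t| + 1) * B.L n :=
              mul_le_mul_of_nonneg_right (by linarith [le_abs_self t]) hL.le
            linarith
          nlinarith
        have g3 : 2 * ((l1 n : ℝ) - l0 n + 1) ≤ B.d n ^ (-(ee k / 4)) := by
          refine le_trans ?_ a7
          linarith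
        have e1 : B.d n ^ (ee k / 4) * B.d n ^ (ee k / 4) =
            B.d n ^ (ee k) * B.d n ^ (-(ee k / 2)) := by
          rw [← dpow_add, ← dpow_add]; congr 1; ring
        rw [e1]
        have e2 : B.d n ^ (-(ee k / 4)) ≤ B.d n ^ (-(ee k / 2)) :=
          dpow_le B n (by have := hee0 k; linarith)
        calc 2 * B.d n ^ (ee k) * ((l1 n : ℝ) - l0 n + 1)
            = B.d n ^ (ee k) * (2 * ((l1 n : ℝ) - l0 n + 1)) := by ring
          _ ≤ B.d n ^ (ee k) * B.d n ^ (-(ee k / 2)) :=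
              mul_le_mul_of_nonneg_left (g3.trans e2) (dpow_pos B n _).le)
    exact ⟨J', b1, b2, b3⟩
  obtain ⟨k, hk, hk2⟩ := exists_diag Q hQev
  have hgood : ∀ᶠ n in (U : Filter ℕ), Q (k n) n := by
    filter_upwards [hk2] with n hn using hn _ le_rfl
  have hstep : ∀ n, ∃ J' : Finset (ℕ × ℝ), J' ⊆ J n ∧ (Q (k n) n →
      ((J n).card : ℝ) ≤ 2 * J'.card ∧
      ∀ i, l0 n ≤ i → i ≤ l1 n → ∀ x ∈ J', B.d n ^ (ee (k n)) * 2 ^ (l1 n - i) ≤
        ((own J' i (l1 n) x).card : ℝ)) := by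
    intro n
    by_cases hq : Q (k n) n
    · obtain ⟨J', b1, b2⟩ := hq
      exact ⟨J', b1, fun _ => b2⟩
    · exact ⟨∅, empty_subset _, fun h => absurd h hq⟩
  choose J' h1 h2 using hstep
  refine ⟨J', h1, dense_of_half ?_, ?_⟩
  · filter_upwards [hgood] with n hn
    exact ⟨h1 n, (h2 n hn).1⟩
  · intro ε hε
    have hke : ∀ᶠ n in (U : Filter ℕ), ee (k n) ≤ ε := by
      have h5 : Tendsto (fun n => ee (k n)) U (𝓝 0) :=
        tendsto_one_div_add_atTop_nhds_zero_nat.comp hk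
      exact (h5.eventually (Iio_mem_nhds hε)).mono fun n hn => le_of_lt hn
    filter_upwards [hgood, hke] with n hn hn2 i hi0 hi1 x hx
    refine le_trans ?_ ((h2 n hn).2 i hi0 hi1 x hx)
    exact mul_le_mul_of_nonneg_right (dpow_le B n hn2) (by positivity)

end Crest.Agent.R136.Dia770
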