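import Crest.Agent.R136.KDef6_879

/-!
# R136: windows of configurations, part 1 (helper823): cells, own counts, pruning

* `zc4_div`  : the coarse cell is the integral part of the fine one.
* `ownc4_mul`: `own (m, k) ≤ own (m, i) * 2^(k-i)`.
* `exists_prune` : one pruning for finitely many partitions with thresholds.
-/

set_option autoImplicit false

open Finset

namespace Crest.Agent.R136.Win823

open Crest.Agent.R136.K4 Crest.Agent.R136.Sh605 Crest.Agent.R136.KS879 Crest.Agent.R136.En879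

noncomputable section

/-! ### cells -/

theorem zc4_div {i j : ℕ} (h : i ≤ j) (z : ℝ) : zc4 i z = zc4 j z / 2 ^ (j - i) := by
  unfold zc4
  have e : (2:ℝ) ^ i * z = ((2:ℝ) ^ j * z) / ((2 ^ (j - i) : ℕ) : ℝ) := by
    push_cast
    have : (2:ℝ) ^ j = 2 ^ i * 2 ^ (j - i) := by rw [← pow_add]; congr 1; omega
    rw [this]; field_simp
  rw [e, Int.floor_div_natCast]
  push_cast
  rfl

theorem ob4_coarse {i j : ℕ} (h : i ≤ j) {x y : Ln4 × ℝ} (hxy : ob4 j x = ob4 j y) :
    ob4 i x = ob4 i y := by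
  unfold ob4 at hxy ⊢
  simp only [Prod.mk.injEq] at hxy ⊢
  refine ⟨hxy.1, ?_⟩
  rw [zc4_div h, zc4_div h, hxy.2]

/-- coarse object of a fine object -/
def up4 (k : ℕ) (o : Ln4 × ℤ) : Ln4 × ℤ := (o.1, o.2 / 2 ^ k)

theorem up4_ob4 {i j : ℕ} (h : i ≤ j) (x : Ln4 × ℝ) : up4 (j - i) (ob4 j x) = ob4 i x := by
  unfold up4 ob4
  simp only [Prod.mk.injEq, true_and]
  exact (zc4_div h x.2).symm

theorem image_up4 {i j : ℕ} (h : i ≤ j) (I : Finset (Ln4 × ℝ)) [DecidableEq (Ln4 × ℤ)] :
    (I.image (ob4 j)).image (up4 (j - i)) = I.image (ob4 i) := by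
  rw [image_image]
  congr 1
  funext x
  exact up4_ob4 h x

/-- a coarse cell has at most `2^k` fine cells -/
theorem card_sub (k : ℕ) (o : Ln4 × ℤ) (O : Finset (Ln4 × ℤ)) (hO : ∀ p ∈ O, up4 k p = o) :
    O.card ≤ 2 ^ k := by
  have h1 : (0:ℤ) < 2 ^ k := by positivity
  have h2 : O.card ≤ (Finset.Ico (o.2 * 2 ^ k) (o.2 * 2 ^ k + 2 ^ k)).card := by
    refine card_le_card_of_injOn (fun p => p.2) (fun p hp => ?_) ?_
    · rw [Finset.mem_coe] at hp
      have h3 := hO p hp
      unfold up4 at h3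
      have h4 : p.2 / 2 ^ k = o.2 := congrArg Prod.snd h3
      rw [Finset.mem_coe, Finset.mem_Ico]
      have e1 := Int.ediv_mul_le p.2 h1.ne'
      have e2 := Int.lt_ediv_add_one_mul_self p.2 h1
      rw [h4] at e1 e2
      exact ⟨e1, by linarith⟩
    · intro p hp p' hp' hpp
      rw [Finset.mem_coe] at hp hp'
      have h3 := congrArg Prod.fst (hO p hp)
      have h4 := congrArg Prod.fst (hO p' hp')
      unfold up4 at h3 h4
      exact Prod.ext (by simp only at h3 h4; rw [h3, h4]) hpp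
  refine h2.trans (le_of_eq ?_)
  rw [Int.card_Ico]
  have : o.2 * 2 ^ k + 2 ^ k - o.2 * 2 ^ k = ((2 ^ k : ℕ) : ℤ) := by push_cast; ring
  rw [this, Int.toNat_natCast]

/-! ### own counts -/

open Classical in
/-- `own (m,k) ≤ own (m,i) * 2^(k-i)` -/
theorem ownc4_mul {m i k : ℕ} (hik : i ≤ k) (I : Finset (Ln4 × ℝ)) (x : Ln4 × ℝ) :
    ownc4 m k I x ≤ ownc4 m i I x * 2 ^ (k - i) := by
  unfold ownc4
  set A := I.filter fun y => ob4 m y = ob4 m x with hA
  have e : A.image (ob4 i) = (A.image (ob4 k)).image (up4 (k - i)) := (image_up4 hik A).symm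
  rw [e]
  have h1 := card_le_mul_card_image (s := A.image (ob4 k)) (f := up4 (k - i)) (2 ^ (k - i))
    (fun b _ => card_sub (k - i) b _ (fun p hp => (mem_filter.1 hp).2))
  rw [mul_comm]
  exact h1

open Classical in
theorem ownc4_mono {m k : ℕ} {I J : Finset (Ln4 × ℝ)} (h : I ⊆ J) (x : Ln4 × ℝ) :
    ownc4 m k I x ≤ ownc4 m k J x := by
  unfold ownc4
  exact card_le_card (image_subset_image (filter_subset_filter _ h))

open Classical in
/-- own count as a count of objects of level `k` -/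
theorem ownc4_eq {m k : ℕ} (hmk : m ≤ k) (I : Finset (Ln4 × ℝ)) (x : Ln4 × ℝ) :
    ownc4 m k I x = ((I.image (ob4 k)).filter fun o => up4 (k - m) o = ob4 m x).card := by
  unfold ownc4
  congr 1
  ext o
  simp only [mem_image, mem_filter]
  constructor
  · rintro ⟨y, ⟨hy, hyx⟩, rfl⟩
    exact ⟨⟨y, hy, rfl⟩, by rw [up4_ob4 hmk, hyx]⟩
  · rintro ⟨⟨y, hy, rfl⟩, h⟩
    rw [up4_ob4 hmk] at h
    exact ⟨y, ⟨hy, h⟩, rfl⟩

/-! ### pruning -/

open Classical in
/-- **one pruning for finitely many partitions with thresholds** -/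
theorem exists_prune {α κ : Type*} {X : κ → Type*} (s : Finset κ) (φ : ∀ j, α → X j)
    (T : ∀ j, X j → ℝ) (hT : ∀ j x, 0 ≤ T j x) : ∀ (n : ℕ) (O : Finset α), O.card ≤ n →
    ∃ G ⊆ O, (O.card : ℝ) - ∑ j ∈ s, ∑ x ∈ O.image (φ j), T j x ≤ (G.card : ℝ) ∧
      ∀ o ∈ G, ∀ j ∈ s, T j (φ j o) ≤ ((G.filter fun p => φ j p = φ j o).card : ℝ) := by
  intro n
  induction n with
  | zero =>
    intro O hO
    have h0 : O = ∅ := card_eq_zero.1 (Nat.le_zero.1 hO)
    subst h0
    exact ⟨∅, Subset.refl _, by simp, by simp⟩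
  | succ n ih =>
    intro O hO
    by_cases hg : ∀ o ∈ O, ∀ j ∈ s, T j (φ j o) ≤ ((O.filter fun p => φ j p = φ j o).card : ℝ)
    · refine ⟨O, Subset.refl _, ?_, hg⟩
      have : 0 ≤ ∑ j ∈ s, ∑ x ∈ O.image (φ j), T j x :=
        sum_nonneg fun j _ => sum_nonneg fun x _ => hT j x
      linarith
    · push Not at hg
      obtain ⟨o, ho, j, hj, hlt⟩ := hg
      set O' := O.filter fun p => φ j p ≠ φ j o with hO'
      have hsub : O' ⊆ O := filter_subset _ _
      have hss : O'.card < O.card := card_lt_card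
        ⟨hsub, fun h => by
          have := h ho
          rw [hO', mem_filter] at this
          exact this.2 rfl⟩
      obtain ⟨G, hG, hcard, hgood⟩ := ih O' (by omega)
      refine ⟨G, hG.trans hsub, le_trans ?_ hcard, hgood⟩
      have h1 : (O.card : ℝ) = ((O.filter fun p => φ j p = φ j o).card : ℝ) + (O'.card : ℝ) := by
        have := card_filter_add_card_filter_not (s := O) (fun p => φ j p = φ j o)
        rw [hO']; exact_mod_cast this.symm
      have h2 : ∀ i ∈ s, ∑ x ∈ O'.image (φ i), T i x ≤ ∑ x ∈ O.image (φ i), T i x :=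
        fun i _ => sum_le_sum_of_subset_of_nonneg (image_subset_image hsub)
          (fun x _ _ => hT i x)
      have h3 : ∑ x ∈ O'.image (φ j), T j x + T j (φ j o) ≤ ∑ x ∈ O.image (φ j), T j x := by
        have hn : φ j o ∉ O'.image (φ j) := by
          intro h
          obtain ⟨p, hp, hpo⟩ := mem_image.1 h
          rw [hO', mem_filter] at hp
          exact hp.2 hpo
        have : insert (φ j o) (O'.image (φ j)) ⊆ O.image (φ j) := by
          intro x hx
          rcases mem_insert.1 hx with h | h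
          · rw [h]; exact mem_image_of_mem _ ho
          · exact image_subset_image hsub h
        have h4 := sum_le_sum_of_subset_of_nonneg this (fun x _ _ => hT j x)
        rw [sum_insert hn] at h4
        linarith
      have h5 : ∑ i ∈ s, ∑ x ∈ O'.image (φ i), T i x + T j (φ j o) ≤
          ∑ i ∈ s, ∑ x ∈ O.image (φ i), T i x := by
        rw [← add_sum_erase s _ hj, ← add_sum_erase s _ hj]
        have := sum_le_sum (s := s.erase j) fun i hi => h2 i (mem_of_mem_erase hi)
        linarith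
      linarith

end

end Crest.Agent.R136.Win823
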