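import Mathlib
import Crest.Agent.R136.MkA_627

/-!
# R136, block U4 (helper248): the pinned extremiser, definitions

Everything is stated for CODES (line number, height) and abstract test sets (`MkA627.Geo`).

* `valx`, `rew`     : size of a test set when the rewards are changed by `x`.
* `IsCl`, `Low`, `Up` : assigned classes of level `j`, lower bound of their sizes, upper bound for all
  admissible test sets of a level (in range `R` of a width vector).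
* `UBw`   : the supremum bound `β'` for all windows and all sub-families (rewards changed by `x`).
* `InSeq` : the extremal sequence.
* `St`    : state of the extraction at a level.
-/

set_option autoImplicit false
set_option linter.unusedVariables false

open Finset Filter Topology

namespace Crest.Agent.R136.XA248

open Crest.Agent.R138.Ex926 Crest.Agent.R138.Dp76
open Crest.Agent.R138.Mk163 (zc zl rho alive own)
open Crest.Agent.R138.MkRef627 (lc)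
open MkA627 (Geo)

variable {σ κ : Type} [Fintype κ]

/-- reward `∏ (w k / ρ_i) ^ x k` -/
noncomputable def rew (i : ℕ) (w x : κ → ℝ) : ℝ := ∏ k, (w k / rho i) ^ x k

/-- width vector of a test set -/
def wv (G : Geo σ κ) (s : σ) : κ → ℝ := fun k => G.wid k s

/-- size of a test set, rewards changed by `x` -/
noncomputable def valx (G : Geo σ κ) (x : κ → ℝ) (n i : ℕ) (J : ℤ) (s : σ) : ℝ :=
  G.val n i J s * rew i (wv G s) x

/-- shape exponent (base 2) of the widths `w` at level `i` relative to `w'` at level `j` -/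
noncomputable def shp (i : ℕ) (w : κ → ℝ) (j : ℕ) (w' : κ → ℝ) (k : κ) : ℝ :=
  Real.logb 2 ((w k / rho i) / (w' k / rho j))

/-- a relation between widths at a level and widths at a deeper level -/
abbrev Rel (κ : Type) := ℕ → (κ → ℝ) → ℕ → (κ → ℝ) → Prop

/-- bounded range -/
def Rg (C : ℝ) : Rel κ := fun i w j w' => ∀ k, |shp i w j w' k| ≤ C * ((j : ℝ) - i)

/-- transitivity of a range relation -/
def RTrans (R : Rel κ) : Prop :=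
  ∀ i w j w' l w'', i ≤ j → j ≤ l → R i w j w' → R j w' l w'' → R i w l w''

/-- `c` assigns to the objects (line, cell) of level `j` of `F` classes lying in admissible test sets
with the common widths `w` -/
def IsCl (G : Geo σ κ) (n j : ℕ) (F : Finset (ℕ × ℝ)) (c : ℕ → ℤ → ℕ) (b : ℕ → σ) (w : κ → ℝ) :
    Prop :=
  ∀ J : ℤ, ∀ t ∈ alive F j J,
    G.mem n j J (b (c t J)) t ∧ G.adm n j J (b (c t J)) ∧ wv G (b (c t J)) = w

open Classical in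
/-- the classes have at least `D · size` objects -/
def Low (G : Geo σ κ) (x : κ → ℝ) (n j : ℕ) (F : Finset (ℕ × ℝ)) (c : ℕ → ℤ → ℕ) (b : ℕ → σ)
    (D : ℝ) : Prop :=
  ∀ J : ℤ, ∀ t ∈ alive F j J,
    D * valx G x n j J (b (c t J)) ≤ (((alive F j J).filter fun s => c s J = c t J).card : ℝ)

open Classical in
/-- all admissible test sets of level `i`, with widths in range `R` of `w` (level `j`), contain at most
`D · size` alive lines -/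
def Up (G : Geo σ κ) (R : Rel κ) (x : κ → ℝ) (n i : ℕ) (F : Finset (ℕ × ℝ)) (j : ℕ) (w : κ → ℝ)
    (D : ℝ) : Prop :=
  ∀ (J : ℤ) (s : σ), G.adm n i J s → R i (wv G s) j w →
    (((alive F i J).filter fun t => G.mem n i J s t).card : ℝ) ≤ D * valx G x n i J s

open Classical in
/-- **supremum bound** `β'` for the rewards changed by `x`: all windows `[i, j]` of length at least
`η (hi - lo)`, all sub-families in one cell of level `i`, own loss `h - 20`, `h ≤ δ (hi - lo)`, the upper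
bound `D0` at the levels `i, …, i + h`. -/
def UBw (G : Geo σ κ) (R : Rel κ) (I : ℕ → Finset (ℕ × ℝ)) (lo hi : ℕ → ℕ) (x : κ → ℝ)
    (β' : ℝ) : Prop :=
  ∀ η : ℝ, 0 < η → ∃ δ : ℝ, 0 < δ ∧ ∀ᶠ n in (U : Filter ℕ), ∀ i j h : ℕ, lo n ≤ i → i < j →
    j ≤ hi n → η * ((hi n : ℝ) - lo n) ≤ (j : ℝ) - i → (h : ℝ) ≤ δ * ((hi n : ℝ) - lo n) →
    ∀ A : Finset (ℕ × ℝ), A ⊆ I n → A.Nonempty →
    (∀ x ∈ A, ∀ y ∈ A, zc i x.2 = zc i y.2) →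
    (∀ x ∈ A, 2 ^ (j - i + 20) ≤ 2 ^ h * (own A i j x).card) →
    ∀ (c : ℕ → ℤ → ℕ) (b : ℕ → σ) (w : κ → ℝ) (D0 D1 : ℝ), 0 < D0 → 0 < D1 →
      IsCl G n j A c b w → Low G x n j A c b D1 →
      (∀ i' : ℕ, i ≤ i' → i' ≤ i + h → Up G R x n i' A j w D0) →
      D1 ≤ D0 * (2:ℝ) ^ ((β' + η) * ((j : ℝ) - i))

/-- **the extremal sequence**: levels `lo n < hi n`, `d n = 2^-(hi n - lo n)`, top classes
`(ct, bt, wt)` of density `D0 d^-β`, `D0` = bound at level `lo`, trivial bound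
`D0 · 2^(Cu (i - lo))` at all levels `i`; the admissible test sets have widths in the finite grid
`Sh n`. -/
structure InSeq (B : Base) (I : ℕ → Finset (ℕ × ℝ)) (G : Geo σ κ) (R : Rel κ)
    (Sh : ℕ → Finset (κ → ℝ)) (lo hi : ℕ → ℕ) (D0 : ℕ → ℝ) (β Cu : ℝ) (ct : ℕ → ℕ → ℤ → ℕ)
    (bt : ℕ → ℕ → σ) (wt : ℕ → κ → ℝ) : Prop where
  lohi : ∀ n, lo n < hi n
  base : ∀ n, B.d n = (1 / 2 : ℝ) ^ (hi n - lo n)
  ne : ∀ᶠ n in (U : Filter ℕ), (I n).Nonempty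
  card : ∀ ε : ℝ, 0 < ε → ∀ᶠ n in (U : Filter ℕ), Real.log ((I n).card : ℝ) ≤ B.d n ^ (-ε)
  cell0 : ∀ᶠ n in (U : Filter ℕ), ∀ x ∈ I n, ∀ y ∈ I n, zc (lo n) x.2 = zc (lo n) y.2
  one : ∀ᶠ n in (U : Filter ℕ), ∀ x ∈ I n, ∀ y ∈ I n, x.1 = y.1 →
    zc (hi n) x.2 = zc (hi n) y.2 → x = y
  own : ∀ ε : ℝ, 0 < ε → ∀ᶠ n in (U : Filter ℕ), ∀ x ∈ I n,
    B.d n ^ (-1 + ε) ≤ ((own (I n) (lo n) (hi n) x).card : ℝ)
  sh : ∀ n i J s, G.adm n i J s → wv G s ∈ Sh n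
  shc : ∀ ε : ℝ, 0 < ε → ∀ᶠ n in (U : Filter ℕ), ((Sh n).card : ℝ) ≤ B.d n ^ (-ε)
  shpos : ∀ n, ∀ w ∈ Sh n, ∀ k, 0 < w k
  vpos : ∀ n i J s, G.adm n i J s → 0 < G.val n i J s
  valw : ∀ n i J s J' s', G.adm n i J s → G.adm n i J' s' → wv G s = wv G s' →
    G.val n i J s = G.val n i J' s'
  D0pos : ∀ n, 0 < D0 n
  βpos : 0 ≤ β
  Cu0 : 0 ≤ Cu
  cl : ∀ᶠ n in (U : Filter ℕ), IsCl G n (hi n) (I n) (ct n) (bt n) (wt n)
  low : ∀ ε : ℝ, 0 < ε → ∀ᶠ n in (U : Filter ℕ),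
    Low G 0 n (hi n) (I n) (ct n) (bt n) (D0 n * B.d n ^ (-β + ε))
  up : ∀ ε : ℝ, 0 < ε → ∀ᶠ n in (U : Filter ℕ), ∀ i : ℕ, lo n ≤ i → i ≤ hi n →
    Up G R 0 n i (I n) (hi n) (wt n) (D0 n * (2:ℝ) ^ (Cu * ((i : ℝ) - lo n)) * B.d n ^ (-ε))

/-- D-max of the expected size at ALL levels `lo n ≤ i ≤ hi n` -/
def DMaxAll (B : Base) (J : ℕ → Finset (ℕ × ℝ)) (G : Geo σ κ) (R : Rel κ) (lo hi : ℕ → ℕ)
    (D0 : ℕ → ℝ) (β : ℝ) (wt : ℕ → κ → ℝ) : Prop :=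
  ∀ ε : ℝ, 0 < ε → ∀ᶠ n in (U : Filter ℕ), ∀ i : ℕ, lo n ≤ i → i ≤ hi n →
    Up G R 0 n i (J n) (hi n) (wt n) (D0 n * (2:ℝ) ^ (β * ((i : ℝ) - lo n)) * B.d n ^ (-ε))

/-- **state at level `l n`** (`(l n - lo n) / (hi n - lo n) → v`): near-maximal classes with common
widths `w n`, in range of the top widths. -/
structure St (B : Base) (J : ℕ → Finset (ℕ × ℝ)) (G : Geo σ κ) (R : Rel κ) (lo hi : ℕ → ℕ)
    (D0 : ℕ → ℝ) (β : ℝ) (wt : ℕ → κ → ℝ) (v : ℝ) (l : ℕ → ℕ) (c : ℕ → ℕ → ℤ → ℕ)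
    (b : ℕ → ℕ → σ) (w : ℕ → κ → ℝ) : Prop where
  lo_le : ∀ᶠ n in (U : Filter ℕ), lo n ≤ l n
  le_hi : ∀ᶠ n in (U : Filter ℕ), l n ≤ hi n
  lim : Tendsto (fun n => ((l n : ℝ) - lo n) / ((hi n : ℝ) - lo n)) U (𝓝 v)
  rng : ∀ᶠ n in (U : Filter ℕ), R (l n) (w n) (hi n) (wt n)
  cl : ∀ᶠ n in (U : Filter ℕ), IsCl G n (l n) (J n) (c n) (b n) (w n)
  near : ∀ ε : ℝ, 0 < ε → ∀ᶠ n in (U : Filter ℕ),
    Low G 0 n (l n) (J n) (c n) (b n)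
      (D0 n * (2:ℝ) ^ (β * ((l n : ℝ) - lo n)) * B.d n ^ ε)

/-! ### literal targets of the leaves -/

/-- **(FIN)**: `UBw` for a part `E` of a family `F` with honest classes; `E` has the portion
`2^(-δ (hi - lo))` of the complete shading of the lines of `F`. -/
def LeafFin : Prop :=
  ∀ {σ κ : Type} [Fintype κ] (I : ℕ → Finset (ℕ × ℝ)) (G : Geo σ κ) (R : Rel κ) (lo hi : ℕ → ℕ)
    (x : κ → ℝ) (β' : ℝ), UBw G R I lo hi x β' →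
    Tendsto (fun n => (hi n : ℝ) - lo n) U atTop →
    ∀ η : ℝ, 0 < η → ∃ δ : ℝ, 0 < δ ∧ ∀ᶠ n in (U : Filter ℕ), ∀ i j : ℕ, lo n ≤ i → i < j →
      j ≤ hi n → η * ((hi n : ℝ) - lo n) ≤ (j : ℝ) - i →
      ∀ E F : Finset (ℕ × ℝ), E ⊆ F → F ⊆ I n → E.Nonempty →
      (∀ y ∈ F, ∀ z ∈ F, zc i y.2 = zc i z.2) →
      (2:ℝ) ^ (-(δ * ((hi n : ℝ) - lo n))) * (((F.image Prod.fst).card : ℝ) * 2 ^ (j - i)) ≤
        ((E.image (lc j)).card : ℝ) →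
      ∀ (c : ℕ → ℤ → ℕ) (b : ℕ → σ) (w : κ → ℝ) (D0 D1 : ℝ), 0 < D0 → 0 < D1 →
        IsCl G n j F c b w → Low G x n j F c b D1 →
        (∀ i' : ℕ, i ≤ i' → (i' : ℝ) ≤ i + η * ((hi n : ℝ) - lo n) → Up G R x n i' E j w D0) →
        D1 ≤ D0 * (2:ℝ) ^ ((β' + η) * ((j : ℝ) - i))

/-- **(UP)** -/
def LeafUp : Prop :=
  ∀ {σ κ : Type} [Fintype κ] (B : Base) (I : ℕ → Finset (ℕ × ℝ)) (G : Geo σ κ) (R : Rel κ)
    (Sh : ℕ → Finset (κ → ℝ)) (lo hi : ℕ → ℕ) (D0 : ℕ → ℝ) (β Cu : ℝ) (ct : ℕ → ℕ → ℤ → ℕ)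
    (bt : ℕ → ℕ → σ) (wt : ℕ → κ → ℝ),
    InSeq B I G R Sh lo hi D0 β Cu ct bt wt → RTrans R → UBw G R I lo hi 0 β →
    ∃ J : ℕ → Finset (ℕ × ℝ), (∀ n, J n ⊆ I n) ∧
      (∀ᶠ n in (U : Filter ℕ), ((I n).card : ℝ) ≤ 2 * ((J n).card : ℝ)) ∧
      DMaxAll B J G R lo hi D0 β wt

/-- **(STEP)** in the direction `lam`; `g` = gradient of `β` at the rewards in question. -/
def LeafStep : Prop :=
  ∀ {σ κ : Type} [Fintype κ] (B : Base) (I : ℕ → Finset (ℕ × ℝ)) (G : Geo σ κ) (R Rc : Rel κ)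
    (Sh : ℕ → Finset (κ → ℝ)) (lo hi : ℕ → ℕ) (D0 : ℕ → ℝ) (β Cu C : ℝ) (ct : ℕ → ℕ → ℤ → ℕ)
    (bt : ℕ → ℕ → σ) (wt : ℕ → κ → ℝ) (g lam : κ → ℝ),
    InSeq B I G R Sh lo hi D0 β Cu ct bt wt → RTrans R →
    (∀ i w j w', i ≤ j → Rc i w j w' → R i w j w' ∧ Rg C i w j w') →
    (∀ ω : ℝ, 0 < ω → ∃ r : ℝ, 0 < r ∧ ∀ r', 0 < r' → r' ≤ r → ∃ β' : ℝ,
      UBw G Rc I lo hi (fun k => r' * lam k) β' ∧ |β' - β - r' * ∑ k, g k * lam k| ≤ ω * r') →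
    ∀ (J : ℕ → Finset (ℕ × ℝ)), Dense B J I → DMaxAll B J G R lo hi D0 β wt →
    ∀ (v' : ℝ) (l' : ℕ → ℕ) (c' : ℕ → ℕ → ℤ → ℕ) (b' : ℕ → ℕ → σ) (w' : ℕ → κ → ℝ),
      St B J G R lo hi D0 β wt v' l' c' b' w' →
    ∀ v : ℝ, 0 ≤ v → v < v' →
    ∃ (J' : ℕ → Finset (ℕ × ℝ)) (l : ℕ → ℕ) (c : ℕ → ℕ → ℤ → ℕ) (b : ℕ → ℕ → σ)
      (w : ℕ → κ → ℝ), (∀ n, J' n ⊆ J n) ∧ Dense B J' J ∧ (∀ᶠ n in (U : Filter ℕ), l n ≤ l' n) ∧
      St B J' G R lo hi D0 β wt v l c b w ∧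
      (∀ᶠ n in (U : Filter ℕ), Rc (l n) (w n) (l' n) (w' n)) ∧
      ∀ ε : ℝ, 0 < ε → ∀ᶠ n in (U : Filter ℕ),
        (∑ k, lam k * shp (l n) (w n) (l' n) (w' n) k) / ((hi n : ℝ) - lo n) ≤
          (v' - v) * (∑ k, g k * lam k) + ε

end Crest.Agent.R136.XA248
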