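import Mathlib
import Crest.Agent.R136.Deep0_770
import Crest.Agent.R136.Dia4_770
import Crest.Agent.R136.XA1_248
import Crest.Agent.R136.Win1_823

/-!
# R136 (helper770): deep D-max, finite lemmas

* `inc` : the incidence at the centre of an object, its cells, alive lines and own counts;
* `greedy` : extraction of heavy test sets;
* `prune2` : pruning of an extracted family (own counts and classes).
-/

set_option autoImplicit false
set_option linter.unusedVariables false
set_option linter.unusedSectionVars false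

open Finset Filter Topology

namespace Crest.Agent.R136.Dia770

open Crest.Agent.R138.Ex926 Crest.Agent.R138.Dp76
open Crest.Agent.R138.Mk163 (zc zl rho alive own)
open Crest.Agent.R138.MkRef627 (lc mem_alive own_one)
open Crest.Agent.R136.MkA627 (Geo)

/-- the incidence at the centre of an object of level `m` -/
noncomputable def inc (m : ℕ) (o : ℕ × ℤ) : ℕ × ℝ := (o.1, ((o.2 : ℝ) + 1 / 2) / 2 ^ m)

theorem zc_inc_top (m : ℕ) (o : ℕ × ℤ) : zc m (inc m o).2 = o.2 := by
  unfold Crest.Agent.R138.Mk163.zc inc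
  have e : (2:ℝ) ^ m * (((o.2 : ℝ) + 1 / 2) / 2 ^ m) = (o.2 : ℝ) + 1 / 2 := by field_simp
  simp only [e]
  rw [Int.floor_eq_iff]
  constructor <;> linarith

theorem lc_inc (m : ℕ) (o : ℕ × ℤ) : lc m (inc m o) = o := by
  unfold Crest.Agent.R138.MkRef627.lc
  rw [zc_inc_top]
  rfl

theorem inc_inj (m : ℕ) : Function.Injective (inc m) := by
  intro a b hab
  rw [← lc_inc m a, hab, lc_inc]

theorem zc_inc {i m : ℕ} (h : i ≤ m) (o : ℕ × ℤ) : zc i (inc m o).2 = o.2 / 2 ^ (m - i) := by
  rw [zc_div h, zc_inc_top]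

theorem lc_inc_le {i m : ℕ} (h : i ≤ m) (o : ℕ × ℤ) :
    lc i (inc m o) = (o.1, o.2 / 2 ^ (m - i)) := by
  unfold Crest.Agent.R138.MkRef627.lc
  rw [zc_inc h]
  rfl

open Classical in
theorem mem_alive_inc {E : Finset (ℕ × ℤ)} {i m : ℕ} (h : i ≤ m) {j : ℤ} {t : ℕ} :
    t ∈ alive (E.image (inc m)) i j ↔ ∃ o ∈ E, o.1 = t ∧ o.2 / 2 ^ (m - i) = j := by
  rw [mem_alive]
  constructor
  · rintro ⟨x, hx, hxt, hxj⟩
    obtain ⟨o, ho, rfl⟩ := mem_image.1 hx
    rw [zc_inc h] at hxj
    exact ⟨o, ho, hxt, hxj⟩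
  · rintro ⟨o, ho, h1, h2⟩
    exact ⟨inc m o, mem_image_of_mem _ ho, h1, by rw [zc_inc h, h2]⟩

open Classical in
theorem mem_alive_inc_top {E : Finset (ℕ × ℤ)} {m : ℕ} {j : ℤ} {t : ℕ} :
    t ∈ alive (E.image (inc m)) m j ↔ (t, j) ∈ E := by
  rw [mem_alive_inc le_rfl]
  simp only [Nat.sub_self, pow_zero, Int.ediv_one]
  constructor
  · rintro ⟨o, ho, rfl, rfl⟩; exact ho
  · intro h; exact ⟨(t, j), h, rfl, rfl⟩

open Classical in
theorem card_alive_inc (E : Finset (ℕ × ℤ)) (m : ℕ) (j : ℤ) (p : ℕ → Prop) :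
    ((alive (E.image (inc m)) m j).filter p).card = (E.filter fun o => o.2 = j ∧ p o.1).card := by
  have e : (alive (E.image (inc m)) m j).filter p =
      (E.filter fun o => o.2 = j ∧ p o.1).image Prod.fst := by
    ext t
    rw [mem_filter, mem_alive_inc_top, mem_image]
    constructor
    · rintro ⟨h1, h2⟩
      exact ⟨(t, j), mem_filter.2 ⟨h1, rfl, h2⟩, rfl⟩
    · rintro ⟨o, ho, rfl⟩
      obtain ⟨h1, rfl, h2⟩ := mem_filter.1 ho
      exact ⟨h1, h2⟩
  rw [e, card_image_of_injOn]
  intro a ha b hb hab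
  rw [Finset.mem_coe, mem_filter] at ha hb
  exact Prod.ext hab (ha.2.1.trans hb.2.1.symm)

open Classical in
/-- alive lines of a part of the extended objects -/
theorem alive_inc_subset {I : Finset (ℕ × ℝ)} {l1 m i : ℕ} (hi : i ≤ l1) (him : i ≤ m)
    {E : Finset (ℕ × ℤ)} (hE : E ⊆ extO I l1 m) (j : ℤ) :
    alive (E.image (inc m)) i j ⊆ alive I i j := by
  intro t ht
  rw [mem_alive_inc him] at ht
  obtain ⟨o, ho, h1, h2⟩ := ht
  obtain ⟨x, hx, hxo⟩ := extO_anc hi him (hE ho)
  rw [mem_alive]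
  simp only [lc, Prod.mk.injEq] at hxo
  exact ⟨x, hx, hxo.1.trans h1, hxo.2.trans h2⟩

open Classical in
/-- own counts of the incidences of a set of objects -/
theorem card_own_inc (E : Finset (ℕ × ℤ)) {l m : ℕ} (h : l ≤ m) (o : ℕ × ℤ) :
    (own (E.image (inc m)) l m (inc m o)).card =
      (E.filter fun p => (p.1, p.2 / 2 ^ (m - l)) = (o.1, o.2 / 2 ^ (m - l))).card := by
  rw [own_one]
  · have e : (E.image (inc m)).filter (fun y => lc l y = lc l (inc m o)) =
        (E.filter fun p => (p.1, p.2 / 2 ^ (m - l)) = (o.1, o.2 / 2 ^ (m - l))).image (inc m) := by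
      ext y
      rw [mem_filter, mem_image, mem_image]
      constructor
      · rintro ⟨⟨p, hp, rfl⟩, h2⟩
        rw [lc_inc_le h, lc_inc_le h] at h2
        exact ⟨p, mem_filter.2 ⟨hp, h2⟩, rfl⟩
      · rintro ⟨p, hp, rfl⟩
        obtain ⟨hp, h2⟩ := mem_filter.1 hp
        refine ⟨⟨p, hp, rfl⟩, ?_⟩
        rw [lc_inc_le h, lc_inc_le h]
        exact h2
    rw [e, card_image_of_injective _ (inc_inj m)]
  · intro x hx y hy h1 h2
    obtain ⟨p, hp, rfl⟩ := mem_image.1 hx
    obtain ⟨q, hq, rfl⟩ := mem_image.1 hy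
    rw [zc_inc_top, zc_inc_top] at h2
    have : p = q := Prod.ext h1 h2
    rw [this]

/-! ### extraction of heavy test sets -/

open Classical in
/-- **greedy extraction** -/
theorem greedy {X σ : Type*} [Nonempty σ] (R : σ → X → Prop) (adm : σ → Prop) (T : σ → ℝ)
    (hT : ∀ s, adm s → 0 ≤ T s) : ∀ (N : ℕ) (O : Finset X), O.card ≤ N →
    ∃ (P : Finset X) (φ : X → ℕ) (b : ℕ → σ), P ⊆ O ∧
      (∀ s, adm s → ((P.filter (R s)).card : ℝ) ≤ T s) ∧
      ∀ x ∈ O \ P, adm (b (φ x)) ∧ R (b (φ x)) x ∧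
        T (b (φ x)) < (((O \ P).filter fun y => φ y = φ x).card : ℝ) := by
  intro N
  induction N with
  | zero =>
    intro O hO
    have h0 : O = ∅ := card_eq_zero.1 (Nat.le_zero.1 hO)
    subst h0
    refine ⟨∅, fun _ => 0, fun _ => Classical.arbitrary σ, Subset.refl _, ?_, by simp⟩
    intro s hs
    simpa using hT s hs
  | succ N ih =>
    intro O hO
    by_cases hg : ∀ s, adm s → ((O.filter (R s)).card : ℝ) ≤ T s
    · exact ⟨O, fun _ => 0, fun _ => Classical.arbitrary σ, Subset.refl _, hg, by simp⟩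
    · push Not at hg
      obtain ⟨s, hs, hlt⟩ := hg
      have hpos : 0 < (O.filter (R s)).card := by
        have := (hT s hs).trans_lt hlt
        exact_mod_cast this
      have hc : (O.filter fun x => ¬ R s x).card ≤ N := by
        have := card_filter_add_card_filter_not (s := O) (R s)
        omega
      obtain ⟨P, φ, b, h1, h2, h3⟩ := ih _ hc
      have hPO : P ⊆ O := h1.trans (filter_subset _ _)
      refine ⟨P, fun x => if R s x then 0 else φ x + 1, fun k => if k = 0 then s else b (k - 1),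
        hPO, h2, ?_⟩
      intro x hx
      rw [Finset.mem_sdiff] at hx
      by_cases hR : R s x
      · simp only [hR, if_true]
        refine ⟨hs, trivial, hlt.trans_le ?_⟩
        norm_cast
        refine card_le_card ?_
        intro y hy
        rw [mem_filter] at hy
        rw [mem_filter, Finset.mem_sdiff]
        refine ⟨⟨hy.1, fun hyP => ?_⟩, by simp [hy.2]⟩
        exact (mem_filter.1 (h1 hyP)).2 hy.2
      · have hx' : x ∈ (O.filter fun x => ¬ R s x) \ P := by
          rw [Finset.mem_sdiff, mem_filter]; exact ⟨⟨hx.1, hR⟩, hx.2⟩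
        obtain ⟨a1, a2, a3⟩ := h3 x hx'
        simp only [hR, if_false, Nat.add_eq_zero_iff, one_ne_zero, and_false, Nat.add_sub_cancel]
        refine ⟨a1, a2, a3.trans_le ?_⟩
        norm_cast
        refine card_le_card ?_
        intro y hy
        rw [mem_filter, Finset.mem_sdiff, mem_filter] at hy
        rw [mem_filter, Finset.mem_sdiff]
        refine ⟨⟨hy.1.1.1, hy.1.2⟩, ?_⟩
        simp only [hy.1.1.2, if_false, hy.2]

open Classical in
/-- popular value of a function on a finite set, the values in `S` -/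
theorem popular {X Y : Type*} (E : Finset X) (S : Finset Y) (g : X → Y) (h : ∀ x ∈ E, g x ∈ S)
    (hne : E.Nonempty) : ∃ y ∈ S, (E.card : ℝ) ≤ S.card * ((E.filter fun x => g x = y).card : ℝ) := by
  by_contra hcon
  push Not at hcon
  have hS : S.Nonempty := by
    obtain ⟨x, hx⟩ := hne
    exact ⟨g x, h x hx⟩
  have h1 : (E.card : ℝ) = ∑ y ∈ S, ((E.filter fun x => g x = y).card : ℝ) := by
    rw [card_eq_sum_card_fiberwise h]
    push_cast
    rfl
  have hSp : (0:ℝ) < S.card := by exact_mod_cast card_pos.2 hS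
  have h2 : (S.card : ℝ) * E.card < (S.card : ℝ) * E.card := by
    calc (S.card : ℝ) * E.card = S.card * ∑ y ∈ S, ((E.filter fun x => g x = y).card : ℝ) := by
          rw [h1]
      _ = ∑ y ∈ S, (S.card : ℝ) * ((E.filter fun x => g x = y).card : ℝ) := by rw [mul_sum]
      _ < ∑ y ∈ S, (E.card : ℝ) := sum_lt_sum_of_nonempty hS hcon
      _ = (S.card : ℝ) * E.card := by rw [sum_const, nsmul_eq_mul]
  exact lt_irrefl _ h2

open Classical in
/-- **pruning of an extracted family**: classes `φ` with more than `T (φ x)` elements, coarse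
objects `a`; the number of coarse objects is at most `K`. -/
theorem prune2 {X Y : Type*} (E : Finset X) (φ : X → ℕ) (a : X → Y) (T : ℕ → ℝ)
    (hT : ∀ k, 0 ≤ T k) (h : ∀ x ∈ E, T (φ x) ≤ ((E.filter fun y => φ y = φ x).card : ℝ))
    {c : ℝ} (hc : 0 ≤ c) (hK : 4 * c * ((E.image a).card : ℝ) ≤ E.card) :
    ∃ G ⊆ E, (E.card : ℝ) ≤ 2 * G.card ∧
      (∀ x ∈ G, c ≤ ((G.filter fun y => a y = a x).card : ℝ)) ∧
      ∀ x ∈ G, T (φ x) / 4 ≤ ((G.filter fun y => φ y = φ x).card : ℝ) := by
  obtain ⟨G, hG, h1, h2⟩ := Crest.Agent.R136.Win823.exists_prune (κ := Bool)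
    (X := fun _ => ℕ ⊕ Y) (Finset.univ : Finset Bool)
    (fun j x => if j then Sum.inl (φ x) else Sum.inr (a x))
    (fun j z => Sum.elim (fun k => if j then T k / 4 else 0) (fun _ => if j then 0 else c) z)
    (by
      intro j z
      rcases z with k | y
      · simp only [Sum.elim_inl]; split_ifs
        · have := hT k; positivity
        · exact le_rfl
      · simp only [Sum.elim_inr]; split_ifs
        · exact le_rfl
        · exact hc) E.card E le_rfl
  have e1 : ∑ z ∈ E.image (fun x => (Sum.inl (φ x) : ℕ ⊕ Y)),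
      Sum.elim (fun k => T k / 4) (fun _ => (0:ℝ)) z ≤ (E.card : ℝ) / 4 := by
    have e2 : E.image (fun x => (Sum.inl (φ x) : ℕ ⊕ Y)) = (E.image φ).image Sum.inl := by
      rw [image_image]; rfl
    rw [e2, sum_image (fun x _ y _ hxy => Sum.inl_injective hxy)]
    simp only [Sum.elim_inl]
    rw [← sum_div]
    have e3 : (E.card : ℝ) = ∑ k ∈ E.image φ, ((E.filter fun y => φ y = k).card : ℝ) := by
      rw [card_eq_sum_card_image φ E]; push_cast; rfl
    have e4 : ∑ k ∈ E.image φ, T k ≤ ∑ k ∈ E.image φ, ((E.filter fun y => φ y = k).card : ℝ) := by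
      refine sum_le_sum fun k hk => ?_
      obtain ⟨x, hx, rfl⟩ := mem_image.1 hk
      exact h x hx
    rw [← e3] at e4
    linarith
  have e5 : ∑ z ∈ E.image (fun x => (Sum.inr (a x) : ℕ ⊕ Y)),
      Sum.elim (fun _ => (0:ℝ)) (fun _ => c) z ≤ (E.card : ℝ) / 4 := by
    have e2 : E.image (fun x => (Sum.inr (a x) : ℕ ⊕ Y)) = (E.image a).image Sum.inr := by
      rw [image_image]; rfl
    rw [e2, sum_image (fun x _ y _ hxy => Sum.inr_injective hxy)]
    simp only [Sum.elim_inr]
    rw [sum_const, nsmul_eq_mul]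
    linarith
  refine ⟨G, hG, ?_, ?_, ?_⟩
  · rw [Fintype.sum_bool] at h1
    simp only [if_true, Bool.false_eq_true, if_false] at h1
    have h1' : (E.card : ℝ) - (∑ z ∈ E.image (fun x => (Sum.inl (φ x) : ℕ ⊕ Y)),
      Sum.elim (fun k => T k / 4) (fun _ => (0:ℝ)) z + ∑ z ∈ E.image (fun x => (Sum.inr (a x) : ℕ ⊕ Y)),
      Sum.elim (fun _ => (0:ℝ)) (fun _ => c) z) ≤ G.card := by convert h1
    linarith
  · intro x hx
    have h3 := h2 x hx false (mem_univ _)
    simp only [Bool.false_eq_true, if_false, Sum.elim_inr, Sum.inr.injEq] at h3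
    convert h3
  · intro x hx
    have h3 := h2 x hx true (mem_univ _)
    simp only [if_true, Sum.elim_inl, Sum.inl.injEq] at h3
    convert h3

end Crest.Agent.R136.Dia770
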