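import Mathlib
import Crest.Agent.R136.Deep1_770

/-!
# R136 (helper770): deep D-max from the deep supremum bound, finite core

* `restr` : restriction of the admissible test sets;
* `UBd` : supremum bound for windows `[lo, j]`, `j` arbitrary, and arbitrary incidences of the lines;
* `deep_fin` : an extracted family which is a large part of the extended objects contains a
  configuration.
-/

set_option autoImplicit false
set_option linter.unusedVariables false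
set_option linter.unusedSectionVars false

open Finset Filter Topology

namespace Crest.Agent.R136.Dia770

open Crest.Agent.R138.Ex926 Crest.Agent.R138.Dp76
open Crest.Agent.R138.Mk163 (zc zl rho alive own)
open Crest.Agent.R138.MkRef627 (lc mem_alive own_one alive_mono)
open Crest.Agent.R136.MkA627 (Geo)
open Crest.Agent.R136.XA248 (rew wv valx Rel IsCl Low Up)

variable {σ κ : Type}

/-- restriction of the admissible test sets -/
def restr (G : Geo σ κ) (Q : ℕ → ℕ → σ → Prop) : Geo σ κ where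
  mem := G.mem
  adm := fun n i J s => G.adm n i J s ∧ Q n i s
  val := G.val
  wid := G.wid

open Classical in
/-- **deep supremum bound**: windows `[lo n, j]` of length at least `η (hi - lo)`, `j` arbitrary;
`A` any finite set of incidences of the lines of `I n`, one per (line, cell of level `j`). -/
def UBd [Fintype κ] (G : Geo σ κ) (Rg : ℕ → Rel κ) (Q : ℕ → ℕ → σ → Prop)
    (I : ℕ → Finset (ℕ × ℝ)) (lo hi : ℕ → ℕ) (r0 : ℕ → ℝ) (β' : ℝ) : Prop :=
  ∀ η : ℝ, 0 < η → ∃ δ : ℝ, 0 < δ ∧ ∀ᶠ n in (U : Filter ℕ), ∀ j h : ℕ, lo n < j → r0 n ≤ rho j →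
    η * ((hi n : ℝ) - lo n) ≤ (j : ℝ) - lo n → (h : ℝ) ≤ δ * ((hi n : ℝ) - lo n) →
    ∀ A : Finset (ℕ × ℝ), A.Nonempty → (∀ x ∈ A, ∃ y ∈ I n, y.1 = x.1) →
    (∀ x ∈ A, ∀ y ∈ A, zc (lo n) x.2 = zc (lo n) y.2) →
    (∀ x ∈ A, ∀ y ∈ A, x.1 = y.1 → zc j x.2 = zc j y.2 → x = y) →
    Real.logb 2 (A.card : ℝ) ≤ (2:ℝ) ^ (δ * ((j : ℝ) - lo n)) →
    (∀ x ∈ A, 2 ^ (j - lo n + 20) ≤ 2 ^ h * (own A (lo n) j x).card) →
    ∀ (c : ℕ → ℤ → ℕ) (b : ℕ → σ) (w : κ → ℝ) (D0 D1 : ℝ), 0 < D0 → 0 < D1 →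
      IsCl G n j A c b w → (∀ J, ∀ t ∈ alive A j J, Q n j (b (c t J))) → Low G 0 n j A c b D1 →
      (∀ i' : ℕ, lo n ≤ i' → i' ≤ lo n + h → Up G (Rg n) 0 n i' A j w D0) →
      D1 ≤ D0 * (2:ℝ) ^ ((β' + η) * ((j : ℝ) - lo n))

theorem rew_zero [Fintype κ] (i : ℕ) (w : κ → ℝ) : rew i w 0 = 1 := by
  unfold Crest.Agent.R136.XA248.rew
  simp

theorem valx_zero' [Fintype κ] (G : Geo σ κ) (n i : ℕ) (J : ℤ) (s : σ) :
    valx G 0 n i J s = G.val n i J s := by
  unfold Crest.Agent.R136.XA248.valx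
  rw [rew_zero, mul_one]

open Classical in
/-- **finite core**: an extracted family `E` of extended objects contains a configuration. -/
theorem deep_fin [Fintype κ] (G : Geo σ κ) {Q : ℕ → ℕ → σ → Prop} {n lo l1 m : ℕ} (h0 : lo ≤ l1)
    (h1 : l1 ≤ m) {I : Finset (ℕ × ℝ)}
    (cell : ∀ x ∈ I, ∀ y ∈ I, zc lo x.2 = zc lo y.2)
    (one : ∀ x ∈ I, ∀ y ∈ I, x.1 = y.1 → zc l1 x.2 = zc l1 y.2 → x = y)
    {a e0 τ : ℝ} (ha : 0 < a) (he : 0 < e0) (hτ : 0 ≤ τ)
    (hown : ∀ x ∈ I, a * 2 ^ (l1 - lo) ≤ ((own I lo l1 x).card : ℝ))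
    {E : Finset (ℕ × ℤ)} (hE : E ⊆ extO I l1 m) (hne : E.Nonempty)
    (hbig : e0 * ((extO I l1 m).card : ℝ) ≤ E.card) {φ : ℕ × ℤ → ℕ} {b : ℕ → ℤ × σ}
    (hadm : ∀ x ∈ E, G.adm n m x.2 (b (φ x)).2 ∧ Q n m (b (φ x)).2)
    (hmem : ∀ x ∈ E, x.2 = (b (φ x)).1 ∧ G.mem n m x.2 (b (φ x)).2 x.1)
    (hcl : ∀ x ∈ E, τ * G.val n m (b (φ x)).1 (b (φ x)).2 <
      ((E.filter fun y => φ y = φ x).card : ℝ))
    (hv : ∀ J s, G.adm n m J s → 0 ≤ G.val n m J s)
    {Sh : Finset (κ → ℝ)} (hSh : ∀ J s, G.adm n m J s → wv G s ∈ Sh) :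
    ∃ (A : Finset (ℕ × ℝ)) (c : ℕ → ℤ → ℕ) (b' : ℕ → σ) (w : κ → ℝ), A.Nonempty ∧
      (∀ x ∈ A, ∃ y ∈ I, y.1 = x.1) ∧
      (∀ x ∈ A, ∀ y ∈ A, zc lo x.2 = zc lo y.2) ∧
      (∀ x ∈ A, ∀ y ∈ A, x.1 = y.1 → zc m x.2 = zc m y.2 → x = y) ∧
      (A.card : ℝ) ≤ 2 ^ (m - l1) * (I.card : ℝ) ∧
      (∀ x ∈ A, a * e0 / (4 * Sh.card) * 2 ^ (m - lo) ≤ ((own A lo m x).card : ℝ)) ∧
      IsCl G n m A c b' w ∧ (∀ J, ∀ t ∈ alive A m J, Q n m (b' (c t J))) ∧
      Low G 0 n m A c b' (τ / 4) ∧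
      (∀ i, lo ≤ i → i ≤ l1 → ∀ j, alive A i j ⊆ alive I i j) := by
  -- width vectors
  obtain ⟨w, hwS, hpop⟩ := popular E Sh (fun x => wv G (b (φ x)).2)
    (fun x hx => hSh _ _ (hadm x hx).1) hne
  set E1 := E.filter fun x => wv G (b (φ x)).2 = w with hE1
  replace hpop : (E.card : ℝ) ≤ Sh.card * (E1.card : ℝ) := by convert hpop
  have hEpos : (0:ℝ) < E.card := by exact_mod_cast card_pos.2 hne
  have hSpos : (0:ℝ) < Sh.card := by
    have : Sh.Nonempty := ⟨w, hwS⟩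
    exact_mod_cast card_pos.2 this
  have hext : ((extO I l1 m).card : ℝ) = 2 ^ (m - l1) * (I.card : ℝ) := by
    have e1 : (I.image (lc l1)).card = I.card := by
      refine card_image_of_injOn ?_
      intro x hx y hy hxy
      simp only [lc, Prod.mk.injEq] at hxy
      exact one x hx y hy hxy.1 hxy.2
    rw [card_extO h1, e1]
    push_cast; rfl
  -- coarse objects
  have hcoarse : (E1.image fun o : ℕ × ℤ => (o.1, o.2 / 2 ^ (m - lo))) ⊆ I.image (lc lo) := by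
    intro p hp
    obtain ⟨o, ho, rfl⟩ := mem_image.1 hp
    obtain ⟨x, hx, hxo⟩ := extO_anc h0 (h0.trans h1) (hE (mem_filter.1 ho).1)
    exact mem_image.2 ⟨x, hx, hxo⟩
  have hIlo := card_ge_own (l0 := lo) (l1 := l1) (by positivity) hown
  set c0 : ℝ := a * e0 / (4 * Sh.card) * 2 ^ (m - lo) with hc0
  have hc0' : 0 ≤ c0 := by positivity
  have hK : 4 * c0 * ((E1.image fun o : ℕ × ℤ => (o.1, o.2 / 2 ^ (m - lo))).card : ℝ) ≤
      E1.card := by
    have g1 : ((E1.image fun o : ℕ × ℤ => (o.1, o.2 / 2 ^ (m - lo))).card : ℝ) ≤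
        (I.image (lc lo)).card := by exact_mod_cast card_le_card hcoarse
    have g2 : (2:ℝ) ^ (m - lo) = 2 ^ (m - l1) * 2 ^ (l1 - lo) := by
      rw [← pow_add]; congr 1; omega
    calc 4 * c0 * ((E1.image fun o : ℕ × ℤ => (o.1, o.2 / 2 ^ (m - lo))).card : ℝ)
        ≤ 4 * c0 * (I.image (lc lo)).card := mul_le_mul_of_nonneg_left g1 (by positivity)
      _ = e0 / Sh.card * 2 ^ (m - l1) * (a * 2 ^ (l1 - lo) * (I.image (lc lo)).card) := by
          rw [hc0, g2]; field_simp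
      _ ≤ e0 / Sh.card * 2 ^ (m - l1) * I.card :=
          mul_le_mul_of_nonneg_left hIlo (by positivity)
      _ = (e0 * (extO I l1 m).card) / Sh.card := by rw [hext]; ring
      _ ≤ E.card / Sh.card := div_le_div_of_nonneg_right hbig hSpos.le
      _ ≤ E1.card := by rw [div_le_iff₀ hSpos, mul_comm]; exact hpop
  -- classes of `E1`
  have hcl1 : ∀ x ∈ E1, max 0 (τ * G.val n m (b (φ x)).1 (b (φ x)).2) ≤
      ((E1.filter fun y => φ y = φ x).card : ℝ) := by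
    intro x hx
    obtain ⟨hxE, hxw⟩ := mem_filter.1 hx
    refine max_le (Nat.cast_nonneg _) ((hcl x hxE).le.trans ?_)
    norm_cast
    refine card_le_card ?_
    intro y hy
    obtain ⟨hyE, hyx⟩ := mem_filter.1 hy
    refine mem_filter.2 ⟨mem_filter.2 ⟨hyE, ?_⟩, hyx⟩
    rw [hyx]; exact hxw
  obtain ⟨G1, hG1, k1, k2, k3⟩ := prune2 E1 φ (fun o : ℕ × ℤ => (o.1, o.2 / 2 ^ (m - lo)))
    (fun k => max 0 (τ * G.val n m (b k).1 (b k).2)) (fun k => le_max_left _ _)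
    (fun x hx => by convert hcl1 x hx) hc0' (by convert hK)
  have hG1E : G1 ⊆ E := hG1.trans (filter_subset _ _)
  have hG1x : G1 ⊆ extO I l1 m := hG1E.trans hE
  have hG1ne : G1.Nonempty := by
    rw [← card_pos]
    have h5 : (0:ℝ) < E1.card := by
      by_contra h6
      have h7 : (E1.card : ℝ) = 0 := le_antisymm (not_lt.1 h6) (Nat.cast_nonneg _)
      rw [h7, mul_zero] at hpop
      linarith
    have h6 : (0:ℝ) < G1.card := by linarith
    exact_mod_cast h6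
  refine ⟨G1.image (inc m), fun t J => φ (t, J), fun k => (b k).2, w, hG1ne.image _, ?_, ?_, ?_, ?_,
    ?_, ?_, ?_, ?_, ?_⟩
  · intro x hx
    obtain ⟨o, ho, rfl⟩ := mem_image.1 hx
    obtain ⟨y, hy, hyo⟩ := extO_anc h0 (h0.trans h1) (hG1x ho)
    simp only [lc, Prod.mk.injEq] at hyo
    exact ⟨y, hy, hyo.1⟩
  · intro x hx y hy
    obtain ⟨o, ho, rfl⟩ := mem_image.1 hx
    obtain ⟨p, hp, rfl⟩ := mem_image.1 hy
    rw [zc_inc (h0.trans h1), zc_inc (h0.trans h1)]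
    obtain ⟨x', hx', hxo⟩ := extO_anc h0 (h0.trans h1) (hG1x ho)
    obtain ⟨y', hy', hyo⟩ := extO_anc h0 (h0.trans h1) (hG1x hp)
    simp only [lc, Prod.mk.injEq] at hxo hyo
    rw [← hxo.2, ← hyo.2]
    exact cell x' hx' y' hy'
  · intro x hx y hy hxy hz
    obtain ⟨o, ho, rfl⟩ := mem_image.1 hx
    obtain ⟨p, hp, rfl⟩ := mem_image.1 hy
    rw [zc_inc_top, zc_inc_top] at hz
    have : o = p := Prod.ext hxy hz
    rw [this]
  · rw [← hext]
    exact_mod_cast card_image_le.trans (card_le_card hG1x)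
  · intro x hx
    obtain ⟨o, ho, rfl⟩ := mem_image.1 hx
    rw [card_own_inc G1 (h0.trans h1) o]
    convert k2 o ho
  · intro J t ht
    rw [mem_alive_inc_top] at ht
    have h5 := hadm _ (hG1E ht)
    have h6 := hmem _ (hG1E ht)
    have h7 := (mem_filter.1 (hG1 ht)).2
    exact ⟨h6.2, h5.1, h7⟩
  · intro J t ht
    rw [mem_alive_inc_top] at ht
    exact (hadm _ (hG1E ht)).2
  · intro J t ht
    rw [mem_alive_inc_top] at ht
    have e8 : ((alive (G1.image (inc m)) m J).filter fun s => φ (s, J) = φ (t, J)).card =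
        (G1.filter fun o => o.2 = J ∧ φ (o.1, J) = φ (t, J)).card := by
      convert card_alive_inc G1 m J (fun s => φ (s, J) = φ (t, J))
    rw [valx_zero']
    show _ ≤ (((((alive (G1.image (inc m)) m J).filter fun s => φ (s, J) = φ (t, J)).card : ℕ)) : ℝ)
    rw [e8]
    have h5 := k3 _ ht
    have h6 := hmem _ (hG1E ht)
    simp only at h6
    have h7 : G.val n m J (b (φ (t, J))).2 = G.val n m (b (φ (t, J))).1 (b (φ (t, J))).2 := by
      rw [← h6.1]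
    rw [h7]
    have h8 : τ / 4 * G.val n m (b (φ (t, J))).1 (b (φ (t, J))).2 ≤
        max 0 (τ * G.val n m (b (φ (t, J))).1 (b (φ (t, J))).2) / 4 := by
      have := le_max_right 0 (τ * G.val n m (b (φ (t, J))).1 (b (φ (t, J))).2)
      linarith
    refine h8.trans (h5.trans ?_)
    norm_cast
    refine card_le_card ?_
    intro p hp
    obtain ⟨hpG, hpt⟩ := mem_filter.1 hp
    have h9 : p.2 = J := by
      have a1 := (hmem _ (hG1E hpG)).1
      rw [hpt] at a1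
      rw [a1, ← h6.1]
    refine mem_filter.2 ⟨hpG, h9, ?_⟩
    rw [← h9]
    rw [← h9] at hpt
    exact hpt
  · intro i hi0 hi1 j
    exact alive_inc_subset hi1 (hi1.trans h1) hG1x j

end Crest.Agent.R136.Dia770
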