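import Crest.Agent.R136.XIn3_823
import Crest.Agent.R136.Deep2_770
import Crest.Agent.R136.Dia1_770

/-!
# R136, block U4 (helper823): from the grid of widths to all sheets

* `GeoCov K0 lo L G1 G2` : every set of allowed codes (`L n`) in an admissible test set of `G2` (level
  `≥ lo n`) has a `1/K0`-portion in an admissible test set of `G1` of size `≤ K0 ·`;
* `mkA_big`, `allD_big`, `deepP_big` : D-max for `G1` gives D-max for `G2`;
* `geoCov_W`, `GeoCov.diag` : the instances.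
-/

set_option autoImplicit false
set_option linter.unusedVariables false
set_option linter.unusedSectionVars false

open Finset Filter Topology

namespace Crest.Agent.R136.XIn823

open Sh605 K4 KS879 En879 XA248 Win823 Cod289
open Crest.Agent.R138.Ex926 Crest.Agent.R138.Dp76
open Crest.Agent.R138.Mk163 (zc zl rho alive own)
open Crest.Agent.R138.MkRef627 (lc mem_alive)
open MkA627 (Geo MkA ampA)
open Dia770

noncomputable section

/-- comparison of two geometries with the same test sets -/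
structure GeoCov {σ κ : Type} (K0 : ℝ) (lo : ℕ → ℕ) (L : ℕ → Finset ℕ) (G1 G2 : Geo σ κ) :
    Prop where
  mem : ∀ n i J s t, G2.mem n i J s t ↔ G1.mem n i J s t
  val : ∀ n i J s, G2.val n i J s = G1.val n i J s
  wid : ∀ k s, G2.wid k s = G1.wid k s
  cov : ∀ n i : ℕ, lo n ≤ i → ∀ (J : ℤ) (s : σ), G2.adm n i J s → ∀ T : Finset ℕ, T ⊆ L n →
    (∀ t ∈ T, G2.mem n i J s t) → ∃ s' : σ, G1.adm n i J s' ∧
      G1.val n i J s' ≤ K0 * G2.val n i J s ∧
      ∃ T' : Finset ℕ, T' ⊆ T ∧ (∀ t ∈ T', G1.mem n i J s' t) ∧ (T.card : ℝ) ≤ K0 * (T'.card : ℝ)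

section

variable {σ κ : Type} {B : Base} {lo : ℕ → ℕ} {L : ℕ → Finset ℕ} {K0 : ℝ} {G1 G2 : Geo σ κ}
  {I : ℕ → Finset (ℕ × ℝ)} {lev : ℕ → ℚ → ℕ} {A : ℕ → ℝ}

/-- the comparison on a diagonal -/
theorem GeoCov.diag (h : GeoCov K0 lo L G1 G2) (sel : ℕ → ℕ) :
    GeoCov K0 (fun n => lo (sel n)) (fun n => L (sel n)) (diaG (fun _ => G1) G1.wid sel)
      (diaG (fun _ => G2) G2.wid sel) where
  mem := fun n i J s t => h.mem (sel n) i J s t
  val := fun n i J s => h.val (sel n) i J s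
  wid := h.wid
  cov := fun n i hi J s hs T hT hm => h.cov (sel n) i hi J s hs T hT hm

/-- the transfer of one bound -/
theorem bound_big {n i : ℕ} {J : ℤ} {s : σ} {e D : ℝ} (he : 0 ≤ e) (hD : 0 ≤ D) {T : Finset ℕ}
    (hc : ∃ s' : σ, G1.adm n i J s' ∧ G1.val n i J s' ≤ e * G2.val n i J s ∧
      ∃ T' : Finset ℕ, T' ⊆ T ∧ (∀ t ∈ T', G1.mem n i J s' t) ∧ (T.card : ℝ) ≤ e * (T'.card : ℝ))
    (h : ∀ s', G1.adm n i J s' → ∀ T' : Finset ℕ, T' ⊆ T → (∀ t ∈ T', G1.mem n i J s' t) →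
      (T'.card : ℝ) ≤ D * G1.val n i J s') :
    (T.card : ℝ) ≤ e * e * D * G2.val n i J s := by
  obtain ⟨s', h1, h2, T', h3, h4, h5⟩ := hc
  have h6 := h s' h1 T' h3 h4
  calc (T.card : ℝ) ≤ e * (T'.card : ℝ) := h5
    _ ≤ e * (D * G1.val n i J s') := mul_le_mul_of_nonneg_left h6 he
    _ ≤ e * (D * (e * G2.val n i J s)) := by gcongr
    _ = _ := by ring

theorem ev_const_le (B : Base) (K : ℝ) {ε : ℝ} (hε : 0 < ε) :
    ∀ᶠ n in (U : Filter ℕ), K ≤ B.d n ^ (-ε) := by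
  filter_upwards [B.ev_L_ge (K / ε)] with n hn
  rw [div_le_iff₀ hε] at hn
  have e : B.d n ^ (-ε) = Real.exp (B.L n * ε) := by
    rw [Real.rpow_def_of_pos (B.pos n)]
    congr 1
    unfold Base.L
    ring
  rw [e]
  have := Real.add_one_le_exp (B.L n * ε)
  linarith

theorem rpow_half (n : ℕ) {ε : ℝ} : B.d n ^ (-(ε / 2)) * B.d n ^ (-(ε / 2)) = B.d n ^ (-ε) := by
  rw [← Real.rpow_add (B.pos n)]; congr 1; ring

/-- values of admissible sets are nonnegative as soon as they bound something -/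
theorem val_nonneg_big (hc : GeoCov K0 lo L G1 G2) (hK0 : 1 ≤ K0) {n i : ℕ} (hi : lo n ≤ i)
    {J : ℤ} {s : σ} (hs : G2.adm n i J s)
    (h1 : ∀ s', G1.adm n i J s' → 0 ≤ G1.val n i J s') : 0 ≤ G2.val n i J s := by
  obtain ⟨s', hs', hval, -⟩ := hc.cov n i hi J s hs ∅ (by simp) (by simp)
  exact nonneg_of_mul_nonneg_right ((h1 s' hs').trans hval) (by linarith)

open Classical in
/-- D-max for `G1` gives D-max for `G2` -/
theorem mkA_big (hc : GeoCov K0 lo L G1 G2) (hK0 : 1 ≤ K0)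
    (hL : ∀ᶠ n in (U : Filter ℕ), ∀ x ∈ I n, x.1 ∈ L n)
    (hlo : ∀ᶠ n in (U : Filter ℕ), lo n ≤ lev n 0)
    {c Λ : ℝ → ℝ} {τ : κ → ℝ → ℝ} {f : ℕ → ℚ → ℕ → ℤ → ℕ} {b : ℕ → ℚ → ℕ → σ}
    {vm : ℕ → ℚ → ℝ} {w : κ → ℕ → ℚ → ℝ} (h : MkA B I G1 lev A c Λ τ f b vm w)
    (hmark : ∀ v : ℚ, 0 ≤ v → v ≤ 1 → ∀ᶠ n in (U : Filter ℕ), ∀ J : ℤ,
      ∀ t ∈ alive (I n) (lev n v) J, G1.adm n (lev n v) J (b n v (f n v t J)) →
        G2.adm n (lev n v) J (b n v (f n v t J))) :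
    MkA B I G2 lev A c Λ τ f b vm w where
  ne := h.ne
  card := h.card
  Apos := h.Apos
  c0 := h.c0
  lam0 := h.lam0
  lam := h.lam
  tau1 := h.tau1
  lev_mono := h.lev_mono
  lev_lim := h.lev_lim
  cell0 := h.cell0
  one := h.one
  own := h.own
  dmax := by
    intro v hv0 hv1 ε hε
    filter_upwards [ev_const_le B (K0 * K0) (show 0 < ε / 2 by positivity),
      h.dmax v hv0 hv1 (ε / 2) (by positivity), hlo, h.lev_mono 0 v le_rfl hv0 hv1, hL] with n h1
      h2 h3 h4 h6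
    intro J s hs
    have hA : 0 ≤ ampA B A c n v := by
      unfold ampA
      exact mul_nonneg (h.Apos n).le (Real.rpow_pos_of_pos (B.pos n) _).le
    have hp : 0 < B.d n ^ (-(ε / 2)) := Real.rpow_pos_of_pos (B.pos n) _
    have hTL : ((alive (I n) (lev n v) J).filter fun t => G2.mem n (lev n v) J s t) ⊆ L n := by
      intro t ht
      obtain ⟨x, hx, hx1, -⟩ := mem_alive.1 (mem_filter.1 ht).1
      rw [← hx1]; exact h6 x hx
    have h5 := bound_big (G1 := G1) (G2 := G2) (D := B.d n ^ (-(ε / 2)) * ampA B A c n v)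
      (show (0:ℝ) ≤ K0 by linarith) (by positivity)
      (hc.cov n (lev n v) (h3.trans h4) J s hs
        ((alive (I n) (lev n v) J).filter fun t => G2.mem n (lev n v) J s t) hTL
        (fun t ht => (mem_filter.1 ht).2))
      (fun s' hs' T' hT' hm => by
        refine le_trans (Nat.cast_le.2 (card_le_card fun t ht => ?_)) (h2 J s' hs')
        exact mem_filter.2 ⟨(mem_filter.1 (hT' ht)).1, hm t ht⟩)
    refine h5.trans ?_
    have hv : 0 ≤ G2.val n (lev n v) J s ∨ ampA B A c n v = 0 := by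
      rcases hA.lt_or_eq with hA' | hA'
      · left
        refine val_nonneg_big hc hK0 (h3.trans h4) hs fun s' hs' => ?_
        have h7 := h2 J s' hs'
        by_contra hneg
        push Not at hneg
        have h8 : B.d n ^ (-(ε / 2)) * ampA B A c n v * G1.val n (lev n v) J s' < 0 :=
          mul_neg_of_pos_of_neg (by positivity) hneg
        have h9 : (0:ℝ) ≤ (((alive (I n) (lev n v) J).filter fun t =>
          G1.mem n (lev n v) J s' t).card : ℝ) := Nat.cast_nonneg _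
        linarith
      · exact Or.inr hA'.symm
    rcases hv with hv | hv
    · calc K0 * K0 * (B.d n ^ (-(ε / 2)) * ampA B A c n v) * G2.val n (lev n v) J s
          ≤ B.d n ^ (-(ε / 2)) * (B.d n ^ (-(ε / 2)) * ampA B A c n v) *
            G2.val n (lev n v) J s := by gcongr
        _ = (B.d n ^ (-(ε / 2)) * B.d n ^ (-(ε / 2))) * ampA B A c n v *
            G2.val n (lev n v) J s := by ring
        _ = _ := by rw [rpow_half n (ε := ε)]
    · rw [hv]; simp
  mark := by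
    intro v hv0 hv1
    filter_upwards [h.mark v hv0 hv1, hmark v hv0 hv1] with n h1 h2
    intro J t ht
    obtain ⟨k1, k2, k3, k4⟩ := h1 J t ht
    exact ⟨(hc.mem _ _ _ _ _).2 k1, h2 J t ht k2, by rw [hc.val]; exact k3,
      fun j => by rw [hc.wid]; exact k4 j⟩
  near := h.near
  vpos := h.vpos
  wpos := h.wpos
  tau := h.tau

open Classical in
theorem allD_big (hc : GeoCov K0 lo L G1 G2) (hK0 : 1 ≤ K0)
    (hL : ∀ᶠ n in (U : Filter ℕ), ∀ x ∈ I n, x.1 ∈ L n)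
    (hlo : ∀ᶠ n in (U : Filter ℕ), lo n ≤ lev n 0)
    (hA : ∀ n, 0 < A n) {g : ℝ} (h : AllD B I G1 lev A g) : AllD B I G2 lev A g := by
  intro ε hε
  filter_upwards [ev_const_le B (K0 * K0) (show 0 < ε / 2 by positivity),
    h (ε / 2) (by positivity), hlo, hL] with n h1 h2 h3 h6
  intro i hi0 hi1 J s hs
  have hAn := hA n
  have hp : 0 < B.d n ^ (-(ε / 2)) := Real.rpow_pos_of_pos (B.pos n) _
  have hTL : ((alive (I n) i J).filter fun t => G2.mem n i J s t) ⊆ L n := by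
    intro t ht
    obtain ⟨x, hx, hx1, -⟩ := mem_alive.1 (mem_filter.1 ht).1
    rw [← hx1]; exact h6 x hx
  have h5 := bound_big (G1 := G1) (G2 := G2)
    (D := B.d n ^ (-(ε / 2)) * (A n * 2 ^ (g * ((i : ℝ) - lev n 0))))
    (show (0:ℝ) ≤ K0 by linarith) (by positivity)
    (hc.cov n i (h3.trans hi0) J s hs ((alive (I n) i J).filter fun t => G2.mem n i J s t) hTL
      (fun t ht => (mem_filter.1 ht).2))
    (fun s' hs' T' hT' hm => by
      refine le_trans (Nat.cast_le.2 (card_le_card fun t ht => ?_)) (h2 i hi0 hi1 J s' hs')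
      exact mem_filter.2 ⟨(mem_filter.1 (hT' ht)).1, hm t ht⟩)
  refine h5.trans ?_
  have hv : 0 ≤ G2.val n i J s := by
    refine val_nonneg_big hc hK0 (h3.trans hi0) hs fun s' hs' => ?_
    have h7 := h2 i hi0 hi1 J s' hs'
    by_contra hneg
    push Not at hneg
    have h8 : B.d n ^ (-(ε / 2)) * (A n * 2 ^ (g * ((i : ℝ) - lev n 0))) * G1.val n i J s' < 0 :=
      mul_neg_of_pos_of_neg (by positivity) hneg
    have h9 : (0:ℝ) ≤ (((alive (I n) i J).filter fun t => G1.mem n i J s' t).card : ℝ) :=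
      Nat.cast_nonneg _
    linarith
  calc K0 * K0 * (B.d n ^ (-(ε / 2)) * (A n * 2 ^ (g * ((i : ℝ) - lev n 0)))) * G2.val n i J s
      ≤ B.d n ^ (-(ε / 2)) * (B.d n ^ (-(ε / 2)) * (A n * 2 ^ (g * ((i : ℝ) - lev n 0)))) *
        G2.val n i J s := by gcongr
    _ = (B.d n ^ (-(ε / 2)) * B.d n ^ (-(ε / 2))) * (A n * 2 ^ (g * ((i : ℝ) - lev n 0))) *
        G2.val n i J s := by ring
    _ = _ := by rw [rpow_half n (ε := ε)]

open Classical in
theorem deepP_big (hc : GeoCov K0 lo L G1 G2) (hK0 : 1 ≤ K0)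
    (hL : ∀ᶠ n in (U : Filter ℕ), ∀ x ∈ I n, x.1 ∈ L n)
    (hlo : ∀ᶠ n in (U : Filter ℕ), lo n ≤ lev n 0)
    (hmono : ∀ v : ℚ, 0 ≤ v → v ≤ 1 → ∀ᶠ n in (U : Filter ℕ), lev n 0 ≤ lev n v)
    (hlev1 : ∀ v : ℚ, 0 ≤ v → v ≤ 1 → ∀ᶠ n in (U : Filter ℕ), lev n v ≤ lev n 1)
    (hA : ∀ n, 0 < A n) {g : ℝ} {r0 : ℕ → ℝ} (h : DeepP B I G1 lev A g r0) :
    DeepP B I G2 lev A g r0 := by
  intro v hv0 hv1 m hm hr J hJ ε hε
  obtain ⟨P, hP1, hP2, hP3⟩ := h v hv0 hv1 m hm hr J hJ (ε / 2) (by positivity)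
  refine ⟨P, hP1, hP2, ?_⟩
  filter_upwards [ev_const_le B (K0 * K0) (show 0 < ε / 2 by positivity), hP3, hlo,
    hmono v hv0 hv1, hm, hL, hJ.1] with n h1 h2 h3 h4 h6 h7 hJI
  intro j s hs
  have hAn := hA n
  have hp : 0 < B.d n ^ (-(ε / 2)) := Real.rpow_pos_of_pos (B.pos n) _
  have hpv : 0 < B.d n ^ (-(g * v)) := Real.rpow_pos_of_pos (B.pos n) _
  have key : ∀ Q : Finset (ℕ × ℤ), (∀ o ∈ Q, o.2 = j) → (Q.image Prod.fst).card = Q.card := by
    intro Q hQ
    refine card_image_of_injOn fun o ho o' ho' hoo => ?_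
    exact Prod.ext hoo ((hQ o ho).trans (hQ o' ho').symm)
  have hPL : ∀ o ∈ P n, o.1 ∈ L n := by
    intro o ho
    have h8 := hP1 n ho
    rcases le_total (m n) (lev n 1) with h9 | h9
    · rw [mem_extO_le h9] at h8
      obtain ⟨x, hx, rfl⟩ := h8
      exact h7 x (hJI hx)
    · rw [mem_extO_ge h9] at h8
      obtain ⟨x, hx, hxo⟩ := h8
      have : x.1 = o.1 := (Prod.ext_iff.1 hxo).1
      rw [← this]
      exact h7 x (hJI hx)
  set Q := (P n).filter fun o => o.2 = j ∧ G2.mem n (m n) j s o.1 with hQ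
  have h5 := bound_big (G1 := G1) (G2 := G2) (T := Q.image Prod.fst)
    (D := B.d n ^ (-(ε / 2)) * (A n * B.d n ^ (-(g * v))) *
      2 ^ ((g + ε / 2) * ((m n : ℝ) - lev n v))) (show (0:ℝ) ≤ K0 by linarith) (by positivity)
    (hc.cov n (m n) (h3.trans (h4.trans h6)) j s hs (Q.image Prod.fst) (fun t ht => by
      obtain ⟨o, ho, rfl⟩ := mem_image.1 ht
      exact hPL o (mem_filter.1 ho).1) (fun t ht => by
      obtain ⟨o, ho, rfl⟩ := mem_image.1 ht
      exact (mem_filter.1 ho).2.2))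
    (fun s' hs' T' hT' hmm => by
      refine le_trans ?_ (h2 j s' hs')
      have e1 : T'.card = ((T'.image fun t => (t, j)).card) := by
        rw [card_image_of_injective]
        intro a b hab
        exact (Prod.ext_iff.1 hab).1
      rw [e1]
      refine Nat.cast_le.2 (card_le_card fun o ho => ?_)
      obtain ⟨t, ht, rfl⟩ := mem_image.1 ho
      obtain ⟨o', ho', hoo⟩ := mem_image.1 (hT' ht)
      rw [hQ, mem_filter] at ho'
      have e2 : o' = (t, j) := Prod.ext hoo ho'.2.1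
      rw [mem_filter, ← e2]
      refine ⟨ho'.1, ho'.2.1, ?_⟩
      rw [e2]; exact hmm t ht)
  rw [key Q (fun o ho => (mem_filter.1 ho).2.1)] at h5
  refine h5.trans ?_
  have hmv : (lev n v : ℝ) ≤ m n := by exact_mod_cast h6
  have e3 : (2:ℝ) ^ ((g + ε / 2) * ((m n : ℝ) - lev n v)) ≤
      2 ^ ((g + ε) * ((m n : ℝ) - lev n v)) := by
    refine Real.rpow_le_rpow_of_exponent_le (by norm_num) ?_
    nlinarith
  have hv : 0 ≤ G2.val n (m n) j s := by
    refine val_nonneg_big hc hK0 (h3.trans (h4.trans h6)) hs fun s' hs' => ?_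
    have h10 := h2 j s' hs'
    by_contra hneg
    push Not at hneg
    have h12 : B.d n ^ (-(ε / 2)) * (A n * B.d n ^ (-(g * v))) *
        2 ^ ((g + ε / 2) * ((m n : ℝ) - lev n v)) * G1.val n (m n) j s' < 0 :=
      mul_neg_of_pos_of_neg (by positivity) hneg
    have h13 : (0:ℝ) ≤ (((P n).filter fun o => o.2 = j ∧ G1.mem n (m n) j s' o.1).card : ℝ) :=
      Nat.cast_nonneg _
    linarith
  calc K0 * K0 * (B.d n ^ (-(ε / 2)) * (A n * B.d n ^ (-(g * v))) *
        2 ^ ((g + ε / 2) * ((m n : ℝ) - lev n v))) * G2.val n (m n) j s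
      ≤ B.d n ^ (-(ε / 2)) * (B.d n ^ (-(ε / 2)) * (A n * B.d n ^ (-(g * v))) *
        2 ^ ((g + ε) * ((m n : ℝ) - lev n v))) * G2.val n (m n) j s := by gcongr
    _ = (B.d n ^ (-(ε / 2)) * B.d n ^ (-(ε / 2))) * (A n * B.d n ^ (-(g * v))) *
        2 ^ ((g + ε) * ((m n : ℝ) - lev n v)) * G2.val n (m n) j s := by ring
    _ = _ := by rw [rpow_half n (ε := ε)]

end

/-- the instance: grid of widths and all sheets; `Inj` on the allowed codes -/
theorem geoCov_W {ℓ : ℕ → ℕ → Ln4} {q : Fin 3 → ℝ} {Leg Leg' : ℕ → ℕ → ℝ → ℝ → Plk4 → Prop}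
    {Sh : ℕ → Finset (Fin 3 → ℝ)} {r Λ : ℕ → ℝ} {lo : ℕ → ℕ} {L : ℕ → Finset ℕ} {K0 : ℝ}
    (hR : ∀ n i, lo n ≤ i → RndAt (Leg n) (Leg' n) q (Sh n) K0 i (r n) (Λ n))
    (hinj : ∀ n, ∀ s ∈ L n, ∀ t ∈ L n, ℓ n s = ℓ n t → s = t) (hK0 : 0 ≤ K0) :
    GeoCov K0 lo L (geoW ℓ q fun n i K => LegS (Leg' n) (Sh n) i (r n) (Λ n) K)
      (geoW ℓ q fun n i K => Leg n i (r n) (Λ n) K) where
  mem := fun _ _ _ _ _ => Iff.rfl
  val := fun _ _ _ _ => rfl
  wid := fun _ _ => rfl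
  cov := by
    classical
    intro n i hi J s hs T hTL hT
    have hs1 : Leg n i (r n) (Λ n) (atJ J s) := hs
    have hTinj : Set.InjOn (fun t => ((ℓ n t, J) : Ln4 × ℤ)) (T : Set ℕ) := by
      intro a ha b hb hab
      exact hinj n a (hTL ha) b (hTL hb) (Prod.ext_iff.1 hab).1
    set O : Finset (Ln4 × ℤ) := T.image fun t => (ℓ n t, J) with hO
    have hOc : O.card = T.card := card_image_of_injOn hTinj
    obtain ⟨K', k1, k2, kj, k3, k4⟩ := hR n i hi (atJ J s) hs1 O (fun o ho => by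
      obtain ⟨t, ht, rfl⟩ := mem_image.1 ho
      exact ⟨rfl, hT t ht⟩)
    have k5 := k4 (fun _ => Classical.propDecidable _)
    have hj : K'.j = J := kj
    have hat : atJ J K' = K' := by unfold atJ; rw [← hj]
    have hval : ∀ K : Plk4, K.a * K.w 2 * K.w 1 *
        ((K.a / rho i) ^ q 0 * (K.w 1 / rho i) ^ q 1 * (K.w 2 / rho i) ^ q 2) = cap5 q i K := by
      intro K
      unfold cap5
      rw [div_rho, div_rho, div_rho]
    have hin : ∀ t, In4 i K' (ℓ n t, J) ↔ InSheet (ℓ n t) K'.e K'.c K'.w K'.q K'.a (zl i J)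
        (rho i) := by
      intro t
      constructor
      · intro h
        have h2 : InSheet (ℓ n t) K'.e K'.c K'.w K'.q K'.a ((K'.j : ℝ) / 2 ^ i) (1 / 2 ^ i) := h.2
        rw [hj] at h2
        exact h2
      · intro h
        refine ⟨hj.symm, ?_⟩
        show InSheet (ℓ n t) K'.e K'.c K'.w K'.q K'.a ((K'.j : ℝ) / 2 ^ i) (1 / 2 ^ i)
        rw [hj]
        exact h
    refine ⟨K', ?_, ?_, T.filter fun t => In4 i K' (ℓ n t, J), filter_subset _ _, ?_, ?_⟩
    · show LegS (Leg' n) (Sh n) i (r n) (Λ n) (atJ J K')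
      rw [hat]
      exact ⟨k1, k2⟩
    · have e1 := hval K'
      have e2 := hval s
      have e3 : cap5 q i (atJ J s) = cap5 q i s := rfl
      rw [e3] at k3
      show K'.a * K'.w 2 * K'.w 1 *
        ((K'.a / rho i) ^ q 0 * (K'.w 1 / rho i) ^ q 1 * (K'.w 2 / rho i) ^ q 2) ≤
        K0 * (s.a * s.w 2 * s.w 1 *
        ((s.a / rho i) ^ q 0 * (s.w 1 / rho i) ^ q 1 * (s.w 2 / rho i) ^ q 2))
      rw [e1, e2]
      exact k3
    · intro t ht
      exact (hin t).1 (mem_filter.1 ht).2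
    · rw [← hOc]
      refine k5.trans (mul_le_mul_of_nonneg_left ?_ hK0)
      refine Nat.cast_le.2 ?_
      refine (card_le_card fun o ho => ?_).trans (card_image_le (f := fun t => ((ℓ n t, J) : Ln4 × ℤ)))
      rw [mem_filter] at ho
      obtain ⟨t, ht, rfl⟩ := mem_image.1 ho.1
      exact mem_image_of_mem _ (mem_filter.2 ⟨ht, ho.2⟩)

end

end Crest.Agent.R136.XIn823
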