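import Crest.Agent.R136.AllD1_823
import Crest.Agent.R136.XIn4_823
import Crest.Agent.R116.Xa3_794

/-!
# R136, block U4 (helper823): D-max at all natural levels, part 2

* `LevCov` : the lines of a test set of `G2` over a cell of level `i` restricted to a cell of level
  `i + k` : a `1 / (K0 2^(C k))`-part lies in a test set of `G1` of size `≤ K0 2^(C k) ·`.
* `allD_of_lev` : a marked sequence for `G1` and `LevCov` give `AllD` for `G2`.
* `geoS`, `levCov_S`, `allD_S` : the class `ShN` with arbitrary range conditions.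
-/

set_option autoImplicit false
set_option linter.unusedVariables false
set_option linter.unusedSectionVars false

open Finset Filter Topology

namespace Crest.Agent.R136.AllD823

open Sh605 K4 XIn823
open Crest.Agent.R138.Ex926 Crest.Agent.R138.Dp76
open Crest.Agent.R138.Mk163 (zc zl rho alive own)
open Crest.Agent.R138.MkRef627 (lc mem_alive)
open MkA627 (Geo MkA ampA)
open Dia770 (AllD zc_div ico_div)

noncomputable section

/-- change of the level -/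
def LevCov {σ κ : Type} (K0 C : ℝ) (hi km : ℕ → ℕ) (G1 G2 : Geo σ κ) : Prop :=
  ∀ᶠ n in (U : Filter ℕ), ∀ i k : ℕ, i + k ≤ hi n → k ≤ km n → ∀ (J J' : ℤ) (s : σ),
    J' / 2 ^ k = J → G2.adm n i J s → ∀ T : Finset ℕ, (∀ t ∈ T, G2.mem n i J s t) →
      ∃ s' : σ, G1.adm n (i + k) J' s' ∧
        G1.val n (i + k) J' s' ≤ K0 * 2 ^ (C * k) * G2.val n i J s ∧
        ∃ T' : Finset ℕ, T' ⊆ T ∧ (∀ t ∈ T', G1.mem n (i + k) J' s' t) ∧
          (T.card : ℝ) ≤ K0 * 2 ^ (C * k) * (T'.card : ℝ)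

theorem exists_net {l : ℕ → ℕ} {N m : ℕ} (h0 : l 0 ≤ m) (h1 : m ≤ l N) :
    ∃ r r' : ℕ, r ≤ r' ∧ r' ≤ r + 1 ∧ r' ≤ N ∧ l r ≤ m ∧ m ≤ l r' := by
  classical
  have hex : ∃ j, m ≤ l j := ⟨N, h1⟩
  have hN : Nat.find hex ≤ N := Nat.find_min' hex h1
  have hs := Nat.find_spec hex
  rcases hj : Nat.find hex with _ | k
  · rw [hj] at hs
    exact ⟨0, 0, le_rfl, by omega, by omega, h0, hs⟩
  · rw [hj] at hs hN
    have := Nat.find_min hex (m := k) (by omega)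
    exact ⟨k, k + 1, by omega, le_rfl, hN, by omega, hs⟩

section

variable {σ κ : Type} {B : Base} {G1 G2 : Geo σ κ} {I : ℕ → Finset (ℕ × ℝ)} {lev : ℕ → ℚ → ℕ}
  {A : ℕ → ℝ} {K0 C g : ℝ} {km : ℕ → ℕ}

open Classical in
/-- alive lines and sub-cells -/
theorem alive_sub {I : Finset (ℕ × ℝ)} {i k : ℕ} {J : ℤ} {P : ℕ → Prop} {D : ℝ}
    (h : ∀ J' : ℤ, J' / 2 ^ k = J → (((alive I (i + k) J').filter P).card : ℝ) ≤ D) :
    (((alive I i J).filter P).card : ℝ) ≤ 2 ^ k * D := by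
  have hsub : (alive I i J).filter P ⊆
      (Finset.Ico (J * 2 ^ k) (J * 2 ^ k + 2 ^ k)).biUnion fun J' => (alive I (i + k) J').filter P := by
    intro t ht
    rw [mem_filter, mem_alive] at ht
    obtain ⟨⟨x, hx, hx1, hx2⟩, hP⟩ := ht
    rw [mem_biUnion]
    refine ⟨zc (i + k) x.2, ico_div.2 ?_, ?_⟩
    · rw [← hx2, zc_div (Nat.le_add_right i k) x.2, Nat.add_sub_cancel_left]
    · rw [mem_filter, mem_alive]
      exact ⟨⟨x, hx, hx1, rfl⟩, hP⟩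
  have h1 : (((alive I i J).filter P).card : ℝ) ≤
      ∑ J' ∈ Finset.Ico (J * 2 ^ k) (J * 2 ^ k + 2 ^ k), (((alive I (i + k) J').filter P).card : ℝ) := by
    have := (card_le_card hsub).trans card_biUnion_le
    exact_mod_cast this
  refine h1.trans ?_
  have h2 := sum_le_card_nsmul (Finset.Ico (J * 2 ^ k) (J * 2 ^ k + 2 ^ k))
    (fun J' => (((alive I (i + k) J').filter P).card : ℝ)) D (fun J' hJ' => h J' (ico_div.1 hJ'))
  rw [nsmul_eq_mul, Int.card_Ico] at h2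
  have e1 : (((J * 2 ^ k + 2 ^ k - J * 2 ^ k).toNat : ℕ) : ℝ) = 2 ^ k := by
    have : (J * 2 ^ k + 2 ^ k - J * 2 ^ k).toNat = 2 ^ k := by
      have h3 : J * 2 ^ k + 2 ^ k - J * 2 ^ k = (((2 ^ k : ℕ)) : ℤ) := by push_cast; ring
      rw [h3, Int.toNat_natCast]
    rw [this]; push_cast; rfl
  rwa [e1] at h2

open Classical in
/-- **D-max at all natural levels** from the rational levels and `LevCov` -/
theorem allD_of_lev {Λ : ℝ → ℝ} {τ : κ → ℝ → ℝ} {f : ℕ → ℚ → ℕ → ℤ → ℕ} {b : ℕ → ℚ → ℕ → σ}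
    {vm : ℕ → ℚ → ℝ} {w : κ → ℕ → ℚ → ℝ} (hM : MkA B I G1 lev A (fun v => g * v) Λ τ f b vm w)
    (hg : 0 ≤ g) (hc : LevCov K0 C (fun n => lev n 1) km G1 G2) (hK0 : 1 ≤ K0) (hC : 0 ≤ C)
    (hkm : ∃ c0 : ℝ, 0 < c0 ∧ ∀ᶠ n in (U : Filter ℕ), c0 * B.L n ≤ km n * Real.log 2) :
    AllD B I G2 lev A g := by
  intro ε hε
  obtain ⟨c0, hc0, hkm⟩ := hkm
  have hlog2 : 0 < Real.log 2 := Real.log_pos (by norm_num)
  set h : ℝ := min (c0 / 3) (ε / (2 * (6 * C + 3 + 2 * g))) with hh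
  have hden : 0 < 2 * (6 * C + 3 + 2 * g) := by linarith
  have hh0 : 0 < h := lt_min (by linarith) (div_pos hε hden)
  have hh1 : 3 * h ≤ c0 := by
    have : h ≤ c0 / 3 := min_le_left _ _
    linarith
  have hh2 : (6 * C + 3 + 2 * g) * h ≤ ε / 2 := by
    have h1 : h ≤ ε / (2 * (6 * C + 3 + 2 * g)) := min_le_right _ _
    rw [le_div_iff₀ hden] at h1
    linarith
  obtain ⟨N, hN⟩ := exists_nat_one_div_lt hh0
  set v : ℕ → ℚ := fun r => (r : ℚ) / (N + 1) with hv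
  have hN1 : (0:ℝ) < (N:ℝ) + 1 := by positivity
  have hvR : ∀ r, ((v r : ℚ) : ℝ) = (r:ℝ) / (N + 1) := by intro r; simp only [hv]; push_cast; rfl
  have hv0 : ∀ r, 0 ≤ v r := fun r => by simp only [hv]; positivity
  have hv1 : ∀ r, r ≤ N + 1 → v r ≤ 1 := by
    intro r hr
    simp only [hv]
    rw [div_le_one (by positivity)]
    exact_mod_cast hr
  have e0 : v 0 = 0 := by simp [hv]
  have e1 : v (N + 1) = 1 := by
    simp only [hv]; push_cast; exact div_self (by positivity)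
  have hfin : ∀ᶠ n in (U : Filter ℕ), ∀ r ∈ range (N + 2),
      (∀ J : ℤ, ∀ s : σ, G1.adm n (lev n (v r)) J s →
        (((alive (I n) (lev n (v r)) J).filter fun t => G1.mem n (lev n (v r)) J s t).card : ℝ) ≤
          B.d n ^ (-(ε / 4)) * ampA B A (fun v => g * v) n (v r) * G1.val n (lev n (v r)) J s) ∧
      lev n 0 ≤ lev n (v r) ∧ lev n (v r) ≤ lev n 1 ∧
      |((lev n (v r) : ℝ) - lev n 0) * Real.log 2 / B.L n - ((v r : ℚ) : ℝ)| ≤ h := by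
    rw [Filter.eventually_all_finset]
    intro r hr
    have hr1 : r ≤ N + 1 := by
      have := mem_range.1 hr; omega
    have h1 := hM.lev_lim 0 (v r) le_rfl (hv0 r) (hv1 r hr1)
    have h2 := (Metric.tendsto_nhds.1 h1) h hh0
    filter_upwards [hM.dmax (v r) (hv0 r) (hv1 r hr1) (ε / 4) (by positivity),
      hM.lev_mono 0 (v r) le_rfl (hv0 r) (hv1 r hr1), hM.lev_mono (v r) 1 (hv0 r) (hv1 r hr1) le_rfl,
      h2] with n a1 a2 a3 a4
    refine ⟨a1, a2, a3, ?_⟩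
    rw [Real.dist_eq] at a4
    rw [Rat.cast_zero, sub_zero] at a4
    exact a4.le
  filter_upwards [hfin, hc, hkm, ev_const_le B (K0 * K0) (show 0 < ε / 4 by positivity)]
    with n hn hcn hkn hKn
  intro i hi0 hi1 J s hs
  have hL : 0 < B.L n := B.L_pos n
  obtain ⟨r, r', hrr, hrr1, hr'N, hri, hir⟩ := exists_net (l := fun r => lev n (v r)) (N := N + 1)
    (m := i) (by show lev n (v 0) ≤ i; rw [e0]; exact hi0)
    (by show i ≤ lev n (v (N + 1)); rw [e1]; exact hi1)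
  obtain ⟨-, b1, b2, b3⟩ := hn r (mem_range.2 (by omega))
  obtain ⟨D1, d1, d2, d3⟩ := hn r' (mem_range.2 (by omega))
  set i' := lev n (v r') with hi'
  obtain ⟨k, hk⟩ := Nat.exists_eq_add_of_le hir
  rw [hvR] at b3 d3
  rw [abs_le] at b3 d3
  have hkR : (k:ℝ) = (i' : ℝ) - i := by
    have : (i' : ℝ) = i + k := by exact_mod_cast hk
    linarith
  have hriR : ((lev n (v r) : ℕ) : ℝ) ≤ i := by exact_mod_cast hri
  have hr' : (r':ℝ) ≤ r + 1 := by exact_mod_cast hrr1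
  have hsp : (r':ℝ) / (N + 1) ≤ (r:ℝ) / (N + 1) + h := by
    have : (r':ℝ) / (N + 1) ≤ (r:ℝ) / (N + 1) + 1 / (N + 1) := by
      rw [← add_div]
      exact div_le_div_of_nonneg_right hr' hN1.le
    linarith
  -- the length of the step
  have hi'd : ((i' : ℝ) - lev n 0) * Real.log 2 ≤ ((r':ℝ) / (N + 1) + h) * B.L n := by
    have := d3.2
    rw [sub_le_iff_le_add, div_le_iff₀ hL] at this
    linarith
  have hid : ((r:ℝ) / (N + 1) - h) * B.L n ≤ ((i : ℝ) - lev n 0) * Real.log 2 := by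
    have h1 : (r:ℝ) / (N + 1) - h ≤ (((lev n (v r) : ℕ) : ℝ) - lev n 0) * Real.log 2 / B.L n := by
      linarith [b3.1]
    rw [le_div_iff₀ hL] at h1
    nlinarith
  have hkL : (k:ℝ) * Real.log 2 ≤ 3 * h * B.L n := by
    rw [hkR]
    have h1 : ((r':ℝ) / (N + 1)) * B.L n ≤ ((r:ℝ) / (N + 1) + h) * B.L n :=
      mul_le_mul_of_nonneg_right hsp hL.le
    nlinarith
  have hkkm : k ≤ km n := by
    have h1 : (k:ℝ) * Real.log 2 ≤ km n * Real.log 2 := by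
      refine hkL.trans (le_trans ?_ hkn)
      exact mul_le_mul_of_nonneg_right hh1 hL.le
    exact_mod_cast le_of_mul_le_mul_right h1 hlog2
  have hik : i + k ≤ lev n 1 := by rw [← hk]; exact d2
  have hAn := hM.Apos n
  have hdp : ∀ e : ℝ, 0 < B.d n ^ e := fun e => Real.rpow_pos_of_pos (B.pos n) _
  have hamp : 0 < ampA B A (fun v => g * v) n (v r') := mul_pos hAn (hdp _)
  have hX : (0:ℝ) < K0 * 2 ^ (C * k) := by positivity
  -- positivity of the value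
  have hval : 0 ≤ G2.val n i J s := by
    have hJ' : (J * 2 ^ k) / 2 ^ k = J := Int.mul_ediv_cancel _ (by positivity)
    obtain ⟨s', hs', hv', -⟩ := hcn i k hik hkkm J (J * 2 ^ k) s hJ' hs ∅ (by simp)
    have h7 := D1 (J * 2 ^ k) s' (by rw [hk]; exact hs')
    have h8 : 0 ≤ G1.val n i' (J * 2 ^ k) s' := by
      by_contra hneg
      push Not at hneg
      have h9 : B.d n ^ (-(ε / 4)) * ampA B A (fun v => g * v) n (v r') *
          G1.val n i' (J * 2 ^ k) s' < 0 := mul_neg_of_pos_of_neg (mul_pos (hdp _) hamp) hneg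
      have h10 : (0:ℝ) ≤ (((alive (I n) i' (J * 2 ^ k)).filter fun t =>
        G1.mem n i' (J * 2 ^ k) s' t).card : ℝ) := Nat.cast_nonneg _
      linarith
    rw [hk] at h8
    exact nonneg_of_mul_nonneg_right (h8.trans hv') hX
  -- one sub-cell
  have hone : ∀ J' : ℤ, J' / 2 ^ k = J →
      (((alive (I n) (i + k) J').filter fun t => G2.mem n i J s t).card : ℝ) ≤
        (K0 * 2 ^ (C * k)) * (K0 * 2 ^ (C * k)) *
          (B.d n ^ (-(ε / 4)) * ampA B A (fun v => g * v) n (v r')) * G2.val n i J s := by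
    intro J' hJ'
    obtain ⟨s', hs', hv', T', hT', hm', hcard⟩ := hcn i k hik hkkm J J' s hJ' hs
      ((alive (I n) (i + k) J').filter fun t => G2.mem n i J s t)
      (fun t ht => (mem_filter.1 ht).2)
    have h7 := D1 J' s' (by rw [hk]; exact hs')
    rw [hk] at h7
    have h8 : (T'.card : ℝ) ≤ B.d n ^ (-(ε / 4)) * ampA B A (fun v => g * v) n (v r') *
        G1.val n (i + k) J' s' := by
      refine le_trans (Nat.cast_le.2 (card_le_card fun t ht => ?_)) h7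
      exact mem_filter.2 ⟨(mem_filter.1 (hT' ht)).1, hm' t ht⟩
    have hp := mul_pos (hdp (-(ε / 4))) hamp
    calc _ ≤ (K0 * 2 ^ (C * k)) * (T'.card : ℝ) := hcard
      _ ≤ (K0 * 2 ^ (C * k)) * (B.d n ^ (-(ε / 4)) * ampA B A (fun v => g * v) n (v r') *
            G1.val n (i + k) J' s') := mul_le_mul_of_nonneg_left h8 hX.le
      _ ≤ (K0 * 2 ^ (C * k)) * (B.d n ^ (-(ε / 4)) * ampA B A (fun v => g * v) n (v r') *
            (K0 * 2 ^ (C * k) * G2.val n i J s)) :=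
          mul_le_mul_of_nonneg_left (mul_le_mul_of_nonneg_left hv' hp.le) hX.le
      _ = _ := by ring
  have hsum := alive_sub hone
  refine hsum.trans ?_
  -- the exponents
  have p1 : (2:ℝ) ^ k * ((2:ℝ) ^ (C * k) * (2:ℝ) ^ (C * k)) ≤
      B.d n ^ (-((2 * C + 1) * (3 * h))) := by
    have e2 : (2:ℝ) ^ k * ((2:ℝ) ^ (C * k) * (2:ℝ) ^ (C * k)) = (2:ℝ) ^ ((2 * C + 1) * k) := by
      rw [← Real.rpow_natCast 2 k, ← Real.rpow_add two_pos, ← Real.rpow_add two_pos]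
      congr 1; ring
    rw [e2]
    refine Crest.Agent.R116.Xa3794.two_rpow_le ?_
    rw [div_le_iff₀ hL]
    have : (2 * C + 1) * ((k:ℝ) * Real.log 2) ≤ (2 * C + 1) * (3 * h * B.L n) :=
      mul_le_mul_of_nonneg_left hkL (by linarith)
    linarith
  have p2 : B.d n ^ (-(g * ((v r' : ℚ) : ℝ))) ≤
      B.d n ^ (-(2 * g * h)) * 2 ^ (g * ((i : ℝ) - lev n 0)) := by
    have h1 : B.d n ^ (-(g * ((r':ℝ) / (N + 1) - 2 * h))) ≤ (2:ℝ) ^ (g * ((i : ℝ) - lev n 0)) := by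
      refine Crest.Agent.R116.Xa3794.le_two_rpow ?_
      rw [le_div_iff₀ hL]
      have h2 : ((r':ℝ) / (N + 1) - 2 * h) * B.L n ≤ ((i : ℝ) - lev n 0) * Real.log 2 := by
        refine le_trans (mul_le_mul_of_nonneg_right ?_ hL.le) hid
        linarith
      have := mul_le_mul_of_nonneg_left h2 hg
      linarith
    calc B.d n ^ (-(g * ((v r' : ℚ) : ℝ)))
        = B.d n ^ (-(2 * g * h)) * B.d n ^ (-(g * ((r':ℝ) / (N + 1) - 2 * h))) := by
          rw [← Real.rpow_add (B.pos n), hvR]; congr 1; ring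
      _ ≤ _ := mul_le_mul_of_nonneg_left h1 (hdp _).le
  have p3 : B.d n ^ (-(ε / 4)) * B.d n ^ (-(ε / 4)) * B.d n ^ (-((2 * C + 1) * (3 * h))) *
      B.d n ^ (-(2 * g * h)) ≤ B.d n ^ (-ε) := by
    rw [← Real.rpow_add (B.pos n), ← Real.rpow_add (B.pos n), ← Real.rpow_add (B.pos n)]
    refine Real.rpow_le_rpow_of_exponent_ge (B.pos n) (B.lt n).le ?_
    have : (6 * C + 3 + 2 * g) * h = (2 * C + 1) * (3 * h) + 2 * g * h := by ring
    linarith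
  have ha : ampA B A (fun v => g * v) n (v r') = A n * B.d n ^ (-(g * ((v r' : ℚ) : ℝ))) := rfl
  rw [ha]
  have q1 : 0 < (2:ℝ) ^ (g * ((i : ℝ) - lev n 0)) := Real.rpow_pos_of_pos two_pos _
  calc (2:ℝ) ^ k * ((K0 * 2 ^ (C * k)) * (K0 * 2 ^ (C * k)) *
        (B.d n ^ (-(ε / 4)) * (A n * B.d n ^ (-(g * ((v r' : ℚ) : ℝ))))) * G2.val n i J s)
      = (K0 * K0) * B.d n ^ (-(ε / 4)) * ((2:ℝ) ^ k * ((2:ℝ) ^ (C * k) * (2:ℝ) ^ (C * k))) *
        B.d n ^ (-(g * ((v r' : ℚ) : ℝ))) * (A n * G2.val n i J s) := by ring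
    _ ≤ B.d n ^ (-(ε / 4)) * B.d n ^ (-(ε / 4)) * B.d n ^ (-((2 * C + 1) * (3 * h))) *
        (B.d n ^ (-(2 * g * h)) * 2 ^ (g * ((i : ℝ) - lev n 0))) * (A n * G2.val n i J s) := by
        have r1 := (hdp (-(ε / 4))).le
        have r2 := (hdp (-((2 * C + 1) * (3 * h)))).le
        have r3 := (hdp (-(g * ((v r' : ℚ) : ℝ)))).le
        have r4 : 0 ≤ A n * G2.val n i J s := mul_nonneg hAn.le hval
        refine mul_le_mul_of_nonneg_right ?_ r4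
        refine mul_le_mul ?_ p2 r3 (by positivity)
        refine mul_le_mul ?_ p1 (by positivity) (by positivity)
        exact mul_le_mul_of_nonneg_right hKn r1
    _ = (B.d n ^ (-(ε / 4)) * B.d n ^ (-(ε / 4)) * B.d n ^ (-((2 * C + 1) * (3 * h))) *
        B.d n ^ (-(2 * g * h))) * (A n * 2 ^ (g * ((i : ℝ) - lev n 0)) * G2.val n i J s) := by ring
    _ ≤ B.d n ^ (-ε) * (A n * 2 ^ (g * ((i : ℝ) - lev n 0)) * G2.val n i J s) := by
        refine mul_le_mul_of_nonneg_right p3 ?_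
        exact mul_nonneg (mul_nonneg hAn.le q1.le) hval
    _ = _ := by ring

end

/-! ### the class `ShN` -/

/-- sheets of the class `ShN` with range conditions -/
def geoS (ℓ : ℕ → ℕ → Ln4) (r0 : ℕ → ℝ) (q : Fin 3 → ℝ) (Rg : ℕ → Plk4 → Prop) :
    Geo Plk4 (Fin 3) where
  mem := fun n i J s t => InSheet (ℓ n t) s.e s.c s.w s.q s.a (zl i J) (rho i)
  adm := fun n i J s => ShN s.e s.c s.w s.q s.a (zl i J) (rho i) (r0 n) ∧ s.w 1 ≤ rho i ∧ Rg n s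
  val := fun n i J s => s.a * s.w 2 * s.w 1 *
    ((s.a / rho i) ^ q 0 * (s.w 1 / rho i) ^ q 1 * (s.w 2 / rho i) ^ q 2)
  wid := fun k s => ![s.a, s.w 1, s.w 2] k

theorem sub_cell {i k : ℕ} {J J' : ℤ} (h : J' / 2 ^ k = J) :
    zl i J ≤ zl (i + k) J' ∧ zl (i + k) J' + rho (i + k) ≤ zl i J + rho i := by
  have h1 := ico_div.2 h
  rw [Finset.mem_Ico] at h1
  obtain ⟨a, b⟩ := h1
  have a' : (J : ℝ) * 2 ^ k ≤ J' := by exact_mod_cast a
  have b' : (J' : ℝ) + 1 ≤ (J : ℝ) * 2 ^ k + 2 ^ k := by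
    have : J' + 1 ≤ J * 2 ^ k + 2 ^ k := by linarith
    exact_mod_cast this
  have hm : (0 : ℝ) < 2 ^ i := by positivity
  have hk : (0 : ℝ) < 2 ^ k := by positivity
  unfold zl rho
  rw [pow_add]
  constructor
  · rw [div_le_div_iff₀ hm (by positivity)]
    calc (J:ℝ) * (2 ^ i * 2 ^ k) = (J * 2 ^ k) * 2 ^ i := by ring
      _ ≤ J' * 2 ^ i := mul_le_mul_of_nonneg_right a' hm.le
  · rw [← add_div, ← add_div, div_le_div_iff₀ (by positivity) hm]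
    calc ((J':ℝ) + 1) * 2 ^ i ≤ (J * 2 ^ k + 2 ^ k) * 2 ^ i := mul_le_mul_of_nonneg_right b' hm.le
      _ = _ := by ring

theorem rho_add (i k : ℕ) : rho i = 2 ^ k * rho (i + k) := by
  unfold rho
  rw [pow_add]
  field_simp

theorem rho_anti {i j : ℕ} (h : i ≤ j) : rho j ≤ rho i := by
  unfold rho
  exact one_div_le_one_div_of_le (by positivity) (pow_le_pow_right₀ (by norm_num) h)

theorem le_pow_min {u s P : ℝ} (hP : 1 ≤ P) (hu : 0 ≤ u) (h : u ≤ P * s) : u ≤ P * min u s := by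
  rcases le_total u s with h1 | h1
  · rw [min_eq_left h1]; nlinarith
  · rw [min_eq_right h1]; exact h

theorem rew_le {u u' ρ ρ' P p : ℝ} (hu' : 0 ≤ u') (huu : u' ≤ u) (hρ' : 0 < ρ') (hP : 0 < P)
    (hρ : ρ = P * ρ') (hp : 0 ≤ p) : (u' / ρ') ^ p ≤ (u / ρ) ^ p * P ^ p := by
  have h1 : u' / ρ' ≤ (u / ρ) * P := by
    rw [hρ, div_mul_eq_mul_div, div_le_div_iff₀ hρ' (by positivity)]
    nlinarith [mul_le_mul_of_nonneg_right huu (mul_pos hP hρ').le]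
  have h2 : 0 ≤ u / ρ := div_nonneg (hu'.trans huu) (by rw [hρ]; positivity)
  rw [← Real.mul_rpow h2 hP.le]
  exact Real.rpow_le_rpow (div_nonneg hu' hρ'.le) h1 hp

/-- **`LevCov` for the class `ShN`** -/
theorem levCov_S {ℓ : ℕ → ℕ → Ln4} {r0 : ℕ → ℝ} {q : Fin 3 → ℝ} {Rg1 Rg2 : ℕ → Plk4 → Prop}
    {hi km : ℕ → ℕ} (hq : ∀ j, 0 ≤ q j) (hr : ∀ᶠ n in (U : Filter ℕ), 0 < r0 n ∧ r0 n ≤ rho (hi n))
    (hRg : ∀ᶠ n in (U : Filter ℕ), ∀ k ≤ km n, ∀ s s' : Plk4, Rg2 n s →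
      (∀ j : Fin 3, ![s'.a, s'.w 1, s'.w 2] j ≤ ![s.a, s.w 1, s.w 2] j ∧
        ![s.a, s.w 1, s.w 2] j ≤ 2 ^ k * ![s'.a, s'.w 1, s'.w 2] j) → Rg1 n s') :
    LevCov 729 (6 + (q 0 + q 1 + q 2)) hi km (geoS ℓ r0 q Rg1) (geoS ℓ r0 q Rg2) := by
  classical
  filter_upwards [hr, hRg] with n hrn hRn
  obtain ⟨hr0, hr1⟩ := hrn
  intro i k hik hkm J J' s hJ hs T hT
  obtain ⟨S, hw1, hR⟩ := hs
  obtain ⟨h0, h1⟩ := sub_cell (i := i) hJ
  have hρ' : 0 < rho (i + k) := by unfold rho; positivity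
  have hρ : 0 < rho i := by unfold rho; positivity
  have hP : (0:ℝ) < 2 ^ k := by positivity
  have hP1 : (1:ℝ) ≤ 2 ^ k := one_le_pow₀ (by norm_num)
  have hrr := rho_add i k
  have pa : 0 < s.a := hr0.trans_le S.r0_le
  have p0 : 0 < s.w 0 := pa.trans_le S.a_le0
  have p2 : 0 < s.w 2 := p0.trans_le S.w0_le
  have p1 : 0 < s.w 1 := p2.trans_le S.w_le
  obtain ⟨c', q', S', hc⟩ := shrink_cover S hr0 hρ' h0 h1 hw1 (hr1.trans (rho_anti hik)) (N := 2 ^ k)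
    (by push_cast; exact hrr.le) (ℓ n) T hT
  have ga : s.a ≤ 2 ^ k * min s.a (rho (i + k)) :=
    le_pow_min hP1 pa.le (by rw [← hrr]; exact ((S.a_le0.trans S.w0_le).trans S.w_le).trans hw1)
  have g1 : s.w 1 ≤ 2 ^ k * min (s.w 1) (rho (i + k)) :=
    le_pow_min hP1 p1.le (by rw [← hrr]; exact hw1)
  have g2 : s.w 2 ≤ 2 ^ k * min (s.w 2) (rho (i + k)) :=
    le_pow_min hP1 p2.le (by rw [← hrr]; exact S.w_le.trans hw1)
  refine ⟨⟨J', s.e, c', wm s.w (rho (i + k)), q', min s.a (rho (i + k))⟩, ⟨S', min_le_right _ _, ?_⟩,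
    ?_, T.filter fun t => InSheet (ℓ n t) s.e c' (wm s.w (rho (i + k))) q' (min s.a (rho (i + k)))
      (zl (i + k) J') (rho (i + k)), filter_subset _ _, fun t ht => (mem_filter.1 ht).2, ?_⟩
  · refine hRn k hkm s _ hR fun j => ?_
    fin_cases j
    · exact ⟨min_le_left _ _, ga⟩
    · exact ⟨min_le_left _ _, g1⟩
    · exact ⟨min_le_left _ _, g2⟩
  · have b0 : 0 < min s.a (rho (i + k)) := lt_min pa hρ'
    have b1 : 0 < min (s.w 1) (rho (i + k)) := lt_min p1 hρ'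
    have b2 : 0 < min (s.w 2) (rho (i + k)) := lt_min p2 hρ'
    have r0' := rew_le b0.le (min_le_left s.a (rho (i + k))) hρ' hP hrr (hq 0)
    have r1' := rew_le b1.le (min_le_left (s.w 1) (rho (i + k))) hρ' hP hrr (hq 1)
    have r2' := rew_le b2.le (min_le_left (s.w 2) (rho (i + k))) hρ' hP hrr (hq 2)
    have e1 : (2:ℝ) ^ ((6 + (q 0 + q 1 + q 2)) * k) =
        ((2:ℝ) ^ k) ^ 6 * (((2:ℝ) ^ k) ^ q 0 * ((2:ℝ) ^ k) ^ q 1 * ((2:ℝ) ^ k) ^ q 2) := by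
      rw [← Real.rpow_natCast 2 k, ← Real.rpow_mul (by norm_num), ← Real.rpow_mul (by norm_num),
        ← Real.rpow_mul (by norm_num), ← Real.rpow_natCast _ 6, ← Real.rpow_mul (by norm_num),
        ← Real.rpow_add two_pos, ← Real.rpow_add two_pos, ← Real.rpow_add two_pos]
      congr 1; push_cast; ring
    show min s.a (rho (i + k)) * min (s.w 2) (rho (i + k)) * min (s.w 1) (rho (i + k)) *
      ((min s.a (rho (i + k)) / rho (i + k)) ^ q 0 * (min (s.w 1) (rho (i + k)) / rho (i + k)) ^ q 1 *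
        (min (s.w 2) (rho (i + k)) / rho (i + k)) ^ q 2) ≤
      729 * 2 ^ ((6 + (q 0 + q 1 + q 2)) * k) * (s.a * s.w 2 * s.w 1 *
        ((s.a / rho i) ^ q 0 * (s.w 1 / rho i) ^ q 1 * (s.w 2 / rho i) ^ q 2))
    rw [e1]
    have hP6 : (1:ℝ) ≤ 729 * ((2:ℝ) ^ k) ^ 6 := by
      have := one_le_pow₀ hP1 (n := 6)
      linarith
    calc _ ≤ s.a * s.w 2 * s.w 1 * (((s.a / rho i) ^ q 0 * ((2:ℝ) ^ k) ^ q 0) *
          ((s.w 1 / rho i) ^ q 1 * ((2:ℝ) ^ k) ^ q 1) *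
          ((s.w 2 / rho i) ^ q 2 * ((2:ℝ) ^ k) ^ q 2)) := by
          gcongr
          · exact min_le_left _ _
          · exact min_le_left _ _
          · exact min_le_left _ _
      _ = 1 * (((2:ℝ) ^ k) ^ q 0 * ((2:ℝ) ^ k) ^ q 1 * ((2:ℝ) ^ k) ^ q 2 *
          (s.a * s.w 2 * s.w 1 *
            ((s.a / rho i) ^ q 0 * (s.w 1 / rho i) ^ q 1 * (s.w 2 / rho i) ^ q 2))) := by ring
      _ ≤ (729 * ((2:ℝ) ^ k) ^ 6) * (((2:ℝ) ^ k) ^ q 0 * ((2:ℝ) ^ k) ^ q 1 * ((2:ℝ) ^ k) ^ q 2 *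
          (s.a * s.w 2 * s.w 1 *
            ((s.a / rho i) ^ q 0 * (s.w 1 / rho i) ^ q 1 * (s.w 2 / rho i) ^ q 2))) :=
          mul_le_mul_of_nonneg_right hP6 (by positivity)
      _ = _ := by ring
  · refine hc.trans (mul_le_mul_of_nonneg_right ?_ (Nat.cast_nonneg _))
    have e2 : ((2:ℝ) * ((2 ^ k : ℕ) : ℝ) + 1) ^ 6 ≤ 729 * ((2:ℝ) ^ k) ^ 6 := by
      have h3 : (2:ℝ) * ((2 ^ k : ℕ) : ℝ) + 1 ≤ 3 * 2 ^ k := by push_cast; linarith
      calc ((2:ℝ) * ((2 ^ k : ℕ) : ℝ) + 1) ^ 6 ≤ (3 * 2 ^ k) ^ 6 :=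
            pow_le_pow_left₀ (by positivity) h3 6
        _ = _ := by ring
    refine e2.trans (mul_le_mul_of_nonneg_left ?_ (by norm_num))
    have e3 : ((2:ℝ) ^ k) ^ 6 = (2:ℝ) ^ ((6:ℝ) * k) := by
      rw [← Real.rpow_natCast 2 k, ← Real.rpow_natCast _ 6, ← Real.rpow_mul (by norm_num)]
      congr 1; push_cast; ring
    rw [e3]
    refine Real.rpow_le_rpow_of_exponent_le (by norm_num) ?_
    have := hq 0; have := hq 1; have := hq 2
    exact mul_le_mul_of_nonneg_right (by linarith) (Nat.cast_nonneg _)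

section

variable {B : Base} {I : ℕ → Finset (ℕ × ℝ)} {lev : ℕ → ℚ → ℕ} {A : ℕ → ℝ} {g : ℝ} {km : ℕ → ℕ}
  {ℓ : ℕ → ℕ → Ln4} {r0 : ℕ → ℝ} {q : Fin 3 → ℝ} {Rg1 Rg2 : ℕ → Plk4 → Prop}

/-- **D-max at all natural levels for sheets**: the range of the tests is smaller by `2^(km n)`,
`km n ≥ c0 L n / log 2`. -/
theorem allD_S {Λ : ℝ → ℝ} {τ : Fin 3 → ℝ → ℝ} {f : ℕ → ℚ → ℕ → ℤ → ℕ} {b : ℕ → ℚ → ℕ → Plk4}
    {vm : ℕ → ℚ → ℝ} {w : Fin 3 → ℕ → ℚ → ℝ}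
    (hM : MkA B I (geoS ℓ r0 q Rg1) lev A (fun v => g * v) Λ τ f b vm w)
    (hg : 0 ≤ g) (hq : ∀ j, 0 ≤ q j) (hr : ∀ᶠ n in (U : Filter ℕ), 0 < r0 n)
    (hkm : ∃ c0 : ℝ, 0 < c0 ∧ ∀ᶠ n in (U : Filter ℕ), c0 * B.L n ≤ km n * Real.log 2)
    (hRg : ∀ᶠ n in (U : Filter ℕ), ∀ k ≤ km n, ∀ s s' : Plk4, Rg2 n s →
      (∀ j : Fin 3, ![s'.a, s'.w 1, s'.w 2] j ≤ ![s.a, s.w 1, s.w 2] j ∧
        ![s.a, s.w 1, s.w 2] j ≤ 2 ^ k * ![s'.a, s'.w 1, s'.w 2] j) → Rg1 n s') :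
    AllD B I (geoS ℓ r0 q Rg2) lev A g := by
  refine allD_of_lev hM hg (levCov_S (km := km) hq ?_ hRg) (by norm_num)
    (by have := hq 0; have := hq 1; have := hq 2; linarith) hkm
  filter_upwards [hr, hM.mark 1 zero_le_one le_rfl, hM.ne] with n h1 h2 h3
  obtain ⟨x, hx⟩ := h3
  obtain ⟨-, ⟨S, hw, -⟩, -⟩ := h2 (zc (lev n 1) x.2) x.1 (mem_alive.2 ⟨x, hx, rfl, rfl⟩)
  exact ⟨h1, ((((S.r0_le.trans S.a_le0).trans S.w0_le).trans S.w_le)).trans hw⟩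

/-- ranges of the three widths (thickness, wide, narrow) -/
def rgW (wr cr : Fin 3 → ℕ → ℝ) (n : ℕ) (s : Plk4) : Prop :=
  ∀ k : Fin 3, wr k n ≤ ![s.a, s.w 1, s.w 2] k ∧ ![s.a, s.w 1, s.w 2] k ≤ cr k n

/-- **D-max at all natural levels, ranges of the widths** (the literal range of `geo4` in J1 v3c):
the lower ends of the ranges differ by a power of `d`. -/
theorem allD_rg {wr1 cr1 wr2 cr2 : Fin 3 → ℕ → ℝ} {Λ : ℝ → ℝ} {τ : Fin 3 → ℝ → ℝ}
    {f : ℕ → ℚ → ℕ → ℤ → ℕ} {b : ℕ → ℚ → ℕ → Plk4}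
    {vm : ℕ → ℚ → ℝ} {w : Fin 3 → ℕ → ℚ → ℝ}
    (hM : MkA B I (geoS ℓ r0 q (rgW wr1 cr1)) lev A (fun v => g * v) Λ τ f b vm w)
    (hg : 0 ≤ g) (hq : ∀ j, 0 ≤ q j) (hr : ∀ᶠ n in (U : Filter ℕ), 0 < r0 n)
    {c1 : ℝ} (hc1 : 0 < c1) (hw0 : ∀ᶠ n in (U : Filter ℕ), ∀ k, 0 < wr2 k n)
    (hwr : ∀ᶠ n in (U : Filter ℕ), ∀ k, wr1 k n ≤ B.d n ^ c1 * wr2 k n)
    (hcr : ∀ᶠ n in (U : Filter ℕ), ∀ k, cr2 k n ≤ cr1 k n) :
    AllD B I (geoS ℓ r0 q (rgW wr2 cr2)) lev A g := by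
  have hlog2 : 0 < Real.log 2 := Real.log_pos (by norm_num)
  refine allD_S (km := fun n => ⌊c1 * B.L n / Real.log 2⌋₊) hM hg hq hr ⟨c1 / 2, by positivity, ?_⟩ ?_
  · filter_upwards [B.ev_L_ge (2 * Real.log 2 / c1)] with n hn
    have h1 := Nat.lt_floor_add_one (c1 * B.L n / Real.log 2)
    rw [div_le_iff₀ hc1] at hn
    rw [div_lt_iff₀ hlog2] at h1
    nlinarith
  · filter_upwards [hwr, hcr, hw0] with n h1 h2 h0
    intro k hk s s' hR hs' j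
    have hL : 0 < B.L n := B.L_pos n
    refine ⟨?_, ((hs' j).1.trans (hR j).2).trans (h2 j)⟩
    have hk1 : (k:ℝ) ≤ c1 * B.L n / Real.log 2 :=
      (Nat.cast_le.2 hk).trans (Nat.floor_le (by positivity))
    have h3 : (2:ℝ) ^ k ≤ B.d n ^ (-c1) := by
      rw [← Real.rpow_natCast 2 k]
      refine Crest.Agent.R116.Xa3794.two_rpow_le ?_
      rw [le_div_iff₀ hlog2] at hk1
      rw [div_le_iff₀ hL]
      exact hk1
    have hd1 : 0 < B.d n ^ c1 := Real.rpow_pos_of_pos (B.pos n) _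
    have h4 : B.d n ^ c1 * (2:ℝ) ^ k ≤ 1 := by
      calc B.d n ^ c1 * (2:ℝ) ^ k ≤ B.d n ^ c1 * B.d n ^ (-c1) :=
            mul_le_mul_of_nonneg_left h3 hd1.le
        _ = 1 := by rw [← Real.rpow_add (B.pos n), add_neg_cancel, Real.rpow_zero]
    have h5 := (hR j).1
    have h6 := (hs' j).2
    have h7 : 0 ≤ ![s'.a, s'.w 1, s'.w 2] j := by
      have h8 : 0 < 2 ^ k * ![s'.a, s'.w 1, s'.w 2] j := (h0 j).trans_le (h5.trans h6)
      exact ((mul_pos_iff_of_pos_left (by positivity)).1 h8).le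
    calc wr1 j n ≤ B.d n ^ c1 * wr2 j n := h1 j
      _ ≤ B.d n ^ c1 * (2 ^ k * ![s'.a, s'.w 1, s'.w 2] j) :=
          mul_le_mul_of_nonneg_left (h5.trans h6) hd1.le
      _ = (B.d n ^ c1 * 2 ^ k) * ![s'.a, s'.w 1, s'.w 2] j := by ring
      _ ≤ 1 * ![s'.a, s'.w 1, s'.w 2] j := mul_le_mul_of_nonneg_right h4 h7
      _ = _ := one_mul _

end

end

end Crest.Agent.R136.AllD823
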