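import Crest.Agent.R116.XcDef_794

/-!
# R136, block U4 (pure penalty): configurations with ROOM below the test level (helper879)

Over `XaDef_794` (`TS`) and `XcDef_794` (`Cfg`, `capP`, `rel`).

* `OkH T Ψ h F` : `Cfg.Ok` with `cell` and `own` at the level `m - h` (the bottom bound `up` stays at
  the level `m`);
* `UBH K 𝒯 Ψ b` : the gap `D1 / D0` of all full configurations with room `M / K ≤ h ≤ M` is at most
  `2^(b M)` in the limit;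
* `EnemyH K 𝒯` : the enemy.
-/

set_option autoImplicit false

open Finset

namespace Crest.Agent.R136.KF879

open Crest.Agent.R138.Mk163 (zc zl rho alive own)
open Crest.Agent.R116.Xa794 (TS)
open Crest.Agent.R116.Xc794

section

variable {Ln ι S : Type} [Fintype ι]

open Classical in
/-- validity of a configuration with room `h` below the test level `m`, reward `Ψ` -/
structure OkH (T : TS Ln ι S) (Ψ : ℝ → (ι → ℝ) → ℝ) (h : ℕ) (F : Cfg Ln ι S) : Prop where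
  M1 : 1 ≤ F.M
  h_le : h ≤ F.m
  ne : F.I.Nonempty
  cell : ∀ x ∈ F.I, ∀ y ∈ F.I, zc (F.m - h) x.2 = zc (F.m - h) y.2
  D1p : 0 < F.D1
  nup : 0 < F.nu
  fin : ∀ (i : ℕ) (J : ℤ) (s : (ι → ℕ) × S), T.adm i J s → ∀ j, s.1 j ≤ F.N
  top : ∀ J : ℤ, ∀ t ∈ alive F.I (F.m + F.M) J,
    T.mem (F.m + F.M) J (F.b (F.f t J)) (F.L t) ∧ T.adm (F.m + F.M) J (F.b (F.f t J)) ∧
      (F.b (F.f t J)).1 = F.a
  low : ∀ J : ℤ, ∀ t ∈ alive F.I (F.m + F.M) J,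
    F.D1 * T.vol (F.m + F.M) F.a ≤
      (((alive F.I (F.m + F.M) J).filter fun s => F.f s J = F.f t J).card : ℝ)
  own : ∀ x ∈ F.I, F.nu ≤ ((own F.I (F.m - h) (F.m + F.M) x).card : ℝ)
  up : ∀ J : ℤ, ∀ s : (ι → ℕ) × S, T.adm F.m J s →
    (((alive F.I F.m J).filter fun t => T.mem F.m J s (F.L t)).card : ℝ) ≤
      F.D0 * capP T Ψ (F.m + F.M) F.a F.m s.1

/-- the gap of all full configurations with room `M / K ≤ h ≤ M` is at most `b` in the limit -/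
def UBH (K : ℕ) (𝒯 : Set (TS Ln ι S)) (Ψ : ℝ → (ι → ℝ) → ℝ) (b : ℝ) : Prop :=
  ∀ η : ℝ, 0 < η → ∃ δ : ℝ, 0 < δ ∧ ∃ M0 : ℕ, ∀ T ∈ 𝒯, ∀ (F : Cfg Ln ι S) (h : ℕ), OkH T Ψ h F →
    M0 ≤ F.M → F.M ≤ K * h → h ≤ F.M →
    Real.log (F.I.card : ℝ) ≤ (2 : ℝ) ^ (δ * F.M) → (F.N : ℝ) ≤ (2 : ℝ) ^ (δ * F.M) →
    (2 : ℝ) ^ ((1 - δ) * (F.M + h : ℝ)) ≤ F.nu →
      F.D1 ≤ (2 : ℝ) ^ ((b + η) * F.M) * F.D0

/-- **the enemy**: no reward, top marks = full boxes, resolution `m + M`, base cell of level `0` -/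
def EnemyH (K : ℕ) (𝒯 : Set (TS Ln ι S)) : Prop :=
  ∃ b0 : ℝ, 0 < b0 ∧ ∀ δ : ℝ, 0 < δ → ∀ M0 : ℕ, ∃ T ∈ 𝒯, ∃ (F : Cfg Ln ι S) (h : ℕ),
    OkH T (fun _ _ => 0) h F ∧ M0 ≤ F.M ∧ F.M ≤ K * h ∧ h ≤ F.M ∧ F.m = h ∧
      Real.log (F.I.card : ℝ) ≤ (2 : ℝ) ^ (δ * F.M) ∧
      (F.N : ℝ) ≤ (2 : ℝ) ^ (δ * F.M) ∧ F.N ≤ F.m + F.M ∧
      (2 : ℝ) ^ ((1 - δ) * (F.M + h : ℝ)) ≤ F.nu ∧
      (∀ j, F.a j = F.m + F.M) ∧ (2 : ℝ) ^ (b0 * F.M) * F.D0 < F.D1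

end

end Crest.Agent.R136.KF879
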