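import Crest.Agent.R116.XcDef_794
import Crest.Agent.R136.Val8_879
import Crest.Agent.R136.KF2_879

/-!
# R136: the class of sheets as a class of test sets of the abstract machine (helper879)

`TS36 r` : sheets of class `C*` (`ShN`) with dyadic widths, resolution `r`; index of the widths:
`0` = thickness, `1` = wide, `2` = narrow; only lines of slope at most `1` are members.
-/

set_option autoImplicit false
set_option linter.unusedVariables false

open Finset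

namespace Crest.Agent.R136.Tq879

open Crest.Agent.R116.Xa794 (TS)
open Crest.Agent.R138.Mk163 (zc zl rho alive own)
open Sh605 K4

noncomputable section

/-- sheets of class `C*` with dyadic widths -/
def TS36 (r : ℝ) : TS Ln4 (Fin 3) Plk4 where
  mem := fun i J s t => InSheet t s.2.e s.2.c s.2.w s.2.q s.2.a (zl i J) (rho i) ∧
    ∀ k, |t.v k| ≤ 1
  adm := fun i J s => ShN s.2.e s.2.c s.2.w s.2.q s.2.a (zl i J) (rho i) r ∧ s.2.w 1 ≤ rho i ∧
    ∀ k, wd s.2 k = (1 / 2 : ℝ) ^ (s.1 k)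
  vol := fun _ a => (1 / 2 : ℝ) ^ (a 0) * (1 / 2 : ℝ) ^ (a 1) * (1 / 2 : ℝ) ^ (a 2)
  volpos := fun _ _ => by positivity

/-- all resolutions -/
def TT36 : Set (TS Ln4 (Fin 3) Plk4) := {T | ∃ r : ℝ, 0 < r ∧ T = TS36 r}

/-- a sheet of level `i` over the cell `J` -/
def atc (K : Plk4) (J : ℤ) : Plk4 := { K with j := J }

@[simp] theorem atc_wd (K : Plk4) (J : ℤ) : wd (atc K J) = wd K := rfl

theorem adm_legN {r : ℝ} {i : ℕ} {J : ℤ} {s : (Fin 3 → ℕ) × Plk4} {Λ : ℝ}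
    (h : (TS36 r).adm i J s) : LegN i r Λ (atc s.2 J) := ⟨h.1, h.2.1⟩

theorem legN_adm {r Λ : ℝ} {i : ℕ} {K : Plk4} (h : LegN i r Λ K) {a : Fin 3 → ℕ}
    (ha : ∀ k, wd K k = (1 / 2 : ℝ) ^ (a k)) : (TS36 r).adm i K.j (a, K) := ⟨h.1, h.2, ha⟩

theorem vol_eq {r : ℝ} {i : ℕ} {J : ℤ} {s : (Fin 3 → ℕ) × Plk4} (h : (TS36 r).adm i J s) :
    (TS36 r).vol i s.1 = s.2.a * s.2.w 2 * s.2.w 1 := by
  have h0 := h.2.2 0
  have h1 := h.2.2 1
  have h2 := h.2.2 2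
  rw [wd_zero] at h0
  rw [wd_one] at h1
  rw [wd_two] at h2
  show (1 / 2 : ℝ) ^ (s.1 0) * (1 / 2 : ℝ) ^ (s.1 1) * (1 / 2 : ℝ) ^ (s.1 2) = _
  rw [h0, h1, h2]; ring

end

end Crest.Agent.R136.Tq879
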