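import Crest.Agent.R136.AllD2_823
import Crest.Agent.R136.Tq1_879

/-!
# R136, block U4 (helper823): D-max at all natural levels, part 3 (dyadic sheets, reward `Ψ`)

`levCov_P` : `LevCov` for `geoP T Ψ mt atop L` over the class `TT36`, `Ψ` Lipschitz;
`allD_P` : a marked sequence over `geoP` has D-max at all natural levels.
-/

set_option autoImplicit false
set_option linter.unusedVariables false
set_option linter.unusedSectionVars false

open Finset Filter Topology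

namespace Crest.Agent.R136.AllD823

open Sh605 K4 XIn823
open Crest.Agent.R138.Ex926 Crest.Agent.R138.Dp76
open Crest.Agent.R138.Mk163 (zc zl rho alive own)
open Crest.Agent.R138.MkRef627 (lc mem_alive)
open MkA627 (Geo MkA ampA)
open Dia770 (AllD)
open Crest.Agent.R116.Xa794 (TS)
open Crest.Agent.R116.Xc794 (rel capP geoP)
open Tq879 (TS36 TT36)

noncomputable section

/-- Lipschitz rewards -/
def LipR (Ψ : ℝ → (Fin 3 → ℝ) → ℝ) (K : ℝ) : Prop :=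
  ∀ l l' x x', 0 ≤ l → 0 ≤ l' → |Ψ l x - Ψ l' x'| ≤ K * (|l - l'| + ∑ j, |x j - x' j|)

/-- exponents of the smaller sheet -/
def mxE (a : Fin 3 → ℕ) (i : ℕ) : Fin 3 → ℕ := fun j => max (a j) i

theorem min_pow (a i : ℕ) : min ((1 / 2 : ℝ) ^ a) ((1 / 2 : ℝ) ^ i) = (1 / 2 : ℝ) ^ (max a i) := by
  rcases le_total a i with h | h
  · rw [max_eq_right h]
    exact min_eq_right (pow_le_pow_of_le_one (by norm_num) (by norm_num) h)
  · rw [max_eq_left h]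
    exact min_eq_left (pow_le_pow_of_le_one (by norm_num) (by norm_num) h)

theorem rho_eq (i : ℕ) : rho i = (1 / 2 : ℝ) ^ i := by
  unfold rho
  rw [one_div, one_div, inv_pow]

theorem le_exp {a i : ℕ} (h : (1 / 2 : ℝ) ^ a ≤ (1 / 2 : ℝ) ^ i) : i ≤ a := by
  by_contra hn
  push Not at hn
  have := pow_lt_pow_right_of_lt_one₀ (a := (1 / 2 : ℝ)) (by norm_num) (by norm_num) hn
  linarith

/-- **`LevCov` for the class `TT36`** -/
theorem levCov_P {T : ℕ → TS Ln4 (Fin 3) Plk4} {Ψ : ℝ → (Fin 3 → ℝ) → ℝ} {mt : ℕ → ℕ}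
    {atop : ℕ → Fin 3 → ℕ} {L : ℕ → ℕ → Ln4} {K : ℝ} {hi km : ℕ → ℕ} {r : ℕ → ℝ}
    (hT : ∀ n, T n = TS36 (r n)) (hr : ∀ᶠ n in (U : Filter ℕ), 0 < r n ∧ r n ≤ rho (hi n))
    (hK : 0 ≤ K) (hΨ : LipR Ψ K) (hmt : ∀ᶠ n in (U : Filter ℕ), hi n ≤ mt n) :
    LevCov 729 (6 + 4 * K) hi km (geoP T Ψ mt atop L) (geoP T Ψ mt atop L) := by
  classical
  filter_upwards [hr, hmt] with n hrn hmn
  obtain ⟨hr0, hr1⟩ := hrn
  intro i k hik hkm J J' s hJ hs Q hQ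
  have hs' : (TS36 (r n)).adm i J s := by
    have : (T n).adm i J s := hs
    rwa [hT n] at this
  have hQ' : ∀ t ∈ Q, (TS36 (r n)).mem i J s (L n t) := by
    intro t ht
    have : (T n).mem i J s (L n t) := hQ t ht
    rwa [hT n] at this
  obtain ⟨S, hw1, hwd⟩ := hs'
  obtain ⟨h0, h1⟩ := sub_cell (i := i) hJ
  have hρ' : 0 < rho (i + k) := by unfold rho; positivity
  have hP : (0:ℝ) < 2 ^ k := by positivity
  have hrr := rho_add i k
  have w0' := hwd 0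
  have w1' := hwd 1
  have w2' := hwd 2
  rw [wd_zero] at w0'
  rw [wd_one] at w1'
  rw [wd_two] at w2'
  obtain ⟨c', q', S', hc⟩ := shrink_cover S hr0 hρ' h0 h1 hw1 (hr1.trans (rho_anti hik)) (N := 2 ^ k)
    (by push_cast; exact hrr.le) (L n) Q (fun t ht => (hQ' t ht).1)
  set K' : Plk4 := ⟨J', s.2.e, c', wm s.2.w (rho (i + k)), q', min s.2.a (rho (i + k))⟩ with hK'
  -- the exponents are at least `i`
  have g1 : i ≤ s.1 1 := le_exp (by rw [← w1', ← rho_eq]; exact hw1)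
  have g2 : i ≤ s.1 2 := le_exp (by rw [← w2', ← rho_eq]; exact S.w_le.trans hw1)
  have g0 : i ≤ s.1 0 := le_exp (by
    rw [← w0', ← rho_eq]; exact ((S.a_le0.trans S.w0_le).trans S.w_le).trans hw1)
  have gj : ∀ j, i ≤ s.1 j := by
    intro j; fin_cases j
    · exact g0
    · exact g1
    · exact g2
  refine ⟨(mxE s.1 (i + k), K'), ?_, ?_, Q.filter fun t => InSheet (L n t) s.2.e c'
    (wm s.2.w (rho (i + k))) q' (min s.2.a (rho (i + k))) (zl (i + k) J') (rho (i + k)),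
    filter_subset _ _, ?_, ?_⟩
  · show (T n).adm (i + k) J' (mxE s.1 (i + k), K')
    rw [hT n]
    refine ⟨S', min_le_right _ _, fun j => ?_⟩
    fin_cases j
    · show min s.2.a (rho (i + k)) = (1 / 2 : ℝ) ^ (max (s.1 0) (i + k))
      rw [w0', rho_eq, min_pow]
    · show min (s.2.w 1) (rho (i + k)) = (1 / 2 : ℝ) ^ (max (s.1 1) (i + k))
      rw [w1', rho_eq, min_pow]
    · show min (s.2.w 2) (rho (i + k)) = (1 / 2 : ℝ) ^ (max (s.1 2) (i + k))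
      rw [w2', rho_eq, min_pow]
  · show capP (T n) Ψ (mt n) (atop n) (i + k) (mxE s.1 (i + k)) ≤
      729 * 2 ^ ((6 + 4 * K) * k) * capP (T n) Ψ (mt n) (atop n) i s.1
    unfold capP
    rw [hT n]
    have hv : (TS36 (r n)).vol (i + k) (mxE s.1 (i + k)) ≤ (TS36 (r n)).vol i s.1 := by
      show (1 / 2 : ℝ) ^ (max (s.1 0) (i + k)) * (1 / 2 : ℝ) ^ (max (s.1 1) (i + k)) *
        (1 / 2 : ℝ) ^ (max (s.1 2) (i + k)) ≤ (1 / 2 : ℝ) ^ (s.1 0) * (1 / 2 : ℝ) ^ (s.1 1) *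
        (1 / 2 : ℝ) ^ (s.1 2)
      have hm : ∀ a : ℕ, (1 / 2 : ℝ) ^ (max a (i + k)) ≤ (1 / 2 : ℝ) ^ a := fun a =>
        pow_le_pow_of_le_one (by norm_num) (by norm_num) (le_max_left _ _)
      have := hm (s.1 0); have := hm (s.1 1); have := hm (s.1 2)
      gcongr
    have hvp : 0 < (TS36 (r n)).vol i s.1 := (TS36 (r n)).volpos _ _
    have hik' : ((i + k : ℕ) : ℝ) ≤ mt n := by exact_mod_cast hik.trans hmn
    have hl : (0:ℝ) ≤ (mt n : ℝ) - ((i + k : ℕ) : ℝ) := by linarith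
    have hik'' : (i : ℝ) ≤ ((i + k : ℕ) : ℝ) := by exact_mod_cast Nat.le_add_right i k
    have hl' : (0:ℝ) ≤ (mt n : ℝ) - (i : ℝ) := by linarith
    have hd := hΨ ((mt n : ℝ) - i) ((mt n : ℝ) - ((i + k : ℕ) : ℝ)) (rel i s.1 (mt n) (atop n))
      (rel (i + k) (mxE s.1 (i + k)) (mt n) (atop n)) hl' hl
    have hk0 : (0:ℝ) ≤ k := Nat.cast_nonneg _
    have e1 : |(mt n : ℝ) - i - ((mt n : ℝ) - ((i + k : ℕ) : ℝ))| ≤ k := by
      have : (mt n : ℝ) - i - ((mt n : ℝ) - ((i + k : ℕ) : ℝ)) = k := by push_cast; ring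
      rw [this, abs_of_nonneg hk0]
    have e2 : ∀ j, |rel i s.1 (mt n) (atop n) j -
        rel (i + k) (mxE s.1 (i + k)) (mt n) (atop n) j| ≤ k := by
      intro j
      have hgj : (i:ℝ) ≤ s.1 j := by exact_mod_cast gj j
      have e3 : rel i s.1 (mt n) (atop n) j - rel (i + k) (mxE s.1 (i + k)) (mt n) (atop n) j =
          (s.1 j : ℝ) + k - ((max (s.1 j) (i + k) : ℕ) : ℝ) := by
        simp only [rel, mxE]; push_cast; ring
      rw [e3]
      rcases le_total (s.1 j) (i + k) with h | h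
      · rw [max_eq_right h]
        have h2 : (s.1 j : ℝ) ≤ i + k := by exact_mod_cast h
        push_cast
        rw [abs_le]; constructor <;> linarith
      · rw [max_eq_left h, abs_le]; constructor <;> linarith
    have e4 : ∑ j, |rel i s.1 (mt n) (atop n) j -
        rel (i + k) (mxE s.1 (i + k)) (mt n) (atop n) j| ≤ 3 * k := by
      have h2 := sum_le_card_nsmul (univ : Finset (Fin 3)) _ (k : ℝ) (fun j _ => e2 j)
      rw [card_univ, Fintype.card_fin, nsmul_eq_mul] at h2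
      exact_mod_cast h2
    have e5 : |Ψ ((mt n : ℝ) - i) (rel i s.1 (mt n) (atop n)) -
        Ψ ((mt n : ℝ) - ((i + k : ℕ) : ℝ)) (rel (i + k) (mxE s.1 (i + k)) (mt n) (atop n))| ≤
        4 * K * k := by
      refine hd.trans ?_
      have := mul_le_mul_of_nonneg_left (add_le_add e1 e4) hK
      linarith
    rw [abs_le] at e5
    have e6 : (2:ℝ) ^ (-(Ψ ((mt n : ℝ) - ((i + k : ℕ) : ℝ))
        (rel (i + k) (mxE s.1 (i + k)) (mt n) (atop n)))) ≤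
        2 ^ (4 * K * k) * 2 ^ (-(Ψ ((mt n : ℝ) - i) (rel i s.1 (mt n) (atop n)))) := by
      rw [← Real.rpow_add two_pos]
      refine Real.rpow_le_rpow_of_exponent_le (by norm_num) ?_
      linarith [e5.2]
    have e7 : (2:ℝ) ^ (4 * K * k) ≤ 729 * 2 ^ ((6 + 4 * K) * k) := by
      have h2 : (2:ℝ) ^ (4 * K * k) ≤ 2 ^ ((6 + 4 * K) * k) := by
        refine Real.rpow_le_rpow_of_exponent_le (by norm_num) ?_
        nlinarith
      have h3 : (0:ℝ) < 2 ^ ((6 + 4 * K) * k) := Real.rpow_pos_of_pos two_pos _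
      linarith
    have p1 : (0:ℝ) < 2 ^ (-(Ψ ((mt n : ℝ) - i) (rel i s.1 (mt n) (atop n)))) :=
      Real.rpow_pos_of_pos two_pos _
    calc _ ≤ (TS36 (r n)).vol i s.1 * (2 ^ (4 * K * k) *
          2 ^ (-(Ψ ((mt n : ℝ) - i) (rel i s.1 (mt n) (atop n))))) :=
          mul_le_mul hv e6 (Real.rpow_pos_of_pos two_pos _).le hvp.le
      _ ≤ (TS36 (r n)).vol i s.1 * ((729 * 2 ^ ((6 + 4 * K) * k)) *
          2 ^ (-(Ψ ((mt n : ℝ) - i) (rel i s.1 (mt n) (atop n))))) :=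
          mul_le_mul_of_nonneg_left (mul_le_mul_of_nonneg_right e7 p1.le) hvp.le
      _ = _ := by ring
  · intro t ht
    show (T n).mem (i + k) J' (mxE s.1 (i + k), K') (L n t)
    rw [hT n]
    rw [mem_filter] at ht
    exact ⟨ht.2, (hQ' t ht.1).2⟩
  · refine hc.trans (mul_le_mul_of_nonneg_right ?_ (Nat.cast_nonneg _))
    have hP1 : (1:ℝ) ≤ 2 ^ k := one_le_pow₀ (by norm_num)
    have e2 : ((2:ℝ) * ((2 ^ k : ℕ) : ℝ) + 1) ^ 6 ≤ 729 * ((2:ℝ) ^ k) ^ 6 := by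
      have h3 : (2:ℝ) * ((2 ^ k : ℕ) : ℝ) + 1 ≤ 3 * 2 ^ k := by push_cast; linarith
      calc ((2:ℝ) * ((2 ^ k : ℕ) : ℝ) + 1) ^ 6 ≤ (3 * 2 ^ k) ^ 6 :=
            pow_le_pow_left₀ (by positivity) h3 6
        _ = _ := by ring
    refine e2.trans (mul_le_mul_of_nonneg_left ?_ (by norm_num))
    have e3 : ((2:ℝ) ^ k) ^ 6 = (2:ℝ) ^ ((6:ℝ) * k) := by
      rw [← Real.rpow_natCast 2 k, ← Real.rpow_natCast _ 6, ← Real.rpow_mul (by norm_num)]
      congr 1; push_cast; ring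
    rw [e3]
    refine Real.rpow_le_rpow_of_exponent_le (by norm_num) ?_
    exact mul_le_mul_of_nonneg_right (by linarith) (Nat.cast_nonneg _)

/-- **D-max at all natural levels over `geoP`** -/
theorem allD_P {B : Base} {I : ℕ → Finset (ℕ × ℝ)} {lev : ℕ → ℚ → ℕ} {A : ℕ → ℝ} {g : ℝ}
    {T : ℕ → TS Ln4 (Fin 3) Plk4} {Ψ : ℝ → (Fin 3 → ℝ) → ℝ} {mt : ℕ → ℕ}
    {atop : ℕ → Fin 3 → ℕ} {L : ℕ → ℕ → Ln4} {K : ℝ} {Λ : ℝ → ℝ} {τ : Fin 3 → ℝ → ℝ}
    {f : ℕ → ℚ → ℕ → ℤ → ℕ} {b : ℕ → ℚ → ℕ → (Fin 3 → ℕ) × Plk4}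
    {vm : ℕ → ℚ → ℝ} {w : Fin 3 → ℕ → ℚ → ℝ}
    (hM : MkA B I (geoP T Ψ mt atop L) lev A (fun v => g * v) Λ τ f b vm w)
    (hg : 0 ≤ g) (hT : ∀ n, T n ∈ TT36) (hmt : ∀ᶠ n in (U : Filter ℕ), lev n 1 ≤ mt n)
    (hK : 0 ≤ K) (hΨ : LipR Ψ K) : AllD B I (geoP T Ψ mt atop L) lev A g := by
  choose r hr hTr using hT
  refine allD_of_lev hM hg (levCov_P (km := fun n => ⌊B.L n / Real.log 2⌋₊) hTr ?_ hK hΨ hmt)
    (by norm_num) (by linarith) ⟨1 / 2, by norm_num, ?_⟩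
  · filter_upwards [hM.mark 1 zero_le_one le_rfl, hM.ne] with n h2 h3
    obtain ⟨x, hx⟩ := h3
    obtain ⟨-, hadm, -⟩ := h2 (zc (lev n 1) x.2) x.1 (mem_alive.2 ⟨x, hx, rfl, rfl⟩)
    have h4 : (T n).adm (lev n 1) (zc (lev n 1) x.2) (b n 1 (f n 1 x.1 (zc (lev n 1) x.2))) := hadm
    rw [hTr n] at h4
    obtain ⟨S, hw, -⟩ := h4
    exact ⟨hr n, ((((S.r0_le.trans S.a_le0).trans S.w0_le).trans S.w_le)).trans hw⟩
  · have hlog2 : 0 < Real.log 2 := Real.log_pos (by norm_num)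
    filter_upwards [B.ev_L_ge (2 * Real.log 2)] with n hn
    have h1 := Nat.lt_floor_add_one (B.L n / Real.log 2)
    rw [div_lt_iff₀ hlog2] at h1
    nlinarith

end

end Crest.Agent.R136.AllD823
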