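import Mathlib
import Crest.Agent.R116.Psi_635
import Crest.Agent.R116.Rv1_883

/-!
# R136 (U4): the reward with pure penalty (418's 19179), and the choice of its parameter (helper325)

`pen w l x = ∑ w_j (√(l² + x_j²) - l) ≥ 0` (separable penalty, `= - psi w 1 l x` of 635),
`psiP w l x = l - pen w l x`, `PenP p w q l x = ∑ p_j x_j + q * psiP w l x`.

* `pen_*` : nonnegative, homogeneous, subadditive, continuous;
* `rwdP`  : `Rwd (PenP p w) (psiP w) q0` (interface of `XcDef_794`);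
* `eqcP`  : the equality modulus without upper bound of the parameter; `coeP`;
* `linAtP`: linearisation near the ray `(1, θ)`: `g0 = dlP`, slopes `dwP`; `dlP_*`, `dwP_*` bounds;
* `PenP_slope`, `PenP_lip`;
* `exists_t` : a nondecreasing function has a point with right slope `≤ K`;
* `exists_q_pen` : the same for `β q = h (q / c) - q` : drop rate `1 - K / c`.
-/

set_option autoImplicit false

open Finset

namespace Crest.Agent.R136.Pen325

open Crest.Agent.R116.Psi635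
open Crest.Agent.R116.Xu79 (brk)
open Crest.Agent.R116.Xc794 (Rwd)
open Crest.Agent.R116.Zl139 (LinAt)
open Crest.Agent.R116.Rv883 (dlen dwid linAt_Psi dlen_nonneg dlen_le dwid_ge dwid_le brl brx)

section

variable {ι : Type} [Fintype ι]

/-- the penalty -/
noncomputable def pen (w : ι → ℝ) (l : ℝ) (x : ι → ℝ) : ℝ := ∑ j, w j * (nr l (x j) - l)

/-- `ψ = l - pen` -/
noncomputable def psiP (w : ι → ℝ) (l : ℝ) (x : ι → ℝ) : ℝ := l - pen w l x

/-- the reward `∑ p_j x_j + q (l - pen)` -/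
noncomputable def PenP (p w : ι → ℝ) (q l : ℝ) (x : ι → ℝ) : ℝ :=
  (∑ j, p j * x j) + q * psiP w l x

theorem psi_one (w : ι → ℝ) (l : ℝ) (x : ι → ℝ) : psi w 1 l x = -pen w l x := by
  unfold psi pen
  rw [← Finset.sum_neg_distrib]
  refine Finset.sum_congr rfl fun j _ => ?_
  rw [brk_eq]; ring

theorem psiP_eq (w : ι → ℝ) (l : ℝ) (x : ι → ℝ) : psiP w l x = l + psi w 1 l x := by
  rw [psi_one]; unfold psiP; ring

theorem PenP_eq (p w : ι → ℝ) (q l : ℝ) (x : ι → ℝ) :
    PenP p w q l x = Psi p w 1 q l x + q * l := by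
  unfold PenP Psi
  rw [psiP_eq]; ring

theorem pen_nonneg {w : ι → ℝ} (hw : ∀ j, 0 ≤ w j) (l : ℝ) (x : ι → ℝ) : 0 ≤ pen w l x := by
  unfold pen
  refine Finset.sum_nonneg fun j _ => mul_nonneg (hw j) ?_
  have h1 := le_nr_l l (x j)
  have h2 := le_abs_self l
  linarith

theorem pen_term {w : ι → ℝ} (hw : ∀ j, 0 ≤ w j) (l : ℝ) (x : ι → ℝ) (j : ι) :
    w j * (nr l (x j) - l) ≤ pen w l x := by
  unfold pen
  refine Finset.single_le_sum (f := fun j => w j * (nr l (x j) - l)) (fun i _ => ?_)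
    (Finset.mem_univ j)
  have h1 := le_nr_l l (x i)
  have h2 := le_abs_self l
  exact mul_nonneg (hw i) (by linarith)

/-- the penalty controls the exponents -/
theorem abs_le_of_pen {w : ι → ℝ} (hw : ∀ j, 0 < w j) {l c : ℝ} {x : ι → ℝ}
    (h : pen w l x ≤ c) (j : ι) : |x j| ≤ l + c / w j := by
  have h1 := pen_term (fun j => (hw j).le) l x j
  have h2 : nr l (x j) - l ≤ c / w j := by
    rw [le_div_iff₀ (hw j)]; linarith
  have h3 := le_nr_x l (x j)
  linarith

theorem pen_hom (w : ι → ℝ) {c : ℝ} (hc : 0 ≤ c) (l : ℝ) (x : ι → ℝ) :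
    pen w (c * l) (fun j => c * x j) = c * pen w l x := by
  unfold pen
  rw [Finset.mul_sum]
  refine Finset.sum_congr rfl fun j _ => ?_
  rw [nr_hom hc]; ring

theorem pen_sub {w : ι → ℝ} (hw : ∀ j, 0 ≤ w j) (l l' : ℝ) (x x' : ι → ℝ) :
    pen w (l + l') (fun j => x j + x' j) ≤ pen w l x + pen w l' x' := by
  unfold pen
  rw [← Finset.sum_add_distrib]
  refine Finset.sum_le_sum fun j _ => ?_
  rw [← mul_add]
  refine mul_le_mul_of_nonneg_left ?_ (hw j)
  have := nr_add l (x j) l' (x' j)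
  linarith

theorem pen_zero (w : ι → ℝ) {l : ℝ} (hl : 0 ≤ l) : pen w l (fun _ => 0) = 0 := by
  unfold pen
  refine Finset.sum_eq_zero fun j _ => ?_
  have : nr l 0 = l := by
    unfold nr
    rw [show l ^ 2 + (0 : ℝ) ^ 2 = l ^ 2 by ring, Real.sqrt_sq hl]
  rw [this]; ring

theorem psiP_le {w : ι → ℝ} (hw : ∀ j, 0 ≤ w j) (l : ℝ) (x : ι → ℝ) : psiP w l x ≤ l := by
  have := pen_nonneg hw l x
  unfold psiP; linarith

theorem psiP_sup {w : ι → ℝ} (hw : ∀ j, 0 ≤ w j) (l l' : ℝ) (x x' : ι → ℝ) :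
    psiP w l x + psiP w l' x' ≤ psiP w (l + l') (fun j => x j + x' j) := by
  have := pen_sub hw l l' x x'
  unfold psiP; linarith

theorem psiP_hom (w : ι → ℝ) {c : ℝ} (hc : 0 ≤ c) (l : ℝ) (x : ι → ℝ) :
    psiP w (c * l) (fun j => c * x j) = c * psiP w l x := by
  unfold psiP
  rw [pen_hom w hc]; ring

theorem psiP_cont (w : ι → ℝ) : Continuous (fun z : ℝ × (ι → ℝ) => psiP w z.1 z.2) := by
  have h := psi_cont w 1
  have e : (fun z : ℝ × (ι → ℝ) => psiP w z.1 z.2) =
      fun z : ℝ × (ι → ℝ) => z.1 + psi w 1 z.1 z.2 := by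
    funext z; rw [psiP_eq]
  rw [e]
  exact continuous_fst.add h

/-- **coercivity** -/
theorem coeP {w : ι → ℝ} (hw : ∀ j, 0 < w j) {c : ℝ} (hc : 0 < c) :
    ∃ R : ℝ, 0 < R ∧ ∀ l (x : ι → ℝ), 0 ≤ l → c * l ≤ psiP w l x → ∀ j, |x j| ≤ R * l := by
  refine ⟨1 + ∑ j, 1 / w j, ?_, ?_⟩
  · have : 0 ≤ ∑ j, 1 / w j := Finset.sum_nonneg fun j _ => by
      have := hw j
      positivity
    linarith
  · intro l x hl hx j
    have h1 : pen w l x ≤ l := by
      unfold psiP at hx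
      have : 0 ≤ c * l := by positivity
      linarith
    have h2 := abs_le_of_pen hw h1 j
    have h3 : 1 / w j ≤ ∑ j, 1 / w j :=
      Finset.single_le_sum (f := fun j => 1 / w j) (fun i _ => by
        have := hw i
        positivity) (Finset.mem_univ j)
    have e : l / w j = 1 / w j * l := by ring
    rw [e] at h2
    have h4 : 1 / w j * l ≤ (∑ j, 1 / w j) * l := mul_le_mul_of_nonneg_right h3 hl
    linarith

/-- **equality modulus**, no upper bound of the parameter -/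
theorem eqcP {p w : ι → ℝ} (hw : ∀ j, 0 < w j) {q0 : ℝ} (hq0 : 0 < q0) {l0 R ε : ℝ}
    (hl0 : 0 < l0) (hε : 0 < ε) :
    ∃ δ : ℝ, 0 < δ ∧ ∀ q l l' (x x' : ι → ℝ), q0 ≤ q →
      l0 ≤ l → l ≤ 2 → l0 ≤ l' → l' ≤ 2 → (∀ j, |x j| ≤ R) →
      PenP p w q (l + l') (fun j => x j + x' j) ≤ PenP p w q l x + PenP p w q l' x' + δ →
        ∀ j, |(x j + x' j) - (l + l') / l * x j| ≤ ε := by
  obtain ⟨δ, hδ, h⟩ := modulus (l0 := l0) (R := R) (ε := ε) hl0 hε
  obtain ⟨c, hc, hcw⟩ : ∃ c : ℝ, 0 < c ∧ ∀ j, c ≤ w j := by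
    by_cases hne : Nonempty ι
    · obtain ⟨j0, hj0⟩ := Finite.exists_min w
      exact ⟨w j0, hw j0, hj0⟩
    · exact ⟨1, one_pos, fun j => absurd ⟨j⟩ hne⟩
  refine ⟨q0 * (c * δ), by positivity, ?_⟩
  intro q l l' x x' hq hl hl2 hl' hl2' hx hdef j
  refine h l l' (x j) (x' j) hl hl2 hl' hl2' (hx j) ?_
  have hqp : 0 < q := hq0.trans_le hq
  have e0 : ∑ j, p j * (x j + x' j) = (∑ j, p j * x j) + ∑ j, p j * x' j := by
    rw [← Finset.sum_add_distrib]
    exact Finset.sum_congr rfl fun j _ => by ring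
  have h1 : q * (pen w l x + pen w l' x' - pen w (l + l') (fun j => x j + x' j)) ≤
      q0 * (c * δ) := by
    unfold PenP psiP at hdef
    rw [e0] at hdef
    linarith
  have h2 : pen w l x + pen w l' x' - pen w (l + l') (fun j => x j + x' j) =
      ∑ j, w j * (nr l (x j) + nr l' (x' j) - nr (l + l') (x j + x' j)) := by
    unfold pen
    rw [← Finset.sum_add_distrib, ← Finset.sum_sub_distrib]
    exact Finset.sum_congr rfl fun j _ => by ring
  have h3 : w j * (nr l (x j) + nr l' (x' j) - nr (l + l') (x j + x' j)) ≤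
      pen w l x + pen w l' x' - pen w (l + l') (fun j => x j + x' j) := by
    rw [h2]
    refine Finset.single_le_sum
      (f := fun j => w j * (nr l (x j) + nr l' (x' j) - nr (l + l') (x j + x' j)))
      (fun i _ => ?_) (Finset.mem_univ j)
    have := nr_add l (x i) l' (x' i)
    exact mul_nonneg (hw i).le (by linarith)
  have h5 := nr_add l (x j) l' (x' j)
  set E := nr l (x j) + nr l' (x' j) - nr (l + l') (x j + x' j) with hE
  have hE0 : 0 ≤ E := by rw [hE]; linarith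
  have h6 : c * E ≤ w j * E := mul_le_mul_of_nonneg_right (hcw j) hE0
  have h7 : q0 * (c * E) ≤ q * (c * E) := mul_le_mul_of_nonneg_right hq (by positivity)
  have h8 : q * (c * E) ≤
      q * (pen w l x + pen w l' x' - pen w (l + l') (fun j => x j + x' j)) :=
    mul_le_mul_of_nonneg_left (h6.trans h3) hqp.le
  have h9 : q0 * (c * E) ≤ q0 * (c * δ) := h7.trans (h8.trans h1)
  have h10 : E ≤ δ := by
    have hpos : 0 < q0 * c := mul_pos hq0 hc
    have h11 : (q0 * c) * E ≤ (q0 * c) * δ := by linarith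
    exact le_of_mul_le_mul_left h11 hpos
  linarith

theorem PenP_zero (p w : ι → ℝ) (q : ℝ) : PenP p w q 0 (fun _ => 0) = 0 := by
  unfold PenP psiP
  rw [pen_zero w le_rfl]
  simp

theorem PenP_hom (p w : ι → ℝ) (q : ℝ) {c : ℝ} (hc : 0 ≤ c) (l : ℝ) (x : ι → ℝ) :
    PenP p w q (c * l) (fun j => c * x j) = c * PenP p w q l x := by
  unfold PenP
  rw [psiP_hom w hc, mul_add, Finset.mul_sum]
  congr 1
  · exact Finset.sum_congr rfl fun j _ => by ring
  · ring

theorem PenP_sup (p : ι → ℝ) {w : ι → ℝ} (hw : ∀ j, 0 ≤ w j) {q : ℝ} (hq : 0 ≤ q) (l l' : ℝ)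
    (x x' : ι → ℝ) :
    PenP p w q l x + PenP p w q l' x' ≤ PenP p w q (l + l') (fun j => x j + x' j) := by
  unfold PenP
  have h1 := mul_le_mul_of_nonneg_left (psiP_sup hw l l' x x') hq
  have h2 : ∑ j, p j * (x j + x' j) = (∑ j, p j * x j) + ∑ j, p j * x' j := by
    rw [← Finset.sum_add_distrib]
    exact Finset.sum_congr rfl fun j _ => by ring
  rw [h2]
  linarith

theorem PenP_cont (p w : ι → ℝ) (q : ℝ) :
    Continuous (fun z : ℝ × (ι → ℝ) => PenP p w q z.1 z.2) := by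
  unfold PenP
  refine Continuous.add ?_ (continuous_const.mul (psiP_cont w))
  exact continuous_finsetSum _ fun j _ => continuous_const.mul
    ((continuous_apply j).comp continuous_snd)

/-- **the reward with penalty satisfies the interface of `XcDef_794`.** -/
theorem rwdP {p w : ι → ℝ} {q0 : ℝ} (hw : ∀ j, 0 < w j) (hq0 : 0 < q0) :
    Rwd (fun q l x => PenP p w q l x) (psiP w) q0 where
  q0pos := hq0
  aff := by
    intro q l x
    unfold PenP
    ring
  le := fun l x _ => psiP_le (fun j => (hw j).le) l x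
  hom := fun q c l x _ hc _ => PenP_hom p w q hc l x
  homψ := fun c l x hc _ => psiP_hom w hc l x
  zero := fun q => PenP_zero p w q
  cont := fun q => PenP_cont p w q
  contψ := psiP_cont w
  sup := fun q l l' x x' hq _ _ => PenP_sup p (fun j => (hw j).le) hq l l' x x'
  coe := fun c hc => coeP hw hc
  eqc := by
    intro l0 R ε hl0 hε
    obtain ⟨δ, hδ, h⟩ := eqcP (p := p) hw hq0 (R := R) hl0 hε
    exact ⟨δ, hδ, fun q l l' x x' hq _ => h q l l' x x' hq⟩

/-- monotone in the penalty -/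
theorem PenP_mono_w (p : ι → ℝ) {w w' : ι → ℝ} (hw : ∀ j, w j ≤ w' j) {q : ℝ} (hq : 0 ≤ q)
    (l : ℝ) (x : ι → ℝ) : PenP p w' q l x ≤ PenP p w q l x := by
  unfold PenP psiP
  have h1 : pen w l x ≤ pen w' l x := by
    unfold pen
    refine Finset.sum_le_sum fun j _ => mul_le_mul_of_nonneg_right (hw j) ?_
    have h1 := le_nr_l l (x j)
    have h2 := le_abs_self l
    linarith
  nlinarith

/-! ### linearisation -/

/-- derivative in the length -/
noncomputable def dlP (w : ι → ℝ) (q : ℝ) (θ : ι → ℝ) : ℝ := q + dlen w 1 q θ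

/-- derivatives in the exponents -/
noncomputable def dwP (p w : ι → ℝ) (q : ℝ) (θ : ι → ℝ) (j : ι) : ℝ := dwid p w 1 q θ j

theorem dlP_ge {w : ι → ℝ} {q : ℝ} (hw : ∀ j, 0 ≤ w j) (hq : 0 ≤ q) (θ : ι → ℝ) :
    q ≤ dlP w q θ := by
  have := dlen_nonneg (w := w) (μ := 1) (q := q) hw zero_le_one hq θ
  unfold dlP; linarith

theorem dlP_le {w : ι → ℝ} {q : ℝ} (hw : ∀ j, 0 ≤ w j) (hq : 0 ≤ q) (θ : ι → ℝ) :
    dlP w q θ ≤ q + q * ∑ j, w j := by
  have := dlen_le (w := w) (μ := 1) (q := q) hw zero_le_one hq θ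
  unfold dlP
  have e : q * ((1 + 1) / 2 * ∑ j, w j) = q * ∑ j, w j := by ring
  rw [e] at this
  linarith

omit [Fintype ι] in
theorem dwP_ge {p w : ι → ℝ} {q : ℝ} {j : ι} (hw : 0 ≤ w j) (hq : 0 ≤ q) (θ : ι → ℝ) :
    p j - q * w j ≤ dwP p w q θ j := by
  have := dwid_ge (p := p) (w := w) (μ := 1) (q := q) (j := j) hw zero_le_one hq θ
  unfold dwP; linarith

omit [Fintype ι] in
theorem dwP_le {p w : ι → ℝ} {q : ℝ} {j : ι} (hw : 0 ≤ w j) (hq : 0 ≤ q) (θ : ι → ℝ) :
    dwP p w q θ j ≤ p j + q * w j :=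
  dwid_le (p := p) (w := w) (μ := 1) (q := q) (j := j) hw zero_le_one hq θ

/-- **linearisation near the ray `(1, θ)`.** -/
theorem linAtP (p w : ι → ℝ) (q : ℝ) (θ : ι → ℝ) :
    LinAt (PenP p w q) θ (dlP w q θ) (dwP p w q θ) := by
  intro ε hε
  obtain ⟨δ, hδ, h⟩ := linAt_Psi (p := p) (w := w) (μ := 1) (q := q) zero_le_one θ ε hε
  refine ⟨δ, hδ, fun l l' x x' hl hl' hx hx' => ?_⟩
  have h1 := h l l' x x' hl hl' hx hx'
  rw [PenP_eq, PenP_eq]
  unfold dlP dwP
  have e : Psi p w 1 q l x + q * l - (Psi p w 1 q l' x' + q * l') -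
      (q + dlen w 1 q θ) * (l - l') - ∑ j, dwid p w 1 q θ j * (x j - x' j) =
      Psi p w 1 q l x - Psi p w 1 q l' x' - dlen w 1 q θ * (l - l') -
      ∑ j, dwid p w 1 q θ j * (x j - x' j) := by ring
  rw [e]
  exact h1

end

end Crest.Agent.R136.Pen325
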