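import Mathlib
import Crest.Agent.R136.Pen1_325

/-!
# R136 (U4): choice of the parameter for the reward with penalty, abstract form (helper325)

* `exists_t` : a nondecreasing function on `[t0, t1]` with `h t1 - h t0 < K (t1 - t0)` has a point
  `t` with `h (t + δ) ≤ h t + K δ` for all small `δ ≥ 0` (elementary, no differentiation).
* `exists_q_pen` : the form for `β` with `β + id` nondecreasing: drop rate `1 - K`.
* `exists_chsU` : `U q b` = "the gap with parameter `q` is at most `b`": `low`, `ub`, `drop`.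
* `penW`, `penW_slope`, `penW_growth` : equal weights `w_j = ε / Q`: slopes within `ε`, growth
  within `card ε`.
* `PenP_slope`, `PenP_lip`.
-/

set_option autoImplicit false

open Finset

namespace Crest.Agent.R136.Pen325

open Crest.Agent.R116.Psi635

/-- **right slope of a nondecreasing function** -/
theorem exists_t {h : ℝ → ℝ} {t0 t1 K : ℝ} (h01 : t0 < t1)
    (hmono : ∀ s t, t0 ≤ s → s ≤ t → t ≤ t1 → h s ≤ h t) (hK : h t1 - h t0 < K * (t1 - t0)) :
    ∃ t, t0 < t ∧ t < t1 ∧ ∃ δ0 : ℝ, 0 < δ0 ∧ t + δ0 ≤ t1 ∧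
      ∀ δ, 0 ≤ δ → δ ≤ δ0 → h (t + δ) ≤ h t + K * δ := by
  have hm := hmono t0 t1 le_rfl h01.le le_rfl
  have hd : 0 < t1 - t0 := by linarith
  have hKp : 0 < K := by
    by_contra hc
    have : K * (t1 - t0) ≤ 0 := mul_nonpos_of_nonpos_of_nonneg (not_lt.1 hc) hd.le
    linarith
  -- a margin
  obtain ⟨e, he, he2, heK⟩ : ∃ e : ℝ, 0 < e ∧ 2 * e < t1 - t0 ∧
      h t1 - h t0 < K * (t1 - t0 - 2 * e) := by
    set s := K * (t1 - t0) - (h t1 - h t0) with hs
    have hs0 : 0 < s := by rw [hs]; linarith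
    refine ⟨min ((t1 - t0) / 4) (s / (4 * K)), by positivity, ?_, ?_⟩
    · have := min_le_left ((t1 - t0) / 4) (s / (4 * K)); linarith
    · have h1 := min_le_right ((t1 - t0) / 4) (s / (4 * K))
      have h2 : K * (2 * min ((t1 - t0) / 4) (s / (4 * K))) ≤ s / 2 := by
        calc K * (2 * min ((t1 - t0) / 4) (s / (4 * K))) ≤ K * (2 * (s / (4 * K))) := by gcongr
          _ = s / 2 := by field_simp; ring
      have h3 : K * (t1 - t0 - 2 * min ((t1 - t0) / 4) (s / (4 * K))) =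
        K * (t1 - t0) - K * (2 * min ((t1 - t0) / 4) (s / (4 * K))) := by ring
      rw [h3]
      linarith
  by_contra hcon
  push Not at hcon
  set a := t0 + e with ha
  set b := t1 - e with hb
  set S : Set ℝ := {t | a ≤ t ∧ t ≤ b ∧ h a + K * (t - a) ≤ h t} with hS
  have haS : a ∈ S := ⟨le_rfl, by rw [ha, hb]; linarith, by linarith⟩
  have hbd : BddAbove S := ⟨b, fun t ht => ht.2.1⟩
  set s := sSup S with hs
  have has : a ≤ s := le_csSup hbd haS
  have hsb : s ≤ b := csSup_le ⟨a, haS⟩ fun t ht => ht.2.1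
  have hsS : h a + K * (s - a) ≤ h s := by
    refine le_of_forall_pos_le_add fun ε hε => ?_
    have hεK : 0 < ε / K := by positivity
    obtain ⟨t, ht, hlt⟩ := exists_lt_of_lt_csSup ⟨a, haS⟩
      (show s - ε / K < sSup S by rw [← hs]; linarith)
    have h1 : h t ≤ h s := hmono t s (by have := ht.1; linarith) (le_csSup hbd ht) (by linarith)
    have h2 := ht.2.2
    have h3 : K * (s - t) ≤ ε := by
      calc K * (s - t) ≤ K * (ε / K) := mul_le_mul_of_nonneg_left (by linarith) hKp.le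
        _ = ε := by field_simp
    have h4 : K * (s - a) = K * (t - a) + K * (s - t) := by ring
    linarith
  rcases hsb.lt_or_eq with hlt | heq
  · obtain ⟨δ, hδ, hδ2, h3⟩ := hcon s (by linarith) (by linarith) (b - s) (by linarith)
      (by linarith)
    have hδp : 0 < δ := by
      rcases hδ.lt_or_eq with h | h
      · exact h
      · rw [← h] at h3
        simp at h3
    have hmem : s + δ ∈ S := by
      refine ⟨by linarith, by linarith, ?_⟩
      have h4 : K * (s + δ - a) = K * (s - a) + K * δ := by ring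
      rw [h4]; linarith
    have := le_csSup hbd hmem
    linarith
  · rw [heq] at hsS
    have h1 : h b ≤ h t1 := hmono b t1 (by linarith) (by linarith) le_rfl
    have h2 : h t0 ≤ h a := hmono t0 a le_rfl (by linarith) (by linarith)
    have h3 : K * (b - a) = K * (t1 - t0 - 2 * e) := by rw [ha, hb]; ring
    linarith

/-- **choice of the parameter** for `β` with `β + id` nondecreasing. -/
theorem exists_q_pen {β : ℝ → ℝ} {q0 Q K : ℝ} (h01 : q0 < Q)
    (hβ : ∀ q q', q0 ≤ q → q ≤ q' → q' ≤ Q → β q - (q' - q) ≤ β q')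
    (hK : (β Q + Q) - (β q0 + q0) < K * (Q - q0)) :
    ∃ q, q0 < q ∧ q < Q ∧ ∃ δ0 : ℝ, 0 < δ0 ∧ q + δ0 ≤ Q ∧
      ∀ δ, 0 ≤ δ → δ ≤ δ0 → β (q + δ) ≤ β q - (1 - K) * δ := by
  obtain ⟨q, h1, h2, δ0, h3, h4, h5⟩ := exists_t (h := fun q => β q + q) h01
    (fun s t hs hst ht => by have := hβ s t hs hst ht; linarith) hK
  refine ⟨q, h1, h2, δ0, h3, h4, fun δ hδ hδ' => ?_⟩
  have h6 : β (q + δ) + (q + δ) ≤ β q + q + K * δ := h5 δ hδ hδ'
  linarith

/-- **choice of the parameter**, `U q b` = "the gap with parameter `q` is at most `b`". -/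
theorem exists_chsU {U : ℝ → ℝ → Prop} {q0 Q K h0 H : ℝ} (h01 : q0 < Q)
    (mono : ∀ q b b', U q b → b ≤ b' → U q b')
    (inf : ∀ q b, (∀ b', b < b' → U q b') → U q b)
    (sh : ∀ q q' b, q0 ≤ q → q ≤ q' → q' ≤ Q → U q' b → U q (b + (q' - q)))
    (hi : ∀ q, q0 ≤ q → q ≤ Q → U q (H - q))
    (lo : ∀ q b, q0 ≤ q → q ≤ Q → U q b → h0 - q ≤ b)
    (hK : H - h0 < K * (Q - q0)) :
    ∃ q g δ0 : ℝ, q0 < q ∧ q < Q ∧ 0 < δ0 ∧ q + δ0 ≤ Q ∧ h0 ≤ g + q ∧ g + q ≤ H ∧
      (∀ b, b < g → ¬ U q b) ∧ U q g ∧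
      ∀ δ, 0 < δ → δ ≤ δ0 → U (q + δ) (g - (1 - K) * δ) := by
  classical
  set β : ℝ → ℝ := fun q => sInf {b | U q b} with hβ
  have hne : ∀ q, q0 ≤ q → q ≤ Q → {b | U q b}.Nonempty := fun q h1 h2 => ⟨_, hi q h1 h2⟩
  have hbd : ∀ q, q0 ≤ q → q ≤ Q → BddBelow {b | U q b} := fun q h1 h2 =>
    ⟨h0 - q, fun b hb => lo q b h1 h2 hb⟩
  have hle : ∀ q, q0 ≤ q → q ≤ Q → β q ≤ H - q := fun q h1 h2 =>
    csInf_le (hbd q h1 h2) (hi q h1 h2)
  have hge : ∀ q, q0 ≤ q → q ≤ Q → h0 - q ≤ β q := fun q h1 h2 =>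
    le_csInf (hne q h1 h2) fun b hb => lo q b h1 h2 hb
  have hatt : ∀ q, q0 ≤ q → q ≤ Q → U q (β q) := by
    intro q h1 h2
    refine inf q _ fun b' hb' => ?_
    obtain ⟨b, hb, hbb⟩ := exists_lt_of_csInf_lt (hne q h1 h2) hb'
    exact mono q b b' hb hbb.le
  have hjump : ∀ q q', q0 ≤ q → q ≤ q' → q' ≤ Q → β q - (q' - q) ≤ β q' := by
    intro q q' h1 h2 h3
    have h4 : β q ≤ β q' + (q' - q) :=
      csInf_le (hbd q h1 (by linarith)) (sh q q' _ h1 h2 h3 (hatt q' (by linarith) h3))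
    linarith
  have h1 := hle Q h01.le le_rfl
  have h2 := hge q0 le_rfl h01.le
  obtain ⟨q, hq1, hq2, δ0, hδ0, hδQ, hδ⟩ := exists_q_pen h01 hjump (K := K) (by linarith)
  refine ⟨q, β q, δ0, hq1, hq2, hδ0, hδQ, ?_, ?_, ?_, hatt q hq1.le hq2.le, ?_⟩
  · have := hge q hq1.le hq2.le; linarith
  · have := hle q hq1.le hq2.le; linarith
  · intro b hb hU
    exact absurd (csInf_le (hbd q hq1.le hq2.le) hU) (not_le.2 hb)
  · intro δ h3 h4
    exact mono _ _ _ (hatt (q + δ) (by linarith) (by linarith)) (hδ δ h3.le h4)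

section

variable {ι : Type} [Fintype ι]

/-- equal weights -/
noncomputable def penW (ι : Type) (ε Q : ℝ) : ι → ℝ := fun _ => ε / Q

omit [Fintype ι] in
theorem penW_pos {ε Q : ℝ} (hε : 0 < ε) (hQ : 0 < Q) (j : ι) : 0 < penW ι ε Q j :=
  div_pos hε hQ

omit [Fintype ι] in
theorem penW_mul {ε Q q : ℝ} (hε : 0 < ε) (hQ : 0 < Q) (hq : q ≤ Q) (j : ι) :
    q * penW ι ε Q j ≤ ε := by
  unfold penW
  calc q * (ε / Q) ≤ Q * (ε / Q) := mul_le_mul_of_nonneg_right hq (by positivity)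
    _ = ε := by field_simp

omit [Fintype ι] in
/-- the slopes are within `ε` of `p` -/
theorem penW_slope {p : ι → ℝ} {ε Q q : ℝ} (hε : 0 < ε) (hQ : 0 < Q) (hq0 : 0 ≤ q) (hq : q ≤ Q)
    (θ : ι → ℝ) (j : ι) : |dwP p (penW ι ε Q) q θ j - p j| ≤ ε := by
  have h1 := dwP_ge (p := p) (w := penW ι ε Q) (j := j) (penW_pos hε hQ j).le hq0 θ
  have h2 := dwP_le (p := p) (w := penW ι ε Q) (j := j) (penW_pos hε hQ j).le hq0 θ
  have h3 := penW_mul hε hQ hq j
  rw [abs_le]
  constructor <;> linarith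

/-- the linearised growth -/
theorem penW_growth {ε Q q g : ℝ} (hε : 0 < ε) (hQ : 0 < Q) (hq0 : 0 ≤ q) (hq : q ≤ Q)
    (θ : ι → ℝ) : g + q ≤ g + dlP (penW ι ε Q) q θ ∧
      g + dlP (penW ι ε Q) q θ ≤ g + q + Fintype.card ι * ε := by
  have hw : ∀ j, 0 ≤ penW ι ε Q j := fun j => (penW_pos hε hQ j).le
  have h1 := dlP_ge (q := q) hw hq0 θ
  have h2 := dlP_le (q := q) hw hq0 θ
  have h3 : q * ∑ j, penW ι ε Q j ≤ Fintype.card ι * ε := by
    rw [Finset.mul_sum]
    calc ∑ j, q * penW ι ε Q j ≤ ∑ _j : ι, ε := Finset.sum_le_sum fun j _ => penW_mul hε hQ hq j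
      _ = Fintype.card ι * ε := by rw [Finset.sum_const, nsmul_eq_mul, Finset.card_univ]
  constructor <;> linarith

theorem nr_lip_x (l x x' : ℝ) : |nr l x' - nr l x| ≤ |x' - x| := by
  have h1 := nr_add l x 0 (x' - x)
  have h2 := nr_add l x' 0 (x - x')
  have h3 := nr_le 0 (x' - x)
  have h4 := nr_le 0 (x - x')
  rw [abs_zero, zero_add] at h3 h4
  rw [show x + (x' - x) = x' by ring, add_zero] at h1
  rw [show x' + (x - x') = x by ring, add_zero] at h2
  rw [abs_sub_comm x x'] at h4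
  rw [abs_le]
  constructor <;> linarith

theorem nr_lip_len (l l' x : ℝ) : |nr l' x - nr l x| ≤ |l' - l| := by
  have h1 := nr_add l x (l' - l) 0
  have h2 := nr_add l' x (l - l') 0
  have h3 := nr_le (l' - l) 0
  have h4 := nr_le (l - l') 0
  rw [abs_zero, add_zero] at h3 h4
  rw [show l + (l' - l) = l' by ring, add_zero] at h1
  rw [show l' + (l - l') = l by ring, add_zero] at h2
  rw [abs_sub_comm l l'] at h4
  rw [abs_le]
  constructor <;> linarith

/-- change of the penalty -/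
theorem pen_change {w : ι → ℝ} (hw : ∀ j, 0 ≤ w j) (l : ℝ) (x x' : ι → ℝ) :
    |pen w l x' - pen w l x| ≤ ∑ j, w j * |x' j - x j| := by
  unfold pen
  rw [← Finset.sum_sub_distrib]
  refine (Finset.abs_sum_le_sum_abs _ _).trans (Finset.sum_le_sum fun j _ => ?_)
  have e : w j * (nr l (x' j) - l) - w j * (nr l (x j) - l) = w j * (nr l (x' j) - nr l (x j)) := by
    ring
  rw [e, abs_mul, abs_of_nonneg (hw j)]
  exact mul_le_mul_of_nonneg_left (nr_lip_x _ _ _) (hw j)

/-- **slopes in the exponents**: the reward differs from the linear one by `q w_j |x'_j - x_j|`. -/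
theorem PenP_slope {p w : ι → ℝ} (hw : ∀ j, 0 ≤ w j) {q : ℝ} (hq : 0 ≤ q) (l : ℝ) (x x' : ι → ℝ) :
    |PenP p w q l x' - PenP p w q l x - ∑ j, p j * (x' j - x j)| ≤
      ∑ j, q * w j * |x' j - x j| := by
  have e1 : ∑ j, p j * (x' j - x j) = (∑ j, p j * x' j) - ∑ j, p j * x j := by
    rw [← Finset.sum_sub_distrib]
    exact Finset.sum_congr rfl fun j _ => by ring
  have e2 : PenP p w q l x' - PenP p w q l x - ∑ j, p j * (x' j - x j) =
      -(q * (pen w l x' - pen w l x)) := by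
    rw [e1]; unfold PenP psiP; ring
  rw [e2, abs_neg, abs_mul, abs_of_nonneg hq]
  calc q * |pen w l x' - pen w l x| ≤ q * ∑ j, w j * |x' j - x j| :=
        mul_le_mul_of_nonneg_left (pen_change hw l x x') hq
    _ = ∑ j, q * w j * |x' j - x j| := by
        rw [Finset.mul_sum]
        exact Finset.sum_congr rfl fun j _ => by ring

/-- change in the length: `l ↦ q (l - pen)` has slopes in `[q - .., q (1 + 2 ∑ w)]` -/
theorem PenP_len {p w : ι → ℝ} (hw : ∀ j, 0 ≤ w j) {q : ℝ} (hq : 0 ≤ q) (l l' : ℝ) (x : ι → ℝ) :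
    |PenP p w q l' x - PenP p w q l x| ≤ q * (1 + 2 * ∑ j, w j) * |l' - l| := by
  have h1 : |pen w l' x - pen w l x| ≤ (2 * ∑ j, w j) * |l' - l| := by
    unfold pen
    rw [← Finset.sum_sub_distrib]
    refine (Finset.abs_sum_le_sum_abs _ _).trans ?_
    rw [Finset.mul_sum, Finset.sum_mul]
    refine Finset.sum_le_sum fun j _ => ?_
    have e : w j * (nr l' (x j) - l') - w j * (nr l (x j) - l) =
        w j * ((nr l' (x j) - nr l (x j)) - (l' - l)) := by ring
    rw [e, abs_mul, abs_of_nonneg (hw j)]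
    have h2 := nr_lip_len l l' (x j)
    have h3 := abs_sub (nr l' (x j) - nr l (x j)) (l' - l)
    calc w j * |nr l' (x j) - nr l (x j) - (l' - l)| ≤ w j * (2 * |l' - l|) :=
          mul_le_mul_of_nonneg_left (by linarith) (hw j)
      _ = 2 * w j * |l' - l| := by ring
  have e : PenP p w q l' x - PenP p w q l x = q * ((l' - l) - (pen w l' x - pen w l x)) := by
    unfold PenP psiP; ring
  rw [e, abs_mul, abs_of_nonneg hq, mul_assoc]
  refine mul_le_mul_of_nonneg_left ?_ hq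
  refine (abs_sub _ _).trans ?_
  linarith

end

end Crest.Agent.R136.Pen325
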