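import Mathlib
import Crest.Agent.R116.XcF_794

/-!
# R136 U4, pure penalty: X1-C chain with FULL own counts, part 1 (helper953)

Port of helper794's `R116/XcDef, Xc1, Xc2` to configurations with full own counts
(`2^((1-δ) M) ≤ nu`): then the own profile is `Λ = 0` and the gap is `D1 ≤ 2^((b+η) M) D0`.

* `UBF`, `RwdF` (parameter bound `Qm`), `ChsF`, `XOutF`;
* `cfg_lowF`, `low_seqF` : LOW (the density exponent is `∃ e > 0`).
-/

set_option autoImplicit false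
set_option linter.unusedSectionVars false

open Finset Filter Topology

namespace Crest.Agent.R136.Yc953

open Crest.Agent.R138.Ex926 Crest.Agent.R138.Dp76 Crest.Agent.R138.Ps627
open Crest.Agent.R138.Ps926 (dpow_small)
open Crest.Agent.R138.Mk163 (zc zl rho alive own)
open Crest.Agent.R138.MkRef627 (lc kc own_one alive_mono mem_alive card_class own_lower)
open Crest.Agent.R138.MkZoom779 (zc_nested)
open Crest.Agent.R136.MkA627 (Geo MkA)
open Crest.Agent.R116.Xa794 (TS)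
open Crest.Agent.R116.Xa2794 (lc_nested class_fib_ge class_fib_le)
open Crest.Agent.R116.Xa3794
open Crest.Agent.R116.Xc794 Crest.Agent.R116.Xc1794

variable {Ln ι S : Type} [Fintype ι]

/-- the zero own profile -/
def Zf : ℝ → ℝ := fun _ => 0

theorem Zf_apply (v : ℝ) : Zf v = 0 := rfl

/-- the gap of all FULL configurations with the reward `Ψ` is at most `b`. -/
def UBF (𝒯 : Set (TS Ln ι S)) (Ψ : ℝ → (ι → ℝ) → ℝ) (b : ℝ) : Prop :=
  ∀ η : ℝ, 0 < η → ∃ δ : ℝ, 0 < δ ∧ ∃ M0 : ℕ, ∀ T ∈ 𝒯, ∀ F : Cfg Ln ι S, F.Ok T Ψ → M0 ≤ F.M →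
    Real.log (F.I.card : ℝ) ≤ (2 : ℝ) ^ (δ * F.M) → (F.N : ℝ) ≤ (2 : ℝ) ^ (δ * F.M) →
    (2 : ℝ) ^ ((1 - δ) * F.M) ≤ F.nu →
      F.D1 ≤ (2 : ℝ) ^ ((b + η) * F.M) * F.D0

/-- the extremal gap of full configurations -/
noncomputable def betF (𝒯 : Set (TS Ln ι S)) (Ψ : ℝ → (ι → ℝ) → ℝ) : ℝ := sInf {b | UBF 𝒯 Ψ b}

/-- properties of the reward family `P q len x` (`Rwd` of 794 with the parameter bound `Qm`). -/
structure RwdF (P : ℝ → ℝ → (ι → ℝ) → ℝ) (ψ : ℝ → (ι → ℝ) → ℝ) (q0 Qm : ℝ) : Prop where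
  q0pos : 0 < q0
  /-- one parameter -/
  aff : ∀ q l x, P q l x = P 0 l x + q * ψ l x
  le : ∀ l x, 0 ≤ l → ψ l x ≤ l
  hom : ∀ q c l x, 0 ≤ q → 0 ≤ c → 0 ≤ l → P q (c * l) (fun j => c * x j) = c * P q l x
  homψ : ∀ c l x, 0 ≤ c → 0 ≤ l → ψ (c * l) (fun j => c * x j) = c * ψ l x
  zero : ∀ q, P q 0 (fun _ => 0) = 0
  contψ : Continuous (fun z : ℝ × (ι → ℝ) => ψ z.1 z.2)
  sup : ∀ q l l' x x', 0 ≤ q → 0 ≤ l → 0 ≤ l' → P q l x + P q l' x' ≤ P q (l + l') (fun j => x j + x' j)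
  /-- coercivity : `ψ ≥ c l` bounds `x` -/
  coe : ∀ c : ℝ, 0 < c → ∃ R : ℝ, 0 < R ∧ ∀ l x, 0 ≤ l → c * l ≤ ψ l x → ∀ j, |x j| ≤ R * l
  /-- equality case with modulus (`x` bounded, `x'` arbitrary), uniform in the lengths -/
  eqc : ∀ l0 R ε : ℝ, 0 < l0 → 0 < ε → ∃ δ : ℝ, 0 < δ ∧ ∀ q l l' x x', q0 ≤ q → q ≤ Qm →
    l0 ≤ l → l ≤ 2 → l0 ≤ l' → l' ≤ 2 → (∀ j, |x j| ≤ R) →
    P q (l + l') (fun j => x j + x' j) ≤ P q l x + P q l' x' + δ →
      ∀ j, |(x j + x' j) - (l + l') / l * x j| ≤ ε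

/-- **the choice of the parameter**: `q` fixed, `β(q) = g`, drop rate `κ`. -/
structure ChsF (𝒯 : Set (TS Ln ι S)) (P : ℝ → ℝ → (ι → ℝ) → ℝ) (q0 Qm κ δ0 q g : ℝ) : Prop where
  κpos : 0 < κ
  δ0pos : 0 < δ0
  qlo : q0 ≤ q
  qhi : q + δ0 ≤ Qm
  low : ∀ b : ℝ, b < g → ¬ UBF 𝒯 (P q) b
  ub : UBF 𝒯 (P q) g
  drop : ∀ δ : ℝ, 0 < δ → δ ≤ δ0 → UBF 𝒯 (P (q + δ)) (g - κ * δ)

/-- **the output with full own counts** (`Λ = 0`), true top, shapes `a n v` of the marks. -/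
def XOutF (𝒯 : Set (TS Ln ι S)) (Ψ ψ : ℝ → (ι → ℝ) → ℝ) (κ g : ℝ) (θ : ι → ℝ) : Prop :=
  ∃ (B : Base) (I : ℕ → Finset (ℕ × ℝ)) (T : ℕ → TS Ln ι S) (L : ℕ → ℕ → Ln) (lev : ℕ → ℚ → ℕ)
    (A : ℕ → ℝ) (f : ℕ → ℚ → ℕ → ℤ → ℕ) (b : ℕ → ℚ → ℕ → (ι → ℕ) × S)
    (vm : ℕ → ℚ → ℝ) (w : ι → ℕ → ℚ → ℝ) (atop : ℕ → ι → ℕ) (N : ℕ → ℕ) (a : ℕ → ℚ → ι → ℕ),
    (∀ n, T n ∈ 𝒯) ∧ (∀ n i J s, (T n).adm i J s → ∀ j, s.1 j ≤ N n) ∧
    (∀ ε : ℝ, 0 < ε → ∀ᶠ n in (U : Filter ℕ), (N n : ℝ) ≤ B.d n ^ (-ε)) ∧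
    κ ≤ ψ 1 θ ∧
    MkA B I (geoP T Ψ (fun n => lev n 1) atop L)
      lev A (fun v => g * v) (fun v => 0 * v) (fun j v => θ j * (1 - v)) f b vm w ∧
    (∀ n, a n 1 = atop n) ∧ (∀ n v j, w j n v = (1 / 2 : ℝ) ^ (a n v j)) ∧
    (∀ n v, vm n v = capP (T n) Ψ (lev n 1) (atop n) (lev n v) (a n v)) ∧
    (∀ v : ℚ, 0 ≤ v → v ≤ 1 → ∀ᶠ n in (U : Filter ℕ), ∃ (J : ℤ) (s : (ι → ℕ) × S),
      (T n).adm (lev n v) J s ∧ s.1 = a n v)

open Classical in
/-- **the configuration of a window.** -/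
theorem cfg_lowF (T : TS Ln ι S) (Ψ : ℝ → (ι → ℝ) → ℝ) {m M N : ℕ} {Kf Kl Kn : ℝ}
    (hfin : ∀ (i : ℕ) (J : ℤ) (s : (ι → ℕ) × S), T.adm i J s → ∀ j, s.1 j ≤ N)
    (hUB : ∀ F : Cfg Ln ι S, F.Ok T Ψ → F.M = M → F.N = N →
      Real.log (F.I.card : ℝ) ≤ Kl → Kn ≤ F.nu → F.D1 ≤ Kf * F.D0)
    (hM1 : 1 ≤ M) {I A J : Finset (ℕ × ℝ)} (hA : A ⊆ I) (hJ : J ⊆ A)
    (hcl : ∀ x ∈ A, ∀ y ∈ I, lc (m + M) y = lc (m + M) x → y ∈ A)
    (L : ℕ → Ln) (f : ℕ → ℤ → ℕ) (b : ℕ → (ι → ℕ) × S) (a : ι → ℕ)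
    (hmk : ∀ x ∈ A, T.mem (m + M) (zc (m + M) x.2) (b (f x.1 (zc (m + M) x.2))) (L x.1) ∧
        T.adm (m + M) (zc (m + M) x.2) (b (f x.1 (zc (m + M) x.2))) ∧
        (b (f x.1 (zc (m + M) x.2))).1 = a)
    {D1 : ℝ} (hD1 : 0 < D1)
    (hsz : ∀ x ∈ A, D1 * T.vol (m + M) a ≤
        (((alive A (m + M) (zc (m + M) x.2)).filter fun s =>
          f s (zc (m + M) x.2) = f x.1 (zc (m + M) x.2)).card : ℝ))
    {lu lv hv δ : ℝ} (hlu : 0 < lu) (hlv : 0 < lv) (hhv : 0 < hv) (hδ : 0 < δ)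
    (fu : ∀ x ∈ I, lu ≤ ((I.filter fun y => lc m y = lc m x).card : ℝ))
    (fv : ∀ x ∈ I, lv ≤ ((I.filter fun y => lc (m + M) y = lc (m + M) x).card : ℝ) ∧
      ((I.filter fun y => lc (m + M) y = lc (m + M) x).card : ℝ) ≤ hv)
    (hJc : 3 * δ * (I.card : ℝ) < (J.card : ℝ))
    (hlog : Real.log (I.card : ℝ) ≤ Kl)
    (hKn : Kn ≤ δ * lu / hv) {D0 : ℝ} (hD0 : Kf * D0 < δ * lv / hv * D1) :
    ∃ (c : ℤ) (s : (ι → ℕ) × S), T.adm m c s ∧
      D0 * capP T Ψ (m + M) a m s.1 < (((alive J m c).filter fun t => T.mem m c s (L t)).card : ℝ) := by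
  set h : Fin 3 → (ℕ × ℝ) → Option (ℕ × ℤ) := ![fun y => some (lc m y),
    fun y => some (lc (m + M) y), fun y => if y ∈ A then some (kc (m + M) f y) else none] with hh
  obtain ⟨J1, hJ1, hloss, hfib⟩ := prune_rel (η := fun _ => Option (ℕ × ℤ)) h (hJ.trans hA) hδ.le
  rw [Fintype.card_fin] at hloss
  push_cast at hloss
  have hJ1c : (0 : ℝ) < (J1.card : ℝ) := by linarith
  obtain ⟨x0, hx0⟩ := card_pos.1 (by exact_mod_cast hJ1c : 0 < J1.card)
  have g0 : ∀ x ∈ J1, δ * ((I.filter fun y => lc m y = lc m x).card : ℝ) ≤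
      ((J1.filter fun y => lc m y = lc m x).card : ℝ) := by
    intro x hx
    have := hfib 0 x hx
    simp only [hh, Matrix.cons_val_zero, Option.some.injEq] at this
    exact this
  have g1 : ∀ x ∈ J1, δ * ((I.filter fun y => lc (m + M) y = lc (m + M) x).card : ℝ) ≤
      ((J1.filter fun y => lc (m + M) y = lc (m + M) x).card : ℝ) := by
    intro x hx
    have := hfib 1 x hx
    have h2 : h 1 = fun y => some (lc (m + M) y) := rfl
    simp only [h2, Option.some.injEq] at this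
    exact this
  have g2 : ∀ x ∈ J1, δ * ((A.filter fun y => kc (m + M) f y = kc (m + M) f x).card : ℝ) ≤
      ((J1.filter fun y => kc (m + M) f y = kc (m + M) f x).card : ℝ) := by
    intro x hx
    have hxA := hJ (hJ1 hx)
    have h1 := hfib 2 x hx
    have h2 : h 2 = fun y => if y ∈ A then some (kc (m + M) f y) else none := rfl
    simp only [h2, if_pos hxA] at h1
    have e1 : (I.filter fun y => (if y ∈ A then some (kc (m + M) f y) else none) =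
        some (kc (m + M) f x)) = A.filter fun y => kc (m + M) f y = kc (m + M) f x := by
      ext y
      rw [mem_filter, mem_filter]
      constructor
      · rintro ⟨hy, h3⟩
        by_cases hyA : y ∈ A
        · rw [if_pos hyA] at h3
          exact ⟨hyA, Option.some.inj h3⟩
        · rw [if_neg hyA] at h3
          exact absurd h3 (by simp)
      · rintro ⟨hy, h3⟩
        refine ⟨hA hy, ?_⟩
        rw [if_pos hy, h3]
    have e2 : (J1.filter fun y => (if y ∈ A then some (kc (m + M) f y) else none) =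
        some (kc (m + M) f x)) = J1.filter fun y => kc (m + M) f y = kc (m + M) f x := by
      ext y
      rw [mem_filter, mem_filter]
      constructor
      · rintro ⟨hy, h3⟩
        rw [if_pos (hJ (hJ1 hy))] at h3
        exact ⟨hy, Option.some.inj h3⟩
      · rintro ⟨hy, h3⟩
        refine ⟨hy, ?_⟩
        rw [if_pos (hJ (hJ1 hy)), h3]
    rw [e1, e2] at h1
    exact h1
  -- the cell of `x0`
  set c0 : ℤ := zc m x0.2 with hc0
  set I' : Finset (ℕ × ℝ) := J1.filter fun y => zc m y.2 = c0 with hI'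
  have hI'J1 : I' ⊆ J1 := filter_subset _ _
  have hx0' : x0 ∈ I' := by rw [hI', mem_filter]; exact ⟨hx0, rfl⟩
  have hcell : ∀ x ∈ I', zc m x.2 = c0 := fun x hx => (mem_filter.1 hx).2
  have hin : ∀ x ∈ I', ∀ y ∈ J1, zc m y.2 = zc m x.2 → y ∈ I' := by
    intro x hx y hy hxy
    rw [hI', mem_filter]
    exact ⟨hy, hxy.trans (hcell x hx)⟩
  have f0 : ∀ x ∈ I', (I'.filter fun y => lc m y = lc m x) = J1.filter fun y => lc m y = lc m x := by
    intro x hx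
    ext y
    exact ⟨fun h => mem_filter.2 ⟨hI'J1 (mem_filter.1 h).1, (mem_filter.1 h).2⟩,
      fun h => mem_filter.2 ⟨hin x hx y (mem_filter.1 h).1
        (Prod.mk.inj (mem_filter.1 h).2).2, (mem_filter.1 h).2⟩⟩
  have f1 : ∀ x ∈ I', (I'.filter fun y => lc (m + M) y = lc (m + M) x) =
      J1.filter fun y => lc (m + M) y = lc (m + M) x := by
    intro x hx
    ext y
    exact ⟨fun h => mem_filter.2 ⟨hI'J1 (mem_filter.1 h).1, (mem_filter.1 h).2⟩,
      fun h => mem_filter.2 ⟨hin x hx y (mem_filter.1 h).1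
        (Prod.mk.inj (lc_nested (Nat.le_add_right m M) (mem_filter.1 h).2)).2,
        (mem_filter.1 h).2⟩⟩
  have f2 : ∀ x ∈ I', (I'.filter fun y => kc (m + M) f y = kc (m + M) f x) =
      J1.filter fun y => kc (m + M) f y = kc (m + M) f x := by
    intro x hx
    ext y
    exact ⟨fun h => mem_filter.2 ⟨hI'J1 (mem_filter.1 h).1, (mem_filter.1 h).2⟩,
      fun h => mem_filter.2 ⟨hin x hx y (mem_filter.1 h).1
        (zc_nested (Nat.le_add_right m M) (Prod.mk.inj (mem_filter.1 h).2).2),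
        (mem_filter.1 h).2⟩⟩
  have hI'I : I' ⊆ I := hI'J1.trans (hJ1.trans (hJ.trans hA))
  have hI'A : I' ⊆ A := hI'J1.trans (hJ1.trans hJ)
  -- fibres of `I'`
  have up1 : ∀ x ∈ I', ((I'.filter fun y => lc (m + M) y = lc (m + M) x).card : ℝ) ≤ hv := by
    intro x hx
    refine le_trans ?_ (fv x (hI'I hx)).2
    exact_mod_cast card_le_card (filter_subset_filter _ hI'I)
  have lowA : ∀ x ∈ A, lv ≤ ((A.filter fun y => lc (m + M) y = lc (m + M) x).card : ℝ) := by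
    intro x hx
    refine (fv x (hA hx)).1.trans ?_
    have : (I.filter fun y => lc (m + M) y = lc (m + M) x) ⊆
        A.filter fun y => lc (m + M) y = lc (m + M) x := by
      intro y hy
      rw [mem_filter] at hy ⊢
      exact ⟨hcl x hx y hy.1 hy.2, hy.2⟩
    exact_mod_cast card_le_card this
  -- class sizes of `I'`
  have hclass : ∀ x ∈ I', δ * lv / hv * D1 * T.vol (m + M) a ≤
      (((alive I' (m + M) (zc (m + M) x.2)).filter fun s =>
          f s (zc (m + M) x.2) = f x.1 (zc (m + M) x.2)).card : ℝ) := by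
    intro x hx
    have h1 := hsz x (hI'A hx)
    have h2 := class_fib_ge (f := f) lowA x
    have h3 := class_fib_le (f := f) up1 x
    have h4 := g2 x (hI'J1 hx)
    rw [← f2 x hx] at h4
    have h5 : δ * (lv * (D1 * T.vol (m + M) a)) ≤
        hv * (((alive I' (m + M) (zc (m + M) x.2)).filter fun s =>
          f s (zc (m + M) x.2) = f x.1 (zc (m + M) x.2)).card : ℝ) := by
      refine le_trans ?_ (h4.trans h3)
      refine mul_le_mul_of_nonneg_left ?_ hδ.le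
      exact (mul_le_mul_of_nonneg_left h1 hlv.le).trans h2
    have h6 : δ * lv / hv * D1 * T.vol (m + M) a =
        δ * (lv * (D1 * T.vol (m + M) a)) / hv := by ring
    rw [h6, div_le_iff₀ hhv]
    linarith
  -- own counts of `I'`
  have hown : ∀ x ∈ I', δ * lu / hv ≤ ((own I' m (m + M) x).card : ℝ) := by
    intro x hx
    have h1 := own_lower (i := m) (j := m + M) up1 hx
    have h2 := g0 x (hI'J1 hx)
    rw [← f0 x hx] at h2
    have h3 := fu x (hI'I hx)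
    rw [div_le_iff₀ hhv]
    have h4 := (mul_le_mul_of_nonneg_left h3 hδ.le).trans (h2.trans h1)
    linarith
  by_contra hcon
  push Not at hcon
  set F : Cfg Ln ι S := ⟨m, M, I', L, f, b, a, D0, δ * lv / hv * D1, δ * lu / hv, N⟩ with hF
  have hOk : F.Ok T Ψ := by
    refine
      { M1 := hM1
        ne := ⟨x0, hx0'⟩
        cell := fun x hx y hy => (hcell x hx).trans (hcell y hy).symm
        D1p := ?_
        nup := ?_
        fin := hfin
        top := ?_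
        low := ?_
        own := hown
        up := ?_ }
    · change 0 < δ * lv / hv * D1
      positivity
    · change 0 < δ * lu / hv
      positivity
    · intro J0 t ht
      obtain ⟨y, hy, hy1, hy2⟩ := mem_alive.1 ht
      have h1 := hmk y (hI'A hy)
      rw [hy1, hy2] at h1
      exact h1
    · intro J0 t ht
      obtain ⟨y, hy, hy1, hy2⟩ := mem_alive.1 ht
      have h1 := hclass y hy
      rw [hy1, hy2] at h1
      exact h1
    · intro J0 s hs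
      have h1 := hcon J0 s hs
      refine le_trans ?_ h1
      exact_mod_cast card_le_card (filter_subset_filter _ (alive_mono (hI'J1.trans hJ1) _ _))
  have hcardI' : Real.log (F.I.card : ℝ) ≤ Kl := by
    refine le_trans (Real.log_le_log ?_ ?_) hlog
    · exact_mod_cast card_pos.2 ⟨x0, hx0'⟩
    · exact_mod_cast card_le_card hI'I
  have := hUB F hOk rfl rfl hcardI' hKn
  change δ * lv / hv * D1 ≤ Kf * D0 at this
  linarith

section

variable {B : Base} {I : ℕ → Finset (ℕ × ℝ)} {lev : ℕ → ℚ → ℕ}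

set_option maxHeartbeats 1000000 in
open Classical in
/-- **LOW, sequence form, full own counts.** -/
theorem low_seqF (h : Sq B I lev Zf) (𝒯 : Set (TS Ln ι S)) (Ψ : ℝ → (ι → ℝ) → ℝ) {bb : ℝ}
    (hUB : UBF 𝒯 Ψ bb) {T : ℕ → TS Ln ι S} (hT : ∀ n, T n ∈ 𝒯) {L : ℕ → ℕ → Ln} {N : ℕ → ℕ}
    (hfin : ∀ (n i : ℕ) (J : ℤ) (s : (ι → ℕ) × S), (T n).adm i J s → ∀ j, s.1 j ≤ N n)
    (hNd : ∀ ε : ℝ, 0 < ε → ∀ᶠ n in (U : Filter ℕ), (N n : ℝ) ≤ B.d n ^ (-ε))
    {u v : ℚ} (hu : 0 ≤ u) (huv : u < v) (hv : v ≤ 1)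
    {A : ℕ → Finset (ℕ × ℝ)} (hA : ∀ n, A n ⊆ I n)
    (hcl : ∀ᶠ n in (U : Filter ℕ), ∀ x ∈ A n, ∀ y ∈ I n, lc (lev n v) y = lc (lev n v) x → y ∈ A n)
    {f : ℕ → ℕ → ℤ → ℕ} {b : ℕ → ℕ → (ι → ℕ) × S} {a : ℕ → ι → ℕ}
    (hmk : ∀ᶠ n in (U : Filter ℕ), ∀ x ∈ A n,
      (T n).mem (lev n v) (zc (lev n v) x.2) (b n (f n x.1 (zc (lev n v) x.2))) (L n x.1) ∧
        (T n).adm (lev n v) (zc (lev n v) x.2) (b n (f n x.1 (zc (lev n v) x.2))) ∧
        (b n (f n x.1 (zc (lev n v) x.2))).1 = a n)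
    {D1 : ℕ → ℝ} (hD1 : ∀ n, 0 < D1 n)
    (hsz : ∀ᶠ n in (U : Filter ℕ), ∀ x ∈ A n, D1 n * (T n).vol (lev n v) (a n) ≤
        (((alive (A n) (lev n v) (zc (lev n v) x.2)).filter fun s =>
          f n s (zc (lev n v) x.2) = f n x.1 (zc (lev n v) x.2)).card : ℝ))
    {D0 : ℕ → ℝ} {η : ℝ} (hη : 0 < η)
    (hD : ∀ᶠ n in (U : Filter ℕ),
      D0 n ≤ B.d n ^ (η + bb * ((v : ℝ) - u)) * D1 n) :
    ∃ e : ℝ, 0 < e ∧ ∀ᶠ n in (U : Filter ℕ), ∀ J ⊆ A n,
      B.d n ^ e * ((I n).card : ℝ) ≤ (J.card : ℝ) →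
      ∃ (c : ℤ) (s : (ι → ℕ) × S), (T n).adm (lev n u) c s ∧
        D0 n * capP (T n) Ψ (lev n v) (a n) (lev n u) s.1 <
          (((alive J (lev n u) c).filter fun t => (T n).mem (lev n u) c s (L n t)).card : ℝ) := by
  have huvR : (u : ℝ) < v := by exact_mod_cast huv
  have hw0 : (0 : ℝ) < (v : ℝ) - u := by linarith
  have hw1 : (v : ℝ) - u ≤ 1 := by
    have h1 : (v : ℝ) ≤ 1 := by exact_mod_cast hv
    have h2 : (0 : ℝ) ≤ u := by exact_mod_cast hu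
    linarith
  set w : ℝ := (v : ℝ) - u with hw
  obtain ⟨δ0, hδ0, M0, hM0⟩ := hUB (η / 10) (by positivity)
  have hδw : 0 < δ0 * w := mul_pos hδ0 hw0
  -- the density exponent
  set e : ℝ := min (η / 100) (δ0 * w / 100) with he
  have he0 : 0 < e := lt_min (by positivity) (by positivity)
  have heη : e ≤ η / 100 := min_le_left _ _
  have heδ : e ≤ δ0 * w / 100 := min_le_right _ _
  refine ⟨e, he0, ?_⟩
  have hlim := h.lev_lim u v hu huv.le hv
  -- the exponent of `Kf`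
  have hlim2 : Tendsto (fun n => ((bb + η / 10) * ((lev n v : ℝ) - lev n u)) * Real.log 2 /
      B.L n) U (𝓝 ((bb + η / 10) * w)) := by
    refine (hlim.const_mul (bb + η / 10)).congr fun n => ?_
    ring
  have hK : ∀ᶠ n in (U : Filter ℕ), ((bb + η / 10) * ((lev n v : ℝ) - lev n u)) * Real.log 2 /
      B.L n < (bb + η / 10) * w + η / 10 := hlim2.eventually_lt_const (by linarith [hη])
  have hlim3 : Tendsto (fun n => (δ0 * ((lev n v : ℝ) - lev n u)) * Real.log 2 /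
      B.L n) U (𝓝 (δ0 * w)) := by
    refine (hlim.const_mul δ0).congr fun n => ?_
    ring
  have hK2 : ∀ᶠ n in (U : Filter ℕ), δ0 * w / 2 < (δ0 * ((lev n v : ℝ) - lev n u)) * Real.log 2 /
      B.L n := hlim3.eventually_const_lt (by linarith)
  have hlim4 : Tendsto (fun n => ((1 - δ0) * ((lev n v : ℝ) - lev n u)) * Real.log 2 /
      B.L n) U (𝓝 ((1 - δ0) * w)) := by
    refine (hlim.const_mul (1 - δ0)).congr fun n => ?_
    ring
  have hK3 : ∀ᶠ n in (U : Filter ℕ), ((1 - δ0) * ((lev n v : ℝ) - lev n u)) * Real.log 2 /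
      B.L n < w - 4 * e := hlim4.eventually_lt_const (by nlinarith)
  have hcard := h.card (δ0 * w / 2) (by positivity)
  have hNev := hNd (δ0 * w / 2) (by positivity)
  have hfu := h.fib u hu (huv.le.trans hv) e he0
  have hfv := h.fib v (hu.trans huv.le) hv e he0
  have hsm : ∀ᶠ n in (U : Filter ℕ), B.d n ^ e < 1 / 4 :=
    dpow_small B (c := e) he0 (by norm_num)
  filter_upwards [hcl, hmk, hsz, hD, hK, hK2, hK3, hcard, hfu, hfv, hsm,
    h.lev_ge hu huv hv M0, h.lev_ge hu huv hv 1, h.ne, hNev] with n hcl hmk hsz hD hK hK2 hK3 hcard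
    hfu hfv hsm hM0' hM1 hne hNev J hJ hJc
  obtain ⟨M, hM⟩ : ∃ M, lev n v = lev n u + M := ⟨lev n v - lev n u, by omega⟩
  have hMR : (lev n v : ℝ) - lev n u = M := by rw [hM]; push_cast; ring
  have hM0'' : M0 ≤ M := by omega
  have hM1' : 1 ≤ M := by omega
  rw [hMR] at hK hK2 hK3
  rw [hM] at hcl hmk hsz hfv ⊢
  have hIc : (0 : ℝ) < ((I n).card : ℝ) := by exact_mod_cast card_pos.2 hne
  have z1 : ∀ x : ℝ, Zf 1 - Zf x = 0 := fun x => by simp [Zf]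
  simp only [z1, add_zero] at hfu hfv
  refine cfg_lowF (T n) Ψ (N := N n) (Kf := (2 : ℝ) ^ ((bb + η / 10) * M))
    (Kl := (2 : ℝ) ^ (δ0 * M)) (Kn := (2 : ℝ) ^ ((1 - δ0) * M)) (hfin n) ?_ hM1' (hA n) hJ hcl
    (L n) (f n) (b n) (a n) hmk (hD1 n) hsz
    (lu := B.d n ^ (-(1 - (u : ℝ)) + e))
    (lv := B.d n ^ (-(1 - (v : ℝ)) + e))
    (hv := B.d n ^ (-(1 - (v : ℝ)) - e))
    (δ := B.d n ^ (2 * e)) (dpow_pos B n _) (dpow_pos B n _) (dpow_pos B n _) (dpow_pos B n _)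
    (fun x hx => (hfu x hx).1) hfv ?_ ?_ ?_ ?_
  · intro F hF hFM hFN hFc hFn
    have := hM0 (T n) (hT n) F hF (by rw [hFM]; exact hM0'') (by rw [hFM]; exact hFc)
      (by rw [hFM, hFN]; exact hNev.trans (le_two_rpow hK2.le)) (by rw [hFM]; exact hFn)
    rw [hFM] at this
    exact this
  · -- density
    have e1 : B.d n ^ (2 * e) = B.d n ^ e * B.d n ^ e := by
      rw [← dpow_add]; congr 1; ring
    have hp := dpow_pos B n e
    refine lt_of_lt_of_le ?_ hJc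
    rw [e1]
    have : 3 * (B.d n ^ e * B.d n ^ e) < B.d n ^ e := by nlinarith
    exact mul_lt_mul_of_pos_right this hIc
  · -- logarithmic size
    refine hcard.trans ?_
    exact le_two_rpow hK2.le
  · -- own counts
    have e2 : B.d n ^ (2 * e) * B.d n ^ (-(1 - (u : ℝ)) + e) / B.d n ^ (-(1 - (v : ℝ)) - e) =
        B.d n ^ (-(w - 4 * e)) := by
      rw [← dpow_add, ← Real.rpow_sub (B.pos n)]
      congr 1
      rw [hw]; ring
    rw [e2]
    exact two_rpow_le hK3.le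
  · -- the numerical inequality
    have hKf : (2 : ℝ) ^ ((bb + η / 10) * M) ≤ B.d n ^ (-((bb + η / 10) * w + η / 10)) :=
      two_rpow_le hK.le
    have hD1n := hD1 n
    have h1 : (2 : ℝ) ^ ((bb + η / 10) * M) * D0 n ≤
        (2 : ℝ) ^ ((bb + η / 10) * M) * (B.d n ^ (η + bb * w) * D1 n) :=
      mul_le_mul_of_nonneg_left hD (Real.rpow_pos_of_pos two_pos _).le
    have h2 : (2 : ℝ) ^ ((bb + η / 10) * M) * (B.d n ^ (η + bb * w) * D1 n) ≤
        B.d n ^ (-((bb + η / 10) * w + η / 10)) * (B.d n ^ (η + bb * w) * D1 n) :=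
      mul_le_mul_of_nonneg_right hKf (mul_pos (dpow_pos B n _) hD1n).le
    refine lt_of_le_of_lt (h1.trans h2) ?_
    have e2 : B.d n ^ (-((bb + η / 10) * w + η / 10)) * (B.d n ^ (η + bb * w) * D1 n) =
        B.d n ^ (η - η / 10 - η / 10 * w) * D1 n := by
      rw [← mul_assoc, ← dpow_add]
      congr 2; ring
    have e3 : B.d n ^ (2 * e) * B.d n ^ (-(1 - (v : ℝ)) + e) / B.d n ^ (-(1 - (v : ℝ)) - e) *
        D1 n = B.d n ^ (4 * e) * D1 n := by
      rw [← dpow_add, ← Real.rpow_sub (B.pos n)]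
      congr 2
      ring
    rw [e2, e3]
    refine mul_lt_mul_of_pos_right ?_ hD1n
    refine Real.rpow_lt_rpow_of_exponent_gt (B.pos n) (B.lt n) ?_
    nlinarith

end

end Crest.Agent.R136.Yc953
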