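import Mathlib
import Crest.Agent.R136.Pen2_325
import Crest.Agent.R136.Yc1_953

/-!
# R136 (U4): the general reward with penalty, `RwdF` instances (helper325)

`psiG s a b l x = s l + ∑ (a_j x_j - b_j (nr l x_j - l))`, `nr l x = √(l² + x²)`;
`RG s0 s p n a b q l x = psiG s0 p n l x + q * psiG s a b l x`
`= (s0 + q s) l + ∑ ((p_j + q a_j) x_j - (n_j + q b_j) (nr l x_j - l))`.

* `rwdG` : `RwdF (RG ..) (psiG s a b) q0 Qm` for `0 ≤ n_j`, `|a_j| < b_j`, `psiG s a b ≤ l`;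
* `psiG_le` : the last condition from `s + ∑ |a_j| ≤ 1`; `psiG_le'` : the sharp form;
* `linAtG`, `dlG_*`, `dwG_*` : linearisation and its bounds;
* `psiG_theta` : `κ ≤ psiG s a b 1 θ` bounds `θ`;
* `rwdPF` : the special case `PenP`.
-/

set_option autoImplicit false

open Finset

namespace Crest.Agent.R136.Pen325

open Crest.Agent.R116.Psi635
open Crest.Agent.R116.Xu79 (brk)
open Crest.Agent.R116.Zl139 (LinAt)
open Crest.Agent.R116.Rv883 (dlen dwid linAt_Psi dlen_nonneg dlen_le dwid_ge dwid_le brl brx)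
open Crest.Agent.R136.Yc953 (RwdF)

section

variable {ι : Type} [Fintype ι]

/-- the general concave homogeneous reward with separable penalty -/
noncomputable def psiG (s : ℝ) (a b : ι → ℝ) (l : ℝ) (x : ι → ℝ) : ℝ :=
  s * l + ∑ j, (a j * x j - b j * (nr l (x j) - l))

/-- the family of rewards with one parameter -/
noncomputable def RG (s0 s : ℝ) (p n a b : ι → ℝ) (q l : ℝ) (x : ι → ℝ) : ℝ :=
  psiG s0 p n l x + q * psiG s a b l x

theorem RG_eq (s0 s : ℝ) (p n a b : ι → ℝ) (q l : ℝ) (x : ι → ℝ) :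
    RG s0 s p n a b q l x =
      psiG (s0 + q * s) (fun j => p j + q * a j) (fun j => n j + q * b j) l x := by
  unfold RG psiG
  have e : ∑ j, ((p j + q * a j) * x j - (n j + q * b j) * (nr l (x j) - l)) =
      (∑ j, (p j * x j - n j * (nr l (x j) - l))) +
        q * ∑ j, (a j * x j - b j * (nr l (x j) - l)) := by
    rw [Finset.mul_sum, ← Finset.sum_add_distrib]
    exact Finset.sum_congr rfl fun j _ => by ring
  rw [e]; ring

theorem psiG_Psi (s : ℝ) (a b : ι → ℝ) (l : ℝ) (x : ι → ℝ) :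
    psiG s a b l x = s * l + Psi a b 1 1 l x := by
  unfold psiG Psi psi
  have e : ∑ j, (a j * x j - b j * (nr l (x j) - l)) =
      (∑ j, a j * x j) + ∑ j, b j * brk 1 l (x j) := by
    rw [← Finset.sum_add_distrib]
    refine Finset.sum_congr rfl fun j _ => ?_
    rw [brk_eq]; ring
  rw [e]; ring

theorem psiG_psiP (w : ι → ℝ) (l : ℝ) (x : ι → ℝ) : psiG 1 (fun _ => 0) w l x = psiP w l x := by
  unfold psiG psiP pen
  have e : ∑ j, ((0 : ℝ) * x j - w j * (nr l (x j) - l)) = -∑ j, w j * (nr l (x j) - l) := by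
    rw [← Finset.sum_neg_distrib]
    exact Finset.sum_congr rfl fun j _ => by ring
  rw [e]; ring

theorem RG_PenP (p w : ι → ℝ) (q l : ℝ) (x : ι → ℝ) :
    RG 0 1 p (fun _ => 0) (fun _ => 0) w q l x = PenP p w q l x := by
  unfold RG PenP
  rw [psiG_psiP]
  unfold psiG
  simp

/-! ### elementary facts -/

theorem N_nonneg {l x : ℝ} : 0 ≤ nr l x - l := by
  have h1 := le_nr_l l x
  have h2 := le_abs_self l
  linarith

theorem psiG_term {l x a b : ℝ} :
    a * x - b * (nr l x - l) ≤ |a| * l - (b - |a|) * (nr l x - l) := by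
  have h1 : a * x ≤ |a| * nr l x := by
    calc a * x ≤ |a * x| := le_abs_self _
      _ = |a| * |x| := abs_mul _ _
      _ ≤ |a| * nr l x := mul_le_mul_of_nonneg_left (le_nr_x l x) (abs_nonneg a)
  nlinarith

theorem psiG_bound (s : ℝ) (a b : ι → ℝ) (l : ℝ) (x : ι → ℝ) :
    psiG s a b l x ≤ (s + ∑ j, |a j|) * l - ∑ j, (b j - |a j|) * (nr l (x j) - l) := by
  unfold psiG
  have h : ∑ j, (a j * x j - b j * (nr l (x j) - l)) ≤
      ∑ j, (|a j| * l - (b j - |a j|) * (nr l (x j) - l)) :=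
    Finset.sum_le_sum fun j _ => psiG_term
  have e : ∑ j, (|a j| * l - (b j - |a j|) * (nr l (x j) - l)) =
      (∑ j, |a j|) * l - ∑ j, (b j - |a j|) * (nr l (x j) - l) := by
    rw [Finset.sum_sub_distrib, ← Finset.sum_mul]
  rw [e] at h
  linarith

/-- `le` -/
theorem psiG_le {s : ℝ} {a b : ι → ℝ} (hab : ∀ j, |a j| ≤ b j) (hs : s + ∑ j, |a j| ≤ 1)
    {l : ℝ} (hl : 0 ≤ l) (x : ι → ℝ) : psiG s a b l x ≤ l := by
  have h1 := psiG_bound s a b l x
  have h2 : 0 ≤ ∑ j, (b j - |a j|) * (nr l (x j) - l) :=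
    Finset.sum_nonneg fun j _ => mul_nonneg (by have := hab j; linarith) N_nonneg
  nlinarith

/-- one bracket, sharp: `a x - b (nr - l) ≤ (b - √(b² - a²)) l` -/
theorem brk_sharp {a b l x : ℝ} (hab : |a| ≤ b) (hl : 0 ≤ l) :
    a * x - b * (nr l x - l) ≤ (b - √(b ^ 2 - a ^ 2)) * l := by
  have hb : 0 ≤ b := (abs_nonneg a).trans hab
  have h0 : 0 ≤ b ^ 2 - a ^ 2 := by
    have := sq_le_sq' (by linarith [abs_nonneg a]) hab
    rw [sq_abs] at this; linarith
  set c := √(b ^ 2 - a ^ 2) with hc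
  have hc2 : c ^ 2 = b ^ 2 - a ^ 2 := Real.sq_sqrt h0
  have hc0 : 0 ≤ c := Real.sqrt_nonneg _
  -- `a x + c l ≤ √(a² + c²) √(x² + l²) = b nr`
  have h1 : a * x + c * l ≤ b * nr l x := by
    have h2 : (a * x + c * l) ^ 2 ≤ (b * nr l x) ^ 2 := by
      have e1 : (b * nr l x) ^ 2 = (a ^ 2 + c ^ 2) * (l ^ 2 + x ^ 2) := by
        rw [mul_pow, nr_sq]
        have : b ^ 2 = a ^ 2 + c ^ 2 := by linarith
        rw [this]
      rw [e1]
      nlinarith [sq_nonneg (a * l - c * x)]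
    exact le_of_sq_le_sq_of_nonneg h2 (mul_nonneg hb (nr_nonneg l x))
  linarith
where
  le_of_sq_le_sq_of_nonneg {u v : ℝ} (h : u ^ 2 ≤ v ^ 2) (hv : 0 ≤ v) : u ≤ v := by
    have := abs_le_of_sq_le_sq' h hv
    exact this.2

/-- `le`, sharp form -/
theorem psiG_le' {s : ℝ} {a b : ι → ℝ} (hab : ∀ j, |a j| ≤ b j)
    (hs : s + ∑ j, (b j - √(b j ^ 2 - a j ^ 2)) ≤ 1) {l : ℝ} (hl : 0 ≤ l) (x : ι → ℝ) :
    psiG s a b l x ≤ l := by
  unfold psiG
  have h : ∑ j, (a j * x j - b j * (nr l (x j) - l)) ≤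
      ∑ j, (b j - √(b j ^ 2 - a j ^ 2)) * l := Finset.sum_le_sum fun j _ => brk_sharp (hab j) hl
  rw [← Finset.sum_mul] at h
  nlinarith

theorem psiG_hom (s : ℝ) (a b : ι → ℝ) {c : ℝ} (hc : 0 ≤ c) (l : ℝ) (x : ι → ℝ) :
    psiG s a b (c * l) (fun j => c * x j) = c * psiG s a b l x := by
  unfold psiG
  rw [mul_add, Finset.mul_sum]
  congr 1
  · ring
  · refine Finset.sum_congr rfl fun j _ => ?_
    rw [nr_hom hc]; ring

theorem psiG_zero (s : ℝ) (a b : ι → ℝ) : psiG s a b 0 (fun _ => 0) = 0 := by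
  have h := psiG_hom s a b le_rfl 0 (fun _ => (0 : ℝ))
  simpa using h

theorem psiG_sup (s : ℝ) (a : ι → ℝ) {b : ι → ℝ} (hb : ∀ j, 0 ≤ b j) (l l' : ℝ) (x x' : ι → ℝ) :
    psiG s a b l x + psiG s a b l' x' ≤ psiG s a b (l + l') (fun j => x j + x' j) := by
  unfold psiG
  have h : (∑ j, (a j * x j - b j * (nr l (x j) - l))) +
      ∑ j, (a j * x' j - b j * (nr l' (x' j) - l')) ≤
      ∑ j, (a j * (x j + x' j) - b j * (nr (l + l') (x j + x' j) - (l + l'))) := by
    rw [← Finset.sum_add_distrib]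
    refine Finset.sum_le_sum fun j _ => ?_
    have h1 := nr_add l (x j) l' (x' j)
    nlinarith [hb j, mul_le_mul_of_nonneg_left h1 (hb j)]
  linarith

theorem nr_cont : Continuous (fun z : ℝ × ℝ => nr z.1 z.2) := by
  unfold nr; fun_prop

theorem psiG_cont (s : ℝ) (a b : ι → ℝ) :
    Continuous (fun z : ℝ × (ι → ℝ) => psiG s a b z.1 z.2) := by
  unfold psiG
  refine (continuous_const.mul continuous_fst).add (continuous_finsetSum _ fun j _ => ?_)
  have h1 : Continuous (fun z : ℝ × (ι → ℝ) => nr z.1 (z.2 j)) :=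
    nr_cont.comp (continuous_fst.prodMk ((continuous_apply j).comp continuous_snd))
  exact (continuous_const.mul ((continuous_apply j).comp continuous_snd)).sub
    (continuous_const.mul (h1.sub continuous_fst))

/-- `ψ ≥ c l` bounds every exponent -/
theorem psiG_abs {s : ℝ} {a b : ι → ℝ} (hab : ∀ j, |a j| < b j) {c l : ℝ} {x : ι → ℝ}
    (h : c ≤ psiG s a b l x) (j : ι) :
    |x j| ≤ l + ((s + ∑ i, |a i|) * l - c) / (b j - |a j|) := by
  have hj : 0 < b j - |a j| := by have := hab j; linarith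
  have h1 := psiG_bound s a b l x
  have h2 : (b j - |a j|) * (nr l (x j) - l) ≤ ∑ i, (b i - |a i|) * (nr l (x i) - l) :=
    Finset.single_le_sum (f := fun i => (b i - |a i|) * (nr l (x i) - l))
      (fun i _ => mul_nonneg (by have := hab i; linarith) N_nonneg) (Finset.mem_univ j)
  have h3 : nr l (x j) - l ≤ ((s + ∑ i, |a i|) * l - c) / (b j - |a j|) := by
    rw [le_div_iff₀ hj]; linarith
  have h4 := le_nr_x l (x j)
  linarith

/-- **the bound of `θ` from the drop rate** -/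
theorem psiG_theta {s : ℝ} {a b : ι → ℝ} (hab : ∀ j, |a j| < b j) {κ : ℝ} {θ : ι → ℝ}
    (h : κ ≤ psiG s a b 1 θ) (j : ι) :
    |θ j| ≤ 1 + (s + (∑ i, |a i|) - κ) / (b j - |a j|) := by
  have := psiG_abs hab h j
  rwa [mul_one] at this

theorem psiG_coe {s : ℝ} {a b : ι → ℝ} (hab : ∀ j, |a j| < b j) {c : ℝ} (hc : 0 < c) :
    ∃ R : ℝ, 0 < R ∧ ∀ l (x : ι → ℝ), 0 ≤ l → c * l ≤ psiG s a b l x → ∀ j, |x j| ≤ R * l := by
  refine ⟨1 + ∑ j, abs (s + ∑ i, |a i|) / (b j - |a j|), ?_, ?_⟩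
  · have : 0 ≤ ∑ j, abs (s + ∑ i, |a i|) / (b j - |a j|) := Finset.sum_nonneg fun j _ => by
      have := hab j
      exact div_nonneg (abs_nonneg _) (by linarith)
    linarith
  · intro l x hl hx j
    have h1 := psiG_abs hab hx j
    have hj : 0 < b j - |a j| := by have := hab j; linarith
    have h2 : ((s + ∑ i, |a i|) * l - c * l) / (b j - |a j|) ≤
        abs (s + ∑ i, |a i|) / (b j - |a j|) * l := by
      rw [div_mul_eq_mul_div]
      refine div_le_div_of_nonneg_right ?_ hj.le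
      have h3 : (s + ∑ i, |a i|) * l ≤ abs (s + ∑ i, |a i|) * l :=
        mul_le_mul_of_nonneg_right (le_abs_self _) hl
      have : 0 ≤ c * l := by positivity
      linarith
    have h3 : abs (s + ∑ i, |a i|) / (b j - |a j|) ≤ ∑ j, abs (s + ∑ i, |a i|) / (b j - |a j|) :=
      Finset.single_le_sum (f := fun j => abs (s + ∑ i, |a i|) / (b j - |a j|))
        (fun i _ => div_nonneg (abs_nonneg _) (by have := hab i; linarith)) (Finset.mem_univ j)
    have h4 := mul_le_mul_of_nonneg_right h3 hl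
    linarith

/-- **equality modulus** of the general family -/
theorem RG_eqc {s0 s : ℝ} {p n a b : ι → ℝ} (hn : ∀ j, 0 ≤ n j) (hb : ∀ j, 0 < b j) {q0 : ℝ}
    (hq0 : 0 < q0) {l0 R ε : ℝ} (hl0 : 0 < l0) (hε : 0 < ε) :
    ∃ δ : ℝ, 0 < δ ∧ ∀ q l l' (x x' : ι → ℝ), q0 ≤ q →
      l0 ≤ l → l ≤ 2 → l0 ≤ l' → l' ≤ 2 → (∀ j, |x j| ≤ R) →
      RG s0 s p n a b q (l + l') (fun j => x j + x' j) ≤
        RG s0 s p n a b q l x + RG s0 s p n a b q l' x' + δ →
        ∀ j, |(x j + x' j) - (l + l') / l * x j| ≤ ε := by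
  obtain ⟨δ, hδ, h⟩ := modulus (l0 := l0) (R := R) (ε := ε) hl0 hε
  obtain ⟨c, hc, hcw⟩ : ∃ c : ℝ, 0 < c ∧ ∀ j, c ≤ b j := by
    by_cases hne : Nonempty ι
    · obtain ⟨j0, hj0⟩ := Finite.exists_min b
      exact ⟨b j0, hb j0, hj0⟩
    · exact ⟨1, one_pos, fun j => absurd ⟨j⟩ hne⟩
  refine ⟨q0 * (c * δ), by positivity, ?_⟩
  intro q l l' x x' hq hl hl2 hl' hl2' hx hdef j
  refine h l l' (x j) (x' j) hl hl2 hl' hl2' (hx j) ?_
  have hqp : 0 < q := hq0.trans_le hq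
  set E : ι → ℝ := fun j => nr l (x j) + nr l' (x' j) - nr (l + l') (x j + x' j) with hE
  have hE0 : ∀ j, 0 ≤ E j := fun j => by
    have := nr_add l (x j) l' (x' j)
    simp only [hE]; linarith
  have h1 : ∑ j, (n j + q * b j) * E j ≤ q0 * (c * δ) := by
    rw [RG_eq, RG_eq, RG_eq] at hdef
    unfold psiG at hdef
    have e : ∑ j, (n j + q * b j) * E j =
        (∑ j, ((p j + q * a j) * (x j + x' j) -
          (n j + q * b j) * (nr (l + l') (x j + x' j) - (l + l')))) -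
        (∑ j, ((p j + q * a j) * x j - (n j + q * b j) * (nr l (x j) - l))) -
        ∑ j, ((p j + q * a j) * x' j - (n j + q * b j) * (nr l' (x' j) - l')) := by
      rw [← Finset.sum_sub_distrib, ← Finset.sum_sub_distrib]
      refine Finset.sum_congr rfl fun j _ => ?_
      simp only [hE]; ring
    rw [e]
    linarith
  have h3 : (n j + q * b j) * E j ≤ ∑ j, (n j + q * b j) * E j :=
    Finset.single_le_sum (f := fun j => (n j + q * b j) * E j)
      (fun i _ => mul_nonneg (add_nonneg (hn i) (mul_pos hqp (hb i)).le) (hE0 i))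
      (Finset.mem_univ j)
  have h6 : q0 * c ≤ n j + q * b j := by
    have h7 : q0 * c ≤ q * b j := mul_le_mul hq (hcw j) hc.le hqp.le
    have := hn j
    linarith
  have h8 : q0 * c * E j ≤ (n j + q * b j) * E j := mul_le_mul_of_nonneg_right h6 (hE0 j)
  have h10 : E j ≤ δ := by
    have hpos : 0 < q0 * c := mul_pos hq0 hc
    have h11 : (q0 * c) * E j ≤ (q0 * c) * δ := by linarith
    exact le_of_mul_le_mul_left h11 hpos
  simp only [hE] at h10
  linarith

/-- **`RwdF` for the general family.** -/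
theorem rwdG {s0 s : ℝ} {p n a b : ι → ℝ} {q0 : ℝ} (hn : ∀ j, 0 ≤ n j)
    (hab : ∀ j, |a j| < b j) (hle : ∀ l (x : ι → ℝ), 0 ≤ l → psiG s a b l x ≤ l) (hq0 : 0 < q0)
    (Qm : ℝ) :
    RwdF (RG s0 s p n a b) (psiG s a b) q0 Qm where
  q0pos := hq0
  aff := by
    intro q l x
    unfold RG
    ring
  le := hle
  hom := by
    intro q c l x _ hc _
    rw [RG_eq, RG_eq, psiG_hom _ _ _ hc]
  homψ := fun c l x hc _ => psiG_hom _ _ _ hc l x
  zero := fun q => by rw [RG_eq, psiG_zero]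
  contψ := psiG_cont _ _ _
  sup := by
    intro q l l' x x' hq _ _
    rw [RG_eq, RG_eq, RG_eq]
    refine psiG_sup _ _ (fun j => ?_) l l' x x'
    have h1 := hn j
    have h2 : 0 ≤ b j := (abs_nonneg _).trans (hab j).le
    positivity
  coe := fun c hc => psiG_coe hab hc
  eqc := by
    intro l0 R ε hl0 hε
    obtain ⟨δ, hδ, h⟩ := RG_eqc (s0 := s0) (s := s) (p := p) (a := a) hn
      (fun j => (abs_nonneg _).trans_lt (hab j)) hq0 (R := R) hl0 hε
    exact ⟨δ, hδ, fun q l l' x x' hq _ => h q l l' x x' hq⟩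

/-- `RwdF` for the pure penalty -/
theorem rwdPF {p w : ι → ℝ} {q0 : ℝ} (hw : ∀ j, 0 < w j) (hq0 : 0 < q0) (Qm : ℝ) :
    RwdF (PenP p w) (psiP w) q0 Qm := by
  have h := rwdG (s0 := 0) (s := 1) (p := p) (n := fun _ => 0) (a := fun _ => 0) (b := w)
    (fun _ => le_rfl) (fun j => by simpa using hw j)
    (fun l x hl => psiG_le (fun j => by simpa using (hw j).le) (by simp) hl x) hq0 Qm
  have e1 : RG 0 1 p (fun _ => 0) (fun _ => 0) w = PenP p w := by
    funext q l x; exact RG_PenP p w q l x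
  have e2 : psiG 1 (fun _ => 0) w = psiP w := by
    funext l x; exact psiG_psiP w l x
  rw [e1, e2] at h
  exact h

/-! ### linearisation -/

/-- growth of the linearisation of `psiG s a b` at `(1, θ)` -/
noncomputable def dlG (s : ℝ) (b : ι → ℝ) (θ : ι → ℝ) : ℝ :=
  s + ∑ j, b j * (1 - (√(1 + θ j ^ 2))⁻¹)

/-- slopes of the linearisation of `psiG s a b` at `(1, θ)` -/
noncomputable def dwG (a b : ι → ℝ) (θ : ι → ℝ) (j : ι) : ℝ :=
  a j - b j * (θ j * (√(1 + θ j ^ 2))⁻¹)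

theorem dlG_eq (s : ℝ) (b θ : ι → ℝ) : dlG s b θ = s + dlen b 1 1 θ := by
  unfold dlG dlen brl
  rw [one_mul]
  congr 1
  refine Finset.sum_congr rfl fun j _ => ?_
  ring

omit [Fintype ι] in
theorem dwG_eq (a b θ : ι → ℝ) (j : ι) : dwG a b θ j = dwid a b 1 1 θ j := by
  unfold dwG dwid brx
  ring

theorem dlG_ge {s : ℝ} {b : ι → ℝ} (hb : ∀ j, 0 ≤ b j) (θ : ι → ℝ) : s ≤ dlG s b θ := by
  have := dlen_nonneg (w := b) (μ := 1) (q := 1) hb zero_le_one zero_le_one θ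
  rw [dlG_eq]; linarith

theorem dlG_le {s : ℝ} {b : ι → ℝ} (hb : ∀ j, 0 ≤ b j) (θ : ι → ℝ) :
    dlG s b θ ≤ s + ∑ j, b j := by
  have := dlen_le (w := b) (μ := 1) (q := 1) hb zero_le_one zero_le_one θ
  rw [dlG_eq]
  linarith

omit [Fintype ι] in
theorem dwG_ge {a b : ι → ℝ} {j : ι} (hb : 0 ≤ b j) (θ : ι → ℝ) : a j - b j ≤ dwG a b θ j := by
  have := dwid_ge (p := a) (w := b) (μ := 1) (q := 1) (j := j) hb zero_le_one zero_le_one θ
  rw [dwG_eq]; linarith

omit [Fintype ι] in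
theorem dwG_le {a b : ι → ℝ} {j : ι} (hb : 0 ≤ b j) (θ : ι → ℝ) : dwG a b θ j ≤ a j + b j := by
  have := dwid_le (p := a) (w := b) (μ := 1) (q := 1) (j := j) hb zero_le_one zero_le_one θ
  rw [dwG_eq]; linarith

/-- Euler: the linearisation is exact on the ray -/
theorem psiG_euler (s : ℝ) (a b θ : ι → ℝ) :
    psiG s a b 1 θ = dlG s b θ + ∑ j, dwG a b θ j * θ j := by
  unfold psiG dlG dwG
  rw [add_assoc, ← Finset.sum_add_distrib, mul_one]
  congr 1
  refine Finset.sum_congr rfl fun j _ => ?_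
  unfold nr
  rw [show (1 : ℝ) ^ 2 + θ j ^ 2 = 1 + θ j ^ 2 by ring]
  have h0 : 0 < 1 + θ j ^ 2 := by positivity
  have h1 : 0 < √(1 + θ j ^ 2) := Real.sqrt_pos.2 h0
  have h2 : √(1 + θ j ^ 2) ^ 2 = 1 + θ j ^ 2 := Real.sq_sqrt h0.le
  have h3 : √(1 + θ j ^ 2) = (1 + θ j ^ 2) * (√(1 + θ j ^ 2))⁻¹ := by
    field_simp
    exact h2
  linear_combination (-(b j)) * h3

/-- **linearisation near the ray `(1, θ)`.** -/
theorem linAtG (s : ℝ) (a b : ι → ℝ) (θ : ι → ℝ) :
    LinAt (psiG s a b) θ (dlG s b θ) (dwG a b θ) := by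
  intro ε hε
  obtain ⟨δ, hδ, h⟩ := linAt_Psi (p := a) (w := b) (μ := 1) (q := 1) zero_le_one θ ε hε
  refine ⟨δ, hδ, fun l l' x x' hl hl' hx hx' => ?_⟩
  have h1 := h l l' x x' hl hl' hx hx'
  rw [psiG_Psi, psiG_Psi, dlG_eq]
  have e2 : ∑ j, dwG a b θ j * (x j - x' j) = ∑ j, dwid a b 1 1 θ j * (x j - x' j) :=
    Finset.sum_congr rfl fun j _ => by rw [dwG_eq]
  rw [e2]
  have e : s * l + Psi a b 1 1 l x - (s * l' + Psi a b 1 1 l' x') -
      (s + dlen b 1 1 θ) * (l - l') - ∑ j, dwid a b 1 1 θ j * (x j - x' j) =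
      Psi a b 1 1 l x - Psi a b 1 1 l' x' - dlen b 1 1 θ * (l - l') -
      ∑ j, dwid a b 1 1 θ j * (x j - x' j) := by ring
  rw [e]
  exact h1

/-- the same for `RG` at the parameter `q` -/
theorem linAtRG (s0 s : ℝ) (p n a b : ι → ℝ) (q : ℝ) (θ : ι → ℝ) :
    LinAt (RG s0 s p n a b q) θ (dlG (s0 + q * s) (fun j => n j + q * b j) θ)
      (dwG (fun j => p j + q * a j) (fun j => n j + q * b j) θ) := by
  have e : RG s0 s p n a b q =
      psiG (s0 + q * s) (fun j => p j + q * a j) (fun j => n j + q * b j) := by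
    funext l x; exact RG_eq s0 s p n a b q l x
  rw [e]
  exact linAtG _ _ _ θ

/-! ### slopes -/

/-- change of the exponents -/
theorem psiG_slope {s : ℝ} {a b : ι → ℝ} (hb : ∀ j, 0 ≤ b j) (l : ℝ) (x x' : ι → ℝ) :
    |psiG s a b l x' - psiG s a b l x - ∑ j, a j * (x' j - x j)| ≤ ∑ j, b j * |x' j - x j| := by
  have e : psiG s a b l x' - psiG s a b l x - ∑ j, a j * (x' j - x j) =
      -∑ j, b j * (nr l (x' j) - nr l (x j)) := by
    unfold psiG
    rw [add_sub_add_left_eq_sub, ← Finset.sum_sub_distrib, ← Finset.sum_sub_distrib,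
      ← Finset.sum_neg_distrib]
    exact Finset.sum_congr rfl fun j _ => by ring
  rw [e, abs_neg]
  refine (Finset.abs_sum_le_sum_abs _ _).trans (Finset.sum_le_sum fun j _ => ?_)
  rw [abs_mul, abs_of_nonneg (hb j)]
  exact mul_le_mul_of_nonneg_left (nr_lip_x _ _ _) (hb j)

/-- change of the length, upwards: the slope is between `s` and `s + ∑ b` -/
theorem psiG_len {s : ℝ} {a b : ι → ℝ} (hb : ∀ j, 0 ≤ b j) {l l' : ℝ} (hl : 0 ≤ l) (h : l ≤ l')
    (x : ι → ℝ) : s * (l' - l) ≤ psiG s a b l' x - psiG s a b l x ∧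
      psiG s a b l' x - psiG s a b l x ≤ (s + ∑ j, b j) * (l' - l) := by
  have h1 : ∀ j, nr l' (x j) - nr l (x j) ≤ l' - l := fun j => by
    have := (abs_le.1 (nr_lip_len l l' (x j))).2
    rwa [abs_of_nonneg (by linarith : (0:ℝ) ≤ l' - l)] at this
  have h2 : ∀ j, nr l (x j) ≤ nr l' (x j) := fun j => by
    unfold nr
    exact Real.sqrt_le_sqrt (by nlinarith)
  have e : psiG s a b l' x - psiG s a b l x =
      s * (l' - l) + ∑ j, b j * ((l' - l) - (nr l' (x j) - nr l (x j))) := by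
    unfold psiG
    have e1 : ∑ j, b j * ((l' - l) - (nr l' (x j) - nr l (x j))) =
        (∑ j, (a j * x j - b j * (nr l' (x j) - l'))) -
          ∑ j, (a j * x j - b j * (nr l (x j) - l)) := by
      rw [← Finset.sum_sub_distrib]
      exact Finset.sum_congr rfl fun j _ => by ring
    rw [e1]; ring
  rw [e]
  constructor
  · have : 0 ≤ ∑ j, b j * ((l' - l) - (nr l' (x j) - nr l (x j))) :=
      Finset.sum_nonneg fun j _ => mul_nonneg (hb j) (by have := h1 j; linarith)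
    linarith
  · have : ∑ j, b j * ((l' - l) - (nr l' (x j) - nr l (x j))) ≤ (∑ j, b j) * (l' - l) := by
      rw [Finset.sum_mul]
      refine Finset.sum_le_sum fun j _ => mul_le_mul_of_nonneg_left ?_ (hb j)
      have := h2 j; linarith
    linarith

end

end Crest.Agent.R136.Pen325
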