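import Crest.Agent.R136.AllD3_823
import Crest.Agent.R136.Pen2_325
import Crest.Agent.R136.Pen3_325

/-!
# R136, block U4 (helper823): the penalised rewards are Lipschitz (`LipR`)
-/

set_option autoImplicit false
set_option linter.unusedVariables false

open Finset

namespace Crest.Agent.R136.AllD823

open Crest.Agent.R136.Pen325
open Crest.Agent.R116.Psi635

noncomputable section

theorem lipR_psiG (s : ℝ) (a b : Fin 3 → ℝ) :
    LipR (psiG s a b) (|s| + ∑ j, (|a j| + 2 * |b j|)) := by
  intro l l' x x' hl hl'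
  set K := |s| + ∑ j, (|a j| + 2 * |b j|) with hK
  have hKj : ∀ j, |a j| + 2 * |b j| ≤ ∑ j, (|a j| + 2 * |b j|) := fun j =>
    single_le_sum (f := fun j => |a j| + 2 * |b j|) (fun i _ => by positivity) (mem_univ j)
  have e : psiG s a b l x - psiG s a b l' x' = s * (l - l') +
      ∑ j, (a j * (x j - x' j) - b j * ((nr l (x j) - nr l (x' j)) +
        (nr l (x' j) - nr l' (x' j)) - (l - l'))) := by
    unfold psiG
    rw [show s * l + ∑ j, (a j * x j - b j * (nr l (x j) - l)) -
      (s * l' + ∑ j, (a j * x' j - b j * (nr l' (x' j) - l'))) = s * (l - l') +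
      (∑ j, (a j * x j - b j * (nr l (x j) - l)) - ∑ j, (a j * x' j - b j * (nr l' (x' j) - l')))
      by ring, ← Finset.sum_sub_distrib]
    congr 1
    exact Finset.sum_congr rfl fun j _ => by ring
  rw [e]
  have t1 : ∀ j, |a j * (x j - x' j) - b j * ((nr l (x j) - nr l (x' j)) +
      (nr l (x' j) - nr l' (x' j)) - (l - l'))| ≤
      (|a j| + 2 * |b j|) * |x j - x' j| + (|a j| + 2 * |b j|) * |l - l'| := by
    intro j
    have h1 := nr_lip_x l (x' j) (x j)
    have h2 := nr_lip_len l' l (x' j)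
    have h3 : |a j * (x j - x' j)| = |a j| * |x j - x' j| := abs_mul _ _
    have h4 : |b j * ((nr l (x j) - nr l (x' j)) + (nr l (x' j) - nr l' (x' j)) - (l - l'))| ≤
        |b j| * (|x j - x' j| + |l - l'| + |l - l'|) := by
      rw [abs_mul]
      refine mul_le_mul_of_nonneg_left ?_ (abs_nonneg _)
      refine (abs_sub _ _).trans ?_
      refine add_le_add ((abs_add_le _ _).trans (add_le_add h1 h2)) le_rfl
    refine (abs_sub _ _).trans ?_
    rw [h3]
    have ha := abs_nonneg (a j)
    have hb := abs_nonneg (b j)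
    have hx := abs_nonneg (x j - x' j)
    have hll := abs_nonneg (l - l')
    nlinarith [mul_nonneg ha hll, mul_nonneg hb hx]
  calc _ ≤ |s * (l - l')| + |∑ j, (a j * (x j - x' j) - b j * ((nr l (x j) - nr l (x' j)) +
        (nr l (x' j) - nr l' (x' j)) - (l - l')))| := abs_add_le _ _
    _ ≤ |s| * |l - l'| + ∑ j, ((|a j| + 2 * |b j|) * |x j - x' j| +
        (|a j| + 2 * |b j|) * |l - l'|) := by
        rw [abs_mul]
        exact add_le_add le_rfl ((abs_sum_le_sum_abs _ _).trans (sum_le_sum fun j _ => t1 j))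
    _ ≤ |s| * |l - l'| + (K * ∑ j, |x j - x' j| + (∑ j, (|a j| + 2 * |b j|)) * |l - l'|) := by
        refine add_le_add le_rfl ?_
        rw [sum_add_distrib, ← sum_mul]
        refine add_le_add ?_ le_rfl
        rw [mul_sum]
        refine sum_le_sum fun j _ => mul_le_mul_of_nonneg_right ?_ (abs_nonneg _)
        exact (hKj j).trans (by rw [hK]; linarith [abs_nonneg s])
    _ = _ := by rw [hK]; ring

theorem lipR_RG (s0 s : ℝ) (p n a b : Fin 3 → ℝ) (q : ℝ) :
    ∃ K : ℝ, 0 ≤ K ∧ LipR (RG s0 s p n a b q) K := by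
  have h := lipR_psiG (s0 + q * s) (fun j => p j + q * a j) (fun j => n j + q * b j)
  refine ⟨|s0 + q * s| + ∑ j, (|p j + q * a j| + 2 * |n j + q * b j|), by positivity,
    fun l l' x x' hl hl' => ?_⟩
  rw [RG_eq, RG_eq]
  exact h l l' x x' hl hl'

theorem lipR_PenP (p w : Fin 3 → ℝ) (q : ℝ) : ∃ K : ℝ, 0 ≤ K ∧ LipR (PenP p w q) K := by
  obtain ⟨K, h0, h1⟩ := lipR_RG 0 1 p (fun _ => 0) (fun _ => 0) w q
  refine ⟨K, h0, fun l l' x x' hl hl' => ?_⟩
  have e := RG_PenP p w q
  rw [← e l x, ← e l' x']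
  exact h1 l l' x x' hl hl'

end

end Crest.Agent.R136.AllD823
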