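import Crest.Agent.R136.Amx1_84
import Crest.Agent.R136.Pl2C_860

/-!
# R136 (S0187), PLAN 2, alignment of sheets, mixed curvatures: the four leaves (helper84)

`Y` = level of the curvature extents of the more curved sheets `U` (`Near 4 Y (kp U)`); `V` flatter.

* `HullMx` : number of `U`-classes met by one `V`-class.
* `AlMx`   : facts of one pair (`Hcp208.Al`).
* `PLMx`   : (PL) for the classes of `U`.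
* `NdMx`   : number of boxes of the `V`-chart met by common lines of one pair (volume form).
-/

set_option autoImplicit false
set_option linter.unusedVariables false

open Finset

namespace Crest.Agent.R136.Amx84

open Crest.Agent.R136.Sh605
open Crest.Agent.R136.K4 (Plk4)
open Crest.Agent.R136.Tlt51 (Shp InP)
open Crest.Agent.R136.KapP335 (kapP DetP)
open Crest.Agent.R136.Pl2W102 (Near Ex2 Two1)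
open Crest.Agent.R136.Pl2 (kp Two7 Al1)
open Crest.Agent.R136.Hcp208 (Al Dims)
open Crest.Agent.R136.Gbx862 (gb)

open Classical in
/-- **[HULL]** (719) -/
def HullMx : Prop := ∀ (η : ℝ) (qm qp : Fin 3 → ℝ), Ex2 η qm qp → ∃ C : ℝ, 0 ≤ C ∧
  ∀ (L : ℕ → Ln4) (P : Finset ℕ) (cu cv : ℕ → ℕ) (Uf Vf : ℕ → Plk4)
    (W M a w1 w2 z0 ρ zL ρL r Y : ℝ),
    Two7 qm qp L P cu cv Uf Vf W M a w1 w2 z0 ρ zL ρL r → a ≤ Y →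
    (∀ t ∈ P, Near 4 Y (kp (Uf (cu t)) z0 ρ (L t))) →
    (∀ t ∈ P, kp (Vf (cv t)) z0 ρ (L t) ≤ kp (Uf (cu t)) z0 ρ (L t)) →
    (∀ t ∈ P, Al1 W (Uf (cu t)) (Vf (cv t)) (L t) a w1 w2 z0 ρ) →
    ∀ c, (((P.filter fun t => cv t = c).image cu).card : ℝ) ≤ (2 * W) ^ C * (Y / a) ^ (1 + qp 0)

/-- **[AL]** (325): `E = Y / (a (2 W)^C0)` -/
def AlMx : Prop := ∃ C0 : ℝ, 1 ≤ C0 ∧ ∀ k : ℝ, C0 ≤ k → ∃ K : ℝ, 0 ≤ K ∧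
  ∀ (W Y a w1 w2 z0 ρ r : ℝ) (S S' : Plk4) (T : Ln4), 1 ≤ W → 0 < r → 0 < ρ → r ≤ ρ → 0 < a →
    Shp S z0 ρ r → Shp S' z0 ρ r → InP T S z0 ρ → InP T S' z0 ρ →
    Dims W a w1 w2 S → Dims W a w1 w2 S' → Al1 W S S' T a w1 w2 z0 ρ →
    DetP W⁻¹ S z0 ρ T → Near 4 Y (kp S z0 ρ T) →
    (2 * W) ^ K * a ≤ Y → (2 * W) ^ K * kp S' z0 ρ T ≤ Y →
    Al ((2 * W) ^ k) (Y / (a * (2 * W) ^ C0)) a w1 w2 z0 ρ r S S' T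

/-- **[PL]** (685) -/
def PLMx : Prop := ∀ (η : ℝ) (qm qp : Fin 3 → ℝ), Ex2 η qm qp → ∃ C : ℝ, 0 ≤ C ∧
  ∀ (L : ℕ → Ln4) (P : Finset ℕ) (cu cv : ℕ → ℕ) (Uf Vf : ℕ → Plk4)
    (W M a w1 w2 z0 ρ zL ρL r Y : ℝ) (H : ℕ),
    Two7 qm qp L P cu cv Uf Vf W M a w1 w2 z0 ρ zL ρL r →
    (∀ t ∈ P, Near 4 Y (kp (Uf (cu t)) z0 ρ (L t))) →
    (∀ t ∈ P, DetP W⁻¹ (Uf (cu t)) z0 ρ (L t)) → (2 * W) ^ C * a ≤ Y → 4 ≤ H → (H : ℝ) * a ≤ Y →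
    PLs P cu L Uf z0 ρ H ((2 * W) ^ C) M (qm 1 + qm 2)

/-- **[ND]** (84) : one pair `U, V`; `P` = its common lines. -/
def NdMx : Prop := ∃ C : ℝ, 0 ≤ C ∧
  ∀ (W Y a w1 w2 z0 ρ r : ℝ) (H : ℕ) (U V : Plk4) (P : Finset ℕ) (L : ℕ → Ln4),
    1 ≤ W → 0 < r → 0 < ρ → r ≤ ρ → 0 < a → Shp U z0 ρ r → Shp V z0 ρ r →
    (∀ t ∈ P, InP (L t) U z0 ρ ∧ InP (L t) V z0 ρ) → Dims W a w1 w2 U → Dims W a w1 w2 V →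
    (∀ t ∈ P, Al1 W U V (L t) a w1 w2 z0 ρ) → (∀ t ∈ P, DetP W⁻¹ U z0 ρ (L t)) →
    (∀ t ∈ P, Near 4 Y (kp U z0 ρ (L t))) → (∀ t ∈ P, (2 * W) ^ C * kp V z0 ρ (L t) ≤ Y) →
    (2 * W) ^ C * a ≤ Y → 1 ≤ H → (H : ℝ) * a ≤ Y →
    ∀ T : Finset ((ℤ × ℤ) × ℕ),
      (∀ y ∈ T, ∃ t ∈ P, y.2 < H ∧ gb V.e V.c w1 w2 z0 ρ H (L t) y.2 = y.1) →
      (T.card : ℝ) ≤ (2 * W) ^ C * (1 + Real.log H) * (H : ℝ) ^ 2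

end Crest.Agent.R136.Amx84
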