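import Crest.Agent.R136.R2h_500
import Crest.Agent.R136.Hcp3_208
import Crest.Agent.R136.Vq4_571
import Crest.Agent.R136.Num_624
import Crest.Agent.R136.Bk_467

/-!
# R136 (S0187), PLAN 2, alignment of sheets, mixed curvatures: the one-step contradiction (helper84)

`mixed_core` : the sheets `U` are curved (`kapP ~ E a`), the sheets `V` flatter; base `V`.  From (PL)
for the classes of `U`, the number of `U`-classes met by a `V`-class and the number of boxes of the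
common incidences (volume form): contradiction.
-/

set_option autoImplicit false
set_option linter.unusedVariables false

open Finset

namespace Crest.Agent.R136.Amx84

open Crest.Agent.R138.Defs (E2)
open Crest.Agent.R138.Tub70 (InPl KM32)
open Crest.Agent.R136.Sh605
open Crest.Agent.R136.K4 (Plk4)
open Crest.Agent.R136.Tlt51 (Shp InP)
open Crest.Agent.R136.Hcp208 (Al Bx Bv hcap_gb)
open Crest.Agent.R136.Gbx862 (gb)
open Crest.Agent.R136.Vq571 (chp chv kmb_num)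
open Crest.Agent.R136.Bt624 (Numb numbers exists_pow_ge two_le)

open Classical in
/-- **(PL)** for the classes of one system: planks of the base chart (`Vq571.kmb_num`). -/
def PLs (P : Finset ℕ) (u : ℕ → ℕ) (L : ℕ → Ln4) (Sf : ℕ → Plk4) (z0 ρ H W M q : ℝ) : Prop :=
  ∀ (c : ℕ) (e : OrthonormalBasis (Fin 2) ℝ E2) (s : Fin 2 → ℝ) (p0 v0 : E2),
    (∀ j, 1 / H ≤ s j ∧ s j ≤ 1) →
    ((P.filter fun t => u t = c ∧
      InPl e s p0 v0 (chp (Sf c) z0 ρ (L t)) (chv (Sf c) z0 ρ (L t))).card : ℝ) ≤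
      W * (s 0 * s 1) * (max (s 0) (s 1)) ^ q * M

open Classical in
/-- **one-step contradiction, mixed curvatures** -/
theorem mixed_core (hKM : ∀ V : ℝ, KM32 V) : ∃ c0 : ℝ, 0 < c0 ∧ c0 ≤ 1 / 4 ∧
    ∀ q p : ℝ, 0 < q → 0 ≤ p → p ≤ c0 * q / 4 → ∀ k : ℝ, 0 ≤ k → ∃ K : ℝ, 1 ≤ K ∧
    ∀ (W E a M w1 w2 z0 ρ r : ℝ) (H : ℕ) (P : Finset ℕ) (cu cv : ℕ → ℕ) (L : ℕ → Ln4)
      (Uf Vf : ℕ → Plk4), 1 ≤ W → (2 * W) ^ K ≤ E → E ≤ H → (H : ℝ) ≤ 2 * E → 0 < M →
      P.Nonempty →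
      (∀ t ∈ P, M ≤ (2 * W) ^ k * ((P.filter fun s => cv s = cv t).card : ℝ)) →
      (∀ t ∈ P, Al ((2 * W) ^ k) E a w1 w2 z0 ρ r (Uf (cu t)) (Vf (cv t)) (L t)) →
      PLs P cu L Uf z0 ρ H ((2 * W) ^ k) M q →
      (∀ c, (((P.filter fun t => cv t = c).image cu).card : ℝ) ≤
        (2 * W) ^ k * (H : ℝ) ^ (1 + p)) →
      (∀ (c c' : ℕ) (T : Finset ((ℤ × ℤ) × ℕ)), (∀ y ∈ T, ∃ t ∈ P, y.2 < H ∧ cv t = c ∧
        cu t = c' ∧ gb (Vf c).e (Vf c).c w1 w2 z0 ρ H (L t) y.2 = y.1) →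
        (T.card : ℝ) ≤ (2 * W) ^ k * (1 + Real.log H) * (H : ℝ) ^ 2) → False := by
  obtain ⟨c0, hc0, hc04, C, hC, N, hN, hcap⟩ := hcap_gb
  refine ⟨c0, hc0, hc04, ?_⟩
  intro q p hq hp0 hp k hk
  obtain ⟨c3, ε, h3, hε, h30, hε3, h8, num⟩ := numbers hc0 (by linarith : c0 ≤ 1 / 2) hq hp0 hp
    (le_refl (8 : ℝ))
  obtain ⟨C', hC', kmb⟩ := kmb_num hKM (ε / 4) (by linarith)
  have hNr : (1 : ℝ) ≤ N := by exact_mod_cast hN
  -- all constants
  obtain ⟨k1, hk1, hk1'⟩ := exists_pow_ge (N * 240 ^ 6 + C' + 2 + (1 + 1 / (8 * c3)) + 64)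
  set k2 : ℝ := k1 + 48 * k with hk2
  obtain ⟨K0, hK0, hnum⟩ := num k2 (by positivity)
  -- the capture heights
  obtain ⟨k3, hk3, hk3'⟩ := exists_pow_ge (256 : ℝ)
  set K : ℝ := K0 + (C + C * k) + (k3 / c0 + 8) with hKdef
  refine ⟨K, by
    have : 0 ≤ C * k := by positivity
    have : 0 ≤ k3 / c0 := by positivity
    linarith, ?_⟩
  intro W E a M w1 w2 z0 ρ r H P cu cv L Uf Vf hW hKE hEH hHE hM hP hfull hAl hPL hhull hNd
  have h2W : (1 : ℝ) ≤ 2 * W := by linarith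
  have h2W0 : (0 : ℝ) < 2 * W := by linarith
  have hCk : 0 ≤ C * k := by positivity
  have hkc : 0 ≤ k3 / c0 := by positivity
  have hW1 : ∀ x y : ℝ, x ≤ y → (2 * W) ^ x ≤ (2 * W) ^ y := fun x y hxy =>
    Real.rpow_le_rpow_of_exponent_le h2W hxy
  have hWk : 1 ≤ (2 * W) ^ k := Real.one_le_rpow h2W hk
  have hWk0 : 0 < (2 * W) ^ k := by linarith
  have hE0 : 0 < E := (Real.rpow_pos_of_pos h2W0 K).trans_le hKE
  have hH0 : (0 : ℝ) < H := hE0.trans_le hEH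
  -- `R`
  set R : ℝ := (2 * W) ^ k2 with hR
  have hR1 : 1 ≤ R := Real.one_le_rpow h2W (by positivity)
  have hk2' : R = (2 * W) ^ k1 * ((2 * W) ^ k) ^ 48 := by
    rw [hR, hk2, Real.rpow_add h2W0]
    congr 1
    rw [← Real.rpow_natCast, ← Real.rpow_mul h2W0.le]
    congr 1
    push_cast; ring
  have hk1W : N * 240 ^ 6 + C' + 2 + (1 + 1 / (8 * c3)) + 64 ≤ (2 * W) ^ k1 := two_le hW hk1 hk1'
  set Wk : ℝ := (2 * W) ^ k with hWkd
  have hi3 : 0 < 1 / (8 * c3) := by positivity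
  have big : ∀ x : ℝ, 0 ≤ x → x ≤ (2 * W) ^ k1 → ∀ n : ℕ, n ≤ 48 → x * Wk ^ n ≤ R := by
    intro x hx0 hx n hn
    rw [hk2']
    exact mul_le_mul hx (pow_le_pow_right₀ hWk hn) (by positivity) (hx0.trans hx)
  have hNum := hnum W H R hW ((hW1 K0 K (by rw [hKdef]; linarith)).trans (hKE.trans hEH)) hR1 le_rfl
  set X : ℝ := R * (H : ℝ) ^ ε with hX
  set Q : ℝ := (H : ℝ) ^ p with hQ
  set Z : ℝ := R * (H : ℝ) ^ (8 * c3) with hZ
  set Y : ℝ := (H : ℝ) ^ (c0 * q) / (R * (H : ℝ) ^ ε) with hY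
  have hH1 : (1 : ℝ) ≤ H := hNum.H1
  have hHN : 1 ≤ H := by exact_mod_cast hH1
  -- `E^(-c0)` small
  have hE256 : E ^ (-c0) ≤ 1 / 256 := by
    have h1 : (2 * W) ^ (k3 / c0) ≤ E := (hW1 _ K (by rw [hKdef]; linarith)).trans hKE
    have h2 : (2 * W) ^ k3 ≤ E ^ c0 := by
      have := Real.rpow_le_rpow (Real.rpow_nonneg h2W0.le _) h1 hc0.le
      rwa [← Real.rpow_mul h2W0.le, div_mul_cancel₀ _ hc0.ne'] at this
    have h3 : (256 : ℝ) ≤ E ^ c0 := (two_le hW hk3 hk3').trans h2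
    rw [Real.rpow_neg hE0.le, ← one_div]
    exact one_div_le_one_div_of_le (by norm_num) h3
  have hH256 : (256 : ℝ) ≤ H := by
    have h1 : (2 * W) ^ (8 : ℝ) ≤ E := (hW1 _ K (by rw [hKdef]; linarith)).trans hKE
    have h2 : (2 : ℝ) ^ (8 : ℝ) ≤ (2 * W) ^ (8 : ℝ) :=
      Real.rpow_le_rpow (by norm_num) (by linarith) (by norm_num)
    have h3 : (2 : ℝ) ^ (8 : ℝ) = 256 := by
      rw [show (8 : ℝ) = ((8 : ℕ) : ℝ) by norm_num, Real.rpow_natCast]; norm_num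
    linarith
  -- ball radius
  set b : ℝ := (H : ℝ) ^ (-c0) with hb
  have hb0 : 0 < b := Real.rpow_pos_of_pos hH0 _
  have hEb : E ^ (-c0) ≤ 2 * b := by
    have h1 : (H : ℝ) / 2 ≤ E := by linarith
    have h2 : E ^ (-c0) ≤ ((H : ℝ) / 2) ^ (-c0) :=
      Real.rpow_le_rpow_of_nonpos (by positivity) h1 (by linarith)
    refine h2.trans ?_
    rw [Real.div_rpow hH0.le (by norm_num), div_le_iff₀ (by positivity)]
    have h3 : (2 : ℝ) * (2 : ℝ) ^ (-c0) ≥ 1 := by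
      have : (2 : ℝ) ^ (-1 : ℝ) ≤ (2 : ℝ) ^ (-c0) :=
        Real.rpow_le_rpow_of_exponent_le (by norm_num) (by linarith)
      rw [Real.rpow_neg_one] at this
      linarith
    calc (H : ℝ) ^ (-c0) = b * 1 := by rw [mul_one]
      _ ≤ b * (2 * (2 : ℝ) ^ (-c0)) := mul_le_mul_of_nonneg_left h3 hb0.le
      _ = 2 * b * 2 ^ (-c0) := by ring
  -- KMb for the curved system
  obtain ⟨B, hB, hBc, hgood⟩ := kmb H (by
      have : (4 : ℝ) ≤ H := by linarith
      exact_mod_cast this) ℕ ℕ P cu L Uf (range H) z0 ρ w1 w2 Wk Wk M q b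
    (by
      obtain ⟨t, ht⟩ := hP
      exact (hAl t ht).ρ0.le) hWk0.le hM hq.le hNum.b0 hNum.b01 hWk
    (by
      refine le_trans ?_ hNum.Rε4
      have := big C' hC'.le (by
        have : 0 ≤ (N : ℝ) * 240 ^ 6 := by positivity
        linarith) 1 (by norm_num)
      rwa [pow_one] at this)
    (fun t ht => by
      have hA := hAl t ht
      have hw0 : 0 < (Uf (cu t)).w 0 := hA.r0.trans_le (hA.sh.r0_le.trans hA.sh.a_le0)
      have hw2 : 0 < (Uf (cu t)).w 2 := hw0.trans_le hA.sh.w0_le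
      exact ⟨hA.mem, hw2.trans_le hA.sh.w_le, hw2, hA.dim.2.1.1, hA.dim.2.2.1⟩)
    (fun j hj => (mem_range.1 hj).le) (fun c e s p0 v0 hs => by convert hPL c e s p0 v0 hs)
  -- capture
  obtain ⟨s, hs⟩ := hcap P cu cv L Uf Vf Wk E a w1 w2 z0 ρ r H hEH hHE (by
    have h1 : (2 * Wk) ^ C ≤ (2 * W) ^ (C + C * k) := by
      have h2 : 2 * Wk ≤ (2 * W) ^ (1 + k) := by
        rw [Real.rpow_add h2W0, Real.rpow_one]
        exact mul_le_mul_of_nonneg_right (by linarith) hWk0.le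
      have := Real.rpow_le_rpow (by positivity) h2 (by linarith : 0 ≤ C)
      rw [← Real.rpow_mul h2W0.le] at this
      refine this.trans (le_of_eq ?_)
      congr 1; ring
    exact h1.trans ((hW1 _ K (by rw [hKdef]; linarith)).trans hKE)) hAl
  set m : ℝ := (240 * Wk ^ 7 * Wk) ^ 6 *
    ((H : ℝ) ^ (4 * (ε / 4)) * b ^ q * M / (H : ℝ) ^ 2) with hm
  have hbq : 0 < b ^ q := Real.rpow_pos_of_pos hb0 q
  have hm0 : 0 ≤ m := by
    have : 0 < (H : ℝ) ^ (4 * (ε / 4)) := Real.rpow_pos_of_pos hH0 _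
    positivity
  obtain ⟨Bad, hB1, hB2, hB3⟩ : ∃ Bad : ℕ × ℕ → Prop, (∀ x, x ∈ B → Bad x) ∧
      (∀ x : ℕ × ℕ, (∃ i, |(x.2 : ℝ) / H - s x.1 i| < E ^ (-c0)) → Bad x) ∧
      (∀ x : ℕ × ℕ, Bad x → x ∈ B ∨ ∃ i, |(x.2 : ℝ) / H - s x.1 i| < E ^ (-c0)) :=
    ⟨fun x => x ∈ B ∨ ∃ i, |(x.2 : ℝ) / H - s x.1 i| < E ^ (-c0), fun x => Or.inl,
      fun x => Or.inr, fun x => id⟩
  obtain ⟨_, hc2⟩ := hs Bad b m hEb hm0 (fun t ht j hj i hi => hB2 (t, j) ⟨i, hi⟩)
    (fun t ht j hj hbad G hG hGy => by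
      have hinj : (G.image fun y => (y, j)).card = G.card :=
        card_image_of_injective _ fun x y hxy => (Prod.ext_iff.1 hxy).1
      have := hgood (240 * Wk ^ 7) (by
          have : 1 ≤ Wk ^ 7 := one_le_pow₀ hWk
          linarith) (t, j)
        (mem_product.2 ⟨ht, mem_range.2 hj⟩) (fun h => hbad (hB1 _ h)) (G.image fun y => (y, j))
        (fun y hy => by
          obtain ⟨x, hx, rfl⟩ := mem_image.1 hy
          obtain ⟨g1, g2, ⟨g3, g4⟩, ⟨g5, g6⟩⟩ := hGy x hx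
          exact ⟨mem_product.2 ⟨hG hx, mem_range.2 hj⟩, fun h => g1 (hB1 _ h), rfl, g2, g3, g4, g5,
            g6⟩)
      rw [hinj] at this
      exact this)
  -- one step
  have hone := R2b500.al_one P cv cu
    (fun c t j => gb (Vf c).e (Vf c).c w1 w2 z0 ρ H (L t) j) H Bad (M := M) (W := Wk) (X := X)
    (Y := Y) (Q := Q) (Z := Z) hM hWk hHN
    ((show 2 * Wk ≤ R by
      have := big 2 (by norm_num) (by
        have : 0 ≤ (N : ℝ) * 240 ^ 6 := by positivity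
        linarith) 1 (by norm_num)
      rwa [pow_one] at this).trans hNum.RX)
    hNum.Y0 (by linarith [hNum.Q1]) (by linarith [hNum.Z1]) hP hfull ?_ ?_ ?_ ?_
  · -- contradiction
    have h1 := hNum.num
    have hX1 : 1 ≤ X := hR1.trans hNum.RX
    have h2 : 0 < Q * Z := mul_pos (by linarith [hNum.Q1]) (by linarith [hNum.Z1])
    have h3 : X ^ 2 * Q * Z ≤ X ^ 4 * Q * Z := by
      rw [mul_assoc, mul_assoc]
      exact mul_le_mul_of_nonneg_right (pow_le_pow_right₀ hX1 (by norm_num)) h2.le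
    have h4 : 0 ≤ X ^ 4 * Q * Z := by
      rw [mul_assoc]; positivity
    linarith
  · -- bad incidences
    have hsplit : ((P ×ˢ range H).filter Bad) ⊆ B ∪ ((P ×ˢ range H).filter fun x =>
        ∃ i, |(x.2 : ℝ) / H - s x.1 i| < E ^ (-c0)) := by
      intro x hx
      obtain ⟨h1, h2⟩ := mem_filter.1 hx
      rcases hB3 x h2 with h2 | h2
      · exact mem_union_left _ h2
      · exact mem_union_right _ (mem_filter.2 ⟨h1, h2⟩)
    have h1 : (((P ×ˢ range H).filter Bad).card : ℝ) ≤ (B.card : ℝ) +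
        (((P ×ˢ range H).filter fun x => ∃ i, |(x.2 : ℝ) / H - s x.1 i| < E ^ (-c0)).card : ℝ) := by
      exact_mod_cast (card_le_card hsplit).trans (card_union_le _ _)
    have h2 := Bk467.capt_bad P H hHN s (θ := E ^ (-c0)) (Real.rpow_nonneg hE0.le _)
    have h3 : (8 : ℝ) * B.card ≤ (P.card : ℝ) * H :=
      hNum.bad (n := 8) (by norm_num) (by
        have := big 8 (by norm_num) (by
          have : 0 ≤ (N : ℝ) * 240 ^ 6 := by positivity
          linarith) 0 (by norm_num)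
        rwa [pow_zero, mul_one] at this) (Nat.cast_nonneg _) hBc
    have h4 : (8 : ℝ) * ((P.card : ℝ) * ((2 : ℕ) * (2 * E ^ (-c0) * H + 1))) ≤
        (P.card : ℝ) * H := by
      have h5 : (8 : ℝ) * ((2 : ℕ) * (2 * E ^ (-c0) * H + 1)) ≤ H := by
        have h6 : E ^ (-c0) * H ≤ 1 / 256 * H := mul_le_mul_of_nonneg_right hE256 hH0.le
        push_cast
        linarith
      have := mul_le_mul_of_nonneg_left h5 (Nat.cast_nonneg (α := ℝ) P.card)
      linarith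
    have h7 : (8 : ℝ) * (((P ×ˢ range H).filter fun x =>
        ∃ i, |(x.2 : ℝ) / H - s x.1 i| < E ^ (-c0)).card : ℝ) ≤ (P.card : ℝ) * H :=
      (mul_le_mul_of_nonneg_left h2 (by norm_num)).trans h4
    have h8 : (4 : ℝ) * (((P ×ˢ range H).filter Bad).card : ℝ) ≤ (P.card : ℝ) * H := by linarith
    exact h8
  · -- capture
    intro t ht j hj hbad
    have h1 := hc2 t ht j hj hbad
    refine hNum.capt4 (G := N * (240 * Wk ^ 7 * Wk) ^ 6) hM.le ?_ ?_
    · have e : (N : ℝ) * (240 * Wk ^ 7 * Wk) ^ 6 = (N * 240 ^ 6) * Wk ^ 48 := by ring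
      rw [e]
      exact big _ (by positivity) (by linarith) 48 le_rfl
    · have e : N * (240 * Wk ^ 7 * Wk) ^ 6 *
          ((H : ℝ) ^ (4 * (ε / 4)) * ((H : ℝ) ^ (-c0)) ^ q * M / (H : ℝ) ^ 2) = N * m := by
        rw [hm, hb]; ring
      rw [e]
      refine le_trans ?_ h1
      have : (P.filter fun s => ¬ Bad (s, j) ∧ cv s = cv t ∧ cu s = cu t ∧
          gb (Vf (cv t)).e (Vf (cv t)).c w1 w2 z0 ρ H (L s) j =
            gb (Vf (cv t)).e (Vf (cv t)).c w1 w2 z0 ρ H (L t) j) ⊆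
          (P.filter fun y => ¬ Bad (y, j) ∧ cu y = cu t ∧ cv y = cv t ∧
            gb (Vf (cv t)).e (Vf (cv t)).c w1 w2 z0 ρ H (L y) j =
              gb (Vf (cv t)).e (Vf (cv t)).c w1 w2 z0 ρ H (L t) j) := by
        intro y hy
        obtain ⟨g0, g1, g2, g3, g4⟩ := mem_filter.1 hy
        exact mem_filter.2 ⟨g0, g1, g3, g2, g4⟩
      have h9 : ((P.filter fun s => ¬ Bad (s, j) ∧ cv s = cv t ∧ cu s = cu t ∧
          gb (Vf (cv t)).e (Vf (cv t)).c w1 w2 z0 ρ H (L s) j =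
            gb (Vf (cv t)).e (Vf (cv t)).c w1 w2 z0 ρ H (L t) j).card : ℝ) ≤
          ((P.filter fun y => ¬ Bad (y, j) ∧ cu y = cu t ∧ cv y = cv t ∧
            gb (Vf (cv t)).e (Vf (cv t)).c w1 w2 z0 ρ H (L y) j =
              gb (Vf (cv t)).e (Vf (cv t)).c w1 w2 z0 ρ H (L t) j).card : ℝ) := by
        exact_mod_cast card_le_card this
      convert h9
      all_goals rfl
  · -- hull
    intro c
    refine (hhull c).trans ?_
    have h1 : Wk ≤ X := by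
      have := big 1 (by norm_num) (by
        have : 0 ≤ (N : ℝ) * 240 ^ 6 := by positivity
        linarith) 1 (by norm_num)
      rw [one_mul, pow_one] at this
      exact this.trans hNum.RX
    have h2 : (H : ℝ) ^ (1 + p) = Q * H := by
      rw [Real.rpow_add hH0, Real.rpow_one, hQ]; ring
    rw [h2, mul_assoc X Q]
    exact mul_le_mul_of_nonneg_right h1 (mul_nonneg (by linarith [hNum.Q1]) hH0.le)
  · -- volume
    intro c c' T hT
    refine (hNd c c' T fun y hy => ?_).trans ?_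
    · obtain ⟨t, h1, h2, h3, h4, h5, _⟩ := hT y hy
      exact ⟨t, h1, h2, h3, h4, h5⟩
    · refine mul_le_mul_of_nonneg_right ?_ (by positivity)
      have hpos : 0 < (H : ℝ) ^ (8 * c3) := Real.rpow_pos_of_pos hH0 _
      have h1 : Real.log H ≤ (H : ℝ) ^ (8 * c3) / (8 * c3) :=
        Real.log_le_rpow_div hH0.le (by positivity)
      have h2 : 1 ≤ (H : ℝ) ^ (8 * c3) := Real.one_le_rpow hH1 (by positivity)
      have h3 : 1 + Real.log H ≤ (1 + 1 / (8 * c3)) * (H : ℝ) ^ (8 * c3) := by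
        have : (1 + 1 / (8 * c3)) * (H : ℝ) ^ (8 * c3) =
            (H : ℝ) ^ (8 * c3) + (H : ℝ) ^ (8 * c3) / (8 * c3) := by ring
        linarith
      calc Wk * (1 + Real.log H) ≤ Wk * ((1 + 1 / (8 * c3)) * (H : ℝ) ^ (8 * c3)) :=
            mul_le_mul_of_nonneg_left h3 hWk0.le
        _ = ((1 + 1 / (8 * c3)) * Wk ^ 1) * (H : ℝ) ^ (8 * c3) := by ring
        _ ≤ R * (H : ℝ) ^ (8 * c3) := mul_le_mul_of_nonneg_right
            (big _ (by positivity) (by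
              have : 0 ≤ (N : ℝ) * 240 ^ 6 := by positivity
              linarith) 1 (by norm_num)) hpos.le

end Crest.Agent.R136.Amx84
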