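import Crest.Agent.R136.Bl6_667
import Crest.Agent.R136.Pl2C_860

/-!
# R136 (S0187), PLAN 2: glue over `Pl2B`, `Pl2C` (helper667)

* `FH.mono`, `FL.mono`, `FL.chg`, `closeC_mono`, `Al1.mono`;
* `half`, `half7` : if every full part has one good line, some full part of share `1 / 4` is good
  (`Two1`, `Two7` at `lift W 4`);
* `Two7.sub`, `Two7.mono`;
* `btr_all` : `BTR R` on a whole part.
-/

set_option autoImplicit false
set_option linter.unusedVariables false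

open Finset

namespace Crest.Agent.R136.Bl5667

open Crest.Agent.R136.Sh605 Crest.Agent.R136.Pl2 Crest.Agent.R136.Fl808
open Crest.Agent.R136.K4 (Plk4)
open Crest.Agent.R136.Tlt51 (Shp InP)
open Crest.Agent.R136.KapP335 (kapP expP DetP)
open Crest.Agent.R136.Deep51 (CloseC)
open Crest.Agent.R136.Tl102 (angC)
open Crest.Agent.R136.Pl2W102 (Near Ex2 Two1)

variable {qm qp : Fin 3 → ℝ} {L : ℕ → Ln4} {P : Finset ℕ} {cu cv : ℕ → ℕ} {Uf Vf : ℕ → Plk4}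
  {W M a w1 w2 z0 ρ zL ρL r : ℝ}

theorem FH.mono {C C' Y Y' : ℝ} {S : Plk4} {f : Fin 3 → V3} (h : FH C Y S f z0 ρ) (hC0 : 0 ≤ C)
    (hC : C ≤ C') (hY0 : 0 ≤ Y) (hY : Y ≤ Y') (hw1 : 0 ≤ S.w 1) (hw2 : 0 ≤ S.w 2) :
    FH C' Y' S f z0 ρ := by
  have k1 : C * S.w 2 ≤ C' * S.w 2 := mul_le_mul_of_nonneg_right hC hw2
  have k2 : C * S.w 1 ≤ C' * S.w 1 := mul_le_mul_of_nonneg_right hC hw1
  have k3 : C * Y ≤ C' * Y' := mul_le_mul hC hY hY0 (hC0.trans hC)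
  refine ⟨h.ortho, h.e01.trans k1, h.e10.trans k1, h.e12.trans k1, h.e21.trans k1,
    h.e00.trans (mul_le_mul_of_nonneg_right hC (abs_nonneg _)), ?_, ?_⟩
  · intro t t' ht ht' z h0 h1 k
    refine (h.box t t' ht ht' z h0 h1 k).trans ?_
    fin_cases k
    · exact k3
    · exact k2
    · exact k1
  · intro T hT z h0 h1 x hx hq
    exact (h.pt T hT z h0 h1 x hx hq).trans k3

theorem FL.mono {C C' Y : ℝ} {S : Plk4} {f : Fin 3 → V3} (h : FL C Y S f z0 ρ) (hC : C ≤ C')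
    (hC0 : 0 < C) (hY0 : 0 ≤ Y) : FL C' Y S f z0 ρ := by
  intro T hT
  obtain ⟨b0, h1, h2, h3⟩ := h T hT
  have hb : 0 ≤ b0 := by
    by_contra hc
    push Not at hc
    nlinarith
  refine ⟨b0, h1.trans (mul_le_mul_of_nonneg_right hC hb), h2.trans hC,
    fun m hm z z1 z2 x x0 x1 x2 => (h3 m hm z z1 z2 x x0 x1 x2).trans ?_⟩
  have : 0 ≤ m ^ 2 * Y := by positivity
  nlinarith

/-- change of the level `Y ≤ K Y'`, `Y' ≤ K Y` -/
theorem FL.chg {C Y Y' K : ℝ} {S : Plk4} {f : Fin 3 → V3} (h : FL C Y S f z0 ρ)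
    (hC0 : 0 < C) (hK : 1 ≤ K) (hY0 : 0 ≤ Y) (hY0' : 0 ≤ Y') (h1 : Y ≤ K * Y') (h2 : Y' ≤ K * Y)
    (hw1 : 0 ≤ S.w 1) (hw2 : 0 ≤ S.w 2) : FL (K ^ 3 * C) Y' S f z0 ρ := by
  intro T hT
  obtain ⟨b0, p1, p2, p3⟩ := h T hT
  have hb : 0 ≤ b0 := by
    by_contra hc
    push Not at hc
    nlinarith
  have hK3 : 1 ≤ K ^ 3 := one_le_pow₀ hK
  refine ⟨b0, ?_, ?_, fun m hm z z1 z2 x x0 x1 x2 => ?_⟩
  · have : 0 ≤ C * b0 := mul_nonneg hC0.le hb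
    nlinarith
  · nlinarith
  · have hm0 : 0 ≤ m := by linarith
    have g0 : m * Y' ≤ (K * m) * Y := by nlinarith
    have g1 : m * S.w 1 ≤ (K * m) * S.w 1 := by
      have : 0 ≤ m * S.w 1 := mul_nonneg hm0 hw1
      nlinarith
    have g2 : m * S.w 2 ≤ (K * m) * S.w 2 := by
      have : 0 ≤ m * S.w 2 := mul_nonneg hm0 hw2
      nlinarith
    refine (p3 (K * m) (by nlinarith) z z1 z2 x (x0.trans g0) (x1.trans g1) (x2.trans g2)).trans ?_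
    have : C * (K * m) ^ 2 * Y ≤ C * (K * m) ^ 2 * (K * Y') :=
      mul_le_mul_of_nonneg_left h1 (by positivity)
    refine this.trans (le_of_eq ?_)
    ring

theorem closeC_mono {e : Fin 3 → V3} {w : V3} {q q' : ℝ → V3 → ℝ} {b E E' : ℝ} {T : Ln4}
    (h : CloseC e w q b q' E T z0 ρ) (hE : E ≤ E') : CloseC e w q b q' E' T z0 ρ :=
  fun z h0 h1 x hx hq => (h z h0 h1 x hx hq).trans hE

theorem Al1.mono {K K' : ℝ} {S S' : Plk4} {T : Ln4} (h : Al1 K S S' T a w1 w2 z0 ρ)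
    (hK0 : 0 < K) (hK : K ≤ K') (hkp : 0 ≤ kp S z0 ρ T) (hw2 : 0 ≤ w2) (s1 : 0 ≤ S.w 1)
    (s2 : 0 ≤ S.w 2) (s1' : 0 ≤ S'.w 1) (s2' : 0 ≤ S'.w 2) : Al1 K' S S' T a w1 w2 z0 ρ := by
  obtain ⟨f, g, a1, a2, a3, a4, a5, a6, a7⟩ := h.fr
  have k1 : K * kp S z0 ρ T ≤ K' * kp S z0 ρ T := mul_le_mul_of_nonneg_right hK hkp
  exact ⟨h.ang.trans (mul_le_mul_of_nonneg_right hK hw2), closeC_mono h.close k1,
    f, g, FH.mono a1 hK0.le hK hkp le_rfl s1 s2, FL.mono a2 hK hK0 hkp,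
    FH.mono a3 hK0.le hK hkp le_rfl s1' s2', a4.trans k1, a5.trans k1, a6.trans k1, a7.trans k1⟩

/-! ### popular halves -/

/-- **a good line in every full part ⊢ a good full part** -/
theorem half (H : Two1 qm qp L P cu cv Uf Vf W M a w1 w2 z0 ρ r) (hne : P.Nonempty)
    (Φ : ℕ → Prop)
    (h : ∀ Q : Finset ℕ, Q ⊆ P → Q.Nonempty →
      Two1 qm qp L Q cu cv Uf Vf (lift W 4) M a w1 w2 z0 ρ r → ∃ t ∈ Q, Φ t) :
    ∃ P' : Finset ℕ, P' ⊆ P ∧ P'.Nonempty ∧ (P.card : ℝ) ≤ 4 * P'.card ∧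
      Two1 qm qp L P' cu cv Uf Vf (lift W 4) M a w1 w2 z0 ρ r ∧ ∀ t ∈ P', Φ t := by
  classical
  have hW := H.W1
  have hW0 : 0 < W := by linarith
  have h8 : 4 * W * 2 ≤ lift W 4 := by
    have e : lift W 4 = 8 * W ^ 4 := by
      unfold lift
      have : (2 * W) ^ (4 : ℝ) = (2 * W) ^ (4 : ℕ) := by rw [← Real.rpow_natCast]; norm_num
      rw [this]; ring
    rw [e]
    have : W ^ 1 ≤ W ^ 4 := pow_le_pow_right₀ hW (by norm_num)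
    nlinarith
  have hWl : W ≤ lift W 4 := le_lift hW (by norm_num)
  -- full parts of a half
  have key : ∀ Q1 : Finset ℕ, Q1 ⊆ P → Q1.Nonempty → (P.card : ℝ) ≤ 2 * Q1.card →
      ∃ Q, Q ⊆ Q1 ∧ Q.Nonempty ∧ (Q1.card : ℝ) ≤ 2 * Q.card ∧
        Two1 qm qp L Q cu cv Uf Vf (lift W 4) M a w1 w2 z0 ρ r := by
    intro Q1 hQ1 hne1 hc
    obtain ⟨Q, q1, q2, q3, q4, q5⟩ := prune2 hQ1 H.M0 hW0 (by norm_num : (0:ℝ) < 2) H.fullU
      H.fullV hc hne1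
    exact ⟨Q, q1, q2, q3, Two1.sub H (q1.trans hQ1) hWl (fun t ht => (q4 t ht).trans
      (mul_le_mul_of_nonneg_right h8 (Nat.cast_nonneg _))) (fun t ht => (q5 t ht).trans
      (mul_le_mul_of_nonneg_right h8 (Nat.cast_nonneg _)))⟩
  set G := P.filter Φ with hG
  set B := P.filter fun t => ¬ Φ t with hB
  have hc : (P.card : ℝ) = G.card + B.card := by
    rw [hG, hB, ← Nat.cast_add, Finset.card_filter_add_card_filter_not]
  have hPc : (0:ℝ) < P.card := Nat.cast_pos.2 hne.card_pos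
  by_cases hhalf : (P.card : ℝ) ≤ 2 * G.card
  · have hGne : G.Nonempty := by
      rw [← Finset.card_pos]
      have : (0:ℝ) < G.card := by linarith
      exact_mod_cast this
    obtain ⟨Q, q1, q2, q3, q4⟩ := key G (Finset.filter_subset _ _) hGne hhalf
    exact ⟨Q, q1.trans (Finset.filter_subset _ _), q2, by linarith, q4,
      fun t ht => (Finset.mem_filter.1 (q1 ht)).2⟩
  · push Not at hhalf
    have hBc : (P.card : ℝ) ≤ 2 * B.card := by linarith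
    have hBne : B.Nonempty := by
      rw [← Finset.card_pos]
      have : (0:ℝ) < B.card := by linarith
      exact_mod_cast this
    obtain ⟨Q, q1, q2, q3, q4⟩ := key B (Finset.filter_subset _ _) hBne hBc
    obtain ⟨t, ht, hΦ⟩ := h Q (q1.trans (Finset.filter_subset _ _)) q2 q4
    exact absurd hΦ (Finset.mem_filter.1 (q1 ht)).2

theorem Two7.sub {P' : Finset ℕ} {W' : ℝ}
    (H : Two7 qm qp L P cu cv Uf Vf W M a w1 w2 z0 ρ zL ρL r) (hP : P' ⊆ P)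
    (h1 : Two1 qm qp L P' cu cv Uf Vf W' M a w1 w2 z0 ρ r) :
    Two7 qm qp L P' cu cv Uf Vf W' M a w1 w2 z0 ρ zL ρL r where
  to1 := h1
  rρ := H.rρ
  lo := H.lo
  hi := H.hi
  long := H.long
  short := H.short
  shU := fun t ht => H.shU t (hP ht)
  shV := fun t ht => H.shV t (hP ht)
  inU := fun t ht => H.inU t (hP ht)
  inV := fun t ht => H.inV t (hP ht)

theorem half7 (H : Two7 qm qp L P cu cv Uf Vf W M a w1 w2 z0 ρ zL ρL r) (hne : P.Nonempty)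
    (Φ : ℕ → Prop)
    (h : ∀ Q : Finset ℕ, Q ⊆ P → Q.Nonempty →
      Two7 qm qp L Q cu cv Uf Vf (lift W 4) M a w1 w2 z0 ρ zL ρL r → ∃ t ∈ Q, Φ t) :
    ∃ P' : Finset ℕ, P' ⊆ P ∧ P'.Nonempty ∧ (P.card : ℝ) ≤ 4 * P'.card ∧
      Two7 qm qp L P' cu cv Uf Vf (lift W 4) M a w1 w2 z0 ρ zL ρL r ∧ ∀ t ∈ P', Φ t := by
  obtain ⟨P', p1, p2, p3, p4, p5⟩ := half H.to1 hne Φ fun Q q1 q2 q3 => h Q q1 q2 (Two7.sub H q1 q3)
  exact ⟨P', p1, p2, p3, Two7.sub H p1 p4, p5⟩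

/-- **`BTR R` on a whole part** (`R` monotone in its constant on sheets of `Two1`) -/
theorem btr_all {R : Rel} (hBT : BTR R) {η : ℝ} (hE : Ex2 η qm qp)
    (hR : ∀ {K K' : ℝ} {S S' : Plk4} {T : Ln4} {a w1 w2 z0 ρ r : ℝ}, 0 < K → K ≤ K' → 0 < r →
      0 ≤ w2 → Shp S z0 ρ r → Shp S' z0 ρ r → R K S S' T a w1 w2 z0 ρ → R K' S S' T a w1 w2 z0 ρ) :
    ∃ K0 c : ℝ, 0 ≤ K0 ∧ 4 ≤ c ∧
    ∀ (L : ℕ → Ln4) (P : Finset ℕ) (cu cv : ℕ → ℕ) (Uf Vf : ℕ → Plk4) (W M a w1 w2 z0 ρ r : ℝ),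
      Two1 qm qp L P cu cv Uf Vf W M a w1 w2 z0 ρ r → P.Nonempty →
      (∀ t ∈ P, TypP ((2 * W) ^ K0) W a (Uf (cu t)) (Vf (cv t)) (L t) z0 ρ) →
      ∃ P' : Finset ℕ, P' ⊆ P ∧ P'.Nonempty ∧ (P.card : ℝ) ≤ 4 * P'.card ∧
        Two1 qm qp L P' cu cv Uf Vf (lift W c) M a w1 w2 z0 ρ r ∧
        ∀ t ∈ P', R (lift W c) (Uf (cu t)) (Vf (cv t)) (L t) a w1 w2 z0 ρ := by
  obtain ⟨K0, C, hK0, hC, H0⟩ := hBT η qm qp hE
  refine ⟨4 * K0, max 4 (4 * C + 1), by linarith, le_max_left _ _, ?_⟩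
  intro L P cu cv Uf Vf W M a w1 w2 z0 ρ r H hne hT
  have hW := H.W1
  obtain ⟨P', p1, p2, p3, p4, p5⟩ := half H hne
    (fun t => R (lift W (max 4 (4 * C + 1))) (Uf (cu t)) (Vf (cv t)) (L t) a w1 w2 z0 ρ)
    (fun Q q1 q2 q3 => by
      obtain ⟨t, ht, hr⟩ := H0 L Q cu cv Uf Vf (lift W 4) M a w1 w2 z0 ρ r q3 q2 (fun t ht =>
        TypP.lift hW (by norm_num) H.a0.le (shp_pos H.r0 (H.shU t (q1 ht))).2.2.1.le
          (shp_pos H.r0 (H.shV t (q1 ht))).2.2.1.le (hT t (q1 ht)))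
      refine ⟨t, ht, hR ?_ ?_ H.r0 H.w20.le (H.shU t (q1 ht)) (H.shV t (q1 ht)) hr⟩
      · rw [rpow_two_lift hW]; exact Real.rpow_pos_of_pos (by linarith) _
      · rw [rpow_two_lift hW]
        exact (rpow_le_lift hW).trans (lift_mono hW (le_max_right _ _)))
  exact ⟨P', p1, p2, p3, Two1.mono p4 (lift_mono hW (le_max_left _ _)), p5⟩

/-- `Al1` is monotone in the sense of `btr_all` -/
theorem al1_mono {K K' : ℝ} {S S' : Plk4} {T : Ln4} {a w1 w2 z0 ρ r : ℝ} (hK0 : 0 < K)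
    (hK : K ≤ K') (hr : 0 < r) (hw2 : 0 ≤ w2) (hS : Shp S z0 ρ r) (hS' : Shp S' z0 ρ r)
    (h : Al1 K S S' T a w1 w2 z0 ρ) : Al1 K' S S' T a w1 w2 z0 ρ := by
  obtain ⟨-, p0, p2, p1⟩ := shp_pos hr hS
  obtain ⟨-, -, q2, q1⟩ := shp_pos hr hS'
  exact Al1.mono h hK0 hK (kp_nonneg p0.le z0 ρ T) hw2 p1.le p2.le q1.le q2.le

end Crest.Agent.R136.Bl5667
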