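import Crest.Agent.R136.Num_624
import Crest.Agent.R136.Pl2W_102

/-! # R136, PLAN 2 (AL): the exponents of `Ex2` and the numbers (helper624) -/

set_option autoImplicit false
set_option linter.unusedVariables false

namespace Crest.Agent.R136.Bt624

open Crest.Agent.R136.Pl2W102 (Ex2)

/-- the loss of the hull is small against the gain of the capture (no upper bound on `qm`) -/
theorem ex2_p {η c0 : ℝ} {qm qp : Fin 3 → ℝ} (h : Ex2 η qm qp) (hη0 : 0 ≤ η) (hη : η ≤ c0 / 2) :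
    0 < qm 1 + qm 2 ∧ 0 ≤ qp 0 ∧ qp 0 ≤ c0 * (qm 1 + qm 2) / 4 := by
  have h0 := h.le 0
  have h1 := h.le 1
  have h2 := h.le 2
  have h3 := h.pos
  have h4 := h.e02
  have h5 := h.e21
  have hc : 0 ≤ c0 := by linarith
  refine ⟨by linarith, by linarith, ?_⟩
  have h6 : η * qm 1 ≤ c0 / 2 * qm 1 := mul_le_mul_of_nonneg_right hη h1.1
  have h7 : 0 ≤ c0 * qm 2 := mul_nonneg hc h2.1
  nlinarith

/-- `numbers` for `Ex2` : `c0` first, `η ≤ c0 / 2`, then `qm, qp` -/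
theorem numbers_ex2 {c0 η A : ℝ} (hc0 : 0 < c0) (hc1 : c0 ≤ 1 / 2) (hη0 : 0 ≤ η) (hη : η ≤ c0 / 2)
    {qm qp : Fin 3 → ℝ} (h : Ex2 η qm qp) (hA : 8 ≤ A) :
    ∃ c3 ε : ℝ, 0 < c3 ∧ 0 < ε ∧ c3 ≤ c0 ∧ ε ≤ c3 ∧ A * ε ≤ c3 * (qm 1 + qm 2) / 4 ∧
      ∀ k : ℝ, 0 ≤ k → ∃ K : ℝ, 1 ≤ K ∧ ∀ W H R : ℝ, 1 ≤ W → (2 * W) ^ K ≤ H → 1 ≤ R →
        R ≤ (2 * W) ^ k →
        Numb c0 (qm 1 + qm 2) (qp 0) A c3 ε R H (R * H ^ ε) (H ^ (qp 0)) (R * H ^ (A * c3))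
          (H ^ (c0 * (qm 1 + qm 2)) / (R * H ^ ε)) := by
  obtain ⟨h1, h2, h3⟩ := ex2_p h hη0 hη
  exact numbers hc0 hc1 h1 h2 h3 hA

/-- radii of the capture in terms of `E` and of `H ≤ 2 E` -/
theorem b_E {c0 E H : ℝ} (hE : 0 < E) (hH0 : 0 < H) (hH : H ≤ 2 * E) (hc0 : 0 ≤ c0) (hc1 : c0 ≤ 1) :
    E ^ (-c0) ≤ 2 * H ^ (-c0) := by
  have h1 : E ^ (-c0) ≤ (H / 2) ^ (-c0) :=
    Real.rpow_le_rpow_of_nonpos (by linarith) (by linarith) (by linarith)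
  have h2 : (H / 2) ^ (-c0) = H ^ (-c0) * 2 ^ c0 := by
    rw [Real.div_rpow hH0.le (by norm_num), Real.rpow_neg (by norm_num : (0:ℝ) ≤ 2), div_inv_eq_mul]
  have h3 : (2:ℝ) ^ c0 ≤ 2 := by
    calc (2:ℝ) ^ c0 ≤ 2 ^ (1:ℝ) := Real.rpow_le_rpow_of_exponent_le (by norm_num) hc1
      _ = 2 := Real.rpow_one 2
  have h4 : 0 ≤ H ^ (-c0) := Real.rpow_nonneg hH0.le _
  rw [h2] at h1
  calc E ^ (-c0) ≤ H ^ (-c0) * 2 ^ c0 := h1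
    _ ≤ H ^ (-c0) * 2 := mul_le_mul_of_nonneg_left h3 h4
    _ = _ := mul_comm _ _

end Crest.Agent.R136.Bt624
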