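import Crest.Agent.R136.Amx1_84
import Crest.Agent.R136.Alr_877
import Crest.Agent.R136.Bm6_667
import Crest.Agent.R136.NumE_624

/-!
# R136 (S0187), PLAN 2, alignment of sheets, mixed curvatures: outer part (helper325)

* `MixD` : all the data at one level `Y` of the curvature extent of the system `U`, the system `V`
  is much flatter (`K kp V ≤ Y`, `K a ≤ Y`);
* `KapClose` (helper44), `PLMx` (helper685), `HullMx` (helper719), `NdMx` (helper84) : the leaves;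
* `ubalA_of : KapClose → PLMx → HullMx → NdMx → UBalA Al1`.
-/

set_option autoImplicit false
set_option linter.unusedVariables false

open Finset

namespace Crest.Agent.R136.Amx325

open Crest.Agent.R136.Sh605 Crest.Agent.R136.Pl2
open Crest.Agent.R136.K4 (Plk4)
open Crest.Agent.R136.Tlt51 (Shp InP)
open Crest.Agent.R136.Deep51 (CloseC)
open Crest.Agent.R136.Tl102 (angC)
open Crest.Agent.R136.KapP335 (kapP DetP)
open Crest.Agent.R136.Pl2W102 (Near Ex2 Two1)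
open Crest.Agent.R136.Al877 (TypA)
open Crest.Agent.R136.Alr877 (UBalA)
open Crest.Agent.R136.Hcp208 (Al Dims)
open Crest.Agent.R136.Gbx862 (gb)
open Crest.Agent.R136.Amx84 (PLs mixed_core)
open Crest.Agent.R136.Bl5667 (lift two_lift le_lift rpow_le_lift rpow_two_lift ylevel2 shp_pos
  kp_nonneg)
open Crest.Agent.R138.Tub70 (KM32)

/-- **mixed curvatures at one level** : `kp U ~ Y` on `P`, `V` and `a` much smaller -/
structure MixD (qm qp : Fin 3 → ℝ) (K : ℝ) (L : ℕ → Ln4) (P : Finset ℕ) (cu cv : ℕ → ℕ)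
    (Uf Vf : ℕ → Plk4) (W M a w1 w2 z0 ρ zL ρL r Y : ℝ) : Prop where
  two : Two7 qm qp L P cu cv Uf Vf W M a w1 w2 z0 ρ zL ρL r
  ne : P.Nonempty
  ty : ∀ t ∈ P, TypA K W a (Uf (cu t)) (Vf (cv t)) (L t) z0 ρ
  al : ∀ t ∈ P, Al1 W (Uf (cu t)) (Vf (cv t)) (L t) a w1 w2 z0 ρ
  lo : ∀ t ∈ P, Y ≤ kp (Uf (cu t)) z0 ρ (L t)
  hi : ∀ t ∈ P, kp (Uf (cu t)) z0 ρ (L t) ≤ 2 * Y
  fl : ∀ t ∈ P, K * kp (Vf (cv t)) z0 ρ (L t) ≤ Y
  big : K * a ≤ Y

theorem MixD.mono {qm qp : Fin 3 → ℝ} {K K' : ℝ} {L : ℕ → Ln4} {P : Finset ℕ} {cu cv : ℕ → ℕ}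
    {Uf Vf : ℕ → Plk4} {W M a w1 w2 z0 ρ zL ρL r Y : ℝ}
    (h : MixD qm qp K L P cu cv Uf Vf W M a w1 w2 z0 ρ zL ρL r Y) (hK : K' ≤ K) :
    MixD qm qp K' L P cu cv Uf Vf W M a w1 w2 z0 ρ zL ρL r Y where
  two := h.two
  ne := h.ne
  ty := fun t ht => (h.ty t ht).mono h.two.to1.a0.le (by have := h.two.to1.W1; linarith) hK le_rfl
  al := h.al
  lo := h.lo
  hi := h.hi
  fl := fun t ht => by
    obtain ⟨-, p0, -, -⟩ := shp_pos h.two.to1.r0 (h.two.to1.shV t ht)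
    exact (mul_le_mul_of_nonneg_right hK (kp_nonneg p0.le z0 ρ (L t))).trans (h.fl t ht)
  big := (mul_le_mul_of_nonneg_right hK h.two.to1.a0.le).trans h.big

/-- **closeness bounds the curvature extent** (helper44) -/
def KapClose : Prop := ∃ C : ℝ, 0 ≤ C ∧ ∀ (U V : Plk4) (T : Ln4) (K E a w1 w2 z0 ρ r : ℝ),
  1 ≤ K → 0 < r → 0 < ρ → 0 < a → 0 < w1 → 0 < w2 → Shp U z0 ρ r → Shp V z0 ρ r →
  InP T U z0 ρ → InP T V z0 ρ → Dims K a w1 w2 U → Dims K a w1 w2 V →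
  angC U V * w1 ≤ K * w2 → 0 ≤ E → CloseC V.e V.w V.q V.a U.q E T z0 ρ →
  kapP U z0 ρ T ≤ (2 * K) ^ C * (E + a + kapP V z0 ρ T)

/-- **(PL)** for the curved system (helper685) -/
def PLMx : Prop := ∀ (η : ℝ) (qm qp : Fin 3 → ℝ), Ex2 η qm qp → ∃ K0 k : ℝ, 0 ≤ K0 ∧ 0 ≤ k ∧
  ∀ (L : ℕ → Ln4) (P : Finset ℕ) (cu cv : ℕ → ℕ) (Uf Vf : ℕ → Plk4)
    (W M a w1 w2 z0 ρ zL ρL r Y : ℝ),
    MixD qm qp ((2 * W) ^ K0) L P cu cv Uf Vf W M a w1 w2 z0 ρ zL ρL r Y →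
    ∀ H : ℕ, 4 ≤ H → (H : ℝ) * a ≤ Y → PLs P cu L Uf z0 ρ H ((2 * W) ^ k) M (qm 1 + qm 2)

open Classical in
/-- **hull** : number of `U`-classes met by a `V`-class (helper719) -/
def HullMx : Prop := ∀ (η : ℝ) (qm qp : Fin 3 → ℝ), Ex2 η qm qp → ∃ K0 k : ℝ, 0 ≤ K0 ∧ 0 ≤ k ∧
  ∀ (L : ℕ → Ln4) (P : Finset ℕ) (cu cv : ℕ → ℕ) (Uf Vf : ℕ → Plk4)
    (W M a w1 w2 z0 ρ zL ρL r Y : ℝ),
    MixD qm qp ((2 * W) ^ K0) L P cu cv Uf Vf W M a w1 w2 z0 ρ zL ρL r Y →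
    ∀ c, (((P.filter fun t => cv t = c).image cu).card : ℝ) ≤ (2 * W) ^ k * (Y / a) ^ (1 + qp 0)

/-- **number of boxes** of the common incidences of two classes, base `V` (helper84) -/
def NdMx : Prop := ∀ (c1 η : ℝ) (qm qp : Fin 3 → ℝ), 0 ≤ c1 → Ex2 η qm qp →
  ∃ K0 k : ℝ, 0 ≤ K0 ∧ 0 ≤ k ∧
  ∀ (L : ℕ → Ln4) (P : Finset ℕ) (cu cv : ℕ → ℕ) (Uf Vf : ℕ → Plk4)
    (W M a w1 w2 z0 ρ zL ρL r Y : ℝ),
    MixD qm qp ((2 * W) ^ K0) L P cu cv Uf Vf W M a w1 w2 z0 ρ zL ρL r Y →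
    ∀ H : ℕ, 4 ≤ H → (H : ℝ) * a ≤ Y → Y ≤ (2 * W) ^ c1 * (H * a) →
    ∀ (c c' : ℕ) (T : Finset ((ℤ × ℤ) × ℕ)), (∀ y ∈ T, ∃ t ∈ P, y.2 < H ∧ cv t = c ∧
      cu t = c' ∧ gb (Vf c).e (Vf c).c w1 w2 z0 ρ H (L t) y.2 = y.1) →
      (T.card : ℝ) ≤ (2 * W) ^ k * (1 + Real.log H) * (H : ℝ) ^ 2

section

variable {qm qp : Fin 3 → ℝ} {L : ℕ → Ln4} {P : Finset ℕ} {cu cv : ℕ → ℕ} {Uf Vf : ℕ → Plk4}
  {W M a w1 w2 z0 ρ zL ρL r Y : ℝ}

theorem near_mono {W K x y : ℝ} (hx : 0 ≤ x) (hy : 0 ≤ y) (hK : W ≤ K) (h : Near W x y) :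
    Near K x y :=
  ⟨h.1.trans (mul_le_mul_of_nonneg_right hK hy), h.2.trans (mul_le_mul_of_nonneg_right hK hx)⟩

/-- **(AL) data at every line** -/
theorem al_at (hkc : KapClose) : ∃ cA : ℝ, 2 ≤ cA ∧
    ∀ {qm qp : Fin 3 → ℝ} {L : ℕ → Ln4} {P : Finset ℕ} {cu cv : ℕ → ℕ} {Uf Vf : ℕ → Plk4}
      {W M a w1 w2 z0 ρ zL ρL r Y : ℝ},
      MixD qm qp ((2 * W) ^ cA) L P cu cv Uf Vf W M a w1 w2 z0 ρ zL ρL r Y →
      ∀ K, W ≤ K → ∀ t ∈ P,
        Al K (Y / ((2 * W) ^ cA * a)) a w1 w2 z0 ρ r (Uf (cu t)) (Vf (cv t)) (L t) := by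
  obtain ⟨C, hC, key⟩ := hkc
  refine ⟨C + 2, by linarith, ?_⟩
  intro qm qp L P cu cv Uf Vf W M a w1 w2 z0 ρ zL ρL r Y h K hK t ht
  have h1 := h.two.to1
  have W1 := h1.W1
  have W0 : 0 < W := by linarith
  have a0 := h1.a0
  have b1 : (1:ℝ) ≤ 2 * W := by linarith
  have b0 : (0:ℝ) < 2 * W := by linarith
  have pC : 0 < (2 * W) ^ C := Real.rpow_pos_of_pos b0 _
  have pA : 0 < (2 * W) ^ (C + 2) := Real.rpow_pos_of_pos b0 _
  have pA1 : 1 ≤ (2 * W) ^ (C + 2) := Real.one_le_rpow b1 (by linarith)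
  have eA : (2 * W) ^ (C + 2) = (2 * W) ^ C * (2 * W) ^ 2 := by
    rw [Real.rpow_add b0]
    congr 1
    exact_mod_cast Real.rpow_natCast (2 * W) 2
  obtain ⟨ua, uw0, u2, u1⟩ := shp_pos h1.r0 (h1.shU t ht)
  obtain ⟨va, vw0, v2, v1⟩ := shp_pos h1.r0 (h1.shV t ht)
  obtain ⟨nU0, nU1, nU2⟩ := h1.dimU t ht
  obtain ⟨nV0, nV1, nV2⟩ := h1.dimV t ht
  have hkV0 : 0 ≤ kp (Vf (cv t)) z0 ρ (L t) := kp_nonneg vw0.le z0 ρ (L t)
  have hY0 : 0 < Y := (mul_pos pA a0).trans_le h.big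
  have hEa : Y / ((2 * W) ^ (C + 2) * a) * a = Y / (2 * W) ^ (C + 2) := by
    field_simp
  have hEle : Y / (2 * W) ^ (C + 2) ≤ Y := div_le_self hY0.le pA1
  have hWaY : W * a ≤ Y := by
    refine (mul_le_mul_of_nonneg_right ?_ a0.le).trans h.big
    have : (2 * W) ^ (1:ℝ) ≤ (2 * W) ^ (C + 2) :=
      Real.rpow_le_rpow_of_exponent_le b1 (by linarith)
    rw [Real.rpow_one] at this
    linarith
  have K0 : 0 < K := by linarith
  refine
    { K1 := W1.trans hK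
      r0 := h1.r0
      ρ0 := h1.ρ0
      a0 := a0
      sh := h1.shU t ht
      sh' := h1.shV t ht
      mem := h1.inU t ht
      mem' := h1.inV t ht
      dim := ⟨near_mono a0.le ua.le hK nU0, near_mono h1.w10.le u1.le hK nU1,
        near_mono h1.w20.le u2.le hK nU2⟩
      dim' := ⟨near_mono a0.le va.le hK nV0, near_mono h1.w10.le v1.le hK nV1,
        near_mono h1.w20.le v2.le hK nV2⟩
      ang := (h.al t ht).ang.trans (mul_le_mul_of_nonneg_right hK h1.w20.le)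
      cur := ?_
      det := ((h.ty t ht).det (hWaY.trans (h.lo t ht))).mono (inv_anti₀ W0 hK)
      far := ?_ }
  · rw [hEa]
    have h2 : kp (Uf (cu t)) z0 ρ (L t) = kapP (Uf (cu t)) z0 ρ (L t) := rfl
    rw [← h2]
    have h3 := h.lo t ht
    have : kp (Uf (cu t)) z0 ρ (L t) ≤ K * kp (Uf (cu t)) z0 ρ (L t) :=
      le_mul_of_one_le_left (hY0.le.trans h3) (W1.trans hK)
    linarith
  · rintro ⟨-, hcl⟩
    rw [hEa] at hcl
    have hk := key (Uf (cu t)) (Vf (cv t)) (L t) W (Y / (2 * W) ^ (C + 2)) a w1 w2 z0 ρ r W1 h1.r0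
      h1.ρ0 a0 h1.w10 h1.w20 (h1.shU t ht) (h1.shV t ht) (h1.inU t ht) (h1.inV t ht)
      ⟨nU0, nU1, nU2⟩ ⟨nV0, nV1, nV2⟩ (h.al t ht).ang (div_nonneg hY0.le pA.le) hcl
    have e1 : a ≤ Y / (2 * W) ^ (C + 2) := by
      rw [le_div_iff₀ pA, mul_comm]; exact h.big
    have e2 : kp (Vf (cv t)) z0 ρ (L t) ≤ Y / (2 * W) ^ (C + 2) := by
      rw [le_div_iff₀ pA, mul_comm]; exact h.fl t ht
    have e3 : kapP (Vf (cv t)) z0 ρ (L t) = kp (Vf (cv t)) z0 ρ (L t) := rfl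
    have e4 : kapP (Uf (cu t)) z0 ρ (L t) = kp (Uf (cu t)) z0 ρ (L t) := rfl
    rw [e3, e4] at hk
    have h3 := h.lo t ht
    have h5 : (2 * W) ^ C * (Y / (2 * W) ^ (C + 2) + a + kp (Vf (cv t)) z0 ρ (L t)) ≤
        (2 * W) ^ C * (3 * (Y / (2 * W) ^ (C + 2))) :=
      mul_le_mul_of_nonneg_left (by linarith) pC.le
    have h6 : (2 * W) ^ C * (3 * (Y / (2 * W) ^ (C + 2))) = 3 / (2 * W) ^ 2 * Y := by
      rw [eA]; field_simp
    have h7 : 3 / (2 * W) ^ 2 ≤ 3 / 4 := by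
      apply div_le_div_of_nonneg_left (by norm_num) (by norm_num)
      nlinarith
    have h8 : 3 / (2 * W) ^ 2 * Y ≤ 3 / 4 * Y := mul_le_mul_of_nonneg_right h7 hY0.le
    linarith

/-- **mixed curvatures at one level are impossible** -/
theorem mix_false (hKM : ∀ V : ℝ, KM32 V) (hkc : KapClose) (hPL : PLMx) (hHu : HullMx)
    (hNd : NdMx) : ∃ η : ℝ, 0 < η ∧ ∀ qm qp : Fin 3 → ℝ, Ex2 η qm qp → ∃ K1 : ℝ, 0 ≤ K1 ∧
    ∀ (L : ℕ → Ln4) (P : Finset ℕ) (cu cv : ℕ → ℕ) (Uf Vf : ℕ → Plk4)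
      (W M a w1 w2 z0 ρ zL ρL r Y : ℝ),
      ¬ MixD qm qp ((2 * W) ^ K1) L P cu cv Uf Vf W M a w1 w2 z0 ρ zL ρL r Y := by
  obtain ⟨c0, hc0, hc04, core⟩ := mixed_core hKM
  obtain ⟨cA, hcA, alAt⟩ := al_at hkc
  refine ⟨c0 / 2, by linarith, fun qm qp hE => ?_⟩
  obtain ⟨hq0, hp0, hp⟩ := Bt624.ex2_p hE (by linarith : (0:ℝ) ≤ c0 / 2) le_rfl
  obtain ⟨Ka, ka, hKa, hka, pl⟩ := hPL _ qm qp hE
  obtain ⟨Kb, kb, hKb, hkb, hu⟩ := hHu _ qm qp hE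
  obtain ⟨Kc, kc, hKc, hkc', nd⟩ := hNd cA _ qm qp (by linarith) hE
  set k : ℝ := 1 + ka + (kb + cA * (1 + qp 0)) + kc with hk
  have hcq : 0 ≤ cA * (1 + qp 0) := by positivity
  obtain ⟨K, hK1, core⟩ := core (qm 1 + qm 2) (qp 0) hq0 hp0 hp k (by positivity)
  refine ⟨Ka + Kb + Kc + (cA + K + 4), by positivity, ?_⟩
  intro L P cu cv Uf Vf W M a w1 w2 z0 ρ zL ρL r Y h
  have h1 := h.two.to1
  have W1 := h1.W1
  have W0 : 0 < W := by linarith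
  have a0 := h1.a0
  have b1 : (1:ℝ) ≤ 2 * W := by linarith
  have b0 : (0:ℝ) < 2 * W := by linarith
  have pw : ∀ {x y : ℝ}, x ≤ y → (2 * W) ^ x ≤ (2 * W) ^ y := fun hxy =>
    Real.rpow_le_rpow_of_exponent_le b1 hxy
  have pp : ∀ x : ℝ, 0 < (2 * W) ^ x := fun x => Real.rpow_pos_of_pos b0 _
  have down : ∀ {x : ℝ}, x ≤ Ka + Kb + Kc + (cA + K + 4) →
      MixD qm qp ((2 * W) ^ x) L P cu cv Uf Vf W M a w1 w2 z0 ρ zL ρL r Y := fun hx =>
    h.mono (pw hx)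
  have hWk : W ≤ (2 * W) ^ k := by
    have : (2 * W) ^ (1:ℝ) ≤ (2 * W) ^ k := pw (by rw [hk]; linarith)
    rw [Real.rpow_one] at this
    linarith
  -- the levels
  set E : ℝ := Y / ((2 * W) ^ cA * a) with hEdef
  have hY : (2 * W) ^ (cA + K + 4) * a ≤ Y := (down (by linarith)).big
  have hYE : Y = (2 * W) ^ cA * (E * a) := by
    have := (pp cA).ne'
    rw [hEdef]; field_simp
  have hE4 : (2 * W) ^ (K + 4) ≤ E := by
    rw [hEdef, le_div_iff₀ (mul_pos (pp cA) a0)]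
    calc (2 * W) ^ (K + 4) * ((2 * W) ^ cA * a) = (2 * W) ^ (cA + K + 4) * a := by
          rw [show cA + K + 4 = (K + 4) + cA by ring, Real.rpow_add b0 (K + 4)]; ring
      _ ≤ Y := hY
  have hE16 : 16 ≤ E := by
    have h4 : (16:ℝ) ≤ (2 * W) ^ (4:ℝ) := by
      have : (2 * W) ^ (4:ℝ) = (2 * W) ^ 4 := by exact_mod_cast Real.rpow_natCast (2 * W) 4
      rw [this]
      calc (16:ℝ) = 2 ^ 4 := by norm_num
        _ ≤ (2 * W) ^ 4 := pow_le_pow_left₀ (by norm_num) (by linarith) 4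
    have := pw (show (4:ℝ) ≤ K + 4 by linarith)
    linarith
  have hEK : (2 * W) ^ K ≤ E := (pw (by linarith)).trans hE4
  set H : ℕ := ⌈E⌉₊ with hHdef
  have hEH : E ≤ H := Nat.le_ceil E
  have hHE : (H : ℝ) ≤ 2 * E := by
    have := Nat.ceil_lt_add_one (show 0 ≤ E by linarith)
    rw [← hHdef] at this
    linarith
  have hH16 : (16:ℝ) ≤ H := hE16.trans hEH
  have hH4 : 4 ≤ H := by
    have : (4:ℝ) ≤ H := by linarith
    exact_mod_cast this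
  have hH0 : (0:ℝ) < H := by linarith
  have hHa : (H : ℝ) * a ≤ Y := by
    rw [hYE]
    have h4 : (2 * W) ^ (1:ℝ) ≤ (2 * W) ^ cA := pw (by linarith)
    rw [Real.rpow_one] at h4
    calc (H : ℝ) * a ≤ 2 * E * a := mul_le_mul_of_nonneg_right hHE a0.le
      _ = 2 * (E * a) := by ring
      _ ≤ (2 * W) ^ cA * (E * a) :=
          mul_le_mul_of_nonneg_right (by linarith) (mul_nonneg (by linarith) a0.le)
  have hYH : Y ≤ (2 * W) ^ cA * (H * a) := by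
    rw [hYE]
    exact mul_le_mul_of_nonneg_left (mul_le_mul_of_nonneg_right hEH a0.le) (pp cA).le
  refine core W E a M w1 w2 z0 ρ r H P cu cv L Uf Vf W1 hEK hEH hHE h1.M0 h.ne ?_ ?_ ?_ ?_ ?_
  · intro t ht
    exact (h1.fullV t ht).trans (mul_le_mul_of_nonneg_right hWk (Nat.cast_nonneg _))
  · exact alAt (down (x := cA) (by linarith)) _ hWk
  · have := pl L P cu cv Uf Vf W M a w1 w2 z0 ρ zL ρL r Y (down (by linarith)) H hH4 hHa
    intro c e s p0 v0 hs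
    refine (this c e s p0 v0 hs).trans ?_
    have hs0 : ∀ j, 0 ≤ s j := fun j => le_trans (by positivity) (hs j).1
    have hm : 0 ≤ max (s 0) (s 1) := (hs0 0).trans (le_max_left _ _)
    have hM := h1.M0
    refine mul_le_mul_of_nonneg_right (mul_le_mul_of_nonneg_right (mul_le_mul_of_nonneg_right
      (pw (by rw [hk]; linarith)) (mul_nonneg (hs0 0) (hs0 1))) (Real.rpow_nonneg hm _)) hM.le
  · intro c
    refine (hu L P cu cv Uf Vf W M a w1 w2 z0 ρ zL ρL r Y (down (by linarith)) c).trans ?_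
    have e1 : Y / a = (2 * W) ^ cA * E := by rw [hYE]; field_simp
    have e2 : (Y / a) ^ (1 + qp 0) ≤ (2 * W) ^ (cA * (1 + qp 0)) * (H : ℝ) ^ (1 + qp 0) := by
      rw [e1, Real.rpow_mul b0.le, ← Real.mul_rpow (pp cA).le hH0.le]
      refine Real.rpow_le_rpow (mul_nonneg (pp cA).le (by linarith)) ?_ (by linarith)
      exact mul_le_mul_of_nonneg_left hEH (pp cA).le
    calc (2 * W) ^ kb * (Y / a) ^ (1 + qp 0)
        ≤ (2 * W) ^ kb * ((2 * W) ^ (cA * (1 + qp 0)) * (H : ℝ) ^ (1 + qp 0)) :=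
          mul_le_mul_of_nonneg_left e2 (pp kb).le
      _ = (2 * W) ^ (kb + cA * (1 + qp 0)) * (H : ℝ) ^ (1 + qp 0) := by
          rw [Real.rpow_add b0]; ring
      _ ≤ _ := mul_le_mul_of_nonneg_right (pw (by rw [hk]; linarith)) (Real.rpow_nonneg hH0.le _)
  · intro c c' T hT
    refine (nd L P cu cv Uf Vf W M a w1 w2 z0 ρ zL ρL r Y (down (by linarith)) H hH4 hHa hYH c c'
      T hT).trans ?_
    have hl : 0 ≤ Real.log H := Real.log_nonneg (by linarith)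
    exact mul_le_mul_of_nonneg_right (mul_le_mul_of_nonneg_right
      (pw (by rw [hk]; linarith)) (by linarith)) (by positivity)

/-- **outer part of case (A)** : mixed curvatures are impossible -/
theorem ubalA_of (hKM : ∀ V : ℝ, KM32 V) (hkc : KapClose) (hPL : PLMx) (hHu : HullMx)
    (hNd : NdMx) : UBalA Al1 := by
  obtain ⟨η, hη, key⟩ := mix_false hKM hkc hPL hHu hNd
  refine ⟨η, hη, fun qm qp hE => ?_⟩
  obtain ⟨K1, hK1, key⟩ := key qm qp hE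
  refine ⟨9 * K1, 9 * K1 + 1, by positivity, by positivity, ?_⟩
  intro L P cu cv Uf Vf W M a w1 w2 z0 ρ zL ρL r h hne hT hA
  by_contra hcon
  push Not at hcon
  have h1 := h.to1
  have W1 := h1.W1
  have W0 : 0 < W := by linarith
  have a0 := h1.a0
  have b1 : (1:ℝ) ≤ 2 * W := by linarith
  have b0 : (0:ℝ) < 2 * W := by linarith
  have p9 : 0 < (2 * W) ^ (9 * K1) := Real.rpow_pos_of_pos b0 _
  have e9 : (2 * W) ^ (9 * K1 + 1) = (2 * W) ^ (9 * K1) * (2 * W) := by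
    rw [Real.rpow_add b0, Real.rpow_one]
  obtain ⟨P', hP', hne', hP1, YU, YV, hYU, hYV, hU, hV⟩ := ylevel2 h1 hne
  have h8 : (2 * W) ^ (8 : ℝ) ≤ lift W 9 := by
    have := rpow_le_lift (c := 8) W1
    norm_num at this ⊢
    exact this
  have hl := le_lift (c := 9) W1 (by norm_num)
  have hl0 : 0 < lift W 9 := by linarith
  -- `kp U` beats `a` and `kp V`
  have kbig : ∀ t ∈ P, 2 * ((2 * W) ^ (9 * K1) * max a (kp (Vf (cv t)) z0 ρ (L t))) ≤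
      kp (Uf (cu t)) z0 ρ (L t) := by
    intro t ht
    have h2 := (hcon t ht).le
    rw [e9] at h2
    have hmx : 0 ≤ max a (kp (Vf (cv t)) z0 ρ (L t)) := a0.le.trans (le_max_left _ _)
    have h3 : 0 ≤ (2 * W) ^ (9 * K1) * max a (kp (Vf (cv t)) z0 ρ (L t)) := mul_nonneg p9.le hmx
    nlinarith
  have kU : ∀ t ∈ P, max a (kp (Uf (cu t)) z0 ρ (L t)) = kp (Uf (cu t)) z0 ρ (L t) := by
    intro t ht
    apply max_eq_right
    have h2 := kbig t ht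
    have h3 : 1 ≤ (2 * W) ^ (9 * K1) := Real.one_le_rpow b1 (by positivity)
    have h4 : a ≤ max a (kp (Vf (cv t)) z0 ρ (L t)) := le_max_left _ _
    have h5 : a ≤ (2 * W) ^ (9 * K1) * max a (kp (Vf (cv t)) z0 ρ (L t)) := by nlinarith
    linarith
  have mx : ∀ t ∈ P', (2 * W) ^ (9 * K1) * max a (kp (Vf (cv t)) z0 ρ (L t)) ≤ YU := by
    intro t ht
    have h2 := kbig t (hP' ht)
    have h3 := (hU t ht).2
    rw [kU t (hP' ht)] at h3
    linarith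
  refine key L P' cu cv Uf Vf (lift W 9) M a w1 w2 z0 ρ zL ρL r YU ?_
  rw [rpow_two_lift W1]
  refine
    { two := Bl5667.Two7.sub h hP' (Bl5667.Two1.mono hP1 h8)
      ne := hne'
      ty := fun t ht => (hT t (hP' ht)).mono a0.le W0 le_rfl hl
      al := fun t ht => Bl5667.al1_mono W0 hl h1.r0 h1.w20.le (h1.shU t (hP' ht))
        (h1.shV t (hP' ht)) (hA t (hP' ht))
      lo := fun t ht => by
        have := (hU t ht).1
        rwa [kU t (hP' ht)] at this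
      hi := fun t ht => by
        have := (hU t ht).2
        rwa [kU t (hP' ht)] at this
      fl := fun t ht => (mul_le_mul_of_nonneg_left (le_max_right _ _) p9.le).trans (mx t ht)
      big := ?_ }
  obtain ⟨t, ht⟩ := hne'
  exact (mul_le_mul_of_nonneg_left (le_max_left _ _) p9.le).trans (mx t ht)

end

end Crest.Agent.R136.Amx325
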