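import Crest.Agent.R136.Sa8_214

/-!
# R136 / U5 (crude tilt, piece (A) of helper705's plan), helper335: the angle, finite part

* `spread` : lines of a sheet `S` which are not contained in a strip of half-width `G w₁` along `e 1`
  and lie in a slab `|f · (x - c')| ≤ B`: `|f · e 1| G w₁ ≤ 2 B + 4 w₂`.
* `pair_ang` : the long axes of two sheets which are both almost orthogonal to the short axes of a
  third frame.
-/

set_option autoImplicit false

namespace Crest.Agent.R136.Ang335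

open Finset Crest.Agent.R136.Sh605 Crest.Agent.R136.Sa705

theorem dt_ex {e : Fin 3 → V3} (h : Ortho e) (x u : V3) :
    dt x u = dt x (e 0) * dt (e 0) u + dt x (e 1) * dt (e 1) u + dt x (e 2) * dt (e 2) u := by
  have h0 := h.expand u 0
  have h1 := h.expand u 1
  have h2 := h.expand u 2
  have : dt x u = x 0 * u 0 + x 1 * u 1 + x 2 * u 2 := rfl
  rw [this, h0, h1, h2]
  simp only [dt]
  ring

theorem dt_sub' (x y z c : V3) : dt x (y - z) = dt x (y - c) - dt x (z - c) := by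
  simp only [dt, Pi.sub_apply]; ring

theorem dt_one {x y : V3} (hx : dt x x = 1) (hy : dt y y = 1) : |dt x y| ≤ 1 := by
  have h3 : 0 ≤ dt (x - y) (x - y) := by
    simp only [dt]; nlinarith [sq_nonneg ((x - y) 0), sq_nonneg ((x - y) 1),
      sq_nonneg ((x - y) 2)]
  have h4 : 0 ≤ dt (x + y) (x + y) := by
    simp only [dt]; nlinarith [sq_nonneg ((x + y) 0), sq_nonneg ((x + y) 1),
      sq_nonneg ((x + y) 2)]
  have e3 : dt (x - y) (x - y) = dt x x + dt y y - 2 * dt x y := by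
    simp only [dt, Pi.sub_apply]; ring
  have e4 : dt (x + y) (x + y) = dt x x + dt y y + 2 * dt x y := by
    simp only [dt, Pi.add_apply]; ring
  rw [e3, hx, hy] at h3
  rw [e4, hx, hy] at h4
  rw [abs_le]; constructor <;> linarith

/-- two points of a plank, far along `e 1`, both in a slab -/
theorem spread_two {e : Fin 3 → V3} (he : Ortho e) {c c' X Y f : V3} {w : V3} {B γ : ℝ}
    (hf : dt f f = 1) (hX : ∀ i, |dt (e i) (X - c)| ≤ w i) (hY : ∀ i, |dt (e i) (Y - c)| ≤ w i)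
    (hw : w 0 ≤ w 2) (fX : |dt f (X - c')| ≤ B) (fY : |dt f (Y - c')| ≤ B)
    (hγ : γ ≤ |dt (e 1) (X - Y)|) : |dt f (e 1)| * γ ≤ 2 * B + 4 * w 2 := by
  have h1 : ∀ i, dt (e i) (e i) = 1 := fun i => by simpa using he i i
  have d : ∀ i, |dt (e i) (X - Y)| ≤ 2 * w i := by
    intro i
    rw [dt_sub' (e i) X Y c]
    have := abs_sub (dt (e i) (X - c)) (dt (e i) (Y - c))
    linarith [hX i, hY i]
  have df : |dt f (X - Y)| ≤ 2 * B := by
    rw [dt_sub' f X Y c']
    have := abs_sub (dt f (X - c')) (dt f (Y - c'))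
    linarith
  have e1 : dt f (e 1) * dt (e 1) (X - Y) = dt f (X - Y) - dt f (e 0) * dt (e 0) (X - Y) -
      dt f (e 2) * dt (e 2) (X - Y) := by
    have := dt_ex he f (X - Y)
    linarith
  have k : ∀ i, |dt f (e i) * dt (e i) (X - Y)| ≤ 2 * w i := by
    intro i
    rw [abs_mul]
    calc |dt f (e i)| * |dt (e i) (X - Y)| ≤ 1 * (2 * w i) :=
          mul_le_mul (dt_one hf (h1 i)) (d i) (abs_nonneg _) (by norm_num)
      _ = _ := one_mul _
  calc |dt f (e 1)| * γ ≤ |dt f (e 1)| * |dt (e 1) (X - Y)| :=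
        mul_le_mul_of_nonneg_left hγ (abs_nonneg _)
    _ = |dt f (X - Y) - dt f (e 0) * dt (e 0) (X - Y) - dt f (e 2) * dt (e 2) (X - Y)| := by
        rw [← abs_mul, e1]
    _ ≤ |dt f (X - Y)| + |dt f (e 0) * dt (e 0) (X - Y)| + |dt f (e 2) * dt (e 2) (X - Y)| :=
        (abs_sub _ _).trans (add_le_add (abs_sub _ _) le_rfl)
    _ ≤ 2 * B + 4 * w 2 := by linarith [k 0, k 2]

section

variable {ι : Type*} {A : Finset ι} {Lf : ι → Ln4} {e : Fin 3 → V3} {c : Ln4} {w : V3}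
    {q : ℝ → V3 → ℝ} {a z0 ρ r0 : ℝ}

open Classical in
/-- **spread**: if no strip of half-width `G w₁` around a line of `A` contains all the lines of `A` -/
theorem spread (S : ShN e c w q a z0 ρ r0) (ha : 0 < a)
    (hA : ∀ u ∈ A, InSheet (Lf u) e c w q a z0 ρ) {U : ι} (hU : U ∈ A) {f : V3}
    (hf : dt f f = 1) {c' : ℝ → V3} {B : ℝ} (hB0 : 0 ≤ B)
    (hB : ∀ u ∈ A, ∀ z, z0 ≤ z → z ≤ z0 + ρ → |dt f ((Lf u).pos z - c' z)| ≤ B)
    {G : ℝ} (hG : 0 < G) (hG2 : 2 * G ≤ 1)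
    (htest : ShN e (Sa705.ctr e c (Lf U)) (wst w G) q a z0 ρ r0 →
      ((A.filter fun u => InSheet (Lf u) e (Sa705.ctr e c (Lf U)) (wst w G) q a z0 ρ).card : ℝ) <
        A.card) :
    |dt f (e 1)| * (G * w 1) ≤ 2 * B + 4 * w 2 := by
  have hw0 : 0 < w 0 := ha.trans_le S.a_le0
  have hw2' : 0 < w 2 := hw0.trans_le S.w0_le
  have h1 : ∀ i, dt (e i) (e i) = 1 := fun i => by simpa using S.ortho i i
  rcases le_or_gt (w 2) (G * w 1) with hw2 | hw2
  · have hS := strip_ShN S ha (hA U hU) hG hG2 hw2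
    have hlt := htest hS
    have hex : ∃ u ∈ A, ¬ InSheet (Lf u) e (Sa705.ctr e c (Lf U)) (wst w G) q a z0 ρ := by
      by_contra hc
      push Not at hc
      rw [filter_true_of_mem hc] at hlt
      exact lt_irrefl _ hlt
    obtain ⟨u, hu, hnu⟩ := hex
    have hfar : ∃ z, z0 ≤ z ∧ z ≤ z0 + ρ ∧ G * w 1 < |dt (e 1) ((Lf u).pos z - (Lf U).pos z)| := by
      by_contra hc
      push Not at hc
      exact hnu (in_strip S.ortho (hA u hu) hc)
    obtain ⟨z, g1, g2, g3⟩ := hfar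
    exact spread_two S.ortho hf (hA u hu z g1 g2).1 (hA U hU z g1 g2).1 S.w0_le
      (hB u hu z g1 g2) (hB U hU z g1 g2) g3.le
  · have h2 := dt_one hf (h1 1)
    have h3 : |dt f (e 1)| * (G * w 1) ≤ 1 * w 2 :=
      mul_le_mul h2 hw2.le (by
        have := S.w_le
        have : 0 < w 1 := hw2'.trans_le this
        positivity) (by norm_num)
    linarith

end

/-- **pairs**: two long axes, both almost orthogonal to the axes `g 0`, `g 2` -/
theorem pair_ang {g e e' : Fin 3 → V3} (hg : Ortho g) (he : Ortho e) (he' : Ortho e') {ε ε' : ℝ}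
    (h0 : |dt (g 0) (e 1)| ≤ ε) (h2 : |dt (g 2) (e 1)| ≤ ε)
    (h0' : |dt (g 0) (e' 1)| ≤ ε') (h2' : |dt (g 2) (e' 1)| ≤ ε') {i : Fin 3} (hi : i ≠ 1) :
    |dt (e 1) (e' i)| ≤ 2 * ε + 4 * ε' := by
  have hε : 0 ≤ ε := (abs_nonneg _).trans h0
  have hε' : 0 ≤ ε' := (abs_nonneg _).trans h0'
  have u1 : ∀ i, dt (g i) (g i) = 1 := fun i => by simpa using hg i i
  have u2 : ∀ i, dt (e i) (e i) = 1 := fun i => by simpa using he i i
  have u3 : ∀ i, dt (e' i) (e' i) = 1 := fun i => by simpa using he' i i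
  have cm : ∀ x y : V3, dt x y = dt y x := by intro x y; simp only [dt]; ring
  -- the axis `g 1` is almost orthogonal to `e' i`
  have k1 : |dt (g 1) (e' i)| ≤ 4 * ε' := by
    rcases le_or_gt ε' (1 / 2) with hs | hs
    · have o1 : dt (e' i) (e' 1) = 0 := by simpa [hi] using he' i 1
      have x1 := dt_ex hg (e' i) (e' 1)
      have x2 := dt_ex hg (e' 1) (e' 1)
      rw [o1] at x1
      rw [u3 1] at x2
      rw [cm (e' 1) (g 0), cm (e' 1) (g 1), cm (e' 1) (g 2)] at x2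
      rw [cm (e' i) (g 0), cm (e' i) (g 1), cm (e' i) (g 2)] at x1
      have y0 : dt (g 0) (e' 1) * dt (g 0) (e' 1) ≤ 1 / 4 := by
        have := abs_le.1 (h0'.trans hs); nlinarith [this.1, this.2]
      have y2 : dt (g 2) (e' 1) * dt (g 2) (e' 1) ≤ 1 / 4 := by
        have := abs_le.1 (h2'.trans hs); nlinarith [this.1, this.2]
      have y1 : (1 / 2 : ℝ) ≤ dt (g 1) (e' 1) * dt (g 1) (e' 1) := by linarith
      have y1' : (1 / 2 : ℝ) ≤ |dt (g 1) (e' 1)| := by
        by_contra hc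
        push Not at hc
        have := abs_lt.1 hc
        nlinarith [this.1, this.2]
      have z1 : |dt (g 1) (e' i) * dt (g 1) (e' 1)| ≤ 2 * ε' := by
        have : dt (g 1) (e' i) * dt (g 1) (e' 1) = -(dt (g 0) (e' i) * dt (g 0) (e' 1)) -
            dt (g 2) (e' i) * dt (g 2) (e' 1) := by linarith
        rw [this]
        refine (abs_sub _ _).trans ?_
        rw [abs_neg, abs_mul, abs_mul]
        have a0 : |dt (g 0) (e' i)| * |dt (g 0) (e' 1)| ≤ 1 * ε' :=
          mul_le_mul (dt_one (u1 0) (u3 i)) h0' (abs_nonneg _) (by norm_num)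
        have a2 : |dt (g 2) (e' i)| * |dt (g 2) (e' 1)| ≤ 1 * ε' :=
          mul_le_mul (dt_one (u1 2) (u3 i)) h2' (abs_nonneg _) (by norm_num)
        linarith
      rw [abs_mul] at z1
      have z2 : |dt (g 1) (e' i)| * (1 / 2) ≤ |dt (g 1) (e' i)| * |dt (g 1) (e' 1)| :=
        mul_le_mul_of_nonneg_left y1' (abs_nonneg _)
      linarith
    · have := dt_one (u1 1) (u3 i)
      linarith
  have x := dt_ex hg (e 1) (e' i)
  rw [cm (e 1) (g 0), cm (e 1) (g 1), cm (e 1) (g 2)] at x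
  rw [x]
  refine (abs_add_le _ _).trans ((add_le_add (abs_add_le _ _) le_rfl).trans ?_)
  rw [abs_mul, abs_mul, abs_mul]
  have b0 : |dt (g 0) (e 1)| * |dt (g 0) (e' i)| ≤ ε * 1 :=
    mul_le_mul h0 (dt_one (u1 0) (u3 i)) (abs_nonneg _) hε
  have b1 : |dt (g 1) (e 1)| * |dt (g 1) (e' i)| ≤ 1 * (4 * ε') :=
    mul_le_mul (dt_one (u1 1) (u2 1)) k1 (abs_nonneg _) (by norm_num)
  have b2 : |dt (g 2) (e 1)| * |dt (g 2) (e' i)| ≤ ε * 1 :=
    mul_le_mul h2 (dt_one (u1 2) (u3 i)) (abs_nonneg _) hε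
  linarith

end Crest.Agent.R136.Ang335
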