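import Crest.Agent.R136.Nd1_565

/-!
# R136 / U5, non-degeneracy (214's (3.0)), Dg3: cells, common cells and the abstract conclusion
(helper335)

Lines are given by their normalised lateral coordinates `x k t + (s / 128) v k t` (`k = 1, 2`) at the
height `s ∈ [0, 1]` of a sub-cell (`v` = velocity with respect to the full cell, which is `128` times
longer). `nd_abs`: if in every small cell (side `2^{-J}`) a quarter of the pairs is in the relation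
`St`, and the lines in relation with a given line, meeting it in a small cell, with angle at most
`2^{-j}`, are at most `S 2^{-(1+q) j}`, then `#A ≤ C S (1 - 2^{-q})⁻¹ 2^J`.
-/

set_option autoImplicit false
set_option linter.unusedVariables false

open Finset

namespace Crest.Agent.R136.Ndc335

/-- a set of naturals of small diameter -/
theorem card_le_of_diam (I : Finset ℕ) (M : ℕ) (h : ∀ i ∈ I, ∀ i' ∈ I, i' < i + M) :
    I.card ≤ M := by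
  rcases I.eq_empty_or_nonempty with h0 | hne
  · rw [h0]; simp
  · have hsub : I ⊆ Ico (I.min' hne) (I.min' hne + M) := by
      intro i hi
      exact mem_Ico.2 ⟨I.min'_le i hi, h _ (I.min'_mem hne) i hi⟩
    refine (card_le_card hsub).trans ?_
    rw [Nat.card_Ico]; omega

/-- equal codes: close -/
theorem close_of_floor {J : ℕ} {x y : ℝ} (h : ⌊(2:ℝ) ^ J * x⌋ = ⌊(2:ℝ) ^ J * y⌋) :
    |x - y| ≤ 1 / 2 ^ J := by
  have h1 := Int.abs_sub_lt_one_of_floor_eq_floor h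
  have hp : (0:ℝ) < 2 ^ J := by positivity
  rw [← mul_sub, abs_mul, abs_of_pos hp] at h1
  rw [le_div_iff₀ hp]
  linarith

/-- range of the codes -/
theorem floor_mem {J : ℕ} {x : ℝ} (h : |x| ≤ 1) :
    ⌊(2:ℝ) ^ J * x⌋ ∈ Icc (-(2:ℤ) ^ J) (2 ^ J) := by
  have hp : (0:ℝ) < 2 ^ J := by positivity
  have h1 := abs_le.1 h
  rw [mem_Icc]
  constructor
  · rw [Int.le_floor]; push_cast; nlinarith
  · have : ⌊(2:ℝ) ^ J * x⌋ ≤ ⌊((2:ℤ) ^ J : ℝ)⌋ := by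
      apply Int.floor_le_floor
      push_cast; nlinarith
    have h2 : ⌊((2:ℤ) ^ J : ℝ)⌋ = (2:ℤ) ^ J := by
      have : ((2:ℤ) ^ J : ℝ) = (((2:ℤ) ^ J : ℤ) : ℝ) := by push_cast; rfl
      rw [this, Int.floor_intCast]
    omega

section main

variable {ι : Type*} (x1 x2 v1 v2 : ι → ℝ) (J : ℕ)

/-- incidence of a line and a small cell -/
def inc (t : ι) (x : ℕ × ℤ × ℤ) : Prop :=
  ⌊(2:ℝ) ^ J * (x1 t + ((x.1 : ℝ) / 2 ^ J) / 128 * v1 t)⌋ = x.2.1 ∧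
    ⌊(2:ℝ) ^ J * (x2 t + ((x.1 : ℝ) / 2 ^ J) / 128 * v2 t)⌋ = x.2.2

/-- the small cells -/
noncomputable def cells : Finset (ℕ × ℤ × ℤ) :=
  range (2 ^ J) ×ˢ (Icc (-(2:ℤ) ^ J) (2 ^ J) ×ˢ Icc (-(2:ℤ) ^ J) (2 ^ J))

theorem card_cells : ((cells J).card : ℝ) ≤ 9 * 8 ^ J := by
  unfold cells
  rw [card_product, card_product, card_range, Int.card_Icc]
  have h1 : ((2:ℤ) ^ J + 1 - -(2:ℤ) ^ J).toNat = 2 * 2 ^ J + 1 := by
    have : (2:ℤ) ^ J + 1 - -(2:ℤ) ^ J = ((2 * 2 ^ J + 1 : ℕ) : ℤ) := by push_cast; ring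
    rw [this, Int.toNat_natCast]
  rw [h1]
  push_cast
  have hp : (1:ℝ) ≤ 2 ^ J := one_le_pow₀ (by norm_num)
  have h8 : (8:ℝ) ^ J = 2 ^ J * 2 ^ J * 2 ^ J := by
    rw [← mul_pow, ← mul_pow]; norm_num
  rw [h8]
  have h2 : (2 * 2 ^ J + 1 : ℝ) ≤ 3 * 2 ^ J := by linarith
  calc (2:ℝ) ^ J * ((2 * 2 ^ J + 1) * (2 * 2 ^ J + 1)) ≤ 2 ^ J * ((3 * 2 ^ J) * (3 * 2 ^ J)) := by
        gcongr
    _ = _ := by ring

/-- dyadic angle of two lines, at most `J` -/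
noncomputable def ang (t t' : ι) : ℕ := by
  classical
  exact Nat.findGreatest (fun k => |v1 t' - v1 t| ≤ 1 / 2 ^ k ∧ |v2 t' - v2 t| ≤ 1 / 2 ^ k) J

theorem ang_le (t t' : ι) : ang v1 v2 J t t' ≤ J := by
  classical
  unfold ang
  exact Nat.findGreatest_le J

theorem ang_spec {t t' : ι} (h1 : |v1 t' - v1 t| ≤ 1) (h2 : |v2 t' - v2 t| ≤ 1) :
    |v1 t' - v1 t| ≤ 1 / 2 ^ (ang v1 v2 J t t') ∧ |v2 t' - v2 t| ≤ 1 / 2 ^ (ang v1 v2 J t t') := by
  classical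
  unfold ang
  exact Nat.findGreatest_spec (P := fun k => |v1 t' - v1 t| ≤ 1 / 2 ^ k ∧
    |v2 t' - v2 t| ≤ 1 / 2 ^ k) (Nat.zero_le J) (by simpa using ⟨h1, h2⟩)

theorem ang_lt {t t' : ι} (h : ang v1 v2 J t t' < J) :
    1 / 2 ^ (ang v1 v2 J t t' + 1) < |v1 t' - v1 t| ∨
      1 / 2 ^ (ang v1 v2 J t t' + 1) < |v2 t' - v2 t| := by
  classical
  by_contra hc
  push Not at hc
  have h1 := Nat.findGreatest_is_greatest (P := fun k => |v1 t' - v1 t| ≤ 1 / 2 ^ k ∧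
    |v2 t' - v2 t| ≤ 1 / 2 ^ k) (n := J) (k := ang v1 v2 J t t' + 1)
    (by unfold ang; exact Nat.lt_succ_self _) h
  exact h1 hc

/-- heights at which two affine functions of relative slope `u` are close -/
theorem few_heights {d u : ℝ} {k : ℕ} (hu : 1 / 2 ^ (k + 1) < |u|) (I : Finset ℕ)
    (hI : ∀ i ∈ I, |d + ((i : ℝ) / 2 ^ J) / 128 * u| ≤ 1 / 2 ^ J) : I.card ≤ 513 * 2 ^ k := by
  refine card_le_of_diam I _ fun i hi i' hi' => ?_
  by_contra hc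
  rw [not_lt] at hc
  have h1 := hI i hi
  have h2 := hI i' hi'
  have hp : (0:ℝ) < 2 ^ J := by positivity
  have hk : (0:ℝ) < 2 ^ k := by positivity
  have hc' : (i:ℝ) + 513 * 2 ^ k ≤ i' := by exact_mod_cast hc
  have h3 : |((i':ℝ) - i) / 2 ^ J / 128 * u| ≤ 2 / 2 ^ J := by
    have e1 : ((i':ℝ) - i) / 2 ^ J / 128 * u = (d + ((i' : ℝ) / 2 ^ J) / 128 * u) -
        (d + ((i : ℝ) / 2 ^ J) / 128 * u) := by ring
    rw [e1]
    refine (abs_sub _ _).trans ?_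
    have : (2:ℝ) / 2 ^ J = 1 / 2 ^ J + 1 / 2 ^ J := by ring
    rw [this]; linarith
  have hii : (513:ℝ) * 2 ^ k ≤ (i':ℝ) - i := by linarith
  have hii0 : (0:ℝ) ≤ (i':ℝ) - i := by linarith [mul_pos (by norm_num : (0:ℝ) < 513) hk]
  have hnn : 0 ≤ ((i':ℝ) - i) / 2 ^ J / 128 := by positivity
  rw [abs_mul, abs_of_nonneg hnn] at h3
  have h4 : 513 * 2 ^ k / 2 ^ J / 128 * (1 / 2 ^ (k + 1)) ≤ ((i':ℝ) - i) / 2 ^ J / 128 * |u| := by
    refine mul_le_mul ?_ hu.le (by positivity) hnn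
    gcongr
  have e2 : (513:ℝ) * 2 ^ k / 2 ^ J / 128 * (1 / 2 ^ (k + 1)) = (513 / 256) / 2 ^ J := by
    rw [pow_succ]; field_simp; norm_num
  rw [e2] at h4
  have h5 : (513 / 256 : ℝ) / 2 ^ J ≤ 2 / 2 ^ J := h4.trans h3
  have h6 : (513 / 256 : ℝ) ≤ 2 := by
    by_contra hcc
    rw [not_le] at hcc
    exact absurd h5 (not_le.2 (div_lt_div_of_pos_right hcc hp))
  norm_num at h6

open Classical in
/-- **(b)** common cells -/
theorem common {t t' : ι} :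
    (((cells J).filter fun x => inc x1 x2 v1 v2 J t x ∧ inc x1 x2 v1 v2 J t' x).card : ℝ) ≤
      513 * 2 ^ (ang v1 v2 J t t') := by
  set F := (cells J).filter fun x => inc x1 x2 v1 v2 J t x ∧ inc x1 x2 v1 v2 J t' x with hF
  set I := F.image Prod.fst with hI
  have hinj : F.card = I.card := by
    rw [hI, card_image_of_injOn]
    intro x hx y hy hxy
    rw [hF, mem_coe, mem_filter] at hx hy
    obtain ⟨-, ⟨a1, a2⟩, -⟩ := hx
    obtain ⟨-, ⟨b1, b2⟩, -⟩ := hy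
    have hxy' : x.1 = y.1 := hxy
    refine Prod.ext hxy' (Prod.ext ?_ ?_)
    · rw [← a1, ← b1, hxy']
    · rw [← a2, ← b2, hxy']
  have hcl : ∀ i ∈ I, |(x1 t' - x1 t) + ((i : ℝ) / 2 ^ J) / 128 * (v1 t' - v1 t)| ≤ 1 / 2 ^ J ∧
      |(x2 t' - x2 t) + ((i : ℝ) / 2 ^ J) / 128 * (v2 t' - v2 t)| ≤ 1 / 2 ^ J := by
    intro i hi
    rw [hI, mem_image] at hi
    obtain ⟨x, hx, rfl⟩ := hi
    rw [hF, mem_filter] at hx
    obtain ⟨-, ⟨a1, a2⟩, ⟨b1, b2⟩⟩ := hx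
    constructor
    · have := close_of_floor (b1.trans a1.symm)
      convert this using 2; ring
    · have := close_of_floor (b2.trans a2.symm)
      convert this using 2; ring
  rw [hinj]
  rcases lt_or_eq_of_le (ang_le v1 v2 J t t') with hlt | heq
  · rcases ang_lt v1 v2 J hlt with h | h
    · have := few_heights J h I fun i hi => (hcl i hi).1
      exact_mod_cast this
    · have := few_heights J h I fun i hi => (hcl i hi).2
      exact_mod_cast this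
  · rw [heq]
    have hsub : I ⊆ range (2 ^ J) := by
      intro i hi
      rw [hI, mem_image] at hi
      obtain ⟨x, hx, rfl⟩ := hi
      rw [hF, mem_filter, cells, mem_product] at hx
      exact hx.1.1
    have h1 := card_le_card hsub
    rw [card_range] at h1
    have h2 : (I.card : ℝ) ≤ 2 ^ J := by exact_mod_cast h1
    have h3 : (0:ℝ) < 2 ^ J := by positivity
    linarith

open Classical in
/-- **(a)** every line meets `2^J` cells -/
theorem meets {t : ι} (h1 : ∀ s : ℝ, 0 ≤ s → s ≤ 1 → |x1 t + s / 128 * v1 t| ≤ 1)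
    (h2 : ∀ s : ℝ, 0 ≤ s → s ≤ 1 → |x2 t + s / 128 * v2 t| ≤ 1) :
    (2:ℝ) ^ J ≤ (((cells J).filter fun x => inc x1 x2 v1 v2 J t x).card : ℝ) := by
  have hsub : (range (2 ^ J)).image (fun i : ℕ =>
      (i, ⌊(2:ℝ) ^ J * (x1 t + ((i : ℝ) / 2 ^ J) / 128 * v1 t)⌋,
        ⌊(2:ℝ) ^ J * (x2 t + ((i : ℝ) / 2 ^ J) / 128 * v2 t)⌋)) ⊆
      (cells J).filter fun x => inc x1 x2 v1 v2 J t x := by
    intro x hx
    rw [mem_image] at hx
    obtain ⟨i, hi, rfl⟩ := hx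
    rw [mem_range] at hi
    have hp : (0:ℝ) < 2 ^ J := by positivity
    have hs : (i:ℝ) / 2 ^ J ≤ 1 := by
      rw [div_le_one hp]; exact_mod_cast hi.le
    have hs0 : (0:ℝ) ≤ (i:ℝ) / 2 ^ J := by positivity
    rw [mem_filter, cells, mem_product, mem_product]
    exact ⟨⟨mem_range.2 hi, floor_mem (h1 _ hs0 hs), floor_mem (h2 _ hs0 hs)⟩, rfl, rfl⟩
  have hc := card_le_card hsub
  rw [card_image_of_injective _ (fun i j hij => (Prod.ext_iff.1 hij).1), card_range] at hc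
  exact_mod_cast hc

/-- popular fibre -/
theorem exists_fiber {κ : Type*} [DecidableEq κ] (A : Finset ι) (f : ι → κ) (T : Finset κ)
    (hT : T.Nonempty) (h : ∀ t ∈ A, f t ∈ T) :
    ∃ y ∈ T, (A.card : ℝ) ≤ T.card * ((A.filter fun t => f t = y).card : ℝ) := by
  have hpos : (0:ℝ) < T.card := by exact_mod_cast hT.card_pos
  obtain ⟨y, hy, h1⟩ := exists_le_card_fiber_of_nsmul_le_card_of_maps_to (b := (A.card : ℝ) / T.card)
    h hT (by rw [nsmul_eq_mul]; field_simp; exact le_refl _)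
  refine ⟨y, hy, ?_⟩
  rw [div_le_iff₀ hpos] at h1
  linarith

open Classical in
/-- pigeonhole on the velocities -/
theorem vel_fiber (A : Finset ι) (n : ℕ) (hn : 0 < n) (hv1 : ∀ t ∈ A, |v1 t| ≤ 2)
    (hv2 : ∀ t ∈ A, |v2 t| ≤ 2) :
    ∃ A' ⊆ A, (A.card : ℝ) ≤ (4 * n + 1) ^ 2 * (A'.card : ℝ) ∧
      ∀ t ∈ A', ∀ t' ∈ A', |v1 t' - v1 t| ≤ 1 / n ∧ |v2 t' - v2 t| ≤ 1 / n := by
  have hn' : (0:ℝ) < n := by exact_mod_cast hn
  have hcode : ∀ v : ℝ, |v| ≤ 2 → ⌊(n:ℝ) * v⌋ ∈ Icc (-(2 * n) : ℤ) (2 * n) := by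
    intro v hv
    have := abs_le.1 hv
    rw [mem_Icc]
    constructor
    · rw [Int.le_floor]; push_cast; nlinarith
    · have h1 : ⌊(n:ℝ) * v⌋ ≤ ⌊((2 * n : ℤ) : ℝ)⌋ := Int.floor_le_floor (by push_cast; nlinarith)
      rw [Int.floor_intCast] at h1
      exact h1
  obtain ⟨y, hy, hA'⟩ := exists_fiber A (fun t => (⌊(n:ℝ) * v1 t⌋, ⌊(n:ℝ) * v2 t⌋))
    (Icc (-(2 * n) : ℤ) (2 * n) ×ˢ Icc (-(2 * n) : ℤ) (2 * n))
    ⟨(0, 0), by simp only [mem_product, mem_Icc]; omega⟩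
    (fun t ht => mem_product.2 ⟨hcode _ (hv1 t ht), hcode _ (hv2 t ht)⟩)
  refine ⟨A.filter fun t => (⌊(n:ℝ) * v1 t⌋, ⌊(n:ℝ) * v2 t⌋) = y, filter_subset _ _, ?_, ?_⟩
  · have hcardT : ((Icc (-(2 * n) : ℤ) (2 * n) ×ˢ Icc (-(2 * n) : ℤ) (2 * n)).card : ℝ) =
        (4 * n + 1) ^ 2 := by
      rw [card_product, Int.card_Icc]
      have : ((2 * n : ℤ) + 1 - -(2 * n)).toNat = 4 * n + 1 := by omega
      rw [this]; push_cast; ring
    rw [hcardT] at hA'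
    exact hA'
  · intro t ht t' ht'
    rw [mem_filter] at ht ht'
    have h1 : ⌊(n:ℝ) * v1 t'⌋ = ⌊(n:ℝ) * v1 t⌋ := (Prod.ext_iff.1 (ht'.2.trans ht.2.symm)).1
    have h2 : ⌊(n:ℝ) * v2 t'⌋ = ⌊(n:ℝ) * v2 t⌋ := (Prod.ext_iff.1 (ht'.2.trans ht.2.symm)).2
    have g1 := Int.abs_sub_lt_one_of_floor_eq_floor h1
    have g2 := Int.abs_sub_lt_one_of_floor_eq_floor h2
    rw [← mul_sub, abs_mul, abs_of_pos hn'] at g1 g2
    rw [le_div_iff₀ hn', le_div_iff₀ hn']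
    constructor <;> linarith

open Classical in
/-- **abstract conclusion** -/
theorem nd_abs (A : Finset ι) (St : ι → ι → Prop) {q Sb : ℝ} (n : ℕ) (hn : 0 < n) (hq : 0 < q)
    (hSb : 0 ≤ Sb)
    (hx1 : ∀ t ∈ A, ∀ s : ℝ, 0 ≤ s → s ≤ 1 → |x1 t + s / 128 * v1 t| ≤ 1)
    (hx2 : ∀ t ∈ A, ∀ s : ℝ, 0 ≤ s → s ≤ 1 → |x2 t + s / 128 * v2 t| ≤ 1)
    (hv1 : ∀ t ∈ A, |v1 t| ≤ 2) (hv2 : ∀ t ∈ A, |v2 t| ≤ 2)
    (hpair : ∀ B ⊆ A, ∀ s : ℝ, 0 ≤ s → s ≤ 1 → (∀ t ∈ B, ∀ t' ∈ B,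
        |(x1 t' + s / 128 * v1 t') - (x1 t + s / 128 * v1 t)| ≤ 1 / 2 ^ J ∧
        |(x2 t' + s / 128 * v2 t') - (x2 t + s / 128 * v2 t)| ≤ 1 / 2 ^ J) →
      (B.card : ℝ) ^ 2 ≤ 4 * (((B ×ˢ B).filter fun p => St p.1 p.2).card : ℝ))
    (hst : ∀ t ∈ A, ∀ B ⊆ A, ∀ j : ℕ, j ≤ J → (∀ t' ∈ B, St t t' ∧
        (∃ s : ℝ, 0 ≤ s ∧ s ≤ 1 ∧ |(x1 t' + s / 128 * v1 t') - (x1 t + s / 128 * v1 t)| ≤ 1 / 2 ^ J ∧
          |(x2 t' + s / 128 * v2 t') - (x2 t + s / 128 * v2 t)| ≤ 1 / 2 ^ J) ∧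
        |v1 t' - v1 t| ≤ 1 / 2 ^ j ∧ |v2 t' - v2 t| ≤ 1 / 2 ^ j ∧
        |v1 t' - v1 t| ≤ 1 / n ∧ |v2 t' - v2 t| ≤ 1 / n) →
      (B.card : ℝ) ≤ Sb * ((2 : ℝ) ^ (-(1 + q))) ^ j) :
    (A.card : ℝ) ≤ (4 * n + 1) ^ 2 * (18468 * Sb * (1 - (2 : ℝ) ^ (-q))⁻¹ * 2 ^ J) := by
  -- velocities
  obtain ⟨A', hAA, hA', hclose⟩ := vel_fiber v1 v2 A n hn hv1 hv2
  have hn1 : (1:ℝ) / n ≤ 1 := by
    rw [div_le_one (by exact_mod_cast hn)]; exact_mod_cast hn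
  refine hA'.trans (mul_le_mul_of_nonneg_left ?_ (by positivity))
  -- the pair count
  set St' : ι → ι → Prop := fun t t' => St t t' ∧ ∃ x ∈ cells J, inc x1 x2 v1 v2 J t x ∧
    inc x1 x2 v1 v2 J t' x with hSt'
  have hpc := Nd565.pair_count A' (cells J) (inc x1 x2 v1 v2 J) St' (ang v1 v2 J)
    (H := 2 ^ J) (K := 513) (S := Sb) (q := q) (by positivity) (by norm_num) hSb hq
    (fun t ht => meets x1 x2 v1 v2 J (hx1 t (hAA ht)) (hx2 t (hAA ht)))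
    (by
      intro x hx
      have hx' := hx
      rw [cells, mem_product, mem_range] at hx'
      have hp : (0:ℝ) < 2 ^ J := by positivity
      have hs : (x.1:ℝ) / 2 ^ J ≤ 1 := by
        rw [div_le_one hp]; exact_mod_cast hx'.1.le
      have hs0 : (0:ℝ) ≤ (x.1:ℝ) / 2 ^ J := by positivity
      have h1 := hpair (A'.filter fun t => inc x1 x2 v1 v2 J t x)
        ((filter_subset _ _).trans hAA) _ hs0 hs (by
          intro t ht t' ht'
          rw [mem_filter] at ht ht'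
          exact ⟨close_of_floor (ht'.2.1.trans ht.2.1.symm),
            close_of_floor (ht'.2.2.trans ht.2.2.symm)⟩)
      refine h1.trans (mul_le_mul_of_nonneg_left ?_ (by norm_num))
      have hsub : ((A'.filter fun t => inc x1 x2 v1 v2 J t x) ×ˢ
          (A'.filter fun t => inc x1 x2 v1 v2 J t x)).filter (fun p => St p.1 p.2) ⊆
          (A' ×ˢ A').filter fun p => inc x1 x2 v1 v2 J p.1 x ∧ inc x1 x2 v1 v2 J p.2 x ∧
            St' p.1 p.2 := by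
        intro p hp
        rw [mem_filter, mem_product, mem_filter, mem_filter] at hp
        rw [mem_filter, mem_product]
        exact ⟨⟨hp.1.1.1, hp.1.2.1⟩, hp.1.1.2, hp.1.2.2, hp.2, x, hx, hp.1.1.2, hp.1.2.2⟩
      exact_mod_cast card_le_card hsub)
    (fun t ht t' ht' _ => common x1 x2 v1 v2 J)
    (by
      intro t ht j
      by_cases hj : j ≤ J
      · refine hst t (hAA ht) _ ((filter_subset _ _).trans hAA) j hj ?_
        intro t' ht'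
        rw [mem_filter] at ht'
        obtain ⟨ht'A, ⟨hS, x, hx, hxt, hxt'⟩, hang⟩ := ht'
        have hcl := hclose t ht t' ht'A
        have hsp := ang_spec v1 v2 J (t := t) (t' := t') (hcl.1.trans hn1) (hcl.2.trans hn1)
        have hmono : (1:ℝ) / 2 ^ (ang v1 v2 J t t') ≤ 1 / 2 ^ j :=
          one_div_le_one_div_of_le (by positivity) (pow_le_pow_right₀ (by norm_num) hang)
        have hx' := hx
        rw [cells, mem_product, mem_range] at hx'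
        have hp : (0:ℝ) < 2 ^ J := by positivity
        have hs : (x.1:ℝ) / 2 ^ J ≤ 1 := by
          rw [div_le_one hp]; exact_mod_cast hx'.1.le
        have hs0 : (0:ℝ) ≤ (x.1:ℝ) / 2 ^ J := by positivity
        exact ⟨hS, ⟨_, hs0, hs, close_of_floor (hxt'.1.trans hxt.1.symm),
          close_of_floor (hxt'.2.trans hxt.2.symm)⟩, hsp.1.trans hmono, hsp.2.trans hmono,
          hcl.1, hcl.2⟩
      · have h0 : (A'.filter fun t' => St' t t' ∧ j ≤ ang v1 v2 J t t') = ∅ := by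
          rw [filter_eq_empty_iff]
          rintro t' - ⟨-, h⟩
          exact hj (h.trans (ang_le v1 v2 J t t'))
        rw [h0]
        simp only [card_empty, Nat.cast_zero]
        positivity)
  have hX := card_cells J
  have hlt : (2 : ℝ) ^ (-q) < 1 := Real.rpow_lt_one_of_one_lt_of_neg (by norm_num) (by linarith)
  have hinv : (0 : ℝ) ≤ (1 - (2 : ℝ) ^ (-q))⁻¹ := inv_nonneg.2 (by linarith)
  have h4 : (A'.card : ℝ) * (2 ^ J) ^ 2 ≤
      4 * 513 * Sb * (1 - (2 : ℝ) ^ (-q))⁻¹ * (9 * 8 ^ J) :=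
    hpc.trans (mul_le_mul_of_nonneg_left hX (by positivity))
  have h8 : (8:ℝ) ^ J = 2 ^ J * (2 ^ J) ^ 2 := by
    rw [← pow_mul, ← pow_add, mul_comm J 2, show J + 2 * J = 3 * J by ring, pow_mul]; norm_num
  rw [h8] at h4
  have hp2 : (0:ℝ) < (2 ^ J) ^ 2 := by positivity
  refine le_of_mul_le_mul_right (h4.trans (le_of_eq ?_)) hp2
  ring

end main

end Crest.Agent.R136.Ndc335
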