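import Crest.Agent.R136.Sh6_605
import Crest.Agent.R136.Ndc1_335

/-!
# R136 / U5, non-degeneracy (214's (3.0)), Dg3: conclusion for lines of `ℝ⁴` (helper335)

`nd_lines`: `Ndc335.nd_abs` for lines in a box with axes `e` around a centre line; the count of the
lines in a strip around a line (`strip_count`) and the flatness predicate are parameters, so the
statement does not depend on the class of sheets.
-/

set_option autoImplicit false
set_option linter.unusedVariables false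

open Finset

namespace Crest.Agent.R136.Ndc335

open Sh605

variable {ι : Type}

/-- difference of two lines in an axis, at two heights -/
theorem dt_pos_diff (f : V3) (t t' : Ln4) (z z' : ℝ) :
    dt f (t'.pos z - t.pos z) = dt f (t'.pos z' - t.pos z') + (z - z') * dt f (t'.v - t.v) := by
  simp only [dt, Pi.sub_apply, Ln4.pos]; ring

theorem abs_add_n {nA nB : ℝ} (h : nA ^ 2 + nB ^ 2 = 1) : |nA| + |nB| ≤ 3 / 2 := by
  have h1 := sq_abs nA
  have h2 := sq_abs nB
  nlinarith [sq_nonneg (|nA| - |nB|), abs_nonneg nA, abs_nonneg nB]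

theorem comb_le {nA nB x y b : ℝ} (h : nA ^ 2 + nB ^ 2 = 1) (hx : |x| ≤ b) (hy : |y| ≤ b) :
    |nA * x + nB * y| ≤ 3 / 2 * b := by
  have hb : 0 ≤ b := (abs_nonneg _).trans hx
  calc |nA * x + nB * y| ≤ |nA * x| + |nB * y| := abs_add_le _ _
    _ = |nA| * |x| + |nB| * |y| := by rw [abs_mul, abs_mul]
    _ ≤ |nA| * b + |nB| * b := by gcongr
    _ = (|nA| + |nB|) * b := by ring
    _ ≤ 3 / 2 * b := mul_le_mul_of_nonneg_right (abs_add_n h) hb

open Classical in
/-- **count of the lines of a sheet** in which a quarter of the pairs through every small cell is in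
a strip relation. `hstrip` = 565's `strip_count` for one line `t` (direction `nA t, nB t`). -/
theorem nd_lines (A : Finset ι) (L : ι → Ln4) {e : Fin 3 → V3} {c : Ln4} {w : V3}
    {z0 ρ z1 ρ1 : ℝ} (hw1 : 0 < w 1) (hw2 : 0 < w 2) (hρ1 : 0 < ρ1) (hρ : ρ = 128 * ρ1)
    (h01 : z0 ≤ z1) (h02 : z1 + ρ1 ≤ z0 + ρ)
    (hA : ∀ t ∈ A, ∀ z, z0 ≤ z → z ≤ z0 + ρ → |dt (e 1) ((L t).pos z - c.pos z)| ≤ w 1 ∧
      |dt (e 2) ((L t).pos z - c.pos z)| ≤ w 2)
    {J : ℕ} (hJ : 17 ≤ J) {K σ q2 a W M0 : ℝ} (hK : 1 ≤ K) (hσ : 1 / 2 ^ J ≤ σ) (hq2 : 0 < q2)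
    (hW : 0 ≤ W) (ha : a * 2 ^ J ≤ W) (hM0 : 0 ≤ M0)
    (nA nB : ι → ℝ) (hn : ∀ t ∈ A, nA t ^ 2 + nB t ^ 2 = 1) (St : ι → ι → Prop)
    (Flat : ι → ℝ → ℝ → Prop)
    (hpair : ∀ B ⊆ A, ∀ z, z1 ≤ z → z ≤ z1 + ρ1 → (∀ t ∈ B, ∀ t' ∈ B,
        |dt (e 1) ((L t').pos z - (L t).pos z)| ≤ w 1 / 2 ^ J ∧
        |dt (e 2) ((L t').pos z - (L t).pos z)| ≤ w 2 / 2 ^ J) →
      (B.card : ℝ) ^ 2 ≤ 4 * (((B ×ˢ B).filter fun p => St p.1 p.2).card : ℝ))
    (hSt : ∀ t ∈ A, ∀ t' ∈ A, St t t' →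
      |nA t * (ρ * dt (e 1) ((L t').v - (L t).v) / w 1) +
        nB t * (ρ * dt (e 2) ((L t').v - (L t).v) / w 2)| ≤ σ ∧
      Flat t (max |ρ * dt (e 1) ((L t').v - (L t).v) / w 1| |ρ * dt (e 2) ((L t').v - (L t).v) / w 2|)
        (K * σ * W))
    (hscale : ∀ t ∈ A, ∀ β κ, 0 ≤ β → 0 ≤ κ → Flat t β κ → Flat t (2 * β) (6 * κ))
    (hstrip : ∀ t ∈ A, ∀ B ⊆ A, ∀ β σ' K' : ℝ, 0 < β → β ≤ 1 / 40000 → 0 < σ' → 1 ≤ K' →
      a ≤ β * W → a ≤ σ' * W → (Flat t β (K' * σ' * W) ∨ β ≤ 2 * σ') →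
      (∀ t' ∈ B, ∀ z, z1 ≤ z → z ≤ z1 + ρ1 →
        |dt (e 1) ((L t').pos z - (L t).pos z) / w 1| ≤ β ∧
        |dt (e 2) ((L t').pos z - (L t).pos z) / w 2| ≤ β ∧
        |nA t * (dt (e 1) ((L t').pos z - (L t).pos z) / w 1) +
          nB t * (dt (e 2) ((L t').pos z - (L t).pos z) / w 2)| ≤ σ') →
      (B.card : ℝ) ≤ M0 * (240000 * K' * β * σ') ^ (1 + q2)) :
    (A.card : ℝ) ≤ 2 ^ 52 * M0 * (2880000 * K * σ) ^ (1 + q2) * (1 - (2 : ℝ) ^ (-q2))⁻¹ * 2 ^ J := by
  have hρ0 : 0 < ρ := by rw [hρ]; linarith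
  have hp : (0:ℝ) < 2 ^ J := by positivity
  have hσ0 : 0 < σ := lt_of_lt_of_le (by positivity) hσ
  -- coordinates
  set x1 : ι → ℝ := fun t => dt (e 1) ((L t).pos z1 - c.pos z1) / w 1 with hx1
  set x2 : ι → ℝ := fun t => dt (e 2) ((L t).pos z1 - c.pos z1) / w 2 with hx2
  set v1 : ι → ℝ := fun t => ρ * dt (e 1) ((L t).v - c.v) / w 1 with hv1
  set v2 : ι → ℝ := fun t => ρ * dt (e 2) ((L t).v - c.v) / w 2 with hv2
  have hc1 : ∀ t, ∀ s : ℝ, x1 t + s / 128 * v1 t =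
      dt (e 1) ((L t).pos (z1 + s * ρ1) - c.pos (z1 + s * ρ1)) / w 1 := by
    intro t s
    rw [dt_pos_diff (e 1) c (L t) (z1 + s * ρ1) z1, hx1, hv1, hρ]
    simp only
    field_simp; ring
  have hc2 : ∀ t, ∀ s : ℝ, x2 t + s / 128 * v2 t =
      dt (e 2) ((L t).pos (z1 + s * ρ1) - c.pos (z1 + s * ρ1)) / w 2 := by
    intro t s
    rw [dt_pos_diff (e 2) c (L t) (z1 + s * ρ1) z1, hx2, hv2, hρ]
    simp only
    field_simp; ring
  have hV1 : ∀ t t', v1 t' - v1 t = ρ * dt (e 1) ((L t').v - (L t).v) / w 1 := by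
    intro t t'
    rw [hv1]; simp only [dt, Pi.sub_apply]; ring
  have hV2 : ∀ t t', v2 t' - v2 t = ρ * dt (e 2) ((L t').v - (L t).v) / w 2 := by
    intro t t'
    rw [hv2]; simp only [dt, Pi.sub_apply]; ring
  have hD1 : ∀ t t', ∀ s : ℝ, (x1 t' + s / 128 * v1 t') - (x1 t + s / 128 * v1 t) =
      dt (e 1) ((L t').pos (z1 + s * ρ1) - (L t).pos (z1 + s * ρ1)) / w 1 := by
    intro t t' s
    rw [hc1, hc1, ← sub_div]
    congr 1
    simp only [dt, Pi.sub_apply]; ring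
  have hD2 : ∀ t t', ∀ s : ℝ, (x2 t' + s / 128 * v2 t') - (x2 t + s / 128 * v2 t) =
      dt (e 2) ((L t').pos (z1 + s * ρ1) - (L t).pos (z1 + s * ρ1)) / w 2 := by
    intro t t' s
    rw [hc2, hc2, ← sub_div]
    congr 1
    simp only [dt, Pi.sub_apply]; ring
  have hzs : ∀ s : ℝ, 0 ≤ s → s ≤ 1 → z1 ≤ z1 + s * ρ1 ∧ z1 + s * ρ1 ≤ z1 + ρ1 := by
    intro s h0 h1
    constructor
    · nlinarith
    · nlinarith
  have hXle : ∀ t ∈ A, ∀ s : ℝ, 0 ≤ s → s ≤ 1 → |x1 t + s / 128 * v1 t| ≤ 1 ∧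
      |x2 t + s / 128 * v2 t| ≤ 1 := by
    intro t ht s h0 h1
    obtain ⟨g1, g2⟩ := hzs s h0 h1
    have := hA t ht (z1 + s * ρ1) (by linarith) (by linarith)
    rw [hc1, hc2, abs_div, abs_div, abs_of_pos hw1, abs_of_pos hw2, div_le_one hw1, div_le_one hw2]
    exact this
  have hVle : ∀ t ∈ A, |v1 t| ≤ 2 ∧ |v2 t| ≤ 2 := by
    intro t ht
    have g0 := hA t ht z0 le_rfl (by linarith)
    have g1 := hA t ht (z0 + ρ) (by linarith) le_rfl
    have e1 := dt_pos_diff (e 1) c (L t) (z0 + ρ) z0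
    have e2 := dt_pos_diff (e 2) c (L t) (z0 + ρ) z0
    have e1' : ρ * dt (e 1) ((L t).v - c.v) = dt (e 1) ((L t).pos (z0 + ρ) - c.pos (z0 + ρ)) -
        dt (e 1) ((L t).pos z0 - c.pos z0) := by rw [e1]; ring
    have e2' : ρ * dt (e 2) ((L t).v - c.v) = dt (e 2) ((L t).pos (z0 + ρ) - c.pos (z0 + ρ)) -
        dt (e 2) ((L t).pos z0 - c.pos z0) := by rw [e2]; ring
    constructor
    · rw [hv1]
      simp only
      rw [e1', abs_div, abs_of_pos hw1, div_le_iff₀ hw1]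
      exact (abs_sub _ _).trans (by linarith [g0.1, g1.1])
    · rw [hv2]
      simp only
      rw [e2', abs_div, abs_of_pos hw2, div_le_iff₀ hw2]
      exact (abs_sub _ _).trans (by linarith [g0.2, g1.2])
  have hdiv : ∀ {x b : ℝ} (w' : ℝ), 0 < w' → |x / w'| ≤ 1 / 2 ^ J → |x| ≤ w' / 2 ^ J := by
    intro x b w' hw' h
    rw [abs_div, abs_of_pos hw', div_le_iff₀ hw'] at h
    calc |x| ≤ 1 / 2 ^ J * w' := h
      _ = w' / 2 ^ J := by ring
  have hKσ : 0 ≤ K * σ * W := by positivity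
  have main := nd_abs x1 x2 v1 v2 J A St (q := q2)
    (Sb := M0 * (2880000 * K * σ) ^ (1 + q2)) 100000 (by norm_num) hq2 (by positivity)
    (fun t ht s h0 h1 => (hXle t ht s h0 h1).1) (fun t ht s h0 h1 => (hXle t ht s h0 h1).2)
    (fun t ht => (hVle t ht).1) (fun t ht => (hVle t ht).2)
    (by
      intro B hB s h0 h1 h
      obtain ⟨g1, g2⟩ := hzs s h0 h1
      refine hpair B hB (z1 + s * ρ1) g1 g2 fun t ht t' ht' => ?_
      have := h t ht t' ht'
      rw [hD1, hD2] at this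
      exact ⟨hdiv (b := 0) _ hw1 this.1, hdiv (b := 0) _ hw2 this.2⟩)
    (by
      intro t ht B hB j hj hBt
      rcases B.eq_empty_or_nonempty with h0 | hne
      · rw [h0]
        simp only [card_empty, Nat.cast_zero]
        positivity
      -- the largest angle
      obtain ⟨t0, ht0, hmax⟩ := exists_max_image B
        (fun t' => max |v1 t' - v1 t| |v2 t' - v2 t|) hne
      set bm := max |v1 t0 - v1 t| |v2 t0 - v2 t| with hbm
      have hbm0 : 0 ≤ bm := (abs_nonneg _).trans (le_max_left _ _)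
      set b := max bm (1 / 2 ^ J) with hb
      have hb0 : 0 < b := lt_of_lt_of_le (by positivity) (le_max_right _ _)
      have hbmb : bm ≤ b := le_max_left _ _
      have hJb : 1 / 2 ^ J ≤ b := le_max_right _ _
      have h2J : (1:ℝ) / 2 ^ J ≤ 1 / 100000 := by
        have : (100000:ℝ) ≤ 2 ^ J := by
          calc (100000:ℝ) ≤ 2 ^ 17 := by norm_num
            _ ≤ 2 ^ J := pow_le_pow_right₀ (by norm_num) hJ
        exact one_div_le_one_div_of_le (by norm_num) this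
      have e100 : (1:ℝ) / ((100000:ℕ):ℝ) = 1 / 100000 := by norm_num
      have hq1 := (hBt t0 ht0).2.2.2.2.1
      have hq2' := (hBt t0 ht0).2.2.2.2.2
      rw [e100] at hq1 hq2'
      have hbs : b ≤ 1 / 100000 := max_le (max_le hq1 hq2') h2J
      have hbj : b ≤ 1 / 2 ^ j := max_le (max_le (hBt t0 ht0).2.2.1 (hBt t0 ht0).2.2.2.1)
        (one_div_le_one_div_of_le (by positivity) (pow_le_pow_right₀ (by norm_num) hj))
      have hn' := hn t ht
      have hflat : Flat t (2 * b) (3 * K * (2 * σ) * W) ∨ 2 * b ≤ 2 * (2 * σ) := by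
        by_cases hc : 1 / 2 ^ J ≤ bm
        · left
          have eb : b = bm := max_eq_left hc
          have h1 := (hSt t ht t0 (hB ht0) (hBt t0 ht0).1).2
          rw [← hV1, ← hV2] at h1
          have h2 := hscale t ht _ _ hbm0 hKσ h1
          rw [eb]
          have e6 : 3 * K * (2 * σ) * W = 6 * (K * σ * W) := by ring
          rw [e6]
          exact h2
        · right
          rw [not_le] at hc
          have eb : b = 1 / 2 ^ J := max_eq_right hc.le
          rw [eb]; linarith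
      have hmem : ∀ t' ∈ B, ∀ z, z1 ≤ z → z ≤ z1 + ρ1 →
          |dt (e 1) ((L t').pos z - (L t).pos z) / w 1| ≤ 2 * b ∧
          |dt (e 2) ((L t').pos z - (L t).pos z) / w 2| ≤ 2 * b ∧
          |nA t * (dt (e 1) ((L t').pos z - (L t).pos z) / w 1) +
            nB t * (dt (e 2) ((L t').pos z - (L t).pos z) / w 2)| ≤ 2 * σ := by
        intro t' ht' z hz0 hz1
        obtain ⟨s, hs0, hs1, hzs'⟩ : ∃ s : ℝ, 0 ≤ s ∧ s ≤ 1 ∧ z = z1 + s * ρ1 := by
          refine ⟨(z - z1) / ρ1, by have := sub_nonneg.2 hz0; positivity, ?_, by field_simp; ring⟩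
          rw [div_le_one hρ1]; linarith
        obtain ⟨hS, ⟨s', hs'0, hs'1, hc1', hc2'⟩, -, -, -, -⟩ := hBt t' ht'
        have hm := hmax t' ht'
        set X1 := (x1 t' + s / 128 * v1 t') - (x1 t + s / 128 * v1 t) with hX1
        set X2 := (x2 t' + s / 128 * v2 t') - (x2 t + s / 128 * v2 t) with hX2
        set Y1 := (x1 t' + s' / 128 * v1 t') - (x1 t + s' / 128 * v1 t) with hY1
        set Y2 := (x2 t' + s' / 128 * v2 t') - (x2 t + s' / 128 * v2 t) with hY2
        have eX1 : X1 = Y1 + (s - s') / 128 * (v1 t' - v1 t) := by rw [hX1, hY1]; ring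
        have eX2 : X2 = Y2 + (s - s') / 128 * (v2 t' - v2 t) := by rw [hX2, hY2]; ring
        have hu1 : |v1 t' - v1 t| ≤ b := ((le_max_left _ _).trans hm).trans hbmb
        have hu2 : |v2 t' - v2 t| ≤ b := ((le_max_right _ _).trans hm).trans hbmb
        have hss : |(s - s') / 128| ≤ 1 / 128 := by
          rw [abs_le]; constructor <;> linarith
        have hXb1 : |X1| ≤ 129 / 128 * b := by
          rw [eX1]
          refine (abs_add_le _ _).trans ?_
          rw [abs_mul]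
          have h1 : |(s - s') / 128| * |v1 t' - v1 t| ≤ 1 / 128 * b :=
            mul_le_mul hss hu1 (abs_nonneg _) (by norm_num)
          linarith
        have hXb2 : |X2| ≤ 129 / 128 * b := by
          rw [eX2]
          refine (abs_add_le _ _).trans ?_
          rw [abs_mul]
          have h1 : |(s - s') / 128| * |v2 t' - v2 t| ≤ 1 / 128 * b :=
            mul_le_mul hss hu2 (abs_nonneg _) (by norm_num)
          linarith
        rw [hzs', ← hD1, ← hD2, ← hX1, ← hX2]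
        refine ⟨by linarith, by linarith, ?_⟩
        have e1 : nA t * X1 + nB t * X2 = (nA t * Y1 + nB t * Y2) +
            (s - s') / 128 * (nA t * (v1 t' - v1 t) + nB t * (v2 t' - v2 t)) := by
          rw [eX1, eX2]; ring
        rw [e1]
        refine (abs_add_le _ _).trans ?_
        have h1 := comb_le hn' (hc1'.trans hσ) (hc2'.trans hσ)
        have h2 := (hSt t ht t' (hB ht') hS).1
        rw [← hV1, ← hV2] at h2
        rw [abs_mul]
        have h3 : |(s - s') / 128| * |nA t * (v1 t' - v1 t) + nB t * (v2 t' - v2 t)| ≤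
            1 / 128 * σ := mul_le_mul hss h2 (abs_nonneg _) (by norm_num)
        linarith
      have haJ : a ≤ 1 / 2 ^ J * W := by
        rw [one_div, inv_mul_eq_div, le_div_iff₀ hp]; exact ha
      have ha1 : a ≤ 2 * b * W := haJ.trans (mul_le_mul_of_nonneg_right (by linarith) hW)
      have ha2 : a ≤ 2 * σ * W := haJ.trans (mul_le_mul_of_nonneg_right (by linarith) hW)
      have h1 := hstrip t ht B hB (2 * b) (2 * σ) (3 * K) (by linarith) (by linarith)
        (by linarith) (by linarith) ha1 ha2 hflat hmem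
      refine h1.trans ?_
      have h2 : 240000 * (3 * K) * (2 * b) * (2 * σ) ≤ 2880000 * K * σ * (1 / 2 ^ j) := by
        have : 240000 * (3 * K) * (2 * b) * (2 * σ) = 2880000 * K * σ * b := by ring
        rw [this]
        exact mul_le_mul_of_nonneg_left hbj (by positivity)
      have h3 : (240000 * (3 * K) * (2 * b) * (2 * σ)) ^ (1 + q2) ≤
          (2880000 * K * σ * (1 / 2 ^ j)) ^ (1 + q2) :=
        Real.rpow_le_rpow (by positivity) h2 (by linarith)
      have h4 : (2880000 * K * σ * (1 / 2 ^ j)) ^ (1 + q2) =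
          (2880000 * K * σ) ^ (1 + q2) * ((2 : ℝ) ^ (-(1 + q2))) ^ j := by
        rw [Real.mul_rpow (by positivity) (by positivity)]
        congr 1
        rw [one_div, Real.inv_rpow (by positivity), ← Real.rpow_natCast 2 j,
          ← Real.rpow_natCast ((2:ℝ) ^ (-(1 + q2))) j, ← Real.rpow_mul (by norm_num),
          ← Real.rpow_mul (by norm_num), ← Real.rpow_neg (by norm_num)]
        congr 1; ring
      calc M0 * (240000 * (3 * K) * (2 * b) * (2 * σ)) ^ (1 + q2)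
          ≤ M0 * ((2880000 * K * σ) ^ (1 + q2) * ((2 : ℝ) ^ (-(1 + q2))) ^ j) := by
            rw [← h4]; exact mul_le_mul_of_nonneg_left h3 hM0
        _ = _ := by ring)
  have hlt : (2 : ℝ) ^ (-q2) < 1 := Real.rpow_lt_one_of_one_lt_of_neg (by norm_num) (by linarith)
  have hinv : (0 : ℝ) ≤ (1 - (2 : ℝ) ^ (-q2))⁻¹ := inv_nonneg.2 (by linarith)
  refine main.trans ?_
  have hX : 0 ≤ M0 * (2880000 * K * σ) ^ (1 + q2) * (1 - (2 : ℝ) ^ (-q2))⁻¹ * 2 ^ J := by positivity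
  push_cast
  nlinarith [hX]

end Crest.Agent.R136.Ndc335
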