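import Crest.Agent.R136.Nd10_214
import Crest.Agent.R136.Nds_335

/-!
# R136 / U5, non-degeneracy (3.0): the finite theorem, range version (helper335; proof = 214's `nondeg`
with `nd_countR`)
-/

set_option autoImplicit false
set_option linter.unusedVariables false

open Finset

namespace Crest.Agent.R136.Ndc335

open Crest.Agent.R136.Tl214 Crest.Agent.R136.Tl102 Crest.Agent.R136.Nd880 Crest.Agent.R136.Nd214
open Crest.Agent.R136.Sh605 (V3 dt Ln4 InK InSheet ShN Ortho IsQ DMaxN)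
open Crest.Agent.R136.Arc880 (det3)
open Crest.Agent.R136.Nd565 (FlatAt)

theorem DMaxR.mono {ι : Type} {A B : Finset ι} {L : ι → Ln4} {z0 ρ D : ℝ} {R : ℝ → ℝ → ℝ → ℝ}
    {r0 a0 ω1 ω2 wmax wm2 : ℝ} (h : DMaxR A L z0 ρ D R r0 a0 ω1 ω2 wmax wm2) (hB : B ⊆ A) :
    DMaxR B L z0 ρ D R r0 a0 ω1 ω2 wmax wm2 := by
  classical
  intro e c w q a hS g1 g2 hw h0 h1 h2
  refine le_trans ?_ (h e c w q a hS g1 g2 hw h0 h1 h2)
  exact_mod_cast card_le_card (filter_subset_filter _ hB)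

theorem hi_sm {x1 x2 α : ℝ} (hx1 : 0 ≤ x1 ^ 6) (hα : α ≤ x2) (hx21 : x2 ≤ x1 ^ 6 * (1 / 2) ^ 140) :
    (10 : ℝ) ^ 38 * (17 * x2 + α + x2) ≤ x1 ^ 6 := by
  have h1 : (10 : ℝ) ^ 38 * (17 * x2 + α + x2) ≤ 10 ^ 38 * (19 * x2) :=
    mul_le_mul_of_nonneg_left (by linarith only [hα]) (by positivity)
  refine h1.trans ?_
  have h2 : (10 : ℝ) ^ 38 * 19 * (1 / 2) ^ 140 ≤ 1 := by norm_num
  have h3 : (10 : ℝ) ^ 38 * (19 * x2) ≤ (10 ^ 38 * 19 * (1 / 2) ^ 140) * x1 ^ 6 := by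
    have := mul_le_mul_of_nonneg_left hx21 (by positivity : (0 : ℝ) ≤ 10 ^ 38 * 19)
    calc (10 : ℝ) ^ 38 * (19 * x2) = 10 ^ 38 * 19 * x2 := by rw [mul_assoc]
      _ ≤ 10 ^ 38 * 19 * (x1 ^ 6 * (1 / 2) ^ 140) := this
      _ = _ := by ring
  exact h3.trans (mul_le_of_le_one_left hx1 h2)

theorem hi_le {x1 x2 α : ℝ} (hx13 : 0 < x1 ^ 3) (hx13' : x1 ^ 3 ≤ 1) (hx2 : 0 < x2) (hα : 0 ≤ α) :
    x2 ≤ 10 ^ 22 * (17 * x2 + α + x2) / x1 ^ 3 := by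
  rw [le_div_iff₀ hx13]
  calc x2 * x1 ^ 3 ≤ x2 * 1 := mul_le_mul_of_nonneg_left hx13' hx2.le
    _ ≤ 10 ^ 22 * (17 * x2 + α + x2) := by linarith only [hx2, hα]

theorem hi_sig {x1 x2 α : ℝ} (hx13 : 0 < x1 ^ 3) (hα : α ≤ x2) :
    2880000 * 13 * (10 ^ 22 * (17 * x2 + α + x2) / x1 ^ 3) ≤
      2880000 * 13 * (19 * 10 ^ 22) * x2 / x1 ^ 3 := by
  rw [← mul_div_assoc]
  apply div_le_div_of_nonneg_right _ hx13.le
  linarith only [hα]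

theorem lo_sig {x1 α : ℝ} (hα : α ≤ x1) :
    2880000 * 13 * (10 ^ 14 * (x1 + α + x1)) ≤ 2880000 * 13 * (3 * 10 ^ 14) * x1 := by
  linarith only [hα]

/-- **(3.0)** a near-maximal sheet is flat along `T0` or non-degenerate at every point of `T0`. -/
theorem nondegR {q2 CR : ℝ} (hq2 : 0 < q2) (hCR : 0 ≤ CR) : ∃ C : ℝ, 1 ≤ C ∧
    ∀ {ι : Type} (A : Finset ι) (L : ι → Ln4) (e : Fin 3 → V3) (c : Ln4) (w : V3)
      (q : ℝ → V3 → ℝ) (a z0 ρ r0 z1 ρ1 D ω1 ω2 wmax wm2 : ℝ) (R : ℝ → ℝ → ℝ → ℝ) (θ : ℝ) (T0 : Ln4)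
      (b0 b1 : V3) (G : QF),
      ShN e c w q a z0 ρ r0 → 0 < r0 → 0 < ρ1 → InSheet T0 e c w q a z0 ρ →
      (∀ t ∈ A, InSheet (L t) e c w q a z0 ρ ∧ ∀ z, z0 ≤ z → z ≤ z0 + ρ → ∀ i,
        |dt (e i) ((L t).pos z - T0.pos z)| ≤ w i / 1000) →
      ρ = 128 * ρ1 → z0 ≤ z1 → z1 + ρ1 ≤ z0 + ρ → 0 ≤ D →
      DMaxR A L z1 ρ1 D R r0 a ω1 ω2 wmax wm2 → w 1 ≤ 128 * wmax → w 2 ≤ wm2 → ω1 ≤ θ ^ C * w 1 →
      ω2 ≤ θ ^ C * w 2 → 0 ≤ R a (w 2) (w 1) →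
      (∀ a' w2' w1' x, a ≤ a' → a' ≤ 3 * a → 0 < w2' → w2' ≤ w1' → w1' ≤ w 1 → 0 < x →
        w2' * w1' ≤ x * (w 2 * w 1) → R a' w2' w1' ≤ CR * x ^ q2 * R a (w 2) (w 1)) →
      0 < θ → θ ≤ 1 / 2 → θ * (D * (a * w 2 * w 1 * R a (w 2) (w 1))) ≤ (A.card : ℝ) →
      0 < (A.card : ℝ) → IsExp q e w T0 z0 ρ b0 b1 G → θ ^ (-C) * a ≤ w 0 * kap b0 b1 G →
      ∀ ζ, 0 ≤ ζ → ζ ≤ 1 →
        θ ^ C ≤ |det3 (fan (shB0 b0) (scB1 (kap b0 b1 G) b0 b1) (scG (kap b0 b1 G) b0 G) ζ)| := by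
  classical
  set Λ := Lam CR q2 with hΛe
  have hΛ : 0 ≤ Λ := Lam_nonneg hCR hq2
  -- constants
  set s1 : ℝ := 2880000 * 13 * (3 * 10 ^ 14) with hs1
  set s2 : ℝ := 2880000 * 13 * (19 * 10 ^ 22) with hs2
  have hs10 : 0 ≤ s1 := by rw [hs1]; norm_num
  have hs20 : 0 ≤ s2 := by rw [hs2]; norm_num
  set M1 := 2 * Λ * s1 ^ (1 + q2) with hM1
  have hM10 : 0 ≤ M1 := by rw [hM1]; positivity
  obtain ⟨N1', hN1'⟩ := pick hq2 hM10 (le_refl (1 : ℝ))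
  set N1 := max N1' 17 with hN1
  set B := ((2 : ℝ) ^ (3 * N1)) ^ (1 + q2) with hB
  have hB1 : 1 ≤ B := by
    rw [hB]
    exact Real.one_le_rpow (one_le_pow₀ (by norm_num)) (by linarith)
  set M2 := 2 * Λ * s2 ^ (1 + q2) with hM2
  have hM20 : 0 ≤ M2 := by rw [hM2]; positivity
  obtain ⟨N2', hN2'⟩ := pick hq2 hM20 hB1
  set N2 := max N2' (6 * N1 + 140) with hN2
  have hN2a : 6 * N1 + 140 ≤ N2 := le_max_right _ _
  have hN1a : 17 ≤ N1 := le_max_right _ _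
  refine ⟨2 * ((N2 : ℝ) + 60), by have : (0 : ℝ) ≤ N2 := Nat.cast_nonneg _; linarith, ?_⟩
  intro ι A L e c w q a z0 ρ r0 z1 ρ1 D ω1 ω2 wmax wm2 R θ T0 b0 b1 G S hr0 hρ1 hT0 hA hρ h01 h02 hD0
    hD hwm hwm2 hω1 hω2 hR0 hR hθ0 hθ1 hbig hApos hE hcur ζ hζ0 hζ1
  have hω : ω1 ≤ θ ^ (2 * ((N2 : ℝ) + 60)) * w 1 ∧ ω2 ≤ θ ^ (2 * ((N2 : ℝ) + 60)) * w 2 :=
    ⟨hω1, hω2⟩
  clear hω1 hω2
  -- positivity
  have hap : 0 < a := lt_of_lt_of_le hr0 S.r0_le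
  have hw0 : 0 < w 0 := lt_of_lt_of_le hap S.a_le0
  have hρ0 : 0 < ρ := by rw [hρ]; linarith
  set κ := kap b0 b1 G with hκe
  have hθC : 0 < θ ^ (-(2 * ((N2 : ℝ) + 60))) := Real.rpow_pos_of_pos hθ0 _
  have hwκ : 0 < w 0 * κ := lt_of_lt_of_le (by positivity) hcur
  have hκ : 0 < κ := (mul_pos_iff_of_pos_left hw0).1 hwκ
  obtain ⟨φ, hφ⟩ := exists_phi S.isQ T0 z0 ρ hwκ.ne'
  have DT : Dta e c w q a z0 ρ T0 b0 b1 G κ φ := ⟨StP.of_shN S hw0, hρ0, hT0, hE, rfl, hκ, hφ⟩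
  have hκ13 : κ ≤ 13 := kap_le DT.nrm
  -- the dyadic scale
  obtain ⟨m, hm1, hmθ, hθm⟩ := dyad hθ0 hθ1
  set x1 := (1 / 2 : ℝ) ^ (N1 * m) with hx1
  set x2 := (1 / 2 : ℝ) ^ (N2 * m) with hx2
  have hx1p : 0 < x1 := by rw [hx1]; positivity
  have hx2p : 0 < x2 := by rw [hx2]; positivity
  have half1 : (1 / 2 : ℝ) ≤ 1 := by norm_num
  have half0 : (0 : ℝ) ≤ 1 / 2 := by norm_num
  set τ0 := (1 / 2 : ℝ) ^ ((N2 + 60) * m) with hτ0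
  have hτ0p : 0 < τ0 := by rw [hτ0]; positivity
  have hθτ : θ ^ (2 * ((N2 : ℝ) + 60)) ≤ τ0 := by
    have e1 : θ ^ (2 * ((N2 : ℝ) + 60)) = (θ ^ 2) ^ (N2 + 60) := by
      rw [← pow_mul, ← Real.rpow_natCast]
      congr 1; push_cast; ring
    rw [e1, hτ0, mul_comm (N2 + 60) m, pow_mul]
    exact pow_le_pow_left₀ (by positivity) hθm _
  have hτx : τ0 ≤ x2 * (1 / 2) ^ 60 := by
    rw [hτ0, hx2, ← pow_add]
    apply pow_le_pow_of_le_one half0 half1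
    rw [add_mul]
    exact Nat.add_le_add_left (by omega) _
  have hx21 : x2 ≤ x1 ^ 6 * (1 / 2) ^ 140 := by
    rw [hx1, hx2, ← pow_mul, ← pow_add]
    apply pow_le_pow_of_le_one half0 half1
    have h1 : (6 * N1 + 140) * m ≤ N2 * m := Nat.mul_le_mul_right m hN2a
    have h2 : 140 ≤ 140 * m := by omega
    calc N1 * m * 6 + 140 ≤ N1 * m * 6 + 140 * m := Nat.add_le_add_left h2 _
      _ = (6 * N1 + 140) * m := by ring
      _ ≤ N2 * m := h1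
  have hx1s : x1 ≤ (1 / 2) ^ 17 := by
    rw [hx1]
    apply pow_le_pow_of_le_one half0 half1
    exact hN1a.trans (Nat.le_mul_of_pos_right _ hm1)
  have h17 : (1 / 2 : ℝ) ^ 17 ≤ 1 / 100000 := by norm_num
  have hx1l : x1 ≤ 1 := by linarith
  have hx16 : x1 ^ 6 ≤ x1 := by
    have := pow_le_pow_of_le_one hx1p.le hx1l (show 1 ≤ 6 by norm_num)
    rwa [pow_one] at this
  have hx2x1 : x2 ≤ x1 / 100 := by
    have h1 : (1 / 2 : ℝ) ^ 140 ≤ 1 / 100 := by norm_num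
    have h2 : x1 ^ 6 * (1 / 2) ^ 140 ≤ x1 * (1 / 100) := by gcongr
    linarith
  -- the thickness
  have hanorm : a / (w 0 * κ) ≤ τ0 := by
    rw [div_le_iff₀ hwκ]
    have h1 : a ≤ θ ^ (2 * ((N2 : ℝ) + 60)) * (w 0 * κ) := by
      rw [Real.rpow_neg hθ0.le, inv_mul_le_iff₀ (Real.rpow_pos_of_pos hθ0 _)] at hcur
      exact hcur
    exact h1.trans (mul_le_mul_of_nonneg_right hθτ hwκ.le)
  set α := a / (w 0 * κ) with hα
  have hα0 : 0 ≤ α := by rw [hα]; positivity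
  have e60 : (1 / 2 : ℝ) ^ 60 ≤ 1 / 10 ^ 18 := by norm_num
  have hαx : 10 ^ 18 * α ≤ x2 := by
    have h1 : α ≤ x2 * (1 / 10 ^ 18) :=
      hanorm.trans (hτx.trans (mul_le_mul_of_nonneg_left e60 hx2p.le))
    linarith
  have haα : a = α * (w 0 * κ) := by rw [hα]; field_simp
  have hαle : α ≤ x2 := by linarith only [hαx, hα0]
  have hαle1 : α ≤ x1 := by linarith only [hαle, hx2x1, hx1p]
  have hs1000 : 1000 * a ≤ w 0 * κ := by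
    rw [haα]
    have h1 : 1000 * α ≤ 1 := by linarith only [hαx, hx2x1, hx1l, hα0]
    calc 1000 * (α * (w 0 * κ)) = 1000 * α * (w 0 * κ) := by ring
      _ ≤ 1 * (w 0 * κ) := mul_le_mul_of_nonneg_right h1 hwκ.le
      _ = _ := one_mul _
  have haw : a ≤ α * 13 * w 0 := by
    rw [haα]
    have : α * (w 0 * κ) ≤ α * (w 0 * 13) := by gcongr
    linarith only [this]
  have F := DT.fam hap.le hs1000 A L hA
  -- contradiction
  by_contra hcon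
  push Not at hcon
  have hdet0 : |det3 (fanQ (qB φ κ b0 b1 G) (eA b0) (eB b0) (eY κ) ((0 : V4) + ζ • eT) eT)| ≤
      x2 := by
    rw [zero_add]
    have h1 := Fn880.det3_qB (φ := φ) DT.nrm hκ le_rfl hκ13 hζ0 hζ1
    have h2 := (F.loc.lin0.coef le_rfl zero_le_one).2
    have h3 : (qB φ κ b0 b1 G).H eT eT = φ 2 := by
      rw [qB_H]
      simp only [eT, dt, QF.pol, Pi.zero_apply]
      ring
    rw [h3] at h2
    have h4 := abs_add_le (det3 (fanQ (qB φ κ b0 b1 G) (eA b0) (eB b0) (eY κ) (ζ • eT) eT) -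
      2 ^ 22 * det3 (fan (shB0 b0) (scB1 κ b0 b1) (scG κ b0 G) ζ))
      (2 ^ 22 * det3 (fan (shB0 b0) (scB1 κ b0 b1) (scG κ b0 G) ζ))
    rw [sub_add_cancel, abs_mul, abs_of_pos (by positivity : (0 : ℝ) < 2 ^ 22)] at h4
    have h5 : |det3 (fan (shB0 b0) (scB1 κ b0 b1) (scG κ b0 G) ζ)| ≤ τ0 := hcon.le.trans hθτ
    have h6 : τ0 ≤ x2 * (1 / 10 ^ 18) := hτx.trans (mul_le_mul_of_nonneg_left e60 hx2p.le)
    have h7 : (2 : ℝ) ^ 22 = 4194304 := by norm_num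
    rw [h7] at h4 h1
    linarith
  have hdet : ∀ t ∈ A, ∀ s : ℝ, 0 ≤ s → s ≤ 1 →
      |det3 (fanQ (qB φ κ b0 b1 G) (eA b0) (eB b0) (eY κ)
        (((0 : ℝ), crd e w T0 (L t) z0) + s • ((1 : ℝ), vel e w T0 (L t) ρ))
        ((1 : ℝ), vel e w T0 (L t) ρ))| ≤ 17 * x2 := by
    intro t ht s hs0 hs1
    have h1 := (F.lin t ht).det_le F.loc hs0 hs1 hζ0 hζ1
    refine h1.trans ?_
    linarith
  have hwmpos : ∀ A' : Finset ι, A' ⊆ A → ∀ (J : ℕ) (σ : ℝ) (nA nB : ι → ℝ) (St : ι → ι → Prop),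
      17 ≤ J → (1 / 2 : ℝ) ^ J ≤ σ → a * 2 ^ J ≤ w 0 → ω1 * 2 ^ J ≤ w 1 → ω2 * 2 ^ J ≤ w 2 →
      Out A' (qB φ κ b0 b1 G) (eA b0) (eB b0) (eY κ) (fun t => ((0 : ℝ), crd e w T0 (L t) z0))
      (fun t => ((1 : ℝ), vel e w T0 (L t) ρ)) (fun t => crd e w T0 (L t) z0 1)
      (fun t => crd e w T0 (L t) z0 2) (fun t => vel e w T0 (L t) ρ 1)
      (fun t => vel e w T0 (L t) ρ 2) nA nB St ((1 / 2) ^ J) σ →
      (A'.card : ℝ) ≤ (Λ * ((2880000 * 13 * σ) ^ (1 + q2) * 2 ^ J)) *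
        (D * (a * w 2 * w 1 * R a (w 2) (w 1))) := by
    intro A' hA' J σ nA nB St hJ hσ haJ hω1J hω2J O
    have hσ0 : 0 ≤ σ := le_trans (by positivity) hσ
    obtain ⟨hp, hs⟩ := DT.toCount hap.le hs1000 A' L (fun t ht => hA t (hA' ht)) hσ0 O
    have h := Ndc335.nd_countR A' L S hr0 hρ1 hρ h01 h02 (fun t ht => (hA t (hA' ht)).1) hD0
      (DMaxR.mono hD hA') hwm hwm2 hJ hω1J hω2J (K := 13) (σ := σ) (q2 := q2) (CR := CR) (by norm_num)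
      (by rw [one_div, ← inv_pow, ← one_div]; exact hσ) hq2 haJ nA nB O.nrm St
      (fun B hB z hz0 hz1 hc => hp B hB z (by linarith) (by linarith) hc) hs hR0 hCR hR
    refine h.trans (le_of_eq ?_)
    rw [hΛe, Lam]
    ring
  have hx1e : (2 : ℝ) ^ (N1 * m) = x1⁻¹ := by rw [hx1, one_div, inv_pow, inv_inv]
  have hx2e : (2 : ℝ) ^ (N2 * m) = x2⁻¹ := by rw [hx2, one_div, inv_pow, inv_inv]
  have h13α : a ≤ x2 * w 0 := by
    refine haw.trans (mul_le_mul_of_nonneg_right ?_ hw0.le)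
    linarith
  have haJ1 : a * 2 ^ (N1 * m) ≤ w 0 := by
    rw [hx1e, mul_inv_le_iff₀ hx1p]
    have : x2 * w 0 ≤ x1 * w 0 := mul_le_mul_of_nonneg_right (by linarith) hw0.le
    linarith
  have haJ2 : a * 2 ^ (N2 * m) ≤ w 0 := by
    rw [hx2e, mul_inv_le_iff₀ hx2p]
    linarith
  have hωJ : (ω1 * 2 ^ (N1 * m) ≤ w 1 ∧ ω1 * 2 ^ (N2 * m) ≤ w 1) ∧
      (ω2 * 2 ^ (N1 * m) ≤ w 2 ∧ ω2 * 2 ^ (N2 * m) ≤ w 2) := by
    have hw1 : 0 < w 1 := lt_of_lt_of_le hw0 (S.w0_le.trans S.w_le)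
    have hw2 : 0 < w 2 := lt_of_lt_of_le hw0 S.w0_le
    have hθx : θ ^ (2 * ((N2 : ℝ) + 60)) ≤ x2 :=
      hθτ.trans (hτx.trans (mul_le_of_le_one_right hx2p.le (pow_le_one₀ half0 half1)))
    have hωx : ∀ ω W : ℝ, 0 < W → ω ≤ θ ^ (2 * ((N2 : ℝ) + 60)) * W →
        ω * 2 ^ (N1 * m) ≤ W ∧ ω * 2 ^ (N2 * m) ≤ W := by
      intro ω W hW h
      have h1 : ω ≤ x2 * W := h.trans (mul_le_mul_of_nonneg_right hθx hW.le)
      constructor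
      · rw [hx1e, mul_inv_le_iff₀ hx1p]
        have : x2 * W ≤ x1 * W :=
          mul_le_mul_of_nonneg_right (hx2x1.trans (by linarith only [hx1p])) hW.le
        linarith only [h1, this]
      · rw [hx2e, mul_inv_le_iff₀ hx2p]
        linarith only [h1]
    exact ⟨hωx ω1 (w 1) hw1 hω.1, hωx ω2 (w 2) hw2 hω.2⟩
  have hJ1 : 17 ≤ N1 * m := hN1a.trans (Nat.le_mul_of_pos_right _ hm1)
  have hJ2 : 17 ≤ N2 * m :=
    (show 17 ≤ N2 by omega).trans (Nat.le_mul_of_pos_right _ hm1)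
  -- high / low
  set hi : ι → Prop := fun t => x1 ≤ |bet (qB φ κ b0 b1 G) (eY κ) ((0 : ℝ), crd e w T0 (L t) z0)
    ((1 : ℝ), vel e w T0 (L t) ρ) (eA b0)| + |bet (qB φ κ b0 b1 G) (eY κ)
    ((0 : ℝ), crd e w T0 (L t) z0) ((1 : ℝ), vel e w T0 (L t) ρ) (eB b0)| with hhi
  have hsplit : (A.card : ℝ) = ((A.filter hi).card : ℝ) + ((A.filter fun t => ¬ hi t).card : ℝ) := by
    rw [← Nat.cast_add, card_filter_add_card_filter_not]
  rcases le_total ((A.filter fun t => ¬ hi t).card : ℝ) ((A.filter hi).card : ℝ) with hcase | hcase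
  · -- high
    have F1 := F.mono (filter_subset hi A)
    obtain ⟨nA, nB, St, O⟩ := high_out F1 (κ := 17 * x2) (b0 := x1) (r := x2) hx2p.le
      (by linarith) hx1p hx1l (fun t ht => hdet t (mem_of_mem_filter t ht))
      (fun t ht => (mem_filter.1 ht).2) (hi_sm (pow_nonneg hx1p.le 6) hαle hx21)
    set σ := 10 ^ 22 * (17 * x2 + α + x2) / x1 ^ 3 with hσ
    have hσ0 : 0 ≤ σ := by rw [hσ]; positivity
    have hx13 : 0 < x1 ^ 3 := by positivity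
    have hx13' : x1 ^ 3 ≤ 1 := pow_le_one₀ hx1p.le hx1l
    have hσx : x2 ≤ σ := hi_le hx13 hx13' hx2p hα0
    have hc := hwmpos _ (filter_subset hi A) (N2 * m) σ nA nB St hJ2 hσx haJ2
      hωJ.1.2 hωJ.2.2 O
    have hX : 0 ≤ Λ * ((2880000 * 13 * σ) ^ (1 + q2) * 2 ^ (N2 * m)) :=
      mul_nonneg hΛ (mul_nonneg (Real.rpow_nonneg (mul_nonneg (by norm_num) hσ0) _)
        (pow_nonneg (by norm_num) _))
    have hf := half_count hApos (by linarith) hθ0 hbig hX hc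
    have hl := high_num (θ := θ) (σ := σ) hΛ hs20 hq2 hM2 hB
      (hN2' N2 (le_max_left _ _) m hm1) hmθ hσ0 (hi_sig hx13 hαle)
    linarith
  · -- low
    have F1 := F.mono (filter_subset (fun t => ¬ hi t) A)
    have hlow : ∀ t ∈ A.filter fun t => ¬ hi t,
        |bet (qB φ κ b0 b1 G) (eY κ) ((0 : ℝ), crd e w T0 (L t) z0)
          ((1 : ℝ), vel e w T0 (L t) ρ) (eA b0)| ≤ x1 ∧
        |bet (qB φ κ b0 b1 G) (eY κ) ((0 : ℝ), crd e w T0 (L t) z0)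
          ((1 : ℝ), vel e w T0 (L t) ρ) (eB b0)| ≤ x1 := by
      intro t ht
      have h1 : ¬ hi t := (mem_filter.1 ht).2
      rw [hhi] at h1
      push Not at h1
      have h2 := abs_nonneg (bet (qB φ κ b0 b1 G) (eY κ) ((0 : ℝ), crd e w T0 (L t) z0)
          ((1 : ℝ), vel e w T0 (L t) ρ) (eA b0))
      have h3 := abs_nonneg (bet (qB φ κ b0 b1 G) (eY κ) ((0 : ℝ), crd e w T0 (L t) z0)
          ((1 : ℝ), vel e w T0 (L t) ρ) (eB b0))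
      constructor <;> linarith
    obtain ⟨nA, nB, St, O⟩ := low_out F1 (b0 := x1) (r := x1) hx1p.le (by linarith) hx1p
      (by linarith) (by linarith) DT.ext hlow
    set σ := 10 ^ 14 * (x1 + α + x1) with hσ
    have hσ0 : 0 ≤ σ := by rw [hσ]; positivity
    have hσx : x1 ≤ σ := by rw [hσ]; linarith
    have hc := hwmpos _ (filter_subset (fun t => ¬ hi t) A) (N1 * m) σ nA nB St hJ1 hσx haJ1
      hωJ.1.1 hωJ.2.1 O
    have hX : 0 ≤ Λ * ((2880000 * 13 * σ) ^ (1 + q2) * 2 ^ (N1 * m)) :=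
      mul_nonneg hΛ (mul_nonneg (Real.rpow_nonneg (mul_nonneg (by norm_num) hσ0) _)
        (pow_nonneg (by norm_num) _))
    have hf := half_count hApos (by linarith) hθ0 hbig hX hc
    have hl := low_num (θ := θ) (σ := σ) hΛ hs10 hq2 hM1
      (hN1' N1 (le_max_left _ _) m hm1) hmθ hσ0 (lo_sig hαle1)
    linarith

end Crest.Agent.R136.Ndc335
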