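import Crest.Agent.R136.Ndc2_335

/-!
# R136 / U5, non-degeneracy (214's (3.0)): lines with a poor neighbourhood (helper335)

`poor_le`: among the lines of a box (half-widths `w`, axes `e`, centre line `c`, over a cell), those
which have less than `θ #A` lines of `A` within `w / N` over the whole cell are at most
`(2 N + 1) ^ 6 θ #A`.
-/

set_option autoImplicit false
set_option linter.unusedVariables false

open Finset

namespace Crest.Agent.R136.Ndc335

open Sh605

/-- bound of an affine function by its values at the two ends -/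
theorem aff_le {b z0 ρ z d v : ℝ} (h0 : z0 ≤ z) (h1 : z ≤ z0 + ρ) (hb0 : |d| ≤ b)
    (hb1 : |d + ρ * v| ≤ b) : |d + (z - z0) * v| ≤ b := by
  rcases eq_or_lt_of_le (h0.trans h1) with h | h
  · have hz : z = z0 := by
      have : ρ = 0 := by linarith
      linarith
    rw [hz]; simpa using hb0
  · have hρ : 0 < ρ := by linarith
    have e1 : d + (z - z0) * v = (1 - (z - z0) / ρ) * d + (z - z0) / ρ * (d + ρ * v) := by
      field_simp; ring
    have hs0 : 0 ≤ (z - z0) / ρ := div_nonneg (by linarith) hρ.le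
    have hs1 : (z - z0) / ρ ≤ 1 := by rw [div_le_one hρ]; linarith
    rw [e1]
    refine (abs_add_le _ _).trans ?_
    rw [abs_mul, abs_mul, abs_of_nonneg hs0, abs_of_nonneg (by linarith : 0 ≤ 1 - (z - z0) / ρ)]
    nlinarith

variable {ι : Type}

open Classical in
/-- **lines with a poor neighbourhood** -/
theorem poor_le (A : Finset ι) (L : ι → Ln4) {e : Fin 3 → V3} {c : Ln4} {w : V3} {z0 ρ : ℝ}
    (hw : ∀ i, 0 < w i) (hρ : 0 ≤ ρ) {N : ℕ} (hN : 0 < N) {θ : ℝ} (hθ : 0 ≤ θ)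
    (hA : ∀ t ∈ A, ∀ z, z0 ≤ z → z ≤ z0 + ρ → ∀ i, |dt (e i) ((L t).pos z - c.pos z)| ≤ w i) :
    ((A.filter fun t => ((A.filter fun t' => ∀ i, ∀ z, z0 ≤ z → z ≤ z0 + ρ →
        |dt (e i) ((L t').pos z - (L t).pos z)| ≤ w i / N).card : ℝ) < θ * A.card).card : ℝ) ≤
      (2 * N + 1) ^ 6 * (θ * A.card) := by
  have hN' : (0:ℝ) < N := by exact_mod_cast hN
  set x : Fin 3 → ℝ → ι → ℝ := fun i z t => dt (e i) ((L t).pos z - c.pos z) / w i with hx
  set code : ι → Fin 3 → ℤ × ℤ := fun t i => (⌊(N:ℝ) * x i z0 t⌋, ⌊(N:ℝ) * x i (z0 + ρ) t⌋)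
    with hcode
  set T : Finset (Fin 3 → ℤ × ℤ) := Fintype.piFinset fun _ =>
    (Icc (-N : ℤ) N ×ˢ Icc (-N : ℤ) N) with hT
  set P := A.filter fun t => ((A.filter fun t' => ∀ i, ∀ z, z0 ≤ z → z ≤ z0 + ρ →
        |dt (e i) ((L t').pos z - (L t).pos z)| ≤ w i / N).card : ℝ) < θ * A.card with hP
  have hfl : ∀ u : ℝ, |u| ≤ 1 → ⌊(N:ℝ) * u⌋ ∈ Icc (-N : ℤ) N := by
    intro u hu
    have := abs_le.1 hu
    rw [mem_Icc]
    constructor
    · rw [Int.le_floor]; push_cast; nlinarith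
    · have h1 : ⌊(N:ℝ) * u⌋ ≤ ⌊((N : ℤ) : ℝ)⌋ := Int.floor_le_floor (by push_cast; nlinarith)
      rw [Int.floor_intCast] at h1
      exact h1
  have hx1 : ∀ t ∈ A, ∀ i, ∀ z, z0 ≤ z → z ≤ z0 + ρ → |x i z t| ≤ 1 := by
    intro t ht i z h0 h1
    rw [hx]
    simp only
    rw [abs_div, abs_of_pos (hw i), div_le_one (hw i)]
    exact hA t ht z h0 h1 i
  have hmem : ∀ t ∈ P, code t ∈ T := by
    intro t ht
    rw [hP, mem_filter] at ht
    rw [hT, Fintype.mem_piFinset]
    intro i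
    exact mem_product.2 ⟨hfl _ (hx1 t ht.1 i z0 le_rfl (by linarith)),
      hfl _ (hx1 t ht.1 i (z0 + ρ) (by linarith) le_rfl)⟩
  have hcardT : (T.card : ℝ) = (2 * N + 1) ^ 6 := by
    rw [hT, Fintype.card_piFinset]
    simp only [card_product, Int.card_Icc, Finset.prod_const, Finset.card_univ, Fintype.card_fin]
    have h1 : ((N : ℤ) + 1 - -(N : ℤ)).toNat = 2 * N + 1 := by omega
    rw [h1]; push_cast; ring
  have hsame : ∀ t ∈ A, ∀ t' ∈ A, code t' = code t → ∀ i, ∀ z, z0 ≤ z → z ≤ z0 + ρ →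
      |dt (e i) ((L t').pos z - (L t).pos z)| ≤ w i / N := by
    intro t ht t' ht' hc i z h0 h1
    have hci := congrFun hc i
    rw [hcode] at hci
    simp only [Prod.mk.injEq] at hci
    have key : ∀ z', ⌊(N:ℝ) * x i z' t'⌋ = ⌊(N:ℝ) * x i z' t⌋ →
        |dt (e i) ((L t').pos z' - (L t).pos z')| ≤ w i / N := by
      intro z' h
      have g := Int.abs_sub_lt_one_of_floor_eq_floor h
      rw [← mul_sub, abs_mul, abs_of_pos hN'] at g
      have e1 : x i z' t' - x i z' t = dt (e i) ((L t').pos z' - (L t).pos z') / w i := by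
        rw [hx]; simp only [dt, Pi.sub_apply]; ring
      rw [e1, abs_div, abs_of_pos (hw i)] at g
      rw [le_div_iff₀ hN']
      have hwi := hw i
      have g2 : (N:ℝ) * (|dt (e i) ((L t').pos z' - (L t).pos z')| / w i) * w i ≤ 1 * w i :=
        mul_le_mul_of_nonneg_right g.le hwi.le
      have e2 : (N:ℝ) * (|dt (e i) ((L t').pos z' - (L t).pos z')| / w i) * w i =
          |dt (e i) ((L t').pos z' - (L t).pos z')| * N := by field_simp
      linarith
    have k0 := key z0 hci.1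
    have k1 := key (z0 + ρ) hci.2
    rw [dt_pos_diff (e i) (L t) (L t') z z0]
    rw [dt_pos_diff (e i) (L t) (L t') (z0 + ρ) z0] at k1
    refine aff_le h0 h1 k0 ?_
    have e3 : z0 + ρ - z0 = ρ := by ring
    rw [e3] at k1
    exact k1
  have hfib : ∀ y ∈ T, ((P.filter fun t => code t = y).card : ℝ) ≤ θ * A.card := by
    intro y hy
    rcases (P.filter fun t => code t = y).eq_empty_or_nonempty with h0 | ⟨t, ht⟩
    · rw [h0]
      simp only [card_empty, Nat.cast_zero]
      positivity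
    · rw [mem_filter, hP, mem_filter] at ht
      obtain ⟨⟨htA, hpoor⟩, hty⟩ := ht
      refine le_of_lt (lt_of_le_of_lt ?_ hpoor)
      have hsub : (P.filter fun t => code t = y) ⊆ A.filter fun t' => ∀ i, ∀ z, z0 ≤ z →
          z ≤ z0 + ρ → |dt (e i) ((L t').pos z - (L t).pos z)| ≤ w i / N := by
        intro t' ht'
        rw [mem_filter, hP, mem_filter] at ht'
        rw [mem_filter]
        exact ⟨ht'.1.1, hsame t htA t' ht'.1.1 (ht'.2.trans hty.symm)⟩
      exact_mod_cast card_le_card hsub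
  have e1 : (P.card : ℝ) = ∑ y ∈ T, ((P.filter fun t => code t = y).card : ℝ) := by
    have := card_eq_sum_card_fiberwise (s := P) (t := T) (f := code) (fun t ht => hmem t ht)
    rw [this]; push_cast; rfl
  rw [e1]
  calc ∑ y ∈ T, ((P.filter fun t => code t = y).card : ℝ) ≤ ∑ y ∈ T, θ * A.card :=
        sum_le_sum hfib
    _ = T.card * (θ * A.card) := by rw [sum_const, nsmul_eq_mul]
    _ = (2 * N + 1) ^ 6 * (θ * A.card) := by rw [hcardT]

end Crest.Agent.R136.Ndc335
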