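import Crest.Agent.R136.Rich_335
import Crest.Agent.R136.KapP_335
import Crest.Agent.R136.Ndp_335
import Crest.Agent.R136.Nd11_335

/-!
# R136 / U5, non-degeneracy (3.0): the sequence form (helper335)

**`nonDeg_of`**: for a marked sequence of sheets with deep D-max, the marks are flat or
non-degenerate along their lines, at every level, outside a negligible set.  The geometry is abstract
(`GeoS`): membership, admissibility (`ShN`, `w 1 ≤ rho`, lateral widths in a range), size.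
-/

set_option autoImplicit false
set_option linter.unusedVariables false
set_option linter.unusedSectionVars false

open Finset Filter Topology

namespace Crest.Agent.R136.Ndc335

open Crest.Agent.R138.Ex926 Crest.Agent.R138.Dp76
open Crest.Agent.R138.Mk163 (zc zl rho alive own Negl)
open Crest.Agent.R138.MkRef627 (lc kc mem_alive card_class alive_mono)
open Crest.Agent.R138.ArgM163 (ev_const_mul ev_const)
open Crest.Agent.R136.MkA627 Crest.Agent.R136.Dia770
open Crest.Agent.R136.Sh605 Crest.Agent.R136.K4 Crest.Agent.R136.KapP335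
open Crest.Agent.R136.Tl102 (QF fan shB0 scB1 scG kap NrmC IsExp StP kap_le)
open Crest.Agent.R136.Arc880 (det3)

/-- the geometry of sheets of class `C*` with rewards `(a/ρ)^(q 0) (w₁/ρ)^(q 1) (w₂/ρ)^(q 2)`; the
widths of the test sheets are in the range `[wr k n, cr k n]` (`k = 0` : thickness) -/
structure GeoS (G : Geo Plk4 (Fin 3)) (L : ℕ → ℕ → Ln4) (r0 : ℕ → ℝ) (q : Fin 3 → ℝ)
    (wr cr : Fin 3 → ℕ → ℝ) : Prop where
  mem : ∀ n i J s t, G.mem n i J s t ↔ InSheet (L n t) s.e s.c s.w s.q s.a (zl i J) (rho i)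
  adm : ∀ n i J s, G.adm n i J s →
    ShN s.e s.c s.w s.q s.a (zl i J) (rho i) (r0 n) ∧ s.w 1 ≤ rho i
  adm' : ∀ n i J s, ShN s.e s.c s.w s.q s.a (zl i J) (rho i) (r0 n) → s.w 1 ≤ rho i →
    (∀ k, wr k n ≤ ![s.a, s.w 1, s.w 2] k ∧ ![s.a, s.w 1, s.w 2] k ≤ cr k n) → G.adm n i J s
  val : ∀ n i J s, G.val n i J s = s.a * s.w 2 * s.w 1 *
    ((s.a / rho i) ^ q 0 * (s.w 1 / rho i) ^ q 1 * (s.w 2 / rho i) ^ q 2)
  wid : ∀ k s, G.wid k s = ![s.a, s.w 1, s.w 2] k

theorem rho_pos (i : ℕ) : 0 < rho i := by unfold Crest.Agent.R138.Mk163.rho; positivity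

theorem rho_add (i k : ℕ) : rho i = 2 ^ k * rho (i + k) := by
  unfold Crest.Agent.R138.Mk163.rho
  rw [pow_add]; field_simp

/-- a sub-cell lies in its cell -/
theorem sub_cell {i k : ℕ} {j J : ℤ} (h : j / 2 ^ k = J) :
    zl i J ≤ zl (i + k) j ∧ zl (i + k) j + rho (i + k) ≤ zl i J + rho i := by
  have h1 := ico_div.2 h
  rw [Finset.mem_Ico] at h1
  unfold Crest.Agent.R138.Mk163.zl Crest.Agent.R138.Mk163.rho
  have hi : (0:ℝ) < 2 ^ i := by positivity
  have hk : (0:ℝ) < 2 ^ k := by positivity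
  have a1 : (J : ℝ) * 2 ^ k ≤ j := by exact_mod_cast h1.1
  have a2 : (j : ℝ) + 1 ≤ J * 2 ^ k + 2 ^ k := by exact_mod_cast h1.2
  rw [pow_add]
  constructor
  · rw [div_le_div_iff₀ hi (by positivity)]
    nlinarith
  · rw [← add_div, ← add_div, div_le_div_iff₀ (by positivity) hi]
    nlinarith

section

variable {B : Base} {I : ℕ → Finset (ℕ × ℝ)} {L : ℕ → ℕ → Ln4} {r0 : ℕ → ℝ} {q : Fin 3 → ℝ}
    {G : Geo Plk4 (Fin 3)} {wr cr : Fin 3 → ℕ → ℝ}
    {lev : ℕ → ℚ → ℕ} {A : ℕ → ℝ} {g : ℝ} {τ : Fin 3 → ℝ → ℝ} {f : ℕ → ℚ → ℕ → ℤ → ℕ}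
    {b : ℕ → ℚ → ℕ → Plk4} {vm : ℕ → ℚ → ℝ} {w : Fin 3 → ℕ → ℚ → ℝ}

/-- near lines: within `1 / 1000` of the box of the mark, over the whole cell -/
def NearL (L : ℕ → ℕ → Ln4) (lev : ℕ → ℚ → ℕ) (f : ℕ → ℚ → ℕ → ℤ → ℕ) (b : ℕ → ℚ → ℕ → Plk4)
    (v : ℚ) (n : ℕ) (J : ℤ) (t t' : ℕ) : Prop :=
  ∀ i, ∀ z, zl (lev n v) J ≤ z → z ≤ zl (lev n v) J + rho (lev n v) →
    |dt ((b n v (f n v t J)).e i) ((L n t').pos z - (L n t).pos z)| ≤
      (b n v (f n v t J)).w i / 1000

/-- **(3.0), sequence form** -/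
theorem nonDeg_of (h : MkA B I G lev A (fun v => g * v) (fun v => 0 * v) τ f b vm w)
    (hG : GeoS G L r0 q wr cr) (hq0 : 0 ≤ q 0) (hq2 : 0 < q 2) (hq21 : q 2 ≤ q 1)
    (hr0 : ∀ n, 0 < r0 n) {v : ℚ} (hv0 : 0 ≤ v) (hv1 : v ≤ 1)
    (hd : (∀ᶠ n in (U : Filter ℕ), r0 n ≤ rho (lev n v + 7)) → DeepAt B I G lev A g v 7)
    (hwr0 : ∀ᶠ n in (U : Filter ℕ), wr 0 n ≤ w 0 n v)
    (hcr0 : ∀ᶠ n in (U : Filter ℕ), 3 * w 0 n v ≤ cr 0 n)
    (hwr : ∀ C : ℝ, ∀ k : Fin 3, k ≠ 0 → ∀ᶠ n in (U : Filter ℕ), wr k n ≤ B.d n ^ C * w k n v)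
    (hcr : ∀ k : Fin 3, k ≠ 0 → ∀ᶠ n in (U : Filter ℕ), w k n v ≤ cr k n) {ε : ℝ} (hε : 0 < ε) :
    Negl B I fun n x =>
      B.d n ^ (-ε) * (b n v (f n v x.1 (zc (lev n v) x.2))).a <
          kapP (b n v (f n v x.1 (zc (lev n v) x.2))) (zl (lev n v) (zc (lev n v) x.2))
            (rho (lev n v)) (L n x.1) ∧
        ¬ DetP (B.d n ^ ε) (b n v (f n v x.1 (zc (lev n v) x.2))) (zl (lev n v) (zc (lev n v) x.2))
            (rho (lev n v)) (L n x.1) := by
  classical
  obtain ⟨C, hC1, hC⟩ := nondegR (q2 := q 2) (CR := 3 ^ q 0) hq2 (by positivity)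
  have hmark : ∀ᶠ n in (U : Filter ℕ), ∀ J : ℤ, ∀ t ∈ alive (I n) (lev n v) J,
      InSheet (L n t) (b n v (f n v t J)).e (b n v (f n v t J)).c (b n v (f n v t J)).w
        (b n v (f n v t J)).q (b n v (f n v t J)).a (zl (lev n v) J) (rho (lev n v)) ∧
      (ShN (b n v (f n v t J)).e (b n v (f n v t J)).c (b n v (f n v t J)).w
        (b n v (f n v t J)).q (b n v (f n v t J)).a (zl (lev n v) J) (rho (lev n v)) (r0 n) ∧
        (b n v (f n v t J)).w 1 ≤ rho (lev n v)) ∧
      G.val n (lev n v) J (b n v (f n v t J)) = vm n v ∧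
      ((b n v (f n v t J)).a = w 0 n v ∧ (b n v (f n v t J)).w 1 = w 1 n v ∧
        (b n v (f n v t J)).w 2 = w 2 n v) := by
    filter_upwards [h.mark v hv0 hv1] with n hn J t ht
    obtain ⟨h1, h2, h3, h4⟩ := hn J t ht
    refine ⟨(hG.mem _ _ _ _ _).1 h1, hG.adm _ _ _ _ h2, h3, ?_, ?_, ?_⟩
    · have := h4 0; rw [hG.wid] at this; exact this
    · have := h4 1; rw [hG.wid] at this; exact this
    · have := h4 2; rw [hG.wid] at this; exact this
  have hC0 : 0 < C := by linarith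
  rcases ev_em (fun n => r0 n ≤ rho (lev n v + 7)) with hr | hr
  swap
  · -- the thickness of the mark is comparable to the cell: no curved marks
    refine Negl.false.mono ?_
    filter_upwards [hr, hmark, ev_const B (C := 2000) (by norm_num) hε]
      with n n1 n2 n3 x hx hbad
    have hal : x.1 ∈ alive (I n) (lev n v) (zc (lev n v) x.2) := mem_alive.2 ⟨x, hx, rfl, rfl⟩
    obtain ⟨hmem, ⟨hadm, hw1⟩, -, -⟩ := n2 _ _ hal
    set S := b n v (f n v x.1 (zc (lev n v) x.2)) with hS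
    have hrp := hr0 n
    have hap : 0 < S.a := by linarith [hadm.r0_le]
    have hw0 : 0 < S.w 0 := by linarith [hadm.a_le0]
    have hE := expP_spec hadm.isQ hw0.ne' (zl (lev n v) (zc (lev n v) x.2)) (rho (lev n v)) (L n x.1)
    have hN := IsExp.nrmC (StP.of_shN hadm hw0) (rho_pos _).le (fun z h1 h2 => (hmem z h1 h2).1) hE
    have hk := kap_le hN
    have h1 := hbad.1
    unfold kapP at h1
    have h2 : rho (lev n v) = 2 ^ 7 * rho (lev n v + 7) := rho_add _ _
    push Not at n1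
    have h3 : S.w 0 ≤ 128 * S.a := by
      calc S.w 0 ≤ S.w 1 := hadm.w0_le.trans hadm.w_le
        _ ≤ rho (lev n v) := hw1
        _ = 128 * rho (lev n v + 7) := by rw [h2]; norm_num
        _ ≤ 128 * S.a := by linarith [hadm.r0_le]
    have h4 : S.w 0 * kap (expP S (zl (lev n v) (zc (lev n v) x.2)) (rho (lev n v)) (L n x.1)).1
        (expP S (zl (lev n v) (zc (lev n v) x.2)) (rho (lev n v)) (L n x.1)).2.1
        (expP S (zl (lev n v) (zc (lev n v) x.2)) (rho (lev n v)) (L n x.1)).2.2 ≤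
        128 * S.a * 13 := mul_le_mul h3 hk (Tl102.kap_nonneg _ _ _) (by positivity)
    have h5 : 2000 * S.a ≤ B.d n ^ (-ε) * S.a := mul_le_mul_of_nonneg_right n3 hap.le
    linarith
  · -- main case
    have hpoor : ∀ᶠ n in (U : Filter ℕ), ∀ J : ℤ, ∀ t0 ∈ alive (I n) (lev n v) J,
      ∀ A' ⊆ (alive (I n) (lev n v) J).filter fun s => f n v s J = f n v t0 J,
      ∀ θ : ℝ, 0 ≤ θ →
        ((A'.filter fun t => ((A'.filter fun t' => NearL L lev f b v n J t t').card : ℝ) <
          θ * A'.card).card : ℝ) ≤ (2 * (1000 : ℕ) + 1) ^ 6 * (θ * A'.card) := by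
      filter_upwards [hmark] with n n1 J t0 ht0 A' hA' θ hθ
      set S := b n v (f n v t0 J) with hS
      obtain ⟨-, ⟨hadm, -⟩, -, -⟩ := n1 J t0 ht0
      have hrp := hr0 n
      have hap : 0 < S.a := by linarith [hadm.r0_le]
      have hw0 : 0 < S.w 0 := by linarith [hadm.a_le0]
      have hw2 : 0 < S.w 2 := by linarith [hadm.w0_le]
      have hw1 : 0 < S.w 1 := by linarith [hadm.w_le]
      have hA2 : ∀ t ∈ A', t ∈ alive (I n) (lev n v) J ∧ b n v (f n v t J) = S := by
        intro t ht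
        have := mem_filter.1 (hA' ht)
        exact ⟨this.1, by rw [hS, this.2]⟩
      have hp := poor_le A' (L n) (e := S.e) (c := S.c) (w := S.w) (z0 := zl (lev n v) J)
        (ρ := rho (lev n v)) (by intro i; fin_cases i <;> assumption) (rho_pos _).le
        (N := 1000) (by norm_num) hθ (by
          intro t ht z g0 g1 i
          obtain ⟨ha, hb⟩ := hA2 t ht
          have := (n1 J t ha).1
          rw [hb] at this
          exact (this z g0 g1).1 i)
      refine le_trans (le_of_eq ?_) hp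
      congr 2
      refine filter_congr fun t ht => ?_
      have e1 : (A'.filter fun t' => NearL L lev f b v n J t t') =
          A'.filter fun t' => ∀ i, ∀ z, zl (lev n v) J ≤ z → z ≤ zl (lev n v) J + rho (lev n v) →
            |dt (S.e i) ((L n t').pos z - (L n t).pos z)| ≤ S.w i / (1000 : ℕ) := by
        refine filter_congr fun t' ht' => ?_
        unfold NearL
        rw [(hA2 t ht).2]
        push_cast
        rfl
      rw [e1]
    set δ : ℝ := ε / (4 * C) with hδ
    have hδ0 : 0 < δ := by rw [hδ]; positivity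
    obtain ⟨P, hP, hmax, hneg⟩ := rich_cell h hv0 hv1 (hd hr) (NearL L lev f b v)
      (K := (2 * (1000 : ℕ) + 1) ^ 6) (by positivity) hpoor hδ0 hδ0
    refine hneg.mono ?_
    set sq : ℝ := q 0 + q 1 + q 2 with hsq
    set C' : ℝ := 2 ^ ((g + δ) * (7 : ℕ)) * 128 ^ sq with hC'
    have hC'0 : 0 < C' := by rw [hC']; positivity
    have hεC : 0 < ε / C := by positivity
    filter_upwards [hmark, hmax, h.vpos v hv0 hv1,
      ev_const_mul B hC'0 (show 0 < 2 * δ by positivity),
      ev_const_mul B (C := 2) (by norm_num) hεC, hwr ε 1 (by decide), hwr ε 2 (by decide),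
      hcr 1 (by decide), hcr 2 (by decide), hwr0, hcr0]
      with n n1 n2 n3 n4 n5 n6 n7 n8 n9 n10 n11 x hx hbad j hj
    by_contra hcount
    push Not at hcount
    apply hbad.2
    have hdp := fun a => dpow_pos B n a
    have hamp : 0 < ampA B A (fun v => g * v) n v := mul_pos (h.Apos n) (hdp _)
    have hal : x.1 ∈ alive (I n) (lev n v) (zc (lev n v) x.2) := mem_alive.2 ⟨x, hx, rfl, rfl⟩
    obtain ⟨hmem, ⟨hadm, hw1⟩, hval, hwd0, hwd1, hwd2⟩ := n1 _ _ hal
    rw [← hwd0] at n10 n11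
    rw [hG.val] at hval
    rw [← hwd1] at n6 n8
    rw [← hwd2] at n7 n9
    set i := lev n v with hi
    set J := zc i x.2 with hJ
    set S := b n v (f n v x.1 J) with hS
    have hrp := hr0 n
    have hap : 0 < S.a := by linarith [hadm.r0_le]
    have hw0 : 0 < S.w 0 := by linarith [hadm.a_le0]
    have hw2 : 0 < S.w 2 := by linarith [hadm.w0_le]
    have hw1p : 0 < S.w 1 := by linarith [hadm.w_le]
    have hE := expP_spec hadm.isQ hw0.ne' (zl i J) (rho i) (L n x.1)
    obtain ⟨sc1, sc2⟩ := sub_cell (i := i) hj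
    set A' := (alive (I n) i J).filter fun t' => f n v t' J = f n v x.1 J ∧
      NearL L lev f b v n J x.1 t' ∧ (t', j) ∈ P n with hA'
    have hρ1 := rho_pos (i + 7)
    set D : ℝ := B.d n ^ (-δ) * (A n * B.d n ^ (-(g * v))) * 2 ^ ((g + δ) * (7 : ℕ)) with hD
    have hD0 : 0 < D := by have := hdp (-δ); have := hdp (-(g * v)); have := h.Apos n; positivity
    set R : ℝ → ℝ → ℝ → ℝ := fun a' w2' w1' =>
      (a' * (rho (i + 7))⁻¹) ^ q 0 * (w1' * (rho (i + 7))⁻¹) ^ q 1 * (w2' * (rho (i + 7))⁻¹) ^ q 2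
      with hR
    have hdm : DMaxR A' (L n) (zl (i + 7) j) (rho (i + 7)) D R (r0 n) S.a (wr 1 n) (wr 2 n)
        (min (rho (i + 7)) (cr 1 n)) (cr 2 n) := by
      intro e' c' w' q' a' hS' ha1 ha3 hw' hw2' hr1 hr2
      have h1 := n2 j ⟨j, e', c', w', q', a'⟩ (hG.adm' _ _ _ _ hS' (hw'.trans (min_le_left _ _))
        (by
          intro k
          fin_cases k
          · exact ⟨n10.trans ha1, ha3.trans n11⟩
          · exact ⟨hr1, hw'.trans (min_le_right _ _)⟩
          · exact ⟨hr2, hw2'⟩))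
      rw [hG.val] at h1
      have h2 : ((A'.filter fun t => InSheet (L n t) e' c' w' q' a' (zl (i + 7) j)
          (rho (i + 7))).card : ℝ) ≤ (((P n).filter fun o => o.2 = j ∧
          G.mem n (i + 7) j ⟨j, e', c', w', q', a'⟩ o.1).card : ℝ) := by
        norm_cast
        refine card_le_card_of_injOn (fun t => (t, j)) ?_ ?_
        · intro t ht
          have ht' := mem_filter.1 (mem_coe.1 ht)
          have ht'' := mem_filter.1 ht'.1
          exact mem_coe.2 (mem_filter.2 ⟨ht''.2.2.2, rfl, (hG.mem _ _ _ _ _).2 ht'.2⟩)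
        · intro t ht t' ht' hh
          exact (Prod.mk.inj hh).1
      refine (h2.trans h1).trans (le_of_eq ?_)
      rw [hD, hR]
      simp only [div_eq_mul_inv]
    have hval' : S.a * S.w 2 * S.w 1 * ((S.a / rho i) ^ q 0 * (S.w 1 / rho i) ^ q 1 *
        (S.w 2 / rho i) ^ q 2) = vm n v := hval
    have hRS : R S.a (S.w 2) (S.w 1) = 128 ^ sq * ((S.a / rho i) ^ q 0 * (S.w 1 / rho i) ^ q 1 *
        (S.w 2 / rho i) ^ q 2) := by
      have e1 : ∀ u : ℝ, u * (rho (i + 7))⁻¹ = 128 * (u / rho i) := by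
        intro u
        rw [rho_add i 7]
        field_simp
        norm_num
      have hri := rho_pos i
      rw [hR]
      simp only [e1]
      rw [Real.mul_rpow (by norm_num) (by positivity), Real.mul_rpow (by norm_num) (by positivity),
        Real.mul_rpow (by norm_num) (by positivity), hsq, Real.rpow_add (by norm_num),
        Real.rpow_add (by norm_num)]
      ring
    set θ : ℝ := B.d n ^ (ε / C) with hθ
    have hθ0 : 0 < θ := hdp _
    have hθC : θ ^ C = B.d n ^ ε := by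
      rw [hθ, ← Real.rpow_mul (B.pos n).le, div_mul_cancel₀ _ hC0.ne']
    have hθC' : θ ^ (-C) = B.d n ^ (-ε) := by
      rw [hθ, ← Real.rpow_mul (B.pos n).le]
      congr 1
      field_simp
    have hcard : B.d n ^ δ * (ampA B A (fun v => g * v) n v * vm n v) ≤ (A'.card : ℝ) := hcount
    have hvm := n3
    have hApos : (0:ℝ) < A'.card := lt_of_lt_of_le (by have := hdp δ; positivity) hcard
    have hθle : θ * (D * (S.a * S.w 2 * S.w 1 * R S.a (S.w 2) (S.w 1))) ≤ A'.card := by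
      refine le_trans ?_ hcard
      rw [hRS]
      have e1 : S.a * S.w 2 * S.w 1 * (128 ^ sq * ((S.a / rho i) ^ q 0 * (S.w 1 / rho i) ^ q 1 *
          (S.w 2 / rho i) ^ q 2)) = 128 ^ sq * vm n v := by rw [← hval']; ring
      rw [e1]
      have e2 : θ = B.d n ^ (2 * δ) * (B.d n ^ δ * B.d n ^ δ) := by
        rw [hθ, ← dpow_add, ← dpow_add]
        congr 1
        rw [hδ]; field_simp; ring
      have e3 : B.d n ^ δ * B.d n ^ (-δ) = 1 := by rw [← dpow_add, add_neg_cancel, Real.rpow_zero]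
      have e4 : θ * (D * (128 ^ sq * vm n v)) = (C' * B.d n ^ (2 * δ)) * (B.d n ^ δ *
          (ampA B A (fun v => g * v) n v * vm n v)) * (B.d n ^ δ * B.d n ^ (-δ)) := by
        rw [e2, hD, hC']
        unfold ampA
        ring
      rw [e4, e3, mul_one]
      have hp : 0 ≤ B.d n ^ δ * (ampA B A (fun v => g * v) n v * vm n v) := by
        have := hdp δ; positivity
      calc _ ≤ 1 * (B.d n ^ δ * (ampA B A (fun v => g * v) n v * vm n v)) :=
            mul_le_mul_of_nonneg_right n4 hp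
        _ = _ := one_mul _
    have hfin := hC A' (L n) S.e S.c S.w S.q S.a (zl i J) (rho i) (r0 n) (zl (i + 7) j) (rho (i + 7))
      D (wr 1 n) (wr 2 n) (min (rho (i + 7)) (cr 1 n)) (cr 2 n) R θ (L n x.1) _ _ _ hadm hrp
      (rho_pos _) hmem (by
        intro t ht
        have ht' := mem_filter.1 ht
        have hm := (n1 J t ht'.1).1
        rw [ht'.2.1] at hm
        refine ⟨hm, fun z g0 g1 k => ?_⟩
        exact ht'.2.2.1 k z g0 g1) (by rw [rho_add i 7]; norm_num) sc1 sc2 hD0.le hdm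
      (by
        have h7 := rho_add i 7
        have h8 : S.w 1 ≤ 128 * rho (i + 7) := by
          calc S.w 1 ≤ rho i := hw1
            _ = 128 * rho (i + 7) := by rw [h7]; norm_num
        rcases min_choice (rho (i + 7)) (cr 1 n) with hm | hm
        · rw [hm]; exact h8
        · rw [hm]; linarith) n9 (by rw [hθC]; exact n6) (by rw [hθC]; exact n7)
      (by rw [hR]; positivity)
      (by
        rw [hR]
        exact Nd565.pow_reward hq0 hq21 hq2.le (by positivity) hap hw2 hw1p) hθ0 (by linarith)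
      hθle hApos hE (by rw [hθC']; exact hbad.1.le)
    intro ζ h0 h1
    have := hfin ζ h0 h1
    rw [hθC] at this
    exact this

end

end Crest.Agent.R136.Ndc335
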