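import Crest.Agent.R136.Ang1_335
import Crest.Agent.R136.Ndj_335
import Crest.Agent.R136.Asm1_102

/-!
# R136 / U5 (crude tilt, piece (A)), helper335: the angle, sequence form

For a marked sequence of sheets (`MkA` over a geometry `GeoS`), ALL incidences, every level:
* `ang_seq` : if the lines of the class of `t` lie in a slab `|f · (x - c')| ≤ β` over the cell, then
  `|f · e 1| w₁ ≤ d^(-ε) (β + w₂)`, every `ε > 0`;
* `wid_cmp` : widths of two levels;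
* `ang_cont` : with a container `K` of all lines over the cell of level `0` whose width `w 2` is at
  most `d^(-C) w₂` (level `1`): `|K.e j · e 1| w₁ ≤ d^(-C') w₂`, `j ≠ 1`;
* `ang_pair` : `angC (mark of level b) (mark of level c) * w₁ ≤ d^(-C') w₂`.
-/

set_option autoImplicit false
set_option linter.unusedVariables false
set_option linter.unusedSectionVars false

open Finset Filter Topology

namespace Crest.Agent.R136.Ang335

open Crest.Agent.R138.Ex926 Crest.Agent.R138.Dp76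
open Crest.Agent.R138.Mk163 (zc zl rho alive own Negl)
open Crest.Agent.R138.MkRef627 (lc kc mem_alive card_class alive_mono)
open Crest.Agent.R138.ArgM163 (ev_const_mul ev_const)
open Crest.Agent.R136.MkA627 Crest.Agent.R136.Dia770
open Crest.Agent.R136.Sh605 Crest.Agent.R136.K4 Crest.Agent.R136.Sa705
open Crest.Agent.R136.Ndc335 (GeoS rho_pos rho_add sub_cell)
open Crest.Agent.R136.Tl102 (angC)

section

variable {σ κ : Type*} {B : Base} {I : ℕ → Finset (ℕ × ℝ)} {G : Geo σ κ} {lev : ℕ → ℚ → ℕ}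
    {A : ℕ → ℝ} {c Λ : ℝ → ℝ} {τ : κ → ℝ → ℝ} {f : ℕ → ℚ → ℕ → ℤ → ℕ}
    {b : ℕ → ℚ → ℕ → σ} {vm : ℕ → ℚ → ℝ} {w : κ → ℕ → ℚ → ℝ}

theorem wid_lim (h : MkA B I G lev A c Λ τ f b vm w) (k : κ) {v : ℚ} (hv0 : 0 ≤ v) (hv1 : v ≤ 1) :
    Tendsto (fun n => (Real.log (w k n 1) - Real.log (w k n v)) / B.L n) U
      (𝓝 (τ k v - (1 - v))) := by
  have h1 := (h.tau k v hv0 hv1).sub (h.lev_lim v 1 hv0 hv1 le_rfl)
  have e1 : ((1 : ℚ) : ℝ) = 1 := by norm_num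
  rw [e1] at h1
  refine h1.congr' ?_
  filter_upwards [h.wpos k v hv0 hv1, h.wpos k 1 zero_le_one le_rfl] with n n1 n2
  have r1 := rho_pos (lev n v)
  have r2 := rho_pos (lev n 1)
  rw [← sub_div]
  congr 1
  rw [Real.log_div (by positivity) (by positivity), Real.log_div (by positivity) (by positivity),
    Real.log_div (by positivity) (by positivity)]
  have hl : ∀ i : ℕ, Real.log (rho i) = -(i * Real.log 2) := by
    intro i
    unfold Crest.Agent.R138.Mk163.rho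
    rw [one_div, Real.log_inv, Real.log_pow]
  rw [hl, hl]
  ring

/-- widths of two levels -/
theorem wid_cmp (h : MkA B I G lev A c Λ τ f b vm w) (k : κ) {u v : ℚ} (hu0 : 0 ≤ u) (hu1 : u ≤ 1)
    (hv0 : 0 ≤ v) (hv1 : v ≤ 1) : ∃ C : ℝ, 0 ≤ C ∧ ∀ᶠ n in (U : Filter ℕ),
      w k n u ≤ B.d n ^ (-C) * w k n v := by
  have h1 := (wid_lim h k hv0 hv1).sub (wid_lim h k hu0 hu1)
  set C0 : ℝ := (τ k v - (1 - v)) - (τ k u - (1 - u)) with hC0
  refine ⟨max (C0 + 1) 0, le_max_right _ _, ?_⟩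
  filter_upwards [h1.eventually_lt_const (show C0 < C0 + 1 by linarith), h.wpos k u hu0 hu1,
    h.wpos k v hv0 hv1] with n a0 a2 a3
  have hL := B.L_pos n
  have hp := dpow_pos B n (-(max (C0 + 1) 0))
  rw [← sub_div, div_lt_iff₀ hL] at a0
  rw [← Real.log_le_log_iff a2 (mul_pos hp a3), Real.log_mul hp.ne' a3.ne',
    Real.log_rpow (B.pos n)]
  have h2 : (C0 + 1) * B.L n ≤ max (C0 + 1) 0 * B.L n :=
    mul_le_mul_of_nonneg_right (le_max_left _ _) hL.le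
  unfold Base.L at a0 h2
  linarith

end

section

variable {B : Base} {I : ℕ → Finset (ℕ × ℝ)} {L : ℕ → ℕ → Ln4} {r0 : ℕ → ℝ} {q : Fin 3 → ℝ}
    {G : Geo Plk4 (Fin 3)} {wr cr : Fin 3 → ℕ → ℝ} {c Λ : ℝ → ℝ}
    {lev : ℕ → ℚ → ℕ} {A : ℕ → ℝ} {τ : Fin 3 → ℝ → ℝ} {f : ℕ → ℚ → ℕ → ℤ → ℕ}
    {b : ℕ → ℚ → ℕ → Plk4} {vm : ℕ → ℚ → ℝ} {w : Fin 3 → ℕ → ℚ → ℝ}

open Classical in
/-- **angle**, all incidences -/
theorem ang_seq (h : MkA B I G lev A c Λ τ f b vm w) (hG : GeoS G L r0 q wr cr) (hq1 : 0 ≤ q 1)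
    (hr0 : ∀ n, 0 < r0 n) {v : ℚ} (hv0 : 0 ≤ v) (hv1 : v ≤ 1)
    (hwr0 : ∀ᶠ n in (U : Filter ℕ), wr 0 n ≤ w 0 n v)
    (hwr : ∀ C : ℝ, ∀ k : Fin 3, k ≠ 0 → ∀ᶠ n in (U : Filter ℕ), wr k n ≤ B.d n ^ C * w k n v)
    (hcr : ∀ k : Fin 3, ∀ᶠ n in (U : Filter ℕ), w k n v ≤ cr k n) {ε : ℝ} (hε : 0 < ε) :
    ∀ᶠ n in (U : Filter ℕ), ∀ J : ℤ, ∀ t ∈ alive (I n) (lev n v) J,
      ∀ (ff : V3) (c' : ℝ → V3) (β : ℝ), dt ff ff = 1 → 0 ≤ β →
      (∀ u ∈ alive (I n) (lev n v) J, f n v u J = f n v t J → ∀ z, zl (lev n v) J ≤ z →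
        z ≤ zl (lev n v) J + rho (lev n v) → |dt ff ((L n u).pos z - c' z)| ≤ β) →
      |dt ff ((b n v (f n v t J)).e 1)| * w 1 n v ≤ B.d n ^ (-ε) * (β + w 2 n v) := by
  have hε8 : 0 < ε / 8 := by positivity
  have hε2 : 0 < ε / 2 := by positivity
  filter_upwards [h.mark v hv0 hv1, h.near v hv0 hv1 (ε / 8) hε8, h.dmax v hv0 hv1 (ε / 8) hε8,
    ev_const_mul B (C := 4) (by norm_num) hε2, ev_const_mul B (C := 2) (by norm_num)
      (show 0 < ε / 4 by positivity), hwr0, hwr (ε / 2) 1 (by decide), hwr 0 2 (by decide),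
    hcr 0, hcr 1, hcr 2, h.vpos v hv0 hv1] with n n1 n2 n3 n4 n5 n6 n7 n8 n9 n10 n11 n12
  intro J t ht ff c' β hf hβ0 hβ
  have hdp := fun a => dpow_pos B n a
  obtain ⟨-, hadm, hval, hwid⟩ := n1 J t ht
  set S := b n v (f n v t J) with hS
  obtain ⟨hshn, hw1⟩ := hG.adm _ _ _ _ hadm
  have w0 := hwid 0
  have w1 := hwid 1
  have w2 := hwid 2
  rw [hG.wid] at w0 w1 w2
  simp only [Matrix.cons_val] at w0 w1 w2
  rw [← w1, ← w2]
  rw [← w0] at n6 n9
  rw [← w1] at n7 n10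
  rw [← w2] at n8 n11
  rw [Real.rpow_zero, one_mul] at n8
  have hrp := hr0 n
  have hap : 0 < S.a := hrp.trans_le hshn.r0_le
  have hw0 : 0 < S.w 0 := hap.trans_le hshn.a_le0
  have hw2 : 0 < S.w 2 := hw0.trans_le hshn.w0_le
  have hw1p : 0 < S.w 1 := hw2.trans_le hshn.w_le
  have hρ := rho_pos (lev n v)
  set Cl := (alive (I n) (lev n v) J).filter fun s => f n v s J = f n v t J with hCl
  have htCl : t ∈ Cl := mem_filter.2 ⟨ht, rfl⟩
  set Gm : ℝ := B.d n ^ (ε / 2) with hGm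
  have hGm0 : 0 < Gm := hdp _
  have hmem : ∀ u ∈ Cl, InSheet (L n u) S.e S.c S.w S.q S.a (zl (lev n v) J) (rho (lev n v)) := by
    intro u hu
    have hu' := mem_filter.1 hu
    have := (n1 J u hu'.1).1
    rw [hG.mem, hu'.2] at this
    exact this
  have hApos := h.Apos n
  have hsp := spread (A := Cl) (Lf := L n) hshn hap hmem htCl hf hβ0
    (fun u hu => hβ u (mem_filter.1 hu).1 (mem_filter.1 hu).2) hGm0 (by linarith) (by
      intro hS'
      have hadm' := hG.adm' n (lev n v) J ⟨J, S.e, Sa705.ctr S.e S.c (L n t), wst S.w Gm, S.q, S.a⟩ hS'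
        (by
          show wst S.w Gm 1 ≤ _
          simp only [wst, Matrix.cons_val]
          nlinarith)
        (by
          intro k
          fin_cases k
          · exact ⟨n6, n9⟩
          · refine ⟨?_, ?_⟩
            · show wr 1 n ≤ wst S.w Gm 1
              simp only [wst, Matrix.cons_val]
              exact n7
            · show wst S.w Gm 1 ≤ cr 1 n
              simp only [wst, Matrix.cons_val]
              nlinarith
          · refine ⟨?_, ?_⟩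
            · show wr 2 n ≤ wst S.w Gm 2
              simpa [wst] using n8
            · show wst S.w Gm 2 ≤ cr 2 n
              simpa [wst] using n11)
      have hd := n3 J _ hadm'
      have hsub : ((Cl.filter fun u => InSheet (L n u) S.e (Sa705.ctr S.e S.c (L n t)) (wst S.w Gm) S.q
          S.a (zl (lev n v) J) (rho (lev n v))).card : ℝ) ≤
          (((alive (I n) (lev n v) J).filter fun u => G.mem n (lev n v) J
            ⟨J, S.e, Sa705.ctr S.e S.c (L n t), wst S.w Gm, S.q, S.a⟩ u).card : ℝ) := by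
        norm_cast
        refine card_le_card fun u hu => ?_
        have hu' := mem_filter.1 hu
        exact mem_filter.2 ⟨(mem_filter.1 hu'.1).1, (hG.mem _ _ _ _ _).2 hu'.2⟩
      refine lt_of_le_of_lt (hsub.trans hd) ?_
      have hv' : G.val n (lev n v) J ⟨J, S.e, Sa705.ctr S.e S.c (L n t), wst S.w Gm, S.q, S.a⟩ ≤
          Gm * vm n v := by
        rw [hG.val]
        rw [hG.val] at hval
        simp only [wst, Matrix.cons_val]
        rw [← hval]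
        have hr : (Gm * S.w 1 / rho (lev n v)) ^ q 1 ≤ (S.w 1 / rho (lev n v)) ^ q 1 := by
          apply Real.rpow_le_rpow (by positivity) _ hq1
          rw [div_le_div_iff_of_pos_right hρ]
          nlinarith
        have e1 : S.a * S.w 2 * (Gm * S.w 1) * ((S.a / rho (lev n v)) ^ q 0 *
            (Gm * S.w 1 / rho (lev n v)) ^ q 1 * (S.w 2 / rho (lev n v)) ^ q 2) =
            (Gm * (S.a * S.w 2 * S.w 1) * ((S.a / rho (lev n v)) ^ q 0 *
              (S.w 2 / rho (lev n v)) ^ q 2)) * (Gm * S.w 1 / rho (lev n v)) ^ q 1 := by ring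
        rw [e1]
        calc _ ≤ (Gm * (S.a * S.w 2 * S.w 1) * ((S.a / rho (lev n v)) ^ q 0 *
              (S.w 2 / rho (lev n v)) ^ q 2)) * (S.w 1 / rho (lev n v)) ^ q 1 :=
              mul_le_mul_of_nonneg_left hr (by positivity)
          _ = _ := by ring
      have hn := n2 J t ht
      have hcard : (0:ℝ) < Cl.card := by exact_mod_cast card_pos.2 ⟨t, htCl⟩
      have hamp : 0 < ampA B A c n v := mul_pos hApos (hdp _)
      calc B.d n ^ (-(ε / 8)) * ampA B A c n v * G.val n (lev n v) J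
            ⟨J, S.e, Sa705.ctr S.e S.c (L n t), wst S.w Gm, S.q, S.a⟩ ≤
            B.d n ^ (-(ε / 8)) * ampA B A c n v * (Gm * vm n v) :=
            mul_le_mul_of_nonneg_left hv' (by have := hdp (-(ε / 8)); positivity)
        _ = (B.d n ^ (-(ε / 8)) * Gm) * (ampA B A c n v * vm n v) := by ring
        _ ≤ (B.d n ^ (-(ε / 8)) * Gm) * (B.d n ^ (-(ε / 8)) * Cl.card) :=
            mul_le_mul_of_nonneg_left hn (by have := hdp (-(ε / 8)); positivity)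
        _ = B.d n ^ (ε / 4) * Cl.card := by
            have e2 : B.d n ^ (ε / 4) = B.d n ^ (-(ε / 8)) * Gm * B.d n ^ (-(ε / 8)) := by
              rw [hGm, ← dpow_add, ← dpow_add]; congr 1; ring
            rw [e2]; ring
        _ < 1 * Cl.card := by
            apply mul_lt_mul_of_pos_right _ hcard
            have := hdp (ε / 4)
            linarith
        _ = Cl.card := one_mul _)
  -- conclusion
  have e3 : B.d n ^ (-ε) * Gm * Gm = 1 := by
    rw [hGm, ← dpow_add, ← dpow_add]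
    have : -ε + ε / 2 + ε / 2 = 0 := by ring
    rw [this, Real.rpow_zero]
  have e4 : |dt ff (S.e 1)| * S.w 1 = B.d n ^ (-ε) * Gm * (|dt ff (S.e 1)| * (Gm * S.w 1)) := by
    calc |dt ff (S.e 1)| * S.w 1 = (B.d n ^ (-ε) * Gm * Gm) * (|dt ff (S.e 1)| * S.w 1) := by
          rw [e3, one_mul]
      _ = _ := by ring
  rw [e4, mul_assoc]
  refine mul_le_mul_of_nonneg_left ?_ (hdp _).le
  calc Gm * (|dt ff (S.e 1)| * (Gm * S.w 1)) ≤ Gm * (2 * β + 4 * S.w 2) :=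
        mul_le_mul_of_nonneg_left hsp hGm0.le
    _ ≤ Gm * (4 * (β + S.w 2)) := mul_le_mul_of_nonneg_left (by linarith) hGm0.le
    _ = (4 * Gm) * (β + S.w 2) := by ring
    _ ≤ 1 * (β + S.w 2) := mul_le_mul_of_nonneg_right n4 (by positivity)
    _ = _ := one_mul _

open Classical in
/-- **angle of the mark with the container** -/
theorem ang_cont (h : MkA B I G lev A c Λ τ f b vm w) (hG : GeoS G L r0 q wr cr) (hq1 : 0 ≤ q 1)
    (hr0 : ∀ n, 0 < r0 n) {v : ℚ} (hv0 : 0 ≤ v) (hv1 : v ≤ 1)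
    (hwr0 : ∀ᶠ n in (U : Filter ℕ), wr 0 n ≤ w 0 n v)
    (hwr : ∀ C : ℝ, ∀ k : Fin 3, k ≠ 0 → ∀ᶠ n in (U : Filter ℕ), wr k n ≤ B.d n ^ C * w k n v)
    (hcr : ∀ k : Fin 3, ∀ᶠ n in (U : Filter ℕ), w k n v ≤ cr k n) {K : ℕ → Plk4} {C0 : ℝ}
    (hK : ∀ᶠ n in (U : Filter ℕ), ∀ x ∈ I n, Ortho (K n).e ∧ (K n).w 0 ≤ (K n).w 2 ∧
      InSheet (L n x.1) (K n).e (K n).c (K n).w (K n).q (K n).a (zl (lev n 0) (zc (lev n 0) x.2))
        (rho (lev n 0)) ∧ (K n).w 2 ≤ B.d n ^ (-C0) * w 2 n 1) :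
    ∃ C : ℝ, 0 ≤ C ∧ ∀ᶠ n in (U : Filter ℕ), ∀ x ∈ I n, ∀ j : Fin 3, j ≠ 1 →
      |dt ((K n).e j) ((b n v (f n v x.1 (zc (lev n v) x.2))).e 1)| * w 1 n v ≤
        B.d n ^ (-C) * w 2 n v := by
  obtain ⟨C1, hC1, hcmp⟩ := wid_cmp h 2 (u := 1) (v := v) zero_le_one le_rfl hv0 hv1
  refine ⟨|C0| + C1 + 2, by positivity, ?_⟩
  filter_upwards [ang_seq h hG hq1 hr0 hv0 hv1 hwr0 hwr hcr (ε := 1) one_pos, hcmp, hK, h.cell0,
    h.lev_mono 0 v le_rfl hv0 hv1, h.wpos 2 v hv0 hv1,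
    ev_const_mul B (C := 2) (by norm_num) (show (0:ℝ) < 1 by norm_num)]
    with n n1 n2 n3 n4 n5 n6 n7 x hx j hj
  have hdp := fun a => dpow_pos B n a
  have hal : x.1 ∈ alive (I n) (lev n v) (zc (lev n v) x.2) := mem_alive.2 ⟨x, hx, rfl, rfl⟩
  obtain ⟨hO, hw02, -, hw2⟩ := n3 x hx
  have hKw : ∀ y ∈ I n, ∀ z, zl (lev n 0) (zc (lev n 0) x.2) ≤ z →
      z ≤ zl (lev n 0) (zc (lev n 0) x.2) + rho (lev n 0) →
      |dt ((K n).e j) ((L n y.1).pos z - (K n).c.pos z)| ≤ (K n).w 2 := by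
    intro y hy z h1 h2
    have h3 := (n3 y hy).2.2.1
    rw [n4 y hy x hx] at h3
    have h4 := (h3 z h1 h2).1 j
    fin_cases j
    · exact h4.trans hw02
    · exact absurd rfl hj
    · exact h4
  obtain ⟨sc1, sc2⟩ := sub_cell (i := lev n 0) (k := lev n v - lev n 0)
    (j := zc (lev n v) x.2) (J := zc (lev n 0) x.2) (by
      rw [← zc_div n5 x.2])
  have e1 : lev n 0 + (lev n v - lev n 0) = lev n v := by omega
  rw [e1] at sc1 sc2
  have hβ0 : 0 ≤ (K n).w 2 := by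
    refine (abs_nonneg _).trans (hKw x hx (zl (lev n v) (zc (lev n v) x.2)) sc1 ?_)
    have := rho_pos (lev n v)
    linarith
  have h1 := n1 (zc (lev n v) x.2) x.1 hal ((K n).e j) (fun z => (K n).c.pos z) ((K n).w 2)
    (by simpa using hO j j) hβ0 (by
      intro u hu _ z h1 h2
      obtain ⟨y, hy, hy1, hy2⟩ := mem_alive.1 hu
      rw [← hy1]
      exact hKw y hy z (sc1.trans h1) (h2.trans sc2))
  refine h1.trans ?_
  have h2 : (K n).w 2 ≤ B.d n ^ (-(|C0| + C1)) * w 2 n v := by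
    refine hw2.trans ?_
    calc B.d n ^ (-C0) * w 2 n 1 ≤ B.d n ^ (-C0) * (B.d n ^ (-C1) * w 2 n v) :=
          mul_le_mul_of_nonneg_left n2 (hdp _).le
      _ = B.d n ^ (-C0 + -C1) * w 2 n v := by rw [dpow_add]; ring
      _ ≤ B.d n ^ (-(|C0| + C1)) * w 2 n v := by
          refine mul_le_mul_of_nonneg_right ?_ n6.le
          apply Real.rpow_le_rpow_of_exponent_ge (B.pos n) (B.lt n).le
          have := le_abs_self C0
          linarith
  have h3 : w 2 n v ≤ B.d n ^ (-(|C0| + C1)) * w 2 n v := by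
    have : (1:ℝ) ≤ B.d n ^ (-(|C0| + C1)) := by
      apply Real.one_le_rpow_of_pos_of_le_one_of_nonpos (B.pos n) (B.lt n).le
      have := abs_nonneg C0
      linarith
    nlinarith
  have h4 : (2:ℝ) ≤ B.d n ^ (-(1:ℝ)) := by
    have h5 : B.d n ^ (-(1:ℝ)) * B.d n ^ (1:ℝ) = 1 := by
      rw [← dpow_add]; norm_num
    have h6 := hdp (-(1:ℝ))
    nlinarith
  calc B.d n ^ (-(1:ℝ)) * ((K n).w 2 + w 2 n v) ≤
        B.d n ^ (-(1:ℝ)) * (2 * (B.d n ^ (-(|C0| + C1)) * w 2 n v)) :=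
        mul_le_mul_of_nonneg_left (by linarith) (hdp _).le
    _ ≤ B.d n ^ (-(1:ℝ)) * (B.d n ^ (-(1:ℝ)) * (B.d n ^ (-(|C0| + C1)) * w 2 n v)) := by
        refine mul_le_mul_of_nonneg_left ?_ (hdp _).le
        refine mul_le_mul_of_nonneg_right h4 ?_
        have := hdp (-(|C0| + C1))
        positivity
    _ = B.d n ^ (-(|C0| + C1 + 2)) * w 2 n v := by
        have : B.d n ^ (-(|C0| + C1 + 2)) = B.d n ^ (-(1:ℝ)) * B.d n ^ (-(1:ℝ)) *
            B.d n ^ (-(|C0| + C1)) := by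
          rw [← dpow_add, ← dpow_add]; congr 1; ring
        rw [this]; ring

open Classical in
/-- **angle of two marks** (any two levels) -/
theorem ang_pair (h : MkA B I G lev A c Λ τ f b vm w) (hG : GeoS G L r0 q wr cr) (hq1 : 0 ≤ q 1)
    (hr0 : ∀ n, 0 < r0 n)
    (hwr0 : ∀ v : ℚ, 0 ≤ v → v ≤ 1 → ∀ᶠ n in (U : Filter ℕ), wr 0 n ≤ w 0 n v)
    (hwr : ∀ C : ℝ, ∀ k : Fin 3, k ≠ 0 → ∀ v : ℚ, 0 ≤ v → v ≤ 1 →
      ∀ᶠ n in (U : Filter ℕ), wr k n ≤ B.d n ^ C * w k n v)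
    (hcr : ∀ k : Fin 3, ∀ v : ℚ, 0 ≤ v → v ≤ 1 → ∀ᶠ n in (U : Filter ℕ), w k n v ≤ cr k n)
    {K : ℕ → Plk4} {C0 : ℝ}
    (hK : ∀ᶠ n in (U : Filter ℕ), ∀ x ∈ I n, Ortho (K n).e ∧ (K n).w 0 ≤ (K n).w 2 ∧
      InSheet (L n x.1) (K n).e (K n).c (K n).w (K n).q (K n).a (zl (lev n 0) (zc (lev n 0) x.2))
        (rho (lev n 0)) ∧ (K n).w 2 ≤ B.d n ^ (-C0) * w 2 n 1)
    {v v' : ℚ} (hv0 : 0 ≤ v) (hv1 : v ≤ 1) (hv0' : 0 ≤ v') (hv1' : v' ≤ 1) :
    ∃ C : ℝ, 0 ≤ C ∧ ∀ᶠ n in (U : Filter ℕ), ∀ x ∈ I n,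
      angC (b n v (f n v x.1 (zc (lev n v) x.2))) (b n v' (f n v' x.1 (zc (lev n v') x.2))) *
        w 1 n v ≤ B.d n ^ (-C) * w 2 n v := by
  obtain ⟨C1, hC1, h1⟩ := ang_cont h hG hq1 hr0 hv0 hv1 (hwr0 v hv0 hv1)
    (fun C k hk => hwr C k hk v hv0 hv1) (fun k => hcr k v hv0 hv1) hK
  obtain ⟨C2, hC2, h2⟩ := ang_cont h hG hq1 hr0 hv0' hv1' (hwr0 v' hv0' hv1')
    (fun C k hk => hwr C k hk v' hv0' hv1') (fun k => hcr k v' hv0' hv1') hK
  obtain ⟨C3, hC3, h3⟩ := wid_cmp h 1 hv0 hv1 hv0' hv1'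
  obtain ⟨C4, hC4, h4⟩ := wid_cmp h 2 hv0' hv1' hv0 hv1
  refine ⟨C1 + C2 + C3 + C4 + 1, by positivity, ?_⟩
  filter_upwards [h1, h2, h3, h4, hK, h.mark v hv0 hv1, h.mark v' hv0' hv1', h.wpos 1 v hv0 hv1,
    h.wpos 1 v' hv0' hv1', h.wpos 2 v hv0 hv1, h.wpos 2 v' hv0' hv1',
    ev_const_mul B (C := 8) (by norm_num) (show (0:ℝ) < 1 by norm_num)]
    with n n1 n2 n3 n4 n5 n6 n7 p1 p1' p2 p2' n8 x hx
  have hdp := fun a => dpow_pos B n a
  have hal : x.1 ∈ alive (I n) (lev n v) (zc (lev n v) x.2) := mem_alive.2 ⟨x, hx, rfl, rfl⟩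
  have hal' : x.1 ∈ alive (I n) (lev n v') (zc (lev n v') x.2) := mem_alive.2 ⟨x, hx, rfl, rfl⟩
  have hO := (hG.adm _ _ _ _ (n6 _ _ hal).2.1).1.ortho
  have hO' := (hG.adm _ _ _ _ (n7 _ _ hal').2.1).1.ortho
  have hOK := (n5 x hx).1
  set S := b n v (f n v x.1 (zc (lev n v) x.2)) with hS
  set S' := b n v' (f n v' x.1 (zc (lev n v') x.2)) with hS'
  set ε : ℝ := B.d n ^ (-C1) * w 2 n v / w 1 n v with hε
  set ε' : ℝ := B.d n ^ (-C2) * w 2 n v' / w 1 n v' with hε'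
  have a : ∀ j : Fin 3, j ≠ 1 → |dt ((K n).e j) (S.e 1)| ≤ ε := fun j hj => by
    rw [hε, le_div_iff₀ p1]; exact n1 x hx j hj
  have a' : ∀ j : Fin 3, j ≠ 1 → |dt ((K n).e j) (S'.e 1)| ≤ ε' := fun j hj => by
    rw [hε', le_div_iff₀ p1']; exact n2 x hx j hj
  have hpos : 0 < ε := by have := hdp (-C1); positivity
  have hpos' : 0 < ε' := by have := hdp (-C2); positivity
  have cm : ∀ x y : V3, dt x y = dt y x := by intro x y; simp only [dt]; ring
  have b1 : ∀ i : Fin 3, i ≠ 1 → |dt (S.e 1) (S'.e i)| ≤ 4 * ε + 4 * ε' := fun i hi => by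
    have := pair_ang hOK hO hO' (a 0 (by decide)) (a 2 (by decide)) (a' 0 (by decide))
      (a' 2 (by decide)) hi
    linarith
  have b2 : ∀ i : Fin 3, i ≠ 1 → |dt (S.e i) (S'.e 1)| ≤ 4 * ε + 4 * ε' := fun i hi => by
    have := pair_ang hOK hO' hO (a' 0 (by decide)) (a' 2 (by decide)) (a 0 (by decide))
      (a 2 (by decide)) hi
    rw [cm] at this
    linarith
  have hang : angC S S' ≤ 4 * ε + 4 * ε' :=
    max_le (max_le (b1 0 (by decide)) (b1 2 (by decide)))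
      (max_le (b2 0 (by decide)) (b2 2 (by decide)))
  have e1 : ε * w 1 n v = B.d n ^ (-C1) * w 2 n v := by
    rw [hε, div_mul_cancel₀ _ p1.ne']
  have e2 : ε' * w 1 n v ≤ B.d n ^ (-(C2 + C3 + C4)) * w 2 n v := by
    have g1 : w 1 n v / w 1 n v' ≤ B.d n ^ (-C3) := by
      rw [div_le_iff₀ p1']; exact n3
    calc ε' * w 1 n v = B.d n ^ (-C2) * w 2 n v' * (w 1 n v / w 1 n v') := by
          rw [hε']; ring
      _ ≤ B.d n ^ (-C2) * (B.d n ^ (-C4) * w 2 n v) * B.d n ^ (-C3) := by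
          have h1 := hdp (-C2)
          have h2 := hdp (-C4)
          refine mul_le_mul (mul_le_mul_of_nonneg_left n4 h1.le) g1 (by positivity) (by positivity)
      _ = _ := by
          have : B.d n ^ (-(C2 + C3 + C4)) = B.d n ^ (-C2) * B.d n ^ (-C4) * B.d n ^ (-C3) := by
            rw [← dpow_add, ← dpow_add]; congr 1; ring
          rw [this]; ring
  have m1 : B.d n ^ (-C1) ≤ B.d n ^ (-(C1 + C2 + C3 + C4)) :=
    Real.rpow_le_rpow_of_exponent_ge (B.pos n) (B.lt n).le (by linarith)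
  have m2 : B.d n ^ (-(C2 + C3 + C4)) ≤ B.d n ^ (-(C1 + C2 + C3 + C4)) :=
    Real.rpow_le_rpow_of_exponent_ge (B.pos n) (B.lt n).le (by linarith)
  have h8 : (8:ℝ) ≤ B.d n ^ (-(1:ℝ)) := by
    have h5 : B.d n ^ (-(1:ℝ)) * B.d n ^ (1:ℝ) = 1 := by
      rw [← dpow_add]; norm_num
    have h6 := hdp (-(1:ℝ))
    nlinarith
  calc angC S S' * w 1 n v ≤ (4 * ε + 4 * ε') * w 1 n v :=
        mul_le_mul_of_nonneg_right hang p1.le
    _ = 4 * (ε * w 1 n v) + 4 * (ε' * w 1 n v) := by ring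
    _ ≤ 4 * (B.d n ^ (-(C1 + C2 + C3 + C4)) * w 2 n v) +
        4 * (B.d n ^ (-(C1 + C2 + C3 + C4)) * w 2 n v) := by
        have g1 : ε * w 1 n v ≤ B.d n ^ (-(C1 + C2 + C3 + C4)) * w 2 n v := by
          rw [e1]; exact mul_le_mul_of_nonneg_right m1 p2.le
        have g2 : ε' * w 1 n v ≤ B.d n ^ (-(C1 + C2 + C3 + C4)) * w 2 n v :=
          e2.trans (mul_le_mul_of_nonneg_right m2 p2.le)
        linarith
    _ = 8 * (B.d n ^ (-(C1 + C2 + C3 + C4)) * w 2 n v) := by ring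
    _ ≤ B.d n ^ (-(1:ℝ)) * (B.d n ^ (-(C1 + C2 + C3 + C4)) * w 2 n v) :=
        mul_le_mul_of_nonneg_right h8 (by have := hdp (-(C1 + C2 + C3 + C4)); positivity)
    _ = B.d n ^ (-(C1 + C2 + C3 + C4 + 1)) * w 2 n v := by
        have : B.d n ^ (-(C1 + C2 + C3 + C4 + 1)) = B.d n ^ (-(1:ℝ)) *
            B.d n ^ (-(C1 + C2 + C3 + C4)) := by
          rw [← dpow_add]; congr 1; ring
        rw [this]; ring

end

end Crest.Agent.R136.Ang335
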