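import Crest.Agent.R136.Ang1_335
import Crest.Agent.R136.Asm1_102

/-!
# R136 / U5 (crude tilt), helper335: the tube case

`crude_tube` : two sheets around a common line, comparable up to `Y`, base tilt at most `Y`, and
`w₂ ≤ Y a` : they agree (losses: powers of `Y`).
-/

set_option autoImplicit false
set_option linter.unusedVariables false

namespace Crest.Agent.R136.Ang335

open Crest.Agent.R136.Sh605
open Crest.Agent.R136.K4 (Plk4)
open Crest.Agent.R136.Deep51 (CoinC CloseC)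
open Crest.Agent.R136.Tlt51 (Agree Shp InP)
open Crest.Agent.R136.Tl102

/-- values of a normalised quadratic function outside the box -/
theorem Fq_out {b0 b1 : V3} {G : QF} (N : NrmC b0 b1 G) {ζ M : ℝ} (h0 : 0 ≤ ζ) (h1 : ζ ≤ 1)
    (hM : 1 ≤ M) {x : V3} (hx : ∀ k, |x k| ≤ M) : |Fq b0 b1 G ζ x| ≤ 10 * M ^ 2 := by
  have hM0 : 0 ≤ M := by linarith
  have hMM : M ≤ M ^ 2 := by nlinarith
  obtain ⟨B1, B2, B3, B4, -⟩ := N.b1_le
  have n1 := abs_le.1 N.b01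
  have n2 := abs_le.1 N.b02
  have n3 := abs_le.1 N.b11
  have n4 := abs_le.1 N.b12
  obtain ⟨g1, g2, g3, g4, g5, g6⟩ := N.G_le
  have c0 : |bz b0 b1 ζ 0| ≤ 2 := by
    have : bz b0 b1 ζ 0 = (1 - ζ) * b0 0 + ζ * (b0 0 + b1 0) := by simp only [bz]; ring
    rw [this, abs_le]; constructor <;> nlinarith
  have c1 : |bz b0 b1 ζ 1| ≤ 1 := by
    have : bz b0 b1 ζ 1 = (1 - ζ) * b0 1 + ζ * (b0 1 + b1 1) := by simp only [bz]; ring
    rw [this, abs_le]; constructor <;> nlinarith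
  have c2 : |bz b0 b1 ζ 2| ≤ 1 := by
    have : bz b0 b1 ζ 2 = (1 - ζ) * b0 2 + ζ * (b0 2 + b1 2) := by simp only [bz]; ring
    rw [this, abs_le]; constructor <;> nlinarith
  have l0 := mul_abs_le c0 (hx 0)
  have l1 := mul_abs_le c1 (hx 1)
  have l2 := mul_abs_le c2 (hx 2)
  have q00 := mul_abs_le (hx 0) (hx 0)
  have q01 := mul_abs_le (hx 0) (hx 1)
  have q02 := mul_abs_le (hx 0) (hx 2)
  have q11 := mul_abs_le (hx 1) (hx 1)
  have q12 := mul_abs_le (hx 1) (hx 2)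
  have q22 := mul_abs_le (hx 2) (hx 2)
  have t1 := mul_abs_le g1 q00
  have t2 := mul_abs_le g2 q01
  have t3 := mul_abs_le g3 q02
  have t4 := mul_abs_le g4 q11
  have t5 := mul_abs_le g5 q12
  have t6 := mul_abs_le g6 q22
  have e : Fq b0 b1 G ζ x = bz b0 b1 ζ 0 * x 0 + bz b0 b1 ζ 1 * x 1 + bz b0 b1 ζ 2 * x 2 +
      G.yy * (x 0 * x 0) + G.yu * (x 0 * x 1) + G.yv * (x 0 * x 2) + G.uu * (x 1 * x 1) +
      G.uv * (x 1 * x 2) + G.vv * (x 2 * x 2) := by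
    simp only [Fq, dt, QF.ev]; ring
  rw [e]
  rw [abs_le] at l0 l1 l2 t1 t2 t3 t4 t5 t6 ⊢
  constructor <;>
    linarith [l0.1, l0.2, l1.1, l1.2, l2.1, l2.2, t1.1, t1.2, t2.1, t2.2, t3.1, t3.2, t4.1, t4.2,
      t5.1, t5.2, t6.1, t6.2]

/-- `x` in plank coordinates -/
theorem cmb_pc {e : Fin 3 → V3} (he : Ortho e) {w : V3} (hw : ∀ k, w k ≠ 0) (V : V3) :
    V = cmb (fr e w) (fun k => dt (e k) V / w k) := by
  funext i
  have h := he.expand V i
  simp only [cmb, fr, Pi.smul_apply, smul_eq_mul]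
  rw [h]
  have h0 := hw 0
  have h1 := hw 1
  have h2 := hw 2
  field_simp

/-- value of the function of a sheet at a point whose plank coordinates around a line are at most
`M` -/
theorem val_out {e : Fin 3 → V3} {c : Ln4} {w : V3} {q : ℝ → V3 → ℝ} {a z0 ρ : ℝ} {T : Ln4}
    (S : StP e c w q z0 ρ) (hρ : 0 < ρ) (hT : InSheet T e c w q a z0 ρ) {z : ℝ} (hz : z0 ≤ z)
    (hz' : z ≤ z0 + ρ) {x : V3} {M : ℝ} (hM : 1 ≤ M)
    (hx : ∀ k, |dt (e k) (x - T.pos z)| ≤ M * w k) : |q z x| ≤ a + w 0 * (10 * M ^ 2) := by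
  have hw0 := S.pos 0
  have hwne : ∀ k, w k ≠ 0 := fun k => (S.pos k).ne'
  obtain ⟨b0, b1, G, hE⟩ := exists_isExp S.isQ e hw0.ne' T z0 ρ
  have N := IsExp.nrmC S hρ.le (fun z h1 h2 => (hT z h1 h2).1) hE
  set ζ : ℝ := (z - z0) / ρ with hζ
  have hζ0 : 0 ≤ ζ := div_nonneg (by linarith) hρ.le
  have hζ1 : ζ ≤ 1 := by rw [hζ, div_le_one hρ]; linarith
  have ez : z0 + ρ * ζ = z := by rw [hζ, mul_div_cancel₀ _ hρ.ne']; ring
  have h1 := hE ζ (fun k => dt (e k) (x - T.pos z) / w k)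
  rw [ez, ← cmb_pc S.ortho hwne] at h1
  have ex : T.pos z + (x - T.pos z) = x := by
    funext i; simp only [Pi.add_apply, Pi.sub_apply]; ring
  rw [ex] at h1
  have h2 := Fq_out N hζ0 hζ1 hM (x := fun k => dt (e k) (x - T.pos z) / w k) (fun k => by
    rw [abs_div, abs_of_pos (S.pos k), div_le_iff₀ (S.pos k)]; exact hx k)
  rw [h1]
  refine (abs_add_le _ _).trans (add_le_add (hT z hz hz').2 ?_)
  rw [abs_mul, abs_of_pos hw0]
  exact mul_le_mul_of_nonneg_left h2 hw0.le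

/-- closeness, one direction -/
theorem close_tube {S S' : Plk4} {T : Ln4} {z0 ρ r X Y : ℝ} (hρ : 0 < ρ)
    (hS : Shp S z0 ρ r) (hS' : Shp S' z0 ρ r) (ha : 0 < S.a) (ha' : 0 < S'.a) (hY : 1 ≤ Y)
    (hX : 1 ≤ X) (hw1 : S.w 1 ≤ Y * S'.w 1)
    (hang : ∀ i, i ≠ 1 → |dt (S.e 1) (S'.e i)| * S.w 1 ≤ Y * S.w 2) (hw2 : S.w 2 ≤ X * S'.a)
    (hw2' : S'.w 2 ≤ X * S'.a) (hT' : InP T S' z0 ρ) :
    CloseC S.e S.w S.q S.a S'.q (11 * Y ^ 2 * X ^ 3 * S'.a) T z0 ρ := by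
  intro z hz hz' x hx hq
  have hw0 : 0 < S.w 0 := ha.trans_le hS.a_le0
  have hw0' : 0 < S'.w 0 := ha'.trans_le hS'.a_le0
  have hw2p : 0 < S.w 2 := hw0.trans_le hS.w0_le
  have hw2p' : 0 < S'.w 2 := hw0'.trans_le hS'.w0_le
  have hw1p : 0 < S.w 1 := hw2p.trans_le hS.w_le
  have P' := StP.of_shN hS' hw0'
  have u1 : ∀ i, dt (S.e i) (S.e i) = 1 := fun i => by simpa using hS.ortho i i
  have u2 : ∀ i, dt (S'.e i) (S'.e i) = 1 := fun i => by simpa using hS'.ortho i i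
  have cm : ∀ x y : V3, dt x y = dt y x := by intro x y; simp only [dt]; ring
  set V : V3 := x - T.pos z with hV
  have d : ∀ i, |dt (S.e i) V| ≤ S.w i / 8 := fun i => hx i
  have hYX : 1 ≤ Y * X := by nlinarith
  have h0a : S'.a ≤ S'.w 0 := hS'.a_le0
  have hw02' : S'.w 0 ≤ S'.w 2 := hS'.w0_le
  have g : ∀ i, i ≠ 1 → |dt (S'.e i) V| ≤ Y * X * S'.a := by
    intro i hi
    have e1 := dt_ex hS.ortho (S'.e i) V
    have t0 := mul_abs_le (dt_one (u2 i) (u1 0)) (d 0)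
    have t2 := mul_abs_le (dt_one (u2 i) (u1 2)) (d 2)
    have t1 : |dt (S'.e i) (S.e 1) * dt (S.e 1) V| ≤ Y * S.w 2 / 8 := by
      rw [abs_mul, cm (S'.e i) (S.e 1)]
      calc |dt (S.e 1) (S'.e i)| * |dt (S.e 1) V| ≤ |dt (S.e 1) (S'.e i)| * (S.w 1 / 8) :=
            mul_le_mul_of_nonneg_left (d 1) (abs_nonneg _)
        _ = |dt (S.e 1) (S'.e i)| * S.w 1 / 8 := by ring
        _ ≤ _ := by linarith [hang i hi]
    rw [e1]
    have := hS.w0_le
    have h3 : S.w 2 ≤ Y * S.w 2 := le_mul_of_one_le_left hw2p.le hY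
    calc |dt (S'.e i) (S.e 0) * dt (S.e 0) V + dt (S'.e i) (S.e 1) * dt (S.e 1) V +
          dt (S'.e i) (S.e 2) * dt (S.e 2) V| ≤ 1 * (S.w 0 / 8) + Y * S.w 2 / 8 +
          1 * (S.w 2 / 8) :=
          (abs_add_le _ _).trans (add_le_add ((abs_add_le _ _).trans (add_le_add t0 t1)) t2)
      _ ≤ Y * S.w 2 := by linarith
      _ ≤ Y * (X * S'.a) := mul_le_mul_of_nonneg_left hw2 (by linarith)
      _ = _ := by ring
  have g1 : |dt (S'.e 1) V| ≤ S.w 1 := by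
    have e1 := dt_ex hS.ortho (S'.e 1) V
    have t0 := mul_abs_le (dt_one (u2 1) (u1 0)) (d 0)
    have t1 := mul_abs_le (dt_one (u2 1) (u1 1)) (d 1)
    have t2 := mul_abs_le (dt_one (u2 1) (u1 2)) (d 2)
    rw [e1]
    refine ((abs_add_le _ _).trans (add_le_add ((abs_add_le _ _).trans (add_le_add t0 t1)) t2)).trans
      ?_
    linarith [hS.w0_le, hS.w_le]
  have hv := val_out P' hρ hT' hz hz' (x := x) hYX (fun k => by
    fin_cases k
    · refine (g 0 (by decide)).trans ?_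
      exact mul_le_mul_of_nonneg_left h0a (by positivity)
    · refine g1.trans (hw1.trans ?_)
      show Y * S'.w 1 ≤ Y * X * S'.w 1
      have : 0 < S'.w 1 := hw2p'.trans_le hS'.w_le
      have h3 : Y * S'.w 1 * 1 ≤ Y * S'.w 1 * X := mul_le_mul_of_nonneg_left hX (by positivity)
      linarith
    · refine (g 2 (by decide)).trans ?_
      exact mul_le_mul_of_nonneg_left (h0a.trans hw02') (by positivity))
  refine hv.trans ?_
  have h4 : S'.w 0 * (10 * (Y * X) ^ 2) ≤ X * S'.a * (10 * (Y * X) ^ 2) :=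
    mul_le_mul_of_nonneg_right (hw02'.trans hw2') (by positivity)
  have h5 : S'.a * 1 ≤ S'.a * (Y ^ 2 * X ^ 3) := by
    apply mul_le_mul_of_nonneg_left _ ha'.le
    exact one_le_mul_of_one_le_of_one_le (one_le_pow₀ hY) (one_le_pow₀ hX)
  calc S'.a + S'.w 0 * (10 * (Y * X) ^ 2) ≤ S'.a * (Y ^ 2 * X ^ 3) +
        X * S'.a * (10 * (Y * X) ^ 2) := by linarith
    _ = 11 * Y ^ 2 * X ^ 3 * S'.a := by ring

/-- coincidence -/
theorem coin_tube {S S' : Plk4} {T : Ln4} {z0 ρ r Y s lam : ℝ}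
    (hS : Shp S z0 ρ r) (hS' : Shp S' z0 ρ r) (ha : 0 < S.a) (ha' : 0 < S'.a) (hY : 1 ≤ Y)
    (h1 : S.w 1 ≤ Y * S'.w 1) (h2 : S.w 2 ≤ Y * S'.w 2) (h2' : S'.w 2 ≤ Y * S.w 2)
    (haa : S.a ≤ Y * S'.a)
    (hang : ∀ i, i ≠ 1 → |dt (S.e i) (S'.e 1)| * S.w 1 ≤ Y * S.w 2) (ht : S.w 2 ≤ Y * S.a)
    (hT : InP T S z0 ρ) (hT' : InP T S' z0 ρ) (hs : 0 < s) (hsY : s * Y ^ 4 * 8 ≤ 1)
    (hlam : 1 ≤ lam) (hbig : 10 ^ 6 * (S.a + S'.a) ≤ S.w 0) :
    CoinC S.e S.w S.q S'.e S'.c S'.w S'.q S'.a (10 ^ 6 * (S.a + S'.a)) (s / lam * S.w 1)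
      (s * S.w 2) T z0 ρ := by
  intro z hz hz' x hx hq m1 m2
  have hw0 : 0 < S.w 0 := ha.trans_le hS.a_le0
  have hw0' : 0 < S'.w 0 := ha'.trans_le hS'.a_le0
  have hw2p : 0 < S.w 2 := hw0.trans_le hS.w0_le
  have hw2p' : 0 < S'.w 2 := hw0'.trans_le hS'.w0_le
  have hw1p : 0 < S.w 1 := hw2p.trans_le hS.w_le
  have hw1p' : 0 < S'.w 1 := hw2p'.trans_le hS'.w_le
  have P := StP.of_shN hS hw0
  have P' := StP.of_shN hS' hw0'
  have u1 : ∀ i, dt (S.e i) (S.e i) = 1 := fun i => by simpa using hS.ortho i i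
  have u2 : ∀ i, dt (S'.e i) (S'.e i) = 1 := fun i => by simpa using hS'.ortho i i
  have hY0 : 0 < Y := by linarith
  have hY2 : 1 ≤ Y ^ 2 := one_le_pow₀ hY
  have hY3 : 1 ≤ Y ^ 3 := one_le_pow₀ hY
  -- powers
  have p1 : s * 8 ≤ 1 := by
    have h := one_le_pow₀ hY (n := 4)
    have : s * 8 * 1 ≤ s * 8 * Y ^ 4 := mul_le_mul_of_nonneg_left h (by positivity)
    linarith
  have p2 : s * Y * 8 ≤ 1 := by
    have : s * Y * 8 * 1 ≤ s * Y * 8 * Y ^ 3 := mul_le_mul_of_nonneg_left hY3 (by positivity)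
    nlinarith
  have p3 : s * Y ^ 2 * 8 ≤ 1 := by
    have : s * Y ^ 2 * 8 * 1 ≤ s * Y ^ 2 * 8 * Y ^ 2 :=
      mul_le_mul_of_nonneg_left hY2 (by positivity)
    nlinarith
  have m1' : |dt (S'.e 1) (x - T.pos z)| ≤ s * S.w 1 := by
    refine m1.trans (mul_le_mul_of_nonneg_right ?_ hw1p.le)
    exact div_le_self hs.le hlam
  -- sizes
  have k1 : s * S.w 2 * 8 ≤ S.a := by
    calc s * S.w 2 * 8 ≤ s * (Y * S.a) * 8 := by gcongr
      _ = (s * Y * 8) * S.a := by ring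
      _ ≤ 1 * S.a := mul_le_mul_of_nonneg_right p2 ha.le
      _ = S.a := one_mul _
  have k2 : s * (Y * S.w 2) * 8 ≤ S.a := by
    calc s * (Y * S.w 2) * 8 ≤ s * (Y * (Y * S.a)) * 8 := by gcongr
      _ = (s * Y ^ 2 * 8) * S.a := by ring
      _ ≤ 1 * S.a := mul_le_mul_of_nonneg_right p3 ha.le
      _ = S.a := one_mul _
  have k3 : s * Y * S'.w 0 * 8 ≤ S'.a := by
    calc s * Y * S'.w 0 * 8 ≤ s * Y * (Y * (Y * (Y * S'.a))) * 8 := by
          have : S'.w 0 ≤ Y * (Y * (Y * S'.a)) := by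
            refine hS'.w0_le.trans (h2'.trans ?_)
            refine mul_le_mul_of_nonneg_left (ht.trans ?_) hY0.le
            exact mul_le_mul_of_nonneg_left haa hY0.le
          gcongr
      _ = (s * Y ^ 4 * 8) * S'.a := by ring
      _ ≤ 1 * S'.a := mul_le_mul_of_nonneg_right hsY ha'.le
      _ = S'.a := one_mul _
  -- the normal coordinate in the second sheet
  have hTz := hT z hz hz'
  have hTz' := hT' z hz hz'
  have db : ∀ {e : Fin 3 → V3} {c : Ln4} {w : V3} {y : V3}, (∀ k, 0 ≤ w k) → InK e c w z y →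
      InK e c (dbl3 w) z y := by
    intro e c w y hw h i
    have := h i
    have := hw i
    simp only [dbl3]
    linarith
  have pos' : ∀ k, 0 ≤ S'.w k := fun k => (P'.pos k).le
  have pos : ∀ k, 0 ≤ S.w k := fun k => (P.pos k).le
  have hp := (P'.path hz hz' (db pos' hTz'.1) (db pos' hx)).2
  have r1 : S'.w 0 / S'.w 1 * |dt (S'.e 1) (x - T.pos z)| ≤ s * Y * S'.w 0 := by
    calc S'.w 0 / S'.w 1 * |dt (S'.e 1) (x - T.pos z)| ≤ S'.w 0 / S'.w 1 * (s * (Y * S'.w 1)) := by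
          refine mul_le_mul_of_nonneg_left (m1'.trans ?_) (by positivity)
          exact mul_le_mul_of_nonneg_left h1 hs.le
      _ = s * Y * S'.w 0 := by field_simp
  have r2 : S'.w 0 / S'.w 2 * |dt (S'.e 2) (x - T.pos z)| ≤ s * Y * S'.w 0 := by
    calc S'.w 0 / S'.w 2 * |dt (S'.e 2) (x - T.pos z)| ≤ S'.w 0 / S'.w 2 * (s * (Y * S'.w 2)) := by
          refine mul_le_mul_of_nonneg_left (m2.trans ?_) (by positivity)
          exact mul_le_mul_of_nonneg_left h2 hs.le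
      _ = s * Y * S'.w 0 := by field_simp
  have r0 : |S'.q z x - S'.q z (T.pos z)| ≤ 2 * S'.a := by
    have := abs_sub (S'.q z x) (S'.q z (T.pos z))
    have := hTz'.2
    linarith
  have n0 : |dt (S'.e 0) (x - T.pos z)| ≤ 5 * S'.a := by linarith
  -- coordinates in the first sheet
  have v0 : |dt (S.e 0) (x - T.pos z)| ≤ 5 * (S.a + S'.a) := by
    rw [dt_ex hS'.ortho (S.e 0)]
    have t0 := mul_abs_le (dt_one (u1 0) (u2 0)) n0
    have t2 := mul_abs_le (dt_one (u1 0) (u2 2)) m2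
    have t1 : |dt (S.e 0) (S'.e 1) * dt (S'.e 1) (x - T.pos z)| ≤ s * (Y * S.w 2) := by
      rw [abs_mul]
      calc |dt (S.e 0) (S'.e 1)| * |dt (S'.e 1) (x - T.pos z)| ≤
            |dt (S.e 0) (S'.e 1)| * (s * S.w 1) := mul_le_mul_of_nonneg_left m1' (abs_nonneg _)
        _ = s * (|dt (S.e 0) (S'.e 1)| * S.w 1) := by ring
        _ ≤ s * (Y * S.w 2) := mul_le_mul_of_nonneg_left (hang 0 (by decide)) hs.le
    refine ((abs_add_le _ _).trans (add_le_add ((abs_add_le _ _).trans (add_le_add t0 t1)) t2)).trans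
      ?_
    linarith
  have v2 : |dt (S.e 2) (x - T.pos z)| ≤ 5 * (S.a + S'.a) := by
    rw [dt_ex hS'.ortho (S.e 2)]
    have t0 := mul_abs_le (dt_one (u1 2) (u2 0)) n0
    have t2 := mul_abs_le (dt_one (u1 2) (u2 2)) m2
    have t1 : |dt (S.e 2) (S'.e 1) * dt (S'.e 1) (x - T.pos z)| ≤ s * (Y * S.w 2) := by
      rw [abs_mul]
      calc |dt (S.e 2) (S'.e 1)| * |dt (S'.e 1) (x - T.pos z)| ≤
            |dt (S.e 2) (S'.e 1)| * (s * S.w 1) := mul_le_mul_of_nonneg_left m1' (abs_nonneg _)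
        _ = s * (|dt (S.e 2) (S'.e 1)| * S.w 1) := by ring
        _ ≤ s * (Y * S.w 2) := mul_le_mul_of_nonneg_left (hang 2 (by decide)) hs.le
    refine ((abs_add_le _ _).trans (add_le_add ((abs_add_le _ _).trans (add_le_add t0 t1)) t2)).trans
      ?_
    linarith
  have v1 : |dt (S.e 1) (x - T.pos z)| ≤ 5 * (S.a + S'.a) + s * S.w 1 := by
    rw [dt_ex hS'.ortho (S.e 1)]
    have t0 := mul_abs_le (dt_one (u1 1) (u2 0)) n0
    have t1 := mul_abs_le (dt_one (u1 1) (u2 1)) m1'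
    have t2 := mul_abs_le (dt_one (u1 1) (u2 2)) m2
    refine ((abs_add_le _ _).trans (add_le_add ((abs_add_le _ _).trans (add_le_add t0 t1)) t2)).trans
      ?_
    linarith
  have hw02 := hS.w0_le
  have hw21 := hS.w_le
  refine ⟨by linarith, ?_⟩
  -- the point lies in the doubled box of the first sheet
  have hxin : InK S.e S.c (dbl3 S.w) z x := by
    intro i
    have e1 : dt (S.e i) (x - S.c.pos z) = dt (S.e i) (x - T.pos z) +
        dt (S.e i) (T.pos z - S.c.pos z) := by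
      simp only [dt, Pi.sub_apply]; ring
    have e2 := hTz.1 i
    rw [e1]
    refine (abs_add_le _ _).trans ?_
    simp only [dbl3]
    have : |dt (S.e i) (x - T.pos z)| ≤ S.w i := by
      fin_cases i
      · refine v0.trans ?_
        show 5 * (S.a + S'.a) ≤ S.w 0
        linarith
      · refine v1.trans ?_
        show 5 * (S.a + S'.a) + s * S.w 1 ≤ S.w 1
        nlinarith
      · refine v2.trans ?_
        show 5 * (S.a + S'.a) ≤ S.w 2
        linarith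
    linarith
  have hq2 := (P.path hz hz' (db pos hTz.1) hxin).1
  have c1 : S.w 0 / S.w 1 * |dt (S.e 1) (x - T.pos z)| ≤ 5 * (S.a + S'.a) + S.a := by
    calc S.w 0 / S.w 1 * |dt (S.e 1) (x - T.pos z)| ≤
          S.w 0 / S.w 1 * (5 * (S.a + S'.a) + s * S.w 1) :=
          mul_le_mul_of_nonneg_left v1 (by positivity)
      _ = S.w 0 / S.w 1 * (5 * (S.a + S'.a)) + s * S.w 0 := by field_simp
      _ ≤ 1 * (5 * (S.a + S'.a)) + S.a := by
          refine add_le_add (mul_le_mul_of_nonneg_right ?_ (by positivity)) ?_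
          · rw [div_le_one hw1p]; linarith
          · have : s * S.w 0 ≤ s * S.w 2 := mul_le_mul_of_nonneg_left hw02 hs.le
            have : 0 < s * S.w 2 := by positivity
            linarith
      _ = _ := by ring
  have c2 : S.w 0 / S.w 2 * |dt (S.e 2) (x - T.pos z)| ≤ 5 * (S.a + S'.a) := by
    calc S.w 0 / S.w 2 * |dt (S.e 2) (x - T.pos z)| ≤ 1 * (5 * (S.a + S'.a)) := by
          refine mul_le_mul ?_ v2 (abs_nonneg _) (by norm_num)
          rw [div_le_one hw2p]; exact hw02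
      _ = _ := one_mul _
  have hf : |S.q z x| ≤ |S.q z x - S.q z (T.pos z)| + |S.q z (T.pos z)| := by
    have : S.q z x = (S.q z x - S.q z (T.pos z)) + S.q z (T.pos z) := by ring
    conv_lhs => rw [this]
    exact abs_add_le _ _
  have := hTz.2
  linarith

theorem shp_sub {S : Plk4} {z0 ρ z1 ρ1 r : ℝ} (h : Shp S z0 ρ r) (h0 : z0 ≤ z1)
    (h1 : z1 + ρ1 ≤ z0 + ρ) : Shp S z1 ρ1 r :=
  { ortho := h.ortho
    isQ := h.isQ
    a_le0 := h.a_le0
    w0_le := h.w0_le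
    w_le := h.w_le
    r0_le := h.r0_le
    st0 := fun z hz hz' => h.st0 z (h0.trans hz) (hz'.trans h1)
    sl1 := fun z hz hz' => h.sl1 z (h0.trans hz) (hz'.trans h1)
    sl2 := fun z hz hz' => h.sl2 z (h0.trans hz) (hz'.trans h1) }

/-- **the tube case of the crude tilt** (helper705, 21243) -/
theorem crude_tube {m : ℕ} (hm : 16 ≤ m) {Y : ℝ} (hY : 2 ≤ Y) {S S' : Plk4} {T : Ln4}
    {z0 ρ z1 ρ1 z2 ρ2 r : ℝ} (hr : 0 < r) (hρ : 0 < ρ)
    (hS : Shp S z1 ρ1 r) (hS' : Shp S' z2 ρ2 r)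
    (i1 : z1 ≤ z0) (i2 : z0 + ρ ≤ z1 + ρ1) (i3 : z2 ≤ z0) (i4 : z0 + ρ ≤ z2 + ρ2)
    (haa : S.a ≤ Y * S'.a) (haa' : S'.a ≤ Y * S.a)
    (hw : ∀ k, k ≠ 0 → S.w k ≤ Y * S'.w k) (hw' : ∀ k, k ≠ 0 → S'.w k ≤ Y * S.w k)
    (hang : angC S S' * S.w 1 ≤ Y * S.w 2) (hang' : angC S S' * S'.w 1 ≤ Y * S'.w 2)
    (ht : S.w 2 ≤ Y * S.a) (hT : InP T S z1 ρ1) (hT' : InP T S' z2 ρ2) :
    CloseC S.e S.w S.q S.a S'.q (Y ^ m * (S.a + S'.a)) T z0 ρ ∧
    CloseC S'.e S'.w S'.q S'.a S.q (Y ^ m * (S.a + S'.a)) T z0 ρ ∧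
    (10 ^ 6 * (S.a + S'.a) ≤ S.w 0 → ∀ s lam : ℝ, 0 < s → s * Y ^ 7 ≤ 1 → 1 ≤ lam →
      Agree (10 ^ 6 * (S.a + S'.a)) (Y ^ m * (S.a + S'.a)) s lam S S' T z0 ρ) := by
  have ha : 0 < S.a := hr.trans_le hS.r0_le
  have ha' : 0 < S'.a := hr.trans_le hS'.r0_le
  have hY0 : 0 < Y := by linarith
  have hY1 : 1 ≤ Y := by linarith
  have hSr : Shp S z0 ρ r := shp_sub hS i1 i2
  have hSr' : Shp S' z0 ρ r := shp_sub hS' i3 i4
  have hTr : InP T S z0 ρ := fun z h1 h2 => hT z (i1.trans h1) (h2.trans i2)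
  have hTr' : InP T S' z0 ρ := fun z h1 h2 => hT' z (i3.trans h1) (h2.trans i4)
  have hw0 : 0 < S.w 0 := ha.trans_le hS.a_le0
  have hw0' : 0 < S'.w 0 := ha'.trans_le hS'.a_le0
  have hw2p : 0 < S.w 2 := hw0.trans_le hS.w0_le
  have hw2p' : 0 < S'.w 2 := hw0'.trans_le hS'.w0_le
  have hw1p : 0 < S.w 1 := hw2p.trans_le hS.w_le
  have hw1p' : 0 < S'.w 1 := hw2p'.trans_le hS'.w_le
  have cm : ∀ x y : V3, dt x y = dt y x := by intro x y; simp only [dt]; ring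
  have A0 : |dt (S.e 1) (S'.e 0)| ≤ angC S S' := (le_max_left _ _).trans (le_max_left _ _)
  have A2 : |dt (S.e 1) (S'.e 2)| ≤ angC S S' := (le_max_right _ _).trans (le_max_left _ _)
  have A0' : |dt (S.e 0) (S'.e 1)| ≤ angC S S' := (le_max_left _ _).trans (le_max_right _ _)
  have A2' : |dt (S.e 2) (S'.e 1)| ≤ angC S S' := (le_max_right _ _).trans (le_max_right _ _)
  have g1 : ∀ i, i ≠ 1 → |dt (S.e 1) (S'.e i)| * S.w 1 ≤ Y * S.w 2 := by
    intro i hi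
    fin_cases i
    · exact (mul_le_mul_of_nonneg_right A0 hw1p.le).trans hang
    · exact absurd rfl hi
    · exact (mul_le_mul_of_nonneg_right A2 hw1p.le).trans hang
  have g2 : ∀ i, i ≠ 1 → |dt (S.e i) (S'.e 1)| * S.w 1 ≤ Y * S.w 2 := by
    intro i hi
    fin_cases i
    · exact (mul_le_mul_of_nonneg_right A0' hw1p.le).trans hang
    · exact absurd rfl hi
    · exact (mul_le_mul_of_nonneg_right A2' hw1p.le).trans hang
  have g3 : ∀ i, i ≠ 1 → |dt (S'.e 1) (S.e i)| * S'.w 1 ≤ Y * S'.w 2 := by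
    intro i hi
    rw [cm]
    fin_cases i
    · exact (mul_le_mul_of_nonneg_right A0' hw1p'.le).trans hang'
    · exact absurd rfl hi
    · exact (mul_le_mul_of_nonneg_right A2' hw1p'.le).trans hang'
  have w1 := hw 1 (by decide)
  have w2 := hw 2 (by decide)
  have w1' := hw' 1 (by decide)
  have w2' := hw' 2 (by decide)
  -- tubes
  have t1 : S.w 2 ≤ Y ^ 2 * S'.a := by
    calc S.w 2 ≤ Y * S.a := ht
      _ ≤ Y * (Y * S'.a) := mul_le_mul_of_nonneg_left haa hY0.le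
      _ = _ := by ring
  have t2 : S'.w 2 ≤ Y ^ 2 * S.a := by
    calc S'.w 2 ≤ Y * S.w 2 := w2'
      _ ≤ Y * (Y * S.a) := mul_le_mul_of_nonneg_left ht hY0.le
      _ = _ := by ring
  have t3 : S'.w 2 ≤ Y ^ 3 * S'.a := by
    calc S'.w 2 ≤ Y ^ 2 * S.a := t2
      _ ≤ Y ^ 2 * (Y * S'.a) := mul_le_mul_of_nonneg_left haa (by positivity)
      _ = _ := by ring
  have t4 : S.w 2 ≤ Y ^ 3 * S'.a := t1.trans (by
    have : Y ^ 2 * S'.a * 1 ≤ Y ^ 2 * S'.a * Y := mul_le_mul_of_nonneg_left hY1 (by positivity)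
    nlinarith)
  have t5 : S.w 2 ≤ Y ^ 2 * S.a := ht.trans (by
    have : Y * S.a * 1 ≤ Y * S.a * Y := mul_le_mul_of_nonneg_left hY1 (by positivity)
    nlinarith)
  have c1 := close_tube hρ hSr hSr' ha ha' hY1 (X := Y ^ 3) (one_le_pow₀ hY1) w1 g1 t4 t3 hTr'
  have c2 := close_tube hρ hSr' hSr ha' ha hY1 (X := Y ^ 2) (one_le_pow₀ hY1) w1' g3 t2 t5 hTr
  have hsum : 0 < S.a + S'.a := by positivity
  have h11 : (11 : ℝ) ≤ Y ^ 4 := by
    have : (2:ℝ) ^ 4 ≤ Y ^ 4 := pow_le_pow_left₀ (by norm_num) hY 4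
    norm_num at this
    linarith
  have pm : Y ^ 15 ≤ Y ^ m := pow_le_pow_right₀ hY1 (by omega)
  have E1 : 11 * Y ^ 2 * (Y ^ 3) ^ 3 * S'.a ≤ Y ^ m * (S.a + S'.a) := by
    calc 11 * Y ^ 2 * (Y ^ 3) ^ 3 * S'.a = 11 * (Y ^ 11 * S'.a) := by ring
      _ ≤ Y ^ 4 * (Y ^ 11 * S'.a) := mul_le_mul_of_nonneg_right h11 (by positivity)
      _ = Y ^ 15 * S'.a := by ring
      _ ≤ Y ^ m * (S.a + S'.a) := mul_le_mul pm (by linarith) ha'.le (by positivity)
  have E2 : 11 * Y ^ 2 * (Y ^ 2) ^ 3 * S.a ≤ Y ^ m * (S.a + S'.a) := by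
    calc 11 * Y ^ 2 * (Y ^ 2) ^ 3 * S.a = 11 * (Y ^ 8 * S.a) := by ring
      _ ≤ Y ^ 4 * (Y ^ 8 * S.a) := mul_le_mul_of_nonneg_right h11 (by positivity)
      _ = Y ^ 12 * S.a := by ring
      _ ≤ Y ^ m * (S.a + S'.a) :=
          mul_le_mul (pow_le_pow_right₀ hY1 (by omega)) (by linarith) ha.le (by positivity)
  have C1 : CloseC S.e S.w S.q S.a S'.q (Y ^ m * (S.a + S'.a)) T z0 ρ :=
    fun z hz hz' x hx hq => (c1 z hz hz' x hx hq).trans E1
  have C2 : CloseC S'.e S'.w S'.q S'.a S.q (Y ^ m * (S.a + S'.a)) T z0 ρ :=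
    fun z hz hz' x hx hq => (c2 z hz hz' x hx hq).trans E2
  refine ⟨C1, C2, fun hbig s lam hs hsY hlam => ⟨?_, C1, C2⟩⟩
  have h8 : s * Y ^ 4 * 8 ≤ 1 := by
    have h : (8 : ℝ) ≤ Y ^ 3 := by
      have : (2:ℝ) ^ 3 ≤ Y ^ 3 := pow_le_pow_left₀ (by norm_num) hY 3
      norm_num at this
      linarith
    calc s * Y ^ 4 * 8 ≤ s * Y ^ 4 * Y ^ 3 := mul_le_mul_of_nonneg_left h (by positivity)
      _ = s * Y ^ 7 := by ring
      _ ≤ 1 := hsY
  exact coin_tube hSr hSr' ha ha' hY1 w1 w2 w2' haa g2 ht hTr hTr' hs h8 hlam hbig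

end Crest.Agent.R136.Ang335
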