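import Mathlib

/-!
# R136: arcs of a non-degenerate conic (helper880)

`f` = symmetric form on `ℝ³`, seen on the points `(1, x, y)`, `|x|, |y| ≤ 1`; `qf f x y = f(p,p)`,
`Qd f u v` = the form on the directions `(0, u, v)`.

* `sepQ`  : two points with `|qf| ≤ δ`: `κ |p-p'|² ≤ 54 |Q(p'-p)| + 136 δ`, `κ ≤ |det f|`.
* `area`  : three `β`-separated points of `{|qf| ≤ δ}` span an area `≥ (κ β²/216)³/48`.
* `strip` : hence they do not lie in one strip of width `t < (κ β²/216)³/768`.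
* `coverN`: a set without `N + 1` separated points lies in `N` balls.
* `arcs3` : captured velocities without three pairwise transversal ones lie over three intervals.
* `arcs_strip` : captured velocities in one strip lie over two intervals.
-/

set_option autoImplicit false
set_option linter.unusedVariables false

namespace Crest.Agent.R136.Arc880

/-- the form at the point `(1, x, y)` -/
def qf (f : Fin 3 → Fin 3 → ℝ) (x y : ℝ) : ℝ :=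
  f 0 0 + 2 * f 0 1 * x + 2 * f 0 2 * y + f 1 1 * x ^ 2 + 2 * f 1 2 * x * y + f 2 2 * y ^ 2

/-- the form at the direction `(0, u, v)` -/
def Qd (f : Fin 3 → Fin 3 → ℝ) (u v : ℝ) : ℝ :=
  f 1 1 * u ^ 2 + 2 * f 1 2 * u * v + f 2 2 * v ^ 2

/-- determinant of the symmetric form -/
def det3 (f : Fin 3 → Fin 3 → ℝ) : ℝ :=
  f 0 0 * f 1 1 * f 2 2 + 2 * f 0 1 * f 1 2 * f 0 2 - f 0 0 * f 1 2 ^ 2 - f 0 1 ^ 2 * f 2 2 -
    f 0 2 ^ 2 * f 1 1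

/-- polar form of two points -/
def pol (f : Fin 3 → Fin 3 → ℝ) (x y x' y' : ℝ) : ℝ :=
  f 0 0 + f 0 1 * (x + x') + f 0 2 * (y + y') + f 1 1 * x * x' + f 1 2 * (x * y' + x' * y) +
    f 2 2 * y * y'

/-- twice the area of the triangle -/
def ar (x y x' y' x'' y'' : ℝ) : ℝ := (x' - x) * (y'' - y) - (x'' - x) * (y' - y)

theorem pol_eq (f : Fin 3 → Fin 3 → ℝ) (x y x' y' : ℝ) :
    pol f x y x' y' = (qf f x y + qf f x' y' - Qd f (x' - x) (y' - y)) / 2 := by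
  unfold pol qf Qd; ring

theorem abs_mul_le {a b A B : ℝ} (ha : |a| ≤ A) (hb : |b| ≤ B) : |a * b| ≤ A * B := by
  rw [abs_mul]; exact mul_le_mul ha hb (abs_nonneg _) ((abs_nonneg a).trans ha)

theorem abs_add2 {a b A B : ℝ} (ha : |a| ≤ A) (hb : |b| ≤ B) : |a + b| ≤ A + B :=
  (abs_add_le a b).trans (add_le_add ha hb)

theorem abs_sub2 {a b A B : ℝ} (ha : |a| ≤ A) (hb : |b| ≤ B) : |a - b| ≤ A + B :=
  (abs_sub a b).trans (add_le_add ha hb)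

theorem pol_le {f : Fin 3 → Fin 3 → ℝ} (hf : ∀ i j, |f i j| ≤ 1) {x y x' y' : ℝ} (hx : |x| ≤ 1)
    (hy : |y| ≤ 1) (hx' : |x'| ≤ 1) (hy' : |y'| ≤ 1) : |pol f x y x' y'| ≤ 9 := by
  unfold pol
  have e1 : |f 0 1 * (x + x')| ≤ 1 * (1 + 1) := abs_mul_le (hf 0 1) (abs_add2 hx hx')
  have e2 : |f 0 2 * (y + y')| ≤ 1 * (1 + 1) := abs_mul_le (hf 0 2) (abs_add2 hy hy')
  have e3 : |f 1 1 * x * x'| ≤ 1 * 1 * 1 := abs_mul_le (abs_mul_le (hf 1 1) hx) hx'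
  have e4 : |f 1 2 * (x * y' + x' * y)| ≤ 1 * (1 * 1 + 1 * 1) :=
    abs_mul_le (hf 1 2) (abs_add2 (abs_mul_le hx hy') (abs_mul_le hx' hy))
  have e5 : |f 2 2 * y * y'| ≤ 1 * 1 * 1 := abs_mul_le (abs_mul_le (hf 2 2) hy) hy'
  have := abs_add2 (abs_add2 (abs_add2 (abs_add2 (abs_add2 (hf 0 0) e1) e2) e3) e4) e5
  linarith

theorem det3_le {f : Fin 3 → Fin 3 → ℝ} (hf : ∀ i j, |f i j| ≤ 1) : |det3 f| ≤ 6 := by
  unfold det3
  have h2 : ∀ i j, |f i j ^ 2| ≤ 1 := by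
    intro i j; rw [abs_pow]; exact pow_le_one₀ (abs_nonneg _) (hf i j)
  have e1 : |f 0 0 * f 1 1 * f 2 2| ≤ 1 * 1 * 1 := abs_mul_le (abs_mul_le (hf 0 0) (hf 1 1)) (hf 2 2)
  have e2 : |2 * f 0 1 * f 1 2 * f 0 2| ≤ 2 * 1 * 1 * 1 :=
    abs_mul_le (abs_mul_le (abs_mul_le (by norm_num) (hf 0 1)) (hf 1 2)) (hf 0 2)
  have e3 : |f 0 0 * f 1 2 ^ 2| ≤ 1 * 1 := abs_mul_le (hf 0 0) (h2 1 2)
  have e4 : |f 0 1 ^ 2 * f 2 2| ≤ 1 * 1 := abs_mul_le (h2 0 1) (hf 2 2)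
  have e5 : |f 0 2 ^ 2 * f 1 1| ≤ 1 * 1 := abs_mul_le (h2 0 2) (hf 1 1)
  have := abs_sub2 (abs_sub2 (abs_sub2 (abs_add2 e1 e2) e3) e4) e5
  linarith

/-- **two points of a non-degenerate conic**: the direction is not isotropic. -/
theorem sepQ {f : Fin 3 → Fin 3 → ℝ} (hf : ∀ i j, |f i j| ≤ 1) {κ δ : ℝ} (hκ : κ ≤ |det3 f|)
    {x y x' y' : ℝ} (hx : |x| ≤ 1) (hy : |y| ≤ 1) (hx' : |x'| ≤ 1) (hy' : |y'| ≤ 1)
    (h1 : |qf f x y| ≤ δ) (h2 : |qf f x' y'| ≤ δ) :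
    κ * ((x' - x) ^ 2 + (y' - y) ^ 2) ≤ 54 * |Qd f (x' - x) (y' - y)| + 136 * δ := by
  have hδ : 0 ≤ δ := (abs_nonneg _).trans h1
  set u : ℝ := x' - x with hu
  set v : ℝ := y' - y with hv
  set n : ℝ := u ^ 2 + v ^ 2 with hn
  set S : ℝ := |u| + |v| with hS
  have hu2 : |u| ≤ 2 := (abs_sub2 hx' hx).trans (by norm_num)
  have hv2 : |v| ≤ 2 := (abs_sub2 hy' hy).trans (by norm_num)
  have hu0 := abs_nonneg u
  have hv0 := abs_nonneg v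
  have hS0 : 0 ≤ S := add_nonneg hu0 hv0
  have hS4 : S ≤ 4 := by rw [hS]; linarith
  have hn0 : 0 ≤ n := by positivity
  have hSn : S ^ 2 ≤ 2 * n := by
    have h3 : |u| ^ 2 = u ^ 2 := sq_abs u
    have h4 : |v| ^ 2 = v ^ 2 := sq_abs v
    rw [hS, hn]; nlinarith only [sq_nonneg (|u| - |v|), h3, h4]
  -- the five entries
  set m11 : ℝ := qf f x y with hm11
  set m12 : ℝ := (f 0 1 + f 1 1 * x + f 1 2 * y) * u + (f 0 2 + f 1 2 * x + f 2 2 * y) * v with hm12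
  set m22 : ℝ := Qd f u v with hm22
  set m13 : ℝ := (f 0 2 + f 1 2 * x + f 2 2 * y) * u - (f 0 1 + f 1 1 * x + f 1 2 * y) * v with hm13
  set m23 : ℝ := (f 2 2 - f 1 1) * (u * v) + f 1 2 * (u ^ 2 - v ^ 2) with hm23
  set m33 : ℝ := f 1 1 * v ^ 2 - 2 * f 1 2 * (u * v) + f 2 2 * u ^ 2 with hm33
  have hid : n ^ 2 * det3 f = m11 * (m22 * m33 - m23 ^ 2) - m12 * (m12 * m33 - m23 * m13) +
      m13 * (m12 * m23 - m22 * m13) := by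
    rw [hn, hm11, hm12, hm22, hm13, hm23, hm33]
    unfold det3 qf Qd
    ring
  have hq : qf f x' y' = m11 + 2 * m12 + m22 := by
    rw [hm11, hm12, hm22, hu, hv]; unfold qf Qd; ring
  have c1 : |f 0 1 + f 1 1 * x + f 1 2 * y| ≤ 3 := by
    have := abs_add2 (abs_add2 (hf 0 1) (abs_mul_le (hf 1 1) hx)) (abs_mul_le (hf 1 2) hy)
    linarith
  have c2 : |f 0 2 + f 1 2 * x + f 2 2 * y| ≤ 3 := by
    have := abs_add2 (abs_add2 (hf 0 2) (abs_mul_le (hf 1 2) hx)) (abs_mul_le (hf 2 2) hy)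
    linarith
  have b12 : |m12| ≤ 3 * S := by
    have := abs_add2 (abs_mul_le c1 (le_refl |u|)) (abs_mul_le c2 (le_refl |v|))
    refine this.trans (le_of_eq ?_)
    rw [hS]; ring
  have b13 : |m13| ≤ 3 * S := by
    have := abs_sub2 (abs_mul_le c2 (le_refl |u|)) (abs_mul_le c1 (le_refl |v|))
    refine this.trans (le_of_eq ?_)
    rw [hS]; ring
  have huu : |u ^ 2| ≤ |u| ^ 2 := by rw [abs_pow]
  have hvv : |v ^ 2| ≤ |v| ^ 2 := by rw [abs_pow]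
  have huv : |u * v| ≤ |u| * |v| := by rw [abs_mul]
  have b23 : |m23| ≤ S ^ 2 := by
    have h3 : |f 2 2 - f 1 1| ≤ 1 + 1 := abs_sub2 (hf 2 2) (hf 1 1)
    have := abs_add2 (abs_mul_le h3 huv) (abs_mul_le (hf 1 2) (abs_sub2 huu hvv))
    refine this.trans (le_of_eq ?_)
    rw [hS]; ring
  have b33 : |m33| ≤ S ^ 2 := by
    have h3 : |2 * f 1 2| ≤ 2 * 1 := abs_mul_le (by norm_num) (hf 1 2)
    have := abs_add2 (abs_sub2 (abs_mul_le (hf 1 1) hvv) (abs_mul_le h3 huv))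
      (abs_mul_le (hf 2 2) huu)
    refine this.trans (le_of_eq ?_)
    rw [hS]; ring
  have b22 : |m22| ≤ S ^ 2 := by
    have h3 : |2 * f 1 2 * u| ≤ 2 * 1 * |u| :=
      abs_mul_le (abs_mul_le (by norm_num) (hf 1 2)) le_rfl
    have := abs_add2 (abs_add2 (abs_mul_le (hf 1 1) huu) (abs_mul_le h3 (le_refl |v|)))
      (abs_mul_le (hf 2 2) hvv)
    rw [hm22]; unfold Qd
    refine this.trans (le_of_eq ?_)
    rw [hS]; ring
  have b12' : |m12| ≤ |m22| / 2 + δ := by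
    have h3 : m12 = (qf f x' y' - m11 - m22) / 2 := by rw [hq]; ring
    rw [h3, abs_div, abs_two]
    have := abs_sub2 (abs_sub2 h2 h1) (le_refl |m22|)
    linarith only [this]
  have p12 := abs_nonneg m12
  have p22 := abs_nonneg m22
  have t1 : |m11 * (m22 * m33 - m23 ^ 2)| ≤ δ * (2 * (S ^ 2 * S ^ 2)) := by
    refine abs_mul_le h1 ?_
    have h3 : |m23 ^ 2| ≤ S ^ 2 * S ^ 2 := by
      rw [sq]; exact abs_mul_le b23 b23
    refine (abs_sub2 (abs_mul_le b22 b33) h3).trans (le_of_eq ?_)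
    ring
  have t2 : |m12 * (m12 * m33 - m23 * m13)| ≤ |m12| * (6 * (S * S ^ 2)) := by
    refine abs_mul_le le_rfl ?_
    refine (abs_sub2 (abs_mul_le b12 b33) (abs_mul_le b23 b13)).trans (le_of_eq ?_)
    ring
  have t3 : |m13 * (m12 * m23 - m22 * m13)| ≤ 3 * S * (|m12| * S ^ 2 + |m22| * (3 * S)) :=
    abs_mul_le b13 (abs_sub2 (abs_mul_le le_rfl b23) (abs_mul_le le_rfl b13))
  have t : n ^ 2 * |det3 f| ≤ δ * (2 * (S ^ 2 * S ^ 2)) + |m12| * (6 * (S * S ^ 2)) +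
      3 * S * (|m12| * S ^ 2 + |m22| * (3 * S)) := by
    have h3 : n ^ 2 * |det3 f| = |n ^ 2 * det3 f| := by
      rw [abs_mul, abs_of_nonneg (by positivity : 0 ≤ n ^ 2)]
    rw [h3, hid]
    exact abs_add2 (abs_sub2 t1 t2) t3
  have t' : n ^ 2 * κ ≤ S ^ 2 * (68 * δ + 27 * |m22|) := by
    have h3 : n ^ 2 * κ ≤ n ^ 2 * |det3 f| := mul_le_mul_of_nonneg_left hκ (by positivity)
    refine (h3.trans t).trans ?_
    have e1 : δ * (2 * (S ^ 2 * S ^ 2)) + |m12| * (6 * (S * S ^ 2)) +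
        3 * S * (|m12| * S ^ 2 + |m22| * (3 * S)) =
        S ^ 2 * (2 * δ * S ^ 2 + 9 * (|m12| * S) + 9 * |m22|) := by ring
    rw [e1]
    refine mul_le_mul_of_nonneg_left ?_ (by positivity)
    have e2 : S ^ 2 ≤ 16 := by nlinarith only [hS0, hS4]
    have e3 : δ * S ^ 2 ≤ δ * 16 := mul_le_mul_of_nonneg_left e2 hδ
    have e4 : |m12| * S ≤ |m12| * 4 := mul_le_mul_of_nonneg_left hS4 p12
    linarith only [e3, e4, b12']
  have hR : 0 ≤ 68 * δ + 27 * |m22| := by positivity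
  have t'' : n * (n * κ) ≤ n * (2 * (68 * δ + 27 * |m22|)) := by
    have h3 := mul_le_mul_of_nonneg_right hSn hR
    have h4 : n * (n * κ) = n ^ 2 * κ := by ring
    have h5 : n * (2 * (68 * δ + 27 * |m22|)) = 2 * n * (68 * δ + 27 * |m22|) := by ring
    rw [h4, h5]
    exact t'.trans h3
  rcases hn0.eq_or_lt with h0 | h0
  · rw [← h0]; rw [mul_zero]; positivity
  · have := le_of_mul_le_mul_left t'' h0
    linarith only [this]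

/-- Gram identity of three points -/
theorem gram (f : Fin 3 → Fin 3 → ℝ) (x1 y1 x2 y2 x3 y3 : ℝ) :
    ar x1 y1 x2 y2 x3 y3 ^ 2 * det3 f =
      2 * pol f x1 y1 x2 y2 * pol f x1 y1 x3 y3 * pol f x2 y2 x3 y3 +
      qf f x1 y1 * qf f x2 y2 * qf f x3 y3 - qf f x1 y1 * pol f x2 y2 x3 y3 ^ 2 -
      qf f x2 y2 * pol f x1 y1 x3 y3 ^ 2 - qf f x3 y3 * pol f x1 y1 x2 y2 ^ 2 := by
  unfold ar det3 pol qf
  ring

theorem ar_le {x1 y1 x2 y2 x3 y3 : ℝ} (hx1 : |x1| ≤ 1) (hy1 : |y1| ≤ 1) (hx2 : |x2| ≤ 1)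
    (hy2 : |y2| ≤ 1) (hx3 : |x3| ≤ 1) (hy3 : |y3| ≤ 1) : |ar x1 y1 x2 y2 x3 y3| ≤ 8 := by
  unfold ar
  have := abs_sub2 (abs_mul_le (abs_sub2 hx2 hx1) (abs_sub2 hy3 hy1))
    (abs_mul_le (abs_sub2 hx3 hx1) (abs_sub2 hy2 hy1))
  linarith

/-- lower bound of the polar form of two separated points -/
theorem pol_lower {f : Fin 3 → Fin 3 → ℝ} (hf : ∀ i j, |f i j| ≤ 1) {κ δ β : ℝ}
    (hκ : κ ≤ |det3 f|) {x y x' y' : ℝ} (hx : |x| ≤ 1) (hy : |y| ≤ 1) (hx' : |x'| ≤ 1)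
    (hy' : |y'| ≤ 1) (h1 : |qf f x y| ≤ δ) (h2 : |qf f x' y'| ≤ δ) (hκ0 : 0 ≤ κ)
    (hs : β ^ 2 ≤ (x' - x) ^ 2 + (y' - y) ^ 2) (hδ : 488 * δ ≤ κ * β ^ 2) :
    κ * β ^ 2 / 216 ≤ |pol f x y x' y'| := by
  have h3 := sepQ hf hκ hx hy hx' hy' h1 h2
  have h4 : κ * β ^ 2 ≤ κ * ((x' - x) ^ 2 + (y' - y) ^ 2) := mul_le_mul_of_nonneg_left hs hκ0
  have h5 : Qd f (x' - x) (y' - y) = qf f x y + qf f x' y' - 2 * pol f x y x' y' := by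
    rw [pol_eq]; ring
  have h6 : |Qd f (x' - x) (y' - y)| ≤ δ + δ + 2 * |pol f x y x' y'| := by
    rw [h5]
    refine (abs_sub2 (abs_add2 h1 h2) (le_refl |2 * pol f x y x' y'|)).trans (le_of_eq ?_)
    rw [abs_mul, abs_two]
  linarith only [h3, h4, h6, hδ]

/-- **area bound**: three separated points of a non-degenerate conic are not collinear. -/
theorem area {f : Fin 3 → Fin 3 → ℝ} (hf : ∀ i j, |f i j| ≤ 1) {κ δ β : ℝ}
    (hκ : κ ≤ |det3 f|) (hκ0 : 0 ≤ κ) (hκ1 : κ ≤ 1) (hβ1 : β ^ 2 ≤ 1)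
    {x1 y1 x2 y2 x3 y3 : ℝ} (hx1 : |x1| ≤ 1) (hy1 : |y1| ≤ 1) (hx2 : |x2| ≤ 1)
    (hy2 : |y2| ≤ 1) (hx3 : |x3| ≤ 1) (hy3 : |y3| ≤ 1)
    (h1 : |qf f x1 y1| ≤ δ) (h2 : |qf f x2 y2| ≤ δ) (h3 : |qf f x3 y3| ≤ δ)
    (s12 : β ^ 2 ≤ (x2 - x1) ^ 2 + (y2 - y1) ^ 2) (s13 : β ^ 2 ≤ (x3 - x1) ^ 2 + (y3 - y1) ^ 2)
    (s23 : β ^ 2 ≤ (x3 - x2) ^ 2 + (y3 - y2) ^ 2) (hδ : 244 * δ ≤ (κ * β ^ 2 / 216) ^ 3) :
    (κ * β ^ 2 / 216) ^ 3 / 48 ≤ |ar x1 y1 x2 y2 x3 y3| := by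
  have hδ0 : 0 ≤ δ := (abs_nonneg _).trans h1
  set θ : ℝ := κ * β ^ 2 / 216 with hθ
  have hb0 : 0 ≤ β ^ 2 := sq_nonneg β
  have hθ0 : 0 ≤ θ := by rw [hθ]; positivity
  have hθ1 : θ ≤ 1 := by
    have : κ * β ^ 2 ≤ 1 * 1 := mul_le_mul hκ1 hβ1 hb0 (by norm_num)
    rw [hθ]; linarith
  have hθ3 : θ ^ 3 ≤ θ := by
    have : θ ^ 3 ≤ θ ^ 1 := pow_le_pow_of_le_one hθ0 hθ1 (by norm_num)
    simpa using this
  have hδ' : 488 * δ ≤ κ * β ^ 2 := by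
    have : κ * β ^ 2 = 216 * θ := by rw [hθ]; ring
    rw [this]; linarith only [hδ, hθ3, hθ0]
  have hδ1 : δ ≤ 1 := by linarith only [hδ, hθ3, hθ1]
  have m12 := pol_lower hf hκ hx1 hy1 hx2 hy2 h1 h2 hκ0 s12 hδ'
  have m13 := pol_lower hf hκ hx1 hy1 hx3 hy3 h1 h3 hκ0 s13 hδ'
  have m23 := pol_lower hf hκ hx2 hy2 hx3 hy3 h2 h3 hκ0 s23 hδ'
  have M12 := pol_le hf hx1 hy1 hx2 hy2
  have M13 := pol_le hf hx1 hy1 hx3 hy3
  have M23 := pol_le hf hx2 hy2 hx3 hy3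
  rw [← hθ] at m12 m13 m23
  set A : ℝ := ar x1 y1 x2 y2 x3 y3 with hA
  set a : ℝ := pol f x1 y1 x2 y2 with ha
  set b : ℝ := pol f x1 y1 x3 y3 with hb
  set c : ℝ := pol f x2 y2 x3 y3 with hc
  have hg : 2 * a * b * c = A ^ 2 * det3 f - qf f x1 y1 * qf f x2 y2 * qf f x3 y3 +
      qf f x1 y1 * c ^ 2 + qf f x2 y2 * b ^ 2 + qf f x3 y3 * a ^ 2 := by
    rw [hA, gram]; ring
  have hA8 : |A| ≤ 8 := ar_le hx1 hy1 hx2 hy2 hx3 hy3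
  have sq81 : ∀ {r : ℝ}, |r| ≤ 9 → |r ^ 2| ≤ 81 := by
    intro r hr
    rw [abs_pow]
    have := pow_le_pow_left₀ (abs_nonneg r) hr 2
    linarith only [this]
  have e0 : |A ^ 2 * det3 f| ≤ A ^ 2 * 6 := by
    rw [abs_mul, abs_of_nonneg (sq_nonneg A)]
    exact mul_le_mul_of_nonneg_left (det3_le hf) (sq_nonneg A)
  have e1 : |qf f x1 y1 * qf f x2 y2 * qf f x3 y3| ≤ 1 * 1 * δ :=
    abs_mul_le (abs_mul_le (h1.trans hδ1) (h2.trans hδ1)) h3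
  have e2 : |qf f x1 y1 * c ^ 2| ≤ δ * 81 := abs_mul_le h1 (sq81 M23)
  have e3 : |qf f x2 y2 * b ^ 2| ≤ δ * 81 := abs_mul_le h2 (sq81 M13)
  have e4 : |qf f x3 y3 * a ^ 2| ≤ δ * 81 := abs_mul_le h3 (sq81 M12)
  have e5 : |2 * a * b * c| ≤ A ^ 2 * 6 + 244 * δ := by
    rw [hg]
    refine (abs_add2 (abs_add2 (abs_add2 (abs_sub2 e0 e1) e2) e3) e4).trans (le_of_eq ?_)
    ring
  have e6 : 2 * θ ^ 3 ≤ |2 * a * b * c| := by
    rw [abs_mul, abs_mul, abs_mul, abs_two]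
    have i1 : θ * θ ≤ |a| * |b| := mul_le_mul m12 m13 hθ0 (abs_nonneg _)
    have i2 : θ * θ * θ ≤ |a| * |b| * |c| := mul_le_mul i1 m23 hθ0 (by positivity)
    have i3 : 2 * θ ^ 3 = 2 * (θ * θ * θ) := by ring
    have i4 : 2 * |a| * |b| * |c| = 2 * (|a| * |b| * |c|) := by ring
    rw [i3, i4]
    exact mul_le_mul_of_nonneg_left i2 (by norm_num)
  have e7 : A ^ 2 ≤ 8 * |A| := by
    rw [← sq_abs A, sq]; exact mul_le_mul_of_nonneg_right hA8 (abs_nonneg A)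
  linarith only [e5, e6, e7, hδ]

/-- three points in a strip of width `t` span a small area -/
theorem ar_strip {x1 y1 x2 y2 x3 y3 e1 e2 c t : ℝ} (hx1 : |x1| ≤ 1) (hy1 : |y1| ≤ 1)
    (hx2 : |x2| ≤ 1) (hy2 : |y2| ≤ 1) (hx3 : |x3| ≤ 1) (hy3 : |y3| ≤ 1)
    (h1 : |e1 * x1 + e2 * y1 - c| ≤ t) (h2 : |e1 * x2 + e2 * y2 - c| ≤ t)
    (h3 : |e1 * x3 + e2 * y3 - c| ≤ t) :
    (|e1| + |e2|) * |ar x1 y1 x2 y2 x3 y3| ≤ 16 * t := by
  have ht : 0 ≤ t := (abs_nonneg _).trans h1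
  have d2 : |e1 * (x2 - x1) + e2 * (y2 - y1)| ≤ t + t := by
    have h4 : e1 * (x2 - x1) + e2 * (y2 - y1) = (e1 * x2 + e2 * y2 - c) - (e1 * x1 + e2 * y1 - c) := by
      ring
    rw [h4]; exact abs_sub2 h2 h1
  have d3 : |e1 * (x3 - x1) + e2 * (y3 - y1)| ≤ t + t := by
    have h4 : e1 * (x3 - x1) + e2 * (y3 - y1) = (e1 * x3 + e2 * y3 - c) - (e1 * x1 + e2 * y1 - c) := by
      ring
    rw [h4]; exact abs_sub2 h3 h1
  have k1 : |e1 * ar x1 y1 x2 y2 x3 y3| ≤ 8 * t := by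
    have h4 : e1 * ar x1 y1 x2 y2 x3 y3 = (e1 * (x2 - x1) + e2 * (y2 - y1)) * (y3 - y1) -
        (e1 * (x3 - x1) + e2 * (y3 - y1)) * (y2 - y1) := by unfold ar; ring
    rw [h4]
    have := abs_sub2 (abs_mul_le d2 (abs_sub2 hy3 hy1)) (abs_mul_le d3 (abs_sub2 hy2 hy1))
    linarith
  have k2 : |e2 * ar x1 y1 x2 y2 x3 y3| ≤ 8 * t := by
    have h4 : e2 * ar x1 y1 x2 y2 x3 y3 = (x2 - x1) * (e1 * (x3 - x1) + e2 * (y3 - y1)) -
        (x3 - x1) * (e1 * (x2 - x1) + e2 * (y2 - y1)) := by unfold ar; ring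
    rw [h4]
    have := abs_sub2 (abs_mul_le (abs_sub2 hx2 hx1) d3) (abs_mul_le (abs_sub2 hx3 hx1) d2)
    linarith
  rw [abs_mul] at k1 k2
  rw [add_mul]
  linarith only [k1, k2]

/-- **a non-degenerate conic and a strip**: no three separated points. -/
theorem strip {f : Fin 3 → Fin 3 → ℝ} (hf : ∀ i j, |f i j| ≤ 1) {κ δ β : ℝ}
    (hκ : κ ≤ |det3 f|) (hκ0 : 0 ≤ κ) (hκ1 : κ ≤ 1) (hβ1 : β ^ 2 ≤ 1)
    {x1 y1 x2 y2 x3 y3 : ℝ} (hx1 : |x1| ≤ 1) (hy1 : |y1| ≤ 1) (hx2 : |x2| ≤ 1)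
    (hy2 : |y2| ≤ 1) (hx3 : |x3| ≤ 1) (hy3 : |y3| ≤ 1)
    (h1 : |qf f x1 y1| ≤ δ) (h2 : |qf f x2 y2| ≤ δ) (h3 : |qf f x3 y3| ≤ δ)
    (s12 : β ^ 2 ≤ (x2 - x1) ^ 2 + (y2 - y1) ^ 2) (s13 : β ^ 2 ≤ (x3 - x1) ^ 2 + (y3 - y1) ^ 2)
    (s23 : β ^ 2 ≤ (x3 - x2) ^ 2 + (y3 - y2) ^ 2) (hδ : 244 * δ ≤ (κ * β ^ 2 / 216) ^ 3)
    {e1 e2 c t : ℝ} (he : 1 ≤ |e1| + |e2|) (g1 : |e1 * x1 + e2 * y1 - c| ≤ t)
    (g2 : |e1 * x2 + e2 * y2 - c| ≤ t) (g3 : |e1 * x3 + e2 * y3 - c| ≤ t) :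
    (κ * β ^ 2 / 216) ^ 3 / 768 ≤ t := by
  have k1 := area hf hκ hκ0 hκ1 hβ1 hx1 hy1 hx2 hy2 hx3 hy3 h1 h2 h3 s12 s13 s23 hδ
  have k2 := ar_strip hx1 hy1 hx2 hy2 hx3 hy3 g1 g2 g3
  have k3 : 1 * |ar x1 y1 x2 y2 x3 y3| ≤ (|e1| + |e2|) * |ar x1 y1 x2 y2 x3 y3| :=
    mul_le_mul_of_nonneg_right he (abs_nonneg _)
  linarith

/-- a set without `N + 1` separated points is covered by `N` balls -/
theorem coverN {E : Type*} [PseudoMetricSpace E] [Inhabited E] {X : Set E} {β : ℝ} (N : ℕ)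
    (h : ¬ ∃ p : Fin (N + 1) → E, (∀ i, p i ∈ X) ∧ ∀ i j, i ≠ j → β ≤ dist (p i) (p j)) :
    ∃ c : Fin N → E, ∀ x ∈ X, ∃ i, dist x (c i) < β := by
  classical
  induction N with
  | zero =>
    refine ⟨Fin.elim0, fun x hx => ?_⟩
    exact absurd ⟨fun _ => x, fun _ => hx, fun i j hij => absurd (by omega) hij⟩ h
  | succ n ih =>
    by_cases hn : ∃ p : Fin (n + 1) → E, (∀ i, p i ∈ X) ∧ ∀ i j, i ≠ j → β ≤ dist (p i) (p j)
    · obtain ⟨p, hp, hsep⟩ := hn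
      refine ⟨p, fun x hx => ?_⟩
      by_contra hcon
      push Not at hcon
      refine h ⟨Fin.cons x p, ?_, ?_⟩
      · intro i
        refine Fin.cases ?_ (fun i => ?_) i
        · simpa using hx
        · simpa using hp i
      · intro i j
        refine Fin.cases ?_ (fun i => ?_) i <;> refine Fin.cases ?_ (fun j => ?_) j
        · intro h; exact absurd rfl h
        · intro _; simpa using hcon j
        · intro _; simpa [dist_comm] using hcon i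
        · intro hij
          simpa using hsep i j (fun h => hij (by rw [h]))
    · obtain ⟨c, hc⟩ := ih hn
      refine ⟨Fin.snoc c default, fun x hx => ?_⟩
      obtain ⟨i, hi⟩ := hc x hx
      exact ⟨i.castSucc, by simpa using hi⟩

/-- `N + 1` points on the line, pairwise `β`-separated: the points of the plane are `β²`-separated -/
theorem sep_fst {β x y x' y' : ℝ} (hβ : 0 ≤ β) (h : β ≤ |x - x'|) :
    β ^ 2 ≤ (x' - x) ^ 2 + (y' - y) ^ 2 := by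
  have h1 : β ^ 2 ≤ |x - x'| ^ 2 := pow_le_pow_left₀ hβ h 2
  rw [sq_abs] at h1
  nlinarith only [h1, sq_nonneg (y' - y)]

/-- **ARC COVER, transversal form.**  `X` = velocities `(x, y)` of the captured lines of a fan,
`(x0, y0)` = velocity of the base line, all on the conic `|qf f| ≤ δ` with `κ ≤ |det3 f|`.  If no
three of them are pairwise transversal seen from `(x0, y0)` (area `≥ η`, `η ≤ (κ β²/216)³/48`), then
the first coordinates of `X` lie in three intervals of radius `2 β`. -/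
theorem arcs3 {f : Fin 3 → Fin 3 → ℝ} (hf : ∀ i j, |f i j| ≤ 1) {κ δ β η : ℝ}
    (hκ : κ ≤ |det3 f|) (hκ0 : 0 ≤ κ) (hκ1 : κ ≤ 1) (hβ0 : 0 < β) (hβ1 : β ≤ 1)
    (hδ : 244 * δ ≤ (κ * β ^ 2 / 216) ^ 3) (hη : η ≤ (κ * β ^ 2 / 216) ^ 3 / 48)
    {x0 y0 : ℝ} (hx0 : |x0| ≤ 1) (hy0 : |y0| ≤ 1) (h0 : |qf f x0 y0| ≤ δ) {X : Set (ℝ × ℝ)}
    (hX : ∀ p ∈ X, |p.1| ≤ 1 ∧ |p.2| ≤ 1 ∧ |qf f p.1 p.2| ≤ δ)
    (htr : ¬ ∃ p : Fin 3 → ℝ × ℝ, (∀ i, p i ∈ X) ∧ ∀ i j, i ≠ j →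
      η ≤ |ar x0 y0 (p i).1 (p i).2 (p j).1 (p j).2|) :
    ∃ c : Fin 3 → ℝ, ∀ p ∈ X, ∃ i, |p.1 - c i| < 2 * β := by
  have key : ¬ ∃ p : Fin (3 + 1) → ℝ, (∀ i, p i ∈ Prod.fst '' X) ∧
      ∀ i j, i ≠ j → 2 * β ≤ dist (p i) (p j) := by
    rintro ⟨p, hp, hsep⟩
    choose r hr hrp using hp
    -- at most one index is `β`-close to `x0`
    have hone : ∃ e : Fin 3 → Fin 4, Function.Injective e ∧ ∀ i, β ≤ |(r (e i)).1 - x0| := by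
      by_cases hc : ∃ k : Fin 4, |(r k).1 - x0| < β
      · obtain ⟨k, hk⟩ := hc
        refine ⟨k.succAbove, Fin.succAbove_right_injective, fun i => ?_⟩
        by_contra hcon
        push Not at hcon
        have h1 := hsep (k.succAbove i) k (Fin.succAbove_ne k i)
        rw [Real.dist_eq, ← hrp, ← hrp] at h1
        have h2 : |(r (k.succAbove i)).1 - (r k).1| ≤
            |(r (k.succAbove i)).1 - x0| + |(r k).1 - x0| := by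
          have := abs_sub ((r (k.succAbove i)).1 - x0) ((r k).1 - x0)
          simpa using this
        linarith
      · push Not at hc
        exact ⟨Fin.castSucc, Fin.castSucc_injective 3, fun i => hc _⟩
    obtain ⟨e, he, hfar⟩ := hone
    refine htr ⟨fun i => r (e i), fun i => hr _, fun i j hij => ?_⟩
    obtain ⟨a1, a2, a3⟩ := hX _ (hr (e i))
    obtain ⟨b1, b2, b3⟩ := hX _ (hr (e j))
    have hβ2 : β ^ 2 ≤ 1 := by nlinarith only [hβ0, hβ1]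
    have s1 : β ^ 2 ≤ ((r (e i)).1 - x0) ^ 2 + ((r (e i)).2 - y0) ^ 2 :=
      sep_fst hβ0.le (by rw [abs_sub_comm]; exact hfar i)
    have s2 : β ^ 2 ≤ ((r (e j)).1 - x0) ^ 2 + ((r (e j)).2 - y0) ^ 2 :=
      sep_fst hβ0.le (by rw [abs_sub_comm]; exact hfar j)
    have s3 : β ^ 2 ≤ ((r (e j)).1 - (r (e i)).1) ^ 2 + ((r (e j)).2 - (r (e i)).2) ^ 2 := by
      refine sep_fst hβ0.le ?_
      have h1 := hsep (e i) (e j) (fun h => hij (he h))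
      rw [Real.dist_eq, ← hrp, ← hrp] at h1
      linarith
    exact hη.trans (area hf hκ hκ0 hκ1 hβ2 hx0 hy0 a1 a2 b1 b2 h0 a3 b3 s1 s2 s3 hδ)
  obtain ⟨c, hc⟩ := coverN 3 key
  refine ⟨c, fun p hp => ?_⟩
  obtain ⟨i, hi⟩ := hc p.1 ⟨p, hp, rfl⟩
  exact ⟨i, by rwa [Real.dist_eq] at hi⟩

/-- **ARC COVER, strip form**: the part of the conic in a strip of width `t < (κ β²/216)³/768` lies
over two intervals of radius `β`. -/
theorem arcs_strip {f : Fin 3 → Fin 3 → ℝ} (hf : ∀ i j, |f i j| ≤ 1) {κ δ β t : ℝ}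
    (hκ : κ ≤ |det3 f|) (hκ0 : 0 ≤ κ) (hκ1 : κ ≤ 1) (hβ0 : 0 < β) (hβ1 : β ≤ 1)
    (hδ : 244 * δ ≤ (κ * β ^ 2 / 216) ^ 3) (ht : t < (κ * β ^ 2 / 216) ^ 3 / 768)
    {e1 e2 c0 : ℝ} (he : 1 ≤ |e1| + |e2|) {X : Set (ℝ × ℝ)}
    (hX : ∀ p ∈ X, |p.1| ≤ 1 ∧ |p.2| ≤ 1 ∧ |qf f p.1 p.2| ≤ δ)
    (hst : ∀ p ∈ X, |e1 * p.1 + e2 * p.2 - c0| ≤ t) :
    ∃ c : Fin 2 → ℝ, ∀ p ∈ X, ∃ i, |p.1 - c i| < β := by
  have key : ¬ ∃ p : Fin (2 + 1) → ℝ, (∀ i, p i ∈ Prod.fst '' X) ∧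
      ∀ i j, i ≠ j → β ≤ dist (p i) (p j) := by
    rintro ⟨p, hp, hsep⟩
    choose r hr hrp using hp
    have hβ2 : β ^ 2 ≤ 1 := by nlinarith only [hβ0, hβ1]
    have hs : ∀ i j, i ≠ j → β ^ 2 ≤ ((r j).1 - (r i).1) ^ 2 + ((r j).2 - (r i).2) ^ 2 := by
      intro i j hij
      refine sep_fst hβ0.le ?_
      have h1 := hsep i j hij
      rwa [Real.dist_eq, ← hrp, ← hrp] at h1
    obtain ⟨a1, a2, a3⟩ := hX _ (hr 0)
    obtain ⟨b1, b2, b3⟩ := hX _ (hr 1)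
    obtain ⟨d1, d2, d3⟩ := hX _ (hr 2)
    have := strip hf hκ hκ0 hκ1 hβ2 a1 a2 b1 b2 d1 d2 a3 b3 d3 (hs 0 1 (by decide))
      (hs 0 2 (by decide)) (hs 1 2 (by decide)) hδ he (hst _ (hr 0)) (hst _ (hr 1)) (hst _ (hr 2))
    linarith
  obtain ⟨c, hc⟩ := coverN 2 key
  refine ⟨c, fun p hp => ?_⟩
  obtain ⟨i, hi⟩ := hc p.1 ⟨p, hp, rfl⟩
  exact ⟨i, by rwa [Real.dist_eq] at hi⟩

end Crest.Agent.R136.Arc880
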