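import Mathlib
import Crest.Agent.R138.ArgM1_163
import Crest.Agent.R136.MkF_627

/-!
# R136, ArgA (helper163), part 1: flags of a marked sequence with linear widths

All width exponents of the marks are linear (vector form of the extremiser), so the precision of every
slot is `d^(β v)`.  The chain of `TiltTwoA` over a fine mesh shows that the flags of level `1`
(`0 < β`) or of level `0` (`β ≤ 0`) are close, up to the precision, to the flags of EVERY level.
-/

set_option autoImplicit false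
set_option linter.unusedVariables false
set_option linter.unusedSectionVars false

open Finset Filter Topology

namespace Crest.Agent.R136.ArgA163

open Crest.Agent.R138.Ex926 (Base U)
open Crest.Agent.R138.Dp76 (Dense dpow_pos dpow_add dpow_le dpow_le_one)
open Crest.Agent.R138.Mk163 (zc zl rho alive own Negl)
open Crest.Agent.R138.ArgM163 (log_dpow exp_le_of ev_log_div ev_const ev_const_mul)
open Crest.Agent.R136.MkA627

/-! ### meshes of `[a,b]` -/

/-- mesh point of `[a,b]` -/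
def mq (a b : ℚ) (N i : ℕ) : ℚ := a + (b - a) * i / N

theorem mq_zero (a b : ℚ) (N : ℕ) : mq a b N 0 = a := by simp [mq]

theorem mq_last (a b : ℚ) {N : ℕ} (hN : 0 < N) : mq a b N N = b := by
  have : (N : ℚ) ≠ 0 := by exact_mod_cast hN.ne'
  unfold mq; field_simp; ring

theorem mq_succ (a b : ℚ) {N : ℕ} (hN : 0 < N) (i : ℕ) :
    mq a b N (i + 1) - mq a b N i = (b - a) / N := by
  have : (N : ℚ) ≠ 0 := by exact_mod_cast hN.ne'
  unfold mq; push_cast; field_simp; ring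

theorem mq_mono {a b : ℚ} (hab : a ≤ b) (N : ℕ) {i j : ℕ} (h : i ≤ j) : mq a b N i ≤ mq a b N j := by
  unfold mq
  have hij : (i : ℚ) ≤ j := by exact_mod_cast h
  have : (b - a) * i / N ≤ (b - a) * j / N := by
    apply div_le_div_of_nonneg_right _ (Nat.cast_nonneg _)
    exact mul_le_mul_of_nonneg_left hij (by linarith)
  linarith

theorem mq_ge {a b : ℚ} (hab : a ≤ b) (N i : ℕ) : a ≤ mq a b N i := by
  have := mq_mono hab N (Nat.zero_le i)
  rwa [mq_zero] at this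

theorem mq_le {a b : ℚ} (hab : a ≤ b) {N i : ℕ} (hN : 0 < N) (h : i ≤ N) : mq a b N i ≤ b := by
  have := mq_mono hab N h
  rwa [mq_last a b hN] at this

section

variable {σ κ φ ι : Type*} {P : PDist φ ι} {B : Base} {I : ℕ → Finset (ℕ × ℝ)} {G : Geo σ κ}
    {lev : ℕ → ℚ → ℕ} {A : ℕ → ℝ} {c Λ : ℝ → ℝ} {τ : κ → ℝ → ℝ} {f : ℕ → ℚ → ℕ → ℤ → ℕ}
    {b : ℕ → ℚ → ℕ → σ} {vm : ℕ → ℚ → ℝ} {w : κ → ℕ → ℚ → ℝ} {e : ℕ → ℚ → ℕ → φ}
    {pr : ι → ℕ → ℚ → ℝ}

/-- chain in a quasi-metric -/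
theorem chain_quasi (P : PDist φ ι) (j : ι) (n : ℕ) {E : ℕ → φ} {D : ℝ} (hD : 0 ≤ D) (i m : ℕ)
    (hs : ∀ l, i ≤ l → l < i + m → P.d j n (E l) (E (l + 1)) ≤ D) :
    P.d j n (E i) (E (i + m)) ≤ P.K ^ m * m * D := by
  have hK := P.K1
  induction m with
  | zero => simp [P.self]
  | succ m ih =>
    have h1 := ih fun l h1 h2 => hs l h1 (by omega)
    have h2 := hs (i + m) (by omega) (by omega)
    have h3 := P.tri j n (E i) (E (i + m)) (E (i + m + 1))
    have hKm : 1 ≤ P.K ^ m := one_le_pow₀ hK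
    have e1 : i + (m + 1) = i + m + 1 := by omega
    rw [e1]
    refine h3.trans ?_
    have h4 : P.d j n (E i) (E (i + m)) + P.d j n (E (i + m)) (E (i + m + 1)) ≤
        P.K ^ m * m * D + P.K ^ m * D := by
      have : D ≤ P.K ^ m * D := by nlinarith
      linarith
    have h5 := mul_le_mul_of_nonneg_left h4 (zero_le_one.trans hK)
    refine h5.trans (le_of_eq ?_)
    push_cast; ring

/-- exponent comparison -/
theorem le_of_log {B : Base} {n : ℕ} {x y δ : ℝ} (hx : 0 < x) (hy : 0 < y)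
    (h : -δ ≤ Real.log (y / x) / B.L n) : x ≤ y * B.d n ^ (-δ) := by
  have hL := B.L_pos n
  rw [le_div_iff₀ hL] at h
  have hd := dpow_pos B n (-δ)
  rw [← Real.log_le_log_iff hx (mul_pos hy hd), Real.log_mul hy.ne' hd.ne', log_dpow]
  rw [Real.log_div hy.ne' hx.ne'] at h
  linarith

/-- **chain over a fine mesh**: the flags of two levels `a ≤ b` differ by at most the coarsest
precision in between. -/
theorem close_pair {j : ι} {C : ℝ} (hC : 0 ≤ C)
    (hT : TiltTwoA P B I lev f e pr j (fun u v => C * (v - u)))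
    {a₁ b₁ : ℚ} (ha : 0 ≤ a₁) (hab : a₁ ≤ b₁) (hb : b₁ ≤ 1) {M : ℕ → ℝ}
    (hM0 : ∀ᶠ n in (U : Filter ℕ), 0 < M n)
    (hpos : ∀ s : ℚ, a₁ ≤ s → s ≤ b₁ → ∀ᶠ n in (U : Filter ℕ), 0 < pr j n s)
    (hM : ∀ s : ℚ, a₁ ≤ s → s ≤ b₁ → ∀ δ : ℝ, 0 < δ →
      ∀ᶠ n in (U : Filter ℕ), pr j n s ≤ M n * B.d n ^ (-δ)) {ε : ℝ} (hε : 0 < ε) :
    Negl B I fun n x => M n * B.d n ^ (-ε) ≤ P.d j n (frA lev f e n a₁ x) (frA lev f e n b₁ x) := by
  classical
  rcases hab.eq_or_lt with rfl | hlt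
  · refine Crest.Agent.R138.Mk163.Negl.false.mono ?_
    filter_upwards [hM0] with n hn x hx hcon
    rw [P.self] at hcon
    have := mul_pos hn (dpow_pos B n (-ε))
    linarith
  obtain ⟨N, hN⟩ := exists_nat_gt (C * ((b₁ : ℝ) - a₁) / (ε / 4))
  have hba : (0 : ℝ) < (b₁ : ℝ) - a₁ := by
    have : (a₁ : ℝ) < b₁ := by exact_mod_cast hlt
    linarith
  have hNpos : 0 < N := by
    rcases Nat.eq_zero_or_pos N with h | h
    · exfalso
      rw [h] at hN
      have : 0 ≤ C * ((b₁ : ℝ) - a₁) / (ε / 4) := by positivity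
      simp only [Nat.cast_zero] at hN
      linarith
    · exact h
  have hN' : (0 : ℝ) < N := by exact_mod_cast hNpos
  have hcc : C * (((b₁ : ℝ) - a₁) / N) ≤ ε / 4 := by
    rw [div_lt_iff₀ (by positivity)] at hN
    rw [← mul_div_assoc, div_le_iff₀ hN']
    linarith
  set bad : ℕ → ℕ → ℕ × ℝ → Prop := fun i n x =>
    max (pr j n (mq a₁ b₁ N i)) (pr j n (mq a₁ b₁ N (i + 1))) * B.d n ^ (-(ε / 4) - ε / 4) ≤
      P.d j n (frA lev f e n (mq a₁ b₁ N i) x) (frA lev f e n (mq a₁ b₁ N (i + 1)) x) with hbad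
  have key : ∀ i ∈ range N, Negl B I (bad i) := by
    intro i hi
    have hi' : i < N := mem_range.1 hi
    have hstep := mq_succ a₁ b₁ hNpos i
    have hstp : (0 : ℚ) < (b₁ - a₁) / N := by
      have : (0 : ℚ) < N := by exact_mod_cast hNpos
      exact div_pos (by linarith) this
    have h4 := hT (mq a₁ b₁ N i) (mq a₁ b₁ N (i + 1)) (ha.trans (mq_ge hlt.le N i)) (by linarith)
      ((mq_le hlt.le hNpos hi').trans hb) (ε / 4) (by positivity)
    have e1 : C * (((mq a₁ b₁ N (i + 1) : ℚ) : ℝ) - (mq a₁ b₁ N i : ℚ)) ≤ ε / 4 := by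
      have h5 : ((mq a₁ b₁ N (i + 1) : ℚ) : ℝ) - (mq a₁ b₁ N i : ℚ) = ((b₁ : ℝ) - a₁) / N := by
        rw [← Rat.cast_sub, hstep]; push_cast; ring
      rw [h5]; exact hcc
    refine h4.mono ?_
    filter_upwards [hpos _ (mq_ge hlt.le N i) (mq_le hlt.le hNpos hi'.le)] with n hp x _ hx
    refine le_trans ?_ hx
    exact mul_le_mul_of_nonneg_left (dpow_le B n (by linarith)) (hp.le.trans (le_max_left _ _))
  refine (Crest.Agent.R138.Mk163.Negl.finite (range N) key).mono ?_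
  have hMall : ∀ᶠ n in (U : Filter ℕ), ∀ i ∈ range (N + 1),
      pr j n (mq a₁ b₁ N i) ≤ M n * B.d n ^ (-(ε / 4)) := by
    rw [Filter.eventually_all_finset]
    intro i hi
    exact hM _ (mq_ge hlt.le N i) (mq_le hlt.le hNpos (Nat.lt_succ_iff.1 (mem_range.1 hi)))
      (ε / 4) (by positivity)
  have hK := P.K1
  have hKN : 0 < P.K ^ N * N + 1 := by positivity
  filter_upwards [hM0, hMall, ev_const B hKN (η := ε / 4) (by positivity)] with n h0 h1 h2 x hx hcon
  by_contra hno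
  push Not at hno
  have hd := dpow_pos B n (-(ε / 4) - ε / 4)
  set D : ℝ := M n * B.d n ^ (-(ε / 4)) * B.d n ^ (-(ε / 4) - ε / 4) with hD
  have hD0 : 0 < D := by
    have := dpow_pos B n (-(ε / 4))
    positivity
  have hsteps : ∀ l, 0 ≤ l → l < 0 + N →
      P.d j n (frA lev f e n (mq a₁ b₁ N l) x) (frA lev f e n (mq a₁ b₁ N (l + 1)) x) ≤ D := by
    intro l _ hl
    have hl' : l ∈ range N := mem_range.2 (by omega)
    have hm : max (pr j n (mq a₁ b₁ N l)) (pr j n (mq a₁ b₁ N (l + 1))) ≤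
        M n * B.d n ^ (-(ε / 4)) :=
      max_le (h1 l (mem_range.2 (by omega))) (h1 (l + 1) (mem_range.2 (by omega)))
    have h3 : ¬ bad l n x := fun hb' => hno l hl' hb'
    simp only [hbad] at h3
    push Not at h3
    exact h3.le.trans (mul_le_mul_of_nonneg_right hm hd.le)
  have h5 := chain_quasi P j n (E := fun l => frA lev f e n (mq a₁ b₁ N l) x) hD0.le 0 N hsteps
  simp only [zero_add, mq_zero, mq_last a₁ b₁ hNpos] at h5
  have h6 := hcon.trans h5
  have e2 : P.K ^ N * (N : ℝ) * D = (P.K ^ N * N) * (M n * B.d n ^ (-(3 * (ε / 4)))) := by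
    have : B.d n ^ (-(3 * (ε / 4))) = B.d n ^ (-(ε / 4)) * B.d n ^ (-(ε / 4) - ε / 4) := by
      rw [← dpow_add]; congr 1; ring
    rw [hD, this]; ring
  have e3 : M n * B.d n ^ (-ε) = B.d n ^ (-(ε / 4)) * (M n * B.d n ^ (-(3 * (ε / 4)))) := by
    have : B.d n ^ (-ε) = B.d n ^ (-(ε / 4)) * B.d n ^ (-(3 * (ε / 4))) := by
      rw [← dpow_add]; congr 1; ring
    rw [this]; ring
  rw [e2, e3] at h6
  have h7 : 0 < M n * B.d n ^ (-(3 * (ε / 4))) := mul_pos h0 (dpow_pos B n _)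
  have h8 := le_of_mul_le_mul_right h6 h7
  linarith

/-- relative precision of two levels, exponent form -/
def PrLin (B : Base) (pr : ι → ℕ → ℚ → ℝ) (j : ι) (β : ℝ) : Prop :=
  (∀ v : ℚ, 0 ≤ v → v ≤ 1 → ∀ᶠ n in (U : Filter ℕ), 0 < pr j n v) ∧
  ∀ v : ℚ, 0 ≤ v → v ≤ 1 →
    Tendsto (fun n => Real.log (pr j n 0 / pr j n v) / B.L n) U (𝓝 (β * v))

theorem PrLin.pair {j : ι} {β : ℝ} (h : PrLin B pr j β) {u v : ℚ} (h0 : 0 ≤ u) (h1 : u ≤ 1)
    (h2 : 0 ≤ v) (h3 : v ≤ 1) :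
    Tendsto (fun n => Real.log (pr j n u / pr j n v) / B.L n) U (𝓝 (β * (v - u))) := by
  have e1 : β * ((v : ℝ) - u) = β * v - β * u := by ring
  rw [e1]
  refine ((h.2 v h2 h3).sub (h.2 u h0 h1)).congr' ?_
  filter_upwards [h.1 0 le_rfl zero_le_one, h.1 u h0 h1, h.1 v h2 h3] with n a b c
  rw [Real.log_div a.ne' c.ne', Real.log_div a.ne' b.ne', Real.log_div b.ne' c.ne']
  ring

/-- slot with `0 ≤ β`: flags of level `1` -/
theorem close_up {j : ι} {C β : ℝ} (hC : 0 ≤ C) (hβ : 0 ≤ β)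
    (hT : TiltTwoA P B I lev f e pr j (fun u v => C * (v - u))) (hpr : PrLin B pr j β)
    {v : ℚ} (h0 : 0 ≤ v) (h1 : v ≤ 1) {ε : ℝ} (hε : 0 < ε) :
    Negl B I fun n x => pr j n v * B.d n ^ (-ε) ≤
      P.d j n (frA lev f e n 1 x) (frA lev f e n v x) := by
  have h := close_pair (P := P) hC hT h0 h1 le_rfl (M := fun n => pr j n v) (hpr.1 v h0 h1)
    (fun s hs hs1 => hpr.1 s (h0.trans hs) hs1) (fun s hs hs1 δ hδ => by
      have h2 := hpr.pair h0 h1 (h0.trans hs) hs1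
      have h3 : (0 : ℝ) ≤ β * ((s : ℝ) - v) := by
        have : (v : ℝ) ≤ s := by exact_mod_cast hs
        exact mul_nonneg hβ (by linarith)
      filter_upwards [h2.eventually_const_lt (show -δ < _ by linarith), hpr.1 v h0 h1,
        hpr.1 s (h0.trans hs) hs1] with n a b c
      exact le_of_log c b a.le) hε
  refine h.mono (Eventually.of_forall fun n x _ hx => ?_)
  rwa [P.symm]

/-- slot with `β ≤ 0`: flags of level `0` -/
theorem close_dn {j : ι} {C β : ℝ} (hC : 0 ≤ C) (hβ : β ≤ 0)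
    (hT : TiltTwoA P B I lev f e pr j (fun u v => C * (v - u))) (hpr : PrLin B pr j β)
    {v : ℚ} (h0 : 0 ≤ v) (h1 : v ≤ 1) {ε : ℝ} (hε : 0 < ε) :
    Negl B I fun n x => pr j n v * B.d n ^ (-ε) ≤
      P.d j n (frA lev f e n 0 x) (frA lev f e n v x) :=
  close_pair (P := P) hC hT le_rfl h0 h1 (M := fun n => pr j n v) (hpr.1 v h0 h1)
    (fun s hs hs1 => hpr.1 s hs (hs1.trans h1)) (fun s hs hs1 δ hδ => by
      have h2 := hpr.pair h0 h1 hs (hs1.trans h1)
      have h3 : (0 : ℝ) ≤ β * ((s : ℝ) - v) := by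
        have : (s : ℝ) ≤ v := by exact_mod_cast hs1
        exact mul_nonneg_of_nonpos_of_nonpos hβ (by linarith)
      filter_upwards [h2.eventually_const_lt (show -δ < _ by linarith), hpr.1 v h0 h1,
        hpr.1 s hs (hs1.trans h1)] with n a b c
      exact le_of_log c b a.le) hε

open Classical in
/-- the flags of slot `j` -/
noncomputable def flA (lev : ℕ → ℚ → ℕ) (f : ℕ → ℚ → ℕ → ℤ → ℕ) (e : ℕ → ℚ → ℕ → φ) (β : ι → ℝ)
    (j : ι) (n : ℕ) (x : ℕ × ℝ) : φ :=
  if 0 < β j then frA lev f e n 1 x else frA lev f e n 0 x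

/-- **Lemma 4 (closeness)**: the flags `flA` are close to the flags of every level, up to the
precision. -/
theorem closeA {β C : ι → ℝ} (hC : ∀ j, 0 ≤ C j)
    (hT : ∀ j, TiltTwoA P B I lev f e pr j (fun u v => C j * (v - u)))
    (hpr : ∀ j, PrLin B pr j (β j)) (j : ι) (v : ℚ) (h0 : 0 ≤ v) (h1 : v ≤ 1) (ε : ℝ)
    (hε : 0 < ε) :
    Negl B I fun n x => pr j n v * B.d n ^ (-ε) ≤
      P.d j n (flA lev f e β j n x) (frA lev f e n v x) := by
  unfold flA
  by_cases hβ : 0 < β j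
  · simp only [hβ, if_true]
    exact close_up (hC j) hβ.le (hT j) (hpr j) h0 h1 hε
  · simp only [hβ, if_false]
    exact close_dn (hC j) (not_lt.1 hβ) (hT j) (hpr j) h0 h1 hε

/-- slots with `β j ≤ 0` have constant flags along a line -/
theorem flA_const {β : ι → ℝ} {j : ι} (hβ : β j ≤ 0)
    (hcell : ∀ᶠ n in (U : Filter ℕ), ∀ x ∈ I n, ∀ y ∈ I n, zc (lev n 0) x.2 = zc (lev n 0) y.2) :
    ∀ᶠ n in (U : Filter ℕ), ∀ x ∈ I n, ∀ y ∈ I n, y.1 = x.1 →
      flA lev f e β j n x = flA lev f e β j n y := by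
  filter_upwards [hcell] with n hn x hx y hy hxy
  unfold flA
  simp only [not_lt.2 hβ, if_false]
  unfold frA
  rw [hxy, hn x hx y hy]

/-- two flags of one line agree up to the precision of level `0`, outside a negligible set -/
theorem line_close {β C : ι → ℝ} (hC : ∀ j, 0 ≤ C j)
    (hT : ∀ j, TiltTwoA P B I lev f e pr j (fun u v => C j * (v - u)))
    (hpr : ∀ j, PrLin B pr j (β j))
    (hcell : ∀ᶠ n in (U : Filter ℕ), ∀ x ∈ I n, ∀ y ∈ I n, zc (lev n 0) x.2 = zc (lev n 0) y.2)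
    (j : ι) (ε : ℝ) (hε : 0 < ε) :
    ∀ᶠ n in (U : Filter ℕ), ∀ x ∈ I n, ∀ y ∈ I n, y.1 = x.1 →
      ¬ (pr j n 0 * B.d n ^ (-ε) ≤ P.d j n (flA lev f e β j n x) (frA lev f e n 0 x)) →
      ¬ (pr j n 0 * B.d n ^ (-ε) ≤ P.d j n (flA lev f e β j n y) (frA lev f e n 0 y)) →
      P.d j n (flA lev f e β j n x) (flA lev f e β j n y) ≤
        2 * P.K * (pr j n 0 * B.d n ^ (-ε)) := by
  filter_upwards [hcell] with n hn x hx y hy hxy h1 h2
  push Not at h1 h2
  have e1 : frA lev f e n 0 x = frA lev f e n 0 y := by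
    unfold frA
    rw [hxy, hn x hx y hy]
  have h3 := P.tri j n (flA lev f e β j n x) (frA lev f e n 0 x) (flA lev f e β j n y)
  rw [P.symm j n (frA lev f e n 0 x)] at h3
  rw [← e1] at h2
  have hK := P.K1
  nlinarith

/-! ### the precision is a monomial in the widths -/

/-- monomial `∏ w_k^(a_k) ρ^(a_0)` in the widths of the marks -/
noncomputable def monoW [Fintype κ] (lev : ℕ → ℚ → ℕ) (w : κ → ℕ → ℚ → ℝ) (a : κ → ℝ) (a₀ : ℝ)
    (n : ℕ) (v : ℚ) : ℝ := (∏ k, w k n v ^ a k) * rho (lev n v) ^ a₀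

theorem rho_pos (i : ℕ) : 0 < rho i := by unfold rho; positivity

theorem log_rho (i : ℕ) : Real.log (rho i) = -((i : ℝ) * Real.log 2) := by
  unfold rho
  rw [one_div, Real.log_inv, Real.log_pow]

theorem log_mono [Fintype κ] {n : ℕ} {v : ℚ} (hw : ∀ k, 0 < w k n v) (a : κ → ℝ) (a₀ : ℝ) :
    Real.log (monoW lev w a a₀ n v) =
      ∑ k, a k * Real.log (w k n v) + a₀ * Real.log (rho (lev n v)) := by
  unfold monoW
  rw [Real.log_mul, Real.log_prod, Real.log_rpow (rho_pos _)]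
  · congr 1
    exact Finset.sum_congr rfl fun k _ => Real.log_rpow (hw k) _
  · intro k _
    exact (Real.rpow_pos_of_pos (hw k) _).ne'
  · exact (Finset.prod_pos fun k _ => Real.rpow_pos_of_pos (hw k) _).ne'
  · exact (Real.rpow_pos_of_pos (rho_pos _) _).ne'

/-- exponent of one width, relative to level `0` -/
theorem tau_zero {θ : κ → ℝ}
    (h : MkA B I G lev A c Λ (fun j v => θ j * (1 - v)) f b vm w) (k : κ) {v : ℚ} (h0 : 0 ≤ v)
    (h1 : v ≤ 1) :
    Tendsto (fun n => (Real.log (w k n 0) - Real.log (w k n v)) / B.L n) U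
      (𝓝 ((1 - θ k) * v)) := by
  have a1 := h.tau k 0 le_rfl zero_le_one
  have a2 := h.tau k v h0 h1
  have a3 := h.lev_lim 0 v le_rfl h0 h1
  have e1 : (1 - θ k) * (v : ℝ) = ((v : ℝ) - (0 : ℚ)) - (θ k * (1 - ((0 : ℚ) : ℝ)) -
      θ k * (1 - (v : ℝ))) := by push_cast; ring
  rw [e1]
  refine (a3.sub (a1.sub a2)).congr' ?_
  filter_upwards [h.wpos k 0 le_rfl zero_le_one, h.wpos k v h0 h1, h.wpos k 1 zero_le_one le_rfl]
    with n b1 b2 b3
  have r0 := rho_pos (lev n 0)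
  have r1 := rho_pos (lev n 1)
  have rv := rho_pos (lev n v)
  rw [Real.log_div (div_pos r0 b1).ne' (div_pos r1 b3).ne',
    Real.log_div (div_pos rv b2).ne' (div_pos r1 b3).ne', Real.log_div r0.ne' b1.ne',
    Real.log_div r1.ne' b3.ne', Real.log_div rv.ne' b2.ne', log_rho, log_rho, log_rho]
  ring

/-- **the precision of a monomial slot is linear**, `β = Σ a_k (1 - θ_k) + a_0` -/
theorem prLin_mono [Fintype κ] {θ : κ → ℝ}
    (h : MkA B I G lev A c Λ (fun j v => θ j * (1 - v)) f b vm w) {a : κ → ℝ} {a₀ : ℝ} {j : ι}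
    (hpr : ∀ n v, pr j n v = monoW lev w a a₀ n v) :
    PrLin B pr j (∑ k, a k * (1 - θ k) + a₀) := by
  have hw : ∀ v : ℚ, 0 ≤ v → v ≤ 1 → ∀ᶠ n in (U : Filter ℕ), ∀ k, 0 < w k n v := fun v h0 h1 =>
    Filter.eventually_all.2 fun k => h.wpos k v h0 h1
  have hp : ∀ v : ℚ, ∀ n, (∀ k, 0 < w k n v) → 0 < monoW lev w a a₀ n v := fun v n hn => by
    unfold monoW
    exact mul_pos (Finset.prod_pos fun k _ => Real.rpow_pos_of_pos (hn k) _)
      (Real.rpow_pos_of_pos (rho_pos _) _)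
  refine ⟨fun v h0 h1 => ?_, fun v h0 h1 => ?_⟩
  · filter_upwards [hw v h0 h1] with n hn
    rw [hpr]; exact hp v n hn
  · have a1 : Tendsto (fun n => ∑ k, a k *
        ((Real.log (w k n 0) - Real.log (w k n v)) / B.L n)) U
        (𝓝 (∑ k, a k * ((1 - θ k) * v))) :=
      tendsto_finsetSum _ fun k _ => (tau_zero h k h0 h1).const_mul (a k)
    have a2 := (h.lev_lim 0 v le_rfl h0 h1).const_mul a₀
    have e1 : (∑ k, a k * (1 - θ k) + a₀) * (v : ℝ) =
        ∑ k, a k * ((1 - θ k) * v) + a₀ * ((v : ℝ) - (0 : ℚ)) := by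
      rw [add_mul, Finset.sum_mul]
      push_cast
      congr 1
      · exact Finset.sum_congr rfl fun k _ => by ring
      · ring
    rw [e1]
    refine (a1.add a2).congr' ?_
    filter_upwards [hw 0 le_rfl zero_le_one, hw v h0 h1] with n b0 bv
    rw [hpr, hpr, Real.log_div (hp 0 n b0).ne' (hp v n bv).ne', log_mono b0, log_mono bv, log_rho,
      log_rho]
    have e2 : ∑ k, a k * ((Real.log (w k n 0) - Real.log (w k n v)) / B.L n) =
        (∑ k, a k * Real.log (w k n 0) - ∑ k, a k * Real.log (w k n v)) / B.L n := by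
      rw [← Finset.sum_sub_distrib, Finset.sum_div]
      exact Finset.sum_congr rfl fun k _ => by ring
    rw [e2]
    ring

end

end Crest.Agent.R136.ArgA163
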