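import Mathlib
import Crest.Agent.R136.ArgA1_163
import Crest.Agent.R136.Slt3_627

/-!
# R136, ArgA (helper163), part 2: J2 = marked sequence with linear widths + tilt ⊢ natural slots

Lemma 4 (`ArgA1_163`) + second zoom (`Slt3_627`): after a zoom every slot is INVISIBLE or TIED with the
rate `β j`.
-/

set_option autoImplicit false
set_option linter.unusedVariables false
set_option linter.unusedSectionVars false

open Finset Filter Topology

namespace Crest.Agent.R136.ArgA163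

open Crest.Agent.R138.Ex926 (Base U)
open Crest.Agent.R138.Dp76 (Dense dpow_pos dpow_add dpow_le dpow_le_one)
open Crest.Agent.R138.Mk163 (zc zl rho alive own Negl)
open Crest.Agent.R136.MkA627
open Crest.Agent.R136.Slt627

variable {σ κ φ ι : Type*} {P : PDist φ ι} {B : Base} {I : ℕ → Finset (ℕ × ℝ)} {G : Geo σ κ}
    {lev : ℕ → ℚ → ℕ} {A : ℕ → ℝ} {f : ℕ → ℚ → ℕ → ℤ → ℕ}
    {b : ℕ → ℚ → ℕ → σ} {vm : ℕ → ℚ → ℝ} {w : κ → ℕ → ℚ → ℝ} {e : ℕ → ℚ → ℕ → φ}
    {pr : ι → ℕ → ℚ → ℝ}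

open Classical in
/-- scale of the slot `j` : precision of level `0` -/
noncomputable def scA (pr : ι → ℕ → ℚ → ℝ) (j : ι) (n : ℕ) : ℝ :=
  if 0 < pr j n 0 then pr j n 0 else 1

theorem scA_pos (j : ι) (n : ℕ) : 0 < scA pr j n := by
  unfold scA
  split_ifs with h
  · exact h
  · exact one_pos

/-- **slots before the second zoom** -/
theorem slotSys_A [Finite ι] {g s : ℝ} {θ : κ → ℝ} {β C : ι → ℝ}
    (hM : MkA B I G lev A (fun v => g * v) (fun v => s * v) (fun j v => θ j * (1 - v)) f b vm w)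
    (hC : ∀ j, 0 ≤ C j) (hT : ∀ j, TiltTwoA P B I lev f e pr j (fun u v => C j * (v - u)))
    (hpr : ∀ j, PrLin B pr j (β j)) :
    ∃ J : ℕ → Finset (ℕ × ℝ), (∀ n, J n ⊆ I n) ∧ Dense B J I ∧
      SlotSys P G g s θ β B J lev A f b vm w e pr (flA lev f e β) (scA pr) ∧
      ∀ j, β j ≤ 0 → Inv P B J j (flA lev f e β j) (scA pr j) := by
  have : Countable ι := Finite.to_countable
  obtain ⟨J, hJI, hJd, hJ⟩ := slotSys_of_negl (P := P) (e := e) (pr := pr) (β := β)
    (fl := flA lev f e β) (sc := scA pr) hM (fun j n => scA_pos j n) (fun j => (hpr j).1)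
    (fun j v h0 h1 => by
      refine ((hpr j).2 v h0 h1).congr' ?_
      filter_upwards [(hpr j).1 0 le_rfl zero_le_one] with n hn
      simp only [scA, hn, if_true])
    (fun j v h0 h1 ε hε => closeA hC hT hpr j v h0 h1 ε hε)
  refine ⟨J, hJI, hJd, hJ, fun j hj M => ?_⟩
  filter_upwards [flA_const (f := f) (e := e) hj hJ.mka.cell0] with n hn x hx y hy hxy
  rw [hn x hx y hy hxy, P.self]
  exact mul_nonneg (scA_pos j n).le (dpow_pos B n M).le

/-- **J2**: after a zoom every slot is invisible or tied with rate `β j`. -/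
theorem exists_J2 [Countable κ] [Finite ι] {g s : ℝ} {θ : κ → ℝ} {β C C0 : ι → ℝ}
    (hM : MkA B I G lev A (fun v => g * v) (fun v => s * v) (fun j v => θ j * (1 - v)) f b vm w)
    (hC : ∀ j, 0 ≤ C j) (hT : ∀ j, TiltTwoA P B I lev f e pr j (fun u v => C j * (v - u)))
    (hpr : ∀ j, PrLin B pr j (β j)) (hC0 : ∀ j, β j ≤ C0 j) :
    NatOut P G g s θ β C0 (flA lev f e β) B I lev f b vm w e pr := by
  obtain ⟨J, hJI, hJd, hJ, hinv⟩ := slotSys_A hM hC hT hpr
  have h1 := hJ.exists_nat (C0 := C0) (fun j => by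
    rcases le_or_gt (β j) 0 with h | h
    · exact Or.inl (hinv j h)
    · exact Or.inr h) hC0
  exact NatOut.comp (H1 := fun _ => 1) (m1 := fun _ x => x) (fun n => ⟨one_pos, le_rfl⟩)
    (fun n x h0 h1 => ⟨h0, h1⟩) (fun n x y => by simp) (fun n => by simp)
    (Eventually.of_forall hJI) h1

end Crest.Agent.R136.ArgA163
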