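import Crest.Agent.R136.Asm1_102

/-!
# R136 (S0187), U5: finite lemmas for the last assembly of the tilt block II (helper102)

`agree_tiny` : `Agree` at a tiny scale.
-/

set_option autoImplicit false

namespace Crest.Agent.R136.Tl102

open Crest.Agent.R136.Sh605
open Crest.Agent.R136.K4 (Plk4)
open Crest.Agent.R136.Deep51 (CoinC CloseC dt_exp)
open Crest.Agent.R136.Tlt51 (CompC Agree Shp InP)

/-- crude bound of the function of a sheet -/
theorem grow {R : Plk4} {T : Ln4} {z0 ρ r : ℝ} (hr : 0 < r) (hρ : 0 < ρ) (hR : Shp R z0 ρ r)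
    (hT : InP T R z0 ρ) {z : ℝ} (hz0 : z0 ≤ z) (hz1 : z ≤ z0 + ρ) {P : V3} {m : ℝ}
    (hm : ∀ k, |dt (R.e k) (P - T.pos z)| ≤ m) :
    |R.q z P| ≤ R.a + 48 * R.w 0 + 48 * (m ^ 2 / R.w 0) := by
  have hw0 : 0 < R.w 0 := hr.trans_le (hR.r0_le.trans hR.a_le0)
  have S := StP.of_shN hR hw0
  obtain ⟨ζ, hζ, hζ', rfl⟩ := height_exists hρ hz0 hz1
  obtain ⟨d0, d1, H, hE⟩ := exists_isExp S.isQ R.e hw0.ne' T z0 ρ
  have N := hE.nrmC S hρ.le (fun z h1 h2 => (hT z h1 h2).1)
  obtain ⟨g1, g2, -, -, g5, g6, g7, -, -⟩ := N.b1_le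
  obtain ⟨m1, m2, m3, m4, m5, m6⟩ := N.G_le
  have hwne : ∀ i, R.w i ≠ 0 := fun i => (S.pos i).ne'
  have hm0 : 0 ≤ m := (abs_nonneg _).trans (hm 0)
  have h1 := hE ζ (pv R.e R.w (P - T.pos (z0 + ρ * ζ)))
  rw [cmb_pv S.ortho hwne, add_sub_cancel] at h1
  set X : ℝ := 1 + m / R.w 0 with hX
  have hX1 : 1 ≤ X := by
    have : 0 ≤ m / R.w 0 := div_nonneg hm0 hw0.le
    rw [hX]; linarith
  have hwk : ∀ k, R.w 0 ≤ R.w k := by
    intro k; fin_cases k
    · exact le_rfl
    · exact hR.w0_le.trans hR.w_le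
    · exact hR.w0_le
  have hx : ∀ k, |pv R.e R.w (P - T.pos (z0 + ρ * ζ)) k| ≤ X := by
    intro k
    change |dt (R.e k) (P - T.pos (z0 + ρ * ζ)) / R.w k| ≤ X
    rw [abs_div, abs_of_pos (S.pos k)]
    have h2 : |dt (R.e k) (P - T.pos (z0 + ρ * ζ))| / R.w k ≤ m / R.w 0 :=
      div_le_div₀ hm0 (hm k) hw0 (hwk k)
    rw [hX]; linarith
  have hF := Fq_le (X := 2) (l0 := d0) (l1 := d1) (M := H) (R := X) (ζ := ζ)
    (by
      intro k; fin_cases k
      · change |d0 0| ≤ 2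
        rw [abs_le]; constructor <;> linarith
      · exact N.b01.trans (by norm_num)
      · exact N.b02.trans (by norm_num))
    (by
      intro k; fin_cases k
      · exact g5.trans (by norm_num)
      · exact g6
      · exact g7)
    ⟨m1.trans (by norm_num), m2.trans (by norm_num), m3.trans (by norm_num),
      m4.trans (by norm_num), m5.trans (by norm_num), m6.trans (by norm_num)⟩
    (abs_le.2 ⟨by linarith, hζ'⟩) hx hX1
  rw [h1]
  have hTa := (hT _ hz0 hz1).2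
  refine (Arc880.abs_add2 hTa (mul_abs_le (le_of_eq (abs_of_pos hw0)) hF)).trans ?_
  have e1 : R.w 0 * (12 * X ^ 2 * 2) ≤ 48 * R.w 0 + 48 * (m ^ 2 / R.w 0) := by
    have h3 : X ^ 2 ≤ 2 * (1 + (m / R.w 0) ^ 2) := by
      rw [hX]; nlinarith [sq_nonneg (1 - m / R.w 0)]
    have e2 : R.w 0 * (m / R.w 0) ^ 2 = m ^ 2 / R.w 0 := by field_simp
    calc R.w 0 * (12 * X ^ 2 * 2) = 24 * (R.w 0 * X ^ 2) := by ring
      _ ≤ 24 * (R.w 0 * (2 * (1 + (m / R.w 0) ^ 2))) := by gcongr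
      _ = 48 * R.w 0 + 48 * (R.w 0 * (m / R.w 0) ^ 2) := by ring
      _ = _ := by rw [e2]
  linarith

/-- sum of the offsets in another frame -/
theorem dt_sum {e e' : Fin 3 → V3} (he : Ortho e) (he' : Ortho e') (i : Fin 3) (V : V3) {m : ℝ}
    (h : ∀ k, |dt (e' k) V| ≤ m) : |dt (e i) V| ≤ 3 * m := by
  rw [dt_exp he' (e i) V]
  refine (Arc880.abs_add2 (Arc880.abs_add2 (mul_abs_le (dt_le_one he he' i 0) (h 0))
    (mul_abs_le (dt_le_one he he' i 1) (h 1))) (mul_abs_le (dt_le_one he he' i 2) (h 2))).trans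
    (le_of_eq (by ring))

/-- **`Agree` at a tiny scale** -/
theorem agree_tiny {S S' : Plk4} {T : Ln4} {z0 ρ r B lam s A E : ℝ} (hr : 0 < r) (hρ : 0 < ρ)
    (hB : 1 ≤ B) (hlam : 1 ≤ lam) (hS : Shp S z0 ρ r) (hS' : Shp S' z0 ρ r)
    (hC : CompC B lam S S') (hT : InP T S z0 ρ) (hT' : InP T S' z0 ρ) (hs : 0 < s) (hs1 : s ≤ 1)
    (h6 : 6 * (s * S.w 1) ≤ S.a + S'.a) (hw0 : 10 * (S.a + S'.a) ≤ S.w 0)
    (hA : 21 * (S.a + S'.a) ≤ A) (hE : 12 * B ^ 3 * (S.a + S'.a) / s ^ 2 ≤ E) :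
    Agree A E s lam S S' T z0 ρ := by
  have ha : 0 < S.a := hr.trans_le hS.r0_le
  have ha' : 0 < S'.a := hr.trans_le hS'.r0_le
  have hw0p : 0 < S.w 0 := ha.trans_le hS.a_le0
  have hw0p' : 0 < S'.w 0 := ha'.trans_le hS'.a_le0
  have hw2p : 0 < S.w 2 := hw0p.trans_le hS.w0_le
  have hw1p : 0 < S.w 1 := hw2p.trans_le hS.w_le
  have hw2p' : 0 < S'.w 2 := hw0p'.trans_le hS'.w0_le
  have hw1p' : 0 < S'.w 1 := hw2p'.trans_le hS'.w_le
  have P1 := StP.of_shN hS hw0p
  have P2 := StP.of_shN hS' hw0p'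
  set b := S.a + S'.a with hb
  have hb0 : 0 < b := by positivity
  -- `w 1` from `s`
  have hw1 : S.w 1 ≤ b / s := by
    rw [le_div_iff₀ hs]
    have := mul_pos hs hw1p
    linarith
  have hs2 : 0 < s ^ 2 := by positivity
  have hbs : b ≤ b / s ^ 2 := by
    rw [le_div_iff₀ hs2]
    have : s ^ 2 ≤ 1 := pow_le_one₀ hs.le hs1
    exact mul_le_of_le_one_right hb0.le this
  have hbs1 : b / s ≤ b / s ^ 2 := by
    rw [div_le_div_iff₀ hs hs2]
    have : s ^ 2 ≤ s := by nlinarith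
    exact mul_le_mul_of_nonneg_left this hb0.le
  have hB3 : 1 ≤ B ^ 3 := one_le_pow₀ hB
  have hB13 : B ≤ B ^ 3 := by
    calc B = B ^ 1 := (pow_one B).symm
      _ ≤ B ^ 3 := pow_le_pow_right₀ hB (by norm_num)
  have hcube : ∀ x : ℝ, 0 ≤ x → x ≤ B ^ 3 * x := fun x hx => le_mul_of_one_le_left hx hB3
  refine ⟨?_, ?_, ?_⟩
  · intro z hz0 hz1 x hx hq h1 h2
    have hxd : InK S'.e S'.c (dbl3 S'.w) z x := fun i => (hx i).trans (by
      change _ ≤ 2 * S'.w i
      have := P2.pos i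
      linarith)
    have hTd : InK S'.e S'.c (dbl3 S'.w) z (T.pos z) := fun i => ((hT' z hz0 hz1).1 i).trans (by
      change _ ≤ 2 * S'.w i
      have := P2.pos i
      linarith)
    have hp := (P2.path hz0 hz1 hTd hxd).2
    have hTq := (hT' z hz0 hz1).2
    have hsw1 : s / lam * S.w 1 ≤ s * S.w 1 :=
      mul_le_mul_of_nonneg_right (div_le_self hs.le hlam) hw1p.le
    have hsw2 : s * S.w 2 ≤ s * S.w 1 := mul_le_mul_of_nonneg_left hS.w_le hs.le
    have k1 : S'.w 0 / S'.w 1 * |dt (S'.e 1) (x - T.pos z)| ≤ 1 * (s * S.w 1) := by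
      apply mul_le_mul _ (h1.trans hsw1) (abs_nonneg _) zero_le_one
      rw [div_le_one hw1p']; exact hS'.w0_le.trans hS'.w_le
    have k2 : S'.w 0 / S'.w 2 * |dt (S'.e 2) (x - T.pos z)| ≤ 1 * (s * S.w 1) := by
      apply mul_le_mul _ (h2.trans hsw2) (abs_nonneg _) zero_le_one
      rw [div_le_one hw2p']; exact hS'.w0_le
    have k3 : |S'.q z x - S'.q z (T.pos z)| ≤ 2 * S'.a := (Arc880.abs_sub2 hq hTq).trans (by linarith)
    have k0 : |dt (S'.e 0) (x - T.pos z)| ≤ 4 * S'.a + 4 * (s * S.w 1) := by linarith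
    have hoff : ∀ k, |dt (S.e k) (x - T.pos z)| ≤ 5 * b := by
      intro k
      rw [dt_exp hS'.ortho (S.e k) (x - T.pos z)]
      refine (Arc880.abs_add2 (Arc880.abs_add2
        (mul_abs_le (dt_le_one hS.ortho hS'.ortho k 0) k0)
        (mul_abs_le (dt_le_one hS.ortho hS'.ortho k 1) (h1.trans hsw1)))
        (mul_abs_le (dt_le_one hS.ortho hS'.ortho k 2) (h2.trans hsw2))).trans ?_
      linarith
    have hwk : ∀ k, S.w 0 ≤ S.w k := by
      intro k; fin_cases k
      · exact le_rfl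
      · exact hS.w0_le.trans hS.w_le
      · exact hS.w0_le
    have hxD : InK S.e S.c (dbl3 S.w) z x := by
      intro k
      have e1 : dt (S.e k) (x - S.c.pos z) = dt (S.e k) (x - T.pos z) +
          dt (S.e k) (T.pos z - S.c.pos z) := by
        rw [dt_sub, dt_sub, dt_sub]; ring
      rw [e1]
      refine (abs_add_le _ _).trans ?_
      have k4 := (hT z hz0 hz1).1 k
      have k5 := hoff k
      have k6 := hwk k
      change _ ≤ 2 * S.w k
      linarith
    have hTD : InK S.e S.c (dbl3 S.w) z (T.pos z) := fun i => ((hT z hz0 hz1).1 i).trans (by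
      change _ ≤ 2 * S.w i
      have := P1.pos i
      linarith)
    have hv := (P1.path hz0 hz1 hTD hxD).1
    have hTa := (hT z hz0 hz1).2
    have r1 : S.w 0 / S.w 1 * |dt (S.e 1) (x - T.pos z)| ≤ 1 * (5 * b) := by
      apply mul_le_mul _ (hoff 1) (abs_nonneg _) zero_le_one
      rw [div_le_one hw1p]; exact hS.w0_le.trans hS.w_le
    have r2 : S.w 0 / S.w 2 * |dt (S.e 2) (x - T.pos z)| ≤ 1 * (5 * b) := by
      apply mul_le_mul _ (hoff 2) (abs_nonneg _) zero_le_one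
      rw [div_le_one hw2p]; exact hS.w0_le
    have r0 := hoff 0
    refine ⟨by linarith, ?_⟩
    have h5 : |S.q z x| ≤ |S.q z (T.pos z)| + |S.q z x - S.q z (T.pos z)| := by
      have := abs_add_le (S.q z (T.pos z)) (S.q z x - S.q z (T.pos z))
      rwa [add_sub_cancel] at this
    linarith
  · intro z hz0 hz1 x hx hq
    have hm : ∀ k, |dt (S.e k) (x - T.pos z)| ≤ S.w 1 / 8 := by
      intro k
      have := hx k
      beta_reduce at this
      refine this.trans ?_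
      fin_cases k
      · have := hS.w0_le.trans hS.w_le
        change S.w 0 / 8 ≤ _
        linarith
      · exact le_rfl
      · have := hS.w_le
        change S.w 2 / 8 ≤ _
        linarith
    have hm' : ∀ k, |dt (S'.e k) (x - T.pos z)| ≤ S.w 1 := fun k =>
      (dt_sum hS'.ortho hS.ortho k _ hm).trans (by linarith)
    have hg := grow hr hρ hS' hT' hz0 hz1 hm'
    refine (hg.trans ?_).trans hE
    have k1 : S'.w 0 ≤ B * (b / s / 6) := by
      have h3 : S.w 1 ≤ b / s / 6 := by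
        rw [div_div, le_div_iff₀ (by positivity)]; linarith
      calc S'.w 0 ≤ S'.w 1 := hS'.w0_le.trans hS'.w_le
        _ ≤ B * S.w 1 := (hC.w 1 (by decide)).2
        _ ≤ _ := mul_le_mul_of_nonneg_left h3 (by linarith)
    have k2 : S.w 1 ^ 2 / S'.w 0 ≤ 2 * B * b / s ^ 2 / 36 := by
      have h3 : S.w 1 ^ 2 ≤ (b / s / 6) ^ 2 := by
        apply pow_le_pow_left₀ hw1p.le
        rw [div_div, le_div_iff₀ (by positivity)]; linarith
      have h4 : b ≤ 2 * B * S'.w 0 := by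
        have h5 := hC.a.1
        have h6 : S'.a ≤ B * S'.a := le_mul_of_one_le_left ha'.le hB
        have h7 : B * S'.a ≤ B * S'.w 0 := mul_le_mul_of_nonneg_left hS'.a_le0 (by linarith)
        rw [hb]; linarith
      rw [div_le_iff₀ hw0p']
      refine h3.trans ?_
      have e1 : (b / s / 6) ^ 2 = b / s ^ 2 / 36 * b := by field_simp; ring
      have e2 : 2 * B * b / s ^ 2 / 36 * S'.w 0 = b / s ^ 2 / 36 * (2 * B * S'.w 0) := by ring
      rw [e1, e2]
      exact mul_le_mul_of_nonneg_left h4 (by positivity)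
    have k3 : B * (b / s) ≤ B * (b / s ^ 2) := mul_le_mul_of_nonneg_left hbs1 (by linarith)
    have k4 : B * (b / s ^ 2) ≤ B ^ 3 * (b / s ^ 2) :=
      mul_le_mul_of_nonneg_right hB13 (by positivity)
    have k5 : S'.a ≤ B ^ 3 * (b / s ^ 2) := by
      have := hcube _ (by positivity : 0 ≤ b / s ^ 2)
      rw [hb] at hbs ⊢
      linarith
    have e3 : 12 * B ^ 3 * b / s ^ 2 = 12 * (B ^ 3 * (b / s ^ 2)) := by ring
    have e4 : 2 * B * b / s ^ 2 / 36 = B * (b / s ^ 2) / 18 := by ring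
    have e5 : B * (b / s / 6) = B * (b / s) / 6 := by ring
    rw [e3]
    rw [e4] at k2
    rw [e5] at k1
    have k6 : 0 ≤ B ^ 3 * (b / s ^ 2) := by positivity
    linarith
  · intro z hz0 hz1 x hx hq
    have hm : ∀ k, |dt (S'.e k) (x - T.pos z)| ≤ S'.w 1 / 8 := by
      intro k
      have := hx k
      beta_reduce at this
      refine this.trans ?_
      fin_cases k
      · have := hS'.w0_le.trans hS'.w_le
        change S'.w 0 / 8 ≤ _
        linarith
      · exact le_rfl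
      · have := hS'.w_le
        change S'.w 2 / 8 ≤ _
        linarith
    have hm' : ∀ k, |dt (S.e k) (x - T.pos z)| ≤ B * S.w 1 := fun k => by
      have h3 := dt_sum hS.ortho hS'.ortho k _ hm
      have h4 := (hC.w 1 (by decide)).2
      linarith
    have hg := grow hr hρ hS hT hz0 hz1 hm'
    refine (hg.trans ?_).trans hE
    have h3 : S.w 1 ≤ b / s / 6 := by
      rw [div_div, le_div_iff₀ (by positivity)]; linarith
    have k1 : S.w 0 ≤ b / s / 6 := (hS.w0_le.trans hS.w_le).trans h3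
    have k2 : (B * S.w 1) ^ 2 / S.w 0 ≤ 2 * B ^ 3 * b / s ^ 2 / 36 := by
      have h4 : (B * S.w 1) ^ 2 ≤ (B * (b / s / 6)) ^ 2 := by
        apply pow_le_pow_left₀ (by positivity)
        exact mul_le_mul_of_nonneg_left h3 (by linarith)
      have h5 : b ≤ 2 * B * S.w 0 := by
        have h5 := hC.a.2
        have h6 : S.a ≤ B * S.a := le_mul_of_one_le_left ha.le hB
        have h7 : B * S.a ≤ B * S.w 0 := mul_le_mul_of_nonneg_left hS.a_le0 (by linarith)
        rw [hb]; linarith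
      rw [div_le_iff₀ hw0p]
      refine h4.trans ?_
      have e1 : (B * (b / s / 6)) ^ 2 = B ^ 2 * (b / s ^ 2 / 36) * b := by field_simp; ring
      have e2 : 2 * B ^ 3 * b / s ^ 2 / 36 * S.w 0 = B ^ 2 * (b / s ^ 2 / 36) * (2 * B * S.w 0) := by
        ring
      rw [e1, e2]
      exact mul_le_mul_of_nonneg_left h5 (by positivity)
    have k4 := hcube _ (by positivity : 0 ≤ b / s ^ 2)
    have k5 : S.a ≤ B ^ 3 * (b / s ^ 2) := by
      rw [hb] at hbs k4 ⊢
      linarith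
    have e3 : 12 * B ^ 3 * b / s ^ 2 = 12 * (B ^ 3 * (b / s ^ 2)) := by ring
    have e4 : 2 * B ^ 3 * b / s ^ 2 / 36 = B ^ 3 * (b / s ^ 2) / 18 := by ring
    rw [e3]
    rw [e4] at k2
    have k6 : 0 ≤ B ^ 3 * (b / s ^ 2) := by positivity
    linarith

end Crest.Agent.R136.Tl102
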