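import Crest.Agent.R136.Fl5_808

/-!
# R136 (S0187): flat tilt, the two finite theorems (helper808)

* `flat_deep` : base tilt, counting at two deeper levels.
* `flat_step` : thickness tilt, one-step count over the cells of length `ρ / λ`.
-/

set_option autoImplicit false
set_option linter.unusedVariables false
set_option linter.unusedSectionVars false

namespace Crest.Agent.R136.Fl808

open Finset Crest.Agent.R136.Sh605
open Crest.Agent.R138.Mk163 (zl rho)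
open Crest.Agent.R136.Deep51 (card_fib card_le_of_fib classes_le)

section

variable {α β : Type*} {O P P' : Finset (ℕ × ℤ)} {L : ℕ → Ln4} {i : ℕ} {f : ℕ × ℤ → α}
  {g : ℕ × ℤ → β} {bf : α → Ln4} {ef : α → Fin 3 → V3} {bg : β → Ln4} {eg : β → Fin 3 → V3}
  {a w1 w2 A1 A2 q0 q1 q2 r0 R0 R0' R2 R2' Ra Ra' D D' δ0 ω1 ω2 ω1' ω2' : ℝ}

open Classical in
/-- a set of deep objects of one cell which all lie in one box -/
theorem card_in_box {m : ℕ} {c : ℤ} (hd : DMaxP P L m D q0 q1 q2 r0 ω1 ω2 R0 R2 Ra) {n : Fin 3 → V3}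
    (hn : Ortho n) {l : Ln4} {a' w1' w2' : ℝ} (h0 : r0 ≤ a') (h1 : a' ≤ w2') (h2 : w2' ≤ w1')
    (hω1 : ω1 ≤ w1') (hω2 : ω2 ≤ w2') (h3 : w1' ≤ R0) (h4 : w2' ≤ R2) (h5 : a' ≤ Ra)
    (Z : Finset (ℕ × ℤ))
    (hZ : ∀ z ∈ Z, ∃ c' : ℤ, (z.1, c) ∈ P ∧ z.2 = c' ∧
      InB (L z.1) l n ![a', w1', w2'] (zl m c) (rho m))
    (hinj : ∀ z ∈ Z, ∀ z' ∈ Z, z.1 = z'.1 → z = z') :
    (Z.card : ℝ) ≤ D * capB q0 q1 q2 a' w1' w2' := by
  refine le_trans ?_ (hd c n l a' w1' w2' hn h0 h1 h2 hω1 hω2 h3 h4 h5)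
  norm_cast
  have e1 : Z.card = (Z.image Prod.fst).card := (card_image_of_injOn fun z hz z' hz' h =>
    hinj z (mem_coe.1 hz) z' (mem_coe.1 hz') h).symm
  rw [e1]
  refine card_le_card ?_
  intro t ht
  obtain ⟨z, hz, rfl⟩ := mem_image.1 ht
  obtain ⟨c', hz1, -, hz2⟩ := hZ z hz
  rw [mem_filter]
  exact ⟨mem_image.2 ⟨(z.1, c), mem_filter.2 ⟨hz1, rfl⟩, rfl⟩, hz2⟩

open Classical in
/-- number of classes -/
theorem FSys.num' {γ : Type*} {F : ℕ × ℤ → γ} {bF : γ → Ln4} {eF : γ → Fin 3 → V3} {A : ℝ}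
    (hF : FSys O L i F bF eF a w1 w2 A) (hA : 0 < A) :
    ((O.image F).card : ℝ) ≤ (O.card : ℝ) / A := by
  rw [le_div_iff₀ hA]
  exact hF.num

/-- the box of a label -/
theorem lab_box {γ : Type*} {F : ℕ × ℤ → γ} {bF : γ → Ln4} {eF : γ → Fin 3 → V3} {A s1 s2 : ℝ}
    {k : ℕ} (hF : FSys O L i F bF eF a w1 w2 A) (hP : ∀ x ∈ P, par k x ∈ O) (hs1 : 0 < s1)
    (hs2 : 0 < s2) (h1 : w1 ≤ 2 ^ k * s1) (h2 : w2 ≤ 2 ^ k * s2) {x y : ℕ × ℤ} (hx : x ∈ P)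
    (hy : y ∈ P) (hxy : lab L i k F bF eF s1 s2 y = lab L i k F bF eF s1 s2 x) :
    y.2 = x.2 ∧ F (par k y) = F (par k x) ∧
      InB (L y.1) (L x.1) (eF (F (par k x))) ![2 * a, 5 * s1, 5 * s2] (zl (i + k) x.2)
        (rho (i + k)) := by
  have e1 : F (par k y) = F (par k x) := congrArg Prod.fst hxy
  have e2 : y.2 = x.2 := congrArg (fun p => p.2.1) hxy
  have e3 : gl (eF (F (par k y))) (bF (F (par k y))) (zl (i + k) y.2) s1 s2 (L y.1) =
      gl (eF (F (par k x))) (bF (F (par k x))) (zl (i + k) x.2) s1 s2 (L x.1) :=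
    congrArg (fun p => p.2.2) hxy
  have m1 := hF.mem _ (hP x hx)
  have m2 := hF.mem _ (hP y hy)
  rw [e1, e2] at e3
  rw [e1] at m2
  have e4 : (par k y).2 = (par k x).2 := by simp only [par, e2]
  rw [e4] at m2
  refine ⟨e2, e1, ?_⟩
  have hz := zl_par_le i k x.2
  have hz' := zl_par_ge i k x.2
  have hρi := rho_add i k
  have hρp := rho_pos (i + k)
  refine grid_box (z0 := zl i (par k x).2) (ρ := rho i) (rho_pos i) hρp.le hs1 hs2 hz hz' ?_ ?_ m2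
    m1 e3
  · rw [← hρi]
    calc rho (i + k) * w1 ≤ rho (i + k) * (2 ^ k * s1) := by gcongr
      _ = _ := by ring
  · rw [← hρi]
    calc rho (i + k) * w2 ≤ rho (i + k) * (2 ^ k * s2) := by gcongr
      _ = _ := by ring

/-- two lines of the same two boxes which are close at one height stay in one box over a longer
cell -/
theorem Tl.mid {e e' : Fin 3 → V3} {lam alp s1 s2 : ℝ} (h : Tl e e' a w1 w2 lam alp)
    (he : Ortho e) (he' : Ortho e') (ha : 0 < a) (haw : a ≤ w2) (hw : w2 ≤ w1) (hlam : 0 < lam)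
    (hs1 : 0 < s1) (hs2 : 0 < s2) {x y l l' : Ln4} {z0 ρ z' ρ' ζ ρ'' : ℝ}
    (m1 : InB x l e ![a, w1, w2] z0 ρ) (m2 : InB y l e ![a, w1, w2] z0 ρ)
    (m3 : InB x l' e' ![a, w1, w2] z0 ρ) (m4 : InB y l' e' ![a, w1, w2] z0 ρ)
    (hs : InB y x e ![2 * a, 5 * s1, 5 * s2] ζ ρ'') (hρ'' : 0 ≤ ρ'') (hρ : 0 < ρ)
    (hζ : z' ≤ ζ) (hζ' : ζ ≤ z' + ρ') (hz : z0 ≤ z') (hz' : z' + ρ' ≤ z0 + ρ)
    (b1 : 12 * w1 * ρ' ≤ s1 * lam * ρ) (b2 : 4 * w2 * ρ' ≤ s2 * ρ) :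
    InB y x e ![124 * a, 124 * s1, 124 * s2] z' ρ' := by
  have hw2 : 0 < w2 := ha.trans_le haw
  have hw1 : 0 < w1 := hw2.trans_le hw
  have hv1 : |dt (e 1) (y.v - x.v)| * ρ ≤ 2 * (12 * w1 / lam) :=
    vel_le hρ fun z hz hz' => h.short he he' ha haw hw hlam m2 m1 m4 m3 hz hz'
  have hv2 : |dt (e 2) (y.v - x.v)| * ρ ≤ 2 * (2 * w2) :=
    vel_le hρ fun z hz hz' => by
      have := diff_box m2 m1 z hz hz' 2
      simpa using this
  have hst1 := hs ζ le_rfl (by linarith) 1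
  have hst2 := hs ζ le_rfl (by linarith) 2
  simp only [Matrix.cons_val_zero, Matrix.cons_val_one, Matrix.cons_val] at hst1 hst2
  have hρ' : 0 ≤ ρ' := by linarith
  intro z hz1 hz1' idx
  have hzz : |z - ζ| ≤ ρ' := by
    rw [abs_le]; constructor <;> linarith
  fin_cases idx
  · have := diff_box m2 m1 z (by linarith) (by linarith) 0
    simp only [Fin.zero_eta, Matrix.cons_val_zero] at this ⊢
    linarith
  · have h3 : |dt (e 1) (y.v - x.v)| * |z - ζ| ≤ 2 * s1 := by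
      have h4 : |dt (e 1) (y.v - x.v)| * |z - ζ| * ρ ≤ 2 * s1 * ρ := by
        calc |dt (e 1) (y.v - x.v)| * |z - ζ| * ρ ≤ |dt (e 1) (y.v - x.v)| * ρ' * ρ := by gcongr
          _ = |dt (e 1) (y.v - x.v)| * ρ * ρ' := by ring
          _ ≤ 2 * (12 * w1 / lam) * ρ' := by gcongr
          _ = 2 * (12 * w1 * ρ') / lam := by ring
          _ ≤ 2 * (s1 * lam * ρ) / lam := by gcongr
          _ = 2 * s1 * ρ := by field_simp
      exact le_of_mul_le_mul_right h4 hρ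
    have := stay hst1 h3
    simp only [Fin.mk_one, Matrix.cons_val_one, Matrix.cons_val_zero]
    linarith
  · have h3 : |dt (e 2) (y.v - x.v)| * |z - ζ| ≤ s2 := by
      have h4 : |dt (e 2) (y.v - x.v)| * |z - ζ| * ρ ≤ s2 * ρ := by
        calc |dt (e 2) (y.v - x.v)| * |z - ζ| * ρ ≤ |dt (e 2) (y.v - x.v)| * ρ' * ρ := by gcongr
          _ = |dt (e 2) (y.v - x.v)| * ρ * ρ' := by ring
          _ ≤ 2 * (2 * w2) * ρ' := by gcongr
          _ = 4 * w2 * ρ' := by ring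
          _ ≤ s2 * ρ := b2
      exact le_of_mul_le_mul_right h4 hρ
    have := stay hst2 h3
    simp only [Fin.reduceFinMk, Matrix.cons_val]
    linarith

theorem div_div_pow (c : ℤ) (k' j : ℕ) : c / 2 ^ (k' + j) = (c / 2 ^ j) / 2 ^ k' := by
  rw [Int.ediv_ediv_of_nonneg (by positivity), ← pow_add, add_comm]

variable {j k' k : ℕ} {s1 s2 : ℝ}

/-- the parameters of the deep count -/
structure DPar (a w1 w2 s1 s2 : ℝ) (j k' k : ℕ) : Prop where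
  ha : 0 < a
  haw : a ≤ w2
  hw : w2 ≤ w1
  hk : k = k' + j
  hs1 : s1 = 16 * (w1 / 2 ^ k)
  hs2 : s2 = 8 * (w2 / 2 ^ k')
  hlw : (2:ℝ) ^ j * w2 ≤ 2 * w1
  hleg : a * 2 ^ k' ≤ 8 * w2

namespace DPar

variable (H : DPar a w1 w2 s1 s2 j k' k)
include H

theorem w2p : 0 < w2 := H.ha.trans_le H.haw
theorem w1p : 0 < w1 := H.w2p.trans_le H.hw
theorem s1p : 0 < s1 := by rw [H.hs1]; have := H.w1p; positivity
theorem s2p : 0 < s2 := by rw [H.hs2]; have := H.w2p; positivity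
theorem pw : (2:ℝ) ^ k = 2 ^ k' * 2 ^ j := by rw [H.hk, pow_add]
theorem as : a ≤ s2 := by
  rw [H.hs2, ← mul_div_assoc, le_div_iff₀ (by positivity)]; exact H.hleg
theorem ss : s2 ≤ s1 := by
  rw [H.hs1, H.hs2, H.pw]
  have : 8 * (w2 / 2 ^ k') = 8 * (2 ^ j * w2) / (2 ^ k' * 2 ^ j) := by field_simp
  rw [this, ← mul_div_assoc]
  exact div_le_div_of_nonneg_right (by linarith [H.hlw]) (by positivity)
theorem s1' : s1 = 16 * (1 / 2 ^ k * w1) := by rw [H.hs1]; ring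
theorem s2' : s2 = 8 * (1 / 2 ^ k * 2 ^ j * w2) := by rw [H.hs2, H.pw]; field_simp
theorem k1 : w1 ≤ 2 ^ k * s1 := by
  have : 2 ^ k * s1 = 16 * w1 := by rw [H.hs1]; field_simp
  linarith [H.w1p]
theorem k2 : w2 ≤ 2 ^ k * s2 := by
  have e : 2 ^ k * s2 = 8 * 2 ^ j * w2 := by rw [H.hs2, H.pw]; field_simp
  have h4 : (1:ℝ) ≤ 2 ^ j := one_le_pow₀ (by norm_num)
  rw [e]
  nlinarith [H.w2p]
theorem nb : (2 * (w1 / s1) + 2) * (2 * (w2 / s2) + 2) ≤ 9 * (2 ^ k * 2 ^ k') := by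
  have h1 := H.w1p
  have h2 := H.w2p
  have e1 : 2 * (w1 / s1) + 2 ≤ 3 * 2 ^ k := by
    have : w1 / s1 = 2 ^ k / 16 := by rw [H.hs1]; field_simp
    rw [this]
    have : (1:ℝ) ≤ 2 ^ k := one_le_pow₀ (by norm_num)
    linarith
  have e2 : 2 * (w2 / s2) + 2 ≤ 3 * 2 ^ k' := by
    have : w2 / s2 = 2 ^ k' / 8 := by rw [H.hs2]; field_simp
    rw [this]
    have : (1:ℝ) ≤ 2 ^ k' := one_le_pow₀ (by norm_num)
    linarith
  have h3 := H.s1p
  have h4 := H.s2p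
  calc (2 * (w1 / s1) + 2) * (2 * (w2 / s2) + 2) ≤ (3 * 2 ^ k) * (3 * 2 ^ k') := by gcongr
    _ = _ := by ring
theorem np : 0 < (2 * (w1 / s1) + 2) * (2 * (w2 / s2) + 2) := by
  have h1 := H.w1p
  have h2 := H.w2p
  have h3 := H.s1p
  have h4 := H.s2p
  positivity

end DPar

open Classical in
/-- captured lines -/
theorem deep_cap (H : DPar a w1 w2 s1 s2 j k' k) (h1 : FSys O L i f bf ef a w1 w2 A1)
    (h2 : FSys O L i g bg eg a w1 w2 A2) (hPO : ∀ x ∈ P, par k x ∈ O)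
    (hPP : ∀ x ∈ P, par j x ∈ P') (hd' : DMaxP P' L (i + k') D' q0 q1 q2 r0 ω1' ω2' R0' R2' Ra')
    (hr0 : r0 ≤ a) (hR' : 124 * s1 ≤ R0') (hS' : 124 * s2 ≤ R2')
    (hQ' : 124 * a ≤ Ra') (hω1' : ω1' ≤ 124 * s1) (hω2' : ω2' ≤ 124 * s2) {x : ℕ × ℤ} (hx : x ∈ P)
    (hT : Tl (ef (f (par k x))) (eg (g (par k x))) a w1 w2 (2 ^ j) (1 / 2 ^ k)) :
    ((P.filter fun y => lab L i k f bf ef s1 s2 y = lab L i k f bf ef s1 s2 x ∧
      (g (par k y), y.2) = (g (par k x), x.2)).card : ℝ) ≤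
      D' * capB q0 q1 q2 (124 * a) (124 * s1) (124 * s2) := by
  have he := h1.ortho _ (hPO x hx)
  have he' := h2.ortho _ (hPO x hx)
  have has := H.as
  have hss := H.ss
  have ha := H.ha
  refine card_in_box (c := x.2 / 2 ^ j) hd' he (l := L x.1) (by linarith) (by linarith)
    (by linarith) hω1' hω2' hR' hS' hQ' _ ?_ ?_
  · intro y hy
    obtain ⟨hyP, hys, hyC⟩ := mem_filter.1 hy
    obtain ⟨e1, e2, e3⟩ := lab_box h1 hPO H.s1p H.s2p H.k1 H.k2 hx hyP hys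
    have hyP' : (y.1, x.2 / 2 ^ j) ∈ P' := by
      have := hPP y hyP
      simp only [par, e1] at this
      exact this
    refine ⟨y.2, hyP', rfl, ?_⟩
    have e4 : (par k y).2 = (par k x).2 := by simp only [par, e1]
    have e5 : g (par k y) = g (par k x) := congrArg Prod.fst hyC
    have m1 := h1.mem _ (hPO x hx)
    have m2 := h1.mem _ (hPO y hyP)
    rw [e2, e4] at m2
    have m3 := h2.mem _ (hPO x hx)
    have m4 := h2.mem _ (hPO y hyP)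
    rw [e5, e4] at m4
    have hρ0 := rho_pos i
    have hρp := rho_pos (i + k)
    have hρp' := rho_pos (i + k')
    have hρi' : rho (i + k') * 2 ^ k' = rho i := rho_add i k'
    have hz1 := zl_par_le (i + k') j x.2
    have hz2 := zl_par_ge (i + k') j x.2
    have hz3 := zl_par_le i k' (x.2 / 2 ^ j)
    have hz4 := zl_par_ge i k' (x.2 / 2 ^ j)
    rw [add_assoc, ← H.hk] at hz1 hz2
    rw [← div_div_pow, ← H.hk] at hz3 hz4
    refine hT.mid he he' ha H.haw H.hw (by positivity) H.s1p H.s2p m1 m2 m3 m4 e3 hρp.le hρ0 hz1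
      (by linarith) hz3 hz4 ?_ ?_
    · have e6 : s1 * 2 ^ j * rho i = 16 * (w1 * rho (i + k')) := by
        rw [H.hs1, H.pw, ← hρi']; field_simp
      rw [e6]
      have := mul_pos H.w1p hρp'
      linarith
    · have e6 : s2 * rho i = 8 * (w2 * rho (i + k')) := by
        rw [H.hs2, ← hρi']; field_simp
      rw [e6]
      have := mul_pos H.w2p hρp'
      linarith
  · intro y hy y' hy' h
    have e1 := congrArg Prod.snd (mem_filter.1 hy).2.2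
    have e2 := congrArg Prod.snd (mem_filter.1 hy').2.2
    exact Prod.ext h (e1.trans e2.symm)

open Classical in
/-- the test box -/
theorem deep_coin (H : DPar a w1 w2 s1 s2 j k' k) (h1 : FSys O L i f bf ef a w1 w2 A1)
    (h2 : FSys O L i g bg eg a w1 w2 A2) (hPO : ∀ x ∈ P, par k x ∈ O)
    (hd : DMaxP P L (i + k) D q0 q1 q2 r0 ω1 ω2 R0 R2 Ra)
    (hr0 : r0 ≤ a) (hR : 124 * s1 ≤ R0) (hS : 124 * s2 ≤ R2)
    (hQ : 124 * a ≤ Ra) (hω1 : ω1 ≤ 124 * s1) (hω2 : ω2 ≤ 124 * s2)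
    (hT : ∀ x ∈ P, Tl (ef (f (par k x))) (eg (g (par k x))) a w1 w2 (2 ^ j) (1 / 2 ^ k))
    {x : ℕ × ℤ} (hx : x ∈ P) :
    ((P.filter fun z => ∃ y ∈ P, lab L i k f bf ef s1 s2 y = lab L i k f bf ef s1 s2 x ∧
      lab L i k g bg eg s1 s2 z = lab L i k g bg eg s1 s2 y).card : ℝ) ≤
      D * capB q0 q1 q2 (124 * a) (124 * s1) (124 * s2) := by
  have he := h1.ortho _ (hPO x hx)
  have has := H.as
  have hss := H.ss
  have ha := H.ha
  have hcell : ∀ z ∈ P.filter (fun z => ∃ y ∈ P, lab L i k f bf ef s1 s2 y =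
      lab L i k f bf ef s1 s2 x ∧ lab L i k g bg eg s1 s2 z = lab L i k g bg eg s1 s2 y),
      z.2 = x.2 := by
    intro z hz
    obtain ⟨hzP, y, hyP, hys, hzt⟩ := mem_filter.1 hz
    have e1 := (lab_box h1 hPO H.s1p H.s2p H.k1 H.k2 hx hyP hys).1
    have e2 := (lab_box h2 hPO H.s1p H.s2p H.k1 H.k2 hyP hzP hzt).1
    exact e2.trans e1
  refine card_in_box (c := x.2) hd he (l := L x.1) (by linarith) (by linarith)
    (by linarith) hω1 hω2 hR hS hQ _ ?_ ?_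
  · intro z hz
    have hzc := hcell z hz
    obtain ⟨hzP, y, hyP, hys, hzt⟩ := mem_filter.1 hz
    obtain ⟨e1, e2, e3⟩ := lab_box h1 hPO H.s1p H.s2p H.k1 H.k2 hx hyP hys
    obtain ⟨e1', e2', e3'⟩ := lab_box h2 hPO H.s1p H.s2p H.k1 H.k2 hyP hzP hzt
    refine ⟨z.2, by rw [← hzc]; exact hzP, rfl, ?_⟩
    have hTy := hT y hyP
    rw [e2] at hTy
    rw [e1] at e3'
    have he' := h2.ortho _ (hPO y hyP)
    exact hTy.coin he he' ha H.w1p H.w2p (by positivity) (by positivity) H.s1' H.s2' has hss e3 e3'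
  · intro z hz z' hz' h
    exact Prod.ext h ((hcell z hz).trans (hcell z' hz').symm)

open Classical in
/-- **base tilt, deep count.** -/
theorem flat_deep (H : DPar a w1 w2 s1 s2 j k' k) (h1 : FSys O L i f bf ef a w1 w2 A1)
    (h2 : FSys O L i g bg eg a w1 w2 A2) (hPO : ∀ x ∈ P, par k x ∈ O)
    (hPP : ∀ x ∈ P, par j x ∈ P') (hP : P.Nonempty)
    (hd : DMaxP P L (i + k) D q0 q1 q2 r0 ω1 ω2 R0 R2 Ra)
    (hd' : DMaxP P' L (i + k') D' q0 q1 q2 r0 ω1' ω2' R0' R2' Ra')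
    (hr0 : r0 ≤ a) (hD : 0 ≤ D) (hD' : 0 ≤ D')
    (hA1 : 0 < A1) (hA2 : 0 < A2) (hδ0 : 0 < δ0)
    (hT : ∀ x ∈ P, Tl (ef (f (par k x))) (eg (g (par k x))) a w1 w2 (2 ^ j) (1 / 2 ^ k))
    (hR : 124 * s1 ≤ R0) (hS : 124 * s2 ≤ R2)
    (hQ : 124 * a ≤ Ra) (hR' : 124 * s1 ≤ R0') (hS' : 124 * s2 ≤ R2')
    (hQ' : 124 * a ≤ Ra') (hω1 : ω1 ≤ 124 * s1) (hω2 : ω2 ≤ 124 * s2)
    (hω1' : ω1' ≤ 124 * s1) (hω2' : ω2' ≤ 124 * s2)
    (hcard : δ0 * (O.card : ℝ) * 2 ^ k ≤ (P.card : ℝ)) :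
    δ0 ^ 2 * (A1 * A2) ≤ 16 * (9 * (2 ^ k * 2 ^ k')) ^ 2 *
      ((D' * capB q0 q1 q2 (124 * a) (124 * s1) (124 * s2)) *
      (D * capB q0 q1 q2 (124 * a) (124 * s1) (124 * s2))) := by
  have hOne : 0 < (O.card : ℝ) := by
    obtain ⟨x, hx⟩ := hP
    exact_mod_cast card_pos.2 ⟨_, hPO x hx⟩
  have hcap : 0 < capB q0 q1 q2 (124 * a) (124 * s1) (124 * s2) := by
    have := H.ha
    have := H.s1p
    have := H.s2p
    exact capB_pos (by positivity) (by positivity) (by positivity)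
  generalize hn : (2 * (w1 / s1) + 2) * (2 * (w2 / s2) + 2) = n
  have hnp : 0 < n := by rw [← hn]; exact H.np
  have hnb : n ≤ 9 * (2 ^ k * 2 ^ k') := by rw [← hn]; exact H.nb
  have hn1 : ((P.image (lab L i k f bf ef s1 s2)).card : ℝ) ≤ (O.card : ℝ) / A1 * 2 ^ k * n := by
    rw [← hn]
    refine (card_lab (k := k) h1 hPO H.s1p H.s2p H.w1p.le H.w2p.le).trans ?_
    have := h1.num' hA1
    have := H.np.le
    gcongr
  have hn2 : ((P.image (lab L i k g bg eg s1 s2)).card : ℝ) ≤ (O.card : ℝ) / A2 * 2 ^ k * n := by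
    rw [← hn]
    refine (card_lab (k := k) h2 hPO H.s1p H.s2p H.w1p.le H.w2p.le).trans ?_
    have := h2.num' hA2
    have := H.np.le
    gcongr
  generalize hcc : capB q0 q1 q2 (124 * a) (124 * s1) (124 * s2) = cc at *
  have hcnt := deep_count2 P (lab L i k f bf ef s1 s2) (fun x => (g (par k x), x.2))
    (lab L i k g bg eg s1 s2) (n1 := (O.card : ℝ) / A1 * 2 ^ k * n)
    (n2 := (O.card : ℝ) / A2 * 2 ^ k * n) (s0 := D' * cc)
    (D := D * cc) (by positivity) (by positivity)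
    (mul_nonneg hD' hcap.le) hP hn1 hn2
    (fun x hx y hy hxy => congrArg (fun p : β × ℤ × ℤ × ℤ => (p.1, p.2.1)) hxy)
    (fun x hx => by
      rw [← hcc]; exact deep_cap H h1 h2 hPO hPP hd' hr0 hR' hS' hQ' hω1' hω2' hx (hT x hx))
    (fun x hx => by
      rw [← hcc]; exact deep_coin H h1 h2 hPO hd hr0 hR hS hQ hω1 hω2 hT hx)
  have hOP : (δ0 * (O.card : ℝ) * 2 ^ k) ^ 2 ≤ (P.card : ℝ) ^ 2 := by
    have : 0 ≤ δ0 * (O.card : ℝ) * 2 ^ k := by positivity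
    gcongr
  have h3 := hOP.trans hcnt
  generalize hS0 : D' * cc * (D * cc) = S0 at *
  have hS0p : 0 ≤ S0 := by
    rw [← hS0]; positivity
  have h4 : (O.card : ℝ) ^ 2 * (2 ^ k) ^ 2 * (δ0 ^ 2 * (A1 * A2)) ≤
      (O.card : ℝ) ^ 2 * (2 ^ k) ^ 2 * (16 * n ^ 2 * S0) := by
    have e1 : 16 * ((O.card : ℝ) / A1 * 2 ^ k * n) * ((O.card : ℝ) / A2 * 2 ^ k * n) * S0 =
        (O.card : ℝ) ^ 2 * (2 ^ k) ^ 2 * (16 * n ^ 2 * S0) / (A1 * A2) := by
      field_simp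
    rw [e1, le_div_iff₀ (by positivity)] at h3
    linarith
  have h5 := le_of_mul_le_mul_left h4 (by positivity)
  refine h5.trans ?_
  have : n ^ 2 ≤ (9 * (2 ^ k * 2 ^ k')) ^ 2 := by gcongr
  gcongr

end

end Crest.Agent.R136.Fl808
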