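import Crest.Agent.R136.Mdr3_535
import Crest.Agent.R136.Fl6_808

/-!
# R136 (S0187), U5 TILT, `Mid`: curved class systems as systems of planks at a deeper level
(helper535)

* `CSys` : class system of curved sheets (curved version of 808's `FSys`).
* `CSys.plank` : over the cells of level `i + k` it is a system of planks, labels = (class, deep cell,
  grid label of the small box).
* `CSys.near`, `CSys.near0` : the frame of the plank of a deep object agrees with the frame of the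
  gradient of the sheet along the line of the object (at the beginning of the deep / long cell).
* `FSys.mono`.
-/

set_option autoImplicit false
set_option linter.unusedVariables false
set_option linter.unusedSectionVars false

namespace Crest.Agent.R136.Mdr535

open Finset Crest.Agent.R136.Sh605 Crest.Agent.R136.Tl102
open Crest.Agent.R138.Mk163 (zl rho)
open Crest.Agent.R136.Fl808

open Classical in
/-- class system of curved sheets over the cells of level `i`: common thickness `a`, widths comparable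
to `W1 ≥ W2` up to `B`, curvature extent at most `X` (length units) along every object. -/
structure CSys {α : Type*} (O : Finset (ℕ × ℤ)) (L : ℕ → Ln4) (i : ℕ) (f : ℕ × ℤ → α)
    (c : α → Ln4) (e : α → Fin 3 → V3) (w : α → V3) (q : α → ℝ → V3 → ℝ)
    (a W1 W2 B X A : ℝ) : Prop where
  st : ∀ o ∈ O, StP (e (f o)) (c (f o)) (w (f o)) (q (f o)) (zl i o.2) (rho i)
  mem : ∀ o ∈ O, InSheet (L o.1) (e (f o)) (c (f o)) (w (f o)) (q (f o)) a (zl i o.2) (rho i)
  w02 : ∀ o ∈ O, w (f o) 0 ≤ w (f o) 2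
  w21 : ∀ o ∈ O, w (f o) 2 ≤ w (f o) 1
  wW1 : ∀ o ∈ O, w (f o) 1 ≤ W1
  wW2 : ∀ o ∈ O, w (f o) 2 ≤ W2
  Ww1 : ∀ o ∈ O, W1 ≤ B * w (f o) 1
  Ww2 : ∀ o ∈ O, W2 ≤ B * w (f o) 2
  ext : ∀ o ∈ O, ∃ b0 b1 G, IsExp (q (f o)) (e (f o)) (w (f o)) (L o.1) (zl i o.2) (rho i) b0 b1 G ∧
    w (f o) 0 * kap b0 b1 G ≤ X
  cell : ∀ o ∈ O, ∀ o' ∈ O, f o = f o' → o.2 = o'.2
  num : ((O.image f).card : ℝ) * A ≤ (O.card : ℝ)

/-- a chosen object of every label -/
noncomputable def rep {γ : Type*} (P : Finset (ℕ × ℤ)) (F : ℕ × ℤ → γ) (l : γ) : ℕ × ℤ :=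
  open Classical in if h : ∃ x ∈ P, F x = l then h.choose else (0, 0)

theorem rep_spec {γ : Type*} {P : Finset (ℕ × ℤ)} {F : ℕ × ℤ → γ} {x : ℕ × ℤ} (hx : x ∈ P) :
    rep P F (F x) ∈ P ∧ F (rep P F (F x)) = F x := by
  have h : ∃ y ∈ P, F y = F x := ⟨x, hx, rfl⟩
  unfold rep
  rw [dif_pos h]
  exact h.choose_spec

section

variable {α : Type*} {O P : Finset (ℕ × ℤ)} {L : ℕ → Ln4} {i k : ℕ} {f : ℕ × ℤ → α}
  {c : α → Ln4} {e : α → Fin 3 → V3} {w : α → V3} {q : α → ℝ → V3 → ℝ} {a W1 W2 B X A : ℝ}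

theorem CSys.toF (h : CSys O L i f c e w q a W1 W2 B X A) : FSys O L i f c e W2 W1 W2 A where
  ortho := fun o ho => (h.st o ho).ortho
  mem := by
    intro o ho z hz hz' j
    have h1 := (h.mem o ho z hz hz').1 j
    have h2 := h.w02 o ho
    have h3 := h.wW1 o ho
    have h4 := h.wW2 o ho
    fin_cases j
    · exact h1.trans (h2.trans h4)
    · exact h1.trans h3
    · exact h1.trans h4
  cell := h.cell
  num := h.num

/-- a deep cell inside its parent -/
theorem deep_cell (i k : ℕ) (x : ℕ × ℤ) : ∃ ζ r : ℝ, 0 ≤ ζ ∧ ζ ≤ 1 ∧ 0 ≤ r ∧ r ≤ 1 ∧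
    zl i (par k x).2 + rho i * ζ = zl (i + k) x.2 ∧ rho i * r = rho (i + k) ∧
    zl i (par k x).2 ≤ zl (i + k) x.2 ∧
    zl (i + k) x.2 + rho (i + k) ≤ zl i (par k x).2 + rho i := by
  have hρ := rho_pos i
  have hρ' := rho_pos (i + k)
  have h1 := zl_par_le i k x.2
  have h2 := zl_par_ge i k x.2
  have h3 := rho_add i k
  refine ⟨(zl (i + k) x.2 - zl i (par k x).2) / rho i, 1 / 2 ^ k, ?_, ?_, ?_, ?_, ?_, ?_, h1, h2⟩
  · exact div_nonneg (by simp only [par]; linarith) hρ.le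
  · rw [div_le_one hρ]; simp only [par]; linarith
  · positivity
  · exact (div_le_one (by positivity)).2 (one_le_pow₀ (by norm_num))
  · field_simp; ring
  · rw [← h3]; field_simp

/-- expansion of the sheet along the line of a deep object, over the deep cell -/
theorem CSys.deep_exp (h : CSys O L i f c e w q a W1 W2 B X A) {x : ℕ × ℤ} (hx : par k x ∈ O) :
    ∃ b0 b1 G, IsExp (q (f (par k x))) (e (f (par k x))) (w (f (par k x))) (L x.1)
      (zl (i + k) x.2) (rho (i + k)) b0 b1 G ∧ w (f (par k x)) 0 * kap b0 b1 G ≤ 128 * X := by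
  obtain ⟨b0, b1, G, hE, hX⟩ := h.ext _ hx
  obtain ⟨ζ, r, h1, h2, h3, h4, h5, h6, h7, h8⟩ := deep_cell i k x
  have N := hE.nrmC (h.st _ hx) (rho_pos i).le fun z hz hz' => (h.mem _ hx z hz hz').1
  have hE' := isExp_sub hE ζ r
  rw [h5, h6] at hE'
  refine ⟨_, _, _, hE', ?_⟩
  have hk := (kap_sub N h1 h2 h3 h4).1
  have hw := (h.st _ hx).pos 0
  calc w (f (par k x)) 0 * kap (fun k => b0 k + ζ * b1 k) (fun k => r * b1 k) G ≤
      w (f (par k x)) 0 * (128 * kap b0 b1 G) := by gcongr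
    _ = 128 * (w (f (par k x)) 0 * kap b0 b1 G) := by ring
    _ ≤ _ := by gcongr

/-- conditions on the numbers of the zoom -/
structure ZPar (a W1 W2 B X : ℝ) (k : ℕ) : Prop where
  ha : 0 < a
  hB1 : 1 ≤ B
  hB : 20 * B ≤ 2 ^ k
  hX : 5 * (B * X) ≤ 2 ^ k * a
  haW : a * 2 ^ k ≤ W2
  hW : W2 ≤ W1

/-- the labels of the zoomed system -/
noncomputable def zlab (L : ℕ → Ln4) (i k : ℕ) (f : ℕ × ℤ → α) (c : α → Ln4)
    (e : α → Fin 3 → V3) (W1 W2 : ℝ) : ℕ × ℤ → α × ℤ × ℤ × ℤ :=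
  lab L i k f c e (W1 / 2 ^ k) (W2 / 2 ^ k)

/-- centre of the plank of a label -/
noncomputable def zb (P : Finset (ℕ × ℤ)) (L : ℕ → Ln4) (i k : ℕ) (f : ℕ × ℤ → α) (c : α → Ln4)
    (e : α → Fin 3 → V3) (W1 W2 : ℝ) (l : α × ℤ × ℤ × ℤ) : Ln4 :=
  L (rep P (zlab L i k f c e W1 W2) l).1

/-- frame of the plank of a label -/
noncomputable def ze (P : Finset (ℕ × ℤ)) (L : ℕ → Ln4) (i k : ℕ) (f : ℕ × ℤ → α) (c : α → Ln4)
    (e : α → Fin 3 → V3) (w : α → V3) (q : α → ℝ → V3 → ℝ) (W1 W2 : ℝ) (l : α × ℤ × ℤ × ℤ) :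
    Fin 3 → V3 :=
  pfr (q l.1) (e l.1) (w l.1) (zb P L i k f c e W1 W2 l) (zl (i + k) l.2.1)

/-- the data of a deep object and the representative of its label -/
theorem CSys.pair (h : CSys O L i f c e w q a W1 W2 B X A) (hP : ∀ x ∈ P, par k x ∈ O)
    (Z : ZPar a W1 W2 B X k) {x : ℕ × ℤ} (hx : x ∈ P) :
    ∃ y ∈ P, rep P (zlab L i k f c e W1 W2) (zlab L i k f c e W1 W2 x) = y ∧ y.2 = x.2 ∧
      f (par k y) = f (par k x) ∧
      InB (L x.1) (L y.1) (e (f (par k x))) ![2 * W2, 5 * (W1 / 2 ^ k), 5 * (W2 / 2 ^ k)]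
        (zl (i + k) x.2) (rho (i + k)) := by
  have hW2 : 0 < W2 := lt_of_lt_of_le (mul_pos Z.ha (by positivity)) Z.haW
  have hW1 : 0 < W1 := hW2.trans_le Z.hW
  obtain ⟨h1, h2⟩ := rep_spec (F := zlab L i k f c e W1 W2) hx
  have e1 : ∀ W : ℝ, W ≤ 2 ^ k * (W / 2 ^ k) := fun W => le_of_eq (by field_simp)
  obtain ⟨h3, h4, h5⟩ := lab_box (P := P) (k := k) h.toF hP (s1 := W1 / 2 ^ k) (s2 := W2 / 2 ^ k)
    (by positivity) (by positivity) (e1 W1) (e1 W2) h1 hx h2.symm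
  refine ⟨_, h1, rfl, h3.symm, h4.symm, ?_⟩
  rw [← h4] at h5
  rw [← h3] at h5
  exact h5

/-- **the zoomed system is a system of planks** -/
theorem CSys.plank (h : CSys O L i f c e w q a W1 W2 B X A) (hP : ∀ x ∈ P, par k x ∈ O)
    (Z : ZPar a W1 W2 B X k) (hA : 0 ≤ A) :
    FSys P L (i + k) (zlab L i k f c e W1 W2) (zb P L i k f c e W1 W2)
      (ze P L i k f c e w q W1 W2) (800 * a) (2000 * B * (W1 / 2 ^ k)) (2000 * B * (W2 / 2 ^ k))
      (A * (P.card : ℝ) / ((O.card : ℝ) * (2 ^ k * (16 * 4 ^ k)))) where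
  ortho := by
    intro x hx
    exact pf_ortho (h.st _ (hP x hx)).ortho _ _
  mem := by
    intro x hx
    obtain ⟨y, hy, h1, h2, h3, h4⟩ := h.pair hP Z hx
    have hyO := hP y hy
    have hxO := hP x hx
    obtain ⟨ζ, r, -, -, -, -, -, -, h5, h6⟩ := deep_cell i k x
    obtain ⟨b0, b1, G, hE, hX⟩ := h.deep_exp hyO
    have hcell : (par k y).2 = (par k x).2 := by simp only [par, h2]
    have hS := stP_sub (h.st _ hxO) h5 h6
    have m1 := inSheet_sub (h.mem _ hxO) h5 h6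
    have m2 := h.mem _ hyO
    rw [h3, hcell] at m2
    have m2 := inSheet_sub m2 h5 h6
    rw [h3, h2] at hE
    rw [h3] at hX
    have hρ := rho_pos (i + k)
    have hB0 : 0 < B := by linarith [Z.hB1]
    have hext : B * (w (f (par k x)) 0 * kap b0 b1 G) ≤ 26 * 2 ^ k * a := by
      calc B * (w (f (par k x)) 0 * kap b0 b1 G) ≤ B * (128 * X) := by gcongr
        _ = 128 / 5 * (5 * (B * X)) := by ring
        _ ≤ 128 / 5 * (2 ^ k * a) := mul_le_mul_of_nonneg_left Z.hX (by norm_num)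
        _ ≤ _ := by
          have := mul_pos (show (0 : ℝ) < 2 ^ k by positivity) Z.ha
          linarith
    have key := plank_of_small (Λ := 2 ^ k) (W1 := W1) (W2 := W2) (B := B)
      (z1 := zl (i + k) x.2) (ρ1 := rho (i + k)) hS hE hρ m2 m1 (by positivity) le_rfl le_rfl
      (fun z hz hz' => ⟨h4 z hz hz' 1, h4 z hz hz' 2⟩) (h.Ww1 _ hxO) (h.Ww2 _ hxO) Z.hB1 Z.hB hext
      Z.haW (h.w02 _ hxO) (h.w21 _ hxO) (h.wW2 _ hxO) Z.hW
    have e1 : zb P L i k f c e W1 W2 (zlab L i k f c e W1 W2 x) = L y.1 := by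
      unfold zb; rw [h1]
    have e2 : ze P L i k f c e w q W1 W2 (zlab L i k f c e W1 W2 x) =
        pfr (q (f (par k x))) (e (f (par k x))) (w (f (par k x))) (L y.1) (zl (i + k) x.2) := by
      unfold ze; rw [e1]; rfl
    rw [e1, e2]
    exact key
  cell := by
    intro x hx x' hx' hxx
    exact congrArg (fun p : α × ℤ × ℤ × ℤ => p.2.1) hxx
  num := by
    classical
    have hW2 : 0 < W2 := lt_of_lt_of_le (mul_pos Z.ha (by positivity)) Z.haW
    have hW1 : 0 < W1 := hW2.trans_le Z.hW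
    rcases P.eq_empty_or_nonempty with hPe | ⟨x, hx⟩
    · subst hPe; simp
    have hO : 0 < (O.card : ℝ) := by exact_mod_cast card_pos.2 ⟨_, hP x hx⟩
    have h1 := card_lab (P := P) (k := k) h.toF hP (s1 := W1 / 2 ^ k) (s2 := W2 / 2 ^ k)
      (by positivity) (by positivity) hW1.le hW2.le
    have e1 : W1 / (W1 / 2 ^ k) = 2 ^ k := by field_simp
    have e2 : W2 / (W2 / 2 ^ k) = 2 ^ k := by field_simp
    rw [e1, e2] at h1
    have h2 : (2 * (2 : ℝ) ^ k + 2) * (2 * 2 ^ k + 2) ≤ 16 * 4 ^ k := by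
      have h3 : (1 : ℝ) ≤ 2 ^ k := one_le_pow₀ (by norm_num)
      have h4 : (4 : ℝ) ^ k = 2 ^ k * 2 ^ k := by rw [← mul_pow]; norm_num
      rw [h4]
      nlinarith
    set M : ℝ := 2 ^ k * (16 * 4 ^ k) with hM
    have hMp : 0 < M := by positivity
    have h3 : ((P.image (zlab L i k f c e W1 W2)).card : ℝ) ≤ ((O.image f).card : ℝ) * M := by
      refine le_trans ?_ (h1.trans ?_)
      · exact le_of_eq (by unfold zlab; congr!)
      · refine (mul_le_mul_of_nonneg_left h2 (by positivity)).trans (le_of_eq ?_)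
        rw [hM]; ring
    have h4 : ((O.image f).card : ℝ) * A ≤ (O.card : ℝ) := by
      refine le_trans (le_of_eq ?_) h.num
      congr!
    refine le_trans (mul_le_mul_of_nonneg_right (le_trans (le_of_eq ?_) h3) (by positivity)) ?_
    · congr!
    · have : ((O.image f).card : ℝ) * M * (A * (P.card : ℝ) / ((O.card : ℝ) * M)) =
          ((O.image f).card : ℝ) * A * ((P.card : ℝ) / (O.card : ℝ)) := by field_simp
      rw [this]
      calc ((O.image f).card : ℝ) * A * ((P.card : ℝ) / (O.card : ℝ)) ≤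
            (O.card : ℝ) * ((P.card : ℝ) / (O.card : ℝ)) := by gcongr
        _ = _ := by field_simp

/-- **the frame of the plank of a deep object agrees with the frame of the gradient along its line**,
taken at the beginning of the deep cell -/
theorem CSys.near (h : CSys O L i f c e w q a W1 W2 B X A) (hP : ∀ x ∈ P, par k x ∈ O)
    (Z : ZPar a W1 W2 B X k) {x : ℕ × ℤ} (hx : x ∈ P) :
    Nr 4000 (ze P L i k f c e w q W1 W2 (zlab L i k f c e W1 W2 x))
      (pfr (q (f (par k x))) (e (f (par k x))) (w (f (par k x))) (L x.1) (zl (i + k) x.2)) a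
      (W1 / 2 ^ k) (W2 / 2 ^ k) := by
  obtain ⟨y, hy, h1, h2, h3, h4⟩ := h.pair hP Z hx
  have hyO := hP y hy
  have hxO := hP x hx
  obtain ⟨ζ, r, -, -, -, -, -, -, h5, h6⟩ := deep_cell i k x
  obtain ⟨b0, b1, G, hE, hX⟩ := h.deep_exp hyO
  obtain ⟨b0', b1', G', hE', hX'⟩ := h.deep_exp hxO
  have hcell : (par k y).2 = (par k x).2 := by simp only [par, h2]
  have hS := stP_sub (h.st _ hxO) h5 h6
  have m1 := inSheet_sub (h.mem _ hxO) h5 h6
  have m2 := h.mem _ hyO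
  rw [h3, hcell] at m2
  have m2 := inSheet_sub m2 h5 h6
  rw [h3, h2] at hE
  rw [h3] at hX
  have hρ := rho_pos (i + k)
  have hB0 : 0 < B := by linarith [Z.hB1]
  have hext : B * (w (f (par k x)) 0 * kap b0 b1 G) ≤ 26 * 2 ^ k * a := by
    calc B * (w (f (par k x)) 0 * kap b0 b1 G) ≤ B * (128 * X) := by gcongr
      _ = 128 / 5 * (5 * (B * X)) := by ring
      _ ≤ 128 / 5 * (2 ^ k * a) := mul_le_mul_of_nonneg_left Z.hX (by norm_num)
      _ ≤ _ := by
        have := mul_pos (show (0 : ℝ) < 2 ^ k by positivity) Z.ha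
        linarith
  have e1 : zb P L i k f c e W1 W2 (zlab L i k f c e W1 W2 x) = L y.1 := by
    unfold zb; rw [h1]
  have e2 : ze P L i k f c e w q W1 W2 (zlab L i k f c e W1 W2 x) =
      pfr (q (f (par k x))) (e (f (par k x))) (w (f (par k x))) (L y.1) (zl (i + k) x.2) := by
    unfold ze; rw [e1]; rfl
  rw [e2]
  have h40 := h4 (zl (i + k) x.2) le_rfl (by linarith)
  exact frame_near hS hρ hE hE' m2 m1 Z.ha (by positivity) (h40 1) (h40 2) (h.Ww1 _ hxO)
    (h.Ww2 _ hxO) Z.hB1 Z.hB hext Z.haW (h.w02 _ hxO) (h.w21 _ hxO) Z.hW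

/-- **the same, at the beginning of the long cell** -/
theorem CSys.near0 (h : CSys O L i f c e w q a W1 W2 B X A) (hP : ∀ x ∈ P, par k x ∈ O)
    (Z : ZPar a W1 W2 B X k) {x : ℕ × ℤ} (hx : x ∈ P) :
    Nr 6000000 (ze P L i k f c e w q W1 W2 (zlab L i k f c e W1 W2 x))
      (pfr (q (f (par k x))) (e (f (par k x))) (w (f (par k x))) (L x.1) (zl i (par k x).2)) a
      (W1 / 2 ^ k) (W2 / 2 ^ k) := by
  have hxO := hP x hx
  have hS := h.st _ hxO
  obtain ⟨ζ, r, -, -, -, -, -, -, h5, h6⟩ := deep_cell i k x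
  obtain ⟨b0, b1, G, hE, hX⟩ := h.ext _ hxO
  have hρ := rho_pos (i + k)
  have hρ0 := rho_pos i
  have hB0 : 0 < B := by linarith [Z.hB1]
  have hk : (0 : ℝ) < 2 ^ k := by positivity
  have hext : B * (w (f (par k x)) 0 * kap b0 b1 G) ≤ 26 * 2 ^ k * a := by
    have h1 : B * (w (f (par k x)) 0 * kap b0 b1 G) ≤ B * X := by gcongr
    have h2 := Z.hX
    have h3 := mul_pos hk Z.ha
    linarith
  have n1 := h.near hP Z hx
  have n2 := (frame_height hS hρ0 hE (h.mem _ hxO) Z.ha hk h5 (by linarith) (h.Ww1 _ hxO)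
    (h.Ww2 _ hxO) hext Z.haW (h.w02 _ hxO) (h.w21 _ hxO) Z.hW).symm
  have haW : a ≤ W2 / 2 ^ k := by rw [le_div_iff₀ hk]; exact Z.haW
  have hWW : W2 / 2 ^ k ≤ W1 / 2 ^ k := by
    have := Z.hW
    gcongr
  have key := n1.trans n2 (pf_ortho hS.ortho _ _) (pf_ortho hS.ortho _ _) (pf_ortho hS.ortho _ _)
    Z.ha haW hWW (by norm_num) (by norm_num)
  exact key.mono (by norm_num) Z.ha.le (Z.ha.le.trans haW)

end

/-- enlarging the dimensions of a system of planks -/
theorem FSys.mono {α : Type*} {O : Finset (ℕ × ℤ)} {L : ℕ → Ln4} {i : ℕ} {f : ℕ × ℤ → α}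
    {b : α → Ln4} {e : α → Fin 3 → V3} {a w1 w2 A a' w1' w2' A' : ℝ}
    (h : FSys O L i f b e a w1 w2 A) (ha : a ≤ a') (h1 : w1 ≤ w1') (h2 : w2 ≤ w2') (hA : A' ≤ A) :
    FSys O L i f b e a' w1' w2' A' where
  ortho := h.ortho
  mem := by
    intro o ho z hz hz' j
    have := h.mem o ho z hz hz' j
    fin_cases j
    · exact this.trans ha
    · exact this.trans h1
    · exact this.trans h2
  cell := h.cell
  num := (mul_le_mul_of_nonneg_left hA (by positivity)).trans h.num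

end Crest.Agent.R136.Mdr535
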