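import Crest.Agent.R136.Csj1_535
import Crest.Agent.R136.Mdr4_535
import Crest.Agent.R136.KapP_335
import Crest.Agent.R136.Tlt0_51

/-!
# R136 (S0187), U5 TILT: the class systems of the marks of `J1` (helper535)

* `csys_fin` : the marks of level `u`, clamped to the cells of level `v`, form a class system.
* `csys_j1` : the same from `J1`, for every dense part.
-/

set_option autoImplicit false
set_option linter.unusedVariables false
set_option linter.unusedSectionVars false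

open Finset Filter Topology

namespace Crest.Agent.R136.Csj535

open Crest.Agent.R138.Ex926 Crest.Agent.R138.Dp76
open Crest.Agent.R138.Mk163 (zc zl rho alive own Negl)
open Crest.Agent.R138.MkRef627 (lc kc mem_alive)
open Crest.Agent.R136.MkA627 Crest.Agent.R136.Dia770
open Crest.Agent.R136.Sh605 Crest.Agent.R136.K4 Crest.Agent.R136.Top484 Crest.Agent.R136.Tlt51
open Crest.Agent.R136.KapP335
open Crest.Agent.R136.Mdr535 (CSys deep_cell stP_sub inSheet_sub isExp_sub kap_sub)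
open Crest.Agent.R136.Tl102 (StP kap kap_nonneg)

/-- label: cell of level `lv` and class of level `lu` -/
def clm (f : ℕ → ℤ → ℕ) (lu lv : ℕ) (o : ℕ × ℤ) : ℤ × ℕ := (o.2, f o.1 (o.2 / 2 ^ (lv - lu)))

theorem inSheet_mono {t : Ln4} {e : Fin 3 → V3} {c : Ln4} {w : V3} {q : ℝ → V3 → ℝ}
    {a a' z0 ρ : ℝ} (h : InSheet t e c w q a z0 ρ) (ha : a ≤ a') : InSheet t e c w q a' z0 ρ :=
  fun z h1 h2 => ⟨(h z h1 h2).1, (h z h1 h2).2.trans ha⟩

/-- cell of level `lv` inside the cell of level `lu` -/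
theorem cell_sub {lu lv : ℕ} (huv : lu ≤ lv) (z : ℝ) : ∃ ζ r : ℝ, 0 ≤ ζ ∧ ζ ≤ 1 ∧ 0 ≤ r ∧ r ≤ 1 ∧
    zl lu (zc lu z) + rho lu * ζ = zl lv (zc lv z) ∧ rho lu * r = rho lv ∧
    zl lu (zc lu z) ≤ zl lv (zc lv z) ∧
    zl lv (zc lv z) + rho lv ≤ zl lu (zc lu z) + rho lu := by
  obtain ⟨ζ, r, h⟩ := deep_cell lu (lv - lu) (0, zc lv z)
  have e1 : lu + (lv - lu) = lv := by omega
  rw [e1] at h
  have e2 : (Fl808.par (lv - lu) ((0 : ℕ), zc lv z)).2 = zc lu z := by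
    simp only [Fl808.par]
    exact (zc_div huv z).symm
  rw [e2] at h
  exact ⟨ζ, r, h⟩

open Classical in
/-- **the marks of level `lu`, clamped to the cells of level `lv`, form a class system** -/
theorem csys_fin {L : ℕ → Ln4} {f : ℕ → ℤ → ℕ} {b : ℕ → Plk4} {J : Finset (ℕ × ℝ)} {lu lv : ℕ}
    (huv : lu ≤ lv) {a' W1 W2 B X A r0 : ℝ} (hr : 0 < r0)
    (hS : ∀ x ∈ J, ShN (b (f x.1 (zc lu x.2))).e (b (f x.1 (zc lu x.2))).c
      (b (f x.1 (zc lu x.2))).w (b (f x.1 (zc lu x.2))).q (b (f x.1 (zc lu x.2))).a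
      (zl lu (zc lu x.2)) (rho lu) r0)
    (hI : ∀ x ∈ J, InSheet (L x.1) (b (f x.1 (zc lu x.2))).e (b (f x.1 (zc lu x.2))).c
      (b (f x.1 (zc lu x.2))).w (b (f x.1 (zc lu x.2))).q (b (f x.1 (zc lu x.2))).a
      (zl lu (zc lu x.2)) (rho lu))
    (ha : ∀ x ∈ J, (b (f x.1 (zc lu x.2))).a ≤ a')
    (hw1 : ∀ x ∈ J, (b (f x.1 (zc lu x.2))).w 1 ≤ W1 ∧ W1 ≤ B * (b (f x.1 (zc lu x.2))).w 1)
    (hw2 : ∀ x ∈ J, (b (f x.1 (zc lu x.2))).w 2 ≤ W2 ∧ W2 ≤ B * (b (f x.1 (zc lu x.2))).w 2)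
    (hext : ∀ x ∈ J, kapP (b (f x.1 (zc lu x.2))) (zl lu (zc lu x.2)) (rho lu) (L x.1) ≤ X)
    (hnum : (((J.image (lc lv)).image (clm f lu lv)).card : ℝ) * A ≤ ((J.image (lc lv)).card : ℝ)) :
    CSys (J.image (lc lv)) L lv (clm f lu lv) (fun l => (b l.2).c) (fun l => (b l.2).e)
      (fun l => (b l.2).w) (fun l => (b l.2).q) a' W1 W2 B (128 * X) A := by
  have key : ∀ o ∈ J.image (lc lv), ∃ x ∈ J, o = lc lv x ∧ (clm f lu lv o).2 =
      f x.1 (zc lu x.2) := by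
    intro o ho
    obtain ⟨x, hx, rfl⟩ := mem_image.1 ho
    refine ⟨x, hx, rfl, ?_⟩
    simp only [clm, lc]
    rw [← zc_div huv x.2]
  have hpos : ∀ x ∈ J, 0 < (b (f x.1 (zc lu x.2))).w 0 := fun x hx =>
    hr.trans_le ((hS x hx).r0_le.trans (hS x hx).a_le0)
  refine
    { st := ?_
      mem := ?_
      w02 := ?_
      w21 := ?_
      wW1 := ?_
      wW2 := ?_
      Ww1 := ?_
      Ww2 := ?_
      ext := ?_
      cell := ?_
      num := by
        refine le_trans (le_of_eq ?_) hnum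
        congr! }
  · intro o ho
    obtain ⟨x, hx, rfl, h2⟩ := key o ho
    obtain ⟨ζ, r, -, -, -, -, -, -, h5, h6⟩ := cell_sub huv x.2
    rw [h2]
    exact stP_sub (StP.of_shN (hS x hx) (hpos x hx)) h5 h6
  · intro o ho
    obtain ⟨x, hx, rfl, h2⟩ := key o ho
    obtain ⟨ζ, r, -, -, -, -, -, -, h5, h6⟩ := cell_sub huv x.2
    rw [h2]
    exact inSheet_mono (inSheet_sub (hI x hx) h5 h6) (ha x hx)
  · intro o ho
    obtain ⟨x, hx, rfl, h2⟩ := key o ho
    simp only [h2]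
    exact (hS x hx).w0_le
  · intro o ho
    obtain ⟨x, hx, rfl, h2⟩ := key o ho
    simp only [h2]
    exact (hS x hx).w_le
  · intro o ho
    obtain ⟨x, hx, rfl, h2⟩ := key o ho
    simp only [h2]
    exact (hw1 x hx).1
  · intro o ho
    obtain ⟨x, hx, rfl, h2⟩ := key o ho
    simp only [h2]
    exact (hw2 x hx).1
  · intro o ho
    obtain ⟨x, hx, rfl, h2⟩ := key o ho
    simp only [h2]
    exact (hw1 x hx).2
  · intro o ho
    obtain ⟨x, hx, rfl, h2⟩ := key o ho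
    simp only [h2]
    exact (hw2 x hx).2
  · intro o ho
    obtain ⟨x, hx, rfl, h2⟩ := key o ho
    obtain ⟨ζ, r, h0, h1, hr0, hr1, e1, e2, h5, h6⟩ := cell_sub huv x.2
    have hw0 := hpos x hx
    have hE := expP_spec (S := b (f x.1 (zc lu x.2))) (hS x hx).isQ hw0.ne' (zl lu (zc lu x.2))
      (rho lu) (L x.1)
    have N := hE.nrmC (StP.of_shN (hS x hx) hw0) (Fl808.rho_pos lu).le fun z hz hz' =>
      (hI x hx z hz hz').1
    have hE' := isExp_sub hE ζ r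
    rw [e1, e2] at hE'
    have hk := (kap_sub N h0 h1 hr0 hr1).1
    have hX := hext x hx
    simp only [h2]
    refine ⟨_, _, _, hE', ?_⟩
    calc _ ≤ (b (f x.1 (zc lu x.2))).w 0 * (128 * kap _ _ _) :=
          mul_le_mul_of_nonneg_left hk hw0.le
      _ = 128 * kapP (b (f x.1 (zc lu x.2))) (zl lu (zc lu x.2)) (rho lu) (L x.1) := by
          unfold kapP; ring
      _ ≤ _ := by gcongr
  · intro o ho o' ho' h
    exact congrArg Prod.fst h

/-- **the class system of the marks of level `u` over the cells of level `v ≥ u`, from `J1`** -/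
theorem csys_j1 {η : ℝ} {p : Par4} {D : Dat4} (h : J1 η p D) {J : ℕ → Finset (ℕ × ℝ)}
    (hJ : Dense D.B J D.I) (hJ' : ∀ n, J n ⊆ D.I n) (u v : ℚ) (hu : 0 ≤ u) (huv : u ≤ v)
    (hv : v ≤ 1) {ε : ℝ} (hε : 0 < ε) :
    ∀ᶠ n in (U : Filter ℕ), ∀ a' W1 W2 B X : ℝ, D.w 0 n u ≤ a' →
      D.w 1 n u ≤ W1 → W1 ≤ B * D.w 1 n u → D.w 2 n u ≤ W2 → W2 ≤ B * D.w 2 n u →
      (∀ x ∈ J n, kapP (mk4 D n u x) (zx D n u x) (rh D n u) (D.L n x.1) ≤ X) →
      CSys ((J n).image (lc (D.lev n v))) (D.L n) (D.lev n v)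
        (clm (D.f n u) (D.lev n u) (D.lev n v)) (fun l => (D.b n u l.2).c)
        (fun l => (D.b n u l.2).e) (fun l => (D.b n u l.2).w) (fun l => (D.b n u l.2).q)
        a' W1 W2 B (128 * X)
        (D.B.d n ^ ε * (ampA D.B D.A (fun v => p.g * v) n u * D.vm n u)) := by
  filter_upwards [num_clamp h.mka hJ hJ' u v hu huv hv hε, h.mka.mark u hu (huv.trans hv),
    h.mka.lev_mono u v hu huv hv] with n h1 h2 h3 a' W1 W2 B X ha hW1 hW1' hW2 hW2' hX
  have hal : ∀ x ∈ J n, x.1 ∈ alive (D.I n) (D.lev n u) (zc (D.lev n u) x.2) := fun x hx =>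
    mem_alive.2 ⟨x, hJ' n hx, rfl, rfl⟩
  have hm := fun x hx => h2 _ _ (hal x hx)
  refine csys_fin h3 (h.r0pos n) (fun x hx => (hm x hx).2.1.1) (fun x hx => (hm x hx).1) ?_ ?_ ?_ hX
    h1
  · intro x hx
    have := (hm x hx).2.2.2 0
    refine le_trans (le_of_eq this) ha
  · intro x hx
    have e1 := (hm x hx).2.2.2 1
    change (D.b n u (D.f n u x.1 (zc (D.lev n u) x.2))).w 1 = D.w 1 n u at e1
    rw [e1]
    exact ⟨hW1, hW1'⟩
  · intro x hx
    have e1 := (hm x hx).2.2.2 2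
    change (D.b n u (D.f n u x.1 (zc (D.lev n u) x.2))).w 2 = D.w 2 n u at e1
    rw [e1]
    exact ⟨hW2, hW2'⟩

end Crest.Agent.R136.Csj535
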