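import Crest.Agent.R136.TL2_650
import Crest.Agent.R136.Coi6_102

/-!
# R136, two-level closeness in coefficient form (helper650), part 3: the literal `PolyC`

**`omB_of_close`**, **`polyC_of_close`** : nondegenerate deep mark + closeness on its base box ⊢
`Tl102.PolyC`.
-/

set_option autoImplicit false
set_option linter.unusedVariables false

namespace Crest.Agent.R136.TL650

open Crest.Agent.R136.Sh605
open Crest.Agent.R136.Tl102
open Crest.Agent.R136.Arc880 (det3)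
open Crest.Agent.R136.KapP335 (kapP DetP expP expP_spec kapP_eq detP_iff)
open Crest.Agent.R136.Tlt51 (Close Shp InP)
open Crest.Agent.R136.K4 (Plk4)

theorem shift_abs {w0 κ Y x y m m' c : ℝ} (hw : 0 < w0) (hκ : 0 < κ) (hY : 0 ≤ Y)
    (h : w0 * |x - m * (κ * y)| ≤ Y) (hm : w0 * κ * |m' - m| ≤ 2 * Y) (hy : |y| ≤ c) :
    w0 * |x - m' * (κ * y)| ≤ (1 + 2 * c) * Y := by
  have hc : 0 ≤ c := (abs_nonneg _).trans hy
  have e : x - m' * (κ * y) = (x - m * (κ * y)) - (m' - m) * (κ * y) := by ring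
  have h1 : |x - m' * (κ * y)| ≤ |x - m * (κ * y)| + |m' - m| * (κ * |y|) := by
    rw [e]
    refine (abs_sub _ _).trans (le_of_eq ?_)
    rw [abs_mul, abs_mul, abs_of_pos hκ]
  have h2 : w0 * (|m' - m| * (κ * |y|)) ≤ 2 * Y * c := by
    calc w0 * (|m' - m| * (κ * |y|)) = w0 * κ * |m' - m| * |y| := by ring
      _ ≤ 2 * Y * c := mul_le_mul hm hy (abs_nonneg _) (by positivity)
  calc w0 * |x - m' * (κ * y)| ≤ w0 * (|x - m * (κ * y)| + |m' - m| * (κ * |y|)) :=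
        mul_le_mul_of_nonneg_left h1 hw.le
    _ = w0 * |x - m * (κ * y)| + w0 * (|m' - m| * (κ * |y|)) := by ring
    _ ≤ _ := by linarith

set_option maxHeartbeats 1000000 in
/-- **two marks: `q' = m q + ω` with small coefficients** -/
theorem omB_of_close {S S' : Plk4} {T : Ln4} {z0 ρ z0' ρ' r r' δ E : ℝ} (hS : Shp S z0 ρ r)
    (hw0 : 0 < S.w 0) (hρ : 0 ≤ ρ) (hT : InP T S z0 ρ) (hS' : Shp S' z0' ρ' r')
    (hw0' : 0 < S'.w 0) (hz : z0' ≤ z0) (hz' : z0 + ρ ≤ z0' + ρ') (hT' : InP T S' z0' ρ')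
    (hκ : 0 < kapP S z0 ρ T) (hδ : 0 < δ) (hdet : DetP δ S z0 ρ T) (hcl : Close E S S' T z0 ρ)
    (hsm : 10 ^ 20 * E ≤ δ ^ 8 * kapP S z0 ρ T)
    {b0 b1 β0 β1 : V3} {G Γ : QF} (hx : IsExp S.q S.e S.w T z0 ρ b0 b1 G)
    (hx2 : IsExp S'.q S.e S.w T z0 ρ β0 β1 Γ) :
    1 / 16 ≤ |β0 0 / b0 0| ∧ |β0 0 / b0 0| ≤ 8 ∧ ∃ X,
      X * (S.w 0 * kap b0 b1 G) ≤ 10 ^ 19 * E / δ ^ 8 ∧
      OmB (kap b0 b1 G) X X X b0 b1 G β0 β1 Γ := by
  obtain ⟨m, m1, m2, m3, -⟩ := close_coef hS hw0 hρ hT hS' hw0' hz hz' hT' hκ hδ hdet hcl hx hx2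
  have P : StP S.e S.c S.w S.q z0 ρ := StP.of_shN hS hw0
  have P' : StP S'.e S'.c S'.w S'.q z0' ρ' := StP.of_shN hS' hw0'
  have Q : StP S'.e S'.c S'.w S'.q z0 ρ := by
    refine ⟨P'.ortho, P'.isQ, P'.pos, ?_, ?_, ?_⟩
    · exact fun z h1 h2 => P'.st0 z (hz.trans h1) (h2.trans hz')
    · exact fun z h1 h2 => P'.st1 z (hz.trans h1) (h2.trans hz')
    · exact fun z h1 h2 => P'.st2 z (hz.trans h1) (h2.trans hz')
  have N : NrmC b0 b1 G := hx.nrmC P hρ (fun z h1 h2 => (hT z h1 h2).1)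
  have hkp : kapP S z0 ρ T = S.w 0 * kap b0 b1 G := kapP_eq hw0.ne' hx
  obtain ⟨κ, hκd⟩ : ∃ κ, κ = kap b0 b1 G := ⟨_, rfl⟩
  rw [hkp] at hsm hκ
  have hk : 0 < kap b0 b1 G := (mul_pos_iff_of_pos_left hw0).1 hκ
  obtain ⟨b0', b1', G', hx'⟩ := exists_isExp P'.isQ S'.e hw0'.ne' T z0 ρ
  have N' : NrmC b0' b1' G' :=
    hx'.nrmC Q hρ (fun z h1 h2 => (hT' z (hz.trans h1) (h2.trans hz')).1)
  obtain ⟨g1, g2⟩ := grad_bd P.ortho P.pos P'.ortho P'.pos (hS'.w0_le.trans hS'.w_le) hS'.w0_le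
    hx2 hx' N'
  obtain ⟨p1, p2, -, -, -, -, -, s1, s2⟩ := N.b1_le
  have hsc := N.sc_le hk
  have hk13 := kap_le N
  have n1 := N.b01
  have n2 := N.b02
  rw [← hκd] at m1 m2 m3 hsm hk hsc hk13 ⊢
  obtain ⟨c1, c2, -, -, q1, q2, q3, q4, q5, q6⟩ := hsc
  have hb : b0 0 ≠ 0 := by
    have : (0 : ℝ) < b0 0 := by linarith
    exact this.ne'
  obtain ⟨Y, hY⟩ : ∃ Y, Y = 10 ^ 17 * E / δ ^ 8 := ⟨_, rfl⟩
  rw [← hY] at m1 m2 m3
  have hY0 : 0 ≤ Y := (mul_nonneg hw0.le (abs_nonneg _)).trans (m1 0)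
  have hδ8 : 0 < δ ^ 8 := by positivity
  have hsm' : 1000 * Y ≤ S.w 0 * κ := by
    have e1 : 1000 * Y = 10 ^ 20 * E / δ ^ 8 := by rw [hY]; ring
    rw [e1, div_le_iff₀ hδ8]
    linarith
  obtain ⟨m', hm'⟩ : ∃ m', m' = β0 0 / b0 0 := ⟨_, rfl⟩
  have hmm : S.w 0 * κ * |m' - m| ≤ 2 * Y := by
    have h0 := m1 0
    rw [tnV_self0 hb] at h0
    simp only [tnV, shB0, Matrix.cons_val] at h0
    have e0 : κ * β0 0 - m * (κ * b0 0) = κ * b0 0 * (m' - m) := by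
      rw [hm']; field_simp
    rw [e0, abs_mul, abs_of_pos (by have : (0 : ℝ) < b0 0 := by linarith
                                    positivity)] at h0
    have h3 : S.w 0 * κ * |m' - m| * (1 / 2) ≤ S.w 0 * κ * |m' - m| * b0 0 :=
      mul_le_mul_of_nonneg_left p1 (by positivity)
    nlinarith
  -- the coefficients after the shift to `m'`
  have t0 : ∀ k, S.w 0 * |tnV κ b0 β0 k - m' * (κ * shB0 b0 k)| ≤ 5 * Y := fun k => by
    have h := m1 k
    rw [tnV_self0 hb] at h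
    exact (shift_abs hw0 hk hY0 h hmm (c1 k)).trans (le_of_eq (by ring))
  have t1 : ∀ k, S.w 0 * |tnV κ b0 β1 k - m' * (κ * scB1 κ b0 b1 k)| ≤ 27 * Y := fun k => by
    have h := m2 k
    rw [tnV_self1 hk.ne' b1] at h
    exact (shift_abs hw0 hk hY0 h hmm (c2 k)).trans (by linarith)
  have tq : ∀ x y : ℝ, |x - m * (κ * y)| ≤ Y / S.w 0 → |y| ≤ 13 →
      S.w 0 * |x - m' * (κ * y)| ≤ 27 * Y := by
    intro x y h hy
    rw [le_div_iff₀ hw0, mul_comm] at h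
    exact (shift_abs hw0 hk hY0 h hmm hy).trans (le_of_eq (by ring))
  rw [tnQ_self hk.ne' G] at m3
  obtain ⟨a1, a2, a3, a4, a5, a6⟩ := m3
  have u1 := tq _ _ a1 (q1.trans (by norm_num))
  have u2 := tq _ _ a2 (q2.trans (by norm_num))
  have u3 := tq _ _ a3 (q3.trans (by norm_num))
  have u4 := tq _ _ a4 (q4.trans (by norm_num))
  have u5 := tq _ _ a5 (q5.trans (by norm_num))
  have u6 := tq _ _ a6 (q6.trans (by norm_num))
  -- conversion to `OmB`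
  have hwk : 0 < S.w 0 * κ := by positivity
  obtain ⟨X, hX⟩ : ∃ X, X = 27 * Y / (S.w 0 * κ) := ⟨_, rfl⟩
  have cv : ∀ x y : ℝ, κ * x = y → S.w 0 * |y| ≤ 27 * Y → |x| ≤ X := by
    intro x y hxy hy
    rw [hX, le_div_iff₀ hwk]
    calc |x| * (S.w 0 * κ) = S.w 0 * |κ * x| := by rw [abs_mul, abs_of_pos hk]; ring
      _ ≤ 27 * Y := by rw [hxy]; exact hy
  have O : OmB κ X X X b0 b1 G β0 β1 Γ := by
    have h5 : 5 * Y ≤ 27 * Y := by linarith
    have hz1 : b0 1 / b0 0 * b0 0 = b0 1 := div_mul_cancel₀ _ hb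
    have hz2 : b0 2 / b0 0 * b0 0 = b0 2 := div_mul_cancel₀ _ hb
    refine ⟨?_, ?_, ?_, ?_, ?_, ?_, ?_, ?_, ?_, ?_, ?_⟩
    · refine cv _ _ ?_ ((t0 1).trans h5)
      simp only [om0, gl, tnV, shB0, Matrix.cons_val, ← hm']
      field_simp
      ring
    · refine cv _ _ ?_ ((t0 2).trans h5)
      simp only [om0, gl, tnV, shB0, Matrix.cons_val, ← hm']
      field_simp
      ring
    · refine cv _ _ ?_ (t1 1)
      simp only [om1, gl, tnV, scB1, shB1, Matrix.cons_val, ← hm']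
      field_simp
      ring
    · refine cv _ _ ?_ (t1 2)
      simp only [om1, gl, tnV, scB1, shB1, Matrix.cons_val, ← hm']
      field_simp
      ring
    · refine cv _ _ ?_ u4
      simp only [omM, gM, QF.comb, tnQ, shG, scG, ← hm']
      field_simp
      ring
    · refine cv _ _ ?_ u5
      simp only [omM, gM, QF.comb, tnQ, shG, scG, ← hm']
      field_simp
      ring
    · refine cv _ _ ?_ u6
      simp only [omM, gM, QF.comb, tnQ, shG, scG, ← hm']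
      field_simp
      ring
    · refine cv _ _ ?_ (t1 0)
      simp only [om1, gl, tnV, scB1, shB1, Matrix.cons_val, ← hm']
      ring
    · refine cv _ _ ?_ u1
      simp only [omM, gM, QF.comb, tnQ, shG, scG, ← hm']
      ring
    · refine cv _ _ ?_ u2
      simp only [omM, gM, QF.comb, tnQ, shG, scG, ← hm']
      ring
    · refine cv _ _ ?_ u3
      simp only [omM, gM, QF.comb, tnQ, shG, scG, ← hm']
      ring
  -- bounds of `m'`
  have hup : |m'| ≤ 8 := by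
    rw [hm', abs_div, abs_of_pos (by linarith : (0 : ℝ) < b0 0), div_le_iff₀ (by linarith)]
    linarith
  have w01 : S.w 0 ≤ S.w 1 := hS.w0_le.trans hS.w_le
  have w02 : S.w 0 ≤ S.w 2 := hS.w0_le
  have lat : ∀ (y b w : ℝ), S.w 0 ≤ w → |b| ≤ 1 → S.w 0 * |y - m' * b| ≤ 5 * Y →
      S.w 0 / w * |y| ≤ |m'| + 13 / 200 := by
    intro y b w hw hb1 hk1
    have hwp : 0 < w := by linarith
    have r : S.w 0 / w ≤ 1 := (div_le_one hwp).2 hw
    have r0 : 0 ≤ S.w 0 / w := by positivity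
    have e1 : |y - m' * b| ≤ 13 / 200 := by
      have h9 : S.w 0 * κ ≤ S.w 0 * 13 := mul_le_mul_of_nonneg_left hk13 hw0.le
      have : S.w 0 * |y - m' * b| ≤ S.w 0 * (13 / 200) := by linarith
      exact le_of_mul_le_mul_left this hw0
    have e2 : |y| ≤ |m'| + 13 / 200 := by
      have e3 : y = m' * b + (y - m' * b) := by ring
      rw [e3]
      refine (abs_add_le _ _).trans ?_
      rw [abs_mul]
      have := mul_le_mul_of_nonneg_left hb1 (abs_nonneg m')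
      linarith
    calc S.w 0 / w * |y| ≤ 1 * |y| := mul_le_mul_of_nonneg_right r (abs_nonneg _)
      _ ≤ _ := by linarith
  have hlow : 1 / 16 ≤ |m'| := by
    have k1 : S.w 0 * |β0 1 - m' * b0 1| ≤ 5 * Y := by
      have h := t0 1
      have e : tnV κ b0 β0 1 - m' * (κ * shB0 b0 1) = β0 1 - m' * b0 1 := by
        simp only [tnV, shB0, Matrix.cons_val, hm']
        field_simp
        ring
      rwa [e] at h
    have k2 : S.w 0 * |β0 2 - m' * b0 2| ≤ 5 * Y := by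
      have h := t0 2
      have e : tnV κ b0 β0 2 - m' * (κ * shB0 b0 2) = β0 2 - m' * b0 2 := by
        simp only [tnV, shB0, Matrix.cons_val, hm']
        field_simp
        ring
      rwa [e] at h
    have l1 := lat _ _ _ w01 n1 k1
    have l2 := lat _ _ _ w02 n2 k2
    have e0 : |β0 0| ≤ 2 * |m'| := by
      have : β0 0 = m' * b0 0 := by rw [hm']; field_simp
      rw [this, abs_mul, abs_of_pos (by linarith : (0 : ℝ) < b0 0)]
      nlinarith [abs_nonneg m']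
    linarith
  rw [← hm']
  refine ⟨hlow, hup, X, ?_, O⟩
  rw [hX, div_mul_cancel₀ _ hwk.ne', hY]
  have : 0 ≤ E / δ ^ 8 := by
    have h7 : 0 ≤ 10 ^ 17 * (E / δ ^ 8) := by
      have e : 10 ^ 17 * (E / δ ^ 8) = Y := by rw [hY]; ring
      rw [e]; exact hY0
    exact (mul_nonneg_iff_of_pos_left (by norm_num)).1 h7
  have e1 : 27 * (10 ^ 17 * E / δ ^ 8) = 27 * 10 ^ 17 * (E / δ ^ 8) := by ring
  have e2 : 10 ^ 19 * E / δ ^ 8 = 10 ^ 19 * (E / δ ^ 8) := by ring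
  rw [e1, e2]
  exact mul_le_mul_of_nonneg_right (by norm_num) this

/-- **`PolyC` from closeness** -/
theorem polyC_of_close {S S' : Plk4} {T : Ln4} {z0 ρ z0' ρ' r r' δ E : ℝ} (hS : Shp S z0 ρ r)
    (hw0 : 0 < S.w 0) (hρ : 0 ≤ ρ) (hT : InP T S z0 ρ) (hS' : Shp S' z0' ρ' r')
    (hw0' : 0 < S'.w 0) (hz : z0' ≤ z0) (hz' : z0 + ρ ≤ z0' + ρ') (hT' : InP T S' z0' ρ')
    (hκ : 0 < kapP S z0 ρ T) (hδ : 0 < δ) (hdet : DetP δ S z0 ρ T) (hcl : Close E S S' T z0 ρ)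
    (hsm : 10 ^ 20 * E ≤ δ ^ 8 * kapP S z0 ρ T) :
    PolyC (10 ^ 19 * E / δ ^ 8) S S' T z0 ρ := fun b0 b1 G b0' b1' G' hx hx' =>
  omB_of_close hS hw0 hρ hT hS' hw0' hz hz' hT' hκ hδ hdet hcl hsm hx hx'

end Crest.Agent.R136.TL650
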