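import Crest.Agent.R136.Asm3_102
import Crest.Agent.R136.TL3_650
import Crest.Agent.R136.Csj2_535

/-!
# R136 (S0187), U5/U6: the tilt block in coefficient form (helper102)

* `polyC_sub` : closeness and non-degeneracy give `PolyC`, over a sub-cell (650's `polyC_of_close`);
* `TiltOKP`, `Tilt4P` (literal of helper555), **`tilt4P_of`** : `Tilt4C` and `NonDeg` give `Tilt4P`.
-/

set_option autoImplicit false
set_option linter.unusedVariables false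

open Finset Filter Topology

namespace Crest.Agent.R136.Tl102

open Crest.Agent.R138.Ex926 (Base U)
open Crest.Agent.R138.Dp76 (Dense)
open Crest.Agent.R138.Dp76
open Crest.Agent.R138.Mk163 (zc zl rho alive own Negl)
open Crest.Agent.R138.ArgM163 (ev_const ev_const_mul log_dpow)
open Crest.Agent.R138.MkRef627 (mem_alive)
open Crest.Agent.R136.MkA627
open Crest.Agent.R136.Sh605
open Crest.Agent.R136.K4 (Plk4)
open Crest.Agent.R136.Top484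
open Crest.Agent.R136.Deep51 (CoinC CloseC dt_exp)
open Crest.Agent.R136.Tlt51 (CompC Agree Shp InP mk4 zx rh TiltOKC Tilt4C NonDeg Close)
open Crest.Agent.R136.KapP335
open Crest.Agent.R136.Cps605
open Crest.Agent.R136.TL650 (polyC_of_close)

/-! ### sub-cells -/

theorem shp_sub {S : Plk4} {z0 ρ z1 ρ1 r : ℝ} (h : Shp S z1 ρ1 r) (h0 : z1 ≤ z0)
    (h1 : z0 + ρ ≤ z1 + ρ1) : Shp S z0 ρ r :=
  { ortho := h.ortho
    isQ := h.isQ
    a_le0 := h.a_le0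
    w0_le := h.w0_le
    w_le := h.w_le
    r0_le := h.r0_le
    st0 := fun z a b => h.st0 z (h0.trans a) (b.trans h1)
    sl1 := fun z a b => h.sl1 z (h0.trans a) (b.trans h1)
    sl2 := fun z a b => h.sl2 z (h0.trans a) (b.trans h1) }

/-- curvature extent and non-degeneracy over a sub-cell -/
theorem kapP_sub {S : Plk4} {T : Ln4} {z0 ρ z1 ρ1 r δ : ℝ} (hr : 0 < r) (hρ : 0 < ρ)
    (hz1 : z1 ≤ z0) (hz1' : z0 + ρ ≤ z1 + ρ1) (hS : Shp S z1 ρ1 r) (hT : InP T S z1 ρ1)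
    (hκ : 0 < kapP S z1 ρ1 T) (hdet : DetP δ S z1 ρ1 T) :
    0 < kapP S z0 ρ T ∧ ρ / ρ1 * kapP S z1 ρ1 T ≤ 160 * kapP S z0 ρ T ∧
      DetP ((ρ / ρ1) ^ 2 / 40 ^ 3 * δ) S z0 ρ T := by
  have hw0 : 0 < S.w 0 := hr.trans_le (hS.r0_le.trans hS.a_le0)
  have hρ1 : 0 < ρ1 := by linarith
  have P := StP.of_shN hS hw0
  obtain ⟨b0, b1, G, hE⟩ := exists_isExp P.isQ S.e hw0.ne' T z1 ρ1
  have N := hE.nrmC P hρ1.le (fun z h1 h2 => (hT z h1 h2).1)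
  obtain ⟨m0, m1, m2⟩ := hgt_mem (z0' := z1) (z0 := z0) hρ1 hρ.le hz1 hz1'
  have hEs := isExp_mono (z0 := z0) (ρ := ρ) hE hρ1.ne'
  have hτ0 : 0 < ρ / ρ1 := div_pos hρ hρ1
  rw [kapP_eq hw0.ne' hE] at hκ ⊢
  rw [kapP_eq hw0.ne' hEs]
  have hk : 0 < kap b0 b1 G := (mul_pos_iff_of_pos_left hw0).1 hκ
  obtain ⟨k1, k2⟩ := nd_mono N m0 hτ0 m2 hk ((detP_iff hw0.ne' hE δ).1 hdet)
  have k3 := kap_le_sub N m0 hτ0.le m2
  refine ⟨mul_pos hw0 k1, ?_, (detP_iff hw0.ne' hEs _).2 k2⟩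
  have := mul_le_mul_of_nonneg_left k3 hw0.le
  linarith

/-- **closeness and non-degeneracy of the base sheet give the coefficient form**, over a sub-cell -/
theorem polyC_sub {S S' : Plk4} {T : Ln4} {z0 ρ z1 ρ1 z2 ρ2 r δ t E E' : ℝ} (hr : 0 < r)
    (hρ : 0 < ρ) (hz1 : z1 ≤ z0) (hz1' : z0 + ρ ≤ z1 + ρ1) (hz2 : z2 ≤ z0)
    (hz2' : z0 + ρ ≤ z2 + ρ2) (hS : Shp S z1 ρ1 r) (hS' : Shp S' z2 ρ2 r) (hT : InP T S z1 ρ1)
    (hT' : InP T S' z2 ρ2) (ht : 0 < t) (ht' : t * ρ1 ≤ ρ) (hδ : 0 < δ)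
    (hdet : DetP δ S z1 ρ1 T) (hcl : CloseC S.e S.w S.q S.a S'.q E T z0 ρ) (hE'0 : 0 < E')
    (hE : 10 ^ 62 * E ≤ t ^ 17 * δ ^ 8 * E') (hk : E' ≤ kapP S z1 ρ1 T) :
    PolyC E' S S' T z0 ρ := by
  have hw0 : 0 < S.w 0 := hr.trans_le (hS.r0_le.trans hS.a_le0)
  have hw0' : 0 < S'.w 0 := hr.trans_le (hS'.r0_le.trans hS'.a_le0)
  have hρ1 : 0 < ρ1 := by linarith
  obtain ⟨k1, k2, k3⟩ := kapP_sub hr hρ hz1 hz1' hS hT (hE'0.trans_le hk) hdet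
  have htr : t ≤ ρ / ρ1 := by rw [le_div_iff₀ hρ1]; exact ht'
  have ht1 : t ≤ 1 := by
    refine htr.trans ?_
    rw [div_le_one hρ1]; linarith
  set δ' : ℝ := t ^ 2 / 40 ^ 3 * δ with hδ'
  have hδ'0 : 0 < δ' := by rw [hδ']; positivity
  have hd : DetP δ' S z0 ρ T := k3.mono (by
    rw [hδ']
    have : t ^ 2 ≤ (ρ / ρ1) ^ 2 := pow_le_pow_left₀ ht.le htr 2
    gcongr)
  have e8 : δ' ^ 8 = t ^ 16 * δ ^ 8 / 64000 ^ 8 := by rw [hδ']; ring
  have hκ1 : t * kapP S z1 ρ1 T ≤ 160 * kapP S z0 ρ T :=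
    (mul_le_mul_of_nonneg_right htr (hE'0.le.trans hk)).trans k2
  have hq : 10 ^ 62 * E ≤ t ^ 16 * δ ^ 8 * (t * kapP S z1 ρ1 T) := by
    calc 10 ^ 62 * E ≤ t ^ 17 * δ ^ 8 * E' := hE
      _ ≤ t ^ 17 * δ ^ 8 * kapP S z1 ρ1 T := mul_le_mul_of_nonneg_left hk (by positivity)
      _ = _ := by ring
  have hsm : 10 ^ 20 * E ≤ δ' ^ 8 * kapP S z0 ρ T := by
    have h1 : t ^ 16 * δ ^ 8 * (t * kapP S z1 ρ1 T) ≤ t ^ 16 * δ ^ 8 * (160 * kapP S z0 ρ T) :=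
      mul_le_mul_of_nonneg_left hκ1 (by positivity)
    have h2 : 0 ≤ t ^ 16 * δ ^ 8 * kapP S z0 ρ T := by positivity
    have h3 := hq.trans h1
    rw [e8]
    have h4 : t ^ 16 * δ ^ 8 / 64000 ^ 8 * kapP S z0 ρ T =
        t ^ 16 * δ ^ 8 * kapP S z0 ρ T / 64000 ^ 8 := by ring
    rw [h4, le_div_iff₀ (by norm_num)]
    have h5 : 10 ^ 62 * E ≤ 160 * (t ^ 16 * δ ^ 8 * kapP S z0 ρ T) := by linarith
    rcases le_total E 0 with hE0 | hE0
    · have : 10 ^ 20 * E * 64000 ^ 8 ≤ 0 := by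
        have : 10 ^ 20 * E * 64000 ^ 8 = (10 ^ 20 * 64000 ^ 8) * E := by ring
        rw [this]
        exact mul_nonpos_of_nonneg_of_nonpos (by norm_num) hE0
      linarith
    · have h6 : 10 ^ 20 * E * 64000 ^ 8 ≤ (10 ^ 62 / 160) * E := by
        have : 10 ^ 20 * E * 64000 ^ 8 = (10 ^ 20 * 64000 ^ 8) * E := by ring
        rw [this]
        exact mul_le_mul_of_nonneg_right (by norm_num) hE0
      linarith
  refine (polyC_of_close (shp_sub hS hz1 hz1') hw0 hρ.le (inSheet_mono hT hz1 hz1') hS' hw0' hz2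
    hz2' hT' k1 hδ'0 hd hcl hsm).mono ?_
  rw [e8]
  have hp : 0 < t ^ 16 * δ ^ 8 := by positivity
  rw [div_le_iff₀ (by positivity)]
  have h1 : t ^ 17 * δ ^ 8 * E' ≤ t ^ 16 * δ ^ 8 * E' := by
    have : t ^ 17 * δ ^ 8 * E' = t * (t ^ 16 * δ ^ 8 * E') := by ring
    rw [this]
    exact mul_le_of_le_one_left (by positivity) ht1
  have h2 : 10 ^ 62 * E ≤ t ^ 16 * δ ^ 8 * E' := hE.trans h1
  have h3 : 0 ≤ t ^ 16 * δ ^ 8 * E' := by positivity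
  have h4 : E' * (t ^ 16 * δ ^ 8 / 64000 ^ 8) = t ^ 16 * δ ^ 8 * E' / 64000 ^ 8 := by ring
  rw [h4, le_div_iff₀ (by norm_num)]
  rcases le_total E 0 with hE0 | hE0
  · have : 10 ^ 19 * E * 64000 ^ 8 ≤ 0 := by
      have : 10 ^ 19 * E * 64000 ^ 8 = (10 ^ 19 * 64000 ^ 8) * E := by ring
      rw [this]
      exact mul_nonpos_of_nonneg_of_nonpos (by norm_num) hE0
    linarith
  · have h6 : 10 ^ 19 * E * 64000 ^ 8 ≤ 10 ^ 62 * E := by
      have : 10 ^ 19 * E * 64000 ^ 8 = (10 ^ 19 * 64000 ^ 8) * E := by ring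
      rw [this]
      exact mul_le_mul_of_nonneg_right (by norm_num) hE0
    linarith

/-! ### the literals -/

/-- the marks of the levels `u < v` of the incidence `x` agree up to `E`, coefficient form -/
structure TiltOKP (D : Dat4) (E : ℝ) (u v : ℚ) (n : ℕ) (x : ℕ × ℝ) : Prop
    extends TiltOKC D E u v n x where
  poly : E * max (D.w 0 n u) (D.w 0 n v) ≤
      kapP (mk4 D n v x) (zx D n v x) (rh D n v) (D.L n x.1) →
    PolyC (E * max (D.w 0 n u) (D.w 0 n v)) (mk4 D n v x) (mk4 D n u x) (D.L n x.1) (zx D n v x)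
      (rh D n v)
  poly' : E * max (D.w 0 n u) (D.w 0 n v) ≤
      kapP (mk4 D n u x) (zx D n u x) (rh D n u) (D.L n x.1) →
    PolyC (E * max (D.w 0 n u) (D.w 0 n v)) (mk4 D n u x) (mk4 D n v x) (D.L n x.1) (zx D n v x)
      (rh D n v)

/-- **TILT** for curved pairs, coefficient form -/
def Tilt4P : Prop :=
  ∃ η : ℝ, 0 < η ∧ ∀ (p : Par4) (D : Dat4), J1 η p D → ∃ C : ℝ, 0 ≤ C ∧
    ∀ u v : ℚ, 0 ≤ u → u < v → v ≤ 1 → ∀ ε : ℝ, 0 < ε → Negl D.B D.I fun n x =>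
      D.B.d n ^ (-(C * ((v : ℝ) - u)) - ε) * max (D.w 0 n u) (D.w 0 n v) ≤
        max (kapP (mk4 D n v x) (zx D n v x) (rh D n v) (D.L n x.1))
          (kapP (mk4 D n u x) (zx D n u x) (rh D n u) (D.L n x.1)) ∧
      ¬ TiltOKP D (D.B.d n ^ (-(C * ((v : ℝ) - u)) - ε)) u v n x

theorem tiltOKC_mono {D : Dat4} {E E' : ℝ} {u v : ℚ} {n : ℕ} {x : ℕ × ℝ}
    (h : TiltOKC D E u v n x) (hE : E ≤ E') (h0 : 0 ≤ max (D.w 0 n u) (D.w 0 n v))
    (h1 : 0 ≤ max (D.w 2 n u / D.w 1 n u) (D.w 2 n v / D.w 1 n v)) : TiltOKC D E' u v n x where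
  close := fun z a b y hy hq => (h.close z a b y hy hq).trans (mul_le_mul_of_nonneg_right hE h0)
  close' := fun z a b y hy hq => (h.close' z a b y hy hq).trans (mul_le_mul_of_nonneg_right hE h0)
  ang := fun i hi => ⟨(h.ang i hi).1.trans (mul_le_mul_of_nonneg_right hE h1),
    (h.ang i hi).2.trans (mul_le_mul_of_nonneg_right hE h1)⟩

theorem rho_pos' (i : ℕ) : 0 < rho i := by unfold Crest.Agent.R138.Mk163.rho; positivity

theorem dpow_natpow (B : Base) (n : ℕ) (a : ℝ) (k : ℕ) : (B.d n ^ a) ^ k = B.d n ^ ((k : ℝ) * a) := by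
  rw [← Real.rpow_natCast, ← Real.rpow_mul (B.pos n).le, mul_comm]

/-- `J1c` is monotone in `η` -/
theorem J1c_mono {η η' : ℝ} {p : Par4} {D : Dat4} (h : J1c η p D) (hle : η ≤ η') :
    J1c η' p D := by
  have hq2 := h.q2.1
  have hg := h.g0.1
  have hq1 := h.g0.2
  obtain ⟨qm, qp, e1, e2, e3⟩ := h.dall
  exact { h with
    dall := ⟨qm, qp, e1.mono hle, e2, e3⟩
    q0 := ⟨h.q0.1, h.q0.2.trans (mul_le_mul_of_nonneg_right hle hq2.le)⟩
    q2 := ⟨h.q2.1, h.q2.2.trans (mul_le_mul_of_nonneg_right hle hg.le)⟩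
    q21 := h.q21.trans (mul_le_mul_of_nonneg_right hle hq1.le)
    θb := h.θb.trans (mul_le_mul_of_nonneg_right hle hg.le)
    θ1b := ⟨h.θ1b.1.trans (mul_le_mul_of_nonneg_right hle hg.le),
      h.θ1b.2.trans (mul_le_mul_of_nonneg_right hle hg.le)⟩ }

/-- `J1` is monotone in `η` -/
theorem J1_mono {η η' : ℝ} {p : Par4} {D : Dat4} (h : J1 η p D) (hη : 0 < η) (hle : η ≤ η') :
    J1 η' p D where
  toJ1c := J1c_mono h.toJ1c hle
  g1 := h.g1.trans (mul_le_mul_of_nonneg_right hle h.g0.2.le)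
  gq := h.gq.trans (mul_le_mul_of_nonneg_right hle (mul_nonneg h.g0.2.le h.q2.1.le))

/-- the marks of the incidences -/
theorem J1_mark {η : ℝ} {p : Par4} {D : Dat4} (h : J1c η p D) {v : ℚ} (hv0 : 0 ≤ v) (hv1 : v ≤ 1) :
    ∀ᶠ n in (U : Filter ℕ), ∀ x ∈ D.I n,
      InP (D.L n x.1) (mk4 D n v x) (zx D n v x) (rh D n v) ∧
      Shp (mk4 D n v x) (zx D n v x) (rh D n v) (D.r0 n) ∧
      (mk4 D n v x).a = D.w 0 n v ∧ (mk4 D n v x).w 1 = D.w 1 n v ∧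
      (mk4 D n v x).w 2 = D.w 2 n v := by
  filter_upwards [h.mka.mark v hv0 hv1] with n hn x hx
  have hal : x.1 ∈ alive (D.I n) (D.lev n v) (zc (D.lev n v) x.2) :=
    mem_alive.2 ⟨x, hx, rfl, rfl⟩
  obtain ⟨h1, h2, h3, h4⟩ := hn _ _ hal
  exact ⟨h1, h2.1, h4 0, h4 1, h4 2⟩

/-- the ratio of the cells of two levels -/
theorem J1_rho {η : ℝ} {p : Par4} {D : Dat4} (h : J1c η p D) {u v : ℚ} (hu : 0 ≤ u) (huv : u ≤ v)
    (hv : v ≤ 1) {ε : ℝ} (hε : 0 < ε) : ∀ᶠ n in (U : Filter ℕ),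
      D.B.d n ^ ((v : ℝ) - u + ε) * rho (D.lev n u) ≤ rho (D.lev n v) := by
  filter_upwards [h.mka.lev_mono u v hu huv hv,
    (h.mka.lev_lim u v hu huv hv).eventually (gt_mem_nhds (show (v : ℝ) - u < v - u + ε by linarith))]
    with n h1 h2
  have hL := D.B.L_pos n
  rw [div_lt_iff₀ hL] at h2
  unfold Crest.Agent.R138.Mk163.rho
  rw [mul_one_div, div_le_div_iff₀ (by positivity) (by positivity), one_mul]
  have e1 : (2 : ℝ) ^ D.lev n v = 2 ^ (D.lev n v - D.lev n u) * 2 ^ D.lev n u := by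
    rw [← pow_add]; congr 1; omega
  rw [e1, ← mul_assoc]
  have hp : (0 : ℝ) < 2 ^ D.lev n u := by positivity
  refine (mul_le_mul_of_nonneg_right ?_ hp.le).trans (le_of_eq (one_mul _))
  have h3 : 0 < D.B.d n ^ ((v : ℝ) - u + ε) := dpow_pos D.B n _
  rw [← Real.log_le_log_iff (by positivity) one_pos, Real.log_one,
    Real.log_mul h3.ne' (by positivity), log_dpow, Real.log_pow]
  have e2 : ((D.lev n v - D.lev n u : ℕ) : ℝ) = (D.lev n v : ℝ) - D.lev n u := by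
    push_cast [Nat.cast_sub h1]; ring
  rw [e2]
  linarith

/-- body of `Tilt4C kapP` -/
def BodyC (D : Dat4) : Prop := ∃ C : ℝ, 0 ≤ C ∧
    ∀ u v : ℚ, 0 ≤ u → u < v → v ≤ 1 → ∀ ε : ℝ, 0 < ε → Negl D.B D.I fun n x =>
      D.B.d n ^ (-(C * ((v : ℝ) - u)) - ε) * max (D.w 0 n u) (D.w 0 n v) ≤
        max (kapP (mk4 D n v x) (zx D n v x) (rh D n v) (D.L n x.1))
          (kapP (mk4 D n u x) (zx D n u x) (rh D n u) (D.L n x.1)) ∧
      ¬ TiltOKC D (D.B.d n ^ (-(C * ((v : ℝ) - u)) - ε)) u v n x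

/-- body of `Tilt4P` -/
def BodyP (D : Dat4) : Prop := ∃ C : ℝ, 0 ≤ C ∧
    ∀ u v : ℚ, 0 ≤ u → u < v → v ≤ 1 → ∀ ε : ℝ, 0 < ε → Negl D.B D.I fun n x =>
      D.B.d n ^ (-(C * ((v : ℝ) - u)) - ε) * max (D.w 0 n u) (D.w 0 n v) ≤
        max (kapP (mk4 D n v x) (zx D n v x) (rh D n v) (D.L n x.1))
          (kapP (mk4 D n u x) (zx D n u x) (rh D n u) (D.L n x.1)) ∧
      ¬ TiltOKP D (D.B.d n ^ (-(C * ((v : ℝ) - u)) - ε)) u v n x

/-- **the tilt block in coefficient form**, for one sequence -/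
theorem bodyP_of {η : ℝ} {p : Par4} {D : Dat4} (hJ : J1c η p D) (hT : BodyC D)
    (hN : ∀ v : ℚ, 0 ≤ v → v ≤ 1 → ∀ ε : ℝ, 0 < ε → Negl D.B D.I fun n x =>
      D.B.d n ^ (-ε) * (mk4 D n v x).a < kapP (mk4 D n v x) (zx D n v x) (rh D n v) (D.L n x.1) ∧
        ¬ DetP (D.B.d n ^ ε) (mk4 D n v x) (zx D n v x) (rh D n v) (D.L n x.1)) : BodyP D := by
  obtain ⟨C0, hC0, hT⟩ := hT
  refine ⟨C0 + 17, by positivity, fun u v hu huv hv ε hε => ?_⟩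
  have hv0 : (0 : ℚ) ≤ v := hu.trans huv.le
  have hu1 : u ≤ 1 := huv.le.trans hv
  have huv' : (0 : ℝ) < (v : ℝ) - u := by
    have : (u : ℝ) < v := by exact_mod_cast huv
    linarith
  set ε1 : ℝ := ε / 100 with hε1
  have hε1p : 0 < ε1 := by positivity
  refine ((hT u v hu huv hv ε1 hε1p).or ((hN v hv0 hv ε1 hε1p).or
    (hN u hu hu1 ε1 hε1p))).mono ?_
  filter_upwards [J1_mark hJ hv0 hv, J1_mark hJ hu hu1, J1_rho hJ hu huv.le hv hε1p,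
    hJ.mka.lev_mono u v hu huv.le hv, hJ.mka.wpos 0 u hu hu1, hJ.mka.wpos 0 v hv0 hv,
    hJ.mka.wpos 1 u hu hu1, hJ.mka.wpos 1 v hv0 hv, hJ.mka.wpos 2 u hu hu1,
    hJ.mka.wpos 2 v hv0 hv,
    ev_const D.B (C := 10 ^ 62) (by norm_num) (show 0 < ε / 2 by positivity)]
    with n m1 m2 m3 m4 a1 a2 a3 a4 a5 a6 m5 x hx hbad
  obtain ⟨i1, s1, ea1, eb1, ec1⟩ := m1 x hx
  obtain ⟨i2, s2, ea2, eb2, ec2⟩ := m2 x hx
  by_contra hcon
  push Not at hcon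
  obtain ⟨c1, c2, c3⟩ := hcon
  set M := max (D.w 0 n u) (D.w 0 n v) with hM
  have hM0 : 0 < M := a1.trans_le (le_max_left _ _)
  obtain ⟨hb1, hb2⟩ := hbad
  set E := D.B.d n ^ (-((C0 + 17) * ((v : ℝ) - u)) - ε) with hEd
  set E0 := D.B.d n ^ (-(C0 * ((v : ℝ) - u)) - ε1) with hE0d
  have hE0p : 0 < E0 := dpow_pos _ _ _
  have hEp : 0 < E := dpow_pos _ _ _
  have hEE : E0 ≤ E := dpow_le D.B n (by nlinarith)
  have hok : TiltOKC D E0 u v n x := c1 ((mul_le_mul_of_nonneg_right hEE hM0.le).trans hb1)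
  apply hb2
  -- the cells
  obtain ⟨-, -, -, -, -, -, -, -, z1, z2⟩ := Csj535.cell_sub m4 x.2
  have hrv : 0 < rh D n v := rho_pos' _
  have hru : 0 < rh D n u := rho_pos' _
  have key : 10 ^ 62 * (E0 * M) ≤ (D.B.d n ^ ((v : ℝ) - u + ε1)) ^ 17 * (D.B.d n ^ ε1) ^ 8 *
      (E * M) := by
    have e1 : (D.B.d n ^ ((v : ℝ) - u + ε1)) ^ 17 * (D.B.d n ^ ε1) ^ 8 * E =
        D.B.d n ^ (17 * ((v : ℝ) - u + ε1) + 8 * ε1 + (-((C0 + 17) * ((v : ℝ) - u)) - ε)) := by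
      rw [hEd, dpow_natpow, dpow_natpow, dpow_add, dpow_add]
      push_cast
      ring
    have e2 : D.B.d n ^ (-(ε / 2)) * E0 ≤ D.B.d n ^ (17 * ((v : ℝ) - u + ε1) + 8 * ε1 +
        (-((C0 + 17) * ((v : ℝ) - u)) - ε)) := by
      rw [hE0d, ← dpow_add]
      refine dpow_le D.B n ?_
      rw [hε1]; nlinarith
    calc 10 ^ 62 * (E0 * M) ≤ D.B.d n ^ (-(ε / 2)) * (E0 * M) :=
          mul_le_mul_of_nonneg_right m5 (by positivity)
      _ = D.B.d n ^ (-(ε / 2)) * E0 * M := by ring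
      _ ≤ _ := mul_le_mul_of_nonneg_right e2 hM0.le
      _ = _ := by rw [← e1]; ring
  have hcurv : ∀ w : ℚ, D.w 0 n w ≤ M → (mk4 D n w x).a = D.w 0 n w →
      E * M ≤ kapP (mk4 D n w x) (zx D n w x) (rh D n w) (D.L n x.1) →
      D.B.d n ^ (-ε1) * (mk4 D n w x).a < kapP (mk4 D n w x) (zx D n w x) (rh D n w) (D.L n x.1) := by
    intro w hw hw' hk
    refine lt_of_lt_of_le ?_ hk
    rw [hw']
    have h1 : D.B.d n ^ (-ε1) < E := by
      have h2 : (10 : ℝ) ^ 62 * E0 ≤ (D.B.d n ^ ((v : ℝ) - u + ε1)) ^ 17 * (D.B.d n ^ ε1) ^ 8 * E := by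
        have : 10 ^ 62 * E0 * M ≤ (D.B.d n ^ ((v : ℝ) - u + ε1)) ^ 17 * (D.B.d n ^ ε1) ^ 8 * E * M := by
          linarith [key]
        exact le_of_mul_le_mul_right this hM0
      have h3 : (D.B.d n ^ ((v : ℝ) - u + ε1)) ^ 17 * (D.B.d n ^ ε1) ^ 8 * E ≤ 1 * E := by
        apply mul_le_mul_of_nonneg_right _ hEp.le
        exact mul_le_one₀ (pow_le_one₀ (dpow_pos _ _ _).le (dpow_le_one D.B n (by positivity)))
          (by have := dpow_pos D.B n ε1; positivity)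
          (pow_le_one₀ (dpow_pos _ _ _).le (dpow_le_one D.B n hε1p.le))
      have h4 : D.B.d n ^ (-ε1) ≤ E0 := dpow_le D.B n (by nlinarith)
      linarith
    calc D.B.d n ^ (-ε1) * D.w 0 n w ≤ D.B.d n ^ (-ε1) * M :=
          mul_le_mul_of_nonneg_left hw (dpow_pos _ _ _).le
      _ < E * M := mul_lt_mul_of_pos_right h1 hM0
  have hd1 : 0 < D.B.d n ^ ε1 := dpow_pos _ _ _
  have ht1 : 0 < D.B.d n ^ ((v : ℝ) - u + ε1) := dpow_pos _ _ _
  refine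
    { toTiltOKC := tiltOKC_mono hok hEE hM0.le (le_max_of_le_left (div_pos a5 a3).le)
      poly := fun hk => ?_
      poly' := fun hk => ?_ }
  · have hdet : DetP (D.B.d n ^ ε1) (mk4 D n v x) (zx D n v x) (rh D n v) (D.L n x.1) :=
      c2 (hcurv v (le_max_right _ _) ea1 hk)
    refine polyC_sub (hJ.r0pos n) hrv le_rfl le_rfl z1 z2 s1 s2 i1 i2 ht1 ?_ hd1 hdet hok.close
      (by positivity) key hk
    refine mul_le_of_le_one_left hrv.le (dpow_le_one D.B n (by positivity))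
  · have hdet : DetP (D.B.d n ^ ε1) (mk4 D n u x) (zx D n u x) (rh D n u) (D.L n x.1) :=
      c3 (hcurv u (le_max_left _ _) ea2 hk)
    exact polyC_sub (hJ.r0pos n) hrv z1 z2 le_rfl le_rfl s2 s1 i2 i1 ht1 m3 hd1 hdet hok.close'
      (by positivity) key hk

/-- **the tilt block in coefficient form** -/
theorem tilt4P_of (hT : Tilt4C kapP) (hN : NonDeg kapP DetP) : Tilt4P := by
  obtain ⟨η1, hη1, hT⟩ := hT
  obtain ⟨η2, hη2, hN⟩ := hN
  have hm : 0 < min η1 η2 := lt_min hη1 hη2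
  exact ⟨min η1 η2, hm, fun p D hJ => bodyP_of hJ.toJ1c
    (hT p D (J1_mono hJ hm (min_le_left _ _))) (hN p D (J1_mono hJ hm (min_le_right _ _)))⟩

end Crest.Agent.R136.Tl102
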