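import Mathlib
import Crest.Agent.R138.ArgM1_163

/-!
# R136 (U5 TILT), last assembly, part 1: pigeonhole over dyadic parameters, numerical end (helper51)
-/

set_option autoImplicit false
set_option linter.unusedVariables false

open Finset Filter Topology

namespace Crest.Agent.R136.Asy51

open Crest.Agent.R138.Ex926 (Base U)
open Crest.Agent.R138.Dp76 (Dense dense_of_sub dpow_pos dpow_add)
open Crest.Agent.R138.Mk163 (Negl)

/-- **pigeonhole**: a label with `O(log (1/d))` values is constant on a dense part. -/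
theorem dense_pigeon {B : Base} {J : ℕ → Finset (ℕ × ℝ)} {F : ℕ → ℕ × ℝ → ℕ} {M : ℝ} (hM : 1 ≤ M)
    (h : ∀ᶠ n in (U : Filter ℕ), ∀ x ∈ J n, (F n x : ℝ) ≤ M * B.L n) :
    ∃ k : ℕ → ℕ, Dense B (fun n => (J n).filter fun x => F n x = k n) J := by
  have key : ∀ n, ∃ k : ℕ, (∀ x ∈ J n, (F n x : ℝ) ≤ M * B.L n) →
      ((J n).card : ℝ) ≤ (M * (1 + B.L n)) * (((J n).filter fun x => F n x = k).card : ℝ) := by
    intro n
    by_cases hn : ∀ x ∈ J n, (F n x : ℝ) ≤ M * B.L n
    swap
    · exact ⟨0, fun h' => absurd h' hn⟩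
    have hL := B.L_pos n
    set R := Finset.range (⌊M * B.L n⌋₊ + 1) with hR
    have hmap : ∀ x ∈ J n, F n x ∈ R := by
      intro x hx
      rw [hR, mem_range]
      exact Nat.lt_succ_of_le (Nat.le_floor (hn x hx))
    have hsum := card_eq_sum_card_fiberwise (f := F n) (s := J n) (t := R)
      (fun x hx => mem_coe.2 (hmap x hx))
    have hRne : R.Nonempty := ⟨0, by rw [hR, mem_range]; omega⟩
    obtain ⟨k, hk, hmax⟩ := exists_max_image R
      (fun k => ((J n).filter fun x => F n x = k).card) hRne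
    refine ⟨k, fun _ => ?_⟩
    have h1 : (J n).card ≤ R.card * ((J n).filter fun x => F n x = k).card := by
      rw [hsum, ← smul_eq_mul]
      exact sum_le_card_nsmul _ _ _ fun j hj => hmax j hj
    have h2 : ((J n).card : ℝ) ≤ (R.card : ℝ) * (((J n).filter fun x => F n x = k).card : ℝ) := by
      exact_mod_cast h1
    refine h2.trans (mul_le_mul_of_nonneg_right ?_ (Nat.cast_nonneg _))
    rw [hR, card_range]
    push_cast
    have := Nat.floor_le (show 0 ≤ M * B.L n by positivity)
    nlinarith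
  choose k hk using key
  refine ⟨k, ?_⟩
  have hS : B.Sub (fun n => M * (1 + B.L n)) :=
    (Base.Sub.const (by linarith)).mul Base.Sub.one_add_L
  refine dense_of_sub hS ?_
  filter_upwards [h] with n hn
  exact ⟨filter_subset _ _, hk n hn⟩

/-- **numerical end** of the deep count -/
theorem num_end {q : Fin 3 → ℝ} {g ε c s lam τ θ Y N CB : ℝ} (hq : ∀ k, 0 ≤ q k)
    (hq1 : 0 < q 1) (hg : 0 ≤ g) (hε : 0 ≤ ε) (hc : 0 < c) (hc1 : c ≤ 1)
    (h1 : 8 * (g + ε + q 0) + 8 * q 2 ≤ q 1) (h2 : 32 * (g + ε + q 0) ≤ q 1 * c)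
    (hs : 0 < s) (hl : 1 ≤ lam) (hτ : 0 < τ) (hY : 1 ≤ Y) (hN : 1 ≤ N) (hCB : 1 ≤ CB)
    (k1 : τ * lam ≤ CB) (k2 : τ * (2 * s) ^ (-c) ≤ CB) (k3 : θ ≤ 0 ∨ θ * (2 * s) ^ (-c) ≤ CB)
    (H : 1 ≤ Y * θ ∨ 1 ≤ Y * s ∨ 1 ≤ Y * τ ∨
      1 ≤ Y * N * (lam / s) ^ (2 * (g + ε + q 0)) * lam ^ (2 * q 2) * τ ^ q 1) :
    c * -Real.log (2 * s) ≤ (1 + 2 / q 1) * Real.log (Y * N) + 2 * Real.log CB + 2 := by
  have hl0 : 0 < lam := by linarith
  have hY0 : 0 < Y := by linarith
  have hN0 : 0 < N := by linarith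
  have hCB0 : 0 < CB := by linarith
  have h2s : 0 < 2 * s := by linarith
  have hp : 0 < (2 * s) ^ (-c) := Real.rpow_pos_of_pos h2s _
  have lY := Real.log_nonneg hY
  have lN := Real.log_nonneg hN
  have lCB := Real.log_nonneg hCB
  have ll := Real.log_nonneg hl
  have e2s : Real.log (2 * s) = Real.log 2 + Real.log s :=
    Real.log_mul (by norm_num) hs.ne'
  have l2 : 0 ≤ Real.log 2 := Real.log_nonneg (by norm_num)
  have l2' : Real.log 2 ≤ 1 := by
    have := Real.log_two_lt_d9
    linarith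
  have eYN : Real.log (Y * N) = Real.log Y + Real.log N := Real.log_mul hY0.ne' hN0.ne'
  have epow : Real.log ((2 * s) ^ (-c)) = c * -Real.log (2 * s) := by
    rw [Real.log_rpow h2s]; ring
  set σ' := -Real.log (2 * s) with hσ'
  set T := Real.log CB - Real.log τ with hT
  have T1 : Real.log lam ≤ T := by
    have := Real.log_le_log (by positivity) k1
    rw [Real.log_mul hτ.ne' hl0.ne'] at this
    linarith
  have T2 : c * σ' ≤ T := by
    have := Real.log_le_log (by positivity) k2
    rw [Real.log_mul hτ.ne' hp.ne', epow] at this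
    linarith
  have T0 : 0 ≤ T := ll.trans T1
  have hq2 : 0 ≤ 2 / q 1 := by positivity
  have b1 : 0 ≤ 2 / q 1 * Real.log (Y * N) := mul_nonneg hq2 (by rw [eYN]; linarith)
  have b0 : Real.log Y ≤ Real.log (Y * N) := by rw [eYN]; linarith
  have hring : (1 + 2 / q 1) * Real.log (Y * N) = Real.log (Y * N) + 2 / q 1 * Real.log (Y * N) := by
    ring
  rcases H with H | H | H | H
  · have hθ : 0 < θ := by
      by_contra hcon
      push Not at hcon
      nlinarith
    have k3' : θ * (2 * s) ^ (-c) ≤ CB := by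
      rcases k3 with k3 | k3
      · linarith
      · exact k3
    have a1 := Real.log_le_log (by positivity) k3'
    rw [Real.log_mul hθ.ne' hp.ne', epow] at a1
    have a2 := Real.log_nonneg H
    rw [Real.log_mul hY0.ne' hθ.ne'] at a2
    rw [hring]; linarith
  · have a2 := Real.log_nonneg H
    rw [Real.log_mul hY0.ne' hs.ne'] at a2
    have : σ' ≤ Real.log Y := by rw [hσ', e2s]; linarith
    have : c * σ' ≤ Real.log Y := by
      rcases le_total 0 σ' with h0 | h0
      · exact (mul_le_of_le_one_left h0 hc1).trans this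
      · exact (mul_nonpos_of_nonneg_of_nonpos hc.le h0).trans lY
    rw [hring]; linarith
  · have a2 := Real.log_nonneg H
    rw [Real.log_mul hY0.ne' hτ.ne'] at a2
    rw [hring]; linarith
  · have hls : 0 < lam / s := by positivity
    have p1 : 0 < (lam / s) ^ (2 * (g + ε + q 0)) := Real.rpow_pos_of_pos hls _
    have p2 : 0 < lam ^ (2 * q 2) := Real.rpow_pos_of_pos hl0 _
    have p3 : 0 < τ ^ q 1 := Real.rpow_pos_of_pos hτ _
    have a2 := Real.log_nonneg H
    rw [Real.log_mul (by positivity) p3.ne', Real.log_mul (by positivity) p2.ne',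
      Real.log_mul (by positivity) p1.ne', Real.log_rpow hls, Real.log_rpow hl0, Real.log_rpow hτ,
      Real.log_div hl0.ne' hs.ne'] at a2
    set G := g + ε + q 0 with hG
    have hG0 : 0 ≤ G := by rw [hG]; linarith [hq 0]
    set l := Real.log lam with hld
    have c1 : 2 * G * l + 2 * q 2 * l ≤ q 1 / 4 * T := by
      calc 2 * G * l + 2 * q 2 * l = (2 * G + 2 * q 2) * l := by ring
        _ ≤ q 1 / 4 * l := mul_le_mul_of_nonneg_right (by linarith) ll
        _ ≤ q 1 / 4 * T := mul_le_mul_of_nonneg_left T1 (by linarith)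
    have c2 : 2 * G * σ' ≤ q 1 / 16 * T := by
      rcases le_total 0 σ' with h0 | h0
      · have e1 : 2 * G * σ' ≤ q 1 * c / 16 * σ' := mul_le_mul_of_nonneg_right (by linarith) h0
        have e2 : q 1 / 16 * (c * σ') ≤ q 1 / 16 * T := mul_le_mul_of_nonneg_left T2 (by linarith)
        linarith
      · have e1 : 2 * G * σ' ≤ 0 := mul_nonpos_of_nonneg_of_nonpos (by linarith) h0
        have e2 : 0 ≤ q 1 / 16 * T := by positivity
        linarith
    have c3 : 2 * G * Real.log 2 ≤ q 1 / 4 := by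
      calc 2 * G * Real.log 2 ≤ 2 * G * 1 := mul_le_mul_of_nonneg_left l2' (by linarith)
        _ ≤ q 1 / 4 := by linarith [hq 2]
    have hτl : Real.log τ = Real.log CB - T := by rw [hT]; ring
    have hsl : Real.log s = -σ' - Real.log 2 := by rw [hσ', e2s]; ring
    rw [hτl, hsl] at a2
    have e4 : 2 * G * (l - (-σ' - Real.log 2)) = 2 * G * l + 2 * G * σ' + 2 * G * Real.log 2 := by
      ring
    have e5 : q 1 * (Real.log CB - T) = q 1 * Real.log CB - q 1 * T := by ring
    rw [e4, e5] at a2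
    have c4 : q 1 * T * (11 / 16) ≤ Real.log (Y * N) + q 1 * Real.log CB + q 1 / 4 := by
      linarith
    have c5 : T ≤ 2 / q 1 * Real.log (Y * N) + 2 * Real.log CB + 2 := by
      have : q 1 * T ≤ q 1 * (2 / q 1 * Real.log (Y * N) + 2 * Real.log CB + 2) := by
        have e : q 1 * (2 / q 1 * Real.log (Y * N) + 2 * Real.log CB + 2) =
            2 * Real.log (Y * N) + 2 * (q 1 * Real.log CB) + 2 * q 1 := by
          field_simp
        rw [e]
        have m1 : 0 ≤ Real.log (Y * N) := by rw [eYN]; linarith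
        have m2 : 0 ≤ q 1 * Real.log CB := by positivity
        linarith
      exact le_of_mul_le_mul_left this hq1
    rw [hring]
    have m1 : 0 ≤ Real.log (Y * N) := by rw [eYN]; linarith
    linarith

end Crest.Agent.R136.Asy51
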