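import Mathlib
import Crest.Agent.R136.Deep2_51
import Crest.Agent.R136.Deep0_770

/-!
# R136 (U5 TILT), the engine, finite part (helper904)

`engine_fin` : `J ⊆ I` dense, `P1`, `P2` almost all objects (line, cell) of the levels `m`, `m2` of `J`:
there is a nonempty part `P` of `P1`, all parents at the level `m2` in `P2`, such that the fibres of
`P` over (line, `lv`-cell), over the classes of level `lv` and over the classes of level `lu` are
almost as large as the complete ones.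
-/

set_option autoImplicit false
set_option linter.unusedVariables false
set_option linter.unusedSectionVars false

open Finset Filter Topology

namespace Crest.Agent.R136.Eng904

open Crest.Agent.R138.Ex926 Crest.Agent.R138.Dp76
open Crest.Agent.R138.Mk163 (zc zl rho alive own)
open Crest.Agent.R138.MkRef627 (lc)
open Crest.Agent.R136.Dia770 (extO)
open Crest.Agent.R136.Deep51

open Classical in
/-- the two descriptions of the extended objects agree -/
theorem ext_eq (I : Finset (ℕ × ℝ)) (l1 m : ℕ) : extO I l1 m = deepQ I l1 m := by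
  ext o
  rcases le_total m l1 with h | h
  · rw [Dia770.mem_extO_le h, mem_deepQ]
    unfold Top484.aliveX
    rw [if_pos h, Crest.Agent.R138.TiltU51.mem_alive]
    constructor
    · rintro ⟨x, hx, rfl⟩; exact ⟨x, hx, rfl, rfl⟩
    · rintro ⟨x, hx, h1, h2⟩; exact ⟨x, hx, by unfold lc; rw [h1, h2]⟩
  · rw [Dia770.mem_extO_ge h, mem_deepQ]
    unfold Top484.aliveX
    by_cases h' : m ≤ l1
    · have e : m = l1 := le_antisymm h' h
      subst e
      rw [if_pos le_rfl, Crest.Agent.R138.TiltU51.mem_alive]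
      simp only [Nat.sub_self, pow_zero, Int.ediv_one, Prod.mk.eta]
      constructor
      · rintro ⟨x, hx, rfl⟩; exact ⟨x, hx, rfl, rfl⟩
      · rintro ⟨x, hx, h1, h2⟩; exact ⟨x, hx, by unfold lc; rw [h1, h2]⟩
    · rw [if_neg h', Crest.Agent.R138.TiltU51.mem_alive]
      constructor
      · rintro ⟨x, hx, hxo⟩
        simp only [lc, Prod.mk.injEq] at hxo
        exact ⟨x, hx, hxo.2, hxo.1⟩
      · rintro ⟨x, hx, h1, h2⟩
        exact ⟨x, hx, by simp only [lc, Prod.mk.injEq]; exact ⟨h2, h1⟩⟩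

/-! ### numbers of objects -/

open Classical in
theorem image_card_one {I : Finset (ℕ × ℝ)} {l1 : ℕ}
    (one : ∀ x ∈ I, ∀ y ∈ I, x.1 = y.1 → zc l1 x.2 = zc l1 y.2 → x = y) :
    (I.image (lc l1)).card = I.card := by
  refine card_image_of_injOn ?_
  intro x hx y hy hxy
  simp only [lc, Prod.mk.injEq] at hxy
  exact one x hx y hy hxy.1 hxy.2

open Classical in
theorem ext_low {I : Finset (ℕ × ℝ)} {l1 m : ℕ}
    (one : ∀ x ∈ I, ∀ y ∈ I, x.1 = y.1 → zc l1 x.2 = zc l1 y.2 → x = y) :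
    (2:ℝ) ^ m * (I.card : ℝ) ≤ 2 ^ l1 * ((extO I l1 m).card : ℝ) := by
  rcases le_total m l1 with h | h
  · have h1 : I.card ≤ (extO I l1 m).card * 2 ^ (l1 - m) := by
      have e : extO I l1 m = I.image (lc m) := by unfold extO; rw [if_pos h]
      rw [e, card_eq_sum_card_image (lc m) I]
      refine (Finset.sum_le_card_nsmul _ _ (2 ^ (l1 - m)) fun o _ => ?_).trans
        (le_of_eq (by rw [smul_eq_mul]))
      have h1 : (I.filter fun y => lc m y = o).card =
          ((I.filter fun y => lc m y = o).image fun y => zc l1 y.2).card := by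
        rw [card_image_of_injOn]
        intro a ha c hc hac
        rw [Finset.mem_coe, mem_filter] at ha hc
        have e : a.1 = c.1 := by
          have := ha.2.trans hc.2.symm
          exact (Prod.mk.inj this).1
        exact one a ha.1 c hc.1 e hac
      rw [h1]
      refine card_anc (i := m) (m := l1) _ o.2 fun k hk => ?_
      obtain ⟨y, hy, rfl⟩ := mem_image.1 hk
      rw [mem_filter] at hy
      rw [anc_zc h, ← hy.2]; rfl
    have h2 : (I.card : ℝ) ≤ (extO I l1 m).card * 2 ^ (l1 - m) := by exact_mod_cast h1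
    have e : (2:ℝ) ^ l1 = 2 ^ m * 2 ^ (l1 - m) := by rw [← pow_add]; congr 1; omega
    rw [e]
    calc (2:ℝ) ^ m * (I.card : ℝ) ≤ 2 ^ m * ((extO I l1 m).card * 2 ^ (l1 - m)) :=
          mul_le_mul_of_nonneg_left h2 (by positivity)
      _ = _ := by ring
  · rw [Dia770.card_extO h, image_card_one one]
    push_cast
    have e : (2:ℝ) ^ m = 2 ^ l1 * 2 ^ (m - l1) := by rw [← pow_add]; congr 1; omega
    rw [e]
    exact le_of_eq (by ring)

open Classical in
theorem ext_up {I : Finset (ℕ × ℝ)} {l1 m : ℕ} {X : ℝ} (hX : 1 ≤ X)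
    (one : ∀ x ∈ I, ∀ y ∈ I, x.1 = y.1 → zc l1 x.2 = zc l1 y.2 → x = y)
    (hfib : m ≤ l1 → ∀ x ∈ I, (2:ℝ) ^ (l1 - m) ≤
      X * ((I.filter fun y => lc m y = lc m x).card : ℝ)) :
    2 ^ l1 * ((extO I l1 m).card : ℝ) ≤ X * ((2:ℝ) ^ m * (I.card : ℝ)) := by
  rcases le_total m l1 with h | h
  · have e : extO I l1 m = I.image (lc m) := by unfold extO; rw [if_pos h]
    rw [e]
    have h1 : (2:ℝ) ^ (l1 - m) * ((I.image (lc m)).card : ℝ) ≤ X * (I.card : ℝ) := by
      have e2 : (I.card : ℝ) = ∑ o ∈ I.image (lc m),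
          ((I.filter fun y => lc m y = o).card : ℝ) := by
        rw [card_eq_sum_card_image (lc m) I]; push_cast; rfl
      rw [e2, mul_sum]
      calc (2:ℝ) ^ (l1 - m) * ((I.image (lc m)).card : ℝ)
          = ∑ o ∈ I.image (lc m), (2:ℝ) ^ (l1 - m) := by rw [sum_const, nsmul_eq_mul]; ring
        _ ≤ _ := by
            refine sum_le_sum fun o ho => ?_
            obtain ⟨x, hx, rfl⟩ := mem_image.1 ho
            exact hfib h x hx
    have e3 : (2:ℝ) ^ l1 = 2 ^ m * 2 ^ (l1 - m) := by rw [← pow_add]; congr 1; omega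
    rw [e3]
    calc (2:ℝ) ^ m * 2 ^ (l1 - m) * ((I.image (lc m)).card : ℝ)
        = 2 ^ m * (2 ^ (l1 - m) * ((I.image (lc m)).card : ℝ)) := by ring
      _ ≤ 2 ^ m * (X * (I.card : ℝ)) := mul_le_mul_of_nonneg_left h1 (by positivity)
      _ = _ := by ring
  · rw [Dia770.card_extO h, image_card_one one]
    push_cast
    have e : (2:ℝ) ^ m = 2 ^ l1 * 2 ^ (m - l1) := by rw [← pow_add]; congr 1; omega
    rw [e]
    have h0 : (0:ℝ) ≤ 2 ^ l1 * 2 ^ (m - l1) * (I.card : ℝ) := by positivity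
    calc (2:ℝ) ^ l1 * (2 ^ (m - l1) * (I.card : ℝ)) = 1 * (2 ^ l1 * 2 ^ (m - l1) * (I.card : ℝ)) := by
          ring
      _ ≤ X * (2 ^ l1 * 2 ^ (m - l1) * (I.card : ℝ)) := mul_le_mul_of_nonneg_right hX h0

/-- parent of an object -/
def par (m2 m : ℕ) (o : ℕ × ℤ) : ℕ × ℤ := (o.1, anc m2 m o.2)

theorem par_mem {J : Finset (ℕ × ℝ)} {l1 m2 m : ℕ} (h : m2 ≤ m) {o : ℕ × ℤ}
    (ho : o ∈ extO J l1 m) : par m2 m o ∈ extO J l1 m2 := by
  rcases le_total m2 l1 with h1 | h1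
  · rw [Dia770.mem_extO_le h1]
    obtain ⟨x, hx, e⟩ := Dia770.extO_anc h1 h ho
    exact ⟨x, hx, e⟩
  · rw [Dia770.mem_extO_ge h1]
    obtain ⟨x, hx, e⟩ := (Dia770.mem_extO_ge (h1.trans h)).1 ho
    refine ⟨x, hx, ?_⟩
    rw [e]
    have : anc l1 m o.2 = anc l1 m2 (anc m2 m o.2) := (anc_anc h1 h o.2).symm
    exact Prod.ext rfl this

open Classical in
/-- children of few parents -/
theorem card_children {E : Finset (ℕ × ℤ)} {m2 m : ℕ} {T : Finset (ℕ × ℤ)}
    (hE : ∀ o ∈ E, par m2 m o ∈ T) : E.card ≤ T.card * 2 ^ (m - m2) := by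
  have e : E.card = ∑ r ∈ T, (E.filter fun o => par m2 m o = r).card :=
    card_eq_sum_card_fiberwise fun o ho => hE o ho
  rw [e]
  refine (Finset.sum_le_card_nsmul _ _ (2 ^ (m - m2)) fun r _ => ?_).trans
    (le_of_eq (by rw [smul_eq_mul]))
  have h1 : (E.filter fun o => par m2 m o = r).card =
      ((E.filter fun o => par m2 m o = r).image Prod.snd).card := by
    rw [card_image_of_injOn]
    intro a ha c hc hac
    rw [Finset.mem_coe, mem_filter] at ha hc
    have := ha.2.trans hc.2.symm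
    exact Prod.ext (Prod.mk.inj this).1 hac
  rw [h1]
  refine card_anc (i := m2) (m := m) _ r.2 fun k hk => ?_
  obtain ⟨y, hy, rfl⟩ := mem_image.1 hk
  rw [mem_filter] at hy
  rw [← hy.2]; rfl

open Classical in
/-- **engine, finite part** -/
theorem engine_fin {I J : Finset (ℕ × ℝ)} {lu lv l1 m2 m : ℕ} (hJI : J ⊆ I) (hJ : J.Nonempty)
    (huv : lu ≤ lv) (h1 : lv ≤ l1) (h2 : lv ≤ m2) (h3 : m2 ≤ m)
    (one : ∀ x ∈ I, ∀ y ∈ I, x.1 = y.1 → zc l1 x.2 = zc l1 y.2 → x = y)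
    (fu fv : ℕ → ℤ → ℕ) {X Y Nu Nv η : ℝ} (hX : 1 ≤ X) (hY : 1 ≤ Y) (hη : 0 ≤ η)
    (hηXY : η * (X * Y) ≤ 1 / 4)
    (hdense : (I.card : ℝ) ≤ Y * J.card)
    (hownv : ∀ J', ∀ t ∈ alive I lv J', (2:ℝ) ^ (l1 - lv) ≤ X * ((topc I l1 lv t J').card : ℝ))
    (hownu : ∀ J', ∀ t ∈ alive I lu J', (2:ℝ) ^ (l1 - lu) ≤ X * ((topc I l1 lu t J').card : ℝ))
    (hfib2 : m2 ≤ l1 → ∀ x ∈ I, (2:ℝ) ^ (l1 - m2) ≤
      X * ((I.filter fun y => lc m2 y = lc m2 x).card : ℝ))
    (hfib : m ≤ l1 → ∀ x ∈ I, (2:ℝ) ^ (l1 - m) ≤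
      X * ((I.filter fun y => lc m y = lc m x).card : ℝ))
    (hnearv : ∀ J', ∀ t ∈ alive I lv J',
      Nv ≤ (((alive I lv J').filter fun s => fv s J' = fv t J').card : ℝ))
    (hnearu : ∀ J', ∀ t ∈ alive I lu J',
      Nu ≤ (((alive I lu J').filter fun s => fu s J' = fu t J').card : ℝ))
    {P1 P2 : Finset (ℕ × ℤ)} (hP1 : P1 ⊆ extO J l1 m) (hP2 : P2 ⊆ extO J l1 m2)
    (hc1 : ((extO J l1 m).card : ℝ) ≤ P1.card + 1 / 4 * (extO J l1 m).card)
    (hc2 : ((extO J l1 m2).card : ℝ) ≤ P2.card + η * (extO J l1 m2).card) :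
    ∃ P : Finset (ℕ × ℤ), P.Nonempty ∧ P ⊆ P1 ∧ (∀ o ∈ P, par m2 m o ∈ P2) ∧
      (∀ o ∈ P, (2:ℝ) ^ (m - lv) * Nv ≤ 12 * X ^ 2 * Y *
        ((P.filter fun y => clQ lv m fv y = clQ lv m fv o).card : ℝ)) ∧
      (∀ o ∈ P, (2:ℝ) ^ (m - lu) * Nu ≤ 12 * X ^ 2 * Y *
        ((P.filter fun y => clQ lu m fu y = clQ lu m fu o).card : ℝ)) ∧
      (∀ o ∈ P, (2:ℝ) ^ (m - lv) ≤ 12 * X ^ 2 * Y *
        ((P.filter fun y => y.1 = o.1 ∧ anc lv m y.2 = anc lv m o.2).card : ℝ)) := by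
  have hX0 : 0 < X := by linarith
  have hY0 : 0 < Y := by linarith
  have hXY : 0 < X * Y := mul_pos hX0 hY0
  have hlv : lv ≤ m := h2.trans h3
  have hlu1 : lu ≤ l1 := huv.trans h1
  have hlum : lu ≤ m := huv.trans hlv
  have oneJ : ∀ x ∈ J, ∀ y ∈ J, x.1 = y.1 → zc l1 x.2 = zc l1 y.2 → x = y :=
    fun x hx y hy => one x (hJI hx) y (hJI hy)
  set Q := extO I l1 m with hQ
  set E := extO J l1 m with hE
  set E2 := extO J l1 m2 with hE2
  have hJc : (0:ℝ) < J.card := by exact_mod_cast card_pos.2 hJ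
  have p1 : (0:ℝ) < 2 ^ l1 := by positivity
  have pm : (0:ℝ) < 2 ^ m := by positivity
  have pm2 : (0:ℝ) < 2 ^ m2 := by positivity
  have q1 := ext_low (I := J) (l1 := l1) (m := m) oneJ
  have q2 := ext_up (I := I) (l1 := l1) (m := m) hX one hfib
  have q3 := ext_up (I := I) (l1 := l1) (m := m2) hX one hfib2
  have hEpos : (0:ℝ) < E.card := by
    have : 0 < (2:ℝ) ^ m * (J.card : ℝ) := by positivity
    have h5 := this.trans_le q1
    exact (pos_iff_pos_of_mul_pos h5).1 p1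
  -- the ground set
  have hQE : (Q.card : ℝ) ≤ X * Y * E.card := by
    have h5 : 2 ^ l1 * (Q.card : ℝ) ≤ 2 ^ l1 * (X * Y * E.card) := by
      calc 2 ^ l1 * (Q.card : ℝ) ≤ X * ((2:ℝ) ^ m * (I.card : ℝ)) := q2
        _ ≤ X * ((2:ℝ) ^ m * (Y * (J.card : ℝ))) := by gcongr
        _ = X * Y * ((2:ℝ) ^ m * (J.card : ℝ)) := by ring
        _ ≤ X * Y * (2 ^ l1 * (E.card : ℝ)) := by gcongr
        _ = _ := by ring
    exact le_of_mul_le_mul_left h5 p1
  -- objects of level m2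
  have hE2E : (2:ℝ) ^ (m - m2) * (E2.card : ℝ) ≤ X * Y * E.card := by
    have e : (2:ℝ) ^ m = 2 ^ m2 * 2 ^ (m - m2) := by rw [← pow_add]; congr 1; omega
    have h6 : ((E2.card : ℕ) : ℝ) ≤ ((extO I l1 m2).card : ℝ) := by
      exact_mod_cast card_le_card (Dia770.extO_mono hJI l1 m2)
    have h5 : 2 ^ l1 * 2 ^ m2 * ((2:ℝ) ^ (m - m2) * (E2.card : ℝ)) ≤
        2 ^ l1 * 2 ^ m2 * (X * Y * E.card) := by
      calc 2 ^ l1 * 2 ^ m2 * ((2:ℝ) ^ (m - m2) * (E2.card : ℝ))
          = 2 ^ m * (2 ^ l1 * (E2.card : ℝ)) := by rw [e]; ring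
        _ ≤ 2 ^ m * (2 ^ l1 * ((extO I l1 m2).card : ℝ)) := by gcongr
        _ ≤ 2 ^ m * (X * ((2:ℝ) ^ m2 * (I.card : ℝ))) := by gcongr
        _ ≤ 2 ^ m * (X * ((2:ℝ) ^ m2 * (Y * (J.card : ℝ)))) := by gcongr
        _ = X * Y * 2 ^ m2 * ((2:ℝ) ^ m * (J.card : ℝ)) := by ring
        _ ≤ X * Y * 2 ^ m2 * (2 ^ l1 * (E.card : ℝ)) := by gcongr
        _ = _ := by ring
    exact le_of_mul_le_mul_left h5 (by positivity)
  -- good objects
  set P0 := P1.filter fun o => par m2 m o ∈ P2 with hP0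
  have hP0E : P0 ⊆ E := (filter_subset _ _).trans hP1
  have hbad : ((E \ P0).card : ℝ) ≤ 1 / 2 * E.card := by
    have h5 : E \ P0 ⊆ (E \ P1) ∪ E.filter fun o => par m2 m o ∈ E2 \ P2 := by
      intro o ho
      rw [Finset.mem_sdiff, hP0, mem_filter, not_and] at ho
      rw [Finset.mem_union, Finset.mem_sdiff, mem_filter, Finset.mem_sdiff]
      by_cases h6 : o ∈ P1
      · right
        exact ⟨ho.1, par_mem h3 ho.1, ho.2 h6⟩
      · left; exact ⟨ho.1, h6⟩
    have h6 : ((E \ P0).card : ℝ) ≤ (E \ P1).card +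
        ((E.filter fun o => par m2 m o ∈ E2 \ P2).card : ℝ) := by
      exact_mod_cast (card_le_card h5).trans (Finset.card_union_le _ _)
    have h7 : ((E \ P1).card : ℝ) = E.card - P1.card := by
      rw [Finset.card_sdiff_of_subset hP1, Nat.cast_sub (card_le_card hP1)]
    have h8 : ((E2 \ P2).card : ℝ) = E2.card - P2.card := by
      rw [Finset.card_sdiff_of_subset hP2, Nat.cast_sub (card_le_card hP2)]
    have h9 : ((E.filter fun o => par m2 m o ∈ E2 \ P2).card : ℝ) ≤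
        (E2 \ P2).card * 2 ^ (m - m2) := by
      have := card_children (E := E.filter fun o => par m2 m o ∈ E2 \ P2) (m2 := m2) (m := m)
        (T := E2 \ P2) (fun o ho => (mem_filter.1 ho).2)
      exact_mod_cast this
    have h10 : ((E2 \ P2).card : ℝ) * 2 ^ (m - m2) ≤ 1 / 4 * E.card := by
      calc ((E2 \ P2).card : ℝ) * 2 ^ (m - m2) ≤ (η * E2.card) * 2 ^ (m - m2) := by
            refine mul_le_mul_of_nonneg_right ?_ (by positivity)
            rw [h8]; linarith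
        _ = η * ((2:ℝ) ^ (m - m2) * (E2.card : ℝ)) := by ring
        _ ≤ η * (X * Y * E.card) := mul_le_mul_of_nonneg_left hE2E hη
        _ = (η * (X * Y)) * E.card := by ring
        _ ≤ _ := mul_le_mul_of_nonneg_right hηXY hEpos.le
    rw [h7] at h6
    linarith
  have hP0c : 1 / 2 * (E.card : ℝ) ≤ P0.card := by
    have h5 : ((E \ P0).card : ℝ) = E.card - P0.card := by
      rw [Finset.card_sdiff_of_subset hP0E, Nat.cast_sub (card_le_card hP0E)]
    linarith
  -- pruning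
  have hP0Q : P0 ⊆ Q := hP0E.trans (Dia770.extO_mono hJI l1 m)
  set δ : ℝ := 1 / (12 * (X * Y)) with hδ
  have hδ0 : 0 < δ := by positivity
  set h : Fin 3 → (ℕ × ℤ) → ℤ × ℕ :=
    ![clQ lv m fv, clQ lu m fu, fun o => (anc lv m o.2, o.1)] with hh
  obtain ⟨P, hPP0, hPc, hfibP⟩ :=
    Crest.Agent.R138.Ps627.prune_rel (η := fun _ : Fin 3 => ℤ × ℕ) h hP0Q hδ0.le
  have hPne : P.Nonempty := by
    rw [← card_pos]
    have h5 : (0:ℝ) < P.card := by
      rw [Fintype.card_fin] at hPc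
      push_cast at hPc
      have h6 : 3 * δ * (Q.card : ℝ) ≤ 1 / 4 * E.card := by
        calc 3 * δ * (Q.card : ℝ) ≤ 3 * δ * (X * Y * E.card) := by gcongr
          _ = _ := by rw [hδ]; field_simp; ring
      linarith
    exact_mod_cast h5
  have hPQ : P ⊆ Q := hPP0.trans hP0Q
  -- transfer
  have trans : ∀ {N F p : ℝ}, N ≤ X * F → δ * F ≤ p → N ≤ 12 * X ^ 2 * Y * p := by
    intro N F p hN hp
    have h5 : F ≤ 12 * (X * Y) * p := by
      have : δ * F * (12 * (X * Y)) ≤ p * (12 * (X * Y)) :=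
        mul_le_mul_of_nonneg_right hp (by positivity)
      have e : δ * F * (12 * (X * Y)) = F := by rw [hδ]; field_simp
      rw [e] at this
      linarith
    calc N ≤ X * F := hN
      _ ≤ X * (12 * (X * Y) * p) := mul_le_mul_of_nonneg_left h5 hX0.le
      _ = _ := by ring
  have hclass : ∀ (l : ℕ) (f : ℕ → ℤ → ℕ) (N : ℝ), l ≤ l1 → l ≤ m →
      (∀ J', ∀ t ∈ alive I l J', (2:ℝ) ^ (l1 - l) ≤ X * ((topc I l1 l t J').card : ℝ)) →
      (∀ J', ∀ t ∈ alive I l J',
        N ≤ (((alive I l J').filter fun s => f s J' = f t J').card : ℝ)) →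
      ∀ o ∈ Q, (2:ℝ) ^ (m - l) * N ≤
        X * ((Q.filter fun y => clQ l m f y = clQ l m f o).card : ℝ) := by
    intro l f N hl1 hlm ho hn o hoQ
    have hoQ' : o ∈ deepQ I l1 m := by rw [← ext_eq]; exact hoQ
    have h5 := alive_anc hl1 hlm hoQ'
    have h6 := card_classQ hl1 hlm hX0 (ho (anc l m o.2)) f (f o.1 (anc l m o.2))
    have h7 := hn _ _ h5
    have h8 : ((deepQ I l1 m).filter fun y => anc l m y.2 = anc l m o.2 ∧
        f y.1 (anc l m y.2) = f o.1 (anc l m o.2)) =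
        Q.filter fun y => clQ l m f y = clQ l m f o := by
      ext y
      simp only [mem_filter, clQ, Prod.mk.injEq, hQ, ext_eq]
    rw [h8] at h6
    calc (2:ℝ) ^ (m - l) * N ≤ 2 ^ (m - l) *
          (((alive I l (anc l m o.2)).filter fun s => f s (anc l m o.2) =
            f o.1 (anc l m o.2)).card : ℝ) := by gcongr
      _ ≤ _ := h6
  refine ⟨P, hPne, hPP0.trans (filter_subset _ _), fun o ho => (mem_filter.1 (hPP0 ho)).2,
    fun o ho => ?_, fun o ho => ?_, fun o ho => ?_⟩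
  · refine trans (hclass lv fv Nv h1 hlv hownv hnearv o (hPQ ho)) ?_
    convert hfibP 0 o ho <;> rfl
  · refine trans (hclass lu fu Nu hlu1 hlum hownu hnearu o (hPQ ho)) ?_
    convert hfibP 1 o ho <;> rfl
  · refine trans (F := ((Q.filter fun y => h 2 y = h 2 o).card : ℝ)) ?_ ?_
    · have hoQ' : o ∈ deepQ I l1 m := by rw [← ext_eq]; exact hPQ ho
      have h5 := alive_anc h1 hlv hoQ'
      refine (card_deepc h1 hlv hX0.le (hownv _ _ h5)).trans ?_
      refine mul_le_mul_of_nonneg_left ?_ hX0.le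
      norm_cast
      refine card_le_card_of_injOn (fun j => (o.1, j)) (fun j hj => ?_) (fun a _ b _ h => by
        simpa using h)
      obtain ⟨h6, h7⟩ := mem_deepc.1 hj
      rw [Finset.mem_coe, mem_filter]
      refine ⟨by rw [hQ, ext_eq]; exact h6, ?_⟩
      show (anc lv m j, o.1) = (anc lv m o.2, o.1)
      rw [h7]
    · have e : (P.filter fun y => h 2 y = h 2 o) =
          P.filter fun y => y.1 = o.1 ∧ anc lv m y.2 = anc lv m o.2 := by
        ext y
        simp only [mem_filter]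
        refine and_congr_right fun _ => ?_
        show (anc lv m y.2, y.1) = (anc lv m o.2, o.1) ↔ _
        rw [Prod.mk.injEq]
        exact and_comm
      rw [← e]
      convert hfibP 2 o ho

end Crest.Agent.R136.Eng904
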