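import Mathlib
import Crest.Agent.R136.Eng1_904

/-!
# R136 (U5 TILT), the engine, sequence form (helper904)

`fib_any` : full shading at every (not only rational) level.
`engine`  : a dense part `J` of a marked sequence contains, at arbitrary deep levels `m2 ≤ m`, a
nonempty set `P` of objects (line, cell of level `m`) with almost complete fibres over (line,
`v`-cell) and over the classes of the levels `u`, `v`, and with D-max at the levels `m` and `m2`.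
-/

set_option autoImplicit false
set_option linter.unusedVariables false
set_option linter.unusedSectionVars false

open Finset Filter Topology

namespace Crest.Agent.R136.Eng904

open Crest.Agent.R138.Ex926 Crest.Agent.R138.Dp76
open Crest.Agent.R138.Mk163 (zc zl rho alive own)
open Crest.Agent.R138.MkRef627 (lc)
open Crest.Agent.R136.MkA627 (Geo MkA ampA fib_bounds)
open Crest.Agent.R136.Dia770 (extO DeepP)
open Crest.Agent.R136.Deep51

variable {σ κ : Type*} {B : Base} {I : ℕ → Finset (ℕ × ℝ)} {G : Geo σ κ} {lev : ℕ → ℚ → ℕ}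
    {A : ℕ → ℝ} {c Λ : ℝ → ℝ} {τ : κ → ℝ → ℝ} {f : ℕ → ℚ → ℕ → ℤ → ℕ} {b : ℕ → ℚ → ℕ → σ}
    {vm : ℕ → ℚ → ℝ} {w : κ → ℕ → ℚ → ℝ}

theorem d_exp (B : Base) (n : ℕ) (a : ℝ) : B.d n ^ a = Real.exp (-(a * B.L n)) := by
  rw [Real.rpow_def_of_pos (B.pos n)]
  congr 1
  unfold Base.L; ring

/-- `2^k` for a number of levels with `k log 2 ≤ s L` -/
theorem two_le (B : Base) {n k : ℕ} {s : ℝ} (h : (k : ℝ) * Real.log 2 ≤ s * B.L n) :
    (2:ℝ) ^ k ≤ B.d n ^ (-s) := by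
  rw [d_exp, ← Real.rpow_natCast, Real.rpow_def_of_pos (by norm_num)]
  refine Real.exp_le_exp.2 ?_
  linarith

theorem lc_nest {i j : ℕ} (h : i ≤ j) {x y : ℕ × ℝ} (hxy : lc j x = lc j y) : lc i x = lc i y := by
  simp only [lc, Prod.mk.injEq] at hxy ⊢
  exact ⟨hxy.1, Crest.Agent.R138.TiltU51.zc_nest h hxy.2⟩

open Classical in
/-- **full shading at every level.** -/
theorem fib_any (h : MkA B I G lev A c Λ τ f b vm w) (hΛ : ∀ v, Λ v = 0) {v : ℚ} (hv0 : 0 ≤ v)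
    (hv1 : v ≤ 1) {m : ℕ → ℕ} (hm : ∀ᶠ n in (U : Filter ℕ), lev n v ≤ m n) {ε : ℝ} (hε : 0 < ε) :
    ∀ᶠ n in (U : Filter ℕ), m n ≤ lev n 1 → ∀ x ∈ I n, (2:ℝ) ^ (lev n 1 - m n) ≤
      B.d n ^ (-ε) * (((I n).filter fun y => lc (m n) y = lc (m n) x).card : ℝ) := by
  have hdich : (∀ᶠ n in (U : Filter ℕ), m n ≤ lev n 1) ∨
      ∀ᶠ n in (U : Filter ℕ), lev n 1 < m n := by
    rw [← Ultrafilter.eventually_or]
    exact Eventually.of_forall fun n => le_or_gt _ _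
  rcases hdich with hm1 | hm1
  swap
  · filter_upwards [hm1] with n hn hn'
    omega
  have hℓ : (0:ℝ) < Real.log 2 := Real.log_pos one_lt_two
  have hv0' : (0:ℝ) ≤ v := by exact_mod_cast hv0
  have hv1' : (v:ℝ) ≤ 1 := by exact_mod_cast hv1
  have q1 : ((1:ℚ) : ℝ) = 1 := by norm_num
  set s : ℕ → ℝ := fun n => ((lev n 1 : ℝ) - m n) * Real.log 2 / B.L n with hs
  have hs0 : ∀ᶠ n in (U : Filter ℕ), 0 ≤ s n := by
    filter_upwards [hm1] with n hn
    have hL := B.L_pos n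
    have : (0:ℝ) ≤ (lev n 1 : ℝ) - m n := by rw [sub_nonneg]; exact_mod_cast hn
    simp only [hs]; positivity
  have hs1 : ∀ e : ℝ, 0 < e → ∀ᶠ n in (U : Filter ℕ), s n ≤ 1 - v + e := by
    intro e he
    have h1 : ∀ᶠ n in (U : Filter ℕ), ((lev n 1 : ℝ) - lev n v) * Real.log 2 / B.L n < 1 - v + e := by
      refine (h.lev_lim v 1 hv0 hv1 le_rfl).eventually (Iio_mem_nhds ?_)
      rw [q1]; linarith
    filter_upwards [h1, hm] with n h1 h2
    have hL := B.L_pos n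
    refine le_trans ?_ h1.le
    simp only [hs]
    have : (lev n v : ℝ) ≤ m n := by exact_mod_cast h2
    gcongr
  -- the limit
  obtain ⟨t, ht, htl⟩ : ∃ t ∈ Set.Icc (0:ℝ) (1 - v + 1), Tendsto s (U : Filter ℕ) (𝓝 t) := by
    have hU : Ultrafilter.map s U ≤ 𝓟 (Set.Icc (0:ℝ) (1 - v + 1)) := by
      rw [le_principal_iff, Ultrafilter.coe_map, Filter.mem_map]
      filter_upwards [hs0, hs1 1 one_pos] with n h1 h2
      exact ⟨h1, h2⟩
    obtain ⟨t, ht, htl⟩ := isCompact_Icc.ultrafilter_le_nhds (Ultrafilter.map s U) hU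
    exact ⟨t, ht, htl⟩
  have ht1 : t ≤ 1 - v := by
    refine le_of_forall_pos_le_add fun e he => ?_
    exact le_of_tendsto htl (hs1 e he)
  have htop : ∀ e : ℝ, 0 < e → ∀ᶠ n in (U : Filter ℕ), (2:ℝ) ^ (lev n 1 - m n) ≤ B.d n ^ (-(t + e)) := by
    intro e he
    filter_upwards [htl.eventually (Iio_mem_nhds (show t < t + e by linarith)), hm1] with n h1 h2
    have hL := B.L_pos n
    refine two_le B ?_
    simp only [hs] at h1
    rw [div_lt_iff₀ hL] at h1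
    rw [Nat.cast_sub h2]
    exact h1.le
  rcases (ht.1).eq_or_lt with h0 | h0
  · -- `t = 0`
    filter_upwards [htop ε hε] with n h1 _ x hx
    rw [← h0, zero_add] at h1
    refine h1.trans ?_
    have h2 : (1:ℝ) ≤ (((I n).filter fun y => lc (m n) y = lc (m n) x).card : ℝ) := by
      have h2' : 0 < ((I n).filter fun y => lc (m n) y = lc (m n) x).card :=
        Finset.card_pos.2 ⟨x, mem_filter.2 ⟨hx, rfl⟩⟩
      exact_mod_cast h2'
    have h3 := dpow_pos B n (-ε)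
    nlinarith
  · obtain ⟨r, hr1, hr2⟩ := exists_rat_btwn (show 1 - t < min 1 (1 - t + ε / 4) from
      lt_min (by linarith) (by linarith))
    have hr3 : (r:ℝ) < 1 := hr2.trans_le (min_le_left _ _)
    have hr4 : (r:ℝ) < 1 - t + ε / 4 := hr2.trans_le (min_le_right _ _)
    have hr0 : (0:ℝ) ≤ r := by linarith
    have hr0' : (0:ℚ) ≤ r := by exact_mod_cast hr0
    have hr1' : (r:ℚ) ≤ 1 := by exact_mod_cast hr3.le
    have hlt : ∀ᶠ n in (U : Filter ℕ), m n ≤ lev n r := by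
      have h1 : ∀ᶠ n in (U : Filter ℕ), ((lev n 1 : ℝ) - lev n r) * Real.log 2 / B.L n <
          (1 - r + t) / 2 := by
        refine (h.lev_lim r 1 hr0' hr1' le_rfl).eventually (Iio_mem_nhds ?_)
        rw [q1]; linarith
      filter_upwards [h1, htl.eventually (Ioi_mem_nhds (show (1 - r + t) / 2 < t by linarith))]
        with n h1 h2
      have hL := B.L_pos n
      have h3 : ((lev n 1 : ℝ) - lev n r) * Real.log 2 / B.L n <
          ((lev n 1 : ℝ) - m n) * Real.log 2 / B.L n := h1.trans h2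
      rw [div_lt_div_iff_of_pos_right hL] at h3
      have h4 := lt_of_mul_lt_mul_right h3 hℓ.le
      have h5 : (m n : ℝ) < lev n r := by linarith
      exact_mod_cast h5.le
    filter_upwards [htop (ε / 4) (by linarith), hlt, fib_bounds h r hr0' hr1' (ε := ε / 4)
      (by linarith)] with n h1 h2 h3 _ x hx
    have h4 := (h3 x hx).1
    rw [hΛ, hΛ] at h4
    have h5 : (((I n).filter fun y => lc (lev n r) y = lc (lev n r) x).card : ℝ) ≤
        (((I n).filter fun y => lc (m n) y = lc (m n) x).card : ℝ) := by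
      exact_mod_cast card_le_card (fun y hy => by
        rw [mem_filter] at hy ⊢
        exact ⟨hy.1, lc_nest h2 hy.2⟩)
    have hp := dpow_pos B n (-ε)
    calc (2:ℝ) ^ (lev n 1 - m n) ≤ B.d n ^ (-(t + ε / 4)) := h1
      _ ≤ B.d n ^ (-ε + (-(1 - (r:ℝ)) + (0 - 0) + ε / 4)) := by
          refine Real.rpow_le_rpow_of_exponent_ge (B.pos n) (B.lt n).le ?_
          linarith
      _ = B.d n ^ (-ε) * B.d n ^ (-(1 - (r:ℝ)) + (0 - 0) + ε / 4) := dpow_add B n _ _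
      _ ≤ _ := mul_le_mul_of_nonneg_left (h4.trans h5) hp.le

open Classical in
/-- own profile in the form of `deep_stage` -/
theorem own_topc (h : MkA B I G lev A c Λ τ f b vm w) (hΛ : ∀ v, Λ v = 0) {v : ℚ} (hv0 : 0 ≤ v)
    (hv1 : v ≤ 1) {ε : ℝ} (hε : 0 < ε) :
    ∀ᶠ n in (U : Filter ℕ), ∀ J : ℤ, ∀ t ∈ alive (I n) (lev n v) J,
      (2:ℝ) ^ (lev n 1 - lev n v) ≤ B.d n ^ (-ε) * ((topc (I n) (lev n 1) (lev n v) t J).card : ℝ) := by
  have q1 : ((1:ℚ) : ℝ) = 1 := by norm_num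
  have h1 : ∀ᶠ n in (U : Filter ℕ), ((lev n 1 : ℝ) - lev n v) * Real.log 2 / B.L n <
      1 - v + ε / 2 := by
    refine (h.lev_lim v 1 hv0 hv1 le_rfl).eventually (Iio_mem_nhds ?_)
    rw [q1]; linarith
  filter_upwards [h1, h.lev_mono v 1 hv0 hv1 le_rfl, h.own v 1 hv0 hv1 le_rfl (ε / 2)
    (by linarith)] with n h1 h2 h3 J t ht
  have hL := B.L_pos n
  rw [div_lt_iff₀ hL] at h1
  have h4 : (2:ℝ) ^ (lev n 1 - lev n v) ≤ B.d n ^ (-(1 - (v:ℝ) + ε / 2)) := by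
    refine two_le B ?_
    rw [Nat.cast_sub h2]; exact h1.le
  obtain ⟨x, hx, hx1, hx2⟩ := Crest.Agent.R138.TiltU51.mem_alive.1 ht
  have h5 := (h3 x hx).1
  rw [hΛ, hΛ, q1] at h5
  have h6 : own (I n) (lev n v) (lev n 1) x = topc (I n) (lev n 1) (lev n v) t J := by
    unfold topc Crest.Agent.R138.Mk163.own
    rw [hx1, hx2]
  rw [h6] at h5
  have hp := dpow_pos B n (-ε)
  calc (2:ℝ) ^ (lev n 1 - lev n v) ≤ B.d n ^ (-(1 - (v:ℝ) + ε / 2)) := h4
    _ = B.d n ^ (-ε + (-(1 - (v:ℝ)) + (0 - 0) + ε / 2)) := by congr 1; ring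
    _ = B.d n ^ (-ε) * B.d n ^ (-(1 - (v:ℝ)) + (0 - 0) + ε / 2) := dpow_add B n _ _
    _ ≤ _ := mul_le_mul_of_nonneg_left h5 hp.le

theorem ev_small (B : Base) {γ : ℝ} (hγ : 0 < γ) {K : ℝ} (hK : 0 < K) :
    ∀ᶠ n in (U : Filter ℕ), B.d n ^ γ ≤ K :=
  (Crest.Agent.R138.Ps926.dpow_small B hγ hK).mono fun n hn => hn.le

open Classical in
/-- output of `DeepP` at one sequence of levels -/
def DeepM (B : Base) (I : ℕ → Finset (ℕ × ℝ)) (G : Geo σ κ) (lev : ℕ → ℚ → ℕ) (A : ℕ → ℝ) (g : ℝ)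
    (v : ℚ) (m : ℕ → ℕ) : Prop :=
  ∀ J : ℕ → Finset (ℕ × ℝ), Dense B J I → ∀ ε : ℝ, 0 < ε →
      ∃ P : ℕ → Finset (ℕ × ℤ), (∀ n, P n ⊆ extO (J n) (lev n 1) (m n)) ∧
        (∃ γ : ℝ, 0 < γ ∧ ∀ᶠ n in (U : Filter ℕ), ((extO (J n) (lev n 1) (m n)).card : ℝ) ≤
          (P n).card + B.d n ^ γ * (extO (J n) (lev n 1) (m n)).card) ∧
        ∀ᶠ n in (U : Filter ℕ), ∀ (j : ℤ) (s : σ), G.adm n (m n) j s →
          (((P n).filter fun o => o.2 = j ∧ G.mem n (m n) j s o.1).card : ℝ) ≤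
            B.d n ^ (-ε) * (A n * B.d n ^ (-(g * v))) *
              2 ^ ((g + ε) * ((m n : ℝ) - lev n v)) * G.val n (m n) j s

open Classical in
/-- **ENGINE**, from D-max at the two levels. -/
theorem engineM (h : MkA B I G lev A c Λ τ f b vm w) (hΛ : ∀ v, Λ v = 0) {g : ℝ}
    {u v : ℚ} (hu : 0 ≤ u) (huv : u ≤ v) (hv : v ≤ 1)
    {m2 m : ℕ → ℕ} (hm2 : ∀ᶠ n in (U : Filter ℕ), lev n v ≤ m2 n)
    (hm : ∀ᶠ n in (U : Filter ℕ), m2 n ≤ m n) (hDm : DeepM B I G lev A g v m)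
    (hDm2 : DeepM B I G lev A g v m2)
    {J : ℕ → Finset (ℕ × ℝ)} (hJ : Dense B J I) {ε : ℝ} (hε : 0 < ε) :
    ∀ᶠ n in (U : Filter ℕ), ∃ P : Finset (ℕ × ℤ), P.Nonempty ∧ P ⊆ extO (J n) (lev n 1) (m n) ∧
      (∀ o ∈ P, ∃ x ∈ J n, lc (lev n v) x = par (lev n v) (m n) o ∧
        lc (lev n u) x = par (lev n u) (m n) o) ∧
      (∀ o ∈ P, (2:ℝ) ^ (m n - lev n v) * (ampA B A c n v * vm n v) ≤ B.d n ^ (-ε) *
        ((P.filter fun y => clQ (lev n v) (m n) (f n v) y = clQ (lev n v) (m n) (f n v) o).card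
          : ℝ)) ∧
      (∀ o ∈ P, (2:ℝ) ^ (m n - lev n u) * (ampA B A c n u * vm n u) ≤ B.d n ^ (-ε) *
        ((P.filter fun y => clQ (lev n u) (m n) (f n u) y = clQ (lev n u) (m n) (f n u) o).card
          : ℝ)) ∧
      (∀ o ∈ P, (2:ℝ) ^ (m n - lev n v) ≤ B.d n ^ (-ε) *
        ((P.filter fun y => y.1 = o.1 ∧
          anc (lev n v) (m n) y.2 = anc (lev n v) (m n) o.2).card : ℝ)) ∧
      (∀ (j : ℤ) (s : σ), G.adm n (m n) j s →
        ((P.filter fun o => o.2 = j ∧ G.mem n (m n) j s o.1).card : ℝ) ≤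
          B.d n ^ (-ε) * (A n * B.d n ^ (-(g * v))) *
            2 ^ ((g + ε) * ((m n : ℝ) - lev n v)) * G.val n (m n) j s) ∧
      (∀ (j : ℤ) (s : σ), G.adm n (m2 n) j s →
        (((P.image (par (m2 n) (m n))).filter fun o => o.2 = j ∧ G.mem n (m2 n) j s o.1).card
          : ℝ) ≤ B.d n ^ (-ε) * (A n * B.d n ^ (-(g * v))) *
            2 ^ ((g + ε) * ((m2 n : ℝ) - lev n v)) * G.val n (m2 n) j s) := by
  have hv0 : 0 ≤ v := hu.trans huv
  have hu1 : u ≤ 1 := huv.trans hv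
  have hmv : ∀ᶠ n in (U : Filter ℕ), lev n v ≤ m n := by
    filter_upwards [hm2, hm] with n h1 h2 using h1.trans h2
  obtain ⟨P1, hP1, ⟨γ1, hγ1, hc1⟩, hd1⟩ := hDm J hJ ε hε
  obtain ⟨P2, hP2, ⟨γ2, hγ2, hc2⟩, hd2⟩ := hDm2 J hJ ε hε
  set e : ℝ := min (ε / 8) (γ2 / 4) with he
  have he0 : 0 < e := lt_min (by linarith) (by linarith)
  have he1 : e ≤ ε / 8 := min_le_left _ _
  have he2 : e ≤ γ2 / 4 := min_le_right _ _
  have hJne : ∀ᶠ n in (U : Filter ℕ), (J n).Nonempty := by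
    filter_upwards [hJ.2 1 one_pos, h.ne] with n h1 h2
    rw [← card_pos]
    have h3 : (0:ℝ) < (I n).card := by exact_mod_cast card_pos.2 h2
    have h4 := mul_pos (dpow_pos B n 1) h3
    exact_mod_cast h4.trans_le h1
  filter_upwards [hJ.1, hJne, h.lev_mono u v hu huv hv, h.lev_mono v 1 hv0 hv le_rfl, hm2, hm,
    h.one, ev_small B (γ := γ2 / 2) (by linarith) (K := 1 / 4) (by norm_num), hJ.2 e he0,
    own_topc h hΛ hv0 hv he0, own_topc h hΛ hu hu1 he0, fib_any h hΛ hv0 hv hm2 he0,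
    fib_any h hΛ hv0 hv hmv he0, h.near v hv0 hv e he0, h.near u hu hu1 e he0,
    hc1, hc2, ev_small B hγ1 (K := 1 / 4) (by norm_num),
    ev_small B he0 (K := 1 / 12) (by norm_num), hd1, hd2] with
    n a1 a2 a3 a4 a5 a6 a7 a8 a9 a10 a11 a12 a13 a14 a15 a16 a17 a18 a19 a20 a21
  have hde := dpow_pos B n e
  have hde' := dpow_pos B n (-e)
  have hd1' : (1:ℝ) ≤ B.d n ^ (-e) :=
    Real.one_le_rpow_of_pos_of_le_one_of_nonpos (B.pos n) (B.lt n).le (by linarith)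
  have hone : B.d n ^ e * B.d n ^ (-e) = 1 := by rw [← dpow_add]; simp
  obtain ⟨P, b1, b2, b3, b4, b5, b6⟩ := engine_fin (I := I n) (J := J n) (lu := lev n u)
    (lv := lev n v) (l1 := lev n 1) (m2 := m2 n) (m := m n) a1 a2 a3 a4 a5 a6 a7 (f n u) (f n v)
    (X := B.d n ^ (-e)) (Y := B.d n ^ (-e)) (Nu := B.d n ^ e * (ampA B A c n u * vm n u))
    (Nv := B.d n ^ e * (ampA B A c n v * vm n v)) (η := B.d n ^ γ2) hd1' hd1'
    (dpow_pos B n γ2).le (by
      rw [← dpow_add, ← dpow_add]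
      refine le_trans ?_ a8
      exact Real.rpow_le_rpow_of_exponent_ge (B.pos n) (B.lt n).le (by linarith))
    (by
      have h5 := mul_le_mul_of_nonneg_left a9 hde'.le
      calc ((I n).card : ℝ) = B.d n ^ (-e) * (B.d n ^ e * ((I n).card : ℝ)) := by
            rw [← mul_assoc, mul_comm (B.d n ^ (-e)), hone, one_mul]
        _ ≤ _ := h5)
    a10 a11 a12 a13
    (by
      intro J' t ht
      have h5 := mul_le_mul_of_nonneg_left (a14 J' t ht) hde.le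
      refine h5.trans (le_of_eq ?_)
      rw [← mul_assoc, hone, one_mul])
    (by
      intro J' t ht
      have h5 := mul_le_mul_of_nonneg_left (a15 J' t ht) hde.le
      refine h5.trans (le_of_eq ?_)
      rw [← mul_assoc, hone, one_mul])
    (P1 := P1 n) (P2 := P2 n) (hP1 n) (hP2 n)
    (by
      refine a16.trans ?_
      have : B.d n ^ γ1 * ((extO (J n) (lev n 1) (m n)).card : ℝ) ≤
          1 / 4 * (extO (J n) (lev n 1) (m n)).card :=
        mul_le_mul_of_nonneg_right a18 (Nat.cast_nonneg _)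
      linarith)
    a17
  -- constants
  have hK : 12 * (B.d n ^ (-e)) ^ 2 * B.d n ^ (-e) ≤ B.d n ^ (-(4 * e)) := by
    have h5 : (12:ℝ) ≤ B.d n ^ (-e) := by
      rw [Real.rpow_neg (B.pos n).le, le_inv_comm₀ (by norm_num) hde]
      rw [one_div] at a19; exact a19
    have e1 : B.d n ^ (-(4 * e)) = B.d n ^ (-e) * (B.d n ^ (-e)) ^ 2 * B.d n ^ (-e) := by
      rw [← Real.rpow_natCast (B.d n ^ (-e)) 2, ← Real.rpow_mul (B.pos n).le, ← dpow_add,
        ← dpow_add]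
      congr 1; push_cast; ring
    rw [e1]
    gcongr
  have hK1 : 12 * (B.d n ^ (-e)) ^ 2 * B.d n ^ (-e) ≤ B.d n ^ (-ε) := by
    refine hK.trans (Real.rpow_le_rpow_of_exponent_ge (B.pos n) (B.lt n).le (by linarith))
  have fin : ∀ {a p N : ℝ}, 0 ≤ p → a * (B.d n ^ e * N) ≤ 12 * (B.d n ^ (-e)) ^ 2 * B.d n ^ (-e) * p →
      a * N ≤ B.d n ^ (-ε) * p := by
    intro a p N hp hh
    have h5 := mul_le_mul_of_nonneg_left hh hde'.le
    have e2 : B.d n ^ (-e) * (a * (B.d n ^ e * N)) = a * N := by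
      calc B.d n ^ (-e) * (a * (B.d n ^ e * N)) = (B.d n ^ e * B.d n ^ (-e)) * (a * N) := by ring
        _ = _ := by rw [hone, one_mul]
    rw [e2] at h5
    refine h5.trans ?_
    rw [← mul_assoc]
    refine mul_le_mul_of_nonneg_right ?_ hp
    calc B.d n ^ (-e) * (12 * (B.d n ^ (-e)) ^ 2 * B.d n ^ (-e))
        ≤ B.d n ^ (-e) * B.d n ^ (-(4 * e)) := mul_le_mul_of_nonneg_left hK hde'.le
      _ = B.d n ^ (-(5 * e)) := by rw [← dpow_add]; congr 1; ring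
      _ ≤ _ := Real.rpow_le_rpow_of_exponent_ge (B.pos n) (B.lt n).le (by linarith)
  refine ⟨P, b1, b2.trans (hP1 n), fun o ho => ?_, fun o ho => fin (Nat.cast_nonneg _) (b4 o ho),
    fun o ho => fin (Nat.cast_nonneg _) (b5 o ho), fun o ho => ?_, fun j s hs => ?_,
    fun j s hs => ?_⟩
  · have h5 := hP1 n (b2 ho)
    obtain ⟨x, hx, hx1⟩ := Dia770.extO_anc a4 (a5.trans a6) h5
    refine ⟨x, hx, hx1, ?_⟩
    have h6 : lc (lev n u) x = (x.1, anc (lev n u) (lev n v) (zc (lev n v) x.2)) := by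
      rw [anc_zc a3]; rfl
    simp only [lc, Prod.mk.injEq] at hx1
    rw [h6]
    refine Prod.ext hx1.1 ?_
    show anc (lev n u) (lev n v) (zc (lev n v) x.2) = anc (lev n u) (m n) o.2
    rw [hx1.2]
    exact anc_anc a3 (a5.trans a6) o.2
  · exact (b6 o ho).trans (mul_le_mul_of_nonneg_right hK1 (Nat.cast_nonneg _))
  · refine le_trans ?_ (a20 j s hs)
    exact_mod_cast card_le_card (filter_subset_filter _ b2)
  · refine le_trans ?_ (a21 j s hs)
    have h5 : P.image (par (m2 n) (m n)) ⊆ P2 n := by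
      intro o ho
      obtain ⟨y, hy, rfl⟩ := mem_image.1 ho
      exact b3 y hy
    exact_mod_cast card_le_card (filter_subset_filter _ h5)

theorem rho_le_of {r : ℝ} {m2 m : ℕ} (h1 : r ≤ rho m) (h2 : m2 ≤ m) : r ≤ rho m2 := by
  refine h1.trans ?_
  unfold Crest.Agent.R138.Mk163.rho
  exact one_div_le_one_div_of_le (by positivity) (pow_le_pow_right₀ (by norm_num) h2)

open Classical in
/-- **ENGINE.** -/
theorem engine (h : MkA B I G lev A c Λ τ f b vm w) (hΛ : ∀ v, Λ v = 0) {g : ℝ} {r0 : ℕ → ℝ}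
    (hD : DeepP B I G lev A g r0) {u v : ℚ} (hu : 0 ≤ u) (huv : u ≤ v) (hv : v ≤ 1)
    {m2 m : ℕ → ℕ} (hm2 : ∀ᶠ n in (U : Filter ℕ), lev n v ≤ m2 n)
    (hm : ∀ᶠ n in (U : Filter ℕ), m2 n ≤ m n) (hr : ∀ᶠ n in (U : Filter ℕ), r0 n ≤ rho (m n))
    {J : ℕ → Finset (ℕ × ℝ)} (hJ : Dense B J I) {ε : ℝ} (hε : 0 < ε) :
    ∀ᶠ n in (U : Filter ℕ), ∃ P : Finset (ℕ × ℤ), P.Nonempty ∧ P ⊆ extO (J n) (lev n 1) (m n) ∧
      (∀ o ∈ P, ∃ x ∈ J n, lc (lev n v) x = par (lev n v) (m n) o ∧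
        lc (lev n u) x = par (lev n u) (m n) o) ∧
      (∀ o ∈ P, (2:ℝ) ^ (m n - lev n v) * (ampA B A c n v * vm n v) ≤ B.d n ^ (-ε) *
        ((P.filter fun y => clQ (lev n v) (m n) (f n v) y = clQ (lev n v) (m n) (f n v) o).card
          : ℝ)) ∧
      (∀ o ∈ P, (2:ℝ) ^ (m n - lev n u) * (ampA B A c n u * vm n u) ≤ B.d n ^ (-ε) *
        ((P.filter fun y => clQ (lev n u) (m n) (f n u) y = clQ (lev n u) (m n) (f n u) o).card
          : ℝ)) ∧
      (∀ o ∈ P, (2:ℝ) ^ (m n - lev n v) ≤ B.d n ^ (-ε) *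
        ((P.filter fun y => y.1 = o.1 ∧
          anc (lev n v) (m n) y.2 = anc (lev n v) (m n) o.2).card : ℝ)) ∧
      (∀ (j : ℤ) (s : σ), G.adm n (m n) j s →
        ((P.filter fun o => o.2 = j ∧ G.mem n (m n) j s o.1).card : ℝ) ≤
          B.d n ^ (-ε) * (A n * B.d n ^ (-(g * v))) *
            2 ^ ((g + ε) * ((m n : ℝ) - lev n v)) * G.val n (m n) j s) ∧
      (∀ (j : ℤ) (s : σ), G.adm n (m2 n) j s →
        (((P.image (par (m2 n) (m n))).filter fun o => o.2 = j ∧ G.mem n (m2 n) j s o.1).card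
          : ℝ) ≤ B.d n ^ (-ε) * (A n * B.d n ^ (-(g * v))) *
            2 ^ ((g + ε) * ((m2 n : ℝ) - lev n v)) * G.val n (m2 n) j s) := by
  have hv0 : 0 ≤ v := hu.trans huv
  have hmv : ∀ᶠ n in (U : Filter ℕ), lev n v ≤ m n := by
    filter_upwards [hm2, hm] with n h1 h2 using h1.trans h2
  have hr2 : ∀ᶠ n in (U : Filter ℕ), r0 n ≤ rho (m2 n) := by
    filter_upwards [hr, hm] with n h1 h2 using rho_le_of h1 h2
  exact engineM h hΛ hu huv hv hm2 hm (fun J hJ ε hε => hD v hv0 hv m hmv hr J hJ ε hε)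
    (fun J hJ ε hε => hD v hv0 hv m2 hm2 hr2 J hJ ε hε) hJ hε

end Crest.Agent.R136.Eng904
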