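import Mathlib
import Crest.Agent.R136.Eng2_904
import Crest.Agent.R136.Tlt1_51

/-!
# R136 (U5 TILT), sequences: widths, levels, marks (helper904)

`w_ratio`, `lev2` : comparison of the widths of the marks and of the levels; `mark_of` : the marks
of the data of `J1`; `mv_mk` : sheets of the objects.
-/

set_option autoImplicit false
set_option linter.unusedVariables false
set_option linter.unusedSectionVars false

open Finset Filter Topology

namespace Crest.Agent.R136.Eng904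

open Crest.Agent.R138.Ex926 Crest.Agent.R138.Dp76
open Crest.Agent.R138.Mk163 (zc zl rho alive own)
open Crest.Agent.R138.MkRef627 (lc)
open Crest.Agent.R136.MkA627 (Geo MkA ampA fib_bounds)
open Crest.Agent.R136.Dia770 (extO DeepP)
open Crest.Agent.R136.Deep51 Crest.Agent.R136.Tlt51 Crest.Agent.R136.Top484
open Crest.Agent.R136.Sh605 Crest.Agent.R136.K4

section

variable {σ κ : Type*} {B : Base} {I : ℕ → Finset (ℕ × ℝ)} {G : Geo σ κ} {lev : ℕ → ℚ → ℕ}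
    {A : ℕ → ℝ} {c Λ : ℝ → ℝ} {θ : κ → ℝ} {τ : κ → ℝ → ℝ} {f : ℕ → ℚ → ℕ → ℤ → ℕ}
    {b : ℕ → ℚ → ℕ → σ} {vm : ℕ → ℚ → ℝ} {w : κ → ℕ → ℚ → ℝ}

theorem log_rho' (i : ℕ) : Real.log (rho i) = -(i * Real.log 2) := by
  unfold Crest.Agent.R138.Mk163.rho
  rw [one_div, Real.log_inv, Real.log_pow]

theorem w_lim (h : MkA B I G lev A c Λ (fun j v => θ j * (1 - v)) f b vm w) (k : κ) {v : ℚ}
    (h0 : 0 ≤ v) (h1 : v ≤ 1) :
    Tendsto (fun n => Real.log (w k n v / w k n 0) / B.L n) U (𝓝 (-((1 - θ k) * v))) := by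
  have t0 := h.tau k 0 le_rfl zero_le_one
  have t1 := h.tau k v h0 h1
  have tl := h.lev_lim 0 v le_rfl h0 h1
  have := (t0.sub t1).sub tl
  have e1 : θ k * (1 - ((0 : ℚ) : ℝ)) - θ k * (1 - (v : ℝ)) - ((v : ℝ) - ((0 : ℚ) : ℝ)) =
      -((1 - θ k) * v) := by push_cast; ring
  rw [e1] at this
  refine this.congr' ?_
  filter_upwards [h.wpos k 0 le_rfl zero_le_one, h.wpos k v h0 h1,
    h.wpos k 1 zero_le_one le_rfl] with n a0 a1 a2
  have r0 := rho_pos (lev n 0)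
  have r1 := rho_pos (lev n 1)
  have rv := rho_pos (lev n v)
  rw [Real.log_div (div_pos r0 a0).ne' (div_pos r1 a2).ne',
    Real.log_div (div_pos rv a1).ne' (div_pos r1 a2).ne', Real.log_div r0.ne' a0.ne',
    Real.log_div rv.ne' a1.ne', Real.log_div a1.ne' a0.ne', log_rho', log_rho']
  ring

/-- the widths of the marks of two levels are comparable -/
theorem w_ratio (h : MkA B I G lev A c Λ (fun j v => θ j * (1 - v)) f b vm w) (k : κ) {u v : ℚ}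
    (hu0 : 0 ≤ u) (hu1 : u ≤ 1) (hv0 : 0 ≤ v) (hv1 : v ≤ 1) {K : ℝ} (hK : |1 - θ k| ≤ K) {ε : ℝ}
    (hε : 0 < ε) : ∀ᶠ n in (U : Filter ℕ),
      w k n u ≤ B.d n ^ (-(K * |(u : ℝ) - v| + ε)) * w k n v := by
  have h1 := (w_lim h k hu0 hu1).sub (w_lim h k hv0 hv1)
  have h2 : -((1 - θ k) * (u : ℝ)) - -((1 - θ k) * (v : ℝ)) < K * |(u : ℝ) - v| + ε := by
    have e : -((1 - θ k) * (u : ℝ)) - -((1 - θ k) * (v : ℝ)) = -((1 - θ k) * ((u : ℝ) - v)) := by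
      ring
    rw [e]
    have h3 : -((1 - θ k) * ((u : ℝ) - v)) ≤ |1 - θ k| * |(u : ℝ) - v| := by
      rw [← abs_mul]; exact neg_le_abs _
    have h4 := mul_le_mul_of_nonneg_right hK (abs_nonneg ((u : ℝ) - v))
    linarith
  filter_upwards [h1.eventually_lt_const h2, h.wpos k 0 le_rfl zero_le_one, h.wpos k u hu0 hu1,
    h.wpos k v hv0 hv1] with n a0 a1 a2 a3
  have hL := B.L_pos n
  rw [← sub_div, div_lt_iff₀ hL, Real.log_div a2.ne' a1.ne', Real.log_div a3.ne' a1.ne'] at a0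
  have hp := dpow_pos B n (-(K * |(u : ℝ) - v| + ε))
  rw [← Real.log_le_log_iff a2 (mul_pos hp a3), Real.log_mul hp.ne' a3.ne',
    Real.log_rpow (B.pos n)]
  unfold Base.L at a0
  linarith

theorem lev2 (h : MkA B I G lev A c Λ τ f b vm w) {u v : ℚ} (hu0 : 0 ≤ u) (huv : u ≤ v)
    (hv1 : v ≤ 1) {ε : ℝ} (hε : 0 < ε) : ∀ᶠ n in (U : Filter ℕ),
      (2:ℝ) ^ lev n v ≤ B.d n ^ (-((v : ℝ) - u + ε)) * 2 ^ lev n u := by
  filter_upwards [(h.lev_lim u v hu0 huv hv1).eventually_lt_const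
    (show (v : ℝ) - u < v - u + ε by linarith), h.lev_mono u v hu0 huv hv1] with n h1 h2
  have hL := B.L_pos n
  rw [div_lt_iff₀ hL] at h1
  have h3 : (2:ℝ) ^ (lev n v - lev n u) ≤ B.d n ^ (-((v : ℝ) - u + ε)) := by
    refine two_le B ?_
    rw [Nat.cast_sub h2]
    exact h1.le
  have e : (2:ℝ) ^ lev n v = 2 ^ (lev n v - lev n u) * 2 ^ lev n u := by
    rw [← pow_add]; congr 1; omega
  rw [e]
  exact mul_le_mul_of_nonneg_right h3 (by positivity)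

end

variable {η : ℝ} {p : Par4} {D : Dat4}

/-- facts of the mark of level `e` at the incidence `x` -/
structure MarkAt (p : Par4) (D : Dat4) (n : ℕ) (e : ℚ) (x : ℕ × ℝ) : Prop where
  inP : InP (D.L n x.1) (mk4 D n e x) (zx D n e x) (rh D n e)
  shp : Shp (mk4 D n e x) (zx D n e x) (rh D n e) (D.r0 n)
  w1r : (mk4 D n e x).w 1 ≤ rh D n e
  vm : D.vm n e = (D.w 0 n e) * (D.w 2 n e) * (D.w 1 n e) * ((D.w 0 n e / rh D n e) ^ p.q 0 *
    (D.w 1 n e / rh D n e) ^ p.q 1 * (D.w 2 n e / rh D n e) ^ p.q 2)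
  a : (mk4 D n e x).a = D.w 0 n e
  w1 : (mk4 D n e x).w 1 = D.w 1 n e
  w2 : (mk4 D n e x).w 2 = D.w 2 n e

theorem mark_ofM (hm : MkA D.B D.I (D.G p) D.lev D.A (fun v => p.g * v) (fun v => 0 * v)
    (fun j v => p.θ j * (1 - v)) D.f D.b D.vm D.w) {e : ℚ} (h0 : 0 ≤ e) (h1 : e ≤ 1) :
    ∀ᶠ n in (U : Filter ℕ), ∀ x ∈ D.I n, MarkAt p D n e x := by
  filter_upwards [hm.mark e h0 h1] with n hn x hx
  have ha : x.1 ∈ alive (D.I n) (D.lev n e) (zc (D.lev n e) x.2) :=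
    Crest.Agent.R138.TiltU51.mem_alive.2 ⟨x, hx, rfl, rfl⟩
  obtain ⟨h1, h2, h3, h4⟩ := hn _ _ ha
  have a0 : (mk4 D n e x).a = D.w 0 n e := h4 0
  have a1 : (mk4 D n e x).w 1 = D.w 1 n e := h4 1
  have a2 : (mk4 D n e x).w 2 = D.w 2 n e := h4 2
  have hr : (mk4 D n e x).w 1 ≤ rh D n e := by
    first
      | exact h2.2
      | exact h2.2.1
  refine ⟨h1, h2.1, hr, ?_, a0, a1, a2⟩
  have h5 : (mk4 D n e x).a * (mk4 D n e x).w 2 * (mk4 D n e x).w 1 *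
      (((mk4 D n e x).a / rh D n e) ^ p.q 0 * ((mk4 D n e x).w 1 / rh D n e) ^ p.q 1 *
        ((mk4 D n e x).w 2 / rh D n e) ^ p.q 2) = D.vm n e := h3
  rw [a0, a1, a2] at h5
  exact h5.symm

theorem mark_of (hJ1 : J1 η p D) {e : ℚ} (h0 : 0 ≤ e) (h1 : e ≤ 1) :
    ∀ᶠ n in (U : Filter ℕ), ∀ x ∈ D.I n, MarkAt p D n e x := mark_ofM hJ1.mka h0 h1

/-- the sheet of the object is the mark of the incidence -/
theorem mv_mk {n m : ℕ} {e : ℚ} {x : ℕ × ℝ} {o : ℕ × ℤ}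
    (h : lc (D.lev n e) x = par (D.lev n e) m o) :
    x.1 = o.1 ∧ zc (D.lev n e) x.2 = anc (D.lev n e) m o.2 ∧
      mv (D.lev n e) m (D.f n e) (D.b n e) o = mk4 D n e x ∧
      zl (D.lev n e) (anc (D.lev n e) m o.2) = zx D n e x := by
  have h' := h
  simp only [lc, par, Prod.mk.injEq] at h'
  refine ⟨h'.1, h'.2, ?_, ?_⟩
  · unfold mv mk4
    rw [h'.1, h'.2]
  · unfold zx
    rw [h'.2]

end Crest.Agent.R136.Eng904
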