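import Mathlib
import Crest.Agent.R136.Asy1_51
import Crest.Agent.R136.Asm3_102
import Crest.Agent.R136.Eng3_904
import Crest.Agent.R136.Tlt1_51

/-!
# R136 (U5 TILT), last assembly, part 2: the two marks of an incidence, selection of the dyadic base
tilt and of the coincidence scale (helper51)
-/

set_option autoImplicit false
set_option linter.unusedVariables false

open Finset Filter Topology

namespace Crest.Agent.R136.Asy51

open Crest.Agent.R138.Ex926 (Base U)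
open Crest.Agent.R138.Dp76 (Dense dense_of_sub dpow_pos dpow_add)
open Crest.Agent.R138.Mk163 (zc zl rho Negl)
open Crest.Agent.R136.MkA627 Crest.Agent.R136.Sh605 Crest.Agent.R136.K4 Crest.Agent.R136.Top484
open Crest.Agent.R136.Deep51 (CoinC CloseC anc anc_zc anc_sub)
open Crest.Agent.R136.Tlt51 (Shp InP CompC Agree mk4 zx rh TiltOKC cx)
open Crest.Agent.R136.Tl102
open Crest.Agent.R136.Eng904 (mark_of w_ratio lev2 MarkAt)

/-- coincidence of the mark of level `c` with the (fattened) mark of level `b` at the scale `s` -/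
def CoinP (D : Dat4) (n : ℕ) (b c : ℚ) (A s lam : ℝ) (x : ℕ × ℝ) : Prop :=
  CoinC (mk4 D n b x).e (mk4 D n b x).w (mk4 D n b x).q (mk4 D n c x).e (mk4 D n c x).c
    (mk4 D n c x).w (mk4 D n c x).q (mk4 D n c x).a A (s / lam * (mk4 D n b x).w 1)
    (s * (mk4 D n b x).w 2) (D.L n x.1) (zx D n (max b c) x) (rh D n (max b c))

/-- the marks of the levels `b` (base) and `c` of one incidence -/
structure Pair (D : Dat4) (n : ℕ) (b c : ℚ) (B : ℝ) (x : ℕ × ℝ) : Prop where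
  shp : Shp (mk4 D n b x) (zx D n b x) (rh D n b) (D.r0 n)
  shp' : Shp (mk4 D n c x) (zx D n c x) (rh D n c) (D.r0 n)
  inp : InP (D.L n x.1) (mk4 D n b x) (zx D n b x) (rh D n b)
  inp' : InP (D.L n x.1) (mk4 D n c x) (zx D n c x) (rh D n c)
  z1 : zx D n b x ≤ zx D n (max b c) x
  z1' : zx D n (max b c) x + rh D n (max b c) ≤ zx D n b x + rh D n b
  z2 : zx D n c x ≤ zx D n (max b c) x
  z2' : zx D n (max b c) x + rh D n (max b c) ≤ zx D n c x + rh D n c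
  rb : rh D n b ≤ B * rh D n (max b c)
  rc : rh D n c ≤ B * rh D n (max b c)
  a : (mk4 D n b x).a = D.w 0 n b
  w1 : (mk4 D n b x).w 1 = D.w 1 n b
  w2 : (mk4 D n b x).w 2 = D.w 2 n b
  a' : (mk4 D n c x).a = D.w 0 n c
  w1' : (mk4 D n c x).w 1 = D.w 1 n c
  w2' : (mk4 D n c x).w 2 = D.w 2 n c
  cw : ∀ k, D.w k n b ≤ B * D.w k n c ∧ D.w k n c ≤ B * D.w k n b

theorem zx_sub {D : Dat4} {n : ℕ} {b m : ℚ} (h : D.lev n b ≤ D.lev n m) (x : ℕ × ℝ) :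
    zx D n b x ≤ zx D n m x ∧ zx D n m x + rh D n m ≤ zx D n b x + rh D n b := by
  have := anc_sub h (zc (D.lev n m) x.2)
  rw [anc_zc h] at this
  exact this

theorem pair_of {η : ℝ} {p : Par4} {D : Dat4} (hJ1 : J1 η p D) : ∃ Cw : ℝ, 0 ≤ Cw ∧
    ∀ b c : ℚ, 0 ≤ b → b ≤ 1 → 0 ≤ c → c ≤ 1 → ∀ ε : ℝ, 0 < ε →
    ∀ᶠ n in (U : Filter ℕ), ∀ x ∈ D.I n, Pair D n b c (D.B.d n ^ (-(Cw * |(b:ℝ) - c| + ε))) x := by
  set Cw : ℝ := |1 - p.θ 0| + |1 - p.θ 1| + |1 - p.θ 2| + 1 with hCw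
  have h0 := abs_nonneg (1 - p.θ 0)
  have h1 := abs_nonneg (1 - p.θ 1)
  have h2 := abs_nonneg (1 - p.θ 2)
  have hK : ∀ k : Fin 3, |1 - p.θ k| ≤ Cw := by
    intro k
    fin_cases k
    · show |1 - p.θ 0| ≤ _
      linarith
    · show |1 - p.θ 1| ≤ _
      linarith
    · show |1 - p.θ 2| ≤ _
      linarith
  refine ⟨Cw, by linarith, ?_⟩
  intro b c hb0 hb1 hc0 hc1 ε hε
  have hm0 : 0 ≤ max b c := hb0.trans (le_max_left _ _)
  have hm1 : max b c ≤ 1 := max_le hb1 hc1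
  have hW : ∀ k : Fin 3, ∀ᶠ n in (U : Filter ℕ),
      D.w k n b ≤ D.B.d n ^ (-(Cw * |(b:ℝ) - c| + ε)) * D.w k n c ∧
      D.w k n c ≤ D.B.d n ^ (-(Cw * |(b:ℝ) - c| + ε)) * D.w k n b := by
    intro k
    filter_upwards [w_ratio hJ1.mka k hb0 hb1 hc0 hc1 (hK k) hε,
      w_ratio hJ1.mka k hc0 hc1 hb0 hb1 (hK k) hε] with n k1 k2
    rw [abs_sub_comm (c:ℝ) b] at k2
    exact ⟨k1, k2⟩
  have hR : ∀ e : ℚ, 0 ≤ e → e ≤ max b c → ((max b c : ℚ) : ℝ) - e ≤ |(b:ℝ) - c| →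
      ∀ᶠ n in (U : Filter ℕ),
        rh D n e ≤ D.B.d n ^ (-(Cw * |(b:ℝ) - c| + ε)) * rh D n (max b c) := by
    intro e he0 hem hed
    filter_upwards [lev2 hJ1.mka he0 hem hm1 hε] with n hn
    have hp1 : (0:ℝ) < 2 ^ D.lev n e := by positivity
    have hp2 : (0:ℝ) < 2 ^ D.lev n (max b c) := by positivity
    have hle : D.B.d n ^ (-(((max b c : ℚ) : ℝ) - e + ε)) ≤
        D.B.d n ^ (-(Cw * |(b:ℝ) - c| + ε)) := by
      refine Real.rpow_le_rpow_of_exponent_ge (D.B.pos n) (D.B.lt n).le ?_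
      have e1 : 1 * |(b:ℝ) - c| ≤ Cw * |(b:ℝ) - c| :=
        mul_le_mul_of_nonneg_right (by linarith) (abs_nonneg _)
      linarith
    have h3 : (2:ℝ) ^ D.lev n (max b c) ≤
        D.B.d n ^ (-(Cw * |(b:ℝ) - c| + ε)) * 2 ^ D.lev n e :=
      hn.trans (mul_le_mul_of_nonneg_right hle hp1.le)
    unfold rh Crest.Agent.R138.Mk163.rho
    rw [mul_one_div, div_le_div_iff₀ hp1 hp2, one_mul]
    exact h3
  have hδb : ((max b c : ℚ) : ℝ) - b ≤ |(b:ℝ) - c| := by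
    rcases le_total b c with h | h
    · rw [max_eq_right h, abs_sub_comm]; exact le_abs_self _
    · rw [max_eq_left h, sub_self]; exact abs_nonneg _
  have hδc : ((max b c : ℚ) : ℝ) - c ≤ |(b:ℝ) - c| := by
    rcases le_total b c with h | h
    · rw [max_eq_right h, sub_self]; exact abs_nonneg _
    · rw [max_eq_left h]; exact le_abs_self _
  filter_upwards [mark_of hJ1 hb0 hb1, mark_of hJ1 hc0 hc1, hW 0, hW 1, hW 2,
    hR b hb0 (le_max_left _ _) hδb, hR c hc0 (le_max_right _ _) hδc,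
    hJ1.mka.lev_mono b (max b c) hb0 (le_max_left _ _) hm1,
    hJ1.mka.lev_mono c (max b c) hc0 (le_max_right _ _) hm1] with n k1 k2 k3 k4 k5 k6 k7 k8 k9 x hx
  have m1 := k1 x hx
  have m2 := k2 x hx
  obtain ⟨y1, y2⟩ := zx_sub k8 x
  obtain ⟨y3, y4⟩ := zx_sub k9 x
  refine ⟨m1.shp, m2.shp, m1.inP, m2.inP, y1, y2, y3, y4, k6, k7, m1.a, m1.w1, m1.w2, m2.a, m2.w1,
    m2.w2, ?_⟩
  intro k
  fin_cases k
  exacts [k3, k4, k5]

/-- a family which is not negligible contains a dense part -/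
theorem dense_of_not_negl {B : Base} {I : ℕ → Finset (ℕ × ℝ)} {P : ℕ → ℕ × ℝ → Prop}
    (h : ¬ Negl B I P) : ∃ J : ℕ → Finset (ℕ × ℝ), Dense B J I ∧ ∀ n, ∀ x ∈ J n, P n x := by
  classical
  refine ⟨fun n => (I n).filter (P n), ⟨Eventually.of_forall fun n => filter_subset _ _, ?_⟩,
    fun n x hx => (mem_filter.1 hx).2⟩
  intro γ hγ
  by_contra hcon
  refine h ⟨γ, hγ, ?_⟩
  rw [← Ultrafilter.eventually_not] at hcon
  filter_upwards [hcon] with n hn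
  push Not at hn
  convert hn.le using 3

/-- removing a negligible family -/
theorem Dense.remove {B : Base} {I J : ℕ → Finset (ℕ × ℝ)} {P : ℕ → ℕ × ℝ → Prop}
    (h : Dense B J I) (hP : Negl B I P) : ∃ J' : ℕ → Finset (ℕ × ℝ), Dense B J' I ∧
      ∀ n, ∀ x ∈ J' n, x ∈ J n ∧ ¬ P n x := by
  classical
  have h1 := Crest.Agent.R138.Mk163.Negl.compl (Crest.Agent.R138.Mk163.Negl.dense hP h)
  refine ⟨_, h1.trans h, fun n x hx => mem_filter.1 hx⟩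

open Classical in
/-- **selection** of the dyadic base tilt `2^j` and of the coincidence scale `2^-i` -/
theorem sel {D : Dat4} {b c : ℚ} {J : ℕ → Finset (ℕ × ℝ)} {A : ℕ → ℝ} {i0 : ℕ → ℕ} {M0 : ℝ}
    (hM0 : 0 ≤ M0) (hne : ∀ᶠ n in (U : Filter ℕ), (J n).Nonempty)
    (hgeo : ∀ᶠ n in (U : Filter ℕ), ∀ x ∈ J n, Ortho (mk4 D n b x).e ∧ Ortho (mk4 D n c x).e ∧
      0 < (mk4 D n b x).w 2 ∧ (mk4 D n b x).w 2 ≤ (mk4 D n b x).w 1)
    (hang : ∀ᶠ n in (U : Filter ℕ), ∀ x ∈ J n, angC (mk4 D n b x) (mk4 D n c x) *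
      (mk4 D n b x).w 1 ≤ D.B.d n ^ (-M0) * (mk4 D n b x).w 2)
    (hcoin : ∀ᶠ n in (U : Filter ℕ), ∀ x ∈ J n,
      CoinP D n b c (A n) (D.B.d n ^ M0) (D.B.d n ^ (-M0)) x)
    (hi0 : ∀ᶠ n in (U : Filter ℕ), (i0 n : ℝ) ≤ M0 * D.B.L n) :
    ∃ (i j : ℕ → ℕ) (M : ℝ) (J' : ℕ → Finset (ℕ × ℝ)), 0 ≤ M ∧ Dense D.B J' J ∧
      (∀ᶠ n in (U : Filter ℕ), i0 n ≤ i n ∧ (i n : ℝ) ≤ M * D.B.L n ∧ (j n : ℝ) ≤ M * D.B.L n) ∧
      ∀ᶠ n in (U : Filter ℕ), ∀ x ∈ J' n, x ∈ J n ∧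
        angC (mk4 D n b x) (mk4 D n c x) * (mk4 D n b x).w 1 ≤ 2 ^ j n * (mk4 D n b x).w 2 ∧
        2 ^ j n * (mk4 D n b x).w 2 ≤ 2 * (mk4 D n b x).w 1 ∧
        (j n = 0 ∨ 2 ^ j n * (mk4 D n b x).w 2 ≤
          2 * (angC (mk4 D n b x) (mk4 D n c x) * (mk4 D n b x).w 1)) ∧
        CoinP D n b c (A n) ((1 / 2) ^ i n) (2 ^ j n) x ∧
        (i n = i0 n ∨ ¬ CoinP D n b c (A n) (2 * (1 / 2) ^ i n) (2 ^ j n) x) := by
  have hl2 : (1:ℝ) / 2 < Real.log 2 := by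
    have := Real.log_two_gt_d9
    linarith
  have hl0 : (0:ℝ) < Real.log 2 := by linarith
  have hl1 : Real.log 2 < 1 := by
    have := Real.log_two_lt_d9
    linarith
  set P1 : ℕ → ℕ × ℝ → ℕ → Prop := fun n x k =>
    angC (mk4 D n b x) (mk4 D n c x) * (mk4 D n b x).w 1 ≤ 2 ^ k * (mk4 D n b x).w 2 ∧
    2 ^ k * (mk4 D n b x).w 2 ≤ 2 * (mk4 D n b x).w 1 ∧
    (k = 0 ∨ 2 ^ k * (mk4 D n b x).w 2 ≤
      2 * (angC (mk4 D n b x) (mk4 D n c x) * (mk4 D n b x).w 1)) with hP1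
  set F1 : ℕ → ℕ × ℝ → ℕ := fun n x => if h : ∃ k, P1 n x k then h.choose else 0 with hF1
  have hF1s : ∀ᶠ n in (U : Filter ℕ), ∀ x ∈ J n, P1 n x (F1 n x) := by
    filter_upwards [hgeo] with n hn x hx
    obtain ⟨g1, g2, g3, g4⟩ := hn x hx
    have hex : ∃ k, P1 n x k := exists_lam g1 g2 g3 g4
    have : F1 n x = hex.choose := by simp only [hF1]; exact dif_pos hex
    rw [this]
    exact hex.choose_spec
  have hF1b : ∀ᶠ n in (U : Filter ℕ), ∀ x ∈ J n, (F1 n x : ℝ) ≤ (2 * (M0 + 1)) * D.B.L n := by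
    filter_upwards [hF1s, hang, hgeo, D.B.ev_L_ge 1] with n h1 h2 h3 h4 x hx
    obtain ⟨-, -, k3⟩ := h1 x hx
    have k2 := h2 x hx
    obtain ⟨-, -, g3, -⟩ := h3 x hx
    have hL := D.B.L_pos n
    rcases k3 with k3 | k3
    · rw [k3]; push_cast; positivity
    · have e1 : (2:ℝ) ^ F1 n x ≤ 2 * D.B.d n ^ (-M0) := by
        have : (2:ℝ) ^ F1 n x * (mk4 D n b x).w 2 ≤ (2 * D.B.d n ^ (-M0)) * (mk4 D n b x).w 2 := by
          linarith
        exact le_of_mul_le_mul_right this g3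
      have e2 := Real.log_le_log (by positivity) e1
      rw [Real.log_pow, Real.log_mul (by norm_num) (dpow_pos _ _ _).ne',
        Crest.Agent.R138.ArgM163.log_dpow] at e2
      have e3 : (F1 n x : ℝ) * (1 / 2) ≤ (F1 n x : ℝ) * Real.log 2 :=
        mul_le_mul_of_nonneg_left hl2.le (Nat.cast_nonneg _)
      nlinarith
  obtain ⟨j, hj⟩ := dense_pigeon (M := 2 * (M0 + 1)) (by linarith) hF1b
  set J1 : ℕ → Finset (ℕ × ℝ) := fun n => (J n).filter fun x => F1 n x = j n with hJ1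
  set F2 : ℕ → ℕ × ℝ → ℕ := fun n x =>
    if h : ∃ i, i0 n ≤ i ∧ CoinP D n b c (A n) ((1 / 2) ^ i) (2 ^ j n) x then Nat.find h else 0
    with hF2
  have hF2s : ∀ᶠ n in (U : Filter ℕ), ∀ x ∈ J1 n,
      (i0 n ≤ F2 n x ∧ CoinP D n b c (A n) ((1 / 2) ^ F2 n x) (2 ^ j n) x) ∧
      (∀ i < F2 n x, i0 n ≤ i → ¬ CoinP D n b c (A n) ((1 / 2) ^ i) (2 ^ j n) x) ∧
      (F2 n x : ℝ) ≤ (4 * M0 + 1) * D.B.L n := by
    filter_upwards [hcoin, hgeo, D.B.ev_L_ge 1, hi0] with n h1 h2 h3 h4 x hx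
    have hxJ : x ∈ J n := (mem_filter.1 hx).1
    obtain ⟨-, -, g3, g4⟩ := h2 x hxJ
    have g5 : 0 < (mk4 D n b x).w 1 := g3.trans_le g4
    have hL := D.B.L_pos n
    set ks : ℕ := max (i0 n) ⌈4 * M0 * D.B.L n⌉₊ with hks
    have hk4 : 4 * M0 * D.B.L n ≤ (ks : ℝ) :=
      (Nat.le_ceil _).trans (by exact_mod_cast le_max_right _ _)
    have hd0 := dpow_pos D.B n M0
    have hpow : ((1:ℝ) / 2) ^ ks ≤ D.B.d n ^ (2 * M0) := by
      rw [← Real.log_le_log_iff (by positivity) (dpow_pos _ _ _), Real.log_pow,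
        Crest.Agent.R138.ArgM163.log_dpow, Real.log_div one_ne_zero two_ne_zero, Real.log_one]
      have e1 : 4 * M0 * D.B.L n * (1 / 2) ≤ (ks : ℝ) * Real.log 2 :=
        mul_le_mul hk4 hl2.le (by norm_num) (Nat.cast_nonneg _)
      linarith
    have hdd : D.B.d n ^ (2 * M0) = D.B.d n ^ M0 / D.B.d n ^ (-M0) := by
      rw [eq_div_iff (dpow_pos _ _ _).ne', ← dpow_add]; congr 1; ring
    have hdle : D.B.d n ^ (2 * M0) ≤ D.B.d n ^ M0 :=
      Real.rpow_le_rpow_of_exponent_ge (D.B.pos n) (D.B.lt n).le (by linarith)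
    have h2j : (1:ℝ) ≤ 2 ^ j n := one_le_pow₀ (by norm_num)
    have hcs : CoinP D n b c (A n) ((1 / 2) ^ ks) (2 ^ j n) x := by
      refine (h1 x hxJ).anti le_rfl ?_ ?_ le_rfl le_rfl
      · refine mul_le_mul_of_nonneg_right ?_ g5.le
        rw [← hdd]
        exact (div_le_self (by positivity) h2j).trans hpow
      · exact mul_le_mul_of_nonneg_right (hpow.trans hdle) g3.le
    have hex : ∃ i, i0 n ≤ i ∧ CoinP D n b c (A n) ((1 / 2) ^ i) (2 ^ j n) x :=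
      ⟨ks, le_max_left _ _, hcs⟩
    have he : F2 n x = Nat.find hex := by simp only [hF2]; exact dif_pos hex
    rw [he]
    refine ⟨Nat.find_spec hex, fun i hi hi0' hc' => Nat.find_min hex hi ⟨hi0', hc'⟩, ?_⟩
    have hfk : Nat.find hex ≤ ks := Nat.find_min' hex ⟨le_max_left _ _, hcs⟩
    have hkb : (ks : ℝ) ≤ (4 * M0 + 1) * D.B.L n := by
      rw [hks, Nat.cast_max]
      refine max_le (h4.trans (by nlinarith)) ?_
      have := (Nat.ceil_lt_add_one (show 0 ≤ 4 * M0 * D.B.L n by positivity)).le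
      linarith
    exact le_trans (by exact_mod_cast hfk) hkb
  obtain ⟨i, hi⟩ := dense_pigeon (J := J1) (F := F2) (M := 4 * M0 + 1) (by linarith)
    (hF2s.mono fun n hn x hx => (hn x hx).2.2)
  have hD2 : Dense D.B (fun n => (J1 n).filter fun x => F2 n x = i n) J := hi.trans hj
  refine ⟨i, j, 4 * M0 + 2, fun n => (J1 n).filter fun x => F2 n x = i n, by linarith, hD2, ?_, ?_⟩
  · filter_upwards [hD2.nonempty hne, hF2s, hF1b] with n h1 h2 h3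
    obtain ⟨x, hx⟩ := h1
    obtain ⟨hx1, hx2⟩ := mem_filter.1 hx
    obtain ⟨hx3, hx4⟩ := mem_filter.1 hx1
    obtain ⟨⟨k1, -⟩, -, k2⟩ := h2 x hx1
    have k3 := h3 x hx3
    have hL := D.B.L_pos n
    rw [hx2] at k1 k2
    rw [hx4] at k3
    exact ⟨k1, by nlinarith, by nlinarith⟩
  · filter_upwards [hF1s, hF2s] with n h1 h2 x hx
    obtain ⟨hx1, hx2⟩ := mem_filter.1 hx
    obtain ⟨hx3, hx4⟩ := mem_filter.1 hx1
    obtain ⟨⟨k1, k2⟩, k3, -⟩ := h2 x hx1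
    obtain ⟨l1, l2, l3⟩ := h1 x hx3
    rw [hx2] at k1 k2 k3
    rw [hx4] at l1 l2 l3
    refine ⟨hx3, l1, l2, l3, k2, ?_⟩
    rcases eq_or_lt_of_le k1 with h | h
    · exact Or.inl h.symm
    · right
      have := k3 (i n - 1) (by omega) (by omega)
      have e : (2:ℝ) * (1 / 2) ^ i n = (1 / 2) ^ (i n - 1) := by
        obtain ⟨m, hm⟩ : ∃ m, i n = m + 1 := ⟨i n - 1, by omega⟩
        rw [hm, pow_succ]
        simp only [Nat.add_sub_cancel]
        ring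
      rw [e]
      exact this

end Crest.Agent.R136.Asy51
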