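import Mathlib
import Crest.Agent.R136.Deep5_51

/-!
# R136 (U5 TILT): the numbers of the deep count (helper51)

`tilt_num` : `tilt_stage` with D-max at two deep levels, all deficits in one number `X`.
-/

set_option autoImplicit false
set_option linter.unusedVariables false

open Finset

namespace Crest.Agent.R136.Deep51

open Crest.Agent.R136.Sh605 Crest.Agent.R136.Sh321 Crest.Agent.R136.K4
open Crest.Agent.R138.Mk163 (zc zl rho alive own)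

/-- value of a box over a cell of length `r` -/
noncomputable def valr (q : Fin 3 → ℝ) (r a w1 w2 : ℝ) : ℝ :=
  a * w2 * w1 * ((a / r) ^ q 0 * (w1 / r) ^ q 1 * (w2 / r) ^ q 2)

/-- value of a box over a cell of level `i` -/
noncomputable def val4 (q : Fin 3 → ℝ) (i : ℕ) (a w1 w2 : ℝ) : ℝ := valr q (rho i) a w1 w2

/-- comparison of values -/
theorem valr_le {q : Fin 3 → ℝ} (hq : ∀ k, 0 ≤ q k) {r r' a b c a' b' c' α β γ α' β' γ' : ℝ}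
    (hr : 0 < r) (hr' : 0 < r') (ha : 0 < a) (hb : 0 < b) (hc : 0 < c) (ha' : 0 ≤ a')
    (hb' : 0 ≤ b') (hc' : 0 ≤ c') (hα : 0 ≤ α) (hβ : 0 ≤ β) (hγ : 0 ≤ γ) (hα' : 0 ≤ α')
    (hβ' : 0 ≤ β') (hγ' : 0 ≤ γ') (k1 : a' ≤ α * a) (k2 : b' ≤ β * b) (k3 : c' ≤ γ * c)
    (l1 : a' / r' ≤ α' * (a / r)) (l2 : b' / r' ≤ β' * (b / r)) (l3 : c' / r' ≤ γ' * (c / r)) :
    valr q r' a' b' c' ≤ (α * β * γ) * (α' ^ q 0 * β' ^ q 1 * γ' ^ q 2) * valr q r a b c := by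
  unfold valr
  have e1 : a' * c' * b' ≤ (α * a) * (γ * c) * (β * b) := by gcongr
  have p1 : (a' / r') ^ q 0 ≤ α' ^ q 0 * (a / r) ^ q 0 := by
    rw [← Real.mul_rpow hα' (by positivity)]
    exact Real.rpow_le_rpow (by positivity) l1 (hq 0)
  have p2 : (b' / r') ^ q 1 ≤ β' ^ q 1 * (b / r) ^ q 1 := by
    rw [← Real.mul_rpow hβ' (by positivity)]
    exact Real.rpow_le_rpow (by positivity) l2 (hq 1)
  have p3 : (c' / r') ^ q 2 ≤ γ' ^ q 2 * (c / r) ^ q 2 := by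
    rw [← Real.mul_rpow hγ' (by positivity)]
    exact Real.rpow_le_rpow (by positivity) l3 (hq 2)
  have e2 : (a' / r') ^ q 0 * (b' / r') ^ q 1 * (c' / r') ^ q 2 ≤
      (α' ^ q 0 * (a / r) ^ q 0) * (β' ^ q 1 * (b / r) ^ q 1) * (γ' ^ q 2 * (c / r) ^ q 2) := by
    gcongr
  calc a' * c' * b' * ((a' / r') ^ q 0 * (b' / r') ^ q 1 * (c' / r') ^ q 2)
      ≤ ((α * a) * (γ * c) * (β * b)) *
        ((α' ^ q 0 * (a / r) ^ q 0) * (β' ^ q 1 * (b / r) ^ q 1) * (γ' ^ q 2 * (c / r) ^ q 2)) := by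
        gcongr
    _ = _ := by ring

/-- lower comparison -/
theorem valr_ge {q : Fin 3 → ℝ} (hq : ∀ k, 0 ≤ q k) {r r' a b c a' b' c' X : ℝ} (hX : 1 ≤ X)
    (hr : 0 < r) (hr' : 0 < r') (ha : 0 < a) (hb : 0 < b) (hc : 0 < c) (ha' : 0 < a')
    (hb' : 0 < b') (hc' : 0 < c') (k1 : a ≤ X * a') (k2 : b ≤ X * b') (k3 : c ≤ X * c')
    (hrr : r' ≤ X * r) :
    valr q r a b c ≤ X ^ (3:ℝ) * X ^ (2 * (q 0 + q 1 + q 2)) * valr q r' a' b' c' := by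
  have hX0 : 0 < X := by linarith
  have l : ∀ x x' : ℝ, 0 < x' → x ≤ X * x' → x / r ≤ X ^ 2 * (x' / r') := by
    intro x x' hx' h
    rw [div_le_iff₀ hr]
    have : 1 / r' * (X * r) ≥ 1 := by
      rw [ge_iff_le, one_div, inv_mul_eq_div, one_le_div hr']; exact hrr
    calc x ≤ X * x' * 1 := by linarith
      _ ≤ X * x' * (1 / r' * (X * r)) := by gcongr
      _ = X ^ 2 * (x' / r') * r := by ring
  have h := valr_le hq hr' hr ha' hb' hc' ha.le hb.le hc.le hX0.le hX0.le hX0.le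
    (sq_nonneg X) (sq_nonneg X) (sq_nonneg X) k1 k2 k3 (l a a' ha' k1) (l b b' hb' k2)
    (l c c' hc' k3)
  refine h.trans (le_of_eq ?_)
  have e1 : X * X * X = X ^ (3:ℝ) := by
    rw [show (3:ℝ) = ((3:ℕ):ℝ) by norm_num, Real.rpow_natCast]; ring
  have e2 : (X ^ 2) ^ q 0 * (X ^ 2) ^ q 1 * (X ^ 2) ^ q 2 = X ^ (2 * (q 0 + q 1 + q 2)) := by
    rw [← Real.rpow_add (by positivity), ← Real.rpow_add (by positivity), ← Real.rpow_natCast X 2,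
      ← Real.rpow_mul hX0.le]
    norm_num
  rw [e1, e2]

/-- number of labels, in the units of `tilt_num` -/
theorem nlab_le {X s lam h w1 w2 ρ : ℝ} (hX : 1 ≤ X) (hs : 0 < s) (hs1 : s ≤ 1) (hl : 1 ≤ lam)
    (hh : 0 < h) (hm' : lam ≤ 2 * (h * (X ^ 6 * s))) (hw1 : 0 < w1) (hw2 : 0 < w2) (hρ : 0 < ρ) :
    nlab (X * w1) (X * w2) ρ (1 / (2 ^ 10 * X ^ 2) * (s / lam) * w1) (1 / (2 ^ 10 * X ^ 2) * s * w2)
      (1 / (2 ^ 10 * X ^ 2) * (s / lam) * w1 * (h / ρ)) (1 / (2 ^ 10 * X ^ 2) * s * w2 * (h / ρ)) ≤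
      2 ^ 52 * X ^ 24 * (lam / s ^ 2) := by
  have hX0 : 0 < X := by linarith
  have hl0 : 0 < lam := by linarith
  have e1 : X * w1 / (1 / (2 ^ 10 * X ^ 2) * (s / lam) * w1) = 2 ^ 10 * X ^ 3 * (lam / s) := by
    field_simp
  have e2 : X * w2 / (1 / (2 ^ 10 * X ^ 2) * s * w2) = 2 ^ 10 * X ^ 3 * (1 / s) := by
    field_simp
  have e3 : 2 * (X * w1) / ρ / (1 / (2 ^ 10 * X ^ 2) * (s / lam) * w1 * (h / ρ)) =
      2 ^ 11 * X ^ 3 * (lam / (s * h)) := by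
    field_simp
  have e4 : 2 * (X * w2) / ρ / (1 / (2 ^ 10 * X ^ 2) * s * w2 * (h / ρ)) =
      2 ^ 11 * X ^ 3 * (1 / (s * h)) := by
    field_simp
  have f3 : lam / (s * h) ≤ 2 * X ^ 6 := by
    rw [div_le_iff₀ (by positivity)]; linarith
  have f4 : 1 / (s * h) ≤ 2 * X ^ 6 := le_trans (div_le_div_of_nonneg_right hl (by positivity)) f3
  have g1 : (1:ℝ) ≤ X ^ 3 * (lam / s) := by
    have : 1 ≤ lam / s := by rw [one_le_div hs]; linarith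
    have h3 : (1:ℝ) ≤ X ^ 3 := one_le_pow₀ hX
    nlinarith
  have g2 : (1:ℝ) ≤ X ^ 3 * (1 / s) := by
    have : 1 ≤ 1 / s := by rw [one_le_div hs]; exact hs1
    have h3 : (1:ℝ) ≤ X ^ 3 := one_le_pow₀ hX
    nlinarith
  have g3 : (1:ℝ) ≤ X ^ 9 := one_le_pow₀ hX
  unfold nlab
  rw [e1, e2, e3, e4]
  have a1 : 2 * (2 ^ 10 * X ^ 3 * (lam / s)) + 2 ≤ 2 ^ 12 * (X ^ 3 * (lam / s)) := by linarith
  have a2 : 2 * (2 ^ 10 * X ^ 3 * (1 / s)) + 2 ≤ 2 ^ 12 * (X ^ 3 * (1 / s)) := by linarith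
  have a3 : 2 * (2 ^ 11 * X ^ 3 * (lam / (s * h))) + 2 ≤ 2 ^ 14 * X ^ 9 := by
    have : 2 ^ 11 * X ^ 3 * (lam / (s * h)) ≤ 2 ^ 11 * X ^ 3 * (2 * X ^ 6) := by gcongr
    have e : 2 ^ 11 * X ^ 3 * (2 * X ^ 6) = 2 ^ 12 * X ^ 9 := by ring
    linarith
  have a4 : 2 * (2 ^ 11 * X ^ 3 * (1 / (s * h))) + 2 ≤ 2 ^ 14 * X ^ 9 := by
    have : 2 ^ 11 * X ^ 3 * (1 / (s * h)) ≤ 2 ^ 11 * X ^ 3 * (2 * X ^ 6) := by gcongr
    have e : 2 ^ 11 * X ^ 3 * (2 * X ^ 6) = 2 ^ 12 * X ^ 9 := by ring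
    linarith
  calc _ ≤ (2 ^ 12 * (X ^ 3 * (lam / s)) * (2 ^ 12 * (X ^ 3 * (1 / s)))) *
        ((2 ^ 14 * X ^ 9) * (2 ^ 14 * X ^ 9)) := by gcongr
    _ = _ := by ring

/-- the value of the test boxes -/
theorem val_test {q : Fin 3 → ℝ} (hq : ∀ k, 0 ≤ q k) {X s lam A a w1 w2 W1 W2 r r' h t : ℝ}
    (hX : 1 ≤ X) (hs : 0 < s) (hl : 1 ≤ lam) (ht0 : 0 < t) (ht : t ≤ 1) (ha : 0 < a)
    (hw1 : 0 < w1) (hw2 : 0 < w2) (hA0 : 0 ≤ A) (hW10 : 0 ≤ W1) (hW20 : 0 ≤ W2) (hr : 0 < r)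
    (hr' : 0 < r') (hA : A ≤ X * a) (hW1 : W1 ≤ X ^ 5 * (s / lam) * w1) (hW2 : W2 ≤ X ^ 4 * s * w2)
    (hh : 0 < h) (hrh : h / r ≤ X * h * (1 / r) ∧ 1 / r' ≤ X * h * (1 / r))
    (hht : h * (X ^ 4 * s) ≤ 64 * (lam * t)) :
    valr q r' A W1 W2 ≤ X ^ (10:ℝ) * (s ^ 2 / lam) * ((64 * X ^ 2) ^ (q 0 + q 1 + q 2) *
      (lam / s) ^ q 0 * t ^ q 1 * lam ^ q 2) * valr q r a w1 w2 := by
  have hX0 : 0 < X := by linarith
  have hl0 : 0 < lam := by linarith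
  have k : ∀ (Y y c d : ℝ), 0 ≤ y → 0 ≤ c → Y ≤ c * y → c * (X * h) ≤ d →
      Y / r' ≤ d * (y / r) := by
    intro Y y c d hy hc hY hd
    calc Y / r' = Y * (1 / r') := by ring
      _ ≤ (c * y) * (1 / r') := by gcongr
      _ ≤ (c * y) * (X * h * (1 / r)) := by gcongr; exact hrh.2
      _ = (c * (X * h)) * (y / r) := by ring
      _ ≤ d * (y / r) := by gcongr
  have h1 : s * h ≤ 64 * (lam * t) / X ^ 4 := by
    rw [le_div_iff₀ (by positivity)]; linarith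
  have hX2 : (1:ℝ) ≤ X ^ 2 := one_le_pow₀ hX
  have l1 : A / r' ≤ (64 * X ^ 2 * (lam / s)) * (a / r) := by
    refine k A a X _ ha.le hX0.le hA ?_
    have e : X * (X * h) = X ^ 2 * (s * h) / s := by field_simp
    rw [e, div_le_iff₀ hs]
    calc X ^ 2 * (s * h) ≤ X ^ 2 * (64 * (lam * t) / X ^ 4) := by gcongr
      _ = 64 * (lam * t) / X ^ 2 := by field_simp
      _ ≤ 64 * (lam * t) := div_le_self (by positivity) hX2
      _ ≤ 64 * (lam * 1) := by gcongr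
      _ ≤ 64 * X ^ 2 * (lam / s) * s := by
        have e : 64 * X ^ 2 * (lam / s) * s = 64 * lam * X ^ 2 := by field_simp
        rw [e]; nlinarith
  have l2 : W1 / r' ≤ (64 * X ^ 2 * t) * (w1 / r) := by
    refine k W1 w1 (X ^ 5 * (s / lam)) _ hw1.le (by positivity) hW1 ?_
    have e : X ^ 5 * (s / lam) * (X * h) = X ^ 6 * (s * h) / lam := by ring
    rw [e, div_le_iff₀ hl0]
    calc X ^ 6 * (s * h) ≤ X ^ 6 * (64 * (lam * t) / X ^ 4) := by gcongr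
      _ = 64 * X ^ 2 * t * lam := by field_simp
  have l3 : W2 / r' ≤ (64 * X ^ 2 * lam) * (w2 / r) := by
    refine k W2 w2 (X ^ 4 * s) _ hw2.le (by positivity) hW2 ?_
    have e : X ^ 4 * s * (X * h) = X ^ 5 * (s * h) := by ring
    rw [e]
    calc X ^ 5 * (s * h) ≤ X ^ 5 * (64 * (lam * t) / X ^ 4) := by gcongr
      _ = 64 * X * (lam * t) := by field_simp
      _ ≤ 64 * X * (lam * 1) := by gcongr
      _ ≤ 64 * X ^ 2 * lam := by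
        have hXX : X ≤ X ^ 2 := by nlinarith
        nlinarith [mul_le_mul_of_nonneg_right hXX hl0.le]
  have h := valr_le hq hr hr' ha hw1 hw2 hA0 hW10 hW20 hX0.le (by positivity : 0 ≤ X ^ 5 * (s / lam))
    (by positivity : 0 ≤ X ^ 4 * s) (by positivity) (by positivity) (by positivity) hA hW1 hW2
    l1 l2 l3
  refine h.trans (le_of_eq ?_)
  have e1 : X * (X ^ 5 * (s / lam)) * (X ^ 4 * s) = X ^ (10:ℝ) * (s ^ 2 / lam) := by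
    rw [show (10:ℝ) = ((10:ℕ):ℝ) by norm_num, Real.rpow_natCast]; ring
  have e2 : (64 * X ^ 2 * (lam / s)) ^ q 0 = (64 * X ^ 2) ^ q 0 * (lam / s) ^ q 0 :=
    Real.mul_rpow (by positivity) (by positivity)
  have e3 : (64 * X ^ 2 * t) ^ q 1 = (64 * X ^ 2) ^ q 1 * t ^ q 1 :=
    Real.mul_rpow (by positivity) (by positivity)
  have e4 : (64 * X ^ 2 * lam) ^ q 2 = (64 * X ^ 2) ^ q 2 * lam ^ q 2 :=
    Real.mul_rpow (by positivity) (by positivity)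
  have e5 : (64 * X ^ 2) ^ (q 0 + q 1 + q 2) =
      (64 * X ^ 2) ^ q 0 * (64 * X ^ 2) ^ q 1 * (64 * X ^ 2) ^ q 2 := by
    rw [Real.rpow_add (by positivity), Real.rpow_add (by positivity)]
  rw [e1, e2, e3, e4, e5]
  ring

/-- final algebra of `tilt_num` -/
theorem num_alg {X s lam t g q0 q1 q2 Am vb vc vm vm2 n P1 P2 N H1 H2 : ℝ} (hX : 1 ≤ X)
    (hs : 0 < s) (hl : 1 ≤ lam) (ht0 : 0 < t) (hAm : 0 < Am) (hP1 : 0 < P1)
    (hP2 : 0 < P2) (hN : 0 ≤ N) (hvb : 0 < vb) (hvm : 0 ≤ vm) (hvm2 : 0 ≤ vm2)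
    (hn0 : 0 ≤ n) (hH1 : 0 ≤ H1) (hH2 : 0 ≤ H2)
    (key : (P1 * (Am * vb) / X) * (P2 * (Am * vc) / X) ≤
      16 * (P1 * n) * (P2 * n) * (N * (X * (Am * H2) * vm2)) * (X * (Am * H1) * vm))
    (hn : n ≤ 2 ^ 52 * X ^ 24 * (lam / s ^ 2))
    (h1 : vm ≤ X ^ (10:ℝ) * (s ^ 2 / lam) * ((64 * X ^ 2) ^ (q0 + q1 + q2) *
      (lam / s) ^ q0 * 1 ^ q1 * lam ^ q2) * vb)
    (h2 : vm2 ≤ X ^ (10:ℝ) * (s ^ 2 / lam) * ((64 * X ^ 2) ^ (q0 + q1 + q2) *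
      (lam / s) ^ q0 * t ^ q1 * lam ^ q2) * vb)
    (h3 : vb ≤ X ^ (3:ℝ) * X ^ (2 * (q0 + q1 + q2)) * vc)
    (h4 : H1 * H2 ≤ 64 ^ g * (lam / s) ^ (2 * g)) :
    1 ≤ 2 ^ 108 * 64 ^ (g + 2 * (q0 + q1 + q2)) * X ^ (75 + 6 * (q0 + q1 + q2)) * N *
      (lam / s) ^ (2 * (g + q0)) * lam ^ (2 * q2) * t ^ q1 := by
  have hX0 : 0 < X := by linarith
  have hl0 : 0 < lam := by linarith
  set Q := q0 + q1 + q2 with hQ
  have hLs : 0 < lam / s := by positivity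
  -- cancel
  have k1 : vb * vc ≤ X ^ 2 * (16 * n ^ 2 * N * X ^ 2 * (H1 * H2) * (vm * vm2)) := by
    have e1 : (P1 * (Am * vb) / X) * (P2 * (Am * vc) / X) = (P1 * P2 * Am ^ 2) * (vb * vc / X ^ 2) := by
      field_simp
    have e2 : 16 * (P1 * n) * (P2 * n) * (N * (X * (Am * H2) * vm2)) * (X * (Am * H1) * vm) =
        (P1 * P2 * Am ^ 2) * (16 * n ^ 2 * N * X ^ 2 * (H1 * H2) * (vm * vm2)) := by ring
    rw [e1, e2] at key
    have := le_of_mul_le_mul_left key (by positivity)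
    rw [div_le_iff₀ (by positivity)] at this
    linarith
  have k2 : n ^ 2 ≤ (2 ^ 52 * X ^ 24 * (lam / s ^ 2)) ^ 2 := pow_le_pow_left₀ hn0 hn 2
  have k3 : vm * vm2 ≤ (X ^ (10:ℝ) * (s ^ 2 / lam) * ((64 * X ^ 2) ^ Q *
      (lam / s) ^ q0 * 1 ^ q1 * lam ^ q2) * vb) * (X ^ (10:ℝ) * (s ^ 2 / lam) * ((64 * X ^ 2) ^ Q *
      (lam / s) ^ q0 * t ^ q1 * lam ^ q2) * vb) := mul_le_mul h1 h2 hvm2 (hvm.trans h1)
  have k4 : vb * vb ≤ X ^ (3:ℝ) * X ^ (2 * Q) * (vb * vc) := by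
    calc vb * vb ≤ vb * (X ^ (3:ℝ) * X ^ (2 * Q) * vc) := mul_le_mul_of_nonneg_left h3 hvb.le
      _ = _ := by ring
  have k5 : vb * vb ≤ X ^ (3:ℝ) * X ^ (2 * Q) * (X ^ 2 * (16 *
      (2 ^ 52 * X ^ 24 * (lam / s ^ 2)) ^ 2 * N * X ^ 2 * (64 ^ g * (lam / s) ^ (2 * g)) *
      ((X ^ (10:ℝ) * (s ^ 2 / lam) * ((64 * X ^ 2) ^ Q *
      (lam / s) ^ q0 * 1 ^ q1 * lam ^ q2) * vb) * (X ^ (10:ℝ) * (s ^ 2 / lam) * ((64 * X ^ 2) ^ Q *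
      (lam / s) ^ q0 * t ^ q1 * lam ^ q2) * vb)))) := by
    refine k4.trans ?_
    refine mul_le_mul_of_nonneg_left ?_ (by positivity)
    refine k1.trans ?_
    have hH : 0 ≤ H1 * H2 := mul_nonneg hH1 hH2
    have hv : 0 ≤ vm * vm2 := mul_nonneg hvm hvm2
    gcongr
  have e10 : X ^ (10:ℝ) = X ^ 10 := by
    rw [show (10:ℝ) = ((10:ℕ):ℝ) by norm_num, Real.rpow_natCast]
  have e3 : X ^ (3:ℝ) = X ^ 3 := by
    rw [show (3:ℝ) = ((3:ℕ):ℝ) by norm_num, Real.rpow_natCast]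
  have e64 : (64 * X ^ 2) ^ Q * (64 * X ^ 2) ^ Q = 64 ^ (2 * Q) * X ^ (4 * Q) := by
    rw [← Real.mul_rpow (by positivity) (by positivity), Real.rpow_mul (by norm_num : (0:ℝ) ≤ 64),
      Real.rpow_mul hX0.le]
    rw [← Real.mul_rpow (by positivity) (by positivity)]
    congr 1
    rw [show (2:ℝ) = ((2:ℕ):ℝ) by norm_num, Real.rpow_natCast,
      show (4:ℝ) = ((4:ℕ):ℝ) by norm_num, Real.rpow_natCast]
    norm_num; ring
  have eX : X ^ 75 * (X ^ (2 * Q) * X ^ (4 * Q)) = X ^ (75 + 6 * Q) := by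
    rw [← Real.rpow_add hX0, ← Real.rpow_natCast X 75, ← Real.rpow_add hX0]
    congr 1; push_cast; ring
  have eg : (64:ℝ) ^ g * 64 ^ (2 * Q) = 64 ^ (g + 2 * Q) :=
    (Real.rpow_add (by norm_num) _ _).symm
  have eL : (lam / s) ^ (2 * g) * ((lam / s) ^ q0 * (lam / s) ^ q0) = (lam / s) ^ (2 * (g + q0)) := by
    rw [← Real.rpow_add hLs, ← Real.rpow_add hLs]; congr 1; ring
  have el : lam ^ q2 * lam ^ q2 = lam ^ (2 * q2) := by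
    rw [← Real.rpow_add hl0]; congr 1; ring
  have k6 : vb * vb ≤ (2 ^ 108 * 64 ^ (g + 2 * Q) * X ^ (75 + 6 * Q) * N *
      (lam / s) ^ (2 * (g + q0)) * lam ^ (2 * q2) * t ^ q1) * (vb * vb) := by
    refine k5.trans (le_of_eq ?_)
    rw [e10, e3, Real.one_rpow, ← eX, ← eg, ← eL, ← el]
    have e : (lam / s ^ 2) ^ 2 * ((s ^ 2 / lam) * (s ^ 2 / lam)) = 1 := by field_simp
    calc _ = (16 * (2 ^ 52) ^ 2) * (X ^ 3 * X ^ 2 * X ^ 48 * X ^ 2 * X ^ 10 * X ^ 10) *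
          ((lam / s ^ 2) ^ 2 * ((s ^ 2 / lam) * (s ^ 2 / lam))) *
          (64 ^ g * ((64 * X ^ 2) ^ Q * (64 * X ^ 2) ^ Q)) * X ^ (2 * Q) * N *
          ((lam / s) ^ (2 * g) * ((lam / s) ^ q0 * (lam / s) ^ q0)) * (lam ^ q2 * lam ^ q2) *
          t ^ q1 * (vb * vb) := by ring
      _ = _ := by rw [e, e64]; ring
  exact (le_mul_iff_one_le_left (by positivity)).1 k6

end Crest.Agent.R136.Deep51
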