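import Mathlib
import Crest.Agent.R136.Deep6_51

/-!
# R136 (U5 TILT): `tilt_num` (helper51)

`tilt_stage` with D-max at two deep levels, all deficits in one number `X`.
-/

set_option autoImplicit false
set_option linter.unusedVariables false

open Finset

namespace Crest.Agent.R136.Deep51

open Crest.Agent.R136.Sh605 Crest.Agent.R136.Sh321 Crest.Agent.R136.K4
open Crest.Agent.R138.Mk163 (zc zl rho alive own)

theorem two_pow_sub {i m : ℕ} (h : i ≤ m) (g : ℝ) :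
    (2:ℝ) ^ (g * ((m : ℝ) - i)) = ((2:ℝ) ^ (m - i)) ^ g := by
  rw [← Real.rpow_natCast 2 (m - i), ← Real.rpow_mul (by norm_num), Nat.cast_sub h]
  congr 1; ring

theorem rho_sub {i m : ℕ} (h : i ≤ m) : rho m = rho i / 2 ^ (m - i) := by
  unfold rho
  have : (2:ℝ) ^ m = 2 ^ i * 2 ^ (m - i) := by rw [← pow_add]; congr 1; omega
  rw [this]; field_simp

/-- the numbers of the hull -/
theorem hull_numbers {X s lam τ a' A w1 w2 w0' w1' w2' γ G G' μ1 μ2 ρ2 ρ : ℝ} (hX : 1 ≤ X)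
    (hs : 0 < s) (hl : 1 ≤ lam) (hτ : 0 < τ) (hw1 : 0 < w1) (hw2 : 0 < w2) (hw21 : w2 ≤ w1)
    (hw1' : 0 < w1') (hw2' : 0 < w2') (h02 : 0 ≤ w0') (h02' : w0' ≤ w2')
    (c1 : w1 ≤ X * w1') (c2 : w2' ≤ X * w2) (hlw : lam * w2 ≤ X * w1) (haA : a' ≤ A)
    (hA : 64 * A ≤ X ^ 4 * s * w2) (hG : G = X ^ 4 * s) (hG' : G' = max (G / lam) (G * w2 / w1))
    (hμ1 : μ1 = 1 / (2 ^ 10 * X ^ 2) * (s / lam) * w1) (hμ2 : μ2 = 1 / (2 ^ 10 * X ^ 2) * s * w2)
    (hγ : γ = X * lam * w2 / w1) (hρ2 : 32 * lam * τ * ρ2 ≤ X ^ 4 * s * ρ) (hρ : 0 < ρ)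
    (hρ20 : 0 < ρ2) :
    2 * (2 * a' + w0' / w1' * (2 * μ1) + w0' / w2' * (2 * μ2)) ≤ 4 * A + s * w2 / 128 ∧
    2 * (2 * μ1) + (4 * A + s * w2 / 128) + γ * (2 * μ2) ≤ G' / 8 * w1 ∧
    2 * (2 * μ2) + (4 * A + s * w2 / 128) + γ * (2 * μ1) ≤ G / 8 * w2 ∧
    μ1 + 2 * (τ * w1) * (ρ2 / ρ) ≤ G' / 8 * w1 ∧
    μ2 + 2 * (lam * τ * w2) * (ρ2 / ρ) ≤ G / 8 * w2 ∧
    G' * w1 ≤ X ^ 5 * (s / lam) * w1 ∧ G * w2 ≤ G' * w1 ∧ G' ≤ G ∧
    s / lam * w1 ≤ G' * w1 ∧ s * w2 ≤ G * w2 := by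
  have hX0 : 0 < X := by linarith
  have hl0 : 0 < lam := by linarith
  have hX2 : (1:ℝ) ≤ X ^ 2 := one_le_pow₀ hX
  have hX4 : (1:ℝ) ≤ X ^ 4 := one_le_pow₀ hX
  have hsw : 0 < s * w2 := by positivity
  have hslw : 0 < s / lam * w1 := by positivity
  -- G' w1
  have hGw : G' * w1 = max (X ^ 4 * (s / lam * w1)) (X ^ 4 * (s * w2)) := by
    rw [hG', max_mul_of_nonneg _ _ hw1.le, hG]
    congr 1
    · ring
    · field_simp
  have g1 : X ^ 4 * (s / lam * w1) ≤ G' * w1 := by rw [hGw]; exact le_max_left _ _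
  have g2 : X ^ 4 * (s * w2) ≤ G' * w1 := by rw [hGw]; exact le_max_right _ _
  have g3 : s / lam * w1 ≤ G' * w1 := (le_mul_of_one_le_left hslw.le hX4).trans g1
  have g4 : s * w2 ≤ G' * w1 := (le_mul_of_one_le_left hsw.le hX4).trans g2
  have g5 : s * w2 ≤ G * w2 := by
    rw [hG, mul_assoc]; exact le_mul_of_one_le_left hsw.le hX4
  have m1 : 4 * μ1 ≤ (s / lam * w1) / 256 := by
    rw [hμ1]
    have : 4 * (1 / (2 ^ 10 * X ^ 2) * (s / lam) * w1) = (s / lam * w1) / 256 / X ^ 2 := by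
      field_simp; norm_num
    rw [this]; exact div_le_self (by positivity) hX2
  have m2 : 4 * μ2 ≤ (s * w2) / 256 := by
    rw [hμ2]
    have : 4 * (1 / (2 ^ 10 * X ^ 2) * s * w2) = (s * w2) / 256 / X ^ 2 := by
      field_simp; norm_num
    rw [this]; exact div_le_self (by positivity) hX2
  have m10 : 0 < μ1 := by rw [hμ1]; positivity
  have m20 : 0 < μ2 := by rw [hμ2]; positivity
  -- `w0'/w1' μ1`
  have n1 : w0' / w1' * μ1 ≤ (s * w2) / 2 ^ 10 := by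
    have h1 : w0' / w1' ≤ (X * w2) / (w1 / X) := by
      refine div_le_div₀ (by positivity) (h02'.trans c2) (by positivity) ?_
      rw [div_le_iff₀ hX0]; linarith
    calc w0' / w1' * μ1 ≤ (X * w2) / (w1 / X) * μ1 := mul_le_mul_of_nonneg_right h1 m10.le
      _ = (s * w2) / 2 ^ 10 / lam := by rw [hμ1]; field_simp
      _ ≤ _ := div_le_self (by positivity) hl
  have n2 : w0' / w2' * μ2 ≤ μ2 := by
    have : w0' / w2' ≤ 1 := div_le_one_of_le₀ h02' hw2'.le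
    exact mul_le_of_le_one_left m20.le this
  have n3 : γ * μ2 ≤ (s * w2) / 2 ^ 10 := by
    have : γ ≤ X ^ 2 := by
      rw [hγ, div_le_iff₀ hw1]
      calc X * lam * w2 = X * (lam * w2) := by ring
        _ ≤ X * (X * w1) := mul_le_mul_of_nonneg_left hlw hX0.le
        _ = X ^ 2 * w1 := by ring
    calc γ * μ2 ≤ X ^ 2 * μ2 := mul_le_mul_of_nonneg_right this m20.le
      _ = _ := by rw [hμ2]; field_simp
  have n4 : γ * μ1 ≤ (s * w2) / 2 ^ 10 := by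
    have e : γ * μ1 = (s * w2) / 2 ^ 10 / X := by rw [hγ, hμ1]; field_simp
    rw [e]; exact div_le_self (by positivity) hX
  have r1 : ρ2 / ρ ≤ X ^ 4 * s / (32 * lam * τ) := by
    rw [div_le_div_iff₀ hρ (by positivity)]; linarith
  have r2 : 2 * (τ * w1) * (ρ2 / ρ) ≤ X ^ 4 * (s / lam * w1) / 16 := by
    calc 2 * (τ * w1) * (ρ2 / ρ) ≤ 2 * (τ * w1) * (X ^ 4 * s / (32 * lam * τ)) := by gcongr
      _ = _ := by field_simp; ring
  have r3 : 2 * (lam * τ * w2) * (ρ2 / ρ) ≤ X ^ 4 * (s * w2) / 16 := by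
    calc 2 * (lam * τ * w2) * (ρ2 / ρ) ≤ 2 * (lam * τ * w2) * (X ^ 4 * s / (32 * lam * τ)) := by
          gcongr
      _ = _ := by field_simp; ring
  have hGw2 : G * w2 = X ^ 4 * (s * w2) := by rw [hG]; ring
  have hA' : 64 * A ≤ X ^ 4 * (s * w2) := by linarith [hA, show X ^ 4 * s * w2 = X ^ 4 * (s * w2) by ring]
  refine ⟨by linarith only [n1, n2, haA, m2, hsw], by linarith only [m1, m20, n3, g1, g2, g3, g4, hA', hsw, hslw],
    by linarith only [m2, n4, g5, hGw2, hA', hsw], by linarith only [m1, r2, g1, g3, hslw],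
    by linarith only [m2, r3, hGw2, g5, hsw], ?_, by linarith only [g2, hGw2], ?_, g3, g5⟩
  · rw [hGw]
    refine max_le ?_ ?_
    · have : X ^ 4 ≤ X ^ 5 := pow_le_pow_right₀ hX (by norm_num)
      calc X ^ 4 * (s / lam * w1) ≤ X ^ 5 * (s / lam * w1) := mul_le_mul_of_nonneg_right this hslw.le
        _ = _ := by ring
    · have h1 : s * w2 ≤ X * (s / lam * w1) := by
        have e : X * (s / lam * w1) = s / lam * (X * w1) := by ring
        have e' : s * w2 = s / lam * (lam * w2) := by field_simp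
        rw [e, e']; exact mul_le_mul_of_nonneg_left hlw (by positivity)
      calc X ^ 4 * (s * w2) ≤ X ^ 4 * (X * (s / lam * w1)) := mul_le_mul_of_nonneg_left h1 (by positivity)
        _ = _ := by ring
  · have hG0 : 0 < G := by rw [hG]; positivity
    rw [hG']
    refine max_le (div_le_self hG0.le hl) ?_
    rw [div_le_iff₀ hw1]
    exact mul_le_mul_of_nonneg_left hw21 hG0.le

/-- the test sheet is admissible over a cell of level `l` -/
theorem test_adm {e : Fin 3 → V3} {c : Ln4} {w : V3} {q : ℝ → V3 → ℝ} {a r0 : ℝ} {lv l m : ℕ}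
    {j : ℤ} (hr : 0 < r0) (h1 : lv ≤ l) (h2 : l ≤ m)
    (h : ShC e c w q a (zl lv (anc lv m j)) (rho lv) r0) {T : Ln4}
    (hT : InSheet T e c w q a (zl lv (anc lv m j)) (rho lv)) {A G G' : ℝ} (haA : a ≤ A)
    (hA : 16 * A ≤ w 0) (hG : 0 < G) (hG1 : G ≤ 1 / 2) (hGG : G' ≤ G) (hGw : G * w 2 ≤ G' * w 1)
    (hAG : 8 * A ≤ G * w 2) :
    ShN e T (tw w A G G') q A (zl l (anc l m j)) (rho l) r0 := by
  obtain ⟨s1, s2⟩ := anc_sub h1 (anc l m j)
  rw [anc_anc h1 h2] at s1 s2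
  exact (test_shC hr h hT haA hA hG hG1 hGG hGw hAG s1 s2).toN

open Classical in
/-- objects of level `m` in a test sheet over a cell of level `m2` -/
theorem image_count {L : ℕ → Ln4} {P : Finset (ℕ × ℤ)} {m2 m : ℕ} (S : Plk4) (A G G' : ℝ)
    (o : ℕ × ℤ) :
    ((P.filter fun z => z.2 = o.2 ∧ InTest L S A G G' m m2 o z).card : ℝ) ≤
      (((P.image fun o => (o.1, anc m2 m o.2)).filter fun z => z.2 = anc m2 m o.2 ∧
        InSheet (L z.1) S.e (L o.1) (tw S.w A G G') S.q A (zl m2 (anc m2 m o.2))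
          (rho m2)).card : ℝ) := by
  norm_cast
  refine card_le_card_of_injOn (fun z => (z.1, anc m2 m z.2)) (fun z hz => ?_)
    (fun z hz z' hz' hzz => ?_)
  · obtain ⟨k1, k2, k3⟩ := mem_filter.1 (Finset.mem_coe.1 hz)
    refine Finset.mem_coe.2 (mem_filter.2 ⟨mem_image_of_mem _ k1, ?_, k3⟩)
    show anc m2 m z.2 = anc m2 m o.2
    rw [k2]
  · obtain ⟨k1, k2, k3⟩ := mem_filter.1 (Finset.mem_coe.1 hz)
    obtain ⟨k1', k2', k3'⟩ := mem_filter.1 (Finset.mem_coe.1 hz')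
    have := (Prod.mk.inj hzz).1
    exact Prod.ext this (k2.trans k2'.symm)

set_option maxHeartbeats 4000000 in
open Classical in
/-- **`tilt_num`** : the deep count with D-max at two deep levels; `lv` = level of the base marks,
`lu` = level of the other ones, `lf` = level of the common cell. -/
theorem tilt_num {L : ℕ → Ln4} {P : Finset (ℕ × ℤ)} {lu lv lf m2 m : ℕ} {fu fv : ℕ → ℤ → ℕ}
    {b b' : ℕ → Plk4} {N : ℕ} {q : Fin 3 → ℝ}
    {a w1 w2 a' w1' w2' X s lam τ θ A Am g r0 ω1 ω2 : ℝ} (hq : ∀ k, 0 ≤ q k) (hg : 0 ≤ g)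
    (hne : P.Nonempty) (huf : lu ≤ lf) (hvf : lv ≤ lf) (h2 : lf ≤ m2) (h2m : m2 ≤ m)
    (hr : 0 < r0) (hX : 1 ≤ X) (hs : 0 < s) (hl : 1 ≤ lam) (hτ : 0 < τ) (hθ : 0 ≤ θ)
    (hAm : 0 < Am)
    -- sheets
    (hin : ∀ o ∈ P, inv L lv m (mv lv m fv b o) o)
    (hin' : ∀ o ∈ P, inv L lu m (mv lu m fu b' o) o)
    (hS : ∀ o ∈ P, ShN (mv lv m fv b o).e (mv lv m fv b o).c (mv lv m fv b o).w (mv lv m fv b o).q
      (mv lv m fv b o).a (zl lv (anc lv m o.2)) (rho lv) r0)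
    (hS' : ∀ o ∈ P, ShN (mv lu m fu b' o).e (mv lu m fu b' o).c (mv lu m fu b' o).w
      (mv lu m fu b' o).q (mv lu m fu b' o).a (zl lu (anc lu m o.2)) (rho lu) r0)
    (hd : ∀ o ∈ P, (mv lv m fv b o).a = a ∧ (mv lv m fv b o).w 1 = w1 ∧ (mv lv m fv b o).w 2 = w2)
    (hd' : ∀ o ∈ P, (mv lu m fu b' o).a = a' ∧ (mv lu m fu b' o).w 1 = w1' ∧
      (mv lu m fu b' o).w 2 = w2')
    (ca : a ≤ X * a' ∧ a' ≤ X * a) (cw1 : w1 ≤ X * w1' ∧ w1' ≤ X * w1)
    (cw2 : w2 ≤ X * w2' ∧ w2' ≤ X * w2) (hlv : (2:ℝ) ^ lf ≤ X * 2 ^ lv)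
    (hlu : (2:ℝ) ^ lf ≤ X * 2 ^ lu) (hw1r : w1 ≤ X * rho lf) (hlw : lam * w2 ≤ X * w1)
    -- numbers
    (F1 : ∀ o ∈ P, (2:ℝ) ^ (m - lv) * (Am * val4 q lv a w1 w2) ≤
      X * ((P.filter fun y => clQ lv m fv y = clQ lv m fv o).card : ℝ))
    (F1' : ∀ o ∈ P, (2:ℝ) ^ (m - lu) * (Am * val4 q lu a' w1' w2') ≤
      X * ((P.filter fun y => clQ lu m fu y = clQ lu m fu o).card : ℝ))
    (F2 : ∀ o ∈ P, (2:ℝ) ^ (m - lf) ≤ X * ((P.filter fun y => y.1 = o.1 ∧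
      anc lf m y.2 = anc lf m o.2).card : ℝ))
    (F4 : ∀ (j : ℤ) (S : Plk4), ShN S.e S.c S.w S.q S.a (zl m j) (rho m) r0 → S.w 1 ≤ rho m →
      ω1 ≤ S.w 1 → ω2 ≤ S.w 2 → S.w 1 ≤ w1 → S.w 2 ≤ w2 → S.a = A →
      ((P.filter fun o => o.2 = j ∧ InSheet (L o.1) S.e S.c S.w S.q S.a (zl m j) (rho m)).card : ℝ) ≤
        X * (Am * 2 ^ (g * ((m : ℝ) - lf))) * val4 q m S.a (S.w 1) (S.w 2))
    (F4' : ∀ (j : ℤ) (S : Plk4), ShN S.e S.c S.w S.q S.a (zl m2 j) (rho m2) r0 → S.w 1 ≤ rho m2 →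
      ω1 ≤ S.w 1 → ω2 ≤ S.w 2 → S.w 1 ≤ w1 → S.w 2 ≤ w2 → S.a = A →
      (((P.image fun o => (o.1, anc m2 m o.2)).filter fun o => o.2 = j ∧
        InSheet (L o.1) S.e S.c S.w S.q S.a (zl m2 j) (rho m2)).card : ℝ) ≤
        X * (Am * 2 ^ (g * ((m2 : ℝ) - lf))) * val4 q m2 S.a (S.w 1) (S.w 2))
    (hω1 : ω1 ≤ s / lam * w1) (hω2 : ω2 ≤ s * w2)
    -- levels
    (hm : (2:ℝ) ^ (m - lf) * (X ^ 6 * s) ≤ lam) (hm' : lam ≤ 2 * (2 ^ (m - lf) * (X ^ 6 * s)))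
    (hm2 : 32 * lam * τ ≤ 2 ^ (m2 - lf) * (X ^ 4 * s))
    (hm2' : 2 ^ (m2 - lf) * (X ^ 4 * s) ≤ 64 * lam * τ)
    (hXθ : 32 * X * θ ≤ 1) (hXs : 2 ^ 10 * X ^ 8 * s ≤ 1) (hτ1 : τ ≤ 1)
    (haA : a ≤ A) (hAX : A ≤ X * a) (haA' : a' ≤ A) (hAs : 64 * A ≤ X ^ 4 * s * w2)
    (hAw : ∀ o ∈ P, 16 * A ≤ (mv lv m fv b o).w 0)
    (hγ : ∀ o ∈ P, |dt ((mv lv m fv b o).e 1) ((mv lu m fu b' o).e 2)| * w1 ≤ X * lam * w2 ∧
      |dt ((mv lv m fv b o).e 2) ((mv lu m fu b' o).e 1)| * w1 ≤ X * lam * w2)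
    (hc : ∀ o ∈ P, CoinC (mv lv m fv b o).e (mv lv m fv b o).w (mv lv m fv b o).q
      (mv lu m fu b' o).e (mv lu m fu b' o).c (mv lu m fu b' o).w (mv lu m fu b' o).q
      (mv lu m fu b' o).a A (s / lam * w1) (s * w2) (L o.1) (zl lf (anc lf m o.2)) (rho lf))
    (hcap : ∀ o ∈ P, ∃ c : Fin 2 → ℝ, ∀ ζ, zl lf (anc lf m o.2) ≤ ζ →
      ζ ≤ zl lf (anc lf m o.2) + rho lf → (∀ i, θ * rho lf ≤ |ζ - c i|) →
      ∃ V : Fin N → V3, ∀ t : Ln4,
        InSheet t (mv lv m fv b o).e (mv lv m fv b o).c (mv lv m fv b o).w (mv lv m fv b o).q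
          (mv lv m fv b o).a (zl lv (anc lv m o.2)) (rho lv) →
        InSheet t (mv lu m fu b' o).e (mv lu m fu b' o).c (mv lu m fu b' o).w (mv lu m fu b' o).q
          (mv lu m fu b' o).a (zl lu (anc lu m o.2)) (rho lu) →
        |dt ((mv lv m fv b o).e 1) (t.pos ζ - (L o.1).pos ζ)| ≤ s * w1 →
        |dt ((mv lv m fv b o).e 2) (t.pos ζ - (L o.1).pos ζ)| ≤ s * w2 →
          ∃ l, |dt ((mv lv m fv b o).e 1) (t.v - V l)| * rho lf ≤ τ * w1 ∧
            |dt ((mv lv m fv b o).e 2) (t.v - V l)| * rho lf ≤ lam * τ * w2) :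
    1 ≤ 2 ^ 108 * 64 ^ (g + 2 * (q 0 + q 1 + q 2)) * X ^ (75 + 6 * (q 0 + q 1 + q 2)) * N *
      (lam / s) ^ (2 * (g + q 0)) * lam ^ (2 * q 2) * τ ^ q 1 := by
  obtain ⟨o0, ho0⟩ := hne
  have hX0 : 0 < X := by linarith
  have hl0 : 0 < lam := by linarith
  obtain ⟨da, dw1, dw2⟩ := hd o0 ho0
  obtain ⟨da', dw1', dw2'⟩ := hd' o0 ho0
  have hSo := ShN.toC hr (hS o0 ho0)
  have hSo' := ShN.toC hr (hS' o0 ho0)
  obtain ⟨pa, p0, p2, p1⟩ := hSo.pos hr
  obtain ⟨pa', p0', p2', p1'⟩ := hSo'.pos hr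
  rw [da] at pa; rw [dw2] at p2; rw [dw1] at p1
  rw [da'] at pa'; rw [dw2'] at p2'; rw [dw1'] at p1'
  have hw21 : w2 ≤ w1 := by have := hSo.w_le; rw [dw1, dw2] at this; exact this
  have hrf := rho_pos lf
  have hrm := rho_pos m
  have hrm2 := rho_pos m2
  have hfm : lf ≤ m := h2.trans h2m
  set h : ℝ := (2:ℝ) ^ (m - lf) with hh
  set h' : ℝ := (2:ℝ) ^ (m2 - lf) with hh'
  have hp : 0 < h := by rw [hh]; positivity
  have hp' : 0 < h' := by rw [hh']; positivity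
  have erm : rho m = rho lf / h := rho_sub hfm
  have erm2 : rho m2 = rho lf / h' := rho_sub h2
  set G : ℝ := X ^ 4 * s with hG
  set G' : ℝ := max (G / lam) (G * w2 / w1) with hG'
  set μ1 : ℝ := 1 / (2 ^ 10 * X ^ 2) * (s / lam) * w1 with hμ1
  set μ2 : ℝ := 1 / (2 ^ 10 * X ^ 2) * s * w2 with hμ2
  set γ : ℝ := X * lam * w2 / w1 with hγd
  have hG0 : 0 < G := by rw [hG]; positivity
  have hX1 : ∀ k : ℕ, (1:ℝ) ≤ X ^ k := fun k => one_le_pow₀ hX
  have hs1 : 2 ^ 10 * s ≤ 1 := by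
    refine le_trans ?_ hXs
    have := hX1 8
    nlinarith
  have hG1 : G ≤ 1 / 2 := by
    have e : G ≤ X ^ 8 * s := mul_le_mul_of_nonneg_right (pow_le_pow_right₀ hX (by norm_num)) hs.le
    have : 2 ^ 10 * (X ^ 8 * s) ≤ 1 := by rw [← mul_assoc]; exact hXs
    linarith
  have m10 : 0 < μ1 := by rw [hμ1]; positivity
  have m20 : 0 < μ2 := by rw [hμ2]; positivity
  have hρ2 : 32 * lam * τ * rho m2 ≤ X ^ 4 * s * rho lf := by
    rw [erm2, mul_div_assoc', div_le_iff₀ hp']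
    calc 32 * lam * τ * rho lf ≤ (h' * (X ^ 4 * s)) * rho lf := mul_le_mul_of_nonneg_right hm2 hrf.le
      _ = X ^ 4 * s * rho lf * h' := by ring
  -- the numbers of the hull
  have HN : ∀ o ∈ P, _ := fun o ho =>
    hull_numbers (w0' := (mv lu m fu b' o).w 0) hX hs hl hτ p1 p2 hw21 p1' p2'
      ((ShN.toC hr (hS' o ho)).pos hr).2.1.le
      (by have := (ShN.toC hr (hS' o ho)).w0_le; rwa [(hd' o ho).2.2] at this)
      cw1.1 cw2.2 hlw haA' hAs hG hG' hμ1 hμ2 hγd hρ2 hrf hrm2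
  obtain ⟨-, -, -, -, -, hG5, hGw, hGG, hR1, hR2⟩ := HN o0 ho0
  have hAG : 8 * A ≤ G * w2 := by
    have : G * w2 = X ^ 4 * s * w2 := by rw [hG]
    rw [this]; linarith [hAs, pa.trans_le haA]
  -- adm of the test sheets
  have hT1 : G' * w1 ≤ rho m := by
    refine hG5.trans ?_
    rw [erm, le_div_iff₀ hp]
    calc X ^ 5 * (s / lam) * w1 * h ≤ X ^ 5 * (s / lam) * (X * rho lf) * h := by gcongr
      _ = (h * (X ^ 6 * s)) / lam * rho lf := by ring
      _ ≤ 1 * rho lf := by gcongr; rw [div_le_one hl0]; exact hm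
      _ = rho lf := one_mul _
  have hT2 : G' * w1 ≤ rho m2 := hT1.trans (rho_anti h2m)
  have hU1 : G' * w1 ≤ w1 := mul_le_of_le_one_left p1.le (by linarith only [hGG, hG1])
  have hU2 : G * w2 ≤ w2 := mul_le_of_le_one_left p2.le (by linarith only [hG1])
  have hadm : ∀ o ∈ P, ∀ l, lf ≤ l → l ≤ m → ShN (mv lv m fv b o).e (L o.1)
      (tw (mv lv m fv b o).w A G G') (mv lv m fv b o).q A (zl l (anc l m o.2)) (rho l) r0 := by
    intro o ho l k1 k2
    obtain ⟨ea, e1, e2⟩ := hd o ho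
    refine test_adm hr (hvf.trans k1) k2 (ShN.toC hr (hS o ho)) (hin o ho) (by rw [ea]; exact haA)
      (hAw o ho) hG0 hG1 hGG (by rw [e1, e2]; exact hGw) (by rw [e2]; exact hAG)
  have htw : ∀ o ∈ P, tw (mv lv m fv b o).w A G G' 1 = G' * w1 ∧
      tw (mv lv m fv b o).w A G G' 2 = G * w2 := by
    intro o ho
    obtain ⟨ea, e1, e2⟩ := hd o ho
    constructor
    · show G' * (mv lv m fv b o).w 1 = _
      rw [e1]
    · show G * (mv lv m fv b o).w 2 = _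
      rw [e2]
  have hDh : ∀ o ∈ P, ((P.filter fun z => z.2 = o.2 ∧
      InTest L (mv lv m fv b o) A G G' m m o z).card : ℝ) ≤
      X * (Am * 2 ^ (g * ((m : ℝ) - lf))) * val4 q m A (G' * w1) (G * w2) := by
    intro o ho
    obtain ⟨t1, t2⟩ := htw o ho
    have k := F4 o.2 ⟨0, (mv lv m fv b o).e, L o.1, tw (mv lv m fv b o).w A G G',
      (mv lv m fv b o).q, A⟩ (by have := hadm o ho m hfm le_rfl; rwa [anc_self] at this)
      (by show tw (mv lv m fv b o).w A G G' 1 ≤ rho m; rw [t1]; exact hT1)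
      (by show ω1 ≤ tw (mv lv m fv b o).w A G G' 1; rw [t1]; exact hω1.trans hR1)
      (by show ω2 ≤ tw (mv lv m fv b o).w A G G' 2; rw [t2]; exact hω2.trans hR2)
      (by show tw (mv lv m fv b o).w A G G' 1 ≤ w1; rw [t1]; exact hU1)
      (by show tw (mv lv m fv b o).w A G G' 2 ≤ w2; rw [t2]; exact hU2) rfl
    simp only [t1, t2] at k
    refine le_trans (le_of_eq ?_) k
    unfold InTest
    rw [anc_self]
  have hDc : ∀ o ∈ P, ((P.filter fun z => z.2 = o.2 ∧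
      InTest L (mv lv m fv b o) A G G' m m2 o z).card : ℝ) ≤
      X * (Am * 2 ^ (g * ((m2 : ℝ) - lf))) * val4 q m2 A (G' * w1) (G * w2) := by
    intro o ho
    obtain ⟨t1, t2⟩ := htw o ho
    have k := F4' (anc m2 m o.2) ⟨0, (mv lv m fv b o).e, L o.1, tw (mv lv m fv b o).w A G G',
      (mv lv m fv b o).q, A⟩ (hadm o ho m2 h2 h2m)
      (by show tw (mv lv m fv b o).w A G G' 1 ≤ rho m2; rw [t1]; exact hT2)
      (by show ω1 ≤ tw (mv lv m fv b o).w A G G' 1; rw [t1]; exact hω1.trans hR1)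
      (by show ω2 ≤ tw (mv lv m fv b o).w A G G' 2; rw [t2]; exact hω2.trans hR2)
      (by show tw (mv lv m fv b o).w A G G' 1 ≤ w1; rw [t1]; exact hU1)
      (by show tw (mv lv m fv b o).w A G G' 2 ≤ w2; rw [t2]; exact hU2) rfl
    simp only [t1, t2] at k
    exact (image_count (mv lv m fv b o) A G G' o).trans k
  -- labels
  have hμe1 : 2 * μ1 ≤ s / lam * w1 := by
    have e : 2 * μ1 = (s / lam * w1) / (2 ^ 9 * X ^ 2) := by rw [hμ1]; field_simp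
    have h2 : (1:ℝ) ≤ 2 ^ 9 * X ^ 2 := by linarith only [hX1 2]
    rw [e]; exact div_le_self (by positivity) h2
  have hμe2 : 2 * μ2 ≤ s * w2 := by
    have e : 2 * μ2 = (s * w2) / (2 ^ 9 * X ^ 2) := by rw [hμ2]; field_simp
    have h2 : (1:ℝ) ≤ 2 ^ 9 * X ^ 2 := by linarith only [hX1 2]
    rw [e]; exact div_le_self (by positivity) h2
  have hμs1 : μ1 ≤ s * w1 := by
    have : s / lam * w1 ≤ s * w1 := mul_le_mul_of_nonneg_right (div_le_self hs.le hl) p1.le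
    linarith
  have hμs2 : μ2 ≤ s * w2 := by linarith
  have h9 : 2 ^ 9 * X ^ 2 ≤ h := by
    by_contra hc'
    push Not at hc'
    have k1 : h * (X ^ 6 * s) < 2 ^ 9 * X ^ 2 * (X ^ 6 * s) :=
      mul_lt_mul_of_pos_right hc' (by positivity)
    have k2 : 2 ^ 9 * X ^ 2 * (X ^ 6 * s) = (2 ^ 10 * X ^ 8 * s) / 2 := by ring
    linarith
  have hXθ' : 8 * X * (2 * θ * h + 1) ≤ h := by
    have k1 : 32 * X * θ * h ≤ 1 * h := mul_le_mul_of_nonneg_right hXθ hp.le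
    have k2 : X ≤ X ^ 2 := by nlinarith
    have e : 8 * X * (2 * θ * h + 1) = (32 * X * θ * h) / 2 + 8 * X := by ring
    rw [e]; linarith [hX1 2]
  have hgood : ∀ o ∈ P, ∃ c : Fin 2 → ℝ, ∀ y ∈ P, y.1 = o.1 → anc lf m y.2 = anc lf m o.2 →
      (∀ i, θ * rho lf ≤ |zl m y.2 - c i|) →
        GoodO L P lu lv m fu fv b N (rho lf) μ1 μ2 (τ * w1) (lam * τ * w2) y := by
    intro o ho
    obtain ⟨c, hcc⟩ := hcap o ho
    refine ⟨c, fun y hy hy1 hy2 hyc => ?_⟩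
    have av : anc lv m y.2 = anc lv m o.2 := by
      rw [← anc_anc hvf hfm y.2, hy2, anc_anc hvf hfm]
    have au : anc lu m y.2 = anc lu m o.2 := by
      rw [← anc_anc huf hfm y.2, hy2, anc_anc huf hfm]
    have sv : mv lv m fv b y = mv lv m fv b o := by unfold mv; rw [hy1, av]
    have su : mv lu m fu b' y = mv lu m fu b' o := by unfold mv; rw [hy1, au]
    obtain ⟨s1, s2⟩ := anc_sub hfm y.2
    rw [hy2] at s1 s2
    obtain ⟨V, hV⟩ := hcc (zl m y.2) s1 (by linarith) hyc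
    refine ⟨V, fun z hz hz2 hzv hzu k1 k2 => ?_⟩
    have e1 := mv_eq (b := b) hzv
    have e2 := mv_eq (b := b') hzu
    have i1 := hin z hz
    have i2 := hin' z hz
    unfold inv at i1 i2
    rw [e1, sv, hz2, av] at i1
    rw [e2, su, hz2, au] at i2
    rw [sv, hy1] at k1 k2
    rw [sv]
    exact hV (L z.1) i1 i2 (k1.trans hμs1) (k2.trans hμs2)
  have hcc : ∀ o ∈ P, CoinC (mv lv m fv b o).e (mv lv m fv b o).w (mv lv m fv b o).q
      (mv lu m fu b' o).e (mv lu m fu b' o).c (mv lu m fu b' o).w (mv lu m fu b' o).q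
      (mv lu m fu b' o).a A (2 * μ1) (2 * μ2) (L o.1) (zl m o.2) (rho m) := by
    intro o ho
    obtain ⟨s1, s2⟩ := anc_sub hfm o.2
    exact (hc o ho).anti le_rfl hμe1 hμe2 s1 s2
  set vb : ℝ := val4 q lv a w1 w2 with hvb
  set vc : ℝ := val4 q lu a' w1' w2' with hvc
  have hvbp : 0 < vb := by
    rw [hvb]; unfold val4 valr
    have := rho_pos lv
    positivity
  have hvcp : 0 < vc := by
    rw [hvc]; unfold val4 valr
    have := rho_pos lu
    positivity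
  have hW1p : 0 < G' * w1 := lt_of_lt_of_le (by positivity) hGw
  have hA0 : 0 < A := pa.trans_le haA
  have key := tilt_stage (L := L) (P := P) (N := N) (μ1 := μ1) (μ2 := μ2) (ν1 := μ1 * (h / rho lf))
    (ν2 := μ2 * (h / rho lf)) (θ1 := τ * w1) (θ2 := lam * τ * w2) (θ := θ)
    (δ := 4 * A + s * w2 / 128) (γ := γ) (A := A) (G := G) (G' := G') (W1 := X * w1)
    (W2 := X * w2) (X := X) (M1 := 2 ^ (m - lv) * (Am * vb) / X) (M2 := 2 ^ (m - lu) * (Am * vc) / X)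
    (Dc := X * (Am * 2 ^ (g * ((m2 : ℝ) - lf))) * val4 q m2 A (G' * w1) (G * w2))
    (Dh := X * (Am * 2 ^ (g * ((m : ℝ) - lf))) * val4 q m A (G' * w1) (G * w2)) (r0 := r0)
    ⟨o0, ho0⟩ huf hvf h2 h2m hr m10 m20 (by positivity) (by positivity)
    (le_of_eq (by rw [erm]; field_simp)) (le_of_eq (by rw [erm]; field_simp)) hX0.le hθ
    (by unfold val4 valr; positivity) (by positivity) (by positivity) (by positivity)
    hin hin' (fun o ho => ShN.toC hr (hS o ho)) (fun o ho => ShN.toC hr (hS' o ho))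
    (fun o ho => by rw [(hd o ho).2.1]; exact le_mul_of_one_le_left p1.le hX)
    (fun o ho => by rw [(hd o ho).2.2]; exact le_mul_of_one_le_left p2.le hX)
    (fun o ho => by rw [(hd' o ho).2.1]; exact cw1.2)
    (fun o ho => by rw [(hd' o ho).2.2]; exact cw2.2)
    (fun o ho => by rw [(hd o ho).1]; exact haA) hG0 hG1 hGG
    (fun o ho => by rw [div_le_iff₀ hX0]; linarith [F1 o ho])
    (fun o ho => by rw [div_le_iff₀ hX0]; linarith [F1' o ho])
    F2 hXθ' (fun o ho => by rw [(hd o ho).2.1]; exact (HN o ho).2.2.2.1)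
    (fun o ho => by rw [(hd o ho).2.2]; exact (HN o ho).2.2.2.2.1)
    hgood hDc
    (fun o ho => by rw [(hd' o ho).1, (hd' o ho).2.1, (hd' o ho).2.2]; exact (HN o ho).1)
    (fun o ho => by rw [hγd, le_div_iff₀ p1]; exact (hγ o ho).1)
    (fun o ho => by rw [hγd, le_div_iff₀ p1]; exact (hγ o ho).2)
    (fun o ho => by rw [(hd o ho).2.1]; exact (HN o ho).2.1)
    (fun o ho => by rw [(hd o ho).2.2]; exact (HN o ho).2.2.1)
    hcc hDh
  have hs1' : s ≤ 1 := by linarith only [hs1, hs]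
  have n0 := nlab_le hX hs hs1' hl hp hm' p1 p2 hrf
  have hrr : 1 / rho lf ≤ X * (1 / rho lv) := by
    have e1 : 1 / rho lf = 2 ^ lf := by unfold rho; simp
    have e2 : 1 / rho lv = 2 ^ lv := by unfold rho; simp
    rw [e1, e2]; exact hlv
  have hr1 : 1 / rho m ≤ X * h * (1 / rho lv) := by
    rw [erm, one_div_div]
    calc h / rho lf = h * (1 / rho lf) := by ring
      _ ≤ h * (X * (1 / rho lv)) := mul_le_mul_of_nonneg_left hrr hp.le
      _ = _ := by ring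
  have hr2 : 1 / rho m2 ≤ X * h' * (1 / rho lv) := by
    rw [erm2, one_div_div]
    calc h' / rho lf = h' * (1 / rho lf) := by ring
      _ ≤ h' * (X * (1 / rho lv)) := mul_le_mul_of_nonneg_left hrr hp'.le
      _ = _ := by ring
  have htr : ∀ y : ℝ, 0 < y → y / rho lv ≤ X * y * (1 / rho lv) := by
    intro y hy
    have := rho_pos lv
    calc y / rho lv = 1 * y * (1 / rho lv) := by ring
      _ ≤ X * y * (1 / rho lv) := by gcongr
  have hX64 : h * (X ^ 4 * s) ≤ 64 * (lam * 1) := by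
    calc h * (X ^ 4 * s) ≤ h * (X ^ 6 * s) := by
          have : X ^ 4 ≤ X ^ 6 := pow_le_pow_right₀ hX (by norm_num)
          gcongr
      _ ≤ lam := hm
      _ ≤ _ := by linarith only [hl0]
  have b1 := val_test hq hX hs hl one_pos le_rfl pa p1 p2 hA0.le hW1p.le
    (by positivity : (0:ℝ) ≤ G * w2) (rho_pos lv) hrm hAX hG5 le_rfl hp ⟨htr h hp, hr1⟩ hX64
  have b2 := val_test hq hX hs hl hτ hτ1 pa p1 p2 hA0.le hW1p.le
    (by positivity : (0:ℝ) ≤ G * w2) (rho_pos lv) hrm2 hAX hG5 le_rfl hp' ⟨htr h' hp', hr2⟩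
    (by linarith only [hm2'])
  have hru : rho lu ≤ X * rho lv := by
    have e1 : rho lu ≤ X * rho lf := by
      unfold rho
      rw [mul_one_div, div_le_div_iff₀ (by positivity) (by positivity)]
      linarith only [hlu]
    exact e1.trans (mul_le_mul_of_nonneg_left (rho_anti hvf) hX0.le)
  have b3 := valr_ge hq hX (rho_pos lv) (rho_pos lu) pa p1 p2 pa' p1' p2' ca.1 cw1.1 cw2.1 hru
  have b4 : (2:ℝ) ^ (g * ((m : ℝ) - lf)) * 2 ^ (g * ((m2 : ℝ) - lf)) ≤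
      64 ^ g * (lam / s) ^ (2 * g) := by
    rw [two_pow_sub hfm, two_pow_sub h2]
    have c1 : h ≤ lam / s := by
      rw [le_div_iff₀ hs]
      refine le_trans ?_ hm
      have := hX1 6
      have : s ≤ X ^ 6 * s := le_mul_of_one_le_left hs.le this
      exact mul_le_mul_of_nonneg_left this hp.le
    have c2 : h' ≤ 64 * (lam / s) := by
      have e : 64 * (lam / s) = 64 * lam / s := by ring
      rw [e, le_div_iff₀ hs]
      have k1 : s ≤ X ^ 4 * s := le_mul_of_one_le_left hs.le (hX1 4)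
      have k2 : h' * s ≤ h' * (X ^ 4 * s) := mul_le_mul_of_nonneg_left k1 hp'.le
      have k3 : 64 * lam * τ ≤ 64 * lam := mul_le_of_le_one_right (by positivity) hτ1
      linarith only [k2, k3, hm2']
    have d1 : h ^ g ≤ (lam / s) ^ g := Real.rpow_le_rpow hp.le c1 hg
    have d2 : h' ^ g ≤ (64 * (lam / s)) ^ g := Real.rpow_le_rpow hp'.le c2 hg
    rw [Real.mul_rpow (by norm_num) (by positivity)] at d2
    have hLs : 0 < lam / s := by positivity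
    calc h ^ g * h' ^ g ≤ (lam / s) ^ g * (64 ^ g * (lam / s) ^ g) := by gcongr
      _ = 64 ^ g * ((lam / s) ^ g * (lam / s) ^ g) := by ring
      _ = _ := by rw [← Real.rpow_add hLs]; congr 2; ring
  have hn0 : 0 ≤ nlab (X * w1) (X * w2) (rho lf) μ1 μ2 (μ1 * (h / rho lf)) (μ2 * (h / rho lf)) := by
    unfold nlab; positivity
  exact num_alg (vc := vc) hX hs hl hτ hAm (by positivity : (0:ℝ) < 2 ^ (m - lv))
    (by positivity : (0:ℝ) < 2 ^ (m - lu)) (Nat.cast_nonneg N) hvbp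
    (by unfold val4 valr; positivity) (by unfold val4 valr; positivity) hn0 (by positivity)
    (by positivity) key n0 b1 b2 b3 b4

end Crest.Agent.R136.Deep51
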