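import Mathlib
import Crest.Agent.R136.Eng3_904
import Crest.Agent.R136.Deep7_51

/-!
# R136 (U5 TILT): the deep count for the marks, one stage (helper904)

`Core` : hypotheses of the deep count at an incidence; `core_fin` : `tilt_num` for the marks of two
levels.
-/

set_option autoImplicit false
set_option linter.unusedVariables false
set_option linter.unusedSectionVars false

open Finset Filter Topology

namespace Crest.Agent.R136.Eng904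

open Crest.Agent.R138.Ex926 Crest.Agent.R138.Dp76
open Crest.Agent.R138.Mk163 (zc zl rho alive own)
open Crest.Agent.R138.MkRef627 (lc)
open Crest.Agent.R136.MkA627 (Geo MkA ampA fib_bounds)
open Crest.Agent.R136.Dia770 (extO DeepP)
open Crest.Agent.R136.Deep51 Crest.Agent.R136.Tlt51 Crest.Agent.R136.Top484
open Crest.Agent.R136.Sh605 Crest.Agent.R136.K4

/-- hypotheses of the deep count at the incidence `x` : base level `b`, other level `c`,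
coincidence at the scale `s`, capture with `θ`, `τ`. -/
structure Core (D : Dat4) (n : ℕ) (b c : ℚ) (s lam τ θ A : ℝ) (N : ℕ) (x : ℕ × ℝ) : Prop where
  coin : CoinC (mk4 D n b x).e (mk4 D n b x).w (mk4 D n b x).q (mk4 D n c x).e (mk4 D n c x).c
    (mk4 D n c x).w (mk4 D n c x).q (mk4 D n c x).a A (s / lam * (mk4 D n b x).w 1)
    (s * (mk4 D n b x).w 2) (D.L n x.1) (zx D n (max b c) x) (rh D n (max b c))
  g : |dt ((mk4 D n b x).e 1) ((mk4 D n c x).e 2)| * (mk4 D n b x).w 1 ≤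
    lam * (mk4 D n b x).w 2
  g' : |dt ((mk4 D n b x).e 2) ((mk4 D n c x).e 1)| * (mk4 D n b x).w 1 ≤
    lam * (mk4 D n b x).w 2
  w0 : 16 * A ≤ (mk4 D n b x).w 0
  cap : ∃ ζ0 : Fin 2 → ℝ, ∀ ζ, zx D n (max b c) x ≤ ζ →
    ζ ≤ zx D n (max b c) x + rh D n (max b c) → (∀ i, θ * rh D n (max b c) ≤ |ζ - ζ0 i|) →
    ∃ V : Fin N → V3, ∀ t : Ln4, InP t (mk4 D n b x) (zx D n b x) (rh D n b) →
      InP t (mk4 D n c x) (zx D n c x) (rh D n c) →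
      |dt ((mk4 D n b x).e 1) (t.pos ζ - (D.L n x.1).pos ζ)| ≤ s * (mk4 D n b x).w 1 →
      |dt ((mk4 D n b x).e 2) (t.pos ζ - (D.L n x.1).pos ζ)| ≤ s * (mk4 D n b x).w 2 →
        ∃ l, |dt ((mk4 D n b x).e 1) (t.v - V l)| * rh D n (max b c) ≤
            τ * (mk4 D n b x).w 1 ∧
          |dt ((mk4 D n b x).e 2) (t.v - V l)| * rh D n (max b c) ≤
            lam * τ * (mk4 D n b x).w 2

theorem choose_k {y z : ℝ} (hy : 0 < y) (h : y ≤ z) :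
    ∃ k : ℕ, (2:ℝ) ^ k * y ≤ z ∧ z ≤ 2 * (2 ^ k * y) := by
  obtain ⟨k, h1, h2⟩ := exists_nat_pow_near (x := z / y) (y := 2) (by rwa [le_div_iff₀ hy, one_mul])
    one_lt_two
  rw [le_div_iff₀ hy] at h1
  rw [div_lt_iff₀ hy, pow_succ] at h2
  exact ⟨k, h1, by nlinarith⟩

theorem rho_add (i k : ℕ) : rho (i + k) = rho i / 2 ^ k := by
  unfold Crest.Agent.R138.Mk163.rho
  rw [pow_add, div_div]

theorem aux1 {X s lam : ℝ} (hX : 1 ≤ X) (hs : 0 < s) (hl : 1 ≤ lam) (h : 2 ^ 10 * X ^ 8 * s ≤ 1) :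
    X ^ 6 * s ≤ lam := by
  have h1 : X ^ 6 ≤ X ^ 8 := pow_le_pow_right₀ hX (by norm_num)
  have h2 : X ^ 6 * s ≤ X ^ 8 * s := mul_le_mul_of_nonneg_right h1 hs.le
  have h3 : 0 ≤ X ^ 8 * s := by positivity
  have h4 : 2 ^ 10 * X ^ 8 * s = 2 ^ 10 * (X ^ 8 * s) := by ring
  rw [h4] at h
  linarith

theorem aux2 {X s lam τ : ℝ} (hX : 1 ≤ X) (hτ : 0 < τ) (hl : 1 ≤ lam) (h : s ≤ lam * τ) :
    X ^ 4 * s ≤ 64 * lam * (X ^ 4 * τ) := by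
  have h1 : X ^ 4 * s ≤ X ^ 4 * (lam * τ) := mul_le_mul_of_nonneg_left h (by positivity)
  have h2 : 0 ≤ X ^ 4 * (lam * τ) := by positivity
  have h3 : 64 * lam * (X ^ 4 * τ) = 64 * (X ^ 4 * (lam * τ)) := by ring
  rw [h3]
  linarith

theorem aux3 {X s lam τ : ℝ} {k k2 : ℕ} (hX : 1 ≤ X) (hs : 0 < s) (hl : 1 ≤ lam) (hτ : 0 < τ)
    (h1 : lam ≤ 2 * (2 ^ k * (X ^ 6 * s))) (h2 : (2:ℝ) ^ k2 * (X ^ 4 * s) ≤ 64 * lam * (X ^ 4 * τ))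
    (h3 : 128 * X ^ 6 * τ ≤ 1) : k2 ≤ k := by
  have e1 : (2:ℝ) ^ k2 * (X ^ 4 * s) ≤ 2 ^ k * (X ^ 4 * s) := by
    calc (2:ℝ) ^ k2 * (X ^ 4 * s) ≤ 64 * lam * (X ^ 4 * τ) := h2
      _ = lam * (64 * (X ^ 4 * τ)) := by ring
      _ ≤ 2 * (2 ^ k * (X ^ 6 * s)) * (64 * (X ^ 4 * τ)) :=
          mul_le_mul_of_nonneg_right h1 (by positivity)
      _ = (2 ^ k * (X ^ 4 * s)) * (128 * X ^ 6 * τ) := by ring
      _ ≤ (2 ^ k * (X ^ 4 * s)) * 1 := mul_le_mul_of_nonneg_left h3 (by positivity)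
      _ = _ := mul_one _
  have e2 : (2:ℝ) ^ k2 ≤ 2 ^ k := le_of_mul_le_mul_right e1 (by positivity)
  exact (pow_le_pow_iff_right₀ (by norm_num : (1:ℝ) < 2)).1 e2

theorem aux4 {X s lam r w0 w1 w2 A ρ : ℝ} {k : ℕ} (hX : 1 ≤ X) (hs : 0 < s) (hl : 1 ≤ lam)
    (hr : 0 < r) (hρ : 0 < ρ) (h1 : (2:ℝ) ^ k * (X ^ 6 * s) ≤ lam) (h2 : lam * w2 ≤ 2 * w1)
    (h3 : w1 ≤ X * ρ) (h4 : r ≤ w0) (h5 : w0 ≤ A) (h6 : 64 * A ≤ X ^ 4 * s * w2) :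
    r * 2 ^ k ≤ ρ := by
  have e1 : lam * (64 * r) ≤ 2 * (X ^ 5 * s * ρ) := by
    have d1 : 64 * r ≤ X ^ 4 * s * w2 := by linarith
    calc lam * (64 * r) ≤ lam * (X ^ 4 * s * w2) := mul_le_mul_of_nonneg_left d1 (by linarith)
      _ = X ^ 4 * s * (lam * w2) := by ring
      _ ≤ X ^ 4 * s * (2 * (X * ρ)) :=
          mul_le_mul_of_nonneg_left (h2.trans (mul_le_mul_of_nonneg_left h3 (by norm_num)))
            (by positivity)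
      _ = _ := by ring
  have e0 : X ^ 5 ≤ X ^ 6 := pow_le_pow_right₀ hX (by norm_num)
  have e2 : X ^ 5 * s * ρ * 2 ^ k ≤ lam * ρ := by
    calc X ^ 5 * s * ρ * 2 ^ k = X ^ 5 * (s * ρ * 2 ^ k) := by ring
      _ ≤ X ^ 6 * (s * ρ * 2 ^ k) := mul_le_mul_of_nonneg_right e0 (by positivity)
      _ = (2 ^ k * (X ^ 6 * s)) * ρ := by ring
      _ ≤ _ := mul_le_mul_of_nonneg_right h1 hρ.le
  have e3 : lam * (64 * (r * 2 ^ k)) ≤ lam * (2 * ρ) := by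
    calc lam * (64 * (r * 2 ^ k)) = lam * (64 * r) * 2 ^ k := by ring
      _ ≤ 2 * (X ^ 5 * s * ρ) * 2 ^ k := mul_le_mul_of_nonneg_right e1 (by positivity)
      _ = 2 * (X ^ 5 * s * ρ * 2 ^ k) := by ring
      _ ≤ 2 * (lam * ρ) := mul_le_mul_of_nonneg_left e2 (by norm_num)
      _ = _ := by ring
  have e4 := le_of_mul_le_mul_left e3 (by linarith)
  have e5 : 0 < r * 2 ^ k := by positivity
  linarith

theorem aux5 {C X g ε ε1 q0 q1 q2 s lam τ : ℝ} {N : ℕ} (hX : 1 ≤ X) (hs : 0 < s) (hs1 : s ≤ 1)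
    (hl : 1 ≤ lam) (hτ : 0 < τ) (h0 : 0 ≤ q0) (h1 : 0 ≤ q1) (h2 : 0 ≤ q2) (hg : 0 ≤ g)
    (he : 0 < ε1) (hε : ε1 ≤ ε) (hε1 : ε1 ≤ 1)
    (hC : 2 ^ 108 * (64:ℝ) ^ (g + 1 + 2 * (q0 + q1 + q2)) ≤ C) (hC2 : 75 + 10 * (q0 + q1 + q2) ≤ C)
    (h : 1 ≤ 2 ^ 108 * (64:ℝ) ^ (g + ε1 + 2 * (q0 + q1 + q2)) * X ^ (75 + 6 * (q0 + q1 + q2)) * N *
      (lam / s) ^ (2 * (g + ε1 + q0)) * lam ^ (2 * q2) * (X ^ 4 * τ) ^ q1) :
    1 ≤ C * X ^ C * N * (lam / s) ^ (2 * (g + ε + q0)) * lam ^ (2 * q2) * τ ^ q1 := by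
  have hX0 : 0 < X := by linarith
  have hl0 : 0 < lam := by linarith
  have e1 : (X ^ 4 * τ) ^ q1 = X ^ (4 * q1) * τ ^ q1 := by
    rw [Real.mul_rpow (by positivity) hτ.le, ← Real.rpow_natCast X 4, ← Real.rpow_mul hX0.le]
    norm_num
  have e2 : 2 ^ 108 * (64:ℝ) ^ (g + ε1 + 2 * (q0 + q1 + q2)) ≤ C := by
    refine le_trans (mul_le_mul_of_nonneg_left ?_ (by positivity)) hC
    exact Real.rpow_le_rpow_of_exponent_le (by norm_num) (by linarith)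
  have e3 : X ^ (75 + 6 * (q0 + q1 + q2)) * X ^ (4 * q1) ≤ X ^ C := by
    rw [← Real.rpow_add hX0]
    exact Real.rpow_le_rpow_of_exponent_le hX (by linarith)
  have e4 : (lam / s) ^ (2 * (g + ε1 + q0)) ≤ (lam / s) ^ (2 * (g + ε + q0)) := by
    refine Real.rpow_le_rpow_of_exponent_le ?_ (by linarith)
    rw [le_div_iff₀ hs]; linarith
  refine h.trans ?_
  rw [e1]
  have p1 : 0 ≤ lam ^ (2 * q2) := by positivity
  have p2 : 0 ≤ τ ^ q1 := by positivity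
  have p3 : 0 ≤ (lam / s) ^ (2 * (g + ε1 + q0)) := by positivity
  have hC0 : 0 ≤ C := le_trans (by positivity) e2
  calc 2 ^ 108 * (64:ℝ) ^ (g + ε1 + 2 * (q0 + q1 + q2)) * X ^ (75 + 6 * (q0 + q1 + q2)) * N *
      (lam / s) ^ (2 * (g + ε1 + q0)) * lam ^ (2 * q2) * (X ^ (4 * q1) * τ ^ q1)
      = (2 ^ 108 * (64:ℝ) ^ (g + ε1 + 2 * (q0 + q1 + q2))) *
        (X ^ (75 + 6 * (q0 + q1 + q2)) * X ^ (4 * q1)) * N *
        (lam / s) ^ (2 * (g + ε1 + q0)) * lam ^ (2 * q2) * τ ^ q1 := by ring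
    _ ≤ C * X ^ C * N * (lam / s) ^ (2 * (g + ε + q0)) * lam ^ (2 * q2) * τ ^ q1 := by
        gcongr

theorem aux6 {cnt dd AA E V X : ℝ} (h : cnt ≤ dd * AA * E * V) (hd : dd ≤ X) (hA : 0 ≤ AA)
    (hE : 0 ≤ E) (hV : 0 ≤ V) : cnt ≤ X * (AA * E) * V := by
  refine h.trans ?_
  have e : dd * AA * E * V = dd * (AA * E) * V := by ring
  rw [e]
  exact mul_le_mul_of_nonneg_right (mul_le_mul_of_nonneg_right hd (mul_nonneg hA hE)) hV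

theorem val4_nonneg {q : Fin 3 → ℝ} {i : ℕ} {S : Plk4} {z ρ r : ℝ} (hr : 0 < r)
    (hS : ShN S.e S.c S.w S.q S.a z ρ r) : 0 ≤ val4 q i S.a (S.w 1) (S.w 2) := by
  have h2 : 0 < S.a := hr.trans_le hS.r0_le
  have h3 : 0 < S.w 2 := h2.trans_le hS.a_le
  have h4 : 0 < S.w 1 := h3.trans_le hS.w_le
  have h5 := rho_pos i
  unfold val4 valr
  positivity

variable {η : ℝ} {p : Par4} {D : Dat4}

open Classical in
/-- class sizes at the level `e` -/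
theorem class_fin {n m : ℕ} {e v : ℚ} {P : Finset (ℕ × ℤ)} {E X : ℝ} (hg : 0 ≤ p.g)
    (hvm : D.vm n e = val4 p.q (D.lev n e) (D.w 0 n e) (D.w 1 n e) (D.w 2 n e))
    (hX : D.B.d n ^ (-(p.g * ((v:ℝ) - e) + E)) ≤ X)
    (hR : ∀ o ∈ P, (2:ℝ) ^ (m - D.lev n e) *
        (ampA D.B D.A (fun v => p.g * v) n e * D.vm n e) ≤ D.B.d n ^ (-E) *
        ((P.filter fun y => clQ (D.lev n e) m (D.f n e) y = clQ (D.lev n e) m (D.f n e) o).card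
          : ℝ)) :
    ∀ o ∈ P, (2:ℝ) ^ (m - D.lev n e) * (D.A n * D.B.d n ^ (-(p.g * v)) *
        val4 p.q (D.lev n e) (D.w 0 n e) (D.w 1 n e) (D.w 2 n e)) ≤ X *
        ((P.filter fun y => clQ (D.lev n e) m (D.f n e) y = clQ (D.lev n e) m (D.f n e) o).card
          : ℝ) := by
  intro o ho
  rw [← hvm]
  have e1 : D.B.d n ^ (-(p.g * v)) = D.B.d n ^ (-(p.g * ((v:ℝ) - e))) * D.B.d n ^ (-(p.g * e)) := by
    rw [← dpow_add]; congr 1; ring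
  have e2 : D.B.d n ^ (-(p.g * ((v:ℝ) - e))) * D.B.d n ^ (-E) ≤ X := by
    rw [← dpow_add]
    have e : -(p.g * ((v:ℝ) - e)) + -E = -(p.g * ((v:ℝ) - e) + E) := by ring
    rw [e]; exact hX
  have hR' := hR o ho
  unfold Crest.Agent.R136.MkA627.ampA at hR'
  have hp := dpow_pos D.B n (-(p.g * ((v:ℝ) - e)))
  rw [e1]
  refine le_trans (le_of_eq ?_) ((mul_le_mul_of_nonneg_left hR' hp.le).trans ?_)
  · ring
  · rw [← mul_assoc]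
    exact mul_le_mul_of_nonneg_right e2 (Nat.cast_nonneg _)

set_option maxHeartbeats 1000000 in
open Classical in
/-- `tilt_num` for the marks of the levels `b` (base) and `c` -/
theorem core_fin {n : ℕ} {b c : ℚ} {P : Finset (ℕ × ℤ)} {J : Finset (ℕ × ℝ)} {k k2 N : ℕ}
    {s lam τ τ' θ A X Am g' : ℝ} (hr : 0 < D.r0 n) (hq : ∀ j, 0 ≤ p.q j) (hg : 0 ≤ g')
    (hne : P.Nonempty) (hkk : k2 ≤ k) (hb : D.lev n b ≤ D.lev n (max b c))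
    (hc : D.lev n c ≤ D.lev n (max b c)) (hN : 1 ≤ N) (hX : 1 ≤ X) (hs : 0 < s) (hl : 1 ≤ lam)
    (hτ : 0 < τ) (hττ : τ ≤ τ') (hτ1 : τ' ≤ 1) (hθ : 0 ≤ θ) (hAm : 0 < Am)
    (hobj : ∀ o ∈ P, ∃ x ∈ J,
      lc (D.lev n b) x = par (D.lev n b) (D.lev n (max b c) + k) o ∧
      lc (D.lev n c) x = par (D.lev n c) (D.lev n (max b c) + k) o ∧
      lc (D.lev n (max b c)) x = par (D.lev n (max b c)) (D.lev n (max b c) + k) o)
    (hmb : ∀ x ∈ J, MarkAt p D n b x) (hmc : ∀ x ∈ J, MarkAt p D n c x)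
    (hcore : ∀ x ∈ J, Core D n b c s lam τ θ A N x)
    (hw : ∀ j, 0 < D.w j n b)
    (hK : ∀ j, D.w j n b ≤ X * D.w j n c ∧ D.w j n c ≤ X * D.w j n b)
    (cl : (2:ℝ) ^ D.lev n (max b c) ≤ X * 2 ^ D.lev n b)
    (cl' : (2:ℝ) ^ D.lev n (max b c) ≤ X * 2 ^ D.lev n c)
    (cr : D.w 1 n b ≤ X * rho (D.lev n (max b c))) (hlw : lam * D.w 2 n b ≤ 2 * D.w 1 n b)
    (hX2 : 2 ≤ X)
    (F1 : ∀ o ∈ P, (2:ℝ) ^ (D.lev n (max b c) + k - D.lev n b) * (Am *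
        val4 p.q (D.lev n b) (D.w 0 n b) (D.w 1 n b) (D.w 2 n b)) ≤ X *
        ((P.filter fun y => clQ (D.lev n b) (D.lev n (max b c) + k) (D.f n b) y =
          clQ (D.lev n b) (D.lev n (max b c) + k) (D.f n b) o).card : ℝ))
    (F1' : ∀ o ∈ P, (2:ℝ) ^ (D.lev n (max b c) + k - D.lev n c) * (Am *
        val4 p.q (D.lev n c) (D.w 0 n c) (D.w 1 n c) (D.w 2 n c)) ≤ X *
        ((P.filter fun y => clQ (D.lev n c) (D.lev n (max b c) + k) (D.f n c) y =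
          clQ (D.lev n c) (D.lev n (max b c) + k) (D.f n c) o).card : ℝ))
    (F2 : ∀ o ∈ P, (2:ℝ) ^ (D.lev n (max b c) + k - D.lev n (max b c)) ≤ X *
      ((P.filter fun y => y.1 = o.1 ∧ anc (D.lev n (max b c)) (D.lev n (max b c) + k) y.2 =
        anc (D.lev n (max b c)) (D.lev n (max b c) + k) o.2).card : ℝ))
    {ω1 ω2 : ℝ} (hω1 : ω1 ≤ s / lam * D.w 1 n b) (hω2 : ω2 ≤ s * D.w 2 n b)
    (F4 : ∀ (j : ℤ) (S : Plk4), ShN S.e S.c S.w S.q S.a (zl (D.lev n (max b c) + k) j)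
        (rho (D.lev n (max b c) + k)) (D.r0 n) → S.w 1 ≤ rho (D.lev n (max b c) + k) →
        ω1 ≤ S.w 1 → ω2 ≤ S.w 2 → S.w 1 ≤ D.w 1 n b → S.w 2 ≤ D.w 2 n b → S.a = A →
      ((P.filter fun o => o.2 = j ∧ InSheet (D.L n o.1) S.e S.c S.w S.q S.a
        (zl (D.lev n (max b c) + k) j) (rho (D.lev n (max b c) + k))).card : ℝ) ≤
        X * (Am * 2 ^ (g' * (((D.lev n (max b c) + k : ℕ) : ℝ) - D.lev n (max b c)))) *
          val4 p.q (D.lev n (max b c) + k) S.a (S.w 1) (S.w 2))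
    (F4' : ∀ (j : ℤ) (S : Plk4), ShN S.e S.c S.w S.q S.a (zl (D.lev n (max b c) + k2) j)
        (rho (D.lev n (max b c) + k2)) (D.r0 n) → S.w 1 ≤ rho (D.lev n (max b c) + k2) →
        ω1 ≤ S.w 1 → ω2 ≤ S.w 2 → S.w 1 ≤ D.w 1 n b → S.w 2 ≤ D.w 2 n b → S.a = A →
      (((P.image fun o => (o.1, anc (D.lev n (max b c) + k2) (D.lev n (max b c) + k) o.2)).filter
        fun o => o.2 = j ∧ InSheet (D.L n o.1) S.e S.c S.w S.q S.a
        (zl (D.lev n (max b c) + k2) j) (rho (D.lev n (max b c) + k2))).card : ℝ) ≤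
        X * (Am * 2 ^ (g' * (((D.lev n (max b c) + k2 : ℕ) : ℝ) - D.lev n (max b c)))) *
          val4 p.q (D.lev n (max b c) + k2) S.a (S.w 1) (S.w 2))
    (hm : (2:ℝ) ^ k * (X ^ 6 * s) ≤ lam) (hm' : lam ≤ 2 * ((2:ℝ) ^ k * (X ^ 6 * s)))
    (hm2 : 32 * lam * τ' ≤ (2:ℝ) ^ k2 * (X ^ 4 * s))
    (hm2' : (2:ℝ) ^ k2 * (X ^ 4 * s) ≤ 64 * lam * τ')
    (hXθ : 32 * X * θ ≤ 1) (hXs : 2 ^ 10 * X ^ 8 * s ≤ 1) (haA : D.w 0 n b ≤ A)
    (hAa : A ≤ X * D.w 0 n b) (haA' : D.w 0 n c ≤ A) (hAs : 64 * A ≤ X ^ 4 * s * D.w 2 n b) :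
    1 ≤ 2 ^ 108 * (64:ℝ) ^ (g' + 2 * (p.q 0 + p.q 1 + p.q 2)) *
      X ^ (75 + 6 * (p.q 0 + p.q 1 + p.q 2)) * N *
      (lam / s) ^ (2 * (g' + p.q 0)) * lam ^ (2 * p.q 2) * τ' ^ (p.q 1) := by
  have hX0 : 0 < X := by linarith
  have w1p := hw 1
  have w2p := hw 2
  have hkn : D.lev n (max b c) + k - D.lev n (max b c) = k := by omega
  have hkn2 : D.lev n (max b c) + k2 - D.lev n (max b c) = k2 := by omega
  refine tilt_num (L := D.L n) (P := P) (lu := D.lev n c) (lv := D.lev n b)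
    (lf := D.lev n (max b c)) (m2 := D.lev n (max b c) + k2) (m := D.lev n (max b c) + k)
    (fu := D.f n c) (fv := D.f n b) (b := D.b n b) (b' := D.b n c) (a := D.w 0 n b)
    (w1 := D.w 1 n b) (w2 := D.w 2 n b) (a' := D.w 0 n c) (w1' := D.w 1 n c)
    (w2' := D.w 2 n c) (A := A) (θ := θ) (Am := Am) (r0 := D.r0 n) (ω1 := ω1) (ω2 := ω2)
    hq hg hne hc hb (Nat.le_add_right _ _) (Nat.add_le_add_left hkk _) hr hX hs hl
    (hτ.trans_le hττ) hθ hAm ?_ ?_ ?_ ?_ ?_ ?_ (hK 0) (hK 1) (hK 2) cl cl' cr ?_ F1 F1' F2 F4 F4'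
    hω1 hω2 ?_ ?_ ?_ ?_ hXθ hXs hτ1 haA hAa haA' hAs ?_ ?_ ?_ ?_
  · intro o ho
    obtain ⟨x, hx', h1, h2, h3⟩ := hobj o ho
    obtain ⟨e1, e2, e3, e4⟩ := mv_mk h1
    unfold inv
    rw [e3, e4, ← e1]
    exact (hmb x hx').inP
  · intro o ho
    obtain ⟨x, hx', h1, h2, h3⟩ := hobj o ho
    obtain ⟨e1, e2, e3, e4⟩ := mv_mk h2
    unfold inv
    rw [e3, e4, ← e1]
    exact (hmc x hx').inP
  · intro o ho
    obtain ⟨x, hx', h1, h2, h3⟩ := hobj o ho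
    obtain ⟨e1, e2, e3, e4⟩ := mv_mk h1
    rw [e3, e4]
    exact (hmb x hx').shp
  · intro o ho
    obtain ⟨x, hx', h1, h2, h3⟩ := hobj o ho
    obtain ⟨e1, e2, e3, e4⟩ := mv_mk h2
    rw [e3, e4]
    exact (hmc x hx').shp
  · intro o ho
    obtain ⟨x, hx', h1, h2, h3⟩ := hobj o ho
    obtain ⟨e1, e2, e3, e4⟩ := mv_mk h1
    rw [e3]
    exact ⟨(hmb x hx').a, (hmb x hx').w1, (hmb x hx').w2⟩
  · intro o ho
    obtain ⟨x, hx', h1, h2, h3⟩ := hobj o ho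
    obtain ⟨e1, e2, e3, e4⟩ := mv_mk h2
    rw [e3]
    exact ⟨(hmc x hx').a, (hmc x hx').w1, (hmc x hx').w2⟩
  · nlinarith
  · rw [hkn]; exact hm
  · rw [hkn]; exact hm'
  · rw [hkn2]; exact hm2
  · rw [hkn2]; exact hm2'
  · intro o ho
    obtain ⟨x, hx', h1, h2, h3⟩ := hobj o ho
    obtain ⟨e1, e2, e3, e4⟩ := mv_mk h1
    rw [e3]
    exact (hcore x hx').w0
  · intro o ho
    obtain ⟨x, hx', h1, h2, h3⟩ := hobj o ho
    obtain ⟨e1, e2, e3, e4⟩ := mv_mk h1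
    obtain ⟨e1', e2', e3', e4'⟩ := mv_mk h2
    rw [e3, e3']
    have h6 := (hcore x hx').g
    have h7 := (hcore x hx').g'
    rw [(hmb x hx').w1, (hmb x hx').w2] at h6 h7
    have h8 : lam * D.w 2 n b ≤ X * lam * D.w 2 n b := by
      have h9 : 0 ≤ lam * D.w 2 n b := mul_nonneg (by linarith) w2p.le
      nlinarith
    exact ⟨h6.trans h8, h7.trans h8⟩
  · intro o ho
    obtain ⟨x, hx', h1, h2, h3⟩ := hobj o ho
    obtain ⟨e1, e2, e3, e4⟩ := mv_mk h1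
    obtain ⟨e1', e2', e3', e4'⟩ := mv_mk h2
    obtain ⟨e1'', e2'', e3'', e4''⟩ := mv_mk h3
    rw [e3, e3', e4'', ← e1]
    have h6 := (hcore x hx').coin
    rw [(hmb x hx').w1, (hmb x hx').w2] at h6
    exact h6
  · intro o ho
    obtain ⟨x, hx', h1, h2, h3⟩ := hobj o ho
    obtain ⟨e1, e2, e3, e4⟩ := mv_mk h1
    obtain ⟨e1', e2', e3', e4'⟩ := mv_mk h2
    obtain ⟨e1'', e2'', e3'', e4''⟩ := mv_mk h3
    obtain ⟨ζ0, hζ⟩ := (hcore x hx').cap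
    rw [(hmb x hx').w1, (hmb x hx').w2] at hζ
    refine ⟨ζ0, ?_⟩
    rw [e3, e3', e4, e4', e4'', ← e1]
    intro ζ g1 g2 g3
    obtain ⟨V, hV⟩ := hζ ζ g1 g2 g3
    refine ⟨V, fun t t1 t2 t3 t4 => ?_⟩
    obtain ⟨l, l1, l2⟩ := hV t t1 t2 t3 t4
    refine ⟨l, l1.trans (mul_le_mul_of_nonneg_right hττ w1p.le), l2.trans ?_⟩
    exact mul_le_mul_of_nonneg_right (mul_le_mul_of_nonneg_left hττ (by linarith)) w2p.le

end Crest.Agent.R136.Eng904
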