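import Mathlib
import Crest.Agent.R136.Eng4_904

/-!
# R136 (U5 TILT): the deep count for sequences (helper904)

`core_seqM` : `tilt_num` on the part given by `engineM`.
-/

set_option autoImplicit false
set_option linter.unusedVariables false
set_option linter.unusedSectionVars false

open Finset Filter Topology

namespace Crest.Agent.R136.Eng904

open Crest.Agent.R138.Ex926 Crest.Agent.R138.Dp76
open Crest.Agent.R138.Mk163 (zc zl rho alive own)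
open Crest.Agent.R138.MkRef627 (lc)
open Crest.Agent.R136.MkA627 (Geo MkA ampA fib_bounds)
open Crest.Agent.R136.Dia770 (extO DeepP)
open Crest.Agent.R136.Deep51 Crest.Agent.R136.Tlt51 Crest.Agent.R136.Top484
open Crest.Agent.R136.Sh605 Crest.Agent.R136.K4

variable {p : Par4} {D : Dat4}

/-- marked sequence of the data -/
abbrev MkD (p : Par4) (D : Dat4) : Prop :=
  MkA D.B D.I (D.G p) D.lev D.A (fun v => p.g * v) (fun v => 0 * v)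
    (fun j v => p.θ j * (1 - v)) D.f D.b D.vm D.w

/-- numbers of one stage -/
structure NumAt (p : Par4) (D : Dat4) (n : ℕ) (b c : ℚ) (s lam τ θ A X E : ℝ) : Prop where
  X1 : 1 ≤ X
  X2 : 2 ≤ X
  s0 : 0 < s
  l1 : 1 ≤ lam
  τ0 : 0 < τ
  θ0 : 0 ≤ θ
  sτ : s ≤ lam * τ
  lw : lam * D.w 2 n b ≤ 2 * D.w 1 n b
  n1 : 32 * X * θ ≤ 1
  n2 : 2 ^ 10 * X ^ 8 * s ≤ 1
  n3 : 128 * X ^ 6 * τ ≤ 1
  wp : ∀ j, 0 < D.w j n b
  K : ∀ j, D.w j n b ≤ X * D.w j n c ∧ D.w j n c ≤ X * D.w j n b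
  lb : D.lev n b ≤ D.lev n (max b c)
  lc : D.lev n c ≤ D.lev n (max b c)
  cl : (2:ℝ) ^ D.lev n (max b c) ≤ X * 2 ^ D.lev n b
  cl' : (2:ℝ) ^ D.lev n (max b c) ≤ X * 2 ^ D.lev n c
  cr : D.w 1 n b ≤ X * rho (D.lev n (max b c))
  r0 : D.r0 n ≤ D.w 0 n b
  aA : D.w 0 n b ≤ A
  Aa : A ≤ X * D.w 0 n b
  aA' : D.w 0 n c ≤ A
  As : 64 * A ≤ X ^ 4 * s * D.w 2 n b
  hE : D.B.d n ^ (-E) ≤ X
  gb : D.B.d n ^ (-(p.g * (((max b c : ℚ) : ℝ) - b) + E)) ≤ X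
  gc : D.B.d n ^ (-(p.g * (((max b c : ℚ) : ℝ) - c) + E)) ≤ X

/-- choice of the levels -/
structure LevAt (s lam τ X : ℝ) (k k2 : ℕ) : Prop where
  a1 : (2:ℝ) ^ k * (X ^ 6 * s) ≤ lam
  a2 : lam ≤ 2 * (2 ^ k * (X ^ 6 * s))
  a3 : (2:ℝ) ^ k2 * (X ^ 4 * s) ≤ 64 * lam * (X ^ 4 * τ)
  a4 : 64 * lam * (X ^ 4 * τ) ≤ 2 * (2 ^ k2 * (X ^ 4 * s))

theorem LevAt.ex {n : ℕ} {b c : ℚ} {s lam τ θ A X E : ℝ}
    (h : NumAt p D n b c s lam τ θ A X E) : ∃ k k2 : ℕ, LevAt s lam τ X k k2 := by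
  have hX := h.X1
  have hs := h.s0
  have hX0 : 0 < X := by linarith
  obtain ⟨k, hk⟩ := choose_k (y := X ^ 6 * s) (by positivity) (aux1 hX hs h.l1 h.n2)
  obtain ⟨k2, hk2⟩ := choose_k (y := X ^ 4 * s) (by positivity) (aux2 hX h.τ0 h.l1 h.sτ)
  exact ⟨k, k2, hk.1, hk.2, hk2.1, hk2.2⟩

theorem NumAt.kk {n : ℕ} {b c : ℚ} {s lam τ θ A X E : ℝ} {k k2 : ℕ}
    (h : NumAt p D n b c s lam τ θ A X E) (hl : LevAt s lam τ X k k2) : k2 ≤ k :=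
  aux3 h.X1 h.s0 h.l1 h.τ0 hl.a2 hl.a3 h.n3

theorem NumAt.rr {n : ℕ} {b c : ℚ} {s lam τ θ A X E : ℝ} {k k2 : ℕ} (hr : 0 < D.r0 n)
    (h : NumAt p D n b c s lam τ θ A X E) (hl : LevAt s lam τ X k k2) :
    D.r0 n ≤ rho (D.lev n (max b c) + k) := by
  rw [rho_add, le_div_iff₀ (by positivity)]
  exact aux4 h.X1 h.s0 h.l1 hr (rho_pos _) hl.a1 h.lw h.cr h.r0 h.aA h.As

open Classical in
/-- output of `engine` at one stage -/
structure OutAt (p : Par4) (D : Dat4) (n : ℕ) (u v : ℚ) (J : Finset (ℕ × ℝ)) (k k2 : ℕ) (E : ℝ)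
    (P : Finset (ℕ × ℤ)) : Prop where
  ne : P.Nonempty
  F3 : ∀ o ∈ P, ∃ x ∈ J, lc (D.lev n v) x = par (D.lev n v) (D.lev n v + k) o ∧
        lc (D.lev n u) x = par (D.lev n u) (D.lev n v + k) o
  F1 : ∀ o ∈ P, (2:ℝ) ^ (D.lev n v + k - D.lev n v) *
        (ampA D.B D.A (fun v => p.g * v) n v * D.vm n v) ≤ D.B.d n ^ (-E) *
        ((P.filter fun y => clQ (D.lev n v) (D.lev n v + k) (D.f n v) y =
          clQ (D.lev n v) (D.lev n v + k) (D.f n v) o).card : ℝ)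
  F1' : ∀ o ∈ P, (2:ℝ) ^ (D.lev n v + k - D.lev n u) *
        (ampA D.B D.A (fun v => p.g * v) n u * D.vm n u) ≤ D.B.d n ^ (-E) *
        ((P.filter fun y => clQ (D.lev n u) (D.lev n v + k) (D.f n u) y =
          clQ (D.lev n u) (D.lev n v + k) (D.f n u) o).card : ℝ)
  F2 : ∀ o ∈ P, (2:ℝ) ^ (D.lev n v + k - D.lev n v) ≤ D.B.d n ^ (-E) *
        ((P.filter fun y => y.1 = o.1 ∧
          anc (D.lev n v) (D.lev n v + k) y.2 = anc (D.lev n v) (D.lev n v + k) o.2).card : ℝ)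
  F4 : ∀ (j : ℤ) (s : Plk4), (D.G p).adm n (D.lev n v + k) j s →
        ((P.filter fun o => o.2 = j ∧ (D.G p).mem n (D.lev n v + k) j s o.1).card : ℝ) ≤
          D.B.d n ^ (-E) * (D.A n * D.B.d n ^ (-(p.g * v))) *
            2 ^ ((p.g + E) * (((D.lev n v + k : ℕ) : ℝ) - D.lev n v)) *
            (D.G p).val n (D.lev n v + k) j s
  F4' : ∀ (j : ℤ) (s : Plk4), (D.G p).adm n (D.lev n v + k2) j s →
        (((P.image (par (D.lev n v + k2) (D.lev n v + k))).filter fun o => o.2 = j ∧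
          (D.G p).mem n (D.lev n v + k2) j s o.1).card : ℝ) ≤
          D.B.d n ^ (-E) * (D.A n * D.B.d n ^ (-(p.g * v))) *
            2 ^ ((p.g + E) * (((D.lev n v + k2 : ℕ) : ℝ) - D.lev n v)) *
            (D.G p).val n (D.lev n v + k2) j s

theorem key_bc {b c : ℚ} (R : ℚ → Prop) (h1 : R (max b c)) (h2 : R (min b c)) : R b ∧ R c := by
  rcases le_total b c with h | h
  · rw [max_eq_right h] at h1
    rw [min_eq_left h] at h2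
    exact ⟨h2, h1⟩
  · rw [max_eq_left h] at h1
    rw [min_eq_right h] at h2
    exact ⟨h1, h2⟩

open Classical in
/-- one stage of `core_seq` -/
theorem core_at {n : ℕ} {b c : ℚ} {J : Finset (ℕ × ℝ)} {P : Finset (ℕ × ℤ)} {k k2 N : ℕ}
    {s lam τ θ A X E : ℝ} (hr : 0 < D.r0 n) (hq : ∀ j, 0 ≤ p.q j) (hg : 0 ≤ p.g) (hE : 0 ≤ E)
    (hA : 0 < D.A n) (hN : 1 ≤ N) (h : NumAt p D n b c s lam τ θ A X E)
    (hl : LevAt s lam τ X k k2) (ho : OutAt p D n (min b c) (max b c) J k k2 E P)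
    (hmb : ∀ x ∈ J, MarkAt p D n b x) (hmc : ∀ x ∈ J, MarkAt p D n c x)
    (hcore : ∀ x ∈ J, Core D n b c s lam τ θ A N x)
    (hwr : ∀ i j (S : Plk4), ShN S.e S.c S.w S.q S.a (zl i j) (rho i) (D.r0 n) →
      S.w 1 ≤ rho i → s / lam * D.w 1 n b ≤ S.w 1 → s * D.w 2 n b ≤ S.w 2 →
      S.w 1 ≤ D.w 1 n b → S.w 2 ≤ D.w 2 n b → S.a = A → (D.G p).adm n i j S) :
    1 ≤ 2 ^ 108 * (64:ℝ) ^ (p.g + E + 2 * (p.q 0 + p.q 1 + p.q 2)) *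
      X ^ (75 + 6 * (p.q 0 + p.q 1 + p.q 2)) * N *
      (lam / s) ^ (2 * (p.g + E + p.q 0)) * lam ^ (2 * p.q 2) * (X ^ 4 * τ) ^ (p.q 1) := by
  have hX := h.X1
  have hX0 : 0 < X := by linarith
  have hobj : ∀ o ∈ P, ∃ x ∈ J,
      Crest.Agent.R138.MkRef627.lc (D.lev n b) x = par (D.lev n b) (D.lev n (max b c) + k) o ∧
      Crest.Agent.R138.MkRef627.lc (D.lev n c) x = par (D.lev n c) (D.lev n (max b c) + k) o ∧
      Crest.Agent.R138.MkRef627.lc (D.lev n (max b c)) x =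
        par (D.lev n (max b c)) (D.lev n (max b c) + k) o := by
    intro o hoP
    obtain ⟨x, hx, h1, h2⟩ := ho.F3 o hoP
    obtain ⟨h3, h4⟩ := key_bc (fun e => Crest.Agent.R138.MkRef627.lc (D.lev n e) x =
      par (D.lev n e) (D.lev n (max b c) + k) o) h1 h2
    exact ⟨x, hx, h3, h4, h1⟩
  obtain ⟨q4, q5⟩ := key_bc (fun e => ∀ o ∈ P, (2:ℝ) ^ (D.lev n (max b c) + k - D.lev n e) *
        (ampA D.B D.A (fun v => p.g * v) n e * D.vm n e) ≤ D.B.d n ^ (-E) *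
        ((P.filter fun y => clQ (D.lev n e) (D.lev n (max b c) + k) (D.f n e) y =
          clQ (D.lev n e) (D.lev n (max b c) + k) (D.f n e) o).card : ℝ)) ho.F1 ho.F1'
  obtain ⟨o0, ho0⟩ := ho.ne
  obtain ⟨x0, hx0, -⟩ := hobj o0 ho0
  have hAm : 0 < D.A n * D.B.d n ^ (-(p.g * ((max b c : ℚ) : ℝ))) :=
    mul_pos hA (dpow_pos D.B n _)
  have hτ0 := h.τ0
  have hτX : X ^ 4 * τ ≤ 1 := by
    have h1 : X ^ 4 ≤ X ^ 6 := pow_le_pow_right₀ hX (by norm_num)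
    have h2 : X ^ 4 * τ ≤ X ^ 6 * τ := mul_le_mul_of_nonneg_right h1 hτ0.le
    have h3 : 0 ≤ X ^ 6 * τ := by positivity
    have h4 : 128 * X ^ 6 * τ = 128 * (X ^ 6 * τ) := by ring
    have n3 := h.n3
    rw [h4] at n3
    linarith
  have hττ : τ ≤ X ^ 4 * τ := by
    have := one_le_pow₀ hX (n := 4)
    nlinarith
  have hm2 : 32 * lam * (X ^ 4 * τ) ≤ (2:ℝ) ^ k2 * (X ^ 4 * s) := by
    have := hl.a4
    linarith
  refine core_fin (b := b) (c := c) hr hq (by linarith) ho.ne (h.kk hl) h.lb h.lc hN hX h.s0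
    h.l1 hτ0 hττ hτX h.θ0 hAm hobj hmb hmc hcore h.wp h.K h.cl h.cl' h.cr h.lw h.X2
    (class_fin hg (hmb x0 hx0).vm h.gb q4) (class_fin hg (hmc x0 hx0).vm h.gc q5)
    (fun o hoP => (ho.F2 o hoP).trans (mul_le_mul_of_nonneg_right h.hE (Nat.cast_nonneg _)))
    (ω1 := s / lam * D.w 1 n b) (ω2 := s * D.w 2 n b) le_rfl le_rfl
    (fun j S hS hSw h1 h2 h3 h4 h5 => ?_) (fun j S hS hSw h1 h2 h3 h4 h5 => ?_)
    hl.a1 hl.a2 hm2 hl.a3 h.n1 h.n2 h.aA h.Aa h.aA' h.As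
  · exact aux6 (ho.F4 j S (hwr _ _ S hS hSw h1 h2 h3 h4 h5)) h.hE hAm.le (by positivity)
      (val4_nonneg hr hS)
  · exact aux6 (ho.F4' j S (hwr _ _ S hS hSw h1 h2 h3 h4 h5)) h.hE hAm.le (by positivity)
      (val4_nonneg hr hS)

theorem ratio_rw (hmka : MkD p D) {K : ℝ}
    (hK : ∀ k : Fin 3, |1 - p.θ k| ≤ K) {b c : ℚ} (hb0 : 0 ≤ b) (hb1 : b ≤ 1) (hc0 : 0 ≤ c)
    (hc1 : c ≤ 1) {ε : ℝ} (hε : 0 < ε) : ∀ᶠ n in (U : Filter ℕ), ∀ k : Fin 3, 0 < D.w k n b ∧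
      0 < D.w k n c ∧ D.w k n b ≤ D.B.d n ^ (-(K * |(b:ℝ) - c| + ε)) * D.w k n c ∧
      D.w k n c ≤ D.B.d n ^ (-(K * |(b:ℝ) - c| + ε)) * D.w k n b := by
  rw [eventually_all]
  intro k
  have h1 := w_ratio hmka k hb0 hb1 hc0 hc1 (hK k) hε
  have h2 := w_ratio hmka k hc0 hc1 hb0 hb1 (hK k) hε
  rw [abs_sub_comm (c:ℝ) b] at h2
  filter_upwards [h1, h2, hmka.wpos k b hb0 hb1, hmka.wpos k c hc0 hc1] with n a1 a2 a3 a4
  exact ⟨a3, a4, a1, a2⟩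

theorem d_mono (B : Base) (n : ℕ) {x y : ℝ} (h : x ≤ y) : B.d n ^ (-x) ≤ B.d n ^ (-y) :=
  Real.rpow_le_rpow_of_exponent_ge (B.pos n) (B.lt n).le (by linarith)

/-- numeric part of `hnum` -/
theorem aux7 {C X θ s τ : ℝ} (hX : 1 ≤ X) (hC : (2:ℝ) ^ 20 ≤ C) (hθ : 0 ≤ θ) (hs : 0 ≤ s)
    (hτ : 0 ≤ τ) (k1 : C * X ^ C * θ < 1) (k2 : C * X ^ C * s < 1) (k3 : C * X ^ C * τ < 1) :
    32 * X * θ ≤ 1 ∧ 2 ^ 10 * X ^ 8 * s ≤ 1 ∧ 128 * X ^ 6 * τ ≤ 1 := by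
  have hX0 : 0 < X := by linarith
  have hXC : ∀ j : ℕ, (j : ℝ) ≤ C → X ^ j ≤ X ^ C := by
    intro j hj
    rw [← Real.rpow_natCast]
    exact Real.rpow_le_rpow_of_exponent_le hX hj
  have c0 : (2:ℝ) ^ 20 = 1048576 := by norm_num
  have c1 : (32:ℝ) ≤ C := by linarith
  have c2 : (2:ℝ) ^ 10 ≤ C := by norm_num; linarith
  have c3 : (128:ℝ) ≤ C := by linarith
  have e1 := hXC 1 (by push_cast; linarith)
  have e8 := hXC 8 (by push_cast; linarith)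
  have e6 := hXC 6 (by push_cast; linarith)
  rw [pow_one] at e1
  have hp : ∀ {a x y z : ℝ}, 0 ≤ x → 0 ≤ y → a ≤ C → 0 ≤ a → x ≤ X ^ C → C * X ^ C * y < 1 →
      a * x * y ≤ 1 := by
    intro a x y z hx hy ha ha0 hx' h
    refine le_trans ?_ h.le
    refine mul_le_mul_of_nonneg_right ?_ hy
    exact mul_le_mul ha hx' hx (ha0.trans ha)
  exact ⟨hp (z := 0) hX0.le hθ c1 (by norm_num) e1 k1,
    hp (z := 0) (by positivity) hs c2 (by norm_num) e8 k2,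
    hp (z := 0) (by positivity) hτ c3 (by norm_num) e6 k3⟩

theorem num_seq (hmka : MkD p D) (hg : 0 < p.g) {C0 K Cin : ℝ} (hCin : 0 ≤ Cin) (hK1 : 1 ≤ K) (hKg : p.g ≤ K)
    (hK : ∀ k : Fin 3, |1 - p.θ k| ≤ K) (hC0 : K + Cin ≤ C0) (hC20 : (2:ℝ) ^ 20 ≤ C0)
    {b c : ℚ} (hb0 : 0 ≤ b) (hb1 : b ≤ 1) (hc0 : 0 ≤ c) (hc1 : c ≤ 1) {ε : ℝ} (hε : 0 < ε)
    {s lam τ θ A : ℕ → ℝ}
    (hseq : ∀ᶠ n in (U : Filter ℕ), 0 < s n ∧ 1 ≤ lam n ∧ 0 < τ n ∧ 0 ≤ θ n ∧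
      s n ≤ lam n * τ n ∧ lam n * D.w 2 n b ≤ 2 * D.w 1 n b)
    (hA : ∀ᶠ n in (U : Filter ℕ), max (D.w 0 n b) (D.w 0 n c) ≤ A n ∧
      A n ≤ D.B.d n ^ (-(Cin * |(b:ℝ) - c| + ε)) * max (D.w 0 n b) (D.w 0 n c) ∧
      max (D.w 0 n b) (D.w 0 n c) ≤
        D.B.d n ^ (-(Cin * |(b:ℝ) - c| + ε)) * (s n * D.w 2 n b))
    (hno : ∀ᶠ n in (U : Filter ℕ), C0 * (D.B.d n ^ (-(C0 * |(b:ℝ) - c| + 2 * ε))) ^ C0 * θ n < 1 ∧
      C0 * (D.B.d n ^ (-(C0 * |(b:ℝ) - c| + 2 * ε))) ^ C0 * s n < 1 ∧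
      C0 * (D.B.d n ^ (-(C0 * |(b:ℝ) - c| + 2 * ε))) ^ C0 * τ n < 1) :
    ∀ᶠ n in (U : Filter ℕ), NumAt p D n b c (s n) (lam n) (τ n) (θ n) (A n)
      (D.B.d n ^ (-(C0 * |(b:ℝ) - c| + 2 * ε))) (min ε 1) := by
  set δ : ℝ := |(b:ℝ) - c| with hδ
  have hδ0 : 0 ≤ δ := abs_nonneg _
  have hbv : b ≤ max b c := le_max_left _ _
  have hcv : c ≤ max b c := le_max_right _ _
  have hv1 : max b c ≤ 1 := max_le hb1 hc1
  have hvb : ((max b c : ℚ):ℝ) - b ≤ δ := by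
    rw [hδ]; push_cast
    rcases le_total (b:ℝ) c with h | h
    · rw [max_eq_right h, abs_of_nonpos (by linarith)]; linarith
    · rw [max_eq_left h]; simp
  have hvc : ((max b c : ℚ):ℝ) - c ≤ δ := by
    rw [hδ]; push_cast
    rcases le_total (b:ℝ) c with h | h
    · rw [max_eq_right h]; simp
    · rw [max_eq_left h, abs_of_nonneg (by linarith)]
  have hKδ : δ ≤ K * δ := by
    have := mul_le_mul_of_nonneg_right hK1 hδ0
    linarith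
  have hKC : K * δ + Cin * δ ≤ C0 * δ := by
    have := mul_le_mul_of_nonneg_right hC0 hδ0
    linarith
  have hCδ : 0 ≤ Cin * δ := mul_nonneg hCin hδ0
  have hKδ0 : 0 ≤ K * δ := mul_nonneg (by linarith) hδ0
  have hEε : min ε 1 ≤ ε := min_le_left _ _
  filter_upwards [hseq, hA, hno, ratio_rw hmka hK hb0 hb1 hc0 hc1 (show (0:ℝ) < ε / 2 by linarith),
    hmka.ne, mark_ofM hmka hb0 hb1, lev2 hmka hb0 hbv hv1 hε, lev2 hmka hc0 hcv hv1 hε,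
    hmka.lev_mono b _ hb0 hbv hv1, hmka.lev_mono c _ hc0 hcv hv1,
    ev_small D.B hε (K := 1 / 64) (by norm_num)] with
    n h1 h2 h3 h4 h5 h6 h7 h8 h9 h10 h11
  clear hseq hA hno
  obtain ⟨x0, hx0⟩ := h5
  have hm := h6 x0 hx0
  obtain ⟨s0, l1, τ0, θ0, sτ, lw⟩ := h1
  obtain ⟨a1, a2, a3⟩ := h2
  obtain ⟨k1, k2, k3⟩ := h3
  set X : ℝ := D.B.d n ^ (-(C0 * δ + 2 * ε)) with hX
  have hXd : ∀ {y : ℝ}, y ≤ C0 * δ + 2 * ε → D.B.d n ^ (-y) ≤ X := fun hy => d_mono D.B n hy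
  have hX1 : 1 ≤ X := Real.one_le_rpow_of_pos_of_le_one_of_nonpos (D.B.pos n) (D.B.lt n).le (by
    linarith)
  have hX0 : 0 < X := by linarith
  have hw0 := (h4 0).1
  have hw0' := (h4 0).2.1
  have hw2 := (h4 2).1
  have hcl : (2:ℝ) ^ D.lev n (max b c) ≤ X * 2 ^ D.lev n b :=
    h7.trans (mul_le_mul_of_nonneg_right (hXd (by linarith)) (by positivity))
  have hcl' : (2:ℝ) ^ D.lev n (max b c) ≤ X * 2 ^ D.lev n c :=
    h8.trans (mul_le_mul_of_nonneg_right (hXd (by linarith)) (by positivity))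
  have hKK : ∀ j, D.w j n b ≤ X * D.w j n c ∧ D.w j n c ≤ X * D.w j n b := by
    intro j
    obtain ⟨y1, y2, y3, y4⟩ := h4 j
    have y5 : D.B.d n ^ (-(K * δ + ε / 2)) ≤ X := hXd (by linarith)
    exact ⟨y3.trans (mul_le_mul_of_nonneg_right y5 y2.le),
      y4.trans (mul_le_mul_of_nonneg_right y5 y1.le)⟩
  have hp1 := dpow_pos D.B n (-(Cin * δ + ε))
  have hAa : A n ≤ X * D.w 0 n b := by
    obtain ⟨y1, y2, y3, y4⟩ := h4 0
    have y6 : 1 ≤ D.B.d n ^ (-(K * δ + ε / 2)) :=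
      Real.one_le_rpow_of_pos_of_le_one_of_nonpos (D.B.pos n) (D.B.lt n).le (by linarith)
    have y7 : max (D.w 0 n b) (D.w 0 n c) ≤ D.B.d n ^ (-(K * δ + ε / 2)) * D.w 0 n b :=
      max_le (le_mul_of_one_le_left y1.le y6) y4
    have y9 : D.B.d n ^ (-(Cin * δ + ε)) * (D.B.d n ^ (-(K * δ + ε / 2)) * D.w 0 n b) =
        D.B.d n ^ (-(Cin * δ + ε + (K * δ + ε / 2))) * D.w 0 n b := by
      rw [← mul_assoc, ← dpow_add]; congr 2; ring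
    exact (a2.trans ((mul_le_mul_of_nonneg_left y7 hp1.le).trans (le_of_eq y9))).trans
      (mul_le_mul_of_nonneg_right (hXd (by linarith)) y1.le)
  have hAs : 64 * A n ≤ X ^ 4 * s n * D.w 2 n b := by
    have e0 : (64:ℝ) ≤ D.B.d n ^ (-ε) := by
      rw [Real.rpow_neg (D.B.pos n).le, le_inv_comm₀ (by norm_num) (dpow_pos D.B n ε)]
      rw [one_div] at h11; exact h11
    have e1 : D.B.d n ^ (-ε) * D.B.d n ^ (-(Cin * δ + ε)) * D.B.d n ^ (-(Cin * δ + ε)) ≤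
        X ^ 4 := by
      rw [← dpow_add, ← dpow_add, ← Real.rpow_natCast X 4, hX, ← Real.rpow_mul (D.B.pos n).le]
      refine Real.rpow_le_rpow_of_exponent_ge (D.B.pos n) (D.B.lt n).le ?_
      push_cast
      linarith
    have hp2 := dpow_pos D.B n (-ε)
    have hA0 : 0 ≤ A n := hw0.le.trans ((le_max_left _ _).trans a1)
    have e2 : 64 * A n ≤ D.B.d n ^ (-ε) * (D.B.d n ^ (-(Cin * δ + ε)) *
          (D.B.d n ^ (-(Cin * δ + ε)) * (s n * D.w 2 n b))) :=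
      mul_le_mul e0 (a2.trans (mul_le_mul_of_nonneg_left a3 hp1.le)) hA0 hp2.le
    have e3 : D.B.d n ^ (-ε) * (D.B.d n ^ (-(Cin * δ + ε)) *
          (D.B.d n ^ (-(Cin * δ + ε)) * (s n * D.w 2 n b))) =
        D.B.d n ^ (-ε) * D.B.d n ^ (-(Cin * δ + ε)) * D.B.d n ^ (-(Cin * δ + ε)) *
          (s n * D.w 2 n b) := by ring
    rw [e3] at e2
    have e4 : 0 ≤ s n * D.w 2 n b := by positivity
    have e5 := e2.trans (mul_le_mul_of_nonneg_right e1 e4)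
    linarith
  obtain ⟨n1, n2, n3⟩ := aux7 hX1 hC20 θ0 s0.le τ0.le k1 k2 k3
  have hgg : ∀ e : ℚ, ((max b c : ℚ):ℝ) - e ≤ δ →
      D.B.d n ^ (-(p.g * (((max b c : ℚ):ℝ) - e) + min ε 1)) ≤ X := by
    intro e he
    refine hXd ?_
    have g1 := mul_le_mul_of_nonneg_left he hg.le
    have g2 := mul_le_mul_of_nonneg_right hKg hδ0
    linarith
  have hX2 : 2 ≤ X := by
    have e0 : (64:ℝ) ≤ D.B.d n ^ (-ε) := by
      rw [Real.rpow_neg (D.B.pos n).le, le_inv_comm₀ (by norm_num) (dpow_pos D.B n ε)]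
      rw [one_div] at h11; exact h11
    have e1 : D.B.d n ^ (-ε) ≤ X := hXd (by linarith)
    linarith
  refine ⟨hX1, hX2, s0, l1, τ0, θ0, sτ, lw, n1, n2, n3, fun j => (h4 j).1, hKK, h9, h10, hcl, hcl',
    ?_, ?_, (le_max_left _ _).trans a1, hAa, (le_max_right _ _).trans a1, hAs,
    hXd (by linarith), hgg b hvb, hgg c hvc⟩
  · rw [← hm.w1]
    refine hm.w1r.trans ?_
    unfold rh Crest.Agent.R138.Mk163.rho
    rw [mul_one_div, div_le_div_iff₀ (by positivity) (by positivity), one_mul]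
    exact hcl
  · rw [← hm.a]
    exact hm.shp.r0_le

theorem aux8 {C0 C X0 X y Z : ℝ} (hC0 : 0 ≤ C0) (hC : C0 ≤ C) (hX0 : 0 ≤ X0 ^ C0)
    (hX : X0 ^ C0 ≤ X ^ C) (hy : 0 ≤ y) (h : 1 ≤ C0 * X0 ^ C0 * y) : 1 ≤ C * X ^ C * y := by
  refine h.trans ?_
  refine mul_le_mul_of_nonneg_right ?_ hy
  exact mul_le_mul hC hX hX0 (hC0.trans hC)

open Classical in
/-- **the deep count for sequences** -/
theorem core_seqM (hmka : MkD p D) (hq0 : 0 ≤ p.q 0) (hq1 : 0 < p.q 1) (hq2 : 0 < p.q 2)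
    (hg : 0 < p.g) (hr0 : ∀ n, 0 < D.r0 n)
    (hdeep : ∀ v : ℚ, 0 ≤ v → v ≤ 1 → ∀ m : ℕ → ℕ, (∀ᶠ n in (U : Filter ℕ), D.lev n v ≤ m n) →
      (∀ᶠ n in (U : Filter ℕ), D.r0 n ≤ rho (m n)) →
      (∃ C : ℝ, ∀ᶠ n in (U : Filter ℕ), (m n : ℝ) ≤ D.lev n 1 + C * D.B.L n) →
      DeepM D.B D.I (D.G p) D.lev D.A p.g v m)
    {Cin : ℝ} (hCin : 0 ≤ Cin) : ∃ C : ℝ, 1 ≤ C ∧
    ∀ b c : ℚ, 0 ≤ b → b ≤ 1 → 0 ≤ c → c ≤ 1 → ∀ ε : ℝ, 0 < ε →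
    ∀ J : ℕ → Finset (ℕ × ℝ), Dense D.B J D.I → ∀ (s lam τ θ A : ℕ → ℝ) (N : ℕ → ℕ),
    (∀ᶠ n in (U : Filter ℕ), 0 < s n ∧ 1 ≤ lam n ∧ 0 < τ n ∧ 0 ≤ θ n ∧
      s n ≤ lam n * τ n ∧ lam n * D.w 2 n b ≤ 2 * D.w 1 n b) →
    (∀ᶠ n in (U : Filter ℕ), 1 ≤ N n) →
    (∀ᶠ n in (U : Filter ℕ), max (D.w 0 n b) (D.w 0 n c) ≤ A n ∧
      A n ≤ D.B.d n ^ (-(Cin * |(b:ℝ) - c| + ε)) * max (D.w 0 n b) (D.w 0 n c) ∧
      max (D.w 0 n b) (D.w 0 n c) ≤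
        D.B.d n ^ (-(Cin * |(b:ℝ) - c| + ε)) * (s n * D.w 2 n b)) →
    (∃ C' : ℝ, ∀ᶠ n in (U : Filter ℕ), D.B.d n ^ C' ≤ s n / lam n) →
    (∀ᶠ n in (U : Filter ℕ), ∀ (i : ℕ) (j : ℤ) (S : Plk4),
      ShN S.e S.c S.w S.q S.a (zl i j) (rho i) (D.r0 n) →
      S.w 1 ≤ rho i → s n / lam n * D.w 1 n b ≤ S.w 1 → s n * D.w 2 n b ≤ S.w 2 →
      S.w 1 ≤ D.w 1 n b → S.w 2 ≤ D.w 2 n b → S.a = A n → (D.G p).adm n i j S) →
    (∀ᶠ n in (U : Filter ℕ), ∀ x ∈ J n, Core D n b c (s n) (lam n) (τ n) (θ n) (A n) (N n) x) →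
    ∀ᶠ n in (U : Filter ℕ),
      1 ≤ C * (D.B.d n ^ (-(C * |(b:ℝ) - c| + ε))) ^ C * θ n ∨
      1 ≤ C * (D.B.d n ^ (-(C * |(b:ℝ) - c| + ε))) ^ C * s n ∨
      1 ≤ C * (D.B.d n ^ (-(C * |(b:ℝ) - c| + ε))) ^ C * τ n ∨
      1 ≤ C * (D.B.d n ^ (-(C * |(b:ℝ) - c| + ε))) ^ C * N n *
        (lam n / s n) ^ (2 * (p.g + ε + p.q 0)) * lam n ^ (2 * p.q 2) * τ n ^ (p.q 1) := by
  have hQ0 : 0 < p.q 0 + p.q 1 + p.q 2 := by linarith
  obtain ⟨K, hK1, hKg, hK⟩ : ∃ K : ℝ, 1 ≤ K ∧ p.g ≤ K ∧ ∀ k : Fin 3, |1 - p.θ k| ≤ K := by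
    have h0 := abs_nonneg (1 - p.θ 0)
    have h1 := abs_nonneg (1 - p.θ 1)
    have h2 := abs_nonneg (1 - p.θ 2)
    refine ⟨|1 - p.θ 0| + |1 - p.θ 1| + |1 - p.θ 2| + p.g + 1, by linarith, by linarith,
      fun k => ?_⟩
    fin_cases k
    · show |1 - p.θ 0| ≤ _
      linarith
    · show |1 - p.θ 1| ≤ _
      linarith
    · show |1 - p.θ 2| ≤ _
      linarith
  obtain ⟨M, hM, hM1⟩ : ∃ M : ℝ, 2 ^ 108 * (64:ℝ) ^ (p.g + 1 + 2 * (p.q 0 + p.q 1 + p.q 2)) ≤ M ∧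
      (2:ℝ) ^ 20 ≤ M := by
    refine ⟨_, le_rfl, ?_⟩
    have h1 : (1:ℝ) ≤ (64:ℝ) ^ (p.g + 1 + 2 * (p.q 0 + p.q 1 + p.q 2)) :=
      Real.one_le_rpow (by norm_num) (by linarith)
    have h2 : (2:ℝ) ^ 20 ≤ 2 ^ 108 := by norm_num
    have h3 : (0:ℝ) ≤ 2 ^ 108 := by positivity
    nlinarith
  have h20 : (0:ℝ) < 2 ^ 20 := by positivity
  obtain ⟨C0, hC0K, hC0M, hC0Q⟩ : ∃ C0 : ℝ, K + Cin ≤ C0 ∧ M ≤ C0 ∧
      75 + 10 * (p.q 0 + p.q 1 + p.q 2) ≤ C0 :=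
    ⟨K + Cin + M + (75 + 10 * (p.q 0 + p.q 1 + p.q 2)), by linarith, by linarith, by linarith⟩
  have hC0 : 1 ≤ C0 := by linarith
  refine ⟨2 * C0, by linarith, ?_⟩
  intro b c hb0 hb1 hc0 hc1 ε hε J hJ s lam τ θ A N hseq hN hA hpoly hadm hcore
  have hδ0 : 0 ≤ |(b:ℝ) - c| := abs_nonneg _
  -- comparison of the two forms of the loss
  have hXX : ∀ n, (D.B.d n ^ (-(C0 * |(b:ℝ) - c| + 2 * ε))) ^ C0 ≤
      (D.B.d n ^ (-(2 * C0 * |(b:ℝ) - c| + ε))) ^ (2 * C0) := by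
    intro n
    rw [← Real.rpow_mul (D.B.pos n).le, ← Real.rpow_mul (D.B.pos n).le]
    refine Real.rpow_le_rpow_of_exponent_ge (D.B.pos n) (D.B.lt n).le ?_
    have h1 : 0 ≤ C0 * C0 * |(b:ℝ) - c| := by positivity
    nlinarith
  have hXp : ∀ n, 0 ≤ (D.B.d n ^ (-(C0 * |(b:ℝ) - c| + 2 * ε))) ^ C0 := fun n =>
    Real.rpow_nonneg (dpow_pos D.B n _).le _
  have hdich : (∀ᶠ n in (U : Filter ℕ),
        ¬ (C0 * (D.B.d n ^ (-(C0 * |(b:ℝ) - c| + 2 * ε))) ^ C0 * θ n < 1 ∧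
        C0 * (D.B.d n ^ (-(C0 * |(b:ℝ) - c| + 2 * ε))) ^ C0 * s n < 1 ∧
        C0 * (D.B.d n ^ (-(C0 * |(b:ℝ) - c| + 2 * ε))) ^ C0 * τ n < 1)) ∨
      ∀ᶠ n in (U : Filter ℕ), C0 * (D.B.d n ^ (-(C0 * |(b:ℝ) - c| + 2 * ε))) ^ C0 * θ n < 1 ∧
        C0 * (D.B.d n ^ (-(C0 * |(b:ℝ) - c| + 2 * ε))) ^ C0 * s n < 1 ∧
        C0 * (D.B.d n ^ (-(C0 * |(b:ℝ) - c| + 2 * ε))) ^ C0 * τ n < 1 := by
    rw [← Ultrafilter.eventually_or]
    exact Eventually.of_forall fun n => (Classical.em _).symm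
  rcases hdich with hyes | hno
  · filter_upwards [hyes, hseq] with n hn h2
    obtain ⟨s0, l1, τ0, θ0, -⟩ := h2
    rw [not_and_or, not_and_or, not_lt, not_lt, not_lt] at hn
    rcases hn with h | h | h
    · exact Or.inl (aux8 (Z := 0) (by linarith) (by linarith) (hXp n) (hXX n) θ0 h)
    · exact Or.inr (Or.inl (aux8 (Z := 0) (by linarith) (by linarith) (hXp n) (hXX n) s0.le h))
    · exact Or.inr (Or.inr (Or.inl
        (aux8 (Z := 0) (by linarith) (by linarith) (hXp n) (hXX n) τ0.le h)))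
  have hnum := num_seq hmka hg hCin hK1 hKg hK hC0K (hM1.trans hC0M) hb0 hb1 hc0 hc1 hε hseq hA hno
  set X : ℕ → ℝ := fun n => D.B.d n ^ (-(C0 * |(b:ℝ) - c| + 2 * ε)) with hX
  have hex : ∀ n, ∃ k : ℕ × ℕ, NumAt p D n b c (s n) (lam n) (τ n) (θ n) (A n) (X n) (min ε 1) →
      LevAt (s n) (lam n) (τ n) (X n) k.1 k.2 := by
    intro n
    by_cases h : NumAt p D n b c (s n) (lam n) (τ n) (θ n) (A n) (X n) (min ε 1)
    · obtain ⟨k, k2, hk⟩ := LevAt.ex h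
      exact ⟨(k, k2), fun _ => hk⟩
    · exact ⟨(0, 0), fun h' => absurd h' h⟩
  choose kk hkk using hex
  have hu0 : 0 ≤ min b c := le_min hb0 hc0
  have hv1 : max b c ≤ 1 := max_le hb1 hc1
  have huv : min b c ≤ max b c := min_le_max
  have hv0 : 0 ≤ max b c := hu0.trans huv
  have hE : 0 < min ε 1 := lt_min hε one_pos
  have h1 : ∀ᶠ n in (U : Filter ℕ),
      D.lev n (max b c) + (kk n).2 ≤ D.lev n (max b c) + (kk n).1 := by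
    filter_upwards [hnum] with n hn
    exact Nat.add_le_add_left (hn.kk (hkk n hn)) _
  have h2 : ∀ᶠ n in (U : Filter ℕ), D.r0 n ≤ rho (D.lev n (max b c) + (kk n).1) := by
    filter_upwards [hnum] with n hn
    exact NumAt.rr (hr0 n) hn (hkk n hn)
  -- bounded depth
  have h3 : ∃ C : ℝ, ∀ᶠ n in (U : Filter ℕ),
      ((D.lev n (max b c) + (kk n).1 : ℕ) : ℝ) ≤ D.lev n 1 + C * D.B.L n := by
    obtain ⟨C', hC'⟩ := hpoly
    refine ⟨C' / Real.log 2, ?_⟩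
    filter_upwards [hnum, hC', hmka.lev_mono (max b c) 1 hv0 hv1 le_rfl] with n hn hp hl
    have hk := (hkk n hn).a1
    have hℓ : (0:ℝ) < Real.log 2 := Real.log_pos one_lt_two
    have hs := hn.s0
    have hX6 : 1 ≤ X n ^ 6 := one_le_pow₀ hn.X1
    have hl0 : 0 < lam n := by linarith [hn.l1]
    have e1 : (2:ℝ) ^ (kk n).1 * D.B.d n ^ C' ≤ 1 := by
      have e2 : (2:ℝ) ^ (kk n).1 * s n ≤ lam n := by
        refine le_trans ?_ hk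
        refine mul_le_mul_of_nonneg_left ?_ (by positivity)
        exact le_mul_of_one_le_left hs.le hX6
      rw [le_div_iff₀ hl0] at hp
      have e3 : (2:ℝ) ^ (kk n).1 * (D.B.d n ^ C' * lam n) ≤ 1 * lam n := by
        rw [one_mul]
        exact (mul_le_mul_of_nonneg_left hp (by positivity)).trans e2
      rw [← mul_assoc] at e3
      exact le_of_mul_le_mul_right e3 hl0
    have e4 : ((kk n).1 : ℝ) * Real.log 2 ≤ C' * D.B.L n := by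
      have e5 := Real.log_le_log (by have := dpow_pos D.B n C'; positivity) e1
      rw [Real.log_one, Real.log_mul (by positivity) (dpow_pos D.B n C').ne', Real.log_pow,
        Real.log_rpow (D.B.pos n)] at e5
      unfold Base.L
      linarith
    push_cast
    have e6 : ((D.lev n (max b c) : ℕ) : ℝ) ≤ D.lev n 1 := by exact_mod_cast hl
    have e7 : ((kk n).1 : ℝ) ≤ C' / Real.log 2 * D.B.L n := by
      rw [div_mul_eq_mul_div, le_div_iff₀ hℓ]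
      exact e4
    linarith
  have h4 : ∃ C : ℝ, ∀ᶠ n in (U : Filter ℕ),
      ((D.lev n (max b c) + (kk n).2 : ℕ) : ℝ) ≤ D.lev n 1 + C * D.B.L n := by
    obtain ⟨C, hC⟩ := h3
    refine ⟨C, ?_⟩
    filter_upwards [hC, h1] with n a1 a2
    exact le_trans (by exact_mod_cast a2) a1
  have h5 : ∀ᶠ n in (U : Filter ℕ), D.r0 n ≤ rho (D.lev n (max b c) + (kk n).2) := by
    filter_upwards [h1, h2] with n a1 a2 using rho_le_of a2 a1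
  have heng := engineM hmka (fun v => by simp) hu0 huv hv1
    (m2 := fun n => D.lev n (max b c) + (kk n).2) (m := fun n => D.lev n (max b c) + (kk n).1)
    (Eventually.of_forall fun n => Nat.le_add_right _ _) h1
    (hdeep _ hv0 hv1 _ (Eventually.of_forall fun n => Nat.le_add_right _ _) h2 h3)
    (hdeep _ hv0 hv1 _ (Eventually.of_forall fun n => Nat.le_add_right _ _) h5 h4) hJ hE
  clear h1 h2 h3 h4 h5 hno hA
  filter_upwards [heng, hnum, hN, mark_ofM hmka hb0 hb1, mark_ofM hmka hc0 hc1, hJ.1, hcore,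
    hadm] with n z1 z2 z3 z4 z5 z6 z7 z8
  clear heng hnum hN hcore hseq
  right; right; right
  obtain ⟨P, p1, p2, p3, p4, p5, p6, p7, p8⟩ := z1
  have hq : ∀ j, 0 ≤ p.q j := by
    intro j; fin_cases j
    exacts [hq0, hq1.le, hq2.le]
  have hout : OutAt p D n (min b c) (max b c) (J n) (kk n).1 (kk n).2 (min ε 1) P :=
    ⟨p1, p3, p4, p5, p6, p7, p8⟩
  have hfin := core_at (hr0 n) hq hg.le hE.le (hmka.Apos n) z3 z2 (hkk n z2) hout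
    (fun x hx => z4 x (z6 hx)) (fun x hx => z5 x (z6 hx)) z7
    z8
  have hs1 : s n ≤ 1 := by
    have e1 := one_le_pow₀ z2.X1 (n := 8)
    have e2 : s n ≤ X n ^ 8 * s n := le_mul_of_one_le_left z2.s0.le e1
    have e3 : 2 ^ 10 * X n ^ 8 * s n = 2 ^ 10 * (X n ^ 8 * s n) := by ring
    have n2 := z2.n2
    rw [e3] at n2
    linarith
  have hres := aux5 (ε1 := min ε 1) z2.X1 z2.s0 hs1 z2.l1 z2.τ0 hq0 hq1.le hq2.le hg.le hE
    (min_le_left _ _) (min_le_right _ _) (hM.trans hC0M) hC0Q hfin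
  refine hres.trans ?_
  have t1 : 0 ≤ lam n ^ (2 * p.q 2) := Real.rpow_nonneg (by linarith [z2.l1]) _
  have t2 : 0 ≤ τ n ^ p.q 1 := Real.rpow_nonneg z2.τ0.le _
  have t3 : 0 ≤ (lam n / s n) ^ (2 * (p.g + ε + p.q 0)) :=
    Real.rpow_nonneg (div_nonneg (by linarith [z2.l1]) z2.s0.le) _
  have t4 : C0 * X n ^ C0 ≤ 2 * C0 * (D.B.d n ^ (-(2 * C0 * |(b:ℝ) - c| + ε))) ^ (2 * C0) :=
    mul_le_mul (by linarith) (hXX n) (hXp n) (by linarith)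
  have t5 : C0 * X n ^ C0 * (N n : ℝ) ≤
      2 * C0 * (D.B.d n ^ (-(2 * C0 * |(b:ℝ) - c| + ε))) ^ (2 * C0) * N n :=
    mul_le_mul_of_nonneg_right t4 (Nat.cast_nonneg _)
  exact mul_le_mul_of_nonneg_right (mul_le_mul_of_nonneg_right
    (mul_le_mul_of_nonneg_right t5 t3) t1) t2

end Crest.Agent.R136.Eng904
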