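import Mathlib
import Crest.Agent.R136.EngM_904

/-!
# R136 (U5 TILT): the deep count for the data of `J1` (helper904)
-/

set_option autoImplicit false
set_option linter.unusedVariables false
set_option linter.unusedSectionVars false

open Finset Filter Topology

namespace Crest.Agent.R136.Eng904

open Crest.Agent.R138.Ex926 Crest.Agent.R138.Dp76
open Crest.Agent.R138.Mk163 (zc zl rho alive own)
open Crest.Agent.R136.MkA627 (Geo MkA ampA fib_bounds)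
open Crest.Agent.R136.Deep51 Crest.Agent.R136.Tlt51 Crest.Agent.R136.Top484
open Crest.Agent.R136.Sh605 Crest.Agent.R136.K4

variable {η : ℝ} {p : Par4} {D : Dat4}

theorem adm_rng {n : ℕ} {b c : ℚ} {s lam A C' : ℝ} (hw : ∀ k, 0 < D.w k n b)
    (hd : D.B.d n ^ C' ≤ s / lam) (hl : 1 ≤ lam) (hs : 0 < s)
    (h1 : ∀ k, D.wr k n ≤ D.B.d n ^ (max C' 0) * D.w k n b)
    (h2 : ∀ k, D.w k n b ≤ D.B.d n ^ (0:ℝ) * D.cr k n)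
    (haA : D.w 0 n b ≤ A) (hAa : A ≤ D.cr 0 n) (i : ℕ) (j : ℤ) (S : Plk4)
    (hS : ShN S.e S.c S.w S.q S.a (zl i j) (rho i) (D.r0 n)) (hSw : S.w 1 ≤ rho i)
    (g1 : s / lam * D.w 1 n b ≤ S.w 1) (g2 : s * D.w 2 n b ≤ S.w 2) (g3 : S.w 1 ≤ D.w 1 n b)
    (g4 : S.w 2 ≤ D.w 2 n b) (g5 : S.a = A) : (D.G p).adm n i j S := by
  have hd' : D.B.d n ^ (max C' 0) ≤ s / lam := by
    refine le_trans ?_ hd
    exact Real.rpow_le_rpow_of_exponent_ge (D.B.pos n) (D.B.lt n).le (le_max_left _ _)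
  have hd1 : D.B.d n ^ (max C' 0) ≤ 1 :=
    Real.rpow_le_one (D.B.pos n).le (D.B.lt n).le (le_max_right _ _)
  have hsl : s / lam ≤ s := div_le_self hs.le hl
  refine ⟨hS, hSw, fun k => ?_⟩
  simp only [Real.rpow_zero, one_mul] at h2
  fin_cases k
  · show D.wr 0 n ≤ S.a ∧ S.a ≤ D.cr 0 n
    rw [g5]
    refine ⟨(h1 0).trans ((mul_le_mul_of_nonneg_right hd1 (hw 0).le).trans ?_), hAa⟩
    rw [one_mul]; exact haA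
  · show D.wr 1 n ≤ S.w 1 ∧ S.w 1 ≤ D.cr 1 n
    exact ⟨(h1 1).trans ((mul_le_mul_of_nonneg_right hd' (hw 1).le).trans g1), g3.trans (h2 1)⟩
  · show D.wr 2 n ≤ S.w 2 ∧ S.w 2 ≤ D.cr 2 n
    exact ⟨(h1 2).trans ((mul_le_mul_of_nonneg_right (hd'.trans hsl) (hw 2).le).trans g2),
      g4.trans (h2 2)⟩

/-- the test sheets of the deep count are in the range -/
theorem adm_seq (hmka : MkD p D) (hwrs : Rng D.B D.wr D.cr D.w) {b c : ℚ} (hb0 : 0 ≤ b)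
    (hb1 : b ≤ 1) (hc0 : 0 ≤ c) (hc1 : c ≤ 1) {ε Cin : ℝ} {s lam A : ℕ → ℝ}
    (hseq : ∀ᶠ n in (U : Filter ℕ), 0 < s n ∧ 1 ≤ lam n)
    (hA : ∀ᶠ n in (U : Filter ℕ), max (D.w 0 n b) (D.w 0 n c) ≤ A n ∧
      A n ≤ D.B.d n ^ (-(Cin * |(b:ℝ) - c| + ε)) * max (D.w 0 n b) (D.w 0 n c))
    (hpoly : ∃ C' : ℝ, ∀ᶠ n in (U : Filter ℕ), D.B.d n ^ C' ≤ s n / lam n) :
    ∀ᶠ n in (U : Filter ℕ), ∀ (i : ℕ) (j : ℤ) (S : Plk4),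
      ShN S.e S.c S.w S.q S.a (zl i j) (rho i) (D.r0 n) →
      S.w 1 ≤ rho i → s n / lam n * D.w 1 n b ≤ S.w 1 → s n * D.w 2 n b ≤ S.w 2 →
      S.w 1 ≤ D.w 1 n b → S.w 2 ≤ D.w 2 n b → S.a = A n → (D.G p).adm n i j S := by
  obtain ⟨C', hC'⟩ := hpoly
  have hw : ∀ᶠ n in (U : Filter ℕ), ∀ k : Fin 3, 0 < D.w k n b := by
    rw [eventually_all]
    exact fun k => hmka.wpos k b hb0 hb1
  have h1 : ∀ᶠ n in (U : Filter ℕ), ∀ k : Fin 3,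
      D.wr k n ≤ D.B.d n ^ (max C' 0) * D.w k n b := by
    rw [eventually_all]
    exact fun k => (hwrs (max C' 0) k b hb0 hb1).mono fun n hn => hn.1
  have h2 : ∀ᶠ n in (U : Filter ℕ), ∀ k : Fin 3, D.w k n b ≤ D.B.d n ^ (0:ℝ) * D.cr k n := by
    rw [eventually_all]
    exact fun k => (hwrs 0 k b hb0 hb1).mono fun n hn => hn.2
  filter_upwards [hseq, hA, hC', hw, h1, h2, hwrs (Cin * |(b:ℝ) - c| + ε) 0 b hb0 hb1,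
    hwrs (Cin * |(b:ℝ) - c| + ε) 0 c hc0 hc1] with n a1 a2 a3 a4 a5 a6 a7 a8 i j S hS hSw g1 g2 g3 g4 g5
  refine adm_rng (c := c) a4 a3 a1.2 a1.1 a5 a6 ((le_max_left _ _).trans a2.1) ?_ i j S hS hSw g1 g2
    g3 g4 g5
  have hp := dpow_pos D.B n (-(Cin * |(b:ℝ) - c| + ε))
  have e1 : D.B.d n ^ (-(Cin * |(b:ℝ) - c| + ε)) * D.B.d n ^ (Cin * |(b:ℝ) - c| + ε) = 1 := by
    rw [← dpow_add]; simp
  refine a2.2.trans ?_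
  have e2 : max (D.w 0 n b) (D.w 0 n c) ≤ D.B.d n ^ (Cin * |(b:ℝ) - c| + ε) * D.cr 0 n :=
    max_le a7.2 a8.2
  have e3 := mul_le_mul_of_nonneg_left e2 hp.le
  rw [← mul_assoc, e1, one_mul] at e3
  exact e3

/-- **the deep count for sequences** -/
theorem core_seqc (hJ1 : J1c η p D)
    (hdeep : Dia770.DeepP D.B D.I (D.G p) D.lev D.A p.g D.r0) {Cin : ℝ} (hCin : 0 ≤ Cin) : ∃ C : ℝ, 1 ≤ C ∧
    ∀ b c : ℚ, 0 ≤ b → b ≤ 1 → 0 ≤ c → c ≤ 1 → ∀ ε : ℝ, 0 < ε →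
    ∀ J : ℕ → Finset (ℕ × ℝ), Dense D.B J D.I → ∀ (s lam τ θ A : ℕ → ℝ) (N : ℕ → ℕ),
    (∀ᶠ n in (U : Filter ℕ), 0 < s n ∧ 1 ≤ lam n ∧ 0 < τ n ∧ 0 ≤ θ n ∧
      s n ≤ lam n * τ n ∧ lam n * D.w 2 n b ≤ 2 * D.w 1 n b) →
    (∀ᶠ n in (U : Filter ℕ), 1 ≤ N n) →
    (∀ᶠ n in (U : Filter ℕ), max (D.w 0 n b) (D.w 0 n c) ≤ A n ∧
      A n ≤ D.B.d n ^ (-(Cin * |(b:ℝ) - c| + ε)) * max (D.w 0 n b) (D.w 0 n c) ∧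
      max (D.w 0 n b) (D.w 0 n c) ≤
        D.B.d n ^ (-(Cin * |(b:ℝ) - c| + ε)) * (s n * D.w 2 n b)) →
    (∃ C' : ℝ, ∀ᶠ n in (U : Filter ℕ), D.B.d n ^ C' ≤ s n / lam n) →
    (∀ᶠ n in (U : Filter ℕ), ∀ x ∈ J n, Core D n b c (s n) (lam n) (τ n) (θ n) (A n) (N n) x) →
    ∀ᶠ n in (U : Filter ℕ),
      1 ≤ C * (D.B.d n ^ (-(C * |(b:ℝ) - c| + ε))) ^ C * θ n ∨
      1 ≤ C * (D.B.d n ^ (-(C * |(b:ℝ) - c| + ε))) ^ C * s n ∨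
      1 ≤ C * (D.B.d n ^ (-(C * |(b:ℝ) - c| + ε))) ^ C * τ n ∨
      1 ≤ C * (D.B.d n ^ (-(C * |(b:ℝ) - c| + ε))) ^ C * N n *
        (lam n / s n) ^ (2 * (p.g + ε + p.q 0)) * lam n ^ (2 * p.q 2) * τ n ^ (p.q 1) := by
  obtain ⟨C, hC1, hC⟩ := core_seqM hJ1.mka hJ1.q0.1 hJ1.g0.2 hJ1.q2.1 hJ1.g0.1 hJ1.r0pos
    (fun v hv0 hv1 m h1 h2 h3 J hJ ε hε => by
      first
        | exact hdeep v hv0 hv1 m h1 h2 J hJ ε hε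
        | exact hdeep v hv0 hv1 m h1 h2 h3 J hJ ε hε) hCin
  refine ⟨C, hC1, ?_⟩
  intro b c hb0 hb1 hc0 hc1 ε hε J hJ s lam τ θ A N hseq hN hA hpoly hcore
  exact hC b c hb0 hb1 hc0 hc1 ε hε J hJ s lam τ θ A N hseq hN hA hpoly
    (adm_seq hJ1.mka hJ1.wrs hb0 hb1 hc0 hc1 (hseq.mono fun n hn => ⟨hn.1, hn.2.1⟩)
      (hA.mono fun n hn => ⟨hn.1, hn.2.1⟩) hpoly) hcore

/-- **the deep count for sequences** -/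
theorem core_seq (hJ1 : J1 η p D)
    (hdeep : Dia770.DeepP D.B D.I (D.G p) D.lev D.A p.g D.r0) {Cin : ℝ} (hCin : 0 ≤ Cin) : ∃ C : ℝ, 1 ≤ C ∧
    ∀ b c : ℚ, 0 ≤ b → b ≤ 1 → 0 ≤ c → c ≤ 1 → ∀ ε : ℝ, 0 < ε →
    ∀ J : ℕ → Finset (ℕ × ℝ), Dense D.B J D.I → ∀ (s lam τ θ A : ℕ → ℝ) (N : ℕ → ℕ),
    (∀ᶠ n in (U : Filter ℕ), 0 < s n ∧ 1 ≤ lam n ∧ 0 < τ n ∧ 0 ≤ θ n ∧
      s n ≤ lam n * τ n ∧ lam n * D.w 2 n b ≤ 2 * D.w 1 n b) →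
    (∀ᶠ n in (U : Filter ℕ), 1 ≤ N n) →
    (∀ᶠ n in (U : Filter ℕ), max (D.w 0 n b) (D.w 0 n c) ≤ A n ∧
      A n ≤ D.B.d n ^ (-(Cin * |(b:ℝ) - c| + ε)) * max (D.w 0 n b) (D.w 0 n c) ∧
      max (D.w 0 n b) (D.w 0 n c) ≤
        D.B.d n ^ (-(Cin * |(b:ℝ) - c| + ε)) * (s n * D.w 2 n b)) →
    (∃ C' : ℝ, ∀ᶠ n in (U : Filter ℕ), D.B.d n ^ C' ≤ s n / lam n) →
    (∀ᶠ n in (U : Filter ℕ), ∀ x ∈ J n, Core D n b c (s n) (lam n) (τ n) (θ n) (A n) (N n) x) →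
    ∀ᶠ n in (U : Filter ℕ),
      1 ≤ C * (D.B.d n ^ (-(C * |(b:ℝ) - c| + ε))) ^ C * θ n ∨
      1 ≤ C * (D.B.d n ^ (-(C * |(b:ℝ) - c| + ε))) ^ C * s n ∨
      1 ≤ C * (D.B.d n ^ (-(C * |(b:ℝ) - c| + ε))) ^ C * τ n ∨
      1 ≤ C * (D.B.d n ^ (-(C * |(b:ℝ) - c| + ε))) ^ C * N n *
        (lam n / s n) ^ (2 * (p.g + ε + p.q 0)) * lam n ^ (2 * p.q 2) * τ n ^ (p.q 1) :=
  core_seqc hJ1.toJ1c hdeep hCin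

end Crest.Agent.R136.Eng904
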