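import Mathlib
import Crest.Agent.R136.Asy2_51
import Crest.Agent.R136.Eng5_904

/-!
# R136 (U5 TILT), last assembly, part 3: facts at one incidence, three cases (helper51)
-/

set_option autoImplicit false
set_option linter.unusedVariables false

open Finset Filter Topology

namespace Crest.Agent.R136.Asy51

open Crest.Agent.R138.Ex926 (Base U)
open Crest.Agent.R138.Dp76 (Dense dense_of_sub dpow_pos dpow_add)
open Crest.Agent.R138.Mk163 (zc zl rho Negl)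
open Crest.Agent.R136.MkA627 Crest.Agent.R136.Sh605 Crest.Agent.R136.K4 Crest.Agent.R136.Top484
open Crest.Agent.R136.Deep51 (CoinC CloseC)
open Crest.Agent.R136.Tlt51 (Shp InP CompC Agree mk4 zx rh TiltOKC cx)
open Crest.Agent.R136.Tl102 Crest.Agent.R136.KapP335 Crest.Agent.R136.Cps605
open Crest.Agent.R136.Eng904 (Core)

theorem kapP_le {S : Plk4} {T : Ln4} {z0 ρ r : ℝ} (hr : 0 < r) (hρ : 0 ≤ ρ) (hS : Shp S z0 ρ r)
    (hT : InP T S z0 ρ) : kapP S z0 ρ T ≤ 13 * S.w 0 := by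
  have hw0 : 0 < S.w 0 := hr.trans_le (hS.r0_le.trans hS.a_le0)
  have P := StP.of_shN hS hw0
  obtain ⟨b0, b1, G, hE⟩ := exists_isExp P.isQ S.e hw0.ne' T z0 ρ
  have N := hE.nrmC P hρ (fun z h1 h2 => (hT z h1 h2).1)
  rw [kapP_eq hw0.ne' hE]
  have := Tl102.kap_le N
  nlinarith

/-- curvature extent of the mark over its own cell -/
noncomputable def kpm (D : Dat4) (n : ℕ) (b : ℚ) (x : ℕ × ℝ) : ℝ :=
  kapP (mk4 D n b x) (zx D n b x) (rh D n b) (D.L n x.1)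

/-- the facts at one incidence before the selection: `E` closeness which fails, `dd` nondegeneracy. -/
structure Pre (D : Dat4) (n : ℕ) (b c u v : ℚ) (K E B dd : ℝ) (x : ℕ × ℝ) : Prop where
  huv : u < v
  hbc : (b = v ∧ c = u) ∨ (b = u ∧ c = v)
  r : 0 < D.r0 n
  w0b : 0 < D.w 0 n b
  w0c : 0 < D.w 0 n c
  pair : Pair D n b c B x
  B1 : 1 ≤ B
  K1 : 41 ≤ K
  EK : 416 * K ≤ E
  bad : E ^ (K + 1) * max (D.w 0 n u) (D.w 0 n v) ≤ kpm D n b x
  bad' : kpm D n c x ≤ kpm D n b x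
  nok : ¬ TiltOKC D (E ^ (K + 1)) u v n x
  dd0 : 0 < dd
  nd : dd⁻¹ * (mk4 D n b x).a < kpm D n b x →
    DetP dd (mk4 D n b x) (zx D n b x) (rh D n b) (D.L n x.1)

/-- the facts at one incidence after the selection: `s` coincidence scale, `lam` base tilt -/
structure Fact (D : Dat4) (n : ℕ) (b c u v : ℚ) (K E B dd s lam : ℝ) (x : ℕ × ℝ) : Prop extends
    Pre D n b c u v K E B dd x where
  s0 : 0 < s
  s1 : E * s ≤ 1
  l1 : 1 ≤ lam
  ang : angC (mk4 D n b x) (mk4 D n c x) * (mk4 D n b x).w 1 ≤ lam * (mk4 D n b x).w 2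
  tlt : lam = 1 ∨ lam * (mk4 D n b x).w 2 ≤
    2 * (angC (mk4 D n b x) (mk4 D n c x) * (mk4 D n b x).w 1)
  coin : CoinP D n b c (K * (D.w 0 n b + D.w 0 n c)) s lam x
  alt : 1 < E * (2 * s) ∨ ¬ CoinP D n b c (K * (D.w 0 n b + D.w 0 n c)) (2 * s) lam x

section
variable {D : Dat4} {n : ℕ} {b c u v : ℚ} {K E B dd s lam : ℝ} {x : ℕ × ℝ}

theorem Pre.maxw (h : Pre D n b c u v K E B dd x) :
    max (D.w 0 n u) (D.w 0 n v) = max (D.w 0 n b) (D.w 0 n c) := by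
  rcases h.hbc with ⟨rfl, rfl⟩ | ⟨rfl, rfl⟩
  · exact max_comm _ _
  · rfl

theorem Pre.E1 (h : Pre D n b c u v K E B dd x) : 1 ≤ E := by
  have := h.K1
  have := h.EK
  linarith

theorem Pre.Epow (h : Pre D n b c u v K E B dd x) : E ≤ E ^ K ∧ E * E ^ K = E ^ (K + 1) := by
  have hE := h.E1
  constructor
  · have := Real.rpow_le_rpow_of_exponent_le hE (show (1:ℝ) ≤ K by linarith [h.K1])
    rwa [Real.rpow_one] at this
  · rw [Real.rpow_add (by linarith), Real.rpow_one, mul_comm]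

theorem Pre.w0_ge (h : Pre D n b c u v K E B dd x) :
    E * (E ^ K * max (D.w 0 n b) (D.w 0 n c)) ≤ 13 * (mk4 D n b x).w 0 := by
  have h1 := kapP_le h.r (Crest.Agent.R136.Deep51.rho_pos _).le h.pair.shp h.pair.inp
  have h2 := h.bad
  rw [h.maxw, ← h.Epow.2] at h2
  rw [← mul_assoc]
  exact h2.trans h1

theorem Pre.bigA (h : Pre D n b c u v K E B dd x) :
    K * (D.w 0 n b + D.w 0 n c) ≤ kpm D n b x ∧
      16 * (K * (D.w 0 n b + D.w 0 n c)) ≤ (mk4 D n b x).w 0 := by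
  have h1 := h.w0_ge
  have hb := h.bad
  rw [h.maxw, ← h.Epow.2, mul_assoc] at hb
  have hE := h.E1
  have hm : 0 < max (D.w 0 n b) (D.w 0 n c) := h.w0b.trans_le (le_max_left _ _)
  have h2 : max (D.w 0 n b) (D.w 0 n c) ≤ E ^ K * max (D.w 0 n b) (D.w 0 n c) :=
    le_mul_of_one_le_left hm.le (hE.trans h.Epow.1)
  have h3 : 416 * K * max (D.w 0 n b) (D.w 0 n c) ≤ E * (E ^ K * max (D.w 0 n b) (D.w 0 n c)) :=
    mul_le_mul h.EK h2 hm.le (by linarith)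
  have h4 : D.w 0 n b ≤ max (D.w 0 n b) (D.w 0 n c) := le_max_left _ _
  have h5 : D.w 0 n c ≤ max (D.w 0 n b) (D.w 0 n c) := le_max_right _ _
  have hK := h.K1
  have h6 : K * (D.w 0 n b + D.w 0 n c) ≤ K * (2 * max (D.w 0 n b) (D.w 0 n c)) :=
    mul_le_mul_of_nonneg_left (by linarith) (by linarith)
  have h7 : 0 ≤ K * max (D.w 0 n b) (D.w 0 n c) := by positivity
  constructor <;> linarith

theorem Pre.w0A (h : Pre D n b c u v K E B dd x) :
    16 * (K * (D.w 0 n b + D.w 0 n c)) ≤ (mk4 D n b x).w 0 := h.bigA.2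

theorem Pre.pos (h : Pre D n b c u v K E B dd x) :
    0 < (mk4 D n b x).w 0 ∧ 0 < (mk4 D n b x).w 2 ∧ 0 < (mk4 D n b x).w 1 ∧
      (mk4 D n b x).w 0 ≤ (mk4 D n b x).w 2 := by
  have hw0 : 0 < (mk4 D n b x).w 0 := h.r.trans_le (h.pair.shp.r0_le.trans h.pair.shp.a_le0)
  have hw2 := hw0.trans_le h.pair.shp.w0_le
  exact ⟨hw0, hw2, hw2.trans_le h.pair.shp.w_le, h.pair.shp.w0_le⟩

theorem Fact.comp (h : Fact D n b c u v K E B dd s lam x) :
    CompC B lam (mk4 D n b x) (mk4 D n c x) := by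
  refine compC_of ?_ ?_ h.pos.2.2.1.le h.ang
  · intro i hi
    fin_cases i
    · exact absurd rfl hi
    · show (mk4 D n b x).w 1 ≤ B * (mk4 D n c x).w 1 ∧ (mk4 D n c x).w 1 ≤ B * (mk4 D n b x).w 1
      rw [h.pair.w1, h.pair.w1']
      exact h.pair.cw 1
    · show (mk4 D n b x).w 2 ≤ B * (mk4 D n c x).w 2 ∧ (mk4 D n c x).w 2 ≤ B * (mk4 D n b x).w 2
      rw [h.pair.w2, h.pair.w2']
      exact h.pair.cw 2
  · rw [h.pair.a, h.pair.a']
    exact h.pair.cw 0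

/-- **the thickness is at most a deficit times `s w₂`** -/
theorem Fact.thin (h : Fact D n b c u v K E B dd s lam x) :
    max (D.w 0 n b) (D.w 0 n c) ≤ 2 * B ^ 2 * (s * D.w 2 n b) := by
  obtain ⟨p0, p2, p1, p02⟩ := h.pos
  have hE := h.E1
  have hB2 : 1 ≤ B ^ 2 := one_le_pow₀ h.B1
  have hs0 := h.s0
  have hm : 0 < max (D.w 0 n b) (D.w 0 n c) := h.w0b.trans_le (le_max_left _ _)
  have hsum : max (D.w 0 n b) (D.w 0 n c) ≤ D.w 0 n b + D.w 0 n c :=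
    max_le (by linarith [h.w0c]) (by linarith [h.w0b])
  rw [← h.pair.w2]
  have hsw : 0 < s * (mk4 D n b x).w 2 := mul_pos hs0 p2
  rcases h.alt with h1 | h1
  · -- `1 < 2 E s`
    have h2 := h.w0_ge
    have h3 : 26 ≤ E ^ K := by linarith [h.Epow.1, h.EK, h.K1]
    have h4 : E * (26 * max (D.w 0 n b) (D.w 0 n c)) ≤ 13 * (mk4 D n b x).w 2 := by
      refine le_trans ?_ (h2.trans (by linarith))
      exact mul_le_mul_of_nonneg_left (mul_le_mul_of_nonneg_right h3 hm.le) (by linarith)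
    have h5 : max (D.w 0 n b) (D.w 0 n c) ≤ s * (mk4 D n b x).w 2 := by
      have h6 : s * (E * (26 * max (D.w 0 n b) (D.w 0 n c))) ≤ s * (13 * (mk4 D n b x).w 2) :=
        mul_le_mul_of_nonneg_left h4 hs0.le
      have h7 : 1 * (13 * max (D.w 0 n b) (D.w 0 n c)) ≤
          E * (2 * s) * (13 * max (D.w 0 n b) (D.w 0 n c)) :=
        mul_le_mul_of_nonneg_right h1.le (by positivity)
      linarith
    have h8 : 1 * (s * (mk4 D n b x).w 2) ≤ 2 * B ^ 2 * (s * (mk4 D n b x).w 2) :=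
      mul_le_mul_of_nonneg_right (by linarith) hsw.le
    linarith
  · by_contra hcon
    push Not at hcon
    refine h1 ?_
    have hA := h.w0A
    have hK := h.K1
    have hb := h.w0b
    have hc := h.w0c
    have e1 : 41 * (D.w 0 n b + D.w 0 n c) ≤ K * (D.w 0 n b + D.w 0 n c) :=
      mul_le_mul_of_nonneg_right hK (by linarith)
    have := coin_triv (S := mk4 D n b x) (S' := mk4 D n c x) (T := D.L n x.1)
      (z0 := zx D n (max b c) x) (ρ := rh D n (max b c)) (s := 2 * s) (lam := lam)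
      (A := K * (D.w 0 n b + D.w 0 n c)) h.r h.pair.z1 h.pair.z1' h.pair.z2 h.pair.z2' h.B1 h.l1
      h.pair.shp h.pair.shp' h.comp h.pair.inp h.pair.inp' (by linarith)
      (by
        have h416 : 416 ≤ E := by linarith [h.EK]
        have : 416 * s ≤ E * s := mul_le_mul_of_nonneg_right h416 hs0.le
        linarith [h.s1])
      (by rw [h.pair.a, h.pair.a']; linarith) (by rw [h.pair.a, h.pair.a']; linarith)
      (by rw [h.pair.a, h.pair.a']; exact e1)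
    exact this

/-- **no agreement at the scale `2 s`** -/
theorem Fact.notAgree (h : Fact D n b c u v K E B dd s lam x) {e : ℝ} (he1 : e ≤ 1)
    (he : lam < (2 * s) ^ (-e)) :
    ¬ Agree (K * (D.w 0 n b + D.w 0 n c)) ((2 * s) ^ (-K) * (D.w 0 n b + D.w 0 n c)) (2 * s) lam
      (mk4 D n b x) (mk4 D n c x) (D.L n x.1) (zx D n (max b c) x) (rh D n (max b c)) := by
  rcases h.alt with h1 | h1
  swap
  · exact fun h2 => h1 h2.coin
  have hE := h.E1
  have hE0 : 0 < E := by linarith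
  have hs0 := h.s0
  have h2s : 0 < 2 * s := by linarith
  have hm : 0 < max (D.w 0 n b) (D.w 0 n c) := h.w0b.trans_le (le_max_left _ _)
  have hK := h.K1
  have hinv : E⁻¹ ≤ 2 * s := by
    rw [inv_le_iff_one_le_mul₀ hE0]
    linarith
  have hp : ∀ k : ℝ, 0 ≤ k → (2 * s) ^ (-k) ≤ E ^ k := by
    intro k hk
    have := Real.rpow_le_rpow_of_nonpos (inv_pos.2 hE0) hinv (neg_nonpos.2 hk)
    rwa [Real.inv_rpow hE0.le, Real.rpow_neg hE0.le, inv_inv] at this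
  have hE' : (2 * s) ^ (-K) * (D.w 0 n b + D.w 0 n c) ≤
      E ^ (K + 1) * max (D.w 0 n u) (D.w 0 n v) := by
    rw [h.maxw, ← h.Epow.2]
    have h4 : D.w 0 n b ≤ max (D.w 0 n b) (D.w 0 n c) := le_max_left _ _
    have h5 : D.w 0 n c ≤ max (D.w 0 n b) (D.w 0 n c) := le_max_right _ _
    calc (2 * s) ^ (-K) * (D.w 0 n b + D.w 0 n c) ≤
          E ^ K * (2 * max (D.w 0 n b) (D.w 0 n c)) :=
          mul_le_mul (hp K (by linarith)) (by linarith) (by linarith [h.w0b, h.w0c]) (by positivity)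
      _ = 2 * E ^ K * max (D.w 0 n b) (D.w 0 n c) := by ring
      _ ≤ E * E ^ K * max (D.w 0 n b) (D.w 0 n c) := by
          have hEK : 2 ≤ E := by linarith [h.EK]
          gcongr
  rcases not_tiltOK (s := 2 * s) h.huv h.hbc h.comp hE' h.pair.w1 h.pair.w2
    (by rw [← h.pair.w1]; exact h.pos.2.2.1) (by rw [← h.pair.w2]; exact h.pos.2.1.le)
    (by positivity) h.nok with h2 | h2
  swap
  · exact h2
  exfalso
  have hlE : lam ≤ E := by
    refine he.le.trans ?_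
    have hs1 : 2 * s ≤ 1 := by
      have h416 : 416 ≤ E := by linarith [h.EK]
      have : 416 * s ≤ E * s := mul_le_mul_of_nonneg_right h416 hs0.le
      linarith [h.s1]
    have : (2 * s) ^ (-e) ≤ (2 * s) ^ (-(1:ℝ)) :=
      Real.rpow_le_rpow_of_exponent_ge h2s hs1 (by linarith)
    refine this.trans ?_
    have := hp 1 zero_le_one
    rwa [Real.rpow_one] at this
  have hEE : E ≤ E ^ (K + 1) := by
    rw [← h.Epow.2]
    exact le_mul_of_one_le_right hE0.le (hE.trans h.Epow.1)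
  linarith

/-- case (i) : large base tilt -/
theorem Fact.core_i (h : Fact D n b c u v K E B dd s lam x) {τ : ℝ} {N : ℕ} (hN : 1 ≤ N)
    (hl : 1 < lam) (hτ : 48 * B ≤ lam * τ) :
    Core D n b c s lam τ 0 (K * (D.w 0 n b + D.w 0 n c)) N x where
  coin := h.coin
  g := (h.comp.g 2 (by decide))
  g' := (h.comp.g' 2 (by decide))
  w0 := h.w0A
  cap := hcap_tilt hN h.r (Crest.Agent.R136.Deep51.rho_pos _).le h.pair.z1 h.pair.z1' h.pair.z2
    h.pair.z2' h.B1 h.pair.shp h.pair.shp' (h.comp.w 2 (by decide)).2 (by linarith)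
    (h.tlt.resolve_left hl.ne') hτ h.pair.inp h.pair.inp'

/-- case (ii) : curved base sheet -/
theorem Fact.core_ii (h : Fact D n b c u v K E B dd s lam x) {C1 : ℝ} {N : ℕ} (hC1 : 1 ≤ C1)
    (hcurv : ∀ (θ lam A E s s' : ℝ) (S S' : Plk4) (T : Ln4) (z0 ρ z1 ρ1 z2 ρ2 r : ℝ),
      0 < θ → C1 * θ ≤ 1 → 1 ≤ lam → lam * θ ≤ 1 → 0 < r → 0 < ρ →
      z1 ≤ z0 → z0 + ρ ≤ z1 + ρ1 → θ * ρ1 ≤ ρ → z2 ≤ z0 → z0 + ρ ≤ z2 + ρ2 → θ * ρ2 ≤ ρ →
      Shp S z1 ρ1 r → Shp S' z2 ρ2 r → CompC θ⁻¹ lam S S' → InP T S z1 ρ1 → InP T S' z2 ρ2 →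
      θ ^ (-C1) * (S.a + S'.a) ≤ kapP S z1 ρ1 T → DetP θ S z1 ρ1 T → C1 * (S.a + S'.a) ≤ A →
      s ≤ θ ^ C1 → s' ≤ θ ^ C1 → θ ^ (-C1) * (S.a + S'.a) ≤ E →
      ¬ Agree A E s' lam S S' T z0 ρ →
      ∃ c : Fin 2 → ℝ, ∀ ζ, z0 ≤ ζ → ζ ≤ z0 + ρ → (∀ i, θ * ρ ≤ |ζ - c i|) →
        ∃ V : Fin N → V3, ∀ t : Ln4, InP t S z1 ρ1 → InP t S' z2 ρ2 →
          |dt (S.e 1) (t.pos ζ - T.pos ζ)| ≤ s * S.w 1 →
          |dt (S.e 2) (t.pos ζ - T.pos ζ)| ≤ s * S.w 2 →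
            ∃ l, |dt (S.e 1) (t.v - V l)| * ρ ≤ θ * S.w 1 ∧
              |dt (S.e 2) (t.v - V l)| * ρ ≤ lam * θ * S.w 2)
    {e θ : ℝ} (he0 : 0 < e) (he1 : e * C1 ≤ 1) (heK : C1 ≤ K) (hθ : θ = (2 * s) ^ e)
    (hBθ : B * θ ≤ 1) (hCθ : C1 * θ ≤ 1) (hlt : lam < (2 * s) ^ (-e)) (hdd : θ ≤ dd)
    (hk : (2 * s) ^ (-(e * C1)) * (D.w 0 n b + D.w 0 n c) ≤ kpm D n b x) :
    Core D n b c s lam θ θ (K * (D.w 0 n b + D.w 0 n c)) N x := by
  have hE := h.E1
  have hs0 := h.s0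
  have h2s : 0 < 2 * s := by linarith
  have hs1 : 2 * s ≤ 1 := by
    have h416 : 416 ≤ E := by linarith [h.EK, h.K1]
    have : 416 * s ≤ E * s := mul_le_mul_of_nonneg_right h416 hs0.le
    linarith [h.s1]
  have hθ0 : 0 < θ := by rw [hθ]; exact Real.rpow_pos_of_pos h2s _
  have heC0 : 0 < e * C1 := by positivity
  have hee : e ≤ 1 := by nlinarith
  have hθC : θ ^ C1 = (2 * s) ^ (e * C1) := by rw [hθ, ← Real.rpow_mul h2s.le]
  have hθC' : θ ^ (-C1) = (2 * s) ^ (-(e * C1)) := by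
    rw [hθ, ← Real.rpow_mul h2s.le]; congr 1; ring
  have hsθ : 2 * s ≤ θ ^ C1 := by
    rw [hθC]
    calc 2 * s = (2 * s) ^ (1:ℝ) := (Real.rpow_one _).symm
      _ ≤ _ := Real.rpow_le_rpow_of_exponent_ge h2s hs1 he1
  have hlθ : lam * θ ≤ 1 := by
    have : lam * θ ≤ (2 * s) ^ (-e) * θ := mul_le_mul_of_nonneg_right hlt.le hθ0.le
    rwa [hθ, ← Real.rpow_add h2s, neg_add_cancel, Real.rpow_zero, ← hθ] at this
  have hsum : 0 < D.w 0 n b + D.w 0 n c := by linarith [h.w0b, h.w0c]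
  have hρ := Crest.Agent.R136.Deep51.rho_pos (D.lev n (max b c))
  have hBi : B ≤ θ⁻¹ := by rw [le_inv_comm₀ (by linarith [h.B1]) hθ0, inv_eq_one_div,
      le_div_iff₀ (by linarith [h.B1])]; linarith
  have hw : ∀ k, 0 ≤ (mk4 D n b x).w k := by
    intro k
    obtain ⟨p0, p2, p1, -⟩ := h.pos
    fin_cases k
    exacts [p0.le, p1.le, p2.le]
  have hw0' : 0 < (mk4 D n c x).w 0 := h.r.trans_le (h.pair.shp'.r0_le.trans h.pair.shp'.a_le0)
  have hw' : ∀ k, 0 ≤ (mk4 D n c x).w k := by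
    intro k
    have p2 := hw0'.trans_le h.pair.shp'.w0_le
    have p1 := p2.trans_le h.pair.shp'.w_le
    fin_cases k
    exacts [hw0'.le, p1.le, p2.le]
  have ha : 0 < (mk4 D n b x).a := h.r.trans_le h.pair.shp.r0_le
  have ha' : 0 < (mk4 D n c x).a := h.r.trans_le h.pair.shp'.r0_le
  have hcell : ∀ {R : ℝ}, R ≤ B * rh D n (max b c) → θ * R ≤ rh D n (max b c) := by
    intro R hR
    calc θ * R ≤ θ * (B * rh D n (max b c)) := mul_le_mul_of_nonneg_left hR hθ0.le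
      _ = (B * θ) * rh D n (max b c) := by ring
      _ ≤ 1 * rh D n (max b c) := mul_le_mul_of_nonneg_right hBθ hρ.le
      _ = _ := one_mul _
  have hdet : DetP θ (mk4 D n b x) (zx D n b x) (rh D n b) (D.L n x.1) := by
    refine (h.nd ?_).mono hdd
    have h1 : dd⁻¹ ≤ (2 * s) ^ (-(e * C1)) := by
      have e1 : dd⁻¹ ≤ θ⁻¹ := inv_anti₀ hθ0 hdd
      have e2 : θ⁻¹ = (2 * s) ^ (-e) := by rw [hθ, Real.rpow_neg h2s.le]
      rw [e2] at e1
      refine e1.trans (Real.rpow_le_rpow_of_exponent_ge h2s hs1 ?_)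
      nlinarith
    refine lt_of_lt_of_le ?_ hk
    have hp : 0 < (2 * s) ^ (-(e * C1)) := Real.rpow_pos_of_pos h2s _
    rw [h.pair.a]
    calc dd⁻¹ * D.w 0 n b ≤ (2 * s) ^ (-(e * C1)) * D.w 0 n b :=
          mul_le_mul_of_nonneg_right h1 h.w0b.le
      _ < (2 * s) ^ (-(e * C1)) * (D.w 0 n b + D.w 0 n c) :=
          mul_lt_mul_of_pos_left (by linarith [h.w0c]) hp
  refine ⟨h.coin, h.comp.g 2 (by decide), h.comp.g' 2 (by decide), h.w0A, ?_⟩
  refine hcurv θ lam (K * (D.w 0 n b + D.w 0 n c)) ((2 * s) ^ (-K) * (D.w 0 n b + D.w 0 n c)) s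
    (2 * s) (mk4 D n b x) (mk4 D n c x) (D.L n x.1) (zx D n (max b c) x) (rh D n (max b c))
    (zx D n b x) (rh D n b) (zx D n c x) (rh D n c) (D.r0 n) hθ0 hCθ h.l1 hlθ h.r hρ h.pair.z1
    h.pair.z1' (hcell h.pair.rb) h.pair.z2 h.pair.z2' (hcell h.pair.rc) h.pair.shp h.pair.shp'
    (compC_mono h.comp hBi le_rfl hw hw' ha.le ha'.le) h.pair.inp h.pair.inp' ?_ hdet ?_
    (by linarith) hsθ ?_ (h.notAgree hee hlt)
  · rw [hθC', h.pair.a, h.pair.a']; exact hk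
  · rw [h.pair.a, h.pair.a']; exact mul_le_mul_of_nonneg_right heK hsum.le
  · rw [hθC', h.pair.a, h.pair.a']
    refine mul_le_mul_of_nonneg_right ?_ hsum.le
    exact Real.rpow_le_rpow_of_exponent_ge h2s hs1 (by linarith [h.K1])

end

end Crest.Agent.R136.Asy51
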