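import Mathlib
import Crest.Agent.R136.Asy3_51

/-!
# R136 (U5 TILT), last assembly, part 4: the pair theorem (helper51)

`tilt_pair` : for a fixed ordered pair `(b, c)` of levels, from the deep count, [MID], (3.0) and the
crude tilt (all as hypotheses about this pair): agreement off a negligible set.
-/

set_option autoImplicit false
set_option linter.unusedVariables false

open Finset Filter Topology

namespace Crest.Agent.R136.Asy51

open Crest.Agent.R138.Ex926 (Base U)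
open Crest.Agent.R138.Dp76 (Dense dense_of_sub dpow_pos dpow_add)
open Crest.Agent.R138.Mk163 (zc zl rho Negl)
open Crest.Agent.R138.ArgM163 (log_dpow ev_const)
open Crest.Agent.R136.MkA627 Crest.Agent.R136.Sh605 Crest.Agent.R136.K4 Crest.Agent.R136.Top484
open Crest.Agent.R136.Deep51 (CoinC CloseC CoinC.anti)
open Crest.Agent.R136.Tlt51 (Shp InP CompC Agree mk4 zx rh TiltOKC cx)
open Crest.Agent.R136.Tl102 Crest.Agent.R136.KapP335 Crest.Agent.R136.Cps605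
open Crest.Agent.R136.Eng904 (Core)

/-- linear functions of `log (1/d)` with a larger slope win -/
theorem ev_lin (B : Base) {x y K : ℝ} (h : y < x) :
    ∀ᶠ n in (U : Filter ℕ), K + y * B.L n < x * B.L n := by
  filter_upwards [B.ev_L_ge (K / (x - y) + 1)] with n hn
  have hxy : 0 < x - y := by linarith
  have : K / (x - y) < B.L n := by linarith
  rw [div_lt_iff₀ hxy] at this
  linarith

/-- **end of the cases (i), (ii)** -/
theorem end_contra (B : Base) {q : Fin 3 → ℝ} {g ε e C Cw C1 δ ε1 : ℝ} {N : ℕ}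
    (hq : ∀ k, 0 ≤ q k) (hq1 : 0 < q 1) (hg : 0 ≤ g) (hε : 0 ≤ ε) (he : 0 < e) (he1 : e ≤ 1)
    (h1 : 8 * (g + ε + q 0) + 8 * q 2 ≤ q 1) (h2 : 32 * (g + ε + q 0) ≤ q 1 * e) (hC : 1 ≤ C)
    (hδ : 0 ≤ δ) (hCw : 0 ≤ Cw) (hN : 1 ≤ N)
    (hnum : (1 + 2 / q 1) * (C * (C * δ + ε)) + 2 * (Cw * δ + ε / 4) < e * (C1 * δ + ε1))
    {s lam τ θ : ℕ → ℝ}
    (hseq : ∀ᶠ n in (U : Filter ℕ), 0 < s n ∧ s n ≤ B.d n ^ (C1 * δ + ε1) ∧ 1 ≤ lam n ∧
      0 < τ n ∧ τ n * lam n ≤ 48 * B.d n ^ (-(Cw * δ + ε / 4)) ∧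
      τ n * (2 * s n) ^ (-e) ≤ 48 * B.d n ^ (-(Cw * δ + ε / 4)) ∧
      (θ n ≤ 0 ∨ θ n * (2 * s n) ^ (-e) ≤ 48 * B.d n ^ (-(Cw * δ + ε / 4))))
    (halt : ∀ᶠ n in (U : Filter ℕ),
      1 ≤ C * (B.d n ^ (-(C * δ + ε))) ^ C * θ n ∨
      1 ≤ C * (B.d n ^ (-(C * δ + ε))) ^ C * s n ∨
      1 ≤ C * (B.d n ^ (-(C * δ + ε))) ^ C * τ n ∨
      1 ≤ C * (B.d n ^ (-(C * δ + ε))) ^ C * (N : ℝ) *
        (lam n / s n) ^ (2 * (g + ε + q 0)) * lam n ^ (2 * q 2) * τ n ^ (q 1)) : False := by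
  have hN' : (1:ℝ) ≤ N := by exact_mod_cast hN
  have hK := ev_lin B (K := e * Real.log 2 + (1 + 2 / q 1) * (Real.log C + Real.log N) +
    2 * Real.log 48 + 2) hnum
  obtain ⟨n, hn, a, b⟩ := (hK.and (hseq.and halt)).exists
  obtain ⟨s0, s1, l1, τ0, t1, t2, t3⟩ := a
  have hC0 : 0 < C := by linarith
  have hX := dpow_pos B n (-(C * δ + ε))
  have hX1 : 1 ≤ B.d n ^ (-(C * δ + ε)) := by
    refine Real.one_le_rpow_of_pos_of_le_one_of_nonpos (B.pos n) (B.lt n).le ?_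
    have : 0 ≤ C * δ := by positivity
    linarith
  have hXC : 1 ≤ (B.d n ^ (-(C * δ + ε))) ^ C := Real.one_le_rpow hX1 hC0.le
  have hY : 1 ≤ C * (B.d n ^ (-(C * δ + ε))) ^ C := one_le_mul_of_one_le_of_one_le hC hXC
  have hD := dpow_pos B n (-(Cw * δ + ε / 4))
  have hD1 : 1 ≤ B.d n ^ (-(Cw * δ + ε / 4)) := by
    refine Real.one_le_rpow_of_pos_of_le_one_of_nonpos (B.pos n) (B.lt n).le ?_
    have : 0 ≤ Cw * δ := by positivity
    linarith
  have key := num_end (N := (N:ℝ)) hq hq1 hg hε he he1 h1 h2 s0 l1 τ0 hY hN' (by linarith) t1 t2 t3 b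
  have hXCp : 0 < (B.d n ^ (-(C * δ + ε))) ^ C := by positivity
  have g1 : Real.log (C * (B.d n ^ (-(C * δ + ε))) ^ C * (N:ℝ)) =
      Real.log C + C * -(-(C * δ + ε) * B.L n) + Real.log N := by
    rw [Real.log_mul (mul_pos hC0 hXCp).ne' (by linarith), Real.log_mul hC0.ne' hXCp.ne',
      Real.log_rpow hX, log_dpow]
  have g2 : Real.log (48 * B.d n ^ (-(Cw * δ + ε / 4))) =
      Real.log 48 + -(-(Cw * δ + ε / 4) * B.L n) := by
    rw [Real.log_mul (by norm_num) hD.ne', log_dpow]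
  rw [g1, g2] at key
  have h2s : Real.log (2 * s n) ≤ Real.log 2 - (C1 * δ + ε1) * B.L n := by
    rw [Real.log_mul (by norm_num) s0.ne']
    have := Real.log_le_log s0 s1
    rw [log_dpow] at this
    linarith
  have h3 : e * ((C1 * δ + ε1) * B.L n - Real.log 2) ≤ e * -Real.log (2 * s n) :=
    mul_le_mul_of_nonneg_left (by linarith) he.le
  have e1 : (1 + 2 / q 1) * (Real.log C + C * -(-(C * δ + ε) * B.L n) + Real.log N) =
      (1 + 2 / q 1) * (Real.log C + Real.log N) + (1 + 2 / q 1) * (C * (C * δ + ε)) * B.L n := by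
    ring
  have e2 : 2 * (Real.log 48 + -(-(Cw * δ + ε / 4) * B.L n)) =
      2 * Real.log 48 + 2 * (Cw * δ + ε / 4) * B.L n := by ring
  rw [e1, e2] at key
  have e3 : e * ((C1 * δ + ε1) * B.L n - Real.log 2) =
      e * (C1 * δ + ε1) * B.L n - e * Real.log 2 := by ring
  rw [e3] at h3
  have e4 : ((1 + 2 / q 1) * (C * (C * δ + ε)) + 2 * (Cw * δ + ε / 4)) * B.L n =
      (1 + 2 / q 1) * (C * (C * δ + ε)) * B.L n + 2 * (Cw * δ + ε / 4) * B.L n := by ring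
  rw [e4] at hn
  linarith

/-- the smallest dyadic scale below `d^x` -/
theorem exists_i0 (B : Base) {x : ℝ} (hx : 0 ≤ x) : ∃ i0 : ℕ → ℕ, ∀ n,
    ((1:ℝ) / 2) ^ i0 n ≤ B.d n ^ x ∧ 1 < B.d n ^ (-x) * (2 * (1 / 2) ^ i0 n) ∧
      (1 ≤ B.L n → (i0 n : ℝ) ≤ (2 * x + 1) * B.L n) := by
  refine ⟨fun n => ⌈x * B.L n / Real.log 2⌉₊, fun n => ?_⟩
  have hL := B.L_pos n
  have hl2 : (1:ℝ) / 2 < Real.log 2 := by
    have := Real.log_two_gt_d9
    linarith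
  have hl0 : (0:ℝ) < Real.log 2 := by linarith
  have hlog : Real.log ((1:ℝ) / 2) = -Real.log 2 := by
    rw [Real.log_div one_ne_zero two_ne_zero, Real.log_one]; ring
  set k := ⌈x * B.L n / Real.log 2⌉₊ with hk
  have k1 : x * B.L n ≤ k * Real.log 2 := by
    have := Nat.le_ceil (x * B.L n / Real.log 2)
    rwa [div_le_iff₀ hl0] at this
  have k2 : (k : ℝ) * Real.log 2 < x * B.L n + Real.log 2 := by
    have := Nat.ceil_lt_add_one (show 0 ≤ x * B.L n / Real.log 2 by positivity)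
    have h3 := mul_lt_mul_of_pos_right this hl0
    rw [add_mul, div_mul_cancel₀ _ hl0.ne', one_mul] at h3
    exact h3
  refine ⟨?_, ?_, ?_⟩
  · rw [← Real.log_le_log_iff (by positivity) (dpow_pos _ _ _), Real.log_pow, log_dpow, hlog]
    linarith
  · have hp : 0 < B.d n ^ (-x) * (2 * (1 / 2) ^ k) := mul_pos (dpow_pos _ _ _) (by positivity)
    rw [← Real.log_pos_iff hp.le, Real.log_mul (dpow_pos _ _ _).ne' (by positivity),
      Real.log_mul (by norm_num) (by positivity), Real.log_pow, log_dpow, hlog]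
    linarith
  · intro h1
    have : (k : ℝ) < x * B.L n / Real.log 2 + 1 :=
      Nat.ceil_lt_add_one (by positivity)
    have h3 : x * B.L n / Real.log 2 ≤ 2 * x * B.L n := by
      rw [div_le_iff₀ hl0]
      have : x * B.L n * (1 / 2) ≤ x * B.L n * Real.log 2 :=
        mul_le_mul_of_nonneg_left hl2.le (by positivity)
      linarith
    linarith

/-- a dense family is either in a set or outside of it, after passing to a dense part -/
theorem dense_dich {B : Base} {J : ℕ → Finset (ℕ × ℝ)} (P : ℕ → ℕ × ℝ → Prop) :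
    ∃ J' : ℕ → Finset (ℕ × ℝ), Dense B J' J ∧
      ((∀ᶠ n in (U : Filter ℕ), ∀ x ∈ J' n, P n x) ∨ ∀ᶠ n in (U : Filter ℕ), ∀ x ∈ J' n, ¬ P n x) := by
  classical
  obtain ⟨k, hk⟩ := dense_pigeon (B := B) (J := J) (F := fun n x => if P n x then 1 else 0) (M := 1)
    le_rfl (by
      filter_upwards [B.ev_L_ge 1] with n hn x hx
      split_ifs
      · push_cast; linarith
      · push_cast; linarith)
  refine ⟨_, hk, ?_⟩
  have hd : (∀ᶠ n in (U : Filter ℕ), k n = 1) ∨ ∀ᶠ n in (U : Filter ℕ), k n ≠ 1 := by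
    rw [← Ultrafilter.eventually_or]
    exact Eventually.of_forall fun n => em _
  rcases hd with h | h
  · left
    filter_upwards [h] with n hn x hx
    have := (mem_filter.1 hx).2
    rw [hn] at this
    by_contra hcon
    rw [if_neg hcon] at this
    exact absurd this (by norm_num)
  · right
    filter_upwards [h] with n hn x hx hcon
    have := (mem_filter.1 hx).2
    rw [if_pos hcon] at this
    exact hn this.symm

/-- [MID] for a pair of levels -/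
def MidAt (D : Dat4) (K cxp C δ ε : ℝ) (b c : ℚ) (n : ℕ) (x : ℕ × ℝ) : Prop :=
  ∃ s lam : ℝ, 0 < s ∧ s ≤ D.B.d n ^ (C * δ + ε) ∧ 1 ≤ lam ∧ lam ≤ s ^ (-cxp) ∧
    CompC (s ^ (-cxp)) lam (mk4 D n b x) (mk4 D n c x) ∧
    ¬ Agree (K * ((mk4 D n b x).a + (mk4 D n c x).a))
        (s ^ (-K) * ((mk4 D n b x).a + (mk4 D n c x).a)) s lam (mk4 D n b x) (mk4 D n c x)
        (D.L n x.1) (zx D n (max b c) x) (rh D n (max b c)) ∧
    K * ((mk4 D n b x).a + (mk4 D n c x).a) ≤ kpm D n b x ∧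
    kpm D n b x ≤ s ^ (-cxp) * ((mk4 D n b x).a + (mk4 D n c x).a) ∧
    kpm D n c x ≤ s ^ (-cxp) * ((mk4 D n b x).a + (mk4 D n c x).a)

/-- crude tilt for a pair of levels -/
def CrudeAt (D : Dat4) (C : ℝ) (b c : ℚ) (n : ℕ) (x : ℕ × ℝ) : Prop :=
  10 ^ 6 * ((mk4 D n b x).a + (mk4 D n c x).a) ≤ (mk4 D n b x).w 0 ∧
    ¬ (Agree (10 ^ 6 * ((mk4 D n b x).a + (mk4 D n c x).a))
        (D.B.d n ^ (-C) * ((mk4 D n b x).a + (mk4 D n c x).a)) (D.B.d n ^ C) (D.B.d n ^ (-C))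
        (mk4 D n b x) (mk4 D n c x) (D.L n x.1) (zx D n (max b c) x) (rh D n (max b c)) ∧
      angC (mk4 D n b x) (mk4 D n c x) * (mk4 D n b x).w 1 ≤ D.B.d n ^ (-C) * (mk4 D n b x).w 2)

/-- (3.0) at one level -/
def DegAt (D : Dat4) (ε : ℝ) (b : ℚ) (n : ℕ) (x : ℕ × ℝ) : Prop :=
  D.B.d n ^ (-ε) * (mk4 D n b x).a < kpm D n b x ∧
    ¬ DetP (D.B.d n ^ ε) (mk4 D n b x) (zx D n b x) (rh D n b) (D.L n x.1)

/-- conclusion of the deep count for a pair of levels (`Eng904.core_seq`) -/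
def CoreAt (p : Par4) (D : Dat4) (Cin C : ℝ) (b c : ℚ) (δ : ℝ) : Prop :=
  ∀ ε : ℝ, 0 < ε → ∀ J : ℕ → Finset (ℕ × ℝ), Dense D.B J D.I →
    ∀ (s lam τ θ A : ℕ → ℝ) (N : ℕ → ℕ),
    (∀ᶠ n in (U : Filter ℕ), 0 < s n ∧ 1 ≤ lam n ∧ 0 < τ n ∧ 0 ≤ θ n ∧
      s n ≤ lam n * τ n ∧ lam n * D.w 2 n b ≤ 2 * D.w 1 n b) →
    (∀ᶠ n in (U : Filter ℕ), 1 ≤ N n) →
    (∀ᶠ n in (U : Filter ℕ), max (D.w 0 n b) (D.w 0 n c) ≤ A n ∧
      A n ≤ D.B.d n ^ (-(Cin * δ + ε)) * max (D.w 0 n b) (D.w 0 n c) ∧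
      max (D.w 0 n b) (D.w 0 n c) ≤ D.B.d n ^ (-(Cin * δ + ε)) * (s n * D.w 2 n b)) →
    (∃ C' : ℝ, ∀ᶠ n in (U : Filter ℕ), D.B.d n ^ C' ≤ s n / lam n) →
    (∀ᶠ n in (U : Filter ℕ), ∀ x ∈ J n, Core D n b c (s n) (lam n) (τ n) (θ n) (A n) (N n) x) →
    ∀ᶠ n in (U : Filter ℕ),
      1 ≤ C * (D.B.d n ^ (-(C * δ + ε))) ^ C * θ n ∨
      1 ≤ C * (D.B.d n ^ (-(C * δ + ε))) ^ C * s n ∨
      1 ≤ C * (D.B.d n ^ (-(C * δ + ε))) ^ C * τ n ∨
      1 ≤ C * (D.B.d n ^ (-(C * δ + ε))) ^ C * N n *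
        (lam n / s n) ^ (2 * (p.g + ε + p.q 0)) * lam n ^ (2 * p.q 2) * τ n ^ (p.q 1)

end Crest.Agent.R136.Asy51
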