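import Mathlib
import Crest.Agent.R136.Eng3_904

/-!
# R136 (U5 TILT): the widths and cells of the marks of two levels (helper904)
-/

set_option autoImplicit false
set_option linter.unusedVariables false

open Finset Filter Topology

namespace Crest.Agent.R136.Eng904

open Crest.Agent.R138.Ex926 Crest.Agent.R138.Dp76
open Crest.Agent.R138.Mk163 (zc zl rho alive own)
open Crest.Agent.R136.MkA627 (Geo MkA ampA fib_bounds)
open Crest.Agent.R136.Tlt51 Crest.Agent.R136.Top484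

variable {η : ℝ} {p : Par4} {D : Dat4}

theorem poly_wM (hm : MkA D.B D.I (D.G p) D.lev D.A (fun v => p.g * v) (fun v => 0 * v)
    (fun j v => p.θ j * (1 - v)) D.f D.b D.vm D.w) : ∃ Cw : ℝ, 1 ≤ Cw ∧ ∀ b c : ℚ, 0 ≤ b → b ≤ 1 →
    0 ≤ c → c ≤ 1 → ∀ ε : ℝ, 0 < ε → ∀ᶠ n in (U : Filter ℕ),
      rh D n b ≤ D.B.d n ^ (-(Cw * |(b:ℝ) - c| + ε)) * rh D n (max b c) ∧
      rh D n c ≤ D.B.d n ^ (-(Cw * |(b:ℝ) - c| + ε)) * rh D n (max b c) ∧
      rh D n (max b c) ≤ rh D n b ∧ rh D n (max b c) ≤ rh D n c ∧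
      ∀ k : Fin 3, 0 < D.w k n b ∧ 0 < D.w k n c ∧
        D.w k n b ≤ D.B.d n ^ (-(Cw * |(b:ℝ) - c| + ε)) * D.w k n c ∧
        D.w k n c ≤ D.B.d n ^ (-(Cw * |(b:ℝ) - c| + ε)) * D.w k n b := by
  obtain ⟨K, hK1, hK⟩ : ∃ K : ℝ, 1 ≤ K ∧ ∀ k : Fin 3, |1 - p.θ k| ≤ K := by
    have h0 := abs_nonneg (1 - p.θ 0)
    have h1 := abs_nonneg (1 - p.θ 1)
    have h2 := abs_nonneg (1 - p.θ 2)
    refine ⟨|1 - p.θ 0| + |1 - p.θ 1| + |1 - p.θ 2| + 1, by linarith, fun k => ?_⟩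
    fin_cases k
    · show |1 - p.θ 0| ≤ _
      linarith
    · show |1 - p.θ 1| ≤ _
      linarith
    · show |1 - p.θ 2| ≤ _
      linarith
  refine ⟨K, hK1, fun b c hb0 hb1 hc0 hc1 ε hε => ?_⟩
  have hδ0 : 0 ≤ |(b:ℝ) - c| := abs_nonneg _
  have hKδ : |(b:ℝ) - c| ≤ K * |(b:ℝ) - c| := by
    have := mul_le_mul_of_nonneg_right hK1 hδ0
    linarith
  have hv1 : max b c ≤ 1 := max_le hb1 hc1
  have hvb : ((max b c : ℚ):ℝ) - b ≤ |(b:ℝ) - c| := by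
    push_cast
    rcases le_total (b:ℝ) c with h | h
    · rw [max_eq_right h, abs_of_nonpos (by linarith)]; linarith
    · rw [max_eq_left h]; simp
  have hvc : ((max b c : ℚ):ℝ) - c ≤ |(b:ℝ) - c| := by
    push_cast
    rcases le_total (b:ℝ) c with h | h
    · rw [max_eq_right h]; simp
    · rw [max_eq_left h, abs_of_nonneg (by linarith)]
  have hw : ∀ᶠ n in (U : Filter ℕ), ∀ k : Fin 3, 0 < D.w k n b ∧ 0 < D.w k n c ∧
        D.w k n b ≤ D.B.d n ^ (-(K * |(b:ℝ) - c| + ε)) * D.w k n c ∧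
        D.w k n c ≤ D.B.d n ^ (-(K * |(b:ℝ) - c| + ε)) * D.w k n b := by
    rw [eventually_all]
    intro k
    have h1 := w_ratio hm k hb0 hb1 hc0 hc1 (hK k) hε
    have h2 := w_ratio hm k hc0 hc1 hb0 hb1 (hK k) hε
    rw [abs_sub_comm (c:ℝ) b] at h2
    filter_upwards [h1, h2, hm.wpos k b hb0 hb1, hm.wpos k c hc0 hc1] with n a1 a2 a3 a4
    exact ⟨a3, a4, a1, a2⟩
  have hrh : ∀ e : ℚ, 0 ≤ e → e ≤ max b c → ((max b c : ℚ):ℝ) - e ≤ |(b:ℝ) - c| →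
      ∀ᶠ n in (U : Filter ℕ), rh D n e ≤ D.B.d n ^ (-(K * |(b:ℝ) - c| + ε)) * rh D n (max b c) ∧
        rh D n (max b c) ≤ rh D n e := by
    intro e he0 hev hve
    filter_upwards [lev2 hm he0 hev hv1 hε, hm.lev_mono e _ he0 hev hv1] with n h1 h2
    constructor
    · have h3 : (2:ℝ) ^ D.lev n (max b c) ≤
          D.B.d n ^ (-(K * |(b:ℝ) - c| + ε)) * 2 ^ D.lev n e := by
        refine h1.trans (mul_le_mul_of_nonneg_right ?_ (by positivity))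
        exact Real.rpow_le_rpow_of_exponent_ge (D.B.pos n) (D.B.lt n).le (by linarith)
      unfold rh Crest.Agent.R138.Mk163.rho
      rw [mul_one_div, div_le_div_iff₀ (by positivity) (by positivity), one_mul]
      exact h3
    · unfold rh Crest.Agent.R138.Mk163.rho
      exact one_div_le_one_div_of_le (by positivity) (pow_le_pow_right₀ (by norm_num) h2)
  filter_upwards [hw, hrh b hb0 (le_max_left _ _) hvb, hrh c hc0 (le_max_right _ _) hvc] with n h1 h2 h3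
  exact ⟨h2.1, h3.1, h2.2, h3.2, h1⟩

/-- **`poly_w`** : cells and widths of the marks of two levels are comparable. -/
theorem poly_w (hJ1 : J1 η p D) : ∃ Cw : ℝ, 1 ≤ Cw ∧ ∀ b c : ℚ, 0 ≤ b → b ≤ 1 →
    0 ≤ c → c ≤ 1 → ∀ ε : ℝ, 0 < ε → ∀ᶠ n in (U : Filter ℕ),
      rh D n b ≤ D.B.d n ^ (-(Cw * |(b:ℝ) - c| + ε)) * rh D n (max b c) ∧
      rh D n c ≤ D.B.d n ^ (-(Cw * |(b:ℝ) - c| + ε)) * rh D n (max b c) ∧
      rh D n (max b c) ≤ rh D n b ∧ rh D n (max b c) ≤ rh D n c ∧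
      ∀ k : Fin 3, 0 < D.w k n b ∧ 0 < D.w k n c ∧
        D.w k n b ≤ D.B.d n ^ (-(Cw * |(b:ℝ) - c| + ε)) * D.w k n c ∧
        D.w k n c ≤ D.B.d n ^ (-(Cw * |(b:ℝ) - c| + ε)) * D.w k n b := poly_wM hJ1.mka

end Crest.Agent.R136.Eng904
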