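import Mathlib
import Crest.Agent.R136.Asy4_51

/-!
# R136 (U5 TILT), last assembly, part 5: the pair theorem (helper51)
-/

set_option autoImplicit false
set_option linter.unusedVariables false

open Finset Filter Topology

namespace Crest.Agent.R136.Asy51

open Crest.Agent.R138.Ex926 (Base U)
open Crest.Agent.R138.Dp76 (Dense dense_of_sub dpow_pos dpow_add)
open Crest.Agent.R138.Mk163 (zc zl rho Negl)
open Crest.Agent.R138.ArgM163 (log_dpow ev_const)
open Crest.Agent.R136.MkA627 Crest.Agent.R136.Sh605 Crest.Agent.R136.K4 Crest.Agent.R136.Top484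
open Crest.Agent.R136.Deep51 (CoinC CloseC CoinC.anti)
open Crest.Agent.R136.Tlt51 (Shp InP CompC Agree mk4 zx rh TiltOKC cx)
open Crest.Agent.R136.Tl102 Crest.Agent.R136.KapP335 Crest.Agent.R136.Cps605
open Crest.Agent.R136.Eng904 (Core)

/-- a constant times a smaller power -/
theorem ev_pow (B : Base) {x y K : ℝ} (hK : 0 < K) (h : y < x) :
    ∀ᶠ n in (U : Filter ℕ), K * B.d n ^ (-y) ≤ B.d n ^ (-x) := by
  filter_upwards [ev_lin B (K := Real.log K) h] with n hn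
  rw [← Real.log_le_log_iff (mul_pos hK (dpow_pos _ _ _)) (dpow_pos _ _ _),
    Real.log_mul hK.ne' (dpow_pos _ _ _).ne', log_dpow, log_dpow]
  linarith

theorem pow_2s (B : Base) {n : ℕ} {s y e : ℝ} (hs : 0 < s) (hsy : s ≤ B.d n ^ y) (he : 0 ≤ e)
    (he1 : e ≤ 1) : 1 / 2 * B.d n ^ (-(e * y)) ≤ (2 * s) ^ (-e) := by
  have hd := dpow_pos B n y
  have h1 : (2 * B.d n ^ y) ^ (-e) ≤ (2 * s) ^ (-e) :=
    Real.rpow_le_rpow_of_nonpos (by linarith) (by linarith) (by linarith)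
  refine le_trans ?_ h1
  rw [Real.mul_rpow (by norm_num) hd.le, ← Real.rpow_mul (B.pos n).le]
  have e1 : y * -e = -(e * y) := by ring
  rw [e1]
  refine mul_le_mul_of_nonneg_right ?_ (dpow_pos _ _ _).le
  calc (1:ℝ) / 2 = 2 ^ (-(1:ℝ)) := by rw [Real.rpow_neg (by norm_num), Real.rpow_one]; norm_num
    _ ≤ 2 ^ (-e) := Real.rpow_le_rpow_of_exponent_le (by norm_num) (by linarith)

set_option maxHeartbeats 1000000 in
/-- **the pair theorem** -/
theorem tilt_pair {p : Par4} {D : Dat4} {K Cc : ℝ} {N : ℕ} {b c u v : ℚ}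
    {δ Cw C Cm Ccr C1 ε1 : ℝ} (huv : u < v) (hbc : (b = v ∧ c = u) ∨ (b = u ∧ c = v))
    (hδ : 0 ≤ δ) (hN : 1 ≤ N) (hCc : 1 ≤ Cc)
    (hcurv : ∀ (θ lam A E s s' : ℝ) (S S' : Plk4) (T : Ln4) (z0 ρ z1 ρ1 z2 ρ2 r : ℝ),
      0 < θ → Cc * θ ≤ 1 → 1 ≤ lam → lam * θ ≤ 1 → 0 < r → 0 < ρ →
      z1 ≤ z0 → z0 + ρ ≤ z1 + ρ1 → θ * ρ1 ≤ ρ → z2 ≤ z0 → z0 + ρ ≤ z2 + ρ2 → θ * ρ2 ≤ ρ →
      Shp S z1 ρ1 r → Shp S' z2 ρ2 r → CompC θ⁻¹ lam S S' → InP T S z1 ρ1 → InP T S' z2 ρ2 →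
      θ ^ (-Cc) * (S.a + S'.a) ≤ kapP S z1 ρ1 T → DetP θ S z1 ρ1 T → Cc * (S.a + S'.a) ≤ A →
      s ≤ θ ^ Cc → s' ≤ θ ^ Cc → θ ^ (-Cc) * (S.a + S'.a) ≤ E →
      ¬ Agree A E s' lam S S' T z0 ρ →
      ∃ c : Fin 2 → ℝ, ∀ ζ, z0 ≤ ζ → ζ ≤ z0 + ρ → (∀ i, θ * ρ ≤ |ζ - c i|) →
        ∃ V : Fin N → V3, ∀ t : Ln4, InP t S z1 ρ1 → InP t S' z2 ρ2 →
          |dt (S.e 1) (t.pos ζ - T.pos ζ)| ≤ s * S.w 1 →
          |dt (S.e 2) (t.pos ζ - T.pos ζ)| ≤ s * S.w 2 →
            ∃ l, |dt (S.e 1) (t.v - V l)| * ρ ≤ θ * S.w 1 ∧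
              |dt (S.e 2) (t.v - V l)| * ρ ≤ lam * θ * S.w 2)
    (hKC : Cc ≤ K) (hK6 : 10 ^ 6 ≤ K) (hq0 : 0 ≤ p.q 0) (hq1 : 0 < p.q 1) (hq2 : 0 < p.q 2)
    (hg : 0 < p.g) (n0 : 0 < cx K p) (n1 : cx K p ≤ 1)
    (n2 : 16 * (p.g + p.q 0) + 16 * p.q 2 ≤ p.q 1)
    (n3 : 64 * (p.g + p.q 0) ≤ p.q 1 * (cx K p / Cc))
    (hr0 : ∀ n, 0 < D.r0 n) (hne : ∀ᶠ n in (U : Filter ℕ), (D.I n).Nonempty)
    (hw0 : ∀ᶠ n in (U : Filter ℕ), 0 < D.w 0 n b ∧ 0 < D.w 0 n c)
    (hCw : 0 ≤ Cw) (hpair : ∀ ε : ℝ, 0 < ε → ∀ᶠ n in (U : Filter ℕ), ∀ x ∈ D.I n,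
      Pair D n b c (D.B.d n ^ (-(Cw * δ + ε))) x)
    (hC : 1 ≤ C) (hcore : CoreAt p D (2 * Cw) C b c δ)
    (hmid : ∀ ε : ℝ, 0 < ε → Negl D.B D.I (MidAt D K (cx K p) Cm δ ε b c))
    (hCcr : 0 ≤ Ccr) (hcr : Negl D.B D.I (CrudeAt D Ccr b c))
    (hnd : ∀ ε : ℝ, 0 < ε → Negl D.B D.I (DegAt D ε b))
    (hC1 : (1 + 2 / p.q 1) * C ^ 2 + 2 * Cw ≤ cx K p / Cc * C1) (hC1m : Cm ≤ C1)
    (hC10 : 0 ≤ C1) (hε1 : 0 < ε1) :
    Negl D.B D.I fun n x =>
      (D.B.d n ^ (-(C1 * δ + ε1))) ^ (K + 1) * max (D.w 0 n u) (D.w 0 n v) ≤ kpm D n b x ∧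
      kpm D n c x ≤ kpm D n b x ∧
      ¬ TiltOKC D ((D.B.d n ^ (-(C1 * δ + ε1))) ^ (K + 1)) u v n x := by
  have hCc0 : 0 < Cc := by linarith
  set e := cx K p / Cc with he
  have he0 : 0 < e := div_pos n0 hCc0
  have heC : e * Cc = cx K p := by rw [he]; field_simp
  have he1 : e ≤ 1 := by
    have : e ≤ e * Cc := le_mul_of_one_le_right he0.le hCc
    linarith
  have hq2' : 0 < 2 / p.q 1 := by positivity
  have hC0 : 0 < C := by linarith
  have hy : 0 < C1 * δ + ε1 := by positivity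
  set y := C1 * δ + ε1 with hyd
  have hey : 0 < e * y := mul_pos he0 hy
  -- the small parameter
  obtain ⟨ε, hε, e1, e2, e3, e4⟩ : ∃ ε : ℝ, 0 < ε ∧ ε ≤ p.q 1 / 16 ∧ ε ≤ p.q 1 * e / 64 ∧
      ε < ε1 ∧ ((1 + 2 / p.q 1) * C + 1) * ε < e * ε1 := by
    have hG : 0 < (1 + 2 / p.q 1) * C + 1 := by positivity
    refine ⟨min (min (p.q 1 / 16) (p.q 1 * e / 64))
      (min (ε1 / 2) (e * ε1 / (2 * ((1 + 2 / p.q 1) * C + 1)))), ?_, ?_, ?_, ?_, ?_⟩
    · have : 0 < e * ε1 := mul_pos he0 hε1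
      refine lt_min (lt_min (by positivity) (by positivity)) (lt_min (by positivity) ?_)
      positivity
    · exact (min_le_left _ _).trans (min_le_left _ _)
    · exact (min_le_left _ _).trans (min_le_right _ _)
    · have := (min_le_right (min (p.q 1 / 16) (p.q 1 * e / 64))
        (min (ε1 / 2) (e * ε1 / (2 * ((1 + 2 / p.q 1) * C + 1))))).trans (min_le_left _ _)
      linarith
    · have h1 := (min_le_right (min (p.q 1 / 16) (p.q 1 * e / 64))
        (min (ε1 / 2) (e * ε1 / (2 * ((1 + 2 / p.q 1) * C + 1))))).trans (min_le_right _ _)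
      have h2 := mul_le_mul_of_nonneg_left h1 hG.le
      have h3 : ((1 + 2 / p.q 1) * C + 1) * (e * ε1 / (2 * ((1 + 2 / p.q 1) * C + 1))) =
          e * ε1 / 2 := by
        field_simp
      have h4 : 0 < e * ε1 := mul_pos he0 hε1
      rw [h3] at h2
      linarith
  have hG1 : ε ≤ ((1 + 2 / p.q 1) * C + 1) * ε := by
    refine le_mul_of_one_le_left hε.le ?_
    have : 0 < (1 + 2 / p.q 1) * C := by positivity
    linarith
  have hnum : (1 + 2 / p.q 1) * (C * (C * δ + ε)) + 2 * (Cw * δ + ε / 4) < e * (C1 * δ + ε1) := by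
    have g1 := mul_le_mul_of_nonneg_right hC1 hδ
    have g2 : (1 + 2 / p.q 1) * (C * (C * δ + ε)) + 2 * (Cw * δ + ε / 4) =
        ((1 + 2 / p.q 1) * C ^ 2 + 2 * Cw) * δ + ((1 + 2 / p.q 1) * C + 1) * ε - ε / 2 := by ring
    have g3 : e * (C1 * δ + ε1) = e * C1 * δ + e * ε1 := by ring
    rw [g2, g3]
    linarith
  have hCwδ : 0 ≤ Cw * δ := by positivity
  have hCwe : Cw * δ + ε / 4 < e * y := by
    have g1 : 0 ≤ (1 + 2 / p.q 1) * (C * (C * δ + ε)) := by positivity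
    have : e * y = e * (C1 * δ + ε1) := rfl
    linarith
  have hCmy : Cm * δ + ε < y := by
    have := mul_le_mul_of_nonneg_right hC1m hδ
    rw [hyd]; linarith
  set Bn : ℕ → ℝ := fun n => D.B.d n ^ (-(Cw * δ + ε / 4)) with hBn
  set E : ℕ → ℝ := fun n => D.B.d n ^ (-y) with hE
  set dd : ℕ → ℝ := fun n => D.B.d n ^ (e * ε1 / 2) with hdd
  set A : ℕ → ℝ := fun n => K * (D.w 0 n b + D.w 0 n c) with hA
  have hK41 : 41 ≤ K := by linarith
  by_contra hcon
  obtain ⟨J0, hJ0, h0⟩ := dense_of_not_negl hcon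
  obtain ⟨J1, hJ1, h1⟩ := Dense.remove hJ0 (hmid ε hε)
  obtain ⟨J2, hJ2, h2⟩ := Dense.remove hJ1 (hnd (e * ε1 / 2) (by positivity))
  obtain ⟨J3, hJ3, h3⟩ := Dense.remove hJ2 hcr
  have hBn1 : ∀ n, 1 ≤ Bn n := by
    intro n
    refine Real.one_le_rpow_of_pos_of_le_one_of_nonpos (D.B.pos n) (D.B.lt n).le ?_
    linarith
  -- numbers
  have V1 : ∀ᶠ n in (U : Filter ℕ), 416 * K ≤ E n := ev_const D.B (by linarith) hy
  have V2 : ∀ᶠ n in (U : Filter ℕ), 96 * Bn n ≤ D.B.d n ^ (-(e * y)) :=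
    ev_pow D.B (by norm_num) hCwe
  have V2' : ∀ᶠ n in (U : Filter ℕ), 2 * Cc ≤ D.B.d n ^ (-(e * y)) :=
    ev_const D.B (by linarith) hey
  have V3 : ∀ᶠ n in (U : Filter ℕ), 2 * D.B.d n ^ (-(e * ε1 / 2)) ≤ D.B.d n ^ (-(e * y)) := by
    refine ev_pow D.B (by norm_num) ?_
    have g1 : 0 ≤ e * (C1 * δ) := by positivity
    have g2 : 0 < e * ε1 := mul_pos he0 hε1
    have g3 : e * y = e * (C1 * δ) + e * ε1 := by rw [hyd]; ring
    linarith
  have V4 : ∀ᶠ n in (U : Filter ℕ), 2 * D.B.d n ^ (-(Cm * δ + ε)) ≤ D.B.d n ^ (-y) :=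
    ev_pow D.B (by norm_num) hCmy
  have V5 : ∀ᶠ n in (U : Filter ℕ), 2 * D.B.d n ^ (-(2 * Cw * δ + ε / 2)) ≤
      D.B.d n ^ (-(2 * Cw * δ + ε)) := ev_pow D.B (by norm_num) (by linarith)
  have V6 : ∀ᶠ n in (U : Filter ℕ), 2 * K ≤ D.B.d n ^ (-(2 * Cw * δ + ε)) :=
    ev_const D.B (by linarith) (by linarith)
  -- before the selection
  have hpre : ∀ᶠ n in (U : Filter ℕ), ∀ x ∈ J3 n,
      Pre D n b c u v K (E n) (Bn n) (dd n) x ∧ ¬ MidAt D K (cx K p) Cm δ ε b c n x ∧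
        ¬ CrudeAt D Ccr b c n x := by
    filter_upwards [V1, hw0, hpair (ε / 4) (by linarith), hJ3.1] with n v1 v2 v3 v4 x hx
    obtain ⟨x2, nc⟩ := h3 n x hx
    obtain ⟨x1, nd⟩ := h2 n x x2
    obtain ⟨x0, nm⟩ := h1 n x x1
    obtain ⟨b1, b2, b3⟩ := h0 n x x0
    refine ⟨⟨huv, hbc, hr0 n, v2.1, v2.2, v3 x (v4 hx), hBn1 n, hK41, v1, b1, b2, b3,
      dpow_pos _ _ _, ?_⟩, nm, nc⟩
    intro hk
    by_contra hcon'
    refine nd ⟨?_, hcon'⟩
    have g1 : (dd n)⁻¹ = D.B.d n ^ (-(e * ε1 / 2)) := by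
      rw [hdd]; simp only; rw [Real.rpow_neg (D.B.pos n).le]
    rwa [g1] at hk
  obtain ⟨i0, hi0⟩ := exists_i0 D.B hy.le
  set M0 : ℝ := Ccr + (2 * y + 1) with hM0
  have hM00 : 0 ≤ M0 := by rw [hM0]; linarith
  have hne3 : ∀ᶠ n in (U : Filter ℕ), (J3 n).Nonempty := hJ3.nonempty hne
  obtain ⟨i, j, M, J4, hM, hJ4, hij, hsel⟩ := sel (D := D) (b := b) (c := c) (J := J3) (A := A)
    (i0 := i0) hM00 hne3
    (by
      filter_upwards [hpre] with n hn x hx
      obtain ⟨g, -, -⟩ := hn x hx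
      exact ⟨g.pair.shp.ortho, g.pair.shp'.ortho, g.pos.2.1, g.pair.shp.w_le⟩)
    (by
      filter_upwards [hpre] with n hn x hx
      obtain ⟨g, -, nc⟩ := hn x hx
      unfold CrudeAt at nc
      push Not at nc
      have hA16 := g.w0A
      have hw := g.w0b
      have hw' := g.w0c
      have hbig : 10 ^ 6 * ((mk4 D n b x).a + (mk4 D n c x).a) ≤ (mk4 D n b x).w 0 := by
        rw [g.pair.a, g.pair.a']
        have : 10 ^ 6 * (D.w 0 n b + D.w 0 n c) ≤ K * (D.w 0 n b + D.w 0 n c) :=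
          mul_le_mul_of_nonneg_right hK6 (by linarith)
        have h0 : 0 ≤ K * (D.w 0 n b + D.w 0 n c) := by
          have : 0 ≤ K := by linarith
          exact mul_nonneg this (by linarith)
        linarith
      obtain ⟨-, k2⟩ := nc hbig
      refine k2.trans (mul_le_mul_of_nonneg_right ?_ g.pos.2.1.le)
      exact Real.rpow_le_rpow_of_exponent_ge (D.B.pos n) (D.B.lt n).le (by rw [hM0]; linarith))
    (by
      filter_upwards [hpre] with n hn x hx
      obtain ⟨g, -, nc⟩ := hn x hx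
      unfold CrudeAt at nc
      push Not at nc
      have hA16 := g.w0A
      have hw := g.w0b
      have hw' := g.w0c
      have h6 : 10 ^ 6 * (D.w 0 n b + D.w 0 n c) ≤ K * (D.w 0 n b + D.w 0 n c) :=
          mul_le_mul_of_nonneg_right hK6 (by linarith)
      have hbig : 10 ^ 6 * ((mk4 D n b x).a + (mk4 D n c x).a) ≤ (mk4 D n b x).w 0 := by
        rw [g.pair.a, g.pair.a']
        have h0 : 0 ≤ K * (D.w 0 n b + D.w 0 n c) := by
          have : 0 ≤ K := by linarith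
          exact mul_nonneg this (by linarith)
        linarith
      obtain ⟨k1, -⟩ := nc hbig
      have hle : D.B.d n ^ M0 ≤ D.B.d n ^ Ccr :=
        Real.rpow_le_rpow_of_exponent_ge (D.B.pos n) (D.B.lt n).le (by rw [hM0]; linarith)
      have hle' : D.B.d n ^ (-Ccr) ≤ D.B.d n ^ (-M0) :=
        Real.rpow_le_rpow_of_exponent_ge (D.B.pos n) (D.B.lt n).le (by rw [hM0]; linarith)
      refine CoinC.anti k1.coin (by rw [g.pair.a, g.pair.a']; exact h6) ?_ ?_ le_rfl le_rfl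
      · refine mul_le_mul_of_nonneg_right ?_ g.pos.2.2.1.le
        exact div_le_div₀ (dpow_pos _ _ _).le hle (dpow_pos _ _ _) hle'
      · exact mul_le_mul_of_nonneg_right hle g.pos.2.1.le)
    (by
      filter_upwards [D.B.ev_L_ge 1] with n hn
      refine ((hi0 n).2.2 hn).trans (mul_le_mul_of_nonneg_right ?_ (by linarith))
      rw [hM0]; linarith)
  set s : ℕ → ℝ := fun n => (1 / 2) ^ i n with hs
  set lam : ℕ → ℝ := fun n => 2 ^ j n with hlam
  have hs0 : ∀ n, 0 < s n := fun n => by rw [hs]; positivity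
  have hl1 : ∀ n, 1 ≤ lam n := fun n => one_le_pow₀ (by norm_num)
  have hsy : ∀ᶠ n in (U : Filter ℕ), s n ≤ D.B.d n ^ y := by
    filter_upwards [hij] with n hn
    refine le_trans ?_ (hi0 n).1
    exact pow_le_pow_of_le_one (by norm_num) (by norm_num) hn.1
  have hJ4I : Dense D.B J4 D.I := hJ4.trans hJ3
  have hne4 : ∀ᶠ n in (U : Filter ℕ), (J4 n).Nonempty := hJ4I.nonempty hne
  have hfact : ∀ᶠ n in (U : Filter ℕ), ∀ x ∈ J4 n,
      Fact D n b c u v K (E n) (Bn n) (dd n) (s n) (lam n) x ∧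
        ¬ MidAt D K (cx K p) Cm δ ε b c n x ∧ lam n * D.w 2 n b ≤ 2 * D.w 1 n b := by
    filter_upwards [hsel, hpre, hsy] with n k1 k2 k3 x hx
    obtain ⟨x3, a1, a2, a3, a4, a5⟩ := k1 x hx
    obtain ⟨g, nm, -⟩ := k2 x x3
    have hEd : E n * D.B.d n ^ y = 1 := by
      simp only [hE]
      rw [← dpow_add]; simp
    refine ⟨⟨g, hs0 n, ?_, hl1 n, a1, ?_, a4, ?_⟩, nm, ?_⟩
    · calc E n * s n ≤ E n * D.B.d n ^ y := mul_le_mul_of_nonneg_left k3 (dpow_pos _ _ _).le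
        _ = 1 := hEd
    · rcases a3 with a3 | a3
      · left; simp only [hlam]; rw [a3]; norm_num
      · right; exact a3
    · rcases a5 with a5 | a5
      · left
        simp only [hs]
        rw [a5]
        exact (hi0 n).2.1
      · right; exact a5
    · rw [← g.pair.w1, ← g.pair.w2]
      exact a2
  -- the common part of the cases (i), (ii)
  have fin : ∀ (τ θ : ℕ → ℝ) (J5 : ℕ → Finset (ℕ × ℝ)), Dense D.B J5 D.I →
      (∀ᶠ n in (U : Filter ℕ), 0 < τ n ∧ 0 ≤ θ n ∧ s n ≤ lam n * τ n ∧ τ n * lam n ≤ 48 * Bn n ∧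
        τ n * (2 * s n) ^ (-e) ≤ 48 * Bn n ∧ (θ n ≤ 0 ∨ θ n * (2 * s n) ^ (-e) ≤ 48 * Bn n)) →
      (∀ᶠ n in (U : Filter ℕ), ∀ x ∈ J5 n,
        Core D n b c (s n) (lam n) (τ n) (θ n) (A n) N x) → False := by
    intro τ θ J5 hJ5 hτ hcor
    have halt := hcore ε hε J5 hJ5 s lam τ θ A (fun _ => N)
      (by
        filter_upwards [hτ, hfact, hne4] with n k1 k2 k3
        obtain ⟨x, hx⟩ := k3
        exact ⟨hs0 n, hl1 n, k1.1, k1.2.1, k1.2.2.1, (k2 x hx).2.2⟩)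
      (Eventually.of_forall fun _ => hN)
      (by
        filter_upwards [hfact, hne4, V5, V6] with n k2 k3 v5 v6
        obtain ⟨x, hx⟩ := k3
        obtain ⟨g, -, -⟩ := k2 x hx
        have hb := g.w0b
        have hc := g.w0c
        have hmx : 0 < max (D.w 0 n b) (D.w 0 n c) := hb.trans_le (le_max_left _ _)
        have m1 : D.w 0 n b ≤ max (D.w 0 n b) (D.w 0 n c) := le_max_left _ _
        have m2 : D.w 0 n c ≤ max (D.w 0 n b) (D.w 0 n c) := le_max_right _ _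
        refine ⟨?_, ?_, ?_⟩
        · have g1 : 1 * (D.w 0 n b + D.w 0 n c) ≤ K * (D.w 0 n b + D.w 0 n c) :=
            mul_le_mul_of_nonneg_right (by linarith) (by linarith)
          have g2 : max (D.w 0 n b) (D.w 0 n c) ≤ D.w 0 n b + D.w 0 n c :=
            max_le (by linarith) (by linarith)
          simp only [hA]
          linarith
        · simp only [hA]
          calc K * (D.w 0 n b + D.w 0 n c) ≤ K * (2 * max (D.w 0 n b) (D.w 0 n c)) :=
                mul_le_mul_of_nonneg_left (by linarith) (by linarith)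
            _ = 2 * K * max (D.w 0 n b) (D.w 0 n c) := by ring
            _ ≤ _ := mul_le_mul_of_nonneg_right v6 hmx.le
        · refine g.thin.trans (mul_le_mul_of_nonneg_right ?_ ?_)
          · refine le_trans (le_of_eq ?_) v5
            congr 1
            simp only [hBn]
            rw [← Real.rpow_natCast, ← Real.rpow_mul (D.B.pos n).le]
            congr 1
            push_cast; ring
          · rw [← g.pair.w2]
            exact (mul_pos (hs0 n) g.pos.2.1).le)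
      ⟨2 * M, by
        filter_upwards [hij] with n hn
        have hsl : s n / lam n = (1 / 2) ^ (i n + j n) := by
          simp only [hs, hlam]
          rw [pow_add, div_eq_mul_inv, ← inv_pow]
          norm_num
        have hl2 : Real.log 2 ≤ 1 := by
          have := Real.log_two_lt_d9
          linarith
        rw [hsl, ← Real.log_le_log_iff (dpow_pos _ _ _) (by positivity), log_dpow, Real.log_pow,
          Real.log_div one_ne_zero two_ne_zero, Real.log_one]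
        have h4 : ((i n + j n : ℕ) : ℝ) * Real.log 2 ≤ ((i n + j n : ℕ) : ℝ) * 1 :=
          mul_le_mul_of_nonneg_left hl2 (Nat.cast_nonneg _)
        push_cast at h4 ⊢
        linarith [hn.2.1, hn.2.2]⟩ hcor
    refine end_contra D.B (q := p.q) (g := p.g) (s := s) (lam := lam) (τ := τ) (θ := θ) (N := N)
      (by intro k; fin_cases k; exacts [hq0, hq1.le, hq2.le]) hq1 hg.le hε.le he0 he1
      (by linarith) (by linarith) hC hδ hCw hN hnum ?_ halt
    filter_upwards [hτ, hsy] with n k1 k2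
    exact ⟨hs0 n, k2, hl1 n, k1.1, k1.2.2.2.1, k1.2.2.2.2.1, k1.2.2.2.2.2⟩
  -- powers of `2 s`
  have hpw : ∀ᶠ n in (U : Filter ℕ), 48 * Bn n ≤ (2 * s n) ^ (-e) ∧ Cc ≤ (2 * s n) ^ (-e) ∧
      D.B.d n ^ (-(e * ε1 / 2)) ≤ (2 * s n) ^ (-e) := by
    filter_upwards [hsy, V2, V2', V3] with n k1 k2 k3 k4
    have := pow_2s D.B (hs0 n) k1 he0.le he1
    refine ⟨?_, ?_, ?_⟩ <;> linarith
  have hdich : (∀ᶠ n in (U : Filter ℕ), (2 * s n) ^ (-e) ≤ lam n) ∨
      ∀ᶠ n in (U : Filter ℕ), lam n < (2 * s n) ^ (-e) := by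
    rw [← Ultrafilter.eventually_or]
    exact Eventually.of_forall fun n => le_or_gt _ _
  rcases hdich with hi | hi
  · -- case (i)
    refine fin (fun n => 48 * Bn n / lam n) (fun _ => 0) J4 hJ4I ?_ ?_
    · filter_upwards [hi, hpw, hfact, hne4] with n k1 k2 k3 k4
      obtain ⟨x, hx⟩ := k4
      obtain ⟨g, -, -⟩ := k3 x hx
      have hB := hBn1 n
      have hl := hl1 n
      have hl0 : 0 < lam n := by linarith
      have e5 : lam n * (48 * Bn n / lam n) = 48 * Bn n := by field_simp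
      have hs1 : s n ≤ 1 := by
        have h416 : 1 ≤ E n := g.E1
        have : 1 * s n ≤ E n * s n := mul_le_mul_of_nonneg_right h416 (hs0 n).le
        linarith [g.s1]
      refine ⟨by positivity, le_rfl, ?_, ?_, ?_, Or.inl le_rfl⟩
      · rw [e5]; linarith
      · rw [mul_comm, e5]
      · rw [div_mul_eq_mul_div, div_le_iff₀ hl0]
        exact mul_le_mul_of_nonneg_left k1 (by linarith)
    · filter_upwards [hi, hpw, hfact] with n k1 k2 k3 x hx
      obtain ⟨g, -, -⟩ := k3 x hx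
      have hB := hBn1 n
      have hl0 : 0 < lam n := by linarith [hl1 n]
      have e5 : lam n * (48 * Bn n / lam n) = 48 * Bn n := by field_simp
      exact g.core_i hN (by linarith [k2.1]) (by rw [e5])
  obtain ⟨J5, hJ5, hd⟩ := dense_dich (B := D.B) (J := J4) fun n x =>
    (2 * s n) ^ (-(e * Cc)) * (D.w 0 n b + D.w 0 n c) ≤ kpm D n b x
  have hJ5I : Dense D.B J5 D.I := hJ5.trans hJ4I
  rcases hd with hd | hd
  · -- case (ii)
    refine fin (fun n => (2 * s n) ^ e) (fun n => (2 * s n) ^ e) J5 hJ5I ?_ ?_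
    · filter_upwards [hi, hpw, hfact, hne4] with n k1 k2 k3 k4
      obtain ⟨x, hx⟩ := k4
      obtain ⟨g, -, -⟩ := k3 x hx
      have hB := hBn1 n
      have hl := hl1 n
      have h2s : 0 < 2 * s n := by linarith [hs0 n]
      have hs1 : 2 * s n ≤ 1 := by
        have h416 : 416 ≤ E n := by linarith [g.EK, g.K1]
        have : 416 * s n ≤ E n * s n := mul_le_mul_of_nonneg_right h416 (hs0 n).le
        linarith [g.s1, hs0 n]
      have hp : 0 < (2 * s n) ^ e := Real.rpow_pos_of_pos h2s _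
      have hpe : (2 * s n) ^ e * (2 * s n) ^ (-e) = 1 := by
        rw [← Real.rpow_add h2s]; simp
      refine ⟨hp, hp.le, ?_, ?_, by rw [hpe]; linarith, Or.inr (by rw [hpe]; linarith)⟩
      · have g1 : 2 * s n ≤ (2 * s n) ^ e := by
          calc 2 * s n = (2 * s n) ^ (1:ℝ) := (Real.rpow_one _).symm
            _ ≤ _ := Real.rpow_le_rpow_of_exponent_ge h2s hs1 he1
        have g2 : 1 * (2 * s n) ^ e ≤ lam n * (2 * s n) ^ e := mul_le_mul_of_nonneg_right hl hp.le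
        linarith [hs0 n]
      · have : (2 * s n) ^ e * lam n ≤ (2 * s n) ^ e * (2 * s n) ^ (-e) :=
          mul_le_mul_of_nonneg_left k1.le hp.le
        rw [hpe] at this
        linarith
    · filter_upwards [hi, hpw, hfact, hd, hJ5.1] with n k1 k2 k3 k4 k5 x hx
      obtain ⟨g, -, -⟩ := k3 x (k5 hx)
      have hB := hBn1 n
      have h2s : 0 < 2 * s n := by linarith [hs0 n]
      have hp : 0 < (2 * s n) ^ e := Real.rpow_pos_of_pos h2s _
      have hpe : (2 * s n) ^ (-e) * (2 * s n) ^ e = 1 := by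
        rw [← Real.rpow_add h2s]; simp
      have q1 : Bn n * (2 * s n) ^ e ≤ 1 := by
        have : Bn n * (2 * s n) ^ e ≤ (2 * s n) ^ (-e) * (2 * s n) ^ e :=
          mul_le_mul_of_nonneg_right (by linarith [k2.1]) hp.le
        rwa [hpe] at this
      have q2 : Cc * (2 * s n) ^ e ≤ 1 := by
        have : Cc * (2 * s n) ^ e ≤ (2 * s n) ^ (-e) * (2 * s n) ^ e :=
          mul_le_mul_of_nonneg_right k2.2.1 hp.le
        rwa [hpe] at this
      have q3 : (2 * s n) ^ e ≤ dd n := by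
        have g1 : dd n * D.B.d n ^ (-(e * ε1 / 2)) = 1 := by
          simp only [hdd]
          rw [← dpow_add]; simp
        have g2 := dpow_pos D.B n (-(e * ε1 / 2))
        have g3 : (2 * s n) ^ e * D.B.d n ^ (-(e * ε1 / 2)) ≤ 1 := by
          calc (2 * s n) ^ e * D.B.d n ^ (-(e * ε1 / 2)) ≤ (2 * s n) ^ e * (2 * s n) ^ (-e) :=
                mul_le_mul_of_nonneg_left k2.2.2 hp.le
            _ = 1 := by rw [mul_comm]; exact hpe
        rw [← g1] at g3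
        exact le_of_mul_le_mul_right g3 g2
      exact g.core_ii hCc hcurv he0 (by rw [heC]; exact n1) hKC rfl q1 q2 k1 q3 (k4 x hx)
  · -- case (iii)
    have hne5 : ∀ᶠ n in (U : Filter ℕ), (J5 n).Nonempty := hJ5I.nonempty hne
    obtain ⟨n, ⟨x, hx⟩, k1, k2, k3, k4, k5, k6, k7⟩ :=
      (hne5.and (hi.and (hpw.and (hfact.and (hd.and (hJ5.1.and (hsy.and V4))))))).exists
    obtain ⟨g, nm, -⟩ := k3 x (k5 hx)
    apply nm
    have h2s : 0 < 2 * s n := by linarith [hs0 n]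
    have hs1 : 2 * s n ≤ 1 := by
      have h416 : 416 ≤ E n := by linarith [g.EK, g.K1]
      have : 416 * s n ≤ E n * s n := mul_le_mul_of_nonneg_right h416 (hs0 n).le
      linarith [g.s1, hs0 n]
    have hcxe : (2 * s n) ^ (-e) ≤ (2 * s n) ^ (-(cx K p)) := by
      refine Real.rpow_le_rpow_of_exponent_ge h2s hs1 ?_
      rw [← heC]
      have : e ≤ e * Cc := le_mul_of_one_le_right he0.le hCc
      linarith
    have hkp := not_le.1 (k4 x hx)
    rw [heC] at hkp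
    have hB := hBn1 n
    have hw : ∀ k, 0 ≤ (mk4 D n b x).w k := by
      intro k
      obtain ⟨p0, p2, p1, -⟩ := g.pos
      fin_cases k
      exacts [p0.le, p1.le, p2.le]
    have hw0' : 0 < (mk4 D n c x).w 0 :=
      g.r.trans_le (g.pair.shp'.r0_le.trans g.pair.shp'.a_le0)
    have hw' : ∀ k, 0 ≤ (mk4 D n c x).w k := by
      intro k
      have p2 := hw0'.trans_le g.pair.shp'.w0_le
      have p1 := p2.trans_le g.pair.shp'.w_le
      fin_cases k
      exacts [hw0'.le, p1.le, p2.le]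
    have ha : 0 < (mk4 D n b x).a := g.r.trans_le g.pair.shp.r0_le
    have ha' : 0 < (mk4 D n c x).a := g.r.trans_le g.pair.shp'.r0_le
    refine ⟨2 * s n, lam n, h2s, ?_, hl1 n, k1.le.trans hcxe, ?_, ?_, ?_, ?_, ?_⟩
    · -- `2 s ≤ d^(Cm δ + ε)`
      have g1 : D.B.d n ^ (-y) * D.B.d n ^ y = 1 := by rw [← dpow_add]; simp
      have g2 : D.B.d n ^ (Cm * δ + ε) * D.B.d n ^ (-(Cm * δ + ε)) = 1 := by
        rw [← dpow_add]; simp
      have g3 := dpow_pos D.B n (Cm * δ + ε)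
      have g4 := dpow_pos D.B n y
      calc 2 * s n ≤ 2 * D.B.d n ^ y := by linarith
        _ = 2 * D.B.d n ^ y * (D.B.d n ^ (Cm * δ + ε) * D.B.d n ^ (-(Cm * δ + ε))) := by
            rw [g2, mul_one]
        _ = (2 * D.B.d n ^ (-(Cm * δ + ε))) * (D.B.d n ^ y * D.B.d n ^ (Cm * δ + ε)) := by ring
        _ ≤ D.B.d n ^ (-y) * (D.B.d n ^ y * D.B.d n ^ (Cm * δ + ε)) :=
            mul_le_mul_of_nonneg_right k7 (by positivity)
        _ = (D.B.d n ^ (-y) * D.B.d n ^ y) * D.B.d n ^ (Cm * δ + ε) := by ring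
        _ = _ := by rw [g1, one_mul]
    · exact compC_mono g.comp (by linarith [k2.1]) le_rfl hw hw' ha.le ha'.le
    · rw [g.pair.a, g.pair.a']
      exact g.notAgree he1 k1
    · rw [g.pair.a, g.pair.a']
      exact g.bigA.1
    · rw [g.pair.a, g.pair.a']
      exact hkp.le
    · rw [g.pair.a, g.pair.a']
      exact g.bad'.trans hkp.le

end Crest.Agent.R136.Asy51
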