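import Crest.Agent.R136.Fm5_808

/-!
# R136 (S0187): flat tilt, numbers of one stage (helper808)
-/

set_option autoImplicit false
set_option linter.unusedVariables false
set_option linter.unusedSectionVars false

namespace Crest.Agent.R136.Fl808

open Finset Filter Topology Crest.Agent.R136.Sh605
open Crest.Agent.R138.Ex926 (Base U)
open Crest.Agent.R138.Dp76 (Dense dpow_pos dpow_add dpow_le dpow_le_one)
open Crest.Agent.R138.Mk163 (zc zl rho alive own Negl)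
open Crest.Agent.R138.MkRef627 (lc mem_alive card_class)

theorem L_le (B : Base) (n : ℕ) {ε : ℝ} (hε : 0 < ε) : B.L n ≤ 1 / ε * B.d n ^ (-ε) := by
  rw [dpow_exp]
  have h1 := Real.add_one_le_exp (-(-ε * B.L n))
  rw [div_mul_eq_mul_div, one_mul, le_div_iff₀ hε]
  have : -(-ε * B.L n) = ε * B.L n := by ring
  rw [this] at h1 ⊢
  linarith

/-- the six entries, abstractly: `r21 = w2 / w1`, `r02 = a / w2`, `r01 = a / w1` -/
def Six (e e' : Fin 3 → V3) (r21 r02 r01 : ℝ) : Prop :=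
  (|dt (e 1) (e' 2)| ≤ r21 ∧ |dt (e 2) (e' 1)| ≤ r21) ∧
  (|dt (e 0) (e' 2)| ≤ r02 ∧ |dt (e 2) (e' 0)| ≤ r02) ∧
  (|dt (e 0) (e' 1)| ≤ r01 ∧ |dt (e 1) (e' 0)| ≤ r01)

theorem Six.mono {e e' : Fin 3 → V3} {r21 r02 r01 s21 s02 s01 : ℝ} (h : Six e e' r21 r02 r01)
    (h1 : r21 ≤ s21) (h2 : r02 ≤ s02) (h3 : r01 ≤ s01) : Six e e' s21 s02 s01 :=
  ⟨⟨h.1.1.trans h1, h.1.2.trans h1⟩, ⟨h.2.1.1.trans h2, h.2.1.2.trans h2⟩,
    ⟨h.2.2.1.trans h3, h.2.2.2.trans h3⟩⟩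

theorem six_one {e e' : Fin 3 → V3} (he : Ortho e) (he' : Ortho e') : Six e e' 1 1 1 := by
  refine ⟨⟨?_, ?_⟩, ⟨?_, ?_⟩, ⟨?_, ?_⟩⟩ <;> exact abs_dt_le_one he' he _ _

/-- entries from the dyadic tilts -/
theorem six_of_dy {e e' : Fin 3 → V3} {a w1 w2 a0 w10 w20 K : ℝ} {j k' : ℕ}
    (H : Dy e e' a w1 w2 j k') (he : Ortho e) (he' : Ortho e') (ha : 0 < a) (haw : a ≤ w2)
    (hw : w2 ≤ w1) (h20 : 0 < w20) (h10 : 0 < w10) (ha1 : a ≤ K * a0) (hw2 : w2 ≤ K * w20)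
    (hw2' : w20 ≤ w2) (hw1' : w10 ≤ w1) :
    Six e e' (w20 / w10 * (2 * K * 2 ^ (k' + j))) (a0 / w20 * (2 * K * 2 ^ (k' + j)))
      (a0 / w10 * (2 * K * 2 ^ (k' + j))) := by
  have pw2 : 0 < w2 := ha.trans_le haw
  have pw1 : 0 < w1 := pw2.trans_le hw
  have hj : (1:ℝ) ≤ 2 ^ j := one_le_pow₀ (by norm_num)
  have hk : (1:ℝ) ≤ 2 ^ k' := one_le_pow₀ (by norm_num)
  have hj0 : (0:ℝ) < 2 ^ j := by positivity
  have hk0 : (0:ℝ) < 2 ^ k' := by positivity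
  have b12 := H.b12 he he' ha haw hw
  -- base entries
  have base : ∀ x : ℝ, |x| * w1 ≤ 2 * (2 ^ j * w2) → |x| ≤ w20 / w10 * (2 * K * 2 ^ (k' + j)) := by
    intro x hx
    rw [div_mul_eq_mul_div, le_div_iff₀ h10, pow_add]
    have hKw : 0 < K * w20 := pw2.trans_le hw2
    calc |x| * w10 ≤ |x| * w1 := by gcongr
      _ ≤ 2 * (2 ^ j * w2) := hx
      _ ≤ 2 * (2 ^ j * (K * w20)) := by gcongr
      _ = 2 * 1 * 2 ^ j * (K * w20) := by ring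
      _ ≤ 2 * 2 ^ k' * 2 ^ j * (K * w20) := by gcongr
      _ = _ := by ring
  have hKa : 0 < K * a0 := ha.trans_le ha1
  have thin1 : ∀ x : ℝ, |x| * w1 ≤ 2 ^ k' * (2 ^ j * a) → |x| ≤
      a0 / w10 * (2 * K * 2 ^ (k' + j)) := by
    intro x hx
    rw [div_mul_eq_mul_div, le_div_iff₀ h10, pow_add]
    calc |x| * w10 ≤ |x| * w1 := by gcongr
      _ ≤ 2 ^ k' * (2 ^ j * a) := hx
      _ ≤ 2 ^ k' * (2 ^ j * (K * a0)) := by gcongr
      _ ≤ 2 * (2 ^ k' * (2 ^ j * (K * a0))) := by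
        have : 0 < 2 ^ k' * (2 ^ j * (K * a0)) := by positivity
        linarith
      _ = _ := by ring
  have thin2 : ∀ x : ℝ, 2 ^ j * (|x| * w2) ≤ 2 ^ k' * (2 ^ j * a) → |x| ≤
      a0 / w20 * (2 * K * 2 ^ (k' + j)) := by
    intro x hx
    have hx' : |x| * w2 ≤ 2 ^ k' * a := by
      have : 2 ^ j * (|x| * w2) ≤ 2 ^ j * (2 ^ k' * a) := hx.trans (le_of_eq (by ring))
      exact le_of_mul_le_mul_left this hj0
    rw [div_mul_eq_mul_div, le_div_iff₀ h20, pow_add]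
    calc |x| * w20 ≤ |x| * w2 := by gcongr
      _ ≤ 2 ^ k' * a := hx'
      _ ≤ 2 ^ k' * (K * a0) := by gcongr
      _ = 1 * (2 ^ k' * (K * a0)) * 1 := by ring
      _ ≤ 2 * (2 ^ k' * (K * a0)) * 2 ^ j := by gcongr; norm_num
      _ = _ := by ring
  have hp : 0 < 2 ^ j * w2 := by positivity
  refine ⟨⟨?_, ?_⟩, ⟨?_, ?_⟩, ⟨?_, ?_⟩⟩
  · rw [dt_comm]; exact base _ (by linarith [H.b21])
  · rw [dt_comm]; exact base _ b12
  · rw [dt_comm]; exact thin2 _ H.t20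
  · rw [dt_comm]; exact thin2 _ H.t02
  · rw [dt_comm]; exact thin1 _ H.t10
  · rw [dt_comm]; exact thin1 _ H.t01

/-! ### D-max -/

theorem rho_le_one (i : ℕ) : rho i ≤ 1 := by
  unfold rho
  rw [div_le_one (by positivity)]
  exact one_le_pow₀ (by norm_num)

/-- conversion of the deep D-max to the form of the finite theorem -/
theorem deep_conv {P : Finset (ℕ × ℤ)} {L : ℕ → Ln4} {lv t T : ℕ}
    {q0 q1 q2 g ε1 r0 ω1 ω2 κ0 κ1 κ2 c E wc wd ac : ℝ}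
    (H : DMaxP P L (lv + t) (c * 2 ^ ((g + ε1) * (((lv + t : ℕ) : ℝ) - lv)) *
      rho (lv + t) ^ (-(q0 + q1 + q2))) q0 q1 q2 r0 ω1 ω2 (min (rho (lv + t)) κ1) κ2 κ0)
    (hc : 0 ≤ c) (hq0 : 0 ≤ q0) (hq1 : 0 ≤ q1) (hq2 : 0 ≤ q2) (hg : ε1 ≤ g) (hr0 : 0 < r0)
    (hT : t ≤ T) (hr : r0 ≤ rho (lv + T)) (hE : 1 ≤ E) (hwc : wc ≤ 200 * E * rho lv)
    (hwc0 : 0 ≤ wc) (hκ1 : 2000 * wc ≤ κ1) (hκ2 : 2000 * wd ≤ κ2) (hκ0 : 2000 * ac ≤ κ0)
    (hω1 : 2 * 2 ^ T * ω1 ≤ rho lv) (hω2 : 2 * 2 ^ T * ω2 ≤ rho lv) (hω10 : 0 ≤ ω1)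
    (hω20 : 0 ≤ ω2) :
    DMaxP P L (lv + t) (((10 ^ 6 * E) ^ 6 * c * rho lv ^ (-(q0 + q1 + q2))) *
      2 ^ (((2 * g + q0) + q1 + q2) * (t : ℝ))) q0 q1 q2 r0 ω1 ω2 (2000 * (wc / 2 ^ t))
      (2000 * wd) (2000 * ac) := by
  have hρ := rho_pos lv
  have hρt : rho (lv + t) * 2 ^ t = rho lv := rho_add lv t
  have hρT : rho (lv + T) * 2 ^ T = rho lv := rho_add lv T
  have pt : (0:ℝ) < 2 ^ t := by positivity
  have pT : (0:ℝ) < 2 ^ T := by positivity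
  have ptT : (2:ℝ) ^ t ≤ 2 ^ T := pow_le_pow_right₀ (by norm_num) hT
  have hmono : rho (lv + T) ≤ rho (lv + t) := by
    have h1 : rho (lv + T) * 2 ^ t ≤ rho (lv + t) * 2 ^ t := by
      rw [hρt, ← hρT]
      exact mul_le_mul_of_nonneg_left ptT (rho_pos _).le
    exact le_of_mul_le_mul_right h1 pt
  have hom : ∀ ω : ℝ, 0 ≤ ω → 2 * 2 ^ T * ω ≤ rho lv → ω ≤ rho (lv + t) := by
    intro ω h0 h1
    refine le_trans ?_ hmono
    have h2 : ω * 2 ^ T ≤ rho (lv + T) * 2 ^ T := by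
      rw [hρT]
      have : 0 ≤ 2 ^ T * ω := by positivity
      linarith
    exact le_of_mul_le_mul_right h2 pT
  have hρp := rho_pos (lv + t)
  refine H.wide (K := 400000 * E) hq0 hq1 hq2 hr0 (hr.trans hmono) (hom _ hω10 hω1)
    (hom _ hω20 hω2) (by positivity) (by linarith) ?_ ?_ hκ2 hκ0 ?_
  · rw [← mul_div_assoc, div_le_iff₀ pt]
    calc 2000 * wc ≤ 2000 * (200 * E * rho lv) := by linarith
      _ = 400000 * E * (rho (lv + t) * 2 ^ t) := by rw [hρt]; ring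
      _ = _ := by ring
  · have : wc / 2 ^ t ≤ wc := div_le_self hwc0 (one_le_pow₀ (by norm_num))
    linarith
  · have e1 : (((lv + t : ℕ) : ℝ) - lv) = t := by push_cast; ring
    have e2 : rho (lv + t) ^ (-(q0 + q1 + q2)) =
        rho lv ^ (-(q0 + q1 + q2)) * 2 ^ ((q0 + q1 + q2) * (t:ℝ)) := by
      rw [← hρt, Real.mul_rpow hρp.le pt.le, two_pow_rpow, mul_assoc,
        ← Real.rpow_add (by norm_num : (0:ℝ) < 2)]
      have : (t:ℝ) * (-(q0 + q1 + q2)) + (q0 + q1 + q2) * (t:ℝ) = 0 := by ring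
      rw [this, Real.rpow_zero, mul_one]
    rw [e1, e2]
    have e3 : (2:ℝ) ^ ((g + ε1) * (t:ℝ)) ≤ 2 ^ ((2 * g) * (t:ℝ)) := by
      refine Real.rpow_le_rpow_of_exponent_le (by norm_num) ?_
      have : (0:ℝ) ≤ t := Nat.cast_nonneg _
      exact mul_le_mul_of_nonneg_right (by linarith) this
    have e4 : (2 * (400000 * E) + 1) ^ 6 ≤ (10 ^ 6 * E) ^ 6 :=
      pow_le_pow_left₀ (by linarith) (by linarith) 6
    have e5 : (2:ℝ) ^ (((2 * g + q0) + q1 + q2) * (t : ℝ)) =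
        2 ^ ((2 * g) * (t:ℝ)) * 2 ^ ((q0 + q1 + q2) * (t:ℝ)) := by
      rw [← Real.rpow_add (by norm_num : (0:ℝ) < 2)]; congr 1; ring
    rw [e5]
    have hR : 0 < rho lv ^ (-(q0 + q1 + q2)) := Real.rpow_pos_of_pos hρ _
    have h2p : (0:ℝ) < 2 ^ ((q0 + q1 + q2) * (t:ℝ)) := by positivity
    calc (2 * (400000 * E) + 1) ^ 6 * (c * 2 ^ ((g + ε1) * (t:ℝ)) *
          (rho lv ^ (-(q0 + q1 + q2)) * 2 ^ ((q0 + q1 + q2) * (t:ℝ)))) ≤
        (10 ^ 6 * E) ^ 6 * (c * 2 ^ ((2 * g) * (t:ℝ)) *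
          (rho lv ^ (-(q0 + q1 + q2)) * 2 ^ ((q0 + q1 + q2) * (t:ℝ)))) := by gcongr
      _ = _ := by ring

/-- the defect -/
noncomputable def WW (B : Base) (n k0 : ℕ) (E Q g δ ε1 : ℝ) : ℝ :=
  (200 * E) ^ (3 + Q) * ((10 ^ 6 * E) ^ 6 * B.d n ^ (-(2 * ε1) - g * δ) * (2 ^ k0) ^ Q) *
    (2 ^ k0 * (16 * 4 ^ k0)) * B.d n ^ (δ - ε1)

theorem WW_pos (B : Base) (n k0 : ℕ) {E Q g δ ε1 : ℝ} (hE : 1 ≤ E) : 0 < WW B n k0 E Q g δ ε1 := by
  have h1 := dpow_pos B n (-(2 * ε1) - g * δ)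
  have h2 := dpow_pos B n (δ - ε1)
  unfold WW
  positivity

theorem WW_log {B : Base} {n k0 : ℕ} {E Q g δ ε1 C1 : ℝ} (hE : E = B.d n ^ (-(C1 * δ) - ε1))
    (hC1 : 0 ≤ C1) (hδ : 0 ≤ δ) (hε1 : 0 ≤ ε1) (hQ : 0 ≤ Q)
    (h2k : (2:ℝ) ^ k0 ≤ B.d n ^ (-δ - ε1)) :
    Real.log (WW B n k0 E Q g δ ε1 / (B.d n ^ (2 * ε1) / 4)) ≤
      ((3 + Q) * Real.log 200 + 6 * Real.log (10 ^ 6) + Real.log 16 + Real.log 4) +
      (((9 + Q) * C1 + g + Q + 3) * δ + (2 * Q + 17) * ε1) * B.L n := by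
  have hL := B.L_pos n
  have hE0 : 0 < E := by rw [hE]; exact dpow_pos B n _
  have hE1 : 1 ≤ E := by
    rw [hE]
    have := dpow_le B n (show -(C1 * δ) - ε1 ≤ 0 by nlinarith [mul_nonneg hC1 hδ])
    rwa [Real.rpow_zero] at this
  have d1 := dpow_pos B n (-(2 * ε1) - g * δ)
  have d2 := dpow_pos B n (δ - ε1)
  have d3 := dpow_pos B n (2 * ε1)
  have lE : Real.log E = (C1 * δ + ε1) * B.L n := by
    rw [hE, dpow_exp, Real.log_exp]; ring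
  have l1 : Real.log (B.d n ^ (-(2 * ε1) - g * δ)) = (2 * ε1 + g * δ) * B.L n := by
    rw [dpow_exp, Real.log_exp]; ring
  have l2 : Real.log (B.d n ^ (δ - ε1)) = (ε1 - δ) * B.L n := by
    rw [dpow_exp, Real.log_exp]; ring
  have l3 : Real.log (B.d n ^ (2 * ε1)) = -(2 * ε1) * B.L n := by
    rw [dpow_exp, Real.log_exp]; ring
  have lk : Real.log ((2:ℝ) ^ k0) ≤ (δ + ε1) * B.L n := by
    have := Real.log_le_log (by positivity) h2k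
    rw [dpow_exp, Real.log_exp] at this
    linarith
  have lk0 : 0 ≤ Real.log ((2:ℝ) ^ k0) := Real.log_nonneg (one_le_pow₀ (by norm_num))
  have l4 : Real.log ((4:ℝ) ^ k0) = 2 * Real.log ((2:ℝ) ^ k0) := by
    have : (4:ℝ) ^ k0 = (2 ^ k0) ^ 2 := by rw [← pow_mul, mul_comm, pow_mul]; norm_num
    rw [this, Real.log_pow]; norm_num
  have l5 : Real.log ((200 * E) ^ (3 + Q)) = (3 + Q) * (Real.log 200 + Real.log E) := by
    rw [Real.log_rpow (by positivity), Real.log_mul (by norm_num) hE0.ne']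
  have l6 : Real.log ((10 ^ 6 * E) ^ 6) = 6 * (Real.log (10 ^ 6) + Real.log E) := by
    rw [Real.log_pow, Real.log_mul (by norm_num) hE0.ne']; norm_num
  have l7 : Real.log (((2:ℝ) ^ k0) ^ Q) = Q * Real.log ((2:ℝ) ^ k0) :=
    Real.log_rpow (by positivity) _
  have hWp := WW_pos B n k0 hE1 (Q := Q) (g := g) (δ := δ) (ε1 := ε1)
  have hW : Real.log (WW B n k0 E Q g δ ε1) = (3 + Q) * (Real.log 200 + Real.log E) +
      (6 * (Real.log (10 ^ 6) + Real.log E) + Real.log (B.d n ^ (-(2 * ε1) - g * δ)) +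
        Q * Real.log ((2:ℝ) ^ k0)) + (Real.log ((2:ℝ) ^ k0) + (Real.log 16 +
        2 * Real.log ((2:ℝ) ^ k0))) + Real.log (B.d n ^ (δ - ε1)) := by
    rw [← l7, ← l6, ← l5, ← l4]
    unfold WW
    have p5 : (200 * E) ^ (3 + Q) ≠ 0 := by positivity
    have p6 : (10 ^ 6 * E) ^ 6 ≠ 0 := by positivity
    have p7 : ((2:ℝ) ^ k0) ^ Q ≠ 0 := by positivity
    have p2 : (2:ℝ) ^ k0 ≠ 0 := by positivity
    have p4 : (4:ℝ) ^ k0 ≠ 0 := by positivity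
    generalize (200 * E) ^ (3 + Q) = x5 at *
    generalize (10 ^ 6 * E) ^ 6 = x6 at *
    generalize ((2:ℝ) ^ k0) ^ Q = x7 at *
    generalize (2:ℝ) ^ k0 = x2 at *
    generalize (4:ℝ) ^ k0 = x4 at *
    generalize B.d n ^ (-(2 * ε1) - g * δ) = y1 at *
    generalize B.d n ^ (δ - ε1) = y2 at *
    have q1 := d1.ne'
    have q2 := d2.ne'
    rw [Real.log_mul (by positivity) q2, Real.log_mul (by positivity) (by positivity),
      Real.log_mul p5 (by positivity), Real.log_mul (by positivity) p7,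
      Real.log_mul p6 q1, Real.log_mul p2 (by positivity),
      Real.log_mul (by norm_num) p4]
  rw [Real.log_div hWp.ne' (by positivity), Real.log_div d3.ne' (by norm_num), hW, l1,
    l2, l3, lE]
  have p1 : Q * Real.log ((2:ℝ) ^ k0) ≤ Q * ((δ + ε1) * B.L n) := by gcongr
  have p2 := mul_nonneg hδ hL.le
  nlinarith [p1, p2, lk]

end Crest.Agent.R136.Fl808
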