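import Crest.Agent.R136.Csj5_535
import Crest.Agent.R136.Fm6_808

/-!
# R136 (S0187), U5 TILT, `MidC`: small discrepancies (helper535)

* `agree_obj2`, `stage_thin2` : 880's theorems with named sheets.
* `agree_small` : if the tangent planes agree polynomially, the sheets agree at every scale `s ≤ d^C`.
* `MidN` : the statement `MidC` with the crude tilt of the tangent planes as input.
-/

set_option autoImplicit false
set_option linter.unusedVariables false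
set_option linter.unusedSectionVars false

open Finset Filter Topology

namespace Crest.Agent.R136.Csj535

open Crest.Agent.R138.Ex926 Crest.Agent.R138.Dp76
open Crest.Agent.R138.Mk163 (zc zl rho alive own Negl)
open Crest.Agent.R138.MkRef627 (lc kc mem_alive)
open Crest.Agent.R136.MkA627
open Crest.Agent.R136.Sh605 Crest.Agent.R136.K4 Crest.Agent.R136.Top484 Crest.Agent.R136.Tlt51
open Crest.Agent.R136.KapP335
open Crest.Agent.R136.Dia770 (extO FullO zc_div)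
open Crest.Agent.R136.Mdr535
open Crest.Agent.R136.Tl102 (StP kap kap_nonneg)
open Crest.Agent.R136.Mdf880
open Crest.Agent.R136.Fl808 (Dy exists_dy exists_pow const_le le_dpow dpow_le' dpow_exp capB capB_pos
  capB_mono capB_cube lev_pow wid_comp)

/-- **[MID]**, with the crude tilt of the tangent planes as input -/
def MidN (kap : Plk4 → ℝ → ℝ → Ln4 → ℝ) : Prop :=
  ∃ K0 : ℝ, 1 ≤ K0 ∧ ∀ K : ℝ, K0 ≤ K → ∃ η : ℝ, 0 < η ∧ ∀ (p : Par4) (D : Dat4), J1 η p D →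
    CrudeN D →
    ∃ C : ℝ, 0 ≤ C ∧ ∀ b c : ℚ, 0 ≤ b → b ≤ 1 → 0 ≤ c → c ≤ 1 → b ≠ c → ∀ ε : ℝ, 0 < ε →
      Negl D.B D.I fun n x =>
      ∃ s lam : ℝ, 0 < s ∧ s ≤ D.B.d n ^ (C * |(b : ℝ) - c| + ε) ∧ 1 ≤ lam ∧
        lam ≤ s ^ (-(cx K p)) ∧
        CompC (s ^ (-(cx K p))) lam (mk4 D n b x) (mk4 D n c x) ∧
        ¬ Agree (K * ((mk4 D n b x).a + (mk4 D n c x).a))
            (s ^ (-K) * ((mk4 D n b x).a + (mk4 D n c x).a)) s lam (mk4 D n b x) (mk4 D n c x)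
            (D.L n x.1) (zx D n (max b c) x) (rh D n (max b c)) ∧
        K * ((mk4 D n b x).a + (mk4 D n c x).a) ≤
          kap (mk4 D n b x) (zx D n b x) (rh D n b) (D.L n x.1) ∧
        kap (mk4 D n b x) (zx D n b x) (rh D n b) (D.L n x.1) ≤
          s ^ (-(cx K p)) * ((mk4 D n b x).a + (mk4 D n c x).a) ∧
        kap (mk4 D n c x) (zx D n c x) (rh D n c) (D.L n x.1) ≤
          s ^ (-(cx K p)) * ((mk4 D n b x).a + (mk4 D n c x).a)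

section

variable {α β : Type*} {O : Finset (ℕ × ℤ)} {L : ℕ → Ln4} {i k : ℕ}
  {f : ℕ × ℤ → α} {g : ℕ × ℤ → β} {b : α → Plk4} {b' : β → Plk4}
  {a W1 W2 B X A1 A2 q0 q1 q2 W δ0 gr ε' K η s lam E Θ A' E' : ℝ} {S S' : Plk4}

theorem agree_obj2
    (h1 : CSys O L i f (fun l => (b l).c) (fun l => (b l).e) (fun l => (b l).w)
      (fun l => (b l).q) a W1 W2 B X A1)
    (h2 : CSys O L i g (fun l => (b' l).c) (fun l => (b' l).e) (fun l => (b' l).w)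
      (fun l => (b' l).q) a W1 W2 B X A2)
    {o : ℕ × ℤ} (ho : o ∈ O) (eS : b (f o) = S) (eS' : b' (g o) = S')
    (ha : 0 < a) (hE : 1 ≤ E) (hX : X ≤ E * a) (hΘ : 1 ≤ Θ)
    (hB : 1 ≤ B) (hl : 1 ≤ lam) (haw : a ≤ B * S.w 0) (haw' : a ≤ B * S'.w 0)
    (nr : Nr Θ (pfr S.q S.e S.w (L o.1) (zl i o.2)) (pfr S'.q S'.e S'.w (L o.1) (zl i o.2)) a
      (S.w 1) (S.w 2))
    (t21 : |dt (S.e 2) (S'.e 1)| * S.w 1 ≤ lam * S.w 2)
    (t12 : |dt (S.e 1) (S'.e 2)| * S.w 1 ≤ lam * S.w 2)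
    (h1a : S.a ≤ a) (h2a : S'.a ≤ a) (hs : 0 < s)
    (hsm : 5000 * (E * Θ * lam * B ^ 5) ^ 2 * s ≤ 1) (hK : 500 * a ≤ S.w 0)
    (hA' : 700 * a ≤ A') (hE' : s⁻¹ * a ≤ E') :
    Agree A' E' s lam S S' (L o.1) (zl i o.2) (rho i) := by
  subst eS eS'
  exact agree_obj h1 h2 ho ha hE hX hΘ hB hl haw haw' nr t21 t12 h1a h2a hs hsm hK hA' hE'

theorem stage_thin2
    (h1 : CSys O L i f (fun l => (b l).c) (fun l => (b l).e) (fun l => (b l).w)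
      (fun l => (b l).q) a W1 W2 B X A1)
    (h2 : CSys O L i g (fun l => (b' l).c) (fun l => (b' l).e) (fun l => (b' l).w)
      (fun l => (b' l).q) a W1 W2 B X A2)
    (R : RwC K η q0 q1 q2 gr ε') (ha : 0 < a) (hB : 1 ≤ B) (hW : 1 ≤ W) (hδ0 : 0 < δ0)
    (hδ1 : δ0 ≤ 1) (hth : W2 ≤ a * 2 ^ k) {o : ℕ × ℤ} (ho : o ∈ O)
    (eS : b (f o) = S) (eS' : b' (g o) = S')
    (H : ObjC S S' K a B W δ0 X (K * Real.sqrt (q2 / q1)) (C4 q0 q1 q2 (gr + ε' + q0)) s lam k) :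
    Agree (K * a) (s ^ (-K) * a) s lam S S' (L o.1) (zl i o.2) (rho i) := by
  subst eS eS'
  exact mid_stage_thin h1 h2 R ha hB hW hδ0 hδ1 hth ho H

end

/-- geometric facts of the marks of one level -/
theorem mark_facts {η : ℝ} {p : Par4} {D : Dat4} (h : J1 η p D) {b : ℚ} (hb0 : 0 ≤ b)
    (hb1 : b ≤ 1) : ∀ᶠ n in (U : Filter ℕ), ∀ x ∈ D.I n,
      ShN (mk4 D n b x).e (mk4 D n b x).c (mk4 D n b x).w (mk4 D n b x).q (mk4 D n b x).a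
        (zx D n b x) (rh D n b) (D.r0 n) ∧
      InSheet (D.L n x.1) (mk4 D n b x).e (mk4 D n b x).c (mk4 D n b x).w (mk4 D n b x).q
        (mk4 D n b x).a (zx D n b x) (rh D n b) ∧
      (mk4 D n b x).a = D.w 0 n b ∧ (mk4 D n b x).w 1 = D.w 1 n b ∧
      (mk4 D n b x).w 2 = D.w 2 n b := by
  filter_upwards [h.mka.mark b hb0 hb1] with n h2 x hx
  have hm := h2 _ _ (mem_alive.2 ⟨x, hx, rfl, rfl⟩ : x.1 ∈ alive (D.I n) (D.lev n b)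
    (zc (D.lev n b) x.2))
  exact ⟨hm.2.1.1, hm.1, hm.2.2.2 0, hm.2.2.2 1, hm.2.2.2 2⟩

/-- common part of the next two theorems: the two class systems over one object -/
theorem pair_sys {D : Dat4} {n : ℕ} {b v : ℚ} {x : ℕ × ℝ} (hlb : D.lev n b ≤ D.lev n v)
    (hr : 0 < D.r0 n)
    (hS : ShN (mk4 D n b x).e (mk4 D n b x).c (mk4 D n b x).w (mk4 D n b x).q (mk4 D n b x).a
        (zx D n b x) (rh D n b) (D.r0 n))
    (hI : InSheet (D.L n x.1) (mk4 D n b x).e (mk4 D n b x).c (mk4 D n b x).w (mk4 D n b x).q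
        (mk4 D n b x).a (zx D n b x) (rh D n b)) {a W1 W2 B X : ℝ}
    (ha : (mk4 D n b x).a ≤ a) (h1 : (mk4 D n b x).w 1 ≤ W1) (h1' : W1 ≤ B * (mk4 D n b x).w 1)
    (h2 : (mk4 D n b x).w 2 ≤ W2) (h2' : W2 ≤ B * (mk4 D n b x).w 2)
    (hX : kapP (mk4 D n b x) (zx D n b x) (rh D n b) (D.L n x.1) ≤ X) :
    CSys (({x} : Finset (ℕ × ℝ)).image (lc (D.lev n v))) (D.L n) (D.lev n v)
      (clm (D.f n b) (D.lev n b) (D.lev n v)) (fun l => (D.b n b l.2).c)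
      (fun l => (D.b n b l.2).e) (fun l => (D.b n b l.2).w) (fun l => (D.b n b l.2).q)
      a W1 W2 B (128 * X) 0 := by
  refine csys_fin hlb hr ?_ ?_ ?_ ?_ ?_ ?_ (by simp)
  all_goals
    intro y hy
    rw [mem_singleton] at hy
    subst hy
  · exact hS
  · exact hI
  · exact ha
  · exact ⟨h1, h1'⟩
  · exact ⟨h2, h2'⟩
  · exact hX

theorem small_num {d s ξ lam t Bn Θ β Ccr : ℝ} (hd : 0 < d) (hs : 0 < s) (hs1 : s ≤ 1)
    (hξ8 : 8 * ξ ≤ 1) (ht : t = s ^ (-ξ)) (ht1 : 1 ≤ t) (hl : 1 ≤ lam) (hl' : lam ≤ t)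
    (hBn : Bn = d ^ (-β)) (hΘ : Θ = d ^ (-Ccr)) (hsC : s ≤ d ^ (4 * Ccr + 20 * β + 2))
    (h5 : 5000 * 128 ^ 2 ≤ d ^ (-(1 : ℝ))) :
    5000 * (128 * t * Θ * lam * Bn ^ 5) ^ 2 * s ≤ 1 := by
  have ht4 : t ^ 4 * s ≤ d ^ (2 * Ccr + 10 * β + 1) := by
    have e1 : t ^ 4 * s = s ^ (1 - 4 * ξ) := by
      rw [ht, ← Real.rpow_natCast, ← Real.rpow_mul hs.le]
      nth_rewrite 2 [← Real.rpow_one s]
      rw [← Real.rpow_add hs]
      congr 1; push_cast; ring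
    rw [e1]
    calc s ^ (1 - 4 * ξ) ≤ s ^ (1 / 2 : ℝ) :=
          Real.rpow_le_rpow_of_exponent_ge hs hs1 (by linarith)
      _ ≤ (d ^ (4 * Ccr + 20 * β + 2)) ^ (1 / 2 : ℝ) :=
          Real.rpow_le_rpow hs.le hsC (by norm_num)
      _ = _ := by
          rw [← Real.rpow_mul hd.le]; congr 1; ring
  have hBB : Bn ^ 10 = d ^ (-(10 * β)) := by
    rw [hBn, ← Real.rpow_natCast, ← Real.rpow_mul hd.le]; congr 1; push_cast; ring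
  have hCC : Θ ^ 2 = d ^ (-(2 * Ccr)) := by
    rw [hΘ, ← Real.rpow_natCast, ← Real.rpow_mul hd.le]; congr 1; push_cast; ring
  have hΘ0 : 0 < Θ := by rw [hΘ]; exact Real.rpow_pos_of_pos hd _
  have hB0 : 0 < Bn := by rw [hBn]; exact Real.rpow_pos_of_pos hd _
  have e1 := Real.rpow_pos_of_pos hd (-(2 * Ccr))
  have e2 := Real.rpow_pos_of_pos hd (-(10 * β))
  have e3 := Real.rpow_pos_of_pos hd (1:ℝ)
  have e4 : d ^ (-(1:ℝ)) * d ^ (1:ℝ) = 1 := by rw [← Real.rpow_add hd]; simp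
  have e5 : d ^ (-(2 * Ccr)) * d ^ (-(10 * β)) * d ^ (2 * Ccr + 10 * β + 1) = d ^ (1:ℝ) := by
    rw [← Real.rpow_add hd, ← Real.rpow_add hd]; congr 1; ring
  calc 5000 * (128 * t * Θ * lam * Bn ^ 5) ^ 2 * s ≤
        5000 * (128 * t * Θ * t * Bn ^ 5) ^ 2 * s := by gcongr
    _ = 5000 * 128 ^ 2 * (Θ ^ 2 * Bn ^ 10 * (t ^ 4 * s)) := by ring
    _ = 5000 * 128 ^ 2 * (d ^ (-(2 * Ccr)) * d ^ (-(10 * β)) * (t ^ 4 * s)) := by
        rw [hCC, hBB]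
    _ ≤ 5000 * 128 ^ 2 * (d ^ (-(2 * Ccr)) * d ^ (-(10 * β)) *
        d ^ (2 * Ccr + 10 * β + 1)) := by gcongr
    _ = 5000 * 128 ^ 2 * d ^ (1:ℝ) := by rw [e5]
    _ ≤ d ^ (-(1:ℝ)) * d ^ (1:ℝ) := by gcongr
    _ = 1 := e4

theorem two_le {u v y Bn : ℝ} (hu : 0 < u) (hy : 1 ≤ y) (h2 : y * 2 ≤ Bn) (h : v ≤ y * u) :
    u + v ≤ Bn * u := by
  nlinarith [mul_le_mul_of_nonneg_right h2 hu.le, mul_le_mul_of_nonneg_right hy hu.le]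

theorem max_B {u v y Bn : ℝ} (hu : 0 < u) (hB : 1 ≤ Bn) (hy : y ≤ Bn) (h : v ≤ y * u) :
    max u v ≤ Bn * u := by
  refine max_le ?_ (h.trans (mul_le_mul_of_nonneg_right hy hu.le))
  linarith [mul_le_mul_of_nonneg_right hB hu.le]

/-- comparison of the widths of two levels, both directions -/
theorem comp2 {η : ℝ} {p : Par4} {D : Dat4} (h : J1 η p D) {b c : ℚ} (hb0 : 0 ≤ b)
    (hb1 : b ≤ 1) (hc0 : 0 ≤ c) (hc1 : c ≤ 1) {Cw ε : ℝ} (hε : 0 < ε)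
    (hCj : ∀ j, |p.θ j| + 1 ≤ Cw) : ∀ᶠ n in (U : Filter ℕ), ∀ j : Fin 3,
      D.w j n b ≤ D.B.d n ^ (-(Cw * |(b:ℝ) - c|) - ε) * D.w j n c ∧
      D.w j n c ≤ D.B.d n ^ (-(Cw * |(b:ℝ) - c|) - ε) * D.w j n b := by
  rw [eventually_all]
  intro j
  have e1 := wid2 h.mka j (hCj j) hb0 hb1 hc0 hc1 hε
  have e2 := wid2 h.mka j (hCj j) hc0 hc1 hb0 hb1 hε
  rw [abs_sub_comm] at e2
  filter_upwards [e1, e2] with n h1 h2 using ⟨h1, h2⟩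

/-- numbers of the pair of marks: `a`, `W1`, `W2` against the single widths -/
theorem pair_num {y Bn u0 v0 u1 v1 u2 v2 : ℝ} (hy : 1 ≤ y) (h2 : y * 2 ≤ Bn)
    (pu0 : 0 < u0) (pv0 : 0 < v0) (pu1 : 0 < u1) (pv1 : 0 < v1) (pu2 : 0 < u2) (pv2 : 0 < v2)
    (k0 : u0 ≤ y * v0 ∧ v0 ≤ y * u0) (k1 : u1 ≤ y * v1 ∧ v1 ≤ y * u1)
    (k2 : u2 ≤ y * v2 ∧ v2 ≤ y * u2) :
    u0 + v0 ≤ Bn * u0 ∧ u0 + v0 ≤ Bn * v0 ∧
    (u1 ≤ max u1 v1 ∧ max u1 v1 ≤ Bn * u1 ∧ v1 ≤ max u1 v1 ∧ max u1 v1 ≤ Bn * v1) ∧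
    (u2 ≤ max u2 v2 ∧ max u2 v2 ≤ Bn * u2 ∧ v2 ≤ max u2 v2 ∧ max u2 v2 ≤ Bn * v2) := by
  have hB : 1 ≤ Bn := by linarith
  have hyB : y ≤ Bn := by linarith
  refine ⟨two_le pu0 hy h2 k0.2, ?_, ⟨le_max_left _ _, max_B pu1 hB hyB k1.2,
    le_max_right _ _, ?_⟩, ⟨le_max_left _ _, max_B pu2 hB hyB k2.2, le_max_right _ _, ?_⟩⟩
  · rw [add_comm]; exact two_le pv0 hy h2 k0.1
  · rw [max_comm]; exact max_B pv1 hB hyB k1.1
  · rw [max_comm]; exact max_B pv2 hB hyB k2.1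

/-- **small discrepancies** : if the tangent planes agree up to `d^(-Ccr)`, the two sheets agree at
every scale `s ≤ d^C''`. -/
theorem agree_small {η : ℝ} {p : Par4} {D : Dat4} (h : J1 η p D) {b c : ℚ} (hb0 : 0 ≤ b)
    (hb1 : b ≤ 1) (hc0 : 0 ≤ c) (hc1 : c ≤ 1) {K ξ : ℝ} (hK : 6500 ≤ K) (hξ : 0 ≤ ξ)
    (hξ8 : 8 * ξ ≤ 1) {Ccr : ℝ} (hC : 0 ≤ Ccr) :
    ∃ C'' : ℝ, 0 ≤ C'' ∧ ∀ᶠ n in (U : Filter ℕ), ∀ x ∈ D.I n, ∀ s lam : ℝ, 0 < s →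
      s ≤ D.B.d n ^ C'' → 1 ≤ lam → lam ≤ s ^ (-ξ) →
      CompC (s ^ (-ξ)) lam (mk4 D n b x) (mk4 D n c x) →
      Nr (D.B.d n ^ (-Ccr))
        (pfr (mk4 D n b x).q (mk4 D n b x).e (mk4 D n b x).w (D.L n x.1) (zx D n (max b c) x))
        (pfr (mk4 D n c x).q (mk4 D n c x).e (mk4 D n c x).w (D.L n x.1) (zx D n (max b c) x))
        ((mk4 D n b x).a + (mk4 D n c x).a) ((mk4 D n b x).w 1) ((mk4 D n b x).w 2) →
      K * ((mk4 D n b x).a + (mk4 D n c x).a) ≤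
        kapP (mk4 D n b x) (zx D n b x) (rh D n b) (D.L n x.1) →
      kapP (mk4 D n b x) (zx D n b x) (rh D n b) (D.L n x.1) ≤
        s ^ (-ξ) * ((mk4 D n b x).a + (mk4 D n c x).a) →
      kapP (mk4 D n c x) (zx D n c x) (rh D n c) (D.L n x.1) ≤
        s ^ (-ξ) * ((mk4 D n b x).a + (mk4 D n c x).a) →
      Agree (K * ((mk4 D n b x).a + (mk4 D n c x).a))
        (s ^ (-K) * ((mk4 D n b x).a + (mk4 D n c x).a)) s lam (mk4 D n b x) (mk4 D n c x)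
        (D.L n x.1) (zx D n (max b c) x) (rh D n (max b c)) := by
  obtain ⟨Cw, hCw⟩ : ∃ Cw, Cw = |p.θ 0| + |p.θ 1| + |p.θ 2| + 1 := ⟨_, rfl⟩
  have t0 := abs_nonneg (p.θ 0)
  have t1 := abs_nonneg (p.θ 1)
  have t2 := abs_nonneg (p.θ 2)
  have hCj : ∀ j, |p.θ j| + 1 ≤ Cw := by
    intro j
    fin_cases j <;> simp only [hCw] <;> simp <;> linarith
  have hCw0 : 0 ≤ Cw := by rw [hCw]; positivity
  obtain ⟨δ, hδ⟩ : ∃ δ, δ = |(b:ℝ) - c| := ⟨_, rfl⟩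
  have hδ0 : 0 ≤ δ := by rw [hδ]; exact abs_nonneg _
  obtain ⟨β, hβ⟩ : ∃ β, β = Cw * δ + 1 := ⟨_, rfl⟩
  have hβ0 : 0 ≤ β := by rw [hβ]; positivity
  have comp := comp2 h hb0 hb1 hc0 hc1 (by norm_num : (0:ℝ) < 1 / 2) hCj
  rw [← hδ] at comp
  refine ⟨4 * Ccr + 20 * β + 2, by positivity, ?_⟩
  filter_upwards [mark_facts h hb0 hb1, mark_facts h hc0 hc1, comp,
    h.mka.lev_mono b (max b c) hb0 (le_max_left _ _) (max_le hb1 hc1),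
    h.mka.lev_mono c (max b c) hc0 (le_max_right _ _) (max_le hb1 hc1),
    const_le D.B 2 (by norm_num : (0:ℝ) < 1 / 2), const_le D.B (5000 * 128 ^ 2) one_pos,
    h.mka.wpos 0 b hb0 hb1, h.mka.wpos 0 c hc0 hc1, h.mka.wpos 1 b hb0 hb1,
    h.mka.wpos 2 b hb0 hb1, h.mka.wpos 1 c hc0 hc1, h.mka.wpos 2 c hc0 hc1]
    with n mb mc kk lb lc' h2 h5000 pb0 pc0 pb1 pb2 pc1 pc2 x hx s lam hs hsC hl hl' hcomp nr
      hKb hkb hkc
  obtain ⟨S1, I1, a1, w11, w12⟩ := mb x hx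
  obtain ⟨S2, I2, a2, w21, w22⟩ := mc x hx
  have hd := D.B.pos n
  -- the numbers
  obtain ⟨Bn, hBn⟩ : ∃ Bn, Bn = D.B.d n ^ (-β) := ⟨_, rfl⟩
  obtain ⟨y, hy⟩ : ∃ y, y = D.B.d n ^ (-(Cw * δ) - 1 / 2) := ⟨_, rfl⟩
  have hx1 : 1 ≤ y := by
    rw [hy]
    have := dpow_le D.B n (show -(Cw * δ) - 1 / 2 ≤ 0 by
      have := mul_nonneg hCw0 hδ0
      linarith)
    rwa [Real.rpow_zero] at this
  have hx2 : y * 2 ≤ Bn := by
    have e1 : Bn = y * D.B.d n ^ (-(1 / 2 : ℝ)) := by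
      rw [hBn, hy, ← dpow_add]; congr 1; rw [hβ]; ring
    rw [e1]
    gcongr
  have hB1 : 1 ≤ Bn := by linarith
  rw [← hy] at kk
  obtain ⟨aw, aw', ⟨r1, r1', r3, r3'⟩, r2, r2', r4, r4'⟩ :=
    pair_num hx1 hx2 pb0 pc0 pb1 pc1 pb2 pc2 (kk 0) (kk 1) (kk 2)
  obtain ⟨W1, hW1⟩ : ∃ W1, W1 = max (D.w 1 n b) (D.w 1 n c) := ⟨_, rfl⟩
  obtain ⟨W2, hW2⟩ : ∃ W2, W2 = max (D.w 2 n b) (D.w 2 n c) := ⟨_, rfl⟩
  rw [← hW1] at r1 r1' r3 r3'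
  rw [← hW2] at r2 r2' r4 r4'
  rw [← w11] at r1 r1'
  rw [← w12] at r2 r2'
  rw [← w21] at r3 r3'
  rw [← w22] at r4 r4'
  rw [← a1, ← a2] at aw aw'
  rw [← a1] at pb0
  rw [← a2] at pc0
  obtain ⟨a, ha⟩ : ∃ a, a = (mk4 D n b x).a + (mk4 D n c x).a := ⟨_, rfl⟩
  have apos : 0 < a := by rw [ha]; exact add_pos pb0 pc0
  have ab : (mk4 D n b x).a ≤ a := by rw [ha]; linarith
  have ac : (mk4 D n c x).a ≤ a := by rw [ha]; linarith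
  rw [← ha] at nr hKb hkb hkc aw aw' ⊢
  have aw0 : a ≤ Bn * (mk4 D n b x).w 0 := aw.trans (by have := S1.a_le0; gcongr)
  have aw0' : a ≤ Bn * (mk4 D n c x).w 0 := aw'.trans (by have := S2.a_le0; gcongr)
  have hw0 : 0 < (mk4 D n b x).w 0 := (h.r0pos n).trans_le (S1.r0_le.trans S1.a_le0)
  have hρ : 0 < rh D n b := rho_pos' _
  have k13 := kapP_le S1 hw0 hρ I1
  have hKa : 6500 * a ≤ K * a := mul_le_mul_of_nonneg_right hK apos.le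
  have h500 : 500 * a ≤ (mk4 D n b x).w 0 := by linarith
  have c1 := pair_sys (v := max b c) (x := x) lb (h.r0pos n) S1 I1 ab r1 r1' r2 r2' hkb
  have c2 := pair_sys (v := max b c) (x := x) lc' (h.r0pos n) S2 I2 ac r3 r3' r4 r4' hkc
  -- powers of `s`
  have hs1 : s ≤ 1 := hsC.trans (by
    have := dpow_le D.B n (show (0:ℝ) ≤ 4 * Ccr + 20 * β + 2 by positivity)
    rwa [Real.rpow_zero] at this)
  obtain ⟨t, ht⟩ : ∃ t, t = s ^ (-ξ) := ⟨_, rfl⟩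
  have ht1 : 1 ≤ t := by
    rw [ht]
    exact Real.one_le_rpow_of_pos_of_le_one_of_nonpos hs hs1 (by linarith)
  rw [← ht] at hl' hcomp hkb hkc c1 c2
  have ov : lc (D.lev n (max b c)) x ∈ ({x} : Finset (ℕ × ℝ)).image (lc (D.lev n (max b c))) :=
    mem_image_of_mem _ (mem_singleton_self _)
  have hΘ : 1 ≤ D.B.d n ^ (-Ccr) := by
    have := dpow_le D.B n (show -Ccr ≤ 0 by linarith)
    rwa [Real.rpow_zero] at this
  have hsm := small_num (lam := lam) hd hs hs1 hξ8 ht ht1 hl hl' hBn rfl hsC h5000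
  have hs2 : s⁻¹ * a ≤ s ^ (-K) * a := by
    have e1 : s⁻¹ = s ^ (-1 : ℝ) := by rw [Real.rpow_neg_one]
    rw [e1]
    have : s ^ (-1 : ℝ) ≤ s ^ (-K) :=
      Real.rpow_le_rpow_of_exponent_ge hs hs1 (by linarith)
    gcongr
  exact agree_obj2 (b := fun l : ℤ × ℕ => D.b n b l.2) (b' := fun l : ℤ × ℕ => D.b n c l.2)
    (E := 128 * t) (Θ := D.B.d n ^ (-Ccr)) (s := s) (lam := lam) (A' := K * a)
    (E' := s ^ (-K) * a) c1 c2 ov (clm_mk4 D n lb x) (clm_mk4 D n lc' x) apos (by linarith)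
    (by rw [mul_assoc]) hΘ hB1 hl aw0 aw0' nr (hcomp.g' 2 (by decide)) (hcomp.g 2 (by decide)) ab
    ac hs hsm h500 (by linarith) hs2

end Crest.Agent.R136.Csj535
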