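import Mathlib
import Crest.Agent.R136.Asy5_51
import Crest.Agent.R136.Asm4_102
import Crest.Agent.R136.Csj6_535

/-!
# R136 (U5 TILT), last assembly, part 6: `Tilt4C` (helper51)

`tilt4C_of` : `Tilt4C kapP` from [MID], (3.0) and the crude tilt; the deep count (helper904), the capture
theorem (helper102) and the selection are inside.
-/

set_option autoImplicit false
set_option linter.unusedVariables false

open Finset Filter Topology

namespace Crest.Agent.R136.Asy51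

open Crest.Agent.R138.Ex926 (Base U)
open Crest.Agent.R138.Dp76 (Dense dense_of_sub dpow_pos dpow_add)
open Crest.Agent.R138.Mk163 (zc zl rho Negl)
open Crest.Agent.R136.MkA627 Crest.Agent.R136.Sh605 Crest.Agent.R136.K4 Crest.Agent.R136.Top484
open Crest.Agent.R136.Deep51 (CoinC CloseC CoinC.anti)
open Crest.Agent.R136.Tlt51 (Shp InP CompC Agree mk4 zx rh TiltOKC cx MidC NonDeg Tilt4C)
open Crest.Agent.R136.Tl102 Crest.Agent.R136.KapP335 Crest.Agent.R136.Cps605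
open Crest.Agent.R136.Eng904 (Core core_seq)
open Crest.Agent.R136.Csj535 (MidN CrudeN)

/-- **crude tilt**, curved form (helper705 / helper102) -/
def CrudeC (D : Dat4) : Prop :=
  ∀ b c : ℚ, 0 ≤ b → b ≤ 1 → 0 ≤ c → c ≤ 1 → b ≠ c → ∃ C : ℝ, 0 ≤ C ∧
    Negl D.B D.I (CrudeAt D C b c)

/-- the parameters are small enough -/
theorem par_num {K Cc η q0 q1 q2 g : ℝ} (hK : 1 ≤ K) (hCc : 1 ≤ Cc) (hKC : Cc ≤ K)
    (hη : 0 < η) (hηK : 2 ^ 14 * (K * η) ≤ 1) (h0 : 0 ≤ q0) (h0' : q0 ≤ η * q2) (h2 : 0 < q2)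
    (h2' : q2 ≤ η * g) (hg : 0 < g) (hg' : g ≤ η * q1) (hgq : g ^ 2 ≤ η * (q1 * q2)) :
    0 < K * Real.sqrt (q2 / q1) ∧ K * Real.sqrt (q2 / q1) ≤ 1 ∧
      16 * (g + q0) + 16 * q2 ≤ q1 ∧ 64 * (g + q0) ≤ q1 * (K * Real.sqrt (q2 / q1) / Cc) := by
  have hη1 : 2 ^ 14 * η ≤ 1 := by nlinarith
  have hq1 : 0 < q1 := by
    by_contra hcon
    push Not at hcon
    have : η * q1 ≤ 0 := mul_nonpos_of_nonneg_of_nonpos hη.le hcon
    linarith
  have hgq1 : 2 ^ 14 * g ≤ q1 := by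
    calc 2 ^ 14 * g ≤ 2 ^ 14 * (η * q1) := by linarith
      _ = (2 ^ 14 * η) * q1 := by ring
      _ ≤ 1 * q1 := mul_le_mul_of_nonneg_right hη1 hq1.le
      _ = q1 := one_mul _
  have hq2g : 2 ^ 14 * q2 ≤ g := by
    calc 2 ^ 14 * q2 ≤ 2 ^ 14 * (η * g) := by linarith
      _ = (2 ^ 14 * η) * g := by ring
      _ ≤ 1 * g := mul_le_mul_of_nonneg_right hη1 hg.le
      _ = g := one_mul _
  have hq0q2 : 2 ^ 14 * q0 ≤ q2 := by
    calc 2 ^ 14 * q0 ≤ 2 ^ 14 * (η * q2) := by linarith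
      _ = (2 ^ 14 * η) * q2 := by ring
      _ ≤ 1 * q2 := mul_le_mul_of_nonneg_right hη1 h2.le
      _ = q2 := one_mul _
  have hr : 0 < q2 / q1 := div_pos h2 hq1
  have hs : 0 < Real.sqrt (q2 / q1) := Real.sqrt_pos.2 hr
  have hss : Real.sqrt (q2 / q1) ^ 2 = q2 / q1 := Real.sq_sqrt hr.le
  have hq12 : q2 ≤ η ^ 2 * q1 := by
    calc q2 ≤ η * g := h2'
      _ ≤ η * (η * q1) := mul_le_mul_of_nonneg_left hg' hη.le
      _ = _ := by ring
  have hsη : Real.sqrt (q2 / q1) ≤ η := by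
    rw [show η = Real.sqrt (η ^ 2) from (Real.sqrt_sq hη.le).symm]
    refine Real.sqrt_le_sqrt ?_
    rw [div_le_iff₀ hq1]; exact hq12
  have hKη : K * η ≤ 1 := by
    have : 0 < K * η := by positivity
    linarith
  refine ⟨by positivity, (mul_le_mul_of_nonneg_left hsη (by linarith)).trans hKη, by linarith, ?_⟩
  -- `128 g ≤ q1 √(q2/q1) K / Cc`
  have hKCc : 1 ≤ K / Cc := by rw [le_div_iff₀ (by linarith)]; linarith
  have hqs : 0 < q1 * Real.sqrt (q2 / q1) := mul_pos hq1 hs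
  have e1 : (q1 * Real.sqrt (q2 / q1)) ^ 2 = q1 * q2 := by
    rw [mul_pow, hss]; field_simp
  have hg128 : (128 * g) ^ 2 ≤ (q1 * Real.sqrt (q2 / q1)) ^ 2 := by
    rw [e1]
    have h1 : (128 * g) ^ 2 = 2 ^ 14 * g ^ 2 := by ring
    rw [h1]
    calc 2 ^ 14 * g ^ 2 ≤ 2 ^ 14 * (η * (q1 * q2)) := by linarith
      _ = (2 ^ 14 * η) * (q1 * q2) := by ring
      _ ≤ 1 * (q1 * q2) := mul_le_mul_of_nonneg_right hη1 (by positivity)
      _ = _ := one_mul _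
  have h128 : 128 * g ≤ q1 * Real.sqrt (q2 / q1) :=
    (abs_le_of_sq_le_sq' hg128 hqs.le).2
  calc 64 * (g + q0) ≤ 128 * g := by linarith
    _ ≤ q1 * Real.sqrt (q2 / q1) := h128
    _ ≤ (q1 * Real.sqrt (q2 / q1)) * (K / Cc) := le_mul_of_one_le_right hqs.le hKCc
    _ = _ := by ring

/-- **TILT for curved pairs** from [MID], (3.0) and the crude tilt -/
theorem tilt4C_of (hmid : MidC kapP) (hnd : NonDeg kapP DetP)
    (hdeep : ∀ (η : ℝ) (p : Par4) (D : Dat4), J1 η p D →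
      Crest.Agent.R136.Dia770.DeepP D.B D.I (D.G p) D.lev D.A p.g D.r0)
    (hcr : ∃ η : ℝ, 0 < η ∧ ∀ (p : Par4) (D : Dat4), J1 η p D → CrudeC D) : Tilt4C kapP := by
  obtain ⟨K0, hK0, hmid⟩ := hmid
  obtain ⟨ηn, hηn, hnd⟩ := hnd
  obtain ⟨ηc, hηc, hcr⟩ := hcr
  obtain ⟨Cc, hCc, N, hN, hcurv⟩ := hcap_curv'
  set K : ℝ := max K0 (max Cc (10 ^ 6)) with hK
  have hKK0 : K0 ≤ K := le_max_left _ _
  have hKC : Cc ≤ K := (le_max_left _ _).trans (le_max_right _ _)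
  have hK6 : 10 ^ 6 ≤ K := (le_max_right _ _).trans (le_max_right _ _)
  have hK1 : 1 ≤ K := by linarith
  obtain ⟨ηm, hηm, hmid⟩ := hmid K hKK0
  set η : ℝ := min (min ηm ηn) (min ηc (1 / (2 ^ 14 * K))) with hη
  have hη0 : 0 < η := lt_min (lt_min hηm hηn) (lt_min hηc (by positivity))
  have hηK : 2 ^ 14 * (K * η) ≤ 1 := by
    have : η ≤ 1 / (2 ^ 14 * K) := (min_le_right _ _).trans (min_le_right _ _)
    calc 2 ^ 14 * (K * η) = (2 ^ 14 * K) * η := by ring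
      _ ≤ (2 ^ 14 * K) * (1 / (2 ^ 14 * K)) := mul_le_mul_of_nonneg_left this (by positivity)
      _ = 1 := by field_simp
  refine ⟨η, hη0, fun p D hJ => ?_⟩
  obtain ⟨hq0, hq1, hq2, hg⟩ : 0 ≤ p.q 0 ∧ 0 < p.q 1 ∧ 0 < p.q 2 ∧ 0 < p.g :=
    ⟨hJ.q0.1, hJ.g0.2, hJ.q2.1, hJ.g0.1⟩
  have hg1 : p.g ≤ η * p.q 1 := hJ.g1
  obtain ⟨n0, n1, n2, n3⟩ := par_num hK1 hCc hKC hη0 hηK hJ.q0.1 hJ.q0.2 hJ.q2.1 hJ.q2.2 hg
    hg1 hJ.gq
  have hJm := J1_mono hJ hη0 ((min_le_left _ _).trans (min_le_left _ _))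
  have hJn := J1_mono hJ hη0 ((min_le_left _ _).trans (min_le_right _ _))
  have hJc := J1_mono hJ hη0 ((min_le_right _ _).trans (min_le_left _ _))
  obtain ⟨Cw, hCw, hpair⟩ := pair_of hJ
  obtain ⟨C, hC, hcore⟩ := core_seq hJ (hdeep η p D hJ) (Cin := 2 * Cw) (by linarith)
  obtain ⟨Cm, hCm, hmid⟩ := hmid p D hJm
  have hnd := hnd p D hJn
  have hcr := hcr p D hJc
  have he0 : 0 < cx K p / Cc := div_pos n0 (by linarith)
  have hq1' : 0 < 2 / p.q 1 := by positivity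
  set X : ℝ := (1 + 2 / p.q 1) * C ^ 2 + 2 * Cw with hX
  have hX0 : 0 ≤ X := by positivity
  set C1 : ℝ := X / (cx K p / Cc) + Cm with hC1
  have hXe : 0 ≤ X / (cx K p / Cc) := div_nonneg hX0 he0.le
  have hC10 : 0 ≤ C1 := by rw [hC1]; linarith
  have hC1m : Cm ≤ C1 := by rw [hC1]; linarith
  have hC1X : X ≤ cx K p / Cc * C1 := by
    rw [hC1, mul_add]
    have e1 : cx K p / Cc * (X / (cx K p / Cc)) = X := by
      rw [mul_comm, div_mul_cancel₀ _ he0.ne']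
    have e2 : 0 ≤ cx K p / Cc * Cm := mul_nonneg he0.le hCm
    linarith
  refine ⟨(K + 1) * C1, by positivity, ?_⟩
  intro u v hu huv hv ε hε
  have hv0 : 0 ≤ v := hu.trans huv.le
  have hu1 : u ≤ 1 := huv.le.trans hv
  have hK2 : 0 < K + 1 := by linarith
  have huv' : (u:ℝ) < v := by exact_mod_cast huv
  have main : ∀ b c : ℚ, 0 ≤ b → b ≤ 1 → 0 ≤ c → c ≤ 1 → (b = v ∧ c = u) ∨ (b = u ∧ c = v) →
      Negl D.B D.I fun n x =>
      (D.B.d n ^ (-(C1 * ((v:ℝ) - u) + ε / (K + 1)))) ^ (K + 1) *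
        max (D.w 0 n u) (D.w 0 n v) ≤ kpm D n b x ∧
      kpm D n c x ≤ kpm D n b x ∧
      ¬ TiltOKC D ((D.B.d n ^ (-(C1 * ((v:ℝ) - u) + ε / (K + 1)))) ^ (K + 1)) u v n x := by
    intro b c hb0 hb1 hc0 hc1 hbc
    have hne : b ≠ c := by
      rcases hbc with ⟨rfl, rfl⟩ | ⟨rfl, rfl⟩
      · exact huv.ne'
      · exact huv.ne
    have hδ : |(b:ℝ) - c| = (v:ℝ) - u := by
      rcases hbc with ⟨rfl, rfl⟩ | ⟨rfl, rfl⟩
      · exact abs_of_pos (by linarith)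
      · rw [abs_sub_comm]; exact abs_of_pos (by linarith)
    obtain ⟨Ccr, hCcr, hcr⟩ := hcr b c hb0 hb1 hc0 hc1 hne
    refine tilt_pair (Cw := Cw) (C := C) (Cm := Cm) (Ccr := Ccr) huv hbc (by linarith) hN hCc
      hcurv hKC hK6 hq0 hq1 hq2 hg n0 n1 n2 n3 hJ.r0pos hJ.mka.ne ?_ hCw ?_ hC ?_ ?_ hCcr hcr ?_ hC1X
      hC1m hC10 (by positivity)
    · filter_upwards [hJ.mka.wpos 0 b hb0 hb1, hJ.mka.wpos 0 c hc0 hc1] with n k1 k2
      exact ⟨k1, k2⟩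
    · intro ε' hε'
      have := hpair b c hb0 hb1 hc0 hc1 ε' hε'
      rwa [hδ] at this
    · intro ε' hε' J hJ' s lam τ θ A N' g1 g2 g3 g4 g5
      have := hcore b c hb0 hb1 hc0 hc1 ε' hε' J hJ' s lam τ θ A N' g1 g2 (by rw [hδ]; exact g3) g4 g5
      rwa [hδ] at this
    · intro ε' hε'
      have := hmid b c hb0 hb1 hc0 hc1 hne ε' hε'
      rw [hδ] at this
      exact this
    · intro ε' hε'
      exact hnd b hb0 hb1 ε' hε'
  have h1 := main v u hv0 hv hu hu1 (Or.inl ⟨rfl, rfl⟩)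
  have h2 := main u v hu hu1 hv0 hv (Or.inr ⟨rfl, rfl⟩)
  have hE : ∀ n, (D.B.d n ^ (-(C1 * ((v:ℝ) - u) + ε / (K + 1)))) ^ (K + 1) =
      D.B.d n ^ (-((K + 1) * C1 * ((v:ℝ) - u)) - ε) := by
    intro n
    rw [← Real.rpow_mul (D.B.pos n).le]
    congr 1
    field_simp
    ring
  refine (h1.or h2).mono (Eventually.of_forall fun n x hx hP => ?_)
  obtain ⟨k1, k2⟩ := hP
  rw [← hE n] at k1 k2
  rcases le_total (kpm D n u x) (kpm D n v x) with h | h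
  · left
    refine ⟨?_, h, k2⟩
    have : max (kpm D n v x) (kpm D n u x) = kpm D n v x := max_eq_left h
    exact k1.trans this.le
  · right
    refine ⟨?_, h, k2⟩
    have : max (kpm D n v x) (kpm D n u x) = kpm D n u x := max_eq_right h
    exact k1.trans this.le

/-- [MID] from helper535's form -/
theorem midC_of (h : MidN kapP)
    (hc : ∃ η : ℝ, 0 < η ∧ ∀ (p : Par4) (D : Dat4), J1 η p D → CrudeN D) : MidC kapP := by
  obtain ⟨K0, hK0, h⟩ := h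
  obtain ⟨ηc, hηc, hc⟩ := hc
  refine ⟨K0, hK0, fun K hK => ?_⟩
  obtain ⟨ηm, hηm, h⟩ := h K hK
  have hm : 0 < min ηm ηc := lt_min hηm hηc
  refine ⟨min ηm ηc, hm, fun p D hJ => ?_⟩
  exact h p D (J1_mono hJ hm (min_le_left _ _)) (hc p D (J1_mono hJ hm (min_le_right _ _)))

end Crest.Agent.R136.Asy51
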