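import Crest.Agent.R136.Qg7_926

/-!
# R136: raw twist of windows (helper480), part 1

* `IsLoss` : admissible losses (powers of `1 + L` and of countably many given losses).
* `Tw W F s Mx` : **raw twist** of the window `W` in the flag slots `F ⊆ S`: on every fat line, seen
  from each of its incidences, the heights whose flags `F` are within `ρ ^ ε` are fewer than the
  average number of heights of a line divided by any admissible loss.
* `ZWin.exists_tw` : strict drop of the profile in the flags `F` at the blow-up points gives a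
  choice of the good incidences such that all classes inside have raw twist.
-/

set_option autoImplicit false
set_option linter.unusedSectionVars false
set_option linter.unusedVariables false

open Filter Topology

namespace Crest.Agent.R136.Qg4480

open Finset Crest.Agent.R138.Ex926 Crest.Agent.R136.Net191 Crest.Agent.R136.Gf356
open Crest.Agent.R136.Qg926

/-! ### losses -/

/-- the basic losses -/
noncomputable def lossP (L : ℕ → ℝ) (s : ℕ → ℕ → ℝ) (K n : ℕ) : ℝ :=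
  (1 + L n) * ∏ i ∈ range K, (1 + |s i n|)

/-- **admissible losses**: at most a power of `1 + L` and of finitely many of the `s i` -/
def IsLoss (B' : Base) (s : ℕ → ℕ → ℝ) (c : ℕ → ℝ) : Prop :=
  ∃ K a : ℕ, ∀ᶠ n in (U : Filter ℕ), c n ≤ lossP B'.L s K n ^ a

theorem one_le_prod_of {α : Type*} (A : Finset α) (f : α → ℝ) (h : ∀ a ∈ A, 1 ≤ f a) :
    1 ≤ ∏ a ∈ A, f a :=
  Finset.prod_induction f (fun x => 1 ≤ x) (fun a b ha hb => by nlinarith) le_rfl h

theorem one_le_prod_abs (s : ℕ → ℕ → ℝ) (K n : ℕ) : 1 ≤ ∏ i ∈ range K, (1 + |s i n|) :=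
  one_le_prod_of _ _ fun i _ => by linarith [abs_nonneg (s i n)]

theorem one_le_lossP (B' : Base) (s : ℕ → ℕ → ℝ) (K n : ℕ) : 1 ≤ lossP B'.L s K n := by
  have h1 := one_le_prod_abs s K n
  have h2 := B'.L_pos n
  unfold lossP
  nlinarith

theorem prod_abs_mono (s : ℕ → ℕ → ℝ) {K K' : ℕ} (h : K ≤ K') (n : ℕ) :
    ∏ i ∈ range K, (1 + |s i n|) ≤ ∏ i ∈ range K', (1 + |s i n|) := by
  obtain ⟨r, rfl⟩ := Nat.exists_eq_add_of_le h
  rw [Finset.prod_range_add]
  have h1 := one_le_prod_abs s K n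
  have h2 : 1 ≤ ∏ x ∈ range r, (1 + |s (K + x) n|) :=
    one_le_prod_of _ _ fun i _ => by linarith [abs_nonneg (s (K + i) n)]
  nlinarith

theorem lossP_mono (B' : Base) (s : ℕ → ℕ → ℝ) {K K' : ℕ} (h : K ≤ K') (n : ℕ) :
    lossP B'.L s K n ≤ lossP B'.L s K' n := by
  have h1 := prod_abs_mono s h n
  have h2 := B'.L_pos n
  unfold lossP
  exact mul_le_mul_of_nonneg_left h1 (by linarith)

theorem lossP_pow_mono (B' : Base) (s : ℕ → ℕ → ℝ) {K K' a a' : ℕ} (h : K ≤ K') (ha : a ≤ a')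
    (n : ℕ) : lossP B'.L s K n ^ a ≤ lossP B'.L s K' n ^ a' :=
  (pow_le_pow_right₀ (one_le_lossP B' s K n) ha).trans
    (pow_le_pow_left₀ (by linarith [one_le_lossP B' s K n]) (lossP_mono B' s h n) _)

variable {B' : Base} {s : ℕ → ℕ → ℝ} {c c' : ℕ → ℝ}

theorem IsLoss.mono (h : IsLoss B' s c) (hc : ∀ᶠ n in (U : Filter ℕ), c' n ≤ c n) :
    IsLoss B' s c' := by
  obtain ⟨K, a, h1⟩ := h
  exact ⟨K, a, by filter_upwards [h1, hc] with n h1 h2 using h2.trans h1⟩

theorem IsLoss.mul (h : IsLoss B' s c) (h' : IsLoss B' s c')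
    (h0 : ∀ᶠ n in (U : Filter ℕ), 0 ≤ c' n) : IsLoss B' s (fun n => c n * c' n) := by
  obtain ⟨K, a, h1⟩ := h
  obtain ⟨K', a', h2⟩ := h'
  refine ⟨max K K', a + a', ?_⟩
  filter_upwards [h1, h2, h0] with n h1 h2 h3
  rw [pow_add]
  have e1 := h1.trans (lossP_pow_mono B' s (le_max_left K K') (le_refl a) n)
  have e2 := h2.trans (lossP_pow_mono B' s (le_max_right K K') (le_refl a') n)
  have e3 : 0 ≤ lossP B'.L s (max K K') n ^ a :=
    pow_nonneg (by linarith [one_le_lossP B' s (max K K') n]) _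
  exact mul_le_mul e1 e2 h3 e3

theorem IsLoss.one_add_L : IsLoss B' s (fun n => 1 + B'.L n) :=
  ⟨0, 1, Eventually.of_forall fun n => by simp [lossP]⟩

theorem IsLoss.const (r : ℝ) : IsLoss B' s (fun _ => r) := by
  refine ⟨0, 1, ?_⟩
  filter_upwards [B'.ev_L_ge r] with n hn
  simp only [lossP, range_zero, prod_empty, mul_one, pow_one]
  linarith

theorem IsLoss.base (j : ℕ) : IsLoss B' s (s j) := by
  refine ⟨j + 1, 1, Eventually.of_forall fun n => ?_⟩
  rw [pow_one]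
  unfold lossP
  rw [prod_range_succ]
  have h1 := one_le_prod_abs s j n
  have h2 := B'.L_pos n
  have h3 := abs_nonneg (s j n)
  have h4 := le_abs_self (s j n)
  have h5 : 1 + |s j n| ≤ (∏ i ∈ range j, (1 + |s i n|)) * (1 + |s j n|) := by nlinarith
  have h6 : (∏ i ∈ range j, (1 + |s i n|)) * (1 + |s j n|) ≤
      (1 + B'.L n) * ((∏ i ∈ range j, (1 + |s i n|)) * (1 + |s j n|)) := by nlinarith
  linarith

theorem IsLoss.pow (h : IsLoss B' s c) (h0 : ∀ᶠ n in (U : Filter ℕ), 0 ≤ c n) (r : ℕ) :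
    IsLoss B' s (fun n => c n ^ r) := by
  obtain ⟨K, a, h1⟩ := h
  refine ⟨K, a * r, ?_⟩
  filter_upwards [h1, h0] with n h1 h2
  rw [pow_mul]
  exact pow_le_pow_left₀ h2 h1 r

/-- losses are beaten by every power -/
theorem ev_loss (B : Base) {s : ℕ → ℕ → ℝ} (hs : ∀ i, B.Sub (s i)) {w : ℝ} (hw : 0 < w)
    (K a : ℕ) (N : ℝ) (hN : 0 < N) {ε : ℝ} (hε : 0 < ε) : ∀ᶠ n in (U : Filter ℕ),
      ((1 + w * B.L n) * ∏ i ∈ range K, (1 + |s i n|)) ^ a * N ≤ B.d n ^ (-ε) := by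
  set δ : ℝ := ε / (((K : ℝ) + 1) * a + 1) with hδ
  have hδ0 : 0 < δ := by positivity
  have h1 : ∀ᶠ n in (U : Filter ℕ), ∀ i ∈ range K, 1 + |s i n| ≤ B.d n ^ (-δ) := by
    rw [Filter.eventually_all_finset]
    intro i _
    filter_upwards [(hs i).ev_le (ε := δ / 2) (by positivity),
      ev_const_le B (c := 2) two_pos (ε := δ / 2) (by positivity)] with n h2 h3
    have h4 : s i n ≤ B.d n ^ (-(δ / 2)) := by
      rw [← B.exp_eq, ← Real.log_le_iff_le_exp h2.1]
      exact h2.2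
    have h5 : 1 ≤ B.d n ^ (-(δ / 2)) := by linarith
    have e1 : B.d n ^ (-δ) = B.d n ^ (-(δ / 2)) * B.d n ^ (-(δ / 2)) := by
      rw [← Real.rpow_add (B.pos n)]; congr 1; ring
    rw [abs_of_pos h2.1, e1]
    nlinarith
  have h2 : ∀ᶠ n in (U : Filter ℕ), 1 + w * B.L n ≤ B.d n ^ (-δ) := by
    have hS : B.Sub (fun n => (1 + w) * (1 + B.L n)) :=
      (Base.Sub.const (by positivity)).mul Base.Sub.one_add_L
    filter_upwards [hS.ev_le hδ0] with n hn
    have hL := B.L_pos n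
    have h4 : (1 + w) * (1 + B.L n) ≤ B.d n ^ (-δ) := by
      rw [← B.exp_eq, ← Real.log_le_iff_le_exp hn.1]
      exact hn.2
    nlinarith
  filter_upwards [h1, h2, ev_const_le B hN hδ0] with n h1 h2 h3
  have hL := B.L_pos n
  have hd := Real.rpow_pos_of_pos (B.pos n) (-δ)
  have h4 : ∏ i ∈ range K, (1 + |s i n|) ≤ (B.d n ^ (-δ)) ^ K := by
    calc ∏ i ∈ range K, (1 + |s i n|) ≤ ∏ i ∈ range K, B.d n ^ (-δ) :=
          Finset.prod_le_prod (fun i _ => by linarith [abs_nonneg (s i n)]) h1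
      _ = _ := by rw [prod_const, card_range]
  have h5 : (1 + w * B.L n) * ∏ i ∈ range K, (1 + |s i n|) ≤ (B.d n ^ (-δ)) ^ (K + 1) := by
    rw [pow_succ, mul_comm ((B.d n ^ (-δ)) ^ K)]
    exact mul_le_mul h2 h4 (by linarith [one_le_prod_abs s K n]) hd.le
  have h6 : 0 ≤ (1 + w * B.L n) * ∏ i ∈ range K, (1 + |s i n|) :=
    mul_nonneg (by positivity) (by linarith [one_le_prod_abs s K n])
  calc _ ≤ ((B.d n ^ (-δ)) ^ (K + 1)) ^ a * B.d n ^ (-δ) :=
        mul_le_mul (pow_le_pow_left₀ h6 h5 a) h3 hN.le (by positivity)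
    _ = B.d n ^ (-ε) := by
        rw [← pow_mul, ← Real.rpow_natCast, ← Real.rpow_mul (B.pos n).le,
          ← Real.rpow_add (B.pos n)]
        congr 1
        rw [hδ]
        push_cast
        field_simp
        ring

/-! ### raw twist -/

variable {m : ℕ} {ι : ℕ → Type*} [∀ n, DecidableEq (ι n)]

/-- the level direction `e` in the slots `F`, `0` elsewhere -/
noncomputable def ind (F : Finset (Fin m)) (e : ℝ) : Fin m → ℝ := fun s => if s ∈ F then e else 0

open Classical in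
/-- the incidences of the class on the fat line of `i` whose flags `F` are within `ρ ^ ε` of those
of `i` -/
noncomputable def nearF (W : Wnd m ι) (F : Finset (Fin m)) (n : ℕ) (ε : ℝ) (i : ι n) :
    Finset (ι n) :=
  (W.Cl n).filter fun j => W.lc n j = W.lc n i ∧ ∀ k ∈ F, |W.crd n i j k| ≤ W.B'.d n ^ ε

/-- **raw twist of a window** in the flag slots `F`; `s` = losses, `Mx` = multiplicity scale of the
pairs (fat line, height) -/
structure Tw (W : Wnd m ι) (F : Finset (Fin m)) (s : ℕ → ℕ → ℝ) (Mx : ℕ → ℝ) : Prop where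
  pos : ∀ n, 0 < Mx n
  mult : ∀ᶠ n in (U : Filter ℕ), ∀ i ∈ W.Cl n, ((cls (W.Cl n) (W.pc n) i).card : ℝ) ≤ Mx n
  near : ∀ ε : ℝ, 0 < ε → ∀ c : ℕ → ℝ, IsLoss W.B' s c → ∀ᶠ n in (U : Filter ℕ), ∀ i ∈ W.Cl n,
    c n * (((nearF W F n ε i).image (W.zc n)).card *
      (Mx n * ((W.Cl n).image (W.lc n)).card)) ≤ ((W.Cl n).card : ℝ)

/-! ### the choice of the good incidences -/

theorem exists_eta {α : Type*} (A : Finset α) (f : α → ℝ) :
    ∃ η : ℝ, 0 < η ∧ ∀ a ∈ A, 0 < f a → 4 * η ≤ f a := by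
  classical
  induction A using Finset.induction_on with
  | empty => exact ⟨1, one_pos, fun a ha => absurd ha (Finset.notMem_empty _)⟩
  | insert b A hb ih =>
    obtain ⟨η, h1, h2⟩ := ih
    by_cases hf : 0 < f b
    · refine ⟨min η (f b / 4), lt_min h1 (by positivity), fun a ha ha0 => ?_⟩
      rcases mem_insert.1 ha with rfl | ha
      · linarith [min_le_right η (f a / 4)]
      · linarith [min_le_left η (f b / 4), h2 a ha ha0]
    · refine ⟨η, h1, fun a ha ha0 => ?_⟩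
      rcases mem_insert.1 ha with rfl | ha
      · exact absurd ha0 hf
      · exact h2 a ha ha0

section

variable {B B₁ : Base} {I J : ∀ n, Finset (ι n)} {co : ∀ n, ι n → ι n → Fin m → ℝ}
  {M : Mons m} {C : ℝ} {X : ℕ → Fin m → ℝ} {w : ℕ → ℝ} {P : Set (Fin m → ℝ)} {T : ℕ → ℝ}
  {ν : (Fin m → ℝ) → ℝ}

open Classical in
/-- the incidences whose `q`-class is too small for its number of `p`-labels -/
noncomputable def bad (B B₁ : Base) (I J : ∀ n, Finset (ι n)) (co : ∀ n, ι n → ι n → Fin m → ℝ)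
    (M : Mons m) (C : ℝ) (X : ℕ → Fin m → ℝ) (w : ℕ → ℝ) (T : ℕ → ℝ) (ν : (Fin m → ℝ) → ℝ)
    (q p : Fin m → ℝ) (η : ℝ) (n : ℕ) : Finset (ι n) :=
  (J n).filter fun i => ((cls (J n) (zlab B I co M C X w n q) i).card : ℝ) <
    (T n * B₁.d n ^ (-ν p + η)) *
      ((cls (J n) (zlab B I co M C X w n q) i).image (zlab B I co M C X w n p)).card

/-- the bad incidences are few -/
theorem ev_bad (hZ : ZWin B B₁ I J co M C X w P T ν) {q p : Fin m → ℝ} (hq : q ∈ P) (hp : p ∈ P)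
    (hqp : q ≤ p) {η : ℝ} (hη : 0 < η) {σ : ℕ → ℝ}
    (hσ : ∀ᶠ n in (U : Filter ℕ), 0 ≤ σ n ∧ σ n ≤ B₁.d n ^ (-(η / 4))) :
    ∀ᶠ n in (U : Filter ℕ), σ n * ((bad B B₁ I J co M C X w T ν q p η n).card : ℝ) ≤
      ((J n).card : ℝ) := by
  classical
  have hK1 : 1 ≤ cK0 M C := cK0_one (hZ.chart 0).C0
  have hN : 0 < cN M C (cK0 M C) := cN_pos M (hZ.chart 0).C0 hK1
  set R : ℝ := max ‖q‖ ‖p‖ with hR
  filter_upwards [hZ.sub, hZ.legal R, hZ.prof.root R (η / 2) (by positivity),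
    ev_const_le B₁ hN (ε := η / 4) (by positivity), hσ] with n h1 h2 h3 h4 h5
  have hpos : ∀ t : ℝ, 0 < B₁.d n ^ t := fun t => Real.rpow_pos_of_pos (B₁.pos n) t
  have hTn := hZ.T0 n
  have hlq := h2 q hq (le_max_left _ _)
  have hlp := h2 p hp (le_max_right _ _)
  have hσn : σ n ≤ B₁.d n ^ (-(η / 4)) := h5.2
  have hrich := card_rich (J n) (zlab B I co M C X w n q) (zlab B I co M C X w n p)
    (t := T n * B₁.d n ^ (-ν p + η)) (N := cN M C (cK0 M C)) (mul_pos hTn (hpos _)) (fun i hi => by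
      have h6 := hZ.card_zlab_le le_rfl hlq hlq hK1 (h1 hi)
      simp only [sub_self, sum_const_zero, neg_zero, Real.rpow_zero, mul_one] at h6
      refine le_trans ?_ h6
      refine Nat.cast_le.2 (card_le_card (image_subset_image fun j hj => ?_))
      obtain ⟨j1, j2⟩ := mem_cls.1 hj
      refine mem_filter.2 ⟨h1 j1, ?_⟩
      have h7 := hZ.near_of_zlab hlp (h1 hi) (h1 j1) j2.symm
      intro s
      refine (h7 s).trans (mul_le_mul_of_nonneg_left ?_ (by linarith))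
      exact mul_le_mul_of_nonneg_left
        (Real.rpow_le_rpow_of_exponent_ge (B₁.pos n) (B₁.lt n).le (hqp s))
        (Real.rpow_nonneg (B.pos n).le _))
  have h6 := h3 p hp (le_max_right _ _)
  have e1 : B₁.d n ^ (-ν p + η) * B₁.d n ^ (ν p - η / 2) = B₁.d n ^ (η / 2) := by
    rw [← Real.rpow_add (B₁.pos n)]; congr 1; ring
  have e2 : B₁.d n ^ (-(η / 4)) * (B₁.d n ^ (-(η / 4)) * B₁.d n ^ (η / 2)) = 1 := by
    rw [← Real.rpow_add (B₁.pos n), ← Real.rpow_add (B₁.pos n)]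
    have : -(η / 4) + (-(η / 4) + η / 2) = 0 := by ring
    rw [this, Real.rpow_zero]
  calc σ n * ((bad B B₁ I J co M C X w T ν q p η n).card : ℝ)
      ≤ σ n * ((T n * B₁.d n ^ (-ν p + η)) * (cN M C (cK0 M C) *
          ((J n).image (zlab B I co M C X w n p)).card)) :=
        mul_le_mul_of_nonneg_left hrich h5.1
    _ = σ n * (cN M C (cK0 M C) * (B₁.d n ^ (-ν p + η) *
          (((J n).image (zlab B I co M C X w n p)).card * T n))) := by ring
    _ ≤ σ n * (cN M C (cK0 M C) * (B₁.d n ^ (-ν p + η) *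
          ((J n).card * B₁.d n ^ (ν p - η / 2)))) := by
        refine mul_le_mul_of_nonneg_left ?_ h5.1
        refine mul_le_mul_of_nonneg_left ?_ hN.le
        exact mul_le_mul_of_nonneg_left h6 (hpos _).le
    _ = σ n * (cN M C (cK0 M C) * ((B₁.d n ^ (-ν p + η) * B₁.d n ^ (ν p - η / 2)) *
          (J n).card)) := by ring
    _ = σ n * (cN M C (cK0 M C) * (B₁.d n ^ (η / 2) * (J n).card)) := by rw [e1]
    _ ≤ B₁.d n ^ (-(η / 4)) * (B₁.d n ^ (-(η / 4)) * (B₁.d n ^ (η / 2) * (J n).card)) := by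
        have hc : (0 : ℝ) ≤ (J n).card := Nat.cast_nonneg _
        refine mul_le_mul hσn ?_ (mul_nonneg hN.le (mul_nonneg (hpos _).le hc)) (hpos _).le
        exact mul_le_mul_of_nonneg_right h4 (mul_nonneg (hpos _).le hc)
    _ = B₁.d n ^ (-(η / 4)) * (B₁.d n ^ (-(η / 4)) * B₁.d n ^ (η / 2)) * (J n).card := by ring
    _ = (J n).card := by rw [e2, one_mul]

/-- classes of the good incidences are full classes -/
theorem cls_good {q p : Fin m → ℝ} {η : ℝ} {n : ℕ} {i : ι n}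
    (hi : i ∈ J n \ bad B B₁ I J co M C X w T ν q p η n) :
    cls (J n \ bad B B₁ I J co M C X w T ν q p η n) (zlab B I co M C X w n q) i =
      cls (J n) (zlab B I co M C X w n q) i := by
  obtain ⟨h1, h2⟩ := mem_sdiff.1 hi
  ext j
  constructor
  · intro h
    obtain ⟨a, b⟩ := mem_cls.1 h
    exact mem_cls.2 ⟨(mem_sdiff.1 a).1, b⟩
  · intro h
    obtain ⟨a, b⟩ := mem_cls.1 h
    refine mem_cls.2 ⟨mem_sdiff.2 ⟨a, fun hb => h2 ?_⟩, b⟩
    have hb' := (mem_filter.1 hb).2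
    rw [cls_congr b] at hb'
    exact mem_filter.2 ⟨h1, hb'⟩

theorem good_big {q p : Fin m → ℝ} {η : ℝ} {n : ℕ} {i : ι n}
    (hi : i ∈ J n \ bad B B₁ I J co M C X w T ν q p η n) :
    (T n * B₁.d n ^ (-ν p + η)) *
      ((cls (J n) (zlab B I co M C X w n q) i).image (zlab B I co M C X w n p)).card ≤
      ((cls (J n) (zlab B I co M C X w n q) i).card : ℝ) := by
  obtain ⟨h1, h2⟩ := mem_sdiff.1 hi
  by_contra h
  exact h2 (mem_filter.2 ⟨h1, not_le.1 h⟩)

end

end Crest.Agent.R136.Qg4480
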