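import Crest.Agent.R136.Qg7_926
import Crest.Agent.R136.Qg4_480
import Crest.Agent.R136.Rbw3_219

/-!
# R136: the window wrapper of the a.e. lines (helper413), part 0: literals

* `coneM Ma` : directions legal for the monomials `Ma` (slots of any sign).
* `RawL W E' s` : raw twist of the surviving lines in the level slot `s`; `HD` : half-dense sections.
* `WAt` : what a window at the point satisfies; `WAtO` : the same with an offset `c0`, base points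
  `y + w • c0` (frozen slots: the walls which are slack at `c0` disappear).
* `AeW` : tangent `lam` at an a.e. point (splitting, own loss) together with windows for EVERY choice
  of level slots and every offset.  It does not remember where it comes from (`ν` itself, a tangent,
  a second profile).
* `AeW.wnd` (offset `0`), `WAt.model`, `WAtO.model` : one call, window + pruned set + `RModel` + raw
  twist; `AeW.dens`, `AeW.densO` : density for level slots = a union of groups.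
-/

set_option autoImplicit false
set_option linter.unusedSectionVars false
set_option linter.unusedVariables false

open Filter Topology

namespace Crest.Agent.R136.Aw413

open Finset Crest.Agent.R138.Ex926 Crest.Agent.R136.Net191 Crest.Agent.R136.Gf356
open Crest.Agent.R136.Qg926 Crest.Agent.R136.Dg219

variable {m : ℕ} {ι : ℕ → Type*} [∀ n, DecidableEq (ι n)]

/-- directions legal for the monomials `Ma`, slots of any sign -/
def coneM (Ma : Mons m) : Set (Fin m → ℝ) :=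
  {c | ∀ k, ∀ e ∈ Ma.mon k, c k ≤ ∑ s, (e s : ℝ) * c s}

/-- **raw twist of the lines in the slot `s`**: for every surviving line `l` and every height `k` of
`l` at most a `θ`-part of the heights `k'` of `l` has own flag difference `≤ ρ^ε` -/
def RawL (W : Wnd m ι) (E' : ∀ n, Finset (ι n)) (s : Fin m) : Prop :=
  ∀ ε : ℝ, 0 < ε → ∀ θ : ℝ, 0 < θ → ∀ᶠ n in (U : Filter ℕ), ∀ l ∈ (W.cfg E' n).L,
    ∀ k ∈ (W.cfg E' n).hts l,
      ((((W.cfg E' n).hts l).filter fun k' =>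
        |W.crd n (W.rep n l k) (W.rep n l k') s| ≤ W.B'.d n ^ ε).card : ℝ) ≤
        θ * (((W.cfg E' n).hts l).card : ℝ)

/-- **half-dense sections** of the class (107): one incidence per pair, half of the incidences for
every bound of the multiplicity; `W.sec` and 107's `rich W` -/
def HD (W : Wnd m ι) (E : ∀ n, Finset (ι n)) : Prop :=
  ∀ᶠ n in (U : Filter ℕ), E n ⊆ W.sec n ∧ ∀ Mx : ℝ, 0 ≤ Mx →
    (∀ i ∈ W.Cl n, ((cls (W.Cl n) (W.pc n) i).card : ℝ) ≤ Mx) →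
    ((W.Cl n).card : ℝ) ≤ 2 * (Mx * (E n).card)

theorem HD.sec (W : Wnd m ι) : HD W W.sec := Eventually.of_forall fun n =>
  ⟨Subset.refl _, fun Mx h0 h => by
    have h2 := le_count_mul (W.Cl n) (fun _ => (1 : ℝ)) (W.pc n) (m := Mx) (fun i hi => by
      rw [sum_const, nsmul_eq_mul, mul_one]
      exact h i hi)
    rw [sum_const, nsmul_eq_mul, mul_one] at h2
    rw [Wnd.card_sec]
    have := mul_nonneg h0 (Nat.cast_nonneg (α := ℝ) ((W.Cl n).image (W.pc n)).card)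
    linarith⟩

/-- losses with one more loss in front -/
def consS (Sd : ℕ → ℝ) (s : ℕ → ℕ → ℝ) : ℕ → ℕ → ℝ := fun i => if i = 0 then Sd else s (i - 1)

/-- **window at the point**, static data `st`; `V` = slots visible for the own line, `Tw` = tied -/
structure WAt (B : Base) (I : ∀ n, Finset (ι n)) (co : ∀ n, ι n → ι n → Fin m → ℝ) (M Ma : Mons m)
    (C : ℝ) (lam : (Fin m → ℝ) → ℝ) (V Tw : Fin m → Prop) (st : WSt m) (W : Wnd m ι) : Prop where
  ok : W.Ok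
  eB : W.B = B
  eI : W.I = I
  eco : W.co = co
  eM : W.M = M
  eC : W.C = C
  eD : W.D = coneM Ma
  elam : W.lam = lam
  eS : W.S = st.S
  ekz : W.kz = st.kz
  etop : W.top = st.top
  ekap : W.kap = st.kap
  eMw : W.Mw = st.Mw
  eR : W.R' = st.R'
  dw : ∀ n, W.B'.d n = W.B.d n ^ W.w n
  /-- the walls `Ma` are equalities at the base points -/
  act : ∀ k, ∀ e ∈ Ma.mon k, ∀ n, W.X n k = ∑ s, (e s : ℝ) * W.X n s
  /-- the other walls and the walls `0 ≤ X` are at infinite distance in the window -/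
  gap : ∀ k, ∀ e ∈ M.mon k, e ∉ Ma.mon k → ∀ R : ℝ, ∀ᶠ n in (U : Filter ℕ),
    W.X n k + R * W.w n ≤ ∑ s, (e s : ℝ) * W.X n s
  room : ∀ s, ∀ R : ℝ, ∀ᶠ n in (U : Filter ℕ), R * W.w n ≤ W.X n s
  /-- raw twist of every tied level slot, multiplicity one, slow pruning -/
  tw : (∀ k, V k → k ∈ st.S ∨ st.top k = 0) → ∃ Xg : ℕ → ℝ, Tendsto Xg U atTop ∧
    ∀ (E : ∀ n, Finset (ι n)), HD W E →
    ∀ (E' : ∀ n, Finset (ι n)) (g : ℕ → ℝ) (ex : ℕ → ∀ n, ι n → ℕ),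
      Wnd.Pruned W E E' g ex → (∀ᶠ n in (U : Filter ℕ), g n ≤ Xg n) →
      ∀ s ∈ st.S, Tw s → 0 < st.top s →
        (∃ e : ℝ, 0 < e ∧ cut st.S st.top (Pi.single s e) ∈ coneM Ma) → RawL W E' s

/-- **offset window**: base points `y + w • c0`.  The walls `Ma` have distance
`(∑ e s * c0 s - c0 k) * w` (exactly), the profile is `lam (c0 + p) - lam c0`. -/
structure WAtO (B : Base) (I : ∀ n, Finset (ι n)) (co : ∀ n, ι n → ι n → Fin m → ℝ)
    (M Ma : Mons m) (C : ℝ) (lam : (Fin m → ℝ) → ℝ) (κ : Fin m → ℝ) (V Tw : Fin m → Prop)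
    (c0 : Fin m → ℝ) (st : WSt m) (W : Wnd m ι) : Prop where
  ok : W.Ok
  eB : W.B = B
  eI : W.I = I
  eco : W.co = co
  eM : W.M = M
  eC : W.C = C
  eD : W.D = {p | c0 + p ∈ coneM Ma}
  elam : W.lam = fun p => lam (c0 + p) - lam c0
  eS : W.S = st.S
  ekz : W.kz = st.kz
  etop : W.top = st.top
  ekap : W.kap = st.kap
  eMw : W.Mw = st.Mw
  eR : W.R' = st.R'
  dw : ∀ n, W.B'.d n = W.B.d n ^ W.w n
  /-- distance of the walls `Ma` -/
  off : ∀ k, ∀ e ∈ Ma.mon k, ∀ n,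
    W.X n k + (∑ s, (e s : ℝ) * c0 s - c0 k) * W.w n = ∑ s, (e s : ℝ) * W.X n s
  /-- the other walls and the walls `0 ≤ X` are at infinite distance in the window -/
  gap : ∀ k, ∀ e ∈ M.mon k, e ∉ Ma.mon k → ∀ R : ℝ, ∀ᶠ n in (U : Filter ℕ),
    W.X n k + R * W.w n ≤ ∑ s, (e s : ℝ) * W.X n s
  room : ∀ s, ∀ R : ℝ, ∀ᶠ n in (U : Filter ℕ), R * W.w n ≤ W.X n s
  /-- raw twist of every tied level slot whose offset is natural -/
  tw : (∀ k, V k → c0 k ≤ κ k * c0 st.kz) → (∀ k, V k → k ∈ st.S ∨ st.top k = 0) →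
    ∃ Xg : ℕ → ℝ, Tendsto Xg U atTop ∧
    ∀ (E : ∀ n, Finset (ι n)), HD W E →
    ∀ (E' : ∀ n, Finset (ι n)) (g : ℕ → ℝ) (ex : ℕ → ∀ n, ι n → ℕ),
      Wnd.Pruned W E E' g ex → (∀ᶠ n in (U : Filter ℕ), g n ≤ Xg n) →
      ∀ s ∈ st.S, Tw s → 0 < st.top s → c0 s = κ s * c0 st.kz →
        (∃ e : ℝ, 0 < e ∧ c0 + cut st.S st.top (Pi.single s e) ∈ coneM Ma) → RawL W E' s

/-- **tangent at an a.e. point with all its windows.**  `a b` = slopes of the plane, `A` = slopes of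
the profile along the plane, `φ r` = group functions and rates, `kz` = height slot, `σ` = own loss
per unit of height, `κ` = slopes of the own path in the visible slots `V`, `Tw` = tied slots. -/
structure AeW (B Bo : Base) (I J : ∀ n, Finset (ι n)) (co : ∀ n, ι n → ι n → Fin m → ℝ)
    (M Ma : Mons m) (C : ℝ) (lam : (Fin m → ℝ) → ℝ) (a b : Fin m → ℝ) (A : ℝ × ℝ)
    (φ : ℕ → (Fin m → ℝ) → ℝ) (r : ℕ → ℝ) (kz : Fin m)
    (σ : ℝ) (κ : Fin m → ℝ) (V Tw : Fin m → Prop) : Prop where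
  sub : ∀ k, Ma.mon k ⊆ M.mon k
  zero : lam 0 = 0
  lip : ∀ c ∈ coneM Ma, ∀ c' ∈ coneM Ma, |lam c - lam c'| ≤ m * ‖c - c'‖
  anti : ∀ c ∈ coneM Ma, ∀ c' ∈ coneM Ma, c ≤ c' → lam c' ≤ lam c
  sharp : ∀ c ∈ coneM Ma, ∀ c' ∈ coneM Ma, c ≤ c' → lam c - lam c' ≤ ∑ s, (c' s - c s)
  submod : ∀ c ∈ coneM Ma, ∀ c' ∈ coneM Ma, c ⊓ c' ∈ coneM Ma → c ⊔ c' ∈ coneM Ma →
    lam c + lam c' ≤ lam (c ⊔ c') + lam (c ⊓ c')
  /-- splitting into the groups of the slopes, linear rates, total -/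
  out : OutS (gC a b) (coneM Ma) (dhC a b) (nC a b) lam A φ r
  /-- own loss of the height: given any box with own-wide visible slots -/
  own : ∀ c ∈ coneM Ma, ∀ c' ∈ coneM Ma, c ≤ c' → (∀ k, V k → c k ≤ κ k * c kz) →
    σ * (c' kz - c kz) ≤ lam c - lam c'
  /-- **windows** for every offset and every choice of level slots, classes inside any dense set -/
  wndO : ∀ c0 ∈ coneM Ma, ∀ st : WSt m, st.kz = kz → st.Ok M {p | c0 + p ∈ coneM Ma} →
    ∀ s : ℕ → ℕ → ℝ, (∀ i, Bo.Sub (s i)) →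
    ∀ (J' : ∀ n, Finset (ι n)) (Sd : ℕ → ℝ), (∀ᶠ n in (U : Filter ℕ), J' n ⊆ J n) →
    (∀ᶠ n in (U : Filter ℕ), (J' n).Nonempty) → Bo.Sub Sd →
    (∀ᶠ n in (U : Filter ℕ), ((J n).card : ℝ) ≤ Sd n * (J' n).card) →
    ∃ W : Wnd m ι, WAtO B I co M Ma C lam κ V Tw c0 st W ∧ (∀ i, W.B'.Sub (s i)) ∧
      ∀ᶠ n in (U : Filter ℕ), W.Cl n ⊆ J' n

/-- **windows with known base points** `y (k n) + w (k n) • c0`: base incidence in any dense set `E`,
classes inside good sets `Gs l n` which may depend on the stage `l = k n` of the blow-up (full up to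
every admissible loss), and equal to the classes of `J ∩ Gs (k n)`; every slower `k'` is possible -/
def WndL (B Bo : Base) (I J : ∀ n, Finset (ι n)) (co : ∀ n, ι n → ι n → Fin m → ℝ)
    (M Ma : Mons m) (C : ℝ) (lam : (Fin m → ℝ) → ℝ) (kz : Fin m) (κ : Fin m → ℝ)
    (V Tw : Fin m → Prop) (y : ℕ → Fin m → ℝ) (w : ℕ → ℝ) : Prop :=
  ∀ c0 ∈ coneM Ma, ∀ st : WSt m, st.kz = kz → st.Ok M {p | c0 + p ∈ coneM Ma} →
    ∀ s : ℕ → ℕ → ℝ, (∀ i, Bo.Sub (s i)) →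
    ∀ (E : ∀ n, Finset (ι n)) (Sd : ℕ → ℝ), (∀ᶠ n in (U : Filter ℕ), E n ⊆ J n) → Bo.Sub Sd →
    (∀ᶠ n in (U : Filter ℕ), ((J n).card : ℝ) ≤ Sd n * (E n).card) →
    ∀ Gs : ℕ → ∀ n, Finset (ι n),
    (∀ l, ∀ c : ℕ → ℝ, Bo.Sub c → ∀ᶠ n in (U : Filter ℕ),
      c n * ((J n \ Gs l n).card : ℝ) ≤ (J n).card) →
    ∃ k : ℕ → ℕ, Tendsto k U atTop ∧ ∀ k' : ℕ → ℕ, Tendsto k' U atTop →
      (∀ᶠ n in (U : Filter ℕ), k' n ≤ k n) → ∃ W : Wnd m ι,
        WAtO B I co M Ma C lam κ V Tw c0 st W ∧ (∀ i, W.B'.Sub (s i)) ∧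
        (W.X = fun n => y (k' n) + w (k' n) • c0) ∧ (W.w = fun n => w (k' n)) ∧ W.J = J ∧
        (∀ᶠ n in (U : Filter ℕ), W.s₀ n ∈ E n ∧ W.s₀ n ∈ W.Cl n) ∧
        (∀ᶠ n in (U : Filter ℕ), W.Cl n ⊆ J n ∩ Gs (k' n) n ∧
          ∀ i ∈ W.Cl n, W.Cl n = cls (J n ∩ Gs (k' n) n) (W.lab n 0) i) ∧
        ((∀ k, V k → c0 k ≤ κ k * c0 st.kz) → (∀ k, V k → k ∈ st.S ∨ st.top k = 0) →
          ∃ Mx : ℕ → ℝ, ∀ j ∈ st.S, Tw j → 0 < st.top j → c0 j = κ j * c0 st.kz →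
            (∃ e : ℝ, 0 < e ∧ c0 + cut st.S st.top (Pi.single j e) ∈ coneM Ma) →
            Qg4480.Tw W {j} (consS Sd s) Mx)

section

variable {B Bo : Base} {I J : ∀ n, Finset (ι n)} {co : ∀ n, ι n → ι n → Fin m → ℝ}
  {M Ma : Mons m} {C : ℝ} {lam : (Fin m → ℝ) → ℝ} {a b : Fin m → ℝ} {A : ℝ × ℝ}
  {φ : ℕ → (Fin m → ℝ) → ℝ} {r : ℕ → ℝ} {kz : Fin m}
  {σ : ℝ} {κ : Fin m → ℝ} {V Tw : Fin m → Prop}

theorem zero_mem : (0 : Fin m → ℝ) ∈ coneM Ma := fun k e _ => by simp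

/-- the legal boxes of the window are directions of the cone -/
theorem leg_cone {Mw : Mons m} (hM : ∀ k, Ma.mon k ⊆ Mw.mon k) {R : ℝ} :
    Leg Mw R ⊆ coneM Ma := fun _ hc k e he => hc.1.wall k e (hM k he)

/-- the cone is closed under sums -/
theorem cone_add {c c' : Fin m → ℝ} (h : c ∈ coneM Ma) (h' : c' ∈ coneM Ma) :
    c + c' ∈ coneM Ma := fun k e he => by
  have h1 := h k e he
  have h2 := h' k e he
  have h3 : ∑ s, (e s : ℝ) * (c + c') s = ∑ s, (e s : ℝ) * c s + ∑ s, (e s : ℝ) * c' s := by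
    rw [← sum_add_distrib]; exact sum_congr rfl fun s _ => by rw [Pi.add_apply]; ring
  rw [h3, Pi.add_apply]; linarith

/-- legal boxes of an offset window: the walls of `Ma` missing in `Mw` have room `≥ R'` at `c0` -/
theorem leg_coneO {Mw : Mons m} {R' : ℝ} {c0 : Fin m → ℝ}
    (hM : ∀ k, ∀ e ∈ Ma.mon k, (e ∈ Mw.mon k ∧ c0 k ≤ ∑ s, (e s : ℝ) * c0 s) ∨
      c0 k + R' ≤ ∑ s, (e s : ℝ) * c0 s) :
    Leg Mw R' ⊆ {p | c0 + p ∈ coneM Ma} := fun p hp k e he => by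
  have h3 : ∑ s, (e s : ℝ) * (c0 + p) s = ∑ s, (e s : ℝ) * c0 s + ∑ s, (e s : ℝ) * p s := by
    rw [← sum_add_distrib]; exact sum_congr rfl fun s _ => by rw [Pi.add_apply]; ring
  rw [h3, Pi.add_apply]
  rcases hM k e he with ⟨h1, h2⟩ | h1
  · have := hp.1.wall k e h1
    linarith
  · have h4 : 0 ≤ ∑ s, (e s : ℝ) * p s :=
      sum_nonneg fun s _ => mul_nonneg (Nat.cast_nonneg _) (hp.1.nonneg s)
    have := hp.2 k
    linarith

/-- **one call** (offset window, any half-dense section): pruned set, model, raw twist -/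
theorem WAtO.modelE {st : WSt m} {c0 : Fin m → ℝ} {W : Wnd m ι}
    (h : WAtO B I co M Ma C lam κ V Tw c0 st W) {E : ∀ n, Finset (ι n)} {Mu : ℕ → ℝ}
    (hE : Wnd.EOk W E Mu) (hH : HD W E)
    {σ' R : ℝ} (hden : st.Dens (fun p => lam (c0 + p) - lam c0) σ' R)
    (ex : ℕ → ∀ n, ι n → ℕ) {g₀ : ℕ → ℝ} (hg₀ : Tendsto g₀ U atTop)
    (hc0 : ∀ k, V k → c0 k ≤ κ k * c0 st.kz) (hV : ∀ k, V k → k ∈ st.S ∨ st.top k = 0) :
    ∃ (E' : ∀ n, Finset (ι n)) (g : ℕ → ℝ), Wnd.Pruned W E E' g ex ∧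
      (∀ᶠ n in (U : Filter ℕ), g n ≤ g₀ n) ∧
      RModel W.B' (W.cfg E') σ' R W.legW W.nu W.Dc ∧
      ∀ s ∈ st.S, Tw s → 0 < st.top s → c0 s = κ s * c0 st.kz →
        (∃ e : ℝ, 0 < e ∧ c0 + cut st.S st.top (Pi.single s e) ∈ coneM Ma) → RawL W E' s := by
  obtain ⟨Xg, hX, hX2⟩ := h.tw hc0 hV
  have hW := h.ok
  have hR' : R ≤ W.top W.kz := by rw [h.etop, h.ekz]; exact hden.hR
  obtain ⟨E', g, h1, h2, h3⟩ := Wnd.EOk.exists_model (σ := σ') (R := R) hW hE ex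
    (g₀ := fun n => min (g₀ n) (Xg n)) (tendsto_atTop.2 fun c => by
      filter_upwards [tendsto_atTop.1 hg₀ c, tendsto_atTop.1 hX c] with n h1 h2
      exact le_min h1 h2)
    (by rw [h.elam, h.etop, h.eS]; exact hden.dens) hden.σ0 hden.σ1 hR'
    (by rw [h.elam, h.ekz]; exact hden.frost)
  exact ⟨E', g, h1, h2.mono fun n hn => hn.trans (min_le_left _ _), h3,
    hX2 E hH E' g ex h1 (h2.mono fun n hn => hn.trans (min_le_right _ _))⟩

/-- **one call** (offset window): pruned set, model, raw twist -/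
theorem WAtO.model {st : WSt m} {c0 : Fin m → ℝ} {W : Wnd m ι}
    (h : WAtO B I co M Ma C lam κ V Tw c0 st W)
    {σ' R : ℝ} (hden : st.Dens (fun p => lam (c0 + p) - lam c0) σ' R)
    (ex : ℕ → ∀ n, ι n → ℕ) {g₀ : ℕ → ℝ} (hg₀ : Tendsto g₀ U atTop)
    (hc0 : ∀ k, V k → c0 k ≤ κ k * c0 st.kz) (hV : ∀ k, V k → k ∈ st.S ∨ st.top k = 0) :
    ∃ (E' : ∀ n, Finset (ι n)) (g : ℕ → ℝ), Wnd.Pruned W W.sec E' g ex ∧
      (∀ᶠ n in (U : Filter ℕ), g n ≤ g₀ n) ∧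
      RModel W.B' (W.cfg E') σ' R W.legW W.nu W.Dc ∧
      ∀ s ∈ st.S, Tw s → 0 < st.top s → c0 s = κ s * c0 st.kz →
        (∃ e : ℝ, 0 < e ∧ c0 + cut st.S st.top (Pi.single s e) ∈ coneM Ma) → RawL W E' s :=
  h.modelE h.ok.eok_section (HD.sec W) hden ex hg₀ hc0 hV

/-- **one call** (any half-dense section): pruned set, model, raw twist -/
theorem WAt.modelE {st : WSt m} {W : Wnd m ι} (h : WAt B I co M Ma C lam V Tw st W)
    {E : ∀ n, Finset (ι n)} {Mu : ℕ → ℝ} (hE : Wnd.EOk W E Mu) (hH : HD W E)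
    {σ' R : ℝ} (hden : st.Dens lam σ' R) (ex : ℕ → ∀ n, ι n → ℕ) {g₀ : ℕ → ℝ}
    (hg₀ : Tendsto g₀ U atTop) (hV : ∀ k, V k → k ∈ st.S ∨ st.top k = 0) :
    ∃ (E' : ∀ n, Finset (ι n)) (g : ℕ → ℝ), Wnd.Pruned W E E' g ex ∧
      (∀ᶠ n in (U : Filter ℕ), g n ≤ g₀ n) ∧
      RModel W.B' (W.cfg E') σ' R W.legW W.nu W.Dc ∧
      ∀ s ∈ st.S, Tw s → 0 < st.top s →
        (∃ e : ℝ, 0 < e ∧ cut st.S st.top (Pi.single s e) ∈ coneM Ma) → RawL W E' s := by
  obtain ⟨Xg, hX, hX2⟩ := h.tw hV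
  have hW := h.ok
  have hR' : R ≤ W.top W.kz := by rw [h.etop, h.ekz]; exact hden.hR
  obtain ⟨E', g, h1, h2, h3⟩ := Wnd.EOk.exists_model (σ := σ') (R := R) hW hE ex
    (g₀ := fun n => min (g₀ n) (Xg n)) (tendsto_atTop.2 fun c => by
      filter_upwards [tendsto_atTop.1 hg₀ c, tendsto_atTop.1 hX c] with n h1 h2
      exact le_min h1 h2)
    (by rw [h.elam, h.etop, h.eS]; exact hden.dens) hden.σ0 hden.σ1 hR'
    (by rw [h.elam, h.ekz]; exact hden.frost)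
  exact ⟨E', g, h1, h2.mono fun n hn => hn.trans (min_le_left _ _), h3,
    hX2 E hH E' g ex h1 (h2.mono fun n hn => hn.trans (min_le_right _ _))⟩

/-- **one call**: pruned set, model, raw twist -/
theorem WAt.model {st : WSt m} {W : Wnd m ι} (h : WAt B I co M Ma C lam V Tw st W)
    {σ' R : ℝ} (hden : st.Dens lam σ' R) (ex : ℕ → ∀ n, ι n → ℕ) {g₀ : ℕ → ℝ}
    (hg₀ : Tendsto g₀ U atTop) (hV : ∀ k, V k → k ∈ st.S ∨ st.top k = 0) :
    ∃ (E' : ∀ n, Finset (ι n)) (g : ℕ → ℝ), Wnd.Pruned W W.sec E' g ex ∧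
      (∀ᶠ n in (U : Filter ℕ), g n ≤ g₀ n) ∧
      RModel W.B' (W.cfg E') σ' R W.legW W.nu W.Dc ∧
      ∀ s ∈ st.S, Tw s → 0 < st.top s →
        (∃ e : ℝ, 0 < e ∧ cut st.S st.top (Pi.single s e) ∈ coneM Ma) → RawL W E' s :=
  h.modelE h.ok.eok_section (HD.sec W) hden ex hg₀ hV

/-- an offset window with offset `0` is a window at the point -/
theorem WAtO.toWAt {st : WSt m} {W : Wnd m ι} (h0 : lam 0 = 0)
    (h : WAtO B I co M Ma C lam κ V Tw 0 st W) : WAt B I co M Ma C lam V Tw st W where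
  ok := h.ok
  eB := h.eB
  eI := h.eI
  eco := h.eco
  eM := h.eM
  eC := h.eC
  eD := by rw [h.eD]; ext p; simp
  elam := by rw [h.elam]; funext p; rw [zero_add, h0, sub_zero]
  eS := h.eS
  ekz := h.ekz
  etop := h.etop
  ekap := h.ekap
  eMw := h.eMw
  eR := h.eR
  dw := h.dw
  act := fun k e he n => by
    have := h.off k e he n
    simpa using this
  gap := h.gap
  room := h.room
  tw := fun hV => by
    obtain ⟨Xg, h1, h2⟩ := h.tw (fun k _ => by simp) hV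
    refine ⟨Xg, h1, fun E hE E' g ex hP hg s hs hT h0s he =>
      h2 E hE E' g ex hP hg s hs hT h0s (by simp) ?_⟩
    obtain ⟨e, he0, he1⟩ := he
    exact ⟨e, he0, by rwa [zero_add]⟩

/-- **windows** at the point itself -/
theorem AeW.wnd (h : AeW B Bo I J co M Ma C lam a b A φ r kz σ κ V Tw) :
    ∀ st : WSt m, st.kz = kz → st.Ok M (coneM Ma) → ∀ s : ℕ → ℕ → ℝ, (∀ i, Bo.Sub (s i)) →
    ∀ (J' : ∀ n, Finset (ι n)) (Sd : ℕ → ℝ), (∀ᶠ n in (U : Filter ℕ), J' n ⊆ J n) →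
    (∀ᶠ n in (U : Filter ℕ), (J' n).Nonempty) → Bo.Sub Sd →
    (∀ᶠ n in (U : Filter ℕ), ((J n).card : ℝ) ≤ Sd n * (J' n).card) →
    ∃ W : Wnd m ι, WAt B I co M Ma C lam V Tw st W ∧ (∀ i, W.B'.Sub (s i)) ∧
      ∀ᶠ n in (U : Filter ℕ), W.Cl n ⊆ J' n := by
  intro st hkz hst s hs J' Sd h1 h2 h3 h4
  have e : {p : Fin m → ℝ | 0 + p ∈ coneM Ma} = coneM Ma := by ext p; simp
  obtain ⟨W, g1, g2, g3⟩ := h.wndO 0 zero_mem st hkz (by rw [e]; exact hst) s hs J' Sd h1 h2 h3 h4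
  exact ⟨W, g1.toWAt h.zero, g2, g3⟩

theorem WAtO.weaken {st : WSt m} {c0 : Fin m → ℝ} {W : Wnd m ι} {V' Tw' : Fin m → Prop}
    (h : WAtO B I co M Ma C lam κ V Tw c0 st W) (hV : ∀ k, V k → V' k)
    (hT : ∀ k, Tw' k → Tw k) : WAtO B I co M Ma C lam κ V' Tw' c0 st W :=
  { h with
    tw := fun h1 h2 => by
      obtain ⟨Xg, g1, g2⟩ := h.tw (fun k hk => h1 k (hV k hk)) (fun k hk => h2 k (hV k hk))
      exact ⟨Xg, g1, fun E hE E' g ex hP hg s hs hT' => g2 E hE E' g ex hP hg s hs (hT s hT')⟩ }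

/-- more visible slots, fewer tied slots -/
theorem AeW.weaken (h : AeW B Bo I J co M Ma C lam a b A φ r kz σ κ V Tw)
    {V' Tw' : Fin m → Prop} (hV : ∀ k, V k → V' k) (hT : ∀ k, Tw' k → Tw k) :
    AeW B Bo I J co M Ma C lam a b A φ r kz σ κ V' Tw' :=
  { h with
    own := fun c hc c' hc' hcc h1 => h.own c hc c' hc' hcc fun k hk => h1 k (hV k hk)
    wndO := fun c0 hc0 st hkz hst s hs J' Sd h1 h2 h3 h4 => by
      obtain ⟨W, g1, g2, g3⟩ := h.wndO c0 hc0 st hkz hst s hs J' Sd h1 h2 h3 h4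
      exact ⟨W, g1.weaken hV hT, g2, g3⟩ }

/-- level slots = a union of groups: the profile splits, any offset -/
theorem OutS.splitO {grp : Fin m → ℕ} {L : Set (Fin m → ℝ)} {dh : Fin m → ℝ} {nn : ℕ → ℝ × ℝ}
    (h : OutS grp L dh nn lam A φ r) {S : Finset (Fin m)}
    (hS : ∀ i j, grp i = grp j → i ∈ S → j ∈ S) {c0 top : Fin m → ℝ} (h0 : c0 ∈ L)
    (h1 : c0 + top ∈ L) (h2 : c0 + cut S top 0 ∈ L) (h3 : c0 + cut S 0 top ∈ L) :
    lam (c0 + top) - lam c0 =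
      (lam (c0 + cut S top 0) - lam c0) + (lam (c0 + cut S 0 top) - lam c0) := by
  rw [h.sum _ h1, h.sum _ h2, h.sum _ h3, h.sum _ h0, ← sum_sub_distrib, ← sum_sub_distrib,
    ← sum_sub_distrib, ← sum_add_distrib]
  refine sum_congr rfl fun k hk => ?_
  by_cases hk' : ∃ i, grp i = k ∧ i ∈ S
  · obtain ⟨i, hi, hiS⟩ := hk'
    have e1 : ∀ j, grp j = k → j ∈ S := fun j hj => hS i j (by rw [hi, hj]) hiS
    have e2 : φ k (c0 + cut S top 0) = φ k c0 := h.loc k _ _ fun j hj => by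
      rw [Pi.add_apply, cut_of_mem (e1 j hj)]; simp
    have e3 : φ k (c0 + cut S 0 top) = φ k (c0 + top) := h.loc k _ _ fun j hj => by
      rw [Pi.add_apply, cut_of_mem (e1 j hj), Pi.add_apply]
    rw [e2, e3]; ring
  · push Not at hk'
    have e2 : φ k (c0 + cut S 0 top) = φ k c0 := h.loc k _ _ fun j hj => by
      rw [Pi.add_apply, cut_of_notMem (hk' j hj)]; simp
    have e3 : φ k (c0 + cut S top 0) = φ k (c0 + top) := h.loc k _ _ fun j hj => by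
      rw [Pi.add_apply, cut_of_notMem (hk' j hj), Pi.add_apply]
    rw [e2, e3]; ring

/-- **level slots = a union of groups**: density condition for free -/
theorem OutS.dens {grp : Fin m → ℕ} {L : Set (Fin m → ℝ)} {dh : Fin m → ℝ} {nn : ℕ → ℝ × ℝ}
    (h : OutS grp L dh nn lam A φ r) {S : Finset (Fin m)}
    (hS : ∀ i j, grp i = grp j → i ∈ S → j ∈ S) {top : Fin m → ℝ} (h1 : top ∈ L)
    (h2 : cut S top 0 ∈ L) (h3 : cut S 0 top ∈ L) :
    lam top = lam (cut S top 0) + lam (cut S 0 top) := by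
  rw [h.sum _ h1, h.sum _ h2, h.sum _ h3, ← sum_add_distrib]
  refine sum_congr rfl fun k hk => ?_
  by_cases hk' : ∃ i, grp i = k ∧ i ∈ S
  · obtain ⟨i, hi, hiS⟩ := hk'
    have e1 : ∀ j, grp j = k → j ∈ S := fun j hj => hS i j (by rw [hi, hj]) hiS
    rw [h.zero k (cut S top 0) fun j hj => by rw [cut_of_mem (e1 j hj)]; rfl, zero_add]
    exact h.loc k _ _ fun j hj => by rw [cut_of_mem (e1 j hj)]
  · push Not at hk'
    rw [h.zero k (cut S 0 top) fun j hj => by rw [cut_of_notMem (hk' j hj)]; rfl, add_zero]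
    exact h.loc k _ _ fun j hj => by rw [cut_of_notMem (hk' j hj)]

/-- Frostman exponent of the heights, any own-wide offset -/
theorem AeW.frostO (h : AeW B Bo I J co M Ma C lam a b A φ r kz σ κ V Tw) {c0 : Fin m → ℝ}
    (h0 : c0 ∈ coneM Ma) (hc0 : ∀ k, V k → c0 k ≤ κ k * c0 kz) {y : ℝ} (hy : 0 ≤ y)
    (h1 : c0 + Pi.single kz y ∈ coneM Ma) :
    lam (c0 + Pi.single kz y) - lam c0 ≤ -(σ * y) := by
  have h2 := h.own c0 h0 _ h1 (fun s => by
      by_cases hs : s = kz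
      · subst hs; simpa using hy
      · rw [Pi.add_apply, Pi.single_eq_of_ne hs, add_zero]) hc0
  rw [Pi.add_apply, Pi.single_eq_same, add_sub_cancel_left] at h2
  linarith

/-- **density and Frostman conditions** of a window whose level slots are a union of groups, any
own-wide offset -/
theorem AeW.densO (h : AeW B Bo I J co M Ma C lam a b A φ r kz σ κ V Tw) {st : WSt m}
    {c0 : Fin m → ℝ} (h0 : c0 ∈ coneM Ma) (hc0 : ∀ k, V k → c0 k ≤ κ k * c0 kz)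
    (hkz : st.kz = kz) (hst : st.Ok M {p | c0 + p ∈ coneM Ma})
    (hS : ∀ i j, gC a b i = gC a b j → i ∈ st.S → j ∈ st.S) (hσ : 0 ≤ σ) (hσ1 : σ ≤ 1) {R : ℝ}
    (hR : R ≤ st.top kz) (hone : ∀ y, 0 ≤ y → y ≤ R → c0 + Pi.single kz y ∈ coneM Ma) :
    st.Dens (fun p => lam (c0 + p) - lam c0) σ R where
  dens := (OutS.splitO h.out hS h0 (hst.leg hst.top_leg) (hst.leg hst.lin_leg)
    (hst.leg hst.lev_leg)).le
  σ0 := hσ
  σ1 := hσ1
  hR := by rw [hkz]; exact hR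
  frost := fun y hy hyR => by
    rw [hkz]; exact h.frostO h0 hc0 hy (hone y hy hyR)

/-- **density and Frostman conditions** of a window whose level slots are a union of groups -/
theorem AeW.dens (h : AeW B Bo I J co M Ma C lam a b A φ r kz σ κ V Tw) {st : WSt m}
    (hkz : st.kz = kz) (hst : st.Ok M (coneM Ma))
    (hS : ∀ i j, gC a b i = gC a b j → i ∈ st.S → j ∈ st.S) (hσ : 0 ≤ σ) (hσ1 : σ ≤ 1) {R : ℝ}
    (hR : R ≤ st.top kz) (hone : ∀ y, 0 ≤ y → y ≤ R → Pi.single kz y ∈ coneM Ma) :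
    st.Dens lam σ R where
  dens := (OutS.dens h.out hS (hst.leg hst.top_leg) (hst.leg hst.lin_leg)
    (hst.leg hst.lev_leg)).le
  σ0 := hσ
  σ1 := hσ1
  hR := by rw [hkz]; exact hR
  frost := fun y hy hyR => by
    have h1 := h.frostO (c0 := 0) zero_mem (fun k _ => by simp) hy
      (by rw [zero_add]; exact hone y hy hyR)
    rw [zero_add, h.zero, sub_zero] at h1
    rw [hkz]; exact h1

end

end Crest.Agent.R136.Aw413
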