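import Crest.Agent.R136.Aw0_413
import Crest.Agent.R136.Lq1_196

/-!
# R136: the window wrapper of the a.e. lines (helper413), part 1: tangents

* `tan_le` : an inequality of `ν` along the tangent sequence passes to the tangent.
* `Bas` : base points `y l`, scales `w l`; walls `Ma` tight, the others far away.
* `OwnF`, `OwnPath`, `OwnB` : own facts of `ν`, own path, position of the base points.
* `own_tan` : own loss of the tangent; `drop_tan` : strict drop by a tied slot.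
* `nprof_of_ext`, `ownF_of_ext` : from 196's `ExtQ`.
* `actM` : monomials which are identities on a plane; `coneM_actM`.
-/

set_option autoImplicit false
set_option linter.unusedSectionVars false
set_option linter.unusedVariables false

open Filter Topology

namespace Crest.Agent.R136.Aw413

open Finset Crest.Agent.R138.Ex926 Crest.Agent.R136.Net191 Crest.Agent.R136.Gf356
open Crest.Agent.R136.Qg926 Crest.Agent.R136.Dg219
open Crest.Agent.R136.Lq196 (ExtQ)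

variable {m : ℕ}

/-! ### inequalities pass to tangents -/

/-- an inequality of `ν` along the sequence passes to the tangent -/
theorem tan_le {P L : Set (Fin m → ℝ)} {ν lam : (Fin m → ℝ) → ℝ} {y : ℕ → Fin m → ℝ} {w : ℕ → ℝ}
    (ht : IsTan P L ν y w lam) (hpos : ∀ l, 0 < w l) {c c' : Fin m → ℝ} (hc : c ∈ L)
    (hc' : c' ∈ L) {β : ℝ}
    (h : ∃ᶠ l in atTop, y l + w l • c ∈ P → y l + w l • c' ∈ P →
      β * w l ≤ ν (y l + w l • c) - ν (y l + w l • c')) : β ≤ lam c - lam c' := by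
  refine le_of_forall_pos_le_add fun ε hε => ?_
  obtain ⟨l, h1, h2, h3⟩ := (h.and_eventually ((ht.ev hc (ε := ε / 2) (by positivity)).and
    (ht.ev hc' (ε := ε / 2) (by positivity)))).exists
  have h4 := h1 h2.1 h3.1
  have h5 := hpos l
  have h6 := h2.2
  have h7 := h3.2
  rw [abs_le] at h6 h7
  have key : w l * β ≤ w l * (lam c - lam c' + ε) := by nlinarith
  exact le_of_mul_le_mul_left key h5

/-! ### base points -/

/-- base points `y l` and scales `w l`: the walls `Ma` are equalities, the others are far away -/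
structure Bas (M Ma : Mons m) (y : ℕ → Fin m → ℝ) (w : ℕ → ℝ) : Prop where
  pos : ∀ l, 0 < w l
  zero : Tendsto w atTop (𝓝 0)
  sub : ∀ k, Ma.mon k ⊆ M.mon k
  act : ∀ k, ∀ e ∈ Ma.mon k, ∀ l, y l k = ∑ s, (e s : ℝ) * y l s
  gap : ∀ k, ∀ e ∈ M.mon k, e ∉ Ma.mon k → ∀ R : ℝ, ∀ᶠ l in atTop,
    y l k + R * w l ≤ ∑ s, (e s : ℝ) * y l s
  room : ∀ s, ∀ R : ℝ, ∀ᶠ l in atTop, R * w l ≤ y l s

/-- own facts of a profile -/
structure OwnF (M : Mons m) (R : ℝ) (kz : Fin m) (w0 s : ℝ) (o : ℝ → Fin m → ℝ)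
    (T : Fin m → Prop) (ν own : (Fin m → ℝ) → ℝ) : Prop where
  s0 : 0 ≤ s
  s1 : s ≤ 1
  own_le : ∀ p ∈ Leg M R, ∀ q ∈ Leg M R, p ≤ q → own p - own q ≤ ν p - ν q
  own_rot : ∀ p ∈ Leg M R, ∀ v : ℝ, 0 ≤ v → v ≤ 1 → p kz = w0 + v → (∀ k, p k ≤ o v k) →
    own p = (1 - s) * (1 - v)
  own_up : ∀ p ∈ Leg M R, ∀ v : ℝ, 0 ≤ v → v ≤ 1 → p kz = w0 + v → own p ≤ (1 - s) * (1 - v)
  own_tw : ∀ p ∈ Leg M R, ∀ v : ℝ, 0 ≤ v → v < 1 → p kz = w0 + v →
    (∃ k, T k ∧ o v k < p k) → own p < (1 - s) * (1 - v)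

/-- own path: linear in the visible slots, far in the others -/
structure OwnPath (o : ℝ → Fin m → ℝ) (kz : Fin m) (w0 R : ℝ) (V : Fin m → Prop)
    (κ : Fin m → ℝ) : Prop where
  z : ∀ v, 0 ≤ v → v ≤ 1 → o v kz = w0 + v
  vis : ∀ k, V k → ∀ v v' : ℝ, 0 ≤ v → v ≤ 1 → 0 ≤ v' → v' ≤ 1 →
    o v' k = o v k + κ k * (v' - v)
  far : ∀ k, k ≠ kz → ¬ V k → ∀ v, 0 ≤ v → v ≤ 1 → R ≤ o v k

/-- position of the base points with respect to the own path; `V0` = visible slots of the own path,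
`V` = those which are natural at the base points (the others of `V0` are far below) -/
structure OwnB (kz : Fin m) (w0 : ℝ) (o : ℝ → Fin m → ℝ) (T V0 V Tw : Fin m → Prop)
    (y : ℕ → Fin m → ℝ) (w : ℕ → ℝ) : Prop where
  lim : ∃ α β : ℝ, 0 < α ∧ β < 1 ∧ ∀ᶠ l in atTop, α ≤ y l kz - w0 ∧ y l kz - w0 ≤ β
  le : ∀ᶠ l in atTop, ∀ k, y l k ≤ o (y l kz - w0) k
  slack : ∀ k, V0 k → ¬ V k → ∀ R : ℝ, ∀ᶠ l in atTop, y l k + R * w l ≤ o (y l kz - w0) k
  sub : ∀ k, Tw k → T k ∧ V0 k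
  eq : ∀ᶠ l in atTop, ∀ k, Tw k → y l k = o (y l kz - w0) k

section own

variable {M Ma : Mons m} {R : ℝ} {kz : Fin m} {w0 s : ℝ} {o : ℝ → Fin m → ℝ}
  {T V0 V Tw : Fin m → Prop} {κ : Fin m → ℝ} {ν own lam : (Fin m → ℝ) → ℝ} {y : ℕ → Fin m → ℝ}
  {w : ℕ → ℝ} {L : Set (Fin m → ℝ)}

/-- levels stay inside `(0, 1)` -/
theorem ev_lev (hB : OwnB kz w0 o T V0 V Tw y w) (hz : Tendsto w atTop (𝓝 0)) (c : ℝ) :
    ∀ᶠ l in atTop, 0 < y l kz - w0 ∧ y l kz - w0 < 1 ∧ 0 < y l kz - w0 + w l * c ∧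
      y l kz - w0 + w l * c < 1 := by
  obtain ⟨α, β, hα, hβ, hl⟩ := hB.lim
  have h1 : Tendsto (fun l => w l * c) atTop (𝓝 0) := by simpa using hz.mul_const c
  filter_upwards [hl, h1.eventually_lt_const (show (0 : ℝ) < 1 - β by linarith),
    h1.eventually_const_lt (show -α < (0 : ℝ) by linarith)] with l h2 h3 h4
  exact ⟨by linarith [h2.1], by linarith [h2.2], by linarith [h2.1], by linarith [h2.2]⟩

/-- the moved base point is own-wide -/
theorem ev_own (hP : OwnPath o kz w0 R V0 κ) (hB : OwnB kz w0 o T V0 V Tw y w)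
    (hz : Tendsto w atTop (𝓝 0)) (hpos : ∀ l, 0 < w l)
    (ht : IsTan (Leg M R) L ν y w lam) {c : Fin m → ℝ} (hc : c ∈ L)
    (hcV : ∀ k, V k → c k ≤ κ k * c kz) :
    ∀ᶠ l in atTop, y l + w l • c ∈ Leg M R ∧ (0 < y l kz - w0 + w l * c kz ∧
      y l kz - w0 + w l * c kz < 1) ∧ (y l + w l • c) kz = w0 + (y l kz - w0 + w l * c kz) ∧
      (∀ k, (y l + w l • c) k ≤ o (y l kz - w0 + w l * c kz) k) ∧
      ∀ k, Tw k → o (y l kz - w0 + w l * c kz) k = y l k + κ k * (w l * c kz) := by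
  have hsl : ∀ᶠ l in atTop, ∀ k, V0 k → ¬ V k →
      y l k + (c k - κ k * c kz) * w l ≤ o (y l kz - w0) k := by
    rw [Filter.eventually_all]
    intro k
    by_cases h1 : V0 k
    · by_cases h2 : V k
      · exact Eventually.of_forall fun l _ h => absurd h2 h
      · exact (hB.slack k h1 h2 _).mono fun l hl _ _ => hl
    · exact Eventually.of_forall fun l h => absurd h h1
  filter_upwards [ev_lev hB hz (c kz), ht.ev hc one_pos, hB.le, hB.eq, hsl] with l h1 h2 h3 h4 hsl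
  have h5 := hpos l
  refine ⟨h2.1, ⟨h1.2.2.1, h1.2.2.2⟩, ?_, fun k => ?_, fun k hk => ?_⟩
  · simp only [Pi.add_apply, Pi.smul_apply, smul_eq_mul]; ring
  · by_cases hk : k = kz
    · subst hk
      rw [hP.z _ h1.2.2.1.le h1.2.2.2.le]
      simp only [Pi.add_apply, Pi.smul_apply, smul_eq_mul]; linarith
    · by_cases hkV : V0 k
      · rw [hP.vis k hkV _ _ h1.1.le h1.2.1.le h1.2.2.1.le h1.2.2.2.le]
        simp only [Pi.add_apply, Pi.smul_apply, smul_eq_mul]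
        by_cases hk2 : V k
        · have h6 := h3 k
          have h7 := mul_le_mul_of_nonneg_left (hcV k hk2) h5.le
          nlinarith
        · have h6 := hsl k hkV hk2
          linarith
      · exact (h2.1.2 k).trans (hP.far k hk hkV _ h1.2.2.1.le h1.2.2.2.le)
  · rw [hP.vis k (hB.sub k hk).2 _ _ h1.1.le h1.2.1.le h1.2.2.1.le h1.2.2.2.le, ← h4 k hk]
    ring

/-- **own loss of the tangent** -/
theorem own_tan (hO : OwnF M R kz w0 s o T ν own) (hP : OwnPath o kz w0 R V0 κ)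
    (hB : OwnB kz w0 o T V0 V Tw y w) (hz : Tendsto w atTop (𝓝 0)) (hpos : ∀ l, 0 < w l)
    (ht : IsTan (Leg M R) L ν y w lam) : ∀ c ∈ L, ∀ c' ∈ L, c ≤ c' →
    (∀ k, V k → c k ≤ κ k * c kz) → (1 - s) * (c' kz - c kz) ≤ lam c - lam c' := by
  intro c hc c' hc' hcc hcV
  refine tan_le ht hpos hc hc' (Eventually.frequently ?_)
  filter_upwards [ev_own hP hB hz hpos ht hc hcV, ev_lev hB hz (c' kz)] with l h1 h2 h3 h4
  obtain ⟨-, ⟨g1, g2⟩, g3, g4, -⟩ := h1
  have hw := hpos l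
  have hle : y l + w l • c ≤ y l + w l • c' := by
    intro k
    simp only [Pi.add_apply, Pi.smul_apply, smul_eq_mul]
    have := mul_le_mul_of_nonneg_left (hcc k) hw.le
    linarith
  have e1 := hO.own_le _ h3 _ h4 hle
  have e2 := hO.own_rot _ h3 _ g1.le g2.le g3 g4
  have e3 := hO.own_up _ h4 (y l kz - w0 + w l * c' kz) h2.2.2.1.le h2.2.2.2.le (by
    simp only [Pi.add_apply, Pi.smul_apply, smul_eq_mul]; ring)
  have e4 : (1 - s) * (c' kz - c kz) * w l =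
      (1 - s) * (1 - (y l kz - w0 + w l * c kz)) -
        (1 - s) * (1 - (y l kz - w0 + w l * c' kz)) := by ring
  linarith

/-- **strict drop** by a tied slot -/
theorem drop_tan (hO : OwnF M R kz w0 s o T ν own) (hP : OwnPath o kz w0 R V0 κ)
    (hB : OwnB kz w0 o T V0 V Tw y w) (hz : Tendsto w atTop (𝓝 0)) (hpos : ∀ l, 0 < w l)
    (ht : IsTan (Leg M R) L ν y w lam) {c c' : Fin m → ℝ} (hc : c ∈ L) (hc' : c' ∈ L)
    (hcc : c ≤ c') (hcV : ∀ k, V k → c k ≤ κ k * c kz) (hkz : c' kz = c kz)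
    (hk : ∃ k, Tw k ∧ κ k * c kz < c' k) :
    ∀ᶠ l in atTop, ν (y l + w l • c') < ν (y l + w l • c) := by
  obtain ⟨k, hkT, hk⟩ := hk
  filter_upwards [ev_own hP hB hz hpos ht hc hcV, ht.ev hc' one_pos] with l h1 h2
  obtain ⟨h3, ⟨g1, g2⟩, g3, g4, g5⟩ := h1
  have hw := hpos l
  have hle : y l + w l • c ≤ y l + w l • c' := by
    intro k
    simp only [Pi.add_apply, Pi.smul_apply, smul_eq_mul]
    have := mul_le_mul_of_nonneg_left (hcc k) hw.le
    linarith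
  have e1 := hO.own_le _ h3 _ h2.1 hle
  have e2 := hO.own_rot _ h3 _ g1.le g2.le g3 g4
  have e3 := hO.own_tw _ h2.1 (y l kz - w0 + w l * c kz) g1.le g2 (by
    simp only [Pi.add_apply, Pi.smul_apply, smul_eq_mul]; rw [hkz]; ring)
    ⟨k, (hB.sub k hkT).1, by
      rw [g5 k hkT]
      simp only [Pi.add_apply, Pi.smul_apply, smul_eq_mul]
      nlinarith⟩
  linarith

end own

/-! ### 196's `ExtQ` -/

section ext

variable {B : Base} {I0 I : ℕ → Finset (ℕ × ℝ)} {co : ∀ n : ℕ, ℕ × ℝ → ℕ × ℝ → Fin m → ℝ}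
  {M : Mons m} {C R : ℝ} {kz : Fin m} {w0 s : ℝ} {PD : Set (Fin m → ℝ)}
  {D : (Fin m → ℝ) → ℝ} {r o : ℝ → Fin m → ℝ} {E : ℝ → ℝ} {T : Fin m → Prop}
  {ν own : (Fin m → ℝ) → ℝ} {c₀ : ℝ}

theorem leg_sup {p q : Fin m → ℝ} (hp : p ∈ Leg M R) (hq : q ∈ Leg M R) : p ⊔ q ∈ Leg M R := by
  refine ⟨⟨fun k => ?_, fun k e he => ?_⟩, fun k => ?_⟩
  · exact (hp.1.nonneg k).trans (by rw [Pi.sup_apply]; exact le_sup_left)
  · rw [Pi.sup_apply]
    refine sup_le ((hp.1.wall k e he).trans ?_) ((hq.1.wall k e he).trans ?_)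
    · exact sum_le_sum fun s _ => mul_le_mul_of_nonneg_left le_sup_left (Nat.cast_nonneg _)
    · exact sum_le_sum fun s _ => mul_le_mul_of_nonneg_left le_sup_right (Nat.cast_nonneg _)
  · rw [Pi.sup_apply]; exact sup_le (hp.2 k) (hq.2 k)

/-- Lipschitz constant `m` from one-sided bounds -/
theorem lip_of_mono {f : (Fin m → ℝ) → ℝ}
    (h : ∀ p ∈ Leg M R, ∀ q ∈ Leg M R, p ≤ q → 0 ≤ f p - f q ∧ f p - f q ≤ ∑ k, (q k - p k)) :
    ∀ p ∈ Leg M R, ∀ q ∈ Leg M R, |f p - f q| ≤ m * ‖p - q‖ := by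
  intro p hp q hq
  have hs := leg_sup hp hq
  have h1 := h p hp _ hs le_sup_left
  have h2 := h q hq _ hs le_sup_right
  have key : ∀ i, |(p ⊔ q) i - p i| ≤ ‖p - q‖ ∧ |(p ⊔ q) i - q i| ≤ ‖p - q‖ := by
    intro i
    have h3 : |p i - q i| ≤ ‖p - q‖ := by
      have := norm_le_pi_norm (p - q) i
      rwa [Pi.sub_apply, Real.norm_eq_abs] at this
    have h4 : 0 ≤ ‖p - q‖ := norm_nonneg _
    rw [Pi.sup_apply]
    rcases le_total (p i) (q i) with h5 | h5
    · rw [sup_eq_right.2 h5, sub_self, abs_zero, abs_sub_comm]; exact ⟨h3, h4⟩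
    · rw [sup_eq_left.2 h5, sub_self, abs_zero]; exact ⟨h4, h3⟩
  have b1 : ∑ k, ((p ⊔ q) k - p k) ≤ m * ‖p - q‖ := by
    calc ∑ k, ((p ⊔ q) k - p k) ≤ ∑ _k : Fin m, ‖p - q‖ :=
          sum_le_sum fun k _ => (le_abs_self _).trans (key k).1
      _ = m * ‖p - q‖ := by rw [sum_const, card_univ, Fintype.card_fin, nsmul_eq_mul]
  have b2 : ∑ k, ((p ⊔ q) k - q k) ≤ m * ‖p - q‖ := by
    calc ∑ k, ((p ⊔ q) k - q k) ≤ ∑ _k : Fin m, ‖p - q‖ :=
          sum_le_sum fun k _ => (le_abs_self _).trans (key k).2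
      _ = m * ‖p - q‖ := by rw [sum_const, card_univ, Fintype.card_fin, nsmul_eq_mul]
  rw [abs_le]
  constructor <;> linarith [h1.1, h1.2, h2.1, h2.2]

theorem nprof_of_ext (h : ExtQ B I0 I co M C R kz w0 s PD D r o E T ν own c₀) (hR : 0 ≤ R) :
    NProf B I0 I co M C R ν where
  chart := h.chart
  R0 := hR
  sub := Eventually.of_forall h.sub
  ne := h.ne
  prof := h.prof
  lip := lip_of_mono h.lip
  anti := fun p hp q hq hpq => by linarith [(h.lip p hp q hq hpq).1]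
  sharp := fun p hp q hq hpq => (h.lip p hp q hq hpq).2
  submod := h.submod

theorem ownF_of_ext (h : ExtQ B I0 I co M C R kz w0 s PD D r o E T ν own c₀) :
    OwnF M R kz w0 s o T ν own :=
  ⟨h.s0, h.s1, h.own_le, h.own_rot, h.own_up, h.own_tw⟩

end ext

/-! ### active monomials of a plane -/

open Classical in
/-- monomials which are identities on the plane `x0 + v a + t b` -/
noncomputable def actM (M : Mons m) (x0 a b : Fin m → ℝ) : Mons m where
  mon k := (M.mon k).filter fun e => x0 k = ∑ s, (e s : ℝ) * x0 s ∧ a k = ∑ s, (e s : ℝ) * a s ∧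
    b k = ∑ s, (e s : ℝ) * b s
  low := fun k e he => M.low k e (mem_filter.1 he).1
  ne := fun k e he => M.ne k e (mem_filter.1 he).1

theorem mem_actM {M : Mons m} {x0 a b : Fin m → ℝ} {k : Fin m} {e : Fin m → ℕ} :
    e ∈ (actM M x0 a b).mon k ↔ e ∈ M.mon k ∧ x0 k = ∑ s, (e s : ℝ) * x0 s ∧
      a k = ∑ s, (e s : ℝ) * a s ∧ b k = ∑ s, (e s : ℝ) * b s := by
  unfold actM
  rw [mem_filter]

theorem coneM_actM (M : Mons m) (x0 a b : Fin m → ℝ) :
    coneM (actM M x0 a b) = (mw M).L x0 a b := by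
  ext c
  rw [mem_mwL]
  constructor
  · intro h k e he h1 h2 h3
    exact h k e (mem_actM.2 ⟨he, h1, h2, h3⟩)
  · intro h k e he
    obtain ⟨h0, h1, h2, h3⟩ := mem_actM.1 he
    exact h k e h0 h1 h2 h3

end Crest.Agent.R136.Aw413
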