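import Crest.Agent.R136.AwT_146

/-!
# R136: the window wrapper of the a.e. lines (helper413), part 2: the core

* `tan_shift` : moved base points.
* `wndL_core` : profile + tangent + strict drop ⊢ `WndL` (raw twist: 480's Qg4e, 146's `tw_rawL`).
* `aew_core` : profile + tangent + splitting + own loss + strict drop ⊢ `AeW`.
-/

set_option autoImplicit false
set_option linter.unusedSectionVars false
set_option linter.unusedVariables false

open Filter Topology

namespace Crest.Agent.R136.Aw413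

open Finset Crest.Agent.R138.Ex926 Crest.Agent.R136.Net191 Crest.Agent.R136.Gf356
open Crest.Agent.R136.Qg926 Crest.Agent.R136.Dg219

variable {m : ℕ} {ι : ℕ → Type} [∀ n, DecidableEq (ι n)] [∀ n, Nonempty (ι n)]

/-- moved base points -/
theorem tan_shift {P L : Set (Fin m → ℝ)} {ν lam : (Fin m → ℝ) → ℝ} {y : ℕ → Fin m → ℝ}
    {w : ℕ → ℝ} (ht : IsTan P L ν y w lam) (hpos : ∀ l, 0 < w l) {c0 : Fin m → ℝ} (h0 : c0 ∈ L) :
    IsTan P {p | c0 + p ∈ L} ν (fun l => y l + w l • c0) w (fun p => lam (c0 + p) - lam c0) := by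
  intro K ε hε
  filter_upwards [ht (‖c0‖ + K) (ε / 2) (by positivity), ht.ev h0 (ε := ε / 2) (by positivity)]
    with l h1 h2 c hc hcK
  have h3 := h1 (c0 + c) hc ((norm_add_le _ _).trans (by linarith))
  have e : y l + w l • c0 + w l • c = y l + w l • (c0 + c) := by rw [smul_add, add_assoc]
  rw [e]
  refine ⟨h3.1, ?_⟩
  have h4 := h3.2
  have h5 := h2.2
  have hw := hpos l
  rw [abs_le] at h4 h5 ⊢
  constructor <;> nlinarith [h4.1, h4.2, h5.1, h5.2]

theorem sum_shift (e : Fin m → ℕ) (y c0 : Fin m → ℝ) (w : ℝ) :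
    ∑ s, (e s : ℝ) * (y + w • c0) s = ∑ s, (e s : ℝ) * y s + w * ∑ s, (e s : ℝ) * c0 s := by
  rw [mul_sum, ← sum_add_distrib]
  refine sum_congr rfl fun s _ => ?_
  simp only [Pi.add_apply, Pi.smul_apply, smul_eq_mul]; ring

section core

variable {B : Base} {I J : ∀ n, Finset (ι n)} {co : ∀ n, ι n → ι n → Fin m → ℝ} {M Ma : Mons m}
  {C R : ℝ} {ν lam : (Fin m → ℝ) → ℝ} {y : ℕ → Fin m → ℝ} {w : ℕ → ℝ} {a b : Fin m → ℝ}
  {A : ℝ × ℝ} {φ : ℕ → (Fin m → ℝ) → ℝ} {r : ℕ → ℝ} {kz : Fin m} {σ : ℝ} {κ : Fin m → ℝ}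
  {V Tw : Fin m → Prop}

theorem tan_mono_add (hpos : ∀ l, 0 < w l) (l : ℕ) (c c' : Fin m → ℝ) (h : c ≤ c') :
    y l + w l • c ≤ y l + w l • c' := fun k => by
  simp only [Pi.add_apply, Pi.smul_apply, smul_eq_mul]
  have := mul_le_mul_of_nonneg_left (h k) (hpos l).le
  linarith

/-- one-sided Lipschitz bound of the tangent -/
theorem tan_sharp' {P L : Set (Fin m → ℝ)} (ht : IsTan P L ν y w lam) (hpos : ∀ l, 0 < w l)
    (hν : ∀ p ∈ P, ∀ q ∈ P, p ≤ q → ν p - ν q ≤ ∑ s, (q s - p s)) :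
    ∀ c ∈ L, ∀ c' ∈ L, c ≤ c' → lam c - lam c' ≤ ∑ s, (c' s - c s) := by
  intro c hc c' hc' hcc
  refine le_of_forall_pos_le_add fun ε hε => ?_
  obtain ⟨l, h1, h2⟩ := ((ht.ev hc (ε := ε / 2) (by positivity)).and
    (ht.ev hc' (ε := ε / 2) (by positivity))).exists
  have h3 := hν _ h1.1 _ h2.1 (tan_mono_add hpos l c c' hcc)
  have h4 : ∑ s, ((y l + w l • c') s - (y l + w l • c) s) = w l * ∑ s, (c' s - c s) := by
    rw [mul_sum]
    exact sum_congr rfl fun s _ => by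
      simp only [Pi.add_apply, Pi.smul_apply, smul_eq_mul]; ring
  rw [h4] at h3
  have h5 := h1.2
  have h6 := h2.2
  have hw := hpos l
  rw [abs_le] at h5 h6
  have key : w l * (lam c - lam c') ≤ w l * (∑ s, (c' s - c s) + ε) := by nlinarith
  exact le_of_mul_le_mul_left key hw

/-- a smaller flag loss is legal too -/
theorem cut_conv {c0 : Fin m → ℝ} {S : Finset (Fin m)} {top : Fin m → ℝ} {j : Fin m}
    (h0 : c0 + cut S top 0 ∈ coneM Ma) {e e0 : ℝ} (he : 0 < e) (hee : e ≤ e0)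
    (h1 : c0 + cut S top (Pi.single j e0) ∈ coneM Ma) :
    c0 + cut S top (Pi.single j e) ∈ coneM Ma := by
  have he0 : 0 < e0 := he.trans_le hee
  intro k q hq
  have g1 := h0 k q hq
  have g2 := h1 k q hq
  have hc : ∀ i, (c0 + cut S top (Pi.single j e)) i =
      (1 - e / e0) * (c0 + cut S top 0) i + e / e0 * (c0 + cut S top (Pi.single j e0)) i := by
    intro i
    simp only [Pi.add_apply, cut]
    by_cases hiS : i ∈ S
    · rw [if_pos hiS, if_pos hiS, if_pos hiS]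
      by_cases hij : i = j
      · subst hij
        rw [Pi.single_eq_same, Pi.single_eq_same, Pi.zero_apply]
        field_simp
        ring
      · rw [Pi.single_eq_of_ne hij, Pi.single_eq_of_ne hij, Pi.zero_apply]; ring
    · rw [if_neg hiS, if_neg hiS, if_neg hiS]; ring
  have hs : ∑ i, (q i : ℝ) * (c0 + cut S top (Pi.single j e)) i =
      (1 - e / e0) * ∑ i, (q i : ℝ) * (c0 + cut S top 0) i +
        e / e0 * ∑ i, (q i : ℝ) * (c0 + cut S top (Pi.single j e0)) i := by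
    rw [mul_sum, mul_sum, ← sum_add_distrib]
    exact sum_congr rfl fun i _ => by rw [hc i]; ring
  rw [hs, hc k]
  have t1 : 0 ≤ e / e0 := by positivity
  have t2 : 0 ≤ 1 - e / e0 := by
    rw [sub_nonneg, div_le_one he0]; exact hee
  exact add_le_add (mul_le_mul_of_nonneg_left g1 t2) (mul_le_mul_of_nonneg_left g2 t1)

/-- strict drop in a tied slot -/
theorem cut_drop {c0 : Fin m → ℝ} {st : WSt m} (hkz : st.kz = kz) (hkzS : st.kz ∈ st.S)
    (hTkz : ¬ Tw kz)
    (hdrop : ∀ c ∈ coneM Ma, ∀ c' ∈ coneM Ma, c ≤ c' → (∀ k, V k → c k ≤ κ k * c kz) →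
      c' kz = c kz → (∃ k, Tw k ∧ κ k * c kz < c' k) →
      ∀ᶠ l in atTop, ν (y l + w l • c') < ν (y l + w l • c))
    (h1 : ∀ k, V k → c0 k ≤ κ k * c0 kz) (h2 : ∀ k, V k → k ∈ st.S ∨ st.top k = 0) {j : Fin m}
    (hjS : j ∈ st.S) (hjT : Tw j) (hj0 : c0 j = κ j * c0 kz)
    (hlin : c0 + cut st.S st.top 0 ∈ coneM Ma) {e : ℝ} (he : 0 < e)
    (hle : c0 + cut st.S st.top (Pi.single j e) ∈ coneM Ma) :
    ∀ᶠ l in atTop, ν (y l + w l • c0 + w l • cut st.S st.top (Pi.single j e)) <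
      ν (y l + w l • c0 + w l • cut st.S st.top 0) := by
  have hjk : j ≠ kz := fun h => hTkz (h ▸ hjT)
  have hkzS : kz ∈ st.S := hkz ▸ hkzS
  have e1 : (c0 + cut st.S st.top 0) kz = c0 kz := by
    rw [Pi.add_apply, cut_of_mem hkzS]; simp
  have e2 : (c0 + cut st.S st.top (Pi.single j e)) kz = c0 kz := by
    rw [Pi.add_apply, cut_of_mem hkzS, Pi.single_eq_of_ne hjk.symm, add_zero]
  have e3 : (c0 + cut st.S st.top (Pi.single j e)) j = c0 j + e := by
    rw [Pi.add_apply, cut_of_mem hjS, Pi.single_eq_same]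
  have hd := hdrop _ hlin _ hle (by
      intro i
      simp only [Pi.add_apply, cut]
      by_cases hiS : i ∈ st.S
      · rw [if_pos hiS, if_pos hiS]
        by_cases hij : i = j
        · subst hij; rw [Pi.single_eq_same, Pi.zero_apply]; linarith
        · rw [Pi.single_eq_of_ne hij, Pi.zero_apply]
      · rw [if_neg hiS, if_neg hiS])
    (by
      intro k hk
      rw [e1]
      have h1 := h1 k hk
      rcases h2 k hk with h2 | h2
      · rw [Pi.add_apply, cut_of_mem h2]; simpa using h1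
      · by_cases hkS : k ∈ st.S
        · rw [Pi.add_apply, cut_of_mem hkS]; simpa using h1
        · rw [Pi.add_apply, cut_of_notMem hkS, h2, add_zero]; exact h1)
    (by rw [e1, e2]) ⟨j, hjT, by rw [e1, e3, ← hj0]; linarith⟩
  filter_upwards [hd] with l hl
  rw [add_assoc, ← smul_add, add_assoc, ← smul_add]
  exact hl

theorem finset_min {α : Type*} (F : Finset α) (P : α → ℝ → Prop)
    (hP : ∀ j ∈ F, ∃ e : ℝ, 0 < e ∧ P j e) (hm : ∀ j ∈ F, ∀ e e', 0 < e → e ≤ e' → P j e' → P j e) :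
    ∃ e0 : ℝ, 0 < e0 ∧ ∀ j ∈ F, P j e0 := by
  classical
  induction F using Finset.induction_on with
  | empty => exact ⟨1, one_pos, fun j hj => absurd hj (notMem_empty _)⟩
  | insert a s has ih =>
    obtain ⟨e1, h1, h2⟩ := ih (fun j hj => hP j (mem_insert_of_mem hj))
      fun j hj => hm j (mem_insert_of_mem hj)
    obtain ⟨e2, h3, h4⟩ := hP a (mem_insert_self _ _)
    refine ⟨min e1 e2, lt_min h1 h3, fun j hj => ?_⟩
    rcases mem_insert.1 hj with rfl | hj'
    · exact hm _ (mem_insert_self _ _) _ _ (lt_min h1 h3) (min_le_right _ _) h4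
    · exact hm _ (mem_insert_of_mem hj') _ _ (lt_min h1 h3) (min_le_left _ _) (h2 _ hj')

/-- **windows with known base points** from a profile, a tangent and the strict drop -/
theorem wndL_core (hN : NProf B I J co M C R ν) (hB : Bas M Ma y w)
    (ht : IsTan (Leg M R) (coneM Ma) ν y w lam) (hTkz : ¬ Tw kz)
    (hdrop : ∀ c ∈ coneM Ma, ∀ c' ∈ coneM Ma, c ≤ c' → (∀ k, V k → c k ≤ κ k * c kz) →
      c' kz = c kz → (∃ k, Tw k ∧ κ k * c kz < c' k) →
      ∀ᶠ l in atTop, ν (y l + w l • c') < ν (y l + w l • c)) :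
    WndL B B I J co M Ma C lam kz κ V Tw y w := by
  classical
  intro c0 hc0 st hkz hst s hs E Sd hE hSd hd Gs hGs
  have ht' := tan_shift ht hB.pos hc0
  have h0D : (0 : Fin m → ℝ) ∈ {p | c0 + p ∈ coneM Ma} := by simpa using hc0
  have hlin : c0 + cut st.S st.top 0 ∈ coneM Ma := hst.leg hst.lin_leg
  set F : Finset (Fin m) := if ((∀ k, V k → c0 k ≤ κ k * c0 kz) ∧
      (∀ k, V k → k ∈ st.S ∨ st.top k = 0)) then
      st.S.filter fun j => Tw j ∧ 0 < st.top j ∧ c0 j = κ j * c0 kz ∧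
        ∃ e : ℝ, 0 < e ∧ c0 + cut st.S st.top (Pi.single j e) ∈ coneM Ma
    else ∅ with hF
  have hFS : F ⊆ st.S := by
    rw [hF]; split_ifs
    · exact filter_subset _ _
    · exact empty_subset _
  have hFm : ∀ j ∈ F, ((∀ k, V k → c0 k ≤ κ k * c0 kz) ∧
      (∀ k, V k → k ∈ st.S ∨ st.top k = 0)) ∧ j ∈ st.S ∧ Tw j ∧ 0 < st.top j ∧
      c0 j = κ j * c0 kz ∧ ∃ e : ℝ, 0 < e ∧ c0 + cut st.S st.top (Pi.single j e) ∈ coneM Ma := by
    intro j hj
    by_cases hcond : (∀ k, V k → c0 k ≤ κ k * c0 kz) ∧ (∀ k, V k → k ∈ st.S ∨ st.top k = 0)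
    · rw [hF, if_pos hcond, mem_filter] at hj
      exact ⟨hcond, hj⟩
    · rw [hF, if_neg hcond] at hj
      exact absurd hj (notMem_empty j)
  obtain ⟨e0, he0, he1⟩ := finset_min F (fun j e => e ≤ st.top j ∧
      c0 + cut st.S st.top (Pi.single j e) ∈ coneM Ma) (fun j hj => by
      obtain ⟨-, -, -, h1, -, e, h2, h3⟩ := hFm j hj
      exact ⟨min (st.top j) e, lt_min h1 h2, min_le_left _ _,
        cut_conv hlin (lt_min h1 h2) (min_le_right _ _) h3⟩)
    fun j hj e e' h1 h2 h3 => ⟨h2.trans h3.1, cut_conv hlin h1 h2 h3.2⟩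
  set s' : ℕ → ℕ → ℝ := consS Sd s with hs'
  have hs'S : ∀ i, B.Sub (s' i) := fun i => by
    simp only [hs', consS]
    split_ifs
    · exact hSd
    · exact hs _
  set Fs : Finset (Finset (Fin m)) := F.image fun j => {j} with hFs
  have hmem : ∀ F' ∈ Fs, ∃ j ∈ F, F' = {j} := by
    intro F' hF'
    obtain ⟨j, hj, rfl⟩ := mem_image.1 hF'
    exact ⟨j, hj, rfl⟩
  obtain ⟨k, hk, hk2⟩ := Qg4480.exists_wnd_twS_ex hN (x := fun l => y l + w l • c0) hB.pos h0D ht'
    hN.prof h0D ht' hst s' hs'S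
    (fun n => Classical.arbitrary (ι n)) (E := E) hE 1 1
    (by
      filter_upwards [hd] with n hn
      rw [prod_range_one, pow_one]
      refine hn.trans (mul_le_mul_of_nonneg_right ?_ (Nat.cast_nonneg _))
      have e1 : s' 0 n = Sd n := by simp [hs', consS]
      rw [e1]
      linarith [le_abs_self (Sd n)]) Fs he0
    (fun F' hF' => by
      obtain ⟨j, hj, rfl⟩ := hmem F' hF'
      exact singleton_subset_iff.2 (hFS hj))
    (fun F' hF' i hi => by
      obtain ⟨j, hj, rfl⟩ := hmem F' hF'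
      rw [mem_singleton] at hi
      subst hi
      exact (he1 i hj).1)
    (fun F' hF' e he hee => by
      obtain ⟨j, hj, rfl⟩ := hmem F' hF'
      rw [AwT146.ind_single]
      exact cut_conv hlin he hee (he1 j hj).2)
    (fun F' hF' e he hee => by
      obtain ⟨j, hj, rfl⟩ := hmem F' hF'
      rw [AwT146.ind_single]
      obtain ⟨⟨h1, h2⟩, h3, h4, -, h5, -⟩ := hFm j hj
      exact cut_drop hkz hst.kzS hTkz hdrop h1 h2 h3 h4 h5 hlin he
        (cut_conv hlin he hee (he1 j hj).2)) Gs hGs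
  refine ⟨k, hk, fun k' hk' hle => ?_⟩
  obtain ⟨B', Gd, s₀, Mx, b1, b2, b3, b4, b4s, b4c, b5, b6, b7, b8, b9⟩ := hk2 k' hk' hle
  refine ⟨_, ⟨b8, rfl, rfl, rfl, rfl, rfl, rfl, rfl, rfl, rfl, rfl, rfl, rfl, rfl, b1, ?_, ?_, ?_,
    ?_⟩, fun i => ?_, rfl, rfl, rfl, ?_, ?_, ?_⟩
  · intro j e he n
    show (y (k' n) + w (k' n) • c0) j + (∑ s, (e s : ℝ) * c0 s - c0 j) * w (k' n) =
      ∑ s, (e s : ℝ) * (y (k' n) + w (k' n) • c0) s
    rw [sum_shift, ← hB.act j e he (k' n), Pi.add_apply, Pi.smul_apply, smul_eq_mul]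
    ring
  · intro j e he hne R'
    have h1 := hB.gap j e he hne (R' + c0 j - ∑ s, (e s : ℝ) * c0 s)
    filter_upwards [hk'.eventually h1] with n hn
    show (y (k' n) + w (k' n) • c0) j + R' * w (k' n) ≤
      ∑ s, (e s : ℝ) * (y (k' n) + w (k' n) • c0) s
    rw [sum_shift, Pi.add_apply, Pi.smul_apply, smul_eq_mul]
    linarith
  · intro j R'
    have h1 := hB.room j (R' - c0 j)
    filter_upwards [hk'.eventually h1] with n hn
    show R' * w (k' n) ≤ (y (k' n) + w (k' n) • c0) j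
    rw [Pi.add_apply, Pi.smul_apply, smul_eq_mul]
    linarith
  · intro g1 g2
    refine ⟨fun n => 1 + B'.L n, ?_, fun E hE E' g ex hP hg j hj hjT hjt hj0 hje => ?_⟩
    · exact tendsto_atTop_add_const_left _ _ B'.L_tendsto
    · refine AwT146.tw_rawL' b8 (b9 {j} (mem_image_of_mem _ ?_)) hE hP hg
      rw [hkz] at g1 hj0
      rw [hF, if_pos ⟨g1, g2⟩, mem_filter]
      exact ⟨hj, hjT, hjt, hj0, hje⟩
  · have h1 : B'.Sub (s i) := by simpa [hs', consS] using b3 (i + 1)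
    exact h1
  · filter_upwards [b6] with n hn
    exact ⟨hn.1, mem_cls.2 ⟨hn.2, rfl⟩⟩
  · refine Eventually.of_forall fun n => ⟨fun i hi => ?_, fun i hi => ?_⟩
    · obtain ⟨h1, -⟩ := mem_cls.1 hi
      exact mem_inter.2 ⟨b4 n h1, b4s n h1⟩
    · obtain ⟨h1, h2⟩ := mem_cls.1 hi
      show cls (Gd n) (zlab B I co M C _ _ n 0) (s₀ n) = _
      rw [← cls_congr h2, b4c n i h1]
      rfl
  · intro g1 g2
    refine ⟨Mx, fun j hj hjT hjt hj0 hje => b9 {j} (mem_image_of_mem _ ?_)⟩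
    rw [hkz] at g1 hj0
    rw [hF, if_pos ⟨g1, g2⟩, mem_filter]
    exact ⟨hj, hjT, hjt, hj0, hje⟩

/-- **the core**: profile, tangent, splitting, own loss of the tangent, strict drop by tied slots -/
theorem aew_core (hN : NProf B I J co M C R ν) (hB : Bas M Ma y w)
    (ht : IsTan (Leg M R) (coneM Ma) ν y w lam)
    (out : OutS (gC a b) (coneM Ma) (dhC a b) (nC a b) lam A φ r)
    (hown : ∀ c ∈ coneM Ma, ∀ c' ∈ coneM Ma, c ≤ c' → (∀ k, V k → c k ≤ κ k * c kz) →
      σ * (c' kz - c kz) ≤ lam c - lam c')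
    (hTkz : ¬ Tw kz)
    (hdrop : ∀ c ∈ coneM Ma, ∀ c' ∈ coneM Ma, c ≤ c' → (∀ k, V k → c k ≤ κ k * c kz) →
      c' kz = c kz → (∃ k, Tw k ∧ κ k * c kz < c' k) →
      ∀ᶠ l in atTop, ν (y l + w l • c') < ν (y l + w l • c)) :
    AeW B B I J co M Ma C lam a b A φ r kz σ κ V Tw where
  sub := hB.sub
  zero := ht.zero hB.pos zero_mem
  lip := ht.lip hB.pos hN.lip
  anti := ht.anti hB.pos (tan_mono_add hB.pos) hN.anti
  sharp := tan_sharp' ht hB.pos hN.sharp
  submod := fun c hc c' hc' h1 h2 => ht.submod hB.pos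
    (fun p hp q hq h _ => hN.submod p hp q hq h) hc hc' h1 h2
  out := out
  own := hown
  wndO := by
    intro c0 hc0 st hkz hst s hs J' Sd hJ hne hSd hd
    have hN' : NProf B I J' co M C R ν := hN.refine hJ hne hSd hd
    obtain ⟨k, hk, hk2⟩ := wndL_core hN' hB ht hTkz hdrop c0 hc0 st hkz hst s hs J' (fun _ => 1)
      (Eventually.of_forall fun n => Subset.refl _) (Base.Sub.const one_pos)
      (Eventually.of_forall fun n => by rw [one_mul]) (fun _ => J') (fun l c hc =>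
        Eventually.of_forall fun n => by simp)
    obtain ⟨W, h1, h2, -, -, -, -, h3, -⟩ := hk2 k hk (Eventually.of_forall fun n => le_rfl)
    exact ⟨W, h1, h2, h3.mono fun n hn => hn.1.trans inter_subset_left⟩

end core

end Crest.Agent.R136.Aw413
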