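import Crest.Agent.R136.Dec3_146

/-!
# R136: the stationarity theorem (helper146)

`ae_move`: for a.e. `x` of the domain, for ALL moves `(w, z, y)` of type I or II and all `u`,
`(1/h) [Inc ν (h z) (X (x + h u) + h w) - Inc ν (h z) (X x + h w)] → 0` as `h → 0+` (all scales).
`BU.inv`: every blow-up of `ν` at such a point has increments of moves which are invariant under the
whole natural plane.
-/

set_option autoImplicit false
set_option linter.unusedSectionVars false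
set_option linter.unusedVariables false

open Filter Topology MeasureTheory Set

namespace Crest.Agent.R136.Dec146

variable {ι : Type*} [Fintype ι] {E : Type*} [NormedAddCommGroup E] [NormedSpace ℝ E]
  [FiniteDimensional ℝ E]
  {L : E →ₗ[ℝ] (ι → ℝ)} {LEG S : Set (ι → ℝ)} {ν : (ι → ℝ) → ℝ} {b : ι → ℝ} {K : ℝ}

theorem lip_step (hK : 0 ≤ K) (hlip : ∀ p q, |ν p - ν q| ≤ K * ‖p - q‖) {h : ℝ} (hh : 0 < h)
    (p v v' : ι → ℝ) : |ν (p + h • v) - ν (p + h • v')| ≤ K * h * ‖v - v'‖ := by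
  refine (hlip _ _).trans (le_of_eq ?_)
  rw [add_sub_add_left_eq_sub, ← smul_sub, norm_smul, Real.norm_of_nonneg hh.le]; ring

theorem GG_eq (w z : ι → ℝ) (u x : E) (h : ℝ) :
    GG ν b L w z u x h = (ν (b + L x + h • (L u + w)) - ν (b + L x + h • (L u + w + z))
      - (ν (b + L x + h • w) - ν (b + L x + h • (w + z)))) / h := by
  have e1 : b + L (x + h • u) + h • w = b + L x + h • (L u + w) := by
    rw [map_add, map_smul]
    ext i; simp only [Pi.add_apply, Pi.smul_apply, smul_eq_mul]; ring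
  have e2 : b + L (x + h • u) + h • w + h • z = b + L x + h • (L u + w + z) := by
    rw [map_add, map_smul]
    ext i; simp only [Pi.add_apply, Pi.smul_apply, smul_eq_mul]; ring
  have e3 : b + L x + h • w + h • z = b + L x + h • (w + z) := by
    rw [add_assoc, ← smul_add]
  unfold GG Inc
  rw [e2, e1, e3]

theorem GG_lip (hK : 0 ≤ K) (hlip : ∀ p q, |ν p - ν q| ≤ K * ‖p - q‖) {Λ : ℝ}
    (hΛ : ∀ x, ‖L x‖ ≤ Λ * ‖x‖) {h : ℝ} (hh : 0 < h) (w z w' z' : ι → ℝ) (u u' x : E) :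
    |GG ν b L w z u x h - GG ν b L w' z' u' x h| ≤
      K * (2 * Λ * ‖u - u'‖ + 4 * ‖w - w'‖ + 2 * ‖z - z'‖) := by
  rw [GG_eq, GG_eq, ← sub_div, abs_div, abs_of_pos hh, div_le_iff₀ hh]
  have t1 := lip_step hK hlip hh (b + L x) (L u + w) (L u' + w')
  have t2 := lip_step hK hlip hh (b + L x) (L u + w + z) (L u' + w' + z')
  have t3 := lip_step hK hlip hh (b + L x) w w'
  have t4 := lip_step hK hlip hh (b + L x) (w + z) (w' + z')
  have n1 : ‖L u + w - (L u' + w')‖ ≤ Λ * ‖u - u'‖ + ‖w - w'‖ := by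
    rw [show L u + w - (L u' + w') = L (u - u') + (w - w') by rw [map_sub]; abel]
    exact (norm_add_le _ _).trans (add_le_add (hΛ _) le_rfl)
  have n2 : ‖L u + w + z - (L u' + w' + z')‖ ≤ Λ * ‖u - u'‖ + ‖w - w'‖ + ‖z - z'‖ := by
    rw [show L u + w + z - (L u' + w' + z') = (L u + w - (L u' + w')) + (z - z') by abel]
    exact (norm_add_le _ _).trans (add_le_add n1 le_rfl)
  have n4 : ‖w + z - (w' + z')‖ ≤ ‖w - w'‖ + ‖z - z'‖ := by
    rw [show w + z - (w' + z') = (w - w') + (z - z') by abel]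
    exact norm_add_le _ _
  have hKh : 0 ≤ K * h := by positivity
  have m1 := mul_le_mul_of_nonneg_left n1 hKh
  have m2 := mul_le_mul_of_nonneg_left n2 hKh
  have m4 := mul_le_mul_of_nonneg_left n4 hKh
  rw [abs_le] at t1 t2 t3 t4 ⊢
  constructor
  · nlinarith [t1.1, t2.2, t3.2, t4.1]
  · nlinarith [t1.2, t2.1, t3.1, t4.2]

theorem GG_scale (w z : ι → ℝ) (u x : E) {t h : ℝ} (ht : 0 < t) (hh : 0 < h) :
    GG ν b L w z u x (t * h) = t⁻¹ * GG ν b L (t • w) (t • z) (t • u) x h := by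
  rw [GG_eq, GG_eq]
  have e : ∀ v : ι → ℝ, (t * h) • v = h • (t • v) := fun v => by rw [smul_smul, mul_comm]
  have a1 : t • L u + t • w = t • (L u + w) := (smul_add _ _ _).symm
  have a2 : t • L u + t • w + t • z = t • (L u + w + z) := by rw [smul_add, smul_add]
  have a3 : t • w + t • z = t • (w + z) := (smul_add _ _ _).symm
  rw [e, e, e, e, map_smul, a2, a1, a3]
  field_simp

theorem exists_Lam' (L : E →ₗ[ℝ] (ι → ℝ)) : ∃ Λ : ℝ, 0 ≤ Λ ∧ ∀ x, ‖L x‖ ≤ Λ * ‖x‖ := by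
  refine ⟨‖LinearMap.toContinuousLinearMap L‖, norm_nonneg _, fun x => ?_⟩
  exact (LinearMap.toContinuousLinearMap L).le_opNorm x

theorem all_scales (hK : 0 ≤ K) (hlip : ∀ p q, |ν p - ν q| ≤ K * ‖p - q‖) {w z : ι → ℝ} {u x : E}
    (H : ∀ t : ℝ, 1 ≤ t → t ≤ 2 →
      Tendsto (fun k : ℕ => GG ν b L (t • w) (t • z) (t • u) x ((1 / 2) ^ k)) atTop (𝓝 0)) :
    Tendsto (fun h => GG ν b L w z u x h) (𝓝[>] 0) (𝓝 0) := by
  obtain ⟨Λ, hΛ0, hΛ⟩ := exists_Lam' L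
  set C : ℝ := K * (2 * Λ * ‖u‖ + 4 * ‖w‖ + 2 * ‖z‖) with hC
  have hC0 : 0 ≤ C := by rw [hC]; positivity
  rw [Metric.tendsto_nhds]
  intro ε hε
  obtain ⟨N, hN⟩ := exists_nat_gt (C / (ε / 2))
  have hN0 : (0 : ℝ) < N + 1 := by positivity
  have hCN : C / (N + 1) < ε / 2 := by
    rw [div_lt_iff₀ (by positivity)] at hN ⊢
    nlinarith
  have hall : ∀ᶠ k : ℕ in atTop, ∀ j ∈ Finset.range (N + 2),
      |GG ν b L ((1 + j / (N + 1) : ℝ) • w) ((1 + j / (N + 1) : ℝ) • z)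
        ((1 + j / (N + 1) : ℝ) • u) x ((1 / 2) ^ k)| < ε / 2 := by
    rw [Filter.eventually_all_finset]
    intro j hj
    have hj1 : (j : ℝ) ≤ N + 1 := by
      have := Finset.mem_range.1 hj
      exact_mod_cast Nat.lt_succ_iff.1 this
    have hj2 : (j : ℝ) / (N + 1) ≤ 1 := by rw [div_le_one hN0]; exact hj1
    have hj0 : (0 : ℝ) ≤ (j : ℝ) / (N + 1) := by positivity
    have := H (1 + j / (N + 1)) (by linarith) (by linarith)
    have h2 := (Metric.tendsto_nhds.1 this) (ε / 2) (half_pos hε)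
    filter_upwards [h2] with k hk
    rwa [Real.dist_eq, sub_zero] at hk
  obtain ⟨k₁, hk₁⟩ := eventually_atTop.1 hall
  have hsmall : ∀ᶠ h : ℝ in 𝓝[>] 0, h < (1 / 2 : ℝ) ^ (k₁ + 1) := by
    have : Ioo (0 : ℝ) ((1 / 2 : ℝ) ^ (k₁ + 1)) ∈ 𝓝[>] (0 : ℝ) := Ioo_mem_nhdsGT (by positivity)
    filter_upwards [this] with h hh using hh.2
  filter_upwards [hsmall, self_mem_nhdsWithin] with h hh1 hh0
  have hh0 : 0 < h := hh0
  have hle1 : h ≤ 1 := hh1.le.trans (pow_le_one₀ (by norm_num) (by norm_num))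
  obtain ⟨n, hn1, hn2⟩ := exists_nat_pow_near_of_lt_one hh0 hle1 (show (0 : ℝ) < 1 / 2 by norm_num)
    (by norm_num)
  have hnk : k₁ ≤ n := by
    by_contra hcon
    have : (1 / 2 : ℝ) ^ (k₁ + 1) ≤ (1 / 2) ^ (n + 1) :=
      pow_le_pow_of_le_one (by norm_num) (by norm_num) (by omega)
    linarith
  set t : ℝ := h / (1 / 2) ^ (n + 1) with ht
  have hp : (0 : ℝ) < (1 / 2) ^ (n + 1) := by positivity
  have ht1 : 1 ≤ t := by rw [ht, le_div_iff₀ hp]; linarith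
  have ht2 : t ≤ 2 := by
    rw [ht, div_le_iff₀ hp, pow_succ]; linarith
  have hth : h = t * (1 / 2) ^ (n + 1) := by rw [ht, div_mul_cancel₀ _ hp.ne']
  -- nearest net point
  set j : ℕ := ⌊(t - 1) * (N + 1)⌋₊ with hj
  have hj0 : 0 ≤ (t - 1) * (N + 1 : ℝ) := mul_nonneg (by linarith) hN0.le
  have hj1 : (j : ℝ) ≤ (t - 1) * (N + 1) := Nat.floor_le hj0
  have hj2 : (t - 1) * (N + 1) < (j : ℝ) + 1 := Nat.lt_floor_add_one _
  have hjN : j ∈ Finset.range (N + 2) := by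
    rw [Finset.mem_range]
    have : (j : ℝ) ≤ N + 1 := hj1.trans (by nlinarith)
    have : j ≤ N + 1 := by exact_mod_cast this
    omega
  have hk := hk₁ (n + 1) (by omega) j hjN
  set s : ℝ := 1 + j / (N + 1) with hs
  have hst : |t - s| ≤ 1 / (N + 1) := by
    rw [hs, abs_le]
    have a1 : (j : ℝ) / (N + 1) ≤ t - 1 := by rw [div_le_iff₀ hN0]; exact hj1
    have a2 : t - 1 ≤ (j : ℝ) / (N + 1) + 1 / (N + 1) := by
      rw [← add_div, le_div_iff₀ hN0]; exact hj2.le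
    have a3 : (0 : ℝ) ≤ 1 / (N + 1) := by positivity
    constructor <;> linarith
  have hd := GG_lip (ν := ν) (b := b) (L := L) hK hlip hΛ hp (t • w) (t • z) (s • w) (s • z)
    (t • u) (s • u) x
  rw [← sub_smul, ← sub_smul, ← sub_smul, norm_smul, norm_smul, norm_smul, Real.norm_eq_abs] at hd
  have hd2 : K * (2 * Λ * (|t - s| * ‖u‖) + 4 * (|t - s| * ‖w‖) + 2 * (|t - s| * ‖z‖)) =
      C * |t - s| := by rw [hC]; ring
  rw [hd2] at hd
  have hd3 : C * |t - s| < ε / 2 := by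
    calc C * |t - s| ≤ C * (1 / (N + 1)) := mul_le_mul_of_nonneg_left hst hC0
      _ = C / (N + 1) := by ring
      _ < ε / 2 := hCN
  rw [Real.dist_eq, sub_zero, hth, GG_scale w z u x (by linarith) hp, abs_mul,
    abs_of_pos (by positivity : 0 < t⁻¹)]
  have h3 : |GG ν b L (t • w) (t • z) (t • u) x ((1 / 2) ^ (n + 1))| < ε := by
    rw [abs_lt] at hk ⊢
    rw [abs_le] at hd
    constructor <;> linarith [hk.1, hk.2, hd.1, hd.2]
  have h4 : t⁻¹ ≤ 1 := inv_le_one_of_one_le₀ ht1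
  calc t⁻¹ * |GG ν b L (t • w) (t • z) (t • u) x ((1 / 2) ^ (n + 1))|
      ≤ 1 * |GG ν b L (t • w) (t • z) (t • u) x ((1 / 2) ^ (n + 1))| :=
        mul_le_mul_of_nonneg_right h4 (abs_nonneg _)
    _ < ε := by rw [one_mul]; exact h3

theorem MoveI.smul {w z : ι → ℝ} {y : E} (hm : MoveI L w z y) {t : ℝ} (ht : 0 ≤ t) :
    MoveI L (t • w) (t • z) (t • y) := by
  intro i
  rw [map_smul]
  simp only [Pi.smul_apply, smul_eq_mul]
  rcases hm i with ⟨a, b', c⟩ | ⟨a, b', c⟩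
  · left; exact ⟨by rw [a, mul_zero], by rw [b'], mul_nonneg ht c⟩
  · right; exact ⟨by rw [a, mul_zero], mul_nonpos_of_nonneg_of_nonpos ht b',
      mul_le_mul_of_nonneg_left c ht⟩

theorem MoveII.smul {w z : ι → ℝ} {y : E} (hm : MoveII L w z y) {t : ℝ} (ht : 0 ≤ t) :
    MoveII L (t • w) (t • z) (t • y) := by
  intro i
  rw [map_smul]
  simp only [Pi.smul_apply, smul_eq_mul]
  rcases hm i with ⟨a, b', c⟩ | ⟨a, b', c⟩
  · left; exact ⟨by rw [a, mul_zero], by rw [b'], mul_nonneg ht c⟩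
  · right; exact ⟨by rw [a, mul_zero], mul_nonneg ht b', mul_le_mul_of_nonneg_left c ht⟩

/-- the legal moves -/
def Mv (L : E →ₗ[ℝ] (ι → ℝ)) (LEG : Set (ι → ℝ)) : Set ((ι → ℝ) × (ι → ℝ) × E) :=
  {m | m.1 ∈ LEG ∧ m.1 + m.2.1 ∈ LEG ∧ (MoveI L m.1 m.2.1 m.2.2 ∨ MoveII L m.1 m.2.1 m.2.2)}

theorem Mv.smul (hC : Cone L LEG) {m : (ι → ℝ) × (ι → ℝ) × E} (hm : m ∈ Mv L LEG) {t : ℝ}
    (ht : 0 ≤ t) : (t • m.1, t • m.2.1, t • m.2.2) ∈ Mv L LEG := by
  refine ⟨hC.smul _ hm.1 _ ht, ?_, ?_⟩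
  · rw [← smul_add]; exact hC.smul _ hm.2.1 _ ht
  · rcases hm.2.2 with h | h
    · exact Or.inl (h.smul ht)
    · exact Or.inr (h.smul ht)

variable [MeasurableSpace E] [BorelSpace E] (μ : Measure E) [μ.IsAddHaarMeasure]

/-- domain of the natural family: locally uniformly legal -/
def Dom (b : ι → ℝ) (L : E →ₗ[ℝ] (ι → ℝ)) (LEG S : Set (ι → ℝ)) (Ω : Set E) : Prop :=
  ∀ x₀ ∈ Ω, ∃ ρ > 0, ∃ r > 0, ∀ x, ‖x - x₀‖ ≤ ρ → ∀ c ∈ LEG, (∀ i, |c i| ≤ r) → b + L x + c ∈ S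

/-- stationary point of the natural family -/
def StatAt (ν : (ι → ℝ) → ℝ) (b : ι → ℝ) (L : E →ₗ[ℝ] (ι → ℝ)) (LEG : Set (ι → ℝ)) (x : E) : Prop :=
  ∀ m ∈ Mv L LEG, ∀ u : E, Tendsto (fun h => GG ν b L m.1 m.2.1 u x h) (𝓝[>] 0) (𝓝 0)

/-- **the stationarity theorem** -/
theorem ae_statAt (hK : 0 ≤ K) (hlip : ∀ p q, |ν p - ν q| ≤ K * ‖p - q‖) (hsup : Sup4 ν S)
    (hC : Cone L LEG) {Ω : Set E} (hΩ : Dom b L LEG S Ω) :
    ∀ᵐ x ∂μ, x ∈ Ω → StatAt ν b L LEG x := by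
  obtain ⟨Λ, hΛ0, hΛ⟩ := exists_Lam' L
  rw [ae_iff]
  refine measure_null_of_locally_null _ fun x₀ hx₀ => ?_
  simp only [mem_ofPred_eq, Classical.not_imp] at hx₀
  obtain ⟨ρ, hρ, r, hr, hS⟩ := hΩ x₀ hx₀.1
  obtain ⟨D, hDc, hDd⟩ := TopologicalSpace.exists_countable_dense (Mv L LEG)
  have hD : Countable D := hDc.to_subtype
  have hae : ∀ᵐ x ∂μ, ∀ m : D, ‖x - x₀‖ < ρ / 2 → ∀ u : E, Tendsto (fun k : ℕ =>
      GG ν b L (m : Mv L LEG).1.1 (m : Mv L LEG).1.2.1 u x ((1 / 2) ^ k)) atTop (𝓝 0) := by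
    rw [ae_all_iff]
    intro m
    exact move_local μ hK hlip hsup hC m.1.2.1 m.1.2.2.1 m.1.2.2.2 hρ hr hS
  have hae2 : ∀ᵐ x ∂μ, ‖x - x₀‖ < ρ / 2 → StatAt ν b L LEG x := by
    filter_upwards [hae] with x hx hxr m hm u
    refine all_scales hK hlip fun t ht1 _ => ?_
    rw [Metric.tendsto_atTop]
    intro ε hε
    set m' : Mv L LEG := ⟨_, Mv.smul hC hm (t := t) (by linarith)⟩ with hm'
    obtain ⟨d, hd, hdd⟩ := hDd.exists_dist_lt m' (show 0 < ε / (2 * (6 * K + 1)) by positivity)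
    obtain ⟨N, hN⟩ := Metric.tendsto_atTop.1 (hx ⟨d, hd⟩ hxr (t • u)) (ε / 2) (half_pos hε)
    refine ⟨N, fun k hk => ?_⟩
    have h1 := hN k hk
    rw [Real.dist_eq, sub_zero] at h1 ⊢
    have h2 := GG_lip (ν := ν) (b := b) (L := L) hK hlip hΛ (show (0 : ℝ) < (1 / 2) ^ k by positivity)
      (t • m.1) (t • m.2.1) d.1.1 d.1.2.1 (t • u) (t • u) x
    rw [sub_self, norm_zero, mul_zero, zero_add] at h2
    have h3 : ‖t • m.1 - d.1.1‖ < ε / (2 * (6 * K + 1)) := by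
      rw [← dist_eq_norm]
      refine lt_of_le_of_lt ?_ hdd
      rw [Subtype.dist_eq, Prod.dist_eq]
      exact le_max_left _ _
    have h4 : ‖t • m.2.1 - d.1.2.1‖ < ε / (2 * (6 * K + 1)) := by
      rw [← dist_eq_norm]
      refine lt_of_le_of_lt ?_ hdd
      rw [Subtype.dist_eq, Prod.dist_eq, Prod.dist_eq]
      exact (le_max_left _ _).trans (le_max_right _ _)
    have h5 : K * (4 * ‖t • m.1 - d.1.1‖ + 2 * ‖t • m.2.1 - d.1.2.1‖) ≤ ε / 2 := by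
      rw [lt_div_iff₀ (by positivity)] at h3 h4
      nlinarith [norm_nonneg (t • m.1 - d.1.1), norm_nonneg (t • m.2.1 - d.1.2.1)]
    rw [abs_lt] at h1 ⊢
    rw [abs_le] at h2
    constructor <;> linarith [h1.1, h1.2, h2.1, h2.2]
  refine ⟨{x | ¬(x ∈ Ω → StatAt ν b L LEG x)} ∩ Metric.ball x₀ (ρ / 2),
    inter_mem_nhdsWithin _ (Metric.ball_mem_nhds _ (by positivity)), ?_⟩
  refine measure_mono_null ?_ (ae_iff.1 hae2)
  rintro x ⟨hx1, hx2⟩
  simp only [mem_ofPred_eq, Classical.not_imp] at hx1 ⊢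
  exact ⟨by rwa [mem_ball_iff_norm] at hx2, hx1.2⟩

end Crest.Agent.R136.Dec146
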