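import Crest.Agent.R136.Rc7_146
import Crest.Agent.R136.Dec4_146

/-!
# R136: additivity of EVERY blow-up at almost every interior point (helper146)

* `OutA`     : 219's `OutS` + additivity with respect to the natural plane for the groups with
  positive `dh` + strong supermodularity + directional derivatives at `0`
* `ae_outA`  : every pointwise blow-up at a.e. interior point, any walls
* `OutA.zoom`: a blow-up of `lam` at `0` has the same rates and homogeneous group functions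
* `leg_outA`, `leg_outA0` : `Leg M R`, `IsTan`
-/

set_option autoImplicit false
set_option linter.unusedSectionVars false
set_option linter.unusedVariables false

open Set Filter Topology Metric MeasureTheory

namespace Crest.Agent.R136.Rc146

open Dg219
open Dg262 (X X_cont SupOn)
open Net191 (Mons Legal Leg)
open Crest.Agent.R138

variable {ι κ : Type*} [Fintype ι] [DecidableEq ι] [DecidableEq κ]

/-- the natural plane as a linear map -/
noncomputable def natL (a b : ι → ℝ) : ℝ × ℝ →ₗ[ℝ] (ι → ℝ) where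
  toFun := Tn a b
  map_add' := Rc146.Tn_add a b
  map_smul' := fun t z => Rc146.Tn_smul a b t z

theorem natL_apply (a b : ι → ℝ) (z : ℝ × ℝ) : natL a b z = Tn a b z := rfl

theorem X_eq (x0 a b : ι → ℝ) (z : ℝ × ℝ) : X x0 a b z = x0 + Tn a b z := by
  funext i; simp only [X, Tn, Pi.add_apply]; ring

/-- `OutS` with additivity -/
structure OutA (grp : ι → κ) (L : Set (ι → ℝ)) (a b dh : ι → ℝ) (n : κ → ℝ × ℝ)
    (lam : (ι → ℝ) → ℝ) (A : ℝ × ℝ) (φ : κ → (ι → ℝ) → ℝ) (r : κ → ℝ) : Prop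
    extends OutS grp L dh n lam A φ r where
  /-- constants on the plane -/
  add : ∀ k, (∀ i, grp i = k → 0 < dh i) → ∀ z, ∀ c ∈ L,
    φ k (Tn a b z + c) = φ k (Tn a b z) + φ k c
  /-- supermodular; only the coordinates of the group matter -/
  smods : ∀ k, ∀ p ∈ L, ∀ q ∈ L, ∀ s ∈ L, ∀ t ∈ L,
    (∀ i, grp i = k → s i = min (p i) (q i)) → (∀ i, grp i = k → t i = max (p i) (q i)) →
    φ k p + φ k q ≤ φ k t + φ k s
  /-- directional derivatives at `0` -/
  der : ∀ k, (∀ i, grp i = k → 0 < dh i) → ∀ c ∈ L,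
    ∃ y : ℝ, Tendsto (fun h : ℝ => φ k (h • c) / h) (𝓝[>] 0) (𝓝 y)

section

variable {W : Type*} [Fintype W] (Q : Walls ι W) {x0 a b lo hi : ι → ℝ}

theorem walls_cone : Dec146.Cone (natL a b) (Q.L x0 a b) where
  smul := fun c hc t ht => (Walls.cone (Q := Q)).smul c hc t ht
  add := (Walls.cone (Q := Q)).add
  nat := fun z => Walls.Tn_mem z

theorem walls_dom : Dec146.Dom x0 (natL a b) (Q.L x0 a b) (Q.P lo hi) (Q.O lo hi x0 a b) := by
  intro z0 hz0
  obtain ⟨ε, hε, H⟩ := Walls.legal hz0 1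
  refine ⟨ε / 2, by positivity, ε / 2, by positivity, fun z hz c hc hcr => ?_⟩
  have e1 : x0 + natL a b z + c = X x0 a b z + (ε / 2) • ((ε / 2)⁻¹ • c) := by
    rw [natL_apply, ← X_eq, smul_smul, mul_inv_cancel₀ (by positivity), one_smul]
  rw [e1]
  refine H _ (by rw [dist_eq_norm]; linarith) (ε / 2) (by positivity) (by linarith) _
    ((Walls.cone (Q := Q)).smul _ hc _ (by positivity)) ?_
  rw [norm_smul, norm_inv, Real.norm_of_nonneg (by positivity : (0:ℝ) ≤ ε / 2),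
    inv_mul_le_iff₀ (by positivity), mul_one, pi_norm_le_iff_of_nonneg (by positivity)]
  intro i
  rw [Real.norm_eq_abs]; exact hcr i

/-- every pointwise blow-up at a stationary point is invariant -/
theorem bup_inv {ν ν' : (ι → ℝ) → ℝ} (he : ∀ p ∈ Q.P lo hi, ν' p = ν p) {z : ℝ × ℝ}
    (hst : Dec146.StatAt ν' x0 (natL a b) (Q.L x0 a b) z) {h : ℕ → ℝ} {lam : (ι → ℝ) → ℝ}
    (H : BUp (Q.P lo hi) (Q.L x0 a b) ν (X x0 a b z) h lam) {w v : ι → ℝ} {y : ℝ × ℝ}
    (hw : w ∈ Q.L x0 a b) (hwv : w + v ∈ Q.L x0 a b)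
    (hm : Dec146.MoveI (natL a b) w v y ∨ Dec146.MoveII (natL a b) w v y) (u : ℝ × ℝ) :
    lam (Tn a b u + w) - lam (Tn a b u + (w + v)) = lam w - lam (w + v) := by
  have ht : Tendsto h atTop (𝓝[>] 0) :=
    tendsto_nhdsWithin_iff.2 ⟨H.zero, Eventually.of_forall fun l => H.pos l⟩
  have h1 := (hst (w, v, y) ⟨hw, hwv, hm⟩ u).comp ht
  have m1 : Tn a b u + w ∈ Q.L x0 a b := (Walls.cone (Q := Q)).add _ (Walls.Tn_mem u) _ hw
  have m2 : Tn a b u + (w + v) ∈ Q.L x0 a b := (Walls.cone (Q := Q)).add _ (Walls.Tn_mem u) _ hwv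
  have h2 := (H.sub m1 m2).sub (H.sub hw hwv)
  have h3 := tendsto_nhds_unique (h2.congr' ?_) h1
  · linarith
  filter_upwards [H.mem _ m1, H.mem _ m2, H.mem _ hw, H.mem _ hwv] with l a1 a2 a3 a4
  simp only [Function.comp]
  unfold Dec146.GG Dec146.Inc
  have e1 : x0 + natL a b (z + h l • u) + h l • w = X x0 a b z + h l • (Tn a b u + w) := by
    rw [map_add, map_smul, natL_apply, natL_apply, X_eq, smul_add]; abel
  have e2 : X x0 a b z + h l • (Tn a b u + w) + h l • v =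
      X x0 a b z + h l • (Tn a b u + (w + v)) := by
    rw [← add_assoc (Tn a b u), smul_add _ (Tn a b u + w) v]; abel
  have e3 : x0 + natL a b z + h l • w = X x0 a b z + h l • w := by rw [natL_apply, X_eq]
  have e4 : X x0 a b z + h l • w + h l • v = X x0 a b z + h l • (w + v) := by
    rw [smul_add]; abel
  simp only [e1, e3]
  rw [e2, e4, he _ a1, he _ a2, he _ a3, he _ a4, ← sub_div]

/-- stationarity inside one group -/
theorem grp_stat {grp : ι → κ} {n : κ → ℝ × ℝ} {dh : ι → ℝ}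
    (hgeo : Geo grp (Q.D x0 a b) (Q.L x0 a b) (Q.rm grp) Q.rs) (hd : DirS grp a b n dh)
    {lam : (ι → ℝ) → ℝ} {φ : κ → (ι → ℝ) → ℝ}
    (hinv : ∀ (w v : ι → ℝ) (y : ℝ × ℝ), w ∈ Q.L x0 a b → w + v ∈ Q.L x0 a b →
      Dec146.MoveII (natL a b) w v y → ∀ u : ℝ × ℝ,
      lam (Tn a b u + w) - lam (Tn a b u + (w + v)) = lam w - lam (w + v))
    (hsum : ∀ c ∈ Q.L x0 a b, lam c = ∑ k ∈ gset grp, φ k c)
    (hloc : ∀ k c c', (∀ i, grp i = k → c i = c' i) → φ k c = φ k c')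
    {k : κ} (hk : k ∈ gset grp) {c d : ι → ℝ} (hc : c ∈ Q.L x0 a b)
    (hcd : c + d ∈ Q.L x0 a b) {y : ℝ} (hm : MvII grp dh k c d y) (u : ℝ × ℝ) :
    φ k (Tn a b u + c) - φ k (Tn a b u + (c + d)) = φ k c - φ k (c + d) := by
  obtain ⟨i0, -, hi0⟩ := Finset.mem_image.1 hk
  have hn : n k ≠ 0 := by rw [← hi0]; exact hd.ne i0
  set y' : ℝ × ℝ := zz (n k) y with hy'
  obtain ⟨R1, h10, h1⟩ := hgeo.room.ex k c hc
  obtain ⟨R2, h20, h2⟩ := hgeo.room.ex k _ hcd
  set R : ℝ := R1 + R2 + ‖Tn a b y'‖ with hR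
  have hR0 : 0 ≤ R := by positivity
  have hRn : ‖Tn a b y'‖ ≤ R := by linarith
  have m1 : pr grp k c + R • Q.rm grp k ∈ Q.L x0 a b :=
    hgeo.room.mono hgeo.cone h1 (by have := norm_nonneg (Tn a b y'); linarith)
  have m2 : pr grp k (c + d) + R • Q.rm grp k ∈ Q.L x0 a b :=
    hgeo.room.mono hgeo.cone h2 (by have := norm_nonneg (Tn a b y'); linarith)
  set w : ι → ℝ := pr grp k c + R • Q.rm grp k with hw
  set v : ι → ℝ := pr grp k d with hv
  have hwv : w + v = pr grp k (c + d) + R • Q.rm grp k := by rw [hw, hv, pr_add]; abel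
  have hrm : ∀ i, grp i ≠ k → 1 ≤ Q.rm grp k i := fun i hi => by
    unfold Walls.rm; rw [if_neg hi]; exact Q.one_le_rs i
  have hrm0 : ∀ i, grp i = k → Q.rm grp k i = 0 := fun i hi => by
    unfold Walls.rm; rw [if_pos hi]
  have hmv : Dec146.MoveII (natL a b) w v y' := by
    intro i
    rw [natL_apply]
    by_cases hi : grp i = k
    · have e1 : w i = c i := by
        rw [hw, Pi.add_apply, pr_in k _ hi, Pi.smul_apply, hrm0 i hi, smul_zero, add_zero]
      have e2 : v i = d i := by rw [hv, pr_in k _ hi]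
      rw [e1, e2, hd.Tn_eq, hi, hy', lf_zz hn]
      exact hm i hi
    · right
      have e1 : w i = R * Q.rm grp k i := by
        rw [hw, Pi.add_apply, pr_off k _ hi, zero_add, Pi.smul_apply, smul_eq_mul]
      have e2 : v i = 0 := by rw [hv, pr_off k _ hi]
      have e3 : Tn a b y' i ≤ R := by
        have := norm_le_pi_norm (Tn a b y') i
        rw [Real.norm_eq_abs] at this
        linarith [le_abs_self (Tn a b y' i)]
      have e4 := hrm i hi
      refine ⟨e2, ?_, ?_⟩ <;> rw [e1] <;> nlinarith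
  have s := hinv w v y' m1 (by rw [hwv]; exact m2) hmv u
  -- both sides are increments of the group function
  have key : ∀ T : ι → ℝ, T ∈ Q.L x0 a b →
      lam (T + w) - lam (T + (w + v)) = φ k (T + c) - φ k (T + (c + d)) := by
    intro T hT
    rw [hsum _ (hgeo.cone.add _ hT _ m1), hsum _ (hgeo.cone.add _ hT _ (by rw [hwv]; exact m2)),
      ← Finset.sum_sub_distrib, Finset.sum_eq_single k]
    · congr 1
      · refine hloc k _ _ fun i hi => ?_
        rw [Pi.add_apply, Pi.add_apply, hw, Pi.add_apply, pr_in k _ hi, Pi.smul_apply, hrm0 i hi,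
          smul_zero, add_zero]
      · refine hloc k _ _ fun i hi => ?_
        have f := congrFun hwv i
        rw [Pi.add_apply (pr grp k (c + d)), pr_in k _ hi, Pi.smul_apply, hrm0 i hi, smul_zero,
          add_zero] at f
        rw [Pi.add_apply T, Pi.add_apply T, f]
    · intro j _ hj
      have : φ j (T + w) = φ j (T + (w + v)) := hloc j _ _ fun i hi => by
        rw [Pi.add_apply, Pi.add_apply, Pi.add_apply, hv, pr_off k _ (by rw [hi]; exact hj),
          add_zero]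
      rw [this, sub_self]
    · intro hcon; exact absurd hk hcon
  have k1 := key (Tn a b u) (Walls.Tn_mem u)
  have k2 := key 0 hgeo.cone.zero
  simp only [zero_add] at k2
  rw [← k1, ← k2]
  exact s

/-- assembling `OutA` from `OutS` and stationarity -/
theorem outA_of {grp : ι → κ} {n : κ → ℝ × ℝ} {dh : ι → ℝ}
    (hgeo : Geo grp (Q.D x0 a b) (Q.L x0 a b) (Q.rm grp) Q.rs) (hd : DirS grp a b n dh)
    {lam : (ι → ℝ) → ℝ} {φ : κ → (ι → ℝ) → ℝ} {r : κ → ℝ} {A : ℝ × ℝ}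
    (hout : OutS grp (Q.L x0 a b) dh n lam A φ r)
    (hs : ∀ p ∈ Q.L x0 a b, ∀ q ∈ Q.L x0 a b, p ⊓ q ∈ Q.L x0 a b → p ⊔ q ∈ Q.L x0 a b →
      lam p + lam q ≤ lam (p ⊔ q) + lam (p ⊓ q))
    (hstat : ∀ k ∈ gset grp, ∀ c ∈ Q.L x0 a b, ∀ d : ι → ℝ, c + d ∈ Q.L x0 a b → ∀ y : ℝ,
      MvII grp dh k c d y → ∀ u : ℝ × ℝ,
      φ k (Tn a b u + c) - φ k (Tn a b u + (c + d)) = φ k c - φ k (c + d)) :
    OutA grp (Q.L x0 a b) a b dh n lam A φ r ∧ ∀ k ∈ gset grp, (∀ i, grp i = k → 0 < dh i) →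
      GF grp (Q.L x0 a b) a b dh n k (φ k) (r k) := by
  have hsep : Sep grp (Q.L x0 a b) lam := sum_loc_sep hout.sum hout.loc
  have hun : ∀ k ∈ gset grp, ∀ c ∈ Q.L x0 a b, phi grp (Q.L x0 a b) lam (Q.rm grp) k c = φ k c :=
    fun k hk c hc => phi_uniq hgeo hout.sum hout.loc hout.zero hk hc
  have hnull : ∀ k, k ∉ gset grp → ∀ c, φ k c = 0 := fun k hk c =>
    hout.zero k c fun i hi => absurd (by rw [← hi]; exact mem_gset i) hk
  have hsm : ∀ k, ∀ p ∈ Q.L x0 a b, ∀ q ∈ Q.L x0 a b, ∀ s ∈ Q.L x0 a b, ∀ t ∈ Q.L x0 a b,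
      (∀ i, grp i = k → s i = min (p i) (q i)) → (∀ i, grp i = k → t i = max (p i) (q i)) →
      φ k p + φ k q ≤ φ k t + φ k s := by
    intro k p hp q hq s hs' t ht hsi hti
    by_cases hk : k ∈ gset grp
    · have hGI := geoI hgeo
      have e1 : pr grp k s = pr grp k (p ⊓ q) := by
        funext i
        by_cases hi : grp i = k
        · rw [pr_in k _ hi, pr_in k _ hi, hsi i hi]; rfl
        · rw [pr_off k _ hi, pr_off k _ hi]
      have e2 : pr grp k t = pr grp k (p ⊔ q) := by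
        funext i
        by_cases hi : grp i = k
        · rw [pr_in k _ hi, pr_in k _ hi, hti i hi]; rfl
        · rw [pr_off k _ hi, pr_off k _ hi]
      have h1 := phi_supH hGI hsep hs hk (hGI.cy hk hp) (hGI.cy hk hq)
        ((cy_congr e1).1 (hGI.cy hk hs')) ((cy_congr e2).1 (hGI.cy hk ht))
      rw [← phi_congr e1, ← phi_congr e2, hun k hk p hp, hun k hk q hq, hun k hk s hs',
        hun k hk t ht] at h1
      exact h1
    · rw [hnull k hk, hnull k hk, hnull k hk, hnull k hk]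
  have hgf : ∀ k ∈ gset grp, (∀ i, grp i = k → 0 < dh i) →
      GF grp (Q.L x0 a b) a b dh n k (φ k) (r k) := by
    intro k hk hpos
    obtain ⟨i0, -, hi0⟩ := Finset.mem_image.1 hk
    exact
      { cone := hgeo.cone
        sup := fun c hc d hd' w hw => by
          rw [Pi.sup_apply]
          exact sup_le ((hc w hw).trans (Walls.rhs_mono w le_sup_left))
            ((hd' w hw).trans (Walls.rhs_mono w le_sup_right))
        nat := fun z => Walls.Tn_mem z
        eq := fun z i hi => by rw [hd.Tn_eq, hi]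
        nk := by rw [← hi0]; exact hd.ne i0
        pos := hpos
        loc := hout.loc k
        zero := hout.zero k 0 fun i _ => rfl
        mono := hout.mono k
        smod := hsm k
        rate := hout.rate k
        stat := fun c hc d hcd y hm z => hstat k hk c hc d hcd y hm z }
  refine ⟨⟨hout, ?_, hsm, ?_⟩, hgf⟩
  · intro k hpos z c hc
    by_cases hk : k ∈ gset grp
    · exact (hgf k hk hpos).add z hc
    · rw [hnull k hk, hnull k hk, hnull k hk, add_zero]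
  · intro k hpos c hc
    by_cases hk : k ∈ gset grp
    · exact (hgf k hk hpos).lim hc
    · refine ⟨0, tendsto_const_nhds.congr fun h => ?_⟩
      rw [hnull k hk, zero_div]

/-- **every blow-up at almost every interior point is additive** -/
theorem ae_outA {ν : (ι → ℝ) → ℝ} {K : ℝ} (hK : 0 ≤ K)
    (hν : ∀ p ∈ Q.P lo hi, ∀ q ∈ Q.P lo hi, |ν p - ν q| ≤ K * dist p q)
    (hm : ∀ p ∈ Q.P lo hi, ∀ q ∈ Q.P lo hi, p ≤ q →
      0 ≤ ν p - ν q ∧ ν p - ν q ≤ ∑ i, (q i - p i))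
    (hs : SupOn ν (Q.P lo hi)) {g : ι → ℕ} {wv : ℕ → ℝ × ℝ} (hGr : Dg262.Grp a b g wv)
    (hF : Q.Full x0 a b) {grp : ι → κ} (hgg : ∀ i j, g i = g j ↔ grp i = grp j)
    {n : κ → ℝ × ℝ} {dh : ι → ℝ} (hd : DirS grp a b n dh) :
    ∀ᵐ z : ℝ × ℝ, z ∈ Q.O lo hi x0 a b → ∃ D : ℝ × ℝ →L[ℝ] ℝ,
      HasFDerivAt (fun z => ν (X x0 a b z)) D z ∧
      ∀ (h : ℕ → ℝ) (lam : (ι → ℝ) → ℝ),
        BUp (Q.P lo hi) (Q.L x0 a b) ν (X x0 a b z) h lam →
        ∃ (φ : κ → (ι → ℝ) → ℝ) (r : κ → ℝ),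
          OutA grp (Q.L x0 a b) a b dh n lam (D (1, 0), D (0, 1)) φ r := by
  have hgeo : Geo grp (Q.D x0 a b) (Q.L x0 a b) (Q.rm grp) Q.rs := Walls.geoG hGr hF hgg
  have hlip : LipschitzOnWith ⟨K, hK⟩ ν (Q.P lo hi) :=
    LipschitzOnWith.of_dist_le_mul fun p hp q hq => by rw [Real.dist_eq]; exact hν p hp q hq
  obtain ⟨ν', hν', he⟩ := hlip.extend_real
  have he' : ∀ p ∈ Q.P lo hi, ν' p = ν p := fun p hp => (he hp).symm
  have hlip' : ∀ p q, |ν' p - ν' q| ≤ K * ‖p - q‖ := fun p q => by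
    have := hν'.dist_le_mul p q
    rw [Real.dist_eq, dist_eq_norm] at this
    exact this
  have hsup : Dec146.Sup4 ν' (Q.P lo hi) := by
    intro p hp q hq h1 h2
    rw [he' p hp, he' q hq, he' _ h1, he' _ h2]
    exact hs p hp q hq h1 h2
  have hstat := Dec146.ae_statAt (μ := (volume : Measure (ℝ × ℝ))) hK hlip' hsup
    (walls_cone Q (x0 := x0) (a := a) (b := b)) (walls_dom Q (lo := lo) (hi := hi))
  filter_upwards [ae_outS Q hK hν hm hs hGr hF hgg hd, hstat] with z hz hst hzO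
  obtain ⟨D, hD, H⟩ := hz hzO
  refine ⟨D, hD, fun h lam B => ?_⟩
  obtain ⟨φ, r, hout⟩ := H h lam B
  refine ⟨φ, r, (outA_of Q hgeo hd hout (fun p hp q hq h1 h2 => B.smod hs p hp q hq h1 h2)
    fun k hk c hc d hcd y hmv u => ?_).1⟩
  exact grp_stat Q hgeo hd (fun w v y hw hwv hm' u => bup_inv Q he' (hst hzO) B hw hwv
    (Or.inr hm') u) hout.sum hout.loc hk hc hcd hmv u

/-- **zoom at `0`** : same rates, homogeneous group functions -/
theorem OutA.zoom {grp : ι → κ} {n : κ → ℝ × ℝ} {dh : ι → ℝ}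
    (hgeo : Geo grp (Q.D x0 a b) (Q.L x0 a b) (Q.rm grp) Q.rs) (hd : DirS grp a b n dh)
    {lam lam2 : (ι → ℝ) → ℝ} {φ : κ → (ι → ℝ) → ℝ} {r : κ → ℝ} {A : ℝ × ℝ}
    (H : OutA grp (Q.L x0 a b) a b dh n lam A φ r) {K : ℝ} (hK : 0 ≤ K)
    (hlip : ∀ p ∈ Q.L x0 a b, ∀ q ∈ Q.L x0 a b, |lam p - lam q| ≤ K * dist p q)
    (hm : ∀ p ∈ Q.L x0 a b, ∀ q ∈ Q.L x0 a b, p ≤ q →
      0 ≤ lam p - lam q ∧ lam p - lam q ≤ ∑ i, (q i - p i))
    (hs : ∀ p ∈ Q.L x0 a b, ∀ q ∈ Q.L x0 a b, p ⊓ q ∈ Q.L x0 a b → p ⊔ q ∈ Q.L x0 a b →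
      lam p + lam q ≤ lam (p ⊔ q) + lam (p ⊓ q))
    {t : ℕ → ℝ} (B : BUp (Q.L x0 a b) (Q.L x0 a b) lam 0 t lam2) :
    ∃ φ2 : κ → (ι → ℝ) → ℝ, OutA grp (Q.L x0 a b) a b dh n lam2 A φ2 r ∧
      (∀ k, (∀ i, grp i = k → 0 < dh i) → ∀ c ∈ Q.L x0 a b, ∀ s : ℝ, 0 ≤ s →
        φ2 k (s • c) = s * φ2 k c) ∧
      ∀ k ∈ gset grp, ∀ c ∈ Q.L x0 a b,
        Tendsto (fun l => φ k (t l • c) / t l) atTop (𝓝 (φ2 k c)) := by
  set L := Q.L x0 a b with hL
  have hGI := geoI hgeo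
  have hcone : Cone L := hgeo.cone
  have hnat : ∀ z, Tn a b z ∈ L := fun z => Walls.Tn_mem z
  have hd' : SDir grp a b n dh := ⟨hd.fst, hd.snd, hd.ne, hd.det⟩
  have hsep : Sep grp L lam := sum_loc_sep H.sum H.loc
  have hun : ∀ k ∈ gset grp, ∀ c ∈ L, phi grp L lam (Q.rm grp) k c = φ k c :=
    fun k hk c hc => phi_uniq hgeo H.sum H.loc H.zero hk hc
  have hnull : ∀ k, k ∉ gset grp → ∀ c, φ k c = 0 := fun k hk c =>
    H.zero k c fun i hi => absurd (by rw [← hi]; exact mem_gset i) hk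
  have hder : ∀ k ∈ gset grp, HasDerivAt (fnat grp L lam (Q.rm grp) a b n k) (-(r k)) 0 := by
    intro k hk
    obtain ⟨i0, -, hi0⟩ := Finset.mem_image.1 hk
    have hn : n k ≠ 0 := by rw [← hi0]; exact hd.ne i0
    have e : fnat grp L lam (Q.rm grp) a b n k = fun u => -(r k) * u := by
      funext u
      unfold fnat
      rw [hun k hk _ (hnat _), H.rate k _ (hnat _) u fun i hi => by
        rw [hd.Tn_eq, hi, lf_zz hn]]
      ring
    rw [e]
    simpa using (hasDerivAt_id (0:ℝ)).const_mul (-(r k))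
  obtain ⟨r2, hr2, hout2⟩ := outH_of hGI hsep hcone subset_rfl hm hs hK hlip hnat hd' subset_rfl 0
    (z := 0) (by rw [Rc146.Tn_zero]; exact hcone.zero)
    (fun k hk => by rw [lf_zero]; exact (hder k hk).differentiableAt)
    (by rw [Rc146.Tn_zero]; exact B)
  have hr2' : ∀ k ∈ gset grp, r2 k = r k := fun k hk => by
    rw [hr2 k, lf_zero, (hder k hk).deriv, neg_neg]
  have hlam20 : lam2 0 = 0 := B.lam0 hcone.zero
  set φ2 : κ → (ι → ℝ) → ℝ := phi grp L lam2 (Q.rm grp) with hφ2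
  have hnull2 : ∀ k, k ∉ gset grp → ∀ c, φ2 k c = 0 := fun k hk c =>
    phi_zero k fun i hi => absurd (by rw [← hi]; exact mem_gset i) hk
  have hlim : ∀ k ∈ gset grp, ∀ c ∈ L,
      Tendsto (fun l => φ k (t l • c) / t l) atTop (𝓝 (φ2 k c)) := by
    intro k hk c hc
    refine (phi_tan hGI hsep hk hcone.zero B.pos B.lim (hGI.cy hk hc)).congr fun l => ?_
    rw [zero_add, phi_zero k (c := 0) (fun i _ => rfl), sub_zero,
      hun k hk _ (hcone.smul _ hc _ (B.pos l).le)]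
  have htl : Tendsto t atTop (𝓝[>] 0) :=
    tendsto_nhdsWithin_iff.2 ⟨B.zero, Eventually.of_forall fun l => B.pos l⟩
  have hS : OutS grp L dh n lam2 A φ2 r :=
    { sum := fun c hc => by
        have h1 := hout2.split 0 hcone.zero c hc (fun i hi => absurd (mem_gset i) hi)
        rw [hlam20, sub_zero] at h1
        rw [h1]
        refine Finset.sum_congr rfl fun k _ => ?_
        rw [hout2.zero k 0 (fun i _ => rfl), sub_zero]
      loc := hout2.loc
      zero := hout2.zero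
      mono := fun k c hc c' hc' hcc => by
        by_cases hk : k ∈ gset grp
        · exact hout2.mono k hk c hc c' hc' hcc
        · rw [hnull2 k hk, hnull2 k hk, sub_zero]
          refine ⟨le_rfl, le_of_eq ?_⟩
          symm
          apply Finset.sum_eq_zero
          intro i hi
          rw [Finset.mem_filter] at hi
          exact absurd (by rw [← hi.2]; exact mem_gset i) hk
      smod := fun k p hp q hq h1 h2 => by
        by_cases hk : k ∈ gset grp
        · exact hout2.smod k hk p hp q hq _ h1 _ h2 (fun i _ => rfl) (fun i _ => rfl)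
        · rw [hnull2 k hk, hnull2 k hk, hnull2 k hk, hnull2 k hk]
      rate := fun k c hc u hcu => by
        by_cases hk : k ∈ gset grp
        · rw [hout2.rate k hk c hc u hcu, hr2' k hk]
        · have h1 := H.rate k c hc u hcu
          rw [hnull k hk] at h1
          rw [hnull2 k hk, ← h1]
      r_nonneg := H.r_nonneg
      r_nonpos := H.r_nonpos
      total := H.total }
  refine ⟨φ2, ⟨hS, ?_, ?_, ?_⟩, ?_, hlim⟩
  · intro k hpos z c hc
    by_cases hk : k ∈ gset grp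
    · have h1 := hlim k hk _ (hcone.add _ (hnat z) _ hc)
      have h2 := (hlim k hk _ (hnat z)).add (hlim k hk _ hc)
      refine tendsto_nhds_unique h1 (h2.congr fun l => ?_)
      rw [smul_add, ← Rc146.Tn_smul, H.add k hpos _ _ (hcone.smul _ hc _ (B.pos l).le), add_div]
    · rw [hnull2 k hk, hnull2 k hk, hnull2 k hk, add_zero]
  · intro k p hp q hq s hs' t' ht hsi hti
    by_cases hk : k ∈ gset grp
    · exact hout2.smod k hk p hp q hq s hs' t' ht hsi hti
    · rw [hnull2 k hk, hnull2 k hk, hnull2 k hk, hnull2 k hk]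
  · intro k hpos c hc
    by_cases hk : k ∈ gset grp
    · obtain ⟨y, hy⟩ := H.der k hpos c hc
      have h1 : φ2 k c = y := tendsto_nhds_unique (hlim k hk c hc) (hy.comp htl)
      refine ⟨y, tendsto_const_nhds.congr' ?_⟩
      filter_upwards [self_mem_nhdsWithin] with s hs'
      have hs0 : (0:ℝ) < s := hs'
      have ht2 : Tendsto (fun l => t l * s) atTop (𝓝[>] 0) :=
        tendsto_nhdsWithin_iff.2 ⟨by simpa using B.zero.mul_const s,
          Eventually.of_forall fun l => mul_pos (B.pos l) hs0⟩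
      have h2 := (hy.comp ht2).const_mul s
      have h3 : φ2 k (s • c) = s * y := by
        refine tendsto_nhds_unique (hlim k hk _ (hcone.smul _ hc _ hs0.le)) (h2.congr fun l => ?_)
        simp only [Function.comp]
        rw [smul_smul, ← mul_div_assoc, mul_comm (t l) s, mul_div_mul_left _ _ hs0.ne']
      rw [h3]; field_simp
    · refine ⟨0, tendsto_const_nhds.congr fun s => ?_⟩
      rw [hnull2 k hk, zero_div]
  · intro k hpos c hc s hs'
    by_cases hk : k ∈ gset grp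
    · rcases hs'.eq_or_lt with rfl | hs0
      · rw [zero_smul, zero_mul]; exact phi_zero k fun i _ => rfl
      · obtain ⟨y, hy⟩ := H.der k hpos c hc
        have h1 : φ2 k c = y := tendsto_nhds_unique (hlim k hk c hc) (hy.comp htl)
        have ht2 : Tendsto (fun l => t l * s) atTop (𝓝[>] 0) :=
          tendsto_nhdsWithin_iff.2 ⟨by simpa using B.zero.mul_const s,
            Eventually.of_forall fun l => mul_pos (B.pos l) hs0⟩
        have h2 := (hy.comp ht2).const_mul s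
        rw [h1]
        refine tendsto_nhds_unique (hlim k hk _ (hcone.smul _ hc _ hs0.le)) (h2.congr fun l => ?_)
        simp only [Function.comp]
        rw [smul_smul, ← mul_div_assoc, mul_comm (t l) s, mul_div_mul_left _ _ hs0.ne']
    · rw [hnull2 k hk, hnull2 k hk, mul_zero]

end

section

variable {m : ℕ}

/-- **`Leg M R`** : every tangent at a.e. interior point -/
theorem leg_outA (M : Mons m) {R : ℝ} {ν : (Fin m → ℝ) → ℝ} {K : ℝ} (hK : 0 ≤ K)
    (hν : ∀ p ∈ Leg M R, ∀ q ∈ Leg M R, |ν p - ν q| ≤ K * ‖p - q‖)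
    (hm : ∀ p ∈ Leg M R, ∀ q ∈ Leg M R, p ≤ q → ν q ≤ ν p ∧ ν p - ν q ≤ ∑ i, (q i - p i))
    (hs : ∀ p ∈ Leg M R, ∀ q ∈ Leg M R, p ⊓ q ∈ Leg M R → ν p + ν q ≤ ν (p ⊔ q) + ν (p ⊓ q))
    {x0 a b : Fin m → ℝ} {g : Fin m → ℕ} {wv : ℕ → ℝ × ℝ} (hGr : Dg262.Grp a b g wv)
    {grp : Fin m → κ} (hgg : ∀ i j, g i = g j ↔ grp i = grp j)
    {n : κ → ℝ × ℝ} {dh : Fin m → ℝ} (hd : DirS grp a b n dh) :
    ∀ᵐ z : ℝ × ℝ, z ∈ (mw M).O (fun _ => 0) (fun _ => R) x0 a b → ∃ D : ℝ × ℝ →L[ℝ] ℝ,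
      HasFDerivAt (fun z => ν (X x0 a b z)) D z ∧
      ∀ (h : ℕ → ℝ), (∀ l, 0 < h l) → Tendsto h atTop (𝓝 0) → ∀ lam : (Fin m → ℝ) → ℝ,
        Ex926.IsTan (Leg M R) ((mw M).L x0 a b) ν (fun _ => X x0 a b z) h lam →
        -- every tangent is additive
        (∃ (φ : κ → (Fin m → ℝ) → ℝ) (r : κ → ℝ),
          OutA grp ((mw M).L x0 a b) a b dh n lam (D (1, 0), D (0, 1)) φ r ∧
          -- zoom: the same base point, smaller scales, the same rates, homogeneous
          ∃ (ψ : ℕ → ℕ) (t : ℕ → ℝ) (lam2 : (Fin m → ℝ) → ℝ) (φ2 : κ → (Fin m → ℝ) → ℝ),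
            (∀ l, l ≤ ψ l) ∧ (∀ l, 0 < t l) ∧ (∀ l, t l ≤ 1) ∧ Tendsto t atTop (𝓝 0) ∧
            Ex926.IsTan (Leg M R) ((mw M).L x0 a b) ν (fun _ => X x0 a b z)
              (fun l => h (ψ l) * t l) lam2 ∧
            OutA grp ((mw M).L x0 a b) a b dh n lam2 (D (1, 0), D (0, 1)) φ2 r ∧
            (∀ k, (∀ i, grp i = k → 0 < dh i) → ∀ c ∈ (mw M).L x0 a b, ∀ s : ℝ, 0 ≤ s →
              φ2 k (s • c) = s * φ2 k c) ∧
            ∀ k ∈ gset grp, ∀ c ∈ (mw M).L x0 a b,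
              Tendsto (fun l => φ k (t l • c) / t l) atTop (𝓝 (φ2 k c))) := by
  have e := mw_P M R
  have hν' : ∀ p ∈ Leg M R, ∀ q ∈ Leg M R, |ν p - ν q| ≤ K * dist p q := fun p hp q hq => by
    rw [dist_eq_norm]; exact hν p hp q hq
  have hm' : ∀ p ∈ Leg M R, ∀ q ∈ Leg M R, p ≤ q → 0 ≤ ν p - ν q ∧ ν p - ν q ≤ ∑ i, (q i - p i) :=
    fun p hp q hq hpq => ⟨by linarith [(hm p hp q hq hpq).1], (hm p hp q hq hpq).2⟩
  have hs' : SupOn ν (Leg M R) := fun p hp q hq h1 _ => hs p hp q hq h1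
  have key := ae_outA (mw M) (lo := fun _ => 0) (hi := fun _ => R) (x0 := x0) (ν := ν) hK
    (by rw [e]; exact hν') (by rw [e]; exact hm') (by rw [e]; exact hs') hGr (mw_full M x0 a b)
    hgg hd
  have hgeo : Geo grp ((mw M).D x0 a b) ((mw M).L x0 a b) ((mw M).rm grp) (mw M).rs :=
    Walls.geoG hGr (mw_full M x0 a b) hgg
  filter_upwards [key] with z hz hzO
  obtain ⟨D, hD, H⟩ := hz hzO
  refine ⟨D, hD, fun h hpos h0 lam ht => ?_⟩
  have B : BUp (Leg M R) ((mw M).L x0 a b) ν (X x0 a b z) h lam := bup_of_tan hpos h0 ht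
  obtain ⟨φ, r, hA⟩ := H h lam (by rw [e]; exact B)
  have hlip1 := B.lip hν'
  have hcone : Cone ((mw M).L x0 a b) := hgeo.cone
  obtain ⟨ψ2, hψ2, lam2, ht2⟩ := AeT501.exists_tangent (P := (mw M).L x0 a b)
    (D := (mw M).L x0 a b) Walls.isClosed_L (ν := lam) hK
    (fun p hp q hq => by rw [← dist_eq_norm]; exact hlip1 p hp q hq) (X := 0)
    (fun C => ⟨1, one_pos, fun t ht _ c hc _ => by
      rw [zero_add]; exact hcone.smul _ hc _ ht.le⟩)
    (g := fun j : ℕ => (1:ℝ) / ((j : ℝ) + 1)) (fun j => by positivity)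
    tendsto_one_div_add_atTop_nhds_zero_nat hcone.zero
  have hk2' : ∀ j, (0:ℝ) < 1 / ((ψ2 j : ℝ) + 1) := fun j => by positivity
  have hk20' : Tendsto (fun j : ℕ => (1:ℝ) / ((ψ2 j : ℝ) + 1)) atTop (𝓝 0) :=
    tendsto_one_div_add_atTop_nhds_zero_nat.comp hψ2.tendsto_atTop
  have B2 : BUp ((mw M).L x0 a b) ((mw M).L x0 a b) lam 0 (fun j => 1 / ((ψ2 j : ℝ) + 1)) lam2 :=
    bup_of_tan hk2' hk20' ht2
  obtain ⟨φ2, hA2, hhom, hlim⟩ := hA.zoom (mw M) hgeo hd hK hlip1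
    (fun p hp q hq hpq => B.mono hm' p hp q hq hpq)
    (fun p hp q hq h1 h2 => B.smod hs' p hp q hq h1 h2) B2
  obtain ⟨θ, hθ, hdg⟩ := tan_diag hpos hk2' hcone.zero
    (fun c hc t ht => by rw [zero_add]; exact hcone.smul _ hc _ ht) ht ht2
  refine ⟨φ, r, hA, θ, fun j => 1 / ((ψ2 j : ℝ) + 1), lam2, φ2, hθ, hk2', fun j => ?_, hk20', ?_,
    hA2, hhom, hlim⟩
  · rw [div_le_one (by positivity)]
    have : (0:ℝ) ≤ (ψ2 j : ℝ) := Nat.cast_nonneg _
    linarith
  · have e3 : (fun _ : ℕ => X x0 a b z) =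
        fun m_1 => X x0 a b z + h (θ m_1) • (0 : Fin m → ℝ) := by
      funext j; rw [smul_zero, add_zero]
    rw [e3]; exact hdg

end

end Crest.Agent.R136.Rc146
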