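import Crest.Agent.R136.Aw2_413
import Crest.Agent.R136.Rc8_146

/-!
# R136: the window wrapper of the a.e. lines (helper413), part 3: almost every point of a plane

* `bas_plane`, `ownB_plane` : position of a point of the plane; `locV` : visible slots which touch
  the own path at the point (the others are strictly own-wide: invisible in the window).
* `wndL_at` : windows with known base points at every point of the plane.
* `ae_aew` : **at a.e. interior point of a plane `x0 + v a + t b`, `0 ≤ a`, EVERY tangent of `ν` is an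
  `AeW`** (with 146's `OutA`), and it has a homogeneous zoom with the same rates which is an `AeW`.
* `ae_conc` : a conclusion about the slopes which holds for every `AeW` holds a.e.
-/

set_option autoImplicit false
set_option linter.unusedSectionVars false
set_option linter.unusedVariables false

open Filter Topology

namespace Crest.Agent.R136.Aw413

open Finset Crest.Agent.R138.Ex926 Crest.Agent.R136.Net191 Crest.Agent.R136.Gf356
open Crest.Agent.R136.Qg926 Crest.Agent.R136.Dg219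
open Crest.Agent.R136.Rc146 (OutA leg_outA)
open Crest.Agent.R136.Dg262 (X X_cont)

variable {m : ℕ} {ι : ℕ → Type} [∀ n, DecidableEq (ι n)] [∀ n, Nonempty (ι n)]

theorem sum_X (e : Fin m → ℕ) (x0 a b : Fin m → ℝ) (z : ℝ × ℝ) :
    ∑ s, (e s : ℝ) * X x0 a b z s =
      ∑ s, (e s : ℝ) * x0 s + (∑ s, (e s : ℝ) * a s) * z.1 + (∑ s, (e s : ℝ) * b s) * z.2 := by
  rw [sum_mul, sum_mul, ← sum_add_distrib, ← sum_add_distrib]
  refine sum_congr rfl fun s _ => ?_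
  simp only [X]; ring

/-- the active monomials are equalities on the whole plane -/
theorem act_X {M : Mons m} {x0 a b : Fin m → ℝ} {k : Fin m} {e : Fin m → ℕ}
    (he : e ∈ (actM M x0 a b).mon k) (z : ℝ × ℝ) :
    X x0 a b z k = ∑ s, (e s : ℝ) * X x0 a b z s := by
  obtain ⟨-, h1, h2, h3⟩ := mem_actM.1 he
  rw [sum_X, ← h1, ← h2, ← h3]
  simp only [X]

section

variable {M : Mons m} {R : ℝ} {x0 a b : Fin m → ℝ} {z : ℝ × ℝ} {h : ℕ → ℝ}

theorem ev_small (h0 : Tendsto h atTop (𝓝 0)) (c : ℝ) {δ : ℝ} (hδ : 0 < δ) :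
    ∀ᶠ l in atTop, c * h l ≤ δ := by
  have : Tendsto (fun l => c * h l) atTop (𝓝 0) := by simpa using h0.const_mul c
  exact (this.eventually_lt_const hδ).mono fun l hl => hl.le

/-- a point of the plane as a base point -/
theorem bas_plane (hz : z ∈ (mw M).O (fun _ => 0) (fun _ => R) x0 a b) (hpos : ∀ l, 0 < h l)
    (h0 : Tendsto h atTop (𝓝 0)) : Bas M (actM M x0 a b) (fun _ => X x0 a b z) h where
  pos := hpos
  zero := h0
  sub := fun k e he => (mem_actM.1 he).1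
  act := fun k e he l => act_X he z
  gap := fun k e he hne R' => by
    obtain ⟨-, h2⟩ := mem_mwO.1 hz
    rcases h2 k e he with h3 | h3
    · exact absurd (mem_actM.2 ⟨he, h3⟩) hne
    · filter_upwards [ev_small h0 R' (sub_pos.2 h3)] with l hl
      linarith
  room := fun s R' => by
    obtain ⟨h1, -⟩ := mem_mwO.1 hz
    exact ev_small h0 R' (h1 s).1

/-- visible slots which touch the own path at the point `x` -/
def locV (kz : Fin m) (w0 : ℝ) (o : ℝ → Fin m → ℝ) (V0 : Fin m → Prop) (x : Fin m → ℝ)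
    (k : Fin m) : Prop := V0 k ∧ x k = o (x kz - w0) k

/-- own position of a point of the plane -/
theorem ownB_plane {kz : Fin m} {w0 : ℝ} {o : ℝ → Fin m → ℝ} {T V0 Tw : Fin m → Prop}
    (h0 : Tendsto h atTop (𝓝 0))
    (hsub : ∀ k, Tw k → T k ∧ V0 k) (hv0 : 0 < X x0 a b z kz - w0) (hv1 : X x0 a b z kz - w0 < 1)
    (hle : ∀ k, X x0 a b z k ≤ o (X x0 a b z kz - w0) k)
    (heq : ∀ k, Tw k → X x0 a b z k = o (X x0 a b z kz - w0) k) :
    OwnB kz w0 o T V0 (locV kz w0 o V0 (X x0 a b z)) Tw (fun _ => X x0 a b z) h where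
  lim := ⟨_, _, hv0, hv1, Eventually.of_forall fun _ => ⟨le_rfl, le_rfl⟩⟩
  le := Eventually.of_forall fun _ => hle
  slack := fun k hk hk2 R' => by
    have h1 : X x0 a b z k < o (X x0 a b z kz - w0) k :=
      lt_of_le_of_ne (hle k) fun h => hk2 ⟨hk, h⟩
    filter_upwards [ev_small h0 R' (sub_pos.2 h1)] with l hl
    linarith
  sub := hsub
  eq := Eventually.of_forall fun _ => heq

end

/-- the plane is own-wide and natural in the tied slots; `V0` = visible slots of the own path -/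
structure PlaneO (M : Mons m) (R : ℝ) (kz : Fin m) (w0 : ℝ) (o : ℝ → Fin m → ℝ)
    (T V0 Tw : Fin m → Prop) (x0 a b : Fin m → ℝ) : Prop where
  a0 : ∀ i, 0 ≤ a i
  sub : ∀ k, Tw k → T k ∧ V0 k
  nz : ¬ Tw kz
  le : ∀ z, z ∈ (mw M).O (fun _ => 0) (fun _ => R) x0 a b → 0 < X x0 a b z kz - w0 →
    X x0 a b z kz - w0 < 1 → ∀ k, X x0 a b z k ≤ o (X x0 a b z kz - w0) k
  eq : ∀ z, z ∈ (mw M).O (fun _ => 0) (fun _ => R) x0 a b → 0 < X x0 a b z kz - w0 →
    X x0 a b z kz - w0 < 1 → ∀ k, Tw k → X x0 a b z k = o (X x0 a b z kz - w0) k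

section ae

variable {B : Base} {I J : ∀ n, Finset (ι n)} {co : ∀ n, ι n → ι n → Fin m → ℝ} {M : Mons m}
  {C R : ℝ} {ν own : (Fin m → ℝ) → ℝ} {x0 a b : Fin m → ℝ} {kz : Fin m} {w0 s : ℝ}
  {o : ℝ → Fin m → ℝ} {T V0 Tw : Fin m → Prop} {κ : Fin m → ℝ}

/-- one tangent at one point with splitting -/
theorem aew_at (hN : NProf B I J co M C R ν) (hO : OwnF M R kz w0 s o T ν own)
    (hP : OwnPath o kz w0 R V0 κ) (hQ : PlaneO M R kz w0 o T V0 Tw x0 a b) {z : ℝ × ℝ}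
    (hz : z ∈ (mw M).O (fun _ => 0) (fun _ => R) x0 a b) (hv0 : 0 < X x0 a b z kz - w0)
    (hv1 : X x0 a b z kz - w0 < 1) {h : ℕ → ℝ} (hpos : ∀ l, 0 < h l)
    (h0 : Tendsto h atTop (𝓝 0)) {lam : (Fin m → ℝ) → ℝ}
    (ht : IsTan (Leg M R) (coneM (actM M x0 a b)) ν (fun _ => X x0 a b z) h lam) {A : ℝ × ℝ}
    {φ : ℕ → (Fin m → ℝ) → ℝ} {r : ℕ → ℝ}
    (out : OutS (gC a b) (coneM (actM M x0 a b)) (dhC a b) (nC a b) lam A φ r) :
    AeW B B I J co M (actM M x0 a b) C lam a b A φ r kz (1 - s) κ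
      (locV kz w0 o V0 (X x0 a b z)) Tw := by
  have hB := bas_plane hz hpos h0
  have hOB := ownB_plane h0 hQ.sub hv0 hv1 (hQ.le z hz hv0 hv1) (hQ.eq z hz hv0 hv1)
  exact aew_core hN hB ht out (own_tan hO hP hOB h0 hpos ht) hQ.nz
    fun c hc c' hc' hcc hV hkz hk => drop_tan hO hP hOB h0 hpos ht hc hc' hcc hV hkz hk

/-- windows with known base points at EVERY point of the plane -/
theorem wndL_at (hN : NProf B I J co M C R ν) (hO : OwnF M R kz w0 s o T ν own)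
    (hP : OwnPath o kz w0 R V0 κ) (hQ : PlaneO M R kz w0 o T V0 Tw x0 a b) {z : ℝ × ℝ}
    (hz : z ∈ (mw M).O (fun _ => 0) (fun _ => R) x0 a b) (hv0 : 0 < X x0 a b z kz - w0)
    (hv1 : X x0 a b z kz - w0 < 1) {h : ℕ → ℝ} (hpos : ∀ l, 0 < h l)
    (h0 : Tendsto h atTop (𝓝 0)) {lam : (Fin m → ℝ) → ℝ}
    (ht : IsTan (Leg M R) (coneM (actM M x0 a b)) ν (fun _ => X x0 a b z) h lam) :
    WndL B B I J co M (actM M x0 a b) C lam kz κ (locV kz w0 o V0 (X x0 a b z)) Tw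
      (fun _ => X x0 a b z) h := by
  have hB := bas_plane hz hpos h0
  have hOB := ownB_plane h0 hQ.sub hv0 hv1 (hQ.le z hz hv0 hv1) (hQ.eq z hz hv0 hv1)
  exact wndL_core hN hB ht hQ.nz
    fun c hc c' hc' hcc hV hkz hk => drop_tan hO hP hOB h0 hpos ht hc hc' hcc hV hkz hk

/-- **a.e. point of a plane**: every tangent of `ν` is an `AeW`, with additive splitting; it has a
homogeneous zoom with the same rates which is an `AeW` -/
theorem ae_aew (hN : NProf B I J co M C R ν) (hO : OwnF M R kz w0 s o T ν own)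
    (hP : OwnPath o kz w0 R V0 κ) (hQ : PlaneO M R kz w0 o T V0 Tw x0 a b) :
    ∀ᵐ z : ℝ × ℝ, z ∈ (mw M).O (fun _ => 0) (fun _ => R) x0 a b → 0 < X x0 a b z kz - w0 →
      X x0 a b z kz - w0 < 1 → ∃ D : ℝ × ℝ →L[ℝ] ℝ,
      HasFDerivAt (fun z => ν (X x0 a b z)) D z ∧
      (∀ h : ℕ → ℝ, (∀ l, 0 < h l) → Tendsto h atTop (𝓝 0) → ∃ ψ : ℕ → ℕ, StrictMono ψ ∧
        ∃ lam : (Fin m → ℝ) → ℝ, IsTan (Leg M R) (coneM (actM M x0 a b)) ν
          (fun _ => X x0 a b z) (fun l => h (ψ l)) lam) ∧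
      ∀ h : ℕ → ℝ, (∀ l, 0 < h l) → Tendsto h atTop (𝓝 0) → ∀ lam : (Fin m → ℝ) → ℝ,
        IsTan (Leg M R) (coneM (actM M x0 a b)) ν (fun _ => X x0 a b z) h lam →
        ∃ (φ : ℕ → (Fin m → ℝ) → ℝ) (r : ℕ → ℝ),
          OutA (gC a b) (coneM (actM M x0 a b)) a b (dhC a b) (nC a b) lam
            (D (1, 0), D (0, 1)) φ r ∧
          AeW B B I J co M (actM M x0 a b) C lam a b (D (1, 0), D (0, 1)) φ r kz (1 - s) κ
            (locV kz w0 o V0 (X x0 a b z)) Tw ∧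
          ∃ (ψ : ℕ → ℕ) (t : ℕ → ℝ) (lam2 : (Fin m → ℝ) → ℝ) (φ2 : ℕ → (Fin m → ℝ) → ℝ),
            (∀ l, l ≤ ψ l) ∧ (∀ l, 0 < t l) ∧ (∀ l, t l ≤ 1) ∧ Tendsto t atTop (𝓝 0) ∧
            IsTan (Leg M R) (coneM (actM M x0 a b)) ν (fun _ => X x0 a b z)
              (fun l => h (ψ l) * t l) lam2 ∧
            OutA (gC a b) (coneM (actM M x0 a b)) a b (dhC a b) (nC a b) lam2
              (D (1, 0), D (0, 1)) φ2 r ∧
            (∀ k, (∀ i, gC a b i = k → 0 < dhC a b i) → ∀ c ∈ coneM (actM M x0 a b), ∀ s : ℝ,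
              0 ≤ s → φ2 k (s • c) = s * φ2 k c) ∧
            AeW B B I J co M (actM M x0 a b) C lam2 a b (D (1, 0), D (0, 1)) φ2 r kz (1 - s) κ
              (locV kz w0 o V0 (X x0 a b z)) Tw := by
  obtain ⟨wv, hG⟩ := exists_grpC (b := b) hQ.a0
  have hm : (0 : ℝ) ≤ m := Nat.cast_nonneg m
  filter_upwards [leg_outA M hm hN.lip (fun p hp q hq hpq => ⟨hN.anti p hp q hq hpq,
    hN.sharp p hp q hq hpq⟩) hN.submod hG (fun _ _ => Iff.rfl) (dirC (a := a) (b := b))]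
    with z hz hzO hv0 hv1
  obtain ⟨D, hD, H⟩ := hz hzO
  refine ⟨D, hD, fun h hpos h0 => ?_, fun h hpos h0 lam ht => ?_⟩
  · rw [coneM_actM]
    exact leg_tan M hm hN.lip hzO hpos h0
  · have ht' := ht
    rw [coneM_actM] at ht'
    obtain ⟨φ, r, g1, ψ, t, lam2, φ2, g2, g3, g4, g5, g6, g7, g8, -⟩ := H h hpos h0 lam ht'
    rw [← coneM_actM] at g1 g6 g7 g8
    have hpos2 : ∀ l, 0 < h (ψ l) * t l := fun l => mul_pos (hpos _) (g3 l)
    have hψ : Tendsto ψ atTop atTop := tendsto_atTop_mono g2 tendsto_id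
    have h02 : Tendsto (fun l => h (ψ l) * t l) atTop (𝓝 0) := by
      simpa using (h0.comp hψ).mul g5
    exact ⟨φ, r, g1, aew_at hN hO hP hQ hzO hv0 hv1 hpos h0 ht g1.toOutS,
      ψ, t, lam2, φ2, g2, g3, g4, g5, g6, g7, g8,
      aew_at hN hO hP hQ hzO hv0 hv1 hpos2 h02 g6 g7.toOutS⟩

/-- the scales `1 / (l + 1)` -/
theorem exists_seq : ∃ h : ℕ → ℝ, (∀ l, 0 < h l) ∧ Tendsto h atTop (𝓝 0) :=
  ⟨fun l => 1 / ((l : ℝ) + 1), fun l => by positivity, tendsto_one_div_add_atTop_nhds_zero_nat⟩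

/-- **a statement about the slopes which holds for every homogeneous `AeW` holds a.e.** -/
theorem ae_conc (hN : NProf B I J co M C R ν)
    (hO : OwnF M R kz w0 s o T ν own) (hP : OwnPath o kz w0 R V0 κ)
    (hQ : PlaneO M R kz w0 o T V0 Tw x0 a b) {Hyp : ℝ × ℝ → Prop} {Conc : ℝ × ℝ → ℝ × ℝ → Prop}
    (F : ∀ z : ℝ × ℝ, z ∈ (mw M).O (fun _ => 0) (fun _ => R) x0 a b →
      0 < X x0 a b z kz - w0 → X x0 a b z kz - w0 < 1 → Hyp z →
      ∀ (h : ℕ → ℝ), (∀ l, 0 < h l) → Tendsto h atTop (𝓝 0) → ∀ (lam : (Fin m → ℝ) → ℝ)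
        (A : ℝ × ℝ) (φ : ℕ → (Fin m → ℝ) → ℝ) (r : ℕ → ℝ),
        IsTan (Leg M R) (coneM (actM M x0 a b)) ν (fun _ => X x0 a b z) h lam →
        OutA (gC a b) (coneM (actM M x0 a b)) a b (dhC a b) (nC a b) lam A φ r →
        (∀ k, (∀ i, gC a b i = k → 0 < dhC a b i) → ∀ c ∈ coneM (actM M x0 a b), ∀ s : ℝ,
          0 ≤ s → φ k (s • c) = s * φ k c) →
        AeW B B I J co M (actM M x0 a b) C lam a b A φ r kz (1 - s) κ
          (locV kz w0 o V0 (X x0 a b z)) Tw → Conc z A) :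
    ∀ᵐ z : ℝ × ℝ, z ∈ (mw M).O (fun _ => 0) (fun _ => R) x0 a b → 0 < X x0 a b z kz - w0 →
      X x0 a b z kz - w0 < 1 → Hyp z → ∃ D : ℝ × ℝ →L[ℝ] ℝ,
      HasFDerivAt (fun z => ν (X x0 a b z)) D z ∧ Conc z (D (1, 0), D (0, 1)) := by
  filter_upwards [ae_aew hN hO hP hQ] with z hz hzO hv0 hv1 hH
  obtain ⟨D, hD, H1, H2⟩ := hz hzO hv0 hv1
  obtain ⟨h, hpos, h0⟩ := exists_seq
  obtain ⟨ψ, hψ, lam, ht⟩ := H1 h hpos h0
  obtain ⟨φ, r, -, -, ψ2, t, lam2, φ2, g2, g3, g4, g5, g6, g7, g8, g9⟩ :=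
    H2 _ (fun l => hpos _) (h0.comp hψ.tendsto_atTop) lam ht
  have hψ2 : Tendsto ψ2 atTop atTop := tendsto_atTop_mono g2 tendsto_id
  refine ⟨D, hD, F z hzO hv0 hv1 hH _ (fun l => mul_pos (hpos _) (g3 l)) ?_ lam2 _ φ2 r g6 g7 g8
    g9⟩
  have h3 := ((h0.comp hψ.tendsto_atTop).comp hψ2).mul g5
  simpa using h3

/-- derivative along the first coordinate from the full derivative -/
theorem hasDeriv_fst {f : ℝ × ℝ → ℝ} {D : ℝ × ℝ →L[ℝ] ℝ} {z : ℝ × ℝ} (h : HasFDerivAt f D z) :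
    HasDerivAt (fun v => f (v, z.2)) (D (1, 0)) z.1 := by
  have h1 : HasDerivAt (fun v : ℝ => ((v, z.2) : ℝ × ℝ)) (1, 0) z.1 :=
    (hasDerivAt_id z.1).prodMk (hasDerivAt_const z.1 z.2)
  exact h.comp_hasDerivAt z.1 h1

end ae

end Crest.Agent.R136.Aw413
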