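import Crest.Agent.R136.K2X_774
import Crest.Agent.R136.Rc8_146

/-!
# R136 (helper146): the ladder with additivity

774's `FLem`, `Stage.rung`, `Stage.dead` with `OutA` (`OutS` + additivity of the groups with positive
`dh` + strong supermodularity + directional derivatives) instead of `OutS`.
-/

set_option autoImplicit false
set_option linter.unusedSectionVars false
set_option linter.unusedVariables false

open Set Filter Topology Metric MeasureTheory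

namespace Crest.Agent.R136.K2A146

open Dg262 (X X_cont SupOn LegU)
open Dg219 (Tn BUp Walls OutS gC dhC nC)
open Rc146 (OutA)
open K2S774
open Crest.Agent.R138

variable {m : ℕ} {W : Type*} [Fintype W] {Q : Walls (Fin m) W} {A : W → Prop}

/-- **every blow-up of a profile on the cone `cn Q A`, at a.e. point of a natural plane** -/
theorem cn_outA {lam lo : (Fin m → ℝ) → ℝ} {K : ℝ} (H : Prf (cn Q A) lam lo K)
    (hF : ∀ w, A w → ∃ s, Q.co w s ≠ 0) {x0 a b : Fin m → ℝ} (ha : ∀ i, 0 ≤ a i)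
    (n0 : Nat Q A x0) (na : Nat Q A a) (nb : Nat Q A b) :
    ∀ᵐ z : ℝ × ℝ, ∃ D : ℝ × ℝ →L[ℝ] ℝ, HasFDerivAt (fun z => lam (X x0 a b z)) D z ∧
      ∀ (h : ℕ → ℝ) (lam' : (Fin m → ℝ) → ℝ),
        BUp (cn Q A) (cn Q A) lam (X x0 a b z) h lam' →
        ∃ (φ : ℕ → (Fin m → ℝ) → ℝ) (r : ℕ → ℝ),
          OutA (gC a b) (cn Q A) a b (dhC a b) (nC a b) lam' (D (1, 0), D (0, 1)) φ r := by
  classical
  obtain ⟨wv, hGr⟩ := Dg219.exists_grpC (b := b) ha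
  set Q' := wl Q A with hQ'
  have hAct : ∀ w, Q'.Act x0 a b w := fun w => by
    refine ⟨?_, na w.1 w.2, nb w.1 w.2⟩
    show x0 (Q.hd w.1) = Q.rhs w.1 x0 + 0
    rw [add_zero]; exact n0 w.1 w.2
  have hL : Q'.L x0 a b = cn Q A := by
    ext c
    exact ⟨fun h w hw => h ⟨w, hw⟩ (hAct _), fun h w _ => h w.1 w.2⟩
  have hP : ∀ n : ℕ, Q'.P (fun _ => -(n:ℝ)) (fun _ => n) ⊆ cn Q A := by
    intro n p hp w hw
    have := hp.2 ⟨w, hw⟩
    change p (Q.hd w) ≤ Q.rhs w p + 0 at this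
    rwa [add_zero] at this
  have key : ∀ n : ℕ, ∀ᵐ z : ℝ × ℝ, z ∈ Q'.O (fun _ => -(n:ℝ)) (fun _ => n) x0 a b →
      ∃ D : ℝ × ℝ →L[ℝ] ℝ, HasFDerivAt (fun z => lam (X x0 a b z)) D z ∧
      ∀ (h : ℕ → ℝ) (lam' : (Fin m → ℝ) → ℝ),
        BUp (Q'.P (fun _ => -(n:ℝ)) (fun _ => n)) (Q'.L x0 a b) lam (X x0 a b z) h lam' →
        ∃ (φ : ℕ → (Fin m → ℝ) → ℝ) (r : ℕ → ℝ),
          OutA (gC a b) (Q'.L x0 a b) a b (dhC a b) (nC a b) lam' (D (1, 0), D (0, 1)) φ r := by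
    intro n
    refine Rc146.ae_outA Q' H.K0 ?_ ?_ ?_ hGr ?_ (fun _ _ => Iff.rfl) Dg219.dirC
    · intro p hp q hq
      rw [dist_eq_norm]; exact H.lip p (hP n hp) q (hP n hq)
    · intro p hp q hq hpq
      exact ⟨sub_nonneg.2 (H.mono p (hP n hp) q (hP n hq) hpq),
        H.sharp p (hP n hp) q (hP n hq) hpq⟩
    · intro p hp q hq h1 h2
      exact H.sup p (hP n hp) q (hP n hq) (hP n h1) (hP n h2)
    · exact Dg219.Walls.full_of_co fun w => hF w.1 w.2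
  filter_upwards [ae_all_iff.2 key] with z hz
  obtain ⟨n, hn⟩ := exists_nat_gt ‖X x0 a b z‖
  have hzO : z ∈ Q'.O (fun _ => -(n:ℝ)) (fun _ => n) x0 a b := by
    refine ⟨fun k => ?_, fun w => Or.inl (hAct w)⟩
    have h1 : |X x0 a b z k| ≤ ‖X x0 a b z‖ := by
      rw [← Real.norm_eq_abs]; exact norm_le_pi_norm _ k
    have h2 := abs_le.1 h1
    exact ⟨by linarith [h2.1], by linarith [h2.2]⟩
  obtain ⟨D, hD, H2⟩ := hz n hzO
  rw [hL] at H2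
  refine ⟨D, hD, fun h lam' hB => H2 h lam' ⟨hB.pos, hB.zero, fun c hc => ?_, hB.lim⟩⟩
  obtain ⟨ε, hε, hleg⟩ := Walls.legal hzO ‖c‖
  filter_upwards [hB.zero.eventually (eventually_lt_nhds hε)] with l hl
  exact hleg z (by rw [dist_self]; exact hε) _ (hB.pos l) hl c (by rw [hL]; exact hc) le_rfl

/-- **input of a rung, with additivity**: 774's `FLem` with `OutA` instead of `OutS` -/
def FLemA (Q : Walls (Fin m) W) (A : W → Prop) (P : Set (Fin m → ℝ)) (ν own : (Fin m → ℝ) → ℝ)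
    (r0 : Fin m → ℝ) (Dl : (Fin m → ℝ) →ₗ[ℝ] ℝ) (Tie : Set (Fin m)) (kz : Fin m) (o : Fin m → ℝ)
    (T T' b : Fin m → ℝ) (lam lo : (Fin m → ℝ) → ℝ) (V : ((Fin m → ℝ) → ℝ) → Prop) (g : ℝ) :
    Prop :=
  ∀ z : ℝ × ℝ, z.1 < 0 → ∀ D : ℝ × ℝ →L[ℝ] ℝ, HasFDerivAt (fun z => lam (X 0 T b z)) D z →
    ∀ (k : ℕ → ℝ) (lam' lo' : (Fin m → ℝ) → ℝ), (∀ l, 0 < k l) → Tendsto k atTop (𝓝 0) →
    Ex926.IsTan (cn Q A) (cn Q A) lam (fun _ => X 0 T b z) k lam' →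
    Ex926.IsTan (cn Q A) (cn Q A) lo (fun _ => X 0 T b z) k lo' →
    ∀ (x' : ℕ → Fin m → ℝ) (h' : ℕ → ℝ), JT Q A P ν own r0 x' h' lam' lo' →
    BaseOk Tie kz o T r0 x' h' →
    ∀ (φ : ℕ → (Fin m → ℝ) → ℝ) (rt : ℕ → ℝ),
      OutA (gC T b) (cn Q A) T b (dhC T b) (nC T b) lam' (D (1, 0), D (0, 1)) φ rt →
    V lam' → g ≤ -D (1, 0) + Dl T'

variable {P : Set (Fin m → ℝ)} {ν own : (Fin m → ℝ) → ℝ} {K : ℝ}
  {r0 ρ : Fin m → ℝ} {Dl : (Fin m → ℝ) →ₗ[ℝ] ℝ} {Qd : Set (Fin m → ℝ)} {Z Tie : Set (Fin m)}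
  {kz : Fin m} {o : Fin m → ℝ} {τ : ℝ} {Dr : Set (Fin m)}
  {lam lo : (Fin m → ℝ) → ℝ}

/-- the F-lemma as an a.e. statement -/
theorem flemA_ae (H : Stage Q P ν own K r0 ρ Dl Qd Z Tie kz o τ A Dr lam lo)
    (R : RecD Q A ρ Qd Tie kz o) {T T' b : Fin m → ℝ} {J : Finset (Fin m)}
    (D : RungD Q A Dr Z Tie kz Qd ρ T T' b J) {g : ℝ} {V : ((Fin m → ℝ) → ℝ) → Prop}
    (F : FLemA Q A P ν own r0 Dl Tie kz o T T' b lam lo V g) (Vz : ℝ × ℝ → Prop)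
    (hV : ∀ z, Vz z → ∃ k : ℕ → ℝ, (∀ l, 0 < k l) ∧ Tendsto k atTop (𝓝 0) ∧
      ∀ φ : ℕ → ℕ, StrictMono φ → ∀ lam' : (Fin m → ℝ) → ℝ,
        Ex926.IsTan (cn Q A) (cn Q A) lam (fun _ => X 0 T b z) (fun l => k (φ l)) lam' →
        V lam') :
    ∀ᵐ z : ℝ × ℝ, z ∈ {z : ℝ × ℝ | z.1 < 0} → ∃ D : ℝ × ℝ →L[ℝ] ℝ,
      HasFDerivAt (fun z => lam (X 0 T b z)) D z ∧ (Vz z → g ≤ -D (1, 0) - -(Dl T')) := by
  have hnb := H.nat_b R.nat D.bρ
  have hT : Nat Q A T := D.natT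
  filter_upwards [cn_outA H.prf R.full D.T0 K2S774.Nat.zero hT hnb] with z hz hz1
  obtain ⟨E, hE, hout⟩ := hz
  refine ⟨E, hE, fun hv => ?_⟩
  have hy : Nat Q A (X 0 T b z) := by
    rw [X_zero]; exact (hT.smul _).add (hnb.smul _)
  obtain ⟨k, kpos, k0, hk⟩ := hV z hv
  obtain ⟨φ, hφ, lam', lo', H1, H2, x', h', hJ, hJt, hJl, hJs⟩ := H.at_pt hy kpos k0
  have k0' := k0.comp hφ.tendsto_atTop
  obtain ⟨f, rt, hO⟩ := hout _ lam' (Dg219.bup_of_tan (fun l => kpos _) k0' H1)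
  have hz : b kz = ρ kz := D.bρ kz H.zD
  have := F z hz1 E hE (fun l => k (φ l)) lam' lo' (fun l => kpos _) k0' H1 H2 x' h' hJ
    ⟨fun l i hi hT' => hJt l i hi (by
      rw [X_zero]
      simp only [Pi.add_apply, Pi.smul_apply, smul_eq_mul]
      rw [hT', D.bρ i (H.TD i hi), hz, R.tie i hi]; ring), fun l i hi hT' => hJl l i hi (by
      have h3 := mul_le_mul_of_nonneg_left hT' (neg_nonneg.2 (le_of_lt hz1))
      rw [X_zero]
      simp only [Pi.add_apply, Pi.smul_apply, smul_eq_mul]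
      rw [D.bρ i (H.TD i hi), hz, R.tie i hi]
      nlinarith), fun i hi hT' => hJs i hi (by
      have h3 := mul_lt_mul_of_pos_left hT' (neg_pos.2 hz1)
      rw [X_zero]
      simp only [Pi.add_apply, Pi.smul_apply, smul_eq_mul]
      rw [D.bρ i (H.TD i hi), hz, R.tie i hi]
      nlinarith)⟩ f rt hO
    (hk φ hφ lam' H1)
  linarith

/-- **a rung whose F-lemma uses additivity**: the a.e. form `FL` of the F-lemma is all that is used -/
theorem rung_ae (H : Stage Q P ν own K r0 ρ Dl Qd Z Tie kz o τ A Dr lam lo)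
    (R : RecD Q A ρ Qd Tie kz o) {T T' b : Fin m → ℝ} {J : Finset (Fin m)}
    (D : RungD Q A Dr Z Tie kz Qd ρ T T' b J) {g : ℝ} (hg : 0 < g)
    (hFL : ∀ Vz : ℝ × ℝ → Prop, (∀ z, Vz z → ∃ k : ℕ → ℝ, (∀ l, 0 < k l) ∧
      Tendsto k atTop (𝓝 0) ∧ ∀ φ : ℕ → ℕ, StrictMono φ → ∀ lam' : (Fin m → ℝ) → ℝ,
        Ex926.IsTan (cn Q A) (cn Q A) lam (fun _ => X 0 T b z) (fun l => k (φ l)) lam' →
        lam' (ind1 J) < 0) →
      ∀ᵐ z : ℝ × ℝ, z ∈ {z : ℝ × ℝ | z.1 < 0} → ∃ D : ℝ × ℝ →L[ℝ] ℝ,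
        HasFDerivAt (fun z => lam (X 0 T b z)) D z ∧ (Vz z → g ≤ -D (1, 0) - -(Dl T'))) :
    ∃ lam2 lo2 : (Fin m → ℝ) → ℝ,
      Stage Q P ν own K r0 ρ Dl Qd Z Tie kz o τ (A2 Q A J) (Dr ∪ ↑J) lam2 lo2 := by
  have hnb := H.nat_b R.nat D.bρ
  have hT : Nat Q A T := D.natT
  have hU := H.stepU R D
  have hF := hFL
    (fun z => ∃ c : ℝ, 0 < c ∧ ∃ᶠ h in 𝓝[>] (0:ℝ), c * h ≤ lossU lam 0 T b (ind1 J) z h) (by
    rintro z ⟨c, hc, hfr⟩
    obtain ⟨k, hk, hk2⟩ := exists_seq_forall_of_frequently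
      (hfr.and_eventually self_mem_nhdsWithin)
    have kpos : ∀ l, 0 < k l := fun l => (hk2 l).2
    have k0 : Tendsto k atTop (𝓝 0) := (tendsto_nhdsWithin_iff.1 hk).1
    refine ⟨k, kpos, k0, fun φ hφ lam' H1 => ?_⟩
    have hB := Dg219.bup_of_tan (fun l => kpos _) (k0.comp hφ.tendsto_atTop) H1
    have h1 : lam' (ind1 J) ≤ -c := by
      refine le_of_tendsto (hB.lim _ (ind1_mem D.head)) (Eventually.of_forall fun l => ?_)
      rw [div_le_iff₀ (kpos _)]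
      have := (hk2 (φ l)).1
      unfold lossU at this
      linarith
    show lam' (ind1 J) < 0
    linarith)
  have hz := hU.zero hg (O := {z : ℝ × ℝ | z.1 < 0}) (fun ξ _ s hs _ => by
    show (pt 0 (0, 1) (1, 0) ξ s).1 < 0
    simp [pt]; exact hs) hF
  set C : ℝ := K * ‖Tn T b (1, 0)‖ + |(-(Dl T'))| with hC
  have hC0 : 0 ≤ C := add_nonneg (mul_nonneg H.prf.K0 (norm_nonneg _)) (abs_nonneg _)
  set s0 : ℝ := g / (2 * (C + g)) with hs0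
  have s0pos : 0 < s0 := by positivity
  have s0lt : (C + g) * s0 < g * 1 := by
    rw [hs0]
    have : (C + g) * (g / (2 * (C + g))) = g / 2 := by field_simp
    rw [this]; linarith
  have s01 : s0 ≤ 1 := by
    by_contra hn
    push Not at hn
    nlinarith
  have hun := hU.unif isOpen_univ s0pos.le s01 (by
    filter_upwards [hz] with ξ hξ _
    exact hξ (mem_univ _) s0 s0pos.le s0lt)
  obtain ⟨ξ, hξ⟩ := hun.exists
  have hξ' := hξ (mem_univ _)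
  set k : ℕ → ℝ := fun l => 1 / ((l : ℝ) + 1) with hk
  have kpos : ∀ l, 0 < k l := fun l => by positivity
  have k0 : Tendsto k atTop (𝓝 0) := tendsto_one_div_add_atTop_nhds_zero_nat
  obtain ⟨φ, hφ, lam1, lo1, H1, H2, -⟩ := H.at_pt (hnb.smul ξ) kpos k0
  have k0' := k0.comp hφ.tendsto_atTop
  have S1 := H.at_rec R D.bρ (fun l => kpos _) k0' H1 H2
  have hB := Dg219.bup_of_tan (fun l => kpos _) k0' H1
  have hX0 : X 0 T b (pt 0 (0, 1) (1, 0) ξ 0) = ξ • b := by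
    rw [X_pt0, zero_smul, sub_zero]
  refine S1.raise R D fun σ s x hs hx => ?_
  refine hU.free (mem_univ ξ) s0pos s01 hξ' (L := cn Q A) (lam := lam1)
    (hl := fun l => k (φ l)) (by rw [hX0]; exact hB) (s := s) (σ := σ) (κ := 0)
    (((hnb.smul σ).sub (hT.smul s)).mem)
    (cn_nat_add ((hnb.smul σ).sub (hT.smul s)) (ind1_mem D.head) hx) hx le_rfl hs ?_ ?_
  · intro i
    rw [Tn_r, Tn_e]
    simp only [Pi.sub_apply, Pi.smul_apply, smul_eq_mul]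
    exact le_rfl
  · intro i hi
    have hiJ : i ∈ J := by
      by_contra h
      exact hi (by unfold ind1; rw [if_neg h])
    rw [Tn_r]
    simp only [Pi.sub_apply, Pi.smul_apply, smul_eq_mul]
    rw [D.TJ i hiJ]; ring

/-- **ONE RUNG OF THE LADDER**, F-lemma with additivity -/
theorem rungA (H : Stage Q P ν own K r0 ρ Dl Qd Z Tie kz o τ A Dr lam lo)
    (R : RecD Q A ρ Qd Tie kz o) {T T' b : Fin m → ℝ} {J : Finset (Fin m)}
    (D : RungD Q A Dr Z Tie kz Qd ρ T T' b J) {g : ℝ} (hg : 0 < g)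
    (F : FLemA Q A P ν own r0 Dl Tie kz o T T' b lam lo (fun lam' => lam' (ind1 J) < 0) g) :
    ∃ lam2 lo2 : (Fin m → ℝ) → ℝ,
      Stage Q P ν own K r0 ρ Dl Qd Z Tie kz o τ (A2 Q A J) (Dr ∪ ↑J) lam2 lo2 :=
  rung_ae H R D hg fun Vz hV => flemA_ae H R D F Vz hV

/-- **THE LAST RUNG**, F-lemma with additivity -/
theorem deadA (H : Stage Q P ν own K r0 ρ Dl Qd Z Tie kz o τ A Dr lam lo)
    (R : RecD Q A ρ Qd Tie kz o) {T T' b : Fin m → ℝ} {J : Finset (Fin m)}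
    (D : RungD Q A Dr Z Tie kz Qd ρ T T' b J) {g : ℝ} (hg : 0 < g)
    (F : FLemA Q A P ν own r0 Dl Tie kz o T T' b lam lo (fun _ => True) g) : False := by
  have hF := flemA_ae H R D F (fun _ => True) (fun z _ =>
    ⟨fun l => 1 / ((l : ℝ) + 1), fun l => by positivity, tendsto_one_div_add_atTop_nhds_zero_nat,
      fun _ _ _ _ => trivial⟩)
  have hd := (H.ray R D).dead hg one_pos (O := {z : ℝ × ℝ | z.1 < 0}) (fun ξ _ s hs _ => by
    show (pt 0 (0, 1) (1, 0) ξ s).1 < 0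
    simp [pt]; exact hs) (by
    filter_upwards [hF] with z hz hz1
    obtain ⟨E, h1, h2⟩ := hz hz1
    exact ⟨E, h1, h2 trivial⟩)
  obtain ⟨ξ, hξ⟩ := hd.exists
  exact hξ (mem_univ _)

end Crest.Agent.R136.K2A146
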