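import Crest.Agent.R136.Aw3_413
import Crest.Agent.R136.K2A_146

/-!
# R136 (helper774): `AeW` at the base points of the ladder

* `mA M A` : monomials of the walls `A`; `coneM (mA M A) = cn (mw M) A`.
* `bas_of_jt`, `OwnR`, `ownB_of_jt` : position of the (moving) base points of a joint tangent.
* **`aew_of_jt`** : joint tangent + splitting ⊢ `AeW`.
* **`flemA_of_aew`**, `flem_of_aew` : an F-half over `AeW` is the input of a rung.
-/

set_option autoImplicit false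
set_option linter.unusedSectionVars false
set_option linter.unusedVariables false

open Filter Topology

namespace Crest.Agent.R136.AwJ774

open Finset Crest.Agent.R138.Ex926 Crest.Agent.R136.Net191 Crest.Agent.R136.Gf356
open Crest.Agent.R136.Qg926 Crest.Agent.R136.Dg219 Crest.Agent.R136.Aw413
open Crest.Agent.R136.Rc146 (OutA)
open Crest.Agent.R136.Dg262 (X)
open Crest.Agent.R136.K2S774 (cn Prf JT Stage RecD RungD BaseOk FLem)
open Crest.Agent.R136.K2A146 (FLemA)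

variable {m : ℕ}

/-- walls of a chart, index type -/
abbrev Wt (M : Mons m) : Type := Σ k : Fin m, {e // e ∈ M.mon k}

open Classical in
/-- monomials of the walls `A` -/
noncomputable def mA (M : Mons m) (A : Wt M → Prop) : Mons m where
  mon k := (M.mon k).filter fun e => ∃ h : e ∈ M.mon k, A ⟨k, e, h⟩
  low := fun k e he => M.low k e (mem_filter.1 he).1
  ne := fun k e he => M.ne k e (mem_filter.1 he).1

variable {M : Mons m} {A : Wt M → Prop}

theorem mem_mA {k : Fin m} {e : Fin m → ℕ} : e ∈ (mA M A).mon k ↔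
    ∃ h : e ∈ M.mon k, A ⟨k, e, h⟩ := by
  classical
  simp only [mA, mem_filter]
  exact ⟨fun h => h.2, fun h => ⟨h.1, h⟩⟩

theorem mA_sub (k : Fin m) : (mA M A).mon k ⊆ M.mon k := fun e he => (mem_mA.1 he).1

theorem coneM_mA : coneM (mA M A) = cn (mw M) A := by
  ext c
  constructor
  · intro h w hw
    exact h w.1 w.2.1 (mem_mA.2 ⟨w.2.2, hw⟩)
  · intro h k e he
    obtain ⟨h1, h2⟩ := mem_mA.1 he
    exact h ⟨k, e, h1⟩ h2

section

variable {R : ℝ} {ν own lam lo : (Fin m → ℝ) → ℝ} {r0 T : Fin m → ℝ} {x : ℕ → Fin m → ℝ}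
  {h : ℕ → ℝ} {Tie : Set (Fin m)} {kz : Fin m} {w0 : ℝ} {κ : Fin m → ℝ}
  {ow : ℝ → Fin m → ℝ} {T0 Tw : Fin m → Prop}

/-- a joint tangent has tight base points -/
theorem bas_of_jt (hJ : JT (mw M) A (Leg M R) ν own r0 x h lam lo) (hr : ∀ k, 0 < r0 k) :
    Bas M (mA M A) x h where
  pos := hJ.pos
  zero := hJ.zero
  sub := mA_sub
  act := fun k e he l => by
    obtain ⟨h1, h2⟩ := mem_mA.1 he
    have := hJ.nat l ⟨k, e, h1⟩ h2
    simp only [mw, Walls.rhs, add_zero] at this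
    exact this
  gap := fun k e he hne R' => by
    have := hJ.gap ⟨k, e, he⟩ (fun hA => hne (mem_mA.2 ⟨he, hA⟩)) R'
    simp only [mw, Walls.rhs, add_zero] at this
    exact this
  room := fun s R' => by
    have h1 : Tendsto (fun l => x l s) atTop (𝓝 (r0 s)) := (tendsto_pi_nhds.1 hJ.base) s
    have h2 : Tendsto (fun l => R' * h l) atTop (𝓝 0) := by simpa using hJ.zero.const_mul R'
    filter_upwards [h1.eventually_const_lt (half_lt_self (hr s)),
      h2.eventually_lt_const (half_pos (hr s))] with l g1 g2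
    linarith

/-- the record point lies on the own path in the tied slots -/
structure OwnR (kz : Fin m) (w0 : ℝ) (ow : ℝ → Fin m → ℝ) (Tie : Set (Fin m)) (r0 : Fin m → ℝ) :
    Prop where
  v0 : 0 < r0 kz - w0
  v1 : r0 kz - w0 < 1
  eq : ∀ k ∈ Tie, r0 k = ow (r0 kz - w0) k

/-- slots which touch the own path on the plane of the ray `T` -/
def locT (Tie : Set (Fin m)) (kz : Fin m) (κ T : Fin m → ℝ) (k : Fin m) : Prop :=
  k ∈ Tie ∧ T k = κ k * T kz

/-- own position of the base points at a point `z.1 < 0` of a plane with the ray `T` -/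
theorem ownB_of_jt (hJ : JT (mw M) A (Leg M R) ν own r0 x h lam lo)
    (hB : BaseOk Tie kz κ T r0 x h) (hP : OwnPath ow kz w0 R (· ∈ Tie) κ)
    (hr : OwnR kz w0 ow Tie r0) (hT : ∀ i ∈ Tie, κ i * T kz ≤ T i)
    (hTw : ∀ k, Tw k → T0 k ∧ locT Tie kz κ T k) :
    OwnB kz w0 ow T0 (· ∈ Tie) (locT Tie kz κ T) Tw x h := by
  have hz : Tendsto (fun l => x l kz - w0) atTop (𝓝 (r0 kz - w0)) :=
    ((tendsto_pi_nhds.1 hJ.base) kz).sub_const w0
  have h0 := hr.v0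
  have h1 := hr.v1
  have hlim : ∀ᶠ l in atTop, (r0 kz - w0) / 2 ≤ x l kz - w0 ∧
      x l kz - w0 ≤ (1 + (r0 kz - w0)) / 2 := by
    filter_upwards [hz.eventually_const_lt (half_lt_self h0),
      hz.eventually_lt_const (show r0 kz - w0 < (1 + (r0 kz - w0)) / 2 by linarith)] with l g1 g2
    exact ⟨g1.le, g2.le⟩
  have h01 : ∀ᶠ l in atTop, 0 ≤ x l kz - w0 ∧ x l kz - w0 ≤ 1 := by
    filter_upwards [hlim] with l hl
    exact ⟨by linarith [hl.1], by linarith [hl.2]⟩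
  have hvis : ∀ᶠ l in atTop, ∀ k ∈ Tie, ow (x l kz - w0) k = r0 k + κ k * (x l kz - r0 kz) := by
    filter_upwards [h01] with l hl k hk
    rw [hP.vis k hk _ _ h0.le h1.le hl.1 hl.2, ← hr.eq k hk]
    ring
  refine ⟨⟨(r0 kz - w0) / 2, (1 + (r0 kz - w0)) / 2, by linarith, by linarith, hlim⟩, ?_, ?_,
    fun k hk => ⟨(hTw k hk).1, (hTw k hk).2.1⟩, ?_⟩
  · filter_upwards [h01, hvis, hJ.tan.ev (K2S774.cn_zero) one_pos] with l hl hv hm k
    by_cases hk : k ∈ Tie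
    · rw [hv k hk]
      have := hB.le l k hk (hT k hk)
      linarith
    · by_cases hkz : k = kz
      · subst hkz; rw [hP.z _ hl.1 hl.2]; linarith
      · have h3 := hm.1.2 k
        rw [smul_zero, add_zero] at h3
        exact h3.trans (hP.far k hkz hk _ hl.1 hl.2)
  · intro k hk hkn R'
    have hlt : κ k * T kz < T k := lt_of_le_of_ne (hT k hk) fun he => hkn ⟨hk, he.symm⟩
    filter_upwards [hvis, hB.slack k hk hlt R'] with l hv hs
    rw [hv k hk]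
    linarith
  · filter_upwards [hvis] with l hv k hk
    rw [hv k (hTw k hk).2.1]
    have := hB.eq l k (hTw k hk).2.1 (hTw k hk).2.2
    linarith

end

section

variable {ι : ℕ → Type} [∀ n, DecidableEq (ι n)] [∀ n, Nonempty (ι n)]
  {B : Base} {I J : ∀ n, Finset (ι n)} {co : ∀ n, ι n → ι n → Fin m → ℝ}
  {C R : ℝ} {ν own lam lo lam' lo' : (Fin m → ℝ) → ℝ} {r0 T : Fin m → ℝ} {x : ℕ → Fin m → ℝ}
  {h : ℕ → ℝ} {Tie : Set (Fin m)} {kz : Fin m} {w0 s : ℝ} {κ : Fin m → ℝ}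
  {ow : ℝ → Fin m → ℝ} {T0 Tw : Fin m → Prop} {a b : Fin m → ℝ} {AA : ℝ × ℝ}
  {φ : ℕ → (Fin m → ℝ) → ℝ} {rt : ℕ → ℝ}

/-- **what the window wrapper needs to know about `ν`, own path, record point** -/
structure Src (B : Base) (I J : ∀ n, Finset (ι n)) (co : ∀ n, ι n → ι n → Fin m → ℝ)
    (M : Mons m) (C R : ℝ) (kz : Fin m) (w0 s : ℝ) (ow : ℝ → Fin m → ℝ) (T0 : Fin m → Prop)
    (ν own : (Fin m → ℝ) → ℝ) (Tie : Set (Fin m)) (κ r0 : Fin m → ℝ) : Prop where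
  prof : NProf B I J co M C R ν
  ownF : OwnF M R kz w0 s ow T0 ν own
  path : OwnPath ow kz w0 R (· ∈ Tie) κ
  rpos : ∀ k, 0 < r0 k
  ownR : OwnR kz w0 ow Tie r0

/-- **`AeW` at the base points of a joint tangent** -/
theorem aew_of_jt (S : Src B I J co M C R kz w0 s ow T0 ν own Tie κ r0)
    (hJ : JT (mw M) A (Leg M R) ν own r0 x h lam' lo')
    (hB : BaseOk Tie kz κ T r0 x h) (hT : ∀ i ∈ Tie, κ i * T kz ≤ T i)
    (hTw : ∀ k, Tw k → T0 k ∧ locT Tie kz κ T k) (hTkz : ¬ Tw kz)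
    (out : OutS (gC a b) (cn (mw M) A) (dhC a b) (nC a b) lam' AA φ rt) :
    AeW B B I J co M (mA M A) C lam' a b AA φ rt kz (1 - s) κ (locT Tie kz κ T) Tw := by
  have hBas := bas_of_jt hJ S.rpos
  have hO := ownB_of_jt hJ hB S.path S.ownR hT hTw
  have ht := hJ.tan
  rw [← coneM_mA] at ht out
  exact aew_core S.prof hBas ht out (own_tan S.ownF S.path hO hJ.zero hJ.pos ht) hTkz
    fun c hc c' hc' hcc hV hkz hk => drop_tan S.ownF S.path hO hJ.zero hJ.pos ht hc hc' hcc hV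
      hkz hk

/-- **an F-half over `AeW` is the input of a rung** -/
theorem flemA_of_aew (S : Src B I J co M C R kz w0 s ow T0 ν own Tie κ r0)
    {Dl : (Fin m → ℝ) →ₗ[ℝ] ℝ} {T' : Fin m → ℝ} {V : ((Fin m → ℝ) → ℝ) → Prop} {g : ℝ}
    (hT : ∀ i ∈ Tie, κ i * T kz ≤ T i) (hTw : ∀ k, Tw k → T0 k ∧ locT Tie kz κ T k)
    (hTkz : ¬ Tw kz)
    (F : ∀ z : ℝ × ℝ, z.1 < 0 → ∀ D : ℝ × ℝ →L[ℝ] ℝ, HasFDerivAt (fun z => lam (X 0 T b z)) D z →
      ∀ (k : ℕ → ℝ) (lam' lo' : (Fin m → ℝ) → ℝ), (∀ l, 0 < k l) → Tendsto k atTop (𝓝 0) →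
      IsTan (cn (mw M) A) (cn (mw M) A) lam (fun _ => X 0 T b z) k lam' →
      IsTan (cn (mw M) A) (cn (mw M) A) lo (fun _ => X 0 T b z) k lo' →
      ∀ (φ : ℕ → (Fin m → ℝ) → ℝ) (rt : ℕ → ℝ),
      OutA (gC T b) (cn (mw M) A) T b (dhC T b) (nC T b) lam' (D (1, 0), D (0, 1)) φ rt →
      AeW B B I J co M (mA M A) C lam' T b (D (1, 0), D (0, 1)) φ rt kz (1 - s) κ
        (locT Tie kz κ T) Tw → V lam' → g ≤ -D (1, 0) + Dl T') :
    FLemA (mw M) A (Leg M R) ν own r0 Dl Tie kz κ T T' b lam lo V g :=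
  fun z hz D hD k lam' lo' kpos k0 H1 H2 x' h' hJ hB φ rt out hV =>
    F z hz D hD k lam' lo' kpos k0 H1 H2 φ rt out (aew_of_jt S hJ hB hT hTw hTkz out.toOutS) hV

/-- the same without additivity -/
theorem flem_of_aew (S : Src B I J co M C R kz w0 s ow T0 ν own Tie κ r0)
    {Dl : (Fin m → ℝ) →ₗ[ℝ] ℝ} {T' : Fin m → ℝ} {V : ((Fin m → ℝ) → ℝ) → Prop} {g : ℝ}
    (hT : ∀ i ∈ Tie, κ i * T kz ≤ T i) (hTw : ∀ k, Tw k → T0 k ∧ locT Tie kz κ T k)
    (hTkz : ¬ Tw kz)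
    (F : ∀ z : ℝ × ℝ, z.1 < 0 → ∀ D : ℝ × ℝ →L[ℝ] ℝ, HasFDerivAt (fun z => lam (X 0 T b z)) D z →
      ∀ (k : ℕ → ℝ) (lam' lo' : (Fin m → ℝ) → ℝ), (∀ l, 0 < k l) → Tendsto k atTop (𝓝 0) →
      IsTan (cn (mw M) A) (cn (mw M) A) lam (fun _ => X 0 T b z) k lam' →
      IsTan (cn (mw M) A) (cn (mw M) A) lo (fun _ => X 0 T b z) k lo' →
      ∀ (φ : ℕ → (Fin m → ℝ) → ℝ) (rt : ℕ → ℝ),
      OutS (gC T b) (cn (mw M) A) (dhC T b) (nC T b) lam' (D (1, 0), D (0, 1)) φ rt →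
      AeW B B I J co M (mA M A) C lam' T b (D (1, 0), D (0, 1)) φ rt kz (1 - s) κ
        (locT Tie kz κ T) Tw → V lam' → g ≤ -D (1, 0) + Dl T') :
    FLem (mw M) A (Leg M R) ν own r0 Dl Tie kz κ T T' b lam lo V g :=
  fun z hz D hD k lam' lo' kpos k0 H1 H2 x' h' hJ hB φ rt out hV =>
    F z hz D hD k lam' lo' kpos k0 H1 H2 φ rt out (aew_of_jt S hJ hB hT hTw hTkz out) hV

end

end Crest.Agent.R136.AwJ774
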