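import Crest.Agent.R136.AwT_146
import Crest.Agent.R136.Aw2_413

/-!
# R136 (helper146): `AeW` over an outer window (P3)

* `BasX` : position of the outer window `X n`, scale `wx n`, legal directions `Leg Mw R`.
* `tan_comp` : tangents along a subsequence.
* `aewZ_core` : outer window (779's `ExtZ.win`) + tangent of its profile + splitting + own loss +
  strict drop ⊢ `AeW B B₁ ..`; windows are based at `X n + wx n • y (k n)`, scale `wx n * w (k n)`.
-/

set_option autoImplicit false
set_option linter.unusedSectionVars false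
set_option linter.unusedVariables false

open Filter Topology

namespace Crest.Agent.R136.AwZ146

open Finset Crest.Agent.R138.Ex926 Crest.Agent.R136.Net191 Crest.Agent.R136.Gf356
open Crest.Agent.R136.Qg926 Crest.Agent.R136.Dg219 Crest.Agent.R136.Aw413
open Crest.Agent.R136.AwT146

/-- tangents along a subsequence -/
theorem tan_comp {V : Type*} [NormedAddCommGroup V] [NormedSpace ℝ V] {P D : Set V}
    {ν lam : V → ℝ} {x : ℕ → V} {h : ℕ → ℝ} (H : IsTan P D ν x h lam) {φ : ℕ → ℕ}
    (hφ : Tendsto φ atTop atTop) :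
    IsTan P D ν (fun l => x (φ l)) (fun l => h (φ l)) lam := fun C ε hε =>
  hφ.eventually (H C ε hε)

variable {m : ℕ} {ι : ℕ → Type} [∀ n, DecidableEq (ι n)] [∀ n, Nonempty (ι n)]

/-- **position of the outer window**: the walls `Ma` are equalities at `X n`, the walls of `M` which
are not kept in the window (`Mw`) are at infinite distance -/
structure BasX (M Mw Ma : Mons m) (X : ℕ → Fin m → ℝ) (wx : ℕ → ℝ) : Prop where
  sub : ∀ k, Ma.mon k ⊆ M.mon k
  act : ∀ k, ∀ e ∈ Ma.mon k, ∀ n, X n k = ∑ s, (e s : ℝ) * X n s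
  gap : ∀ k, ∀ e ∈ M.mon k, e ∉ Mw.mon k → ∀ R : ℝ, ∀ᶠ n in (U : Filter ℕ),
    X n k + R * wx n ≤ ∑ s, (e s : ℝ) * X n s

section core

variable {B B₁ : Base} {I J : ∀ n, Finset (ι n)} {co : ∀ n, ι n → ι n → Fin m → ℝ}
  {M Mw Ma : Mons m} {C R : ℝ} {X : ℕ → Fin m → ℝ} {wx : ℕ → ℝ} {T : ℕ → ℝ}
  {ν lam : (Fin m → ℝ) → ℝ} {y : ℕ → Fin m → ℝ} {w : ℕ → ℝ} {a b : Fin m → ℝ}
  {A : ℝ × ℝ} {φ : ℕ → (Fin m → ℝ) → ℝ} {r : ℕ → ℝ} {kz : Fin m} {σ : ℝ} {κ : Fin m → ℝ}
  {V Tw : Fin m → Prop}

/-- **the core over an outer window** -/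
theorem aewZ_core (hZ : ZWin B B₁ I J co M C X wx (Leg Mw R) T ν) (hR : 0 ≤ R)
    (hX : BasX M Mw Ma X wx) (hB : Bas Mw Ma y w)
    (ht : IsTan (Leg Mw R) (coneM Ma) ν y w lam)
    (out : OutS (gC a b) (coneM Ma) (dhC a b) (nC a b) lam A φ r)
    (hown : ∀ c ∈ coneM Ma, ∀ c' ∈ coneM Ma, c ≤ c' → (∀ k, V k → c k ≤ κ k * c kz) →
      σ * (c' kz - c kz) ≤ lam c - lam c')
    (hTkz : ¬ Tw kz)
    (hdrop : ∀ c ∈ coneM Ma, ∀ c' ∈ coneM Ma, c ≤ c' → (∀ k, V k → c k ≤ κ k * c kz) →
      c' kz = c kz → (∃ k, Tw k ∧ κ k * c kz < c' k) →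
      ∀ᶠ l in atTop, ν (y l + w l • c') < ν (y l + w l • c)) :
    AeW B B₁ I J co M Ma C lam a b A φ r kz σ κ V Tw where
  sub := hX.sub
  zero := ht.zero hB.pos zero_mem
  lip := ht.lip hB.pos hZ.lip
  anti := ht.anti hB.pos (tan_mono_add hB.pos) hZ.anti
  sharp := tan_sharp' ht hB.pos hZ.sharp
  submod := fun c hc c' hc' h1 h2 => ht.submod hB.pos hZ.submod hc hc' h1 h2
  out := out
  own := hown
  wndO := by
    intro c0 hc0 st hkz hst s hs J' Sd hJ hne hSd hd
    have hZ' : ZWin B B₁ I J' co M C X wx (Leg Mw R) T ν := hZ.refine hJ hne hSd hd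
    -- the slots used in the twist
    classical
    set F : Finset (Fin m) := if ((∀ k, V k → c0 k ≤ κ k * c0 kz) ∧
        (∀ k, V k → k ∈ st.S ∨ st.top k = 0)) then
        st.S.filter fun j => Tw j ∧ 0 < st.top j ∧ c0 j = κ j * c0 kz ∧
          ∃ e : ℝ, 0 < e ∧ c0 + cut st.S st.top (Pi.single j e) ∈ coneM Ma
      else ∅ with hF
    have hFS : F ⊆ st.S := by
      rw [hF]; split_ifs
      · exact filter_subset _ _
      · exact empty_subset _
    have hlin : c0 + cut st.S st.top 0 ∈ coneM Ma := hst.leg hst.lin_leg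
    have key : ∀ j ∈ F, 0 < st.top j ∧ ∃ e0 : ℝ, 0 < e0 ∧ ∀ e, 0 < e → e ≤ e0 →
        cut st.S st.top (Pi.single j e) ∈ {p | c0 + p ∈ coneM Ma} ∧
        ∀ᶠ l in atTop, ν (y l + w l • c0 + w l • cut st.S st.top (Pi.single j e)) <
          ν (y l + w l • c0 + w l • cut st.S st.top 0) := by
      intro j hj
      by_cases hcond : (∀ k, V k → c0 k ≤ κ k * c0 kz) ∧ (∀ k, V k → k ∈ st.S ∨ st.top k = 0)
      · rw [hF, if_pos hcond, mem_filter] at hj
        obtain ⟨hjS, hjT, hjt, hj0, e0, he0, he1⟩ := hj
        refine ⟨hjt, e0, he0, fun e he hee => ?_⟩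
        -- convexity: legal for all smaller `e`
        have hconv : c0 + cut st.S st.top (Pi.single j e) ∈ coneM Ma := by
          intro k q hq
          have h1 := hlin k q hq
          have h2 := he1 k q hq
          have hc : ∀ i, (c0 + cut st.S st.top (Pi.single j e)) i =
              (1 - e / e0) * (c0 + cut st.S st.top 0) i +
                e / e0 * (c0 + cut st.S st.top (Pi.single j e0)) i := by
            intro i
            simp only [Pi.add_apply, cut]
            by_cases hiS : i ∈ st.S
            · rw [if_pos hiS, if_pos hiS, if_pos hiS]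
              by_cases hij : i = j
              · subst hij
                rw [Pi.single_eq_same, Pi.single_eq_same, Pi.zero_apply]
                field_simp
                ring
              · rw [Pi.single_eq_of_ne hij, Pi.single_eq_of_ne hij, Pi.zero_apply]; ring
            · rw [if_neg hiS, if_neg hiS, if_neg hiS]; ring
          have hs : ∑ i, (q i : ℝ) * (c0 + cut st.S st.top (Pi.single j e)) i =
              (1 - e / e0) * ∑ i, (q i : ℝ) * (c0 + cut st.S st.top 0) i +
                e / e0 * ∑ i, (q i : ℝ) * (c0 + cut st.S st.top (Pi.single j e0)) i := by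
            rw [mul_sum, mul_sum, ← sum_add_distrib]
            exact sum_congr rfl fun i _ => by rw [hc i]; ring
          rw [hs, hc k]
          have t1 : 0 ≤ e / e0 := by positivity
          have t2 : 0 ≤ 1 - e / e0 := by
            rw [sub_nonneg, div_le_one he0]; exact hee
          exact add_le_add (mul_le_mul_of_nonneg_left h1 t2) (mul_le_mul_of_nonneg_left h2 t1)
        refine ⟨hconv, ?_⟩
        have hjk : j ≠ kz := fun h => hTkz (h ▸ hjT)
        have hkzS : kz ∈ st.S := hkz ▸ hst.kzS
        have e1 : (c0 + cut st.S st.top 0) kz = c0 kz := by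
          rw [Pi.add_apply, cut_of_mem hkzS]; simp
        have e2 : (c0 + cut st.S st.top (Pi.single j e)) kz = c0 kz := by
          rw [Pi.add_apply, cut_of_mem hkzS, Pi.single_eq_of_ne hjk.symm, add_zero]
        have e3 : (c0 + cut st.S st.top (Pi.single j e)) j = c0 j + e := by
          rw [Pi.add_apply, cut_of_mem hjS, Pi.single_eq_same]
        have hd := hdrop _ hlin _ hconv (by
            intro i
            simp only [Pi.add_apply, cut]
            by_cases hiS : i ∈ st.S
            · rw [if_pos hiS, if_pos hiS]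
              by_cases hij : i = j
              · subst hij; rw [Pi.single_eq_same, Pi.zero_apply]; linarith
              · rw [Pi.single_eq_of_ne hij, Pi.zero_apply]
            · rw [if_neg hiS, if_neg hiS])
          (by
            intro k hk
            rw [e1]
            have h1 := hcond.1 k hk
            rcases hcond.2 k hk with h2 | h2
            · rw [Pi.add_apply, cut_of_mem h2]; simpa using h1
            · by_cases hkS : k ∈ st.S
              · rw [Pi.add_apply, cut_of_mem hkS]; simpa using h1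
              · rw [Pi.add_apply, cut_of_notMem hkS, h2, add_zero]; exact h1)
          (by rw [e1, e2]) ⟨j, hjT, by rw [e1, e3, ← hj0]; linarith⟩
        filter_upwards [hd] with l hl
        rw [add_assoc, ← smul_add, add_assoc, ← smul_add]
        exact hl
      · rw [hF, if_neg hcond] at hj
        exact absurd hj (notMem_empty j)
    have h0D : (0 : Fin m → ℝ) ∈ {p | c0 + p ∈ coneM Ma} := by simpa using hc0
    -- from some index on the base points are in the box
    have ht' := tan_shift ht hB.pos hc0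
    obtain ⟨N, hN⟩ := eventually_atTop.1 (ht.ev hc0 one_pos)
    have hφ : Tendsto (fun l : ℕ => l + N) atTop atTop := tendsto_add_atTop_nat N
    have hbox : ∀ l, y (l + N) + w (l + N) • c0 ∈ Leg Mw R := fun l =>
      (hN (l + N) (Nat.le_add_left N l)).1
    obtain ⟨k, B', T', Cl, s₀, k1, k2, k3, k4, k5, Xg, k6, k7⟩ := twInZ (m := m) (ι := ι) B B₁ I J'
      co M C X wx _ T ν hZ' (fun l => y (l + N) + w (l + N) • c0) R
      (fun l => Wnd.norm_le_of_Leg hR (hbox l)) (fun l => w (l + N)) (fun l => hB.pos _)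
      (hB.zero.comp hφ) _ h0D _ (tan_comp ht' hφ) st hst s hs F hFS (fun j hj => by
        obtain ⟨t, e0, he0, h1⟩ := key j hj
        exact ⟨t, e0, he0, fun e he hee => ⟨(h1 e he hee).1, hφ.eventually (h1 e he hee).2⟩⟩)
    have hkN : Tendsto (fun n => k n + N) U atTop := hφ.comp k1
    -- the outer base points are legal
    have hleg : ∀ᶠ n in (U : Filter ℕ), Legal M (X n) := by
      filter_upwards [hZ.legal 0] with n hn
      have h1 := hn 0 hZ.zero (by rw [norm_zero])
      rwa [smul_zero, add_zero] at h1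
    have hw1 : ∀ᶠ n in (U : Filter ℕ), w (k n + N) ≤ 1 :=
      (hkN.eventually (hB.zero.eventually (eventually_le_nhds one_pos)))
    refine ⟨_, ⟨k5, rfl, rfl, rfl, rfl, rfl, rfl, rfl, rfl, rfl, rfl, rfl, rfl, rfl, ?_, ?_, ?_, ?_,
      ?_⟩, k3, k4⟩
    · intro n
      show B'.d n = B.d n ^ (wx n * w (k n + N))
      rw [k2 n, hZ.base n, ← Real.rpow_mul (B.pos n).le]
    · intro j e he n
      show (X n + wx n • (y (k n + N) + w (k n + N) • c0)) j +
        (∑ s, (e s : ℝ) * c0 s - c0 j) * (wx n * w (k n + N)) =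
        ∑ s, (e s : ℝ) * (X n + wx n • (y (k n + N) + w (k n + N) • c0)) s
      rw [sum_shift, sum_shift, ← hX.act j e he n, ← hB.act j e he (k n + N)]
      simp only [Pi.add_apply, Pi.smul_apply, smul_eq_mul]
      ring
    · intro j e he hne R'
      by_cases hew : e ∈ Mw.mon j
      · have h1 := hB.gap j e hew hne (R' + c0 j - ∑ s, (e s : ℝ) * c0 s)
        filter_upwards [hkN.eventually h1, hleg] with n hn hl
        show (X n + wx n • (y (k n + N) + w (k n + N) • c0)) j + R' * (wx n * w (k n + N)) ≤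
          ∑ s, (e s : ℝ) * (X n + wx n • (y (k n + N) + w (k n + N) • c0)) s
        rw [sum_shift, sum_shift]
        simp only [Pi.add_apply, Pi.smul_apply, smul_eq_mul]
        have h2 := hl.wall j e he
        have h3 := mul_le_mul_of_nonneg_left hn (hZ.w0 n).le
        nlinarith
      · have h1 := hX.gap j e he hew (R + |R'|)
        filter_upwards [h1, hw1] with n hn hl
        show (X n + wx n • (y (k n + N) + w (k n + N) • c0)) j + R' * (wx n * w (k n + N)) ≤
          ∑ s, (e s : ℝ) * (X n + wx n • (y (k n + N) + w (k n + N) • c0)) s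
        rw [sum_shift]
        simp only [Pi.add_apply, Pi.smul_apply, smul_eq_mul]
        have h2 := (hbox (k n)).2 j
        simp only [Pi.add_apply, Pi.smul_apply, smul_eq_mul] at h2
        have h3 : 0 ≤ ∑ s, (e s : ℝ) * (y (k n + N) + w (k n + N) • c0) s :=
          sum_nonneg fun s _ => mul_nonneg (Nat.cast_nonneg _) ((hbox (k n)).1.nonneg s)
        simp only [Pi.add_apply, Pi.smul_apply, smul_eq_mul] at h3
        have hwx := hZ.w0 n
        have h4 := mul_nonneg hwx.le h3
        have h5 := mul_le_mul_of_nonneg_left h2 hwx.le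
        have hwp := hB.pos (k n + N)
        have h6 : R' * w (k n + N) ≤ |R'| := by
          calc R' * w (k n + N) ≤ |R'| * w (k n + N) :=
                mul_le_mul_of_nonneg_right (le_abs_self R') hwp.le
            _ ≤ |R'| * 1 := mul_le_mul_of_nonneg_left hl (abs_nonneg _)
            _ = |R'| := mul_one _
        have h7 := mul_le_mul_of_nonneg_left h6 hwx.le
        nlinarith
    · intro j R'
      have h1 := hB.room j (R' - c0 j)
      filter_upwards [hkN.eventually h1, hleg] with n hn hl
      show R' * (wx n * w (k n + N)) ≤ (X n + wx n • (y (k n + N) + w (k n + N) • c0)) j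
      simp only [Pi.add_apply, Pi.smul_apply, smul_eq_mul]
      have h2 := hl.nonneg j
      have h3 := mul_le_mul_of_nonneg_left hn (hZ.w0 n).le
      nlinarith
    · intro g1 g2
      refine ⟨Xg, k6, fun E hE E' g ex hP hg j hj hjT hjt hj0 hje => k7 E hE E' g ex hP hg j ?_⟩
      rw [hkz] at g1 hj0
      rw [hF, if_pos ⟨g1, g2⟩, mem_filter]
      exact ⟨hj, hjT, hjt, hj0, hje⟩

end core

end Crest.Agent.R136.AwZ146
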