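import Crest.Agent.R136.Zpr4_779

/-!
# R136: `ExtZ` = 196's `ExtQ` at window scale (helper779)

`ExtZ` : window profile of a chart on true incidences `I n ⊆ I0 n` (line number, real height), chart
in its original units, base point `X n`, scale `w n`, normalisations `Tn` (classes), `To` (own).
`exists_extZ` : second profile of a new chart of a dense part of an honest class, with the fields
inherited through box containments.
-/

set_option autoImplicit false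
set_option linter.unusedSectionVars false
set_option linter.unusedVariables false

open Filter Topology

namespace Crest.Agent.R136.Zpr779

open Finset Crest.Agent.R138.Ex926 Crest.Agent.R136.Net191 Crest.Agent.R136.Qg926
open Crest.Agent.R136.Sec779

/-- own label at window exponents -/
noncomputable def zolb {m : ℕ} (B : Base) (I0 : ℕ → Finset (ℕ × ℝ))
    (co : ∀ n : ℕ, ℕ × ℝ → ℕ × ℝ → Fin m → ℝ) (M : Mons m) (C : ℝ) (X : ℕ → Fin m → ℝ)
    (w : ℕ → ℝ) (n : ℕ) (p : Fin m → ℝ) (x : ℕ × ℝ) : ℕ × (ℕ × ℝ) :=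
  (x.1, zlab B I0 co M C X w n p x)

/-- **`ExtQ` at window scale** -/
structure ExtZ {m : ℕ} (B B' : Base) (I0 I : ℕ → Finset (ℕ × ℝ))
    (co : ∀ n : ℕ, ℕ × ℝ → ℕ × ℝ → Fin m → ℝ) (M : Mons m) (C : ℝ) (X : ℕ → Fin m → ℝ)
    (w : ℕ → ℝ) (Mw : Mons m) (R : ℝ) (Tn To : ℕ → ℝ) (kz : Fin m) (w0 s : ℝ)
    (PD : Set (Fin m → ℝ)) (D : (Fin m → ℝ) → ℝ) (r o : ℝ → Fin m → ℝ) (E : ℝ → ℝ)
    (T : Fin m → Prop) (ν own : (Fin m → ℝ) → ℝ) (c₀ : ℝ) : Prop where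
  /-- window profile of the chart -/
  win : ZWin B B' I0 I co M C X w (Leg Mw R) Tn ν
  R0 : 0 ≤ R
  s0 : 0 ≤ s
  s1 : s ≤ 1
  /-- profile of the lines -/
  oprof : TProf B' I (zolb B I0 co M C X w) (Leg Mw R) To own
  olip : ∀ p ∈ Leg Mw R, ∀ q ∈ Leg Mw R, |own p - own q| ≤ m * ‖p - q‖
  oanti : ∀ p ∈ Leg Mw R, ∀ q ∈ Leg Mw R, p ≤ q → own q ≤ own p
  own_le : ∀ p ∈ Leg Mw R, ∀ q ∈ Leg Mw R, p ≤ q → own p - own q ≤ ν p - ν q
  osub : ∀ p ∈ Leg Mw R, ∀ q ∈ Leg Mw R, p ⊓ q ∈ Leg Mw R →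
    own p + own q ≤ own (p ⊔ q) + own (p ⊓ q)
  /-- D-max -/
  dmax : ∀ p ∈ PD, p ∈ Leg Mw R → ν p ≤ c₀ + D p
  /-- the record boxes have the full density -/
  record : ∀ v : ℝ, 0 ≤ v → v ≤ 1 → r v ∈ Leg Mw R ∧ c₀ + E v ≤ ν (r v)
  /-- own counts and own rotation -/
  own_rot : ∀ p ∈ Leg Mw R, ∀ v : ℝ, 0 ≤ v → v ≤ 1 → p kz = w0 + v → (∀ k, p k ≤ o v k) →
    own p = (1 - s) * (1 - v)
  own_up : ∀ p ∈ Leg Mw R, ∀ v : ℝ, 0 ≤ v → v ≤ 1 → p kz = w0 + v → own p ≤ (1 - s) * (1 - v)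
  /-- own twist -/
  own_tw : ∀ p ∈ Leg Mw R, ∀ v : ℝ, 0 ≤ v → v < 1 → p kz = w0 + v →
    (∃ k, T k ∧ o v k < p k) → own p < (1 - s) * (1 - v)

/-- approximate joins of (line, label) -/
theorem line_QJoin {m : ℕ} {B : Base} {ι κ : ℕ → Type*} [∀ n, DecidableEq (ι n)]
    [∀ n, DecidableEq (κ n)] {I : ∀ n, Finset (ι n)} {f : ∀ n, (Fin m → ℝ) → ι n → κ n}
    {P : Set (Fin m → ℝ)} (h : QJoin B I f P) (line : ∀ n, ι n → ℕ) :
    QJoin B I (fun n p x => (line n x, f n p x)) P := by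
  obtain ⟨N, hN, h1⟩ := h
  refine ⟨N, hN, ?_⟩
  filter_upwards [h1] with n hn p hp q hq i hi
  refine le_trans ?_ (hn p hp q hq i hi)
  have hs : (cls (I n) (fun x => (line n x, f n p x)) i ∩
      cls (I n) (fun x => (line n x, f n q x)) i).image (fun x => (line n x, f n (p ⊔ q) x)) ⊆
      ((cls (I n) (f n p) i ∩ cls (I n) (f n q) i).image (f n (p ⊔ q))).image
        fun c => (line n i, c) := by
    intro c hc
    obtain ⟨z, hz, rfl⟩ := mem_image.1 hc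
    obtain ⟨z1, z2⟩ := mem_inter.1 hz
    obtain ⟨a1, a2⟩ := mem_cls.1 z1
    obtain ⟨_, b2⟩ := mem_cls.1 z2
    obtain ⟨a3, a4⟩ := Prod.mk.inj a2
    obtain ⟨_, b4⟩ := Prod.mk.inj b2
    refine mem_image.2 ⟨f n (p ⊔ q) z, mem_image_of_mem _
      (mem_inter.2 ⟨mem_cls.2 ⟨a1, a4⟩, mem_cls.2 ⟨a1, b4⟩⟩), ?_⟩
    rw [a3]
  exact_mod_cast (card_le_card hs).trans card_image_le

variable {m m₁ : ℕ} {B B' : Base}

section Old

variable {I₁ J₁ Cl E : ℕ → Finset (ℕ × ℝ)} {co₁ : ∀ n : ℕ, ℕ × ℝ → ℕ × ℝ → Fin m₁ → ℝ}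
  {M₁ : Mons m₁} {C₁ : ℝ} {X₁ : ℕ → Fin m₁ → ℝ} {w : ℕ → ℝ} {D₁ P₁ : Set (Fin m₁ → ℝ)}
  {T₁ To : ℕ → ℝ} {lam₁ own₁ : (Fin m₁ → ℝ) → ℝ} {s₀ : ℕ → ℕ × ℝ}
  {co : ∀ n : ℕ, ℕ × ℝ → ℕ × ℝ → Fin m → ℝ} {M : Mons m} {C : ℝ} {X : ℕ → Fin m → ℝ}

/-- size of a dense part of a class -/
theorem cls_size (h : ZCls B B' I₁ J₁ co₁ M₁ C₁ X₁ w D₁ T₁ lam₁ Cl s₀)
    (hE : ∀ᶠ n in (U : Filter ℕ), E n ⊆ Cl n)
    (hd : ∀ ε : ℝ, 0 < ε → ∀ᶠ n in (U : Filter ℕ),
      ((Cl n).card : ℝ) ≤ B'.d n ^ (-ε) * (E n).card) {ε : ℝ} (hε : 0 < ε) :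
    ∀ᶠ n in (U : Filter ℕ), T₁ n ≤ (E n).card * B'.d n ^ (-ε) ∧
      ((E n).card : ℝ) ≤ T₁ n * B'.d n ^ (-ε) := by
  have hε2 : 0 < ε / 2 := by positivity
  filter_upwards [h.big _ hε2, hd _ hε2, h.prof.up 0 ε hε, h.csub, h.clab, h.mem, hE] with
    n h1 h2 h3 h4 h5 h6 h7
  have hpos : ∀ t : ℝ, 0 < B'.d n ^ t := fun t => Real.rpow_pos_of_pos (B'.pos n) t
  constructor
  · calc T₁ n = B'.d n ^ (-(ε / 2)) * (T₁ n * B'.d n ^ (ε / 2)) := by
          rw [mul_comm (T₁ n), ← mul_assoc, ← Real.rpow_add (B'.pos n), neg_add_cancel,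
            Real.rpow_zero, one_mul]
      _ ≤ B'.d n ^ (-(ε / 2)) * (B'.d n ^ (-(ε / 2)) * (E n).card) :=
          mul_le_mul_of_nonneg_left (h1.trans h2) (hpos _).le
      _ = (E n).card * (B'.d n ^ (-(ε / 2)) * B'.d n ^ (-(ε / 2))) := by ring
      _ = _ := by rw [← Real.rpow_add (B'.pos n)]; congr 2; ring
  · have h8 := h3 0 h.zero (by rw [norm_zero]) (s₀ n) (h4 h6)
    rw [h.lam0, zero_add] at h8
    refine le_trans ?_ h8
    refine mod_cast card_le_card fun x hx => mem_cls.2 ⟨h4 (h7 hx), h5 x (h7 hx) _ h6⟩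

/-- **second profile with inherited fields.** -/
theorem exists_extZ
    -- old window, honest class, dense part
    (hcls : ZCls B B' I₁ J₁ co₁ M₁ C₁ X₁ w D₁ T₁ lam₁ Cl s₀)
    (hE : ∀ᶠ n in (U : Filter ℕ), E n ⊆ Cl n)
    (hd : ∀ ε : ℝ, 0 < ε → ∀ᶠ n in (U : Filter ℕ),
      ((Cl n).card : ℝ) ≤ B'.d n ^ (-ε) * (E n).card)
    (hP₁ : P₁ ⊆ D₁) {R₁ : ℝ} (hR₁ : ∀ p ∈ P₁, ‖p‖ ≤ R₁) (h0₁ : ∀ p ∈ P₁, 0 ≤ p)
    (h0P : (0 : Fin m₁ → ℝ) ∈ P₁)
    -- old own profile on the dense part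
    (hown : TProf B' E (zolb B I₁ co₁ M₁ C₁ X₁ w) P₁ To own₁)
    -- new chart
    (hch : ∀ n, Chart (E n) (co n) M C) (Mw : Mons m) {R : ℝ} (hR : 0 ≤ R)
    (hleg : ∀ᶠ n in (U : Filter ℕ), ∀ c ∈ Leg Mw R, Legal M (X n + w n • c))
    {H : ℕ → ℝ} (hH : B'.Sub H)
    (hcard : ∀ᶠ n in (U : Filter ℕ), (Nat.log 2 (E n).card : ℝ) + 1 ≤ H n)
    (hbase : ∀ ε : ℝ, 0 < ε → ∀ᶠ n in (U : Filter ℕ), ∀ i ∈ E n, ∀ j ∈ E n,
      wbox B B' co X n 0 (B'.d n ^ (-ε)) i j)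
    -- fields
    {kz : Fin m} {w0 s : ℝ} (hs0 : 0 ≤ s) (hs1 : s ≤ 1) {PD : Set (Fin m → ℝ)}
    {D : (Fin m → ℝ) → ℝ} {r o : ℝ → Fin m → ℝ} {Er : ℝ → ℝ} {Tw : Fin m → Prop} {c₀ : ℝ}
    -- D-max
    (hPD : ∀ p ∈ PD, p ∈ Leg Mw R → ∀ ε : ℝ, 0 < ε → ∀ᶠ n in (U : Filter ℕ), ∀ F ⊆ E n,
      ∀ i ∈ E n, (∀ j ∈ F, wbox B B' co X n p (cK0 M C) i j) →
        (F.card : ℝ) ≤ T₁ n * B'.d n ^ (-(c₀ + D p + ε)))
    -- record
    (r₁ : ℝ → Fin m₁ → ℝ)
    (hrec : ∀ v : ℝ, 0 ≤ v → v ≤ 1 → r v ∈ Leg Mw R ∧ r₁ v ∈ P₁ ∧ c₀ + Er v ≤ lam₁ (r₁ v) ∧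
      ∀ ε : ℝ, 0 < ε → ∀ᶠ n in (U : Filter ℕ), ∀ i ∈ E n, ∀ j ∈ E n,
        zlab B I₁ co₁ M₁ C₁ X₁ w n (r₁ v) i = zlab B I₁ co₁ M₁ C₁ X₁ w n (r₁ v) j →
          wbox B B' co X n (r v) (B'.d n ^ (-ε)) i j)
    -- own
    (q : ℝ → Fin m₁ → ℝ)
    (hq : ∀ v : ℝ, 0 ≤ v → v ≤ 1 → q v ∈ P₁ ∧ (1 - s) * (1 - v) ≤ own₁ (q v) ∧
      ∀ ε : ℝ, 0 < ε → ∀ᶠ n in (U : Filter ℕ), ∀ i ∈ E n, ∀ j ∈ E n, i.1 = j.1 →
        zlab B I₁ co₁ M₁ C₁ X₁ w n (q v) i = zlab B I₁ co₁ M₁ C₁ X₁ w n (q v) j →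
          wbox B B' co X n (o v) (B'.d n ^ (-ε)) i j)
    (hup : ∀ v : ℝ, 0 ≤ v → v ≤ 1 → ∀ ε : ℝ, 0 < ε → ∀ᶠ n in (U : Filter ℕ), ∀ F ⊆ E n,
      ∀ i ∈ E n, (∀ j ∈ F, j.1 = i.1 ∧
        |co n i j kz| ≤ cK0 M C * (B.d n ^ X n kz * B'.d n ^ (w0 + v))) →
        (F.card : ℝ) ≤ To n * B'.d n ^ (-((1 - s) * (1 - v) + ε)))
    (htw : ∀ k, Tw k → ∀ v : ℝ, 0 ≤ v → v < 1 → ∀ ρ : ℝ, o v k < ρ → ∃ γ : ℝ, 0 < γ ∧
      ∀ᶠ n in (U : Filter ℕ), ∀ F ⊆ E n, ∀ i ∈ E n, (∀ j ∈ F, j.1 = i.1 ∧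
        |co n i j kz| ≤ cK0 M C * (B.d n ^ X n kz * B'.d n ^ (w0 + v)) ∧
        |co n i j k| ≤ cK0 M C * (B.d n ^ X n k * B'.d n ^ ρ)) →
        (F.card : ℝ) ≤ To n * B'.d n ^ (γ - (1 - s) * (1 - v))) :
    ∃ (J : ℕ → Finset (ℕ × ℝ)) (ν own : (Fin m → ℝ) → ℝ),
      (∀ᶠ n in (U : Filter ℕ), J n ⊆ E n ∧ (J n).Nonempty) ∧
      (∀ ε : ℝ, 0 < ε → ∀ᶠ n in (U : Filter ℕ),
        ((E n).card : ℝ) ≤ B'.d n ^ (-ε) * (J n).card) ∧
      ExtZ B B' E J co M C X w Mw R T₁ To kz w0 s PD D r o Er Tw ν own c₀ := by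
  classical
  have hw := hcls.w0
  have hb := hcls.base
  have hpos : ∀ n, ∀ t : ℝ, 0 < B'.d n ^ t := fun n t => Real.rpow_pos_of_pos (B'.pos n) t
  -- nonempty
  have hneE : ∀ᶠ n in (U : Filter ℕ), (E n).Nonempty := by
    filter_upwards [cls_size hcls hE hd one_pos] with n h1
    have hT := hcls.T0 n
    by_contra h
    rw [not_nonempty_iff_eq_empty] at h
    rw [h] at h1
    simp at h1
    linarith [h1.1]
  obtain ⟨J, S, hS, hbas, T, ν, To', own, hwin, hTc, hTo, hToc, hown0, holip, hoanti, hole⟩ :=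
    exists_zwin_new (B := B) (B' := B') (X := X) (w := w) hch hw hb Mw hR hleg hneE hH hcard
      (fun _ x => x.1)
  have hsub : ∀ᶠ n in (U : Filter ℕ), J n ⊆ E n := hbas.mono fun n hn => hn.1
  have hneJ : ∀ᶠ n in (U : Filter ℕ), (J n).Nonempty := hbas.mono fun n hn => hn.2.1
  have hdJ : ∀ ε : ℝ, 0 < ε → ∀ᶠ n in (U : Filter ℕ),
      ((E n).card : ℝ) ≤ B'.d n ^ (-ε) * (J n).card := by
    intro ε hε
    filter_upwards [hbas, hS.ev_le hε] with n h1 h2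
    have h3 : S n ≤ B'.d n ^ (-ε) := by
      rw [← B'.exp_eq, ← Real.log_le_iff_le_exp h2.1]
      exact h2.2
    exact h1.2.2.1.trans (mul_le_mul_of_nonneg_right h3 (Nat.cast_nonneg _))
  have hdCJ : ∀ ε : ℝ, 0 < ε → ∀ᶠ n in (U : Filter ℕ),
      ((Cl n).card : ℝ) ≤ B'.d n ^ (-ε) * (J n).card := by
    intro ε hε
    filter_upwards [hd (ε / 2) (by positivity), hdJ (ε / 2) (by positivity)] with n h1 h2
    calc ((Cl n).card : ℝ) ≤ B'.d n ^ (-(ε / 2)) * (E n).card := h1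
      _ ≤ B'.d n ^ (-(ε / 2)) * (B'.d n ^ (-(ε / 2)) * (J n).card) :=
          mul_le_mul_of_nonneg_left h2 (hpos n _).le
      _ = _ := by rw [← mul_assoc, ← Real.rpow_add (B'.pos n)]; congr 2; ring
  have hJC : ∀ᶠ n in (U : Filter ℕ), J n ⊆ Cl n := by
    filter_upwards [hsub, hE] with n h1 h2 using h1.trans h2
  have hleg1 : ∀ p ∈ Leg Mw R, ∀ᶠ n in (U : Filter ℕ), Legal M (X n + w n • p) :=
    fun p hp => hleg.mono fun n hn => hn p hp
  have hsize := fun (ε : ℝ) (hε : 0 < ε) => cls_size hcls hJC hdCJ hε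
  -- number of base labels
  have hlab0 : ∀ ε : ℝ, 0 < ε → ∀ᶠ n in (U : Filter ℕ), ∀ A : Finset (ℕ × ℝ), A ⊆ E n →
      ((A.image (zlab B E co M C X w n 0)).card : ℝ) ≤ B'.d n ^ (-ε) := by
    intro ε hε
    obtain ⟨δ, hδ, _, hev⟩ := card_zlab_close (B' := B') hch hb (hleg1 0 (Leg_zero Mw hR)) hε
    filter_upwards [hev, hbase δ hδ] with n h1 h2 A hA
    rcases A.eq_empty_or_nonempty with rfl | ⟨i, hi⟩
    · simpa using (hpos n _).le
    · exact h1 i (hA hi) A hA fun j hj => h2 i (hA hi) j (hA hj)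
  -- normalisation of the window
  have hT1 : ∀ ε : ℝ, 0 < ε → ∀ᶠ n in (U : Filter ℕ), T n ≤ T₁ n * B'.d n ^ (-ε) := by
    intro ε hε
    filter_upwards [hTc, hsize ε hε, hneJ] with n h1 h2 h3
    obtain ⟨i, hi⟩ := h3
    have h4 : (1 : ℝ) ≤ ((J n).image (zlab B E co M C X w n 0)).card := by
      have : 0 < ((J n).image (zlab B E co M C X w n 0)).card :=
        card_pos.2 ⟨_, mem_image_of_mem _ hi⟩
      exact_mod_cast this
    have hTn := hwin.T0 n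
    calc T n ≤ T n * ((J n).image (zlab B E co M C X w n 0)).card :=
          le_mul_of_one_le_right hTn.le h4
      _ = (J n).card := h1
      _ ≤ _ := h2.2
  have hT2 : ∀ ε : ℝ, 0 < ε → ∀ᶠ n in (U : Filter ℕ), T₁ n ≤ T n * B'.d n ^ (-ε) := by
    intro ε hε
    filter_upwards [hTc, hsize (ε / 2) (by positivity), hlab0 (ε / 2) (by positivity), hsub] with
      n h1 h2 h3 h4
    have hTn := hwin.T0 n
    calc T₁ n ≤ (J n).card * B'.d n ^ (-(ε / 2)) := h2.1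
      _ = T n * ((J n).image (zlab B E co M C X w n 0)).card * B'.d n ^ (-(ε / 2)) := by rw [h1]
      _ ≤ T n * B'.d n ^ (-(ε / 2)) * B'.d n ^ (-(ε / 2)) :=
          mul_le_mul_of_nonneg_right (mul_le_mul_of_nonneg_left (h3 _ h4) hTn.le) (hpos n _).le
      _ = _ := by rw [mul_assoc, ← Real.rpow_add (B'.pos n)]; congr 2; ring
  have hwin' : ZWin B B' E J co M C X w (Leg Mw R) T₁ ν :=
    ZWin.congrT' hwin hcls.T0 hT1 hT2
  have hTP : TProf B' J (zlab B E co M C X w) (Leg Mw R) T₁ ν :=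
    TProf.ofZ hwin'.prof hcls.T0 (Set.Subset.refl _) fun p hp => Leg_norm hR hp
  -- old profiles on `J`
  have hold : TProf B' J (zlab B I₁ co₁ M₁ C₁ X₁ w) P₁ T₁ lam₁ :=
    cls_tprof hcls hJC hdCJ hP₁ hR₁ h0₁
  have hownJ : TProf B' J (zolb B I₁ co₁ M₁ C₁ X₁ w) P₁ To own₁ := hown.refine hsub hdJ
  -- number of lines
  set nl : ℕ → ℝ := fun n => (((J n).image fun x => x.1).card : ℝ) with hnl
  have hnl1 : ∀ᶠ n in (U : Filter ℕ), (1 : ℝ) ≤ nl n := by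
    filter_upwards [hneJ] with n hn
    obtain ⟨i, hi⟩ := hn
    have h0 : 0 < ((J n).image fun x => x.1).card := card_pos.2 ⟨_, mem_image_of_mem _ hi⟩
    have h1 : (1 : ℝ) ≤ (((J n).image fun x => x.1).card : ℝ) := by exact_mod_cast h0
    exact h1
  -- old base own labels = lines
  have hol1 : ∀ᶠ n in (U : Filter ℕ),
      (((J n).image (zolb B I₁ co₁ M₁ C₁ X₁ w n 0)).card : ℝ) = nl n := by
    filter_upwards [hJC, hcls.clab] with n h1 h2
    rw [hnl]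
    simp only
    norm_cast
    refine le_antisymm ?_ ?_
    · refine card_image_le_card_image _ _ _ fun a ha b hb hab => ?_
      exact Prod.ext hab (h2 a (h1 ha) b (h1 hb))
    · refine card_image_le_card_image _ _ _ fun a ha b hb hab => ?_
      exact (Prod.mk.inj hab).1
  have hol2 : ∀ ε : ℝ, 0 < ε → ∀ᶠ n in (U : Filter ℕ),
      To n * nl n ≤ (J n).card * B'.d n ^ (own₁ 0 - ε) ∧
      ((J n).card : ℝ) ≤ To n * B'.d n ^ (-(own₁ 0 + ε)) * nl n := by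
    intro ε hε
    filter_upwards [hownJ.root ε hε, hownJ.up ε hε, hol1] with n h1 h2 h3
    constructor
    · have := h1 0 h0P
      rw [h3] at this
      rw [mul_comm]; exact this
    · rw [← h3]
      have := le_count_mul (J n) (fun _ => (1 : ℝ)) (zolb B I₁ co₁ M₁ C₁ X₁ w n 0)
        (m := To n * B'.d n ^ (-(own₁ 0 + ε))) (fun x hx => by
          rw [sum_const, nsmul_eq_mul, mul_one]
          exact h2 0 h0P x hx)
      rwa [sum_const, nsmul_eq_mul, mul_one] at this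
  -- new base own labels
  have hnl2 : ∀ ε : ℝ, 0 < ε → ∀ᶠ n in (U : Filter ℕ),
      nl n ≤ (((J n).image fun x => (x.1, zlab B E co M C X w n 0 x)).card : ℝ) ∧
      (((J n).image fun x => (x.1, zlab B E co M C X w n 0 x)).card : ℝ) ≤
        B'.d n ^ (-ε) * nl n := by
    intro ε hε
    filter_upwards [hlab0 ε hε, hsub] with n h1 h2
    constructor
    · rw [hnl]
      simp only
      norm_cast
      refine card_image_le_card_image _ _ _ fun a ha b hb hab => ?_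
      exact (Prod.mk.inj hab).1
    · refine card_image_le_mul _ _ _ fun x hx => ?_
      have hs : (cls (J n) (fun x : ℕ × ℝ => x.1) x).image
          (fun x => (x.1, zlab B E co M C X w n 0 x)) ⊆
          ((cls (J n) (fun x : ℕ × ℝ => x.1) x).image (zlab B E co M C X w n 0)).image
            fun y => (x.1, y) := by
        intro y hy
        obtain ⟨z, hz, rfl⟩ := mem_image.1 hy
        refine mem_image.2 ⟨_, mem_image_of_mem _ hz, ?_⟩
        have := (mem_cls.1 hz).2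
        rw [← this]
      refine le_trans ?_ (h1 (cls (J n) (fun x : ℕ × ℝ => x.1) x)
        ((cls_subset (J n) (fun x : ℕ × ℝ => x.1) x).trans h2))
      exact_mod_cast (card_le_card hs).trans card_image_le
  -- normalisation of the own profile
  have hTo1 : ∀ ε : ℝ, 0 < ε → ∀ᶠ n in (U : Filter ℕ),
      To' n * B'.d n ^ (own₁ 0) ≤ To n * B'.d n ^ (-ε) := by
    intro ε hε
    filter_upwards [hToc, hnl2 ε hε, hol2 ε hε, hnl1] with n h1 h2 h3 h4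
    have hp := hTo.pos n
    have e1 : To' n * nl n ≤ (To n * B'.d n ^ (-(own₁ 0 + ε))) * nl n :=
      (mul_le_mul_of_nonneg_left h2.1 hp.le).trans (h1.le.trans h3.2)
    have e2 := le_of_mul_le_mul_right e1 (by linarith)
    calc To' n * B'.d n ^ (own₁ 0) ≤ (To n * B'.d n ^ (-(own₁ 0 + ε))) * B'.d n ^ (own₁ 0) :=
          mul_le_mul_of_nonneg_right e2 (hpos n _).le
      _ = _ := by rw [mul_assoc, ← Real.rpow_add (B'.pos n)]; congr 2; ring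
  have hTo2 : ∀ ε : ℝ, 0 < ε → ∀ᶠ n in (U : Filter ℕ),
      To n ≤ To' n * B'.d n ^ (own₁ 0) * B'.d n ^ (-ε) := by
    intro ε hε
    filter_upwards [hToc, hnl2 (ε / 2) (by positivity), hol2 (ε / 2) (by positivity), hnl1] with
      n h1 h2 h3 h4
    have hp := hTo.pos n
    have e1 : To n * nl n ≤
        (To' n * B'.d n ^ (-(ε / 2)) * B'.d n ^ (own₁ 0 - ε / 2)) * nl n := by
      calc To n * nl n ≤ (J n).card * B'.d n ^ (own₁ 0 - ε / 2) := h3.1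
        _ = (To' n * (((J n).image fun x => (x.1, zlab B E co M C X w n 0 x)).card : ℝ)) *
            B'.d n ^ (own₁ 0 - ε / 2) := by rw [h1]
        _ ≤ (To' n * (B'.d n ^ (-(ε / 2)) * nl n)) * B'.d n ^ (own₁ 0 - ε / 2) :=
            mul_le_mul_of_nonneg_right (mul_le_mul_of_nonneg_left h2.2 hp.le) (hpos n _).le
        _ = _ := by ring
    have e2 := le_of_mul_le_mul_right e1 (by linarith)
    refine e2.trans (le_of_eq ?_)
    rw [mul_assoc, mul_assoc, ← Real.rpow_add (B'.pos n), ← Real.rpow_add (B'.pos n)]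
    congr 2; ring
  have hToP : ∀ n, 0 < To n := hown.pos
  have hTPo : TProf B' J (zolb B E co M C X w) (Leg Mw R) To (fun p => own p + own₁ 0) :=
    (hTo.shift (own₁ 0)).congrT hToP hTo1 hTo2
  have hTT : ∀ (Z : ℕ → ℝ), (∀ n, 0 < Z n) → ∀ ε : ℝ, 0 < ε → ∀ᶠ n in (U : Filter ℕ),
      Z n ≤ Z n * B'.d n ^ (-((0 : ℝ) + ε)) := by
    intro Z hZ ε hε
    filter_upwards with n
    refine le_mul_of_one_le_right (hZ n).le ?_
    exact Real.one_le_rpow_of_pos_of_le_one_of_nonpos (B'.pos n) (B'.lt n).le (by linarith)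
  have hbxmono : ∀ (n : ℕ) {p p' : Fin m → ℝ} {K : ℝ} {i j : ℕ × ℝ}, p' ≤ p → 0 ≤ K →
      wbox B B' co X n p K i j → wbox B B' co X n p' K i j := by
    intro n p p' K i j hpp hK hij s
    refine (hij s).trans (mul_le_mul_of_nonneg_left ?_ hK)
    exact mul_le_mul_of_nonneg_left
      (Real.rpow_le_rpow_of_exponent_ge (B'.pos n) (B'.lt n).le (hpp s))
      (Real.rpow_nonneg (B.pos n).le _)
  have hupJ : ∀ p ∈ Leg Mw R, ∀ v : ℝ, 0 ≤ v → v ≤ 1 → p kz = w0 + v →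
      own p + own₁ 0 ≤ (1 - s) * (1 - v) := by
    intro p hp v hv0 hv1 hpk
    refine own_up_le hch hb hsub hneJ (line := fun _ x => x.1) hTPo hp (hleg1 p hp) fun ε hε => ?_
    filter_upwards [hup v hv0 hv1 ε hε, hsub] with n h1 h2 i hi
    refine h1 _ ((filter_subset _ _).trans h2) i (h2 hi) fun j hj => ?_
    obtain ⟨_, hj1, hj2⟩ := mem_filter.1 hj
    have := hj2 kz
    rw [hpk] at this
    exact ⟨hj1, this⟩
  refine ⟨J, ν, fun p => own p + own₁ 0, ?_, hdJ, ?_⟩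
  · filter_upwards [hsub, hneJ] with n h1 h2 using ⟨h1, h2⟩
  refine
    { win := hwin', R0 := hR, s0 := hs0, s1 := hs1, oprof := hTPo
      olip := fun p hp q hq => by
        have := holip p hp q hq
        rwa [add_sub_add_right_eq_sub]
      oanti := fun p hp q hq hpq => by linarith [hoanti p hp q hq hpq]
      own_le := fun p hp q hq hpq => by
        rw [add_sub_add_right_eq_sub]; exact hole p hp q hq hpq
      osub := fun p hp q hq ho => hTPo.submod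
        ((line_QJoin (znet_QJoin (B := B) (B' := B') hch hw hleg) fun _ x => x.1).mono hsub
          (Set.Subset.refl _)) hneJ hp hq ho (Leg.sup hp hq)
      dmax := fun p hpD hp => ?_
      record := fun v hv0 hv1 => ?_
      own_rot := fun p hp v hv0 hv1 hpk hpo => ?_
      own_up := hupJ
      own_tw := fun p hp v hv0 hv1 hpk hk => ?_ }
  · refine net_le hch hb hsub hneJ hTP hp (hleg1 p hp) fun ε hε => ?_
    filter_upwards [hPD p hpD hp ε hε, hsub] with n h1 h2 i hi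
    exact h1 _ ((filter_subset _ _).trans h2) i (h2 hi) fun j hj => (mem_filter.1 hj).2
  · obtain ⟨h1, h2, h3, h4⟩ := hrec v hv0 hv1
    refine ⟨h1, h3.trans ?_⟩
    have := le_net (c := 0) hold hch hb hsub hneJ hTP h2 h1 (hleg1 _ h1) (hTT T₁ hcls.T0)
      fun ε hε => by
        filter_upwards [h4 ε hε, hsub] with n h5 h6 i hi j hj he
        exact h5 i (h6 hi) j (h6 hj) he
    linarith
  · refine le_antisymm (hupJ p hp v hv0 hv1 hpk) ?_
    obtain ⟨h1, h2, h3⟩ := hq v hv0 hv1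
    refine h2.trans ?_
    have := le_net_own (c := 0) hownJ hch hb hsub hneJ (line := fun _ x => x.1) hTPo h1 hp
      (hleg1 _ hp) (hTT To hToP)
      (by
        filter_upwards with n i _ j _ he
        exact (Prod.mk.inj he).1)
      fun ε hε => by
        filter_upwards [h3 ε hε, hsub] with n h5 h6 i hi j hj he
        obtain ⟨e1, e2⟩ := Prod.mk.inj he
        exact hbxmono n (fun k => hpo k) (hpos n _).le (h5 i (h6 hi) j (h6 hj) e1 e2)
    linarith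
  · obtain ⟨k, hk, hko⟩ := hk
    obtain ⟨γ, hγ, hev⟩ := htw k hk v hv0 hv1 _ hko
    have : own p + own₁ 0 ≤ (1 - s) * (1 - v) - γ := by
      refine own_up_le hch hb hsub hneJ (line := fun _ x => x.1) hTPo hp (hleg1 p hp)
        fun ε hε => ?_
      filter_upwards [hev, hsub] with n h1 h2 i hi
      refine (h1 ((J n).filter _) ((filter_subset _ _).trans h2) i (h2 hi) fun j hj => ?_).trans ?_
      · obtain ⟨_, hj1, hj2⟩ := mem_filter.1 hj
        have := hj2 kz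
        rw [hpk] at this
        exact ⟨hj1, this, hj2 k⟩
      · refine mul_le_mul_of_nonneg_left ?_ (hToP n).le
        exact Real.rpow_le_rpow_of_exponent_ge (B'.pos n) (B'.lt n).le (by linarith)
    linarith

end Old

end Crest.Agent.R136.Zpr779
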