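import Crest.Agent.R136.AwJ_774
import Crest.Agent.R136.AwZ_146
import Crest.Agent.R136.ExtZ_779

/-!
# R136 (helper146): the ladder over an outer window (after a gauge step)

* `SrcZ` : 774's `Src` over an outer window `ZWin` at tight base points.
* **`aewZ_of_jt`** : joint tangent of the window profile + splitting ⊢ `AeW B B₁ ..`.
* **`flemA_of_aewZ`**, `flem_of_aewZ` : F-halves over `AeW B B₁ ..` are inputs of the rungs.
* `ownF_of_ext`, `prf_of_ext`, **`SrcZ.of_ext`** : everything from 779's `ExtZ`.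
-/

set_option autoImplicit false
set_option linter.unusedSectionVars false
set_option linter.unusedVariables false

open Filter Topology

namespace Crest.Agent.R136.AwK146

open Finset Crest.Agent.R138.Ex926 Crest.Agent.R136.Net191 Crest.Agent.R136.Gf356
open Crest.Agent.R136.Qg926 Crest.Agent.R136.Dg219 Crest.Agent.R136.Aw413
open Crest.Agent.R136.Rc146 (OutA)
open Crest.Agent.R136.Dg262 (X)
open Crest.Agent.R136.K2S774 (cn Prf JT Stage RecD RungD BaseOk FLem)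
open Crest.Agent.R136.K2A146 (FLemA)
open Crest.Agent.R136.AwJ774 Crest.Agent.R136.AwZ146

variable {m : ℕ} {ι : ℕ → Type} [∀ n, DecidableEq (ι n)] [∀ n, Nonempty (ι n)]
  {B B₁ : Base} {I J : ∀ n, Finset (ι n)} {co : ∀ n, ι n → ι n → Fin m → ℝ}
  {M Mw : Mons m} {C R : ℝ} {Xo : ℕ → Fin m → ℝ} {wx : ℕ → ℝ} {Tz : ℕ → ℝ}
  {ν own lam lo lam' lo' : (Fin m → ℝ) → ℝ} {r0 T : Fin m → ℝ} {x : ℕ → Fin m → ℝ}
  {h : ℕ → ℝ} {Tie : Set (Fin m)} {kz : Fin m} {w0 s : ℝ} {κ : Fin m → ℝ}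
  {ow : ℝ → Fin m → ℝ} {T0 Tw : Fin m → Prop} {a b : Fin m → ℝ} {AA : ℝ × ℝ}
  {φ : ℕ → (Fin m → ℝ) → ℝ} {rt : ℕ → ℝ} {A : Wt Mw → Prop}

/-- **what the window wrapper needs to know**, over an outer window with base points `Xo n`, scale
`wx n`, kept walls `Mw` (all tight at `Xo n`) -/
structure SrcZ (B B₁ : Base) (I J : ∀ n, Finset (ι n)) (co : ∀ n, ι n → ι n → Fin m → ℝ)
    (M Mw : Mons m) (C R : ℝ) (Xo : ℕ → Fin m → ℝ) (wx Tz : ℕ → ℝ) (kz : Fin m) (w0 s : ℝ)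
    (ow : ℝ → Fin m → ℝ) (T0 : Fin m → Prop) (ν own : (Fin m → ℝ) → ℝ) (Tie : Set (Fin m))
    (κ r0 : Fin m → ℝ) : Prop where
  win : ZWin B B₁ I J co M C Xo wx (Leg Mw R) Tz ν
  R0 : 0 ≤ R
  pos : BasX M Mw Mw Xo wx
  ownF : OwnF Mw R kz w0 s ow T0 ν own
  path : OwnPath ow kz w0 R (· ∈ Tie) κ
  rpos : ∀ k, 0 < r0 k
  ownR : OwnR kz w0 ow Tie r0

theorem BasX.mono {Ma : Mons m} (H : BasX M Mw Mw Xo wx) (hM : ∀ k, Ma.mon k ⊆ Mw.mon k) :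
    BasX M Mw Ma Xo wx where
  sub := fun k e he => H.sub k (hM k he)
  act := fun k e he n => H.act k e (hM k he) n
  gap := H.gap

/-- **`AeW` at the base points of a joint tangent of a window profile** -/
theorem aewZ_of_jt (S : SrcZ B B₁ I J co M Mw C R Xo wx Tz kz w0 s ow T0 ν own Tie κ r0)
    (hJ : JT (mw Mw) A (Leg Mw R) ν own r0 x h lam' lo')
    (hB : BaseOk Tie kz κ T r0 x h) (hT : ∀ i ∈ Tie, κ i * T kz ≤ T i)
    (hTw : ∀ k, Tw k → T0 k ∧ locT Tie kz κ T k) (hTkz : ¬ Tw kz)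
    (out : OutS (gC a b) (cn (mw Mw) A) (dhC a b) (nC a b) lam' AA φ rt) :
    AeW B B₁ I J co M (mA Mw A) C lam' a b AA φ rt kz (1 - s) κ (locT Tie kz κ T) Tw := by
  have hBas := bas_of_jt hJ S.rpos
  have hO := ownB_of_jt hJ hB S.path S.ownR hT hTw
  have ht := hJ.tan
  rw [← coneM_mA] at ht out
  exact aewZ_core S.win S.R0 (BasX.mono S.pos mA_sub) hBas ht out
    (own_tan S.ownF S.path hO hJ.zero hJ.pos ht) hTkz
    fun c hc c' hc' hcc hV hkz hk => drop_tan S.ownF S.path hO hJ.zero hJ.pos ht hc hc' hcc hV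
      hkz hk

/-- **an F-half over `AeW` is the input of a rung**, window profile -/
theorem flemA_of_aewZ (S : SrcZ B B₁ I J co M Mw C R Xo wx Tz kz w0 s ow T0 ν own Tie κ r0)
    {Dl : (Fin m → ℝ) →ₗ[ℝ] ℝ} {T' : Fin m → ℝ} {V : ((Fin m → ℝ) → ℝ) → Prop} {g : ℝ}
    (hT : ∀ i ∈ Tie, κ i * T kz ≤ T i) (hTw : ∀ k, Tw k → T0 k ∧ locT Tie kz κ T k)
    (hTkz : ¬ Tw kz)
    (F : ∀ z : ℝ × ℝ, z.1 < 0 → ∀ D : ℝ × ℝ →L[ℝ] ℝ, HasFDerivAt (fun z => lam (X 0 T b z)) D z →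
      ∀ (k : ℕ → ℝ) (lam' lo' : (Fin m → ℝ) → ℝ), (∀ l, 0 < k l) → Tendsto k atTop (𝓝 0) →
      IsTan (cn (mw Mw) A) (cn (mw Mw) A) lam (fun _ => X 0 T b z) k lam' →
      IsTan (cn (mw Mw) A) (cn (mw Mw) A) lo (fun _ => X 0 T b z) k lo' →
      ∀ (φ : ℕ → (Fin m → ℝ) → ℝ) (rt : ℕ → ℝ),
      OutA (gC T b) (cn (mw Mw) A) T b (dhC T b) (nC T b) lam' (D (1, 0), D (0, 1)) φ rt →
      AeW B B₁ I J co M (mA Mw A) C lam' T b (D (1, 0), D (0, 1)) φ rt kz (1 - s) κ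
        (locT Tie kz κ T) Tw → V lam' → g ≤ -D (1, 0) + Dl T') :
    FLemA (mw Mw) A (Leg Mw R) ν own r0 Dl Tie kz κ T T' b lam lo V g :=
  fun z hz D hD k lam' lo' kpos k0 H1 H2 x' h' hJ hB φ rt out hV =>
    F z hz D hD k lam' lo' kpos k0 H1 H2 φ rt out (aewZ_of_jt S hJ hB hT hTw hTkz out.toOutS) hV

/-- the same without additivity -/
theorem flem_of_aewZ (S : SrcZ B B₁ I J co M Mw C R Xo wx Tz kz w0 s ow T0 ν own Tie κ r0)
    {Dl : (Fin m → ℝ) →ₗ[ℝ] ℝ} {T' : Fin m → ℝ} {V : ((Fin m → ℝ) → ℝ) → Prop} {g : ℝ}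
    (hT : ∀ i ∈ Tie, κ i * T kz ≤ T i) (hTw : ∀ k, Tw k → T0 k ∧ locT Tie kz κ T k)
    (hTkz : ¬ Tw kz)
    (F : ∀ z : ℝ × ℝ, z.1 < 0 → ∀ D : ℝ × ℝ →L[ℝ] ℝ, HasFDerivAt (fun z => lam (X 0 T b z)) D z →
      ∀ (k : ℕ → ℝ) (lam' lo' : (Fin m → ℝ) → ℝ), (∀ l, 0 < k l) → Tendsto k atTop (𝓝 0) →
      IsTan (cn (mw Mw) A) (cn (mw Mw) A) lam (fun _ => X 0 T b z) k lam' →
      IsTan (cn (mw Mw) A) (cn (mw Mw) A) lo (fun _ => X 0 T b z) k lo' →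
      ∀ (φ : ℕ → (Fin m → ℝ) → ℝ) (rt : ℕ → ℝ),
      OutS (gC T b) (cn (mw Mw) A) (dhC T b) (nC T b) lam' (D (1, 0), D (0, 1)) φ rt →
      AeW B B₁ I J co M (mA Mw A) C lam' T b (D (1, 0), D (0, 1)) φ rt kz (1 - s) κ
        (locT Tie kz κ T) Tw → V lam' → g ≤ -D (1, 0) + Dl T') :
    FLem (mw Mw) A (Leg Mw R) ν own r0 Dl Tie kz κ T T' b lam lo V g :=
  fun z hz D hD k lam' lo' kpos k0 H1 H2 x' h' hJ hB φ rt out hV =>
    F z hz D hD k lam' lo' kpos k0 H1 H2 φ rt out (aewZ_of_jt S hJ hB hT hTw hTkz out) hV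

end Crest.Agent.R136.AwK146

namespace Crest.Agent.R136.AwK146

open Finset Crest.Agent.R138.Ex926 Crest.Agent.R136.Net191 Crest.Agent.R136.Gf356
open Crest.Agent.R136.Qg926 Crest.Agent.R136.Dg219 Crest.Agent.R136.Aw413
open Crest.Agent.R136.K2S774 (Prf)
open Crest.Agent.R136.AwJ774 Crest.Agent.R136.AwZ146

section ext

variable {m : ℕ} {B B' : Base} {I0 I : ℕ → Finset (ℕ × ℝ)}
  {co : ∀ n : ℕ, ℕ × ℝ → ℕ × ℝ → Fin m → ℝ} {M : Mons m} {C : ℝ} {Xo : ℕ → Fin m → ℝ}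
  {w : ℕ → ℝ} {Mw : Mons m} {R : ℝ} {Tn To : ℕ → ℝ} {kz : Fin m} {w0 s : ℝ}
  {PD : Set (Fin m → ℝ)} {D : (Fin m → ℝ) → ℝ} {r o : ℝ → Fin m → ℝ} {E : ℝ → ℝ}
  {T : Fin m → Prop} {ν own : (Fin m → ℝ) → ℝ} {c₀ : ℝ}

theorem ownF_of_ext (H : Zpr779.ExtZ B B' I0 I co M C Xo w Mw R Tn To kz w0 s PD D r o E T ν own c₀) :
    OwnF Mw R kz w0 s o T ν own where
  s0 := H.s0
  s1 := H.s1
  own_le := H.own_le
  own_rot := H.own_rot
  own_up := H.own_up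
  own_tw := H.own_tw

/-- profile facts of an outer window -/
theorem prf_of_ext
    (H : Zpr779.ExtZ B B' I0 I co M C Xo w Mw R Tn To kz w0 s PD D r o E T ν own c₀) :
    Prf (Leg Mw R) ν own m where
  K0 := Nat.cast_nonneg _
  lip := H.win.lip
  olip := H.olip
  mono := H.win.anti
  sharp := H.win.sharp
  sup := fun p hp q hq h1 h2 => H.win.submod p hp q hq h1 h2
  own_le := H.own_le

/-- **the ladder over an extremal window** -/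
theorem SrcZ.of_ext
    (H : Zpr779.ExtZ B B' I0 I co M C Xo w Mw R Tn To kz w0 s PD D r o E T ν own c₀)
    (hX : BasX M Mw Mw Xo w) {Tie : Set (Fin m)} {κ r0 : Fin m → ℝ}
    (hP : OwnPath o kz w0 R (· ∈ Tie) κ) (hr : ∀ k, 0 < r0 k) (hO : OwnR kz w0 o Tie r0) :
    SrcZ B B' I0 I co M Mw C R Xo w Tn kz w0 s o T ν own Tie κ r0 where
  win := H.win
  R0 := H.R0
  pos := hX
  ownF := ownF_of_ext H
  path := hP
  rpos := hr
  ownR := hO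

end ext

end Crest.Agent.R136.AwK146
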