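import Crest.Agent.R136.AwK_146

/-!
# R136 (helper146): almost every point of a plane, over an outer window

413's `Aw3` (`ae_aew`, `ae_conc`) for the profile of an outer window `ZWin` at tight base points.
-/

set_option autoImplicit false
set_option linter.unusedSectionVars false
set_option linter.unusedVariables false

open Filter Topology

namespace Crest.Agent.R136.AwL146

open Finset Crest.Agent.R138.Ex926 Crest.Agent.R136.Net191 Crest.Agent.R136.Gf356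
open Crest.Agent.R136.Qg926 Crest.Agent.R136.Dg219 Crest.Agent.R136.Aw413
open Crest.Agent.R136.Rc146 (OutA leg_outA)
open Crest.Agent.R136.Dg262 (X X_cont)
open Crest.Agent.R136.AwZ146 Crest.Agent.R136.AwK146

variable {m : ℕ} {ι : ℕ → Type} [∀ n, DecidableEq (ι n)] [∀ n, Nonempty (ι n)]

section ae

variable {B B₁ : Base} {I J : ∀ n, Finset (ι n)} {co : ∀ n, ι n → ι n → Fin m → ℝ} {M Mw : Mons m}
  {C R : ℝ} {Xo : ℕ → Fin m → ℝ} {wx Tz : ℕ → ℝ}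
  {ν own : (Fin m → ℝ) → ℝ} {x0 a b : Fin m → ℝ} {kz : Fin m} {w0 s : ℝ}
  {o : ℝ → Fin m → ℝ} {T V0 Tw : Fin m → Prop} {κ : Fin m → ℝ}

/-- one tangent at one point with splitting -/
theorem aewZ_at (hZ : ZWin B B₁ I J co M C Xo wx (Leg Mw R) Tz ν) (hR : 0 ≤ R)
    (hX : BasX M Mw Mw Xo wx) (hO : OwnF Mw R kz w0 s o T ν own)
    (hP : OwnPath o kz w0 R V0 κ) (hQ : PlaneO Mw R kz w0 o T V0 Tw x0 a b) {z : ℝ × ℝ}
    (hz : z ∈ (mw Mw).O (fun _ => 0) (fun _ => R) x0 a b) (hv0 : 0 < X x0 a b z kz - w0)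
    (hv1 : X x0 a b z kz - w0 < 1) {h : ℕ → ℝ} (hpos : ∀ l, 0 < h l)
    (h0 : Tendsto h atTop (𝓝 0)) {lam : (Fin m → ℝ) → ℝ}
    (ht : IsTan (Leg Mw R) (coneM (actM Mw x0 a b)) ν (fun _ => X x0 a b z) h lam) {A : ℝ × ℝ}
    {φ : ℕ → (Fin m → ℝ) → ℝ} {r : ℕ → ℝ}
    (out : OutS (gC a b) (coneM (actM Mw x0 a b)) (dhC a b) (nC a b) lam A φ r) :
    AeW B B₁ I J co M (actM Mw x0 a b) C lam a b A φ r kz (1 - s) κ
      (locV kz w0 o V0 (X x0 a b z)) Tw := by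
  have hB := bas_plane hz hpos h0
  have hOB := ownB_plane h0 hQ.sub hv0 hv1 (hQ.le z hz hv0 hv1) (hQ.eq z hz hv0 hv1)
  exact aewZ_core hZ hR (BasX.mono hX fun k e he => (mem_actM.1 he).1) hB ht out
    (own_tan hO hP hOB h0 hpos ht) hQ.nz
    fun c hc c' hc' hcc hV hkz hk => drop_tan hO hP hOB h0 hpos ht hc hc' hcc hV hkz hk

/-- **a.e. point of a plane**: every tangent of `ν` is an `AeW`, with additive splitting; it has a
homogeneous zoom with the same rates which is an `AeW` -/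
theorem ae_aewZ (hZ : ZWin B B₁ I J co M C Xo wx (Leg Mw R) Tz ν) (hR : 0 ≤ R)
    (hX : BasX M Mw Mw Xo wx) (hO : OwnF Mw R kz w0 s o T ν own)
    (hP : OwnPath o kz w0 R V0 κ) (hQ : PlaneO Mw R kz w0 o T V0 Tw x0 a b) :
    ∀ᵐ z : ℝ × ℝ, z ∈ (mw Mw).O (fun _ => 0) (fun _ => R) x0 a b → 0 < X x0 a b z kz - w0 →
      X x0 a b z kz - w0 < 1 → ∃ D : ℝ × ℝ →L[ℝ] ℝ,
      HasFDerivAt (fun z => ν (X x0 a b z)) D z ∧
      (∀ h : ℕ → ℝ, (∀ l, 0 < h l) → Tendsto h atTop (𝓝 0) → ∃ ψ : ℕ → ℕ, StrictMono ψ ∧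
        ∃ lam : (Fin m → ℝ) → ℝ, IsTan (Leg Mw R) (coneM (actM Mw x0 a b)) ν
          (fun _ => X x0 a b z) (fun l => h (ψ l)) lam) ∧
      ∀ h : ℕ → ℝ, (∀ l, 0 < h l) → Tendsto h atTop (𝓝 0) → ∀ lam : (Fin m → ℝ) → ℝ,
        IsTan (Leg Mw R) (coneM (actM Mw x0 a b)) ν (fun _ => X x0 a b z) h lam →
        ∃ (φ : ℕ → (Fin m → ℝ) → ℝ) (r : ℕ → ℝ),
          OutA (gC a b) (coneM (actM Mw x0 a b)) a b (dhC a b) (nC a b) lam
            (D (1, 0), D (0, 1)) φ r ∧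
          AeW B B₁ I J co M (actM Mw x0 a b) C lam a b (D (1, 0), D (0, 1)) φ r kz (1 - s) κ
            (locV kz w0 o V0 (X x0 a b z)) Tw ∧
          ∃ (ψ : ℕ → ℕ) (t : ℕ → ℝ) (lam2 : (Fin m → ℝ) → ℝ) (φ2 : ℕ → (Fin m → ℝ) → ℝ),
            (∀ l, l ≤ ψ l) ∧ (∀ l, 0 < t l) ∧ (∀ l, t l ≤ 1) ∧ Tendsto t atTop (𝓝 0) ∧
            IsTan (Leg Mw R) (coneM (actM Mw x0 a b)) ν (fun _ => X x0 a b z)
              (fun l => h (ψ l) * t l) lam2 ∧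
            OutA (gC a b) (coneM (actM Mw x0 a b)) a b (dhC a b) (nC a b) lam2
              (D (1, 0), D (0, 1)) φ2 r ∧
            (∀ k, (∀ i, gC a b i = k → 0 < dhC a b i) → ∀ c ∈ coneM (actM Mw x0 a b), ∀ s : ℝ,
              0 ≤ s → φ2 k (s • c) = s * φ2 k c) ∧
            AeW B B₁ I J co M (actM Mw x0 a b) C lam2 a b (D (1, 0), D (0, 1)) φ2 r kz (1 - s) κ
              (locV kz w0 o V0 (X x0 a b z)) Tw := by
  obtain ⟨wv, hG⟩ := exists_grpC (b := b) hQ.a0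
  have hm : (0 : ℝ) ≤ m := Nat.cast_nonneg m
  filter_upwards [leg_outA Mw hm hZ.lip (fun p hp q hq hpq => ⟨hZ.anti p hp q hq hpq,
    hZ.sharp p hp q hq hpq⟩) (fun p hp q hq h1 => hZ.submod p hp q hq h1 (leg_sup hp hq)) hG (fun _ _ => Iff.rfl) (dirC (a := a) (b := b))]
    with z hz hzO hv0 hv1
  obtain ⟨D, hD, H⟩ := hz hzO
  refine ⟨D, hD, fun h hpos h0 => ?_, fun h hpos h0 lam ht => ?_⟩
  · rw [coneM_actM]
    exact leg_tan Mw hm hZ.lip hzO hpos h0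
  · have ht' := ht
    rw [coneM_actM] at ht'
    obtain ⟨φ, r, g1, ψ, t, lam2, φ2, g2, g3, g4, g5, g6, g7, g8, -⟩ := H h hpos h0 lam ht'
    rw [← coneM_actM] at g1 g6 g7 g8
    have hpos2 : ∀ l, 0 < h (ψ l) * t l := fun l => mul_pos (hpos _) (g3 l)
    have hψ : Tendsto ψ atTop atTop := tendsto_atTop_mono g2 tendsto_id
    have h02 : Tendsto (fun l => h (ψ l) * t l) atTop (𝓝 0) := by
      simpa using (h0.comp hψ).mul g5
    exact ⟨φ, r, g1, aewZ_at hZ hR hX hO hP hQ hzO hv0 hv1 hpos h0 ht g1.toOutS,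
      ψ, t, lam2, φ2, g2, g3, g4, g5, g6, g7, g8,
      aewZ_at hZ hR hX hO hP hQ hzO hv0 hv1 hpos2 h02 g6 g7.toOutS⟩

/-- **a statement about the slopes which holds for every homogeneous `AeW` holds a.e.** -/
theorem ae_concZ (hZ : ZWin B B₁ I J co M C Xo wx (Leg Mw R) Tz ν) (hR : 0 ≤ R)
    (hX : BasX M Mw Mw Xo wx)
    (hO : OwnF Mw R kz w0 s o T ν own) (hP : OwnPath o kz w0 R V0 κ)
    (hQ : PlaneO Mw R kz w0 o T V0 Tw x0 a b) {Hyp : ℝ × ℝ → Prop} {Conc : ℝ × ℝ → ℝ × ℝ → Prop}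
    (F : ∀ z : ℝ × ℝ, z ∈ (mw Mw).O (fun _ => 0) (fun _ => R) x0 a b →
      0 < X x0 a b z kz - w0 → X x0 a b z kz - w0 < 1 → Hyp z →
      ∀ (h : ℕ → ℝ), (∀ l, 0 < h l) → Tendsto h atTop (𝓝 0) → ∀ (lam : (Fin m → ℝ) → ℝ)
        (A : ℝ × ℝ) (φ : ℕ → (Fin m → ℝ) → ℝ) (r : ℕ → ℝ),
        IsTan (Leg Mw R) (coneM (actM Mw x0 a b)) ν (fun _ => X x0 a b z) h lam →
        OutA (gC a b) (coneM (actM Mw x0 a b)) a b (dhC a b) (nC a b) lam A φ r →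
        (∀ k, (∀ i, gC a b i = k → 0 < dhC a b i) → ∀ c ∈ coneM (actM Mw x0 a b), ∀ s : ℝ,
          0 ≤ s → φ k (s • c) = s * φ k c) →
        AeW B B₁ I J co M (actM Mw x0 a b) C lam a b A φ r kz (1 - s) κ
          (locV kz w0 o V0 (X x0 a b z)) Tw → Conc z A) :
    ∀ᵐ z : ℝ × ℝ, z ∈ (mw Mw).O (fun _ => 0) (fun _ => R) x0 a b → 0 < X x0 a b z kz - w0 →
      X x0 a b z kz - w0 < 1 → Hyp z → ∃ D : ℝ × ℝ →L[ℝ] ℝ,
      HasFDerivAt (fun z => ν (X x0 a b z)) D z ∧ Conc z (D (1, 0), D (0, 1)) := by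
  filter_upwards [ae_aewZ hZ hR hX hO hP hQ] with z hz hzO hv0 hv1 hH
  obtain ⟨D, hD, H1, H2⟩ := hz hzO hv0 hv1
  obtain ⟨h, hpos, h0⟩ := Aw413.exists_seq
  obtain ⟨ψ, hψ, lam, ht⟩ := H1 h hpos h0
  obtain ⟨φ, r, -, -, ψ2, t, lam2, φ2, g2, g3, g4, g5, g6, g7, g8, g9⟩ :=
    H2 _ (fun l => hpos _) (h0.comp hψ.tendsto_atTop) lam ht
  have hψ2 : Tendsto ψ2 atTop atTop := tendsto_atTop_mono g2 tendsto_id
  refine ⟨D, hD, F z hzO hv0 hv1 hH _ (fun l => mul_pos (hpos _) (g3 l)) ?_ lam2 _ φ2 r g6 g7 g8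
    g9⟩
  have h3 := ((h0.comp hψ.tendsto_atTop).comp hψ2).mul g5
  simpa using h3

end ae

end Crest.Agent.R136.AwL146
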