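import Crest.Agent.R136.Gr2_356

/-!
# R136: visible shifts in exponent form (helper355, doc 2352)

`shift_R` : if in the box `p` at the height `k` the slot `sN` at the height `k'` equals
`φ · (slot sX at k)` up to `ρ^(y - C ε)`, with a raw twist `φ`, then the loss of `sX` (box `p → p'`)
is at most the loss of `sN` (box `pT → r`) at the other height.
-/

set_option autoImplicit false
set_option linter.unusedVariables false
set_option linter.unusedSectionVars false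

open Filter Topology Finset

namespace Crest.Agent.R136.Fe1355

open Crest.Agent.R138.Ex926 (Base U)
open Crest.Agent.R136.Gf356

variable {κ : Type} {B : Base} {G : ℕ → RCfg κ} {Leg : Set (κ → ℝ)} {ν : (κ → ℝ) → ℝ}
  {σ R D : ℝ}

/-- **raw twist**: for every line at most half of the pairs of its heights have a multiplier
`≤ ρ^ε`. -/
def RawTw (B : Base) (G : ℕ → RCfg κ) (φ : ℕ → ℕ → ℕ → ℝ) : Prop :=
  ∀ ε : ℝ, 0 < ε → ∀ᶠ n in (U : Filter ℕ), ∀ i ∈ (G n).L,
    ∀ T ⊆ ((G n).hts i) ×ˢ ((G n).hts i), (∀ q ∈ T, |φ n q.1 q.2| ≤ B.d n ^ ε) →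
    2 * (T.card : ℝ) ≤ (((G n).hts i).card : ℝ) ^ 2

/-- **visible shift**, one slot against another one. -/
theorem shift_R (H : RModel B G σ R Leg ν D) (p p' pT r : κ → ℝ)
    (hp : p ∈ Leg) (hp' : p' ∈ Leg) (hpT : pT ∈ Leg) (hr : r ∈ Leg) (hTr : ∀ j, pT j ≤ r j)
    (sX sN : κ) {y : ℝ} (hX : p' sX ≤ y) (ho : ∀ j, j ≠ sX → p' j ≤ p j) (hN : y ≤ r sN)
    (φ : ℕ → ℕ → ℕ → ℝ) (htw : RawTw B G φ)
    (hgeo : ∀ C0 : ℝ, 0 < C0 → ∃ C1 : ℝ, 0 < C1 ∧ ∀ ε : ℝ, 0 < ε → ∀ᶠ n in (U : Filter ℕ),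
      ∀ k ∈ (G n).Z, ∀ k' ∈ (G n).Z, ∀ i i', (i, k) ∈ (G n).I → (i, k') ∈ (G n).I →
      (i', k) ∈ (G n).I → (i', k') ∈ (G n).I → (G n).loose p (C0 * ε) k i i' →
      (G n).loose pT (C1 * ε) k' i i' ∧
      |(G n).rel k' i i' sN - φ n k k' * (G n).rel k i i' sX| ≤ B.d n ^ (y - C1 * ε)) :
    ν p - ν p' ≤ ν pT - ν r := by
  refine transfer_R H p p' pT r hp hp' hpT hr hTr (fun n ε k k' => |φ n k k'| ≤ B.d n ^ ε)
    (fun ε hε => htw ε hε) ?_
  intro C0 hC0
  obtain ⟨C1, hC1, h1⟩ := hgeo C0 hC0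
  refine ⟨C1, hC1, fun C2 hC2 => ⟨C0 + C1 + C2 + 2, by positivity, fun ε hε => ?_⟩⟩
  filter_upwards [h1 ε hε, ev_const_le B hε 2] with n hn h2 k hk k' hk' hnb i i' hi hi' hl hl' hlo
  obtain ⟨a1, a2⟩ := hn k hk k' hk' i i' hi hi' hl hl' hlo
  refine ⟨a1, fun hr' j => ?_⟩
  have hpow : ∀ t : ℝ, 0 < B.d n ^ t := fun t => rpos B n t
  rw [H.base n]
  by_cases hj : j = sX
  · subst hj
    have b1 : |(G n).rel k' i i' sN| ≤ B.d n ^ (y - (C1 + C2) * ε) := by
      have := hr' sN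
      rw [H.base n] at this
      refine this.trans (rpow_anti B n ?_)
      have : 0 ≤ C1 * ε := by positivity
      nlinarith
    have b2 : |φ n k k' * (G n).rel k i i' j| ≤ 2 * B.d n ^ (y - (C1 + C2) * ε) := by
      have e1 : φ n k k' * (G n).rel k i i' j = (G n).rel k' i i' sN -
          ((G n).rel k' i i' sN - φ n k k' * (G n).rel k i i' j) := by ring
      rw [e1]
      have b3 := abs_sub ((G n).rel k' i i' sN)
        ((G n).rel k' i i' sN - φ n k k' * (G n).rel k i i' j)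
      have b4 : B.d n ^ (y - C1 * ε) ≤ B.d n ^ (y - (C1 + C2) * ε) := rpow_anti B n (by
        have : 0 ≤ C2 * ε := by positivity
        nlinarith)
      linarith
    rw [abs_mul] at b2
    have hφ : B.d n ^ ε < |φ n k k'| := not_le.1 hnb
    have b5 : B.d n ^ ε * |(G n).rel k i i' j| ≤ 2 * B.d n ^ (y - (C1 + C2) * ε) :=
      (mul_le_mul_of_nonneg_right hφ.le (abs_nonneg _)).trans b2
    have b6 : |(G n).rel k i i' j| ≤ B.d n ^ (-ε) * (2 * B.d n ^ (y - (C1 + C2) * ε)) := by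
      have e2 : B.d n ^ (-ε) * B.d n ^ ε = 1 := by
        rw [← rpow_add', neg_add_cancel, Real.rpow_zero]
      calc |(G n).rel k i i' j| = B.d n ^ (-ε) * (B.d n ^ ε * |(G n).rel k i i' j|) := by
            rw [← mul_assoc, e2, one_mul]
        _ ≤ _ := mul_le_mul_of_nonneg_left b5 (hpow _).le
    calc |(G n).rel k i i' j| ≤ B.d n ^ (-ε) * (2 * B.d n ^ (y - (C1 + C2) * ε)) := b6
      _ ≤ B.d n ^ (-ε) * (B.d n ^ (-ε) * B.d n ^ (y - (C1 + C2) * ε)) := by
          refine mul_le_mul_of_nonneg_left ?_ (hpow _).le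
          exact mul_le_mul_of_nonneg_right h2 (hpow _).le
      _ = B.d n ^ (y - (C1 + C2 + 2) * ε) := by
          rw [← rpow_add', ← rpow_add']; congr 1; ring
      _ ≤ _ := rpow_anti B n (by
          have : 0 ≤ C0 * ε := by positivity
          nlinarith)
  · have := hlo j
    rw [H.base n] at this
    refine this.trans (rpow_anti B n ?_)
    have h3 := ho j hj
    have : 0 ≤ (C1 + C2 + 2) * ε := by positivity
    nlinarith

end Crest.Agent.R136.Fe1355
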