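import Crest.Agent.R136.Qg4c_480
import Crest.Agent.R136.Fe1_355

/-!
# R136: raw twist of windows (helper480), part 4: the models

* `DenC` : sets of incidences dense in the class up to admissible losses (`DenC.class`,
  `DenC.section`, `DenC.refine`).
* `TwM` : raw twist of the models; `Tw.twM`.
* `TwM.pairs`, `TwM.rawTw`, `TwM.rawTwI`, `TwM.rawTw_z`, `TwM.rawTw_flg` : the forms used by the
  consumers.
-/

set_option autoImplicit false
set_option linter.unusedSectionVars false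
set_option linter.unusedVariables false

open Filter Topology

namespace Crest.Agent.R136.Qg4480

open Finset Crest.Agent.R138.Ex926 Crest.Agent.R136.Net191 Crest.Agent.R136.Gf356
open Crest.Agent.R136.Qg926 Crest.Agent.R136.Fe1355

variable {m : ℕ} {ι : ℕ → Type*} [∀ n, DecidableEq (ι n)]

/-- **dense in the class up to admissible losses**, counted with the multiplicity scale `Mx` -/
def DenC (W : Wnd m ι) (s : ℕ → ℕ → ℝ) (Mx : ℕ → ℝ) (E : ∀ n, Finset (ι n)) : Prop :=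
  ∃ Mu c : ℕ → ℝ, IsLoss W.B' s c ∧ ∀ᶠ n in (U : Filter ℕ), 0 ≤ c n ∧ 0 < Mu n ∧ E n ⊆ W.Cl n ∧
    (∀ i ∈ E n, ((cls (E n) (W.pc n) i).card : ℝ) ≤ Mu n) ∧
    ((W.Cl n).card : ℝ) * Mu n ≤ c n * (Mx n * (E n).card)

variable {W : Wnd m ι} {F : Finset (Fin m)} {s : ℕ → ℕ → ℝ} {Mx : ℕ → ℝ}

theorem DenC.class (hT : Tw W F s Mx) : DenC W s Mx W.Cl := by
  refine ⟨Mx, fun _ => 1, IsLoss.const 1, ?_⟩
  filter_upwards [hT.mult] with n h1
  exact ⟨zero_le_one, hT.pos n, Subset.refl _, h1, le_of_eq (by ring)⟩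

theorem DenC.section (hT : Tw W F s Mx) : DenC W s Mx W.sec := by
  refine ⟨fun _ => 1, fun _ => 1, IsLoss.const 1, ?_⟩
  filter_upwards [hT.mult] with n h1
  refine ⟨zero_le_one, one_pos, filter_subset _ _, fun i hi => ?_, ?_⟩
  · have h1 : (cls (W.sec n) (W.pc n) i).card ≤ 1 := by
      rw [card_le_one]
      intro a ha b hb
      obtain ⟨a1, a2⟩ := mem_cls.1 ha
      obtain ⟨b1, b2⟩ := mem_cls.1 hb
      exact Wnd.sec_inj a1 b1 (a2.trans b2.symm)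
    exact_mod_cast h1
  · have h2 := le_count_mul (W.Cl n) (fun _ => (1 : ℝ)) (W.pc n) (m := Mx n) (fun i hi => by
      rw [sum_const, nsmul_eq_mul, mul_one]
      exact h1 i hi)
    rw [sum_const, nsmul_eq_mul, mul_one] at h2
    rw [Wnd.card_sec]
    linarith

theorem DenC.refine {E E₁ : ∀ n, Finset (ι n)} (hMx : ∀ n, 0 < Mx n) (h : DenC W s Mx E)
    (hsub : ∀ᶠ n in (U : Filter ℕ), E₁ n ⊆ E n) {c : ℕ → ℝ} (hc : IsLoss W.B' s c)
    (hc0 : ∀ᶠ n in (U : Filter ℕ), 0 ≤ c n)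
    (hd : ∀ᶠ n in (U : Filter ℕ), ((E n).card : ℝ) ≤ c n * (E₁ n).card) : DenC W s Mx E₁ := by
  obtain ⟨Mu, c', hc', h1⟩ := h
  refine ⟨Mu, fun n => c' n * c n, hc'.mul hc hc0, ?_⟩
  filter_upwards [h1, hsub, hd, hc0] with n h1 h2 h3 h4
  obtain ⟨a1, a2, a3, a4, a5⟩ := h1
  refine ⟨mul_nonneg a1 h4, a2, h2.trans a3, fun i hi => ?_, a5.trans ?_⟩
  · refine le_trans ?_ (a4 i (h2 hi))
    exact_mod_cast card_le_card (cls_mono h2 _ _)
  · calc c' n * (Mx n * (E n).card) ≤ c' n * (Mx n * (c n * (E₁ n).card)) :=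
          mul_le_mul_of_nonneg_left (mul_le_mul_of_nonneg_left h3 (hMx n).le) a1
      _ = c' n * c n * (Mx n * (E₁ n).card) := by ring

open Classical in
/-- **raw twist of the models**: on every line, seen from every height `k`, the heights whose flags
`F` are within `ρ ^ ε` are fewer than all heights of the line divided by any admissible loss -/
def TwM (W : Wnd m ι) (E' : ∀ n, Finset (ι n)) (F : Finset (Fin m)) (s : ℕ → ℕ → ℝ) : Prop :=
  ∀ ε : ℝ, 0 < ε → ∀ c : ℕ → ℝ, IsLoss W.B' s c → ∀ᶠ n in (U : Filter ℕ),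
    ∀ l ∈ (W.cfg E' n).L, ∀ k ∈ (W.cfg E' n).hts l,
      c n * ((((W.cfg E' n).hts l).filter fun k' =>
        ∀ f ∈ F, |W.crd n (W.rep n l k) (W.rep n l k') f| ≤ W.B'.d n ^ ε).card : ℝ) ≤
      (((W.cfg E' n).hts l).card : ℝ)

variable {E E' : ∀ n, Finset (ι n)} {g : ℕ → ℝ} {ex : ℕ → ∀ n, ι n → ℕ}

/-- **from the window to the models** -/
theorem Tw.twM (hT : Tw W F s Mx) (h : W.Ok) (hE : DenC W s Mx E)
    (hP : Wnd.Pruned W E E' g ex) (hg : IsLoss W.B' s g) : TwM W E' F s := by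
  classical
  intro ε hε c hc
  obtain ⟨Mu, cE, hcE, h1⟩ := hE
  have hg0 : ∀ᶠ n in (U : Filter ℕ), 0 ≤ g n := Eventually.of_forall fun n => by
    linarith [hP.g1 n]
  have hcg : IsLoss W.B' s (fun n => cE n * g n) := hcE.mul hg hg0
  have hcg0 : ∀ᶠ n in (U : Filter ℕ), 0 ≤ cE n * g n := by
    filter_upwards [h1, hg0] with n a b using mul_nonneg a.1 b
  filter_upwards [h1, h.ev_good, hT.near ε hε _ (hc.mul hcg hcg0)] with n h1 g1 h2
  obtain ⟨a1, a2, a3, a4, a5⟩ := h1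
  have hCl : (W.Cl n).Nonempty := ⟨_, g1.s0⟩
  have hClp : (0 : ℝ) < (W.Cl n).card := by exact_mod_cast card_pos.2 hCl
  have hMx := hT.pos n
  have hgn := hP.g1 n
  have hpE : 0 < cE n * (Mx n * (E n).card) := lt_of_lt_of_le (mul_pos hClp a2) a5
  have hcE0 : 0 < cE n := by
    rcases a1.eq_or_lt with h0 | h0
    · rw [← h0, zero_mul] at hpE; exact absurd hpE (lt_irrefl _)
    · exact h0
  have hE0 : (0 : ℝ) < (E n).card := by
    rcases (Nat.cast_nonneg (E n).card : (0 : ℝ) ≤ (E n).card).eq_or_lt with h0 | h0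
    · rw [← h0, mul_zero, mul_zero] at hpE; exact absurd hpE (lt_irrefl _)
    · exact h0
  have hE'ne : (E' n).Nonempty := by
    rw [← card_pos]
    have h4 := hP.half n
    have : (0 : ℝ) < (E' n).card := by linarith
    exact_mod_cast this
  have hE'Cl : E' n ⊆ W.Cl n := (hP.sub n).trans a3
  rw [Wnd.cfg_eq hE'Cl g1.clI hE'ne]
  intro l hl k hk
  -- the number of heights of the line
  obtain ⟨x, hx, rfl⟩ := mem_image.1 hl
  have b1 := hP.lines n x hx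
  have b2 : ((cls (E' n) (W.lc n) x).card : ℝ) ≤
      Mu n * (((W.cfg0 n (E' n)).hts (W.lc n x)).card : ℝ) := by
    have c1 := le_count_mul (cls (E' n) (W.lc n) x) (fun _ => (1 : ℝ)) (W.zc n) (m := Mu n)
      (fun y hy => by
        rw [sum_const, nsmul_eq_mul, mul_one]
        obtain ⟨y1, y2⟩ := mem_cls.1 hy
        refine le_trans ?_ (a4 y (hP.sub n y1))
        refine Nat.cast_le.2 (card_le_card fun z hz => ?_)
        obtain ⟨z1, z2⟩ := mem_cls.1 hz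
        obtain ⟨z3, z4⟩ := mem_cls.1 z1
        refine mem_cls.2 ⟨hP.sub n z3, ?_⟩
        unfold Wnd.pc
        rw [z2, z4, y2])
    rw [sum_const, nsmul_eq_mul, mul_one] at c1
    refine c1.trans (mul_le_mul_of_nonneg_left ?_ a2.le)
    refine Nat.cast_le.2 (card_le_card fun z hz => ?_)
    obtain ⟨y, hy, rfl⟩ := mem_image.1 hz
    obtain ⟨y1, y2⟩ := mem_cls.1 hy
    exact Wnd.cfg0_hts.2 ⟨y, y1, y2, rfl⟩
  set H : ℝ := (((W.cfg0 n (E' n)).hts (W.lc n x)).card : ℝ) with hH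
  set lines : ℝ := (((W.Cl n).image (W.lc n)).card : ℝ) with hlines
  have hlp : 0 < lines := Nat.cast_pos.2 (card_pos.2 (hCl.image (W.lc n)))
  have hH0 : 0 ≤ H := Nat.cast_nonneg _
  have b3 : (((E n).image (W.lc n)).card : ℝ) ≤ lines :=
    Nat.cast_le.2 (card_le_card (image_subset_image a3))
  have b4 : ((W.Cl n).card : ℝ) ≤ cE n * g n * (Mx n * lines * H) := by
    have c1 : ((W.Cl n).card : ℝ) * Mu n ≤ (cE n * g n * (Mx n * lines * H)) * Mu n := by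
      calc ((W.Cl n).card : ℝ) * Mu n ≤ cE n * (Mx n * (E n).card) := a5
        _ ≤ cE n * (Mx n * (g n * ((E n).image (W.lc n)).card *
            (cls (E' n) (W.lc n) x).card)) :=
            mul_le_mul_of_nonneg_left (mul_le_mul_of_nonneg_left b1 hMx.le) hcE0.le
        _ ≤ cE n * (Mx n * (g n * lines * (Mu n * H))) := by
            refine mul_le_mul_of_nonneg_left (mul_le_mul_of_nonneg_left ?_ hMx.le) hcE0.le
            refine mul_le_mul (mul_le_mul_of_nonneg_left b3 (by linarith)) b2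
              (Nat.cast_nonneg _) (by positivity)
        _ = _ := by ring
    exact le_of_mul_le_mul_right c1 a2
  -- the near heights
  obtain ⟨y0, hy0, hy1, rfl⟩ := Wnd.cfg0_hts.1 hk
  have hyC := hE'Cl hy0
  have hxC := hE'Cl hx
  obtain ⟨r1, r2, r3⟩ := W.rep_spec hyC
  rw [hy1] at r1 r2 r3
  have b5 := h2 _ r1
  have b6 : ((((W.cfg0 n (E' n)).hts (W.lc n x)).filter fun k' =>
      ∀ f ∈ F, |W.crd n (W.rep n (W.lc n x) (W.zc n y0)) (W.rep n (W.lc n x) k') f| ≤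
        W.B'.d n ^ ε).card : ℝ) ≤
      (((nearF W F n ε (W.rep n (W.lc n x) (W.zc n y0))).image (W.zc n)).card : ℝ) := by
    refine Nat.cast_le.2 (card_le_card fun k' hk' => ?_)
    obtain ⟨e1, e2⟩ := mem_filter.1 hk'
    obtain ⟨z, hz, hz1, rfl⟩ := Wnd.cfg0_hts.1 e1
    obtain ⟨q1, q2, q3⟩ := W.rep_spec (hE'Cl hz)
    rw [hz1] at q1 q2 q3
    refine mem_image.2 ⟨W.rep n (W.lc n x) (W.zc n z), ?_, q3⟩
    exact mem_filter.2 ⟨q1, q2.trans r2.symm, e2⟩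
  set nr : ℝ := ((((W.cfg0 n (E' n)).hts (W.lc n x)).filter fun k' =>
      ∀ f ∈ F, |W.crd n (W.rep n (W.lc n x) (W.zc n y0)) (W.rep n (W.lc n x) k') f| ≤
        W.B'.d n ^ ε).card : ℝ) with hnr
  set Q : ℝ := (((nearF W F n ε (W.rep n (W.lc n x) (W.zc n y0))).image (W.zc n)).card : ℝ)
    with hQ
  have hp : 0 < cE n * g n * (Mx n * lines) := by positivity
  rcases le_or_gt (c n) 0 with hcn | hcn
  · exact (mul_nonpos_of_nonpos_of_nonneg hcn (Nat.cast_nonneg _)).trans hH0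
  · have b7 : (cE n * g n * (Mx n * lines)) * (c n * nr) ≤
        (cE n * g n * (Mx n * lines)) * H := by
      calc (cE n * g n * (Mx n * lines)) * (c n * nr)
          ≤ (cE n * g n * (Mx n * lines)) * (c n * Q) :=
            mul_le_mul_of_nonneg_left (mul_le_mul_of_nonneg_left b6 hcn.le) hp.le
        _ = c n * (cE n * g n) * (Q * (Mx n * lines)) := by ring
        _ ≤ ((W.Cl n).card : ℝ) := b5
        _ ≤ cE n * g n * (Mx n * lines * H) := b4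
        _ = _ := by ring
    exact le_of_mul_le_mul_left b7 hp

/-! ### the forms used by the consumers -/

/-- pairs of heights with close flags -/
theorem TwM.pairs (h : TwM W E' F s) {c : ℕ → ℝ} (hc : IsLoss W.B' s c) {ε : ℝ} (hε : 0 < ε) :
    ∀ᶠ n in (U : Filter ℕ), ∀ l ∈ (W.cfg E' n).L,
      ∀ T ⊆ ((W.cfg E' n).hts l) ×ˢ ((W.cfg E' n).hts l),
      (∀ q ∈ T, ∀ f ∈ F, |W.crd n (W.rep n l q.1) (W.rep n l q.2) f| ≤ W.B'.d n ^ ε) →
      c n * (T.card : ℝ) ≤ (((W.cfg E' n).hts l).card : ℝ) ^ 2 := by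
  classical
  filter_upwards [h ε hε c hc] with n hn l hl T hT hq
  rcases le_or_gt (c n) 0 with hcn | hcn
  · exact (mul_nonpos_of_nonpos_of_nonneg hcn (Nat.cast_nonneg _)).trans (by positivity)
  have h1 : (T.card : ℝ) ≤ ∑ k ∈ (W.cfg E' n).hts l,
      ((((W.cfg E' n).hts l).filter fun k' =>
        ∀ f ∈ F, |W.crd n (W.rep n l k) (W.rep n l k') f| ≤ W.B'.d n ^ ε).card : ℝ) := by
    have h2 : T.card = ∑ k ∈ (W.cfg E' n).hts l, (T.filter fun q => q.1 = k).card :=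
      card_eq_sum_card_fiberwise fun q hq' => (mem_product.1 (hT hq')).1
    rw [h2]
    push_cast
    refine sum_le_sum fun k hk => ?_
    refine Nat.cast_le.2 (card_le_card_of_injOn Prod.snd (fun q hq' => ?_)
      fun q hq' q' hq'' he => ?_)
    · obtain ⟨a1, a2⟩ := mem_filter.1 (Finset.mem_coe.1 hq')
      refine Finset.mem_coe.2 (mem_filter.2 ⟨(mem_product.1 (hT a1)).2, ?_⟩)
      have := hq q a1
      rw [a2] at this
      exact this
    · have a1 := (mem_filter.1 (Finset.mem_coe.1 hq')).2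
      have a2 := (mem_filter.1 (Finset.mem_coe.1 hq'')).2
      exact Prod.ext (a1.trans a2.symm) he
  calc c n * (T.card : ℝ) ≤ c n * ∑ k ∈ (W.cfg E' n).hts l,
      ((((W.cfg E' n).hts l).filter fun k' =>
        ∀ f ∈ F, |W.crd n (W.rep n l k) (W.rep n l k') f| ≤ W.B'.d n ^ ε).card : ℝ) :=
        mul_le_mul_of_nonneg_left h1 hcn.le
    _ = ∑ k ∈ (W.cfg E' n).hts l, c n * ((((W.cfg E' n).hts l).filter fun k' =>
        ∀ f ∈ F, |W.crd n (W.rep n l k) (W.rep n l k') f| ≤ W.B'.d n ^ ε).card : ℝ) := by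
        rw [mul_sum]
    _ ≤ ∑ k ∈ (W.cfg E' n).hts l, (((W.cfg E' n).hts l).card : ℝ) :=
        sum_le_sum fun k hk => hn l hl k hk
    _ = _ := by rw [sum_const, nsmul_eq_mul]; ring

/-- **raw twist in 355's form**: small multiplier implies close flags -/
theorem TwM.rawTw (h : TwM W E' F s) {φ : ℕ → ℕ → ℕ → ℝ}
    (hφ : ∀ ε : ℝ, 0 < ε → ∃ ε' : ℝ, 0 < ε' ∧ ∀ᶠ n in (U : Filter ℕ), ∀ l ∈ (W.cfg E' n).L,
      ∀ k ∈ (W.cfg E' n).hts l, ∀ k' ∈ (W.cfg E' n).hts l, |φ n k k'| ≤ W.B'.d n ^ ε →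
        ∀ f ∈ F, |W.crd n (W.rep n l k) (W.rep n l k') f| ≤ W.B'.d n ^ ε') :
    RawTw W.B' (W.cfg E') φ := by
  intro ε hε
  obtain ⟨ε', hε', h1⟩ := hφ ε hε
  filter_upwards [h1, h.pairs (IsLoss.const 2) hε'] with n h2 h3 l hl T hT hq
  refine h3 l hl T hT fun q hqT f hf => ?_
  have h4 := mem_product.1 (hT hqT)
  exact h2 l hl q.1 h4.1 q.2 h4.2 (hq q hqT) f hf

/-- the same with a multiplier depending on the line (938's `RawTwI`) -/
theorem TwM.rawTwI (h : TwM W E' F s) {φ : ℕ → ℕ → ℕ → ℕ → ℝ}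
    (hφ : ∀ ε : ℝ, 0 < ε → ∃ ε' : ℝ, 0 < ε' ∧ ∀ᶠ n in (U : Filter ℕ), ∀ l ∈ (W.cfg E' n).L,
      ∀ k ∈ (W.cfg E' n).hts l, ∀ k' ∈ (W.cfg E' n).hts l, |φ n l k k'| ≤ W.B'.d n ^ ε →
        ∀ f ∈ F, |W.crd n (W.rep n l k) (W.rep n l k') f| ≤ W.B'.d n ^ ε') :
    ∀ ε : ℝ, 0 < ε → ∀ᶠ n in (U : Filter ℕ), ∀ i ∈ (W.cfg E' n).L,
      ∃ T ⊆ ((W.cfg E' n).hts i) ×ˢ ((W.cfg E' n).hts i),
      (∀ q ∈ T, W.B'.d n ^ ε < |φ n i q.1 q.2|) ∧
      W.B'.d n ^ ε * (((W.cfg E' n).hts i).card : ℝ) ^ 2 ≤ (T.card : ℝ) := by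
  classical
  intro ε hε
  obtain ⟨ε', hε', h1⟩ := hφ ε hε
  filter_upwards [h1, h.pairs (IsLoss.const 2) hε', W.B'.ev_rpow_small (η := ε) (c := 1 / 2) hε
    (by norm_num)] with n h2 h3 h4 i hi
  refine ⟨(((W.cfg E' n).hts i) ×ˢ ((W.cfg E' n).hts i)).filter
    fun q => W.B'.d n ^ ε < |φ n i q.1 q.2|, filter_subset _ _, fun q hq => (mem_filter.1 hq).2, ?_⟩
  have h5 := h3 i hi ((((W.cfg E' n).hts i) ×ˢ ((W.cfg E' n).hts i)).filter
    fun q => ¬ W.B'.d n ^ ε < |φ n i q.1 q.2|) (filter_subset _ _) (fun q hq f hf => by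
      obtain ⟨a1, a2⟩ := mem_filter.1 hq
      have a3 := mem_product.1 a1
      exact h2 i hi q.1 a3.1 q.2 a3.2 (not_lt.1 a2) f hf)
  have h6 := card_filter_add_card_filter_not (s := ((W.cfg E' n).hts i) ×ˢ ((W.cfg E' n).hts i))
    fun q => W.B'.d n ^ ε < |φ n i q.1 q.2|
  rw [card_product] at h6
  have h7 : ((((((W.cfg E' n).hts i) ×ˢ ((W.cfg E' n).hts i)).filter fun q =>
      W.B'.d n ^ ε < |φ n i q.1 q.2|).card : ℝ) +
      ((((W.cfg E' n).hts i) ×ˢ ((W.cfg E' n).hts i)).filter fun q =>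
        ¬ W.B'.d n ^ ε < |φ n i q.1 q.2|).card) =
      (((W.cfg E' n).hts i).card : ℝ) * ((W.cfg E' n).hts i).card := by exact_mod_cast h6
  have h8 : 0 ≤ (((W.cfg E' n).hts i).card : ℝ) ^ 2 := by positivity
  have h9 := mul_le_mul_of_nonneg_right h4 h8
  nlinarith

/-- flags of two heights, seen from the line or from the representatives of the heights: additive
level slot -/
theorem crd_zrep (h : W.Ok) {n : ℕ} (gd : W.Good n) {f : Fin m} (hfS : f ∈ W.S)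
    (hf0 : W.M.mon f = ∅) {l k k' : ℕ} {E₀ : Finset (ι n)} (hE₀ : E₀ ⊆ W.Cl n)
    (hk : k ∈ (W.cfg0 n E₀).hts l) (hk' : k' ∈ (W.cfg0 n E₀).hts l) :
    |W.crd n (W.rep n l k) (W.rep n l k') f - W.crd n (W.zrep n k) (W.zrep n k') f| ≤
      2 * (W.K0 / W.kap f) * W.B'.d n ^ W.top f := by
  obtain ⟨y, hy, rfl, rfl⟩ := Wnd.cfg0_hts.1 hk
  obtain ⟨y', hy', hl, rfl⟩ := Wnd.cfg0_hts.1 hk'
  have hyC := hE₀ hy
  have hyC' := hE₀ hy'
  obtain ⟨r1, r2, r3⟩ := W.rep_spec hyC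
  obtain ⟨r1', r2', r3'⟩ := W.rep_spec hyC'
  rw [hl] at r1' r2' r3'
  obtain ⟨z1, z2⟩ := W.zrep_spec hyC
  obtain ⟨z1', z2'⟩ := W.zrep_spec hyC'
  have hadd : ∀ i ∈ W.Cl n, ∀ j ∈ W.Cl n, ∀ p ∈ W.Cl n,
      W.co n i p f = W.co n i j f + W.co n j p f := by
    intro i hi j hj p hp
    have h1 := (h.cls.chart n).add i (gd.clI hi) j (gd.clI hj) p (gd.clI hp) f
    rw [hf0, Finset.sum_empty, mul_zero] at h1
    have h2 := abs_nonpos_iff.1 h1
    linarith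
  have hkk := h.kap f
  have hBX : 0 < W.B.d n ^ W.X n f := Real.rpow_pos_of_pos (W.B.pos n) _
  have n1 := h.near_zc gd r1 z1 (r3.trans z2.symm) f
  have n2 := h.near_zc gd z1' r1' (z2'.trans r3'.symm) f
  rw [cut_of_mem hfS] at n1 n2
  have e1 : W.co n (W.rep n (W.lc n y) (W.zc n y)) (W.rep n (W.lc n y) (W.zc n y')) f =
      W.co n (W.rep n (W.lc n y) (W.zc n y)) (W.zrep n (W.zc n y)) f +
        (W.co n (W.zrep n (W.zc n y)) (W.zrep n (W.zc n y')) f +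
          W.co n (W.zrep n (W.zc n y')) (W.rep n (W.lc n y) (W.zc n y')) f) := by
    rw [← hadd _ z1 _ z1' _ r1', ← hadd _ r1 _ z1 _ r1']
  have e2 : W.crd n (W.rep n (W.lc n y) (W.zc n y)) (W.rep n (W.lc n y) (W.zc n y')) f -
      W.crd n (W.zrep n (W.zc n y)) (W.zrep n (W.zc n y')) f =
      (W.co n (W.rep n (W.lc n y) (W.zc n y)) (W.zrep n (W.zc n y)) f +
        W.co n (W.zrep n (W.zc n y')) (W.rep n (W.lc n y) (W.zc n y')) f) /
        (W.kap f * W.B.d n ^ W.X n f) := by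
    unfold Wnd.crd
    rw [← sub_div, e1]
    congr 1; ring
  rw [e2, abs_div, abs_of_pos (mul_pos hkk hBX), div_le_iff₀ (mul_pos hkk hBX)]
  refine (abs_add_le _ _).trans ((add_le_add n1 n2).trans (le_of_eq ?_))
  unfold Wnd.K0
  field_simp
  ring

/-- closeness of flags: from the representatives of the heights to the line -/
theorem ev_close (h : W.Ok) (hP : ∀ᶠ n in (U : Filter ℕ),
      W.Good n ∧ E' n ⊆ W.Cl n ∧ W.cfg E' n = W.cfg0 n (E' n)) {f : Fin m} (hfS : f ∈ W.S)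
    (hf0 : W.M.mon f = ∅) (htop : 0 < W.top f) {ε : ℝ} (hε : 0 < ε) :
    ∀ᶠ n in (U : Filter ℕ), ∀ l ∈ (W.cfg E' n).L,
      ∀ k ∈ (W.cfg E' n).hts l, ∀ k' ∈ (W.cfg E' n).hts l,
      |W.crd n (W.zrep n k) (W.zrep n k') f| ≤ W.B'.d n ^ ε →
      |W.crd n (W.rep n l k) (W.rep n l k') f| ≤ W.B'.d n ^ (min ε (W.top f) / 2) := by
  have hK := h.K0_one
  have hkk := h.kap f
  have hmin : 0 < min ε (W.top f) := lt_min hε htop
  have hc : 0 < 1 + 2 * (W.K0 / W.kap f) := by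
    have : 0 < W.K0 / W.kap f := div_pos (by linarith) hkk
    linarith
  filter_upwards [hP, Crest.Agent.R136.Qg926.ev_const_le W.B' hc
    (ε := min ε (W.top f) / 2) (by positivity)] with n hn h2 l hl k hk k' hk' hs
  obtain ⟨g1, g2, g3⟩ := hn
  rw [g3] at hl hk hk'
  have h3 := crd_zrep h g1 hfS hf0 g2 hk hk'
  have hpos : ∀ t : ℝ, 0 < W.B'.d n ^ t := fun t => Real.rpow_pos_of_pos (W.B'.pos n) _
  have anti : ∀ {s t : ℝ}, s ≤ t → W.B'.d n ^ t ≤ W.B'.d n ^ s := fun hst =>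
    Real.rpow_le_rpow_of_exponent_ge (W.B'.pos n) (W.B'.lt n).le hst
  have e1 : |W.crd n (W.rep n l k) (W.rep n l k') f| ≤
      |W.crd n (W.zrep n k) (W.zrep n k') f| +
        |W.crd n (W.rep n l k) (W.rep n l k') f - W.crd n (W.zrep n k) (W.zrep n k') f| := by
    have := abs_add_le (W.crd n (W.zrep n k) (W.zrep n k') f)
      (W.crd n (W.rep n l k) (W.rep n l k') f - W.crd n (W.zrep n k) (W.zrep n k') f)
    rwa [add_sub_cancel] at this
  have e2 : W.B'.d n ^ ε ≤ W.B'.d n ^ (min ε (W.top f)) := anti (min_le_left _ _)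
  have e3 : W.B'.d n ^ W.top f ≤ W.B'.d n ^ (min ε (W.top f)) := anti (min_le_right _ _)
  have hc1 : 0 ≤ 2 * (W.K0 / W.kap f) := by
    have : 0 < W.K0 / W.kap f := div_pos (by linarith) hkk
    linarith
  have e4 : W.B'.d n ^ (min ε (W.top f)) =
      W.B'.d n ^ (min ε (W.top f) / 2) * W.B'.d n ^ (min ε (W.top f) / 2) := by
    rw [← Real.rpow_add (W.B'.pos n)]; congr 1; ring
  have e5 : W.B'.d n ^ (-(min ε (W.top f) / 2)) * W.B'.d n ^ (min ε (W.top f) / 2) = 1 := by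
    rw [← Real.rpow_add (W.B'.pos n), neg_add_cancel, Real.rpow_zero]
  calc |W.crd n (W.rep n l k) (W.rep n l k') f|
      ≤ W.B'.d n ^ (min ε (W.top f)) +
        2 * (W.K0 / W.kap f) * W.B'.d n ^ (min ε (W.top f)) :=
        e1.trans (add_le_add (hs.trans e2) (h3.trans (mul_le_mul_of_nonneg_left e3 hc1)))
    _ = (1 + 2 * (W.K0 / W.kap f)) * W.B'.d n ^ (min ε (W.top f)) := by ring
    _ ≤ W.B'.d n ^ (-(min ε (W.top f) / 2)) * W.B'.d n ^ (min ε (W.top f)) :=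
        mul_le_mul_of_nonneg_right h2 (hpos _).le
    _ = W.B'.d n ^ (min ε (W.top f) / 2) := by
        rw [e4, ← mul_assoc, e5, one_mul]

/-- **raw twist of one additive flag** `f` (multiplier = difference of the flags of the two
heights) -/
theorem TwM.rawTw_z {f : Fin m} (h : TwM W E' {f} s) (hW : W.Ok)
    (hP : ∀ᶠ n in (U : Filter ℕ), W.Good n ∧ E' n ⊆ W.Cl n ∧ W.cfg E' n = W.cfg0 n (E' n))
    (hfS : f ∈ W.S) (hf0 : W.M.mon f = ∅) (htop : 0 < W.top f) :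
    RawTw W.B' (W.cfg E') (fun n k k' => W.crd n (W.zrep n k) (W.zrep n k') f) := by
  refine h.rawTw fun ε hε => ⟨min ε (W.top f) / 2, by
    have := lt_min hε htop
    positivity, ?_⟩
  filter_upwards [ev_close hW hP hfS hf0 htop hε] with n hn l hl k hk k' hk' hs f' hf'
  rw [mem_singleton] at hf'
  subst hf'
  exact hn l hl k hk k' hk' hs

/-- the same, multiplier written with the flags seen from `s₀` -/
theorem TwM.rawTw_flg {f : Fin m} (h : TwM W E' {f} s) (hW : W.Ok)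
    (hP : ∀ᶠ n in (U : Filter ℕ), W.Good n ∧ E' n ⊆ W.Cl n ∧ W.cfg E' n = W.cfg0 n (E' n))
    (hfS : f ∈ W.S) (hf0 : W.M.mon f = ∅) (htop : 0 < W.top f) :
    RawTw W.B' (W.cfg E') (fun n k k' =>
      W.crd n (W.s₀ n) (W.zrep n k') f - W.crd n (W.s₀ n) (W.zrep n k) f) := by
  have h1 := h.rawTw_z hW hP hfS hf0 htop
  intro ε hε
  filter_upwards [h1 ε hε, hP] with n h2 h3 i hi T hT hq
  obtain ⟨g1, g2, g3⟩ := h3
  refine h2 i hi T hT fun q hqT => ?_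
  have h4 := mem_product.1 (hT hqT)
  rw [g3] at h4
  obtain ⟨y, hy, -, hy2⟩ := Wnd.cfg0_hts.1 h4.1
  obtain ⟨y', hy', -, hy2'⟩ := Wnd.cfg0_hts.1 h4.2
  have z1 := (W.zrep_spec (g2 hy)).1
  have z1' := (W.zrep_spec (g2 hy')).1
  rw [hy2] at z1
  rw [hy2'] at z1'
  have h5 := (hW.cls.chart n).add (W.s₀ n) (g1.clI g1.s0) _ (g1.clI z1) _ (g1.clI z1') f
  rw [hf0, Finset.sum_empty, mul_zero] at h5
  have h6 := abs_nonpos_iff.1 h5
  have h7 : W.crd n (W.zrep n q.1) (W.zrep n q.2) f =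
      W.crd n (W.s₀ n) (W.zrep n q.2) f - W.crd n (W.s₀ n) (W.zrep n q.1) f := by
    unfold Wnd.crd
    rw [← sub_div]
    congr 1
    linarith
  rw [h7]
  exact hq q hqT

/-- **vector twist** of finitely many additive flags: the pairs of heights all of whose flags are
close are at most half of all pairs -/
theorem TwM.vec (h : TwM W E' F s) (hW : W.Ok)
    (hP : ∀ᶠ n in (U : Filter ℕ), W.Good n ∧ E' n ⊆ W.Cl n ∧ W.cfg E' n = W.cfg0 n (E' n))
    (hFS : F ⊆ W.S) (hF0 : ∀ f ∈ F, W.M.mon f = ∅) {t : ℝ} (ht : 0 < t)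
    (htop : ∀ f ∈ F, t ≤ W.top f) {c : ℕ → ℝ} (hc : IsLoss W.B' s c) {ε : ℝ} (hε : 0 < ε) :
    ∀ᶠ n in (U : Filter ℕ), ∀ l ∈ (W.cfg E' n).L,
      ∀ T ⊆ ((W.cfg E' n).hts l) ×ˢ ((W.cfg E' n).hts l),
      (∀ q ∈ T, ∀ f ∈ F, |W.crd n (W.zrep n q.1) (W.zrep n q.2) f| ≤ W.B'.d n ^ ε) →
      c n * (T.card : ℝ) ≤ (((W.cfg E' n).hts l).card : ℝ) ^ 2 := by
  have hmin : 0 < min ε t := lt_min hε ht
  have h1 : ∀ᶠ n in (U : Filter ℕ), ∀ f ∈ F, ∀ l ∈ (W.cfg E' n).L,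
      ∀ k ∈ (W.cfg E' n).hts l, ∀ k' ∈ (W.cfg E' n).hts l,
      |W.crd n (W.zrep n k) (W.zrep n k') f| ≤ W.B'.d n ^ ε →
      |W.crd n (W.rep n l k) (W.rep n l k') f| ≤ W.B'.d n ^ (min ε (W.top f) / 2) := by
    rw [Filter.eventually_all_finset]
    intro f hf
    exact ev_close hW hP (hFS hf) (hF0 f hf) (ht.trans_le (htop f hf)) hε
  filter_upwards [h1, h.pairs hc (ε := min ε t / 2) (by positivity)] with n h2 h3 l hl T hT hq
  refine h3 l hl T hT fun q hqT f hf => ?_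
  have h4 := mem_product.1 (hT hqT)
  refine (h2 f hf l hl q.1 h4.1 q.2 h4.2 (hq q hqT f hf)).trans ?_
  refine Real.rpow_le_rpow_of_exponent_ge (W.B'.pos n) (W.B'.lt n).le ?_
  have := min_le_min_left ε (htop f hf)
  linarith

/-- the hypothesis `hP` for pruned sets -/
theorem ev_hP (hW : W.Ok) {Mu : ℕ → ℝ} (hE : Wnd.EOk W E Mu) (hP : Wnd.Pruned W E E' g ex) :
    ∀ᶠ n in (U : Filter ℕ), W.Good n ∧ E' n ⊆ W.Cl n ∧ W.cfg E' n = W.cfg0 n (E' n) := by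
  filter_upwards [Wnd.ev_cfg hW hE hP] with n hn
  exact ⟨hn.1, (hP.sub n).trans hn.2.1, hn.2.2.2⟩

/-- **models with raw twist**: window with raw twist, static conditions, dense set of incidences -/
theorem Tw.model {Fs : Finset (Finset (Fin m))} (hT : ∀ F ∈ Fs, Tw W F s Mx) (h : W.Ok)
    {Mu : ℕ → ℝ} (hE : Wnd.EOk W E Mu) (hED : DenC W s Mx E) (ex : ℕ → ∀ n, ι n → ℕ)
    (hdens : W.lam W.top ≤ W.lam (cut W.S W.top 0) + W.lam (cut W.S 0 W.top)) {σ R : ℝ}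
    (hσ0 : 0 ≤ σ) (hσ1 : σ ≤ 1) (hR : R ≤ W.top W.kz)
    (hfrost : ∀ y, 0 ≤ y → y ≤ R → W.lam (Pi.single W.kz y) ≤ -(σ * y)) :
    ∃ (E' : ∀ n, Finset (ι n)) (g : ℕ → ℝ), Wnd.Pruned W E E' g ex ∧
      (∀ᶠ n in (U : Filter ℕ), g n ≤ 1 + W.B'.L n) ∧
      RModel W.B' (W.cfg E') σ R W.legW W.nu W.Dc ∧ ∀ F ∈ Fs, TwM W E' F s := by
  have hg₀ : Tendsto (fun n => 1 + W.B'.L n) (U : Filter ℕ) atTop :=
    tendsto_atTop.2 fun b => (W.B'.ev_L_ge b).mono fun n hn => by linarith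
  obtain ⟨E', g, h1, h2, h3⟩ := hE.exists_model h ex hg₀ hdens hσ0 hσ1 hR hfrost
  exact ⟨E', g, h1, h2, h3, fun F hF => (hT F hF).twM h hED h1 (IsLoss.one_add_L.mono h2)⟩

end Crest.Agent.R136.Qg4480
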