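import Crest.Agent.R136.Aw1_413
import Crest.Agent.R136.Qg4d_480
import Crest.Agent.R136.Qg4e_480

/-!
# R136 (helper146): raw twist of the pruned sections

* `tw_rawL` : 480's `Tw` for one flag slot gives 413's `RawL` for every pruned section with slow
  loss `g ≤ sqrt (1 + L)`; `tw_rawL'` : for every pruned half-dense section, `g ≤ 1 + L`.
* `TwInZ`, `twInZ` : windows with raw twist inside an outer window `ZWin`.
* `twIn'` : the same for a profile `NProf` (outer window `X = 0`, `w = 1`).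
-/

set_option autoImplicit false
set_option linter.unusedSectionVars false
set_option linter.unusedVariables false

open Filter Topology

namespace Crest.Agent.R136.AwT146

open Finset Crest.Agent.R138.Ex926 Crest.Agent.R136.Net191 Crest.Agent.R136.Gf356
open Crest.Agent.R136.Qg926 Crest.Agent.R136.Dg219 Crest.Agent.R136.Aw413
open Crest.Agent.R136.Qg4480 (Tw ind nearF IsLoss DenC TwM)

section

variable {m : ℕ} {ι : ℕ → Type*} [∀ n, DecidableEq (ι n)]

theorem ind_single (j : Fin m) (e : ℝ) : ind {j} e = Pi.single j e := by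
  funext s
  unfold ind
  by_cases h : s = j
  · subst h; simp
  · rw [if_neg (by simpa using h), Pi.single_eq_of_ne h]

/-- **raw twist of the pruned sections** -/
theorem tw_rawL {W : Wnd m ι} (hW : W.Ok) {j : Fin m} {s : ℕ → ℕ → ℝ} {Mx : ℕ → ℝ}
    (h : Tw W {j} s Mx) {E' : ∀ n, Finset (ι n)} {g : ℕ → ℝ} {ex : ℕ → ∀ n, ι n → ℕ}
    (hP : Wnd.Pruned W W.sec E' g ex)
    (hg : ∀ᶠ n in (U : Filter ℕ), g n ≤ Real.sqrt (1 + W.B'.L n)) : RawL W E' j := by
  classical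
  intro ε hε θ hθ
  filter_upwards [h.near ε hε _ (IsLoss.one_add_L (B' := W.B') (s := s)), h.mult, hg,
    Wnd.ev_cfg hW hW.eok_section hP, W.B'.ev_L_ge ((1 / θ) ^ 2)] with n h1 h2 h3 h4 h5 l hl k hk
  obtain ⟨-, g2, g3, g4⟩ := h4
  rw [g4] at hl hk ⊢
  have hL := W.B'.L_pos n
  -- the incidence
  obtain ⟨x, hx, hxl, hxk⟩ := Wnd.cfg0_hts.1 hk
  have hxs : x ∈ W.sec n := hP.sub n hx
  have hrep : ∀ y ∈ E' n, W.rep n (W.lc n y) (W.zc n y) = y := fun y hy =>
    (Wnd.mem_sec.1 (hP.sub n hy)).2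
  have hCl : ∀ y ∈ E' n, y ∈ W.Cl n := fun y hy => g2 (hP.sub n hy)
  set i : ι n := W.rep n l k with hi
  have hix : i = x := by rw [hi, ← hxl, ← hxk]; exact hrep x hx
  have hiC : i ∈ W.Cl n := by rw [hix]; exact hCl x hx
  set A := ((W.cfg0 n (E' n)).hts l).filter fun k' =>
    |W.crd n i (W.rep n l k') j| ≤ W.B'.d n ^ ε with hA
  have hAsub : A ⊆ (nearF W {j} n ε i).image (W.zc n) := by
    intro k' hk'
    obtain ⟨a1, a2⟩ := mem_filter.1 hk'
    obtain ⟨y, hy, hyl, hyk⟩ := Wnd.cfg0_hts.1 a1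
    have hry : W.rep n l k' = y := by rw [← hyl, ← hyk]; exact hrep y hy
    refine mem_image.2 ⟨y, ?_, hyk⟩
    unfold nearF
    rw [mem_filter]
    refine ⟨hCl y hy, by rw [hyl, hix, hxl], fun s' hs' => ?_⟩
    rw [mem_singleton] at hs'
    subst hs'
    rw [← hry]; exact a2
  have hAc : (A.card : ℝ) ≤ (((nearF W {j} n ε i).image (W.zc n)).card : ℝ) := by
    exact_mod_cast card_le_card hAsub
  have e1 := h1 i hiC
  -- multiplicities
  have e2 : ((W.Cl n).card : ℝ) ≤ Mx n * (((W.Cl n).image (W.pc n)).card : ℝ) := by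
    have e3 : (W.Cl n).card = ∑ p ∈ (W.Cl n).image (W.pc n),
        ((W.Cl n).filter fun y => W.pc n y = p).card :=
      card_eq_sum_card_image (W.pc n) (W.Cl n)
    rw [e3]
    push_cast
    calc ∑ p ∈ (W.Cl n).image (W.pc n), (((W.Cl n).filter fun y => W.pc n y = p).card : ℝ)
        ≤ ∑ _p ∈ (W.Cl n).image (W.pc n), Mx n := by
          refine sum_le_sum fun p hp => ?_
          obtain ⟨y, hy, rfl⟩ := mem_image.1 hp
          refine le_trans ?_ (h2 y hy)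
          refine Nat.cast_le.2 (card_le_card fun z hz => ?_)
          obtain ⟨b1, b2⟩ := mem_filter.1 hz
          exact mem_cls.2 ⟨b1, b2⟩
      _ = Mx n * (((W.Cl n).image (W.pc n)).card : ℝ) := by
          rw [sum_const, nsmul_eq_mul, mul_comm]
  have e4 := hP.hts_sec n hl
  have hMx := h.pos n
  have hlin : (0 : ℝ) < (((W.Cl n).image (W.lc n)).card : ℝ) := by
    have : 0 < ((W.Cl n).image (W.lc n)).card := card_pos.2 ⟨_, mem_image_of_mem _ hiC⟩
    exact_mod_cast this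
  set H : ℝ := (((W.cfg0 n (E' n)).hts l).card : ℝ) with hH
  have hH0 : 0 ≤ H := Nat.cast_nonneg _
  -- `(1 + L) * #A ≤ g * H`
  have e5 : (1 + W.B'.L n) * (A.card : ℝ) ≤ g n * H := by
    have f1 : (1 + W.B'.L n) * ((A.card : ℝ) * (Mx n * (((W.Cl n).image (W.lc n)).card : ℝ))) ≤
        Mx n * (((W.Cl n).image (W.pc n)).card : ℝ) := by
      refine le_trans ?_ (e1.trans e2)
      refine mul_le_mul_of_nonneg_left ?_ (by linarith)
      exact mul_le_mul_of_nonneg_right hAc (by positivity)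
    have f2 : Mx n * (((W.Cl n).image (W.pc n)).card : ℝ) ≤
        Mx n * (g n * (((W.Cl n).image (W.lc n)).card : ℝ) * H) :=
      mul_le_mul_of_nonneg_left e4 hMx.le
    have f3 : (Mx n * (((W.Cl n).image (W.lc n)).card : ℝ)) * ((1 + W.B'.L n) * (A.card : ℝ)) ≤
        (Mx n * (((W.Cl n).image (W.lc n)).card : ℝ)) * (g n * H) := by
      nlinarith [f1, f2]
    exact le_of_mul_le_mul_left f3 (by positivity)
  -- conclusion
  set r : ℝ := Real.sqrt (1 + W.B'.L n) with hr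
  have hr2 : r * r = 1 + W.B'.L n := Real.mul_self_sqrt (by linarith)
  have hr0 : 0 < r := Real.sqrt_pos.2 (by linarith)
  have hrθ : 1 / θ ≤ r := by
    rw [hr]
    apply Real.le_sqrt_of_sq_le
    linarith
  have e6 : r * (r * (A.card : ℝ)) ≤ r * H := by
    calc r * (r * (A.card : ℝ)) = (1 + W.B'.L n) * (A.card : ℝ) := by rw [← hr2]; ring
      _ ≤ g n * H := e5
      _ ≤ r * H := mul_le_mul_of_nonneg_right h3 hH0
  have e7 : r * (A.card : ℝ) ≤ H := le_of_mul_le_mul_left e6 hr0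
  have e8 : 1 / θ * (A.card : ℝ) ≤ H :=
    (mul_le_mul_of_nonneg_right hrθ (Nat.cast_nonneg _)).trans e7
  have e9 : (A.card : ℝ) ≤ θ * H := by
    have := mul_le_mul_of_nonneg_left e8 hθ.le
    rwa [← mul_assoc, mul_one_div_cancel hθ.ne', one_mul] at this
  exact e9

/-- half-dense sections are dense for 480's multiplicity scale -/
theorem denC_HD {W : Wnd m ι} {s : ℕ → ℕ → ℝ} {Mx : ℕ → ℝ} (hM0 : ∀ n, 0 < Mx n)
    (hM : ∀ᶠ n in (U : Filter ℕ), ∀ i ∈ W.Cl n, ((cls (W.Cl n) (W.pc n) i).card : ℝ) ≤ Mx n)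
    {E : ∀ n, Finset (ι n)} (hE : HD W E) : DenC W s Mx E := by
  classical
  refine ⟨fun _ => 1, fun _ => 2, IsLoss.const 2, ?_⟩
  filter_upwards [hM, hE] with n h1 h2
  refine ⟨zero_le_two, one_pos, h2.1.trans (filter_subset _ _), fun i hi => ?_, ?_⟩
  · have h3 : (cls (E n) (W.pc n) i).card ≤ 1 := by
      rw [card_le_one]
      intro a ha b hb
      obtain ⟨a1, a2⟩ := mem_cls.1 ha
      obtain ⟨b1, b2⟩ := mem_cls.1 hb
      exact Wnd.sec_inj (h2.1 a1) (h2.1 b1) (a2.trans b2.symm)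
    exact_mod_cast h3
  · rw [mul_one]
    exact h2.2 _ (hM0 n).le h1

/-- **raw twist of the pruned half-dense sections** -/
theorem tw_rawL' {W : Wnd m ι} (hW : W.Ok) {j : Fin m} {s : ℕ → ℕ → ℝ} {Mx : ℕ → ℝ}
    (h : Tw W {j} s Mx) {E E' : ∀ n, Finset (ι n)} (hE : HD W E) {g : ℕ → ℝ}
    {ex : ℕ → ∀ n, ι n → ℕ} (hP : Wnd.Pruned W E E' g ex)
    (hg : ∀ᶠ n in (U : Filter ℕ), g n ≤ 1 + W.B'.L n) : RawL W E' j := by
  classical
  intro ε hε θ hθ
  have h1 := h.twM hW (denC_HD h.pos h.mult hE) hP (IsLoss.one_add_L.mono hg) ε hε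
    (fun _ => 1 / θ) (IsLoss.const _)
  filter_upwards [h1] with n hn l hl k hk
  have h2 := hn l hl k hk
  have e : ((W.cfg E' n).hts l).filter (fun k' =>
      |W.crd n (W.rep n l k) (W.rep n l k') j| ≤ W.B'.d n ^ ε) =
      ((W.cfg E' n).hts l).filter (fun k' => ∀ f ∈ ({j} : Finset (Fin m)),
        |W.crd n (W.rep n l k) (W.rep n l k') f| ≤ W.B'.d n ^ ε) :=
    filter_congr fun k' _ => by simp
  rw [e]
  have h3 := mul_le_mul_of_nonneg_left h2 hθ.le
  rwa [← mul_assoc, mul_one_div_cancel hθ.ne', one_mul] at h3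

end

/-! ### windows with raw twist -/

/-- **raw twist theorem inside an outer window** -/
def TwInZ (m : ℕ) (ι : ℕ → Type) [∀ n, DecidableEq (ι n)] : Prop :=
  ∀ (B B₁ : Base) (I J : ∀ n, Finset (ι n)) (co : ∀ n, ι n → ι n → Fin m → ℝ) (M : Mons m)
    (C : ℝ) (X : ℕ → Fin m → ℝ) (wx : ℕ → ℝ) (P : Set (Fin m → ℝ)) (T : ℕ → ℝ)
    (ν : (Fin m → ℝ) → ℝ), ZWin B B₁ I J co M C X wx P T ν →
    ∀ (x : ℕ → Fin m → ℝ) (b : ℝ), (∀ l, ‖x l‖ ≤ b) → ∀ h : ℕ → ℝ, (∀ l, 0 < h l) →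
    Tendsto h atTop (𝓝 0) → ∀ D : Set (Fin m → ℝ),
    (0 : Fin m → ℝ) ∈ D → ∀ lam : (Fin m → ℝ) → ℝ, IsTan P D ν x h lam →
    ∀ st : WSt m, st.Ok M D → ∀ s : ℕ → ℕ → ℝ, (∀ i, B₁.Sub (s i)) → ∀ F : Finset (Fin m),
    F ⊆ st.S →
    (∀ j ∈ F, 0 < st.top j ∧ ∃ e0 : ℝ, 0 < e0 ∧ ∀ e, 0 < e → e ≤ e0 →
      cut st.S st.top (Pi.single j e) ∈ D ∧
      ∀ᶠ l in atTop, ν (x l + h l • cut st.S st.top (Pi.single j e)) <
        ν (x l + h l • cut st.S st.top 0)) →
    ∃ (k : ℕ → ℕ) (B' : Base) (T' : ℕ → ℝ) (Cl : ∀ n, Finset (ι n)) (s₀ : ∀ n, ι n),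
      Tendsto k U atTop ∧ (∀ n, B'.d n = B₁.d n ^ h (k n)) ∧ (∀ i, B'.Sub (s i)) ∧
      (∀ᶠ n in (U : Filter ℕ), Cl n ⊆ J n) ∧
      (st.wnd B B' I J co M C (fun n => X n + wx n • x (k n)) (fun n => wx n * h (k n)) D T' lam
        Cl s₀).Ok ∧
      ∃ Xg : ℕ → ℝ, Tendsto Xg U atTop ∧
        ∀ E : ∀ n, Finset (ι n), HD (st.wnd B B' I J co M C (fun n => X n + wx n • x (k n))
            (fun n => wx n * h (k n)) D T' lam Cl s₀) E →
        ∀ (E' : ∀ n, Finset (ι n)) (g : ℕ → ℝ) (ex : ℕ → ∀ n, ι n → ℕ),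
          Wnd.Pruned (st.wnd B B' I J co M C (fun n => X n + wx n • x (k n))
            (fun n => wx n * h (k n)) D T' lam Cl s₀) E E' g ex →
          (∀ᶠ n in (U : Filter ℕ), g n ≤ Xg n) →
          ∀ j ∈ F, RawL
            (st.wnd B B' I J co M C (fun n => X n + wx n • x (k n)) (fun n => wx n * h (k n)) D
              T' lam Cl s₀) E' j

variable {m : ℕ} {ι : ℕ → Type} [∀ n, DecidableEq (ι n)] [∀ n, Nonempty (ι n)]

/-- a common small number -/
theorem exists_common {α : Type*} [DecidableEq α] (F : Finset α) (P : α → ℝ → Prop)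
    (h : ∀ j ∈ F, ∃ e0 : ℝ, 0 < e0 ∧ ∀ e, 0 < e → e ≤ e0 → P j e) :
    ∃ e0 : ℝ, 0 < e0 ∧ ∀ j ∈ F, ∀ e, 0 < e → e ≤ e0 → P j e := by
  induction F using Finset.induction_on with
  | empty => exact ⟨1, one_pos, fun j hj => absurd hj (notMem_empty _)⟩
  | insert a s has ih =>
    obtain ⟨e1, h1, h2⟩ := ih fun j hj => h j (mem_insert_of_mem hj)
    obtain ⟨e2, h3, h4⟩ := h a (mem_insert_self _ _)
    refine ⟨min e1 e2, lt_min h1 h3, fun j hj e he hee => ?_⟩
    rcases mem_insert.1 hj with rfl | hj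
    · exact h4 e he (hee.trans (min_le_right _ _))
    · exact h2 j hj e he (hee.trans (min_le_left _ _))

theorem twInZ : TwInZ m ι := by
  classical
  intro B B₁ I J co M C X wx P T ν hZ x b hx h hpos hh D h0 lam htan st hst s hs F hFS hF
  obtain ⟨e1, he1, hF1⟩ := exists_common F (fun j e => e ≤ st.top j ∧
      cut st.S st.top (Pi.single j e) ∈ D ∧
      ∀ᶠ l in atTop, ν (x l + h l • cut st.S st.top (Pi.single j e)) <
        ν (x l + h l • cut st.S st.top 0)) (fun j hj => by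
    obtain ⟨t, e0, he0, hd⟩ := hF j hj
    exact ⟨min (st.top j) e0, lt_min t he0, fun e he hee =>
      ⟨hee.trans (min_le_left _ _), (hd e he (hee.trans (min_le_right _ _))).1,
        (hd e he (hee.trans (min_le_right _ _))).2⟩⟩)
  set Fs : Finset (Finset (Fin m)) := F.image fun j => {j} with hFs
  have hmem : ∀ F' ∈ Fs, ∃ j ∈ F, F' = {j} := by
    intro F' hF'
    obtain ⟨j, hj, rfl⟩ := mem_image.1 hF'
    exact ⟨j, hj, rfl⟩
  obtain ⟨k, hk, hk2⟩ := hZ.exists_wnd_tw hx hpos hh h0 htan hZ.T0 hZ.prof h0 htan hst s hs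
    (fun n => Classical.arbitrary (ι n)) (E := J) (Eventually.of_forall fun n => Subset.refl _) 0 0
    (Eventually.of_forall fun n => by simp) Fs he1
    (fun F' hF' => by
      obtain ⟨j, hj, rfl⟩ := hmem F' hF'
      exact singleton_subset_iff.2 (hFS hj))
    (fun F' hF' i hi => by
      obtain ⟨j, hj, rfl⟩ := hmem F' hF'
      rw [mem_singleton] at hi
      subst hi
      exact (hF1 i hj e1 he1 le_rfl).1)
    (fun F' hF' e he hee => by
      obtain ⟨j, hj, rfl⟩ := hmem F' hF'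
      rw [ind_single]
      exact (hF1 j hj e he hee).2.1)
    (fun F' hF' e he hee => by
      obtain ⟨j, hj, rfl⟩ := hmem F' hF'
      rw [ind_single]
      exact (hF1 j hj e he hee).2.2)
  obtain ⟨B', Gd, s₀, Mx, b1, b2, b3, b4, b5, b6, -, b8, b9⟩ := hk2 k hk
    (Eventually.of_forall fun n => le_rfl)
  refine ⟨k, B', _, _, s₀, hk, b1, b3, ?_, b8, fun n => 1 + B'.L n, ?_, ?_⟩
  · exact Eventually.of_forall fun n => (filter_subset _ _).trans (b4 n)
  · exact tendsto_atTop_add_const_left _ _ B'.L_tendsto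
  · intro E hE E' g ex hP hg j hj
    exact tw_rawL' b8 (b9 {j} (mem_image_of_mem _ hj)) hE hP hg

/-- 413's `TwIn` with the (necessary) hypothesis `0 < top j` for the twist slots -/
def TwIn' (m : ℕ) (ι : ℕ → Type) [∀ n, DecidableEq (ι n)] : Prop :=
  ∀ (B : Base) (I J : ∀ n, Finset (ι n)) (co : ∀ n, ι n → ι n → Fin m → ℝ) (M : Mons m)
    (C R : ℝ) (ν : (Fin m → ℝ) → ℝ), NProf B I J co M C R ν →
    ∀ (x : ℕ → Fin m → ℝ) (h : ℕ → ℝ), (∀ l, 0 < h l) → ∀ D : Set (Fin m → ℝ),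
    (0 : Fin m → ℝ) ∈ D → ∀ lam : (Fin m → ℝ) → ℝ, IsTan (Leg M R) D ν x h lam →
    ∀ st : WSt m, st.Ok M D → ∀ s : ℕ → ℕ → ℝ, (∀ i, B.Sub (s i)) → ∀ F : Finset (Fin m),
    F ⊆ st.S →
    (∀ j ∈ F, 0 < st.top j ∧ ∃ e0 : ℝ, 0 < e0 ∧ ∀ e, 0 < e → e ≤ e0 →
      cut st.S st.top (Pi.single j e) ∈ D ∧
      ∀ᶠ l in atTop, ν (x l + h l • cut st.S st.top (Pi.single j e)) <
        ν (x l + h l • cut st.S st.top 0)) →
    ∃ (k : ℕ → ℕ) (B' : Base) (T : ℕ → ℝ) (Cl : ∀ n, Finset (ι n)) (s₀ : ∀ n, ι n),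
      Tendsto k U atTop ∧ (∀ n, B'.d n = B.d n ^ h (k n)) ∧ (∀ i, B'.Sub (s i)) ∧
      (∀ᶠ n in (U : Filter ℕ), Cl n ⊆ J n) ∧
      (st.wnd B B' I J co M C (fun n => x (k n)) (fun n => h (k n)) D T lam Cl s₀).Ok ∧
      ∃ Xg : ℕ → ℝ, Tendsto Xg U atTop ∧
        ∀ E : ∀ n, Finset (ι n),
          HD (st.wnd B B' I J co M C (fun n => x (k n)) (fun n => h (k n)) D T lam Cl s₀) E →
        ∀ (E' : ∀ n, Finset (ι n)) (g : ℕ → ℝ) (ex : ℕ → ∀ n, ι n → ℕ),
          Wnd.Pruned (st.wnd B B' I J co M C (fun n => x (k n)) (fun n => h (k n)) D T lam Cl s₀)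
            E E' g ex →
          (∀ᶠ n in (U : Filter ℕ), g n ≤ Xg n) →
          ∀ j ∈ F, RawL
            (st.wnd B B' I J co M C (fun n => x (k n)) (fun n => h (k n)) D T lam Cl s₀) E' j

theorem twIn' : TwIn' m ι := by
  classical
  intro B I J co M C R ν hN x h hpos D h0 lam htan st hst s hs F hFS hF
  obtain ⟨e1, he1, hF1⟩ := exists_common F (fun j e => e ≤ st.top j ∧
      cut st.S st.top (Pi.single j e) ∈ D ∧
      ∀ᶠ l in atTop, ν (x l + h l • cut st.S st.top (Pi.single j e)) <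
        ν (x l + h l • cut st.S st.top 0)) (fun j hj => by
    obtain ⟨t, e0, he0, hd⟩ := hF j hj
    exact ⟨min (st.top j) e0, lt_min t he0, fun e he hee =>
      ⟨hee.trans (min_le_left _ _), (hd e he (hee.trans (min_le_right _ _))).1,
        (hd e he (hee.trans (min_le_right _ _))).2⟩⟩)
  set Fs : Finset (Finset (Fin m)) := F.image fun j => {j} with hFs
  have hmem : ∀ F' ∈ Fs, ∃ j ∈ F, F' = {j} := by
    intro F' hF'
    obtain ⟨j, hj, rfl⟩ := mem_image.1 hF'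
    exact ⟨j, hj, rfl⟩
  obtain ⟨k, hk, hk2⟩ := Qg4480.exists_wnd_tw hN hpos h0 htan hst s hs
    (fun n => Classical.arbitrary (ι n)) (E := J) (Eventually.of_forall fun n => Subset.refl _) 0 0
    (Eventually.of_forall fun n => by simp) Fs he1
    (fun F' hF' => by
      obtain ⟨j, hj, rfl⟩ := hmem F' hF'
      exact singleton_subset_iff.2 (hFS hj))
    (fun F' hF' i hi => by
      obtain ⟨j, hj, rfl⟩ := hmem F' hF'
      rw [mem_singleton] at hi
      subst hi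
      exact (hF1 i hj e1 he1 le_rfl).1)
    (fun F' hF' e he hee => by
      obtain ⟨j, hj, rfl⟩ := hmem F' hF'
      rw [ind_single]
      exact (hF1 j hj e he hee).2.1)
    (fun F' hF' e he hee => by
      obtain ⟨j, hj, rfl⟩ := hmem F' hF'
      rw [ind_single]
      exact (hF1 j hj e he hee).2.2)
  obtain ⟨B', Gd, s₀, Mx, b1, b2, b3, b4, b5, b6, b8, b9⟩ := hk2 k hk
    (Eventually.of_forall fun n => le_rfl)
  refine ⟨k, B', _, _, s₀, hk, b1, b3, ?_, b8, fun n => 1 + B'.L n, ?_, ?_⟩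
  · exact Eventually.of_forall fun n => (filter_subset _ _).trans (b4 n)
  · exact tendsto_atTop_add_const_left _ _ B'.L_tendsto
  · intro E hE E' g ex hP hg j hj
    exact tw_rawL' b8 (b9 {j} (mem_image_of_mem _ hj)) hE hP hg

end Crest.Agent.R136.AwT146
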