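import Crest.Agent.R136.Net1_191

/-!
# Abstract triangular charts (helper191), part 1b: packing
-/

set_option autoImplicit false

namespace Crest.Agent.R136.Net191

open Finset

variable {m : ℕ} {ι : Type*} {I : Finset ι} {co : ι → ι → Fin m → ℝ} {M : Mons m} {C : ℝ}

theorem Chart.pack_aux (h : Chart I co M C) {p p' : Fin m → ℝ} (hp' : Legal M p') (hpp : p ≤ p')
    {d : ℝ} (hd : 0 < d) (hd1 : d ≤ 1) {K η : ℝ} (hK : 1 ≤ K) (hη : 0 < η)
    (hη' : η * (2 + C * M.cnt) ^ m ≤ 1) : ∀ t ≤ m, ∀ A ⊆ I,
      (∀ j ∈ A, ∀ l ∈ A, Near co d p K j l) →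
      (∀ j ∈ A, ∀ l ∈ A, ∀ s : Fin m, s.val < m - t →
        |co j l s| ≤ η * (2 + C * M.cnt) ^ (m - t) * d ^ p' s) →
      (∀ j ∈ A, ∀ l ∈ A, j ≠ l → ¬ Near co d p' 1 j l) →
      (A.card : ℝ) ≤ (2 * K / η + 2) ^ t *
        ∏ s ∈ Finset.univ.filter (fun s : Fin m => m - t ≤ s.val), d ^ (-(p' s - p s)) := by
  classical
  have hC0 := h.C0
  have hc2 : 1 ≤ 2 + C * M.cnt := by
    have : 0 ≤ C * M.cnt := mul_nonneg hC0 (Nat.cast_nonneg _)
    linarith
  have hH : 0 ≤ 2 * K / η + 2 := by
    have : 0 ≤ 2 * K / η := by positivity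
    linarith
  intro t
  induction t with
  | zero =>
    intro _ A _ _ hclose hsep
    have h1 : A.card ≤ 1 := by
      rw [Finset.card_le_one]
      intro j hj l hl
      by_contra hne
      refine hsep j hj l hl hne fun k => ?_
      refine (hclose j hj l hl k (by simpa using k.isLt)).trans ?_
      refine mul_le_mul_of_nonneg_right ?_ (Real.rpow_nonneg hd.le _)
      simpa using hη'
    have h2 : (Finset.univ.filter fun s : Fin m => m - 0 ≤ s.val) = ∅ := by
      rw [Finset.filter_eq_empty_iff]
      intro s _ hs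
      have := s.isLt
      omega
    rw [h2, Finset.prod_empty, pow_zero, mul_one]
    exact_mod_cast h1
  | succ t ih =>
    intro ht A hAI hnear hclose hsep
    set n := m - (t + 1) with hn
    have hn1 : n + 1 = m - t := by omega
    have hnm : n < m := by omega
    set s0 : Fin m := ⟨n, hnm⟩ with hs0
    -- the product splits
    have hfil : (Finset.univ.filter fun s : Fin m => n ≤ s.val) =
        insert s0 (Finset.univ.filter fun s : Fin m => m - t ≤ s.val) := by
      ext s
      simp only [Finset.mem_filter, Finset.mem_univ, true_and, Finset.mem_insert]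
      rw [← hn1]
      constructor
      · intro hs
        rcases Nat.eq_or_lt_of_le hs with h1 | h1
        · left; exact Fin.ext h1.symm
        · right; omega
      · rintro (rfl | hs)
        · exact le_rfl
        · omega
    have hnot : s0 ∉ (Finset.univ.filter fun s : Fin m => m - t ≤ s.val) := by
      simp only [Finset.mem_filter, Finset.mem_univ, true_and, not_le, hs0]
      omega
    rw [hfil, Finset.prod_insert hnot]
    set Wt : ℝ := ∏ s ∈ Finset.univ.filter (fun s : Fin m => m - t ≤ s.val), d ^ (-(p' s - p s))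
      with hWt
    have hWt0 : 0 ≤ Wt := Finset.prod_nonneg fun s _ => Real.rpow_nonneg hd.le _
    rcases A.eq_empty_or_nonempty with rfl | ⟨r, hr⟩
    · simp only [Finset.card_empty, Nat.cast_zero]
      have : 0 ≤ d ^ (-(p' s0 - p s0)) := Real.rpow_nonneg hd.le _
      positivity
    -- the partition by the coordinate `s0`
    set η0 : ℝ := η * d ^ p' s0 with hη0
    have hη0pos : 0 < η0 := mul_pos hη (Real.rpow_pos_of_pos hd _)
    set φ : ι → ℤ := fun j => ⌊co r j s0 / η0⌋ with hφ
    have hfib : ∀ z ∈ A.image φ, ((A.filter fun j => φ j = z).card : ℝ) ≤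
        (2 * K / η + 2) ^ t * Wt := by
      intro z _
      refine ih (by omega) _ ((Finset.filter_subset _ _).trans hAI) ?_ ?_ ?_
      · intro j hj l hl
        exact hnear j (Finset.mem_filter.mp hj).1 l (Finset.mem_filter.mp hl).1
      · intro j hj l hl s hs
        obtain ⟨hjA, hjz⟩ := Finset.mem_filter.mp hj
        obtain ⟨hlA, hlz⟩ := Finset.mem_filter.mp hl
        rw [← hn1] at hs ⊢
        have hstep : η * (2 + C * M.cnt) ^ n ≤ η * (2 + C * M.cnt) ^ (n + 1) :=
          mul_le_mul_of_nonneg_left (pow_le_pow_right₀ hc2 (Nat.le_succ n)) hη.le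
        rcases Nat.lt_or_ge s.val n with hlt | hge
        · exact (hclose j hjA l hlA s hlt).trans
            (mul_le_mul_of_nonneg_right hstep (Real.rpow_nonneg hd.le _))
        · have hsn : s = s0 := Fin.ext (by simp only [hs0]; omega)
          rw [hsn]
          have hθ1 : η * (2 + C * M.cnt) ^ n ≤ 1 := by
            refine le_trans ?_ hη'
            exact mul_le_mul_of_nonneg_left (pow_le_pow_right₀ hc2 hnm.le) hη.le
          have h3 := h.add r (hAI hr) j (hAI hjA) l (hAI hlA) s0
          have h4 := err_le_small hp' hd hd1 s0 hC0 (θ := η * (2 + C * M.cnt) ^ n)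
            (by positivity) hθ1 (x := fun s => max |co r j s| |co j l s|)
            (fun s => (abs_nonneg _).trans (le_max_left _ _)) (fun s hs' => by
              have : s.val < n := hs'
              exact max_le (hclose r hr j hjA s this) (hclose j hjA l hlA s this))
          have h5 : |co r l s0 - co r j s0| ≤ η0 := by
            have e1 : φ l = φ j := by rw [hlz, hjz]
            simp only [hφ] at e1
            have h6 := Int.abs_sub_lt_one_of_floor_eq_floor e1
            have e2 : co r l s0 - co r j s0 = η0 * (co r l s0 / η0 - co r j s0 / η0) := by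
              field_simp
            rw [e2, abs_mul, abs_of_pos hη0pos]
            calc η0 * |co r l s0 / η0 - co r j s0 / η0| ≤ η0 * 1 :=
                  mul_le_mul_of_nonneg_left h6.le hη0pos.le
              _ = η0 := mul_one _
          have e : co j l s0 = (co r l s0 - co r j s0) -
              (co r l s0 - co r j s0 - co j l s0) := by ring
          rw [e]
          have a1 := abs_sub (co r l s0 - co r j s0) (co r l s0 - co r j s0 - co j l s0)
          have hone : 1 ≤ (2 + C * M.cnt) ^ n := one_le_pow₀ hc2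
          have hd0 : 0 ≤ d ^ p' s0 := Real.rpow_nonneg hd.le _
          have h7 : η0 + C * M.cnt * (η * (2 + C * M.cnt) ^ n) * d ^ p' s0 ≤
              η * (2 + C * M.cnt) ^ (n + 1) * d ^ p' s0 := by
            rw [hη0]
            have e3 : η * (2 + C * M.cnt) ^ (n + 1) * d ^ p' s0 -
                (η * d ^ p' s0 + C * M.cnt * (η * (2 + C * M.cnt) ^ n) * d ^ p' s0) =
                η * d ^ p' s0 * (2 * (2 + C * M.cnt) ^ n - 1) := by ring
            have : 0 ≤ η * d ^ p' s0 * (2 * (2 + C * M.cnt) ^ n - 1) :=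
              mul_nonneg (mul_nonneg hη.le hd0) (by linarith)
            linarith
          linarith
      · intro j hj l hl hne
        exact hsep j (Finset.mem_filter.mp hj).1 l (Finset.mem_filter.mp hl).1 hne
    -- number of cells
    set w : ℝ := d ^ (-(p' s0 - p s0)) with hw
    have hw1 : 1 ≤ w := by
      rw [hw]
      exact Real.one_le_rpow_of_pos_of_le_one_of_nonpos hd hd1 (by linarith [hpp s0])
    have himg : ((A.image φ).card : ℝ) ≤ (2 * K / η + 2) * w := by
      set x : ℝ := K / η * w with hx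
      have hx0 : 0 ≤ x := by positivity
      have hsub : A.image φ ⊆ Finset.Icc ⌊-x⌋ ⌊x⌋ := by
        intro z hz
        rw [Finset.mem_image] at hz
        obtain ⟨j, hj, rfl⟩ := hz
        have h1 := hnear r hr j hj s0
        have h2 : |co r j s0 / η0| ≤ x := by
          rw [abs_div, abs_of_pos hη0pos, div_le_iff₀ hη0pos]
          refine h1.trans (le_of_eq ?_)
          rw [hx, hη0, hw]
          have e1 : d ^ (-(p' s0 - p s0)) * d ^ p' s0 = d ^ p s0 := by
            rw [← Real.rpow_add hd]; congr 1; ring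
          rw [← e1]
          field_simp
        rw [abs_le] at h2
        rw [Finset.mem_Icc]
        exact ⟨Int.floor_le_floor h2.1, Int.floor_le_floor h2.2⟩
      have h1 := Finset.card_le_card hsub
      rw [Int.card_Icc] at h1
      have h2 : ((⌊x⌋ + 1 - ⌊-x⌋).toNat : ℝ) ≤ 2 * x + 2 := by
        have h3 : 0 ≤ ⌊x⌋ + 1 - ⌊-x⌋ := by
          have : ⌊-x⌋ ≤ ⌊x⌋ := Int.floor_le_floor (by linarith)
          omega
        have h4 : ((⌊x⌋ + 1 - ⌊-x⌋).toNat : ℝ) = ((⌊x⌋ + 1 - ⌊-x⌋ : ℤ) : ℝ) := by
          have := Int.toNat_of_nonneg h3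
          exact_mod_cast this
        rw [h4]
        push_cast
        have h5 := Int.floor_le x
        have h6 := Int.lt_floor_add_one (-x)
        linarith
      have h3 : ((A.image φ).card : ℝ) ≤ 2 * x + 2 := by
        refine le_trans ?_ h2
        exact_mod_cast h1
      refine h3.trans ?_
      rw [hx]
      have : 2 * (K / η * w) + 2 ≤ 2 * (K / η * w) + 2 * w := by linarith
      refine this.trans (le_of_eq ?_)
      ring
    calc (A.card : ℝ) = ∑ z ∈ A.image φ, ((A.filter fun j => φ j = z).card : ℝ) := by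
          rw [Finset.card_eq_sum_card_image φ A]
          push_cast
          rfl
      _ ≤ ∑ _z ∈ A.image φ, (2 * K / η + 2) ^ t * Wt := Finset.sum_le_sum hfib
      _ = ((A.image φ).card : ℝ) * ((2 * K / η + 2) ^ t * Wt) := by
          rw [Finset.sum_const, nsmul_eq_mul]
      _ ≤ ((2 * K / η + 2) * w) * ((2 * K / η + 2) ^ t * Wt) :=
          mul_le_mul_of_nonneg_right himg (mul_nonneg (pow_nonneg hH _) hWt0)
      _ = (2 * K / η + 2) ^ (t + 1) * (w * Wt) := by ring

/-- constants of the packing -/
noncomputable def pkη (M : Mons m) (C : ℝ) : ℝ := ((2 + C * M.cnt) ^ m)⁻¹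

noncomputable def pkC (M : Mons m) (C K : ℝ) : ℝ :=
  (2 * triC M C (symC M C K m) / pkη M C + 2) ^ m

/-- **PACKING**: a `p'`-separated set inside a `p`-ball -/
theorem Chart.pack (h : Chart I co M C) {p p' : Fin m → ℝ} (hp : Legal M p) (hp' : Legal M p')
    (hpp : p ≤ p') {d : ℝ} (hd : 0 < d) (hd1 : d ≤ 1) {K : ℝ} (hK : 1 ≤ K) {i : ι} (hi : i ∈ I)
    {A : Finset ι} (hA : A ⊆ I) (hnear : ∀ j ∈ A, Near co d p K i j)
    (hsep : ∀ j ∈ A, ∀ l ∈ A, j ≠ l → ¬ Near co d p' 1 j l) :
    (A.card : ℝ) ≤ pkC M C K * d ^ (-(∑ s, (p' s - p s))) := by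
  have hC0 := h.C0
  have hc2 : 1 ≤ 2 + C * M.cnt := by
    have : 0 ≤ C * M.cnt := mul_nonneg hC0 (Nat.cast_nonneg _)
    linarith
  have hs1 : K ≤ symC M C K m := symC_ge M hC0 hK m
  have hs : 1 ≤ symC M C K m := hK.trans hs1
  have ht : 1 ≤ triC M C (symC M C K m) := by
    unfold triC
    have : 0 ≤ C * M.cnt * symC M C K m ^ M.deg := by positivity
    linarith
  have hpair : ∀ j ∈ A, ∀ l ∈ A, Near co d p (triC M C (symC M C K m)) j l := by
    intro j hj l hl
    have h1 := h.symm hp hd hd1 hK hi (hA hj) (hnear j hj)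
    have h2 := (hnear l hl).mono hd hs1
    exact h.tri hp hd hd1 hs (hA hj) hi (hA hl) h1 h2
  have hη : 0 < pkη M C := by unfold pkη; positivity
  have hη' : pkη M C * (2 + C * M.cnt) ^ m ≤ 1 := by
    unfold pkη
    rw [inv_mul_cancel₀ (by positivity)]
  have key := h.pack_aux hp' hpp hd hd1 ht hη hη' m le_rfl A hA hpair (fun j _ l _ s hs => by
    simp at hs) hsep
  refine key.trans (le_of_eq ?_)
  have e1 : (Finset.univ.filter fun s : Fin m => m - m ≤ s.val) = Finset.univ := by
    rw [Finset.filter_true_of_mem]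
    intro s _
    simp
  rw [e1]
  unfold pkC
  congr 1
  rw [← Real.rpow_sum_of_pos hd, Finset.sum_neg_distrib]

end Crest.Agent.R136.Net191
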