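import Crest.Agent.R136.NetW2_191
import Crest.Agent.R136.Net1b_191

/-!
# The W-chart (helper191), part 3: `chartW : Chart I (coW ..) monW 67`

Coordinates (of the flagged line `j` seen from `i`): `0 z, 1 c, 2 A, 3 B`, then `4 .. 17` =
coefficients of `Y², BY, AY, B², zY, AB, A², zB, zA, z² (R), B, A, z (P), 1 (N)` of
`G_j - G_i` in the frame of `j`.
-/

set_option autoImplicit false

namespace Crest.Agent.R136.NetW191

open Finset Crest.Agent.R136.Net191

/-- a line with a quadratic flag: frame and flag (the line lies on its sheet) -/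
structure FW where
  g : Fin 4 → ℝ
  G : Fin 14 → ℝ

/-- relative coordinates -/
def coW (κ : ℝ) (f f' : FW) : Fin 18 → ℝ :=
  Fin.append (m := 4) (n := 14) (rel κ f.g f'.g) (tr κ f'.g (f'.G - f.G))

lemma coW_left (κ : ℝ) (f f' : FW) (i : Fin 4) :
    coW κ f f' (Fin.castAdd 14 i) = rel κ f.g f'.g i := Fin.append_left _ _ _

lemma coW_right (κ : ℝ) (f f' : FW) (q : Fin 14) :
    coW κ f f' (Fin.natAdd 4 q) = tr κ f'.g (f'.G - f.G) q := Fin.append_right _ _ _

/-- indices of a term -/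
def Tm.idx (t : Tm) : List (Fin 18) :=
  t.hl.map (fun i => (Fin.castAdd 14 i : Fin 18)) ++ [Fin.natAdd 4 t.s]

/-- the monomials of the four frame coordinates -/
def mh : Fin 4 → List (List (Fin 18)) := ![[], [], [[1, 0]], [[1, 2], [1, 1, 0]]]

/-- the monomials of the W-chart -/
def mlW : Fin 18 → List (List (Fin 18)) :=
  Fin.append (m := 4) (n := 14) mh fun q => (tms q).map Tm.idx

lemma mlW_left (i : Fin 4) : mlW (Fin.castAdd 14 i) = mh i := Fin.append_left _ _ _

lemma mlW_right (q : Fin 14) : mlW (Fin.natAdd 4 q) = (tms q).map Tm.idx :=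
  Fin.append_right _ _ _

lemma mlW_low : ∀ k, ∀ l ∈ mlW k, ∀ s ∈ l, s < k := by decide

lemma mlW_ne : ∀ k, ∀ l ∈ mlW k, l ≠ [] := by decide

/-- **the walls of the W-chart** -/
def monW : Mons 18 := ofLists mlW mlW_low mlW_ne

lemma abs_prod_le {h X : Fin 4 → ℝ} (hh : ∀ i, |h i| ≤ X i) (l : List (Fin 4)) :
    |(l.map h).prod| ≤ (l.map X).prod := by
  induction l with
  | nil => simp
  | cons a l ih =>
    simp only [List.map_cons, List.prod_cons, abs_mul]
    exact mul_le_mul (hh a) ih (abs_nonneg _) ((abs_nonneg _).trans (hh a))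

lemma ev_le {κ : ℝ} (hκ : |κ| ≤ 1) {h : Fin 4 → ℝ} {w : Fin 14 → ℝ} {X : Fin 18 → ℝ}
    (hh : ∀ i : Fin 4, |h i| ≤ X (Fin.castAdd 14 i)) (hw : ∀ q : Fin 14, |w q| ≤ X (Fin.natAdd 4 q))
    (t : Tm) : |t.ev κ h w| ≤ |(t.n : ℝ)| * (t.idx.map X).prod := by
  have e1 : (t.idx.map X).prod =
      (t.hl.map fun i => X (Fin.castAdd 14 i)).prod * X (Fin.natAdd 4 t.s) := by
    simp [Tm.idx, List.map_append, List.prod_append, Function.comp_def]
  have h1 := abs_prod_le (X := fun i => X (Fin.castAdd 14 i)) hh t.hl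
  have h2 : |κ| ^ t.e ≤ 1 := pow_le_one₀ (abs_nonneg _) hκ
  rw [e1, Tm.ev, abs_mul, abs_mul, abs_mul, abs_pow]
  have h3 : |(t.n : ℝ)| * |κ| ^ t.e ≤ |(t.n : ℝ)| := by
    have := mul_le_mul_of_nonneg_left h2 (abs_nonneg (t.n : ℝ))
    linarith
  have h4 : 0 ≤ (t.hl.map fun i => X (Fin.castAdd 14 i)).prod := (abs_nonneg _).trans h1
  calc |(t.n : ℝ)| * |κ| ^ t.e * |(t.hl.map h).prod| * |w t.s|
      ≤ |(t.n : ℝ)| * (t.hl.map fun i => X (Fin.castAdd 14 i)).prod * X (Fin.natAdd 4 t.s) := by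
        refine mul_le_mul (mul_le_mul h3 h1 (abs_nonneg _) (abs_nonneg _)) (hw _) (abs_nonneg _)
          (mul_nonneg (abs_nonneg _) h4)
    _ = _ := by ring

lemma sum_ev_le {κ : ℝ} (hκ : |κ| ≤ 1) {h : Fin 4 → ℝ} {w : Fin 14 → ℝ} {X : Fin 18 → ℝ}
    (hh : ∀ i : Fin 4, |h i| ≤ X (Fin.castAdd 14 i)) (hw : ∀ q : Fin 14, |w q| ≤ X (Fin.natAdd 4 q))
    {S : ℝ} (L : List Tm) (hL : ∀ t ∈ L, (t.idx.map X).prod ≤ S) :
    |(L.map (Tm.ev κ h w)).sum| ≤ (((L.map fun t => t.n.natAbs).sum : ℕ) : ℝ) * S := by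
  induction L with
  | nil => simp
  | cons a L ih =>
    simp only [List.map_cons, List.sum_cons, Nat.cast_add]
    have h1 := ih fun t ht => hL t (List.mem_cons_of_mem _ ht)
    have h2 := ev_le hκ hh hw a
    have h3 := mul_le_mul_of_nonneg_left (hL a List.mem_cons_self) (abs_nonneg (a.n : ℝ))
    have h4 : ((a.n.natAbs : ℕ) : ℝ) = |(a.n : ℝ)| := by
      rw [Nat.cast_natAbs, Int.cast_abs]
    rw [h4, add_mul]
    exact (abs_add_le _ _).trans (add_le_add (h2.trans h3) h1)

lemma tms_sum : ∀ q, ((tms q).map fun t => t.n.natAbs).sum ≤ 67 := by decide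

lemma tr_zero (κ : ℝ) (h : Fin 4 → ℝ) : tr κ h 0 = 0 := by
  have := tr_add κ h 0 0
  rw [add_zero] at this
  funext k
  have h2 := congrFun this k
  simp only [Pi.add_apply, Pi.zero_apply] at h2 ⊢
  linarith

/-- **the exact cocycle identity** -/
theorem cocycle (κ : ℝ) (f f' f'' : FW) :
    tr κ f''.g (f''.G - f.G) = tr κ f''.g (f''.G - f'.G) +
      tr κ (rel κ f'.g f''.g) (tr κ f'.g (f'.G - f.G)) := by
  rw [← tr_mul, mul_rel, ← tr_add]
  congr 1
  abel

/-- **the W-chart** -/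
theorem chartW {ι : Type*} (I : Finset ι) (f : ι → FW) {κ : ℝ} (hκ : |κ| ≤ 1) :
    Chart I (fun i j => coW κ (f i) (f j)) monW 67 where
  C0 := by norm_num
  refl := by
    intro i _ k
    refine Fin.addCases (m := 4) (n := 14) (fun a => ?_) (fun q => ?_) k
    · rw [coW_left]
      fin_cases a <;> simp [rel]
    · rw [coW_right, sub_self, tr_zero]
      rfl
  add := by
    intro i _ j _ l _ k
    set X : Fin 18 → ℝ := fun s => max |coW κ (f i) (f j) s| |coW κ (f j) (f l) s| with hX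
    have hX0 : ∀ s, 0 ≤ X s := fun s => (abs_nonneg _).trans (le_max_left _ _)
    have hl : ∀ s, |coW κ (f i) (f j) s| ≤ X s := fun s => le_max_left _ _
    have hr : ∀ s, |coW κ (f j) (f l) s| ≤ X s := fun s => le_max_right _ _
    refine Fin.addCases (m := 4) (n := 14) (fun a => ?_) (fun q => ?_) k
    · change |coW κ (f i) (f l) (Fin.castAdd 14 a) - coW κ (f i) (f j) (Fin.castAdd 14 a) -
        coW κ (f j) (f l) (Fin.castAdd 14 a)| ≤
        67 * ∑ e ∈ monW.mon (Fin.castAdd 14 a), ∏ s, X s ^ e s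
      have hl' : ∀ b : Fin 4, |rel κ (f i).g (f j).g b| ≤ X (Fin.castAdd 14 b) := fun b => by
        rw [← coW_left]; exact hl _
      have hr' : ∀ b : Fin 4, |rel κ (f j).g (f l).g b| ≤ X (Fin.castAdd 14 b) := fun b => by
        rw [← coW_left]; exact hr _
      have hS : ∀ t ∈ mh a, (t.map X).prod ≤
          ∑ e ∈ monW.mon (Fin.castAdd 14 a), ∏ s, X s ^ e s := fun t ht =>
        prod_le_ofLists hX0 (by rw [mlW_left]; exact ht)
      have hS0 : 0 ≤ ∑ e ∈ monW.mon (Fin.castAdd 14 a), ∏ s, X s ^ e s :=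
        Finset.sum_nonneg fun e _ => Finset.prod_nonneg fun s _ => pow_nonneg (hX0 s) _
      rw [coW_left, coW_left, coW_left, ← rel_rel κ (f i).g (f j).g (f l).g]
      set r := rel κ (f i).g (f j).g with hr1
      set r' := rel κ (f j).g (f l).g with hr2
      set S := ∑ e ∈ monW.mon (Fin.castAdd 14 a), ∏ s, X s ^ e s with hSdef
      have x0 := hr' 0
      have x1 := hl' 1
      have x2 := hr' 2
      fin_cases a
      · have : mul κ r r' 0 - r 0 - r' 0 = 0 := by rw [mul0]; ring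
        change |mul κ r r' 0 - r 0 - r' 0| ≤ 67 * S
        rw [this, abs_zero]; positivity
      · have : mul κ r r' 1 - r 1 - r' 1 = 0 := by rw [mul1]; ring
        change |mul κ r r' 1 - r 1 - r' 1| ≤ 67 * S
        rw [this, abs_zero]; positivity
      · have : mul κ r r' 2 - r 2 - r' 2 = r 1 * r' 0 := by rw [mul2]; ring
        change |mul κ r r' 2 - r 2 - r' 2| ≤ 67 * S
        rw [this, abs_mul]
        have h1 := hS [1, 0] (by simp [mh])
        simp only [List.map_cons, List.map_nil, List.prod_cons, List.prod_nil, mul_one] at h1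
        have h2 : |r 1| * |r' 0| ≤ X 1 * X 0 := mul_le_mul x1 x0 (abs_nonneg _) (hX0 1)
        linarith
      · have : mul κ r r' 3 - r 3 - r' 3 = -(2 * κ * (r 1 * r' 2)) - κ * (r 1 * (r 1 * r' 0)) := by
          rw [mul3]; ring
        change |mul κ r r' 3 - r 3 - r' 3| ≤ 67 * S
        rw [this]
        have h1 := hS [1, 2] (by simp [mh])
        have h1' := hS [1, 1, 0] (by simp [mh])
        simp only [List.map_cons, List.map_nil, List.prod_cons, List.prod_nil, mul_one] at h1 h1'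
        have h2 : |r 1| * |r' 2| ≤ X 1 * X 2 := mul_le_mul x1 x2 (abs_nonneg _) (hX0 1)
        have h3 : |r 1| * (|r 1| * |r' 0|) ≤ X 1 * (X 1 * X 0) :=
          mul_le_mul x1 (mul_le_mul x1 x0 (abs_nonneg _) (hX0 1)) (by positivity) (hX0 1)
        have h4 : |-(2 * κ * (r 1 * r' 2))| ≤ 2 * (|r 1| * |r' 2|) := by
          rw [abs_neg, abs_mul, abs_mul, abs_mul, abs_two]
          have : 0 ≤ |r 1| * |r' 2| := by positivity
          nlinarith
        have h5 : |κ * (r 1 * (r 1 * r' 0))| ≤ |r 1| * (|r 1| * |r' 0|) := by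
          rw [abs_mul, abs_mul, abs_mul]
          have : 0 ≤ |r 1| * (|r 1| * |r' 0|) := by positivity
          nlinarith
        have h6 := abs_sub (-(2 * κ * (r 1 * r' 2))) (κ * (r 1 * (r 1 * r' 0)))
        linarith
    · change |coW κ (f i) (f l) (Fin.natAdd 4 q) - coW κ (f i) (f j) (Fin.natAdd 4 q) -
        coW κ (f j) (f l) (Fin.natAdd 4 q)| ≤
        67 * ∑ e ∈ monW.mon (Fin.natAdd 4 q), ∏ s, X s ^ e s
      rw [coW_right, coW_right, coW_right, cocycle κ (f i) (f j) (f l), Pi.add_apply,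
        tr_tms κ (rel κ (f j).g (f l).g)]
      set S := ∑ e ∈ monW.mon (Fin.natAdd 4 q), ∏ s, X s ^ e s with hSdef
      have hS0 : 0 ≤ S :=
        Finset.sum_nonneg fun e _ => Finset.prod_nonneg fun s _ => pow_nonneg (hX0 s) _
      have h1 := sum_ev_le (X := X) hκ (h := rel κ (f j).g (f l).g)
        (w := tr κ (f j).g ((f j).G - (f i).G)) (fun b => by rw [← coW_left]; exact hr _)
        (fun b => by rw [← coW_right]; exact hl _) (S := S) (tms q) (fun t ht => by
          refine prod_le_ofLists (hlow := mlW_low) (hne := mlW_ne) hX0 ?_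
          rw [mlW_right]
          exact List.mem_map_of_mem ht)
      have h2 : ((((tms q).map fun t => t.n.natAbs).sum : ℕ) : ℝ) ≤ 67 := by
        exact_mod_cast tms_sum q
      refine le_trans (le_of_eq ?_) (h1.trans (mul_le_mul_of_nonneg_right h2 hS0))
      congr 1
      ring

end Crest.Agent.R136.NetW191
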