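import Crest.Agent.R136.MkA_627
import Crest.Agent.R136.NetW3_191
import Crest.Agent.R136.PqG_464

/-!
# R136 (S0187), U6 thin side (helper768): a set of incidences which is almost closed under lines
and classes carries the marks; graded balls of the W-chart

* `sub_ball` : `MkA` on a set `In ⊆ Out ⊆ I` with `#Out ≤ 2 #In` such that the lines and the classes
  of the elements of `In` lie in `Out`.
* `exists_radius` : pigeonhole over radii.
* `ball_step` : a natural step moves the graded radius by `O(1)`.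
* `MkA.ball` : a graded ball of radius between `d^-C1` and `2 d^-C1` carries the marks.
-/

set_option autoImplicit false
set_option linter.unusedVariables false

open Finset Filter Topology

namespace Crest.Agent.R136.Bal768

open Crest.Agent.R138.Ex926 Crest.Agent.R138.Dp76 Crest.Agent.R138.Ps627
open Crest.Agent.R138.Mk163 (zc zl rho alive own Negl)
open Crest.Agent.R138.MkRef627 (lc kc own_one alive_mono mem_alive card_class own_lower hh hh_even
  hh_odd exists_num)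
open Crest.Agent.R136.MkA627
open Crest.Agent.R136.Net191 Crest.Agent.R136.NetW191
open Crest.Agent.R136.PqG464 (wtW wtW_list)

section sub

variable {σ κ : Type*} {B : Base} {I : ℕ → Finset (ℕ × ℝ)} {G : Geo σ κ} {lev : ℕ → ℚ → ℕ}
    {A : ℕ → ℝ} {c Λ : ℝ → ℝ} {τ : κ → ℝ → ℝ} {f : ℕ → ℚ → ℕ → ℤ → ℕ} {b : ℕ → ℚ → ℕ → σ}
    {vm : ℕ → ℚ → ℝ} {w : κ → ℕ → ℚ → ℝ}

open Classical in
/-- **a set which is almost closed under lines and classes carries the marks.** -/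
theorem sub_ball (h : MkA B I G lev A c Λ τ f b vm w) {In Out : ℕ → Finset (ℕ × ℝ)}
    (hIO : ∀ n, In n ⊆ Out n) (hO : ∀ n, Out n ⊆ I n)
    (hne : ∀ᶠ n in (U : Filter ℕ), (In n).Nonempty)
    (hcard : ∀ᶠ n in (U : Filter ℕ), (Out n).card ≤ 2 * (In n).card)
    (hl : ∀ᶠ n in (U : Filter ℕ), ∀ x ∈ In n, ∀ y ∈ I n, y.1 = x.1 → y ∈ Out n)
    (hk : ∀ v : ℚ, 0 ≤ v → v ≤ 1 → ∀ᶠ n in (U : Filter ℕ), ∀ x ∈ In n, ∀ y ∈ I n,
      kc (lev n v) (f n v) y = kc (lev n v) (f n v) x → y ∈ Out n) :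
    ∃ I' : ℕ → Finset (ℕ × ℝ), (∀ n, I' n ⊆ In n) ∧ Dense B I' In ∧
      MkA B I' G lev A c Λ τ f b vm w := by
  have hd : Dense B In Out := dense_of_half (by
    filter_upwards [hcard] with n hn
    exact ⟨hIO n, by exact_mod_cast hn⟩)
  obtain ⟨J', hsub, hhalf, hfib⟩ := prune_seq (η := fun _ _ => ℕ × ℤ) hd (hh lev f)
  have hJ'J : Dense B J' In := dense_of_half (by
    filter_upwards [hhalf] with n hn using ⟨(hsub n).1, hn⟩)
  have fl : ∀ v : ℚ, 0 ≤ v → v ≤ 1 → ∀ ε : ℝ, 0 < ε → ∀ᶠ n in (U : Filter ℕ), ∀ x ∈ J' n,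
      B.d n ^ ε * (((I n).filter fun y => lc (lev n v) y = lc (lev n v) x).card : ℝ) ≤
        (((J' n).filter fun y => lc (lev n v) y = lc (lev n v) x).card : ℝ) := by
    intro v hv0 hv1 ε hε
    obtain ⟨j, rfl⟩ := exists_num v
    filter_upwards [hfib (2 * j) ε hε, hl] with n hn hln x hx
    have := hn x hx
    simp only [hh_even] at this
    refine le_trans (mul_le_mul_of_nonneg_left ?_ (dpow_pos B n ε).le) this
    norm_cast
    refine card_le_card fun y hy => ?_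
    rw [mem_filter] at hy ⊢
    refine ⟨hln x ((hsub n).1 hx) y hy.1 ?_, hy.2⟩
    have := hy.2
    unfold lc at this
    exact (Prod.mk.injEq _ _ _ _ ▸ this).1
  have fk : ∀ v : ℚ, 0 ≤ v → v ≤ 1 → ∀ ε : ℝ, 0 < ε → ∀ᶠ n in (U : Filter ℕ), ∀ x ∈ J' n,
      B.d n ^ ε * (((I n).filter fun y => kc (lev n v) (f n v) y = kc (lev n v) (f n v) x).card : ℝ)
        ≤ (((J' n).filter fun y => kc (lev n v) (f n v) y = kc (lev n v) (f n v) x).card : ℝ) := by
    intro v hv0 hv1 ε hε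
    have hkv := hk v hv0 hv1
    obtain ⟨j, rfl⟩ := exists_num v
    filter_upwards [hfib (2 * j + 1) ε hε, hkv] with n hn hkn x hx
    have := hn x hx
    simp only [hh_odd] at this
    refine le_trans (mul_le_mul_of_nonneg_left ?_ (dpow_pos B n ε).le) this
    norm_cast
    refine card_le_card fun y hy => ?_
    rw [mem_filter] at hy ⊢
    exact ⟨hkn x ((hsub n).1 hx) y hy.1 hy.2, hy.2⟩
  exact ⟨J', fun n => (hsub n).1, hJ'J, MkA.of_fib h
    (fun n => ((hsub n).1.trans (hIO n)).trans (hO n)) (hJ'J.nonempty hne) fl fk⟩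

end sub

/-- **pigeonhole over radii** -/
theorem exists_radius {α : Type*} (S : ℕ → Finset α) (h0 : (S 0).Nonempty) {J : ℕ}
    (hJ : (S J).card < 2 ^ J) : ∃ j < J, (S (j + 1)).card ≤ 2 * (S j).card := by
  by_contra hcon
  push Not at hcon
  have key : ∀ j ≤ J, 2 ^ j ≤ (S j).card := by
    intro j
    induction j with
    | zero => intro _; simpa using card_pos.2 h0
    | succ j ih =>
      intro hj
      have h1 := ih (by omega)
      have h2 := hcon j (by omega)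
      rw [pow_succ]
      omega
  exact absurd (key J le_rfl) (not_le.2 hJ)

/-! ### graded balls -/

/-- product of a list of steps against graded bounds -/
theorem abs_prod_grad {h : Fin 4 → ℝ} {X : ℝ} (hX : 1 ≤ X) (wt : Fin 4 → ℕ)
    (hh : ∀ i, |h i| ≤ X ^ wt i) (l : List (Fin 4)) :
    |(l.map h).prod| ≤ X ^ (l.map wt).sum := by
  induction l with
  | nil => simp
  | cons i l ih =>
    rw [List.map_cons, List.prod_cons, List.map_cons, List.sum_cons, pow_add, abs_mul]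
    exact mul_le_mul (hh i) ih (abs_nonneg _) (by positivity)

/-- weights of the frame slots -/
def w4 (i : Fin 4) : ℕ := wtW (Fin.castAdd 14 i)
/-- weights of the flag slots -/
def w14 (q : Fin 14) : ℕ := wtW (Fin.natAdd 4 q)

/-- every term of `tr` contains a step: the weight of the flag slot is smaller -/
theorem tms_wt : ∀ q : Fin 14, ∀ t ∈ tms q, (t.hl.map w4).sum + w14 t.s = w14 q ∧
    1 ≤ (t.hl.map w4).sum ∧ t.hl ≠ [] ∧ 1 ≤ w14 t.s + 1 := by
  decide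

theorem w14_le : ∀ q : Fin 14, w14 q ≤ 9 := by decide
theorem w14_pos : ∀ q : Fin 14, 1 ≤ w14 q := by decide

theorem ev_grad {κ : ℝ} (hκ : |κ| ≤ 1) {h : Fin 4 → ℝ} {w : Fin 14 → ℝ} {X r : ℝ} (hX : 1 ≤ X)
    (hr : 1 ≤ r) (hh : ∀ i, |h i| ≤ X ^ w4 i) (hw : ∀ q, |w q| ≤ r ^ w14 q) {q : Fin 14} {t : Tm}
    (ht : t ∈ tms q) : |t.ev κ h w| ≤ |(t.n : ℝ)| * (X ^ 9 * r ^ (w14 q - 1)) := by
  obtain ⟨h1, h2, -, -⟩ := tms_wt q t ht
  have hq := w14_le q
  have e1 : |t.ev κ h w| = |(t.n : ℝ)| * (|κ| ^ t.e * |(t.hl.map h).prod| * |w t.s|) := by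
    unfold Tm.ev
    rw [abs_mul, abs_mul, abs_mul, abs_pow]
    ring
  rw [e1]
  refine mul_le_mul_of_nonneg_left ?_ (abs_nonneg _)
  have a1 : |κ| ^ t.e ≤ 1 := pow_le_one₀ (abs_nonneg _) hκ
  have a2 := abs_prod_grad hX w4 hh t.hl
  have a3 := hw t.s
  have a4 : X ^ (t.hl.map w4).sum ≤ X ^ 9 := pow_le_pow_right₀ hX (by omega)
  have a5 : r ^ w14 t.s ≤ r ^ (w14 q - 1) := pow_le_pow_right₀ hr (by omega)
  calc |κ| ^ t.e * |(t.hl.map h).prod| * |w t.s|
      ≤ 1 * X ^ 9 * r ^ (w14 q - 1) := by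
        refine mul_le_mul (mul_le_mul a1 (a2.trans a4) (abs_nonneg _) zero_le_one) (a3.trans a5)
          (abs_nonneg _) (by positivity)
    _ = _ := by ring

theorem sum_grad {κ : ℝ} (hκ : |κ| ≤ 1) {h : Fin 4 → ℝ} {w : Fin 14 → ℝ} {X r : ℝ} (hX : 1 ≤ X)
    (hr : 1 ≤ r) (hh : ∀ i, |h i| ≤ X ^ w4 i) (hw : ∀ q, |w q| ≤ r ^ w14 q) (q : Fin 14)
    (L : List Tm) (hL : ∀ t ∈ L, t ∈ tms q) :
    |(L.map (Tm.ev κ h w)).sum| ≤
      (((L.map fun t => t.n.natAbs).sum : ℕ) : ℝ) * (X ^ 9 * r ^ (w14 q - 1)) := by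
  induction L with
  | nil => simp
  | cons t L ih =>
    have h1 := ev_grad hκ hX hr hh hw (hL t (List.mem_cons_self))
    have h2 := ih fun s hs => hL s (List.mem_cons_of_mem _ hs)
    rw [List.map_cons, List.sum_cons, List.map_cons, List.sum_cons]
    have e : ((t.n.natAbs : ℕ) : ℝ) = |(t.n : ℝ)| := by
      rw [Nat.cast_natAbs, Int.cast_abs]
    rw [Nat.cast_add, e, add_mul]
    exact (abs_add_le _ _).trans (add_le_add h1 h2)

/-- **a natural step moves the graded radius by `O(1)`** -/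
theorem ball_step {κ : ℝ} (hκ : |κ| ≤ 1) {f0 f f' : FW} {r X δ : ℝ} (hr : 1 ≤ r) (hX : 1 ≤ X)
    (hδ : 0 ≤ δ) (h1 : ∀ k, |coW κ f0 f k| ≤ r ^ wtW k) (h2 : ∀ k, |coW κ f f' k| ≤ X ^ wtW k)
    (hs : 68 * X ^ 9 ≤ δ * r) : ∀ k, |coW κ f0 f' k| ≤ (r * (1 + δ)) ^ wtW k := by
  have r0 : 0 < r := by linarith
  have X0 : 0 < X := by linarith
  -- it is enough to move by `68 X^9 r^(wt-1)`
  have key : ∀ (k : Fin 18) (x : ℝ), |x| ≤ r ^ wtW k + 68 * X ^ 9 * r ^ (wtW k - 1) →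
      1 ≤ wtW k → |x| ≤ (r * (1 + δ)) ^ wtW k := by
    intro k x hx hk
    refine hx.trans ?_
    have e1 : r ^ wtW k = r ^ (wtW k - 1) * r := by
      rw [← pow_succ]; congr 1; omega
    have e2 : (r * (1 + δ)) ^ wtW k = r ^ wtW k * (1 + δ) ^ wtW k := mul_pow _ _ _
    have e3 : 1 + δ ≤ (1 + δ) ^ wtW k := by
      have := pow_le_pow_right₀ (show (1 : ℝ) ≤ 1 + δ by linarith) hk
      rwa [pow_one] at this
    have p1 : 0 ≤ r ^ (wtW k - 1) := by positivity
    have p2 : 0 ≤ r ^ wtW k := by positivity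
    calc r ^ wtW k + 68 * X ^ 9 * r ^ (wtW k - 1)
        ≤ r ^ wtW k + (δ * r) * r ^ (wtW k - 1) := by
          have := mul_le_mul_of_nonneg_right hs p1
          linarith
      _ = r ^ wtW k * (1 + δ) := by rw [e1]; ring
      _ ≤ r ^ wtW k * (1 + δ) ^ wtW k := mul_le_mul_of_nonneg_left e3 p2
      _ = _ := e2.symm
  have hg : ∀ i : Fin 4, |rel κ f0.g f.g i| ≤ r ^ w4 i := by
    intro i
    have := h1 (Fin.castAdd 14 i)
    rwa [coW_left] at this
  have hh : ∀ i : Fin 4, |rel κ f.g f'.g i| ≤ X ^ w4 i := by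
    intro i
    have := h2 (Fin.castAdd 14 i)
    rwa [coW_left] at this
  have hX9 : ∀ m : ℕ, m ≤ 9 → X ^ m ≤ X ^ 9 := fun m hm => pow_le_pow_right₀ hX hm
  have hXp : (1 : ℝ) ≤ X ^ 9 := one_le_pow₀ hX
  intro k
  refine Fin.addCases (m := 4) (n := 14) (fun i => ?_) (fun q => ?_) k
  · -- frame slots
    refine key _ _ ?_ (by revert i; decide)
    rw [coW_left, ← rel_rel κ f0.g f.g f'.g]
    set g := rel κ f0.g f.g with hgd
    set h := rel κ f.g f'.g with hhd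
    have g0 := hg 0
    have g1 := hg 1
    have g2 := hg 2
    have g3 := hg 3
    have h0 := hh 0
    have h1' := hh 1
    have h2' := hh 2
    have h3 := hh 3
    have w0 : w4 0 = 1 := by decide
    have w1 : w4 1 = 1 := by decide
    have w2 : w4 2 = 2 := by decide
    have w3 : w4 3 = 3 := by decide
    rw [w0, pow_one] at g0 h0
    rw [w1, pow_one] at g1 h1'
    rw [w2] at g2 h2'
    rw [w3] at g3 h3
    have hXX : X ≤ X ^ 9 := by simpa using hX9 1 (by norm_num)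
    have hX2 := hX9 2 (by norm_num)
    have hX3 := hX9 3 (by norm_num)
    have a10 : |g 1 * h 0| ≤ r * X := by
      rw [abs_mul]; exact mul_le_mul g1 h0 (abs_nonneg _) r0.le
    fin_cases i
    · show |mul κ g h 0| ≤ r ^ (1 : ℕ) + 68 * X ^ 9 * r ^ (0 : ℕ)
      rw [mul0, pow_one, pow_zero, mul_one]
      have := abs_add_le (g 0) (h 0)
      linarith
    · show |mul κ g h 1| ≤ r ^ (1 : ℕ) + 68 * X ^ 9 * r ^ (0 : ℕ)
      rw [mul1, pow_one, pow_zero, mul_one]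
      have := abs_add_le (g 1) (h 1)
      linarith
    · show |mul κ g h 2| ≤ r ^ (2 : ℕ) + 68 * X ^ 9 * r ^ (1 : ℕ)
      rw [mul2, pow_one]
      have t1 := abs_add_le (g 2 + h 2) (g 1 * h 0)
      have t2 := abs_add_le (g 2) (h 2)
      have t3 : r * X ≤ X ^ 9 * r := by
        rw [mul_comm]; exact mul_le_mul_of_nonneg_right hXX r0.le
      have t4 : X ^ 2 ≤ X ^ 9 * r := by
        calc X ^ 2 ≤ X ^ 9 * 1 := by linarith
          _ ≤ _ := mul_le_mul_of_nonneg_left hr (by positivity)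
      have t5 : 0 ≤ X ^ 9 * r := by positivity
      nlinarith
    · show |mul κ g h 3| ≤ r ^ (3 : ℕ) + 68 * X ^ 9 * r ^ (2 : ℕ)
      rw [mul3]
      have t1 := abs_sub (g 3 + h 3 - 2 * κ * g 1 * h 2) (κ * g 1 ^ 2 * h 0)
      have t2 := abs_sub (g 3 + h 3) (2 * κ * g 1 * h 2)
      have t3 := abs_add_le (g 3) (h 3)
      have e1 : |2 * κ * g 1 * h 2| ≤ 2 * (r * X ^ 2) := by
        rw [abs_mul, abs_mul, abs_mul, abs_two]
        calc 2 * |κ| * |g 1| * |h 2| ≤ 2 * 1 * r * X ^ 2 := by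
              refine mul_le_mul (mul_le_mul (by linarith) g1 (abs_nonneg _) (by norm_num)) h2'
                (abs_nonneg _) (by positivity)
          _ = _ := by ring
      have e2 : |κ * g 1 ^ 2 * h 0| ≤ r ^ 2 * X := by
        rw [abs_mul, abs_mul, abs_pow]
        calc |κ| * |g 1| ^ 2 * |h 0| ≤ 1 * r ^ 2 * X := by
              refine mul_le_mul (mul_le_mul hκ (pow_le_pow_left₀ (abs_nonneg _) g1 2)
                (by positivity) zero_le_one) h0 (abs_nonneg _) (by positivity)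
          _ = _ := by ring
      have hr2 : (1 : ℝ) ≤ r ^ 2 := one_le_pow₀ hr
      have hrr : r ≤ r ^ 2 := by nlinarith
      have t4 : X ^ 3 ≤ X ^ 9 * r ^ 2 := by
        calc X ^ 3 ≤ X ^ 9 * 1 := by linarith
          _ ≤ _ := mul_le_mul_of_nonneg_left hr2 (by positivity)
      have t5 : r * X ^ 2 ≤ X ^ 9 * r ^ 2 := by
        calc r * X ^ 2 ≤ r ^ 2 * X ^ 9 := mul_le_mul hrr hX2 (by positivity) (by positivity)
          _ = _ := by ring
      have t6 : r ^ 2 * X ≤ X ^ 9 * r ^ 2 := by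
        calc r ^ 2 * X ≤ r ^ 2 * X ^ 9 := mul_le_mul_of_nonneg_left hXX (by positivity)
          _ = _ := by ring
      have t7 : 0 ≤ X ^ 9 * r ^ 2 := by positivity
      nlinarith
  · -- flag slots
    refine key _ _ ?_ (w14_pos q)
    have hw : ∀ q, |tr κ f.g (f.G - f0.G) q| ≤ r ^ w14 q := by
      intro q
      have := h1 (Fin.natAdd 4 q)
      rwa [coW_right] at this
    have hq := h2 (Fin.natAdd 4 q)
    rw [coW_right] at hq
    rw [coW_right, cocycle κ f0 f f', Pi.add_apply,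
      tr_tms κ (rel κ f.g f'.g) (tr κ f.g (f.G - f0.G)) q]
    have hs := sum_grad hκ hX hr hh hw q (tms q) (fun _ h => h)
    have hn : ((((tms q).map fun t => t.n.natAbs).sum : ℕ) : ℝ) ≤ 67 := by
      exact_mod_cast tms_sum q
    have p0 : 0 ≤ X ^ 9 * r ^ (w14 q - 1) := by positivity
    have hs2 : |((tms q).map (Tm.ev κ (rel κ f.g f'.g) (tr κ f.g (f.G - f0.G)))).sum| ≤
        67 * (X ^ 9 * r ^ (w14 q - 1)) := hs.trans (mul_le_mul_of_nonneg_right hn p0)
    have hXw : X ^ w14 q ≤ X ^ 9 * r ^ (w14 q - 1) := by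
      calc X ^ w14 q ≤ X ^ 9 * 1 := by rw [mul_one]; exact hX9 _ (w14_le q)
        _ ≤ _ := mul_le_mul_of_nonneg_left (one_le_pow₀ hr) (by positivity)
    have hqq : |tr κ f'.g (f'.G - f.G) q| ≤ X ^ w14 q := hq
    have t1 := abs_add_le (tr κ f'.g (f'.G - f.G) q)
      (tr κ f.g (f.G - f0.G) q + ((tms q).map (Tm.ev κ (rel κ f.g f'.g)
        (tr κ f.g (f.G - f0.G)))).sum)
    have t2 := abs_add_le (tr κ f.g (f.G - f0.G) q) (((tms q).map (Tm.ev κ (rel κ f.g f'.g)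
        (tr κ f.g (f.G - f0.G)))).sum)
    have t3 := hw q
    show _ ≤ r ^ w14 q + 68 * X ^ 9 * r ^ (w14 q - 1)
    nlinarith

/-! ### the wrapper -/

/-- the graded ball of radius `r` around `f0` -/
def InB (κ : ℝ) (f0 f : FW) (r : ℝ) : Prop := ∀ k, |coW κ f0 f k| ≤ r ^ wtW k

theorem InB.mono {κ : ℝ} {f0 f : FW} {r r' : ℝ} (h : InB κ f0 f r) (h0 : 0 ≤ r) (hr : r ≤ r') :
    InB κ f0 f r' := fun k => (h k).trans (pow_le_pow_left₀ h0 hr _)

theorem InB.self {κ : ℝ} {f0 : FW} {r : ℝ} (h0 : 0 ≤ r) : InB κ f0 f0 r := by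
  intro k
  have e : coW κ f0 f0 k = 0 := by
    refine Fin.addCases (m := 4) (n := 14) (fun i => ?_) (fun q => ?_) k
    · rw [coW_left]
      fin_cases i <;> simp [rel]
    · rw [coW_right, sub_self, tr_zero]; rfl
  rw [e, abs_zero]
  positivity

section wrap

variable {σ κ : Type*} {B : Base} {I : ℕ → Finset (ℕ × ℝ)} {G : Geo σ κ} {lev : ℕ → ℚ → ℕ}
    {A : ℕ → ℝ} {c Λ : ℝ → ℝ} {τ : κ → ℝ → ℝ} {f : ℕ → ℚ → ℕ → ℤ → ℕ} {b : ℕ → ℚ → ℕ → σ}
    {vm : ℕ → ℚ → ℝ} {w : κ → ℕ → ℚ → ℝ}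

open Classical in
/-- **a graded ball carries the marks.**  `F` : flags of the incidences, `x0` : centre; the lines and
the classes of the incidences of the ball of radius `2 d^-C1` have natural size `≤ d^-ε`. -/
theorem MkA.ball' (h : MkA B I G lev A c Λ τ f b vm w) {kp : ℕ → ℝ} (hkp : ∀ n, |kp n| ≤ 1)
    (F : ℕ → ℕ × ℝ → FW) (x0 : ℕ → ℕ × ℝ) (hx0 : ∀ᶠ n in (U : Filter ℕ), x0 n ∈ I n) {C1 : ℝ}
    (hC1 : 0 < C1)
    (hl : ∀ᶠ n in (U : Filter ℕ), ∀ x ∈ I n,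
      InB (kp n) (F n (x0 n)) (F n x) (2 * B.d n ^ (-C1)) → ∀ y ∈ I n, y.1 = x.1 →
        ∀ k, |coW (kp n) (F n x) (F n y) k| ≤ B.d n ^ (-(C1 / 40)))
    (hk : ∀ v : ℚ, 0 ≤ v → v ≤ 1 → ∀ᶠ n in (U : Filter ℕ), ∀ x ∈ I n,
      InB (kp n) (F n (x0 n)) (F n x) (2 * B.d n ^ (-C1)) → ∀ y ∈ I n,
        kc (lev n v) (f n v) y = kc (lev n v) (f n v) x →
          ∀ k, |coW (kp n) (F n x) (F n y) k| ≤ B.d n ^ (-(C1 / 40))) :
    ∃ I' : ℕ → Finset (ℕ × ℝ), (∀ n, I' n ⊆ I n) ∧ MkA B I' G lev A c Λ τ f b vm w ∧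
      ∀ n, ∀ x ∈ I' n, InB (kp n) (F n (x0 n)) (F n x) (2 * B.d n ^ (-C1)) := by
  -- radii
  set J : ℕ → ℕ := fun n => 2 * ⌈Real.log ((I n).card : ℝ)⌉₊ + 2 with hJ
  set R : ℕ → ℕ → ℝ := fun n j => B.d n ^ (-C1) * (1 + (j : ℝ) / J n) with hR
  set S : ℕ → ℕ → Finset (ℕ × ℝ) := fun n j =>
    (I n).filter fun x => InB (kp n) (F n (x0 n)) (F n x) (R n j) with hS
  have hJ0 : ∀ n, (0 : ℝ) < J n := fun n => by
    have : 0 < J n := by simp only [hJ]; omega
    exact_mod_cast this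
  have hdp : ∀ n, 0 < B.d n ^ (-C1) := fun n => dpow_pos B n _
  have hcardJ : ∀ n, (S n (J n)).card < 2 ^ J n := by
    intro n
    refine lt_of_le_of_lt (card_le_card (filter_subset _ _)) ?_
    rcases Nat.eq_zero_or_pos (I n).card with h0 | h0
    · rw [h0]; positivity
    · have h1 : Real.log ((I n).card : ℝ) ≤ (⌈Real.log ((I n).card : ℝ)⌉₊ : ℝ) := Nat.le_ceil _
      have h2 : ((I n).card : ℝ) ≤ Real.exp (⌈Real.log ((I n).card : ℝ)⌉₊ : ℝ) := by
        rw [← Real.log_le_iff_le_exp (by exact_mod_cast h0)]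
        exact h1
      have h3 : Real.exp 1 < 4 := by
        have := Real.exp_one_lt_d9
        linarith
      have h4 : Real.exp (⌈Real.log ((I n).card : ℝ)⌉₊ : ℝ) ≤ (4 : ℝ) ^ ⌈Real.log ((I n).card : ℝ)⌉₊ := by
        rw [← Real.exp_one_pow]
        exact pow_le_pow_left₀ (Real.exp_pos 1).le h3.le _
      have h5 : ((I n).card : ℝ) < (2 : ℝ) ^ J n := by
        refine lt_of_le_of_lt (h2.trans h4) ?_
        have e : (2 : ℝ) ^ J n = 4 ^ ⌈Real.log ((I n).card : ℝ)⌉₊ * 4 := by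
          simp only [hJ]
          rw [pow_add, pow_mul]; norm_num
        rw [e]
        have : (0 : ℝ) < 4 ^ ⌈Real.log ((I n).card : ℝ)⌉₊ := by positivity
        linarith
      exact_mod_cast h5
  have hex : ∀ n, ∃ j, j < J n ∧ ((S n 0).Nonempty → (S n (j + 1)).card ≤ 2 * (S n j).card) := by
    intro n
    by_cases h0 : (S n 0).Nonempty
    · obtain ⟨j, hj, hj2⟩ := exists_radius (S n) h0 (hcardJ n)
      exact ⟨j, hj, fun _ => hj2⟩
    · exact ⟨0, by simp only [hJ]; omega, fun h => absurd h h0⟩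
  choose j hj hj2 using hex
  have hjR : ∀ n, (j n : ℝ) + 1 ≤ J n := fun n => by exact_mod_cast hj n
  have hR2 : ∀ n, R n (j n + 1) ≤ 2 * B.d n ^ (-C1) := by
    intro n
    have h1 : (((j n + 1 : ℕ) : ℝ)) / J n ≤ 1 := by
      rw [div_le_one (hJ0 n)]; push_cast; exact hjR n
    have := hdp n
    simp only [hR]
    nlinarith
  have hR1 : ∀ n m, 0 ≤ R n m := fun n m => by
    have := hdp n; have := hJ0 n; simp only [hR]; positivity
  have hRm : ∀ n, R n (j n) ≤ R n (j n + 1) := by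
    intro n
    simp only [hR]
    refine mul_le_mul_of_nonneg_left ?_ (hdp n).le
    have : (j n : ℝ) / J n ≤ ((j n + 1 : ℕ) : ℝ) / J n :=
      div_le_div_of_nonneg_right (by push_cast; linarith) (hJ0 n).le
    linarith
  have hbig : ∀ n, ∀ x, x ∈ S n (j n) → x ∈ I n ∧
      InB (kp n) (F n (x0 n)) (F n x) (2 * B.d n ^ (-C1)) := by
    intro n x hx
    rw [hS, mem_filter] at hx
    exact ⟨hx.1, hx.2.mono (hR1 n _) ((hRm n).trans (hR2 n))⟩
  -- one step
  have step : ∀ᶠ n in (U : Filter ℕ), ∀ x ∈ S n (j n), ∀ y ∈ I n,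
      (∀ k, |coW (kp n) (F n x) (F n y) k| ≤ B.d n ^ (-(C1 / 40))) → y ∈ S n (j n + 1) := by
    have hc : 0 < C1 / 40 := by linarith
    filter_upwards [h.card (C1 / 4) (by linarith), Crest.Agent.R138.Ps926.dpow_small B (show 0 < C1 / 4 by linarith)
      (ε := 1 / 1000) (by norm_num)] with n hcard hsm x hx y hy hxy
    have hd1 : ∀ a : ℝ, 0 ≤ a → 1 ≤ B.d n ^ (-a) := fun a ha => by
      have := dpow_le B n (show -a ≤ (0 : ℝ) by linarith)
      rwa [Real.rpow_zero] at this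
    have hx' := hx
    rw [hS, mem_filter] at hx'
    rw [hS, mem_filter]
    refine ⟨hy, ?_⟩
    have hr1 : 1 ≤ R n (j n) := by
      have h1 := hd1 C1 hC1.le
      have h2 : 0 ≤ (j n : ℝ) / J n := by have := hJ0 n; positivity
      simp only [hR]
      nlinarith
    set δ : ℝ := B.d n ^ (-C1) / J n / R n (j n) with hδ
    have hδ0 : 0 ≤ δ := by have := hdp n; have := hJ0 n; positivity
    have hRpos : 0 < R n (j n) := by linarith
    have e1 : R n (j n) * (1 + δ) = R n (j n + 1) := by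
      have e2 : R n (j n) * δ = B.d n ^ (-C1) / J n := by
        rw [hδ, mul_div_cancel₀ _ hRpos.ne']
      rw [mul_add, mul_one, e2]
      simp only [hR]
      push_cast
      have := (hJ0 n).ne'
      field_simp
      ring
    have hJb : (J n : ℝ) ≤ 8 * B.d n ^ (-(C1 / 4)) := by
      have h1 : (⌈Real.log ((I n).card : ℝ)⌉₊ : ℝ) < Real.log ((I n).card : ℝ) + 1 :=
        Nat.ceil_lt_add_one (Real.log_natCast_nonneg _)
      have h2 := hd1 (C1 / 4) (by linarith)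
      simp only [hJ]
      push_cast
      linarith
    have hs : 68 * (B.d n ^ (-(C1 / 40))) ^ 9 ≤ δ * R n (j n) := by
      have e2 : δ * R n (j n) = B.d n ^ (-C1) / J n := by
        rw [hδ, div_mul_cancel₀ _ hRpos.ne']
      rw [e2, le_div_iff₀ (hJ0 n)]
      have e3 : (B.d n ^ (-(C1 / 40))) ^ 9 = B.d n ^ (-(9 * (C1 / 40))) := by
        rw [← Real.rpow_natCast, ← Real.rpow_mul (B.pos n).le]; congr 1; push_cast; ring
      have p1 := dpow_pos B n (-(9 * (C1 / 40)))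
      have p2 := dpow_pos B n (-(C1 / 4))
      have p3 := dpow_pos B n (C1 / 4)
      have e4 : B.d n ^ (-(9 * (C1 / 40))) ≤ B.d n ^ (-(C1 / 4)) := dpow_le B n (by linarith)
      have e5 : B.d n ^ (-(C1 / 4)) * B.d n ^ (-(C1 / 4)) = B.d n ^ (-C1) * (B.d n ^ (C1 / 4) * B.d n ^ (C1 / 4)) := by
        rw [← dpow_add, ← dpow_add, ← dpow_add]; congr 1; ring
      rw [e3]
      calc 68 * B.d n ^ (-(9 * (C1 / 40))) * (J n : ℝ)
          ≤ 68 * B.d n ^ (-(C1 / 4)) * (8 * B.d n ^ (-(C1 / 4))) :=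
            mul_le_mul (by linarith) hJb (hJ0 n).le (by positivity)
        _ = 544 * (B.d n ^ (-(C1 / 4)) * B.d n ^ (-(C1 / 4))) := by ring
        _ = B.d n ^ (-C1) * (544 * B.d n ^ (C1 / 4) * B.d n ^ (C1 / 4)) := by rw [e5]; ring
        _ ≤ B.d n ^ (-C1) * 1 := by
            refine mul_le_mul_of_nonneg_left ?_ (hdp n).le
            nlinarith
        _ = _ := mul_one _
    have hX : 1 ≤ B.d n ^ (-(C1 / 40)) := hd1 _ (by linarith)
    have h2 : ∀ k, |coW (kp n) (F n x) (F n y) k| ≤ (B.d n ^ (-(C1 / 40))) ^ wtW k := by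
      intro k
      refine (hxy k).trans ?_
      have hk1 : 1 ≤ wtW k := by revert k; decide
      have := pow_le_pow_right₀ hX hk1
      rwa [pow_one] at this
    have := ball_step (hkp n) hr1 hX hδ0 hx'.2 h2 hs
    rw [e1] at this
    exact this
  obtain ⟨I', hI', hden, hM⟩ := sub_ball h (In := fun n => S n (j n))
    (Out := fun n => S n (j n) ∪ S n (j n + 1))
    (fun n => subset_union_left)
    (fun n => union_subset (filter_subset _ _) (filter_subset _ _))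
    (by
      filter_upwards [hx0] with n hn
      refine ⟨x0 n, ?_⟩
      rw [hS, mem_filter]
      exact ⟨hn, InB.self (hR1 n _)⟩)
    (by
      filter_upwards [hx0] with n hn
      have hsub : S n (j n) ⊆ S n (j n + 1) := by
        intro x hx
        rw [hS, mem_filter] at hx ⊢
        exact ⟨hx.1, hx.2.mono (hR1 n _) (hRm n)⟩
      have h0 : (S n 0).Nonempty := by
        refine ⟨x0 n, ?_⟩
        rw [hS, mem_filter]
        exact ⟨hn, InB.self (hR1 n _)⟩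
      show (S n (j n) ∪ S n (j n + 1)).card ≤ 2 * (S n (j n)).card
      rw [union_eq_right.2 hsub]
      exact hj2 n h0)
    (by
      filter_upwards [step, hl] with n h1 h2 x hx y hy hxy
      obtain ⟨hxI, hxB⟩ := hbig n x hx
      exact mem_union_right _ (h1 x hx y hy (h2 x hxI hxB y hy hxy)))
    (by
      intro v hv0 hv1
      filter_upwards [step, hk v hv0 hv1] with n h1 h2 x hx y hy hxy
      obtain ⟨hxI, hxB⟩ := hbig n x hx
      exact mem_union_right _ (h1 x hx y hy (h2 x hxI hxB y hy hxy)))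
  refine ⟨I', fun n x hx => (hbig n x (hI' n hx)).1, hM, fun n x hx => (hbig n x (hI' n hx)).2⟩

/-- **a graded ball carries the marks**, natural sizes `≤ d^-ε` -/
theorem MkA.ball (h : MkA B I G lev A c Λ τ f b vm w) {kp : ℕ → ℝ} (hkp : ∀ n, |kp n| ≤ 1)
    (F : ℕ → ℕ × ℝ → FW) (x0 : ℕ → ℕ × ℝ) (hx0 : ∀ᶠ n in (U : Filter ℕ), x0 n ∈ I n) {C1 : ℝ}
    (hC1 : 0 < C1)
    (hl : ∀ ε : ℝ, 0 < ε → ∀ᶠ n in (U : Filter ℕ), ∀ x ∈ I n,
      InB (kp n) (F n (x0 n)) (F n x) (2 * B.d n ^ (-C1)) → ∀ y ∈ I n, y.1 = x.1 →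
        ∀ k, |coW (kp n) (F n x) (F n y) k| ≤ B.d n ^ (-ε))
    (hk : ∀ v : ℚ, 0 ≤ v → v ≤ 1 → ∀ ε : ℝ, 0 < ε → ∀ᶠ n in (U : Filter ℕ), ∀ x ∈ I n,
      InB (kp n) (F n (x0 n)) (F n x) (2 * B.d n ^ (-C1)) → ∀ y ∈ I n,
        kc (lev n v) (f n v) y = kc (lev n v) (f n v) x →
          ∀ k, |coW (kp n) (F n x) (F n y) k| ≤ B.d n ^ (-ε)) :
    ∃ I' : ℕ → Finset (ℕ × ℝ), (∀ n, I' n ⊆ I n) ∧ MkA B I' G lev A c Λ τ f b vm w ∧
      ∀ n, ∀ x ∈ I' n, InB (kp n) (F n (x0 n)) (F n x) (2 * B.d n ^ (-C1)) :=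
  MkA.ball' h hkp F x0 hx0 hC1 (hl _ (by linarith)) fun v h0 h1 => hk v h0 h1 _ (by linarith)

end wrap

end Crest.Agent.R136.Bal768
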