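import Crest.Agent.R136.Aw0_413

/-!
# R136 (helper938): consequences of the splitting `OutS` (any plane), and the density condition with
unresolved slots

* `OutS.ray` : `lam (u • a) = u * A.1`
* `loss_grp`, `loss_eq` : a loss only depends on the coordinates of its group
* `loss_single` : a slot alone in its group (`a > 0`) has a linear loss
* `dens_of` : density condition for level slots which form a union of groups up to slots which are
  not resolved (`top = 0`), any own-wide offset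
-/

set_option autoImplicit false
set_option linter.unusedSectionVars false
set_option linter.unusedVariables false

open Filter Topology

namespace Crest.Agent.R136.Bas938

open Finset Crest.Agent.R138.Ex926 Crest.Agent.R136.Net191 Crest.Agent.R136.Gf356
open Crest.Agent.R136.Qg926 Crest.Agent.R136.Dg219 Crest.Agent.R136.Aw413

variable {m : ℕ}

section out

variable {a b : Fin m → ℝ} {L : Set (Fin m → ℝ)} {lam : (Fin m → ℝ) → ℝ} {A : ℝ × ℝ}
  {φ : ℕ → (Fin m → ℝ) → ℝ} {r : ℕ → ℝ}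

/-- value on the ray `a` -/
theorem out_ray (h : OutS (gC a b) L (dhC a b) (nC a b) lam A φ r) {u : ℝ} (hu : u • a ∈ L) :
    lam (u • a) = u * A.1 := by
  rw [h.sum _ hu]
  have h1 : ∀ k ∈ gset (gC a b), φ k (u • a) = -(r k * lf (nC a b k) (u, 0)) := by
    intro k _
    refine h.rate k _ hu _ fun i hi => ?_
    have := (dirC (a := a) (b := b)).Tn_eq (u, 0) i
    rw [hi] at this
    rw [← this]
    simp only [Tn, Pi.smul_apply, smul_eq_mul]; ring
  rw [sum_congr rfl h1, sum_neg_distrib, ← h.total]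
  simp only [lf]; ring

/-- a loss only depends on the coordinates of its group -/
theorem loss_eq (h : OutS (gC a b) L (dhC a b) (nC a b) lam A φ r) (k : ℕ)
    {c c' d d' : Fin m → ℝ} (hc : c ∈ L) (hc' : c' ∈ L) (hd : d ∈ L) (hd' : d' ∈ L)
    (h1 : ∀ i, gC a b i ≠ k → c i = c' i) (h2 : ∀ i, gC a b i ≠ k → d i = d' i)
    (h3 : ∀ i, gC a b i = k → c i = d i) (h4 : ∀ i, gC a b i = k → c' i = d' i) :
    lam c - lam c' = lam d - lam d' := by
  rw [h.sum _ hc, h.sum _ hc', h.sum _ hd, h.sum _ hd', ← sum_sub_distrib, ← sum_sub_distrib]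
  refine sum_congr rfl fun j _ => ?_
  by_cases hj : j = k
  · subst hj
    rw [h.loc j c d h3, h.loc j c' d' h4]
  · rw [h.loc j c c' fun i hi => h1 i (by rw [hi]; exact hj),
      h.loc j d d' fun i hi => h2 i (by rw [hi]; exact hj)]
    ring

/-- loss of one slot -/
theorem loss_slot (h : OutS (gC a b) L (dhC a b) (nC a b) lam A φ r) (i : Fin m)
    {c c' d d' : Fin m → ℝ} (hc : c ∈ L) (hc' : c' ∈ L) (hd : d ∈ L) (hd' : d' ∈ L)
    (h1 : ∀ j, j ≠ i → c j = c' j) (h2 : ∀ j, j ≠ i → d j = d' j)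
    (h3 : ∀ j, gC a b j = gC a b i → c j = d j) (h4 : c' i = d' i) :
    lam c - lam c' = lam d - lam d' := by
  refine loss_eq h (gC a b i) hc hc' hd hd' (fun j hj => h1 j fun e => hj (by rw [e]))
    (fun j hj => h2 j fun e => hj (by rw [e])) h3 fun j hj => ?_
  by_cases e : j = i
  · rw [e]; exact h4
  · rw [← h1 j e, ← h2 j e]; exact h3 j hj

/-- a slot alone in its group has a linear loss -/
theorem loss_single (h : OutS (gC a b) L (dhC a b) (nC a b) lam A φ r) {i : Fin m} (hi : a i ≠ 0)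
    (hs : ∀ j, gC a b j = gC a b i → j = i) {c c' : Fin m → ℝ} (hc : c ∈ L) (hc' : c' ∈ L)
    (h1 : ∀ j, j ≠ i → c j = c' j) :
    lam c - lam c' = r (gC a b i) / a i * (c' i - c i) := by
  rw [h.sum _ hc, h.sum _ hc', ← sum_sub_distrib]
  have hg : gC a b i ∈ gset (gC a b) := mem_image_of_mem _ (mem_univ _)
  rw [sum_eq_single_of_mem _ hg]
  · have hr : ∀ d ∈ L, φ (gC a b i) d = -(r (gC a b i) * (d i / a i)) := by
      intro d hd
      refine h.rate _ d hd _ fun j hj => ?_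
      rw [hs j hj, dhC, if_neg hi]
      field_simp
    rw [hr c hc, hr c' hc']
    field_simp
    ring
  · intro k _ hk
    rw [h.loc k c c' fun j hj => h1 j fun e => hk (by rw [← hj, e])]
    ring

end out

/-! ### density with unresolved slots -/

section dens

variable {ι : ℕ → Type*} [∀ n, DecidableEq (ι n)]
  {B Bo : Base} {I J : ∀ n, Finset (ι n)} {co : ∀ n, ι n → ι n → Fin m → ℝ}
  {M Ma : Mons m} {C : ℝ} {lam : (Fin m → ℝ) → ℝ} {a b : Fin m → ℝ} {A : ℝ × ℝ}
  {φ : ℕ → (Fin m → ℝ) → ℝ} {r : ℕ → ℝ} {kz : Fin m}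
  {σ : ℝ} {κ : Fin m → ℝ} {V Tw : Fin m → Prop}

theorem splitO' {grp : Fin m → ℕ} {L : Set (Fin m → ℝ)} {dh : Fin m → ℝ} {nn : ℕ → ℝ × ℝ}
    (h : OutS grp L dh nn lam A φ r) {S : Finset (Fin m)} {c0 top : Fin m → ℝ}
    (hS : ∀ i j, grp i = grp j → i ∈ S → j ∈ S ∨ top j = 0) (h0 : c0 ∈ L)
    (h1 : c0 + top ∈ L) (h2 : c0 + cut S top 0 ∈ L) (h3 : c0 + cut S 0 top ∈ L) :
    lam (c0 + top) - lam c0 =
      (lam (c0 + cut S top 0) - lam c0) + (lam (c0 + cut S 0 top) - lam c0) := by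
  rw [h.sum _ h1, h.sum _ h2, h.sum _ h3, h.sum _ h0, ← sum_sub_distrib, ← sum_sub_distrib,
    ← sum_sub_distrib, ← sum_add_distrib]
  refine sum_congr rfl fun k hk => ?_
  by_cases hk' : ∃ i, grp i = k ∧ i ∈ S
  · obtain ⟨i, hi, hiS⟩ := hk'
    have e1 : ∀ j, grp j = k → j ∈ S ∨ top j = 0 := fun j hj => hS i j (by rw [hi, hj]) hiS
    have e2 : φ k (c0 + cut S top 0) = φ k c0 := h.loc k _ _ fun j hj => by
      rw [Pi.add_apply]
      by_cases hjS : j ∈ S
      · rw [cut_of_mem hjS]; simp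
      · rw [cut_of_notMem hjS, (e1 j hj).resolve_left hjS, add_zero]
    have e3 : φ k (c0 + cut S 0 top) = φ k (c0 + top) := h.loc k _ _ fun j hj => by
      rw [Pi.add_apply, Pi.add_apply]
      by_cases hjS : j ∈ S
      · rw [cut_of_mem hjS]
      · rw [cut_of_notMem hjS, (e1 j hj).resolve_left hjS]; rfl
    rw [e2, e3]; ring
  · push Not at hk'
    have e2 : φ k (c0 + cut S 0 top) = φ k c0 := h.loc k _ _ fun j hj => by
      rw [Pi.add_apply, cut_of_notMem (hk' j hj)]; simp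
    have e3 : φ k (c0 + cut S top 0) = φ k (c0 + top) := h.loc k _ _ fun j hj => by
      rw [Pi.add_apply, cut_of_notMem (hk' j hj), Pi.add_apply]
    rw [e2, e3]; ring

/-- **density and Frostman conditions**, unresolved slots allowed -/
theorem dens_of (h : AeW B Bo I J co M Ma C lam a b A φ r kz σ κ V Tw) {st : WSt m}
    {c0 : Fin m → ℝ} (h0 : c0 ∈ coneM Ma) (hc0 : ∀ k, V k → c0 k ≤ κ k * c0 kz)
    (hkz : st.kz = kz) (hst : st.Ok M {p | c0 + p ∈ coneM Ma})
    (hS : ∀ i j, gC a b i = gC a b j → i ∈ st.S → j ∈ st.S ∨ st.top j = 0) (hσ : 0 ≤ σ)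
    (hσ1 : σ ≤ 1) {R : ℝ}
    (hR : R ≤ st.top kz) (hone : ∀ y, 0 ≤ y → y ≤ R → c0 + Pi.single kz y ∈ coneM Ma) :
    st.Dens (fun p => lam (c0 + p) - lam c0) σ R where
  dens := (splitO' h.out hS h0 (hst.leg hst.top_leg) (hst.leg hst.lin_leg)
    (hst.leg hst.lev_leg)).le
  σ0 := hσ
  σ1 := hσ1
  hR := by rw [hkz]; exact hR
  frost := fun y hy hyR => by
    rw [hkz]; exact h.frostO h0 hc0 hy (hone y hy hyR)

end dens

end Crest.Agent.R136.Bas938
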