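import Mathlib

/-!
# R136: coefficients of a quadratic polynomial from three heights (helper464)

`quad3` : Lagrange at three separated heights; `quad_win` : bound on a whole window;
`lin2`, `lin_win` : the same for affine functions.
-/

set_option autoImplicit false

namespace Crest.Agent.R136.ThrH464

/-- **three separated heights** `x, y, z` (relative to the centre), `|x|, |y|, |z| ≤ R`, mutual
distances at least `s`: the coefficients of `a + b t + c t²` are bounded. -/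
theorem quad3 {a b c x y z R s A : ℝ} (hs : 0 < s) (hx : |x| ≤ R) (hy : |y| ≤ R) (hz : |z| ≤ R)
    (hxy : s ≤ |x - y|) (hxz : s ≤ |x - z|) (hyz : s ≤ |y - z|)
    (h1 : |a + b * x + c * x ^ 2| ≤ A) (h2 : |a + b * y + c * y ^ 2| ≤ A)
    (h3 : |a + b * z + c * z ^ 2| ≤ A) :
    |a| ≤ 3 * A * (R / s) ^ 2 ∧ |b| ≤ 6 * A * R / s ^ 2 ∧ |c| ≤ 3 * A / s ^ 2 := by
  have hR : 0 ≤ R := (abs_nonneg _).trans hx
  have hA : 0 ≤ A := (abs_nonneg _).trans h1
  have nxy : x - y ≠ 0 := fun h => by rw [h, abs_zero] at hxy; linarith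
  have nxz : x - z ≠ 0 := fun h => by rw [h, abs_zero] at hxz; linarith
  have nyz : y - z ≠ 0 := fun h => by rw [h, abs_zero] at hyz; linarith
  have nyx : y - x ≠ 0 := fun h => nxy (by linarith)
  have nzx : z - x ≠ 0 := fun h => nxz (by linarith)
  have nzy : z - y ≠ 0 := fun h => nyz (by linarith)
  -- one term
  have term : ∀ {u v w q k K : ℝ}, s ≤ |u| → s ≤ |v| → |q| ≤ A → |k| ≤ K →
      |q * k / (u * v)| ≤ A * K / s ^ 2 := by
    intro u v w q k K hu hv hq hk
    have hK : 0 ≤ K := (abs_nonneg _).trans hk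
    rw [abs_div, abs_mul, abs_mul]
    have hden : s ^ 2 ≤ |u| * |v| := by
      rw [sq]; exact mul_le_mul hu hv hs.le ((abs_nonneg _).trans (le_of_eq rfl))
    have hnum : |q| * |k| ≤ A * K := mul_le_mul hq hk (abs_nonneg _) hA
    exact div_le_div₀ (mul_nonneg hA hK) hnum (by positivity) hden
  set q1 := a + b * x + c * x ^ 2 with hq1
  set q2 := a + b * y + c * y ^ 2 with hq2
  set q3 := a + b * z + c * z ^ 2 with hq3
  have syx : s ≤ |y - x| := by rw [abs_sub_comm]; exact hxy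
  have szx : s ≤ |z - x| := by rw [abs_sub_comm]; exact hxz
  have szy : s ≤ |z - y| := by rw [abs_sub_comm]; exact hyz
  have ea : a = q1 * (y * z) / ((x - y) * (x - z)) + q2 * (x * z) / ((y - x) * (y - z)) +
      q3 * (x * y) / ((z - x) * (z - y)) := by
    rw [hq1, hq2, hq3]; field_simp; ring
  have eb : b = q1 * (-(y + z)) / ((x - y) * (x - z)) + q2 * (-(x + z)) / ((y - x) * (y - z)) +
      q3 * (-(x + y)) / ((z - x) * (z - y)) := by
    rw [hq1, hq2, hq3]; field_simp; ring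
  have ec : c = q1 * 1 / ((x - y) * (x - z)) + q2 * 1 / ((y - x) * (y - z)) +
      q3 * 1 / ((z - x) * (z - y)) := by
    rw [hq1, hq2, hq3]; field_simp; ring
  have p2 : ∀ {u v : ℝ}, |u| ≤ R → |v| ≤ R → |u * v| ≤ R ^ 2 := by
    intro u v hu hv
    rw [abs_mul, sq]; exact mul_le_mul hu hv (abs_nonneg _) hR
  have s2 : ∀ {u v : ℝ}, |u| ≤ R → |v| ≤ R → |-(u + v)| ≤ 2 * R := by
    intro u v hu hv
    rw [abs_neg]; have := abs_add_le u v; linarith
  have tri : ∀ u v w : ℝ, |u + v + w| ≤ |u| + |v| + |w| := fun u v w => abs_add_three u v w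
  refine ⟨?_, ?_, ?_⟩
  · rw [ea]
    refine (tri _ _ _).trans ?_
    have t1 := term (w := 0) hxy hxz h1 (p2 hy hz)
    have t2 := term (w := 0) syx hyz h2 (p2 hx hz)
    have t3 := term (w := 0) szx szy h3 (p2 hx hy)
    have : 3 * A * (R / s) ^ 2 = 3 * (A * R ^ 2 / s ^ 2) := by rw [div_pow]; ring
    linarith
  · rw [eb]
    refine (tri _ _ _).trans ?_
    have t1 := term (w := 0) hxy hxz h1 (s2 hy hz)
    have t2 := term (w := 0) syx hyz h2 (s2 hx hz)
    have t3 := term (w := 0) szx szy h3 (s2 hx hy)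
    have : 6 * A * R / s ^ 2 = 3 * (A * (2 * R) / s ^ 2) := by ring
    linarith
  · rw [ec]
    refine (tri _ _ _).trans ?_
    have h1' : |(1 : ℝ)| ≤ 1 := by simp
    have t1 := term (w := 0) hxy hxz h1 h1'
    have t2 := term (w := 0) syx hyz h2 h1'
    have t3 := term (w := 0) szx szy h3 h1'
    have : 3 * A / s ^ 2 = 3 * (A * 1 / s ^ 2) := by ring
    linarith

/-- **a whole window** `[z0, z0 + ρ]`, coefficients at a centre `zc` with `|z - zc| ≤ R ρ` on the
window, `R ≥ 1/2` (e.g. `zc` in the window: `R = 1`). -/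
theorem quad_win {a b c z0 ρ zc R A : ℝ} (hρ : 0 < ρ)
    (hR : ∀ z, z0 ≤ z → z ≤ z0 + ρ → |z - zc| ≤ R * ρ)
    (h : ∀ z, z0 ≤ z → z ≤ z0 + ρ → |a + b * (z - zc) + c * (z - zc) ^ 2| ≤ A) :
    |a| ≤ 12 * R ^ 2 * A ∧ |b| ≤ 24 * R * A / ρ ∧ |c| ≤ 12 * A / ρ ^ 2 := by
  have m1 := quad3 (a := a) (b := b) (c := c) (x := z0 - zc) (y := z0 + ρ / 2 - zc)
    (z := z0 + ρ - zc) (R := R * ρ) (s := ρ / 2) (A := A) (by linarith)
    (hR z0 le_rfl (by linarith)) (hR (z0 + ρ / 2) (by linarith) (by linarith))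
    (hR (z0 + ρ) (by linarith) le_rfl)
    (by rw [show z0 - zc - (z0 + ρ / 2 - zc) = -(ρ / 2) by ring, abs_neg,
          abs_of_pos (by linarith)])
    (by rw [show z0 - zc - (z0 + ρ - zc) = -ρ by ring, abs_neg, abs_of_pos hρ]; linarith)
    (by rw [show z0 + ρ / 2 - zc - (z0 + ρ - zc) = -(ρ / 2) by ring, abs_neg,
          abs_of_pos (by linarith)])
    (h z0 le_rfl (by linarith)) (h (z0 + ρ / 2) (by linarith) (by linarith))
    (h (z0 + ρ) (by linarith) le_rfl)
  obtain ⟨k1, k2, k3⟩ := m1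
  have hρ' := hρ.ne'
  refine ⟨?_, ?_, ?_⟩
  · have : 3 * A * (R * ρ / (ρ / 2)) ^ 2 = 12 * R ^ 2 * A := by field_simp; ring
    rw [this] at k1; exact k1
  · have : 6 * A * (R * ρ) / (ρ / 2) ^ 2 = 24 * R * A / ρ := by field_simp; ring
    rw [this] at k2; exact k2
  · have : 3 * A / (ρ / 2) ^ 2 = 12 * A / ρ ^ 2 := by field_simp; ring
    rw [this] at k3; exact k3

/-- two heights, affine function -/
theorem lin2 {a b x y R s A : ℝ} (hs : 0 < s) (hx : |x| ≤ R) (hy : |y| ≤ R) (hxy : s ≤ |x - y|)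
    (h1 : |a + b * x| ≤ A) (h2 : |a + b * y| ≤ A) :
    |a| ≤ 2 * A * (R / s) ∧ |b| ≤ 2 * A / s := by
  have hR : 0 ≤ R := (abs_nonneg _).trans hx
  have hA : 0 ≤ A := (abs_nonneg _).trans h1
  have nxy : x - y ≠ 0 := fun h => by rw [h, abs_zero] at hxy; linarith
  have eb : b = ((a + b * x) - (a + b * y)) / (x - y) := by field_simp; ring
  have ea : a = ((a + b * y) * x - (a + b * x) * y) / (x - y) := by field_simp; ring
  constructor
  · rw [ea, abs_div]
    have n1 : |(a + b * y) * x - (a + b * x) * y| ≤ 2 * A * R := by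
      have t1 : |(a + b * y) * x| ≤ A * R := by
        rw [abs_mul]; exact mul_le_mul h2 hx (abs_nonneg _) hA
      have t2 : |(a + b * x) * y| ≤ A * R := by
        rw [abs_mul]; exact mul_le_mul h1 hy (abs_nonneg _) hA
      have := abs_sub ((a + b * y) * x) ((a + b * x) * y)
      linarith
    calc _ ≤ 2 * A * R / s := div_le_div₀ (by positivity) n1 hs hxy
      _ = _ := by ring
  · rw [eb, abs_div]
    have n1 : |(a + b * x) - (a + b * y)| ≤ 2 * A := by
      have := abs_sub (a + b * x) (a + b * y)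
      linarith
    exact div_le_div₀ (by positivity) n1 hs hxy

/-- affine function on a whole window -/
theorem lin_win {a b z0 ρ zc R A : ℝ} (hρ : 0 < ρ)
    (hR : ∀ z, z0 ≤ z → z ≤ z0 + ρ → |z - zc| ≤ R * ρ)
    (h : ∀ z, z0 ≤ z → z ≤ z0 + ρ → |a + b * (z - zc)| ≤ A) :
    |a| ≤ 2 * R * A ∧ |b| ≤ 2 * A / ρ := by
  obtain ⟨k1, k2⟩ := lin2 (a := a) (b := b) (x := z0 - zc) (y := z0 + ρ - zc) (R := R * ρ)
    (s := ρ) (A := A) hρ (hR z0 le_rfl (by linarith)) (hR (z0 + ρ) (by linarith) le_rfl)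
    (by rw [show z0 - zc - (z0 + ρ - zc) = -ρ by ring, abs_neg, abs_of_pos hρ])
    (h z0 le_rfl (by linarith)) (h (z0 + ρ) (by linarith) le_rfl)
  have hρ' := hρ.ne'
  refine ⟨?_, k2⟩
  have : 2 * A * (R * ρ / ρ) = 2 * R * A := by field_simp
  rw [this] at k1; exact k1

end Crest.Agent.R136.ThrH464
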