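import Crest.Agent.R136.GeoWD_778
import Crest.Agent.R136.ThrH_464
import Crest.Agent.R138.MkRef_627
import Crest.Agent.R138.ArgM1_163

/-!
# R136, wrapper `J2 → PreQ` for the W-chart (helper464), part 2: two flags of one line

* `own_line` : relative coordinates `c, A, B, z², z, 1` of two flagged incidences of one true line.
* `WData` : the data of a marked sequence in normal coordinates.
* `WData.inv_line` : these coordinates are infinitely small.
-/

set_option autoImplicit false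
set_option linter.unusedVariables false

open Finset Filter Topology

namespace Crest.Agent.R136.PrW464

open Crest.Agent.R136.Sh605
open Crest.Agent.R136.NetW191
open Crest.Agent.R136.GeoW778
open Crest.Agent.R138.Ex926 (Base U)
open Crest.Agent.R138.Dp76 (dpow_pos dpow_add dpow_le dpow_le_one)
open Crest.Agent.R138.ArgM163 (ev_const)

section own

variable {κ σ : ℝ} {i j : FW} {t : Ln4}

theorem own1 (hi : TrueW κ σ i t) (hj : TrueW κ σ j t) : coW κ i j 1 = 0 := by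
  have e : coW κ i j 1 = rel κ i.g j.g 1 := coW_left κ i j 1
  rw [e]
  simp only [rel, Matrix.cons_val]
  rw [← hi.c, ← hj.c]
  ring

theorem own2 (hi : TrueW κ σ i t) (hj : TrueW κ σ j t) : coW κ i j 2 = 0 := by
  have e : coW κ i j 2 = rel κ i.g j.g 2 := coW_left κ i j 2
  rw [e]
  simp only [rel, Matrix.cons_val]
  rw [← hj.A, hi.posA]
  ring

theorem own3 (hi : TrueW κ σ i t) (hj : TrueW κ σ j t) :
    coW κ i j 3 = dB κ i t * (j.g 0 - i.g 0) := by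
  have e : coW κ i j 3 = rel κ i.g j.g 3 := coW_left κ i j 3
  rw [e]
  simp only [rel, Matrix.cons_val]
  have h1 : j.g 2 - i.g 2 - i.g 1 * (j.g 0 - i.g 0) = 0 := by
    rw [← hj.A, hi.posA]; ring
  rw [h1, ← hj.B, hi.posB]
  ring

/-- the flags of one line agree along the line -/
theorem own_flag (hi : TrueW κ σ i t) (hj : TrueW κ σ j t) (hσ : 0 < σ) {Γ V R X ρ' : ℝ}
    (hGi : ∀ k, |i.G k| ≤ Γ) (hGj : ∀ k, |j.G k| ≤ Γ) (hV : ∀ k, |t.v k| ≤ V) {z : ℝ}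
    (hz : |z| ≤ R) (hX : ∀ k, |t.pos z k| ≤ X) (hzj : |z - j.g 0| ≤ ρ')
    (hsm : σ * GeoW778.DW Γ R X V ρ' ≤ 1) :
    |coW κ i j 17 + (z - j.g 0) * coW κ i j 16 + (z - j.g 0) ^ 2 * coW κ i j 13| ≤
      σ * EW Γ R X V ρ' := by
  have hR0 : 0 ≤ R := (abs_nonneg _).trans hz
  have hX0 : 0 ≤ X := (abs_nonneg _).trans (hX 0)
  have hV0 : 0 ≤ V := (abs_nonneg _).trans (hV 0)
  have hΓ0 : 0 ≤ Γ := (abs_nonneg _).trans (hGi 0)
  have hρ0 : 0 ≤ ρ' := (abs_nonneg _).trans hzj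
  have hh := hj.ht_eq z
  have hh' := hi.ht_eq z
  set x := t.pos z with hx
  set B0 := j.g 3 - κ * j.g 1 ^ 2 * (z - j.g 0) with hB0
  set Y0 := z * B0 + κ * (j.g 2 + j.g 1 * (z - j.g 0)) ^ 2 with hY0
  have hA : x 1 = j.g 2 + j.g 1 * (z - j.g 0) := hj.posA z
  have hB : x 2 - B0 = dB κ j t * (z - j.g 0) := by
    rw [hx, hj.posB z, hB0]; ring
  have hY : x 0 - Y0 = ht κ z (x 1) (x 2) (x 0) + z * (x 2 - B0) := by
    simp only [ht, hY0, ← hA]; ring
  have bB : |x 2 - B0| ≤ σ * (Γ * (1 + 3 * V + 6 * V ^ 2) * ρ') := by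
    rw [hB]
    refine (m2 (hj.drift_bound hσ.le hGj hV) hzj).trans (le_of_eq ?_)
    ring
  have bh : |ht κ z (x 1) (x 2) (x 0)| ≤
      σ * (Γ * (1 + R + 2 * X + R ^ 2 + 3 * (R * X) + 6 * X ^ 2)) := by
    rw [hh, abs_mul, abs_of_pos hσ, ← evW_eq]
    exact mul_le_mul_of_nonneg_left (evW_bound hGj hz hX) hσ.le
  have bY : |x 0 - Y0| ≤ σ * (Γ * (1 + R + 2 * X + R ^ 2 + 3 * (R * X) + 6 * X ^ 2)) +
      R * (σ * (Γ * (1 + 3 * V + 6 * V ^ 2) * ρ')) := by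
    rw [hY]
    exact a2 bh (m2 hz bB)
  have bsum : |x 0 - Y0| + |x 2 - B0| ≤ σ * GeoW778.DW Γ R X V ρ' := by
    refine (add_le_add bY bB).trans (le_of_eq ?_)
    simp only [GeoW778.DW]; ring
  have n0 := abs_nonneg (x 0 - Y0)
  have n2 := abs_nonneg (x 2 - B0)
  have hx0 : ∀ k, |(![Y0, x 1, B0] : V3) k| ≤ X + 1 := by
    intro k
    fin_cases k
    · show |Y0| ≤ X + 1
      have := abs_sub (x 0) (x 0 - Y0)
      rw [sub_sub_cancel] at this
      linarith [hX 0]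
    · show |x 1| ≤ X + 1
      linarith [hX 1]
    · show |B0| ≤ X + 1
      have := abs_sub (x 2) (x 2 - B0)
      rw [sub_sub_cancel] at this
      linarith [hX 2]
  have hGd : ∀ k, |(j.G - i.G) k| ≤ 2 * Γ := by
    intro k
    rw [Pi.sub_apply]
    linarith [s2 (hGj k) (hGi k)]
  have hl := evY_lip (x := x) (x' := ![Y0, x 1, B0]) hGd hz
    (fun k => (hX k).trans (by linarith)) hx0
  simp only [Matrix.cons_val, sub_self, abs_zero, add_zero] at hl
  have hn := q_null κ i j z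
  rw [← hB0, ← hY0, ← hA] at hn
  have h0 : evY (j.G - i.G) z (x 1) (x 2) (x 0) = 0 := by
    rw [evY_sub]
    have h1 : σ * evY j.G z (x 1) (x 2) (x 0) = σ * evY i.G z (x 1) (x 2) (x 0) := by
      rw [← hh, ← hh']
    have h2 := mul_left_cancel₀ hσ.ne' h1
    linarith
  rw [h0, zero_sub, abs_neg] at hl
  rw [← hn]
  refine hl.trans ?_
  have hc : 0 ≤ 2 * Γ * (1 + R + 4 * (X + 1)) := by positivity
  calc 2 * Γ * (1 + R + 4 * (X + 1)) * (|x 0 - Y0| + |x 2 - B0|)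
      ≤ 2 * Γ * (1 + R + 4 * (X + 1)) * (σ * GeoW778.DW Γ R X V ρ') :=
        mul_le_mul_of_nonneg_left bsum hc
    _ = σ * EW Γ R X V ρ' := by simp only [EW]; ring

/-- **relative coordinates of two flags of one line** -/
theorem own_line (hi : TrueW κ σ i t) (hj : TrueW κ σ j t) (hσ : 0 < σ) {y : ℝ} (hy : 1 ≤ y)
    (hGi : ∀ k, |i.G k| ≤ y) (hGj : ∀ k, |j.G k| ≤ y) (hV : ∀ k, |t.v k| ≤ y)
    (hp : ∀ k, |t.p k| ≤ y) (hzi : |i.g 0| ≤ 1) (hzj : |j.g 0| ≤ 1)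
    (hsm : σ * (200 * y ^ 3) ≤ 1) (k : Fin 18)
    (hk : k = 1 ∨ k = 2 ∨ k = 3 ∨ k = 13 ∨ k = 16 ∨ k = 17) :
    |coW κ i j k| ≤ σ * (240000 * y ^ 5) := by
  have y0 : 0 ≤ y := by linarith
  have y2 : y ≤ y ^ 2 := by nlinarith
  have y3 : y ^ 2 ≤ y ^ 3 := by nlinarith [mul_nonneg y0 y0]
  have y4 : y ^ 3 ≤ y ^ 4 := by nlinarith [mul_nonneg (mul_nonneg y0 y0) y0]
  have y5 : y ^ 4 ≤ y ^ 5 := by nlinarith [mul_nonneg (mul_nonneg (mul_nonneg y0 y0) y0) y0]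
  have hX : ∀ z : ℝ, |z| ≤ 3 → ∀ k, |t.pos z k| ≤ 4 * y := by
    intro z hz k
    simp only [Ln4.pos]
    have := a2 (hp k) (m2 hz (hV k))
    linarith
  have hDW : GeoW778.DW y 3 (4 * y) y 1 ≤ 200 * y ^ 3 := by
    simp only [GeoW778.DW]
    nlinarith
  have hEW : EW y 3 (4 * y) y 1 ≤ 10000 * y ^ 5 := by
    have hD0 : 0 ≤ GeoW778.DW y 3 (4 * y) y 1 := by simp only [GeoW778.DW]; positivity
    have e1 : EW y 3 (4 * y) y 1 = 2 * y * (8 + 16 * y) * GeoW778.DW y 3 (4 * y) y 1 := by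
      simp only [EW]; ring
    rw [e1]
    have e2 : 2 * y * (8 + 16 * y) ≤ 48 * y ^ 2 := by nlinarith
    calc 2 * y * (8 + 16 * y) * GeoW778.DW y 3 (4 * y) y 1
        ≤ (48 * y ^ 2) * (200 * y ^ 3) := mul_le_mul e2 hDW hD0 (by positivity)
      _ ≤ 10000 * y ^ 5 := by nlinarith [pow_nonneg y0 5]
  have hE0 : 0 ≤ EW y 3 (4 * y) y 1 := by simp only [EW, GeoW778.DW]; positivity
  have hS : σ * GeoW778.DW y 3 (4 * y) y 1 ≤ 1 :=
    (mul_le_mul_of_nonneg_left hDW hσ.le).trans hsm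
  have hwin : ∀ z, j.g 0 ≤ z → z ≤ j.g 0 + 1 →
      |coW κ i j 17 + coW κ i j 16 * (z - j.g 0) + coW κ i j 13 * (z - j.g 0) ^ 2| ≤
        σ * (10000 * y ^ 5) := by
    intro z h1 h2
    have hz : |z| ≤ 3 := by
      have := abs_le.1 hzj
      rw [abs_le]; constructor <;> linarith
    have h := own_flag hi hj hσ hGi hGj hV hz (hX z hz) (ρ' := 1)
      (by rw [abs_le]; constructor <;> linarith) hS
    have e : coW κ i j 17 + coW κ i j 16 * (z - j.g 0) + coW κ i j 13 * (z - j.g 0) ^ 2 =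
        coW κ i j 17 + (z - j.g 0) * coW κ i j 16 + (z - j.g 0) ^ 2 * coW κ i j 13 := by ring
    rw [e]
    exact h.trans (mul_le_mul_of_nonneg_left hEW hσ.le)
  have hq := ThrH464.quad_win (z0 := j.g 0) (zc := j.g 0) (ρ := 1) (R := 1) one_pos
    (fun z h1 h2 => by rw [abs_le]; constructor <;> linarith) hwin
  have P : 0 ≤ σ * y ^ 5 := by positivity
  rcases hk with rfl | rfl | rfl | rfl | rfl | rfl
  · rw [own1 hi hj, abs_zero]; positivity
  · rw [own2 hi hj, abs_zero]; positivity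
  · rw [own3 hi hj, abs_mul]
    have h1 := hi.drift_bound hσ.le hGi hV
    have h2 : |j.g 0 - i.g 0| ≤ 2 := by
      have a := abs_le.1 hzi
      have b := abs_le.1 hzj
      rw [abs_le]; constructor <;> linarith
    have h3 : y * (1 + 3 * y + 6 * y ^ 2) ≤ 10 * y ^ 5 := by nlinarith
    calc |dB κ i t| * |j.g 0 - i.g 0| ≤ (σ * (y * (1 + 3 * y + 6 * y ^ 2))) * 2 :=
          mul_le_mul h1 h2 (abs_nonneg _) (by positivity)
      _ ≤ (σ * (10 * y ^ 5)) * 2 := by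
          refine mul_le_mul_of_nonneg_right (mul_le_mul_of_nonneg_left h3 hσ.le) (by norm_num)
      _ ≤ σ * (240000 * y ^ 5) := by nlinarith
  · have := hq.2.2
    nlinarith
  · have := hq.2.1
    nlinarith
  · have := hq.1
    nlinarith

end own

/-! ### sequences -/

/-- **data of a marked sequence in normal coordinates `(Y, A, B)`**: quadrics `Y = zB + kp A²`,
thickness unit `sg` (infinitely small), true lines `L n l`, flagged incidences `F n x`, normal height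
`hz x.2 - zs`.  `B` = base of the window in which the container was straightened (the marked sequence
may live in a shorter window with a larger base). -/
structure WData (B : Base) (I : ℕ → Finset (ℕ × ℝ)) (kp sg hz zs : ℕ → ℝ)
    (L : ℕ → ℕ → Ln4) (F : ℕ → ℕ × ℝ → FW) : Prop where
  kp1 : ∀ n, |kp n| ≤ 1
  sg0 : ∀ n, 0 < sg n
  hz0 : ∀ n, 0 < hz n
  sgs : ∀ M : ℝ, ∀ᶠ n in (U : Filter ℕ), sg n ≤ B.d n ^ M
  gz : ∀ n x, (F n x).g 0 = hz n * x.2 - zs n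
  zb : ∀ᶠ n in (U : Filter ℕ), ∀ x ∈ I n, |(F n x).g 0| ≤ 1
  tru : ∀ᶠ n in (U : Filter ℕ), ∀ x ∈ I n, TrueW (kp n) (sg n) (F n x) (L n x.1)
  bd : ∃ C : ℝ, 0 ≤ C ∧ ∀ᶠ n in (U : Filter ℕ), ∀ x ∈ I n,
    (∀ k, |(F n x).G k| ≤ B.d n ^ (-C)) ∧ (∀ k, |(L n x.1).v k| ≤ B.d n ^ (-C)) ∧
      ∀ k, |(L n x.1).p k| ≤ B.d n ^ (-C)

section seq

variable {B : Base} {I : ℕ → Finset (ℕ × ℝ)} {kp sg hz zs : ℕ → ℝ}
    {L : ℕ → ℕ → Ln4} {F : ℕ → ℕ × ℝ → FW}

/-- smaller sets -/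
theorem WData.mono {J : ℕ → Finset (ℕ × ℝ)} (h : WData B I kp sg hz zs L F)
    (hJ : ∀ᶠ n in (U : Filter ℕ), J n ⊆ I n) : WData B J kp sg hz zs L F where
  kp1 := h.kp1
  sg0 := h.sg0
  hz0 := h.hz0
  sgs := h.sgs
  gz := h.gz
  zb := by filter_upwards [h.zb, hJ] with n hn hJ x hx using hn x (hJ hx)
  tru := by filter_upwards [h.tru, hJ] with n hn hJ x hx using hn x (hJ hx)
  bd := by
    obtain ⟨C, hC, h1⟩ := h.bd
    refine ⟨C, hC, ?_⟩
    filter_upwards [h1, hJ] with n hn hJ x hx using hn x (hJ hx)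

/-- products with the thickness unit are infinitely small -/
theorem WData.small (h : WData B I kp sg hz zs L F) (c a M : ℝ) (hc : 0 < c) :
    ∀ᶠ n in (U : Filter ℕ), sg n * (c * B.d n ^ a) ≤ B.d n ^ M := by
  filter_upwards [h.sgs (M - a + 1), ev_const B hc one_pos] with n h1 h2
  have hd := dpow_pos B n
  calc sg n * (c * B.d n ^ a) ≤ B.d n ^ (M - a + 1) * (B.d n ^ (-(1 : ℝ)) * B.d n ^ a) := by
        refine mul_le_mul h1 (mul_le_mul_of_nonneg_right h2 (hd a).le)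
          (mul_nonneg hc.le (hd a).le) (hd _).le
    _ = B.d n ^ M := by rw [← dpow_add, ← dpow_add]; congr 1; ring

/-- **the coordinates `c, A, B, z², z, 1` of two incidences of one line are infinitely small** -/
theorem WData.inv_line (h : WData B I kp sg hz zs L F) (k : Fin 18)
    (hk : k = 1 ∨ k = 2 ∨ k = 3 ∨ k = 13 ∨ k = 16 ∨ k = 17) (M : ℝ) :
    ∀ᶠ n in (U : Filter ℕ), ∀ x ∈ I n, ∀ y ∈ I n, y.1 = x.1 →
      |coW (kp n) (F n x) (F n y) k| ≤ B.d n ^ M := by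
  obtain ⟨C, hC, hbd⟩ := h.bd
  filter_upwards [h.zb, h.tru, hbd, h.small 200 (-(3 * C)) 0 (by norm_num),
    h.small 240000 (-(5 * C)) M (by norm_num)] with n h1 h2 h3 h4 h5 x hx y hy hxy
  have hd := dpow_pos B n
  have e3 : (B.d n ^ (-C)) ^ 3 = B.d n ^ (-(3 * C)) := by
    rw [← Real.rpow_natCast, ← Real.rpow_mul (B.pos n).le]; congr 1; push_cast; ring
  have e5 : (B.d n ^ (-C)) ^ 5 = B.d n ^ (-(5 * C)) := by
    rw [← Real.rpow_natCast, ← Real.rpow_mul (B.pos n).le]; congr 1; push_cast; ring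
  have hy1 : 1 ≤ B.d n ^ (-C) := by
    have := dpow_le B n (show -C ≤ 0 by linarith)
    rwa [Real.rpow_zero] at this
  have ty := h2 y hy
  rw [hxy] at ty
  refine (own_line (h2 x hx) ty (h.sg0 n) hy1 (h3 x hx).1 (h3 y hy).1 (h3 x hx).2.1
    (h3 x hx).2.2 (h1 x hx) (h1 y hy) ?_ k hk).trans ?_
  · rw [e3]
    rwa [Real.rpow_zero] at h4
  · rw [e5]
    exact h5

end seq

end Crest.Agent.R136.PrW464
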