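import Crest.Agent.R136.Wq3_638

/-!
# R136, wrapper `J2 → PreQ` for the straight chart `coQ` (helper638), part 4: assembly

`SlotQ` : what the second zoom gives about the slots `E, F_b, F_a` (coordinates `2, 3, 4` of `coQ`);
`preQ4` : marked sequence + slots + GEO-D + GEO-R ⊢ `PreQ`.
-/

set_option autoImplicit false
set_option linter.unusedVariables false

open Finset Filter Topology

namespace Crest.Agent.R136.Wq638

open Crest.Agent.R138.Ex926 (Base U)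
open Crest.Agent.R138.Dp76 (dpow_pos dpow_add dpow_le dpow_le_one)
open Crest.Agent.R138.Mk163 (zc zl rho alive own)
open Crest.Agent.R138.MkRef627 (lc kc own_one mem_alive)
open Crest.Agent.R136.MkA627
open Crest.Agent.R136.Net191
open Crest.Agent.R136.NetQ186
open Crest.Agent.R136.GeoQ186
open Crest.Agent.R136.Sh605 (Ln4 V3)
open Crest.Agent.R136.TD627 (TDist)

open Classical in
/-- **slots of the straight chart**: `F n x` = incidence with its flag, `sc k` = scale of the slot `k`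
(precision at level `0` up to `d^o(1)`), `V k` = visible (tied or capped), `T k` = tied. -/
structure SlotQ (B : Base) (I : ℕ → Finset (ℕ × ℝ)) (lev : ℕ → ℚ → ℕ) (w : Fin 3 → ℕ → ℚ → ℝ)
    (θ : Fin 3 → ℝ) (F : ℕ → ℕ × ℝ → Fq4) (sc : Fin 11 → ℕ → ℝ) (V T : Fin 11 → Prop) : Prop where
  vis : ∀ k, V k → isSl k
  tied : ∀ k, T k → V k
  scpos : ∀ k n, 0 < sc k n
  sc0 : ∀ k, isSl k → Tendsto (fun n => Real.log (sc k n / prQ w k n 0) / B.L n) U (𝓝 0)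
  rot : ∀ k, V k → ∀ u : ℚ, 0 ≤ u → u ≤ 1 → ∀ ε : ℝ, 0 < ε → ∀ᶠ n in (U : Filter ℕ),
    ∀ x ∈ I n, ∀ y ∈ I n, y.1 = x.1 → zc (lev n u) y.2 = zc (lev n u) x.2 →
      |coQ (F n x) (F n y) k| ≤ sc k n * B.d n ^ (btQ θ k * u - ε)
  inv : ∀ k, isSl k → ¬ V k → ∀ M : ℝ, ∀ᶠ n in (U : Filter ℕ),
    ∀ x ∈ I n, ∀ y ∈ I n, y.1 = x.1 → |coQ (F n x) (F n y) k| ≤ sc k n * B.d n ^ M
  tw : ∀ k, T k → ∀ u : ℚ, 0 ≤ u → u < 1 → ∀ r : ℝ, btQ θ k * u < r → ∃ γ : ℝ, 0 < γ ∧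
    ∀ᶠ n in (U : Filter ℕ), ∀ x ∈ I n,
      ((((I n).filter fun y => y.1 = x.1 ∧ zc (lev n u) y.2 = zc (lev n u) x.2 ∧
        |coQ (F n x) (F n y) k| ≤ sc k n * B.d n ^ r).card : ℕ) : ℝ) ≤
        B.d n ^ γ * ((own (I n) (lev n u) (lev n 1) x).card : ℝ)

variable {σ : Type*} {B : Base} {I : ℕ → Finset (ℕ × ℝ)} {G : Geo σ (Fin 3)} {lev : ℕ → ℚ → ℕ}
    {A : ℕ → ℝ} {g s : ℝ} {θ : Fin 3 → ℝ} {f : ℕ → ℚ → ℕ → ℤ → ℕ} {b : ℕ → ℚ → ℕ → σ}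
    {vm : ℕ → ℚ → ℝ} {w : Fin 3 → ℕ → ℚ → ℝ} {w0 R T0 : ℝ} {q : Fin 3 → ℝ}
    {π : Equiv.Perm (Fin 3)} {L : ℕ → ℕ → Ln4} {eE fA fB : ℕ → ℕ × ℝ → ℝ}
    {sc : Fin 11 → ℕ → ℝ} {V T : Fin 11 → Prop} {PD : Set (Fin 11 → ℝ)}

open Classical in
/-- **U8, straight chart: marked sequence with slots ⊢ input of L15.** -/
theorem preQ4
    (h : MkA B I G lev A (fun v => g * v) (fun v => s * v) (fun j v => θ j * (1 - v)) f b vm w)
    (hb : BigQ θ w0 R T0)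
    (hval : ∀ n i J t, G.adm n i J t → G.val n i J t = capQ q (rho i) fun k => G.wid k t)
    (hS : SlotQ B I lev w θ (incQ π L eE fA fB) sc V T)
    (PDne : PD.Nonempty) (PDleg : PD ⊆ Leg monQ R)
    (gD : ∀ p ∈ PD, ∀ K : ℝ, 1 ≤ K → ∀ ε : ℝ, 0 < ε → ∀ᶠ n in (U : Filter ℕ), ∀ x ∈ I n,
      (((I n).filter fun y => Near (couQ B lev w w0 (incQ π L eE fA fB) n) (B.d n) p K x y).card : ℝ) ≤
        N0Q A vm n * B.d n ^ (-(DQ g s q w0 p + ε)))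
    (gR : ∀ u : ℚ, 0 ≤ u → u ≤ 1 → ∀ ε : ℝ, 0 < ε → ∀ᶠ n in (U : Filter ℕ), ∀ x ∈ I n, ∀ y ∈ I n,
      kc (lev n u) (f n u) y = kc (lev n u) (f n u) x →
      ∀ k, |couQ B lev w w0 (incQ π L eE fA fB) n x y k| ≤ B.d n ^ (pathQ θ w0 R u k - ε)) :
    Lq196.PreQ B I G lev A g s (fun j v => θ j * (1 - v)) f b vm w
      (couQ B lev w w0 (incQ π L eE fA fB)) monQ 2 R 0 w0 (N0Q A vm) PD (DQ g s q w0)
      (pathQ θ w0 R) (ownQ θ w0 R V) (EQ θ g s q w0 R) T where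
  mka := h
  chart := fun n => chart_couQ n (I n)
  zco := fun n x _ y _ => zco_Q n x y
  w00 := lt_of_lt_of_le one_pos hb.w0pos
  w0R := hb.wR
  N0pos := by
    filter_upwards [h.vpos 0 le_rfl zero_le_one] with n hn
    exact mul_pos (h.Apos n) hn
  PDne := PDne
  PDleg := PDleg
  gD := gD
  rleg := fun v h0 h1 => hb.path_leg h0 h1
  rpos := hb.path_pos V
  rlip := hb.path_lip V g s q
  gR := gR
  gH := fun u h0 h1 => gH_Q h (fun v a c => vm_eq h hval a c) R u h0 h1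
  oz := fun v _ _ => ownQ_zero θ w0 R V v
  own_near := fun u h0 h1 ε hε =>
    own_near_Q h hb hS.vis hS.scpos hS.sc0 hS.rot hS.inv u h0 h1 ε hε
  tw := fun k hk u h0 h1 ρ hρ =>
    tw_Q h hS.scpos (hS.vis k (hS.tied k hk)) (hS.tied k hk)
      (hS.sc0 k (hS.vis k (hS.tied k hk))) (hS.tw k hk) u h0 h1 ρ hρ

end Crest.Agent.R136.Wq638
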