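import Crest.Agent.R136.PrW1_464
import Crest.Agent.R136.PrW2_464
import Crest.Agent.R136.TD3_627
import Crest.Agent.R136.Wq4_638

/-!
# R136, wrapper `J2 → PreQ` for the W-chart (helper464), part 3: the chart in graded units

* `unW uz uc un k` : graded unit of the coordinate `k`; `couW` : the chart; `chart_couW`.
* `tdW` : the W-chart as triangular pseudo-distances (`TD627.TDist`).
-/

set_option autoImplicit false
set_option linter.unusedVariables false

open Finset Filter Topology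

namespace Crest.Agent.R136.PrW464

open Crest.Agent.R136.Net191
open Crest.Agent.R136.NetW191
open Crest.Agent.R136.TD627
open Crest.Agent.R138.Ex926 (Base U)

/-! ### graded units -/

/-- graded unit of the coordinate `k` -/
noncomputable def unW (uz uc un : ℝ) (k : Fin 18) : ℝ := uz ^ wz k * uc ^ wc k * un ^ wn k

theorem unW_pos {uz uc un : ℝ} (hz : 0 < uz) (hc : 0 < uc) (hn : 0 < un) (k : Fin 18) :
    0 < unW uz uc un k :=
  mul_pos (mul_pos (zpow_pos hz _) (zpow_pos hc _)) (zpow_pos hn _)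

theorem unW_zero (uz uc un : ℝ) : unW uz uc un 0 = uz := by
  simp [unW, wz, wc, wn]

theorem unW_mul {uz uc un vz vc vn : ℝ} (k : Fin 18) :
    unW (uz * vz) (uc * vc) (un * vn) k = unW uz uc un k * unW vz vc vn k := by
  simp only [unW, mul_zpow]; ring

theorem unW_div {uz uc un vz vc vn : ℝ} (k : Fin 18) :
    unW (uz / vz) (uc / vc) (un / vn) k = unW uz uc un k / unW vz vc vn k := by
  simp only [unW, div_zpow, div_mul_div_comm]

theorem unW_rpow {d : ℝ} (hd : 0 < d) (ζ χ ν : ℝ) (k : Fin 18) :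
    unW (d ^ ζ) (d ^ χ) (d ^ ν) k = d ^ grW ζ χ ν k := by
  have h : ∀ (a : ℝ) (m : ℤ), (d ^ a) ^ m = d ^ ((m : ℝ) * a) := by
    intro a m
    rw [← Real.rpow_intCast, ← Real.rpow_mul hd.le, mul_comm]
  simp only [unW, grW, h]
  rw [← Real.rpow_add hd, ← Real.rpow_add hd]

theorem zpow_list {m : ℕ} {u : ℝ} (hu : 0 < u) (a : Fin m → ℤ) (l : List (Fin m)) :
    (l.map fun k => u ^ a k).prod = u ^ (l.map a).sum := by
  induction l with
  | nil => simp
  | cons x l ih =>
    simp only [List.map_cons, List.prod_cons, List.sum_cons, ih]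
    rw [zpow_add₀ hu.ne']

/-- the units are multiplicative along the monomials -/
theorem unW_list {uz uc un : ℝ} (hz : 0 < uz) (hc : 0 < uc) (hn : 0 < un) (k : Fin 18)
    (l : List (Fin 18)) (hl : l ∈ mlW k) : (l.map (unW uz uc un)).prod = unW uz uc un k := by
  have key : ∀ l : List (Fin 18), (l.map (unW uz uc un)).prod =
      (l.map fun k => uz ^ wz k).prod * (l.map fun k => uc ^ wc k).prod *
        (l.map fun k => un ^ wn k).prod := by
    intro l
    induction l with
    | nil => simp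
    | cons x l ih =>
      simp only [List.map_cons, List.prod_cons, ih, unW]
      ring
  rw [key, zpow_list hz, zpow_list hc, zpow_list hn, wz_list k l hl, wc_list k l hl,
    wn_list k l hl]
  rfl

theorem unW_mon {uz uc un : ℝ} (hz : 0 < uz) (hc : 0 < uc) (hn : 0 < un) (k : Fin 18)
    (e : Fin 18 → ℕ) (he : e ∈ monW.mon k) : ∏ s, unW uz uc un s ^ e s = unW uz uc un k := by
  obtain ⟨l, hl, rfl⟩ := List.mem_map.1 (List.mem_toFinset.1 he)
  rw [← prod_count, unW_list hz hc hn k l hl]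

/-! ### the chart -/

/-- **the W-chart in graded units** -/
noncomputable def couW (kp uz uc un : ℕ → ℝ) (F : ℕ → ℕ × ℝ → FW) (n : ℕ) (x y : ℕ × ℝ)
    (k : Fin 18) : ℝ :=
  unW (uz n) (uc n) (un n) k * coW (kp n) (F n x) (F n y) k

theorem chartW_un {ι : Type*} (I : Finset ι) (f : ι → FW) {κ : ℝ} (hκ : |κ| ≤ 1) {uz uc un : ℝ}
    (hz : 0 < uz) (hc : 0 < uc) (hn : 0 < un) :
    Chart I (fun i j k => unW uz uc un k * coW κ (f i) (f j) k) monW 67 :=
  PqG464.chart_scl (chartW I f hκ) (unW_pos hz hc hn) fun k e he => (unW_mon hz hc hn k e he).ge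

theorem chart_couW {kp uz uc un : ℕ → ℝ} (F : ℕ → ℕ × ℝ → FW) (hκ : ∀ n, |kp n| ≤ 1)
    (hz : ∀ n, 0 < uz n) (hc : ∀ n, 0 < uc n) (hn : ∀ n, 0 < un n) (n : ℕ)
    (J : Finset (ℕ × ℝ)) : Chart J (couW kp uz uc un F n) monW 67 :=
  chartW_un J (F n) (hκ n) (hz n) (hc n) (hn n)

theorem coW_refl (κ : ℝ) (hκ : |κ| ≤ 1) (a : FW) (k : Fin 18) : coW κ a a k = 0 :=
  (chartW ({a} : Finset FW) id hκ).refl a (Finset.mem_singleton_self a) k

theorem coW_zero (κ : ℝ) (a b : FW) : coW κ a b 0 = b.g 0 - a.g 0 := by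
  have e : coW κ a b 0 = rel κ a.g b.g 0 := coW_left κ a b 0
  rw [e]; simp [rel]

/-- the W-chart as triangular pseudo-distances -/
noncomputable def tdW (kp : ℕ → ℝ) (hκ : ∀ n, |kp n| ≤ 1) : TDist FW 18 :=
  TDist.ofChart monW (fun n a b => coW (kp n) a b) 67 (by norm_num)
    (fun n a k => coW_refl _ (hκ n) a k)
    (fun n a b c k => by
      classical
      exact (chartW ({a, b, c} : Finset FW) id (hκ n)).add a (by simp) b (by simp) c (by simp) k)

theorem tdW_d (kp : ℕ → ℝ) (hκ : ∀ n, |kp n| ≤ 1) (j : Fin 18) (n : ℕ) (a b : FW) :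
    (tdW kp hκ).d j n a b = |coW (kp n) a b j| := rfl

theorem tdW_M (kp : ℕ → ℝ) (hκ : ∀ n, |kp n| ≤ 1) : (tdW kp hκ).M = monW := rfl

end Crest.Agent.R136.PrW464
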