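import Crest.Agent.R136.EvW3_938
import Crest.Agent.R136.PrW3_464

/-!
# R136: the units of helper464 are admissible in `WWnd` (helper938)
-/

set_option autoImplicit false

namespace Crest.Agent.R136.EvW938

open Crest.Agent.R136.NetW191 Crest.Agent.R136.Qg926
open Crest.Agent.R136.PrW464

theorem GrU.unW {uz uc un : ℝ} (hz : 0 < uz) (hc : 0 < uc) (hn : 0 < un) :
    GrU (PrW464.unW uz uc un) :=
  ⟨fun s => unW_pos hz hc hn s, fun k l hl => unW_list hz hc hn k l hl⟩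

/-- **a window over the chart `couW`** -/
theorem WWnd.of_couW {W : Wnd 18 fun _ => ℕ × ℝ} {kp uz uc un : ℕ → ℝ} {F : ℕ → ℕ × ℝ → FW}
    (ok : W.Ok) (hκ : ∀ n, |kp n| ≤ 1) (hz : ∀ n, 0 < uz n) (hc : ∀ n, 0 < uc n)
    (hn : ∀ n, 0 < un n) (hM : W.M = monW) (hco : W.co = couW kp uz uc un F) (kz : W.kz = 0)
    (h0 : (0 : Fin 18) ∈ W.S)
    (hS : ∀ s ∈ W.S, s ≠ 1 ∧ s ≠ 2 ∧ s ≠ 3 ∧ s ≠ 13 ∧ s ≠ 16 ∧ s ≠ 17) :
    WWnd W kp (fun n => PrW464.unW (uz n) (uc n) (un n)) F where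
  ok := ok
  hκ := hκ
  hl n := GrU.unW (hz n) (hc n) (hn n)
  hM := hM
  hco := by
    intro n i _ j _ s
    rw [hco]
    rfl
  kz := kz
  h0 := h0
  hS := hS

end Crest.Agent.R136.EvW938
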