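import Crest.Agent.R136.LadW3_697
import Crest.Agent.R136.Aw0_413

/-!
# R136, thin branch (helper697): end of an F-lemma

* `ray_eq`  : `lam (u • T) = u * A.1`
* `full_of_ray` : `lam (u • T) ≤ -(3 + s) u + C` for all large `u` ⊢ `3 + s ≤ -A.1`
-/

set_option autoImplicit false
set_option linter.unusedVariables false

open Finset Filter Topology

namespace Crest.Agent.R136.LadW697

open Crest.Agent.R136.Dg219

section ray

variable {m : ℕ} {T b : Fin m → ℝ} {L : Set (Fin m → ℝ)} {lam : (Fin m → ℝ) → ℝ} {A : ℝ × ℝ}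
  {φ : ℕ → (Fin m → ℝ) → ℝ} {r : ℕ → ℝ}

theorem ray_eq (H : OutS (gC T b) L (dhC T b) (nC T b) lam A φ r) {u : ℝ} (hu : u • T ∈ L) :
    lam (u • T) = u * A.1 := by
  rw [H.sum _ hu]
  have h1 := H.total (u, 0)
  have h2 : ∀ k ∈ gset (gC T b), φ k (u • T) = -(r k * lf (nC T b k) (u, 0)) := by
    intro k hk
    by_cases h0 : k = 0
    · subst h0
      rw [nC_zero, H.zero 0 (u • T) fun i hi => by
        rw [Pi.smul_apply, gC_zero.1 hi, smul_zero]]
      simp [lf]
    · obtain ⟨i, hi⟩ : ∃ i, gC T b i = k := by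
        simpa [gset] using hk
      have hT : T i ≠ 0 := fun h => h0 (by rw [← hi, gC_zero.2 h])
      rw [H.rate k (u • T) hu u fun j hj => by
        have hTj : T j ≠ 0 := fun h => h0 (by rw [← hj, gC_zero.2 h])
        simp [dhC, hTj]]
      rw [← hi, nC_of hT]
      simp [lf]
  rw [Finset.sum_congr rfl h2, Finset.sum_neg_distrib, ← h1]
  simp only [lf]
  ring

theorem full_of_ray (H : OutS (gC T b) L (dhC T b) (nC T b) lam A φ r) {F C : ℝ}
    (h : ∃ᶠ u in atTop, u • T ∈ L ∧ lam (u • T) ≤ -(F * u) + C) : F ≤ -A.1 := by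
  by_contra hcon
  push Not at hcon
  -- `-A.1 < F`
  have h1 : 0 < F + A.1 := by linarith
  obtain ⟨u, ⟨hu, hle⟩, hu2⟩ := (h.and_eventually (eventually_gt_atTop (max 0 (C / (F + A.1))))).exists
  rw [ray_eq H hu] at hle
  have h0 : 0 < u := lt_of_le_of_lt (le_max_left _ _) hu2
  have h3 : C / (F + A.1) < u := lt_of_le_of_lt (le_max_right _ _) hu2
  rw [div_lt_iff₀ h1] at h3
  nlinarith

end ray

end Crest.Agent.R136.LadW697
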