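import Crest.Agent.R136.W1b_938

/-!
# R136: row (i) of 5b (weight 1): `loss of c ≤ loss of P` (helper938)

`rowP_shift` : if the multiplier `phiP` is visible (raw twist `RawTwI`), weights `≥ 2` invisible up
to `ρ^y`, then `ν p - ν p' ≤ ν pT - ν r`, `p` = all line slots except `c` narrow, `p' = (p, c : y)`,
`pT` = all flags narrow, `r = (pT, P : y)`.
`twP` : `phiP` is visible as soon as one of the own slots `15` (A), `0 * 12` (zA) is.
-/

set_option autoImplicit false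
set_option linter.unusedSectionVars false
set_option linter.unusedVariables false

open Filter Topology

namespace Crest.Agent.R136.EvW938

open Finset Crest.Agent.R136.NetW191 Crest.Agent.R136.Net191 Crest.Agent.R136.Qg926
open Crest.Agent.R138.Ex926 (Base U)
open Crest.Agent.R136.Gf356
open Crest.Agent.R136.TrI938

variable {ι : ℕ → Type*} [∀ n, DecidableEq (ι n)] {W : Wnd 18 ι} {κ : ℕ → ℝ}
  {lam : ℕ → Fin 18 → ℝ}
  {f : ∀ n, ι n → FW}

/-- good `n` -/
def EvG (W : Wnd 18 ι) (E : ∀ n, Finset (ι n)) : Prop :=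
  ∀ᶠ n in (U : Filter ℕ), W.Good n ∧ E n ⊆ W.Cl n ∧ W.cfg E n = W.cfg0 n (E n)

/-- **the slot `P` sees `c`** -/
theorem rowP_shift (h : WWnd W κ lam f) {E : ∀ n, Finset (ι n)} (hE : EvG W E)
    {Leg : Set (Fin 18 → ℝ)} {ν : (Fin 18 → ℝ) → ℝ} {σ R D : ℝ}
    (H : RModel W.B' (W.cfg E) σ R Leg ν D) {y : ℝ} (hyt : ∀ s, y ≤ W.top s)
    (hinv : ∀ ε : ℝ, 0 < ε → ∀ᶠ n in (U : Filter ℕ), ∀ i k k', (i, k) ∈ (W.cfg E n).I →
      (i, k') ∈ (W.cfg E n).I → ∀ s ∈ W.S, s ≠ 0 → s ≠ 12 → s ≠ 15 →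
      |ownC W n i k k' s| ≤ W.B'.d n ^ (y - ε))
    (htw : RawTwI W.B' (W.cfg E) (phiP W lam))
    (p p' pT r : Fin 18 → ℝ) (hp : p ∈ Leg) (hp' : p' ∈ Leg) (hpT : pT ∈ Leg) (hr : r ∈ Leg)
    (hTr : ∀ j, pT j ≤ r j) (h1 : p' 1 ≤ y) (ho : ∀ j, j ≠ 1 → p' j ≤ p j)
    (hpy : ∀ s, s ∉ W.S → s ≠ 1 → y ≤ p s)
    (hT0 : ∀ s, s = 1 ∨ s = 2 ∨ s = 3 ∨ s = 13 ∨ s = 16 ∨ s = 17 → pT s ≤ 0)
    (hTy : ∀ s, s ∉ W.S → pT s ≤ y) (hry : y ≤ r 16) : ν p - ν p' ≤ ν pT - ν r := by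
  refine shiftI_R H p p' pT r hp hp' hpT hr hTr 1 16 h1 ho hry _ htw ?_
  intro C0 hC0
  refine ⟨C0 + 1, by linarith, fun ε hε => ?_⟩
  have hCε : 0 < C0 * ε := mul_pos hC0 hε
  have hbd : ∀ᶠ n in (U : Filter ℕ), ∀ s, CP W s ≤ W.B'.d n ^ (-ε) ∧
      W.K0 / W.kap s ≤ W.B'.d n ^ (-ε) := by
    rw [Filter.eventually_all]
    intro s
    exact (ev_const_le W.B' hε (CP W s)).and (ev_const_le W.B' hε (W.K0 / W.kap s))
  filter_upwards [hE, hinv (C0 * ε) hCε, hbd] with n hn hinvn hbn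
  obtain ⟨g, hsub, heq⟩ := hn
  rw [heq] at hinvn ⊢
  intro k hk k' hk' i i' hi hi' hl hl' hlo
  have hρ : (W.cfg0 n (E n)).ρ = W.B'.d n := rfl
  have hpos : ∀ t : ℝ, 0 < W.B'.d n ^ t := fun t => Real.rpow_pos_of_pos (W.B'.pos n) _
  have anti : ∀ {s t : ℝ}, s ≤ t → W.B'.d n ^ t ≤ W.B'.d n ^ s := fun hst =>
    Real.rpow_le_rpow_of_exponent_ge (W.B'.pos n) (W.B'.lt n).le hst
  have hmul : ∀ s : Fin 18, CP W s * W.B'.d n ^ (y - C0 * ε) ≤
      W.B'.d n ^ (y - (C0 + 1) * ε) := by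
    intro s
    refine (mul_le_mul_of_nonneg_right (hbn s).1 (hpos _).le).trans (le_of_eq ?_)
    rw [← Real.rpow_add (W.B'.pos n)]
    congr 1; ring
  obtain ⟨r1, r2⟩ := h.rowP_cfg g hsub hi hi' hl hl' (t := y) (η := W.B'.d n ^ (y - C0 * ε)) hyt
    (anti (by linarith)) (fun s hs a b c => hinvn i k k' hi hi' s hs a b c) (fun s hs h1s => by
      refine (hlo s).trans ?_
      rw [hρ]
      exact anti (by have := hpy s hs h1s; linarith))
  refine ⟨fun s => ?_, ?_⟩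
  · rw [hρ]
    by_cases hs : s ∈ W.S
    · have : (W.cfg0 n (E n)).rel k' i i' s = 0 := if_pos hs
      rw [this, abs_zero]
      exact (hpos _).le
    by_cases h6 : s = 1 ∨ s = 2 ∨ s = 3 ∨ s = 13 ∨ s = 16 ∨ s = 17
    · refine (h.rel_le g hsub hi' hl' s).trans ((hbn s).2.trans (anti ?_))
      have := hT0 s h6
      nlinarith
    · push Not at h6
      obtain ⟨a1, a2, a3, a4, a5, a6⟩ := h6
      refine (r1 s hs a1 a2 a3 a4 a5 a6).trans ((hmul s).trans (anti ?_))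
      have := hTy s hs
      linarith
  · refine r2.trans ((hmul 16).trans (anti le_rfl))

/-- the constant of the reversed pair -/
noncomputable def CEP (W : Wnd 18 ι) : ℝ := 470 * W.K0 ^ 7 * (1 + W.K0) * (W.kap 1 / W.kap 16)

/-- **one of the two orders of a pair of heights is good** -/
theorem WWnd.phiP_pair (h : WWnd W κ lam f) {n : ℕ} (g : W.Good n) {E : Finset (ι n)}
    (hE : E ⊆ W.Cl n) {i k k' : ℕ}
    (hi : (i, k) ∈ (W.cfg0 n E).I) (hi' : (i, k') ∈ (W.cfg0 n E).I) {t : ℝ}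
    (ht : ∀ s, t ≤ W.top s) :
    cfl W lam n [1, 15] 16 * |ownC W n i k k' 15| ≤
      max |phiP W lam n i k k'| |phiP W lam n i k' k| + CEP W * W.B'.d n ^ t ∧
    cfl W lam n [1, 0, 12] 16 * |ownC W n i k k' 0 * ownC W n i k k' 12| ≤
      max |phiP W lam n i k k'| |phiP W lam n i k' k| + CEP W * W.B'.d n ^ t := by
  have hK0 := h.ok.K0_one
  have hk1 := h.ok.kap 1
  have hk16 := h.ok.kap 16
  obtain ⟨v0, v15, v12⟩ := h.own_rev g hE hi hi' ht
  obtain ⟨w1, w2⟩ := h.wallsP g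
  have p0 : 0 < un W lam n 0 := h.un_pos n 0
  have p1 : 0 < un W lam n 1 := h.un_pos n 1
  have p12 : 0 < un W lam n 12 := h.un_pos n 12
  have p15 : 0 < un W lam n 15 := h.un_pos n 15
  have p16 : 0 < un W lam n 16 := h.un_pos n 16
  obtain ⟨d1, d2⟩ := det_raw v15 v12
  have hA0 : |un W lam n 0 * ownC W n i k k' 0| ≤ W.K0 * sd W lam n 0 := by
    refine (h.raw_le (h.own_le g hE hi hi' 0)).trans (le_of_eq ?_)
    have := (h.ok.kap 0).ne'
    field_simp
  have hsd : ∀ s, 0 ≤ sd W lam n s := fun s => (h.sd_pos n s).le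
  have hτ : 0 ≤ W.B'.d n ^ t := (Real.rpow_pos_of_pos (W.B'.pos n) _).le
  have p116 : 0 < un W lam n 1 / un W lam n 16 := div_pos p1 p16
  have e3 : un W lam n 1 / un W lam n 16 * sd W lam n 15 ≤ W.kap 1 / W.kap 16 := by
    rw [div_mul_eq_mul_div, div_le_div_iff₀ p16 hk16]
    unfold un
    calc W.kap 1 * sd W lam n 1 * sd W lam n 15 * W.kap 16
        = W.kap 1 * W.kap 16 * (sd W lam n 1 * sd W lam n 15) := by ring
      _ ≤ W.kap 1 * W.kap 16 * sd W lam n 16 :=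
          mul_le_mul_of_nonneg_left w1 (by positivity)
      _ = _ := by ring
  -- the multipliers
  have f1 : |phiP W lam n i k k'| = un W lam n 1 / un W lam n 16 *
      |un W lam n 15 * ownC W n i k k' 15 +
        un W lam n 0 * ownC W n i k k' 0 * (un W lam n 12 * ownC W n i k k' 12)| := by
    rw [← abs_of_pos p116, ← abs_mul]
    unfold phiP cfl
    simp only [List.map_cons, List.map_nil, List.prod_cons, List.prod_nil, mul_one]
    rw [abs_neg]
    congr 1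
    field_simp
  have f2 : |phiP W lam n i k' k| = un W lam n 1 / un W lam n 16 *
      |un W lam n 15 * ownC W n i k' k 15 +
        -(un W lam n 0 * ownC W n i k k' 0) * (un W lam n 12 * ownC W n i k' k 12)| := by
    rw [← v0, ← abs_of_pos p116, ← abs_mul]
    unfold phiP cfl
    simp only [List.map_cons, List.map_nil, List.prod_cons, List.prod_nil, mul_one]
    rw [abs_neg]
    congr 1
    field_simp
  have f3 : cfl W lam n [1, 15] 16 * |ownC W n i k k' 15| =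
      un W lam n 1 / un W lam n 16 * |un W lam n 15 * ownC W n i k k' 15| := by
    rw [abs_mul, abs_of_pos p15]
    unfold cfl
    simp only [List.map_cons, List.map_nil, List.prod_cons, List.prod_nil, mul_one]
    field_simp
  have f4 : cfl W lam n [1, 0, 12] 16 * |ownC W n i k k' 0 * ownC W n i k k' 12| =
      un W lam n 1 / un W lam n 16 *
        |un W lam n 0 * ownC W n i k k' 0 * (un W lam n 12 * ownC W n i k k' 12)| := by
    have e : un W lam n 0 * ownC W n i k k' 0 * (un W lam n 12 * ownC W n i k k' 12) =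
        (un W lam n 0 * un W lam n 12) * (ownC W n i k k' 0 * ownC W n i k k' 12) := by ring
    rw [e, abs_mul (un W lam n 0 * un W lam n 12), abs_of_pos (mul_pos p0 p12)]
    unfold cfl
    simp only [List.map_cons, List.map_nil, List.prod_cons, List.prod_nil, mul_one]
    field_simp
  -- the error
  have herr : un W lam n 1 / un W lam n 16 * (470 * W.K0 ^ 7 * W.B'.d n ^ t * sd W lam n 15 +
      |un W lam n 0 * ownC W n i k k' 0| * (470 * W.K0 ^ 7 * W.B'.d n ^ t * sd W lam n 12)) ≤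
      CEP W * W.B'.d n ^ t := by
    have e1 : |un W lam n 0 * ownC W n i k k' 0| *
        (470 * W.K0 ^ 7 * W.B'.d n ^ t * sd W lam n 12) ≤
        470 * W.K0 ^ 7 * W.B'.d n ^ t * (W.K0 * sd W lam n 15) := by
      calc |un W lam n 0 * ownC W n i k k' 0| * (470 * W.K0 ^ 7 * W.B'.d n ^ t * sd W lam n 12)
          ≤ (W.K0 * sd W lam n 0) * (470 * W.K0 ^ 7 * W.B'.d n ^ t * sd W lam n 12) :=
            mul_le_mul_of_nonneg_right hA0 (mul_nonneg (by positivity) (hsd _))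
        _ = 470 * W.K0 ^ 7 * W.B'.d n ^ t * (W.K0 * (sd W lam n 0 * sd W lam n 12)) := by ring
        _ ≤ _ := by
            refine mul_le_mul_of_nonneg_left ?_ (by positivity)
            exact mul_le_mul_of_nonneg_left w2 (by linarith)
    have e2 : 470 * W.K0 ^ 7 * W.B'.d n ^ t * sd W lam n 15 +
        |un W lam n 0 * ownC W n i k k' 0| * (470 * W.K0 ^ 7 * W.B'.d n ^ t * sd W lam n 12) ≤
        470 * W.K0 ^ 7 * (1 + W.K0) * W.B'.d n ^ t * sd W lam n 15 := by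
      have : 470 * W.K0 ^ 7 * (1 + W.K0) * W.B'.d n ^ t * sd W lam n 15 =
          470 * W.K0 ^ 7 * W.B'.d n ^ t * sd W lam n 15 +
          470 * W.K0 ^ 7 * W.B'.d n ^ t * (W.K0 * sd W lam n 15) := by ring
      rw [this]
      linarith
    calc un W lam n 1 / un W lam n 16 * (470 * W.K0 ^ 7 * W.B'.d n ^ t * sd W lam n 15 +
        |un W lam n 0 * ownC W n i k k' 0| * (470 * W.K0 ^ 7 * W.B'.d n ^ t * sd W lam n 12))
        ≤ un W lam n 1 / un W lam n 16 *
            (470 * W.K0 ^ 7 * (1 + W.K0) * W.B'.d n ^ t * sd W lam n 15) :=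
          mul_le_mul_of_nonneg_left e2 p116.le
      _ = 470 * W.K0 ^ 7 * (1 + W.K0) * W.B'.d n ^ t *
            (un W lam n 1 / un W lam n 16 * sd W lam n 15) := by ring
      _ ≤ 470 * W.K0 ^ 7 * (1 + W.K0) * W.B'.d n ^ t * (W.kap 1 / W.kap 16) :=
          mul_le_mul_of_nonneg_left e3 (by positivity)
      _ = _ := by unfold CEP; ring
  rw [f1, f2, f3, f4, ← mul_max_of_nonneg _ _ p116.le]
  constructor
  · have := mul_le_mul_of_nonneg_left d1 p116.le
    rw [mul_add] at this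
    linarith
  · have := mul_le_mul_of_nonneg_left d2 p116.le
    rw [mul_add] at this
    linarith

/-- a `ρ^ε`-part of the pairs, in one of the two orders -/
theorem swap_part {hs : Finset ℕ} {T : Finset (ℕ × ℕ)} (hT : T ⊆ hs ×ˢ hs) (P : ℕ × ℕ → Prop)
    (key : ∀ q ∈ T, P q ∨ P q.swap) {c : ℝ} (hc : 2 * c ≤ (T.card : ℝ)) :
    ∃ T' ⊆ hs ×ˢ hs, (∀ q ∈ T', P q) ∧ c ≤ (T'.card : ℝ) := by
  classical
  set T1 := T.filter fun q => P q with hT1def
  set T2 := T.filter fun q => ¬ P q with hT2def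
  have hcard : (T1.card : ℝ) + T2.card = T.card := by
    exact_mod_cast Finset.card_filter_add_card_filter_not (s := T) fun q => P q
  rcases le_total (T2.card : ℝ) (T1.card : ℝ) with hle | hle
  · refine ⟨T1, (Finset.filter_subset _ _).trans hT, fun q hq => (Finset.mem_filter.1 hq).2, ?_⟩
    linarith
  · refine ⟨T2.image Prod.swap, ?_, ?_, ?_⟩
    · intro q hq
      obtain ⟨q', hq', rfl⟩ := Finset.mem_image.1 hq
      have := Finset.mem_product.1 (hT (Finset.mem_filter.1 hq').1)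
      exact Finset.mem_product.2 ⟨this.2, this.1⟩
    · intro q hq
      obtain ⟨q', hq', rfl⟩ := Finset.mem_image.1 hq
      obtain ⟨a, b⟩ := Finset.mem_filter.1 hq'
      rcases key q' a with hk | hk
      · exact absurd hk b
      · exact hk
    · rw [Finset.card_image_of_injective _ Prod.swap_injective]
      linarith

/-- **raw twist of `phiP`** from the visibility of one of the own slots of weight 1 -/
theorem twP (h : WWnd W κ lam f) {E : ∀ n, Finset (ι n)} (hE : EvG W E)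
    {t : ℝ} (ht0 : 0 < t) (ht : ∀ s, t ≤ W.top s)
    (hvis : ∀ ε : ℝ, 0 < ε → ∀ᶠ n in (U : Filter ℕ), ∀ i ∈ (W.cfg E n).L,
      ∃ T ⊆ ((W.cfg E n).hts i) ×ˢ ((W.cfg E n).hts i), (∀ q ∈ T,
        W.B'.d n ^ ε < cfl W lam n [1, 15] 16 * |ownC W n i q.1 q.2 15| ∨
        W.B'.d n ^ ε < cfl W lam n [1, 0, 12] 16 *
          |ownC W n i q.1 q.2 0 * ownC W n i q.1 q.2 12|) ∧
      W.B'.d n ^ ε * (((W.cfg E n).hts i).card : ℝ) ^ 2 ≤ (T.card : ℝ)) :
    RawTwI W.B' (W.cfg E) (phiP W lam) := by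
  classical
  intro ε' hε'
  set ε := min ε' (t / 2) / 2 with hεdef
  have hε : 0 < ε := by
    have : 0 < min ε' (t / 2) := lt_min hε' (by linarith)
    positivity
  have hε1 : 2 * ε ≤ ε' := by
    have := min_le_left ε' (t / 2); rw [hεdef]; linarith
  have hε2 : 4 * ε ≤ t := by
    have := min_le_right ε' (t / 2); rw [hεdef]; linarith
  have hCE0 : 0 ≤ CEP W := by
    have := h.ok.K0_one
    have := h.ok.kap 1
    have := h.ok.kap 16
    unfold CEP; positivity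
  filter_upwards [hE, hvis ε hε, ev_const_le W.B' hε (2 * CEP W + 2)] with n hn hvn hcn
  obtain ⟨g, hsub, heq⟩ := hn
  rw [heq] at hvn ⊢
  intro i hi
  obtain ⟨T, hT1, hT2, hT3⟩ := hvn i hi
  have hpos : ∀ t : ℝ, 0 < W.B'.d n ^ t := fun t => Real.rpow_pos_of_pos (W.B'.pos n) _
  have anti : ∀ {s t : ℝ}, s ≤ t → W.B'.d n ^ t ≤ W.B'.d n ^ s := fun hst =>
    Real.rpow_le_rpow_of_exponent_ge (W.B'.pos n) (W.B'.lt n).le hst
  have radd : ∀ s t : ℝ, W.B'.d n ^ s * W.B'.d n ^ t = W.B'.d n ^ (s + t) := fun s t =>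
    (Real.rpow_add (W.B'.pos n) s t).symm
  have hc1 : (2 * CEP W + 2) * W.B'.d n ^ ε ≤ 1 := by
    have := mul_le_mul_of_nonneg_right hcn (hpos ε).le
    rwa [radd, neg_add_cancel, Real.rpow_zero] at this
  have hρε : W.B'.d n ^ ε ≤ 1 / 2 := by nlinarith [hpos ε, mul_nonneg hCE0 (hpos ε).le]
  have e22 : W.B'.d n ^ (2 * ε) = W.B'.d n ^ ε * W.B'.d n ^ ε := by rw [radd]; congr 1; ring
  have key : ∀ q ∈ T, W.B'.d n ^ ε' < |phiP W lam n i q.1 q.2| ∨
      W.B'.d n ^ ε' < |phiP W lam n i q.swap.1 q.swap.2| := by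
    intro q hq
    have hqm := Finset.mem_product.1 (hT1 hq)
    have hI1 : (i, q.1) ∈ (W.cfg0 n (E n)).I := (RCfg.mem_hts.1 hqm.1).2
    have hI2 : (i, q.2) ∈ (W.cfg0 n (E n)).I := (RCfg.mem_hts.1 hqm.2).2
    obtain ⟨d1, d2⟩ := h.phiP_pair g hsub hI1 hI2 ht
    have hMbig : W.B'.d n ^ ε < max |phiP W lam n i q.1 q.2| |phiP W lam n i q.2 q.1| +
        CEP W * W.B'.d n ^ t := by
      rcases hT2 q hq with hv | hv
      · linarith
      · linarith
    have g1 : CEP W * W.B'.d n ^ t ≤ 1 / 2 * W.B'.d n ^ (2 * ε) := by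
      have : W.B'.d n ^ t ≤ W.B'.d n ^ ε * W.B'.d n ^ (2 * ε) := by
        rw [radd]; exact anti (by linarith)
      calc CEP W * W.B'.d n ^ t ≤ CEP W * (W.B'.d n ^ ε * W.B'.d n ^ (2 * ε)) :=
            mul_le_mul_of_nonneg_left this hCE0
        _ = (CEP W * W.B'.d n ^ ε) * W.B'.d n ^ (2 * ε) := by ring
        _ ≤ _ := by
            refine mul_le_mul_of_nonneg_right ?_ (hpos _).le
            nlinarith [hpos ε]
    have g2 : W.B'.d n ^ (2 * ε) ≤ 1 / 2 * W.B'.d n ^ ε := by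
      rw [e22]
      exact mul_le_mul_of_nonneg_right hρε (hpos _).le
    have g3 := hpos (2 * ε)
    have g4 : W.B'.d n ^ ε' < max |phiP W lam n i q.1 q.2| |phiP W lam n i q.2 q.1| :=
      lt_of_le_of_lt (anti hε1) (by linarith)
    exact lt_max_iff.1 g4
  have hbig : 2 * (W.B'.d n ^ ε' * (((W.cfg0 n (E n)).hts i).card : ℝ) ^ 2) ≤ (T.card : ℝ) := by
    have e1 : W.B'.d n ^ ε' ≤ 1 / 2 * W.B'.d n ^ ε := by
      calc W.B'.d n ^ ε' ≤ W.B'.d n ^ (2 * ε) := anti hε1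
        _ = W.B'.d n ^ ε * W.B'.d n ^ ε := e22
        _ ≤ _ := mul_le_mul_of_nonneg_right hρε (hpos _).le
    have e2 := mul_le_mul_of_nonneg_right e1
      (sq_nonneg (((W.cfg0 n (E n)).hts i).card : ℝ))
    nlinarith
  exact swap_part hT1 (fun q => W.B'.d n ^ ε' < |phiP W lam n i q.1 q.2|) key hbig

end Crest.Agent.R136.EvW938
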