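import Crest.Agent.R136.Bas1_938
import Crest.Agent.R136.EvW4_938
import Crest.Agent.R136.W1_938
import Crest.Agent.R136.AwJ_774
import Crest.Agent.R136.LadW4_697

/-!
# R136 (helper938): windows of the W-chart inside an `AeW`, static data coded by integer vectors

* `ActM Ma Dr` : the active monomials are those without the slots `Dr`; `ActM.cone`, `actM_mA`.
* `scV y n` : the vector `y * n k`; `OkV n0 r n` : decidable legality of `scV y n` at the offset
  `scV y n0` in the box `y * r`.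
* `wst` : static data; **`exists_win`** : window + pruned set + `RModel` + `WWnd` + `EvG` + tight
  walls + raw twist, in one call.
-/

set_option autoImplicit false
set_option linter.unusedSectionVars false
set_option linter.unusedVariables false

open Filter Topology

namespace Crest.Agent.R136.Bas938

open Finset Crest.Agent.R138.Ex926 Crest.Agent.R136.Net191 Crest.Agent.R136.Gf356
open Crest.Agent.R136.Qg926 Crest.Agent.R136.Dg219 Crest.Agent.R136.Aw413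
open Crest.Agent.R136.NetW191 Crest.Agent.R136.EvW938 Crest.Agent.R136.PrW464
open Crest.Agent.R136.LadW697 Crest.Agent.R136.AwJ774
open Crest.Agent.R136.K2S774 (cn)

/-! ### active monomials -/

/-- the active monomials are the monomials without the slots `Dr` -/
structure ActM (Ma : Mons 18) (Dr : Set (Fin 18)) : Prop where
  iff : ∀ k e, e ∈ Ma.mon k ↔ k ∉ Dr ∧ ∃ l ∈ mlW k, (∀ s ∈ l, s ∉ Dr) ∧ e = fun s => l.count s

theorem mem_monW {k : Fin 18} {e : Fin 18 → ℕ} :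
    e ∈ monW.mon k ↔ ∃ l ∈ mlW k, e = fun s => l.count s := by
  constructor
  · intro he
    obtain ⟨l, hl, rfl⟩ := List.mem_map.1 (List.mem_toFinset.1 he)
    exact ⟨l, hl, rfl⟩
  · rintro ⟨l, hl, rfl⟩
    exact List.mem_toFinset.2 (List.mem_map.2 ⟨l, hl, rfl⟩)

theorem actM_mA (Dr : Set (Fin 18)) : ActM (mA monW (actW Dr)) Dr where
  iff := fun k e => by
    rw [mem_mA]
    constructor
    · rintro ⟨h1, h2, h3⟩
      obtain ⟨l, hl, rfl⟩ := mem_monW.1 h1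
      refine ⟨h2, l, hl, fun s hs hsD => ?_, rfl⟩
      exact (List.count_pos_iff.2 hs).ne' (h3 s hsD)
    · rintro ⟨h1, l, hl, h2, rfl⟩
      refine ⟨mem_monW.2 ⟨l, hl, rfl⟩, h1, fun s hs => ?_⟩
      exact List.count_eq_zero.2 fun hm => h2 s hm hs

section act

variable {Ma : Mons 18} {Dr : Set (Fin 18)} (hA : ActM Ma Dr)

include hA

theorem ActM.sub (k : Fin 18) : Ma.mon k ⊆ monW.mon k := fun e he => by
  obtain ⟨_, l, hl, _, h⟩ := (hA.iff k e).1 he
  exact mem_monW.2 ⟨l, hl, h⟩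

theorem ActM.cone {c : Fin 18 → ℝ} : c ∈ coneM Ma ↔
    ∀ k, k ∉ Dr → ∀ l ∈ mlW k, (∀ s ∈ l, s ∉ Dr) → c k ≤ (l.map c).sum := by
  constructor
  · intro h k hk l hl hs
    rw [sum_count]
    exact h k _ ((hA.iff k _).2 ⟨hk, l, hl, hs, rfl⟩)
  · intro h k e he
    obtain ⟨hk, l, hl, hs, rfl⟩ := (hA.iff k e).1 he
    rw [← sum_count]
    exact h k hk l hl hs

end act

/-! ### integer vectors -/

/-- the vector `y * n` -/
def scV (y : ℝ) (n : Fin 18 → ℕ) : Fin 18 → ℝ := fun k => y * n k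

/-- legality of the vector `n` at the offset `n0`, box `r` -/
def OkV (n0 : Fin 18 → ℕ) (r : ℕ) (n : Fin 18 → ℕ) : Prop :=
  (∀ k, n k ≤ r) ∧ ∀ k, ∀ l ∈ mlW k, n0 k + r ≤ (l.map n0).sum ∨ n k ≤ (l.map n).sum

instance (n0 : Fin 18 → ℕ) (r : ℕ) (n : Fin 18 → ℕ) : Decidable (OkV n0 r n) := by
  unfold OkV; infer_instance

theorem sum_scV (y : ℝ) (n : Fin 18 → ℕ) (l : List (Fin 18)) :
    (l.map (scV y n)).sum = y * ((l.map n).sum : ℕ) := by
  induction l with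
  | nil => simp
  | cons a l ih =>
    simp only [List.map_cons, List.sum_cons, ih, Nat.cast_add]
    unfold scV; ring

theorem sum_add' (p q : Fin 18 → ℝ) (l : List (Fin 18)) :
    (l.map (p + q)).sum = (l.map p).sum + (l.map q).sum := by
  induction l with
  | nil => simp
  | cons a l ih =>
    simp only [List.map_cons, List.sum_cons, ih, Pi.add_apply]; ring

/-- monomials which are not slack at the offset `c0` -/
noncomputable def offM (Ma : Mons 18) (c0 : Fin 18 → ℝ) (R' : ℝ) : Mons 18 where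
  mon k := by
    classical
    exact (Ma.mon k).filter fun e => ∑ s, (e s : ℝ) * c0 s < c0 k + R'
  low := fun k e he => Ma.low k e (mem_filter.1 he).1
  ne := fun k e he => Ma.ne k e (mem_filter.1 he).1

theorem mem_offM {Ma : Mons 18} {c0 : Fin 18 → ℝ} {R' : ℝ} {k : Fin 18} {e : Fin 18 → ℕ} :
    e ∈ (offM Ma c0 R').mon k ↔ e ∈ Ma.mon k ∧ ∑ s, (e s : ℝ) * c0 s < c0 k + R' := by
  classical
  simp only [offM, mem_filter]

/-- **legality** of sums of integer vectors -/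
theorem leg_scV {Ma : Mons 18} {Dr : Set (Fin 18)} (hA : ActM Ma Dr) {n0 : Fin 18 → ℕ} {r : ℕ}
    {n n' : Fin 18 → ℕ} (h : OkV n0 r n) (h' : OkV n0 r n') {y α β : ℝ} (hα : 0 ≤ α) (hβ : 0 ≤ β)
    (hy : α + β = y) : scV α n + scV β n' ∈ Leg (offM Ma (scV y n0) (y * r)) (y * r) := by
  have hy0 : 0 ≤ y := by linarith
  refine ⟨⟨fun k => ?_, fun k e he => ?_⟩, fun k => ?_⟩
  · simp only [Pi.add_apply, scV]; positivity
  · obtain ⟨h1, h2⟩ := mem_offM.1 he
    obtain ⟨hk, l, hl, hs, rfl⟩ := (hA.iff k e).1 h1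
    rw [← sum_count, sum_scV] at h2
    rw [← sum_count, sum_add', sum_scV, sum_scV]
    have h3 : ¬ n0 k + r ≤ (l.map n0).sum := by
      intro hle
      have h4 : ((n0 k + r : ℕ) : ℝ) ≤ ((l.map n0).sum : ℕ) := by exact_mod_cast hle
      have h5 := mul_le_mul_of_nonneg_left h4 hy0
      rw [Nat.cast_add, mul_add] at h5
      unfold scV at h2
      linarith
    have h4 : (n k : ℝ) ≤ ((l.map n).sum : ℕ) := by exact_mod_cast (h.2 k l hl).resolve_left h3
    have h5 : (n' k : ℝ) ≤ ((l.map n').sum : ℕ) := by exact_mod_cast (h'.2 k l hl).resolve_left h3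
    exact add_le_add (mul_le_mul_of_nonneg_left h4 hα) (mul_le_mul_of_nonneg_left h5 hβ)
  · have h4 : (n k : ℝ) ≤ r := by exact_mod_cast h.1 k
    have h5 : (n' k : ℝ) ≤ r := by exact_mod_cast h'.1 k
    simp only [Pi.add_apply, scV]
    have h6 := mul_le_mul_of_nonneg_left h4 hα
    have h7 := mul_le_mul_of_nonneg_left h5 hβ
    calc α * n k + β * n' k ≤ α * r + β * r := add_le_add h6 h7
      _ = y * r := by rw [← hy]; ring

theorem leg_one {Ma : Mons 18} {Dr : Set (Fin 18)} (hA : ActM Ma Dr) {n0 : Fin 18 → ℕ} {r : ℕ}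
    {n : Fin 18 → ℕ} (h : OkV n0 r n) {y : ℝ} (hy : 0 ≤ y) :
    scV y n ∈ Leg (offM Ma (scV y n0) (y * r)) (y * r) := by
  have := leg_scV hA h h (y := y) (α := y) (β := 0) hy le_rfl (by ring)
  have e : scV y n + scV 0 n = scV y n := by
    funext k; simp [scV]
  rwa [e] at this

/-- legal boxes of the offset window are directions of the cone -/
theorem leg_coneN {Ma : Mons 18} {Dr : Set (Fin 18)} (hA : ActM Ma Dr) {n0 : Fin 18 → ℕ} {r : ℕ}
    (h0 : ∀ k, ∀ l ∈ mlW k, n0 k ≤ (l.map n0).sum) {y : ℝ} (hy : 0 ≤ y) :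
    Leg (offM Ma (scV y n0) (y * r)) (y * r) ⊆ {p | scV y n0 + p ∈ coneM Ma} := by
  refine leg_coneO fun k e he => ?_
  obtain ⟨hk, l, hl, hs, rfl⟩ := (hA.iff k e).1 he
  rw [← sum_count]
  by_cases h : (l.map (scV y n0)).sum < scV y n0 k + y * r
  · left
    refine ⟨mem_offM.2 ⟨he, by rw [← sum_count]; exact h⟩, ?_⟩
    rw [sum_scV]
    exact mul_le_mul_of_nonneg_left (by exact_mod_cast h0 k l hl) hy
  · right; exact not_lt.1 h

/-- static data of a window -/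
noncomputable def wst (Ma : Mons 18) (n0 nt : Fin 18 → ℕ) (r : ℕ) (S : Finset (Fin 18)) (y : ℝ) :
    WSt 18 where
  S := S
  kz := 0
  top := scV y nt
  kap := fun _ => 1
  Mw := offM Ma (scV y n0) (y * r)
  R' := y * r

/-- decidable static conditions -/
structure WDat (n0 nt : Fin 18 → ℕ) (r : ℕ) (S : Finset (Fin 18)) : Prop where
  off : ∀ k, ∀ l ∈ mlW k, n0 k ≤ (l.map n0).sum
  top : OkV n0 r nt
  lin : OkV n0 r (fun k => if k ∈ S then 0 else nt k)
  lev : OkV n0 r (fun k => if k ∈ S then nt k else 0)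
  zS : (0 : Fin 18) ∈ S
  hS : ∀ s ∈ S, s ≠ 1 ∧ s ≠ 2 ∧ s ≠ 3 ∧ s ≠ 13 ∧ s ≠ 16 ∧ s ≠ 17
  z0 : n0 0 = 0
  zt : 1 ≤ nt 0

instance (n0 nt : Fin 18 → ℕ) (r : ℕ) (S : Finset (Fin 18)) : Decidable (WDat n0 nt r S) :=
  decidable_of_iff ((∀ k, ∀ l ∈ mlW k, n0 k ≤ (l.map n0).sum) ∧ OkV n0 r nt ∧
    OkV n0 r (fun k => if k ∈ S then 0 else nt k) ∧ OkV n0 r (fun k => if k ∈ S then nt k else 0) ∧
    (0 : Fin 18) ∈ S ∧ (∀ s ∈ S, s ≠ 1 ∧ s ≠ 2 ∧ s ≠ 3 ∧ s ≠ 13 ∧ s ≠ 16 ∧ s ≠ 17) ∧ n0 0 = 0 ∧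
    1 ≤ nt 0)
    ⟨fun ⟨a, b, c, d, e, f, g, h⟩ => ⟨a, b, c, d, e, f, g, h⟩,
      fun ⟨a, b, c, d, e, f, g, h⟩ => ⟨a, b, c, d, e, f, g, h⟩⟩

theorem cut_scV (S : Finset (Fin 18)) (y : ℝ) (n : Fin 18 → ℕ) :
    cut S (scV y n) 0 = scV y (fun k => if k ∈ S then 0 else n k) := by
  funext k
  by_cases hk : k ∈ S
  · rw [cut_of_mem hk]; simp [scV, hk]
  · rw [cut_of_notMem hk]; simp [scV, hk]

theorem cut_scV' (S : Finset (Fin 18)) (y : ℝ) (n : Fin 18 → ℕ) :
    cut S 0 (scV y n) = scV y (fun k => if k ∈ S then n k else 0) := by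
  funext k
  by_cases hk : k ∈ S
  · rw [cut_of_mem hk]; simp [scV, hk]
  · rw [cut_of_notMem hk]; simp [scV, hk]

theorem monW_zero : monW.mon 0 = ∅ := by
  ext e
  rw [mem_monW]
  constructor
  · rintro ⟨l, hl, _⟩
    have : mlW 0 = [] := by decide
    rw [this] at hl
    exact absurd hl (List.not_mem_nil)
  · intro h; exact absurd h (notMem_empty e)

theorem wst_ok {Ma : Mons 18} {Dr : Set (Fin 18)} (hA : ActM Ma Dr) {n0 nt : Fin 18 → ℕ} {r : ℕ}
    {S : Finset (Fin 18)} (hd : WDat n0 nt r S) {y : ℝ} (hy : 0 ≤ y) :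
    (wst Ma n0 nt r S y).Ok monW {p | scV y n0 + p ∈ coneM Ma} where
  R0 := mul_nonneg hy (Nat.cast_nonneg _)
  leg := leg_coneN hA hd.off hy
  top_leg := leg_one hA hd.top hy
  lin_leg := by
    show cut S (scV y nt) 0 ∈ _
    rw [cut_scV]
    exact leg_one hA hd.lin hy
  lev_leg := by
    show cut S 0 (scV y nt) ∈ _
    rw [cut_scV']
    exact leg_one hA hd.lev hy
  kzS := hd.zS
  kz0 := monW_zero
  kzw := by
    show (offM Ma (scV y n0) (y * r)).mon 0 = ∅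
    rw [eq_empty_iff_forall_notMem]
    intro e he
    have := hA.sub 0 (mem_offM.1 he).1
    rw [monW_zero] at this
    exact absurd this (notMem_empty e)
  kap := fun _ => one_pos

/-! ### the windows -/

section win

variable {B Bo : Base} {I J : ∀ n : ℕ, Finset (ℕ × ℝ)} {kp uz uc un : ℕ → ℝ}
  {F : ℕ → ℕ × ℝ → FW} {Ma : Mons 18} {Dr : Set (Fin 18)} {C : ℝ} {lam : (Fin 18 → ℝ) → ℝ}
  {a b : Fin 18 → ℝ} {A : ℝ × ℝ} {φ : ℕ → (Fin 18 → ℝ) → ℝ} {r : ℕ → ℝ} {κ : Fin 18 → ℝ}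
  {V Tw : Fin 18 → Prop}

/-- **output of one call** -/
structure WinOut (B Bo : Base) (kp uz uc un : ℕ → ℝ) (F : ℕ → ℕ × ℝ → FW) (Ma : Mons 18)
    (Dr : Set (Fin 18)) (lam : (Fin 18 → ℝ) → ℝ) (Tw : Fin 18 → Prop) (n0 nt : Fin 18 → ℕ)
    (rr : ℕ) (S : Finset (Fin 18)) (y : ℝ) (Mw : Mons 18) (W : Wnd 18 fun _ => ℕ × ℝ)
    (E : ∀ n : ℕ, Finset (ℕ × ℝ)) : Prop where
  ww : WWnd W kp (fun n => PrW464.unW (uz n) (uc n) (un n)) F
  ev : EvG W E
  mod : RModel W.B' (W.cfg E) 1 y W.legW W.nu W.Dc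
  eS : W.S = S
  etop : W.top = scV y nt
  ekap : W.kap = fun _ => 1
  elam : W.lam = fun p => lam (scV y n0 + p) - lam (scV y n0)
  eMw : W.Mw = Mw
  eR : W.R' = y * rr
  /-- tight walls -/
  tight : ∀ k, k ∉ Dr → ∀ l ∈ mlW k, (∀ s ∈ l, s ∉ Dr) → n0 k = (l.map n0).sum → ∀ n,
    W.X n k = (l.map (W.X n)).sum
  /-- raw twist -/
  tw : ∀ s ∈ S, Tw s → nt s ≠ 0 → n0 s = 0 →
    (∃ e : ℝ, 0 < e ∧ scV y n0 + cut S (scV y nt) (Pi.single s e) ∈ coneM Ma) → RawL W E s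

/-- **window, pruned set, model, raw twist in one call** -/
theorem exists_win (h : AeW B Bo I J (couW kp uz uc un F) monW Ma C lam a b A φ r 0 1 κ V Tw)
    (hA : ActM Ma Dr) (hκ : ∀ n, |kp n| ≤ 1) (hz : ∀ n, 0 < uz n) (hc : ∀ n, 0 < uc n)
    (hn : ∀ n, 0 < un n) (hJ : ∀ᶠ n in (U : Filter ℕ), (J n).Nonempty) {n0 nt : Fin 18 → ℕ}
    {rr : ℕ} {S : Finset (Fin 18)} (hd : WDat n0 nt rr S) {y : ℝ} (hy : 0 < y)
    (hden : ∀ i j, gC a b i = gC a b j → i ∈ S → j ∈ S ∨ nt j = 0)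
    (hV0 : ∀ k, V k → n0 k = 0) (hVS : ∀ k, V k → k ∈ S ∨ nt k = 0) (s : ℕ → ℕ → ℝ)
    (hs : ∀ i, Bo.Sub (s i)) :
    ∃ (W : Wnd 18 fun _ => ℕ × ℝ) (E : ∀ n : ℕ, Finset (ℕ × ℝ)),
      WinOut B Bo kp uz uc un F Ma Dr lam Tw n0 nt rr S y (offM Ma (scV y n0) (y * rr)) W E ∧
      ∀ i, W.B'.Sub (s i) := by
  have hst := wst_ok hA hd hy.le
  have hz0 : scV y n0 0 = 0 := by simp [scV, hd.z0]
  have h0 : scV y n0 ∈ coneM Ma := by
    rw [hA.cone]
    intro k _ l hl _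
    rw [sum_scV]
    exact mul_le_mul_of_nonneg_left (by exact_mod_cast hd.off k l hl) hy.le
  have hc0 : ∀ k, V k → scV y n0 k ≤ κ k * scV y n0 0 := fun k hk => by
    rw [hz0, mul_zero]; simp [scV, hV0 k hk]
  obtain ⟨W, g1, g2, g3⟩ := h.wndO (scV y n0) h0 (wst Ma n0 nt rr S y) rfl hst s hs J (fun _ => 1)
    (Eventually.of_forall fun n => Subset.refl _) hJ (Base.Sub.const one_pos)
    (Eventually.of_forall fun n => by rw [one_mul])
  have hzt : y ≤ scV y nt 0 := by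
    have : (1 : ℝ) ≤ nt 0 := by exact_mod_cast hd.zt
    simp only [scV]; nlinarith
  have hone : ∀ t, 0 ≤ t → t ≤ y → scV y n0 + Pi.single (0 : Fin 18) t ∈ coneM Ma := by
    intro t ht _
    rw [hA.cone]
    intro k _ l hl _
    rw [sum_add', sum_scV]
    have h1 : (0:ℝ) ≤ (l.map (Pi.single (0 : Fin 18) t : Fin 18 → ℝ)).sum := by
      refine List.sum_nonneg fun x hx => ?_
      obtain ⟨i, _, rfl⟩ := List.mem_map.1 hx
      by_cases hi : i = 0
      · subst hi; simpa using ht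
      · rw [Pi.single_eq_of_ne hi]
    have h2 : y * (n0 k : ℝ) ≤ y * ((l.map n0).sum : ℕ) :=
      mul_le_mul_of_nonneg_left (by exact_mod_cast hd.off k l hl) hy.le
    have h3 : k ≠ 0 := by
      rintro rfl
      have : mlW 0 = [] := by decide
      rw [this] at hl
      exact absurd hl (List.not_mem_nil)
    rw [Pi.add_apply, Pi.single_eq_of_ne h3, add_zero]
    unfold scV
    linarith
  have hden' : (wst Ma n0 nt rr S y).Dens (fun p => lam (scV y n0 + p) - lam (scV y n0)) 1 y :=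
    dens_of h h0 hc0 rfl hst (fun i j hij hi => (hden i j hij hi).imp id fun h2 => by
      show scV y nt j = 0
      simp [scV, h2]) zero_le_one le_rfl hzt hone
  obtain ⟨E, g, q1, q2, q3, q4⟩ := g1.model hden' (fun _ _ _ => 0) (g₀ := fun n => 1 + W.B'.L n)
    (tendsto_atTop.2 fun b => (W.B'.ev_L_ge b).mono fun n hn => by linarith) hc0
    (fun k hk => (hVS k hk).imp id fun h2 => by
      show scV y nt k = 0
      simp [scV, h2])
  refine ⟨W, E, ⟨?_, ?_, q3, g1.eS, g1.etop, g1.ekap, g1.elam, g1.eMw, g1.eR, ?_, ?_⟩, g2⟩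
  · exact WWnd.of_couW g1.ok hκ hz hc hn g1.eM g1.eco g1.ekz (by rw [g1.eS]; exact hd.zS)
      (by rw [g1.eS]; exact hd.hS)
  · filter_upwards [Wnd.ev_cfg g1.ok g1.ok.eok_section q1] with n hn
    exact ⟨hn.1, (q1.sub n).trans hn.2.1, hn.2.2.2⟩
  · intro k hk l hl hls hn0 n
    have h1 := g1.off k _ ((hA.iff k _).2 ⟨hk, l, hl, hls, rfl⟩) n
    rw [← sum_count, ← sum_count, sum_scV] at h1
    have h2 : y * (((l.map n0).sum : ℕ) : ℝ) - scV y n0 k = 0 := by
      rw [← hn0]; simp [scV]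
    rw [h2, zero_mul, add_zero] at h1
    exact h1
  · intro s hs hT hnt hn0 he
    refine q4 s hs hT ?_ ?_ he
    · show 0 < scV y nt s
      have : (0:ℝ) < nt s := by exact_mod_cast Nat.pos_of_ne_zero hnt
      simp only [scV]; positivity
    · show scV y n0 s = κ s * scV y n0 0
      rw [hz0, mul_zero]; simp [scV, hn0]

end win

end Crest.Agent.R136.Bas938
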