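import Crest.Agent.R136.Lf1_400

/-!
# R136: height links (helper887), part 1: generic Kaufman in the height

Slots `sF` (velocity) and `sN` (target) of an `RModel` :
`N(i,l)` at the height `k'` is `N(i,l) + c (z k' - z k) F(i,l)` at the height `k`.

* `height_R` : for all `J > 0` there is `t = x j / J` with
  `ν (F : 0, N : x) + σ (x - t - x / J) ≤ ν (F : t, N : t)`;
* `slot_le_R` : one slot costs at most its exponent;
* `height_pos_R` : `σ = 1`, loss of `F` from `0` to `j` positive ⊢ loss of `N` from `0` to `x` is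
  at least `x - j`;
* `height_rate_R` : linear form.
-/

set_option autoImplicit false
set_option linter.unusedVariables false
set_option linter.unusedSectionVars false

open Filter Topology Finset

namespace Crest.Agent.R136.Ht887

open Crest.Agent.R138.Ex926 (Base U)
open Crest.Agent.R136.Gf356

variable {κ : Type} [Fintype κ] [DecidableEq κ]

/-- the box with exponents `v, w` in the slots `sF, sN` and `b` in the other ones -/
def b2 (b : κ → ℝ) (sF sN : κ) (v w : ℝ) : κ → ℝ :=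
  fun j => if j = sF then v else if j = sN then w else b j

section b2

variable {b : κ → ℝ} {sF sN : κ} {v w v' w' : ℝ}

omit [Fintype κ] in
theorem b2_F : b2 b sF sN v w sF = v := by simp [b2]

omit [Fintype κ] in
theorem b2_N (h : sN ≠ sF) : b2 b sF sN v w sN = w := by simp [b2, h]

omit [Fintype κ] in
theorem b2_o {j : κ} (h1 : j ≠ sF) (h2 : j ≠ sN) : b2 b sF sN v w j = b j := by
  simp [b2, h1, h2]

omit [Fintype κ] in
theorem b2_le (h1 : v ≤ v') (h2 : w ≤ w') (j : κ) : b2 b sF sN v w j ≤ b2 b sF sN v' w' j := by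
  unfold b2
  split_ifs <;> simp [*]

end b2

/-- a line alive at two heights which is as close as possible to a given one -/
theorem exists_ref (G : RCfg κ) (hρ : 0 < G.ρ) (p : κ → ℝ) (s0 : κ) (i0 k0 k : ℕ) :
    ∃ r : ℕ, ∀ l, (l, k0) ∈ G.I → (l, k) ∈ G.I → (r, k0) ∈ G.I ∧ (r, k) ∈ G.I ∧
      ∀ ε, G.loose p ε k0 i0 l → G.loose p ε k0 i0 r := by
  classical
  set T := (G.I.image Prod.fst).filter fun l => (l, k0) ∈ G.I ∧ (l, k) ∈ G.I with hT
  rcases T.eq_empty_or_nonempty with hemp | hne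
  · refine ⟨0, fun l h1 h2 => ?_⟩
    have : l ∈ T := by
      rw [hT, Finset.mem_filter]
      exact ⟨Finset.mem_image.2 ⟨(l, k), h2, rfl⟩, h1, h2⟩
    rw [hemp] at this
    exact absurd this (Finset.notMem_empty _)
  · set M : ℕ → ℝ := fun l => Finset.univ.sup' ⟨s0, Finset.mem_univ s0⟩
      (fun j => |G.rel k0 i0 l j| * G.ρ ^ (-(p j))) with hM
    obtain ⟨r, hr, hmin⟩ := Finset.exists_min_image T M hne
    refine ⟨r, fun l h1 h2 => ?_⟩
    have hl : l ∈ T := by
      rw [hT, Finset.mem_filter]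
      exact ⟨Finset.mem_image.2 ⟨(l, k), h2, rfl⟩, h1, h2⟩
    rw [hT, Finset.mem_filter] at hr
    refine ⟨hr.2.1, hr.2.2, fun ε hlo j => ?_⟩
    have hiff : ∀ m j, |G.rel k0 i0 m j| ≤ G.ρ ^ (p j - ε) ↔
        |G.rel k0 i0 m j| * G.ρ ^ (-(p j)) ≤ G.ρ ^ (-ε) := by
      intro m j
      have e1 : G.ρ ^ (p j - ε) = G.ρ ^ (-ε) * G.ρ ^ (p j) := by
        rw [← Real.rpow_add hρ]; congr 1; ring
      have e2 : G.ρ ^ (p j) * G.ρ ^ (-(p j)) = 1 := by
        rw [← Real.rpow_add hρ, add_neg_cancel, Real.rpow_zero]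
      have h3 : 0 < G.ρ ^ (p j) := Real.rpow_pos_of_pos hρ _
      have h4 : 0 < G.ρ ^ (-(p j)) := Real.rpow_pos_of_pos hρ _
      rw [e1]
      constructor
      · intro h
        calc |G.rel k0 i0 m j| * G.ρ ^ (-(p j))
            ≤ G.ρ ^ (-ε) * G.ρ ^ (p j) * G.ρ ^ (-(p j)) := mul_le_mul_of_nonneg_right h h4.le
          _ = G.ρ ^ (-ε) := by rw [mul_assoc, e2, mul_one]
      · intro h
        calc |G.rel k0 i0 m j| = |G.rel k0 i0 m j| * G.ρ ^ (-(p j)) * G.ρ ^ (p j) := by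
              rw [mul_assoc, mul_comm (G.ρ ^ (-(p j))), e2, mul_one]
          _ ≤ _ := mul_le_mul_of_nonneg_right h h3.le
    rw [hiff]
    have h1 : |G.rel k0 i0 r j| * G.ρ ^ (-(p j)) ≤ M r :=
      Finset.le_sup' (fun j => |G.rel k0 i0 r j| * G.ρ ^ (-(p j))) (Finset.mem_univ j)
    have h2 : M l ≤ G.ρ ^ (-ε) := by
      refine Finset.sup'_le _ _ fun j _ => ?_
      exact (hiff l j).1 (hlo j)
    exact h1.trans ((hmin l hl).trans h2)

variable {B : Base} {G : ℕ → RCfg κ} {Leg : Set (κ → ℝ)} {ν : (κ → ℝ) → ℝ} {σ R D : ℝ}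

/-- **what a height link needs** : the slots `sN`, `sF` are additive at one height inside the box
`p`, the box `p` does not depend on the height, the slot `sN` moves with velocity `c F` -/
structure HtLink (B : Base) (G : ℕ → RCfg κ) (p : κ → ℝ) (sF sN : κ) (x : ℝ) (c : ℕ → ℝ)
    (C1 : ℝ) : Prop where
  C1_one : 1 ≤ C1
  hc : ∀ ε : ℝ, 0 < ε → ∀ᶠ n in (U : Filter ℕ), B.d n ^ ε ≤ |c n| ∧ |c n| ≤ B.d n ^ (-ε)
  hz : ∀ ε : ℝ, 0 < ε → ∀ᶠ n in (U : Filter ℕ), ∀ k ∈ (G n).Z, ∀ k' ∈ (G n).Z,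
    |(G n).z k - (G n).z k'| ≤ B.d n ^ (-ε)
  comp : ∀ ε : ℝ, 0 < ε → ∀ᶠ n in (U : Filter ℕ), ∀ k i l l', (i, k) ∈ (G n).I →
    (l, k) ∈ (G n).I → (l', k) ∈ (G n).I → (G n).loose p ε k i l → (G n).loose p ε k i l' →
    |(G n).rel k i l' sN - (G n).rel k i l sN - (G n).rel k l l' sN| ≤ B.d n ^ (x - C1 * ε) ∧
    |(G n).rel k i l' sF - (G n).rel k i l sF - (G n).rel k l l' sF| ≤ B.d n ^ (x - C1 * ε)
  evo : ∀ ε : ℝ, 0 < ε → ∀ᶠ n in (U : Filter ℕ), ∀ k k' i l, (i, k) ∈ (G n).I →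
    (i, k') ∈ (G n).I → (l, k) ∈ (G n).I → (l, k') ∈ (G n).I → (G n).loose p ε k i l →
    (G n).loose p (C1 * ε) k' i l ∧
    |(G n).rel k' i l sN - (G n).rel k i l sN -
      c n * ((G n).z k' - (G n).z k) * (G n).rel k i l sF| ≤ B.d n ^ (x - C1 * ε)

set_option maxHeartbeats 4000000 in
/-- **Kaufman in the height** -/
theorem height_R (H : RModel B G σ R Leg ν D) (b : κ → ℝ) {sF sN : κ} (hNF : sN ≠ sF)
    {x : ℝ} (hx : 0 < x) (hxR : x ≤ R)
    (h0x : b2 b sF sN 0 x ∈ Leg)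
    (hdiag : ∀ t : ℝ, 0 ≤ t → t ≤ x → b2 b sF sN t t ∈ Leg)
    {c : ℕ → ℝ} {C1 : ℝ} (hL : HtLink B G (b2 b sF sN 0 0) sF sN x c C1) :
    ∀ J : ℕ, 0 < J → ∃ j ≤ J, ν (b2 b sF sN 0 x) + σ * (x - sc x J (j + 1)) ≤
      ν (b2 b sF sN (sc x J j) (sc x J j)) := by
  classical
  intro J hJ
  have hD := H.D1
  have hD0 : 0 < D := by linarith
  have hC1 := hL.C1_one
  have hC10 : 0 < C1 := by linarith
  set p := b2 b sF sN 0 0 with hp
  have h00 : p ∈ Leg := hdiag 0 le_rfl hx.le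
  have hpr : ∀ j, p j ≤ b2 b sF sN 0 x j := b2_le le_rfl hx.le
  choose ik hik using fun n => H.nonempty n
  set i0 : ℕ → ℕ := fun n => (ik n).1 with hi0
  set k0 : ℕ → ℕ := fun n => (ik n).2 with hk0
  have hI0 : ∀ n, (i0 n, k0 n) ∈ (G n).I := fun n => hik n
  choose ref href using fun n k =>
    exists_ref (G n) (by rw [H.base n]; exact B.pos n) p sF (i0 n) (k0 n) k
  -- constants
  set c2 : ℝ := D ^ 2 with hc2
  set c3 : ℝ := C1 * c2 with hc3
  set c4 : ℝ := D * c3 with hc4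
  have c2_1 : 1 ≤ c2 := one_le_pow₀ hD
  have c3_1 : 1 ≤ c3 := by nlinarith
  have c4_3 : c3 ≤ c4 := by nlinarith
  have c4_1 : 1 ≤ c4 := by linarith
  have c3_2 : c2 ≤ c3 := by nlinarith
  set C : ℝ := C1 * c4 + c4 + 4 * C1 + 8 with hC
  have hCpos : 0 < C := by positivity
  have mC1 : C1 + 4 ≤ C := by
    have : 0 ≤ C1 * c4 := by positivity
    rw [hC]; linarith
  have mc3 : c3 ≤ C := by
    have : 0 ≤ C1 * c4 := by positivity
    rw [hC]; linarith
  have mc4 : C1 * c4 + C1 + 4 ≤ C := by rw [hC]; linarith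
  -- pairs of the fibre at the centre height
  have pair : ∀ ε : ℝ, 0 < ε → ∀ᶠ n in (U : Filter ℕ), ∀ i ∈ (G n).box p ε (i0 n) (k0 n),
      ∀ i' ∈ (G n).box p ε (i0 n) (k0 n), (G n).loose p (c2 * ε) (k0 n) i i' := by
    intro ε hε
    filter_upwards [H.symm p h00 ε hε, H.tri p h00 (D * ε) (by positivity)] with n h1 h2 i hi
      i' hi'
    obtain ⟨a1, a2⟩ := RCfg.mem_box.1 hi
    obtain ⟨b1, b3⟩ := RCfg.mem_box.1 hi'
    have hIi := H.memSlice.1 a1
    have hIi' := H.memSlice.1 b1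
    have e1 := h1 _ _ _ (hI0 n) hIi a2
    have e2 : (G n).loose p (D * ε) (k0 n) (i0 n) i' :=
      H.loose_mono (fun _ => le_rfl) (by nlinarith) b3
    have e3 := h2 _ _ _ _ hIi (hI0 n) hIi' e1 e2
    have e4 : D * (D * ε) = c2 * ε := by rw [hc2]; ring
    rwa [e4] at e3
  -- composition at the centre height
  have cc : ∀ ε : ℝ, 0 < ε → ∀ᶠ n in (U : Filter ℕ), ∀ i ∈ (G n).box p ε (i0 n) (k0 n),
      ∀ i' ∈ (G n).box p ε (i0 n) (k0 n),
      |(G n).rel (k0 n) (i0 n) i' sN - (G n).rel (k0 n) (i0 n) i sN -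
        (G n).rel (k0 n) i i' sN| ≤ B.d n ^ (x - C1 * ε) ∧
      |(G n).rel (k0 n) (i0 n) i' sF - (G n).rel (k0 n) (i0 n) i sF -
        (G n).rel (k0 n) i i' sF| ≤ B.d n ^ (x - C1 * ε) := by
    intro ε hε
    filter_upwards [hL.comp ε hε] with n h i hi i' hi'
    obtain ⟨a1, a2⟩ := RCfg.mem_box.1 hi
    obtain ⟨b1, b3⟩ := RCfg.mem_box.1 hi'
    exact h _ _ _ _ (hI0 n) (H.memSlice.1 a1) (H.memSlice.1 b1) a2 b3
  -- pairs of the fibre at another height
  have pairk : ∀ ε : ℝ, 0 < ε → ∀ᶠ n in (U : Filter ℕ), ∀ k,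
      ∀ i ∈ (G n).box p ε (i0 n) (k0 n), ∀ i' ∈ (G n).box p ε (i0 n) (k0 n),
      (i, k) ∈ (G n).I → (i', k) ∈ (G n).I → (G n).loose p (c3 * ε) k i i' ∧
      |(G n).rel k i i' sN - (G n).rel (k0 n) i i' sN - c n * ((G n).z k - (G n).z (k0 n)) *
        (G n).rel (k0 n) i i' sF| ≤ B.d n ^ (x - c3 * ε) := by
    intro ε hε
    filter_upwards [pair ε hε, hL.evo (c2 * ε) (by positivity)] with n h1 h2 k i hi i' hi' hk hk'
    have a1 := H.memSlice.1 (RCfg.mem_box.1 hi).1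
    have b1 := H.memSlice.1 (RCfg.mem_box.1 hi').1
    have := h2 (k0 n) k i i' a1 hk b1 hk' (h1 i hi i' hi')
    have e : C1 * (c2 * ε) = c3 * ε := by rw [hc3]; ring
    rwa [e] at this
  -- the reference line belongs to the fibre
  have rf : ∀ n k ε, ∀ i ∈ (G n).box p ε (i0 n) (k0 n), (i, k) ∈ (G n).I →
      ref n k ∈ (G n).box p ε (i0 n) (k0 n) ∧ (ref n k, k) ∈ (G n).I := by
    intro n k ε i hi hik
    obtain ⟨a1, a2⟩ := RCfg.mem_box.1 hi
    obtain ⟨r1, r2, r3⟩ := href n k i (H.memSlice.1 a1) hik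
    exact ⟨RCfg.mem_box.2 ⟨H.memSlice.2 r1, r3 ε a2⟩, r2⟩
  -- composition at another height, with the reference line
  have ck : ∀ ε : ℝ, 0 < ε → ∀ᶠ n in (U : Filter ℕ), ∀ k,
      ∀ i ∈ (G n).box p ε (i0 n) (k0 n), ∀ l, (i, k) ∈ (G n).I → (l, k) ∈ (G n).I →
      (G n).loose p (c3 * ε) k i l →
      |(G n).rel k (ref n k) l sN - (G n).rel k (ref n k) i sN - (G n).rel k i l sN| ≤
        B.d n ^ (x - C1 * c4 * ε) := by
    intro ε hε
    filter_upwards [pairk ε hε, H.tri p h00 (c3 * ε) (by positivity),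
      hL.comp (c4 * ε) (by positivity)] with n h1 h2 h3 k i hi l hik hlk hl
    obtain ⟨r1, r2⟩ := rf n k ε i hi hik
    have a1 := (h1 k _ r1 i hi r2 hik).1
    have a2 := h2 k _ i l r2 hik hlk a1 hl
    have e4 : D * (c3 * ε) = c4 * ε := by rw [hc4]; ring
    rw [e4] at a2
    have a3 : (G n).loose p (c4 * ε) k (ref n k) i :=
      H.loose_mono (fun _ => le_rfl) (mul_le_mul_of_nonneg_right c4_3 hε.le) a1
    have := (h3 k _ i l r2 hik hlk a3 a2).1
    rwa [← mul_assoc] at this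
  have key := kauf_R H.toRUnif i0 k0 (Filter.Eventually.of_forall hI0) p p (b2 b sF sN 0 x)
    h00 h00 h0x hpr hx H.σ_nonneg H.σ_le
    (fun n k i => (G n).rel k (ref n k) i sN) (fun n i => (G n).rel (k0 n) (i0 n) i sN)
    (fun n i => (G n).rel (k0 n) (i0 n) i sF) (fun n k => c n * ((G n).z k - (G n).z (k0 n)))
    (fun n => (G n).Z) (Filter.Eventually.of_forall fun n => ⟨k0 n, H.memZ (hI0 n)⟩) hJ
    (fun j => b2 b sF sN (sc x J j) (sc x J j))
    (fun j hj => hdiag _ (sc_nonneg hx.le J j) (sc_le hx.le hJ hj)) (C1 := C) hCpos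
    ?_ ?_ ?_ ?_ ?_ ?_ ?_ ?_
  · obtain ⟨j, hj, h⟩ := key
    exact ⟨j, hj, by linarith⟩
  · -- hφ
    intro ε hε
    filter_upwards [hL.hc ε hε, hL.hz ε hε] with n h1 h2 k hk
    rw [abs_mul]
    have h3 := h2 k hk (k0 n) (H.memZ (hI0 n))
    calc |c n| * |(G n).z k - (G n).z (k0 n)| ≤ B.d n ^ (-ε) * B.d n ^ (-ε) :=
          mul_le_mul h1.2 h3 (abs_nonneg _) (rpos B n _).le
      _ = B.d n ^ (-(2 * ε)) := by rw [← rpow_add']; congr 1; ring
      _ ≤ _ := rpow_anti B n (by nlinarith)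
  · -- hV
    intro ε hε
    filter_upwards [ev_const_le B hε 2] with n h2 i hi i' hi'
    have a := (RCfg.mem_box.1 hi).2 sF
    have a' := (RCfg.mem_box.1 hi').2 sF
    rw [H.base n, hp, b2_F] at a a'
    have e := abs_sub ((G n).rel (k0 n) (i0 n) i sF) ((G n).rel (k0 n) (i0 n) i' sF)
    have e2 := loss_mul B (s := 0 - ε) h2
    refine (e.trans (by linarith)).trans (e2.trans (rpow_anti B n ?_))
    nlinarith
  · -- hF
    intro ε hε
    filter_upwards [pairk ε hε, cc ε hε, ck ε hε, hL.hc ε hε, hL.hz ε hε,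
      ev_const_le B hε 4] with n h1 h2 h3 h4 h5 h6 k hk i hi i' hi' hik hik'
    obtain ⟨q1, q2⟩ := h1 k i hi i' hi' hik hik'
    obtain ⟨q3, q4⟩ := h2 i hi i' hi'
    have q5 := h3 k i hi i' hik hik' q1
    set φ := c n * ((G n).z k - (G n).z (k0 n)) with hφ
    have hφle : |φ| ≤ B.d n ^ (-(2 * ε)) := by
      rw [hφ, abs_mul]
      have h3 := h5 k hk (k0 n) (H.memZ (hI0 n))
      calc |c n| * |(G n).z k - (G n).z (k0 n)| ≤ B.d n ^ (-ε) * B.d n ^ (-ε) :=
            mul_le_mul h4.2 h3 (abs_nonneg _) (rpos B n _).le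
        _ = B.d n ^ (-(2 * ε)) := by rw [← rpow_add']; congr 1; ring
    have q6 : |φ * ((G n).rel (k0 n) (i0 n) i' sF - (G n).rel (k0 n) (i0 n) i sF -
        (G n).rel (k0 n) i i' sF)| ≤ B.d n ^ (x - (C1 + 2) * ε) := by
      rw [abs_mul]
      calc _ ≤ B.d n ^ (-(2 * ε)) * B.d n ^ (x - C1 * ε) :=
            mul_le_mul hφle q4 (abs_nonneg _) (rpos B n _).le
        _ = _ := by rw [← rpow_add']; congr 1; ring
    set M := x - (C - 1) * ε with hM
    have mC : C1 * c4 ≤ C - 1 := by rw [hC]; linarith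
    have mc3' : c3 * ε ≤ (C - 1) * ε := by
      refine mul_le_mul_of_nonneg_right ?_ hε.le
      have : 0 ≤ C1 * c4 := by positivity
      rw [hC]; linarith
    have g1 : B.d n ^ (x - C1 * c4 * ε) ≤ B.d n ^ M :=
      rpow_anti B n (by rw [hM]; nlinarith)
    have g2 : B.d n ^ (x - c3 * ε) ≤ B.d n ^ M :=
      rpow_anti B n (by rw [hM]; linarith)
    have g3 : B.d n ^ (x - C1 * ε) ≤ B.d n ^ M :=
      rpow_anti B n (by rw [hM]; nlinarith)
    have g4 : B.d n ^ (x - (C1 + 2) * ε) ≤ B.d n ^ M :=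
      rpow_anti B n (by rw [hM]; nlinarith)
    have e0 : (G n).rel k (ref n k) i sN - (G n).rel k (ref n k) i' sN -
        ((G n).rel (k0 n) (i0 n) i sN - (G n).rel (k0 n) (i0 n) i' sN +
          φ * ((G n).rel (k0 n) (i0 n) i sF - (G n).rel (k0 n) (i0 n) i' sF)) =
        -((G n).rel k (ref n k) i' sN - (G n).rel k (ref n k) i sN - (G n).rel k i i' sN) -
        ((G n).rel k i i' sN - (G n).rel (k0 n) i i' sN - φ * (G n).rel (k0 n) i i' sF) +
        ((G n).rel (k0 n) (i0 n) i' sN - (G n).rel (k0 n) (i0 n) i sN -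
          (G n).rel (k0 n) i i' sN) +
        φ * ((G n).rel (k0 n) (i0 n) i' sF - (G n).rel (k0 n) (i0 n) i sF -
          (G n).rel (k0 n) i i' sF) := by ring
    rw [e0]
    have t1 := abs_add_le (-((G n).rel k (ref n k) i' sN - (G n).rel k (ref n k) i sN -
        (G n).rel k i i' sN) - ((G n).rel k i i' sN - (G n).rel (k0 n) i i' sN -
        φ * (G n).rel (k0 n) i i' sF) + ((G n).rel (k0 n) (i0 n) i' sN -
        (G n).rel (k0 n) (i0 n) i sN - (G n).rel (k0 n) i i' sN))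
      (φ * ((G n).rel (k0 n) (i0 n) i' sF - (G n).rel (k0 n) (i0 n) i sF -
          (G n).rel (k0 n) i i' sF))
    have t2 := abs_add_le (-((G n).rel k (ref n k) i' sN - (G n).rel k (ref n k) i sN -
        (G n).rel k i i' sN) - ((G n).rel k i i' sN - (G n).rel (k0 n) i i' sN -
        φ * (G n).rel (k0 n) i i' sF)) ((G n).rel (k0 n) (i0 n) i' sN -
        (G n).rel (k0 n) (i0 n) i sN - (G n).rel (k0 n) i i' sN)
    have t3 := abs_sub (-((G n).rel k (ref n k) i' sN - (G n).rel k (ref n k) i sN -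
        (G n).rel k i i' sN)) ((G n).rel k i i' sN - (G n).rel (k0 n) i i' sN -
        φ * (G n).rel (k0 n) i i' sF)
    rw [abs_neg] at t3
    have t4 : (4 : ℝ) * B.d n ^ M ≤ B.d n ^ (x - C * ε) := by
      have := loss_mul B (s := M) h6
      refine this.trans (le_of_eq ?_)
      congr 1
      rw [hM]; ring
    refine le_trans ?_ t4
    linarith
  · -- hlink
    intro ε hε
    filter_upwards [ck ε hε, ev_const_le B hε 2] with n h1 h2 k hk i hi hik l hlk hl
    have hl0 : (G n).loose p (c3 * ε) k i l := H.loose_mono hpr (by nlinarith) hl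
    have a1 := h1 k i hi l hik hlk hl0
    have a2 := hl sN
    rw [H.base n, b2_N hNF] at a2
    set M := x - (C - 1) * ε with hM
    have g1 : B.d n ^ (x - C1 * c4 * ε) ≤ B.d n ^ M :=
      rpow_anti B n (by rw [hM]; nlinarith)
    have g2 : B.d n ^ (x - ε) ≤ B.d n ^ M := rpow_anti B n (by rw [hM]; nlinarith)
    have t4 : (2 : ℝ) * B.d n ^ M ≤ B.d n ^ (x - C * ε) := by
      have := loss_mul B (s := M) h2
      refine this.trans (le_of_eq ?_)
      congr 1
      rw [hM]; ring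
    have e : (G n).rel k (ref n k) l sN - (G n).rel k (ref n k) i sN =
        ((G n).rel k (ref n k) l sN - (G n).rel k (ref n k) i sN - (G n).rel k i l sN) +
        (G n).rel k i l sN := by ring
    have t1 := abs_add_le ((G n).rel k (ref n k) l sN - (G n).rel k (ref n k) i sN -
      (G n).rel k i l sN) ((G n).rel k i l sN)
    rw [← e] at t1
    refine le_trans ?_ t4
    linarith
  · -- hT
    intro ε hε
    filter_upwards [pairk ε hε] with n h1 k hk i hi i' hi' hik hik'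
    exact H.loose_mono (fun _ => le_rfl) (mul_le_mul_of_nonneg_right mc3 hε.le)
      (h1 k i hi i' hi' hik hik').1
  · -- hal
    intro ε hε
    filter_upwards [H.line ε hε] with n h1 i hi T hT hT2
    have hI := H.memSlice.1 (RCfg.mem_box.1 hi).1
    have a1 := h1 i (H.memL hI)
    have a2 : (((G n).hts i).card : ℝ) ≤ (T.card : ℝ) := by
      refine mod_cast Finset.card_le_card ?_
      intro k hk
      obtain ⟨b1, b3⟩ := RCfg.mem_hts.1 hk
      exact hT2 k b1 b3
    refine le_trans ?_ (a1.trans a2)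
    refine mul_le_mul_of_nonneg_right (rpow_anti B n ?_) (Nat.cast_nonneg _)
    nlinarith
  · -- hQ
    intro C3 hC3
    refine ⟨C3 + C1 + c2 + 2, by positivity, ?_⟩
    intro j hj ε hε
    filter_upwards [pair ε hε, cc ε hε, ev_const_le B hε 2] with n h1 h2 h3 i hi i' hi' hV hA
    obtain ⟨q3, q4⟩ := h2 i hi i' hi'
    have htx := sc_le hx.le hJ hj
    set t := sc x J j with ht
    have fin : ∀ a b' : ℝ, |b' - a| ≤ B.d n ^ (x - C1 * ε) → |b'| ≤ B.d n ^ (t - C3 * ε) →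
        |a| ≤ B.d n ^ (t - (C3 + C1 + c2 + 2) * ε) := by
      intro a b' u1 u2
      have e : a = -(b' - a) + b' := by ring
      have t1 := abs_add_le (-(b' - a)) b'
      rw [← e, abs_neg] at t1
      have g1 : B.d n ^ (x - C1 * ε) ≤ B.d n ^ (t - (C3 + C1 + c2 + 1) * ε) :=
        rpow_anti B n (by nlinarith)
      have g2 : B.d n ^ (t - C3 * ε) ≤ B.d n ^ (t - (C3 + C1 + c2 + 1) * ε) :=
        rpow_anti B n (by nlinarith)
      have g3 := loss_mul B (s := t - (C3 + C1 + c2 + 1) * ε) h3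
      have g4 : t - (C3 + C1 + c2 + 1) * ε - ε = t - (C3 + C1 + c2 + 2) * ε := by ring
      rw [g4] at g3
      linarith
    intro s
    rw [H.base n]
    by_cases hsF : s = sF
    · subst hsF
      rw [b2_F]
      exact fin _ _ q4 hV
    by_cases hsN : s = sN
    · subst hsN
      rw [b2_N hNF]
      exact fin _ _ q3 hA
    have h5 := h1 i hi i' hi' s
    rw [H.base n, hp, b2_o hsF hsN] at h5
    rw [b2_o hsF hsN]
    exact h5.trans (rpow_anti B n (by nlinarith))
  · -- hfr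
    intro y hy0 hyx ε hε
    have hε2 : 0 < ε / 2 := by positivity
    rcases lt_or_ge y (ε / 2) with hlt | hge
    · refine Filter.Eventually.of_forall fun n k hk T hT _ => ?_
      have b3 : (T.card : ℝ) ≤ (G n).Z.card := by exact_mod_cast Finset.card_le_card hT
      refine b3.trans ?_
      have b4 : (1 : ℝ) ≤ B.d n ^ (σ * y - ε) := by
        apply Real.one_le_rpow_of_pos_of_le_one_of_nonpos (B.pos n) (B.lt n).le
        have := H.σ_nonneg
        have := H.σ_le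
        nlinarith
      nlinarith [(Nat.cast_nonneg (G n).Z.card : (0:ℝ) ≤ _)]
    · filter_upwards [hL.hc (ε / 2) hε2, H.frost (y - ε / 2) (by linarith) (by linarith) (ε / 2)
        hε2] with n h1 h2 k hk T hT hTφ
      have hsub : T ⊆ (G n).hbox (y - ε / 2) k := by
        intro k' hk'
        have h3 := hTφ k' hk'
        unfold RCfg.hbox
        rw [Finset.mem_filter]
        refine ⟨hT hk', ?_⟩
        rw [H.base n]
        have e : c n * ((G n).z k' - (G n).z (k0 n)) - c n * ((G n).z k - (G n).z (k0 n)) =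
            c n * ((G n).z k' - (G n).z k) := by ring
        rw [e, abs_mul] at h3
        have h4 : B.d n ^ (ε / 2) * |(G n).z k' - (G n).z k| ≤ B.d n ^ y :=
          (mul_le_mul_of_nonneg_right h1.1 (abs_nonneg _)).trans h3
        have h5 : B.d n ^ y = B.d n ^ (ε / 2) * B.d n ^ (y - ε / 2) := by
          rw [← rpow_add']; congr 1; ring
        rw [h5] at h4
        exact le_of_mul_le_mul_left h4 (rpos B n _)
      have h3 : (T.card : ℝ) ≤ (((G n).hbox (y - ε / 2) k).card : ℝ) := by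
        exact_mod_cast Finset.card_le_card hsub
      refine h3.trans ((h2 k hk).trans ?_)
      refine mul_le_mul_of_nonneg_right (rpow_anti B n ?_) (Nat.cast_nonneg _)
      have := H.σ_nonneg
      have := H.σ_le
      nlinarith

/-- **one slot costs at most its exponent** -/
theorem slot_le_R (H : RUnif B G Leg ν D) (b : κ → ℝ) {sF sN : κ} (hNF : sN ≠ sF)
    {x : ℝ} {C1 : ℝ} (hC1 : 1 ≤ C1)
    (hcomp : ∀ ε : ℝ, 0 < ε → ∀ᶠ n in (U : Filter ℕ), ∀ k i l l', (i, k) ∈ (G n).I →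
      (l, k) ∈ (G n).I → (l', k) ∈ (G n).I → (G n).loose (b2 b sF sN 0 0) ε k i l →
      (G n).loose (b2 b sF sN 0 0) ε k i l' →
      |(G n).rel k i l' sN - (G n).rel k i l sN - (G n).rel k l l' sN| ≤ B.d n ^ (x - C1 * ε))
    {v w w' : ℝ} (hv : 0 ≤ v) (hw : 0 ≤ w) (hww : w ≤ w') (hwx : w' ≤ x)
    (h1 : b2 b sF sN v w ∈ Leg) (h2 : b2 b sF sN v w' ∈ Leg) :
    ν (b2 b sF sN v w) ≤ ν (b2 b sF sN v w') + (w' - w) := by
  classical
  have hD := H.D1
  have hD0 : 0 < D := by linarith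
  set p := b2 b sF sN v w with hp
  set q := b2 b sF sN v w' with hq
  set c2 : ℝ := D ^ 2 with hc2
  have c2_1 : 1 ≤ c2 := one_le_pow₀ hD
  set c5 : ℝ := c2 + C1 + 2 with hc5
  have c5_1 : 1 ≤ c5 := by rw [hc5]; linarith
  have key := le_of_ev B (-ν p) (-(w' - w) - ν q) (D * c5 + 6) 1 (by
    intro ε hε
    filter_upwards [H.low p h1 ε hε, H.symm p h1 ε hε, H.tri p h1 (D * ε) (by positivity),
      hcomp ε hε, H.up q h2 (c5 * ε) (by positivity), ev_const_le B hε 5] with n g1 g2 g3 g4 g5 g6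
    have hpow : ∀ t : ℝ, 0 < B.d n ^ t := fun t => rpos B n t
    obtain ⟨⟨i, k⟩, hik⟩ := H.nonempty n
    have hp0 : ∀ j, b2 b sF sN 0 0 j ≤ p j := b2_le hv hw
    set S := (G n).box p ε i k with hS
    have hSI : ∀ l ∈ S, (l, k) ∈ (G n).I ∧ (G n).loose p ε k i l := fun l hl =>
      ⟨H.memSlice.1 (RCfg.mem_box.1 hl).1, (RCfg.mem_box.1 hl).2⟩
    have hcell := card_le_cells S (fun l => (G n).rel k i l sN) (hpow w')
      (P := B.d n ^ (-ν q - D * (c5 * ε))) (by
        intro l hl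
        obtain ⟨l1, l2⟩ := hSI l hl
        refine le_trans ?_ (g5 l k l1)
        refine mod_cast Finset.card_le_card ?_
        intro l' hl'
        obtain ⟨m1, m2⟩ := Finset.mem_filter.1 hl'
        obtain ⟨n1, n2⟩ := hSI l' m1
        refine RCfg.mem_box.2 ⟨H.memSlice.2 n1, ?_⟩
        have a1 := g2 k i l hik l1 l2
        have a2 : (G n).loose p (D * ε) k i l' :=
          H.loose_mono (fun _ => le_rfl) (by nlinarith) n2
        have a3 := g3 k l i l' l1 hik n1 a1 a2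
        have a4 := g4 k i l l' hik l1 n1 (H.loose_mono hp0 le_rfl l2)
          (H.loose_mono hp0 le_rfl n2)
        intro s
        rw [H.base n]
        by_cases hsN : s = sN
        · subst hsN
          rw [hq, b2_N hNF]
          have e : (G n).rel k l l' s = -((G n).rel k i l' s - (G n).rel k i l s -
            (G n).rel k l l' s) + ((G n).rel k i l' s - (G n).rel k i l s) := by ring
          have t1 := abs_add_le (-((G n).rel k i l' s - (G n).rel k i l s -
            (G n).rel k l l' s)) ((G n).rel k i l' s - (G n).rel k i l s)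
          rw [← e, abs_neg] at t1
          have u1 : B.d n ^ (x - C1 * ε) ≤ B.d n ^ (w' - (C1 + 1) * ε) :=
            rpow_anti B n (by nlinarith)
          have u2 : B.d n ^ w' ≤ B.d n ^ (w' - (C1 + 1) * ε) := rpow_anti B n (by nlinarith)
          have u3 := loss_mul B (s := w' - (C1 + 1) * ε) (g6)
          have u4 : B.d n ^ (w' - (C1 + 1) * ε - ε) ≤ B.d n ^ (w' - c5 * ε) :=
            rpow_anti B n (by rw [hc5]; nlinarith)
          have u5 := hpow (w' - (C1 + 1) * ε)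
          linarith
        · have a5 := a3 s
          rw [H.base n] at a5
          refine a5.trans (rpow_anti B n ?_)
          have e1 : p s = q s := by
            rw [hp, hq]; unfold b2; simp [hsN]
          rw [e1]
          have e2 : D * (D * ε) = c2 * ε := by rw [hc2]; ring
          rw [e2, hc5]
          nlinarith)
    have hnum : (((S.image fun l => ⌊(G n).rel k i l sN / B.d n ^ w'⌋).card : ℕ) : ℝ) ≤
        B.d n ^ (-(w' - w) - 2 * ε) := by
      have a1 := Crest.Agent.R136.Lf400.card_floor_le S (fun l => (G n).rel k i l sN) (hpow w')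
        (M := B.d n ^ (w - ε)) (hpow _).le (fun l hl => by
          have := (hSI l hl).2 sN
          rwa [H.base n, hp, b2_N hNF] at this)
      refine a1.trans ?_
      have e1 : B.d n ^ (w - ε) / B.d n ^ w' = B.d n ^ (-(w' - w) - ε) := by
        rw [div_eq_iff (hpow w').ne', ← rpow_add']; congr 1; ring
      rw [e1]
      have e2 : (1 : ℝ) ≤ B.d n ^ (-(w' - w) - ε) :=
        Real.one_le_rpow_of_pos_of_le_one_of_nonpos (B.pos n) (B.lt n).le (by linarith)
      have e3 := loss_mul B (s := -(w' - w) - ε) g6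
      have e4 : -(w' - w) - ε - ε = -(w' - w) - 2 * ε := by ring
      rw [e4] at e3
      linarith
    calc B.d n ^ (-ν p + (D * c5 + 6) * ε) ≤ B.d n ^ (-ν p + ε) :=
          rpow_anti B n (by
            have : 0 ≤ D * c5 * ε := by positivity
            nlinarith)
      _ ≤ (S.card : ℝ) := g1 i k hik
      _ ≤ _ := hcell
      _ ≤ B.d n ^ (-(w' - w) - 2 * ε) * B.d n ^ (-ν q - D * (c5 * ε)) :=
          mul_le_mul_of_nonneg_right hnum (hpow _).le
      _ = B.d n ^ (-(w' - w) - ν q - (D * c5 + 2) * ε) := by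
          rw [← rpow_add']; congr 1; ring
      _ ≤ B.d n ^ (-(w' - w) - ν q - (D * c5 + 6) * ε) := rpow_anti B n (by nlinarith)
      _ = _ := by rw [one_mul])
  linarith

/-- **a velocity of positive loss fills the target** (no linearity): heights of full dimension,
the loss of `F` from `0` to `j` (given the target narrow) is positive ⊢ the loss of the target from
`0` to `x` is at least `x - j`. -/
theorem height_pos_R (H : RModel B G 1 R Leg ν D) (b : κ → ℝ) {sF sN : κ} (hNF : sN ≠ sF)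
    {x j : ℝ} (hx : 0 < x) (hxR : x ≤ R) (hj : 0 ≤ j) (hjx : j ≤ x)
    (hdx : ∀ t : ℝ, 0 ≤ t → t ≤ x → b2 b sF sN t x ∈ Leg)
    (hdiag : ∀ t : ℝ, 0 ≤ t → t ≤ x → b2 b sF sN t t ∈ Leg)
    {c : ℕ → ℝ} {C1 : ℝ} (hL : HtLink B G (b2 b sF sN 0 0) sF sN x c C1)
    (hpos : ν (b2 b sF sN j x) < ν (b2 b sF sN 0 x)) :
    x - j ≤ ν (b2 b sF sN 0 0) - ν (b2 b sF sN 0 x) := by
  have hcomp : ∀ ε : ℝ, 0 < ε → ∀ᶠ n in (U : Filter ℕ), ∀ k i l l', (i, k) ∈ (G n).I →
      (l, k) ∈ (G n).I → (l', k) ∈ (G n).I → (G n).loose (b2 b sF sN 0 0) ε k i l →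
      (G n).loose (b2 b sF sN 0 0) ε k i l' →
      |(G n).rel k i l' sN - (G n).rel k i l sN - (G n).rel k l l' sN| ≤
        B.d n ^ (x - C1 * ε) := by
    intro ε hε
    filter_upwards [hL.comp ε hε] with n h k i l l' h1 h2 h3 h4 h5
    exact (h k i l l' h1 h2 h3 h4 h5).1
  set δ := ν (b2 b sF sN 0 x) - ν (b2 b sF sN j x) with hδ
  have hδ0 : 0 < δ := by rw [hδ]; linarith
  refine le_of_forall_pos_le_add fun η hη => ?_
  obtain ⟨J, hJ⟩ := exists_nat_gt (x / min δ η)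
  have hm : 0 < min δ η := lt_min hδ0 hη
  have hJr : (0 : ℝ) < J := lt_of_le_of_lt (by positivity) hJ
  have hJ0 : 0 < J := by exact_mod_cast hJr
  have hxJ : x / J < min δ η := by
    rw [div_lt_iff₀ hJr]
    rwa [div_lt_iff₀ hm, mul_comm] at hJ
  have hxJ1 := hxJ.trans_le (min_le_left δ η)
  have hxJ2 := hxJ.trans_le (min_le_right δ η)
  obtain ⟨jj, hjj, h⟩ := height_R H b hNF hx hxR (hdx 0 le_rfl hx.le) hdiag hL J hJ0
  have ht0 := sc_nonneg hx.le J jj
  have htx := sc_le hx.le hJ0 hjj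
  rw [sc_succ x hJ0] at h
  set t := sc x J jj with ht
  have h1 := slot_le_R H.toRUnif b hNF hL.C1_one hcomp ht0 ht0 htx le_rfl (hdiag t ht0 htx)
    (hdx t ht0 htx)
  have htj : t < j := by
    by_contra hcon
    push Not at hcon
    have h2 := H.nu_anti (hdx j hj hjx) (hdx t ht0 htx) (b2_le hcon le_rfl)
    linarith
  have h3 := H.nu_anti (hdiag 0 le_rfl hx.le) (hdiag t ht0 htx) (b2_le ht0 ht0)
  linarith

/-- **height Kaufman, linear form** : `ν = ν₀ - e v - a w` on the legal boxes, `e > 0` ⊢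
`σ ≤ a` -/
theorem height_rate_R (H : RModel B G σ R Leg ν D) (b : κ → ℝ) {sF sN : κ} (hNF : sN ≠ sF)
    {x : ℝ} (hx : 0 < x) (hxR : x ≤ R)
    (h0x : b2 b sF sN 0 x ∈ Leg)
    (hdiag : ∀ t : ℝ, 0 ≤ t → t ≤ x → b2 b sF sN t t ∈ Leg)
    {c : ℕ → ℝ} {C1 : ℝ} (hL : HtLink B G (b2 b sF sN 0 0) sF sN x c C1)
    {e a : ℝ} (he : 0 < e)
    (hν0 : ν (b2 b sF sN 0 x) = ν (b2 b sF sN 0 0) - a * x)
    (hν : ∀ t : ℝ, 0 ≤ t → t ≤ x → ν (b2 b sF sN t t) = ν (b2 b sF sN 0 0) - (e + a) * t) :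
    σ ≤ a := by
  by_contra hcon
  push Not at hcon
  set m := min (σ - a) e with hm
  have hm0 : 0 < m := lt_min (by linarith) he
  obtain ⟨J, hJ⟩ := exists_nat_gt (σ / m)
  have hσ := H.σ_nonneg
  have hJr : (0 : ℝ) < J := lt_of_le_of_lt (by positivity) hJ
  have hJ0 : 0 < J := by exact_mod_cast hJr
  obtain ⟨jj, hjj, h⟩ := height_R H b hNF hx hxR h0x hdiag hL J hJ0
  have ht0 := sc_nonneg hx.le J jj
  have htx := sc_le hx.le hJ0 hjj
  rw [sc_succ x hJ0] at h
  set t := sc x J jj with ht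
  rw [hν0, hν t ht0 htx] at h
  have h1 : σ < m * J := by rwa [div_lt_iff₀ hm0, mul_comm] at hJ
  have h2 : σ * (x / J) < m * x := by
    rw [mul_div_assoc', div_lt_iff₀ hJr]
    nlinarith
  have h3 : m * (x - t) ≤ (σ - a) * (x - t) :=
    mul_le_mul_of_nonneg_right (min_le_left _ _) (by linarith)
  have h4 : m * t ≤ e * t := mul_le_mul_of_nonneg_right (min_le_right _ _) ht0
  nlinarith

/-- the same with any profile: if `F` costs nothing given the target narrow up to depth `t`, only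
`t` is lost -/
theorem height_exists_R (H : RModel B G σ R Leg ν D) (b : κ → ℝ) {sF sN : κ} (hNF : sN ≠ sF)
    {x : ℝ} (hx : 0 < x) (hxR : x ≤ R)
    (hdx : ∀ t : ℝ, 0 ≤ t → t ≤ x → b2 b sF sN t x ∈ Leg)
    (hdiag : ∀ t : ℝ, 0 ≤ t → t ≤ x → b2 b sF sN t t ∈ Leg)
    {c : ℕ → ℝ} {C1 : ℝ} (hL : HtLink B G (b2 b sF sN 0 0) sF sN x c C1) {η : ℝ} (hη : 0 < η) :
    ∃ t : ℝ, 0 ≤ t ∧ t ≤ x ∧ ν (b2 b sF sN 0 x) + σ * (x - t) ≤ ν (b2 b sF sN t t) + η ∧
      ν (b2 b sF sN 0 x) ≤ ν (b2 b sF sN t x) + (1 - σ) * (x - t) + η := by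
  have hcomp : ∀ ε : ℝ, 0 < ε → ∀ᶠ n in (U : Filter ℕ), ∀ k i l l', (i, k) ∈ (G n).I →
      (l, k) ∈ (G n).I → (l', k) ∈ (G n).I → (G n).loose (b2 b sF sN 0 0) ε k i l →
      (G n).loose (b2 b sF sN 0 0) ε k i l' →
      |(G n).rel k i l' sN - (G n).rel k i l sN - (G n).rel k l l' sN| ≤
        B.d n ^ (x - C1 * ε) := by
    intro ε hε
    filter_upwards [hL.comp ε hε] with n h k i l l' h1 h2 h3 h4 h5
    exact (h k i l l' h1 h2 h3 h4 h5).1
  obtain ⟨J, hJ⟩ := exists_nat_gt (x / η)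
  have hJr : (0 : ℝ) < J := lt_of_le_of_lt (by positivity) hJ
  have hJ0 : 0 < J := by exact_mod_cast hJr
  have hxJ : x / J < η := by
    rw [div_lt_iff₀ hJr]
    rwa [div_lt_iff₀ hη, mul_comm] at hJ
  obtain ⟨jj, hjj, h⟩ := height_R H b hNF hx hxR (hdx 0 le_rfl hx.le) hdiag hL J hJ0
  have ht0 := sc_nonneg hx.le J jj
  have htx := sc_le hx.le hJ0 hjj
  rw [sc_succ x hJ0] at h
  set t := sc x J jj with ht
  have hσ := H.σ_nonneg
  have hσ1 := H.σ_le
  have h0 : 0 ≤ x / J := by positivity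
  have h1 := slot_le_R H.toRUnif b hNF hL.C1_one hcomp ht0 ht0 htx le_rfl (hdiag t ht0 htx)
    (hdx t ht0 htx)
  refine ⟨t, ht0, htx, ?_, ?_⟩
  · nlinarith
  · nlinarith

end Crest.Agent.R136.Ht887
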