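import Crest.Agent.R136.Gr2_356

/-!
# R136: crossing leaves at one height (helper400), 355's (0A)

Slots `sX` (lateral, full), `sF` (flag), `sN` (normal) of an `RUnif` with tight wall
`N ≤ F + X`:  `N(i,l') = N(i,l) + N(l,l') + c F(i,l) X(l,l')` at equal heights.

* `leaf_R` : the lines `l` with `|N(i,l)| ≤ ρ^x`, `|F(i,l)| ≥ ρ^j` cross every leaf `(F:x, N:x)` in
  an `X`-interval of length `ρ^(x-j)`;
* `leaf_rate_R` : `ν` linear with rates `1, η, a` and `η > 0` ⊢ `1 ≤ a`.
-/

set_option autoImplicit false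
set_option linter.unusedVariables false
set_option linter.unusedSectionVars false

open Filter Topology Finset

namespace Crest.Agent.R136.Lf400

open Crest.Agent.R138.Ex926 (Base U)
open Crest.Agent.R136.Gf356

variable {κ : Type} [DecidableEq κ]

/-- the box with exponents `cX, cF, cN` in the slots `sX, sF, sN` and `b` in the other ones -/
def bx (b : κ → ℝ) (sX sF sN : κ) (cX cF cN : ℝ) : κ → ℝ :=
  fun j => if j = sX then cX else if j = sF then cF else if j = sN then cN else b j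

section bx

variable {b : κ → ℝ} {sX sF sN : κ} {cX cF cN cX' cF' cN' : ℝ}

theorem bx_X : bx b sX sF sN cX cF cN sX = cX := by simp [bx]

theorem bx_F (h : sF ≠ sX) : bx b sX sF sN cX cF cN sF = cF := by simp [bx, h]

theorem bx_N (h : sN ≠ sX) (h' : sN ≠ sF) : bx b sX sF sN cX cF cN sN = cN := by
  simp [bx, h, h']

theorem bx_o {j : κ} (h1 : j ≠ sX) (h2 : j ≠ sF) (h3 : j ≠ sN) :
    bx b sX sF sN cX cF cN j = b j := by simp [bx, h1, h2, h3]

theorem bx_le (h1 : cX ≤ cX') (h2 : cF ≤ cF') (h3 : cN ≤ cN') (j : κ) :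
    bx b sX sF sN cX cF cN j ≤ bx b sX sF sN cX' cF' cN' j := by
  unfold bx
  split_ifs <;> simp [*]

end bx

/-- the number of cells of a bounded function -/
theorem card_floor_le {ι : Type*} [DecidableEq ι] (S : Finset ι) (X : ι → ℝ) {r M : ℝ}
    (hr : 0 < r) (hM : 0 ≤ M) (h : ∀ i ∈ S, |X i| ≤ M) :
    (((S.image fun i => ⌊X i / r⌋).card : ℕ) : ℝ) ≤ 2 * (M / r) + 3 := by
  have hsub : (S.image fun i => ⌊X i / r⌋) ⊆ Finset.Icc ⌊-(M / r)⌋ ⌊M / r⌋ := by
    intro c hc
    obtain ⟨i, hi, rfl⟩ := Finset.mem_image.1 hc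
    have h1 := abs_le.1 (h i hi)
    rw [Finset.mem_Icc]
    constructor
    · refine Int.floor_le_floor ?_
      rw [← neg_div]
      exact div_le_div_of_nonneg_right h1.1 hr.le
    · exact Int.floor_le_floor (div_le_div_of_nonneg_right h1.2 hr.le)
  have hMr : 0 ≤ M / r := by positivity
  have h2 : (((S.image fun i => ⌊X i / r⌋).card : ℕ) : ℝ) ≤
      ((Finset.Icc ⌊-(M / r)⌋ ⌊M / r⌋).card : ℝ) := by exact_mod_cast Finset.card_le_card hsub
  refine h2.trans ?_
  rw [Int.card_Icc]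
  have hle : ⌊-(M / r)⌋ ≤ ⌊M / r⌋ := Int.floor_le_floor (by linarith)
  have : (((⌊M / r⌋ + 1 - ⌊-(M / r)⌋).toNat : ℕ) : ℝ) = ((⌊M / r⌋ + 1 - ⌊-(M / r)⌋ : ℤ) : ℝ) := by
    have : (((⌊M / r⌋ + 1 - ⌊-(M / r)⌋).toNat : ℤ)) = (⌊M / r⌋ + 1 - ⌊-(M / r)⌋ : ℤ) :=
      Int.toNat_of_nonneg (by omega)
    exact_mod_cast congrArg (fun z : ℤ => (z : ℝ)) this
  rw [this]
  push_cast
  linarith [Int.floor_le (M / r), Int.lt_floor_add_one (-(M / r))]

variable {B : Base} {G : ℕ → RCfg κ} {Leg : Set (κ → ℝ)} {ν : (κ → ℝ) → ℝ} {D : ℝ}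

set_option maxHeartbeats 4000000 in
/-- **crossing leaves** -/
theorem leaf_R (H : RUnif B G Leg ν D) (b : κ → ℝ) {sX sF sN : κ} (hFX : sF ≠ sX) (hNX : sN ≠ sX)
    (hNF : sN ≠ sF) {x j : ℝ} (hj : 0 ≤ j) (hjx : j ≤ x)
    (h0 : bx b sX sF sN 0 0 0 ∈ Leg) (hL : bx b sX sF sN 0 x x ∈ Leg)
    (hQ' : bx b sX sF sN x x x ∈ Leg) (hQ : bx b sX sF sN x 0 x ∈ Leg)
    (hjj : bx b sX sF sN 0 j j ∈ Leg) (hQj : bx b sX sF sN x j x ∈ Leg)
    (hR : bx b sX sF sN (x - j) x x ∈ Leg) (c : ℕ → ℝ)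
    (hc : ∀ ε : ℝ, 0 < ε → ∀ᶠ n in (U : Filter ℕ), B.d n ^ ε ≤ |c n| ∧ |c n| ≤ B.d n ^ (-ε))
    {C1 : ℝ} (hC1 : 1 ≤ C1)
    (hX : ∀ ε : ℝ, 0 < ε → ∀ᶠ n in (U : Filter ℕ), ∀ k i l l', (i, k) ∈ (G n).I →
      (l, k) ∈ (G n).I → (l', k) ∈ (G n).I → (G n).loose (bx b sX sF sN 0 0 0) ε k i l →
      (G n).loose (bx b sX sF sN 0 0 0) ε k i l' →
      |(G n).rel k i l' sX - (G n).rel k i l sX - (G n).rel k l l' sX| ≤ B.d n ^ (x - C1 * ε))
    (hN : ∀ ε : ℝ, 0 < ε → ∀ᶠ n in (U : Filter ℕ), ∀ k i l l', (i, k) ∈ (G n).I →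
      (l, k) ∈ (G n).I → (l', k) ∈ (G n).I → (G n).loose (bx b sX sF sN 0 0 0) ε k i l →
      (G n).loose (bx b sX sF sN 0 0 0) ε k i l' →
      |(G n).rel k i l' sN - (G n).rel k i l sN - (G n).rel k l l' sN -
        c n * (G n).rel k i l sF * (G n).rel k l l' sX| ≤ B.d n ^ (x - C1 * ε)) :
    ν (bx b sX sF sN 0 x x) - ν (bx b sX sF sN x x x) + ν (bx b sX sF sN x 0 x) ≤
        x + ν (bx b sX sF sN x j x) ∨
    ν (bx b sX sF sN 0 x x) - ν (bx b sX sF sN x x x) + ν (bx b sX sF sN x 0 x) ≤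
        ν (bx b sX sF sN 0 0 0) - ν (bx b sX sF sN 0 x x) + ν (bx b sX sF sN (x - j) x x) := by
  classical
  have hx : 0 ≤ x := hj.trans hjx
  set q0 := bx b sX sF sN 0 0 0 with hq0
  set qL := bx b sX sF sN 0 x x with hqL
  set qP := bx b sX sF sN x x x with hqP
  set qQ := bx b sX sF sN x 0 x with hqQ
  set qj := bx b sX sF sN 0 j j with hqj
  set qQj := bx b sX sF sN x j x with hqQj
  set qR := bx b sX sF sN (x - j) x x with hqR
  have l0L : ∀ s, q0 s ≤ qL s := bx_le le_rfl hx hx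
  have l0Q : ∀ s, q0 s ≤ qQ s := bx_le hx le_rfl hx
  have hD := H.D1
  have hD0 : 0 < D := by linarith
  have hC10 : 0 < C1 := by linarith
  have hD2 : 1 ≤ D ^ 2 := one_le_pow₀ hD
  have hDD2 : D ≤ D ^ 2 := by nlinarith
  -- constants
  obtain ⟨c1, hc1⟩ : ∃ c1 : ℝ, c1 = C1 * D ^ 2 + 1 := ⟨_, rfl⟩
  obtain ⟨c2, hc2⟩ : ∃ c2 : ℝ, c2 = C1 * D + 4 := ⟨_, rfl⟩
  obtain ⟨c3, hc3⟩ : ∃ c3 : ℝ, c3 = D ^ 2 * c2 + C1 * c2 + c2 + 3 := ⟨_, rfl⟩
  obtain ⟨c4, hc4⟩ : ∃ c4 : ℝ, c4 = D ^ 2 * c2 := ⟨_, rfl⟩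
  obtain ⟨c5, hc5⟩ : ∃ c5 : ℝ, c5 = c2 + D ^ 5 * c4 + C1 * c2 + 2 := ⟨_, rfl⟩
  have pC1D : D ≤ C1 * D := by nlinarith
  have pC1D2 : D ^ 2 ≤ C1 * D ^ 2 := by nlinarith
  have c1pos : 0 < c1 := by rw [hc1]; positivity
  have c2pos : 0 < c2 := by rw [hc2]; positivity
  have c2D : D ≤ c2 := by rw [hc2]; linarith
  have c3pos : 0 < c3 := by rw [hc3]; positivity
  have c4pos : 0 < c4 := by rw [hc4]; positivity
  have hD5 : 1 ≤ D ^ 5 := one_le_pow₀ hD
  have c5pos : 0 < c5 := by rw [hc5]; positivity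
  have hD5c4 : c4 ≤ D ^ 5 * c4 := by nlinarith
  obtain ⟨jj, hjj1, hjj2⟩ := exists_le_of_ev B 1
    (fun s => if s = 0 then -x - ν qQj else -(ν q0 - ν qL) - ν qR)
    (-(ν qL - ν qP) - ν qQ) (3 + D ^ 2 * c1 + (c2 + 1 + D * c3) + ((D ^ 2 + 1) * c4 + D * c5)) 1 (by
    intro ε hε
    have e1 : 0 < D * ε := by positivity
    have e2 : 0 < D ^ 2 * ε := by positivity
    have e3 : 0 < c2 * ε := by positivity
    have e4 : 0 < c1 * ε := by positivity
    have e5 : 0 < c4 * ε := by positivity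
    have f1 : ε ≤ D * ε := by nlinarith
    have f2 : D * ε ≤ D ^ 2 * ε := mul_le_mul_of_nonneg_right hDD2 hε.le
    have f3 : D * ε ≤ C1 * (D * ε) := by nlinarith
    have f4 : D ^ 2 * ε ≤ C1 * (D ^ 2 * ε) := by nlinarith
    have f5 : D * ε ≤ c2 * ε := mul_le_mul_of_nonneg_right c2D hε.le
    have f6 : c2 * ε ≤ D * (c2 * ε) := by nlinarith
    have f7 : D * (c2 * ε) ≤ D ^ 2 * (c2 * ε) := mul_le_mul_of_nonneg_right hDD2 e3.le
    have f8 : 0 ≤ C1 * (c2 * ε) := by positivity
    have f9 : c4 * ε ≤ D ^ 5 * (c4 * ε) := by nlinarith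
    have f10 : c1 * ε ≤ D * (c1 * ε) := by nlinarith
    have g1' : c1 * ε = C1 * (D ^ 2 * ε) + ε := by rw [hc1]; ring
    have g2' : c2 * ε = C1 * (D * ε) + 4 * ε := by rw [hc2]; ring
    have g3' : c3 * ε = D ^ 2 * (c2 * ε) + C1 * (c2 * ε) + c2 * ε + 3 * ε := by rw [hc3]; ring
    have g4' : c4 * ε = D ^ 2 * (c2 * ε) := by rw [hc4]; ring
    have g5' : c5 * ε = c2 * ε + D ^ 5 * (c4 * ε) + C1 * (c2 * ε) + 2 * ε := by rw [hc5]; ring
    filter_upwards [H.low qL hL ε hε, H.symm qL hL ε hε, H.tri qL hL (D * ε) e1,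
      H.symm qP hQ' (c1 * ε) e4, H.up qP hQ' (D * (c1 * ε)) (by positivity), H.low qQ hQ ε hε,
      H.tri q0 h0 ε hε, hX (D ^ 2 * ε) e2, hN (D * ε) e1, hc ε hε, ev_const_le B hε 5,
      H.symm qj hjj (c2 * ε) e3, H.tri qj hjj (D * (c2 * ε)) (by positivity),
      hX (c2 * ε) e3, hN (c2 * ε) e3, H.up qQj hQj (c3 * ε) (by positivity),
      H.symm q0 h0 (c2 * ε) e3, H.tri q0 h0 (D * (c2 * ε)) (by positivity),
      H.exists_lab_loose q0 qL h0 hL l0L (ε := c4 * ε) e5, H.up qR hR (c5 * ε) (by positivity)]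
      with n glow gsymL gtriL gsymP gupP glowQ gtri0 gX gN gc g5 gsymj gtrij gX2 gN2 gupj
        gsym0 gtri02 glab gupR
    have hpow : ∀ t : ℝ, 0 < B.d n ^ t := fun t => rpos B n t
    have anti : ∀ {s t : ℝ}, s ≤ t → B.d n ^ t ≤ B.d n ^ s := fun h => rpow_anti B n h
    obtain ⟨⟨i, k⟩, hik⟩ := H.nonempty n
    have mono0 : ∀ {p q : κ → ℝ} {a a' : ℝ} {u v : ℕ}, (∀ s, q s ≤ p s) → a ≤ a' →
        (G n).loose p a k u v → (G n).loose q a' k u v := fun h1 h2 h3 => H.loose_mono h1 h2 h3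
    have absl : ∀ {p : κ → ℝ} {a : ℝ} {u v : ℕ}, (G n).loose p a k u v → ∀ s,
        |(G n).rel k u v s| ≤ B.d n ^ (p s - a) := by
      intro p a u v h s
      have := h s
      rwa [H.base n] at this
    have cn0 : 0 ≤ |c n| := abs_nonneg _
    -- step 1 : independent points of the leaf
    set Lf := (G n).box qL ε i k with hLf
    have LfI : ∀ e ∈ Lf, (e, k) ∈ (G n).I := fun e he =>
      H.memSlice.1 (RCfg.mem_box.1 he).1
    have LfL : ∀ e ∈ Lf, (G n).loose qL ε k i e := fun e he => (RCfg.mem_box.1 he).2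
    obtain ⟨E, hEL, hE1, hE2⟩ := exists_indep Lf (fun e t => (G n).loose qP (c1 * ε) k e t)
    have hEcard : B.d n ^ (-(ν qL - ν qP) + (1 + D ^ 2 * c1) * ε) ≤ (E.card : ℝ) := by
      have hcov : Lf ⊆ E.biUnion fun e => (G n).box qP (D * (c1 * ε)) e k := by
        intro t ht
        rw [Finset.mem_biUnion]
        have hIt := LfI t ht
        by_cases htE : t ∈ E
        · exact ⟨t, htE, H.self_mem_box _ _ hIt⟩
        · obtain ⟨e, he, h | h⟩ := hE2 t ht htE
          · refine ⟨e, he, RCfg.mem_box.2 ⟨H.memSlice.2 hIt, mono0 (fun _ => le_rfl) ?_ h⟩⟩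
            linarith only [hε, hx, hjx, f1, f2, f3, f4, f5, f6, f7, f8, f9, f10, g1', g2', g3', g4', g5', e1, e2, e3, e4, e5]
          · exact ⟨e, he, RCfg.mem_box.2 ⟨H.memSlice.2 hIt, gsymP k t e hIt (LfI e (hEL he)) h⟩⟩
      have h1 : (Lf.card : ℝ) ≤ E.card * B.d n ^ (-ν qP - D * (D * (c1 * ε))) := by
        calc (Lf.card : ℝ) ≤ ((E.biUnion fun e => (G n).box qP (D * (c1 * ε)) e k).card : ℝ) := by
              exact_mod_cast Finset.card_le_card hcov
          _ ≤ ∑ e ∈ E, (((G n).box qP (D * (c1 * ε)) e k).card : ℝ) := by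
              exact_mod_cast Finset.card_biUnion_le
          _ ≤ ∑ e ∈ E, B.d n ^ (-ν qP - D * (D * (c1 * ε))) :=
              Finset.sum_le_sum fun e he => gupP e k (LfI e (hEL he))
          _ = _ := by rw [Finset.sum_const, nsmul_eq_mul]
      have h2 := (glow i k hik).trans h1
      have h3 : B.d n ^ (-(ν qL - ν qP) + (1 + D ^ 2 * c1) * ε) *
          B.d n ^ (-ν qP - D * (D * (c1 * ε))) = B.d n ^ (-ν qL + ε) := by
        rw [← rpow_add']; congr 1; ring
      rw [← h3] at h2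
      exact le_of_mul_le_mul_right h2 (hpow _)
    -- step 2 : the set `S1`
    set S1 := ((G n).slice k).filter fun l => (G n).loose q0 (c2 * ε) k i l ∧
      |(G n).rel k i l sN| ≤ B.d n ^ (x - c2 * ε) with hS1
    have S1I : ∀ l ∈ S1, (l, k) ∈ (G n).I := fun l hl => H.memSlice.1 (Finset.mem_filter.1 hl).1
    have hQsub : ∀ e ∈ E, (G n).box qQ ε e k ⊆ S1 := by
      intro e he l hl
      have heL := hEL he
      have hIe := LfI e heL
      obtain ⟨l1, l2⟩ := RCfg.mem_box.1 hl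
      have hIl := H.memSlice.1 l1
      have a1 : (G n).loose q0 ε k i e := mono0 l0L le_rfl (LfL e heL)
      have a2 : (G n).loose q0 ε k e l := mono0 l0Q le_rfl l2
      have a3 := gtri0 k i e l hik hIe hIl a1 a2
      have a4 := gN k i e l hik hIe hIl (mono0 (fun _ => le_rfl) (by linarith only [hε, hx, hjx, f1, f2, f3, f4, f5, f6, f7, f8, f9, f10, g1', g2', g3', g4', g5', e1, e2, e3, e4, e5]) a1) a3
      refine Finset.mem_filter.2 ⟨l1, mono0 (fun _ => le_rfl) (by linarith only [hε, hx, hjx, f1, f2, f3, f4, f5, f6, f7, f8, f9, f10, g1', g2', g3', g4', g5', e1, e2, e3, e4, e5]) a3, ?_⟩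
      have b1 : |(G n).rel k i e sN| ≤ B.d n ^ (x - ε) := by
        have := absl (LfL e heL) sN
        rwa [hqL, bx_N hNX hNF] at this
      have b2 : |(G n).rel k e l sN| ≤ B.d n ^ (x - ε) := by
        have := absl l2 sN
        rwa [hqQ, bx_N hNX hNF] at this
      have b3 : |(G n).rel k i e sF| ≤ B.d n ^ (0 - ε) := by
        have := absl a1 sF
        rwa [hq0, bx_F hFX] at this
      have b4 : |(G n).rel k e l sX| ≤ B.d n ^ (x - ε) := by
        have := absl l2 sX
        rwa [hqQ, bx_X] at this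
      have b5 : |c n * (G n).rel k i e sF * (G n).rel k e l sX| ≤ B.d n ^ (x - 3 * ε) := by
        rw [abs_mul, abs_mul]
        have : B.d n ^ (x - 3 * ε) = B.d n ^ (-ε) * B.d n ^ (0 - ε) * B.d n ^ (x - ε) := by
          rw [← rpow_add', ← rpow_add']; congr 1; ring
        rw [this]
        exact mul_le_mul (mul_le_mul gc.2 b3 (abs_nonneg _) (hpow _).le) b4 (abs_nonneg _)
          (mul_pos (hpow _) (hpow _)).le
      have e9 : (G n).rel k i l sN = ((G n).rel k i l sN - (G n).rel k i e sN -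
          (G n).rel k e l sN - c n * (G n).rel k i e sF * (G n).rel k e l sX) +
          (G n).rel k i e sN + (G n).rel k e l sN +
            c n * (G n).rel k i e sF * (G n).rel k e l sX := by ring
      rw [e9]
      have t1 := abs_add_le (((G n).rel k i l sN - (G n).rel k i e sN -
          (G n).rel k e l sN - c n * (G n).rel k i e sF * (G n).rel k e l sX) +
          (G n).rel k i e sN + (G n).rel k e l sN) (c n * (G n).rel k i e sF * (G n).rel k e l sX)
      have t2 := abs_add_le (((G n).rel k i l sN - (G n).rel k i e sN -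
          (G n).rel k e l sN - c n * (G n).rel k i e sF * (G n).rel k e l sX) +
          (G n).rel k i e sN) ((G n).rel k e l sN)
      have t3 := abs_add_le ((G n).rel k i l sN - (G n).rel k i e sN -
          (G n).rel k e l sN - c n * (G n).rel k i e sF * (G n).rel k e l sX)
          ((G n).rel k i e sN)
      have g1 : B.d n ^ (x - ε) ≤ B.d n ^ (x - (C1 * D + 3) * ε) := anti (by linarith only [hε, hx, hjx, f1, f2, f3, f4, f5, f6, f7, f8, f9, f10, g1', g2', g3', g4', g5', e1, e2, e3, e4, e5])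
      have g2 : B.d n ^ (x - 3 * ε) ≤ B.d n ^ (x - (C1 * D + 3) * ε) := anti (by linarith only [hε, hx, hjx, f1, f2, f3, f4, f5, f6, f7, f8, f9, f10, g1', g2', g3', g4', g5', e1, e2, e3, e4, e5])
      have g3 : B.d n ^ (x - C1 * (D * ε)) ≤ B.d n ^ (x - (C1 * D + 3) * ε) :=
        anti (by linarith only [hε, hx, hjx, f1, f2, f3, f4, f5, f6, f7, f8, f9, f10, g1', g2', g3', g4', g5', e1, e2, e3, e4, e5])
      have g4 : 5 * B.d n ^ (x - (C1 * D + 3) * ε) ≤ B.d n ^ (x - c2 * ε) := by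
        have := loss_mul B (s := x - (C1 * D + 3) * ε) g5
        refine this.trans (le_of_eq ?_)
        rw [hc2]; congr 1; ring
      have := hpow (x - (C1 * D + 3) * ε)
      linarith
    have hdisj : ∀ e ∈ E, ∀ e' ∈ E, e ≠ e' →
        Disjoint ((G n).box qQ ε e k) ((G n).box qQ ε e' k) := by
      intro e he e' he' hne
      rw [Finset.disjoint_left]
      intro l hl hl'
      apply hE1 e he e' he' hne
      have hIe := LfI e (hEL he)
      have hIe' := LfI e' (hEL he')
      obtain ⟨l1, l2⟩ := RCfg.mem_box.1 hl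
      obtain ⟨-, m2⟩ := RCfg.mem_box.1 hl'
      have hIl := H.memSlice.1 l1
      have a1 := gsymL k i e hik hIe (LfL e (hEL he))
      have a2 : (G n).loose qL (D * ε) k i e' :=
        mono0 (fun _ => le_rfl) (by linarith only [hε, hx, hjx, f1, f2, f3, f4, f5, f6, f7, f8, f9, f10, g1', g2', g3', g4', g5', e1, e2, e3, e4, e5]) (LfL e' (hEL he'))
      have a3 := gtriL k e i e' hIe hik hIe' a1 a2
      have a3' : (G n).loose qL (D ^ 2 * ε) k e e' := by
        have e1 : D * (D * ε) = D ^ 2 * ε := by ring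
        rwa [e1] at a3
      have a4 := gX k e e' l hIe hIe' hIl (mono0 l0L le_rfl a3')
        (mono0 l0Q (by linarith only [hε, hx, hjx, f1, f2, f3, f4, f5, f6, f7, f8, f9, f10, g1', g2', g3', g4', g5', e1, e2, e3, e4, e5]) l2)
      have b1 : |(G n).rel k e l sX| ≤ B.d n ^ (x - ε) := by
        have := absl l2 sX
        rwa [hqQ, bx_X] at this
      have b2 : |(G n).rel k e' l sX| ≤ B.d n ^ (x - ε) := by
        have := absl m2 sX
        rwa [hqQ, bx_X] at this
      intro s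
      by_cases hs : s = sX
      · subst hs
        rw [hqP, bx_X, H.base n]
        have e1 : (G n).rel k e e' s = -((G n).rel k e l s - (G n).rel k e e' s -
          (G n).rel k e' l s) + (G n).rel k e l s - (G n).rel k e' l s := by ring
        rw [e1]
        have t1 := abs_sub (-((G n).rel k e l s - (G n).rel k e e' s -
          (G n).rel k e' l s) + (G n).rel k e l s) ((G n).rel k e' l s)
        have t2 := abs_add_le (-((G n).rel k e l s - (G n).rel k e e' s -
          (G n).rel k e' l s)) ((G n).rel k e l s)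
        rw [abs_neg] at t2
        have g1 : B.d n ^ (x - ε) ≤ B.d n ^ (x - C1 * (D ^ 2 * ε)) := anti (by linarith only [hε, hx, hjx, f1, f2, f3, f4, f5, f6, f7, f8, f9, f10, g1', g2', g3', g4', g5', e1, e2, e3, e4, e5])
        have g4 : 5 * B.d n ^ (x - C1 * (D ^ 2 * ε)) ≤ B.d n ^ (x - c1 * ε) := by
          have := loss_mul B (s := x - C1 * (D ^ 2 * ε)) g5
          refine this.trans (le_of_eq ?_)
          rw [hc1]; congr 1; ring
        have := hpow (x - C1 * (D ^ 2 * ε))
        linarith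
      · have h1 := a3' s
        have h2 : qP s = qL s := by
          rw [hqP, hqL]; unfold bx; simp [hs]
        rw [h2]
        refine h1.trans ?_
        rw [H.base n]
        exact anti (by rw [hc1]; linarith only [hε, hx, hjx, f1, f2, f3, f4, f5, f6, f7, f8, f9, f10, g1', g2', g3', g4', g5', e1, e2, e3, e4, e5])
    have hS1low : B.d n ^ (-(ν qL - ν qP) - ν qQ + (2 + D ^ 2 * c1) * ε) ≤ (S1.card : ℝ) := by
      have h1 : ∑ e ∈ E, ((G n).box qQ ε e k).card ≤ S1.card := by
        rw [← Finset.card_biUnion hdisj]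
        refine Finset.card_le_card ?_
        intro l hl
        obtain ⟨e, he, hl1⟩ := Finset.mem_biUnion.1 hl
        exact hQsub e he hl1
      have h2 : (E.card : ℝ) * B.d n ^ (-ν qQ + ε) ≤ (S1.card : ℝ) := by
        calc (E.card : ℝ) * B.d n ^ (-ν qQ + ε) = ∑ e ∈ E, B.d n ^ (-ν qQ + ε) := by
              rw [Finset.sum_const, nsmul_eq_mul]
          _ ≤ ∑ e ∈ E, (((G n).box qQ ε e k).card : ℝ) :=
              Finset.sum_le_sum fun e he => glowQ e k (LfI e (hEL he))
          _ ≤ _ := by exact_mod_cast h1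
      refine le_trans ?_ h2
      have h3 : B.d n ^ (-(ν qL - ν qP) - ν qQ + (2 + D ^ 2 * c1) * ε) =
          B.d n ^ (-(ν qL - ν qP) + (1 + D ^ 2 * c1) * ε) * B.d n ^ (-ν qQ + ε) := by
        rw [← rpow_add']; congr 1; ring
      rw [h3]
      exact mul_le_mul_of_nonneg_right hEcard (hpow _).le
    -- bounds of the coordinates on `S1`
    have S1N : ∀ l ∈ S1, |(G n).rel k i l sN| ≤ B.d n ^ (x - c2 * ε) := fun l hl =>
      (Finset.mem_filter.1 hl).2.2
    have S10 : ∀ l ∈ S1, (G n).loose q0 (c2 * ε) k i l := fun l hl =>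
      (Finset.mem_filter.1 hl).2.1
    have S1F : ∀ l ∈ S1, |(G n).rel k i l sF| ≤ B.d n ^ (0 - c2 * ε) := by
      intro l hl
      have := absl (S10 l hl) sF
      rwa [hq0, bx_F hFX] at this
    have S1X : ∀ l ∈ S1, |(G n).rel k i l sX| ≤ B.d n ^ (0 - c2 * ε) := by
      intro l hl
      have := absl (S10 l hl) sX
      rwa [hq0, bx_X] at this
    -- step 3 : small flags
    set Sj := S1.filter fun l => |(G n).rel k i l sF| ≤ B.d n ^ j with hSj
    have hSjup : (Sj.card : ℝ) ≤ B.d n ^ (-x - ν qQj - (c2 + 1 + D * c3) * ε) := by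
      have hcells : (((Sj.image fun l => ⌊(G n).rel k i l sX / B.d n ^ x⌋).card : ℕ) : ℝ) ≤
          B.d n ^ (-x - (c2 + 1) * ε) := by
        refine (card_floor_le Sj (fun l => (G n).rel k i l sX) (hpow x)
          (M := B.d n ^ (0 - c2 * ε)) (hpow _).le
          (fun l hl => S1X l (Finset.mem_filter.1 hl).1)).trans ?_
        have h1 : B.d n ^ (0 - c2 * ε) / B.d n ^ x = B.d n ^ (-x - c2 * ε) := by
          rw [div_eq_iff (hpow x).ne', ← rpow_add']; congr 1; ring
        rw [h1]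
        have h2 : (1 : ℝ) ≤ B.d n ^ (-x - c2 * ε) :=
          Real.one_le_rpow_of_pos_of_le_one_of_nonpos (B.pos n) (B.lt n).le (by linarith)
        have h3 := loss_mul B (s := -x - c2 * ε) g5
        have h4 : -x - c2 * ε - ε = -x - (c2 + 1) * ε := by ring
        rw [h4] at h3
        linarith
      have hP : ∀ l ∈ Sj, ((Sj.filter fun l' => |(G n).rel k i l' sX - (G n).rel k i l sX| ≤
          B.d n ^ x).card : ℝ) ≤ B.d n ^ (-ν qQj - D * (c3 * ε)) := by
        intro l hl
        obtain ⟨l1, l2⟩ := Finset.mem_filter.1 hl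
        have hIl := S1I l l1
        refine le_trans ?_ (gupj l k hIl)
        refine mod_cast Finset.card_le_card ?_
        intro l' hl'
        obtain ⟨m0, m3⟩ := Finset.mem_filter.1 hl'
        obtain ⟨m1, m2⟩ := Finset.mem_filter.1 m0
        have hIl' := S1I l' m1
        refine RCfg.mem_box.2 ⟨H.memSlice.2 hIl', ?_⟩
        have hlj : ∀ t ∈ S1, |(G n).rel k i t sF| ≤ B.d n ^ j →
            (G n).loose qj (c2 * ε) k i t := by
          intro t ht htj s
          rw [H.base n]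
          by_cases hsF : s = sF
          · subst hsF
            rw [hqj, bx_F hFX]
            exact htj.trans (anti (by linarith only [hε, hx, hjx, f1, f2, f3, f4, f5, f6, f7, f8, f9, f10, g1', g2', g3', g4', g5', e1, e2, e3, e4, e5]))
          by_cases hsN : s = sN
          · subst hsN
            rw [hqj, bx_N hNX hNF]
            exact (S1N t ht).trans (anti (by linarith))
          have := absl (S10 t ht) s
          refine this.trans (le_of_eq ?_)
          congr 2
          rw [hq0, hqj]; unfold bx; simp [hsF, hsN]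
        have a1 := gsymj k i l hik hIl (hlj l l1 l2)
        have a2 : (G n).loose qj (D * (c2 * ε)) k i l' :=
          mono0 (fun _ => le_rfl) (by linarith only [hε, hx, hjx, f1, f2, f3, f4, f5, f6, f7, f8, f9, f10, g1', g2', g3', g4', g5', e1, e2, e3, e4, e5]) (hlj l' m1 m2)
        have a3 := gtrij k l i l' hIl hik hIl' a1 a2
        have b1 := gX2 k i l l' hik hIl hIl' (S10 l l1) (S10 l' m1)
        have b2 := gN2 k i l l' hik hIl hIl' (S10 l l1) (S10 l' m1)
        have bX : |(G n).rel k l l' sX| ≤ B.d n ^ (x - (C1 * c2 + 1) * ε) := by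
          have e1 : (G n).rel k l l' sX = -((G n).rel k i l' sX - (G n).rel k i l sX -
            (G n).rel k l l' sX) + ((G n).rel k i l' sX - (G n).rel k i l sX) := by ring
          rw [e1]
          have t2 := abs_add_le (-((G n).rel k i l' sX - (G n).rel k i l sX -
            (G n).rel k l l' sX)) ((G n).rel k i l' sX - (G n).rel k i l sX)
          rw [abs_neg] at t2
          have g1 : B.d n ^ x ≤ B.d n ^ (x - C1 * (c2 * ε)) := by
            refine anti ?_
            have : 0 ≤ C1 * (c2 * ε) := by positivity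
            linarith
          have g4 := loss_mul B (s := x - C1 * (c2 * ε)) g5
          have g6 : x - C1 * (c2 * ε) - ε = x - (C1 * c2 + 1) * ε := by ring
          rw [g6] at g4
          have := hpow (x - C1 * (c2 * ε))
          linarith
        have bN : |(G n).rel k l l' sN| ≤ B.d n ^ (x - (C1 * c2 + c2 + 3) * ε) := by
          have e1 : (G n).rel k l l' sN = -((G n).rel k i l' sN - (G n).rel k i l sN -
            (G n).rel k l l' sN - c n * (G n).rel k i l sF * (G n).rel k l l' sX) +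
            (G n).rel k i l' sN - (G n).rel k i l sN -
            c n * (G n).rel k i l sF * (G n).rel k l l' sX := by ring
          rw [e1]
          have t1 := abs_sub (-((G n).rel k i l' sN - (G n).rel k i l sN -
            (G n).rel k l l' sN - c n * (G n).rel k i l sF * (G n).rel k l l' sX) +
            (G n).rel k i l' sN - (G n).rel k i l sN)
            (c n * (G n).rel k i l sF * (G n).rel k l l' sX)
          have t2 := abs_sub (-((G n).rel k i l' sN - (G n).rel k i l sN -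
            (G n).rel k l l' sN - c n * (G n).rel k i l sF * (G n).rel k l l' sX) +
            (G n).rel k i l' sN) ((G n).rel k i l sN)
          have t3 := abs_add_le (-((G n).rel k i l' sN - (G n).rel k i l sN -
            (G n).rel k l l' sN - c n * (G n).rel k i l sF * (G n).rel k l l' sX))
            ((G n).rel k i l' sN)
          rw [abs_neg] at t3
          have b5 : |c n * (G n).rel k i l sF * (G n).rel k l l' sX| ≤
              B.d n ^ (x - (C1 * c2 + c2 + 2) * ε) := by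
            rw [abs_mul, abs_mul]
            have : B.d n ^ (x - (C1 * c2 + c2 + 2) * ε) = B.d n ^ (-ε) *
                B.d n ^ (0 - c2 * ε) * B.d n ^ (x - (C1 * c2 + 1) * ε) := by
              rw [← rpow_add', ← rpow_add']; congr 1; ring
            rw [this]
            exact mul_le_mul (mul_le_mul gc.2 (S1F l l1) (abs_nonneg _) (hpow _).le) bX
              (abs_nonneg _) (mul_pos (hpow _) (hpow _)).le
          have n1 := S1N l l1
          have n2 := S1N l' m1
          have hC1c2 : 0 ≤ C1 * c2 * ε := by positivity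
          have g1 : B.d n ^ (x - c2 * ε) ≤ B.d n ^ (x - (C1 * c2 + c2 + 2) * ε) :=
            anti (by linarith only [hε, hx, hjx, f1, f2, f3, f4, f5, f6, f7, f8, f9, f10, g1', g2', g3', g4', g5', e1, e2, e3, e4, e5])
          have g2 : B.d n ^ (x - C1 * (c2 * ε)) ≤ B.d n ^ (x - (C1 * c2 + c2 + 2) * ε) :=
            anti (by linarith only [hε, hx, hjx, f1, f2, f3, f4, f5, f6, f7, f8, f9, f10, g1', g2', g3', g4', g5', e1, e2, e3, e4, e5])
          have g4 := loss_mul B (s := x - (C1 * c2 + c2 + 2) * ε) g5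
          have g6 : x - (C1 * c2 + c2 + 2) * ε - ε = x - (C1 * c2 + c2 + 3) * ε := by ring
          rw [g6] at g4
          have := hpow (x - (C1 * c2 + c2 + 2) * ε)
          linarith
        have hC1c2 : 0 ≤ C1 * c2 * ε := by positivity
        have hDc2 : 0 ≤ D ^ 2 * c2 * ε := by positivity
        intro s
        rw [H.base n]
        by_cases hsX : s = sX
        · subst hsX
          rw [hqQj, bx_X]
          refine bX.trans (anti ?_)
          rw [hc3]; linarith only [hε, hx, hjx, f1, f2, f3, f4, f5, f6, f7, f8, f9, f10, g1', g2', g3', g4', g5', e1, e2, e3, e4, e5]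
        by_cases hsN : s = sN
        · subst hsN
          rw [hqQj, bx_N hNX hNF]
          refine bN.trans (anti ?_)
          rw [hc3]; linarith only [hε, hx, hjx, f1, f2, f3, f4, f5, f6, f7, f8, f9, f10, g1', g2', g3', g4', g5', e1, e2, e3, e4, e5]
        have h1 := absl a3 s
        refine h1.trans (anti ?_)
        have h2 : qQj s = qj s := by rw [hqQj, hqj]; unfold bx; simp [hsX, hsN]
        rw [h2, hc3]
        linarith only [hε, hx, hjx, f1, f2, f3, f4, f5, f6, f7, f8, f9, f10, g1', g2', g3', g4', g5', e1, e2, e3, e4, e5]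
      have h1 := card_le_cells Sj (fun l => (G n).rel k i l sX) (hpow x) hP
      refine h1.trans ?_
      have h2 : B.d n ^ (-x - ν qQj - (c2 + 1 + D * c3) * ε) =
          B.d n ^ (-x - (c2 + 1) * ε) * B.d n ^ (-ν qQj - D * (c3 * ε)) := by
        rw [← rpow_add']; congr 1; ring
      rw [h2]
      exact mul_le_mul_of_nonneg_right hcells (hpow _).le
    -- step 4 : large flags
    set S2 := S1.filter fun l => ¬ |(G n).rel k i l sF| ≤ B.d n ^ j with hS2
    have hS2up : (S2.card : ℝ) ≤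
        B.d n ^ (-(ν q0 - ν qL) - ν qR - ((D ^ 2 + 1) * c4 + D * c5) * ε) := by
      rcases S2.eq_empty_or_nonempty with hemp | hne
      · rw [hemp]; simpa using (hpow _).le
      have hS2s : S2 ⊆ (G n).slice k := fun l hl =>
        H.memSlice.2 (S1I l (Finset.mem_filter.1 hl).1)
      obtain ⟨lab, hlab1, hlab2⟩ := glab k S2 hS2s (by
        intro l hl l' hl'
        have l1 := (Finset.mem_filter.1 hl).1
        have m1 := (Finset.mem_filter.1 hl').1
        have a1 := gsym0 k i l hik (S1I l l1) (S10 l l1)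
        have a2 : (G n).loose q0 (D * (c2 * ε)) k i l' :=
          mono0 (fun _ => le_rfl) (by linarith only [hε, hx, hjx, f1, f2, f3, f4, f5, f6, f7, f8, f9, f10, g1', g2', g3', g4', g5', e1, e2, e3, e4, e5]) (S10 l' m1)
        have a3 := gtri02 k l i l' (S1I l l1) hik (S1I l' m1) a1 a2
        have e1 : D * (D * (c2 * ε)) = c4 * ε := by rw [hc4]; ring
        rwa [e1] at a3)
      obtain ⟨l0, hl0, hfib⟩ := exists_fibre S2 lab hne hlab2
      obtain ⟨p1, p2⟩ := Finset.mem_filter.1 hl0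
      have hfc : ((S2.filter fun l => lab l = lab l0).card : ℝ) ≤
          B.d n ^ (-ν qR - D * (c5 * ε)) := by
        refine le_trans ?_ (gupR l0 k (S1I l0 p1))
        refine mod_cast Finset.card_le_card ?_
        intro l' hl'
        obtain ⟨m0, m3⟩ := Finset.mem_filter.1 hl'
        obtain ⟨m1, m2⟩ := Finset.mem_filter.1 m0
        have hIl' := S1I l' m1
        have hIl0 := S1I l0 p1
        refine RCfg.mem_box.2 ⟨H.memSlice.2 hIl', ?_⟩
        have a1 := hlab1 l0 hl0 l' m0 m3.symm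
        have b2 := gN2 k i l0 l' hik hIl0 hIl' (S10 l0 p1) (S10 l' m1)
        have n1 := S1N l0 p1
        have n2 := S1N l' m1
        have n3 : |(G n).rel k l0 l' sN| ≤ B.d n ^ (x - D ^ 5 * (c4 * ε)) := by
          have := absl a1 sN
          rwa [hqL, bx_N hNX hNF] at this
        have q1 : |c n * (G n).rel k i l0 sF * (G n).rel k l0 l' sX| ≤
            B.d n ^ (x - (c2 + D ^ 5 * c4 + C1 * c2 + 1) * ε) := by
          have e1 : c n * (G n).rel k i l0 sF * (G n).rel k l0 l' sX =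
              -((G n).rel k i l' sN - (G n).rel k i l0 sN -
              (G n).rel k l0 l' sN - c n * (G n).rel k i l0 sF * (G n).rel k l0 l' sX) +
              (G n).rel k i l' sN - (G n).rel k i l0 sN - (G n).rel k l0 l' sN := by ring
          rw [e1]
          have t1 := abs_sub (-((G n).rel k i l' sN - (G n).rel k i l0 sN -
              (G n).rel k l0 l' sN - c n * (G n).rel k i l0 sF * (G n).rel k l0 l' sX) +
              (G n).rel k i l' sN - (G n).rel k i l0 sN) ((G n).rel k l0 l' sN)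
          have t2 := abs_sub (-((G n).rel k i l' sN - (G n).rel k i l0 sN -
              (G n).rel k l0 l' sN - c n * (G n).rel k i l0 sF * (G n).rel k l0 l' sX) +
              (G n).rel k i l' sN) ((G n).rel k i l0 sN)
          have t3 := abs_add_le (-((G n).rel k i l' sN - (G n).rel k i l0 sN -
              (G n).rel k l0 l' sN - c n * (G n).rel k i l0 sF * (G n).rel k l0 l' sX))
              ((G n).rel k i l' sN)
          rw [abs_neg] at t3
          have hC1c2 : 0 ≤ C1 * c2 * ε := by positivity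
          have hDc4 : 0 ≤ D ^ 5 * c4 * ε := by positivity
          have g1 : B.d n ^ (x - c2 * ε) ≤ B.d n ^ (x - (c2 + D ^ 5 * c4 + C1 * c2) * ε) :=
            anti (by linarith only [hε, hx, hjx, f1, f2, f3, f4, f5, f6, f7, f8, f9, f10, g1', g2', g3', g4', g5', e1, e2, e3, e4, e5])
          have g2 : B.d n ^ (x - C1 * (c2 * ε)) ≤
              B.d n ^ (x - (c2 + D ^ 5 * c4 + C1 * c2) * ε) := anti (by linarith only [hε, hx, hjx, f1, f2, f3, f4, f5, f6, f7, f8, f9, f10, g1', g2', g3', g4', g5', e1, e2, e3, e4, e5])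
          have g3 : B.d n ^ (x - D ^ 5 * (c4 * ε)) ≤
              B.d n ^ (x - (c2 + D ^ 5 * c4 + C1 * c2) * ε) := anti (by linarith only [hε, hx, hjx, f1, f2, f3, f4, f5, f6, f7, f8, f9, f10, g1', g2', g3', g4', g5', e1, e2, e3, e4, e5])
          have g4 := loss_mul B (s := x - (c2 + D ^ 5 * c4 + C1 * c2) * ε) g5
          have g6 : x - (c2 + D ^ 5 * c4 + C1 * c2) * ε - ε =
            x - (c2 + D ^ 5 * c4 + C1 * c2 + 1) * ε := by ring
          rw [g6] at g4
          have := hpow (x - (c2 + D ^ 5 * c4 + C1 * c2) * ε)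
          linarith
        have q2 : |(G n).rel k l0 l' sX| ≤ B.d n ^ (x - j - c5 * ε) := by
          rw [abs_mul, abs_mul] at q1
          have f1 : B.d n ^ ε * B.d n ^ j ≤ |c n| * |(G n).rel k i l0 sF| :=
            mul_le_mul gc.1 (not_le.1 p2).le (hpow _).le (abs_nonneg _)
          have f2 : B.d n ^ ε * B.d n ^ j * |(G n).rel k l0 l' sX| ≤
              B.d n ^ (x - (c2 + D ^ 5 * c4 + C1 * c2 + 1) * ε) :=
            (mul_le_mul_of_nonneg_right f1 (abs_nonneg _)).trans q1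
          have f3 : B.d n ^ (x - (c2 + D ^ 5 * c4 + C1 * c2 + 1) * ε) =
              B.d n ^ ε * B.d n ^ j * B.d n ^ (x - j - c5 * ε) := by
            rw [← rpow_add', ← rpow_add', hc5]; congr 1; ring
          rw [f3] at f2
          exact le_of_mul_le_mul_left f2 (mul_pos (hpow _) (hpow _))
        intro s
        rw [H.base n]
        by_cases hsX : s = sX
        · subst hsX
          rw [hqR, bx_X]
          exact q2
        have h1 := absl a1 s
        refine h1.trans (anti ?_)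
        have h2 : qR s = qL s := by rw [hqR, hqL]; unfold bx; simp [hsX]
        rw [h2, hc5]
        have hC1c2 : 0 ≤ C1 * c2 * ε := by positivity
        linarith only [hε, hx, hjx, f1, f2, f3, f4, f5, f6, f7, f8, f9, f10, g1', g2', g3', g4', g5', e1, e2, e3, e4, e5]
      refine (hfib.trans (mul_le_mul_of_nonneg_left hfc (hpow _).le)).trans (le_of_eq ?_)
      rw [← rpow_add']
      congr 1
      ring
    -- conclusion
    have hsum : (S1.card : ℝ) = Sj.card + S2.card := by
      have := Finset.card_filter_add_card_filter_not (s := S1)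
        (fun l => |(G n).rel k i l sF| ≤ B.d n ^ j)
      rw [← this]
      push_cast
      rfl
    have hbig : B.d n ^ (-(ν qL - ν qP) - ν qQ +
        (3 + D ^ 2 * c1 + (c2 + 1 + D * c3) + ((D ^ 2 + 1) * c4 + D * c5)) * ε) ≤
        (S1.card : ℝ) := by
      refine le_trans (anti ?_) hS1low
      have : 0 ≤ (1 + (c2 + 1 + D * c3) + ((D ^ 2 + 1) * c4 + D * c5)) * ε := by positivity
      linarith only [hε, this]
    have hS : ∑ s ∈ range (1 + 1), B.d n ^ ((if s = 0 then -x - ν qQj else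
        -(ν q0 - ν qL) - ν qR) - (3 + D ^ 2 * c1 + (c2 + 1 + D * c3) +
          ((D ^ 2 + 1) * c4 + D * c5)) * ε) =
        B.d n ^ (-x - ν qQj - (3 + D ^ 2 * c1 + (c2 + 1 + D * c3) +
          ((D ^ 2 + 1) * c4 + D * c5)) * ε) +
        B.d n ^ (-(ν q0 - ν qL) - ν qR - (3 + D ^ 2 * c1 + (c2 + 1 + D * c3) +
          ((D ^ 2 + 1) * c4 + D * c5)) * ε) := by
      rw [Finset.sum_range_succ, Finset.sum_range_one]
      simp
    rw [one_mul, hS]
    have k1 : (Sj.card : ℝ) ≤ B.d n ^ (-x - ν qQj - (3 + D ^ 2 * c1 + (c2 + 1 + D * c3) +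
          ((D ^ 2 + 1) * c4 + D * c5)) * ε) := by
      refine hSjup.trans (anti ?_)
      have : 0 ≤ (3 + D ^ 2 * c1 + ((D ^ 2 + 1) * c4 + D * c5)) * ε := by positivity
      linarith only [hε, this]
    have k2 : (S2.card : ℝ) ≤ B.d n ^ (-(ν q0 - ν qL) - ν qR - (3 + D ^ 2 * c1 +
        (c2 + 1 + D * c3) + ((D ^ 2 + 1) * c4 + D * c5)) * ε) := by
      refine hS2up.trans (anti ?_)
      have : 0 ≤ (3 + D ^ 2 * c1 + (c2 + 1 + D * c3)) * ε := by positivity
      linarith only [hε, this]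
    linarith)
  interval_cases jj
  · left
    simp only [if_true] at hjj2
    linarith
  · right
    simp only [one_ne_zero, if_false] at hjj2
    linarith

/-- **a flag of positive rate fills the normal slot** (355's (0A)): `ν` linear with rates `1, η, a`
on the legal boxes `bx b · · ·` of size `≤ x`, `η > 0` ⊢ `1 ≤ a`. -/
theorem leaf_rate_R (H : RUnif B G Leg ν D) (b : κ → ℝ) {sX sF sN : κ} (hFX : sF ≠ sX)
    (hNX : sN ≠ sX) (hNF : sN ≠ sF) {x : ℝ} (hx : 0 < x)
    (hLeg : ∀ u v w : ℝ, 0 ≤ u → u ≤ x → 0 ≤ v → v ≤ x → 0 ≤ w → w ≤ x → w ≤ u + v →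
      bx b sX sF sN u v w ∈ Leg) (c : ℕ → ℝ)
    (hc : ∀ ε : ℝ, 0 < ε → ∀ᶠ n in (U : Filter ℕ), B.d n ^ ε ≤ |c n| ∧ |c n| ≤ B.d n ^ (-ε))
    {C1 : ℝ} (hC1 : 1 ≤ C1)
    (hX : ∀ ε : ℝ, 0 < ε → ∀ᶠ n in (U : Filter ℕ), ∀ k i l l', (i, k) ∈ (G n).I →
      (l, k) ∈ (G n).I → (l', k) ∈ (G n).I → (G n).loose (bx b sX sF sN 0 0 0) ε k i l →
      (G n).loose (bx b sX sF sN 0 0 0) ε k i l' →
      |(G n).rel k i l' sX - (G n).rel k i l sX - (G n).rel k l l' sX| ≤ B.d n ^ (x - C1 * ε))
    (hN : ∀ ε : ℝ, 0 < ε → ∀ᶠ n in (U : Filter ℕ), ∀ k i l l', (i, k) ∈ (G n).I →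
      (l, k) ∈ (G n).I → (l', k) ∈ (G n).I → (G n).loose (bx b sX sF sN 0 0 0) ε k i l →
      (G n).loose (bx b sX sF sN 0 0 0) ε k i l' →
      |(G n).rel k i l' sN - (G n).rel k i l sN - (G n).rel k l l' sN -
        c n * (G n).rel k i l sF * (G n).rel k l l' sX| ≤ B.d n ^ (x - C1 * ε))
    {η a : ℝ} (hη : 0 < η)
    (hν : ∀ u v w : ℝ, 0 ≤ u → u ≤ x → 0 ≤ v → v ≤ x → 0 ≤ w → w ≤ x → w ≤ u + v →
      ν (bx b sX sF sN u v w) = ν (bx b sX sF sN 0 0 0) - u - η * v - a * w) :
    1 ≤ a := by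
  have key : ∀ j : ℝ, 0 < j → j ≤ x → x - j ≤ a * x := by
    intro j hj hjx
    rcases leaf_R H b hFX hNX hNF hj.le hjx
      (hLeg 0 0 0 le_rfl hx.le le_rfl hx.le le_rfl hx.le (by linarith))
      (hLeg 0 x x le_rfl hx.le hx.le le_rfl hx.le le_rfl (by linarith))
      (hLeg x x x hx.le le_rfl hx.le le_rfl hx.le le_rfl (by linarith))
      (hLeg x 0 x hx.le le_rfl le_rfl hx.le hx.le le_rfl (by linarith))
      (hLeg 0 j j le_rfl hx.le hj.le hjx hj.le hjx (by linarith))
      (hLeg x j x hx.le le_rfl hj.le hjx hx.le le_rfl (by linarith))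
      (hLeg (x - j) x x (by linarith) (by linarith) hx.le le_rfl hx.le le_rfl (by linarith))
      c hc hC1 hX hN with h | h
    · exfalso
      rw [hν 0 x x le_rfl hx.le hx.le le_rfl hx.le le_rfl (by linarith),
        hν x x x hx.le le_rfl hx.le le_rfl hx.le le_rfl (by linarith),
        hν x 0 x hx.le le_rfl le_rfl hx.le hx.le le_rfl (by linarith),
        hν x j x hx.le le_rfl hj.le hjx hx.le le_rfl (by linarith)] at h
      nlinarith
    · rw [hν 0 x x le_rfl hx.le hx.le le_rfl hx.le le_rfl (by linarith),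
        hν x x x hx.le le_rfl hx.le le_rfl hx.le le_rfl (by linarith),
        hν x 0 x hx.le le_rfl le_rfl hx.le hx.le le_rfl (by linarith),
        hν (x - j) x x (by linarith) (by linarith) hx.le le_rfl hx.le le_rfl (by linarith)] at h
      nlinarith
  by_contra hcon
  push Not at hcon
  have h1 := key (min ((1 - a) * x / 2) x) (lt_min (by nlinarith) hx) (min_le_right _ _)
  have h2 := min_le_left ((1 - a) * x / 2) x
  nlinarith

/-- **a flag costs nothing if the normal slot is not full** (no linearity in the flag): `ν = ν₀ - u -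
e v - a w` on the legal boxes `bx b u v w` of size `≤ x`, `a x < x - j` ⊢ `e j ≤ e 0`. -/
theorem leaf_free_R (H : RUnif B G Leg ν D) (b : κ → ℝ) {sX sF sN : κ} (hFX : sF ≠ sX)
    (hNX : sN ≠ sX) (hNF : sN ≠ sF) {x j : ℝ} (hj : 0 ≤ j) (hjx : j ≤ x)
    (hLeg : ∀ u v w : ℝ, 0 ≤ u → u ≤ x → 0 ≤ v → v ≤ x → 0 ≤ w → w ≤ x → w ≤ u + v →
      bx b sX sF sN u v w ∈ Leg) (c : ℕ → ℝ)
    (hc : ∀ ε : ℝ, 0 < ε → ∀ᶠ n in (U : Filter ℕ), B.d n ^ ε ≤ |c n| ∧ |c n| ≤ B.d n ^ (-ε))
    {C1 : ℝ} (hC1 : 1 ≤ C1)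
    (hX : ∀ ε : ℝ, 0 < ε → ∀ᶠ n in (U : Filter ℕ), ∀ k i l l', (i, k) ∈ (G n).I →
      (l, k) ∈ (G n).I → (l', k) ∈ (G n).I → (G n).loose (bx b sX sF sN 0 0 0) ε k i l →
      (G n).loose (bx b sX sF sN 0 0 0) ε k i l' →
      |(G n).rel k i l' sX - (G n).rel k i l sX - (G n).rel k l l' sX| ≤ B.d n ^ (x - C1 * ε))
    (hN : ∀ ε : ℝ, 0 < ε → ∀ᶠ n in (U : Filter ℕ), ∀ k i l l', (i, k) ∈ (G n).I →
      (l, k) ∈ (G n).I → (l', k) ∈ (G n).I → (G n).loose (bx b sX sF sN 0 0 0) ε k i l →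
      (G n).loose (bx b sX sF sN 0 0 0) ε k i l' →
      |(G n).rel k i l' sN - (G n).rel k i l sN - (G n).rel k l l' sN -
        c n * (G n).rel k i l sF * (G n).rel k l l' sX| ≤ B.d n ^ (x - C1 * ε))
    {a : ℝ} {e : ℝ → ℝ} (haj : a * x < x - j)
    (hν : ∀ u v w : ℝ, 0 ≤ u → u ≤ x → 0 ≤ v → v ≤ x → 0 ≤ w → w ≤ x → w ≤ u + v →
      ν (bx b sX sF sN u v w) = ν (bx b sX sF sN 0 0 0) - u - e v - a * w) :
    e j ≤ e 0 := by
  have hx : 0 ≤ x := hj.trans hjx
  rcases leaf_R H b hFX hNX hNF hj hjx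
    (hLeg 0 0 0 le_rfl hx le_rfl hx le_rfl hx (by linarith))
    (hLeg 0 x x le_rfl hx hx le_rfl hx le_rfl (by linarith))
    (hLeg x x x hx le_rfl hx le_rfl hx le_rfl (by linarith))
    (hLeg x 0 x hx le_rfl le_rfl hx hx le_rfl (by linarith))
    (hLeg 0 j j le_rfl hx hj hjx hj hjx (by linarith))
    (hLeg x j x hx le_rfl hj hjx hx le_rfl (by linarith))
    (hLeg (x - j) x x (by linarith) (by linarith) hx le_rfl hx le_rfl (by linarith))
    c hc hC1 hX hN with h | h
  · rw [hν 0 x x le_rfl hx hx le_rfl hx le_rfl (by linarith),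
      hν x x x hx le_rfl hx le_rfl hx le_rfl (by linarith),
      hν x 0 x hx le_rfl le_rfl hx hx le_rfl (by linarith),
      hν x j x hx le_rfl hj hjx hx le_rfl (by linarith)] at h
    linarith
  · exfalso
    rw [hν 0 x x le_rfl hx hx le_rfl hx le_rfl (by linarith),
      hν x x x hx le_rfl hx le_rfl hx le_rfl (by linarith),
      hν x 0 x hx le_rfl le_rfl hx hx le_rfl (by linarith),
      hν (x - j) x x (by linarith) (by linarith) hx le_rfl hx le_rfl (by linarith)] at h
    have h0 := hν 0 0 0 le_rfl hx le_rfl hx le_rfl hx (by linarith)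
    linarith

end Crest.Agent.R136.Lf400
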