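import Crest.Agent.R136.RowW_619
import Crest.Agent.R136.W1_938
import Crest.Agent.R136.Lf1_400

/-!
# R136: leaf links in the W-window (helper619)

* `comp_live`, `comp_two`, `comp_three` : composition at one height in the configuration.
* `leafN_R` : 400's `leaf_R` in the non-linear form: "`F` costs something between `0` and `j`"
  and "`X` full" ⊢ `2 x - j ≤ ν(0,0,0) - ν(x,0,x)`.
* `LeafDat S N X F q m e` (decidable): the only live monomial of the flag slot `q` outside `N` is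
  `m κ^e X F`; `leafW` : hypotheses of `leaf_R` in the window; `leafW_loss` : the leaf link.
-/

set_option autoImplicit false
set_option linter.unusedSectionVars false
set_option linter.unusedVariables false

open Filter Topology

namespace Crest.Agent.R136.LfW619

open Finset Crest.Agent.R136.NetW191 Crest.Agent.R136.Net191 Crest.Agent.R136.Qg926
open Crest.Agent.R136.EvW938 Crest.Agent.R136.RowW619 Crest.Agent.R136.Lf400
open Crest.Agent.R138.Ex926 (Base U)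
open Crest.Agent.R136.Gf356

/-! ### the abstract form -/

section abs

variable {κ : Type} [DecidableEq κ] {B : Base} {G : ℕ → RCfg κ} {Leg : Set (κ → ℝ)}
  {ν : (κ → ℝ) → ℝ} {D : ℝ}

/-- legality of the boxes of a leaf link -/
structure LeafLeg (Leg : Set (κ → ℝ)) (b : κ → ℝ) (sX sF sN : κ) (x j : ℝ) : Prop where
  h0 : bx b sX sF sN 0 0 0 ∈ Leg
  hL : bx b sX sF sN 0 x x ∈ Leg
  hQ' : bx b sX sF sN x x x ∈ Leg
  hQ : bx b sX sF sN x 0 x ∈ Leg
  hjj : bx b sX sF sN 0 j j ∈ Leg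
  hQj : bx b sX sF sN x j x ∈ Leg
  hR : bx b sX sF sN (x - j) x x ∈ Leg

theorem leafN_of {b : κ → ℝ} {sX sF sN : κ} {x j : ℝ}
    (hor : ν (bx b sX sF sN 0 x x) - ν (bx b sX sF sN x x x) + ν (bx b sX sF sN x 0 x) ≤
        x + ν (bx b sX sF sN x j x) ∨
      ν (bx b sX sF sN 0 x x) - ν (bx b sX sF sN x x x) + ν (bx b sX sF sN x 0 x) ≤
        ν (bx b sX sF sN 0 0 0) - ν (bx b sX sF sN 0 x x) + ν (bx b sX sF sN (x - j) x x))
    (hXf : x ≤ ν (bx b sX sF sN 0 x x) - ν (bx b sX sF sN x x x))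
    (hXj : ν (bx b sX sF sN (x - j) x x) - ν (bx b sX sF sN x x x) ≤ j)
    (hF : ν (bx b sX sF sN x j x) < ν (bx b sX sF sN x 0 x)) :
    2 * x - j ≤ ν (bx b sX sF sN 0 0 0) - ν (bx b sX sF sN x 0 x) := by
  rcases hor with h | h
  · exfalso; linarith
  · linarith

end abs

/-! ### composition at one height -/

variable {ι : ℕ → Type*} [∀ n, DecidableEq (ι n)] {W : Wnd 18 ι} {κ : ℕ → ℝ}
  {lam : ℕ → Fin 18 → ℝ}
  {f : ∀ n, ι n → FW}

theorem tmN_congr {n : ℕ} {q : Fin 14} {b b' c c' : Fin 18 → ℝ} {t : Tm}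
    (h : ∀ s ∈ t.idx, mix b c s = mix b' c' s) :
    tmN W κ lam n q b c t = tmN W κ lam n q b' c' t := by
  unfold tmN
  rw [mix_prod, mix_prod, List.map_congr_left h]

theorem live_congr {n : ℕ} {q : Fin 14} {N : Finset (Fin 18)} {b b' c c' : Fin 18 → ℝ}
    (h : ∀ s, s ∉ N → mix b c s = mix b' c' s) :
    ((live N q).map (tmN W κ lam n q b c)).sum = ((live N q).map (tmN W κ lam n q b' c')).sum := by
  congr 1
  refine List.map_congr_left fun t ht => ?_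
  unfold live at ht
  have h1 := (List.mem_filter.1 ht).2
  exact tmN_congr fun s hs => h s (of_decide_eq_true h1 s hs)

section comp

variable (h : WWnd W κ lam f)

include h

/-- **composition of a flag slot at one height, only live monomials** -/
theorem comp_live {n : ℕ} (g : W.Good n) {E : Finset (ι n)} (hE : E ⊆ W.Cl n) {i l l' k : ℕ}
    (hi : (i, k) ∈ (W.cfg0 n E).I) (hl : (l, k) ∈ (W.cfg0 n E).I) (hl' : (l', k) ∈ (W.cfg0 n E).I)
    {q : Fin 14} (hq : Fin.natAdd 4 q ∉ W.S) {N : Finset (Fin 18)} (hN : W.S ⊆ N) {t η : ℝ}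
    (ht : ∀ s ∈ W.S, t ≤ W.top s) (htη : MW W * W.B'.d n ^ t ≤ η)
    (hb : ∀ s ∈ N, s ∉ W.S → |(W.cfg0 n E).rel k i l s| ≤ η)
    (hc : ∀ s ∈ N, s ∉ W.S → |(W.cfg0 n E).rel k l l' s| ≤ η) :
    |(W.cfg0 n E).rel k i l' (Fin.natAdd 4 q) - (W.cfg0 n E).rel k i l (Fin.natAdd 4 q) -
      (W.cfg0 n E).rel k l l' (Fin.natAdd 4 q) -
      ((live N q).map (tmN W κ lam n q ((W.cfg0 n E).rel k i l) ((W.cfg0 n E).rel k l l'))).sum| ≤
      67 * (CfW W * (MW W ^ 6 * η)) := by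
  obtain ⟨a1, a2, a3⟩ := Wnd.rep_of_mem hE hi
  obtain ⟨b1, b2, b3⟩ := Wnd.rep_of_mem hE hl
  obtain ⟨c1, c2, c3⟩ := Wnd.rep_of_mem hE hl'
  have hM := (MW_le h).1
  have hη : 0 ≤ η := le_trans (mul_nonneg (by linarith) (Real.rpow_nonneg (W.B'.pos n).le _)) htη
  have e1 := comp_flag h g a1 b1 c1 q
  have hbN : ∀ s ∈ N, |W.crd n (W.rep n i k) (W.rep n l k) s| ≤ η := by
    intro s hs
    by_cases hsS : s ∈ W.S
    · exact (lev_MW h g a1 b1 (a3.trans b3.symm) hsS (ht s hsS)).trans htη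
    · have := hb s hs hsS
      rwa [h.rel_eq i l k hsS] at this
  have hcN : ∀ s ∈ N, |W.crd n (W.rep n l k) (W.rep n l' k) s| ≤ η := by
    intro s hs
    by_cases hsS : s ∈ W.S
    · exact (lev_MW h g b1 c1 (b3.trans c3.symm) hsS (ht s hsS)).trans htη
    · have := hc s hs hsS
      rwa [h.rel_eq l l' k hsS] at this
  have key := row_live h q N (b := W.crd n (W.rep n i k) (W.rep n l k))
    (c := W.crd n (W.rep n l k) (W.rep n l' k)) hM hη (by linarith [(CfW_le h).1])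
    (fun t ht => cfl_CfW h g ht) (fun i => crd_MW h g b1 c1 _) (fun q => crd_MW h g a1 b1 _)
    (fun i hi => hcN _ hi) (fun q hq => hbN _ hq)
  have e2 : ((live N q).map (tmN W κ lam n q (W.crd n (W.rep n i k) (W.rep n l k))
      (W.crd n (W.rep n l k) (W.rep n l' k)))).sum =
      ((live N q).map (tmN W κ lam n q ((W.cfg0 n E).rel k i l)
        ((W.cfg0 n E).rel k l l'))).sum := by
    refine live_congr fun s hs => ?_
    have hsS : s ∉ W.S := fun hm => hs (hN hm)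
    clear hs
    revert hsS
    refine Fin.addCases (m := 4) (n := 14) (fun a ha => ?_) (fun q' hq' => ?_) s
    · rw [mix_left, mix_left, h.rel_eq l l' k ha]
    · rw [mix_right, mix_right, h.rel_eq i l k hq']
  rw [e2] at key
  rw [h.rel_eq i l' k hq, h.rel_eq i l k hq, h.rel_eq l l' k hq, e1]
  refine le_trans (le_of_eq ?_) key
  congr 1
  ring

/-- composition of the slot `A` at one height -/
theorem comp_two {n : ℕ} (g : W.Good n) {E : Finset (ι n)} (hE : E ⊆ W.Cl n) {i l l' k : ℕ}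
    (hi : (i, k) ∈ (W.cfg0 n E).I) (hl : (l, k) ∈ (W.cfg0 n E).I) (hl' : (l', k) ∈ (W.cfg0 n E).I)
    {t : ℝ} (ht : t ≤ W.top 0) :
    |(W.cfg0 n E).rel k i l' 2 - (W.cfg0 n E).rel k i l 2 - (W.cfg0 n E).rel k l l' 2| ≤
      CfW W * (MW W * (MW W * W.B'.d n ^ t)) := by
  obtain ⟨a1, a2, a3⟩ := Wnd.rep_of_mem hE hi
  obtain ⟨b1, b2, b3⟩ := Wnd.rep_of_mem hE hl
  obtain ⟨c1, c2, c3⟩ := Wnd.rep_of_mem hE hl'
  have e1 := comp2 h g a1 b1 c1
  have hM := (MW_le h).1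
  have hC := (CfW_le h).1
  have h0 := lev_MW h g b1 c1 (b3.trans c3.symm) h.h0 ht
  have h1 := crd_MW h g a1 b1 1
  have hcf := cfl2_CfW h g
  have hcf0 := (h.cfl_pos n [1, 0] 2).le
  rw [h.rel_eq i l' k h.n2, h.rel_eq i l k h.n2, h.rel_eq l l' k h.n2, e1]
  have e2 : W.crd n (W.rep n i k) (W.rep n l k) 2 + W.crd n (W.rep n l k) (W.rep n l' k) 2 +
      cfl W lam n [1, 0] 2 * (W.crd n (W.rep n i k) (W.rep n l k) 1 *
        W.crd n (W.rep n l k) (W.rep n l' k) 0) - W.crd n (W.rep n i k) (W.rep n l k) 2 -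
      W.crd n (W.rep n l k) (W.rep n l' k) 2 = cfl W lam n [1, 0] 2 *
        (W.crd n (W.rep n i k) (W.rep n l k) 1 * W.crd n (W.rep n l k) (W.rep n l' k) 0) := by ring
  rw [e2, abs_mul, abs_mul, abs_of_nonneg hcf0]
  exact mul_le_mul hcf (mul_le_mul h1 h0 (abs_nonneg _) (by linarith))
    (mul_nonneg (abs_nonneg _) (abs_nonneg _)) (by linarith)

/-- composition of the slot `B` at one height, `c` or `A` narrow -/
theorem comp_three {n : ℕ} (g : W.Good n) {E : Finset (ι n)} (hE : E ⊆ W.Cl n) {i l l' k : ℕ}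
    (hi : (i, k) ∈ (W.cfg0 n E).I) (hl : (l, k) ∈ (W.cfg0 n E).I) (hl' : (l', k) ∈ (W.cfg0 n E).I)
    {t η : ℝ} (ht : t ≤ W.top 0) (htη : MW W * W.B'.d n ^ t ≤ η)
    (hn : |(W.cfg0 n E).rel k i l 1| ≤ η ∨ |(W.cfg0 n E).rel k l l' 2| ≤ η) :
    |(W.cfg0 n E).rel k i l' 3 - (W.cfg0 n E).rel k i l 3 - (W.cfg0 n E).rel k l l' 3| ≤
      3 * (CfW W * (MW W ^ 2 * η)) := by
  obtain ⟨a1, a2, a3⟩ := Wnd.rep_of_mem hE hi
  obtain ⟨b1, b2, b3⟩ := Wnd.rep_of_mem hE hl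
  obtain ⟨c1, c2, c3⟩ := Wnd.rep_of_mem hE hl'
  have e1 := comp3 h g a1 b1 c1
  have hM := (MW_le h).1
  have hC := (CfW_le h).1
  have hη : 0 ≤ η := le_trans (mul_nonneg (by linarith) (Real.rpow_nonneg (W.B'.pos n).le _)) htη
  have h0 := (lev_MW h g b1 c1 (b3.trans c3.symm) h.h0 ht).trans htη
  have h1 := crd_MW h g a1 b1 1
  have h2 := crd_MW h g b1 c1 2
  have hcf := cfl3_CfW h g
  have hcf0 := (h.cfl_pos n [1, 2] 3).le
  have hcf' := cfl3'_CfW h g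
  have hcf0' := (h.cfl_pos n [1, 1, 0] 3).le
  have hk := h.hκ n
  rw [h.rel_eq i l k h.n1, h.rel_eq l l' k h.n2] at hn
  rw [h.rel_eq i l' k h.n3, h.rel_eq i l k h.n3, h.rel_eq l l' k h.n3, e1]
  set b1' := W.crd n (W.rep n i k) (W.rep n l k) 1 with hb1'
  set c2' := W.crd n (W.rep n l k) (W.rep n l' k) 2 with hc2'
  set c0' := W.crd n (W.rep n l k) (W.rep n l' k) 0 with hc0'
  have e2 : W.crd n (W.rep n i k) (W.rep n l k) 3 + W.crd n (W.rep n l k) (W.rep n l' k) 3 -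
      2 * κ n * cfl W lam n [1, 2] 3 * (b1' * c2') -
      κ n * cfl W lam n [1, 1, 0] 3 * (b1' ^ 2 * c0') - W.crd n (W.rep n i k) (W.rep n l k) 3 -
      W.crd n (W.rep n l k) (W.rep n l' k) 3 =
      -(2 * (κ n * (cfl W lam n [1, 2] 3 * (b1' * c2'))) +
      κ n * (cfl W lam n [1, 1, 0] 3 * (b1' ^ 2 * c0'))) := by ring
  have p1 : |b1' * c2'| ≤ MW W * η := by
    rw [abs_mul]
    rcases hn with hn | hn
    · rw [mul_comm]
      exact mul_le_mul h2 hn (abs_nonneg _) (by linarith)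
    · exact mul_le_mul h1 hn (abs_nonneg _) (by linarith)
  have p2 : |b1' ^ 2 * c0'| ≤ MW W ^ 2 * η := by
    rw [abs_mul, abs_pow]
    exact mul_le_mul (pow_le_pow_left₀ (abs_nonneg _) h1 2) h0 (abs_nonneg _) (by positivity)
  have p1' : MW W * η ≤ MW W ^ 2 * η := mul_le_mul_of_nonneg_right (by nlinarith) hη
  have q1 : |κ n * (cfl W lam n [1, 2] 3 * (b1' * c2'))| ≤ CfW W * (MW W ^ 2 * η) := by
    rw [abs_mul, abs_mul, abs_of_nonneg hcf0]
    calc |κ n| * (cfl W lam n [1, 2] 3 * |b1' * c2'|) ≤ 1 * (CfW W * (MW W ^ 2 * η)) :=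
          mul_le_mul hk (mul_le_mul hcf (p1.trans p1') (abs_nonneg _) (by linarith))
            (mul_nonneg hcf0 (abs_nonneg _)) zero_le_one
      _ = _ := one_mul _
  have q2 : |κ n * (cfl W lam n [1, 1, 0] 3 * (b1' ^ 2 * c0'))| ≤ CfW W * (MW W ^ 2 * η) := by
    rw [abs_mul, abs_mul, abs_of_nonneg hcf0']
    calc |κ n| * (cfl W lam n [1, 1, 0] 3 * |b1' ^ 2 * c0'|) ≤ 1 * (CfW W * (MW W ^ 2 * η)) :=
          mul_le_mul hk (mul_le_mul hcf' p2 (abs_nonneg _) (by linarith))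
            (mul_nonneg hcf0' (abs_nonneg _)) zero_le_one
      _ = _ := one_mul _
  rw [e2, abs_neg]
  refine (abs_add_le _ _).trans ?_
  rw [abs_mul, abs_two]
  linarith

end comp

/-! ### leaf links -/

/-- **data of a leaf link** (decidable): narrow slots `N ⊇ S`, the only live monomial of the flag
slot `q` is `m κ^e · X · F` -/
structure LeafDat (S N : Finset (Fin 18)) (X : Fin 4) (F q : Fin 14) (m : ℤ) (e : ℕ) : Prop where
  hS : S ⊆ N
  h0 : (0 : Fin 18) ∈ S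
  lv : live N q = [⟨m, e, [X], F⟩]
  hX : X = 2 ∨ X = 3 ∧ ((1 : Fin 18) ∈ N ∨ (2 : Fin 18) ∈ N)
  hq : Fin.natAdd 4 q ∉ N

instance (S N : Finset (Fin 18)) (X : Fin 4) (F q : Fin 14) (m : ℤ) (e : ℕ) :
    Decidable (LeafDat S N X F q m e) :=
  decidable_of_iff (S ⊆ N ∧ (0 : Fin 18) ∈ S ∧ live N q = [⟨m, e, [X], F⟩] ∧
    (X = 2 ∨ X = 3 ∧ ((1 : Fin 18) ∈ N ∨ (2 : Fin 18) ∈ N)) ∧ Fin.natAdd 4 q ∉ N)
    ⟨fun ⟨a, b, c, d, e⟩ => ⟨a, b, c, d, e⟩, fun ⟨a, b, c, d, e⟩ => ⟨a, b, c, d, e⟩⟩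

/-- the coefficient of a leaf link -/
noncomputable def cLf (W : Wnd 18 ι) (κ : ℕ → ℝ) (lam : ℕ → Fin 18 → ℝ) (X : Fin 4) (F q : Fin 14) (m : ℤ) (e : ℕ)
    (n : ℕ) : ℝ :=
  (m : ℝ) * κ n ^ e * cfl W lam n [Fin.castAdd 14 X, Fin.natAdd 4 F] (Fin.natAdd 4 q)

theorem LeafDat.mem {S N : Finset (Fin 18)} {X : Fin 4} {F q : Fin 14} {m : ℤ} {e : ℕ}
    (hd : LeafDat S N X F q m e) : (⟨m, e, [X], F⟩ : Tm) ∈ tms q ∧ Fin.castAdd 14 X ∉ N ∧
      Fin.natAdd 4 F ∉ N := by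
  have h1 : (⟨m, e, [X], F⟩ : Tm) ∈ live N q := by
    rw [hd.lv]
    exact List.mem_singleton.2 rfl
  unfold live at h1
  obtain ⟨h2, h3⟩ := List.mem_filter.1 h1
  have h4 := of_decide_eq_true h3
  exact ⟨h2, h4 _ (by simp [Tm.idx]), h4 _ (by simp [Tm.idx])⟩

theorem LeafDat.wall {S N : Finset (Fin 18)} {X : Fin 4} {F q : Fin 14} {m : ℤ} {e : ℕ}
    (hd : LeafDat S N X F q m e) :
    ([Fin.castAdd 14 X, Fin.natAdd 4 F] : List (Fin 18)) ∈ mlW (Fin.natAdd 4 q) := by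
  rw [mlW_right]
  exact List.mem_map.2 ⟨_, hd.mem.1, rfl⟩

theorem LeafDat.lt {S N : Finset (Fin 18)} {X : Fin 4} {F q : Fin 14} {m : ℤ} {e : ℕ}
    (hd : LeafDat S N X F q m e) : Fin.natAdd 4 F < (Fin.natAdd 4 q : Fin 18) :=
  mlW_low _ _ hd.wall _ (by simp)

/-- **the coefficient is `ρ^o(1)`** at a tight wall -/
theorem cLf_ok (h : WWnd W κ lam f) {N : Finset (Fin 18)} {X : Fin 4} {F q : Fin 14} {m : ℤ}
    {e : ℕ} (hd : LeafDat W.S N X F q m e) (hm : m ≠ 0)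
    (hk : e ≠ 0 → ∀ ε : ℝ, 0 < ε → ∀ᶠ n in (U : Filter ℕ), W.B'.d n ^ ε ≤ |κ n|)
    (ht : ∀ᶠ n in (U : Filter ℕ), W.X n (Fin.natAdd 4 q) =
      W.X n (Fin.castAdd 14 X) + W.X n (Fin.natAdd 4 F)) :
    ∀ ε : ℝ, 0 < ε → ∀ᶠ n in (U : Filter ℕ), W.B'.d n ^ ε ≤ |cLf W κ lam X F q m e n| ∧
      |cLf W κ lam X F q m e n| ≤ W.B'.d n ^ (-ε) := by
  intro ε hε
  set k0 : ℝ := (([Fin.castAdd 14 X, Fin.natAdd 4 F] : List (Fin 18)).map W.kap).prod /
    W.kap (Fin.natAdd 4 q) with hk0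
  have hk0p : 0 < k0 := div_pos (kprod_pos h _) (h.ok.kap _)
  have hm1 : (1 : ℝ) ≤ |(m : ℝ)| := by
    rw [← Int.cast_abs]
    exact_mod_cast Int.one_le_abs hm
  have hκe : ∀ᶠ n in (U : Filter ℕ), W.B'.d n ^ (ε / 2) ≤ |κ n ^ e| := by
    by_cases he : e = 0
    · subst he
      refine Eventually.of_forall fun n => ?_
      rw [pow_zero, abs_one]
      exact Real.rpow_le_one (W.B'.pos n).le (W.B'.lt n).le (by positivity)
    · have he' : (0 : ℝ) < e := by exact_mod_cast Nat.pos_of_ne_zero he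
      filter_upwards [hk he (ε / 2 / e) (by positivity)] with n hn
      rw [abs_pow]
      calc W.B'.d n ^ (ε / 2) = (W.B'.d n ^ (ε / 2 / e)) ^ e := by
            rw [← Real.rpow_natCast, ← Real.rpow_mul (W.B'.pos n).le]
            congr 1
            field_simp
        _ ≤ |κ n| ^ e := pow_le_pow_left₀ (Real.rpow_nonneg (W.B'.pos n).le _) hn e
  filter_upwards [ht, hκe, ev_const_le W.B' (show 0 < ε / 2 by positivity) (1 / k0),
    ev_const_le W.B' hε (|(m : ℝ)| * k0)] with n htn hκn h1 h2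
  have hcf : cfl W lam n [Fin.castAdd 14 X, Fin.natAdd 4 F] (Fin.natAdd 4 q) = k0 := by
    refine h.cfl_eq hd.wall ?_
    rw [htn]
    simp
  have hpos : ∀ t : ℝ, 0 < W.B'.d n ^ t := fun t => Real.rpow_pos_of_pos (W.B'.pos n) _
  unfold cLf
  rw [hcf, abs_mul, abs_mul, abs_of_pos hk0p]
  constructor
  · have e1 : W.B'.d n ^ (ε / 2) ≤ k0 := by
      have e2 : W.B'.d n ^ (ε / 2) * W.B'.d n ^ (-(ε / 2)) = 1 := by
        rw [← Real.rpow_add (W.B'.pos n), add_neg_cancel, Real.rpow_zero]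
      have e3 : 1 / k0 * k0 = 1 := by field_simp
      have e4 := mul_le_mul_of_nonneg_left h1 (hpos (ε / 2)).le
      rw [e2] at e4
      have e5 := mul_le_mul_of_nonneg_right e4 hk0p.le
      calc W.B'.d n ^ (ε / 2) = W.B'.d n ^ (ε / 2) * (1 / k0) * k0 := by
            rw [mul_assoc, e3, mul_one]
        _ ≤ 1 * k0 := e5
        _ = k0 := one_mul _
    calc W.B'.d n ^ ε = 1 * W.B'.d n ^ (ε / 2) * W.B'.d n ^ (ε / 2) := by
          rw [one_mul, ← Real.rpow_add (W.B'.pos n)]; congr 1; ring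
      _ ≤ |(m : ℝ)| * |κ n ^ e| * k0 :=
          mul_le_mul (mul_le_mul hm1 hκn (hpos _).le (abs_nonneg _)) e1 (hpos _).le
            (mul_nonneg (abs_nonneg _) (abs_nonneg _))
  · have hk1 : |κ n ^ e| ≤ 1 := by
      rw [abs_pow]
      exact pow_le_one₀ (abs_nonneg _) (h.hκ n)
    calc |(m : ℝ)| * |κ n ^ e| * k0 ≤ |(m : ℝ)| * 1 * k0 := by
          refine mul_le_mul_of_nonneg_right ?_ hk0p.le
          exact mul_le_mul_of_nonneg_left hk1 (abs_nonneg _)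
      _ = |(m : ℝ)| * k0 := by ring
      _ ≤ _ := h2

section leaf

variable (h : WWnd W κ lam f)

include h

/-- the narrow slots of two lines of a box -/
theorem narrow_two {E : ∀ n, Finset (ι n)} {Leg : Set (Fin 18 → ℝ)} {ν : (Fin 18 → ℝ) → ℝ}
    {D : ℝ} (H : RUnif W.B' (W.cfg E) Leg ν D) {p : Fin 18 → ℝ} (hp : p ∈ Leg) {ε : ℝ}
    (hε : 0 < ε) : ∀ᶠ n in (U : Filter ℕ), ∀ k i l l', (i, k) ∈ (W.cfg E n).I →
      (l, k) ∈ (W.cfg E n).I → (l', k) ∈ (W.cfg E n).I → (W.cfg E n).loose p ε k i l →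
      (W.cfg E n).loose p ε k i l' →
      (∀ s, |(W.cfg E n).rel k i l s| ≤ W.B'.d n ^ (p s - D ^ 2 * ε)) ∧
      (∀ s, |(W.cfg E n).rel k l l' s| ≤ W.B'.d n ^ (p s - D ^ 2 * ε)) := by
  have hD := H.D1
  have hDε : 0 < D * ε := by positivity
  filter_upwards [H.symm p hp ε hε, H.tri p hp (D * ε) hDε] with n gs gt k i l l' hi hl hl' h1 h2
  have a1 := gs k i l hi hl h1
  have a2 : (W.cfg E n).loose p (D * ε) k i l' := H.loose_mono (fun _ => le_rfl) (by nlinarith) h2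
  have a3 := gt k l i l' hl hi hl' a1 a2
  have e1 : D * (D * ε) = D ^ 2 * ε := by ring
  rw [e1] at a3
  have hD2 : 1 ≤ D ^ 2 := one_le_pow₀ hD
  have a4 : (W.cfg E n).loose p (D ^ 2 * ε) k i l :=
    H.loose_mono (fun _ => le_rfl) (by nlinarith) h1
  refine ⟨fun s => ?_, fun s => ?_⟩
  · have := a4 s
    rwa [H.base n] at this
  · have := a3 s
    rwa [H.base n] at this

set_option maxHeartbeats 1000000 in
/-- **the leaf link, 400's form** -/
theorem leafW {E : ∀ n, Finset (ι n)} (hE : EvG W E) {Leg : Set (Fin 18 → ℝ)}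
    {ν : (Fin 18 → ℝ) → ℝ} {D : ℝ} (H : RUnif W.B' (W.cfg E) Leg ν D) {b : Fin 18 → ℝ}
    {N : Finset (Fin 18)} {X : Fin 4} {F q : Fin 14} {m : ℤ} {e : ℕ}
    (hd : LeafDat W.S N X F q m e) {x j : ℝ} (hj : 0 ≤ j) (hjx : j ≤ x)
    (htop : ∀ s ∈ W.S, x ≤ W.top s) (hb : ∀ s ∈ N, s ∉ W.S → x ≤ b s)
    (hcf : ∀ ε : ℝ, 0 < ε → ∀ᶠ n in (U : Filter ℕ), W.B'.d n ^ ε ≤ |cLf W κ lam X F q m e n| ∧
      |cLf W κ lam X F q m e n| ≤ W.B'.d n ^ (-ε))
    (hl : LeafLeg Leg b (Fin.castAdd 14 X) (Fin.natAdd 4 F) (Fin.natAdd 4 q) x j) :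
    ν (bx b (Fin.castAdd 14 X) (Fin.natAdd 4 F) (Fin.natAdd 4 q) 0 x x) -
        ν (bx b (Fin.castAdd 14 X) (Fin.natAdd 4 F) (Fin.natAdd 4 q) x x x) +
        ν (bx b (Fin.castAdd 14 X) (Fin.natAdd 4 F) (Fin.natAdd 4 q) x 0 x) ≤
        x + ν (bx b (Fin.castAdd 14 X) (Fin.natAdd 4 F) (Fin.natAdd 4 q) x j x) ∨
    ν (bx b (Fin.castAdd 14 X) (Fin.natAdd 4 F) (Fin.natAdd 4 q) 0 x x) -
        ν (bx b (Fin.castAdd 14 X) (Fin.natAdd 4 F) (Fin.natAdd 4 q) x x x) +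
        ν (bx b (Fin.castAdd 14 X) (Fin.natAdd 4 F) (Fin.natAdd 4 q) x 0 x) ≤
        ν (bx b (Fin.castAdd 14 X) (Fin.natAdd 4 F) (Fin.natAdd 4 q) 0 0 0) -
          ν (bx b (Fin.castAdd 14 X) (Fin.natAdd 4 F) (Fin.natAdd 4 q) 0 x x) +
          ν (bx b (Fin.castAdd 14 X) (Fin.natAdd 4 F) (Fin.natAdd 4 q) (x - j) x x) := by
  obtain ⟨hmem, hXN, hFN⟩ := hd.mem
  have hlt := hd.lt
  have hqS : Fin.natAdd 4 q ∉ W.S := fun hm => hd.hq (hd.hS hm)
  have hXS : Fin.castAdd 14 X ∉ W.S := fun hm => hXN (hd.hS hm)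
  have hFX : (Fin.natAdd 4 F : Fin 18) ≠ Fin.castAdd 14 X := by
    intro he
    have := congrArg Fin.val he
    simp only [Fin.val_natAdd, Fin.val_castAdd] at this
    omega
  have hNX : (Fin.natAdd 4 q : Fin 18) ≠ Fin.castAdd 14 X := by
    intro he
    have := congrArg Fin.val he
    simp only [Fin.val_natAdd, Fin.val_castAdd] at this
    omega
  have hNF : (Fin.natAdd 4 q : Fin 18) ≠ Fin.natAdd 4 F := hlt.ne'
  have hD := H.D1
  have hM := (MW_le h).1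
  have hC := (CfW_le h).1
  have hbp : ∀ s ∈ N, s ∉ W.S → x ≤ bx b (Fin.castAdd 14 X) (Fin.natAdd 4 F)
      (Fin.natAdd 4 q) 0 0 0 s := by
    intro s hs hsS
    have f1 : s ≠ Fin.castAdd 14 X := by rintro rfl; exact hXN hs
    have f2 : s ≠ Fin.natAdd 4 F := by rintro rfl; exact hFN hs
    have f3 : s ≠ Fin.natAdd 4 q := by rintro rfl; exact hd.hq hs
    rw [bx_o f1 f2 f3]
    exact hb s hs hsS
  refine leaf_R H b hFX hNX hNF hj hjx hl.h0 hl.hL hl.hQ' hl.hQ hl.hjj hl.hQj hl.hR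
    (cLf W κ lam X F q m e) hcf (C1 := D ^ 2 + 1) (by nlinarith) ?_ ?_
  · intro ε hε
    filter_upwards [hE, narrow_two h H hl.h0 hε,
      ev_const_le W.B' hε (3 * (CfW W * (MW W ^ 2 * MW W)))] with n hn hnar hk k i l l' hi hl1 hl2
      h1 h2
    obtain ⟨g, hsub, heq⟩ := hn
    obtain ⟨n1, n2⟩ := hnar k i l l' hi hl1 hl2 h1 h2
    rw [heq] at hi hl1 hl2 n1 n2 ⊢
    have hpos : ∀ t : ℝ, 0 < W.B'.d n ^ t := fun t => Real.rpow_pos_of_pos (W.B'.pos n) _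
    have anti : ∀ {s t : ℝ}, s ≤ t → W.B'.d n ^ t ≤ W.B'.d n ^ s := fun hst =>
      Real.rpow_le_rpow_of_exponent_ge (W.B'.pos n) (W.B'.lt n).le hst
    have hDε : 0 ≤ D ^ 2 * ε := by positivity
    have hfin : 3 * (CfW W * (MW W ^ 2 * (MW W * W.B'.d n ^ (x - D ^ 2 * ε)))) ≤
        W.B'.d n ^ (x - (D ^ 2 + 1) * ε) := by
      have := mul_le_mul_of_nonneg_right hk (hpos (x - D ^ 2 * ε)).le
      rw [← Real.rpow_add (W.B'.pos n)] at this
      have e1 : -ε + (x - D ^ 2 * ε) = x - (D ^ 2 + 1) * ε := by ring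
      rw [e1] at this
      refine le_trans (le_of_eq ?_) this
      ring
    rcases hd.hX with hX | ⟨hX, hX'⟩
    · subst hX
      refine (comp_two h g hsub hi hl1 hl2 (t := x) (htop 0 hd.h0)).trans (le_trans ?_ hfin)
      have a1 : W.B'.d n ^ x ≤ W.B'.d n ^ (x - D ^ 2 * ε) := anti (by linarith)
      have a2 := (hpos (x - D ^ 2 * ε)).le
      have a3 : MW W * W.B'.d n ^ x ≤ MW W * W.B'.d n ^ (x - D ^ 2 * ε) :=
        mul_le_mul_of_nonneg_left a1 (by linarith)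
      have a4 : MW W ≤ MW W ^ 2 := by nlinarith
      have a5 : MW W * (MW W * W.B'.d n ^ x) ≤ MW W ^ 2 * (MW W * W.B'.d n ^ (x - D ^ 2 * ε)) :=
        mul_le_mul a4 a3 (mul_nonneg (by linarith) (hpos _).le) (by positivity)
      have a6 := mul_le_mul_of_nonneg_left a5 (show 0 ≤ CfW W by linarith)
      have a7 : 0 ≤ CfW W * (MW W ^ 2 * (MW W * W.B'.d n ^ (x - D ^ 2 * ε))) := by
        have : 0 ≤ MW W := by linarith
        have : 0 ≤ CfW W := by linarith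
        positivity
      linarith
    · subst hX
      refine (comp_three h g hsub hi hl1 hl2 (t := x) (η := MW W * W.B'.d n ^ (x - D ^ 2 * ε))
        (htop 0 hd.h0) (mul_le_mul_of_nonneg_left (anti (by linarith)) (by linarith)) ?_).trans hfin
      have a2 := (hpos (x - D ^ 2 * ε)).le
      have a3 : W.B'.d n ^ (x - D ^ 2 * ε) ≤ MW W * W.B'.d n ^ (x - D ^ 2 * ε) := by nlinarith
      rcases hX' with hX' | hX'
      · left
        refine (n1 1).trans ((anti ?_).trans a3)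
        have := hbp 1 hX' h.n1
        linarith
      · right
        refine (n2 2).trans ((anti ?_).trans a3)
        have := hbp 2 hX' h.n2
        linarith
  · intro ε hε
    filter_upwards [hE, narrow_two h H hl.h0 hε,
      ev_const_le W.B' hε (67 * (CfW W * (MW W ^ 6 * MW W)))] with n hn hnar hk k i l l' hi hl1 hl2
      h1 h2
    obtain ⟨g, hsub, heq⟩ := hn
    obtain ⟨n1, n2⟩ := hnar k i l l' hi hl1 hl2 h1 h2
    rw [heq] at hi hl1 hl2 n1 n2 ⊢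
    have hpos : ∀ t : ℝ, 0 < W.B'.d n ^ t := fun t => Real.rpow_pos_of_pos (W.B'.pos n) _
    have anti : ∀ {s t : ℝ}, s ≤ t → W.B'.d n ^ t ≤ W.B'.d n ^ s := fun hst =>
      Real.rpow_le_rpow_of_exponent_ge (W.B'.pos n) (W.B'.lt n).le hst
    have hDε : 0 ≤ D ^ 2 * ε := by positivity
    have a2 := (hpos (x - D ^ 2 * ε)).le
    have a3 : W.B'.d n ^ (x - D ^ 2 * ε) ≤ MW W * W.B'.d n ^ (x - D ^ 2 * ε) := by nlinarith
    have hfin : 67 * (CfW W * (MW W ^ 6 * (MW W * W.B'.d n ^ (x - D ^ 2 * ε)))) ≤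
        W.B'.d n ^ (x - (D ^ 2 + 1) * ε) := by
      have := mul_le_mul_of_nonneg_right hk (hpos (x - D ^ 2 * ε)).le
      rw [← Real.rpow_add (W.B'.pos n)] at this
      have e1 : -ε + (x - D ^ 2 * ε) = x - (D ^ 2 + 1) * ε := by ring
      rw [e1] at this
      refine le_trans (le_of_eq ?_) this
      ring
    have key := comp_live h g hsub hi hl1 hl2 hqS hd.hS (t := x)
      (η := MW W * W.B'.d n ^ (x - D ^ 2 * ε)) htop
      (mul_le_mul_of_nonneg_left (anti (by linarith)) (by linarith))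
      (fun s hs hsS => (n1 s).trans ((anti (by have := hbp s hs hsS; linarith)).trans a3))
      (fun s hs hsS => (n2 s).trans ((anti (by have := hbp s hs hsS; linarith)).trans a3))
    refine le_trans (le_of_eq ?_) (key.trans hfin)
    congr 1
    rw [hd.lv]
    simp only [List.map_cons, List.map_nil, List.sum_cons, List.sum_nil, tmN, Tm.idx,
      List.prod_cons, List.prod_nil, cLf, List.cons_append, List.nil_append, mul_one, add_zero]
    ring

/-- **the leaf link, non-linear form** (851): `X` full, `F` costs something between `0` and `j`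
⊢ the box `X, N` narrow (`F` natural) costs `≥ 2 x - j`. -/
theorem leafW_loss {E : ∀ n, Finset (ι n)} (hE : EvG W E) {Leg : Set (Fin 18 → ℝ)}
    {ν : (Fin 18 → ℝ) → ℝ} {D : ℝ} (H : RUnif W.B' (W.cfg E) Leg ν D) {b : Fin 18 → ℝ}
    {N : Finset (Fin 18)} {X : Fin 4} {F q : Fin 14} {m : ℤ} {e : ℕ}
    (hd : LeafDat W.S N X F q m e) {x j : ℝ} (hj : 0 ≤ j) (hjx : j ≤ x)
    (htop : ∀ s ∈ W.S, x ≤ W.top s) (hb : ∀ s ∈ N, s ∉ W.S → x ≤ b s)
    (hcf : ∀ ε : ℝ, 0 < ε → ∀ᶠ n in (U : Filter ℕ), W.B'.d n ^ ε ≤ |cLf W κ lam X F q m e n| ∧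
      |cLf W κ lam X F q m e n| ≤ W.B'.d n ^ (-ε))
    (hl : LeafLeg Leg b (Fin.castAdd 14 X) (Fin.natAdd 4 F) (Fin.natAdd 4 q) x j)
    (hXf : x ≤ ν (bx b (Fin.castAdd 14 X) (Fin.natAdd 4 F) (Fin.natAdd 4 q) 0 x x) -
      ν (bx b (Fin.castAdd 14 X) (Fin.natAdd 4 F) (Fin.natAdd 4 q) x x x))
    (hXj : ν (bx b (Fin.castAdd 14 X) (Fin.natAdd 4 F) (Fin.natAdd 4 q) (x - j) x x) -
      ν (bx b (Fin.castAdd 14 X) (Fin.natAdd 4 F) (Fin.natAdd 4 q) x x x) ≤ j)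
    (hF : ν (bx b (Fin.castAdd 14 X) (Fin.natAdd 4 F) (Fin.natAdd 4 q) x j x) <
      ν (bx b (Fin.castAdd 14 X) (Fin.natAdd 4 F) (Fin.natAdd 4 q) x 0 x)) :
    2 * x - j ≤ ν (bx b (Fin.castAdd 14 X) (Fin.natAdd 4 F) (Fin.natAdd 4 q) 0 0 0) -
      ν (bx b (Fin.castAdd 14 X) (Fin.natAdd 4 F) (Fin.natAdd 4 q) x 0 x) :=
  leafN_of (leafW h hE H hd hj hjx htop hb hcf hl) hXf hXj hF

end leaf

end Crest.Agent.R136.LfW619
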