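import Crest.Agent.R136.RowX_619
import Crest.Agent.R136.LfW_619
import Crest.Agent.R136.HtG_887

/-!
# R136: base rows of the W-window (helper619): `A` full, `B` full

* `htA` : height link `c → A` (`A` at `k'` is `A + u c`), 887's `HtLink`; `baseA` : a loss of `c`
  gives `A` full.
* `baseB` : leaf at one height, lateral `A`, flag `c`, target `B` (`comp3`), any other narrow slots.
-/

set_option autoImplicit false
set_option linter.unusedSectionVars false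
set_option linter.unusedVariables false

open Filter Topology

namespace Crest.Agent.R136.BaseW619

open Finset Crest.Agent.R136.NetW191 Crest.Agent.R136.Net191 Crest.Agent.R136.Qg926
open Crest.Agent.R136.EvW938 Crest.Agent.R136.RowW619 Crest.Agent.R136.Lf400
open Crest.Agent.R136.LfW619 Crest.Agent.R136.Ht887
open Crest.Agent.R138.Ex926 (Base U)
open Crest.Agent.R136.Gf356

variable {ι : ℕ → Type*} [∀ n, DecidableEq (ι n)] {W : Wnd 18 ι} {κ : ℕ → ℝ}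
  {lam : ℕ → Fin 18 → ℝ} {f : ∀ n, ι n → FW}

section base

variable (h : WWnd W κ lam f)

include h

/-- a constant times a power -/
theorem const_pow (C : ℝ) {ε : ℝ} (hε : 0 < ε) (x : ℝ) :
    ∀ᶠ n in (U : Filter ℕ), C * W.B'.d n ^ x ≤ W.B'.d n ^ (x - ε) := by
  filter_upwards [ev_const_le W.B' hε C] with n hn
  have := mul_le_mul_of_nonneg_right hn (Real.rpow_pos_of_pos (W.B'.pos n) x).le
  rw [← Real.rpow_add (W.B'.pos n)] at this
  refine this.trans (le_of_eq ?_)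
  congr 1; ring

/-- heights are bounded -/
theorem z_le {n : ℕ} (g : W.Good n) {E : Finset (ι n)} (hE : E ⊆ W.Cl n) {k : ℕ}
    (hk : k ∈ (W.cfg0 n E).Z) : |(W.cfg0 n E).z k| ≤ MW W := by
  obtain ⟨x, hx, rfl⟩ := Finset.mem_image.1 hk
  exact crd_MW h g g.s0 (W.zrep_spec (hE hx)).1 _

/-- coefficient of a tight wall, `c` factor -/
theorem cf_ok {l : List (Fin 18)} {s : Fin 18} (hl : l ∈ mlW s)
    (ht : ∀ᶠ n in (U : Filter ℕ), W.X n s = (l.map (W.X n)).sum) :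
    ∀ ε : ℝ, 0 < ε → ∀ᶠ n in (U : Filter ℕ), W.B'.d n ^ ε ≤ |cfl W lam n l s| ∧
      |cfl W lam n l s| ≤ W.B'.d n ^ (-ε) := by
  intro ε hε
  set k0 : ℝ := (l.map W.kap).prod / W.kap s with hk0
  have hk0p : 0 < k0 := div_pos (kprod_pos h _) (h.ok.kap _)
  filter_upwards [ht, ev_const_le W.B' hε (1 / k0), ev_const_le W.B' hε k0] with n htn h1 h2
  rw [h.cfl_eq hl htn, abs_of_pos hk0p]
  refine ⟨?_, h2⟩
  have hpos : ∀ t : ℝ, 0 < W.B'.d n ^ t := fun t => Real.rpow_pos_of_pos (W.B'.pos n) _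
  have e2 : W.B'.d n ^ ε * W.B'.d n ^ (-ε) = 1 := by
    rw [← Real.rpow_add (W.B'.pos n), add_neg_cancel, Real.rpow_zero]
  have e3 : 1 / k0 * k0 = 1 := by field_simp
  have e4 := mul_le_mul_of_nonneg_left h1 (hpos ε).le
  rw [e2] at e4
  have e5 := mul_le_mul_of_nonneg_right e4 hk0p.le
  calc W.B'.d n ^ ε = W.B'.d n ^ ε * (1 / k0) * k0 := by
        rw [mul_assoc, e3, mul_one]
    _ ≤ 1 * k0 := e5
    _ = k0 := one_mul _

set_option maxHeartbeats 1000000 in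
/-- **the height link `c → A`** -/
theorem htA {E : ∀ n, Finset (ι n)} (hE : EvG W E) {x : ℝ} (hx : 0 ≤ x)
    (htop : ∀ s, x ≤ W.top s) {b : Fin 18 → ℝ} (hb : ∀ s, b s ≤ 0)
    (ht : ∀ᶠ n in (U : Filter ℕ), W.X n 2 = W.X n 1 + W.X n 0) :
    HtLink W.B' (W.cfg E) (b2 b 1 2 0 0) 1 2 x (fun n => cfl W lam n [1, 0] 2) 1 where
  C1_one := le_rfl
  hc := cf_ok h (by decide) (by
    filter_upwards [ht] with n hn
    rw [hn]; simp)
  hz := by
    intro ε hε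
    filter_upwards [hE, ev_const_le W.B' hε (2 * MW W)] with n hn h1 k hk k' hk'
    obtain ⟨g, hsub, heq⟩ := hn
    rw [heq] at hk hk' ⊢
    refine (abs_sub _ _).trans (le_trans ?_ h1)
    have := z_le h g hsub hk
    have := z_le h g hsub hk'
    linarith
  comp := by
    intro ε hε
    filter_upwards [hE, const_pow h (CfW W * (MW W * MW W)) hε x] with n hn h1 k i l l' hi hl hl' _ _
    obtain ⟨g, hsub, heq⟩ := hn
    rw [heq] at hi hl hl' ⊢
    rw [one_mul]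
    refine ⟨(comp_two h g hsub hi hl hl' (htop 0)).trans (le_trans (le_of_eq (by ring)) h1), ?_⟩
    obtain ⟨a1, a2, a3⟩ := Wnd.rep_of_mem hsub hi
    obtain ⟨b1, b2, b3⟩ := Wnd.rep_of_mem hsub hl
    obtain ⟨c1, c2, c3⟩ := Wnd.rep_of_mem hsub hl'
    rw [h.rel_eq i l' k h.n1, h.rel_eq i l k h.n1, h.rel_eq l l' k h.n1, comp1 h g a1 b1 c1]
    have e : W.crd n (W.rep n i k) (W.rep n l k) 1 + W.crd n (W.rep n l k) (W.rep n l' k) 1 -
        W.crd n (W.rep n i k) (W.rep n l k) 1 - W.crd n (W.rep n l k) (W.rep n l' k) 1 = 0 := by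
      ring
    rw [e, abs_zero]
    exact (Real.rpow_pos_of_pos (W.B'.pos n) _).le
  evo := by
    intro ε hε
    filter_upwards [hE, ev_const_le W.B' hε (MW W),
      const_pow h (CW W.K0 / W.kap 2 + CfW W * (2 * W.K0 / W.kap 0 * MW W)) hε x] with n hn h1 h2
      k k' i l hi hi' hl hl' _
    obtain ⟨g, hsub, heq⟩ := hn
    rw [heq] at hi hi' hl hl' ⊢
    rw [one_mul]
    have hρ : (W.cfg0 n (E n)).ρ = W.B'.d n := rfl
    refine ⟨fun s => ?_, ?_⟩
    · rw [hρ]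
      refine (rel_MW' h g hsub hi' hl' s).trans (h1.trans ?_)
      refine Real.rpow_le_rpow_of_exponent_ge (W.B'.pos n) (W.B'.lt n).le ?_
      have : b2 b 1 2 0 0 s ≤ 0 := by
        unfold b2
        split_ifs
        · exact le_rfl
        · exact le_rfl
        · exact hb s
      linarith
    · have e1 := h.evo_cfg g hsub hi hi' hl hl' htop 2 h.n2
      rw [h.evoC2] at e1
      have e2 := h.own_zero g hsub hi hi' (htop 0)
      have e3 := rel_MW' h g hsub hi hl 1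
      have e4 := cfl2_CfW h g
      have e5 := (h.cfl_pos n [1, 0] 2).le
      have hK := h.ok.K0_one
      have hk0 := h.ok.kap 0
      have hpos : 0 < W.B'.d n ^ x := Real.rpow_pos_of_pos (W.B'.pos n) _
      have e6 : |cfl W lam n [1, 0] 2 * ((ownC W n i k k' 0 -
          ((W.cfg0 n (E n)).z k' - (W.cfg0 n (E n)).z k)) * (W.cfg0 n (E n)).rel k i l 1)| ≤
          CfW W * (2 * W.K0 * W.B'.d n ^ x / W.kap 0 * MW W) := by
        rw [abs_mul, abs_mul, abs_of_nonneg e5]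
        exact mul_le_mul e4 (mul_le_mul e2 e3 (abs_nonneg _) (by positivity))
          (mul_nonneg (abs_nonneg _) (abs_nonneg _)) (by linarith [(CfW_le h).1])
      refine le_trans ?_ h2
      have e7 : (W.cfg0 n (E n)).rel k' i l 2 - (W.cfg0 n (E n)).rel k i l 2 -
          cfl W lam n [1, 0] 2 * ((W.cfg0 n (E n)).z k' - (W.cfg0 n (E n)).z k) *
            (W.cfg0 n (E n)).rel k i l 1 =
          ((W.cfg0 n (E n)).rel k' i l 2 - ((W.cfg0 n (E n)).rel k i l 2 +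
            cfl W lam n [1, 0] 2 * (ownC W n i k k' 0 * (W.cfg0 n (E n)).rel k i l 1))) +
          cfl W lam n [1, 0] 2 * ((ownC W n i k k' 0 -
          ((W.cfg0 n (E n)).z k' - (W.cfg0 n (E n)).z k)) * (W.cfg0 n (E n)).rel k i l 1) := by
        ring
      rw [e7]
      refine (abs_add_le _ _).trans ((add_le_add e1 e6).trans (le_of_eq ?_))
      ring

/-- **`A` is full** as soon as `c` costs something between `0` and `j` (given `A` narrow) -/
theorem baseA {E : ∀ n, Finset (ι n)} (hE : EvG W E) {Leg : Set (Fin 18 → ℝ)}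
    {ν : (Fin 18 → ℝ) → ℝ} {R D : ℝ} (H : RModel W.B' (W.cfg E) 1 R Leg ν D) {x j : ℝ}
    (hx : 0 < x) (hxR : x ≤ R) (hj : 0 ≤ j) (hjx : j ≤ x) (htop : ∀ s, x ≤ W.top s)
    {b : Fin 18 → ℝ} (hb : ∀ s, b s ≤ 0)
    (ht : ∀ᶠ n in (U : Filter ℕ), W.X n 2 = W.X n 1 + W.X n 0)
    (hdx : ∀ t : ℝ, 0 ≤ t → t ≤ x → b2 b 1 2 t x ∈ Leg)
    (hdiag : ∀ t : ℝ, 0 ≤ t → t ≤ x → b2 b 1 2 t t ∈ Leg)
    (hpos : ν (b2 b 1 2 j x) < ν (b2 b 1 2 0 x)) :
    x - j ≤ ν (b2 b 1 2 0 0) - ν (b2 b 1 2 0 x) :=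
  height_pos_R H b (by decide) hx hxR hj hjx hdx hdiag (htA h hE hx.le htop hb ht) hpos

set_option maxHeartbeats 1000000 in
/-- **the leaf `(A, c) → B`**, 400's disjunction -/
theorem leafB {E : ∀ n, Finset (ι n)} (hE : EvG W E) {Leg : Set (Fin 18 → ℝ)}
    {ν : (Fin 18 → ℝ) → ℝ} {D : ℝ} (H : RUnif W.B' (W.cfg E) Leg ν D) (b : Fin 18 → ℝ)
    {x j : ℝ} (hj : 0 ≤ j) (hjx : j ≤ x) (htop : x ≤ W.top 0)
    (hk : ∀ ε : ℝ, 0 < ε → ∀ᶠ n in (U : Filter ℕ), W.B'.d n ^ ε ≤ |κ n|)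
    (ht : ∀ᶠ n in (U : Filter ℕ), W.X n 3 = W.X n 1 + W.X n 2)
    (hl : LeafLeg Leg b 2 1 3 x j) :
    ν (bx b 2 1 3 0 x x) - ν (bx b 2 1 3 x x x) + ν (bx b 2 1 3 x 0 x) ≤
        x + ν (bx b 2 1 3 x j x) ∨
    ν (bx b 2 1 3 0 x x) - ν (bx b 2 1 3 x x x) + ν (bx b 2 1 3 x 0 x) ≤
        ν (bx b 2 1 3 0 0 0) - ν (bx b 2 1 3 0 x x) + ν (bx b 2 1 3 (x - j) x x) := by
  have hD := H.D1
  have hM := (MW_le h).1
  have hC := (CfW_le h).1
  refine leaf_R H b (by decide) (by decide) (by decide) hj hjx hl.h0 hl.hL hl.hQ' hl.hQ hl.hjj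
    hl.hQj hl.hR (fun n => -(2 * κ n * cfl W lam n [1, 2] 3)) ?_ (C1 := D ^ 2 + 1)
    (by nlinarith) ?_ ?_
  · intro ε hε
    filter_upwards [hk (ε / 2) (by positivity), cf_ok h (l := [1, 2]) (s := 3) (by decide) (by
      filter_upwards [ht] with n hn
      rw [hn]; simp) (ε / 2) (by positivity), ev_const_le W.B' (show 0 < ε / 2 by positivity) 2]
      with n h1 h2 h3
    have hpos : ∀ t : ℝ, 0 < W.B'.d n ^ t := fun t => Real.rpow_pos_of_pos (W.B'.pos n) _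
    rw [abs_neg, abs_mul, abs_mul, abs_two]
    constructor
    · calc W.B'.d n ^ ε = W.B'.d n ^ (ε / 2) * W.B'.d n ^ (ε / 2) := by
            rw [← Real.rpow_add (W.B'.pos n)]; congr 1; ring
        _ ≤ (2 * |κ n|) * |cfl W lam n [1, 2] 3| := by
            refine mul_le_mul ?_ h2.1 (hpos _).le (by positivity)
            have := abs_nonneg (κ n)
            linarith
    · calc 2 * |κ n| * |cfl W lam n [1, 2] 3| ≤ 2 * 1 * W.B'.d n ^ (-(ε / 2)) :=
            mul_le_mul (by linarith [h.hκ n]) h2.2 (abs_nonneg _) (by norm_num)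
        _ = 2 * W.B'.d n ^ (-(ε / 2)) := by ring
        _ ≤ W.B'.d n ^ (-(ε / 2)) * W.B'.d n ^ (-(ε / 2)) :=
            mul_le_mul_of_nonneg_right h3 (hpos _).le
        _ = W.B'.d n ^ (-ε) := by
            rw [← Real.rpow_add (W.B'.pos n)]; congr 1; ring
  · intro ε hε
    filter_upwards [hE, const_pow h (CfW W * (MW W * MW W)) hε x] with n hn h1 k i l l' hi hl1 hl2
      _ _
    obtain ⟨g, hsub, heq⟩ := hn
    rw [heq] at hi hl1 hl2 ⊢
    refine (comp_two h g hsub hi hl1 hl2 htop).trans ((le_of_eq (by ring)).trans (h1.trans ?_))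
    refine Real.rpow_le_rpow_of_exponent_ge (W.B'.pos n) (W.B'.lt n).le ?_
    nlinarith [mul_nonneg (sq_nonneg D) hε.le]
  · intro ε hε
    filter_upwards [hE, const_pow h (CfW W * (MW W ^ 2 * MW W)) hε x] with n hn h1 k i l l' hi hl1
      hl2 _ _
    obtain ⟨g, hsub, heq⟩ := hn
    rw [heq] at hi hl1 hl2 ⊢
    obtain ⟨a1, a2, a3⟩ := Wnd.rep_of_mem hsub hi
    obtain ⟨b1, b2, b3⟩ := Wnd.rep_of_mem hsub hl1
    obtain ⟨c1, c2, c3⟩ := Wnd.rep_of_mem hsub hl2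
    have e1 := comp3 h g a1 b1 c1
    have h0 := lev_MW h g b1 c1 (b3.trans c3.symm) h.h0 htop
    have hb1 := crd_MW h g a1 b1 1
    have hcf' := cfl3'_CfW h g
    have hcf0' := (h.cfl_pos n [1, 1, 0] 3).le
    have hpos : 0 < W.B'.d n ^ x := Real.rpow_pos_of_pos (W.B'.pos n) _
    rw [h.rel_eq i l' k h.n3, h.rel_eq i l k h.n3, h.rel_eq l l' k h.n3, h.rel_eq i l k h.n1,
      h.rel_eq l l' k h.n2, e1]
    have e2 : W.crd n (W.rep n i k) (W.rep n l k) 3 + W.crd n (W.rep n l k) (W.rep n l' k) 3 -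
      2 * κ n * cfl W lam n [1, 2] 3 * (W.crd n (W.rep n i k) (W.rep n l k) 1 *
        W.crd n (W.rep n l k) (W.rep n l' k) 2) -
      κ n * cfl W lam n [1, 1, 0] 3 * (W.crd n (W.rep n i k) (W.rep n l k) 1 ^ 2 *
        W.crd n (W.rep n l k) (W.rep n l' k) 0) - W.crd n (W.rep n i k) (W.rep n l k) 3 -
      W.crd n (W.rep n l k) (W.rep n l' k) 3 -
      -(2 * κ n * cfl W lam n [1, 2] 3) * W.crd n (W.rep n i k) (W.rep n l k) 1 *
        W.crd n (W.rep n l k) (W.rep n l' k) 2 =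
      -(κ n * (cfl W lam n [1, 1, 0] 3 * (W.crd n (W.rep n i k) (W.rep n l k) 1 ^ 2 *
        W.crd n (W.rep n l k) (W.rep n l' k) 0))) := by ring
    rw [e2, abs_neg, abs_mul, abs_mul, abs_mul, abs_pow, abs_of_nonneg hcf0']
    refine le_trans ?_ (h1.trans ?_)
    · calc |κ n| * (cfl W lam n [1, 1, 0] 3 * (|W.crd n (W.rep n i k) (W.rep n l k) 1| ^ 2 *
            |W.crd n (W.rep n l k) (W.rep n l' k) 0|))
          ≤ 1 * (CfW W * (MW W ^ 2 * (MW W * W.B'.d n ^ x))) := by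
            refine mul_le_mul (h.hκ n) (mul_le_mul hcf' (mul_le_mul
              (pow_le_pow_left₀ (abs_nonneg _) hb1 2) h0 (abs_nonneg _) (by positivity))
              (by positivity) (by linarith)) (by positivity) zero_le_one
        _ = _ := by ring
    · refine Real.rpow_le_rpow_of_exponent_ge (W.B'.pos n) (W.B'.lt n).le ?_
      nlinarith [mul_nonneg (sq_nonneg D) hε.le]

/-- `A` costs at most its exponent (at one height, any other narrow slots) -/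
theorem slotA_le {E : ∀ n, Finset (ι n)} (hE : EvG W E) {Leg : Set (Fin 18 → ℝ)}
    {ν : (Fin 18 → ℝ) → ℝ} {D : ℝ} (H : RUnif W.B' (W.cfg E) Leg ν D) (b : Fin 18 → ℝ)
    {sF : Fin 18} (hF : (2 : Fin 18) ≠ sF) {x v w w' : ℝ} (htop : x ≤ W.top 0) (hv : 0 ≤ v)
    (hw : 0 ≤ w) (hww : w ≤ w') (hwx : w' ≤ x) (h1 : b2 b sF 2 v w ∈ Leg)
    (h2 : b2 b sF 2 v w' ∈ Leg) :
    ν (b2 b sF 2 v w) ≤ ν (b2 b sF 2 v w') + (w' - w) := by
  refine slot_le_R H b hF le_rfl ?_ hv hw hww hwx h1 h2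
  intro ε hε
  filter_upwards [hE, const_pow h (CfW W * (MW W * MW W)) hε x] with n hn h1 k i l l' hi hl1 hl2
    _ _
  obtain ⟨g, hsub, heq⟩ := hn
  rw [heq] at hi hl1 hl2 ⊢
  rw [one_mul]
  exact (comp_two h g hsub hi hl1 hl2 htop).trans ((le_of_eq (by ring)).trans h1)

/-- **`B` is full** (given `A` narrow): `A` full, `c` costs something between `0` and `j` -/
theorem baseB {E : ∀ n, Finset (ι n)} (hE : EvG W E) {Leg : Set (Fin 18 → ℝ)}
    {ν : (Fin 18 → ℝ) → ℝ} {D : ℝ} (H : RUnif W.B' (W.cfg E) Leg ν D) (b : Fin 18 → ℝ)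
    {x j : ℝ} (hj : 0 ≤ j) (hjx : j ≤ x) (htop : x ≤ W.top 0)
    (hk : ∀ ε : ℝ, 0 < ε → ∀ᶠ n in (U : Filter ℕ), W.B'.d n ^ ε ≤ |κ n|)
    (ht : ∀ᶠ n in (U : Filter ℕ), W.X n 3 = W.X n 1 + W.X n 2)
    (hl : LeafLeg Leg b 2 1 3 x j)
    (hXf : x ≤ ν (bx b 2 1 3 0 x x) - ν (bx b 2 1 3 x x x))
    (hF : ν (bx b 2 1 3 x j x) < ν (bx b 2 1 3 x 0 x)) :
    2 * x - j ≤ ν (bx b 2 1 3 0 0 0) - ν (bx b 2 1 3 x 0 x) := by
  refine leafN_of (leafB h hE H b hj hjx htop hk ht hl) hXf ?_ hF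
  set c : Fin 18 → ℝ := fun s => if s = 1 then x else if s = 3 then x else b s with hc
  have e : ∀ w : ℝ, bx b 2 1 3 w x x = b2 c 1 2 x w := by
    intro w
    funext s
    unfold bx b2
    rw [hc]
    by_cases h1 : s = 1
    · subst h1; simp
    · by_cases h2 : s = 2
      · subst h2; simp
      · by_cases h3 : s = 3
        · subst h3; simp
        · simp [h1, h2, h3]
  have hx : 0 ≤ x := hj.trans hjx
  have := slotA_le h hE H c (sF := 1) (by decide) (x := x) (v := x) (w := x - j) (w' := x) htop hx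
    (by linarith) (by linarith) le_rfl (by rw [← e]; exact hl.hR) (by rw [← e]; exact hl.hQ')
  rw [← e, ← e] at this
  linarith

/-- the lateral slot of a leaf link costs at most its exponent -/
theorem slotX_le {E : ∀ n, Finset (ι n)} (hE : EvG W E) {Leg : Set (Fin 18 → ℝ)}
    {ν : (Fin 18 → ℝ) → ℝ} {D : ℝ} (H : RUnif W.B' (W.cfg E) Leg ν D) {b : Fin 18 → ℝ}
    {N : Finset (Fin 18)} {X : Fin 4} {F q : Fin 14} {m : ℤ} {e : ℕ}
    (hd : LeafDat W.S N X F q m e) {x v w w' : ℝ}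
    (htop : x ≤ W.top 0) (hb : ∀ s ∈ N, s ∉ W.S → x ≤ b s) (hx : 0 ≤ x) (hv : 0 ≤ v)
    (hw : 0 ≤ w) (hww : w ≤ w') (hwx : w' ≤ x)
    (h0 : bx b (Fin.castAdd 14 X) (Fin.natAdd 4 F) (Fin.natAdd 4 q) 0 0 0 ∈ Leg)
    (h1 : bx b (Fin.castAdd 14 X) (Fin.natAdd 4 F) (Fin.natAdd 4 q) w v v ∈ Leg)
    (h2 : bx b (Fin.castAdd 14 X) (Fin.natAdd 4 F) (Fin.natAdd 4 q) w' v v ∈ Leg) :
    ν (bx b (Fin.castAdd 14 X) (Fin.natAdd 4 F) (Fin.natAdd 4 q) w v v) ≤
      ν (bx b (Fin.castAdd 14 X) (Fin.natAdd 4 F) (Fin.natAdd 4 q) w' v v) + (w' - w) := by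
  obtain ⟨hmem, hXN, hFN⟩ := hd.mem
  have hFX : (Fin.castAdd 14 X : Fin 18) ≠ Fin.natAdd 4 F := by
    intro he
    have := congrArg Fin.val he
    simp only [Fin.val_natAdd, Fin.val_castAdd] at this
    omega
  have hqX : (Fin.natAdd 4 q : Fin 18) ≠ Fin.castAdd 14 X := by
    intro he
    have := congrArg Fin.val he
    simp only [Fin.val_natAdd, Fin.val_castAdd] at this
    omega
  have hqF : (Fin.natAdd 4 q : Fin 18) ≠ Fin.natAdd 4 F := hd.lt.ne'
  have hD := H.D1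
  have hM := (MW_le h).1
  have hC := (CfW_le h).1
  set c : Fin 18 → ℝ := fun s => if s = Fin.natAdd 4 q then v else b s with hc
  have e : ∀ w u : ℝ, bx b (Fin.castAdd 14 X) (Fin.natAdd 4 F) (Fin.natAdd 4 q) w u v =
      b2 c (Fin.natAdd 4 F) (Fin.castAdd 14 X) u w := by
    intro w u
    funext s
    unfold bx b2
    rw [hc]
    by_cases h1 : s = Fin.castAdd 14 X
    · subst h1; simp [hFX]
    · by_cases h2 : s = Fin.natAdd 4 F
      · subst h2; simp [hFX.symm]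
      · simp [h1, h2]
  rw [e, e]
  refine slot_le_R H c hFX (C1 := D ^ 2 + 1) (by nlinarith) ?_ hv hw hww hwx
    (by rw [← e]; exact h1) (by rw [← e]; exact h2)
  rw [← e]
  intro ε hε
  filter_upwards [hE, narrow_two h H h0 hε,
    ev_const_le W.B' hε (3 * (CfW W * (MW W ^ 2 * MW W)))] with n hn hnar hk k i l l' hi hl1 hl2
    h1 h2
  obtain ⟨g, hsub, heq⟩ := hn
  obtain ⟨n1, n2⟩ := hnar k i l l' hi hl1 hl2
    (H.loose_mono (bx_le le_rfl le_rfl hv) le_rfl h1)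
    (H.loose_mono (bx_le le_rfl le_rfl hv) le_rfl h2)
  rw [heq] at hi hl1 hl2 n1 n2 ⊢
  have hpos : ∀ t : ℝ, 0 < W.B'.d n ^ t := fun t => Real.rpow_pos_of_pos (W.B'.pos n) _
  have anti : ∀ {s t : ℝ}, s ≤ t → W.B'.d n ^ t ≤ W.B'.d n ^ s := fun hst =>
    Real.rpow_le_rpow_of_exponent_ge (W.B'.pos n) (W.B'.lt n).le hst
  have hDε : 0 ≤ D ^ 2 * ε := by positivity
  have hfin : 3 * (CfW W * (MW W ^ 2 * (MW W * W.B'.d n ^ (x - D ^ 2 * ε)))) ≤
      W.B'.d n ^ (x - (D ^ 2 + 1) * ε) := by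
    have := mul_le_mul_of_nonneg_right hk (hpos (x - D ^ 2 * ε)).le
    rw [← Real.rpow_add (W.B'.pos n)] at this
    have e1 : -ε + (x - D ^ 2 * ε) = x - (D ^ 2 + 1) * ε := by ring
    rw [e1] at this
    refine le_trans (le_of_eq ?_) this
    ring
  rcases hd.hX with hX | ⟨hX, hX'⟩
  · subst hX
    refine (comp_two h g hsub hi hl1 hl2 (t := x) htop).trans (le_trans ?_ hfin)
    have a1 : W.B'.d n ^ x ≤ W.B'.d n ^ (x - D ^ 2 * ε) := anti (by linarith)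
    have a2 := (hpos (x - D ^ 2 * ε)).le
    have a3 : MW W * W.B'.d n ^ x ≤ MW W * W.B'.d n ^ (x - D ^ 2 * ε) :=
      mul_le_mul_of_nonneg_left a1 (by linarith)
    have a4 : MW W ≤ MW W ^ 2 := by nlinarith
    have a5 : MW W * (MW W * W.B'.d n ^ x) ≤ MW W ^ 2 * (MW W * W.B'.d n ^ (x - D ^ 2 * ε)) :=
      mul_le_mul a4 a3 (mul_nonneg (by linarith) (hpos _).le) (by positivity)
    have a6 := mul_le_mul_of_nonneg_left a5 (show 0 ≤ CfW W by linarith)
    have a7 : 0 ≤ CfW W * (MW W ^ 2 * (MW W * W.B'.d n ^ (x - D ^ 2 * ε))) := by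
      have : 0 ≤ MW W := by linarith
      have : 0 ≤ CfW W := by linarith
      positivity
    linarith
  · subst hX
    refine (comp_three h g hsub hi hl1 hl2 (t := x) (η := MW W * W.B'.d n ^ (x - D ^ 2 * ε))
      htop (mul_le_mul_of_nonneg_left (anti (by linarith)) (by linarith)) ?_).trans hfin
    have a2 := (hpos (x - D ^ 2 * ε)).le
    have a3 : W.B'.d n ^ (x - D ^ 2 * ε) ≤ MW W * W.B'.d n ^ (x - D ^ 2 * ε) := by nlinarith
    have hbp : ∀ s ∈ N, s ∉ W.S → x ≤ bx b (Fin.castAdd 14 3) (Fin.natAdd 4 F)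
        (Fin.natAdd 4 q) 0 0 0 s := by
      intro s hs hsS
      have f1 : s ≠ Fin.castAdd 14 3 := by rintro rfl; exact hXN hs
      have f2 : s ≠ Fin.natAdd 4 F := by rintro rfl; exact hFN hs
      have f3 : s ≠ Fin.natAdd 4 q := by rintro rfl; exact hd.hq hs
      rw [bx_o f1 f2 f3]
      exact hb s hs hsS
    rcases hX' with hX' | hX'
    · left
      refine (n1 1).trans ((anti ?_).trans a3)
      have := hbp 1 hX' h.n1
      linarith
    · right
      refine (n2 2).trans ((anti ?_).trans a3)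
      have := hbp 2 hX' h.n2
      linarith

/-- **the leaf link, non-linear form, without the hypothesis "`X` costs at most its exponent"** -/
theorem leafW_loss2 {E : ∀ n, Finset (ι n)} (hE : EvG W E) {Leg : Set (Fin 18 → ℝ)}
    {ν : (Fin 18 → ℝ) → ℝ} {D : ℝ} (H : RUnif W.B' (W.cfg E) Leg ν D) {b : Fin 18 → ℝ}
    {N : Finset (Fin 18)} {X : Fin 4} {F q : Fin 14} {m : ℤ} {e : ℕ}
    (hd : LeafDat W.S N X F q m e) {x j : ℝ} (hj : 0 ≤ j) (hjx : j ≤ x)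
    (htop : ∀ s ∈ W.S, x ≤ W.top s) (hb : ∀ s ∈ N, s ∉ W.S → x ≤ b s)
    (hcf : ∀ ε : ℝ, 0 < ε → ∀ᶠ n in (U : Filter ℕ), W.B'.d n ^ ε ≤ |cLf W κ lam X F q m e n| ∧
      |cLf W κ lam X F q m e n| ≤ W.B'.d n ^ (-ε))
    (hl : LeafLeg Leg b (Fin.castAdd 14 X) (Fin.natAdd 4 F) (Fin.natAdd 4 q) x j)
    (hXf : x ≤ ν (bx b (Fin.castAdd 14 X) (Fin.natAdd 4 F) (Fin.natAdd 4 q) 0 x x) -
      ν (bx b (Fin.castAdd 14 X) (Fin.natAdd 4 F) (Fin.natAdd 4 q) x x x))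
    (hF : ν (bx b (Fin.castAdd 14 X) (Fin.natAdd 4 F) (Fin.natAdd 4 q) x j x) <
      ν (bx b (Fin.castAdd 14 X) (Fin.natAdd 4 F) (Fin.natAdd 4 q) x 0 x)) :
    2 * x - j ≤ ν (bx b (Fin.castAdd 14 X) (Fin.natAdd 4 F) (Fin.natAdd 4 q) 0 0 0) -
      ν (bx b (Fin.castAdd 14 X) (Fin.natAdd 4 F) (Fin.natAdd 4 q) x 0 x) := by
  have hx : 0 ≤ x := hj.trans hjx
  have h1 := slotX_le h hE H hd (htop 0 hd.h0) hb hx hx (w := x - j) (w' := x) (by linarith)
    (by linarith) le_rfl hl.h0 hl.hR hl.hQ'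
  exact leafW_loss h hE H hd hj hjx htop hb hcf hl hXf (by linarith) hF

end base

end Crest.Agent.R136.BaseW619
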