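import Crest.Agent.R136.LadT_830
import Crest.Agent.R136.LadW4_697
import Crest.Agent.R136.AwJ_774

/-!
# R136, thin branch (helper830): FROM `Thin` TO ONE STATEMENT PER ROW

* `src_thin` : 774's `Src` for `Thin`
* `PtW` : all facts at one point of the rung of slope `s`
* `flW_of_pt`, `pinW_of_pt`, `deadW_of_pt` : a row of the thin table is one statement about `PtW`
-/

set_option autoImplicit false
set_option linter.unusedVariables false

open Finset Filter Topology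

namespace Crest.Agent.R136.ThA830

open Crest.Agent.R138.Ex926 (Base U IsTan)
open Crest.Agent.R136.Net191
open Crest.Agent.R136.NetW191
open Crest.Agent.R136.Lq196
open Crest.Agent.R136.PrW464
open Crest.Agent.R136.NatW697
open Crest.Agent.R136.K2S774
open Crest.Agent.R136.K2A146
open Crest.Agent.R136.LadW697
open Crest.Agent.R136.Top484
open Crest.Agent.R136.ThS830
open Crest.Agent.R136.LadT830
open Crest.Agent.R136.AwJ774
open Crest.Agent.R136.Aw413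
open Crest.Agent.R136.Dg219 (Walls mw gC dhC nC OutS)
open Crest.Agent.R136.Rc146 (OutA)
open Crest.Agent.R136.Dg262 (X)

/-! ### the source -/

/-- own path of the W-chart -/
theorem ownPathW (θ : Fin 3 → ℝ) (w0 R : ℝ) {V : Fin 18 → Prop} (hV : ∀ k, V k → k ≠ 0) :
    OwnPath (ownW θ w0 R V) 0 w0 R (· ∈ {k | V k}) (btW θ) where
  z := fun v _ _ => ownW_zero θ w0 R V v
  vis := fun k hk v v' _ _ _ _ => by
    have h0 : k ≠ 0 := hV k hk
    have hk' : V k := hk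
    simp only [ownW, if_neg h0, if_pos hk', pathW_eq]
    ring
  far := fun k hk hV' v _ _ => by
    have hk' : ¬ V k := hV'
    simp only [ownW, if_neg hk, if_neg hk']
    exact le_rfl

section

variable {η : ℝ} {p : Par4} {D : Dat4} {I1 : ℕ → Finset (ℕ × ℝ)} {π : Equiv.Perm (Fin 3)}
  {kp uz uc un : ℕ → ℝ} {F : ℕ → ℕ × ℝ → FW} {V T : Fin 18 → Prop} {w0 R T0 : ℝ}
  {PD : Set (Fin 18 → ℝ)} {ν own : (Fin 18 → ℝ) → ℝ} {c₀ : ℝ}

theorem vis_ne (h : Thin η p D I1 π kp uz uc un F V T w0 R T0 PD ν own c₀) (k : Fin 18)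
    (hk : V k) : k ≠ 0 := by
  rintro rfl
  exact absurd (vis_al h.tp.slots hk).1 (by decide)

/-- **774's `Src` for `Thin`** -/
theorem src_thin (h : Thin η p D I1 π kp uz uc un F V T w0 R T0 PD ν own c₀) {v1 : ℝ}
    (h0 : 0 < v1) (h1 : v1 < 1) :
    Src D.B D.I I1 (couW kp uz uc un F) monW 67 R 0 w0 0 (ownW (thW p π) w0 R V) T ν own
      {k | V k} (btW (thW p π)) (pathW (thW p π) w0 v1) where
  prof := nprof_of_ext h.ext (by
    have := h.tp.big.wR
    have := h.tp.big.w0pos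
    linarith)
  ownF := ownF_of_ext h.ext
  path := ownPathW _ _ _ (vis_ne h)
  rpos := fun k => by
    have := h.tp.big.path_ge h0.le h1.le k
    linarith
  ownR :=
    { v0 := by rw [path_zero]; linarith
      v1 := by rw [path_zero]; linarith
      eq := fun k hk => by
        have hk' : V k := hk
        have e : pathW (thW p π) w0 v1 0 - w0 = v1 := by rw [path_zero]; ring
        rw [e]
        simp only [ownW, if_neg (vis_ne h k hk), if_pos hk'] }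

end

/-! ### facts at one point -/

/-- **all facts at one point left of the record line of the rung of slope `s`** (ray `TW s`, second
direction `btW θ`; `A` = slopes of the profile, `φ r` = groups and rates) -/
structure PtW (B : Base) (I J : ℕ → Finset (ℕ × ℝ)) (co : ∀ n : ℕ, ℕ × ℝ → ℕ × ℝ → Fin 18 → ℝ)
    (θ : Fin 3 → ℝ) (q : Fin 3 → ℝ) (V T : Fin 18 → Prop) (s : ℝ)
    (lam lo : (Fin 18 → ℝ) → ℝ) (A : ℝ × ℝ) (φ : ℕ → (Fin 18 → ℝ) → ℝ) (r : ℕ → ℝ) : Prop where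
  s0 : 0 < s
  /-- all wall slopes are `≤ s` -/
  top : ∀ k, V k → KW θ k ≤ s
  /-- windows and own loss: visible on this surface = wall slope `s` -/
  aew : AeW B B I J co monW (mA monW (actW (DrW s))) 67 lam (TW s) (btW θ) A φ r 0 1 (btW θ)
    (fun k => V k ∧ KW θ k = s) (fun k => T k ∧ V k ∧ KW θ k = s)
  out : OutA (gC (TW s) (btW θ)) (cn QW (actW (DrW s))) (TW s) (btW θ) (dhC (TW s) (btW θ))
    (nC (TW s) (btW θ)) lam A φ r
  prf : Prf (cn QW (actW (DrW s))) lam lo 18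
  /-- the slot `c` costs `q₁ + 2 q₂` per unit -/
  sweep : ∀ c ∈ cn QW (actW (DrW s)), c 1 = 0 → (∀ i, i ≠ 1 → TW s i = 0 → c i ≤ 0) →
    ∀ t : ℝ, 0 ≤ t → lam (c + t • e1W) ≤ lam c - (q 1 + 2 * q 2) * t
  /-- the dropped slots do not matter -/
  ind : ∀ c ∈ cn QW (actW (DrW s)), ∀ c' ∈ cn QW (actW (DrW s)),
    (∀ i, i ∉ DrW s → c i = c' i) → lam c = lam c'

section

variable {η : ℝ} {p : Par4} {D : Dat4} {I1 : ℕ → Finset (ℕ × ℝ)} {π : Equiv.Perm (Fin 3)}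
  {kp uz uc un : ℕ → ℝ} {F : ℕ → ℕ × ℝ → FW} {V T : Fin 18 → Prop} {w0 R T0 : ℝ}
  {PD : Set (Fin 18 → ℝ)} {ν own : (Fin 18 → ℝ) → ℝ} {c₀ : ℝ}

/-- slopes of the visible slots on the rung -/
theorem vis_TW (h : SlotOkW (thW p π) V T) {s : ℝ} (hs : ∀ k, V k → KW (thW p π) k ≤ s)
    {k : Fin 18} (hk : V k) : k ∉ DrW s ∧ TW s k = s - KW (thW p π) k + btW (thW p π) k := by
  obtain ⟨h4, h1, h2⟩ := vis_al h hk
  have hD : k ∉ DrW s := fun hD => by
    have := hD.2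
    have := hs k hk
    linarith
  refine ⟨hD, ?_⟩
  rw [TW_flag h4 hD, btW_KW _ h4]
  ring

/-- **the F-lemma of a rung from one statement about `PtW`** -/
theorem flW_of_pt (h : Thin η p D I1 π kp uz uc un F V T w0 R T0 PD ν own c₀) {v1 : ℝ}
    (h0 : 0 < v1) (h1 : v1 < 1) {s : ℝ} (hs0 : 0 < s) (hs : ∀ k, V k → KW (thW p π) k ≤ s)
    {Vis : ((Fin 18 → ℝ) → ℝ) → Prop} {g' : ℝ}
    (H : ∀ (lam lo : (Fin 18 → ℝ) → ℝ) (A : ℝ × ℝ) (φ : ℕ → (Fin 18 → ℝ) → ℝ) (r : ℕ → ℝ),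
      PtW D.B D.I I1 (couW kp uz uc un F) (thW p π) (qW p π) V T s lam lo A φ r → Vis lam →
      g' ≤ -A.1 + DlW p.g (qW p π) (saW s)) :
    FlW (Leg monW R) ν own 18 (pathW (thW p π) w0 v1) (thW p π) p.g (qW p π) {k | V k} s Vis
      g' := by
  refine ⟨btW (thW p π), fun k _ => rfl, fun lam lo hst => ?_⟩
  have hloc : locT {k | V k} 0 (btW (thW p π)) (TW s) =
      fun k => V k ∧ KW (thW p π) k = s := by
    funext k
    simp only [locT, eq_iff_iff]
    constructor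
    · rintro ⟨hk, hT⟩
      have hk' : V k := hk
      refine ⟨hk', ?_⟩
      rw [(vis_TW h.tp.slots hs hk').2, TW_z] at hT
      linarith
    · rintro ⟨hk, hK⟩
      refine ⟨hk, ?_⟩
      rw [(vis_TW h.tp.slots hs hk).2, TW_z, hK]
      ring
  refine flemA_of_aew (src_thin h h0 h1)
    (Tw := fun k => T k ∧ V k ∧ KW (thW p π) k = s) (fun i hi => ?_) (fun k hk => ?_) ?_
    fun z hz D' hD' k lam' lo' kpos k0 H1 H2 φ rt out hA hVis => ?_
  · have hi' : V i := hi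
    rw [(vis_TW h.tp.slots hs hi').2, TW_z]
    have := hs i hi'
    linarith
  · rw [hloc]; exact hk
  · rintro ⟨-, hk, -⟩
    exact vis_ne h 0 hk rfl
  · rw [hloc] at hA
    have e1 : (1 : ℝ) - 0 = 1 := sub_zero 1
    rw [e1] at hA
    refine H lam' lo' _ φ rt
      { s0 := hs0
        top := hs
        aew := hA
        out := out
        prf := hst.prf.tan kpos H1 H2
        sweep := fun c hc hc1 hcT t ht =>
          hst.sweep (fun k _ => rfl) (nat_btW _ _) ?_ hz kpos k0 H1 hc hc1 hcT ht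
        ind := fun c hc c' hc' hcc => hst.ind_pt h.tp.th1 kpos k0 H1 hc hc' hcc } hVis
    intro i
    exact (rungW (θ := thW p π) hs0 (V := {k | V k})
      (fun k hk => by
        obtain ⟨a1, a2, a3⟩ := vis_al h.tp.slots (k := k) hk
        exact ⟨a1, a3.trans_le (hs k hk)⟩) (b := btW (thW p π)) (fun k _ => rfl)
      (J := univ.filter fun k => 4 ≤ k ∧ alW k = ⌊s⌋ ∧ (⌊s⌋ : ℝ) = s) (fun k => by
        simp only [mem_filter, mem_univ, true_and]
        constructor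
        · rintro ⟨a1, a2, a3⟩; exact ⟨a1, by rw [a2]; exact a3⟩
        · rintro ⟨a1, a2⟩
          refine ⟨a1, ?_, ?_⟩
          · rw [← a2, Int.floor_intCast]
          · rw [← a2, Int.floor_intCast])).T0 i

end

section rows

variable {η : ℝ}

/-- **a pin row from one statement about `PtW`** -/
theorem pinT_of {j : ℕ} (hj : 1 ≤ j) {pat : (Fin 3 → ℝ) → (Fin 18 → Prop) → Prop}
    (hpat : ∀ θ V, pat θ V → ∀ k, V k → KW θ k ≤ j)
    (H : ∀ (p : Par4) (D : Dat4) (I1 : ℕ → Finset (ℕ × ℝ)) (π : Equiv.Perm (Fin 3))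
      (kp uz uc un : ℕ → ℝ) (F : ℕ → ℕ × ℝ → FW) (V T : Fin 18 → Prop) (w0 R T0 : ℝ)
      (PD : Set (Fin 18 → ℝ)) (ν own : (Fin 18 → ℝ) → ℝ) (c₀ : ℝ),
      Thin η p D I1 π kp uz uc un F V T w0 R T0 PD ν own c₀ → pat (thW p π) V →
      ∃ g' : ℝ, 0 < g' ∧ ∀ (lam lo : (Fin 18 → ℝ) → ℝ) (A : ℝ × ℝ)
        (φ : ℕ → (Fin 18 → ℝ) → ℝ) (r : ℕ → ℝ),
        PtW D.B D.I I1 (couW kp uz uc un F) (thW p π) (qW p π) V T j lam lo A φ r →
        lam (ind1 (JW j)) < 0 → g' ≤ -A.1 + DlW p.g (qW p π) (saW j)) :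
    PinT η j pat := by
  intro p D I1 π kp uz uc un F V T w0 R T0 PD ν own c₀ h hp v1 h0 h1
  obtain ⟨g', hg', H'⟩ := H p D I1 π kp uz uc un F V T w0 R T0 PD ν own c₀ h hp
  have hj0 : (0:ℝ) < j := by exact_mod_cast hj
  exact ⟨g', hg', flW_of_pt h h0 h1 hj0 (hpat _ _ hp) H'⟩

/-- **a dead row from one statement about `PtW`** -/
theorem deadT_of {pat : ℝ → (Fin 3 → ℝ) → (Fin 18 → Prop) → ℝ → Prop}
    (hpat : ∀ g θ V s, pat g θ V s → ∀ k, V k → KW θ k ≤ s)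
    (H : ∀ (p : Par4) (D : Dat4) (I1 : ℕ → Finset (ℕ × ℝ)) (π : Equiv.Perm (Fin 3))
      (kp uz uc un : ℕ → ℝ) (F : ℕ → ℕ × ℝ → FW) (V T : Fin 18 → Prop) (w0 R T0 : ℝ)
      (PD : Set (Fin 18 → ℝ)) (ν own : (Fin 18 → ℝ) → ℝ) (c₀ : ℝ),
      Thin η p D I1 π kp uz uc un F V T w0 R T0 PD ν own c₀ → ∀ s : ℝ, 0 < s →
      pat p.g (thW p π) V s →
      ∃ g' : ℝ, 0 < g' ∧ ∀ (lam lo : (Fin 18 → ℝ) → ℝ) (A : ℝ × ℝ)
        (φ : ℕ → (Fin 18 → ℝ) → ℝ) (r : ℕ → ℝ),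
        PtW D.B D.I I1 (couW kp uz uc un F) (thW p π) (qW p π) V T s lam lo A φ r →
        g' ≤ -A.1 + DlW p.g (qW p π) (saW s)) :
    DeadT η pat := by
  intro p D I1 π kp uz uc un F V T w0 R T0 PD ν own c₀ h s hs hp v1 h0 h1
  obtain ⟨g', hg', H'⟩ := H p D I1 π kp uz uc un F V T w0 R T0 PD ν own c₀ h s hs hp
  exact ⟨g', hg', flW_of_pt h h0 h1 hs (hpat _ _ _ _ hp)
    fun lam lo A φ r hP _ => H' lam lo A φ r hP⟩

/-- full loss `3 + s` (up to `C`) is enough: `g' = g - q₀ (s - 1) - C` -/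
theorem full_enough {g : ℝ} {q : Fin 3 → ℝ} {s C : ℝ} {A : ℝ × ℝ} (h : 3 + s - C ≤ -A.1) :
    g - q 0 * (s - 1) - C ≤ -A.1 + DlW g q (saW s) := by
  rw [DlW_saW]; linarith

end rows

end Crest.Agent.R136.ThA830
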