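import Crest.Agent.R136.Bas2_938
import Crest.Agent.R136.BaseW_619
import Crest.Agent.R136.ThA_830

/-!
# R136 (helper938): one point of a rung of the W-chart: windows and losses modulo dropped slots

* `ChW` : chart data, `PtB` : one point of a rung (`AeW` + chart + active monomials + dropped slots
  do not matter)
* `PtB.win` : `exists_win` for any chart, dropped slots free in the density condition
* `PtB.slot`, `PtB.single` : losses modulo the dropped slots
* `PtB.of_ptW` : from 830's `PtW`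
-/

set_option autoImplicit false
set_option linter.unusedSectionVars false
set_option linter.unusedVariables false

open Filter Topology

namespace Crest.Agent.R136.Bas938

open Finset Crest.Agent.R138.Ex926 Crest.Agent.R136.Net191 Crest.Agent.R136.Gf356
open Crest.Agent.R136.Qg926 Crest.Agent.R136.Dg219 Crest.Agent.R136.Aw413
open Crest.Agent.R136.NetW191 Crest.Agent.R136.EvW938 Crest.Agent.R136.PrW464
open Crest.Agent.R136.LadW697 Crest.Agent.R136.AwJ774
open Crest.Agent.R136.K2S774 (cn)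

/-- chart data -/
structure ChW (Bo : Base) (I J : ∀ n : ℕ, Finset (ℕ × ℝ))
    (co : ∀ n : ℕ, ℕ × ℝ → ℕ × ℝ → Fin 18 → ℝ) (kp : ℕ → ℝ) (u : ℕ → Fin 18 → ℝ)
    (F : ∀ n : ℕ, ℕ × ℝ → FW) : Prop where
  co : ∀ n, ∀ i ∈ I n, ∀ j ∈ I n, ∀ k, co n i j k = u n k * coW (kp n) (F n i) (F n j) k
  gr : ∀ n, GrU (u n)
  k1 : ∀ n, |kp n| ≤ 1
  ks : Bo.Sub fun n => |kp n|⁻¹
  ne : ∀ᶠ n in (U : Filter ℕ), (J n).Nonempty

/-- **one point of a rung** -/
structure PtB (B Bo : Base) (I J : ∀ n : ℕ, Finset (ℕ × ℝ))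
    (co : ∀ n : ℕ, ℕ × ℝ → ℕ × ℝ → Fin 18 → ℝ) (kp : ℕ → ℝ) (u : ℕ → Fin 18 → ℝ)
    (F : ∀ n : ℕ, ℕ × ℝ → FW) (Ma : Mons 18) (Dr : Set (Fin 18)) (C : ℝ)
    (lam : (Fin 18 → ℝ) → ℝ) (a b : Fin 18 → ℝ) (A : ℝ × ℝ) (φ : ℕ → (Fin 18 → ℝ) → ℝ)
    (r : ℕ → ℝ) (κ : Fin 18 → ℝ) (V Tw : Fin 18 → Prop) : Prop where
  aew : AeW B Bo I J co monW Ma C lam a b A φ r 0 1 κ V Tw
  ch : ChW Bo I J co kp u F
  act : ActM Ma Dr
  ind : ∀ c ∈ coneM Ma, ∀ c' ∈ coneM Ma, (∀ i, i ∉ Dr → c i = c' i) → lam c = lam c'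

/-- the vector without the dropped slots -/
noncomputable def hat (Dr : Set (Fin 18)) (c : Fin 18 → ℝ) : Fin 18 → ℝ := by
  classical
  exact fun k => if k ∈ Dr then 0 else c k

section hat

variable {Ma : Mons 18} {Dr : Set (Fin 18)}

theorem hat_not (c : Fin 18 → ℝ) {k : Fin 18} (hk : k ∉ Dr) : hat Dr c k = c k := if_neg hk
theorem hat_mem (c : Fin 18 → ℝ) {k : Fin 18} (hk : k ∈ Dr) : hat Dr c k = 0 := if_pos hk

theorem ActM.congr (hA : ActM Ma Dr) {c c' : Fin 18 → ℝ} (h : ∀ i, i ∉ Dr → c i = c' i)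
    (hc : c ∈ coneM Ma) : c' ∈ coneM Ma := by
  rw [hA.cone] at hc ⊢
  intro k hk l hl hs
  rw [← h k hk]
  refine (hc k hk l hl hs).trans (le_of_eq ?_)
  congr 1
  exact List.map_congr_left fun s hs' => h s (hs s hs')

theorem ActM.hat (hA : ActM Ma Dr) {c : Fin 18 → ℝ} (hc : c ∈ coneM Ma) : hat Dr c ∈ coneM Ma :=
  hA.congr (fun i hi => (hat_not c hi).symm) hc

end hat

section pt

variable {B Bo : Base} {I J : ∀ n : ℕ, Finset (ℕ × ℝ)}
  {co : ∀ n : ℕ, ℕ × ℝ → ℕ × ℝ → Fin 18 → ℝ} {kp : ℕ → ℝ} {u : ℕ → Fin 18 → ℝ}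
  {F : ∀ n : ℕ, ℕ × ℝ → FW} {Ma : Mons 18} {Dr : Set (Fin 18)} {C : ℝ}
  {lam : (Fin 18 → ℝ) → ℝ} {a b : Fin 18 → ℝ} {A : ℝ × ℝ} {φ : ℕ → (Fin 18 → ℝ) → ℝ}
  {r : ℕ → ℝ} {κ : Fin 18 → ℝ} {V Tw : Fin 18 → Prop}

/-- loss of one slot: only the other slots of its group which are not dropped matter -/
theorem PtB.slot (h : PtB B Bo I J co kp u F Ma Dr C lam a b A φ r κ V Tw) {i : Fin 18}
    {c c' d d' : Fin 18 → ℝ} (hc : c ∈ coneM Ma) (hc' : c' ∈ coneM Ma) (hd : d ∈ coneM Ma)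
    (hd' : d' ∈ coneM Ma) (h1 : ∀ j, j ≠ i → j ∉ Dr → c j = c' j)
    (h2 : ∀ j, j ≠ i → j ∉ Dr → d j = d' j) (hci : c i = d i) (hci' : c' i = d' i)
    (h3 : ∀ j, gC a b j = gC a b i → j ≠ i → j ∉ Dr → c j = d j) :
    lam c - lam c' = lam d - lam d' := by
  by_cases hi : i ∈ Dr
  · rw [h.ind c hc c' hc' fun j hj => h1 j (fun e => hj (e ▸ hi)) hj,
      h.ind d hd d' hd' fun j hj => h2 j (fun e => hj (e ▸ hi)) hj]
    ring
  · have key : ∀ x ∈ coneM Ma, lam x = lam (hat Dr x) := fun x hx =>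
      h.ind x hx _ (h.act.hat hx) fun j hj => (hat_not x hj).symm
    rw [key c hc, key c' hc', key d hd, key d' hd']
    refine loss_slot h.aew.out i (h.act.hat hc) (h.act.hat hc') (h.act.hat hd) (h.act.hat hd')
      (fun j hj => ?_) (fun j hj => ?_) (fun j hj => ?_) (by rw [hat_not _ hi, hat_not _ hi, hci'])
    · by_cases hjD : j ∈ Dr
      · rw [hat_mem _ hjD, hat_mem _ hjD]
      · rw [hat_not _ hjD, hat_not _ hjD, h1 j hj hjD]
    · by_cases hjD : j ∈ Dr
      · rw [hat_mem _ hjD, hat_mem _ hjD]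
      · rw [hat_not _ hjD, hat_not _ hjD, h2 j hj hjD]
    · by_cases hjD : j ∈ Dr
      · rw [hat_mem _ hjD, hat_mem _ hjD]
      · rw [hat_not _ hjD, hat_not _ hjD]
        by_cases e : j = i
        · rw [e, hci]
        · exact h3 j hj e hjD

/-- a slot alone in its group up to dropped slots has a linear loss -/
theorem PtB.single (h : PtB B Bo I J co kp u F Ma Dr C lam a b A φ r κ V Tw) {i : Fin 18}
    (hi : a i ≠ 0) (hiD : i ∉ Dr) (hs : ∀ j, gC a b j = gC a b i → j = i ∨ j ∈ Dr)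
    {c c' : Fin 18 → ℝ} (hc : c ∈ coneM Ma) (hc' : c' ∈ coneM Ma)
    (h1 : ∀ j, j ≠ i → j ∉ Dr → c j = c' j) :
    lam c - lam c' = r (gC a b i) / a i * (c' i - c i) := by
  classical
  set ex : (Fin 18 → ℝ) → Fin 18 → ℝ := fun x j => if j ∈ Dr then
    (if gC a b j = gC a b i then x i / a i * a j else 0) else x j with hex
  have exm : ∀ x ∈ coneM Ma, ex x ∈ coneM Ma := fun x hx =>
    h.act.congr (fun j hj => by rw [hex]; simp [hj]) hx
  have key : ∀ x ∈ coneM Ma, lam x = lam (ex x) := fun x hx =>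
    h.ind x hx _ (exm x hx) fun j hj => by rw [hex]; simp [hj]
  have H := h.aew.out
  rw [key c hc, key c' hc', H.sum _ (exm c hc), H.sum _ (exm c' hc'), ← sum_sub_distrib]
  have hg : gC a b i ∈ gset (gC a b) := mem_image_of_mem _ (mem_univ _)
  rw [sum_eq_single_of_mem _ hg]
  · have hr : ∀ d ∈ coneM Ma, φ (gC a b i) (ex d) = -(r (gC a b i) * (d i / a i)) := by
      intro d hd
      refine H.rate _ _ (exm d hd) _ fun j hj => ?_
      have haj : a j ≠ 0 := by
        intro h0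
        rw [gC_zero.2 h0] at hj
        exact hi (gC_zero.1 hj.symm)
      rw [dhC, if_neg haj]
      rcases hs j hj with e | e
      · subst e
        rw [hex]
        simp only [hiD, if_false]
        field_simp
      · rw [hex]
        simp only [e, if_true, hj]
    rw [hr c hc, hr c' hc']
    field_simp
    ring
  · intro k _ hk
    rw [H.loc k (ex c) (ex c') fun j hj => ?_]
    · ring
    · by_cases hjD : j ∈ Dr
      · have : ¬ gC a b j = gC a b i := fun e => hk (by rw [← hj, e])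
        rw [hex]
        simp [hjD, this]
      · rw [hex]
        simp only [hjD, if_false]
        exact h1 j (fun e => hk (by rw [← hj, e])) hjD

/-- **density and Frostman conditions**, unresolved and dropped slots allowed -/
theorem PtB.dens (h : PtB B Bo I J co kp u F Ma Dr C lam a b A φ r κ V Tw) {st : WSt 18}
    {c0 : Fin 18 → ℝ} (h0 : c0 ∈ coneM Ma) (hc0 : ∀ k, V k → c0 k ≤ κ k * c0 0)
    (hkz : st.kz = 0) (hst : st.Ok monW {p | c0 + p ∈ coneM Ma})
    (hS : ∀ i j, gC a b i = gC a b j → i ∈ st.S → j ∈ st.S ∨ st.top j = 0 ∨ j ∈ Dr)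
    {R : ℝ} (hR : R ≤ st.top 0)
    (hone : ∀ y, 0 ≤ y → y ≤ R → c0 + Pi.single 0 y ∈ coneM Ma) :
    st.Dens (fun p => lam (c0 + p) - lam c0) 1 R where
  dens := by
    have m1 : c0 + st.top ∈ coneM Ma := hst.leg hst.top_leg
    have m2 : c0 + cut st.S st.top 0 ∈ coneM Ma := hst.leg hst.lin_leg
    have m3 : c0 + cut st.S 0 st.top ∈ coneM Ma := hst.leg hst.lev_leg
    have n1 : c0 + hat Dr st.top ∈ coneM Ma := h.act.congr (fun i hi => by
      simp [hat_not _ hi]) m1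
    have n2 : c0 + cut st.S (hat Dr st.top) 0 ∈ coneM Ma := h.act.congr (fun i hi => by
      by_cases hiS : i ∈ st.S
      · simp [cut_of_mem hiS]
      · simp [cut_of_notMem hiS, hat_not _ hi]) m2
    have n3 : c0 + cut st.S 0 (hat Dr st.top) ∈ coneM Ma := h.act.congr (fun i hi => by
      by_cases hiS : i ∈ st.S
      · simp [cut_of_mem hiS, hat_not _ hi]
      · simp [cut_of_notMem hiS]) m3
    have key := splitO' h.aew.out (S := st.S) (c0 := c0) (top := hat Dr st.top)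
      (fun i j hij hi => by
        rcases hS i j hij hi with e | e | e
        · exact Or.inl e
        · right
          by_cases hj : j ∈ Dr
          · exact hat_mem _ hj
          · rw [hat_not _ hj, e]
        · exact Or.inr (hat_mem _ e)) h0 n1 n2 n3
    rw [h.ind _ n1 _ m1 fun i hi => by simp [hat_not _ hi],
      h.ind _ n2 _ m2 fun i hi => by
        by_cases hiS : i ∈ st.S
        · simp [cut_of_mem hiS]
        · simp [cut_of_notMem hiS, hat_not _ hi],
      h.ind _ n3 _ m3 fun i hi => by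
        by_cases hiS : i ∈ st.S
        · simp [cut_of_mem hiS, hat_not _ hi]
        · simp [cut_of_notMem hiS]] at key
    exact key.le
  σ0 := zero_le_one
  σ1 := le_rfl
  hR := by rw [hkz]; exact hR
  frost := fun y hy hyR => by
    rw [hkz]; exact h.aew.frostO h0 hc0 hy (hone y hy hyR)

/-- **output of one call of `PtB.win`** -/
structure WinB (Ma : Mons 18) (Dr : Set (Fin 18)) (kp : ℕ → ℝ) (u : ℕ → Fin 18 → ℝ)
    (F : ∀ n : ℕ, ℕ × ℝ → FW) (lam : (Fin 18 → ℝ) → ℝ) (Tw : Fin 18 → Prop)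
    (n0 nt : Fin 18 → ℕ) (rr : ℕ) (S : Finset (Fin 18)) (y : ℝ) (W : Wnd 18 fun _ => ℕ × ℝ)
    (E : ∀ n : ℕ, Finset (ℕ × ℝ)) : Prop where
  ww : WWnd W kp u F
  ev : EvG W E
  mod : RModel W.B' (W.cfg E) 1 y W.legW W.nu W.Dc
  eS : W.S = S
  etop : W.top = scV y nt
  ekap : W.kap = fun _ => 1
  elam : W.lam = fun p => lam (scV y n0 + p) - lam (scV y n0)
  eMw : W.Mw = offM Ma (scV y n0) (y * rr)
  eR : W.R' = y * rr
  /-- the conic is not degenerate -/
  hk : ∀ ε : ℝ, 0 < ε → ∀ᶠ n in (U : Filter ℕ), W.B'.d n ^ ε ≤ |kp n|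
  /-- tight walls -/
  tight : ∀ k, k ∉ Dr → ∀ l ∈ mlW k, (∀ s ∈ l, s ∉ Dr) → n0 k = (l.map n0).sum → ∀ n,
    W.X n k = (l.map (W.X n)).sum
  /-- raw twist -/
  tw : ∀ s ∈ S, Tw s → nt s ≠ 0 → n0 s = 0 →
    (∃ e : ℝ, 0 < e ∧ scV y n0 + cut S (scV y nt) (Pi.single s e) ∈ coneM Ma) → RawL W E s

/-- **window, pruned set, model, raw twist in one call, any chart** -/
theorem PtB.win (h : PtB B Bo I J co kp u F Ma Dr C lam a b A φ r κ V Tw)
    {n0 nt : Fin 18 → ℕ} {rr : ℕ} {S : Finset (Fin 18)} (hd : WDat n0 nt rr S) {y : ℝ}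
    (hy : 0 < y) (hden : ∀ i j, gC a b i = gC a b j → i ∈ S → j ∈ S ∨ nt j = 0 ∨ j ∈ Dr)
    (hV0 : ∀ k, V k → n0 k = 0) (hVS : ∀ k, V k → k ∈ S ∨ nt k = 0) :
    ∃ (W : Wnd 18 fun _ => ℕ × ℝ) (E : ∀ n : ℕ, Finset (ℕ × ℝ)),
      WinB Ma Dr kp u F lam Tw n0 nt rr S y W E := by
  have hA := h.act
  have hst := wst_ok hA hd hy.le
  have hz0 : scV y n0 0 = 0 := by simp [scV, hd.z0]
  have h0 : scV y n0 ∈ coneM Ma := by
    rw [hA.cone]
    intro k _ l hl _
    rw [sum_scV]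
    exact mul_le_mul_of_nonneg_left (by exact_mod_cast hd.off k l hl) hy.le
  have hc0 : ∀ k, V k → scV y n0 k ≤ κ k * scV y n0 0 := fun k hk => by
    rw [hz0, mul_zero]; simp [scV, hV0 k hk]
  obtain ⟨W, g1, g2, g3⟩ := h.aew.wndO (scV y n0) h0 (wst Ma n0 nt rr S y) rfl hst
    (fun _ n => |kp n|⁻¹) (fun _ => h.ch.ks) J (fun _ => 1)
    (Eventually.of_forall fun n => Subset.refl _) h.ch.ne (Base.Sub.const one_pos)
    (Eventually.of_forall fun n => by rw [one_mul])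
  have hzt : y ≤ scV y nt 0 := by
    have : (1 : ℝ) ≤ nt 0 := by exact_mod_cast hd.zt
    simp only [scV]; nlinarith
  have hone : ∀ t, 0 ≤ t → t ≤ y → scV y n0 + Pi.single (0 : Fin 18) t ∈ coneM Ma := by
    intro t ht _
    rw [hA.cone]
    intro k _ l hl _
    rw [sum_add', sum_scV]
    have h1 : (0:ℝ) ≤ (l.map (Pi.single (0 : Fin 18) t : Fin 18 → ℝ)).sum := by
      refine List.sum_nonneg fun x hx => ?_
      obtain ⟨i, _, rfl⟩ := List.mem_map.1 hx
      by_cases hi : i = 0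
      · subst hi; simpa using ht
      · rw [Pi.single_eq_of_ne hi]
    have h2 : y * (n0 k : ℝ) ≤ y * ((l.map n0).sum : ℕ) :=
      mul_le_mul_of_nonneg_left (by exact_mod_cast hd.off k l hl) hy.le
    have h3 : k ≠ 0 := by
      rintro rfl
      have : mlW 0 = [] := by decide
      rw [this] at hl
      exact absurd hl (List.not_mem_nil)
    rw [Pi.add_apply, Pi.single_eq_of_ne h3, add_zero]
    unfold scV
    linarith
  have hden' : (wst Ma n0 nt rr S y).Dens (fun p => lam (scV y n0 + p) - lam (scV y n0)) 1 y :=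
    h.dens h0 hc0 rfl hst (fun i j hij hi => (hden i j hij hi).imp id (Or.imp (fun h2 => by
      show scV y nt j = 0
      simp [scV, h2]) id)) hzt hone
  obtain ⟨E, g, q1, q2, q3, q4⟩ := g1.model hden' (fun _ _ _ => 0) (g₀ := fun n => 1 + W.B'.L n)
    (tendsto_atTop.2 fun b => (W.B'.ev_L_ge b).mono fun n hn => by linarith) hc0
    (fun k hk => (hVS k hk).imp id fun h2 => by
      show scV y nt k = 0
      simp [scV, h2])
  refine ⟨W, E, ⟨?_, ?_, q3, g1.eS, g1.etop, g1.ekap, g1.elam, g1.eMw, g1.eR, ?_, ?_, ?_⟩⟩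
  · exact
      { ok := g1.ok
        hκ := h.ch.k1
        hl := h.ch.gr
        hM := g1.eM
        hco := fun n i hi j hj s => by
          rw [g1.eI] at hi hj
          rw [g1.eco]
          exact h.ch.co n i hi j hj s
        kz := g1.ekz
        h0 := by rw [g1.eS]; exact hd.zS
        hS := by rw [g1.eS]; exact hd.hS }
  · filter_upwards [Wnd.ev_cfg g1.ok g1.ok.eok_section q1] with n hn
    exact ⟨hn.1, (q1.sub n).trans hn.2.1, hn.2.2.2⟩
  · intro ε hε
    filter_upwards [(g2 0).ev_le hε, (g2 0).1.pos] with n hn hpos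
    have h3 : 0 < |kp n| := inv_pos.1 hpos
    have h4 : 0 < W.B'.d n ^ ε := Real.rpow_pos_of_pos (W.B'.pos n) _
    have h5 := hn.2
    rw [Real.log_inv] at h5
    rw [Real.rpow_def_of_pos (W.B'.pos n), ← Real.exp_log h3]
    refine Real.exp_le_exp.2 ?_
    unfold Base.L at h5
    linarith
  · intro k hk l hl hls hn0 n
    have h1 := g1.off k _ ((hA.iff k _).2 ⟨hk, l, hl, hls, rfl⟩) n
    rw [← sum_count, ← sum_count, sum_scV] at h1
    have h2 : y * (((l.map n0).sum : ℕ) : ℝ) - scV y n0 k = 0 := by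
      rw [← hn0]; simp [scV]
    rw [h2, zero_mul, add_zero] at h1
    exact h1
  · intro s hs hT hnt hn0 he
    refine q4 s hs hT ?_ ?_ he
    · show 0 < scV y nt s
      have : (0:ℝ) < nt s := by exact_mod_cast Nat.pos_of_ne_zero hnt
      simp only [scV]; positivity
    · show scV y n0 s = κ s * scV y n0 0
      rw [hz0, mul_zero]; simp [scV, hn0]

/-- **from 830's `PtW`** -/
theorem PtB.of_ptW {θ q : Fin 3 → ℝ} {V T : Fin 18 → Prop} {s : ℝ} {lo : (Fin 18 → ℝ) → ℝ}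
    (h : ThA830.PtW B I J co θ q V T s lam lo A φ r) (ch : ChW B I J co kp u F) :
    PtB B B I J co kp u F (mA monW (actW (DrW s))) (DrW s) 67 lam (TW s) (btW θ) A φ r (btW θ)
      (fun k => V k ∧ NatW697.KW θ k = s) (fun k => T k ∧ V k ∧ NatW697.KW θ k = s) where
  aew := h.aew
  ch := ch
  act := actM_mA _
  ind := fun c hc c' hc' e => by
    rw [coneM_mA] at hc hc'
    exact h.ind c hc c' hc' e

end pt

end Crest.Agent.R136.Bas938
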