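import Crest.Agent.R136.Bas3_938

/-!
# R136 (helper938): the base of the W-chart at one point of a rung: `z`, `A`, `B` full

* `v4 z c A B` : vector of the frame slots
* `htA'` : height link `c → A`, only the tops of `0, 1, 2` are used
* `PtB.fullA`, `PtB.full3` : `x ≤ lam (x e_z) - lam (x (e_z + e_A))`,
  `lam (x (e_z + e_A + e_B)) ≤ - 3 x`
* `PtB.conc` : a loss `≥ s u - C` of `N` near the ray `u T` ⊢ `3 + s ≤ - A.1`
-/

set_option autoImplicit false
set_option linter.unusedSectionVars false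
set_option linter.unusedVariables false

open Filter Topology

namespace Crest.Agent.R136.Bas938

open Finset Crest.Agent.R138.Ex926 Crest.Agent.R136.Net191 Crest.Agent.R136.Gf356
open Crest.Agent.R136.Qg926 Crest.Agent.R136.Dg219 Crest.Agent.R136.Aw413
open Crest.Agent.R136.NetW191 Crest.Agent.R136.EvW938 Crest.Agent.R136.PrW464
open Crest.Agent.R136.LadW697 Crest.Agent.R136.AwJ774 Crest.Agent.R136.Ht887
open Crest.Agent.R136.RowW619 Crest.Agent.R136.BaseW619 Crest.Agent.R136.LfW619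
open Crest.Agent.R136.Lf400
open Crest.Agent.R136.K2S774 (cn)

/-! ### the height link `c → A`, partial tops -/

section htA

variable {ι : ℕ → Type*} [∀ n, DecidableEq (ι n)] {W : Wnd 18 ι} {κ : ℕ → ℝ}
  {lam : ℕ → Fin 18 → ℝ} {f : ∀ n, ι n → FW}

set_option maxHeartbeats 1000000 in
/-- **the height link `c → A`**, only the tops of `0, 1, 2` are used -/
theorem htA' (h : WWnd W κ lam f) {E : ∀ n, Finset (ι n)} (hE : EvG W E) {x : ℝ} (hx : 0 ≤ x)
    (t0 : x ≤ W.top 0) (t1 : x ≤ W.top 1) (t2 : x ≤ W.top 2) {b : Fin 18 → ℝ}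
    (hb : ∀ s, b s ≤ 0) (ht : ∀ᶠ n in (U : Filter ℕ), W.X n 2 = W.X n 1 + W.X n 0) :
    HtLink W.B' (W.cfg E) (b2 b 1 2 0 0) 1 2 x (fun n => cfl W lam n [1, 0] 2) 1 where
  C1_one := le_rfl
  hc := cf_ok h (by decide) (by
    filter_upwards [ht] with n hn
    rw [hn]; simp)
  hz := by
    intro ε hε
    filter_upwards [hE, ev_const_le W.B' hε (2 * MW W)] with n hn h1 k hk k' hk'
    obtain ⟨g, hsub, heq⟩ := hn
    rw [heq] at hk hk' ⊢
    refine (abs_sub _ _).trans (le_trans ?_ h1)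
    have := z_le h g hsub hk
    have := z_le h g hsub hk'
    linarith
  comp := by
    intro ε hε
    filter_upwards [hE, const_pow h (CfW W * (MW W * MW W)) hε x] with n hn h1 k i l l' hi hl hl' _ _
    obtain ⟨g, hsub, heq⟩ := hn
    rw [heq] at hi hl hl' ⊢
    rw [one_mul]
    refine ⟨(comp_two h g hsub hi hl hl' t0).trans (le_trans (le_of_eq (by ring)) h1), ?_⟩
    obtain ⟨a1, a2, a3⟩ := Wnd.rep_of_mem hsub hi
    obtain ⟨b1, b2, b3⟩ := Wnd.rep_of_mem hsub hl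
    obtain ⟨c1, c2, c3⟩ := Wnd.rep_of_mem hsub hl'
    rw [h.rel_eq i l' k h.n1, h.rel_eq i l k h.n1, h.rel_eq l l' k h.n1, comp1 h g a1 b1 c1]
    have e : W.crd n (W.rep n i k) (W.rep n l k) 1 + W.crd n (W.rep n l k) (W.rep n l' k) 1 -
        W.crd n (W.rep n i k) (W.rep n l k) 1 - W.crd n (W.rep n l k) (W.rep n l' k) 1 = 0 := by
      ring
    rw [e, abs_zero]
    exact (Real.rpow_pos_of_pos (W.B'.pos n) _).le
  evo := by
    intro ε hε
    filter_upwards [hE, ev_const_le W.B' hε (MW W),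
      const_pow h (2 * MW W + 3 * (CfW W * (MW W * MW W))) hε x] with n hn h1 h2
      k k' i l hi hi' hl hl' _
    obtain ⟨g, hsub, heq⟩ := hn
    rw [heq] at hi hi' hl hl' ⊢
    rw [one_mul]
    have hρ : (W.cfg0 n (E n)).ρ = W.B'.d n := rfl
    refine ⟨fun s => ?_, ?_⟩
    · rw [hρ]
      refine (rel_MW' h g hsub hi' hl' s).trans (h1.trans ?_)
      refine Real.rpow_le_rpow_of_exponent_ge (W.B'.pos n) (W.B'.lt n).le ?_
      have : b2 b 1 2 0 0 s ≤ 0 := by
        unfold b2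
        split_ifs
        · exact le_rfl
        · exact le_rfl
        · exact hb s
      linarith
    · obtain ⟨a1, a2, a3⟩ := Wnd.rep_of_mem hsub hi
      obtain ⟨a1', a2', a3'⟩ := Wnd.rep_of_mem hsub hi'
      obtain ⟨c1, c2, c3⟩ := Wnd.rep_of_mem hsub hl
      obtain ⟨c1', c2', c3'⟩ := Wnd.rep_of_mem hsub hl'
      rw [h.rel_eq i l k' h.n2, h.rel_eq i l k h.n2, h.rel_eq i l k h.n1]
      have e1 := comp2 h g a1' a1 c1'
      have e2 := comp2 h g a1 c1 c1'
      have hM := (MW_le h).1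
      have hC := (CfW_le h).1
      have hcf := cfl2_CfW h g
      have hcf0 := (h.cfl_pos n [1, 0] 2).le
      have hpos : 0 < W.B'.d n ^ x := Real.rpow_pos_of_pos (W.B'.pos n) _
      have o2 := own_MW h g a1' a1 (a2'.trans a2.symm) h.n2 t2
      have o1 := own_MW h g a1' a1 (a2'.trans a2.symm) h.n1 t1
      have o2' := own_MW h g c1 c1' (c2.trans c2'.symm) h.n2 t2
      have m0 := crd_MW h g a1 c1' 0
      have m1 := crd_MW h g a1 c1 1
      have z0 := h.own_zero g hsub hl hl' t0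
      have hz : |W.crd n (W.rep n l k) (W.rep n l k') 0 -
          ((W.cfg0 n (E n)).z k' - (W.cfg0 n (E n)).z k)| ≤ 2 * (MW W * W.B'.d n ^ x) := by
        refine z0.trans ?_
        have := (MW_le h).2 0
        calc 2 * W.K0 * W.B'.d n ^ x / W.kap 0 = 2 * (W.K0 / W.kap 0 * W.B'.d n ^ x) := by ring
          _ ≤ _ := by
            have := mul_le_mul_of_nonneg_right this hpos.le
            linarith
      refine le_trans ?_ h2
      set c := cfl W lam n [1, 0] 2 with hc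
      set p := W.crd n (W.rep n i k') (W.rep n i k) 2
      set p1 := W.crd n (W.rep n i k') (W.rep n i k) 1
      set p0 := W.crd n (W.rep n i k) (W.rep n l k') 0
      set q := W.crd n (W.rep n l k) (W.rep n l k') 2
      set q1 := W.crd n (W.rep n i k) (W.rep n l k) 1
      set dz := (W.cfg0 n (E n)).z k' - (W.cfg0 n (E n)).z k
      set q0 := W.crd n (W.rep n l k) (W.rep n l k') 0
      have e7 : W.crd n (W.rep n i k') (W.rep n l k') 2 - W.crd n (W.rep n i k) (W.rep n l k) 2 -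
          c * dz * q1 = p + c * (p1 * p0) + q + c * (q1 * (q0 - dz)) := by
        rw [e1, e2]; ring
      rw [e7]
      have b1 : |c * (p1 * p0)| ≤ CfW W * (MW W * W.B'.d n ^ x * MW W) := by
        rw [abs_mul, abs_mul, abs_of_nonneg hcf0]
        exact mul_le_mul hcf (mul_le_mul o1 m0 (abs_nonneg _) (by positivity))
          (mul_nonneg (abs_nonneg _) (abs_nonneg _)) (by linarith)
      have b2 : |c * (q1 * (q0 - dz))| ≤ CfW W * (MW W * (2 * (MW W * W.B'.d n ^ x))) := by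
        rw [abs_mul, abs_mul, abs_of_nonneg hcf0]
        exact mul_le_mul hcf (mul_le_mul m1 hz (abs_nonneg _) (by linarith))
          (mul_nonneg (abs_nonneg _) (abs_nonneg _)) (by linarith)
      refine (abs_add_le _ _).trans ((add_le_add ((abs_add_le _ _).trans (add_le_add
        ((abs_add_le _ _).trans (add_le_add o2 b1)) o2')) b2).trans (le_of_eq ?_))
      ring

end htA

/-! ### frame vectors -/

/-- the vector with frame slots `z, c, A, B` -/
def v4 (z c A B : ℝ) : Fin 18 → ℝ :=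
  fun k => if k = 0 then z else if k = 1 then c else if k = 2 then A else if k = 3 then B else 0

/-- tops of the base window -/
def ntB : Fin 18 → ℕ := fun k => if k.val < 4 then 1 else 0

theorem mlW2 : mlW 2 = [[1, 0]] := by decide
theorem mlW3 : mlW 3 = [[1, 2], [1, 1, 0]] := by decide

theorem v4_0 (z c A B : ℝ) : v4 z c A B 0 = z := rfl
theorem v4_1 (z c A B : ℝ) : v4 z c A B 1 = c := rfl
theorem v4_2 (z c A B : ℝ) : v4 z c A B 2 = A := rfl
theorem v4_3 (z c A B : ℝ) : v4 z c A B 3 = B := rfl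
theorem v4_o (z c A B : ℝ) {k : Fin 18} (h : 4 ≤ k) : v4 z c A B k = 0 := by
  have h0 : k ≠ 0 := by rintro rfl; exact absurd h (by decide)
  have h1 : k ≠ 1 := by rintro rfl; exact absurd h (by decide)
  have h2 : k ≠ 2 := by rintro rfl; exact absurd h (by decide)
  have h3 : k ≠ 3 := by rintro rfl; exact absurd h (by decide)
  simp [v4, h0, h1, h2, h3]

theorem v4_nonneg {z c A B : ℝ} (hz : 0 ≤ z) (hc : 0 ≤ c) (hA : 0 ≤ A) (hB : 0 ≤ B)
    (k : Fin 18) : 0 ≤ v4 z c A B k := by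
  unfold v4; split_ifs <;> first | assumption | exact le_rfl

theorem cases4 {P : Fin 18 → Prop} (h0 : P 0) (h1 : P 1) (h2 : P 2) (h3 : P 3)
    (h4 : ∀ k : Fin 18, 4 ≤ k → P k) (k : Fin 18) : P k := by
  by_cases h : 4 ≤ k
  · exact h4 k h
  · have : k = 0 ∨ k = 1 ∨ k = 2 ∨ k = 3 := by
      revert h; revert k; decide
    rcases this with rfl | rfl | rfl | rfl <;> assumption

/-- walls of a frame vector -/
theorem v4_wall {z c A B : ℝ} (hz : 0 ≤ z) (hc : 0 ≤ c) (hA : 0 ≤ A) (hB : 0 ≤ B)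
    (h2 : A ≤ c + z) (h3 : B ≤ c + A) (h3' : B ≤ 2 * c + z) (k : Fin 18) :
    ∀ l ∈ mlW k, v4 z c A B k ≤ (l.map (v4 z c A B)).sum := by
  refine cases4 (P := fun k => ∀ l ∈ mlW k, v4 z c A B k ≤ (l.map (v4 z c A B)).sum) ?_ ?_ ?_ ?_
    ?_ k
  · intro l hl
    have : mlW 0 = [] := by decide
    rw [this] at hl; exact absurd hl (List.not_mem_nil)
  · intro l hl
    have : mlW 1 = [] := by decide
    rw [this] at hl; exact absurd hl (List.not_mem_nil)
  · intro l hl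
    rw [mlW2] at hl
    rw [List.mem_singleton.1 hl]
    simp only [List.map_cons, List.map_nil, List.sum_cons, List.sum_nil, v4_0, v4_1, v4_2]
    linarith
  · intro l hl
    rw [mlW3] at hl
    rcases List.mem_cons.1 hl with e | hl
    · rw [e]
      simp only [List.map_cons, List.map_nil, List.sum_cons, List.sum_nil, v4_3, v4_1, v4_2]
      linarith
    · rw [List.mem_singleton.1 hl]
      simp only [List.map_cons, List.map_nil, List.sum_cons, List.sum_nil, v4_3, v4_1, v4_0]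
      linarith
  · intro k hk l hl
    rw [v4_o _ _ _ _ hk]
    refine List.sum_nonneg fun x hx => ?_
    obtain ⟨i, _, rfl⟩ := List.mem_map.1 hx
    exact v4_nonneg hz hc hA hB i

theorem v4_mem {Ma : Mons 18} {Dr : Set (Fin 18)} (hM : ActM Ma Dr) {z c A B : ℝ} (hz : 0 ≤ z)
    (hc : 0 ≤ c) (hA : 0 ≤ A) (hB : 0 ≤ B) (h2 : A ≤ c + z) (h3 : B ≤ c + A)
    (h3' : B ≤ 2 * c + z) : v4 z c A B ∈ coneM Ma := by
  rw [hM.cone]
  exact fun k _ l hl _ => v4_wall hz hc hA hB h2 h3 h3' k l hl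

theorem v4_leg {Ma : Mons 18} {Dr : Set (Fin 18)} (hM : ActM Ma Dr) {c0 : Fin 18 → ℝ}
    {R z c A B : ℝ} (hz : 0 ≤ z) (hc : 0 ≤ c) (hA : 0 ≤ A) (hB : 0 ≤ B) (h2 : A ≤ c + z)
    (h3 : B ≤ c + A) (h3' : B ≤ 2 * c + z) (r0 : z ≤ R) (r1 : c ≤ R) (r2 : A ≤ R) (r3 : B ≤ R) :
    v4 z c A B ∈ Leg (offM Ma c0 R) R := by
  refine ⟨⟨v4_nonneg hz hc hA hB, fun k e he => ?_⟩, ?_⟩
  · obtain ⟨h1, _⟩ := mem_offM.1 he
    obtain ⟨hk, l, hl, hs, rfl⟩ := (hM.iff k e).1 h1
    rw [← sum_count]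
    exact v4_wall hz hc hA hB h2 h3 h3' k l hl
  · exact cases4 (P := fun k => v4 z c A B k ≤ R) r0 r1 r2 r3
      fun k hk => by rw [v4_o _ _ _ _ hk]; exact hz.trans r0

theorem scV_ntB (y : ℝ) : scV y ntB = v4 y y y y := by
  funext k
  refine cases4 (P := fun k => scV y ntB k = v4 y y y y k) ?_ ?_ ?_ ?_ ?_ k
  · simp [scV, ntB, v4_0]
  · simp [scV, ntB, v4_1]
  · simp [scV, ntB, v4_2]
  · simp [scV, ntB, v4_3]
  · intro k hk
    rw [v4_o _ _ _ _ hk]
    have : ¬ k.val < 4 := by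
      intro h
      have h' : (4 : Fin 18).val ≤ k.val := hk
      have h4 : (4 : Fin 18).val = 4 := rfl
      omega
    simp [scV, ntB, this]

theorem wdatB : WDat (fun _ => 0) ntB 1 {0} := by decide

theorem scV_zero (y : ℝ) : scV y (fun _ => 0) = 0 := by
  funext k; simp [scV]

/-- the boxes of the base window -/
theorem cutB {y : ℝ} {p : Fin 18 → ℝ} (h : ∀ k : Fin 18, 4 ≤ k → p k = 0) :
    cut {0} p (scV y ntB) = v4 y (p 1) (p 2) (p 3) := by
  funext k
  refine cases4 (P := fun k => cut {0} p (scV y ntB) k = v4 y (p 1) (p 2) (p 3) k) ?_ ?_ ?_ ?_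
    ?_ k
  · rw [cut_of_mem (by simp), scV_ntB, v4_0, v4_0]
  · rw [cut_of_notMem (by decide), v4_1]
  · rw [cut_of_notMem (by decide), v4_2]
  · rw [cut_of_notMem (by decide), v4_3]
  · intro k hk
    rw [cut_of_notMem (by rw [mem_singleton]; rintro rfl; exact absurd hk (by decide)),
      v4_o _ _ _ _ hk, h k hk]

/-! ### the base at one point -/

section pt

variable {B Bo : Base} {I J : ∀ n : ℕ, Finset (ℕ × ℝ)}
  {co : ∀ n : ℕ, ℕ × ℝ → ℕ × ℝ → Fin 18 → ℝ} {kp : ℕ → ℝ} {u : ℕ → Fin 18 → ℝ}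
  {F : ∀ n : ℕ, ℕ × ℝ → FW} {Ma : Mons 18} {Dr : Set (Fin 18)} {C : ℝ}
  {lam : (Fin 18 → ℝ) → ℝ} {a b : Fin 18 → ℝ} {A : ℝ × ℝ} {φ : ℕ → (Fin 18 → ℝ) → ℝ}
  {r : ℕ → ℝ} {κ : Fin 18 → ℝ} {V Tw : Fin 18 → Prop}

/-- **hypotheses of the base** (all true at the points of the rungs, `BasG.of_ptW`) -/
structure BasG (lam : (Fin 18 → ℝ) → ℝ) (Ma : Mons 18) (Dr : Set (Fin 18)) (a b : Fin 18 → ℝ)
    (V : Fin 18 → Prop) : Prop where
  Dr4 : ∀ k ∈ Dr, (4 : Fin 18) ≤ k
  V4 : ∀ k, V k → (4 : Fin 18) ≤ k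
  gz : ∀ j : Fin 18, gC a b j = gC a b 0 → 4 ≤ j ∨ j = 0
  gA : ∀ j : Fin 18, gC a b j = gC a b 2 → 4 ≤ j ∨ j = 2
  a0 : ∀ j : Fin 18, a j = 0 → 4 ≤ j ∨ j = 1
  /-- the slot `c` costs something -/
  sweep : ∃ mm : ℝ, 0 < mm ∧ ∀ c ∈ coneM Ma, c 1 = 0 → (∀ i, i ≠ 1 → a i = 0 → c i ≤ 0) →
    ∀ t : ℝ, 0 ≤ t → lam (c + t • e1W) ≤ lam c - mm * t

theorem ntB_zero {k : Fin 18} (hk : 4 ≤ k) : ntB k = 0 := by
  have : ¬ k.val < 4 := by
    intro h
    have h' : (4 : Fin 18).val ≤ k.val := hk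
    have h4 : (4 : Fin 18).val = 4 := rfl
    omega
  simp [ntB, this]

/-- the base window -/
theorem PtB.winB (h : PtB B Bo I J co kp u F Ma Dr C lam a b A φ r κ V Tw)
    (hG : BasG lam Ma Dr a b V) {y : ℝ} (hy : 0 < y) :
    ∃ (W : Wnd 18 fun _ => ℕ × ℝ) (E : ∀ n : ℕ, Finset (ℕ × ℝ)),
      WinB Ma Dr kp u F lam Tw (fun _ => 0) ntB 1 {0} y W E :=
  h.win wdatB hy (fun i j hij hi => by
    rw [mem_singleton] at hi
    subst hi
    rcases hG.gz j hij.symm with h1 | h1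
    · exact Or.inr (Or.inl (ntB_zero h1))
    · exact Or.inl (by rw [h1]; exact mem_singleton_self _)) (fun _ _ => rfl)
    fun k hk => Or.inr (ntB_zero (hG.V4 k hk))

section win

variable {W : Wnd 18 fun _ => ℕ × ℝ} {E : ∀ n : ℕ, Finset (ℕ × ℝ)} {y : ℝ}

theorem WinB.legB (g : WinB Ma Dr kp u F lam Tw (fun _ => 0) ntB 1 {0} y W E)
    (hM : ActM Ma Dr) {p : Fin 18 → ℝ} (hp : ∀ k : Fin 18, 4 ≤ k → p k = 0) (h0 : p 0 ≤ 0)
    (hy : 0 ≤ y) (hc : 0 ≤ p 1) (hA : 0 ≤ p 2) (hB : 0 ≤ p 3) (h2 : p 2 ≤ p 1 + y)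
    (h3 : p 3 ≤ p 1 + p 2) (h3' : p 3 ≤ 2 * p 1 + y) (r1 : p 1 ≤ y) (r2 : p 2 ≤ y)
    (r3 : p 3 ≤ y) : p ∈ W.legW := by
  constructor
  · rw [g.eS, g.etop, g.eMw, g.eR, cutB hp, Nat.cast_one, mul_one]
    exact v4_leg hM hy hc hA hB h2 h3 h3' le_rfl r1 r2 r3
  · intro s hs
    rw [g.etop, scV_ntB]
    revert hs
    refine cases4 (P := fun s => s ∉ W.S → p s ≤ v4 y y y y s) ?_ ?_ ?_ ?_ ?_ s
    · intro _; rw [v4_0]; exact h0.trans hy
    · intro _; exact r1
    · intro _; exact r2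
    · intro _; exact r3
    · intro k hk _
      rw [v4_o _ _ _ _ hk, hp k hk]

theorem WinB.nuB (g : WinB Ma Dr kp u F lam Tw (fun _ => 0) ntB 1 {0} y W E) {p : Fin 18 → ℝ}
    (hp : ∀ k : Fin 18, 4 ≤ k → p k = 0) :
    W.nu p = lam (v4 y (p 1) (p 2) (p 3)) - lam (v4 y y y y) := by
  unfold Wnd.nu
  rw [g.eS, g.etop, g.elam, cutB hp, scV_zero, scV_ntB]
  simp only [zero_add]
  ring

theorem WinB.tA (g : WinB Ma Dr kp u F lam Tw (fun _ => 0) ntB 1 {0} y W E)
    (hD : ∀ k ∈ Dr, (4 : Fin 18) ≤ k) (n : ℕ) : W.X n 2 = W.X n 1 + W.X n 0 := by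
  have := g.tight 2 (fun hm => absurd (hD 2 hm) (by decide)) [1, 0] (by decide)
    (fun s hs hm => by
      have := hD s hm
      have : s = 1 ∨ s = 0 := by simpa using hs
      rcases this with rfl | rfl
      · exact absurd (hD _ hm) (by decide)
      · exact absurd (hD _ hm) (by decide)) rfl n
  simpa using this

theorem WinB.tB (g : WinB Ma Dr kp u F lam Tw (fun _ => 0) ntB 1 {0} y W E)
    (hD : ∀ k ∈ Dr, (4 : Fin 18) ≤ k) (n : ℕ) : W.X n 3 = W.X n 1 + W.X n 2 := by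
  have := g.tight 3 (fun hm => absurd (hD 3 hm) (by decide)) [1, 2] (by decide)
    (fun s hs hm => by
      have : s = 1 ∨ s = 2 := by simpa using hs
      rcases this with rfl | rfl
      · exact absurd (hD _ hm) (by decide)
      · exact absurd (hD _ hm) (by decide)) rfl n
  simpa using this

theorem WinB.topB (g : WinB Ma Dr kp u F lam Tw (fun _ => 0) ntB 1 {0} y W E) :
    W.top 0 = y ∧ W.top 1 = y ∧ W.top 2 = y ∧ W.top 3 = y := by
  rw [g.etop, scV_ntB]
  exact ⟨rfl, rfl, rfl, rfl⟩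

end win

theorem b2z (t w : ℝ) {k : Fin 18} (hk : 4 ≤ k) : b2 (fun _ : Fin 18 => (0:ℝ)) 1 2 t w k = 0 := by
  have h1 : k ≠ 1 := by rintro rfl; exact absurd hk (by decide)
  have h2 : k ≠ 2 := by rintro rfl; exact absurd hk (by decide)
  simp [b2, h1, h2]

theorem bxz (X Fv N : ℝ) {k : Fin 18} (hk : 4 ≤ k) :
    bx (fun _ : Fin 18 => (0:ℝ)) 2 1 3 X Fv N k = 0 := by
  have h1 : k ≠ 1 := by rintro rfl; exact absurd hk (by decide)
  have h2 : k ≠ 2 := by rintro rfl; exact absurd hk (by decide)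
  have h3 : k ≠ 3 := by rintro rfl; exact absurd hk (by decide)
  simp [bx, h1, h2, h3]

theorem bx1 (X Fv N : ℝ) : bx (fun _ : Fin 18 => (0:ℝ)) 2 1 3 X Fv N 1 = Fv :=
  bx_F (by decide)
theorem bx2 (X Fv N : ℝ) : bx (fun _ : Fin 18 => (0:ℝ)) 2 1 3 X Fv N 2 = X := bx_X
theorem bx3 (X Fv N : ℝ) : bx (fun _ : Fin 18 => (0:ℝ)) 2 1 3 X Fv N 3 = N :=
  bx_N (by decide) (by decide)
theorem bx0 (X Fv N : ℝ) : bx (fun _ : Fin 18 => (0:ℝ)) 2 1 3 X Fv N 0 = 0 :=
  bx_o (by decide) (by decide) (by decide)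

/-- sweep on frame vectors -/
theorem BasG.sw (hG : BasG lam Ma Dr a b V) (hM : ActM Ma Dr) {x A' B' t : ℝ} (hx : 0 ≤ x)
    (hA : 0 ≤ A') (hB : 0 ≤ B') (h2 : A' ≤ x) (h3 : B' ≤ A') (ht : 0 < t) :
    lam (v4 x t A' B') < lam (v4 x 0 A' B') := by
  obtain ⟨mm, hm, H⟩ := hG.sweep
  have m1 : v4 x 0 A' B' ∈ coneM Ma :=
    v4_mem hM hx le_rfl hA hB (by linarith) (by linarith) (by linarith)
  have e : v4 x 0 A' B' + t • e1W = v4 x t A' B' := by
    funext k
    simp only [Pi.add_apply, Pi.smul_apply, smul_eq_mul]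
    by_cases h1 : k = 1
    · subst h1
      have : e1W 1 = 1 := by simp [e1W]
      rw [v4_1, v4_1, this]; ring
    · have : e1W k = 0 := by unfold e1W; rw [Pi.single_eq_of_ne h1]
      rw [this, mul_zero, add_zero]
      simp [v4, h1]
  have key := H _ m1 rfl (fun i hi hai => by
    rcases hG.a0 i hai with h1 | h1
    · rw [v4_o _ _ _ _ h1]
    · exact absurd h1 hi) t ht.le
  rw [e] at key
  nlinarith

/-- **`A` is full** -/
theorem PtB.fullA (h : PtB B Bo I J co kp u F Ma Dr C lam a b A φ r κ V Tw)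
    (hG : BasG lam Ma Dr a b V) {x : ℝ} (hx : 0 < x) :
    x ≤ lam (v4 x 0 0 0) - lam (v4 x 0 x 0) := by
  obtain ⟨W, E, g⟩ := h.winB hG hx
  obtain ⟨t0, t1, t2, t3⟩ := g.topB
  refine le_of_forall_pos_le_add fun j hj => ?_
  rcases le_or_gt x j with hxj | hxj
  · have := h.aew.anti _ (v4_mem h.act hx.le le_rfl le_rfl le_rfl (by linarith) (by linarith)
      (by linarith)) _ (v4_mem h.act (c := 0) (B := 0) hx.le le_rfl hx.le le_rfl (by linarith)
      (by linarith) (by linarith)) (show v4 x 0 0 0 ≤ v4 x 0 x 0 from fun k => by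
        unfold v4; split_ifs <;> linarith)
    linarith
  have key := height_pos_R g.mod (fun _ => (0:ℝ)) (sF := 1) (sN := 2) (by decide) hx le_rfl hj.le
    hxj.le
    (fun t h0 h1 => g.legB h.act (fun k hk => b2z _ _ hk) (by simp [b2]) hx.le
      (by simpa [b2] using h0) (by simpa [b2] using hx.le) (by simp [b2])
      (by simp [b2]; linarith) (by simp [b2]; linarith) (by simp [b2]; linarith)
      (by simpa [b2] using h1) (by simp [b2]) (by simpa [b2] using hx.le))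
    (fun t h0 h1 => g.legB h.act (fun k hk => b2z _ _ hk) (by simp [b2]) hx.le
      (by simpa [b2] using h0) (by simpa [b2] using h0) (by simp [b2])
      (by simp [b2]; linarith) (by simp [b2]; linarith) (by simp [b2]; linarith)
      (by simpa [b2] using h1) (by simpa [b2] using h1) (by simpa [b2] using hx.le))
    (htA' g.ww g.ev hx.le t0.ge t1.ge t2.ge (fun _ => le_rfl)
      (Eventually.of_forall fun n => g.tA hG.Dr4 n))
    (by
      rw [g.nuB fun k hk => b2z _ _ hk, g.nuB fun k hk => b2z _ _ hk]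
      have := hG.sw h.act (t := j) hx.le hx.le le_rfl le_rfl hx.le hj
      simp only [b2] at *
      simpa using this)
  have nu : ∀ t w : ℝ, W.nu (b2 (fun _ : Fin 18 => (0:ℝ)) 1 2 t w) =
      lam (v4 x t w 0) - lam (v4 x x x x) := by
    intro t w
    rw [g.nuB fun k hk => b2z _ _ hk, b2_F, b2_N (by decide), b2_o (by decide) (by decide)]
  rw [nu, nu] at key
  linarith

/-- **the base is full** -/
theorem PtB.full3 (h : PtB B Bo I J co kp u F Ma Dr C lam a b A φ r κ V Tw)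
    (hG : BasG lam Ma Dr a b V) {x : ℝ} (hx : 0 < x) : lam (v4 x 0 x x) ≤ -(3 * x) := by
  obtain ⟨W, E, g⟩ := h.winB hG hx
  obtain ⟨t0, t1, t2, t3⟩ := g.topB
  have m1 : v4 x 0 0 0 ∈ coneM Ma := v4_mem h.act hx.le le_rfl le_rfl le_rfl (by linarith)
    (by linarith) (by linarith)
  have m2 : v4 x 0 x x ∈ coneM Ma := v4_mem h.act hx.le le_rfl hx.le hx.le (by linarith)
    (by linarith) (by linarith)
  have hz : lam (v4 x 0 0 0) ≤ -x := by
    have := h.aew.own 0 zero_mem _ m1 (fun k => v4_nonneg hx.le le_rfl le_rfl le_rfl k)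
      fun k _ => by simp
    rw [h.aew.zero, v4_0, Pi.zero_apply] at this
    linarith
  have hA := h.fullA hG hx
  have hXf : x ≤ lam (v4 x x 0 x) - lam (v4 x x x x) := by
    refine hA.trans (le_of_eq ?_)
    refine h.slot (i := 2) m1 (v4_mem h.act hx.le le_rfl hx.le le_rfl (by linarith)
      (by linarith) (by linarith)) (v4_mem h.act hx.le hx.le le_rfl hx.le (by linarith)
      (by linarith) (by linarith)) (v4_mem h.act hx.le hx.le hx.le hx.le (by linarith)
      (by linarith) (by linarith)) ?_ ?_ rfl rfl ?_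
    · intro j hj _
      simp [v4, hj]
    · intro j hj _
      simp [v4, hj]
    · intro j hj hj2 _
      rcases hG.gA j hj with h1 | h1
      · rw [v4_o _ _ _ _ h1, v4_o _ _ _ _ h1]
      · exact absurd h1 hj2
  have key : ∀ j : ℝ, 0 < j → j ≤ x → 2 * x - j ≤ lam (v4 x 0 0 0) - lam (v4 x 0 x x) := by
    intro j hj hjx
    have leg : ∀ X Fv N : ℝ, 0 ≤ X → 0 ≤ Fv → 0 ≤ N → X ≤ x → Fv ≤ x → N ≤ x → N ≤ Fv + X →
        bx (fun _ : Fin 18 => (0:ℝ)) 2 1 3 X Fv N ∈ W.legW := by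
      intro X Fv N h1 h2 h3 h4 h5 h6 h7
      refine g.legB h.act (fun k hk => bxz _ _ _ hk) ?_ hx.le ?_ ?_ ?_ ?_ ?_ ?_ ?_ ?_ ?_
      · rw [bx0]
      · rw [bx1]; exact h2
      · rw [bx2]; exact h1
      · rw [bx3]; exact h3
      · rw [bx2, bx1]; linarith
      · rw [bx3, bx1, bx2]; exact h7
      · rw [bx3, bx1]; linarith
      · rw [bx1]; exact h5
      · rw [bx2]; exact h4
      · rw [bx3]; exact h6
    have nu : ∀ X Fv N : ℝ, W.nu (bx (fun _ : Fin 18 => (0:ℝ)) 2 1 3 X Fv N) =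
        lam (v4 x Fv X N) - lam (v4 x x x x) := by
      intro X Fv N
      rw [g.nuB fun k hk => bxz _ _ _ hk, bx1, bx2, bx3]
    have := baseB g.ww g.ev g.mod.toRUnif (fun _ => (0:ℝ)) hj.le hjx t0.ge g.hk
      (Eventually.of_forall fun n => g.tB hG.Dr4 n)
      { h0 := leg _ _ _ le_rfl le_rfl le_rfl hx.le hx.le hx.le (by linarith)
        hL := leg _ _ _ le_rfl hx.le hx.le hx.le le_rfl le_rfl (by linarith)
        hQ' := leg _ _ _ hx.le hx.le hx.le le_rfl le_rfl le_rfl (by linarith)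
        hQ := leg _ _ _ hx.le le_rfl hx.le le_rfl hx.le le_rfl (by linarith)
        hjj := leg _ _ _ le_rfl hj.le hj.le hx.le hjx hjx (by linarith)
        hQj := leg _ _ _ hx.le hj.le hx.le le_rfl hjx le_rfl (by linarith)
        hR := leg _ _ _ (by linarith) hx.le hx.le (by linarith) le_rfl le_rfl (by linarith) }
      (by rw [nu, nu]; linarith)
      (by
        rw [nu, nu]
        have := hG.sw h.act (t := j) hx.le hx.le hx.le le_rfl le_rfl hj
        linarith)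
    rw [nu, nu] at this
    linarith
  have h2 : 2 * x ≤ lam (v4 x 0 0 0) - lam (v4 x 0 x x) := by
    refine le_of_forall_pos_le_add fun j hj => ?_
    rcases le_or_gt j x with h1 | h1
    · have := key j hj h1; linarith
    · have := key x hx le_rfl; linarith
  linarith

/-! ### the end of a row -/

theorem no17 : ∀ k, ∀ l ∈ mlW k, (17 : Fin 18) ∉ l := by decide

/-- lowering the slot `N` is legal -/
theorem upd17_mem {Ma : Mons 18} {Dr : Set (Fin 18)} (hM : ActM Ma Dr) {c : Fin 18 → ℝ}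
    (hc : c ∈ coneM Ma) (h0 : ∀ k, 0 ≤ c k) : Function.update c 17 0 ∈ coneM Ma := by
  rw [hM.cone] at hc ⊢
  intro k hk l hl hs
  have e : l.map (Function.update c 17 0) = l.map c := by
    refine List.map_congr_left fun s hs' => ?_
    rw [Function.update_of_ne]
    rintro rfl
    exact no17 k l hl hs'
  rw [e]
  by_cases h : k = 17
  · subst h
    rw [Function.update_self]
    refine List.sum_nonneg fun x hx => ?_
    obtain ⟨i, _, rfl⟩ := List.mem_map.1 hx
    exact h0 i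
  · rw [Function.update_of_ne h]
    exact hc k hk l hl hs

/-- **end of a row** : `N` loses at least `s u - C` near the ray ⊢ full loss `3 + s` -/
theorem PtB.conc (h : PtB B Bo I J co kp u F Ma Dr C lam a b A φ r κ V Tw)
    (hG : BasG lam Ma Dr a b V) (hnat : ∀ t : ℝ, 0 ≤ t → t • a ∈ coneM Ma)
    (hnn : ∀ k, 0 ≤ a k) (h0 : a 0 = 1) (h2 : a 2 = 1) (h3 : a 3 = 1) {s Cc : ℝ}
    (hN : ∃ᶠ t : ℝ in atTop, s * t - Cc ≤ lam (Function.update (t • a) 17 0) - lam (t • a)) :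
    3 + s ≤ -A.1 := by
  refine full_of_ray h.aew.out (C := Cc) ((hN.and_eventually (eventually_gt_atTop 0)).mono ?_)
  rintro t ⟨ht, ht0⟩
  refine ⟨hnat t ht0.le, ?_⟩
  have m0 := hnat t ht0.le
  have m1 : Function.update (t • a) 17 0 ∈ coneM Ma := upd17_mem h.act m0 fun k => by
    simp only [Pi.smul_apply, smul_eq_mul]
    exact mul_nonneg ht0.le (hnn k)
  have m2 : v4 t 0 t t ∈ coneM Ma := v4_mem h.act ht0.le le_rfl ht0.le ht0.le (by linarith)
    (by linarith) (by linarith)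
  have hle : v4 t 0 t t ≤ Function.update (t • a) 17 0 := by
    intro k
    by_cases hk : k = 17
    · subst hk
      rw [Function.update_self, v4_o _ _ _ _ (by decide)]
    · rw [Function.update_of_ne hk]
      simp only [Pi.smul_apply, smul_eq_mul]
      refine cases4 (P := fun k => v4 t 0 t t k ≤ t * a k) ?_ ?_ ?_ ?_ ?_ k
      · rw [v4_0, h0, mul_one]
      · rw [v4_1]; exact mul_nonneg ht0.le (hnn 1)
      · rw [v4_2, h2, mul_one]
      · rw [v4_3, h3, mul_one]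
      · intro k hk
        rw [v4_o _ _ _ _ hk]; exact mul_nonneg ht0.le (hnn k)
  have e1 := h.aew.anti _ m2 _ m1 hle
  have e2 := h.full3 hG ht0
  linarith

end pt

/-! ### the hypotheses at the points of the rungs -/

section ptW

open Crest.Agent.R136.NatW697 (KW)

variable {B : Base} {I J : ∀ n : ℕ, Finset (ℕ × ℝ)}
  {co : ∀ n : ℕ, ℕ × ℝ → ℕ × ℝ → Fin 18 → ℝ} {θ q : Fin 3 → ℝ} {V T : Fin 18 → Prop} {s : ℝ}
  {lam lo : (Fin 18 → ℝ) → ℝ} {A : ℝ × ℝ} {φ : ℕ → (Fin 18 → ℝ) → ℝ} {r : ℕ → ℝ}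

theorem btW_val (θ : Fin 3 → ℝ) (k : Fin 18) :
    btW θ k = wz k - wc k * θ 1 + wn k * (1 - θ 0) := by
  rw [btW_grW]; simp only [grW]; ring

theorem btW0 (θ : Fin 3 → ℝ) : btW θ 0 = 1 := by
  rw [btW_val, show wz 0 = 1 from rfl, show wc 0 = 0 from rfl, show wn 0 = 0 from rfl]
  push_cast; ring

theorem btW2 (θ : Fin 3 → ℝ) : btW θ 2 = 1 - θ 1 := by
  rw [btW_val, show wz 2 = 1 from rfl, show wc 2 = 1 from rfl, show wn 2 = 0 from rfl]
  push_cast; ring

theorem btW3 (θ : Fin 3 → ℝ) : btW θ 3 = 1 - 2 * θ 1 := by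
  rw [btW_val, show wz 3 = 1 from rfl, show wc 3 = 2 from rfl, show wn 3 = 0 from rfl]
  push_cast; ring

/-- **the hypotheses of the base hold at the points of the rungs** -/
theorem BasG.of_ptW (h : ThA830.PtW B I J co θ q V T s lam lo A φ r) (hθ : 0 < θ 1)
    (hq1 : 0 < q 1) (hq2 : 0 < q 2) (hV : ∀ k, V k → (4 : Fin 18) ≤ k) :
    BasG lam (mA monW (actW (DrW s))) (DrW s) (TW s) (btW θ) (fun k => V k ∧ KW θ k = s) where
  Dr4 := fun k hk => hk.1
  V4 := fun k hk => hV k hk.1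
  gz := by
    intro j
    have z1 : TW s 0 ≠ 0 := by rw [TW_z]; exact one_ne_zero
    refine cases4 (P := fun j => gC (TW s) (btW θ) j = gC (TW s) (btW θ) 0 → 4 ≤ j ∨ j = 0) ?_ ?_
      ?_ ?_ ?_ j
    · intro _; exact Or.inr rfl
    · intro e
      rw [gC_zero.2 (TW_c s)] at e
      exact absurd (gC_zero.1 e.symm) z1
    · intro e
      rw [gC_eq (by rw [TW_A]; exact one_ne_zero) z1, TW_A, TW_z, btW0, btW2] at e
      linarith
    · intro e
      rw [gC_eq (by rw [TW_B]; exact one_ne_zero) z1, TW_B, TW_z, btW0, btW3] at e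
      linarith
    · intro k hk _; exact Or.inl hk
  gA := by
    intro j
    have z1 : TW s 2 ≠ 0 := by rw [TW_A]; exact one_ne_zero
    refine cases4 (P := fun j => gC (TW s) (btW θ) j = gC (TW s) (btW θ) 2 → 4 ≤ j ∨ j = 2) ?_ ?_
      ?_ ?_ ?_ j
    · intro e
      rw [gC_eq (by rw [TW_z]; exact one_ne_zero) z1, TW_A, TW_z, btW0, btW2] at e
      linarith
    · intro e
      rw [gC_zero.2 (TW_c s)] at e
      exact absurd (gC_zero.1 e.symm) z1
    · intro _; exact Or.inr rfl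
    · intro e
      rw [gC_eq (by rw [TW_B]; exact one_ne_zero) z1, TW_B, TW_A, btW3, btW2] at e
      linarith
    · intro k hk _; exact Or.inl hk
  a0 := by
    intro j
    refine cases4 (P := fun j => TW s j = 0 → 4 ≤ j ∨ j = 1) ?_ ?_ ?_ ?_ ?_ j
    · rw [TW_z]; intro e; exact absurd e one_ne_zero
    · intro _; exact Or.inr rfl
    · rw [TW_A]; intro e; exact absurd e one_ne_zero
    · rw [TW_B]; intro e; exact absurd e one_ne_zero
    · intro k hk _; exact Or.inl hk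
  sweep := by
    refine ⟨q 1 + 2 * q 2, by linarith, fun c hc h1 h2 t ht => ?_⟩
    rw [coneM_mA] at hc
    exact h.sweep c hc h1 h2 t ht

/-- the ray is natural -/
theorem ray_mem (s : ℝ) (t : ℝ) : t • TW s ∈ coneM (mA monW (actW (DrW s))) := by
  refine (actM_mA (DrW s)).congr (c := t • NatW697.saW s) (fun i hi => ?_) ?_
  · simp only [Pi.smul_apply, TW_of_not hi]
  · rw [coneM_mA]
    exact ((nat_saW _ s).smul t).mem

theorem TW_nonneg {s : ℝ} (hs : 0 ≤ s) (k : Fin 18) : 0 ≤ TW s k := by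
  refine cases4 (P := fun k => 0 ≤ TW s k) ?_ ?_ ?_ ?_ ?_ k
  · rw [TW_z]; exact zero_le_one
  · rw [TW_c]
  · rw [TW_A]; exact zero_le_one
  · rw [TW_B]; exact zero_le_one
  · intro k hk
    by_cases hD : k ∈ DrW s
    · rw [TW, if_pos hD]; exact zero_le_one
    · rw [TW_flag hk hD]
      have : ¬ (s < alW k) := fun e => hD ⟨hk, e⟩
      linarith [not_lt.1 this]

variable {kp : ℕ → ℝ} {u : ℕ → Fin 18 → ℝ} {F : ∀ n : ℕ, ℕ × ℝ → FW}

/-- **end of a row, `PtW` form** -/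
theorem conc_ptW (h : ThA830.PtW B I J co θ q V T s lam lo A φ r) (ch : ChW B I J co kp u F)
    (hθ : 0 < θ 1) (hq1 : 0 < q 1) (hq2 : 0 < q 2) (hV : ∀ k, V k → (4 : Fin 18) ≤ k) {x Cc : ℝ}
    (hN : ∃ᶠ t : ℝ in atTop,
      x * t - Cc ≤ lam (Function.update (t • TW s) 17 0) - lam (t • TW s)) :
    3 + x ≤ -A.1 :=
  (PtB.of_ptW h ch).conc (BasG.of_ptW h hθ hq1 hq2 hV) (fun t _ => ray_mem s t)
    (TW_nonneg h.s0.le) (TW_z s) (TW_A s) (TW_B s) hN

/-- **the base, `PtW` form** -/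
theorem base_ptW (h : ThA830.PtW B I J co θ q V T s lam lo A φ r) (ch : ChW B I J co kp u F)
    (hθ : 0 < θ 1) (hq1 : 0 < q 1) (hq2 : 0 < q 2) (hV : ∀ k, V k → (4 : Fin 18) ≤ k) {x : ℝ}
    (hx : 0 < x) : lam (v4 x 0 x x) ≤ -(3 * x) ∧ x ≤ lam (v4 x 0 0 0) - lam (v4 x 0 x 0) :=
  ⟨(PtB.of_ptW h ch).full3 (BasG.of_ptW h hθ hq1 hq2 hV) hx,
    (PtB.of_ptW h ch).fullA (BasG.of_ptW h hθ hq1 hq2 hV) hx⟩

end ptW

end Crest.Agent.R136.Bas938
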