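import Crest.Agent.R136.RowW_619

/-!
# R136: rows of the evolution in the configuration (helper619)

`a = ownC W n i k k'` own motion of `i`, `b = rel k i l`.

* `evo_row` : `rel k' i l (4+q)` = `b (4+q)` + live monomials of (`b` off `S`, `shF a`) - live
  monomials of (`a` on `S`, `evF a b`), up to `CX (ρ^t + η)`.
* `own_row` : the same for the own motion of `l` (level slots).
* `rev_row` : own motion of the way back.
* `cshift_row` : all line slots of `b` narrow except `c` (slot 1): `rel k' i l (4+q) = φ c`,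
  `φ = phiC`.
-/

set_option autoImplicit false
set_option linter.unusedSectionVars false
set_option linter.unusedVariables false

open Filter Topology

namespace Crest.Agent.R136.RowW619

open Finset Crest.Agent.R136.NetW191 Crest.Agent.R136.Net191 Crest.Agent.R136.Qg926
open Crest.Agent.R136.EvW938
open Crest.Agent.R138.Ex926 (Base U)

variable {ι : ℕ → Type*} [∀ n, DecidableEq (ι n)] {W : Wnd 18 ι} {κ : ℕ → ℝ}
  {lam : ℕ → Fin 18 → ℝ} {f : ∀ n, ι n → FW}

/-- a bound of the evolved frames -/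
noncomputable def ME (W : Wnd 18 ι) : ℝ := 2 * CfW W * MW W ^ 3

/-- the constant of the rows -/
noncomputable def CX (W : Wnd 18 ι) : ℝ :=
  CW W.K0 * MW W + 134 * (CfW W * ME W ^ 7)

/-- `b` off the level slots -/
def offV (S : Finset (Fin 18)) (b : Fin 18 → ℝ) : Fin 18 → ℝ := fun s => if s ∈ S then 0 else b s

/-- `a` on the level slots -/
def onV (S : Finset (Fin 18)) (a : Fin 18 → ℝ) : Fin 18 → ℝ := fun s => if s ∈ S then a s else 0

section rows

variable (h : WWnd W κ lam f)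

include h

theorem MW_ME : 1 ≤ ME W ∧ MW W ≤ ME W := by
  have hM := (MW_le h).1
  have hC := (CfW_le h).1
  have h3 : MW W ≤ MW W ^ 3 := by
    calc MW W = MW W ^ 1 := (pow_one _).symm
      _ ≤ _ := pow_le_pow_right₀ hM (by norm_num)
  unfold ME
  constructor <;> nlinarith

theorem CX_pos : 0 ≤ CX W ∧ CW W.K0 * MW W ≤ CX W ∧ 134 * (CfW W * ME W ^ 7) ≤ CX W := by
  have hM := (MW_le h).1
  have hC := (CfW_le h).1
  have hE := (MW_ME h).1
  have h1 : 0 ≤ CW W.K0 * MW W := by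
    have := (CW_pos h.ok.K0_one).le
    have : 0 ≤ MW W := by linarith
    positivity
  have h2 : 0 ≤ 134 * (CfW W * ME W ^ 7) := by
    have : 0 ≤ CfW W := by linarith
    have : 0 ≤ ME W := by linarith
    positivity
  unfold CX
  exact ⟨by linarith, by linarith, by linarith⟩

/-- bound of the evolved frame -/
theorem evF_ME {n : ℕ} (g : W.Good n) {a b : Fin 18 → ℝ} (ha : |a 0| ≤ MW W)
    (hb : ∀ s, |b s| ≤ MW W) (i : Fin 4) :
    |evF W κ lam n a b (Fin.castAdd 14 i)| ≤ ME W := by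
  have hM := (MW_le h).1
  have hC := (CfW_le h).1
  have hk := h.hκ n
  have hM0 : 0 ≤ MW W := by linarith
  have hC0 : 0 ≤ CfW W := by linarith
  have hME := (MW_ME h).2
  fin_cases i
  · show |evF W κ lam n a b 0| ≤ ME W
    simp only [evF, if_true, abs_zero]
    linarith [(MW_ME h).1]
  · show |evF W κ lam n a b 1| ≤ ME W
    have e1 : evF W κ lam n a b 1 = b 1 := by
      unfold evF
      rw [if_neg (by decide), h.evoC1]
    rw [e1]
    exact (hb 1).trans hME
  · show |evF W κ lam n a b 2| ≤ ME W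
    have e1 : evF W κ lam n a b 2 = b 2 + cfl W lam n [1, 0] 2 * (a 0 * b 1) := by
      unfold evF
      rw [if_neg (by decide), h.evoC2]
    rw [e1]
    have h1 : |cfl W lam n [1, 0] 2 * (a 0 * b 1)| ≤ CfW W * (MW W * MW W) := by
      rw [abs_mul, abs_mul, abs_of_pos (h.cfl_pos n _ _)]
      exact mul_le_mul (cfl2_CfW h g) (mul_le_mul ha (hb 1) (abs_nonneg _) hM0)
        (mul_nonneg (abs_nonneg _) (abs_nonneg _)) hC0
    refine (abs_add_le _ _).trans ((add_le_add (hb 2) h1).trans ?_)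
    unfold ME
    have h2 : MW W * MW W ≤ MW W ^ 3 := by
      rw [← sq]; exact pow_le_pow_right₀ hM (by norm_num)
    have h3 : MW W ≤ MW W ^ 3 := by
      calc MW W = MW W ^ 1 := (pow_one _).symm
        _ ≤ _ := pow_le_pow_right₀ hM (by norm_num)
    have h4 := mul_le_mul_of_nonneg_left h2 hC0
    have h5 : MW W ^ 3 ≤ CfW W * MW W ^ 3 := le_mul_of_one_le_left (by positivity) hC
    linarith
  · show |evF W κ lam n a b 3| ≤ ME W
    have e1 : evF W κ lam n a b 3 = b 3 - κ n * cfl W lam n [1, 1, 0] 3 * (a 0 * b 1 ^ 2) := by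
      unfold evF
      rw [if_neg (by decide), h.evoC3]
    rw [e1]
    have h1 : |κ n * cfl W lam n [1, 1, 0] 3 * (a 0 * b 1 ^ 2)| ≤
        (1 * CfW W) * (MW W * MW W ^ 2) := by
      rw [abs_mul, abs_mul, abs_mul, abs_pow, abs_of_pos (h.cfl_pos n _ _)]
      refine mul_le_mul (mul_le_mul hk (cfl3'_CfW h g) (h.cfl_pos n _ _).le zero_le_one)
        (mul_le_mul ha (pow_le_pow_left₀ (abs_nonneg _) (hb 1) 2) (by positivity) hM0)
        (mul_nonneg (abs_nonneg _) (by positivity)) (by linarith)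
    refine (abs_sub _ _).trans ((add_le_add (hb 3) h1).trans ?_)
    unfold ME
    have h3 : MW W ≤ MW W ^ 3 := by
      calc MW W = MW W ^ 1 := (pow_one _).symm
        _ ≤ _ := pow_le_pow_right₀ hM (by norm_num)
    have h5 : MW W ^ 3 ≤ CfW W * MW W ^ 3 := le_mul_of_one_le_left (by positivity) hC
    have h6 : (1 * CfW W) * (MW W * MW W ^ 2) = CfW W * MW W ^ 3 := by ring
    rw [h6]
    linarith

theorem shF_ME {a : Fin 18 → ℝ} (ha : |a 0| ≤ MW W) (s : Fin 18) : |shF a s| ≤ ME W := by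
  unfold shF
  split_ifs
  · exact ha.trans (MW_ME h).2
  · rw [abs_zero]; linarith [(MW_ME h).1]

theorem offV_ME {S : Finset (Fin 18)} {b : Fin 18 → ℝ} (hb : ∀ s, |b s| ≤ MW W) (s : Fin 18) :
    |offV S b s| ≤ ME W := by
  unfold offV
  split_ifs
  · rw [abs_zero]; linarith [(MW_ME h).1]
  · exact (hb s).trans (MW_ME h).2

theorem onV_ME {S : Finset (Fin 18)} {b : Fin 18 → ℝ} (hb : ∀ s, |b s| ≤ MW W) (s : Fin 18) :
    |onV S b s| ≤ ME W := by
  unfold onV
  split_ifs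
  · exact (hb s).trans (MW_ME h).2
  · rw [abs_zero]; linarith [(MW_ME h).1]

/-- **the row of `evoC` with live monomials** -/
theorem evoC_row {n : ℕ} (g : W.Good n) {a b : Fin 18 → ℝ} (ha : ∀ s, |a s| ≤ MW W)
    (hb : ∀ s, |b s| ≤ MW W) (q : Fin 14) {N1 N2 : Finset (Fin 18)} {η : ℝ} (hη : 0 ≤ η)
    (h0 : (0 : Fin 18) ∉ N1)
    (hb1 : ∀ q' : Fin 14, Fin.natAdd 4 q' ∈ N1 → Fin.natAdd 4 q' ∉ W.S →
      |b (Fin.natAdd 4 q')| ≤ η)
    (ha2 : ∀ q' : Fin 14, Fin.natAdd 4 q' ∈ N2 → Fin.natAdd 4 q' ∈ W.S →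
      |a (Fin.natAdd 4 q')| ≤ η)
    (hf2 : ∀ i : Fin 4, i ≠ 0 → Fin.castAdd 14 i ∈ N2 →
      |evF W κ lam n a b (Fin.castAdd 14 i)| ≤ η) :
    |evoC W κ lam n a b (Fin.natAdd 4 q) -
      ((offV W.S b (Fin.natAdd 4 q) + ((live N1 q).map
        (tmN W κ lam n q (offV W.S b) (shF a))).sum) -
      (onV W.S a (Fin.natAdd 4 q) + ((live N2 q).map
        (tmN W κ lam n q (onV W.S a) (evF W κ lam n a b))).sum))| ≤
      134 * (CfW W * (ME W ^ 6 * η)) := by
  have hE := (MW_ME h).1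
  have hC := (CfW_le h).1
  have hz : |(0 : ℝ)| ≤ η := by rw [abs_zero]; exact hη
  have k1 := row_live h q N1 (b := offV W.S b) (c := shF a) hE hη (by linarith)
    (fun t ht => cfl_CfW h g ht) (fun i => shF_ME h (ha 0) _) (fun q => offV_ME h hb _)
    (fun i hi => by
      have : (Fin.castAdd 14 i : Fin 18) ≠ 0 := by rintro he; rw [he] at hi; exact h0 hi
      unfold shF
      rw [if_neg this]; exact hz)
    (fun q' hq' => by
      unfold offV
      split_ifs with hm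
      · exact hz
      · exact hb1 _ hq' hm)
  have k2 := row_live h q N2 (b := onV W.S a) (c := evF W κ lam n a b) hE hη (by linarith)
    (fun t ht => cfl_CfW h g ht) (fun i => evF_ME h g (ha 0) hb i) (fun q => onV_ME h ha _)
    (fun i hi => by
      by_cases h0' : i = 0
      · subst h0'
        show |evF W κ lam n a b 0| ≤ η
        simp only [evF, if_true]; exact hz
      · exact hf2 i h0' hi)
    (fun q' hq' => by
      unfold onV
      split_ifs with hm
      · exact ha2 _ hq' hm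
      · exact hz)
  have e := evo_flag h n a b q
  have e1 : (if Fin.natAdd 4 q ∈ W.S then (0 : ℝ) else b (Fin.natAdd 4 q)) =
      offV W.S b (Fin.natAdd 4 q) := rfl
  have e2 : (if Fin.natAdd 4 q ∈ W.S then a (Fin.natAdd 4 q) else (0 : ℝ)) =
      onV W.S a (Fin.natAdd 4 q) := rfl
  have e3 : (fun s => if s ∈ W.S then (0 : ℝ) else b s) = offV W.S b := rfl
  have e4 : (fun s => if s ∈ W.S then a s else (0 : ℝ)) = onV W.S a := rfl
  rw [e1, e2, e3, e4] at e
  rw [e]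
  have e5 : ∀ x y z w u v : ℝ, (x + y) - (z + w) - ((x + u) - (z + v)) = (y - u) - (w - v) := by
    intros; ring
  rw [e5]
  refine (abs_sub _ _).trans ?_
  have e6 : 134 * (CfW W * (ME W ^ 6 * η)) = 67 * (CfW W * (ME W ^ 6 * η)) +
      67 * (CfW W * (ME W ^ 6 * η)) := by ring
  rw [e6]
  exact add_le_add k1 k2

theorem CX_row {η τ : ℝ} (hη : 0 ≤ η) (hτ : 0 ≤ τ) {s : Fin 18} :
    CW W.K0 * τ / W.kap s + 134 * (CfW W * (ME W ^ 6 * η)) ≤ CX W * (τ + η) := by
  obtain ⟨c0, c1, c2⟩ := CX_pos h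
  have hM := (MW_le h).2 s
  have hK := h.ok.K0_one
  have hk := h.ok.kap s
  have hE := (MW_ME h).1
  have hC := (CfW_le h).1
  have hCW := (CW_pos h.ok.K0_one).le
  have h1 : 1 / W.kap s ≤ MW W := by
    refine le_trans ?_ hM
    exact div_le_div_of_nonneg_right hK hk.le
  have h2 : CW W.K0 * τ / W.kap s ≤ CX W * τ := by
    calc CW W.K0 * τ / W.kap s = CW W.K0 * (1 / W.kap s) * τ := by ring
      _ ≤ CW W.K0 * MW W * τ :=
        mul_le_mul_of_nonneg_right (mul_le_mul_of_nonneg_left h1 hCW) hτ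
      _ ≤ _ := mul_le_mul_of_nonneg_right c1 hτ
  have h3 : 134 * (CfW W * (ME W ^ 6 * η)) ≤ CX W * η := by
    have h4 : ME W ^ 6 ≤ ME W ^ 7 := pow_le_pow_right₀ hE (by norm_num)
    have h5 := mul_le_mul_of_nonneg_left h4 (show 0 ≤ CfW W by linarith)
    have h6 : 134 * (CfW W * (ME W ^ 6 * η)) = 134 * (CfW W * ME W ^ 6) * η := by ring
    rw [h6]
    refine mul_le_mul_of_nonneg_right ?_ hη
    linarith
  rw [mul_add]
  exact add_le_add h2 h3

theorem own_MW' {n : ℕ} (g : W.Good n) {E : Finset (ι n)} (hE : E ⊆ W.Cl n) {i k k' : ℕ}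
    (hi : (i, k) ∈ (W.cfg0 n E).I) (hi' : (i, k') ∈ (W.cfg0 n E).I) (s : Fin 18) :
    |ownC W n i k k' s| ≤ MW W := (h.own_le g hE hi hi' s).trans ((MW_le h).2 s)

theorem rel_MW' {n : ℕ} (g : W.Good n) {E : Finset (ι n)} (hE : E ⊆ W.Cl n) {i l k : ℕ}
    (hi : (i, k) ∈ (W.cfg0 n E).I) (hl : (l, k) ∈ (W.cfg0 n E).I) (s : Fin 18) :
    |(W.cfg0 n E).rel k i l s| ≤ MW W := (h.rel_le g hE hi hl s).trans ((MW_le h).2 s)

/-- **the row of the evolution in the configuration** -/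
theorem evo_row {n : ℕ} (g : W.Good n) {E : Finset (ι n)} (hE : E ⊆ W.Cl n) {i l k k' : ℕ}
    (hi : (i, k) ∈ (W.cfg0 n E).I) (hi' : (i, k') ∈ (W.cfg0 n E).I)
    (hl : (l, k) ∈ (W.cfg0 n E).I) (hl' : (l, k') ∈ (W.cfg0 n E).I)
    {t : ℝ} (ht : ∀ s, t ≤ W.top s) {q : Fin 14} (hq : Fin.natAdd 4 q ∉ W.S)
    {N1 N2 : Finset (Fin 18)} {η : ℝ} (hη : 0 ≤ η) (h0 : (0 : Fin 18) ∉ N1)
    (hb1 : ∀ q' : Fin 14, Fin.natAdd 4 q' ∈ N1 → Fin.natAdd 4 q' ∉ W.S →
      |(W.cfg0 n E).rel k i l (Fin.natAdd 4 q')| ≤ η)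
    (ha2 : ∀ q' : Fin 14, Fin.natAdd 4 q' ∈ N2 → Fin.natAdd 4 q' ∈ W.S →
      |ownC W n i k k' (Fin.natAdd 4 q')| ≤ η)
    (hf2 : ∀ i' : Fin 4, i' ≠ 0 → Fin.castAdd 14 i' ∈ N2 →
      |evF W κ lam n (ownC W n i k k') ((W.cfg0 n E).rel k i l) (Fin.castAdd 14 i')| ≤ η) :
    |(W.cfg0 n E).rel k' i l (Fin.natAdd 4 q) -
      ((W.cfg0 n E).rel k i l (Fin.natAdd 4 q) + ((live N1 q).map
        (tmN W κ lam n q (offV W.S ((W.cfg0 n E).rel k i l)) (shF (ownC W n i k k')))).sum -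
      ((live N2 q).map (tmN W κ lam n q (onV W.S (ownC W n i k k'))
        (evF W κ lam n (ownC W n i k k') ((W.cfg0 n E).rel k i l)))).sum)| ≤
      CX W * (W.B'.d n ^ t + η) := by
  have e1 := h.evo_cfg g hE hi hi' hl hl' ht (Fin.natAdd 4 q) hq
  have e2 := evoC_row h g (own_MW' h g hE hi hi') (rel_MW' h g hE hi hl) q hη h0 hb1 ha2 hf2
  have e3 : offV W.S ((W.cfg0 n E).rel k i l) (Fin.natAdd 4 q) =
      (W.cfg0 n E).rel k i l (Fin.natAdd 4 q) := if_neg hq
  have e4 : onV W.S (ownC W n i k k') (Fin.natAdd 4 q) = 0 := if_neg hq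
  rw [e3, e4, zero_add] at e2
  refine le_trans ?_ (CX_row h hη (Real.rpow_nonneg (W.B'.pos n).le t)
    (s := Fin.natAdd 4 q))
  refine le_trans (le_of_eq ?_) ((abs_add_le _ _).trans (add_le_add e1 e2))
  congr 1
  ring

/-- **the row of the own motion of another line** -/
theorem own_row {n : ℕ} (g : W.Good n) {E : Finset (ι n)} (hE : E ⊆ W.Cl n) {i l k k' : ℕ}
    (hi : (i, k) ∈ (W.cfg0 n E).I) (hi' : (i, k') ∈ (W.cfg0 n E).I)
    (hl : (l, k) ∈ (W.cfg0 n E).I) (hl' : (l, k') ∈ (W.cfg0 n E).I)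
    {t : ℝ} (ht : ∀ s, t ≤ W.top s) {q : Fin 14} (hq : Fin.natAdd 4 q ∈ W.S)
    {N1 N2 : Finset (Fin 18)} {η : ℝ} (hη : 0 ≤ η) (h0 : (0 : Fin 18) ∉ N1)
    (hb1 : ∀ q' : Fin 14, Fin.natAdd 4 q' ∈ N1 → Fin.natAdd 4 q' ∉ W.S →
      |(W.cfg0 n E).rel k i l (Fin.natAdd 4 q')| ≤ η)
    (ha2 : ∀ q' : Fin 14, Fin.natAdd 4 q' ∈ N2 → Fin.natAdd 4 q' ∈ W.S →
      |ownC W n i k k' (Fin.natAdd 4 q')| ≤ η)
    (hf2 : ∀ i' : Fin 4, i' ≠ 0 → Fin.castAdd 14 i' ∈ N2 →
      |evF W κ lam n (ownC W n i k k') ((W.cfg0 n E).rel k i l) (Fin.castAdd 14 i')| ≤ η) :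
    |ownC W n l k k' (Fin.natAdd 4 q) -
      (ownC W n i k k' (Fin.natAdd 4 q) +
      ((live N2 q).map (tmN W κ lam n q (onV W.S (ownC W n i k k'))
        (evF W κ lam n (ownC W n i k k') ((W.cfg0 n E).rel k i l)))).sum -
      ((live N1 q).map
        (tmN W κ lam n q (offV W.S ((W.cfg0 n E).rel k i l)) (shF (ownC W n i k k')))).sum)| ≤
      CX W * (W.B'.d n ^ t + η) := by
  have e1 := h.own_cfg g hE hi hi' hl hl' ht q hq
  have e2 := evoC_row h g (own_MW' h g hE hi hi') (rel_MW' h g hE hi hl) q hη h0 hb1 ha2 hf2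
  have e3 : offV W.S ((W.cfg0 n E).rel k i l) (Fin.natAdd 4 q) = 0 := if_pos hq
  have e4 : onV W.S (ownC W n i k k') (Fin.natAdd 4 q) = ownC W n i k k' (Fin.natAdd 4 q) :=
    if_pos hq
  rw [e3, e4, zero_add] at e2
  refine le_trans ?_ (CX_row h hη (Real.rpow_nonneg (W.B'.pos n).le t)
    (s := Fin.natAdd 4 q))
  refine le_trans (le_of_eq ?_) ((abs_sub _ _).trans (add_le_add e1 e2))
  congr 1
  ring

/-! ### the way back -/

theorem crd_self {n : ℕ} (g : W.Good n) {x : ι n} (hx : x ∈ W.Cl n) (s : Fin 18) :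
    W.crd n x x s = 0 := by
  have e1 := h.crd_eq g hx hx s
  have e2 : coW (κ n) (f n x) (f n x) s = 0 :=
    (chartW (W.I n) (f n) (h.hκ n)).refl x (g.clI hx) s
  rw [e2] at e1
  have := (h.un_pos n s).ne'
  rcases mul_eq_zero.1 e1.symm with h1 | h1
  · exact absurd h1 this
  · exact h1

/-- **own motion of the way back** -/
theorem rev_row {n : ℕ} (g : W.Good n) {E : Finset (ι n)} (hE : E ⊆ W.Cl n) {i k k' : ℕ}
    (hi : (i, k) ∈ (W.cfg0 n E).I) (hi' : (i, k') ∈ (W.cfg0 n E).I)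
    {t : ℝ} (ht : ∀ s, t ≤ W.top s) (q : Fin 14) {N : Finset (Fin 18)} {η : ℝ} (hη : 0 ≤ η)
    (htη : MW W * W.B'.d n ^ t ≤ η) (h0 : (0 : Fin 18) ∉ N)
    (ha : ∀ q' : Fin 14, Fin.natAdd 4 q' ∈ N → Fin.natAdd 4 q' ∈ W.S →
      |ownC W n i k k' (Fin.natAdd 4 q')| ≤ η) :
    ownC W n i k' k 0 = -ownC W n i k k' 0 ∧
    |ownC W n i k' k (Fin.natAdd 4 q) + ownC W n i k k' (Fin.natAdd 4 q) +
      ((live N q).map (tmN W κ lam n q (ownC W n i k k') (ownC W n i k' k))).sum| ≤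
      67 * (CfW W * (ME W ^ 6 * η)) := by
  obtain ⟨a1, a2, a3⟩ := Wnd.rep_of_mem hE hi
  obtain ⟨b1, b2, b3⟩ := Wnd.rep_of_mem hE hi'
  have hll : W.lc n (W.rep n i k) = W.lc n (W.rep n i k') := a2.trans b2.symm
  constructor
  · have e := comp0 h g a1 b1 a1
    rw [crd_self h g a1] at e
    unfold ownC
    linarith
  · have e := comp_flag h g a1 b1 a1 q
    rw [crd_self h g a1] at e
    have hE' := (MW_ME h).1
    have key := row_live h q N (b := ownC W n i k k') (c := ownC W n i k' k) hE' hη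
      (by linarith [(CfW_le h).1]) (fun t ht => cfl_CfW h g ht)
      (fun i' => (own_MW' h g hE hi' hi _).trans (MW_ME h).2)
      (fun q' => (own_MW' h g hE hi hi' _).trans (MW_ME h).2)
      (fun i' hi'' => by
        have hne : (Fin.castAdd 14 i' : Fin 18) ≠ 0 := by
          rintro he; rw [he] at hi''; exact h0 hi''
        have hS : (Fin.castAdd 14 i' : Fin 18) ∉ W.S := by
          fin_cases i'
          · exact absurd rfl hne
          · exact h.n1
          · exact h.n2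
          · exact h.n3
        exact (own_MW h g b1 a1 hll.symm hS (ht _)).trans htη)
      (fun q' hq' => by
        by_cases hm : Fin.natAdd 4 q' ∈ W.S
        · exact ha _ hq' hm
        · exact (own_MW h g a1 b1 hll hm (ht _)).trans htη)
    refine le_trans (le_of_eq ?_) key
    rw [abs_sub_comm]
    congr 1
    unfold ownC at *
    linarith

/-! ### the `c`-shift -/

end rows

/-- multiplier of a live monomial `[1, F]` or `[2, F]` in the `c`-shift -/
noncomputable def phiT (W : Wnd 18 ι) (κ : ℕ → ℝ) (lam : ℕ → Fin 18 → ℝ) (n : ℕ) (q : Fin 14)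
    (a : Fin 18 → ℝ) (t : Tm) : ℝ :=
  (t.n : ℝ) * κ n ^ t.e * cfl W lam n t.idx (Fin.natAdd 4 q) *
    ((if t.hl = [1] then 1 else cfl W lam n [1, 0] 2 * a 0) * a (Fin.natAdd 4 t.s))

/-- **the multiplier of the `c`-shift in the slot `q`** -/
noncomputable def phiC (W : Wnd 18 ι) (κ : ℕ → ℝ) (lam : ℕ → Fin 18 → ℝ) (n : ℕ)
    (N : Finset (Fin 18)) (q : Fin 14) (a : Fin 18 → ℝ) : ℝ :=
  -((live N q).map (phiT W κ lam n q a)).sum

/-- **data of a `c`-shift row** (decidable): `N` = `0`, all line flags, the invisible level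
flags -/
structure ShDat (S N : Finset (Fin 18)) (q : Fin 14) : Prop where
  hN : ∀ q' : Fin 14, Fin.natAdd 4 q' ∉ S → Fin.natAdd 4 q' ∈ N
  h1 : (1 : Fin 18) ∉ N
  h2 : (2 : Fin 18) ∉ N
  h3 : (3 : Fin 18) ∉ N
  lv : ∀ t ∈ live N q, t.hl = [1] ∨ t.hl = [2]
  hq : Fin.natAdd 4 q ∉ S

instance (S N : Finset (Fin 18)) (q : Fin 14) : Decidable (ShDat S N q) :=
  decidable_of_iff ((∀ q' : Fin 14, Fin.natAdd 4 q' ∉ S → Fin.natAdd 4 q' ∈ N) ∧
    (1 : Fin 18) ∉ N ∧ (2 : Fin 18) ∉ N ∧ (3 : Fin 18) ∉ N ∧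
    (∀ t ∈ live N q, t.hl = [1] ∨ t.hl = [2]) ∧ Fin.natAdd 4 q ∉ S)
    ⟨fun ⟨a, b, c, d, e, g⟩ => ⟨a, b, c, d, e, g⟩, fun ⟨a, b, c, d, e, g⟩ => ⟨a, b, c, d, e, g⟩⟩

theorem live_flags : ∀ q, live (Finset.univ.erase 0) q = [] := by decide

theorem abs_sum_mul_le {α : Type*} (F G : α → ℝ) (m : α → ℤ) (c D : ℝ) (l : List α)
    (h : ∀ a ∈ l, |F a - G a * c| ≤ |(m a : ℝ)| * D) :
    |(l.map F).sum - (l.map G).sum * c| ≤ (((l.map fun a => (m a).natAbs).sum : ℕ) : ℝ) * D := by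
  induction l with
  | nil => simp
  | cons a l ih =>
    have h1 := ih fun b hb => h b (List.mem_cons_of_mem _ hb)
    have h2 : (((m a).natAbs : ℕ) : ℝ) = |(m a : ℝ)| := by
      rw [Nat.cast_natAbs, Int.cast_abs]
    simp only [List.map_cons, List.sum_cons, Nat.cast_add]
    have e : F a + (l.map F).sum - (G a + (l.map G).sum) * c =
        (F a - G a * c) + ((l.map F).sum - (l.map G).sum * c) := by ring
    rw [e, h2, add_mul]
    exact (abs_add_le _ _).trans (add_le_add (h a List.mem_cons_self) h1)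

theorem filter_sum_le {α : Type*} (F : α → ℕ) (p : α → Bool) (l : List α) :
    ((l.filter p).map F).sum ≤ (l.map F).sum := by
  induction l with
  | nil => simp
  | cons a l ih =>
    by_cases hp : p a = true
    · rw [List.filter_cons_of_pos hp]
      simp only [List.map_cons, List.sum_cons]
      omega
    · rw [List.filter_cons_of_neg hp]
      simp only [List.map_cons, List.sum_cons]
      omega

theorem live_sum (N : Finset (Fin 18)) (q : Fin 14) :
    ((((live N q).map fun t => t.n.natAbs).sum : ℕ) : ℝ) ≤ 67 := by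
  exact_mod_cast (filter_sum_le _ _ _).trans (tms_sum q)

section shift

variable (h : WWnd W κ lam f)

include h

/-- **the `c`-shift row**: all line slots of `rel k i l` narrow except `c` -/
theorem cshift_row {n : ℕ} (g : W.Good n) {E : Finset (ι n)} (hE : E ⊆ W.Cl n) {i l k k' : ℕ}
    (hi : (i, k) ∈ (W.cfg0 n E).I) (hi' : (i, k') ∈ (W.cfg0 n E).I)
    (hl : (l, k) ∈ (W.cfg0 n E).I) (hl' : (l, k') ∈ (W.cfg0 n E).I)
    {t : ℝ} (ht : ∀ s, t ≤ W.top s) {q : Fin 14} {N : Finset (Fin 18)} (hd : ShDat W.S N q)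
    {η : ℝ} (hη : 0 ≤ η)
    (hb : ∀ s, s ∉ W.S → s ≠ 1 → |(W.cfg0 n E).rel k i l s| ≤ η)
    (ha : ∀ q' : Fin 14, Fin.natAdd 4 q' ∈ N → Fin.natAdd 4 q' ∈ W.S →
      |ownC W n i k k' (Fin.natAdd 4 q')| ≤ η) :
    |(W.cfg0 n E).rel k' i l (Fin.natAdd 4 q) -
      phiC W κ lam n N q (ownC W n i k k') * (W.cfg0 n E).rel k i l 1| ≤
      2 * CX W * (W.B'.d n ^ t + η) := by
  have hME := MW_ME h
  have hC := (CfW_le h).1
  have hM := (MW_le h).1
  set a := ownC W n i k k' with ha'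
  set b := (W.cfg0 n E).rel k i l with hb'
  have haM : ∀ s, |a s| ≤ MW W := own_MW' h g hE hi hi'
  have hbM : ∀ s, |b s| ≤ MW W := rel_MW' h g hE hi hl
  have hfl : ∀ q' : Fin 14, (Fin.natAdd 4 q' : Fin 18) ≠ 1 := by decide
  have e1 := evo_row h g hE hi hi' hl hl' ht hd.hq (N1 := Finset.univ.erase 0) (N2 := N) hη
    (by simp) (fun q' _ hsS => hb _ hsS (hfl q')) ha (fun i' hi0 hiN => by
        exfalso
        fin_cases i'
        · exact hi0 rfl
        · exact hd.h1 hiN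
        · exact hd.h2 hiN
        · exact hd.h3 hiN)
  rw [live_flags q] at e1
  simp only [List.map_nil, List.sum_nil, add_zero] at e1
  have hbq : |b (Fin.natAdd 4 q)| ≤ η := hb _ hd.hq (hfl q)
  have e2 : ∀ t ∈ live N q, |tmN W κ lam n q (onV W.S a) (evF W κ lam n a b) t -
      phiT W κ lam n q a t * b 1| ≤ |(t.n : ℝ)| * (CfW W * (MW W * η)) := by
    intro t ht
    have h1 := List.mem_filter.1 ht
    have h2 := of_decide_eq_true h1.2
    have h3 : Fin.natAdd 4 t.s ∈ W.S := by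
      by_contra hcon
      exact h2 (Fin.natAdd 4 t.s) (by simp [Tm.idx]) (hd.hN t.s hcon)
    have h4 : onV W.S a (Fin.natAdd 4 t.s) = a (Fin.natAdd 4 t.s) := if_pos h3
    have hcf := cfl_CfW h g h1.1
    have hcf0 := h.cfl_pos n t.idx (Fin.natAdd 4 q)
    have hk : |κ n| ^ t.e ≤ 1 := pow_le_one₀ (abs_nonneg _) (h.hκ n)
    rcases hd.lv t ht with h5 | h5
    · have e3 : tmN W κ lam n q (onV W.S a) (evF W κ lam n a b) t -
          phiT W κ lam n q a t * b 1 = 0 := by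
        have e4 : evF W κ lam n a b 1 = b 1 := by
          unfold evF
          rw [if_neg (by decide), h.evoC1]
        unfold tmN phiT
        rw [h4, h5]
        simp only [List.map_cons, List.map_nil, List.prod_cons, List.prod_nil, mul_one, if_true]
        change _ * (evF W κ lam n a b 1 * _) - _ = 0
        rw [e4]
        ring
      rw [e3, abs_zero]
      have : 0 ≤ CfW W * (MW W * η) := by
        have : 0 ≤ CfW W := by linarith
        have : 0 ≤ MW W := by linarith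
        positivity
      exact mul_nonneg (abs_nonneg _) this
    · have e3 : tmN W κ lam n q (onV W.S a) (evF W κ lam n a b) t -
          phiT W κ lam n q a t * b 1 = (t.n : ℝ) * κ n ^ t.e *
            cfl W lam n t.idx (Fin.natAdd 4 q) * (a (Fin.natAdd 4 t.s) * b 2) := by
        have e4 : evF W κ lam n a b 2 = b 2 + cfl W lam n [1, 0] 2 * (a 0 * b 1) := by
          unfold evF
          rw [if_neg (by decide), h.evoC2]
        unfold tmN phiT
        rw [h4, h5, if_neg (by decide)]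
        simp only [List.map_cons, List.map_nil, List.prod_cons, List.prod_nil, mul_one]
        change _ * (evF W κ lam n a b 2 * _) - _ = _
        rw [e4]
        ring
      rw [e3, abs_mul, abs_mul, abs_mul, abs_mul, abs_pow, abs_of_pos hcf0]
      have h6 : |b 2| ≤ η := hb 2 h.n2 (by decide)
      have h7 : |(t.n : ℝ)| * |κ n| ^ t.e ≤ |(t.n : ℝ)| := by
        have := mul_le_mul_of_nonneg_left hk (abs_nonneg (t.n : ℝ))
        linarith
      calc |(t.n : ℝ)| * |κ n| ^ t.e * cfl W lam n t.idx (Fin.natAdd 4 q) *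
            (|a (Fin.natAdd 4 t.s)| * |b 2|)
          ≤ |(t.n : ℝ)| * CfW W * (MW W * η) :=
            mul_le_mul (mul_le_mul h7 hcf hcf0.le (abs_nonneg _))
              (mul_le_mul (haM _) h6 (abs_nonneg _) (by linarith))
              (mul_nonneg (abs_nonneg _) (abs_nonneg _))
              (mul_nonneg (abs_nonneg _) (by linarith))
        _ = _ := by ring
  have e3 := abs_sum_mul_le _ _ (fun t : Tm => t.n) (b 1) _ (live N q) e2
  have hM0 : 0 ≤ MW W := by linarith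
  have hC0 : 0 ≤ CfW W := by linarith
  have hE0 : 0 ≤ ME W := by linarith [hME.1]
  have e4 : |((live N q).map (tmN W κ lam n q (onV W.S a) (evF W κ lam n a b))).sum -
      ((live N q).map (phiT W κ lam n q a)).sum * b 1| ≤ 67 * (CfW W * (MW W * η)) :=
    e3.trans (mul_le_mul_of_nonneg_right (live_sum N q) (by positivity))
  have e5 : (W.cfg0 n E).rel k' i l (Fin.natAdd 4 q) - phiC W κ lam n N q a * b 1 =
      ((W.cfg0 n E).rel k' i l (Fin.natAdd 4 q) - (b (Fin.natAdd 4 q) -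
        ((live N q).map (tmN W κ lam n q (onV W.S a) (evF W κ lam n a b))).sum)) +
      b (Fin.natAdd 4 q) -
      (((live N q).map (tmN W κ lam n q (onV W.S a) (evF W κ lam n a b))).sum -
      ((live N q).map (phiT W κ lam n q a)).sum * b 1) := by
    unfold phiC
    ring
  rw [e5]
  have hτ : 0 ≤ W.B'.d n ^ t := Real.rpow_nonneg (W.B'.pos n).le _
  have c2 := (CX_pos h).2.2
  have m1 : MW W ≤ ME W ^ 7 := hME.2.trans (by
    calc ME W = ME W ^ 1 := (pow_one _).symm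
      _ ≤ _ := pow_le_pow_right₀ hME.1 (by norm_num))
  have m2 : CfW W * MW W ≤ CfW W * ME W ^ 7 := mul_le_mul_of_nonneg_left m1 hC0
  have m3 : 1 ≤ CfW W * ME W ^ 7 := by
    have := one_le_pow₀ hME.1 (n := 7)
    nlinarith
  have m4 : 67 * (CfW W * (MW W * η)) + η ≤ CX W * η := by
    have : 67 * (CfW W * (MW W * η)) + η = (67 * (CfW W * MW W) + 1) * η := by ring
    rw [this]
    exact mul_le_mul_of_nonneg_right (by linarith) hη
  have m5 : CX W * η ≤ CX W * (W.B'.d n ^ t + η) :=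
    mul_le_mul_of_nonneg_left (by linarith) (CX_pos h).1
  refine (abs_sub _ _).trans ?_
  refine (add_le_add (abs_add_le _ _) le_rfl).trans ?_
  linarith

end shift

/-! ### the six rows of the `c`-shift (helper848's row (ii) of 5b) -/

/-- level slots, `w = 2` -/
def S2 : Finset (Fin 18) := {0, 4, 5, 6, 7, 8, 9, 10, 11, 14}
/-- level slots, `w = 3` -/
def S3 : Finset (Fin 18) := {0, 4, 5, 6, 7, 9}
/-- level slots, `w = 4` -/
def S4 : Finset (Fin 18) := {0, 4, 5, 7}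
/-- narrow slots, `w = 2` (level slots of weight `> 2`) -/
def N2 : Finset (Fin 18) := {0, 4, 5, 6, 7, 9, 12, 13, 15, 16, 17}
/-- narrow slots, `w = 3` (level slots of weight `> 3`) -/
def N3 : Finset (Fin 18) := {0, 4, 5, 7, 8, 10, 11, 12, 13, 14, 15, 16, 17}
/-- narrow slots, `w = 4` -/
def N4 : Finset (Fin 18) := {0, 6, 8, 9, 10, 11, 12, 13, 14, 15, 16, 17}

theorem sh2zA : ShDat S2 N2 8 := by decide
theorem sh2A : ShDat S2 N2 11 := by decide
theorem sh3B : ShDat S3 N3 10 := by decide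
theorem sh3AA : ShDat S3 N3 6 := by decide
theorem sh4AB : ShDat S4 N4 5 := by decide
theorem sh4AY : ShDat S4 N4 2 := by decide

section phi

variable (W : Wnd 18 ι) (κ : ℕ → ℝ) (lam : ℕ → Fin 18 → ℝ) (n : ℕ) (a : Fin 18 → ℝ)

/-- `w = 2`, slot `zA` -/
theorem phi2zA : phiC W κ lam n N2 8 a =
    -(2 * κ n * cfl W lam n [2, 8] 12 * (cfl W lam n [1, 0] 2 * a 0 * a 8) +
      2 * cfl W lam n [1, 10] 12 * a 10 - 2 * κ n * cfl W lam n [1, 11] 12 * a 11) := by
  have e : live N2 8 = [⟨2, 1, [2], 4⟩, ⟨2, 0, [1], 6⟩, ⟨-2, 1, [1], 7⟩] := by decide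
  unfold phiC
  rw [e]
  simp only [List.map_cons, List.map_nil, List.sum_cons, List.sum_nil, phiT, Tm.idx,
    List.cons_append, List.nil_append]
  rw [if_neg (by decide), if_pos trivial]
  change -(((2 : ℤ) : ℝ) * κ n ^ 1 * cfl W lam n [2, 8] 12 * (cfl W lam n [1, 0] 2 * a 0 * a 8) +
    (((2 : ℤ) : ℝ) * κ n ^ 0 * cfl W lam n [1, 10] 12 * (1 * a 10) +
    (((-2 : ℤ) : ℝ) * κ n ^ 1 * cfl W lam n [1, 11] 12 * (1 * a 11) + 0))) = _
  push_cast
  ring

/-- `w = 2`, slot `A` (15) -/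
theorem phi2A : phiC W κ lam n N2 11 a =
    -(2 * cfl W lam n [2, 10] 15 * (cfl W lam n [1, 0] 2 * a 0 * a 10) -
      2 * κ n * cfl W lam n [1, 14] 15 * a 14) := by
  have e : live N2 11 = [⟨2, 0, [2], 6⟩, ⟨-2, 1, [1], 10⟩] := by decide
  unfold phiC
  rw [e]
  simp only [List.map_cons, List.map_nil, List.sum_cons, List.sum_nil, phiT, Tm.idx,
    List.cons_append, List.nil_append]
  rw [if_neg (by decide), if_pos trivial]
  change -(((2 : ℤ) : ℝ) * κ n ^ 0 * cfl W lam n [2, 10] 15 * (cfl W lam n [1, 0] 2 * a 0 * a 10) +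
    (((-2 : ℤ) : ℝ) * κ n ^ 1 * cfl W lam n [1, 14] 15 * (1 * a 14) + 0)) = _
  push_cast
  ring

/-- `w = 3`, slot `B` (14) -/
theorem phi3B : phiC W κ lam n N3 10 a =
    -(cfl W lam n [2, 9] 14 * (cfl W lam n [1, 0] 2 * a 0 * a 9)) := by
  have e : live N3 10 = [⟨1, 0, [2], 5⟩] := by decide
  unfold phiC
  rw [e]
  simp only [List.map_cons, List.map_nil, List.sum_cons, List.sum_nil, phiT, Tm.idx,
    List.cons_append, List.nil_append]
  rw [if_neg (by decide)]
  change -(((1 : ℤ) : ℝ) * κ n ^ 0 * cfl W lam n [2, 9] 14 * (cfl W lam n [1, 0] 2 * a 0 * a 9) +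
    0) = _
  push_cast
  ring

/-- `w = 3`, slot `AA` (10) -/
theorem phi3AA : phiC W κ lam n N3 6 a =
    -(3 * κ n * cfl W lam n [2, 6] 10 * (cfl W lam n [1, 0] 2 * a 0 * a 6) -
      2 * κ n * cfl W lam n [1, 9] 10 * a 9) := by
  have e : live N3 6 = [⟨3, 1, [2], 2⟩, ⟨-2, 1, [1], 5⟩] := by decide
  unfold phiC
  rw [e]
  simp only [List.map_cons, List.map_nil, List.sum_cons, List.sum_nil, phiT, Tm.idx,
    List.cons_append, List.nil_append]
  rw [if_neg (by decide), if_pos trivial]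
  change -(((3 : ℤ) : ℝ) * κ n ^ 1 * cfl W lam n [2, 6] 10 * (cfl W lam n [1, 0] 2 * a 0 * a 6) +
    (((-2 : ℤ) : ℝ) * κ n ^ 1 * cfl W lam n [1, 9] 10 * (1 * a 9) + 0)) = _
  push_cast
  ring

/-- `w = 4`, slot `AB` (9) -/
theorem phi4AB : phiC W κ lam n N4 5 a =
    -(2 * κ n * cfl W lam n [2, 5] 9 * (cfl W lam n [1, 0] 2 * a 0 * a 5) -
      4 * κ n * cfl W lam n [1, 7] 9 * a 7) := by
  have e : live N4 5 = [⟨2, 1, [2], 1⟩, ⟨-4, 1, [1], 3⟩] := by decide
  unfold phiC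
  rw [e]
  simp only [List.map_cons, List.map_nil, List.sum_cons, List.sum_nil, phiT, Tm.idx,
    List.cons_append, List.nil_append]
  rw [if_neg (by decide), if_pos trivial]
  change -(((2 : ℤ) : ℝ) * κ n ^ 1 * cfl W lam n [2, 5] 9 * (cfl W lam n [1, 0] 2 * a 0 * a 5) +
    (((-4 : ℤ) : ℝ) * κ n ^ 1 * cfl W lam n [1, 7] 9 * (1 * a 7) + 0)) = _
  push_cast
  ring

/-- `w = 4`, slot `AY` (6) -/
theorem phi4AY : phiC W κ lam n N4 2 a =
    -(4 * κ n * cfl W lam n [2, 4] 6 * (cfl W lam n [1, 0] 2 * a 0 * a 4) -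
      2 * κ n * cfl W lam n [1, 5] 6 * a 5) := by
  have e : live N4 2 = [⟨4, 1, [2], 0⟩, ⟨-2, 1, [1], 1⟩] := by decide
  unfold phiC
  rw [e]
  simp only [List.map_cons, List.map_nil, List.sum_cons, List.sum_nil, phiT, Tm.idx,
    List.cons_append, List.nil_append]
  rw [if_neg (by decide), if_pos trivial]
  change -(((4 : ℤ) : ℝ) * κ n ^ 1 * cfl W lam n [2, 4] 6 * (cfl W lam n [1, 0] 2 * a 0 * a 4) +
    (((-2 : ℤ) : ℝ) * κ n ^ 1 * cfl W lam n [1, 5] 6 * (1 * a 5) + 0)) = _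
  push_cast
  ring

end phi

end Crest.Agent.R136.RowW619
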