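import Crest.Agent.R136.LfW_619
import Crest.Agent.R136.RowX_619
import Crest.Agent.R136.HtG_887

/-!
# R136: height links (helper887), part 2: the W-window

Exponents: `eRel W p` (pair of lines at one height in the box `p`), `eOwn W v` (own motion of one
line; `v` = exponents of the visible level slots).

* `HtPres W p v` : the box `p` is preserved by the change of height;
* `HtRow W p v F q m e x` : up to `ρ^x` the only monomial which moves the flag slot `q` is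
  `m κ^e z · F`;
* `htLink` : these two ⊢ `HtLink`;
* `HtDat S Nb T V F q m e` : decidable form; `htDat_link`;
* `htW_pos` : 851's non-linear form; `htW_rate` : linear form.
-/

set_option autoImplicit false
set_option linter.unusedSectionVars false
set_option linter.unusedVariables false

open Filter Topology

namespace Crest.Agent.R136.Ht887

open Finset Crest.Agent.R136.NetW191 Crest.Agent.R136.Net191 Crest.Agent.R136.Qg926
open Crest.Agent.R136.EvW938 Crest.Agent.R136.RowW619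
open Crest.Agent.R138.Ex926 (Base U)
open Crest.Agent.R136.Gf356

variable {ι : ℕ → Type*} [∀ n, DecidableEq (ι n)] {W : Wnd 18 ι} {κ : ℕ → ℝ}
  {lam : ℕ → Fin 18 → ℝ} {f : ∀ n, ι n → FW}

/-- the narrow slots of two lines of a box (any configuration) -/
theorem narrow_two' {κ' : Type} [DecidableEq κ'] {B : Base} {G : ℕ → RCfg κ'} {Leg : Set (κ' → ℝ)}
    {ν : (κ' → ℝ) → ℝ} {D : ℝ} (H : RUnif B G Leg ν D) {p : κ' → ℝ} (hp : p ∈ Leg) {ε : ℝ}
    (hε : 0 < ε) : ∀ᶠ n in (U : Filter ℕ), ∀ k i l l', (i, k) ∈ (G n).I →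
      (l, k) ∈ (G n).I → (l', k) ∈ (G n).I → (G n).loose p ε k i l →
      (G n).loose p ε k i l' →
      (∀ s, |(G n).rel k i l s| ≤ B.d n ^ (p s - D ^ 2 * ε)) ∧
      (∀ s, |(G n).rel k l l' s| ≤ B.d n ^ (p s - D ^ 2 * ε)) := by
  have hD := H.D1
  have hDε : 0 < D * ε := by positivity
  filter_upwards [H.symm p hp ε hε, H.tri p hp (D * ε) hDε] with n gs gt k i l l' hi hl hl' h1 h2
  have a1 := gs k i l hi hl h1
  have a2 : (G n).loose p (D * ε) k i l' := H.loose_mono (fun _ => le_rfl) (by nlinarith) h2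
  have a3 := gt k l i l' hl hi hl' a1 a2
  have e1 : D * (D * ε) = D ^ 2 * ε := by ring
  rw [e1] at a3
  have hD2 : 1 ≤ D ^ 2 := one_le_pow₀ hD
  have a4 : (G n).loose p (D ^ 2 * ε) k i l :=
    H.loose_mono (fun _ => le_rfl) (by nlinarith) h1
  refine ⟨fun s => ?_, fun s => ?_⟩
  · have := a4 s
    rwa [H.base n] at this
  · have := a3 s
    rwa [H.base n] at this

/-! ### real algebra of the frames -/

section reals

theorem fr1 {b1 a1 o1 r1 M K Q1 q1 P : ℝ} (hr : r1 = b1 + (o1 - a1)) (hb : |b1| ≤ q1)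
    (ha : |a1| ≤ M * Q1) (ho : |o1| ≤ M * Q1) (hM : 0 ≤ M) (hK1 : 1 ≤ K) (hMK : M ≤ K)
    (hq : q1 ≤ P) (hQ : Q1 ≤ P) (hQ0 : 0 ≤ Q1) : |r1| ≤ 3 * (K * P) := by
  have hP : 0 ≤ P := hQ0.trans hQ
  have h1 : M * Q1 ≤ K * P := mul_le_mul hMK hQ hQ0 (by linarith)
  have h2 : P ≤ K * P := le_mul_of_one_le_left hP hK1
  rw [hr]
  refine (abs_add_le _ _).trans ?_
  have := abs_sub o1 a1
  linarith

theorem fr2 {b1 b2 a1 a2 o2 o0 r0 r2 c C M q1 q2 Q1 Q2 P : ℝ}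
    (hr : r2 = b2 + (o2 - a2) + (c * (b1 * o0) - c * (a1 * r0)))
    (hb1 : |b1| ≤ q1) (hb2 : |b2| ≤ q2) (ha1 : |a1| ≤ M * Q1) (ha2 : |a2| ≤ M * Q2)
    (ho2 : |o2| ≤ M * Q2) (ho0 : |o0| ≤ M) (hr0 : |r0| ≤ M) (hc0 : 0 ≤ c) (hc : c ≤ C)
    (hM : 1 ≤ M) (hC : 1 ≤ C) (hq1 : q1 ≤ P) (hq2 : q2 ≤ P) (hQ1 : Q1 ≤ P) (hQ2 : Q2 ≤ P)
    (hq10 : 0 ≤ q1) (hQ10 : 0 ≤ Q1) : |r2| ≤ 5 * (C * M ^ 2 * P) := by
  have hP : 0 ≤ P := hq10.trans hq1
  have hM0 : 0 ≤ M := by linarith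
  have hC0 : 0 ≤ C := by linarith
  have e1 : |c * (b1 * o0)| ≤ C * (P * M) := by
    rw [abs_mul, abs_mul, abs_of_nonneg hc0]
    exact mul_le_mul hc (mul_le_mul (hb1.trans hq1) ho0 (abs_nonneg _) hP)
      (mul_nonneg (abs_nonneg _) (abs_nonneg _)) hC0
  have e2 : |c * (a1 * r0)| ≤ C * (M * P * M) := by
    rw [abs_mul, abs_mul, abs_of_nonneg hc0]
    exact mul_le_mul hc (mul_le_mul (ha1.trans (mul_le_mul_of_nonneg_left hQ1 hM0)) hr0
      (abs_nonneg _) (by positivity)) (mul_nonneg (abs_nonneg _) (abs_nonneg _)) hC0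
  have e3 : M * Q2 ≤ M * P := mul_le_mul_of_nonneg_left hQ2 hM0
  have m1 : M ≤ M ^ 2 := by nlinarith
  have m2 : 1 ≤ M ^ 2 := one_le_pow₀ hM
  have w1 : P ≤ C * M ^ 2 * P := le_mul_of_one_le_left hP (by nlinarith)
  have w2 : M * P ≤ C * M ^ 2 * P := mul_le_mul_of_nonneg_right (by nlinarith) hP
  have w3 : C * (P * M) ≤ C * M ^ 2 * P := by
    have := mul_le_mul_of_nonneg_left m1 hC0
    nlinarith
  have w4 : C * (M * P * M) = C * M ^ 2 * P := by ring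
  rw [hr]
  refine (abs_add_le _ _).trans ?_
  have s2 := abs_add_le b2 (o2 - a2)
  have s3 := abs_sub o2 a2
  have s4 := abs_sub (c * (b1 * o0)) (c * (a1 * r0))
  linarith

theorem fr3 {b1 b3 a1 a3 o3 o2 o0 r0 r2 r3 k c d C M q1 q3 Q1 Q2 Q3 R2 P : ℝ}
    (hr : r3 = b3 + (o3 - a3) + ((2 * (k * c * (a1 * r2)) - 2 * (k * c * (b1 * o2))) +
      (k * d * (a1 ^ 2 * r0) - k * d * (b1 ^ 2 * o0))))
    (hb1 : |b1| ≤ q1) (hb3 : |b3| ≤ q3) (ha1 : |a1| ≤ M * Q1) (ha3 : |a3| ≤ M * Q3)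
    (ho3 : |o3| ≤ M * Q3) (ho2 : |o2| ≤ M * Q2) (ho0 : |o0| ≤ M) (hr0 : |r0| ≤ M)
    (hr2 : |r2| ≤ 5 * (C * M ^ 2 * R2)) (hk : |k| ≤ 1) (hc0 : 0 ≤ c) (hc : c ≤ C)
    (hd0 : 0 ≤ d) (hd : d ≤ C)
    (hM : 1 ≤ M) (hC : 1 ≤ C) (hq10 : 0 ≤ q1) (hQ10 : 0 ≤ Q1) (hQ20 : 0 ≤ Q2) (hR20 : 0 ≤ R2)
    (hq3 : q3 ≤ P) (hQ3 : Q3 ≤ P) (h12 : q1 * Q2 ≤ P) (h11 : q1 * q1 ≤ P) (hQR : Q1 * R2 ≤ P)
    (hQQ : Q1 * Q1 ≤ P) : |r3| ≤ 20 * (C ^ 2 * M ^ 3 * P) := by
  have hP : 0 ≤ P := (mul_nonneg hq10 hq10).trans h11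
  have hM0 : 0 ≤ M := by linarith
  have hC0 : 0 ≤ C := by linarith
  have kc : ∀ {A c : ℝ}, 0 ≤ c → c ≤ C → |k * c * A| ≤ C * |A| := by
    intro A c hc hc'
    rw [abs_mul, abs_mul, abs_of_nonneg hc]
    refine mul_le_mul_of_nonneg_right ?_ (abs_nonneg _)
    calc |k| * c ≤ 1 * C := mul_le_mul hk hc' hc zero_le_one
      _ = _ := one_mul _
  have u3 : |k * c * (a1 * r2)| ≤ 5 * (C ^ 2 * M ^ 3 * P) := by
    refine (kc hc0 hc).trans ?_
    rw [abs_mul]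
    calc C * (|a1| * |r2|) ≤ C * ((M * Q1) * (5 * (C * M ^ 2 * R2))) :=
          mul_le_mul_of_nonneg_left (mul_le_mul ha1 hr2 (abs_nonneg _) (by positivity)) hC0
      _ = 5 * (C ^ 2 * M ^ 3 * (Q1 * R2)) := by ring
      _ ≤ _ := by
        refine mul_le_mul_of_nonneg_left ?_ (by norm_num)
        exact mul_le_mul_of_nonneg_left hQR (by positivity)
  have u4 : |k * c * (b1 * o2)| ≤ C * M * P := by
    refine (kc hc0 hc).trans ?_
    rw [abs_mul]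
    calc C * (|b1| * |o2|) ≤ C * (q1 * (M * Q2)) :=
          mul_le_mul_of_nonneg_left (mul_le_mul hb1 ho2 (abs_nonneg _) hq10) hC0
      _ = C * M * (q1 * Q2) := by ring
      _ ≤ _ := mul_le_mul_of_nonneg_left h12 (by positivity)
  have u5 : |k * d * (a1 ^ 2 * r0)| ≤ C * M ^ 3 * P := by
    refine (kc hd0 hd).trans ?_
    rw [abs_mul, abs_pow]
    calc C * (|a1| ^ 2 * |r0|) ≤ C * ((M * Q1) ^ 2 * M) :=
          mul_le_mul_of_nonneg_left (mul_le_mul (pow_le_pow_left₀ (abs_nonneg _) ha1 2) hr0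
            (abs_nonneg _) (by positivity)) hC0
      _ = C * M ^ 3 * (Q1 * Q1) := by ring
      _ ≤ _ := mul_le_mul_of_nonneg_left hQQ (by positivity)
  have u6 : |k * d * (b1 ^ 2 * o0)| ≤ C * M * P := by
    refine (kc hd0 hd).trans ?_
    rw [abs_mul, abs_pow]
    calc C * (|b1| ^ 2 * |o0|) ≤ C * (q1 ^ 2 * M) :=
          mul_le_mul_of_nonneg_left (mul_le_mul (pow_le_pow_left₀ (abs_nonneg _) hb1 2) ho0
            (abs_nonneg _) (by positivity)) hC0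
      _ = C * M * (q1 * q1) := by ring
      _ ≤ _ := mul_le_mul_of_nonneg_left h11 (by positivity)
  have hM3 : M ≤ M ^ 3 := by
    calc M = M ^ 1 := (pow_one _).symm
      _ ≤ _ := pow_le_pow_right₀ hM (by norm_num)
  have hM31 : 1 ≤ M ^ 3 := one_le_pow₀ hM
  have hC2 : C ≤ C ^ 2 := by nlinarith
  have hC21 : 1 ≤ C ^ 2 := one_le_pow₀ hC
  have k1 : 1 ≤ C ^ 2 * M ^ 3 := one_le_mul_of_one_le_of_one_le hC21 hM31
  have k2 : M ≤ C ^ 2 * M ^ 3 := hM3.trans (le_mul_of_one_le_left (by positivity) hC21)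
  have k3 : C * M ≤ C ^ 2 * M ^ 3 := mul_le_mul hC2 hM3 hM0 (by positivity)
  have k4 : C * M ^ 3 ≤ C ^ 2 * M ^ 3 := mul_le_mul_of_nonneg_right hC2 (by positivity)
  have v1 := mul_le_mul_of_nonneg_right k1 hP
  have v2 := mul_le_mul_of_nonneg_right k2 hP
  have v3 := mul_le_mul_of_nonneg_right k3 hP
  have v4 := mul_le_mul_of_nonneg_right k4 hP
  have v5 : M * Q3 ≤ M * P := mul_le_mul_of_nonneg_left hQ3 hM0
  rw [hr]
  refine (abs_add_le _ _).trans ?_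
  have s2 := abs_add_le b3 (o3 - a3)
  have s3 := abs_sub o3 a3
  have s4 := abs_add_le (2 * (k * c * (a1 * r2)) - 2 * (k * c * (b1 * o2)))
    (k * d * (a1 ^ 2 * r0) - k * d * (b1 ^ 2 * o0))
  have s5 := abs_sub (2 * (k * c * (a1 * r2))) (2 * (k * c * (b1 * o2)))
  have s6 := abs_sub (k * d * (a1 ^ 2 * r0)) (k * d * (b1 ^ 2 * o0))
  rw [abs_mul 2, abs_mul 2, abs_two] at s5
  linarith

end reals

/-! ### monomials by exponents -/

theorem prod_le_exp {v β : Fin 18 → ℝ} {M ρ e : ℝ} (hM : 1 ≤ M) (hρ : 0 < ρ)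
    (hv : ∀ s, |v s| ≤ M * ρ ^ (β s - e)) (l : List (Fin 18)) :
    |(l.map v).prod| ≤ M ^ l.length * ρ ^ ((l.map β).sum - l.length * e) := by
  induction l with
  | nil => simp
  | cons a l ih =>
    simp only [List.map_cons, List.prod_cons, List.length_cons, List.sum_cons, abs_mul]
    have e1 : β a + (l.map β).sum - ((l.length + 1 : ℕ) : ℝ) * e =
        (β a - e) + ((l.map β).sum - l.length * e) := by push_cast; ring
    rw [e1, Real.rpow_add hρ, pow_succ]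
    calc |v a| * |(l.map v).prod| ≤ (M * ρ ^ (β a - e)) *
          (M ^ l.length * ρ ^ ((l.map β).sum - l.length * e)) :=
          mul_le_mul (hv a) ih (abs_nonneg _) (by positivity)
      _ = _ := by ring

/-- a part of a row, by exponents -/
theorem row_exp (h : WWnd W κ lam f) {n : ℕ} (g : W.Good n) (q : Fin 14) (P : Tm → Bool)
    {b c β : Fin 18 → ℝ} {M ρ e X : ℝ} (hM : 1 ≤ M) (hρ : 0 < ρ) (hρ1 : ρ ≤ 1) (he : 0 ≤ e)
    (hv : ∀ s, |mix b c s| ≤ M * ρ ^ (β s - e))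
    (hX : ∀ t ∈ tms q, P t = true → X ≤ (t.idx.map β).sum) :
    |(((tms q).filter P).map (tmN W κ lam n q b c)).sum| ≤
      67 * (CfW W * (M ^ 7 * ρ ^ (X - 7 * e))) := by
  have hCf : 0 ≤ CfW W := by linarith [(CfW_le h).1]
  have hD : 0 ≤ CfW W * (M ^ 7 * ρ ^ (X - 7 * e)) := by positivity
  refine (abs_sum_le _ (fun t => t.n) _ hD _ _ ?_).trans ?_
  · intro t ht hp
    refine tmN_le h.hκ (h.cfl_pos n _ _).le (cfl_CfW h g ht) ?_
    refine (prod_le_exp hM hρ hv t.idx).trans ?_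
    have hlen := idx_len q t ht
    have hlen' : ((t.idx.length : ℕ) : ℝ) ≤ 7 := by exact_mod_cast hlen
    refine mul_le_mul (pow_le_pow_right₀ hM hlen) ?_ (Real.rpow_nonneg hρ.le _) (by positivity)
    refine Real.rpow_le_rpow_of_exponent_ge hρ hρ1 ?_
    have := hX t ht hp
    nlinarith
  · have g2 : ((((tms q).map fun t => t.n.natAbs).sum : ℕ) : ℝ) ≤ 67 := by
      exact_mod_cast tms_sum q
    exact mul_le_mul_of_nonneg_right g2 hD

/-- the whole row, by exponents -/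
theorem row_exp' (h : WWnd W κ lam f) {n : ℕ} (g : W.Good n) (q : Fin 14)
    {b c β : Fin 18 → ℝ} {M ρ e X : ℝ} (hM : 1 ≤ M) (hρ : 0 < ρ) (hρ1 : ρ ≤ 1) (he : 0 ≤ e)
    (hv : ∀ s, |mix b c s| ≤ M * ρ ^ (β s - e))
    (hX : ∀ t ∈ tms q, X ≤ (t.idx.map β).sum) :
    |((tms q).map (tmN W κ lam n q b c)).sum| ≤ 67 * (CfW W * (M ^ 7 * ρ ^ (X - 7 * e))) := by
  have := row_exp h g q (fun _ => true) (κ := κ) (b := b) (c := c) hM hρ hρ1 he hv
    (fun t ht _ => hX t ht)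
  simpa using this

/-- exponents of a pair at one height in the box `p` -/
def eRel (W : Wnd 18 ι) (p : Fin 18 → ℝ) : Fin 18 → ℝ :=
  fun s => if s ∈ W.S then W.top s else p s

/-- exponents of the own motion -/
def eOwn (W : Wnd 18 ι) (v : Fin 18 → ℝ) : Fin 18 → ℝ :=
  fun s => if s ∈ W.S then v s else W.top s

/-- **the box `p` is preserved by the change of height** -/
structure HtPres (W : Wnd 18 ι) (p v : Fin 18 → ℝ) : Prop where
  nn : ∀ s, 0 ≤ p s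
  tn : ∀ s, 0 ≤ W.top s
  v0 : v 0 = 0
  t1 : p 1 ≤ W.top 1
  t2 : p 2 ≤ W.top 2
  t3 : p 3 ≤ W.top 3
  a12 : p 2 ≤ p 1
  a13 : p 3 ≤ 2 * p 1
  b13 : p 3 ≤ p 1 + W.top 2
  c13 : p 3 ≤ W.top 1 + p 2
  d13 : p 3 ≤ 2 * W.top 1
  tf : ∀ q : Fin 14, Fin.natAdd 4 q ∉ W.S → p (Fin.natAdd 4 q) ≤ W.top (Fin.natAdd 4 q)
  f1 : ∀ q : Fin 14, Fin.natAdd 4 q ∉ W.S → ∀ t ∈ tms q,
    p (Fin.natAdd 4 q) ≤ (t.idx.map (mix (eRel W p) (eOwn W v))).sum
  f2 : ∀ q : Fin 14, Fin.natAdd 4 q ∉ W.S → ∀ t ∈ tms q,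
    p (Fin.natAdd 4 q) ≤ (t.idx.map (mix (eOwn W v) (eRel W p))).sum

/-- **the only monomial which moves the slot `q` is `m κ^e z · F`** -/
structure HtRow (W : Wnd 18 ι) (p v : Fin 18 → ℝ) (F q : Fin 14) (m : ℤ) (e : ℕ) (x : ℝ) :
    Prop where
  one : (tms q).filter (fun t => decide (t = ⟨m, e, [0], F⟩)) = [⟨m, e, [0], F⟩]
  qS : Fin.natAdd 4 q ∉ W.S
  FS : Fin.natAdd 4 F ∉ W.S
  top0 : x ≤ W.top 0
  topq : x ≤ W.top (Fin.natAdd 4 q)
  r1 : ∀ t ∈ tms q, t ≠ ⟨m, e, [0], F⟩ → x ≤ (t.idx.map (mix (eRel W p) (eOwn W v))).sum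
  r2 : ∀ t ∈ tms q, x ≤ (t.idx.map (mix (eOwn W v) (eRel W p))).sum
  cq : ∀ t ∈ tms q, x ≤ (t.idx.map (eRel W p)).sum
  cF : ∀ t ∈ tms F, x ≤ (t.idx.map (eRel W p)).sum

/-- the velocity of a height link -/
noncomputable def cHt (W : Wnd 18 ι) (κ : ℕ → ℝ) (lam : ℕ → Fin 18 → ℝ) (F q : Fin 14) (m : ℤ)
    (e : ℕ) (n : ℕ) : ℝ :=
  (m : ℝ) * κ n ^ e * cfl W lam n [0, Fin.natAdd 4 F] (Fin.natAdd 4 q)

section fin

variable (h : WWnd W κ lam f)

include h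

theorem tmN_z (n : ℕ) (F q : Fin 14) (m : ℤ) (e : ℕ) (b c : Fin 18 → ℝ) :
    tmN W κ lam n q b c ⟨m, e, [0], F⟩ = cHt W κ lam F q m e n * (c 0 * b (Fin.natAdd 4 F)) := by
  unfold tmN cHt
  simp only [Tm.idx, List.map_cons, List.map_nil, List.prod_cons, List.prod_nil, mul_one,
    List.cons_append, List.nil_append]
  rfl

/-- **evolution of a flag slot, exact**: `x, y` at one height, `x', y'` at the other one -/
theorem evo_exact {n : ℕ} (g : W.Good n) {x x' y y' : ι n} (hx : x ∈ W.Cl n) (hx' : x' ∈ W.Cl n)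
    (hy : y ∈ W.Cl n) (hy' : y' ∈ W.Cl n) (q : Fin 14) :
    W.crd n x' y' (Fin.natAdd 4 q) = W.crd n x y (Fin.natAdd 4 q) +
      (W.crd n y y' (Fin.natAdd 4 q) - W.crd n x x' (Fin.natAdd 4 q)) +
      ((tms q).map (tmN W κ lam n q (W.crd n x y) (W.crd n y y'))).sum -
      ((tms q).map (tmN W κ lam n q (W.crd n x x') (W.crd n x' y'))).sum := by
  have e1 := comp_flag h g hx hy hy' q
  have e2 := comp_flag h g hx hx' hy' q
  linarith

end fin

/-- a bound of the evolved frames -/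
noncomputable def MF (W : Wnd 18 ι) : ℝ := 20 * CfW W ^ 2 * MW W ^ 4

/-- constant of the rows -/
noncomputable def MG (W : Wnd 18 ι) : ℝ := 134 * (CfW W * MF W ^ 7)

section fin

variable (h : WWnd W κ lam f)

include h

theorem MF_le : 1 ≤ MF W ∧ MW W ≤ MF W ∧ 1 ≤ MG W ∧ MF W ≤ MG W := by
  have hM := (MW_le h).1
  have hC := (CfW_le h).1
  have hC2 : 1 ≤ CfW W ^ 2 := one_le_pow₀ hC
  have hM4 : MW W ≤ MW W ^ 4 := by
    calc MW W = MW W ^ 1 := (pow_one _).symm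
      _ ≤ _ := pow_le_pow_right₀ hM (by norm_num)
  have h1 : MW W ≤ MF W := by
    unfold MF
    have : MW W ^ 4 ≤ CfW W ^ 2 * MW W ^ 4 := le_mul_of_one_le_left (by positivity) hC2
    have : 0 ≤ CfW W ^ 2 * MW W ^ 4 := by positivity
    nlinarith
  have h2 : 1 ≤ MF W := hM.trans h1
  have h3 : MF W ≤ MF W ^ 7 := by
    calc MF W = MF W ^ 1 := (pow_one _).symm
      _ ≤ _ := pow_le_pow_right₀ h2 (by norm_num)
  have h4 : MF W ^ 7 ≤ CfW W * MF W ^ 7 := le_mul_of_one_le_left (by positivity) hC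
  have h5 : MF W ≤ MG W := by unfold MG; linarith
  exact ⟨h2, h1, h2.trans h5, h5⟩

/-- **frames after a change of height** -/
theorem frames_le {n : ℕ} (g : W.Good n) {x x' y y' : ι n} (hx : x ∈ W.Cl n) (hx' : x' ∈ W.Cl n)
    (hy : y ∈ W.Cl n) (hy' : y' ∈ W.Cl n) (hl : W.lc n x = W.lc n x') (hl' : W.lc n y = W.lc n y')
    {p v : Fin 18 → ℝ} (hp : HtPres W p v) {e : ℝ} (he : 0 ≤ e)
    (h1 : |W.crd n x y 1| ≤ W.B'.d n ^ (p 1 - e)) (h2 : |W.crd n x y 2| ≤ W.B'.d n ^ (p 2 - e))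
    (h3 : |W.crd n x y 3| ≤ W.B'.d n ^ (p 3 - e)) :
    |W.crd n x' y' 1| ≤ MF W * W.B'.d n ^ (p 1 - 2 * e) ∧
    |W.crd n x' y' 2| ≤ MF W * W.B'.d n ^ (p 2 - 2 * e) ∧
    |W.crd n x' y' 3| ≤ MF W * W.B'.d n ^ (p 3 - 2 * e) := by
  have hM := (MW_le h).1
  have hC := (CfW_le h).1
  have hpos : ∀ t : ℝ, 0 < W.B'.d n ^ t := fun t => Real.rpow_pos_of_pos (W.B'.pos n) _
  have anti : ∀ {s t : ℝ}, s ≤ t → W.B'.d n ^ t ≤ W.B'.d n ^ s := fun hst =>
    Real.rpow_le_rpow_of_exponent_ge (W.B'.pos n) (W.B'.lt n).le hst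
  have radd : ∀ s t : ℝ, W.B'.d n ^ s * W.B'.d n ^ t = W.B'.d n ^ (s + t) := fun s t =>
    (Real.rpow_add (W.B'.pos n) s t).symm
  have x1 := comp1 h g hx hy hy'
  have x1' := comp1 h g hx hx' hy'
  have x2 := comp2 h g hx hy hy'
  have x2' := comp2 h g hx hx' hy'
  have x3 := comp3 h g hx hy hy'
  have x3' := comp3 h g hx hx' hy'
  obtain ⟨-, -, -, t1, t2, t3, a12, a13, b13, c13, d13, -, -, -⟩ := hp
  have hM23 : MW W ^ 2 ≤ MW W ^ 4 := pow_le_pow_right₀ hM (by norm_num)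
  have hM34 : MW W ^ 3 ≤ MW W ^ 4 := pow_le_pow_right₀ hM (by norm_num)
  have hM14 : MW W ≤ MW W ^ 4 := by
    calc MW W = MW W ^ 1 := (pow_one _).symm
      _ ≤ _ := pow_le_pow_right₀ hM (by norm_num)
  have hC2 : CfW W ≤ CfW W ^ 2 := by
    calc CfW W = CfW W ^ 1 := (pow_one _).symm
      _ ≤ _ := pow_le_pow_right₀ hC (by norm_num)
  have hC21 : 1 ≤ CfW W ^ 2 := one_le_pow₀ hC
  have hM4 : 0 ≤ MW W ^ 4 := by positivity
  have hC0 : 0 ≤ CfW W := by linarith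
  have F1 : 3 * MW W ≤ MF W := by
    unfold MF
    have : MW W ^ 4 ≤ CfW W ^ 2 * MW W ^ 4 := le_mul_of_one_le_left hM4 hC21
    rw [mul_assoc]; linarith
  have F2 : 5 * (CfW W * MW W ^ 2) ≤ MF W := by
    unfold MF
    have : CfW W * MW W ^ 2 ≤ CfW W ^ 2 * MW W ^ 4 := mul_le_mul hC2 hM23 (by positivity)
      (by positivity)
    have : 0 ≤ CfW W ^ 2 * MW W ^ 4 := by positivity
    rw [mul_assoc]; linarith
  have F3 : 20 * (CfW W ^ 2 * MW W ^ 3) ≤ MF W := by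
    unfold MF
    have : CfW W ^ 2 * MW W ^ 3 ≤ CfW W ^ 2 * MW W ^ 4 :=
      mul_le_mul_of_nonneg_left hM34 (by positivity)
    rw [mul_assoc]; linarith
  have f1 : |W.crd n x' y' 1| ≤ 3 * (MW W * W.B'.d n ^ (p 1 - 2 * e)) :=
    fr1 (b1 := W.crd n x y 1) (a1 := W.crd n x x' 1) (o1 := W.crd n y y' 1)
      (by linarith only [x1, x1']) h1 (own_MW h g hx hx' hl h.n1 le_rfl)
      (own_MW h g hy hy' hl' h.n1 le_rfl) (by linarith only [hM]) hM le_rfl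
      (anti (by linarith only [he])) (anti (by linarith only [t1, he])) (hpos _).le
  have f2 : |W.crd n x' y' 2| ≤ 5 * (CfW W * MW W ^ 2 * W.B'.d n ^ (p 2 - 2 * e)) :=
    fr2 (b1 := W.crd n x y 1) (b2 := W.crd n x y 2) (a1 := W.crd n x x' 1)
      (a2 := W.crd n x x' 2) (o2 := W.crd n y y' 2) (o0 := W.crd n y y' 0)
      (r0 := W.crd n x' y' 0) (c := cfl W lam n [1, 0] 2)
      (by linarith only [x2, x2']) h1 h2 (own_MW h g hx hx' hl h.n1 le_rfl)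
      (own_MW h g hx hx' hl h.n2 le_rfl) (own_MW h g hy hy' hl' h.n2 le_rfl)
      (crd_MW h g hy hy' 0) (crd_MW h g hx' hy' 0) (h.cfl_pos n _ _).le (cfl2_CfW h g) hM hC
      (anti (by linarith only [he, a12])) (anti (by linarith only [he]))
      (anti (by linarith only [t1, a12, he])) (anti (by linarith only [t2, he]))
      (hpos _).le (hpos _).le
  have f3 : |W.crd n x' y' 3| ≤ 20 * (CfW W ^ 2 * MW W ^ 3 * W.B'.d n ^ (p 3 - 2 * e)) :=
    fr3 (b1 := W.crd n x y 1) (b3 := W.crd n x y 3) (a1 := W.crd n x x' 1)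
      (a3 := W.crd n x x' 3) (o3 := W.crd n y y' 3) (o2 := W.crd n y y' 2)
      (o0 := W.crd n y y' 0) (r0 := W.crd n x' y' 0) (r2 := W.crd n x' y' 2) (k := κ n)
      (c := cfl W lam n [1, 2] 3) (d := cfl W lam n [1, 1, 0] 3)
      (by linarith only [x3, x3']) h1 h3 (own_MW h g hx hx' hl h.n1 le_rfl)
      (own_MW h g hx hx' hl h.n3 le_rfl) (own_MW h g hy hy' hl' h.n3 le_rfl)
      (own_MW h g hy hy' hl' h.n2 le_rfl)
      (crd_MW h g hy hy' 0) (crd_MW h g hx' hy' 0) f2 (h.hκ n) (h.cfl_pos n _ _).le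
      (cfl3_CfW h g) (h.cfl_pos n _ _).le (cfl3'_CfW h g) hM hC (hpos _).le (hpos _).le
      (hpos _).le (hpos _).le
      (anti (by linarith only [he])) (anti (by linarith only [t3, he]))
      (by rw [radd]; exact anti (by linarith only [b13, he]))
      (by rw [radd]; exact anti (by linarith only [a13, he]))
      (by rw [radd]; exact anti (by linarith only [c13, he]))
      (by rw [radd]; exact anti (by linarith only [d13, he]))
  refine ⟨f1.trans ?_, f2.trans ?_, f3.trans ?_⟩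
  · rw [← mul_assoc]; exact mul_le_mul_of_nonneg_right F1 (hpos _).le
  · rw [← mul_assoc]; exact mul_le_mul_of_nonneg_right F2 (hpos _).le
  · rw [← mul_assoc]; exact mul_le_mul_of_nonneg_right F3 (hpos _).le

/-- all slots of the own motion -/
theorem own_mix {n : ℕ} (g : W.Good n) {x x' : ι n} (hx : x ∈ W.Cl n) (hx' : x' ∈ W.Cl n)
    (hl : W.lc n x = W.lc n x') {v : Fin 18 → ℝ} {e : ℝ} (he : 0 ≤ e)
    (hv : ∀ s ∈ W.S, |W.crd n x x' s| ≤ MW W * W.B'.d n ^ (v s - e)) (s : Fin 18) :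
    |W.crd n x x' s| ≤ MF W * W.B'.d n ^ (eOwn W v s - 2 * e) := by
  obtain ⟨m1, m2, -, -⟩ := MF_le h
  have hM0 : 0 ≤ MW W := by linarith [(MW_le h).1]
  have hpos : ∀ t : ℝ, 0 < W.B'.d n ^ t := fun t => Real.rpow_pos_of_pos (W.B'.pos n) _
  have anti : ∀ {s t : ℝ}, s ≤ t → W.B'.d n ^ t ≤ W.B'.d n ^ s := fun hst =>
    Real.rpow_le_rpow_of_exponent_ge (W.B'.pos n) (W.B'.lt n).le hst
  unfold eOwn
  split_ifs with hs
  · exact (hv s hs).trans (mul_le_mul m2 (anti (by linarith)) (hpos _).le (by linarith))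
  · exact (own_MW h g hx hx' hl hs le_rfl).trans
      (mul_le_mul m2 (anti (by linarith)) (hpos _).le (by linarith))

/-- all slots of a pair at one height -/
theorem rel_mix {n : ℕ} (g : W.Good n) {x y : ι n} (hx : x ∈ W.Cl n) (hy : y ∈ W.Cl n)
    (hz : W.zc n x = W.zc n y) {p : Fin 18 → ℝ} {e : ℝ} (he : 0 ≤ e) (s : Fin 18)
    (hp : s ∉ W.S → |W.crd n x y s| ≤ MF W * W.B'.d n ^ (p s - 2 * e)) :
    |W.crd n x y s| ≤ MF W * W.B'.d n ^ (eRel W p s - 2 * e) := by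
  obtain ⟨m1, m2, -, -⟩ := MF_le h
  have hM0 : 0 ≤ MW W := by linarith [(MW_le h).1]
  have hpos : ∀ t : ℝ, 0 < W.B'.d n ^ t := fun t => Real.rpow_pos_of_pos (W.B'.pos n) _
  have anti : ∀ {s t : ℝ}, s ≤ t → W.B'.d n ^ t ≤ W.B'.d n ^ s := fun hst =>
    Real.rpow_le_rpow_of_exponent_ge (W.B'.pos n) (W.B'.lt n).le hst
  unfold eRel
  split_ifs with hs
  · exact (lev_MW h g hx hy hz hs le_rfl).trans
      (mul_le_mul m2 (anti (by linarith)) (hpos _).le (by linarith))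
  · exact hp hs

/-- **the two sums of the evolution** -/
theorem two_sums {n : ℕ} (g : W.Good n) {x x' y y' : ι n} (hx : x ∈ W.Cl n) (hx' : x' ∈ W.Cl n)
    (hy : y ∈ W.Cl n) (hy' : y' ∈ W.Cl n) (hl : W.lc n x = W.lc n x') (hl' : W.lc n y = W.lc n y')
    (hz : W.zc n x = W.zc n y) (hz' : W.zc n x' = W.zc n y')
    {p v : Fin 18 → ℝ} (hp : HtPres W p v) {e : ℝ} (he : 0 ≤ e)
    (hb : ∀ s, s ∉ W.S → |W.crd n x y s| ≤ W.B'.d n ^ (p s - e))
    (hv : ∀ s ∈ W.S, |W.crd n x x' s| ≤ MW W * W.B'.d n ^ (v s - e))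
    (hv' : ∀ s ∈ W.S, |W.crd n y y' s| ≤ MW W * W.B'.d n ^ (v s - e)) :
    (∀ s, |mix (W.crd n x y) (W.crd n y y') s| ≤
      MF W * W.B'.d n ^ (mix (eRel W p) (eOwn W v) s - 2 * e)) ∧
    (∀ s, |mix (W.crd n x x') (W.crd n x' y') s| ≤
      MF W * W.B'.d n ^ (mix (eOwn W v) (eRel W p) s - 2 * e)) := by
  obtain ⟨m1, m2, -, -⟩ := MF_le h
  have hpos : ∀ t : ℝ, 0 < W.B'.d n ^ t := fun t => Real.rpow_pos_of_pos (W.B'.pos n) _
  have anti : ∀ {s t : ℝ}, s ≤ t → W.B'.d n ^ t ≤ W.B'.d n ^ s := fun hst =>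
    Real.rpow_le_rpow_of_exponent_ge (W.B'.pos n) (W.B'.lt n).le hst
  obtain ⟨f1, f2, f3⟩ := frames_le h g hx hx' hy hy' hl hl' hp he (hb 1 h.n1) (hb 2 h.n2)
    (hb 3 h.n3)
  have o1 := own_mix h g hx hx' hl he hv
  have o2 := own_mix h g hy hy' hl' he hv'
  have hbM : ∀ s, s ∉ W.S → |W.crd n x y s| ≤ MF W * W.B'.d n ^ (p s - 2 * e) := by
    intro s hs
    refine (hb s hs).trans ((anti (by linarith)).trans (le_mul_of_one_le_left (hpos _).le m1))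
  constructor
  · intro s
    refine Fin.addCases (m := 4) (n := 14) (fun i => ?_) (fun q => ?_) s
    · rw [mix_left, mix_left]; exact o2 _
    · rw [mix_right, mix_right]; exact rel_mix h g hx hy hz he _ (hbM _)
  · intro s
    refine Fin.addCases (m := 4) (n := 14) (fun i => ?_) (fun q => ?_) s
    · rw [mix_left, mix_left]
      refine rel_mix h g hx' hy' hz' he _ (fun hs => ?_)
      fin_cases i
      · exact absurd h.h0 hs
      · exact f1
      · exact f2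
      · exact f3
    · rw [mix_right, mix_right]; exact o1 _

/-- **the box is preserved** -/
theorem flag_pres {n : ℕ} (g : W.Good n) {x x' y y' : ι n} (hx : x ∈ W.Cl n) (hx' : x' ∈ W.Cl n)
    (hy : y ∈ W.Cl n) (hy' : y' ∈ W.Cl n) (hl : W.lc n x = W.lc n x') (hl' : W.lc n y = W.lc n y')
    (hz : W.zc n x = W.zc n y) (hz' : W.zc n x' = W.zc n y')
    {p v : Fin 18 → ℝ} (hp : HtPres W p v) {e : ℝ} (he : 0 ≤ e)
    (hb : ∀ s, s ∉ W.S → |W.crd n x y s| ≤ W.B'.d n ^ (p s - e))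
    (hv : ∀ s ∈ W.S, |W.crd n x x' s| ≤ MW W * W.B'.d n ^ (v s - e))
    (hv' : ∀ s ∈ W.S, |W.crd n y y' s| ≤ MW W * W.B'.d n ^ (v s - e)) (s : Fin 18)
    (hs : s ∉ W.S) : |W.crd n x' y' s| ≤ 4 * MG W * W.B'.d n ^ (p s - 14 * e) := by
  obtain ⟨m1, m2, m3, m4⟩ := MF_le h
  have hpos : ∀ t : ℝ, 0 < W.B'.d n ^ t := fun t => Real.rpow_pos_of_pos (W.B'.pos n) _
  have anti : ∀ {s t : ℝ}, s ≤ t → W.B'.d n ^ t ≤ W.B'.d n ^ s := fun hst =>
    Real.rpow_le_rpow_of_exponent_ge (W.B'.pos n) (W.B'.lt n).le hst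
  obtain ⟨f1, f2, f3⟩ := frames_le h g hx hx' hy hy' hl hl' hp he (hb 1 h.n1) (hb 2 h.n2)
    (hb 3 h.n3)
  have fr : ∀ s, |W.crd n x' y' s| ≤ MF W * W.B'.d n ^ (p s - 2 * e) →
      |W.crd n x' y' s| ≤ 4 * MG W * W.B'.d n ^ (p s - 14 * e) := by
    intro s h1
    refine h1.trans (mul_le_mul (by linarith) (anti (by linarith)) (hpos _).le (by linarith))
  revert hs
  refine Fin.addCases (m := 4) (n := 14) (fun i hs => ?_) (fun q hs => ?_) s
  · refine fr _ ?_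
    fin_cases i
    · exact absurd h.h0 hs
    · exact f1
    · exact f2
    · exact f3
  · obtain ⟨x1, x2⟩ := two_sums h g hx hx' hy hy' hl hl' hz hz' hp he hb hv hv'
    have s1 := row_exp' h g q (κ := κ) (e := 2 * e) m1 (W.B'.pos n) (W.B'.lt n).le
      (by linarith) x1 (hp.f1 q hs)
    have s2 := row_exp' h g q (κ := κ) (e := 2 * e) m1 (W.B'.pos n) (W.B'.lt n).le
      (by linarith) x2 (hp.f2 q hs)
    have e7 : p (Fin.natAdd 4 q) - 7 * (2 * e) = p (Fin.natAdd 4 q) - 14 * e := by ring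
    rw [e7] at s1 s2
    rw [evo_exact h g hx hx' hy hy' q]
    set P := W.B'.d n ^ (p (Fin.natAdd 4 q) - 14 * e) with hP
    have hP0 : 0 < P := hpos _
    have t0 := (hb _ hs).trans (anti (show p (Fin.natAdd 4 q) - 14 * e ≤
      p (Fin.natAdd 4 q) - e by linarith))
    have t1 := (own_MW h g hx hx' hl hs (hp.tf q hs)).trans (mul_le_mul (m2.trans m4)
      (anti (show p (Fin.natAdd 4 q) - 14 * e ≤ p (Fin.natAdd 4 q) by linarith)) (hpos _).le
      (by linarith))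
    have t2 := (own_MW h g hy hy' hl' hs (hp.tf q hs)).trans (mul_le_mul (m2.trans m4)
      (anti (show p (Fin.natAdd 4 q) - 14 * e ≤ p (Fin.natAdd 4 q) by linarith)) (hpos _).le
      (by linarith))
    rw [← hP] at t0 t1 t2
    have w1 : P ≤ MG W * P := le_mul_of_one_le_left hP0.le m3
    have w2 : 2 * (67 * (CfW W * (MF W ^ 7 * P))) = MG W * P := by unfold MG; ring
    have a1 := abs_sub (W.crd n x y (Fin.natAdd 4 q) +
      (W.crd n y y' (Fin.natAdd 4 q) - W.crd n x x' (Fin.natAdd 4 q)) +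
      ((tms q).map (tmN W κ lam n q (W.crd n x y) (W.crd n y y'))).sum)
      ((tms q).map (tmN W κ lam n q (W.crd n x x') (W.crd n x' y'))).sum
    have a2 := abs_add_le (W.crd n x y (Fin.natAdd 4 q) +
      (W.crd n y y' (Fin.natAdd 4 q) - W.crd n x x' (Fin.natAdd 4 q)))
      ((tms q).map (tmN W κ lam n q (W.crd n x y) (W.crd n y y'))).sum
    have a3 := abs_add_le (W.crd n x y (Fin.natAdd 4 q))
      (W.crd n y y' (Fin.natAdd 4 q) - W.crd n x x' (Fin.natAdd 4 q))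
    have a4 := abs_sub (W.crd n y y' (Fin.natAdd 4 q)) (W.crd n x x' (Fin.natAdd 4 q))
    linarith

/-- **the link row** -/
theorem link_row {n : ℕ} (g : W.Good n) {x x' y y' : ι n} (hx : x ∈ W.Cl n) (hx' : x' ∈ W.Cl n)
    (hy : y ∈ W.Cl n) (hy' : y' ∈ W.Cl n) (hl : W.lc n x = W.lc n x') (hl' : W.lc n y = W.lc n y')
    (hz : W.zc n x = W.zc n y) (hz' : W.zc n x' = W.zc n y')
    {p v : Fin 18 → ℝ} (hp : HtPres W p v) {F q : Fin 14} {m : ℤ} {k : ℕ} {X : ℝ}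
    (hr : HtRow W p v F q m k X) {e : ℝ} (he : 0 ≤ e)
    (hb : ∀ s, s ∉ W.S → |W.crd n x y s| ≤ W.B'.d n ^ (p s - e))
    (hv : ∀ s ∈ W.S, |W.crd n x x' s| ≤ MW W * W.B'.d n ^ (v s - e))
    (hv' : ∀ s ∈ W.S, |W.crd n y y' s| ≤ MW W * W.B'.d n ^ (v s - e)) :
    |W.crd n x' y' (Fin.natAdd 4 q) - W.crd n x y (Fin.natAdd 4 q) -
      cHt W κ lam F q m k n * (W.crd n y y' 0 * W.crd n x y (Fin.natAdd 4 F))| ≤
      3 * MG W * W.B'.d n ^ (X - 14 * e) := by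
  obtain ⟨m1, m2, m3, m4⟩ := MF_le h
  have hpos : ∀ t : ℝ, 0 < W.B'.d n ^ t := fun t => Real.rpow_pos_of_pos (W.B'.pos n) _
  have anti : ∀ {s t : ℝ}, s ≤ t → W.B'.d n ^ t ≤ W.B'.d n ^ s := fun hst =>
    Real.rpow_le_rpow_of_exponent_ge (W.B'.pos n) (W.B'.lt n).le hst
  obtain ⟨x1, x2⟩ := two_sums h g hx hx' hy hy' hl hl' hz hz' hp he hb hv hv'
  have s1 := row_exp h g q (fun t => !decide (t = ⟨m, k, [0], F⟩)) (κ := κ) (e := 2 * e) m1
    (W.B'.pos n) (W.B'.lt n).le (by linarith) x1 (X := X) (fun t ht h1 => by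
      refine hr.r1 t ht ?_
      rintro rfl
      simp at h1)
  have s2 := row_exp' h g q (κ := κ) (e := 2 * e) m1 (W.B'.pos n) (W.B'.lt n).le
    (by linarith) x2 hr.r2
  have sp := sum_split (tmN W κ lam n q (W.crd n x y) (W.crd n y y'))
    (fun t => decide (t = ⟨m, k, [0], F⟩)) (tms q)
  rw [hr.one] at sp
  simp only [List.map_cons, List.map_nil, List.sum_cons, List.sum_nil, add_zero] at sp
  rw [tmN_z h] at sp
  have e7 : X - 7 * (2 * e) = X - 14 * e := by ring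
  rw [e7] at s1 s2
  rw [evo_exact h g hx hx' hy hy' q, sp]
  set P := W.B'.d n ^ (X - 14 * e) with hP
  have hP0 : 0 < P := hpos _
  have t1 := (own_MW h g hx hx' hl hr.qS hr.topq).trans (mul_le_mul (m2.trans m4)
      (anti (show X - 14 * e ≤ X by linarith)) (hpos _).le (by linarith))
  have t2 := (own_MW h g hy hy' hl' hr.qS hr.topq).trans (mul_le_mul (m2.trans m4)
      (anti (show X - 14 * e ≤ X by linarith)) (hpos _).le (by linarith))
  rw [← hP] at t1 t2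
  set A := (((tms q).filter fun t => !decide (t = ⟨m, k, [0], F⟩)).map
    (tmN W κ lam n q (W.crd n x y) (W.crd n y y'))).sum with hA
  set B := ((tms q).map (tmN W κ lam n q (W.crd n x x') (W.crd n x' y'))).sum with hB
  set T := cHt W κ lam F q m k n * (W.crd n y y' 0 * W.crd n x y (Fin.natAdd 4 F)) with hT
  have w2 : 2 * (67 * (CfW W * (MF W ^ 7 * P))) = MG W * P := by unfold MG; ring
  have ee : W.crd n x y (Fin.natAdd 4 q) +
      (W.crd n y y' (Fin.natAdd 4 q) - W.crd n x x' (Fin.natAdd 4 q)) + (T + A) - B -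
      W.crd n x y (Fin.natAdd 4 q) - T =
      (W.crd n y y' (Fin.natAdd 4 q) - W.crd n x x' (Fin.natAdd 4 q)) + (A - B) := by ring
  rw [ee]
  refine (abs_add_le _ _).trans ?_
  have a1 := abs_sub (W.crd n y y' (Fin.natAdd 4 q)) (W.crd n x x' (Fin.natAdd 4 q))
  have a2 := abs_sub A B
  linarith

/-- **composition at one height** -/
theorem comp_row {n : ℕ} (g : W.Good n) {x y z : ι n} (hx : x ∈ W.Cl n) (hy : y ∈ W.Cl n)
    (hz : z ∈ W.Cl n) (h1 : W.zc n x = W.zc n y) (h2 : W.zc n y = W.zc n z)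
    {p : Fin 18 → ℝ} {q : Fin 14} {X : ℝ}
    (hr : ∀ t ∈ tms q, X ≤ (t.idx.map (eRel W p)).sum) {e : ℝ} (he : 0 ≤ e)
    (hb : ∀ s, s ∉ W.S → |W.crd n x y s| ≤ W.B'.d n ^ (p s - e))
    (hc : ∀ s, s ∉ W.S → |W.crd n y z s| ≤ W.B'.d n ^ (p s - e)) :
    |W.crd n x z (Fin.natAdd 4 q) - W.crd n x y (Fin.natAdd 4 q) -
      W.crd n y z (Fin.natAdd 4 q)| ≤ MG W * W.B'.d n ^ (X - 14 * e) := by
  obtain ⟨m1, m2, m3, m4⟩ := MF_le h
  have hpos : ∀ t : ℝ, 0 < W.B'.d n ^ t := fun t => Real.rpow_pos_of_pos (W.B'.pos n) _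
  have anti : ∀ {s t : ℝ}, s ≤ t → W.B'.d n ^ t ≤ W.B'.d n ^ s := fun hst =>
    Real.rpow_le_rpow_of_exponent_ge (W.B'.pos n) (W.B'.lt n).le hst
  have hM : ∀ {a : ℝ} {s : Fin 18}, |a| ≤ W.B'.d n ^ (p s - e) →
      |a| ≤ MF W * W.B'.d n ^ (p s - 2 * e) := by
    intro a s ha
    exact ha.trans ((anti (by linarith)).trans (le_mul_of_one_le_left (hpos _).le m1))
  have x1 : ∀ s, |mix (W.crd n x y) (W.crd n y z) s| ≤
      MF W * W.B'.d n ^ (eRel W p s - 2 * e) := by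
    intro s
    refine Fin.addCases (m := 4) (n := 14) (fun i => ?_) (fun q => ?_) s
    · rw [mix_left]; exact rel_mix h g hy hz h2 he _ (fun hs => hM (hc _ hs))
    · rw [mix_right]; exact rel_mix h g hx hy h1 he _ (fun hs => hM (hb _ hs))
  have s1 := row_exp' h g q (κ := κ) (e := 2 * e) m1 (W.B'.pos n) (W.B'.lt n).le
    (by linarith) x1 hr
  have e7 : X - 7 * (2 * e) = X - 14 * e := by ring
  rw [e7] at s1
  have e1 := comp_flag h g hx hy hz q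
  have e2 : W.crd n x z (Fin.natAdd 4 q) - W.crd n x y (Fin.natAdd 4 q) -
      W.crd n y z (Fin.natAdd 4 q) =
      ((tms q).map (tmN W κ lam n q (W.crd n x y) (W.crd n y z))).sum := by rw [e1]; ring
  rw [e2]
  refine s1.trans ?_
  have hP0 := hpos (X - 14 * e)
  have w2 : 2 * (67 * (CfW W * (MF W ^ 7 * W.B'.d n ^ (X - 14 * e)))) =
      MG W * W.B'.d n ^ (X - 14 * e) := by unfold MG; ring
  have w3 : 0 ≤ MG W * W.B'.d n ^ (X - 14 * e) := mul_nonneg (by linarith) hP0.le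
  linarith

/-- **the coefficient is `ρ^o(1)`** at a tight wall -/
theorem cHt_ok {F q : Fin 14} {m : ℤ} {e : ℕ}
    (hw : ([0, Fin.natAdd 4 F] : List (Fin 18)) ∈ mlW (Fin.natAdd 4 q)) (hm : m ≠ 0)
    (hk : e ≠ 0 → ∀ ε : ℝ, 0 < ε → ∀ᶠ n in (U : Filter ℕ), W.B'.d n ^ ε ≤ |κ n|)
    (ht : ∀ᶠ n in (U : Filter ℕ), W.X n (Fin.natAdd 4 q) = W.X n 0 + W.X n (Fin.natAdd 4 F)) :
    ∀ ε : ℝ, 0 < ε → ∀ᶠ n in (U : Filter ℕ), W.B'.d n ^ ε ≤ |cHt W κ lam F q m e n| ∧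
      |cHt W κ lam F q m e n| ≤ W.B'.d n ^ (-ε) := by
  intro ε hε
  set k0 : ℝ := (([0, Fin.natAdd 4 F] : List (Fin 18)).map W.kap).prod /
    W.kap (Fin.natAdd 4 q) with hk0
  have hk0p : 0 < k0 := div_pos (kprod_pos h _) (h.ok.kap _)
  have hm1 : (1 : ℝ) ≤ |(m : ℝ)| := by
    rw [← Int.cast_abs]
    exact_mod_cast Int.one_le_abs hm
  have hκe : ∀ᶠ n in (U : Filter ℕ), W.B'.d n ^ (ε / 2) ≤ |κ n ^ e| := by
    by_cases he : e = 0
    · subst he
      refine Eventually.of_forall fun n => ?_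
      rw [pow_zero, abs_one]
      exact Real.rpow_le_one (W.B'.pos n).le (W.B'.lt n).le (by positivity)
    · have he' : (0 : ℝ) < e := by exact_mod_cast Nat.pos_of_ne_zero he
      filter_upwards [hk he (ε / 2 / e) (by positivity)] with n hn
      rw [abs_pow]
      calc W.B'.d n ^ (ε / 2) = (W.B'.d n ^ (ε / 2 / e)) ^ e := by
            rw [← Real.rpow_natCast, ← Real.rpow_mul (W.B'.pos n).le]
            congr 1
            field_simp
        _ ≤ |κ n| ^ e := pow_le_pow_left₀ (Real.rpow_nonneg (W.B'.pos n).le _) hn e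
  filter_upwards [ht, hκe, ev_const_le W.B' (show 0 < ε / 2 by positivity) (1 / k0),
    ev_const_le W.B' hε (|(m : ℝ)| * k0)] with n htn hκn h1 h2
  have hcf : cfl W lam n [0, Fin.natAdd 4 F] (Fin.natAdd 4 q) = k0 := by
    refine h.cfl_eq hw ?_
    rw [htn]
    simp
  have hpos : ∀ t : ℝ, 0 < W.B'.d n ^ t := fun t => Real.rpow_pos_of_pos (W.B'.pos n) _
  unfold cHt
  rw [hcf, abs_mul, abs_mul, abs_of_pos hk0p]
  constructor
  · have e1 : W.B'.d n ^ (ε / 2) ≤ k0 := by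
      have e2 : W.B'.d n ^ (ε / 2) * W.B'.d n ^ (-(ε / 2)) = 1 := by
        rw [← Real.rpow_add (W.B'.pos n), add_neg_cancel, Real.rpow_zero]
      have e3 : 1 / k0 * k0 = 1 := by field_simp
      have e4 := mul_le_mul_of_nonneg_left h1 (hpos (ε / 2)).le
      rw [e2] at e4
      have e5 := mul_le_mul_of_nonneg_right e4 hk0p.le
      calc W.B'.d n ^ (ε / 2) = W.B'.d n ^ (ε / 2) * (1 / k0) * k0 := by
            rw [mul_assoc, e3, mul_one]
        _ ≤ 1 * k0 := e5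
        _ = k0 := one_mul _
    calc W.B'.d n ^ ε = 1 * W.B'.d n ^ (ε / 2) * W.B'.d n ^ (ε / 2) := by
          rw [one_mul, ← Real.rpow_add (W.B'.pos n)]; congr 1; ring
      _ ≤ |(m : ℝ)| * |κ n ^ e| * k0 :=
          mul_le_mul (mul_le_mul hm1 hκn (hpos _).le (abs_nonneg _)) e1 (hpos _).le
            (mul_nonneg (abs_nonneg _) (abs_nonneg _))
  · have hk1 : |κ n ^ e| ≤ 1 := by
      rw [abs_pow]
      exact pow_le_one₀ (abs_nonneg _) (h.hκ n)
    calc |(m : ℝ)| * |κ n ^ e| * k0 ≤ |(m : ℝ)| * 1 * k0 := by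
          refine mul_le_mul_of_nonneg_right ?_ hk0p.le
          exact mul_le_mul_of_nonneg_left hk1 (abs_nonneg _)
      _ = |(m : ℝ)| * k0 := by ring
      _ ≤ _ := h2

end fin

theorem zrep_mem {n : ℕ} {E : Finset (ι n)} (hE : E ⊆ W.Cl n) {k : ℕ}
    (h : k ∈ (W.cfg0 n E).Z) : W.zrep n k ∈ W.Cl n ∧ W.zc n (W.zrep n k) = k := by
  obtain ⟨x, hx, h1⟩ := mem_image.1 h
  have := W.zrep_spec (hE hx)
  rw [h1] at this
  exact this

/-- **visibility of the own motion** : exponents `v` -/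
def OwnV (W : Wnd 18 ι) (E : ∀ n, Finset (ι n)) (v : Fin 18 → ℝ) : Prop :=
  ∀ ε : ℝ, 0 < ε → ∀ᶠ n in (U : Filter ℕ), ∀ i k k', (i, k) ∈ (W.cfg E n).I →
    (i, k') ∈ (W.cfg E n).I → ∀ s ∈ W.S, 0 < v s → |ownC W n i k k' s| ≤ W.B'.d n ^ (v s - ε)

theorem OwnV.zero (W : Wnd 18 ι) (E : ∀ n, Finset (ι n)) {v : Fin 18 → ℝ}
    (hv : ∀ s ∈ W.S, v s ≤ 0) : OwnV W E v := fun ε _ =>
  Eventually.of_forall fun n i k k' _ _ s hs h0 => absurd h0 (not_lt.2 (hv s hs))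

set_option maxHeartbeats 1000000 in
/-- **the height link of the window** -/
theorem htLink (h : WWnd W κ lam f) {E : ∀ n, Finset (ι n)} (hE : EvG W E)
    {Leg : Set (Fin 18 → ℝ)} {ν : (Fin 18 → ℝ) → ℝ} {D : ℝ}
    (H : RUnif W.B' (W.cfg E) Leg ν D) {p v : Fin 18 → ℝ} (hp : p ∈ Leg) (hpr : HtPres W p v)
    {F q : Fin 14} {m : ℤ} {e : ℕ} {x : ℝ} (hr : HtRow W p v F q m e x) (hown : OwnV W E v)
    (hcf : ∀ ε : ℝ, 0 < ε → ∀ᶠ n in (U : Filter ℕ), W.B'.d n ^ ε ≤ |cHt W κ lam F q m e n| ∧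
      |cHt W κ lam F q m e n| ≤ W.B'.d n ^ (-ε)) :
    HtLink W.B' (W.cfg E) p (Fin.natAdd 4 F) (Fin.natAdd 4 q) x (cHt W κ lam F q m e)
      (15 + 14 * D ^ 2) := by
  have hD := H.D1
  have hD2 : 1 ≤ D ^ 2 := one_le_pow₀ hD
  have hM := (MW_le h).1
  have hM0 : 0 ≤ MW W := by linarith
  obtain ⟨m1, m2, m3, m4⟩ := MF_le h
  refine ⟨by linarith, hcf, ?_, ?_, ?_⟩
  · -- hz
    intro ε hε
    filter_upwards [hE, ev_const_le W.B' hε (2 * MW W)] with n hn hc k hk k' hk'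
    obtain ⟨g, hsub, heq⟩ := hn
    rw [heq] at hk hk' ⊢
    have e1 : ∀ k, (W.cfg0 n (E n)).z k = W.crd n (W.s₀ n) (W.zrep n k) 0 := by
      intro k
      show W.crd n (W.s₀ n) (W.zrep n k) W.kz = _
      rw [h.kz]
    rw [e1, e1]
    have a1 := crd_MW h g g.s0 (zrep_mem hsub hk).1 0
    have a2 := crd_MW h g g.s0 (zrep_mem hsub hk').1 0
    have := abs_sub (W.crd n (W.s₀ n) (W.zrep n k) 0) (W.crd n (W.s₀ n) (W.zrep n k') 0)
    linarith
  · -- comp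
    intro ε hε
    filter_upwards [hE, narrow_two' H hp hε, ev_const_le W.B' hε (MG W)] with
      n hn hnar hk k i l l' hi hl1 hl2 h1 h2
    obtain ⟨g, hsub, heq⟩ := hn
    obtain ⟨n1, n2⟩ := hnar k i l l' hi hl1 hl2 h1 h2
    rw [heq] at hi hl1 hl2 n1 n2 ⊢
    obtain ⟨a1, a2, a3⟩ := Wnd.rep_of_mem hsub hi
    obtain ⟨b1, b2, b3⟩ := Wnd.rep_of_mem hsub hl1
    obtain ⟨c1, c2, c3⟩ := Wnd.rep_of_mem hsub hl2
    have hDε : 0 ≤ D ^ 2 * ε := by positivity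
    have q1 : ∀ s, s ∉ W.S → |W.crd n (W.rep n i k) (W.rep n l k) s| ≤
        W.B'.d n ^ (p s - D ^ 2 * ε) := by
      intro s hs; rw [← h.rel_eq i l k hs]; exact n1 s
    have q2 : ∀ s, s ∉ W.S → |W.crd n (W.rep n l k) (W.rep n l' k) s| ≤
        W.B'.d n ^ (p s - D ^ 2 * ε) := by
      intro s hs; rw [← h.rel_eq l l' k hs]; exact n2 s
    have fin : ∀ a : ℝ, |a| ≤ MG W * W.B'.d n ^ (x - 14 * (D ^ 2 * ε)) →
        |a| ≤ W.B'.d n ^ (x - (15 + 14 * D ^ 2) * ε) := by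
      intro a ha
      refine ha.trans ?_
      have := mul_le_mul_of_nonneg_right hk (Real.rpow_nonneg (W.B'.pos n).le
        (x - 14 * (D ^ 2 * ε)))
      refine this.trans ?_
      rw [← Real.rpow_add (W.B'.pos n)]
      refine Real.rpow_le_rpow_of_exponent_ge (W.B'.pos n) (W.B'.lt n).le ?_
      nlinarith
    rw [h.rel_eq i l' k hr.qS, h.rel_eq i l k hr.qS, h.rel_eq l l' k hr.qS,
      h.rel_eq i l' k hr.FS, h.rel_eq i l k hr.FS, h.rel_eq l l' k hr.FS]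
    exact ⟨fin _ (comp_row h g a1 b1 c1 (a3.trans b3.symm) (b3.trans c3.symm) hr.cq hDε q1 q2),
      fin _ (comp_row h g a1 b1 c1 (a3.trans b3.symm) (b3.trans c3.symm) hr.cF hDε q1 q2)⟩
  · -- evo
    intro ε hε
    filter_upwards [hE, hown ε hε, hcf ε hε, ev_const_le W.B' hε (4 * MG W),
      ev_const_le W.B' hε (3 * MG W + 2 * MW W ^ 2)] with
      n hn hv hc hk1 hk2 k k' i l hi hi' hl hl' hlo
    obtain ⟨g, hsub, heq⟩ := hn
    have hlo' := hlo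
    rw [heq] at hi hi' hl hl' hlo' hv ⊢
    obtain ⟨a1, a2, a3⟩ := Wnd.rep_of_mem hsub hi
    obtain ⟨b1, b2, b3⟩ := Wnd.rep_of_mem hsub hi'
    obtain ⟨c1, c2, c3⟩ := Wnd.rep_of_mem hsub hl
    obtain ⟨d1, d2, d3⟩ := Wnd.rep_of_mem hsub hl'
    have hpos : ∀ t : ℝ, 0 < W.B'.d n ^ t := fun t => Real.rpow_pos_of_pos (W.B'.pos n) _
    have anti : ∀ {s t : ℝ}, s ≤ t → W.B'.d n ^ t ≤ W.B'.d n ^ s := fun hst =>
      Real.rpow_le_rpow_of_exponent_ge (W.B'.pos n) (W.B'.lt n).le hst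
    have radd : ∀ s t : ℝ, W.B'.d n ^ s * W.B'.d n ^ t = W.B'.d n ^ (s + t) := fun s t =>
      (Real.rpow_add (W.B'.pos n) s t).symm
    have q1 : ∀ s, s ∉ W.S → |W.crd n (W.rep n i k) (W.rep n l k) s| ≤
        W.B'.d n ^ (p s - ε) := by
      intro s hs; rw [← h.rel_eq i l k hs]; exact hlo' s
    have ow : ∀ j, (j, k) ∈ (W.cfg0 n (E n)).I → (j, k') ∈ (W.cfg0 n (E n)).I →
        ∀ s ∈ W.S, |W.crd n (W.rep n j k) (W.rep n j k') s| ≤
          MW W * W.B'.d n ^ (v s - ε) := by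
      intro j hj hj' s hs
      rcases lt_or_ge 0 (v s) with hvs | hvs
      · exact (hv j k k' hj hj' s hs hvs).trans (le_mul_of_one_le_left (hpos _).le hM)
      · refine (own_MW' h g hsub hj hj' s).trans (le_mul_of_one_le_right hM0 ?_)
        exact Real.one_le_rpow_of_pos_of_le_one_of_nonpos (W.B'.pos n) (W.B'.lt n).le
          (by linarith)
    have R1 := flag_pres h g a1 b1 c1 d1 (a2.trans b2.symm) (c2.trans d2.symm)
      (a3.trans c3.symm) (b3.trans d3.symm) hpr hε.le q1 (ow i hi hi') (ow l hl hl')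
    have R2 := link_row h g a1 b1 c1 d1 (a2.trans b2.symm) (c2.trans d2.symm)
      (a3.trans c3.symm) (b3.trans d3.symm) hpr hr hε.le q1 (ow i hi hi') (ow l hl hl')
    have hC1 : 15 * ε ≤ (15 + 14 * D ^ 2) * ε := by nlinarith
    refine ⟨fun s => ?_, ?_⟩
    · change |(W.cfg0 n (E n)).rel k' i l s| ≤ W.B'.d n ^ (p s - (15 + 14 * D ^ 2) * ε)
      by_cases hs : s ∈ W.S
      · have : (W.cfg0 n (E n)).rel k' i l s = 0 := if_pos hs
        rw [this, abs_zero]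
        exact (hpos _).le
      · rw [h.rel_eq i l k' hs]
        refine (R1 s hs).trans ((mul_le_mul_of_nonneg_right hk1 (hpos _).le).trans ?_)
        rw [radd]
        exact anti (by linarith)
    · rw [h.rel_eq i l k' hr.qS, h.rel_eq i l k hr.qS, h.rel_eq i l k hr.FS]
      have o1 := h.own_zero g hsub hl hl' hr.top0
      have o2 : |ownC W n l k k' 0 - ((W.cfg0 n (E n)).z k' - (W.cfg0 n (E n)).z k)| ≤
          2 * MW W * W.B'.d n ^ x := by
        refine o1.trans ?_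
        have h1 := (MW_le h).2 0
        have h2 := (hpos x).le
        calc 2 * W.K0 * W.B'.d n ^ x / W.kap 0 = 2 * (W.K0 / W.kap 0) * W.B'.d n ^ x := by ring
          _ ≤ _ := mul_le_mul_of_nonneg_right (by linarith) h2
      have o3 := rel_MW' h g hsub hi hl (Fin.natAdd 4 F)
      rw [h.rel_eq i l k hr.FS] at o3
      set Fv := W.crd n (W.rep n i k) (W.rep n l k) (Fin.natAdd 4 F) with hFv
      have R3 : |cHt W κ lam F q m e n * ((ownC W n l k k' 0 -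
          ((W.cfg0 n (E n)).z k' - (W.cfg0 n (E n)).z k)) * Fv)| ≤
          2 * MW W ^ 2 * W.B'.d n ^ (x - 14 * ε) := by
        rw [abs_mul, abs_mul]
        calc |cHt W κ lam F q m e n| * (|ownC W n l k k' 0 -
            ((W.cfg0 n (E n)).z k' - (W.cfg0 n (E n)).z k)| * |Fv|)
            ≤ W.B'.d n ^ (-ε) * ((2 * MW W * W.B'.d n ^ x) * MW W) :=
              mul_le_mul hc.2 (mul_le_mul o2 o3 (abs_nonneg _)
                (mul_nonneg (mul_nonneg zero_le_two hM0) (hpos _).le))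
                (mul_nonneg (abs_nonneg _) (abs_nonneg _)) (hpos _).le
          _ = 2 * MW W ^ 2 * (W.B'.d n ^ (-ε) * W.B'.d n ^ x) := by ring
          _ ≤ _ := by
              rw [radd]
              exact mul_le_mul_of_nonneg_left (anti (by linarith)) (by positivity)
      have e1 : W.crd n (W.rep n i k') (W.rep n l k') (Fin.natAdd 4 q) -
          W.crd n (W.rep n i k) (W.rep n l k) (Fin.natAdd 4 q) -
          cHt W κ lam F q m e n * ((W.cfg0 n (E n)).z k' - (W.cfg0 n (E n)).z k) * Fv =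
          (W.crd n (W.rep n i k') (W.rep n l k') (Fin.natAdd 4 q) -
          W.crd n (W.rep n i k) (W.rep n l k) (Fin.natAdd 4 q) -
          cHt W κ lam F q m e n * (W.crd n (W.rep n l k) (W.rep n l k') 0 * Fv)) +
          cHt W κ lam F q m e n * ((ownC W n l k k' 0 -
          ((W.cfg0 n (E n)).z k' - (W.cfg0 n (E n)).z k)) * Fv) := by
        unfold ownC
        ring
      rw [e1]
      refine (abs_add_le _ _).trans ((add_le_add R2 R3).trans ?_)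
      rw [← add_mul]
      refine (mul_le_mul_of_nonneg_right hk2 (hpos _).le).trans ?_
      rw [radd]
      exact anti (by linarith)

/-! ### preservation from legality -/

/-- a legal box (with free height) is preserved by the change of height -/
theorem HtPres.of_legal (h : WWnd W κ lam f) {p v bb : Fin 18 → ℝ} (hl : Legal monW bb)
    (h0 : bb 0 = 0) (hb : ∀ s, s ∉ W.S → p s = bb s) (hnn : ∀ s, 0 ≤ p s)
    (ht : ∀ s, bb s ≤ W.top s) (hv : ∀ s ∈ W.S, bb s ≤ v s) (v0 : v 0 = 0) : HtPres W p v := by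
  obtain ⟨l0, l1⟩ := legal_ofLists.1 hl
  have e1 := hb 1 h.n1
  have e2 := hb 2 h.n2
  have e3 := hb 3 h.n3
  have w2 := l1 2 [1, 0] (by decide)
  have w3 := l1 3 [1, 1, 0] (by decide)
  have w3' := l1 3 [1, 2] (by decide)
  simp only [List.map_cons, List.map_nil, List.sum_cons, List.sum_nil] at w2 w3 w3'
  have t1 := ht 1
  have t2 := ht 2
  have t3 := ht 3
  have n1 := l0 1
  have n2 := l0 2
  refine ⟨hnn, fun s => (l0 s).trans (ht s), v0, by linarith, by linarith, by linarith,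
    by linarith, by linarith, by linarith, by linarith, by linarith,
    fun q hq => by rw [hb _ hq]; exact ht _, ?_, ?_⟩
  · intro q hq t htm
    rw [hb _ hq]
    have hm : t.idx ∈ mlW (Fin.natAdd 4 q) := by rw [mlW_right]; exact List.mem_map_of_mem htm
    refine (l1 _ _ hm).trans (List.sum_le_sum fun s _ => ?_)
    refine Fin.addCases (m := 4) (n := 14) (fun i => ?_) (fun q' => ?_) s
    · rw [mix_left]
      unfold eOwn
      split_ifs with hs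
      · exact hv _ hs
      · exact ht _
    · rw [mix_right]
      unfold eRel
      split_ifs with hs
      · exact ht _
      · exact (hb _ hs).ge
  · intro q hq t htm
    rw [hb _ hq]
    have hm : t.idx ∈ mlW (Fin.natAdd 4 q) := by rw [mlW_right]; exact List.mem_map_of_mem htm
    refine (l1 _ _ hm).trans (List.sum_le_sum fun s _ => ?_)
    refine Fin.addCases (m := 4) (n := 14) (fun i => ?_) (fun q' => ?_) s
    · rw [mix_left]
      unfold eRel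
      split_ifs with hs
      · exact ht _
      · exact (hb _ hs).ge
    · rw [mix_right]
      unfold eOwn
      split_ifs with hs
      · exact hv _ hs
      · exact ht _

/-! ### the decidable form -/

/-- frame slots from `B`, flag slots from `A` -/
def mixS (A B : Finset (Fin 18)) : Finset (Fin 18) :=
  (B.filter fun s => s.val < 4) ∪ (A.filter fun s => 4 ≤ s.val)

theorem mixS_left {A B : Finset (Fin 18)} {i : Fin 4} :
    Fin.castAdd 14 i ∈ mixS A B ↔ Fin.castAdd 14 i ∈ B := by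
  unfold mixS
  simp only [Finset.mem_union, Finset.mem_filter, Fin.val_castAdd]
  have := i.2
  constructor
  · rintro (h | h)
    · exact h.1
    · omega
  · intro h; exact Or.inl ⟨h, this⟩

theorem mixS_right {A B : Finset (Fin 18)} {q : Fin 14} :
    Fin.natAdd 4 q ∈ mixS A B ↔ Fin.natAdd 4 q ∈ A := by
  unfold mixS
  simp only [Finset.mem_union, Finset.mem_filter, Fin.val_natAdd]
  constructor
  · rintro (h | h)
    · omega
    · exact h.1
  · intro h; exact Or.inr ⟨h, by omega⟩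

/-- **decidable data of a height link** (independent of the level set): `A` = slots `≥ x` for pairs
at one height, `O` = slots `≥ x` in the own motion, `P` = narrow line flags -/
structure HtDat (A O P : Finset (Fin 18)) (F q : Fin 14) (m : ℤ) (e : ℕ) : Prop where
  one : (tms q).filter (fun t => decide (t = ⟨m, e, [0], F⟩)) = [⟨m, e, [0], F⟩]
  A0 : (0 : Fin 18) ∈ A
  O1 : (1 : Fin 18) ∈ O
  O2 : (2 : Fin 18) ∈ O
  O3 : (3 : Fin 18) ∈ O
  Oq : Fin.natAdd 4 q ∈ O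
  Aq : Fin.natAdd 4 q ∉ A
  AF : Fin.natAdd 4 F ∉ A
  a12 : (2 : Fin 18) ∈ A → (1 : Fin 18) ∈ A
  a13 : (3 : Fin 18) ∈ A → (1 : Fin 18) ∈ A
  PO : ∀ s ∈ P, s ∈ O
  r1 : live (mixS A O) q = [⟨m, e, [0], F⟩]
  r2 : live (mixS O A) q = []
  cq : live A q = []
  cF : live A F = []
  f1 : ∀ q' : Fin 14, Fin.natAdd 4 q' ∈ P → live (mixS A O) q' = []
  f2 : ∀ q' : Fin 14, Fin.natAdd 4 q' ∈ P → live (mixS O A) q' = []

instance (A O P : Finset (Fin 18)) (F q : Fin 14) (m : ℤ) (e : ℕ) :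
    Decidable (HtDat A O P F q m e) :=
  decidable_of_iff
    (((tms q).filter (fun t => decide (t = ⟨m, e, [0], F⟩)) = [⟨m, e, [0], F⟩]) ∧
    (0 : Fin 18) ∈ A ∧ (1 : Fin 18) ∈ O ∧ (2 : Fin 18) ∈ O ∧ (3 : Fin 18) ∈ O ∧
    Fin.natAdd 4 q ∈ O ∧ Fin.natAdd 4 q ∉ A ∧ Fin.natAdd 4 F ∉ A ∧
    ((2 : Fin 18) ∈ A → (1 : Fin 18) ∈ A) ∧ ((3 : Fin 18) ∈ A → (1 : Fin 18) ∈ A) ∧
    (∀ s ∈ P, s ∈ O) ∧ live (mixS A O) q = [⟨m, e, [0], F⟩] ∧ live (mixS O A) q = [] ∧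
    live A q = [] ∧ live A F = [] ∧
    (∀ q' : Fin 14, Fin.natAdd 4 q' ∈ P → live (mixS A O) q' = []) ∧
    (∀ q' : Fin 14, Fin.natAdd 4 q' ∈ P → live (mixS O A) q' = []))
    ⟨fun ⟨a, b, c, d, e, f, g, h, i, j, k, l, m, n, o, p, q⟩ =>
      ⟨a, b, c, d, e, f, g, h, i, j, k, l, m, n, o, p, q⟩,
     fun ⟨a, b, c, d, e, f, g, h, i, j, k, l, m, n, o, p, q⟩ =>
      ⟨a, b, c, d, e, f, g, h, i, j, k, l, m, n, o, p, q⟩⟩

/-- the box of a height link in the window: `y` on the line slots of `A`, `0` on the other ones -/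
structure HtBox (W : Wnd 18 ι) (A O P : Finset (Fin 18)) (F q : Fin 14) (b v : Fin 18 → ℝ)
    (y : ℝ) : Prop where
  qS : Fin.natAdd 4 q ∉ W.S
  FS : Fin.natAdd 4 F ∉ W.S
  nn : ∀ s, 0 ≤ b s
  tn : ∀ s, 0 ≤ W.top s
  vn : ∀ s, 0 ≤ v s
  v0 : v 0 = 0
  hA : ∀ s ∈ A, s ∉ W.S → b s = y
  hAS : ∀ s ∈ A, s ∈ W.S → y ≤ W.top s
  hO : ∀ s ∈ O, s ∉ W.S → y ≤ W.top s
  hOS : ∀ s ∈ O, s ∈ W.S → y ≤ v s
  hf : ∀ s, s ∉ A → s ∉ W.S → s ≠ Fin.natAdd 4 F → s ≠ Fin.natAdd 4 q → b s = 0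
  hP : ∀ q' : Fin 14, Fin.natAdd 4 q' ∈ A → Fin.natAdd 4 q' ∉ W.S → Fin.natAdd 4 q' ∈ P

theorem live_exp {N : Finset (Fin 18)} {α : Fin 18 → ℝ} {X : ℝ} (h0 : ∀ s, 0 ≤ α s)
    (hN : ∀ s ∈ N, X ≤ α s) {q : Fin 14} {t : Tm} (ht : t ∈ tms q) (hl : t ∉ live N q) :
    X ≤ (t.idx.map α).sum := by
  have h1 : ∃ s ∈ t.idx, s ∈ N := by
    by_contra hcon
    push Not at hcon
    exact hl (List.mem_filter.2 ⟨ht, decide_eq_true hcon⟩)
  obtain ⟨s, hs, hsN⟩ := h1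
  refine (hN s hsN).trans (List.single_le_sum ?_ _ (List.mem_map_of_mem hs))
  intro y hy
  obtain ⟨s', -, rfl⟩ := List.mem_map.1 hy
  exact h0 s'

section dat

variable {A O P : Finset (Fin 18)} {F q : Fin 14} {m : ℤ} {e : ℕ} {b v : Fin 18 → ℝ} {y : ℝ}

theorem HtDat.wall (hd : HtDat A O P F q m e) :
    ([0, Fin.natAdd 4 F] : List (Fin 18)) ∈ mlW (Fin.natAdd 4 q) := by
  have h1 : (⟨m, e, [0], F⟩ : Tm) ∈ (tms q).filter
      (fun t => decide (t = (⟨m, e, [0], F⟩ : Tm))) := by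
    rw [hd.one]; exact List.mem_singleton.2 rfl
  rw [mlW_right]
  exact List.mem_map.2 ⟨_, (List.mem_filter.1 h1).1, rfl⟩

theorem HtDat.ne (hd : HtDat A O P F q m e) :
    (Fin.natAdd 4 q : Fin 18) ≠ Fin.natAdd 4 F :=
  (mlW_low _ _ hd.wall _ (by simp)).ne'

theorem HtDat.pres (hd : HtDat A O P F q m e) (h : WWnd W κ lam f)
    (hb : HtBox W A O P F q b v y) (hy : 0 ≤ y) :
    HtPres W (b2 b (Fin.natAdd 4 F) (Fin.natAdd 4 q) 0 0) v ∧
    (∀ s ∈ A, y ≤ eRel W (b2 b (Fin.natAdd 4 F) (Fin.natAdd 4 q) 0 0) s) ∧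
    (∀ s ∈ O, y ≤ eOwn W v s) ∧
    (∀ s, 0 ≤ eRel W (b2 b (Fin.natAdd 4 F) (Fin.natAdd 4 q) 0 0) s) ∧
    (∀ s, 0 ≤ eOwn W v s) := by
  have hne := hd.ne
  set p := b2 b (Fin.natAdd 4 F) (Fin.natAdd 4 q) 0 0 with hp
  have pF : p (Fin.natAdd 4 F) = 0 := b2_F
  have pq : p (Fin.natAdd 4 q) = 0 := b2_N hne
  have pA : ∀ s ∈ A, s ∉ W.S → p s = y := by
    intro s hs hsS
    have h1 : s ≠ Fin.natAdd 4 F := by rintro rfl; exact hd.AF hs
    have h2 : s ≠ Fin.natAdd 4 q := by rintro rfl; exact hd.Aq hs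
    rw [hp, b2_o h1 h2]; exact hb.hA s hs hsS
  have pf : ∀ s, s ∉ A → s ∉ W.S → p s = 0 := by
    intro s hs hsS
    by_cases h1 : s = Fin.natAdd 4 F
    · rw [h1]; exact pF
    by_cases h2 : s = Fin.natAdd 4 q
    · rw [h2]; exact pq
    rw [hp, b2_o h1 h2]; exact hb.hf s hs hsS h1 h2
  have pn : ∀ s, 0 ≤ p s := by
    intro s
    rw [hp]; unfold b2
    split_ifs
    · exact le_rfl
    · exact le_rfl
    · exact hb.nn s
  have py : ∀ s, s ∉ W.S → p s ≤ y := by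
    intro s hs
    by_cases hsA : s ∈ A
    · exact (pA s hsA hs).le
    · rw [pf s hsA hs]; exact hy
  have rA : ∀ s ∈ A, y ≤ eRel W p s := by
    intro s hs
    unfold eRel
    split_ifs with hsS
    · exact hb.hAS s hs hsS
    · exact (pA s hs hsS).ge
  have rO : ∀ s ∈ O, y ≤ eOwn W v s := by
    intro s hs
    unfold eOwn
    split_ifs with hsS
    · exact hb.hOS s hs hsS
    · exact hb.hO s hs hsS
  have n1 : ∀ s, 0 ≤ eRel W p s := by
    intro s; unfold eRel; split_ifs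
    · exact hb.tn s
    · exact pn s
  have n2 : ∀ s, 0 ≤ eOwn W v s := by
    intro s; unfold eOwn; split_ifs
    · exact hb.vn s
    · exact hb.tn s
  have t1 : y ≤ W.top 1 := hb.hO 1 hd.O1 h.n1
  have t2 : y ≤ W.top 2 := hb.hO 2 hd.O2 h.n2
  have t3 : y ≤ W.top 3 := hb.hO 3 hd.O3 h.n3
  have y1 := py 1 h.n1
  have y2 := py 2 h.n2
  have y3 := py 3 h.n3
  have q1 := pn 1
  have q2 := pn 2
  have a12 : p 2 ≤ p 1 := by
    by_cases h2 : (2 : Fin 18) ∈ A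
    · rw [pA 1 (hd.a12 h2) h.n1]; exact y2
    · rw [pf 2 h2 h.n2]; exact q1
  have a13 : p 3 ≤ p 1 := by
    by_cases h3 : (3 : Fin 18) ∈ A
    · rw [pA 1 (hd.a13 h3) h.n1]; exact y3
    · rw [pf 3 h3 h.n3]; exact q1
  have m1 : ∀ s, 0 ≤ mix (eRel W p) (eOwn W v) s := by
    intro s
    refine Fin.addCases (m := 4) (n := 14) (fun i => ?_) (fun q' => ?_) s
    · rw [mix_left]; exact n2 _
    · rw [mix_right]; exact n1 _
  have m2 : ∀ s, 0 ≤ mix (eOwn W v) (eRel W p) s := by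
    intro s
    refine Fin.addCases (m := 4) (n := 14) (fun i => ?_) (fun q' => ?_) s
    · rw [mix_left]; exact n1 _
    · rw [mix_right]; exact n2 _
  have k1 : ∀ s ∈ mixS A O, y ≤ mix (eRel W p) (eOwn W v) s := by
    intro s
    refine Fin.addCases (m := 4) (n := 14) (fun i hi => ?_) (fun q' hi => ?_) s
    · rw [mix_left]; exact rO _ (mixS_left.1 hi)
    · rw [mix_right]; exact rA _ (mixS_right.1 hi)
  have k2 : ∀ s ∈ mixS O A, y ≤ mix (eOwn W v) (eRel W p) s := by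
    intro s
    refine Fin.addCases (m := 4) (n := 14) (fun i hi => ?_) (fun q' hi => ?_) s
    · rw [mix_left]; exact rA _ (mixS_left.1 hi)
    · rw [mix_right]; exact rO _ (mixS_right.1 hi)
  refine ⟨⟨pn, hb.tn, hb.v0, by linarith, by linarith, by linarith, a12, by linarith,
    by linarith, by linarith, by linarith, ?_, ?_, ?_⟩, rA, rO, n1, n2⟩
  · intro q' hq'
    by_cases hA : Fin.natAdd 4 q' ∈ A
    · rw [pA _ hA hq']
      exact hb.hO _ (hd.PO _ (hb.hP q' hA hq')) hq'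
    · rw [pf _ hA hq']; exact hb.tn _
  · intro q' hq' t ht
    by_cases hA : Fin.natAdd 4 q' ∈ A
    · rw [pA _ hA hq']
      refine live_exp m1 k1 ht ?_
      rw [hd.f1 q' (hb.hP q' hA hq')]
      exact List.not_mem_nil
    · rw [pf _ hA hq']
      refine List.sum_nonneg ?_
      intro z hz
      obtain ⟨s', -, rfl⟩ := List.mem_map.1 hz
      exact m1 s'
  · intro q' hq' t ht
    by_cases hA : Fin.natAdd 4 q' ∈ A
    · rw [pA _ hA hq']
      refine live_exp m2 k2 ht ?_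
      rw [hd.f2 q' (hb.hP q' hA hq')]
      exact List.not_mem_nil
    · rw [pf _ hA hq']
      refine List.sum_nonneg ?_
      intro z hz
      obtain ⟨s', -, rfl⟩ := List.mem_map.1 hz
      exact m2 s'

theorem HtDat.row (hd : HtDat A O P F q m e) (h : WWnd W κ lam f)
    (hb : HtBox W A O P F q b v y) (hy : 0 ≤ y) {x : ℝ} (hxy : x ≤ y) :
    HtRow W (b2 b (Fin.natAdd 4 F) (Fin.natAdd 4 q) 0 0) v F q m e x := by
  obtain ⟨-, rA, rO, n1, n2⟩ := hd.pres h hb hy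
  set p := b2 b (Fin.natAdd 4 F) (Fin.natAdd 4 q) 0 0 with hp
  have m1 : ∀ s, 0 ≤ mix (eRel W p) (eOwn W v) s := by
    intro s
    refine Fin.addCases (m := 4) (n := 14) (fun i => ?_) (fun q' => ?_) s
    · rw [mix_left]; exact n2 _
    · rw [mix_right]; exact n1 _
  have m2 : ∀ s, 0 ≤ mix (eOwn W v) (eRel W p) s := by
    intro s
    refine Fin.addCases (m := 4) (n := 14) (fun i => ?_) (fun q' => ?_) s
    · rw [mix_left]; exact n1 _
    · rw [mix_right]; exact n2 _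
  have k1 : ∀ s ∈ mixS A O, y ≤ mix (eRel W p) (eOwn W v) s := by
    intro s
    refine Fin.addCases (m := 4) (n := 14) (fun i hi => ?_) (fun q' hi => ?_) s
    · rw [mix_left]; exact rO _ (mixS_left.1 hi)
    · rw [mix_right]; exact rA _ (mixS_right.1 hi)
  have k2 : ∀ s ∈ mixS O A, y ≤ mix (eOwn W v) (eRel W p) s := by
    intro s
    refine Fin.addCases (m := 4) (n := 14) (fun i hi => ?_) (fun q' hi => ?_) s
    · rw [mix_left]; exact rA _ (mixS_left.1 hi)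
    · rw [mix_right]; exact rO _ (mixS_right.1 hi)
  refine ⟨hd.one, hb.qS, hb.FS, hxy.trans (hb.hAS 0 hd.A0 h.h0),
    hxy.trans (hb.hO _ hd.Oq hb.qS), ?_, ?_, ?_, ?_⟩
  · intro t ht hne
    refine hxy.trans (live_exp m1 k1 ht ?_)
    rw [hd.r1]
    exact fun hm => hne (List.mem_singleton.1 hm)
  · intro t ht
    refine hxy.trans (live_exp m2 k2 ht ?_)
    rw [hd.r2]; exact List.not_mem_nil
  · intro t ht
    refine hxy.trans (live_exp n1 rA ht ?_)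
    rw [hd.cq]; exact List.not_mem_nil
  · intro t ht
    refine hxy.trans (live_exp n1 rA ht ?_)
    rw [hd.cF]; exact List.not_mem_nil

/-- **the height link from decidable data** -/
theorem HtDat.link (hd : HtDat A O P F q m e) (h : WWnd W κ lam f) {E : ∀ n, Finset (ι n)}
    (hE : EvG W E) {Leg : Set (Fin 18 → ℝ)} {ν : (Fin 18 → ℝ) → ℝ} {D : ℝ}
    (H : RUnif W.B' (W.cfg E) Leg ν D) (hb : HtBox W A O P F q b v y) (hy : 0 ≤ y) {x : ℝ}
    (hxy : x ≤ y) (hp : b2 b (Fin.natAdd 4 F) (Fin.natAdd 4 q) 0 0 ∈ Leg) (hown : OwnV W E v)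
    (hcf : ∀ ε : ℝ, 0 < ε → ∀ᶠ n in (U : Filter ℕ), W.B'.d n ^ ε ≤ |cHt W κ lam F q m e n| ∧
      |cHt W κ lam F q m e n| ≤ W.B'.d n ^ (-ε)) :
    HtLink W.B' (W.cfg E) (b2 b (Fin.natAdd 4 F) (Fin.natAdd 4 q) 0 0) (Fin.natAdd 4 F)
      (Fin.natAdd 4 q) x (cHt W κ lam F q m e) (15 + 14 * D ^ 2) :=
  htLink h hE H hp (hd.pres h hb hy).1 (hd.row h hb hy hxy) hown hcf

/-- **the velocity `F` costs something ⊢ the target `q` is full** (851's form) -/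
theorem HtDat.pos (hd : HtDat A O P F q m e) (h : WWnd W κ lam f) {E : ∀ n, Finset (ι n)}
    (hE : EvG W E) {Leg : Set (Fin 18 → ℝ)} {ν : (Fin 18 → ℝ) → ℝ} {R D : ℝ}
    (H : RModel W.B' (W.cfg E) 1 R Leg ν D) (hb : HtBox W A O P F q b v y) {x j : ℝ}
    (hx : 0 < x) (hxy : x ≤ y) (hxR : x ≤ R) (hj : 0 ≤ j) (hjx : j ≤ x)
    (hdx : ∀ t : ℝ, 0 ≤ t → t ≤ x → b2 b (Fin.natAdd 4 F) (Fin.natAdd 4 q) t x ∈ Leg)
    (hdiag : ∀ t : ℝ, 0 ≤ t → t ≤ x → b2 b (Fin.natAdd 4 F) (Fin.natAdd 4 q) t t ∈ Leg)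
    (hown : OwnV W E v)
    (hcf : ∀ ε : ℝ, 0 < ε → ∀ᶠ n in (U : Filter ℕ), W.B'.d n ^ ε ≤ |cHt W κ lam F q m e n| ∧
      |cHt W κ lam F q m e n| ≤ W.B'.d n ^ (-ε))
    (hpos : ν (b2 b (Fin.natAdd 4 F) (Fin.natAdd 4 q) j x) <
      ν (b2 b (Fin.natAdd 4 F) (Fin.natAdd 4 q) 0 x)) :
    x - j ≤ ν (b2 b (Fin.natAdd 4 F) (Fin.natAdd 4 q) 0 0) -
      ν (b2 b (Fin.natAdd 4 F) (Fin.natAdd 4 q) 0 x) :=
  height_pos_R H b hd.ne hx hxR hj hjx hdx hdiag
    (hd.link h hE H.toRUnif hb (hx.le.trans hxy) hxy (hdiag 0 le_rfl hx.le) hown hcf) hpos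

/-- linear form -/
theorem HtDat.rate (hd : HtDat A O P F q m e) (h : WWnd W κ lam f) {E : ∀ n, Finset (ι n)}
    (hE : EvG W E) {Leg : Set (Fin 18 → ℝ)} {ν : (Fin 18 → ℝ) → ℝ} {σ R D : ℝ}
    (H : RModel W.B' (W.cfg E) σ R Leg ν D) (hb : HtBox W A O P F q b v y) {x : ℝ}
    (hx : 0 < x) (hxy : x ≤ y) (hxR : x ≤ R)
    (h0x : b2 b (Fin.natAdd 4 F) (Fin.natAdd 4 q) 0 x ∈ Leg)
    (hdiag : ∀ t : ℝ, 0 ≤ t → t ≤ x → b2 b (Fin.natAdd 4 F) (Fin.natAdd 4 q) t t ∈ Leg)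
    (hown : OwnV W E v)
    (hcf : ∀ ε : ℝ, 0 < ε → ∀ᶠ n in (U : Filter ℕ), W.B'.d n ^ ε ≤ |cHt W κ lam F q m e n| ∧
      |cHt W κ lam F q m e n| ≤ W.B'.d n ^ (-ε)) {c a : ℝ} (hc : 0 < c)
    (hν0 : ν (b2 b (Fin.natAdd 4 F) (Fin.natAdd 4 q) 0 x) =
      ν (b2 b (Fin.natAdd 4 F) (Fin.natAdd 4 q) 0 0) - a * x)
    (hν : ∀ t : ℝ, 0 ≤ t → t ≤ x → ν (b2 b (Fin.natAdd 4 F) (Fin.natAdd 4 q) t t) =
      ν (b2 b (Fin.natAdd 4 F) (Fin.natAdd 4 q) 0 0) - (c + a) * t) : σ ≤ a :=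
  height_rate_R H b hd.ne hx hxR h0x hdiag
    (hd.link h hE H.toRUnif hb (hx.le.trans hxy) hxy (hdiag 0 le_rfl hx.le) hown hcf) hc hν0 hν

end dat

/-! ### instances: `S = {0}`, everything narrow -/

/-- own motion: only the height is visible -/
def O0 : Finset (Fin 18) := Finset.univ.erase 0

/-- the box data when only the height is a level slot -/
theorem HtBox.of_zero {A P : Finset (Fin 18)} {F q : Fin 14} {b : Fin 18 → ℝ} {y : ℝ}
    (hS : W.S = {0}) (hy : 0 ≤ y) (hnn : ∀ s, 0 ≤ b s) (htop : ∀ s, y ≤ W.top s)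
    (hA : ∀ s ∈ A, s ≠ 0 → b s = y)
    (hf : ∀ s, s ∉ A → s ≠ 0 → s ≠ Fin.natAdd 4 F → s ≠ Fin.natAdd 4 q → b s = 0)
    (hP : ∀ q' : Fin 14, Fin.natAdd 4 q' ∈ A → Fin.natAdd 4 q' ∈ P) :
    HtBox W A O0 P F q b (fun _ => 0) y := by
  have hn : ∀ q : Fin 14, (Fin.natAdd 4 q : Fin 18) ∉ W.S := by
    intro q; rw [hS, Finset.mem_singleton]; revert q; decide
  refine ⟨hn q, hn F, hnn, fun s => hy.trans (htop s), fun _ => le_rfl, rfl, ?_, ?_, ?_, ?_, ?_, ?_⟩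
  · intro s hs hsS
    refine hA s hs ?_
    rintro rfl
    exact hsS (by rw [hS]; exact Finset.mem_singleton_self 0)
  · intro s _ _; exact htop s
  · intro s _ _; exact htop s
  · intro s hs hsS
    rw [hS, Finset.mem_singleton] at hsS
    subst hsS
    exact absurd hs (by decide)
  · intro s hs hsS h1 h2
    refine hf s hs ?_ h1 h2
    rintro rfl
    exact hsS (by rw [hS]; exact Finset.mem_singleton_self 0)
  · intro q' hq' _; exact hP q' hq'

theorem ht_zA_A : HtDat (Finset.univ \ {12, 15}) O0 (O0 \ {1, 2, 3, 12, 15}) 8 11 1 0 := by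
  decide
theorem ht_zB_B : HtDat (Finset.univ \ {11, 14}) O0 (O0 \ {1, 2, 3, 11, 14}) 7 10 1 0 := by
  decide
theorem ht_zY_zB : HtDat (Finset.univ \ {8, 11, 14, 10}) O0 (O0 \ {1, 2, 3, 8, 11, 14, 10})
    4 7 2 0 := by decide
theorem ht_zY_AA : HtDat (Finset.univ \ {8, 11, 14, 10}) O0 (O0 \ {1, 2, 3, 8, 11, 14, 10})
    4 6 1 1 := by decide
theorem ht_AY_AB : HtDat (Finset.univ \ {6, 9}) O0 (O0 \ {1, 2, 3, 6, 9}) 2 5 1 0 := by decide
theorem ht_BY_BB : HtDat (Finset.univ \ {5, 7}) O0 (O0 \ {1, 2, 3, 5, 7}) 1 3 1 0 := by decide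
theorem ht_YY_BY : HtDat (Finset.univ \ {4, 5, 7}) O0 (O0 \ {1, 2, 3, 4, 5, 7}) 0 1 2 0 := by
  decide
theorem ht_R_P : HtDat (Finset.univ \ {13, 16, 17}) O0 (O0 \ {1, 2, 3, 13, 16, 17}) 9 12 2 0 := by
  decide
theorem ht_P_N : HtDat (Finset.univ \ {16, 17}) O0 (O0 \ {1, 2, 3, 16, 17}) 12 13 1 0 := by
  decide

/-- **`P → N`, coarse form**: frames and `R` narrow, every other flag coarse; every level set -/
theorem ht_P_N_coarse : HtDat {0, 1, 2, 3, 13} {1, 2, 3, 13, 17} {13} 12 13 1 0 := by decide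

/-- `P → N`, the `z`-slots (`8, 11, 12`), `AA`, `B`, `A` (`10, 14, 15`) coarse, the other flags
narrow -/
theorem ht_P_N_coarse' : HtDat {0, 1, 2, 3, 4, 5, 6, 7, 9, 13} {1, 2, 3, 4, 5, 6, 7, 9, 13, 17}
    {4, 5, 6, 7, 9, 13} 12 13 1 0 := by decide

end Crest.Agent.R136.Ht887
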