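import Crest.Agent.R136.EvW2_938

/-!
# R136: gauge change of the labels in the W-chart (helper619)

`gau κ e f` : the flagged line `f` with the flag `G + (polynomial with coefficients e centred at f)`.
`coW (gau f) (gau f') = coW f f'` on the frame slots and `+ e - tr (rel f f') e` on the flags.
-/

set_option autoImplicit false

namespace Crest.Agent.R136.GauW619

open Crest.Agent.R136.NetW191 Crest.Agent.R136.Net191 Crest.Agent.R136.EvW938

/-! ### frames -/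

lemma mul_zero' (κ : ℝ) (g : Fin 4 → ℝ) : mul κ g 0 = g := by
  funext k
  fin_cases k <;> simp [mul]

lemma zero_mul' (κ : ℝ) (g : Fin 4 → ℝ) : mul κ 0 g = g := by
  funext k
  fin_cases k <;> simp [mul]

/-- inverse frame -/
def inv (κ : ℝ) (g : Fin 4 → ℝ) : Fin 4 → ℝ := rel κ g 0

lemma rel_zero (κ : ℝ) (g : Fin 4 → ℝ) : rel κ 0 g = g := by
  funext k
  fin_cases k <;> simp [rel]

lemma rel_self (κ : ℝ) (g : Fin 4 → ℝ) : rel κ g g = 0 := by
  funext k
  fin_cases k <;> simp [rel]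

lemma rel_eq (κ : ℝ) (g h : Fin 4 → ℝ) : rel κ g h = mul κ (inv κ g) h := by
  rw [inv, ← rel_rel κ g 0 h, rel_zero]

lemma inv_mul (κ : ℝ) (g : Fin 4 → ℝ) : mul κ (inv κ g) g = 0 := by
  rw [← rel_eq, rel_self]

lemma mul_inv (κ : ℝ) (g : Fin 4 → ℝ) : mul κ g (inv κ g) = 0 := mul_rel κ g 0

lemma tr_id (κ : ℝ) (w : Fin 14 → ℝ) : tr κ 0 w = w := by
  funext q
  rw [tr_tms]
  have : ∀ L : List Tm, (∀ t ∈ L, t.hl ≠ []) → (L.map (Tm.ev κ 0 w)).sum = 0 := by
    intro L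
    induction L with
    | nil => simp
    | cons a L ih =>
      intro hL
      have h1 : Tm.ev κ 0 w a = 0 := by
        unfold Tm.ev
        obtain ⟨b, l, hbl⟩ := List.exists_cons_of_ne_nil (hL a List.mem_cons_self)
        rw [hbl]
        simp
      rw [List.map_cons, List.sum_cons, h1, ih fun t ht => hL t (List.mem_cons_of_mem _ ht),
        add_zero]
  have hne : ∀ q, ∀ t ∈ tms q, t.hl ≠ [] := by decide
  rw [this _ (hne q), add_zero]

lemma tr_inv (κ : ℝ) (g : Fin 4 → ℝ) (e : Fin 14 → ℝ) : tr κ g (tr κ (inv κ g) e) = e := by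
  rw [← tr_mul, inv_mul, tr_id]

lemma inv_tr (κ : ℝ) (g : Fin 4 → ℝ) (e : Fin 14 → ℝ) : tr κ (inv κ g) (tr κ g e) = e := by
  rw [← tr_mul, mul_inv, tr_id]

/-! ### the gauge change -/

/-- `f` with the flag corrected by the polynomial with coefficients `e` in the frame of `f` -/
def gau (κ : ℝ) (e : Fin 14 → ℝ) (f : FW) : FW := ⟨f.g, f.G + tr κ (inv κ f.g) e⟩

@[simp] lemma gau_g (κ : ℝ) (e : Fin 14 → ℝ) (f : FW) : (gau κ e f).g = f.g := rfl

lemma gau_G (κ : ℝ) (e : Fin 14 → ℝ) (f : FW) : (gau κ e f).G = f.G + tr κ (inv κ f.g) e := rfl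

/-- frame slots -/
theorem coW_gau_frame (κ : ℝ) (e : Fin 14 → ℝ) (f f' : FW) (i : Fin 4) :
    coW κ (gau κ e f) (gau κ e f') (Fin.castAdd 14 i) = coW κ f f' (Fin.castAdd 14 i) := by
  rw [coW_left, coW_left, gau_g, gau_g]

/-- **flag slots** -/
theorem coW_gau_flag (κ : ℝ) (e : Fin 14 → ℝ) (f f' : FW) (q : Fin 14) :
    coW κ (gau κ e f) (gau κ e f') (Fin.natAdd 4 q) =
      coW κ f f' (Fin.natAdd 4 q) + e q - tr κ (rel κ f.g f'.g) e q := by
  rw [coW_right, coW_right, gau_g, gau_G, gau_G]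
  have e1 : f'.G + tr κ (inv κ f'.g) e - (f.G + tr κ (inv κ f.g) e) =
      (f'.G - f.G) + tr κ (inv κ f'.g) e - tr κ (inv κ f.g) e := by
    abel
  have e2 : tr κ f'.g (tr κ (inv κ f.g) e) = tr κ (rel κ f.g f'.g) e := by
    rw [← tr_mul, ← rel_eq]
  rw [e1, tr_sub, tr_add, tr_inv, e2, Pi.sub_apply, Pi.add_apply]

/-- `flg`, `frm` of helper938 -/
theorem flg_gau (κ : ℝ) (e : Fin 14 → ℝ) (f f' : FW) :
    flg (coW κ (gau κ e f) (gau κ e f')) = flg (coW κ f f') + e -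
      tr κ (frm (coW κ f f')) e := by
  funext q
  rw [frm_coW]
  exact coW_gau_flag κ e f f' q

theorem frm_gau (κ : ℝ) (e : Fin 14 → ℝ) (f f' : FW) :
    frm (coW κ (gau κ e f) (gau κ e f')) = frm (coW κ f f') := by
  rw [frm_coW, frm_coW, gau_g, gau_g]

/-- the corrected labels live in the same chart -/
theorem chart_gau {ι : Type*} (I : Finset ι) (f : ι → FW) {κ : ℝ} (hκ : |κ| ≤ 1)
    (e : Fin 14 → ℝ) :
    Chart I (fun i j => coW κ (gau κ e (f i)) (gau κ e (f j))) monW 67 :=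
  chartW I (fun i => gau κ e (f i)) hκ

/-- two gauge changes -/
theorem gau_gau (κ : ℝ) (e e' : Fin 14 → ℝ) (f : FW) :
    gau κ e' (gau κ e f) = gau κ (e + e') f := by
  unfold gau
  simp only [tr_add]
  congr 1
  abel

theorem gau_zero (κ : ℝ) (f : FW) : gau κ 0 f = f := by
  unfold gau
  rw [tr_zero, add_zero]

theorem gau_neg (κ : ℝ) (e : Fin 14 → ℝ) (f : FW) : gau κ (-e) (gau κ e f) = f := by
  rw [gau_gau, add_neg_cancel, gau_zero]

/-! ### sizes -/

variable {κ : ℝ} {e : Fin 14 → ℝ} {f f' : FW} {X : Fin 18 → ℝ} {K τ : ℝ}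

/-- a correction of natural size does not change the sizes in boxes whose sides satisfy the
walls -/
theorem gau_le (hκ : |κ| ≤ 1) (hX : SidesW X) (hK : 1 ≤ K)
    (he : ∀ q : Fin 14, |e q| ≤ K * X (Fin.natAdd 4 q)) (h : ∀ s, |coW κ f f' s| ≤ K * X s)
    (s : Fin 18) : |coW κ (gau κ e f) (gau κ e f') s| ≤ 472 * K ^ 7 * X s := by
  have hK0 : 0 ≤ K := by linarith
  have hK7 : K ≤ K ^ 7 := by
    calc K = K ^ 1 := (pow_one K).symm
      _ ≤ K ^ 7 := pow_le_pow_right₀ hK (by norm_num)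
  have hp : 0 ≤ K ^ 7 := by positivity
  refine Fin.addCases (m := 4) (n := 14) (fun i => ?_) (fun q => ?_) s
  · rw [coW_gau_frame]
    refine (h _).trans (mul_le_mul_of_nonneg_right ?_ (hX.pos _))
    linarith
  · rw [coW_gau_flag]
    have h1 := tr_size (h := rel κ f.g f'.g) (w := e) hκ hX hK
      (fun i => by rw [← coW_left]; exact h _) he q
    have h2 := abs_sub (coW κ f f' (Fin.natAdd 4 q) + e q) (tr κ (rel κ f.g f'.g) e q)
    have h3 := abs_add_le (coW κ f f' (Fin.natAdd 4 q)) (e q)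
    have h4 := h (Fin.natAdd 4 q)
    have h5 := he q
    have h6 : K * X (Fin.natAdd 4 q) ≤ K ^ 7 * X (Fin.natAdd 4 q) :=
      mul_le_mul_of_nonneg_right hK7 (hX.pos _)
    linarith

/-- the converse -/
theorem of_gau_le (hκ : |κ| ≤ 1) (hX : SidesW X) (hK : 1 ≤ K)
    (he : ∀ q : Fin 14, |e q| ≤ K * X (Fin.natAdd 4 q))
    (h : ∀ s, |coW κ (gau κ e f) (gau κ e f') s| ≤ K * X s)
    (s : Fin 18) : |coW κ f f' s| ≤ 472 * K ^ 7 * X s := by
  have h1 := gau_le (e := -e) (f := gau κ e f) (f' := gau κ e f') hκ hX hK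
    (fun q => by rw [Pi.neg_apply, abs_neg]; exact he q) h s
  rwa [gau_neg, gau_neg] at h1

/-- **own motion**: if the own motion of the old label is the recentring of `e` up to `τ` times the
sides, then the corrected label does not move. -/
theorem own_gau (hκ : |κ| ≤ 1) (hX : SidesW X) (hK : 1 ≤ K) (hτ : 0 ≤ τ)
    (he : ∀ q : Fin 14, |e q| ≤ K * X (Fin.natAdd 4 q)) {h' : Fin 4 → ℝ}
    (hh : ∀ i : Fin 4, |rel κ f.g f'.g i| ≤ K * X (Fin.castAdd 14 i))
    (hh' : ∀ i : Fin 4, |h' i| ≤ K * X (Fin.castAdd 14 i))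
    (hhh : ∀ i : Fin 4, |rel κ f.g f'.g i - h' i| ≤ K * τ * X (Fin.castAdd 14 i)) {q : Fin 14}
    {E : ℝ} (hv : |coW κ f f' (Fin.natAdd 4 q) - (tr κ h' e q - e q)| ≤ E) :
    |coW κ (gau κ e f) (gau κ e f') (Fin.natAdd 4 q)| ≤
      E + 470 * K ^ 7 * τ * X (Fin.natAdd 4 q) := by
  have h1 := tr_lip (h := rel κ f.g f'.g) (h' := h') (w := e) (w' := e) hκ hX hK hτ hh hh' hhh he
    (fun q => by
      rw [sub_self, abs_zero]
      have := hX.pos (Fin.natAdd 4 q)
      positivity) q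
  rw [coW_gau_flag]
  have e1 : coW κ f f' (Fin.natAdd 4 q) + e q - tr κ (rel κ f.g f'.g) e q =
      (coW κ f f' (Fin.natAdd 4 q) - (tr κ h' e q - e q)) -
        (tr κ (rel κ f.g f'.g) e q - tr κ h' e q) := by ring
  rw [e1]
  exact (abs_sub _ _).trans (add_le_add hv h1)

/-! ### one monomial -/

/-- the recentring of `w8 · zA` : slots -/
lemma tr_single8 (κ ψ : ℝ) (h : Fin 4 → ℝ) : tr κ h (Pi.single 8 ψ) =
    fun q => if q = 8 then ψ else if q = 9 then h 1 * ψ else if q = 11 then h 0 * ψ else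
      if q = 12 then (h 2 + h 0 * h 1) * ψ else if q = 13 then h 0 * h 2 * ψ else 0 := by
  funext q
  fin_cases q
  · simp [tr0]
  · simp [tr1]
  · simp [tr2]
  · simp [tr3]
  · simp [tr4]
  · simp [tr5]
  · simp [tr6]
  · simp [tr7]
  · simp [tr8]
  · simp [tr9]
  · simp [tr10]
  · simp [tr11]
  · simp [tr12]; ring
  · simp [tr13]

/-- the recentring of `zB` -/
lemma tr_single7 (κ ψ : ℝ) (h : Fin 4 → ℝ) : tr κ h (Pi.single 7 ψ) =
    fun q => if q = 7 then ψ else if q = 8 then -(2 * κ * h 1 * ψ) else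
      if q = 9 then -(κ * h 1 ^ 2 * ψ) else if q = 10 then h 0 * ψ else
      if q = 11 then -(2 * κ * h 0 * h 1 * ψ) else
      if q = 12 then (h 3 - κ * h 0 * h 1 ^ 2) * ψ else if q = 13 then h 0 * h 3 * ψ else 0 := by
  funext q
  fin_cases q
  · simp [tr0]
  · simp [tr1]
  · simp [tr2]
  · simp [tr3]
  · simp [tr4]
  · simp [tr5]
  · simp [tr6]
  · simp [tr7]
  · simp [tr8]
  · simp [tr9]
  · simp [tr10]
  · simp [tr11]
  · simp [tr12]; ring
  · simp [tr13]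

/-- the recentring of `zY` -/
lemma tr_single4 (κ ψ : ℝ) (h : Fin 4 → ℝ) : tr κ h (Pi.single 4 ψ) =
    fun q => if q = 4 then ψ else if q = 6 then κ * h 0 * ψ else if q = 7 then 2 * h 0 * ψ else
      if q = 8 then (2 * κ * h 2 - 2 * κ * h 0 * h 1) * ψ else
      if q = 9 then (2 * κ * h 1 * h 2 + h 3 - κ * h 0 * h 1 ^ 2) * ψ else
      if q = 10 then h 0 ^ 2 * ψ else
      if q = 11 then (2 * κ * h 0 * h 2 - 2 * κ * h 0 ^ 2 * h 1) * ψ else
      if q = 12 then (κ * h 2 ^ 2 + 2 * κ * h 0 * h 1 * h 2 + 2 * h 0 * h 3 -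
        κ * h 0 ^ 2 * h 1 ^ 2) * ψ else
      if q = 13 then (κ * h 0 * h 2 ^ 2 + h 0 ^ 2 * h 3) * ψ else 0 := by
  funext q
  fin_cases q
  · simp [tr0]
  · simp [tr1]
  · simp [tr2]
  · simp [tr3]
  · simp [tr4]
  · simp [tr5]
  · simp [tr6]
  · simp [tr7]
  · simp [tr8]; ring
  · simp [tr9]; ring
  · simp [tr10]
  · simp [tr11]; ring
  · simp [tr12]; ring
  · simp [tr13]; ring

end Crest.Agent.R136.GauW619
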