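import Crest.Agent.R136.PrW3_464
import Crest.Agent.R136.GauW_619

/-!
# R136, thin branch (helper778): D-max for all gauges, the statement

`GmAt` : D-max of one box `x` for all gauged charts, uniformly in the gauge; `GmAt.mono`.
-/

set_option autoImplicit false
set_option linter.unusedVariables false

open Finset Filter Topology

namespace Crest.Agent.R136.GeoN778

open Crest.Agent.R138.Ex926 (Base U)
open Crest.Agent.R136.NetW191
open Crest.Agent.R136.PrW464 (unW)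
open Crest.Agent.R136.GauW619 (gau)

/-- **D-max in the box `x` for all gauges** (`e j` has no component in `R, P, N`) -/
def GmAt (B : Base) (I : ℕ → Finset (ℕ × ℝ)) (kp uz uc un : ℕ → ℝ) (F : ℕ → ℕ × ℝ → FW)
    (N : ℕ → ℝ) (D : (Fin 18 → ℝ) → ℝ) (x : Fin 18 → ℝ) : Prop :=
  ∀ C K : ℝ, 1 ≤ K → ∀ ε : ℝ, 0 < ε → ∀ᶠ n in (U : Filter ℕ), ∀ e : ℕ × ℝ → Fin 14 → ℝ,
    (∀ j ∈ I n, (e j 9 = 0 ∧ e j 12 = 0 ∧ e j 13 = 0) ∧
      ∀ k, unW (uz n) (uc n) (un n) (Fin.natAdd 4 k) * |e j k| ≤ B.d n ^ (-C)) →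
    ∀ i ∈ I n, ∀ S ⊆ I n, (∀ j ∈ S, ∀ k, |unW (uz n) (uc n) (un n) k *
      coW (kp n) (gau (kp n) (e i) (F n i)) (gau (kp n) (e j) (F n j)) k| ≤ K * B.d n ^ x k) →
      (S.card : ℝ) ≤ N n * B.d n ^ (-(D x + ε))

/-- smaller sets -/
theorem GmAt.mono {B : Base} {I J : ℕ → Finset (ℕ × ℝ)} {kp uz uc un : ℕ → ℝ}
    {F : ℕ → ℕ × ℝ → FW} {N : ℕ → ℝ} {D : (Fin 18 → ℝ) → ℝ} {x : Fin 18 → ℝ}
    (h : GmAt B I kp uz uc un F N D x) (hJ : ∀ᶠ n in (U : Filter ℕ), J n ⊆ I n) :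
    GmAt B J kp uz uc un F N D x := by
  classical
  intro C K hK ε hε
  filter_upwards [h C K hK ε hε, hJ] with n h1 h2 e he i hi S hS hb
  refine h1 (fun j => if j ∈ J n then e j else 0) (fun j hj => ?_) i (h2 hi) S (hS.trans h2)
    fun j hj k => ?_
  · by_cases hjJ : j ∈ J n
    · simp only [if_pos hjJ]; exact he j hjJ
    · simp only [if_neg hjJ]
      exact ⟨⟨rfl, rfl, rfl⟩, fun k => by
        rw [Pi.zero_apply, abs_zero, mul_zero]
        exact Real.rpow_nonneg (B.pos n).le _⟩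
  · simp only [if_pos hi, if_pos (hS hj)]
    exact hb j hj k

end Crest.Agent.R136.GeoN778
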