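import Crest.Agent.R136.Wq4_638
import Crest.Agent.R136.TopD_484
import Crest.Agent.R136.Lq6_196

/-!
# R136, thick branch: the object on which the case table runs (helper550)

Names and units of `Wq1_638` (`couQ`, `pathQ`, `ownQ`, `DQ`, `EQ`; index `0` = thickness, `1` = wide,
`2` = narrow) and of `TopD_484` (`Par4`, `Dat4`, `geo4`).

`nat4 w0 R v t1 t2 t3` : natural box of the level `v` with angular exponents `t1` (wide), `t2`
(narrow), `t3` (normal), all walls between line slots and flags are equalities.  Record path: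
`t_j = - θ_j v`.  Surfaces of the table: `srf` = `nat4` with `t1 = t`, `t2 = T2`, `t3` affine.

`ThickPre` : the straight chart before L15, `Thick` : after L15 (`Lq196.PreQ` on `D.I`,
`Lq196.ExtQ` on the sample `I1`).  D-max for ALL admissible sheets of every rational level is
`tp.pre.mka.dmax` with `G = geo4 L r0 wr cr q`.
-/

set_option autoImplicit false
set_option linter.unusedVariables false

open Finset Filter Topology

namespace Crest.Agent.R136.NatT550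

open Crest.Agent.R138.Ex926 (Base U QProf)
open Crest.Agent.R138.Mk163 (zc zl rho alive)
open Crest.Agent.R138.MkRef627 (lc kc)
open Crest.Agent.R136.MkA627
open Crest.Agent.R136.Net191
open Crest.Agent.R136.NetQ186
open Crest.Agent.R136.GeoQ186
open Crest.Agent.R136.Sh605
open Crest.Agent.R136.Lq196
open Crest.Agent.R136.Wq638
open Crest.Agent.R136.Top484

/-- natural box: level `v`, angular exponents `t1` (wide), `t2` (narrow), `t3` (normal) -/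
def nat4 (w0 R v t1 t2 t3 : ℝ) : Fin 11 → ℝ :=
  ![w0 + v, R, w0 + (t2 - t1), w0 + (t3 - t2), 2 * w0 + (t3 - t1), w0 + t1, 2 * w0 + t2,
    3 * w0 + t3, 2 * w0 + (v + t1), 3 * w0 + (v + t2), 4 * w0 + (v + t3)]

/-- the record path is natural -/
theorem pathQ_nat (θ : Fin 3 → ℝ) (w0 R v : ℝ) :
    pathQ θ w0 R v = nat4 w0 R v (-(θ 1 * v)) (-(θ 2 * v)) (-(θ 0 * v)) := by
  funext k
  fin_cases k <;>
    simp only [pathQ, nat4, Matrix.cons_val, Fin.zero_eta, Fin.mk_one, Fin.reduceFinMk,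
      Fin.isValue] <;>
    ring

/-- the natural boxes are legal -/
theorem nat4_legal {w0 R v t1 t2 t3 : ℝ} (hw : 0 ≤ w0) (hR : 3 * w0 + t3 ≤ w0 + v + R)
    (hR0 : 0 ≤ R) (h0 : 0 ≤ w0 + v) (h2 : 0 ≤ w0 + (t2 - t1)) (h3 : 0 ≤ w0 + (t3 - t2))
    (h5 : 0 ≤ w0 + t1) :
    Legal monQ (nat4 w0 R v t1 t2 t3) := by
  rw [legalQ_iff]
  refine ⟨fun k => ?_, ?_, ?_, ?_, ?_, ?_, ?_, ?_, ?_, ?_, ?_, ?_⟩
  · fin_cases k <;>
      simp only [nat4, Matrix.cons_val, Fin.zero_eta, Fin.mk_one, Fin.reduceFinMk, Fin.isValue] <;>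
      linarith
  all_goals
    simp only [nat4, Matrix.cons_val, Fin.isValue]
    linarith

/-- density exponent of a natural box -/
theorem DQ_nat4 (g s : ℝ) (q : Fin 3 → ℝ) (w0 R v t1 t2 t3 : ℝ) :
    DQ g s q w0 (nat4 w0 R v t1 t2 t3) = g * v + (1 - s) * (1 - v) - (v + t3) - (v + t2) -
      (v + t1) - q 0 * t3 - q 1 * t1 - q 2 * t2 := by
  simp only [DQ, nat4, Matrix.cons_val, Fin.isValue]
  ring

/-- angular exponent of the narrow width off the record line: `T2t` = slot `21` (`= 2`) tied -/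
noncomputable def T2 (θ : Fin 3 → ℝ) (T2t : Prop) [Decidable T2t] (v t : ℝ) : ℝ :=
  if T2t then (θ 1 - θ 2) * v + t else θ 2 / θ 1 * t

/-- **surface with `t3 = a v + b t`** -/
noncomputable def srf (θ : Fin 3 → ℝ) (w0 R : ℝ) (T2t : Prop) [Decidable T2t] (a b : ℝ)
    (v t : ℝ) : Fin 11 → ℝ :=
  nat4 w0 R v t (T2 θ T2t v t) (a * v + b * t)

theorem T2_path {θ : Fin 3 → ℝ} (h1 : 0 < θ 1) (T2t : Prop) [Decidable T2t] (v : ℝ) :
    T2 θ T2t v (-(θ 1 * v)) = -(θ 2 * v) := by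
  have h0 := h1.ne'
  unfold T2
  split_ifs
  · ring
  · field_simp

/-- the record line lies in the surface if `a - b θ_1 = - θ_0` -/
theorem srf_path {θ : Fin 3 → ℝ} (h1 : 0 < θ 1) {w0 R : ℝ} (T2t : Prop) [Decidable T2t]
    {a b : ℝ} (hab : a - b * θ 1 = -θ 0) (v : ℝ) :
    srf θ w0 R T2t a b v (-(θ 1 * v)) = pathQ θ w0 R v := by
  rw [srf, T2_path h1, pathQ_nat]
  congr 1
  have : a = b * θ 1 - θ 0 := by linarith
  rw [this]; ring

/-- constraints on the parameters, `η` small; minimal list used by the tables (312: doc 2353), so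
that flat sequences with any growth `g` are also accepted -/
structure ParOk (η : ℝ) (p : Par4) : Prop where
  q0 : 0 ≤ p.q 0 ∧ p.q 0 ≤ η * p.q 2
  q2 : 0 < p.q 2 ∧ p.q 2 ≤ η * p.g
  q21 : p.q 2 ≤ η * p.q 1
  g0 : 0 < p.g ∧ 0 < p.q 1
  θ1 : 0 < p.θ 1
  /-- the slopes are bounded in terms of the rewards -/
  θb : p.q 2 * max (p.θ 1 - p.θ 2) 0 + p.q 0 * (max (-(p.θ 0)) 0 + |p.θ 1| + |p.θ 2|) ≤ η * p.g
  θ1b : p.q 2 * p.θ 1 ≤ η * p.g ∧ p.q 2 * max (-(p.θ 2)) 0 ≤ η * p.g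

theorem ParOk.η_pos {η : ℝ} {p : Par4} (h : ParOk η p) : 0 < η := by
  by_contra hη
  push Not at hη
  have h1 := h.q2
  have h2 := h.g0.1
  nlinarith

theorem ParOk.of_J1c {η : ℝ} {p : Par4} {D : Dat4} (h : J1c η p D) : ParOk η p :=
  ⟨h.q0, h.q2, h.q21, h.g0, h.θ1, h.θb, h.θ1b⟩

theorem ParOk.of_J1 {η : ℝ} {p : Par4} {D : Dat4} (h : J1 η p D) : ParOk η p :=
  ParOk.of_J1c h.toJ1c

/-- facts about the slots: `V` = visible (tied or capped), `T` = tied; `2` = 21 (`E`), `3` = 32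
(`F_b`), `4` = 31 (`F_a`) -/
structure SlotOk (θ : Fin 3 → ℝ) (V T : Fin 11 → Prop) : Prop where
  tied : ∀ k, T k → V k
  vis : ∀ k, V k → isSl k ∧ 0 < btQ θ k
  /-- only `F_a` may be capped, by `E · F_b` -/
  cap : ∀ k, V k → ¬ T k → k = 4 ∧ V 2 ∧ V 3
  capV : V 2 → V 3 → V 4 ∧ ¬ T 4

/-- boxes which are one sheet, linear form (`GD5_186.mem_PDQ`) -/
def PDlin (θ : Fin 3 → ℝ) (w0 R : ℝ) : Set (Fin 11 → ℝ) :=
  {p | p ∈ Leg monQ R ∧ w0 ≤ p 0 ∧ p 0 ≤ w0 + 1 ∧ w0 - θ 1 < p 8 - p 0 ∧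
    w0 + min 0 (θ 1 - θ 2) ≤ p 9 - p 8 ∧ w0 + min 0 (θ 2 - θ 0) ≤ p 10 - p 9 ∧
    p 10 ≤ 4 * w0 + max 0 (1 - θ 0)}

/-- natural boxes in `PDlin` -/
theorem nat4_PDlin {θ : Fin 3 → ℝ} {w0 R R1 v t1 t2 t3 : ℝ}
    (hp : nat4 w0 R1 v t1 t2 t3 ∈ Leg monQ R) (h0 : 0 ≤ v) (h1 : v ≤ 1) (ht : -θ 1 < t1)
    (hab : min 0 (θ 1 - θ 2) ≤ t2 - t1) (hby : min 0 (θ 2 - θ 0) ≤ t3 - t2)
    (hr : v + t3 ≤ max 0 (1 - θ 0)) : nat4 w0 R1 v t1 t2 t3 ∈ PDlin θ w0 R := by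
  refine ⟨hp, ?_, ?_, ?_, ?_, ?_, ?_⟩ <;> simp only [nat4, Matrix.cons_val] <;> linarith

/-- power gap between the thickness and the narrow width of the marks of level `0` -/
def Gap23 (D : Dat4) : Prop :=
  ∃ γ : ℝ, 0 < γ ∧ ∀ᶠ n in (U : Filter ℕ), D.w 0 n 0 ≤ D.B.d n ^ γ * D.w 2 n 0

/-- **the thick branch before L15** : `D.I` = the marked family; the chart is `couQ` of the true
lines with the flags `eE, fA, fB`. -/
structure ThickPre (η : ℝ) (p : Par4) (D : Dat4) (π : Equiv.Perm (Fin 3))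
    (eE fA fB : ℕ → ℕ × ℝ → ℝ) (V T : Fin 11 → Prop) (w0 R T0 : ℝ)
    (PD : Set (Fin 11 → ℝ)) : Prop where
  ok : ParOk η p
  slots : SlotOk p.θ V T
  big : BigQ p.θ w0 R T0
  flag : ∀ n, ∀ x ∈ D.I n, |eE n x| ≤ 1 ∧ |fA n x| ≤ 1 ∧ |fB n x| ≤ 1
  /-- the flags of the exchanged chart (helpers 201, 436) -/
  flag2 : ∀ n, ∀ x ∈ D.I n, |eE n x| + |fA n x + eE n x * fB n x| ≤ 1
  /-- room for the change of `fB` in the gap case -/
  flag3 : Gap23 D → ∃ c : ℝ, c < 1 ∧ ∀ n, ∀ x ∈ D.I n, |fB n x| ≤ c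
  /-- range of the tests -/
  wrs : Rng D.B D.wr D.cr D.w
  /-- D-max holds (at least) for these boxes -/
  pd : PDlin p.θ w0 R ⊆ PD
  /-- input of L15 (contains the marked sequence on `D.I`, hence D-max for all sheets) -/
  pre : PreQ D.B D.I (D.G p) D.lev D.A p.g 0 (fun j v => p.θ j * (1 - v)) D.f D.b D.vm D.w
    (couQ D.B D.lev D.w w0 (incQ π D.L eE fA fB)) monQ 2 R 0 w0 (N0Q D.A D.vm) PD
    (DQ p.g 0 p.q w0) (pathQ p.θ w0 R) (ownQ p.θ w0 R V) (EQ p.θ p.g 0 p.q w0 R) T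

/-- **the thick branch after L15**, `I1` = sample -/
structure Thick (η : ℝ) (p : Par4) (D : Dat4) (I1 : ℕ → Finset (ℕ × ℝ)) (π : Equiv.Perm (Fin 3))
    (eE fA fB : ℕ → ℕ × ℝ → ℝ) (V T : Fin 11 → Prop) (w0 R T0 : ℝ)
    (PD : Set (Fin 11 → ℝ)) (ν own : (Fin 11 → ℝ) → ℝ) (c₀ : ℝ) : Prop where
  tp : ThickPre η p D π eE fA fB V T w0 R T0 PD
  ext : ExtQ D.B D.I I1 (couQ D.B D.lev D.w w0 (incQ π D.L eE fA fB)) monQ 2 R 0 w0 0 PD
    (DQ p.g 0 p.q w0) (pathQ p.θ w0 R) (ownQ p.θ w0 R V) (EQ p.θ p.g 0 p.q w0 R) T ν own c₀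
  /-- the sample is uniform: every count on `D.I` passes to the sample -/
  comb : CombQ D.B D.I I1 D.lev (couQ D.B D.lev D.w w0 (incQ π D.L eE fA fB)) monQ 2 R
    (N0Q D.A D.vm) c₀

/-- the data with another family of incidences -/
def subD (D : Dat4) (J : ℕ → Finset (ℕ × ℝ)) : Dat4 := { D with I := J }

/-- **L15 in the thick branch** -/
theorem thick_of_pre {η : ℝ} {p : Par4} {D : Dat4} {π : Equiv.Perm (Fin 3)}
    {eE fA fB : ℕ → ℕ × ℝ → ℝ} {V T : Fin 11 → Prop} {w0 R T0 : ℝ}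
    {PD : Set (Fin 11 → ℝ)} (h : ThickPre η p D π eE fA fB V T w0 R T0 PD) :
    ∃ (J I1 : ℕ → Finset (ℕ × ℝ)) (ν own : (Fin 11 → ℝ) → ℝ) (c₀ : ℝ), (∀ n, J n ⊆ D.I n) ∧
      Thick η p (subD D J) I1 π eE fA fB V T w0 R T0 PD ν own c₀ := by
  obtain ⟨J, I1, ν, own, c₀, h1, h2, h3, h4⟩ := l15Qc h.pre
  exact ⟨J, I1, ν, own, c₀, h1,
    ⟨h.ok, h.slots, h.big, fun n x hx => h.flag n x (h1 n hx),
      fun n x hx => h.flag2 n x (h1 n hx),
      fun hg => (h.flag3 hg).imp fun c hc => ⟨hc.1, fun n x hx => hc.2 n x (h1 n hx)⟩,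
      h.wrs, h.pd, h2⟩, h3, h4⟩

end Crest.Agent.R136.NatT550
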