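import Crest.Agent.R136.NatW1_697
import Crest.Agent.R136.PrW3_464
import Crest.Agent.R136.NatT_550
import Crest.Agent.R136.Lq6_196
import Crest.Agent.R136.GmD_778

/-!
# R136, thin branch (helper697), part 2: the object on which the cases 5a, 5b run

`ThinPre` : the W-chart before L15 (names and units of `PrW1_464`, `PrW3_464`), `Thin` : after L15
(`Lq196.PreQ` on `D.I`, `Lq196.ExtQ` on the sample `I1`), `thin_of_pre`.
-/

set_option autoImplicit false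
set_option linter.unusedVariables false

open Finset Filter Topology

namespace Crest.Agent.R136.NatW697

open Crest.Agent.R138.Ex926 (Base U QProf)
open Crest.Agent.R136.Net191
open Crest.Agent.R136.NetW191
open Crest.Agent.R136.Lq196
open Crest.Agent.R136.Wq638 (EQ N0Q EQ_eq)
open Crest.Agent.R136.Top484
open Crest.Agent.R136.NatT550 (ParOk subD)
open Crest.Agent.R136.PrW464

/-- facts about the slots: `V` = visible (tied or capped), `T` = tied.  A visible slot which is not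
tied is capped by a product of visible slots and powers of the height. -/
structure SlotOkW (θ : Fin 3 → ℝ) (V T : Fin 18 → Prop) : Prop where
  tied : ∀ k, T k → V k
  vis : ∀ k, V k → (4 ≤ k ∧ k ≠ 13 ∧ k ≠ 16 ∧ k ≠ 17) ∧ 0 < btW θ k
  cap : ∀ k, V k → ¬ T k → ∃ l ∈ mlW k, ∀ s ∈ l, s = 0 ∨ V s

/-- widths slopes in the order thickness, `A`, `B` of the W-chart (`π 0 = 0`, `π 1` = the index of the
`A`-width, `π 2` = the index of the `B`-width) -/
def thW (p : Par4) (π : Equiv.Perm (Fin 3)) : Fin 3 → ℝ := fun i => p.θ (π i)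
/-- rewards in the same order -/
def qW (p : Par4) (π : Equiv.Perm (Fin 3)) : Fin 3 → ℝ := fun i => p.q (π i)

/-- **the thin branch before L15** : `D.I` = the marked family; the chart is `couW` of the flagged
incidences `F`; two geometries: `π 1 = 1` (`A` wide) or `π 1 = 2` (`A` narrow). -/
structure ThinPre (η : ℝ) (p : Par4) (D : Dat4) (π : Equiv.Perm (Fin 3)) (kp uz uc un : ℕ → ℝ)
    (F : ℕ → ℕ × ℝ → FW)
    (V T : Fin 18 → Prop) (w0 R T0 : ℝ) (PD : Set (Fin 18 → ℝ)) : Prop where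
  ok : ParOk η p
  pi0 : π 0 = 0
  th1 : 0 < thW p π 1
  th2 : thW p π 2 = 2 * thW p π 1
  q1 : 0 < qW p π 1
  q2 : 0 < qW p π 2
  slots : SlotOkW (thW p π) V T
  big : BigW (thW p π) w0 R T0
  kp1 : ∀ n, |kp n| ≤ 1
  /-- the conic is not degenerate -/
  kp0 : ∀ ε : ℝ, 0 < ε → ∀ᶠ n in (U : Filter ℕ), D.B.d n ^ ε ≤ |kp n|
  uz0 : ∀ n, 0 < uz n
  uc0 : ∀ n, 0 < uc n
  un0 : ∀ n, 0 < un n
  /-- input of L15 (contains the marked sequence on `D.I`, hence D-max for all sheets) -/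
  pre : PreQ D.B D.I (D.G p) D.lev D.A p.g 0 (fun j v => p.θ j * (1 - v)) D.f D.b D.vm D.w
    (couW kp uz uc un F) monW 67 R 0 w0 (N0Q D.A D.vm) PD
    (DW p.g 0 (qW p π) w0) (pathW (thW p π) w0) (ownW (thW p π) w0 R V)
    (EQ (thW p π) p.g 0 (qW p π) w0 R) T
  /-- near an interior record point all legal boxes are in the D-max set -/
  pdn : ∀ v1 : ℝ, 0 < v1 → v1 < 1 → ∃ δ : ℝ, 0 < δ ∧ ∀ x ∈ Leg monW R,
    |x 0 - pathW (thW p π) w0 v1 0| ≤ δ → |x 2 - pathW (thW p π) w0 v1 2| ≤ δ →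
    |x 3 - pathW (thW p π) w0 v1 3| ≤ δ → |x 17 - pathW (thW p π) w0 v1 17| ≤ δ →
    x 17 ≤ 9 * w0 + max 0 (1 - thW p π 0) → x ∈ PD
  /-- D-max for all gauged charts (778) -/
  gmax : ∀ x ∈ PD, GeoN778.GmAt D.B D.I kp uz uc un F (N0Q D.A D.vm) (DW p.g 0 (qW p π) w0) x
  /-- `PD` does not see the slots other than `z, A, B, N` -/
  pdc : ∀ x ∈ PD, ∀ y ∈ Leg monW R, y 0 = x 0 → y 2 = x 2 → y 3 = x 3 → y 17 = x 17 → y ∈ PD
  pdr : ∀ x ∈ PD, x 17 ≤ 9 * w0 + max 0 (1 - thW p π 0)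

/-- **the thin branch after L15**, `I1` = sample -/
structure Thin (η : ℝ) (p : Par4) (D : Dat4) (I1 : ℕ → Finset (ℕ × ℝ)) (π : Equiv.Perm (Fin 3))
    (kp uz uc un : ℕ → ℝ)
    (F : ℕ → ℕ × ℝ → FW) (V T : Fin 18 → Prop) (w0 R T0 : ℝ)
    (PD : Set (Fin 18 → ℝ)) (ν own : (Fin 18 → ℝ) → ℝ) (c₀ : ℝ) : Prop where
  tp : ThinPre η p D π kp uz uc un F V T w0 R T0 PD
  ext : ExtQ D.B D.I I1 (couW kp uz uc un F) monW 67 R 0 w0 0 PD
    (DW p.g 0 (qW p π) w0) (pathW (thW p π) w0) (ownW (thW p π) w0 R V)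
    (EQ (thW p π) p.g 0 (qW p π) w0 R) T ν own c₀
  /-- uniformity of the sample (196) -/
  comb : CombQ D.B D.I I1 D.lev (couW kp uz uc un F) monW 67 R (N0Q D.A D.vm) c₀

/-- **L15 in the thin branch** -/
theorem thin_of_pre {η : ℝ} {p : Par4} {D : Dat4} {π : Equiv.Perm (Fin 3)} {kp uz uc un : ℕ → ℝ}
    {F : ℕ → ℕ × ℝ → FW} {V T : Fin 18 → Prop} {w0 R T0 : ℝ} {PD : Set (Fin 18 → ℝ)}
    (h : ThinPre η p D π kp uz uc un F V T w0 R T0 PD) :
    ∃ (J I1 : ℕ → Finset (ℕ × ℝ)) (ν own : (Fin 18 → ℝ) → ℝ) (c₀ : ℝ), (∀ n, J n ⊆ D.I n) ∧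
      Thin η p (subD D J) I1 π kp uz uc un F V T w0 R T0 PD ν own c₀ := by
  obtain ⟨J, I1, ν, own, c₀, h1, h2, h3, h4⟩ := l15Qc h.pre
  exact ⟨J, I1, ν, own, c₀, h1, ⟨h.ok, h.pi0, h.th1, h.th2, h.q1, h.q2, h.slots, h.big, h.kp1,
    h.kp0, h.uz0, h.uc0, h.un0, h2, h.pdn,
    fun x hx => (h.gmax x hx).mono (Eventually.of_forall h1), h.pdc, h.pdr⟩, h3, h4⟩

/-- the record exponent is the density of the record box -/
theorem EQ_path {θ q : Fin 3 → ℝ} (h2 : θ 2 = 2 * θ 1) (g w0 R v : ℝ) :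
    EQ θ g 0 q w0 R v = DW g 0 q w0 (pathW θ w0 v) := by
  rw [EQ_eq, DW_path _ _ _ _ _ _ h2]

/-! ### elementary consequences -/

section
variable {η : ℝ} {p : Par4} {D : Dat4} {I1 : ℕ → Finset (ℕ × ℝ)} {π : Equiv.Perm (Fin 3)}
  {kp uz uc un : ℕ → ℝ}
  {F : ℕ → ℕ × ℝ → FW} {V T : Fin 18 → Prop} {w0 R T0 : ℝ} {PD : Set (Fin 18 → ℝ)}
  {ν own : (Fin 18 → ℝ) → ℝ} {c₀ : ℝ}

/-- on the record line the profile is the D-max exponent (interior levels) -/
theorem Thin.record_eq (h : Thin η p D I1 π kp uz uc un F V T w0 R T0 PD ν own c₀) {v : ℝ}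
    (h0 : 0 < v) (h1 : v < 1) :
    ν (pathW (thW p π) w0 v) = c₀ + DW p.g 0 (qW p π) w0 (pathW (thW p π) w0 v) := by
  obtain ⟨δ, hδ, hPD⟩ := h.tp.pdn v h0 h1
  have h17 : pathW (thW p π) w0 v 17 ≤ 9 * w0 + max 0 (1 - thW p π 0) := by
    have e : pathW (thW p π) w0 v 17 = 9 * w0 + (1 - thW p π 0) * v := by
      rw [pathW_nat, natW_N]
    rw [e]
    have h2 : (1 - thW p π 0) * v ≤ max 0 (1 - thW p π 0) := by
      rcases le_total 0 (1 - thW p π 0) with h3 | h3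
      · exact (mul_le_of_le_one_right h3 h1.le).trans (le_max_right _ _)
      · exact (mul_nonpos_of_nonpos_of_nonneg h3 h0.le).trans (le_max_left _ _)
    linarith
  refine le_antisymm (h.ext.dmax _ (hPD _ (h.tp.big.path_leg h0.le h1.le) ?_ ?_ ?_ ?_ h17)) ?_
  all_goals first
    | (rw [sub_self, abs_zero]; exact hδ.le)
    | skip
  have := h.ext.record v h0.le h1.le
  rwa [EQ_path h.tp.th2] at this

/-- a visible slot is affine (`A` or `B`) if its wall slope is `< 2` -/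
theorem SlotOkW.affine {θ : Fin 3 → ℝ} (h : SlotOkW θ V T) {k : Fin 18} (hk : V k)
    (hK : KW θ k < 2) : k = 14 ∨ k = 15 := by
  obtain ⟨⟨h4, h13, h16, h17⟩, hb⟩ := h.vis k hk
  exact affine_of_KW h4 h16 h17 hb hK

end

end Crest.Agent.R136.NatW697
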