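import Crest.Agent.R136.NatT_550
import Crest.Agent.R136.NatW2_697

/-!
# R136, downstream skeleton (helper550): from the marked sequence `J1` (`TopD_484`) to `False`

Case list: doc 2353 (helper312) with the patches up to 2:50, numbering of the cases from there.  Every open seam is a named
`Prop`; `ks4_of_seams` is the glue.
-/

set_option autoImplicit false
set_option linter.unusedVariables false

open Finset Filter Topology

namespace Crest.Agent.R136.TopB550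

open Crest.Agent.R136.Net191
open Crest.Agent.R136.NetQ186
open Crest.Agent.R136.Sh605
open Crest.Agent.R136.Lq196
open Crest.Agent.R136.Wq638
open Crest.Agent.R136.Top484
open Crest.Agent.R136.NatT550

/-- a pattern of the thick table is impossible -/
def Dead (η : ℝ) (pat : Par4 → (Fin 11 → Prop) → Prop) : Prop :=
  ∀ (p : Par4) (D : Dat4) (I1 : ℕ → Finset (ℕ × ℝ)) (π : Equiv.Perm (Fin 3))
    (eE fA fB : ℕ → ℕ × ℝ → ℝ) (V T : Fin 11 → Prop) (w0 R T0 : ℝ) (PD : Set (Fin 11 → ℝ))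
    (ν own : (Fin 11 → ℝ) → ℝ) (c₀ : ℝ),
    Thick η p D I1 π eE fA fB V T w0 R T0 PD ν own c₀ → pat p V → False

/-- the same with the hypothesis: the thickness is not parallel to the narrow width, or gap -/
def DeadG (η : ℝ) (pat : Par4 → (Fin 11 → Prop) → Prop) : Prop :=
  ∀ (p : Par4) (D : Dat4) (I1 : ℕ → Finset (ℕ × ℝ)) (π : Equiv.Perm (Fin 3))
    (eE fA fB : ℕ → ℕ × ℝ → ℝ) (V T : Fin 11 → Prop) (w0 R T0 : ℝ) (PD : Set (Fin 11 → ℝ))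
    (ν own : (Fin 11 → ℝ) → ℝ) (c₀ : ℝ),
    Thick η p D I1 π eE fA fB V T w0 R T0 PD ν own c₀ → pat p V → (p.θ 0 ≠ p.θ 2 ∨ Gap23 D) →
      False

/-- the same without gap -/
def DeadN (η : ℝ) (pat : Par4 → (Fin 11 → Prop) → Prop) : Prop :=
  ∀ (p : Par4) (D : Dat4) (I1 : ℕ → Finset (ℕ × ℝ)) (π : Equiv.Perm (Fin 3))
    (eE fA fB : ℕ → ℕ × ℝ → ℝ) (V T : Fin 11 → Prop) (w0 R T0 : ℝ) (PD : Set (Fin 11 → ℝ))
    (ν own : (Fin 11 → ℝ) → ℝ) (c₀ : ℝ),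
    Thick η p D I1 π eE fA fB V T w0 R T0 PD ν own c₀ → pat p V → ¬ Gap23 D → False

/-! patterns: `θ 0` = thickness, `θ 1` = wide, `θ 2` = narrow; `V 2` = 21, `V 3` = 32, `V 4` = 31 -/

/-- the lightlike exponents -/
def LL (p : Par4) : Prop := p.θ 2 - p.θ 0 = 1 ∧ p.θ 2 = 2 * p.θ 1
/-- the mirrored lightlike exponents -/
def LLs (p : Par4) : Prop := p.θ 1 - p.θ 0 = 1 ∧ p.θ 2 = p.θ 1 / 2

/-- A : no visible tie -/
def pA (p : Par4) (V : Fin 11 → Prop) : Prop := ¬ V 2 ∧ ¬ V 3 ∧ ¬ V 4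
/-- B : only 21, the thickness is not parallel to anything -/
def pF (p : Par4) (V : Fin 11 → Prop) : Prop :=
  V 2 ∧ ¬ V 3 ∧ ¬ V 4 ∧ p.θ 0 ≠ p.θ 1 ∧ p.θ 0 ≠ p.θ 2
/-- Z2 : only 21, thickness parallel to the wide direction -/
def pZ2 (p : Par4) (V : Fin 11 → Prop) : Prop := V 2 ∧ ¬ V 3 ∧ ¬ V 4 ∧ p.θ 0 = p.θ 1
/-- E : 21 and equal slopes of thickness and narrow width (31 tied or not) -/
def pE (p : Par4) (V : Fin 11 → Prop) : Prop := V 2 ∧ ¬ V 3 ∧ p.θ 0 = p.θ 2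
/-- E3 : 31 without 21, thickness parallel to the narrow width, used without gap (628's hole) -/
def pE3 (p : Par4) (V : Fin 11 → Prop) : Prop := ¬ V 2 ∧ V 4 ∧ p.θ 0 = p.θ 2
/-- D with 31 -/
def pD1 (p : Par4) (V : Fin 11 → Prop) : Prop := V 2 ∧ ¬ V 3 ∧ V 4 ∧ p.θ 0 ≠ p.θ 2
/-- D with 32 (31 capped) -/
def pD2 (p : Par4) (V : Fin 11 → Prop) : Prop := V 2 ∧ V 3 ∧ V 4
/-- C1 : 2 free, 31 dominates -/
def pC1 (p : Par4) (V : Fin 11 → Prop) : Prop :=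
  ¬ V 2 ∧ V 4 ∧ (p.θ 2 < p.θ 1 ∨ (¬ V 3 ∧ p.θ 1 < p.θ 2)) ∧ ¬ LLs p
/-- C1* = mirrored lightlike (32 tied or not) -/
def pC1s (p : Par4) (V : Fin 11 → Prop) : Prop := ¬ V 2 ∧ V 4 ∧ LLs p
/-- C2 : 2 free, 32 dominates, `σ` not small -/
def pC2 (p : Par4) (V : Fin 11 → Prop) : Prop :=
  ¬ V 2 ∧ V 3 ∧ (p.θ 1 < p.θ 2 ∨ (¬ V 4 ∧ p.q 1 * p.θ 1 ≤ 4 * p.θ 2 ∧ p.θ 2 < p.θ 1)) ∧ ¬ LL p
/-- Z2' : 2 free, 32 tied, 31 not, `σ < q1 / 4` (zero and negative included) -/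
def pC2z (p : Par4) (V : Fin 11 → Prop) : Prop :=
  ¬ V 2 ∧ V 3 ∧ ¬ V 4 ∧ 4 * p.θ 2 < p.q 1 * p.θ 1 ∧ p.θ 2 < p.θ 1
/-- lightlike (31 tied or not) -/
def pL (p : Par4) (V : Fin 11 → Prop) : Prop := ¬ V 2 ∧ V 3 ∧ LL p
/-- C3 : 2 free, equal slopes of the widths, 31 or 32 tied -/
def pC3 (p : Par4) (V : Fin 11 → Prop) : Prop := ¬ V 2 ∧ (V 3 ∨ V 4) ∧ p.θ 2 = p.θ 1

/-- **the thick table** -/
structure ThickTable (η : ℝ) : Prop where
  A : Dead η pA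
  F : Dead η pF
  Z2 : Dead η pZ2
  E : Dead η pE
  E3 : DeadN η pE3
  D1 : Dead η pD1
  D2 : Dead η pD2
  C1 : DeadG η pC1
  C1s : DeadG η pC1s
  C2 : Dead η pC2
  C2z : Dead η pC2z
  L : Dead η pL
  C3 : Dead η pC3

theorem thick_false {η : ℝ} (hT : ThickTable η) : Dead η fun _ _ => True := by
  intro p D I1 π eE fA fB V T w0 R T0 PD ν own c₀ h _
  by_cases h2 : V 2
  · by_cases h3 : V 3
    · exact hT.D2 p D I1 π eE fA fB V T w0 R T0 PD ν own c₀ h ⟨h2, h3, (h.tp.slots.capV h2 h3).1⟩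
    · by_cases e2 : p.θ 0 = p.θ 2
      · exact hT.E p D I1 π eE fA fB V T w0 R T0 PD ν own c₀ h ⟨h2, h3, e2⟩
      · by_cases h4 : V 4
        · exact hT.D1 p D I1 π eE fA fB V T w0 R T0 PD ν own c₀ h ⟨h2, h3, h4, e2⟩
        · by_cases e1 : p.θ 0 = p.θ 1
          · exact hT.Z2 p D I1 π eE fA fB V T w0 R T0 PD ν own c₀ h ⟨h2, h3, h4, e1⟩
          · exact hT.F p D I1 π eE fA fB V T w0 R T0 PD ν own c₀ h ⟨h2, h3, h4, e1, e2⟩
  · by_cases hg : V 4 ∧ p.θ 0 = p.θ 2 ∧ ¬ Gap23 D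
    · exact hT.E3 p D I1 π eE fA fB V T w0 R T0 PD ν own c₀ h ⟨h2, hg.1, hg.2.1⟩ hg.2.2
    have hG : V 4 → p.θ 0 ≠ p.θ 2 ∨ Gap23 D := fun h4 => by
      by_contra hc
      push Not at hc
      exact hg ⟨h4, hc.1, hc.2⟩
    by_cases h3 : V 3
    · by_cases hl : LL p
      · exact hT.L p D I1 π eE fA fB V T w0 R T0 PD ν own c₀ h ⟨h2, h3, hl⟩
      · rcases lt_trichotomy (p.θ 2) (p.θ 1) with h12 | h12 | h12
        · by_cases h4 : V 4
          · by_cases hs : LLs p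
            · exact hT.C1s p D I1 π eE fA fB V T w0 R T0 PD ν own c₀ h ⟨h2, h4, hs⟩ (hG h4)
            · exact hT.C1 p D I1 π eE fA fB V T w0 R T0 PD ν own c₀ h ⟨h2, h4, Or.inl h12, hs⟩
                (hG h4)
          · by_cases hz : 4 * p.θ 2 < p.q 1 * p.θ 1
            · exact hT.C2z p D I1 π eE fA fB V T w0 R T0 PD ν own c₀ h ⟨h2, h3, h4, hz, h12⟩
            · exact hT.C2 p D I1 π eE fA fB V T w0 R T0 PD ν own c₀ h
                ⟨h2, h3, Or.inr ⟨h4, not_lt.1 hz, h12⟩, hl⟩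
        · exact hT.C3 p D I1 π eE fA fB V T w0 R T0 PD ν own c₀ h ⟨h2, Or.inl h3, h12⟩
        · exact hT.C2 p D I1 π eE fA fB V T w0 R T0 PD ν own c₀ h ⟨h2, h3, Or.inl h12, hl⟩
    · by_cases h4 : V 4
      · by_cases hs : LLs p
        · exact hT.C1s p D I1 π eE fA fB V T w0 R T0 PD ν own c₀ h ⟨h2, h4, hs⟩ (hG h4)
        · rcases lt_trichotomy (p.θ 2) (p.θ 1) with h12 | h12 | h12
          · exact hT.C1 p D I1 π eE fA fB V T w0 R T0 PD ν own c₀ h ⟨h2, h4, Or.inl h12, hs⟩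
              (hG h4)
          · exact hT.C3 p D I1 π eE fA fB V T w0 R T0 PD ν own c₀ h ⟨h2, Or.inr h4, h12⟩
          · exact hT.C1 p D I1 π eE fA fB V T w0 R T0 PD ν own c₀ h
              ⟨h2, h4, Or.inr ⟨h3, h12⟩, hs⟩ (hG h4)
      · exact hT.A p D I1 π eE fA fB V T w0 R T0 PD ν own c₀ h ⟨h2, h3, h4⟩

/-- in `pC2` the narrow slope is positive -/
theorem pC2.pos {η : ℝ} {p : Par4} {V : Fin 11 → Prop} (h : pC2 p V) (hp : ParOk η p)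
    (hη : 0 < η) : 0 < p.θ 2 := by
  rcases h.2.2.1 with h1 | h1
  · exact hp.θ1.trans h1
  · have := mul_pos hp.g0.2 hp.θ1
    linarith [h1.2.1]

/-! ### the thin table -/

/-- a pattern of the thin table is impossible (`NatW697.Thin`) -/
def DeadW (η : ℝ) (pat : Par4 → Equiv.Perm (Fin 3) → (Fin 18 → Prop) → Prop) : Prop :=
  ∀ (p : Par4) (D : Dat4) (I1 : ℕ → Finset (ℕ × ℝ)) (π : Equiv.Perm (Fin 3))
    (kp uz uc un : ℕ → ℝ) (F : ℕ → ℕ × ℝ → NetW191.FW) (V T : Fin 18 → Prop) (w0 R T0 : ℝ)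
    (PD : Set (Fin 18 → ℝ)) (ν own : (Fin 18 → ℝ) → ℝ) (c₀ : ℝ),
    NatW697.Thin η p D I1 π kp uz uc un F V T w0 R T0 PD ν own c₀ → pat p π V → False

/-- 5a : no wall of slope `> 2` -/
def p5a (p : Par4) (π : Equiv.Perm (Fin 3)) (V : Fin 18 → Prop) : Prop :=
  ∀ k, V k → NatW697.KW (NatW697.thW p π) k ≤ 2
/-- 5b : a wall of slope `> 2` -/
def p5b (p : Par4) (π : Equiv.Perm (Fin 3)) (V : Fin 18 → Prop) : Prop :=
  ∃ k, V k ∧ 2 < NatW697.KW (NatW697.thW p π) k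

/-- **the thin table** -/
structure ThinTable (η : ℝ) : Prop where
  W5a : DeadW η p5a
  W5b : DeadW η p5b

theorem thin_false {η : ℝ} (hT : ThinTable η) : DeadW η fun _ _ _ => True := by
  intro p D I1 π kp uz uc un F V T w0 R T0 PD ν own c₀ h _
  by_cases hk : p5a p π V
  · exact hT.W5a p D I1 π kp uz uc un F V T w0 R T0 PD ν own c₀ h hk
  · refine hT.W5b p D I1 π kp uz uc un F V T w0 R T0 PD ν own c₀ h ?_
    unfold p5a at hk
    push Not at hk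
    exact hk

/-- **U6**: every input sequence gives a thick or a thin chart; `J` = predicate on the input -/
def SeamU6J (J : Par4 → Dat4 → Prop) (η : ℝ) : Prop :=
  ∀ (p : Par4) (D : Dat4), J p D →
    (∃ (D' : Dat4) (π : Equiv.Perm (Fin 3)) (eE fA fB : ℕ → ℕ × ℝ → ℝ)
      (V T : Fin 11 → Prop) (w0 R T0 : ℝ) (PD : Set (Fin 11 → ℝ)),
      ThickPre η p D' π eE fA fB V T w0 R T0 PD) ∨
    ∃ (D' : Dat4) (π : Equiv.Perm (Fin 3)) (kp uz uc un : ℕ → ℝ) (F : ℕ → ℕ × ℝ → NetW191.FW)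
      (V T : Fin 18 → Prop) (w0 R T0 : ℝ) (PD : Set (Fin 18 → ℝ)),
      NatW697.ThinPre η p D' π kp uz uc un F V T w0 R T0 PD

/-- **U6** over `J1` -/
def SeamU6 (η : ℝ) : Prop := SeamU6J (J1 η) η

/-- **the glue**, any predicate `J` on the extremal sequences -/
theorem ks4_of_seamsJ {η : ℝ} {J : Par4 → Dat4 → Prop}
    (hE : ¬ KS879.KS4 → ∃ (p : Par4) (D : Dat4), J p D) (hU : SeamU6J J η) (hT : ThickTable η)
    (hW : ThinTable η) : KS879.KS4 := by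
  by_contra hK
  obtain ⟨p, D, hJ⟩ := hE hK
  rcases hU p D hJ with ⟨D', π, eE, fA, fB, V, T, w0, R, T0, PD, h⟩ |
    ⟨D', π, kp, uz, uc, un, F, V, T, w0, R, T0, PD, h⟩
  · obtain ⟨J', I1, ν, own, c₀, -, h2⟩ := thick_of_pre h
    exact thick_false hT _ _ _ _ _ _ _ _ _ _ _ _ _ _ _ _ h2 trivial
  · obtain ⟨J', I1, ν, own, c₀, -, h2⟩ := NatW697.thin_of_pre h
    exact thin_false hW _ _ _ _ _ _ _ _ _ _ _ _ _ _ _ _ _ _ h2 trivial

/-- **the glue** -/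
theorem ks4_of_seams {η : ℝ} (hη : 0 < η) (hE : SeamExt) (hU : SeamU6 η) (hT : ThickTable η)
    (hW : ThinTable η) : KS879.KS4 := ks4_of_seamsJ (hE η hη) hU hT hW

end Crest.Agent.R136.TopB550
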