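import Crest.Agent.R136.ThS_830
import Crest.Agent.R136.TopB_550

/-!
# R136, thin branch (helper830): THE THIN TABLE AS ROWS OF 697's LADDER

`WTable η` : the rows (`pin4`, `pin3`, `pin2`, `pin1`, `dead0`, `deadlow`, `deadhi1`, `deadhi2`,
`resW`, `res2`, `res1`), `thinTable_of : WTable η → TopB550.ThinTable η`.
-/

set_option autoImplicit false
set_option linter.unusedVariables false

open Finset Filter Topology

namespace Crest.Agent.R136.LadT830

open Crest.Agent.R136.Net191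
open Crest.Agent.R136.NetW191
open Crest.Agent.R136.PrW464
open Crest.Agent.R136.NatW697
open Crest.Agent.R136.LadW697
open Crest.Agent.R136.Top484
open Crest.Agent.R136.ThS830

/-- `PinW j` at every interior record point, for the pattern `pat θ V` -/
def PinT (η : ℝ) (j : ℕ) (pat : (Fin 3 → ℝ) → (Fin 18 → Prop) → Prop) : Prop :=
  ∀ (p : Par4) (D : Dat4) (I1 : ℕ → Finset (ℕ × ℝ)) (π : Equiv.Perm (Fin 3))
    (kp uz uc un : ℕ → ℝ) (F : ℕ → ℕ × ℝ → FW) (V T : Fin 18 → Prop) (w0 R T0 : ℝ)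
    (PD : Set (Fin 18 → ℝ)) (ν own : (Fin 18 → ℝ) → ℝ) (c₀ : ℝ),
    Thin η p D I1 π kp uz uc un F V T w0 R T0 PD ν own c₀ → pat (thW p π) V →
    ∀ v1 : ℝ, 0 < v1 → v1 < 1 →
      PinW (Leg monW R) ν own 18 (pathW (thW p π) w0 v1) (thW p π) p.g (qW p π) {k | V k} j

/-- `DeadW s` at every interior record point, for the pattern `pat g θ V s` -/
def DeadT (η : ℝ) (pat : ℝ → (Fin 3 → ℝ) → (Fin 18 → Prop) → ℝ → Prop) : Prop :=
  ∀ (p : Par4) (D : Dat4) (I1 : ℕ → Finset (ℕ × ℝ)) (π : Equiv.Perm (Fin 3))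
    (kp uz uc un : ℕ → ℝ) (F : ℕ → ℕ × ℝ → FW) (V T : Fin 18 → Prop) (w0 R T0 : ℝ)
    (PD : Set (Fin 18 → ℝ)) (ν own : (Fin 18 → ℝ) → ℝ) (c₀ : ℝ),
    Thin η p D I1 π kp uz uc un F V T w0 R T0 PD ν own c₀ →
    ∀ s : ℝ, 0 < s → pat p.g (thW p π) V s → ∀ v1 : ℝ, 0 < v1 → v1 < 1 →
      DeadW (Leg monW R) ν own 18 (pathW (thW p π) w0 v1) (thW p π) p.g (qW p π) {k | V k} s

/-- the pattern `pat θ V` is impossible -/
def FalseT (η : ℝ) (pat : (Fin 3 → ℝ) → (Fin 18 → Prop) → Prop) : Prop :=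
  ∀ (p : Par4) (D : Dat4) (I1 : ℕ → Finset (ℕ × ℝ)) (π : Equiv.Perm (Fin 3))
    (kp uz uc un : ℕ → ℝ) (F : ℕ → ℕ × ℝ → FW) (V T : Fin 18 → Prop) (w0 R T0 : ℝ)
    (PD : Set (Fin 18 → ℝ)) (ν own : (Fin 18 → ℝ) → ℝ) (c₀ : ℝ),
    Thin η p D I1 π kp uz uc un F V T w0 R T0 PD ν own c₀ → pat (thW p π) V → False

/-- `s` = largest wall slope -/
def Top (θ : Fin 3 → ℝ) (V : Fin 18 → Prop) (s : ℝ) : Prop :=
  (∃ k, V k ∧ KW θ k = s) ∧ ∀ k, V k → KW θ k ≤ s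

/-- some slot has wall slope = weight = `s` (rate `0`) -/
def Reso (θ : Fin 3 → ℝ) (s : ℝ) : Prop := ∃ k : Fin 18, 4 ≤ k ∧ KW θ k = s ∧ btW θ k = 0

/-- non-wall resonance of the rung `2`: one of `B²`, `AB`, `A²` has rate `0` -/
def Res2 (θ : Fin 3 → ℝ) : Prop := btW θ 7 = 0 ∨ btW θ 9 = 0 ∨ btW θ 10 = 0

/-- non-wall resonance of the rung `1`: `B` or `A` has rate `0` -/
def Res1 (θ : Fin 3 → ℝ) : Prop := btW θ 14 = 0 ∨ btW θ 15 = 0

/-- **the rows of the thin table** -/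
structure WTable (η : ℝ) : Prop where
  /-- 851 -/
  pin4 : PinT η 4 fun θ V => ∀ k, V k → KW θ k < 4
  pin3 : PinT η 3 fun θ V => ∀ k, V k → KW θ k < 3
  pin2 : PinT η 2 fun θ V => (∀ k, V k → KW θ k < 2) ∧ ¬ Res2 θ
  /-- 830 -/
  pin1 : PinT η 1 fun θ V => (∀ k, ¬ V k) ∧ ¬ Res1 θ
  dead0 : DeadT η fun g θ V s => (∀ k, ¬ V k) ∧ s ≤ g / 2 ∧ s < 1
  /-- 619: `1 < K < 2` (`V ⊆ {14, 15}`) -/
  deadlow : DeadT η fun g θ V s => Top θ V s ∧ 1 < s ∧ s < 2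
  /-- 938: `K > 2`, weight of the dominant slots `= 1` -/
  deadhi1 : DeadT η fun g θ V s => Top θ V s ∧ 2 < s ∧ KW θ 15 = s
  /-- 848: `K > 2`, weight of the dominant slots `≥ 2`, not resonant -/
  deadhi2 : DeadT η fun g θ V s => Top θ V s ∧ 2 < s ∧ KW θ 15 ≠ s ∧ ¬ Reso θ s
  /-- 697, 648, 478, 329: resonant walls (contains `K = 2`) -/
  resW : FalseT η fun θ V => ∃ s, Top θ V s ∧ 2 ≤ s ∧ Reso θ s
  /-- 697, 329: `A²`, `AB` or `B²` has rate `0`, all walls `< 2` -/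
  res2 : FalseT η fun θ V => (∀ k, V k → KW θ k < 2) ∧ Res2 θ
  /-- 697 (END): nothing visible, `A` or `B` has rate `0` -/
  res1 : FalseT η fun θ V => (∀ k, ¬ V k) ∧ ¬ Res2 θ ∧ Res1 θ

/-! ### slots -/

theorem btW_KW (θ : Fin 3 → ℝ) {k : Fin 18} (hk : 4 ≤ k) : btW θ k = KW θ k - alW k := by
  simp only [KW, alW, if_pos hk]; push_cast; ring

/-- wall slopes are determined by the `χ`-weight -/
theorem KW_wc {θ : Fin 3 → ℝ} {k l : Fin 18} (hk : 4 ≤ k) (hl : 4 ≤ l) (h : wc k = wc l) :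
    KW θ k = KW θ l := by
  have h1 : ∀ k : Fin 18, 4 ≤ k → wn k = 1 := by decide
  rw [KW_eq, KW_eq, h1 k hk, h1 l hl, h]

/-- a visible slot: weight `< K`, weight `≥ 1` -/
theorem vis_al {θ : Fin 3 → ℝ} {V T : Fin 18 → Prop} (h : SlotOkW θ V T) {k : Fin 18} (hk : V k) :
    4 ≤ k ∧ (1 : ℝ) ≤ alW k ∧ (alW k : ℝ) < KW θ k := by
  obtain ⟨⟨h4, -, -, h17⟩, hb⟩ := h.vis k hk
  have h1 := alW_pos k h4 h17
  rw [btW_KW θ h4] at hb
  exact ⟨h4, by exact_mod_cast h1, by linarith⟩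

/-- the largest wall slope exists -/
theorem exists_top {θ : Fin 3 → ℝ} {V : Fin 18 → Prop} (h : ∃ k, V k) : ∃ s, Top θ V s := by
  classical
  have hne : (univ.filter V).Nonempty := by
    obtain ⟨k, hk⟩ := h
    exact ⟨k, mem_filter.2 ⟨mem_univ _, hk⟩⟩
  obtain ⟨k, hk, hm⟩ := exists_max_image (univ.filter V) (KW θ) hne
  exact ⟨KW θ k, ⟨k, (mem_filter.1 hk).2, rfl⟩, fun l hl => hm l (mem_filter.2 ⟨mem_univ _, hl⟩)⟩

/-- `K = 2` is resonant -/
theorem reso_two {θ : Fin 3 → ℝ} {V T : Fin 18 → Prop} (h : SlotOkW θ V T) (ht : Top θ V 2) :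
    Reso θ 2 := by
  obtain ⟨⟨k, hk, hK⟩, -⟩ := ht
  obtain ⟨h4, h1, h2⟩ := vis_al h hk
  obtain ⟨⟨-, h13, h16, h17⟩, -⟩ := h.vis k hk
  rw [hK] at h2
  have h3 : alW k < 2 := by exact_mod_cast h2
  have key : ∀ k : Fin 18, 4 ≤ k → k ≠ 13 → k ≠ 16 → k ≠ 17 → alW k < 2 →
      ∃ l : Fin 18, 4 ≤ l ∧ wc l = wc k ∧ alW l = 2 := by decide
  obtain ⟨l, l4, l1, l2⟩ := key k h4 h13 h16 h17 h3
  have e : KW θ l = 2 := by rw [KW_wc l4 h4 l1, hK]
  refine ⟨l, l4, e, ?_⟩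
  rw [btW_KW θ l4, e, l2]; norm_num

/-! ### the glue -/

section

variable {η : ℝ}

/-- **`Thin` + rows ⊢ `False`** -/
theorem thin_false (H : WTable η) : FalseT η fun _ _ => True := by
  intro p D I1 π kp uz uc un F V T w0 R T0 PD ν own c₀ h _
  have hg := h.tp.ok.g0
  have hst := thin_init h (v1 := 1 / 2) (by norm_num) (by norm_num)
  have P4 := H.pin4 p D I1 π kp uz uc un F V T w0 R T0 PD ν own c₀ h
  have P3 := H.pin3 p D I1 π kp uz uc un F V T w0 R T0 PD ν own c₀ h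
  have P2 := H.pin2 p D I1 π kp uz uc un F V T w0 R T0 PD ν own c₀ h
  have P1 := H.pin1 p D I1 π kp uz uc un F V T w0 R T0 PD ν own c₀ h
  by_cases hV : ∃ k, V k
  · obtain ⟨s, hs⟩ := exists_top (θ := thW p π) hV
    have hs1 : 1 < s := by
      obtain ⟨k, hk, hK⟩ := hs.1
      obtain ⟨-, h1, h2⟩ := vis_al h.tp.slots hk
      linarith
    have hlt : ∀ {t : ℝ}, s < t → ∀ k, V k → KW (thW p π) k < t :=
      fun ht k hk => (hs.2 k hk).trans_lt ht
    by_cases hres2 : s < 2 ∧ Res2 (thW p π)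
    · exact H.res2 p D I1 π kp uz uc un F V T w0 R T0 PD ν own c₀ h ⟨hlt hres2.1, hres2.2⟩
    by_cases hresW : 2 ≤ s ∧ Reso (thW p π) s
    · exact H.resW p D I1 π kp uz uc un F V T w0 R T0 PD ν own c₀ h ⟨s, hs, hresW.1, hresW.2⟩
    refine ladW (s := s) (by linarith) (V := {k | V k}) (fun k hk => ?_) hst ?_ ?_
    · obtain ⟨h4, -, h2⟩ := vis_al h.tp.slots hk
      exact ⟨h4, h2.trans_le (hs.2 k hk)⟩
    · intro j hj1 hj4 hsj
      have hj : j = 4 ∨ j = 3 ∨ j = 2 ∨ j = 1 := by omega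
      rcases hj with rfl | rfl | rfl | rfl
      · exact P4 (hlt (by exact_mod_cast hsj)) _ (by norm_num) (by norm_num)
      · exact P3 (hlt (by exact_mod_cast hsj)) _ (by norm_num) (by norm_num)
      · have h2 : s < 2 := by exact_mod_cast hsj
        exact P2 ⟨hlt h2, fun hr => hres2 ⟨h2, hr⟩⟩ _ (by norm_num) (by norm_num)
      · rw [Nat.cast_one] at hsj; linarith
    · rcases lt_trichotomy s 2 with h2 | h2 | h2
      · exact H.deadlow p D I1 π kp uz uc un F V T w0 R T0 PD ν own c₀ h s (by linarith)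
          ⟨hs, hs1, h2⟩ _ (by norm_num) (by norm_num)
      · exact absurd ⟨h2.ge, by rw [h2] at hs ⊢; exact reso_two h.tp.slots hs⟩ hresW
      · by_cases h15 : KW (thW p π) 15 = s
        · exact H.deadhi1 p D I1 π kp uz uc un F V T w0 R T0 PD ν own c₀ h s (by linarith)
            ⟨hs, h2, h15⟩ _ (by norm_num) (by norm_num)
        · exact H.deadhi2 p D I1 π kp uz uc un F V T w0 R T0 PD ν own c₀ h s (by linarith)
            ⟨hs, h2, h15, fun hr => hresW ⟨h2.le, hr⟩⟩ _ (by norm_num) (by norm_num)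
  · push Not at hV
    by_cases hres2 : Res2 (thW p π)
    · exact H.res2 p D I1 π kp uz uc un F V T w0 R T0 PD ν own c₀ h
        ⟨fun k hk => absurd hk (hV k), hres2⟩
    by_cases hres1 : Res1 (thW p π)
    · exact H.res1 p D I1 π kp uz uc un F V T w0 R T0 PD ν own c₀ h ⟨hV, hres2, hres1⟩
    have hg0 : 0 < p.g := hg.1
    set s : ℝ := min (p.g / 2) (1 / 2) with hs
    have s0 : 0 < s := lt_min (by linarith) (by norm_num)
    have s1 : s ≤ 1 / 2 := min_le_right _ _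
    have hemp : ∀ {t : ℝ}, ∀ k, V k → KW (thW p π) k < t := fun k hk => absurd hk (hV k)
    refine ladW (s := s) s0 (V := {k | V k}) (fun k hk => absurd hk (hV k)) hst ?_ ?_
    · intro j hj1 hj4 hsj
      have hj : j = 4 ∨ j = 3 ∨ j = 2 ∨ j = 1 := by omega
      rcases hj with rfl | rfl | rfl | rfl
      · exact P4 hemp _ (by norm_num) (by norm_num)
      · exact P3 hemp _ (by norm_num) (by norm_num)
      · exact P2 ⟨hemp, hres2⟩ _ (by norm_num) (by norm_num)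
      · exact P1 ⟨hV, hres1⟩ _ (by norm_num) (by norm_num)
    · exact H.dead0 p D I1 π kp uz uc un F V T w0 R T0 PD ν own c₀ h s s0
        ⟨hV, min_le_left _ _, by linarith⟩ _ (by norm_num) (by norm_num)

/-- **the thin table of 550 from the rows** -/
theorem thinTable_of (H : WTable η) : TopB550.ThinTable η where
  W5a := fun p D I1 π kp uz uc un F V T w0 R T0 PD ν own c₀ h _ =>
    thin_false H p D I1 π kp uz uc un F V T w0 R T0 PD ν own c₀ h trivial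
  W5b := fun p D I1 π kp uz uc un F V T w0 R T0 PD ν own c₀ h _ =>
    thin_false H p D I1 π kp uz uc un F V T w0 R T0 PD ν own c₀ h trivial

end

end Crest.Agent.R136.LadT830
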