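import Crest.Agent.R136.CtxW_697
import Crest.Agent.R136.LadT_830

/-!
# R136, thin branch (helper830): FROM `CtxW` TO ONE STATEMENT ABOUT ONE POINT

* `PtC` : all facts at one point of the rung of slope `s` (chart of the context inside)
* `flW_of_ctx`, **`pinC_of`**, **`deadC_of`** : a row in 697's form `PinC` / `DeadC` from one
  statement about `PtC`
* `pinT_of_pinC`, `deadT_of_deadC` : `PinC` / `DeadC` give the rows of `WTable`
-/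

set_option autoImplicit false
set_option linter.unusedVariables false

open Finset Filter Topology

namespace Crest.Agent.R136.ThB830

open Crest.Agent.R138.Ex926 (Base U IsTan)
open Crest.Agent.R136.Net191
open Crest.Agent.R136.NetW191
open Crest.Agent.R136.PrW464
open Crest.Agent.R136.NatW697
open Crest.Agent.R136.K2S774
open Crest.Agent.R136.K2A146
open Crest.Agent.R136.LadW697
open Crest.Agent.R136.Top484
open Crest.Agent.R136.ThS830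
open Crest.Agent.R136.LadT830
open Crest.Agent.R136.AwJ774
open Crest.Agent.R136.Aw413
open Crest.Agent.R136.EvW938
open Crest.Agent.R136.Dg219 (Walls mw gC dhC nC OutS)
open Crest.Agent.R136.Rc146 (OutA)
open Crest.Agent.R136.Dg262 (X)

/-- **all facts at one point left of the record line of the rung of slope `s`** (ray `TW s`, second
direction `btW θ`; `A` = slopes of the profile, `φ r` = groups and rates).  Chart
`co n i j k = u n k * coW (κ n) (f n i) (f n j) k`. -/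
structure PtC (B Bo : Base) (I J : ℕ → Finset (ℕ × ℝ)) (co : ∀ n : ℕ, ℕ × ℝ → ℕ × ℝ → Fin 18 → ℝ)
    (C : ℝ) (κ : ℕ → ℝ) (u : ℕ → Fin 18 → ℝ) (f : ℕ → ℕ × ℝ → FW) (K : ℝ)
    (θ : Fin 3 → ℝ) (q : Fin 3 → ℝ) (V T : Set (Fin 18)) (s : ℝ)
    (lam lo : (Fin 18 → ℝ) → ℝ) (A : ℝ × ℝ) (φ : ℕ → (Fin 18 → ℝ) → ℝ) (r : ℕ → ℝ) : Prop where
  co_eq : ∀ n i j k, co n i j k = u n k * coW (κ n) (f n i) (f n j) k
  gru : ∀ n, GrU (u n)
  kp1 : ∀ n, |κ n| ≤ 1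
  kp0 : Bo.Sub (fun n => |κ n|⁻¹)
  ne : ∀ᶠ n in (U : Filter ℕ), (J n).Nonempty
  q1 : 0 < q 1
  q2 : 0 < q 2
  th1 : 0 < θ 1
  s0 : 0 < s
  /-- all wall slopes are `≤ s` -/
  top : ∀ k ∈ V, KW θ k ≤ s
  /-- visible slots: not dropped, `≥ 4`, weight `≥ 1` -/
  vis : ∀ k ∈ V, 4 ≤ k ∧ (1 : ℝ) ≤ alW k ∧ (alW k : ℝ) < KW θ k
  /-- windows and own loss: visible on this surface = wall slope `s` -/
  aew : AeW B Bo I J co monW (mA monW (actW (DrW s))) C lam (TW s) (btW θ) A φ r 0 1 (btW θ)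
    (fun k => k ∈ V ∧ KW θ k = s) (fun k => k ∈ T ∧ k ∈ V ∧ KW θ k = s)
  out : OutA (gC (TW s) (btW θ)) (cn QW (actW (DrW s))) (TW s) (btW θ) (dhC (TW s) (btW θ))
    (nC (TW s) (btW θ)) lam A φ r
  prf : Prf (cn QW (actW (DrW s))) lam lo K
  /-- the slot `c` costs `q₁ + 2 q₂` per unit -/
  sweep : ∀ c ∈ cn QW (actW (DrW s)), c 1 = 0 → (∀ i, i ≠ 1 → TW s i = 0 → c i ≤ 0) →
    ∀ t : ℝ, 0 ≤ t → lam (c + t • e1W) ≤ lam c - (q 1 + 2 * q 2) * t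
  /-- the dropped slots do not matter -/
  ind : ∀ c ∈ cn QW (actW (DrW s)), ∀ c' ∈ cn QW (actW (DrW s)),
    (∀ i, i ∉ DrW s → c i = c' i) → lam c = lam c'

section

variable {P : Set (Fin 18 → ℝ)} {ν own : (Fin 18 → ℝ) → ℝ} {K : ℝ} {r0 : Fin 18 → ℝ}
  {θ : Fin 3 → ℝ} {g : ℝ} {q : Fin 3 → ℝ} {V T : Set (Fin 18)}

/-- slopes of the visible slots on the rung -/
theorem vis_TWc (h : SlotOkW θ (fun k => k ∈ V) (fun k => k ∈ T)) {s : ℝ}
    (hs : ∀ k ∈ V, KW θ k ≤ s) {k : Fin 18} (hk : k ∈ V) :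
    k ∉ DrW s ∧ TW s k = s - KW θ k + btW θ k := by
  obtain ⟨h4, h1, h2⟩ := vis_al h hk
  have hD : k ∉ DrW s := fun hD => by
    have := hD.2
    have := hs k hk
    linarith
  refine ⟨hD, ?_⟩
  rw [TW_flag h4 hD, btW_KW _ h4]
  ring

/-- the slopes of the ray are `≥ 0` -/
theorem TW_nonneg (s : ℝ) (hs : 0 < s) (i : Fin 18) : 0 ≤ TW s i := by
  by_cases hi : i ∈ DrW s
  · rw [TW, if_pos hi]; exact zero_le_one
  · by_cases h4 : 4 ≤ i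
    · rw [TW_flag h4 hi]
      have : ¬ s < alW i := fun h => hi ⟨h4, h⟩
      linarith [not_lt.1 this]
    · have : ∀ i : Fin 18, ¬ 4 ≤ i → i = 0 ∨ i = 1 ∨ i = 2 ∨ i = 3 := by decide
      rcases this i h4 with rfl | rfl | rfl | rfl
      · rw [TW_z]; exact zero_le_one
      · rw [TW_c]
      · rw [TW_A]; exact zero_le_one
      · rw [TW_B]; exact zero_le_one

/-- **the F-lemma of a rung from one statement about `PtC`** -/
theorem flW_of_ctx (h : CtxW P ν own K r0 θ g q V T) {s : ℝ} (hs0 : 0 < s)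
    (hs : ∀ k ∈ V, KW θ k ≤ s) {Vis : ((Fin 18 → ℝ) → ℝ) → Prop} {g' : ℝ}
    (H : ∀ (B Bo : Base) (I J : ℕ → Finset (ℕ × ℝ)) (co : ∀ n : ℕ, ℕ × ℝ → ℕ × ℝ → Fin 18 → ℝ)
      (C : ℝ) (κ : ℕ → ℝ) (u : ℕ → Fin 18 → ℝ) (f : ℕ → ℕ × ℝ → FW)
      (lam lo : (Fin 18 → ℝ) → ℝ) (A : ℝ × ℝ) (φ : ℕ → (Fin 18 → ℝ) → ℝ) (r : ℕ → ℝ),
      PtC B Bo I J co C κ u f K θ q V T s lam lo A φ r → Vis lam →
      g' ≤ -A.1 + DlW g q (saW s)) :
    FlW P ν own K r0 θ g q V s Vis g' := by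
  refine ⟨btW θ, fun k _ => rfl, fun lam lo hst => ?_⟩
  have hloc : locT V 0 (btW θ) (TW s) = fun k => k ∈ V ∧ KW θ k = s := by
    funext k
    simp only [locT, eq_iff_iff]
    constructor
    · rintro ⟨hk, hT⟩
      refine ⟨hk, ?_⟩
      rw [(vis_TWc h.slots hs hk).2, TW_z] at hT
      linarith
    · rintro ⟨hk, hK⟩
      refine ⟨hk, ?_⟩
      rw [(vis_TWc h.slots hs hk).2, TW_z, hK]
      ring
  intro z hz D' hD' k lam' lo' kpos k0 H1 H2 x' h' hJ hB φ rt out hVis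
  obtain ⟨B, Bo, I, J, co, C, κ, u, f, hco, hu, hκ, hκs, hne, hae⟩ := h.ae
  have hA := hae (actW (DrW s)) x' h' lam' lo' (TW s) (TW s) (btW θ) _ φ rt
    (fun k => k ∈ T ∧ k ∈ V ∧ KW θ k = s) hJ hB (fun i hi => by
      rw [(vis_TWc h.slots hs hi).2, TW_z]
      have := hs i hi
      linarith) (fun k hk => by rw [hloc]; exact hk) (by
      rintro ⟨-, hk, -⟩
      exact absurd (vis_al h.slots hk).1 (by decide)) out.toOutS
  rw [hloc] at hA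
  exact H B Bo I J co C κ u f lam' lo' _ φ rt
    { co_eq := hco
      gru := hu
      kp1 := hκ
      kp0 := hκs
      ne := hne
      q1 := h.q1
      q2 := h.q2
      th1 := h.θ1
      s0 := hs0
      top := hs
      vis := fun k hk => vis_al h.slots hk
      aew := hA
      out := out
      prf := hst.prf.tan kpos H1 H2
      sweep := fun c hc hc1 hcT t ht =>
        hst.sweep (fun k _ => rfl) (nat_btW _ _) (TW_nonneg s hs0) hz kpos k0 H1 hc hc1 hcT ht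
      ind := fun c hc c' hc' hcc => hst.ind_pt h.θ1 kpos k0 H1 hc hc' hcc } hVis

end

/-- **a pin row from one statement about `PtC`** -/
theorem pinC_of {j : ℕ} (hj : 1 ≤ j) {pat : (Fin 3 → ℝ) → Set (Fin 18) → Prop}
    (hpat : ∀ θ V, pat θ V → ∀ k ∈ V, KW θ k ≤ j)
    (H : ∀ (P : Set (Fin 18 → ℝ)) (ν own : (Fin 18 → ℝ) → ℝ) (K : ℝ) (r0 : Fin 18 → ℝ)
      (θ : Fin 3 → ℝ) (g : ℝ) (q : Fin 3 → ℝ) (V T : Set (Fin 18)),
      CtxW P ν own K r0 θ g q V T → pat θ V →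
      ∃ g' : ℝ, 0 < g' ∧ ∀ (B Bo : Base) (I J : ℕ → Finset (ℕ × ℝ))
        (co : ∀ n : ℕ, ℕ × ℝ → ℕ × ℝ → Fin 18 → ℝ)
        (C : ℝ) (κ : ℕ → ℝ) (u : ℕ → Fin 18 → ℝ) (f : ℕ → ℕ × ℝ → FW)
        (lam lo : (Fin 18 → ℝ) → ℝ) (A : ℝ × ℝ) (φ : ℕ → (Fin 18 → ℝ) → ℝ) (r : ℕ → ℝ),
        PtC B Bo I J co C κ u f K θ q V T j lam lo A φ r →
        lam (ind1 (JW j)) < 0 → g' ≤ -A.1 + DlW g q (saW j)) :
    PinC j pat := by
  intro P ν own K r0 θ g q V T h hp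
  obtain ⟨g', hg', H'⟩ := H P ν own K r0 θ g q V T h hp
  have hj0 : (0:ℝ) < j := by exact_mod_cast hj
  exact ⟨g', hg', flW_of_ctx h hj0 (hpat _ _ hp) H'⟩

/-- **a dead row from one statement about `PtC`** -/
theorem deadC_of {pat : ℝ → (Fin 3 → ℝ) → Set (Fin 18) → ℝ → Prop}
    (hpat : ∀ g θ V s, pat g θ V s → 0 < s ∧ ∀ k ∈ V, KW θ k ≤ s)
    (H : ∀ (P : Set (Fin 18 → ℝ)) (ν own : (Fin 18 → ℝ) → ℝ) (K : ℝ) (r0 : Fin 18 → ℝ)
      (θ : Fin 3 → ℝ) (g : ℝ) (q : Fin 3 → ℝ) (V T : Set (Fin 18)) (s : ℝ),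
      CtxW P ν own K r0 θ g q V T → pat g θ V s →
      ∃ g' : ℝ, 0 < g' ∧ ∀ (B Bo : Base) (I J : ℕ → Finset (ℕ × ℝ))
        (co : ∀ n : ℕ, ℕ × ℝ → ℕ × ℝ → Fin 18 → ℝ)
        (C : ℝ) (κ : ℕ → ℝ) (u : ℕ → Fin 18 → ℝ) (f : ℕ → ℕ × ℝ → FW)
        (lam lo : (Fin 18 → ℝ) → ℝ) (A : ℝ × ℝ) (φ : ℕ → (Fin 18 → ℝ) → ℝ) (r : ℕ → ℝ),
        PtC B Bo I J co C κ u f K θ q V T s lam lo A φ r →
        g' ≤ -A.1 + DlW g q (saW s)) :
    DeadC pat := by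
  intro P ν own K r0 θ g q V T s h hp
  obtain ⟨g', hg', H'⟩ := H P ν own K r0 θ g q V T s h hp
  obtain ⟨hs, hs'⟩ := hpat _ _ _ _ hp
  exact ⟨g', hg', flW_of_ctx h hs hs'
    fun B Bo I J co C κ u f lam lo A φ r hP _ => H' B Bo I J co C κ u f lam lo A φ r hP⟩

/-- full loss `3 + s` (up to `C`) is enough -/
theorem full_enough {g : ℝ} {q : Fin 3 → ℝ} {s C : ℝ} {A : ℝ × ℝ} (h : 3 + s - C ≤ -A.1) :
    g - q 0 * (s - 1) - C ≤ -A.1 + DlW g q (saW s) := by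
  rw [DlW_saW]; linarith

/-- full loss `3 + s`, `0 < s ≤ 4`: the gain `g - q₀ (s - 1)` is `≥ g / 4` -/
theorem CtxW.full {P : Set (Fin 18 → ℝ)} {ν own : (Fin 18 → ℝ) → ℝ} {K : ℝ} {r0 : Fin 18 → ℝ}
    {θ : Fin 3 → ℝ} {g : ℝ} {q : Fin 3 → ℝ} {V T : Set (Fin 18)}
    (h : CtxW P ν own K r0 θ g q V T) {s : ℝ} (hs : s ≤ 4) {A : ℝ × ℝ} (hA : 3 + s ≤ -A.1) :
    g / 4 ≤ -A.1 + DlW g q (saW s) := by
  have h1 := full_enough (g := g) (q := q) (C := 0) (s := s) (A := A) (by linarith)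
  have h2 := h.q0
  have h3 := h.qg
  have h4 : q 0 * (s - 1) ≤ q 0 * 3 := mul_le_mul_of_nonneg_left (by linarith) h2
  linarith

/-! ### to the rows of `WTable` -/

/-- **697's pin row gives the row of the table** -/
theorem pinT_of_pinC {η : ℝ} (hη : 0 < η) (hη4 : η ≤ 1 / 8) {j : ℕ}
    {pat : (Fin 3 → ℝ) → Set (Fin 18) → Prop} (H : PinC j pat) :
    PinT η j fun θ V => pat θ {k | V k} := by
  intro p D I1 π kp uz uc un F V T w0 R T0 PD ν own c₀ h hp v1 h0 h1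
  exact H _ _ _ _ _ _ _ _ _ _ (ctx_thin h hη hη4 h0 h1) hp

/-- **697's dead row gives the row of the table** -/
theorem deadT_of_deadC {η : ℝ} (hη : 0 < η) (hη4 : η ≤ 1 / 8)
    {pat : ℝ → (Fin 3 → ℝ) → Set (Fin 18) → ℝ → Prop} (H : DeadC pat) :
    DeadT η fun g θ V s => pat g θ {k | V k} s := by
  intro p D I1 π kp uz uc un F V T w0 R T0 PD ν own c₀ h s hs hp v1 h0 h1
  exact H _ _ _ _ _ _ _ _ _ _ _ (ctx_thin h hη hη4 h0 h1) hp

end Crest.Agent.R136.ThB830
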