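import Crest.Agent.R136.Bas4_938
import Crest.Agent.R136.ThB_830
import Crest.Agent.R136.HtW_887

/-!
# R136 (helper938): the base at a point `PtC` (830 / 697), slopes of the groups

* `PtB.of_ptC`, `BasG.of_ptC`, `conc_ptC`, `base_ptC`
* `gW_eq` : two slots which are not dropped and have positive slope are in one group iff
  `(γ_i - 1) θ₁ ..` (ratios)
-/

set_option autoImplicit false
set_option linter.unusedSectionVars false
set_option linter.unusedVariables false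

open Filter Topology

namespace Crest.Agent.R136.Bas938

open Finset Crest.Agent.R138.Ex926 Crest.Agent.R136.Net191 Crest.Agent.R136.Gf356
open Crest.Agent.R136.Qg926 Crest.Agent.R136.Dg219 Crest.Agent.R136.Aw413
open Crest.Agent.R136.NetW191 Crest.Agent.R136.EvW938 Crest.Agent.R136.PrW464
open Crest.Agent.R136.LadW697 Crest.Agent.R136.AwJ774 Crest.Agent.R136.Ht887
open Crest.Agent.R136.RowW619 Crest.Agent.R136.BaseW619 Crest.Agent.R136.LfW619
open Crest.Agent.R136.Lf400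
open Crest.Agent.R136.NatW697 (KW saW)
open Crest.Agent.R136.K2S774 (cn)

section ptC

variable {B Bo : Base} {I J : ℕ → Finset (ℕ × ℝ)} {co : ∀ n : ℕ, ℕ × ℝ → ℕ × ℝ → Fin 18 → ℝ}
  {C : ℝ} {κ : ℕ → ℝ} {u : ℕ → Fin 18 → ℝ} {f : ℕ → ℕ × ℝ → FW} {K : ℝ} {θ q : Fin 3 → ℝ}
  {V T : Set (Fin 18)} {s : ℝ} {lam lo : (Fin 18 → ℝ) → ℝ} {A : ℝ × ℝ}
  {φ : ℕ → (Fin 18 → ℝ) → ℝ} {r : ℕ → ℝ}

/-- **from 830's `PtC`** -/
theorem PtB.of_ptC (h : ThB830.PtC B Bo I J co C κ u f K θ q V T s lam lo A φ r)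
    (ne : ∀ᶠ n in (U : Filter ℕ), (J n).Nonempty) :
    PtB B Bo I J co κ u f (mA monW (actW (DrW s))) (DrW s) C lam (TW s) (btW θ) A φ r (btW θ)
      (fun k => k ∈ V ∧ KW θ k = s) (fun k => k ∈ T ∧ k ∈ V ∧ KW θ k = s) where
  aew := h.aew
  ch :=
    { co := fun n i _ j _ k => h.co_eq n i j k
      gr := h.gru
      k1 := h.kp1
      ks := h.kp0
      ne := ne }
  act := actM_mA _
  ind := fun c hc c' hc' e => by
    rw [coneM_mA] at hc hc'
    exact h.ind c hc c' hc' e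

/-- the slots of the groups of `z` and `A` -/
theorem grp4 (hθ : 0 < θ 1) (s : ℝ) :
    (∀ j : Fin 18, gC (TW s) (btW θ) j = gC (TW s) (btW θ) 0 → 4 ≤ j ∨ j = 0) ∧
    (∀ j : Fin 18, gC (TW s) (btW θ) j = gC (TW s) (btW θ) 2 → 4 ≤ j ∨ j = 2) ∧
    (∀ j : Fin 18, gC (TW s) (btW θ) j = gC (TW s) (btW θ) 3 → 4 ≤ j ∨ j = 3) ∧
    (∀ j : Fin 18, TW s j = 0 → 4 ≤ j ∨ j = 1) := by
  have z0 : TW s 0 ≠ 0 := by rw [TW_z]; exact one_ne_zero
  have z2 : TW s 2 ≠ 0 := by rw [TW_A]; exact one_ne_zero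
  have z3 : TW s 3 ≠ 0 := by rw [TW_B]; exact one_ne_zero
  have g1 : ∀ i, TW s i ≠ 0 → gC (TW s) (btW θ) 1 ≠ gC (TW s) (btW θ) i := fun i hi e => by
    rw [gC_zero.2 (TW_c s)] at e
    exact hi (gC_zero.1 e.symm)
  refine ⟨fun j => ?_, fun j => ?_, fun j => ?_, fun j => ?_⟩
  · refine cases4 (P := fun j => gC (TW s) (btW θ) j = gC (TW s) (btW θ) 0 → 4 ≤ j ∨ j = 0)
      (fun _ => Or.inr rfl) (fun e => absurd e (g1 0 z0)) (fun e => ?_) (fun e => ?_)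
      (fun k hk _ => Or.inl hk) j
    · rw [gC_eq z2 z0, TW_A, TW_z, btW0, btW2] at e; linarith
    · rw [gC_eq z3 z0, TW_B, TW_z, btW0, btW3] at e; linarith
  · refine cases4 (P := fun j => gC (TW s) (btW θ) j = gC (TW s) (btW θ) 2 → 4 ≤ j ∨ j = 2)
      (fun e => ?_) (fun e => absurd e (g1 2 z2)) (fun _ => Or.inr rfl) (fun e => ?_)
      (fun k hk _ => Or.inl hk) j
    · rw [gC_eq z0 z2, TW_A, TW_z, btW0, btW2] at e; linarith
    · rw [gC_eq z3 z2, TW_B, TW_A, btW3, btW2] at e; linarith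
  · refine cases4 (P := fun j => gC (TW s) (btW θ) j = gC (TW s) (btW θ) 3 → 4 ≤ j ∨ j = 3)
      (fun e => ?_) (fun e => absurd e (g1 3 z3)) (fun e => ?_) (fun _ => Or.inr rfl)
      (fun k hk _ => Or.inl hk) j
    · rw [gC_eq z0 z3, TW_B, TW_z, btW0, btW3] at e; linarith
    · rw [gC_eq z2 z3, TW_B, TW_A, btW3, btW2] at e; linarith
  · exact cases4 (P := fun j => TW s j = 0 → 4 ≤ j ∨ j = 1) (fun e => absurd e z0)
      (fun _ => Or.inr rfl) (fun e => absurd e z2) (fun e => absurd e z3)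
      (fun k hk _ => Or.inl hk) j

/-- **the hypotheses of the base hold at the points `PtC`** -/
theorem BasG.of_ptC (h : ThB830.PtC B Bo I J co C κ u f K θ q V T s lam lo A φ r)
    (hq1 : 0 < q 1) (hq2 : 0 < q 2) :
    BasG lam (mA monW (actW (DrW s))) (DrW s) (TW s) (btW θ) (fun k => k ∈ V ∧ KW θ k = s) where
  Dr4 := fun k hk => hk.1
  V4 := fun k hk => (h.vis k hk.1).1
  gz := (grp4 h.th1 s).1
  gA := (grp4 h.th1 s).2.1
  a0 := (grp4 h.th1 s).2.2.2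
  sweep := by
    refine ⟨q 1 + 2 * q 2, by linarith, fun c hc h1 h2 t ht => ?_⟩
    rw [coneM_mA] at hc
    exact h.sweep c hc h1 h2 t ht

/-- **end of a row, `PtC` form** -/
theorem conc_ptC (h : ThB830.PtC B Bo I J co C κ u f K θ q V T s lam lo A φ r)
    (ne : ∀ᶠ n in (U : Filter ℕ), (J n).Nonempty) (hq1 : 0 < q 1) (hq2 : 0 < q 2) {x Cc : ℝ}
    (hN : ∃ᶠ t : ℝ in atTop,
      x * t - Cc ≤ lam (Function.update (t • TW s) 17 0) - lam (t • TW s)) :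
    3 + x ≤ -A.1 :=
  (PtB.of_ptC h ne).conc (BasG.of_ptC h hq1 hq2) (fun t _ => ray_mem s t)
    (TW_nonneg h.s0.le) (TW_z s) (TW_A s) (TW_B s) hN

/-- **the base, `PtC` form** -/
theorem base_ptC (h : ThB830.PtC B Bo I J co C κ u f K θ q V T s lam lo A φ r)
    (ne : ∀ᶠ n in (U : Filter ℕ), (J n).Nonempty) (hq1 : 0 < q 1) (hq2 : 0 < q 2) {x : ℝ}
    (hx : 0 < x) : lam (v4 x 0 x x) ≤ -(3 * x) ∧ x ≤ lam (v4 x 0 0 0) - lam (v4 x 0 x 0) :=
  ⟨(PtB.of_ptC h ne).full3 (BasG.of_ptC h hq1 hq2) hx,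
    (PtB.of_ptC h ne).fullA (BasG.of_ptC h hq1 hq2) hx⟩

/-! ### slopes -/

/-- second slope of a flag which is not dropped -/
theorem btW_TW (θ : Fin 3 → ℝ) {k : Fin 18} (hk : 4 ≤ k) (hD : k ∉ DrW s) :
    btW θ k = TW s k + (KW θ k - s) := by
  have h1 : ∀ k : Fin 18, 4 ≤ k → wn k = 1 := by decide
  rw [TW_flag hk hD]
  simp only [KW, alW, if_pos hk]
  push_cast
  ring

/-- wall slopes -/
theorem KW_flag (θ : Fin 3 → ℝ) {k : Fin 18} (hk : 4 ≤ k) : KW θ k = (1 - θ 0) - wc k * θ 1 := by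
  have h1 : ∀ k : Fin 18, 4 ≤ k → wn k = 1 := by decide
  rw [NatW697.KW_eq, h1 k hk]; push_cast; ring

/-- **two flags which are not dropped, positive slopes** -/
theorem gW_eq {i j : Fin 18} (hi : 4 ≤ i) (hj : 4 ≤ j) (hDi : i ∉ DrW s) (hDj : j ∉ DrW s)
    (h0i : TW s i ≠ 0) (h0j : TW s j ≠ 0) :
    gC (TW s) (btW θ) i = gC (TW s) (btW θ) j ↔
      (KW θ i - s) / TW s i = (KW θ j - s) / TW s j := by
  rw [gC_eq h0i h0j, btW_TW θ hi hDi, btW_TW θ hj hDj, add_div, add_div, div_self h0i,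
    div_self h0j]
  constructor
  · intro h; linarith
  · intro h; linarith

end ptC

end Crest.Agent.R136.Bas938
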