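import Crest.Agent.R136.Rnd_289

/-!
# R136, block U4 (helper289): rounding for the official class `ShN` (after the migration)

`rnd_cfgN` : the form of `rnd_cfg` for `LegN`; `rndN` : the hypothesis `hRnd` of helper823's `norm6`
for `LegN`, with the shape function `shp K = (a, w 2, w 1)` and the finite set `shps r N` of dyadic
shapes.
-/

set_option autoImplicit false
set_option linter.unusedVariables false

open Finset

namespace Crest.Agent.R136.Rnd289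

open Sh605 UB289 Sh321 K4 KS879 En879 Val289

noncomputable section

open Classical in
/-- **rounding for objects**, class `LegN` -/
theorem rnd_cfgN {m : ℕ} {r Λ : ℝ} {K : Plk4} (hr : 0 < r) (hK : LegN m r Λ K)
    (O : Finset (Ln4 × ℤ)) (hO : ∀ o ∈ O, In4 m K o) :
    ∃ K' : Plk4, LegN m r Λ K' ∧ Dy r K' ∧ Comp K K' ∧
      (O.card : ℝ) ≤ 17 ^ 9 * ((O.filter (In4 m K')).card : ℝ) := by
  obtain ⟨K', h1, h2, h3, h4⟩ := rnd_cfg (Λ := Λ) hr (LegN.toC hr hK) O hO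
  exact ⟨K', ⟨h1.1.toN, h1.2⟩, h2, h3, h4⟩

/-- the shape of a sheet: `(a, w 2, w 1)` -/
def shp (K : Plk4) : ℝ × ℝ × ℝ := (K.a, K.w 2, K.w 1)

/-- the dyadic shapes -/
def shps (r : ℝ) (N : ℕ) : Finset (ℝ × ℝ × ℝ) :=
  (range (N + 1) ×ˢ range (N + 1) ×ˢ range (N + 1)).image
    fun x => (r * 2 ^ x.1, r * 2 ^ x.2.1, r * 2 ^ x.2.2)

theorem shps_card (r : ℝ) (N : ℕ) : ((shps r N).card : ℝ) ≤ ((N : ℝ) + 1) ^ 3 := by
  have h : (shps r N).card ≤ (N + 1) ^ 3 := by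
    refine card_image_le.trans ?_
    rw [card_product, card_product, card_range]
    exact le_of_eq (by ring)
  exact_mod_cast h

theorem shps_nonempty (r : ℝ) (N : ℕ) : (shps r N).Nonempty :=
  ⟨_, mem_image_of_mem _ (show ((0, 0, 0) : ℕ × ℕ × ℕ) ∈ _ by simp)⟩

theorem exp_le {r : ℝ} (hr : 0 < r) {i N : ℕ} (h : r * 2 ^ i < r * 2 ^ (N + 1)) : i ≤ N := by
  have h1 : (2:ℝ) ^ i < 2 ^ (N + 1) := lt_of_mul_lt_mul_left h hr.le
  have h2 : i < N + 1 := (pow_lt_pow_iff_right₀ (by norm_num)).1 h1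
  omega

open Classical in
/-- **hypothesis `hRnd` of `norm6`** for the class `LegN` -/
theorem rndN {q : Fin 3 → ℝ} {m N : ℕ} {r Λ : ℝ} (hr : 0 < r)
    (hN : (1:ℝ) / 2 ^ m < r * 2 ^ (N + 1)) (K : Plk4) (hK : LegN m r Λ K)
    (O : Finset (Ln4 × ℤ)) (hO : ∀ o ∈ O, In4 m K o) :
    ∃ K' : Plk4, LegN m r Λ K' ∧ shp K' ∈ shps r N ∧
      cap5 q m K' ≤ (17 ^ 9 * (2:ℝ) ^ (3 * qs q)) * cap5 q m K ∧
      (O.card : ℝ) ≤ (17 ^ 9 * (2:ℝ) ^ (3 * qs q)) *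
        ((O.filter fun o => In4 m K' o).card : ℝ) := by
  obtain ⟨K', h1, h2, h3, h4⟩ := rnd_cfgN (Λ := Λ) hr hK O hO
  have p : 0 < K.a ∧ 0 < K.w 0 ∧ 0 < K.w 2 ∧ 0 < K.w 1 := (ShN.toC hr hK.1).pos hr
  have p' : 0 < K'.a ∧ 0 < K'.w 0 ∧ 0 < K'.w 2 ∧ 0 < K'.w 1 := (ShN.toC hr h1.1).pos hr
  have hqs : 0 ≤ 3 * qs q := by unfold qs; positivity
  have hA1 : (1:ℝ) ≤ (2:ℝ) ^ (3 * qs q) := Real.one_le_rpow (by norm_num) hqs
  have hw1 : K'.w 1 ≤ 1 / 2 ^ m := h1.2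
  have hw2 : K'.w 2 ≤ K'.w 1 := h1.1.w_le
  have ha : K'.a ≤ K'.w 2 := h1.1.a_le
  obtain ⟨i, j, k, ei, ej, ek⟩ := h2
  refine ⟨K', h1, ?_, ?_, ?_⟩
  · refine mem_image.2 ⟨(i, j, k), ?_, ?_⟩
    · rw [mem_product, mem_product, mem_range, mem_range, mem_range]
      refine ⟨?_, ?_, ?_⟩
      · exact Nat.lt_succ_of_le (exp_le hr (by rw [← ei]; linarith))
      · exact Nat.lt_succ_of_le (exp_le hr (by rw [← ej]; linarith))
      · exact Nat.lt_succ_of_le (exp_le hr (by rw [← ek]; linarith))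
    · simp only [shp, ei, ej, ek]
  · refine (cap5_comp h3 p.1 p.2.2.1 p.2.2.2).1.trans ?_
    have h0 : 0 ≤ cap5 q m K := by
      rw [cap5_eq]
      have := p.1; have := p.2.2.1; have := p.2.2.2
      unfold rew; positivity
    refine mul_le_mul_of_nonneg_right ?_ h0
    exact le_mul_of_one_le_left (by positivity) (by norm_num)
  · refine h4.trans ?_
    refine mul_le_mul_of_nonneg_right ?_ (Nat.cast_nonneg _)
    exact le_mul_of_one_le_right (by positivity) hA1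

end

end Crest.Agent.R136.Rnd289
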