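import Crest.Agent.R136.UB2_289

/-!
# R136 (UB) for a general class of sheets: cover and pigeonhole (helper289)

`Cl` = class of sheets; `Pos Cl` = the widths are positive and ordered; `UbOneG Cl κ p` = the
one-sheet lemma with constants `1 / (2^κ Λ^p)`, `2^κ Λ^p`; **`ubgG : UbOneG Cl κ p → UBgG Cl (7p+1) p 10`**
(for `κ ≤ 17 p`).
-/

set_option autoImplicit false
set_option linter.unusedVariables false

open Finset

namespace Crest.Agent.R136.UB289

open Sh605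

noncomputable section

/-- classes of sheets -/
abbrev Cls := (Fin 3 → V3) → Ln4 → V3 → (ℝ → V3 → ℝ) → ℝ → ℝ → ℝ → ℝ → Prop

/-- positivity of the widths -/
structure Pos (Cl : Cls) : Prop where
  r0_le : ∀ {e : Fin 3 → V3} {c : Ln4} {w : V3} {q : ℝ → V3 → ℝ} {a z0 ρ r0 : ℝ},
    Cl e c w q a z0 ρ r0 → r0 ≤ a
  wpos : ∀ {e : Fin 3 → V3} {c : Ln4} {w : V3} {q : ℝ → V3 → ℝ} {a z0 ρ r0 : ℝ},
    Cl e c w q a z0 ρ r0 → 0 < r0 → ∀ i, 0 < w i

theorem pos_shN : Pos ShN where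
  r0_le := fun h => h.r0_le
  wpos := by
    intro e c w q a z0 ρ r0 h hr i
    have h2 : 0 < w 2 := (hr.trans_le h.r0_le).trans_le h.a_le
    have h1 : 0 < w 1 := h2.trans_le h.w_le
    fin_cases i
    · exact (hr.trans_le h.r0_le).trans_le h.a_le0
    · exact h1
    · exact h2

open Classical in
/-- D-max for a class -/
def DMaxG (Cl : Cls) {ι : Type} (A : Finset ι) (L : ι → Ln4) (z0 ρ D : ℝ) (R : ℝ → ℝ → ℝ → ℝ)
    (r0 wmax : ℝ) : Prop :=
  ∀ (e : Fin 3 → V3) (c : Ln4) (w : V3) (q : ℝ → V3 → ℝ) (a : ℝ), Cl e c w q a z0 ρ r0 →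
    w 1 ≤ wmax →
    ((A.filter fun t => InSheet (L t) e c w q a z0 ρ).card : ℝ) ≤
      D * (a * w 2 * w 1 * R a (w 2) (w 1))

/-- the one-sheet lemma for a class -/
def UbOneG (Cl : Cls) (κ p : ℕ) : Prop :=
  ∀ {e : Fin 3 → V3} {c : Ln4} {w : V3} {q : ℝ → V3 → ℝ} {a z0 ρ r0 : ℝ},
    Cl e c w q a z0 ρ r0 → 0 < r0 → 0 < ρ → ∀ {L lam Z0 : ℝ}, 1 ≤ L → 0 < lam → lam ≤ 1 →
    Z0 ≤ z0 → z0 + ρ ≤ Z0 + L * ρ → ∀ {y : Ln4}, InSheet y e c w q a z0 ρ →
    ∃ zb : ℝ, ∀ z' ρ' : ℝ, Z0 ≤ z' → 0 ≤ ρ' → z' + ρ' ≤ Z0 + L * ρ →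
      ρ' ≤ lam * (L * ρ) / 128 → 2 * lam * (L * ρ) ≤ |z' - zb| →
      ∃ (e' : Fin 3 → V3) (c' : Ln4) (w' : V3) (q' : ℝ → V3 → ℝ) (a' : ℝ),
        Cl e' c' w' q' a' z' ρ' r0 ∧
        (∀ t : Ln4, InSheet t e c w q a z0 ρ →
          (∀ i, |dt (e i) (t.pos z0 - y.pos z0)| ≤ 1 / (2 ^ κ * (L / lam) ^ p) * w i) →
          (∀ i, |dt (e i) (t.pos (z0 + ρ) - y.pos (z0 + ρ))| ≤
            1 / (2 ^ κ * (L / lam) ^ p) * w i) →
          InSheet t e' c' w' q' a' z' ρ') ∧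
        a ≤ a' ∧ a' ≤ 2 ^ κ * (L / lam) ^ p * a ∧
        w' 2 ≤ w 2 ∧ w 2 ≤ 2 ^ κ * (L / lam) ^ p * w' 2 ∧
        w' 1 ≤ w 1 ∧ w 1 ≤ 2 ^ κ * (L / lam) ^ p * w' 1

theorem ubOneG_of (h : UbOne) : UbOneG ShN 18 3 := h

open Classical in
/-- **(UB)** for a class, finite form with one-sided comparison of the rewards -/
def UBgG (Cl : Cls) (A B k : ℕ) : Prop :=
  ∀ (M h : ℕ), k ≤ h → 7 ≤ h → h ≤ M → ∀ {ι : Type} (L : ι → Ln4) (T : Finset ι)
    (al : ℕ → Finset ι) (z00 ρ ρ' r0 D : ℝ) (R R' : ℝ → ℝ → ℝ → ℝ), 0 < ρ → 0 < r0 → 0 ≤ D →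
    ρ' * 2 ^ h = 2 ^ M * ρ →
    (∀ j < 2 ^ h, DMaxG Cl (al j) L (z00 + j * ρ') ρ' D R' r0 ρ') →
    ∀ (e : Fin 3 → V3) (c : Ln4) (w : V3) (q : ℝ → V3 → ℝ) (a z0 : ℝ), z00 ≤ z0 →
      z0 + ρ ≤ z00 + 2 ^ M * ρ → Cl e c w q a z0 ρ r0 → w 1 ≤ ρ →
      (∀ t ∈ T, InSheet (L t) e c w q a z0 ρ) →
      (∀ t ∈ T, 2 ^ k ≤ ((Finset.range (2 ^ h)).filter fun j => t ∈ al j).card) →
      0 ≤ R a (w 2) (w 1) →
      (∀ a' w2' w1', (a ≤ a' ∧ a' ≤ 2 ^ (B * (M + h + 10)) * a) →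
        (w2' ≤ w 2 ∧ w 2 ≤ 2 ^ (B * (M + h + 10)) * w2') →
        (w1' ≤ w 1 ∧ w 1 ≤ 2 ^ (B * (M + h + 10)) * w1') →
        R' a' w2' w1' ≤ R a (w 2) (w 1)) →
      (T.card : ℝ) ≤ 2 ^ (A * (M + h + 10)) * D * (a * w 2 * w 1 * R a (w 2) (w 1))

/-! ### cover and pigeonhole -/

open Classical in
/-- **(UB) for a class, finite form** -/
theorem ubgG {Cl : Cls} (hP : Pos Cl) {κ p : ℕ} (hκ : κ ≤ 17 * p) (hone : UbOneG Cl κ p) :
    UBgG Cl (7 * p + 1) p 10 := by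
  intro M h hk h7 hhM ι L T al z00 ρ ρ' r0 D R R' hρ hr hD hρρ hDM e c w q a z0 hz0 hz1 S hw1 hin
    hal hR0 hR
  have hw : ∀ i, 0 < w i := hP.wpos S hr
  have p2 := hw 2
  have p1 := hw 1
  have pa : 0 < a := hr.trans_le (hP.r0_le S)
  have hρ' : 0 < ρ' := by
    have : 0 < ρ' * 2 ^ h := by rw [hρρ]; positivity
    exact pos_of_mul_pos_left this (by positivity)
  -- parameters
  set lam : ℝ := 2 ^ 7 / 2 ^ h with hlam
  have hlam0 : 0 < lam := by positivity
  have hlam1 : lam ≤ 1 := by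
    rw [hlam, div_le_one (by positivity)]
    exact pow_le_pow_right₀ (by norm_num) h7
  have hLr : lam * (2 ^ M * ρ) = 2 ^ 7 * ρ' := by
    rw [← hρρ, hlam]; field_simp
  obtain ⟨N, hN⟩ : ∃ N : ℕ, N = κ + p * (M + h - 7) := ⟨_, rfl⟩
  have hN1 : N + 7 * p = κ + p * (M + h) := by
    have e1 : p * (M + h) = p * (M + h - 7) + p * 7 := by
      rw [← mul_add]; congr 1; omega
    rw [hN, e1]; ring
  have hΛ : (2:ℝ) ^ κ * (2 ^ M / lam) ^ p = 2 ^ N := by
    have e1 : (2:ℝ) ^ M / lam = 2 ^ (M + h - 7) := by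
      rw [hlam, div_div_eq_mul_div, ← pow_add, div_eq_iff (by positivity), ← pow_add]
      congr 1; omega
    rw [e1, ← pow_mul, ← pow_add, hN]
    congr 1; ring
  set n : ℕ := 2 ^ N with hn
  have hnr : (2:ℝ) ^ N = n := by rw [hn]; push_cast; rfl
  have hn0 : 0 < n := by rw [hn]; positivity
  have hn0' : (0:ℝ) < n := by exact_mod_cast hn0
  rw [hnr] at hΛ
  have hNle : N ≤ p * (M + h + 10) := by
    have e1 : p * (M + h + 10) = p * (M + h) + p * 10 := by ring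
    omega
  have hn3 : (n:ℝ) ≤ 2 ^ (p * (M + h + 10)) := by
    rw [← hnr]; exact pow_le_pow_right₀ (by norm_num) hNle
  -- the bound for one fibre
  set X : ℝ := D * (n * a * w 2 * w 1 * R a (w 2) (w 1)) with hX
  have hX0 : 0 ≤ X := by rw [hX]; positivity
  have hfib : ∀ y ∈ T, ((T.filter fun t => code e c w (1 / n) z0 (z0 + ρ) (L t) =
      code e c w (1 / n) z0 (z0 + ρ) (L y)).card : ℝ) ≤ 2 ^ h * X := by
    intro y hy
    set Tc := T.filter fun t => code e c w (1 / n) z0 (z0 + ρ) (L t) =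
      code e c w (1 / n) z0 (z0 + ρ) (L y) with hTc
    obtain ⟨zb, hzb⟩ := hone S hr hρ (L := 2 ^ M) (lam := lam) (Z0 := z00)
      (one_le_pow₀ (by norm_num)) hlam0 hlam1 hz0 hz1 (hin y hy)
    -- good cells
    set G : Finset ℕ := (Finset.range (2 ^ h)).filter fun j =>
      ((2 ^ 8 : ℕ) : ℝ) * ρ' ≤ |z00 + j * ρ' - zb| with hG
    have hcell : ∀ j ∈ G, ((Tc.filter fun t => t ∈ al j).card : ℝ) ≤ X := by
      intro j hj
      rw [hG, mem_filter, mem_range] at hj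
      obtain ⟨hj1, hj2⟩ := hj
      have hj1' : (j:ℝ) + 1 ≤ 2 ^ h := by
        have : ((j + 1 : ℕ) : ℝ) ≤ ((2 ^ h : ℕ) : ℝ) := Nat.cast_le.2 hj1
        push_cast at this
        exact this
      obtain ⟨e', c', w', q', a', hS', hin', ha1, ha2, hw2, hw2', hw1', hw1''⟩ :=
        hzb (z00 + j * ρ') ρ' (by
          have : (0:ℝ) ≤ j * ρ' := by positivity
          linarith) hρ'.le (by
          rw [← hρρ]
          nlinarith) (by rw [hLr]; linarith) (by
          have e1 : 2 * lam * (2 ^ M * ρ) = ((2 ^ 8 : ℕ) : ℝ) * ρ' := by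
            rw [mul_assoc, hLr]; push_cast; ring
          rw [e1]; exact hj2)
      rw [hΛ] at ha2 hw2' hw1'' hin'
      have hw1ρ : w' 1 ≤ ρ' := by
        refine hw1'.trans (hw1.trans ?_)
        have h1 : ρ * 2 ^ h ≤ ρ' * 2 ^ h := by
          rw [hρρ, mul_comm]
          have := pow_le_pow_right₀ (by norm_num : (1:ℝ) ≤ 2) hhM
          exact mul_le_mul_of_nonneg_right this hρ.le
        exact le_of_mul_le_mul_right h1 (by positivity)
      have hd := hDM j hj1 e' c' w' q' a' hS' hw1ρ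
      have hsub : ((Tc.filter fun t => t ∈ al j).card : ℝ) ≤
          (((al j).filter fun t => InSheet (L t) e' c' w' q' a' (z00 + j * ρ') ρ').card : ℝ) := by
        refine Nat.cast_le.2 (card_le_card fun t ht => ?_)
        rw [mem_filter] at ht ⊢
        refine ⟨ht.2, ?_⟩
        have ht1 := ht.1
        rw [hTc, mem_filter] at ht1
        obtain ⟨g1, g2⟩ := code_close (by positivity) hw ht1.2
        exact hin' _ (hin t ht1.1) g1 g2
      refine hsub.trans (hd.trans ?_)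
      have q2 : 0 < w' 2 := by
        by_contra hneg
        rw [not_lt] at hneg
        have := mul_nonpos_of_nonneg_of_nonpos hn0'.le hneg
        linarith
      have q1 : 0 < w' 1 := by
        by_contra hneg
        rw [not_lt] at hneg
        have := mul_nonpos_of_nonneg_of_nonpos hn0'.le hneg
        linarith
      have qa : 0 < a' := pa.trans_le ha1
      have hRR : R' a' (w' 2) (w' 1) ≤ R a (w 2) (w 1) := by
        refine hR _ _ _ ⟨ha1, ?_⟩ ⟨hw2, ?_⟩ ⟨hw1', ?_⟩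
        · exact ha2.trans (mul_le_mul_of_nonneg_right hn3 pa.le)
        · exact hw2'.trans (mul_le_mul_of_nonneg_right hn3 q2.le)
        · exact hw1''.trans (mul_le_mul_of_nonneg_right hn3 q1.le)
      rw [hX]
      refine mul_le_mul_of_nonneg_left ?_ hD
      calc a' * w' 2 * w' 1 * R' a' (w' 2) (w' 1) ≤ a' * w' 2 * w' 1 * R a (w 2) (w 1) := by
            gcongr
        _ ≤ (n * a) * w 2 * w 1 * R a (w 2) (w 1) := by gcongr
    -- every line of the fibre has a good alive cell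
    have hgood : ∀ t ∈ Tc, ∃ j ∈ G, t ∈ al j := by
      intro t ht
      by_contra hno
      push Not at hno
      have htT : t ∈ T := (mem_filter.1 ht).1
      have h1 := hal t htT
      have h2 := near_card (z00 := z00) (zb := zb) hρ' (2 ^ 8)
        ((Finset.range (2 ^ h)).filter fun j => t ∈ al j) (fun j hj => by
          rw [mem_filter] at hj
          by_contra h3
          rw [not_lt] at h3
          exact hno j (by rw [hG, mem_filter]; exact ⟨hj.1, h3⟩) hj.2)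
      have h3 := h1.trans h2
      norm_num at h3
    have hcov : Tc ⊆ G.biUnion fun j => Tc.filter fun t => t ∈ al j := by
      intro t ht
      obtain ⟨j, hj, htj⟩ := hgood t ht
      exact mem_biUnion.2 ⟨j, hj, mem_filter.2 ⟨ht, htj⟩⟩
    have h4 : (Tc.card : ℝ) ≤ ∑ j ∈ G, ((Tc.filter fun t => t ∈ al j).card : ℝ) := by
      have := (card_le_card hcov).trans card_biUnion_le
      exact_mod_cast this
    have h5 : ∑ j ∈ G, ((Tc.filter fun t => t ∈ al j).card : ℝ) ≤ G.card * X := by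
      have := Finset.sum_le_card_nsmul G (fun j => ((Tc.filter fun t => t ∈ al j).card : ℝ)) X hcell
      rwa [nsmul_eq_mul] at this
    have h6 : (G.card : ℝ) ≤ 2 ^ h := by
      have : G.card ≤ 2 ^ h := by
        rw [hG]
        refine (card_filter_le _ _).trans ?_
        rw [card_range]
      exact_mod_cast this
    exact h4.trans (h5.trans (mul_le_mul_of_nonneg_right h6 hX0))
  -- sum over the codes
  have hsum : (T.card : ℝ) ≤ ((2 * n + 1) ^ 6 : ℕ) * (2 ^ h * X) := by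
    have h1 : T.card = ∑ b ∈ T.image fun t => code e c w (1 / n) z0 (z0 + ρ) (L t),
        (T.filter fun t => code e c w (1 / n) z0 (z0 + ρ) (L t) = b).card :=
      card_eq_sum_card_image _ T
    have h2 : ((T.image fun t => code e c w (1 / n) z0 (z0 + ρ) (L t)).card : ℝ) ≤
        ((2 * n + 1) ^ 6 : ℕ) := by
      rw [← code_card n]
      refine Nat.cast_le.2 (card_le_card fun b hb => ?_)
      obtain ⟨t, ht, rfl⟩ := mem_image.1 hb
      exact code_mem hρ.le hn0 hw (hin t ht)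
    rw [h1]
    push_cast
    have h3 : ∑ b ∈ T.image fun t => code e c w (1 / n) z0 (z0 + ρ) (L t),
        ((T.filter fun t => code e c w (1 / n) z0 (z0 + ρ) (L t) = b).card : ℝ) ≤
        (T.image fun t => code e c w (1 / n) z0 (z0 + ρ) (L t)).card * (2 ^ h * X) := by
      have := Finset.sum_le_card_nsmul (T.image fun t => code e c w (1 / n) z0 (z0 + ρ) (L t))
        (fun b => ((T.filter fun t => code e c w (1 / n) z0 (z0 + ρ) (L t) = b).card : ℝ))
        (2 ^ h * X) (fun b hb => by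
          obtain ⟨y, hy, rfl⟩ := mem_image.1 hb
          exact hfib y hy)
      rwa [nsmul_eq_mul] at this
    refine h3.trans ?_
    have : (0:ℝ) ≤ 2 ^ h * X := by positivity
    have := mul_le_mul_of_nonneg_right h2 this
    push_cast at this
    exact this
  refine hsum.trans ?_
  have hn4 : (((2 * n + 1) ^ 6 : ℕ) : ℝ) ≤ 2 ^ (6 * (N + 2)) := by
    push_cast
    rw [mul_comm 6, pow_mul]
    refine pow_le_pow_left₀ (by positivity) ?_ 6
    have e1 : (2:ℝ) ^ (N + 2) = 4 * n := by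
      rw [← hnr, pow_add]; ring
    rw [e1]
    have : (1:ℝ) ≤ n := by exact_mod_cast hn0
    linarith
  have hfin : (2:ℝ) ^ (6 * (N + 2)) * (2 ^ h * n) ≤ 2 ^ ((7 * p + 1) * (M + h + 10)) := by
    rw [← hnr, ← pow_add, ← pow_add]
    refine pow_le_pow_right₀ (by norm_num) ?_
    have e1 : (7 * p + 1) * (M + h + 10) = 7 * (p * (M + h)) + 70 * p + (M + h + 10) := by ring
    rw [e1]
    omega
  have hW : 0 ≤ D * (a * w 2 * w 1 * R a (w 2) (w 1)) := by positivity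
  calc (((2 * n + 1) ^ 6 : ℕ) : ℝ) * (2 ^ h * X)
      ≤ 2 ^ (6 * (N + 2)) * (2 ^ h * X) := by gcongr
    _ = (2 ^ (6 * (N + 2)) * (2 ^ h * n)) * (D * (a * w 2 * w 1 * R a (w 2) (w 1))) := by
        rw [hX]; ring
    _ ≤ 2 ^ ((7 * p + 1) * (M + h + 10)) * (D * (a * w 2 * w 1 * R a (w 2) (w 1))) := by gcongr
    _ = _ := by ring

end

end Crest.Agent.R136.UB289
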