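import Crest.Agent.R136.UB3_861
import Crest.Agent.R136.UB4_289

/-!
# R136 (S0187): (UB) for the class ShN: the one-sheet lemma in the form of `UB4_289` (helper861)
-/

set_option autoImplicit false

namespace Crest.Agent.R136.UB861

open Sh605

/-- the one-sheet lemma for the class `ShN` -/
theorem ubOneC : UB289.UbOneG ShN 24 4 := by
  intro e c w q a z0 ρ r0 S hr hρ L lam Z0 hL hl hl' h0 h1 y hy
  exact ub_oneC S hr hρ hL hl hl' h0 h1 hy

end Crest.Agent.R136.UB861
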