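import Crest.Agent.R136.Tq1_879
import Crest.Agent.R136.Rnd2_289
import Crest.Agent.R136.UB4_861

/-!
# R136, block U4 (pure penalty): boundedness of the gap of the class `TT36` (helper792)

`bdd36` : for every reward with `B l ≤ Ψ l x` in the range `|x j| ≤ C1 l` the gap of all full
configurations with room is at most `C1 - B`.  Input: `UBgG ShN` (289, 861) with general index type,
test sets are rounded down to dyadic widths by `rnd_C` (289).
-/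

set_option autoImplicit false
set_option linter.unusedVariables false

open Finset

namespace Crest.Agent.R136.Bd792

open Crest.Agent.R116.Xa794 (TS)
open Crest.Agent.R116.Xc794
open Crest.Agent.R138.Mk163 (zc zl rho alive own)
open Crest.Agent.R138.MkRef627 (mem_alive)
open Crest.Agent.R136.KF879 Crest.Agent.R136.Tq879
open Sh605 K4 UB289 Sh321 Rnd289

noncomputable section

/-- nested cells -/
theorem zc_eq {i j : ℕ} (h : i ≤ j) (z : ℝ) : zc i z = zc j z / 2 ^ (j - i) := by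
  have h1 : (zc i z : ℤ) = zc j z / ((2 ^ (j - i) : ℕ) : ℤ) := by
    unfold zc
    rw [← Int.floor_div_natCast]
    congr 1
    push_cast
    have e : (2 : ℝ) ^ j = 2 ^ i * 2 ^ (j - i) := by rw [← pow_add, Nat.add_sub_cancel' h]
    rw [e]
    field_simp
  rw [h1]
  push_cast
  rfl

theorem mem_own {I : Finset (ℕ × ℝ)} {i j : ℕ} {x : ℕ × ℝ} {c : ℤ} :
    c ∈ own I i j x ↔ ∃ y ∈ I, y.1 = x.1 ∧ zc i y.2 = zc i x.2 ∧ zc j y.2 = c := by
  unfold own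
  simp only [Finset.mem_image, Finset.mem_filter, and_assoc]

open Classical in
/-- own counts over a middle level -/
theorem own_mid {I : Finset (ℕ × ℝ)} {i m j : ℕ} (hmj : m ≤ j) (x : ℕ × ℝ) :
    (own I i j x).card ≤ 2 ^ (j - m) * (own I i m x).card := by
  refine card_le_mul_card_image_of_maps_to (f := fun c : ℤ => c / 2 ^ (j - m)) (fun c hc => ?_) _
    (fun b _ => ?_)
  · obtain ⟨y, hy, h1, h2, h3⟩ := mem_own.1 hc
    refine mem_own.2 ⟨y, hy, h1, h2, ?_⟩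
    rw [zc_eq hmj, h3]
  · have hk : (0:ℤ) < 2 ^ (j - m) := by positivity
    have hsub : ((own I i j x).filter fun c => c / 2 ^ (j - m) = b) ⊆
        Finset.Ico (b * 2 ^ (j - m)) ((b + 1) * 2 ^ (j - m)) := by
      intro c hc
      rw [mem_filter] at hc
      rw [Finset.mem_Ico, ← hc.2]
      exact ⟨Int.ediv_mul_le _ hk.ne', Int.lt_ediv_add_one_mul_self c hk⟩
    refine (card_le_card hsub).trans ?_
    rw [Int.card_Ico]
    have e : (b + 1) * 2 ^ (j - m) - b * 2 ^ (j - m) = ((2 ^ (j - m) : ℕ) : ℤ) := by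
      push_cast; ring
    rw [e, Int.toNat_natCast]

/-- an exponent between two dyadic widths -/
theorem exp_close {s α k : ℕ} {L : ℕ} (h1 : (1 / 2 : ℝ) ^ s ≤ 2 ^ L * (1 / 2 : ℝ) ^ α)
    (h2 : (1 / 2 : ℝ) ^ α ≤ 2 ^ k * (1 / 2 : ℝ) ^ s) : (α : ℤ) - s ≤ L ∧ (s : ℤ) - α ≤ k := by
  have e : ∀ n : ℕ, (1 / 2 : ℝ) ^ n = (2 ^ n)⁻¹ := fun n => by rw [one_div, inv_pow]
  rw [e, e] at h1 h2
  have ps : (0:ℝ) < 2 ^ s := by positivity
  have pα : (0:ℝ) < 2 ^ α := by positivity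
  constructor
  · have h3 : (2:ℝ) ^ α ≤ 2 ^ (L + s) := by
      rw [pow_add]
      have := mul_le_mul_of_nonneg_right h1 (mul_pos ps pα).le
      have e1 : ((2:ℝ) ^ s)⁻¹ * (2 ^ s * 2 ^ α) = 2 ^ α := by field_simp
      have e2 : (2:ℝ) ^ L * (2 ^ α)⁻¹ * (2 ^ s * 2 ^ α) = 2 ^ L * 2 ^ s := by field_simp
      rwa [e1, e2] at this
    have := (pow_le_pow_iff_right₀ (by norm_num : (1:ℝ) < 2)).1 h3
    omega
  · have h3 : (2:ℝ) ^ s ≤ 2 ^ (k + α) := by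
      rw [pow_add]
      have := mul_le_mul_of_nonneg_right h2 (mul_pos ps pα).le
      have e1 : ((2:ℝ) ^ α)⁻¹ * (2 ^ s * 2 ^ α) = 2 ^ s := by field_simp
      have e2 : (2:ℝ) ^ k * (2 ^ s)⁻¹ * (2 ^ s * 2 ^ α) = 2 ^ k * 2 ^ α := by field_simp
      rwa [e1, e2] at this
    have := (pow_le_pow_iff_right₀ (by norm_num : (1:ℝ) < 2)).1 h3
    omega

/-- a dyadic multiple of `(1/2)^α` which is at most `1` -/
theorem dy_exp {α i : ℕ} (h : (1 / 2 : ℝ) ^ α * 2 ^ i ≤ 1) :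
    (1 / 2 : ℝ) ^ α * 2 ^ i = (1 / 2 : ℝ) ^ (α - i) := by
  have e : ∀ n : ℕ, (1 / 2 : ℝ) ^ n = (2 ^ n)⁻¹ := fun n => by rw [one_div, inv_pow]
  have hi : i ≤ α := by
    rw [e, inv_mul_le_iff₀ (by positivity), mul_one] at h
    exact (pow_le_pow_iff_right₀ (by norm_num : (1:ℝ) < 2)).1 h
  rw [e, e]
  have h1 : (2:ℝ) ^ α = 2 ^ (α - i) * 2 ^ i := by rw [← pow_add]; congr 1; omega
  rw [h1]
  field_simp

open Classical in
/-- the count of one (arbitrary) sheet of the test level -/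
theorem test_le {r : ℝ} (hr : 0 < r) {Ψ : ℝ → (Fin 3 → ℝ) → ℝ} {F : Cfg Ln4 (Fin 3) Plk4} {h : ℕ}
    (hO : OkH (TS36 r) Ψ h F) {r1 : ℝ} (hr1 : r1 = (1 / 2 : ℝ) ^ (F.a 0)) (hrr : r ≤ r1)
    {L : ℕ} {X D : ℝ} (hD : 0 < D) (hDD : F.D0 ≤ D)
    (hX : ∀ x : Fin 3 → ℝ, (∀ j, |x j| ≤ L + 3 + F.M) → (2:ℝ) ^ (-(Ψ F.M x)) ≤ X)
    {K : Plk4} (hK : LegN F.m r1 1 K)
    (ha : (1 / 2 : ℝ) ^ (F.a 0) ≤ K.a ∧ K.a ≤ 2 ^ L * (1 / 2 : ℝ) ^ (F.a 0))
    (h2 : K.w 2 ≤ (1 / 2 : ℝ) ^ (F.a 2) ∧ (1 / 2 : ℝ) ^ (F.a 2) ≤ 2 ^ L * K.w 2)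
    (h1 : K.w 1 ≤ (1 / 2 : ℝ) ^ (F.a 1) ∧ (1 / 2 : ℝ) ^ (F.a 1) ≤ 2 ^ L * K.w 1)
    (T : Finset ℕ) (hT : ∀ t ∈ T, t ∈ alive F.I F.m K.j ∧ (∀ k, |(F.L t).v k| ≤ 1) ∧
      InSheet (F.L t) K.e K.c K.w K.q K.a (zl F.m K.j) (rho F.m)) :
    (T.card : ℝ) ≤ D * (K.a * K.w 2 * K.w 1 * (17 ^ 9 * X)) := by
  have hr1' : 0 < r1 := hr.trans_le hrr
  obtain ⟨c', w', q', a', i, j, k, hS, ea, e2, e1, ba, b2, b1, -, -, hc⟩ :=
    rnd_C (LegN.toC (Λ := 1) hr1' hK).1 hr1' (by positivity) F.L T (fun t ht => (hT t ht).2.2)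
  obtain ⟨pa, p0, p2, p1⟩ := hS.pos hr1'
  have hw1 : w' 1 ≤ 1 := b1.1.trans (hK.2.trans (by
    rw [div_le_one (by positivity)]; exact one_le_pow₀ (by norm_num)))
  have hw21 : w' 2 ≤ w' 1 := hS.toN.w_le
  have hwa2 : a' ≤ w' 2 := hS.toN.a_le
  rw [hr1] at ea e2 e1
  have ea' : a' = (1 / 2 : ℝ) ^ (F.a 0 - i) := ea.trans (dy_exp (by rw [← ea]; linarith))
  have e2' : w' 2 = (1 / 2 : ℝ) ^ (F.a 0 - j) := e2.trans (dy_exp (by rw [← e2]; linarith))
  have e1' : w' 1 = (1 / 2 : ℝ) ^ (F.a 0 - k) := e1.trans (dy_exp (by rw [← e1]; linarith))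
  set K' : Plk4 := ⟨K.j, K.e, c', w', q', a'⟩ with hK'
  set s : Fin 3 → ℕ := ![F.a 0 - i, F.a 0 - k, F.a 0 - j] with hs
  have hadm : (TS36 r).adm F.m K.j (s, K') := by
    refine ⟨?_, ?_, ?_⟩
    · have h3 := hS.toN
      exact ⟨h3.ortho, h3.isQ, h3.a_le0, h3.w0_le, h3.w_le, hrr.trans h3.r0_le, h3.st0, h3.sl1,
        h3.sl2⟩
    · exact b1.1.trans hK.2
    · intro l
      fin_cases l
      · exact ea'
      · exact e1'
      · exact e2'
  have hup := hO.up K.j (s, K') hadm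
  have hsub : ((T.filter fun t => InSheet (F.L t) K.e c' w' q' a' (zl F.m K.j) (rho F.m)).card : ℝ)
      ≤ (((alive F.I F.m K.j).filter fun t => (TS36 r).mem F.m K.j (s, K') (F.L t)).card : ℝ) := by
    refine Nat.cast_le.2 (card_le_card fun t ht => ?_)
    rw [mem_filter] at ht ⊢
    exact ⟨(hT t ht.1).1, ht.2, (hT t ht.1).2.1⟩
  -- the relative exponents
  have hrel : (2:ℝ) ^ (-(Ψ (((F.m + F.M : ℕ) : ℝ) - (F.m : ℕ)) (rel F.m s (F.m + F.M) F.a))) ≤ X := by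
    have e : ((F.m + F.M : ℕ) : ℝ) - (F.m : ℕ) = (F.M : ℝ) := by push_cast; ring
    rw [e]
    refine hX _ (fun l => ?_)
    have key : ∀ σ α : ℕ, (α : ℤ) - σ ≤ L → (σ : ℤ) - α ≤ L + 3 →
        |((σ : ℝ) - F.m) - ((α : ℝ) - ((F.m + F.M : ℕ) : ℝ))| ≤ L + 3 + F.M := by
      intro σ α g1 g2
      have g1' : (α : ℝ) - σ ≤ L := by exact_mod_cast g1
      have g2' : (σ : ℝ) - α ≤ L + 3 := by exact_mod_cast g2
      have hM0 : (0:ℝ) ≤ F.M := Nat.cast_nonneg _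
      rw [abs_le]; push_cast
      constructor <;> linarith
    fin_cases l
    · obtain ⟨g1, g2⟩ := exp_close (s := F.a 0 - i) (α := F.a 0) (k := 1) (L := L)
        (by rw [← ea']; exact ba.1.trans ha.2)
        (by rw [← ea', pow_one]; exact ha.1.trans ba.2)
      exact key (F.a 0 - i) (F.a 0) g1 (by omega)
    · obtain ⟨g1, g2⟩ := exp_close (s := F.a 0 - k) (α := F.a 1) (k := L + 3) (L := 0)
        (by rw [← e1', pow_zero, one_mul]; exact b1.1.trans h1.1)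
        (by
          rw [← e1', pow_add, mul_assoc]
          exact h1.2.trans (mul_le_mul_of_nonneg_left (b1.2.trans (by norm_num)) (by positivity)))
      exact key (F.a 0 - k) (F.a 1) (by omega) (by omega)
    · obtain ⟨g1, g2⟩ := exp_close (s := F.a 0 - j) (α := F.a 2) (k := L + 2) (L := 0)
        (by rw [← e2', pow_zero, one_mul]; exact b2.1.trans h2.1)
        (by
          rw [← e2', pow_add, mul_assoc]
          exact h2.2.trans (mul_le_mul_of_nonneg_left (b2.2.trans (by norm_num)) (by positivity)))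
      exact key (F.a 0 - j) (F.a 2) (by omega) (by omega)
  have hX0 : 0 ≤ X := le_trans (by positivity) hrel
  have hvol : (TS36 r).vol F.m s = a' * w' 2 * w' 1 := by
    have := vol_eq hadm
    exact this
  have hcap : capP (TS36 r) Ψ (F.m + F.M) F.a F.m s ≤ K.a * K.w 2 * K.w 1 * X := by
    unfold capP
    rw [hvol]
    have pK2 : 0 ≤ K.w 2 := p2.le.trans b2.1
    have pK1 : 0 ≤ K.w 1 := p1.le.trans b1.1
    have pKa : 0 ≤ K.a := pa.le.trans ba.1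
    have g1 : a' * w' 2 * w' 1 ≤ K.a * K.w 2 * K.w 1 := by
      have := ba.1; have := b2.1; have := b1.1
      gcongr
    exact mul_le_mul g1 hrel (by positivity) (mul_nonneg (mul_nonneg pKa pK2) pK1)
  have pcap : 0 ≤ capP (TS36 r) Ψ (F.m + F.M) F.a F.m s := by
    unfold capP
    have := (TS36 r).volpos F.m s
    positivity
  calc (T.card : ℝ) ≤ 17 ^ 9 *
        ((T.filter fun t => InSheet (F.L t) K.e c' w' q' a' (zl F.m K.j) (rho F.m)).card : ℝ) := hc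
    _ ≤ 17 ^ 9 * (F.D0 * capP (TS36 r) Ψ (F.m + F.M) F.a F.m s) :=
        mul_le_mul_of_nonneg_left (hsub.trans hup) (by norm_num)
    _ ≤ 17 ^ 9 * (D * (K.a * K.w 2 * K.w 1 * X)) := by
        refine mul_le_mul_of_nonneg_left ?_ (by norm_num)
        exact (mul_le_mul_of_nonneg_right hDD pcap).trans (mul_le_mul_of_nonneg_left hcap hD.le)
    _ = _ := by ring

open Classical in
/-- the count of a top class -/
theorem core {r : ℝ} (hr : 0 < r) {Ψ : ℝ → (Fin 3 → ℝ) → ℝ} {F : Cfg Ln4 (Fin 3) Plk4} {h : ℕ}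
    (hO : OkH (TS36 r) Ψ h F) (h10 : 10 ≤ h) (hnu : (2:ℝ) ^ (10 + F.M) ≤ F.nu) {X D : ℝ}
    (hD : 0 < D) (hDD : F.D0 ≤ D) (hX0 : 0 ≤ X)
    (hX : ∀ x : Fin 3 → ℝ, (∀ j, |x j| ≤ ((4 * (F.M + h + h + 10) : ℕ) : ℝ) + 3 + F.M) →
      (2:ℝ) ^ (-(Ψ F.M x)) ≤ X) :
    F.D1 ≤ 2 ^ (29 * (F.M + h + h + 10)) * D * (17 ^ 9 * X) := by
  obtain ⟨x0, hx0⟩ := hO.ne
  obtain ⟨m0, hm⟩ : ∃ m0, F.m = m0 + h := ⟨F.m - h, by have := hO.h_le; omega⟩
  have hm0 : F.m - h = m0 := by omega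
  set c0 : ℤ := zc m0 x0.2 with hc0
  set J : ℤ := zc (F.m + F.M) x0.2 with hJ
  have ht0 : x0.1 ∈ alive F.I (F.m + F.M) J := mem_alive.2 ⟨x0, hx0, rfl, rfl⟩
  obtain ⟨hmem0, hadm0, ha0⟩ := hO.top J x0.1 ht0
  have hlow := hO.low J x0.1 ht0
  obtain ⟨s0, hs0⟩ : ∃ s0, s0 = F.b (F.f x0.1 J) := ⟨_, rfl⟩
  rw [← hs0] at hmem0 hadm0 ha0
  obtain ⟨hSN, hS1, hSw⟩ := hadm0
  rw [ha0] at hSw
  have hwa : s0.2.a = (1 / 2 : ℝ) ^ (F.a 0) := by rw [← hSw 0]; rfl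
  have hw1 : s0.2.w 1 = (1 / 2 : ℝ) ^ (F.a 1) := by rw [← hSw 1]; rfl
  have hw2 : s0.2.w 2 = (1 / 2 : ℝ) ^ (F.a 2) := by rw [← hSw 2]; rfl
  have hrr : r ≤ (1 / 2 : ℝ) ^ (F.a 0) := hSN.r0_le.trans hwa.le
  have hr1 : (0:ℝ) < (1 / 2 : ℝ) ^ (F.a 0) := by positivity
  have hbase : ∀ x ∈ F.I, zc m0 x.2 = c0 := by
    intro x hx
    have := hO.cell x hx x0 hx0
    rw [hm0] at this
    exact this
  have hslope : ∀ i c, ∀ t ∈ alive F.I i c, ∀ k, |(F.L t).v k| ≤ 1 := by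
    intro i c t ht
    obtain ⟨x, hx, h1, h2⟩ := mem_alive.1 ht
    exact (hO.top (zc (F.m + F.M) x.2) t (mem_alive.2 ⟨x, hx, h1, rfl⟩)).1.2
  set T : Finset ℕ := (alive F.I (F.m + F.M) J).filter fun t => F.f t J = F.f x0.1 J with hT
  set al : ℕ → Finset ℕ := fun j => alive F.I F.m (c0 * 2 ^ h + j) with hal
  set N : ℝ := ((F.I.image Prod.fst).card : ℝ) with hN
  have hN0 : 0 ≤ N := Nat.cast_nonneg _
  set L : ℕ := 4 * (F.M + h + h + 10) with hL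
  let Rg : ℝ → ℝ → ℝ → Prop := fun a w2 w1 =>
    ((1 / 2 : ℝ) ^ (F.a 0) ≤ a ∧ a ≤ 2 ^ L * (1 / 2 : ℝ) ^ (F.a 0)) ∧
      (w2 ≤ (1 / 2 : ℝ) ^ (F.a 2) ∧ (1 / 2 : ℝ) ^ (F.a 2) ≤ 2 ^ L * w2) ∧
      (w1 ≤ (1 / 2 : ℝ) ^ (F.a 1) ∧ (1 / 2 : ℝ) ^ (F.a 1) ≤ 2 ^ L * w1)
  let R' : ℝ → ℝ → ℝ → ℝ := fun a w2 w1 =>
    if Rg a w2 w1 then 17 ^ 9 * X else N / (D * (a * w2 * w1))
  have hmp : (0:ℝ) < 2 ^ m0 := by positivity
  have hmain := ubgG pos_shN (κ := 24) (p := 4) (by norm_num) UB861.ubOneC (F.M + h) h h10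
    (by omega) (by omega) F.L T al ((c0:ℝ) / 2 ^ m0) (1 / 2 ^ (F.m + F.M)) (1 / 2 ^ F.m)
    ((1 / 2 : ℝ) ^ (F.a 0)) D (fun _ _ _ => 17 ^ 9 * X) R' (by positivity) hr1 hD.le
    (by
      have e : (2:ℝ) ^ (F.m + F.M) = 2 ^ F.m * 2 ^ F.M := pow_add _ _ _
      have e' : (2:ℝ) ^ (F.M + h) = 2 ^ F.M * 2 ^ h := pow_add _ _ _
      rw [e, e']; field_simp)
    (by
      intro j hj e c w q a hS hw
      have hz : (c0:ℝ) / 2 ^ m0 + j * (1 / 2 ^ F.m) = ((c0 * 2 ^ h + j : ℤ) : ℝ) / 2 ^ F.m := by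
        push_cast
        rw [hm, pow_add]
        field_simp
      rw [hz] at hS ⊢
      have hpw : ∀ i, 0 < w i := pos_shN.wpos hS hr1
      have pa : 0 < a := hr1.trans_le hS.r0_le
      have p2 := hpw 2
      have p1 := hpw 1
      by_cases hr' : Rg a (w 2) (w 1)
      · have eR : R' a (w 2) (w 1) = 17 ^ 9 * X := if_pos hr'
        rw [eR]
        exact test_le hr hO rfl hrr hD hDD hX (K := ⟨c0 * 2 ^ h + j, e, c, w, q, a⟩) ⟨hS, hw⟩
          hr'.1 hr'.2.1 hr'.2.2 _ (fun t ht => by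
            rw [mem_filter] at ht
            exact ⟨ht.1, hslope _ _ t ht.1, ht.2⟩)
      · have eR : R' a (w 2) (w 1) = N / (D * (a * w 2 * w 1)) := if_neg hr'
        rw [eR]
        have e2 : D * (a * w 2 * w 1 * (N / (D * (a * w 2 * w 1)))) = N := by field_simp
        rw [e2, hN]
        refine Nat.cast_le.2 (card_le_card fun t ht => ?_)
        rw [mem_filter] at ht
        obtain ⟨x, hx, h1, h2⟩ := mem_alive.1 ht.1
        exact mem_image.2 ⟨x, hx, h1⟩)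
    s0.2.e s0.2.c s0.2.w s0.2.q s0.2.a ((J : ℝ) / 2 ^ (F.m + F.M))
    (by
      have h1 : c0 = J / 2 ^ (F.M + h) := by
        have := zc_eq (i := m0) (j := F.m + F.M) (by omega) (z := x0.2)
        rw [hc0, this, ← hJ]
        congr 2
        omega
      have h2 : c0 * 2 ^ (F.M + h) ≤ J := by
        rw [h1]; exact Int.ediv_mul_le _ (by positivity)
      have h2' : (c0:ℝ) * 2 ^ (F.M + h) ≤ J := by exact_mod_cast h2
      rw [div_le_div_iff₀ hmp (by positivity)]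
      have e : (2:ℝ) ^ (F.m + F.M) = 2 ^ (F.M + h) * 2 ^ m0 := by
        rw [← pow_add]; congr 1; omega
      rw [e, ← mul_assoc]
      exact mul_le_mul_of_nonneg_right h2' hmp.le)
    (by
      have h1 : c0 = J / 2 ^ (F.M + h) := by
        have := zc_eq (i := m0) (j := F.m + F.M) (by omega) (z := x0.2)
        rw [hc0, this, ← hJ]
        congr 2
        omega
      have h2 : J + 1 ≤ (c0 + 1) * 2 ^ (F.M + h) := by
        rw [h1]; exact Int.lt_ediv_add_one_mul_self J (by positivity)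
      have h2' : (J:ℝ) + 1 ≤ ((c0:ℝ) + 1) * 2 ^ (F.M + h) := by exact_mod_cast h2
      have e : (2:ℝ) ^ (F.m + F.M) = 2 ^ (F.M + h) * 2 ^ m0 := by
        rw [← pow_add]; congr 1; omega
      rw [e]
      have e1 : (J:ℝ) / (2 ^ (F.M + h) * 2 ^ m0) + 1 / (2 ^ (F.M + h) * 2 ^ m0) =
          ((J:ℝ) + 1) / (2 ^ (F.M + h) * 2 ^ m0) := by ring
      have e2 : (c0:ℝ) / 2 ^ m0 + 2 ^ (F.M + h) * (1 / (2 ^ (F.M + h) * 2 ^ m0)) =
          (((c0:ℝ) + 1) * 2 ^ (F.M + h)) / (2 ^ (F.M + h) * 2 ^ m0) := by field_simp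
      rw [e1, e2]
      exact div_le_div_of_nonneg_right h2' (by positivity))
    ⟨hSN.ortho, hSN.isQ, hSN.a_le0, hSN.w0_le, hSN.w_le, hwa.ge, hSN.st0, hSN.sl1, hSN.sl2⟩ hS1
    (by
      intro t ht
      rw [hT, mem_filter] at ht
      have h1 := (hO.top J t ht.1).1
      rw [ht.2, ← hs0] at h1
      exact h1.1)
    (by
      intro t ht
      rw [hT, mem_filter] at ht
      obtain ⟨x, hx, hxt, hxJ⟩ := mem_alive.1 ht.1
      have h1 := hO.own x hx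
      rw [hm0] at h1
      have h2 := own_mid (I := F.I) (i := m0) (m := F.m) (j := F.m + F.M) (by omega) x
      have h3 : (2:ℝ) ^ 10 * 2 ^ F.M ≤ 2 ^ F.M * ((own F.I m0 F.m x).card : ℝ) := by
        rw [← pow_add]
        refine hnu.trans (h1.trans ?_)
        have : F.m + F.M - F.m = F.M := by omega
        rw [this] at h2
        exact_mod_cast h2
      have h4 : (2:ℝ) ^ 10 ≤ ((own F.I m0 F.m x).card : ℝ) := by
        rw [mul_comm] at h3
        exact le_of_mul_le_mul_left h3 (by positivity)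
      have h5 : 2 ^ 10 ≤ (own F.I m0 F.m x).card := by exact_mod_cast h4
      have h2h : (0:ℤ) < 2 ^ h := by positivity
      have hin : ∀ c ∈ own F.I m0 F.m x, c0 * 2 ^ h ≤ c ∧ c < (c0 + 1) * 2 ^ h := by
        intro c hc
        obtain ⟨y, hy, hy1, hy2, hy3⟩ := mem_own.1 hc
        have hdiv : c / 2 ^ h = c0 := by
          have := zc_eq (i := m0) (j := F.m) (by omega) (z := y.2)
          rw [hbase y hy, hy3] at this
          rw [this]
          congr 2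
          omega
        constructor
        · rw [← hdiv]; exact Int.ediv_mul_le _ h2h.ne'
        · rw [← hdiv]; exact Int.lt_ediv_add_one_mul_self c h2h
      refine h5.trans (card_le_card_of_injOn (fun c => (c - c0 * 2 ^ h).toNat)
        (fun c hc => ?_) (fun c hc c' hc' hcc => ?_))
      · rw [Finset.mem_coe] at hc
        obtain ⟨g1, g2⟩ := hin c hc
        obtain ⟨y, hy, hy1, hy2, hy3⟩ := mem_own.1 hc
        have g3 : (((c - c0 * 2 ^ h).toNat : ℕ) : ℤ) = c - c0 * 2 ^ h :=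
          Int.toNat_of_nonneg (by linarith)
        simp only [Finset.mem_coe, Finset.mem_filter, Finset.mem_range]
        refine ⟨?_, ?_⟩
        · have : (((c - c0 * 2 ^ h).toNat : ℕ) : ℤ) < ((2 ^ h : ℕ) : ℤ) := by
            rw [g3]; push_cast; linarith
          exact_mod_cast this
        · show t ∈ alive F.I F.m (c0 * 2 ^ h + (((c - c0 * 2 ^ h).toNat : ℕ) : ℤ))
          refine mem_alive.2 ⟨y, hy, hy1.trans hxt, ?_⟩
          rw [hy3, g3]; ring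
      · rw [Finset.mem_coe] at hc hc'
        have g3 : (((c - c0 * 2 ^ h).toNat : ℕ) : ℤ) = c - c0 * 2 ^ h :=
          Int.toNat_of_nonneg (by linarith [(hin c hc).1])
        have g4 : (((c' - c0 * 2 ^ h).toNat : ℕ) : ℤ) = c' - c0 * 2 ^ h :=
          Int.toNat_of_nonneg (by linarith [(hin c' hc').1])
        have hcc' : (c - c0 * 2 ^ h).toNat = (c' - c0 * 2 ^ h).toNat := hcc
        rw [hcc'] at g3
        linarith)
    (by positivity)
    (by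
      intro a' w2' w1' ga g2 g1
      have e : R' a' w2' w1' = 17 ^ 9 * X := by
        refine if_pos ⟨?_, ?_, ?_⟩
        · rw [← hwa]; exact ga
        · rw [← hw2]; exact g2
        · rw [← hw1]; exact g1
      rw [e])
  have hvol : (TS36 r).vol (F.m + F.M) F.a = s0.2.a * s0.2.w 2 * s0.2.w 1 := by
    rw [hwa, hw1, hw2]
    show (1 / 2 : ℝ) ^ (F.a 0) * (1 / 2 : ℝ) ^ (F.a 1) * (1 / 2 : ℝ) ^ (F.a 2) = _
    ring
  rw [hvol] at hlow
  have pv : 0 < s0.2.a * s0.2.w 2 * s0.2.w 1 := by rw [hwa, hw1, hw2]; positivity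
  refine le_of_mul_le_mul_right (hlow.trans (hmain.trans (le_of_eq ?_))) pv
  ring

/-- **boundedness of the gap** -/
theorem bdd36 (K : ℕ) : ∃ C1 : ℝ, 0 < C1 ∧ ∀ (Ψ : ℝ → (Fin 3 → ℝ) → ℝ) (B : ℝ),
    (∀ l x, 0 ≤ l → (∀ j, |x j| ≤ C1 * l) → B * l ≤ Ψ l x) → UBH K TT36 Ψ (C1 - B) := by
  refine ⟨500, by norm_num, fun Ψ B hΨ η hη => ⟨1 / (2 * (K + 1)), by positivity, 20 * K + 1, ?_⟩⟩
  rintro T ⟨r, hr, rfl⟩ F h hO hM0 hMK hhM hlog hN hnu
  have hM1 : 1 ≤ F.M := hO.M1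
  have hM1' : (1:ℝ) ≤ F.M := by exact_mod_cast hM1
  have hh20 : 20 ≤ h := by
    by_contra hlt
    rw [not_le] at hlt
    have : K * h ≤ K * 20 := Nat.mul_le_mul_left _ hlt.le
    omega
  have hh' : (h:ℝ) ≤ F.M := by exact_mod_cast hhM
  have hh20' : (20:ℝ) ≤ h := by exact_mod_cast hh20
  have hMK' : (F.M:ℝ) ≤ K * h := by exact_mod_cast hMK
  -- own counts
  have hnu' : (2:ℝ) ^ (10 + F.M) ≤ F.nu := by
    refine le_trans ?_ hnu
    rw [← Real.rpow_natCast]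
    refine Real.rpow_le_rpow_of_exponent_le (by norm_num) ?_
    have h1 : 1 / (2 * ((K:ℝ) + 1)) * (F.M + h) ≤ h / 2 := by
      rw [div_mul_eq_mul_div, one_mul, div_le_div_iff₀ (by positivity) (by norm_num)]
      nlinarith
    push_cast
    linarith
  -- the bound
  have hX : ∀ x : Fin 3 → ℝ, (∀ j, |x j| ≤ ((4 * (F.M + h + h + 10) : ℕ) : ℝ) + 3 + F.M) →
      (2:ℝ) ^ (-(Ψ F.M x)) ≤ (2:ℝ) ^ (-(B * F.M)) := by
    intro x hx
    refine Real.rpow_le_rpow_of_exponent_le (by norm_num) (neg_le_neg ?_)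
    refine hΨ _ _ (by positivity) (fun j => (hx j).trans ?_)
    push_cast
    linarith
  have key : ∀ D : ℝ, 0 < D → F.D0 ≤ D → F.D1 ≤ (2:ℝ) ^ ((500 - B) * F.M) * D := by
    intro D hD hDD
    refine (core hr hO (by omega) hnu' hD hDD (by positivity) hX).trans ?_
    have e1 : (2:ℝ) ^ (29 * (F.M + h + h + 10)) * D * (17 ^ 9 * (2:ℝ) ^ (-(B * F.M))) =
        ((2:ℝ) ^ (29 * (F.M + h + h + 10)) * 17 ^ 9 * (2:ℝ) ^ (-(B * F.M))) * D := by ring
    rw [e1]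
    refine mul_le_mul_of_nonneg_right ?_ hD.le
    have e2 : (2:ℝ) ^ ((500 - B) * F.M) = (2:ℝ) ^ ((500:ℝ) * F.M) * (2:ℝ) ^ (-(B * F.M)) := by
      rw [← Real.rpow_add (by norm_num)]; congr 1; ring
    rw [e2]
    refine mul_le_mul_of_nonneg_right ?_ (by positivity)
    have e3 : (17:ℝ) ^ 9 ≤ 2 ^ 45 := by norm_num
    have e4 : (2:ℝ) ^ (29 * (F.M + h + h + 10)) * 17 ^ 9 ≤
        (2:ℝ) ^ (29 * (F.M + h + h + 10) + 45) := by
      rw [pow_add]
      exact mul_le_mul_of_nonneg_left e3 (by positivity)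
    refine e4.trans ?_
    rw [← Real.rpow_natCast]
    refine Real.rpow_le_rpow_of_exponent_le (by norm_num) ?_
    push_cast
    linarith
  have hfin : F.D1 ≤ (2:ℝ) ^ ((500 - B) * F.M) * F.D0 ∧ 0 < F.D0 := by
    have hD0 : 0 < F.D0 := by
      by_contra hn
      rw [not_lt] at hn
      have pD := hO.D1p
      have pX : (0:ℝ) < (2:ℝ) ^ ((500 - B) * F.M) := by positivity
      have h4 := key (F.D1 / (2 * (2:ℝ) ^ ((500 - B) * F.M))) (by positivity)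
        (hn.trans (by positivity))
      have e : (2:ℝ) ^ ((500 - B) * F.M) * (F.D1 / (2 * (2:ℝ) ^ ((500 - B) * F.M))) =
          F.D1 / 2 := by field_simp
      rw [e] at h4
      linarith
    exact ⟨key F.D0 hD0 le_rfl, hD0⟩
  refine hfin.1.trans (mul_le_mul_of_nonneg_right ?_ hfin.2.le)
  refine Real.rpow_le_rpow_of_exponent_le (by norm_num) ?_
  refine mul_le_mul_of_nonneg_right ?_ (by positivity)
  linarith

end

end Crest.Agent.R136.Bd792
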