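import Crest.Agent.R136.KDef7_879

/-!
# R136: the extremal exponent `β_C q` of the configurations of class `C` (helper879)

`VC κ C q δ` : values of the admissible configurations of class `C` (container + resolution).
* `exists_betaC` : `β_C` exists and is positive at small rewards;
* `betaC_lip`    : `β_C` is Lipschitz in the rewards (all of `ℝ³`), constant `2 ((κ + 2) C + 1)`.
-/

set_option autoImplicit false

open Filter Topology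

namespace Crest.Agent.R136.Bet879

open K4 KS879

/-- values of the admissible configurations of class `C`, error `δ` -/
def VC (κ C : ℝ) (q : Fin 3 → ℝ) (δ : ℝ) : Set ℝ :=
  {v | ∃ F : Cf7, (Ok7 LegN q F ∧ InC κ C F ∧ Adm6 δ F.toCf6 ∧ 1 / δ ≤ (F.M : ℝ)) ∧
    F.toCf4.val = v}

theorem VC_mono (κ C : ℝ) (q : Fin 3 → ℝ) : ∀ δ δ', 0 < δ → δ ≤ δ' → VC κ C q δ ⊆ VC κ C q δ' := by
  rintro δ δ' hδ hd v ⟨F, ⟨h1, h0, h2, h3⟩, rfl⟩
  exact ⟨F, ⟨h1, h0, h2.mono hd, (one_div_le_one_div_of_le hδ hd).trans h3⟩, rfl⟩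

/-- the upper bound needed for the existence of `β_C` -/
def UBC (κ C : ℝ) (q : Fin 3 → ℝ) : Prop :=
  ∃ c : ℝ, ∀ F : Cf7, Ok7 LegN q F → InC κ C F → 0 < F.D0 ∧ F.toCf4.val ≤ c

/-- **the exponents `β_C q` exist**, with positive base value -/
theorem exists_betaC (h : ¬ KS4) :
    ∃ b0 : ℝ, 0 < b0 ∧ ∀ κ C : ℝ, 0 ≤ κ → 1 ≤ C → (∀ q : Fin 3 → ℝ, UBC κ C q) →
      ∃ β : (Fin 3 → ℝ) → ℝ, ∀ q, IsBeta (VC κ C q) (β q) ∧ b0 - qs q ≤ β q := by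
  obtain ⟨b0, hb0, hen⟩ := enemy7 h clsOK7_N
  refine ⟨b0, hb0, fun κ C hκ hC hUB => ?_⟩
  have h1 : ∀ q : Fin 3 → ℝ, ∃ β : ℝ, IsBeta (VC κ C q) β ∧ b0 - qs q ≤ β := by
    intro q
    obtain ⟨c, hc⟩ := hUB q
    obtain ⟨β, h2, h3, -⟩ := exists_isBeta (V := VC κ C q) (δ0 := 1) (C := c) (c := b0 - qs q)
      one_pos (by rintro v ⟨F, ⟨hF, hI, -, -⟩, rfl⟩; exact (hc F hF hI).2) (by
        intro δ hδ
        obtain ⟨F, hF, hI, hA, hM, -, -, -, -, -, -, hv⟩ := hen q δ hδ ⌈1 / δ⌉₊ κ C hκ hC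
        exact ⟨_, ⟨F, ⟨hF, hI, hA, (Nat.le_ceil _).trans (by exact_mod_cast hM)⟩, rfl⟩, hv⟩)
    exact ⟨β, h2, h3⟩
  choose β hβ using h1
  exact ⟨β, hβ⟩

/-- **`β_C` is Lipschitz in the rewards.** -/
theorem betaC_lip {κ C : ℝ} (hκC : 0 ≤ (κ + 2) * C) {q q' : Fin 3 → ℝ} (hUB : UBC κ C q)
    (hUB' : UBC κ C q') {β β' : ℝ} (h : IsBeta (VC κ C q) β) (h' : IsBeta (VC κ C q') β') :
    |β - β'| ≤ 2 * (((κ + 2) * C + 1) * dq q q') := by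
  have key : ∀ {q q' : Fin 3 → ℝ}, UBC κ C q → ∀ {β β' : ℝ}, IsBeta (VC κ C q) β →
      IsBeta (VC κ C q') β' → β ≤ β' + 2 * (((κ + 2) * C + 1) * dq q q') := by
    intro q q' hUB β β' h h'
    refine h.le_add h' (fun ε hε δ hδ => ⟨δ, hδ, ?_⟩)
    rintro v ⟨F, ⟨hF, hI, hA, hM⟩, rfl⟩
    obtain ⟨c, hc⟩ := hUB
    obtain ⟨D0, D1, -, h2, h3, h4⟩ := lip7 (q' := q') legPos_N hF hI hκC (hc F hF hI).1
    refine ⟨(F.setD D0 D1).toCf4.val, ⟨F.setD D0 D1, ⟨h2, h3, ?_, hM⟩, rfl⟩, by linarith⟩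
    exact ⟨hA.hle, hA.size, hA.res, hA.slope, hA.vel⟩
  have k1 := key hUB h h'
  have k2 := key hUB' h' h
  have e : dq q' q = dq q q' := by
    unfold dq
    exact Finset.sum_congr rfl fun k _ => abs_sub_comm _ _
  rw [e] at k2
  rw [abs_le]
  constructor <;> linarith

/-- near-extremal sequences of configurations of class `C` -/
theorem exists_seq_Cf7 {κ C : ℝ} {q : Fin 3 → ℝ} {β : ℝ} (h : IsBeta (VC κ C q) β) :
    ∃ F : ℕ → Cf7, (∀ n, Ok7 LegN q (F n)) ∧ (∀ n, InC κ C (F n)) ∧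
      (∀ n : ℕ, Adm6 (1 / ((n:ℝ) + 1)) (F n).toCf6) ∧
      (∀ n : ℕ, (n:ℝ) + 1 ≤ ((F n).M : ℝ)) ∧
      Tendsto (fun n => (F n).toCf4.val) atTop (𝓝 β) := by
  obtain ⟨F, hF, ht⟩ := h.exists_seq (α := Cf7) (val := fun F => F.toCf4.val)
    (P := fun δ F => Ok7 LegN q F ∧ InC κ C F ∧ Adm6 δ F.toCf6 ∧ 1 / δ ≤ (F.M : ℝ))
    (fun δ => rfl) (VC_mono κ C q)
  refine ⟨F, fun n => (hF n).1, fun n => (hF n).2.1, fun n => (hF n).2.2.1, fun n => ?_, ht⟩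
  have := (hF n).2.2.2
  rwa [one_div_one_div] at this

/-- **end of the interval of rewards** -/
theorem betaC_end {κ C β Q C0 : ℝ} (hQ0 : 0 ≤ Q) (hQ : C0 ≤ Q)
    (hw : ∀ F : Cf7, Ok7 LegN ![0, Q, 0] F → InC κ C F →
      F.toCf4.val ≤ C0 * (1 + F.h / F.M) - Q * (1 - F.h / F.M))
    (h : IsBeta (VC κ C ![0, Q, 0]) β) : β ≤ 0 := by
  refine h.le_of fun ε hε => ?_
  have hp : 0 < |C0| + Q + 1 := by positivity
  refine ⟨ε / (|C0| + Q + 1), by positivity, ?_⟩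
  rintro v ⟨F, ⟨hF, hI, hA, hM⟩, rfl⟩
  have h1 := hw F hF hI
  have hM0 : (0:ℝ) < F.M := by exact_mod_cast hF.ok.M1
  have h2 : (F.h : ℝ) / F.M ≤ ε / (|C0| + Q + 1) := by
    rw [div_le_iff₀ hM0]; exact hA.hle
  have h3 : (0:ℝ) ≤ (F.h : ℝ) / F.M := by positivity
  set t : ℝ := (F.h : ℝ) / F.M with ht
  have h4 : C0 * t ≤ |C0| * t := mul_le_mul_of_nonneg_right (le_abs_self _) h3
  have h5 : (|C0| + Q + 1) * t ≤ ε := by
    have := mul_le_mul_of_nonneg_left h2 hp.le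
    rwa [mul_div_cancel₀ _ hp.ne'] at this
  nlinarith

end Crest.Agent.R136.Bet879
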