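import Crest.Agent.R136.Val7_879

/-!
# R136: the extremal exponent of a class `P` of configurations, class of sheets `Leg` (helper879)

`VP Leg P q δ` : values of the admissible configurations in `P` (any predicate on `Cf7`).
* `exists_betaP` : existence from a uniform upper bound (at error `1/2`) and an enemy;
* `betaP_lip`    : Lipschitz if the members of `P` have range `≤ R`;
* `exists_seqP`  : near-extremal sequences;
* `ubP_of`       : the upper bound from the one-sheet lemma for the classes `InC κ C`.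
-/

set_option autoImplicit false

open Filter Topology

namespace Crest.Agent.R136.Bet879

open K4 KS879 En879 Val289 Val7

/-- values of the admissible configurations in `P`, error `δ` -/
def VP (Leg : ℕ → ℝ → ℝ → Plk4 → Prop) (P : Cf7 → Prop) (q : Fin 3 → ℝ) (δ : ℝ) : Set ℝ :=
  {v | ∃ F : Cf7, (Ok7 Leg q F ∧ P F ∧ Adm6 δ F.toCf6 ∧ 1 / δ ≤ (F.M : ℝ)) ∧
    F.toCf4.val = v}

variable {Leg : ℕ → ℝ → ℝ → Plk4 → Prop} {P : Cf7 → Prop}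

theorem VP_mono (q : Fin 3 → ℝ) : ∀ δ δ', 0 < δ → δ ≤ δ' → VP Leg P q δ ⊆ VP Leg P q δ' := by
  rintro δ δ' hδ hd v ⟨F, ⟨h1, h0, h2, h3⟩, rfl⟩
  exact ⟨F, ⟨h1, h0, h2.mono hd, (one_div_le_one_div_of_le hδ hd).trans h3⟩, rfl⟩

/-- the upper bound needed for the existence of `β` -/
def UBP (Leg : ℕ → ℝ → ℝ → Plk4 → Prop) (P : Cf7 → Prop) (q : Fin 3 → ℝ) : Prop :=
  ∃ c : ℝ, ∀ F : Cf7, Ok7 Leg q F → P F → 2 * F.h ≤ F.M → 0 < F.D0 ∧ F.toCf4.val ≤ c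

theorem half_of_adm {δ : ℝ} {F : Cf6} (h : Adm6 δ F) (hδ : δ ≤ 1 / 2) : 2 * F.h ≤ F.M := by
  have h1 := h.hle
  have h2 : (0:ℝ) ≤ F.M := Nat.cast_nonneg _
  have h3 : (2:ℝ) * F.h ≤ F.M := by nlinarith
  exact_mod_cast h3

theorem exists_betaP {q : Fin 3 → ℝ} {c : ℝ} (hUB : UBP Leg P q)
    (hen : ∀ δ : ℝ, 0 < δ → ∀ M0 : ℕ, ∃ F : Cf7, Ok7 Leg q F ∧ P F ∧ Adm6 δ F.toCf6 ∧
      M0 ≤ F.M ∧ c ≤ F.toCf4.val) :
    ∃ β, IsBeta (VP Leg P q) β ∧ c ≤ β := by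
  obtain ⟨C, hC⟩ := hUB
  obtain ⟨β, h2, h3, -⟩ := exists_isBeta (V := VP Leg P q) (δ0 := 1 / 2) (C := C) (c := c)
    (by norm_num)
    (by
      rintro v ⟨F, ⟨hF, hI, hA, -⟩, rfl⟩
      exact (hC F hF hI (half_of_adm hA le_rfl)).2)
    (by
      intro δ hδ
      obtain ⟨F, hF, hI, hA, hM, hv⟩ := hen δ hδ ⌈1 / δ⌉₊
      exact ⟨_, ⟨F, ⟨hF, hI, hA, (Nat.le_ceil _).trans (by exact_mod_cast hM)⟩, rfl⟩, hv⟩)
  exact ⟨β, h2, h3⟩

/-- the value is Lipschitz in the rewards, range `≤ R M` -/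
theorem lipR (hLeg : LegPos Leg) {q q' : Fin 3 → ℝ} {F : Cf7}
    (hF : Ok7 Leg q F) {R : ℝ} (hR0 : 0 ≤ R)
    (hR : ∀ k, wd F.KC k ≤ F.wr k * (2:ℝ) ^ (R * F.M)) (h0 : 0 < F.D0) :
    ∃ D0 D1 : ℝ, 0 < D0 ∧ Ok7 Leg q' (F.setD D0 D1) ∧
      F.toCf4.val - 2 * ((R + 1) * dq q q') ≤ (F.setD D0 D1).toCf4.val := by
  have hM0 : (0:ℝ) < F.M := by exact_mod_cast hF.ok.M1
  set S : Fin 3 → ℝ := fun k => F.wr k * 2 ^ F.m with hSdef
  have hS : ∀ k, 0 < S k := fun k => mul_pos (hF.wrp k) (by positivity)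
  set A : ℝ := (R + 1) * F.M with hA
  have hch : ∀ i, F.m ≤ i → i ≤ F.top → ∀ K, LegR Leg F.wr (wd F.KC) i F.r F.Λm K →
      cap5 q i K ≤ cap5 q' i K * (∏ k, S k ^ (q k - q' k)) * (2:ℝ) ^ (A * dq q q') ∧
      cap5 q' i K * (∏ k, S k ^ (q k - q' k)) * (2:ℝ) ^ (-(A * dq q q')) ≤ cap5 q i K := by
    intro i hi1 hi2 K hK
    obtain ⟨pa, p2, p1⟩ := hLeg _ _ _ _ hF.ok.r0 hK.1
    have hwp : ∀ k, 0 ≤ wd K k := fun k => (hF.wrp k).le.trans (hK.2 k).1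
    refine cap5_change hS pa p2 p1 (fun k => ?_) (fun k => ?_)
    · have e1 : (2:ℝ) ^ F.m ≤ 2 ^ i := pow_le_pow_right₀ (by norm_num) hi1
      exact mul_le_mul (hK.2 k).1 e1 (by positivity) (hwp k)
    · have e1 : (2:ℝ) ^ i ≤ 2 ^ F.m * (2:ℝ) ^ (F.M : ℝ) := by
        rw [Real.rpow_natCast, ← pow_add]
        exact pow_le_pow_right₀ (by norm_num) hi2
      calc wd K k * 2 ^ i ≤ (F.wr k * (2:ℝ) ^ (R * F.M)) *
            (2 ^ F.m * (2:ℝ) ^ (F.M : ℝ)) :=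
            mul_le_mul ((hK.2 k).2.trans (hR k)) e1 (by positivity)
              ((hwp k).trans ((hK.2 k).2.trans (hR k)))
        _ = S k * ((2:ℝ) ^ (R * F.M) * (2:ℝ) ^ (F.M : ℝ)) := by rw [hSdef]; ring
        _ = S k * (2:ℝ) ^ A := by
          rw [← Real.rpow_add (by norm_num)]; congr 2; rw [hA]; ring
  set Q : ℝ := ∏ k, S k ^ (q k - q' k) with hQ
  have hQp : 0 < Q := Finset.prod_pos fun k _ => Real.rpow_pos_of_pos (hS k) _
  set E : ℝ := (2:ℝ) ^ (A * dq q q') with hE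
  have hEp : 0 < E := by positivity
  have hEn : (2:ℝ) ^ (-(A * dq q q')) = E⁻¹ := by rw [Real.rpow_neg (by norm_num)]
  have hD1 := hF.ok.D1p
  refine ⟨F.D0 * Q * E, F.D1 * Q * E⁻¹, by positivity, ⟨?_, hF.conL, hF.con, hF.wrp⟩, ?_⟩
  · refine ⟨⟨hF.ok.M1, hF.ok.r0, hF.ok.rle, hF.ok.Λ1, hF.ok.ne, hF.ok.cell, ?_, hF.ok.legal,
      hF.ok.mem, ?_, ?_⟩, hF.ok.h20, hF.ok.hM, ?_, hF.ok.own⟩
    · show 0 < F.D1 * Q * E⁻¹
      positivity
    · intro x hx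
      show F.D1 * Q * E⁻¹ * cap5 q' F.top (F.K (F.cl (ob4 F.top x))) ≤ ((F.cls x).card : ℝ)
      have h1 := hF.ok.low x hx
      obtain ⟨-, h2⟩ := hch F.top (Nat.le_add_right _ _) le_rfl _ (hF.ok.legal x hx)
      rw [hEn] at h2
      refine le_trans ?_ h1
      calc F.D1 * Q * E⁻¹ * cap5 q' F.top (F.K (F.cl (ob4 F.top x)))
          = F.D1 * (cap5 q' F.top (F.K (F.cl (ob4 F.top x))) * Q * E⁻¹) := by ring
        _ ≤ _ := mul_le_mul_of_nonneg_left h2 hD1.le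
    · intro K hK
      show ((objs4 F.m F.I K).card : ℝ) ≤ F.D0 * Q * E * cap5 q' F.m K
      have h1 := hF.ok.up K hK
      obtain ⟨h2, -⟩ := hch F.m le_rfl (Nat.le_add_right _ _) _ hK
      calc ((objs4 F.m F.I K).card : ℝ) ≤ F.D0 * cap5 q F.m K := h1
        _ ≤ F.D0 * (cap5 q' F.m K * Q * E) := mul_le_mul_of_nonneg_left h2 h0.le
        _ = _ := by ring
    · intro i hi1 hi2 K hK
      show ((objs4 i F.I K).card : ℝ) ≤ F.D0 * Q * E * cap5 q' i K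
      have h1 := hF.ok.ups i hi1 hi2 K hK
      have hi3 : i ≤ F.top := by
        have := hF.ok.hM
        have hi2' : i ≤ F.m + F.h := hi2
        unfold Cf4.top
        omega
      obtain ⟨h2, -⟩ := hch i hi1 hi3 _ hK
      calc ((objs4 i F.I K).card : ℝ) ≤ F.D0 * cap5 q i K := h1
        _ ≤ F.D0 * (cap5 q' i K * Q * E) := mul_le_mul_of_nonneg_left h2 h0.le
        _ = _ := by ring
  · show Real.logb 2 (F.D1 / F.D0) / F.M - 2 * ((R + 1) * dq q q') ≤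
      Real.logb 2 ((F.D1 * Q * E⁻¹) / (F.D0 * Q * E)) / F.M
    have e1 : (F.D1 * Q * E⁻¹) / (F.D0 * Q * E) = (F.D1 / F.D0) * (E⁻¹ * E⁻¹) := by
      field_simp
    have e2 : Real.logb 2 (E⁻¹ * E⁻¹) = -(2 * (A * dq q q')) := by
      rw [← hEn, ← Real.rpow_add (by norm_num), Real.logb_rpow (by norm_num) (by norm_num)]
      ring
    rw [e1, Real.logb_mul (by positivity) (by positivity), e2, hA, add_div]
    have e3 : -(2 * (((R + 1) * F.M) * dq q q')) / (F.M : ℝ) = -(2 * ((R + 1) * dq q q')) := by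
      field_simp
    rw [e3]
    linarith

/-- **`β` is Lipschitz in the rewards.** -/
theorem betaP_lip (hLeg : LegPos Leg) {R : ℝ} (hR0 : 0 ≤ R)
    (hR : ∀ F, P F → ∀ k, wd F.KC k ≤ F.wr k * (2:ℝ) ^ (R * F.M))
    (hPD : ∀ F D0 D1, P F → P (F.setD D0 D1)) {q q' : Fin 3 → ℝ} (hUB : UBP Leg P q)
    (hUB' : UBP Leg P q') {β β' : ℝ} (h : IsBeta (VP Leg P q) β)
    (h' : IsBeta (VP Leg P q') β') : |β - β'| ≤ 2 * ((R + 1) * dq q q') := by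
  have key : ∀ {q q' : Fin 3 → ℝ}, UBP Leg P q → ∀ {β β' : ℝ}, IsBeta (VP Leg P q) β →
      IsBeta (VP Leg P q') β' → β ≤ β' + 2 * ((R + 1) * dq q q') := by
    intro q q' hUB β β' h h'
    refine h.le_add h' (fun ε hε δ hδ => ⟨min δ (1 / 2), by positivity, ?_⟩)
    rintro v ⟨F, ⟨hF, hI, hA, hM⟩, rfl⟩
    obtain ⟨c, hc⟩ := hUB
    have h0 := (hc F hF hI (half_of_adm hA (min_le_right _ _))).1
    obtain ⟨D0, D1, -, h2, h4⟩ := lipR (q' := q') hLeg hF hR0 (hR F hI) h0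
    have hA' := hA.mono (min_le_left δ (1 / 2))
    refine ⟨(F.setD D0 D1).toCf4.val, ⟨F.setD D0 D1, ⟨h2, hPD F D0 D1 hI, ?_, ?_⟩, rfl⟩,
      by linarith⟩
    · exact ⟨hA'.hle, hA'.size, hA'.res, hA'.slope, hA'.vel⟩
    · exact (one_div_le_one_div_of_le (by positivity) (min_le_left _ _)).trans hM
  have k1 := key hUB h h'
  have k2 := key hUB' h' h
  have e : dq q' q = dq q q' := by
    unfold dq
    exact Finset.sum_congr rfl fun k _ => abs_sub_comm _ _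
  rw [e] at k2
  rw [abs_le]
  constructor <;> linarith

/-- near-extremal sequences -/
theorem exists_seqP {q : Fin 3 → ℝ} {β : ℝ} (h : IsBeta (VP Leg P q) β) :
    ∃ F : ℕ → Cf7, (∀ n, Ok7 Leg q (F n)) ∧ (∀ n, P (F n)) ∧
      (∀ n : ℕ, Adm6 (1 / ((n:ℝ) + 1)) (F n).toCf6) ∧
      (∀ n : ℕ, (n:ℝ) + 1 ≤ ((F n).M : ℝ)) ∧
      Tendsto (fun n => (F n).toCf4.val) atTop (𝓝 β) := by
  obtain ⟨F, hF, ht⟩ := h.exists_seq (α := Cf7) (val := fun F => F.toCf4.val)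
    (P := fun δ F => Ok7 Leg q F ∧ P F ∧ Adm6 δ F.toCf6 ∧ 1 / δ ≤ (F.M : ℝ))
    (fun δ => rfl) (VP_mono q)
  refine ⟨F, fun n => (hF n).1, fun n => (hF n).2.1, fun n => (hF n).2.2.1, fun n => ?_, ht⟩
  have := (hF n).2.2.2
  rwa [one_div_one_div] at this

/-- the upper bound for the classes `InC κ C`, `7 ≤ κ C` -/
theorem ubP_of {Cl : UB289.Cls} (hL : LegOf Cl Leg)
    (hA2 : ∀ m r Λ K, Leg m r Λ K → K.a ≤ K.w 2) {κ0 p : ℕ} (hκ0 : κ0 ≤ 17 * p) (hp : p ≤ 4)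
    (hone : UB289.UbOneG Cl κ0 p) {κ C : ℝ} (hκC : 7 ≤ κ * C) (hP : ∀ F, P F → InC κ C F)
    (q : Fin 3 → ℝ) : UBP Leg P q :=
  ⟨_, fun _ hF hPF hh => val_le7C hL hA2 (UB289.ubgG hL.pos hκ0 hone) (by norm_num) hp hF
    (hP _ hPF) hκC hh⟩

/-- **end of the interval of rewards** -/
theorem betaP_end {Cl : UB289.Cls} (hL : LegOf Cl Leg)
    (hA2 : ∀ m r Λ K, Leg m r Λ K → K.a ≤ K.w 2) {κ0 p : ℕ} (hκ0 : κ0 ≤ 17 * p) (hp : p ≤ 4)
    (hone : UB289.UbOneG Cl κ0 p) {κ C : ℝ} (hκC : 7 ≤ κ * C) (hP : ∀ F, P F → InC κ C F)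
    {q : Fin 3 → ℝ} (hq : ∀ i, 0 ≤ q i) {β : ℝ} (h : IsBeta (VP Leg P q) β) :
    β ≤ (7 * p + 1 + p * q 0) - (q 0 + q 1 + q 2) := by
  refine h.le_of fun ε hε => ?_
  set B : ℝ := 3 / 2 * (7 * p + 1 + p * q 0) + (q 0 + q 1 + q 2) with hB
  have h0 := hq 0
  have h1 := hq 1
  have h2 := hq 2
  have hBp : 0 < B + 1 := by positivity
  refine ⟨min (1 / 2) (ε / (B + 1)), by positivity, ?_⟩
  rintro v ⟨F, ⟨hF, hPF, hA, hM⟩, rfl⟩
  have h3 := val_end7 hL hA2 (UB289.ubgG hL.pos hκ0 hone) (by norm_num) hp hF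
    (hP _ hPF) hκC (half_of_adm hA (min_le_left _ _)) hq
  push_cast at h3
  have hM0 : (0:ℝ) < F.M := by exact_mod_cast hF.ok.M1
  have h4 : (F.h : ℝ) / F.M ≤ ε / (B + 1) := by
    rw [div_le_iff₀ hM0]
    exact hA.hle.trans (mul_le_mul_of_nonneg_right (min_le_right _ _) hM0.le)
  have h5 : (0:ℝ) ≤ (F.h : ℝ) / F.M := by positivity
  set t : ℝ := (F.h : ℝ) / F.M with ht
  have h6 : B * t ≤ ε := by
    calc B * t ≤ (B + 1) * t := mul_le_mul_of_nonneg_right (by linarith) h5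
      _ ≤ (B + 1) * (ε / (B + 1)) := mul_le_mul_of_nonneg_left h4 hBp.le
      _ = ε := mul_div_cancel₀ _ hBp.ne'
  have e : (7 * (p:ℝ) + 1 + p * q 0) * (1 + 3 / 2 * t) - (q 0 + q 1 + q 2) * (1 - t) =
      (7 * p + 1 + p * q 0) - (q 0 + q 1 + q 2) + B * t := by rw [hB]; ring
  rw [e] at h3
  linarith

end Crest.Agent.R136.Bet879
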