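import Crest.Agent.R136.Val8_879
import Crest.Agent.R136.Bet8_879

/-!
# R136: the extremal exponent of a class `P` of configurations, class of sheets `Leg` (helper879)

`VQ Leg P q δ` : values of the admissible configurations in `P` (any predicate on `Cf8`).
* `exists_betaQ` : existence from a uniform upper bound (at error `1/2`) and an enemy;
* `betaQ_lip`    : Lipschitz if the members of `P` have range `≤ R`;
* `exists_seqQ`  : near-extremal sequences;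
* `ubQ_of`       : the upper bound from the one-sheet lemma for the classes `InX x C`;
* `VX Leg x C q` : the class `P(x, C)`; `exists_betaX`, `betaX_mono`, `betaX_anti`, `betaX_lip`.
-/

set_option autoImplicit false

open Filter Topology

namespace Crest.Agent.R136.Bet879

open K4 KS879 En879 Val289 Val8

/-- values of the admissible configurations in `P`, error `δ` -/
def VQ (Leg : ℕ → ℝ → ℝ → Plk4 → Prop) (P : Cf8 → Prop) (q : Fin 3 → ℝ) (δ : ℝ) : Set ℝ :=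
  {v | ∃ F : Cf8, (Ok8 Leg q F ∧ P F ∧ Adm6 δ F.toCf6 ∧ 1 / δ ≤ (F.M : ℝ)) ∧
    F.toCf4.val = v}

variable {Leg : ℕ → ℝ → ℝ → Plk4 → Prop} {P : Cf8 → Prop}

theorem VQ_mono (q : Fin 3 → ℝ) : ∀ δ δ', 0 < δ → δ ≤ δ' → VQ Leg P q δ ⊆ VQ Leg P q δ' := by
  rintro δ δ' hδ hd v ⟨F, ⟨h1, h0, h2, h3⟩, rfl⟩
  exact ⟨F, ⟨h1, h0, h2.mono hd, (one_div_le_one_div_of_le hδ hd).trans h3⟩, rfl⟩

/-- the upper bound needed for the existence of `β` -/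
def UBQ (Leg : ℕ → ℝ → ℝ → Plk4 → Prop) (P : Cf8 → Prop) (q : Fin 3 → ℝ) : Prop :=
  ∃ c : ℝ, ∀ F : Cf8, Ok8 Leg q F → P F → 2 * F.h ≤ F.M → 0 < F.D0 ∧ F.toCf4.val ≤ c

theorem exists_betaQ {q : Fin 3 → ℝ} {c : ℝ} (hUB : UBQ Leg P q)
    (hen : ∀ δ : ℝ, 0 < δ → ∀ M0 : ℕ, ∃ F : Cf8, Ok8 Leg q F ∧ P F ∧ Adm6 δ F.toCf6 ∧
      M0 ≤ F.M ∧ c ≤ F.toCf4.val) :
    ∃ β, IsBeta (VQ Leg P q) β ∧ c ≤ β := by
  obtain ⟨C, hC⟩ := hUB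
  obtain ⟨β, h2, h3, -⟩ := exists_isBeta (V := VQ Leg P q) (δ0 := 1 / 2) (C := C) (c := c)
    (by norm_num)
    (by
      rintro v ⟨F, ⟨hF, hI, hA, -⟩, rfl⟩
      exact (hC F hF hI (half_of_adm hA le_rfl)).2)
    (by
      intro δ hδ
      obtain ⟨F, hF, hI, hA, hM, hv⟩ := hen δ hδ ⌈1 / δ⌉₊
      exact ⟨_, ⟨F, ⟨hF, hI, hA, (Nat.le_ceil _).trans (by exact_mod_cast hM)⟩, rfl⟩, hv⟩)
  exact ⟨β, h2, h3⟩

/-- **`β` is Lipschitz in the rewards.** -/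
theorem betaQ_lip (hLeg : LegPos Leg) {R : ℝ} (hR0 : 0 ≤ R)
    (hR : ∀ q F, Ok8 Leg q F → P F → ∀ k, wd F.KC k ≤ F.wr k * (2:ℝ) ^ (R * F.M))
    (hPD : ∀ F D0 D1, P F → P (F.setD D0 D1)) {q q' : Fin 3 → ℝ} (hUB : UBQ Leg P q)
    (hUB' : UBQ Leg P q') {β β' : ℝ} (h : IsBeta (VQ Leg P q) β)
    (h' : IsBeta (VQ Leg P q') β') : |β - β'| ≤ 2 * ((R + 1) * dq q q') := by
  have key : ∀ {q q' : Fin 3 → ℝ}, UBQ Leg P q → ∀ {β β' : ℝ}, IsBeta (VQ Leg P q) β →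
      IsBeta (VQ Leg P q') β' → β ≤ β' + 2 * ((R + 1) * dq q q') := by
    intro q q' hUB β β' h h'
    refine h.le_add h' (fun ε hε δ hδ => ⟨min δ (1 / 2), by positivity, ?_⟩)
    rintro v ⟨F, ⟨hF, hI, hA, hM⟩, rfl⟩
    obtain ⟨c, hc⟩ := hUB
    have h0 := (hc F hF hI (half_of_adm hA (min_le_right _ _))).1
    obtain ⟨D0, D1, -, h2, h4⟩ := lip8 (q' := q') hLeg hF hR0 (hR q F hF hI) h0
    have hA' := hA.mono (min_le_left δ (1 / 2))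
    refine ⟨(F.setD D0 D1).toCf4.val, ⟨F.setD D0 D1, ⟨h2, hPD F D0 D1 hI, ?_, ?_⟩, rfl⟩,
      by linarith⟩
    · exact ⟨hA'.hle, hA'.size, hA'.res, hA'.slope, hA'.vel⟩
    · exact (one_div_le_one_div_of_le (by positivity) (min_le_left _ _)).trans hM
  have k1 := key hUB h h'
  have k2 := key hUB' h' h
  have e : dq q' q = dq q q' := by
    unfold dq
    exact Finset.sum_congr rfl fun k _ => abs_sub_comm _ _
  rw [e] at k2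
  rw [abs_le]
  constructor <;> linarith

/-- near-extremal sequences -/
theorem exists_seqQ {q : Fin 3 → ℝ} {β : ℝ} (h : IsBeta (VQ Leg P q) β) :
    ∃ F : ℕ → Cf8, (∀ n, Ok8 Leg q (F n)) ∧ (∀ n, P (F n)) ∧
      (∀ n : ℕ, Adm6 (1 / ((n:ℝ) + 1)) (F n).toCf6) ∧
      (∀ n : ℕ, (n:ℝ) + 1 ≤ ((F n).M : ℝ)) ∧
      Tendsto (fun n => (F n).toCf4.val) atTop (𝓝 β) := by
  obtain ⟨F, hF, ht⟩ := h.exists_seq (α := Cf8) (val := fun F => F.toCf4.val)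
    (P := fun δ F => Ok8 Leg q F ∧ P F ∧ Adm6 δ F.toCf6 ∧ 1 / δ ≤ (F.M : ℝ))
    (fun δ => rfl) (VQ_mono q)
  refine ⟨F, fun n => (hF n).1, fun n => (hF n).2.1, fun n => (hF n).2.2.1, fun n => ?_, ht⟩
  have := (hF n).2.2.2
  rwa [one_div_one_div] at this

/-- the upper bound for the classes `InX x C`, `7 ≤ x`, `Thk8` -/
theorem ubQ_of {Cl : UB289.Cls} (hL : LegOf Cl Leg)
    (hA2 : ∀ m r Λ K, Leg m r Λ K → K.a ≤ K.w 2) {κ0 p : ℕ} (hκ0 : κ0 ≤ 17 * p) (hp : p ≤ 4)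
    (hone : UB289.UbOneG Cl κ0 p) {x C : ℝ} (hx : 7 ≤ x) (hP : ∀ F, P F → InX x C F ∧ Thk8 F)
    (q : Fin 3 → ℝ) : UBQ Leg P q :=
  ⟨_, fun _ hF hPF hh => val_le8 hL hA2 (UB289.ubgG hL.pos hκ0 hone) (by norm_num) hp hF
    (hP _ hPF).1 (hP _ hPF).2 hx hh⟩

/-- **end of the interval of rewards** -/
theorem betaQ_end {Cl : UB289.Cls} (hL : LegOf Cl Leg)
    (hA2 : ∀ m r Λ K, Leg m r Λ K → K.a ≤ K.w 2) {κ0 p : ℕ} (hκ0 : κ0 ≤ 17 * p) (hp : p ≤ 4)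
    (hone : UB289.UbOneG Cl κ0 p) {x C : ℝ} (hx : 7 ≤ x) (hP : ∀ F, P F → InX x C F ∧ Thk8 F)
    {q : Fin 3 → ℝ} (hq : ∀ i, 0 ≤ q i) {β : ℝ} (h : IsBeta (VQ Leg P q) β) :
    β ≤ (7 * p + 1 + p * q 0) - (q 0 + q 1 + q 2) := by
  refine h.le_of fun ε hε => ?_
  set B : ℝ := 3 / 2 * (7 * p + 1 + p * q 0) + (q 0 + q 1 + q 2) with hB
  have h0 := hq 0
  have h1 := hq 1
  have h2 := hq 2
  have hBp : 0 < B + 1 := by positivity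
  refine ⟨min (1 / 2) (ε / (B + 1)), by positivity, ?_⟩
  rintro v ⟨F, ⟨hF, hPF, hA, hM⟩, rfl⟩
  have h3 := val_end8 hL hA2 (UB289.ubgG hL.pos hκ0 hone) (by norm_num) hp hF
    (hP _ hPF).1 (hP _ hPF).2 hx (half_of_adm hA (min_le_left _ _)) hq
  push_cast at h3
  have hM0 : (0:ℝ) < F.M := by exact_mod_cast hF.ok.M1
  have h4 : (F.h : ℝ) / F.M ≤ ε / (B + 1) := by
    rw [div_le_iff₀ hM0]
    exact hA.hle.trans (mul_le_mul_of_nonneg_right (min_le_right _ _) hM0.le)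
  have h5 : (0:ℝ) ≤ (F.h : ℝ) / F.M := by positivity
  set t : ℝ := (F.h : ℝ) / F.M with ht
  have h6 : B * t ≤ ε := by
    calc B * t ≤ (B + 1) * t := mul_le_mul_of_nonneg_right (by linarith) h5
      _ ≤ (B + 1) * (ε / (B + 1)) := mul_le_mul_of_nonneg_left h4 hBp.le
      _ = ε := mul_div_cancel₀ _ hBp.ne'
  have e : (7 * (p:ℝ) + 1 + p * q 0) * (1 + 3 / 2 * t) - (q 0 + q 1 + q 2) * (1 - t) =
      (7 * p + 1 + p * q 0) - (q 0 + q 1 + q 2) + B * t := by rw [hB]; ring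
  rw [e] at h3
  linarith

/-! ### the classes `P(x, C)` -/

/-- the class `P(x, C)` -/
def PX (x C : ℝ) (F : Cf8) : Prop := InX x C F ∧ Thk8 F

/-- values of the class `P(x, C)` -/
def VX (Leg : ℕ → ℝ → ℝ → Plk4 → Prop) (x C : ℝ) (q : Fin 3 → ℝ) (δ : ℝ) : Set ℝ :=
  VQ Leg (PX x C) q δ

theorem ubX {Cl : UB289.Cls} (hL : LegOf Cl Leg)
    (hA2 : ∀ m r Λ K, Leg m r Λ K → K.a ≤ K.w 2) {κ0 p : ℕ} (hκ0 : κ0 ≤ 17 * p) (hp : p ≤ 4)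
    (hone : UB289.UbOneG Cl κ0 p) {x : ℝ} (hx : 7 ≤ x) (C : ℝ) (q : Fin 3 → ℝ) :
    UBQ Leg (PX x C) q := ubQ_of hL hA2 hκ0 hp hone hx (fun _ h => h) q

/-- existence and lower bound, for all margins and containers -/
theorem exists_betaX (h : ¬ KS4) {κ : ℕ} (hcl : ClsOK7 Leg κ) :
    ∃ b0 : ℝ, 0 < b0 ∧ ∀ (q : Fin 3 → ℝ) (x C : ℝ), 0 ≤ x → 1 ≤ C → UBQ Leg (PX x C) q →
      ∃ β, IsBeta (VX Leg x C q) β ∧ b0 - qs q ≤ β := by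
  obtain ⟨b0, hb, he⟩ := enemy8 h hcl
  refine ⟨b0, hb, fun q x C hx hC hUB => exists_betaQ hUB fun δ hδ M0 => ?_⟩
  obtain ⟨F, h1, h2, h3, h4, h5, h6, h7, h8, h9, h10, h11, h12, h13⟩ := he q δ hδ M0 x C hx hC
  exact ⟨F, h1, ⟨h2, h3⟩, h4, h5, h13⟩

/-- increasing in the container -/
theorem betaX_mono {x C C' : ℝ} (hC : C ≤ C') {q : Fin 3 → ℝ} {β β' : ℝ}
    (h : IsBeta (VX Leg x C q) β) (h' : IsBeta (VX Leg x C' q) β') : β ≤ β' := by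
  have := h.le_add (c := 0) h' (fun ε hε δ hδ => ⟨δ, hδ, ?_⟩)
  · linarith
  · rintro v ⟨F, ⟨hF, hI, hA, hM⟩, rfl⟩
    exact ⟨_, ⟨F, ⟨hF, ⟨hI.1.mono_C hF hC, hI.2⟩, hA, hM⟩, rfl⟩, by linarith⟩

/-- decreasing in the margin -/
theorem betaX_anti {x x' C : ℝ} (hx' : 0 ≤ x') (hx : x' ≤ x) {q : Fin 3 → ℝ} {β β' : ℝ}
    (h : IsBeta (VX Leg x C q) β) (h' : IsBeta (VX Leg x' C q) β') : β ≤ β' := by
  have := h.le_add (c := 0) h' (fun ε hε δ hδ => ⟨δ, hδ, ?_⟩)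
  · linarith
  · rintro v ⟨F, ⟨hF, hI, hA, hM⟩, rfl⟩
    obtain ⟨wr, h1, h2, h3⟩ := hF.raise hI.1 hx' hx
    exact ⟨_, ⟨F.setWr wr, ⟨h1, ⟨h2, h3 hI.2⟩, hA, hM⟩, rfl⟩, by
      show F.toCf4.val ≤ F.toCf4.val + 0 + ε
      linarith⟩

/-- Lipschitz in the rewards -/
theorem betaX_lip (hLeg : LegPos Leg) {x C : ℝ} (hx : 0 ≤ x) (hC : 0 ≤ C)
    {q q' : Fin 3 → ℝ} (hUB : UBQ Leg (PX x C) q) (hUB' : UBQ Leg (PX x C) q') {β β' : ℝ}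
    (h : IsBeta (VX Leg x C q) β) (h' : IsBeta (VX Leg x C q') β') :
    |β - β'| ≤ 2 * ((x + 1 + C + 1) * dq q q') :=
  betaQ_lip hLeg (by linarith) (fun q F hF hP => hP.1.range hx hF)
    (fun F D0 D1 hP => ⟨⟨hP.1.con, hP.1.mar, hP.1.low⟩, hP.2⟩) hUB hUB' h h'

end Crest.Agent.R136.Bet879
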