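import Crest.Agent.R136.KDef6_879

/-!
# R136: the extremal exponent `β q` (helper879)

`IsBeta V β` : `β` is the limit of `sup (V δ)` as `δ → 0`, for a family of sets of values which
decreases with `δ`.  Existence, uniqueness, comparison, near-extremal sequences.
`VV q δ` : values of the admissible configurations of class C* with error `δ`.
-/

set_option autoImplicit false

open Filter Topology

namespace Crest.Agent.R136.Bet879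

/-- `β` is the limit of the suprema of the decreasing family `V δ`, `δ → 0` -/
structure IsBeta (V : ℝ → Set ℝ) (β : ℝ) : Prop where
  le : ∀ ε, 0 < ε → ∃ δ, 0 < δ ∧ ∀ v ∈ V δ, v ≤ β + ε
  ge : ∀ ε, 0 < ε → ∀ δ, 0 < δ → ∃ v ∈ V δ, β - ε ≤ v

theorem IsBeta.unique {V : ℝ → Set ℝ} {β β' : ℝ} (h : IsBeta V β) (h' : IsBeta V β') : β = β' := by
  have key : ∀ {β β' : ℝ}, IsBeta V β → IsBeta V β' → β ≤ β' := by
    intro β β' h h'
    refine le_of_forall_pos_le_add fun ε hε => ?_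
    obtain ⟨δ, hδ, h1⟩ := h'.le (ε / 2) (by linarith)
    obtain ⟨v, hv, h2⟩ := h.ge (ε / 2) (by linarith) δ hδ
    have := h1 v hv
    linarith
  exact le_antisymm (key h h') (key h' h)

/-- comparison of two families -/
theorem IsBeta.le_add {V V' : ℝ → Set ℝ} {β β' c : ℝ} (h : IsBeta V β) (h' : IsBeta V' β')
    (hc : ∀ ε, 0 < ε → ∀ δ', 0 < δ' → ∃ δ, 0 < δ ∧ ∀ v ∈ V δ, ∃ v' ∈ V' δ', v ≤ v' + c + ε) :
    β ≤ β' + c := by
  refine le_of_forall_pos_le_add fun ε hε => ?_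
  obtain ⟨δ', hδ', h1⟩ := h'.le (ε / 3) (by linarith)
  obtain ⟨δ, hδ, h2⟩ := hc (ε / 3) (by linarith) δ' hδ'
  obtain ⟨v, hv, h3⟩ := h.ge (ε / 3) (by linarith) δ hδ
  obtain ⟨v', hv', h4⟩ := h2 v hv
  have := h1 v' hv'
  linarith

/-- an upper bound for all values of small error bounds `β` -/
theorem IsBeta.le_of {V : ℝ → Set ℝ} {β c : ℝ} (h : IsBeta V β)
    (hc : ∀ ε, 0 < ε → ∃ δ, 0 < δ ∧ ∀ v ∈ V δ, v ≤ c + ε) : β ≤ c := by
  refine le_of_forall_pos_le_add fun ε hε => ?_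
  obtain ⟨δ, hδ, h2⟩ := hc (ε / 2) (by linarith)
  obtain ⟨v, hv, h3⟩ := h.ge (ε / 2) (by linarith) δ hδ
  have := h2 v hv
  linarith

theorem IsBeta.ge_of {V : ℝ → Set ℝ} {β c : ℝ} (h : IsBeta V β)
    (hc : ∀ δ, 0 < δ → ∃ v ∈ V δ, c ≤ v) : c ≤ β := by
  refine le_of_forall_pos_le_add fun ε hε => ?_
  obtain ⟨δ, hδ, h2⟩ := h.le ε hε
  obtain ⟨v, hv, h3⟩ := hc δ hδ
  exact h3.trans (h2 v hv)

/-- existence -/
theorem exists_isBeta {V : ℝ → Set ℝ} {δ0 C c : ℝ} (hδ0 : 0 < δ0) (hup : ∀ v ∈ V δ0, v ≤ C)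
    (hlow : ∀ δ, 0 < δ → ∃ v ∈ V δ, c ≤ v) : ∃ β, IsBeta V β ∧ c ≤ β ∧ β ≤ C := by
  set B : Set ℝ := {x | ∃ δ, 0 < δ ∧ ∀ v ∈ V δ, v ≤ x} with hB
  have hne : B.Nonempty := ⟨C, δ0, hδ0, hup⟩
  have hbd : c ∈ lowerBounds B := by
    rintro x ⟨δ, hδ, h1⟩
    obtain ⟨v, hv, h2⟩ := hlow δ hδ
    exact h2.trans (h1 v hv)
  have hbdd : BddBelow B := ⟨c, hbd⟩
  refine ⟨sInf B, ⟨?_, ?_⟩, le_csInf hne hbd, csInf_le hbdd ⟨δ0, hδ0, hup⟩⟩
  · intro ε hε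
    obtain ⟨x, ⟨δ, hδ, h1⟩, h2⟩ := exists_lt_of_csInf_lt hne (show sInf B < sInf B + ε by linarith)
    exact ⟨δ, hδ, fun v hv => (h1 v hv).trans h2.le⟩
  · intro ε hε δ hδ
    by_contra hcon
    push Not at hcon
    have : sInf B ≤ sInf B - ε := csInf_le hbdd ⟨δ, hδ, fun v hv => (hcon v hv).le⟩
    linarith

/-- near-extremal sequences, with any list of requirements `P δ` that become true for small
error -/
theorem IsBeta.exists_seq {α : Type*} {V : ℝ → Set ℝ} {β : ℝ} (h : IsBeta V β)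
    {val : α → ℝ} {P : ℝ → α → Prop} (hV : ∀ δ, V δ = {v | ∃ F, P δ F ∧ val F = v})
    (hmono : ∀ δ δ', 0 < δ → δ ≤ δ' → V δ ⊆ V δ') :
    ∃ F : ℕ → α, (∀ n : ℕ, P (1 / ((n : ℝ) + 1)) (F n)) ∧
      Tendsto (fun n => val (F n)) atTop (𝓝 β) := by
  have h1 : ∀ n : ℕ, ∃ F : α, P (1 / ((n : ℝ) + 1)) F ∧ β - 1 / ((n : ℝ) + 1) ≤ val F := by
    intro n
    obtain ⟨v, hv, h2⟩ := h.ge (1 / ((n : ℝ) + 1)) (by positivity) (1 / ((n : ℝ) + 1))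
      (by positivity)
    rw [hV] at hv
    obtain ⟨F, hF, rfl⟩ := hv
    exact ⟨F, hF, h2⟩
  choose F hF hv using h1
  refine ⟨F, hF, ?_⟩
  rw [Metric.tendsto_atTop]
  intro ε hε
  obtain ⟨δ, hδ, h2⟩ := h.le (ε / 2) (by linarith)
  obtain ⟨N, hN⟩ := exists_nat_gt (1 / (min δ (ε / 2)))
  have hmin : 0 < min δ (ε / 2) := lt_min hδ (by linarith)
  refine ⟨N, fun n hn => ?_⟩
  have hn1 : 1 / ((n : ℝ) + 1) ≤ min δ (ε / 2) := by
    have : (N : ℝ) ≤ n := by exact_mod_cast hn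
    rw [div_le_iff₀ (by positivity)]
    rw [div_lt_iff₀ hmin] at hN
    nlinarith
  have h3 : val (F n) ∈ V δ := by
    refine hmono _ _ (by positivity) (hn1.trans (min_le_left _ _)) ?_
    rw [hV]
    exact ⟨F n, hF n, rfl⟩
  have h4 := h2 _ h3
  have h5 := hv n
  have h6 := hn1.trans (min_le_right _ _)
  rw [Real.dist_eq, abs_lt]
  constructor <;> linarith

/-! ### the instance -/

open K4

/-- values of the admissible configurations of class C*, error `δ` -/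
def VV (q : Fin 3 → ℝ) (δ : ℝ) : Set ℝ :=
  {v | ∃ F : Cf6, (Ok6 LegN q F ∧ Adm6 δ F ∧ 1 / δ ≤ (F.M : ℝ)) ∧ F.toCf4.val = v}

theorem VV_mono (q : Fin 3 → ℝ) : ∀ δ δ', 0 < δ → δ ≤ δ' → VV q δ ⊆ VV q δ' := by
  rintro δ δ' hδ hd v ⟨F, ⟨h1, h2, h3⟩, rfl⟩
  exact ⟨F, ⟨h1, h2.mono hd, (one_div_le_one_div_of_le hδ hd).trans h3⟩, rfl⟩

/-- **the exponents `β q` exist** (`hUB` = 289's `val_le`), positive base value -/
theorem exists_beta (h : ¬ KS879.KS4)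
    (hUB : ∀ q : Fin 3 → ℝ, ∃ C : ℝ, ∀ F : Cf6, Ok6 LegN q F → F.toCf4.val ≤ C) :
    ∃ (b0 : ℝ) (β : (Fin 3 → ℝ) → ℝ), 0 < b0 ∧ ∀ q, IsBeta (VV q) (β q) ∧ b0 - qs q ≤ β q := by
  obtain ⟨b0, hb0, hen⟩ := enemy6 h clsOK6_N
  have h1 : ∀ q : Fin 3 → ℝ, ∃ β : ℝ, IsBeta (VV q) β ∧ b0 - qs q ≤ β := by
    intro q
    obtain ⟨C, hC⟩ := hUB q
    obtain ⟨β, h2, h3, -⟩ := exists_isBeta (V := VV q) (δ0 := 1) (C := C) (c := b0 - qs q)
      one_pos (by rintro v ⟨F, ⟨hF, -, -⟩, rfl⟩; exact hC F hF) (by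
        intro δ hδ
        obtain ⟨F, hF, hA, hM, -, -, -, -, -, -, hv⟩ := hen q δ hδ ⌈1 / δ⌉₊
        exact ⟨_, ⟨F, ⟨hF, hA, (Nat.le_ceil _).trans (by exact_mod_cast hM)⟩, rfl⟩, hv⟩)
    exact ⟨β, h2, h3⟩
  choose β hβ using h1
  exact ⟨b0, β, hb0, hβ⟩

/-- near-extremal sequences of configurations -/
theorem exists_seq_Cf6 {q : Fin 3 → ℝ} {β : ℝ} (h : IsBeta (VV q) β) :
    ∃ F : ℕ → Cf6, (∀ n, Ok6 LegN q (F n)) ∧ (∀ n : ℕ, Adm6 (1 / ((n:ℝ) + 1)) (F n)) ∧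
      (∀ n : ℕ, (n:ℝ) + 1 ≤ ((F n).M : ℝ)) ∧
      Tendsto (fun n => (F n).toCf4.val) atTop (𝓝 β) := by
  obtain ⟨F, hF, ht⟩ := h.exists_seq (α := Cf6) (val := fun F => F.toCf4.val)
    (P := fun δ F => Ok6 LegN q F ∧ Adm6 δ F ∧ 1 / δ ≤ (F.M : ℝ)) (fun δ => rfl) (VV_mono q)
  refine ⟨F, fun n => (hF n).1, fun n => (hF n).2.1, fun n => ?_, ht⟩
  have := (hF n).2.2
  rwa [one_div_one_div] at this

/-- **end of the interval of rewards** (`hw` = the refined (UB) with the wide reward) -/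
theorem beta_end {β : ℝ} {Q C0 : ℝ} (hQ0 : 0 ≤ Q) (hQ : C0 ≤ Q)
    (hw : ∀ F : Cf6, Ok6 LegN ![0, Q, 0] F →
      F.toCf4.val ≤ C0 * (1 + F.h / F.M) - Q * (1 - F.h / F.M))
    (h : IsBeta (VV ![0, Q, 0]) β) : β ≤ 0 := by
  refine h.le_of fun ε hε => ?_
  have hp : 0 < |C0| + Q + 1 := by positivity
  refine ⟨ε / (|C0| + Q + 1), by positivity, ?_⟩
  rintro v ⟨F, ⟨hF, hA, hM⟩, rfl⟩
  have h1 := hw F hF
  have hM0 : (0:ℝ) < F.M := by exact_mod_cast hF.M1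
  have h2 : (F.h : ℝ) / F.M ≤ ε / (|C0| + Q + 1) := by
    rw [div_le_iff₀ hM0]; exact hA.hle
  have h3 : (0:ℝ) ≤ (F.h : ℝ) / F.M := by positivity
  set t : ℝ := (F.h : ℝ) / F.M with ht
  have h4 : C0 * t ≤ |C0| * t := mul_le_mul_of_nonneg_right (le_abs_self _) h3
  have h5 : (|C0| + Q + 1) * t ≤ ε := by
    have := mul_le_mul_of_nonneg_left h2 hp.le
    rwa [mul_div_cancel₀ _ hp.ne'] at this
  nlinarith

end Crest.Agent.R136.Bet879
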