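import Mathlib

/-!
# Weighted dyadic pigeonholes (helper667)

The class `j` gets the weight `2 ^ (-(s j))`, so no logarithm of the number of classes is lost:

* `wpg`, `wpg_card` : one label; `wpg2`, `wpg3` : two, three labels;
* `wpg_dyadic`, `wpg_dyadic2` : labels `⌊log₂ f⌋` of real functions `f ≥ 1`;
* `end_wpg` : `Λ ^ q ≤ W ^ C`, `W ≤ K Λ ^ s`, `2 C s ≤ q` ⊢ `Λ ≤ K ^ (2 C / q)`.
-/

set_option autoImplicit false

open Finset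

namespace Crest.Agent.R136.Wpg667

/-- constant of the pigeonhole -/
noncomputable def cs (s : ℝ) : ℝ := 1 - (2 : ℝ) ^ (-s)

theorem two_neg_lt {s : ℝ} (hs : 0 < s) : (2 : ℝ) ^ (-s) < 1 :=
  Real.rpow_lt_one_of_one_lt_of_neg (by norm_num) (by linarith)

theorem cs_pos {s : ℝ} (hs : 0 < s) : 0 < cs s := by
  have := two_neg_lt hs
  unfold cs; linarith

theorem cs_le_one (s : ℝ) : cs s ≤ 1 := by
  have : (0 : ℝ) < (2 : ℝ) ^ (-s) := Real.rpow_pos_of_pos (by norm_num) _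
  unfold cs; linarith

/-- `cs s ≥ s / 2` for `s ≤ 1` -/
theorem cs_ge {s : ℝ} (h0 : 0 ≤ s) (h1 : s ≤ 1) : s / 2 ≤ cs s := by
  have h := _root_.rpow_one_add_le_one_add_mul_self (s := -(1 / 2 : ℝ)) (by norm_num) (p := s) h0 h1
  have e : (1 : ℝ) + -(1 / 2) = 2⁻¹ := by norm_num
  rw [e, Real.inv_rpow (by norm_num), ← Real.rpow_neg (by norm_num)] at h
  unfold cs; linarith

theorem weight_eq (s : ℝ) (j : ℕ) : (2 : ℝ) ^ (-(s * j)) = ((2 : ℝ) ^ (-s)) ^ j := by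
  rw [← Real.rpow_natCast ((2 : ℝ) ^ (-s)) j, ← Real.rpow_mul (by norm_num)]
  congr 1; ring

/-- the weights of finitely many classes sum to at most `1` -/
theorem sum_weights {s : ℝ} (hs : 0 < s) (N : ℕ) :
    ∑ j ∈ range N, cs s * (2 : ℝ) ^ (-(s * j)) ≤ 1 := by
  have h1 := two_neg_lt hs
  have h0 : (0 : ℝ) < (2 : ℝ) ^ (-s) := Real.rpow_pos_of_pos (by norm_num) _
  rw [← Finset.mul_sum]
  simp only [weight_eq]
  have h := mul_neg_geom_sum ((2 : ℝ) ^ (-s)) N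
  unfold cs
  rw [h]
  have : 0 < ((2 : ℝ) ^ (-s)) ^ N := pow_pos h0 N
  linarith

/-- **weighted pigeonhole** -/
theorem wpg {α : Type*} {s : ℝ} (hs : 0 < s) (P : Finset α) (w : α → ℝ)
    (hw : 0 < ∑ x ∈ P, w x) (lab : α → ℕ) :
    ∃ j, (∃ x ∈ P, lab x = j) ∧
      cs s * (2 : ℝ) ^ (-(s * j)) * ∑ x ∈ P, w x ≤ ∑ x ∈ P.filter (fun x => lab x = j), w x := by
  classical
  set S := ∑ x ∈ P, w x with hS
  by_contra hc
  push Not at hc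
  set N := P.sup lab + 1 with hN
  have hlt : ∀ x ∈ P, lab x ∈ range N := fun x hx =>
    mem_range.2 (Nat.lt_succ_of_le (Finset.le_sup (f := lab) hx))
  have e1 : S = ∑ j ∈ range N, ∑ x ∈ P.filter (fun x => lab x = j), w x :=
    (Finset.sum_fiberwise_of_maps_to hlt _).symm
  have hle : ∀ j ∈ range N, ∑ x ∈ P.filter (fun x => lab x = j), w x ≤
      cs s * (2 : ℝ) ^ (-(s * j)) * S := by
    intro j _
    by_cases hj : ∃ x ∈ P, lab x = j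
    · exact (hc j hj).le
    · have : P.filter (fun x => lab x = j) = ∅ := by
        rw [Finset.filter_eq_empty_iff]
        exact fun x hx he => hj ⟨x, hx, he⟩
      rw [this, Finset.sum_empty]
      exact mul_nonneg (mul_nonneg (cs_pos hs).le (Real.rpow_nonneg (by norm_num) _)) hw.le
  have hP : P.Nonempty := by
    rcases P.eq_empty_or_nonempty with h | h
    · rw [hS, h, Finset.sum_empty] at hw
      exact absurd hw (lt_irrefl _)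
    · exact h
  obtain ⟨x0, hx0⟩ := hP
  have hlt' : ∑ x ∈ P.filter (fun x => lab x = lab x0), w x <
      cs s * (2 : ℝ) ^ (-(s * (lab x0 : ℕ))) * S := hc (lab x0) ⟨x0, hx0, rfl⟩
  have h2 : S < ∑ j ∈ range N, cs s * (2 : ℝ) ^ (-(s * j)) * S := by
    conv_lhs => rw [e1]
    exact Finset.sum_lt_sum hle ⟨lab x0, hlt x0 hx0, hlt'⟩
  rw [← Finset.sum_mul] at h2
  have h3 := sum_weights hs N
  nlinarith

/-- weighted pigeonhole for cardinalities -/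
theorem wpg_card {α : Type*} {s : ℝ} (hs : 0 < s) {P : Finset α} (hP : P.Nonempty)
    (lab : α → ℕ) :
    ∃ j, (P.filter (fun x => lab x = j)).Nonempty ∧
      cs s * (2 : ℝ) ^ (-(s * j)) * (P.card : ℝ) ≤ ((P.filter (fun x => lab x = j)).card : ℝ) := by
  obtain ⟨j, ⟨x, hx, hxj⟩, h⟩ := wpg hs P (fun _ => (1 : ℝ))
    (by simpa using hP) lab
  refine ⟨j, ⟨x, Finset.mem_filter.2 ⟨hx, hxj⟩⟩, ?_⟩
  simpa using h

/-- two labels -/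
theorem wpg2 {α : Type*} {s : ℝ} (hs : 0 < s) (P : Finset α) (w : α → ℝ)
    (hw : 0 < ∑ x ∈ P, w x) (l1 l2 : α → ℕ) :
    ∃ j k, (∃ x ∈ P, l1 x = j ∧ l2 x = k) ∧
      cs s ^ 2 * (2 : ℝ) ^ (-(s * (j + k : ℕ))) * ∑ x ∈ P, w x ≤
        ∑ x ∈ P.filter (fun x => l1 x = j ∧ l2 x = k), w x := by
  classical
  obtain ⟨j, -, h1⟩ := wpg hs P w hw l1
  have c0 := cs_pos hs
  have p0 : (0 : ℝ) < (2 : ℝ) ^ (-(s * j)) := Real.rpow_pos_of_pos (by norm_num) _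
  obtain ⟨k, ⟨x, hx, hxk⟩, h2⟩ := wpg hs (P.filter (fun x => l1 x = j)) w
    (lt_of_lt_of_le (mul_pos (mul_pos c0 p0) hw) h1) l2
  have q0 : (0 : ℝ) < (2 : ℝ) ^ (-(s * k)) := Real.rpow_pos_of_pos (by norm_num) _
  refine ⟨j, k, ⟨x, (Finset.mem_filter.1 hx).1, (Finset.mem_filter.1 hx).2, hxk⟩, ?_⟩
  rw [Finset.filter_filter] at h2
  refine le_trans (le_of_eq ?_) ((mul_le_mul_of_nonneg_left h1 (mul_pos c0 q0).le).trans h2)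
  have e : (2 : ℝ) ^ (-(s * (j + k : ℕ))) = (2 : ℝ) ^ (-(s * j)) * (2 : ℝ) ^ (-(s * k)) := by
    rw [← Real.rpow_add (by norm_num)]
    congr 1; push_cast; ring
  rw [e]; ring

/-- two labels, cardinalities -/
theorem wpg2_card {α : Type*} {s : ℝ} (hs : 0 < s) {P : Finset α} (hP : P.Nonempty)
    (l1 l2 : α → ℕ) :
    ∃ j k, (P.filter (fun x => l1 x = j ∧ l2 x = k)).Nonempty ∧
      cs s ^ 2 * (2 : ℝ) ^ (-(s * (j + k : ℕ))) * (P.card : ℝ) ≤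
        ((P.filter (fun x => l1 x = j ∧ l2 x = k)).card : ℝ) := by
  obtain ⟨j, k, ⟨x, hx, h1, h2⟩, h⟩ := wpg2 hs P (fun _ => (1 : ℝ))
    (by simpa using hP) l1 l2
  refine ⟨j, k, ⟨x, Finset.mem_filter.2 ⟨hx, h1, h2⟩⟩, ?_⟩
  simpa using h

/-- three labels -/
theorem wpg3 {α : Type*} {s : ℝ} (hs : 0 < s) (P : Finset α) (w : α → ℝ)
    (hw : 0 < ∑ x ∈ P, w x) (l1 l2 l3 : α → ℕ) :
    ∃ i j k, (∃ x ∈ P, l1 x = i ∧ l2 x = j ∧ l3 x = k) ∧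
      cs s ^ 3 * (2 : ℝ) ^ (-(s * (i + j + k : ℕ))) * ∑ x ∈ P, w x ≤
        ∑ x ∈ P.filter (fun x => l1 x = i ∧ l2 x = j ∧ l3 x = k), w x := by
  classical
  obtain ⟨i, -, h1⟩ := wpg hs P w hw l1
  have c0 := cs_pos hs
  have p0 : (0 : ℝ) < (2 : ℝ) ^ (-(s * i)) := Real.rpow_pos_of_pos (by norm_num) _
  obtain ⟨j, k, ⟨x, hx, hxj, hxk⟩, h2⟩ := wpg2 hs (P.filter (fun x => l1 x = i)) w
    (lt_of_lt_of_le (mul_pos (mul_pos c0 p0) hw) h1) l2 l3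
  have q0 : (0 : ℝ) < (2 : ℝ) ^ (-(s * (j + k : ℕ))) := Real.rpow_pos_of_pos (by norm_num) _
  refine ⟨i, j, k, ⟨x, (Finset.mem_filter.1 hx).1, (Finset.mem_filter.1 hx).2, hxj, hxk⟩, ?_⟩
  rw [Finset.filter_filter] at h2
  refine le_trans (le_of_eq ?_)
    ((mul_le_mul_of_nonneg_left h1 (mul_pos (pow_pos c0 2) q0).le).trans h2)
  have e : (2 : ℝ) ^ (-(s * (i + j + k : ℕ))) =
      (2 : ℝ) ^ (-(s * i)) * (2 : ℝ) ^ (-(s * (j + k : ℕ))) := by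
    rw [← Real.rpow_add (by norm_num)]
    congr 1; push_cast; ring
  rw [e]; ring

/-- three labels, cardinalities -/
theorem wpg3_card {α : Type*} {s : ℝ} (hs : 0 < s) {P : Finset α} (hP : P.Nonempty)
    (l1 l2 l3 : α → ℕ) :
    ∃ i j k, (P.filter (fun x => l1 x = i ∧ l2 x = j ∧ l3 x = k)).Nonempty ∧
      cs s ^ 3 * (2 : ℝ) ^ (-(s * (i + j + k : ℕ))) * (P.card : ℝ) ≤
        ((P.filter (fun x => l1 x = i ∧ l2 x = j ∧ l3 x = k)).card : ℝ) := by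
  obtain ⟨i, j, k, ⟨x, hx, h1, h2, h3⟩, h⟩ := wpg3 hs P (fun _ => (1 : ℝ))
    (by simpa using hP) l1 l2 l3
  refine ⟨i, j, k, ⟨x, Finset.mem_filter.2 ⟨hx, h1, h2, h3⟩⟩, ?_⟩
  simpa using h

/-! ### dyadic values -/

/-- dyadic label of a real number `≥ 1` -/
noncomputable def dl (y : ℝ) : ℕ := Nat.log 2 ⌊y⌋₊

theorem dl_le {y : ℝ} (hy : 1 ≤ y) : (2 : ℝ) ^ dl y ≤ y := by
  have h1 : 1 ≤ ⌊y⌋₊ := Nat.le_floor (by simpa using hy)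
  have h2 : 2 ^ dl y ≤ ⌊y⌋₊ := Nat.pow_log_le_self 2 (by omega)
  calc (2 : ℝ) ^ dl y = ((2 ^ dl y : ℕ) : ℝ) := by push_cast; rfl
    _ ≤ (⌊y⌋₊ : ℝ) := Nat.cast_le.2 h2
    _ ≤ y := Nat.floor_le (by linarith)

theorem lt_dl (y : ℝ) : y < 2 * (2 : ℝ) ^ dl y := by
  have h2 : ⌊y⌋₊ < 2 ^ (dl y + 1) := Nat.lt_pow_succ_log_self (by norm_num) _
  have h3 : ⌊y⌋₊ + 1 ≤ 2 ^ (dl y + 1) := h2
  calc y < (⌊y⌋₊ : ℝ) + 1 := Nat.lt_floor_add_one y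
    _ = ((⌊y⌋₊ + 1 : ℕ) : ℝ) := by push_cast; ring
    _ ≤ ((2 ^ (dl y + 1) : ℕ) : ℝ) := Nat.cast_le.2 h3
    _ = 2 * (2 : ℝ) ^ dl y := by push_cast; ring

/-- **weighted dyadic pigeonhole**: `f ≥ 1` on `P` ⊢ on a part of share `cs s · 2 ^ (-(s j))` the
function `f` lies in `[2 ^ j, 2 ^ (j + 1))` -/
theorem wpg_dyadic {α : Type*} {s : ℝ} (hs : 0 < s) {P : Finset α} (hP : P.Nonempty)
    (f : α → ℝ) (hf : ∀ x ∈ P, 1 ≤ f x) :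
    ∃ (j : ℕ) (P' : Finset α), P' ⊆ P ∧ P'.Nonempty ∧
      (∀ x ∈ P', (2 : ℝ) ^ j ≤ f x ∧ f x < 2 * (2 : ℝ) ^ j) ∧
      cs s * (2 : ℝ) ^ (-(s * j)) * (P.card : ℝ) ≤ (P'.card : ℝ) := by
  obtain ⟨j, hne, h⟩ := wpg_card hs hP (fun x => dl (f x))
  refine ⟨j, P.filter (fun x => dl (f x) = j), Finset.filter_subset _ _, hne, ?_, h⟩
  intro x hx
  obtain ⟨h1, h2⟩ := Finset.mem_filter.1 hx
  subst h2
  exact ⟨dl_le (hf x h1), lt_dl _⟩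

/-- two functions at once -/
theorem wpg_dyadic2 {α : Type*} {s : ℝ} (hs : 0 < s) {P : Finset α} (hP : P.Nonempty)
    (f g : α → ℝ) (hf : ∀ x ∈ P, 1 ≤ f x) (hg : ∀ x ∈ P, 1 ≤ g x) :
    ∃ (j k : ℕ) (P' : Finset α), P' ⊆ P ∧ P'.Nonempty ∧
      (∀ x ∈ P', ((2 : ℝ) ^ j ≤ f x ∧ f x < 2 * (2 : ℝ) ^ j) ∧
        (2 : ℝ) ^ k ≤ g x ∧ g x < 2 * (2 : ℝ) ^ k) ∧
      cs s ^ 2 * (2 : ℝ) ^ (-(s * (j + k : ℕ))) * (P.card : ℝ) ≤ (P'.card : ℝ) := by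
  obtain ⟨j, k, hne, h⟩ := wpg2_card hs hP (fun x => dl (f x)) (fun x => dl (g x))
  refine ⟨j, k, P.filter (fun x => dl (f x) = j ∧ dl (g x) = k), Finset.filter_subset _ _, hne,
    ?_, h⟩
  intro x hx
  obtain ⟨h1, h2, h3⟩ := Finset.mem_filter.1 hx
  subst h2; subst h3
  exact ⟨⟨dl_le (hf x h1), lt_dl _⟩, dl_le (hg x h1), lt_dl _⟩

/-- three functions at once -/
theorem wpg_dyadic3 {α : Type*} {s : ℝ} (hs : 0 < s) {P : Finset α} (hP : P.Nonempty)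
    (f g k : α → ℝ) (hf : ∀ x ∈ P, 1 ≤ f x) (hg : ∀ x ∈ P, 1 ≤ g x) (hk : ∀ x ∈ P, 1 ≤ k x) :
    ∃ (i j l : ℕ) (P' : Finset α), P' ⊆ P ∧ P'.Nonempty ∧
      (∀ x ∈ P', ((2 : ℝ) ^ i ≤ f x ∧ f x < 2 * (2 : ℝ) ^ i) ∧
        ((2 : ℝ) ^ j ≤ g x ∧ g x < 2 * (2 : ℝ) ^ j) ∧
        (2 : ℝ) ^ l ≤ k x ∧ k x < 2 * (2 : ℝ) ^ l) ∧
      cs s ^ 3 * (2 : ℝ) ^ (-(s * (i + j + l : ℕ))) * (P.card : ℝ) ≤ (P'.card : ℝ) := by
  obtain ⟨i, j, l, hne, h⟩ := wpg3_card hs hP (fun x => dl (f x)) (fun x => dl (g x))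
    (fun x => dl (k x))
  refine ⟨i, j, l, P.filter (fun x => dl (f x) = i ∧ dl (g x) = j ∧ dl (k x) = l),
    Finset.filter_subset _ _, hne, ?_, h⟩
  intro x hx
  obtain ⟨h1, h2, h3, h4⟩ := Finset.mem_filter.1 hx
  subst h2; subst h3; subst h4
  exact ⟨⟨dl_le (hf x h1), lt_dl _⟩, ⟨dl_le (hg x h1), lt_dl _⟩, dl_le (hk x h1), lt_dl _⟩

/-! ### end games -/

/-- **end game**: the loss `W ≤ K Λ ^ s` of the weighted pigeonhole is absorbed -/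
theorem end_wpg {Λ W K q C s : ℝ} (hΛ : 1 ≤ Λ) (hK : 1 ≤ K) (hW : 0 ≤ W) (hq : 0 < q)
    (hC : 0 ≤ C) (hs : 2 * (C * s) ≤ q) (h1 : Λ ^ q ≤ W ^ C) (h2 : W ≤ K * Λ ^ s) :
    Λ ≤ K ^ (2 * C / q) := by
  have hΛ0 : 0 < Λ := by linarith
  have hK0 : 0 < K := by linarith
  have h3 : Λ ^ q ≤ K ^ C * Λ ^ (q / 2) := by
    refine h1.trans ((Real.rpow_le_rpow hW h2 hC).trans ?_)
    rw [Real.mul_rpow hK0.le (Real.rpow_nonneg hΛ0.le _), ← Real.rpow_mul hΛ0.le]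
    refine mul_le_mul_of_nonneg_left ?_ (Real.rpow_nonneg hK0.le _)
    exact Real.rpow_le_rpow_of_exponent_le hΛ (by linarith)
  have h4 : Λ ^ (q / 2) ≤ K ^ C := by
    have e : Λ ^ q = Λ ^ (q / 2) * Λ ^ (q / 2) := by
      rw [← Real.rpow_add hΛ0]; congr 1; ring
    rw [e] at h3
    exact le_of_mul_le_mul_right h3 (Real.rpow_pos_of_pos hΛ0 _)
  have h5 : (Λ ^ (q / 2)) ^ (2 / q) ≤ (K ^ C) ^ (2 / q) :=
    Real.rpow_le_rpow (Real.rpow_nonneg hΛ0.le _) h4 (by positivity)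
  rw [← Real.rpow_mul hΛ0.le, ← Real.rpow_mul hK0.le] at h5
  have e1 : q / 2 * (2 / q) = 1 := by field_simp
  have e2 : C * (2 / q) = 2 * C / q := by ring
  rwa [e1, Real.rpow_one, e2] at h5

end Crest.Agent.R136.Wpg667
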