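import Crest.Agent.R136.Pl2Def_860
import Crest.Agent.R136.Wpg_667

/-!
# R136 (S0187), PLAN 2, leaf (B5): levels of the flat thickness, double pruning (helper667)

* `prune2` : double pruning of two labelings;
* `Two1.sub` : `Two1` on a part with full classes; `TypU.mono`;
* `kp_le`, `kp_nonneg` : `0 ≤ kp ≤ 13 W w1`;
* `select2` : popular value of two labels with few values, pruned;
* `ylevel2`, `ylevel` : both curvature extents at one dyadic level.
-/

set_option autoImplicit false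
set_option linter.unusedVariables false

open Finset

namespace Crest.Agent.R136.Bl5667

open Crest.Agent.R136.Sh605 Crest.Agent.R136.Pl2
open Crest.Agent.R136.K4 (Plk4)
open Crest.Agent.R136.Tlt51 (Shp InP)
open Crest.Agent.R136.Phc248 (ph phC phC_nonneg)
open Crest.Agent.R136.KapP335 (kapP expP DetP expP_spec)
open Crest.Agent.R136.Tl102 (StP.of_shN IsExp.nrmC kap kap_le kap_nonneg)
open Crest.Agent.R136.Pl2W102 (Near Ex2 Two1)
open Crest.Agent.R136.Wpg667 (dl dl_le lt_dl)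

/-! ### double pruning -/

/-- classes of size at least `m` : at most `#P / m` of them -/
theorem card_classes {ι κ : Type*} [DecidableEq κ] {P : Finset ι} {u : ι → κ} {m : ℝ}
    (h : ∀ t ∈ P, m ≤ ((P.filter fun s => u s = u t).card : ℝ)) :
    ((P.image u).card : ℝ) * m ≤ (P.card : ℝ) := by
  have h1 : P.card = ∑ c ∈ P.image u, (P.filter fun s => u s = c).card :=
    Finset.card_eq_sum_card_image u P
  rw [h1, Nat.cast_sum, ← nsmul_eq_mul]
  refine Finset.card_nsmul_le_sum _ _ _ fun c hc => ?_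
  obtain ⟨t, ht, rfl⟩ := Finset.mem_image.1 hc
  exact h t ht

/-- a maximiser of `#R - τ (number of classes)` has only classes of size `≥ τ` -/
theorem class_ge {ι κ1 κ2 : Type*} [DecidableEq κ1] [DecidableEq κ2] {P1 Q : Finset ι}
    {f : ι → κ1} {g : ι → κ2} {τ : ℝ} (hτ0 : 0 < τ) (hQ1 : Q ⊆ P1)
    (hm : ∀ R ∈ P1.powerset,
      (R.card : ℝ) - τ * (((R.image f).card : ℝ) + ((R.image g).card : ℝ)) ≤
        (Q.card : ℝ) - τ * (((Q.image f).card : ℝ) + ((Q.image g).card : ℝ))) :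
    ∀ t ∈ Q, τ ≤ ((Q.filter fun s => f s = f t).card : ℝ) := by
  classical
  intro t ht
  by_contra hc
  push Not at hc
  set R := Q.filter fun s => ¬ f s = f t with hR
  have hRQ : R ⊆ Q := Finset.filter_subset _ _
  have m1 := hm R (Finset.mem_powerset.2 (hRQ.trans hQ1))
  have c1 : (Q.card : ℝ) = ((Q.filter fun s => f s = f t).card : ℝ) + R.card := by
    rw [hR, ← Nat.cast_add, Finset.card_filter_add_card_filter_not]
  have c2 : (R.image f) ⊆ (Q.image f).erase (f t) := by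
    intro c hc'
    obtain ⟨s, hs, rfl⟩ := Finset.mem_image.1 hc'
    obtain ⟨hs1, hs2⟩ := Finset.mem_filter.1 hs
    exact Finset.mem_erase.2 ⟨hs2, Finset.mem_image_of_mem _ hs1⟩
  have c3 : ((R.image f).card : ℝ) + 1 ≤ (Q.image f).card := by
    have h3 := Finset.card_le_card c2
    have h4 : ((Q.image f).erase (f t)).card + 1 = (Q.image f).card :=
      Finset.card_erase_add_one (Finset.mem_image_of_mem _ ht)
    have h5 : (R.image f).card + 1 ≤ (Q.image f).card := by omega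
    exact_mod_cast h5
  have c4 : ((R.image g).card : ℝ) ≤ (Q.image g).card :=
    Nat.cast_le.2 (Finset.card_le_card (Finset.image_subset_image hRQ))
  have c5 := mul_le_mul_of_nonneg_left c3 hτ0.le
  have c6 := mul_le_mul_of_nonneg_left c4 hτ0.le
  rw [mul_add, mul_one] at c5
  simp only [mul_add] at m1
  linarith

/-- **double pruning**: a part of share `1 / K` has a nonempty part all of whose classes (of both
labelings) are full up to `4 W K`. -/
theorem prune2 {ι κ κ' : Type*} [DecidableEq κ] [DecidableEq κ'] {P P1 : Finset ι} {u : ι → κ}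
    {v : ι → κ'} {M W K : ℝ} (hsub : P1 ⊆ P) (hM : 0 < M) (hW : 0 < W) (hK : 0 < K)
    (fu : ∀ t ∈ P, M ≤ W * ((P.filter fun s => u s = u t).card : ℝ))
    (fv : ∀ t ∈ P, M ≤ W * ((P.filter fun s => v s = v t).card : ℝ))
    (h1 : (P.card : ℝ) ≤ K * P1.card) (hne : P1.Nonempty) :
    ∃ P', P' ⊆ P1 ∧ P'.Nonempty ∧ (P1.card : ℝ) ≤ 2 * P'.card ∧
      (∀ t ∈ P', M ≤ 4 * W * K * ((P'.filter fun s => u s = u t).card : ℝ)) ∧
      (∀ t ∈ P', M ≤ 4 * W * K * ((P'.filter fun s => v s = v t).card : ℝ)) := by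
  classical
  set τ : ℝ := M / (4 * W * K) with hτ
  have hτ0 : 0 < τ := by positivity
  set F : Finset ι → ℝ := fun Q =>
    (Q.card : ℝ) - τ * (((Q.image u).card : ℝ) + ((Q.image v).card : ℝ)) with hF
  obtain ⟨Q, hQ, hmax⟩ := Finset.exists_max_image P1.powerset F ⟨P1, Finset.mem_powerset_self _⟩
  have hQ1 : Q ⊆ P1 := Finset.mem_powerset.1 hQ
  -- number of classes
  have cu : ((P.image u).card : ℝ) * (M / W) ≤ P.card := card_classes fun t ht => by
    rw [div_le_iff₀ hW, mul_comm]; exact fu t ht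
  have cv : ((P.image v).card : ℝ) * (M / W) ≤ P.card := card_classes fun t ht => by
    rw [div_le_iff₀ hW, mul_comm]; exact fv t ht
  have cu1 : ((P1.image u).card : ℝ) ≤ (P.image u).card :=
    Nat.cast_le.2 (Finset.card_le_card (Finset.image_subset_image hsub))
  have cv1 : ((P1.image v).card : ℝ) ≤ (P.image v).card :=
    Nat.cast_le.2 (Finset.card_le_card (Finset.image_subset_image hsub))
  have e1 : τ = (M / W) * (1 / (4 * K)) := by rw [hτ]; field_simp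
  have hK4 : 0 ≤ 1 / (4 * K) := by positivity
  have hMW : 0 ≤ M / W := by positivity
  have b1 : τ * ((P1.image u).card : ℝ) ≤ P1.card / 4 := by
    calc τ * ((P1.image u).card : ℝ) ≤ τ * (P.image u).card := by gcongr
      _ = ((P.image u).card * (M / W)) * (1 / (4 * K)) := by rw [e1]; ring
      _ ≤ P.card * (1 / (4 * K)) := mul_le_mul_of_nonneg_right cu hK4
      _ ≤ (K * P1.card) * (1 / (4 * K)) := mul_le_mul_of_nonneg_right h1 hK4
      _ = P1.card / 4 := by field_simp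
  have b2 : τ * ((P1.image v).card : ℝ) ≤ P1.card / 4 := by
    calc τ * ((P1.image v).card : ℝ) ≤ τ * (P.image v).card := by gcongr
      _ = ((P.image v).card * (M / W)) * (1 / (4 * K)) := by rw [e1]; ring
      _ ≤ P.card * (1 / (4 * K)) := mul_le_mul_of_nonneg_right cv hK4
      _ ≤ (K * P1.card) * (1 / (4 * K)) := mul_le_mul_of_nonneg_right h1 hK4
      _ = P1.card / 4 := by field_simp
  have hP1 : (0 : ℝ) < P1.card := Nat.cast_pos.2 hne.card_pos
  have b3 : (P1.card : ℝ) / 2 ≤ F P1 := by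
    simp only [hF]; linarith
  have b4 := hmax P1 (Finset.mem_powerset_self _)
  have b5 : F Q ≤ Q.card := by
    have : 0 ≤ τ * (((Q.image u).card : ℝ) + ((Q.image v).card : ℝ)) := by positivity
    simp only [hF]; linarith
  have hQc : (P1.card : ℝ) ≤ 2 * Q.card := by linarith
  have hQne : Q.Nonempty := by
    rw [← Finset.card_pos]
    have : (0 : ℝ) < Q.card := by linarith
    exact_mod_cast this
  have ku := class_ge hτ0 hQ1 (f := u) (g := v) (fun R hR => hmax R hR)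
  have kv := class_ge hτ0 hQ1 (f := v) (g := u) (fun R hR => by
    have := hmax R hR
    simp only [hF] at this
    rw [add_comm ((R.image v).card : ℝ), add_comm ((Q.image v).card : ℝ)]
    exact this)
  have hp : 0 < 4 * W * K := by positivity
  have e2 : M = 4 * W * K * τ := by rw [hτ]; field_simp
  refine ⟨Q, hQ1, hQne, hQc, fun t ht => ?_, fun t ht => ?_⟩
  · rw [e2]; exact mul_le_mul_of_nonneg_left (ku t ht) hp.le
  · rw [e2]; exact mul_le_mul_of_nonneg_left (kv t ht) hp.le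

/-- **popular value of a label with at most `N` values, pruned** -/
theorem select1 {ι κ κ' : Type*} [DecidableEq κ] [DecidableEq κ'] {P : Finset ι} {u : ι → κ}
    {v : ι → κ'} {M W : ℝ} {N : ℕ} (hM : 0 < M) (hW : 0 < W)
    (fu : ∀ t ∈ P, M ≤ W * ((P.filter fun s => u s = u t).card : ℝ))
    (fv : ∀ t ∈ P, M ≤ W * ((P.filter fun s => v s = v t).card : ℝ)) (hne : P.Nonempty)
    {α : Type*} [DecidableEq α] (lab : ι → α) (S : Finset α) (hS : S.card ≤ N)
    (hl : ∀ t ∈ P, lab t ∈ S) :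
    ∃ P', P' ⊆ P ∧ P'.Nonempty ∧ (∃ c, ∀ t ∈ P', lab t = c) ∧
      (P.card : ℝ) ≤ 2 * N * P'.card ∧
      (∀ t ∈ P', M ≤ 4 * W * N * ((P'.filter fun s => u s = u t).card : ℝ)) ∧
      (∀ t ∈ P', M ≤ 4 * W * N * ((P'.filter fun s => v s = v t).card : ℝ)) := by
  classical
  obtain ⟨t0, ht0⟩ := hne
  have hSne : S.Nonempty := ⟨lab t0, hl t0 ht0⟩
  have hS0 : (0 : ℝ) < S.card := Nat.cast_pos.2 hSne.card_pos
  have hN0 : (0 : ℝ) < N := lt_of_lt_of_le hS0 (Nat.cast_le.2 hS)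
  have hPc : (0 : ℝ) < P.card := Nat.cast_pos.2 (Finset.card_pos.2 ⟨t0, ht0⟩)
  obtain ⟨c, hc, h⟩ := Finset.exists_le_card_fiber_of_nsmul_le_card_of_maps_to (s := P) (t := S)
    (f := lab) (b := (P.card : ℝ) / S.card) hl hSne (by
      rw [nsmul_eq_mul, mul_div_cancel₀ _ hS0.ne'])
  set P1 := P.filter fun x => lab x = c with hP1
  have h1 : (P.card : ℝ) ≤ N * P1.card := by
    rw [div_le_iff₀ hS0] at h
    calc (P.card : ℝ) ≤ P1.card * S.card := h
      _ ≤ P1.card * N := mul_le_mul_of_nonneg_left (Nat.cast_le.2 hS) (Nat.cast_nonneg _)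
      _ = N * P1.card := mul_comm _ _
  have hne1 : P1.Nonempty := by
    rw [← Finset.card_pos]
    by_contra h0
    push Not at h0
    have : P1.card = 0 := by omega
    rw [this] at h1
    simp only [Nat.cast_zero, mul_zero] at h1
    linarith
  obtain ⟨P', p1, p2, p3, p4, p5⟩ := prune2 (Finset.filter_subset _ _) hM hW hN0 fu fv h1 hne1
  refine ⟨P', p1.trans (Finset.filter_subset _ _), p2, ⟨c, fun t ht =>
    (Finset.mem_filter.1 (p1 ht)).2⟩, ?_, p4, p5⟩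
  calc (P.card : ℝ) ≤ N * P1.card := h1
    _ ≤ N * (2 * P'.card) := mul_le_mul_of_nonneg_left p3 hN0.le
    _ = 2 * N * P'.card := by ring

/-! ### `Two1` on a part -/

variable {qm qp : Fin 3 → ℝ} {L : ℕ → Ln4} {P : Finset ℕ} {cu cv : ℕ → ℕ} {Uf Vf : ℕ → Plk4}
  {W M a w1 w2 z0 ρ r : ℝ}

theorem Near.mono {W W' x y : ℝ} (h : Near W x y) (hW : W ≤ W') (hx : 0 ≤ x) (hy : 0 ≤ y) :
    Near W' x y :=
  ⟨h.1.trans (mul_le_mul_of_nonneg_right hW hy), h.2.trans (mul_le_mul_of_nonneg_right hW hx)⟩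

theorem shp_pos {S : Plk4} (hr : 0 < r) (h : Shp S z0 ρ r) :
    0 < S.a ∧ 0 < S.w 0 ∧ 0 < S.w 2 ∧ 0 < S.w 1 := by
  have h1 : 0 < S.a := hr.trans_le h.r0_le
  have h2 : 0 < S.w 0 := h1.trans_le h.a_le0
  have h3 : 0 < S.w 2 := h2.trans_le h.w0_le
  exact ⟨h1, h2, h3, h3.trans_le h.w_le⟩

/-- **`Two1` on a part with full classes** -/
theorem Two1.sub (H : Two1 qm qp L P cu cv Uf Vf W M a w1 w2 z0 ρ r) {P' : Finset ℕ} {W' : ℝ}
    (hP : P' ⊆ P) (hW : W ≤ W')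
    (fu : ∀ t ∈ P', M ≤ W' * ((P'.filter fun s => cu s = cu t).card : ℝ))
    (fv : ∀ t ∈ P', M ≤ W' * ((P'.filter fun s => cv s = cv t).card : ℝ)) :
    Two1 qm qp L P' cu cv Uf Vf W' M a w1 w2 z0 ρ r where
  W1 := H.W1.trans hW
  M0 := H.M0
  r0 := H.r0
  ρ0 := H.ρ0
  a0 := H.a0
  w10 := H.w10
  w20 := H.w20
  w1ρ := H.w1ρ.trans (mul_le_mul_of_nonneg_right hW H.ρ0.le)
  lg := H.lg.trans hW
  vel := fun t ht => H.vel t (hP ht)
  shU := fun t ht => H.shU t (hP ht)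
  shV := fun t ht => H.shV t (hP ht)
  inU := fun t ht => H.inU t (hP ht)
  inV := fun t ht => H.inV t (hP ht)
  dimU := fun t ht => by
    obtain ⟨p1, -, p2, p3⟩ := shp_pos H.r0 (H.shU t (hP ht))
    obtain ⟨n1, n2, n3⟩ := H.dimU t (hP ht)
    exact ⟨Near.mono n1 hW H.a0.le p1.le, Near.mono n2 hW H.w10.le p3.le,
      Near.mono n3 hW H.w20.le p2.le⟩
  dimV := fun t ht => by
    obtain ⟨p1, -, p2, p3⟩ := shp_pos H.r0 (H.shV t (hP ht))
    obtain ⟨n1, n2, n3⟩ := H.dimV t (hP ht)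
    exact ⟨Near.mono n1 hW H.a0.le p1.le, Near.mono n2 hW H.w10.le p3.le,
      Near.mono n3 hW H.w20.le p2.le⟩
  fullU := fu
  fullV := fv
  dmax := fun S hS hw => by
    classical
    obtain ⟨p1, -, p2, p3⟩ := shp_pos H.r0 hS
    have hφ := phC_nonneg (qm := qm) (qp := qp) H.a0.le H.w10.le H.w20.le p1.le p3.le p2.le
    have h0 := H.dmax S hS hw
    refine le_trans ?_ (h0.trans ?_)
    · exact Nat.cast_le.2 (Finset.card_le_card (Finset.filter_subset_filter _ hP))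
    · exact mul_le_mul_of_nonneg_right (mul_le_mul_of_nonneg_right hW H.M0.le) hφ

/-- facts at typical lines with larger constants -/
theorem TypU.mono {K K' W' : ℝ} {S : Plk4} {T : Ln4} (h : TypU K W a S T z0 ρ) (hK : K ≤ K')
    (h0 : 0 < W) (hW : W ≤ W') (ha : 0 ≤ a) (hw : 0 ≤ S.w 2) : TypU K' W' a S T z0 ρ where
  det := fun h1 => (h.det ((mul_le_mul_of_nonneg_right hW ha).trans h1)).mono
    (inv_anti₀ h0 hW)
  rot := fun h1 h2 => (one_div_le_one_div_of_le h0 hW).trans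
    (h.rot ((mul_le_mul_of_nonneg_right hW ha).trans h1)
      ((mul_le_mul_of_nonneg_right hW hw).trans h2))

/-- `K` is not used in `TypU` -/
theorem TypU.any {K K' W' : ℝ} {S : Plk4} {T : Ln4} (h : TypU K W a S T z0 ρ)
    (h0 : 0 < W) (hW : W ≤ W') (ha : 0 ≤ a) (hw : 0 ≤ S.w 2) : TypU K' W' a S T z0 ρ where
  det := fun h1 => (h.det ((mul_le_mul_of_nonneg_right hW ha).trans h1)).mono
    (inv_anti₀ h0 hW)
  rot := fun h1 h2 => (one_div_le_one_div_of_le h0 hW).trans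
    (h.rot ((mul_le_mul_of_nonneg_right hW ha).trans h1)
      ((mul_le_mul_of_nonneg_right hW hw).trans h2))

/-- `TypP` is antitone in `K`, monotone in `W` -/
theorem TypP.mono {K K' W' : ℝ} {S S' : Plk4} {T : Ln4} (h : TypP K W a S S' T z0 ρ)
    (hK : K' ≤ K) (h0 : 0 < W) (hW : W ≤ W') (ha : 0 ≤ a) (hw : 0 ≤ S.w 2) (hw' : 0 ≤ S'.w 2) :
    TypP K' W' a S S' T z0 ρ :=
  ⟨(mul_le_mul_of_nonneg_right hK ha).trans h.big, h.le, TypU.any h.typ h0 hW ha hw,
    TypU.any h.typ' h0 hW ha hw'⟩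

/-! ### curvature extents -/

theorem kp_nonneg {S : Plk4} (hw : 0 ≤ S.w 0) (z0 ρ : ℝ) (T : Ln4) : 0 ≤ kp S z0 ρ T := by
  unfold kp kapP
  exact mul_nonneg hw (kap_nonneg _ _ _)

theorem kp_le {S : Plk4} {T : Ln4} (hr : 0 < r) (hρ : 0 ≤ ρ) (hS : Shp S z0 ρ r)
    (hT : InP T S z0 ρ) : kp S z0 ρ T ≤ 13 * S.w 0 := by
  have h0 := (shp_pos hr hS).2.1
  have hE := expP_spec (S := S) hS.isQ h0.ne' z0 ρ T
  have N := IsExp.nrmC (StP.of_shN hS h0) hρ (fun z hz hz' => (hT z hz hz').1) hE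
  have := kap_le N
  unfold kp kapP
  nlinarith

theorem kpU_le (H : Two1 qm qp L P cu cv Uf Vf W M a w1 w2 z0 ρ r) {t : ℕ} (ht : t ∈ P) :
    kp (Uf (cu t)) z0 ρ (L t) ≤ 13 * (W * w1) ∧ kp (Vf (cv t)) z0 ρ (L t) ≤ 13 * (W * w1) := by
  have hU := H.shU t ht
  have hV := H.shV t ht
  have k1 := kp_le H.r0 H.ρ0.le hU (H.inU t ht)
  have k2 := kp_le H.r0 H.ρ0.le hV (H.inV t ht)
  have n1 := (H.dimU t ht).2.1.2
  have n2 := (H.dimV t ht).2.1.2
  have a1 := hU.w0_le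
  have a2 := hU.w_le
  have b1 := hV.w0_le
  have b2 := hV.w_le
  constructor <;> linarith

/-- number of dyadic levels -/
theorem dl_bound {y : ℝ} (hW : 1 ≤ W) (ha : 0 < a) (hw1 : 0 < w1) (lg : Real.log (w1 / a) ≤ W)
    (hy : 1 ≤ y) (hy' : y = 1 ∨ y ≤ 13 * (W * w1) / a) : (dl y : ℝ) ≤ 6 * W := by
  have h1 := dl_le hy
  have hy0 : 0 < y := by linarith
  have hW0 : 0 < W := by linarith
  have h2 : (dl y : ℝ) * Real.log 2 ≤ Real.log y := by
    rw [← Real.log_pow]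
    exact Real.log_le_log (by positivity) h1
  have h6 : (0.69 : ℝ) ≤ Real.log 2 := by have := Real.log_two_gt_d9; linarith
  have h8 : (dl y : ℝ) * 0.69 ≤ dl y * Real.log 2 :=
    mul_le_mul_of_nonneg_left h6 (Nat.cast_nonneg _)
  rcases hy' with rfl | hy'
  · rw [Real.log_one] at h2
    nlinarith
  have h3 : Real.log y ≤ Real.log 13 + Real.log W + Real.log (w1 / a) := by
    refine (Real.log_le_log hy0 hy').trans (le_of_eq ?_)
    rw [mul_div_assoc, mul_div_assoc, Real.log_mul (by norm_num) (by positivity),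
      Real.log_mul hW0.ne' (by positivity)]
    ring
  have h4 : Real.log 13 ≤ 3 := by
    rw [Real.log_le_iff_le_exp (by norm_num)]
    have e1 : Real.exp 3 = Real.exp 1 ^ 3 := by
      rw [← Real.exp_nat_mul]; norm_num
    rw [e1]
    have e2 := Real.exp_one_gt_d9
    have e3 : (2.7 : ℝ) ≤ Real.exp 1 := by linarith
    calc (13 : ℝ) ≤ 2.7 ^ 3 := by norm_num
      _ ≤ Real.exp 1 ^ 3 := by gcongr
  have h5 : Real.log W ≤ W - 1 := by
    have := Real.log_le_sub_one_of_pos hW0; linarith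
  nlinarith

/-- dyadic value of `max a k / a` -/
theorem lev_spec {k : ℝ} (ha : 0 < a) :
    a * (2:ℝ) ^ dl (max a k / a) ≤ max a k ∧ max a k ≤ 2 * (a * (2:ℝ) ^ dl (max a k / a)) := by
  have h1 : 1 ≤ max a k / a := by rw [le_div_iff₀ ha, one_mul]; exact le_max_left _ _
  have h2 := dl_le h1
  have h3 := lt_dl (max a k / a)
  constructor
  · rw [le_div_iff₀ ha] at h2; linarith
  · rw [div_lt_iff₀ ha] at h3; linarith

theorem lev_bound {k : ℝ} (hW : 1 ≤ W) (ha : 0 < a) (hw1 : 0 < w1)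
    (lg : Real.log (w1 / a) ≤ W) (hk : k ≤ 13 * (W * w1)) :
    dl (max a k / a) ∈ range (⌊6 * W⌋₊ + 1) := by
  have h1 : 1 ≤ max a k / a := by rw [le_div_iff₀ ha, one_mul]; exact le_max_left _ _
  have h2 := dl_bound hW ha hw1 lg h1 (by
    rcases le_total k a with h | h
    · left; rw [max_eq_left h, div_self ha.ne']
    · right; rw [max_eq_right h]; exact div_le_div_of_nonneg_right hk ha.le)
  exact Finset.mem_range.2 (Nat.lt_succ_of_le (Nat.le_floor h2))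

/-- **(B5)** both curvature extents at one dyadic level each; loss `(2 W) ^ 8`. -/
theorem ylevel2 (H : Two1 qm qp L P cu cv Uf Vf W M a w1 w2 z0 ρ r) (hne : P.Nonempty) :
    ∃ P' : Finset ℕ, P' ⊆ P ∧ P'.Nonempty ∧
      Two1 qm qp L P' cu cv Uf Vf ((2 * W) ^ (8 : ℝ)) M a w1 w2 z0 ρ r ∧
      ∃ YU YV : ℝ, a ≤ YU ∧ a ≤ YV ∧
        (∀ t ∈ P', YU ≤ max a (kp (Uf (cu t)) z0 ρ (L t)) ∧
          max a (kp (Uf (cu t)) z0 ρ (L t)) ≤ 2 * YU) ∧
        ∀ t ∈ P', YV ≤ max a (kp (Vf (cv t)) z0 ρ (L t)) ∧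
          max a (kp (Vf (cv t)) z0 ρ (L t)) ≤ 2 * YV := by
  classical
  have hW := H.W1
  have hW0 : 0 < W := by linarith
  have ha := H.a0
  set R := range (⌊6 * W⌋₊ + 1) with hR
  obtain ⟨P', p1, p2, ⟨c, hc⟩, -, p4, p5⟩ := select1 (N := (⌊6 * W⌋₊ + 1) * (⌊6 * W⌋₊ + 1))
    H.M0 hW0 H.fullU H.fullV hne
    (fun t => (dl (max a (kp (Uf (cu t)) z0 ρ (L t)) / a),
      dl (max a (kp (Vf (cv t)) z0 ρ (L t)) / a))) (R ×ˢ R)
    (by rw [Finset.card_product, hR, Finset.card_range]) (fun t ht => by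
      obtain ⟨k1, k2⟩ := kpU_le H ht
      exact Finset.mem_product.2 ⟨lev_bound hW ha H.w10 H.lg k1, lev_bound hW ha H.w10 H.lg k2⟩)
  have hfl : ((⌊6 * W⌋₊ : ℕ) : ℝ) + 1 ≤ 7 * W := by
    have := Nat.floor_le (by linarith : 0 ≤ 6 * W)
    linarith
  have hfl0 : (0:ℝ) ≤ ((⌊6 * W⌋₊ : ℕ) : ℝ) + 1 := by positivity
  have hW8 : (2 * W) ^ (8 : ℝ) = (2 * W) ^ (8 : ℕ) := by
    rw [← Real.rpow_natCast]; norm_num
  have hloss : 4 * W * (((⌊6 * W⌋₊ + 1) * (⌊6 * W⌋₊ + 1) : ℕ) : ℝ) ≤ (2 * W) ^ (8 : ℝ) := by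
    rw [hW8]
    push_cast
    have h1 : (((⌊6 * W⌋₊ : ℕ) : ℝ) + 1) * (((⌊6 * W⌋₊ : ℕ) : ℝ) + 1) ≤ (7 * W) * (7 * W) :=
      mul_le_mul hfl hfl hfl0 (by linarith)
    have h2 : 4 * W * ((((⌊6 * W⌋₊ : ℕ) : ℝ) + 1) * (((⌊6 * W⌋₊ : ℕ) : ℝ) + 1)) ≤
        4 * W * ((7 * W) * (7 * W)) := mul_le_mul_of_nonneg_left h1 (by linarith)
    refine h2.trans ?_
    have h3 : W ^ 3 ≤ W ^ 8 := pow_le_pow_right₀ hW (by norm_num)
    have e1 : 4 * W * ((7 * W) * (7 * W)) = 196 * W ^ 3 := by ring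
    have e2 : (2 * W) ^ 8 = 256 * W ^ 8 := by ring
    rw [e1, e2]
    have h4 : 0 ≤ W ^ 3 := by positivity
    linarith
  have hWW : W ≤ (2 * W) ^ (8 : ℝ) := by
    refine le_trans ?_ hloss
    have h1 : (1:ℝ) ≤ (((⌊6 * W⌋₊ + 1) * (⌊6 * W⌋₊ + 1) : ℕ) : ℝ) := by
      rw [← Nat.cast_one]
      exact Nat.cast_le.2 (Nat.succ_le_of_lt (Nat.mul_pos (Nat.succ_pos _) (Nat.succ_pos _)))
    nlinarith
  refine ⟨P', p1, p2, Two1.sub H p1 hWW (fun t ht => (p4 t ht).trans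
      (mul_le_mul_of_nonneg_right hloss (Nat.cast_nonneg _))) (fun t ht => (p5 t ht).trans
      (mul_le_mul_of_nonneg_right hloss (Nat.cast_nonneg _))), a * (2:ℝ) ^ c.1, a * (2:ℝ) ^ c.2,
    ?_, ?_, fun t ht => ?_, fun t ht => ?_⟩
  · have : (1:ℝ) ≤ (2:ℝ) ^ c.1 := one_le_pow₀ (by norm_num)
    nlinarith
  · have : (1:ℝ) ≤ (2:ℝ) ^ c.2 := one_le_pow₀ (by norm_num)
    nlinarith
  · have h1 := hc t ht
    have h2 := lev_spec (k := kp (Uf (cu t)) z0 ρ (L t)) ha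
    rw [← h1]
    exact h2
  · have h1 := hc t ht
    have h2 := lev_spec (k := kp (Vf (cv t)) z0 ρ (L t)) ha
    rw [← h1]
    exact h2

/-- **(B5)**, one level `Y` for the maximum of both extents -/
theorem ylevel (H : Two1 qm qp L P cu cv Uf Vf W M a w1 w2 z0 ρ r) (hne : P.Nonempty) :
    ∃ P' : Finset ℕ, P' ⊆ P ∧ P'.Nonempty ∧
      Two1 qm qp L P' cu cv Uf Vf ((2 * W) ^ (8 : ℝ)) M a w1 w2 z0 ρ r ∧
      ∃ Y : ℝ, a ≤ Y ∧ ∀ t ∈ P',
        Y ≤ max a (max (kp (Uf (cu t)) z0 ρ (L t)) (kp (Vf (cv t)) z0 ρ (L t))) ∧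
        max a (max (kp (Uf (cu t)) z0 ρ (L t)) (kp (Vf (cv t)) z0 ρ (L t))) ≤ 2 * Y := by
  obtain ⟨P', p1, p2, p3, YU, YV, hU, hV, h1, h2⟩ := ylevel2 H hne
  refine ⟨P', p1, p2, p3, max YU YV, hU.trans (le_max_left _ _), fun t ht => ?_⟩
  obtain ⟨a1, a2⟩ := h1 t ht
  obtain ⟨b1, b2⟩ := h2 t ht
  have e : max a (max (kp (Uf (cu t)) z0 ρ (L t)) (kp (Vf (cv t)) z0 ρ (L t))) =
      max (max a (kp (Uf (cu t)) z0 ρ (L t))) (max a (kp (Vf (cv t)) z0 ρ (L t))) := by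
    rw [max_max_max_comm, max_self]
  rw [e]
  refine ⟨max_le_max a1 b1, ?_⟩
  rw [mul_max_of_nonneg _ _ (by norm_num : (0:ℝ) ≤ 2)]
  exact max_le_max a2 b2

end Crest.Agent.R136.Bl5667
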