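import Crest.Agent.R136.Bl5_667

/-!
# R136 (S0187), PLAN 2, leaf (B5), form for the assembly of `BT` (helper667)

* `lift W c = (2 W) ^ c / 2`, so `2 * lift W c = (2 W) ^ c` : powers of `2 W` are stable;
* `TypP.lift` : `TypP` at `lift W c`;
* `ylevelP` : under `TypP` (second system flatter, first one curved) the extent of the first system
  at one dyadic level.
-/

set_option autoImplicit false
set_option linter.unusedVariables false

open Finset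

namespace Crest.Agent.R136.Bl5667

open Crest.Agent.R136.Sh605 Crest.Agent.R136.Pl2
open Crest.Agent.R136.K4 (Plk4)
open Crest.Agent.R136.Tlt51 (Shp InP)
open Crest.Agent.R136.KapP335 (kapP expP DetP)
open Crest.Agent.R136.Pl2W102 (Near Ex2 Two1)

variable {qm qp : Fin 3 → ℝ} {L : ℕ → Ln4} {P : Finset ℕ} {cu cv : ℕ → ℕ} {Uf Vf : ℕ → Plk4}
  {W M a w1 w2 z0 ρ r : ℝ}

/-- a larger constant of the same shape -/
noncomputable def lift (W c : ℝ) : ℝ := (2 * W) ^ c / 2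

theorem two_lift (W c : ℝ) : 2 * lift W c = (2 * W) ^ c := by unfold lift; ring

theorem le_lift {W c : ℝ} (hW : 1 ≤ W) (hc : 1 ≤ c) : W ≤ lift W c := by
  have h1 : (2 * W) ^ (1:ℝ) ≤ (2 * W) ^ c := Real.rpow_le_rpow_of_exponent_le (by linarith) hc
  rw [Real.rpow_one] at h1
  unfold lift; linarith

theorem lift_mono {W c c' : ℝ} (hW : 1 ≤ W) (hc : c ≤ c') : lift W c ≤ lift W c' := by
  have h1 : (2 * W) ^ c ≤ (2 * W) ^ c' := Real.rpow_le_rpow_of_exponent_le (by linarith) hc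
  unfold lift; linarith

theorem one_le_lift {W c : ℝ} (hW : 1 ≤ W) (hc : 1 ≤ c) : 1 ≤ lift W c := hW.trans (le_lift hW hc)

/-- `(2 W) ^ c ≤ lift W (c + 1)` -/
theorem rpow_le_lift {W c : ℝ} (hW : 1 ≤ W) : (2 * W) ^ c ≤ lift W (c + 1) := by
  have h0 : 0 < 2 * W := by linarith
  have h1 : 0 < (2 * W) ^ c := Real.rpow_pos_of_pos h0 _
  unfold lift
  rw [Real.rpow_add h0, Real.rpow_one]
  nlinarith

theorem rpow_two_lift {W : ℝ} (hW : 1 ≤ W) (c K : ℝ) : (2 * lift W c) ^ K = (2 * W) ^ (c * K) := by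
  rw [two_lift, ← Real.rpow_mul (by linarith)]

theorem lift_lift {W : ℝ} (hW : 1 ≤ W) (c c' : ℝ) : lift (lift W c) c' = lift W (c * c') := by
  unfold lift
  have e : 2 * ((2 * W) ^ c / 2) = (2 * W) ^ c := by ring
  rw [e, ← Real.rpow_mul (by linarith)]

/-- **`TypP` at a larger constant** -/
theorem TypP.lift {c K0 : ℝ} {S S' : Plk4} {T : Ln4} (hW : 1 ≤ W) (hc : 1 ≤ c) (ha : 0 ≤ a)
    (hw : 0 ≤ S.w 2) (hw' : 0 ≤ S'.w 2) (h : TypP ((2 * W) ^ (c * K0)) W a S S' T z0 ρ) :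
    TypP ((2 * lift W c) ^ K0) (lift W c) a S S' T z0 ρ := by
  have hl := le_lift hW hc
  have h0 : 0 < W := by linarith
  rw [rpow_two_lift hW]
  exact ⟨h.big, h.le, TypU.mono h.typ le_rfl h0 hl ha hw, TypU.mono h.typ' le_rfl h0 hl ha hw'⟩

/-- `Two1` with a larger constant -/
theorem Two1.mono {W' : ℝ} (H : Two1 qm qp L P cu cv Uf Vf W M a w1 w2 z0 ρ r) (hW : W ≤ W') :
    Two1 qm qp L P cu cv Uf Vf W' M a w1 w2 z0 ρ r :=
  Two1.sub H (Finset.Subset.refl _) hW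
    (fun t ht => (H.fullU t ht).trans (mul_le_mul_of_nonneg_right hW (Nat.cast_nonneg _)))
    (fun t ht => (H.fullV t ht).trans (mul_le_mul_of_nonneg_right hW (Nat.cast_nonneg _)))

/-- exchange of the two systems -/
theorem Two1.swap (H : Two1 qm qp L P cu cv Uf Vf W M a w1 w2 z0 ρ r) :
    Two1 qm qp L P cv cu Vf Uf W M a w1 w2 z0 ρ r where
  W1 := H.W1
  M0 := H.M0
  r0 := H.r0
  ρ0 := H.ρ0
  a0 := H.a0
  w10 := H.w10
  w20 := H.w20
  w1ρ := H.w1ρ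
  lg := H.lg
  vel := H.vel
  shU := H.shV
  shV := H.shU
  inU := H.inV
  inV := H.inU
  dimU := H.dimV
  dimV := H.dimU
  fullU := H.fullV
  fullV := H.fullU
  dmax := H.dmax

/-- **(B5)** for the assembly of `BT` : `W' = lift W 9`, the extents of the first system lie in
`[Y, 2 Y]`, those of the second one are at most `2 Y`. -/
theorem ylevelP {K0 : ℝ} (hK0 : 0 ≤ K0) (H : Two1 qm qp L P cu cv Uf Vf W M a w1 w2 z0 ρ r)
    (hne : P.Nonempty)
    (hT : ∀ t ∈ P, TypP ((2 * W) ^ (9 * K0)) W a (Uf (cu t)) (Vf (cv t)) (L t) z0 ρ) :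
    ∃ P' : Finset ℕ, P' ⊆ P ∧ P'.Nonempty ∧
      Two1 qm qp L P' cu cv Uf Vf (lift W 9) M a w1 w2 z0 ρ r ∧
      (∀ t ∈ P', TypP ((2 * lift W 9) ^ K0) (lift W 9) a (Uf (cu t)) (Vf (cv t)) (L t) z0 ρ) ∧
      ∃ Y : ℝ, a ≤ Y ∧ ∀ t ∈ P', Y ≤ kp (Uf (cu t)) z0 ρ (L t) ∧
        kp (Uf (cu t)) z0 ρ (L t) ≤ 2 * Y ∧ kp (Vf (cv t)) z0 ρ (L t) ≤ 2 * Y := by
  have hW := H.W1
  have ha := H.a0
  obtain ⟨P', p1, p2, p3, Y, hY, hk⟩ := ylevel H hne
  have h8 : (2 * W) ^ (8 : ℝ) ≤ lift W 9 := by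
    have := rpow_le_lift (c := 8) hW
    norm_num at this ⊢
    exact this
  refine ⟨P', p1, p2, Two1.mono p3 h8, fun t ht => ?_, Y, hY, fun t ht => ?_⟩
  · exact TypP.lift hW (by norm_num) ha.le (shp_pos H.r0 (H.shU t (p1 ht))).2.2.1.le
      (shp_pos H.r0 (H.shV t (p1 ht))).2.2.1.le (hT t (p1 ht))
  · have h := hT t (p1 ht)
    obtain ⟨h1, h2⟩ := hk t ht
    have k1 : (1:ℝ) ≤ (2 * W) ^ (9 * K0) := Real.one_le_rpow (by linarith) (by positivity)
    have k2 : a ≤ kp (Uf (cu t)) z0 ρ (L t) := by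
      have := h.big
      nlinarith
    have e : max a (max (kp (Uf (cu t)) z0 ρ (L t)) (kp (Vf (cv t)) z0 ρ (L t))) =
        kp (Uf (cu t)) z0 ρ (L t) := by
      rw [max_eq_left h.le, max_eq_right k2]
    rw [e] at h1 h2
    exact ⟨h1, h2, h.le.trans h2⟩

end Crest.Agent.R136.Bl5667
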