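import Crest.Agent.R136.Cap1_102
import Crest.Agent.R136.KapP_335

/-!
# R136 (S0187), PLAN 2 (B1): the branch lemma (helper104)

A sheet of the class `StP` is, on its whole box, within `C (a + kap)` of the tangent plane at one of
its lines: the second branch of the quadric does not meet the box.
-/

set_option autoImplicit false
set_option linter.unusedVariables false

namespace Crest.Agent.R136.Brn104

open Crest.Agent.R136.Sh605
open Crest.Agent.R136.Tl102 (QF Fq bz shB0 shB1 shG kap NrmC IsExp fr cmb StP dt_cmb_fr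
  cmb_add_zero cmb_add_one cmb_add_two)

/-! ### the real inequality -/

theorem branch_core {A R s q : ℝ} (h1 : 45 / 100 + 71 / 40 * |A| ≤ A * s)
    (h2 : 45 / 100 + 71 / 40 * |A| ≤ R) (hq : |q| ≤ 14 / 100)
    (hG : |-(s * R) + q| ≤ 5 / 2) : False := by
  have hA : 0 ≤ |A| := abs_nonneg _
  have h3 : (45 / 100 + 71 / 40 * |A|) * (45 / 100 + 71 / 40 * |A|) ≤ A * s * R :=
    mul_le_mul h1 h2 (by positivity) (le_trans (by positivity) h1)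
  have h4 : |A * s * R| ≤ |A| * |s * R| := by rw [mul_assoc, abs_mul]
  have h5 := le_abs_self (A * s * R)
  have h6 : |s * R| ≤ 264 / 100 := by
    have e : s * R = q - (-(s * R) + q) := by ring
    rw [e]
    exact (abs_sub _ _).trans (by linarith)
  have h7 : |A| * |s * R| ≤ |A| * (264 / 100) := mul_le_mul_of_nonneg_left h6 hA
  nlinarith [sq_nonneg (45 / 100 - 71 / 40 * |A|)]

theorem lat_le {a b c κ u v : ℝ} (k1 : |a| ≤ κ) (k2 : |b| ≤ κ) (k3 : |c| ≤ κ) (hu : |u| ≤ 17 / 8)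
    (hv : |v| ≤ 17 / 8) : |a * u ^ 2 + b * (u * v) + c * v ^ 2| ≤ 14 * κ := by
  have hκ0 : 0 ≤ κ := (abs_nonneg _).trans k1
  have h0u := abs_nonneg u
  have h0v := abs_nonneg v
  have hu2 : |u ^ 2| ≤ 14 / 3 := by rw [abs_pow]; nlinarith
  have hv2 : |v ^ 2| ≤ 14 / 3 := by rw [abs_pow]; nlinarith
  have huv : |u * v| ≤ 14 / 3 := by rw [abs_mul]; nlinarith
  have t1 := mul_le_mul k1 hu2 (abs_nonneg _) hκ0
  have t2 := mul_le_mul k2 huv (abs_nonneg _) hκ0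
  have t3 := mul_le_mul k3 hv2 (abs_nonneg _) hκ0
  rw [← abs_mul] at t1 t2 t3
  have t4 := abs_add_le (a * u ^ 2 + b * (u * v)) (c * v ^ 2)
  have t5 := abs_add_le (a * u ^ 2) (b * (u * v))
  linarith

theorem lat_slope {D D' E E' g u v : ℝ} (h1 : |D| ≤ 1) (h2 : |D'| ≤ 1) (h3 : |E| ≤ 1)
    (h4 : |E'| ≤ 1) (hu : |u| ≤ 17 / 8) (hv : |v| ≤ 17 / 8)
    (hg : g = ((D - D') * u + (E - E') * v) / (34 / 10)) : |g| ≤ 5 / 2 := by
  rw [hg, abs_div, abs_of_pos (by norm_num : (0:ℝ) < 34 / 10), div_le_iff₀ (by norm_num)]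
  refine (abs_add_le _ _).trans ?_
  rw [abs_mul, abs_mul]
  have g1 := (abs_sub D D').trans (add_le_add h1 h2)
  have g2 := (abs_sub E E').trans (add_le_add h3 h4)
  have g3 := mul_le_mul g1 hu (abs_nonneg _) (by norm_num)
  have g4 := mul_le_mul g2 hv (abs_nonneg _) (by norm_num)
  linarith

/-- box bookkeeping -/
theorem bb {P t B : ℝ} (h : -B ≤ P + t) (h' : P + t ≤ B) : |P + t| ≤ B := abs_le.2 ⟨h, h'⟩

/-- the second branch stays away -/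
theorem branch {β β1 β2 A yu yv uu uv vv s1 s2 κ P0 P1 P2 x u v : ℝ}
    (p0 : |P0| ≤ 1) (p1 : |P1| ≤ 1) (p2 : |P2| ≤ 1) (q0 : |P0 + x| ≤ 9 / 8) (q1 : |P1 + u| ≤ 9 / 8)
    (q2 : |P2 + v| ≤ 9 / 8)
    (H0 : ∀ a b c : ℝ, |P0 + a| ≤ 39 / 20 → |P1 + b| ≤ 39 / 20 → |P2 + c| ≤ 39 / 20 →
      1 / 2 ≤ β + 2 * A * a + yu * b + yv * c)
    (H1 : ∀ a b c : ℝ, |P0 + a| ≤ 39 / 20 → |P1 + b| ≤ 39 / 20 → |P2 + c| ≤ 39 / 20 →
      |β1 + 2 * uu * b + yu * a + uv * c| ≤ 1)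
    (H2 : ∀ a b c : ℝ, |P0 + a| ≤ 39 / 20 → |P1 + b| ≤ 39 / 20 → |P2 + c| ≤ 39 / 20 →
      |β2 + 2 * vv * c + yv * a + uv * b| ≤ 1)
    (k1 : |uu - s1 * yu + s1 ^ 2 * A| ≤ κ) (k2 : |uv - s2 * yu - s1 * yv + 2 * (s1 * s2) * A| ≤ κ)
    (k3 : |vv - s2 * yv + s2 ^ 2 * A| ≤ κ) (hκ : κ ≤ 1 / 100) :
    1 / 20 ≤ |β + (2 * A * x + yu * u + yv * v) - A * (x + s1 * u + s2 * v)| := by
  by_contra hcon
  push Not at hcon
  obtain ⟨c1, c2⟩ := abs_lt.1 hcon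
  obtain ⟨p01, p02⟩ := abs_le.1 p0
  obtain ⟨p11, p12⟩ := abs_le.1 p1
  obtain ⟨p21, p22⟩ := abs_le.1 p2
  obtain ⟨q01, q02⟩ := abs_le.1 q0
  obtain ⟨q11, q12⟩ := abs_le.1 q1
  obtain ⟨q21, q22⟩ := abs_le.1 q2
  have hu : |u| ≤ 17 / 8 := abs_le.2 ⟨by linarith only [p12, q11], by linarith only [p11, q12]⟩
  have hv : |v| ≤ 17 / 8 := abs_le.2 ⟨by linarith only [p22, q21], by linarith only [p21, q22]⟩
  have n0 : |P0 + 0| ≤ 39 / 20 := bb (by linarith only [p01]) (by linarith only [p02])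
  have n1 : |P1 + 0| ≤ 39 / 20 := bb (by linarith only [p11]) (by linarith only [p12])
  have n2 : |P2 + 0| ≤ 39 / 20 := bb (by linarith only [p21]) (by linarith only [p22])
  have nu : |P1 + u| ≤ 39 / 20 := q1.trans (by norm_num)
  have nv : |P2 + v| ≤ 39 / 20 := q2.trans (by norm_num)
  have nlo : |P0 + (-(39 / 20) - P0)| ≤ 39 / 20 := by
    have : P0 + (-(39 / 20) - P0) = -(39 / 20) := by ring
    rw [this, abs_neg, abs_of_pos (by norm_num)]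
  have nhi : |P0 + (39 / 20 - P0)| ≤ 39 / 20 := by
    have : P0 + (39 / 20 - P0) = 39 / 20 := by ring
    rw [this, abs_of_pos (by norm_num)]
  have r1 : |P1 + 27 / 20 * u| ≤ 39 / 20 :=
    bb (by linarith only [p11, p12, q11, q12]) (by linarith only [p11, p12, q11, q12])
  have r2 : |P2 + 27 / 20 * v| ≤ 39 / 20 :=
    bb (by linarith only [p21, p22, q21, q22]) (by linarith only [p21, p22, q21, q22])
  have r3 : |P1 + -(7 / 20) * u| ≤ 39 / 20 :=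
    bb (by linarith only [p11, p12, q11, q12]) (by linarith only [p11, p12, q11, q12])
  have r4 : |P2 + -(7 / 20) * v| ≤ 39 / 20 :=
    bb (by linarith only [p21, p22, q21, q22]) (by linarith only [p21, p22, q21, q22])
  have hG : |uu * u ^ 2 + uv * (u * v) + vv * v ^ 2| ≤ 5 / 2 :=
    lat_slope (H1 0 (27 / 20 * u) (27 / 20 * v) n0 r1 r2)
      (H1 0 (-(7 / 20) * u) (-(7 / 20) * v) n0 r3 r4)
      (H2 0 (27 / 20 * u) (27 / 20 * v) n0 r1 r2)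
      (H2 0 (-(7 / 20) * u) (-(7 / 20) * v) n0 r3 r4) hu hv (by ring)
  have hlat := lat_le k1 k2 k3 hu hv
  have hid : uu * u ^ 2 + uv * (u * v) + vv * v ^ 2 =
      -((s1 * u + s2 * v) * (β + A * x - (β + (2 * A * x + yu * u + yv * v) -
        A * (x + s1 * u + s2 * v)))) + ((uu - s1 * yu + s1 ^ 2 * A) * u ^ 2 +
      (uv - s2 * yu - s1 * yv + 2 * (s1 * s2) * A) * (u * v) +
      (vv - s2 * yv + s2 ^ 2 * A) * v ^ 2) := by ring
  rw [hid] at hG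
  -- vertical slopes
  have b0 := H0 (-(39 / 20) - P0) 0 0 nlo n1 n2
  have b0' := H0 (39 / 20 - P0) 0 0 nhi n1 n2
  have d0 := H0 (-(39 / 20) - P0) u v nlo nu nv
  have d0' := H0 (39 / 20 - P0) u v nhi nu nv
  have hw1 : A * (P0 + (P0 + x)) ≤ 17 / 8 * |A| := by
    have : |A * (P0 + (P0 + x))| ≤ |A| * (17 / 8) := by
      rw [abs_mul]
      exact mul_le_mul_of_nonneg_left ((abs_add_le _ _).trans (by linarith only [p0, q0]))
        (abs_nonneg _)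
    linarith only [this, le_abs_self (A * (P0 + (P0 + x)))]
  have hw2 : -(17 / 8 * |A|) ≤ A * (P0 + (P0 + x)) := by
    have : |A * (P0 + (P0 + x))| ≤ |A| * (17 / 8) := by
      rw [abs_mul]
      exact mul_le_mul_of_nonneg_left ((abs_add_le _ _).trans (by linarith only [p0, q0]))
        (abs_nonneg _)
    linarith only [this, neg_abs_le (A * (P0 + (P0 + x)))]
  refine branch_core (A := A) (R := β + A * x - (β + (2 * A * x + yu * u + yv * v) -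
        A * (x + s1 * u + s2 * v))) (s := s1 * u + s2 * v) ?_ ?_
    (hlat.trans (by linarith only [hκ])) hG
  · rcases abs_cases A with ⟨h, h'⟩ | ⟨h, h'⟩
    · rw [h] at hw1 hw2 ⊢
      linarith only [c1, c2, b0, b0', d0, d0', hw1, hw2]
    · rw [h] at hw1 hw2 ⊢
      linarith only [c1, c2, b0, b0', d0, d0', hw1, hw2]
  · rcases abs_cases A with ⟨h, h'⟩ | ⟨h, h'⟩
    · rw [h] at hw1 hw2 ⊢
      linarith only [c1, c2, b0, b0', d0, d0', hw1, hw2]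
    · rw [h] at hw1 hw2 ⊢
      linarith only [c1, c2, b0, b0', d0, d0', hw1, hw2]


/-! ### slopes of the expansion -/

section
variable {e : Fin 3 → V3} {c : Ln4} {w : V3} {q : ℝ → V3 → ℝ} {z0 ρ : ℝ}

theorem inD (S : StP e c w q z0 ρ) (T : Ln4) (z : ℝ) {y : V3}
    (hy : ∀ i, |dt (e i) (T.pos z - c.pos z) / w i + y i| ≤ 2) :
    InK e c (dbl3 w) z (T.pos z + cmb (fr e w) y) := by
  intro i
  have hw := S.pos i
  have e1 : dt (e i) (T.pos z + cmb (fr e w) y - c.pos z) =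
      w i * (dt (e i) (T.pos z - c.pos z) / w i + y i) := by
    have e2 : dt (e i) (T.pos z + cmb (fr e w) y - c.pos z) =
      dt (e i) (T.pos z - c.pos z) + dt (e i) (cmb (fr e w) y) := by
      simp only [dt, Pi.add_apply, Pi.sub_apply]; ring
    rw [e2, dt_cmb_fr S.ortho]
    field_simp
  rw [e1, abs_mul, abs_of_pos hw]
  change _ ≤ 2 * w i
  have := mul_le_mul_of_nonneg_left (hy i) hw.le
  linarith

theorem vec3 {P : V3} {a b c B : ℝ} (h0 : |P 0 + a| ≤ B) (h1 : |P 1 + b| ≤ B)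
    (h2 : |P 2 + c| ≤ B) : ∀ i, |P i + (![a, b, c] : V3) i| ≤ B := by
  intro i
  fin_cases i
  · exact h0
  · exact h1
  · exact h2

theorem sh {P t : ℝ} (h : |P + t| ≤ 39 / 20) : |P + (t - 1 / 20)| ≤ 2 := by
  rw [abs_le] at *; constructor <;> linarith [h.1, h.2]

theorem sh' {P t : ℝ} (h : |P + t| ≤ 39 / 20) : |P + (t - 1 / 20 + 1 / 10)| ≤ 2 := by
  rw [abs_le] at *; constructor <;> linarith [h.1, h.2]

theorem sh0 {P t : ℝ} (h : |P + t| ≤ 39 / 20) : |P + t| ≤ 2 := h.trans (by norm_num)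

variable {T : Ln4} {b0 b1 : V3} {G : QF}

theorem slope0 (S : StP e c w q z0 ρ) (hρ : 0 ≤ ρ) (h' : IsExp q e w T z0 ρ b0 b1 G) {ζ : ℝ}
    (hζ : 0 ≤ ζ) (hζ' : ζ ≤ 1) {P : V3}
    (hP : ∀ i, P i = dt (e i) (T.pos (z0 + ρ * ζ) - c.pos (z0 + ρ * ζ)) / w i) {a b d : ℝ}
    (h0 : |P 0 + a| ≤ 39 / 20) (h1 : |P 1 + b| ≤ 39 / 20) (h2 : |P 2 + d| ≤ 39 / 20) :
    1 / 2 ≤ (b0 0 + ζ * b1 0) + 2 * G.yy * a + G.yu * b + G.yv * d := by
  have hw0 := S.pos 0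
  have z1 : z0 ≤ z0 + ρ * ζ := by nlinarith
  have z2 : z0 + ρ * ζ ≤ z0 + ρ := by nlinarith
  have i1 := inD S T (z0 + ρ * ζ) (y := ![a - 1 / 20, b, d]) (by
    intro i; rw [← hP]; exact vec3 (sh h0) (sh0 h1) (sh0 h2) i)
  have i2 := inD S T (z0 + ρ * ζ) (y := ![a - 1 / 20 + 1 / 10, b, d]) (by
    intro i; rw [← hP]; exact vec3 (sh' h0) (sh0 h1) (sh0 h2) i)
  rw [cmb_add_zero e w _ (a - 1 / 20) b d (1 / 10)] at i2
  have := (S.st0 _ z1 z2 _ (1 / 10 * w 0) (by positivity) i1 i2).1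
  have e1 := h' ζ ![a - 1 / 20 + 1 / 10, b, d]
  have e2 := h' ζ ![a - 1 / 20, b, d]
  rw [cmb_add_zero e w _ (a - 1 / 20) b d (1 / 10)] at e1
  rw [e1, e2] at this
  have e3 : w 0 * Fq b0 b1 G ζ ![a - 1 / 20 + 1 / 10, b, d] -
      w 0 * Fq b0 b1 G ζ ![a - 1 / 20, b, d] =
      (1 / 10 * w 0) * ((b0 0 + ζ * b1 0) + 2 * G.yy * a + G.yu * b + G.yv * d) := by
    simp only [Fq, dt, bz, QF.ev, Matrix.cons_val]
    ring
  have h5 : (1 / 10 * w 0) * (1 / 2) ≤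
      (1 / 10 * w 0) * ((b0 0 + ζ * b1 0) + 2 * G.yy * a + G.yu * b + G.yv * d) := by
    linarith only [this, e3]
  exact le_of_mul_le_mul_left h5 (by positivity)

theorem slope1 (S : StP e c w q z0 ρ) (hρ : 0 ≤ ρ) (h' : IsExp q e w T z0 ρ b0 b1 G) {ζ : ℝ}
    (hζ : 0 ≤ ζ) (hζ' : ζ ≤ 1) {P : V3}
    (hP : ∀ i, P i = dt (e i) (T.pos (z0 + ρ * ζ) - c.pos (z0 + ρ * ζ)) / w i) {a b d : ℝ}
    (h0 : |P 0 + a| ≤ 39 / 20) (h1 : |P 1 + b| ≤ 39 / 20) (h2 : |P 2 + d| ≤ 39 / 20) :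
    |(b0 1 + ζ * b1 1) + 2 * G.uu * b + G.yu * a + G.uv * d| ≤ 1 := by
  have hw0 := S.pos 0
  have hw1 := S.pos 1
  have z1 : z0 ≤ z0 + ρ * ζ := by nlinarith
  have z2 : z0 + ρ * ζ ≤ z0 + ρ := by nlinarith
  have i1 := inD S T (z0 + ρ * ζ) (y := ![a, b - 1 / 20, d]) (by
    intro i; rw [← hP]; exact vec3 (sh0 h0) (sh h1) (sh0 h2) i)
  have i2 := inD S T (z0 + ρ * ζ) (y := ![a, b - 1 / 20 + 1 / 10, d]) (by
    intro i; rw [← hP]; exact vec3 (sh0 h0) (sh' h1) (sh0 h2) i)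
  rw [cmb_add_one e w _ a (b - 1 / 20) d (1 / 10)] at i2
  have := S.st1 _ z1 z2 _ (1 / 10 * w 1) (by positivity) i1 i2
  have e1 := h' ζ ![a, b - 1 / 20 + 1 / 10, d]
  have e2 := h' ζ ![a, b - 1 / 20, d]
  rw [cmb_add_one e w _ a (b - 1 / 20) d (1 / 10)] at e1
  rw [e1, e2] at this
  have e3 : q (z0 + ρ * ζ) (T.pos (z0 + ρ * ζ)) + w 0 * Fq b0 b1 G ζ ![a, b - 1 / 20 + 1 / 10, d] -
      (q (z0 + ρ * ζ) (T.pos (z0 + ρ * ζ)) + w 0 * Fq b0 b1 G ζ ![a, b - 1 / 20, d]) =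
      (1 / 10 * w 0) * ((b0 1 + ζ * b1 1) + 2 * G.uu * b + G.yu * a + G.uv * d) := by
    simp only [Fq, dt, bz, QF.ev, Matrix.cons_val]
    ring
  have e4 : w 0 / w 1 * (1 / 10 * w 1) = (1 / 10 * w 0) * 1 := by field_simp
  rw [e3, e4, abs_mul, abs_of_pos (by positivity : (0:ℝ) < 1 / 10 * w 0)] at this
  exact le_of_mul_le_mul_left this (by positivity)

theorem slope2 (S : StP e c w q z0 ρ) (hρ : 0 ≤ ρ) (h' : IsExp q e w T z0 ρ b0 b1 G) {ζ : ℝ}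
    (hζ : 0 ≤ ζ) (hζ' : ζ ≤ 1) {P : V3}
    (hP : ∀ i, P i = dt (e i) (T.pos (z0 + ρ * ζ) - c.pos (z0 + ρ * ζ)) / w i) {a b d : ℝ}
    (h0 : |P 0 + a| ≤ 39 / 20) (h1 : |P 1 + b| ≤ 39 / 20) (h2 : |P 2 + d| ≤ 39 / 20) :
    |(b0 2 + ζ * b1 2) + 2 * G.vv * d + G.yv * a + G.uv * b| ≤ 1 := by
  have hw0 := S.pos 0
  have hw2 := S.pos 2
  have z1 : z0 ≤ z0 + ρ * ζ := by nlinarith
  have z2 : z0 + ρ * ζ ≤ z0 + ρ := by nlinarith
  have i1 := inD S T (z0 + ρ * ζ) (y := ![a, b, d - 1 / 20]) (by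
    intro i; rw [← hP]; exact vec3 (sh0 h0) (sh0 h1) (sh h2) i)
  have i2 := inD S T (z0 + ρ * ζ) (y := ![a, b, d - 1 / 20 + 1 / 10]) (by
    intro i; rw [← hP]; exact vec3 (sh0 h0) (sh0 h1) (sh' h2) i)
  rw [cmb_add_two e w _ a b (d - 1 / 20) (1 / 10)] at i2
  have := S.st2 _ z1 z2 _ (1 / 10 * w 2) (by positivity) i1 i2
  have e1 := h' ζ ![a, b, d - 1 / 20 + 1 / 10]
  have e2 := h' ζ ![a, b, d - 1 / 20]
  rw [cmb_add_two e w _ a b (d - 1 / 20) (1 / 10)] at e1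
  rw [e1, e2] at this
  have e3 : q (z0 + ρ * ζ) (T.pos (z0 + ρ * ζ)) + w 0 * Fq b0 b1 G ζ ![a, b, d - 1 / 20 + 1 / 10] -
      (q (z0 + ρ * ζ) (T.pos (z0 + ρ * ζ)) + w 0 * Fq b0 b1 G ζ ![a, b, d - 1 / 20]) =
      (1 / 10 * w 0) * ((b0 2 + ζ * b1 2) + 2 * G.vv * d + G.yv * a + G.uv * b) := by
    simp only [Fq, dt, bz, QF.ev, Matrix.cons_val]
    ring
  have e4 : w 0 / w 2 * (1 / 10 * w 2) = (1 / 10 * w 0) * 1 := by field_simp
  rw [e3, e4, abs_mul, abs_of_pos (by positivity : (0:ℝ) < 1 / 10 * w 0)] at this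
  exact le_of_mul_le_mul_left this (by positivity)

/-- components of `kap` -/
theorem kap_comp (b0 b1 : V3) (G : QF) : |shB1 b0 b1 1| ≤ kap b0 b1 G ∧
    |shB1 b0 b1 2| ≤ kap b0 b1 G ∧ |(shG b0 G).uu| ≤ kap b0 b1 G ∧
    |(shG b0 G).uv| ≤ kap b0 b1 G ∧ |(shG b0 G).vv| ≤ kap b0 b1 G := by
  unfold kap
  refine ⟨?_, ?_, ?_, ?_, ?_⟩ <;> simp

/-- **the sheet stays near the tangent plane at the line `T`, on the whole box** -/
theorem tan_le (S : StP e c w q z0 ρ) (hρ : 0 ≤ ρ) (hb : NrmC b0 b1 G)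
    (h' : IsExp q e w T z0 ρ b0 b1 G) {ζ : ℝ} (hζ : 0 ≤ ζ) (hζ' : ζ ≤ 1)
    (hT : InK e c w (z0 + ρ * ζ) (T.pos (z0 + ρ * ζ))) {X x : V3}
    (hX : ∀ i, |dt (e i) (X - c.pos (z0 + ρ * ζ))| ≤ 9 / 8 * w i)
    (hx : ∀ i, x i = dt (e i) (X - T.pos (z0 + ρ * ζ)) / w i) :
    |b0 0 * x 0 + b0 1 * x 1 + b0 2 * x 2| ≤ 40 * |Fq b0 b1 G ζ x| + 900 * kap b0 b1 G := by
  obtain ⟨kb1, kb2, kuu, kuv, kvv⟩ := kap_comp b0 b1 G
  set κ := kap b0 b1 G with hκdef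
  have hκ0 : 0 ≤ κ := (abs_nonneg _).trans kb1
  -- sizes
  have hb0 := hb.st 0 le_rfl zero_le_one 0 0 0 (by norm_num) (by norm_num) (by norm_num)
  simp only [zero_mul, mul_zero, add_zero] at hb0
  obtain ⟨hb01, hb02⟩ := hb0
  have hbp : 0 < b0 0 := by linarith
  set P : V3 := fun i => dt (e i) (T.pos (z0 + ρ * ζ) - c.pos (z0 + ρ * ζ)) / w i with hP
  have hP1 : ∀ i, |P i| ≤ 1 := by
    intro i
    simp only [hP]
    rw [abs_div, abs_of_pos (S.pos i), div_le_one (S.pos i)]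
    exact hT i
  have hPx : ∀ i, |P i + x i| ≤ 9 / 8 := by
    intro i
    have e1 : P i + x i = dt (e i) (X - c.pos (z0 + ρ * ζ)) / w i := by
      rw [hx i]
      simp only [hP]
      rw [← add_div, ← dt_add]
      congr 2
      abel
    rw [e1, abs_div, abs_of_pos (S.pos i), div_le_iff₀ (S.pos i)]
    exact hX i
  have hxi : ∀ i, |x i| ≤ 17 / 8 := by
    intro i
    have h1 := abs_le.1 (hP1 i)
    have h2 := abs_le.1 (hPx i)
    rw [abs_le]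
    constructor
    · linarith [h1.2, h2.1]
    · linarith [h1.1, h2.2]
  by_cases hk : κ ≤ 1 / 100
  · have hbr := branch (β := b0 0 + ζ * b1 0) (β1 := b0 1 + ζ * b1 1) (β2 := b0 2 + ζ * b1 2)
      (A := G.yy) (yu := G.yu) (yv := G.yv) (uu := G.uu) (uv := G.uv) (vv := G.vv)
      (s1 := b0 1 / b0 0) (s2 := b0 2 / b0 0) (κ := κ) (hP1 0) (hP1 1) (hP1 2) (hPx 0) (hPx 1)
      (hPx 2) (fun a b d h0 h1 h2 => slope0 S hρ h' hζ hζ' (fun _ => rfl) h0 h1 h2)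
      (fun a b d h0 h1 h2 => slope1 S hρ h' hζ hζ' (fun _ => rfl) h0 h1 h2)
      (fun a b d h0 h1 h2 => slope2 S hρ h' hζ hζ' (fun _ => rfl) h0 h1 h2)
      kuu kuv kvv hk
    set y := x 0 + b0 1 / b0 0 * x 1 + b0 2 / b0 0 * x 2 with hy
    set Φ := b0 0 + ζ * b1 0 + (2 * G.yy * x 0 + G.yu * x 1 + G.yv * x 2) - G.yy * y with hΦ
    have hF : Fq b0 b1 G ζ x = y * Φ + (ζ * (shB1 b0 b1 1 * x 1 + shB1 b0 b1 2 * x 2) +
        ((shG b0 G).uu * x 1 ^ 2 + (shG b0 G).uv * (x 1 * x 2) + (shG b0 G).vv * x 2 ^ 2)) := by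
      simp only [Fq, dt, bz, QF.ev, shB1, shG, hΦ, hy, Matrix.cons_val]
      field_simp
      ring
    have l1 := lat_le kuu kuv kvv (hxi 1) (hxi 2)
    have l2 : |ζ * (shB1 b0 b1 1 * x 1 + shB1 b0 b1 2 * x 2)| ≤ 17 / 4 * κ := by
      rw [abs_mul, abs_of_nonneg hζ]
      have g1 : |shB1 b0 b1 1 * x 1| ≤ κ * (17 / 8) := by
        rw [abs_mul]; exact mul_le_mul kb1 (hxi 1) (abs_nonneg _) hκ0
      have g2 : |shB1 b0 b1 2 * x 2| ≤ κ * (17 / 8) := by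
        rw [abs_mul]; exact mul_le_mul kb2 (hxi 2) (abs_nonneg _) hκ0
      have g3 := abs_add_le (shB1 b0 b1 1 * x 1) (shB1 b0 b1 2 * x 2)
      have g4 := abs_nonneg (shB1 b0 b1 1 * x 1 + shB1 b0 b1 2 * x 2)
      nlinarith
    have l3 : |y * Φ| ≤ |Fq b0 b1 G ζ x| + 20 * κ := by
      have e1 : y * Φ = Fq b0 b1 G ζ x - (ζ * (shB1 b0 b1 1 * x 1 + shB1 b0 b1 2 * x 2) +
        ((shG b0 G).uu * x 1 ^ 2 + (shG b0 G).uv * (x 1 * x 2) + (shG b0 G).vv * x 2 ^ 2)) := by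
        rw [hF]; ring
      rw [e1]
      refine (abs_sub _ _).trans ?_
      have := abs_add_le (ζ * (shB1 b0 b1 1 * x 1 + shB1 b0 b1 2 * x 2))
        ((shG b0 G).uu * x 1 ^ 2 + (shG b0 G).uv * (x 1 * x 2) + (shG b0 G).vv * x 2 ^ 2)
      linarith
    have l4 : |y| * (1 / 20) ≤ |y * Φ| := by
      rw [abs_mul]; exact mul_le_mul_of_nonneg_left hbr (abs_nonneg _)
    have e2 : b0 0 * x 0 + b0 1 * x 1 + b0 2 * x 2 = b0 0 * y := by
      rw [hy]; field_simp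
    rw [e2, abs_mul, abs_of_pos hbp]
    have l5 : b0 0 * |y| ≤ 2 * |y| := mul_le_mul_of_nonneg_right hb02 (abs_nonneg _)
    linarith
  · push Not at hk
    have g0 : |b0 0 * x 0| ≤ 2 * (17 / 8) := by
      rw [abs_mul, abs_of_pos hbp]; exact mul_le_mul hb02 (hxi 0) (abs_nonneg _) (by norm_num)
    have g1 : |b0 1 * x 1| ≤ 1 * (17 / 8) := by
      rw [abs_mul]; exact mul_le_mul hb.b01 (hxi 1) (abs_nonneg _) (by norm_num)
    have g2 : |b0 2 * x 2| ≤ 1 * (17 / 8) := by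
      rw [abs_mul]; exact mul_le_mul hb.b02 (hxi 2) (abs_nonneg _) (by norm_num)
    have g3 := abs_add_le (b0 0 * x 0 + b0 1 * x 1) (b0 2 * x 2)
    have g4 := abs_add_le (b0 0 * x 0) (b0 1 * x 1)
    have g5 := abs_nonneg (Fq b0 b1 G ζ x)
    linarith

end

end Crest.Agent.R136.Brn104
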