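import Mathlib.Analysis.SpecialFunctions.Pow.Real
import Mathlib.Tactic

/-!
# R136, PLAN 2 (AL): the exponent calculus `H ≥ (2 W)^K` (helper624)

All numbers of (AL) have the form `c * (2 W)^k * H^x ≤ H^y`; they hold for `H ≥ (2 W)^K` as soon as
`x + (k + k') / K ≤ y`, `c ≤ 2^k'`.

* `beat`      : `(2 W)^k * H^x ≤ H^y`;
* `beat_c`    : `c * ((2 W)^k * H^x) ≤ H^y` for `c ≤ 2^k'`;
* `beat_log`  : `c * ((2 W)^k * H^x * log H) ≤ H^y`;
* `exists_K`  : finitely many gaps: one `K` for all;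
* `exists_pow_ge` : every real `c` is `≤ 2^k'`;
* `scales`    : order of the constants: `c0, q > 0`, `qp0 ≤ c0 q / 2`, a loss `A` (from `m, λ ≤ H^(-A c3)`
  and `Z = H^(A (m + λ)-exponents)`) ⊢ `c3, ε` with all gaps.
-/

set_option autoImplicit false

namespace Crest.Agent.R136.Bt624

theorem one_le_H {W H K : ℝ} (hW : 1 ≤ W) (hK : 0 ≤ K) (hH : (2 * W) ^ K ≤ H) : 1 ≤ H :=
  le_trans (Real.one_le_rpow (by linarith) hK) hH

/-- a power of `2 W` is a small power of `H` -/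
theorem pow_W {W H K k : ℝ} (hW : 1 ≤ W) (hK : 0 < K) (hk : 0 ≤ k) (hH : (2 * W) ^ K ≤ H) :
    (2 * W) ^ k ≤ H ^ (k / K) := by
  have h0 : (0:ℝ) < 2 * W := by linarith
  have h1 : (2 * W) ^ k = ((2 * W) ^ K) ^ (k / K) := by
    rw [← Real.rpow_mul h0.le]
    congr 1
    field_simp
  rw [h1]
  exact Real.rpow_le_rpow (Real.rpow_nonneg h0.le _) hH (by positivity)

theorem beat {W H K k x y : ℝ} (hW : 1 ≤ W) (hK : 0 < K) (hk : 0 ≤ k) (hH : (2 * W) ^ K ≤ H)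
    (h : x + k / K ≤ y) : (2 * W) ^ k * H ^ x ≤ H ^ y := by
  have h1 : 1 ≤ H := one_le_H hW hK.le hH
  have h2 : (0:ℝ) < H := by linarith
  calc (2 * W) ^ k * H ^ x ≤ H ^ (k / K) * H ^ x :=
        mul_le_mul_of_nonneg_right (pow_W hW hK hk hH) (Real.rpow_nonneg h2.le _)
    _ = H ^ (k / K + x) := by rw [Real.rpow_add h2]
    _ ≤ H ^ y := Real.rpow_le_rpow_of_exponent_le h1 (by linarith)

theorem beat_c {W H K k k' x y c : ℝ} (hW : 1 ≤ W) (hK : 0 < K) (hk : 0 ≤ k) (hk' : 0 ≤ k')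
    (hH : (2 * W) ^ K ≤ H) (hc : c ≤ 2 ^ k') (h : x + (k + k') / K ≤ y) :
    c * ((2 * W) ^ k * H ^ x) ≤ H ^ y := by
  have h0 : (0:ℝ) < 2 * W := by linarith
  have h1 : 1 ≤ H := one_le_H hW hK.le hH
  have h2 : (2:ℝ) ^ k' ≤ (2 * W) ^ k' := Real.rpow_le_rpow (by norm_num) (by linarith) hk'
  calc c * ((2 * W) ^ k * H ^ x) ≤ (2 * W) ^ k' * ((2 * W) ^ k * H ^ x) :=
        mul_le_mul_of_nonneg_right (hc.trans h2) (by positivity)
    _ = (2 * W) ^ (k + k') * H ^ x := by rw [Real.rpow_add h0]; ring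
    _ ≤ H ^ y := beat hW hK (by linarith) hH h

/-- strict version (used with `64 (X^4 Q Z) < Y`) -/
theorem beat_lt {W H K k k' x y c : ℝ} (hW : 1 ≤ W) (hK : 0 < K) (hk : 0 ≤ k) (hk' : 0 ≤ k')
    (hH : (2 * W) ^ K ≤ H) (hc : c < 2 ^ k') (h : x + (k + k') / K ≤ y) :
    c * ((2 * W) ^ k * H ^ x) < H ^ y := by
  have h0 : (0:ℝ) < 2 * W := by linarith
  have h1 : 1 ≤ H := one_le_H hW hK.le hH
  have h2 : (2:ℝ) ^ k' ≤ (2 * W) ^ k' := Real.rpow_le_rpow (by norm_num) (by linarith) hk'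
  have h3 : 0 < (2 * W) ^ k * H ^ x := by positivity
  calc c * ((2 * W) ^ k * H ^ x) < (2 * W) ^ k' * ((2 * W) ^ k * H ^ x) :=
        mul_lt_mul_of_pos_right (lt_of_lt_of_le hc h2) h3
    _ = (2 * W) ^ (k + k') * H ^ x := by rw [Real.rpow_add h0]; ring
    _ ≤ H ^ y := beat hW hK (by linarith) hH h

theorem beat_log {W H K k k' x y c δ : ℝ} (hW : 1 ≤ W) (hK : 0 < K) (hk : 0 ≤ k) (hk' : 0 ≤ k')
    (hδ : 0 < δ) (hH : (2 * W) ^ K ≤ H) (hc0 : 0 ≤ c) (hc : c / δ ≤ 2 ^ k')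
    (h : x + δ + (k + k') / K ≤ y) :
    c * ((2 * W) ^ k * H ^ x * Real.log H) ≤ H ^ y := by
  have h1 : 1 ≤ H := one_le_H hW hK.le hH
  have h2 : (0:ℝ) < H := by linarith
  have h3 : Real.log H ≤ H ^ δ / δ := Real.log_le_rpow_div h2.le hδ
  have h4 : 0 ≤ (2 * W) ^ k * H ^ x := by
    have : (0:ℝ) < 2 * W := by linarith
    positivity
  calc c * ((2 * W) ^ k * H ^ x * Real.log H) ≤ c * ((2 * W) ^ k * H ^ x * (H ^ δ / δ)) :=
        mul_le_mul_of_nonneg_left (mul_le_mul_of_nonneg_left h3 h4) hc0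
    _ = (c / δ) * ((2 * W) ^ k * H ^ (x + δ)) := by rw [Real.rpow_add h2]; ring
    _ ≤ H ^ y := beat_c hW hK hk hk' hH hc (by linarith)

/-- every constant is a power of two -/
theorem exists_pow_ge (c : ℝ) : ∃ k' : ℝ, 0 ≤ k' ∧ c ≤ 2 ^ k' := by
  obtain ⟨n, hn⟩ := pow_unbounded_of_one_lt c (by norm_num : (1:ℝ) < 2)
  exact ⟨n, by positivity, by rw [Real.rpow_natCast]; exact hn.le⟩

theorem exists_pow_gt (c : ℝ) : ∃ k' : ℝ, 0 ≤ k' ∧ c < 2 ^ k' := by
  obtain ⟨n, hn⟩ := pow_unbounded_of_one_lt c (by norm_num : (1:ℝ) < 2)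
  exact ⟨n, by positivity, by rw [Real.rpow_natCast]; exact hn⟩

/-- a power of `2` is at most the same power of `2 W` -/
theorem two_le {W k' c : ℝ} (hW : 1 ≤ W) (hk' : 0 ≤ k') (hc : c ≤ 2 ^ k') : c ≤ (2 * W) ^ k' :=
  hc.trans (Real.rpow_le_rpow (by norm_num) (by linarith) hk')

/-- one `K` for finitely many gaps -/
theorem exists_K (l : List (ℝ × ℝ)) (h : ∀ p ∈ l, 0 ≤ p.1 ∧ 0 < p.2) :
    ∃ K : ℝ, 1 ≤ K ∧ ∀ K' : ℝ, K ≤ K' → ∀ p ∈ l, p.1 / K' ≤ p.2 := by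
  induction l with
  | nil => exact ⟨1, le_rfl, fun _ _ p hp => absurd hp (by simp)⟩
  | cons a l ih =>
    obtain ⟨K, hK, hK'⟩ := ih fun p hp => h p (List.mem_cons_of_mem _ hp)
    have ha := h a (List.mem_cons_self)
    refine ⟨max K (a.1 / a.2), hK.trans (le_max_left _ _), fun K' hK2 p hp => ?_⟩
    have hK3 : 0 < K' := lt_of_lt_of_le (by linarith) ((le_max_left _ _).trans hK2)
    rcases List.mem_cons.1 hp with rfl | hp
    · rw [div_le_iff₀ hK3]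
      have : p.1 / p.2 ≤ K' := (le_max_right _ _).trans hK2
      rw [div_le_iff₀ ha.2] at this
      linarith
    · exact hK' K' ((le_max_left _ _).trans hK2) p hp

/-- **order of the constants**: `c0` (gain of the capture), `q` (dimension gain), `p` (loss of the
hull, `p ≤ c0 q / 4`), `A` (all algebraic losses) ⊢ `c3` (wedge), `ε` (KM) with all gaps. -/
theorem scales {c0 q p A : ℝ} (hc0 : 0 < c0) (hq : 0 < q) (hp : p ≤ c0 * q / 4) (hA : 1 ≤ A) :
    ∃ c3 ε : ℝ, 0 < c3 ∧ 0 < ε ∧ c3 ≤ c0 ∧ ε ≤ c3 ∧ A * ε ≤ c3 * q / 4 ∧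
      p + A * c3 + A * ε + c0 * q / 4 ≤ c0 * q := by
  have hmin : 0 < min 1 q := lt_min one_pos hq
  refine ⟨c0 * min 1 q / (8 * A), c0 * min 1 q / (8 * A) * min 1 q / (4 * A), by positivity,
    by positivity, ?_, ?_, ?_, ?_⟩
  · rw [div_le_iff₀ (by positivity)]
    have : min 1 q ≤ 1 := min_le_left _ _
    nlinarith
  · rw [div_le_iff₀ (by positivity)]
    have : min 1 q ≤ 1 := min_le_left _ _
    have h2 : 0 ≤ c0 * min 1 q / (8 * A) := by positivity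
    nlinarith
  · have h2 : 0 ≤ c0 * min 1 q / (8 * A) := by positivity
    have e : A * (c0 * min 1 q / (8 * A) * min 1 q / (4 * A)) =
        c0 * min 1 q / (8 * A) * min 1 q / 4 := by field_simp
    rw [e]
    have : min 1 q ≤ q := min_le_right _ _
    have := mul_le_mul_of_nonneg_left this h2
    linarith
  · have e1 : A * (c0 * min 1 q / (8 * A)) = c0 * min 1 q / 8 := by field_simp
    have e2 : A * (c0 * min 1 q / (8 * A) * min 1 q / (4 * A)) =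
        c0 * min 1 q / (8 * A) * min 1 q / 4 := by field_simp
    rw [e1, e2]
    have h1 : min 1 q ≤ q := min_le_right _ _
    have h2 : min 1 q ≤ 1 := min_le_left _ _
    have h3 : c0 * min 1 q / (8 * A) ≤ c0 * min 1 q / 8 := by
      apply div_le_div_of_nonneg_left (by positivity) (by norm_num) (by linarith)
    have h4 : c0 * min 1 q / (8 * A) * min 1 q ≤ c0 * min 1 q / 8 := by
      have h5 : 0 ≤ c0 * min 1 q / (8 * A) := by positivity
      nlinarith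
    have h6 : c0 * min 1 q ≤ c0 * q := mul_le_mul_of_nonneg_left h1 hc0.le
    have h7 : 0 < c0 * q := by positivity
    have h8 : 0 < c0 * min 1 q := by positivity
    linarith

end Crest.Agent.R136.Bt624
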