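import Crest.Agent.R136.Pl2B_860

/-!
# R136 (S0187), PLAN 2, (B6): small monotonicity lemmas for the assembly of `BT` (helper781)

* `Two1.swap`, `Two1.mono`; `CloseC.mono`; `FH.mono`, `FL.mono`; `dy_conv` : the same pair of frames
  at the smaller thickness, same base tilt `2 ^ j`.
-/

set_option autoImplicit false
set_option linter.unusedVariables false

open Finset

namespace Crest.Agent.R136.Btm781

open Crest.Agent.R136.Sh605 Crest.Agent.R136.Fl808 Crest.Agent.R136.Pl2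
open Crest.Agent.R136.K4 (Plk4)
open Crest.Agent.R136.Tlt51 (Shp InP)
open Crest.Agent.R136.Phc248 (ph phC phC_nonneg)
open Crest.Agent.R136.Deep51 (CloseC)
open Crest.Agent.R136.KapP335 (kapP expP DetP)
open Crest.Agent.R136.Tl102 (angC)
open Crest.Agent.R136.Pl2W102 (Near Ex2 Two1)

variable {qm qp : Fin 3 → ℝ} {L : ℕ → Ln4} {P : Finset ℕ} {cu cv : ℕ → ℕ} {Uf Vf : ℕ → Plk4}
  {W M a w1 w2 z0 ρ r : ℝ}

/-- exchange of the two systems -/
theorem Two1.swap (H : Two1 qm qp L P cu cv Uf Vf W M a w1 w2 z0 ρ r) :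
    Two1 qm qp L P cv cu Vf Uf W M a w1 w2 z0 ρ r where
  W1 := H.W1
  M0 := H.M0
  r0 := H.r0
  ρ0 := H.ρ0
  a0 := H.a0
  w10 := H.w10
  w20 := H.w20
  w1ρ := H.w1ρ
  lg := H.lg
  vel := H.vel
  shU := H.shV
  shV := H.shU
  inU := H.inV
  inV := H.inU
  dimU := H.dimV
  dimV := H.dimU
  fullU := H.fullV
  fullV := H.fullU
  dmax := H.dmax

theorem near_mono {W W' x y : ℝ} (h : Near W x y) (hW : W ≤ W') (hx : 0 ≤ x) (hy : 0 ≤ y) :
    Near W' x y :=
  ⟨h.1.trans (mul_le_mul_of_nonneg_right hW hy), h.2.trans (mul_le_mul_of_nonneg_right hW hx)⟩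

theorem shp_pos {S : Plk4} (hr : 0 < r) (h : Shp S z0 ρ r) :
    0 < S.a ∧ 0 < S.w 0 ∧ 0 < S.w 2 ∧ 0 < S.w 1 := by
  have h1 : 0 < S.a := hr.trans_le h.r0_le
  have h2 : 0 < S.w 0 := h1.trans_le h.a_le0
  have h3 : 0 < S.w 2 := h2.trans_le h.w0_le
  exact ⟨h1, h2, h3, h3.trans_le h.w_le⟩

/-- larger `W` -/
theorem Two1.mono (H : Two1 qm qp L P cu cv Uf Vf W M a w1 w2 z0 ρ r) {W' : ℝ} (hW : W ≤ W') :
    Two1 qm qp L P cu cv Uf Vf W' M a w1 w2 z0 ρ r where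
  W1 := H.W1.trans hW
  M0 := H.M0
  r0 := H.r0
  ρ0 := H.ρ0
  a0 := H.a0
  w10 := H.w10
  w20 := H.w20
  w1ρ := H.w1ρ.trans (mul_le_mul_of_nonneg_right hW H.ρ0.le)
  lg := H.lg.trans hW
  vel := H.vel
  shU := H.shU
  shV := H.shV
  inU := H.inU
  inV := H.inV
  dimU := fun t ht => by
    obtain ⟨p1, -, p2, p3⟩ := shp_pos H.r0 (H.shU t ht)
    obtain ⟨n1, n2, n3⟩ := H.dimU t ht
    exact ⟨near_mono n1 hW H.a0.le p1.le, near_mono n2 hW H.w10.le p3.le,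
      near_mono n3 hW H.w20.le p2.le⟩
  dimV := fun t ht => by
    obtain ⟨p1, -, p2, p3⟩ := shp_pos H.r0 (H.shV t ht)
    obtain ⟨n1, n2, n3⟩ := H.dimV t ht
    exact ⟨near_mono n1 hW H.a0.le p1.le, near_mono n2 hW H.w10.le p3.le,
      near_mono n3 hW H.w20.le p2.le⟩
  fullU := fun t ht => (H.fullU t ht).trans (mul_le_mul_of_nonneg_right hW (Nat.cast_nonneg _))
  fullV := fun t ht => (H.fullV t ht).trans (mul_le_mul_of_nonneg_right hW (Nat.cast_nonneg _))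
  dmax := fun S hS hw => by
    classical
    obtain ⟨p1, -, p2, p3⟩ := shp_pos H.r0 hS
    have hφ := phC_nonneg (qm := qm) (qp := qp) H.a0.le H.w10.le H.w20.le p1.le p3.le p2.le
    exact (H.dmax S hS hw).trans
      (mul_le_mul_of_nonneg_right (mul_le_mul_of_nonneg_right hW H.M0.le) hφ)

theorem CloseC.mono {e : Fin 3 → V3} {w : V3} {q : ℝ → V3 → ℝ} {a' : ℝ} {q' : ℝ → V3 → ℝ}
    {E E' : ℝ} {T : Ln4} (h : CloseC e w q a' q' E T z0 ρ) (hE : E ≤ E') :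
    CloseC e w q a' q' E' T z0 ρ :=
  fun z h1 h2 x h3 h4 => (h z h1 h2 x h3 h4).trans hE

/-- `FH` is monotone in `C` and `Y` -/
theorem FH.mono {C C' Y Y' : ℝ} {S : Plk4} {f : Fin 3 → V3} (h : FH C Y S f z0 ρ) (h0 : 0 ≤ C)
    (hY0 : 0 ≤ Y) (hC : C ≤ C') (hY : Y ≤ Y') (hw1 : 0 ≤ S.w 1) (hw2 : 0 ≤ S.w 2) :
    FH C' Y' S f z0 ρ := by
  have k1 : C * Y ≤ C' * Y' := mul_le_mul hC hY hY0 (h0.trans hC)
  have k2 : C * S.w 2 ≤ C' * S.w 2 := mul_le_mul_of_nonneg_right hC hw2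
  have k3 : C * S.w 1 ≤ C' * S.w 1 := mul_le_mul_of_nonneg_right hC hw1
  refine ⟨h.ortho, h.e01.trans k2, h.e10.trans k2, h.e12.trans k2, h.e21.trans k2,
    h.e00.trans (mul_le_mul_of_nonneg_right hC (abs_nonneg _)), ?_, ?_⟩
  · intro t t' ht ht' z hz hz' i
    have := h.box t t' ht ht' z hz hz' i
    fin_cases i
    · simpa using this.trans (by simpa using k1)
    · simpa using this.trans (by simpa using k3)
    · simpa using this.trans (by simpa using k2)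
  · intro T hT z hz hz' x hx hq
    exact (h.pt T hT z hz hz' x hx hq).trans k1

/-- `FL` at a larger thickness -/
theorem FL.mono {C k Y : ℝ} {S : Plk4} {f : Fin 3 → V3} (h : FL C Y S f z0 ρ) (h0 : 0 ≤ C)
    (hk : 1 ≤ k) (hw1 : 0 ≤ S.w 1) (hw2 : 0 ≤ S.w 2) : FL (C * k) (k * Y) S f z0 ρ := by
  intro T hT
  obtain ⟨b0, h1, h2, h3⟩ := h T hT
  have hb0 : 0 ≤ b0 := by
    by_contra hc
    push Not at hc
    nlinarith
  have hk0 : 0 ≤ k := by linarith
  refine ⟨b0, ?_, ?_, ?_⟩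
  · have : C * b0 ≤ C * k * b0 := by
      have := mul_le_mul_of_nonneg_right (le_mul_of_one_le_right h0 hk) hb0
      exact this
    linarith
  · exact h2.trans (le_mul_of_one_le_right h0 hk)
  · intro m hm z hz hz' x x0 x1 x2
    have hm0 : 0 ≤ m := by linarith
    have hmk : m ≤ m * k := le_mul_of_one_le_right hm0 hk
    have := h3 (m * k) (by nlinarith) z hz hz' x (by rw [mul_assoc]; exact x0)
      (x1.trans (mul_le_mul_of_nonneg_right hmk hw1))
      (x2.trans (mul_le_mul_of_nonneg_right hmk hw2))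
    refine this.trans (le_of_eq ?_)
    ring

theorem FL.mono' {C C' Y : ℝ} {S : Plk4} {f : Fin 3 → V3} (h : FL C Y S f z0 ρ) (h0 : 0 ≤ C)
    (hC : C ≤ C') (hY : 0 ≤ Y) : FL C' Y S f z0 ρ := by
  intro T hT
  obtain ⟨b0, h1, h2, h3⟩ := h T hT
  have hb0 : 0 ≤ b0 := by
    by_contra hc
    push Not at hc
    nlinarith
  refine ⟨b0, h1.trans (mul_le_mul_of_nonneg_right hC hb0), h2.trans hC, ?_⟩
  intro m hm z hz hz' x x0 x1 x2
  refine (h3 m hm z hz hz' x x0 x1 x2).trans ?_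
  exact mul_le_mul_of_nonneg_right (mul_le_mul_of_nonneg_right hC (sq_nonneg m)) hY

/-- **change of the thickness in `Dy`** : from `k * Y` to `Y`, same `j`; the new thickness tilt is
at least `k 2^k' / (2 k) ..` in the sense `2^k' * (k * Y) ≤ 2 * k * (2^k'' * Y)`. -/
theorem dy_conv {e e' : Fin 3 → V3} {k Y v1 v2 : ℝ} {j k' : ℕ} (H : Dy e e' (k * Y) v1 v2 j k')
    (hk : 1 ≤ k) (hY : 0 < Y) :
    ∃ k'' : ℕ, Dy e e' Y v1 v2 j k'' ∧ (2:ℝ) ^ k' ≤ 2 * (2:ℝ) ^ k'' ∧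
      (2:ℝ) ^ k' * (k * Y) ≤ 2 * k * ((2:ℝ) ^ k'' * Y) := by
  have hj : (0:ℝ) < 2 ^ j * Y := by positivity
  obtain ⟨k'', h3, h4⟩ := exists_pow
    (x := max (max (|dt (e' 1) (e 0)| * v1) (2 ^ j * (|dt (e' 2) (e 0)| * v2)))
      (max (|dt (e' 0) (e 1)| * v1) (2 ^ j * (|dt (e' 0) (e 2)| * v2))) / (2 ^ j * Y))
  rw [div_le_iff₀ hj] at h3
  set m := max (max (|dt (e' 1) (e 0)| * v1) (2 ^ j * (|dt (e' 2) (e 0)| * v2)))
    (max (|dt (e' 0) (e 1)| * v1) (2 ^ j * (|dt (e' 0) (e 2)| * v2))) with hm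
  have m1 : |dt (e' 1) (e 0)| * v1 ≤ m := (le_max_left _ _).trans (le_max_left _ _)
  have m2 : 2 ^ j * (|dt (e' 2) (e 0)| * v2) ≤ m := (le_max_right _ _).trans (le_max_left _ _)
  have m3 : |dt (e' 0) (e 1)| * v1 ≤ m := (le_max_left _ _).trans (le_max_right _ _)
  have m4 : 2 ^ j * (|dt (e' 0) (e 2)| * v2) ≤ m := (le_max_right _ _).trans (le_max_right _ _)
  have hD : Dy e e' Y v1 v2 j k'' := by
    refine ⟨H.b21, H.b01, H.blo, m1.trans h3, m2.trans h3, m3.trans h3, m4.trans h3, ?_⟩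
    rcases h4 with h4 | h4
    · exact Or.inl h4
    · right
      have h5 : (2:ℝ) ^ k'' * (2 ^ j * Y) ≤ 2 * m := by
        have := mul_le_mul_of_nonneg_right h4 hj.le
        have e5 : 2 * (m / (2 ^ j * Y)) * (2 ^ j * Y) = 2 * m := by field_simp
        linarith
      rcases max_choice (max (|dt (e' 1) (e 0)| * v1) (2 ^ j * (|dt (e' 2) (e 0)| * v2)))
        (max (|dt (e' 0) (e 1)| * v1) (2 ^ j * (|dt (e' 0) (e 2)| * v2))) with h6 | h6
      · rw [hm, h6] at h5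
        rcases max_choice (|dt (e' 1) (e 0)| * v1) (2 ^ j * (|dt (e' 2) (e 0)| * v2)) with h7 | h7
        · rw [h7] at h5; exact Or.inl h5
        · rw [h7] at h5; exact Or.inr (Or.inl h5)
      · rw [hm, h6] at h5
        rcases max_choice (|dt (e' 0) (e 1)| * v1) (2 ^ j * (|dt (e' 0) (e 2)| * v2)) with h7 | h7
        · rw [h7] at h5; exact Or.inr (Or.inr (Or.inl h5))
        · rw [h7] at h5; exact Or.inr (Or.inr (Or.inr h5))
  have h2k : (1:ℝ) ≤ 2 ^ k'' := one_le_pow₀ (by norm_num)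
  -- lower bound of the old tilt
  have hlow : (2:ℝ) ^ k' * (k * Y) ≤ 2 * k * ((2:ℝ) ^ k'' * Y) ∧ (2:ℝ) ^ k' ≤ 2 * (2:ℝ) ^ k'' := by
    rcases H.tlo with h | h
    · subst h
      rw [pow_zero, one_mul]
      have hkY : 0 ≤ k * Y := by positivity
      constructor
      · nlinarith
      · linarith
    · have h8 : (2:ℝ) ^ k' * (2 ^ j * (k * Y)) ≤ 2 * m := by
        rcases h with h | h | h | h
        · exact h.trans (by linarith)
        · exact h.trans (by linarith)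
        · exact h.trans (by linarith)
        · exact h.trans (by linarith)
      have h9 : (2:ℝ) ^ k' * (2 ^ j * (k * Y)) ≤ 2 * (2 ^ k'' * (2 ^ j * Y)) := by linarith
      have hj1 : (0:ℝ) < 2 ^ j := by positivity
      have h10 : (2:ℝ) ^ k' * (k * Y) ≤ 2 * (2 ^ k'' * Y) := by
        have e1 : (2:ℝ) ^ k' * (2 ^ j * (k * Y)) = 2 ^ j * (2 ^ k' * (k * Y)) := by ring
        have e2 : (2:ℝ) * (2 ^ k'' * (2 ^ j * Y)) = 2 ^ j * (2 * (2 ^ k'' * Y)) := by ring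
        rw [e1, e2] at h9
        exact le_of_mul_le_mul_left h9 hj1
      have hp : 0 ≤ (2:ℝ) ^ k'' * Y := by positivity
      constructor
      · nlinarith
      · have e3 : (2:ℝ) ^ k' * Y ≤ 2 ^ k' * (k * Y) := by
          have : Y ≤ k * Y := le_mul_of_one_le_left hY.le hk
          exact mul_le_mul_of_nonneg_left this (by positivity)
        have e4 : (2:ℝ) ^ k' * Y ≤ (2 * 2 ^ k'') * Y := by linarith
        exact le_of_mul_le_mul_right e4 hY
  exact ⟨k'', hD, hlow.2, hlow.1⟩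

end Crest.Agent.R136.Btm781
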