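import Crest.Agent.R136.Fl3_808

/-!
# R136 (S0187), U4 PLAN 2, leaf L5: the hull of a two-step path of tilted boxes (helper706)

`e` = frame of `S`, `f0`, `f` = frames of two boxes adjacent to `S`, `g` = frame of a box adjacent to
the second one; `0` = normal axis, `1` = wide axis, `2` = narrow axis; boxes
`InB t l e ![Y, w1, w2] z0 ρ`. Every line of the last box lies in ONE box with the frame `rotN e c s`
(the rotation of `e` about `e 1` which puts `f0 1` into the plane of the axes `1, 2`).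
-/

set_option autoImplicit false
set_option linter.unusedVariables false

namespace Crest.Agent.R136.Hl706

open Finset Crest.Agent.R136.Sh605 Crest.Agent.R136.Fl808

/-- determinant of three vectors -/
def det3 (a b c : V3) : ℝ :=
  a 0 * (b 1 * c 2 - b 2 * c 1) - a 1 * (b 0 * c 2 - b 2 * c 0) + a 2 * (b 0 * c 1 - b 1 * c 0)

/-- cross product -/
def cr (a b : V3) : V3 := ![a 1 * b 2 - a 2 * b 1, a 2 * b 0 - a 0 * b 2, a 0 * b 1 - a 1 * b 0]

/-- the determinant of the shadows of `u`, `v` on the axes `2, 0` of `e` -/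
def sh (e : Fin 3 → V3) (u v : V3) : ℝ := dt (e 2) u * dt (e 0) v - dt (e 0) u * dt (e 2) v

theorem cr_frame {e : Fin 3 → V3} (h : Ortho e) :
    ∃ s : ℝ, s ^ 2 = 1 ∧ cr (e 2) (e 0) = s • e 1 := by
  refine ⟨dt (cr (e 2) (e 0)) (e 1), ?_, ?_⟩
  · have h00 := h 0 0
    have h22 := h 2 2
    have h20 := h 2 0
    simp only [if_true, Fin.isValue, Fin.reduceEq, if_false] at h00 h22 h20
    have hx := h.expand (cr (e 2) (e 0))
    have e0 : dt (cr (e 2) (e 0)) (e 0) = 0 := by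
      simp only [cr, dt, Matrix.cons_val_zero, Matrix.cons_val_one, Matrix.cons_val]; ring
    have e2 : dt (cr (e 2) (e 0)) (e 2) = 0 := by
      simp only [cr, dt, Matrix.cons_val_zero, Matrix.cons_val_one, Matrix.cons_val]; ring
    have key : dt (cr (e 2) (e 0)) (cr (e 2) (e 0)) = 1 := by
      have : dt (cr (e 2) (e 0)) (cr (e 2) (e 0)) =
          dt (e 2) (e 2) * dt (e 0) (e 0) - dt (e 2) (e 0) ^ 2 := by
        simp only [cr, dt, Matrix.cons_val_zero, Matrix.cons_val_one, Matrix.cons_val]; ring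
      rw [this, h00, h22, h20]; norm_num
    have h3 := dt_expand h (cr (e 2) (e 0)) (cr (e 2) (e 0))
    rw [key, e0, e2, dt_comm (e 1)] at h3
    nlinarith
  · have e0 : dt (cr (e 2) (e 0)) (e 0) = 0 := by
      simp only [cr, dt, Matrix.cons_val_zero, Matrix.cons_val_one, Matrix.cons_val]; ring
    have e2 : dt (cr (e 2) (e 0)) (e 2) = 0 := by
      simp only [cr, dt, Matrix.cons_val_zero, Matrix.cons_val_one, Matrix.cons_val]; ring
    ext j
    have h3 := h.expand (cr (e 2) (e 0)) j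
    rw [dt_comm (e 0), e0, dt_comm (e 2), e2, dt_comm (e 1)] at h3
    rw [Pi.smul_apply, smul_eq_mul, h3]
    ring

theorem det3_frame {e : Fin 3 → V3} (h : Ortho e) (u v : V3) :
    |det3 (e 1) u v| = |sh e u v| := by
  obtain ⟨s, hs, hc⟩ := cr_frame h
  have h1 : sh e u v = dt (cr (e 2) (e 0)) (cr u v) := by
    simp only [sh, cr, dt, Matrix.cons_val_zero, Matrix.cons_val_one, Matrix.cons_val]; ring
  have h2 : det3 (e 1) u v = dt (e 1) (cr u v) := by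
    simp only [det3, cr, dt, Matrix.cons_val_zero, Matrix.cons_val_one, Matrix.cons_val]; ring
  have hs1 : |s| = 1 := by
    have : |s| ^ 2 = 1 := by rw [sq_abs, hs]
    nlinarith [abs_nonneg s]
  rw [h1, hc, smul_dt, abs_mul, hs1, one_mul, h2]

theorem det3_swap (a b c : V3) : |det3 a b c| = |det3 b a c| := by
  have : det3 a b c = -det3 b a c := by unfold det3; ring
  rw [this, abs_neg]

/-- rotation about the wide axis -/
def rotN (e : Fin 3 → V3) (c s : ℝ) : Fin 3 → V3 := ![c • e 0 + (-s) • e 2, e 1, s • e 0 + c • e 2]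

theorem rotN_ortho {e : Fin 3 → V3} (h : Ortho e) {c s : ℝ} (hcs : c ^ 2 + s ^ 2 = 1) :
    Ortho (rotN e c s) := by
  have h00 := h 0 0
  have h01 := h 0 1
  have h02 := h 0 2
  have h10 := h 1 0
  have h11 := h 1 1
  have h12 := h 1 2
  have h20 := h 2 0
  have h21 := h 2 1
  have h22 := h 2 2
  simp only [if_true, Fin.isValue, Fin.reduceEq, if_false, zero_ne_one, one_ne_zero] at h00 h01 h02 h10 h11 h12 h20 h21 h22
  intro i j
  fin_cases i <;> fin_cases j <;>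
    simp only [rotN, Fin.zero_eta, Fin.mk_one, Fin.reduceFinMk, Matrix.cons_val_zero,
      Matrix.cons_val_one, Matrix.cons_val, dt_add, dt_smul, add_dt, smul_dt, h00, h01, h02, h10,
      h11, h12, h20, h21, h22, if_true, Fin.isValue, Fin.reduceEq, if_false, zero_ne_one,
      one_ne_zero] <;> nlinarith

theorem rotN_0 (e : Fin 3 → V3) (c s : ℝ) (u : V3) :
    dt (rotN e c s 0) u = c * dt (e 0) u - s * dt (e 2) u := by
  change dt (c • e 0 + (-s) • e 2) u = _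
  rw [add_dt, smul_dt, smul_dt]; ring
theorem rotN_1 (e : Fin 3 → V3) (c s : ℝ) : rotN e c s 1 = e 1 := rfl
theorem rotN_2 (e : Fin 3 → V3) (c s : ℝ) (u : V3) :
    dt (rotN e c s 2) u = s * dt (e 0) u + c * dt (e 2) u := by
  change dt (s • e 0 + c • e 2) u = _
  rw [add_dt, smul_dt, smul_dt]

/-- component of a point of a box in a direction `u` -/
theorem comp_le {g : Fin 3 → V3} (hg : Ortho g) (u : V3) {x : V3} {y0 y1 y2 : ℝ}
    (h0 : |dt (g 0) x| ≤ y0) (h1 : |dt (g 1) x| ≤ y1) (h2 : |dt (g 2) x| ≤ y2) :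
    |dt u x| ≤ |dt u (g 0)| * y0 + |dt u (g 1)| * y1 + |dt u (g 2)| * y2 := by
  rw [dt_expand hg u x]
  refine (abs_add_le _ _).trans (add_le_add ((abs_add_le _ _).trans (add_le_add ?_ ?_)) ?_)
  · rw [abs_mul]; gcongr
  · rw [abs_mul]; gcongr
  · rw [abs_mul]; gcongr

theorem diff2 {t t' l : Ln4} {e : Fin 3 → V3} {s : V3} {z0 ρ z : ℝ} (h : InB t l e s z0 ρ)
    (h' : InB t' l e s z0 ρ) (hz : z0 ≤ z) (hz' : z ≤ z0 + ρ) (i : Fin 3) :
    |dt (e i) (t.pos z - t'.pos z)| ≤ 2 * s i := by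
  have : t.pos z - t'.pos z = (t.pos z - l.pos z) - (t'.pos z - l.pos z) := by abel
  rw [this, dt_sub]
  exact (abs_sub _ _).trans (by linarith [h z hz hz' i, h' z hz hz' i])

theorem abs_cs {c s : ℝ} (hcs : c ^ 2 + s ^ 2 = 1) : |c| ≤ 1 ∧ |s| ≤ 1 := by
  constructor
  · rw [← sq_le_one_iff_abs_le_one]; nlinarith [sq_nonneg s]
  · rw [← sq_le_one_iff_abs_le_one]; nlinarith [sq_nonneg c]

/-- one box of the path, seen in the rotated frame -/
theorem seg {e g : Fin 3 → V3} (he : Ortho e) (hg : Ortho g) {c s : ℝ} (hcs : c ^ 2 + s ^ 2 = 1)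
    {Y w1 w2 τ P : ℝ} (hY : 0 ≤ Y) (hYw : Y ≤ w2) (hw : w2 ≤ w1) (hYτ : Y ≤ τ) (hwP : w2 ≤ P)
    (hs : |s| * w2 ≤ τ) (g1 : |c * dt (e 0) (g 1) - s * dt (e 2) (g 1)| * w1 ≤ τ)
    (g2 : |dt (e 0) (g 2)| * w2 ≤ τ) (p0 : |dt (e 0) (g 1)| * w1 ≤ P)
    (p2 : |dt (e 2) (g 1)| * w1 ≤ P) {x : V3} (hx : ∀ i, |dt (g i) x| ≤ 2 * (![Y, w1, w2] : V3) i) :
    |dt (rotN e c s 0) x| ≤ 8 * τ ∧ |dt (rotN e c s 1) x| ≤ 8 * w1 ∧
      |dt (rotN e c s 2) x| ≤ 8 * P := by
  obtain ⟨hc1, hs1⟩ := abs_cs hcs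
  have hR := rotN_ortho he hcs
  have hx0 : |dt (g 0) x| ≤ 2 * Y := hx 0
  have hx1 : |dt (g 1) x| ≤ 2 * w1 := hx 1
  have hx2 : |dt (g 2) x| ≤ 2 * w2 := hx 2
  have hw2 : 0 ≤ w2 := hY.trans hYw
  have hw1 : 0 ≤ w1 := hw2.trans hw
  refine ⟨?_, ?_, ?_⟩
  · have h := comp_le hg (rotN e c s 0) hx0 hx1 hx2
    have a0 : |dt (rotN e c s 0) (g 0)| * (2 * Y) ≤ 2 * τ := by
      have := abs_dt_le_one hg hR 0 0
      nlinarith
    have a1 : |dt (rotN e c s 0) (g 1)| * (2 * w1) ≤ 2 * τ := by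
      rw [rotN_0]; linarith
    have a2 : |dt (rotN e c s 0) (g 2)| * (2 * w2) ≤ 4 * τ := by
      rw [rotN_0]
      have q2 := abs_dt_le_one hg he 2 2
      have : |c * dt (e 0) (g 2) - s * dt (e 2) (g 2)| ≤ |dt (e 0) (g 2)| + |s| := by
        refine (abs_sub _ _).trans (add_le_add ?_ ?_)
        · rw [abs_mul]; nlinarith [abs_nonneg (dt (e 0) (g 2))]
        · rw [abs_mul]; nlinarith [abs_nonneg s]
      nlinarith
    linarith
  · rw [rotN_1]
    have h := comp_le hg (e 1) hx0 hx1 hx2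
    have q0 := abs_dt_le_one hg he 1 0
    have q1 := abs_dt_le_one hg he 1 1
    have q2 := abs_dt_le_one hg he 1 2
    have a0 : |dt (e 1) (g 0)| * (2 * Y) ≤ 2 * w1 := by nlinarith
    have a1 : |dt (e 1) (g 1)| * (2 * w1) ≤ 2 * w1 := by nlinarith
    have a2 : |dt (e 1) (g 2)| * (2 * w2) ≤ 2 * w1 := by nlinarith
    linarith
  · have h := comp_le hg (rotN e c s 2) hx0 hx1 hx2
    have a0 : |dt (rotN e c s 2) (g 0)| * (2 * Y) ≤ 2 * P := by
      have := abs_dt_le_one hg hR 2 0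
      nlinarith
    have a1 : |dt (rotN e c s 2) (g 1)| * (2 * w1) ≤ 4 * P := by
      rw [rotN_2]
      have : |s * dt (e 0) (g 1) + c * dt (e 2) (g 1)| ≤ |dt (e 0) (g 1)| + |dt (e 2) (g 1)| := by
        refine (abs_add_le _ _).trans (add_le_add ?_ ?_)
        · rw [abs_mul]; nlinarith [abs_nonneg (dt (e 0) (g 1))]
        · rw [abs_mul]; nlinarith [abs_nonneg (dt (e 2) (g 1))]
      nlinarith
    have a2 : |dt (rotN e c s 2) (g 2)| * (2 * w2) ≤ 2 * P := by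
      have := abs_dt_le_one hg hR 2 2
      nlinarith
    linarith

/-- **the hull of a two-step path** (deterministic form). -/
theorem hull_box {e f g : Fin 3 → V3} (he : Ortho e) (hf : Ortho f) (hg : Ortho g) {c s : ℝ}
    (hcs : c ^ 2 + s ^ 2 = 1) {Y w1 w2 τ P z0 ρ : ℝ} (hY : 0 ≤ Y) (hYw : Y ≤ w2) (hw : w2 ≤ w1)
    (hYτ : Y ≤ τ) (hwP : w2 ≤ P) (hs : |s| * w2 ≤ τ)
    (f1 : |c * dt (e 0) (f 1) - s * dt (e 2) (f 1)| * w1 ≤ τ)
    (f2 : |dt (e 0) (f 2)| * w2 ≤ τ) (fp0 : |dt (e 0) (f 1)| * w1 ≤ P)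
    (fp2 : |dt (e 2) (f 1)| * w1 ≤ P)
    (g1 : |c * dt (e 0) (g 1) - s * dt (e 2) (g 1)| * w1 ≤ τ)
    (g2 : |dt (e 0) (g 2)| * w2 ≤ τ) (gp0 : |dt (e 0) (g 1)| * w1 ≤ P)
    (gp2 : |dt (e 2) (g 1)| * w1 ≤ P) {b b' b'' t1 t2 t : Ln4}
    (h1 : InB t1 b e ![Y, w1, w2] z0 ρ) (h1' : InB t1 b' f ![Y, w1, w2] z0 ρ)
    (h2' : InB t2 b' f ![Y, w1, w2] z0 ρ) (h2 : InB t2 b'' g ![Y, w1, w2] z0 ρ)
    (ht : InB t b'' g ![Y, w1, w2] z0 ρ) :
    InB t b (rotN e c s) ![18 * τ, 18 * w1, 18 * P] z0 ρ := by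
  intro z hz hz'
  obtain ⟨hc1, hs1⟩ := abs_cs hcs
  have hR := rotN_ortho he hcs
  have hw2 : 0 ≤ w2 := hY.trans hYw
  have hw1 : 0 ≤ w1 := hw2.trans hw
  obtain ⟨a0, a1, a2⟩ := seg he hg hcs hY hYw hw hYτ hwP hs g1 g2 gp0 gp2
    (x := t.pos z - t2.pos z) fun i => diff2 ht h2 hz hz' i
  obtain ⟨b0, b1, b2⟩ := seg he hf hcs hY hYw hw hYτ hwP hs f1 f2 fp0 fp2
    (x := t2.pos z - t1.pos z) fun i => diff2 h2' h1' hz hz' i
  have q := h1 z hz hz'
  have q0 : |dt (e 0) (t1.pos z - b.pos z)| ≤ Y := q 0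
  have q1 : |dt (e 1) (t1.pos z - b.pos z)| ≤ w1 := q 1
  have q2 : |dt (e 2) (t1.pos z - b.pos z)| ≤ w2 := q 2
  have hj : ∀ j, |dt (rotN e c s j) (t.pos z - b.pos z)| ≤
      |dt (rotN e c s j) (t.pos z - t2.pos z)| + |dt (rotN e c s j) (t2.pos z - t1.pos z)| +
        |dt (rotN e c s j) (t1.pos z - b.pos z)| := by
    intro j
    have : t.pos z - b.pos z = (t.pos z - t2.pos z) + (t2.pos z - t1.pos z) +
      (t1.pos z - b.pos z) := by abel
    rw [this, dt_add, dt_add]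
    exact (abs_add_le _ _).trans (add_le_add (abs_add_le _ _) le_rfl)
  have c0 : |dt (rotN e c s 0) (t1.pos z - b.pos z)| ≤ 2 * τ := by
    rw [rotN_0]
    refine (abs_sub _ _).trans ?_
    rw [abs_mul, abs_mul]
    have u1 : |c| * |dt (e 0) (t1.pos z - b.pos z)| ≤ τ := by
      nlinarith [abs_nonneg (dt (e 0) (t1.pos z - b.pos z)), abs_nonneg c]
    have u2 : |s| * |dt (e 2) (t1.pos z - b.pos z)| ≤ τ := by
      calc |s| * |dt (e 2) (t1.pos z - b.pos z)| ≤ |s| * w2 := by gcongr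
        _ ≤ τ := hs
    linarith
  have c2 : |dt (rotN e c s 2) (t1.pos z - b.pos z)| ≤ 2 * P := by
    rw [rotN_2]
    refine (abs_add_le _ _).trans ?_
    rw [abs_mul, abs_mul]
    have u1 : |s| * |dt (e 0) (t1.pos z - b.pos z)| ≤ P := by
      nlinarith [abs_nonneg (dt (e 0) (t1.pos z - b.pos z)), abs_nonneg s]
    have u2 : |c| * |dt (e 2) (t1.pos z - b.pos z)| ≤ P := by
      nlinarith [abs_nonneg (dt (e 2) (t1.pos z - b.pos z)), abs_nonneg c]
    linarith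
  intro j
  fin_cases j
  · simp only [Fin.zero_eta, Matrix.cons_val_zero]
    linarith [hj 0]
  · simp only [Fin.mk_one, Matrix.cons_val_one, Matrix.cons_val_zero]
    have := hj 1
    rw [rotN_1] at this a1 b1 ⊢
    linarith
  · simp only [Fin.reduceFinMk, Matrix.cons_val]
    linarith [hj 2]

end Crest.Agent.R136.Hl706
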