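import Crest.Agent.R136.Pl2Def_860
import Crest.Agent.R136.Hl1_706

/-!
# R136 (S0187), PLAN 2 (tilt at one level): literals of the crossing relation and of the determinant

Over the letters of `TCore` (`Pl2Def_860`); `Λ = 2 ^ j`, `E = 2 ^ k'`.

* `GoodI L P u e w1 z0 ρ M Λ B t z` : few lines of the `u`-class of `t` near the place of `t` at the
  height `z`;
* `CrV` : crossing pair of one `v`-class (`cv` of `Ndl372`), at incidences which are good in the
  `u`-classes; `cu` = the same with `u`, `v` (and `eu`, `ev`) exchanged;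
* `aV`  : size of the determinant of the classes `u s`, `v`, `u t` (`av` of `Ndl372`), normalised;
  `au` = the same with `u`, `v` exchanged.
-/

set_option autoImplicit false
set_option linter.unusedVariables false

open Finset

namespace Crest.Agent.R136.Cmd113

open Crest.Agent.R136.Sh605
open Crest.Agent.R136.Hl706 (det3)

open Classical in
/-- `(t, z)` is a planar-good incidence of the `u`-class of `t` -/
def GoodI (L : ℕ → Ln4) (P : Finset ℕ) (u : ℕ → ℕ) (e : ℕ → Fin 3 → V3) (w1 M Λ B : ℝ)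
    (t : ℕ) (z : ℝ) : Prop :=
  ∀ r : ℝ, 1 ≤ r * Λ → r ≤ 1 → ((P.filter fun s => u s = u t ∧
    |dt (e (u t) 1) ((L s).pos z - (L t).pos z)| ≤ r * w1).card : ℝ) ≤ B * r * M

/-- the lines `s`, `t` of one `v`-class cross (in the long direction) with slope difference at least
`θ`, at incidences which are good in their `u`-classes -/
def CrV (L : ℕ → Ln4) (P : Finset ℕ) (u v : ℕ → ℕ) (eu ev : ℕ → Fin 3 → V3)
    (w1 z0 ρ M Λ B θ : ℝ) (s t : ℕ) : Prop :=
  v s = v t ∧ ∃ z, z0 ≤ z ∧ z ≤ z0 + ρ ∧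
    |dt (ev (v t) 1) ((L s).pos z - (L t).pos z)| ≤ 4 * (w1 / Λ) ∧
    θ * w1 ≤ |dt (ev (v t) 1) ((L s).v - (L t).v)| * ρ ∧
    GoodI L P u eu w1 M Λ B s z ∧ GoodI L P u eu w1 M Λ B t z

/-- normalised determinant of the long axes of the classes `u s`, `v`, `u t` for `v s = v t` -/
noncomputable def aV (u v : ℕ → ℕ) (eu ev : ℕ → Fin 3 → V3) (Y w1 w2 Λ E : ℝ) (s t : ℕ) : ℝ :=
  if v s = v t then
    |det3 (eu (u s) 1) (ev (v t) 1) (eu (u t) 1)| * w1 ^ 2 / (Λ ^ 2 * E * Y * w2)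
  else 0

theorem dt_sub_abs (n a b : V3) : |dt n (a - b)| = |dt n (b - a)| := by
  have h : dt n (a - b) = -dt n (b - a) := by
    simp only [dt, Pi.sub_apply]; ring
  rw [h, abs_neg]

theorem CrV.symm {L : ℕ → Ln4} {P : Finset ℕ} {u v : ℕ → ℕ} {eu ev : ℕ → Fin 3 → V3}
    {w1 z0 ρ M Λ B θ : ℝ} {s t : ℕ} (h : CrV L P u v eu ev w1 z0 ρ M Λ B θ s t) :
    CrV L P u v eu ev w1 z0 ρ M Λ B θ t s := by
  obtain ⟨h0, z, h1, h2, h3, h4, h5, h6⟩ := h
  refine ⟨h0.symm, z, h1, h2, ?_, ?_, h6, h5⟩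
  · rw [h0, dt_sub_abs]; exact h3
  · rw [h0, dt_sub_abs]; exact h4

theorem det3_swap (a b c : V3) : |det3 a b c| = |det3 c b a| := by
  have h : det3 a b c = -det3 c b a := by
    simp only [det3]; ring
  rw [h, abs_neg]

theorem aV_comm (u v : ℕ → ℕ) (eu ev : ℕ → Fin 3 → V3) (Y w1 w2 Λ E : ℝ) (s t : ℕ) :
    aV u v eu ev Y w1 w2 Λ E s t = aV u v eu ev Y w1 w2 Λ E t s := by
  unfold aV
  by_cases h : v s = v t
  · rw [if_pos h, if_pos h.symm, h, det3_swap]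
  · rw [if_neg h, if_neg (fun h' => h h'.symm)]

theorem aV_nonneg (u v : ℕ → ℕ) (eu ev : ℕ → Fin 3 → V3) {Y w1 w2 Λ E : ℝ} (hY : 0 ≤ Y)
    (hw2 : 0 ≤ w2) (hE : 0 ≤ E) (s t : ℕ) : 0 ≤ aV u v eu ev Y w1 w2 Λ E s t := by
  unfold aV
  split_ifs
  · positivity
  · exact le_rfl

end Crest.Agent.R136.Cmd113
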