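import Crest.Agent.R136.Fl7_808

/-!
# R136 (S0187): the finite pair theorem for flat boxes (helper808)

* `Dy` : dyadic base tilt `2^j` and thickness tilt `2^k'` of two frames; `exists_dy`.
* `flat_pair` : two systems of near-maximal flat boxes (defect `W`), D-max at three deeper levels
  on parts of relative size `δ0` ⊢ `j, k' ≤ C (1 + log (W / δ0))`.
-/

set_option autoImplicit false
set_option linter.unusedVariables false
set_option linter.unusedSectionVars false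

namespace Crest.Agent.R136.Fl808

open Finset Crest.Agent.R136.Sh605
open Crest.Agent.R138.Mk163 (zl rho)

/-- dyadic base tilt `2^j` and thickness tilt `2^k'` of two frames -/
structure Dy (e e' : Fin 3 → V3) (a w1 w2 : ℝ) (j k' : ℕ) : Prop where
  b21 : |dt (e' 2) (e 1)| * w1 ≤ 2 ^ j * w2
  b01 : |dt (e' 0) (e 1)| * w1 ≤ 2 ^ j * w2
  blo : j = 0 ∨ 2 ^ j * w2 ≤ 2 * (|dt (e' 2) (e 1)| * w1) ∨
    2 ^ j * w2 ≤ 2 * (|dt (e' 0) (e 1)| * w1)
  t10 : |dt (e' 1) (e 0)| * w1 ≤ 2 ^ k' * (2 ^ j * a)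
  t20 : 2 ^ j * (|dt (e' 2) (e 0)| * w2) ≤ 2 ^ k' * (2 ^ j * a)
  t01 : |dt (e' 0) (e 1)| * w1 ≤ 2 ^ k' * (2 ^ j * a)
  t02 : 2 ^ j * (|dt (e' 0) (e 2)| * w2) ≤ 2 ^ k' * (2 ^ j * a)
  tlo : k' = 0 ∨ 2 ^ k' * (2 ^ j * a) ≤ 2 * (|dt (e' 1) (e 0)| * w1) ∨
    2 ^ k' * (2 ^ j * a) ≤ 2 * (2 ^ j * (|dt (e' 2) (e 0)| * w2)) ∨
    2 ^ k' * (2 ^ j * a) ≤ 2 * (|dt (e' 0) (e 1)| * w1) ∨
    2 ^ k' * (2 ^ j * a) ≤ 2 * (2 ^ j * (|dt (e' 0) (e 2)| * w2))

/-- the smallest power of two which is at least `x` -/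
theorem exists_pow {x : ℝ} : ∃ j : ℕ, x ≤ 2 ^ j ∧ (j = 0 ∨ 2 ^ j ≤ 2 * x) := by
  have hex : ∃ j : ℕ, x ≤ 2 ^ j := by
    obtain ⟨j, hj⟩ := pow_unbounded_of_one_lt x (by norm_num : (1 : ℝ) < 2)
    exact ⟨j, hj.le⟩
  refine ⟨Nat.find hex, Nat.find_spec hex, ?_⟩
  rcases Nat.eq_zero_or_pos (Nat.find hex) with h | h
  · exact Or.inl h
  · right
    have h1 := Nat.find_min hex (m := Nat.find hex - 1) (by omega)
    rw [not_le] at h1
    have h2 : (2:ℝ) ^ (Nat.find hex) = 2 * 2 ^ (Nat.find hex - 1) := by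
      rw [← pow_succ']; congr 1; omega
    rw [h2]
    linarith

theorem exists_dy (e e' : Fin 3 → V3) {a w1 w2 : ℝ} (ha : 0 < a) (hw2 : 0 < w2) :
    ∃ j k' : ℕ, Dy e e' a w1 w2 j k' := by
  obtain ⟨j, h1, h2⟩ := exists_pow
    (x := max (|dt (e' 2) (e 1)| * w1) (|dt (e' 0) (e 1)| * w1) / w2)
  have hj : (0:ℝ) < 2 ^ j * a := by positivity
  obtain ⟨k', h3, h4⟩ := exists_pow
    (x := max (max (|dt (e' 1) (e 0)| * w1) (2 ^ j * (|dt (e' 2) (e 0)| * w2)))
      (max (|dt (e' 0) (e 1)| * w1) (2 ^ j * (|dt (e' 0) (e 2)| * w2))) / (2 ^ j * a))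
  rw [div_le_iff₀ hw2] at h1
  rw [div_le_iff₀ hj] at h3
  refine ⟨j, k', ⟨(le_max_left _ _).trans h1, (le_max_right _ _).trans h1, ?_,
    ((le_max_left _ _).trans (le_max_left _ _)).trans h3,
    ((le_max_right _ _).trans (le_max_left _ _)).trans h3,
    ((le_max_left _ _).trans (le_max_right _ _)).trans h3,
    ((le_max_right _ _).trans (le_max_right _ _)).trans h3, ?_⟩⟩
  · rcases h2 with h2 | h2
    · exact Or.inl h2
    · right
      have h5 : (2:ℝ) ^ j * w2 ≤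
          2 * max (|dt (e' 2) (e 1)| * w1) (|dt (e' 0) (e 1)| * w1) := by
        have := mul_le_mul_of_nonneg_right h2 hw2.le
        have e5 : 2 * (max (|dt (e' 2) (e 1)| * w1) (|dt (e' 0) (e 1)| * w1) / w2) * w2 =
          2 * max (|dt (e' 2) (e 1)| * w1) (|dt (e' 0) (e 1)| * w1) := by field_simp
        linarith
      rcases le_total (|dt (e' 2) (e 1)| * w1) (|dt (e' 0) (e 1)| * w1) with h6 | h6
      · rw [max_eq_right h6] at h5; exact Or.inr h5
      · rw [max_eq_left h6] at h5; exact Or.inl h5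
  · rcases h4 with h4 | h4
    · exact Or.inl h4
    · right
      set m := max (max (|dt (e' 1) (e 0)| * w1) (2 ^ j * (|dt (e' 2) (e 0)| * w2)))
        (max (|dt (e' 0) (e 1)| * w1) (2 ^ j * (|dt (e' 0) (e 2)| * w2))) with hm
      have h5 : (2:ℝ) ^ k' * (2 ^ j * a) ≤ 2 * m := by
        have := mul_le_mul_of_nonneg_right h4 hj.le
        have e5 : 2 * (m / (2 ^ j * a)) * (2 ^ j * a) = 2 * m := by field_simp
        linarith
      rcases max_choice (max (|dt (e' 1) (e 0)| * w1) (2 ^ j * (|dt (e' 2) (e 0)| * w2)))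
        (max (|dt (e' 0) (e 1)| * w1) (2 ^ j * (|dt (e' 0) (e 2)| * w2))) with h6 | h6
      · rw [hm, h6] at h5
        rcases max_choice (|dt (e' 1) (e 0)| * w1) (2 ^ j * (|dt (e' 2) (e 0)| * w2)) with h7 | h7
        · rw [h7] at h5; exact Or.inl h5
        · rw [h7] at h5; exact Or.inr (Or.inl h5)
      · rw [hm, h6] at h5
        rcases max_choice (|dt (e' 0) (e 1)| * w1) (2 ^ j * (|dt (e' 0) (e 2)| * w2)) with h7 | h7
        · rw [h7] at h5; exact Or.inr (Or.inr (Or.inl h5))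
        · rw [h7] at h5; exact Or.inr (Or.inr (Or.inr h5))

namespace Dy

variable {e e' : Fin 3 → V3} {a w1 w2 : ℝ} {j k' : ℕ} (H : Dy e e' a w1 w2 j k') (he : Ortho e)
  (he' : Ortho e') (ha : 0 < a) (haw : a ≤ w2) (hw : w2 ≤ w1)
include H he he' ha haw hw

theorem hlw : (2:ℝ) ^ j * w2 ≤ 2 * w1 := by
  have hw2 : 0 < w2 := ha.trans_le haw
  have hw1 : 0 < w1 := hw2.trans_le hw
  rcases H.blo with h | h | h
  · rw [h, pow_zero, one_mul]; linarith
  · have := abs_dt_le_one he he' 2 1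
    nlinarith
  · have := abs_dt_le_one he he' 0 1
    nlinarith

/-- `|R12| ≤ 2 max (|R21|, |R01|)` -/
theorem b12 : |dt (e' 1) (e 2)| * w1 ≤ 2 * (2 ^ j * w2) := by
  have hw2 : 0 < w2 := ha.trans_le haw
  have hw1 : 0 < w1 := hw2.trans_le hw
  -- column 1 and row 1 are unit vectors
  have h1 := dt_expand he (e' 1) (e' 1)
  have h2 := dt_expand he' (e 1) (e 1)
  have u1 : dt (e' 1) (e' 1) = 1 := by have := he' 1 1; simpa using this
  have u2 : dt (e 1) (e 1) = 1 := by have := he 1 1; simpa using this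
  rw [u1, dt_comm (e 0), dt_comm (e 1) (e' 1), dt_comm (e 2) (e' 1)] at h1
  rw [u2, dt_comm (e 1) (e' 0), dt_comm (e 1) (e' 1), dt_comm (e 1) (e' 2)] at h2
  have h3 : dt (e' 1) (e 2) ^ 2 ≤ dt (e' 0) (e 1) ^ 2 + dt (e' 2) (e 1) ^ 2 := by
    nlinarith [sq_nonneg (dt (e' 1) (e 0))]
  set x := |dt (e' 1) (e 2)| with hx
  set y := |dt (e' 0) (e 1)| with hy
  set z := |dt (e' 2) (e 1)| with hz
  have h4 : x ^ 2 ≤ y ^ 2 + z ^ 2 := by
    rw [hx, hy, hz, sq_abs, sq_abs, sq_abs]; exact h3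
  have hy0 : 0 ≤ y := abs_nonneg _
  have hz0 : 0 ≤ z := abs_nonneg _
  have hx0 : 0 ≤ x := abs_nonneg _
  have h5 : x ≤ y + z := by nlinarith
  have h6 := H.b01
  have h7 := H.b21
  calc x * w1 ≤ (y + z) * w1 := by gcongr
    _ = y * w1 + z * w1 := by ring
    _ ≤ _ := by linarith

theorem aligned {W1 : ℝ} (hW : W1 = max (10 * w2) (5 * (w1 / 2 ^ j))) :
    Aligned e e' W1 (10 * w2) := by
  have hw2 : 0 < w2 := ha.trans_le haw
  have hw1 : 0 < w1 := hw2.trans_le hw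
  have hj : (0:ℝ) < 2 ^ j := by positivity
  have key : ∀ x : ℝ, |x| ≤ 1 → |x| * w1 ≤ 2 * (2 ^ j * w2) → |x| * W1 ≤ 10 * w2 := by
    intro x h1 h2
    rw [hW, mul_max_of_nonneg _ _ (abs_nonneg x)]
    refine max_le (by nlinarith) ?_
    have h3 : |x| * (5 * (w1 / 2 ^ j)) = 5 * (|x| * w1) / 2 ^ j := by ring
    rw [h3, div_le_iff₀ hj]
    linarith
  refine ⟨key _ (abs_dt_le_one he he' 1 2) (H.b12 he he' ha haw hw),
    key _ (abs_dt_le_one he he' 2 1) ?_, key _ (abs_dt_le_one he he' 0 1) ?_⟩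
  · have := H.b21
    have : 0 < (2:ℝ) ^ j * w2 := by positivity
    linarith
  · have := H.b01
    have : 0 < (2:ℝ) ^ j * w2 := by positivity
    linarith

theorem hleg : a * 2 ^ k' ≤ 8 * w2 := by
  have hw2 : 0 < w2 := ha.trans_le haw
  have hw1 : 0 < w1 := hw2.trans_le hw
  have hj : (0:ℝ) < 2 ^ j := by positivity
  have h21 := H.b21
  have h01 := H.b01
  -- `|R10| ≤ |R01| + |R21|`
  have hR : |dt (e' 1) (e 0)| * w1 ≤ 2 * (2 ^ j * w2) := by
    have h1 := dt_expand he (e' 1) (e' 1)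
    have h2 := dt_expand he' (e 1) (e 1)
    have u1 : dt (e' 1) (e' 1) = 1 := by have := he' 1 1; simpa using this
    have u2 : dt (e 1) (e 1) = 1 := by have := he 1 1; simpa using this
    rw [u1, dt_comm (e 0), dt_comm (e 1) (e' 1), dt_comm (e 2) (e' 1)] at h1
    rw [u2, dt_comm (e 1) (e' 0), dt_comm (e 1) (e' 1), dt_comm (e 1) (e' 2)] at h2
    have h3 : dt (e' 1) (e 0) ^ 2 ≤ dt (e' 0) (e 1) ^ 2 + dt (e' 2) (e 1) ^ 2 := by
      nlinarith [sq_nonneg (dt (e' 1) (e 2))]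
    set x := |dt (e' 1) (e 0)| with hx
    set y := |dt (e' 0) (e 1)| with hy
    set z := |dt (e' 2) (e 1)| with hz
    have h4 : x ^ 2 ≤ y ^ 2 + z ^ 2 := by
      rw [hx, hy, hz, sq_abs, sq_abs, sq_abs]; exact h3
    have hy0 : 0 ≤ y := abs_nonneg _
    have hz0 : 0 ≤ z := abs_nonneg _
    have hx0 : 0 ≤ x := abs_nonneg _
    have h5 : x ≤ y + z := by nlinarith
    calc x * w1 ≤ (y + z) * w1 := by gcongr
      _ = y * w1 + z * w1 := by ring
      _ ≤ _ := by linarith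
  have fin : ∀ y : ℝ, y ≤ 2 * (2 ^ j * w2) → 2 ^ k' * (2 ^ j * a) ≤ 2 * y → a * 2 ^ k' ≤ 8 * w2 := by
    intro y h1 h2
    have h3 : 2 ^ j * (a * 2 ^ k') ≤ 2 ^ j * (8 * w2) := by
      have : 0 < 2 ^ j * w2 := by positivity
      calc 2 ^ j * (a * 2 ^ k') = 2 ^ k' * (2 ^ j * a) := by ring
        _ ≤ 2 * (2 * (2 ^ j * w2)) := by linarith
        _ ≤ _ := by linarith
    exact le_of_mul_le_mul_left h3 hj
  have hp : 0 < 2 ^ j * w2 := by positivity
  rcases H.tlo with h | h | h | h | h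
  · rw [h, pow_zero, mul_one]; linarith
  · exact fin _ hR h
  · refine fin _ ?_ h
    have := abs_dt_le_one he he' 2 0
    have : |dt (e' 2) (e 0)| * w2 ≤ 1 * w2 := by gcongr
    have : 2 ^ j * (|dt (e' 2) (e 0)| * w2) ≤ 2 ^ j * (1 * w2) := by gcongr
    linarith
  · exact fin _ (by linarith) h
  · refine fin _ ?_ h
    have := abs_dt_le_one he he' 0 2
    have : |dt (e' 0) (e 2)| * w2 ≤ 1 * w2 := by gcongr
    have : 2 ^ j * (|dt (e' 0) (e 2)| * w2) ≤ 2 ^ j * (1 * w2) := by gcongr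
    linarith

theorem tl : Tl e e' a w1 w2 (2 ^ j) (1 / 2 ^ (k' + j)) := by
  have hj : (0:ℝ) < 2 ^ j := by positivity
  have hk : (0:ℝ) < 2 ^ (k' + j) := by positivity
  refine ⟨?_, H.b12 he he' ha haw hw, ?_, ?_⟩
  · rcases H.blo with h | h | h
    · left; rw [h, pow_zero]
    · exact Or.inr (Or.inl h)
    · exact Or.inr (Or.inr h)
  · rw [div_mul_eq_mul_div, one_mul, div_le_iff₀ hk, pow_add]
    have := H.t10
    linarith
  · have h1 := H.t20
    have e1 : 1 / 2 ^ (k' + j) * 2 ^ j * (|dt (e' 2) (e 0)| * w2) =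
        2 ^ j * (|dt (e' 2) (e 0)| * w2) / 2 ^ (k' + j) := by ring
    rw [e1, div_le_iff₀ hk, pow_add]
    linarith

/-- upper bound of the tilt of the small boxes -/
theorem tlt_up {W1 : ℝ} (hW : W1 = max (10 * w2) (5 * (w1 / 2 ^ j))) :
    tlt e e' W1 (10 * w2) ≤ 10 * 2 ^ k' * (2 * a) := by
  have hw2 : 0 < w2 := ha.trans_le haw
  have hw1 : 0 < w1 := hw2.trans_le hw
  have hj : (0:ℝ) < 2 ^ j := by positivity
  have hlw := H.hlw he he' ha haw hw
  unfold tlt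
  refine max_le ?_ ?_
  · rw [hW, mul_max_of_nonneg _ _ (abs_nonneg _)]
    refine max_le ?_ ?_
    · -- `|R01| 10 w2`
      have h1 : (|dt (e' 0) (e 1)| * (10 * w2)) * w1 ≤ (10 * 2 ^ k' * (2 * a)) * w1 := by
        calc (|dt (e' 0) (e 1)| * (10 * w2)) * w1 = 10 * w2 * (|dt (e' 0) (e 1)| * w1) := by ring
          _ ≤ 10 * w2 * (2 ^ k' * (2 ^ j * a)) := by have := H.t01; gcongr
          _ = 10 * 2 ^ k' * a * (2 ^ j * w2) := by ring
          _ ≤ 10 * 2 ^ k' * a * (2 * w1) := by gcongr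
          _ = _ := by ring
      exact le_of_mul_le_mul_right h1 hw1
    · have h3 : |dt (e' 0) (e 1)| * (5 * (w1 / 2 ^ j)) = 5 * (|dt (e' 0) (e 1)| * w1) / 2 ^ j := by
        ring
      rw [h3, div_le_iff₀ hj]
      have h4 := H.t01
      have : 0 < 2 ^ k' * (2 ^ j * a) := by positivity
      calc 5 * (|dt (e' 0) (e 1)| * w1) ≤ 5 * (2 ^ k' * (2 ^ j * a)) := by linarith
        _ ≤ 20 * (2 ^ k' * (2 ^ j * a)) := by linarith
        _ = _ := by ring
  · have h4 := H.t02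
    have h5 : 2 ^ j * (|dt (e' 0) (e 2)| * w2) ≤ 2 ^ j * (2 ^ k' * a) := by
      refine h4.trans (le_of_eq (by ring))
    have h6 := le_of_mul_le_mul_left h5 hj
    have : 0 < 2 ^ k' * a := by positivity
    calc |dt (e' 0) (e 2)| * (10 * w2) = 10 * (|dt (e' 0) (e 2)| * w2) := by ring
      _ ≤ 20 * (2 ^ k' * a) := by linarith
      _ = _ := by ring

/-- lower bound of the tilt of the small boxes -/
theorem tlt_lo {W1 : ℝ} (hW : W1 = max (10 * w2) (5 * (w1 / 2 ^ j))) {l : ℕ} (hl : k' = l + 2) :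
    2 ^ l * (2 * a) ≤ tlt e e' W1 (10 * w2) := by
  have hw2 : 0 < w2 := ha.trans_le haw
  have hw1 : 0 < w1 := hw2.trans_le hw
  have hj : (0:ℝ) < 2 ^ j := by positivity
  have hlw := H.hlw he he' ha haw hw
  have hk : (2:ℝ) ^ k' = 4 * 2 ^ l := by rw [hl, pow_add]; ring
  set p := |dt (e' 0) (e 1)| with hp
  set r := |dt (e' 0) (e 2)| with hr
  have hp0 : 0 ≤ p := abs_nonneg _
  have hr0 : 0 ≤ r := abs_nonneg _
  set T := 2 ^ l * (2 ^ j * a) with hT
  have hT0 : 0 < T := by positivity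
  -- reduction: one of `p w1`, `2^j r w2` is large
  have red : (T * 2 / 5 * 1 ≤ p * w1) ∨ (T / 5 ≤ 2 ^ j * (r * w2)) →
      2 ^ l * (2 * a) ≤ tlt e e' W1 (10 * w2) := by
    rintro (h | h)
    · refine le_trans ?_ (le_max_left _ _)
      have h1 : p * (5 * (w1 / 2 ^ j)) ≤ p * W1 := by
        rw [hW]; exact mul_le_mul_of_nonneg_left (le_max_right _ _) hp0
      refine le_trans ?_ h1
      have h3 : p * (5 * (w1 / 2 ^ j)) = 5 * (p * w1) / 2 ^ j := by ring
      rw [h3, le_div_iff₀ hj]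
      calc 2 ^ l * (2 * a) * 2 ^ j = 2 * T := by rw [hT]; ring
        _ ≤ _ := by linarith
    · refine le_trans ?_ (le_max_right _ _)
      have h2 : 2 ^ j * (2 ^ l * (2 * a)) ≤ 2 ^ j * (r * (10 * w2)) := by
        calc 2 ^ j * (2 ^ l * (2 * a)) = 2 * T := by rw [hT]; ring
          _ ≤ 10 * (2 ^ j * (r * w2)) := by linarith
          _ = _ := by ring
      exact le_of_mul_le_mul_left h2 hj
  have hTk : 2 ^ k' * (2 ^ j * a) = 4 * T := by rw [hk, hT]; ring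
  have b21 := H.b21
  have b12 := H.b12 he he' ha haw hw
  have n22 := abs_dt_le_one he he' 2 2
  have n11 := abs_dt_le_one he he' 1 1
  rcases H.tlo with h | h | h | h | h
  · omega
  · -- `|R10| ≤ |R21| |R02| + |R22| |R01|`
    have m := minor_trans he he' (i := 2) (j := 0) (k := 1) (by decide) (by decide) (by decide)
    rw [← hp, ← hr] at m
    have h1 : |dt (e' 1) (e 0)| * w1 ≤ 2 ^ j * (r * w2) + p * w1 := by
      calc |dt (e' 1) (e 0)| * w1 ≤ (|dt (e' 2) (e 1)| * r + |dt (e' 2) (e 2)| * p) * w1 := by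
            gcongr
        _ = (|dt (e' 2) (e 1)| * w1) * r + |dt (e' 2) (e 2)| * (p * w1) := by ring
        _ ≤ (2 ^ j * w2) * r + 1 * (p * w1) := by gcongr
        _ = _ := by ring
    rw [hTk] at h
    apply red
    by_contra hc
    push Not at hc
    linarith [hc.1, hc.2]
  · have m := minor_trans he he' (i := 0) (j := 1) (k := 2) (by decide) (by decide) (by decide)
    rw [← hp, ← hr] at m
    have h1 : 2 ^ j * (|dt (e' 2) (e 0)| * w2) ≤ 4 * (p * w1) + 2 ^ j * (r * w2) := by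
      have h2 : |dt (e' 2) (e 0)| ≤ p * |dt (e' 1) (e 2)| + r * 1 := by
        refine m.trans ?_
        gcongr
      have h3 : p * |dt (e' 1) (e 2)| * w2 * 2 ^ j ≤ 2 * (p * w1) := by
        have n12 := abs_dt_le_one he he' 1 2
        calc p * |dt (e' 1) (e 2)| * w2 * 2 ^ j = p * |dt (e' 1) (e 2)| * (2 ^ j * w2) := by ring
          _ ≤ p * 1 * (2 * w1) := by gcongr
          _ = _ := by ring
      calc 2 ^ j * (|dt (e' 2) (e 0)| * w2) ≤ 2 ^ j * ((p * |dt (e' 1) (e 2)| + r * 1) * w2) := by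
            gcongr
        _ = p * |dt (e' 1) (e 2)| * w2 * 2 ^ j + 2 ^ j * (r * w2) := by ring
        _ ≤ _ := by
          have : 0 ≤ p * w1 := by positivity
          linarith
    rw [hTk] at h
    apply red
    by_contra hc
    push Not at hc
    linarith [hc.1, hc.2]
  · rw [hTk] at h
    apply red
    left
    linarith
  · rw [hTk] at h
    apply red
    right
    linarith

end Dy

end Crest.Agent.R136.Fl808
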