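import Crest.Agent.R136.Cbx2_140
import Crest.Agent.R136.Hl1_706
import Crest.Agent.R136.Fl8_808

/-!
# R136 (U4, PLAN 2, (L4)): the crossing box in the language of `Dy` (helper140)
-/

set_option autoImplicit false
set_option linter.unusedVariables false

namespace Crest.Agent.R136.Cbx140

open Crest.Agent.R136.Sh605
open Crest.Agent.R136.Fl808 (dt_expand abs_dt_le_one Dy InB)
open Crest.Agent.R136.Hl706 (det3 sh det3_frame)

/-- the symmetric bounds of a dyadic tilt -/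
theorem tb_of_dy {e e' : Fin 3 → V3} {Y w1 w2 : ℝ} {j k' : ℕ} (H : Dy e e' Y w1 w2 j k')
    (he : Ortho e) (he' : Ortho e') (hY : 0 < Y) (hYw : Y ≤ w2) (hw : w2 ≤ w1) :
    Tb e e' Y w1 w2 (2 ^ j) (2 ^ k') := by
  have hw2 : 0 < w2 := hY.trans_le hYw
  have hw1 : 0 < w1 := hw2.trans_le hw
  have hj : (0:ℝ) < 2 ^ j := by positivity
  have pB : 0 < (2:ℝ) ^ j * w2 := by positivity
  -- `|<e' 1, e 0>| ≤ |<e' 0, e 1>| + |<e' 2, e 1>|`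
  have hR : |dt (e' 1) (e 0)| * w1 ≤ 2 * (2 ^ j * w2) := by
    have h1 := dt_expand he (e' 1) (e' 1)
    have h2 := dt_expand he' (e 1) (e 1)
    have u1 : dt (e' 1) (e' 1) = 1 := by have := he' 1 1; simpa using this
    have u2 : dt (e 1) (e 1) = 1 := by have := he 1 1; simpa using this
    rw [u1, dt_comm (e 0), dt_comm (e 1) (e' 1), dt_comm (e 2) (e' 1)] at h1
    rw [u2, dt_comm (e 1) (e' 0), dt_comm (e 1) (e' 1), dt_comm (e 1) (e' 2)] at h2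
    have h3 : dt (e' 1) (e 0) ^ 2 ≤ dt (e' 0) (e 1) ^ 2 + dt (e' 2) (e 1) ^ 2 := by
      nlinarith [sq_nonneg (dt (e' 1) (e 2))]
    set x := |dt (e' 1) (e 0)| with hx
    set y := |dt (e' 0) (e 1)| with hy
    set z := |dt (e' 2) (e 1)| with hz
    have h4 : x ^ 2 ≤ y ^ 2 + z ^ 2 := by
      rw [hx, hy, hz, sq_abs, sq_abs, sq_abs]; exact h3
    have hy0 : 0 ≤ y := abs_nonneg _
    have hz0 : 0 ≤ z := abs_nonneg _
    have hx0 : 0 ≤ x := abs_nonneg _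
    have h5 : x ≤ y + z := by nlinarith
    have h6 := H.b01
    have h7 := H.b21
    calc x * w1 ≤ (y + z) * w1 := by gcongr
      _ = y * w1 + z * w1 := by ring
      _ ≤ _ := by linarith
  have h20 : |dt (e' 2) (e 0)| * w2 ≤ 2 ^ k' * Y := by
    have h := H.t20
    have h2 : (|dt (e' 2) (e 0)| * w2) * 2 ^ j ≤ (2 ^ k' * Y) * 2 ^ j := by
      calc _ = 2 ^ j * (|dt (e' 2) (e 0)| * w2) := by ring
        _ ≤ _ := h
        _ = _ := by ring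
    exact le_of_mul_le_mul_right h2 hj
  have h02 : |dt (e' 0) (e 2)| * w2 ≤ 2 ^ k' * Y := by
    have h := H.t02
    have h2 : (|dt (e' 0) (e 2)| * w2) * 2 ^ j ≤ (2 ^ k' * Y) * 2 ^ j := by
      calc _ = 2 ^ j * (|dt (e' 0) (e 2)| * w2) := by ring
        _ ≤ _ := h
        _ = _ := by ring
    exact le_of_mul_le_mul_right h2 hj
  refine ⟨?_, ?_, ?_, ?_, ?_, ?_, ?_, ?_⟩
  · rw [dt_comm]; have := H.b21; linarith
  · rw [dt_comm]; exact H.b12 he he' hY hYw hw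
  · rw [dt_comm]; have := H.b01; linarith
  · rw [dt_comm]; exact hR
  · rw [dt_comm]; have := H.t01; linarith
  · rw [dt_comm]; have := H.t10; linarith
  · rw [dt_comm]; exact h02
  · rw [dt_comm]; exact h20

theorem inB_sub {t t' b : Ln4} {e : Fin 3 → V3} {s : V3} {z0 ρ : ℝ} (h : InB t b e s z0 ρ)
    (h' : InB t' b e s z0 ρ) (z : ℝ) (hz : z0 ≤ z) (hz' : z ≤ z0 + ρ) (i : Fin 3) :
    |dt (e i) (t'.pos z - t.pos z)| ≤ 2 * s i := by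
  have h1 := h z hz hz' i
  have h2 := h' z hz hz' i
  have e1 : dt (e i) (t'.pos z - t.pos z) =
      dt (e i) (t'.pos z - b.pos z) - dt (e i) (t.pos z - b.pos z) := by
    simp only [dt, Pi.sub_apply]; ring
  rw [e1]
  refine (abs_sub _ _).trans ?_
  linarith

/-- **the crossing place**: `S ∋ T, T1` (frame `e`), `v ∋ T, T2` (frame `f`), `S'' ∋ T2, T12`
(frame `g`), `v' ∋ T1, T12` (frame `f'`); `T, T2` cross at `zs` with slope difference `θ` in `v`,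
`T1`, `T12` meet at `z1` in `v'`. -/
theorem place_dy {e f g f' : Fin 3 → V3} (he : Ortho e) (hf : Ortho f) (hg : Ortho g)
    (hf' : Ortho f') {T T2 T1 T12 bS bv bS2 bv' : Ln4} {Y w1 w2 θ η c z0 ρ zs z1 : ℝ} {j k' : ℕ}
    (hY : 0 < Y) (hYw : Y ≤ w2) (hw : w2 ≤ w1) (hρ : 0 < ρ) (hc : 1 ≤ c) (hθ : 0 < θ)
    (hθ4 : θ ≤ 4) (hη : 0 < η)
    (hSv : Tb e f Y w1 w2 (2 ^ j) (2 ^ k')) (hS2v : Tb g f Y w1 w2 (2 ^ j) (2 ^ k'))
    (hSv' : Tb e f' Y w1 w2 (2 ^ j) (2 ^ k')) (hlw : (2:ℝ) ^ j * w2 ≤ 2 * w1)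
    (hTS : InB T bS e ![Y, w1, w2] z0 ρ) (hT1S : InB T1 bS e ![Y, w1, w2] z0 ρ)
    (hTv : InB T bv f ![Y, w1, w2] z0 ρ) (hT2v : InB T2 bv f ![Y, w1, w2] z0 ρ)
    (hT2S : InB T2 bS2 g ![Y, w1, w2] z0 ρ) (hT12S : InB T12 bS2 g ![Y, w1, w2] z0 ρ)
    (hT1v : InB T1 bv' f' ![Y, w1, w2] z0 ρ) (hT12v : InB T12 bv' f' ![Y, w1, w2] z0 ρ)
    (hs : z0 ≤ zs ∧ zs ≤ z0 + ρ) (h1 : z0 ≤ z1 ∧ z1 ≤ z0 + ρ)
    (hzs : |dt (f 1) (T2.pos zs - T.pos zs)| ≤ c * (w1 / 2 ^ j))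
    (hθv : θ * w1 ≤ |dt (f 1) (T2.v - T.v)| * ρ)
    (hz1 : |dt (f' 1) (T12.pos z1 - T1.pos z1)| ≤ c * (w1 / 2 ^ j))
    (hdet : η * ((2 ^ j) ^ 2 * 2 ^ k' * Y * w2) ≤ |det3 (e 1) (f 1) (g 1)| * w1 ^ 2) :
    |z1 - zs| ≤ 3200000 * (c / (θ * η * 2 ^ j)) * ρ ∧
      |dt (e 1) (T1.pos zs - T.pos zs)| ≤ 3200000 * (c / (θ * η * 2 ^ j)) * w1 := by
  have hw2 : 0 < w2 := hY.trans_le hYw
  have hw1 : 0 < w1 := hw2.trans_le hw
  have hj : (1:ℝ) ≤ 2 ^ j := one_le_pow₀ (by norm_num)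
  have hk : (1:ℝ) ≤ 2 ^ k' := one_le_pow₀ (by norm_num)
  refine place_tb (f := f) (g := g) (f' := f') (T2 := T2) (T12 := T12) he hf hg hf' hw1 hw2 hY hYw
    hj hk hlw hρ hc hθ hθ4 hη hSv hS2v.symm hSv' ?_ hzs hθv ?_ ?_ hz1 ?_ ?_ hs h1 ?_
  · intro z hz hz'
    exact ⟨inB_sub hTv hT2v z hz hz' 0, inB_sub hTv hT2v z hz hz' 2⟩
  · intro z hz hz'
    exact ⟨inB_sub hT2S hT12S z hz hz' 0, inB_sub hT2S hT12S z hz hz' 2⟩
  · exact inB_sub hT1v hT12v z1 h1.1 h1.2 0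
  · exact inB_sub hT1v hT12v z1 h1.1 h1.2 2
  · intro z hz hz'
    exact ⟨inB_sub hTS hT1S z hz hz' 0, inB_sub hTS hT1S z hz hz' 1, inB_sub hTS hT1S z hz hz' 2⟩
  · rw [det3_frame he] at hdet
    exact hdet

end Crest.Agent.R136.Cbx140
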