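import Crest.Agent.R136.Hl3_706
import Crest.Agent.R136.Cbx3_140

/-!
# R136 (S0187), U4 PLAN 2, leaf L5: `hull_dy`, `hull_dy1`, `num_in_box` (helper706)
-/

set_option autoImplicit false
set_option linter.unusedVariables false

namespace Crest.Agent.R136.Hl706

open Finset Crest.Agent.R136.Sh605 Crest.Agent.R136.Fl808
open Crest.Agent.R136.Cbx140 (Tb Tw tb_of_dy)

/-- `Dy` in one of the two orders -/
def Dys (e f : Fin 3 → V3) (Y w1 w2 : ℝ) (j k' : ℕ) : Prop :=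
  Dy e f Y w1 w2 j k' ∨ Dy f e Y w1 w2 j k'

section

variable {e f g f0 : Fin 3 → V3} {Y w1 w2 z0 ρ : ℝ} {j k' : ℕ}

theorem Dys.symm (h : Dys e f Y w1 w2 j k') : Dys f e Y w1 w2 j k' := Or.symm h

theorem Dys.tb (h : Dys e f Y w1 w2 j k') (he : Ortho e) (hf : Ortho f) (hY : 0 < Y)
    (hYw : Y ≤ w2) (hw : w2 ≤ w1) : Tb e f Y w1 w2 (2 ^ j) (2 ^ k') := by
  rcases h with h | h
  · exact tb_of_dy h he hf hY hYw hw
  · exact (tb_of_dy h hf he hY hYw hw).symm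

theorem Dys.SL (h : Dys e f Y w1 w2 j k') (he : Ortho e) (hf : Ortho f) (hw1 : 0 ≤ w1) :
    SL e f w1 w2 (2 ^ j) := by
  rcases h with h | h
  · exact (dy_SL h he hf hw1).1
  · exact (dy_SL h hf he hw1).2

theorem Dys.lw (h : Dys e f Y w1 w2 j k') (he : Ortho e) (hf : Ortho f) (hY : 0 < Y)
    (hYw : Y ≤ w2) (hw : w2 ≤ w1) : (2:ℝ) ^ j * w2 ≤ 2 * w1 := by
  rcases h with h | h
  · exact h.hlw he hf hY hYw hw
  · exact h.hlw hf he hY hYw hw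

theorem Dys.EY (h : Dys e f Y w1 w2 j k') (he : Ortho e) (hf : Ortho f) (hY : 0 < Y)
    (hYw : Y ≤ w2) (hw : w2 ≤ w1) : (2:ℝ) ^ k' * Y ≤ 8 * w2 := by
  rcases h with h | h
  · have := h.hleg he hf hY hYw hw; linarith
  · have := h.hleg hf he hY hYw hw; linarith

/-- **the hull of the two-step star of `S`** (frame `e`), over `Dy`. The box depends only on `e`,
`f0`; its centre is the centre of `S`. `Λ = 2^j`, `E = 2^k'`, any `η ≥ 0`; the box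
`![tH, 260000 w1, 130000 Λ w2]` is sorted, `Y ≤ tH ≤ 2448 (η + 1/Λ) Λ E Y`. -/
theorem hull_dy (he : Ortho e) (hf0 : Ortho f0) (hY : 0 < Y) (hYw : Y ≤ w2) (hw : w2 ≤ w1)
    (h0 : Dys e f0 Y w1 w2 j k') :
    ∃ n : Fin 3 → V3, Ortho n ∧
      ∀ (η : ℝ) (f g : Fin 3 → V3) (b b' b'' t1 t2 t : Ln4), 0 ≤ η → Ortho f → Ortho g →
        Dys e f Y w1 w2 j k' → Dys f g Y w1 w2 j k' →
        |det3 (e 1) (f0 1) (f 1)| * (w1 * w1) ≤ η * (((2:ℝ) ^ j) ^ 2 * 2 ^ k' * (Y * w2)) →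
        |det3 (e 1) (f 1) (g 1)| * (w1 * w1) ≤ η * (((2:ℝ) ^ j) ^ 2 * 2 ^ k' * (Y * w2)) →
        InB t1 b e ![Y, w1, w2] z0 ρ → InB t1 b' f ![Y, w1, w2] z0 ρ →
        InB t2 b' f ![Y, w1, w2] z0 ρ → InB t2 b'' g ![Y, w1, w2] z0 ρ →
        InB t b'' g ![Y, w1, w2] z0 ρ →
        InB t b n ![tH Y w2 (2 ^ j) (2 ^ k') η, 260000 * w1, 130000 * (2 ^ j * w2)] z0 ρ := by
  have hw1 : 0 ≤ w1 := (hY.le.trans hYw).trans hw
  obtain ⟨n, hn, H⟩ := hull_sorted (z0 := z0) (ρ := ρ) he hf0 hY hYw hw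
    (one_le_pow₀ (by norm_num : (1:ℝ) ≤ 2) (n := j)) (one_le_pow₀ (by norm_num : (1:ℝ) ≤ 2) (n := k'))
    (h0.lw he hf0 hY hYw hw) (h0.EY he hf0 hY hYw hw) (h0.tb he hf0 hY hYw hw) (h0.SL he hf0 hw1)
  refine ⟨n, hn, ?_⟩
  intro η f g b b' b'' t1 t2 t hη hf hg h1 h2 d1 d2 i1 i1' i2' i2 it
  exact H η f g b b' b'' t1 t2 t hη hf hg (h1.tb he hf hY hYw hw) (h1.SL he hf hw1)
    (h2.tb hf hg hY hYw hw) d1 d2 i1 i1' i2' i2 it

/-- **one step**: the lines of a box `v` (frame `f`) adjacent to `S` lie in the same kind of box. -/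
theorem hull_dy1 (he : Ortho e) (hf0 : Ortho f0) (hY : 0 < Y) (hYw : Y ≤ w2) (hw : w2 ≤ w1)
    (h0 : Dys e f0 Y w1 w2 j k') :
    ∃ n : Fin 3 → V3, Ortho n ∧
      ∀ (η : ℝ) (f : Fin 3 → V3) (b b' t1 t : Ln4), 0 ≤ η → Ortho f →
        Dys e f Y w1 w2 j k' →
        |det3 (e 1) (f0 1) (f 1)| * (w1 * w1) ≤ η * (((2:ℝ) ^ j) ^ 2 * 2 ^ k' * (Y * w2)) →
        InB t1 b e ![Y, w1, w2] z0 ρ → InB t1 b' f ![Y, w1, w2] z0 ρ →
        InB t b' f ![Y, w1, w2] z0 ρ →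
        InB t b n ![tH Y w2 (2 ^ j) (2 ^ k') η, 260000 * w1, 130000 * (2 ^ j * w2)] z0 ρ := by
  have hw2 : 0 < w2 := hY.trans_le hYw
  have hw1 : 0 ≤ w1 := (hY.le.trans hYw).trans hw
  obtain ⟨n, hn, H⟩ := hull_sorted (z0 := z0) (ρ := ρ) he hf0 hY hYw hw
    (one_le_pow₀ (by norm_num : (1:ℝ) ≤ 2) (n := j)) (one_le_pow₀ (by norm_num : (1:ℝ) ≤ 2) (n := k'))
    (h0.lw he hf0 hY hYw hw) (h0.EY he hf0 hY hYw hw) (h0.tb he hf0 hY hYw hw) (h0.SL he hf0 hw1)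
  refine ⟨n, hn, ?_⟩
  intro η f b b' t1 t hη hf h1 d1 i1 i1' it
  have hself : Tb f f Y w1 w2 (2 ^ j) (2 ^ k') := by
    have z : ∀ i j' : Fin 3, i ≠ j' → dt (f i) (f j') = 0 := fun i j' hij => by
      rw [hf i j', if_neg hij]
    have p1 : (0:ℝ) ≤ 2 * (2 ^ j * w2) := by positivity
    have p2 : (0:ℝ) ≤ 2 ^ j * 2 ^ k' * Y := by positivity
    have p3 : (0:ℝ) ≤ 2 ^ k' * Y := by positivity
    refine ⟨?_, ?_, ?_, ?_, ?_, ?_, ?_, ?_⟩ <;>
      rw [z _ _ (by decide), abs_zero, zero_mul] <;> assumption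
  have d2 : |det3 (e 1) (f 1) (f 1)| * (w1 * w1) ≤
      η * (((2:ℝ) ^ j) ^ 2 * 2 ^ k' * (Y * w2)) := by
    have : det3 (e 1) (f 1) (f 1) = 0 := by unfold det3; ring
    rw [this, abs_zero, zero_mul]
    have := hY.le
    positivity
  exact H η f f b b' b' t1 t1 t hη hf hf (h1.tb he hf hY hYw hw) (h1.SL he hf hw1)
    hself d1 d2 i1 i1' i1' i1' it

end

open Classical in
/-- the classes (labels `lab`) of at least `A` lines all of whose lines are in `B` -/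
theorem num_in_box {ι γ : Type*} (P : Finset ι) (lab : ι → γ) (N : Finset γ) (B : ι → Prop)
    {A : ℝ} (hA : ∀ c ∈ N, A ≤ ((P.filter fun t => lab t = c).card : ℝ))
    (hB : ∀ t ∈ P, lab t ∈ N → B t) :
    (N.card : ℝ) * A ≤ ((P.filter B).card : ℝ) := by
  have h1 : ∑ c ∈ N, ((P.filter fun t => lab t = c).card) =
      (P.filter fun t => lab t ∈ N).card := by
    rw [card_eq_sum_card_fiberwise (f := lab) (t := N) (s := P.filter fun t => lab t ∈ N)]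
    · refine sum_congr rfl fun c hc => ?_
      rw [filter_filter]
      congr 1
      ext t
      simp only [mem_filter]
      constructor
      · rintro ⟨h, h'⟩
        exact ⟨h, by rw [h']; exact hc, h'⟩
      · rintro ⟨h, -, h'⟩
        exact ⟨h, h'⟩
    · intro t ht
      rw [mem_coe, mem_filter] at ht
      exact ht.2
  calc (N.card : ℝ) * A = ∑ c ∈ N, A := by rw [sum_const, nsmul_eq_mul]
    _ ≤ ∑ c ∈ N, ((P.filter fun t => lab t = c).card : ℝ) := sum_le_sum hA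
    _ = (((P.filter fun t => lab t ∈ N).card : ℕ) : ℝ) := by rw [← h1]; push_cast; rfl
    _ ≤ _ := by
      exact_mod_cast card_le_card fun t ht => by
        rw [mem_filter] at ht ⊢
        exact ⟨ht.1, hB t ht.1 ht.2⟩

end Crest.Agent.R136.Hl706
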