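import Mathlib

/-!
# R136, U4 (PLAN 2 of helper294), (G4): the two-step count with the choice of the scale (helper372)

`P` a finite set of lines, `u`, `v` two labelings (the two class systems), `cu s t` (`cv s t`) :
`s` and `t` cross (well) in their common `u`-class (`v`-class); `au s t` the size of the determinant
of the classes `v s, u, v t`, `av s t` of `u s, v, u t`.

3-paths `T0 -u- T -v- T''`; `Pth x` = the 3-paths with both determinants `≤ x`.

* `hull` at scale `x` : from every `T0` the 3-paths of `Pth x` reach `≤ W * N x` classes;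
* `meet` at scale `y` : for two classes `c, c''` of one system, at most `W * r y * M` lines of `c` are
  joined to `c''` by a crossing pair of determinant `> y`;
* `share` : two classes of different systems have at most `σ * M` common lines.

`needle` : `(∃ k < K, 1 ≤ 6 * 4^k * W^4 * N (x k) * r (x (k+1)) * σ) ∨ 1 ≤ 2 * 4^K * W^4 * N (x K) * σ`.
-/

set_option autoImplicit false

open Finset

namespace Crest.Agent.R136.Ndl372

variable {ι κ κ' : Type*}

open Classical in
theorem card_le_real {α β : Type*} (s : Finset α) (f : α → β) (T : Finset β)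
    (hf : ∀ a ∈ s, f a ∈ T) {b : ℝ} (hb : ∀ y ∈ T, ((s.filter fun a => f a = y).card : ℝ) ≤ b) :
    (s.card : ℝ) ≤ T.card * b := by
  have h1 : s.card = ∑ y ∈ T, (s.filter fun a => f a = y).card :=
    card_eq_sum_card_fiberwise hf
  rw [h1]
  push_cast
  calc ∑ y ∈ T, ((s.filter fun a => f a = y).card : ℝ) ≤ ∑ _y ∈ T, b := sum_le_sum hb
    _ = T.card * b := by rw [sum_const, nsmul_eq_mul]

open Classical in
/-- 3-paths `T0 -u- T -v- T''` with both determinants `≤ x` -/
noncomputable def Pth (P : Finset ι) (u : ι → κ) (v : ι → κ') (cu cv : ι → ι → Prop)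
    (au av : ι → ι → ℝ) (x : ℝ) : Finset (ι × (ι × ι)) :=
  (P ×ˢ (P ×ˢ P)).filter fun p => u p.1 = u p.2.1 ∧ cu p.1 p.2.1 ∧ au p.1 p.2.1 ≤ x ∧
    v p.2.2 = v p.2.1 ∧ cv p.2.1 p.2.2 ∧ av p.2.1 p.2.2 ≤ x

open Classical in
/-- classes reached from `t0` by 3-paths of `Pth x` -/
noncomputable def reach (P : Finset ι) (u : ι → κ) (v : ι → κ') (cu cv : ι → ι → Prop)
    (au av : ι → ι → ℝ) (x : ℝ) (t0 : ι) : Finset κ :=
  (P.filter fun t'' => ∃ t ∈ P, u t0 = u t ∧ cu t0 t ∧ au t0 t ≤ x ∧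
    v t'' = v t ∧ cv t t'' ∧ av t t'' ≤ x).image u

open Classical in
/-- lines of the class `c` joined to the class `c''` by a crossing pair of determinant `> y` -/
noncomputable def join (P : Finset ι) (u : ι → κ) (v : ι → κ') (cv : ι → ι → Prop)
    (av : ι → ι → ℝ) (y : ℝ) (c c'' : κ) : Finset ι :=
  P.filter fun t => u t = c ∧ ∃ t'' ∈ P, u t'' = c'' ∧ v t'' = v t ∧ cv t t'' ∧ y < av t t''

open Classical in
theorem count_v {P : Finset ι} {u : ι → κ} {v : ι → κ'} {cu cv : ι → ι → Prop}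
    {au av : ι → ι → ℝ} {x y n r s : ℝ}
    (hn : ∀ t0 ∈ P, ((reach P u v cu cv au av x t0).card : ℝ) ≤ n)
    (hr : ∀ c c'', ((join P u v cv av y c c'').card : ℝ) ≤ r)
    (hs : ∀ c c', ((P.filter fun t => u t = c ∧ v t = c').card : ℝ) ≤ s) (hs0 : 0 ≤ s)
    (hr0 : 0 ≤ r) :
    (((Pth P u v cu cv au av x).filter fun p => y < av p.2.1 p.2.2).card : ℝ) ≤
      P.card * (n * (r * s)) := by
  set Q := (Pth P u v cu cv au av x).filter fun p => y < av p.2.1 p.2.2 with hQ
  have memQ : ∀ p, p ∈ Q ↔ (p.1 ∈ P ∧ p.2.1 ∈ P ∧ p.2.2 ∈ P) ∧ (u p.1 = u p.2.1 ∧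
      cu p.1 p.2.1 ∧ au p.1 p.2.1 ≤ x ∧ v p.2.2 = v p.2.1 ∧ cv p.2.1 p.2.2 ∧
      av p.2.1 p.2.2 ≤ x) ∧ y < av p.2.1 p.2.2 := by
    intro p
    rw [hQ, mem_filter, Pth, mem_filter, mem_product, mem_product, and_assoc]
  refine card_le_real Q (fun p => p.1) P (fun p hp => ((memQ p).1 hp).1.1) fun t0 ht0 => ?_
  have h1 : ((Q.filter fun p => p.1 = t0).card : ℝ) ≤
      (reach P u v cu cv au av x t0).card * (r * s) := by
    refine card_le_real _ (fun p => u p.2.2) _ (fun p hp => ?_) fun c'' _ => ?_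
    · rw [mem_filter, memQ] at hp
      obtain ⟨⟨⟨_, h2, h3⟩, ⟨h4, h5, h6, h7, h8, h9⟩, _⟩, h0⟩ := hp
      rw [h0] at h4 h5 h6
      unfold reach
      exact mem_image_of_mem u (mem_filter.2 ⟨h3, p.2.1, h2, h4, h5, h6, h7, h8, h9⟩)
    · have h2 : ((((Q.filter fun p => p.1 = t0).filter fun p => u p.2.2 = c'')).card : ℝ) ≤
          (join P u v cv av y (u t0) c'').card * s := by
        refine card_le_real _ (fun p => p.2.1) _ (fun p hp => ?_) fun t _ => ?_
        · rw [mem_filter, mem_filter, memQ] at hp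
          obtain ⟨⟨⟨⟨_, h2, h3⟩, ⟨h4, _, _, h7, h8, _⟩, h10⟩, h0⟩, h11⟩ := hp
          unfold join
          rw [h0] at h4
          exact mem_filter.2 ⟨h2, h4.symm, p.2.2, h3, h11, h7, h8, h10⟩
        · refine le_trans (Nat.cast_le.2 ?_) (hs c'' (v t))
          refine card_le_card_of_injOn (fun p => p.2.2) ?_ ?_
          · intro p hp
            rw [mem_coe, mem_filter, mem_filter, mem_filter, memQ] at hp
            obtain ⟨⟨⟨⟨⟨_, _, h3⟩, ⟨_, _, _, h7, _, _⟩, _⟩, _⟩, h11⟩, h12⟩ := hp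
            rw [mem_coe, mem_filter]
            rw [h12] at h7
            exact ⟨h3, h11, h7⟩
          · intro p hp p' hp' hpp
            rw [mem_coe, mem_filter, mem_filter, mem_filter] at hp hp'
            obtain ⟨⟨⟨_, a0⟩, _⟩, a1⟩ := hp
            obtain ⟨⟨⟨_, b0⟩, _⟩, b1⟩ := hp'
            exact Prod.ext (a0.trans b0.symm) (Prod.ext (a1.trans b1.symm) hpp)
      exact h2.trans (mul_le_mul_of_nonneg_right (hr _ _) hs0)
  exact h1.trans (mul_le_mul_of_nonneg_right (hn t0 ht0) (mul_nonneg hr0 hs0))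

open Classical in
/-- reversal of the paths -/
theorem card_rev {P : Finset ι} {u : ι → κ} {v : ι → κ'} {cu cv : ι → ι → Prop}
    {au av : ι → ι → ℝ} {x y : ℝ} (hcu : ∀ s t, cu s t → cu t s) (hcv : ∀ s t, cv s t → cv t s)
    (hau : ∀ s t, au s t = au t s) (hav : ∀ s t, av s t = av t s) :
    ((Pth P u v cu cv au av x).filter fun p => y < au p.1 p.2.1).card ≤
      ((Pth P v u cv cu av au x).filter fun p => y < au p.2.1 p.2.2).card := by
  refine card_le_card_of_injOn (fun p => (p.2.2, (p.2.1, p.1))) ?_ ?_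
  · intro p hp
    rw [mem_coe, mem_filter, Pth, mem_filter, mem_product, mem_product] at hp
    obtain ⟨⟨⟨h1, h2, h3⟩, h4, h5, h6, h7, h8, h9⟩, h10⟩ := hp
    rw [mem_coe, mem_filter, Pth, mem_filter, mem_product, mem_product]
    refine ⟨⟨⟨h3, h2, h1⟩, h7, hcv _ _ h8, ?_, h4, hcu _ _ h5, ?_⟩, ?_⟩
    · show av p.2.2 p.2.1 ≤ x
      rw [hav]; exact h9
    · show au p.2.1 p.1 ≤ x
      rw [hau]; exact h6
    · show y < au p.2.1 p.1
      rw [hau]; exact h10
  · intro p _ p' _ hpp
    simp only [Prod.mk.injEq] at hpp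
    exact Prod.ext hpp.2.2 (Prod.ext hpp.2.1 hpp.1)

open Classical in
/-- the data of the two-step count -/
structure Nd (P : Finset ι) (u : ι → κ) (v : ι → κ') (cu cv : ι → ι → Prop)
    (au av : ι → ι → ℝ) (x : ℕ → ℝ) (K : ℕ) (M W σ : ℝ) (N r : ℝ → ℝ) : Prop where
  ne : P.Nonempty
  W1 : 1 ≤ W
  M0 : 0 < M
  σ0 : 0 ≤ σ
  N0 : ∀ k, 0 ≤ N (x k)
  r0 : ∀ k, 0 ≤ r (x k)
  symU : ∀ s t, cu s t → cu t s
  symV : ∀ s t, cv s t → cv t s
  symAu : ∀ s t, au s t = au t s
  symAv : ∀ s t, av s t = av t s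
  /-- all determinants are at most `x 0` -/
  topU : ∀ s ∈ P, ∀ t ∈ P, u s = u t → cu s t → au s t ≤ x 0
  topV : ∀ s ∈ P, ∀ t ∈ P, v s = v t → cv s t → av s t ≤ x 0
  /-- classes are not larger than `W M` (only for one step) -/
  size : ∀ c', ((P.filter fun t => v t = c').card : ℝ) ≤ W * M
  /-- many crossing pairs in every quarter of the lines -/
  crU : ∀ Q ⊆ P, P.card ≤ 4 * Q.card → (P.card : ℝ) * M ≤
    W * (((Q ×ˢ Q).filter fun p => u p.1 = u p.2 ∧ cu p.1 p.2).card : ℝ)
  crV : ∀ Q ⊆ P, P.card ≤ 4 * Q.card → (P.card : ℝ) * M ≤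
    W * (((Q ×ˢ Q).filter fun p => v p.1 = v p.2 ∧ cv p.1 p.2).card : ℝ)
  share : ∀ c c', ((P.filter fun t => u t = c ∧ v t = c').card : ℝ) ≤ σ * M
  hullU : ∀ k, k < K → ∀ t0 ∈ P, ((reach P u v cu cv au av (x k) t0).card : ℝ) ≤ W * N (x k)
  hullV : ∀ k, k < K → ∀ t0 ∈ P, ((reach P v u cv cu av au (x k) t0).card : ℝ) ≤ W * N (x k)
  /-- one step, last scale -/
  hull1 : ∀ t0 ∈ P, (((P.filter fun t => u t0 = u t ∧ cu t0 t ∧ au t0 t ≤ x K).image v).card : ℝ)
    ≤ W * N (x K)
  meetU : ∀ k, k < K → ∀ c c'', ((join P u v cv av (x (k + 1)) c c'').card : ℝ) ≤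
    W * r (x (k + 1)) * M
  meetV : ∀ k, k < K → ∀ c c'', ((join P v u cu au (x (k + 1)) c c'').card : ℝ) ≤
    W * r (x (k + 1)) * M

open Classical in
/-- lines with few crossing partners are less than a quarter -/
theorem few {P : Finset ι} {κ₀ : Type*} {u : ι → κ₀} {cu : ι → ι → Prop} {M W : ℝ}
    (hP : P.Nonempty) (hW : 1 ≤ W) (hM : 0 < M)
    (h : ∀ Q ⊆ P, P.card ≤ 4 * Q.card → (P.card : ℝ) * M ≤
      W * (((Q ×ˢ Q).filter fun p => u p.1 = u p.2 ∧ cu p.1 p.2).card : ℝ)) :
    4 * (P.filter fun t => ((P.filter fun s => u t = u s ∧ cu t s).card : ℝ) < M / W).card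
      < P.card := by
  set B := P.filter fun t => ((P.filter fun s => u t = u s ∧ cu t s).card : ℝ) < M / W with hB
  by_contra hc
  have hc' : P.card ≤ 4 * B.card := not_lt.1 hc
  have h1 := h B (filter_subset _ _) hc'
  have hP0 : 0 < P.card := hP.card_pos
  have hB0 : 0 < B.card := by omega
  have hW0 : 0 < W := by linarith
  have h2 : (((B ×ˢ B).filter fun p => u p.1 = u p.2 ∧ cu p.1 p.2).card : ℝ) < B.card * (M / W) := by
    have h3 : (((B ×ˢ B).filter fun p => u p.1 = u p.2 ∧ cu p.1 p.2).card : ℝ) ≤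
        ∑ t ∈ B, ((P.filter fun s => u t = u s ∧ cu t s).card : ℝ) := by
      have h4 : ((B ×ˢ B).filter fun p => u p.1 = u p.2 ∧ cu p.1 p.2).card =
          ∑ t ∈ B, ((B.filter fun s => u t = u s ∧ cu t s)).card := by
        rw [card_filter, sum_product]
        refine sum_congr rfl fun t _ => ?_
        rw [card_filter]
      rw [h4]; push_cast
      refine sum_le_sum fun t _ => ?_
      have h5 : (B.filter fun s => u t = u s ∧ cu t s).card ≤
          (P.filter fun s => u t = u s ∧ cu t s).card :=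
        card_le_card (filter_subset_filter _ (filter_subset _ _))
      exact_mod_cast h5
    refine lt_of_le_of_lt h3 ?_
    calc ∑ t ∈ B, ((P.filter fun s => u t = u s ∧ cu t s).card : ℝ)
        < ∑ _t ∈ B, M / W :=
          sum_lt_sum_of_nonempty (card_pos.1 hB0) fun t ht => (mem_filter.1 ht).2
      _ = B.card * (M / W) := by rw [sum_const, nsmul_eq_mul]
  have h3 : (P.card : ℝ) * M < W * (B.card * (M / W)) :=
    lt_of_le_of_lt h1 (mul_lt_mul_of_pos_left h2 hW0)
  have h4 : W * (B.card * (M / W)) = B.card * M := by field_simp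
  have h5 : (B.card : ℝ) ≤ P.card := by exact_mod_cast card_le_card (filter_subset _ _)
  rw [h4] at h3
  nlinarith

open Classical in
/-- there are many 3-paths -/
theorem Nd.many {P : Finset ι} {u : ι → κ} {v : ι → κ'} {cu cv : ι → ι → Prop}
    {au av : ι → ι → ℝ} {x : ℕ → ℝ} {K : ℕ} {M W σ : ℝ} {N r : ℝ → ℝ}
    (h : Nd P u v cu cv au av x K M W σ N r) :
    (P.card : ℝ) / 2 * (M / W) ^ 2 ≤ ((Pth P u v cu cv au av (x 0)).card : ℝ) := by
  have hu := few h.ne h.W1 h.M0 h.crU
  have hv := few h.ne h.W1 h.M0 h.crV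
  set Bu := P.filter fun t => ((P.filter fun s => u t = u s ∧ cu t s).card : ℝ) < M / W
  set Bv := P.filter fun t => ((P.filter fun s => v t = v s ∧ cv t s).card : ℝ) < M / W
  set Q := P.filter fun t => M / W ≤ ((P.filter fun s => u t = u s ∧ cu t s).card : ℝ) ∧
    M / W ≤ ((P.filter fun s => v t = v s ∧ cv t s).card : ℝ) with hQ
  have hcover : P ⊆ Q ∪ (Bu ∪ Bv) := by
    intro t ht
    rw [mem_union, mem_union]
    by_cases h1 : ((P.filter fun s => u t = u s ∧ cu t s).card : ℝ) < M / W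
    · exact Or.inr (Or.inl (mem_filter.2 ⟨ht, h1⟩))
    · by_cases h2 : ((P.filter fun s => v t = v s ∧ cv t s).card : ℝ) < M / W
      · exact Or.inr (Or.inr (mem_filter.2 ⟨ht, h2⟩))
      · exact Or.inl (mem_filter.2 ⟨ht, not_lt.1 h1, not_lt.1 h2⟩)
  have hcard : P.card ≤ 2 * Q.card := by
    have h1 := card_le_card hcover
    have h2 := card_union_le Q (Bu ∪ Bv)
    have h3 := card_union_le Bu Bv
    omega
  have hMW : 0 ≤ M / W := by have := h.M0; have := h.W1; positivity
  have h1 : ∑ t ∈ Q, (((P.filter fun s => u t = u s ∧ cu t s).card : ℝ) *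
      ((P.filter fun s => v t = v s ∧ cv t s).card : ℝ)) ≤
      ((Pth P u v cu cv au av (x 0)).card : ℝ) := by
    have h2 : (Q.biUnion fun t => ((P.filter fun s => u t = u s ∧ cu t s) ×ˢ
        (P.filter fun s => v t = v s ∧ cv t s)).image fun q => (q.1, (t, q.2))) ⊆
        Pth P u v cu cv au av (x 0) := by
      intro p hp
      rw [mem_biUnion] at hp
      obtain ⟨t, ht, hp⟩ := hp
      rw [mem_image] at hp
      obtain ⟨q, hq, rfl⟩ := hp
      rw [mem_product, mem_filter, mem_filter] at hq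
      obtain ⟨⟨a1, a2, a3⟩, b1, b2, b3⟩ := hq
      have htP : t ∈ P := (mem_filter.1 ht).1
      unfold Pth
      rw [mem_filter, mem_product, mem_product]
      refine ⟨⟨a1, htP, b1⟩, a2.symm, h.symU _ _ a3, ?_, b2.symm, b3, ?_⟩
      · exact h.topU _ a1 _ htP a2.symm (h.symU _ _ a3)
      · exact h.topV _ htP _ b1 b2 b3
    have h3 := card_le_card h2
    rw [card_biUnion] at h3
    · have h4 : ∑ t ∈ Q, ((((P.filter fun s => u t = u s ∧ cu t s) ×ˢ
        (P.filter fun s => v t = v s ∧ cv t s)).image fun q => (q.1, (t, q.2))).card) =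
        ∑ t ∈ Q, ((P.filter fun s => u t = u s ∧ cu t s).card *
          (P.filter fun s => v t = v s ∧ cv t s).card) := by
        refine sum_congr rfl fun t _ => ?_
        rw [card_image_of_injective _ (fun q q' hqq => by
          simp only [Prod.mk.injEq, true_and] at hqq
          exact Prod.ext hqq.1 hqq.2), card_product]
      rw [h4] at h3
      exact_mod_cast h3
    · intro t _ t' _ htt
      rw [Function.onFun, disjoint_left]
      intro p hp hp'
      rw [mem_image] at hp hp'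
      obtain ⟨q, _, rfl⟩ := hp
      obtain ⟨q', _, hq'⟩ := hp'
      simp only [Prod.mk.injEq] at hq'
      exact htt hq'.2.1.symm
  refine le_trans ?_ h1
  have h2 : (P.card : ℝ) ≤ 2 * Q.card := by exact_mod_cast hcard
  calc (P.card : ℝ) / 2 * (M / W) ^ 2 ≤ Q.card * (M / W) ^ 2 := by
        apply mul_le_mul_of_nonneg_right _ (by positivity); linarith
    _ = ∑ _t ∈ Q, (M / W) * (M / W) := by rw [sum_const, nsmul_eq_mul, sq]
    _ ≤ _ := sum_le_sum fun t ht => by
        have := (mem_filter.1 ht).2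
        exact mul_le_mul this.1 this.2 hMW (hMW.trans this.1)

/-- first large drop of a sequence -/
theorem drop {p : ℕ → ℝ} (K : ℕ) :
    (∃ k < K, p (k + 1) < p k / 4 ∧ p 0 / 4 ^ k ≤ p k) ∨ p 0 / 4 ^ K ≤ p K := by
  induction K with
  | zero => right; simp
  | succ K ih =>
    rcases ih with ⟨k, hk, h⟩ | h
    · exact Or.inl ⟨k, hk.trans (Nat.lt_succ_self K), h⟩
    · by_cases h1 : p (K + 1) < p K / 4
      · exact Or.inl ⟨K, Nat.lt_succ_self K, h1, h⟩
      · right
        have h2 := not_lt.1 h1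
        calc p 0 / 4 ^ (K + 1) = p 0 / 4 ^ K / 4 := by rw [pow_succ]; ring
          _ ≤ p K / 4 := by linarith
          _ ≤ _ := h2

open Classical in
/-- **the two-step count** -/
theorem needle {P : Finset ι} {u : ι → κ} {v : ι → κ'} {cu cv : ι → ι → Prop}
    {au av : ι → ι → ℝ} {x : ℕ → ℝ} {K : ℕ} {M W σ : ℝ} {N r : ℝ → ℝ}
    (h : Nd P u v cu cv au av x K M W σ N r) :
    (∃ k < K, 1 ≤ 6 * 4 ^ k * W ^ 4 * N (x k) * r (x (k + 1)) * σ) ∨
      1 ≤ 2 * 4 ^ K * W ^ 4 * N (x K) * σ := by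
  have hW := h.W1
  have hW0 : 0 < W := by linarith
  have hM := h.M0
  have hP0 : (0:ℝ) < P.card := by exact_mod_cast h.ne.card_pos
  have hmany := h.many
  rcases drop (p := fun k => ((Pth P u v cu cv au av (x k)).card : ℝ)) K with
    ⟨k, hk, h1, h2⟩ | h1
  · left
    refine ⟨k, hk, ?_⟩
    set A := Pth P u v cu cv au av (x k) with hA
    set A' := Pth P u v cu cv au av (x (k + 1)) with hA'
    -- the paths of `A` outside `A'`
    have hsplit : A ⊆ A' ∪ ((A.filter fun p => x (k + 1) < av p.2.1 p.2.2) ∪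
        (A.filter fun p => x (k + 1) < au p.1 p.2.1)) := by
      intro p hp
      rw [mem_union, mem_union]
      by_cases c1 : x (k + 1) < av p.2.1 p.2.2
      · exact Or.inr (Or.inl (mem_filter.2 ⟨hp, c1⟩))
      · by_cases c2 : x (k + 1) < au p.1 p.2.1
        · exact Or.inr (Or.inr (mem_filter.2 ⟨hp, c2⟩))
        · left
          rw [hA, Pth, mem_filter] at hp
          rw [hA', Pth, mem_filter]
          exact ⟨hp.1, hp.2.1, hp.2.2.1, not_lt.1 c2, hp.2.2.2.2.1, hp.2.2.2.2.2.1, not_lt.1 c1⟩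
    have hc : (A.card : ℝ) ≤ A'.card + ((A.filter fun p => x (k + 1) < av p.2.1 p.2.2).card +
        (A.filter fun p => x (k + 1) < au p.1 p.2.1).card) := by
      have a1 := card_le_card hsplit
      have a2 := card_union_le A' ((A.filter fun p => x (k + 1) < av p.2.1 p.2.2) ∪
        (A.filter fun p => x (k + 1) < au p.1 p.2.1))
      have a3 := card_union_le (A.filter fun p => x (k + 1) < av p.2.1 p.2.2)
        (A.filter fun p => x (k + 1) < au p.1 p.2.1)
      have a4 : A.card ≤ A'.card + ((A.filter fun p => x (k + 1) < av p.2.1 p.2.2).card +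
        (A.filter fun p => x (k + 1) < au p.1 p.2.1).card) := by omega
      exact_mod_cast a4
    have hσM : 0 ≤ σ * M := mul_nonneg h.σ0 hM.le
    have hrM : 0 ≤ W * r (x (k + 1)) * M :=
      mul_nonneg (mul_nonneg hW0.le (h.r0 (k + 1))) hM.le
    have hv : ((A.filter fun p => x (k + 1) < av p.2.1 p.2.2).card : ℝ) ≤
        P.card * (W * N (x k) * (W * r (x (k + 1)) * M * (σ * M))) :=
      count_v (h.hullU k hk) (h.meetU k hk) h.share hσM hrM
    have hu : ((A.filter fun p => x (k + 1) < au p.1 p.2.1).card : ℝ) ≤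
        P.card * (W * N (x k) * (W * r (x (k + 1)) * M * (σ * M))) := by
      refine le_trans (Nat.cast_le.2 (card_rev h.symU h.symV h.symAu h.symAv)) ?_
      exact count_v (h.hullV k hk) (h.meetV k hk)
        (fun c c' => by
          have := h.share c' c
          refine le_trans (le_of_eq ?_) this
          congr 2
          ext t
          simp only [mem_filter]
          tauto) hσM hrM
    have h3 : 3 / 8 * ((P.card : ℝ) / 2 * (M / W) ^ 2 / 4 ^ k) ≤
        P.card * (W * N (x k) * (W * r (x (k + 1)) * M * (σ * M))) := by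
      have e1 : (P.card : ℝ) / 2 * (M / W) ^ 2 / 4 ^ k ≤ A.card :=
        le_trans (div_le_div_of_nonneg_right hmany (by positivity)) h2
      linarith
    have h4 : (P.card : ℝ) * M ^ 2 / W ^ 2 * (3 / 16 / 4 ^ k) ≤
        (P.card : ℝ) * M ^ 2 / W ^ 2 * (W ^ 4 * N (x k) * r (x (k + 1)) * σ) := by
      calc (P.card : ℝ) * M ^ 2 / W ^ 2 * (3 / 16 / 4 ^ k)
          = 3 / 8 * ((P.card : ℝ) / 2 * (M / W) ^ 2 / 4 ^ k) := by
            rw [div_pow]; ring
        _ ≤ _ := h3
        _ = _ := by field_simp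
    have h5 := le_of_mul_le_mul_left h4 (by positivity)
    rw [div_le_iff₀ (by positivity)] at h5
    have h6 : 0 ≤ W ^ 4 * N (x k) * r (x (k + 1)) * σ * 4 ^ k := by
      have := h.N0 k; have := h.r0 (k + 1); have := h.σ0
      positivity
    linarith
  · right
    have hσM : 0 ≤ σ * M := mul_nonneg h.σ0 hM.le
    -- one step
    have h2 : ((Pth P u v cu cv au av (x K)).card : ℝ) ≤
        P.card * (W * N (x K) * (σ * M * (W * M))) := by
      have memP : ∀ p, p ∈ Pth P u v cu cv au av (x K) ↔ (p.1 ∈ P ∧ p.2.1 ∈ P ∧ p.2.2 ∈ P) ∧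
          (u p.1 = u p.2.1 ∧ cu p.1 p.2.1 ∧ au p.1 p.2.1 ≤ x K ∧ v p.2.2 = v p.2.1 ∧
          cv p.2.1 p.2.2 ∧ av p.2.1 p.2.2 ≤ x K) := by
        intro p; rw [Pth, mem_filter, mem_product, mem_product]
      refine card_le_real _ (fun p => p.1) P (fun p hp => ((memP p).1 hp).1.1) fun t0 ht0 => ?_
      have h3 : (((Pth P u v cu cv au av (x K)).filter fun p => p.1 = t0).card : ℝ) ≤
          ((P.filter fun t => u t0 = u t ∧ cu t0 t ∧ au t0 t ≤ x K).image v).card *
            (σ * M * (W * M)) := by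
        refine card_le_real _ (fun p => v p.2.1) _ (fun p hp => ?_) fun c' _ => ?_
        · rw [mem_filter, memP] at hp
          obtain ⟨⟨⟨_, a2, _⟩, a4, a5, a6, _⟩, a0⟩ := hp
          rw [a0] at a4 a5 a6
          exact mem_image_of_mem v (mem_filter.2 ⟨a2, a4, a5, a6⟩)
        · have h4 : ((((Pth P u v cu cv au av (x K)).filter fun p => p.1 = t0).filter
              fun p => v p.2.1 = c').card : ℝ) ≤
              (P.filter fun t => u t = u t0 ∧ v t = c').card * (W * M) := by
            refine card_le_real _ (fun p => p.2.1) _ (fun p hp => ?_) fun t _ => ?_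
            · rw [mem_filter, mem_filter, memP] at hp
              obtain ⟨⟨⟨⟨_, a2, _⟩, a4, _⟩, a0⟩, a1⟩ := hp
              rw [a0] at a4
              exact mem_filter.2 ⟨a2, a4.symm, a1⟩
            · refine le_trans (Nat.cast_le.2 ?_) (h.size (v t))
              refine card_le_card_of_injOn (fun p => p.2.2) ?_ ?_
              · intro p hp
                rw [mem_coe, mem_filter, mem_filter, mem_filter, memP] at hp
                obtain ⟨⟨⟨⟨⟨_, _, a3⟩, _, _, _, a7, _⟩, _⟩, _⟩, a8⟩ := hp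
                rw [mem_coe, mem_filter]
                rw [a8] at a7
                exact ⟨a3, a7⟩
              · intro p hp p' hp' hpp
                rw [mem_coe, mem_filter, mem_filter, mem_filter] at hp hp'
                obtain ⟨⟨⟨_, a0⟩, _⟩, a1⟩ := hp
                obtain ⟨⟨⟨_, b0⟩, _⟩, b1⟩ := hp'
                exact Prod.ext (a0.trans b0.symm) (Prod.ext (a1.trans b1.symm) hpp)
          exact h4.trans (mul_le_mul_of_nonneg_right (h.share _ _) (by positivity))
      exact h3.trans (mul_le_mul_of_nonneg_right (h.hull1 t0 ht0)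
        (mul_nonneg hσM (by positivity)))
    have h3 : (P.card : ℝ) / 2 * (M / W) ^ 2 / 4 ^ K ≤
        P.card * (W * N (x K) * (σ * M * (W * M))) :=
      (div_le_div_of_nonneg_right hmany (by positivity)).trans (h1.trans h2)
    have h4 : (P.card : ℝ) * M ^ 2 / W ^ 2 * (1 / 2 / 4 ^ K) ≤
        (P.card : ℝ) * M ^ 2 / W ^ 2 * (W ^ 4 * N (x K) * σ) := by
      calc (P.card : ℝ) * M ^ 2 / W ^ 2 * (1 / 2 / 4 ^ K)
          = (P.card : ℝ) / 2 * (M / W) ^ 2 / 4 ^ K := by rw [div_pow]; ring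
        _ ≤ _ := h3
        _ = _ := by field_simp
    have h5 := le_of_mul_le_mul_left h4 (by positivity)
    rw [div_le_iff₀ (by positivity)] at h5
    linarith

end Crest.Agent.R136.Ndl372
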