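import Crest.Agent.R136.Pl2Def_860
import Crest.Agent.R136.Ndl_372
import Crest.Agent.R136.Hl4_706
import Crest.Agent.R136.Cmd_113

/-!
# R136 (S0187), PLAN 2, leaf (C4) `core_hull`, constants without upper bounds of `qp` (helper89's
proof of `Chl_89`, constants generalised by helper372)

From the hull box of a path `S - v - S''` (`hull_dy`, helper706) and the hull D-max of `TCore` to the
fields `hullU`, `hullV`, `hull1` of `Ndl372.Nd`, with the determinants `aV` of helper113.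
-/

set_option autoImplicit false
set_option linter.unusedVariables false
set_option linter.unusedSectionVars false

open Finset

namespace Crest.Agent.R136.Chg372

open Crest.Agent.R136.Sh605 Crest.Agent.R136.Fl808 Crest.Agent.R136.Hl706 Crest.Agent.R136.Pl2

/-- the constant of the hull count -/
noncomputable def cH (qp : Fin 3 → ℝ) : ℝ := 4896 ^ (1 + qp 0) * 130000 ^ (1 + qp 2)

/-- both systems, in a symmetric form -/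
structure SC (qp : Fin 3 → ℝ) (L : ℕ → Ln4) (P : Finset ℕ) (u v : ℕ → ℕ) (bu bv : ℕ → Ln4)
    (eu ev : ℕ → Fin 3 → V3) (W M a Y w1 w2 z0 ρ : ℝ) (j k' : ℕ) : Prop where
  W1 : 1 ≤ W
  M0 : 0 < M
  a0 : 0 < a
  aY : a ≤ Y
  Yw : Y ≤ w2
  ww : w2 ≤ w1
  ou : ∀ t ∈ P, Ortho (eu (u t))
  ov : ∀ t ∈ P, Ortho (ev (v t))
  mu : ∀ t ∈ P, InB (L t) (bu (u t)) (eu (u t)) ![Y, w1, w2] z0 ρ
  mv : ∀ t ∈ P, InB (L t) (bv (v t)) (ev (v t)) ![Y, w1, w2] z0 ρ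
  fu : ∀ t ∈ P, M ≤ W * ((P.filter fun s => u s = u t).card : ℝ)
  fv : ∀ t ∈ P, M ≤ W * ((P.filter fun s => v s = v t).card : ℝ)
  hull : ∀ (b : Ln4) (f : Fin 3 → V3) (X0 X2 : ℝ), Ortho f → a ≤ X0 → w2 ≤ X2 → X0 ≤ X2 →
    X2 ≤ 10 ^ 6 * w1 →
    ∀ B ⊆ P, (∀ t ∈ B, InB (L t) b f ![X0, 10 ^ 6 * w1, X2] z0 ρ) → (B.card : ℝ) ≤
      W * M * ((X0 / a) ^ (1 + qp 0) * (X2 / w2) ^ (1 + qp 2))
  dd : ∀ t ∈ P, Dys (eu (u t)) (ev (v t)) Y w1 w2 j k'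

section

variable {qm qp : Fin 3 → ℝ} {L : ℕ → Ln4} {P : Finset ℕ} {u v : ℕ → ℕ} {bu bv : ℕ → Ln4}
  {eu ev : ℕ → Fin 3 → V3} {W M a Y w1 w2 z0 ρ : ℝ} {j k' : ℕ}

theorem SC.swap (H : SC qp L P u v bu bv eu ev W M a Y w1 w2 z0 ρ j k') :
    SC qp L P v u bv bu ev eu W M a Y w1 w2 z0 ρ j k' :=
  ⟨H.W1, H.M0, H.a0, H.aY, H.Yw, H.ww, H.ov, H.ou, H.mv, H.mu, H.fv, H.fu, H.hull,
    fun t ht => (H.dd t ht).symm⟩

theorem of_core (H : TCore qm qp L P u v bu bv eu ev W M a Y w1 w2 z0 ρ)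
    (hD : ∀ t ∈ P, Dy (eu (u t)) (ev (v t)) Y w1 w2 j k') :
    SC qp L P u v bu bv eu ev W M a Y w1 w2 z0 ρ j k' := by
  classical
  refine ⟨H.W1, H.M0, H.a0, H.aY, H.Yw, H.ww, H.ou, H.ov, H.mu, H.mv, H.fu, H.fv, ?_,
    fun t ht => Or.inl (hD t ht)⟩
  intro b f X0 X2 hf h1 h2 h3 h4 B hB hI
  refine le_trans (Nat.cast_le.2 (card_le_card fun t ht => ?_)) (H.hull b f X0 X2 hf h1 h2 h3 h4)
  exact mem_filter.2 ⟨hB ht, hI t ht⟩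

/-- number of classes all of whose lines are in `B` -/
theorem num_classes {N B : Finset ℕ} (hW : 0 < W)
    (fu : ∀ c ∈ N, M ≤ W * ((P.filter fun s => u s = c).card : ℝ))
    (h : ∀ c ∈ N, ∀ s ∈ P, u s = c → s ∈ B) : (N.card : ℝ) * M ≤ W * (B.card : ℝ) := by
  have h1 : (∑ c ∈ N, (P.filter fun s => u s = c).card) ≤ B.card := by
    rw [← card_biUnion]
    · refine card_le_card fun s hs => ?_
      rw [mem_biUnion] at hs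
      obtain ⟨c, hc, hs⟩ := hs
      rw [mem_filter] at hs
      exact h c hc s hs.1 hs.2
    · intro c _ c' _ hcc
      rw [Function.onFun, disjoint_left]
      intro s hs hs'
      exact hcc ((mem_filter.1 hs).2.symm.trans (mem_filter.1 hs').2)
  have h2 : (∑ c ∈ N, ((P.filter fun s => u s = c).card : ℝ)) ≤ (B.card : ℝ) := by
    exact_mod_cast h1
  calc (N.card : ℝ) * M = ∑ _c ∈ N, M := by rw [sum_const, nsmul_eq_mul]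
    _ ≤ ∑ c ∈ N, W * ((P.filter fun s => u s = c).card : ℝ) := sum_le_sum fu
    _ = W * ∑ c ∈ N, ((P.filter fun s => u s = c).card : ℝ) := by rw [mul_sum]
    _ ≤ _ := by gcongr

/-- from the box to the number of classes -/
theorem SC.num (H : SC qp L P u v bu bv eu ev W M a Y w1 w2 z0 ρ j k')
    {x : ℝ} (hx : 1 ≤ x * 2 ^ j) (hlw : (2:ℝ) ^ j * w2 ≤ 2 * w1)
    (q0 : 0 ≤ qp 0) (q2 : 0 ≤ qp 2)
    {N : Finset ℕ} {w : ℕ → ℕ} (fw : ∀ c ∈ N, M ≤ W * ((P.filter fun s => w s = c).card : ℝ))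
    {b : Ln4} {f : Fin 3 → V3} (hf : Ortho f)
    (hI : ∀ c ∈ N, ∀ s ∈ P, w s = c → InB (L s) b f
      ![tH Y w2 (2 ^ j) (2 ^ k') x, 260000 * w1, 130000 * (2 ^ j * w2)] z0 ρ) :
    (N.card : ℝ) ≤ cH qp * W ^ 2 *
      ((x * (2 ^ j * 2 ^ k') * (Y / a)) ^ (1 + qp 0) * ((2:ℝ) ^ j) ^ (1 + qp 2)) := by
  classical
  have hW0 : 0 < W := by have := H.W1; linarith
  have ha := H.a0
  have hY0 : 0 < Y := ha.trans_le H.aY
  have hw2 : 0 < w2 := hY0.trans_le H.Yw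
  have hw1 : 0 < w1 := hw2.trans_le H.ww
  have hj : (1:ℝ) ≤ 2 ^ j := one_le_pow₀ (by norm_num)
  have hk : (1:ℝ) ≤ 2 ^ k' := one_le_pow₀ (by norm_num)
  have hj0 : (0:ℝ) < 2 ^ j := by positivity
  have hk0 : (0:ℝ) < 2 ^ k' := by positivity
  have hx0 : 0 < x := by
    by_contra hc
    have : x * 2 ^ j ≤ 0 := mul_nonpos_of_nonpos_of_nonneg (not_lt.1 hc) hj0.le
    linarith
  set X0 : ℝ := tH Y w2 (2 ^ j) (2 ^ k') x with hX0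
  set X2 : ℝ := 130000 * (2 ^ j * w2) with hX2
  have c1 : a ≤ X0 := H.aY.trans (tH_ge hY0 H.Yw hj hk hx0.le)
  have c2 : w2 ≤ X2 := by
    have h1 : w2 ≤ 2 ^ j * w2 := le_mul_of_one_le_left hw2.le hj
    rw [hX2]; linarith
  have c3 : X0 ≤ X2 := tH_le2 _ _ _ _ _
  have c4 : X2 ≤ 10 ^ 6 * w1 := by rw [hX2]; linarith
  have hX01 : X0 ≤ 4896 * (x * (2 ^ j * 2 ^ k') * Y) := by
    refine (tH_le1 _ _ _ _ _).trans ?_
    have e1 : (x + 1 / (2:ℝ) ^ j) * (2 ^ j * 2 ^ k' * Y) =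
        (x * 2 ^ j + 1) * (2 ^ k' * Y) := by field_simp
    have e2 : 4896 * (x * (2 ^ j * 2 ^ k') * Y) = 2448 * ((2 * (x * 2 ^ j)) * (2 ^ k' * Y)) := by
      ring
    rw [e1, e2]
    have h3 : (0:ℝ) < 2 ^ k' * Y := by positivity
    have h4 : (x * 2 ^ j + 1) * (2 ^ k' * Y) ≤ (2 * (x * 2 ^ j)) * (2 ^ k' * Y) := by
      apply mul_le_mul_of_nonneg_right _ h3.le
      linarith
    linarith
  set B : Finset ℕ := P.filter fun s => w s ∈ N with hB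
  have hIn : ∀ t ∈ B, InB (L t) b f ![X0, 10 ^ 6 * w1, X2] z0 ρ := by
    intro t ht z hz hz' i
    rw [hB, mem_filter] at ht
    have h1 := hI (w t) ht.2 t ht.1 rfl z hz hz'
    fin_cases i
    · exact h1 0
    · have h10 : |dt (f 1) ((L t).pos z - b.pos z)| ≤ 260000 * w1 := h1 1
      show |dt (f 1) ((L t).pos z - b.pos z)| ≤ 10 ^ 6 * w1
      linarith
    · exact h1 2
  have hcap := H.hull b f X0 X2 hf c1 c2 c3 c4 B (filter_subset _ _) hIn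
  have hnum := num_classes (u := w) (N := N) (B := B) hW0 fw (fun c hc s hs hsc =>
    mem_filter.2 ⟨hs, by rw [hsc]; exact hc⟩)
  have hX0p : 0 ≤ X0 := ha.le.trans c1
  have hX2p : 0 ≤ X2 := hw2.le.trans c2
  -- sizes
  have d0 : (X0 / a) ^ (1 + qp 0) ≤
      4896 ^ (1 + qp 0) * (x * (2 ^ j * 2 ^ k') * (Y / a)) ^ (1 + qp 0) := by
    have e1 : X0 / a ≤ 4896 * (x * (2 ^ j * 2 ^ k') * (Y / a)) := by
      rw [div_le_iff₀ ha]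
      have : 4896 * (x * (2 ^ j * 2 ^ k') * (Y / a)) * a = 4896 * (x * (2 ^ j * 2 ^ k') * Y) := by
        field_simp
      rw [this]; exact hX01
    calc (X0 / a) ^ (1 + qp 0) ≤ (4896 * (x * (2 ^ j * 2 ^ k') * (Y / a))) ^ (1 + qp 0) :=
          Real.rpow_le_rpow (by positivity) e1 (by linarith)
      _ = 4896 ^ (1 + qp 0) * (x * (2 ^ j * 2 ^ k') * (Y / a)) ^ (1 + qp 0) :=
          Real.mul_rpow (by positivity) (by positivity)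
  have d2 : (X2 / w2) ^ (1 + qp 2) ≤ 130000 ^ (1 + qp 2) * ((2:ℝ) ^ j) ^ (1 + qp 2) := by
    have e1 : X2 / w2 ≤ 130000 * 2 ^ j := by
      rw [div_le_iff₀ hw2]
      rw [hX2]; linarith
    calc (X2 / w2) ^ (1 + qp 2) ≤ (130000 * 2 ^ j) ^ (1 + qp 2) :=
          Real.rpow_le_rpow (by positivity) e1 (by linarith)
      _ = 130000 ^ (1 + qp 2) * ((2:ℝ) ^ j) ^ (1 + qp 2) :=
          Real.mul_rpow (by positivity) (by positivity)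
  set n0 : ℝ := (x * (2 ^ j * 2 ^ k') * (Y / a)) ^ (1 + qp 0) with hn0
  set n2 : ℝ := ((2:ℝ) ^ j) ^ (1 + qp 2) with hn2
  have hn0p : 0 ≤ n0 := by rw [hn0]; positivity
  have hn2p : 0 ≤ n2 := by rw [hn2]; positivity
  have hM := H.M0
  have d3 : (X0 / a) ^ (1 + qp 0) * (X2 / w2) ^ (1 + qp 2) ≤ cH qp * (n0 * n2) := by
    calc (X0 / a) ^ (1 + qp 0) * (X2 / w2) ^ (1 + qp 2) ≤
        (4896 ^ (1 + qp 0) * n0) * (130000 ^ (1 + qp 2) * n2) := by gcongr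
      _ = (4896 ^ (1 + qp 0) * 130000 ^ (1 + qp 2)) * (n0 * n2) := by ring
      _ = _ := rfl
  have hfin : (N.card : ℝ) * M ≤ (cH qp * W ^ 2 * (n0 * n2)) * M := by
    calc (N.card : ℝ) * M ≤ W * (B.card : ℝ) := hnum
      _ ≤ W * (W * M * ((X0 / a) ^ (1 + qp 0) * (X2 / w2) ^ (1 + qp 2))) := by gcongr
      _ ≤ W * (W * M * (cH qp * (n0 * n2))) := by gcongr
      _ = _ := by ring
  exact le_of_mul_le_mul_right hfin hM

theorem mem_reach {cu cv : ℕ → ℕ → Prop} {au av : ℕ → ℕ → ℝ} {x : ℝ} {t0 c'' : ℕ}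
    (h : c'' ∈ Ndl372.reach P u v cu cv au av x t0) : ∃ t'' ∈ P, (∃ t ∈ P, u t0 = u t ∧
      cu t0 t ∧ au t0 t ≤ x ∧ v t'' = v t ∧ cv t t'' ∧ av t t'' ≤ x) ∧ u t'' = c'' := by
  unfold Ndl372.reach at h
  simp only [mem_image, mem_filter] at h
  obtain ⟨t'', ⟨h1, h2⟩, h3⟩ := h
  exact ⟨t'', h1, h2, h3⟩

/-- two steps -/
theorem SC.reach (H : SC qp L P u v bu bv eu ev W M a Y w1 w2 z0 ρ j k')
    {x : ℝ} (hx : 1 ≤ x * 2 ^ j)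
    (q0 : 0 ≤ qp 0) (q2 : 0 ≤ qp 2)
    {cu cv : ℕ → ℕ → Prop} {au av : ℕ → ℕ → ℝ}
    (hau : ∀ s ∈ P, ∀ t ∈ P, u s = u t →
      |det3 (eu (u s) 1) (ev (v s) 1) (ev (v t) 1)| * (w1 * w1) ≤
        au s t * (((2:ℝ) ^ j) ^ 2 * 2 ^ k' * (Y * w2)))
    (hav : ∀ s ∈ P, ∀ t ∈ P, v s = v t →
      |det3 (eu (u s) 1) (ev (v s) 1) (eu (u t) 1)| * (w1 * w1) ≤
        av s t * (((2:ℝ) ^ j) ^ 2 * 2 ^ k' * (Y * w2)))
    {t0 : ℕ} (ht0 : t0 ∈ P) :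
    ((Ndl372.reach P u v cu cv au av x t0).card : ℝ) ≤ cH qp * W ^ 2 *
      ((x * (2 ^ j * 2 ^ k') * (Y / a)) ^ (1 + qp 0) * ((2:ℝ) ^ j) ^ (1 + qp 2)) := by
  classical
  have ha := H.a0
  have hY0 : 0 < Y := ha.trans_le H.aY
  have hw2 : 0 < w2 := hY0.trans_le H.Yw
  have hj0 : (0:ℝ) < 2 ^ j := by positivity
  have hx0 : 0 < x := by
    by_contra hc
    have : x * 2 ^ j ≤ 0 := mul_nonpos_of_nonpos_of_nonneg (not_lt.1 hc) hj0.le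
    linarith
  have hU : (0:ℝ) < ((2:ℝ) ^ j) ^ 2 * 2 ^ k' * (Y * w2) := by positivity
  obtain ⟨n, hn, hbox⟩ := hull_dy (z0 := z0) (ρ := ρ) (H.ou t0 ht0) (H.ov t0 ht0) hY0 H.Yw H.ww
    (H.dd t0 ht0)
  have path : ∀ c'' ∈ Ndl372.reach P u v cu cv au av x t0, ∀ s ∈ P, u s = c'' →
      ∃ t ∈ P, ∃ t'' ∈ P, u t0 = u t ∧ au t0 t ≤ x ∧ v t'' = v t ∧ av t t'' ≤ x ∧ u t'' = u s := by
    intro c'' hc s hs hsc
    obtain ⟨t'', h1, ⟨t, h2, h3, _, h4, h5, _, h6⟩, hu⟩ := mem_reach hc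
    exact ⟨t, h2, t'', h1, h3, h4, h5, h6, hu.trans hsc.symm⟩
  refine H.num (w := u) (b := bu (u t0)) (f := n) hx
    ((H.dd t0 ht0).lw (H.ou t0 ht0) (H.ov t0 ht0) hY0 H.Yw H.ww) q0 q2 ?_ hn ?_
  · intro c'' hc
    obtain ⟨t'', h1, _, hu⟩ := mem_reach hc
    rw [← hu]
    exact H.fu t'' h1
  · intro c'' hc s' hs' hsc
    obtain ⟨t, ht, t'', ht'', p1, p2, p3, p4, p5⟩ := path c'' hc s' hs' hsc
    have m1 := H.mu t ht
    have m2 := H.mv t ht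
    have m3 := H.mv t'' ht''
    have m4 := H.mu t'' ht''
    have m5 := H.mu s' hs'
    rw [← p1] at m1
    rw [p3] at m3
    rw [← p5] at m5
    have d1 := hau t0 ht0 t ht p1
    have d2 := hav t ht t'' ht'' p3.symm
    rw [← p1] at d2
    have o2 := H.dd t ht
    rw [← p1] at o2
    have o3 := H.dd t'' ht''
    rw [p3] at o3
    exact hbox x (ev (v t)) (eu (u t'')) (bu (u t0)) (bv (v t)) (bu (u t'')) (L t) (L t'') (L s')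
      hx0.le (H.ov t ht) (H.ou t'' ht'') o2 o3.symm
      (d1.trans (mul_le_mul_of_nonneg_right p2 hU.le))
      (d2.trans (mul_le_mul_of_nonneg_right p4 hU.le)) m1 m2 m3 m4 m5

/-- one step -/
theorem SC.one (H : SC qp L P u v bu bv eu ev W M a Y w1 w2 z0 ρ j k')
    {x : ℝ} (hx : 1 ≤ x * 2 ^ j)
    (q0 : 0 ≤ qp 0) (q2 : 0 ≤ qp 2)
    {cu : ℕ → ℕ → Prop} {au : ℕ → ℕ → ℝ}
    (hau : ∀ s ∈ P, ∀ t ∈ P, u s = u t →
      |det3 (eu (u s) 1) (ev (v s) 1) (ev (v t) 1)| * (w1 * w1) ≤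
        au s t * (((2:ℝ) ^ j) ^ 2 * 2 ^ k' * (Y * w2)))
    {t0 : ℕ} (ht0 : t0 ∈ P) (inst : DecidableEq ℕ)
    (inst' : DecidablePred fun t => u t0 = u t ∧ cu t0 t ∧ au t0 t ≤ x) :
    (((@Finset.image ℕ ℕ inst v (@Finset.filter ℕ
      (fun t => u t0 = u t ∧ cu t0 t ∧ au t0 t ≤ x) inst' P)).card : ℕ) : ℝ) ≤
      cH qp * W ^ 2 *
      ((x * (2 ^ j * 2 ^ k') * (Y / a)) ^ (1 + qp 0) * ((2:ℝ) ^ j) ^ (1 + qp 2)) := by
  have ha := H.a0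
  have hY0 : 0 < Y := ha.trans_le H.aY
  have hw2 : 0 < w2 := hY0.trans_le H.Yw
  have hj0 : (0:ℝ) < 2 ^ j := by positivity
  have hx0 : 0 < x := by
    by_contra hc
    have : x * 2 ^ j ≤ 0 := mul_nonpos_of_nonpos_of_nonneg (not_lt.1 hc) hj0.le
    linarith
  have hU : (0:ℝ) < ((2:ℝ) ^ j) ^ 2 * 2 ^ k' * (Y * w2) := by positivity
  obtain ⟨n, hn, hbox⟩ := hull_dy1 (z0 := z0) (ρ := ρ) (H.ou t0 ht0) (H.ov t0 ht0) hY0 H.Yw H.ww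
    (H.dd t0 ht0)
  have path : ∀ c'' ∈ @Finset.image ℕ ℕ inst v (@Finset.filter ℕ
      (fun t => u t0 = u t ∧ cu t0 t ∧ au t0 t ≤ x) inst' P),
      ∃ t ∈ P, u t0 = u t ∧ au t0 t ≤ x ∧ v t = c'' := by
    intro c'' hc
    rw [mem_image] at hc
    obtain ⟨t, ht, hu⟩ := hc
    rw [mem_filter] at ht
    obtain ⟨h1, h3, _, h4⟩ := ht
    exact ⟨t, h1, h3, h4, hu⟩
  refine H.num (w := v) (b := bu (u t0)) (f := n) hx
    ((H.dd t0 ht0).lw (H.ou t0 ht0) (H.ov t0 ht0) hY0 H.Yw H.ww) q0 q2 ?_ hn ?_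
  · intro c'' hc
    obtain ⟨t, ht, _, _, hu⟩ := path c'' hc
    rw [← hu]
    exact H.fv t ht
  · intro c'' hc s' hs' hsc
    obtain ⟨t, ht, p1, p2, p3⟩ := path c'' hc
    have p3' : v t = v s' := p3.trans hsc.symm
    have m1 := H.mu t ht
    have m2 := H.mv t ht
    have m5 := H.mv s' hs'
    rw [← p1] at m1
    rw [← p3'] at m5
    have d1 := hau t0 ht0 t ht p1
    have o2 := H.dd t ht
    rw [← p1] at o2
    exact hbox x (ev (v t)) (bu (u t0)) (bv (v t)) (L t) (L s')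
      hx0.le (H.ov t ht) o2 (d1.trans (mul_le_mul_of_nonneg_right p2 hU.le)) m1 m2 m5

/-! ### the determinants of helper113 -/

open Crest.Agent.R136.Cmd113 (aV)

theorem aV_le (hY : 0 < Y) (hw2 : 0 < w2) {s t : ℕ} (h : v s = v t) :
    |det3 (eu (u s) 1) (ev (v s) 1) (eu (u t) 1)| * (w1 * w1) ≤
      aV u v eu ev Y w1 w2 (2 ^ j) (2 ^ k') s t * (((2:ℝ) ^ j) ^ 2 * 2 ^ k' * (Y * w2)) := by
  have hj0 : (0:ℝ) < 2 ^ j := by positivity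
  have hk0 : (0:ℝ) < 2 ^ k' := by positivity
  unfold aV
  rw [if_pos h, h]
  refine le_of_eq ?_
  field_simp

theorem aV_le' (hY : 0 < Y) (hw2 : 0 < w2) {s t : ℕ} (h : u s = u t) :
    |det3 (eu (u s) 1) (ev (v s) 1) (ev (v t) 1)| * (w1 * w1) ≤
      aV v u ev eu Y w1 w2 (2 ^ j) (2 ^ k') s t * (((2:ℝ) ^ j) ^ 2 * 2 ^ k' * (Y * w2)) := by
  have h1 := aV_le (u := v) (v := u) (eu := ev) (ev := eu) (w1 := w1) (j := j) (k' := k') hY hw2 h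
  rwa [Hl706.det3_swap] at h1

/-- **(C4)**, `hullU` of `Ndl372.Nd` (with `N x = (x Λ E Y / a)^(1 + qp 0) Λ^(1 + qp 2)`). -/
theorem hullUg (H : TCore qm qp L P u v bu bv eu ev W M a Y w1 w2 z0 ρ)
    (hD : ∀ t ∈ P, Dy (eu (u t)) (ev (v t)) Y w1 w2 j k') {x : ℝ} (hx : 1 ≤ x * 2 ^ j)
    (q0 : 0 ≤ qp 0) (q2 : 0 ≤ qp 2) (cu cv : ℕ → ℕ → Prop)
    {t0 : ℕ} (ht0 : t0 ∈ P) :
    ((Ndl372.reach P u v cu cv (aV v u ev eu Y w1 w2 (2 ^ j) (2 ^ k'))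
      (aV u v eu ev Y w1 w2 (2 ^ j) (2 ^ k')) x t0).card : ℝ) ≤ cH qp * W ^ 2 *
      ((x * (2 ^ j * 2 ^ k') * (Y / a)) ^ (1 + qp 0) * ((2:ℝ) ^ j) ^ (1 + qp 2)) := by
  have hY0 : 0 < Y := H.a0.trans_le H.aY
  have hw2 : 0 < w2 := hY0.trans_le H.Yw
  exact (of_core H hD).reach hx q0 q2 (fun s _ t _ h => aV_le' hY0 hw2 h)
    (fun s _ t _ h => aV_le hY0 hw2 h) ht0

/-- **(C4)**, `hullV` -/
theorem hullVg (H : TCore qm qp L P u v bu bv eu ev W M a Y w1 w2 z0 ρ)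
    (hD : ∀ t ∈ P, Dy (eu (u t)) (ev (v t)) Y w1 w2 j k') {x : ℝ} (hx : 1 ≤ x * 2 ^ j)
    (q0 : 0 ≤ qp 0) (q2 : 0 ≤ qp 2) (cu cv : ℕ → ℕ → Prop)
    {t0 : ℕ} (ht0 : t0 ∈ P) :
    ((Ndl372.reach P v u cv cu (aV u v eu ev Y w1 w2 (2 ^ j) (2 ^ k'))
      (aV v u ev eu Y w1 w2 (2 ^ j) (2 ^ k')) x t0).card : ℝ) ≤ cH qp * W ^ 2 *
      ((x * (2 ^ j * 2 ^ k') * (Y / a)) ^ (1 + qp 0) * ((2:ℝ) ^ j) ^ (1 + qp 2)) := by
  have hY0 : 0 < Y := H.a0.trans_le H.aY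
  have hw2 : 0 < w2 := hY0.trans_le H.Yw
  exact (of_core H hD).swap.reach hx q0 q2 (fun s _ t _ h => aV_le' hY0 hw2 h)
    (fun s _ t _ h => aV_le hY0 hw2 h) ht0

/-- **(C4)**, `hull1` (generic instances: `hull1g .. _ _`) -/
theorem hull1g (H : TCore qm qp L P u v bu bv eu ev W M a Y w1 w2 z0 ρ)
    (hD : ∀ t ∈ P, Dy (eu (u t)) (ev (v t)) Y w1 w2 j k') {x : ℝ} (hx : 1 ≤ x * 2 ^ j)
    (q0 : 0 ≤ qp 0) (q2 : 0 ≤ qp 2) (cu : ℕ → ℕ → Prop)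
    {t0 : ℕ} (ht0 : t0 ∈ P) (inst : DecidableEq ℕ) (inst' : DecidablePred fun t =>
      u t0 = u t ∧ cu t0 t ∧ aV v u ev eu Y w1 w2 (2 ^ j) (2 ^ k') t0 t ≤ x) :
    (((@Finset.image ℕ ℕ inst v (@Finset.filter ℕ (fun t => u t0 = u t ∧ cu t0 t ∧
      aV v u ev eu Y w1 w2 (2 ^ j) (2 ^ k') t0 t ≤ x) inst' P)).card : ℕ) : ℝ) ≤
      cH qp * W ^ 2 *
      ((x * (2 ^ j * 2 ^ k') * (Y / a)) ^ (1 + qp 0) * ((2:ℝ) ^ j) ^ (1 + qp 2)) := by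
  have hY0 : 0 < Y := H.a0.trans_le H.aY
  have hw2 : 0 < w2 := hY0.trans_le H.Yw
  exact (of_core H hD).one hx q0 q2 (fun s _ t _ h => aV_le' hY0 hw2 h) ht0 inst inst'

end

end Crest.Agent.R136.Chg372
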