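import Crest.Agent.R136.Cr3_18
import Crest.Agent.R136.Sh1_605

/-!
# R136, PLAN 2, (C2): transversal crossing pairs in the classes of one system (helper18)

`cross_core` : one system (labels `v`, frames `e`), any goodness `G t z` of incidences which holds for
three quarters of the heights of every line; every quarter `Q` of the lines contains
`≥ θ / (4000 W) * #P * M` crossing pairs.  `same_core` : the trivial version.
-/

set_option autoImplicit false
set_option linter.unusedVariables false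

open Finset

namespace Crest.Agent.R136.Cr418

open Crest.Agent.R136.Sh605 Crest.Agent.R136.Cr318

/-- abstract form -/
theorem rich_aux {I N : Finset ℕ} {m : ℕ → ℝ} {p x W M : ℝ} (hW0 : 0 < W) (hM : 0 < M)
    (hIN : I ⊆ N) (h1 : (N.card : ℝ) * M ≤ W * p)
    (hx : x = ∑ c ∈ I, m c) (hp : p ≤ 4 * x) (hm : ∀ c, 0 ≤ m c)
    [DecidablePred fun c => M ≤ 8 * W * m c] :
    p * M ≤ 64 * W * ∑ c ∈ I.filter (fun c => M ≤ 8 * W * m c), m c ^ 2 := by
  set R := I.filter (fun c => M ≤ 8 * W * m c) with hR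
  set Z := I.filter (fun c => ¬ M ≤ 8 * W * m c) with hZ
  have h3 : ∑ c ∈ R, m c + ∑ c ∈ Z, m c = ∑ c ∈ I, m c :=
    sum_filter_add_sum_filter_not _ _ _
  have h4 : 8 * W * ∑ c ∈ Z, m c ≤ W * p := by
    rw [mul_sum]
    calc ∑ c ∈ Z, 8 * W * m c ≤ ∑ _c ∈ Z, M :=
          sum_le_sum fun c hc => (not_le.1 (mem_filter.1 hc).2).le
      _ = (Z.card : ℝ) * M := by rw [sum_const, nsmul_eq_mul]
      _ ≤ (N.card : ℝ) * M := by
          apply mul_le_mul_of_nonneg_right _ hM.le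
          exact_mod_cast card_le_card ((filter_subset _ _).trans hIN)
      _ ≤ W * p := h1
  have h5 : 8 * ∑ c ∈ Z, m c ≤ p := by
    refine le_of_mul_le_mul_left ?_ hW0
    calc W * (8 * ∑ c ∈ Z, m c) = 8 * W * ∑ c ∈ Z, m c := by ring
      _ ≤ _ := h4
  have h7 : p ≤ 8 * ∑ c ∈ R, m c := by
    rw [← h3] at hx
    linarith
  calc p * M ≤ (8 * ∑ c ∈ R, m c) * M := mul_le_mul_of_nonneg_right h7 hM.le
    _ = 8 * ∑ c ∈ R, M * m c := by rw [← mul_sum]; ring
    _ ≤ 8 * ∑ c ∈ R, 8 * W * m c ^ 2 := by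
        apply mul_le_mul_of_nonneg_left _ (by norm_num)
        refine sum_le_sum fun c hc => ?_
        have h8 := (mem_filter.1 hc).2
        calc M * m c ≤ (8 * W * m c) * m c := mul_le_mul_of_nonneg_right h8 (hm c)
          _ = _ := by ring
    _ = _ := by rw [← mul_sum]; ring

open Classical in
/-- the lines of `Q` in the classes which are poor in `Q` are at most half of `Q` -/
theorem rich {P Q : Finset ℕ} {v : ℕ → ℕ} {W M : ℝ} (hW : 1 ≤ W) (hM : 0 < M)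
    (hf : ∀ t ∈ P, M ≤ W * ((P.filter fun s => v s = v t).card : ℝ)) (hQ : Q ⊆ P)
    (hc : P.card ≤ 4 * Q.card) :
    (P.card : ℝ) * M ≤ 64 * W * ∑ c ∈ (Q.image v).filter
      (fun c => M ≤ 8 * W * ((Q.filter fun t => v t = c).card : ℝ)),
        ((Q.filter fun t => v t = c).card : ℝ) ^ 2 := by
  set I := Q.image v with hI
  have hQI : (Q.card : ℝ) = ∑ c ∈ I, ((Q.filter fun t => v t = c).card : ℝ) := by
    have h2 : Q.card = ∑ c ∈ I, (Q.filter fun t => v t = c).card := card_eq_sum_card_image v Q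
    exact_mod_cast h2
  have hW0 : 0 < W := by linarith
  have hIP : I ⊆ P.image v := image_subset_image hQ
  have h1 : ((P.image v).card : ℝ) * M ≤ W * P.card := by
    have h2 : P.card = ∑ c ∈ P.image v, (P.filter fun t => v t = c).card :=
      card_eq_sum_card_image v P
    have h3 : (P.card : ℝ) = ∑ c ∈ P.image v, ((P.filter fun t => v t = c).card : ℝ) := by
      exact_mod_cast h2
    rw [h3, mul_sum, ← nsmul_eq_mul, ← sum_const]
    refine sum_le_sum fun c hcc => ?_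
    obtain ⟨t, ht, rfl⟩ := mem_image.1 hcc
    exact hf t ht
  exact rich_aux (I := I) (N := P.image v) (m := fun c => ((Q.filter fun t => v t = c).card : ℝ))
    hW0 hM hIP h1 hQI (by exact_mod_cast hc) (fun c => by positivity)

open Classical in
/-- pairs inside the classes, class by class -/
theorem pairs_ge {Q : Finset ℕ} {v : ℕ → ℕ} (R : Finset ℕ) (C : ℕ → ℕ → Prop) {κ : ℝ}
    (h : ∀ c ∈ R, κ * ((Q.filter fun t => v t = c).card : ℝ) ^ 2 ≤
      ((((Q.filter fun t => v t = c) ×ˢ (Q.filter fun t => v t = c)).filter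
        fun p => C p.1 p.2).card : ℝ)) :
    κ * ∑ c ∈ R, ((Q.filter fun t => v t = c).card : ℝ) ^ 2 ≤
      (((Q ×ˢ Q).filter fun p => v p.1 = v p.2 ∧ C p.1 p.2).card : ℝ) := by
  have h1 : (R.biUnion fun c => ((Q.filter fun t => v t = c) ×ˢ (Q.filter fun t => v t = c)).filter
        fun p => C p.1 p.2) ⊆ (Q ×ˢ Q).filter fun p => v p.1 = v p.2 ∧ C p.1 p.2 := by
    intro p hp
    obtain ⟨c, hc, hp⟩ := mem_biUnion.1 hp
    rw [mem_filter, mem_product, mem_filter, mem_filter] at hp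
    rw [mem_filter, mem_product]
    exact ⟨⟨hp.1.1.1, hp.1.2.1⟩, hp.1.1.2.trans hp.1.2.2.symm, hp.2⟩
  have h2 := card_le_card h1
  rw [card_biUnion] at h2
  · calc _ = ∑ c ∈ R, κ * ((Q.filter fun t => v t = c).card : ℝ) ^ 2 := by rw [mul_sum]
      _ ≤ ∑ c ∈ R, ((((Q.filter fun t => v t = c) ×ˢ (Q.filter fun t => v t = c)).filter
        fun p => C p.1 p.2).card : ℝ) := sum_le_sum h
      _ ≤ _ := by exact_mod_cast h2
  · intro c _ c' _ hcc
    rw [Function.onFun, disjoint_left]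
    intro p hp hp'
    rw [mem_filter, mem_product, mem_filter] at hp hp'
    exact hcc (hp.1.1.2.symm.trans hp'.1.1.2)

open Classical in
/-- all pairs of the classes (no crossing) -/
theorem same_core {P Q : Finset ℕ} {v : ℕ → ℕ} {W M : ℝ} (hW : 1 ≤ W) (hM : 0 < M)
    (hf : ∀ t ∈ P, M ≤ W * ((P.filter fun s => v s = v t).card : ℝ)) (hQ : Q ⊆ P)
    (hc : P.card ≤ 4 * Q.card) :
    (P.card : ℝ) * M ≤ 64 * W *
      (((Q ×ˢ Q).filter fun p => v p.1 = v p.2 ∧ True).card : ℝ) := by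
  refine (rich hW hM hf hQ hc).trans ?_
  apply mul_le_mul_of_nonneg_left _ (by positivity)
  have := pairs_ge (Q := Q) (v := v) ((Q.image v).filter
      (fun c => M ≤ 8 * W * ((Q.filter fun t => v t = c).card : ℝ))) (fun _ _ => True) (κ := 1)
    (fun c _ => by
      rw [one_mul, filter_true, card_product]; push_cast; rw [sq])
  rw [one_mul] at this
  refine this.trans (le_of_eq ?_)
  congr 2
  ext p
  simp only [mem_filter]

/-- affine function of the height -/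
theorem pos_lin (e : V3) (s b : Ln4) (z z0 : ℝ) :
    dt e (s.pos z - b.pos z) = dt e (s.pos z0 - b.pos z0) + (z - z0) * dt e (s.v - b.v) := by
  simp only [dt, Ln4.pos, Pi.sub_apply]; ring

/-- planar coordinates of a class, units `2 w1` and `ρ` -/
noncomputable def cA (L : ℕ → Ln4) (e : V3) (b : Ln4) (w1 z0 : ℝ) (t : ℕ) : ℝ :=
  dt e ((L t).pos z0 - b.pos z0) / (2 * w1)

noncomputable def cV (L : ℕ → Ln4) (e : V3) (b : Ln4) (w1 ρ : ℝ) (t : ℕ) : ℝ :=
  ρ * dt e ((L t).v - b.v) / (2 * w1)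

theorem cA_sub (L : ℕ → Ln4) (e : V3) (b : Ln4) {w1 : ℝ} (z0 : ℝ) (hw : 0 < w1) (s t : ℕ) :
    (cA L e b w1 z0 s - cA L e b w1 z0 t) * (2 * w1) =
      dt e ((L s).pos z0 - (L t).pos z0) := by
  unfold cA
  field_simp
  simp only [dt, Pi.sub_apply]; ring

theorem cV_sub (L : ℕ → Ln4) (e : V3) (b : Ln4) {w1 : ℝ} (ρ : ℝ) (hw : 0 < w1) (s t : ℕ) :
    (cV L e b w1 ρ s - cV L e b w1 ρ t) * (2 * w1) =
      ρ * dt e ((L s).v - (L t).v) := by
  unfold cV
  field_simp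
  simp only [dt, Pi.sub_apply]; ring

/-- the difference of two lines at the height `z0 + ρ x` -/
theorem c_at (L : ℕ → Ln4) (e : V3) (b : Ln4) {w1 : ℝ} (z0 ρ : ℝ) (hw : 0 < w1) (s t : ℕ)
    (x : ℝ) :
    ((cA L e b w1 z0 s - cA L e b w1 z0 t) + (cV L e b w1 ρ s - cV L e b w1 ρ t) * x) *
      (2 * w1) = dt e ((L s).pos (z0 + ρ * x) - (L t).pos (z0 + ρ * x)) := by
  have h1 := cA_sub L e b z0 hw s t
  have h2 := cV_sub L e b ρ hw s t
  have h3 := pos_lin e (L s) (L t) (z0 + ρ * x) z0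
  rw [h3]
  calc _ = (cA L e b w1 z0 s - cA L e b w1 z0 t) * (2 * w1) +
        ((cV L e b w1 ρ s - cV L e b w1 ρ t) * (2 * w1)) * x := by ring
    _ = _ := by rw [h1, h2]; ring

open Classical in
/-- D-max of one class in the planar chart -/
theorem dm_class {L : ℕ → Ln4} {P Q : Finset ℕ} {v : ℕ → ℕ} {e : ℕ → Fin 3 → V3} {bv : ℕ → Ln4}
    {W M w1 w2 z0 ρ q : ℝ} {j : ℕ} (hW : 1 ≤ W) (hM : 0 < M) (hq : 0 < q) (hw1 : 0 < w1)
    (hjw : 2 ^ j * w2 ≤ 2 * w1) (hρ : 0 < ρ)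
    (tube : ∀ t ∈ P, ∀ δ : ℝ, w2 ≤ 8 * (δ * w1) → δ ≤ 1 →
      ((P.filter fun s => v s = v t ∧ ∀ z, z0 ≤ z → z ≤ z0 + ρ →
        |dt (e (v t) 1) ((L s).pos z - (L t).pos z)| ≤ δ * w1).card : ℝ) ≤ W * M * δ ^ (1 + q))
    (hQ : Q ⊆ P) {c : ℕ} (hc : M ≤ 8 * W * ((Q.filter fun t => v t = c).card : ℝ)) :
    DM (Q.filter fun t => v t = c) (cA L (e c 1) (bv c) w1 z0) (cV L (e c 1) (bv c) w1 ρ)
      (2 ^ (j + 1)) (8 * 4 ^ (1 + q) * W ^ 2) q := by
  intro t ht k _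
  rw [mem_filter] at ht
  obtain ⟨htQ, htc⟩ := ht
  subst htc
  set S := Q.filter fun s => v s = v t with hS
  set x : ℝ := (2 : ℝ) ^ k / ((2 ^ (j + 1) : ℕ) : ℝ) with hx
  have hx0 : 0 < x := by positivity
  have hxj : 1 ≤ x * (2 * 2 ^ j) := by
    have h1 : (1 : ℝ) ≤ 2 ^ k := one_le_pow₀ (by norm_num)
    have h2 : x * (2 * 2 ^ j) = 2 ^ k := by
      rw [hx]; push_cast; rw [pow_succ]; field_simp
    rw [h2]; exact h1
  have hS0 : (0 : ℝ) ≤ S.card := by positivity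
  have hxq : (0 : ℝ) ≤ x ^ (1 + q) := by positivity
  have h4q : (0 : ℝ) < 4 ^ (1 + q) := Real.rpow_pos_of_pos (by norm_num) _
  have h4x : (4 * x) ^ (1 + q) = 4 ^ (1 + q) * x ^ (1 + q) :=
    Real.mul_rpow (by norm_num) hx0.le
  rcases le_or_gt (4 * x) 1 with h | h
  · have h1 : w2 ≤ 8 * (4 * x * w1) := by
      have h2 : w2 * 1 ≤ w2 * (x * (2 * 2 ^ j)) ∨ w2 < 0 := by
        rcases le_or_gt 0 w2 with h3 | h3
        · exact Or.inl (mul_le_mul_of_nonneg_left hxj h3)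
        · exact Or.inr h3
      rcases h2 with h2 | h2
      · calc w2 = w2 * 1 := (mul_one _).symm
          _ ≤ w2 * (x * (2 * 2 ^ j)) := h2
          _ = 2 * x * (2 ^ j * w2) := by ring
          _ ≤ 2 * x * (2 * w1) := mul_le_mul_of_nonneg_left hjw (by positivity)
          _ ≤ _ := by nlinarith [mul_pos hx0 hw1]
      · nlinarith [mul_pos hx0 hw1]
    have h2 := tube t (hQ htQ) (4 * x) h1 h
    have h3 : ((S.filter fun t' => |cA L (e (v t) 1) (bv (v t)) w1 z0 t' -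
        cA L (e (v t) 1) (bv (v t)) w1 z0 t| ≤ x ∧ |cV L (e (v t) 1) (bv (v t)) w1 ρ t' -
        cV L (e (v t) 1) (bv (v t)) w1 ρ t| ≤ x).card : ℝ) ≤
        ((P.filter fun s => v s = v t ∧ ∀ z, z0 ≤ z → z ≤ z0 + ρ →
        |dt (e (v t) 1) ((L s).pos z - (L t).pos z)| ≤ 4 * x * w1).card : ℝ) := by
      refine Nat.cast_le.2 (card_le_card fun s hs => ?_)
      rw [mem_filter, hS, mem_filter] at hs
      obtain ⟨⟨hsQ, hsv⟩, hsA, hsV⟩ := hs
      rw [mem_filter]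
      refine ⟨hQ hsQ, hsv, fun z hz hz' => ?_⟩
      obtain ⟨y, hy0, hy1, rfl⟩ : ∃ y : ℝ, 0 ≤ y ∧ y ≤ 1 ∧ z = z0 + ρ * y :=
        ⟨(z - z0) / ρ, div_nonneg (by linarith) hρ.le, by rw [div_le_one hρ]; linarith,
          by field_simp; ring⟩
      rw [← c_at L (e (v t) 1) (bv (v t)) z0 ρ hw1 s t y, abs_mul,
        abs_of_pos (by positivity : 0 < 2 * w1)]
      have h5 : |(cA L (e (v t) 1) (bv (v t)) w1 z0 s - cA L (e (v t) 1) (bv (v t)) w1 z0 t) +
          (cV L (e (v t) 1) (bv (v t)) w1 ρ s - cV L (e (v t) 1) (bv (v t)) w1 ρ t) * y| ≤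
          x + x * 1 := by
        refine (abs_add_le _ _).trans (add_le_add hsA ?_)
        rw [abs_mul, abs_of_nonneg hy0]
        exact mul_le_mul hsV hy1 hy0 hx0.le
      calc _ ≤ (x + x * 1) * (2 * w1) := mul_le_mul_of_nonneg_right h5 (by positivity)
        _ = _ := by ring
    calc _ ≤ W * M * (4 * x) ^ (1 + q) := h3.trans h2
      _ ≤ W * (8 * W * (S.card : ℝ)) * (4 * x) ^ (1 + q) := by gcongr
      _ = _ := by rw [h4x]; ring
  · have h1 : (1 : ℝ) ≤ (4 * x) ^ (1 + q) := Real.one_le_rpow h.le (by linarith)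
    have h2 : ((S.filter fun t' => |cA L (e (v t) 1) (bv (v t)) w1 z0 t' -
        cA L (e (v t) 1) (bv (v t)) w1 z0 t| ≤ x ∧ |cV L (e (v t) 1) (bv (v t)) w1 ρ t' -
        cV L (e (v t) 1) (bv (v t)) w1 ρ t| ≤ x).card : ℝ) ≤ S.card :=
      Nat.cast_le.2 (card_le_card (filter_subset _ _))
    have h3 : 1 ≤ 8 * W ^ 2 := by nlinarith
    calc _ ≤ 1 * 1 * (S.card : ℝ) := by rw [one_mul, one_mul]; exact h2
      _ ≤ 8 * W ^ 2 * (4 * x) ^ (1 + q) * (S.card : ℝ) := by gcongr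
      _ = _ := by rw [h4x]; ring

theorem fin_aux {x y z W θ : ℝ} (hW0 : 0 < W) (hθ0 : 0 < θ) (h1 : x ≤ 64 * W * y)
    (h2 : (3 / 4) ^ 2 / 30 * θ * y ≤ z) (hz : 0 ≤ z) : x ≤ 4000 * W / θ * z := by
  have h3 : y ≤ z * (160 / (3 * θ)) := by
    rw [mul_div_assoc', le_div_iff₀ (by positivity)]
    nlinarith
  calc x ≤ 64 * W * y := h1
    _ ≤ 64 * W * (z * (160 / (3 * θ))) := mul_le_mul_of_nonneg_left h3 (by positivity)
    _ = 10240 / 3 * (W / θ * z) := by field_simp; ring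
    _ ≤ 4000 * (W / θ * z) := by
        have : 0 ≤ W / θ * z := by positivity
        linarith
    _ = _ := by ring

set_option maxHeartbeats 1000000 in
open Classical in
/-- **crossing pairs in every quarter of the lines** (one system, any goodness) -/
theorem cross_core {L : ℕ → Ln4} {P Q : Finset ℕ} {v : ℕ → ℕ} {e : ℕ → Fin 3 → V3} {bv : ℕ → Ln4}
    {W M w1 w2 z0 ρ q θ : ℝ} {j : ℕ} (hW : 1 ≤ W) (hM : 0 < M) (hq : 0 < q) (hw1 : 0 < w1)
    (hjw : 2 ^ j * w2 ≤ 2 * w1) (hρ : 0 < ρ)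
    (tube : ∀ t ∈ P, ∀ δ : ℝ, w2 ≤ 8 * (δ * w1) → δ ≤ 1 →
      ((P.filter fun s => v s = v t ∧ ∀ z, z0 ≤ z → z ≤ z0 + ρ →
        |dt (e (v t) 1) ((L s).pos z - (L t).pos z)| ≤ δ * w1).card : ℝ) ≤ W * M * δ ^ (1 + q))
    (hm : ∀ t ∈ P, ∀ z, z0 ≤ z → z ≤ z0 + ρ →
      |dt (e (v t) 1) ((L t).pos z - (bv (v t)).pos z)| ≤ w1)
    (hf : ∀ t ∈ P, M ≤ W * ((P.filter fun s => v s = v t).card : ℝ))
    (G : ℕ → ℝ → Prop)
    (hG : ∀ t ∈ P, 4 * ((range (2 ^ (j + 1))).filter fun i : ℕ =>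
      ¬ G t (z0 + ρ * ((i : ℝ) / ((2 ^ (j + 1) : ℕ) : ℝ)))).card ≤ 2 ^ (j + 1))
    (hθ : 1 ≤ θ * 2 ^ (j + 1)) (hθ1 : θ ≤ 1)
    (hsm : Cq q * (8 * 4 ^ (1 + q) * W ^ 2) * θ ^ q ≤ 9 / 160)
    (hQ : Q ⊆ P) (hc : P.card ≤ 4 * Q.card) :
    (P.card : ℝ) * M ≤ 4000 * W / θ *
      (((Q ×ˢ Q).filter fun p => v p.1 = v p.2 ∧ ∃ z, z0 ≤ z ∧ z ≤ z0 + ρ ∧
        |dt (e (v p.2) 1) ((L p.1).pos z - (L p.2).pos z)| ≤ w1 / 2 ^ j ∧
        θ * w1 ≤ |dt (e (v p.2) 1) ((L p.1).v - (L p.2).v)| * ρ ∧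
        G p.1 z ∧ G p.2 z).card : ℝ) := by
  have hW0 : 0 < W := by linarith
  have hj0 : (0 : ℝ) < 2 ^ (j + 1) := by positivity
  have hθ0 : 0 < θ := by
    by_contra h
    have : θ * 2 ^ (j + 1) ≤ 0 := mul_nonpos_of_nonpos_of_nonneg (not_lt.1 h) hj0.le
    linarith
  set n : ℕ := 2 ^ (j + 1) with hn
  have hn0 : 0 < n := by positivity
  have hn0' : (0 : ℝ) < n := by exact_mod_cast hn0
  have hnj : (n : ℝ) = 2 ^ (j + 1) := by rw [hn]; push_cast; rfl
  have hr := rich hW hM hf hQ hc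
  set R := (Q.image v).filter
      (fun c => M ≤ 8 * W * ((Q.filter fun t => v t = c).card : ℝ)) with hR
  have key := pairs_ge (Q := Q) (v := v) R (fun s t => ∃ z, z0 ≤ z ∧ z ≤ z0 + ρ ∧
        |dt (e (v t) 1) ((L s).pos z - (L t).pos z)| ≤ w1 / 2 ^ j ∧
        θ * w1 ≤ |dt (e (v t) 1) ((L s).v - (L t).v)| * ρ ∧
        G s z ∧ G t z) (κ := (3 / 4) ^ 2 / 30 * θ) ?_
  · exact fin_aux hW0 hθ0 hr key (by positivity)
  · intro c hcR
    obtain ⟨hcI, hcM⟩ := mem_filter.1 hcR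
    set S := Q.filter fun t => v t = c with hS
    have hmS : ∀ t ∈ S, t ∈ P ∧ v t = c := fun t ht =>
      ⟨hQ (mem_filter.1 ht).1, (mem_filter.1 ht).2⟩
    have hD := dm_class (L := L) (e := e) (bv := bv) hW hM hq hw1 hjw hρ tube hQ hcM
    have hA : ∀ t ∈ S, |cA L (e c 1) (bv c) w1 z0 t| ≤ 1 := by
      intro t ht
      obtain ⟨htP, htc⟩ := hmS t ht
      subst htc
      unfold cA
      rw [abs_div, abs_of_pos (by positivity : 0 < 2 * w1), div_le_one (by positivity)]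
      have := hm t htP z0 le_rfl (by linarith)
      linarith
    have hV : ∀ t ∈ S, |cV L (e c 1) (bv c) w1 ρ t| ≤ 1 := by
      intro t ht
      obtain ⟨htP, htc⟩ := hmS t ht
      subst htc
      unfold cV
      rw [abs_div, abs_of_pos (by positivity : 0 < 2 * w1), div_le_one (by positivity)]
      have h1 := hm t htP z0 le_rfl (by linarith)
      have h2 := hm t htP (z0 + ρ) (by linarith) le_rfl
      have h3 := pos_lin (e (v t) 1) (L t) (bv (v t)) (z0 + ρ) z0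
      have h4 : ρ * dt (e (v t) 1) ((L t).v - (bv (v t)).v) =
          dt (e (v t) 1) ((L t).pos (z0 + ρ) - (bv (v t)).pos (z0 + ρ)) -
          dt (e (v t) 1) ((L t).pos z0 - (bv (v t)).pos z0) := by rw [h3]; ring
      rw [h4]
      exact (abs_sub _ _).trans (by linarith)
    have hGS : 3 / 4 * (n : ℝ) * S.card ≤ (((S ×ˢ range n).filter fun p =>
        G p.1 (z0 + ρ * ((p.2 : ℝ) / (n : ℝ)))).card : ℝ) := by
      have h1 : (((S ×ˢ range n).filter fun p =>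
        G p.1 (z0 + ρ * ((p.2 : ℝ) / (n : ℝ)))).card : ℝ) =
          ∑ t ∈ S, (((range n).filter fun i : ℕ => G t (z0 + ρ * ((i : ℝ) / (n : ℝ)))).card : ℝ) := by
        have : ((S ×ˢ range n).filter fun p =>
        G p.1 (z0 + ρ * ((p.2 : ℝ) / (n : ℝ)))).card =
          ∑ t ∈ S, ((range n).filter fun i : ℕ => G t (z0 + ρ * ((i : ℝ) / (n : ℝ)))).card := by
          rw [card_filter, sum_product]
          refine sum_congr rfl fun t _ => ?_
          rw [card_filter]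
        exact_mod_cast this
      rw [h1]
      calc 3 / 4 * (n : ℝ) * S.card = ∑ _t ∈ S, 3 / 4 * (n : ℝ) := by
            rw [sum_const, nsmul_eq_mul]; ring
        _ ≤ _ := sum_le_sum fun t ht => by
          have h2 := hG t (hmS t ht).1
          have h3 := card_filter_add_card_filter_not (s := range n)
            (fun i : ℕ => G t (z0 + ρ * ((i : ℝ) / (n : ℝ))))
          rw [card_range] at h3
          have h4 : (4 : ℝ) * (((range n).filter fun i : ℕ =>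
            ¬ G t (z0 + ρ * ((i : ℝ) / (n : ℝ)))).card : ℝ) ≤ n := by
            exact_mod_cast h2
          have h5 : (((range n).filter fun i : ℕ => G t (z0 + ρ * ((i : ℝ) / (n : ℝ)))).card : ℝ) +
            (((range n).filter fun i : ℕ => ¬ G t (z0 + ρ * ((i : ℝ) / (n : ℝ)))).card : ℝ) = n := by
            exact_mod_cast h3
          linarith
    have hcg := cross_good (S := S) hn0 (by positivity : 0 ≤ 8 * 4 ^ (1 + q) * W ^ 2) hq hA hV hD
      (fun t i => G t (z0 + ρ * ((i : ℝ) / (n : ℝ)))) (by norm_num : (0:ℝ) ≤ 3 / 4) hGS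
      (by rw [hnj]; exact hθ) hθ1 (by norm_num at hsm ⊢; exact hsm)
    refine hcg.trans (Nat.cast_le.2 (card_le_card fun p hp => ?_))
    rw [mem_filter, mem_product] at hp
    obtain ⟨⟨hp1, hp2⟩, i, hi, hg1, hg2, hb, hθα⟩ := hp
    rw [mem_filter, mem_product]
    refine ⟨⟨hp1, hp2⟩, ?_⟩
    have hc2 := (hmS _ hp2).2
    have hin : (0:ℝ) ≤ (i : ℝ) / n := by positivity
    have hin1 : (i : ℝ) / n ≤ 1 := by
      rw [div_le_one hn0']; exact_mod_cast hi.le
    refine ⟨z0 + ρ * ((i : ℝ) / n), by nlinarith, by nlinarith, ?_, ?_, hg1, hg2⟩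
    · rw [hc2, ← c_at L (e c 1) (bv c) z0 ρ hw1 p.1 p.2 ((i : ℝ) / n), abs_mul,
        abs_of_pos (by positivity : 0 < 2 * w1)]
      have h1 := bx_close hn0 hb.symm
      calc _ ≤ 1 / (n : ℝ) * (2 * w1) := mul_le_mul_of_nonneg_right h1.le (by positivity)
        _ = w1 / 2 ^ j := by rw [hnj, pow_succ]; field_simp
    · rw [hc2]
      have h1 := cV_sub L (e c 1) (bv c) ρ hw1 p.1 p.2
      have h2 : |dt (e c 1) ((L p.1).v - (L p.2).v)| * ρ =
          |cV L (e c 1) (bv c) w1 ρ p.1 - cV L (e c 1) (bv c) w1 ρ p.2| * (2 * w1) := by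
        have h5 : |cV L (e c 1) (bv c) w1 ρ p.1 - cV L (e c 1) (bv c) w1 ρ p.2| * |2 * w1| =
            |ρ| * |dt (e c 1) ((L p.1).v - (L p.2).v)| := by
          rw [← abs_mul, h1, abs_mul]
        rw [abs_of_pos (by positivity : 0 < 2 * w1), abs_of_pos hρ] at h5
        rw [h5]; ring
      rw [h2]
      rw [abs_sub_comm] at hθα
      have h3 : 0 ≤ |cV L (e c 1) (bv c) w1 ρ p.1 - cV L (e c 1) (bv c) w1 ρ p.2| := abs_nonneg _
      nlinarith

end Crest.Agent.R136.Cr418
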