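import Crest.Agent.R136.Gi0_524
import Crest.Agent.R136.Cmd_113

/-!
# R136 (S0187), PLAN 2 (C2): good incidences over `TCore` (helper524)

`good_v` : `TCore`, `2 ^ j * w2 ≤ 2 * w1` ⊢ every line of `P` has a planar-good incidence (`GoodI` of the
`u`-class, all radii in `[1/Λ, 1]`) at three quarters of the heights `z0 + ρ i / 2^m`, `m ≥ j`;
`good_u` = the same for the `v`-classes.
-/

set_option autoImplicit false
set_option linter.unusedVariables false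

open Finset

namespace Crest.Agent.R136.Gin524

open Crest.Agent.R136.Sh605 Crest.Agent.R136.Fl808
open Crest.Agent.R136.Pl2 (TCore)
open Crest.Agent.R136.Cmd113 (GoodI)

/-- the constant of the good incidences -/
noncomputable def Kq (q : ℝ) : ℝ := 384 * 12 ^ (1 + q) / (1 - (1/2 : ℝ) ^ q)

theorem Kq_pos {q : ℝ} (hq : 0 < q) : 0 < Kq q := by
  have := Real.rpow_lt_one (by norm_num : (0:ℝ) ≤ 1/2) (by norm_num) hq
  have h : (0:ℝ) < 1 - (1/2 : ℝ) ^ q := by linarith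
  unfold Kq
  positivity

/-- the number of scales -/
theorem j_le {W w1 w2 a : ℝ} {j : ℕ} (hW : 1 ≤ W) (ha : 0 < a) (ha2 : a ≤ w2) (hw2 : w2 ≤ w1)
    (hlg : Real.log (w1 / a) ≤ W) (hj : (2:ℝ) ^ j * w2 ≤ 2 * w1) : (j : ℝ) + 1 ≤ 4 * W := by
  have h1 : (2:ℝ) ^ j ≤ 2 * (w1 / a) := by
    rw [← mul_div_assoc, le_div_iff₀ ha]
    refine le_trans ?_ hj
    exact mul_le_mul_of_nonneg_left ha2 (by positivity)
  have hwa : 0 < w1 / a := div_pos (by linarith) ha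
  have h2 := Real.log_le_log (by positivity) h1
  rw [Real.log_pow, Real.log_mul (by norm_num) hwa.ne'] at h2
  have h3 : (0.6931471803 : ℝ) < Real.log 2 := Real.log_two_gt_d9
  have h4 : Real.log 2 < 0.6931471808 := Real.log_two_lt_d9
  have h5 : (j : ℝ) * 0.69 ≤ (j : ℝ) * Real.log 2 :=
    mul_le_mul_of_nonneg_left (by linarith) (Nat.cast_nonneg j)
  linarith

open Classical in
/-- one system, all lines -/
theorem good_sys {L : ℕ → Ln4} {P : Finset ℕ} {u : ℕ → ℕ} {e : ℕ → Fin 3 → V3} {bu : ℕ → Ln4}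
    {W M a w1 w2 z0 ρ q : ℝ} {j m : ℕ} (hW : 1 ≤ W) (hM : 0 < M) (hq : 0 < q) (ha : 0 < a)
    (ha2 : a ≤ w2) (hw : w2 ≤ w1) (hlg : Real.log (w1 / a) ≤ W)
    (hj : (2:ℝ) ^ j * w2 ≤ 2 * w1) (hρ : 0 < ρ)
    (tube : ∀ t ∈ P, ∀ δ : ℝ, w2 ≤ 8 * (δ * w1) → δ ≤ 1 →
      ((P.filter fun s => u s = u t ∧ ∀ z, z0 ≤ z → z ≤ z0 + ρ →
        |dt (e (u t) 1) ((L s).pos z - (L t).pos z)| ≤ δ * w1).card : ℝ) ≤ W * M * δ ^ (1 + q))
    (hmem : ∀ t ∈ P, ∀ z, z0 ≤ z → z ≤ z0 + ρ →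
      |dt (e (u t) 1) ((L t).pos z - (bu (u t)).pos z)| ≤ w1)
    (hm : j ≤ m) {B : ℝ} (hB : Kq q * W ^ 2 ≤ B) :
    ∀ t ∈ P, 4 * ((range (2 ^ m)).filter fun i : ℕ =>
      ¬ GoodI L P u e w1 M (2 ^ j) B t (z0 + ρ * ((i : ℝ) / ((2 ^ m : ℕ) : ℝ)))).card ≤ 2 ^ m := by
  intro t ht
  have hK := Kq_pos hq
  have hB0 : 0 < B := lt_of_lt_of_le (by positivity) hB
  have hw2 : 0 < w2 := by linarith
  have hw1 : 0 < w1 := by linarith
  have hq1 : (0:ℝ) < 1 - (1/2 : ℝ) ^ q := by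
    have := Real.rpow_lt_one (by norm_num : (0:ℝ) ≤ 1/2) (by norm_num) hq
    linarith
  have key : ∀ (s s' : ℕ) (z : ℝ), dt (e (u t) 1) ((L s).pos z - (L s').pos z) =
      (dt (e (u t) 1) (L s).p + z * dt (e (u t) 1) (L s).v) -
      (dt (e (u t) 1) (L s').p + z * dt (e (u t) 1) (L s').v) := by
    intro s s' z; simp only [dt, Ln4.pos, Pi.sub_apply]; ring
  have keyb : ∀ (s : ℕ) (z : ℝ), dt (e (u t) 1) ((L s).pos z - (bu (u t)).pos z) =
      (dt (e (u t) 1) (L s).p + z * dt (e (u t) 1) (L s).v) -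
      (dt (e (u t) 1) (bu (u t)).p + z * dt (e (u t) 1) (bu (u t)).v) := by
    intro s z; simp only [dt, Ln4.pos, Pi.sub_apply]; ring
  have hmain := class_good (P.filter fun s => u s = u t)
    (f := fun s => dt (e (u t) 1) (L s).p) (g := fun s => dt (e (u t) 1) (L s).v)
    (bf := dt (e (u t) 1) (bu (u t)).p) (bg := dt (e (u t) 1) (bu (u t)).v)
    (w1 := w1) (w2 := w2) (z0 := z0) (ρ := ρ) (W := W) (M := M) (q := q) (j := j) (m := m)
    hρ hw1 hw2 hw hq (by linarith) hM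
    (by
      intro s hs z h0 h1
      obtain ⟨hs1, hs2⟩ := mem_filter.1 hs
      have := hmem s hs1 z h0 h1
      rw [hs2, keyb] at this
      exact this)
    (by
      intro t' ht' δ h1 h2
      obtain ⟨ht1, ht2⟩ := mem_filter.1 ht'
      have := tube t' ht1 δ h1 h2
      rw [filter_filter]
      refine le_trans (le_of_eq ?_) this
      congr 2
      refine filter_congr fun s _ => ?_
      rw [ht2]
      refine and_congr_right fun _ => ?_
      refine forall_congr' fun z => ?_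
      rw [key])
    hj hm hB0
    (by
      refine le_trans ?_ hB
      have h1 := j_le hW ha ha2 hw hlg hj
      have h2 : 0 ≤ W / (1 - (1/2 : ℝ) ^ q) := by positivity
      have h3 : (0:ℝ) ≤ 96 * 12 ^ (1 + q) := by positivity
      calc 96 * 12 ^ (1 + q) * ((j : ℝ) + 1) * (W / (1 - (1/2 : ℝ) ^ q))
          ≤ 96 * 12 ^ (1 + q) * (4 * W) * (W / (1 - (1/2 : ℝ) ^ q)) :=
            mul_le_mul_of_nonneg_right (mul_le_mul_of_nonneg_left h1 h3) h2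
        _ = _ := by unfold Kq; ring)
    (t := t) (mem_filter.2 ⟨ht, rfl⟩)
  have hcast : ((2 ^ m : ℕ) : ℝ) = 2 ^ m := by push_cast; rfl
  have hfil : ((range (2 ^ m)).filter fun i : ℕ =>
      ¬ GoodI L P u e w1 M (2 ^ j) B t (z0 + ρ * ((i : ℝ) / ((2 ^ m : ℕ) : ℝ)))) ⊆
      (range (2 ^ m)).filter fun i : ℕ => ¬ ∀ r : ℝ, 1 ≤ r * 2 ^ j → r ≤ 1 →
      ((((P.filter fun s => u s = u t).filter fun s =>
        |(dt (e (u t) 1) (L s).p + (z0 + ρ * ((i:ℝ) / 2 ^ m)) * dt (e (u t) 1) (L s).v) -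
        (dt (e (u t) 1) (L t).p + (z0 + ρ * ((i:ℝ) / 2 ^ m)) * dt (e (u t) 1) (L t).v)| ≤
          r * w1).card : ℝ)) ≤ B * r * M := by
    intro i hi
    obtain ⟨hi1, hi2⟩ := mem_filter.1 hi
    refine mem_filter.2 ⟨hi1, fun hall => hi2 fun r hr1 hr2 => ?_⟩
    have h1 := hall r hr1 hr2
    rw [filter_filter] at h1
    rw [hcast]
    refine le_trans (le_of_eq ?_) h1
    congr 2
    refine filter_congr fun s _ => ?_
    rw [key]
  have h5 := (Nat.cast_le (α := ℝ)).2 (card_le_card hfil)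
  have h6 : (4:ℝ) * (((range (2 ^ m)).filter fun i : ℕ =>
      ¬ GoodI L P u e w1 M (2 ^ j) B t (z0 + ρ * ((i : ℝ) / ((2 ^ m : ℕ) : ℝ)))).card : ℝ) ≤
      2 ^ m := by
    have := h5.trans hmain
    linarith
  exact_mod_cast h6

variable {qm qp : Fin 3 → ℝ} {L : ℕ → Ln4} {P : Finset ℕ} {u v : ℕ → ℕ} {bu bv : ℕ → Ln4}
  {eu ev : ℕ → Fin 3 → V3} {W M a Y w1 w2 z0 ρ : ℝ}

open Classical in
/-- **good incidences** with respect to the `u`-classes (used in the crossing pairs of `v`-classes) -/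
theorem good_u (h : TCore qm qp L P u v bu bv eu ev W M a Y w1 w2 z0 ρ) (hq : 0 < qm 1) {j m : ℕ}
    (hj : (2:ℝ) ^ j * w2 ≤ 2 * w1) (hm : j ≤ m) {B : ℝ} (hB : Kq (qm 1) * W ^ 2 ≤ B) :
    ∀ t ∈ P, 4 * ((range (2 ^ m)).filter fun i : ℕ =>
      ¬ GoodI L P u eu w1 M (2 ^ j) B t (z0 + ρ * ((i : ℝ) / ((2 ^ m : ℕ) : ℝ)))).card ≤ 2 ^ m :=
  good_sys h.W1 h.M0 hq h.a0 (h.aY.trans h.Yw) h.ww h.lg hj h.ρ0 h.tubeu
    (fun t ht z h0 h1 => by simpa using h.mu t ht z h0 h1 1) hm hB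

open Classical in
/-- **good incidences** with respect to the `v`-classes -/
theorem good_v (h : TCore qm qp L P u v bu bv eu ev W M a Y w1 w2 z0 ρ) (hq : 0 < qm 1) {j m : ℕ}
    (hj : (2:ℝ) ^ j * w2 ≤ 2 * w1) (hm : j ≤ m) {B : ℝ} (hB : Kq (qm 1) * W ^ 2 ≤ B) :
    ∀ t ∈ P, 4 * ((range (2 ^ m)).filter fun i : ℕ =>
      ¬ GoodI L P v ev w1 M (2 ^ j) B t (z0 + ρ * ((i : ℝ) / ((2 ^ m : ℕ) : ℝ)))).card ≤ 2 ^ m :=
  good_sys h.W1 h.M0 hq h.a0 (h.aY.trans h.Yw) h.ww h.lg hj h.ρ0 h.tubev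
    (fun t ht z h0 h1 => by simpa using h.mv t ht z h0 h1 1) hm hB

end Crest.Agent.R136.Gin524
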