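import Mathlib

/-!
# R136 (S0187), PLAN 2: double pruning of two labelings (helper501)

* `prune2` : a set whose size beats `τ` times the number of its classes contains a non-empty part
  in which every class of both labelings has at least `τ` elements.
* `sel_prune` : the same inside one popular colour.
-/

set_option autoImplicit false

open Finset

namespace Crest.Agent.R136.Cs501

/-- **double pruning** -/
theorem prune2 {ι α β : Type*} [DecidableEq ι] [DecidableEq α] [DecidableEq β] (P : Finset ι)
    (u : ι → α) (v : ι → β) {τ : ℝ} (hτ : 0 ≤ τ)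
    (h : τ * (((P.image u).card : ℝ) + ((P.image v).card : ℝ)) < (P.card : ℝ)) :
    ∃ P' ⊆ P, P'.Nonempty ∧
      (P.card : ℝ) - τ * (((P.image u).card : ℝ) + ((P.image v).card : ℝ)) ≤ (P'.card : ℝ) ∧
      (∀ t ∈ P', τ ≤ ((P'.filter fun s => u s = u t).card : ℝ)) ∧
      (∀ t ∈ P', τ ≤ ((P'.filter fun s => v s = v t).card : ℝ)) := by
  obtain ⟨f, hf⟩ : ∃ f : Finset ι → ℝ, ∀ Q, f Q = (Q.card : ℝ) -
      τ * (((Q.image u).card : ℝ) + ((Q.image v).card : ℝ)) := ⟨_, fun _ => rfl⟩
  obtain ⟨P', hP', hmax⟩ := Finset.exists_max_image P.powerset f ⟨P, Finset.mem_powerset_self P⟩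
  rw [Finset.mem_powerset] at hP'
  have h1 : f P ≤ f P' := hmax P (Finset.mem_powerset_self P)
  have h2 : 0 < f P := by rw [hf]; linarith
  have hne : P'.Nonempty := by
    rw [Finset.nonempty_iff_ne_empty]
    rintro rfl
    rw [hf ∅] at h1
    simp only [Finset.card_empty, Nat.cast_zero, Finset.image_empty, add_zero, mul_zero,
      sub_zero] at h1
    linarith
  -- removing one class
  have key : ∀ (Q : Finset ι), Q ⊆ P' → ∀ c : ℝ, (P'.card : ℝ) - c ≤ (Q.card : ℝ) →
      (((Q.image u).card : ℝ) + ((Q.image v).card : ℝ)) ≤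
        ((P'.image u).card : ℝ) + ((P'.image v).card : ℝ) - 1 → τ ≤ c := by
    intro Q hQ c hc hi
    have h3 := hmax Q (Finset.mem_powerset.2 (hQ.trans hP'))
    rw [hf, hf] at h3
    have h4 := mul_le_mul_of_nonneg_left hi hτ
    linarith
  refine ⟨P', hP', hne, ?_, ?_, ?_⟩
  · rw [hf, hf] at h1
    have h5 : 0 ≤ τ * (((P'.image u).card : ℝ) + ((P'.image v).card : ℝ)) := by positivity
    linarith
  · intro t ht
    refine key (P'.filter fun s => ¬ u s = u t) (Finset.filter_subset _ _) _ ?_ ?_
    · have := Finset.card_filter_add_card_filter_not (s := P') (fun s => u s = u t)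
      have h6 : ((P'.filter fun s => u s = u t).card : ℝ) +
          ((P'.filter fun s => ¬ u s = u t).card : ℝ) = (P'.card : ℝ) := by exact_mod_cast this
      linarith
    · have h7 : ((P'.filter fun s => ¬ u s = u t).image u).card + 1 ≤ (P'.image u).card := by
        have hss : (P'.filter fun s => ¬ u s = u t).image u ⊂ P'.image u := by
          rw [Finset.ssubset_iff_of_subset
            (Finset.image_subset_image (Finset.filter_subset _ _))]
          refine ⟨u t, Finset.mem_image_of_mem _ ht, ?_⟩
          intro hmem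
          obtain ⟨s, hs, hst⟩ := Finset.mem_image.1 hmem
          exact (Finset.mem_filter.1 hs).2 hst
        exact Finset.card_lt_card hss
      have h8 : ((P'.filter fun s => ¬ u s = u t).image v).card ≤ (P'.image v).card :=
        Finset.card_le_card (Finset.image_subset_image (Finset.filter_subset _ _))
      have h7' : (((P'.filter fun s => ¬ u s = u t).image u).card : ℝ) + 1 ≤
        ((P'.image u).card : ℝ) := by exact_mod_cast h7
      have h8' : (((P'.filter fun s => ¬ u s = u t).image v).card : ℝ) ≤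
        ((P'.image v).card : ℝ) := by exact_mod_cast h8
      linarith
  · intro t ht
    refine key (P'.filter fun s => ¬ v s = v t) (Finset.filter_subset _ _) _ ?_ ?_
    · have := Finset.card_filter_add_card_filter_not (s := P') (fun s => v s = v t)
      have h6 : ((P'.filter fun s => v s = v t).card : ℝ) +
          ((P'.filter fun s => ¬ v s = v t).card : ℝ) = (P'.card : ℝ) := by exact_mod_cast this
      linarith
    · have h7 : ((P'.filter fun s => ¬ v s = v t).image v).card + 1 ≤ (P'.image v).card := by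
        have hss : (P'.filter fun s => ¬ v s = v t).image v ⊂ P'.image v := by
          rw [Finset.ssubset_iff_of_subset
            (Finset.image_subset_image (Finset.filter_subset _ _))]
          refine ⟨v t, Finset.mem_image_of_mem _ ht, ?_⟩
          intro hmem
          obtain ⟨s, hs, hst⟩ := Finset.mem_image.1 hmem
          exact (Finset.mem_filter.1 hs).2 hst
        exact Finset.card_lt_card hss
      have h8 : ((P'.filter fun s => ¬ v s = v t).image u).card ≤ (P'.image u).card :=
        Finset.card_le_card (Finset.image_subset_image (Finset.filter_subset _ _))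
      have h7' : (((P'.filter fun s => ¬ v s = v t).image v).card : ℝ) + 1 ≤
        ((P'.image v).card : ℝ) := by exact_mod_cast h7
      have h8' : (((P'.filter fun s => ¬ v s = v t).image u).card : ℝ) ≤
        ((P'.image u).card : ℝ) := by exact_mod_cast h8
      linarith

/-- number of classes, if all classes have at least `m` elements -/
theorem classes_le {ι α : Type*} [DecidableEq ι] [DecidableEq α] (P : Finset ι) (u : ι → α)
    {m : ℝ} (h : ∀ t ∈ P, m ≤ ((P.filter fun s => u s = u t).card : ℝ)) :
    m * ((P.image u).card : ℝ) ≤ (P.card : ℝ) := by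
  have h1 : P.card = ∑ c ∈ P.image u, (P.filter fun s => u s = c).card :=
    Finset.card_eq_sum_card_fiberwise fun t ht => Finset.mem_image_of_mem _ ht
  have h2 : (P.card : ℝ) = ∑ c ∈ P.image u, ((P.filter fun s => u s = c).card : ℝ) := by
    rw [h1]; push_cast; rfl
  rw [h2]
  calc m * ((P.image u).card : ℝ) = ∑ c ∈ P.image u, m := by
        rw [Finset.sum_const, nsmul_eq_mul]; ring
    _ ≤ _ := by
        refine Finset.sum_le_sum fun c hc => ?_
        obtain ⟨t, ht, rfl⟩ := Finset.mem_image.1 hc
        exact h t ht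

/-- popular colour -/
theorem popular {ι γ : Type*} [DecidableEq ι] [DecidableEq γ] (P : Finset ι) (c : ι → γ)
    (K : Finset γ) (hK : ∀ t ∈ P, c t ∈ K) (hP : P.Nonempty) :
    ∃ k ∈ K, (P.card : ℝ) ≤ (K.card : ℝ) * ((P.filter fun s => c s = k).card : ℝ) := by
  by_contra hcon
  push Not at hcon
  obtain ⟨t0, ht0⟩ := hP
  have hKne : K.Nonempty := ⟨c t0, hK t0 ht0⟩
  have hKpos : (0 : ℝ) < K.card := by exact_mod_cast hKne.card_pos
  have h1 : P.card = ∑ k ∈ K, (P.filter fun s => c s = k).card :=
    Finset.card_eq_sum_card_fiberwise fun t ht => hK t ht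
  have h2 : (P.card : ℝ) = ∑ k ∈ K, ((P.filter fun s => c s = k).card : ℝ) := by
    rw [h1]; push_cast; rfl
  have h3 : ∑ k ∈ K, (K.card : ℝ) * ((P.filter fun s => c s = k).card : ℝ) <
      ∑ k ∈ K, (P.card : ℝ) := Finset.sum_lt_sum_of_nonempty hKne hcon
  rw [← Finset.mul_sum, ← h2, Finset.sum_const, nsmul_eq_mul] at h3
  exact lt_irrefl _ h3

/-- **selection of a colour with double pruning**: classes of size `≥ M / W` of both labelings, at
most `N` colours ⊢ a non-empty part of one colour whose classes have size `≥ M / (4 W N)`. -/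
theorem sel_prune {ι α β γ : Type*} [DecidableEq ι] [DecidableEq α] [DecidableEq β] [DecidableEq γ]
    (P : Finset ι) (hP : P.Nonempty) (u : ι → α) (v : ι → β) (c : ι → γ) (K : Finset γ)
    (hK : ∀ t ∈ P, c t ∈ K) {W M N : ℝ} (hW : 0 < W) (hM : 0 < M) (hN : (K.card : ℝ) ≤ N)
    (hu : ∀ t ∈ P, M ≤ W * ((P.filter fun s => u s = u t).card : ℝ))
    (hv : ∀ t ∈ P, M ≤ W * ((P.filter fun s => v s = v t).card : ℝ)) :
    ∃ k ∈ K, ∃ P' ⊆ P, P'.Nonempty ∧ (∀ t ∈ P', c t = k) ∧
      (P.card : ℝ) ≤ 2 * N * (P'.card : ℝ) ∧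
      (∀ t ∈ P', M ≤ 4 * W * N * ((P'.filter fun s => u s = u t).card : ℝ)) ∧
      (∀ t ∈ P', M ≤ 4 * W * N * ((P'.filter fun s => v s = v t).card : ℝ)) := by
  obtain ⟨k, hk, hpop⟩ := popular P c K hK hP
  have hKpos : (0 : ℝ) < K.card := by exact_mod_cast (Finset.card_pos.2 ⟨k, hk⟩)
  have hN0 : 0 < N := lt_of_lt_of_le hKpos hN
  have hPc : (0 : ℝ) < P.card := by exact_mod_cast hP.card_pos
  set P1 := P.filter fun s => c s = k with hP1
  have hP1c : (P.card : ℝ) ≤ N * (P1.card : ℝ) :=
    hpop.trans (mul_le_mul_of_nonneg_right hN (Nat.cast_nonneg _))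
  have hcu : M / W * ((P.image u).card : ℝ) ≤ (P.card : ℝ) := classes_le P u fun t ht => by
    rw [div_le_iff₀ hW, mul_comm]; exact hu t ht
  have hcv : M / W * ((P.image v).card : ℝ) ≤ (P.card : ℝ) := classes_le P v fun t ht => by
    rw [div_le_iff₀ hW, mul_comm]; exact hv t ht
  have hiu : ((P1.image u).card : ℝ) ≤ ((P.image u).card : ℝ) := by
    exact_mod_cast Finset.card_le_card (Finset.image_subset_image (Finset.filter_subset _ _))
  have hiv : ((P1.image v).card : ℝ) ≤ ((P.image v).card : ℝ) := by
    exact_mod_cast Finset.card_le_card (Finset.image_subset_image (Finset.filter_subset _ _))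
  have hMW : 0 < M / W := by positivity
  have e1 : M / (4 * W * N) = M / W * (1 / (4 * N)) := by
    field_simp
  have h0 : M / (4 * W * N) * (((P1.image u).card : ℝ) + ((P1.image v).card : ℝ)) ≤
      (P1.card : ℝ) / 2 := by
    calc M / (4 * W * N) * (((P1.image u).card : ℝ) + ((P1.image v).card : ℝ))
        ≤ M / (4 * W * N) * (((P.image u).card : ℝ) + ((P.image v).card : ℝ)) :=
          mul_le_mul_of_nonneg_left (by linarith) (by positivity)
      _ = (M / W * ((P.image u).card : ℝ) + M / W * ((P.image v).card : ℝ)) * (1 / (4 * N)) := by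
          rw [e1]; ring
      _ ≤ ((P.card : ℝ) + (P.card : ℝ)) * (1 / (4 * N)) :=
          mul_le_mul_of_nonneg_right (by linarith) (by positivity)
      _ = (P.card : ℝ) / (2 * N) := by field_simp; ring
      _ ≤ (N * (P1.card : ℝ)) / (2 * N) := div_le_div_of_nonneg_right hP1c (by positivity)
      _ = (P1.card : ℝ) / 2 := by field_simp
  have hP1pos : (0 : ℝ) < P1.card := by
    by_contra hcon
    have h1 : (P1.card : ℝ) = 0 := le_antisymm (not_lt.1 hcon) (Nat.cast_nonneg _)
    rw [h1, mul_zero] at hP1c
    linarith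
  obtain ⟨P', hP', hne, hcard, hu', hv'⟩ := prune2 P1 u v (τ := M / (4 * W * N)) (by positivity)
    (by linarith)
  refine ⟨k, hk, P', hP'.trans (Finset.filter_subset _ _), hne,
    fun t ht => (Finset.mem_filter.1 (hP' ht)).2, ?_, ?_, ?_⟩
  · have h2 : (P1.card : ℝ) / 2 ≤ (P'.card : ℝ) := by linarith
    calc (P.card : ℝ) ≤ N * (P1.card : ℝ) := hP1c
      _ = 2 * N * ((P1.card : ℝ) / 2) := by ring
      _ ≤ 2 * N * (P'.card : ℝ) := mul_le_mul_of_nonneg_left h2 (by positivity)
  · intro t ht
    have h3 := hu' t ht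
    rw [div_le_iff₀ (by positivity)] at h3
    linarith
  · intro t ht
    have h3 := hv' t ht
    rw [div_le_iff₀ (by positivity)] at h3
    linarith

end Crest.Agent.R136.Cs501
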