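import Crest.Agent.R136.Pl2Def_860
import Crest.Agent.R136.Cs1_501

/-!
# R136 (S0187), PLAN 2, leaf (C1) (helper501): `core_sel`

One pair of dyadic tilts `j, k'` for all lines of a non-empty part, on which all classes of both
systems are still full up to `(2 W)^8`.
-/

set_option autoImplicit false
set_option linter.unusedVariables false

open Finset

namespace Crest.Agent.R136.Cs501

open Crest.Agent.R136.Sh605 Crest.Agent.R136.Fl808
open Crest.Agent.R136.Pl2

variable {qm qp : Fin 3 → ℝ} {L : ℕ → Ln4} {P : Finset ℕ} {u v : ℕ → ℕ} {bu bv : ℕ → Ln4}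
  {eu ev : ℕ → Fin 3 → V3} {W M a Y w1 w2 z0 ρ : ℝ}

theorem TCore.w20 (h : TCore qm qp L P u v bu bv eu ev W M a Y w1 w2 z0 ρ) : 0 < w2 :=
  lt_of_lt_of_le h.a0 (h.aY.trans h.Yw)

theorem TCore.w10 (h : TCore qm qp L P u v bu bv eu ev W M a Y w1 w2 z0 ρ) : 0 < w1 :=
  lt_of_lt_of_le (TCore.w20 h) h.ww

theorem TCore.Y0 (h : TCore qm qp L P u v bu bv eu ev W M a Y w1 w2 z0 ρ) : 0 < Y :=
  lt_of_lt_of_le h.a0 h.aY

open Classical in
/-- **restriction**: `TCore` passes to a part of the lines and to a larger loss, if the classes stay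
full. -/
theorem TCore.restr (h : TCore qm qp L P u v bu bv eu ev W M a Y w1 w2 z0 ρ) {P' : Finset ℕ}
    (hP' : P' ⊆ P) {W' : ℝ} (hW : W ≤ W')
    (fu : ∀ t ∈ P', M ≤ W' * ((P'.filter fun s => u s = u t).card : ℝ))
    (fv : ∀ t ∈ P', M ≤ W' * ((P'.filter fun s => v s = v t).card : ℝ)) :
    TCore qm qp L P' u v bu bv eu ev W' M a Y w1 w2 z0 ρ := by
  have hM := h.M0
  have ha := h.a0
  have hw2 := TCore.w20 h
  have hY := TCore.Y0 h
  have hWM : W * M ≤ W' * M := mul_le_mul_of_nonneg_right hW hM.le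
  have hsub : ∀ (q : ℕ → Prop) [DecidablePred q],
      ((P'.filter q).card : ℝ) ≤ ((P.filter q).card : ℝ) := by
    intro q _
    exact_mod_cast Finset.card_le_card (Finset.filter_subset_filter _ hP')
  refine ⟨h.W1.trans hW, hM, h.ρ0, ha, h.aY, h.Yw, h.ww, h.lg.trans hW,
    fun t ht => h.ou t (hP' ht), fun t ht => h.ov t (hP' ht), fun t ht => h.mu t (hP' ht),
    fun t ht => h.mv t (hP' ht), fu, fv, ?_, ?_, ?_, ?_⟩
  · intro b f X0 X2 hf h0 h2 h02 h2w
    refine (hsub _).trans ((h.hull b f X0 X2 hf h0 h2 h02 h2w).trans ?_)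
    refine mul_le_mul_of_nonneg_right hWM (mul_nonneg ?_ ?_)
    · exact Real.rpow_nonneg (div_nonneg (ha.le.trans h0) ha.le) _
    · exact Real.rpow_nonneg (div_nonneg (hw2.le.trans h2) hw2.le) _
  · intro t ht δ hδ hδ1
    have hδ0 : 0 ≤ δ := by
      have hw1 := TCore.w10 h
      by_contra hcon
      push Not at hcon
      nlinarith
    refine (hsub _).trans ((h.tubeu t (hP' ht) δ hδ hδ1).trans ?_)
    exact mul_le_mul_of_nonneg_right hWM (Real.rpow_nonneg hδ0 _)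
  · intro t ht δ hδ hδ1
    have hδ0 : 0 ≤ δ := by
      have hw1 := TCore.w10 h
      by_contra hcon
      push Not at hcon
      nlinarith
    refine (hsub _).trans ((h.tubev t (hP' ht) δ hδ hδ1).trans ?_)
    exact mul_le_mul_of_nonneg_right hWM (Real.rpow_nonneg hδ0 _)
  · intro t ht j k' hD hWj
    refine (hsub _).trans ((h.share t (hP' ht) j k' hD (hW.trans hWj)).trans ?_)
    refine div_le_div_of_nonneg_right hWM (mul_nonneg ?_ ?_)
    · exact Real.rpow_nonneg (by positivity) _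
    · exact Real.rpow_nonneg (by positivity) _

/-- a power of two below `C w1 / a` has an exponent of size `W` -/
theorem exp_le {W x C : ℝ} {c j : ℕ} (hW : 1 ≤ W) (hx : 0 < x) (hlg : Real.log x ≤ W)
    (hj : (2:ℝ) ^ j ≤ 2 ^ c * x) : (j : ℝ) ≤ c + 2 * W := by
  have h2 : (0:ℝ) < 2 ^ j := by positivity
  have h1 := Real.log_le_log h2 hj
  rw [Real.log_mul (by positivity) hx.ne', Real.log_pow, Real.log_pow] at h1
  have h3 : (0.6931471803 : ℝ) < Real.log 2 := Real.log_two_gt_d9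
  have h4 : ((j : ℝ) - c) * Real.log 2 ≤ W := by linarith
  by_contra hcon
  push Not at hcon
  have h5 : 2 * W < (j : ℝ) - c := by linarith
  nlinarith

open Classical in
/-- **(C1) `core_sel`** -/
theorem core_sel (h : TCore qm qp L P u v bu bv eu ev W M a Y w1 w2 z0 ρ) (hP : P.Nonempty) :
    ∃ P' ⊆ P, P'.Nonempty ∧ ∃ j k' : ℕ,
      (∀ t ∈ P', Dy (eu (u t)) (ev (v t)) Y w1 w2 j k') ∧ (2:ℝ) ^ j * w2 ≤ 2 * w1 ∧
      Y * (2:ℝ) ^ k' ≤ 8 * w2 ∧
      (P.card : ℝ) ≤ (2 * W) ^ 8 * (P'.card : ℝ) ∧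
      TCore qm qp L P' u v bu bv eu ev ((2 * W) ^ 8) M a Y w1 w2 z0 ρ := by
  have hW := h.W1
  have hM := h.M0
  have ha := h.a0
  have hw2 := TCore.w20 h
  have hw1 := TCore.w10 h
  have hY := TCore.Y0 h
  have hx : 0 < w1 / a := div_pos hw1 ha
  -- tilts of a line
  have hdy : ∀ t, ∃ q : ℕ × ℕ, t ∈ P → Dy (eu (u t)) (ev (v t)) Y w1 w2 q.1 q.2 := by
    intro t
    obtain ⟨j, k', hjk⟩ := exists_dy (eu (u t)) (ev (v t)) (a := Y) (w1 := w1) (w2 := w2) hY hw2
    exact ⟨(j, k'), fun _ => hjk⟩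
  choose c hc using hdy
  have hj1 : ∀ t ∈ P, (2:ℝ) ^ (c t).1 * w2 ≤ 2 * w1 := fun t ht =>
    (hc t ht).hlw (h.ou t ht) (h.ov t ht) hY h.Yw h.ww
  have hk1 : ∀ t ∈ P, Y * (2:ℝ) ^ (c t).2 ≤ 8 * w2 := fun t ht =>
    (hc t ht).hleg (h.ou t ht) (h.ov t ht) hY h.Yw h.ww
  set J : ℕ := ⌊3 + 2 * W⌋₊ with hJ
  have hbound : ∀ t ∈ P, (c t).1 ≤ J ∧ (c t).2 ≤ J := by
    intro t ht
    constructor
    · refine Nat.le_floor ?_
      have h1 : (2:ℝ) ^ (c t).1 ≤ 2 ^ 1 * (w1 / a) := by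
        have h2 := hj1 t ht
        have h3 : a * (2:ℝ) ^ (c t).1 ≤ 2 * w1 := by
          refine le_trans ?_ h2
          rw [mul_comm]
          exact mul_le_mul_of_nonneg_left (h.aY.trans h.Yw) (by positivity)
        rw [pow_one, ← mul_div_assoc, le_div_iff₀ ha]
        linarith
      have h4 := exp_le (C := 1) hW hx h.lg h1
      push_cast at h4
      linarith
    · refine Nat.le_floor ?_
      have h1 : (2:ℝ) ^ (c t).2 ≤ 2 ^ 3 * (w1 / a) := by
        have h2 := hk1 t ht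
        have h3 : a * (2:ℝ) ^ (c t).2 ≤ 8 * w1 := by
          refine le_trans (mul_le_mul_of_nonneg_right h.aY (by positivity)) (h2.trans ?_)
          linarith [h.ww]
        rw [← mul_div_assoc, le_div_iff₀ ha]
        norm_num
        linarith
      have h4 := exp_le (C := 1) hW hx h.lg h1
      push_cast at h4
      linarith
  obtain ⟨k, hk, P', hP', hne, hcol, hcard, hu, hv⟩ := sel_prune P hP u v c
    (Finset.range (J + 1) ×ˢ Finset.range (J + 1)) (fun t ht => by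
      obtain ⟨h1, h2⟩ := hbound t ht
      rw [Finset.mem_product, Finset.mem_range, Finset.mem_range]
      omega) (W := W) (M := M) (N := 36 * W ^ 2) (by linarith) hM (by
      rw [Finset.card_product, Finset.card_range]
      push_cast
      have h1 : (J : ℝ) ≤ 3 + 2 * W := Nat.floor_le (by positivity)
      have h2 : (J : ℝ) + 1 ≤ 6 * W := by linarith
      have h3 : (0:ℝ) ≤ (J : ℝ) + 1 := by positivity
      nlinarith) h.fu h.fv
  have hbig : 4 * W * (36 * W ^ 2) ≤ (2 * W) ^ 8 := by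
    have h1 : W ^ 3 ≤ W ^ 8 := pow_le_pow_right₀ hW (by norm_num)
    have h2 : 0 ≤ W ^ 3 := by positivity
    have e1 : (2 * W) ^ 8 = 256 * W ^ 8 := by ring
    rw [e1]
    nlinarith
  have hbig2 : 2 * (36 * W ^ 2) ≤ (2 * W) ^ 8 := by
    have h1 : W ^ 2 ≤ W ^ 8 := pow_le_pow_right₀ hW (by norm_num)
    have h2 : 0 ≤ W ^ 2 := by positivity
    have e1 : (2 * W) ^ 8 = 256 * W ^ 8 := by ring
    rw [e1]
    nlinarith
  have hWbig : W ≤ (2 * W) ^ 8 := by
    have h1 : W ^ 1 ≤ W ^ 8 := pow_le_pow_right₀ hW (by norm_num)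
    rw [pow_one] at h1
    have e1 : (2 * W) ^ 8 = 256 * W ^ 8 := by ring
    rw [e1]
    nlinarith
  obtain ⟨t0, ht0⟩ := hne
  refine ⟨P', hP', ⟨t0, ht0⟩, k.1, k.2, fun t ht => ?_, ?_, ?_, ?_, ?_⟩
  · have h1 := hc t (hP' ht)
    rwa [hcol t ht] at h1
  · have h1 := hj1 t0 (hP' ht0)
    rwa [hcol t0 ht0] at h1
  · have h1 := hk1 t0 (hP' ht0)
    rwa [hcol t0 ht0] at h1
  · exact hcard.trans (mul_le_mul_of_nonneg_right hbig2 (Nat.cast_nonneg _))
  · refine TCore.restr h hP' hWbig (fun t ht => ?_) (fun t ht => ?_)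
    · exact (hu t ht).trans (mul_le_mul_of_nonneg_right hbig (Nat.cast_nonneg _))
    · exact (hv t ht).trans (mul_le_mul_of_nonneg_right hbig (Nat.cast_nonneg _))

end Crest.Agent.R136.Cs501
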