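import Crest.Agent.R136.Cs5_123
import Crest.Agent.R136.Cs2_501

/-!
# R136 (S0187), PLAN 2, leaf (C5): assembly of `TiltCore` (helper123)

`CoreBig` : the case of large base tilt (helper372's `core_big`).
`tiltCore_of : CoreBig → TiltCore` : selection (501) + small base tilt (`Cs5123.small_lam`) + large
base tilt.
-/

set_option autoImplicit false
set_option linter.unusedVariables false

namespace Crest.Agent.R136.Tc5123

open Finset
open Crest.Agent.R136.Sh605 Crest.Agent.R136.Fl808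
open Crest.Agent.R136.Pl2
open Crest.Agent.R136.Pl2W102 (Ex2)

/-- the case of large base tilt `2^j` -/
def CoreBig : Prop := ∀ (η : ℝ) (qm qp : Fin 3 → ℝ), Ex2 η qm qp → ∃ C : ℝ, 0 ≤ C ∧
  ∀ (L : ℕ → Ln4) (P : Finset ℕ) (u v : ℕ → ℕ) (bu bv : ℕ → Ln4) (eu ev : ℕ → Fin 3 → V3)
    (W M a Y w1 w2 z0 ρ : ℝ) (j k' : ℕ), TCore qm qp L P u v bu bv eu ev W M a Y w1 w2 z0 ρ →
    P.Nonempty → (∀ t ∈ P, Dy (eu (u t)) (ev (v t)) Y w1 w2 j k') → W ≤ (2:ℝ) ^ j * 2 ^ k' →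
    (2 * W) ^ C ≤ (2:ℝ) ^ j →
    ((2:ℝ) ^ j) ^ (qm 1 / 2) * ((2:ℝ) ^ k' * (Y / a)) ^ (qm 2 / 2) ≤ (2 * W) ^ C

theorem root_le {x s B : ℝ} (hx : 1 ≤ x) (hs : 0 < s) (h : x ^ s ≤ B) : x ≤ B ^ (1 / s) := by
  have hx0 : 0 ≤ x := by linarith
  have h1 : (x ^ s) ^ (1 / s) ≤ B ^ (1 / s) :=
    Real.rpow_le_rpow (Real.rpow_nonneg hx0 s) h (by positivity)
  rwa [← Real.rpow_mul hx0, mul_one_div_cancel hs.ne', Real.rpow_one] at h1

theorem tiltCore_of (big : CoreBig) : TiltCore := by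
  intro η qm qp hq
  obtain ⟨Cb, hCb, hbig⟩ := big η qm qp hq
  have q0 := hq.le 0
  have q1 := hq.le 1
  have q2 := hq.le 2
  have hq2 : 0 < qm 2 := hq.pos
  have hq1 : 0 < qm 1 := by
    have := hq.e1
    have := q0.1.trans q0.2
    linarith
  have hs : 0 < qm 2 - qp 0 := by
    have := hq.e02
    have := q0.1.trans q0.2
    linarith
  have hS := Cs5123.cS_nonneg (q0.1.trans q0.2) (q2.1.trans q2.2) hs hCb
  set c1 : ℝ := Cs5123.cS qm qp Cb with hc1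
  set c2 : ℝ := Cb * (1 / (qm 1 / 2)) + Cb * (1 / (qm 2 / 2)) with hc2
  have hc20 : 0 ≤ c2 := by positivity
  refine ⟨8 + 9 * (c1 + c2), by positivity, ?_⟩
  intro L P u v bu bv eu ev W M a Y w1 w2 z0 ρ H hP
  obtain ⟨P', hPP, hP', j, k', hD, -, -, -, H'⟩ := Cs501.core_sel H hP
  obtain ⟨t, ht⟩ := hP'
  refine ⟨t, hPP ht, j, k', hD t ht, ?_⟩
  have hW1 : 1 ≤ W := H.W1
  have h2W : 1 ≤ 2 * W := by linarith
  have h2W0 : 0 < 2 * W := by linarith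
  set W1 : ℝ := (2 * W) ^ 8 with hW1d
  have hW11 : 1 ≤ W1 := one_le_pow₀ h2W
  have hj : (1:ℝ) ≤ 2 ^ j := one_le_pow₀ (by norm_num)
  have hk : (1:ℝ) ≤ 2 ^ k' := one_le_pow₀ (by norm_num)
  -- powers of `2 * W1`
  have hpow : ∀ c : ℝ, 0 ≤ c → (2 * W1) ^ c ≤ (2 * W) ^ (9 * c) := by
    intro c hc
    have h1 : 2 * W1 ≤ (2 * W) ^ (9:ℝ) := by
      rw [show (9:ℝ) = ((9:ℕ) : ℝ) from by norm_num, Real.rpow_natCast, hW1d]
      have : (2 * W) ^ 9 = (2 * W) * (2 * W) ^ 8 := by ring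
      rw [this]
      have h0 : 0 ≤ (2 * W) ^ 8 := by positivity
      nlinarith
    calc (2 * W1) ^ c ≤ ((2 * W) ^ (9:ℝ)) ^ c :=
          Real.rpow_le_rpow (by positivity) h1 hc
      _ = (2 * W) ^ (9 * c) := by rw [← Real.rpow_mul h2W0.le]
  have hmono : ∀ x y : ℝ, x ≤ y → (2 * W) ^ x ≤ (2 * W) ^ y := fun x y h =>
    Real.rpow_le_rpow_of_exponent_le h2W h
  by_cases hA : W1 ≤ (2:ℝ) ^ j * 2 ^ k'
  · by_cases hB : (2:ℝ) ^ j ≤ (2 * W1) ^ Cb
    · have h1 := Cs5123.small_lam hq H' ⟨t, ht⟩ hD hA hB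
      refine h1.trans ((hpow _ hS).trans (hmono _ _ ?_))
      nlinarith
    · have h1 := hbig L P' u v bu bv eu ev W1 M a Y w1 w2 z0 ρ j k' H' ⟨t, ht⟩ hD hA
        (not_le.1 hB).le
      have ha := H.a0
      have hX : 1 ≤ Y / a := (one_le_div ha).2 H.aY
      have hkX : (1:ℝ) ≤ 2 ^ k' * (Y / a) := by nlinarith
      have hx1 : 1 ≤ ((2:ℝ) ^ j) ^ (qm 1 / 2) := Real.one_le_rpow hj (by positivity)
      have hx2 : 1 ≤ ((2:ℝ) ^ k' * (Y / a)) ^ (qm 2 / 2) := Real.one_le_rpow hkX (by positivity)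
      have b1 : ((2:ℝ) ^ j) ^ (qm 1 / 2) ≤ (2 * W1) ^ Cb := by
        refine le_trans ?_ h1
        exact le_mul_of_one_le_right (by linarith) hx2
      have b2 : ((2:ℝ) ^ k' * (Y / a)) ^ (qm 2 / 2) ≤ (2 * W1) ^ Cb := by
        refine le_trans ?_ h1
        exact le_mul_of_one_le_left (by linarith) hx1
      have d1 := root_le hj (by positivity) b1
      have d2 := root_le hkX (by positivity) b2
      have h2W1 : 0 < 2 * W1 := by linarith
      rw [← Real.rpow_mul h2W1.le] at d1 d2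
      have d3 : (2:ℝ) ^ k' ≤ 2 ^ k' * (Y / a) := le_mul_of_one_le_right (by linarith) hX
      have d4 : (2:ℝ) ^ j * 2 ^ k' ≤ (2 * W1) ^ c2 := by
        rw [hc2, Real.rpow_add h2W1]
        exact mul_le_mul d1 (d3.trans d2) (by positivity) (by positivity)
      refine d4.trans ((hpow _ hc20).trans (hmono _ _ ?_))
      nlinarith
  · refine (not_le.1 hA).le.trans ?_
    rw [hW1d, show (2 * W) ^ 8 = (2 * W) ^ (8:ℝ) from by
      rw [show (8:ℝ) = ((8:ℕ) : ℝ) from by norm_num, Real.rpow_natCast]]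
    exact hmono _ _ (by nlinarith)

end Crest.Agent.R136.Tc5123
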