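import Crest.Agent.R136.Cbg_372
import Crest.Agent.R136.Gin_524
import Crest.Agent.R136.Cr4_18
import Crest.Agent.R136.Tc5_123
import Crest.Agent.R136.Chg_372

/-!
# R136 (S0187), PLAN 2: `TiltCore` (helper372)

* `cross_v`, `cross_u` : (C2) from `Cr418.cross_core` (helper18) and `Gin524.good_u`, `good_v`
  (helper524);
* `coreBig : Tc5123.CoreBig`, `tiltCore : Pl2.TiltCore`.
-/

set_option autoImplicit false
set_option linter.unusedVariables false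

open Finset

namespace Crest.Agent.R136.Cbc372

open Crest.Agent.R136.Sh605 Crest.Agent.R136.Fl808
open Crest.Agent.R136.Ndl372 (reach join Nd)
open Crest.Agent.R136.Cmd113
open Crest.Agent.R136.Pl2 (TCore TiltCore)
open Crest.Agent.R136.Pl2W102 (Ex2)
open Crest.Agent.R136.Cbg372 (WW core_big)
open Crest.Agent.R136.Cr318 (Cq Cq_pos)
open Crest.Agent.R136.Gin524 (Kq Kq_pos good_u good_v)

/-- constant of the slope threshold -/
noncomputable def c0 (q : ℝ) : ℝ := Cq q * (8 * 4 ^ (1 + q)) * (160 / 9) + 1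

/-- the slope threshold -/
noncomputable def th (q W : ℝ) : ℝ := (c0 q * W ^ 2) ^ (-(1 / q))

theorem c0_ge {q : ℝ} (hq : 0 < q) : 1 ≤ c0 q := by
  have h := Cq_pos hq
  have : 0 ≤ Cq q * (8 * 4 ^ (1 + q)) * (160 / 9) := by positivity
  unfold c0; linarith

theorem cW_ge {q W : ℝ} (hq : 0 < q) (hW : 1 ≤ W) : 1 ≤ c0 q * W ^ 2 := by
  have h := c0_ge hq
  have h2 : 1 ≤ W ^ 2 := one_le_pow₀ hW
  nlinarith

theorem th_pos {q W : ℝ} (hq : 0 < q) (hW : 1 ≤ W) : 0 < th q W := by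
  have h := cW_ge hq hW
  unfold th
  exact Real.rpow_pos_of_pos (by linarith) _

theorem th_le {q W : ℝ} (hq : 0 < q) (hW : 1 ≤ W) : th q W ≤ 1 :=
  Real.rpow_le_one_of_one_le_of_nonpos (cW_ge hq hW) (by
    have : 0 < 1 / q := by positivity
    linarith)

theorem th_inv {q W : ℝ} (hq : 0 < q) (hW : 1 ≤ W) : (th q W)⁻¹ = (c0 q * W ^ 2) ^ (1 / q) := by
  have h := cW_ge hq hW
  rw [th, Real.rpow_neg (by linarith), inv_inv]

theorem th_pow {q W : ℝ} (hq : 0 < q) (hW : 1 ≤ W) : (th q W) ^ q = (c0 q * W ^ 2)⁻¹ := by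
  have h := cW_ge hq hW
  rw [th, ← Real.rpow_mul (by linarith), neg_mul, one_div_mul_cancel hq.ne', Real.rpow_neg_one]

theorem th_small {q W : ℝ} (hq : 0 < q) (hW : 1 ≤ W) :
    Cq q * (8 * 4 ^ (1 + q) * W ^ 2) * (th q W) ^ q ≤ 9 / 160 := by
  have h := cW_ge hq hW
  have hC := Cq_pos hq
  rw [th_pow hq hW, ← div_eq_mul_inv, div_le_iff₀ (by linarith)]
  unfold c0
  have h2 : 0 ≤ W ^ 2 := by positivity
  nlinarith

section

variable {qm qp : Fin 3 → ℝ} {L : ℕ → Ln4} {P : Finset ℕ} {u v : ℕ → ℕ} {bu bv : ℕ → Ln4}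
  {eu ev : ℕ → Fin 3 → V3} {W M a Y w1 w2 z0 ρ : ℝ}

open Classical in
/-- **(C2)**, second system -/
theorem cross_v (H : TCore qm qp L P u v bu bv eu ev W M a Y w1 w2 z0 ρ) (hq : 0 < qm 1) {j : ℕ}
    (hj : (2:ℝ) ^ j * w2 ≤ 2 * w1) (hθ : 1 ≤ th (qm 1) W * 2 ^ (j + 1)) :
    ∀ Q ⊆ P, P.card ≤ 4 * Q.card → (P.card : ℝ) * M ≤ 4000 * W / th (qm 1) W *
      (((Q ×ˢ Q).filter fun p => v p.1 = v p.2 ∧ CrV L P u v eu ev w1 z0 ρ M (2 ^ j)
        (Kq (qm 1) * W ^ 2) (th (qm 1) W) p.1 p.2).card : ℝ) := by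
  intro Q hQ hc
  have hW := H.W1
  have hw2 : 0 < w2 := (H.a0.trans_le H.aY).trans_le H.Yw
  have hw1 : 0 < w1 := hw2.trans_le H.ww
  have ht := th_pos hq hW
  have h1 := Cr418.cross_core (e := ev) (bv := bv) hW H.M0 hq hw1 hj H.ρ0 H.tubev
    (fun t ht z h0 h1 => by simpa using H.mv t ht z h0 h1 1) H.fv
    (GoodI L P u eu w1 M (2 ^ j) (Kq (qm 1) * W ^ 2))
    (fun t ht => good_u H hq hj (Nat.le_succ j) le_rfl t ht) hθ (th_le hq hW)
    (th_small hq hW) hQ hc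
  refine h1.trans (mul_le_mul_of_nonneg_left (Nat.cast_le.2 (card_le_card ?_)) (by positivity))
  intro p hp
  rw [mem_filter] at hp ⊢
  obtain ⟨hpQ, hv, z, a1, a2, a3, a4, a5, a6⟩ := hp
  refine ⟨hpQ, hv, hv, z, a1, a2, a3.trans ?_, a4, a5, a6⟩
  have : 0 < w1 / 2 ^ j := by positivity
  linarith

open Classical in
/-- **(C2)**, first system -/
theorem cross_u (H : TCore qm qp L P u v bu bv eu ev W M a Y w1 w2 z0 ρ) (hq : 0 < qm 1) {j : ℕ}
    (hj : (2:ℝ) ^ j * w2 ≤ 2 * w1) (hθ : 1 ≤ th (qm 1) W * 2 ^ (j + 1)) :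
    ∀ Q ⊆ P, P.card ≤ 4 * Q.card → (P.card : ℝ) * M ≤ 4000 * W / th (qm 1) W *
      (((Q ×ˢ Q).filter fun p => u p.1 = u p.2 ∧ CrV L P v u ev eu w1 z0 ρ M (2 ^ j)
        (Kq (qm 1) * W ^ 2) (th (qm 1) W) p.1 p.2).card : ℝ) := by
  intro Q hQ hc
  have hW := H.W1
  have hw2 : 0 < w2 := (H.a0.trans_le H.aY).trans_le H.Yw
  have hw1 : 0 < w1 := hw2.trans_le H.ww
  have ht := th_pos hq hW
  have h1 := Cr418.cross_core (e := eu) (bv := bu) hW H.M0 hq hw1 hj H.ρ0 H.tubeu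
    (fun t ht z h0 h1 => by simpa using H.mu t ht z h0 h1 1) H.fu
    (GoodI L P v ev w1 M (2 ^ j) (Kq (qm 1) * W ^ 2))
    (fun t ht => good_v H hq hj (Nat.le_succ j) le_rfl t ht) hθ (th_le hq hW)
    (th_small hq hW) hQ hc
  refine h1.trans (mul_le_mul_of_nonneg_left (Nat.cast_le.2 (card_le_card ?_)) (by positivity))
  intro p hp
  rw [mem_filter] at hp ⊢
  obtain ⟨hpQ, hv, z, a1, a2, a3, a4, a5, a6⟩ := hp
  refine ⟨hpQ, hv, hv, z, a1, a2, a3.trans ?_, a4, a5, a6⟩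
  have : 0 < w1 / 2 ^ j := by positivity
  linarith

end

/-- a constant as a power of `2 W` -/
theorem const_le {c W : ℝ} (hc : 1 ≤ c) (hW : 1 ≤ W) :
    c ≤ (2 * W) ^ (Real.log c / Real.log 2) := by
  have hl2 : 0 < Real.log 2 := Real.log_pos (by norm_num)
  have h2 : 0 < 2 * W := by linarith
  rw [← Real.log_le_log_iff (by linarith) (by positivity), Real.log_rpow h2,
    div_mul_eq_mul_div, le_div_iff₀ hl2]
  exact mul_le_mul_of_nonneg_left (Real.log_le_log (by norm_num) (by linarith))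
    (Real.log_nonneg hc)

/-- exponent of `θ⁻¹` -/
noncomputable def Cth (q : ℝ) : ℝ := (Real.log (c0 q) / Real.log 2 + 2) * (1 / q)

theorem Cth_nonneg {q : ℝ} (hq : 0 < q) : 0 ≤ Cth q := by
  have := Real.log_nonneg (c0_ge hq)
  have hl2 : 0 < Real.log 2 := Real.log_pos (by norm_num)
  unfold Cth; positivity

theorem th_inv_le {q W : ℝ} (hq : 0 < q) (hW : 1 ≤ W) : (th q W)⁻¹ ≤ (2 * W) ^ Cth q := by
  have h2 : 0 < 2 * W := by linarith
  rw [th_inv hq hW, Cth, Real.rpow_mul h2.le]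
  refine Real.rpow_le_rpow (by have := cW_ge hq hW; linarith) ?_ (by positivity)
  rw [Real.rpow_add h2]
  have h3 := const_le (c0_ge hq) hW
  have h4 : W ^ 2 ≤ (2 * W) ^ (2:ℝ) := by
    rw [Real.rpow_two]; nlinarith
  gcongr

/-- the constant of `core_big` -/
theorem WW_le {qp : Fin 3 → ℝ} {q W G : ℝ} (hq : 0 < q) (hW : 1 ≤ W) (hG : 0 ≤ G) :
    WW qp W (Kq q * W ^ 2) (th q W) (4000 * W / th q W) (G * W ^ 2) ≤
      (4000 + 4 + 16 ^ (1 + qp 0) * G + (Kq q + 4) * 800000) * (2 * W) ^ (2 + Cth q) := by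
  have h2 : 0 < 2 * W := by linarith
  have hK := Kq_pos hq
  set β : ℝ := (2 * W) ^ Cth q with hβ
  have hβ1 : 1 ≤ β := Real.one_le_rpow (by linarith) (Cth_nonneg hq)
  have hti : (th q W)⁻¹ ≤ β := th_inv_le hq hW
  have hti0 : 0 < (th q W)⁻¹ := inv_pos.2 (th_pos hq hW)
  have e0 : (2 * W) ^ (2 + Cth q) = (2 * W) ^ 2 * β := by
    rw [Real.rpow_add h2, Real.rpow_two]
  rw [e0, WW, div_eq_mul_inv, div_eq_mul_inv]
  set τ : ℝ := (th q W)⁻¹ with hτ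
  have hW2 : W ≤ W ^ 2 := by nlinarith
  have hT : W ^ 2 ≤ (2 * W) ^ 2 := by nlinarith
  have hT1 : (1:ℝ) ≤ (2 * W) ^ 2 := by nlinarith
  set T : ℝ := (2 * W) ^ 2 with hTd
  have hT0 : 0 < T := by linarith
  have i1 : 4000 * W * τ ≤ 4000 * (T * β) := by
    have : W * τ ≤ T * β := mul_le_mul (hW2.trans hT) hti hti0.le hT0.le
    nlinarith
  have i2 : 4 * W ≤ 4 * (T * β) := by
    have : W * 1 ≤ T * β := mul_le_mul (hW2.trans hT) hβ1 (by norm_num) hT0.le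
    linarith
  have i3 : 16 ^ (1 + qp 0) * (G * W ^ 2) ≤ 16 ^ (1 + qp 0) * G * (T * β) := by
    have h3 : W ^ 2 * 1 ≤ T * β := mul_le_mul hT hβ1 (by norm_num) hT0.le
    have h4 : 0 ≤ (16:ℝ) ^ (1 + qp 0) * G := by positivity
    calc 16 ^ (1 + qp 0) * (G * W ^ 2) = 16 ^ (1 + qp 0) * G * (W ^ 2 * 1) := by ring
      _ ≤ _ := mul_le_mul_of_nonneg_left h3 h4
  have i4 : (Kq q * W ^ 2 + 4 * W) * (800000 * τ) ≤ (Kq q + 4) * 800000 * (T * β) := by
    have h3 : Kq q * W ^ 2 + 4 * W ≤ (Kq q + 4) * T := by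
      have : Kq q * W ^ 2 ≤ Kq q * T := mul_le_mul_of_nonneg_left hT hK.le
      nlinarith
    calc (Kq q * W ^ 2 + 4 * W) * (800000 * τ) ≤ ((Kq q + 4) * T) * (800000 * β) := by
          apply mul_le_mul h3 (by linarith) (by positivity) (by positivity)
      _ = _ := by ring
  linarith

/-- **the case of large base tilt** -/
theorem coreBig : Tc5123.CoreBig := by
  classical
  intro η qm qp hx
  have q0 := hx.le 0
  have q2 := hx.le 2
  have p00 : 0 ≤ qp 0 := q0.1.trans q0.2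
  have p20 : 0 ≤ qp 2 := q2.1.trans q2.2
  have hq : 0 < qm 1 := by
    have := hx.e1; have := hx.pos; linarith [q2.2]
  obtain ⟨K, hK⟩ := exists_nat_ge (8 / qm 1)
  have hKm : 8 ≤ (K : ℝ) * qm 1 := by rwa [div_le_iff₀ hq] at hK
  set G : ℝ := Chg372.cH qp with hGd
  have hG : 0 ≤ G := by rw [hGd]; unfold Chg372.cH; positivity
  have hKq := Kq_pos hq
  set c1 : ℝ := 4000 + 4 + 16 ^ (1 + qp 0) * G + (Kq (qm 1) + 4) * 800000 with hc1
  have hc11 : 1 ≤ c1 := by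
    have : 0 ≤ 16 ^ (1 + qp 0) * G := by positivity
    rw [hc1]; nlinarith
  have h4K : (1:ℝ) ≤ 4 ^ K := one_le_pow₀ (by norm_num)
  have hc2 : 1 ≤ 6 * 4 ^ K * c1 ^ 5 := by
    have : 1 ≤ c1 ^ 5 := one_le_pow₀ hc11
    nlinarith
  set c2 : ℝ := 6 * 4 ^ K * c1 ^ 5 with hc2d
  have hCt := Cth_nonneg hq
  have hl2 : 0 < Real.log 2 := Real.log_pos (by norm_num)
  have hlc := Real.log_nonneg hc2
  have hlc' : 0 ≤ Real.log c2 / Real.log 2 := by positivity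
  refine ⟨Cth (qm 1) + (Real.log c2 / Real.log 2 + 5 * (2 + Cth (qm 1))), by linarith, ?_⟩
  intro L P u v bu bv eu ev W M a Y w1 w2 z0 ρ j k' H hP hD hW2 hbig
  have hW := H.W1
  have h2W : 1 ≤ 2 * W := by linarith
  have h2W0 : 0 < 2 * W := by linarith
  have hY : 0 < Y := H.a0.trans_le H.aY
  obtain ⟨t0, ht0⟩ := hP
  have hlw := (hD t0 ht0).hlw (H.ou t0 ht0) (H.ov t0 ht0) hY H.Yw H.ww
  have htp := th_pos hq hW
  have hθ : 1 ≤ th (qm 1) W * 2 ^ (j + 1) := by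
    have h1 : (th (qm 1) W)⁻¹ ≤ (2:ℝ) ^ j := by
      refine (th_inv_le hq hW).trans (le_trans ?_ hbig)
      exact Real.rpow_le_rpow_of_exponent_le h2W (by linarith)
    have h2 : (1:ℝ) ≤ th (qm 1) W * 2 ^ j := by
      rw [inv_le_iff_one_le_mul₀ htp] at h1
      linarith
    have h3 : th (qm 1) W * 2 ^ (j + 1) = 2 * (th (qm 1) W * 2 ^ j) := by ring
    rw [h3]; linarith
  have hD1 : 1 ≤ 4000 * W / th (qm 1) W := by
    rw [le_div_iff₀ htp]
    have := th_le hq hW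
    linarith
  have h1 := core_big hx hKm H ⟨t0, ht0⟩ hD hW2 (B := Kq (qm 1) * W ^ 2) (θ := th (qm 1) W)
    (D := 4000 * W / th (qm 1) W) (G := G * W ^ 2) (by positivity) htp (th_le hq hW) hD1
    (by positivity) (cross_u H hq hlw hθ) (cross_v H hq hlw hθ)
    (fun cu cv x hx1 t ht => Chg372.hullUg H hD hx1 p00 p20 cu cv ht)
    (fun cu cv x hx1 t ht => Chg372.hullVg H hD hx1 p00 p20 cu cv ht)
    (fun cu x hx1 t ht inst inst' => Chg372.hull1g H hD hx1 p00 p20 cu ht inst inst')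
  have h2 := WW_le (qp := qp) hq hW hG
  have h3 : 0 ≤ WW qp W (Kq (qm 1) * W ^ 2) (th (qm 1) W) (4000 * W / th (qm 1) W)
      (G * W ^ 2) := by
    unfold WW; positivity
  refine h1.trans ?_
  calc 6 * 4 ^ K * WW qp W (Kq (qm 1) * W ^ 2) (th (qm 1) W) (4000 * W / th (qm 1) W)
        (G * W ^ 2) ^ 5 ≤ 6 * 4 ^ K * (c1 * (2 * W) ^ (2 + Cth (qm 1))) ^ 5 := by gcongr
    _ = c2 * ((2 * W) ^ (2 + Cth (qm 1))) ^ 5 := by rw [hc2d]; ring
    _ ≤ (2 * W) ^ (Real.log c2 / Real.log 2) * ((2 * W) ^ (2 + Cth (qm 1))) ^ 5 := by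
        gcongr
        exact const_le hc2 hW
    _ = (2 * W) ^ (Real.log c2 / Real.log 2 + 5 * (2 + Cth (qm 1))) := by
        rw [← Real.rpow_natCast, ← Real.rpow_mul h2W0.le, ← Real.rpow_add h2W0]
        congr 1
        push_cast; ring
    _ ≤ _ := Real.rpow_le_rpow_of_exponent_le h2W (by linarith)

/-- **TARGET 1** of `Pl2Def_860` -/
theorem tiltCore : TiltCore := Tc5123.tiltCore_of coreBig

end Crest.Agent.R136.Cbc372
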