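import Crest.Agent.R136.Pl2Def_860

/-!
# R136 (S0187), PLAN 2: literals of the leaves B1..B6 (from `Two1` to `TCore`) (helper860)

* `FH C Y S f` : the sheet `S` lies in flat boxes of thickness `C Y` with the orthonormal frame `f`.
* `FL C Y S f` : there `S.q` is `b0 ⟨f 0, x - T⟩` up to `C m² Y` on the `m`-dilated box.
* targets: `FlatFrame` (B1), `WideHull` (B2), `TubeL` (B3), `ShareL` (B4), `CloseOfDy` (B6a).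
-/

set_option autoImplicit false
set_option linter.unusedVariables false

open Finset

namespace Crest.Agent.R136.Pl2

open Crest.Agent.R136.Sh605 Crest.Agent.R136.Fl808
open Crest.Agent.R136.K4 (Plk4)
open Crest.Agent.R136.Tlt51 (Shp InP)
open Crest.Agent.R136.Phc248 (ph phC)
open Crest.Agent.R136.Deep51 (CloseC)
open Crest.Agent.R136.KapP335 (kapP expP DetP)
open Crest.Agent.R136.Tl102 (angC)
open Crest.Agent.R136.Pl2W102 (Near Ex2 Two1)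

/-- the sheet `S` lies in flat boxes of thickness `C Y` with frame `f` (monotone in `C` and `Y`) -/
structure FH (C Y : ℝ) (S : Plk4) (f : Fin 3 → V3) (z0 ρ : ℝ) : Prop where
  ortho : Ortho f
  e01 : |dt (f 0) (S.e 1)| * S.w 1 ≤ C * S.w 2
  e10 : |dt (f 1) (S.e 0)| * S.w 1 ≤ C * S.w 2
  e12 : |dt (f 1) (S.e 2)| * S.w 1 ≤ C * S.w 2
  e21 : |dt (f 2) (S.e 1)| * S.w 1 ≤ C * S.w 2
  e00 : 1 ≤ C * |dt (f 0) (S.e 0)|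
  /-- lines of `S` -/
  box : ∀ t t' : Ln4, InP t S z0 ρ → InP t' S z0 ρ →
    InB t t' f ![C * Y, C * S.w 1, C * S.w 2] z0 ρ
  /-- points of `S` near a line of `S` -/
  pt : ∀ T : Ln4, InP T S z0 ρ → ∀ z, z0 ≤ z → z ≤ z0 + ρ → ∀ x : V3,
    InK S.e T (fun i => S.w i / 8) z x → |S.q z x| ≤ S.a → |dt (f 0) (x - T.pos z)| ≤ C * Y

/-- the function of the sheet is linear up to `Y` in the flat box -/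
def FL (C Y : ℝ) (S : Plk4) (f : Fin 3 → V3) (z0 ρ : ℝ) : Prop :=
  ∀ T : Ln4, InP T S z0 ρ → ∃ b0 : ℝ, 1 ≤ C * b0 ∧ b0 ≤ C ∧ ∀ m : ℝ, 1 ≤ m →
    ∀ z, z0 ≤ z → z ≤ z0 + ρ → ∀ x : V3, |dt (f 0) (x - T.pos z)| ≤ m * Y →
      |dt (f 1) (x - T.pos z)| ≤ m * S.w 1 → |dt (f 2) (x - T.pos z)| ≤ m * S.w 2 →
        |S.q z x - b0 * dt (f 0) (x - T.pos z)| ≤ C * m ^ 2 * Y

/-- **(B1)** flat hull frame of a sheet at one of its lines `T`. -/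
def FlatFrame : Prop := ∃ C : ℝ, 1 ≤ C ∧ ∀ (S : Plk4) (T : Ln4) (z0 ρ r : ℝ), 0 < ρ → 0 < r →
  Shp S z0 ρ r → InP T S z0 ρ → ∃ f : Fin 3 → V3, ∀ Y : ℝ, S.a ≤ Y → kapP S z0 ρ T ≤ Y →
    FH C Y S f z0 ρ ∧ (Y ≤ 100 * S.w 0 → FL C Y S f z0 ρ)

open Classical in
/-- **(B2)** hull D-max for wide flat boxes from 102's `Two1`. -/
def WideHull : Prop := ∀ (η : ℝ) (qm qp : Fin 3 → ℝ), Ex2 η qm qp → ∃ C : ℝ, 0 ≤ C ∧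
  ∀ (L : ℕ → Ln4) (P : Finset ℕ) (cu cv : ℕ → ℕ) (Uf Vf : ℕ → Plk4) (W M a w1 w2 z0 ρ r : ℝ),
    Two1 qm qp L P cu cv Uf Vf W M a w1 w2 z0 ρ r → r ≤ ρ →
    ∀ (m : ℝ) (b : Ln4) (f : Fin 3 → V3) (X0 X2 : ℝ), 1 ≤ m → Ortho f → a ≤ X0 → w2 ≤ X2 →
      X0 ≤ X2 → X2 ≤ m * w1 →
      ((P.filter fun t => InB (L t) b f ![X0, m * w1, X2] z0 ρ).card : ℝ) ≤
        (2 * W * m) ^ C * M * ((X0 / a) ^ (1 + qp 0) * (X2 / w2) ^ (1 + qp 2))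

open Classical in
/-- **(B3)** tubes in the classes of the first system (second system: exchange the roles). -/
def TubeL : Prop := ∀ (η : ℝ) (qm qp : Fin 3 → ℝ), Ex2 η qm qp → ∃ C : ℝ, 0 ≤ C ∧
  ∀ (L : ℕ → Ln4) (P : Finset ℕ) (cu cv : ℕ → ℕ) (Uf Vf : ℕ → Plk4) (W M a w1 w2 z0 ρ r : ℝ),
    Two1 qm qp L P cu cv Uf Vf W M a w1 w2 z0 ρ r → r ≤ ρ →
    ∀ t ∈ P, ∀ (m δ Y : ℝ) (f : Fin 3 → V3), 1 ≤ m → FH m Y (Uf (cu t)) f z0 ρ →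
      Y ≤ m * w2 → w2 ≤ m * (δ * w1) → δ ≤ m →
      ((P.filter fun s => cu s = cu t ∧ ∀ z, z0 ≤ z → z ≤ z0 + ρ →
        |dt (f 1) ((L s).pos z - (L t).pos z)| ≤ δ * w1).card : ℝ) ≤
          (2 * W * m) ^ C * M * δ ^ (1 + qm 1)

open Classical in
/-- **(B4)** share of a tilted pair. `w1', w2'` : the widths used in `Dy`.  (= 879's `ShareP`) -/
def ShareL : Prop := ∀ (η : ℝ) (qm qp : Fin 3 → ℝ), Ex2 η qm qp → ∀ C1 : ℝ, 0 ≤ C1 →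
  ∃ K2 : ℝ, 0 ≤ K2 ∧ ∀ K0 : ℝ, K2 ≤ K0 → ∃ K1 C : ℝ, 0 ≤ K1 ∧ 0 ≤ C ∧
  ∀ (L : ℕ → Ln4) (P : Finset ℕ) (cu cv : ℕ → ℕ) (Uf Vf : ℕ → Plk4) (W M a w1 w2 z0 ρ r : ℝ),
    Two1 qm qp L P cu cv Uf Vf W M a w1 w2 z0 ρ r → r ≤ ρ →
    ∀ t ∈ P, ∀ (f g : Fin 3 → V3) (Y w1' w2' : ℝ),
      (∀ s ∈ P, cu s = cu t → cv s = cv t →
        TypP ((2 * W) ^ K0) W a (Uf (cu t)) (Vf (cv t)) (L s) z0 ρ ∧
          Near 4 Y (kp (Uf (cu t)) z0 ρ (L s))) →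
      a ≤ Y → Y ≤ w2' → w2' ≤ w1' →
      w1 ≤ w1' → w1' ≤ (2 * W) ^ C1 * w1 → w2 ≤ w2' → w2' ≤ (2 * W) ^ C1 * w2 →
      FH ((2 * W) ^ C1) Y (Uf (cu t)) f z0 ρ → FL ((2 * W) ^ C1) Y (Uf (cu t)) f z0 ρ →
      FH ((2 * W) ^ C1) Y (Vf (cv t)) g z0 ρ →
      ∀ j k' : ℕ, Dy f g Y w1' w2' j k' → (2 * W) ^ K1 ≤ (2:ℝ) ^ j * 2 ^ k' →
        ((P.filter fun s => cu s = cu t ∧ cv s = cv t).card : ℝ) ≤
          (2 * W) ^ C * M / (((2:ℝ) ^ j) ^ (1 + qm 1) * ((2:ℝ) ^ k' * (Y / a)) ^ (1 + qm 2))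

/-- **(B6a)** from small tilts of the hull frames to the conclusion of `BT`. -/
def CloseOfDy : Prop := ∀ C1 : ℝ, 0 ≤ C1 → ∃ C : ℝ, 0 ≤ C ∧
  ∀ (S S' : Plk4) (T : Ln4) (f g : Fin 3 → V3) (W Y w1 w2 w1' w2' z0 ρ r : ℝ) (j k' : ℕ),
    1 ≤ W → 0 < ρ → 0 < r → 0 < w1 → 0 < w2 → Shp S z0 ρ r → Shp S' z0 ρ r →
    InP T S z0 ρ → InP T S' z0 ρ → Near W w1 (S.w 1) → Near W w2 (S.w 2) → Near W w1 (S'.w 1) →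
    Near W w2 (S'.w 2) → S.a ≤ Y → S'.a ≤ Y → Y ≤ w2' → w2' ≤ w1' →
    w1 ≤ w1' → w1' ≤ (2 * W) ^ C1 * w1 → w2 ≤ w2' → w2' ≤ (2 * W) ^ C1 * w2 →
    FH ((2 * W) ^ C1) Y S f z0 ρ → FL ((2 * W) ^ C1) Y S f z0 ρ → FH ((2 * W) ^ C1) Y S' g z0 ρ →
    Dy f g Y w1' w2' j k' →
    angC S S' * w1 ≤ (2 * W * (2 ^ j * 2 ^ k')) ^ C * w2 ∧
      CloseC S'.e S'.w S'.q S'.a S.q ((2 * W * (2 ^ j * 2 ^ k')) ^ C * Y) T z0 ρ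

end Crest.Agent.R136.Pl2
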