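import Crest.Agent.R136.Ffr1_262
import Crest.Agent.R136.Pl2B_860

/-!
# R136 (S0187), PLAN 2 (B1): flat hull frame of a sheet at one of its lines (helper262)

`fF e α β` : orthonormal frame with `f 0 ∥ e 0 + α e 1 + β e 2`, `f 2 ⟂ e 1`.
`flatFrame : Pl2.FlatFrame`.
-/

set_option autoImplicit false
set_option linter.unusedVariables false

namespace Crest.Agent.R136.Ffr262

open Crest.Agent.R136.Sh605 Crest.Agent.R136.Tl102 Crest.Agent.R136.Fl808
open Crest.Agent.R136.K4 (Plk4)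
open Crest.Agent.R136.Tlt51 (Shp InP)
open Crest.Agent.R136.KapP335 (kapP expP expP_spec)
open Crest.Agent.R136.Pl2 (FH FL FlatFrame)

theorem dt_cmb (e : Fin 3 → V3) (x v : V3) :
    dt (cmb e x) v = x 0 * dt (e 0) v + x 1 * dt (e 1) v + x 2 * dt (e 2) v := by
  simp only [dt, cmb]; ring

theorem dt_cmb_e {e : Fin 3 → V3} (he : Ortho e) (x : V3) (i : Fin 3) :
    dt (cmb e x) (e i) = x i := by
  rw [dt_cmb, he 0 i, he 1 i, he 2 i]
  fin_cases i <;> simp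

theorem dt_cmb_cmb {e : Fin 3 → V3} (he : Ortho e) (x y : V3) :
    dt (cmb e x) (cmb e y) = x 0 * y 0 + x 1 * y 1 + x 2 * y 2 := by
  rw [dt_comm, dt_cmb, dt_comm (e 0), dt_comm (e 1), dt_comm (e 2), dt_cmb_e he, dt_cmb_e he,
    dt_cmb_e he]
  ring

/-- `√(1 + α² + β²)` -/
noncomputable def n0 (α β : ℝ) : ℝ := √(1 + α ^ 2 + β ^ 2)
/-- `√(1 + β²)` -/
noncomputable def n2 (β : ℝ) : ℝ := √(1 + β ^ 2)

theorem n0_sq (α β : ℝ) : n0 α β ^ 2 = 1 + α ^ 2 + β ^ 2 := Real.sq_sqrt (by positivity)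
theorem n2_sq (β : ℝ) : n2 β ^ 2 = 1 + β ^ 2 := Real.sq_sqrt (by positivity)
theorem n0_ge (α β : ℝ) : 1 ≤ n0 α β := by
  unfold n0; rw [Real.one_le_sqrt]; nlinarith [sq_nonneg α, sq_nonneg β]
theorem n2_ge (β : ℝ) : 1 ≤ n2 β := by
  unfold n2; rw [Real.one_le_sqrt]; nlinarith [sq_nonneg β]

/-- the frame -/
noncomputable def fF (e : Fin 3 → V3) (α β : ℝ) : Fin 3 → V3 :=
  ![cmb e ![1 / n0 α β, α / n0 α β, β / n0 α β],
    cmb e ![-α / (n0 α β * n2 β), (1 + β ^ 2) / (n0 α β * n2 β), -(α * β) / (n0 α β * n2 β)],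
    cmb e ![-β / n2 β, 0, 1 / n2 β]]

theorem fF_ortho {e : Fin 3 → V3} (he : Ortho e) (α β : ℝ) : Ortho (fF e α β) := by
  have h0 := n0_sq α β
  have h2 := n2_sq β
  have p0 : 0 < n0 α β := lt_of_lt_of_le one_pos (n0_ge α β)
  have p2 : 0 < n2 β := lt_of_lt_of_le one_pos (n2_ge β)
  obtain ⟨a, ha⟩ : ∃ a, a = n0 α β := ⟨_, rfl⟩
  obtain ⟨b, hb⟩ : ∃ b, b = n2 β := ⟨_, rfl⟩
  rw [← ha] at h0 p0
  rw [← hb] at h2 p2
  intro i j
  unfold fF
  rw [← ha, ← hb]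
  have e00 : 1 / a * (1 / a) + α / a * (α / a) + β / a * (β / a) = 1 := by
    field_simp; linarith
  have e11 : -α / (a * b) * (-α / (a * b)) + (1 + β ^ 2) / (a * b) * ((1 + β ^ 2) / (a * b)) +
      -(α * β) / (a * b) * (-(α * β) / (a * b)) = 1 := by
    field_simp; rw [h0, h2]; ring
  have e22 : -β / b * (-β / b) + 0 * 0 + 1 / b * (1 / b) = 1 := by
    field_simp; linarith
  have e01 : 1 / a * (-α / (a * b)) + α / a * ((1 + β ^ 2) / (a * b)) +
      β / a * (-(α * β) / (a * b)) = 0 := by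
    field_simp; ring
  have e02 : 1 / a * (-β / b) + α / a * 0 + β / a * (1 / b) = 0 := by
    field_simp; ring
  have e12 : -α / (a * b) * (-β / b) + (1 + β ^ 2) / (a * b) * 0 +
      -(α * β) / (a * b) * (1 / b) = 0 := by
    field_simp; ring
  fin_cases i <;> fin_cases j <;>
    simp only [Fin.zero_eta, Fin.mk_one, Fin.reduceFinMk, Matrix.cons_val_zero,
      Matrix.cons_val_one, Matrix.cons_val, dt_cmb_cmb he, if_true, Fin.isValue, Fin.reduceEq,
      if_false] <;> linarith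

/-- coefficients of the frame -/
theorem fF_coef {e : Fin 3 → V3} (he : Ortho e) (α β : ℝ) :
    |dt (fF e α β 0) (e 1)| ≤ |α| ∧ |dt (fF e α β 0) (e 2)| ≤ |β| ∧
    |dt (fF e α β 1) (e 0)| ≤ |α| ∧ |dt (fF e α β 1) (e 2)| ≤ |α| ∧
    dt (fF e α β 2) (e 1) = 0 ∧ 1 ≤ n0 α β * |dt (fF e α β 0) (e 0)| := by
  have p0 := n0_ge α β
  have p2 := n2_ge β
  have h2 := n2_sq β
  have q0 : 0 < n0 α β := by linarith
  have q2 : 0 < n2 β := by linarith
  have hβ : |β| ≤ n2 β := by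
    have : |β| ^ 2 ≤ n2 β ^ 2 := by rw [sq_abs, h2]; linarith
    exact (sq_le_sq₀ (abs_nonneg _) q2.le).1 this
  have e0 : fF e α β 0 = cmb e ![1 / n0 α β, α / n0 α β, β / n0 α β] := rfl
  have e1 : fF e α β 1 = cmb e ![-α / (n0 α β * n2 β), (1 + β ^ 2) / (n0 α β * n2 β),
    -(α * β) / (n0 α β * n2 β)] := rfl
  have e2 : fF e α β 2 = cmb e ![-β / n2 β, 0, 1 / n2 β] := rfl
  rw [e0, e1, e2]
  simp only [dt_cmb_e he]
  simp only [Matrix.cons_val_zero, Matrix.cons_val_one, Matrix.cons_val]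
  have dv : ∀ x : ℝ, |x / n0 α β| ≤ |x| := by
    intro x
    rw [abs_div, abs_of_pos q0]
    exact div_le_self (abs_nonneg _) p0
  have p02 : 1 ≤ n0 α β * n2 β := by nlinarith
  refine ⟨dv α, dv β, ?_, ?_, trivial, ?_⟩
  · rw [abs_div, abs_neg, abs_of_pos (mul_pos q0 q2)]
    exact div_le_self (abs_nonneg _) p02
  · rw [abs_div, abs_neg, abs_mul, abs_of_pos (mul_pos q0 q2), div_le_iff₀ (mul_pos q0 q2)]
    have h3 : |α| * |β| ≤ |α| * n2 β := mul_le_mul_of_nonneg_left hβ (abs_nonneg _)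
    have h4 : |α| * n2 β ≤ |α| * (n0 α β * n2 β) := by
      refine mul_le_mul_of_nonneg_left ?_ (abs_nonneg _)
      nlinarith
    linarith
  · rw [abs_of_pos (by positivity : (0:ℝ) < 1 / n0 α β)]
    exact le_of_eq (by field_simp)

/-- hypotheses and notation of one sheet around one of its lines -/
structure Sit (S : Plk4) (T : Ln4) (z0 ρ r : ℝ) (b0 b1 : V3) (G : QF) : Prop where
  ρ0 : 0 < ρ
  r0 : 0 < r
  sh : Shp S z0 ρ r
  inT : InP T S z0 ρ
  exp : IsExp S.q S.e S.w T z0 ρ b0 b1 G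

namespace Sit

variable {S : Plk4} {T : Ln4} {z0 ρ r : ℝ} {b0 b1 : V3} {G : QF} (H : Sit S T z0 ρ r b0 b1 G)
include H

theorem a0 : 0 < S.a := H.r0.trans_le H.sh.r0_le
theorem w0 : 0 < S.w 0 := H.a0.trans_le H.sh.a_le0
theorem w2 : 0 < S.w 2 := H.w0.trans_le H.sh.w0_le
theorem w1 : 0 < S.w 1 := H.w2.trans_le H.sh.w_le
theorem stp : StP S.e S.c S.w S.q z0 ρ := StP.of_shN H.sh H.w0
theorem hT : ∀ z, z0 ≤ z → z ≤ z0 + ρ → InK S.e S.c S.w z (T.pos z) :=
  fun z h h' => (H.inT z h h').1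
theorem nrm : NrmC b0 b1 G := H.exp.nrmC H.stp H.ρ0.le H.hT
theorem ne0 : b0 0 ≠ 0 := by have := H.nrm.b1_le.1; linarith

theorem kapP_eq : kapP S z0 ρ T = S.w 0 * kap b0 b1 G :=
  Crest.Agent.R136.KapP335.kapP_eq H.w0.ne' H.exp

/-- height parameter -/
theorem zeta {z : ℝ} (h : z0 ≤ z) (h' : z ≤ z0 + ρ) : ∃ ζ, 0 ≤ ζ ∧ ζ ≤ 1 ∧ z = z0 + ρ * ζ := by
  have := H.ρ0
  refine ⟨(z - z0) / ρ, div_nonneg (by linarith) this.le, ?_, by field_simp; ring⟩
  rw [div_le_one this]; linarith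

/-- the value of `q` -/
theorem val {z ζ : ℝ} (hz : z = z0 + ρ * ζ) (X : V3) :
    S.w 0 * Fq b0 b1 G ζ (pc S.e S.w T z X) = S.q z X - S.q z (T.pos z) := by
  have h1 := H.exp ζ (pc S.e S.w T z X)
  rw [← hz, cmb_pc H.sh.ortho (fun i => (H.stp.pos i).ne') T z X] at h1
  linarith

theorem val_abs {z ζ : ℝ} (hz : z = z0 + ρ * ζ) (X : V3) :
    S.w 0 * |Fq b0 b1 G ζ (pc S.e S.w T z X)| ≤ |S.q z X| + |S.q z (T.pos z)| := by
  have h1 := H.val hz X
  have h2 : S.w 0 * |Fq b0 b1 G ζ (pc S.e S.w T z X)| =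
      |S.w 0 * Fq b0 b1 G ζ (pc S.e S.w T z X)| := by rw [abs_mul, abs_of_pos H.w0]
  rw [h2, h1]
  exact abs_sub _ _

/-- height of a point of the plank over the tangent plane -/
theorem y_line {z : ℝ} (h : z0 ≤ z) (h' : z ≤ z0 + ρ) {X : V3} (hX : InK S.e S.c S.w z X)
    (hq : |S.q z X| ≤ S.a) : S.w 0 * |yc b0 (pc S.e S.w T z X)| ≤
      2200 * (2 * S.a + kapP S z0 ρ T) := by
  obtain ⟨ζ, h0, h1, hz⟩ := H.zeta h h'
  have h2 := y_norm H.stp H.ρ0.le H.hT H.exp h0 h1 (X := X) (by rw [← hz]; exact hX)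
  rw [← hz] at h2
  have h3 := H.val_abs hz X
  have h4 := (H.inT z h h').2
  rw [H.kapP_eq]
  have h5 := mul_le_mul_of_nonneg_left h2 H.w0.le
  nlinarith

/-- height of a point near a point of the plank over the tangent plane -/
theorem y_point {z : ℝ} (h : z0 ≤ z) (h' : z ≤ z0 + ρ) {X X' : V3} (hX' : InK S.e S.c S.w z X')
    (hq' : |S.q z X'| ≤ S.a) (hX : ∀ i, |dt (S.e i) (X - X')| ≤ S.w i / 8)
    (hq : |S.q z X| ≤ S.a) : S.w 0 * |yc b0 (pc S.e S.w T z X)| ≤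
      20000 * (4 * S.a + kapP S z0 ρ T) := by
  obtain ⟨ζ, h0, h1, hz⟩ := H.zeta h h'
  have h2 := y_norm' H.stp H.ρ0.le H.hT H.exp h0 h1 (X' := X') (X := X)
    (by rw [← hz]; exact hX') hX
  rw [← hz] at h2
  have h3 := H.val_abs hz X
  have h3' := H.val_abs hz X'
  have h4 := (H.inT z h h').2
  rw [H.kapP_eq]
  have h5 := mul_le_mul_of_nonneg_left h2 H.w0.le
  nlinarith

end Sit

/-- tilt of the long axis -/
noncomputable def al (S : Plk4) (b0 : V3) : ℝ := b0 1 / b0 0 * (S.w 0 / S.w 1)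
/-- tilt of the second axis -/
noncomputable def be (S : Plk4) (b0 : V3) : ℝ := b0 2 / b0 0 * (S.w 0 / S.w 2)

namespace Sit

variable {S : Plk4} {T : Ln4} {z0 ρ r : ℝ} {b0 b1 : V3} {G : QF} (H : Sit S T z0 ρ r b0 b1 G)
include H

theorem al_le : |al S b0| * S.w 1 ≤ 2 * S.w 0 := by
  have h := H.nrm.b1_le.2.2.2.2.2.2.2.1
  unfold al
  rw [abs_mul, abs_div (S.w 0), abs_of_pos H.w0, abs_of_pos H.w1]
  have e1 : |b0 1 / b0 0| * (S.w 0 / S.w 1) * S.w 1 = |b0 1 / b0 0| * S.w 0 := by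
    have := H.w1.ne'
    field_simp
  rw [e1]
  exact mul_le_mul_of_nonneg_right h H.w0.le

theorem be_le : |be S b0| * S.w 2 ≤ 2 * S.w 0 := by
  have h := H.nrm.b1_le.2.2.2.2.2.2.2.2
  unfold be
  rw [abs_mul, abs_div (S.w 0), abs_of_pos H.w0, abs_of_pos H.w2]
  have e1 : |b0 2 / b0 0| * (S.w 0 / S.w 2) * S.w 2 = |b0 2 / b0 0| * S.w 0 := by
    have := H.w2.ne'
    field_simp
  rw [e1]
  exact mul_le_mul_of_nonneg_right h H.w0.le

theorem al_two : |al S b0| ≤ 2 := by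
  have h := H.al_le
  have h1 := H.w1
  have h2 : S.w 0 ≤ S.w 1 := H.sh.w0_le.trans H.sh.w_le
  by_contra hc
  push Not at hc
  nlinarith

theorem be_two : |be S b0| ≤ 2 := by
  have h := H.be_le
  have h1 := H.w2
  have h2 := H.sh.w0_le
  by_contra hc
  push Not at hc
  nlinarith

theorem n0_le : n0 (al S b0) (be S b0) ≤ 3 := by
  have h1 := H.al_two
  have h2 := H.be_two
  unfold n0
  rw [Real.sqrt_le_left (by norm_num)]
  rw [abs_le] at h1 h2
  nlinarith [h1.1, h1.2, h2.1, h2.2]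

/-- normal offset -/
theorem f0_eq (z : ℝ) (X : V3) : n0 (al S b0) (be S b0) *
    dt (fF S.e (al S b0) (be S b0) 0) (X - T.pos z) = S.w 0 * yc b0 (pc S.e S.w T z X) := by
  have e0 : fF S.e (al S b0) (be S b0) 0 = cmb S.e ![1 / n0 (al S b0) (be S b0),
    al S b0 / n0 (al S b0) (be S b0), be S b0 / n0 (al S b0) (be S b0)] := rfl
  have p0 : n0 (al S b0) (be S b0) ≠ 0 := by have := n0_ge (al S b0) (be S b0); linarith
  rw [e0, dt_cmb]
  simp only [Matrix.cons_val_zero, Matrix.cons_val_one, Matrix.cons_val]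
  have h0 := H.w0.ne'
  have h1 := H.w1.ne'
  have h2 := H.w2.ne'
  have hb := H.ne0
  generalize n0 (al S b0) (be S b0) = ν at p0 ⊢
  have e1 : ν * (1 / ν * dt (S.e 0) (X - T.pos z) + al S b0 / ν * dt (S.e 1) (X - T.pos z) +
      be S b0 / ν * dt (S.e 2) (X - T.pos z)) = dt (S.e 0) (X - T.pos z) +
      al S b0 * dt (S.e 1) (X - T.pos z) + be S b0 * dt (S.e 2) (X - T.pos z) := by
    field_simp
  rw [e1]
  unfold yc pc al be
  field_simp

theorem f0_le (z : ℝ) (X : V3) : |dt (fF S.e (al S b0) (be S b0) 0) (X - T.pos z)| ≤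
    S.w 0 * |yc b0 (pc S.e S.w T z X)| := by
  have h := H.f0_eq z X
  have p0 := n0_ge (al S b0) (be S b0)
  have h1 : n0 (al S b0) (be S b0) * |dt (fF S.e (al S b0) (be S b0) 0) (X - T.pos z)| =
      S.w 0 * |yc b0 (pc S.e S.w T z X)| := by
    rw [← abs_of_pos (by linarith : 0 < n0 (al S b0) (be S b0)), ← abs_mul, h, abs_mul,
      abs_of_pos H.w0]
  rw [← h1]
  exact le_mul_of_one_le_left (abs_nonneg _) p0

theorem f0_ge (z : ℝ) (X : V3) : S.w 0 * |yc b0 (pc S.e S.w T z X)| ≤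
    3 * |dt (fF S.e (al S b0) (be S b0) 0) (X - T.pos z)| := by
  have h := H.f0_eq z X
  have p0 := n0_ge (al S b0) (be S b0)
  have h1 : n0 (al S b0) (be S b0) * |dt (fF S.e (al S b0) (be S b0) 0) (X - T.pos z)| =
      S.w 0 * |yc b0 (pc S.e S.w T z X)| := by
    rw [← abs_of_pos (by linarith : 0 < n0 (al S b0) (be S b0)), ← abs_mul, h, abs_mul,
      abs_of_pos H.w0]
  rw [← h1]
  exact mul_le_mul_of_nonneg_right H.n0_le (abs_nonneg _)

/-- normal offset of a line of the sheet -/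
theorem off_line {t : Ln4} (ht : InP t S z0 ρ) {z : ℝ} (h : z0 ≤ z) (h' : z ≤ z0 + ρ) {Y : ℝ}
    (haY : S.a ≤ Y) (hkY : kapP S z0 ρ T ≤ Y) :
    |dt (fF S.e (al S b0) (be S b0) 0) (t.pos z - T.pos z)| ≤ 6600 * Y := by
  obtain ⟨h1, h2⟩ := ht z h h'
  have h3 := H.f0_le z (t.pos z)
  have h4 := H.y_line h h' h1 h2
  linarith

theorem off_point {t : Ln4} (ht : InP t S z0 ρ) {z : ℝ} (h : z0 ≤ z) (h' : z ≤ z0 + ρ) {Y : ℝ}
    (haY : S.a ≤ Y) (hkY : kapP S z0 ρ T ≤ Y) {x : V3}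
    (hx : InK S.e t (fun i => S.w i / 8) z x) (hq : |S.q z x| ≤ S.a) :
    |dt (fF S.e (al S b0) (be S b0) 0) (x - T.pos z)| ≤ 100000 * Y := by
  obtain ⟨h1, h2⟩ := ht z h h'
  have h3 := H.f0_le z x
  have h4 := H.y_point h h' h1 h2 hx hq
  linarith

omit H in
/-- axis offsets of two lines -/
theorem ax {t t' : Ln4} (ht : InP t S z0 ρ) (ht' : InP t' S z0 ρ) {z : ℝ} (h : z0 ≤ z)
    (h' : z ≤ z0 + ρ) (i : Fin 3) : |dt (S.e i) (t.pos z - t'.pos z)| ≤ 2 * S.w i := by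
  have e1 : dt (S.e i) (t.pos z - t'.pos z) = dt (S.e i) (t.pos z - S.c.pos z) -
    dt (S.e i) (t'.pos z - S.c.pos z) := by simp only [dt, Pi.sub_apply]; ring
  rw [e1]
  have := Arc880.abs_sub2 ((ht z h h').1 i) ((ht' z h h').1 i)
  linarith

theorem box {t t' : Ln4} (ht : InP t S z0 ρ) (ht' : InP t' S z0 ρ) {Y : ℝ}
    (haY : S.a ≤ Y) (hkY : kapP S z0 ρ T ≤ Y) :
    InB t t' (fF S.e (al S b0) (be S b0)) ![13200 * Y, 6 * S.w 1, 4 * S.w 2] z0 ρ := by
  have hw0 := H.w0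
  have hw1 := H.w1
  have hw2 := H.w2
  have he := H.sh.ortho
  have hf := fF_ortho he (al S b0) (be S b0)
  have h02 := H.sh.w0_le
  have h21 := H.sh.w_le
  obtain ⟨c01, c02, c10, c12, c21, -⟩ := fF_coef he (al S b0) (be S b0)
  intro z h h' i
  have a0 := Sit.ax ht ht' h h' 0
  have a1 := Sit.ax ht ht' h h' 1
  have a2 := Sit.ax ht ht' h h' 2
  fin_cases i
  · change |dt (fF S.e (al S b0) (be S b0) 0) (t.pos z - t'.pos z)| ≤ 13200 * Y
    have e1 : dt (fF S.e (al S b0) (be S b0) 0) (t.pos z - t'.pos z) =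
      dt (fF S.e (al S b0) (be S b0) 0) (t.pos z - T.pos z) -
        dt (fF S.e (al S b0) (be S b0) 0) (t'.pos z - T.pos z) := by
      simp only [dt, Pi.sub_apply]; ring
    rw [e1]
    have := Arc880.abs_sub2 (H.off_line ht h h' haY hkY) (H.off_line ht' h h' haY hkY)
    linarith
  · change |dt (fF S.e (al S b0) (be S b0) 1) (t.pos z - t'.pos z)| ≤ 6 * S.w 1
    rw [dt_expand he]
    have g0 := Arc880.abs_mul_le (abs_dt_le_one he hf 1 0) a0
    have g1 := Arc880.abs_mul_le (abs_dt_le_one he hf 1 1) a1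
    have g2 := Arc880.abs_mul_le (abs_dt_le_one he hf 1 2) a2
    have := Arc880.abs_add2 (Arc880.abs_add2 g0 g1) g2
    linarith
  · change |dt (fF S.e (al S b0) (be S b0) 2) (t.pos z - t'.pos z)| ≤ 4 * S.w 2
    rw [dt_expand he, c21, zero_mul, add_zero]
    have g0 := Arc880.abs_mul_le (abs_dt_le_one he hf 2 0) a0
    have g2 := Arc880.abs_mul_le (abs_dt_le_one he hf 2 2) a2
    have := Arc880.abs_add2 g0 g2
    linarith

/-- **(B1), first half** -/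
theorem fh {Y : ℝ} (haY : S.a ≤ Y) (hkY : kapP S z0 ρ T ≤ Y) {C : ℝ} (hC : 120000 ≤ C) :
    FH C Y S (fF S.e (al S b0) (be S b0)) z0 ρ := by
  have hw0 := H.w0
  have hw1 := H.w1
  have hw2 := H.w2
  have hY : 0 < Y := H.a0.trans_le haY
  have he := H.sh.ortho
  have h02 := H.sh.w0_le
  have hal := H.al_le
  obtain ⟨c01, c02, c10, c12, c21, c00⟩ := fF_coef he (al S b0) (be S b0)
  have k1 : |al S b0| * S.w 1 ≤ C * S.w 2 := by nlinarith
  refine ⟨fF_ortho he _ _, ?_, ?_, ?_, ?_, ?_, ?_, ?_⟩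
  · exact (mul_le_mul_of_nonneg_right c01 hw1.le).trans k1
  · exact (mul_le_mul_of_nonneg_right c10 hw1.le).trans k1
  · exact (mul_le_mul_of_nonneg_right c12 hw1.le).trans k1
  · rw [c21, abs_zero, zero_mul]; positivity
  · refine c00.trans (mul_le_mul_of_nonneg_right ?_ (abs_nonneg _))
    have := H.n0_le
    linarith
  · intro t t' ht ht' z h h' i
    refine (H.box ht ht' haY hkY z h h' i).trans ?_
    fin_cases i
    · change 13200 * Y ≤ C * Y; nlinarith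
    · change 6 * S.w 1 ≤ C * S.w 1; nlinarith
    · change 4 * S.w 2 ≤ C * S.w 2; nlinarith
  · intro t ht z h h' x hx hq
    have e1 : dt (fF S.e (al S b0) (be S b0) 0) (x - t.pos z) =
      dt (fF S.e (al S b0) (be S b0) 0) (x - T.pos z) -
        dt (fF S.e (al S b0) (be S b0) 0) (t.pos z - T.pos z) := by
      simp only [dt, Pi.sub_apply]; ring
    rw [e1]
    have := Arc880.abs_sub2 (H.off_point ht h h' haY hkY hx hq) (H.off_line ht h h' haY hkY)
    nlinarith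

set_option maxHeartbeats 1600000 in
/-- **(B1), second half** -/
theorem fl {Y : ℝ} (haY : S.a ≤ Y) (hkY : kapP S z0 ρ T ≤ Y) (hYw : Y ≤ 100 * S.w 0) {C : ℝ}
    (hC : 10 ^ 12 ≤ C) : FL C Y S (fF S.e (al S b0) (be S b0)) z0 ρ := by
  have hw0 := H.w0
  have hw1 := H.w1
  have hw2 := H.w2
  have hY : 0 < Y := H.a0.trans_le haY
  have he := H.sh.ortho
  have hf := fF_ortho he (al S b0) (be S b0)
  have h02 := H.sh.w0_le
  have h21 := H.sh.w_le
  have hal := H.al_le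
  have hbe := H.be_le
  have N := H.nrm
  obtain ⟨c01, c02, c10, c12, c21, c00⟩ := fF_coef he (al S b0) (be S b0)
  intro t ht
  refine ⟨1, by linarith, by linarith, fun m hm z h h' x hx0 hx1 hx2 => ?_⟩
  obtain ⟨ζ, hζ, hζ', hz⟩ := H.zeta h h'
  -- offsets from T
  have m0 : 0 < m := by linarith
  have v0 : |dt (fF S.e (al S b0) (be S b0) 0) (x - T.pos z)| ≤ 6601 * (m * Y) := by
    have e1 : dt (fF S.e (al S b0) (be S b0) 0) (x - T.pos z) =
      dt (fF S.e (al S b0) (be S b0) 0) (x - t.pos z) +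
        dt (fF S.e (al S b0) (be S b0) 0) (t.pos z - T.pos z) := by
      simp only [dt, Pi.sub_apply]; ring
    rw [e1]
    have := Arc880.abs_add2 hx0 (H.off_line ht h h' haY hkY)
    have : Y ≤ m * Y := le_mul_of_one_le_left hY.le hm
    linarith
  have k1 : |dt (S.e 1) (x - t.pos z)| ≤ 201 * (m * S.w 1) := by
    rw [dt_expand hf]
    have g0 := Arc880.abs_mul_le (show |dt (S.e 1) (fF S.e (al S b0) (be S b0) 0)| ≤ |al S b0| by
      rw [dt_comm]; exact c01) hx0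
    have g1 := Arc880.abs_mul_le (abs_dt_le_one hf he 1 1) hx1
    rw [dt_comm (S.e 1) (fF S.e (al S b0) (be S b0) 2), c21, zero_mul, add_zero]
    have g2 : |al S b0| * (m * Y) ≤ 200 * (m * S.w 1) := by
      have q1 : |al S b0| * Y ≤ |al S b0| * (100 * S.w 1) :=
        mul_le_mul_of_nonneg_left (by linarith) (abs_nonneg _)
      have q2 : |al S b0| * Y ≤ 200 * S.w 1 := by linarith
      have q3 := mul_le_mul_of_nonneg_left q2 m0.le
      linarith
    have := Arc880.abs_add2 g0 g1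
    linarith
  have k2 : |dt (S.e 2) (x - t.pos z)| ≤ 205 * (m * S.w 2) := by
    rw [dt_expand hf]
    have g0 := Arc880.abs_mul_le (show |dt (S.e 2) (fF S.e (al S b0) (be S b0) 0)| ≤ |be S b0| by
      rw [dt_comm]; exact c02) hx0
    have g1 := Arc880.abs_mul_le (show |dt (S.e 2) (fF S.e (al S b0) (be S b0) 1)| ≤ |al S b0| by
      rw [dt_comm]; exact c12) hx1
    have g2 := Arc880.abs_mul_le (abs_dt_le_one hf he 2 2) hx2
    have g3 : |be S b0| * (m * Y) ≤ 200 * (m * S.w 2) := by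
      have q1 : |be S b0| * Y ≤ |be S b0| * (100 * S.w 2) :=
        mul_le_mul_of_nonneg_left (by linarith) (abs_nonneg _)
      have q2 : |be S b0| * Y ≤ 200 * S.w 2 := by linarith
      have q3 := mul_le_mul_of_nonneg_left q2 m0.le
      linarith
    have g4 : |al S b0| * (m * S.w 1) ≤ 4 * (m * S.w 2) := by
      have q2 : |al S b0| * S.w 1 ≤ 4 * S.w 2 := by linarith
      have q3 := mul_le_mul_of_nonneg_left q2 m0.le
      linarith
    have := Arc880.abs_add2 (Arc880.abs_add2 g0 g1) g2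
    linarith
  set X := pc S.e S.w T z x with hX
  have u1 : |X 1| ≤ 207 * m := by
    have e1 : X 1 = (dt (S.e 1) (x - t.pos z) + dt (S.e 1) (t.pos z - T.pos z)) / S.w 1 := by
      rw [hX]; simp only [pc, dt, Pi.sub_apply]; ring
    rw [e1, abs_div, abs_of_pos hw1, div_le_iff₀ hw1]
    have := Arc880.abs_add2 k1 (Sit.ax ht H.inT h h' 1)
    nlinarith
  have u2 : |X 2| ≤ 207 * m := by
    have e1 : X 2 = (dt (S.e 2) (x - t.pos z) + dt (S.e 2) (t.pos z - T.pos z)) / S.w 2 := by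
      rw [hX]; simp only [pc, dt, Pi.sub_apply]; ring
    rw [e1, abs_div, abs_of_pos hw2, div_le_iff₀ hw2]
    have := Arc880.abs_add2 k2 (Sit.ax ht H.inT h h' 2)
    nlinarith
  have y1 : S.w 0 * |yc b0 X| ≤ 19803 * (m * Y) := by
    have := H.f0_ge z x
    rw [← hX] at this
    linarith
  have y2 : |yc b0 X| ≤ 1980300 * m := by
    by_contra hc
    push Not at hc
    have h1 : S.w 0 * (1980300 * m) < S.w 0 * |yc b0 X| := mul_lt_mul_of_pos_left hc hw0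
    have h2 : m * Y ≤ m * (100 * S.w 0) := mul_le_mul_of_nonneg_left hYw m0.le
    nlinarith
  obtain ⟨-, -, -, -, -, -, -, sl1, sl2⟩ := N.b1_le
  obtain ⟨gy, gu, gv, -⟩ := N.G_le
  have hA : |b0 0 + ζ * b1 0| ≤ 2 := by
    have a0 : |(0 : ℝ)| ≤ 1 := by norm_num
    have := N.st ζ hζ hζ' 0 0 0 a0 a0 a0
    rw [abs_le]; constructor <;> linarith [this.1, this.2]
  have s12 := Arc880.abs_add2 (Arc880.abs_mul_le sl1 u1) (Arc880.abs_mul_le sl2 u2)
  have x0 : |X 0| ≤ 2000000 * m := by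
    have e1 : X 0 = yc b0 X - (b0 1 / b0 0 * X 1 + b0 2 / b0 0 * X 2) := by unfold yc; ring
    rw [e1]
    have := Arc880.abs_sub2 y2 s12
    linarith
  have hbra : |bra b0 b1 G ζ X| ≤ 3000000 * m := by
    unfold bra
    have := Arc880.abs_sub2 (Arc880.abs_add2 (Arc880.abs_add2 (Arc880.abs_add2 hA
      (Arc880.abs_mul_le gy x0)) (Arc880.abs_mul_le gu u1)) (Arc880.abs_mul_le gv u2))
      (Arc880.abs_mul_le gy s12)
    linarith
  have hrem := rem_le (b0 := b0) (b1 := b1) (G := G) hζ hζ' (m := 207 * m) (by linarith) u1 u2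
  have hF : |Fq b0 b1 G ζ X| ≤ |yc b0 X| * (3000000 * m) +
      5 * (207 * m) ^ 2 * kap b0 b1 G := by
    rw [Fq_split H.ne0]
    exact Arc880.abs_add2 (Arc880.abs_mul_le le_rfl hbra) hrem
  have hval := H.val hz x
  rw [← hX] at hval
  have hqT := (H.inT z h h').2
  have hq : |S.q z x| ≤ S.w 0 * |Fq b0 b1 G ζ X| + S.a := by
    have e1 : S.q z x = S.w 0 * Fq b0 b1 G ζ X + S.q z (T.pos z) := by linarith
    rw [e1]
    have e2 : |S.w 0 * Fq b0 b1 G ζ X| ≤ S.w 0 * |Fq b0 b1 G ζ X| := by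
      rw [abs_mul, abs_of_pos hw0]
    exact Arc880.abs_add2 e2 hqT
  have hk : S.w 0 * kap b0 b1 G ≤ Y := by rw [← H.kapP_eq]; exact hkY
  have f1 := mul_le_mul_of_nonneg_left hF hw0.le
  have f2 : S.w 0 * (|yc b0 X| * (3000000 * m) + 5 * (207 * m) ^ 2 * kap b0 b1 G) =
    (S.w 0 * |yc b0 X|) * (3000000 * m) + 5 * 207 ^ 2 * (m ^ 2 * (S.w 0 * kap b0 b1 G)) := by ring
  have f3 : (S.w 0 * |yc b0 X|) * (3000000 * m) ≤ 19803 * (m * Y) * (3000000 * m) :=
    mul_le_mul_of_nonneg_right y1 (by linarith)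
  have f4 : m ^ 2 * (S.w 0 * kap b0 b1 G) ≤ m ^ 2 * Y := mul_le_mul_of_nonneg_left hk (by positivity)
  have f5 : Y ≤ m ^ 2 * Y := le_mul_of_one_le_left hY.le (one_le_pow₀ hm)
  have f6 : m * Y ≤ m ^ 2 * Y := mul_le_mul_of_nonneg_right (by nlinarith) hY.le
  have f7 : 10 ^ 12 * (m ^ 2 * Y) ≤ C * (m ^ 2 * Y) := mul_le_mul_of_nonneg_right hC (by positivity)
  have f8 : |S.q z x - 1 * dt (fF S.e (al S b0) (be S b0) 0) (x - t.pos z)| ≤
      (S.w 0 * |Fq b0 b1 G ζ X| + S.a) + m * Y := by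
    rw [one_mul]; exact Arc880.abs_sub2 hq hx0
  have f9 : C * m ^ 2 * Y = C * (m ^ 2 * Y) := by ring
  have f10 : 19803 * (m * Y) * (3000000 * m) = 59409000000 * (m ^ 2 * Y) := by ring
  rw [f9]
  rw [f10] at f3
  rw [f2] at f1
  linarith

end Sit

/-- **(B1)** literal of `Pl2B_860`. -/
theorem flatFrame : FlatFrame := by
  refine ⟨10 ^ 12, by norm_num, fun S T z0 ρ r hρ hr hS hT => ?_⟩
  have hw0 : 0 < S.w 0 := (hr.trans_le hS.r0_le).trans_le hS.a_le0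
  have hE := expP_spec hS.isQ hw0.ne' z0 ρ T
  have H : Sit S T z0 ρ r (expP S z0 ρ T).1 (expP S z0 ρ T).2.1 (expP S z0 ρ T).2.2 :=
    ⟨hρ, hr, hS, hT, hE⟩
  exact ⟨fF S.e (al S (expP S z0 ρ T).1) (be S (expP S z0 ρ T).1), fun Y haY hkY =>
    ⟨H.fh haY hkY (by norm_num), fun hYw => H.fl haY hkY hYw le_rfl⟩⟩

end Crest.Agent.R136.Ffr262
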