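import Crest.Agent.R136.Hul_565
import Crest.Agent.R136.Pl2B_860

/-!
# R136 (S0187), PLAN 2, leaf (B2): `WideHull` (helper565)

* `wideHull : WideHull`.
* `two1_small` : if the first system is curved (`TypP.big`), the thickness is small against all
  other lengths, and `r ≤ ρ`.
-/

set_option autoImplicit false
set_option linter.unusedVariables false
set_option linter.unusedSectionVars false

namespace Crest.Agent.R136.Hul565

open Finset
open Crest.Agent.R136.Sh605 Crest.Agent.R136.Fl808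
open Crest.Agent.R136.K4 (Plk4)
open Crest.Agent.R136.Phc248
open Crest.Agent.R136.Pl2W102 (Near Ex2 Two1)

/-- constants -/
theorem base_le {W m s : ℝ} (hW : 1 ≤ W) (hm : 1 ≤ m) (hs : 0 ≤ s) :
    (4 * 10 ^ 6 * m ^ 2 * W) ^ s ≤ (2 * W * m) ^ (24 * s) := by
  have hW0 : 0 < W := by linarith
  have hm0 : 0 < m := by linarith
  have h1 : 1 ≤ W * m := one_le_mul_of_one_le_of_one_le hW hm
  have e1 : 4 * 10 ^ 6 * m ^ 2 * W ≤ (2 * W * m) ^ (24 : ℕ) := by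
    have h2 : m ^ 2 * W ≤ (W * m) ^ 2 := by
      have : m ^ 2 * W * 1 ≤ m ^ 2 * W * W := mul_le_mul_of_nonneg_left hW (by positivity)
      calc m ^ 2 * W = m ^ 2 * W * 1 := by ring
        _ ≤ _ := this
        _ = _ := by ring
    have h3 : (W * m) ^ 2 ≤ (W * m) ^ 24 := pow_le_pow_right₀ h1 (by norm_num)
    have h4 : (2 * W * m) ^ 24 = 2 ^ 24 * (W * m) ^ 24 := by ring
    rw [h4]
    have h5 : 0 ≤ (W * m) ^ 24 := by positivity
    calc 4 * 10 ^ 6 * m ^ 2 * W = 4 * 10 ^ 6 * (m ^ 2 * W) := by ring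
      _ ≤ 4 * 10 ^ 6 * (W * m) ^ 24 := mul_le_mul_of_nonneg_left (h2.trans h3) (by norm_num)
      _ ≤ _ := mul_le_mul_of_nonneg_right (by norm_num) h5
  calc (4 * 10 ^ 6 * m ^ 2 * W) ^ s ≤ ((2 * W * m) ^ (24 : ℕ)) ^ s :=
        Real.rpow_le_rpow (by positivity) e1 hs
    _ = _ := by
        rw [← Real.rpow_natCast, ← Real.rpow_mul (by positivity)]
        norm_num

open Classical in
/-- **(B2)** with the hypothesis `r ≤ ρ` -/
theorem wideHull_r (qm qp : Fin 3 → ℝ) (hq : ∀ k, 0 ≤ qm k ∧ qm k ≤ qp k) : ∃ C : ℝ, 0 ≤ C ∧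
    ∀ (L : ℕ → Ln4) (P : Finset ℕ) (cu cv : ℕ → ℕ) (Uf Vf : ℕ → Plk4) (W M a w1 w2 z0 ρ r : ℝ),
      Two1 qm qp L P cu cv Uf Vf W M a w1 w2 z0 ρ r → r ≤ ρ →
      ∀ (m : ℝ) (b : Ln4) (f : Fin 3 → V3) (X0 X2 : ℝ), 1 ≤ m → Ortho f → a ≤ X0 → w2 ≤ X2 →
        X0 ≤ X2 → X2 ≤ m * w1 →
        ((P.filter fun t => InB (L t) b f ![X0, m * w1, X2] z0 ρ).card : ℝ) ≤
          (2 * W * m) ^ C * M * ((X0 / a) ^ (1 + qp 0) * (X2 / w2) ^ (1 + qp 2)) := by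
  have hq0 := fun k => (hq k).1.trans (hq k).2
  have hs : 0 ≤ 10 + (qp 0 + qp 1 + qp 2) := by linarith [hq0 0, hq0 1, hq0 2]
  refine ⟨24 * (10 + (qp 0 + qp 1 + qp 2)), by linarith, ?_⟩
  intro L P cu cv Uf Vf W M a w1 w2 z0 ρ r h hr m b f X0 X2 hm hf h0 h2 h02 h21
  have hm0 : 0 < m := by linarith
  have hw1 := h.w10
  have e1 : 10 ^ 6 * (m * w1 / 10 ^ 6) = m * w1 := by ring
  have h3 := two1_hull h hq hr (K := m) (a' := a) (w1' := m * w1 / 10 ^ 6) (w2' := w2) (b := b)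
    (f := f) (X0 := X0) (X2 := X2) hm (le_mul_of_one_le_left h.a0.le hm)
    (le_mul_of_one_le_left h.a0.le hm) (by
      have : 0 ≤ m * w1 := by positivity
      linarith) (le_mul_of_one_le_left h.w20.le hm) (le_mul_of_one_le_left h.w20.le hm) h.a0 h.w20
    hf h0 h2 h02 (by rw [e1]; exact h21)
  rw [e1] at h3
  refine h3.trans ?_
  have q0 : 0 ≤ X0 / a := (div_pos (h.a0.trans_le h0) h.a0).le
  have q2 : 0 ≤ X2 / w2 := (div_pos (h.w20.trans_le h2) h.w20).le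
  have hM := h.M0
  have := base_le (W := W) (m := m) h.W1 hm hs
  gcongr

theorem wideHull : Pl2.WideHull := fun _ qm qp h => wideHull_r qm qp h.le

theorem kp_le13 {S : Plk4} {T : Ln4} {z0 ρ r : ℝ} (hr : 0 < r) (hρ : 0 ≤ ρ)
    (hS : Tlt51.Shp S z0 ρ r) (hT : Tlt51.InP T S z0 ρ) : Pl2.kp S z0 ρ T ≤ 13 * S.w 0 := by
  have h0 : 0 < S.w 0 := hr.trans_le (hS.r0_le.trans hS.a_le0)
  have hE := KapP335.expP_spec (S := S) hS.isQ h0.ne' z0 ρ T
  have N := Tl102.IsExp.nrmC (Tl102.StP.of_shN hS h0) hρ (fun z hz hz' => (hT z hz hz').1) hE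
  have := Tl102.kap_le N
  unfold Pl2.kp KapP335.kapP
  nlinarith

/-- **curved sheets are thin**: `K a ≤ kp` with `K ≥ (2W)^(k + 8)` -/
theorem two1_small {qm qp : Fin 3 → ℝ} {L : ℕ → Ln4} {P : Finset ℕ} {cu cv : ℕ → ℕ}
    {Uf Vf : ℕ → Plk4} {W M a w1 w2 z0 ρ r : ℝ}
    (h : Two1 qm qp L P cu cv Uf Vf W M a w1 w2 z0 ρ r) {t : ℕ} (ht : t ∈ P) {K k : ℝ}
    (hk : 0 ≤ k) (hK : (2 * W) ^ (k + 8) ≤ K) (hbig : K * a ≤ Pl2.kp (Uf (cu t)) z0 ρ (L t)) :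
    (2 * W) ^ k * a ≤ w2 ∧ (2 * W) ^ k * a ≤ w1 ∧ (2 * W) ^ k * a ≤ ρ ∧ r ≤ ρ := by
  have hW := h.W1
  have hW0 : 0 < W := by linarith
  have ha := h.a0
  have hU := h.shU t ht
  obtain ⟨d0, d1, d2⟩ := h.dimU t ht
  have h13 := kp_le13 h.r0 h.ρ0.le hU (h.inU t ht)
  have hX : 0 < (2 * W) ^ k := by positivity
  have hX1 : 1 ≤ (2 * W) ^ k := Real.one_le_rpow (by linarith) hk
  have e8 : (2 * W) ^ (k + 8) = (2 * W) ^ k * (256 * W ^ 8) := by
    rw [Real.rpow_add (by positivity)]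
    congr 1
    have : (2 * W) ^ (8 : ℝ) = (2 * W) ^ (8 : ℕ) := by exact_mod_cast Real.rpow_natCast (2 * W) 8
    rw [this]; ring
  have c0 : (2 * W) ^ k * a * (256 * W ^ 8) ≤ 13 * (Uf (cu t)).w 0 := by
    calc (2 * W) ^ k * a * (256 * W ^ 8) = (2 * W) ^ (k + 8) * a := by rw [e8]; ring
      _ ≤ K * a := mul_le_mul_of_nonneg_right hK ha.le
      _ ≤ _ := hbig.trans h13
  have b2 : (Uf (cu t)).w 0 ≤ W * w2 := hU.w0_le.trans d2.2
  have b1 : (Uf (cu t)).w 0 ≤ W * w1 := (hU.w0_le.trans hU.w_le).trans d1.2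
  have bρ : (Uf (cu t)).w 0 ≤ W ^ 2 * ρ := by
    refine b1.trans ?_
    calc W * w1 ≤ W * (W * ρ) := mul_le_mul_of_nonneg_left h.w1ρ hW0.le
      _ = _ := by ring
  have hWp : ∀ n : ℕ, n ≤ 8 → W ^ n ≤ W ^ 8 := fun n hn => pow_le_pow_right₀ hW hn
  have gen : ∀ (x : ℝ) (n : ℕ), n ≤ 7 → 0 < x → (Uf (cu t)).w 0 ≤ W ^ n * x →
      (2 * W) ^ k * a * W ≤ x := by
    intro x n hn hx hxx
    have s1 : (2 * W) ^ k * a * (256 * W ^ 8) ≤ 13 * (W ^ 7 * x) := by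
      refine c0.trans (mul_le_mul_of_nonneg_left (hxx.trans ?_) (by norm_num))
      exact mul_le_mul_of_nonneg_right (pow_le_pow_right₀ hW hn) hx.le
    have s2 : (2 * W) ^ k * a * W * (256 * W ^ 7) ≤ x * (256 * W ^ 7) := by
      have e : (2 * W) ^ k * a * W * (256 * W ^ 7) = (2 * W) ^ k * a * (256 * W ^ 8) := by ring
      have : 0 < W ^ 7 * x := by positivity
      rw [e]
      linarith
    exact le_of_mul_le_mul_right s2 (by positivity)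
  have g2 := gen w2 1 (by norm_num) h.w20 (by rw [pow_one]; exact b2)
  have g1 := gen w1 1 (by norm_num) h.w10 (by rw [pow_one]; exact b1)
  have gρ := gen ρ 2 (by norm_num) h.ρ0 bρ
  have hdrop : (2 * W) ^ k * a ≤ (2 * W) ^ k * a * W :=
    le_mul_of_one_le_right (by positivity) hW
  refine ⟨hdrop.trans g2, hdrop.trans g1, hdrop.trans gρ, ?_⟩
  have hr := two1_r h ⟨t, ht⟩
  calc r ≤ W * a := hr
    _ ≤ (2 * W) ^ k * a * W := by
        have : 1 * (a * W) ≤ (2 * W) ^ k * (a * W) :=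
          mul_le_mul_of_nonneg_right hX1 (by positivity)
        linarith
    _ ≤ ρ := gρ

end Crest.Agent.R136.Hul565
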