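import Crest.Agent.R136.Pl7d_186
import Crest.Agent.R136.Pl2B_860

/-!
# R136 (S0187), PLAN 2, leaf (B3): tubes in the classes (helper186)

`tube_two` : the tube bound of `TubeL` for 102's `Two1` (with `r ≤ ρ`), from `DMx.wide`.
-/

set_option autoImplicit false
set_option linter.unusedVariables false
set_option linter.unusedSectionVars false

namespace Crest.Agent.R136.Pl7186

open Finset
open Crest.Agent.R136.Sh605
open Crest.Agent.R136.K4 (Plk4)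
open Crest.Agent.R136.Tlt51 (Shp InP)
open Crest.Agent.R136.Phc248
open Crest.Agent.R136.Pl2W102 (Near Ex2 Two1)
open Crest.Agent.R136.Pl2 (FH)

section

variable {qm qp : Fin 3 → ℝ} {L : ℕ → Ln4} {P : Finset ℕ} {cu cv : ℕ → ℕ} {Uf Vf : ℕ → Plk4}
  {W M a w1 w2 z0 ρ r : ℝ}

theorem Two1.dmx (h : Two1 qm qp L P cu cv Uf Vf W M a w1 w2 z0 ρ r) :
    DMx P L z0 ρ r (fun _ x _ => x ≤ ρ) (fun a' x y => W * M * phC qm qp a w1 w2 a' x y) := by
  intro e c w Q α hS hw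
  exact h.dmax ⟨0, e, c, w, Q, α⟩ hS hw

/-- D-max for sheets with `w 1 ≤ K ρ` -/
theorem Two1.wide (h : Two1 qm qp L P cu cv Uf Vf W M a w1 w2 z0 ρ r)
    (hq : ∀ k, 0 ≤ qm k ∧ qm k ≤ qp k) (hrρ : r ≤ ρ) {K : ℝ} (hK : 1 ≤ K) :
    DMx P L z0 ρ r (fun _ x _ => x ≤ K * ρ)
      (fun a' x y => ((35 * K) ^ 6 * (17 * K) ^ (1 + qp 0) * (W * M)) *
        phC qm qp a w1 w2 a' x y) :=
  DMx.wide (fun k => (hq k).1) (fun k => (hq k).2)
    (mul_nonneg (by linarith [h.W1]) h.M0.le) h.ρ0 h.r0 hrρ h.a0 h.w10 h.w20 (Two1.dmx h) hK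

/-- the sheet of a class contains the whole class -/
theorem sheet_count {ι : Type*} {P : Finset ι} {L : ι → Ln4} {Rg : ℝ → ℝ → ℝ → Prop}
    {cap : ℝ → ℝ → ℝ → ℝ} (hd : DMx P L z0 ρ r Rg cap) {S : Plk4} (hS : Shp S z0 ρ r)
    (hR : Rg S.a (S.w 1) (S.w 2)) (F : Finset ι) (hF : F ⊆ P) (hb : ∀ t ∈ F, InP (L t) S z0 ρ) :
    (F.card : ℝ) ≤ cap S.a (S.w 1) (S.w 2) := by
  classical
  refine le_trans ?_ (hd _ _ _ _ _ hS hR)
  have : F ⊆ P.filter fun t => InSheet (L t) S.e S.c S.w S.q S.a z0 ρ := by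
    intro t ht
    rw [mem_filter]
    exact ⟨hF ht, hb t ht⟩
  exact_mod_cast card_le_card this

set_option maxHeartbeats 1000000 in
open Classical in
/-- **(B3)** -/
theorem tube_two (h : Two1 qm qp L P cu cv Uf Vf W M a w1 w2 z0 ρ r)
    (hq : ∀ k, 0 ≤ qm k ∧ qm k ≤ qp k) (hrρ : r ≤ ρ) {t : ℕ} (ht : t ∈ P) {m δ Y : ℝ}
    {f : Fin 3 → V3} (hm : 1 ≤ m) (hf : FH m Y (Uf (cu t)) f z0 ρ) (hY : Y ≤ m * w2)
    (hδ : w2 ≤ m * (δ * w1)) (hδm : δ ≤ m) :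
    ((P.filter fun s => cu s = cu t ∧ ∀ z, z0 ≤ z → z ≤ z0 + ρ →
        |dt (f 1) ((L s).pos z - (L t).pos z)| ≤ δ * w1).card : ℝ) ≤
          (2 * W * m) ^ (49 + 6 * qp 0 + 5 * qp 1 + qp 2) * M * δ ^ (1 + qm 1) := by
  have hW := h.W1
  have hW0 : 0 < W := by linarith
  have hm0 : 0 < m := by linarith
  have hM := h.M0
  have ha := h.a0
  have hw1 := h.w10
  have hw2 := h.w20
  have hρ := h.ρ0
  have q0 := hq 0
  have q1 := hq 1
  have q2 := hq 2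
  have hqm : ∀ k, 0 ≤ qm k := fun k => (hq k).1
  have hqmp : ∀ k, qm k ≤ qp k := fun k => (hq k).2
  have hqp : ∀ k, 0 ≤ qp k := fun k => (hq k).1.trans (hq k).2
  have hδ0 : 0 < δ := by
    have h1 : 0 < m * (δ * w1) := hw2.trans_le hδ
    have h2 : 0 < δ * w1 := (pos_iff_pos_of_mul_pos h1).1 hm0
    exact (pos_iff_pos_of_mul_pos h2).2 hw1
  obtain ⟨S, hSd⟩ : ∃ S, S = Uf (cu t) := ⟨_, rfl⟩
  rw [← hSd] at hf
  have hS : Shp S z0 ρ r := by rw [hSd]; exact h.shU t ht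
  have hT : InP (L t) S z0 ρ := by rw [hSd]; exact h.inU t ht
  obtain ⟨⟨d0, d0'⟩, ⟨d1, d1'⟩, ⟨d2, d2'⟩⟩ := h.dimU t ht
  rw [← hSd] at d0 d0' d1 d1' d2 d2'
  have sa : 0 < S.a := h.r0.trans_le hS.r0_le
  have s0 : 0 < S.w 0 := sa.trans_le hS.a_le0
  have s2 : 0 < S.w 2 := s0.trans_le hS.w0_le
  have s1 : 0 < S.w 1 := s2.trans_le hS.w_le
  set F := P.filter fun s => cu s = cu t ∧ ∀ z, z0 ≤ z → z ≤ z0 + ρ →
        |dt (f 1) ((L s).pos z - (L t).pos z)| ≤ δ * w1 with hF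
  have hFP : F ⊆ P := filter_subset _ _
  have hFS : ∀ s ∈ F, InP (L s) S z0 ρ := by
    intro s hs
    have h1 := mem_filter.1 hs
    rw [hSd, ← h1.2.1]; exact h.inU s h1.1
  -- the wide direction of `S`
  obtain ⟨x, hx⟩ : ∃ x, x = 3 * m ^ 4 * W * (δ * w1) := ⟨_, rfl⟩
  have hδw : 0 < δ * w1 := by positivity
  have m1 : (1 : ℝ) ≤ m ^ 3 := one_le_pow₀ hm
  have m4 : (1 : ℝ) ≤ m ^ 4 := one_le_pow₀ hm
  have hSx : S.w 2 ≤ x := by
    have h1 : S.w 2 ≤ W * (m * (δ * w1)) := d2'.trans (mul_le_mul_of_nonneg_left hδ hW0.le)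
    refine h1.trans ?_
    rw [hx]
    have h2 : m ≤ m ^ 4 := by
      calc m = m ^ 1 := (pow_one m).symm
        _ ≤ m ^ 4 := pow_le_pow_right₀ hm (by norm_num)
    have h3 : W * (m * (δ * w1)) ≤ W * (m ^ 4 * (δ * w1)) := by gcongr
    have h4 : 0 ≤ W * (m ^ 4 * (δ * w1)) := by positivity
    nlinarith
  have hwide : ∀ s ∈ F, ∀ z, z0 ≤ z → z ≤ z0 + ρ →
      |dt (S.e 1) ((L s).pos z - (L t).pos z)| ≤ x := by
    intro s hs z hz hz'
    have h1 := (mem_filter.1 hs).2.2 z hz hz'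
    have h2 := hf.box (L s) (L t) (hFS s hs) hT z hz hz'
    set Δ := (L s).pos z - (L t).pos z with hΔ
    have b0 : |dt (f 0) Δ| ≤ m * Y := h2 0
    have b2 : |dt (f 2) Δ| ≤ m * S.w 2 := h2 2
    have e1 := Crest.Agent.R136.Fl808.dt_expand hf.ortho (S.e 1) Δ
    have c0 : |dt (S.e 1) (f 0)| ≤ m := by
      rw [dt_comm]
      have h3 : |dt (f 0) (S.e 1)| * S.w 1 ≤ m * S.w 1 :=
        hf.e01.trans (mul_le_mul_of_nonneg_left hS.w_le hm0.le)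
      exact le_of_mul_le_mul_right h3 s1
    have c2 : |dt (S.e 1) (f 2)| ≤ m := by
      rw [dt_comm]
      have h3 : |dt (f 2) (S.e 1)| * S.w 1 ≤ m * S.w 1 :=
        hf.e21.trans (mul_le_mul_of_nonneg_left hS.w_le hm0.le)
      exact le_of_mul_le_mul_right h3 s1
    have c1 : |dt (S.e 1) (f 1)| ≤ 1 := by
      rw [dt_comm]
      exact Crest.Agent.R136.Fl808.abs_dt_le_one hS.ortho hf.ortho 1 1
    rw [e1]
    refine (abs_add_le _ _).trans ((add_le_add (abs_add_le _ _) le_rfl).trans ?_)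
    rw [abs_mul, abs_mul, abs_mul]
    have g0 : |dt (S.e 1) (f 0)| * |dt (f 0) Δ| ≤ m * (m * Y) :=
      mul_le_mul c0 b0 (abs_nonneg _) hm0.le
    have g1 : |dt (S.e 1) (f 1)| * |dt (f 1) Δ| ≤ 1 * (δ * w1) :=
      mul_le_mul c1 h1 (abs_nonneg _) zero_le_one
    have g2 : |dt (S.e 1) (f 2)| * |dt (f 2) Δ| ≤ m * (m * S.w 2) :=
      mul_le_mul c2 b2 (abs_nonneg _) hm0.le
    have k0 : m * (m * Y) ≤ m ^ 4 * W * (δ * w1) := by
      calc m * (m * Y) ≤ m * (m * (m * (m * (δ * w1)))) := by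
            have : Y ≤ m * (m * (δ * w1)) := hY.trans (mul_le_mul_of_nonneg_left hδ hm0.le)
            gcongr
        _ = m ^ 4 * 1 * (δ * w1) := by ring
        _ ≤ m ^ 4 * W * (δ * w1) := by gcongr
    have k1 : 1 * (δ * w1) ≤ m ^ 4 * W * (δ * w1) := by
      have : 1 * 1 ≤ m ^ 4 * W := mul_le_mul m4 hW zero_le_one (by positivity)
      rw [one_mul] at this
      gcongr
    have k2 : m * (m * S.w 2) ≤ m ^ 4 * W * (δ * w1) := by
      have h4 : S.w 2 ≤ W * (m * (δ * w1)) := d2'.trans (mul_le_mul_of_nonneg_left hδ hW0.le)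
      calc m * (m * S.w 2) ≤ m * (m * (W * (m * (δ * w1)))) := by gcongr
        _ = m ^ 3 * (W * (δ * w1)) := by ring
        _ ≤ m ^ 4 * (W * (δ * w1)) := by
            have : m ^ 3 ≤ m ^ 4 := pow_le_pow_right₀ hm (by norm_num)
            gcongr
        _ = _ := by ring
    rw [hx]
    linarith
  -- D-max
  have hWW : 1 ≤ W ^ 2 := one_le_pow₀ hW
  have hd := Two1.wide h hq hrρ hWW
  have hS1ρ : S.w 1 ≤ W ^ 2 * ρ := by
    calc S.w 1 ≤ W * w1 := d1'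
      _ ≤ W * (W * ρ) := mul_le_mul_of_nonneg_left h.w1ρ hW0.le
      _ = _ := by ring
  set Dw := (35 * W ^ 2) ^ 6 * (17 * W ^ 2) ^ (1 + qp 0) * (W * M) with hDw
  have hDw0 : 0 ≤ Dw := by rw [hDw]; positivity
  have hx0 : 0 < x := s2.trans_le hSx
  have hcount : (F.card : ℝ) ≤ Dw * phC qm qp a w1 w2 (W * a) (2 * x) (W * w2) := by
    rcases le_total (2 * x) (S.w 1) with hc | hc
    · have h1 := tube_count hd hS hT hc hSx sa
        (show x ≤ W ^ 2 * ρ by linarith) F hFP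
        (fun s hs => ⟨hFS s hs, fun z hz hz' => hwide s hs z hz hz'⟩)
      refine h1.trans (mul_le_mul_of_nonneg_left ?_ hDw0)
      exact phC_mono hqm hqp ha.le hw1.le hw2.le sa.le hx0.le s2.le d0' (by linarith) d2'
    · have h1 := sheet_count hd hS hS1ρ F hFP hFS
      refine h1.trans (mul_le_mul_of_nonneg_left ?_ hDw0)
      exact phC_mono hqm hqp ha.le hw1.le hw2.le sa.le s1.le s2.le d0' hc d2'
  -- numbers
  have hphi : phC qm qp a w1 w2 (W * a) (2 * x) (W * w2) ≤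
      W ^ (1 + qp 0) * (6 * m ^ 5 * W) ^ (1 + qp 1) * W ^ (1 + qp 2) * δ ^ (1 + qm 1) := by
    have e1 : 2 * x = (6 * m ^ 5 * W) * (δ / m * w1) := by
      rw [hx]; field_simp; ring
    have c6 : 1 ≤ 6 * m ^ 5 * W := by
      have h1 : (1 : ℝ) ≤ m ^ 5 := one_le_pow₀ hm
      have h2 : 1 * 1 ≤ m ^ 5 * W := mul_le_mul h1 hW zero_le_one (by positivity)
      nlinarith
    rw [e1]
    refine (phC_mul hqm hqmp ha.le hw1.le hw2.le ha.le (by positivity) hw2.le hW c6 hW).trans ?_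
    refine mul_le_mul_of_nonneg_left ?_ (by positivity)
    unfold phC
    rw [div_self ha.ne', div_self hw2.ne', mul_div_assoc, div_self hw1.ne', mul_one, ph_one,
      ph_one, one_mul, mul_one]
    have h3 : δ / m ≤ 1 := (div_le_one hm0).2 hδm
    rw [ph_le_one (hqm 1) (hqmp 1) (by positivity) h3]
    refine Real.rpow_le_rpow (by positivity) ?_ (by linarith [hqm 1])
    rw [div_le_iff₀ hm0]; nlinarith
  refine (hcount.trans (mul_le_mul_of_nonneg_left hphi hDw0)).trans ?_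
  obtain ⟨B, hB⟩ : ∃ B, B = 2 * W * m := ⟨_, rfl⟩
  have hB2 : 2 ≤ B := by rw [hB]; nlinarith
  have hB1 : 1 ≤ B := by linarith
  have hB0 : 0 < B := by linarith
  have hWB : W ≤ B := by rw [hB]; nlinarith
  have hW2B : W ^ 2 ≤ B ^ 2 := pow_le_pow_left₀ hW0.le hWB 2
  have r1 : 35 * W ^ 2 ≤ B ^ 6 := by
    have h1 : 2 * W ≤ B := by rw [hB]; nlinarith
    have h2 : (2 * W) ^ 6 ≤ B ^ 6 := pow_le_pow_left₀ (by positivity) h1 6
    have h3 : W ^ 2 ≤ W ^ 6 := pow_le_pow_right₀ hW (by norm_num)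
    have h4 : (2 * W) ^ 6 = 64 * W ^ 6 := by ring
    have h5 : 0 < W ^ 2 := by positivity
    linarith
  have r2 : 17 * W ^ 2 ≤ B ^ 5 := by
    have h1 : 2 * W ≤ B := by rw [hB]; nlinarith
    have h2 : (2 * W) ^ 5 ≤ B ^ 5 := pow_le_pow_left₀ (by positivity) h1 5
    have h3 : W ^ 2 ≤ W ^ 5 := pow_le_pow_right₀ hW (by norm_num)
    have h4 : (2 * W) ^ 5 = 32 * W ^ 5 := by ring
    have h5 : 0 < W ^ 2 := by positivity
    linarith
  have r3 : 6 * m ^ 5 * W ≤ B ^ 5 := by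
    have h3 : W ≤ W ^ 5 := by
      calc W = W ^ 1 := (pow_one W).symm
        _ ≤ W ^ 5 := pow_le_pow_right₀ hW (by norm_num)
    have h4 : B ^ 5 = 32 * (m ^ 5 * W ^ 5) := by rw [hB]; ring
    have h5 : m ^ 5 * W ≤ m ^ 5 * W ^ 5 := by gcongr
    have h6 : 0 < m ^ 5 * W := by positivity
    rw [h4]; linarith
  have t1 : (35 * W ^ 2) ^ 6 ≤ B ^ (36 : ℝ) := by
    have h1 : (35 * W ^ 2) ^ 6 ≤ (B ^ 6) ^ 6 := pow_le_pow_left₀ (by positivity) r1 6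
    have h2 : (B ^ (6 : ℕ)) ^ (6 : ℕ) = B ^ ((36 : ℕ) : ℝ) := by
      rw [Real.rpow_natCast, ← pow_mul]
    have h3 : ((36 : ℕ) : ℝ) = (36 : ℝ) := by norm_num
    rw [h3] at h2
    exact h1.trans h2.le
  have powr : ∀ (y : ℝ) (n : ℕ), (B ^ n) ^ y = B ^ ((n : ℝ) * y) := by
    intro y n
    rw [← Real.rpow_natCast, ← Real.rpow_mul hB0.le]
  have t2 : (17 * W ^ 2) ^ (1 + qp 0) ≤ B ^ (5 * (1 + qp 0)) := by
    have h1 := Real.rpow_le_rpow (by positivity) r2 (by linarith [hqp 0] : 0 ≤ 1 + qp 0)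
    rw [powr] at h1
    exact_mod_cast h1
  have t3 : (6 * m ^ 5 * W) ^ (1 + qp 1) ≤ B ^ (5 * (1 + qp 1)) := by
    have h1 := Real.rpow_le_rpow (by positivity) r3 (by linarith [hqp 1] : 0 ≤ 1 + qp 1)
    rw [powr] at h1
    exact_mod_cast h1
  have t4 : W ^ (1 + qp 0) ≤ B ^ (1 + qp 0) := Real.rpow_le_rpow hW0.le hWB (by linarith [hqp 0])
  have t5 : W ^ (1 + qp 2) ≤ B ^ (1 + qp 2) := Real.rpow_le_rpow hW0.le hWB (by linarith [hqp 2])
  have t6 : W ≤ B ^ (1 : ℝ) := by rw [Real.rpow_one]; exact hWB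
  have hδq : 0 ≤ δ ^ (1 + qm 1) := by positivity
  rw [← hB]
  calc Dw * (W ^ (1 + qp 0) * (6 * m ^ 5 * W) ^ (1 + qp 1) * W ^ (1 + qp 2) * δ ^ (1 + qm 1)) =
      ((35 * W ^ 2) ^ 6 * (17 * W ^ 2) ^ (1 + qp 0) * W * W ^ (1 + qp 0) *
        (6 * m ^ 5 * W) ^ (1 + qp 1) * W ^ (1 + qp 2)) * (M * δ ^ (1 + qm 1)) := by
        rw [hDw]; ring
    _ ≤ (B ^ (36 : ℝ) * B ^ (5 * (1 + qp 0)) * B ^ (1 : ℝ) * B ^ (1 + qp 0) *
        B ^ (5 * (1 + qp 1)) * B ^ (1 + qp 2)) * (M * δ ^ (1 + qm 1)) := by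
        refine mul_le_mul_of_nonneg_right ?_ (by positivity)
        gcongr
    _ = B ^ (49 + 6 * qp 0 + 5 * qp 1 + qp 2) * M * δ ^ (1 + qm 1) := by
        rw [← Real.rpow_add hB0, ← Real.rpow_add hB0, ← Real.rpow_add hB0, ← Real.rpow_add hB0,
          ← Real.rpow_add hB0, mul_assoc]
        congr 2
        ring

end

/-- **(B3)** = `TubeL` of `Pl2B_860` -/
theorem tubeL : Crest.Agent.R136.Pl2.TubeL := by
  intro η qm qp hE
  refine ⟨49 + 6 * qp 0 + 5 * qp 1 + qp 2, ?_, ?_⟩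
  · have h0 := hE.le 0
    have h1 := hE.le 1
    have h2 := hE.le 2
    linarith [h0.1, h0.2, h1.1, h1.2, h2.1, h2.2]
  · intro L P cu cv Uf Vf W M a w1 w2 z0 ρ r h hrρ t ht m δ Y f hm hf hY hδ hδm
    exact tube_two h hE.le hrρ ht hm hf hY hδ hδm

end Crest.Agent.R136.Pl7186
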