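import Crest.Agent.R136.Btr_879
import Crest.Agent.R136.Cbc_372
import Crest.Agent.R136.Ffr2_262
import Crest.Agent.R136.Pl7e_186
import Crest.Agent.R136.HulW_565

/-!
# R136 (S0187), PLAN 2: the base tilt theorem from the share leaf alone (helper879)
-/

set_option autoImplicit false

namespace Crest.Agent.R136.Btr879

open Crest.Agent.R136.Pl2

/-- `BTR Al1` from `ShareL` -/
theorem btr_of1 (hS : ShareL) : BTR Al1 :=
  btr_of Cbc372.tiltCore Ffr262.flatFrame Hul565.wideHull Pl7186.tubeL hS

end Crest.Agent.R136.Btr879
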