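import Crest.Agent.R136.Pl2B_860

/-!
# R136 (S0187), PLAN 2, leaf (B6a) : `CloseOfDy` (helper248)

From small tilts of the hull frames `f`, `g` of two sheets `S`, `S'` with a common line `T` to the
angle of the long axes and the closeness of `S'` to `S`.
-/

set_option autoImplicit false
set_option linter.unusedVariables false

namespace Crest.Agent.R136.Cod248

open Crest.Agent.R136.Sh605 Crest.Agent.R136.Fl808
open Crest.Agent.R136.K4 (Plk4)
open Crest.Agent.R136.Tlt51 (Shp InP)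
open Crest.Agent.R136.Deep51 (CloseC)
open Crest.Agent.R136.Tl102 (angC)
open Crest.Agent.R136.Pl2W102 (Near)
open Crest.Agent.R136.Pl2

/-- off-diagonal row and column sums agree -/
theorem off {f g : Fin 3 → V3} (hf : Ortho f) (hg : Ortho g) :
    dt (g 1) (f 0) ^ 2 + dt (g 1) (f 2) ^ 2 = dt (g 0) (f 1) ^ 2 + dt (g 2) (f 1) ^ 2 := by
  have h1 := dt_expand hf (g 1) (g 1)
  have h2 := dt_expand hg (f 1) (f 1)
  have u1 : dt (g 1) (g 1) = 1 := by have := hg 1 1; simpa using this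
  have u2 : dt (f 1) (f 1) = 1 := by have := hf 1 1; simpa using this
  rw [u1, dt_comm (f 0), dt_comm (f 1) (g 1), dt_comm (f 2) (g 1)] at h1
  rw [u2, dt_comm (f 1) (g 0), dt_comm (f 1) (g 1), dt_comm (f 1) (g 2)] at h2
  nlinarith

theorem off_abs {f g : Fin 3 → V3} (hf : Ortho f) (hg : Ortho g) {s : ℝ}
    (h0 : |dt (g 0) (f 1)| ≤ s) (h2 : |dt (g 2) (f 1)| ≤ s) :
    |dt (g 1) (f 0)| ≤ 2 * s ∧ |dt (g 1) (f 2)| ≤ 2 * s := by
  have s0 : 0 ≤ s := (abs_nonneg _).trans h0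
  have h := off hf hg
  have a0 := sq_abs (dt (g 0) (f 1))
  have a2 := sq_abs (dt (g 2) (f 1))
  have b0 := sq_abs (dt (g 1) (f 0))
  have b2 := sq_abs (dt (g 1) (f 2))
  have c0 := abs_nonneg (dt (g 0) (f 1))
  have c2 := abs_nonneg (dt (g 2) (f 1))
  have m0 : |dt (g 0) (f 1)| ^ 2 ≤ s ^ 2 := pow_le_pow_left₀ c0 h0 2
  have m2 : |dt (g 2) (f 1)| ^ 2 ≤ s ^ 2 := pow_le_pow_left₀ c2 h2 2
  constructor
  · refine abs_le_of_sq_le_sq ?_ (by linarith)
    nlinarith [sq_nonneg (dt (g 1) (f 2))]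
  · refine abs_le_of_sq_le_sq ?_ (by linarith)
    nlinarith [sq_nonneg (dt (g 1) (f 0))]

/-- `⟨x, y⟩` through an orthonormal frame -/
theorem dt3 {f : Fin 3 → V3} (hf : Ortho f) (x y : V3) :
    |dt x y| ≤ |dt x (f 0)| * |dt (f 0) y| + |dt x (f 1)| * |dt (f 1) y| +
      |dt x (f 2)| * |dt (f 2) y| := by
  rw [dt_expand hf x y, ← abs_mul, ← abs_mul, ← abs_mul]
  exact abs_add_three _ _ _

theorem ang_core {S S' : Plk4} {f g : Fin 3 → V3} (hS : Ortho S.e) (hS' : Ortho S'.e)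
    (hf : Ortho f) (hg : Ortho g) {σ τ : ℝ}
    (f01 : |dt (f 0) (S.e 1)| ≤ σ) (f10 : |dt (f 1) (S.e 0)| ≤ σ) (f12 : |dt (f 1) (S.e 2)| ≤ σ)
    (f21 : |dt (f 2) (S.e 1)| ≤ σ)
    (g01 : |dt (g 0) (S'.e 1)| ≤ σ) (g10 : |dt (g 1) (S'.e 0)| ≤ σ)
    (g12 : |dt (g 1) (S'.e 2)| ≤ σ) (g21 : |dt (g 2) (S'.e 1)| ≤ σ)
    (h01 : |dt (g 0) (f 1)| ≤ τ) (h21 : |dt (g 2) (f 1)| ≤ τ) :
    angC S S' ≤ 3 * σ + 4 * τ := by
  have s0 : 0 ≤ σ := (abs_nonneg _).trans f01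
  have t0 : 0 ≤ τ := (abs_nonneg _).trans h01
  obtain ⟨h10, h12⟩ := off_abs hf hg h01 h21
  have key : ∀ {e e' : Fin 3 → V3} {u v : Fin 3 → V3}, Ortho e → Ortho e' → Ortho u → Ortho v →
      (∀ k, k = 0 ∨ k = 2 → |dt (u k) (e 1)| ≤ σ) → (∀ k, k = 0 ∨ k = 2 → |dt (v 1) (e' k)| ≤ σ) →
      (∀ k, k = 0 ∨ k = 2 → |dt (u 1) (v k)| ≤ 2 * τ) → ∀ k, k = 0 ∨ k = 2 →
      |dt (e 1) (e' k)| ≤ 3 * σ + 4 * τ := by
    intro e e' u v he he' hu hv c1 c2 c3 k hk
    have x1 := dt3 hu (e 1) (e' k)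
    have x2 := dt3 hv (u 1) (e' k)
    have y0 := abs_dt_le_one he' hu 0 k
    have y2 := abs_dt_le_one he' hu 2 k
    have y1 := abs_dt_le_one he hu 1 1
    have z0 := abs_dt_le_one he' hv 0 k
    have z2 := abs_dt_le_one he' hv 2 k
    have z1 := abs_dt_le_one hv hu 1 1
    have d0 := c1 0 (Or.inl rfl)
    have d2 := c1 2 (Or.inr rfl)
    have e0 := c3 0 (Or.inl rfl)
    have e2 := c3 2 (Or.inr rfl)
    have e1 := c2 k hk
    rw [dt_comm (e 1) (u 0), dt_comm (e 1) (u 1), dt_comm (e 1) (u 2)] at x1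
    have m1 : |dt (u 0) (e 1)| * |dt (u 0) (e' k)| ≤ σ * 1 :=
      mul_le_mul d0 y0 (abs_nonneg _) s0
    have m2 : |dt (u 2) (e 1)| * |dt (u 2) (e' k)| ≤ σ * 1 :=
      mul_le_mul d2 y2 (abs_nonneg _) s0
    have m3 : |dt (u 1) (e 1)| * |dt (u 1) (e' k)| ≤ 1 * |dt (u 1) (e' k)| :=
      mul_le_mul_of_nonneg_right y1 (abs_nonneg _)
    have n1 : |dt (u 1) (v 0)| * |dt (v 0) (e' k)| ≤ 2 * τ * 1 :=
      mul_le_mul e0 z0 (abs_nonneg _) (by linarith)
    have n2 : |dt (u 1) (v 2)| * |dt (v 2) (e' k)| ≤ 2 * τ * 1 :=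
      mul_le_mul e2 z2 (abs_nonneg _) (by linarith)
    have n3 : |dt (u 1) (v 1)| * |dt (v 1) (e' k)| ≤ 1 * σ :=
      mul_le_mul z1 e1 (abs_nonneg _) zero_le_one
    linarith
  have k1 := key hS hS' hf hg (by rintro k (rfl | rfl); exacts [f01, f21])
    (by rintro k (rfl | rfl); exacts [g10, g12])
    (by
      rintro k (rfl | rfl)
      · rw [dt_comm]; linarith
      · rw [dt_comm]; linarith)
  have k2 := key hS' hS hg hf (by rintro k (rfl | rfl); exacts [g01, g21])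
    (by rintro k (rfl | rfl); exacts [f10, f12])
    (by rintro k (rfl | rfl); exacts [h10, h12])
  unfold angC
  refine max_le (max_le (k1 0 (Or.inl rfl)) (k1 2 (Or.inr rfl))) (max_le ?_ ?_)
  · rw [dt_comm]; exact k2 0 (Or.inl rfl)
  · rw [dt_comm]; exact k2 2 (Or.inr rfl)

/-- coordinates of a point in the frame `f`, given its coordinates in the frame `g` -/
theorem tr_le {f g : Fin 3 → V3} (hg : Ortho g) (y : V3) (i : Fin 3) {y0 y1 y2 c0 c1 c2 : ℝ}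
    (h0 : |dt (g 0) y| ≤ y0) (h1 : |dt (g 1) y| ≤ y1) (h2 : |dt (g 2) y| ≤ y2)
    (k0 : |dt (g 0) (f i)| * y0 ≤ c0) (k1 : |dt (g 1) (f i)| * y1 ≤ c1)
    (k2 : |dt (g 2) (f i)| * y2 ≤ c2) : |dt (f i) y| ≤ c0 + c1 + c2 := by
  have h := dt3 hg (f i) y
  rw [dt_comm (f i) (g 0), dt_comm (f i) (g 1), dt_comm (f i) (g 2)] at h
  have e0 := mul_le_mul_of_nonneg_left h0 (abs_nonneg (dt (g 0) (f i)))
  have e1 := mul_le_mul_of_nonneg_left h1 (abs_nonneg (dt (g 1) (f i)))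
  have e2 := mul_le_mul_of_nonneg_left h2 (abs_nonneg (dt (g 2) (f i)))
  linarith

/-- the constants at the end -/
theorem pow_end {W N C1 : ℝ} (hW : 1 ≤ W) (hN : 1 ≤ N) (hC : 0 ≤ C1) :
    32 * ((2 * W) ^ C1) ^ 5 * W ^ 4 * N ^ 2 ≤ (2 * W * N) ^ (5 * C1 + 12) := by
  have w0 : 0 < 2 * W := by linarith
  have n0 : 0 < N := by linarith
  rw [Real.mul_rpow w0.le n0.le, Real.rpow_add w0]
  have e1 : ((2 * W) ^ C1) ^ 5 = (2 * W) ^ (5 * C1) := by
    rw [← Real.rpow_natCast ((2 * W) ^ C1) 5, ← Real.rpow_mul w0.le]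
    congr 1; push_cast; ring
  have e2 : (2 * W) ^ (12:ℝ) = 4096 * W ^ 12 := by
    rw [show (12:ℝ) = ((12:ℕ):ℝ) by norm_num, Real.rpow_natCast]
    ring
  have e3 : N ^ 2 ≤ N ^ (5 * C1 + 12) := by
    rw [← Real.rpow_natCast N 2]
    exact Real.rpow_le_rpow_of_exponent_le hN (by push_cast; linarith)
  have e4 : W ^ 4 ≤ W ^ 12 := pow_le_pow_right₀ hW (by norm_num)
  have e5 : 0 ≤ (2 * W) ^ (5 * C1) := by positivity
  rw [e1, e2]
  have w4 : 0 ≤ W ^ 4 := by positivity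
  calc 32 * (2 * W) ^ (5 * C1) * W ^ 4 * N ^ 2 = (2 * W) ^ (5 * C1) * (32 * W ^ 4) * N ^ 2 := by
        ring
    _ ≤ (2 * W) ^ (5 * C1) * (4096 * W ^ 12) * N ^ (5 * C1 + 12) := by
        refine mul_le_mul (mul_le_mul_of_nonneg_left (by linarith) e5) e3 (by positivity)
          (by positivity)

/-- **(B6a)** -/
theorem closeOfDy : CloseOfDy := by
  intro C1 hC1
  refine ⟨5 * C1 + 12, by linarith, ?_⟩
  intro S S' T f g W Y w1 w2 w1' w2' z0 ρ r j k' hW hρ hr hw1 hw2 hS hS' hT hT' n1 n2 n1' n2'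
    hSY hSY' hY2 h21 g1 g1' g2 g2' FS LS FS' D
  have hB : 1 ≤ (2 * W) ^ C1 := Real.one_le_rpow (by linarith) hC1
  set B := (2 * W) ^ C1 with hBd
  have hΛ : (1:ℝ) ≤ 2 ^ j := one_le_pow₀ one_le_two
  have hE : (1:ℝ) ≤ 2 ^ k' := one_le_pow₀ one_le_two
  set Λ : ℝ := 2 ^ j with hΛd
  set E : ℝ := 2 ^ k' with hEd
  have hN : 1 ≤ Λ * E := one_le_mul_of_one_le_of_one_le hΛ hE
  have hend := pow_end hW hN hC1
  rw [← hBd] at hend
  set N := Λ * E with hNd
  have hΛN : Λ ≤ N := le_mul_of_one_le_right (by linarith) hE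
  have hEN : E ≤ N := le_mul_of_one_le_left (by linarith) hΛ
  have W0 : 0 < W := by linarith
  have B0 : 0 < B := by linarith
  have N0 : 0 < N := by linarith
  have Λ0 : 0 < Λ := by linarith
  have E0 : 0 < E := by linarith
  have a0 : 0 < S.a := hr.trans_le hS.r0_le
  have a0' : 0 < S'.a := hr.trans_le hS'.r0_le
  have Y0 : 0 < Y := a0.trans_le hSY
  have w20' : 0 < w2' := hw2.trans_le g2
  have w10' : 0 < w1' := hw1.trans_le g1
  have s20 : 0 < S.w 2 := a0.trans_le hS.a_le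
  have s10 : 0 < S.w 1 := s20.trans_le hS.w_le
  have s20' : 0 < S'.w 2 := a0'.trans_le hS'.a_le
  have s10' : 0 < S'.w 1 := s20'.trans_le hS'.w_le
  have s00' : 0 < S'.w 0 := a0'.trans_le hS'.a_le0
  obtain ⟨n1a, n1b⟩ := n1
  obtain ⟨n2a, n2b⟩ := n2
  obtain ⟨n1a', n1b'⟩ := n1'
  obtain ⟨n2a', n2b'⟩ := n2'
  have hf := FS.ortho
  have hg := FS'.ortho
  have b21 := D.b21
  have b01 := D.b01
  have b12 := D.b12 hf hg Y0 hY2 h21
  have t10 := D.t10
  have t20 := D.t20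
  rw [← hΛd] at b21 b01 b12 t10 t20
  rw [← hEd] at t10 t20
  have W2 : 1 ≤ W ^ 2 := one_le_pow₀ hW
  have hWW : W ≤ W ^ 2 := by nlinarith
  have hBB : B ≤ B ^ 2 := by nlinarith
  constructor
  · -- the angle of the long axes
    have fr : ∀ {Q : Plk4} {x : ℝ}, w1 ≤ W * Q.w 1 → Q.w 2 ≤ W * w2 → 0 < Q.w 1 →
        x * Q.w 1 ≤ B * Q.w 2 → x ≤ B * W ^ 2 * w2 / w1 := by
      intro Q x h1 h2 h3 h4
      rw [le_div_iff₀ hw1]
      rcases le_total x 0 with hx | hx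
      · have : x * w1 ≤ 0 := mul_nonpos_of_nonpos_of_nonneg hx hw1.le
        have : 0 ≤ B * W ^ 2 * w2 := by positivity
        linarith
      · calc x * w1 ≤ x * (W * Q.w 1) := mul_le_mul_of_nonneg_left h1 hx
          _ = W * (x * Q.w 1) := by ring
          _ ≤ W * (B * Q.w 2) := mul_le_mul_of_nonneg_left h4 W0.le
          _ ≤ W * (B * (W * w2)) := by gcongr
          _ = _ := by ring
    have tr : ∀ {x : ℝ}, 0 ≤ x → x * w1' ≤ Λ * w2' → x ≤ Λ * B * w2 / w1 := by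
      intro x hx h
      rw [le_div_iff₀ hw1]
      calc x * w1 ≤ x * w1' := mul_le_mul_of_nonneg_left g1 hx
        _ ≤ Λ * w2' := h
        _ ≤ Λ * (B * w2) := mul_le_mul_of_nonneg_left g2' Λ0.le
        _ = _ := by ring
    have h := ang_core hS.ortho hS'.ortho hf hg (fr n1a n2b s10 FS.e01) (fr n1a n2b s10 FS.e10)
      (fr n1a n2b s10 FS.e12) (fr n1a n2b s10 FS.e21) (fr n1a' n2b' s10' FS'.e01)
      (fr n1a' n2b' s10' FS'.e10) (fr n1a' n2b' s10' FS'.e12) (fr n1a' n2b' s10' FS'.e21)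
      (tr (abs_nonneg _) b01) (tr (abs_nonneg _) b21)
    have h2 : angC S S' * w1 ≤ (3 * (B * W ^ 2 * w2 / w1) + 4 * (Λ * B * w2 / w1)) * w1 :=
      mul_le_mul_of_nonneg_right h hw1.le
    have h3 : (3 * (B * W ^ 2 * w2 / w1) + 4 * (Λ * B * w2 / w1)) * w1 =
        (3 * (B * W ^ 2) + 4 * (Λ * B)) * w2 := by
      field_simp
    rw [h3] at h2
    refine h2.trans (mul_le_mul_of_nonneg_right (le_trans ?_ hend) hw2.le)
    have B5 : B ≤ B ^ 5 := le_self_pow₀ hB (by norm_num)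
    have W4 : W ^ 2 ≤ W ^ 4 := pow_le_pow_right₀ hW (by norm_num)
    have W41 : 1 ≤ W ^ 4 := one_le_pow₀ hW
    have N2 : N ≤ N ^ 2 := le_self_pow₀ hN (by norm_num)
    have N21 : 1 ≤ N ^ 2 := one_le_pow₀ hN
    have c1 : B * W ^ 2 ≤ B ^ 5 * W ^ 4 * N ^ 2 := by
      calc B * W ^ 2 = B * W ^ 2 * 1 := by ring
        _ ≤ B ^ 5 * W ^ 4 * N ^ 2 := by gcongr
    have c2 : Λ * B ≤ B ^ 5 * W ^ 4 * N ^ 2 := by
      calc Λ * B = B * 1 * Λ := by ring
        _ ≤ B ^ 5 * W ^ 4 * N ^ 2 := by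
          have : Λ ≤ N ^ 2 := hΛN.trans N2
          gcongr
    nlinarith
  · -- closeness
    intro z hz hz' x hx hq
    have p0 := FS'.pt T hT' z hz hz' x hx hq
    set y := x - T.pos z with hy
    have x0 : |dt (S'.e 0) y| ≤ S'.w 0 / 8 := hx 0
    have x1 : |dt (S'.e 1) y| ≤ S'.w 1 / 8 := hx 1
    have x2 : |dt (S'.e 2) y| ≤ S'.w 2 / 8 := hx 2
    have w02 := hS'.w0_le
    have w21 := hS'.w_le
    have so := hS'.ortho
    have one : ∀ (i l : Fin 3) {u : ℝ}, 0 ≤ u → |dt (S'.e l) (g i)| * u ≤ u := by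
      intro i l u hu
      have := mul_le_mul_of_nonneg_right (abs_dt_le_one hg so l i) hu
      linarith
    have q1 : |dt (g 1) y| ≤ S'.w 1 := by
      have := tr_le (f := g) so y 1 x0 x1 x2 (one 1 0 (by positivity)) (one 1 1 (by positivity))
        (one 1 2 (by positivity))
      linarith
    have q2 : |dt (g 2) y| ≤ B * S'.w 2 := by
      have e : |dt (S'.e 1) (g 2)| * (S'.w 1 / 8) ≤ B * S'.w 2 / 8 := by
        have := FS'.e21
        rw [dt_comm (g 2)] at this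
        linarith
      have := tr_le (f := g) so y 2 x0 x1 x2 (one 2 0 (by positivity)) e
        (one 2 2 (by positivity))
      nlinarith
    have oneg : ∀ (i l : Fin 3) {u : ℝ}, 0 ≤ u → |dt (g l) (f i)| * u ≤ u := by
      intro i l u hu
      have := mul_le_mul_of_nonneg_right (abs_dt_le_one hf hg l i) hu
      linarith
    have BY0 : 0 ≤ B * Y := by positivity
    have Bw0 : 0 ≤ B * S'.w 2 := by positivity
    have YS : Y ≤ B * W * S.w 2 := by
      calc Y ≤ w2' := hY2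
        _ ≤ B * w2 := g2'
        _ ≤ B * (W * S.w 2) := mul_le_mul_of_nonneg_left n2a B0.le
        _ = _ := by ring
    have w2S : S'.w 2 ≤ W ^ 2 * S.w 2 := by
      calc S'.w 2 ≤ W * w2 := n2b'
        _ ≤ W * (W * S.w 2) := mul_le_mul_of_nonneg_left n2a W0.le
        _ = _ := by ring
    have w1S : S'.w 1 ≤ W ^ 2 * S.w 1 := by
      calc S'.w 1 ≤ W * w1 := n1b'
        _ ≤ W * (W * S.w 1) := mul_le_mul_of_nonneg_left n1a W0.le
        _ = _ := by ring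
    have hm : 1 ≤ 4 * B ^ 2 * W ^ 2 * N := by
      have : 1 ≤ B ^ 2 * W ^ 2 * N :=
        one_le_mul_of_one_le_of_one_le (one_le_mul_of_one_le_of_one_le (one_le_pow₀ hB) W2) hN
      linarith
    set m := 4 * B ^ 2 * W ^ 2 * N with hmd
    have BW : B ^ 2 * W ^ 2 ≤ B ^ 2 * W ^ 2 * N := le_mul_of_one_le_right (by positivity) hN
    have B2W : B ^ 2 * W ≤ B ^ 2 * W ^ 2 := by gcongr
    have BW2 : B * W ^ 2 ≤ B ^ 2 * W ^ 2 := by gcongr
    have WBW : W ^ 2 ≤ B ^ 2 * W ^ 2 := le_mul_of_one_le_left (by positivity) (one_le_pow₀ hB)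
    have r1 : |dt (f 1) y| ≤ m * S.w 1 := by
      have h := tr_le (f := f) hg y 1 p0 q1 q2 (oneg 1 0 BY0) (oneg 1 1 s10'.le) (oneg 1 2 Bw0)
      have e1 : B * Y ≤ B ^ 2 * W ^ 2 * N * S.w 1 := by
        calc B * Y ≤ B * (B * W * S.w 2) := mul_le_mul_of_nonneg_left YS B0.le
          _ = B ^ 2 * W * S.w 2 := by ring
          _ ≤ B ^ 2 * W ^ 2 * N * S.w 1 :=
            mul_le_mul (B2W.trans BW) hS.w_le s20.le (by positivity)
      have e2 : S'.w 1 ≤ B ^ 2 * W ^ 2 * N * S.w 1 :=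
        w1S.trans (mul_le_mul_of_nonneg_right (WBW.trans BW) s10.le)
      have e3 : B * S'.w 2 ≤ B ^ 2 * W ^ 2 * N * S.w 1 := by
        calc B * S'.w 2 ≤ B * (W ^ 2 * S.w 2) := mul_le_mul_of_nonneg_left w2S B0.le
          _ = B * W ^ 2 * S.w 2 := by ring
          _ ≤ B ^ 2 * W ^ 2 * N * S.w 1 :=
            mul_le_mul (BW2.trans BW) hS.w_le s20.le (by positivity)
      have e4 : m * S.w 1 = 4 * (B ^ 2 * W ^ 2 * N * S.w 1) := by rw [hmd]; ring
      have e5 : 0 ≤ B ^ 2 * W ^ 2 * N * S.w 1 := by positivity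
      linarith
    have r2 : |dt (f 2) y| ≤ m * S.w 2 := by
      have k1 : |dt (g 1) (f 2)| * S'.w 1 ≤ 2 * (B ^ 2 * W ^ 2 * N * S.w 2) := by
        calc |dt (g 1) (f 2)| * S'.w 1 ≤ |dt (g 1) (f 2)| * (W * w1') := by
              gcongr
              exact n1b'.trans (mul_le_mul_of_nonneg_left g1 W0.le)
          _ = W * (|dt (g 1) (f 2)| * w1') := by ring
          _ ≤ W * (2 * (Λ * w2')) := mul_le_mul_of_nonneg_left b12 W0.le
          _ ≤ W * (2 * (N * (B * (W * S.w 2)))) := by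
              gcongr
              exact g2'.trans (mul_le_mul_of_nonneg_left n2a B0.le)
          _ = 2 * (B * W ^ 2 * N * S.w 2) := by ring
          _ ≤ _ := by gcongr
      have h := tr_le (f := f) hg y 2 p0 q1 q2 (oneg 2 0 BY0) k1 (oneg 2 2 Bw0)
      have e1 : B * Y ≤ B ^ 2 * W ^ 2 * N * S.w 2 := by
        calc B * Y ≤ B * (B * W * S.w 2) := mul_le_mul_of_nonneg_left YS B0.le
          _ = B ^ 2 * W * S.w 2 := by ring
          _ ≤ B ^ 2 * W ^ 2 * N * S.w 2 := mul_le_mul_of_nonneg_right (B2W.trans BW) s20.le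
      have e3 : B * S'.w 2 ≤ B ^ 2 * W ^ 2 * N * S.w 2 := by
        calc B * S'.w 2 ≤ B * (W ^ 2 * S.w 2) := mul_le_mul_of_nonneg_left w2S B0.le
          _ = B * W ^ 2 * S.w 2 := by ring
          _ ≤ B ^ 2 * W ^ 2 * N * S.w 2 := mul_le_mul_of_nonneg_right (BW2.trans BW) s20.le
      have e4 : m * S.w 2 = 4 * (B ^ 2 * W ^ 2 * N * S.w 2) := by rw [hmd]; ring
      linarith
    have r0 : |dt (f 0) y| ≤ m * Y := by
      have k1 : |dt (g 1) (f 0)| * S'.w 1 ≤ B ^ 2 * W ^ 2 * N * Y := by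
        calc |dt (g 1) (f 0)| * S'.w 1 ≤ |dt (g 1) (f 0)| * (W * w1') := by
              gcongr
              exact n1b'.trans (mul_le_mul_of_nonneg_left g1 W0.le)
          _ = W * (|dt (g 1) (f 0)| * w1') := by ring
          _ ≤ W * (E * (Λ * Y)) := mul_le_mul_of_nonneg_left t10 W0.le
          _ = W * N * Y := by rw [hNd]; ring
          _ ≤ B ^ 2 * W ^ 2 * N * Y := by
              have : W ≤ B ^ 2 * W ^ 2 := hWW.trans WBW
              gcongr
      have k2 : |dt (g 2) (f 0)| * (B * S'.w 2) ≤ B ^ 2 * W ^ 2 * N * Y := by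
        have t : |dt (g 2) (f 0)| * w2' ≤ E * Y := by
          have : Λ * (|dt (g 2) (f 0)| * w2') ≤ Λ * (E * Y) := by
            calc _ ≤ E * (Λ * Y) := t20
              _ = _ := by ring
          exact le_of_mul_le_mul_left this Λ0
        calc |dt (g 2) (f 0)| * (B * S'.w 2) ≤ |dt (g 2) (f 0)| * (B * (W * w2')) := by
              gcongr
              exact n2b'.trans (mul_le_mul_of_nonneg_left g2 W0.le)
          _ = B * W * (|dt (g 2) (f 0)| * w2') := by ring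
          _ ≤ B * W * (E * Y) := mul_le_mul_of_nonneg_left t (by positivity)
          _ ≤ B ^ 2 * W ^ 2 * (N * Y) := by gcongr
          _ = _ := by ring
      have h := tr_le (f := f) hg y 0 p0 q1 q2 (oneg 0 0 BY0) k1 k2
      have e1 : B * Y ≤ B ^ 2 * W ^ 2 * N * Y := by
        have : B ≤ B ^ 2 * W ^ 2 * N := by
          calc B ≤ B ^ 2 := hBB
            _ ≤ B ^ 2 * W ^ 2 := le_mul_of_one_le_right (by positivity) W2
            _ ≤ _ := BW
        exact mul_le_mul_of_nonneg_right this Y0.le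
      have e4 : m * Y = 4 * (B ^ 2 * W ^ 2 * N * Y) := by rw [hmd]; ring
      have e5 : 0 ≤ B ^ 2 * W ^ 2 * N * Y := by positivity
      linarith
    obtain ⟨b0, hb, hb', hFL⟩ := LS T hT
    have b00 : 0 < b0 := by
      by_contra hneg
      have : B * b0 ≤ 0 := mul_nonpos_of_nonneg_of_nonpos B0.le (not_lt.1 hneg)
      linarith
    have h := hFL m hm z hz hz' x r0 r1 r2
    rw [← hy] at h
    have h5 : |b0 * dt (f 0) y| ≤ B * (m * Y) := by
      rw [abs_mul, abs_of_pos b00]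
      exact mul_le_mul hb' r0 (abs_nonneg _) B0.le
    have h6 : |S.q z x| ≤ B * m ^ 2 * Y + B * (m * Y) := by
      have := abs_add_le (S.q z x - b0 * dt (f 0) y) (b0 * dt (f 0) y)
      rw [sub_add_cancel] at this
      linarith
    have m0 : 0 < m := by linarith
    have h7 : B * (m * Y) ≤ B * m ^ 2 * Y := by
      have : m ≤ m ^ 2 := le_self_pow₀ hm (by norm_num)
      calc B * (m * Y) = B * m * Y := by ring
        _ ≤ B * m ^ 2 * Y := by gcongr
    have h8 : B * m ^ 2 * Y + B * m ^ 2 * Y = 32 * B ^ 5 * W ^ 4 * N ^ 2 * Y := by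
      rw [hmd]; ring
    calc |S.q z x| ≤ B * m ^ 2 * Y + B * m ^ 2 * Y := by linarith
      _ = 32 * B ^ 5 * W ^ 4 * N ^ 2 * Y := h8
      _ ≤ _ := mul_le_mul_of_nonneg_right hend Y0.le

end Crest.Agent.R136.Cod248
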