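import Crest.Agent.R136.Fl8_808

/-!
# R136 (U4, PLAN 2, B6): change of the flat thickness in `Dy` (helper140)

`dy_scale` : the same base tilt `2 ^ j`, the thickness tilt `2 ^ k2` at the thickness `Y0`, and
`2 ^ k' * Y ≤ C * (2 ^ k2 * Y0)` when `Y ≤ C * Y0`.
-/

set_option autoImplicit false
set_option linter.unusedVariables false

namespace Crest.Agent.R136.Dys140

open Crest.Agent.R136.Sh605
open Crest.Agent.R136.Fl808 (Dy exists_pow)

theorem dy_scale {e e' : Fin 3 → V3} {Y0 Y w1 w2 C : ℝ} {j k' : ℕ} (H : Dy e e' Y w1 w2 j k')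
    (hY0 : 0 < Y0) (hC2 : 2 ≤ C) (hC : Y ≤ C * Y0) :
    ∃ k2 : ℕ, Dy e e' Y0 w1 w2 j k2 ∧ (2:ℝ) ^ k' * Y ≤ C * (2 ^ k2 * Y0) := by
  have hj : (0:ℝ) < 2 ^ j * Y0 := by positivity
  have hj' : (0:ℝ) < 2 ^ j := by positivity
  obtain ⟨k2, h3, h4⟩ := exists_pow
    (x := max (max (|dt (e' 1) (e 0)| * w1) (2 ^ j * (|dt (e' 2) (e 0)| * w2)))
      (max (|dt (e' 0) (e 1)| * w1) (2 ^ j * (|dt (e' 0) (e 2)| * w2))) / (2 ^ j * Y0))
  rw [div_le_iff₀ hj] at h3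
  set m := max (max (|dt (e' 1) (e 0)| * w1) (2 ^ j * (|dt (e' 2) (e 0)| * w2)))
    (max (|dt (e' 0) (e 1)| * w1) (2 ^ j * (|dt (e' 0) (e 2)| * w2))) with hm
  have a1 : |dt (e' 1) (e 0)| * w1 ≤ m := (le_max_left _ _).trans (le_max_left _ _)
  have a2 : 2 ^ j * (|dt (e' 2) (e 0)| * w2) ≤ m := (le_max_right _ _).trans (le_max_left _ _)
  have a3 : |dt (e' 0) (e 1)| * w1 ≤ m := (le_max_left _ _).trans (le_max_right _ _)
  have a4 : 2 ^ j * (|dt (e' 0) (e 2)| * w2) ≤ m := (le_max_right _ _).trans (le_max_right _ _)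
  have hp2 : (0:ℝ) < 2 ^ k2 := by positivity
  refine ⟨k2, ⟨H.b21, H.b01, H.blo, a1.trans h3, a2.trans h3, a3.trans h3, a4.trans h3, ?_⟩, ?_⟩
  · rcases h4 with h4 | h4
    · exact Or.inl h4
    · right
      have h5 : (2:ℝ) ^ k2 * (2 ^ j * Y0) ≤ 2 * m := by
        have := mul_le_mul_of_nonneg_right h4 hj.le
        have e5 : 2 * (m / (2 ^ j * Y0)) * (2 ^ j * Y0) = 2 * m := by field_simp
        linarith
      rcases max_choice (max (|dt (e' 1) (e 0)| * w1) (2 ^ j * (|dt (e' 2) (e 0)| * w2)))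
        (max (|dt (e' 0) (e 1)| * w1) (2 ^ j * (|dt (e' 0) (e 2)| * w2))) with h6 | h6
      · rw [hm, h6] at h5
        rcases max_choice (|dt (e' 1) (e 0)| * w1) (2 ^ j * (|dt (e' 2) (e 0)| * w2)) with h7 | h7
        · rw [h7] at h5; exact Or.inl h5
        · rw [h7] at h5; exact Or.inr (Or.inl h5)
      · rw [hm, h6] at h5
        rcases max_choice (|dt (e' 0) (e 1)| * w1) (2 ^ j * (|dt (e' 0) (e 2)| * w2)) with h7 | h7
        · rw [h7] at h5; exact Or.inr (Or.inr (Or.inl h5))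
        · rw [h7] at h5; exact Or.inr (Or.inr (Or.inr h5))
  · have hpp : (0:ℝ) < 2 ^ k2 * Y0 := by positivity
    have key : ∀ x : ℝ, x ≤ m → (2:ℝ) ^ k' * (2 ^ j * Y) ≤ 2 * x →
        (2:ℝ) ^ k' * Y ≤ C * (2 ^ k2 * Y0) := by
      intro x hx h
      have h5 : (2 ^ k' * Y) * 2 ^ j ≤ (2 * (2 ^ k2 * Y0)) * 2 ^ j := by
        calc (2 ^ k' * Y) * 2 ^ j = (2:ℝ) ^ k' * (2 ^ j * Y) := by ring
          _ ≤ 2 * m := h.trans (by linarith)
          _ ≤ 2 * (2 ^ k2 * (2 ^ j * Y0)) := by linarith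
          _ = _ := by ring
      have h6 := le_of_mul_le_mul_right h5 hj'
      exact h6.trans (mul_le_mul_of_nonneg_right hC2 hpp.le)
    rcases H.tlo with h | h | h | h | h
    · rw [h, pow_zero, one_mul]
      have h7 : (1:ℝ) ≤ 2 ^ k2 := one_le_pow₀ (by norm_num)
      calc Y ≤ C * Y0 := hC
        _ = C * (1 * Y0) := by ring
        _ ≤ C * (2 ^ k2 * Y0) := by
          have : (0:ℝ) ≤ C := by linarith
          gcongr
    · exact key _ a1 h
    · exact key _ a2 h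
    · exact key _ a3 h
    · exact key _ a4 h

end Crest.Agent.R136.Dys140
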