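import Crest.Agent.R136.Pl2C_860
import Crest.Agent.R136.Cod_248
import Crest.Agent.R136.Bl6_667
import Crest.Agent.R136.Dys_140

/-!
# R136 (S0187), PLAN 2, leaf (B6): base tilt theorem `BTR Al1` (helper879)

`btr_of` : `TiltCore`, `FlatFrame` (B1), `WideHull` (B2), `TubeL` (B3), `ShareL` (B4) ⊢ `BTR Al1`.
-/

set_option autoImplicit false
set_option linter.unusedVariables false

open Finset

namespace Crest.Agent.R136.Btr879

open Crest.Agent.R136.Sh605 Crest.Agent.R136.Fl808 Crest.Agent.R136.Pl2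
open Crest.Agent.R136.K4 (Plk4)
open Crest.Agent.R136.Tlt51 (Shp InP)
open Crest.Agent.R136.Phc248 (ph phC)
open Crest.Agent.R136.Deep51 (CloseC)
open Crest.Agent.R136.KapP335 (kapP expP DetP)
open Crest.Agent.R136.Tl102 (angC)
open Crest.Agent.R136.Pl2W102 (Near Ex2 Two1)
open Crest.Agent.R136.Bl5667 (shp_pos kp_le lift two_lift le_lift rpow_two_lift ylevelP)
open Crest.Agent.R136.Dys140 (dy_scale)

/-! ### monotonicity of the frames -/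

theorem FH.mono {C C' Y Y' : ℝ} {S : Plk4} {f : Fin 3 → V3} {z0 ρ : ℝ} (h : FH C Y S f z0 ρ)
    (h1 : 0 ≤ S.w 1) (h2 : 0 ≤ S.w 2) (hC : C ≤ C') (hY : C * Y ≤ C' * Y') :
    FH C' Y' S f z0 ρ where
  ortho := h.ortho
  e01 := h.e01.trans (mul_le_mul_of_nonneg_right hC h2)
  e10 := h.e10.trans (mul_le_mul_of_nonneg_right hC h2)
  e12 := h.e12.trans (mul_le_mul_of_nonneg_right hC h2)
  e21 := h.e21.trans (mul_le_mul_of_nonneg_right hC h2)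
  e00 := h.e00.trans (mul_le_mul_of_nonneg_right hC (abs_nonneg _))
  box := fun t t' ht ht' z hz hz' i => by
    have := h.box t t' ht ht' z hz hz' i
    fin_cases i
    · exact this.trans hY
    · exact this.trans (mul_le_mul_of_nonneg_right hC h1)
    · exact this.trans (mul_le_mul_of_nonneg_right hC h2)
  pt := fun T hT z hz hz' x hx hq => (h.pt T hT z hz hz' x hx hq).trans hY

theorem FL.down {C C' Y Y' : ℝ} {S : Plk4} {f : Fin 3 → V3} {z0 ρ : ℝ} (h : FL C Y S f z0 ρ)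
    (hC0 : 0 < C) (hC : C ≤ C') (hY : Y' ≤ Y) (hY' : C * Y ≤ C' * Y') : FL C' Y' S f z0 ρ := by
  intro T hT
  obtain ⟨b0, h1, h2, h3⟩ := h T hT
  have hb : 0 < b0 := by
    by_contra hc
    have := mul_nonpos_of_nonneg_of_nonpos hC0.le (not_lt.1 hc)
    linarith
  refine ⟨b0, h1.trans (mul_le_mul_of_nonneg_right hC hb.le), h2.trans hC, ?_⟩
  intro m hm z hz hz' x x0 x1 x2
  have hm0 : 0 ≤ m := by linarith
  refine (h3 m hm z hz hz' x (x0.trans (mul_le_mul_of_nonneg_left hY hm0)) x1 x2).trans ?_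
  calc C * m ^ 2 * Y = m ^ 2 * (C * Y) := by ring
    _ ≤ m ^ 2 * (C' * Y') := mul_le_mul_of_nonneg_left hY' (by positivity)
    _ = _ := by ring

theorem FL.up {C C' κ Y : ℝ} {S : Plk4} {f : Fin 3 → V3} {z0 ρ : ℝ} (h : FL C Y S f z0 ρ)
    (hC0 : 0 < C) (hκ : 1 ≤ κ) (hC : C * κ ≤ C') (hY : 0 ≤ Y) (h1 : 0 ≤ S.w 1)
    (h2 : 0 ≤ S.w 2) : FL C' (κ * Y) S f z0 ρ := by
  have hκ0 : 0 ≤ κ := by linarith
  have hCC : C ≤ C' := (le_mul_of_one_le_right hC0.le hκ).trans hC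
  intro T hT
  obtain ⟨b0, b1, b2, h3⟩ := h T hT
  have hb : 0 < b0 := by
    by_contra hc
    have := mul_nonpos_of_nonneg_of_nonpos hC0.le (not_lt.1 hc)
    linarith
  refine ⟨b0, b1.trans (mul_le_mul_of_nonneg_right hCC hb.le), b2.trans hCC, ?_⟩
  intro m hm z hz hz' x x0 x1 x2
  have hm0 : 0 ≤ m := by linarith
  have hmκ : m ≤ m * κ := le_mul_of_one_le_right hm0 hκ
  have k := h3 (m * κ) (hm.trans hmκ) z hz hz' x (x0.trans (by rw [mul_assoc]))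
    (x1.trans (mul_le_mul_of_nonneg_right hmκ h1)) (x2.trans (mul_le_mul_of_nonneg_right hmκ h2))
  refine k.trans ?_
  calc C * (m * κ) ^ 2 * Y = (C * κ) * (m ^ 2 * (κ * Y)) := by ring
    _ ≤ C' * (m ^ 2 * (κ * Y)) := mul_le_mul_of_nonneg_right hC (by positivity)
    _ = _ := by ring

theorem CloseC.mono {e : Fin 3 → V3} {w : V3} {q q' : ℝ → V3 → ℝ} {a E E' z0 ρ : ℝ} {T : Ln4}
    (h : CloseC e w q a q' E T z0 ρ) (hE : E ≤ E') : CloseC e w q a q' E' T z0 ρ :=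
  fun z hz hz' x hx hq => (h z hz hz' x hx hq).trans hE

/-- any constant is at most a power of `x ≥ 2` -/
theorem exc (A : ℝ) : ∃ c : ℝ, 0 ≤ c ∧ ∀ x : ℝ, 2 ≤ x → A ≤ x ^ c := by
  refine ⟨2 * max A 0, by positivity, fun x hx => ?_⟩
  have h1 : (0:ℝ) ≤ max A 0 := le_max_right _ _
  have h2 : A ≤ max A 0 := le_max_left _ _
  have h3 : (2:ℝ) ^ (2 * max A 0) ≤ x ^ (2 * max A 0) :=
    Real.rpow_le_rpow (by norm_num) hx (by positivity)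
  have h4 : (2:ℝ) ^ (2 * max A 0) = Real.exp (Real.log 2 * (2 * max A 0)) :=
    Real.rpow_def_of_pos (by norm_num) _
  have h5 := Real.add_one_le_exp (Real.log 2 * (2 * max A 0))
  have h6 : (0.69 : ℝ) ≤ Real.log 2 := by have := Real.log_two_gt_d9; linarith
  have h7 : 0.69 * (2 * max A 0) ≤ Real.log 2 * (2 * max A 0) :=
    mul_le_mul_of_nonneg_right h6 (by positivity)
  linarith

/-- frames of the classes -/
theorem frames {CF : ℝ}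
    (hF : ∀ (S : Plk4) (T : Ln4) (z0 ρ r : ℝ), 0 < ρ → 0 < r → Shp S z0 ρ r → InP T S z0 ρ →
      ∃ f : Fin 3 → V3, ∀ Y : ℝ, S.a ≤ Y → kapP S z0 ρ T ≤ Y →
        FH CF Y S f z0 ρ ∧ (Y ≤ 100 * S.w 0 → FL CF Y S f z0 ρ))
    {P : Finset ℕ} {L : ℕ → Ln4} {cu : ℕ → ℕ} {Uf : ℕ → Plk4} {z0 ρ r Y : ℝ} (hρ : 0 < ρ)
    (hr : 0 < r) (sh : ∀ t ∈ P, Shp (Uf (cu t)) z0 ρ r)
    (inU : ∀ t ∈ P, InP (L t) (Uf (cu t)) z0 ρ)
    (hY : ∀ t ∈ P, (Uf (cu t)).a ≤ Y ∧ kp (Uf (cu t)) z0 ρ (L t) ≤ Y) :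
    ∃ (eu : ℕ → Fin 3 → V3) (bu : ℕ → Ln4), ∀ t ∈ P, InP (bu (cu t)) (Uf (cu t)) z0 ρ ∧
      FH CF Y (Uf (cu t)) (eu (cu t)) z0 ρ ∧
      (Y ≤ 100 * (Uf (cu t)).w 0 → FL CF Y (Uf (cu t)) (eu (cu t)) z0 ρ) := by
  have key : ∀ c : ℕ, ∃ p : (Fin 3 → V3) × Ln4, ∀ t ∈ P, cu t = c → InP p.2 (Uf c) z0 ρ ∧
      FH CF Y (Uf c) p.1 z0 ρ ∧ (Y ≤ 100 * (Uf c).w 0 → FL CF Y (Uf c) p.1 z0 ρ) := by
    intro c
    by_cases h : ∃ t ∈ P, cu t = c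
    · obtain ⟨t, ht, rfl⟩ := h
      obtain ⟨f, hf⟩ := hF _ _ z0 ρ r hρ hr (sh t ht) (inU t ht)
      obtain ⟨h1, h2⟩ := hf Y (hY t ht).1 (hY t ht).2
      exact ⟨(f, L t), fun s hs hst => ⟨inU t ht, h1, h2⟩⟩
    · exact ⟨(fun _ => 0, L 0), fun s hs hst => absurd ⟨s, hs, hst⟩ h⟩
  choose p hp using key
  exact ⟨fun c => (p c).1, fun c => (p c).2, fun t ht => hp (cu t) t ht rfl⟩

section

variable {qm qp : Fin 3 → ℝ} {L : ℕ → Ln4} {P : Finset ℕ} {cu cv : ℕ → ℕ} {Uf Vf : ℕ → Plk4}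
  {W M a w1 w2 z0 ρ r : ℝ}

theorem pw {x s t : ℝ} (hx : 1 ≤ x) (h : s ≤ t) : x ^ s ≤ x ^ t :=
  Real.rpow_le_rpow_of_exponent_le hx h

open Classical in
/-- tubes of the first system at the widths `x ^ c1 * w1`, `x ^ c2 * w2` -/
theorem tube_one {CB CF c1 c2 cT Y : ℝ} {eu : ℕ → Fin 3 → V3} (hx : 512 ≤ 2 * W)
    (hc2 : 2 ≤ c2) (hc1 : c2 ≤ c1) (hCB0 : 0 ≤ CB) (hCF : CF ≤ (2 * W) ^ c1) (hCF0 : 0 ≤ CF)
    (hcT : (c1 + 1) * CB + c1 * (1 + qm 1) ≤ cT) (hq : 0 ≤ qm 1)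
    (H : Two1 qm qp L P cu cv Uf Vf W M a w1 w2 z0 ρ r)
    (hY0 : 0 ≤ Y) (hY : Y ≤ 26 * W * w2)
    (hB : ∀ t ∈ P, ∀ (m δ Y : ℝ) (f : Fin 3 → V3), 1 ≤ m → FH m Y (Uf (cu t)) f z0 ρ →
      Y ≤ m * w2 → w2 ≤ m * (δ * w1) → δ ≤ m →
      ((P.filter fun s => cu s = cu t ∧ ∀ z, z0 ≤ z → z ≤ z0 + ρ →
        |dt (f 1) ((L s).pos z - (L t).pos z)| ≤ δ * w1).card : ℝ) ≤
          (2 * W * m) ^ CB * M * δ ^ (1 + qm 1))
    (hFH : ∀ t ∈ P, FH CF Y (Uf (cu t)) (eu (cu t)) z0 ρ) :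
    ∀ t ∈ P, ∀ δ : ℝ, (2 * W) ^ c2 * w2 ≤ 8 * (δ * ((2 * W) ^ c1 * w1)) → δ ≤ 1 →
      ((P.filter fun s => cu s = cu t ∧ ∀ z, z0 ≤ z → z ≤ z0 + ρ →
        |dt (eu (cu t) 1) ((L s).pos z - (L t).pos z)| ≤ δ * ((2 * W) ^ c1 * w1)).card : ℝ) ≤
        (2 * W) ^ cT * M * δ ^ (1 + qm 1) := by
  intro t ht δ hδ hδ1
  have hW := H.W1
  have hM := H.M0
  have hw1 := H.w10
  have hw2 := H.w20
  obtain ⟨s1, s2, s3, s4⟩ := shp_pos H.r0 (H.shU t ht)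
  set x := 2 * W with hxd
  have x1 : 1 ≤ x := by linarith
  have x0 : 0 < x := by linarith
  have p1 : 0 < x ^ c1 := Real.rpow_pos_of_pos x0 _
  have p2 : 0 < x ^ c2 := Real.rpow_pos_of_pos x0 _
  have hδ0 : 0 < δ := by
    by_contra hc
    have h1 : δ * (x ^ c1 * w1) ≤ 0 :=
      mul_nonpos_of_nonpos_of_nonneg (not_lt.1 hc) (by positivity)
    have : 0 < x ^ c2 * w2 := by positivity
    linarith
  have q1 : x * x ≤ x ^ c1 := by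
    have := pw x1 (hc2.trans hc1)
    rwa [Real.rpow_two, sq] at this
  have q2 : x ≤ x ^ c1 := by
    have : x * 1 ≤ x * x := mul_le_mul_of_nonneg_left x1 x0.le
    linarith
  have hm1 : 1 ≤ x ^ c1 := x1.trans q2
  have q3 : (1:ℝ) ≤ x ^ c2 := Real.one_le_rpow x1 (by linarith)
  have hYm : Y ≤ x ^ c1 * w2 := by
    refine hY.trans (mul_le_mul_of_nonneg_right ?_ hw2.le)
    have : 26 * W ≤ x * x := by nlinarith
    linarith
  have e1 : δ * (x ^ c1 * w1) = (δ * x ^ c1) * w1 := by ring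
  rw [e1] at hδ ⊢
  have k := hB t ht (x ^ c1) (δ * x ^ c1) Y (eu (cu t)) hm1
    (FH.mono (hFH t ht) s4.le s3.le hCF (mul_le_mul_of_nonneg_right hCF hY0)) hYm (by
      have h1 : w2 ≤ x ^ c2 * w2 := le_mul_of_one_le_left hw2.le q3
      have h2 : 0 ≤ δ * x ^ c1 * w1 := by positivity
      have h3 : 8 * (δ * x ^ c1 * w1) ≤ x ^ c1 * (δ * x ^ c1 * w1) :=
        mul_le_mul_of_nonneg_right (by linarith) h2
      linarith) (by
      have := mul_le_mul_of_nonneg_right hδ1 p1.le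
      linarith)
  refine k.trans ?_
  have hq1 : 0 ≤ 1 + qm 1 := by linarith
  rw [Real.mul_rpow hδ0.le p1.le, ← Real.rpow_mul x0.le]
  have e2 : x * x ^ c1 = x ^ (c1 + 1) := by rw [Real.rpow_add x0, Real.rpow_one, mul_comm]
  rw [e2, ← Real.rpow_mul x0.le]
  calc x ^ ((c1 + 1) * CB) * M * (δ ^ (1 + qm 1) * x ^ (c1 * (1 + qm 1)))
      = (x ^ ((c1 + 1) * CB) * x ^ (c1 * (1 + qm 1))) * (M * δ ^ (1 + qm 1)) := by ring
    _ = x ^ ((c1 + 1) * CB + c1 * (1 + qm 1)) * (M * δ ^ (1 + qm 1)) := by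
        rw [← Real.rpow_add x0]
    _ ≤ x ^ cT * (M * δ ^ (1 + qm 1)) := by
        refine mul_le_mul_of_nonneg_right (pw x1 hcT) ?_
        have : 0 ≤ δ ^ (1 + qm 1) := Real.rpow_nonneg hδ0.le _
        positivity
    _ = _ := by ring

open Classical in
/-- hull D-max at the widths `x ^ c1 * w1`, `x ^ c2 * w2` -/
theorem hull_one {CH c1 c2 cT : ℝ} (hx : 512 ≤ 2 * W)
    (hc2 : 0 ≤ c2) (hc1 : c2 ≤ c1) (hCH0 : 0 ≤ CH)
    (hcT : (c1 + 4) * CH + c2 * (1 + qp 2) ≤ cT) (hq0 : 0 ≤ qp 0) (hq : 0 ≤ qp 2)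
    (H : Two1 qm qp L P cu cv Uf Vf W M a w1 w2 z0 ρ r)
    (hH : ∀ (m : ℝ) (b : Ln4) (f : Fin 3 → V3) (X0 X2 : ℝ), 1 ≤ m → Ortho f → a ≤ X0 → w2 ≤ X2 →
      X0 ≤ X2 → X2 ≤ m * w1 →
      ((P.filter fun t => InB (L t) b f ![X0, m * w1, X2] z0 ρ).card : ℝ) ≤
        (2 * W * m) ^ CH * M * ((X0 / a) ^ (1 + qp 0) * (X2 / w2) ^ (1 + qp 2))) :
    ∀ (b : Ln4) (f : Fin 3 → V3) (X0 X2 : ℝ), Ortho f → a ≤ X0 → (2 * W) ^ c2 * w2 ≤ X2 →
      X0 ≤ X2 → X2 ≤ 10 ^ 6 * ((2 * W) ^ c1 * w1) →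
      ((P.filter fun t => InB (L t) b f ![X0, 10 ^ 6 * ((2 * W) ^ c1 * w1), X2] z0 ρ).card : ℝ) ≤
        (2 * W) ^ cT * M * ((X0 / a) ^ (1 + qp 0) * (X2 / ((2 * W) ^ c2 * w2)) ^ (1 + qp 2)) := by
  intro b f X0 X2 hf h0 h2 h02 h21
  have hW := H.W1
  have hM := H.M0
  have hw1 := H.w10
  have hw2 := H.w20
  have ha := H.a0
  set x := 2 * W with hxd
  have x1 : 1 ≤ x := by linarith
  have x0 : 0 < x := by linarith
  have p1 : 0 < x ^ c1 := Real.rpow_pos_of_pos x0 _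
  have p2 : 0 < x ^ c2 := Real.rpow_pos_of_pos x0 _
  have q3 : (1:ℝ) ≤ x ^ c2 := Real.one_le_rpow x1 hc2
  have m1 : (1:ℝ) ≤ x ^ (c1 + 3) := Real.one_le_rpow x1 (by linarith)
  have e3 : x ^ (c1 + 3) = x ^ c1 * x ^ 3 := by
    rw [Real.rpow_add x0]; norm_num
  have hx3 : (10:ℝ) ^ 6 ≤ x ^ 3 := by
    have : (512:ℝ) ^ 3 ≤ x ^ 3 := by gcongr
    norm_num at this ⊢; linarith
  have hm : 10 ^ 6 * (x ^ c1 * w1) ≤ x ^ (c1 + 3) * w1 := by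
    rw [e3]
    calc 10 ^ 6 * (x ^ c1 * w1) ≤ x ^ 3 * (x ^ c1 * w1) :=
          mul_le_mul_of_nonneg_right hx3 (by positivity)
      _ = _ := by ring
  have hw2X : w2 ≤ X2 := (le_mul_of_one_le_left hw2.le q3).trans h2
  have k := hH (x ^ (c1 + 3)) b f X0 X2 m1 hf h0 hw2X h02 (h21.trans hm)
  have hsub : ((P.filter fun t => InB (L t) b f ![X0, 10 ^ 6 * (x ^ c1 * w1), X2] z0 ρ).card : ℝ) ≤
      ((P.filter fun t => InB (L t) b f ![X0, x ^ (c1 + 3) * w1, X2] z0 ρ).card : ℝ) := by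
    refine Nat.cast_le.2 (Finset.card_le_card ?_)
    intro t ht
    rw [Finset.mem_filter] at ht ⊢
    refine ⟨ht.1, fun z hz hz' i => ?_⟩
    have := ht.2 z hz hz' i
    fin_cases i
    · exact this
    · exact this.trans hm
    · exact this
  refine (hsub.trans k).trans ?_
  have X00 : 0 < X0 := ha.trans_le h0
  have X20 : 0 < X2 := X00.trans_le h02
  have e4 : X2 / w2 = x ^ c2 * (X2 / (x ^ c2 * w2)) := by field_simp
  have hq1 : 0 ≤ 1 + qp 2 := by linarith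
  have e5 : (X2 / w2) ^ (1 + qp 2) = x ^ (c2 * (1 + qp 2)) * (X2 / (x ^ c2 * w2)) ^ (1 + qp 2) := by
    rw [e4, Real.mul_rpow p2.le (by positivity), ← Real.rpow_mul x0.le]
  have e2 : x * x ^ (c1 + 3) = x ^ (c1 + 4) := by
    have : c1 + 4 = (c1 + 3) + 1 := by ring
    rw [this, Real.rpow_add x0 (c1 + 3) 1, Real.rpow_one, mul_comm]
  rw [e5, e2, ← Real.rpow_mul x0.le]
  set A := (X0 / a) ^ (1 + qp 0)
  set B := (X2 / (x ^ c2 * w2)) ^ (1 + qp 2)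
  have hA : 0 ≤ A := Real.rpow_nonneg (by positivity) _
  have hB : 0 ≤ B := Real.rpow_nonneg (by positivity) _
  calc x ^ ((c1 + 4) * CH) * M * (A * (x ^ (c2 * (1 + qp 2)) * B))
      = (x ^ ((c1 + 4) * CH) * x ^ (c2 * (1 + qp 2))) * (M * (A * B)) := by ring
    _ = x ^ ((c1 + 4) * CH + c2 * (1 + qp 2)) * (M * (A * B)) := by rw [← Real.rpow_add x0]
    _ ≤ x ^ cT * (M * (A * B)) := mul_le_mul_of_nonneg_right (pw x1 hcT) (by positivity)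
    _ = _ := by ring

/-- share at the thickness `κ Y` from the share at the thickness `Y` -/
theorem share_one {K1 CS cF cT κ Y N w1' w2' : ℝ} {f g : Fin 3 → V3} (hx : 512 ≤ 2 * W)
    (hκ : 2 ≤ κ) (hκF : κ ≤ (2 * W) ^ cF) (hcF : 0 ≤ cF) (ha : 0 < a) (hM : 0 < M) (hY : 0 < Y)
    (hq : 0 ≤ qm 2) (hcT : CS + cF * (1 + qm 2) ≤ cT) (hK1 : K1 ≤ cT)
    (hS : ∀ j k' : ℕ, Dy f g Y w1' w2' j k' → (2 * W) ^ K1 ≤ (2:ℝ) ^ j * 2 ^ k' →
      N ≤ (2 * W) ^ CS * M / (((2:ℝ) ^ j) ^ (1 + qm 1) * ((2:ℝ) ^ k' * (Y / a)) ^ (1 + qm 2))) :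
    ∀ j k' : ℕ, Dy f g (κ * Y) w1' w2' j k' → (2 * W) ^ cT ≤ (2:ℝ) ^ j * 2 ^ k' →
      N ≤ (2 * W) ^ cT * M /
        (((2:ℝ) ^ j) ^ (1 + qm 1) * ((2:ℝ) ^ k' * (κ * Y / a)) ^ (1 + qm 2)) := by
  intro j k' hD hj
  set x := 2 * W with hxd
  have x1 : 1 ≤ x := by linarith
  have x0 : 0 < x := by linarith
  have κ0 : 0 < κ := by linarith
  obtain ⟨k2, hD2, h2⟩ := dy_scale hD hY hκ le_rfl
  have hk : (2:ℝ) ^ k' ≤ 2 ^ k2 := by
    refine le_of_mul_le_mul_right ?_ (mul_pos κ0 hY)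
    calc (2:ℝ) ^ k' * (κ * Y) ≤ κ * (2 ^ k2 * Y) := h2
      _ = 2 ^ k2 * (κ * Y) := by ring
  have hj2 : (2:ℝ) ^ j * 2 ^ k' ≤ 2 ^ j * 2 ^ k2 := mul_le_mul_of_nonneg_left hk (by positivity)
  have k := hS j k2 hD2 ((pw x1 hK1).trans (hj.trans hj2))
  refine k.trans ?_
  have hq1 : 0 ≤ 1 + qm 2 := by linarith
  have b2 : 0 < (2:ℝ) ^ k2 * (Y / a) := by positivity
  have b1 : 0 < (2:ℝ) ^ k' * (κ * Y / a) := by positivity
  have b3 : (2:ℝ) ^ k' * (κ * Y / a) ≤ κ * ((2:ℝ) ^ k2 * (Y / a)) := by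
    calc (2:ℝ) ^ k' * (κ * Y / a) ≤ 2 ^ k2 * (κ * Y / a) :=
          mul_le_mul_of_nonneg_right hk (by positivity)
      _ = _ := by ring
  set A := ((2:ℝ) ^ j) ^ (1 + qm 1)
  have hA : 0 < A := Real.rpow_pos_of_pos (by positivity) _
  have c1 : ((2:ℝ) ^ k' * (κ * Y / a)) ^ (1 + qm 2) ≤
      x ^ (cF * (1 + qm 2)) * ((2:ℝ) ^ k2 * (Y / a)) ^ (1 + qm 2) := by
    calc ((2:ℝ) ^ k' * (κ * Y / a)) ^ (1 + qm 2)
        ≤ (κ * ((2:ℝ) ^ k2 * (Y / a))) ^ (1 + qm 2) := Real.rpow_le_rpow b1.le b3 hq1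
      _ = κ ^ (1 + qm 2) * ((2:ℝ) ^ k2 * (Y / a)) ^ (1 + qm 2) := Real.mul_rpow κ0.le b2.le
      _ ≤ (x ^ cF) ^ (1 + qm 2) * ((2:ℝ) ^ k2 * (Y / a)) ^ (1 + qm 2) :=
          mul_le_mul_of_nonneg_right (Real.rpow_le_rpow κ0.le hκF hq1)
            (Real.rpow_nonneg b2.le _)
      _ = _ := by rw [← Real.rpow_mul x0.le]
  have d2 : 0 < ((2:ℝ) ^ k2 * (Y / a)) ^ (1 + qm 2) := Real.rpow_pos_of_pos b2 _
  have d1 : 0 < ((2:ℝ) ^ k' * (κ * Y / a)) ^ (1 + qm 2) := Real.rpow_pos_of_pos b1 _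
  have p1 : 0 < x ^ CS := Real.rpow_pos_of_pos x0 _
  rw [div_le_div_iff₀ (by positivity) (by positivity)]
  set B1 := ((2:ℝ) ^ k' * (κ * Y / a)) ^ (1 + qm 2)
  set B2 := ((2:ℝ) ^ k2 * (Y / a)) ^ (1 + qm 2)
  calc x ^ CS * M * (A * B1) ≤ x ^ CS * M * (A * (x ^ (cF * (1 + qm 2)) * B2)) := by gcongr
    _ = (x ^ CS * x ^ (cF * (1 + qm 2))) * (M * (A * B2)) := by ring
    _ = x ^ (CS + cF * (1 + qm 2)) * (M * (A * B2)) := by rw [← Real.rpow_add x0]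
    _ ≤ x ^ cT * (M * (A * B2)) := mul_le_mul_of_nonneg_right (pw x1 hcT) (by positivity)
    _ = _ := by ring


theorem r_le_rho {K0 : ℝ} (hK04 : 4 ≤ K0) (H : Two1 qm qp L P cu cv Uf Vf W M a w1 w2 z0 ρ r)
    {t0 : ℕ} (ht0 : t0 ∈ P) (b : (2 * W) ^ K0 * a ≤ kp (Uf (cu t0)) z0 ρ (L t0)) : r ≤ ρ := by
  have hW := H.W1
  have W0 : 0 < W := by linarith
  have ha := H.a0
  have hU := H.shU t0 ht0
  have l1 := kp_le H.r0 H.ρ0.le hU (H.inU t0 ht0)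
  have b1 : (2 * W) ^ (4:ℝ) ≤ (2 * W) ^ K0 := pw (by linarith) hK04
  have b3 : (2 * W) ^ (4:ℝ) = (2 * W) ^ 4 := by exact_mod_cast Real.rpow_natCast (2 * W) 4
  have d1 := (H.dimU t0 ht0).1.2
  have d2 := (H.dimU t0 ht0).2.1.2
  have r1 : r ≤ W * a := hU.r0_le.trans d1
  have u1 : (Uf (cu t0)).w 0 ≤ W * (W * ρ) :=
    (hU.w0_le.trans hU.w_le).trans (d2.trans (mul_le_mul_of_nonneg_left H.w1ρ W0.le))
  have b4 : (2 * W) ^ 4 * a ≤ 13 * (W * (W * ρ)) := by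
    rw [b3] at b1
    have := mul_le_mul_of_nonneg_right b1 ha.le
    linarith
  have hρ := H.ρ0
  have b5 : 16 * (W * W) * (W * W * a) ≤ 13 * ρ * (W * W) := by
    calc 16 * (W * W) * (W * W * a) = (2 * W) ^ 4 * a := by ring
      _ ≤ 13 * (W * (W * ρ)) := b4
      _ = _ := by ring
  have b6 : 16 * (W * W * a) ≤ 13 * ρ := by
    have h5 : (16 * (W * W * a)) * (W * W) ≤ (13 * ρ) * (W * W) := by linarith
    exact le_of_mul_le_mul_right h5 (by positivity)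
  have b7 : W * a ≤ W * W * a := by
    have : W * a * 1 ≤ W * a * W := mul_le_mul_of_nonneg_left hW (by positivity)
    linarith
  have b8 : 0 < W * a := by positivity
  linarith

theorem nx {W x : ℝ} (hW : 1 ≤ W) (hxd : x = 2 * W) (x5 : 512 ≤ x) :
    26 * W ≤ x * x ∧ W * W ≤ x * x ∧ W ≤ 26 * W ∧ W ≤ x ∧ 8 ≤ x := by
  subst hxd
  refine ⟨by nlinarith, by nlinarith, by linarith, by linarith, by linarith⟩

theorem log_one {c1 cl cT x : ℝ} (hxd : x = 2 * W) (x5 : 512 ≤ x) (ha : 0 < a) (hw1 : 0 < w1)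
    (hc1 : 0 ≤ c1) (lg : Real.log (w1 / a) ≤ W) (hcl : c1 + 1 ≤ x ^ cl) (hcT : cl + 1 ≤ cT) :
    Real.log (x ^ c1 * w1 / a) ≤ x ^ cT := by
  have x0 : 0 < x := by linarith
  have x1 : 1 ≤ x := by linarith
  have e : x ^ c1 * w1 / a = x ^ c1 * (w1 / a) := by ring
  have h1 : Real.log x ≤ x := (Real.log_le_sub_one_of_pos x0).trans (by linarith)
  have h2 : c1 * Real.log x ≤ c1 * x := mul_le_mul_of_nonneg_left h1 hc1
  rw [e, Real.log_mul (Real.rpow_pos_of_pos x0 _).ne' (div_pos hw1 ha).ne', Real.log_rpow x0]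
  have h3 : (c1 + 1) * x ≤ x ^ cT := by
    calc (c1 + 1) * x ≤ x ^ cl * x := mul_le_mul_of_nonneg_right hcl x0.le
      _ = x ^ (cl + 1) := by rw [Real.rpow_add x0, Real.rpow_one]
      _ ≤ x ^ cT := pw x1 hcT
  linarith


/-- from the output of `TiltCore` to `Al1` -/
theorem al1_of {CF κ Y x cF c1 c2 cN cA CC : ℝ} {f g : Fin 3 → V3} {j k' t : ℕ}
    (H : Two1 qm qp L P cu cv Uf Vf W M a w1 w2 z0 ρ r) (ht : t ∈ P) (hxd : x = 2 * W)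
    (x5 : 512 ≤ x) (hCF1 : 1 ≤ CF) (hCFκ : CF ≤ κ) (κF : κ ≤ x ^ cF) (hcF : 0 ≤ cF)
    (hc1 : c1 = cF + 4) (hc2 : c2 = cF + 2) (hY0 : 0 < Y) (hcN : 0 ≤ cN) (hcA0 : 0 ≤ cA)
    (hCC0 : 0 ≤ CC)
    (hk1 : Y ≤ 2 * kp (Uf (cu t)) z0 ρ (L t)) (hk2 : kp (Uf (cu t)) z0 ρ (L t) ≤ Y)
    (haU : (Uf (cu t)).a ≤ Y) (haV : (Vf (cv t)).a ≤ Y) (hYw : κ * Y ≤ x ^ c2 * w2)
    (hww : x ^ c2 * w2 ≤ x ^ c1 * w1) (fu : FH CF Y (Uf (cu t)) f z0 ρ)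
    (fl : FL CF Y (Uf (cu t)) f z0 ρ) (fv : FH CF Y (Vf (cv t)) g z0 ρ)
    (hD : Dy f g (κ * Y) (x ^ c1 * w1) (x ^ c2 * w2) j k')
    (hjk : (2:ℝ) ^ j * 2 ^ k' ≤ x ^ cN) (hcA : cA = (1 + cN) * CC)
    (hCC : ∀ (S S' : Plk4) (T : Ln4) (f g : Fin 3 → V3) (W Y w1 w2 w1' w2' z0 ρ r : ℝ)
      (j k' : ℕ), 1 ≤ W → 0 < ρ → 0 < r → 0 < w1 → 0 < w2 → Shp S z0 ρ r → Shp S' z0 ρ r →
      InP T S z0 ρ → InP T S' z0 ρ → Near W w1 (S.w 1) → Near W w2 (S.w 2) →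
      Near W w1 (S'.w 1) → Near W w2 (S'.w 2) → S.a ≤ Y → S'.a ≤ Y → Y ≤ w2' → w2' ≤ w1' →
      w1 ≤ w1' → w1' ≤ (2 * W) ^ (2 * cF + 4) * w1 → w2 ≤ w2' →
      w2' ≤ (2 * W) ^ (2 * cF + 4) * w2 →
      FH ((2 * W) ^ (2 * cF + 4)) Y S f z0 ρ → FL ((2 * W) ^ (2 * cF + 4)) Y S f z0 ρ →
      FH ((2 * W) ^ (2 * cF + 4)) Y S' g z0 ρ → Dy f g Y w1' w2' j k' →
      angC S S' * w1 ≤ (2 * W * (2 ^ j * 2 ^ k')) ^ CC * w2 ∧
        CloseC S'.e S'.w S'.q S'.a S.q ((2 * W * (2 ^ j * 2 ^ k')) ^ CC * Y) T z0 ρ) :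
    Al1 ((2 * W) ^ (cA + cN + cF + 1)) (Uf (cu t)) (Vf (cv t)) (L t) a w1 w2 z0 ρ := by
  have hW := H.W1
  have hw1 := H.w10
  have hw2 := H.w20
  have ha := H.a0
  have x1 : 1 ≤ x := by linarith
  have x0 : 0 < x := by linarith
  have κ1 : 1 ≤ κ := hCF1.trans hCFκ
  have κ0 : 0 < κ := by linarith
  have CF0 : 0 < CF := by linarith
  have p2 : 0 < x ^ c2 := Real.rpow_pos_of_pos x0 _
  have p1 : 0 < x ^ c1 := Real.rpow_pos_of_pos x0 _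
  have g2 : (1:ℝ) ≤ x ^ c2 := Real.one_le_rpow x1 (by linarith)
  have g1 : (1:ℝ) ≤ x ^ c1 := Real.one_le_rpow x1 (by linarith)
  obtain ⟨s1, s2, s3, s4⟩ := shp_pos H.r0 (H.shU t ht)
  obtain ⟨v1, v2, v3, v4⟩ := shp_pos H.r0 (H.shV t ht)
  have hYκ : Y ≤ κ * Y := le_mul_of_one_le_left hY0.le κ1
  obtain ⟨K, hK⟩ : ∃ K : ℝ, K = kp (Uf (cu t)) z0 ρ (L t) := ⟨_, rfl⟩
  rw [← hK] at hk1 hk2
  have hK0 : 0 < K := by linarith
  -- constants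
  have z1 : κ ≤ (2 * W) ^ (2 * cF + 4) := by
    rw [← hxd]; exact κF.trans (pw x1 (by linarith))
  have z2 : CF ≤ (2 * W) ^ (2 * cF + 4) := hCFκ.trans z1
  have z3 : CF * κ ≤ (2 * W) ^ (2 * cF + 4) := by
    rw [← hxd]
    calc CF * κ ≤ x ^ cF * x ^ cF :=
          mul_le_mul (hCFκ.trans κF) κF κ0.le (Real.rpow_nonneg x0.le _)
      _ = x ^ (cF + cF) := by rw [Real.rpow_add x0]
      _ ≤ _ := pw x1 (by linarith)
  have z4 : x ^ c1 * w1 ≤ (2 * W) ^ (2 * cF + 4) * w1 := by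
    rw [← hxd]; exact mul_le_mul_of_nonneg_right (pw x1 (by linarith)) hw1.le
  have z5 : x ^ c2 * w2 ≤ (2 * W) ^ (2 * cF + 4) * w2 := by
    rw [← hxd]; exact mul_le_mul_of_nonneg_right (pw x1 (by linarith)) hw2.le
  obtain ⟨A1, A2⟩ := hCC (Uf (cu t)) (Vf (cv t)) (L t) f g W (κ * Y) w1 w2 (x ^ c1 * w1)
    (x ^ c2 * w2) z0 ρ r j k' hW H.ρ0 H.r0 hw1 hw2 (H.shU t ht) (H.shV t ht) (H.inU t ht)
    (H.inV t ht) (H.dimU t ht).2.1 (H.dimU t ht).2.2 (H.dimV t ht).2.1 (H.dimV t ht).2.2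
    (haU.trans hYκ) (haV.trans hYκ) hYw hww (le_mul_of_one_le_left hw1.le g1) z4
    (le_mul_of_one_le_left hw2.le g2) z5
    (FH.mono fu s4.le s3.le z2 (mul_le_mul z2 hYκ hY0.le (by linarith)))
    (FL.up fl CF0 κ1 z3 hY0.le s4.le s3.le)
    (FH.mono fv v4.le v3.le z2 (mul_le_mul z2 hYκ hY0.le (by linarith))) hD
  -- the final constant
  obtain ⟨E, hEd⟩ : ∃ E : ℝ, E = (2 * W) ^ (cA + cN + cF + 1) := ⟨_, rfl⟩
  rw [← hEd]
  have hN0 : (0:ℝ) < 2 ^ j * 2 ^ k' := by positivity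
  have b1 : (2 * W * (2 ^ j * 2 ^ k')) ^ CC ≤ x ^ cA := by
    rw [← hxd, hcA, Real.rpow_mul x0.le]
    refine Real.rpow_le_rpow (by positivity) ?_ hCC0
    rw [add_comm, Real.rpow_add x0, Real.rpow_one, mul_comm (x ^ cN) x]
    exact mul_le_mul_of_nonneg_left hjk x0.le
  have b0 : 0 ≤ (2 * W * (2 ^ j * 2 ^ k')) ^ CC :=
    Real.rpow_nonneg (by rw [← hxd]; positivity) _
  have hx2 : (2:ℝ) ≤ x := by linarith
  have c3 : 2 * κ ≤ x ^ (cF + 1) := by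
    rw [Real.rpow_add x0, Real.rpow_one, mul_comm 2 κ]
    exact mul_le_mul κF hx2 (by norm_num) (Real.rpow_nonneg x0.le _)
  have EA : x ^ cA ≤ E := by rw [hEd, ← hxd]; exact pw x1 (by linarith)
  have Eκ : 2 * κ ≤ E := by
    rw [hEd, ← hxd]; exact c3.trans (pw x1 (by linarith))
  have EAκ : x ^ cA * (2 * κ) ≤ E := by
    rw [hEd, ← hxd]
    calc x ^ cA * (2 * κ) ≤ x ^ cA * x ^ (cF + 1) :=
          mul_le_mul_of_nonneg_left c3 (Real.rpow_nonneg x0.le _)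
      _ = x ^ (cA + (cF + 1)) := by rw [← Real.rpow_add x0]
      _ ≤ _ := pw x1 (by linarith)
  have ENκ : x ^ cN * (2 * κ) ≤ E := by
    rw [hEd, ← hxd]
    calc x ^ cN * (2 * κ) ≤ x ^ cN * x ^ (cF + 1) :=
          mul_le_mul_of_nonneg_left c3 (Real.rpow_nonneg x0.le _)
      _ = x ^ (cN + (cF + 1)) := by rw [← Real.rpow_add x0]
      _ ≤ _ := pw x1 (by linarith)
  have E0 : 0 < E := by linarith
  have CFE : CF ≤ E := by linarith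
  have CYE : CF * Y ≤ E * K := by
    calc CF * Y ≤ κ * (2 * K) := mul_le_mul hCFκ hk1 hY0.le κ0.le
      _ = 2 * κ * K := by ring
      _ ≤ E * K := mul_le_mul_of_nonneg_right Eκ hK0.le
  have hκYK : κ * Y ≤ 2 * κ * K := by
    calc κ * Y ≤ κ * (2 * K) := mul_le_mul_of_nonneg_left hk1 κ0.le
      _ = _ := by ring
  -- tilts
  have hkj : (2:ℝ) ^ k' * (2 ^ j * (κ * Y)) ≤ E * K := by
    calc (2:ℝ) ^ k' * (2 ^ j * (κ * Y)) = (2 ^ j * 2 ^ k') * (κ * Y) := by ring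
      _ ≤ x ^ cN * (2 * κ * K) := mul_le_mul hjk hκYK (by positivity) (Real.rpow_nonneg x0.le _)
      _ = x ^ cN * (2 * κ) * K := by ring
      _ ≤ E * K := mul_le_mul_of_nonneg_right ENκ hK0.le
  have hj1 : (1:ℝ) ≤ 2 ^ j := one_le_pow₀ (by norm_num)
  have up1 : ∀ y : ℝ, 0 ≤ y → y * (x ^ c1 * w1) ≤ 2 ^ k' * (2 ^ j * (κ * Y)) →
      y * w1 ≤ E * K := by
    intro y hy h
    exact (mul_le_mul_of_nonneg_left (le_mul_of_one_le_left hw1.le g1) hy).trans (h.trans hkj)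
  have up2 : ∀ y : ℝ, 0 ≤ y → 2 ^ j * (y * (x ^ c2 * w2)) ≤ 2 ^ k' * (2 ^ j * (κ * Y)) →
      y * w2 ≤ E * K := by
    intro y hy h
    have h1 : y * w2 ≤ y * (x ^ c2 * w2) :=
      mul_le_mul_of_nonneg_left (le_mul_of_one_le_left hw2.le g2) hy
    have h2 : y * (x ^ c2 * w2) ≤ 2 ^ j * (y * (x ^ c2 * w2)) :=
      le_mul_of_one_le_left (by positivity) hj1
    exact h1.trans (h2.trans (h.trans hkj))
  refine ⟨?_, ?_, f, g, ?_, ?_, ?_, ?_, ?_, ?_, ?_⟩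
  · exact A1.trans (mul_le_mul_of_nonneg_right (b1.trans EA) hw2.le)
  · refine CloseC.mono A2 ?_
    rw [← hK]
    calc (2 * W * (2 ^ j * 2 ^ k')) ^ CC * (κ * Y) ≤ x ^ cA * (2 * κ * K) :=
          mul_le_mul b1 hκYK (by positivity) (Real.rpow_nonneg x0.le _)
      _ = x ^ cA * (2 * κ) * K := by ring
      _ ≤ E * K := mul_le_mul_of_nonneg_right EAκ hK0.le
  · rw [← hK]; exact FH.mono fu s4.le s3.le CFE CYE
  · rw [← hK]; exact FL.down fl CF0 CFE hk2 CYE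
  · rw [← hK]; exact FH.mono fv v4.le v3.le CFE CYE
  · rw [← hK, dt_comm]; exact up1 _ (abs_nonneg _) hD.t10
  · rw [← hK, dt_comm]; exact up2 _ (abs_nonneg _) hD.t20
  · rw [← hK]; exact up1 _ (abs_nonneg _) hD.t01
  · rw [← hK]; exact up2 _ (abs_nonneg _) hD.t02

end

set_option maxHeartbeats 4000000 in
/-- **core** : constant `W` with `512 ≤ 2 W`, extents at one level `Y0` -/
theorem core (hTC : TiltCore) (hFF : FlatFrame) (hWH : WideHull) (hTL : TubeL) (hSh : ShareL)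
    (η : ℝ) (qm qp : Fin 3 → ℝ) (hE : Ex2 η qm qp) : ∃ K0 C : ℝ, 0 ≤ K0 ∧ 0 ≤ C ∧
    ∀ (L : ℕ → Ln4) (P : Finset ℕ) (cu cv : ℕ → ℕ) (Uf Vf : ℕ → Plk4) (W M a w1 w2 z0 ρ r Y0 : ℝ),
      512 ≤ 2 * W → Two1 qm qp L P cu cv Uf Vf W M a w1 w2 z0 ρ r → P.Nonempty →
      (∀ t ∈ P, TypP ((2 * W) ^ K0) W a (Uf (cu t)) (Vf (cv t)) (L t) z0 ρ) → a ≤ Y0 →
      (∀ t ∈ P, Y0 ≤ kp (Uf (cu t)) z0 ρ (L t) ∧ kp (Uf (cu t)) z0 ρ (L t) ≤ 2 * Y0 ∧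
        kp (Vf (cv t)) z0 ρ (L t) ≤ 2 * Y0) →
      ∃ t ∈ P, Al1 ((2 * W) ^ C) (Uf (cu t)) (Vf (cv t)) (L t) a w1 w2 z0 ρ := by
  classical
  obtain ⟨CF, hCF1, hF⟩ := hFF
  obtain ⟨CH, hCH0, hH⟩ := hWH η qm qp hE
  obtain ⟨CB, hCB0, hB⟩ := hTL η qm qp hE
  obtain ⟨CT, hCT0, hT⟩ := hTC η qm qp hE
  obtain ⟨κ, hκd⟩ : ∃ κ : ℝ, κ = max CF 2 := ⟨_, rfl⟩
  have hκ2 : 2 ≤ κ := hκd ▸ le_max_right _ _
  have hCFκ : CF ≤ κ := hκd ▸ le_max_left _ _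
  obtain ⟨cF, hcF0, hcF⟩ := exc κ
  obtain ⟨c2, hc2d⟩ : ∃ c2 : ℝ, c2 = cF + 2 := ⟨_, rfl⟩
  obtain ⟨c1, hc1d⟩ : ∃ c1 : ℝ, c1 = cF + 4 := ⟨_, rfl⟩
  obtain ⟨K2, hK20, hK2⟩ := hSh η qm qp hE c1 (by linarith)
  obtain ⟨K0, hK0d⟩ : ∃ K0 : ℝ, K0 = max K2 4 := ⟨_, rfl⟩
  have hK04 : 4 ≤ K0 := hK0d ▸ le_max_right _ _
  obtain ⟨K1, CS, hK10, hCS0, hS⟩ := hK2 K0 (hK0d ▸ le_max_left _ _)
  obtain ⟨CC, hCC0, hCC⟩ := Cod248.closeOfDy (2 * cF + 4) (by linarith)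
  obtain ⟨cl, hcl0, hcl⟩ := exc (c1 + 1)
  have hq0 : 0 ≤ qm 0 := (hE.le 0).1
  have hq1 : 0 ≤ qm 1 := (hE.le 1).1
  have hq2 : 0 ≤ qm 2 := (hE.le 2).1
  have hp0 : 0 ≤ qp 0 := hq0.trans (hE.le 0).2
  have hp2 : 0 ≤ qp 2 := hq2.trans (hE.le 2).2
  have n1 : 0 ≤ (c1 + 4) * CH + c2 * (1 + qp 2) := by
    have : 0 ≤ c1 := by linarith
    have : 0 ≤ c2 := by linarith
    positivity
  have n2 : 0 ≤ (c1 + 1) * CB + c1 * (1 + qm 1) := by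
    have : 0 ≤ c1 := by linarith
    positivity
  have n3 : 0 ≤ CS + cF * (1 + qm 2) := by positivity
  obtain ⟨cT, hcTd⟩ : ∃ cT : ℝ, cT = (cl + 1) + ((c1 + 4) * CH + c2 * (1 + qp 2)) +
    ((c1 + 1) * CB + c1 * (1 + qm 1)) + (CS + cF * (1 + qm 2)) + K1 := ⟨_, rfl⟩
  obtain ⟨cN, hcNd⟩ : ∃ cN : ℝ, cN = (cT + 1) * CT := ⟨_, rfl⟩
  have hcN0 : 0 ≤ cN := by
    rw [hcNd]
    have : 0 ≤ cT := by linarith
    positivity
  obtain ⟨cA, hcAd⟩ : ∃ cA : ℝ, cA = (1 + cN) * CC := ⟨_, rfl⟩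
  have hcA0 : 0 ≤ cA := by rw [hcAd]; positivity
  refine ⟨K0, cA + cN + cF + 1, by linarith, by positivity, ?_⟩
  intro L P cu cv Uf Vf W M a w1 w2 z0 ρ r Y0 hx H hne hTy haY hk
  have hW := H.W1
  have hM := H.M0
  have hw1 := H.w10
  have hw2 := H.w20
  have ha := H.a0
  obtain ⟨x, hxd⟩ : ∃ x : ℝ, x = 2 * W := ⟨_, rfl⟩
  have x5 : 512 ≤ x := by rw [hxd]; exact hx
  have x1 : 1 ≤ x := by linarith
  have x0 : 0 < x := by linarith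
  have x2 : 2 ≤ x := by linarith
  have κF : κ ≤ x ^ cF := hcF x x2
  have κ0 : 0 < κ := by linarith
  have W0 : 0 < W := by linarith
  have pF : 0 < x ^ cF := Real.rpow_pos_of_pos x0 _
  -- `x ^ c2`, `x ^ c1`
  have e2 : x ^ c2 = x ^ cF * (x * x) := by
    rw [hc2d, Real.rpow_add x0, Real.rpow_two, sq]
  have e1 : x ^ c1 = x ^ c2 * (x * x) := by
    have : c1 = c2 + 2 := by rw [hc1d, hc2d]; ring
    rw [this, Real.rpow_add x0, Real.rpow_two, sq]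
  have p2 : 0 < x ^ c2 := Real.rpow_pos_of_pos x0 _
  have p1 : 0 < x ^ c1 := Real.rpow_pos_of_pos x0 _
  have g2 : (1:ℝ) ≤ x ^ c2 := Real.one_le_rpow x1 (by linarith)
  have g1 : (1:ℝ) ≤ x ^ c1 := Real.one_le_rpow x1 (by linarith)
  have k2 : κ * (26 * W) ≤ x ^ c2 := by
    rw [e2]
    exact mul_le_mul κF (nx hW hxd x5).1 (by positivity) pF.le
  have k2' : κ * W ≤ x ^ c2 :=
    (mul_le_mul_of_nonneg_left (nx hW hxd x5).2.2.1 κ0.le).trans k2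
  have k1 : x ^ c2 * (W * W) ≤ x ^ c1 := by
    rw [e1]
    exact mul_le_mul_of_nonneg_left (nx hW hxd x5).2.1 p2.le
  have x21 : x ^ c2 ≤ x ^ c1 := pw x1 (by linarith)
  -- sizes
  obtain ⟨Y, hYd⟩ : ∃ Y : ℝ, Y = 2 * Y0 := ⟨_, rfl⟩
  have hY0 : 0 < Y := by linarith
  obtain ⟨t0, ht0⟩ := hne
  have sz : ∀ t ∈ P, (Uf (cu t)).a ≤ Y ∧ (Vf (cv t)).a ≤ Y ∧ Y ≤ 26 * (Uf (cu t)).w 0 := by
    intro t ht
    obtain ⟨h1, h2, h3⟩ := hk t ht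
    have b := (hTy t ht).big
    have b1 : W ≤ (2 * W) ^ K0 := by
      have := pw (x := 2 * W) (by linarith) (show (1:ℝ) ≤ K0 by linarith)
      rw [Real.rpow_one] at this
      linarith
    have b2 : W * a ≤ (2 * W) ^ K0 * a := mul_le_mul_of_nonneg_right b1 ha.le
    have d1 := (H.dimU t ht).1.2
    have d2 := (H.dimV t ht).1.2
    have l1 := kp_le H.r0 H.ρ0.le (H.shU t ht) (H.inU t ht)
    refine ⟨by linarith, by linarith, by linarith⟩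
  have rρ : r ≤ ρ := r_le_rho hK04 H ht0 (hTy t0 ht0).big
  have hY26 : Y ≤ 26 * W * w2 := by
    have h1 := (sz t0 ht0).2.2
    have h2 := (H.shU t0 ht0).w0_le
    have h3 := (H.dimU t0 ht0).2.2.2
    calc Y ≤ 26 * (Uf (cu t0)).w 0 := h1
      _ ≤ 26 * (W * w2) := by linarith
      _ = _ := by ring
  have hYw : κ * Y ≤ x ^ c2 * w2 := by
    calc κ * Y ≤ κ * (26 * W * w2) := mul_le_mul_of_nonneg_left hY26 κ0.le
      _ = κ * (26 * W) * w2 := by ring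
      _ ≤ _ := mul_le_mul_of_nonneg_right k2 hw2.le
  have hww : x ^ c2 * w2 ≤ x ^ c1 * w1 := by
    have h1 := (H.dimU t0 ht0).2.2.1
    have h2 := (H.dimU t0 ht0).2.1.2
    have h3 := (H.shU t0 ht0).w_le
    have h4 : w2 ≤ W * W * w1 := by
      calc w2 ≤ W * (Uf (cu t0)).w 2 := h1
        _ ≤ W * (W * w1) := mul_le_mul_of_nonneg_left (h3.trans h2) W0.le
        _ = _ := by ring
    calc x ^ c2 * w2 ≤ x ^ c2 * (W * W * w1) := mul_le_mul_of_nonneg_left h4 p2.le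
      _ = x ^ c2 * (W * W) * w1 := by ring
      _ ≤ _ := mul_le_mul_of_nonneg_right k1 hw1.le
  have haY' : a ≤ Y := by linarith
  have hYκ : Y ≤ κ * Y := le_mul_of_one_le_left hY0.le (by linarith)
  -- frames
  obtain ⟨eu, bu, hu⟩ := frames hF H.ρ0 H.r0 H.shU H.inU (Y := Y)
    (fun t ht => ⟨(sz t ht).1, by have := (hk t ht).2.1; rw [hYd]; exact this⟩)
  obtain ⟨ev, bv, hv⟩ := frames hF H.ρ0 H.r0 H.shV H.inV (Y := Y)
    (fun t ht => ⟨(sz t ht).2.1, by have := (hk t ht).2.2; rw [hYd]; exact this⟩)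
  have hFL : ∀ t ∈ P, FL CF Y (Uf (cu t)) (eu (cu t)) z0 ρ := fun t ht =>
    (hu t ht).2.2 (by
      have h1 := (sz t ht).2.2
      have h2 := (shp_pos H.r0 (H.shU t ht)).2.1
      linarith)
  have CF0 : 0 < CF := by linarith
  have CFx : CF ≤ x ^ cF := hCFκ.trans κF
  have cF1 : x ^ cF ≤ x ^ c1 := pw x1 (by linarith)
  -- the abstract data
  have wd1 : ∀ y : ℝ, y ≤ W * w1 → CF * y ≤ x ^ c1 * w1 := by
    intro y hy
    calc CF * y ≤ κ * (W * w1) := (mul_le_mul_of_nonneg_left hy CF0.le).trans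
          (mul_le_mul_of_nonneg_right hCFκ (by positivity))
      _ = κ * W * w1 := by ring
      _ ≤ x ^ c1 * w1 := mul_le_mul_of_nonneg_right (k2'.trans x21) hw1.le
  have wd2 : ∀ y : ℝ, y ≤ W * w2 → CF * y ≤ x ^ c2 * w2 := by
    intro y hy
    calc CF * y ≤ κ * (W * w2) := (mul_le_mul_of_nonneg_left hy CF0.le).trans
          (mul_le_mul_of_nonneg_right hCFκ (by positivity))
      _ = κ * W * w2 := by ring
      _ ≤ x ^ c2 * w2 := mul_le_mul_of_nonneg_right k2' hw2.le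
  have hWT : W ≤ x ^ cT := by
    have := pw x1 (show (1:ℝ) ≤ cT by linarith)
    rw [Real.rpow_one] at this
    linarith
  have HC : TCore qm qp L P cu cv bu bv eu ev (x ^ cT) M a (κ * Y) (x ^ c1 * w1) (x ^ c2 * w2)
      z0 ρ := by
    have cT0 : 0 ≤ cT := by linarith
    refine
      { W1 := Real.one_le_rpow x1 cT0
        M0 := hM
        ρ0 := H.ρ0
        a0 := ha
        aY := haY'.trans hYκ
        Yw := hYw
        ww := hww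
        lg := ?_
        ou := fun t ht => (hu t ht).2.1.ortho
        ov := fun t ht => (hv t ht).2.1.ortho
        mu := ?_
        mv := ?_
        fu := ?_
        fv := ?_
        hull := ?_
        tubeu := ?_
        tubev := ?_
        share := ?_ }
    · exact log_one hxd x5 ha hw1 (by linarith) H.lg (hcl x x2) (by linarith)
    · intro t ht z hz hz' i
      have := (hu t ht).2.1.box (L t) (bu (cu t)) (H.inU t ht) (hu t ht).1 z hz hz' i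
      fin_cases i
      · exact this.trans (mul_le_mul_of_nonneg_right hCFκ hY0.le)
      · exact this.trans (wd1 _ (H.dimU t ht).2.1.2)
      · exact this.trans (wd2 _ (H.dimU t ht).2.2.2)
    · intro t ht z hz hz' i
      have := (hv t ht).2.1.box (L t) (bv (cv t)) (H.inV t ht) (hv t ht).1 z hz hz' i
      fin_cases i
      · exact this.trans (mul_le_mul_of_nonneg_right hCFκ hY0.le)
      · exact this.trans (wd1 _ (H.dimV t ht).2.1.2)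
      · exact this.trans (wd2 _ (H.dimV t ht).2.2.2)
    · intro t ht
      exact (H.fullU t ht).trans (mul_le_mul_of_nonneg_right hWT (Nat.cast_nonneg _))
    · intro t ht
      exact (H.fullV t ht).trans (mul_le_mul_of_nonneg_right hWT (Nat.cast_nonneg _))
    · have := hull_one (c1 := c1) (c2 := c2) (cT := cT) hx (by linarith) (by linarith) hCH0
        (by linarith) hp0 hp2 H (hH L P cu cv Uf Vf W M a w1 w2 z0 ρ r H rρ)
      rw [← hxd] at this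
      exact this
    · have := tube_one (c1 := c1) (c2 := c2) (cT := cT) (CF := CF) (Y := Y) (eu := eu) hx
        (by linarith) (by linarith) hCB0 (by rw [← hxd]; exact CFx.trans cF1) CF0.le
        (by linarith) hq1 H hY0.le hY26 (hB L P cu cv Uf Vf W M a w1 w2 z0 ρ r H rρ)
        (fun t ht => (hu t ht).2.1)
      rw [← hxd] at this
      intro t ht δ h1 h2
      exact this t ht δ (h1.trans_eq (by ring)) h2
    · have := tube_one (c1 := c1) (c2 := c2) (cT := cT) (CF := CF) (Y := Y) (eu := ev) hx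
        (by linarith) (by linarith) hCB0 (by rw [← hxd]; exact CFx.trans cF1) CF0.le
        (by linarith) hq1 (Bl5667.Two1.swap H) hY0.le hY26
        (hB L P cv cu Vf Uf W M a w1 w2 z0 ρ r (Bl5667.Two1.swap H) rρ)
        (fun t ht => (hv t ht).2.1)
      rw [← hxd] at this
      intro t ht δ h1 h2
      exact this t ht δ (h1.trans_eq (by ring)) h2
    · intro t ht
      have hC1 : CF ≤ (2 * W) ^ c1 := by rw [← hxd]; exact CFx.trans cF1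
      obtain ⟨s1, s2, s3, s4⟩ := shp_pos H.r0 (H.shU t ht)
      obtain ⟨v1, v2, v3, v4⟩ := shp_pos H.r0 (H.shV t ht)
      have := share_one (K1 := K1) (CS := CS) (cF := cF) (cT := cT) (κ := κ) (Y := Y)
        (N := ((P.filter fun s => cu s = cu t ∧ cv s = cv t).card : ℝ)) (w1' := x ^ c1 * w1)
        (w2' := x ^ c2 * w2) (f := eu (cu t)) (g := ev (cv t)) (qm := qm) hx hκ2
        (by rw [← hxd]; exact κF) hcF0 ha hM hY0 hq2 (by linarith) (by linarith)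
        (hS L P cu cv Uf Vf W M a w1 w2 z0 ρ r H rρ t ht (eu (cu t)) (ev (cv t)) Y (x ^ c1 * w1)
          (x ^ c2 * w2) (fun s hs h1 h2 => by
            have q1 := hTy s hs
            have q2 := hk s hs
            rw [h1, h2] at q1 q2
            exact ⟨q1, by linarith, by linarith⟩) haY' (hYκ.trans hYw) hww
          (le_mul_of_one_le_left hw1.le g1) (by rw [hxd]) (le_mul_of_one_le_left hw2.le g2)
          (by rw [← hxd]; exact mul_le_mul_of_nonneg_right x21 hw2.le)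
          (FH.mono (hu t ht).2.1 s4.le s3.le hC1 (mul_le_mul_of_nonneg_right hC1 hY0.le))
          (FL.down (hFL t ht) CF0 hC1 le_rfl (mul_le_mul_of_nonneg_right hC1 hY0.le))
          (FH.mono (hv t ht).2.1 v4.le v3.le hC1 (mul_le_mul_of_nonneg_right hC1 hY0.le)))
      rw [← hxd] at this
      exact this
  obtain ⟨t, ht, j, k', hD, hjk⟩ := hT L P cu cv bu bv eu ev (x ^ cT) M a (κ * Y) (x ^ c1 * w1)
    (x ^ c2 * w2) z0 ρ HC ⟨t0, ht0⟩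
  have hjk2 : (2:ℝ) ^ j * 2 ^ k' ≤ x ^ cN := by
    refine hjk.trans ?_
    rw [hcNd, Real.rpow_mul x0.le]
    refine Real.rpow_le_rpow (by positivity) ?_ hCT0
    rw [Real.rpow_add x0, Real.rpow_one, mul_comm]
    exact mul_le_mul_of_nonneg_left x2 (Real.rpow_nonneg x0.le _)
  obtain ⟨h1, h2, h3⟩ := hk t ht
  exact ⟨t, ht, al1_of H ht hxd x5 hCF1 hCFκ κF hcF0 hc1d hc2d hY0 hcN0 hcA0 hCC0
    (by linarith) (by linarith) (sz t ht).1 (sz t ht).2.1 hYw hww (hu t ht).2.1 (hFL t ht)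
    (hv t ht).2.1 hD hjk2 hcAd hCC⟩

/-- **(B6) base tilt theorem** -/
theorem btr_of (hTC : TiltCore) (hFF : FlatFrame) (hWH : WideHull) (hTL : TubeL)
    (hSh : ShareL) : BTR Al1 := by
  intro η qm qp hE
  obtain ⟨K0, C, hK0, hC0, hc⟩ := core hTC hFF hWH hTL hSh η qm qp hE
  refine ⟨9 * K0, 9 * C, by positivity, by positivity, ?_⟩
  intro L P cu cv Uf Vf W M a w1 w2 z0 ρ r H hne hT
  obtain ⟨P', p1, p2, H', hT', Y, haY, hk⟩ := ylevelP hK0 H hne hT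
  have hW := H.W1
  have h5 : 512 ≤ 2 * lift W 9 := by
    rw [two_lift]
    calc (512:ℝ) = 2 ^ (9:ℝ) := by norm_num
      _ ≤ (2 * W) ^ (9:ℝ) := Real.rpow_le_rpow (by norm_num) (by linarith) (by norm_num)
  obtain ⟨t, ht, h⟩ := hc L P' cu cv Uf Vf (lift W 9) M a w1 w2 z0 ρ r Y h5 H' p2 hT' haY hk
  rw [rpow_two_lift hW] at h
  exact ⟨t, p1 ht, h⟩

/-- the old form -/
theorem bt_of (hTC : TiltCore) (hFF : FlatFrame) (hWH : WideHull) (hTL : TubeL)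
    (hSh : ShareL) : BT := by
  intro η qm qp hE
  obtain ⟨K0, C, hK0, hC0, hc⟩ := btr_of hTC hFF hWH hTL hSh η qm qp hE
  refine ⟨K0, C, hK0, hC0, ?_⟩
  intro L P cu cv Uf Vf W M a w1 w2 z0 ρ r H hne hT
  obtain ⟨t, ht, h⟩ := hc L P cu cv Uf Vf W M a w1 w2 z0 ρ r H hne hT
  exact ⟨t, ht, h.ang, h.close⟩

end Crest.Agent.R136.Btr879
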