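import Crest.Agent.R136.Wk13_323

/-!
# R136 (S0187): mirrored lightlike window (C1*), `mirWin` (helper323, literal of helper940)
-/

set_option autoImplicit false
set_option linter.unusedVariables false

open Filter Topology Finset

namespace Crest.Agent.R136.Wk323

open Crest.Agent.R136.Sh605
open Crest.Agent.R138.Ex926 (Base U)
open Crest.Agent.R136.Gf356

/-- profile of the mirrored window -/
structure MirPr (Leg : Set (Fin 11 → ℝ)) (ν : (Fin 11 → ℝ) → ℝ) (x a m : ℝ) : Prop where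
  x0 : 0 < x
  zero : (0 : Fin 11 → ℝ) ∈ Leg
  all : vec fAll x ∈ Leg
  pos : vec fPos x ∈ Leg
  dir : vec fDir x ∈ Leg
  q0 : qv x 0 ∈ Leg
  q : qv x x ∈ Leg
  c : ∀ y, 0 ≤ y → y ≤ x → vec {6} y ∈ Leg
  dec : ν 0 + ν (vec fAll x) ≤ ν (vec fPos x) + ν (vec fDir x)
  fib : ν (qv x 0) - ν (qv x x) ≤ a * x
  conc : ∀ y, 0 ≤ y → y ≤ x → m * y ≤ ν 0 - ν (vec {6} y)

/-- **target**: no mirrored lightlike window -/
def MirWin : Prop := ∀ a m : ℝ, 0 ≤ a → a < 1 → 0 < m → ∃ η : ℝ, 0 < η ∧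
  ∀ (B : Base) (G : ℕ → RCfg (Fin 11)) (Leg : Set (Fin 11 → ℝ)) (ν : (Fin 11 → ℝ) → ℝ)
    (D R x : ℝ) (T : ℕ → ℕ → Ln4) (f : ℕ → ℕ → ℝ),
  RModel B G 1 R Leg ν D → x ≤ R → MirPr Leg ν x a m →
  (∀ᶠ n in (U : Filter ℕ), ∀ l k, (l, k) ∈ (G n).I → |(G n).z k| ≤ 1 ∧
    (∀ j, |(T n l).pos ((G n).z k) j| ≤ 1) ∧ (∀ j, |(T n l).v j| ≤ 1) ∧ |f n k| ≤ 1) →
  (∀ n k i l s, (G n).rel k i l s = coA (T n i) (T n l) 0 0 0 0 (f n k) ((G n).z k) s) →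
  ¬ ∀ᶠ n in (U : Filter ℕ), ∃ Z' ⊆ (G n).Z, Z'.Nonempty ∧
    B.d n ^ (η * x) * ((G n).Z.card : ℝ) ≤ Z'.card ∧
    ∃ μ : ℝ, B.d n ^ (η * x) ≤ |μ| ∧ ∀ k ∈ Z', ∀ k' ∈ Z',
      |f n k' - f n k - μ * ((G n).z k' - (G n).z k)| ≤ 2 * B.d n ^ x

/-- bound of exact relative coordinates -/
theorem coA_bound {T T' : Ln4} {fb z : ℝ} (h1 : ∀ j, |T.pos z j| ≤ 1) (h2 : ∀ j, |T.v j| ≤ 1)
    (h3 : ∀ j, |T'.pos z j| ≤ 1) (h4 : ∀ j, |T'.v j| ≤ 1) (h5 : |fb| ≤ 1) (s : Fin 11) :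
    |coA T T' 0 0 0 0 fb z s| ≤ 4 := by
  have d : ∀ {a b : ℝ}, |a| ≤ 1 → |b| ≤ 1 → |a - b| ≤ 2 := fun ha hb =>
    (abs_sub _ _).trans (by linarith)
  have v0 := d (h4 0) (h2 0)
  have v1 := d (h4 1) (h2 1)
  have v2 := d (h4 2) (h2 2)
  have p0 := d (h3 0) (h1 0)
  have p1 := d (h3 1) (h1 1)
  have p2 := d (h3 2) (h1 2)
  have m1 : |fb * (T'.v 2 - T.v 2)| ≤ 2 := by have := abs_mul_le h5 v2; linarith
  have m2 : |fb * (T'.pos z 2 - T.pos z 2)| ≤ 2 := by have := abs_mul_le h5 p2; linarith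
  fin_cases s
  · show |(0 : ℝ)| ≤ 4
    simp
  · show |(0 : ℝ)| ≤ 4
    simp
  · show |(0 : ℝ) - 0| ≤ 4
    simp
  · show |(0 : ℝ)| ≤ 4
    simp
  · show |(0 : ℝ) - 0| ≤ 4
    simp
  · show |T'.v 1 - T.v 1| ≤ 4
    linarith
  · show |(T'.v 2 - T.v 2) - 0 * (T'.v 1 - T.v 1)| ≤ 4
    rw [zero_mul, sub_zero]; linarith
  · show |(T'.v 0 - T.v 0) - 0 * (T'.v 1 - T.v 1) - fb * (T'.v 2 - T.v 2)| ≤ 4
    rw [zero_mul, sub_zero]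
    exact (abs_sub _ _).trans (by linarith)
  · show |T'.pos z 1 - T.pos z 1| ≤ 4
    linarith
  · show |(T'.pos z 2 - T.pos z 2) - 0 * (T'.pos z 1 - T.pos z 1)| ≤ 4
    rw [zero_mul, sub_zero]; linarith
  · show |(T'.pos z 0 - T.pos z 0) - 0 * (T'.pos z 1 - T.pos z 1) -
      fb * (T'.pos z 2 - T.pos z 2)| ≤ 4
    rw [zero_mul, sub_zero]
    exact (abs_sub _ _).trans (by linarith)

/-- `etaR` with fibre exponent `0` -/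
theorem etaR0_le {κ b Kf nh r lm0 : ℝ} (hr : 0 ≤ r) (hlm0 : 0 < lm0)
    (hQ : 0 ≤ 131072 * 383 * b ^ 6 * Kf / (κ * (κ ^ 7 / (2 * b ^ 4)) ^ 6 * nh ^ 2)) :
    RigData.etaR κ b Kf nh r 0 lm0 ≤
      r * (191 + 4 * (131072 * 383 * b ^ 6 * Kf / (κ * (κ ^ 7 / (2 * b ^ 4)) ^ 6 * nh ^ 2))) /
        lm0 := by
  unfold RigData.etaR
  refine div_le_div_of_nonneg_right (mul_le_mul_of_nonneg_left ?_ hr) hlm0.le
  rw [sub_zero, div_one, Real.rpow_one]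
  refine max_le (by linarith) (by linarith)

theorem q_eq {κ b nh K : ℝ} (hκ : 0 < κ) (hb : 0 < b) (hnh : 0 < nh) :
    131072 * 383 * b ^ 6 * (4 * K) / (κ * (κ ^ 7 / (2 * b ^ 4)) ^ 6 * nh ^ 2) =
      131072 * 383 * b ^ 6 * 4 * (2 * b ^ 4) ^ 6 * (K / κ ^ 43) / nh ^ 2 := by
  field_simp

/-- numbers of the mirrored window -/
theorem mir_num (B : Base) {x a θ K1 y : ℝ} (hθ : 0 < θ) (hK1 : K1 ≤ θ)
    (h1 : y < (1 - a) * x - 134 * θ) (hx : 0 < x) (ha0 : 0 ≤ a) :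
    ∀ᶠ n in (U : Filter ℕ), ∀ nh : ℝ, 1 / 2 ≤ nh →
      RigData.etaR (B.d n ^ (3 * θ)) ((13 ^ 8 : ℕ) : ℝ) (4 * B.d n ^ (-(a * x) - K1)) nh
        (2 * B.d n ^ (x - 3 * θ)) 0 (B.d n ^ θ) ≤ 2 * B.d n ^ y := by
  set b : ℝ := ((13 ^ 8 : ℕ) : ℝ) with hb
  have hb0 : 0 < b := by rw [hb]; positivity
  set c : ℝ := 4 * (131072 * 383 * b ^ 6 * 4 * (2 * b ^ 4) ^ 6) * 4 with hc
  have hc0 : 0 < c := by rw [hc]; positivity
  have hax : 0 ≤ a * x := mul_nonneg ha0 hx.le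
  filter_upwards [ev_abs B (show y < (1 - a) * x - 134 * θ by exact h1) (2 * c),
    ev_abs B (show y < x - 4 * θ by nlinarith) (2 * (2 * 191))] with n h2 h3 nh hnh
  have hpow : ∀ t : ℝ, 0 < B.d n ^ t := fun t => rpos B n t
  have hnh0 : 0 < nh := by linarith
  have hκ : 0 < B.d n ^ (3 * θ) := hpow _
  have hκ43 : (B.d n ^ (3 * θ)) ^ 43 = B.d n ^ (129 * θ) := by
    rw [pow_rp]; congr 1; push_cast; ring
  have hQ0 : 0 ≤ 131072 * 383 * b ^ 6 * (4 * B.d n ^ (-(a * x) - K1)) /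
      (B.d n ^ (3 * θ) * ((B.d n ^ (3 * θ)) ^ 7 / (2 * b ^ 4)) ^ 6 * nh ^ 2) := by
    have := hpow (-(a * x) - K1)
    positivity
  refine (etaR0_le (mul_nonneg (by norm_num) (hpow _).le) (hpow θ) hQ0).trans ?_
  rw [q_eq hκ hb0 hnh0, hκ43, div_le_iff₀ (hpow θ)]
  have e1 : B.d n ^ (-(a * x) - K1) / B.d n ^ (129 * θ) ≤ B.d n ^ (-(a * x) - 130 * θ) := by
    rw [div_le_iff₀ (hpow _), ← rpow_add']
    exact rpow_anti B n (by linarith)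
  have hnh2 : 1 ≤ 4 * nh ^ 2 := by nlinarith
  have e2 : 131072 * 383 * b ^ 6 * 4 * (2 * b ^ 4) ^ 6 *
      (B.d n ^ (-(a * x) - K1) / B.d n ^ (129 * θ)) / nh ^ 2 ≤
      c / 4 * B.d n ^ (-(a * x) - 130 * θ) := by
    rw [div_le_iff₀ (by positivity)]
    have e3 : c / 4 * B.d n ^ (-(a * x) - 130 * θ) * nh ^ 2 =
        131072 * 383 * b ^ 6 * 4 * (2 * b ^ 4) ^ 6 * B.d n ^ (-(a * x) - 130 * θ) *
          (4 * nh ^ 2) := by rw [hc]; ring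
    rw [e3]
    have e4 : 131072 * 383 * b ^ 6 * 4 * (2 * b ^ 4) ^ 6 *
        (B.d n ^ (-(a * x) - K1) / B.d n ^ (129 * θ)) ≤
        131072 * 383 * b ^ 6 * 4 * (2 * b ^ 4) ^ 6 * B.d n ^ (-(a * x) - 130 * θ) :=
      mul_le_mul_of_nonneg_left e1 (by positivity)
    have e5 : 0 ≤ 131072 * 383 * b ^ 6 * 4 * (2 * b ^ 4) ^ 6 * B.d n ^ (-(a * x) - 130 * θ) := by
      have := hpow (-(a * x) - 130 * θ)
      positivity
    nlinarith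
  have e6 : 2 * B.d n ^ (x - 3 * θ) * (191 + 4 * (131072 * 383 * b ^ 6 * 4 * (2 * b ^ 4) ^ 6 *
      (B.d n ^ (-(a * x) - K1) / B.d n ^ (129 * θ)) / nh ^ 2)) ≤
      2 * B.d n ^ (x - 3 * θ) * (191 + 4 * (c / 4 * B.d n ^ (-(a * x) - 130 * θ))) :=
    mul_le_mul_of_nonneg_left (by linarith) (mul_nonneg (by norm_num) (hpow _).le)
  refine e6.trans ?_
  have e7 : B.d n ^ (x - 3 * θ) * B.d n ^ (-(a * x) - 130 * θ) =
      B.d n ^ ((1 - a) * x - 134 * θ) * B.d n ^ θ := by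
    rw [← rpow_add', ← rpow_add']; congr 1; ring
  have e8 : B.d n ^ (x - 3 * θ) = B.d n ^ (x - 4 * θ) * B.d n ^ θ := by
    rw [← rpow_add']; congr 1; ring
  calc 2 * B.d n ^ (x - 3 * θ) * (191 + 4 * (c / 4 * B.d n ^ (-(a * x) - 130 * θ))) =
        (2 * 191) * B.d n ^ (x - 3 * θ) +
          2 * c * (B.d n ^ (x - 3 * θ) * B.d n ^ (-(a * x) - 130 * θ)) := by ring
    _ = (2 * 191 * B.d n ^ (x - 4 * θ) + 2 * c * B.d n ^ ((1 - a) * x - 134 * θ)) *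
          B.d n ^ θ := by rw [e7]; nth_rewrite 1 [e8]; ring
    _ ≤ (2 * B.d n ^ y) * B.d n ^ θ := by
        refine mul_le_mul_of_nonneg_right ?_ (hpow θ).le
        have := hpow y
        linarith
    _ = _ := by ring

theorem mir_hn (B : Base) {x a θ K1 : ℝ} (hθ : 0 < θ) (hK1 : K1 ≤ θ)
    (h1 : 68 * θ < (1 - a) * x) (hx : 0 < x) (ha0 : 0 ≤ a) :
    ∀ᶠ n in (U : Filter ℕ), ∀ q : ℝ,
      256 * (((13 ^ 8 : ℕ) : ℝ)) ^ 3 ≤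
        ((B.d n ^ (3 * θ)) ^ 7 / (2 * (((13 ^ 8 : ℕ) : ℝ)) ^ 4)) ^ 3 * (Nn B x n : ℝ) ∧
      256 * (((13 ^ 8 : ℕ) : ℝ)) ^ 3 * (4 * B.d n ^ (-(a * x) - K1) * q ^ (0 : ℝ)) <
        B.d n ^ (3 * θ) * ((B.d n ^ (3 * θ)) ^ 7 / (2 * (((13 ^ 8 : ℕ) : ℝ)) ^ 4)) ^ 3 *
          (Nn B x n : ℝ) := by
  set b : ℝ := ((13 ^ 8 : ℕ) : ℝ) with hb
  have hb0 : 0 < b := by rw [hb]; positivity
  have hax : 0 ≤ a * x := mul_nonneg ha0 hx.le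
  filter_upwards [ev_abs B (show 63 * θ - x < 0 by nlinarith) (256 * b ^ 3 * (8 * b ^ 12) * 2),
    ev_abs B (show 66 * θ - x < -(a * x) - θ by nlinarith)
      (256 * b ^ 3 * 4 * (8 * b ^ 12) * 2 + 1)] with n h2 h3 q
  have hpow : ∀ t : ℝ, 0 < B.d n ^ t := fun t => rpos B n t
  set κ : ℝ := B.d n ^ (3 * θ) with hκ
  have hκ0 : 0 < κ := hpow _
  have hκ21 : κ ^ 21 = B.d n ^ (63 * θ) := by
    rw [hκ, pow_rp]; congr 1; push_cast; ring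
  have hκ22 : κ ^ 22 = B.d n ^ (66 * θ) := by
    rw [hκ, pow_rp]; congr 1; push_cast; ring
  have hN := half_le_Nn B hx.le n
  have e1 : (κ ^ 7 / (2 * b ^ 4)) ^ 3 = κ ^ 21 / (8 * b ^ 12) := by
    field_simp
    ring
  constructor
  · rw [e1]
    rw [Real.rpow_zero, mul_one] at h2
    have e2 : B.d n ^ (63 * θ - x) = κ ^ 21 * B.d n ^ (-x) := by
      rw [hκ21, ← rpow_add']; congr 1
    rw [e2] at h2
    have h6 : κ ^ 21 * B.d n ^ (-x) ≤ κ ^ 21 * (2 * (Nn B x n : ℝ)) :=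
      mul_le_mul_of_nonneg_left hN (by positivity)
    rw [div_mul_eq_mul_div, le_div_iff₀ (by positivity)]
    nlinarith
  · rw [e1, Real.rpow_zero, mul_one]
    have e4 : κ * (κ ^ 21 / (8 * b ^ 12)) * (Nn B x n : ℝ) =
        κ ^ 22 * (Nn B x n : ℝ) / (8 * b ^ 12) := by ring
    rw [e4, lt_div_iff₀ (by positivity)]
    have e6 : B.d n ^ (66 * θ - x) = κ ^ 22 * B.d n ^ (-x) := by
      rw [hκ22, ← rpow_add']; congr 1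
    rw [e6] at h3
    have h8 : κ ^ 22 * B.d n ^ (-x) ≤ κ ^ 22 * (2 * (Nn B x n : ℝ)) :=
      mul_le_mul_of_nonneg_left hN (by positivity)
    have h9 : B.d n ^ (-(a * x) - K1) ≤ B.d n ^ (-(a * x) - θ) := rpow_anti B n (by linarith)
    have h10 := hpow (-(a * x) - θ)
    have h11 : 0 ≤ 256 * b ^ 3 * 4 * (8 * b ^ 12) := by positivity
    have h12 := mul_le_mul_of_nonneg_left h9 h11
    nlinarith

/-- `n1` -/
theorem mir_n1 (B : Base) {v0 vP vD vA e Cu θ : ℝ} (he : 0 < e) (hCu : 0 ≤ Cu)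
    (hdec : v0 + vA ≤ vP + vD) (hθ : (7 + 2 * Cu) * e < 2 * θ) :
    ∀ᶠ n in (U : Filter ℕ), ∀ Ln : ℝ, B.d n ^ (-v0 + e) ≤ Ln →
      B.d n ^ (3 * θ) * B.d n ^ (-(v0 - vP) - e) * B.d n ^ (-(v0 - vD) - e) *
        B.d n ^ (-vA - Cu * (2 * e)) ≤ (B.d n ^ e) ^ 2 * (B.d n ^ (θ + e) / 8 * Ln) := by
  filter_upwards [ev_abs B (show θ - v0 + 4 * e < 3 * θ - v0 - (2 + 2 * Cu) * e by linarith) 8]
    with n h Ln hLn
  have hpow : ∀ t : ℝ, 0 < B.d n ^ t := fun t => rpos B n t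
  have e1 : B.d n ^ (3 * θ) * B.d n ^ (-(v0 - vP) - e) * B.d n ^ (-(v0 - vD) - e) *
      B.d n ^ (-vA - Cu * (2 * e)) ≤ B.d n ^ (3 * θ - v0 - (2 + 2 * Cu) * e) := by
    rw [← rpow_add', ← rpow_add', ← rpow_add']
    exact rpow_anti B n (by linarith)
  refine e1.trans ?_
  have e2 : (B.d n ^ e) ^ 2 * (B.d n ^ (θ + e) / 8 * B.d n ^ (-v0 + e)) =
      B.d n ^ (θ - v0 + 4 * e) / 8 := by
    have : (B.d n ^ e) ^ 2 * (B.d n ^ (θ + e) * B.d n ^ (-v0 + e)) = B.d n ^ (θ - v0 + 4 * e) := by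
      rw [pow_rp, ← rpow_add', ← rpow_add']; congr 1; push_cast; ring
    rw [← this]; ring
  have e3 : (B.d n ^ e) ^ 2 * (B.d n ^ (θ + e) / 8 * B.d n ^ (-v0 + e)) ≤
      (B.d n ^ e) ^ 2 * (B.d n ^ (θ + e) / 8 * Ln) := by
    refine mul_le_mul_of_nonneg_left (mul_le_mul_of_nonneg_left hLn ?_) (by positivity)
    have := hpow (θ + e)
    positivity
  refine le_trans ?_ e3
  rw [e2, le_div_iff₀ (by norm_num)]
  linarith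

/-- `n2` -/
theorem mir_n2 (B : Base) {v0 v6 vD e Cc Cd θ : ℝ} (he : 0 < e) (hCc : 0 ≤ Cc) (hCd : 0 ≤ Cd)
    (hcon : 20 * θ ≤ v0 - v6) (hθ : (Cc + 2 * Cd + 5) * e < θ) :
    ∀ᶠ n in (U : Filter ℕ), ∀ Ln : ℝ, B.d n ^ (-v0 + e) ≤ Ln →
      B.d n ^ (-(v6 - vD) - Cc * e) * B.d n ^ (-vD - Cd * (2 * e)) ≤
        ((B.d n ^ (3 * θ)) ^ 2 / ((13 ^ 8 : ℕ) : ℝ)) ^ 3 / 4 *
          ((B.d n ^ e) ^ 2 * (B.d n ^ (θ + e) / 8 * Ln)) := by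
  set b : ℝ := ((13 ^ 8 : ℕ) : ℝ) with hb
  have hb0 : 0 < b := by rw [hb]; positivity
  filter_upwards [ev_abs B (show 19 * θ - v0 + 4 * e < 20 * θ - v0 - (Cc + 2 * Cd) * e by
    nlinarith) (32 * b ^ 3)] with n h Ln hLn
  have hpow : ∀ t : ℝ, 0 < B.d n ^ t := fun t => rpos B n t
  have e1 : B.d n ^ (-(v6 - vD) - Cc * e) * B.d n ^ (-vD - Cd * (2 * e)) ≤
      B.d n ^ (20 * θ - v0 - (Cc + 2 * Cd) * e) := by
    rw [← rpow_add']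
    exact rpow_anti B n (by linarith)
  have e2 : (B.d n ^ (3 * θ)) ^ 6 = B.d n ^ (18 * θ) := by
    rw [pow_rp]; congr 1; push_cast; ring
  have e3 : ((B.d n ^ (3 * θ)) ^ 2 / b) ^ 3 / 4 * ((B.d n ^ e) ^ 2 * (B.d n ^ (θ + e) / 8 *
      B.d n ^ (-v0 + e))) = B.d n ^ (19 * θ - v0 + 4 * e) / (32 * b ^ 3) := by
    have a1 : (B.d n ^ (3 * θ)) ^ 6 * ((B.d n ^ e) ^ 2 * (B.d n ^ (θ + e) * B.d n ^ (-v0 + e))) =
        B.d n ^ (19 * θ - v0 + 4 * e) := by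
      rw [e2, pow_rp, ← rpow_add', ← rpow_add', ← rpow_add']; congr 1; push_cast; ring
    rw [← a1]
    field_simp
    ring
  have e4 : ((B.d n ^ (3 * θ)) ^ 2 / b) ^ 3 / 4 * ((B.d n ^ e) ^ 2 * (B.d n ^ (θ + e) / 8 *
      B.d n ^ (-v0 + e))) ≤ ((B.d n ^ (3 * θ)) ^ 2 / b) ^ 3 / 4 *
      ((B.d n ^ e) ^ 2 * (B.d n ^ (θ + e) / 8 * Ln)) := by
    have h1 := hpow (3 * θ)
    have h2 := hpow (θ + e)
    have h3 := hpow e
    refine mul_le_mul_of_nonneg_left (mul_le_mul_of_nonneg_left (mul_le_mul_of_nonneg_left hLn ?_)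
      ?_) ?_ <;> positivity
  refine e1.trans (le_trans ?_ e4)
  rw [e3, le_div_iff₀ (by positivity)]
  linarith

end Crest.Agent.R136.Wk323
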