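import Crest.Agent.R136.C1sD_940
import Crest.Agent.R136.Wk14_323

/-!
# R136, case C1* (mirrored lightlike), part B (helper940)

`recG` : the configuration with relative coordinates recomputed from the absolute lines, flags 21
dropped, indices of the two base directions exchanged.  `recG_model` : it is a model for the uniform
boxes.  `no_slope_mir` : no heavy sloped strip.
-/

set_option autoImplicit false
set_option linter.unusedVariables false
set_option linter.unusedSectionVars false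

open Filter Topology Finset

namespace Crest.Agent.R136.C1s940

open Crest.Agent.R136.Sh605
open Crest.Agent.R138.Ex926 (Base U)
open Crest.Agent.R136.Gf356
open Crest.Agent.R136.CD366
open Crest.Agent.R136.Wk323 (vec fAll fPos fDir qv coA MirPr MirWin)

/-- the line with the two base directions exchanged -/
def swL (T : Ln4) : Ln4 := ⟨![T.p 0, T.p 2, T.p 1], ![T.v 0, T.v 2, T.v 1]⟩

theorem swL_v0 (T : Ln4) : (swL T).v 0 = T.v 0 := rfl
theorem swL_v1 (T : Ln4) : (swL T).v 1 = T.v 2 := rfl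
theorem swL_v2 (T : Ln4) : (swL T).v 2 = T.v 1 := rfl
theorem swL_pos0 (T : Ln4) (z : ℝ) : (swL T).pos z 0 = T.pos z 0 := rfl
theorem swL_pos1 (T : Ln4) (z : ℝ) : (swL T).pos z 1 = T.pos z 2 := rfl
theorem swL_pos2 (T : Ln4) (z : ℝ) : (swL T).pos z 2 = T.pos z 1 := rfl

/-- the recomputed configuration -/
def recG (G : ℕ → RCfg (Fin 11)) (T : ℕ → ℕ → Ln4) (f : ℕ → ℕ → ℝ) : ℕ → RCfg (Fin 11) :=
  fun n => { G n with
    rel := (fun k i l => coA (swL (T n i)) (swL (T n l)) 0 0 0 0 (f n k) ((G n).z k)) }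

/-- translation of the boxes -/
def piB (p : Fin 11 → ℝ) : Fin 11 → ℝ := ![0, 0, 0, 0, 0, p 6, p 5, p 7, p 9, p 8, p 10]

/-- admissible boxes -/
def LegB (Leg : Set (Fin 11 → ℝ)) (x : ℝ) : Set (Fin 11 → ℝ) :=
  {p | piB p ∈ Leg ∧ (∀ s, p s ≤ x) ∧ p 5 ≤ p 6 ∧ p 8 ≤ p 9}

/-- the recomputed coordinates -/
theorem coA_sw (T T' : Ln4) (f z : ℝ) : coA (swL T) (swL T') 0 0 0 0 f z =
    ![0, 0, 0, 0, 0, T'.v 2 - T.v 2, T'.v 1 - T.v 1, (T'.v 0 - T.v 0) - f * (T'.v 1 - T.v 1),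
      T'.pos z 2 - T.pos z 2, T'.pos z 1 - T.pos z 1,
      (T'.pos z 0 - T.pos z 0) - f * (T'.pos z 1 - T.pos z 1)] := by
  funext s
  fin_cases s <;> simp [coA, swL_v0, swL_v1, swL_v2, swL_pos0, swL_pos1, swL_pos2]

variable {B : Base} {G : ℕ → RCfg (Fin 11)} {Leg : Set (Fin 11 → ℝ)} {ν : (Fin 11 → ℝ) → ℝ}
  {D R R0 x a m : ℝ} {T : ℕ → ℕ → Ln4} {e : ℕ → ℕ → ℝ} {f : ℕ → ℕ → ℝ}

section

variable {ρ p5 p6 : ℝ}

/-- numbers `≤ c ρ^(p - ε)` are `≤ ρ^(p - 2 ε)` -/
theorem ab2 (B : Base) (n : ℕ) {y p ε c : ℝ} (hc : c ≤ B.d n ^ (-ε))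
    (hy : |y| ≤ c * B.d n ^ (p - ε)) : |y| ≤ B.d n ^ (p - 2 * ε) := by
  refine hy.trans ?_
  have e1 : B.d n ^ (p - 2 * ε) = B.d n ^ (-ε) * B.d n ^ (p - ε) := by
    rw [← rpow_add']; congr 1; ring
  rw [e1]
  exact mul_le_mul_of_nonneg_right hc (rpos B n _).le

end

/-- `loose → loose'` -/
theorem loose_rec (hbase : ∀ n, (G n).ρ = B.d n) (A : MirGeo B G x T e f) {ε : ℝ} (hε : 0 < ε) :
    ∀ᶠ n in (U : Filter ℕ), ∀ p : Fin 11 → ℝ, (∀ s, p s ≤ x) → p 5 ≤ p 6 → p 8 ≤ p 9 →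
      ∀ k i l, (i, k) ∈ (G n).I → (l, k) ∈ (G n).I → (G n).loose (piB p) ε k i l →
      (recG G T f n).loose p (2 * ε) k i l := by
  filter_upwards [A.bd, A.rel ε hε, ev_const_le B hε 4] with n hbd hrel h4 p hpx h56 h89 k i l
    hi hl hlo
  have hpow : ∀ t : ℝ, 0 < B.d n ^ t := fun t => rpos B n t
  have he := (hbd i k hi).2.2.2.1
  have hx : ∀ s, B.d n ^ (x - ε) ≤ B.d n ^ (p s - ε) := fun s =>
    rpow_anti B n (by linarith [hpx s])
  have r5 := hrel k i l hi hl 5 (by decide)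
  have r6 := hrel k i l hi hl 6 (by decide)
  have r7 := hrel k i l hi hl 7 (by decide)
  have r8 := hrel k i l hi hl 8 (by decide)
  have r9 := hrel k i l hi hl 9 (by decide)
  have r10 := hrel k i l hi hl 10 (by decide)
  have l5 := hlo 5
  have l6 := hlo 6
  have l7 := hlo 7
  have l8 := hlo 8
  have l9 := hlo 9
  have l10 := hlo 10
  rw [hbase n] at l5 l6 l7 l8 l9 l10
  simp only [piB, Matrix.cons_val] at l5 l6 l7 l8 l9 l10
  simp only [coM, Matrix.cons_val] at r5 r6 r7 r8 r9 r10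
  have hrho : (recG G T f n).ρ = B.d n := hbase n
  have h1 : (1 : ℝ) ≤ B.d n ^ (-ε) := by linarith
  have x5 := hx 5
  have x6 := hx 6
  have x7 := hx 7
  have x8 := hx 8
  have x9 := hx 9
  have x10 := hx 10
  have m56 : B.d n ^ (p 6 - ε) ≤ B.d n ^ (p 5 - ε) := rpow_anti B n (by linarith)
  have m89 : B.d n ^ (p 9 - ε) ≤ B.d n ^ (p 8 - ε) := rpow_anti B n (by linarith)
  -- wide velocity
  have w5 : |(T n l).v 1 - (T n i).v 1| ≤ 2 * B.d n ^ (p 6 - ε) := by
    have := abs_sub_abs_le_abs_sub ((T n l).v 1 - (T n i).v 1) ((G n).rel k i l 5)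
    rw [abs_sub_comm] at r5
    linarith
  have w8 : |(T n l).pos ((G n).z k) 1 - (T n i).pos ((G n).z k) 1| ≤ 2 * B.d n ^ (p 9 - ε) := by
    have := abs_sub_abs_le_abs_sub ((T n l).pos ((G n).z k) 1 - (T n i).pos ((G n).z k) 1)
      ((G n).rel k i l 8)
    rw [abs_sub_comm] at r8
    linarith
  have e5 : |e n i * ((T n l).v 1 - (T n i).v 1)| ≤ 2 * B.d n ^ (p 6 - ε) := by
    rw [abs_mul]
    calc _ ≤ 1 * (2 * B.d n ^ (p 6 - ε)) := mul_le_mul he w5 (abs_nonneg _) zero_le_one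
      _ = _ := one_mul _
  have e8 : |e n i * ((T n l).pos ((G n).z k) 1 - (T n i).pos ((G n).z k) 1)| ≤
      2 * B.d n ^ (p 9 - ε) := by
    rw [abs_mul]
    calc _ ≤ 1 * (2 * B.d n ^ (p 9 - ε)) := mul_le_mul he w8 (abs_nonneg _) zero_le_one
      _ = _ := one_mul _
  intro s
  rw [hrho]
  show |coA (swL (T n i)) (swL (T n l)) 0 0 0 0 (f n k) ((G n).z k) s| ≤ _
  rw [coA_sw]
  have hz : |(0 : ℝ)| ≤ B.d n ^ (p s - 2 * ε) := by rw [abs_zero]; exact (hpow _).le
  fin_cases s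
  · exact hz
  · exact hz
  · exact hz
  · exact hz
  · exact hz
  · refine ab2 B n h4 ?_
    simp only [Matrix.cons_val, Fin.reduceFinMk]
    rw [abs_le] at r6 l6 e5 ⊢
    constructor <;> linarith [r6.1, r6.2, l6.1, l6.2, e5.1, e5.2]
  · refine ab2 B n h4 ?_
    simp only [Matrix.cons_val, Fin.reduceFinMk]
    linarith [hpow (p 6 - ε)]
  · refine ab2 B n h4 ?_
    simp only [Matrix.cons_val, Fin.reduceFinMk]
    have := hpow (p 7 - ε)
    rw [abs_le] at r7 l7 ⊢
    constructor <;> linarith [r7.1, r7.2, l7.1, l7.2]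
  · refine ab2 B n h4 ?_
    simp only [Matrix.cons_val, Fin.reduceFinMk]
    rw [abs_le] at r9 l9 e8 ⊢
    constructor <;> linarith [r9.1, r9.2, l9.1, l9.2, e8.1, e8.2]
  · refine ab2 B n h4 ?_
    simp only [Matrix.cons_val, Fin.reduceFinMk]
    linarith [hpow (p 9 - ε)]
  · refine ab2 B n h4 ?_
    simp only [Matrix.cons_val, Fin.reduceFinMk]
    have := hpow (p 10 - ε)
    rw [abs_le] at r10 l10 ⊢
    constructor <;> linarith [r10.1, r10.2, l10.1, l10.2]

/-- `loose' → loose` -/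
theorem rec_loose (hbase : ∀ n, (G n).ρ = B.d n) (A : MirGeo B G x T e f) {ε : ℝ} (hε : 0 < ε) :
    ∀ᶠ n in (U : Filter ℕ), ∀ p : Fin 11 → ℝ, (∀ s, p s ≤ x) → p 5 ≤ p 6 → p 8 ≤ p 9 →
      ∀ k i l, (i, k) ∈ (G n).I → (l, k) ∈ (G n).I → (recG G T f n).loose p ε k i l →
      (G n).loose (piB p) (2 * ε) k i l := by
  filter_upwards [A.bd, A.bdr, A.rel ε hε, ev_const_le B hε 4] with n hbd hbdr hrel h4 p hpx h56
    h89 k i l hi hl hlo
  have hpow : ∀ t : ℝ, 0 < B.d n ^ t := fun t => rpos B n t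
  have he := (hbd i k hi).2.2.2.1
  have hx : ∀ s, B.d n ^ (x - ε) ≤ B.d n ^ (p s - ε) := fun s =>
    rpow_anti B n (by linarith [hpx s])
  have r5 := hrel k i l hi hl 5 (by decide)
  have r6 := hrel k i l hi hl 6 (by decide)
  have r7 := hrel k i l hi hl 7 (by decide)
  have r8 := hrel k i l hi hl 8 (by decide)
  have r9 := hrel k i l hi hl 9 (by decide)
  have r10 := hrel k i l hi hl 10 (by decide)
  have hlo' : ∀ s, |coA (swL (T n i)) (swL (T n l)) 0 0 0 0 (f n k) ((G n).z k) s| ≤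
      B.d n ^ (p s - ε) := by
    intro s
    have := hlo s
    rw [show (recG G T f n).ρ = B.d n from hbase n] at this
    exact this
  rw [coA_sw] at hlo'
  have l5 := hlo' 5
  have l6 := hlo' 6
  have l7 := hlo' 7
  have l8 := hlo' 8
  have l9 := hlo' 9
  have l10 := hlo' 10
  simp only [Matrix.cons_val] at l5 l6 l7 l8 l9 l10
  simp only [coM, Matrix.cons_val] at r5 r6 r7 r8 r9 r10
  have x5 := hx 5
  have x6 := hx 6
  have x7 := hx 7
  have x8 := hx 8
  have x9 := hx 9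
  have x10 := hx 10
  have m56 : B.d n ^ (p 6 - ε) ≤ B.d n ^ (p 5 - ε) := rpow_anti B n (by linarith)
  have m89 : B.d n ^ (p 9 - ε) ≤ B.d n ^ (p 8 - ε) := rpow_anti B n (by linarith)
  have e5 : |e n i * ((T n l).v 1 - (T n i).v 1)| ≤ B.d n ^ (p 6 - ε) := by
    rw [abs_mul]
    calc _ ≤ 1 * (B.d n ^ (p 6 - ε)) := mul_le_mul he l6 (abs_nonneg _) zero_le_one
      _ = _ := one_mul _
  have e8 : |e n i * ((T n l).pos ((G n).z k) 1 - (T n i).pos ((G n).z k) 1)| ≤
      B.d n ^ (p 9 - ε) := by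
    rw [abs_mul]
    calc _ ≤ 1 * (B.d n ^ (p 9 - ε)) := mul_le_mul he l9 (abs_nonneg _) zero_le_one
      _ = _ := one_mul _
  have hb : ∀ s, |(G n).rel k i l s| ≤ B.d n ^ ((0 : ℝ) - 2 * ε) := by
    intro s
    refine (hbdr k i l hi hl s).trans ?_
    exact Real.one_le_rpow_of_pos_of_le_one_of_nonpos (B.pos n) (B.lt n).le (by linarith)
  intro s
  rw [hbase n]
  fin_cases s
  · exact hb 0
  · exact hb 1
  · exact hb 2
  · exact hb 3
  · exact hb 4
  · refine ab2 B n h4 ?_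
    simp only [piB, Matrix.cons_val, Fin.reduceFinMk]
    have := hpow (p 6 - ε)
    rw [abs_le] at r5 l6 ⊢
    constructor <;> linarith [r5.1, r5.2, l6.1, l6.2]
  · refine ab2 B n h4 ?_
    simp only [piB, Matrix.cons_val, Fin.reduceFinMk]
    have := hpow (p 5 - ε)
    rw [abs_le] at r6 l5 e5 ⊢
    constructor <;> linarith [r6.1, r6.2, l5.1, l5.2, e5.1, e5.2]
  · refine ab2 B n h4 ?_
    simp only [piB, Matrix.cons_val, Fin.reduceFinMk]
    have := hpow (p 7 - ε)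
    rw [abs_le] at r7 l7 ⊢
    constructor <;> linarith [r7.1, r7.2, l7.1, l7.2]
  · refine ab2 B n h4 ?_
    simp only [piB, Matrix.cons_val, Fin.reduceFinMk]
    have := hpow (p 9 - ε)
    rw [abs_le] at r8 l9 ⊢
    constructor <;> linarith [r8.1, r8.2, l9.1, l9.2]
  · refine ab2 B n h4 ?_
    simp only [piB, Matrix.cons_val, Fin.reduceFinMk]
    have := hpow (p 8 - ε)
    rw [abs_le] at r9 l8 e8 ⊢
    constructor <;> linarith [r9.1, r9.2, l8.1, l8.2, e8.1, e8.2]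
  · refine ab2 B n h4 ?_
    simp only [piB, Matrix.cons_val, Fin.reduceFinMk]
    have := hpow (p 10 - ε)
    rw [abs_le] at r10 l10 ⊢
    constructor <;> linarith [r10.1, r10.2, l10.1, l10.2]

theorem rec_neg (n k i l : ℕ) (s : Fin 11) :
    (recG G T f n).rel k l i s = -(recG G T f n).rel k i l s := by
  show coA _ _ 0 0 0 0 _ _ s = -coA _ _ 0 0 0 0 _ _ s
  rw [coA_sw, coA_sw]
  fin_cases s <;> simp only [Matrix.cons_val, Fin.reduceFinMk, Fin.zero_eta, Fin.mk_one] <;> ring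

theorem rec_add (n k i l j : ℕ) (s : Fin 11) :
    (recG G T f n).rel k i j s = (recG G T f n).rel k i l s + (recG G T f n).rel k l j s := by
  show coA _ _ 0 0 0 0 _ _ s = coA _ _ 0 0 0 0 _ _ s + coA _ _ 0 0 0 0 _ _ s
  rw [coA_sw, coA_sw, coA_sw]
  fin_cases s <;> simp only [Matrix.cons_val, Fin.reduceFinMk, Fin.zero_eta, Fin.mk_one] <;> ring

theorem rec_self (n k i : ℕ) (s : Fin 11) : (recG G T f n).rel k i i s = 0 := by
  show coA _ _ 0 0 0 0 _ _ s = 0
  rw [coA_sw]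
  fin_cases s <;> simp

/-- **the recomputed configuration is a model** -/
theorem recG_model (H : RModel B G 1 R Leg ν D) (A : MirGeo B G x T e f) :
    RModel B (recG G T f) 1 R (LegB Leg x) (fun p => ν (piB p)) (2 * D) where
  D1 := by linarith [H.D1]
  base := H.base
  sub := H.sub
  nonempty := H.nonempty
  refl := fun n k i _ j => rec_self n k i j
  symm := fun p _ ε hε => by
    filter_upwards with n k i l hi hl hlo j
    have h1 := hlo j
    rw [show (recG G T f n).ρ = B.d n from H.base n] at h1 ⊢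
    rw [rec_neg, abs_neg]
    refine h1.trans (rpow_anti B n ?_)
    have := H.D1
    nlinarith
  tri := fun p _ ε hε => by
    filter_upwards [ev_const_le B hε 2] with n h2 k i l j hi hl hj h1 h3 s
    have g1 := h1 s
    have g2 := h3 s
    rw [show (recG G T f n).ρ = B.d n from H.base n] at g1 g2 ⊢
    rw [rec_add n k i l j s]
    have g3 : |(recG G T f n).rel k i l s + (recG G T f n).rel k l j s| ≤
        2 * B.d n ^ (p s - ε) := (abs_add_le _ _).trans (by linarith)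
    refine (ab2 B n h2 g3).trans (rpow_anti B n ?_)
    have := H.D1
    nlinarith
  low := fun p hp ε hε => by
    have hε2 : 0 < ε / 2 := by positivity
    filter_upwards [H.low (piB p) hp.1 (ε / 2) hε2, loose_rec H.base A hε2] with n h1 h2 i k hi
    refine (rpow_anti B n (by linarith)).trans ((h1 i k hi).trans ?_)
    refine mod_cast card_le_card fun l hl => ?_
    obtain ⟨l1, l2⟩ := RCfg.mem_box.1 hl
    refine RCfg.mem_box.2 ⟨l1, ?_⟩
    have := h2 p hp.2.1 hp.2.2.1 hp.2.2.2 k i l hi (H.memSlice.1 l1) l2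
    rwa [mul_div_cancel₀ _ (by norm_num : (2 : ℝ) ≠ 0)] at this
  up := fun p hp ε hε => by
    filter_upwards [H.up (piB p) hp.1 (2 * ε) (by positivity), rec_loose H.base A hε]
      with n h1 h2 i k hi
    have h3 := h1 i k hi
    rw [show -ν (piB p) - D * (2 * ε) = -ν (piB p) - 2 * D * ε by ring] at h3
    refine le_trans ?_ h3
    refine mod_cast card_le_card fun l hl => ?_
    obtain ⟨l1, l2⟩ := RCfg.mem_box.1 hl
    exact RCfg.mem_box.2 ⟨l1, h2 p hp.2.1 hp.2.2.1 hp.2.2.2 k i l hi (H.memSlice.1 l1) l2⟩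
  σ_nonneg := H.σ_nonneg
  σ_le := H.σ_le
  line := H.line
  slice := H.slice
  frost := H.frost

/-! ### the boxes -/

theorem piB_zero : piB 0 = 0 := by
  funext s; fin_cases s <;> simp [piB]

theorem piB_all (y : ℝ) : piB (vec fAll y) = vec {5, 6, 7, 8, 9, 10} y := by
  funext s; fin_cases s <;> simp [piB, vec, fAll]

theorem piB_pos (y : ℝ) : piB (vec fPos y) = vec {7, 8, 9, 10} y := by
  funext s; fin_cases s <;> simp [piB, vec, fPos]

theorem piB_dir (y : ℝ) : piB (vec fDir y) = vec {5, 6} y := by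
  funext s; fin_cases s <;> simp [piB, vec, fDir]

theorem piB_q0 (y : ℝ) : piB (qv y 0) = vec {8, 9} y := by
  funext s; fin_cases s <;> simp [piB, vec, qv]

theorem piB_q (y : ℝ) : piB (qv y y) = vec {8, 9, 10} y := by
  funext s; fin_cases s <;> simp [piB, vec, qv]

theorem piB_c (y : ℝ) : piB (vec {6} y) = vec {5} y := by
  funext s; fin_cases s <;> simp [piB, vec]

theorem vec_le {F : Finset (Fin 11)} {y x : ℝ} (h0 : 0 ≤ x) (h : y ≤ x) (s : Fin 11) :
    vec F y s ≤ x := by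
  unfold vec
  split_ifs
  · exact h
  · exact h0

theorem vec_zero (F : Finset (Fin 11)) : vec F 0 = 0 := by
  funext s; unfold vec; simp

theorem MirProf.toPr (P : MirProf Leg ν R0 a m) (hx : R0 ≤ x) {y : ℝ} (hy : 0 < y)
    (hyR : y ≤ R0) : MirPr (LegB Leg x) (fun p => ν (piB p)) y a m := by
  have hx0 : 0 ≤ x := P.R0_pos.le.trans hx
  have hyx : y ≤ x := hyR.trans hx
  have h0 : (0 : Fin 11 → ℝ) ∈ Leg := by
    have := P.c 0 le_rfl P.R0_pos.le
    rwa [vec_zero] at this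
  refine ⟨hy, ?_, ?_, ?_, ?_, ?_, ?_, ?_, ?_, ?_, ?_⟩
  · exact ⟨by rw [piB_zero]; exact h0, fun s => hx0, le_rfl, le_rfl⟩
  · exact ⟨by rw [piB_all]; exact P.all y hy.le hyR, vec_le hx0 hyx, by simp [vec, fAll],
      by simp [vec, fAll]⟩
  · exact ⟨by rw [piB_pos]; exact P.pos y hy.le hyR, vec_le hx0 hyx, by simp [vec, fPos],
      by simp [vec, fPos]⟩
  · exact ⟨by rw [piB_dir]; exact P.dir y hy.le hyR, vec_le hx0 hyx, by simp [vec, fDir],
      by simp [vec, fDir]⟩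
  · refine ⟨by rw [piB_q0]; exact P.q0 y hy.le hyR, fun s => ?_, by simp [qv], by simp [qv]⟩
    unfold qv
    split_ifs <;> assumption
  · refine ⟨by rw [piB_q]; exact P.q y hy.le hyR, fun s => ?_, by simp [qv], by simp [qv]⟩
    unfold qv
    split_ifs <;> assumption
  · intro y' h1 h2
    exact ⟨by rw [piB_c]; exact P.c y' h1 (h2.trans hyR), vec_le hx0 (h2.trans hyx),
      by simpa [vec] using h1, by simp [vec]⟩
  · simp only [piB_zero, piB_all, piB_pos, piB_dir]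
    exact P.dec y hy.le hyR
  · simp only [piB_q0, piB_q]
    exact P.fib y hy.le hyR
  · intro y' h1 h2
    simp only [piB_zero, piB_c]
    exact P.conc y' h1 (h2.trans hyR)

/-- **no heavy sloped strip** -/
theorem no_slope_mir (hW : MirWin) (H : RModel B G 1 R Leg ν D) (A : MirGeo B G x T e f)
    (P : MirProf Leg ν R0 a m) (hx : R0 ≤ x) (hR : R0 ≤ R) :
    ∃ η₁ : ℝ, 0 < η₁ ∧ ∀ y, 0 < y → y ≤ R0 → ¬ ∀ᶠ n in (U : Filter ℕ), ∃ Z' ⊆ (G n).Z,
      Z'.Nonempty ∧ B.d n ^ (η₁ * y) * ((G n).Z.card : ℝ) ≤ Z'.card ∧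
      ∃ μ : ℝ, B.d n ^ (η₁ * y) ≤ |μ| ∧
      ∀ k ∈ Z', ∀ k' ∈ Z', |f n k' - f n k - μ * ((G n).z k' - (G n).z k)| ≤
        2 * B.d n ^ y := by
  obtain ⟨η, hη, h⟩ := hW a m P.a0 P.a1 P.m0
  refine ⟨η, hη, fun y hy hyR => ?_⟩
  refine h B (recG G T f) (LegB Leg x) (fun p => ν (piB p)) (2 * D) R y
    (fun n l => swL (T n l)) f (recG_model H A) (hyR.trans hR) (P.toPr hx hy hyR) ?_
    (fun n k i l s => rfl)
  filter_upwards [A.bd] with n hn l k hlk
  obtain ⟨h1, h2, h3, h4, h5⟩ := hn l k hlk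
  refine ⟨h1, fun j => ?_, fun j => ?_, h5⟩
  · fin_cases j
    · exact h2 0
    · exact h2 2
    · exact h2 1
  · fin_cases j
    · exact h3 0
    · exact h3 2
    · exact h3 1

end Crest.Agent.R136.C1s940
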