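import Crest.Agent.R136.CD2_366
import Crest.Agent.R136.WkD_323

/-!
# R136, case C1* (mirrored lightlike), literals (helper940)

Window with level slots `z` (0) and `F_a` (4), the flag `F_b` (3) frozen by an offset.

* `coM` : coordinates of the line `T'` seen from `T` (flag 21 `e`, flag 31 `f` of the height `z`).
* `MirGeo` : absolute coordinates of the window.
* `MirProf` : what the profile of the window has to satisfy.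
* the walk part is `Wk323.mirWin` (helper323, Wk14 / Wk15).
-/

set_option autoImplicit false
set_option linter.unusedVariables false
set_option linter.unusedSectionVars false

open Filter Topology Finset

namespace Crest.Agent.R136.C1s940

open Crest.Agent.R136.Sh605
open Crest.Agent.R138.Ex926 (Base U)
open Crest.Agent.R136.Gf356
open Crest.Agent.R136.CD366
open Crest.Agent.R136.Wk323 (vec)

/-- coordinates of `T'` seen from `T` at the height `z` -/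
def coM (T T' : Ln4) (e e' f z : ℝ) : Fin 11 → ℝ :=
  ![0, 0, e' - e, 0, 0, T'.v 1 - T.v 1,
    (T'.v 2 - T.v 2) - e * (T'.v 1 - T.v 1),
    (T'.v 0 - T.v 0) - f * (T'.v 1 - T.v 1),
    T'.pos z 1 - T.pos z 1,
    (T'.pos z 2 - T.pos z 2) - e * (T'.pos z 1 - T.pos z 1),
    (T'.pos z 0 - T.pos z 0) - f * (T'.pos z 1 - T.pos z 1)]

/-- the slots computed from the absolute coordinates -/
def sMir : Finset (Fin 11) := {2, 5, 6, 7, 8, 9, 10}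

/-- **absolute coordinates** of the offset window -/
structure MirGeo (B : Base) (G : ℕ → RCfg (Fin 11)) (x : ℝ) (T : ℕ → ℕ → Ln4) (e : ℕ → ℕ → ℝ)
    (f : ℕ → ℕ → ℝ) : Prop where
  bd : ∀ᶠ n in (U : Filter ℕ), ∀ l k, (l, k) ∈ (G n).I → |(G n).z k| ≤ 1 ∧
    (∀ j, |(T n l).pos ((G n).z k) j| ≤ 1) ∧ (∀ j, |(T n l).v j| ≤ 1) ∧ |e n l| ≤ 1 ∧
      |f n k| ≤ 1
  bdr : ∀ᶠ n in (U : Filter ℕ), ∀ k i l, (i, k) ∈ (G n).I → (l, k) ∈ (G n).I →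
    ∀ s, |(G n).rel k i l s| ≤ 1
  rel : ∀ ε : ℝ, 0 < ε → ∀ᶠ n in (U : Filter ℕ), ∀ k i l, (i, k) ∈ (G n).I → (l, k) ∈ (G n).I →
    ∀ s ∈ sMir, |(G n).rel k i l s - coM (T n i) (T n l) (e n i) (e n l) (f n k)
      ((G n).z k) s| ≤ B.d n ^ (x - ε)

/-- the boxes of the fibre: `E, C_b, X_b` at `y`, `N : n`, `P : p`, `X_a : x`, `C_a : c` -/
def fb (y n p x c : ℝ) : Fin 11 → ℝ := bx {2, 6, 9} 10 7 8 5 y n p x c

/-- **profile of the window** -/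
structure MirProf (Leg : Set (Fin 11 → ℝ)) (ν : (Fin 11 → ℝ) → ℝ) (R0 a m : ℝ) : Prop where
  R0_pos : 0 < R0
  a0 : 0 ≤ a
  a1 : a < 1
  m0 : 0 < m
  leg : ∀ y n p x c : ℝ, 0 ≤ y → y ≤ R0 → 0 ≤ n → n ≤ y → 0 ≤ p → p ≤ y → 0 ≤ x → x ≤ y →
    0 ≤ c → c ≤ y → fb y n p x c ∈ Leg
  all : ∀ y, 0 ≤ y → y ≤ R0 → vec {5, 6, 7, 8, 9, 10} y ∈ Leg
  pos : ∀ y, 0 ≤ y → y ≤ R0 → vec {7, 8, 9, 10} y ∈ Leg
  dir : ∀ y, 0 ≤ y → y ≤ R0 → vec {5, 6} y ∈ Leg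
  q0 : ∀ y, 0 ≤ y → y ≤ R0 → vec {8, 9} y ∈ Leg
  q : ∀ y, 0 ≤ y → y ≤ R0 → vec {8, 9, 10} y ∈ Leg
  c : ∀ y, 0 ≤ y → y ≤ R0 → vec {5} y ∈ Leg
  p : ∀ y, 0 ≤ y → y ≤ R0 → vec {7} y ∈ Leg
  cp : ∀ y, 0 ≤ y → y ≤ R0 → vec {5, 7} y ∈ Leg
  /-- positions and directions are decoupled -/
  dec : ∀ y, 0 ≤ y → y ≤ R0 → ν 0 + ν (vec {5, 6, 7, 8, 9, 10} y) ≤
    ν (vec {7, 8, 9, 10} y) + ν (vec {5, 6} y)
  /-- loss of `N` given `X_a, X_b` -/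
  fib : ∀ y, 0 ≤ y → y ≤ R0 → ν (vec {8, 9} y) - ν (vec {8, 9, 10} y) ≤ a * y
  /-- the wide direction is spread -/
  conc : ∀ y, 0 ≤ y → y ≤ R0 → m * y ≤ ν 0 - ν (vec {5} y)
  /-- the same given `P` -/
  concp : ∀ y, 0 ≤ y → y ≤ R0 → m * y ≤ ν (vec {7} y) - ν (vec {5, 7} y)
  /-- loss of `N` in the fibre -/
  hN : ∀ y, 0 ≤ y → y ≤ R0 → ν (fb y 0 0 0 0) - ν (fb y y 0 0 0) ≤ a * y
  /-- joint loss of `N, P` in the fibre -/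
  np : ∀ y t : ℝ, 0 ≤ t → t ≤ y → y ≤ R0 → a * t + (ν 0 - ν (vec {7} t)) ≤
    ν (fb y 0 0 0 0) - ν (fb y t t 0 0)
  /-- joint loss of `P, X_a` in the fibre -/
  px : ∀ t : ℝ, 0 ≤ t → t ≤ R0 → t ≤ ν (fb R0 R0 0 0 R0) - ν (fb R0 R0 t t R0)

end Crest.Agent.R136.C1s940
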