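import Crest.Agent.R136.C1sD_940
import Crest.Agent.R136.Aw0_413

/-!
# R136, case C1* (mirrored lightlike), part E (helper940): the profile of the window

Plane with slack `F_b` (helper865), level slots `{z, F_a}`.  `mirProf_of` : splitting into the groups
of slopes, additivity and homogeneity (146), `X_a`, `X_b` full, `C_a` spread, rate `r < 3` of the
group `{X_b, N}` give `MirProf` with `a = (r - 1) / 2`.
-/

set_option autoImplicit false
set_option linter.unusedVariables false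
set_option linter.unusedSectionVars false

open Filter Topology Finset

namespace Crest.Agent.R136.C1s940

open Crest.Agent.R136.Net191 Crest.Agent.R136.Gf356
open Crest.Agent.R136.Qg926 Crest.Agent.R136.Dg219 Crest.Agent.R136.Aw413
open Crest.Agent.R136.CD366 (bx)
open Crest.Agent.R136.Wk323 (vec)

/-- slopes of the plane of C1* -/
structure PlaneM (a b : Fin 11 → ℝ) : Prop where
  a0 : a 0 = 1
  b0 : b 0 = 0
  a1 : a 1 = 0
  a2 : a 2 = 0
  a3 : 0 ≤ a 3
  a4 : a 4 = 1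
  b4 : b 4 = 0
  a5 : a 5 = 0
  a6 : a 6 = 0
  a7 : a 7 = 1
  b7 : b 7 = 1
  a8 : a 8 = 1
  b8 : b 8 = 1
  a9 : a 9 = 1
  b9 : b 9 = 1 / 2
  a10 : a 10 = 2
  b10 : b 10 = 1
  par : a 3 = 0 ∨ (b 3 / a 3 ≠ 0 ∧ b 3 / a 3 ≠ 1 ∧ b 3 / a 3 ≠ 1 / 2)

/-- the walls of the plane -/
def ConeM (c : Fin 11 → ℝ) : Prop :=
  c 6 ≤ c 2 + c 5 ∧ c 7 ≤ c 4 + c 5 ∧ c 8 ≤ c 0 + c 5 ∧ c 9 ≤ c 0 + c 6 ∧ c 9 ≤ c 2 + c 8 ∧
    c 10 ≤ c 0 + c 7 ∧ c 10 ≤ c 4 + c 8

/-- resolution of the window -/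
def topM : Fin 11 → ℝ := ![1, 0, 1, 0, 1, 1, 1, 1, 1, 1, 1]

/-- level slots of the window -/
def sM : Finset (Fin 11) := {0, 4}

theorem cut_sM (p q : Fin 11 → ℝ) :
    cut sM p q = ![q 0, p 1, p 2, p 3, q 4, p 5, p 6, p 7, p 8, p 9, p 10] := by
  funext s
  fin_cases s <;> simp [cut, sM]

theorem cut_topM (p : Fin 11 → ℝ) :
    cut sM p topM = ![1, p 1, p 2, p 3, 1, p 5, p 6, p 7, p 8, p 9, p 10] := by
  rw [cut_sM]; simp [topM]

section groups

variable {a b : Fin 11 → ℝ}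

theorem PlaneM.grpA (hP : PlaneM a b) (i : Fin 11) : gC a b i = gC a b 0 ↔ i = 0 ∨ i = 4 := by
  have h0 : a 0 ≠ 0 := by rw [hP.a0]; norm_num
  have key : ∀ i, a i = 0 → gC a b i ≠ gC a b 0 := fun i hi h => by
    rw [gC_zero.2 hi] at h
    exact h0 (gC_zero.1 h.symm)
  have key2 : ∀ i, a i ≠ 0 → b i / a i ≠ 0 → gC a b i ≠ gC a b 0 := fun i hi hb h => by
    rw [gC_eq hi h0, hP.b0, zero_div] at h
    exact hb h
  have n7 : a 7 ≠ 0 := by rw [hP.a7]; norm_num
  have n8 : a 8 ≠ 0 := by rw [hP.a8]; norm_num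
  have n9 : a 9 ≠ 0 := by rw [hP.a9]; norm_num
  have n10 : a 10 ≠ 0 := by rw [hP.a10]; norm_num
  have n4 : a 4 ≠ 0 := by rw [hP.a4]; norm_num
  have h3 : gC a b 3 ≠ gC a b 0 := by
    rcases hP.par with h | h
    · exact key 3 h
    · by_cases h3 : a 3 = 0
      · exact key 3 h3
      · exact key2 3 h3 h.1
  have h4 : gC a b 4 = gC a b 0 := by rw [gC_eq n4 h0, hP.b4, hP.b0]; simp
  fin_cases i
  · simp
  · simpa using key 1 hP.a1
  · simpa using key 2 hP.a2
  · simpa using h3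
  · simpa using h4
  · simpa using key 5 hP.a5
  · simpa using key 6 hP.a6
  · simpa using key2 7 n7 (by rw [hP.a7, hP.b7]; norm_num)
  · simpa using key2 8 n8 (by rw [hP.a8, hP.b8]; norm_num)
  · simpa using key2 9 n9 (by rw [hP.a9, hP.b9]; norm_num)
  · simpa using key2 10 n10 (by rw [hP.a10, hP.b10]; norm_num)

theorem PlaneM.grpB (hP : PlaneM a b) (i : Fin 11) : gC a b i = gC a b 7 ↔ i = 7 ∨ i = 8 := by
  have h0 : a 7 ≠ 0 := by rw [hP.a7]; norm_num
  have key : ∀ i, a i = 0 → gC a b i ≠ gC a b 7 := fun i hi h => by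
    rw [gC_zero.2 hi] at h
    exact h0 (gC_zero.1 h.symm)
  have key2 : ∀ i, a i ≠ 0 → b i / a i ≠ 1 → gC a b i ≠ gC a b 7 := fun i hi hb h => by
    rw [gC_eq hi h0, hP.b7, hP.a7, div_one] at h
    exact hb h
  have n0 : a 0 ≠ 0 := by rw [hP.a0]; norm_num
  have n8 : a 8 ≠ 0 := by rw [hP.a8]; norm_num
  have n9 : a 9 ≠ 0 := by rw [hP.a9]; norm_num
  have n10 : a 10 ≠ 0 := by rw [hP.a10]; norm_num
  have n4 : a 4 ≠ 0 := by rw [hP.a4]; norm_num
  have h3 : gC a b 3 ≠ gC a b 7 := by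
    rcases hP.par with h | h
    · exact key 3 h
    · by_cases h3 : a 3 = 0
      · exact key 3 h3
      · exact key2 3 h3 h.2.1
  have h8 : gC a b 8 = gC a b 7 := by rw [gC_eq n8 h0, hP.b8, hP.b7, hP.a8, hP.a7]
  fin_cases i
  · simpa using key2 0 n0 (by rw [hP.a0, hP.b0]; norm_num)
  · simpa using key 1 hP.a1
  · simpa using key 2 hP.a2
  · simpa using h3
  · simpa using key2 4 n4 (by rw [hP.a4, hP.b4]; norm_num)
  · simpa using key 5 hP.a5
  · simpa using key 6 hP.a6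
  · simp
  · simpa using h8
  · simpa using key2 9 n9 (by rw [hP.a9, hP.b9]; norm_num)
  · simpa using key2 10 n10 (by rw [hP.a10, hP.b10]; norm_num)

theorem PlaneM.grpC (hP : PlaneM a b) (i : Fin 11) : gC a b i = gC a b 9 ↔ i = 9 ∨ i = 10 := by
  have h0 : a 9 ≠ 0 := by rw [hP.a9]; norm_num
  have key : ∀ i, a i = 0 → gC a b i ≠ gC a b 9 := fun i hi h => by
    rw [gC_zero.2 hi] at h
    exact h0 (gC_zero.1 h.symm)
  have key2 : ∀ i, a i ≠ 0 → b i / a i ≠ 1 / 2 → gC a b i ≠ gC a b 9 := fun i hi hb h => by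
    rw [gC_eq hi h0, hP.b9, hP.a9, div_one] at h
    exact hb h
  have n0 : a 0 ≠ 0 := by rw [hP.a0]; norm_num
  have n7 : a 7 ≠ 0 := by rw [hP.a7]; norm_num
  have n8 : a 8 ≠ 0 := by rw [hP.a8]; norm_num
  have n10 : a 10 ≠ 0 := by rw [hP.a10]; norm_num
  have n4 : a 4 ≠ 0 := by rw [hP.a4]; norm_num
  have h3 : gC a b 3 ≠ gC a b 9 := by
    rcases hP.par with h | h
    · exact key 3 h
    · by_cases h3 : a 3 = 0
      · exact key 3 h3
      · exact key2 3 h3 h.2.2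
  have h10 : gC a b 10 = gC a b 9 := by
    rw [gC_eq n10 h0, hP.b9, hP.a9, hP.b10, hP.a10]; norm_num
  fin_cases i
  · simpa using key2 0 n0 (by rw [hP.a0, hP.b0]; norm_num)
  · simpa using key 1 hP.a1
  · simpa using key 2 hP.a2
  · simpa using h3
  · simpa using key2 4 n4 (by rw [hP.a4, hP.b4]; norm_num)
  · simpa using key 5 hP.a5
  · simpa using key 6 hP.a6
  · simpa using key2 7 n7 (by rw [hP.a7, hP.b7]; norm_num)
  · simpa using key2 8 n8 (by rw [hP.a8, hP.b8]; norm_num)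
  · simp
  · simpa using h10

end groups

section outS

variable {ι κ : Type*} [Fintype ι] [DecidableEq ι] [DecidableEq κ] {grp : ι → κ}
  {L : Set (ι → ℝ)} {dh : ι → ℝ} {nn : κ → ℝ × ℝ} {lam : (ι → ℝ) → ℝ} {A : ℝ × ℝ}
  {φ : κ → (ι → ℝ) → ℝ} {r : κ → ℝ}

/-- losses in different groups are decoupled -/
theorem outS_diff (ho : OutS grp L dh nn lam A φ r) {c c' d d' : ι → ℝ} (hc : c ∈ L)
    (hc' : c' ∈ L) (hd : d ∈ L) (hd' : d' ∈ L)
    (h : ∀ k, ((∀ i, grp i = k → c i = c' i) ∧ ∀ i, grp i = k → d i = d' i) ∨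
      ((∀ i, grp i = k → c i = d i) ∧ ∀ i, grp i = k → c' i = d' i)) :
    lam c - lam c' = lam d - lam d' := by
  rw [ho.sum c hc, ho.sum c' hc', ho.sum d hd, ho.sum d' hd', ← sum_sub_distrib,
    ← sum_sub_distrib]
  refine sum_congr rfl fun k _ => ?_
  rcases h k with ⟨h1, h2⟩ | ⟨h1, h2⟩
  · rw [ho.loc k c c' h1, ho.loc k d d' h2, sub_self, sub_self]
  · rw [ho.loc k c d h1, ho.loc k c' d' h2]

/-- loss inside one group -/
theorem outS_one (ho : OutS grp L dh nn lam A φ r) {c c' : ι → ℝ} (hc : c ∈ L) (hc' : c' ∈ L)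
    {i₀ : ι} (h : ∀ i, grp i ≠ grp i₀ → c i = c' i) :
    lam c - lam c' = φ (grp i₀) c - φ (grp i₀) c' := by
  rw [ho.sum c hc, ho.sum c' hc', ← sum_sub_distrib]
  refine sum_eq_single_of_mem (grp i₀) (mem_gset i₀) fun k _ hk => ?_
  rw [ho.loc k c c' fun i hi => h i (by rw [hi]; exact hk), sub_self]

end outS

section prof

variable {Ma : Mons 11} {lam : (Fin 11 → ℝ) → ℝ} {a b : Fin 11 → ℝ} {A : ℝ × ℝ}
  {φ : ℕ → (Fin 11 → ℝ) → ℝ} {r : ℕ → ℝ} {m : ℝ}

/-- the legal boxes of the window -/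
def legV (Ma : Mons 11) : Set (Fin 11 → ℝ) :=
  {p | cut sM p topM ∈ Leg Ma 1 ∧ ∀ s, s ∉ sM → p s ≤ topM s}

/-- the profile of the window -/
def nuV (lam : (Fin 11 → ℝ) → ℝ) (p : Fin 11 → ℝ) : ℝ := lam (cut sM p topM) - lam topM

theorem mem_leg (hcone : ∀ c, c ∈ coneM Ma ↔ ConeM c) {c : Fin 11 → ℝ} {R : ℝ} :
    c ∈ Leg Ma R ↔ (∀ s, 0 ≤ c s) ∧ (∀ s, c s ≤ R) ∧ ConeM c := by
  constructor
  · intro h
    exact ⟨h.1.nonneg, h.2, (hcone c).1 fun k e he => h.1.wall k e he⟩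
  · rintro ⟨h1, h2, h3⟩
    exact ⟨⟨h1, fun k e he => (hcone c).2 h3 k e he⟩, h2⟩

theorem mem_legV (hcone : ∀ c, c ∈ coneM Ma ↔ ConeM c) {p : Fin 11 → ℝ} (h1 : p 1 = 0)
    (h3 : p 3 = 0) (h0 : ∀ s, 0 ≤ p s) (hle : ∀ s, p s ≤ 1) (w6 : p 6 ≤ p 2 + p 5)
    (w9 : p 9 ≤ p 2 + p 8) : p ∈ legV Ma := by
  refine ⟨?_, ?_⟩
  · rw [mem_leg hcone, cut_topM]
    refine ⟨fun s => ?_, fun s => ?_, ?_⟩
    · fin_cases s <;> simp [h0]
    · fin_cases s <;> simp [hle]
    · simp only [ConeM, Matrix.cons_val]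
      have := h0 5
      have := h0 6
      have := h0 7
      have := h0 8
      have := hle 7
      have := hle 8
      have := hle 9
      have := hle 10
      refine ⟨w6, ?_, ?_, ?_, w9, ?_, ?_⟩ <;> linarith
  · intro s hs
    fin_cases s
    · exact absurd (by decide) hs
    · simp [topM, h1]
    · simpa [topM] using hle 2
    · simp [topM, h3]
    · exact absurd (by decide) hs
    · simpa [topM] using hle 5
    · simpa [topM] using hle 6
    · simpa [topM] using hle 7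
    · simpa [topM] using hle 8
    · simpa [topM] using hle 9
    · simpa [topM] using hle 10

theorem legV_cone {p : Fin 11 → ℝ} (h : p ∈ legV Ma) : cut sM p topM ∈ coneM Ma :=
  fun k e he => h.1.1.wall k e he

/-- additivity and homogeneity of the group functions (146's `OutA`, zoomed) -/
structure AddHom (L : Set (Fin 11 → ℝ)) (a b : Fin 11 → ℝ) (φ : ℕ → (Fin 11 → ℝ) → ℝ) :
    Prop where
  add : ∀ k, (∀ i, gC a b i = k → 0 < dhC a b i) → ∀ w : ℝ × ℝ, ∀ c ∈ L,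
    φ k (Tn a b w + c) = φ k (Tn a b w) + φ k c
  hom : ∀ k, (∀ i, gC a b i = k → 0 < dhC a b i) → ∀ c ∈ L, ∀ t : ℝ, 0 ≤ t →
    φ k (t • c) = t * φ k c

/-- the group function of `{X_b, N}` -/
theorem phiC (hP : PlaneM a b) (ho : OutS (gC a b) (coneM Ma) (dhC a b) (nC a b) lam A φ r)
    (hah : AddHom (coneM Ma) a b φ) (hcone : ∀ c, c ∈ coneM Ma ↔ ConeM c)
    (hXB : φ (gC a b 9) (![0, 0, 0, 0, 0, 0, 0, 0, 0, 1, 0]) ≤ -1)
    {x n : ℝ} (hn : 0 ≤ n) (hnx : n ≤ 2 * x) {c : Fin 11 → ℝ} (h9 : c 9 = x) (h10 : c 10 = n) :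
    φ (gC a b 9) c = -(r (gC a b 9) * (n / 2) + (x - n / 2)) := by
  set k := gC a b 9 with hk
  have hpos : ∀ i, gC a b i = k → 0 < dhC a b i := by
    intro i hi
    rcases (hP.grpC i).1 hi with rfl | rfl
    · rw [dhC, hP.a9]; norm_num
    · rw [dhC, hP.a10]; norm_num
  have hloc : ∀ c c' : Fin 11 → ℝ, c 9 = c' 9 → c 10 = c' 10 → φ k c = φ k c' := by
    intro c c' g1 g2
    refine ho.loc k c c' fun i hi => ?_
    rcases (hP.grpC i).1 hi with rfl | rfl
    · exact g1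
    · exact g2
  have hd : 0 ≤ x - n / 2 := by linarith
  -- `X_b` alone
  have h1 : ∀ y : ℝ, 0 ≤ y → φ k (![y, 0, 0, 0, 0, 0, y, 0, y, y, 0]) = -y := by
    intro y hy
    have m1 : (![1, 0, 0, 0, 0, 0, 1, 0, 1, 1, 0] : Fin 11 → ℝ) ∈ coneM Ma → True := fun _ => trivial
    have cy : ∀ y : ℝ, 0 ≤ y → (![y, 0, y, 0, y, y, y, y, y, y, 0] : Fin 11 → ℝ) ∈ coneM Ma := by
      intro y hy
      rw [hcone]
      simp only [ConeM, Matrix.cons_val]
      refine ⟨?_, ?_, ?_, ?_, ?_, ?_, ?_⟩ <;> linarith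
    have e1 : φ k (![y, 0, 0, 0, 0, 0, y, 0, y, y, 0]) = φ k (![y, 0, y, 0, y, y, y, y, y, y, 0]) :=
      hloc _ _ (by simp) (by simp)
    have e2 : (![y, 0, y, 0, y, y, y, y, y, y, 0] : Fin 11 → ℝ) =
        y • (![1, 0, 1, 0, 1, 1, 1, 1, 1, 1, 0] : Fin 11 → ℝ) := by
      funext s
      fin_cases s <;> simp
    have e3 := hah.hom k hpos _ (cy 1 zero_le_one) y hy
    have e4 : φ k (![1, 0, 1, 0, 1, 1, 1, 1, 1, 1, 0]) =
        φ k (![0, 0, 0, 0, 0, 0, 0, 0, 0, 1, 0]) := hloc _ _ (by simp) (by simp)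
    have up : φ k (![y, 0, y, 0, y, y, y, y, y, y, 0]) ≤ -y := by
      rw [e2, e3, e4]
      nlinarith
    have lo := (ho.mono k (![y, 0, y, 0, y, y, y, y, 0, 0, 0]) (by
        rw [hcone]
        simp only [ConeM, Matrix.cons_val]
        refine ⟨?_, ?_, ?_, ?_, ?_, ?_, ?_⟩ <;> linarith)
      (![y, 0, y, 0, y, y, y, y, y, y, 0]) (cy y hy) (by
        intro i hi
        rcases (hP.grpC i).1 hi with rfl | rfl
        · simpa using hy
        · simp)).2
    have e5 : φ k (![y, 0, y, 0, y, y, y, y, 0, 0, 0]) = 0 := by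
      refine ho.zero k _ fun i hi => ?_
      rcases (hP.grpC i).1 hi with rfl | rfl
      · simp
      · simp
    have e6 : ∑ i ∈ Finset.univ.filter (fun i => gC a b i = k),
        ((![y, 0, y, 0, y, y, y, y, y, y, 0] : Fin 11 → ℝ) i -
          (![y, 0, y, 0, y, y, y, y, 0, 0, 0] : Fin 11 → ℝ) i) = y := by
      have : Finset.univ.filter (fun i => gC a b i = k) = ({9, 10} : Finset (Fin 11)) := by
        ext i
        rw [Finset.mem_filter, hk, hP.grpC]
        simp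
      rw [this, Finset.sum_insert (by decide), Finset.sum_singleton]
      simp
    rw [e6, e5] at lo
    rw [e1]
    linarith
  -- shift
  have hTn : ∀ s, Tn a b (n / 2, 0) s = a s * (n / 2) := fun s => by
    simp only [Tn]; ring
  have m2 : (![x + n, 0, x + n, 0, x + n, x + n, x + n, x + n, x + n, x - n / 2, 0] :
      Fin 11 → ℝ) ∈ coneM Ma := by
    rw [hcone]
    simp only [ConeM, Matrix.cons_val]
    refine ⟨?_, ?_, ?_, ?_, ?_, ?_, ?_⟩ <;> linarith
  have h2 := hah.add k hpos (n / 2, 0) _ m2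
  have h3 : φ k (Tn a b (n / 2, 0)) = -(r k * (n / 2)) := by
    have m3 : Tn a b (n / 2, 0) ∈ coneM Ma := by
      rw [hcone]
      simp only [ConeM, hTn, hP.a0, hP.a2, hP.a4, hP.a5, hP.a6, hP.a7, hP.a8, hP.a9, hP.a10]
      refine ⟨?_, ?_, ?_, ?_, ?_, ?_, ?_⟩ <;> linarith
    refine ho.rate k _ m3 (n / 2) fun i hi => ?_
    rw [hTn]
    rcases (hP.grpC i).1 hi with rfl | rfl
    · rw [dhC, hP.a9]; norm_num
    · rw [dhC, hP.a10]; norm_num; ring
  have h4 : φ k (Tn a b (n / 2, 0) + ![x + n, 0, x + n, 0, x + n, x + n, x + n, x + n, x + n,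
      x - n / 2, 0]) = φ k c := by
    refine hloc _ _ ?_ ?_
    · rw [Pi.add_apply, hTn, hP.a9, h9]
      simp
    · rw [Pi.add_apply, hTn, hP.a10, h10]
      simp only [Matrix.cons_val]
      ring
  have h5 : φ k (![x + n, 0, x + n, 0, x + n, x + n, x + n, x + n, x + n, x - n / 2, 0]) =
      -(x - n / 2) := by
    rw [← h1 _ hd]
    exact hloc _ _ (by simp) (by simp)
  rw [h4, h3, h5] at h2
  rw [h2]; ring

/-- losses of the direction slots -/
theorem loss0 (hP : PlaneM a b) (ho : OutS (gC a b) (coneM Ma) (dhC a b) (nC a b) lam A φ r)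
    {p q u v : Fin 11 → ℝ} (hp : p ∈ coneM Ma) (hq : q ∈ coneM Ma) (hu : u ∈ coneM Ma)
    (hv : v ∈ coneM Ma) (h1 : ∀ i, i ≠ 5 → i ≠ 6 → p i = q i ∧ u i = v i)
    (h2 : ∀ i ∈ ({1, 2, 3, 5, 6} : Finset (Fin 11)), p i = u i ∧ q i = v i) :
    lam p - lam q = lam u - lam v := by
  have h0 : ∀ i, a i = 0 → i ∈ ({1, 2, 3, 5, 6} : Finset (Fin 11)) := by
    intro i hi
    fin_cases i
    · exact absurd (hP.a0.symm.trans hi) (by norm_num)
    · decide
    · decide
    · decide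
    · exact absurd (hP.a4.symm.trans hi) (by norm_num)
    · decide
    · decide
    · exact absurd (hP.a7.symm.trans hi) (by norm_num)
    · exact absurd (hP.a8.symm.trans hi) (by norm_num)
    · exact absurd (hP.a9.symm.trans hi) (by norm_num)
    · exact absurd (hP.a10.symm.trans hi) (by norm_num)
  refine outS_diff ho hp hq hu hv fun k => ?_
  by_cases hk : k = 0
  · subst hk
    exact Or.inr ⟨fun i hi => (h2 i (h0 i (gC_zero.1 hi))).1,
      fun i hi => (h2 i (h0 i (gC_zero.1 hi))).2⟩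
  · refine Or.inl ⟨fun i hi => (h1 i ?_ ?_).1, fun i hi => (h1 i ?_ ?_).2⟩
    · rintro rfl
      exact hk (hi.symm.trans (gC_zero.2 hP.a5))
    · rintro rfl
      exact hk (hi.symm.trans (gC_zero.2 hP.a6))
    · rintro rfl
      exact hk (hi.symm.trans (gC_zero.2 hP.a5))
    · rintro rfl
      exact hk (hi.symm.trans (gC_zero.2 hP.a6))

/-- losses of `P, X_a` -/
theorem lossB (hP : PlaneM a b) (ho : OutS (gC a b) (coneM Ma) (dhC a b) (nC a b) lam A φ r)
    {p q u v : Fin 11 → ℝ} (hp : p ∈ coneM Ma) (hq : q ∈ coneM Ma) (hu : u ∈ coneM Ma)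
    (hv : v ∈ coneM Ma) (h1 : ∀ i, i ≠ 7 → i ≠ 8 → p i = q i ∧ u i = v i)
    (h7 : p 7 = u 7 ∧ q 7 = v 7) (h8 : p 8 = u 8 ∧ q 8 = v 8) :
    lam p - lam q = lam u - lam v := by
  refine outS_diff ho hp hq hu hv fun k => ?_
  by_cases hk : k = gC a b 7
  · subst hk
    refine Or.inr ⟨fun i hi => ?_, fun i hi => ?_⟩
    · rcases (hP.grpB i).1 hi with rfl | rfl
      · exact h7.1
      · exact h8.1
    · rcases (hP.grpB i).1 hi with rfl | rfl
      · exact h7.2
      · exact h8.2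
  · refine Or.inl ⟨fun i hi => (h1 i ?_ ?_).1, fun i hi => (h1 i ?_ ?_).2⟩
    · rintro rfl
      exact hk hi.symm
    · rintro rfl
      exact hk (hi.symm.trans ((hP.grpB 8).2 (Or.inr rfl)))
    · rintro rfl
      exact hk hi.symm
    · rintro rfl
      exact hk (hi.symm.trans ((hP.grpB 8).2 (Or.inr rfl)))

/-- losses of `X_b, N` -/
theorem lossC (hP : PlaneM a b) (ho : OutS (gC a b) (coneM Ma) (dhC a b) (nC a b) lam A φ r)
    (hah : AddHom (coneM Ma) a b φ) (hcone : ∀ c, c ∈ coneM Ma ↔ ConeM c)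
    (hXB : φ (gC a b 9) (![0, 0, 0, 0, 0, 0, 0, 0, 0, 1, 0]) ≤ -1)
    {c c' : Fin 11 → ℝ} (hc : c ∈ coneM Ma) (hc' : c' ∈ coneM Ma)
    (h : ∀ i, i ≠ 9 → i ≠ 10 → c i = c' i) (x n x' n' : ℝ) (hn : 0 ≤ n) (hnx : n ≤ 2 * x)
    (hn' : 0 ≤ n') (hnx' : n' ≤ 2 * x') (h9 : c 9 = x) (h10 : c 10 = n) (h9' : c' 9 = x')
    (h10' : c' 10 = n') :
    lam c - lam c' = (r (gC a b 9) * (n' / 2) + (x' - n' / 2)) -
      (r (gC a b 9) * (n / 2) + (x - n / 2)) := by
  rw [outS_one ho hc hc' (i₀ := 9) (fun i hi => h i (fun h => hi (by rw [h]))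
    fun h => hi ((hP.grpC i).2 (Or.inr h))), phiC hP ho hah hcone hXB hn hnx h9 h10,
    phiC hP ho hah hcone hXB hn' hnx' h9' h10']
  ring

/-- rate of `{X_b, N}` -/
theorem one_le_rC (hP : PlaneM a b) (ho : OutS (gC a b) (coneM Ma) (dhC a b) (nC a b) lam A φ r)
    (hah : AddHom (coneM Ma) a b φ) (hcone : ∀ c, c ∈ coneM Ma ↔ ConeM c)
    (hXB : φ (gC a b 9) (![0, 0, 0, 0, 0, 0, 0, 0, 0, 1, 0]) ≤ -1) : 1 ≤ r (gC a b 9) := by
  have m1 : (![1, 0, 1, 0, 1, 1, 1, 1, 1, 1, 0] : Fin 11 → ℝ) ∈ coneM Ma := by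
    rw [hcone]
    simp only [ConeM, Matrix.cons_val]
    norm_num
  have m2 : (![1, 0, 1, 0, 1, 1, 1, 1, 1, 1, 2] : Fin 11 → ℝ) ∈ coneM Ma := by
    rw [hcone]
    simp only [ConeM, Matrix.cons_val]
    norm_num
  have h1 := phiC hP ho hah hcone hXB (x := 1) (n := 0) le_rfl (by norm_num)
    (c := ![1, 0, 1, 0, 1, 1, 1, 1, 1, 1, 0]) (by simp) (by simp)
  have h2 := phiC hP ho hah hcone hXB (x := 1) (n := 2) (by norm_num) (by norm_num)
    (c := ![1, 0, 1, 0, 1, 1, 1, 1, 1, 1, 2]) (by simp) (by simp)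
  have h3 := (ho.mono (gC a b 9) _ m1 _ m2 (by
    intro i hi
    rcases (hP.grpC i).1 hi with rfl | rfl
    · simp
    · simp)).1
  rw [h1, h2] at h3
  linarith

/-- rate of `{P, X_a}` -/
theorem one_le_rB (hP : PlaneM a b) (ho : OutS (gC a b) (coneM Ma) (dhC a b) (nC a b) lam A φ r)
    (hcone : ∀ c, c ∈ coneM Ma ↔ ConeM c)
    (hXA : φ (gC a b 7) (![0, 0, 0, 0, 0, 0, 0, 0, 1, 0, 0]) ≤ -1) : 1 ≤ r (gC a b 7) := by
  have m1 : (![1, 0, 1, 0, 1, 1, 1, 0, 1, 0, 0] : Fin 11 → ℝ) ∈ coneM Ma := by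
    rw [hcone]
    simp only [ConeM, Matrix.cons_val]
    norm_num
  have m2 : (![1, 0, 1, 0, 1, 1, 1, 1, 1, 0, 0] : Fin 11 → ℝ) ∈ coneM Ma := by
    rw [hcone]
    simp only [ConeM, Matrix.cons_val]
    norm_num
  have h1 : φ (gC a b 7) (![1, 0, 1, 0, 1, 1, 1, 0, 1, 0, 0]) =
      φ (gC a b 7) (![0, 0, 0, 0, 0, 0, 0, 0, 1, 0, 0]) := by
    refine ho.loc _ _ _ fun i hi => ?_
    rcases (hP.grpB i).1 hi with rfl | rfl
    · simp
    · simp
  have h2 : φ (gC a b 7) (![1, 0, 1, 0, 1, 1, 1, 1, 1, 0, 0]) = -(r (gC a b 7) * 1) := by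
    refine ho.rate _ _ m2 1 fun i hi => ?_
    rcases (hP.grpB i).1 hi with rfl | rfl
    · rw [dhC, hP.a7]; norm_num; rfl
    · rw [dhC, hP.a8]; norm_num; rfl
  have h3 := (ho.mono (gC a b 7) _ m1 _ m2 (by
    intro i hi
    rcases (hP.grpB i).1 hi with rfl | rfl
    · simp
    · simp)).1
  rw [h1, h2] at h3
  linarith

/-- **profile of the window** -/
theorem mirProf_of (hP : PlaneM a b)
    (ho : OutS (gC a b) (coneM Ma) (dhC a b) (nC a b) lam A φ r)
    (hah : AddHom (coneM Ma) a b φ) (hcone : ∀ c, c ∈ coneM Ma ↔ ConeM c)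
    (hXB : φ (gC a b 9) (![0, 0, 0, 0, 0, 0, 0, 0, 0, 1, 0]) ≤ -1)
    (hXA : φ (gC a b 7) (![0, 0, 0, 0, 0, 0, 0, 0, 1, 0, 0]) ≤ -1) (hm : 0 < m)
    (hS1 : ∀ y : ℝ, 0 ≤ y → y ≤ 1 → m * y ≤ lam 0 - lam (![0, 0, 0, 0, 0, y, 0, 0, 0, 0, 0]))
    (hr : r (gC a b 9) < 3) :
    MirProf (legV Ma) (nuV lam) 1 ((r (gC a b 9) - 1) / 2) m := by
  have hleg : ∀ (A : Finset (Fin 11)) (y : ℝ), 0 ≤ y → y ≤ 1 → 1 ∉ A → 3 ∉ A →
      (6 ∈ A → 5 ∈ A) → (9 ∈ A → 8 ∈ A) → vec A y ∈ legV Ma := by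
    intro A y h0 h1 g1 g3 g6 g9
    have v0 : ∀ s, 0 ≤ vec A y s := fun s => by
      unfold vec
      split_ifs
      · exact h0
      · exact le_rfl
    refine mem_legV hcone ?_ ?_ v0 (fun s => ?_) ?_ ?_
    · simp [vec, g1]
    · simp [vec, g3]
    · unfold vec
      split_ifs
      · exact h1
      · norm_num
    · by_cases g : (6 : Fin 11) ∈ A
      · have e : vec A y 5 = y := by simp [vec, g6 g]
        have e2 : vec A y 6 = y := by simp [vec, g]
        rw [e, e2]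
        linarith [v0 2]
      · have e2 : vec A y 6 = 0 := by simp [vec, g]
        rw [e2]
        exact add_nonneg (v0 2) (v0 5)
    · by_cases g : (9 : Fin 11) ∈ A
      · have e : vec A y 8 = y := by simp [vec, g9 g]
        have e2 : vec A y 9 = y := by simp [vec, g]
        rw [e, e2]
        linarith [v0 2]
      · have e2 : vec A y 9 = 0 := by simp [vec, g]
        rw [e2]
        exact add_nonneg (v0 2) (v0 8)
  have h0leg : (0 : Fin 11 → ℝ) ∈ legV Ma := by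
    have := hleg ∅ 0 le_rfl zero_le_one (by simp) (by simp) (by simp) (by simp)
    have e : vec (∅ : Finset (Fin 11)) 0 = 0 := by funext s; simp [vec]
    rwa [e] at this
  have hfb : ∀ y n p x c : ℝ, 0 ≤ y → y ≤ 1 → 0 ≤ n → n ≤ y → 0 ≤ p → p ≤ y → 0 ≤ x → x ≤ y →
      0 ≤ c → c ≤ y → fb y n p x c ∈ legV Ma := by
    intro y n p x c hy hy1 hn hny hp hpy hx hxy hc hcy
    have e : fb y n p x c = ![0, 0, y, 0, 0, c, y, p, x, y, n] := by
      funext s
      fin_cases s <;> simp [fb, bx]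
    rw [e]
    refine mem_legV hcone (by simp) (by simp) (fun s => ?_) (fun s => ?_) ?_ ?_
    · fin_cases s <;> simp <;> assumption
    · fin_cases s <;> simp <;> linarith
    · simp only [Matrix.cons_val]
      linarith
    · simp only [Matrix.cons_val]
      linarith
  have efb : ∀ y n p x c : ℝ, cut sM (fb y n p x c) topM = ![1, 0, y, 0, 1, c, y, p, x, y, n] := by
    intro y n p x c
    rw [cut_topM]
    funext s
    fin_cases s <;> simp [fb, bx]
  have e0 : cut sM (0 : Fin 11 → ℝ) topM = ![1, 0, 0, 0, 1, 0, 0, 0, 0, 0, 0] := by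
    rw [cut_topM]
    funext s
    fin_cases s <;> simp
  have sub : ∀ p q, nuV lam p - nuV lam q = lam (cut sM p topM) - lam (cut sM q topM) :=
    fun p q => by unfold nuV; ring
  have z0 : (0 : Fin 11 → ℝ) ∈ coneM Ma := zero_mem
  have z5 : ∀ y : ℝ, 0 ≤ y → (![0, 0, 0, 0, 0, y, 0, 0, 0, 0, 0] : Fin 11 → ℝ) ∈ coneM Ma := by
    intro y hy
    rw [hcone]
    simp only [ConeM, Matrix.cons_val]
    refine ⟨?_, ?_, ?_, ?_, ?_, ?_, ?_⟩ <;> linarith
  have hr1 := one_le_rC hP ho hah hcone hXB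
  have hall := fun y (h0 : 0 ≤ y) (h1 : y ≤ 1) => hleg {5, 6, 7, 8, 9, 10} y h0 h1 (by decide)
    (by decide) (by decide) (by decide)
  have hpos := fun y (h0 : 0 ≤ y) (h1 : y ≤ 1) => hleg {7, 8, 9, 10} y h0 h1 (by decide)
    (by decide) (by decide) (by decide)
  have hdir := fun y (h0 : 0 ≤ y) (h1 : y ≤ 1) => hleg {5, 6} y h0 h1 (by decide)
    (by decide) (by decide) (by decide)
  have hq0 := fun y (h0 : 0 ≤ y) (h1 : y ≤ 1) => hleg {8, 9} y h0 h1 (by decide)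
    (by decide) (by decide) (by decide)
  have hq := fun y (h0 : 0 ≤ y) (h1 : y ≤ 1) => hleg {8, 9, 10} y h0 h1 (by decide)
    (by decide) (by decide) (by decide)
  have hc5 := fun y (h0 : 0 ≤ y) (h1 : y ≤ 1) => hleg {5} y h0 h1 (by decide)
    (by decide) (by decide) (by decide)
  have hc7 := fun y (h0 : 0 ≤ y) (h1 : y ≤ 1) => hleg {7} y h0 h1 (by decide)
    (by decide) (by decide) (by decide)
  have hc57 := fun y (h0 : 0 ≤ y) (h1 : y ≤ 1) => hleg {5, 7} y h0 h1 (by decide)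
    (by decide) (by decide) (by decide)
  refine ⟨one_pos, by linarith, by linarith, hm, hfb, hall, hpos, hdir, hq0, hq, hc5, hc7, hc57,
    ?_, ?_, ?_, ?_, ?_, ?_, ?_⟩
  · -- dec
    intro y h0 h1
    have := loss0 hP ho (legV_cone h0leg) (legV_cone (hdir y h0 h1)) (legV_cone (hpos y h0 h1))
      (legV_cone (hall y h0 h1)) (by
        intro i h5 h6
        simp only [cut_topM]
        fin_cases i <;> simp [vec] at h5 h6 ⊢) (by
        intro i hi
        simp only [cut_topM]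
        fin_cases i <;> simp [vec] at hi ⊢)
    rw [← sub, ← sub] at this
    linarith
  · -- fib
    intro y h0 h1
    rw [sub, lossC hP ho hah hcone hXB (legV_cone (hq0 y h0 h1)) (legV_cone (hq y h0 h1)) (by
      intro i h9 h10
      simp only [cut_topM]
      fin_cases i <;> simp [vec] at h9 h10 ⊢) y 0 y y le_rfl (by linarith) h0 (by linarith)
      (by simp [cut_topM, vec]) (by simp [cut_topM, vec]) (by simp [cut_topM, vec])
      (by simp [cut_topM, vec])]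
    apply le_of_eq
    ring
  · -- conc
    intro y h0 h1
    rw [sub, loss0 hP ho (legV_cone h0leg) (legV_cone (hc5 y h0 h1)) z0 (z5 y h0) (by
      intro i h5 h6
      simp only [cut_topM]
      fin_cases i <;> simp [vec] at h5 h6 ⊢) (by
      intro i hi
      simp only [cut_topM]
      fin_cases i <;> simp [vec] at hi ⊢)]
    exact hS1 y h0 h1
  · -- concp
    intro y h0 h1
    rw [sub, loss0 hP ho (legV_cone (hc7 y h0 h1)) (legV_cone (hc57 y h0 h1)) z0 (z5 y h0) (by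
      intro i h5 h6
      simp only [cut_topM]
      fin_cases i <;> simp [vec] at h5 h6 ⊢) (by
      intro i hi
      simp only [cut_topM]
      fin_cases i <;> simp [vec] at hi ⊢)]
    exact hS1 y h0 h1
  · -- hN
    intro y h0 h1
    have m1 := hfb y 0 0 0 0 h0 h1 le_rfl h0 le_rfl h0 le_rfl h0 le_rfl h0
    have m2 := hfb y y 0 0 0 h0 h1 h0 le_rfl le_rfl h0 le_rfl h0 le_rfl h0
    rw [sub, lossC hP ho hah hcone hXB (legV_cone m1) (legV_cone m2) (by
      intro i h9 h10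
      rw [efb, efb]
      fin_cases i <;> simp at h9 h10 ⊢) y 0 y y le_rfl (by linarith) h0 (by linarith)
      (by rw [efb]; simp) (by rw [efb]; simp) (by rw [efb]; simp) (by rw [efb]; simp)]
    apply le_of_eq
    ring
  · -- np
    intro y t ht hty h1
    have h0 := ht.trans hty
    have m1 := hfb y 0 0 0 0 h0 h1 le_rfl h0 le_rfl h0 le_rfl h0 le_rfl h0
    have m2 := hfb y t 0 0 0 h0 h1 ht hty le_rfl h0 le_rfl h0 le_rfl h0
    have m3 := hfb y t t 0 0 h0 h1 ht hty ht hty le_rfl h0 le_rfl h0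
    have k1 := lossC hP ho hah hcone hXB (legV_cone m1) (legV_cone m2) (by
      intro i h9 h10
      rw [efb, efb]
      fin_cases i <;> simp at h9 h10 ⊢) y 0 y t le_rfl (by linarith) ht (by linarith)
      (by rw [efb]; simp) (by rw [efb]; simp) (by rw [efb]; simp) (by rw [efb]; simp)
    have k2 := lossB hP ho (legV_cone m2) (legV_cone m3) (legV_cone h0leg)
      (legV_cone (hc7 t ht (hty.trans h1))) (by
        intro i h7 h8
        rw [efb, efb]
        simp only [cut_topM]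
        fin_cases i <;> simp [vec] at h7 h8 ⊢)
      (by rw [efb, efb]; simp [cut_topM, vec]) (by rw [efb, efb]; simp [cut_topM, vec])
    rw [← sub] at k1 k2
    rw [← sub] at k2
    linarith
  · -- px
    intro t ht ht1
    have m1 := hfb 1 1 0 0 1 zero_le_one le_rfl zero_le_one le_rfl le_rfl zero_le_one le_rfl
      zero_le_one zero_le_one le_rfl
    have m2 := hfb 1 1 t t 1 zero_le_one le_rfl zero_le_one le_rfl ht ht1 ht ht1
      zero_le_one le_rfl
    have k1 := outS_one ho (legV_cone m1) (legV_cone m2) (i₀ := 7) (by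
      intro i hi
      have h7 : i ≠ 7 := fun h => hi (by rw [h])
      have h8 : i ≠ 8 := fun h => hi ((hP.grpB i).2 (Or.inr h))
      rw [efb, efb]
      fin_cases i <;> simp at h7 h8 ⊢)
    have k2 : φ (gC a b 7) (cut sM (fb 1 1 0 0 1) topM) = 0 := by
      refine ho.zero _ _ fun i hi => ?_
      rw [efb]
      rcases (hP.grpB i).1 hi with rfl | rfl
      · simp
      · simp
    have k3 : φ (gC a b 7) (cut sM (fb 1 1 t t 1) topM) = -(r (gC a b 7) * t) := by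
      refine ho.rate _ _ (legV_cone m2) t fun i hi => ?_
      rw [efb]
      rcases (hP.grpB i).1 hi with rfl | rfl
      · rw [dhC, hP.a7]; norm_num; rfl
      · rw [dhC, hP.a8]; norm_num; rfl
    rw [sub, k1, k2, k3]
    have := one_le_rB hP ho hcone hXA
    nlinarith

end prof

end Crest.Agent.R136.C1s940
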