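import Crest.Agent.R136.Fx3_940

/-!
# R136: a linear slot is full, non-linear profile (helper355, doc 2352)

`kauf_stay` : 940's `full_stay_R` before the rates (one inequality for every `J`);
`full_nl_R` : if narrowing `sC` costs at least `m t` after `sX : t`, and the loss of `sX` is
1-Lipschitz, then the loss of `sX` by `y` is `y`.  No linearity of the profile in `sX`.
-/

set_option autoImplicit false
set_option linter.unusedVariables false
set_option linter.unusedSectionVars false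

open Filter Topology Finset

namespace Crest.Agent.R136.Fe2355

open Crest.Agent.R138.Ex926 (Base U)
open Crest.Agent.R136.Gf356
open Crest.Agent.R136.Fx940

variable {κ : Type} {B : Base} {G : ℕ → RCfg κ} {Leg : Set (κ → ℝ)} {ν : (κ → ℝ) → ℝ}
  {σ R D : ℝ}

/-- **Kaufman for a linear slot, frozen slots, non-linear form.** -/
theorem kauf_stay (H : RModel B G σ R Leg ν D) {sX sC : κ} (hne : sC ≠ sX) {p : κ → ℝ}
    (pX : p sX = 0) (pC : p sC = 0) {y C : ℝ} (hy : 0 < y) (hyR : y ≤ R)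
    (hC : 0 < C)
    (leg0 : p ∈ Leg) (legX : bx2 p sX sC y 0 ∈ Leg)
    (legXC : ∀ t : ℝ, 0 ≤ t → t ≤ y → bx2 p sX sC t t ∈ Leg)
    (stay : ∀ C' : ℝ, 0 < C' → ∃ C'' : ℝ, 0 < C'' ∧ ∀ ε : ℝ, 0 < ε → ∀ᶠ n in (U : Filter ℕ),
      ∀ k k' i l, (i, k) ∈ (G n).I → (l, k) ∈ (G n).I → (i, k') ∈ (G n).I → (l, k') ∈ (G n).I →
      (G n).loose p (C' * ε) k i l → (G n).loose p (C'' * ε) k' i l)
    (zb : ∀ ε : ℝ, 0 < ε → ∀ᶠ n in (U : Filter ℕ), ∀ k ∈ (G n).Z, ∀ k' ∈ (G n).Z,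
      |(G n).z k' - (G n).z k| ≤ B.d n ^ (-(C * ε)))
    (evo : ∀ C' : ℝ, 0 < C' → ∃ C'' : ℝ, 0 < C'' ∧ ∀ ε : ℝ, 0 < ε → ∀ᶠ n in (U : Filter ℕ),
      ∀ k k' i l, (i, k) ∈ (G n).I → (l, k) ∈ (G n).I → (i, k') ∈ (G n).I → (l, k') ∈ (G n).I →
      (G n).loose p (C' * ε) k i l → |(G n).rel k' i l sX - ((G n).rel k i l sX +
        ((G n).z k' - (G n).z k) * (G n).rel k i l sC)| ≤ B.d n ^ (y - C'' * ε))
    {J : ℕ} (hJ : 0 < J) :
    ∃ j ≤ J, ν p - ν (bx2 p sX sC (sc y J j) (sc y J j)) + σ * (y - sc y J (j + 1)) ≤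
      ν p - ν (bx2 p sX sC y 0) := by
  classical
  have hD := H.D1
  have hD0 : 0 < D := by linarith
  obtain ⟨Cs, hCs, hstay⟩ := stay (D ^ 2) (by positivity)
  obtain ⟨Ce, hCe, hevo⟩ := evo (D ^ 2) (by positivity)
  -- a pin
  have hpin : ∀ n, ∃ q : ℕ × ℕ, q ∈ (G n).I := fun n => H.nonempty n
  choose q hq using hpin
  set i0 : ℕ → ℕ := fun n => (q n).1 with hi0
  set k0 : ℕ → ℕ := fun n => (q n).2 with hk0
  have h0 : ∀ n, (i0 n, k0 n) ∈ (G n).I := fun n => hq n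
  have hle : ∀ j, p j ≤ bx2 p sX sC y 0 j := by
    intro j
    unfold bx2
    split_ifs with h1 h2
    · rw [h1, pX]; exact hy.le
    · rw [h2, pC]
    · exact le_rfl
  have hboxI : ∀ n ε i, i ∈ (G n).box p ε (i0 n) (k0 n) → (i, k0 n) ∈ (G n).I :=
    fun n ε i hi => H.memSlice.1 (RCfg.box_subset_slice hi)
  have hpair : ∀ ε : ℝ, 0 < ε → ∀ᶠ n in (U : Filter ℕ), ∀ i ∈ (G n).box p ε (i0 n) (k0 n),
      ∀ i' ∈ (G n).box p ε (i0 n) (k0 n), (G n).loose p (D ^ 2 * ε) (k0 n) i i' := by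
    intro ε hε
    filter_upwards [pair_loose H.toRUnif leg0 hε] with n hn i hi i' hi'
    exact hn (k0 n) (i0 n) i i' (h0 n) hi hi'
  refine kauf_pair_R H.toRUnif i0 k0 (Filter.Eventually.of_forall h0) p p
    (bx2 p sX sC y 0) leg0 leg0 legX hle hy H.σ_nonneg H.σ_le
    (fun n i i' => (G n).rel (k0 n) i i' sX) (fun n i i' => (G n).rel (k0 n) i i' sC)
    (fun n k => (G n).z k - (G n).z (k0 n)) (fun n => (G n).Z)
    (Filter.Eventually.of_forall fun n => ⟨k0 n, H.memZ (h0 n)⟩) hJ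
    (fun j => bx2 p sX sC (sc y J j) (sc y J j))
    (fun j hj => legXC _ (sc_nonneg hy.le J j) (sc_le hy.le hJ hj))
    (C1 := C + Cs + D ^ 2 + 1) (by positivity) ?_ ?_ ?_ ?_ ?_ ?_ ?_
  · intro ε hε
    filter_upwards [zb ε hε] with n hn k hk
    refine (hn (k0 n) (H.memZ (h0 n)) k hk).trans (rpow_anti B n ?_)
    have : 0 ≤ (Cs + D ^ 2 + 1) * ε := by positivity
    linarith
  · intro ε hε
    filter_upwards [hpair ε hε] with n hn i hi i' hi'
    have h1 := hn i hi i' hi' sC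
    have h2 := hn i hi i' hi' sX
    rw [H.base n, pC, zero_sub] at h1
    rw [H.base n, pX, zero_sub] at h2
    have : 0 ≤ (C + Cs + 1) * ε := by positivity
    exact ⟨h1.trans (rpow_anti B n (by linarith)), h2.trans (rpow_anti B n (by linarith))⟩
  · intro ε hε
    filter_upwards [hpair ε hε, hstay ε hε] with n hn hs k hk i hi i' hi' hI hI'
    refine H.loose_mono (fun _ => le_rfl) ?_ (hs (k0 n) k i i' (hboxI n ε i hi)
      (hboxI n ε i' hi') hI hI' (hn i hi i' hi'))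
    have : 0 ≤ (C + D ^ 2 + 1) * ε := by positivity
    linarith
  · -- geometry
    intro C2 hC2
    refine ⟨Ce + C2 + 1, by positivity, ?_⟩
    intro ε hε
    filter_upwards [hevo ε hε, hpair ε hε, ev_const_le B hε 2] with n hn hp h2 k hk i hi i' hi'
      hI hI' hl
    have h1 := hn (k0 n) k i i' (hboxI n ε i hi) (hboxI n ε i' hi') hI hI' (hp i hi i' hi')
    have h3 := hl sX
    rw [H.base n, bx2_fst] at h3
    have h4 : |(G n).rel (k0 n) i i' sX + ((G n).z k - (G n).z (k0 n)) *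
        (G n).rel (k0 n) i i' sC| ≤ B.d n ^ (y - C2 * ε) + B.d n ^ (y - Ce * ε) := by
      have e1 : (G n).rel (k0 n) i i' sX + ((G n).z k - (G n).z (k0 n)) *
          (G n).rel (k0 n) i i' sC = (G n).rel k i i' sX - ((G n).rel k i i' sX -
          ((G n).rel (k0 n) i i' sX + ((G n).z k - (G n).z (k0 n)) *
            (G n).rel (k0 n) i i' sC)) := by ring
      rw [e1]
      exact (abs_sub _ _).trans (add_le_add h3 h1)
    refine h4.trans ?_
    have e2 : B.d n ^ (y - C2 * ε) ≤ B.d n ^ (y - (Ce + C2) * ε) := rpow_anti B n (by nlinarith)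
    have e3 : B.d n ^ (y - Ce * ε) ≤ B.d n ^ (y - (Ce + C2) * ε) := rpow_anti B n (by nlinarith)
    have e4 : B.d n ^ (y - (Ce + C2 + 1) * ε) = B.d n ^ (-ε) * B.d n ^ (y - (Ce + C2) * ε) := by
      rw [← rpow_add']; congr 1; ring
    rw [e4]
    have := rpos B n (y - (Ce + C2) * ε)
    nlinarith
  · -- alive
    intro ε hε
    filter_upwards [H.line ε hε] with n hn i hi T hT hTal
    have hI := hboxI n ε i hi
    refine le_trans ?_ ((hn i (H.memL hI)).trans ?_)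
    · refine mul_le_mul_of_nonneg_right (rpow_anti B n ?_) (Nat.cast_nonneg _)
      have : 0 ≤ (C + Cs + D ^ 2) * ε := by positivity
      linarith
    · refine mod_cast card_le_card ?_
      intro k hk
      obtain ⟨h1, h2⟩ := RCfg.mem_hts.1 hk
      exact hTal k h1 h2
  · -- close pairs
    intro C3 hC3
    refine ⟨D ^ 2 + C3, by positivity, ?_⟩
    intro j₁ hj₁ ε hε
    filter_upwards [hpair ε hε] with n hn i hi i' hi' hV hA j
    rw [H.base n]
    have e0 : 0 ≤ D ^ 2 * ε := by positivity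
    have e1 : 0 ≤ C3 * ε := by positivity
    by_cases h1 : j = sX
    · rw [h1, bx2_fst]
      exact hA.trans (rpow_anti B n (by linarith))
    · by_cases h2 : j = sC
      · rw [h2, bx2_snd p hne]
        exact hV.trans (rpow_anti B n (by linarith))
      · rw [bx2_other p h1 h2]
        have h3 := hn i hi i' hi' j
        rw [H.base n] at h3
        exact h3.trans (rpow_anti B n (by linarith))
  · -- Frostman
    intro y' hy0 hyy ε hε
    filter_upwards [H.frost y' hy0 (hyy.trans hyR) ε hε] with n hn k hk T hT hTn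
    refine le_trans ?_ (hn k hk)
    refine mod_cast card_le_card ?_
    intro k' hk'
    unfold RCfg.hbox
    rw [mem_filter]
    refine ⟨hT hk', ?_⟩
    have h1 := hTn k' hk'
    have e1 : (G n).z k' - (G n).z (k0 n) - ((G n).z k - (G n).z (k0 n)) =
        (G n).z k' - (G n).z k := by ring
    rw [H.base n]
    rwa [e1] at h1

/-- **a linear slot is full**, frozen slots, non-linear profile, `σ = 1`. -/
theorem full_nl_R (H : RModel B G 1 R Leg ν D) {sX sC : κ} (hne : sC ≠ sX) {p : κ → ℝ}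
    (pX : p sX = 0) (pC : p sC = 0) {y C m : ℝ} (hy : 0 < y) (hyR : y ≤ R)
    (hC : 0 < C) (hm : 0 < m)
    (leg0 : p ∈ Leg) (legX : bx2 p sX sC y 0 ∈ Leg)
    (legXC : ∀ t : ℝ, 0 ≤ t → t ≤ y → bx2 p sX sC t t ∈ Leg)
    (stay : ∀ C' : ℝ, 0 < C' → ∃ C'' : ℝ, 0 < C'' ∧ ∀ ε : ℝ, 0 < ε → ∀ᶠ n in (U : Filter ℕ),
      ∀ k k' i l, (i, k) ∈ (G n).I → (l, k) ∈ (G n).I → (i, k') ∈ (G n).I → (l, k') ∈ (G n).I →
      (G n).loose p (C' * ε) k i l → (G n).loose p (C'' * ε) k' i l)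
    (zb : ∀ ε : ℝ, 0 < ε → ∀ᶠ n in (U : Filter ℕ), ∀ k ∈ (G n).Z, ∀ k' ∈ (G n).Z,
      |(G n).z k' - (G n).z k| ≤ B.d n ^ (-(C * ε)))
    (evo : ∀ C' : ℝ, 0 < C' → ∃ C'' : ℝ, 0 < C'' ∧ ∀ ε : ℝ, 0 < ε → ∀ᶠ n in (U : Filter ℕ),
      ∀ k k' i l, (i, k) ∈ (G n).I → (l, k) ∈ (G n).I → (i, k') ∈ (G n).I → (l, k') ∈ (G n).I →
      (G n).loose p (C' * ε) k i l → |(G n).rel k' i l sX - ((G n).rel k i l sX +
        ((G n).z k' - (G n).z k) * (G n).rel k i l sC)| ≤ B.d n ^ (y - C'' * ε))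
    (hsh : ∀ t : ℝ, 0 ≤ t → t ≤ y → ∃ e : ℝ, m * t ≤ e - ν (bx2 p sX sC t t) ∧
      e - ν (bx2 p sX sC y 0) ≤ y - t ∧ e ≤ ν p) :
    y ≤ ν p - ν (bx2 p sX sC y 0) := by
  have key : ∀ J : ℕ, 0 < J → y - y / J - y / J / m ≤ ν p - ν (bx2 p sX sC y 0) := by
    intro J hJ
    have hJr : (0 : ℝ) < J := by exact_mod_cast hJ
    obtain ⟨j, hj, h⟩ := kauf_stay H hne pX pC hy hyR hC leg0 legX legXC stay zb evo hJ
    have t0 := sc_nonneg hy.le J j
    have t1 : sc y J j ≤ y := sc_le hy.le hJ hj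
    obtain ⟨e, h1, h2, h3⟩ := hsh _ t0 t1
    have hs : sc y J (j + 1) = sc y J j + y / J := by
      unfold sc
      push_cast
      field_simp
    rw [hs, one_mul] at h
    have hmt : m * sc y J j ≤ y / J := by linarith
    have h4 : sc y J j ≤ y / J / m := by
      rw [le_div_iff₀ hm]; linarith
    have h5 : 0 ≤ m * sc y J j := mul_nonneg hm.le t0
    linarith
  refine le_of_forall_pos_le_add fun δ hδ => ?_
  obtain ⟨J, hJ⟩ := exists_nat_gt (y * (1 + 1 / m) / δ)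
  have hpos : 0 < y * (1 + 1 / m) / δ := by positivity
  have hJr : (0 : ℝ) < J := hpos.trans hJ
  have hJ0 : 0 < J := by exact_mod_cast hJr
  have h1 := key J hJ0
  have h2 : y / J + y / J / m ≤ δ := by
    have e1 : y / J + y / J / m = y * (1 + 1 / m) / J := by field_simp
    rw [e1, div_le_iff₀ hJr]
    rw [div_lt_iff₀ hδ] at hJ
    linarith
  linarith

end Crest.Agent.R136.Fe2355
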