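import Crest.Agent.R136.Fe1_355
import Crest.Agent.R136.Fe2_355
import Crest.Agent.R136.Lf1_400

/-!
# R136, case (C2) (only 32 tied), F-half, part 1 (helper355, doc 2352)

`NM` : model of a window with level slots `{z, F_b}` in the chart of helper186 (natural window, all
walls tight except `P ≤ z + R`): evolution and composition of the relative coordinates up to
`ρ^(T - ε)`.  `F n k` = flag `F_b` of the height `k`.

* `NM.xa` : `X_a` is full;
* `NM.leaf` : `E` costs nothing up to `j` or the loss of `X_b` by `x` is `≥ x - j`;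
* `NM.xb` : if `C_b` costs something given `E`, then `X_b` is full given `E`;
* `NM.shiftN` : loss of `X_b` given the rest `≤` loss of `N` given the rest (raw twist).
-/

set_option autoImplicit false
set_option linter.unusedVariables false
set_option linter.unusedSectionVars false

open Filter Topology Finset

namespace Crest.Agent.R136.C2355

open Crest.Agent.R138.Ex926 (Base U)
open Crest.Agent.R136.Gf356
open Crest.Agent.R136.Fe1355
open Crest.Agent.R136.Fe2355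

/-- box vector: `E, F_a, C_a, C_b, P, X_a, X_b, N` -/
def bv (e fa ca cb p xa xb n : ℝ) : Fin 11 → ℝ := ![0, 0, e, 0, fa, ca, cb, p, xa, xb, n]

/-- evolution of the relative coordinates, error `δ` -/
structure EvI (δ u φ : ℝ) (r r' : Fin 11 → ℝ) : Prop where
  e2 : |r' 2 - r 2| ≤ δ
  e4 : |r' 4 - (r 4 - φ * r 2)| ≤ δ
  e5 : |r' 5 - r 5| ≤ δ
  e6 : |r' 6 - r 6| ≤ δ
  e7 : |r' 7 - (r 7 - φ * r 6)| ≤ δ
  e8 : |r' 8 - (r 8 + u * r 5)| ≤ δ
  e9 : |r' 9 - (r 9 + u * r 6)| ≤ δ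
  e10 : |r' 10 - (r 10 + u * r 7 - φ * (r 9 + u * r 6))| ≤ δ

/-- composition of the relative coordinates at one height, error `δ` -/
structure CoI (δ : ℝ) (b c g : Fin 11 → ℝ) : Prop where
  c2 : |g 2 - b 2 - c 2| ≤ δ
  c4 : |g 4 - b 4 - c 4| ≤ δ
  c5 : |g 5 - b 5 - c 5| ≤ δ
  c6 : |g 6 - b 6 - c 6 - b 2 * c 5| ≤ δ
  c7 : |g 7 - b 7 - c 7 - b 4 * c 5| ≤ δ
  c8 : |g 8 - b 8 - c 8| ≤ δ
  c9 : |g 9 - b 9 - c 9 - b 2 * c 8| ≤ δ
  c10 : |g 10 - b 10 - c 10 - b 4 * c 8| ≤ δ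

/-- **natural window with level slots `{z, F_b}`** -/
structure NM (B : Base) (G : ℕ → RCfg (Fin 11)) (Leg : Set (Fin 11 → ℝ))
    (ν : (Fin 11 → ℝ) → ℝ) (T D : ℝ) (F : ℕ → ℕ → ℝ) : Prop where
  H : RModel B G 1 T Leg ν D
  T0 : 0 < T
  leg : ∀ e fa ca cb p xa xb n : ℝ, 0 ≤ e → e ≤ T → 0 ≤ fa → fa ≤ T → 0 ≤ ca → ca ≤ T →
    0 ≤ cb → cb ≤ T → 0 ≤ p → p ≤ T → 0 ≤ xa → xa ≤ T → 0 ≤ xb → xb ≤ T → 0 ≤ n → n ≤ T →
    cb ≤ e + ca → p ≤ fa + ca → xb ≤ e + xa → n ≤ fa + xa → bv e fa ca cb p xa xb n ∈ Leg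
  zb : ∀ ε : ℝ, 0 < ε → ∀ᶠ n in (U : Filter ℕ), ∀ k ∈ (G n).Z, ∀ k' ∈ (G n).Z,
    |(G n).z k' - (G n).z k| ≤ B.d n ^ (-ε) ∧ |F n k' - F n k| ≤ B.d n ^ (-ε)
  rb : ∀ ε : ℝ, 0 < ε → ∀ᶠ n in (U : Filter ℕ), ∀ k i l, (i, k) ∈ (G n).I →
    (l, k) ∈ (G n).I → ∀ s, |(G n).rel k i l s| ≤ B.d n ^ (-ε)
  ev : ∀ ε : ℝ, 0 < ε → ∀ᶠ n in (U : Filter ℕ), ∀ k k' i l, (i, k) ∈ (G n).I →
    (l, k) ∈ (G n).I → (i, k') ∈ (G n).I → (l, k') ∈ (G n).I →
    EvI (B.d n ^ (T - ε)) ((G n).z k' - (G n).z k) (F n k' - F n k) ((G n).rel k i l)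
      ((G n).rel k' i l)
  co : ∀ ε : ℝ, 0 < ε → ∀ᶠ n in (U : Filter ℕ), ∀ k i l l', (i, k) ∈ (G n).I →
    (l, k) ∈ (G n).I → (l', k) ∈ (G n).I →
    CoI (B.d n ^ (T - ε)) ((G n).rel k i l) ((G n).rel k l l') ((G n).rel k i l')

variable {B : Base} {G : ℕ → RCfg (Fin 11)} {Leg : Set (Fin 11 → ℝ)} {ν : (Fin 11 → ℝ) → ℝ}
  {T D : ℝ} {F : ℕ → ℕ → ℝ}

theorem bx2_X (p : Fin 11 → ℝ) (e fa ca cb pp xa xb n x c : ℝ)
    (hp : p = bv e fa ca cb pp xa xb n) :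
    Fx940.bx2 p 8 5 x c = bv e fa c cb pp x xb n := by
  subst hp
  funext j
  fin_cases j <;> simp [Fx940.bx2, bv]

theorem bx2_Y (p : Fin 11 → ℝ) (e fa ca cb pp xa xb n x c : ℝ)
    (hp : p = bv e fa ca cb pp xa xb n) :
    Fx940.bx2 p 9 6 x c = bv e fa ca c pp xa x n := by
  subst hp
  funext j
  fin_cases j <;> simp [Fx940.bx2, bv]

theorem lbx (u v w : ℝ) : Lf400.bx (bv 0 0 0 0 0 0 0 0) 8 2 9 u v w = bv v 0 0 0 0 u w 0 := by
  funext j
  fin_cases j <;> simp [Lf400.bx, bv]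

namespace NM

variable (h : NM B G Leg ν T D F)

include h

/-- **`X_a` is full** -/
theorem xa {y c : ℝ} (hy : 0 < y) (hyT : y ≤ T) (hc : 0 < c)
    (hs : ∀ t : ℝ, 0 ≤ t → t ≤ y →
      c * t ≤ ν (bv 0 0 0 0 0 t 0 0) - ν (bv 0 0 t 0 0 t 0 0))
    (hl : ∀ t : ℝ, 0 ≤ t → t ≤ y →
      ν (bv 0 0 0 0 0 t 0 0) - ν (bv 0 0 0 0 0 y 0 0) ≤ y - t) :
    y ≤ ν (bv 0 0 0 0 0 0 0 0) - ν (bv 0 0 0 0 0 y 0 0) := by
  have hT := h.T0
  have L : ∀ t t' : ℝ, 0 ≤ t → t ≤ T → 0 ≤ t' → t' ≤ T → bv 0 0 t' 0 0 t 0 0 ∈ Leg :=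
    fun t t' h1 h2 h3 h4 => h.leg 0 0 t' 0 0 t 0 0 le_rfl hT.le le_rfl hT.le h3 h4 le_rfl hT.le
      le_rfl hT.le h1 h2 le_rfl hT.le le_rfl hT.le (by linarith) (by linarith) (by linarith)
      (by linarith)
  have e0 : ∀ x c : ℝ, Fx940.bx2 (bv 0 0 0 0 0 0 0 0) 8 5 x c = bv 0 0 c 0 0 x 0 0 :=
    fun x c => bx2_X _ 0 0 0 0 0 0 0 0 x c rfl
  have key := full_nl_R h.H (sX := 8) (sC := 5) (by decide) (p := bv 0 0 0 0 0 0 0 0)
    (by simp [bv]) (by simp [bv]) (y := y) (C := 1) (m := c) hy hyT one_pos hc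
    (L 0 0 le_rfl hT.le le_rfl hT.le)
    (by rw [e0]; exact L y 0 hy.le hyT le_rfl hT.le)
    (by intro t h1 h2; rw [e0]; exact L t t h1 (h2.trans hyT) h1 (h2.trans hyT))
    (by
      intro C' hC'
      refine ⟨1, one_pos, fun ε hε => ?_⟩
      filter_upwards [h.rb ε hε] with n hn k k' i l h1 h2 h3 h4 hlo j
      rw [h.H.base n]
      refine (hn k' i l h3 h4 j).trans (rpow_anti B n ?_)
      have : bv 0 0 0 0 0 0 0 0 j = 0 := by fin_cases j <;> simp [bv]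
      rw [this]; linarith)
    (by
      intro ε hε
      filter_upwards [h.zb ε hε] with n hn k hk k' hk'
      rw [one_mul]
      exact (hn k hk k' hk').1)
    (by
      intro C' hC'
      refine ⟨1, one_pos, fun ε hε => ?_⟩
      filter_upwards [h.ev ε hε] with n hn k k' i l h1 h2 h3 h4 hlo
      refine (hn k k' i l h1 h2 h3 h4).e8.trans (rpow_anti B n (by linarith)))
    (by
      intro t h1 h2
      refine ⟨ν (bv 0 0 0 0 0 t 0 0), ?_, ?_, ?_⟩
      · rw [e0]; exact hs t h1 h2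
      · rw [e0]; exact hl t h1 h2
      · refine h.H.nu_anti (L 0 0 le_rfl hT.le le_rfl hT.le)
          (L t 0 h1 (h2.trans hyT) le_rfl hT.le) ?_
        intro j
        fin_cases j <;> simp [bv, h1])
  rwa [e0] at key

/-- **`X_b` is full given `E`** if `C_b` costs something given `E` -/
theorem xb {y c : ℝ} (hy : 0 < y) (hyT : y ≤ T) (hc : 0 < c)
    (hs : ∀ t : ℝ, 0 ≤ t → t ≤ y →
      c * t ≤ ν (bv y 0 0 0 0 0 t 0) - ν (bv y 0 0 t 0 0 t 0))
    (hl : ∀ t : ℝ, 0 ≤ t → t ≤ y →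
      ν (bv y 0 0 0 0 0 t 0) - ν (bv y 0 0 0 0 0 y 0) ≤ y - t) :
    y ≤ ν (bv y 0 0 0 0 0 0 0) - ν (bv y 0 0 0 0 0 y 0) := by
  have hT := h.T0
  have L : ∀ t t' : ℝ, 0 ≤ t → t ≤ y → 0 ≤ t' → t' ≤ y → bv y 0 0 t' 0 0 t 0 ∈ Leg :=
    fun t t' h1 h2 h3 h4 => h.leg y 0 0 t' 0 0 t 0 hy.le hyT le_rfl hT.le le_rfl hT.le h3
      (h4.trans hyT) le_rfl hT.le le_rfl hT.le h1 (h2.trans hyT) le_rfl hT.le (by linarith)
      (by linarith) (by linarith) (by linarith)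
  have e0 : ∀ x c : ℝ, Fx940.bx2 (bv y 0 0 0 0 0 0 0) 9 6 x c = bv y 0 0 c 0 0 x 0 :=
    fun x c => bx2_Y _ y 0 0 0 0 0 0 0 x c rfl
  have key := full_nl_R h.H (sX := 9) (sC := 6) (by decide) (p := bv y 0 0 0 0 0 0 0)
    (by simp [bv]) (by simp [bv]) (y := y) (C := 1) (m := c) hy hyT one_pos hc
    (L 0 0 le_rfl hy.le le_rfl hy.le)
    (by rw [e0]; exact L y 0 hy.le le_rfl le_rfl hy.le)
    (by intro t h1 h2; rw [e0]; exact L t t h1 h2 h1 h2)
    (by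
      intro C' hC'
      refine ⟨C' + 2, by positivity, fun ε hε => ?_⟩
      filter_upwards [h.rb ε hε, h.ev ε hε, ev_const_le B hε 2]
        with n hn he h2c k k' i l h1 h2 h3 h4 hlo j
      have hC'ε : 0 < C' * ε := by positivity
      rw [h.H.base n]
      by_cases hj : j = 2
      · subst hj
        have a1 := hlo 2
        rw [h.H.base n] at a1
        have a2 : bv y 0 0 0 0 0 0 0 2 = y := by simp [bv]
        rw [a2] at a1 ⊢
        have a3 := (he k k' i l h1 h2 h3 h4).e2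
        have a4 : |(G n).rel k' i l 2| ≤ B.d n ^ (y - C' * ε) + B.d n ^ (T - ε) := by
          have e : (G n).rel k' i l 2 = ((G n).rel k' i l 2 - (G n).rel k i l 2) +
              (G n).rel k i l 2 := by ring
          rw [e]
          have := abs_add_le ((G n).rel k' i l 2 - (G n).rel k i l 2) ((G n).rel k i l 2)
          linarith
        have a5 : B.d n ^ (T - ε) ≤ B.d n ^ (y - (C' + 1) * ε) := rpow_anti B n (by nlinarith)
        have a6 : B.d n ^ (y - C' * ε) ≤ B.d n ^ (y - (C' + 1) * ε) :=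
          rpow_anti B n (by nlinarith)
        have a7 : B.d n ^ (y - (C' + 2) * ε) = B.d n ^ (-ε) * B.d n ^ (y - (C' + 1) * ε) := by
          rw [← rpow_add']; congr 1; ring
        rw [a7]
        have := rpos B n (y - (C' + 1) * ε)
        nlinarith
      · refine (hn k' i l h3 h4 j).trans (rpow_anti B n ?_)
        have : bv y 0 0 0 0 0 0 0 j = 0 := by
          fin_cases j <;> simp [bv] at hj ⊢
        rw [this]; nlinarith)
    (by
      intro ε hε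
      filter_upwards [h.zb ε hε] with n hn k hk k' hk'
      rw [one_mul]
      exact (hn k hk k' hk').1)
    (by
      intro C' hC'
      refine ⟨1, one_pos, fun ε hε => ?_⟩
      filter_upwards [h.ev ε hε] with n hn k k' i l h1 h2 h3 h4 hlo
      refine (hn k k' i l h1 h2 h3 h4).e9.trans (rpow_anti B n (by linarith)))
    (by
      intro t h1 h2
      refine ⟨ν (bv y 0 0 0 0 0 t 0), ?_, ?_, ?_⟩
      · rw [e0]; exact hs t h1 h2
      · rw [e0]; exact hl t h1 h2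
      · refine h.H.nu_anti (L 0 0 le_rfl hy.le le_rfl hy.le)
          (L t 0 h1 h2 le_rfl hy.le) ?_
        intro j
        fin_cases j <;> simp [bv, h1])
  rwa [e0] at key

/-- **crossing leaves**: `E : j` costs nothing or `X_b` loses at least `x - j` -/
theorem leaf {x j : ℝ} (hj : 0 ≤ j) (hjx : j ≤ x) (hxT : x ≤ T)
    (hX : x ≤ ν (bv x 0 0 0 0 0 x 0) - ν (bv x 0 0 0 0 x x 0)) :
    ν (bv 0 0 0 0 0 x x 0) ≤ ν (bv j 0 0 0 0 x x 0) ∨
      x + ν (bv 0 0 0 0 0 x x 0) ≤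
        ν (bv 0 0 0 0 0 0 0 0) - ν (bv x 0 0 0 0 0 x 0) + ν (bv x 0 0 0 0 (x - j) x 0) := by
  have hT := h.T0
  have hx : 0 ≤ x := hj.trans hjx
  have L : ∀ v u w : ℝ, 0 ≤ v → v ≤ x → 0 ≤ u → u ≤ x → 0 ≤ w → w ≤ x → w ≤ v + u →
      bv v 0 0 0 0 u w 0 ∈ Leg := by
    intro v u w h1 h2 h3 h4 h5 h6 h7
    exact h.leg v 0 0 0 0 u w 0 h1 (h2.trans hxT) le_rfl hT.le le_rfl hT.le le_rfl hT.le le_rfl
      hT.le h3 (h4.trans hxT) h5 (h6.trans hxT) le_rfl hT.le (by linarith) (by linarith) h7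
      (by linarith)
  have key := Lf400.leaf_R h.H.toRUnif (bv 0 0 0 0 0 0 0 0) (sX := 8) (sF := 2) (sN := 9)
    (by decide) (by decide) (by decide) hj hjx
    (by rw [lbx]; exact L 0 0 0 le_rfl hx le_rfl hx le_rfl hx (by linarith))
    (by rw [lbx]; exact L x 0 x hx le_rfl le_rfl hx hx le_rfl (by linarith))
    (by rw [lbx]; exact L x x x hx le_rfl hx le_rfl hx le_rfl (by linarith))
    (by rw [lbx]; exact L 0 x x le_rfl hx hx le_rfl hx le_rfl (by linarith))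
    (by rw [lbx]; exact L j 0 j hj hjx le_rfl hx hj hjx (by linarith))
    (by rw [lbx]; exact L j x x hj hjx hx le_rfl hx le_rfl (by linarith))
    (by rw [lbx]; exact L x (x - j) x hx le_rfl (by linarith) (by linarith) hx le_rfl
          (by linarith))
    (fun _ => 1)
    (by
      intro ε hε
      refine Filter.Eventually.of_forall fun n => ?_
      rw [abs_one]
      refine ⟨?_, ?_⟩
      · have := rpow_anti B n hε.le
        rwa [Real.rpow_zero] at this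
      · have := rpow_anti B n (show -ε ≤ 0 by linarith)
        rwa [Real.rpow_zero] at this)
    (C1 := 1) le_rfl
    (by
      intro ε hε
      filter_upwards [h.co ε hε] with n hn k i l l' h1 h2 h3 _ _
      refine (hn k i l l' h1 h2 h3).c8.trans (rpow_anti B n (by linarith)))
    (by
      intro ε hε
      filter_upwards [h.co ε hε] with n hn k i l l' h1 h2 h3 _ _
      rw [one_mul]
      refine (hn k i l l' h1 h2 h3).c9.trans (rpow_anti B n (by linarith)))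
  rw [lbx, lbx, lbx, lbx, lbx, lbx] at key
  rcases key with h1 | h1
  · left; linarith
  · right; linarith

end NM

end Crest.Agent.R136.C2355
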