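import Crest.Agent.R136.C2a_355

/-!
# R136, case (C2), F-half, part 2 (helper355)

* `NM.shiftN` : loss of `X_b` given the rest `≤` loss of `N` given the rest (raw twist).

`NM` of a window is `C2w400.nm_of_wat`.
-/

set_option autoImplicit false
set_option linter.unusedVariables false
set_option linter.unusedSectionVars false

open Filter Topology Finset

namespace Crest.Agent.R136.C2355

open Crest.Agent.R138.Ex926 (Base U)
open Crest.Agent.R136.Gf356
open Crest.Agent.R136.Fe1355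
open Crest.Agent.R136.Fe2355

section

variable {B : Base} {G : ℕ → RCfg (Fin 11)} {Leg : Set (Fin 11 → ℝ)} {ν : (Fin 11 → ℝ) → ℝ}
  {T D : ℝ} {F : ℕ → ℕ → ℝ}

/-- **`N` pays at least what `X_b` pays** (`E, F_a` at `g`, everything else at `y`) -/
theorem NM.shiftN (h : NM B G Leg ν T D F)
    (htw : RawTw B G (fun n k k' => F n k' - F n k)) {g y : ℝ} (hg : 0 ≤ g) (hgy : g ≤ y)
    (hyT : y ≤ T) :
    ν (bv g g y y y y 0 y) - ν (bv g g y y y y y y) ≤
      ν (bv g g y y y y 0 0) - ν (bv g g y y y y 0 y) := by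
  have hT := h.T0
  have hy : 0 ≤ y := hg.trans hgy
  have L : ∀ xb n : ℝ, 0 ≤ xb → xb ≤ y → 0 ≤ n → n ≤ y → bv g g y y y y xb n ∈ Leg := by
    intro xb n h1 h2 h3 h4
    exact h.leg g g y y y y xb n hg (hgy.trans hyT) hg (hgy.trans hyT) hy hyT hy hyT hy hyT hy hyT
      h1 (h2.trans hyT) h3 (h4.trans hyT) (by linarith) (by linarith) (by linarith) (by linarith)
  refine shift_R h.H _ _ _ _ (L 0 y le_rfl hy hy le_rfl) (L y y hy le_rfl hy le_rfl)
    (L 0 0 le_rfl hy le_rfl hy) (L 0 y le_rfl hy hy le_rfl) ?_ 9 10 (y := y) ?_ ?_ ?_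
    (fun n k k' => -(F n k' - F n k)) ?_ ?_
  · intro j
    fin_cases j <;> simp [bv, hy]
  · simp [bv]
  · intro j hj
    fin_cases j <;> simp [bv] at hj ⊢
  · simp [bv]
  · intro ε hε
    filter_upwards [htw ε hε] with n hn i hi T' hT' hq
    exact hn i hi T' hT' fun q hqT => by
      have := hq q hqT
      rwa [abs_neg] at this
  intro C0 hC0
  refine ⟨C0 + 3, by linarith, fun ε hε => ?_⟩
  filter_upwards [h.ev ε hε, h.zb ε hε, h.rb ε hε, ev_const_le B hε 4]
    with n hev hzb hrb h4 k hk k' hk' i i' hi hi' hl hl' hlo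
  obtain ⟨hu, hφ⟩ := hzb k hk k' hk'
  have e := hev k k' i i' hi hl hi' hl'
  have e2 := e.e2
  have e4 := e.e4
  have e5 := e.e5
  have e6 := e.e6
  have e7 := e.e7
  have e8 := e.e8
  have e9 := e.e9
  have e10 := e.e10
  set r := (G n).rel k i i' with hr
  set r' := (G n).rel k' i i' with hr'
  set u := (G n).z k' - (G n).z k with hu'
  set φ := F n k' - F n k with hφ'
  have ρ0 : ∀ t : ℝ, 0 < B.d n ^ t := fun t => rpos B n t
  have ra : ∀ {s t : ℝ}, t ≤ s → B.d n ^ s ≤ B.d n ^ t := fun hst => rpow_anti B n hst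
  have hlo' : ∀ j, |r j| ≤ B.d n ^ (bv g g y y y y 0 y j - C0 * ε) := by
    intro j
    have := hlo j
    rwa [h.H.base n] at this
  have l2 : |r 2| ≤ B.d n ^ (g - C0 * ε) := by simpa [bv] using hlo' 2
  have l4 : |r 4| ≤ B.d n ^ (g - C0 * ε) := by simpa [bv] using hlo' 4
  have l5 : |r 5| ≤ B.d n ^ (y - C0 * ε) := by simpa [bv] using hlo' 5
  have l6 : |r 6| ≤ B.d n ^ (y - C0 * ε) := by simpa [bv] using hlo' 6
  have l7 : |r 7| ≤ B.d n ^ (y - C0 * ε) := by simpa [bv] using hlo' 7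
  have l8 : |r 8| ≤ B.d n ^ (y - C0 * ε) := by simpa [bv] using hlo' 8
  have l10 : |r 10| ≤ B.d n ^ (y - C0 * ε) := by simpa [bv] using hlo' 10
  have hC0ε : 0 ≤ C0 * ε := by positivity
  -- products
  have mul1 : ∀ {w x t : ℝ}, |w| ≤ B.d n ^ (-ε) → |x| ≤ B.d n ^ t →
      |w * x| ≤ B.d n ^ (t - ε) := by
    intro w x t hw hx
    rw [abs_mul, show t - ε = -ε + t by ring, rpow_add']
    exact mul_le_mul hw hx (abs_nonneg _) (ρ0 _).le
  have four : ∀ {t : ℝ}, 4 * B.d n ^ t ≤ B.d n ^ (t - ε) := by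
    intro t
    rw [show t - ε = -ε + t by ring, rpow_add']
    exact mul_le_mul_of_nonneg_right h4 (ρ0 _).le
  have hb : ∀ j, |r' j| ≤ B.d n ^ (-ε) := hrb k' i i' hi' hl'
  have hδ : B.d n ^ (T - ε) ≤ B.d n ^ (y - (C0 + 2) * ε) := ra (by nlinarith)
  have hδg : B.d n ^ (T - ε) ≤ B.d n ^ (g - (C0 + 2) * ε) := ra (by nlinarith)
  have t0 : ∀ {t : ℝ}, B.d n ^ (t - C0 * ε) ≤ B.d n ^ (t - (C0 + 2) * ε) := fun {t} =>
    ra (by nlinarith)
  have t1 : ∀ {t : ℝ}, B.d n ^ (t - C0 * ε - ε) ≤ B.d n ^ (t - (C0 + 2) * ε) := fun {t} =>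
    ra (by nlinarith)
  have t2 : ∀ {t : ℝ}, B.d n ^ (t - C0 * ε - ε - ε) ≤ B.d n ^ (t - (C0 + 2) * ε) := fun {t} =>
    ra (by nlinarith)
  have fin : ∀ {t x : ℝ}, |x| ≤ 4 * B.d n ^ (t - (C0 + 2) * ε) →
      |x| ≤ B.d n ^ (t - (C0 + 3) * ε) := by
    intro t x hx
    refine hx.trans (four.trans (ra ?_))
    linarith
  refine ⟨?_, ?_⟩
  · have hz : ∀ j, bv g g y y y y 0 0 j = 0 → |r' j| ≤ (G n).ρ ^ (bv g g y y y y 0 0 j -
        (C0 + 3) * ε) := by
      intro j hj
      rw [h.H.base n, hj]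
      exact (hb j).trans (ra (by nlinarith))
    intro j
    fin_cases j
    · exact hz 0 (by simp [bv])
    · exact hz 1 (by simp [bv])
    · change |r' 2| ≤ (G n).ρ ^ (g - (C0 + 3) * ε)
      rw [h.H.base n]
      refine fin ?_
      have a1 : |r' 2| ≤ |r' 2 - r 2| + |r 2| := by
        have := abs_add_le (r' 2 - r 2) (r 2)
        rwa [sub_add_cancel] at this
      have := t0 (t := g)
      have := ρ0 (g - (C0 + 2) * ε)
      linarith
    · exact hz 3 (by simp [bv])
    · change |r' 4| ≤ (G n).ρ ^ (g - (C0 + 3) * ε)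
      rw [h.H.base n]
      refine fin ?_
      have a1 : |r' 4| ≤ |r' 4 - (r 4 - φ * r 2)| + |r 4 - φ * r 2| := by
        have := abs_add_le (r' 4 - (r 4 - φ * r 2)) (r 4 - φ * r 2)
        rwa [sub_add_cancel] at this
      have a2 := abs_sub (r 4) (φ * r 2)
      have a3 := mul1 hφ l2
      have := t0 (t := g)
      have := t1 (t := g)
      have := ρ0 (g - (C0 + 2) * ε)
      linarith
    · change |r' 5| ≤ (G n).ρ ^ (y - (C0 + 3) * ε)
      rw [h.H.base n]
      refine fin ?_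
      have a1 : |r' 5| ≤ |r' 5 - r 5| + |r 5| := by
        have := abs_add_le (r' 5 - r 5) (r 5)
        rwa [sub_add_cancel] at this
      have := t0 (t := y)
      have := ρ0 (y - (C0 + 2) * ε)
      linarith
    · change |r' 6| ≤ (G n).ρ ^ (y - (C0 + 3) * ε)
      rw [h.H.base n]
      refine fin ?_
      have a1 : |r' 6| ≤ |r' 6 - r 6| + |r 6| := by
        have := abs_add_le (r' 6 - r 6) (r 6)
        rwa [sub_add_cancel] at this
      have := t0 (t := y)
      have := ρ0 (y - (C0 + 2) * ε)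
      linarith
    · change |r' 7| ≤ (G n).ρ ^ (y - (C0 + 3) * ε)
      rw [h.H.base n]
      refine fin ?_
      have a1 : |r' 7| ≤ |r' 7 - (r 7 - φ * r 6)| + |r 7 - φ * r 6| := by
        have := abs_add_le (r' 7 - (r 7 - φ * r 6)) (r 7 - φ * r 6)
        rwa [sub_add_cancel] at this
      have a2 := abs_sub (r 7) (φ * r 6)
      have a3 := mul1 hφ l6
      have := t0 (t := y)
      have := t1 (t := y)
      have := ρ0 (y - (C0 + 2) * ε)
      linarith
    · change |r' 8| ≤ (G n).ρ ^ (y - (C0 + 3) * ε)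
      rw [h.H.base n]
      refine fin ?_
      have a1 : |r' 8| ≤ |r' 8 - (r 8 + u * r 5)| + |r 8 + u * r 5| := by
        have := abs_add_le (r' 8 - (r 8 + u * r 5)) (r 8 + u * r 5)
        rwa [sub_add_cancel] at this
      have a2 := abs_add_le (r 8) (u * r 5)
      have a3 := mul1 hu l5
      have := t0 (t := y)
      have := t1 (t := y)
      have := ρ0 (y - (C0 + 2) * ε)
      linarith
    · exact hz 9 (by simp [bv])
    · exact hz 10 (by simp [bv])
  · refine fin ?_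
    have a0 : r' 10 - -φ * r 9 = (r' 10 - (r 10 + u * r 7 - φ * (r 9 + u * r 6))) +
        (r 10 + (u * r 7 - φ * (u * r 6))) := by ring
    rw [a0]
    have a1 := abs_add_le (r' 10 - (r 10 + u * r 7 - φ * (r 9 + u * r 6)))
      (r 10 + (u * r 7 - φ * (u * r 6)))
    have a2 := abs_add_le (r 10) (u * r 7 - φ * (u * r 6))
    have a3 := abs_sub (u * r 7) (φ * (u * r 6))
    have a4 := mul1 hu l7
    have a5 := mul1 hφ (mul1 hu l6)
    have := t0 (t := y)
    have := t1 (t := y)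
    have := t2 (t := y)
    linarith

end

end Crest.Agent.R136.C2355
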