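import Crest.Agent.R136.Wq0_400
import Crest.Agent.R136.C2a_355

/-!
# R136, case (C2): the natural window model of helper355 in a window of helper413's `AeW`
(helper400)

* `legW_bv` : legality; `nu_bv` : values; `evI`, `coI` : evolution and composition;
* `nm_of_win` : `NM`; `rawTw_of_rawL` : raw twist of `F_b` between heights;
* `nm_of_wat` : everything from `WAt`, static data `stQ {0, 3} K T Ma`.
-/

set_option autoImplicit false
set_option linter.unusedSectionVars false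
set_option linter.unusedVariables false

open Filter Topology

namespace Crest.Agent.R136.C2w400

open Finset Crest.Agent.R136.NetQ186 Crest.Agent.R136.Net191 Crest.Agent.R136.Qg926
open Crest.Agent.R136.Gf356 Crest.Agent.R136.Ev356 Crest.Agent.R136.Aw413
open Crest.Agent.R136.Wq400 Crest.Agent.R136.C2355 Crest.Agent.R136.Fe1355
open Crest.Agent.R138.Ex926 (Base U)

/-- the box `bv` with the level slots `z, F_b` at `T` -/
def bvT (T e fa ca cb p xa xb n : ℝ) : Fin 11 → ℝ := ![T, 0, e, T, fa, ca, cb, p, xa, xb, n]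

theorem cut_bv (T e fa ca cb p xa xb n : ℝ) :
    cut {0, 3} (bv e fa ca cb p xa xb n) (fun _ => T) = bvT T e fa ca cb p xa xb n := by
  funext j
  fin_cases j <;> simp [cut, bv, bvT]

theorem bvT_legal {T e fa ca cb p xa xb n : ℝ} (hT : 0 ≤ T) (e0 : 0 ≤ e) (e1 : e ≤ T)
    (fa0 : 0 ≤ fa) (fa1 : fa ≤ T) (ca0 : 0 ≤ ca) (ca1 : ca ≤ T) (cb0 : 0 ≤ cb) (cb1 : cb ≤ T)
    (p0 : 0 ≤ p) (p1 : p ≤ T) (xa0 : 0 ≤ xa) (xa1 : xa ≤ T) (xb0 : 0 ≤ xb) (xb1 : xb ≤ T)
    (n0 : 0 ≤ n) (n1 : n ≤ T) (w6 : cb ≤ e + ca) (w7 : p ≤ fa + ca) (w9 : xb ≤ e + xa)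
    (w10 : n ≤ fa + xa) :
    Legal monQ (bvT T e fa ca cb p xa xb n) ∧ ∀ s, bvT T e fa ca cb p xa xb n s ≤ T := by
  refine ⟨legalQ_iff.2 ⟨?_, ?_, ?_, ?_, ?_, ?_, ?_, ?_, ?_, ?_, ?_, ?_⟩, ?_⟩
  · intro s; fin_cases s <;> simp [bvT] <;> assumption
  · simp [bvT]; linarith
  · simp [bvT]; linarith
  · simp [bvT]; linarith
  · simp [bvT]; linarith
  · simp [bvT]; linarith
  · simp [bvT]; linarith
  · simp [bvT]; linarith
  · simp [bvT]; linarith
  · simp [bvT]; linarith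
  · simp [bvT]; linarith
  · simp [bvT]; linarith
  · intro s; fin_cases s <;> simp [bvT] <;> assumption

variable {ι : ℕ → Type*} [∀ n, DecidableEq (ι n)] {W : Wnd 11 ι} {f : ∀ n, ι n → Fq4}
  {E : ∀ n, Finset (ι n)} {T K : ℝ}

/-- a window with level slots `{z, F_b}` in natural position -/
structure WinB (W : Wnd 11 ι) (K T : ℝ) : Prop where
  kz : W.kz = 0
  S : W.S = {0, 3}
  top : W.top = fun _ => T
  R' : W.R' = T
  kap : W.kap = kapQ K
  K0 : W.K0 ≤ K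
  T0 : 0 < T
  mons : ∀ k, W.Mw.mon k ⊆ monQ.mon k
  tight : TightQ W

theorem legW_bv (hw : WinB W K T) {e fa ca cb p xa xb n : ℝ} (e0 : 0 ≤ e) (e1 : e ≤ T)
    (fa0 : 0 ≤ fa) (fa1 : fa ≤ T) (ca0 : 0 ≤ ca) (ca1 : ca ≤ T) (cb0 : 0 ≤ cb) (cb1 : cb ≤ T)
    (p0 : 0 ≤ p) (p1 : p ≤ T) (xa0 : 0 ≤ xa) (xa1 : xa ≤ T) (xb0 : 0 ≤ xb) (xb1 : xb ≤ T)
    (n0 : 0 ≤ n) (n1 : n ≤ T) (w6 : cb ≤ e + ca) (w7 : p ≤ fa + ca) (w9 : xb ≤ e + xa)
    (w10 : n ≤ fa + xa) : bv e fa ca cb p xa xb n ∈ W.legW := by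
  obtain ⟨h1, h2⟩ := bvT_legal hw.T0.le e0 e1 fa0 fa1 ca0 ca1 cb0 cb1 p0 p1 xa0 xa1 xb0 xb1 n0 n1
    w6 w7 w9 w10
  refine ⟨?_, fun s hs => ?_⟩
  · rw [hw.S, hw.top, cut_bv, hw.R']
    exact ⟨legal_sub hw.mons h1, h2⟩
  · rw [hw.top]
    have := h2 s
    rw [hw.S] at hs
    rw [← cut_bv, cut_of_notMem hs] at this
    exact this

theorem nu_bv (hw : WinB W K T) (e fa ca cb p xa xb n : ℝ) :
    W.nu (bv e fa ca cb p xa xb n) = W.lam (bvT T e fa ca cb p xa xb n) - W.lam fun _ => T := by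
  unfold Wnd.nu
  rw [hw.S, hw.top, cut_bv]

/-- **evolution** -/
theorem evI (h : QWnd W f)
    (hc : ∀ᶠ n in (U : Filter ℕ), W.Good n ∧ E n ⊆ W.Cl n ∧ W.cfg E n = W.cfg0 n (E n))
    (hw : WinB W K T) {ε : ℝ} (hε : 0 < ε) :
    ∀ᶠ n in (U : Filter ℕ), ∀ k k' i l, (i, k) ∈ (W.cfg E n).I →
      (l, k) ∈ (W.cfg E n).I → (i, k') ∈ (W.cfg E n).I → (l, k') ∈ (W.cfg E n).I →
      EvI (W.B'.d n ^ (T - ε)) ((W.cfg E n).z k' - (W.cfg E n).z k)
        (flg W n k' 3 - flg W n k 3) ((W.cfg E n).rel k i l) ((W.cfg E n).rel k' i l) := by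
  have hK : 0 < K := by linarith [h.ok.K0_one, hw.K0]
  have h0S : (0 : Fin 11) ∈ W.S := by rw [hw.S]; decide
  have h3S : (3 : Fin 11) ∈ W.S := by rw [hw.S]; decide
  have h2S : (2 : Fin 11) ∉ W.S := by rw [hw.S]; decide
  have h4S : (4 : Fin 11) ∉ W.S := by rw [hw.S]; decide
  have ht : ∀ s, T ≤ W.top s := fun s => by rw [hw.top]
  have hM := h.MW_one
  set M := MW W with hMW
  set Cg : ℝ := W.kap 0 * W.kap 1 / W.kap 7 with hCg
  have hCg0 : 0 ≤ Cg := (div_pos (mul_pos (h.ok.kap 0) (h.ok.kap 1)) (h.ok.kap 7)).le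
  set KK : ℝ := CE W + 2 * (Cg * M ^ 3) with hKK
  have hCE0 : 0 ≤ CE W := (h.CE_le 0).2.2
  filter_upwards [hc, h.rel_MW hc, h.mot_eq hc, h.z_eq hw.kz hc, h.evoR hc h0S ht,
    cf01 h hw.tight T, ev_const_le W.B' hε KK] with n hn hrel hmot hz hev hcf01 hKKn
  obtain ⟨g, hE, hcfg⟩ := hn
  obtain ⟨c234, c256, c457, c367, c058, c069, c289, c0710, c4810, c3910⟩ :=
    cfQ h hw.tight hK hw.kap n
  intro k₀ k i i' hi0 hi0' hi hi'
  have hk0Z : k₀ ∈ (W.cfg E n).Z := by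
    rw [hcfg] at hi0 ⊢
    exact mem_image.2 (by obtain ⟨u, hu, -, h6⟩ := mem_cfg0 hi0; exact ⟨u, hu, h6⟩)
  have hkZ : k ∈ (W.cfg E n).Z := by
    rw [hcfg] at hi ⊢
    exact mem_image.2 (by obtain ⟨u, hu, -, h6⟩ := mem_cfg0 hi; exact ⟨u, hu, h6⟩)
  obtain ⟨r1, r2, r3, r4⟩ := hrel
  set d := W.B'.d n with hd
  have hd0 : 0 < d := W.B'.pos n
  have hpow : ∀ t : ℝ, 0 < d ^ t := fun t => Real.rpow_pos_of_pos hd0 t
  have e2ε : d ^ (-ε) * d ^ T = d ^ (T - ε) := by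
    rw [← Real.rpow_add hd0]; congr 1; ring
  have fin : ∀ {x K' : ℝ}, |x| ≤ K' * d ^ T → K' ≤ KK → |x| ≤ d ^ (T - ε) := by
    intro x K' hx hK'
    refine hx.trans ?_
    rw [← e2ε]
    exact mul_le_mul_of_nonneg_right (hK'.trans hKKn) (hpow _).le
  have hM0 : 0 ≤ M := by linarith
  have hCM : 0 ≤ Cg * M ^ 3 := by positivity
  have hzero : ∀ s ∈ W.S, ∀ k i i', (W.cfg E n).rel k i i' s = 0 := by
    intro s hs k i i'
    rw [hcfg, rel_cfg0, if_pos hs]
  have b1 : ∀ s, |(W.cfg E n).rel k₀ i i' s| ≤ M := r1 k₀ i i' hi0 hi0'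
  have m0 : own W n k₀ k (fsl W n i k₀ 2) (fsl W n i k₀ 3) 0 =
      (W.cfg E n).z k - (W.cfg E n).z k₀ := by
    unfold own mot
    rw [if_neg (by decide), if_pos h0S, hz k, hz k₀]
    exact (hmot k₀ hk0Z k hkZ).1 0 (by simp)
  have m3 : own W n k₀ k (fsl W n i k₀ 2) (fsl W n i k₀ 3) 3 = flg W n k 3 - flg W n k₀ 3 := by
    unfold own mot
    rw [if_neg (by decide), if_pos h3S]
    exact (hmot k₀ hk0Z k hkZ).1 3 (by simp)
  have m2 : own W n k₀ k (fsl W n i k₀ 2) (fsl W n i k₀ 3) 2 = 0 := by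
    unfold own mot
    rw [if_neg (by decide), if_neg h2S]
  have m4 : own W n k₀ k (fsl W n i k₀ 2) (fsl W n i k₀ 3) 4 = 0 := by
    unfold own
    rw [if_pos rfl, if_neg h4S]
  have m0b : |own W n k₀ k (fsl W n i k₀ 2) (fsl W n i k₀ 3) 0| ≤ M := by
    unfold own
    rw [if_neg (by decide)]
    exact r3 k₀ hk0Z k hkZ 0
  rw [← m0, ← m3]
  set a := own W n k₀ k (fsl W n i k₀ 2) (fsl W n i k₀ 3) with ha
  set b := (W.cfg E n).rel k₀ i i' with hb
  have b3 : b 3 = 0 := hzero 3 h3S k₀ i i'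
  have hE' : ∀ s, s ∉ W.S → |(W.cfg E n).rel k i i' s - evoG W n a b s| ≤ CE W * d ^ T :=
    fun s hs => hev k₀ k i i' hi0 hi hi0' hi' s hs
  have hcE : CE W ≤ KK := by rw [hKK]; linarith
  have hc01 : |a 0 * b 1 * cf W n 0 1 7| ≤ Cg * M ^ 2 * d ^ T := by
    rw [abs_mul, abs_mul]
    calc |a 0| * |b 1| * |cf W n 0 1 7| ≤ M * M * (Cg * d ^ T) :=
          mul_le_mul (mul_le_mul m0b (b1 1) (abs_nonneg _) hM0) hcf01 (abs_nonneg _)
            (by positivity)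
      _ = Cg * M ^ 2 * d ^ T := by ring
  have hM23 : Cg * M ^ 2 * d ^ T ≤ Cg * M ^ 3 * d ^ T := by
    have : M ^ 2 ≤ M ^ 3 := pow_le_pow_right₀ hM (by norm_num)
    exact mul_le_mul_of_nonneg_right (mul_le_mul_of_nonneg_left this hCg0) (hpow _).le
  refine ⟨?_, ?_, ?_, ?_, ?_, ?_, ?_, ?_⟩
  · have := hE' 2 h2S
    have e : evoG W n a b 2 = b 2 := by simp [evoG, evoN]
    rw [e] at this
    exact fin this hcE
  · have := hE' 4 h4S
    have e : evoG W n a b 4 = b 4 - a 3 * b 2 := by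
      simp only [evoG, if_true]; rw [c234, m2, b3]; ring
    rw [e] at this
    exact fin this hcE
  · have := hE' 5 (by rw [hw.S]; decide)
    have e : evoG W n a b 5 = b 5 := by simp [evoG, evoN]
    rw [e] at this
    exact fin this hcE
  · have := hE' 6 (by rw [hw.S]; decide)
    have e : evoG W n a b 6 = b 6 := by
      simp only [evoG, evoN]
      rw [if_neg (by decide)]
      simp only [Matrix.cons_val]
      rw [m2]; ring
    rw [e] at this
    exact fin this hcE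
  · have := hE' 7 (by rw [hw.S]; decide)
    have e : evoG W n a b 7 = b 7 - a 3 * b 6 + 2 * (a 0 * b 1 * cf W n 0 1 7) := by
      simp only [evoG, evoN]
      rw [if_neg (by decide)]
      simp only [Matrix.cons_val]
      rw [m4, c367]; ring
    rw [e] at this
    refine fin (K' := CE W + 2 * (Cg * M ^ 3)) ?_ (by rw [hKK])
    have e2 : (W.cfg E n).rel k i i' 7 - (b 7 - a 3 * b 6) =
      ((W.cfg E n).rel k i i' 7 - (b 7 - a 3 * b 6 + 2 * (a 0 * b 1 * cf W n 0 1 7))) +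
        2 * (a 0 * b 1 * cf W n 0 1 7) := by ring
    rw [e2]
    have e3 := abs_add_le ((W.cfg E n).rel k i i' 7 -
      (b 7 - a 3 * b 6 + 2 * (a 0 * b 1 * cf W n 0 1 7))) (2 * (a 0 * b 1 * cf W n 0 1 7))
    have e4 : |2 * (a 0 * b 1 * cf W n 0 1 7)| = 2 * |a 0 * b 1 * cf W n 0 1 7| := by
      rw [abs_mul, abs_two]
    rw [e4] at e3
    linarith
  · have := hE' 8 (by rw [hw.S]; decide)
    have e : evoG W n a b 8 = b 8 + a 0 * b 5 := by
      simp only [evoG, evoN]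
      rw [if_neg (by decide)]
      simp only [Matrix.cons_val]
      rw [c058]; ring
    rw [e] at this
    exact fin this hcE
  · have := hE' 9 (by rw [hw.S]; decide)
    have e : evoG W n a b 9 = b 9 + a 0 * b 6 := by
      simp only [evoG, evoN]
      rw [if_neg (by decide)]
      simp only [Matrix.cons_val]
      rw [c069, m2]; ring
    rw [e] at this
    exact fin this hcE
  · have := hE' 10 (by rw [hw.S]; decide)
    have e : evoG W n a b 10 = b 10 + a 0 * b 7 - a 3 * (b 9 + a 0 * b 6) +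
        a 0 * (a 0 * b 1 * cf W n 0 1 7) := by
      simp only [evoG, evoN]
      rw [if_neg (by decide)]
      simp only [Matrix.cons_val]
      rw [c0710, c3910, c069, m4]; ring
    rw [e] at this
    refine fin (K' := CE W + Cg * M ^ 3) ?_ (by rw [hKK]; linarith)
    have e2 : (W.cfg E n).rel k i i' 10 - (b 10 + a 0 * b 7 - a 3 * (b 9 + a 0 * b 6)) =
      ((W.cfg E n).rel k i i' 10 - (b 10 + a 0 * b 7 - a 3 * (b 9 + a 0 * b 6) +
        a 0 * (a 0 * b 1 * cf W n 0 1 7))) + a 0 * (a 0 * b 1 * cf W n 0 1 7) := by ring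
    rw [e2]
    have e3 := abs_add_le ((W.cfg E n).rel k i i' 10 -
      (b 10 + a 0 * b 7 - a 3 * (b 9 + a 0 * b 6) + a 0 * (a 0 * b 1 * cf W n 0 1 7)))
      (a 0 * (a 0 * b 1 * cf W n 0 1 7))
    have e4 : |a 0 * (a 0 * b 1 * cf W n 0 1 7)| ≤ Cg * M ^ 3 * d ^ T := by
      rw [abs_mul]
      calc |a 0| * |a 0 * b 1 * cf W n 0 1 7| ≤ M * (Cg * M ^ 2 * d ^ T) :=
            mul_le_mul m0b hc01 (abs_nonneg _) hM0
        _ = Cg * M ^ 3 * d ^ T := by ring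
    linarith

/-- **composition** -/
theorem coI (h : QWnd W f)
    (hc : ∀ᶠ n in (U : Filter ℕ), W.Good n ∧ E n ⊆ W.Cl n ∧ W.cfg E n = W.cfg0 n (E n))
    (hw : WinB W K T) {ε : ℝ} (hε : 0 < ε) :
    ∀ᶠ n in (U : Filter ℕ), ∀ k i l l', (i, k) ∈ (W.cfg E n).I →
      (l, k) ∈ (W.cfg E n).I → (l', k) ∈ (W.cfg E n).I →
      CoI (W.B'.d n ^ (T - ε)) ((W.cfg E n).rel k i l) ((W.cfg E n).rel k l l')
        ((W.cfg E n).rel k i l') := by
  have hK : 0 < K := by linarith [h.ok.K0_one, hw.K0]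
  have h0S : (0 : Fin 11) ∈ W.S := by rw [hw.S]; decide
  have h3S : (3 : Fin 11) ∈ W.S := by rw [hw.S]; decide
  have ht : ∀ s, T ≤ W.top s := fun s => by rw [hw.top]
  filter_upwards [hc, h.compR hc h0S ht, ev_const_le W.B' hε (CE W)] with n hn hcp hCE
  obtain ⟨g, hE, hcfg⟩ := hn
  obtain ⟨c234, c256, c457, c367, c058, c069, c289, c0710, c4810, c3910⟩ :=
    cfQ h hw.tight hK hw.kap n
  intro k i l l' h1 h2 h3
  have hd0 : 0 < W.B'.d n := W.B'.pos n
  have e2ε : W.B'.d n ^ (-ε) * W.B'.d n ^ T = W.B'.d n ^ (T - ε) := by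
    rw [← Real.rpow_add hd0]; congr 1; ring
  have fin : ∀ {x : ℝ}, |x| ≤ CE W * W.B'.d n ^ T → |x| ≤ W.B'.d n ^ (T - ε) := by
    intro x hx
    refine hx.trans ?_
    rw [← e2ε]
    exact mul_le_mul_of_nonneg_right hCE (Real.rpow_nonneg hd0.le _)
  have hzero : ∀ s ∈ W.S, ∀ k i i', (W.cfg E n).rel k i i' s = 0 := by
    intro s hs k i i'
    rw [hcfg, rel_cfg0, if_pos hs]
  set b := (W.cfg E n).rel k i l with hb
  set c := (W.cfg E n).rel k l l' with hcc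
  have b3 : b 3 = 0 := hzero 3 h3S k i l
  have c3 : c 3 = 0 := hzero 3 h3S k l l'
  have key : ∀ s, s ∉ W.S → |(W.cfg E n).rel k i l' s - compN W n b c s| ≤
      CE W * W.B'.d n ^ T := fun s hs => hcp k i l l' h1 h2 h3 s hs
  refine ⟨?_, ?_, ?_, ?_, ?_, ?_, ?_, ?_⟩
  · have := key 2 (by rw [hw.S]; decide)
    have e : compN W n b c 2 = b 2 + c 2 := by simp only [compN, Matrix.cons_val]
    rw [e] at this
    rw [sub_sub]
    exact fin this
  · have := key 4 (by rw [hw.S]; decide)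
    have e : compN W n b c 4 = b 4 + c 4 := by
      simp only [compN, Matrix.cons_val]; rw [c3]; ring
    rw [e] at this
    rw [sub_sub]
    exact fin this
  · have := key 5 (by rw [hw.S]; decide)
    have e : compN W n b c 5 = b 5 + c 5 := by simp only [compN, Matrix.cons_val]
    rw [e] at this
    rw [sub_sub]
    exact fin this
  · have := key 6 (by rw [hw.S]; decide)
    have e : compN W n b c 6 = b 6 + c 6 + b 2 * c 5 := by
      simp only [compN, Matrix.cons_val]; rw [c256]; ring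
    rw [e] at this
    rw [sub_sub, sub_sub, ← add_assoc]
    exact fin this
  · have := key 7 (by rw [hw.S]; decide)
    have e : compN W n b c 7 = b 7 + c 7 + b 4 * c 5 := by
      simp only [compN, Matrix.cons_val]; rw [c457, b3]; ring
    rw [e] at this
    rw [sub_sub, sub_sub, ← add_assoc]
    exact fin this
  · have := key 8 (by rw [hw.S]; decide)
    have e : compN W n b c 8 = b 8 + c 8 := by simp only [compN, Matrix.cons_val]
    rw [e] at this
    rw [sub_sub]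
    exact fin this
  · have := key 9 (by rw [hw.S]; decide)
    have e : compN W n b c 9 = b 9 + c 9 + b 2 * c 8 := by
      simp only [compN, Matrix.cons_val]; rw [c289]; ring
    rw [e] at this
    rw [sub_sub, sub_sub, ← add_assoc]
    exact fin this
  · have := key 10 (by rw [hw.S]; decide)
    have e : compN W n b c 10 = b 10 + c 10 + b 4 * c 8 := by
      simp only [compN, Matrix.cons_val]; rw [c4810, b3]; ring
    rw [e] at this
    rw [sub_sub, sub_sub, ← add_assoc]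
    exact fin this

/-- **the natural window model** -/
theorem nm_of_win (h : QWnd W f)
    (hc : ∀ᶠ n in (U : Filter ℕ), W.Good n ∧ E n ⊆ W.Cl n ∧ W.cfg E n = W.cfg0 n (E n))
    (hw : WinB W K T) (H : RModel W.B' (W.cfg E) 1 T W.legW W.nu W.Dc) :
    NM W.B' (W.cfg E) W.legW W.nu T W.Dc (fun n k => flg W n k 3) where
  H := H
  T0 := hw.T0
  leg := fun e fa ca cb p xa xb n e0 e1 fa0 fa1 ca0 ca1 cb0 cb1 p0 p1 xa0 xa1 xb0 xb1 n0 n1
      w6 w7 w9 w10 =>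
    legW_bv hw e0 e1 fa0 fa1 ca0 ca1 cb0 cb1 p0 p1 xa0 xa1 xb0 xb1 n0 n1 w6 w7 w9 w10
  zb := fun ε hε => by
    filter_upwards [bdQ h hc hw.kz hw.K0 hw.kap, ev_const_le W.B' hε 2] with n hn h2 k hk k' hk'
    obtain ⟨a1, a2⟩ := hn k hk
    obtain ⟨a1', a2'⟩ := hn k' hk'
    have b1 := abs_sub ((W.cfg E n).z k') ((W.cfg E n).z k)
    have b2 := abs_sub (flg W n k' 3) (flg W n k 3)
    have := a2 3
    have := a2' 3
    exact ⟨by linarith, by linarith⟩
  rb := fun ε hε => by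
    filter_upwards [h.rel_MW hc, ev_const_le W.B' hε (MW W)] with n hn h2 k i l h3 h4 s
    exact (hn.1 k i l h3 h4 s).trans h2
  ev := fun ε hε => evI h hc hw hε
  co := fun ε hε => coI h hc hw hε

/-- bounds -/
theorem bd_of_win (h : QWnd W f)
    (hc : ∀ᶠ n in (U : Filter ℕ), W.Good n ∧ E n ⊆ W.Cl n ∧ W.cfg E n = W.cfg0 n (E n))
    (hw : WinB W K T) : ∀ᶠ n in (U : Filter ℕ), ∀ k ∈ (W.cfg E n).Z,
      |(W.cfg E n).z k| ≤ 1 ∧ |flg W n k 3| ≤ 1 :=
  (bdQ h hc hw.kz hw.K0 hw.kap).mono fun n hn k hk => ⟨(hn k hk).1, (hn k hk).2 3⟩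

/-- **raw twist of an additive level flag between heights** -/
theorem rawTw_of_rawL (h : QWnd W f)
    (hc : ∀ᶠ n in (U : Filter ℕ), W.Good n ∧ E n ⊆ W.Cl n ∧ W.cfg E n = W.cfg0 n (E n))
    {s : Fin 11} (hs : s ∈ W.S) (hs' : s = 0 ∨ s = 2 ∨ s = 3) {T : ℝ} (hT : 0 < T)
    (ht : T ≤ W.top s) (hr : RawL W E s) :
    RawTw W.B' (W.cfg E) (fun n k k' => flg W n k' s - flg W n k s) := by
  intro ε hε
  set δ : ℝ := min (ε / 2) (T / 2) with hδ
  have hδ0 : 0 < δ := lt_min (by positivity) (by positivity)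
  have hδε : δ < ε := lt_of_le_of_lt (min_le_left _ _) (by linarith)
  have hδT : δ < T := lt_of_le_of_lt (min_le_right _ _) (by linarith)
  set c0 : ℝ := 2 * W.K0 / W.kap s with hc0
  filter_upwards [hc, hr δ hδ0 (1 / 2) (by norm_num), h.mot_eq hc,
    ev_const_le W.B' (show 0 < ε - δ by linarith) 2,
    ev_const_le W.B' (show 0 < T - δ by linarith) (2 * |c0|)] with n hn hrn hmot h2 h3
  obtain ⟨g, hE, hcfg⟩ := hn
  intro i hi S hS hSm
  have hd0 : 0 < W.B'.d n := W.B'.pos n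
  have hpow : ∀ t : ℝ, 0 < W.B'.d n ^ t := fun t => Real.rpow_pos_of_pos hd0 t
  -- `ρ^ε ≤ ρ^δ / 2`, `c0 ρ^T ≤ ρ^δ / 2`
  have a1 : W.B'.d n ^ ε ≤ W.B'.d n ^ δ / 2 := by
    have : W.B'.d n ^ ε * W.B'.d n ^ (-(ε - δ)) = W.B'.d n ^ δ := by
      rw [← Real.rpow_add hd0]; congr 1; ring
    have h4 := mul_le_mul_of_nonneg_left h2 (hpow ε).le
    rw [this] at h4
    linarith
  have a2 : |c0| * W.B'.d n ^ T ≤ W.B'.d n ^ δ / 2 := by
    have : W.B'.d n ^ T * W.B'.d n ^ (-(T - δ)) = W.B'.d n ^ δ := by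
      rw [← Real.rpow_add hd0]; congr 1; ring
    have h4 := mul_le_mul_of_nonneg_left h3 (hpow T).le
    rw [this] at h4
    linarith
  classical
  -- fibres
  have hsub : S ⊆ ((W.cfg E n).hts i).biUnion fun k =>
      (((W.cfg E n).hts i).filter fun k' =>
        |W.crd n (W.rep n i k) (W.rep n i k') s| ≤ W.B'.d n ^ δ).image fun k' => (k, k') := by
    intro q hq
    obtain ⟨q1, q2⟩ := mem_product.1 (hS hq)
    refine mem_biUnion.2 ⟨q.1, q1, mem_image.2 ⟨q.2, mem_filter.2 ⟨q2, ?_⟩, rfl⟩⟩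
    have g1 := (RCfg.mem_hts.1 q1)
    have g2 := (RCfg.mem_hts.1 q2)
    have m1 := (hmot q.1 g1.1 q.2 g2.1).1 s hs'
    have g1' := g1.2
    have g2' := g2.2
    rw [hcfg] at g1' g2'
    have g1z := g1.1
    have g2z := g2.1
    rw [hcfg] at g1z g2z
    obtain ⟨x1, x2, x3⟩ := rep_of_mem hE g1'
    obtain ⟨y1, y2, y3⟩ := rep_of_mem hE g2'
    obtain ⟨z1, z2⟩ := zrep_of_mem hE g1z
    obtain ⟨z1', z2'⟩ := zrep_of_mem hE g2z
    have m2 := h.own_add g x1 y1 z1 z1' (x3.trans z2.symm) (y3.trans z2'.symm) hs hs' ht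
    rw [m1] at m2
    have m3 := hSm q hq
    have m4 : c0 * W.B'.d n ^ T ≤ |c0| * W.B'.d n ^ T :=
      mul_le_mul_of_nonneg_right (le_abs_self _) (hpow _).le
    have m5 := abs_sub_abs_le_abs_sub (W.crd n (W.rep n i q.1) (W.rep n i q.2) s)
      (flg W n q.2 s - flg W n q.1 s)
    linarith
  have hcard : (S.card : ℝ) ≤ ∑ k ∈ (W.cfg E n).hts i,
      1 / 2 * (((W.cfg E n).hts i).card : ℝ) := by
    have h5 : (S.card : ℝ) ≤ ∑ k ∈ (W.cfg E n).hts i,
        ((((W.cfg E n).hts i).filter fun k' =>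
        |W.crd n (W.rep n i k) (W.rep n i k') s| ≤ W.B'.d n ^ δ).card : ℝ) := by
      have h6 := (card_le_card hsub).trans card_biUnion_le
      have h7 : ∑ k ∈ (W.cfg E n).hts i, ((((W.cfg E n).hts i).filter fun k' =>
          |W.crd n (W.rep n i k) (W.rep n i k') s| ≤ W.B'.d n ^ δ).image
            fun k' => (k, k')).card ≤
          ∑ k ∈ (W.cfg E n).hts i, (((W.cfg E n).hts i).filter fun k' =>
          |W.crd n (W.rep n i k) (W.rep n i k') s| ≤ W.B'.d n ^ δ).card :=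
        sum_le_sum fun k _ => card_image_le
      exact_mod_cast h6.trans h7
    exact h5.trans (sum_le_sum fun k hk => hrn i hi k hk)
  rw [sum_const, nsmul_eq_mul] at hcard
  nlinarith

section wat

variable {B : Base} {I : ∀ n, Finset (ι n)} {co : ∀ n, ι n → ι n → Fin 11 → ℝ} {Ma : Mons 11}
  {C : ℝ} {lam : (Fin 11 → ℝ) → ℝ} {V Tw : Fin 11 → Prop}

theorem winB_of_wat (h : WAt B I co monQ Ma C lam V Tw (stQ {0, 3} K T Ma) W)
    (hM : MaQ Ma) (hsub : ∀ k, Ma.mon k ⊆ monQ.mon k) (hK : cK0 monQ C ≤ K) (hT : 0 < T) :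
    WinB W K T where
  kz := h.ekz
  S := h.eS
  top := h.etop
  R' := h.eR
  kap := h.ekap
  K0 := by
    unfold Wnd.K0
    rw [h.eM, h.eC]; exact hK
  T0 := hT
  mons := by rw [h.eMw]; exact hsub
  tight := tightQ_of_wat h hM

/-- **the natural window model at a window of `AeW`** -/
theorem nm_of_wat (h : WAt B I co monQ Ma C lam V Tw (stQ {0, 3} K T Ma) W)
    (hco : ∀ n, ∀ i ∈ I n, ∀ j ∈ I n, co n i j = coQ (f n i) (f n j))
    (hM : MaQ Ma) (hsub : ∀ k, Ma.mon k ⊆ monQ.mon k) (hK : cK0 monQ C ≤ K) (hT : 0 < T)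
    (hV : ∀ k, V k → k = 0 ∨ k = 3) (hT3 : Tw 3)
    (hdens : lam (fun _ => T) ≤ lam (cut {0, 3} (fun _ => T) 0) + lam (cut {0, 3} 0 fun _ => T))
    (hfr : ∀ y, 0 ≤ y → y ≤ T → lam (Pi.single 0 y) ≤ -y) :
    ∃ (E' : ∀ n, Finset (ι n)),
      NM W.B' (W.cfg E') W.legW W.nu T W.Dc (fun n k => flg W n k 3) ∧
      (∀ᶠ n in (U : Filter ℕ), ∀ k ∈ (W.cfg E' n).Z,
        |(W.cfg E' n).z k| ≤ 1 ∧ |flg W n k 3| ≤ 1) ∧
      RawTw W.B' (W.cfg E') (fun n k k' => flg W n k' 3 - flg W n k 3) := by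
  have hden : (stQ {0, 3} K T Ma).Dens lam 1 T :=
    { dens := hdens
      σ0 := zero_le_one
      σ1 := le_rfl
      hR := le_rfl
      frost := fun y hy hyT => by
        rw [one_mul]; exact hfr y hy hyT }
  obtain ⟨E', g, hP, -, H, htw⟩ := h.model (σ' := 1) (R := T) hden (fun _ _ _ => 0)
    (g₀ := fun n => n) (tendsto_natCast_atTop_atTop.mono_left Crest.Agent.R138.Ex926.U_le_atTop) (fun k hk => by
      left
      show k ∈ ({0, 3} : Finset (Fin 11))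
      rcases hV k hk with rfl | rfl <;> decide)
  have hw := winB_of_wat h hM hsub hK hT
  have hq : QWnd W f := qwnd_of_wat h hco (by
    show ∀ s ∈ ({0, 3} : Finset (Fin 11)), _
    decide)
  have hc := hcQ hq hP
  refine ⟨E', nm_of_win hq hc hw H, bd_of_win hq hc hw, ?_⟩
  refine rawTw_of_rawL hq hc (s := 3) (by rw [hw.S]; decide) (by simp) hT
    (by rw [hw.top]) ?_
  refine htw 3 (by show (3 : Fin 11) ∈ ({0, 3} : Finset (Fin 11)); decide) hT3 hT ⟨T, hT, ?_⟩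
  show cut {0, 3} (fun _ => T) (Pi.single 3 T) ∈ coneM Ma
  refine leg_cone (R := T) (Mw := Ma) (fun k => Finset.Subset.refl _) ⟨legal_sub hsub ?_, ?_⟩
  · refine legalQ_iff.2 ⟨?_, ?_, ?_, ?_, ?_, ?_, ?_, ?_, ?_, ?_, ?_, ?_⟩
    · intro s; fin_cases s <;> simp [cut] <;> exact hT.le
    all_goals simp [cut, Pi.single_apply] <;> linarith
  · intro s
    fin_cases s <;> simp [cut] <;> exact hT.le

end wat

end Crest.Agent.R136.C2w400
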