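import Crest.Agent.R136.Dg8_219

/-!
# R136: the general decoupling theorem with a boundary group of any sign (helper413)

Same statements as `Dg219.ae_out`, `Dg219.leg_out`, but the slopes `(a i, b i)` only have to lie in a
closed half plane `0 ≤ s * a + t * b`: the slots with `s * a i + t * b i = 0` form one group `k0`,
where the slopes may have both orientations and may vanish (frozen slots); all the other slots have
`0 < s * a i + t * b i`.

* `DirS`    : the slopes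
* `OutS`    : the output (`Dg219.Out` with bounds of the rates of the groups with `0 ≤ dh`)
* `ratesS`, `ae_outS`, `leg_outS` : the splitting, the a.e. form, the form for `Net191.Leg`
* `OutS.single` : slots alone in their group, `OutS.of_out`, `DirS.of_dir` : comparison
-/

set_option autoImplicit false
set_option linter.unusedSectionVars false
set_option linter.unusedVariables false

open Set Filter Topology Metric MeasureTheory

namespace Crest.Agent.R136.Dgs413

open Dg219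
open Dg262 (X X_cont SupOn LegU)

variable {ι κ : Type*} [Fintype ι] [DecidableEq ι] [DecidableEq κ]

/-- the slopes: `(a i, b i) = dh i * n (grp i)`, directions of different groups independent,
group `k0` on the boundary of the half plane `0 ≤ s * x + t * y` (any sign of `dh` there), all the
other slots in its interior -/
structure DirS (grp : ι → κ) (a b : ι → ℝ) (n : κ → ℝ × ℝ) (dh : ι → ℝ) (k0 : κ) (s t : ℝ) :
    Prop where
  pos : ∀ i, grp i ≠ k0 → 0 < dh i
  fst : ∀ i, a i = dh i * (n (grp i)).1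
  snd : ∀ i, b i = dh i * (n (grp i)).2
  ne : ∀ i, n (grp i) ≠ 0
  det : ∀ i j, grp i ≠ grp j → det2 (n (grp i)) (n (grp j)) ≠ 0
  bd : ∀ i, grp i = k0 → s * a i + t * b i = 0
  up : ∀ i, grp i ≠ k0 → 0 < s * a i + t * b i

/-- output of the splitting at one point -/
structure OutS (grp : ι → κ) (L : Set (ι → ℝ)) (dh : ι → ℝ) (n : κ → ℝ × ℝ)
    (lam : (ι → ℝ) → ℝ) (A : ℝ × ℝ) (φ : κ → (ι → ℝ) → ℝ) (r : κ → ℝ) : Prop where
  sum : ∀ c ∈ L, lam c = ∑ k ∈ gset grp, φ k c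
  loc : ∀ k c c', (∀ i, grp i = k → c i = c' i) → φ k c = φ k c'
  zero : ∀ k c, (∀ i, grp i = k → c i = 0) → φ k c = 0
  mono : ∀ k, ∀ c ∈ L, ∀ c' ∈ L, (∀ i, grp i = k → c i ≤ c' i) → 0 ≤ φ k c - φ k c' ∧
    φ k c - φ k c' ≤ ∑ i ∈ Finset.univ.filter (fun i => grp i = k), (c' i - c i)
  smod : ∀ k, ∀ p ∈ L, ∀ q ∈ L, p ⊓ q ∈ L → p ⊔ q ∈ L →
    φ k p + φ k q ≤ φ k (p ⊔ q) + φ k (p ⊓ q)
  rate : ∀ k, ∀ c ∈ L, ∀ u : ℝ, (∀ i, grp i = k → c i = u * dh i) → φ k c = -(r k * u)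
  r_nonneg : ∀ k, (∀ i, grp i = k → 0 ≤ dh i) → 0 ≤ r k
  r_le : ∀ k, (∀ i, grp i = k → 0 ≤ dh i) →
    r k ≤ ∑ i ∈ Finset.univ.filter (fun i => grp i = k), dh i
  total : ∀ z : ℝ × ℝ, lf A z = -∑ k ∈ gset grp, r k * lf (n k) z

theorem OutS.of_out {grp : ι → κ} {L : Set (ι → ℝ)} {dh : ι → ℝ} {n : κ → ℝ × ℝ}
    {lam : (ι → ℝ) → ℝ} {A : ℝ × ℝ} {φ : κ → (ι → ℝ) → ℝ} {r : κ → ℝ}
    (H : Out grp L dh n lam A φ r) : OutS grp L dh n lam A φ r where
  sum := H.sum
  loc := H.loc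
  zero := H.zero
  mono := H.mono
  smod := H.smod
  rate := H.rate
  r_nonneg := fun k _ => H.r_nonneg k
  r_le := fun k _ => H.r_le k
  total := H.total

/-- the unsigned output, if all the slopes of the boundary group have `0 ≤ dh` -/
theorem OutS.out {grp : ι → κ} {L : Set (ι → ℝ)} {dh : ι → ℝ} {n : κ → ℝ × ℝ}
    {lam : (ι → ℝ) → ℝ} {A : ℝ × ℝ} {φ : κ → (ι → ℝ) → ℝ} {r : κ → ℝ}
    (H : OutS grp L dh n lam A φ r) (h0 : ∀ i, 0 ≤ dh i) : Out grp L dh n lam A φ r where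
  sum := H.sum
  loc := H.loc
  zero := H.zero
  mono := H.mono
  smod := H.smod
  rate := H.rate
  r_nonneg := fun k => H.r_nonneg k fun i _ => h0 i
  r_le := fun k => H.r_le k fun i _ => h0 i
  total := H.total

theorem OutS.congr {grp : ι → κ} {L : Set (ι → ℝ)} {dh : ι → ℝ} {n : κ → ℝ × ℝ}
    {lam lam' : (ι → ℝ) → ℝ} {A : ℝ × ℝ} {φ : κ → (ι → ℝ) → ℝ} {r : κ → ℝ}
    (H : OutS grp L dh n lam A φ r) (h : ∀ c ∈ L, lam' c = lam c) :
    OutS grp L dh n lam' A φ r where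
  sum := fun c hc => by rw [h c hc]; exact H.sum c hc
  loc := H.loc
  zero := H.zero
  mono := H.mono
  smod := H.smod
  rate := H.rate
  r_nonneg := H.r_nonneg
  r_le := H.r_le
  total := H.total

section

variable {grp : ι → κ} {a b : ι → ℝ} {n : κ → ℝ × ℝ} {dh : ι → ℝ} {k0 : κ} {s t : ℝ}

theorem DirS.of_dir (h : Dir grp a b n dh) (hk : ∀ i, grp i ≠ k0)
    (hst : ∀ i, 0 < s * a i + t * b i) : DirS grp a b n dh k0 s t where
  pos := fun i _ => h.pos i
  fst := h.fst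
  snd := h.snd
  ne := h.ne
  det := h.det
  bd := fun i hi => absurd hi (hk i)
  up := fun i _ => hst i

theorem DirS.nonneg (h : DirS grp a b n dh k0 s t) (i : ι) : 0 ≤ s * a i + t * b i := by
  by_cases hi : grp i = k0
  · exact (h.bd i hi).symm.le
  · exact (h.up i hi).le

theorem DirS.Tn_eq (h : DirS grp a b n dh k0 s t) (z : ℝ × ℝ) (i : ι) :
    Tn a b z i = lf (n (grp i)) z * dh i := by
  simp only [Tn, lf]; rw [h.fst i, h.snd i]; ring

/-! ### ordering of the groups -/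

theorem exists_grpS (h : DirS grp a b n dh k0 s t) :
    ∃ (g : ι → ℕ) (w : ℕ → ℝ × ℝ), Dg262.Grp a b g w ∧ ∀ i j, grp i ≠ grp j → g i ≠ g j := by
  classical
  obtain ⟨g', w', hG, hgg⟩ := exists_grp (ι := {i // grp i ≠ k0}) (a := fun i => a i.1)
    (b := fun i => b i.1) (p := s) (q := t) (fun i => h.up i.1 i.2)
  set g : ι → ℕ := fun i => if hi : grp i ≠ k0 then g' ⟨i, hi⟩ + 1 else 0 with hg
  set w : ℕ → ℝ × ℝ := fun m => match m with
    | 0 => (s, t)
    | m + 1 => w' m with hw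
  have g0 : ∀ i, grp i = k0 → g i = 0 := fun i hi => by simp [hg, hi]
  have g1 : ∀ i (hi : grp i ≠ k0), g i = g' ⟨i, hi⟩ + 1 := fun i hi => by simp [hg, hi]
  have w0 : w 0 = (s, t) := rfl
  have w1 : ∀ m, w (m + 1) = w' m := fun m => rfl
  refine ⟨g, w, ⟨?_, ?_⟩, ?_⟩
  · intro i
    by_cases hi : grp i = k0
    · rw [g0 i hi, w0]
      have := h.bd i hi
      simp only
      linarith
    · rw [g1 i hi, w1]
      exact hG.fix ⟨i, hi⟩
  · intro i j hij
    by_cases hi : grp i = k0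
    · have hj : grp j ≠ k0 := by
        intro hj
        rw [g0 i hi, g0 j hj] at hij
        exact lt_irrefl _ hij
      rw [g0 i hi, w0]
      have := h.up j hj
      simp only
      linarith
    · have hj : grp j ≠ k0 := by
        intro hj
        rw [g0 j hj] at hij
        exact absurd hij (Nat.not_lt_zero _)
      rw [g1 i hi, w1]
      rw [g1 i hi, g1 j hj] at hij
      exact hG.up ⟨i, hi⟩ ⟨j, hj⟩ (by omega)
  · intro i j hij hgij
    by_cases hi : grp i = k0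
    · by_cases hj : grp j = k0
      · exact hij (hi.trans hj.symm)
      · rw [g0 i hi, g1 j hj] at hgij
        omega
    · by_cases hj : grp j = k0
      · rw [g1 i hi, g0 j hj] at hgij
        omega
      · rw [g1 i hi, g1 j hj] at hgij
        have h1 : a i * b j = b i * a j := hgg ⟨i, hi⟩ ⟨j, hj⟩ (by omega)
        apply h.det i j hij
        rw [h.fst i, h.fst j, h.snd i, h.snd j] at h1
        have h2 : dh i * dh j * det2 (n (grp i)) (n (grp j)) = 0 := by
          unfold det2; linear_combination h1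
        exact (mul_eq_zero.1 h2).resolve_left (mul_pos (h.pos i hi) (h.pos j hj)).ne'

/-! ### linear rates -/

variable {D L : Set (ι → ℝ)} {g : (ι → ℝ) → ℝ} {ρ : κ → ι → ℝ} {ρs : ι → ℝ}

/-- Lipschitz bound of the group functions from the one of `g` -/
theorem phi_lip (hG : Geo grp D L ρ ρs) (hg : Sep grp L g) {K : ℝ}
    (hK : ∀ c ∈ L, ∀ c' ∈ L, |g c - g c'| ≤ K * dist c c') (hK0 : 0 ≤ K)
    (k : κ) {c c' : ι → ℝ} (hc : c ∈ L) (hc' : c' ∈ L) :
    |phi grp L g ρ k c - phi grp L g ρ k c'| ≤ K * dist (pr grp k c) (pr grp k c') := by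
  obtain ⟨R1, h10, h1⟩ := hG.room.ex k c hc
  obtain ⟨R2, h20, h2⟩ := hG.room.ex k c' hc'
  set R := R1 + R2 with hR
  have hR0 : 0 ≤ R := by linarith
  have m1 : pr grp k c + R • ρ k ∈ L := hG.room.mono hG.cone h1 (by linarith)
  have m2 : pr grp k c' + R • ρ k ∈ L := hG.room.mono hG.cone h2 (by linarith)
  rw [phi_eq hG.cone hG.room hg hc hR0 m1, phi_eq hG.cone hG.room hg hc' hR0 m2]
  have h3 := hK _ m1 _ m2
  rw [dist_add_right] at h3
  rwa [sub_sub_sub_cancel_right]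

/-- **splitting with linear rates** -/
theorem ratesS (hG : Geo grp D L ρ ρs) (hg : Sep grp L g) (gc : Continuous g) (g0 : g 0 = 0)
    {K : ℝ} (hK0 : 0 ≤ K) (hK : ∀ c ∈ L, ∀ c' ∈ L, |g c - g c'| ≤ K * dist c c')
    (hm : ∀ c ∈ L, ∀ c' ∈ L, c ≤ c' → 0 ≤ g c - g c' ∧ g c - g c' ≤ ∑ i, (c' i - c i))
    (hs : ∀ p ∈ L, ∀ q ∈ L, p ⊓ q ∈ L → p ⊔ q ∈ L → g p + g q ≤ g (p ⊔ q) + g (p ⊓ q))
    (hd : DirS grp a b n dh k0 s t)
    (hT : ∀ z, Tn a b z ∈ L) {A : ℝ × ℝ} (hA : ∀ z, g (Tn a b z) = lf A z) :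
    ∃ r : κ → ℝ, OutS grp L dh n g A (phi grp L g ρ) r := by
  set S := gset grp with hS
  have hmem : ∀ k ∈ S, ∃ i, grp i = k := by
    intro k hk
    obtain ⟨i, -, hi⟩ := Finset.mem_image.1 hk
    exact ⟨i, hi⟩
  set dK : ℝ := ∑ i, |dh i| with hdK
  have hdK0 : 0 ≤ dK := Finset.sum_nonneg fun i _ => abs_nonneg _
  -- the function of one variable
  set f : κ → ℝ → ℝ := fun k u => phi grp L g ρ k (Tn a b (zz (n k) u)) with hf
  have hpar : ∀ k ∈ S, ∀ c : ι → ℝ, ∀ u : ℝ, (∀ i, grp i = k → c i = u * dh i) →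
      phi grp L g ρ k c = f k u := by
    intro k hk c u hcu
    obtain ⟨i0, hi0⟩ := hmem k hk
    apply phi_congr
    funext i
    by_cases hi : grp i = k
    · rw [pr_in k _ hi, pr_in k _ hi, hcu i hi, hd.Tn_eq, hi, lf_zz (by rw [← hi]; exact hd.ne i)]
    · rw [pr_off k _ hi, pr_off k _ hi]
  have hTf : ∀ k ∈ S, ∀ z, phi grp L g ρ k (Tn a b z) = f k (lf (n k) z) := by
    intro k hk z
    exact hpar k hk _ _ fun i hi => by rw [hd.Tn_eq, hi]
  have hval : ∀ k, ∀ w : ℝ, ∀ i, grp i = k → Tn a b (zz (n k) w) i = w * dh i := by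
    intro k w i hi
    rw [hd.Tn_eq, hi, lf_zz (by rw [← hi]; exact hd.ne i)]
  have hmono : ∀ k ∈ S, (∀ i, grp i = k → 0 ≤ dh i) → ∀ u v : ℝ, u ≤ v →
      0 ≤ f k u - f k v ∧ f k u - f k v ≤
        (∑ i ∈ Finset.univ.filter (fun i => grp i = k), dh i) * (v - u) := by
    intro k hk hdk u v huv
    have h1 := phi_mono hG hg hm k (hT (zz (n k) u)) (hT (zz (n k) v)) (fun i hi => by
      rw [hval k u i hi, hval k v i hi]
      exact mul_le_mul_of_nonneg_right huv (hdk i hi))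
    refine ⟨h1.1, h1.2.trans (le_of_eq ?_)⟩
    rw [Finset.sum_mul]
    refine Finset.sum_congr rfl fun i hi => ?_
    rw [Finset.mem_filter] at hi
    rw [hval k u i hi.2, hval k v i hi.2]; ring
  have hlip : ∀ k ∈ S, ∀ u v : ℝ, |f k u - f k v| ≤ (K * dK) * |u - v| := by
    intro k hk u v
    refine (phi_lip hG hg hK hK0 k (hT (zz (n k) u)) (hT (zz (n k) v))).trans ?_
    rw [mul_assoc]
    refine mul_le_mul_of_nonneg_left ?_ hK0
    rw [dist_pi_le_iff (by positivity)]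
    intro i
    by_cases hi : grp i = k
    · rw [pr_in k _ hi, pr_in k _ hi, hval k u i hi, hval k v i hi, Real.dist_eq]
      have e1 : u * dh i - v * dh i = (u - v) * dh i := by ring
      rw [e1, abs_mul, mul_comm]
      refine mul_le_mul_of_nonneg_right ?_ (abs_nonneg _)
      exact Finset.single_le_sum (f := fun i => |dh i|) (fun i _ => abs_nonneg _)
        (Finset.mem_univ i)
    · rw [pr_off k _ hi, pr_off k _ hi, dist_self]
      positivity
  have hf0 : ∀ k ∈ S, f k 0 = 0 := by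
    intro k hk
    rw [← hpar k hk 0 0 (fun i _ => by simp)]
    exact phi_zero k fun i _ => rfl
  have hsum : ∀ z : ℝ × ℝ, ∑ k ∈ S, f k (lf (n k) z) = 0 + lf A z := by
    intro z
    rw [zero_add, ← hA z]
    have := repr hG hg gc (hT z)
    rw [g0, sub_zero] at this
    rw [this]
    exact Finset.sum_congr rfl fun k hk => (hTf k hk z).symm
  have hlin := frechet S n
    (fun k hk => by obtain ⟨i, hi⟩ := hmem k hk; rw [← hi]; exact hd.ne i)
    (fun k hk l hl hkl => by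
      obtain ⟨i, hi⟩ := hmem k hk
      obtain ⟨j, hj⟩ := hmem l hl
      rw [← hi, ← hj]
      exact hd.det i j (by rw [hi, hj]; exact hkl))
    f (fun _ => K * dK) 0 A (fun k _ => mul_nonneg hK0 hdK0) hlip hsum
  have hlin' : ∀ k ∈ S, ∀ u, f k u = -((-f k 1) * u) := by
    intro k hk u
    rw [hlin k hk u, hf0 k hk]; ring
  -- rates
  refine ⟨fun k => if k ∈ S then -f k 1 else 0, ?_, ?_, ?_, ?_, ?_, ?_, ?_, ?_, ?_⟩
  · intro c hc
    have := repr hG hg gc hc
    rwa [g0, sub_zero] at this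
  · intro k c c' h
    apply phi_congr
    funext i
    by_cases hi : grp i = k
    · rw [pr_in k _ hi, pr_in k _ hi, h i hi]
    · rw [pr_off k _ hi, pr_off k _ hi]
  · intro k c h
    exact phi_zero k h
  · intro k c hc c' hc' h
    exact phi_mono hG hg hm k hc hc' h
  · intro k p hp q hq h1 h2
    exact phi_sup hG hg hs k hp hq h1 h2
  · intro k c hc u h
    by_cases hk : k ∈ S
    · rw [if_pos hk, hpar k hk c u h, hlin' k hk u]
    · rw [if_neg hk, zero_mul, neg_zero]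
      apply phi_zero
      intro i hi
      exact absurd (hi ▸ mem_gset i) hk
  · intro k hdk
    by_cases hk : k ∈ S
    · rw [if_pos hk]
      have := (hmono k hk hdk 0 1 zero_le_one).1
      rw [hf0 k hk] at this
      linarith
    · rw [if_neg hk]
  · intro k hdk
    by_cases hk : k ∈ S
    · rw [if_pos hk]
      have := (hmono k hk hdk 0 1 zero_le_one).2
      rw [hf0 k hk] at this
      linarith
    · rw [if_neg hk]
      exact Finset.sum_nonneg fun i hi => hdk i (Finset.mem_filter.1 hi).2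
  · intro z
    have h1 := hsum z
    rw [zero_add] at h1
    rw [← h1, ← Finset.sum_neg_distrib]
    refine Finset.sum_congr rfl fun k hk => ?_
    rw [if_pos hk, hlin' k hk (lf (n k) z)]

end

/-! ### walls -/

section

variable {W : Type*} [Fintype W] {Q : Walls ι W} {x0 a b lo hi : ι → ℝ}
  {grp : ι → κ} {n : κ → ℝ × ℝ} {dh : ι → ℝ} {k0 : κ} {s t : ℝ}

/-- an active wall with head outside the group `k` has a slot outside the group `k` on the right -/
theorem act_outS (hd : DirS grp a b n dh k0 s t) {w : W} (hw : Q.Act x0 a b w)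
    (hne : ∃ s, Q.co w s ≠ 0) {k : κ} (hk : grp (Q.hd w) ≠ k) :
    ∃ s, Q.co w s ≠ 0 ∧ grp s ≠ k := by
  by_contra hcon
  push Not at hcon
  obtain ⟨s0, hs0⟩ := hne
  have hs0k := hcon s0 hs0
  -- the functional
  have hfun : s * a (Q.hd w) + t * b (Q.hd w) = ∑ i, (Q.co w i : ℝ) * (s * a i + t * b i) := by
    rw [hw.2.1, hw.2.2]
    unfold Walls.rhs
    rw [Finset.mul_sum, Finset.mul_sum, ← Finset.sum_add_distrib]
    exact Finset.sum_congr rfl fun i _ => by ring
  have hterm : ∀ i, 0 ≤ (Q.co w i : ℝ) * (s * a i + t * b i) := fun i =>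
    mul_nonneg (Nat.cast_nonneg _) (hd.nonneg i)
  by_cases hkk : k = k0
  · -- right side on the boundary, left side not
    subst hkk
    have h1 := hd.up _ hk
    rw [hfun] at h1
    have h2 : ∑ i, (Q.co w i : ℝ) * (s * a i + t * b i) = 0 := by
      refine Finset.sum_eq_zero fun i _ => ?_
      by_cases h : Q.co w i = 0
      · rw [h]; simp
      · rw [hd.bd i (hcon i h), mul_zero]
    linarith
  · have hpos : 0 < ∑ i, (Q.co w i : ℝ) * (s * a i + t * b i) := by
      have h1 : (Q.co w s0 : ℝ) * (s * a s0 + t * b s0) ≤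
          ∑ i, (Q.co w i : ℝ) * (s * a i + t * b i) :=
        Finset.single_le_sum (f := fun i => (Q.co w i : ℝ) * (s * a i + t * b i))
          (fun i _ => hterm i) (Finset.mem_univ s0)
      have h2 : (0:ℝ) < (Q.co w s0 : ℝ) := by exact_mod_cast Nat.pos_of_ne_zero hs0
      have h3 := hd.up s0 (by rw [hs0k]; exact hkk)
      have := mul_pos h2 h3
      linarith
    have hhd : grp (Q.hd w) ≠ k0 := by
      intro h
      have := hd.bd _ h
      rw [hfun] at this
      linarith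
    set τ : ℝ := ∑ s, (Q.co w s : ℝ) * dh s with hτ
    have h1 : Q.rhs w a = τ * (n k).1 := by
      unfold Walls.rhs
      rw [hτ, Finset.sum_mul]
      refine Finset.sum_congr rfl fun i _ => ?_
      by_cases h : Q.co w i = 0
      · rw [h]; simp
      · rw [hd.fst i, hcon i h]; ring
    have h2 : Q.rhs w b = τ * (n k).2 := by
      unfold Walls.rhs
      rw [hτ, Finset.sum_mul]
      refine Finset.sum_congr rfl fun i _ => ?_
      by_cases h : Q.co w i = 0
      · rw [h]; simp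
      · rw [hd.snd i, hcon i h]; ring
    have h3 := hw.2.1
    have h4 := hw.2.2
    rw [h1, hd.fst] at h3
    rw [h2, hd.snd] at h4
    apply hd.det (Q.hd w) s0 (by rw [hs0k]; exact hk)
    rw [hs0k]
    have h5 : dh (Q.hd w) * det2 (n (grp (Q.hd w))) (n k) = 0 := by
      unfold det2
      linear_combination (n k).2 * h3 - (n k).1 * h4
    exact (mul_eq_zero.1 h5).resolve_left (hd.pos _ hhd).ne'

theorem rs_memS {w : W} (hne : ∃ s, Q.co w s ≠ 0) : Q.rs (Q.hd w) + 1 ≤ Q.rhs w Q.rs := by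
  obtain ⟨s, hs⟩ := hne
  exact (Q.rs_lt hs).trans (Q.le_rhs (fun i => by linarith [Q.one_le_rs i]) hs)

theorem rm_memS (hd : DirS grp a b n dh k0 s t) {w : W} (hw : Q.Act x0 a b w)
    (hne : ∃ s, Q.co w s ≠ 0) {k : κ} (hk : grp (Q.hd w) ≠ k) :
    Q.rs (Q.hd w) + 1 ≤ Q.rhs w (Q.rm grp k) := by
  obtain ⟨s, hs, hsk⟩ := act_outS hd hw hne hk
  refine (Q.rs_lt hs).trans ?_
  have h1 : Q.rm grp k s = Q.rs s := by unfold Walls.rm; rw [if_neg hsk]
  rw [← h1]
  exact Q.le_rhs (Q.rm_nonneg grp k) hs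

theorem roomS (hd : DirS grp a b n dh k0 s t)
    (hne : ∀ w, Q.Act x0 a b w → ∃ s, Q.co w s ≠ 0) :
    Room grp (Q.L x0 a b) (Q.rm grp) where
  off := fun k i hi => by unfold Walls.rm; rw [if_pos hi]
  mem := fun k w hw => by
    by_cases hk : grp (Q.hd w) = k
    · have : Q.rm grp k (Q.hd w) = 0 := by unfold Walls.rm; rw [if_pos hk]
      rw [this]
      exact Q.rhs_nonneg (Q.rm_nonneg grp k)
    · have : Q.rm grp k (Q.hd w) = Q.rs (Q.hd w) := by unfold Walls.rm; rw [if_neg hk]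
      rw [this]
      linarith [rm_memS hd hw (hne w hw) hk]
  ex := fun k c hc => by
    set B : W → ℝ := fun w => |c (Q.hd w)| + ∑ s, (Q.co w s : ℝ) * |c s| with hB
    have hB0 : ∀ w, 0 ≤ B w := fun w => add_nonneg (abs_nonneg _)
      (Finset.sum_nonneg fun s _ => mul_nonneg (Nat.cast_nonneg _) (abs_nonneg _))
    set R : ℝ := ∑ w, B w with hR
    have hR0 : 0 ≤ R := Finset.sum_nonneg fun w _ => hB0 w
    have hRB : ∀ w, B w ≤ R := fun w =>
      Finset.single_le_sum (f := B) (fun w _ => hB0 w) (Finset.mem_univ w)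
    refine ⟨R, hR0, fun w hw => ?_⟩
    rw [Q.rhs_add, Q.rhs_smul]
    simp only [Pi.add_apply, Pi.smul_apply, smul_eq_mul]
    have hpr : -(∑ s, (Q.co w s : ℝ) * |c s|) ≤ Q.rhs w (pr grp k c) := by
      unfold Walls.rhs
      rw [← Finset.sum_neg_distrib]
      refine Finset.sum_le_sum fun s _ => ?_
      rw [← mul_neg]
      refine mul_le_mul_of_nonneg_left ?_ (Nat.cast_nonneg _)
      by_cases hs : grp s = k
      · rw [pr_in k c hs]; exact neg_abs_le _
      · rw [pr_off k c hs]; simp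
    have hb := hRB w
    simp only [hB] at hb
    by_cases hk : grp (Q.hd w) = k
    · have e1 : Q.rm grp k (Q.hd w) = 0 := by unfold Walls.rm; rw [if_pos hk]
      rw [e1, pr_in k c hk, mul_zero, add_zero]
      by_cases hex : ∃ s, Q.co w s ≠ 0 ∧ grp s ≠ k
      · obtain ⟨s, hs, hsk⟩ := hex
        have h1 : Q.rm grp k s = Q.rs s := by unfold Walls.rm; rw [if_neg hsk]
        have h2 : 1 ≤ Q.rhs w (Q.rm grp k) := by
          have := Q.le_rhs (Q.rm_nonneg grp k) hs
          rw [h1] at this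
          exact (Q.one_le_rs s).trans this
        have h3 : R * 1 ≤ R * Q.rhs w (Q.rm grp k) := mul_le_mul_of_nonneg_left h2 hR0
        have h4 := le_abs_self (c (Q.hd w))
        linarith
      · push Not at hex
        have h1 : Q.rhs w (pr grp k c) = Q.rhs w c := by
          unfold Walls.rhs
          refine Finset.sum_congr rfl fun s _ => ?_
          by_cases hs : Q.co w s = 0
          · rw [hs]; simp
          · rw [pr_in k c (hex s hs)]
        rw [h1]
        have h2 := hc w hw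
        have h3 : 0 ≤ R * Q.rhs w (Q.rm grp k) :=
          mul_nonneg hR0 (Q.rhs_nonneg (Q.rm_nonneg grp k))
        linarith
    · have e1 : Q.rm grp k (Q.hd w) = Q.rs (Q.hd w) := by unfold Walls.rm; rw [if_neg hk]
      rw [e1, pr_off k c hk, zero_add]
      have h2 := rm_memS hd hw (hne w hw) hk
      have h3 : R * (Q.rs (Q.hd w) + 1) ≤ R * Q.rhs w (Q.rm grp k) :=
        mul_le_mul_of_nonneg_left h2 hR0
      have h4 := abs_nonneg (c (Q.hd w))
      linarith

/-- **geometry of the walls** -/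
theorem geoS (hd : DirS grp a b n dh k0 s t) (hne : ∀ w, Q.Act x0 a b w → ∃ s, Q.co w s ≠ 0) :
    Geo grp (Q.D x0 a b) (Q.L x0 a b) (Q.rm grp) Q.rs where
  cone := Q.cone
  room := roomS hd hne
  opn := Q.isOpen_D
  conv := Q.convex_D
  sub := fun c hc w hw => (hc w hw).le
  inn := fun c hc ε hε w hw => by
    rw [Q.rhs_add, Q.rhs_smul]
    simp only [Pi.add_apply, Pi.smul_apply, smul_eq_mul]
    have h1 := hc w hw
    have h2 := rs_memS (hne w hw)
    nlinarith

variable (Q)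

/-- **GENERAL DECOUPLING THEOREM, boundary group of any sign** -/
theorem ae_outS {ν : (ι → ℝ) → ℝ} {K : ℝ} (hK : 0 ≤ K)
    (hν : ∀ p ∈ Q.P lo hi, ∀ q ∈ Q.P lo hi, |ν p - ν q| ≤ K * dist p q)
    (hm : ∀ p ∈ Q.P lo hi, ∀ q ∈ Q.P lo hi, p ≤ q →
      0 ≤ ν p - ν q ∧ ν p - ν q ≤ ∑ i, (q i - p i))
    (hs : SupOn ν (Q.P lo hi)) (hd : DirS grp a b n dh k0 s t)
    (hne : ∀ w, Q.Act x0 a b w → ∃ s, Q.co w s ≠ 0) :
    ∀ᵐ z : ℝ × ℝ, z ∈ Q.O lo hi x0 a b → ∃ D : ℝ × ℝ →L[ℝ] ℝ,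
      HasFDerivAt (fun z => ν (X x0 a b z)) D z ∧
      ∀ (h : ℕ → ℝ) (lam : (ι → ℝ) → ℝ),
        BUp (Q.P lo hi) (Q.L x0 a b) ν (X x0 a b z) h lam →
        ∃ (φ : κ → (ι → ℝ) → ℝ) (r : κ → ℝ),
          OutS grp (Q.L x0 a b) dh n lam (D (1, 0), D (0, 1)) φ r := by
  obtain ⟨g, w, hGrp, hgrp⟩ := exists_grpS hd
  -- Lipschitz extension
  have hlip : LipschitzOnWith ⟨K, hK⟩ ν (Q.P lo hi) :=
    LipschitzOnWith.of_dist_le_mul fun p hp q hq => by rw [Real.dist_eq]; exact hν p hp q hq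
  obtain ⟨ν', hν', he⟩ := hlip.extend_real
  have hdiff := (hν'.comp (X_lip x0 a b)).ae_differentiableAt (μ := volume)
  have hcross := Dg262.ae_cross_seq hK hν hs hGrp (Q.convex_D (x0 := x0) (a := a) (b := b))
    (Q.legU (lo := lo) (hi := hi) (x0 := x0) (a := a) (b := b))
  have hgeo : Geo grp (Q.D x0 a b) (Q.L x0 a b) (Q.rm grp) Q.rs := geoS hd hne
  filter_upwards [hdiff, hcross] with z hz1 hz2 hz
  obtain ⟨D, hD'⟩ := hz1
  have hD : HasFDerivAt (fun z => ν (X x0 a b z)) D z := by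
    refine hD'.congr_of_eventuallyEq ?_
    filter_upwards [(Walls.isOpen_O (Q := Q) (lo := lo) (hi := hi) (x0 := x0) (a := a)
      (b := b)).mem_nhds hz] with z' hz'
    exact he (Q.X_mem hz')
  refine ⟨D, hD, fun h lam H => ?_⟩
  -- extension of `lam`
  have hlam : LipschitzOnWith ⟨K, hK⟩ lam (Q.L x0 a b) :=
    LipschitzOnWith.of_dist_le_mul fun p hp q hq => by
      rw [Real.dist_eq]; exact H.lip hν p hp q hq
  obtain ⟨G, hG, heG⟩ := hlam.extend_real
  have h0L : (0 : ι → ℝ) ∈ Q.L x0 a b := hgeo.cone.zero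
  have hG0 : G 0 = 0 := by rw [← heG h0L]; exact H.lam0 h0L
  have hsep : Sep grp (Q.D x0 a b) G := by
    refine sep_open ?_ hgeo.opn hgeo.conv
    have hc := hz2 hz h H.pos H.zero lam (fun _ => ν (X x0 a b z))
      (fun c hc => H.lim c (hgeo.sub hc))
    intro i j hij c α β hα hβ h00 h10 h01 h11
    rw [← heG (hgeo.sub h11), ← heG (hgeo.sub h00), ← heG (hgeo.sub h10), ← heG (hgeo.sub h01)]
    exact hc i j (hgrp i j hij) c α β hα hβ h00 h10 h01 h11
  have hsepL : Sep grp (Q.L x0 a b) G := sep_closed hsep hG.continuous hgeo.inn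
  have hmono : ∀ c ∈ Q.L x0 a b, ∀ c' ∈ Q.L x0 a b, c ≤ c' → 0 ≤ G c - G c' ∧
      G c - G c' ≤ ∑ i, (c' i - c i) := by
    intro c hc c' hc' hcc
    rw [← heG hc, ← heG hc']
    exact H.mono hm c hc c' hc' hcc
  have hsmod : ∀ p ∈ Q.L x0 a b, ∀ q ∈ Q.L x0 a b, p ⊓ q ∈ Q.L x0 a b → p ⊔ q ∈ Q.L x0 a b →
      G p + G q ≤ G (p ⊔ q) + G (p ⊓ q) := by
    intro p hp q hq h1 h2
    rw [← heG hp, ← heG hq, ← heG h1, ← heG h2]
    exact H.smod hs p hp q hq h1 h2
  have hGl : ∀ c ∈ Q.L x0 a b, ∀ c' ∈ Q.L x0 a b, |G c - G c'| ≤ K * dist c c' := by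
    intro c hc c' hc'
    rw [← heG hc, ← heG hc']
    exact H.lip hν c hc c' hc'
  have hA : ∀ z' : ℝ × ℝ, G (Tn a b z') = lf (D (1, 0), D (0, 1)) z' := by
    intro z'
    rw [← heG (Walls.Tn_mem (Q := Q) (x0 := x0) z')]
    have hinv : Tendsto (fun l => ‖(h l)⁻¹‖) atTop atTop := by
      have h1 : Tendsto h atTop (𝓝[>] 0) :=
        tendsto_nhdsWithin_iff.2 ⟨H.zero, Eventually.of_forall fun l => H.pos l⟩
      have h2 := tendsto_inv_nhdsGT_zero.comp h1
      refine h2.congr fun l => ?_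
      rw [Function.comp, Real.norm_of_nonneg (inv_nonneg.2 (H.pos l).le)]
    have h3 := hD.lim z' hinv
    have h4 := H.lim _ (Walls.Tn_mem (Q := Q) (x0 := x0) (a := a) (b := b) z')
    have h5 : lam (Tn a b z') = D z' := by
      refine tendsto_nhds_unique h4 (h3.congr fun l => ?_)
      rw [inv_inv, X_add, smul_eq_mul, div_eq_inv_mul]
    rw [h5]
    have h6 : z' = z'.1 • ((1:ℝ), (0:ℝ)) + z'.2 • ((0:ℝ), (1:ℝ)) := by
      ext <;> simp
    conv_lhs => rw [h6]
    rw [map_add, map_smul, map_smul, smul_eq_mul, smul_eq_mul]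
    simp only [lf]; ring
  obtain ⟨r, hr⟩ := ratesS hgeo hsepL hG.continuous hG0 hK hGl hmono hsmod hd
    (fun z' => Walls.Tn_mem (Q := Q) z') hA
  exact ⟨_, r, hr.congr fun c hc => heG hc⟩

/-- coordinates alone in their group: linear in the coordinate, with a rate in `[0, 1]` -/
theorem OutS.single {L : Set (ι → ℝ)} {lam : (ι → ℝ) → ℝ} {A : ℝ × ℝ} {φ : κ → (ι → ℝ) → ℝ}
    {r : κ → ℝ}
    (H : OutS grp L dh n lam A φ r) {i : ι} (hi : 0 < dh i) (hal : ∀ j, grp j = grp i → j = i) :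
    0 ≤ r (grp i) / dh i ∧ r (grp i) / dh i ≤ 1 ∧
      ∀ c ∈ L, φ (grp i) c = -(r (grp i) / dh i * c i) := by
  have h0 : ∀ j, grp j = grp i → 0 ≤ dh j := fun j hj => by rw [hal j hj]; exact hi.le
  refine ⟨div_nonneg (H.r_nonneg _ h0) hi.le, ?_, ?_⟩
  · rw [div_le_one hi]
    refine (H.r_le _ h0).trans (le_of_eq ?_)
    have : Finset.univ.filter (fun j => grp j = grp i) = {i} := by
      ext j
      simp only [Finset.mem_filter, Finset.mem_univ, true_and, Finset.mem_singleton]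
      exact ⟨hal j, fun h => by rw [h]⟩
    rw [this, Finset.sum_singleton]
  · intro c hc
    rw [H.rate (grp i) c hc (c i / dh i) (fun j hj => by
      rw [hal j hj]; field_simp)]
    ring

end

/-! ### triangular charts -/

section

open Net191 (Mons Legal Leg)
open Crest.Agent.R138

variable {m : ℕ}

/-- **decoupling on `Leg M R`, boundary group of any sign** -/
theorem leg_outS (M : Mons m) {R : ℝ} {ν : (Fin m → ℝ) → ℝ} {K : ℝ} (hK : 0 ≤ K)
    (hν : ∀ p ∈ Leg M R, ∀ q ∈ Leg M R, |ν p - ν q| ≤ K * ‖p - q‖)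
    (hm : ∀ p ∈ Leg M R, ∀ q ∈ Leg M R, p ≤ q → ν q ≤ ν p ∧ ν p - ν q ≤ ∑ i, (q i - p i))
    (hs : ∀ p ∈ Leg M R, ∀ q ∈ Leg M R, p ⊓ q ∈ Leg M R → ν p + ν q ≤ ν (p ⊔ q) + ν (p ⊓ q))
    {x0 a b : Fin m → ℝ} {grp : Fin m → κ} {n : κ → ℝ × ℝ} {dh : Fin m → ℝ} {k0 : κ} {s t : ℝ}
    (hd : DirS grp a b n dh k0 s t) (hne : ∀ k, ∀ e ∈ M.mon k, ∃ s, e s ≠ 0) :
    ∀ᵐ z : ℝ × ℝ, z ∈ (mw M).O (fun _ => 0) (fun _ => R) x0 a b → ∃ D : ℝ × ℝ →L[ℝ] ℝ,
      HasFDerivAt (fun z => ν (X x0 a b z)) D z ∧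
      ∀ (h : ℕ → ℝ), (∀ l, 0 < h l) → Tendsto h atTop (𝓝 0) → ∀ lam : (Fin m → ℝ) → ℝ,
        Ex926.IsTan (Leg M R) ((mw M).L x0 a b) ν (fun _ => X x0 a b z) h lam →
        ∃ (φ : κ → (Fin m → ℝ) → ℝ) (r : κ → ℝ),
          OutS grp ((mw M).L x0 a b) dh n lam (D (1, 0), D (0, 1)) φ r := by
  have e := mw_P M R
  have key := ae_outS (mw M) (lo := fun _ => 0) (hi := fun _ => R) (x0 := x0) (ν := ν) hK
    (by rw [e]; intro p hp q hq; rw [dist_eq_norm]; exact hν p hp q hq)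
    (by
      rw [e]; intro p hp q hq hpq
      have := hm p hp q hq hpq
      exact ⟨by linarith [this.1], this.2⟩)
    (by rw [e]; intro p hp q hq h1 h2; exact hs p hp q hq h1) hd
    (fun w _ => hne w.1 w.2.1 w.2.2)
  filter_upwards [key] with z hz hzO
  obtain ⟨D, hD, H⟩ := hz hzO
  refine ⟨D, hD, fun h hpos h0 lam ht => H h lam ?_⟩
  rw [e]
  exact bup_of_tan hpos h0 ht

end

end Crest.Agent.R136.Dgs413
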