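import Crest.Agent.R136.Wq1_638

/-!
# R136, wrapper `J2 → PreQ` for the straight chart `coQ` (helper638), part 2: the exponent paths
-/

set_option autoImplicit false
set_option linter.unusedVariables false

open Finset Filter Topology

namespace Crest.Agent.R136.Wq638

open Crest.Agent.R138.Ex926 (Base U)
open Crest.Agent.R138.Dp76 (dpow_pos dpow_add dpow_le dpow_le_one)
open Crest.Agent.R138.Mk163 (zc zl rho alive)
open Crest.Agent.R138.MkRef627 (lc kc)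
open Crest.Agent.R136.MkA627
open Crest.Agent.R136.Net191
open Crest.Agent.R136.NetQ186
open Crest.Agent.R136.GeoQ186
open Crest.Agent.R136.Sh605 (Ln4 V3)
open Crest.Agent.R136.TD627 (TDist)

/-- `w0` and `R` are large -/
structure BigQ (θ : Fin 3 → ℝ) (w0 R T : ℝ) : Prop where
  T0 : 0 ≤ T
  th : ∀ k, |θ k| ≤ T
  w0T : 1 + 2 * T ≤ w0
  R0 : 4 * w0 + 1 + T ≤ R

theorem exists_bigQ (θ : Fin 3 → ℝ) : ∃ T w0 R : ℝ, BigQ θ w0 R T := by
  refine ⟨|θ 0| + |θ 1| + |θ 2|, 1 + 2 * (|θ 0| + |θ 1| + |θ 2|), _, ⟨by positivity, ?_, le_rfl,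
    le_rfl⟩⟩
  intro k
  have h0 := abs_nonneg (θ 0)
  have h1 := abs_nonneg (θ 1)
  have h2 := abs_nonneg (θ 2)
  fin_cases k
  · show |θ 0| ≤ _; linarith
  · show |θ 1| ≤ _; linarith
  · show |θ 2| ≤ _; linarith

namespace BigQ

variable {θ : Fin 3 → ℝ} {w0 R T : ℝ}

theorem bd (h : BigQ θ w0 R T) {v : ℝ} (h0 : 0 ≤ v) (h1 : v ≤ 1) (k : Fin 3) :
    -T ≤ θ k * v ∧ θ k * v ≤ T := by
  have a := abs_le.1 (h.th k)
  have b := h.T0
  constructor <;> nlinarith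

theorem w0pos (h : BigQ θ w0 R T) : 1 ≤ w0 := by
  have := h.T0
  have := h.w0T
  linarith

theorem wR (h : BigQ θ w0 R T) : w0 + 1 ≤ R := by
  have := h.T0
  have := h.w0T
  have := h.R0
  linarith

/-- bounds of the record path -/
theorem path_bd (h : BigQ θ w0 R T) {v : ℝ} (h0 : 0 ≤ v) (h1 : v ≤ 1) (k : Fin 11) :
    1 ≤ pathQ θ w0 R v k ∧ pathQ θ w0 R v k ≤ R := by
  have a0 := h.bd h0 h1 0
  have a1 := h.bd h0 h1 1
  have a2 := h.bd h0 h1 2
  have b0 := h.T0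
  have b1 := h.w0T
  have b2 := h.R0
  fin_cases k
  · show 1 ≤ w0 + v ∧ w0 + v ≤ R
    constructor <;> linarith
  · show 1 ≤ R ∧ R ≤ R
    constructor <;> linarith
  · show 1 ≤ w0 + (θ 1 - θ 2) * v ∧ w0 + (θ 1 - θ 2) * v ≤ R
    constructor <;> linarith
  · show 1 ≤ w0 + (θ 2 - θ 0) * v ∧ w0 + (θ 2 - θ 0) * v ≤ R
    constructor <;> linarith
  · show 1 ≤ 2 * w0 + (θ 1 - θ 0) * v ∧ 2 * w0 + (θ 1 - θ 0) * v ≤ R
    constructor <;> linarith
  · show 1 ≤ w0 - θ 1 * v ∧ w0 - θ 1 * v ≤ R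
    constructor <;> linarith
  · show 1 ≤ 2 * w0 - θ 2 * v ∧ 2 * w0 - θ 2 * v ≤ R
    constructor <;> linarith
  · show 1 ≤ 3 * w0 - θ 0 * v ∧ 3 * w0 - θ 0 * v ≤ R
    constructor <;> linarith
  · show 1 ≤ 2 * w0 + (1 - θ 1) * v ∧ 2 * w0 + (1 - θ 1) * v ≤ R
    constructor <;> linarith
  · show 1 ≤ 3 * w0 + (1 - θ 2) * v ∧ 3 * w0 + (1 - θ 2) * v ≤ R
    constructor <;> linarith
  · show 1 ≤ 4 * w0 + (1 - θ 0) * v ∧ 4 * w0 + (1 - θ 0) * v ≤ R
    constructor <;> linarith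

/-- **the record path is legal** -/
theorem path_leg (h : BigQ θ w0 R T) {v : ℝ} (h0 : 0 ≤ v) (h1 : v ≤ 1) :
    pathQ θ w0 R v ∈ Leg monQ R := by
  refine ⟨legalQ_iff.2 ⟨fun k => zero_le_one.trans (h.path_bd h0 h1 k).1, ?_⟩,
    fun k => (h.path_bd h0 h1 k).2⟩
  have a0 := h.bd h0 h1 0
  have b0 := h.T0
  have b1 := h.w0T
  have b2 := h.R0
  simp only [pathQ, Matrix.cons_val]
  refine ⟨?_, ?_, ?_, ?_, ?_, ?_, ?_, ?_, ?_, ?_, ?_⟩ <;> linarith

/-- **the paths are positive** -/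
theorem path_pos (h : BigQ θ w0 R T) (V : Fin 11 → Prop) : ∃ δ : ℝ, 0 < δ ∧
    ∀ v : ℝ, 0 ≤ v → v ≤ 1 → ∀ k, δ ≤ pathQ θ w0 R v k ∧ δ ≤ ownQ θ w0 R V v k := by
  refine ⟨1, one_pos, fun v h0 h1 k => ⟨(h.path_bd h0 h1 k).1, ?_⟩⟩
  unfold ownQ
  split_ifs
  · have := h.w0pos; linarith
  · exact (h.path_bd h0 h1 k).1
  · have := h.wR; have := h.w0pos; linarith

/-- **the paths are Lipschitz** -/
theorem path_lip (h : BigQ θ w0 R T) (V : Fin 11 → Prop) (g s : ℝ) (q : Fin 3 → ℝ) :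
    ∃ Cr : ℝ, ∀ u v : ℝ, 0 ≤ u → u ≤ v → v ≤ 1 →
    (∀ k, |pathQ θ w0 R v k - pathQ θ w0 R u k| ≤ Cr * (v - u) ∧
      |ownQ θ w0 R V v k - ownQ θ w0 R V u k| ≤ Cr * (v - u)) ∧
      |EQ θ g s q w0 R v - EQ θ g s q w0 R u| ≤ Cr * (v - u) := by
  set c : ℝ := |g - (1 - s) - (3 - θ 0 - θ 1 - θ 2) + (q 0 * θ 0 + q 1 * θ 1 + q 2 * θ 2)| with hc
  refine ⟨1 + 2 * T + c, fun u v h0 huv h1 => ?_⟩
  have hc0 : 0 ≤ c := abs_nonneg _
  have a0 := abs_le.1 (h.th 0)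
  have a1 := abs_le.1 (h.th 1)
  have a2 := abs_le.1 (h.th 2)
  have b0 := h.T0
  have hd : 0 ≤ v - u := by linarith
  have key : ∀ x : ℝ, |x| ≤ 1 + 2 * T → |x * (v - u)| ≤ (1 + 2 * T + c) * (v - u) := by
    intro x hx
    rw [abs_mul, abs_of_nonneg hd]
    exact mul_le_mul_of_nonneg_right (by linarith) hd
  have hp : ∀ k, |pathQ θ w0 R v k - pathQ θ w0 R u k| ≤ (1 + 2 * T + c) * (v - u) := by
    intro k
    fin_cases k
    · show |w0 + v - (w0 + u)| ≤ _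
      have := key 1 (by rw [abs_one]; linarith)
      convert this using 2; ring
    · show |R - R| ≤ _
      rw [sub_self, abs_zero]
      exact mul_nonneg (by linarith) hd
    · show |w0 + (θ 1 - θ 2) * v - (w0 + (θ 1 - θ 2) * u)| ≤ _
      have := key (θ 1 - θ 2) (by rw [abs_le]; constructor <;> linarith)
      convert this using 2; ring
    · show |w0 + (θ 2 - θ 0) * v - (w0 + (θ 2 - θ 0) * u)| ≤ _
      have := key (θ 2 - θ 0) (by rw [abs_le]; constructor <;> linarith)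
      convert this using 2; ring
    · show |2 * w0 + (θ 1 - θ 0) * v - (2 * w0 + (θ 1 - θ 0) * u)| ≤ _
      have := key (θ 1 - θ 0) (by rw [abs_le]; constructor <;> linarith)
      convert this using 2; ring
    · show |w0 - θ 1 * v - (w0 - θ 1 * u)| ≤ _
      have := key (-θ 1) (by rw [abs_le]; constructor <;> linarith)
      convert this using 2; ring
    · show |2 * w0 - θ 2 * v - (2 * w0 - θ 2 * u)| ≤ _
      have := key (-θ 2) (by rw [abs_le]; constructor <;> linarith)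
      convert this using 2; ring
    · show |3 * w0 - θ 0 * v - (3 * w0 - θ 0 * u)| ≤ _
      have := key (-θ 0) (by rw [abs_le]; constructor <;> linarith)
      convert this using 2; ring
    · show |2 * w0 + (1 - θ 1) * v - (2 * w0 + (1 - θ 1) * u)| ≤ _
      have := key (1 - θ 1) (by rw [abs_le]; constructor <;> linarith)
      convert this using 2; ring
    · show |3 * w0 + (1 - θ 2) * v - (3 * w0 + (1 - θ 2) * u)| ≤ _
      have := key (1 - θ 2) (by rw [abs_le]; constructor <;> linarith)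
      convert this using 2; ring
    · show |4 * w0 + (1 - θ 0) * v - (4 * w0 + (1 - θ 0) * u)| ≤ _
      have := key (1 - θ 0) (by rw [abs_le]; constructor <;> linarith)
      convert this using 2; ring
  refine ⟨fun k => ⟨hp k, ?_⟩, ?_⟩
  · unfold ownQ
    split_ifs with hk hV
    · have := key 1 (by rw [abs_one]; linarith)
      convert this using 2; ring
    · exact hp k
    · rw [sub_self, abs_zero]
      exact mul_nonneg (by linarith) hd
  · rw [EQ_eq, EQ_eq]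
    have e1 : g * v + (1 - s) * (1 - v) - (3 - θ 0 - θ 1 - θ 2) * v +
        (q 0 * θ 0 + q 1 * θ 1 + q 2 * θ 2) * v -
        (g * u + (1 - s) * (1 - u) - (3 - θ 0 - θ 1 - θ 2) * u +
        (q 0 * θ 0 + q 1 * θ 1 + q 2 * θ 2) * u) =
        (g - (1 - s) - (3 - θ 0 - θ 1 - θ 2) + (q 0 * θ 0 + q 1 * θ 1 + q 2 * θ 2)) * (v - u) := by
      ring
    rw [e1, abs_mul, abs_of_nonneg hd, ← hc]
    exact mul_le_mul_of_nonneg_right (by linarith) hd

end BigQ

theorem ownQ_zero (θ : Fin 3 → ℝ) (w0 R : ℝ) (V : Fin 11 → Prop) (v : ℝ) :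
    ownQ θ w0 R V v 0 = w0 + v := by
  unfold ownQ
  rw [if_pos rfl]

end Crest.Agent.R136.Wq638
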