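import Crest.Agent.R136.GR3_650
import Crest.Agent.R136.Wq2_638

/-!
# R136, L15, record closeness (helper650), part 4: `gR` in the literal units of `Wq638`

`gR_couQ` : field `gR` of `Lq196.PreQ` for `co = couQ B lev w w0 (incQ ..)`, `r = pathQ θ w0 R`.
-/

set_option autoImplicit false
set_option linter.unusedVariables false

open Finset Filter Topology

namespace Crest.Agent.R136.GR650

open Crest.Agent.R138.Ex926 (Base U)
open Crest.Agent.R138.Mk163 (zc zl rho alive)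
open Crest.Agent.R138.MkRef627 (lc kc)
open Crest.Agent.R138.Dp76 (dpow_pos dpow_add dpow_le dpow_le_one)
open Crest.Agent.R138.ArgM163 (ev_const log_dpow)
open Crest.Agent.R136.Net191
open Crest.Agent.R136.NetQ186
open Crest.Agent.R136.GeoQ186
open Crest.Agent.R136.Sh605
open Crest.Agent.R136.Wq638 (uA uB uY couQ incQ pathQ BigQ)

section

variable {B : Base} {I : ℕ → Finset (ℕ × ℝ)} {lev : ℕ → ℚ → ℕ} {f : ℕ → ℚ → ℕ → ℤ → ℕ}
  {w : Fin 3 → ℕ → ℚ → ℝ} {θ : Fin 3 → ℝ} {w0 R T : ℝ}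

/-- angular widths relative to level `0` -/
theorem LinW.ang0 (h : LinW B lev w θ) (j : Fin 3) {u : ℚ} (u0 : 0 ≤ u) (u1 : u ≤ 1) {t : ℝ}
    (ht : 0 < t) : ∀ᶠ n in (U : Filter ℕ),
      B.d n ^ (-(θ j * u) + t) ≤ (w j n u / rho (lev n u)) / (w j n 0 / rho (lev n 0)) ∧
      (w j n u / rho (lev n u)) / (w j n 0 / rho (lev n 0)) ≤ B.d n ^ (-(θ j * u) - t) := by
  have h2 : (0 : ℝ) < t / 2 := by positivity
  filter_upwards [ev_ang (h.wpos j u u0 u1) (h.wpos j 1 zero_le_one le_rfl) (h.tau j u u0 u1) h2,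
    ev_ang (h.wpos j 0 le_rfl zero_le_one) (h.wpos j 1 zero_le_one le_rfl)
      (h.tau j 0 le_rfl zero_le_one) h2, h.wpos j 0 le_rfl zero_le_one,
    h.wpos j 1 zero_le_one le_rfl, h.wpos j u u0 u1] with n a b p0 p1 pu
  have dp := dpow_pos B n
  have r0 := rho_pos (lev n 0)
  have r1 := rho_pos (lev n 1)
  have ru := rho_pos (lev n u)
  have e1 : (w j n u / rho (lev n u)) / (w j n 0 / rho (lev n 0)) =
      ((w j n u / rho (lev n u)) / (w j n 1 / rho (lev n 1))) /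
      ((w j n 0 / rho (lev n 0)) / (w j n 1 / rho (lev n 1))) := by field_simp
  rw [e1]
  constructor
  · calc B.d n ^ (-(θ j * u) + t) =
          B.d n ^ (θ j * (1 - u) + t / 2) / B.d n ^ (θ j * (1 - ((0 : ℚ) : ℝ)) - t / 2) := by
          rw [← Real.rpow_sub (B.pos n)]; congr 1; push_cast; ring
      _ ≤ _ := div_le_div₀ (by positivity) a.1 (by positivity) b.2
  · calc _ ≤ B.d n ^ (θ j * (1 - u) - t / 2) /
          B.d n ^ (θ j * (1 - ((0 : ℚ) : ℝ)) + t / 2) := div_le_div₀ (dp _).le a.2 (dp _) b.1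
      _ = _ := by rw [← Real.rpow_sub (B.pos n)]; congr 1; push_cast; ring

/-- sizes of the record box, in the units of level `0` -/
theorem LinW.sizes0 (h : LinW B lev w θ) {u : ℚ} (u0 : 0 ≤ u) (u1 : u ≤ 1) {t : ℝ} (ht : 0 < t) :
    ∀ᶠ n in (U : Filter ℕ), ∀ k : Fin 11, k ≠ 1 →
      ![Wq638.uH B lev w0 n * rho (lev n u), 0,
        (w 2 n u / rho (lev n u) / uB B lev w w0 n) / (w 1 n u / rho (lev n u) / uA B lev w w0 n),
        (w 0 n u / rho (lev n u) / uY B lev w w0 n) / (w 2 n u / rho (lev n u) / uB B lev w w0 n),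
        (w 0 n u / rho (lev n u) / uY B lev w w0 n) / (w 1 n u / rho (lev n u) / uA B lev w w0 n),
        w 1 n u / rho (lev n u) / uA B lev w w0 n, w 2 n u / rho (lev n u) / uB B lev w w0 n,
        w 0 n u / rho (lev n u) / uY B lev w w0 n,
        Wq638.uH B lev w0 n * rho (lev n u) * (w 1 n u / rho (lev n u) / uA B lev w w0 n),
        Wq638.uH B lev w0 n * rho (lev n u) * (w 2 n u / rho (lev n u) / uB B lev w w0 n),
        Wq638.uH B lev w0 n * rho (lev n u) * (w 0 n u / rho (lev n u) / uY B lev w w0 n)] k ≤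
      B.d n ^ (pathQ θ w0 R u k - t) := by
  have h2 : (0 : ℝ) < t / 2 := by positivity
  have hz := ev_rho (h.lev_lim 0 u le_rfl u0 u1) h2
  filter_upwards [hz, h.ang0 0 u0 u1 h2, h.ang0 1 u0 u1 h2, h.ang0 2 u0 u1 h2,
    h.wpos 0 0 le_rfl zero_le_one, h.wpos 1 0 le_rfl zero_le_one, h.wpos 2 0 le_rfl zero_le_one,
    h.wpos 0 u u0 u1, h.wpos 1 u u0 u1, h.wpos 2 u u0 u1] with n hz a0 a1 a2 p0 p1 p2 q0 q1 q2 k hk
  have add : ∀ a b : ℝ, B.d n ^ a * B.d n ^ b = B.d n ^ (a + b) := fun a b => (dpow_add B n a b).symm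
  have dp := dpow_pos B n
  have hρ := rho_pos (lev n u)
  have hρ0 := rho_pos (lev n 0)
  have key : ∀ (j : Fin 3) (s W : ℝ), W = w j n 0 / rho (lev n 0) * B.d n ^ (-s) →
      0 < w j n u → 0 < w j n 0 →
      B.d n ^ (-(θ j * u) + t / 2) ≤ (w j n u / rho (lev n u)) / (w j n 0 / rho (lev n 0)) →
      (w j n u / rho (lev n u)) / (w j n 0 / rho (lev n 0)) ≤ B.d n ^ (-(θ j * u) - t / 2) →
      B.d n ^ (s - θ j * u + t / 2) ≤ w j n u / rho (lev n u) / W ∧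
      w j n u / rho (lev n u) / W ≤ B.d n ^ (s - θ j * u - t / 2) := by
    intro j s W hW hu h1 a b
    have e1 : w j n u / rho (lev n u) / W =
        (w j n u / rho (lev n u)) / (w j n 0 / rho (lev n 0)) * B.d n ^ s := by
      rw [hW, Real.rpow_neg (B.pos n).le]
      have := dp s
      field_simp
    rw [e1]
    constructor
    · calc B.d n ^ (s - θ j * u + t / 2) = B.d n ^ (-(θ j * u) + t / 2) * B.d n ^ s := by
            rw [add]; congr 1; ring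
        _ ≤ _ := mul_le_mul_of_nonneg_right a (dp s).le
    · calc _ ≤ B.d n ^ (-(θ j * u) - t / 2) * B.d n ^ s :=
            mul_le_mul_of_nonneg_right b (dp s).le
        _ = _ := by rw [add]; congr 1; ring
  obtain ⟨ly, hy⟩ := key 0 (3 * w0) (uY B lev w w0 n) rfl q0 p0 a0.1 a0.2
  obtain ⟨la, ha⟩ := key 1 w0 (uA B lev w w0 n) rfl q1 p1 a1.1 a1.2
  obtain ⟨lb, hb⟩ := key 2 (2 * w0) (uB B lev w w0 n) rfl q2 p2 a2.1 a2.2
  have hH : Wq638.uH B lev w0 n * rho (lev n u) ≤ B.d n ^ (w0 + u - t / 2) := by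
    have e1 : Wq638.uH B lev w0 n * rho (lev n u) =
        B.d n ^ w0 * (rho (lev n u) / rho (lev n 0)) := by
      unfold Wq638.uH
      have : rho (lev n 0) = ((2 : ℝ) ^ (lev n 0))⁻¹ := by unfold rho; rw [one_div]
      rw [this, div_inv_eq_mul]; ring
    rw [e1]
    calc B.d n ^ w0 * (rho (lev n u) / rho (lev n 0)) ≤
          B.d n ^ w0 * B.d n ^ ((u : ℝ) - (0 : ℚ) - t / 2) :=
          mul_le_mul_of_nonneg_left hz.2 (dp w0).le
      _ = _ := by rw [add]; congr 1; push_cast; ring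
  have hH0 : 0 ≤ Wq638.uH B lev w0 n * rho (lev n u) :=
    mul_nonneg (Wq638.uH_pos n).le hρ.le
  generalize Wq638.uH B lev w0 n * rho (lev n u) = Z at hH hH0 ⊢
  generalize w 0 n u / rho (lev n u) / uY B lev w w0 n = Y at ly hy ⊢
  generalize w 1 n u / rho (lev n u) / uA B lev w w0 n = A at la ha ⊢
  generalize w 2 n u / rho (lev n u) / uB B lev w w0 n = Q at lb hb ⊢
  have hY0 : 0 < Y := (dp _).trans_le ly
  have hA0 : 0 < A := (dp _).trans_le la
  have hQ0 : 0 < Q := (dp _).trans_le lb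
  have quo : ∀ {X Y a b c : ℝ}, 0 ≤ X → X ≤ B.d n ^ a → B.d n ^ b ≤ Y → c ≤ a - b →
      X / Y ≤ B.d n ^ c := by
    intro X Y a b c h0 h1 h2 h3
    calc X / Y ≤ B.d n ^ a / B.d n ^ b := div_le_div₀ (dp a).le h1 (dp b) h2
      _ = B.d n ^ (a - b) := by rw [← Real.rpow_sub (B.pos n)]
      _ ≤ _ := dpow_le B n h3
  have prd : ∀ {X Y a b c : ℝ}, 0 ≤ X → X ≤ B.d n ^ a → Y ≤ B.d n ^ b → 0 ≤ Y → c ≤ a + b →
      X * Y ≤ B.d n ^ c := by
    intro X Y a b c h0 h1 h2 h4 h3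
    calc X * Y ≤ B.d n ^ a * B.d n ^ b := mul_le_mul h1 h2 h4 (dp a).le
      _ = B.d n ^ (a + b) := add a b
      _ ≤ _ := dpow_le B n h3
  fin_cases k
  · show Z ≤ B.d n ^ (w0 + u - t)
    exact hH.trans (dpow_le B n (by linarith))
  · exact absurd rfl hk
  · show Q / A ≤ B.d n ^ (w0 + (θ 1 - θ 2) * u - t)
    exact quo hQ0.le hb la (by linarith)
  · show Y / Q ≤ B.d n ^ (w0 + (θ 2 - θ 0) * u - t)
    exact quo hY0.le hy lb (by linarith)
  · show Y / A ≤ B.d n ^ (2 * w0 + (θ 1 - θ 0) * u - t)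
    exact quo hY0.le hy la (by linarith)
  · show A ≤ B.d n ^ (w0 - θ 1 * u - t)
    exact ha.trans (dpow_le B n (by linarith))
  · show Q ≤ B.d n ^ (2 * w0 - θ 2 * u - t)
    exact hb.trans (dpow_le B n (by linarith))
  · show Y ≤ B.d n ^ (3 * w0 - θ 0 * u - t)
    exact hy.trans (dpow_le B n (by linarith))
  · show Z * A ≤ B.d n ^ (2 * w0 + (1 - θ 1) * u - t)
    exact prd hH0 hH ha hA0.le (by linarith)
  · show Z * Q ≤ B.d n ^ (3 * w0 + (1 - θ 2) * u - t)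
    exact prd hH0 hH hb hQ0.le (by linarith)
  · show Z * Y ≤ B.d n ^ (4 * w0 + (1 - θ 0) * u - t)
    exact prd hH0 hH hy hY0.le (by linarith)

/-- **`gR` of the straight chart**, literal form.  Marks: box `(E, c, w)` over the cell; own flags
close to the slopes of the mark, up to the precisions. -/
theorem gR_couQ (h : LinW B lev w θ) (hu : BigQ θ w0 R T)
    {L : ℕ → ℕ → Ln4} {π : Equiv.Perm (Fin 3)} {eE fA fB : ℕ → ℕ × ℝ → ℝ}
    {E : ℕ → ℚ → ℕ × ℤ → Fin 3 → V3} {c : ℕ → ℚ → ℕ × ℤ → Ln4}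
    (hadm : ∀ u : ℚ, 0 ≤ u → u ≤ 1 → ∀ᶠ n in (U : Filter ℕ), ∀ x ∈ I n,
      Adm π (E n u (kc (lev n u) (f n u) x)))
    (hin : ∀ u : ℚ, 0 ≤ u → u ≤ 1 → ∀ ε : ℝ, 0 < ε → ∀ᶠ n in (U : Filter ℕ), ∀ x ∈ I n, ∀ z,
      zl (lev n u) (zc (lev n u) x.2) ≤ z → z ≤ zl (lev n u) (zc (lev n u) x.2) + rho (lev n u) →
        InK (E n u (kc (lev n u) (f n u) x)) (c n u (kc (lev n u) (f n u) x))
          (fun j => w j n u * B.d n ^ (-ε)) z ((L n x.1).pos z))
    (hfl : ∀ u : ℚ, 0 ≤ u → u ≤ 1 → ∀ ε : ℝ, 0 < ε → ∀ᶠ n in (U : Filter ℕ), ∀ x ∈ I n,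
      |eE n x - sE π (E n u (kc (lev n u) (f n u) x))| ≤ w 2 n u / w 1 n u * B.d n ^ (-ε) ∧
      |fB n x - sB π (E n u (kc (lev n u) (f n u) x))| ≤ w 0 n u / w 2 n u * B.d n ^ (-ε) ∧
      |(fA n x - sA π (E n u (kc (lev n u) (f n u) x))) +
        sE π (E n u (kc (lev n u) (f n u) x)) *
          (fB n x - sB π (E n u (kc (lev n u) (f n u) x)))| ≤
        w 0 n u / w 1 n u * B.d n ^ (-ε))
    (u : ℚ) (u0 : 0 ≤ u) (u1 : u ≤ 1) (ε : ℝ) (hε : 0 < ε) :
    ∀ᶠ n in (U : Filter ℕ), ∀ x ∈ I n, ∀ y ∈ I n,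
      kc (lev n u) (f n u) y = kc (lev n u) (f n u) x → ∀ k,
        |couQ B lev w w0 (incQ π L eE fA fB) n x y k| ≤ B.d n ^ (pathQ θ w0 R u k - ε) := by
  have u0' : (0 : ℝ) ≤ u := by exact_mod_cast u0
  have u1' : (u : ℝ) ≤ 1 := by exact_mod_cast u1
  refine gR_of (Φ := Fq4) (M := monQ) (C := 2) (inc := incQ π L eE fA fB)
    (cF := fun n i j => coQ (scl (Wq638.uH B lev w0 n) (uA B lev w w0 n) (uB B lev w w0 n)
      (uY B lev w w0 n) i) (scl (Wq638.uH B lev w0 n) (uA B lev w w0 n) (uB B lev w w0 n)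
      (uY B lev w w0 n) j))
    (fun n J => chartQ J _) (hu.path_leg u0' u1').1 one_pos (fun k => (hu.path_bd u0' u1' k).1)
    (cen := fun n u a => mkF π (c n u a) (zl (lev n u) a.2) (E n u a)) ?_ hε
  intro ε hε
  have h3 : 0 < ε / 3 := by positivity
  filter_upwards [hadm u u0 u1, hin u u0 u1 _ h3, hfl u u0 u1 _ h3,
    h.sizes0 (w0 := w0) (R := R) u0 u1 h3,
    ev_const B (show (0 : ℝ) < 8 by norm_num) h3, h.ord u u0 u1,
    h.wpos 0 0 le_rfl zero_le_one, h.wpos 1 0 le_rfl zero_le_one, h.wpos 2 0 le_rfl zero_le_one,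
    h.wpos 0 u u0 u1, h.wpos 1 u u0 u1, h.wpos 2 u u0 u1]
    with n hadm hin hfl hsz h8 hord p0 p1 p2 q0 q1 q2 x hx k
  have dp := dpow_pos B n
  have hρ := rho_pos (lev n u)
  set a := kc (lev n u) (f n u) x with ha
  have ha2 : a.2 = zc (lev n u) x.2 := rfl
  have hH : 0 < Wq638.uH B lev w0 n := Wq638.uH_pos n
  have hWa : 0 < uA B lev w w0 n := Wq638.uA_pos p1
  have hWb : 0 < uB B lev w w0 n := Wq638.uB_pos p2
  have hWy : 0 < uY B lev w w0 n := Wq638.uY_pos p0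
  have he : 1 ≤ B.d n ^ (-(ε / 3)) := by linarith
  obtain ⟨z1, z2⟩ := zl_le (lev n u) x.2
  set S : Fq4 := mkF π (c n u a) (zl (lev n u) a.2) (E n u a) with hS
  set X : Fq4 := incQ π L eE fA fB n x with hX
  have hpl := plank_co (j := X) (hadm x hx) hρ (zm := zl (lev n u) a.2) (z0 := zl (lev n u) a.2)
    le_rfl (by linarith) (hin x hx) ⟨x.2, eE n x, fA n x, fB n x, rfl⟩
  rw [← hS] at hpl
  obtain ⟨c1, c5, c6, c7, c8, c9, c10⟩ := hpl
  obtain ⟨f2, f3, f4⟩ := hfl x hx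
  have c0 : |coQ S X 0| ≤ rho (lev n u) := by
    show |x.2 - zl (lev n u) a.2| ≤ rho (lev n u)
    rw [ha2, abs_le]
    constructor <;> linarith
  have hs := size_le hH hWa hWb hWy hρ q0 q2 q1 he hord.1 hord.2 (x := coQ S X) c0 c1 f2 f3 f4
    c5 c6 c7 c8 c9 c10 k
  show |coQ (scl _ _ _ _ S) (scl _ _ _ _ X) k| ≤ B.d n ^ (pathQ θ w0 R u k - ε)
  rw [coQ_scl hH.ne' hWa.ne' hWb.ne' hWy.ne']
  by_cases hk : k = 1
  · subst hk
    rw [c1, mul_zero, abs_zero]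
    exact (dp _).le
  · refine hs.trans ?_
    have h5 := hsz k hk
    calc _ ≤ (B.d n ^ (-(ε / 3)) * B.d n ^ (-(ε / 3))) *
          B.d n ^ (pathQ θ w0 R u k - ε / 3) := by
          refine mul_le_mul (mul_le_mul_of_nonneg_right h8 (dp _).le) h5 ?_ (by
            have := dp (-(ε / 3)); positivity)
          fin_cases k <;> simp only [Fin.zero_eta, Fin.mk_one, Fin.reduceFinMk, Matrix.cons_val] <;>
            positivity
      _ = _ := by rw [← dpow_add, ← dpow_add]; congr 1; ring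

end

end Crest.Agent.R136.GR650
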