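import Crest.Agent.R136.GD4_186
import Crest.Agent.R136.GR4_650
import Crest.Agent.R136.NatT_550

/-!
# R136: when is a chart box one sheet (helper186)

`mem_PDQ` : membership in `PDQ` from the exponents of the sizes of the level-`0` mark;
`W0` : these exponents; `w0_of_mk` : they are given by a marked sequence of `geo4` with linear
`τ`; `path_PDQ`, `nat4_PDQ` : the record path and the natural boxes.
-/

set_option autoImplicit false
set_option linter.unusedVariables false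

open Finset Filter Topology

namespace Crest.Agent.R136.GeoQ186

open Crest.Agent.R138.Ex926 (Base U)
open Crest.Agent.R138.Mk163 (zc zl rho alive)
open Crest.Agent.R138.MkRef627 (lc kc)
open Crest.Agent.R138
open Crest.Agent.R136.MkA627
open Crest.Agent.R136.Net191
open Crest.Agent.R136.NetQ186
open Crest.Agent.R136.Sh605
open Crest.Agent.R136.Top484 (geo4)
open Crest.Agent.R136.PqG464 (pow_lev zc_near ev_const)
open Crest.Agent.R136.Wq638
open Crest.Agent.R136.NatT550 (nat4 pathQ_nat nat4_legal)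

/-! ### membership in `PDQ` -/

section mem

variable {B : Base} {lev : ℕ → ℚ → ℕ} {w : Fin 3 → ℕ → ℚ → ℝ} {r0 : ℕ → ℝ} {w0 R : ℝ}
  {p : Fin 11 → ℝ}

/-- sizes of the level-`0` mark: `w₂/w₁ ≤ d^cab`, `a/w₂ ≤ d^cby`, `r₀/a ≤ d^cr`, `w₁/ρ ≤ d^cc`,
all up to `d^-ε` -/
structure W0 (B : Base) (r0 : ℕ → ℝ) (lev : ℕ → ℚ → ℕ) (w : Fin 3 → ℕ → ℚ → ℝ)
    (cab cby cr cc : ℝ) : Prop where
  pos : ∀ j, ∀ᶠ n in (U : Filter ℕ), 0 < w j n 0
  ab : ∀ ε : ℝ, 0 < ε → ∀ᶠ n in (U : Filter ℕ), w 2 n 0 ≤ B.d n ^ (cab - ε) * w 1 n 0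
  by' : ∀ ε : ℝ, 0 < ε → ∀ᶠ n in (U : Filter ℕ), w 0 n 0 ≤ B.d n ^ (cby - ε) * w 2 n 0
  res : ∀ ε : ℝ, 0 < ε → ∀ᶠ n in (U : Filter ℕ), r0 n ≤ B.d n ^ (cr - ε) * w 0 n 0
  cap : ∀ ε : ℝ, 0 < ε → ∀ᶠ n in (U : Filter ℕ), w 1 n 0 ≤ B.d n ^ (cc - ε) * rho (lev n 0)

/-- smaller exponents are allowed -/
theorem W0.mono {cab cby cr cc cab' cby' cr' cc' : ℝ} (h : W0 B r0 lev w cab cby cr cc)
    (h1 : cab' ≤ cab) (h2 : cby' ≤ cby) (h3 : cr' ≤ cr) (h4 : cc' ≤ cc) :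
    W0 B r0 lev w cab' cby' cr' cc' where
  pos := h.pos
  ab ε hε := by
    filter_upwards [h.ab ε hε, h.pos 1] with n hn h0
    exact hn.trans (mul_le_mul_of_nonneg_right (Dp76.dpow_le B n (by linarith)) h0.le)
  by' ε hε := by
    filter_upwards [h.by' ε hε, h.pos 2] with n hn h0
    exact hn.trans (mul_le_mul_of_nonneg_right (Dp76.dpow_le B n (by linarith)) h0.le)
  res ε hε := by
    filter_upwards [h.res ε hε, h.pos 0] with n hn h0
    exact hn.trans (mul_le_mul_of_nonneg_right (Dp76.dpow_le B n (by linarith)) h0.le)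
  cap ε hε := by
    filter_upwards [h.cap ε hε] with n hn
    exact hn.trans (mul_le_mul_of_nonneg_right (Dp76.dpow_le B n (by linarith)) (rho_pos _).le)

/-- the best of two readings -/
theorem W0.mix {cab cby cr cc cab' cby' cr' cc' : ℝ} (h : W0 B r0 lev w cab cby cr cc)
    (h' : W0 B r0 lev w cab' cby' cr' cc') :
    W0 B r0 lev w (max cab cab') (max cby cby') (max cr cr') (max cc cc') where
  pos := h.pos
  ab := by rcases max_choice cab cab' with e | e <;> rw [e] <;> [exact h.ab; exact h'.ab]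
  by' := by rcases max_choice cby cby' with e | e <;> rw [e] <;> [exact h.by'; exact h'.by']
  res := by rcases max_choice cr cr' with e | e <;> rw [e] <;> [exact h.res; exact h'.res]
  cap := by rcases max_choice cc cc' with e | e <;> rw [e] <;> [exact h.cap; exact h'.cap]

/-- **when is a box one sheet** -/
theorem mem_PDQ {cab cby cr cc : ℝ} (h : W0 B r0 lev w cab cby cr cc)
    (hp : p ∈ Leg monQ R) (hp0 : w0 ≤ p 0) (hp1 : p 0 ≤ w0 + 1)
    (h1 : p 8 + w0 ≤ p 9 + cab) (h2 : p 9 + w0 ≤ p 10 + cby) (h3 : p 10 ≤ cr + 4 * w0)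
    (h4 : p 0 + w0 < p 8 + cc) : p ∈ PDQ B r0 lev w w0 R := by
  have dpp := fun n a => Dp76.dpow_pos B n a
  refine ⟨hp, hp0, hp1, ⟨fun ε hε => ?_, fun ε hε => ?_, fun ε hε => ?_, ?_⟩⟩
  · filter_upwards [h.ab ε hε, h.pos 1] with n hn h0
    have hρ : 0 < rho (lev n 0) := rho_pos _
    have hc : 0 < B.d n ^ (p 9 + -(2 * w0)) / rho (lev n 0) := div_pos (dpp n _) hρ
    calc uB B lev w w0 n * B.d n ^ p 9 =
          w 2 n 0 * (B.d n ^ (p 9 + -(2 * w0)) / rho (lev n 0)) := by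
          unfold uB
          rw [Dp76.dpow_add]; ring
      _ ≤ (B.d n ^ (cab - ε) * w 1 n 0) * (B.d n ^ (p 9 + -(2 * w0)) / rho (lev n 0)) :=
          mul_le_mul_of_nonneg_right hn hc.le
      _ = B.d n ^ (cab - ε + (p 9 + -(2 * w0))) * (w 1 n 0 / rho (lev n 0)) := by
          rw [Dp76.dpow_add B n (cab - ε)]; ring
      _ ≤ B.d n ^ (-ε + (-w0 + p 8)) * (w 1 n 0 / rho (lev n 0)) :=
          mul_le_mul_of_nonneg_right (Dp76.dpow_le B n (by linarith)) (div_pos h0 hρ).le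
      _ = _ := by
          unfold uA
          rw [Dp76.dpow_add, Dp76.dpow_add]; ring
  · filter_upwards [h.by' ε hε, h.pos 2] with n hn h0
    have hρ : 0 < rho (lev n 0) := rho_pos _
    have hc : 0 < B.d n ^ (p 10 + -(3 * w0)) / rho (lev n 0) := div_pos (dpp n _) hρ
    calc uY B lev w w0 n * B.d n ^ p 10 =
          w 0 n 0 * (B.d n ^ (p 10 + -(3 * w0)) / rho (lev n 0)) := by
          unfold uY
          rw [Dp76.dpow_add]; ring
      _ ≤ (B.d n ^ (cby - ε) * w 2 n 0) * (B.d n ^ (p 10 + -(3 * w0)) / rho (lev n 0)) :=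
          mul_le_mul_of_nonneg_right hn hc.le
      _ = B.d n ^ (cby - ε + (p 10 + -(3 * w0))) * (w 2 n 0 / rho (lev n 0)) := by
          rw [Dp76.dpow_add B n (cby - ε)]; ring
      _ ≤ B.d n ^ (-ε + (-(2 * w0) + p 9)) * (w 2 n 0 / rho (lev n 0)) :=
          mul_le_mul_of_nonneg_right (Dp76.dpow_le B n (by linarith)) (div_pos h0 hρ).le
      _ = _ := by
          unfold uB
          rw [Dp76.dpow_add, Dp76.dpow_add]; ring
  · filter_upwards [h.res ε hε, h.pos 0] with n hn h0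
    refine hn.trans ?_
    have hρ : rho (lev n 0) = ((2 : ℝ) ^ (lev n 0))⁻¹ := by unfold rho; rw [one_div]
    have e1 : B.d n ^ (-ε) * (uY B lev w w0 n / uH B lev w0 n * B.d n ^ p 10) =
        B.d n ^ (-ε + (-(3 * w0) + (-w0 + p 10))) * w 0 n 0 := by
      unfold uY uH
      have h5 : B.d n ^ (-w0) = (B.d n ^ w0)⁻¹ := Real.rpow_neg (B.pos n).le _
      rw [Dp76.dpow_add, Dp76.dpow_add, Dp76.dpow_add, h5, hρ]
      have h6 := (dpp n w0).ne'
      have h7 : ((2 : ℝ) ^ (lev n 0)) ≠ 0 := by positivity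
      field_simp
    rw [e1]
    exact mul_le_mul_of_nonneg_right (Dp76.dpow_le B n (by linarith)) h0.le
  · obtain ⟨δ, hδ⟩ : ∃ δ : ℝ, δ = (p 8 + cc - (p 0 + w0)) / 2 := ⟨_, rfl⟩
    have hδ0 : 0 < δ := by rw [hδ]; linarith
    refine ⟨δ, hδ0, ?_⟩
    filter_upwards [h.cap δ hδ0] with n hn
    have hρ : 0 < rho (lev n 0) := rho_pos _
    have h5 : w 1 n 0 / rho (lev n 0) ≤ B.d n ^ (cc - δ) := by
      rwa [div_le_iff₀ hρ]
    calc uA B lev w w0 n * B.d n ^ (p 8 - p 0 - δ) =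
          (w 1 n 0 / rho (lev n 0)) * B.d n ^ (-w0 + (p 8 - p 0 - δ)) := by
          unfold uA
          rw [Dp76.dpow_add]; ring
      _ ≤ B.d n ^ (cc - δ) * B.d n ^ (-w0 + (p 8 - p 0 - δ)) :=
          mul_le_mul_of_nonneg_right h5 (dpp n _).le
      _ = B.d n ^ (cc - δ + (-w0 + (p 8 - p 0 - δ))) := (Dp76.dpow_add _ _ _ _).symm
      _ ≤ B.d n ^ (0 : ℝ) := Dp76.dpow_le B n (by rw [hδ]; linarith)
      _ = 1 := Real.rpow_zero _

/-- the record path -/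
theorem path_PDQ {cab cby cr cc : ℝ} {θ : Fin 3 → ℝ} (h : W0 B r0 lev w cab cby cr cc)
    {v : ℝ}
    (hp : pathQ θ w0 R v ∈ Leg monQ R) (h0 : 0 ≤ v) (h1 : v ≤ 1)
    (hab : (θ 2 - θ 1) * v ≤ cab) (hby : (θ 0 - θ 2) * v ≤ cby) (hr : (1 - θ 0) * v ≤ cr)
    (hc : θ 1 * v < cc) : pathQ θ w0 R v ∈ PDQ B r0 lev w w0 R := by
  refine mem_PDQ h hp ?_ ?_ ?_ ?_ ?_ ?_ <;> simp only [pathQ, Matrix.cons_val]
  all_goals linarith

/-- the natural boxes -/
theorem nat4_PDQ {cab cby cr cc : ℝ} (h : W0 B r0 lev w cab cby cr cc) {v t1 t2 t3 : ℝ}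
    (hp : nat4 w0 R v t1 t2 t3 ∈ Leg monQ R) (h0 : 0 ≤ v) (h1 : v ≤ 1)
    (hab : t1 ≤ t2 + cab) (hby : t2 ≤ t3 + cby) (hr : v + t3 ≤ cr) (hc : 0 < t1 + cc) :
    nat4 w0 R v t1 t2 t3 ∈ PDQ B r0 lev w w0 R := by
  refine mem_PDQ h hp ?_ ?_ ?_ ?_ ?_ ?_ <;> simp only [nat4, Matrix.cons_val]
  all_goals linarith

end mem

/-! ### the exponents of the level-`0` mark -/

section mk

variable {B : Base} {I : ℕ → Finset (ℕ × ℝ)} {lev : ℕ → ℚ → ℕ}
    {A : ℕ → ℝ} {g s : ℝ} {τ : Fin 3 → ℝ → ℝ} {f : ℕ → ℚ → ℕ → ℤ → ℕ} {b : ℕ → ℚ → ℕ → K4.Plk4}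
    {vm : ℕ → ℚ → ℝ} {w : Fin 3 → ℕ → ℚ → ℝ} {L : ℕ → ℕ → Ln4} {r0 : ℕ → ℝ}
    {wr cr : Fin 3 → ℕ → ℝ} {q : Fin 3 → ℝ} {θ : Fin 3 → ℝ}

/-- the widths of the marks are ordered -/
theorem mark_ord (hM : MkA B I (geo4 L r0 wr cr q) lev A (fun v => g * v) (fun v => s * v) τ f b vm w)
    {v : ℚ} (hv0 : 0 ≤ v) (hv1 : v ≤ 1) : ∀ᶠ n in (U : Filter ℕ),
      r0 n ≤ w 0 n v ∧ w 0 n v ≤ w 2 n v ∧ w 2 n v ≤ w 1 n v ∧ w 1 n v ≤ rho (lev n v) := by
  filter_upwards [hM.ne, hM.mark v hv0 hv1] with n hne hmk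
  obtain ⟨x, hx⟩ := hne
  have hal : x.1 ∈ alive (I n) (lev n v) (zc (lev n v) x.2) :=
    MkRef627.mem_alive.2 ⟨x, hx, rfl, rfl⟩
  obtain ⟨-, h2, -, h4⟩ := hmk _ _ hal
  have w0' := h4 0
  have w1' := h4 1
  have w2' := h4 2
  simp only [geo4, Matrix.cons_val] at h2 w0' w1' w2'
  obtain ⟨hs, hc, -⟩ := h2
  rw [← w0', ← w1', ← w2']
  exact ⟨hs.r0_le, hs.a_le, hs.w_le, hc⟩

/-- **the exponents, read at the rational level `u`** -/
theorem w0_of_mk (hM : MkA B I (geo4 L r0 wr cr q) lev A (fun v => g * v) (fun v => s * v)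
    (fun j v => θ j * (1 - v)) f b vm w) {u : ℚ} (u0 : 0 ≤ u) (u1 : u ≤ 1) :
    W0 B r0 lev w ((θ 2 - θ 1) * u) ((θ 0 - θ 2) * u) ((1 - θ 0) * u) (θ 1 * u) := by
  have hLW : GR650.LinW B lev w θ := ⟨hM.lev_lim, fun j v => hM.wpos j v, fun j v => hM.tau j v,
    fun v v0 v1 => (mark_ord hM v0 v1).mono fun n h => ⟨h.2.1, h.2.2.1⟩⟩
  have dpp := fun n a => Dp76.dpow_pos B n a
  -- the width at level `0` against the width at level `u`
  have key : ∀ (j : Fin 3) {t : ℝ}, 0 < t → ∀ᶠ n in (U : Filter ℕ),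
      B.d n ^ (-(θ j * u) + t) * (w j n 0 / rho (lev n 0)) ≤ w j n u / rho (lev n u) ∧
      w j n u / rho (lev n u) ≤ B.d n ^ (-(θ j * u) - t) * (w j n 0 / rho (lev n 0)) := by
    intro j t ht
    filter_upwards [hLW.ang0 j u0 u1 ht, hM.wpos j 0 le_rfl zero_le_one] with n hn h0
    have hp : 0 < w j n 0 / rho (lev n 0) := div_pos h0 (rho_pos _)
    exact ⟨(le_div_iff₀ hp).1 hn.1, (div_le_iff₀ hp).1 hn.2⟩
  -- comparison of two widths
  have cmp : ∀ (j k : Fin 3), (∀ᶠ n in (U : Filter ℕ), w j n u ≤ w k n u) → ∀ ε : ℝ, 0 < ε →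
      ∀ᶠ n in (U : Filter ℕ), w j n 0 ≤ B.d n ^ ((θ j - θ k) * u - ε) * w k n 0 := by
    intro j k hjk ε hε
    filter_upwards [key j (half_pos hε), key k (half_pos hε), hjk] with n a b c
    have hρ := rho_pos (lev n u)
    have hρ0 := rho_pos (lev n 0)
    have h1 : B.d n ^ (-(θ j * u) + ε / 2) * (w j n 0 / rho (lev n 0)) ≤
        B.d n ^ (-(θ k * u) - ε / 2) * (w k n 0 / rho (lev n 0)) :=
      a.1.trans ((div_le_div_of_nonneg_right c hρ.le).trans b.2)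
    have h2 : B.d n ^ (-(θ j * u) + ε / 2) * w j n 0 ≤
        B.d n ^ (-(θ k * u) - ε / 2) * w k n 0 := by
      have := mul_le_mul_of_nonneg_right h1 hρ0.le
      rwa [mul_assoc, mul_assoc, div_mul_cancel₀ _ hρ0.ne', div_mul_cancel₀ _ hρ0.ne'] at this
    have h3 := mul_le_mul_of_nonneg_left h2 (dpp n (θ j * u - ε / 2)).le
    rw [← mul_assoc, ← mul_assoc, ← Dp76.dpow_add, ← Dp76.dpow_add,
      show θ j * u - ε / 2 + (-(θ j * u) + ε / 2) = 0 by ring, Real.rpow_zero, one_mul] at h3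
    rwa [show (θ j - θ k) * u - ε = θ j * u - ε / 2 + (-(θ k * u) - ε / 2) by ring]
  refine ⟨fun j => hM.wpos j 0 le_rfl zero_le_one,
    cmp 2 1 ((mark_ord hM u0 u1).mono fun n h => h.2.2.1),
    cmp 0 2 ((mark_ord hM u0 u1).mono fun n h => h.2.1), fun ε hε => ?_, fun ε hε => ?_⟩
  · filter_upwards [key 0 (half_pos hε), (mark_ord hM u0 u1),
      pow_lev hM u u0 u1 (half_pos hε), hM.wpos 0 0 le_rfl zero_le_one] with n a c e hw0
    refine c.1.trans ?_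
    have hρ := rho_pos (lev n u)
    have hρ0 := rho_pos (lev n 0)
    have h1 : w 0 n u ≤ B.d n ^ (-(θ 0 * u) - ε / 2) * (w 0 n 0 / rho (lev n 0)) * rho (lev n u) :=
      (div_le_iff₀ hρ).1 a.2
    refine h1.trans ?_
    -- the ratio of the two lengths
    have h2 : rho (lev n u) ≤ B.d n ^ ((u : ℝ) - ε / 2) * rho (lev n 0) := by
      unfold rho
      rw [← mul_div_assoc, mul_one, div_le_div_iff₀ (by positivity) (by positivity), one_mul]
      have h3 := mul_le_mul_of_nonneg_left e.2 (dpp n ((u : ℝ) - ε / 2)).le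
      have h4 : B.d n ^ ((u : ℝ) - ε / 2) * (2 ^ lev n 0 * B.d n ^ (-((u : ℝ) - ε / 2))) =
          2 ^ lev n 0 := by
        have : B.d n ^ ((u : ℝ) - ε / 2) * B.d n ^ (-((u : ℝ) - ε / 2)) = 1 := by
          rw [← Dp76.dpow_add, add_neg_cancel, Real.rpow_zero]
        calc _ = 2 ^ lev n 0 * (B.d n ^ ((u : ℝ) - ε / 2) * B.d n ^ (-((u : ℝ) - ε / 2))) := by
              ring
          _ = _ := by rw [this, mul_one]
      linarith
    calc B.d n ^ (-(θ 0 * u) - ε / 2) * (w 0 n 0 / rho (lev n 0)) * rho (lev n u) ≤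
          B.d n ^ (-(θ 0 * u) - ε / 2) * (w 0 n 0 / rho (lev n 0)) *
            (B.d n ^ ((u : ℝ) - ε / 2) * rho (lev n 0)) :=
          mul_le_mul_of_nonneg_left h2 (mul_pos (dpp n _) (div_pos hw0 hρ0)).le
      _ = B.d n ^ (-(θ 0 * u) - ε / 2) * B.d n ^ ((u : ℝ) - ε / 2) * w 0 n 0 := by
          field_simp
      _ = _ := by
          rw [← Dp76.dpow_add]
          congr 2; ring
  · filter_upwards [key 1 hε, (mark_ord hM u0 u1), hM.wpos 1 0 le_rfl zero_le_one] with n a c hw1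
    have hρ := rho_pos (lev n u)
    have hρ0 := rho_pos (lev n 0)
    have h1 : w 1 n u / rho (lev n u) ≤ 1 := (div_le_one hρ).2 c.2.2.2
    have h2 := mul_le_mul_of_nonneg_left (a.1.trans h1) (dpp n (θ 1 * u - ε)).le
    rw [← mul_assoc, ← Dp76.dpow_add, show θ 1 * u - ε + (-(θ 1 * u) + ε) = 0 by ring,
      Real.rpow_zero, one_mul, mul_one] at h2
    exact (div_le_iff₀ hρ0).1 h2

/-- read at the level `1` -/
theorem w0_one (hM : MkA B I (geo4 L r0 wr cr q) lev A (fun v => g * v) (fun v => s * v)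
    (fun j v => θ j * (1 - v)) f b vm w) :
    W0 B r0 lev w (θ 2 - θ 1) (θ 0 - θ 2) (1 - θ 0) (θ 1) := by
  have h := w0_of_mk hM zero_le_one le_rfl
  rwa [Rat.cast_one, mul_one, mul_one, mul_one, mul_one] at h

/-- read at the level `0` -/
theorem w0_zero (hM : MkA B I (geo4 L r0 wr cr q) lev A (fun v => g * v) (fun v => s * v)
    (fun j v => θ j * (1 - v)) f b vm w) : W0 B r0 lev w 0 0 0 0 := by
  have h := w0_of_mk hM le_rfl zero_le_one
  rwa [Rat.cast_zero, mul_zero, mul_zero, mul_zero, mul_zero] at h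

end mk

end Crest.Agent.R136.GeoQ186
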