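import Crest.Agent.R136.NatT_550
import Crest.Agent.R136.GD5_186
import Crest.Agent.R136.Dgs1_413

/-!
# R136, thick branch: surfaces inside `Leg monQ R` (helper550)

Slot `1` (the `R`-slot) of every surface is a constant `R1 < R` (`pathQ` itself lies on the boundary
of `Leg monQ R`, there is no window around it).

* `Tg`, `memO_monQ`, `memL_monQ` : the open part and the cone of the active walls of a plane in the
  chart `monQ`, the eleven simple walls only;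
* `nL`, `nat_X`, `nat_memO`, `nat_memL` : natural planes;
* `PDlin` : boxes which are one sheet, linear form;
* `rec_ge`, `rec_eq`, `nat_dmax` : values on the record line with slot `1` at `R1`, D-max;
* `comb_dmax`, `dmax_any`, `dmax_PDQ` : every count on `D.I` gives a bound of the profile.
-/

set_option autoImplicit false
set_option linter.unusedVariables false

open Finset Filter Topology

namespace Crest.Agent.R136.NatR550

open Crest.Agent.R136.Net191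
open Crest.Agent.R136.NetQ186
open Crest.Agent.R136.Wq638
open Crest.Agent.R136.Lq196
open Crest.Agent.R136.Top484
open Crest.Agent.R136.NatT550
open Crest.Agent.R136.Dg219 (mw mem_mwO mem_mwL)
open Crest.Agent.R136.Dg262 (X)

/-! ### walls of `monQ` -/

/-- the wall `p k ≤ p i + p j` is an equality along the plane `x0 + v a + t b` -/
def Tg (x0 a b : Fin 11 → ℝ) (k i j : Fin 11) : Prop :=
  x0 k = x0 i + x0 j ∧ a k = a i + a j ∧ b k = b i + b j

/-- active or strict at `z` -/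
def Wl (x0 a b : Fin 11 → ℝ) (z : ℝ × ℝ) (k i j : Fin 11) : Prop :=
  Tg x0 a b k i j ∨ X x0 a b z k < X x0 a b z i + X x0 a b z j

theorem sum11 (e : Fin 11 → ℕ) (p : Fin 11 → ℝ) : ∑ s, (e s : ℝ) * p s =
    e 0 * p 0 + e 1 * p 1 + e 2 * p 2 + e 3 * p 3 + e 4 * p 4 + e 5 * p 5 + e 6 * p 6 +
      e 7 * p 7 + e 8 * p 8 + e 9 * p 9 + e 10 * p 10 := by
  simp [Fin.sum_univ_succ]
  ring

theorem X_tg {x0 a b : Fin 11 → ℝ} {k i j : Fin 11} (h : Tg x0 a b k i j) (z : ℝ × ℝ) :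
    X x0 a b z k = X x0 a b z i + X x0 a b z j := by
  obtain ⟨h1, h2, h3⟩ := h
  simp only [X, h1, h2, h3]
  ring

/-- the eleven simple walls -/
structure OQ (R : ℝ) (x0 a b : Fin 11 → ℝ) (z : ℝ × ℝ) : Prop where
  box : ∀ k, 0 < X x0 a b z k ∧ X x0 a b z k < R
  w423 : Wl x0 a b z 4 2 3
  w625 : Wl x0 a b z 6 2 5
  w701 : Wl x0 a b z 7 0 1
  w745 : Wl x0 a b z 7 4 5
  w736 : Wl x0 a b z 7 3 6
  w805 : Wl x0 a b z 8 0 5
  w906 : Wl x0 a b z 9 0 6
  w928 : Wl x0 a b z 9 2 8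
  w107 : Wl x0 a b z 10 0 7
  w148 : Wl x0 a b z 10 4 8
  w139 : Wl x0 a b z 10 3 9

theorem comp3 {x0 a b : Fin 11 → ℝ} {z : ℝ × ℝ} {k i j u v : Fin 11} (h1 : Wl x0 a b z k i j)
    (h2 : Wl x0 a b z i u v) :
    (x0 k = x0 u + x0 v + x0 j ∧ a k = a u + a v + a j ∧ b k = b u + b v + b j) ∨
      X x0 a b z k < X x0 a b z u + X x0 a b z v + X x0 a b z j := by
  rcases h1 with h1 | h1
  · rcases h2 with h2 | h2
    · exact Or.inl ⟨by rw [h1.1, h2.1], by rw [h1.2.1, h2.2.1], by rw [h1.2.2, h2.2.2]⟩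
    · refine Or.inr ?_
      rw [X_tg h1 z]; linarith
  · refine Or.inr ?_
    rcases h2 with h2 | h2
    · rw [X_tg h2 z] at h1; exact h1
    · linarith

/-- **the open part of a plane in `Leg monQ R`** -/
theorem memO_monQ {R : ℝ} {x0 a b : Fin 11 → ℝ} {z : ℝ × ℝ} (h : OQ R x0 a b z) :
    z ∈ (mw monQ).O (fun _ => 0) (fun _ => R) x0 a b := by
  rw [mem_mwO]
  refine ⟨h.box, fun k e he => ?_⟩
  change e ∈ mfQ k at he
  simp only [sum11]
  have c7 := comp3 h.w745 h.w423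
  have c9 := comp3 (x0 := x0) (a := a) (b := b) (z := z) (k := 9) (i := 6) (j := 0)
    (by rcases h.w906 with h | h
        · exact Or.inl ⟨by rw [h.1]; ring, by rw [h.2.1]; ring, by rw [h.2.2]; ring⟩
        · exact Or.inr (by linarith)) h.w625
  have w10 : ∀ i j : Fin 11, Wl x0 a b z 10 i j → Wl x0 a b z 10 j i := by
    intro i j h
    rcases h with h | h
    · exact Or.inl ⟨by rw [h.1]; ring, by rw [h.2.1]; ring, by rw [h.2.2]; ring⟩
    · exact Or.inr (by linarith)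
  have d1 := comp3 (w10 _ _ h.w107) h.w701
  have d2 := comp3 h.w148 h.w423
  have d3 := comp3 (w10 _ _ h.w107) h.w745
  have d4 := comp3 (w10 _ _ h.w107) h.w736
  have d5 : (x0 10 = x0 0 + x0 2 + x0 3 + x0 5 ∧ a 10 = a 0 + a 2 + a 3 + a 5 ∧
      b 10 = b 0 + b 2 + b 3 + b 5) ∨ X x0 a b z 10 < X x0 a b z 0 + X x0 a b z 2 +
        X x0 a b z 3 + X x0 a b z 5 := by
    rcases h.w107 with h1 | h1
    · rcases c7 with h2 | h2
      · exact Or.inl ⟨by rw [h1.1, h2.1]; ring, by rw [h1.2.1, h2.2.1]; ring,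
          by rw [h1.2.2, h2.2.2]; ring⟩
      · refine Or.inr ?_
        rw [X_tg h1 z]; linarith
    · refine Or.inr ?_
      rcases c7 with h2 | h2
      · have h3 : X x0 a b z 7 = X x0 a b z 2 + X x0 a b z 3 + X x0 a b z 5 := by
          simp only [X, h2.1, h2.2.1, h2.2.2]; ring
        rw [h3] at h1; linarith
      · linarith
  have e423 := h.w423
  have e625 := h.w625
  have e701 := h.w701
  have e745 := h.w745
  have e736 := h.w736
  have e805 := h.w805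
  have e906 := h.w906
  have e928 := h.w928
  have e107 := h.w107
  have e148 := h.w148
  have e139 := h.w139
  unfold Wl Tg at e423 e625 e701 e745 e736 e805 e906 e928 e107 e148 e139
  fin_cases k <;> simp [mfQ] at he
  · subst he; simpa using e423
  · subst he; simpa using e625
  · rcases he with rfl | rfl | rfl | rfl
    · simpa using e701
    · simpa using e745
    · simpa using c7
    · simpa using e736
  · subst he; simpa using e805
  · rcases he with rfl | rfl | rfl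
    · simpa using e906
    · simpa using e928
    · simpa [add_comm, add_left_comm, add_assoc] using c9
  · rcases he with rfl | rfl | rfl | rfl | rfl | rfl | rfl | rfl
    · simpa using e107
    · rcases d1 with d | d
      · refine Or.inl ⟨?_, ?_, ?_⟩
        · simp; linarith [d.1]
        · simp; linarith [d.2.1]
        · simp; linarith [d.2.2]
      · refine Or.inr ?_
        simp; linarith
    · simpa using e148
    · simpa using d2
    · rcases d3 with d | d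
      · refine Or.inl ⟨?_, ?_, ?_⟩
        · simp; linarith [d.1]
        · simp; linarith [d.2.1]
        · simp; linarith [d.2.2]
      · refine Or.inr ?_
        simp; linarith
    · simpa using d5
    · simpa using e139
    · rcases d4 with d | d
      · refine Or.inl ⟨?_, ?_, ?_⟩
        · simp; linarith [d.1]
        · simp; linarith [d.2.1]
        · simp; linarith [d.2.2]
      · refine Or.inr ?_
        simp; linarith

/-- the cone of the active walls of a plane, the simple walls only -/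
def coneQ (x0 a b : Fin 11 → ℝ) : Set (Fin 11 → ℝ) :=
  {c | (Tg x0 a b 4 2 3 → c 4 ≤ c 2 + c 3) ∧ (Tg x0 a b 6 2 5 → c 6 ≤ c 2 + c 5) ∧
    (Tg x0 a b 7 0 1 → c 7 ≤ c 0 + c 1) ∧ (Tg x0 a b 7 4 5 → c 7 ≤ c 4 + c 5) ∧
    (Tg x0 a b 7 3 6 → c 7 ≤ c 3 + c 6) ∧ (Tg x0 a b 8 0 5 → c 8 ≤ c 0 + c 5) ∧
    (Tg x0 a b 9 0 6 → c 9 ≤ c 0 + c 6) ∧ (Tg x0 a b 9 2 8 → c 9 ≤ c 2 + c 8) ∧
    (Tg x0 a b 10 0 7 → c 10 ≤ c 0 + c 7) ∧ (Tg x0 a b 10 4 8 → c 10 ≤ c 4 + c 8) ∧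
    (Tg x0 a b 10 3 9 → c 10 ≤ c 3 + c 9)}

/-- the cone in the walls of `Leg monQ R` -/
theorem memL_sub {x0 a b c : Fin 11 → ℝ} (h : c ∈ (mw monQ).L x0 a b) : c ∈ coneQ x0 a b := by
  rw [mem_mwL] at h
  simp only [sum11] at h
  refine ⟨?_, ?_, ?_, ?_, ?_, ?_, ?_, ?_, ?_, ?_, ?_⟩
  · rintro ⟨h1, h2, h3⟩
    simpa using h 4 ![0, 0, 1, 1, 0, 0, 0, 0, 0, 0, 0] (by decide) (by simpa using h1)
      (by simpa using h2) (by simpa using h3)
  · rintro ⟨h1, h2, h3⟩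
    simpa using h 6 ![0, 0, 1, 0, 0, 1, 0, 0, 0, 0, 0] (by decide) (by simpa using h1)
      (by simpa using h2) (by simpa using h3)
  · rintro ⟨h1, h2, h3⟩
    simpa using h 7 ![1, 1, 0, 0, 0, 0, 0, 0, 0, 0, 0] (by decide) (by simpa using h1)
      (by simpa using h2) (by simpa using h3)
  · rintro ⟨h1, h2, h3⟩
    simpa using h 7 ![0, 0, 0, 0, 1, 1, 0, 0, 0, 0, 0] (by decide) (by simpa using h1)
      (by simpa using h2) (by simpa using h3)
  · rintro ⟨h1, h2, h3⟩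
    simpa using h 7 ![0, 0, 0, 1, 0, 0, 1, 0, 0, 0, 0] (by decide) (by simpa using h1)
      (by simpa using h2) (by simpa using h3)
  · rintro ⟨h1, h2, h3⟩
    simpa using h 8 ![1, 0, 0, 0, 0, 1, 0, 0, 0, 0, 0] (by decide) (by simpa using h1)
      (by simpa using h2) (by simpa using h3)
  · rintro ⟨h1, h2, h3⟩
    simpa using h 9 ![1, 0, 0, 0, 0, 0, 1, 0, 0, 0, 0] (by decide) (by simpa using h1)
      (by simpa using h2) (by simpa using h3)
  · rintro ⟨h1, h2, h3⟩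
    simpa using h 9 ![0, 0, 1, 0, 0, 0, 0, 0, 1, 0, 0] (by decide) (by simpa using h1)
      (by simpa using h2) (by simpa using h3)
  · rintro ⟨h1, h2, h3⟩
    simpa using h 10 ![1, 0, 0, 0, 0, 0, 0, 1, 0, 0, 0] (by decide) (by simpa using h1)
      (by simpa using h2) (by simpa using h3)
  · rintro ⟨h1, h2, h3⟩
    simpa using h 10 ![0, 0, 0, 0, 1, 0, 0, 0, 1, 0, 0] (by decide) (by simpa using h1)
      (by simpa using h2) (by simpa using h3)
  · rintro ⟨h1, h2, h3⟩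
    simpa using h 10 ![0, 0, 0, 1, 0, 0, 0, 0, 0, 1, 0] (by decide) (by simpa using h1)
      (by simpa using h2) (by simpa using h3)

theorem Wl.le {x0 a b : Fin 11 → ℝ} {z : ℝ × ℝ} {k i j : Fin 11} (h : Wl x0 a b z k i j) :
    X x0 a b z k ≤ X x0 a b z i + X x0 a b z j := by
  rcases h with h | h
  · exact (X_tg h z).le
  · exact h.le

theorem Wl.tg {x0 a b : Fin 11 → ℝ} {z : ℝ × ℝ} {k i j : Fin 11} (h : Wl x0 a b z k i j)
    (he : X x0 a b z i + X x0 a b z j ≤ X x0 a b z k) : Tg x0 a b k i j := by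
  rcases h with h | h
  · exact h
  · exact absurd he (not_le.2 h)

/-- **the cone of the active walls** -/
theorem memL_monQ {R : ℝ} {x0 a b c : Fin 11 → ℝ} {z : ℝ × ℝ} (h : OQ R x0 a b z) :
    c ∈ (mw monQ).L x0 a b ↔ c ∈ coneQ x0 a b := by
  refine ⟨memL_sub, fun hc => ?_⟩
  obtain ⟨c1, c2, c3, c4, c5, c6, c7, c8, c9, c10, c11⟩ := hc
  rw [mem_mwL]
  intro k e he h1 h2 h3
  have hX : X x0 a b z k = ∑ s, (e s : ℝ) * X x0 a b z s := by
    have e1 : ∑ s, (e s : ℝ) * X x0 a b z s = ∑ s, (e s : ℝ) * x0 s +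
        (∑ s, (e s : ℝ) * a s) * z.1 + (∑ s, (e s : ℝ) * b s) * z.2 := by
      rw [Finset.sum_mul, Finset.sum_mul, ← Finset.sum_add_distrib, ← Finset.sum_add_distrib]
      refine Finset.sum_congr rfl fun s _ => ?_
      simp only [X]; ring
    rw [e1, ← h1, ← h2, ← h3]; rfl
  change e ∈ mfQ k at he
  rw [sum11] at hX h1 h2 h3 ⊢
  have l423 := h.w423.le
  have l625 := h.w625.le
  have l701 := h.w701.le
  have l745 := h.w745.le
  have l736 := h.w736.le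
  have l906 := h.w906.le
  have l107 := h.w107.le
  have l148 := h.w148.le
  fin_cases k <;> simp [mfQ] at he
  · subst he
    simp only [Nat.cast_zero, Nat.cast_one, Matrix.cons_val, zero_mul, one_mul, zero_add,
      add_zero, Fin.isValue, Fin.reduceFinMk] at h1 h2 h3 ⊢
    exact c1 ⟨h1, h2, h3⟩
  · subst he
    simp only [Nat.cast_zero, Nat.cast_one, Matrix.cons_val, zero_mul, one_mul, zero_add,
      add_zero, Fin.isValue, Fin.reduceFinMk] at h1 h2 h3 ⊢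
    exact c2 ⟨h1, h2, h3⟩
  · rcases he with rfl | rfl | rfl | rfl <;>
    simp only [Nat.cast_zero, Nat.cast_one, Matrix.cons_val, zero_mul, one_mul, zero_add,
      add_zero, Fin.isValue, Fin.reduceFinMk] at hX h1 h2 h3 ⊢
    · exact c3 ⟨h1, h2, h3⟩
    · exact c4 ⟨h1, h2, h3⟩
    · have t1 := c4 (h.w745.tg (by linarith))
      have t2 := c1 (h.w423.tg (by linarith))
      linarith
    · exact c5 ⟨h1, h2, h3⟩
  · subst he
    simp only [Nat.cast_zero, Nat.cast_one, Matrix.cons_val, zero_mul, one_mul, zero_add,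
      add_zero, Fin.isValue, Fin.reduceFinMk] at h1 h2 h3 ⊢
    exact c6 ⟨h1, h2, h3⟩
  · rcases he with rfl | rfl | rfl <;>
    simp only [Nat.cast_zero, Nat.cast_one, Matrix.cons_val, zero_mul, one_mul, zero_add,
      add_zero, Fin.isValue, Fin.reduceFinMk] at hX h1 h2 h3 ⊢
    · exact c7 ⟨h1, h2, h3⟩
    · exact c8 ⟨h1, h2, h3⟩
    · have t1 := c7 (h.w906.tg (by linarith))
      have t2 := c2 (h.w625.tg (by linarith))
      linarith
  · rcases he with rfl | rfl | rfl | rfl | rfl | rfl | rfl | rfl <;>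
    simp only [Nat.cast_zero, Nat.cast_one, Nat.cast_ofNat, Matrix.cons_val, zero_mul, one_mul,
      zero_add, add_zero, Fin.isValue, Fin.reduceFinMk] at hX h1 h2 h3 ⊢
    · exact c9 ⟨h1, h2, h3⟩
    · have t1 := c9 (h.w107.tg (by linarith))
      have t2 := c3 (h.w701.tg (by linarith))
      linarith
    · exact c10 ⟨h1, h2, h3⟩
    · have t1 := c10 (h.w148.tg (by linarith))
      have t2 := c1 (h.w423.tg (by linarith))
      linarith
    · have t1 := c9 (h.w107.tg (by linarith))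
      have t2 := c4 (h.w745.tg (by linarith))
      linarith
    · have t1 := c9 (h.w107.tg (by linarith))
      have t2 := c4 (h.w745.tg (by linarith))
      have t3 := c1 (h.w423.tg (by linarith))
      linarith
    · exact c11 ⟨h1, h2, h3⟩
    · have t1 := c9 (h.w107.tg (by linarith))
      have t2 := c5 (h.w736.tg (by linarith))
      linarith

/-! ### natural planes -/

/-- linear part of `nat4` -/
def nL (v t1 t2 t3 : ℝ) : Fin 11 → ℝ :=
  ![v, 0, t2 - t1, t3 - t2, t3 - t1, t1, t2, t3, v + t1, v + t2, v + t3]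

/-- natural planes: `t_j = al j + be j * v + ga j * t` -/
theorem nat_X (w0 R1 : ℝ) (al be ga : Fin 3 → ℝ) (z : ℝ × ℝ) :
    X (nat4 w0 R1 0 (al 1) (al 2) (al 0)) (nL 1 (be 1) (be 2) (be 0)) (nL 0 (ga 1) (ga 2) (ga 0)) z =
      nat4 w0 R1 z.1 (al 1 + be 1 * z.1 + ga 1 * z.2) (al 2 + be 2 * z.1 + ga 2 * z.2)
        (al 0 + be 0 * z.1 + ga 0 * z.2) := by
  funext k
  fin_cases k <;>
    simp only [X, nL, nat4, Matrix.cons_val, Fin.zero_eta, Fin.mk_one, Fin.reduceFinMk,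
      Fin.isValue] <;>
    ring

theorem nat_tg (w0 R1 : ℝ) (al be ga : Fin 3 → ℝ) {k i j : Fin 11}
    (hk : (k, i, j) ∈ ({(4, 2, 3), (6, 2, 5), (7, 4, 5), (7, 3, 6), (8, 0, 5), (9, 0, 6), (9, 2, 8),
      (10, 0, 7), (10, 4, 8), (10, 3, 9)} : Finset (Fin 11 × Fin 11 × Fin 11))) :
    Tg (nat4 w0 R1 0 (al 1) (al 2) (al 0)) (nL 1 (be 1) (be 2) (be 0)) (nL 0 (ga 1) (ga 2) (ga 0))
      k i j := by
  simp only [Finset.mem_insert, Finset.mem_singleton, Prod.mk.injEq] at hk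
  rcases hk with ⟨rfl, rfl, rfl⟩ | ⟨rfl, rfl, rfl⟩ | ⟨rfl, rfl, rfl⟩ | ⟨rfl, rfl, rfl⟩ |
    ⟨rfl, rfl, rfl⟩ | ⟨rfl, rfl, rfl⟩ | ⟨rfl, rfl, rfl⟩ | ⟨rfl, rfl, rfl⟩ | ⟨rfl, rfl, rfl⟩ |
    ⟨rfl, rfl, rfl⟩ <;>
  refine ⟨?_, ?_, ?_⟩ <;>
  simp only [nat4, nL, Matrix.cons_val, Fin.isValue] <;> ring

/-- **open part of a natural plane** -/
theorem nat_OQ {w0 R1 R : ℝ} {al be ga : Fin 3 → ℝ} {z : ℝ × ℝ}
    (hbox : ∀ k, 0 < nat4 w0 R1 z.1 (al 1 + be 1 * z.1 + ga 1 * z.2)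
      (al 2 + be 2 * z.1 + ga 2 * z.2) (al 0 + be 0 * z.1 + ga 0 * z.2) k ∧
      nat4 w0 R1 z.1 (al 1 + be 1 * z.1 + ga 1 * z.2)
        (al 2 + be 2 * z.1 + ga 2 * z.2) (al 0 + be 0 * z.1 + ga 0 * z.2) k < R)
    (hR : 2 * w0 + (al 0 + be 0 * z.1 + ga 0 * z.2) < z.1 + R1) :
    OQ R (nat4 w0 R1 0 (al 1) (al 2) (al 0)) (nL 1 (be 1) (be 2) (be 0))
      (nL 0 (ga 1) (ga 2) (ga 0)) z where
  box := fun k => by rw [nat_X]; exact hbox k
  w423 := Or.inl (nat_tg _ _ _ _ _ (by decide))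
  w625 := Or.inl (nat_tg _ _ _ _ _ (by decide))
  w701 := Or.inr (by
    rw [nat_X]
    simp only [nat4, Matrix.cons_val, Fin.isValue]
    linarith)
  w745 := Or.inl (nat_tg _ _ _ _ _ (by decide))
  w736 := Or.inl (nat_tg _ _ _ _ _ (by decide))
  w805 := Or.inl (nat_tg _ _ _ _ _ (by decide))
  w906 := Or.inl (nat_tg _ _ _ _ _ (by decide))
  w928 := Or.inl (nat_tg _ _ _ _ _ (by decide))
  w107 := Or.inl (nat_tg _ _ _ _ _ (by decide))
  w148 := Or.inl (nat_tg _ _ _ _ _ (by decide))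
  w139 := Or.inl (nat_tg _ _ _ _ _ (by decide))

/-- cone of a natural plane: all walls but `P ≤ z + R` -/
def coneN : Set (Fin 11 → ℝ) :=
  {c | c 4 ≤ c 2 + c 3 ∧ c 6 ≤ c 2 + c 5 ∧ c 7 ≤ c 4 + c 5 ∧ c 7 ≤ c 3 + c 6 ∧ c 8 ≤ c 0 + c 5 ∧
    c 9 ≤ c 0 + c 6 ∧ c 9 ≤ c 2 + c 8 ∧ c 10 ≤ c 0 + c 7 ∧ c 10 ≤ c 4 + c 8 ∧ c 10 ≤ c 3 + c 9}

theorem nat_memL {w0 R1 R : ℝ} {al be ga : Fin 3 → ℝ} {z : ℝ × ℝ} {c : Fin 11 → ℝ}
    (h : OQ R (nat4 w0 R1 0 (al 1) (al 2) (al 0)) (nL 1 (be 1) (be 2) (be 0))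
      (nL 0 (ga 1) (ga 2) (ga 0)) z)
    (hR : 2 * w0 + (al 0 + be 0 * z.1 + ga 0 * z.2) < z.1 + R1) :
    c ∈ (mw monQ).L (nat4 w0 R1 0 (al 1) (al 2) (al 0)) (nL 1 (be 1) (be 2) (be 0))
      (nL 0 (ga 1) (ga 2) (ga 0)) ↔ c ∈ coneN := by
  rw [memL_monQ h]
  have h701 : ¬ Tg (nat4 w0 R1 0 (al 1) (al 2) (al 0)) (nL 1 (be 1) (be 2) (be 0))
      (nL 0 (ga 1) (ga 2) (ga 0)) 7 0 1 := by
    intro ht
    have := X_tg ht z
    rw [nat_X] at this
    simp only [nat4, Matrix.cons_val, Fin.isValue] at this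
    linarith
  constructor
  · rintro ⟨c1, c2, -, c4, c5, c6, c7, c8, c9, c10, c11⟩
    exact ⟨c1 (nat_tg _ _ _ _ _ (by decide)), c2 (nat_tg _ _ _ _ _ (by decide)),
      c4 (nat_tg _ _ _ _ _ (by decide)), c5 (nat_tg _ _ _ _ _ (by decide)),
      c6 (nat_tg _ _ _ _ _ (by decide)), c7 (nat_tg _ _ _ _ _ (by decide)),
      c8 (nat_tg _ _ _ _ _ (by decide)), c9 (nat_tg _ _ _ _ _ (by decide)),
      c10 (nat_tg _ _ _ _ _ (by decide)), c11 (nat_tg _ _ _ _ _ (by decide))⟩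
  · rintro ⟨c1, c2, c4, c5, c6, c7, c8, c9, c10, c11⟩
    exact ⟨fun _ => c1, fun _ => c2, fun h => absurd h h701, fun _ => c4, fun _ => c5, fun _ => c6,
      fun _ => c7, fun _ => c8, fun _ => c9, fun _ => c10, fun _ => c11⟩

/-! ### open D-max -/

section open_dmax

open Crest.Agent.R138.Ex926
open Crest.Agent.R138.Mk163 (zc zl rho)
open Crest.Agent.R138.Dp76 (dpow_pos dpow_add)
open Crest.Agent.R138.L15 (prof_le)

open Classical in
/-- **a count on `I0` near every point gives a bound of the profile of the sample** -/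
theorem comb_dmax {m : ℕ} {B : Base} {I0 I : ℕ → Finset (ℕ × ℝ)} {lev : ℕ → ℚ → ℕ}
    {co : ∀ n : ℕ, ℕ × ℝ → ℕ × ℝ → Fin m → ℝ} {M : Mons m} {C R : ℝ} {N0 : ℕ → ℝ} {c₀ : ℝ}
    {ν : (Fin m → ℝ) → ℝ} (hc : CombQ B I0 I lev co M C R N0 c₀) (h0 : 0 ≤ C) (hR : 0 ≤ R)
    (hch : ∀ n, Chart (I0 n) (co n) M C) (hsub : ∀ n, I n ⊆ I0 n)
    (hne : ∀ᶠ n in (U : Filter ℕ), (I n).Nonempty)
    (hν : QProf B I (nlab B I0 co M C) (Leg M R) ν) {p : Fin m → ℝ} (hp : p ∈ Leg M R) {D' : ℝ}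
    (hD : ∀ K : ℝ, 1 ≤ K → ∀ ε : ℝ, 0 < ε → ∀ᶠ n in (U : Filter ℕ), ∀ x ∈ I0 n,
      (((I0 n).filter fun y => Near (co n) (B.d n) p K x y).card : ℝ) ≤
        N0 n * B.d n ^ (-(D' + ε))) : ν p ≤ c₀ + D' := by
  have hK0 : 1 ≤ cK0 M C := cK0_one h0
  have hhR : 1 ≤ triC M C (cK0 M C) := hK0.trans (triC_ge h0 hK0)
  obtain ⟨K, hK1, hK2, -⟩ := hc
  refine prof_le hν hne hp fun ε hε => ?_
  have hε3 : 0 < ε / 3 := by positivity
  filter_upwards [hK1 _ hε3, hK2, hD _ hhR _ hε3, B.ev_const_log (Real.log 16) hε3]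
    with n a1 a2 a3 a4 x hx
  have hKn : (0 : ℝ) < K n := by exact_mod_cast a1.1
  have b3 := a3 x (hsub n hx)
  have b4 := a2 (cls (I n) (nlab B I0 co M C n p) x) (cls_subset _ _ _)
    ((I0 n).filter fun y => Near (co n) (B.d n) p (triC M C (cK0 M C)) x y) (filter_subset _ _)
    (fun i hi j hj hc _ => by
      obtain ⟨hi1, hi2⟩ := mem_cls.1 hi
      rw [mem_filter]
      refine ⟨hj, ?_⟩
      have e1 := near_of_nlab hch hp.1 (hsub n hx) (hsub n hi1) hi2.symm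
      have e2 := near_of_nlab hch (top_Leg M hR).1 (hsub n hi1) hj hc.symm
      have e3 := e2.anti (B.pos n) (B.lt n).le (by linarith) (p := p) hp.2
      exact (hch n).tri hp.1 (B.pos n) (B.lt n).le hK0 (hsub n hx) (hsub n hi1) hj e1 e3)
  have b5 : (K n : ℝ) * ((cls (I n) (nlab B I0 co M C n p) x).card : ℝ) ≤
      16 * (N0 n * B.d n ^ (-(D' + ε / 3))) := by
    have h1 : (K n : ℝ) * ((cls (I n) (nlab B I0 co M C n p) x).card : ℝ) ≤
        16 * (((I0 n).filter fun y => Near (co n) (B.d n) p (triC M C (cK0 M C)) x y).card : ℝ) := by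
      exact_mod_cast b4
    exact h1.trans (mul_le_mul_of_nonneg_left b3 (by norm_num))
  have h16 : (16 : ℝ) ≤ B.d n ^ (-(ε / 3)) := by
    rw [← B.exp_eq, ← Real.log_le_iff_le_exp (by norm_num)]
    exact a4
  have hN := a1.2.1
  have b6 : (K n : ℝ) * ((cls (I n) (nlab B I0 co M C n p) x).card : ℝ) ≤
      K n * B.d n ^ (-(c₀ + D' + ε)) := by
    refine b5.trans ?_
    calc 16 * (N0 n * B.d n ^ (-(D' + ε / 3)))
        ≤ 16 * (K n * B.d n ^ (-(c₀ + ε / 3)) * B.d n ^ (-(D' + ε / 3))) := by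
          refine mul_le_mul_of_nonneg_left ?_ (by norm_num)
          exact mul_le_mul_of_nonneg_right hN (dpow_pos B n _).le
      _ ≤ B.d n ^ (-(ε / 3)) * (K n * B.d n ^ (-(c₀ + ε / 3)) * B.d n ^ (-(D' + ε / 3))) := by
          refine mul_le_mul_of_nonneg_right h16 ?_
          have := dpow_pos B n (-(c₀ + ε / 3))
          have := dpow_pos B n (-(D' + ε / 3))
          positivity
      _ = K n * (B.d n ^ (-(ε / 3)) * B.d n ^ (-(c₀ + ε / 3)) * B.d n ^ (-(D' + ε / 3))) := by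
          ring
      _ = K n * B.d n ^ (-(c₀ + D' + ε)) := by
          rw [← dpow_add, ← dpow_add]
          congr 2; ring
  exact le_of_mul_le_mul_left b6 hKn

variable {η : ℝ} {p : Par4} {D : Dat4} {I1 : ℕ → Finset (ℕ × ℝ)} {π : Equiv.Perm (Fin 3)}
  {eE fA fB : ℕ → ℕ × ℝ → ℝ} {V T : Fin 11 → Prop} {w0 R T0 : ℝ} {PD : Set (Fin 11 → ℝ)}
  {ν own : (Fin 11 → ℝ) → ℝ} {c₀ : ℝ}

theorem R_nonneg (h : Thick η p D I1 π eE fA fB V T w0 R T0 PD ν own c₀) : 0 ≤ R := by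
  have := h.tp.big.wR
  have := h.tp.big.w0pos
  linarith

open Classical in
/-- **open D-max** : any count on the marked family -/
theorem dmax_any (h : Thick η p D I1 π eE fA fB V T w0 R T0 PD ν own c₀) {x : Fin 11 → ℝ}
    (hx : x ∈ Leg monQ R) {D' : ℝ}
    (hD : ∀ K : ℝ, 1 ≤ K → ∀ ε : ℝ, 0 < ε → ∀ᶠ n in (U : Filter ℕ), ∀ i ∈ D.I n,
      (((D.I n).filter fun y => Near (couQ D.B D.lev D.w w0 (incQ π D.L eE fA fB) n) (D.B.d n) x K
        i y).card : ℝ) ≤ N0Q D.A D.vm n * D.B.d n ^ (-(D' + ε))) : ν x ≤ c₀ + D' :=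
  comb_dmax h.comb (by norm_num) (R_nonneg h) h.ext.chart h.ext.sub h.ext.ne h.ext.prof hx hD

/-- D-max on 186's set -/
theorem dmax_PDQ (h : Thick η p D I1 π eE fA fB V T w0 R T0 PD ν own c₀) {x : Fin 11 → ℝ}
    (hq : ∀ j, 0 ≤ p.q j) (hx : x ∈ GeoQ186.PDQ D.B D.r0 D.lev D.w w0 R) :
    ν x ≤ c₀ + DQ p.g 0 p.q w0 x :=
  dmax_any h hx.1 (GeoQ186.gD_couQ h.tp.pre.mka h.tp.wrs hq (fun n y hy => (h.tp.flag n y hy).1)
    (fun n y hy => (h.tp.flag n y hy).2.1) (fun n y hy => (h.tp.flag n y hy).2.2) x hx)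

end open_dmax

/-! ### values of the profile -/

section val

variable {η : ℝ} {p : Par4} {D : Dat4} {I1 : ℕ → Finset (ℕ × ℝ)} {π : Equiv.Perm (Fin 3)}
  {eE fA fB : ℕ → ℕ × ℝ → ℝ} {V T : Fin 11 → Prop} {w0 R T0 : ℝ} {PD : Set (Fin 11 → ℝ)}
  {ν own : (Fin 11 → ℝ) → ℝ} {c₀ : ℝ}

/-- exponent of D-max of a natural box, `s = 0` -/
def DN (p : Par4) (v t1 t2 t3 : ℝ) : ℝ :=
  p.g * v + (1 - v) - (v + t3) - (v + t2) - (v + t1) - p.q 0 * t3 - p.q 1 * t1 - p.q 2 * t2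

theorem DQ_DN (p : Par4) (w0 R v t1 t2 t3 : ℝ) :
    DQ p.g 0 p.q w0 (nat4 w0 R v t1 t2 t3) = DN p v t1 t2 t3 := by
  rw [DQ_nat4]
  unfold DN
  ring

/-- **D-max of a natural box** -/
theorem nat_dmax (h : Thick η p D I1 π eE fA fB V T w0 R T0 PD ν own c₀) {R1 v t1 t2 t3 : ℝ}
    (hp : nat4 w0 R1 v t1 t2 t3 ∈ Leg monQ R) (h0 : 0 ≤ v) (h1 : v ≤ 1) (ht : -p.θ 1 < t1)
    (hab : min 0 (p.θ 1 - p.θ 2) ≤ t2 - t1) (hby : min 0 (p.θ 2 - p.θ 0) ≤ t3 - t2)
    (hr : v + t3 ≤ max 0 (1 - p.θ 0)) :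
    ν (nat4 w0 R1 v t1 t2 t3) ≤ c₀ + DN p v t1 t2 t3 := by
  rw [← DQ_DN p w0 R1]
  exact h.ext.dmax _ (h.tp.pd (nat4_PDlin hp h0 h1 ht hab hby hr))

/-- the record box with the slot `1` at `R1` -/
theorem rec_leg (h : Thick η p D I1 π eE fA fB V T w0 R T0 PD ν own c₀) {R1 v : ℝ}
    (hR : R1 ≤ R) (hR1 : 2 * w0 + T0 ≤ R1) (h0 : 0 ≤ v) (h1 : v ≤ 1) :
    nat4 w0 R1 v (-(p.θ 1 * v)) (-(p.θ 2 * v)) (-(p.θ 0 * v)) ∈ Leg monQ R := by
  have hb := h.tp.big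
  have hw := hb.w0pos
  have hT := hb.T0
  have hL := hb.path_leg h0 h1
  rw [pathQ_nat] at hL
  obtain ⟨hl, hR'⟩ := hL
  have b0 := hb.bd h0 h1 0
  refine ⟨legalQ_iff.2 ⟨fun k => ?_, ?_⟩, fun k => ?_⟩
  · by_cases hk : k = 1
    · subst hk
      show (0:ℝ) ≤ R1
      linarith
    · have := hl.nonneg k
      fin_cases k <;> first | exact absurd rfl hk | exact this
  · obtain ⟨-, a1, a2, a3, a4, a5, a6, a7, a8, a9, a10, a11⟩ := legalQ_iff.1 hl
    refine ⟨a1, a2, ?_, a4, a5, a6, a7, a8, a9, a10, a11⟩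
    show 3 * w0 + -(p.θ 0 * v) ≤ w0 + v + R1
    linarith [b0.1, b0.2]
  · by_cases hk : k = 1
    · subst hk; exact hR
    · have := hR' k
      fin_cases k <;> first | exact absurd rfl hk | exact this

/-- **the record line**: lower bound -/
theorem rec_ge (h : Thick η p D I1 π eE fA fB V T w0 R T0 PD ν own c₀) {R1 v : ℝ}
    (hR : R1 ≤ R) (hR1 : 2 * w0 + T0 ≤ R1) (h0 : 0 ≤ v) (h1 : v ≤ 1) :
    c₀ + DN p v (-(p.θ 1 * v)) (-(p.θ 2 * v)) (-(p.θ 0 * v)) ≤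
      ν (nat4 w0 R1 v (-(p.θ 1 * v)) (-(p.θ 2 * v)) (-(p.θ 0 * v))) := by
  have hl := rec_leg h hR hR1 h0 h1
  have hL := h.tp.big.path_leg h0 h1
  have h2 := h.ext.record v h0 h1
  unfold EQ at h2
  rw [pathQ_nat, DQ_DN] at h2
  rw [pathQ_nat] at hL
  have h3 := (h.ext.lip _ hl _ hL (fun k => by
    fin_cases k <;> first | exact le_rfl | exact hR)).1
  linarith

/-- **the record line** -/
theorem rec_eq (h : Thick η p D I1 π eE fA fB V T w0 R T0 PD ν own c₀) {R1 v : ℝ}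
    (hR : R1 ≤ R) (hR1 : 2 * w0 + T0 ≤ R1) (h0 : 0 ≤ v) (h1 : v < 1) :
    ν (nat4 w0 R1 v (-(p.θ 1 * v)) (-(p.θ 2 * v)) (-(p.θ 0 * v))) =
      c₀ + DN p v (-(p.θ 1 * v)) (-(p.θ 2 * v)) (-(p.θ 0 * v)) := by
  refine le_antisymm ?_ (rec_ge h hR hR1 h0 h1.le)
  have hθ := h.tp.ok.θ1
  have key : ∀ x : ℝ, min 0 x ≤ x * v := by
    intro x
    rcases le_total 0 x with hx | hx
    · rw [min_eq_left hx]; positivity
    · rw [min_eq_right hx]; nlinarith
  refine nat_dmax h (rec_leg h hR hR1 h0 h1.le) h0 h1.le ?_ ?_ ?_ ?_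
  · nlinarith
  · have := key (p.θ 1 - p.θ 2); linarith
  · have := key (p.θ 2 - p.θ 0); linarith
  · rcases le_total 0 (1 - p.θ 0) with hx | hx
    · rw [max_eq_right hx]; nlinarith
    · rw [max_eq_left hx]; nlinarith

/-- the rewards are nonnegative -/
theorem q_nonneg (h : ParOk η p) (hη : 0 < η) : ∀ j, 0 ≤ p.q j := by
  intro j
  fin_cases j
  · exact h.q0.1
  · exact h.g0.2.le
  · exact h.q2.1.le

/-- visible = tied for 21 and 32 -/
theorem slot_T {θ : Fin 3 → ℝ} (h : SlotOk θ V T) {k : Fin 11} (hk : V k) (h4 : k ≠ 4) : T k := by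
  by_contra hT
  exact h4 (h.cap k hk hT).1

end val

end Crest.Agent.R136.NatR550
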