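import Crest.Agent.R136.C2b_355
import Crest.Agent.R136.C2w_400
import Crest.Agent.R136.NatR_550

/-!
# R136, case (C2), F-half, part 3 (helper355): from the models to the slope

* `dec_slot` : the loss of a slot depends only on its own group (219's `OutS`);
* `lam_Tn` : the profile along the plane;
* `C2D` : tangent of the plane `v * nL 1 0 0 κ + t * nL 0 1 σ σ` together with the natural window
  model `NM` and two sweeps;
* `C2D.xa`, `C2D.xb` : `X_a`, `X_b` are full; `C2D.slope` : `κ ≠ 1`: the slope is `≤ -(4 + κ)`.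
-/

set_option autoImplicit false
set_option linter.unusedVariables false
set_option linter.unusedSectionVars false

open Filter Topology Finset

namespace Crest.Agent.R136.C2355

open Crest.Agent.R138.Ex926 (Base U)
open Crest.Agent.R136.Gf356
open Crest.Agent.R136.Fe1355
open Crest.Agent.R136.Dg219
open Crest.Agent.R136.NatR550 (coneN nL)

section gen

variable {m : ℕ} {L : Set (Fin m → ℝ)} {lam : (Fin m → ℝ) → ℝ} {A : ℝ × ℝ}
  {φ : ℕ → (Fin m → ℝ) → ℝ} {r : ℕ → ℝ}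

/-- **the loss of a slot depends only on its own group** -/
theorem dec_slot {grp : Fin m → ℕ} {dh : Fin m → ℝ} {nn : ℕ → ℝ × ℝ}
    (h : OutS grp L dh nn lam A φ r) (s : Fin m) {c c' d d' : Fin m → ℝ} (hc : c ∈ L)
    (hc' : c' ∈ L) (hd : d ∈ L) (hd' : d' ∈ L) (h1 : ∀ i, i ≠ s → c i = c' i)
    (h2 : ∀ i, i ≠ s → d i = d' i) (h3 : ∀ i, c i = d i ∨ grp i ≠ grp s) (h4 : c' s = d' s) :
    lam c - lam c' = lam d - lam d' := by
  rw [h.sum _ hc, h.sum _ hc', h.sum _ hd, h.sum _ hd', ← sum_sub_distrib, ← sum_sub_distrib]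
  refine sum_congr rfl fun k hk => ?_
  by_cases hks : k = grp s
  · subst hks
    have e1 : φ (grp s) c = φ (grp s) d := h.loc _ _ _ fun i hi =>
      (h3 i).resolve_right (fun hne => hne hi)
    have e2 : φ (grp s) c' = φ (grp s) d' := h.loc _ _ _ fun i hi => by
      by_cases his : i = s
      · subst his; exact h4
      · rw [← h1 i his, ← h2 i his]; exact (h3 i).resolve_right (fun hne => hne hi)
    rw [e1, e2]
  · have e1 : φ k c = φ k c' := h.loc _ _ _ fun i hi => h1 i (by rintro rfl; exact hks hi.symm)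
    have e2 : φ k d = φ k d' := h.loc _ _ _ fun i hi => h2 i (by rintro rfl; exact hks hi.symm)
    rw [e1, e2, sub_self, sub_self]

/-- **the profile along the plane** -/
theorem lam_Tn {a b : Fin m → ℝ} (h : OutS (gC a b) L (dhC a b) (nC a b) lam A φ r) {z : ℝ × ℝ}
    (hz : Tn a b z ∈ L) : lam (Tn a b z) = lf A z := by
  rw [h.sum _ hz, h.total z, ← sum_neg_distrib]
  refine sum_congr rfl fun k hk => ?_
  exact h.rate k _ hz (lf (nC a b k) z) fun i hi => by rw [dirC.Tn_eq, hi]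

end gen

/-! ### groups of the plane -/

section grp

variable {κ σ : ℝ}

theorem nL_a : nL 1 0 0 κ = ![1, 0, 0, κ, κ, 0, 0, κ, 1, 1, 1 + κ] := by
  unfold nL; simp

theorem nL_b : nL 0 1 σ σ = ![0, 0, σ - 1, 0, σ - 1, 1, σ, σ, 1, σ, σ] := by
  unfold nL; simp

/-- groups of the natural plane of (C2) -/
structure Gr (κ σ : ℝ) (g : Fin 11 → ℕ) : Prop where
  z1 : g 1 = 0
  z2 : g 2 = 0
  z5 : g 5 = 0
  z6 : g 6 = 0
  n0 : g 0 ≠ 0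
  n3 : g 3 ≠ 0
  n4 : g 4 ≠ 0
  n7 : g 7 ≠ 0
  n8 : g 8 ≠ 0
  n9 : g 9 ≠ 0
  n10 : g 10 ≠ 0
  e03 : g 0 = g 3
  n04 : g 0 ≠ g 4
  n07 : g 0 ≠ g 7
  n08 : g 0 ≠ g 8
  n09 : g 0 ≠ g 9
  n010 : g 0 ≠ g 10
  n89 : g 8 ≠ g 9
  n910 : g 9 ≠ g 10
  n79 : κ ≠ 1 → g 7 ≠ g 9
  n49 : σ * (1 - κ) ≠ 1 → g 4 ≠ g 9
  n410 : σ ≠ 1 + κ → g 4 ≠ g 10
  n710 : g 7 ≠ g 10
  n810 : σ ≠ 1 + κ → g 8 ≠ g 10

theorem gr (hκ : 0 < κ) (hσ : σ ≠ 0) (hσ1 : σ ≠ 1) :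
    Gr κ σ (gC (nL 1 0 0 κ) (nL 0 1 σ σ)) := by
  rw [nL_a, nL_b]
  set a : Fin 11 → ℝ := ![1, 0, 0, κ, κ, 0, 0, κ, 1, 1, 1 + κ] with ha
  set b : Fin 11 → ℝ := ![0, 0, σ - 1, 0, σ - 1, 1, σ, σ, 1, σ, σ] with hb
  have hκ0 := hκ.ne'
  have hκ1 : (1 : ℝ) + κ ≠ 0 := by positivity
  have a0 : a 0 ≠ 0 := by simp [ha]
  have a3 : a 3 ≠ 0 := by simp [ha, hκ0]
  have a4 : a 4 ≠ 0 := by simp [ha, hκ0]
  have a7 : a 7 ≠ 0 := by simp [ha, hκ0]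
  have a8 : a 8 ≠ 0 := by simp [ha]
  have a9 : a 9 ≠ 0 := by simp [ha]
  have a10 : a 10 ≠ 0 := by simp [ha, hκ1]
  have hσ1' : σ - 1 ≠ 0 := sub_ne_zero.2 hσ1
  refine ⟨gC_zero.2 (by simp [ha]), gC_zero.2 (by simp [ha]), gC_zero.2 (by simp [ha]),
    gC_zero.2 (by simp [ha]), fun e => a0 (gC_zero.1 e), fun e => a3 (gC_zero.1 e),
    fun e => a4 (gC_zero.1 e), fun e => a7 (gC_zero.1 e), fun e => a8 (gC_zero.1 e),
    fun e => a9 (gC_zero.1 e), fun e => a10 (gC_zero.1 e), ?_, ?_, ?_, ?_, ?_, ?_, ?_, ?_, ?_, ?_,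
    ?_, ?_, ?_⟩
  · rw [gC_eq a0 a3]; simp [ha, hb]
  · rw [Ne, gC_eq a0 a4]
    simp only [ha, hb, Matrix.cons_val]
    intro e
    rw [zero_div, eq_comm, div_eq_zero_iff] at e
    exact e.elim hσ1' hκ0
  · rw [Ne, gC_eq a0 a7]
    simp only [ha, hb, Matrix.cons_val]
    intro e
    rw [zero_div, eq_comm, div_eq_zero_iff] at e
    exact e.elim hσ hκ0
  · rw [Ne, gC_eq a0 a8]; simp [ha, hb]
  · rw [Ne, gC_eq a0 a9]
    simp only [ha, hb, Matrix.cons_val]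
    intro e
    rw [zero_div, div_one] at e
    exact hσ e.symm
  · rw [Ne, gC_eq a0 a10]
    simp only [ha, hb, Matrix.cons_val]
    intro e
    rw [zero_div, eq_comm, div_eq_zero_iff] at e
    exact e.elim hσ hκ1
  · rw [Ne, gC_eq a8 a9]
    simp only [ha, hb, Matrix.cons_val]
    intro e
    rw [div_one, div_one] at e
    exact hσ1 e.symm
  · rw [Ne, gC_eq a9 a10]
    simp only [ha, hb, Matrix.cons_val]
    intro e
    rw [div_eq_div_iff one_ne_zero hκ1] at e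
    have : σ * κ = 0 := by linarith
    rcases mul_eq_zero.1 this with h | h
    · exact hσ h
    · exact hκ0 h
  · intro h1
    rw [Ne, gC_eq a7 a9]
    simp only [ha, hb, Matrix.cons_val]
    intro e
    rw [div_eq_div_iff hκ0 one_ne_zero] at e
    have : σ * (1 - κ) = 0 := by linarith
    rcases mul_eq_zero.1 this with h | h
    · exact hσ h
    · exact h1 (by linarith)
  · intro h1
    rw [Ne, gC_eq a4 a9]
    simp only [ha, hb, Matrix.cons_val]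
    intro e
    rw [div_eq_div_iff hκ0 one_ne_zero] at e
    exact h1 (by linarith)
  · intro h1
    rw [Ne, gC_eq a4 a10]
    simp only [ha, hb, Matrix.cons_val]
    intro e
    rw [div_eq_div_iff hκ0 hκ1] at e
    exact h1 (by nlinarith)
  · rw [Ne, gC_eq a7 a10]
    simp only [ha, hb, Matrix.cons_val]
    intro e
    rw [div_eq_div_iff hκ0 hκ1] at e
    exact hσ (by linarith)
  · intro h1
    rw [Ne, gC_eq a8 a10]
    simp only [ha, hb, Matrix.cons_val]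
    intro e
    rw [div_eq_div_iff one_ne_zero hκ1] at e
    exact h1 (by linarith)

end grp

/-! ### vectors -/

/-- all slots but the first one (`z`, `F_b`, `E`, `F_a`, `C_a`, `C_b`, `P`, `X_a`, `X_b`, `N`) -/
def v11 (z fb e fa ca cb p xa xb n : ℝ) : Fin 11 → ℝ := ![z, 0, e, fb, fa, ca, cb, p, xa, xb, n]

theorem v11_mem {z fb e fa ca cb p xa xb n : ℝ} (h1 : fa ≤ e + fb) (h2 : cb ≤ e + ca)
    (h3 : p ≤ fa + ca) (h4 : p ≤ fb + cb) (h5 : xa ≤ z + ca) (h6 : xb ≤ z + cb)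
    (h7 : xb ≤ e + xa) (h8 : n ≤ z + p) (h9 : n ≤ fa + xa) (h10 : n ≤ fb + xb) :
    v11 z fb e fa ca cb p xa xb n ∈ coneN :=
  ⟨h1, h2, h3, h4, h5, h6, h7, h8, h9, h10⟩

theorem v11_zero : v11 0 0 0 0 0 0 0 0 0 0 = 0 := by
  funext i; fin_cases i <;> simp [v11]

theorem v11_5 (x : ℝ) : (Pi.single 5 x : Fin 11 → ℝ) = v11 0 0 0 0 x 0 0 0 0 0 := by
  funext i; fin_cases i <;> simp [v11]

theorem v11_2 (x : ℝ) : (Pi.single 2 x : Fin 11 → ℝ) = v11 0 0 x 0 0 0 0 0 0 0 := by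
  funext i; fin_cases i <;> simp [v11]

theorem v11_26 (x : ℝ) : (Pi.single 2 x + Pi.single 6 x : Fin 11 → ℝ) =
    v11 0 0 x 0 0 x 0 0 0 0 := by
  funext i; fin_cases i <;> simp [v11]

theorem v11_0 (x : ℝ) : (Pi.single 0 x : Fin 11 → ℝ) = v11 x 0 0 0 0 0 0 0 0 0 := by
  funext i; fin_cases i <;> simp [v11]

theorem m_zero : (0 : Fin 11 → ℝ) ∈ coneN := by
  rw [← v11_zero]; apply v11_mem <;> linarith

theorem m_5 {x : ℝ} (hx : 0 ≤ x) : (Pi.single 5 x : Fin 11 → ℝ) ∈ coneN := by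
  rw [v11_5]; apply v11_mem <;> linarith

theorem m_2 {x : ℝ} (hx : 0 ≤ x) : (Pi.single 2 x : Fin 11 → ℝ) ∈ coneN := by
  rw [v11_2]; apply v11_mem <;> linarith

theorem m_26 {x : ℝ} (hx : 0 ≤ x) : (Pi.single 2 x + Pi.single 6 x : Fin 11 → ℝ) ∈ coneN := by
  rw [v11_26]; apply v11_mem <;> linarith

theorem m_0 {x : ℝ} (hx : 0 ≤ x) : (Pi.single 0 x : Fin 11 → ℝ) ∈ coneN := by
  rw [v11_0]; apply v11_mem <;> linarith

theorem v11_le {z fb e fa ca cb p xa xb n z' fb' e' fa' ca' cb' p' xa' xb' n' : ℝ}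
    (h0 : z ≤ z') (h3 : fb ≤ fb') (h2 : e ≤ e') (h4 : fa ≤ fa') (h5 : ca ≤ ca') (h6 : cb ≤ cb')
    (h7 : p ≤ p') (h8 : xa ≤ xa') (h9 : xb ≤ xb') (h10 : n ≤ n') :
    v11 z fb e fa ca cb p xa xb n ≤ v11 z' fb' e' fa' ca' cb' p' xa' xb' n' := by
  intro i; fin_cases i <;> simp [v11] <;> assumption

theorem v11_Tn (κ σ u : ℝ) : Tn (nL 1 0 0 κ) (nL 0 1 σ σ) (u, 0) =
    v11 u (κ * u) 0 (κ * u) 0 0 (κ * u) u u ((1 + κ) * u) := by
  rw [nL_a, nL_b]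
  funext i; fin_cases i <;> simp [v11, Tn]

/-! ### losses of the slots of `v11` -/

section dec

variable {κ σ : ℝ} {lam : (Fin 11 → ℝ) → ℝ} {A : ℝ × ℝ} {φ : ℕ → (Fin 11 → ℝ) → ℝ} {r : ℕ → ℝ}

theorem ne0 {z fb e fa ca cb p xa xb n z' : ℝ} : ∀ i, i ≠ 0 →
    v11 z fb e fa ca cb p xa xb n i = v11 z' fb e fa ca cb p xa xb n i := by
  intro i hi; fin_cases i <;> simp [v11] at hi ⊢

theorem ne3 {z fb e fa ca cb p xa xb n fb' : ℝ} : ∀ i, i ≠ 3 →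
    v11 z fb e fa ca cb p xa xb n i = v11 z fb' e fa ca cb p xa xb n i := by
  intro i hi; fin_cases i <;> simp [v11] at hi ⊢

theorem ne2 {z fb e fa ca cb p xa xb n e' : ℝ} : ∀ i, i ≠ 2 →
    v11 z fb e fa ca cb p xa xb n i = v11 z fb e' fa ca cb p xa xb n i := by
  intro i hi; fin_cases i <;> simp [v11] at hi ⊢

theorem ne4 {z fb e fa ca cb p xa xb n fa' : ℝ} : ∀ i, i ≠ 4 →
    v11 z fb e fa ca cb p xa xb n i = v11 z fb e fa' ca cb p xa xb n i := by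
  intro i hi; fin_cases i <;> simp [v11] at hi ⊢

theorem ne5 {z fb e fa ca cb p xa xb n ca' : ℝ} : ∀ i, i ≠ 5 →
    v11 z fb e fa ca cb p xa xb n i = v11 z fb e fa ca' cb p xa xb n i := by
  intro i hi; fin_cases i <;> simp [v11] at hi ⊢

theorem ne6 {z fb e fa ca cb p xa xb n cb' : ℝ} : ∀ i, i ≠ 6 →
    v11 z fb e fa ca cb p xa xb n i = v11 z fb e fa ca cb' p xa xb n i := by
  intro i hi; fin_cases i <;> simp [v11] at hi ⊢

theorem ne7 {z fb e fa ca cb p xa xb n p' : ℝ} : ∀ i, i ≠ 7 →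
    v11 z fb e fa ca cb p xa xb n i = v11 z fb e fa ca cb p' xa xb n i := by
  intro i hi; fin_cases i <;> simp [v11] at hi ⊢

theorem ne8 {z fb e fa ca cb p xa xb n xa' : ℝ} : ∀ i, i ≠ 8 →
    v11 z fb e fa ca cb p xa xb n i = v11 z fb e fa ca cb p xa' xb n i := by
  intro i hi; fin_cases i <;> simp [v11] at hi ⊢

theorem ne9 {z fb e fa ca cb p xa xb n xb' : ℝ} : ∀ i, i ≠ 9 →
    v11 z fb e fa ca cb p xa xb n i = v11 z fb e fa ca cb p xa xb' n i := by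
  intro i hi; fin_cases i <;> simp [v11] at hi ⊢

theorem ne10 {z fb e fa ca cb p xa xb n n' : ℝ} : ∀ i, i ≠ 10 →
    v11 z fb e fa ca cb p xa xb n i = v11 z fb e fa ca cb p xa xb n' i := by
  intro i hi; fin_cases i <;> simp [v11] at hi ⊢

theorem dec5 {grp : Fin 11 → ℕ} (g : Gr κ σ grp) {dh : Fin 11 → ℝ} {nn : ℕ → ℝ × ℝ}
    (h : OutS grp coneN dh nn lam A φ r)
    {z fb e fa ca cb p xa xb n ca' z2 fb2 fa2 p2 xa2 xb2 n2 : ℝ}
    (m1 : v11 z fb e fa ca cb p xa xb n ∈ coneN) (m2 : v11 z fb e fa ca' cb p xa xb n ∈ coneN)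
    (m3 : v11 z2 fb2 e fa2 ca cb p2 xa2 xb2 n2 ∈ coneN)
    (m4 : v11 z2 fb2 e fa2 ca' cb p2 xa2 xb2 n2 ∈ coneN) :
    lam (v11 z fb e fa ca cb p xa xb n) - lam (v11 z fb e fa ca' cb p xa xb n) =
      lam (v11 z2 fb2 e fa2 ca cb p2 xa2 xb2 n2) -
        lam (v11 z2 fb2 e fa2 ca' cb p2 xa2 xb2 n2) := by
  have f0 : grp 0 ≠ grp 5 := fun e => g.n0 (e.trans g.z5)
  have f3 : grp 3 ≠ grp 5 := fun e => g.n3 (e.trans g.z5)
  have f4 : grp 4 ≠ grp 5 := fun e => g.n4 (e.trans g.z5)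
  have f7 : grp 7 ≠ grp 5 := fun e => g.n7 (e.trans g.z5)
  have f8 : grp 8 ≠ grp 5 := fun e => g.n8 (e.trans g.z5)
  have f9 : grp 9 ≠ grp 5 := fun e => g.n9 (e.trans g.z5)
  have f10 : grp 10 ≠ grp 5 := fun e => g.n10 (e.trans g.z5)
  refine dec_slot h 5 m1 m2 m3 m4 ne5 ne5 ?_ (by simp [v11])
  intro i
  fin_cases i <;> simp [v11, f0, f3, f4, f7, f8, f9, f10]

theorem dec2 {grp : Fin 11 → ℕ} (g : Gr κ σ grp) {dh : Fin 11 → ℝ} {nn : ℕ → ℝ × ℝ}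
    (h : OutS grp coneN dh nn lam A φ r)
    {z fb e fa ca cb p xa xb n e' z2 fb2 fa2 p2 xa2 xb2 n2 : ℝ}
    (m1 : v11 z fb e fa ca cb p xa xb n ∈ coneN) (m2 : v11 z fb e' fa ca cb p xa xb n ∈ coneN)
    (m3 : v11 z2 fb2 e fa2 ca cb p2 xa2 xb2 n2 ∈ coneN)
    (m4 : v11 z2 fb2 e' fa2 ca cb p2 xa2 xb2 n2 ∈ coneN) :
    lam (v11 z fb e fa ca cb p xa xb n) - lam (v11 z fb e' fa ca cb p xa xb n) =
      lam (v11 z2 fb2 e fa2 ca cb p2 xa2 xb2 n2) -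
        lam (v11 z2 fb2 e' fa2 ca cb p2 xa2 xb2 n2) := by
  have f0 : grp 0 ≠ grp 2 := fun e => g.n0 (e.trans g.z2)
  have f3 : grp 3 ≠ grp 2 := fun e => g.n3 (e.trans g.z2)
  have f4 : grp 4 ≠ grp 2 := fun e => g.n4 (e.trans g.z2)
  have f7 : grp 7 ≠ grp 2 := fun e => g.n7 (e.trans g.z2)
  have f8 : grp 8 ≠ grp 2 := fun e => g.n8 (e.trans g.z2)
  have f9 : grp 9 ≠ grp 2 := fun e => g.n9 (e.trans g.z2)
  have f10 : grp 10 ≠ grp 2 := fun e => g.n10 (e.trans g.z2)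
  refine dec_slot h 2 m1 m2 m3 m4 ne2 ne2 ?_ (by simp [v11])
  intro i
  fin_cases i <;> simp [v11, f0, f3, f4, f7, f8, f9, f10]

theorem dec6 {grp : Fin 11 → ℕ} (g : Gr κ σ grp) {dh : Fin 11 → ℝ} {nn : ℕ → ℝ × ℝ}
    (h : OutS grp coneN dh nn lam A φ r)
    {z fb e fa ca cb p xa xb n cb' z2 fb2 fa2 p2 xa2 xb2 n2 : ℝ}
    (m1 : v11 z fb e fa ca cb p xa xb n ∈ coneN) (m2 : v11 z fb e fa ca cb' p xa xb n ∈ coneN)
    (m3 : v11 z2 fb2 e fa2 ca cb p2 xa2 xb2 n2 ∈ coneN)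
    (m4 : v11 z2 fb2 e fa2 ca cb' p2 xa2 xb2 n2 ∈ coneN) :
    lam (v11 z fb e fa ca cb p xa xb n) - lam (v11 z fb e fa ca cb' p xa xb n) =
      lam (v11 z2 fb2 e fa2 ca cb p2 xa2 xb2 n2) -
        lam (v11 z2 fb2 e fa2 ca cb' p2 xa2 xb2 n2) := by
  have f0 : grp 0 ≠ grp 6 := fun e => g.n0 (e.trans g.z6)
  have f3 : grp 3 ≠ grp 6 := fun e => g.n3 (e.trans g.z6)
  have f4 : grp 4 ≠ grp 6 := fun e => g.n4 (e.trans g.z6)
  have f7 : grp 7 ≠ grp 6 := fun e => g.n7 (e.trans g.z6)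
  have f8 : grp 8 ≠ grp 6 := fun e => g.n8 (e.trans g.z6)
  have f9 : grp 9 ≠ grp 6 := fun e => g.n9 (e.trans g.z6)
  have f10 : grp 10 ≠ grp 6 := fun e => g.n10 (e.trans g.z6)
  refine dec_slot h 6 m1 m2 m3 m4 ne6 ne6 ?_ (by simp [v11])
  intro i
  fin_cases i <;> simp [v11, f0, f3, f4, f7, f8, f9, f10]

theorem dec8 {grp : Fin 11 → ℕ} (g : Gr κ σ grp) {dh : Fin 11 → ℝ} {nn : ℕ → ℝ × ℝ}
    (h : OutS grp coneN dh nn lam A φ r)
    {z fb e fa ca cb p xa xb n xa' z2 fb2 e2 ca2 cb2 xb2 : ℝ}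
    (m1 : v11 z fb e fa ca cb p xa xb n ∈ coneN) (m2 : v11 z fb e fa ca cb p xa' xb n ∈ coneN)
    (m3 : v11 z2 fb2 e2 fa ca2 cb2 p xa xb2 n ∈ coneN)
    (m4 : v11 z2 fb2 e2 fa ca2 cb2 p xa' xb2 n ∈ coneN) :
    lam (v11 z fb e fa ca cb p xa xb n) - lam (v11 z fb e fa ca cb p xa' xb n) =
      lam (v11 z2 fb2 e2 fa ca2 cb2 p xa xb2 n) -
        lam (v11 z2 fb2 e2 fa ca2 cb2 p xa' xb2 n) := by
  have f0 : grp 0 ≠ grp 8 := g.n08
  have f3 : grp 3 ≠ grp 8 := fun e => g.n08 (g.e03.trans e)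
  have f2 : grp 2 ≠ grp 8 := fun e => g.n8 (e.symm.trans g.z2)
  have f5 : grp 5 ≠ grp 8 := fun e => g.n8 (e.symm.trans g.z5)
  have f6 : grp 6 ≠ grp 8 := fun e => g.n8 (e.symm.trans g.z6)
  have f9 : grp 9 ≠ grp 8 := fun e => g.n89 e.symm
  refine dec_slot h 8 m1 m2 m3 m4 ne8 ne8 ?_ (by simp [v11])
  intro i
  fin_cases i <;> simp [v11, f0, f3, f2, f5, f6, f9]

theorem dec9 {grp : Fin 11 → ℕ} (g : Gr κ σ grp) {dh : Fin 11 → ℝ} {nn : ℕ → ℝ × ℝ}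
    (h : OutS grp coneN dh nn lam A φ r)
    {z fb e fa ca cb p xa xb n xb' z2 fb2 e2 fa2 ca2 cb2 p2 xa2 n2 : ℝ}
    (m1 : v11 z fb e fa ca cb p xa xb n ∈ coneN) (m2 : v11 z fb e fa ca cb p xa xb' n ∈ coneN)
    (m3 : v11 z2 fb2 e2 fa2 ca2 cb2 p2 xa2 xb n2 ∈ coneN)
    (m4 : v11 z2 fb2 e2 fa2 ca2 cb2 p2 xa2 xb' n2 ∈ coneN)
    (hfa : fa = fa2 ∨ grp 4 ≠ grp 9)
    (hp : p = p2 ∨ grp 7 ≠ grp 9) :
    lam (v11 z fb e fa ca cb p xa xb n) - lam (v11 z fb e fa ca cb p xa xb' n) =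
      lam (v11 z2 fb2 e2 fa2 ca2 cb2 p2 xa2 xb n2) -
        lam (v11 z2 fb2 e2 fa2 ca2 cb2 p2 xa2 xb' n2) := by
  have f0 : grp 0 ≠ grp 9 := g.n09
  have f3 : grp 3 ≠ grp 9 := fun e => g.n09 (g.e03.trans e)
  have f2 : grp 2 ≠ grp 9 := fun e => g.n9 (e.symm.trans g.z2)
  have f5 : grp 5 ≠ grp 9 := fun e => g.n9 (e.symm.trans g.z5)
  have f6 : grp 6 ≠ grp 9 := fun e => g.n9 (e.symm.trans g.z6)
  have f8 : grp 8 ≠ grp 9 := g.n89
  have f10 : grp 10 ≠ grp 9 := fun e => g.n910 e.symm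
  refine dec_slot h 9 m1 m2 m3 m4 ne9 ne9 ?_ (by simp [v11])
  intro i
  fin_cases i <;> simp [v11, f0, f3, f2, f5, f6, f8, f10]
  · exact hfa
  · exact hp

theorem dec10 {grp : Fin 11 → ℕ} (g : Gr κ σ grp) {dh : Fin 11 → ℝ} {nn : ℕ → ℝ × ℝ}
    (h : OutS grp coneN dh nn lam A φ r)
    {z fb e fa ca cb p xa xb n n' z2 fb2 e2 fa2 ca2 cb2 p2 xa2 xb2 : ℝ}
    (m1 : v11 z fb e fa ca cb p xa xb n ∈ coneN) (m2 : v11 z fb e fa ca cb p xa xb n' ∈ coneN)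
    (m3 : v11 z2 fb2 e2 fa2 ca2 cb2 p2 xa2 xb2 n ∈ coneN)
    (m4 : v11 z2 fb2 e2 fa2 ca2 cb2 p2 xa2 xb2 n' ∈ coneN)
    (hfa : fa = fa2 ∨ grp 4 ≠ grp 10)
    (hxa : xa = xa2 ∨ grp 8 ≠ grp 10) :
    lam (v11 z fb e fa ca cb p xa xb n) - lam (v11 z fb e fa ca cb p xa xb n') =
      lam (v11 z2 fb2 e2 fa2 ca2 cb2 p2 xa2 xb2 n) -
        lam (v11 z2 fb2 e2 fa2 ca2 cb2 p2 xa2 xb2 n') := by
  have f0 : grp 0 ≠ grp 10 := g.n010
  have f3 : grp 3 ≠ grp 10 := fun e => g.n010 (g.e03.trans e)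
  have f2 : grp 2 ≠ grp 10 := fun e => g.n10 (e.symm.trans g.z2)
  have f5 : grp 5 ≠ grp 10 := fun e => g.n10 (e.symm.trans g.z5)
  have f6 : grp 6 ≠ grp 10 := fun e => g.n10 (e.symm.trans g.z6)
  have f7 : grp 7 ≠ grp 10 := g.n710
  have f9 : grp 9 ≠ grp 10 := g.n910
  refine dec_slot h 10 m1 m2 m3 m4 ne10 ne10 ?_ (by simp [v11])
  intro i
  fin_cases i <;> simp [v11, f0, f3, f2, f5, f6, f7, f9]
  · exact hfa
  · exact hxa

end dec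

end Crest.Agent.R136.C2355
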