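import Crest.Agent.R136.C2c_355

/-!
# R136, case (C2), F-half, part 4 (helper355): the slope for `κ ≠ 1`

* `C2D` : tangent of the plane `v * nL 1 0 0 κ + t * nL 0 1 σ σ` together with the natural window
  model `NM` and two sweeps;
* `C2D.xa`, `C2D.xb` : `X_a`, `X_b` are full; `C2D.slope` : `κ ≠ 1`: the slope is `≤ -(4 + κ)`;
* `c2d_of_aew`, `c2_ne` : from helper413's `AeW`.
-/

set_option autoImplicit false
set_option linter.unusedVariables false
set_option linter.unusedSectionVars false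

open Filter Topology Finset

namespace Crest.Agent.R136.C2355

open Crest.Agent.R138.Ex926 (Base U)
open Crest.Agent.R136.Gf356
open Crest.Agent.R136.Fe1355
open Crest.Agent.R136.Dg219
open Crest.Agent.R136.NatR550 (coneN nL)

/-- **tangent of the plane of (C2) with the natural window model and two sweeps** -/
structure C2D (κ σ T : ℝ) (lam : (Fin 11 → ℝ) → ℝ) (A : ℝ × ℝ) (φ : ℕ → (Fin 11 → ℝ) → ℝ)
    (r : ℕ → ℝ) (B : Base) (G : ℕ → RCfg (Fin 11)) (Leg : Set (Fin 11 → ℝ))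
    (ν : (Fin 11 → ℝ) → ℝ) (D : ℝ) (F : ℕ → ℕ → ℝ) (c L0 : ℝ) : Prop where
  hκ : 0 < κ
  hσ : σ ≠ 0
  hσ1 : σ ≠ 1
  out : OutS (gC (nL 1 0 0 κ) (nL 0 1 σ σ)) coneN (dhC (nL 1 0 0 κ) (nL 0 1 σ σ))
    (nC (nL 1 0 0 κ) (nL 0 1 σ σ)) lam A φ r
  zero : lam 0 = 0
  anti : ∀ c ∈ coneN, ∀ c' ∈ coneN, c ≤ c' → lam c' ≤ lam c
  sharp : ∀ c ∈ coneN, ∀ c' ∈ coneN, c ≤ c' → lam c - lam c' ≤ ∑ s, (c' s - c s)
  submod : ∀ c ∈ coneN, ∀ c' ∈ coneN, c ⊓ c' ∈ coneN → c ⊔ c' ∈ coneN →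
    lam c + lam c' ≤ lam (c ⊔ c') + lam (c ⊓ c')
  own : ∀ u : ℝ, 0 ≤ u → u ≤ lam 0 - lam (Pi.single 0 u)
  nm : NM B G Leg ν T D F
  tw : RawTw B G (fun n k k' => F n k' - F n k)
  hν : ∀ e fa ca cb p xa xb n : ℝ, ν (bv e fa ca cb p xa xb n) =
    lam (v11 T T e fa ca cb p xa xb n) - L0
  hc : 0 < c
  S1 : ∀ x : ℝ, 0 ≤ x → x ≤ T → c * x ≤ lam 0 - lam (Pi.single 5 x)
  S2 : ∀ x : ℝ, 0 ≤ x → x ≤ T → c * x ≤ lam 0 - lam (Pi.single 2 x + Pi.single 6 x)

namespace C2D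

variable {κ σ T : ℝ} {lam : (Fin 11 → ℝ) → ℝ} {A : ℝ × ℝ} {φ : ℕ → (Fin 11 → ℝ) → ℝ}
  {r : ℕ → ℝ} {B : Base} {G : ℕ → RCfg (Fin 11)} {Leg : Set (Fin 11 → ℝ)}
  {ν : (Fin 11 → ℝ) → ℝ} {D : ℝ} {F : ℕ → ℕ → ℝ} {c L0 : ℝ}
  (h : C2D κ σ T lam A φ r B G Leg ν D F c L0)

include h

/-- one slot is raised: the loss is at most the raise -/
theorem up1 {c c' : Fin 11 → ℝ} (hc : c ∈ coneN) (hc' : c' ∈ coneN) (s : Fin 11)
    (h1 : ∀ i, i ≠ s → c i = c' i) (h2 : c s ≤ c' s) : lam c - lam c' ≤ c' s - c s := by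
  have hle : c ≤ c' := by
    intro i
    by_cases hi : i = s
    · subst hi; exact h2
    · exact (h1 i hi).le
  refine (h.sharp c hc c' hc' hle).trans (le_of_eq ?_)
  rw [Finset.sum_eq_single s]
  · intro i _ hi
    rw [h1 i hi, sub_self]
  · intro hs; exact absurd (mem_univ s) hs

theorem upxa {z fb e fa ca cb p xa xa' xb n : ℝ} (m1 : v11 z fb e fa ca cb p xa xb n ∈ coneN)
    (m2 : v11 z fb e fa ca cb p xa' xb n ∈ coneN) (hx : xa ≤ xa') :
    lam (v11 z fb e fa ca cb p xa xb n) - lam (v11 z fb e fa ca cb p xa' xb n) ≤ xa' - xa := by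
  have := h.up1 m1 m2 8 ne8 (by simpa [v11] using hx)
  simpa [v11] using this

theorem upxb {z fb e fa ca cb p xa xb xb' n : ℝ} (m1 : v11 z fb e fa ca cb p xa xb n ∈ coneN)
    (m2 : v11 z fb e fa ca cb p xa xb' n ∈ coneN) (hx : xb ≤ xb') :
    lam (v11 z fb e fa ca cb p xa xb n) - lam (v11 z fb e fa ca cb p xa xb' n) ≤ xb' - xb := by
  have := h.up1 m1 m2 9 ne9 (by simpa [v11] using hx)
  simpa [v11] using this

/-- **`X_a` is full** -/
theorem xa {y : ℝ} (hy : 0 < y) (hyT : y ≤ T) :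
    y ≤ lam (v11 T T 0 0 0 0 0 0 0 0) - lam (v11 T T 0 0 0 0 0 y 0 0) := by
  have hT := h.nm.T0
  have g := gr h.hκ h.hσ h.hσ1
  have key := h.nm.xa (c := c) hy hyT h.hc
    (by
      intro t h1 h2
      rw [h.hν, h.hν]
      have hS1 := h.S1 t h1 (h2.trans hyT)
      have e := dec5 g h.out (z := T) (fb := T) (e := 0) (fa := 0) (ca := 0) (cb := 0) (p := 0)
        (xa := t) (xb := 0) (n := 0) (ca' := t) (z2 := 0) (fb2 := 0) (fa2 := 0) (p2 := 0)
        (xa2 := 0) (xb2 := 0) (n2 := 0) (by apply v11_mem <;> linarith)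
        (by apply v11_mem <;> linarith) (by apply v11_mem <;> linarith)
        (by apply v11_mem <;> linarith)
      rw [← v11_zero, v11_5] at hS1
      linarith)
    (by
      intro t h1 h2
      rw [h.hν, h.hν]
      have := h.upxa (z := T) (fb := T) (e := 0) (fa := 0) (ca := 0) (cb := 0) (p := 0)
        (xa := t) (xa' := y) (xb := 0) (n := 0) (by apply v11_mem <;> linarith)
        (by apply v11_mem <;> linarith) h2
      linarith)
  rw [h.hν, h.hν] at key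
  linarith

/-- `X_a` is full, any base -/
theorem xaF {y z fb e ca cb xb : ℝ} (hy : 0 < y) (hyT : y ≤ T)
    (m1 : v11 z fb e 0 ca cb 0 0 xb 0 ∈ coneN) (m2 : v11 z fb e 0 ca cb 0 y xb 0 ∈ coneN) :
    y ≤ lam (v11 z fb e 0 ca cb 0 0 xb 0) - lam (v11 z fb e 0 ca cb 0 y xb 0) := by
  have hT := h.nm.T0
  have g := gr h.hκ h.hσ h.hσ1
  rw [dec8 g h.out m1 m2 (z2 := T) (fb2 := T) (e2 := 0) (ca2 := 0) (cb2 := 0) (xb2 := 0)
    (by apply v11_mem <;> linarith) (by apply v11_mem <;> linarith)]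
  exact h.xa hy hyT

/-- **`X_b` is full on an interval** -/
theorem xb : ∃ δ : ℝ, 0 < δ ∧ δ ≤ T ∧
    δ ≤ lam (v11 T T δ 0 0 0 0 0 0 0) - lam (v11 T T δ 0 0 0 0 0 δ 0) := by
  have hT := h.nm.T0
  have g := gr h.hκ h.hσ h.hσ1
  by_cases hb : T ≤ lam (v11 T T T 0 0 0 0 0 0 0) - lam (v11 T T T 0 0 0 0 0 T 0)
  · exact ⟨T, hT, le_rfl, hb⟩
  set β := lam (v11 T T T 0 0 0 0 0 0 0) - lam (v11 T T T 0 0 0 0 0 T 0) with hβ
  push Not at hb
  have hβ0 : 0 ≤ β := by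
    have := h.anti (v11 T T T 0 0 0 0 0 0 0) (by apply v11_mem <;> linarith)
      (v11 T T T 0 0 0 0 0 T 0) (by apply v11_mem <;> linarith)
      (by apply v11_le <;> linarith)
    linarith
  set j := (T - β) / 2 with hj
  have hj0 : 0 < j := by rw [hj]; linarith
  have hjT : j ≤ T := by rw [hj]; linarith
  have hX := h.xaF (y := T) (z := T) (fb := T) (e := T) (ca := 0) (cb := 0) (xb := T) hT le_rfl
    (by apply v11_mem <;> linarith) (by apply v11_mem <;> linarith)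
  have key := h.nm.leaf (x := T) (j := j) hj0.le hjT le_rfl (by
    rw [h.hν, h.hν]; linarith)
  rw [h.hν, h.hν, h.hν, h.hν, h.hν] at key
  rcases key with key | key
  · -- `E` costs nothing up to `j`
    have e := dec2 g h.out (z := T) (fb := T) (e := 0) (e' := j) (fa := 0) (ca := 0) (cb := 0)
      (p := 0) (xa := T) (xb := T) (n := 0) (z2 := 0) (fb2 := 0) (fa2 := 0) (p2 := 0)
      (xa2 := 0) (xb2 := 0) (n2 := 0) (by apply v11_mem <;> linarith)
      (by apply v11_mem <;> linarith) (by apply v11_mem <;> linarith)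
      (by apply v11_mem <;> linarith)
    refine ⟨j, hj0, hjT, ?_⟩
    have k2 := h.nm.xb (c := c) hj0 hjT h.hc
      (by
        intro t h1 h2
        rw [h.hν, h.hν]
        have hS2 := h.S2 t h1 (h2.trans hjT)
        rw [← v11_zero, v11_26] at hS2
        have e2 := dec6 g h.out (z := T) (fb := T) (e := j) (fa := 0) (ca := 0) (cb := 0)
          (cb' := t) (p := 0) (xa := 0) (xb := t) (n := 0) (z2 := 0) (fb2 := 0) (fa2 := 0)
          (p2 := 0) (xa2 := 0) (xb2 := 0) (n2 := 0) (by apply v11_mem <;> linarith)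
          (by apply v11_mem <;> linarith) (by apply v11_mem <;> linarith)
          (by apply v11_mem <;> linarith)
        have e3 := h.anti (v11 0 0 t 0 0 t 0 0 0 0) (by apply v11_mem <;> linarith)
          (v11 0 0 j 0 0 t 0 0 0 0) (by apply v11_mem <;> linarith)
          (by apply v11_le <;> linarith)
        linarith)
      (by
        intro t h1 h2
        rw [h.hν, h.hν]
        have := h.upxb (z := T) (fb := T) (e := j) (fa := 0) (ca := 0) (cb := 0) (p := 0)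
          (xa := 0) (xb := t) (xb' := j) (n := 0) (by apply v11_mem <;> linarith)
          (by apply v11_mem <;> linarith) h2
        linarith)
    rw [h.hν, h.hν] at k2
    linarith
  · exfalso
    have a1 := h.upxa (z := T) (fb := T) (e := T) (fa := 0) (ca := 0) (cb := 0) (p := 0)
      (xa := T - j) (xa' := T) (xb := T) (n := 0) (by apply v11_mem <;> linarith)
      (by apply v11_mem <;> linarith) (by linarith)
    have a2 := dec2 g h.out (z := T) (fb := T) (e := 0) (e' := T) (fa := 0) (ca := 0) (cb := 0)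
      (p := 0) (xa := T) (xb := T) (n := 0) (z2 := T) (fb2 := T) (fa2 := 0) (p2 := 0)
      (xa2 := 0) (xb2 := 0) (n2 := 0) (by apply v11_mem <;> linarith)
      (by apply v11_mem <;> linarith) (by apply v11_mem <;> linarith)
      (by apply v11_mem <;> linarith)
    linarith

/-- `X_b` is full below `δ`, any base -/
theorem xbF {δ : ℝ} (hδ0 : 0 < δ) (hδT : δ ≤ T)
    (hδ : δ ≤ lam (v11 T T δ 0 0 0 0 0 0 0) - lam (v11 T T δ 0 0 0 0 0 δ 0))
    {u z fb e fa ca cb p xa n : ℝ} (hu : 0 ≤ u) (huδ : u ≤ δ)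
    (m1 : v11 z fb e fa ca cb p xa 0 n ∈ coneN) (m2 : v11 z fb e fa ca cb p xa u n ∈ coneN)
    (hfa : fa = 0 ∨ gC (nL 1 0 0 κ) (nL 0 1 σ σ) 4 ≠ gC (nL 1 0 0 κ) (nL 0 1 σ σ) 9)
    (hp : p = 0 ∨ gC (nL 1 0 0 κ) (nL 0 1 σ σ) 7 ≠ gC (nL 1 0 0 κ) (nL 0 1 σ σ) 9) :
    u ≤ lam (v11 z fb e fa ca cb p xa 0 n) - lam (v11 z fb e fa ca cb p xa u n) := by
  have hT := h.nm.T0
  have g := gr h.hκ h.hσ h.hσ1
  rw [dec9 g h.out m1 m2 (z2 := T) (fb2 := T) (e2 := δ) (fa2 := 0) (ca2 := 0) (cb2 := 0)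
    (p2 := 0) (xa2 := 0) (n2 := 0) (by apply v11_mem <;> linarith)
    (by apply v11_mem <;> linarith) hfa hp]
  have := h.upxb (z := T) (fb := T) (e := δ) (fa := 0) (ca := 0) (cb := 0) (p := 0)
    (xa := 0) (xb := u) (xb' := δ) (n := 0) (by apply v11_mem <;> linarith)
    (by apply v11_mem <;> linarith) huδ
  linarith

/-- **`N` is full given everything**, `κ ≠ 1` -/
theorem nfull (hκ1 : κ ≠ 1) : ∃ y : ℝ, 0 < y ∧ y ≤ T ∧
    (y ≤ lam (v11 T T y 0 0 0 0 0 0 0) - lam (v11 T T y 0 0 0 0 0 y 0)) ∧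
    y ≤ lam (v11 T T y y y y y y y 0) - lam (v11 T T y y y y y y y y) := by
  have hT := h.nm.T0
  have g := gr h.hκ h.hσ h.hσ1
  obtain ⟨y, hy, hyT, hb⟩ := h.xb
  refine ⟨y, hy, hyT, hb, ?_⟩
  obtain ⟨w, hw0, hwy, h49, h410⟩ : ∃ w : ℝ, 0 ≤ w ∧ w ≤ y ∧
      (w = 0 ∨ gC (nL 1 0 0 κ) (nL 0 1 σ σ) 4 ≠ gC (nL 1 0 0 κ) (nL 0 1 σ σ) 9) ∧
      (y = w ∨ gC (nL 1 0 0 κ) (nL 0 1 σ σ) 4 ≠ gC (nL 1 0 0 κ) (nL 0 1 σ σ) 10) := by
    by_cases hc : σ * (1 - κ) = 1
    · refine ⟨0, le_rfl, hy.le, Or.inl rfl, Or.inr (g.n410 ?_)⟩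
      intro e
      rw [e] at hc
      have : κ * κ = 0 := by linarith
      have := mul_pos h.hκ h.hκ
      linarith
    · exact ⟨y, hy.le, le_rfl, Or.inr (g.n49 hc), Or.inl rfl⟩
  have sh := h.nm.shiftN h.tw hw0 hwy hyT
  rw [h.hν, h.hν, h.hν] at sh
  have l1 := h.xbF hy hyT hb (u := y) (z := T) (fb := T) (e := w) (fa := w) (ca := y) (cb := y)
    (p := y) (xa := y) (n := y) hy.le le_rfl (by apply v11_mem <;> linarith)
    (by apply v11_mem <;> linarith) h49 (Or.inr (g.n79 hκ1))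
  have l2 := dec10 g h.out (z := T) (fb := T) (e := y) (fa := y) (ca := y) (cb := y) (p := y)
    (xa := y) (xb := y) (n := 0) (n' := y) (z2 := T) (fb2 := T) (e2 := w) (fa2 := w) (ca2 := y)
    (cb2 := y) (p2 := y) (xa2 := y) (xb2 := 0) (by apply v11_mem <;> linarith)
    (by apply v11_mem <;> linarith) (by apply v11_mem <;> linarith)
    (by apply v11_mem <;> linarith) h410 (Or.inl rfl)
  linarith

/-- **the slope** from: `X_a`, `X_b`, `N` full -/
theorem slope_of {y : ℝ} (hy : 0 < y) (hyT : y ≤ T)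
    (hb : y ≤ lam (v11 T T y 0 0 0 0 0 0 0) - lam (v11 T T y 0 0 0 0 0 y 0))
    (hn : y ≤ lam (v11 T T y y y y y y y 0) - lam (v11 T T y y y y y y y y)) :
    A.1 ≤ -(4 + κ) := by
  have hT := h.nm.T0
  have hκ := h.hκ
  set u := y / (1 + κ) with hu
  have hu0 : 0 < u := by positivity
  have hyu : y = (1 + κ) * u := by rw [hu]; field_simp
  have huy : u ≤ y := by nlinarith
  have hκu : κ * u ≤ y := by nlinarith
  have hκu0 : 0 ≤ κ * u := by positivity
  -- the chain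
  have s1 := h.own u hu0.le
  rw [← v11_zero, v11_0] at s1
  have s2 := h.xaF (y := u) (z := u) (fb := 0) (e := 0) (ca := 0) (cb := 0) (xb := 0) hu0
    (huy.trans hyT) (by apply v11_mem <;> linarith) (by apply v11_mem <;> linarith)
  have s3 := h.anti (v11 u 0 0 0 0 0 0 u 0 0) (by apply v11_mem <;> linarith)
    (v11 u (κ * u) 0 0 0 0 0 u 0 0) (by apply v11_mem <;> linarith)
    (by apply v11_le <;> linarith)
  have s4 := h.xbF hy hyT hb (u := u) (z := u) (fb := κ * u) (e := 0) (fa := 0) (ca := 0)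
    (cb := 0) (p := 0) (xa := u) (n := 0) hu0.le huy (by apply v11_mem <;> linarith)
    (by apply v11_mem <;> linarith) (Or.inl rfl) (Or.inl rfl)
  have s5 := h.anti (v11 u (κ * u) 0 0 0 0 0 u u 0) (by apply v11_mem <;> linarith)
    (v11 u (κ * u) 0 (κ * u) 0 0 (κ * u) u u 0) (by apply v11_mem <;> linarith)
    (by apply v11_le <;> linarith)
  have m7 : v11 u (κ * u) 0 (κ * u) 0 0 (κ * u) u u y ∈ coneN := by
    apply v11_mem <;> linarith
  have hsup : v11 u (κ * u) 0 (κ * u) 0 0 (κ * u) u u y ⊔ v11 T T y y y y y y y 0 =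
      v11 T T y y y y y y y y := by
    funext i
    fin_cases i <;> simp [v11] <;> linarith
  have hinf : v11 u (κ * u) 0 (κ * u) 0 0 (κ * u) u u y ⊓ v11 T T y y y y y y y 0 =
      v11 u (κ * u) 0 (κ * u) 0 0 (κ * u) u u 0 := by
    funext i
    fin_cases i <;> simp [v11] <;> linarith
  have s6 := h.submod _ m7 (v11 T T y y y y y y y 0) (by apply v11_mem <;> linarith)
    (by rw [hinf]; apply v11_mem <;> linarith) (by rw [hsup]; apply v11_mem <;> linarith)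
  rw [hsup, hinf] at s6
  have s7 := lam_Tn h.out (z := (u, 0)) (by
    rw [v11_Tn, ← hyu]; exact m7)
  rw [v11_Tn, ← hyu] at s7
  have e1 : lf A (u, 0) = A.1 * u := by simp [lf]
  rw [e1] at s7
  have hz := h.zero
  rw [← v11_zero] at hz
  have key : A.1 * u ≤ -(4 + κ) * u := by
    rw [← s7]
    have : (4 + κ) * u = 3 * u + y := by rw [hyu]; ring
    linarith
  exact le_of_mul_le_mul_right key hu0

/-- **the slope**, `κ ≠ 1` -/
theorem slope (hκ1 : κ ≠ 1) : A.1 ≤ -(4 + κ) := by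
  obtain ⟨y, hy, hyT, hb, hn⟩ := h.nfull hκ1
  exact h.slope_of hy hyT hb hn

end C2D

end Crest.Agent.R136.C2355
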