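import Crest.Agent.R136.Wq0_400
import Crest.Agent.R136.NatR_550

/-!
# R136: `coneM Ma = coneN` (helper550's cone) gives `MaQ Ma` (helper400)
-/

set_option autoImplicit false
set_option linter.unusedSectionVars false
set_option linter.unusedVariables false

namespace Crest.Agent.R136.Wq400

open Finset Crest.Agent.R136.NetQ186 Crest.Agent.R136.Net191
open Crest.Agent.R136.Aw413 Crest.Agent.R136.NatR550

/-- one wall of the list of simple walls: a test vector with natural entries -/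
theorem wall_mem {Ma : Mons 11} (hsub : ∀ k, Ma.mon k ⊆ monQ.mon k) (hcone : coneM Ma = coneN)
    (k₀ : Fin 11) (e₀ : Fin 11 → ℕ) (c : Fin 11 → ℕ) (hn : (fun s => (c s : ℝ)) ∉ coneN)
    (hc : ∀ k, ∀ e ∈ mfQ k, ¬(k = k₀ ∧ e = e₀) → c k ≤ ∑ s, e s * c s) :
    e₀ ∈ Ma.mon k₀ := by
  by_contra hne
  refine hn ?_
  rw [← hcone]
  intro k e he
  have h1 := hc k e (hsub k he) (by
    rintro ⟨rfl, rfl⟩
    exact hne he)
  have h2 : ((c k : ℕ) : ℝ) ≤ ((∑ s, e s * c s : ℕ) : ℝ) := by exact_mod_cast h1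
  push_cast at h2
  exact h2

/-- **`coneM Ma = coneN` gives `MaQ Ma`** -/
theorem maQ_of_cone {Ma : Mons 11} (hsub : ∀ k, Ma.mon k ⊆ monQ.mon k)
    (hcone : coneM Ma = coneN) : MaQ Ma where
  m423 := wall_mem hsub hcone _ _ ![2, 2, 0, 0, 1, 2, 2, 2, 2, 2, 2] (by simp [coneN]) (by decide)
  m625 := wall_mem hsub hcone _ _ ![2, 2, 0, 2, 2, 0, 1, 2, 2, 2, 2] (by simp [coneN]) (by decide)
  m745 := wall_mem hsub hcone _ _ ![2, 2, 2, 2, 0, 0, 2, 1, 2, 2, 2] (by simp [coneN]) (by decide)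
  m736 := wall_mem hsub hcone _ _ ![2, 2, 2, 0, 2, 2, 0, 1, 2, 2, 2] (by simp [coneN]) (by decide)
  m805 := wall_mem hsub hcone _ _ ![0, 2, 2, 2, 2, 0, 2, 2, 1, 2, 2] (by simp [coneN]) (by decide)
  m906 := wall_mem hsub hcone _ _ ![0, 2, 2, 2, 2, 2, 0, 2, 2, 1, 2] (by simp [coneN]) (by decide)
  m928 := wall_mem hsub hcone _ _ ![2, 2, 0, 2, 2, 2, 2, 2, 0, 1, 2] (by simp [coneN]) (by decide)
  m107 := wall_mem hsub hcone _ _ ![0, 2, 2, 2, 2, 2, 2, 0, 2, 2, 1] (by simp [coneN]) (by decide)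
  m148 := wall_mem hsub hcone _ _ ![2, 2, 2, 2, 0, 2, 2, 2, 0, 2, 1] (by simp [coneN]) (by decide)
  m139 := wall_mem hsub hcone _ _ ![2, 2, 2, 0, 2, 2, 2, 2, 2, 0, 1] (by simp [coneN]) (by decide)
  m701 := by
    intro hm
    have h1 : (fun s => ((![0, 0, 2, 2, 2, 2, 2, 1, 2, 2, 1] : Fin 11 → ℕ) s : ℝ)) ∈
        coneM Ma := by
      rw [hcone]
      simp [coneN]
      norm_num
    have h2 := h1 7 _ hm
    simp [Fin.sum_univ_succ] at h2
    norm_num at h2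

end Crest.Agent.R136.Wq400
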