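import Crest.Agent.R136.C2d_355
import Crest.Agent.R136.Wq1_400

/-!
# R136, case (C2), F-half, part 5 (helper355): `C2D` from helper413's `AeW`

* `c2d_of_aew` : `AeW` on the plane `nL 1 0 0 κ`, `nL 0 1 σ σ` and the two sweeps at the point
  give `C2D` for any `T > 0` (window: helper400's `nm_of_wat`);
* `c2_ne` : `κ ≠ 1`: the slope is at most `-(4 + κ)`.
-/

set_option autoImplicit false
set_option linter.unusedVariables false
set_option linter.unusedSectionVars false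

open Filter Topology

namespace Crest.Agent.R136.C2355

open Finset Crest.Agent.R136.NetQ186 Crest.Agent.R136.Net191 Crest.Agent.R136.Qg926
open Crest.Agent.R136.Gf356 Crest.Agent.R136.Ev356 Crest.Agent.R136.Aw413
open Crest.Agent.R136.Wq400 Crest.Agent.R136.Fe1355
open Crest.Agent.R136.C2w400 Crest.Agent.R136.Dg219
open Crest.Agent.R136.NatR550 (coneN nL)
open Crest.Agent.R138.Ex926 (Base U)

theorem bvT_v11 (T e fa ca cb p xa xb n : ℝ) :
    bvT T e fa ca cb p xa xb n = v11 T T e fa ca cb p xa xb n := by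
  unfold bvT v11; rfl

section

variable {ι : ℕ → Type*} [∀ n, DecidableEq (ι n)] {B Bo : Base}
  {I J : ∀ n, Finset (ι n)} {co : ∀ n, ι n → ι n → Fin 11 → ℝ} {Ma : Mons 11} {C : ℝ}
  {lam : (Fin 11 → ℝ) → ℝ} {κ σ : ℝ} {A : ℝ × ℝ} {φ : ℕ → (Fin 11 → ℝ) → ℝ} {r : ℕ → ℝ}
  {κv : Fin 11 → ℝ} {V Tw : Fin 11 → Prop} {f : ∀ n, ι n → Fq4}

/-- `z, F_b` are a group -/
theorem gr_S {g : Fin 11 → ℕ} (h : Gr κ σ g) : ∀ i j, g i = g j →
    i ∈ ({0, 3} : Finset (Fin 11)) → j ∈ ({0, 3} : Finset (Fin 11)) := by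
  intro i j hij hi
  have hi' : g i = g 0 := by
    rcases Finset.mem_insert.1 hi with rfl | hi
    · rfl
    · rw [Finset.mem_singleton.1 hi]; exact h.e03.symm
  rw [hi'] at hij
  have key : ∀ j : Fin 11, g 0 = g j → j = 0 ∨ j = 3 := by
    intro j hj
    fin_cases j
    · left; rfl
    · exact absurd (hj.trans h.z1) h.n0
    · exact absurd (hj.trans h.z2) h.n0
    · right; rfl
    · exact absurd hj h.n04
    · exact absurd (hj.trans h.z5) h.n0
    · exact absurd (hj.trans h.z6) h.n0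
    · exact absurd hj h.n07
    · exact absurd hj h.n08
    · exact absurd hj h.n09
    · exact absurd hj h.n010
  rcases key j hij with rfl | rfl <;> decide

/-- **`C2D` from `AeW`** -/
theorem c2d_of_aew {T : ℝ} (hT : 0 < T) (hκ : 0 < κ) (hσ : σ ≠ 0) (hσ1 : σ ≠ 1)
    (h : AeW B Bo I J co monQ Ma C lam (nL 1 0 0 κ) (nL 0 1 σ σ) A φ r 0 1 κv V Tw)
    (hcone : coneM Ma = coneN)
    (hco : ∀ n, ∀ i ∈ I n, ∀ j ∈ I n, co n i j = coQ (f n i) (f n j))
    (hne : ∀ᶠ n in (U : Filter ℕ), (J n).Nonempty)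
    (hV : ∀ k, V k → k = 0 ∨ k = 3) (hT3 : Tw 3) {c : ℝ} (hc : 0 < c)
    (S1 : ∀ x : ℝ, 0 ≤ x → x ≤ T → c * x ≤ lam 0 - lam (Pi.single 5 x))
    (S2 : ∀ x : ℝ, 0 ≤ x → x ≤ T → c * x ≤ lam 0 - lam (Pi.single 2 x + Pi.single 6 x)) :
    ∃ (B' : Base) (G : ℕ → RCfg (Fin 11)) (Leg : Set (Fin 11 → ℝ)) (ν : (Fin 11 → ℝ) → ℝ)
      (D : ℝ) (F : ℕ → ℕ → ℝ) (L0 : ℝ),
      C2D κ σ T lam A φ r B' G Leg ν D F c L0 ∧
      ∀ᶠ n in (U : Filter ℕ), ∀ k ∈ (G n).Z, |(G n).z k| ≤ 1 ∧ |F n k| ≤ 1 := by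
  have hsub := h.sub
  have hM := maQ_of_cone hsub hcone
  have hg := gr hκ hσ hσ1
  set K : ℝ := max 1 (cK0 monQ C) with hK
  have hK1 : (1 : ℝ) ≤ K := le_max_left _ _
  have hK0 : 0 < K := by linarith
  have hst := stQ_ok (Ma := Ma) sok_b hK0 hT.le hsub
  obtain ⟨W, hW, -, -⟩ := h.wnd (stQ {0, 3} K T Ma) rfl hst (fun _ _ => 1)
    (fun _ => Base.Sub.const one_pos) J (fun _ => 1)
    (Eventually.of_forall fun n => Finset.Subset.refl _) hne (Base.Sub.const one_pos)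
    (Eventually.of_forall fun n => by rw [one_mul])
  have hone : ∀ y : ℝ, 0 ≤ y → (Pi.single 0 y : Fin 11 → ℝ) ∈ coneM Ma := by
    intro y hy; rw [hcone]; exact m_0 hy
  have hden := h.dens (st := stQ {0, 3} K T Ma) rfl hst (gr_S hg) zero_le_one le_rfl (R := T)
    le_rfl (fun y hy _ => hone y hy)
  obtain ⟨E', hNM, hbd, htw⟩ := nm_of_wat hW hco hM hsub (le_max_right _ _) hT hV hT3
    hden.dens (fun y hy hy1 => by
      have := hden.frost y hy hy1
      rw [one_mul] at this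
      exact this)
  have hw := winB_of_wat hW hM hsub (le_max_right _ _) hT
  have elam := hW.elam
  refine ⟨W.B', W.cfg E', W.legW, W.nu, W.Dc, fun n k => flg W n k 3, lam fun _ => T, ?_, hbd⟩
  exact
    { hκ := hκ
      hσ := hσ
      hσ1 := hσ1
      out := by rw [← hcone]; exact h.out
      zero := h.zero
      anti := by rw [← hcone]; exact h.anti
      sharp := by rw [← hcone]; exact h.sharp
      submod := by rw [← hcone]; exact h.submod
      own := fun u hu => by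
        have h1 := h.own 0 zero_mem (Pi.single 0 u) (hone u hu) (fun s => by
            by_cases hs : s = 0
            · subst hs; simpa using hu
            · rw [Pi.single_eq_of_ne hs]; exact le_rfl) (fun k _ => by simp)
        simp only [Pi.single_eq_same, Pi.zero_apply, sub_zero, one_mul] at h1
        exact h1
      nm := hNM
      tw := htw
      hν := fun e fa ca cb p xa xb n => by
        rw [nu_bv hw, elam, bvT_v11]
      hc := hc
      S1 := S1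
      S2 := S2 }

/-- **case (C2), `κ ≠ 1`: the slope is at most `-(4 + κ)`** -/
theorem c2_ne (hκ : 0 < κ) (hκ1 : κ ≠ 1) (hσ : σ ≠ 0) (hσ1 : σ ≠ 1)
    (h : AeW B Bo I J co monQ Ma C lam (nL 1 0 0 κ) (nL 0 1 σ σ) A φ r 0 1 κv V Tw)
    (hcone : coneM Ma = coneN)
    (hco : ∀ n, ∀ i ∈ I n, ∀ j ∈ I n, co n i j = coQ (f n i) (f n j))
    (hne : ∀ᶠ n in (U : Filter ℕ), (J n).Nonempty)
    (hV : ∀ k, V k → k = 0 ∨ k = 3) (hT3 : Tw 3) {c : ℝ} (hc : 0 < c)
    (S1 : ∀ x : ℝ, 0 ≤ x → x ≤ 1 → c * x ≤ lam 0 - lam (Pi.single 5 x))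
    (S2 : ∀ x : ℝ, 0 ≤ x → x ≤ 1 → c * x ≤ lam 0 - lam (Pi.single 2 x + Pi.single 6 x)) :
    A.1 ≤ -(4 + κ) := by
  obtain ⟨B', G, Leg, ν, D, F, L0, H, -⟩ := c2d_of_aew one_pos hκ hσ hσ1 h hcone
    hco hne hV hT3 hc S1 S2
  exact H.slope hκ1

end

end Crest.Agent.R136.C2355
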