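import Crest.Agent.R136.Tb6_628
import Crest.Agent.R136.TopB_550

/-!
# R136, T.C3 (helper569): scalar half and final row

`FH3 η`, `FH4 η` : the F-halves over `Tb628.RowPt` (helper795):

* `FH3` : 32 tied, natural plane, `κ = 0`, `κ3 = θ 1 - θ 0`; touching = tied slots `3` (and `4` if
  `V 4`);
* `FH4` : only 31 tied, plane with slack `F_b` (`kf = 0`); touching = tied slot `4`.

`caseC3_of` : `FH3 η → FH4 η → Dead η pC3`.
-/

set_option autoImplicit false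
set_option linter.unusedVariables false

open Finset Filter Topology

namespace Crest.Agent.R136.C3s569

open Crest.Agent.R136.Net191
open Crest.Agent.R136.NetQ186
open Crest.Agent.R136.NatT550
open Crest.Agent.R136.NatR550
open Crest.Agent.R136.Lq196
open Crest.Agent.R136.Wq638
open Crest.Agent.R136.Gf356
open Crest.Agent.R136.Dg219
open Crest.Agent.R136.Aw413
open Crest.Agent.R136.Tb628
open Crest.Agent.R136.TopB550
open Crest.Agent.R136.Top484 (Par4 Dat4)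

/-- **F-half of C3, 32 tied** (31 tied or not): natural plane `s0, sA 0 κ3, sB θ 0 κ3` -/
def FH3 (η : ℝ) : Prop :=
  ∀ (p : Par4) (D : Dat4) (I1 : ℕ → Finset (ℕ × ℝ)) (π : Equiv.Perm (Fin 3))
    (eE gA gB : ℕ → ℕ × ℝ → ℝ) (V T : Fin 11 → Prop) (w0 R T0 : ℝ) (PD : Set (Fin 11 → ℝ))
    (ν own : (Fin 11 → ℝ) → ℝ) (c₀ κ3 : ℝ),
    Thick η p D I1 π eE gA gB V T w0 R T0 PD ν own c₀ →
    ¬ V 2 → V 3 → p.θ 2 = p.θ 1 → κ3 = p.θ 1 - p.θ 0 → 0 < κ3 →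
    RecS p.θ w0 R ν (eCa 1) (min (p.q 1) (p.q 2)) →
    RecS p.θ w0 R ν (eECb 1) (p.q 2) →
    coneM (actM monQ (s0 w0 (R - 1)) (sA 0 κ3) (sB p.θ 0 κ3)) = coneN →
    ∀ (ξ x : ℝ) (h : ℕ → ℝ) (lam : (Fin 11 → ℝ) → ℝ) (A : ℝ × ℝ)
      (φ : ℕ → (Fin 11 → ℝ) → ℝ) (r : ℕ → ℝ),
      RowPt D.B D.I I1 (couQ D.B D.lev D.w w0 (incQ π D.L eE gA gB)) p.θ w0 R ν V T
        (s0 w0 (R - 1)) (sA 0 κ3) (sB p.θ 0 κ3) ξ x h lam A φ r →
      Hom (s0 w0 (R - 1)) (sA 0 κ3) (sB p.θ 0 κ3) φ →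
      AeW D.B D.B D.I I1 (couQ D.B D.lev D.w w0 (incQ π D.L eE gA gB)) monQ
        (actM monQ (s0 w0 (R - 1)) (sA 0 κ3) (sB p.θ 0 κ3)) 2 lam (sA 0 κ3) (sB p.θ 0 κ3) A φ r
        0 1 (oS p.θ) (fun k => k = 3 ∨ (k = 4 ∧ V 4)) (fun k => k = 3 ∨ (k = 4 ∧ V 4)) →
      A.1 ≤ -(4 + κ3)

/-- **F-half of C3, only 31 tied**: the plane with slack `F_b` (constant along `v`),
`s0, fA 0 κ3 0, fB θ 0 κ3 0` -/
def FH4 (η : ℝ) : Prop :=
  ∀ (p : Par4) (D : Dat4) (I1 : ℕ → Finset (ℕ × ℝ)) (π : Equiv.Perm (Fin 3))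
    (eE gA gB : ℕ → ℕ × ℝ → ℝ) (V T : Fin 11 → Prop) (w0 R T0 : ℝ) (PD : Set (Fin 11 → ℝ))
    (ν own : (Fin 11 → ℝ) → ℝ) (c₀ κ3 : ℝ),
    Thick η p D I1 π eE gA gB V T w0 R T0 PD ν own c₀ →
    ¬ V 2 → ¬ V 3 → V 4 → p.θ 2 = p.θ 1 → κ3 = p.θ 1 - p.θ 0 → 0 < κ3 →
    RecS p.θ w0 R ν (eCa 1) (min (p.q 1) (p.q 2)) →
    RecS p.θ w0 R ν (eECb 1) (p.q 2) →
    coneM (actM monQ (s0 w0 (R - 1)) (fA 0 κ3 0) (fB p.θ 0 κ3 0)) = coneF →
    ∀ (ξ x : ℝ) (h : ℕ → ℝ) (lam : (Fin 11 → ℝ) → ℝ) (A : ℝ × ℝ)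
      (φ : ℕ → (Fin 11 → ℝ) → ℝ) (r : ℕ → ℝ),
      RowPt D.B D.I I1 (couQ D.B D.lev D.w w0 (incQ π D.L eE gA gB)) p.θ w0 R ν V T
        (s0 w0 (R - 1)) (fA 0 κ3 0) (fB p.θ 0 κ3 0) ξ x h lam A φ r →
      Hom (s0 w0 (R - 1)) (fA 0 κ3 0) (fB p.θ 0 κ3 0) φ →
      AeW D.B D.B D.I I1 (couQ D.B D.lev D.w w0 (incQ π D.L eE gA gB)) monQ
        (actM monQ (s0 w0 (R - 1)) (fA 0 κ3 0) (fB p.θ 0 κ3 0)) 2 lam (fA 0 κ3 0) (fB p.θ 0 κ3 0)
        A φ r 0 1 (oS p.θ) (fun k => k = 4) (fun k => k = 4) →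
      A.1 ≤ -(4 + κ3)

section

variable {η : ℝ} {p : Par4} {D : Dat4} {I1 : ℕ → Finset (ℕ × ℝ)} {π : Equiv.Perm (Fin 3)}
  {eE gA gB : ℕ → ℕ × ℝ → ℝ} {V T : Fin 11 → Prop} {PD : Set (Fin 11 → ℝ)}
  {w0 R T0 c₀ : ℝ} {ν own : (Fin 11 → ℝ) → ℝ}

/-- no slot is capped if 21 is invisible -/
theorem tied_iff {θ : Fin 3 → ℝ} (sl : SlotOk θ V T) (h2 : ¬ V 2) (k : Fin 11) : T k ↔ V k := by
  refine ⟨sl.tied k, fun hk => ?_⟩
  by_contra hT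
  exact h2 (sl.cap k hk hT).2.1

/-- `θ 0 < θ 1` in C3 -/
theorem th01 {θ : Fin 3 → ℝ} (sl : SlotOk θ V T) (h12 : θ 2 = θ 1) (h34 : V 3 ∨ V 4) :
    θ 0 < θ 1 := by
  rcases h34 with h | h
  · have := (sl.vis 3 h).2
    simp [btQ] at this
    linarith
  · have := (sl.vis 4 h).2
    simp [btQ] at this
    linarith

/-- **T.C3 from the two F-halves** -/
theorem caseC3_of {η : ℝ} (hη1 : η ≤ 1 / 8) (F3 : FH3 η) (F4 : FH4 η) : Dead η pC3 := by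
  intro p D I1 π eE gA gB V T w0 R T0 PD ν own c₀ h hp
  obtain ⟨h2, h34, h12⟩ := hp
  have ok := h.tp.ok
  have sl := h.tp.slots
  have hη := ok.η_pos
  have t0 : p.θ 0 < p.θ 1 := th01 sl h12 h34
  have hk3 : 0 < p.θ 1 - p.θ 0 := by linarith
  have hsl : p.q 2 * 0 + p.q 0 * (p.θ 1 - p.θ 0) < p.g :=
    hsl_sub ok hη1 (i := 0) (j := 0) (k := 1) (l := 0) (abs_nonneg _) (le_abs_self _)
  have hA : RecS p.θ w0 R ν (eCa 1) (min (p.q 1) (p.q 2)) := recA_min h t0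
  have h20 : p.θ 2 ≠ p.θ 0 := by rw [h12]; exact t0.ne'
  by_cases h3 : V 3
  · -- natural plane
    refine row_nat0 h hη le_rfl hk3.le (Or.inl rfl) (Or.inr (Or.inl h20)) hsl
      (fun h => absurd h h2) (fun _ => by rw [h12]; linarith) (fun _ => le_rfl) ?_
    intro _ hB hcone ξ x h' lam A φ r P hom
    have e1 : (fun k => V k ∧ sB p.θ 0 (p.θ 1 - p.θ 0) k = 0) =
        fun k => k = 3 ∨ (k = 4 ∧ V 4) := by
      funext k
      refine propext ⟨fun hk => ?_, fun hk => ?_⟩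
      · rcases (sl.vis k hk.1).1 with rfl | rfl | rfl
        · exact absurd hk.1 h2
        · exact Or.inl rfl
        · exact Or.inr ⟨rfl, hk.1⟩
      · rcases hk with rfl | ⟨rfl, hk⟩
        · exact ⟨h3, (sB_three0 ok.θ1.ne').2 (by rw [h12]; ring)⟩
        · exact ⟨hk, (sB_four0 ok.θ1.ne').2 rfl⟩
    have e2 : (fun k => T k ∧ sB p.θ 0 (p.θ 1 - p.θ 0) k = 0) =
        fun k => k = 3 ∨ (k = 4 ∧ V 4) := by
      rw [← e1]
      funext k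
      rw [tied_iff sl h2 k]
    have aew := P.aew
    rw [e1, e2] at aew
    have := F3 p D I1 π eE gA gB V T w0 R T0 PD ν own c₀ _ h h2 h3 h12 rfl hk3 hA
      (hB (Or.inl h20)) hcone ξ x h' lam A φ r P hom aew
    linarith
  · -- plane with slack `F_b`
    have h4 : V 4 := h34.resolve_left h3
    refine row_F0 h hη le_rfl hk3.le le_rfl (by linarith) (Or.inl rfl) (Or.inl h20) hsl
      (fun h => absurd h h2) (fun h => absurd h h3) (fun _ => le_rfl) ?_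
    intro _ hB hcone ξ x h' lam A φ r P hom
    have e1 : (fun k => V k ∧ fB p.θ 0 (p.θ 1 - p.θ 0) 0 k = 0) = fun k => k = 4 := by
      funext k
      refine propext ⟨fun hk => ?_, fun hk => ?_⟩
      · rcases (sl.vis k hk.1).1 with rfl | rfl | rfl
        · exact absurd hk.1 h2
        · exact absurd hk.1 h3
        · rfl
      · subst hk
        refine ⟨h4, ?_⟩
        rw [fB_of_ne (by decide)]
        exact (sB_four0 ok.θ1.ne').2 rfl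
    have e2 : (fun k => T k ∧ fB p.θ 0 (p.θ 1 - p.θ 0) 0 k = 0) = fun k => k = 4 := by
      rw [← e1]
      funext k
      rw [tied_iff sl h2 k]
    have aew := P.aew
    rw [e1, e2] at aew
    have := F4 p D I1 π eE gA gB V T w0 R T0 PD ν own c₀ _ h h2 h3 h4 h12 rfl hk3 hA
      hB hcone ξ x h' lam A φ r P hom aew
    linarith

end

end Crest.Agent.R136.C3s569
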