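import Crest.Agent.R136.Gr2_356
import Crest.Agent.R138.TwA_501

/-!
# R136: Kaufman on a heavy set of heights, chart-free relative model (helper366)

`kauf_box_R`: fixed losses, heavy set `Z'` of heights, cells = labels of `exists_lab_loose`.
-/

set_option autoImplicit false
set_option linter.unusedVariables false
set_option linter.unusedSectionVars false

open Filter Topology Finset

namespace Crest.Agent.R136.CD366

open Crest.Agent.R138.Ex926 (Base U)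
open Crest.Agent.R138.TwA501 (energy pair_sum_le)
open Crest.Agent.R136.Gf356

variable {κ : Type} {B : Base} {G : ℕ → RCfg κ} {Leg : Set (κ → ℝ)} {ν : (κ → ℝ) → ℝ}
  {σ R D : ℝ}

/-- small powers absorb constants, factor form -/
theorem ev_small (B : Base) {t : ℝ} (ht : 0 < t) (C : ℝ) :
    ∀ᶠ n in (U : Filter ℕ), C * B.d n ^ t ≤ 1 := by
  filter_upwards [ev_const_le B ht C] with n hn
  have h1 : B.d n ^ (-t) * B.d n ^ t = 1 := by
    rw [← rpow_add', neg_add_cancel, Real.rpow_zero]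
  calc C * B.d n ^ t ≤ B.d n ^ (-t) * B.d n ^ t :=
        mul_le_mul_of_nonneg_right hn (rpos B n t).le
    _ = 1 := h1

open Classical in
/-- double counting between heights and lines -/
theorem sum_slice_inter' (G : RCfg κ) (S Z' : Finset ℕ) (hS : S ⊆ G.L) (hZ' : Z' ⊆ G.Z) :
    ∑ k ∈ Z', ((S ∩ G.slice k).card : ℝ) = ∑ i ∈ S, ((G.hts i ∩ Z').card : ℝ) := by
  have h1 : ∀ k ∈ Z', ((S ∩ G.slice k).card : ℝ) =
      ∑ i ∈ S, (if (i, k) ∈ G.I then (1 : ℝ) else 0) := by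
    intro k _
    rw [← sum_filter, sum_const, nsmul_eq_mul, mul_one]
    congr 2
    ext i
    simp only [mem_inter, RCfg.mem_slice, mem_filter]
    exact ⟨fun h => ⟨h.1, h.2.2⟩, fun h => ⟨h.1, hS h.1, h.2⟩⟩
  have h2 : ∀ i ∈ S, ((G.hts i ∩ Z').card : ℝ) =
      ∑ k ∈ Z', (if (i, k) ∈ G.I then (1 : ℝ) else 0) := by
    intro i _
    rw [← sum_filter, sum_const, nsmul_eq_mul, mul_one]
    congr 2
    ext k
    simp only [mem_inter, RCfg.mem_hts, mem_filter]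
    exact ⟨fun h => ⟨h.2, h.1.2⟩, fun h => ⟨⟨hZ' h.1, h.2⟩, h.1⟩⟩
  rw [sum_congr rfl h1, sum_congr rfl h2, sum_comm]

open Classical in
/-- choice of the pin and of the centre: the box around `(i₀, k₀)` meets the slices of `Z'` -/
theorem pick_R (H : RModel B G σ R Leg ν D) (p : κ → ℝ) (hp : p ∈ Leg) {ε : ℝ} (hε : 0 < ε) :
    ∀ᶠ n in (U : Filter ℕ), ∀ Z' ⊆ (G n).Z, Z'.Nonempty → ∃ k₀ ∈ Z', ∃ i₀ ∈ (G n).slice k₀,
      B.d n ^ ((D + 4) * ε) * (((G n).box p ε i₀ k₀).card * Z'.card) ≤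
        ∑ k ∈ Z', (((G n).box p ε i₀ k₀ ∩ (G n).slice k).card : ℝ) := by
  have hD := H.D1
  have hD0 : 0 < D := by linarith
  have hεD : 0 < ε / D := by positivity
  filter_upwards [H.up p hp ε hε, H.low p hp (ε / D) hεD, H.symm p hp (ε / D) hεD,
    H.slice ε hε] with n hup hlow hsym hs Z' hZ' hZne
  by_contra hcon
  push Not at hcon
  have hpow : ∀ t : ℝ, 0 < B.d n ^ t := fun t => rpos B n t
  obtain ⟨⟨i1, k1⟩, hI1⟩ := H.nonempty n
  have hLc : (0 : ℝ) < (G n).L.card := by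
    exact_mod_cast card_pos.2 ⟨i1, H.memL hI1⟩
  have hZc : (0 : ℝ) < Z'.card := by exact_mod_cast card_pos.2 hZne
  have hsL : ∀ k, (G n).slice k ⊆ (G n).L := fun k => filter_subset _ _
  set T : ℝ := ∑ k₀ ∈ Z', ∑ i₀ ∈ (G n).slice k₀, ∑ k ∈ Z',
    (((G n).box p ε i₀ k₀ ∩ (G n).slice k).card : ℝ) with hT
  have hTup : T ≤ B.d n ^ (-ν p + 4 * ε) * (Z'.card ^ 2 * (G n).L.card) := by
    rw [hT]
    calc ∑ k₀ ∈ Z', ∑ i₀ ∈ (G n).slice k₀, ∑ k ∈ Z',
          (((G n).box p ε i₀ k₀ ∩ (G n).slice k).card : ℝ)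
        ≤ ∑ k₀ ∈ Z', ∑ i₀ ∈ (G n).slice k₀, B.d n ^ (-ν p + 4 * ε) * Z'.card := by
          refine sum_le_sum fun k₀ hk₀ => sum_le_sum fun i₀ hi₀ => ?_
          refine (hcon k₀ hk₀ i₀ hi₀).le.trans ?_
          have h1 := hup i₀ k₀ (H.memSlice.1 hi₀)
          have e1 : B.d n ^ (-ν p + 4 * ε) = B.d n ^ ((D + 4) * ε) * B.d n ^ (-ν p - D * ε) := by
            rw [← rpow_add']; congr 1; ring
          rw [e1, mul_assoc]
          refine mul_le_mul_of_nonneg_left ?_ (hpow _).le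
          exact mul_le_mul_of_nonneg_right h1 hZc.le
      _ = ∑ k₀ ∈ Z', (((G n).slice k₀).card : ℝ) * (B.d n ^ (-ν p + 4 * ε) * Z'.card) := by
          refine sum_congr rfl fun k₀ _ => ?_
          rw [sum_const, nsmul_eq_mul]
      _ ≤ ∑ k₀ ∈ Z', ((G n).L.card : ℝ) * (B.d n ^ (-ν p + 4 * ε) * Z'.card) := by
          refine sum_le_sum fun k₀ _ => ?_
          refine mul_le_mul_of_nonneg_right ?_ (mul_pos (hpow _) hZc).le
          exact_mod_cast card_le_card (hsL k₀)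
      _ = _ := by rw [sum_const, nsmul_eq_mul]; ring
  have hswap : ∑ k₀ ∈ Z', ∑ k ∈ Z', ∑ i ∈ (G n).slice k₀ ∩ (G n).slice k,
      (((G n).box p (ε / D) i k₀).card : ℝ) ≤ T := by
    rw [hT]
    refine sum_le_sum fun k₀ _ => ?_
    rw [sum_comm]
    refine sum_le_sum fun k _ => ?_
    have e1 : ∀ i₀ ∈ (G n).slice k₀, (((G n).box p ε i₀ k₀ ∩ (G n).slice k).card : ℝ) =
        ∑ i ∈ (G n).slice k₀ ∩ (G n).slice k,
          (if (G n).loose p ε k₀ i₀ i then (1 : ℝ) else 0) := by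
      intro i₀ _
      rw [← sum_filter, sum_const, nsmul_eq_mul, mul_one]
      congr 2
      ext i
      simp only [mem_inter, RCfg.mem_box, mem_filter]
      tauto
    rw [sum_congr rfl e1, sum_comm]
    refine sum_le_sum fun i hi => ?_
    rw [← sum_filter, sum_const, nsmul_eq_mul, mul_one]
    refine mod_cast card_le_card ?_
    intro i₀ h1
    obtain ⟨a1, a2⟩ := RCfg.mem_box.1 h1
    rw [mem_filter]
    refine ⟨a1, ?_⟩
    have h2 := hsym k₀ i i₀ (H.memSlice.1 (mem_inter.1 hi).1) (H.memSlice.1 a1) a2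
    have e2 : D * (ε / D) = ε := by field_simp
    rwa [e2] at h2
  have hTlow : B.d n ^ (-ν p + 3 * ε) * (Z'.card ^ 2 * (G n).L.card) ≤ T := by
    refine le_trans ?_ hswap
    have e1 : B.d n ^ (-ν p + ε / D) * ∑ k₀ ∈ Z', ∑ k ∈ Z',
        (((G n).slice k₀ ∩ (G n).slice k).card : ℝ) ≤
        ∑ k₀ ∈ Z', ∑ k ∈ Z', ∑ i ∈ (G n).slice k₀ ∩ (G n).slice k,
          (((G n).box p (ε / D) i k₀).card : ℝ) := by
      rw [mul_sum]
      refine sum_le_sum fun k₀ _ => ?_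
      rw [mul_sum]
      refine sum_le_sum fun k _ => ?_
      rw [mul_comm, ← nsmul_eq_mul, ← sum_const]
      refine sum_le_sum fun i hi => ?_
      exact hlow i k₀ (H.memSlice.1 (mem_inter.1 hi).1)
    refine le_trans ?_ e1
    have e2 : ∑ k₀ ∈ Z', ∑ k ∈ Z', (((G n).slice k₀ ∩ (G n).slice k).card : ℝ) =
        ∑ i ∈ (G n).L, (((G n).hts i ∩ Z').card : ℝ) ^ 2 := by
      have e3 : ∀ k₀ ∈ Z', ∑ k ∈ Z', (((G n).slice k₀ ∩ (G n).slice k).card : ℝ) =
          ∑ i ∈ (G n).slice k₀, (((G n).hts i ∩ Z').card : ℝ) := fun k₀ _ =>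
        sum_slice_inter' (G n) _ Z' (hsL k₀) hZ'
      rw [sum_congr rfl e3]
      have e4 : ∀ k₀ ∈ Z', ∑ i ∈ (G n).slice k₀, (((G n).hts i ∩ Z').card : ℝ) =
          ∑ i ∈ (G n).L, (if (i, k₀) ∈ (G n).I then (((G n).hts i ∩ Z').card : ℝ) else 0) := by
        intro k₀ _
        rw [← sum_filter]
        refine sum_congr ?_ fun _ _ => rfl
        ext i
        rw [RCfg.mem_slice, mem_filter]
      rw [sum_congr rfl e4, sum_comm]
      refine sum_congr rfl fun i _ => ?_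
      rw [← sum_filter, sum_const, nsmul_eq_mul, sq]
      congr 2
      congr 1
      ext k
      simp only [mem_inter, RCfg.mem_hts, mem_filter]
      exact ⟨fun h1 => ⟨⟨hZ' h1.1, h1.2⟩, h1.1⟩, fun h1 => ⟨h1.2, h1.1.2⟩⟩
    rw [e2]
    have e5 : (∑ i ∈ (G n).L, (((G n).hts i ∩ Z').card : ℝ)) ^ 2 ≤
        (G n).L.card * ∑ i ∈ (G n).L, (((G n).hts i ∩ Z').card : ℝ) ^ 2 :=
      sq_sum_le_card_mul_sum_sq
    have e6 : B.d n ^ ε * (G n).L.card * Z'.card ≤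
        ∑ i ∈ (G n).L, (((G n).hts i ∩ Z').card : ℝ) := by
      rw [← sum_slice_inter' (G n) _ Z' subset_rfl hZ']
      have : ∀ k ∈ Z', B.d n ^ ε * ((G n).L.card : ℝ) ≤
          (((G n).L ∩ (G n).slice k).card : ℝ) := by
        intro k hk
        rw [inter_eq_right.2 (hsL k)]
        exact hs k (hZ' hk)
      refine le_trans (le_of_eq ?_) (sum_le_sum this)
      rw [sum_const, nsmul_eq_mul]; ring
    have e7 : (B.d n ^ ε * (G n).L.card * Z'.card) ^ 2 ≤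
        (G n).L.card * ∑ i ∈ (G n).L, (((G n).hts i ∩ Z').card : ℝ) ^ 2 := by
      refine le_trans (pow_le_pow_left₀ ?_ e6 2) e5
      have := hpow ε
      positivity
    have e8 : (B.d n ^ ε) ^ 2 * (G n).L.card * Z'.card ^ 2 ≤
        ∑ i ∈ (G n).L, (((G n).hts i ∩ Z').card : ℝ) ^ 2 := by
      refine le_of_mul_le_mul_left ?_ hLc
      calc _ = (B.d n ^ ε * (G n).L.card * Z'.card) ^ 2 := by ring
        _ ≤ _ := e7
    have e9 : B.d n ^ (-ν p + 3 * ε) ≤ B.d n ^ (-ν p + ε / D) * (B.d n ^ ε) ^ 2 := by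
      rw [sq, ← rpow_add', ← rpow_add']
      refine rpow_anti B n ?_
      have : ε / D ≤ ε := div_le_self hε.le hD
      linarith
    calc B.d n ^ (-ν p + 3 * ε) * (Z'.card ^ 2 * (G n).L.card)
        ≤ B.d n ^ (-ν p + ε / D) * (B.d n ^ ε) ^ 2 * (Z'.card ^ 2 * (G n).L.card) :=
          mul_le_mul_of_nonneg_right e9 (by positivity)
      _ = B.d n ^ (-ν p + ε / D) * ((B.d n ^ ε) ^ 2 * (G n).L.card * Z'.card ^ 2) := by ring
      _ ≤ _ := mul_le_mul_of_nonneg_left e8 (hpow _).le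
  have hfin := hTlow.trans hTup
  have hpos : (0 : ℝ) < Z'.card ^ 2 * (G n).L.card := by positivity
  have h1 := le_of_mul_le_mul_right hfin hpos
  have h2 : B.d n ^ (-ν p + 4 * ε) < B.d n ^ (-ν p + 3 * ε) :=
    Real.rpow_lt_rpow_of_exponent_gt (B.pos n) (B.lt n) (by linarith)
  linarith

open Classical in
/-- **Kaufman on a heavy set of heights**, fixed losses -/
theorem kauf_box_R (H : RModel B G σ R Leg ν D) (pS pT r : κ → ℝ) (hpS : pS ∈ Leg)
    (hpT : pT ∈ Leg) (hr : r ∈ Leg) (hTr : ∀ j, pT j ≤ r j) (J : ℕ) (x b : ℕ → ℝ)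
    (Q : ℕ → κ → ℝ) (hQ : ∀ j ≤ J, Q j ∈ Leg) (hbJ : b J = 0) {CT CN Cb CD ε : ℝ}
    (hCT : 0 < CT) (hCN : 0 < CN) (hCb : 0 ≤ Cb) (hε : 0 < ε)
    (Dist : ℕ → ℕ → ℕ → ℕ → ℝ)
    (Hy : ∀ᶠ n in (U : Filter ℕ), ∃ Z' ⊆ (G n).Z, Z'.Nonempty ∧ ∀ k₀ ∈ Z', ∃ K ⊆ Z',
      (((Z' \ K).card : ℝ) ≤ B.d n ^ ((D + 5) * ε) * Z'.card) ∧
      ∀ i₀ ∈ (G n).slice k₀,
        (∀ i ∈ (G n).box pS ε i₀ k₀, ∀ i' ∈ (G n).box pS ε i₀ k₀,
          Dist n k₀ i i' ≤ B.d n ^ (x 0 - CD * ε)) ∧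
        (∀ j ≤ J, ∀ i ∈ (G n).box pS ε i₀ k₀, ∀ i' ∈ (G n).box pS ε i₀ k₀,
          Dist n k₀ i i' ≤ B.d n ^ (x j - CD * ε) → (G n).loose (Q j) (CN * ε) k₀ i i') ∧
        (∀ k ∈ K, ∀ i ∈ (G n).box pS ε i₀ k₀, ∀ i' ∈ (G n).box pS ε i₀ k₀,
          (i, k) ∈ (G n).I → (i', k) ∈ (G n).I → (G n).loose pT (CT * ε) k i i') ∧
        (∀ j < J, ∀ i ∈ (G n).box pS ε i₀ k₀, ∀ i' ∈ (G n).box pS ε i₀ k₀,
          B.d n ^ (x (j + 1) - CD * ε) < Dist n k₀ i i' →
          ((K.filter fun k => (i, k) ∈ (G n).I ∧ (i', k) ∈ (G n).I ∧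
            (G n).loose r (D ^ 5 * (CT * ε)) k i i').card : ℝ) ≤
              B.d n ^ (b j - Cb * ε) * Z'.card)) :
    ∃ j ≤ J, (ν pS - ν (Q j)) + b j ≤ (ν pT - ν r) +
      ((D ^ 2 + 1) * CT + D * CN + Cb + 2 * D + 12) * ε := by
  have hD := H.D1
  have hD0 : 0 < D := by linarith
  by_contra hcon
  push Not at hcon
  have hCTε : 0 < CT * ε := by positivity
  have hCNε : 0 < CN * ε := by positivity
  have hupQ : ∀ᶠ n in (U : Filter ℕ), ∀ j ∈ range (J + 1), ∀ i k, (i, k) ∈ (G n).I →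
      (((G n).box (Q j) (CN * ε) i k).card : ℝ) ≤ B.d n ^ (-ν (Q j) - D * (CN * ε)) := by
    rw [Filter.eventually_all_finset]
    intro j hj
    exact H.up (Q j) (hQ j (by simpa [Nat.lt_succ_iff] using hj)) (CN * ε) hCNε
  suffices hfalse : ∀ᶠ n in (U : Filter ℕ), False by
    obtain ⟨n, hn⟩ := hfalse.exists
    exact hn
  filter_upwards [Hy, pick_R H pS hpS hε, H.low pS hpS ε hε, hupQ,
    H.exists_lab_loose pT r hpT hr hTr hCTε, ev_small B hε 2,
    ev_small B hε ((J : ℝ) + 2)] with n hH hpick hlow hupn hcell hc2 hcJ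
  have hpow : ∀ t : ℝ, 0 < B.d n ^ t := fun t => rpos B n t
  obtain ⟨Z', hZ', hne, hH⟩ := hH
  obtain ⟨k₀, hk₀, i₀, hi₀, hinc⟩ := hpick Z' hZ' hne
  obtain ⟨K, hKZ, hbad, hH⟩ := hH k₀ hk₀
  obtain ⟨hD1, hnear, hinT, hhts⟩ := hH i₀ hi₀
  have hI0 := H.memSlice.1 hi₀
  have hSne : ((G n).box pS ε i₀ k₀).Nonempty := ⟨i₀, H.self_mem_box pS ε hI0⟩
  have hSlow := hlow i₀ k₀ hI0
  set S := (G n).box pS ε i₀ k₀ with hS
  have hSI : ∀ i ∈ S, (i, k₀) ∈ (G n).I := fun i hi => H.memSlice.1 (RCfg.box_subset_slice hi)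
  have hSc : (0 : ℝ) < S.card := by exact_mod_cast card_pos.2 hSne
  have hZc : (0 : ℝ) < Z'.card := by exact_mod_cast card_pos.2 hne
  -- incidences over `K`
  have hK1 : B.d n ^ ((D + 5) * ε) * ((S.card : ℝ) * Z'.card) ≤
      ∑ k ∈ K, ((S ∩ (G n).slice k).card : ℝ) := by
    have h1 : ∑ k ∈ Z', ((S ∩ (G n).slice k).card : ℝ) =
        ∑ k ∈ Z' \ K, ((S ∩ (G n).slice k).card : ℝ) + ∑ k ∈ K, ((S ∩ (G n).slice k).card : ℝ) :=
      (sum_sdiff hKZ).symm
    have h2 : ∑ k ∈ Z' \ K, ((S ∩ (G n).slice k).card : ℝ) ≤ (Z' \ K).card * S.card := by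
      rw [← nsmul_eq_mul, ← sum_const]
      refine sum_le_sum fun k _ => ?_
      exact_mod_cast card_le_card inter_subset_left
    have h3 : ((Z' \ K).card : ℝ) * S.card ≤ B.d n ^ ((D + 5) * ε) * Z'.card * S.card :=
      mul_le_mul_of_nonneg_right hbad hSc.le
    have e1 : B.d n ^ ((D + 5) * ε) = B.d n ^ ((D + 4) * ε) * B.d n ^ ε := by
      rw [← rpow_add']; congr 1; ring
    have h4 : 2 * B.d n ^ ((D + 5) * ε) * ((S.card : ℝ) * Z'.card) ≤
        B.d n ^ ((D + 4) * ε) * ((S.card : ℝ) * Z'.card) := by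
      refine mul_le_mul_of_nonneg_right ?_ (by positivity)
      rw [e1]
      have := hpow ((D + 4) * ε)
      calc 2 * (B.d n ^ ((D + 4) * ε) * B.d n ^ ε) = B.d n ^ ((D + 4) * ε) * (2 * B.d n ^ ε) := by
            ring
        _ ≤ B.d n ^ ((D + 4) * ε) * 1 := mul_le_mul_of_nonneg_left hc2 this.le
        _ = _ := mul_one _
    have h5 : B.d n ^ ((D + 4) * ε) * ((S.card : ℝ) * Z'.card) ≤
        ∑ k ∈ Z', ((S ∩ (G n).slice k).card : ℝ) := hinc
    have h6 : B.d n ^ ((D + 5) * ε) * Z'.card * S.card =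
        B.d n ^ ((D + 5) * ε) * ((S.card : ℝ) * Z'.card) := by ring
    have h7 : 2 * B.d n ^ ((D + 5) * ε) * ((S.card : ℝ) * Z'.card) =
      2 * (B.d n ^ ((D + 5) * ε) * ((S.card : ℝ) * Z'.card)) := by ring
    linarith
  -- labels
  have hlab : ∀ k ∈ K, ∃ lab : ℕ → ℕ, (∀ t ∈ S ∩ (G n).slice k, ∀ t' ∈ S ∩ (G n).slice k,
      lab t = lab t' → (G n).loose r (D ^ 5 * (CT * ε)) k t t') ∧
      (((S ∩ (G n).slice k).image lab).card : ℝ) ≤
        B.d n ^ (-(ν pT - ν r) - (D ^ 2 + 1) * (CT * ε)) := by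
    intro k hk
    refine hcell k (S ∩ (G n).slice k) inter_subset_right ?_
    intro i hi i' hi'
    rw [mem_inter] at hi hi'
    exact hinT k hk i hi.1 i' hi'.1 (H.memSlice.1 hi.2) (H.memSlice.1 hi'.2)
  choose! lab hlab1 hlab2 using hlab
  set M : ℝ := B.d n ^ (-(ν pT - ν r) - (D ^ 2 + 1) * (CT * ε)) with hM
  have hen := energy (S := S) (K := K) (fun k => S ∩ (G n).slice k)
    (fun k _ => inter_subset_left) (fun k i => ((lab k i : ℕ) : ℤ))
    (fun k i i' => (i, k) ∈ (G n).I ∧ (i', k) ∈ (G n).I ∧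
      (G n).loose r (D ^ 5 * (CT * ε)) k i i') M (by
      intro k hk i hi i' hi' hl
      have hl' : lab k i = lab k i' := by exact_mod_cast hl
      exact ⟨H.memSlice.1 (mem_inter.1 hi).2, H.memSlice.1 (mem_inter.1 hi').2,
        hlab1 k hk i hi i' hi' hl'⟩) (by
      intro k hk
      refine le_trans ?_ (hlab2 k hk)
      have e1 : ((S ∩ (G n).slice k).image fun i => ((lab k i : ℕ) : ℤ)) =
          ((S ∩ (G n).slice k).image (lab k)).image (fun m : ℕ => (m : ℤ)) := by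
        rw [Finset.image_image]; rfl
      rw [e1]
      exact_mod_cast card_image_le)
  set h : ℕ → ℕ → ℝ := fun i i' => ((K.filter fun k => (i, k) ∈ (G n).I ∧ (i', k) ∈ (G n).I ∧
      (G n).loose r (D ^ 5 * (CT * ε)) k i i').card : ℝ) with hh
  set bb : ℕ → ℝ := fun j => (if j < J then B.d n ^ (b j - Cb * ε) else 1) * Z'.card with hbb
  set aa : ℕ → ℝ := fun j => B.d n ^ (ν pS - ν (Q j) - (D * CN + 1) * ε) * S.card with haa
  have hpair := pair_sum_le (S := S) h (Dist n k₀) (fun j => B.d n ^ (x j - CD * ε)) bb J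
    (by
      intro j _
      simp only [hbb]
      split_ifs
      · exact (mul_pos (hpow _) hZc).le
      · positivity)
    hD1
    (by
      intro j hj i hi i' hi' hd
      simp only [hbb, if_pos hj]
      exact hhts j hj i hi i' hi' hd)
    (by
      intro i hi i' hi'
      simp only [hbb, lt_irrefl, if_false, one_mul, hh]
      exact_mod_cast (card_filter_le _ _).trans (card_le_card hKZ))
    aa (by
      intro j hj i hi
      have hsub : (S.filter fun i' => Dist n k₀ i i' ≤ B.d n ^ (x j - CD * ε)) ⊆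
          (G n).box (Q j) (CN * ε) i k₀ := by
        intro i' hi'
        rw [mem_filter] at hi'
        exact RCfg.mem_box.2 ⟨RCfg.box_subset_slice hi'.1, hnear j hj i hi i' hi'.1 hi'.2⟩
      have h1 := hupn j (by simp; omega) i k₀ (hSI i hi)
      have h2 : ((S.filter fun i' => Dist n k₀ i i' ≤ B.d n ^ (x j - CD * ε)).card : ℝ) ≤
          B.d n ^ (-ν (Q j) - D * (CN * ε)) := le_trans (by exact_mod_cast card_le_card hsub) h1
      refine h2.trans ?_
      have e1 : B.d n ^ (-ν (Q j) - D * (CN * ε)) =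
          B.d n ^ (ν pS - ν (Q j) - (D * CN + 1) * ε) * B.d n ^ (-ν pS + ε) := by
        rw [← rpow_add']; congr 1; ring
      rw [e1]
      exact mul_le_mul_of_nonneg_left hSlow (hpow _).le)
  -- combine
  set E : ℝ := ((D ^ 2 + 1) * CT + D * CN + Cb + 2 * D + 12) * ε with hE
  have hterm : ∀ j ∈ range (J + 1), aa j * bb j ≤
      B.d n ^ (ν pT - ν r + E - (D * CN + 1) * ε - Cb * ε) * (S.card * Z'.card) := by
    intro j hj
    have hjJ : j ≤ J := by simpa [Nat.lt_succ_iff] using hj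
    have h1 := hcon j hjJ
    have hSZ : (0 : ℝ) ≤ S.card * Z'.card := by positivity
    simp only [haa, hbb]
    by_cases hj1 : j < J
    · rw [if_pos hj1]
      have e1 : B.d n ^ (ν pS - ν (Q j) - (D * CN + 1) * ε) * (S.card : ℝ) *
          (B.d n ^ (b j - Cb * ε) * Z'.card) =
          B.d n ^ (ν pS - ν (Q j) + b j - (D * CN + 1) * ε - Cb * ε) * (S.card * Z'.card) := by
        have : ν pS - ν (Q j) + b j - (D * CN + 1) * ε - Cb * ε =
          (ν pS - ν (Q j) - (D * CN + 1) * ε) + (b j - Cb * ε) := by ring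
        rw [this, rpow_add']; ring
      rw [e1]
      exact mul_le_mul_of_nonneg_right (rpow_anti B n (by linarith)) hSZ
    · have hj2 : j = J := by omega
      subst hj2
      rw [if_neg hj1, one_mul]
      rw [hbJ, add_zero] at h1
      have e1 : B.d n ^ (ν pS - ν (Q j) - (D * CN + 1) * ε) * (S.card : ℝ) * (Z'.card : ℝ) =
          B.d n ^ (ν pS - ν (Q j) - (D * CN + 1) * ε) * (S.card * Z'.card) := by ring
      rw [e1]
      refine mul_le_mul_of_nonneg_right (rpow_anti B n ?_) hSZ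
      have : 0 ≤ Cb * ε := by positivity
      linarith
  have hsum : ∑ j ∈ range (J + 1), aa j * bb j ≤ ((J : ℝ) + 1) *
      (B.d n ^ (ν pT - ν r + E - (D * CN + 1) * ε - Cb * ε) * (S.card * Z'.card)) := by
    refine (sum_le_sum hterm).trans (le_of_eq ?_)
    rw [sum_const, card_range, nsmul_eq_mul]
    push_cast
    ring
  have hfinal : (B.d n ^ ((D + 5) * ε) * ((S.card : ℝ) * Z'.card)) ^ 2 ≤
      (Z'.card : ℝ) * (M * (S.card * (((J : ℝ) + 1) *
      (B.d n ^ (ν pT - ν r + E - (D * CN + 1) * ε - Cb * ε) * (S.card * Z'.card))))) := by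
    have h4 : (B.d n ^ ((D + 5) * ε) * ((S.card : ℝ) * Z'.card)) ^ 2 ≤
        (∑ k ∈ K, ((S ∩ (G n).slice k).card : ℝ)) ^ 2 := by
      refine pow_le_pow_left₀ ?_ hK1 2
      have := hpow ((D + 5) * ε)
      positivity
    refine h4.trans (hen.trans ?_)
    have hKc : (K.card : ℝ) ≤ Z'.card := by exact_mod_cast card_le_card hKZ
    have hM0 : 0 ≤ M := (hpow _).le
    have h5 : ∑ i ∈ S, ∑ i' ∈ S, h i i' ≤ S.card * (((J : ℝ) + 1) *
        (B.d n ^ (ν pT - ν r + E - (D * CN + 1) * ε - Cb * ε) * (S.card * Z'.card))) :=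
      hpair.trans (mul_le_mul_of_nonneg_left hsum hSc.le)
    refine mul_le_mul hKc (mul_le_mul_of_nonneg_left h5 hM0) ?_ hZc.le
    refine mul_nonneg hM0 (sum_nonneg fun i _ => sum_nonneg fun i' _ => Nat.cast_nonneg _)
  have hP : (0 : ℝ) < (S.card * Z'.card) ^ 2 := by positivity
  have hfin2 : (B.d n ^ ((D + 5) * ε)) ^ 2 ≤ ((J : ℝ) + 1) *
      (M * B.d n ^ (ν pT - ν r + E - (D * CN + 1) * ε - Cb * ε)) := by
    refine le_of_mul_le_mul_right ?_ hP
    calc (B.d n ^ ((D + 5) * ε)) ^ 2 * ((S.card : ℝ) * Z'.card) ^ 2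
        = (B.d n ^ ((D + 5) * ε) * ((S.card : ℝ) * Z'.card)) ^ 2 := by ring
      _ ≤ _ := hfinal
      _ = _ := by ring
  have e1 : (B.d n ^ ((D + 5) * ε)) ^ 2 = B.d n ^ ((2 * D + 10) * ε) := by
    rw [sq, ← rpow_add']; congr 1; ring
  have e2 : M * B.d n ^ (ν pT - ν r + E - (D * CN + 1) * ε - Cb * ε) =
      B.d n ^ ((2 * D + 10) * ε) * B.d n ^ ε := by
    rw [hM, ← rpow_add', ← rpow_add']
    congr 1
    rw [hE]
    ring
  rw [e1, e2] at hfin2
  have h1 := hpow ((2 * D + 10) * ε)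
  have h2 := hpow ε
  have h3 : ((J : ℝ) + 1) * B.d n ^ ε < 1 := by
    have : ((J : ℝ) + 2) * B.d n ^ ε = ((J : ℝ) + 1) * B.d n ^ ε + B.d n ^ ε := by ring
    linarith
  have h4 : ((J : ℝ) + 1) * (B.d n ^ ((2 * D + 10) * ε) * B.d n ^ ε) <
      B.d n ^ ((2 * D + 10) * ε) := by
    calc ((J : ℝ) + 1) * (B.d n ^ ((2 * D + 10) * ε) * B.d n ^ ε) =
          B.d n ^ ((2 * D + 10) * ε) * (((J : ℝ) + 1) * B.d n ^ ε) := by ring
      _ < B.d n ^ ((2 * D + 10) * ε) * 1 := mul_lt_mul_of_pos_left h3 h1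
      _ = _ := mul_one _
  linarith

end Crest.Agent.R136.CD366
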