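import Crest.Agent.R136.CD1_366
import Crest.Agent.R138.TwC_501

/-!
# R136: the data of K3core over 356's relative models (helper366)

`K3`: four active slots `sN sP sX sC`, frozen slots `Fz`; `no_flat_R`, `no_slope_R`.
-/

set_option autoImplicit false
set_option linter.unusedVariables false
set_option linter.unusedSectionVars false

open Filter Topology Finset

namespace Crest.Agent.R136.CD366

open Crest.Agent.R138.Ex926 (Base U)
open Crest.Agent.R138.TwC501 (root_lin root_sq)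
open Crest.Agent.R136.Gf356

variable {κ : Type} [DecidableEq κ] {B : Base} {G : ℕ → RCfg κ} {Leg : Set (κ → ℝ)}
  {ν : (κ → ℝ) → ℝ} {σ R D : ℝ}

/-- frozen slots at `y`, four active slots, the other slots at `0` -/
def bx (Fz : Finset κ) (sN sP sX sC : κ) (y n p x c : ℝ) : κ → ℝ := fun s =>
  if s = sN then n else if s = sP then p else if s = sX then x else if s = sC then c
  else if s ∈ Fz then y else 0

/-- the data of K3core -/
structure K3 (B : Base) (G : ℕ → RCfg κ) (Leg : Set (κ → ℝ)) (ν : (κ → ℝ) → ℝ) (Fz : Finset κ)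
    (sN sP sX sC : κ) (f : ℕ → ℕ → ℝ) (R0 C1 a c : ℝ) : Prop where
  R0_pos : 0 < R0
  C1_one : 1 ≤ C1
  c_pos : 0 < c
  NP : sN ≠ sP
  NX : sN ≠ sX
  NC : sN ≠ sC
  PX : sP ≠ sX
  PC : sP ≠ sC
  XC : sX ≠ sC
  leg : ∀ y n p x c' : ℝ, 0 ≤ y → y ≤ R0 → 0 ≤ n → n ≤ y → 0 ≤ p → p ≤ y → 0 ≤ x → x ≤ y →
    0 ≤ c' → c' ≤ y → bx Fz sN sP sX sC y n p x c' ∈ Leg
  bd : ∀ᶠ n in (U : Filter ℕ), ∀ k ∈ (G n).Z, |(G n).z k| ≤ 1 ∧ |f n k| ≤ 1
  ev : ∀ y : ℝ, 0 ≤ y → y ≤ R0 → ∀ ε : ℝ, 0 < ε → ∀ᶠ n in (U : Filter ℕ), ∀ k₀ k i i',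
    (i, k₀) ∈ (G n).I → (i', k₀) ∈ (G n).I → (i, k) ∈ (G n).I → (i', k) ∈ (G n).I →
    (G n).loose (bx Fz sN sP sX sC y 0 0 0 0) ε k₀ i i' →
    (G n).loose (bx Fz sN sP sX sC y 0 0 0 0) (C1 * ε) k i i' ∧
    |(G n).rel k i i' sN - ((G n).rel k₀ i i' sN + ((G n).z k - (G n).z k₀) * (G n).rel k₀ i i' sP
      - (f n k - f n k₀) * ((G n).rel k₀ i i' sX +
        ((G n).z k - (G n).z k₀) * (G n).rel k₀ i i' sC))| ≤ B.d n ^ (y - C1 * ε)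
  hN : ∀ y : ℝ, 0 ≤ y → y ≤ R0 → ν (bx Fz sN sP sX sC y 0 0 0 0) -
    ν (bx Fz sN sP sX sC y y 0 0 0) ≤ a * y
  h1 : ∀ y t : ℝ, 0 ≤ t → t ≤ y → y ≤ R0 → (a + c) * t ≤ ν (bx Fz sN sP sX sC y 0 y y 0) -
    ν (bx Fz sN sP sX sC y t y y t)
  h2 : ∀ y t : ℝ, 0 ≤ t → t ≤ y → y ≤ R0 → (a + c) * t ≤ ν (bx Fz sN sP sX sC y 0 0 0 0) -
    ν (bx Fz sN sP sX sC y t t 0 0)
  h3 : ∀ t : ℝ, 0 ≤ t → t ≤ R0 → (a + c) * t ≤ ν (bx Fz sN sP sX sC R0 R0 0 0 R0) -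
    ν (bx Fz sN sP sX sC R0 R0 t t R0)

section bx

variable {Fz : Finset κ} {sN sP sX sC : κ} {y n p x c : ℝ}

theorem bx_N : bx Fz sN sP sX sC y n p x c sN = n := if_pos rfl

theorem bx_P (h : sN ≠ sP) : bx Fz sN sP sX sC y n p x c sP = p := by
  unfold bx
  rw [if_neg h.symm, if_pos rfl]

theorem bx_X (h1 : sN ≠ sX) (h2 : sP ≠ sX) : bx Fz sN sP sX sC y n p x c sX = x := by
  unfold bx
  rw [if_neg h1.symm, if_neg h2.symm, if_pos rfl]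

theorem bx_C (h1 : sN ≠ sC) (h2 : sP ≠ sC) (h3 : sX ≠ sC) :
    bx Fz sN sP sX sC y n p x c sC = c := by
  unfold bx
  rw [if_neg h1.symm, if_neg h2.symm, if_neg h3.symm, if_pos rfl]

theorem bx_mono {y' n' p' x' c' : ℝ} (hy : y ≤ y') (hn : n ≤ n') (hp : p ≤ p') (hx : x ≤ x')
    (hc : c ≤ c') (s : κ) :
    bx Fz sN sP sX sC y n p x c s ≤ bx Fz sN sP sX sC y' n' p' x' c' s := by
  unfold bx
  split_ifs <;> first | assumption | exact le_rfl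

end bx

/-- elementary: a box around a centre, seen from any of its points -/
theorem box_pair (H : RUnif B G Leg ν D) (p : κ → ℝ) (hp : p ∈ Leg) {ε : ℝ} (hε : 0 < ε) :
    ∀ᶠ n in (U : Filter ℕ), ∀ k i₀ i i', (i₀, k) ∈ (G n).I → i ∈ (G n).box p ε i₀ k →
      i' ∈ (G n).box p ε i₀ k → (G n).loose p (D ^ 2 * ε) k i i' := by
  have hD := H.D1
  have hD0 : 0 < D := by linarith
  filter_upwards [H.symm p hp ε hε, H.tri p hp (D * ε) (by positivity)] with n hs ht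
    k i₀ i i' h0 hi hi'
  obtain ⟨a1, a2⟩ := RCfg.mem_box.1 hi
  obtain ⟨b1, b2⟩ := RCfg.mem_box.1 hi'
  have hI := H.memSlice.1 a1
  have hI' := H.memSlice.1 b1
  have c1 := hs k i₀ i h0 hI a2
  have c2 : (G n).loose p (D * ε) k i₀ i' := H.loose_mono (fun _ => le_rfl) (by nlinarith) b2
  have c3 := ht k i i₀ i' hI h0 hI' c1 c2
  have e1 : D * (D * ε) = D ^ 2 * ε := by ring
  rwa [e1] at c3

open Classical in
/-- Frostman on the mesh, for arbitrary sets of heights -/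
theorem frost_set (H : RModel B G σ R Leg ν D) {hh : ℝ} (hh0 : 0 < hh) {N : ℕ}
    (hN : (N : ℝ) * hh ≤ R) {ε : ℝ} (hε : 0 < ε) :
    ∀ᶠ n in (U : Filter ℕ), ∀ l ∈ range (N + 1), ∀ T ⊆ (G n).Z,
      (∀ k ∈ T, ∀ k' ∈ T, |(G n).z k' - (G n).z k| ≤ B.d n ^ ((l : ℝ) * hh)) →
      (T.card : ℝ) ≤ B.d n ^ (σ * ((l : ℝ) * hh) - ε) * ((G n).Z.card : ℝ) := by
  have h1 : ∀ᶠ n in (U : Filter ℕ), ∀ l ∈ range (N + 1), ∀ k ∈ (G n).Z,
      (((G n).hbox ((l : ℝ) * hh) k).card : ℝ) ≤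
        B.d n ^ (σ * ((l : ℝ) * hh) - ε) * ((G n).Z.card : ℝ) := by
    rw [Filter.eventually_all_finset]
    intro l hl
    have hl1 : (l : ℝ) ≤ N := by
      have : l ≤ N := by simpa [Nat.lt_succ_iff] using hl
      exact_mod_cast this
    exact H.frost _ (by positivity) ((mul_le_mul_of_nonneg_right hl1 hh0.le).trans hN) ε hε
  filter_upwards [h1] with n hn l hl T hT hTc
  rcases T.eq_empty_or_nonempty with rfl | ⟨k, hk⟩
  · rw [card_empty, Nat.cast_zero]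
    exact mul_nonneg (rpos B n _).le (Nat.cast_nonneg _)
  · refine le_trans ?_ (hn l hl k (hT hk))
    refine mod_cast card_le_card ?_
    intro k' hk'
    unfold RCfg.hbox
    rw [mem_filter]
    refine ⟨hT hk', ?_⟩
    have := hTc k hk k' hk'
    rwa [← H.base n] at this

/-- exponent of the number of common heights -/
noncomputable def bj (τ hh : ℝ) (J j : ℕ) : ℝ :=
  if j < J then τ * (((J - 1 - j : ℕ) : ℝ) * hh) else 0

theorem bj_lt {τ hh : ℝ} {J j : ℕ} (h : j < J) :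
    bj τ hh J j = τ * (((J - 1 - j : ℕ) : ℝ) * hh) := if_pos h

theorem bj_top (τ hh : ℝ) (J : ℕ) : bj τ hh J J = 0 := if_neg (lt_irrefl _)

theorem castJ {J j : ℕ} (h : j < J) : ((J - 1 - j : ℕ) : ℝ) = (J : ℝ) - 1 - j := by
  have h1 : J = (J - 1 - j) + 1 + j := by omega
  have h2 : (J : ℝ) = ((J - 1 - j : ℕ) : ℝ) + 1 + j := by exact_mod_cast h1
  linarith

/-- the arithmetic of the contradiction -/
theorem arith {a c τ hh E : ℝ} {J j : ℕ} (hj : j ≤ J) (ha0 : 0 ≤ a) (haτ : a < τ) (hτ1 : τ ≤ 1)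
    (hc : 0 < c) (hJ : 4 < min (τ - a) c * ((J : ℝ) - 1)) (hh0 : 0 < hh) (hE : E ≤ hh)
    (hcond : (a + c) * ((j : ℝ) * hh) + bj τ hh J j ≤ a * (((J : ℝ) + 1) * hh) + E) : False := by
  set μ := min (τ - a) c with hμ
  have hμ0 : 0 < μ := lt_min (by linarith) hc
  have h1 : μ ≤ τ - a := min_le_left _ _
  have h2 : μ ≤ c := min_le_right _ _
  have hj0 : (0 : ℝ) ≤ j := Nat.cast_nonneg _
  clear_value μ
  rcases lt_or_eq_of_le hj with hlt | rfl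
  · rw [bj_lt hlt] at hcond
    have hcast := castJ hlt
    have hx0 : (0 : ℝ) ≤ ((J - 1 - j : ℕ) : ℝ) := Nat.cast_nonneg _
    set x : ℝ := ((J - 1 - j : ℕ) : ℝ) with hx
    clear_value x
    have hJ' : (J : ℝ) = x + 1 + j := by linarith
    rw [hJ'] at hJ hcond
    have e3 : μ * j ≤ c * j := mul_le_mul_of_nonneg_right h2 hj0
    have e4 : μ * x ≤ (τ - a) * x := mul_le_mul_of_nonneg_right h1 hx0
    have e5 : (c * j + (τ - a) * x - 2 * a - 1) * hh ≤ 0 := by nlinarith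
    have e6 : 0 < c * j + (τ - a) * x - 2 * a - 1 := by
      have : μ * (x + 1 + j - 1) = μ * j + μ * x := by ring
      rw [this] at hJ
      linarith
    nlinarith
  · rw [bj_top] at hcond
    have e3 : μ * j ≤ c * j := mul_le_mul_of_nonneg_right h2 hj0
    have e5 : (c * j - a - 1) * hh ≤ 0 := by nlinarith
    have e6 : 0 < c * j - a - 1 := by
      have : μ * ((j : ℝ) - 1) = μ * j - μ := by ring
      rw [this] at hJ
      linarith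
    nlinarith

open Classical in
/-- Kaufman on a heavy set, contradiction form on a mesh -/
theorem kauf_contra (H : RModel B G σ R Leg ν D) (pS pT r : κ → ℝ) (hpS : pS ∈ Leg)
    (hpT : pT ∈ Leg) (hr : r ∈ Leg) (hTr : ∀ j, pT j ≤ r j) (J : ℕ) (Q : ℕ → κ → ℝ)
    (hQ : ∀ j ≤ J, Q j ∈ Leg) {a c τ hh CT CN Cb CD ε : ℝ} (ha0 : 0 ≤ a) (haτ : a < τ)
    (hτ1 : τ ≤ 1) (hc : 0 < c) (hJ : 4 < min (τ - a) c * ((J : ℝ) - 1)) (hh0 : 0 < hh)
    (hCT : 0 < CT) (hCN : 0 < CN) (hCb : 0 ≤ Cb) (hε : 0 < ε)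
    (hE : ((D ^ 2 + 1) * CT + D * CN + Cb + 2 * D + 12) * ε ≤ hh)
    (hT : ν pT - ν r ≤ a * (((J : ℝ) + 1) * hh))
    (hQc : ∀ j ≤ J, (a + c) * ((j : ℝ) * hh) ≤ ν pS - ν (Q j))
    (Dist : ℕ → ℕ → ℕ → ℕ → ℝ)
    (Hy : ∀ᶠ n in (U : Filter ℕ), ∃ Z' ⊆ (G n).Z, Z'.Nonempty ∧ ∀ k₀ ∈ Z', ∃ K ⊆ Z',
      (((Z' \ K).card : ℝ) ≤ B.d n ^ ((D + 5) * ε) * Z'.card) ∧
      ∀ i₀ ∈ (G n).slice k₀,
        (∀ i ∈ (G n).box pS ε i₀ k₀, ∀ i' ∈ (G n).box pS ε i₀ k₀,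
          Dist n k₀ i i' ≤ B.d n ^ (-(CD * ε))) ∧
        (∀ j ≤ J, ∀ i ∈ (G n).box pS ε i₀ k₀, ∀ i' ∈ (G n).box pS ε i₀ k₀,
          Dist n k₀ i i' ≤ B.d n ^ ((j : ℝ) * hh - CD * ε) →
            (G n).loose (Q j) (CN * ε) k₀ i i') ∧
        (∀ k ∈ K, ∀ i ∈ (G n).box pS ε i₀ k₀, ∀ i' ∈ (G n).box pS ε i₀ k₀,
          (i, k) ∈ (G n).I → (i', k) ∈ (G n).I → (G n).loose pT (CT * ε) k i i') ∧
        (∀ j < J, ∀ i ∈ (G n).box pS ε i₀ k₀, ∀ i' ∈ (G n).box pS ε i₀ k₀,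
          B.d n ^ (((j + 1 : ℕ) : ℝ) * hh - CD * ε) < Dist n k₀ i i' →
          ((K.filter fun k => (i, k) ∈ (G n).I ∧ (i', k) ∈ (G n).I ∧
            (G n).loose r (D ^ 5 * (CT * ε)) k i i').card : ℝ) ≤
              B.d n ^ (τ * (((J - 1 - j : ℕ) : ℝ) * hh) - Cb * ε) * Z'.card)) : False := by
  obtain ⟨j, hj, h⟩ := kauf_box_R H pS pT r hpS hpT hr hTr J (fun j => (j : ℝ) * hh)
    (bj τ hh J) Q hQ (bj_top _ _ _) (CT := CT) (CN := CN) (Cb := Cb) (CD := CD) (ε := ε)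
    hCT hCN hCb hε Dist (by
      filter_upwards [Hy] with n hn
      obtain ⟨Z', hZ', hne, hn⟩ := hn
      refine ⟨Z', hZ', hne, fun k₀ hk₀ => ?_⟩
      obtain ⟨K, hK, hKc, hn⟩ := hn k₀ hk₀
      refine ⟨K, hK, hKc, fun i₀ hi₀ => ?_⟩
      obtain ⟨g1, g2, g3, g4⟩ := hn i₀ hi₀
      refine ⟨?_, g2, g3, ?_⟩
      · intro i hi i' hi'
        refine (g1 i hi i' hi').trans (le_of_eq ?_)
        congr 1
        push_cast
        ring
      · intro j hj i hi i' hi' hd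
        rw [bj_lt hj]
        exact g4 j hj i hi i' hi' hd)
  refine arith hj ha0 haτ hτ1 hc hJ hh0 hE ?_
  have := hQc j hj
  linarith

end Crest.Agent.R136.CD366
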