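import Crest.Agent.R136.CD2_366

/-!
# R136: K3core over relative models: flat strips and sloped strips (helper366)
-/

set_option autoImplicit false
set_option linter.unusedVariables false
set_option linter.unusedSectionVars false

open Filter Topology Finset

namespace Crest.Agent.R136.CD366

open Crest.Agent.R138.Ex926 (Base U)
open Crest.Agent.R138.TwC501 (root_lin root_sq)
open Crest.Agent.R136.Gf356

variable {κ : Type} [DecidableEq κ] {B : Base} {G : ℕ → RCfg κ} {Leg : Set (κ → ℝ)}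
  {ν : (κ → ℝ) → ℝ} {σ R D : ℝ} {Fz : Finset κ} {sN sP sX sC : κ} {f : ℕ → ℕ → ℝ}
  {R0 C1 a c : ℝ}

theorem K3.a_nonneg (H : RModel B G σ R Leg ν D) (K : K3 B G Leg ν Fz sN sP sX sC f R0 C1 a c) :
    0 ≤ a := by
  have hR := K.R0_pos
  have h1 := K.hN R0 hR.le le_rfl
  have h2 := H.nu_anti (p := bx Fz sN sP sX sC R0 0 0 0 0) (p' := bx Fz sN sP sX sC R0 R0 0 0 0)
    (K.leg R0 0 0 0 0 hR.le le_rfl le_rfl hR.le le_rfl hR.le le_rfl hR.le le_rfl hR.le)
    (K.leg R0 R0 0 0 0 hR.le le_rfl hR.le le_rfl le_rfl hR.le le_rfl hR.le le_rfl hR.le)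
    (fun s => bx_mono le_rfl hR.le le_rfl le_rfl le_rfl s)
  by_contra hcon
  push Not at hcon
  have : a * R0 < 0 := mul_neg_of_neg_of_pos hcon hR
  linarith

/-- absorbing a constant and a power into a larger loss -/
theorem absorb (B : Base) {n : ℕ} {K s t : ℝ} (h : K ≤ B.d n ^ (-(s - t))) :
    K * B.d n ^ s ≤ B.d n ^ t := by
  have e : B.d n ^ t = B.d n ^ (-(s - t)) * B.d n ^ s := by
    rw [← rpow_add']; congr 1; ring
  rw [e]
  exact mul_le_mul_of_nonneg_right h (rpos B n _).le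

theorem le_div_pow (B : Base) (n : ℕ) {v K s t w : ℝ} (hv : v * B.d n ^ w ≤ K * B.d n ^ s)
    (hK : K ≤ B.d n ^ (-(s - w - t))) : v ≤ B.d n ^ t := by
  have hw := rpos B n w
  refine le_of_mul_le_mul_right ?_ hw
  refine hv.trans ?_
  have e : B.d n ^ t * B.d n ^ w = B.d n ^ (-(s - w - t)) * B.d n ^ s := by
    rw [← rpow_add', ← rpow_add']; congr 1; ring
  rw [e]
  exact mul_le_mul_of_nonneg_right hK (rpos B n _).le

open Classical in
set_option maxHeartbeats 1600000 in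
/-- **flat strips**: the slope function is not constant up to `ρ^y` on a set of heights of
portion `ρ^(η y)` -/
theorem no_flat_R (H : RModel B G σ R Leg ν D)
    (K : K3 B G Leg ν Fz sN sP sX sC f R0 C1 a c) (hR0 : R0 ≤ R) (ha : a < σ) :
    ∃ η₂ : ℝ, 0 < η₂ ∧ ∀ y, 0 < y → y ≤ R0 → ¬ ∀ᶠ n in (U : Filter ℕ), ∃ Z' ⊆ (G n).Z,
      Z'.Nonempty ∧ B.d n ^ (η₂ * y) * ((G n).Z.card : ℝ) ≤ Z'.card ∧
      ∀ k ∈ Z', ∀ k' ∈ Z', |f n k' - f n k| ≤ B.d n ^ y := by
  have ha0 := K.a_nonneg H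
  have hD := H.D1
  have hD0 : 0 < D := by linarith
  have hC1 := K.C1_one
  have hC10 : 0 < C1 := by linarith
  have hc := K.c_pos
  obtain ⟨J, hJ⟩ : ∃ J : ℕ, 4 / min (σ - a) c + 1 < J := exists_nat_gt _
  have hμ0 : 0 < min (σ - a) c := lt_min (by linarith) hc
  have hJ4 : 4 < min (σ - a) c * ((J : ℝ) - 1) := by
    have : 4 / min (σ - a) c < (J : ℝ) - 1 := by linarith
    rwa [div_lt_iff₀ hμ0, mul_comm] at this
  have hJ0 : (0 : ℝ) < (J : ℝ) + 1 := by positivity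
  -- total constant
  set A : ℝ := C1 * D ^ 7 + 1 with hA
  have hA1 : 1 ≤ A := by
    rw [hA]
    have : 0 ≤ C1 * D ^ 7 := by positivity
    linarith
  set Ct : ℝ := (D ^ 2 + 1) * (C1 * D ^ 2) + D * D ^ 2 + 2 + 2 * D + 12 with hCt
  have hCt0 : 0 < Ct := by positivity
  set W : ℝ := ((J : ℝ) + 1) * (Ct + 4 * A) with hW
  have hW0 : 0 < W := by positivity
  refine ⟨1 / W, by positivity, fun y hy hyR Hy => ?_⟩
  set hh : ℝ := y / ((J : ℝ) + 1) with hhh
  have hh0 : 0 < hh := by positivity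
  have hyh : ((J : ℝ) + 1) * hh = y := by rw [hhh]; field_simp
  set ε : ℝ := hh / (Ct + 4 * A) with hε
  have hε0 : 0 < ε := by positivity
  have hεy : 1 / W * y = ε := by
    rw [hε, hhh, hW]; field_simp
  rw [hεy] at Hy
  have hεh : (Ct + 4 * A) * ε = hh := by rw [hε]; field_simp
  have hε1 : Ct * ε ≤ hh := by
    have : 0 ≤ 4 * A * ε := by positivity
    nlinarith
  have hε2 : 4 * A * ε ≤ hh := by
    have : 0 ≤ Ct * ε := by positivity
    nlinarith
  clear_value ε hh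
  have hyy : (0 : ℝ) ≤ y := hy.le
  have hxj : ∀ j ≤ J, (0 : ℝ) ≤ (j : ℝ) * hh ∧ (j : ℝ) * hh ≤ y := by
    intro j hj
    have h1 : (j : ℝ) ≤ J := by exact_mod_cast hj
    refine ⟨by positivity, ?_⟩
    rw [← hyh]
    nlinarith
  set p0 : κ → ℝ := bx Fz sN sP sX sC y 0 0 0 0 with hp0
  have hp0L : p0 ∈ Leg := K.leg y 0 0 0 0 hyy hyR le_rfl hyy le_rfl hyy le_rfl hyy le_rfl hyy
  have hD2ε : 0 < D ^ 2 * ε := by positivity
  refine kauf_contra H p0 p0 (bx Fz sN sP sX sC y y 0 0 0) hp0L hp0L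
    (K.leg y y 0 0 0 hyy hyR hyy le_rfl le_rfl hyy le_rfl hyy le_rfl hyy)
    (fun s => bx_mono le_rfl hyy le_rfl le_rfl le_rfl s) J
    (fun j => bx Fz sN sP sX sC y ((j : ℝ) * hh) ((j : ℝ) * hh) 0 0)
    (fun j hj => K.leg y _ _ 0 0 hyy hyR (hxj j hj).1 (hxj j hj).2 (hxj j hj).1 (hxj j hj).2
      le_rfl hyy le_rfl hyy) (a := a) (c := c) (τ := σ) (hh := hh) (CT := C1 * D ^ 2)
    (CN := D ^ 2) (Cb := 2) (CD := D ^ 2) (ε := ε) ha0 ha H.σ_le hc hJ4 hh0 (by positivity)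
    (by positivity) (by norm_num) hε0 hε1 (by rw [hyh]; exact K.hN y hyy hyR)
    (fun j hj => K.h2 y _ (hxj j hj).1 (hxj j hj).2 hyR)
    (fun n k₀ i i' => max |(G n).rel k₀ i i' sN| |(G n).rel k₀ i i' sP|) ?_
  have hN1 : ((J + 1 : ℕ) : ℝ) * hh ≤ R := by push_cast; rw [hyh]; exact hyR.trans hR0
  filter_upwards [Hy, frost_set H hh0 hN1 hε0, box_pair H.toRUnif p0 hp0L hε0,
    K.ev y hyy hyR (D ^ 2 * ε) hD2ε, ev_const_le B hε0 5, ev_const_le B (half_pos hh0) 8,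
    K.bd, ev_const_le B (half_pos hh0) 2] with n hZ hn hpair hev hc5 hc8 hbd hc2
  have hpow : ∀ t : ℝ, 0 < B.d n ^ t := fun t => rpos B n t
  obtain ⟨Z', hZ', hne, hcard, hf⟩ := hZ
  refine ⟨Z', hZ', hne, fun k₀ hk₀' => ⟨Z', subset_rfl, ?_, ?_⟩⟩
  · rw [Finset.sdiff_self, card_empty, Nat.cast_zero]
    have := hpow ((D + 5) * ε)
    positivity
  have hk₀ := hZ' hk₀'
  intro i₀ hi₀
  have hI0 := H.memSlice.1 hi₀
  have hS : ∀ i ∈ (G n).box p0 ε i₀ k₀, (i, k₀) ∈ (G n).I := fun i hi =>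
    H.memSlice.1 (RCfg.box_subset_slice hi)
  have hSS : ∀ i ∈ (G n).box p0 ε i₀ k₀, ∀ i' ∈ (G n).box p0 ε i₀ k₀,
      (G n).loose p0 (D ^ 2 * ε) k₀ i i' := fun i hi i' hi' => hpair k₀ i₀ i i' hI0 hi hi'
  -- bounds of the slots at the pin
  have hslot : ∀ i ∈ (G n).box p0 ε i₀ k₀, ∀ i' ∈ (G n).box p0 ε i₀ k₀, ∀ s : κ, p0 s = 0 →
      |(G n).rel k₀ i i' s| ≤ B.d n ^ (-(D ^ 2 * ε)) := by
    intro i hi i' hi' s hs
    have := hSS i hi i' hi' s
    rw [H.base n, hs, zero_sub] at this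
    exact this
  have q1 : p0 sN = 0 := bx_N
  have q2 : p0 sP = 0 := bx_P K.NP
  have q3 : p0 sX = 0 := bx_X K.NX K.PX
  have q4 : p0 sC = 0 := bx_C K.NC K.PC K.XC
  refine ⟨?_, ?_, ?_, ?_⟩
  · intro i hi i' hi'
    exact max_le (hslot i hi i' hi' sN q1) (hslot i hi i' hi' sP q2)
  · intro j hj i hi i' hi' hd s
    have h1 := hSS i hi i' hi' s
    rw [max_le_iff] at hd
    by_cases hsN : s = sN
    · subst hsN
      rw [bx_N, H.base n]
      exact hd.1
    · by_cases hsP : s = sP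
      · subst hsP
        rw [bx_P K.NP, H.base n]
        exact hd.2
      · refine h1.trans (le_of_eq ?_)
        simp only [hp0, bx, if_neg hsN, if_neg hsP]
  · intro k hk i hi i' hi' hIk hIk'
    have := (hev k₀ k i i' (hS i hi) (hS i' hi') hIk hIk' (hSS i hi i' hi')).1
    refine H.loose_mono (fun _ => le_rfl) (le_of_eq ?_) this
    ring
  · intro j hj i hi i' hi' hd
    have hjJ : ((J - 1 - j : ℕ) : ℝ) = (J : ℝ) - 1 - j := castJ hj
    set T := Z'.filter fun k => (i, k) ∈ (G n).I ∧ (i', k) ∈ (G n).I ∧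
      (G n).loose (bx Fz sN sP sX sC y y 0 0 0) (D ^ 5 * (C1 * D ^ 2 * ε)) k i i' with hT
    have e57 : D ^ 5 * (C1 * D ^ 2 * ε) = C1 * D ^ 7 * ε := by ring
    have hA1ε : C1 * (D ^ 2 * ε) ≤ C1 * D ^ 7 * ε := by
      have : D ^ 2 ≤ D ^ 7 := pow_le_pow_right₀ hD (by norm_num)
      have h1 : D ^ 2 * ε ≤ D ^ 7 * ε := mul_le_mul_of_nonneg_right this hε0.le
      calc C1 * (D ^ 2 * ε) ≤ C1 * (D ^ 7 * ε) := mul_le_mul_of_nonneg_left h1 hC10.le
        _ = _ := by ring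
    have hA2ε : D ^ 2 * ε ≤ C1 * D ^ 7 * ε := by
      refine le_trans ?_ hA1ε
      have : 1 * (D ^ 2 * ε) ≤ C1 * (D ^ 2 * ε) := mul_le_mul_of_nonneg_right hC1 hD2ε.le
      linarith
    -- the root condition
    have hgen : ∀ k ∈ T, |(G n).rel k₀ i i' sN + ((G n).z k - (G n).z k₀) *
        (G n).rel k₀ i i' sP| ≤ B.d n ^ (y - A * ε) := by
      intro k hk
      rw [hT, mem_filter, e57] at hk
      obtain ⟨hkZ, hIk, hIk', hl⟩ := hk
      have g1 := (hev k₀ k i i' (hS i hi) (hS i' hi') hIk hIk' (hSS i hi i' hi')).2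
      have g2 := hl sN
      rw [bx_N, H.base n] at g2
      have g3 := hf k₀ hk₀' k hkZ
      have hu : |(G n).z k - (G n).z k₀| ≤ 2 := by
        refine (abs_sub _ _).trans ?_
        have := (hbd k (hZ' hkZ)).1; have := (hbd k₀ hk₀).1; linarith
      have gX := hslot i hi i' hi' sX q3
      have gC := hslot i hi i' hi' sC q4
      set b := B.d n ^ (y - C1 * D ^ 7 * ε) with hb
      have hb0 : 0 < b := hpow _
      have k1 : B.d n ^ (y - C1 * (D ^ 2 * ε)) ≤ b := rpow_anti B n (by linarith)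
      have k2 : B.d n ^ y * B.d n ^ (-(D ^ 2 * ε)) ≤ b := by
        rw [← rpow_add']
        exact rpow_anti B n (by linarith)
      have k3 : |(f n k - f n k₀) * ((G n).rel k₀ i i' sX +
          ((G n).z k - (G n).z k₀) * (G n).rel k₀ i i' sC)| ≤ 3 * b := by
        have hE0 := hpow (-(D ^ 2 * ε))
        have m1 : |(G n).rel k₀ i i' sX + ((G n).z k - (G n).z k₀) * (G n).rel k₀ i i' sC| ≤
            3 * B.d n ^ (-(D ^ 2 * ε)) := by
          refine (abs_add_le _ _).trans ?_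
          rw [abs_mul]
          have : |(G n).z k - (G n).z k₀| * |(G n).rel k₀ i i' sC| ≤
              2 * B.d n ^ (-(D ^ 2 * ε)) := mul_le_mul hu gC (abs_nonneg _) (by norm_num)
          linarith
        rw [abs_mul]
        calc |f n k - f n k₀| * |(G n).rel k₀ i i' sX +
              ((G n).z k - (G n).z k₀) * (G n).rel k₀ i i' sC|
            ≤ B.d n ^ y * (3 * B.d n ^ (-(D ^ 2 * ε))) :=
              mul_le_mul g3 m1 (abs_nonneg _) (hpow _).le
          _ = 3 * (B.d n ^ y * B.d n ^ (-(D ^ 2 * ε))) := by ring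
          _ ≤ 3 * b := by linarith
      have k4 : |(G n).rel k₀ i i' sN + ((G n).z k - (G n).z k₀) *
          (G n).rel k₀ i i' sP| ≤ 5 * b := by
        have m1 := abs_le.1 (g1.trans k1)
        have m2 := abs_le.1 g2
        have m3 := abs_le.1 k3
        rw [abs_le]
        constructor <;> linarith [m1.1, m1.2, m2.1, m2.2, m3.1, m3.2]
      refine k4.trans (absorb B ?_)
      have e : -(y - C1 * D ^ 7 * ε - (y - A * ε)) = -ε := by rw [hA]; ring
      rw [e]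
      exact hc5
    have hTZ : T ⊆ (G n).Z := (filter_subset _ _).trans hZ'
    have hclose : ∀ k ∈ T, ∀ k' ∈ T, |(G n).z k' - (G n).z k| ≤
        B.d n ^ (((J - 1 - j : ℕ) : ℝ) * hh) := by
      intro k hk k' hk'
      have g1 := hgen k hk
      have g2 := hgen k' hk'
      have hu : |(G n).z k' - (G n).z k₀| ≤ 2 := by
        refine (abs_sub _ _).trans ?_
        have := (hbd k' (hTZ hk')).1; have := (hbd k₀ hk₀).1; linarith
      have h2w : 2 * B.d n ^ (y - A * ε) ≤ B.d n ^ (((j + 1 : ℕ) : ℝ) * hh - D ^ 2 * ε) := by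
        refine absorb B (hc2.trans (rpow_anti B n ?_))
        push_cast
        have h1 : (j : ℝ) + 1 ≤ J := by
          have : j + 1 ≤ J := hj
          exact_mod_cast this
        have h2 : ((j : ℝ) + 1) * hh ≤ (J : ℝ) * hh := mul_le_mul_of_nonneg_right h1 hh0.le
        have h3 : 0 ≤ D ^ 2 * ε := hD2ε.le
        nlinarith
      have g3 := root_lin g2 g1 hu hd h2w
      have g4 : ((G n).z k' - (G n).z k₀) - ((G n).z k - (G n).z k₀) =
        (G n).z k' - (G n).z k := by ring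
      rw [g4] at g3
      refine le_div_pow B n g3 (hc8.trans (rpow_anti B n ?_))
      push_cast
      rw [hjJ]
      have h3 : 0 ≤ D ^ 2 * ε := hD2ε.le
      nlinarith
    have hTc := hn (J - 1 - j) (by simp; omega) T hTZ hclose
    refine hTc.trans ?_
    have e1 : B.d n ^ (σ * (((J - 1 - j : ℕ) : ℝ) * hh) - ε) =
        B.d n ^ (σ * (((J - 1 - j : ℕ) : ℝ) * hh) - 2 * ε) * B.d n ^ ε := by
      rw [← rpow_add']; congr 1; ring
    rw [e1, mul_assoc]
    exact mul_le_mul_of_nonneg_left hcard (hpow _).le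

end Crest.Agent.R136.CD366
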