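import Crest.Agent.R136.CD3_366

/-!
# R136: K3core over relative models: sloped strips, no heavy strips (helper366)
-/

set_option autoImplicit false
set_option linter.unusedVariables false
set_option linter.unusedSectionVars false

open Filter Topology Finset

namespace Crest.Agent.R136.CD366

open Crest.Agent.R138.Ex926 (Base U exists_tendsto)
open Crest.Agent.R138.TwC501 (root_lin root_sq)
open Crest.Agent.R136.Gf356

variable {κ : Type} [DecidableEq κ] {B : Base} {G : ℕ → RCfg κ} {Leg : Set (κ → ℝ)}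
  {ν : (κ → ℝ) → ℝ} {σ R D : ℝ} {Fz : Finset κ} {sN sP sX sC : κ} {f : ℕ → ℕ → ℝ}
  {R0 C1 a c : ℝ}

open Classical in
set_option maxHeartbeats 3200000 in
/-- **sloped strips**: the slope function is not affine of slope `|μ| ≥ ρ^(η y)` up to `ρ^y` on a
set of heights of portion `ρ^(η y)` -/
theorem no_slope_R (H : RModel B G σ R Leg ν D)
    (K : K3 B G Leg ν Fz sN sP sX sC f R0 C1 a c) (hR0 : R0 ≤ R) (ha : a < σ) :
    ∃ η₁ : ℝ, 0 < η₁ ∧ ∀ y, 0 < y → y ≤ R0 → ¬ ∀ᶠ n in (U : Filter ℕ), ∃ Z' ⊆ (G n).Z,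
      Z'.Nonempty ∧ B.d n ^ (η₁ * y) * ((G n).Z.card : ℝ) ≤ Z'.card ∧
      ∃ μ : ℝ, B.d n ^ (η₁ * y) ≤ |μ| ∧
      ∀ k ∈ Z', ∀ k' ∈ Z', |f n k' - f n k - μ * ((G n).z k' - (G n).z k)| ≤
        2 * B.d n ^ y := by
  have ha0 := K.a_nonneg H
  have hσ0 : 0 < σ := ha0.trans_lt ha
  have hσ1 := H.σ_le
  have hD := H.D1
  have hD0 : 0 < D := by linarith
  have hC1 := K.C1_one
  have hC10 : 0 < C1 := by linarith
  have hc := K.c_pos
  obtain ⟨J, hJ⟩ : ∃ J : ℕ, 4 / min (σ - a) c + 1 < J := exists_nat_gt _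
  have hμ0 : 0 < min (σ - a) c := lt_min (by linarith) hc
  have hJ4 : 4 < min (σ - a) c * ((J : ℝ) - 1) := by
    have : 4 / min (σ - a) c < (J : ℝ) - 1 := by linarith
    rwa [div_lt_iff₀ hμ0, mul_comm] at this
  have hJ0 : (0 : ℝ) < (J : ℝ) + 1 := by positivity
  set A : ℝ := C1 * D ^ 7 + 1 with hA
  have hA1 : 1 ≤ A := by
    rw [hA]
    have : 0 ≤ C1 * D ^ 7 := by positivity
    linarith
  set Ct : ℝ := (D ^ 2 + 1) * (C1 * D ^ 2) + D * D ^ 2 + 3 + 2 * D + 12 with hCt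
  have hCt0 : 0 < Ct := by positivity
  -- total constant, `σ` enters through the neighbourhood of the pin
  set E : ℝ := Ct + 8 * A + 16 * (D + 8) / σ with hE
  have hE0 : 0 < E := by positivity
  set W : ℝ := ((J : ℝ) + 1) * E with hW
  have hW0 : 0 < W := by positivity
  refine ⟨1 / W, by positivity, fun y hy hyR Hy => ?_⟩
  set hh : ℝ := y / ((J : ℝ) + 1) with hhh
  have hh0 : 0 < hh := by positivity
  have hyh : ((J : ℝ) + 1) * hh = y := by rw [hhh]; field_simp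
  set ε : ℝ := hh / E with hε
  have hε0 : 0 < ε := by positivity
  have hεy : 1 / W * y = ε := by
    rw [hε, hhh, hW]; field_simp
  rw [hεy] at Hy
  have hεh : E * ε = hh := by rw [hε]; field_simp
  have hq0 : 0 ≤ 16 * (D + 8) / σ := by positivity
  have hε1 : Ct * ε ≤ hh := by
    have : 0 ≤ (8 * A + 16 * (D + 8) / σ) * ε := by positivity
    rw [← hεh, hE]; nlinarith
  have hε2 : 8 * A * ε ≤ hh := by
    have : 0 ≤ (Ct + 16 * (D + 8) / σ) * ε := by positivity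
    rw [← hεh, hE]; nlinarith
  have hε3 : 16 * (D + 8) * ε ≤ σ * hh := by
    have h1 : 16 * (D + 8) / σ * ε ≤ hh := by
      have : 0 ≤ (Ct + 8 * A) * ε := by positivity
      rw [← hεh, hE]; nlinarith
    have h2 : σ * (16 * (D + 8) / σ * ε) = 16 * (D + 8) * ε := by field_simp
    rw [← h2]
    exact mul_le_mul_of_nonneg_left h1 hσ0.le
  clear_value ε hh E
  set s1 : ℝ := hh / 8 with hs1
  have hs10 : 0 < s1 := by positivity
  have hyy : (0 : ℝ) ≤ y := hy.le
  have hhy : hh ≤ y := by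
    rw [← hyh]
    have : 0 ≤ (J : ℝ) * hh := by positivity
    linarith
  have hs1R : s1 ≤ R := by rw [hs1]; linarith
  have hxj : ∀ j ≤ J, (0 : ℝ) ≤ (j : ℝ) * hh ∧ (j : ℝ) * hh ≤ y := by
    intro j hj
    have h1 : (j : ℝ) ≤ J := by exact_mod_cast hj
    refine ⟨by positivity, ?_⟩
    rw [← hyh]
    nlinarith
  set p0 : κ → ℝ := bx Fz sN sP sX sC y 0 0 0 0 with hp0
  set p1 : κ → ℝ := bx Fz sN sP sX sC y 0 y y 0 with hp1
  have hp0L : p0 ∈ Leg := K.leg y 0 0 0 0 hyy hyR le_rfl hyy le_rfl hyy le_rfl hyy le_rfl hyy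
  have hp1L : p1 ∈ Leg := K.leg y 0 y y 0 hyy hyR le_rfl hyy hyy le_rfl hyy le_rfl le_rfl hyy
  have h01 : ∀ s, p0 s ≤ p1 s := fun s => bx_mono le_rfl le_rfl hyy hyy le_rfl s
  have hD2ε : 0 < D ^ 2 * ε := by positivity
  refine kauf_contra H p1 p0 (bx Fz sN sP sX sC y y 0 0 0) hp1L hp0L
    (K.leg y y 0 0 0 hyy hyR hyy le_rfl le_rfl hyy le_rfl hyy le_rfl hyy)
    (fun s => bx_mono le_rfl hyy le_rfl le_rfl le_rfl s) J
    (fun j => bx Fz sN sP sX sC y ((j : ℝ) * hh) y y ((j : ℝ) * hh))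
    (fun j hj => K.leg y _ _ _ _ hyy hyR (hxj j hj).1 (hxj j hj).2 hyy le_rfl hyy le_rfl
      (hxj j hj).1 (hxj j hj).2) (a := a) (c := c) (τ := σ) (hh := hh) (CT := C1 * D ^ 2)
    (CN := D ^ 2) (Cb := 3) (CD := D ^ 2) (ε := ε) ha0 ha H.σ_le hc hJ4 hh0 (by positivity)
    (by positivity) (by norm_num) hε0 hε1 (by rw [hyh]; exact K.hN y hyy hyR)
    (fun j hj => K.h1 y _ (hxj j hj).1 (hxj j hj).2 hyR)
    (fun n k₀ i i' => max |(G n).rel k₀ i i' sN| |(G n).rel k₀ i i' sC|) ?_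
  have hN1 : ((J + 1 : ℕ) : ℝ) * hh ≤ R := by push_cast; rw [hyh]; exact hyR.trans hR0
  filter_upwards [Hy, frost_set H hh0 hN1 hε0, box_pair H.toRUnif p1 hp1L hε0,
    K.ev y hyy hyR (D ^ 2 * ε) hD2ε, ev_const_le B hε0 11,
    ev_const_le B (show 0 < hh / 4 by positivity) 32,
    K.bd, ev_const_le B (half_pos hh0) 2, H.frost s1 hs10.le hs1R ε hε0,
    ev_small B hε0 2] with n hZ hn hpair hev hc11 hc32 hbd hc2 hfr hce
  have hpow : ∀ t : ℝ, 0 < B.d n ^ t := fun t => rpos B n t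
  obtain ⟨Z', hZ', hne, hcard, μ, hμ, hf⟩ := hZ
  have hZ'c : (0 : ℝ) < Z'.card := by exact_mod_cast card_pos.2 hne
  refine ⟨Z', hZ', hne, fun k₀ hk₀' =>
    ⟨Z'.filter fun k => B.d n ^ s1 < |(G n).z k - (G n).z k₀|, filter_subset _ _, ?_, ?_⟩⟩
  · have hk₀ := hZ' hk₀'
    have e1 : ((Z' \ Z'.filter fun k => B.d n ^ s1 < |(G n).z k - (G n).z k₀|).card : ℝ) ≤
        (((G n).hbox s1 k₀).card : ℝ) := by
      have : (Z' \ Z'.filter fun k => B.d n ^ s1 < |(G n).z k - (G n).z k₀|) ⊆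
          (G n).hbox s1 k₀ := by
        intro k hk
        rw [Finset.mem_sdiff, mem_filter] at hk
        unfold RCfg.hbox
        rw [mem_filter, H.base n]
        refine ⟨hZ' hk.1, ?_⟩
        by_contra hcon
        exact hk.2 ⟨hk.1, not_le.1 hcon⟩
      exact_mod_cast card_le_card this
    refine e1.trans ((hfr k₀ hk₀).trans ?_)
    have e2 : B.d n ^ (σ * s1 - ε) ≤ B.d n ^ ((D + 5) * ε) * B.d n ^ ε := by
      rw [← rpow_add']
      refine rpow_anti B n ?_
      rw [hs1]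
      nlinarith
    calc B.d n ^ (σ * s1 - ε) * ((G n).Z.card : ℝ)
        ≤ B.d n ^ ((D + 5) * ε) * B.d n ^ ε * ((G n).Z.card : ℝ) :=
          mul_le_mul_of_nonneg_right e2 (Nat.cast_nonneg _)
      _ = B.d n ^ ((D + 5) * ε) * (B.d n ^ ε * ((G n).Z.card : ℝ)) := by ring
      _ ≤ _ := mul_le_mul_of_nonneg_left hcard (hpow _).le
  have hk₀ := hZ' hk₀'
  intro i₀ hi₀
  have hI0 := H.memSlice.1 hi₀
  have hS : ∀ i ∈ (G n).box p1 ε i₀ k₀, (i, k₀) ∈ (G n).I := fun i hi =>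
    H.memSlice.1 (RCfg.box_subset_slice hi)
  have hSS : ∀ i ∈ (G n).box p1 ε i₀ k₀, ∀ i' ∈ (G n).box p1 ε i₀ k₀,
      (G n).loose p1 (D ^ 2 * ε) k₀ i i' := fun i hi i' hi' => hpair k₀ i₀ i i' hI0 hi hi'
  have hSS0 : ∀ i ∈ (G n).box p1 ε i₀ k₀, ∀ i' ∈ (G n).box p1 ε i₀ k₀,
      (G n).loose p0 (D ^ 2 * ε) k₀ i i' := fun i hi i' hi' =>
    H.loose_mono h01 le_rfl (hSS i hi i' hi')
  have hslot : ∀ i ∈ (G n).box p1 ε i₀ k₀, ∀ i' ∈ (G n).box p1 ε i₀ k₀, ∀ s : κ, p0 s = 0 →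
      |(G n).rel k₀ i i' s| ≤ B.d n ^ (-(D ^ 2 * ε)) := by
    intro i hi i' hi' s hs
    have := hSS0 i hi i' hi' s
    rw [H.base n, hs, zero_sub] at this
    exact this
  have hslot1 : ∀ i ∈ (G n).box p1 ε i₀ k₀, ∀ i' ∈ (G n).box p1 ε i₀ k₀, ∀ s : κ, p1 s = y →
      |(G n).rel k₀ i i' s| ≤ B.d n ^ (y - D ^ 2 * ε) := by
    intro i hi i' hi' s hs
    have := hSS i hi i' hi' s
    rw [H.base n, hs] at this
    exact this
  have q1 : p0 sN = 0 := bx_N
  have q4 : p0 sC = 0 := bx_C K.NC K.PC K.XC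
  have q2 : p1 sP = y := bx_P K.NP
  have q3 : p1 sX = y := bx_X K.NX K.PX
  refine ⟨?_, ?_, ?_, ?_⟩
  · intro i hi i' hi'
    exact max_le (hslot i hi i' hi' sN q1) (hslot i hi i' hi' sC q4)
  · intro j hj i hi i' hi' hd s
    have h1 := hSS i hi i' hi' s
    rw [max_le_iff] at hd
    by_cases hsN : s = sN
    · subst hsN
      rw [bx_N, H.base n]
      exact hd.1
    · by_cases hsC : s = sC
      · subst hsC
        rw [bx_C K.NC K.PC K.XC, H.base n]
        exact hd.2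
      · refine h1.trans (le_of_eq ?_)
        simp only [hp1, bx, if_neg hsN, if_neg hsC]
  · intro k hk i hi i' hi' hIk hIk'
    have := (hev k₀ k i i' (hS i hi) (hS i' hi') hIk hIk' (hSS0 i hi i' hi')).1
    refine H.loose_mono (fun _ => le_rfl) (le_of_eq ?_) this
    ring
  · intro j hj i hi i' hi' hd
    have hjJ : ((J - 1 - j : ℕ) : ℝ) = (J : ℝ) - 1 - j := castJ hj
    set K' := Z'.filter fun k => B.d n ^ s1 < |(G n).z k - (G n).z k₀| with hK'
    set T := K'.filter fun k => (i, k) ∈ (G n).I ∧ (i', k) ∈ (G n).I ∧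
      (G n).loose (bx Fz sN sP sX sC y y 0 0 0) (D ^ 5 * (C1 * D ^ 2 * ε)) k i i' with hT
    have e57 : D ^ 5 * (C1 * D ^ 2 * ε) = C1 * D ^ 7 * ε := by ring
    have hA1ε : C1 * (D ^ 2 * ε) ≤ C1 * D ^ 7 * ε := by
      have : D ^ 2 ≤ D ^ 7 := pow_le_pow_right₀ hD (by norm_num)
      have h1 : D ^ 2 * ε ≤ D ^ 7 * ε := mul_le_mul_of_nonneg_right this hε0.le
      calc C1 * (D ^ 2 * ε) ≤ C1 * (D ^ 7 * ε) := mul_le_mul_of_nonneg_left h1 hC10.le
        _ = _ := by ring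
    have hA2ε : D ^ 2 * ε ≤ C1 * D ^ 7 * ε := by
      refine le_trans ?_ hA1ε
      have : 1 * (D ^ 2 * ε) ≤ C1 * (D ^ 2 * ε) := mul_le_mul_of_nonneg_right hC1 hD2ε.le
      linarith
    have hzz : ∀ k ∈ Z', |(G n).z k - (G n).z k₀| ≤ 2 := by
      intro k hk
      refine (abs_sub _ _).trans ?_
      have := (hbd k (hZ' hk)).1; have := (hbd k₀ hk₀).1; linarith
    have hff : ∀ k ∈ Z', |f n k - f n k₀| ≤ 2 := by
      intro k hk
      refine (abs_sub _ _).trans ?_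
      have := (hbd k (hZ' hk)).2; have := (hbd k₀ hk₀).2; linarith
    have hTZ' : ∀ k ∈ T, k ∈ Z' ∧ B.d n ^ s1 < |(G n).z k - (G n).z k₀| := by
      intro k hk
      rw [hT, mem_filter, hK', mem_filter] at hk
      exact hk.1
    have hgen : ∀ k ∈ T, |(G n).rel k₀ i i' sN - μ * ((G n).z k - (G n).z k₀) ^ 2 *
        (G n).rel k₀ i i' sC| ≤ B.d n ^ (y - A * ε) := by
      intro k hk
      obtain ⟨hkZ, hks⟩ := hTZ' k hk
      rw [hT, mem_filter, e57] at hk
      obtain ⟨-, hIk, hIk', hl⟩ := hk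
      have g1 := (hev k₀ k i i' (hS i hi) (hS i' hi') hIk hIk' (hSS0 i hi i' hi')).2
      have g2 := hl sN
      rw [bx_N, H.base n] at g2
      have g3 := hf k₀ hk₀' k hkZ
      have hu := hzz k hkZ
      have hg := hff k hkZ
      have gP := hslot1 i hi i' hi' sP q2
      have gX := hslot1 i hi i' hi' sX q3
      have gC := hslot i hi i' hi' sC q4
      set b := B.d n ^ (y - C1 * D ^ 7 * ε) with hb
      have hb0 : 0 < b := hpow _
      have k1 : B.d n ^ (y - C1 * (D ^ 2 * ε)) ≤ b := rpow_anti B n (by linarith)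
      have k2 : B.d n ^ y * B.d n ^ (-(D ^ 2 * ε)) ≤ b := by
        rw [← rpow_add']
        exact rpow_anti B n (by linarith)
      have k3 : B.d n ^ (y - D ^ 2 * ε) ≤ b := rpow_anti B n (by linarith)
      have m1 : |((G n).z k - (G n).z k₀) * (G n).rel k₀ i i' sP| ≤ 2 * b := by
        rw [abs_mul]
        exact mul_le_mul hu (gP.trans k3) (abs_nonneg _) (by norm_num)
      have m2 : |(f n k - f n k₀) * (G n).rel k₀ i i' sX| ≤ 2 * b := by
        rw [abs_mul]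
        exact mul_le_mul hg (gX.trans k3) (abs_nonneg _) (by norm_num)
      have m3 : |(f n k - f n k₀ - μ * ((G n).z k - (G n).z k₀)) *
          (((G n).z k - (G n).z k₀) * (G n).rel k₀ i i' sC)| ≤ 4 * b := by
        rw [abs_mul, abs_mul]
        have hE0 := hpow (-(D ^ 2 * ε))
        calc |f n k - f n k₀ - μ * ((G n).z k - (G n).z k₀)| *
              (|(G n).z k - (G n).z k₀| * |(G n).rel k₀ i i' sC|)
            ≤ 2 * B.d n ^ y * (2 * B.d n ^ (-(D ^ 2 * ε))) := by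
              refine mul_le_mul g3 ?_ (by positivity) (by have := hpow y; positivity)
              exact mul_le_mul hu gC (abs_nonneg _) (by norm_num)
          _ = 4 * (B.d n ^ y * B.d n ^ (-(D ^ 2 * ε))) := by ring
          _ ≤ 4 * b := by linarith
      have k4 : |(G n).rel k₀ i i' sN - μ * ((G n).z k - (G n).z k₀) ^ 2 *
          (G n).rel k₀ i i' sC| ≤ 10 * b := by
        have e1 : (G n).rel k₀ i i' sN - μ * ((G n).z k - (G n).z k₀) ^ 2 *
            (G n).rel k₀ i i' sC = (G n).rel k i i' sN -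
            ((G n).rel k i i' sN - ((G n).rel k₀ i i' sN +
              ((G n).z k - (G n).z k₀) * (G n).rel k₀ i i' sP
              - (f n k - f n k₀) * ((G n).rel k₀ i i' sX +
              ((G n).z k - (G n).z k₀) * (G n).rel k₀ i i' sC))) -
            ((G n).z k - (G n).z k₀) * (G n).rel k₀ i i' sP +
            (f n k - f n k₀) * (G n).rel k₀ i i' sX +
            (f n k - f n k₀ - μ * ((G n).z k - (G n).z k₀)) *
              (((G n).z k - (G n).z k₀) * (G n).rel k₀ i i' sC) := by ring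
        rw [e1]
        have n1 := abs_le.1 (g1.trans k1)
        have n2 := abs_le.1 g2
        have n3 := abs_le.1 m1
        have n4 := abs_le.1 m2
        have n5 := abs_le.1 m3
        rw [abs_le]
        constructor <;> linarith [n1.1, n1.2, n2.1, n2.2, n3.1, n3.2, n4.1, n4.2, n5.1, n5.2]
      refine (k4.trans (by linarith : 10 * b ≤ 11 * b)).trans (absorb B ?_)
      have e : -(y - C1 * D ^ 7 * ε - (y - A * ε)) = -ε := by rw [hA]; ring
      rw [e]
      exact hc11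
    have hμM : ∀ k ∈ T, |μ| ≤ 4 * B.d n ^ (-s1) := by
      intro k hk
      obtain ⟨hk1, hk2⟩ := hTZ' k hk
      have hfm := hf k₀ hk₀' k hk1
      have hg2 := hff k hk1
      have hy1 : B.d n ^ y ≤ 1 := Real.rpow_le_one (B.pos n).le (B.lt n).le hyy
      have e1 : |μ| * B.d n ^ s1 ≤ 4 := by
        calc |μ| * B.d n ^ s1 ≤ |μ| * |(G n).z k - (G n).z k₀| :=
              mul_le_mul_of_nonneg_left hk2.le (abs_nonneg _)
          _ = |μ * ((G n).z k - (G n).z k₀)| := (abs_mul _ _).symm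
          _ = |(f n k - f n k₀) - (f n k - f n k₀ - μ * ((G n).z k - (G n).z k₀))| := by ring_nf
          _ ≤ |f n k - f n k₀| + |f n k - f n k₀ - μ * ((G n).z k - (G n).z k₀)| := abs_sub _ _
          _ ≤ 4 := by linarith
      have e2 : B.d n ^ s1 * B.d n ^ (-s1) = 1 := by
        rw [← rpow_add', add_neg_cancel, Real.rpow_zero]
      calc |μ| = |μ| * B.d n ^ s1 * B.d n ^ (-s1) := by rw [mul_assoc, e2, mul_one]
        _ ≤ 4 * B.d n ^ (-s1) := mul_le_mul_of_nonneg_right e1 (hpow _).le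
    -- one sign
    have hsgn : ∀ T' ⊆ T, (∀ k ∈ T', ∀ k' ∈ T',
        (B.d n ^ s1 ≤ (G n).z k - (G n).z k₀ ∧ B.d n ^ s1 ≤ (G n).z k' - (G n).z k₀) ∨
        ((G n).z k - (G n).z k₀ ≤ -B.d n ^ s1 ∧ (G n).z k' - (G n).z k₀ ≤ -B.d n ^ s1)) →
        (T'.card : ℝ) ≤ B.d n ^ (σ * (((J - 1 - j : ℕ) : ℝ) * hh) - ε) * (G n).Z.card := by
      intro T' hT' hs
      refine hn (J - 1 - j) (by simp; omega) T' (fun k hk => hZ' (hTZ' k (hT' hk)).1) ?_
      intro k hk k' hk'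
      have hkT := hT' hk
      have hkT' := hT' hk'
      have g1 := hgen k hkT
      have g2 := hgen k' hkT'
      have hM1 : (1 : ℝ) ≤ 4 * B.d n ^ (-s1) := by
        have h1 : (1 : ℝ) ≤ B.d n ^ (-s1) :=
          Real.one_le_rpow_of_pos_of_le_one_of_nonpos (B.pos n) (B.lt n).le (by linarith)
        linarith
      have h2w : 2 * B.d n ^ (y - A * ε) ≤ B.d n ^ (((j + 1 : ℕ) : ℝ) * hh - D ^ 2 * ε) := by
        refine absorb B (hc2.trans (rpow_anti B n ?_))
        push_cast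
        have h1 : (j : ℝ) + 1 ≤ J := by
          have : j + 1 ≤ J := hj
          exact_mod_cast this
        have h2 : ((j : ℝ) + 1) * hh ≤ (J : ℝ) * hh := mul_le_mul_of_nonneg_right h1 hh0.le
        have h3 : 0 ≤ D ^ 2 * ε := hD2ε.le
        have h4 : 0 ≤ A * ε := by positivity
        nlinarith
      have g3 := root_sq g2 g1 (hzz k' (hTZ' k' hkT').1) hM1 (hμM k hkT) hμ (hpow ε) (hpow s1)
        (hs k' hk' k hk) (hpow _) hd h2w
      have g4 : ((G n).z k' - (G n).z k₀) - ((G n).z k - (G n).z k₀) =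
        (G n).z k' - (G n).z k := by ring
      rw [g4] at g3
      have e5 : B.d n ^ ε * B.d n ^ s1 * B.d n ^ (((j + 1 : ℕ) : ℝ) * hh - D ^ 2 * ε) =
          B.d n ^ (ε + s1 + (((j + 1 : ℕ) : ℝ) * hh - D ^ 2 * ε)) := by
        rw [← rpow_add', ← rpow_add']
      have e6 : 8 * (4 * B.d n ^ (-s1)) * B.d n ^ (y - A * ε) =
          32 * B.d n ^ (-s1 + (y - A * ε)) := by
        rw [rpow_add' B n (-s1)]; ring
      rw [e5, e6] at g3
      refine le_div_pow B n g3 (hc32.trans (rpow_anti B n ?_))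
      push_cast
      rw [hjJ, hs1]
      have h3 : 0 ≤ D ^ 2 * ε := hD2ε.le
      have h4 : ε ≤ A * ε := by nlinarith
      nlinarith
    have hTp := hsgn (T.filter fun k => (G n).z k₀ < (G n).z k) (filter_subset _ _) (by
      intro k hk k' hk'
      rw [mem_filter] at hk hk'
      left
      constructor
      · have := (hTZ' k hk.1).2; rw [abs_of_pos (sub_pos.2 hk.2)] at this; exact this.le
      · have := (hTZ' k' hk'.1).2; rw [abs_of_pos (sub_pos.2 hk'.2)] at this; exact this.le)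
    have hTm := hsgn (T.filter fun k => ¬ (G n).z k₀ < (G n).z k) (filter_subset _ _) (by
      intro k hk k' hk'
      rw [mem_filter] at hk hk'
      right
      constructor
      · have := (hTZ' k hk.1).2
        rw [abs_of_nonpos (sub_nonpos.2 (not_lt.1 hk.2))] at this; linarith
      · have := (hTZ' k' hk'.1).2
        rw [abs_of_nonpos (sub_nonpos.2 (not_lt.1 hk'.2))] at this; linarith)
    have hsum : (T.card : ℝ) = (T.filter fun k => (G n).z k₀ < (G n).z k).card +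
        (T.filter fun k => ¬ (G n).z k₀ < (G n).z k).card := by
      exact_mod_cast (card_filter_add_card_filter_not (s := T) _).symm
    have hT2 : (T.card : ℝ) ≤ 2 * (B.d n ^ (σ * (((J - 1 - j : ℕ) : ℝ) * hh) - ε) *
        (G n).Z.card) := by rw [hsum]; linarith
    refine hT2.trans ?_
    have e1 : B.d n ^ (σ * (((J - 1 - j : ℕ) : ℝ) * hh) - ε) =
        B.d n ^ (σ * (((J - 1 - j : ℕ) : ℝ) * hh) - 3 * ε) * B.d n ^ ε * B.d n ^ ε := by
      rw [← rpow_add', ← rpow_add']; congr 1; ring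
    rw [e1]
    have e7 := hpow (σ * (((J - 1 - j : ℕ) : ℝ) * hh) - 3 * ε)
    have e8 := hpow ε
    calc 2 * (B.d n ^ (σ * (((J - 1 - j : ℕ) : ℝ) * hh) - 3 * ε) * B.d n ^ ε * B.d n ^ ε *
          ((G n).Z.card : ℝ))
        = (2 * B.d n ^ ε) * (B.d n ^ (σ * (((J - 1 - j : ℕ) : ℝ) * hh) - 3 * ε) *
          (B.d n ^ ε * ((G n).Z.card : ℝ))) := by ring
      _ ≤ 1 * (B.d n ^ (σ * (((J - 1 - j : ℕ) : ℝ) * hh) - 3 * ε) *
          (B.d n ^ ε * ((G n).Z.card : ℝ))) := by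
          refine mul_le_mul_of_nonneg_right hce ?_
          positivity
      _ = B.d n ^ (σ * (((J - 1 - j : ℕ) : ℝ) * hh) - 3 * ε) *
          (B.d n ^ ε * ((G n).Z.card : ℝ)) := one_mul _
      _ ≤ _ := mul_le_mul_of_nonneg_left hcard e7.le

end Crest.Agent.R136.CD366
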