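import Crest.Agent.R136.Sh2_605

/-!
# R136 (S0187): the test sheet of a box of the normalised space of a sheet (helper605)
-/

set_option autoImplicit false
set_option linter.unusedVariables false

namespace Crest.Agent.R136.Sh605

open Finset

/-! ### quadratic functions -/

theorem dt_pos (u : V3) (t : Ln4) (z : ℝ) : dt u (t.pos z) = dt u t.p + z * dt u t.v := by
  simp only [dt, Ln4.pos]; ring

/-- adding a linear function of `x - t(z)` -/
theorem IsQ.add_lin {q : ℝ → V3 → ℝ} (hq : IsQ q) (u : V3) (t : Ln4) :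
    IsQ fun z x => q z x + dt u (x - t.pos z) := by
  obtain ⟨c0, c1, c2, b, d, g, h⟩ := hq
  refine ⟨c0 - dt u t.p, c1 - dt u t.v, c2, fun i => b i + u i, d, g, fun z x => ?_⟩
  beta_reduce
  rw [h z x, dt_sub, dt_pos]
  simp only [Fin.sum_univ_three, dt]
  ring

/-- the restriction of a quadratic function to a line -/
theorem IsQ.along {q : ℝ → V3 → ℝ} (hq : IsQ q) (t : Ln4) :
    ∃ k0 k1 k2 : ℝ, ∀ z, q z (t.pos z) = k0 + k1 * z + k2 * z ^ 2 := by
  obtain ⟨c0, c1, c2, b, d, g, h⟩ := hq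
  refine ⟨c0 + ∑ i, b i * t.p i + ∑ i, ∑ j, g i j * (t.p i * t.p j),
    c1 + ∑ i, (b i * t.v i + d i * t.p i) + ∑ i, ∑ j, g i j * (t.p i * t.v j + t.v i * t.p j),
    c2 + ∑ i, d i * t.v i + ∑ i, ∑ j, g i j * (t.v i * t.v j), fun z => ?_⟩
  rw [h z]
  simp only [Fin.sum_univ_three, Ln4.pos]
  ring

/-- subtracting a quadratic polynomial of `z` -/
theorem IsQ.sub_poly {q : ℝ → V3 → ℝ} (hq : IsQ q) (k0 k1 k2 : ℝ) :
    IsQ fun z x => q z x - (k0 + k1 * z + k2 * z ^ 2) := by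
  obtain ⟨c0, c1, c2, b, d, g, h⟩ := hq
  refine ⟨c0 - k0, c1 - k1, c2 - k2, b, d, g, fun z x => ?_⟩
  beta_reduce
  rw [h z x]
  ring

theorem IsQ.sub_along {q : ℝ → V3 → ℝ} (hq : IsQ q) (t : Ln4) :
    IsQ fun z x => q z x - q z (t.pos z) := by
  obtain ⟨k0, k1, k2, hk⟩ := hq.along t
  have := hq.sub_poly k0 k1 k2
  simpa only [hk] using this

/-! ### the test sheet -/

/-- the normalised difference of a line and the reference line `y` in the sheet -/
noncomputable def nrm (e : Fin 3 → V3) (w : V3) (q : ℝ → V3 → ℝ) (a : ℝ) (y t : Ln4) (z : ℝ) : V3 :=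
  ![(q z (t.pos z) - q z (y.pos z)) / a, dt (e 1) (t.pos z - y.pos z) / w 1,
    dt (e 2) (t.pos z - y.pos z) / w 2]

theorem nrm_zero (e : Fin 3 → V3) (w : V3) (q : ℝ → V3 → ℝ) (a : ℝ) (y t : Ln4) (z : ℝ) :
    nrm e w q a y t z 0 = (q z (t.pos z) - q z (y.pos z)) / a := rfl
theorem nrm_one (e : Fin 3 → V3) (w : V3) (q : ℝ → V3 → ℝ) (a : ℝ) (y t : Ln4) (z : ℝ) :
    nrm e w q a y t z 1 = dt (e 1) (t.pos z - y.pos z) / w 1 := rfl
theorem nrm_two (e : Fin 3 → V3) (w : V3) (q : ℝ → V3 → ℝ) (a : ℝ) (y t : Ln4) (z : ℝ) :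
    nrm e w q a y t z 2 = dt (e 2) (t.pos z - y.pos z) / w 2 := rfl

/-- the centre line of the test sheet -/
def ctr (e : Fin 3 → V3) (c y : Ln4) : Ln4 where
  p := y.p - dt (e 0) (y.p - c.p) • e 0
  v := y.v - dt (e 0) (y.v - c.v) • e 0

theorem ctr_pos (e : Fin 3 → V3) (c y : Ln4) (z : ℝ) :
    (ctr e c y).pos z = y.pos z - dt (e 0) (y.pos z - c.pos z) • e 0 := by
  funext i
  simp only [ctr, Ln4.pos, Pi.sub_apply, Pi.smul_apply, smul_eq_mul, dt]
  ring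

/-- the rotated frame -/
def rot (e : Fin 3 → V3) (α β : ℝ) : Fin 3 → V3 :=
  ![e 0, α • e 1 + β • e 2, (-β) • e 1 + α • e 2]

@[simp] theorem rot_zero (e : Fin 3 → V3) (α β : ℝ) : rot e α β 0 = e 0 := rfl
@[simp] theorem rot_one (e : Fin 3 → V3) (α β : ℝ) : rot e α β 1 = α • e 1 + β • e 2 := rfl
@[simp] theorem rot_two (e : Fin 3 → V3) (α β : ℝ) : rot e α β 2 = (-β) • e 1 + α • e 2 := rfl

theorem rot_ortho {e : Fin 3 → V3} (he : Ortho e) {α β : ℝ} (h : α ^ 2 + β ^ 2 = 1) :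
    Ortho (rot e α β) := by
  have h00 : dt (e 0) (e 0) = 1 := by simpa using he 0 0
  have h11 : dt (e 1) (e 1) = 1 := by simpa using he 1 1
  have h22 : dt (e 2) (e 2) = 1 := by simpa using he 2 2
  have h01 : dt (e 0) (e 1) = 0 := by simpa using he 0 1
  have h02 : dt (e 0) (e 2) = 0 := by simpa using he 0 2
  have h10 : dt (e 1) (e 0) = 0 := by simpa using he 1 0
  have h20 : dt (e 2) (e 0) = 0 := by simpa using he 2 0
  have h12 : dt (e 1) (e 2) = 0 := by simpa using he 1 2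
  have h21 : dt (e 2) (e 1) = 0 := by simpa using he 2 1
  intro i j
  fin_cases i <;> fin_cases j <;>
    simp [rot, dt_add, dt_smul, add_dt, smul_dt, h00, h11, h22, h01, h02, h10, h20, h12, h21,
      -neg_smul] <;>
    linarith

/-- the function of the test sheet: `q - q(y) + a/n0 (n1 X1 + n2 X2)`, `X_i` the normalised base
coordinates relative to `y` -/
noncomputable def tq (e : Fin 3 → V3) (w : V3) (q : ℝ → V3 → ℝ) (a : ℝ) (y : Ln4) (n : V3) :
    ℝ → V3 → ℝ :=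
  fun z x => (q z x - q z (y.pos z)) +
    dt ((a / n 0 * (n 1 / w 1)) • e 1 + (a / n 0 * (n 2 / w 2)) • e 2) (x - y.pos z)

theorem tq_isQ {q : ℝ → V3 → ℝ} (hq : IsQ q) (e : Fin 3 → V3) (w : V3) (a : ℝ) (y : Ln4) (n : V3) :
    IsQ (tq e w q a y n) := (hq.sub_along y).add_lin _ _

theorem tq_apply (e : Fin 3 → V3) (w : V3) (q : ℝ → V3 → ℝ) {a : ℝ} (ha : a ≠ 0) (y t : Ln4)
    (n : V3) (hn : n 0 ≠ 0) (z : ℝ) :
    tq e w q a y n z (t.pos z) = a / n 0 * dt n (nrm e w q a y t z) := by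
  simp only [tq, nrm, add_dt, smul_dt]
  simp only [dt, Matrix.cons_val_zero, Matrix.cons_val_one, Matrix.cons_val]
  field_simp
  ring

theorem tq_add (e : Fin 3 → V3) (he : Ortho e) (w : V3) (q : ℝ → V3 → ℝ) (a : ℝ) (y : Ln4)
    (n : V3) (z τ : ℝ) (x : V3) :
    tq e w q a y n z (x + τ • e 0) - tq e w q a y n z x = q z (x + τ • e 0) - q z x := by
  have h10 : dt (e 1) (e 0) = 0 := by simpa using he 1 0
  have h20 : dt (e 2) (e 0) = 0 := by simpa using he 2 0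
  simp only [tq, add_dt, smul_dt, dt_sub, dt_add, dt_smul, h10, h20]
  ring

theorem abs_dt_le {u : V3} (hu : ∀ i, |u i| ≤ 1) (x : V3) :
    |dt u x| ≤ |x 0| + |x 1| + |x 2| := by
  unfold dt
  have g : ∀ i, |u i * x i| ≤ |x i| := fun i => by
    rw [abs_mul]
    have h2 := hu i
    nlinarith [abs_nonneg (x i)]
  have h1 := abs_add_le (u 0 * x 0 + u 1 * x 1) (u 2 * x 2)
  have h2 := abs_add_le (u 0 * x 0) (u 1 * x 1)
  linarith [g 0, g 1, g 2]

theorem tq_sub (e : Fin 3 → V3) (w : V3) (q : ℝ → V3 → ℝ) (a : ℝ) (y : Ln4) (n : V3) (z : ℝ)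
    (x x' : V3) : tq e w q a y n z x - tq e w q a y n z x' = (q z x - q z x') +
      (a / n 0 * (n 1 / w 1) * dt (e 1) (x - x') + a / n 0 * (n 2 / w 2) * dt (e 2) (x - x')) := by
  simp only [tq, add_dt, smul_dt, dt_sub]
  ring

/-- the doubled box of the test sheet is contained in the doubled box of the sheet -/
theorem sub_box {e : Fin 3 → V3} (he : Ortho e) {c y : Ln4} {w : V3} {α β A B S : ℝ}
    (hαβ : α ^ 2 + β ^ 2 = 1) (hw1 : w 2 ≤ w 1) (hw2 : 0 < w 2) (hS : 18 * S ≤ 1) (hS0 : 0 ≤ S)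
    (hA0 : 0 ≤ A) (hB0 : 0 ≤ B) (hA : A ≤ 3 * S * w 1) (hAb : A * |β| ≤ 3 * S * w 2)
    (hB : B ≤ 6 * S * w 2) {z : ℝ} (hy : InK e c w z (y.pos z)) {x : V3}
    (hx : InK (rot e α β) (ctr e c y) (dbl ![w 0, A, B]) z x) : InK e c (dbl w) z x := by
  have h00 : dt (e 0) (e 0) = 1 := by simpa using he 0 0
  have h10 : dt (e 1) (e 0) = 0 := by simpa using he 1 0
  have h20 : dt (e 2) (e 0) = 0 := by simpa using he 2 0
  have hα1 : |α| ≤ 1 := abs_le_one_iff_mul_self_le_one.2 (by nlinarith [sq_nonneg β])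
  have hβ1 : |β| ≤ 1 := abs_le_one_iff_mul_self_le_one.2 (by nlinarith [sq_nonneg α])
  have hw10 : 0 < w 1 := by linarith
  -- the coordinates of `x - ctr` in the rotated frame
  set ξ := (ctr e c y).pos z with hξ
  have g0 : dt (e 0) (ξ - c.pos z) = 0 := by
    rw [hξ, ctr_pos]; simp only [dt_sub, dt_smul, h00]; ring
  have g1 : dt (e 1) (ξ - c.pos z) = dt (e 1) (y.pos z - c.pos z) := by
    rw [hξ, ctr_pos]; simp only [dt_sub, dt_smul, h10]; ring
  have g2 : dt (e 2) (ξ - c.pos z) = dt (e 2) (y.pos z - c.pos z) := by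
    rw [hξ, ctr_pos]; simp only [dt_sub, dt_smul, h20]; ring
  have hx0 := hx 0
  have hx1 := hx 1
  have hx2 := hx 2
  simp only [rot_zero, rot_one, rot_two, dbl, Matrix.cons_val_zero, Matrix.cons_val_one,
    Matrix.cons_val, add_dt, smul_dt] at hx0 hx1 hx2
  rw [← hξ] at hx0 hx1 hx2
  set X1 := dt (e 1) (x - ξ) with hX1
  set X2 := dt (e 2) (x - ξ) with hX2
  have k1 : X1 = α * (α * X1 + β * X2) - β * (-β * X1 + α * X2) := by
    linear_combination (-X1) * hαβ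
  have k2 : X2 = β * (α * X1 + β * X2) + α * (-β * X1 + α * X2) := by
    linear_combination (-X2) * hαβ
  have m1 : |X1| ≤ 18 * S * w 1 := by
    rw [k1]
    refine (abs_sub _ _).trans ?_
    rw [abs_mul, abs_mul]
    calc |α| * |α * X1 + β * X2| + |β| * |-β * X1 + α * X2| ≤ 1 * (2 * A) + 1 * (2 * B) := by
          gcongr
      _ ≤ 1 * (2 * (3 * S * w 1)) + 1 * (2 * (6 * S * w 2)) := by gcongr
      _ ≤ 1 * (2 * (3 * S * w 1)) + 1 * (2 * (6 * S * w 1)) := by gcongr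
      _ = _ := by ring
  have m2 : |X2| ≤ 18 * S * w 2 := by
    rw [k2]
    refine (abs_add_le _ _).trans ?_
    rw [abs_mul, abs_mul]
    calc |β| * |α * X1 + β * X2| + |α| * |-β * X1 + α * X2| ≤ |β| * (2 * A) + 1 * (2 * B) := by
          gcongr
      _ = 2 * (A * |β|) + 2 * B := by ring
      _ ≤ 2 * (3 * S * w 2) + 2 * (6 * S * w 2) := by gcongr
      _ = _ := by ring
  have n1 : |X1| ≤ w 1 := m1.trans (by nlinarith)
  have n2 : |X2| ≤ w 2 := m2.trans (by nlinarith)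
  have e0 : dt (e 0) (x - c.pos z) = dt (e 0) (x - ξ) + dt (e 0) (ξ - c.pos z) := by
    rw [dt_sub, dt_sub, dt_sub]; ring
  have e1 : dt (e 1) (x - c.pos z) = X1 + dt (e 1) (ξ - c.pos z) := by
    rw [hX1, dt_sub, dt_sub, dt_sub]; ring
  have e2 : dt (e 2) (x - c.pos z) = X2 + dt (e 2) (ξ - c.pos z) := by
    rw [hX2, dt_sub, dt_sub, dt_sub]; ring
  intro i
  fin_cases i
  · change |dt (e 0) (x - c.pos z)| ≤ w 0
    rw [e0, g0, add_zero]; exact hx0
  · change |dt (e 1) (x - c.pos z)| ≤ 2 * w 1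
    rw [e1, g1]
    refine (abs_add_le _ _).trans ?_
    have := hy 1
    linarith
  · change |dt (e 2) (x - c.pos z)| ≤ 2 * w 2
    rw [e2, g2]
    refine (abs_add_le _ _).trans ?_
    have := hy 2
    linarith

/-- **the test sheet is a sheet** -/
theorem test_sheet {e : Fin 3 → V3} {c : Ln4} {w : V3} {q : ℝ → V3 → ℝ} {a z0 ρ r0 r1 : ℝ}
    (hS : Sheet e c w q a z0 ρ r1) (ha : 0 < a) {y : Ln4}
    (hy : ∀ z, z0 ≤ z → z ≤ z0 + ρ → InK e c w z (y.pos z))
    {n : Fin 3 → V3} (hn : Ortho n) {s : V3} (hs : ∀ i, 0 < s i) {i0 : Fin 3} {α β A B S σ : ℝ}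
    (hC : Cov n s (w 1) (w 2) i0 α β A B) (hsS : ∀ i, s i ≤ S) (hσs : ∀ i, σ ≤ s i) (hσ : 0 < σ)
    (h18 : 18 * S ≤ 1) (hr0 : 0 ≤ r0) (hr1 : r0 ≤ σ * r1) (hthin : 6 * S * a ≤ σ * w 2) :
    Sheet (rot e α β) (ctr e c y) ![w 0, A, B] (tq e w q a y (n i0)) (3 * (a * (s i0 / |n i0 0|)))
      z0 ρ r0 := by
  have hS0 : 0 < S := (hs 0).trans_le (hsS 0)
  have hw2 : 0 < w 2 := ha.trans_le hS.a_le
  have hw1 : 0 < w 1 := hw2.trans_le hS.w_le
  have hA0 : 0 ≤ A := hC.Bpos.le.trans hC.BA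
  have hsub : ∀ z, z0 ≤ z → z ≤ z0 + ρ → ∀ x, InK (rot e α β) (ctr e c y) (dbl ![w 0, A, B]) z x →
      InK e c (dbl w) z x := fun z h1 h2 x hx =>
    sub_box hS.ortho hC.unit hS.w_le hw2 h18 hS0.le hA0 hC.Bpos.le (hC.A_le S hsS)
      (hC.Ab_le S hsS) (hC.B_le S hsS) (hy z h1 h2) hx
  have hnn : 0 < |n i0 0| := abs_pos.2 hC.n0
  have haσ : a * σ ≤ a * (s i0 / |n i0 0|) :=
    mul_le_mul_of_nonneg_left ((hσs i0).trans hC.le_a) ha.le
  have ht0 : 0 < a * (s i0 / |n i0 0|) := by have := hs i0; positivity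
  refine
    { ortho := rot_ortho hS.ortho hC.unit
      isQ := tq_isQ hS.isQ _ _ _ _ _
      steep := ?_
      a_le := ?_
      w_le := hC.BA
      r0_le := ?_
      res := ?_ }
  · intro z h1 h2 x τ hτ hx hx'
    rw [rot_zero] at hx' ⊢
    rw [tq_add e hS.ortho]
    exact hS.steep z h1 h2 x τ hτ (hsub z h1 h2 x hx) (hsub z h1 h2 _ hx')
  · change 3 * (a * (s i0 / |n i0 0|)) ≤ B
    have h1 := hC.a_le S hsS
    have h2 := hC.le_B σ hσs
    calc 3 * (a * (s i0 / |n i0 0|)) ≤ 3 * (a * (2 * S)) := by gcongr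
      _ = 6 * S * a := by ring
      _ ≤ σ * w 2 := hthin
      _ ≤ B := h2
  · have h1 : r0 ≤ a * σ := by
      refine hr1.trans ?_
      rw [mul_comm a σ]
      exact mul_le_mul_of_nonneg_left hS.r0_le hσ.le
    linarith
  · obtain ⟨Λ, hΛ0, hΛ, hΛr⟩ := hS.res
    refine ⟨Λ + 2 * (a / |n i0 0| / w 2), by positivity, ?_, ?_⟩
    · intro z h1 h2 x x' hx hx'
      rw [tq_sub]
      refine (abs_add_le _ _).trans ?_
      rw [add_mul]
      have h3 := hΛ z h1 h2 x x' (hsub z h1 h2 x hx) (hsub z h1 h2 x' hx')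
      refine add_le_add h3 ?_
      set T := |x 0 - x' 0| + |x 1 - x' 1| + |x 2 - x' 2| with hT
      have hT0 : 0 ≤ T := by positivity
      have h4 : ∀ k, |dt (e k) (x - x')| ≤ T := fun k =>
        abs_dt_le (fun i => hS.ortho.abs_le_one k i) _
      have h5 : ∀ (k : Fin 3) (W : ℝ), w 2 ≤ W → |a / n i0 0 * (n i0 k / W)| ≤
          a / |n i0 0| / w 2 := by
        intro k W hW
        have hW0 : 0 < W := hw2.trans_le hW
        rw [abs_mul, abs_div, abs_div, abs_of_pos ha, abs_of_pos hW0]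
        have h6 := hn.abs_le_one i0 k
        calc a / |n i0 0| * (|n i0 k| / W) ≤ a / |n i0 0| * (1 / w 2) := by gcongr
          _ = _ := by ring
      calc |a / n i0 0 * (n i0 1 / w 1) * dt (e 1) (x - x') +
            a / n i0 0 * (n i0 2 / w 2) * dt (e 2) (x - x')| ≤
          |a / n i0 0 * (n i0 1 / w 1) * dt (e 1) (x - x')| +
            |a / n i0 0 * (n i0 2 / w 2) * dt (e 2) (x - x')| := abs_add_le _ _
        _ = |a / n i0 0 * (n i0 1 / w 1)| * |dt (e 1) (x - x')| +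
            |a / n i0 0 * (n i0 2 / w 2)| * |dt (e 2) (x - x')| := by
            rw [abs_mul _ (dt (e 1) _), abs_mul _ (dt (e 2) _)]
        _ ≤ a / |n i0 0| / w 2 * T + a / |n i0 0| / w 2 * T := by
            gcongr
            · exact h5 1 _ hS.w_le
            · exact h4 1
            · exact h5 2 _ le_rfl
            · exact h4 2
        _ = _ := by ring
    · have h1 : r0 * Λ ≤ a * σ := by
        calc r0 * Λ ≤ σ * r1 * Λ := by gcongr
          _ = σ * (r1 * Λ) := by ring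
          _ ≤ σ * a := by gcongr
          _ = _ := by ring
      have h2 : r0 * (2 * (a / |n i0 0| / w 2)) ≤ 2 * (a * (s i0 / |n i0 0|)) := by
        have h3 : r0 ≤ s i0 * w 2 := by
          calc r0 ≤ σ * r1 := hr1
            _ ≤ σ * a := mul_le_mul_of_nonneg_left hS.r0_le hσ.le
            _ ≤ s i0 * w 2 := by
                have h7 := hσs i0
                have h8 := hS.a_le
                have h9 := (hs i0).le
                gcongr
        calc r0 * (2 * (a / |n i0 0| / w 2)) ≤ s i0 * w 2 * (2 * (a / |n i0 0| / w 2)) := by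
              gcongr
          _ = _ := by field_simp
      calc r0 * (Λ + 2 * (a / |n i0 0| / w 2)) = r0 * Λ + r0 * (2 * (a / |n i0 0| / w 2)) := by
            ring
        _ ≤ a * σ + 2 * (a * (s i0 / |n i0 0|)) := add_le_add h1 h2
        _ ≤ _ := by linarith

/-- **the test sheet contains the lines of the box** -/
theorem test_mem {e : Fin 3 → V3} {c : Ln4} {w : V3} {q : ℝ → V3 → ℝ} {a z0 ρ : ℝ}
    (he : Ortho e) (ha : 0 < a) (hw1 : 0 < w 1) (hw2 : 0 < w 2) {y t : Ln4}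
    (ht : ∀ z, z0 ≤ z → z ≤ z0 + ρ → InK e c w z (t.pos z))
    {n : Fin 3 → V3} {s : V3} (hs : ∀ i, 0 < s i) {i0 : Fin 3} {α β A B : ℝ}
    (hC : Cov n s (w 1) (w 2) i0 α β A B)
    (hb : ∀ z, z0 ≤ z → z ≤ z0 + ρ → ∀ i, |dt (n i) (nrm e w q a y t z)| ≤ s i) :
    InSheet t (rot e α β) (ctr e c y) ![w 0, A, B] (tq e w q a y (n i0))
      (3 * (a * (s i0 / |n i0 0|))) z0 ρ := by
  have h00 : dt (e 0) (e 0) = 1 := by simpa using he 0 0
  have h10 : dt (e 1) (e 0) = 0 := by simpa using he 1 0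
  have h20 : dt (e 2) (e 0) = 0 := by simpa using he 2 0
  intro z h1 h2
  have hu := hb z h1 h2
  set u := nrm e w q a y t z with hud
  have hu1 : w 1 * u 1 = dt (e 1) (t.pos z - y.pos z) := by
    rw [hud, nrm_one]; field_simp
  have hu2 : w 2 * u 2 = dt (e 2) (t.pos z - y.pos z) := by
    rw [hud, nrm_two]; field_simp
  have c1 := hC.in1 u hu
  have c2 := hC.in2 u hu
  rw [hu1, hu2] at c1 c2
  have g0 : dt (e 0) (t.pos z - (ctr e c y).pos z) = dt (e 0) (t.pos z - c.pos z) := by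
    rw [ctr_pos]; simp only [dt_sub, dt_smul, h00]; ring
  have g1 : dt (e 1) (t.pos z - (ctr e c y).pos z) = dt (e 1) (t.pos z - y.pos z) := by
    rw [ctr_pos]; simp only [dt_sub, dt_smul, h10]; ring
  have g2 : dt (e 2) (t.pos z - (ctr e c y).pos z) = dt (e 2) (t.pos z - y.pos z) := by
    rw [ctr_pos]; simp only [dt_sub, dt_smul, h20]; ring
  refine ⟨?_, ?_⟩
  · intro i
    fin_cases i
    · change |dt (e 0) (t.pos z - (ctr e c y).pos z)| ≤ w 0
      rw [g0]; exact ht z h1 h2 0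
    · change |dt (α • e 1 + β • e 2) (t.pos z - (ctr e c y).pos z)| ≤ A
      rw [add_dt, smul_dt, smul_dt, g1, g2]
      exact c1
    · change |dt ((-β) • e 1 + α • e 2) (t.pos z - (ctr e c y).pos z)| ≤ B
      rw [add_dt, smul_dt, smul_dt, g1, g2]
      exact c2
  · rw [tq_apply e w q ha.ne' y t (n i0) hC.n0 z, ← hud, abs_mul, abs_div, abs_of_pos ha]
    have hnn : 0 < |n i0 0| := abs_pos.2 hC.n0
    have h3 := hs i0
    calc a / |n i0 0| * |dt (n i0) u| ≤ a / |n i0 0| * s i0 := by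
          gcongr
          exact hu i0
      _ = a * (s i0 / |n i0 0|) := by ring
      _ ≤ _ := by
          have : 0 < a * (s i0 / |n i0 0|) := by positivity
          linarith

open Classical in
/-- **(dmax) of Lemma A_Q, thin case**: `S'` a sheet at resolution `r1`, `6 S a ≤ σ w 2`; every box of
the normalised space of `S'` (half-widths in `[σ, S]`, `18 S ≤ 1`) around a line of `S'` holds at
most `27 D s0 s1 s2 · (a w2 w1) R (6 S a) (6 S w2) (6 S w1)` lines, if D-max holds at resolution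
`r0 ≤ σ r1`. -/
theorem dmax_thin {ι : Type} (T : Finset ι) (L : ι → Ln4) {e : Fin 3 → V3} {c : Ln4} {w : V3}
    {q : ℝ → V3 → ℝ} {a z0 ρ r0 r1 D wmax : ℝ} {R : ℝ → ℝ → ℝ → ℝ}
    (hS : Sheet e c w q a z0 ρ r1) (ha : 0 < a) (hD : 0 ≤ D)
    (hR0 : ∀ x y z, 0 ≤ x → 0 ≤ y → 0 ≤ z → 0 ≤ R x y z)
    (hRm : ∀ x y z x' y' z', 0 ≤ x → 0 ≤ y → 0 ≤ z → x ≤ x' → y ≤ y' → z ≤ z' →
      R x y z ≤ R x' y' z')
    (hmax : DMaxR T L z0 ρ D R r0 wmax)
    (hT : ∀ t ∈ T, ∀ z, z0 ≤ z → z ≤ z0 + ρ → InK e c w z ((L t).pos z)) {y : Ln4}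
    (hy : ∀ z, z0 ≤ z → z ≤ z0 + ρ → InK e c w z (y.pos z))
    {n : Fin 3 → V3} (hn : Ortho n) {s : V3} (hs : ∀ i, 0 < s i) {S σ : ℝ}
    (hsS : ∀ i, s i ≤ S) (hσs : ∀ i, σ ≤ s i) (hσ : 0 < σ)
    (h18 : 18 * S ≤ 1) (hr0 : 0 ≤ r0) (hr1 : r0 ≤ σ * r1) (hthin : 6 * S * a ≤ σ * w 2)
    (hwm : 3 * S * w 1 ≤ wmax) :
    ((T.filter fun t => ∀ z, z0 ≤ z → z ≤ z0 + ρ → ∀ i,
      |dt (n i) (nrm e w q a y (L t) z)| ≤ s i).card : ℝ) ≤
      27 * D * (s 0 * s 1 * s 2) *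
        (a * w 2 * w 1 * R (6 * S * a) (6 * S * w 2) (6 * S * w 1)) := by
  have hS0 : 0 < S := (hs 0).trans_le (hsS 0)
  have hw2 : 0 < w 2 := ha.trans_le hS.a_le
  have hw1 : 0 < w 1 := hw2.trans_le hS.w_le
  obtain ⟨i0, α, β, A, B, hC⟩ := exists_cov hn hs hw2 hS.w_le
  have hA0 : 0 ≤ A := hC.Bpos.le.trans hC.BA
  have h1 := hmax _ _ _ _ _ (test_sheet hS ha hy hn hs hC hsS hσs hσ h18 hr0 hr1 hthin)
    ((hC.A_le S hsS).trans hwm)
  have h2 : (T.filter fun t => ∀ z, z0 ≤ z → z ≤ z0 + ρ → ∀ i,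
      |dt (n i) (nrm e w q a y (L t) z)| ≤ s i) ⊆ T.filter fun t =>
      InSheet (L t) (rot e α β) (ctr e c y) ![w 0, A, B] (tq e w q a y (n i0))
        (3 * (a * (s i0 / |n i0 0|))) z0 ρ := by
    intro t ht
    rw [mem_filter] at ht ⊢
    exact ⟨ht.1, test_mem hS.ortho ha hw1 hw2 (hT t ht.1) hs hC ht.2⟩
  have h3 : ((T.filter fun t => ∀ z, z0 ≤ z → z ≤ z0 + ρ → ∀ i,
      |dt (n i) (nrm e w q a y (L t) z)| ≤ s i).card : ℝ) ≤
      ((T.filter fun t =>
      InSheet (L t) (rot e α β) (ctr e c y) ![w 0, A, B] (tq e w q a y (n i0))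
        (3 * (a * (s i0 / |n i0 0|))) z0 ρ).card : ℝ) := by exact_mod_cast card_le_card h2
  refine (h3.trans h1).trans ?_
  change D * (3 * (a * (s i0 / |n i0 0|)) * B * A * R (3 * (a * (s i0 / |n i0 0|))) B A) ≤ _
  have h4 : R (3 * (a * (s i0 / |n i0 0|))) B A ≤ R (6 * S * a) (6 * S * w 2) (6 * S * w 1) := by
    have h5 := hs i0
    have h6 : 0 < |n i0 0| := abs_pos.2 hC.n0
    apply hRm _ _ _ _ _ _ (by positivity) hC.Bpos.le hA0
    · have h7 := hC.a_le S hsS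
      calc 3 * (a * (s i0 / |n i0 0|)) ≤ 3 * (a * (2 * S)) := by gcongr
        _ = 6 * S * a := by ring
    · exact hC.B_le S hsS
    · calc A ≤ 3 * S * w 1 := hC.A_le S hsS
        _ ≤ 6 * S * w 1 := by gcongr; norm_num
  have h5 : 3 * (a * (s i0 / |n i0 0|)) * B * A ≤ 27 * (s 0 * s 1 * s 2) * (a * w 2 * w 1) := by
    calc 3 * (a * (s i0 / |n i0 0|)) * B * A = 3 * a * (A * B * (s i0 / |n i0 0|)) := by ring
      _ ≤ 3 * a * (9 * (w 1 * w 2) * (s 0 * s 1 * s 2)) :=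
          mul_le_mul_of_nonneg_left hC.vol (by positivity)
      _ = _ := by ring
  have h6 : 0 ≤ R (6 * S * a) (6 * S * w 2) (6 * S * w 1) :=
    hR0 _ _ _ (by positivity) (by positivity) (by positivity)
  have h7 : 0 < s 0 * s 1 * s 2 := mul_pos (mul_pos (hs 0) (hs 1)) (hs 2)
  have h8 : 0 ≤ 3 * (a * (s i0 / |n i0 0|)) * B * A := by
    have h5 := hs i0
    have h6 : 0 < |n i0 0| := abs_pos.2 hC.n0
    have := hC.Bpos
    positivity
  calc D * (3 * (a * (s i0 / |n i0 0|)) * B * A * R (3 * (a * (s i0 / |n i0 0|))) B A) ≤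
      D * (27 * (s 0 * s 1 * s 2) * (a * w 2 * w 1) *
        R (6 * S * a) (6 * S * w 2) (6 * S * w 1)) :=
        mul_le_mul_of_nonneg_left ((mul_le_mul_of_nonneg_left h4 h8).trans
          (mul_le_mul_of_nonneg_right h5 h6)) hD
    _ = _ := by ring

end Crest.Agent.R136.Sh605
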