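import Crest.Agent.R136.Tl3_102
import Crest.Agent.R136.Sh6_605
import Crest.Agent.R136.Sh3_605
import Crest.Agent.R136.Arc1_880

/-!
# R136 (S0187): dictionary for one sheet `ShN` around one of its lines (helper102)
-/

set_option autoImplicit false

namespace Crest.Agent.R136.Tl102

open Crest.Agent.R136.Sh605

/-- `Σ x k • f k` -/
def cmb (f : Fin 3 → V3) (x : V3) : V3 := fun i => x 0 * f 0 i + x 1 * f 1 i + x 2 * f 2 i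

/-- **expansion of a quadratic function around a line** -/
theorem expand {q : ℝ → V3 → ℝ} (hq : IsQ q) (T : Ln4) (f : Fin 3 → V3) (z0 ρ : ℝ) :
    ∃ (b0 b1 : V3) (G : QF), ∀ ζ x, q (z0 + ρ * ζ) (T.pos (z0 + ρ * ζ) + cmb f x) =
      q (z0 + ρ * ζ) (T.pos (z0 + ρ * ζ)) + Fq b0 b1 G ζ x := by
  obtain ⟨c0, c1, c2, b, d, g, h⟩ := hq
  -- gradient at `T(z)`, component `i`, is `A i + z B i`
  set A : V3 := fun i => b i + ∑ j, (g i j + g j i) * T.p j with hA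
  set B : V3 := fun i => d i + ∑ j, (g i j + g j i) * T.v j with hB
  refine ⟨fun k => ∑ i, (A i + z0 * B i) * f k i, fun k => ρ * ∑ i, B i * f k i,
    { yy := ∑ i, ∑ j, g i j * (f 0 i * f 0 j)
      yu := ∑ i, ∑ j, g i j * (f 0 i * f 1 j + f 1 i * f 0 j)
      yv := ∑ i, ∑ j, g i j * (f 0 i * f 2 j + f 2 i * f 0 j)
      uu := ∑ i, ∑ j, g i j * (f 1 i * f 1 j)
      uv := ∑ i, ∑ j, g i j * (f 1 i * f 2 j + f 2 i * f 1 j)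
      vv := ∑ i, ∑ j, g i j * (f 2 i * f 2 j) }, fun ζ x => ?_⟩
  rw [h, h]
  simp only [Fin.sum_univ_three, Ln4.pos, cmb, Pi.add_apply, Fq, bz, dt, QF.ev, hA, hB]
  ring

/-- scaling of a quadratic form -/
def QF.smul (c : ℝ) (M : QF) : QF where
  yy := c * M.yy
  yu := c * M.yu
  yv := c * M.yv
  uu := c * M.uu
  uv := c * M.uv
  vv := c * M.vv

theorem Fq_smul (c : ℝ) (b0 b1 : V3) (M : QF) (z : ℝ) (x : V3) :
    Fq (fun k => c * b0 k) (fun k => c * b1 k) (M.smul c) z x = c * Fq b0 b1 M z x := by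
  simp only [Fq, dt, bz, QF.ev, QF.smul]; ring

/-- normalised coefficients of a sheet of the class `ShN` around one of its lines -/
structure NrmC (b0 b1 : V3) (G : QF) : Prop where
  st : ∀ ζ, 0 ≤ ζ → ζ ≤ 1 → ∀ σ u v : ℝ, |σ| ≤ 1 → |u| ≤ 1 → |v| ≤ 1 →
    1 / 2 ≤ b0 0 + ζ * b1 0 + G.yy * σ + G.yu * u + G.yv * v ∧
      b0 0 + ζ * b1 0 + G.yy * σ + G.yu * u + G.yv * v ≤ 2
  b01 : |b0 1| ≤ 1
  b02 : |b0 2| ≤ 1
  b11 : |b0 1 + b1 1| ≤ 1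
  b12 : |b0 2 + b1 2| ≤ 1
  G_le : G.Le 1

/-- the coefficients are normalised -/
theorem nrmC_of {b0 b1 : V3} {G : QF}
    (h0 : ∀ ζ, 0 ≤ ζ → ζ ≤ 1 → ∀ x0 u v : ℝ, |x0| ≤ 1 → |x0 + 1| ≤ 1 → |u| ≤ 1 → |v| ≤ 1 →
      1 / 2 ≤ Fq b0 b1 G ζ ![x0 + 1, u, v] - Fq b0 b1 G ζ ![x0, u, v] ∧
        Fq b0 b1 G ζ ![x0 + 1, u, v] - Fq b0 b1 G ζ ![x0, u, v] ≤ 2)
    (h1 : ∀ ζ, 0 ≤ ζ → ζ ≤ 1 → ∀ x0 u v : ℝ, |x0| ≤ 1 → |u| ≤ 1 → |u + 1| ≤ 1 → |v| ≤ 1 →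
      |Fq b0 b1 G ζ ![x0, u + 1, v] - Fq b0 b1 G ζ ![x0, u, v]| ≤ 1)
    (h2 : ∀ ζ, 0 ≤ ζ → ζ ≤ 1 → ∀ x0 u v : ℝ, |x0| ≤ 1 → |u| ≤ 1 → |v| ≤ 1 → |v + 1| ≤ 1 →
      |Fq b0 b1 G ζ ![x0, u, v + 1] - Fq b0 b1 G ζ ![x0, u, v]| ≤ 1) : NrmC b0 b1 G := by
  have e0 : ∀ ζ x0 u v, Fq b0 b1 G ζ ![x0 + 1, u, v] - Fq b0 b1 G ζ ![x0, u, v] =
      b0 0 + ζ * b1 0 + G.yy * (2 * x0 + 1) + G.yu * u + G.yv * v := by
    intro ζ x0 u v
    simp only [Fq, dt, bz, QF.ev, Matrix.cons_val]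
    ring
  have e1 : ∀ ζ x0 u v, Fq b0 b1 G ζ ![x0, u + 1, v] - Fq b0 b1 G ζ ![x0, u, v] =
      b0 1 + ζ * b1 1 + G.uu * (2 * u + 1) + G.yu * x0 + G.uv * v := by
    intro ζ x0 u v
    simp only [Fq, dt, bz, QF.ev, Matrix.cons_val]
    ring
  have e2 : ∀ ζ x0 u v, Fq b0 b1 G ζ ![x0, u, v + 1] - Fq b0 b1 G ζ ![x0, u, v] =
      b0 2 + ζ * b1 2 + G.vv * (2 * v + 1) + G.yv * x0 + G.uv * u := by
    intro ζ x0 u v
    simp only [Fq, dt, bz, QF.ev, Matrix.cons_val]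
    ring
  have st : ∀ ζ, 0 ≤ ζ → ζ ≤ 1 → ∀ σ u v : ℝ, |σ| ≤ 1 → |u| ≤ 1 → |v| ≤ 1 →
      1 / 2 ≤ b0 0 + ζ * b1 0 + G.yy * σ + G.yu * u + G.yv * v ∧
        b0 0 + ζ * b1 0 + G.yy * σ + G.yu * u + G.yv * v ≤ 2 := by
    intro ζ hζ hζ' σ u v hσ hu hv
    rw [abs_le] at hσ
    have := h0 ζ hζ hζ' ((σ - 1) / 2) u v (by rw [abs_le]; constructor <;> linarith [hσ.1, hσ.2])
      (by rw [abs_le]; constructor <;> linarith [hσ.1, hσ.2]) hu hv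
    rw [e0] at this
    have h : 2 * ((σ - 1) / 2) + 1 = σ := by ring
    rwa [h] at this
  have a0 : |(0 : ℝ)| ≤ 1 := by norm_num
  have a1 : |(1 : ℝ)| ≤ 1 := by norm_num
  have a2 : |(-1 : ℝ)| ≤ 1 := by norm_num
  have ah : |(-(1 / 2) : ℝ)| ≤ 1 := by rw [abs_le]; constructor <;> norm_num
  have ah' : |(-(1 / 2) : ℝ) + 1| ≤ 1 := by rw [abs_le]; constructor <;> norm_num
  have am : |(-1 : ℝ) + 1| ≤ 1 := by norm_num
  have az : |(0 : ℝ) + 1| ≤ 1 := by norm_num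
  -- lateral
  have u0 := h1 0 le_rfl zero_le_one 0 (-(1 / 2)) 0 a0 ah ah' a0
  have u1 := h1 1 zero_le_one le_rfl 0 (-(1 / 2)) 0 a0 ah ah' a0
  have v0 := h2 0 le_rfl zero_le_one 0 0 (-(1 / 2)) a0 a0 ah ah'
  have v1 := h2 1 zero_le_one le_rfl 0 0 (-(1 / 2)) a0 a0 ah ah'
  have uu0 := h1 0 le_rfl zero_le_one 0 0 0 a0 a0 az a0
  have uu1 := h1 0 le_rfl zero_le_one 0 (-1) 0 a0 a2 am a0
  have vv0 := h2 0 le_rfl zero_le_one 0 0 0 a0 a0 a0 az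
  have vv1 := h2 0 le_rfl zero_le_one 0 0 (-1) a0 a0 a2 am
  have uv0 := h1 0 le_rfl zero_le_one 0 (-(1 / 2)) 1 a0 ah ah' a1
  have uv1 := h1 0 le_rfl zero_le_one 0 (-(1 / 2)) (-1) a0 ah ah' a2
  rw [e1] at u0 u1 uu0 uu1 uv0 uv1
  rw [e2] at v0 v1 vv0 vv1
  have y1 := st 0 le_rfl zero_le_one 1 0 0 a1 a0 a0
  have y2 := st 0 le_rfl zero_le_one (-1) 0 0 a2 a0 a0
  have y3 := st 0 le_rfl zero_le_one 0 1 0 a0 a1 a0
  have y4 := st 0 le_rfl zero_le_one 0 (-1) 0 a0 a2 a0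
  have y5 := st 0 le_rfl zero_le_one 0 0 1 a0 a0 a1
  have y6 := st 0 le_rfl zero_le_one 0 0 (-1) a0 a0 a2
  rw [abs_le] at u0 u1 v0 v1 uu0 uu1 vv0 vv1 uv0 uv1
  refine ⟨st, ?_, ?_, ?_, ?_, ?_, ?_, ?_, ?_, ?_, ?_⟩ <;> rw [abs_le] <;> constructor <;>
    linarith [u0.1, u0.2, u1.1, u1.2, v0.1, v0.2, v1.1, v1.2, uu0.1, uu0.2, uu1.1, uu1.2, vv0.1,
      vv0.2, vv1.1, vv1.2, uv0.1, uv0.2, uv1.1, uv1.2, y1.1, y1.2, y2.1, y2.2, y3.1, y3.2, y4.1,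
      y4.2, y5.1, y5.2, y6.1, y6.2]

/-- frame of the plank -/
def fr (e : Fin 3 → V3) (w : V3) : Fin 3 → V3 := fun k => w k • e k

theorem dt_cmb_fr {e : Fin 3 → V3} (he : Ortho e) (w x : V3) (i : Fin 3) :
    dt (e i) (cmb (fr e w) x) = w i * x i := by
  have h : ∀ j, dt (e i) (e j) = if i = j then 1 else 0 := he i
  have e1 : dt (e i) (cmb (fr e w) x) = x 0 * w 0 * dt (e i) (e 0) + x 1 * w 1 * dt (e i) (e 1) +
      x 2 * w 2 * dt (e i) (e 2) := by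
    simp only [dt, cmb, fr, Pi.smul_apply, smul_eq_mul]; ring
  rw [e1, h 0, h 1, h 2]
  fin_cases i <;> simp [mul_comm]

theorem cmb_add_zero (e : Fin 3 → V3) (w : V3) (P : V3) (x0 u v s : ℝ) :
    P + cmb (fr e w) ![x0 + s, u, v] = (P + cmb (fr e w) ![x0, u, v]) + (s * w 0) • e 0 := by
  ext i
  simp only [Pi.add_apply, cmb, fr, Pi.smul_apply, smul_eq_mul, Matrix.cons_val]
  ring

theorem cmb_add_one (e : Fin 3 → V3) (w : V3) (P : V3) (x0 u v s : ℝ) :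
    P + cmb (fr e w) ![x0, u + s, v] = (P + cmb (fr e w) ![x0, u, v]) + (s * w 1) • e 1 := by
  ext i
  simp only [Pi.add_apply, cmb, fr, Pi.smul_apply, smul_eq_mul, Matrix.cons_val]
  ring

theorem cmb_add_two (e : Fin 3 → V3) (w : V3) (P : V3) (x0 u v s : ℝ) :
    P + cmb (fr e w) ![x0, u, v + s] = (P + cmb (fr e w) ![x0, u, v]) + (s * w 2) • e 2 := by
  ext i
  simp only [Pi.add_apply, cmb, fr, Pi.smul_apply, smul_eq_mul, Matrix.cons_val]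
  ring

theorem inK_cmb {e : Fin 3 → V3} (he : Ortho e) {c T : Ln4} {w : V3} (hw : ∀ i, 0 ≤ w i) {z : ℝ}
    (hT : InK e c w z (T.pos z)) {x : V3} (hx : ∀ i, |x i| ≤ 1) :
    InK e c (dbl3 w) z (T.pos z + cmb (fr e w) x) := by
  intro i
  have e1 : dt (e i) (T.pos z + cmb (fr e w) x - c.pos z) =
      dt (e i) (T.pos z - c.pos z) + dt (e i) (cmb (fr e w) x) := by
    simp only [dt, Pi.add_apply, Pi.sub_apply]; ring
  rw [e1, dt_cmb_fr he]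
  refine (abs_add_le _ _).trans ?_
  rw [abs_mul, abs_of_nonneg (hw i)]
  have h1 := hT i
  have h2 := mul_le_mul_of_nonneg_left (hx i) (hw i)
  change _ ≤ 2 * w i
  linarith

/-- the part of the class conditions which is used (`ShN`, and every class with a free `w 0`):
`∂₀ q ∈ [1/2, 2]`, `|∂_k q| ≤ w 0 / w k` on the doubled box -/
structure StP (e : Fin 3 → V3) (c : Ln4) (w : V3) (q : ℝ → V3 → ℝ) (z0 ρ : ℝ) : Prop where
  ortho : Ortho e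
  isQ : IsQ q
  pos : ∀ i, 0 < w i
  st0 : ∀ z, z0 ≤ z → z ≤ z0 + ρ → ∀ (x : V3) (τ : ℝ), 0 ≤ τ → InK e c (dbl3 w) z x →
    InK e c (dbl3 w) z (x + τ • e 0) →
      τ / 2 ≤ q z (x + τ • e 0) - q z x ∧ q z (x + τ • e 0) - q z x ≤ 2 * τ
  st1 : ∀ z, z0 ≤ z → z ≤ z0 + ρ → ∀ (x : V3) (τ : ℝ), 0 ≤ τ → InK e c (dbl3 w) z x →
    InK e c (dbl3 w) z (x + τ • e 1) → |q z (x + τ • e 1) - q z x| ≤ w 0 / w 1 * τ
  st2 : ∀ z, z0 ≤ z → z ≤ z0 + ρ → ∀ (x : V3) (τ : ℝ), 0 ≤ τ → InK e c (dbl3 w) z x →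
    InK e c (dbl3 w) z (x + τ • e 2) → |q z (x + τ • e 2) - q z x| ≤ w 0 / w 2 * τ

theorem StP.of_shN {e : Fin 3 → V3} {c : Ln4} {w : V3} {q : ℝ → V3 → ℝ} {a z0 ρ r0 : ℝ}
    (S : ShN e c w q a z0 ρ r0) (hw0 : 0 < w 0) : StP e c w q z0 ρ where
  ortho := S.ortho
  isQ := S.isQ
  pos := by
    intro i; fin_cases i
    · exact hw0
    · exact (hw0.trans_le S.w0_le).trans_le S.w_le
    · exact hw0.trans_le S.w0_le
  st0 := S.st0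
  st1 := S.sl1
  st2 := S.sl2

/-- `(b0, b1, G)` is the expansion of `q` around the line `T` in the plank coordinates of `(e, w)`,
heights `z0 + ρ ζ`, in units of `w 0` -/
def IsExp (q : ℝ → V3 → ℝ) (e : Fin 3 → V3) (w : V3) (T : Ln4) (z0 ρ : ℝ) (b0 b1 : V3) (G : QF) :
    Prop :=
  ∀ ζ x, q (z0 + ρ * ζ) (T.pos (z0 + ρ * ζ) + cmb (fr e w) x) =
    q (z0 + ρ * ζ) (T.pos (z0 + ρ * ζ)) + w 0 * Fq b0 b1 G ζ x

/-- every quadratic function has an expansion -/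
theorem exists_isExp {q : ℝ → V3 → ℝ} (hq : IsQ q) (e : Fin 3 → V3) {w : V3} (hw0 : w 0 ≠ 0)
    (T : Ln4) (z0 ρ : ℝ) : ∃ b0 b1 G, IsExp q e w T z0 ρ b0 b1 G := by
  obtain ⟨b0, b1, G, h⟩ := Tl102.expand hq T (fr e w) z0 ρ
  refine ⟨fun k => (w 0)⁻¹ * b0 k, fun k => (w 0)⁻¹ * b1 k, G.smul (w 0)⁻¹, fun ζ x => ?_⟩
  rw [h, Fq_smul, ← mul_assoc, mul_inv_cancel₀ hw0, one_mul]

/-- the expansion of a sheet around a line of its box is normalised -/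
theorem IsExp.nrmC {e : Fin 3 → V3} {c : Ln4} {w : V3} {q : ℝ → V3 → ℝ} {z0 ρ : ℝ}
    (S : StP e c w q z0 ρ) (hρ : 0 ≤ ρ) {T : Ln4}
    (hT : ∀ z, z0 ≤ z → z ≤ z0 + ρ → InK e c w z (T.pos z)) {b0 b1 : V3} {G : QF}
    (h' : IsExp q e w T z0 ρ b0 b1 G) : NrmC b0 b1 G := by
  have hw0 := S.pos 0
  have hw1 := S.pos 1
  have hw2 := S.pos 2
  have hw : ∀ i, 0 ≤ w i := fun i => (S.pos i).le
  set F := Fq b0 b1 G with hF
  have hz : ∀ ζ, 0 ≤ ζ → ζ ≤ 1 → z0 ≤ z0 + ρ * ζ ∧ z0 + ρ * ζ ≤ z0 + ρ := by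
    intro ζ h1 h2
    constructor
    · nlinarith
    · nlinarith
  have vec : ∀ x0 u v : ℝ, |x0| ≤ 1 → |u| ≤ 1 → |v| ≤ 1 → ∀ i, |(![x0, u, v] : V3) i| ≤ 1 := by
    intro x0 u v h1 h2 h3 i
    fin_cases i
    · exact h1
    · exact h2
    · exact h3
  apply nrmC_of
  · intro ζ hζ hζ' x0 u v hx hx' hu hv
    obtain ⟨z1, z2⟩ := hz ζ hζ hζ'
    have i1 := inK_cmb S.ortho hw (hT _ z1 z2) (vec x0 u v hx hu hv)
    have i2 := inK_cmb S.ortho hw (hT _ z1 z2) (vec (x0 + 1) u v hx' hu hv)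
    rw [cmb_add_zero e w _ x0 u v 1, one_mul] at i2
    have := S.st0 _ z1 z2 _ (w 0) (hw 0) i1 i2
    have e1 := h' ζ ![x0 + 1, u, v]
    have e2 := h' ζ ![x0, u, v]
    rw [cmb_add_zero e w _ x0 u v 1, one_mul] at e1
    rw [e1, e2] at this
    obtain ⟨g1, g2⟩ := this
    constructor
    · by_contra hc
      push Not at hc
      nlinarith
    · by_contra hc
      push Not at hc
      nlinarith
  · intro ζ hζ hζ' x0 u v hx hu hu' hv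
    obtain ⟨z1, z2⟩ := hz ζ hζ hζ'
    have i1 := inK_cmb S.ortho hw (hT _ z1 z2) (vec x0 u v hx hu hv)
    have i2 := inK_cmb S.ortho hw (hT _ z1 z2) (vec x0 (u + 1) v hx hu' hv)
    rw [cmb_add_one e w _ x0 u v 1, one_mul] at i2
    have := S.st1 _ z1 z2 _ (w 1) (hw 1) i1 i2
    have e1 := h' ζ ![x0, u + 1, v]
    have e2 := h' ζ ![x0, u, v]
    rw [cmb_add_one e w _ x0 u v 1, one_mul] at e1
    have e3 : w 0 / w 1 * w 1 = w 0 := by field_simp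
    rw [e1, e2, e3] at this
    have e4 : q (z0 + ρ * ζ) (T.pos (z0 + ρ * ζ)) + w 0 * F ζ ![x0, u + 1, v] -
        (q (z0 + ρ * ζ) (T.pos (z0 + ρ * ζ)) + w 0 * F ζ ![x0, u, v]) =
        w 0 * (F ζ ![x0, u + 1, v] - F ζ ![x0, u, v]) := by ring
    rw [e4, abs_mul, abs_of_pos hw0] at this
    exact le_of_mul_le_mul_left (by linarith) hw0
  · intro ζ hζ hζ' x0 u v hx hu hv hv'
    obtain ⟨z1, z2⟩ := hz ζ hζ hζ'
    have i1 := inK_cmb S.ortho hw (hT _ z1 z2) (vec x0 u v hx hu hv)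
    have i2 := inK_cmb S.ortho hw (hT _ z1 z2) (vec x0 u (v + 1) hx hu hv')
    rw [cmb_add_two e w _ x0 u v 1, one_mul] at i2
    have := S.st2 _ z1 z2 _ (w 2) (hw 2) i1 i2
    have e1 := h' ζ ![x0, u, v + 1]
    have e2 := h' ζ ![x0, u, v]
    rw [cmb_add_two e w _ x0 u v 1, one_mul] at e1
    have e3 : w 0 / w 2 * w 2 = w 0 := by field_simp
    rw [e1, e2, e3] at this
    have e4 : q (z0 + ρ * ζ) (T.pos (z0 + ρ * ζ)) + w 0 * F ζ ![x0, u, v + 1] -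
        (q (z0 + ρ * ζ) (T.pos (z0 + ρ * ζ)) + w 0 * F ζ ![x0, u, v]) =
        w 0 * (F ζ ![x0, u, v + 1] - F ζ ![x0, u, v]) := by ring
    rw [e4, abs_mul, abs_of_pos hw0] at this
    exact le_of_mul_le_mul_left (by linarith) hw0

/-! ### tangent coordinates -/

/-- tangent coordinates: `x 0 = y - s₁ u - s₂ v`, `s_k = b0 k / b0 0` -/
noncomputable def unsh (b0 : V3) (y u v : ℝ) : V3 := ![y - b0 1 / b0 0 * u - b0 2 / b0 0 * v, u, v]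

/-- constant part in tangent coordinates -/
def shB0 (b0 : V3) : V3 := ![b0 0, 0, 0]

/-- rotation part in tangent coordinates -/
noncomputable def shB1 (b0 b1 : V3) : V3 :=
  ![b1 0, b1 1 - b0 1 / b0 0 * b1 0, b1 2 - b0 2 / b0 0 * b1 0]

/-- second order part in tangent coordinates -/
noncomputable def shG (b0 : V3) (G : QF) : QF where
  yy := G.yy
  yu := G.yu - 2 * (b0 1 / b0 0) * G.yy
  yv := G.yv - 2 * (b0 2 / b0 0) * G.yy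
  uu := G.uu - b0 1 / b0 0 * G.yu + (b0 1 / b0 0) ^ 2 * G.yy
  uv := G.uv - b0 2 / b0 0 * G.yu - b0 1 / b0 0 * G.yv + 2 * (b0 1 / b0 0 * (b0 2 / b0 0)) * G.yy
  vv := G.vv - b0 2 / b0 0 * G.yv + (b0 2 / b0 0) ^ 2 * G.yy

theorem Fq_unsh {b0 b1 : V3} {G : QF} (h : b0 0 ≠ 0) (ζ y u v : ℝ) :
    Fq b0 b1 G ζ (unsh b0 y u v) = Fq (shB0 b0) (shB1 b0 b1) (shG b0 G) ζ ![y, u, v] := by
  simp only [Fq, dt, bz, QF.ev, unsh, shB0, shB1, shG, Matrix.cons_val]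
  field_simp
  ring

/-- **curvature extent** along the line (in units of `w 0`) -/
noncomputable def kap (b0 b1 : V3) (G : QF) : ℝ :=
  max (max |shB1 b0 b1 1| |shB1 b0 b1 2|)
    (max (max |(shG b0 G).uu| |(shG b0 G).uv|) |(shG b0 G).vv|)

/-- rotation part, `y` in units of `κ` -/
noncomputable def scB1 (κ : ℝ) (b0 b1 : V3) : V3 :=
  ![b1 0, shB1 b0 b1 1 / κ, shB1 b0 b1 2 / κ]

/-- second order part, `y` in units of `κ` -/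
noncomputable def scG (κ : ℝ) (b0 : V3) (G : QF) : QF where
  yy := κ * G.yy
  yu := (shG b0 G).yu
  yv := (shG b0 G).yv
  uu := (shG b0 G).uu / κ
  uv := (shG b0 G).uv / κ
  vv := (shG b0 G).vv / κ

theorem Fq_scaled {b0 b1 : V3} {G : QF} {κ : ℝ} (h : b0 0 ≠ 0) (hκ : κ ≠ 0) (ζ y u v : ℝ) :
    Fq b0 b1 G ζ (unsh b0 (κ * y) u v) =
      κ * Fq (shB0 b0) (scB1 κ b0 b1) (scG κ b0 G) ζ ![y, u, v] := by
  rw [Fq_unsh h]
  simp only [Fq, dt, bz, QF.ev, shB0, shB1, scB1, scG, Matrix.cons_val]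
  have e : (shG b0 G).yy = G.yy := rfl
  rw [e]
  field_simp
  ring

/-- bounds of the unsheared coefficients -/
theorem NrmC.b1_le {b0 b1 : V3} {G : QF} (N : NrmC b0 b1 G) :
    1 / 2 ≤ b0 0 ∧ b0 0 ≤ 2 ∧ 1 / 2 ≤ b0 0 + b1 0 ∧ b0 0 + b1 0 ≤ 2 ∧ |b1 0| ≤ 3 / 2 ∧
      |b1 1| ≤ 2 ∧ |b1 2| ≤ 2 ∧ |b0 1 / b0 0| ≤ 2 ∧ |b0 2 / b0 0| ≤ 2 := by
  have a0 : |(0 : ℝ)| ≤ 1 := by norm_num
  have h0 := N.st 0 le_rfl zero_le_one 0 0 0 a0 a0 a0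
  have h1 := N.st 1 zero_le_one le_rfl 0 0 0 a0 a0 a0
  norm_num at h0 h1
  obtain ⟨h0, h0'⟩ := h0
  obtain ⟨h1, h1'⟩ := h1
  have e1 := N.b01
  have e2 := N.b02
  have e3 := N.b11
  have e4 := N.b12
  have e5 : |b0 1 / b0 0| ≤ 2 := by
    rw [abs_div, abs_of_pos (by linarith : 0 < b0 0), div_le_iff₀ (by linarith)]; linarith
  have e6 : |b0 2 / b0 0| ≤ 2 := by
    rw [abs_div, abs_of_pos (by linarith : 0 < b0 0), div_le_iff₀ (by linarith)]; linarith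
  rw [abs_le] at e1 e2 e3 e4
  refine ⟨by linarith, by linarith, by linarith, by linarith, ?_, ?_, ?_, e5, e6⟩ <;>
    rw [abs_le] <;> constructor <;> linarith [e1.1, e1.2, e2.1, e2.2, e3.1, e3.2, e4.1, e4.2]

theorem mul_abs_le {x y A B : ℝ} (hx : |x| ≤ A) (hy : |y| ≤ B) : |x * y| ≤ A * B := by
  rw [abs_mul]; exact mul_le_mul hx hy (abs_nonneg _) ((abs_nonneg _).trans hx)

/-- bounds in tangent coordinates -/
theorem NrmC.sh_le {b0 b1 : V3} {G : QF} (N : NrmC b0 b1 G) :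
    |shB1 b0 b1 1| ≤ 5 ∧ |shB1 b0 b1 2| ≤ 5 ∧ |(shG b0 G).yu| ≤ 5 ∧ |(shG b0 G).yv| ≤ 5 ∧
      |(shG b0 G).uu| ≤ 7 ∧ |(shG b0 G).uv| ≤ 13 ∧ |(shG b0 G).vv| ≤ 7 := by
  obtain ⟨-, -, -, -, h1, h2, h3, s1, s2⟩ := N.b1_le
  obtain ⟨m1, m2, m3, m4, m5, m6⟩ := N.G_le
  have t2 : |(2 : ℝ)| ≤ 2 := by norm_num
  have q1 : |(b0 1 / b0 0) ^ 2| ≤ 2 * 2 := by rw [sq]; exact mul_abs_le s1 s1
  have q2 : |(b0 2 / b0 0) ^ 2| ≤ 2 * 2 := by rw [sq]; exact mul_abs_le s2 s2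
  refine ⟨?_, ?_, ?_, ?_, ?_, ?_, ?_⟩
  · exact (Arc880.abs_sub2 h2 (mul_abs_le s1 h1)).trans (by norm_num)
  · exact (Arc880.abs_sub2 h3 (mul_abs_le s2 h1)).trans (by norm_num)
  · exact (Arc880.abs_sub2 m2 (mul_abs_le (mul_abs_le t2 s1) m1)).trans (by norm_num)
  · exact (Arc880.abs_sub2 m3 (mul_abs_le (mul_abs_le t2 s2) m1)).trans (by norm_num)
  · exact (Arc880.abs_add2 (Arc880.abs_sub2 m4 (mul_abs_le s1 m2)) (mul_abs_le q1 m1)).trans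
      (by norm_num)
  · exact (Arc880.abs_add2 (Arc880.abs_sub2 (Arc880.abs_sub2 m5 (mul_abs_le s2 m2))
      (mul_abs_le s1 m3)) (mul_abs_le (mul_abs_le t2 (mul_abs_le s1 s2)) m1)).trans (by norm_num)
  · exact (Arc880.abs_add2 (Arc880.abs_sub2 m6 (mul_abs_le s2 m3)) (mul_abs_le q2 m1)).trans
      (by norm_num)

theorem kap_nonneg (b0 b1 : V3) (G : QF) : 0 ≤ kap b0 b1 G :=
  (abs_nonneg _).trans ((le_max_left _ _).trans (le_max_left _ _))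

theorem kap_le {b0 b1 : V3} {G : QF} (N : NrmC b0 b1 G) : kap b0 b1 G ≤ 13 := by
  obtain ⟨h1, h2, -, -, h3, h4, h5⟩ := N.sh_le
  exact max_le (max_le (by linarith) (by linarith)) (max_le (max_le (by linarith) h4) (by linarith))

/-- bounds of the scaled coefficients -/
theorem NrmC.sc_le {b0 b1 : V3} {G : QF} (N : NrmC b0 b1 G) (hκ : 0 < kap b0 b1 G) :
    (∀ k, |shB0 b0 k| ≤ 2) ∧ (∀ k, |scB1 (kap b0 b1 G) b0 b1 k| ≤ 3 / 2) ∧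
      |scB1 (kap b0 b1 G) b0 b1 1| ≤ 1 ∧ |scB1 (kap b0 b1 G) b0 b1 2| ≤ 1 ∧
      |(scG (kap b0 b1 G) b0 G).yy| ≤ 13 ∧ |(scG (kap b0 b1 G) b0 G).yu| ≤ 5 ∧
      |(scG (kap b0 b1 G) b0 G).yv| ≤ 5 ∧ |(scG (kap b0 b1 G) b0 G).uu| ≤ 1 ∧
      |(scG (kap b0 b1 G) b0 G).uv| ≤ 1 ∧ |(scG (kap b0 b1 G) b0 G).vv| ≤ 1 := by
  obtain ⟨g1, g2, -, -, g3, -, -, -, -⟩ := N.b1_le
  obtain ⟨h1, h2, h3, h4, h5, h6, h7⟩ := N.sh_le
  obtain ⟨m1, -⟩ := N.G_le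
  have hk := kap_le N
  have d : ∀ x, |x| ≤ kap b0 b1 G → |x / kap b0 b1 G| ≤ 1 := by
    intro x hx
    rw [abs_div, abs_of_pos hκ, div_le_one hκ]; exact hx
  have k1 : |shB1 b0 b1 1| ≤ kap b0 b1 G := (le_max_left _ _).trans (le_max_left _ _)
  have k2 : |shB1 b0 b1 2| ≤ kap b0 b1 G := (le_max_right _ _).trans (le_max_left _ _)
  have k3 : |(shG b0 G).uu| ≤ kap b0 b1 G :=
    (le_max_left _ _).trans ((le_max_left _ _).trans (le_max_right _ _))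
  have k4 : |(shG b0 G).uv| ≤ kap b0 b1 G :=
    (le_max_right _ _).trans ((le_max_left _ _).trans (le_max_right _ _))
  have k5 : |(shG b0 G).vv| ≤ kap b0 b1 G := (le_max_right _ _).trans (le_max_right _ _)
  have j1 : |scB1 (kap b0 b1 G) b0 b1 1| ≤ 1 := d _ k1
  have j2 : |scB1 (kap b0 b1 G) b0 b1 2| ≤ 1 := d _ k2
  refine ⟨?_, ?_, j1, j2, ?_, h3, h4, d _ k3, d _ k4, d _ k5⟩
  · intro k
    fin_cases k
    · change |b0 0| ≤ 2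
      rw [abs_le]; constructor <;> linarith
    · change |(0 : ℝ)| ≤ 2; norm_num
    · change |(0 : ℝ)| ≤ 2; norm_num
  · intro k
    fin_cases k
    · exact g3
    · exact j1.trans (by norm_num)
    · exact j2.trans (by norm_num)
  · change |kap b0 b1 G * G.yy| ≤ 13
    have := mul_abs_le (abs_le.2 ⟨by linarith [kap_nonneg b0 b1 G], hk⟩ : |kap b0 b1 G| ≤ 13) m1
    linarith

/-! ### the fan of the sheet at a point of the line -/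

/-- slopes of the tangent lift at height `ζ` -/
noncomputable def slp (b0 b1 : V3) (k : Fin 3) (ζ : ℝ) : ℝ := -(b0 k + ζ * b1 k) / (b0 0 + ζ * b1 0)

/-- **conic of the fan** at height `ζ`: symmetric form at `(1, x, y)`, `x = t_u / 4`, `y = t_v / 4`,
`(t_u, t_v)` = lateral velocity relative to `T`; `1024 qf = dt b1 t + G.ev t` at the tangent lift -/
noncomputable def fan (b0 b1 : V3) (G : QF) (ζ : ℝ) : Fin 3 → Fin 3 → ℝ :=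
  ![![0, (b1 1 + b1 0 * slp b0 b1 1 ζ) / 512, (b1 2 + b1 0 * slp b0 b1 2 ζ) / 512],
    ![(b1 1 + b1 0 * slp b0 b1 1 ζ) / 512,
      (G.uu + G.yu * slp b0 b1 1 ζ + G.yy * slp b0 b1 1 ζ ^ 2) / 64,
      (G.uv + G.yu * slp b0 b1 2 ζ + G.yv * slp b0 b1 1 ζ +
        2 * G.yy * (slp b0 b1 1 ζ * slp b0 b1 2 ζ)) / 128],
    ![(b1 2 + b1 0 * slp b0 b1 2 ζ) / 512,
      (G.uv + G.yu * slp b0 b1 2 ζ + G.yv * slp b0 b1 1 ζ +
        2 * G.yy * (slp b0 b1 1 ζ * slp b0 b1 2 ζ)) / 128,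
      (G.vv + G.yv * slp b0 b1 2 ζ + G.yy * slp b0 b1 2 ζ ^ 2) / 64]]

/-- tangent lift -/
noncomputable def lft (b0 b1 : V3) (ζ u v : ℝ) : V3 :=
  ![slp b0 b1 1 ζ * u + slp b0 b1 2 ζ * v, u, v]

theorem qf_fan (b0 b1 : V3) (G : QF) (ζ x y : ℝ) :
    1024 * Arc880.qf (fan b0 b1 G ζ) x y =
      dt b1 (lft b0 b1 ζ (4 * x) (4 * y)) + G.ev (lft b0 b1 ζ (4 * x) (4 * y)) := by
  simp only [Arc880.qf, fan, dt, QF.ev, lft, Matrix.cons_val]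
  ring

end Crest.Agent.R136.Tl102
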