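import Crest.Agent.R136.Cap1_102

/-!
# R136 (S0187): captured lines in tangent coordinates, the pencil lemma for sheets (helper102)
-/

set_option autoImplicit false

namespace Crest.Agent.R136.Tl102

open Crest.Agent.R136.Sh605

/-- plank coordinates of `X - T(z)` -/
noncomputable def pc (e : Fin 3 → V3) (w : V3) (T : Ln4) (z : ℝ) (X : V3) : V3 :=
  fun k => dt (e k) (X - T.pos z) / w k

theorem cmb_pc {e : Fin 3 → V3} (he : Ortho e) {w : V3} (hw : ∀ k, w k ≠ 0) (T : Ln4) (z : ℝ)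
    (X : V3) : T.pos z + cmb (fr e w) (pc e w T z X) = X := by
  ext i
  have h0 := he.col 0 i
  have h1 := he.col 1 i
  have h2 := he.col 2 i
  have e1 : ∀ k, pc e w T z X k * fr e w k i = dt (e k) (X - T.pos z) * e k i := by
    intro k
    simp only [pc, fr, Pi.smul_apply, smul_eq_mul]
    field_simp [hw k]
  simp only [Pi.add_apply, cmb, e1]
  set Y := X - T.pos z with hY
  have e2 : X i = T.pos z i + Y i := by rw [hY, Pi.sub_apply]; ring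
  rw [e2]
  congr 1
  simp only [dt]
  have e3 : Y 0 * (e 0 0 * e 0 i + e 1 0 * e 1 i + e 2 0 * e 2 i) +
      Y 1 * (e 0 1 * e 0 i + e 1 1 * e 1 i + e 2 1 * e 2 i) +
      Y 2 * (e 0 2 * e 0 i + e 1 2 * e 1 i + e 2 2 * e 2 i) = Y i := by
    rw [h0, h1, h2]
    fin_cases i <;> simp
  linarith [e3]

/-- the tangent coordinate `y` of a point -/
noncomputable def yc (b0 x : V3) : ℝ := x 0 + b0 1 / b0 0 * x 1 + b0 2 / b0 0 * x 2

theorem unsh_yc (b0 x : V3) : unsh b0 (yc b0 x) (x 1) (x 2) = x := by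
  ext i
  fin_cases i
  · change yc b0 x - b0 1 / b0 0 * x 1 - b0 2 / b0 0 * x 2 = x 0
    unfold yc; ring
  · rfl
  · rfl

/-- **height of a point of the sheet over the tangent plane** -/
theorem yc_le {e : Fin 3 → V3} {c : Ln4} {w : V3} {q : ℝ → V3 → ℝ} {z0 ρ : ℝ}
    (S : StP e c w q z0 ρ) (hρ : 0 ≤ ρ) {T : Ln4}
    (hT : ∀ z, z0 ≤ z → z ≤ z0 + ρ → InK e c w z (T.pos z)) {b0 b1 : V3} {G : QF}
    (hE : IsExp q e w T z0 ρ b0 b1 G) {ζ : ℝ} (hζ : 0 ≤ ζ) (hζ' : ζ ≤ 1) {X : V3}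
    (hX : InK e c w (z0 + ρ * ζ) X) {r : ℝ} (hr : r ≤ 1 / 8)
    (h1 : |pc e w T (z0 + ρ * ζ) X 1| ≤ r) (h2 : |pc e w T (z0 + ρ * ζ) X 2| ≤ r) :
    w 0 * |yc b0 (pc e w T (z0 + ρ * ζ) X)| ≤
      2 * (|q (z0 + ρ * ζ) X| + |q (z0 + ρ * ζ) (T.pos (z0 + ρ * ζ))|) +
        5 * r * (w 0 * kap b0 b1 G) := by
  have N := hE.nrmC S hρ hT
  obtain ⟨g1, g2, -, -, -, -, -, s1, s2⟩ := N.b1_le
  have hr0 : 0 ≤ r := (abs_nonneg _).trans h1
  have hw0 := S.pos 0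
  have hwn : ∀ i, 0 ≤ w i := fun i => (S.pos i).le
  have hwne : ∀ i, w i ≠ 0 := fun i => (S.pos i).ne'
  set z := z0 + ρ * ζ with hz
  have z1 : z0 ≤ z := by rw [hz]; nlinarith
  have z2 : z ≤ z0 + ρ := by rw [hz]; nlinarith
  set x := pc e w T z X with hx
  set y := yc b0 x with hy
  -- the base point over the tangent plane
  set P := T.pos z + cmb (fr e w) (unsh b0 0 (x 1) (x 2)) with hP
  have hxX : T.pos z + cmb (fr e w) x = X := cmb_pc S.ortho hwne T z X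
  have hu0 : ∀ i, |(unsh b0 0 (x 1) (x 2)) i| ≤ 1 := by
    intro i
    fin_cases i
    · change |0 - b0 1 / b0 0 * x 1 - b0 2 / b0 0 * x 2| ≤ 1
      have a1 := mul_abs_le s1 h1
      have a2 := mul_abs_le s2 h2
      rw [abs_le] at a1 a2 ⊢
      constructor <;> linarith [a1.1, a1.2, a2.1, a2.2]
    · exact h1.trans (by linarith)
    · exact h2.trans (by linarith)
  have hPK : InK e c (dbl3 w) z P := inK_cmb S.ortho hwn (hT z z1 z2) hu0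
  have hXK : InK e c (dbl3 w) z X := by
    intro i
    have := hX i
    change _ ≤ 2 * w i
    linarith [hwn i]
  -- X = P + (y w0) e0
  have hXP : X = P + (y * w 0) • e 0 := by
    rw [← hxX, hP]
    ext i
    have e0 : x 0 = y - b0 1 / b0 0 * x 1 - b0 2 / b0 0 * x 2 := by rw [hy]; unfold yc; ring
    simp only [Pi.add_apply, cmb, fr, Pi.smul_apply, smul_eq_mul, unsh, Matrix.cons_val, e0]
    ring
  -- steepness
  have hst : w 0 * |y| ≤ 2 * |q z X - q z P| := by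
    rcases le_total 0 y with h0 | h0
    · have hy0 : 0 ≤ y * w 0 := mul_nonneg h0 hw0.le
      have := (S.st0 z z1 z2 P (y * w 0) hy0 hPK (by rw [← hXP]; exact hXK)).1
      rw [← hXP] at this
      rw [abs_of_nonneg h0]
      have h3 := le_abs_self (q z X - q z P)
      have h4 : w 0 * y = y * w 0 := by ring
      rw [h4]; linarith
    · have hy0 : 0 ≤ -y * w 0 := mul_nonneg (by linarith) hw0.le
      have hPX : P = X + (-y * w 0) • e 0 := by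
        rw [hXP]
        ext i
        simp only [Pi.add_apply, Pi.smul_apply, smul_eq_mul]
        ring
      have := (S.st0 z z1 z2 X (-y * w 0) hy0 hXK (by rw [← hPX]; exact hPK)).1
      rw [← hPX] at this
      rw [abs_of_nonpos h0, abs_sub_comm]
      have h3 := le_abs_self (q z P - q z X)
      have h4 : w 0 * -y = -y * w 0 := by ring
      rw [h4]; linarith
  -- the value at P
  have hPv : q z P = q z (T.pos z) + w 0 * Fq (shB0 b0) (shB1 b0 b1) (shG b0 G) ζ ![0, x 1, x 2] := by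
    rw [← Fq_unsh (by linarith : b0 0 ≠ 0), hP, hz]
    exact hE ζ _
  have hF : |Fq (shB0 b0) (shB1 b0 b1) (shG b0 G) ζ ![0, x 1, x 2]| ≤ 5 / 2 * r * kap b0 b1 G := by
    have k1 : |shB1 b0 b1 1| ≤ kap b0 b1 G := (le_max_left _ _).trans (le_max_left _ _)
    have k2 : |shB1 b0 b1 2| ≤ kap b0 b1 G := (le_max_right _ _).trans (le_max_left _ _)
    have k3 : |(shG b0 G).uu| ≤ kap b0 b1 G :=
      (le_max_left _ _).trans ((le_max_left _ _).trans (le_max_right _ _))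
    have k4 : |(shG b0 G).uv| ≤ kap b0 b1 G :=
      (le_max_right _ _).trans ((le_max_left _ _).trans (le_max_right _ _))
    have k5 : |(shG b0 G).vv| ≤ kap b0 b1 G := (le_max_right _ _).trans (le_max_right _ _)
    have k0 := kap_nonneg b0 b1 G
    have hζa : |ζ| ≤ 1 := by rw [abs_of_nonneg hζ]; exact hζ'
    have e1 : Fq (shB0 b0) (shB1 b0 b1) (shG b0 G) ζ ![0, x 1, x 2] =
        ζ * shB1 b0 b1 1 * x 1 + ζ * shB1 b0 b1 2 * x 2 + ((shG b0 G).uu * (x 1 * x 1) +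
          (shG b0 G).uv * (x 1 * x 2) + (shG b0 G).vv * (x 2 * x 2)) := by
      simp only [Fq, dt, bz, QF.ev, shB0, Matrix.cons_val]
      ring
    rw [e1]
    have a1 := mul_abs_le (mul_abs_le hζa k1) h1
    have a2 := mul_abs_le (mul_abs_le hζa k2) h2
    have a3 := mul_abs_le k3 (mul_abs_le h1 h1)
    have a4 := mul_abs_le k4 (mul_abs_le h1 h2)
    have a5 := mul_abs_le k5 (mul_abs_le h2 h2)
    refine (Arc880.abs_add2 (Arc880.abs_add2 a1 a2)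
      (Arc880.abs_add2 (Arc880.abs_add2 a3 a4) a5)).trans ?_
    have a6 : kap b0 b1 G * (r * r) ≤ kap b0 b1 G * (r * (1 / 8)) := by gcongr
    nlinarith
  have h3 : |q z X - q z P| ≤ (|q z X| + |q z (T.pos z)|) + w 0 * (5 / 2 * r * kap b0 b1 G) := by
    rw [hPv]
    have e1 : q z X - (q z (T.pos z) + w 0 * Fq (shB0 b0) (shB1 b0 b1) (shG b0 G) ζ ![0, x 1, x 2]) =
        (q z X - q z (T.pos z)) -
          w 0 * Fq (shB0 b0) (shB1 b0 b1) (shG b0 G) ζ ![0, x 1, x 2] := by ring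
    rw [e1]
    refine (abs_sub _ _).trans (add_le_add (abs_sub _ _) ?_)
    rw [abs_mul, abs_of_pos hw0]
    exact mul_le_mul_of_nonneg_left hF hw0.le
  calc w 0 * |y| ≤ 2 * |q z X - q z P| := hst
    _ ≤ 2 * ((|q z X| + |q z (T.pos z)|) + w 0 * (5 / 2 * r * kap b0 b1 G)) := by linarith
    _ = _ := by ring

/-! ### shear and scaling of a second function -/

/-- linear part, tangent coordinates of slopes `s₁, s₂`, `y` in units of `κ` -/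
noncomputable def gl (κ s₁ s₂ : ℝ) (l : V3) : V3 := ![l 0, (l 1 - s₁ * l 0) / κ, (l 2 - s₂ * l 0) / κ]

/-- quadratic part -/
noncomputable def gM (κ s₁ s₂ : ℝ) (M : QF) : QF where
  yy := κ * M.yy
  yu := M.yu - 2 * s₁ * M.yy
  yv := M.yv - 2 * s₂ * M.yy
  uu := (M.uu - s₁ * M.yu + s₁ ^ 2 * M.yy) / κ
  uv := (M.uv - s₂ * M.yu - s₁ * M.yv + 2 * (s₁ * s₂) * M.yy) / κ
  vv := (M.vv - s₂ * M.yv + s₂ ^ 2 * M.yy) / κ

theorem Fq_g {κ s₁ s₂ : ℝ} (hκ : κ ≠ 0) (l0 l1 : V3) (M : QF) (ζ y u v : ℝ) :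
    Fq l0 l1 M ζ ![κ * y - s₁ * u - s₂ * v, u, v] =
      κ * Fq (gl κ s₁ s₂ l0) (gl κ s₁ s₂ l1) (gM κ s₁ s₂ M) ζ ![y, u, v] := by
  simp only [Fq, dt, bz, QF.ev, gl, gM, Matrix.cons_val]
  field_simp
  ring

/-- `ω = q₂ - m q₁` -/
def QF.comb (m : ℝ) (M' M : QF) : QF where
  yy := M'.yy - m * M.yy
  yu := M'.yu - m * M.yu
  yv := M'.yv - m * M.yv
  uu := M'.uu - m * M.uu
  uv := M'.uv - m * M.uv
  vv := M'.vv - m * M.vv

theorem Fq_comb (m : ℝ) (b0 b1 b0' b1' : V3) (M' M : QF) (ζ : ℝ) (x : V3) :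
    Fq (fun k => b0' k - m * b0 k) (fun k => b1' k - m * b1 k) (QF.comb m M' M) ζ x =
      Fq b0' b1' M' ζ x - m * Fq b0 b1 M ζ x := by
  simp only [Fq, dt, bz, QF.ev, QF.comb]; ring

/-! ### lines of the sheet near `T` -/

/-- relative velocity in plank coordinates -/
noncomputable def vel (e : Fin 3 → V3) (w : V3) (ρ : ℝ) (T T' : Ln4) : V3 :=
  fun k => ρ * dt (e k) (T'.v - T.v) / w k

/-- relative position in plank coordinates -/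
noncomputable def rp (e : Fin 3 → V3) (w : V3) (z0 ρ : ℝ) (T T' : Ln4) (ζ : ℝ) : V3 :=
  pc e w T (z0 + ρ * ζ) (T'.pos (z0 + ρ * ζ))

theorem rp_affine (e : Fin 3 → V3) (w : V3) (z0 ρ : ℝ) (T T' : Ln4) (c ζ : ℝ) (k : Fin 3) :
    rp e w z0 ρ T T' ζ k = rp e w z0 ρ T T' c k + (ζ - c) * vel e w ρ T T' k := by
  simp only [rp, pc, vel, dt, Pi.sub_apply, Ln4.pos]
  ring

/-- scaled tangent coordinates of the relative position at height `c` -/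
noncomputable def sD (κ : ℝ) (b0 x : V3) : V3 := ![yc b0 x / κ, x 1, x 2]

theorem sD_pos {κ : ℝ} (b0 : V3) (e : Fin 3 → V3) (w : V3) (z0 ρ : ℝ) (T T' : Ln4) (c ζ : ℝ) :
    pos (sD κ b0 (rp e w z0 ρ T T' c)) (sD κ b0 (vel e w ρ T T')) c ζ =
      sD κ b0 (rp e w z0 ρ T T' ζ) := by
  have h := rp_affine e w z0 ρ T T' c ζ
  ext k
  fin_cases k
  · change yc b0 (rp e w z0 ρ T T' c) / κ + (ζ - c) * (yc b0 (vel e w ρ T T') / κ) =
      yc b0 (rp e w z0 ρ T T' ζ) / κ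
    unfold yc
    rw [h 0, h 1, h 2]; ring
  · change rp e w z0 ρ T T' c 1 + (ζ - c) * vel e w ρ T T' 1 = rp e w z0 ρ T T' ζ 1
    rw [h 1]
  · change rp e w z0 ρ T T' c 2 + (ζ - c) * vel e w ρ T T' 2 = rp e w z0 ρ T T' ζ 2
    rw [h 2]

/-- value of a function with an expansion at a point -/
theorem IsExp.at {q' : ℝ → V3 → ℝ} {e : Fin 3 → V3} (he : Ortho e) {w : V3} (hw : ∀ k, w k ≠ 0)
    {T : Ln4} {z0 ρ : ℝ} {b0' b1' : V3} {G' : QF} (hE : IsExp q' e w T z0 ρ b0' b1' G') {κ : ℝ}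
    (hκ : κ ≠ 0) (b0 : V3) (ζ : ℝ) (X : V3) :
    q' (z0 + ρ * ζ) X = q' (z0 + ρ * ζ) (T.pos (z0 + ρ * ζ)) + w 0 * (κ *
      Fq (gl κ (b0 1 / b0 0) (b0 2 / b0 0) b0') (gl κ (b0 1 / b0 0) (b0 2 / b0 0) b1')
        (gM κ (b0 1 / b0 0) (b0 2 / b0 0) G') ζ (sD κ b0 (pc e w T (z0 + ρ * ζ) X))) := by
  set x := pc e w T (z0 + ρ * ζ) X with hx
  have h1 := hE ζ x
  rw [hx, cmb_pc he hw, ← hx] at h1
  rw [h1]
  congr 2
  have h2 : x = ![κ * (yc b0 x / κ) - b0 1 / b0 0 * x 1 - b0 2 / b0 0 * x 2, x 1, x 2] := by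
    have h3 := unsh_yc b0 x
    rw [mul_div_cancel₀ _ hκ]
    exact h3.symm
  conv_lhs => rw [h2]
  rw [Fq_g hκ]
  rfl

/-- **one captured line** -/
theorem captured {e : Fin 3 → V3} {c : Ln4} {w : V3} {q : ℝ → V3 → ℝ} {z0 ρ a : ℝ}
    (S : StP e c w q z0 ρ) (hρ : 0 ≤ ρ) {T T' : Ln4} (hT : InSheet T e c w q a z0 ρ)
    (hT' : InSheet T' e c w q a z0 ρ) {b0 b1 : V3} {G : QF}
    (hE : IsExp q e w T z0 ρ b0 b1 G) (hκ : 0 < kap b0 b1 G)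
    (hA : a / (w 0 * kap b0 b1 G) ≤ 1 / 2) {s r : ℝ} (hs : 0 ≤ s) (hs' : s ≤ 1) (hr : r ≤ 1 / 40)
    (h1 : |rp e w z0 ρ T T' s 1| ≤ r) (h2 : |rp e w z0 ρ T T' s 2| ≤ r) :
    (∀ k, |sD (kap b0 b1 G) b0 (rp e w z0 ρ T T' s) k| ≤
      5 * r + 4 * (a / (w 0 * kap b0 b1 G))) ∧
    (∀ k, |sD (kap b0 b1 G) b0 (vel e w ρ T T') k| ≤ 256) := by
  set κ := kap b0 b1 G with hκd
  have hw0 := S.pos 0
  have hr0 : 0 ≤ r := (abs_nonneg _).trans h1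
  have hz : ∀ ζ, 0 ≤ ζ → ζ ≤ 1 → z0 ≤ z0 + ρ * ζ ∧ z0 + ρ * ζ ≤ z0 + ρ := by
    intro ζ h1 h2
    constructor
    · nlinarith
    · nlinarith
  have hTK : ∀ z, z0 ≤ z → z ≤ z0 + ρ → InK e c w z (T.pos z) := fun z h1 h2 => (hT z h1 h2).1
  have ha : 0 ≤ a := (abs_nonneg _).trans (hT z0 le_rfl (by linarith)).2
  set A := a / (w 0 * κ) with hAd
  have hwk : 0 < w 0 * κ := mul_pos hw0 hκ
  have hA0 : 0 ≤ A := by positivity
  have haA : a = A * (w 0 * κ) := by rw [hAd]; field_simp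
  -- tangent height at `ζ`
  have hy : ∀ ζ, 0 ≤ ζ → ζ ≤ 1 → ∀ r', r' ≤ 1 / 8 → |rp e w z0 ρ T T' ζ 1| ≤ r' →
      |rp e w z0 ρ T T' ζ 2| ≤ r' → |yc b0 (rp e w z0 ρ T T' ζ)| ≤ (4 * A + 5 * r') * κ := by
    intro ζ hζ hζ' r' hr' k1 k2
    obtain ⟨z1, z2⟩ := hz ζ hζ hζ'
    have := yc_le S hρ hTK hE hζ hζ' (hT' _ z1 z2).1 hr' k1 k2
    have q1 := (hT' _ z1 z2).2
    have q2 := (hT _ z1 z2).2
    have h3 : w 0 * |yc b0 (rp e w z0 ρ T T' ζ)| ≤ w 0 * ((4 * A + 5 * r') * κ) := by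
      calc w 0 * |yc b0 (rp e w z0 ρ T T' ζ)| ≤ 2 * (a + a) + 5 * r' * (w 0 * κ) := by
            refine this.trans ?_
            gcongr
        _ = w 0 * ((4 * A + 5 * r') * κ) := by rw [haA]; ring
    exact le_of_mul_le_mul_left h3 hw0
  -- lateral velocities
  have hx : ∀ ζ, 0 ≤ ζ → ζ ≤ 1 → ∀ k, |rp e w z0 ρ T T' ζ k| ≤ 2 := by
    intro ζ hζ hζ' k
    obtain ⟨z1, z2⟩ := hz ζ hζ hζ'
    have k1 := (hT' _ z1 z2).1 k
    have k2 := (hT _ z1 z2).1 k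
    have hwk := S.pos k
    have e1 : dt (e k) (T'.pos (z0 + ρ * ζ) - T.pos (z0 + ρ * ζ)) =
        dt (e k) (T'.pos (z0 + ρ * ζ) - c.pos (z0 + ρ * ζ)) -
          dt (e k) (T.pos (z0 + ρ * ζ) - c.pos (z0 + ρ * ζ)) := by
      rw [dt_sub, dt_sub, dt_sub]; ring
    change |dt (e k) (T'.pos (z0 + ρ * ζ) - T.pos (z0 + ρ * ζ)) / w k| ≤ 2
    rw [abs_div, abs_of_pos hwk, div_le_iff₀ hwk, e1]
    exact (abs_sub _ _).trans (by linarith)
  have hv : ∀ k, |vel e w ρ T T' k| ≤ 4 := by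
    intro k
    have e1 := rp_affine e w z0 ρ T T' 0 1 k
    have e2 : vel e w ρ T T' k = rp e w z0 ρ T T' 1 k - rp e w z0 ρ T T' 0 k := by
      rw [e1]; ring
    rw [e2]
    refine (abs_sub _ _).trans ?_
    have := hx 1 zero_le_one le_rfl k
    have := hx 0 le_rfl zero_le_one k
    linarith
  -- a nearby height
  obtain ⟨ζ', g1, g2, g3⟩ : ∃ ζ' : ℝ, 0 ≤ ζ' ∧ ζ' ≤ 1 ∧ |ζ' - s| = 1 / 40 := by
    rcases le_total s (1 / 2) with h | h
    · refine ⟨s + 1 / 40, by linarith, by linarith, ?_⟩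
      rw [add_sub_cancel_left]; norm_num
    · refine ⟨s - 1 / 40, by linarith, by linarith, ?_⟩
      have : s - 1 / 40 - s = -(1 / 40) := by ring
      rw [this]; norm_num
  have hx' : ∀ k, |rp e w z0 ρ T T' s k| ≤ r → |rp e w z0 ρ T T' ζ' k| ≤ 1 / 8 := by
    intro k hk
    rw [rp_affine e w z0 ρ T T' s ζ' k]
    refine (abs_add_le _ _).trans ?_
    rw [abs_mul, g3]
    have := hv k
    linarith
  have y1 := hy s hs hs' r (by linarith) h1 h2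
  have y2 := hy ζ' g1 g2 (1 / 8) le_rfl (hx' 1 h1) (hx' 2 h2)
  have hycv : |yc b0 (vel e w ρ T T')| ≤ 256 * κ := by
    have e1 : yc b0 (rp e w z0 ρ T T' ζ') - yc b0 (rp e w z0 ρ T T' s) =
        (ζ' - s) * yc b0 (vel e w ρ T T') := by
      unfold yc
      rw [rp_affine e w z0 ρ T T' s ζ' 0, rp_affine e w z0 ρ T T' s ζ' 1,
        rp_affine e w z0 ρ T T' s ζ' 2]
      ring
    have h3 : 1 / 40 * |yc b0 (vel e w ρ T T')| ≤ (4 * A + 5 * (1 / 8)) * κ + (4 * A + 5 * r) * κ := by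
      rw [← g3, ← abs_mul, ← e1]
      exact (abs_sub _ _).trans (add_le_add y2 y1)
    have h4 : (4 * A + 5 * (1 / 8)) * κ + (4 * A + 5 * r) * κ ≤ (256 / 40) * κ := by
      rw [← add_mul]
      apply mul_le_mul_of_nonneg_right _ hκ.le
      linarith
    linarith
  constructor
  · intro k
    fin_cases k
    · change |yc b0 (rp e w z0 ρ T T' s) / κ| ≤ _
      rw [abs_div, abs_of_pos hκ, div_le_iff₀ hκ]
      linarith
    · change |rp e w z0 ρ T T' s 1| ≤ _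
      linarith
    · change |rp e w z0 ρ T T' s 2| ≤ _
      linarith
  · intro k
    fin_cases k
    · change |yc b0 (vel e w ρ T T') / κ| ≤ _
      rw [abs_div, abs_of_pos hκ, div_le_iff₀ hκ]
      exact hycv
    · exact (hv 1).trans (by norm_num)
    · exact (hv 2).trans (by norm_num)

/-! ### the pencil lemma for sheets -/

/-- constant of the twist -/
def cTw : ℝ := 21600 * 256 ^ 6

/-- constant of smallness -/
def cSm : ℝ := 6 * 10 ^ 12 * 256 ^ 8 * cTw ^ 10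

/-- constant of the conclusion -/
def cOut : ℝ := 16 * (1 + 108 * (2 * 10 ^ 11 * 256 ^ 7 * cTw ^ 10))

theorem cTw_pos : 0 < cTw := by unfold cTw; positivity
theorem one_le_cTw : 1 ≤ cTw := by unfold cTw; norm_num
theorem cSm_pos : 0 < cSm := by unfold cSm; have := cTw_pos; positivity
theorem cOut_pos : 0 < cOut := by unfold cOut; have := cTw_pos; positivity

theorem gl_own {b0 : V3} (h : b0 0 ≠ 0) (κ : ℝ) :
    gl κ (b0 1 / b0 0) (b0 2 / b0 0) b0 = shB0 b0 := by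
  ext k
  fin_cases k
  · rfl
  · change (b0 1 - b0 1 / b0 0 * b0 0) / κ = 0
    rw [div_mul_cancel₀ _ h, sub_self, zero_div]
  · change (b0 2 - b0 2 / b0 0 * b0 0) / κ = 0
    rw [div_mul_cancel₀ _ h, sub_self, zero_div]

theorem gl_own1 (b0 b1 : V3) (κ : ℝ) :
    gl κ (b0 1 / b0 0) (b0 2 / b0 0) b1 = scB1 κ b0 b1 := rfl

theorem gM_own (b0 : V3) (G : QF) (κ : ℝ) :
    gM κ (b0 1 / b0 0) (b0 2 / b0 0) G = scG κ b0 G := rfl

/-- the twist is bounded below when the fan is broad -/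
theorem twist_lower {b0 b1 : V3} {G : QF} (N : NrmC b0 b1 G) (hκ : 0 < kap b0 b1 G) {η r B0 c : ℝ}
    (hη : 0 < η) (hc0 : 0 ≤ c) (hc1 : c ≤ 1) {D t : Fin 3 → V3}
    (hD : ∀ j k, |D j k| ≤ r) (ht : ∀ j k, |t j k| ≤ 256)
    (htd : ∀ j j', j ≠ j' → η ≤ |t j 1 * t j' 2 - t j' 1 * t j 2|)
    (h0 : ∀ j z', 0 ≤ z' → z' ≤ 1 → |Fq (shB0 b0) (scB1 (kap b0 b1 G) b0 b1)
      (scG (kap b0 b1 G) b0 G) z' (pos (D j) (t j) c z')| ≤ B0)
    (hsm : B0 + r ≤ η ^ 2 / cTw) (hη1 : η ^ 2 / cTw ≤ 1 / 2) :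
    η ^ 2 / cTw ≤ |shB0 b0 0 * scB1 (kap b0 b1 G) b0 b1 1 -
        scB1 (kap b0 b1 G) b0 b1 0 * shB0 b0 1| ∨
      η ^ 2 / cTw ≤ |shB0 b0 0 * scB1 (kap b0 b1 G) b0 b1 2 -
        scB1 (kap b0 b1 G) b0 b1 0 * shB0 b0 2| := by
  obtain ⟨g1, g2, g3, g4, g5, -, -, -, -⟩ := N.b1_le
  obtain ⟨c1, c2, c3, c4, c5, c6, c7, c8, c9, c10⟩ := N.sc_le hκ
  set κ := kap b0 b1 G with hκd
  set b1' := scB1 κ b0 b1 with hb1'
  set G' := scG κ b0 G with hG'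
  set β := max |b1' 1| |b1' 2| with hβ
  have hβ1 : |b1' 1| ≤ β := le_max_left _ _
  have hβ2 : |b1' 2| ≤ β := le_max_right _ _
  have hG'' : G'.Le 256 := ⟨c5.trans (by norm_num), c6.trans (by norm_num), c7.trans (by norm_num),
    c8.trans (by norm_num), c9.trans (by norm_num), c10.trans (by norm_num)⟩
  obtain ⟨w1, w2, w3⟩ := twist (K := 256) hη (by norm_num)
    (fun k => (c2 k).trans (by norm_num)) hG''
    (show 1 / 2 ≤ shB0 b0 0 from g1) (show 1 / 2 ≤ shB0 b0 0 + b1' 0 from g3)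
    (g5.trans (by norm_num)) rfl rfl hβ1 hβ2 hc0 hc1 hD ht htd h0
  -- the maximum of the five scaled entries is one
  have hmax : 1 ≤ max β (max (max |G'.uu| |G'.uv|) |G'.vv|) := by
    have e : κ / κ = max β (max (max |G'.uu| |G'.uv|) |G'.vv|) := by
      have k1 : ∀ x : ℝ, |x / κ| = |x| / κ := fun x => by rw [abs_div, abs_of_pos hκ]
      have e1 : |b1' 1| = |shB1 b0 b1 1| / κ := k1 _
      have e2 : |b1' 2| = |shB1 b0 b1 2| / κ := k1 _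
      have e3 : |G'.uu| = |(shG b0 G).uu| / κ := k1 _
      have e4 : |G'.uv| = |(shG b0 G).uv| / κ := k1 _
      have e5 : |G'.vv| = |(shG b0 G).vv| / κ := k1 _
      rw [hβ, e1, e2, e3, e4, e5, max_div_div_right hκ.le, max_div_div_right hκ.le,
        max_div_div_right hκ.le, max_div_div_right hκ.le]
      rfl
    rw [← e, div_self hκ.ne']
  have hcT := cTw_pos
  have hr : 0 ≤ r := (abs_nonneg _).trans (hD 0 0)
  have hB0 : 0 ≤ B0 := (abs_nonneg _).trans (h0 0 0 le_rfl zero_le_one)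
  have hβ0 : 0 ≤ β := (abs_nonneg _).trans hβ1
  have hβl : 2 * (η ^ 2 / cTw) ≤ β := by
    by_contra hc
    push Not at hc
    have hlt : 5400 * 256 ^ 6 * (β + B0 + r) / η ^ 2 < 1 := by
      rw [div_lt_one (by positivity)]
      have h3 : β + B0 + r < 3 * (η ^ 2 / cTw) := by linarith
      calc 5400 * 256 ^ 6 * (β + B0 + r) < 5400 * 256 ^ 6 * (3 * (η ^ 2 / cTw)) := by
            apply mul_lt_mul_of_pos_left h3 (by norm_num)
        _ ≤ cTw * (η ^ 2 / cTw) := by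
            have : (5400 : ℝ) * 256 ^ 6 * 3 ≤ cTw := by unfold cTw; norm_num
            have h4 : 0 ≤ η ^ 2 / cTw := by positivity
            nlinarith
        _ = η ^ 2 := by field_simp
    have : max β (max (max |G'.uu| |G'.uv|) |G'.vv|) < 1 := by
      refine max_lt (by linarith) (max_lt (max_lt (w1.trans_lt hlt) (w2.trans_lt hlt))
        (w3.trans_lt hlt))
    linarith
  have hfin : ∀ x : ℝ, β ≤ |x| → η ^ 2 / cTw ≤ |b0 0 * x| := by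
    intro x hx
    rw [abs_mul, abs_of_pos (by linarith : 0 < b0 0)]
    have h4 : 0 ≤ η ^ 2 / cTw := by positivity
    nlinarith
  rcases le_total |b1' 1| |b1' 2| with h | h
  · right
    have e : shB0 b0 0 * b1' 2 - b1' 0 * shB0 b0 2 = b0 0 * b1' 2 := by
      change b0 0 * b1' 2 - b1' 0 * 0 = _; ring
    rw [e]
    exact hfin _ (by rw [hβ]; exact max_le h le_rfl)
  · left
    have e : shB0 b0 0 * b1' 1 - b1' 0 * shB0 b0 1 = b0 0 * b1' 1 := by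
      change b0 0 * b1' 1 - b1' 0 * 0 = _; ring
    rw [e]
    exact hfin _ (by rw [hβ]; exact max_le le_rfl h)

/-- evaluation bound -/
theorem Fq_le {l0 l1 x : V3} {M : QF} {X R ζ : ℝ} (h0 : ∀ k, |l0 k| ≤ X) (h1 : ∀ k, |l1 k| ≤ X)
    (hM : M.Le X) (hζ : |ζ| ≤ 1) (hx : ∀ k, |x k| ≤ R) (hR : 1 ≤ R) :
    |Fq l0 l1 M ζ x| ≤ 12 * R ^ 2 * X := by
  obtain ⟨m1, m2, m3, m4, m5, m6⟩ := hM
  have hX : 0 ≤ X := (abs_nonneg _).trans m1
  have e : Fq l0 l1 M ζ x = (l0 0 * x 0 + ζ * l1 0 * x 0) + (l0 1 * x 1 + ζ * l1 1 * x 1) +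
      (l0 2 * x 2 + ζ * l1 2 * x 2) + ((M.yy * (x 0 * x 0) + M.yu * (x 0 * x 1) +
        M.yv * (x 0 * x 2)) + (M.uu * (x 1 * x 1) + M.uv * (x 1 * x 2) + M.vv * (x 2 * x 2))) := by
    simp only [Fq, dt, bz, QF.ev]; ring
  rw [e]
  have a : ∀ k, |l0 k * x k + ζ * l1 k * x k| ≤ X * R + 1 * X * R := fun k =>
    Arc880.abs_add2 (mul_abs_le (h0 k) (hx k)) (mul_abs_le (mul_abs_le hζ (h1 k)) (hx k))
  have b : ∀ k l, |x k * x l| ≤ R * R := fun k l => mul_abs_le (hx k) (hx l)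
  refine (Arc880.abs_add2 (Arc880.abs_add2 (Arc880.abs_add2 (a 0) (a 1)) (a 2))
    (Arc880.abs_add2 (Arc880.abs_add2 (Arc880.abs_add2 (mul_abs_le m1 (b 0 0))
      (mul_abs_le m2 (b 0 1))) (mul_abs_le m3 (b 0 2)))
      (Arc880.abs_add2 (Arc880.abs_add2 (mul_abs_le m4 (b 1 1)) (mul_abs_le m5 (b 1 2)))
        (mul_abs_le m6 (b 2 2))))).trans ?_
  have : X * R ≤ X * (R * R) := by
    apply mul_le_mul_of_nonneg_left _ hX
    nlinarith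
  nlinarith

/-- **THE PENCIL LEMMA FOR SHEETS.** `T` a line of the sheet `S₁` (function `q`) and of `S₂`
(function `q₂`, `q₂ = O(a₂)` on `T`); at three `η`-separated heights `ζ i` three lines `L i j` of
both sheets pass `T` within lateral distance `r`, with pairwise `η`-transversal relative lateral
velocities; then `q₂ = O((a + a₂) η⁻²⁰)` on `S₁` near `T`. -/
theorem pencil_sheet {e : Fin 3 → V3} {c : Ln4} {w : V3} {q q₂ : ℝ → V3 → ℝ} {z0 ρ a a₂ : ℝ}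
    (S : StP e c w q z0 ρ) (hρ : 0 ≤ ρ) {T : Ln4} (hT : InSheet T e c w q a z0 ρ)
    {b0 b1 : V3} {G : QF} (hE : IsExp q e w T z0 ρ b0 b1 G) (hκ : 0 < kap b0 b1 G)
    {b0' b1' : V3} {G' : QF} (hE' : IsExp q₂ e w T z0 ρ b0' b1' G') (hm : |b0' 0| ≤ 4)
    (hT₂ : ∀ z, z0 ≤ z → z ≤ z0 + ρ → |q₂ z (T.pos z)| ≤ a₂)
    {η r : ℝ} (hη : 0 < η) (hη1 : η ≤ 1)
    {s : Fin 3 → ℝ} (hs : ∀ i, 0 ≤ s i ∧ s i ≤ 1) (hsd : ∀ i j, i ≠ j → η ≤ |s i - s j|)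
    {L : Fin 3 → Fin 3 → Ln4} (hL : ∀ i j, InSheet (L i j) e c w q a z0 ρ)
    (hL₂ : ∀ i j, ∀ z, z0 ≤ z → z ≤ z0 + ρ → |q₂ z ((L i j).pos z)| ≤ a₂)
    (hr1 : ∀ i j, |rp e w z0 ρ T (L i j) (s i) 1| ≤ r)
    (hr2 : ∀ i j, |rp e w z0 ρ T (L i j) (s i) 2| ≤ r)
    (htd : ∀ i j j', j ≠ j' → η ≤ |vel e w ρ T (L i j) 1 * vel e w ρ T (L i j') 2 -
      vel e w ρ T (L i j') 1 * vel e w ρ T (L i j) 2|)
    (hsm : cSm * (r + a / (w 0 * kap b0 b1 G)) ≤ η ^ 20) :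
    ∀ ζ, 0 ≤ ζ → ζ ≤ 1 → ∀ X, InK e c w (z0 + ρ * ζ) X → |q (z0 + ρ * ζ) X| ≤ a →
      |pc e w T (z0 + ρ * ζ) X 1| ≤ 1 / 8 → |pc e w T (z0 + ρ * ζ) X 2| ≤ 1 / 8 →
      |q₂ (z0 + ρ * ζ) X| ≤ cOut * (a + a₂) / η ^ 20 := by
  have hw0 := S.pos 0
  have hwne : ∀ i, w i ≠ 0 := fun i => (S.pos i).ne'
  have hz : ∀ ζ, 0 ≤ ζ → ζ ≤ 1 → z0 ≤ z0 + ρ * ζ ∧ z0 + ρ * ζ ≤ z0 + ρ := by
    intro ζ h1 h2
    constructor
    · nlinarith
    · nlinarith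
  have hTK : ∀ z, z0 ≤ z → z ≤ z0 + ρ → InK e c w z (T.pos z) := fun z h1 h2 => (hT z h1 h2).1
  have N := hE.nrmC S hρ hTK
  obtain ⟨g1, g2, g3, g4, g5, -, -, -, -⟩ := N.b1_le
  have hb0 : b0 0 ≠ 0 := by linarith
  obtain ⟨c1, c2, c3, c4, c5, c6, c7, c8, c9, c10⟩ := N.sc_le hκ
  set κ := kap b0 b1 G with hκd
  have ha : 0 ≤ a := (abs_nonneg _).trans (hT z0 le_rfl (by linarith)).2
  have ha₂ : 0 ≤ a₂ := (abs_nonneg _).trans (hT₂ z0 le_rfl (by linarith))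
  have hr : 0 ≤ r := (abs_nonneg _).trans (hr1 0 0)
  have hwk : 0 < w 0 * κ := mul_pos hw0 hκ
  set A := a / (w 0 * κ) with hAd
  have hA0 : 0 ≤ A := by positivity
  have hcT := cTw_pos
  -- smallness
  set ηp := η ^ 2 / cTw with hηp
  have hηp0 : 0 < ηp := by positivity
  have hηp1 : ηp ≤ 1 / 2 := by
    rw [hηp, div_le_iff₀ hcT]
    have : η ^ 2 ≤ 1 := pow_le_one₀ hη.le hη1
    have : (2 : ℝ) ≤ cTw := by unfold cTw; norm_num
    linarith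
  have hηpη : ηp ≤ η := by
    rw [hηp, div_le_iff₀ hcT]
    have := one_le_cTw
    nlinarith
  have hsm1 : 10 ^ 12 * 256 ^ 8 * (6 * (r + A)) ≤ ηp ^ 10 := by
    have e1 : ηp ^ 10 = η ^ 20 / cTw ^ 10 := by rw [hηp, div_pow]; ring
    rw [e1, le_div_iff₀ (by positivity)]
    refine le_trans (le_of_eq ?_) hsm
    rw [cSm]; ring
  have hsm2 : 6 * (r + A) ≤ ηp / 2 ∧ 6 * (r + A) ≤ 1 / 40 := by
    have h1 : ηp ^ 10 ≤ ηp := by
      calc ηp ^ 10 ≤ ηp ^ 1 := pow_le_pow_of_le_one hηp0.le (by linarith) (by norm_num)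
        _ = ηp := pow_one _
    have h3 : 0 ≤ 6 * (r + A) := by positivity
    constructor <;> nlinarith
  have hr40 : r ≤ 1 / 40 := by linarith [hsm2.2]
  have hA2 : A ≤ 1 / 2 := by linarith [hsm2.2]
  -- the captured lines
  have cap := fun i j => captured S hρ hT (hL i j) hE hκ hA2 (hs i).1 (hs i).2 hr40 (hr1 i j)
    (hr2 i j)
  set D : Fin 3 → Fin 3 → V3 := fun i j => sD κ b0 (rp e w z0 ρ T (L i j) (s i)) with hD
  set t : Fin 3 → Fin 3 → V3 := fun i j => sD κ b0 (vel e w ρ T (L i j)) with ht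
  have hDr : ∀ i j k, |D i j k| ≤ 5 * r + 4 * A := fun i j k => (cap i j).1 k
  have htr : ∀ i j k, |t i j k| ≤ 256 := fun i j k => (cap i j).2 k
  have hpos : ∀ i j ζ, pos (D i j) (t i j) (s i) ζ = sD κ b0 (rp e w z0 ρ T (L i j) ζ) :=
    fun i j ζ => sD_pos b0 e w z0 ρ T (L i j) (s i) ζ
  have htd' : ∀ i j j', j ≠ j' → η ≤ |t i j 1 * t i j' 2 - t i j' 1 * t i j 2| :=
    fun i j j' h => htd i j j' h
  -- values
  have h0 : ∀ i j z', 0 ≤ z' → z' ≤ 1 →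
      |Fq (shB0 b0) (scB1 κ b0 b1) (scG κ b0 G) z' (pos (D i j) (t i j) (s i) z')| ≤ 2 * A := by
    intro i j ζ hζ hζ'
    obtain ⟨z1, z2⟩ := hz ζ hζ hζ'
    rw [hpos]
    have h1 := hE.at S.ortho hwne hκ.ne' b0 ζ ((L i j).pos (z0 + ρ * ζ))
    rw [gl_own hb0, gl_own1, gM_own] at h1
    have q1 := (hL i j _ z1 z2).2
    have q2 := (hT _ z1 z2).2
    have h2 : w 0 * κ * |Fq (shB0 b0) (scB1 κ b0 b1) (scG κ b0 G) ζ
        (sD κ b0 (rp e w z0 ρ T (L i j) ζ))| ≤ 2 * a := by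
      rw [← abs_of_pos hwk, ← abs_mul, mul_assoc]
      have e1 : w 0 * (κ * Fq (shB0 b0) (scB1 κ b0 b1) (scG κ b0 G) ζ
          (sD κ b0 (rp e w z0 ρ T (L i j) ζ))) =
          q (z0 + ρ * ζ) ((L i j).pos (z0 + ρ * ζ)) - q (z0 + ρ * ζ) (T.pos (z0 + ρ * ζ)) := by
        rw [h1]; unfold rp; ring
      rw [e1]
      exact (abs_sub _ _).trans (by linarith)
    have h3 : 2 * A * (w 0 * κ) = 2 * a := by rw [hAd]; field_simp
    exact le_of_mul_le_mul_left (by linarith) hwk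
  set m := b0' 0 / b0 0 with hmd
  have hm8 : |m| ≤ 8 := by
    rw [hmd, abs_div, abs_of_pos (by linarith : 0 < b0 0), div_le_iff₀ (by linarith)]; linarith
  set l0 : V3 := fun k => b0' k - m * b0 k with hl0
  set l1 : V3 := fun k => b1' k - m * b1 k with hl1
  set M := QF.comb m G' G with hM
  set σ₁ := b0 1 / b0 0 with hσ₁
  set σ₂ := b0 2 / b0 0 with hσ₂
  have hωE : ∀ ζ X, q₂ (z0 + ρ * ζ) X - q₂ (z0 + ρ * ζ) (T.pos (z0 + ρ * ζ)) -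
      m * (q (z0 + ρ * ζ) X - q (z0 + ρ * ζ) (T.pos (z0 + ρ * ζ))) = w 0 * κ *
        Fq (gl κ σ₁ σ₂ l0) (gl κ σ₁ σ₂ l1) (gM κ σ₁ σ₂ M) ζ
          (sD κ b0 (pc e w T (z0 + ρ * ζ) X)) := by
    have hEω : IsExp (fun z X => q₂ z X - m * q z X) e w T z0 ρ l0 l1 M := by
      intro ζ x
      have h1 := hE ζ x
      have h2 := hE' ζ x
      beta_reduce
      rw [h1, h2, hl0, hl1, hM, Fq_comb]
      ring
    intro ζ X
    have := hEω.at S.ortho hwne hκ.ne' b0 ζ X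
    linarith
  have hB1 : ∀ i j z', 0 ≤ z' → z' ≤ 1 → |Fq (gl κ σ₁ σ₂ l0) (gl κ σ₁ σ₂ l1) (gM κ σ₁ σ₂ M) z'
      (pos (D i j) (t i j) (s i) z')| ≤ (2 * a₂ + 16 * a) / (w 0 * κ) := by
    intro i j ζ hζ hζ'
    obtain ⟨z1, z2⟩ := hz ζ hζ hζ'
    rw [hpos, le_div_iff₀ hwk]
    have h1 := hωE ζ ((L i j).pos (z0 + ρ * ζ))
    have q1 := (hL i j _ z1 z2).2
    have q2 := (hT _ z1 z2).2
    have q3 := hL₂ i j _ z1 z2
    have q4 := hT₂ _ z1 z2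
    have e0 : |Fq (gl κ σ₁ σ₂ l0) (gl κ σ₁ σ₂ l1) (gM κ σ₁ σ₂ M) ζ
        (sD κ b0 (rp e w z0 ρ T (L i j) ζ))| * (w 0 * κ) =
        |w 0 * κ * Fq (gl κ σ₁ σ₂ l0) (gl κ σ₁ σ₂ l1) (gM κ σ₁ σ₂ M) ζ
          (sD κ b0 (pc e w T (z0 + ρ * ζ) ((L i j).pos (z0 + ρ * ζ))))| := by
      rw [abs_mul, abs_of_pos hwk, mul_comm]; rfl
    rw [e0, ← h1]
    have a1 : |q₂ (z0 + ρ * ζ) ((L i j).pos (z0 + ρ * ζ)) -
        q₂ (z0 + ρ * ζ) (T.pos (z0 + ρ * ζ))| ≤ a₂ + a₂ := Arc880.abs_sub2 q3 q4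
    have a2 : |m * (q (z0 + ρ * ζ) ((L i j).pos (z0 + ρ * ζ)) -
        q (z0 + ρ * ζ) (T.pos (z0 + ρ * ζ)))| ≤ 8 * (a + a) :=
      mul_abs_le hm8 (Arc880.abs_sub2 q1 q2)
    exact (Arc880.abs_sub2 a1 a2).trans (by linarith)
  -- twist
  have hG'' : (scG κ b0 G).Le 256 := ⟨c5.trans (by norm_num), c6.trans (by norm_num),
    c7.trans (by norm_num), c8.trans (by norm_num), c9.trans (by norm_num), c10.trans (by norm_num)⟩
  have hw := twist_lower N hκ hη (hs 0).1 (hs 0).2 (fun j k => hDr 0 j k) (fun j k => htr 0 j k)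
    (htd' 0) (h0 0) (by linarith [hsm2.1]) hηp1
  have P := pencil_curved (K := 256) hηp0 (by linarith) (by norm_num)
    (fun k => (c1 k).trans (by norm_num)) (fun k => (c2 k).trans (by norm_num)) hG''
    (show 1 / 2 ≤ shB0 b0 0 from g1) (show shB0 b0 0 ≤ 2 from g2)
    (show 1 / 2 ≤ shB0 b0 0 + scB1 κ b0 b1 0 from g3)
    (show shB0 b0 0 + scB1 κ b0 b1 0 ≤ 2 from g4) hw
    (show gl κ σ₁ σ₂ l0 0 = 0 by
      change b0' 0 - m * b0 0 = 0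
      rw [hmd, div_mul_cancel₀ _ hb0, sub_self]) hs
    (fun i j h => hηpη.trans (hsd i j h)) hDr htr (fun i j j' h => hηpη.trans (htd' i j j' h))
    h0 hB1 (by
      refine le_trans ?_ hsm1
      have : 5 * r + 4 * A + 2 * A ≤ 6 * (r + A) := by linarith
      gcongr)
  set X₀ := 2 * 10 ^ 11 * 256 ^ 7 * ((2 * a₂ + 16 * a) / (w 0 * κ)) / ηp ^ 10 with hX₀
  intro ζ hζ hζ' X hX hqX h1 h2
  obtain ⟨z1, z2⟩ := hz ζ hζ hζ'
  have hy := yc_le S hρ hTK hE hζ hζ' hX (le_refl (1 / 8)) h1 h2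
  have q2 := (hT _ z1 z2).2
  have hy' : |yc b0 (pc e w T (z0 + ρ * ζ) X) / κ| ≤ 3 := by
    rw [abs_div, abs_of_pos hκ, div_le_iff₀ hκ]
    have h3 : w 0 * |yc b0 (pc e w T (z0 + ρ * ζ) X)| ≤ w 0 * (3 * κ) := by
      have haA : a = A * (w 0 * κ) := by rw [hAd]; field_simp
      have h4 : A * (w 0 * κ) ≤ 1 / 2 * (w 0 * κ) := mul_le_mul_of_nonneg_right hA2 hwk.le
      linarith
    exact le_of_mul_le_mul_left h3 hw0
  have hx3 : ∀ k, |sD κ b0 (pc e w T (z0 + ρ * ζ) X) k| ≤ 3 := by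
    intro k
    fin_cases k
    · exact hy'
    · exact h1.trans (by norm_num)
    · exact h2.trans (by norm_num)
  have hF := Fq_le (fun k => (P.1 k).1) (fun k => (P.1 k).2) P.2
    (abs_le.2 ⟨by linarith, hζ'⟩ : |ζ| ≤ 1) hx3 (by norm_num)
  have hω := hωE ζ X
  have e1 : q₂ (z0 + ρ * ζ) X = q₂ (z0 + ρ * ζ) (T.pos (z0 + ρ * ζ)) +
      m * (q (z0 + ρ * ζ) X - q (z0 + ρ * ζ) (T.pos (z0 + ρ * ζ))) + w 0 * κ *
        Fq (gl κ σ₁ σ₂ l0) (gl κ σ₁ σ₂ l1) (gM κ σ₁ σ₂ M) ζ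
          (sD κ b0 (pc e w T (z0 + ρ * ζ) X)) := by linarith
  have b1 : |m * (q (z0 + ρ * ζ) X - q (z0 + ρ * ζ) (T.pos (z0 + ρ * ζ)))| ≤ 8 * (a + a) :=
    mul_abs_le hm8 (Arc880.abs_sub2 hqX q2)
  have b2 : |w 0 * κ * Fq (gl κ σ₁ σ₂ l0) (gl κ σ₁ σ₂ l1) (gM κ σ₁ σ₂ M) ζ
      (sD κ b0 (pc e w T (z0 + ρ * ζ) X))| ≤ w 0 * κ * (12 * 3 ^ 2 * X₀) :=
    mul_abs_le (by rw [abs_of_pos hwk]) hF
  have b3 : w 0 * κ * (12 * 3 ^ 2 * X₀) =
      108 * (2 * 10 ^ 11 * 256 ^ 7) * (2 * a₂ + 16 * a) / ηp ^ 10 := by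
    rw [hX₀]
    have hne : ηp ^ 10 ≠ 0 := by positivity
    have hne2 : w 0 * κ ≠ 0 := hwk.ne'
    rw [eq_div_iff hne]
    calc w 0 * κ * (12 * 3 ^ 2 * (2 * 10 ^ 11 * 256 ^ 7 * ((2 * a₂ + 16 * a) / (w 0 * κ)) /
          ηp ^ 10)) * ηp ^ 10 = 108 * (2 * 10 ^ 11 * 256 ^ 7) *
            ((w 0 * κ) * ((2 * a₂ + 16 * a) / (w 0 * κ))) * (ηp ^ 10 / ηp ^ 10) := by ring
      _ = _ := by rw [mul_div_cancel₀ _ hne2, div_self hne, mul_one]
  have b4 : 108 * (2 * 10 ^ 11 * 256 ^ 7) * (2 * a₂ + 16 * a) / ηp ^ 10 =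
      108 * (2 * 10 ^ 11 * 256 ^ 7 * cTw ^ 10) * (2 * a₂ + 16 * a) / η ^ 20 := by
    rw [hηp, div_pow]; field_simp
  have b5 : a₂ + 8 * (a + a) ≤ 16 * (a + a₂) / η ^ 20 := by
    rw [le_div_iff₀ (by positivity)]
    have : η ^ 20 ≤ 1 := pow_le_one₀ hη.le hη1
    have h5 : (a₂ + 8 * (a + a)) * η ^ 20 ≤ (a₂ + 8 * (a + a)) * 1 := by gcongr
    linarith
  have b6 : 108 * (2 * 10 ^ 11 * 256 ^ 7 * cTw ^ 10) * (2 * a₂ + 16 * a) / η ^ 20 ≤
      16 * (108 * (2 * 10 ^ 11 * 256 ^ 7 * cTw ^ 10)) * (a + a₂) / η ^ 20 := by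
    apply div_le_div_of_nonneg_right _ (by positivity)
    have h6 : 0 ≤ 108 * (2 * 10 ^ 11 * 256 ^ 7 * cTw ^ 10) := by positivity
    have h7 := mul_le_mul_of_nonneg_left (show 2 * a₂ + 16 * a ≤ 16 * (a + a₂) by linarith) h6
    linarith
  rw [e1]
  refine (abs_add_le _ _).trans ?_
  have b7 := abs_add_le (q₂ (z0 + ρ * ζ) (T.pos (z0 + ρ * ζ)))
    (m * (q (z0 + ρ * ζ) X - q (z0 + ρ * ζ) (T.pos (z0 + ρ * ζ))))
  have b8 := hT₂ _ z1 z2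
  have b9 : cOut * (a + a₂) / η ^ 20 = 16 * (a + a₂) / η ^ 20 +
      16 * (108 * (2 * 10 ^ 11 * 256 ^ 7 * cTw ^ 10)) * (a + a₂) / η ^ 20 := by
    rw [cOut]; ring
  rw [b9]
  rw [b3, b4] at b2
  linarith

end Crest.Agent.R136.Tl102
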