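import Crest.Agent.R136.ThnD_768

/-!
# R136 (S0187), U6 thin side: construction of the container (helper650)

`mov_lin`, `mov_sq`, `mov_pol` : coefficients of `movQ` from a Taylor expansion; `hat_b`, `hat_d`,
`hat_g` : coefficients of `hatQ`; **`cont_build`** (literal of 768).
-/

set_option autoImplicit false
set_option linter.unusedVariables false

namespace Crest.Agent.R136.Cb650

open Crest.Agent.R136.Sh605 Crest.Agent.R136.K4
open Crest.Agent.R136.GeoN778 (Qd Un exists_Qd)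
open Crest.Agent.R136.Wit321 (hatQ wqOf Wq Wq.Sm movQ movQ_ev unQ)
open Crest.Agent.R136.Tl102 (QF Fq cmb bz QF.pol)
open Crest.Agent.R136.Thn768 (Tay Cont)

section

variable {T : Ln4} {N R : V3} {H : QF} {Q : Qd}

/-- the increment of `movQ` -/
theorem mov_inc (hT : Tay Q.ev T N R H) (f : Fin 3 → V3) (z : ℝ) (y : V3) :
    (movQ f T Q).ev z y - (movQ f T Q).ev z 0 = Fq N R H z (cmb f y) := by
  have e : ∀ y : V3, (movQ f T Q).ev z y = Q.ev z (T.pos z + cmb f y) := fun y => movQ_ev f T Q z y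
  rw [e, e, hT z, hT z]
  have : Fq N R H z (cmb f 0) = 0 := by
    simp [Fq, cmb, dt, QF.ev]
  rw [this]; ring

theorem mov_lin (hT : Tay Q.ev T N R H) (f : Fin 3 → V3) (k : Fin 3) :
    (movQ f T Q).b k = dt N (f k) ∧ (movQ f T Q).d k = dt R (f k) := by
  have h : ∀ z (s : ℝ), (movQ f T Q).ev z (Pi.single k s) - (movQ f T Q).ev z 0 =
      s * ((movQ f T Q).b k + (movQ f T Q).d k * z) + s ^ 2 * (movQ f T Q).g k k := by
    intro z s
    simp only [Qd.ev, Fin.sum_univ_three]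
    fin_cases k <;> simp <;> ring
  have h' : ∀ z (s : ℝ), Fq N R H z (cmb f (Pi.single k s)) =
      s * (dt N (f k) + z * dt R (f k)) + s ^ 2 * H.ev (f k) := by
    intro z s
    simp only [Fq, bz, cmb, dt, QF.ev]
    fin_cases k <;> simp <;> ring
  have a1 := mov_inc hT f 0 (Pi.single k 1)
  have a2 := mov_inc hT f 0 (Pi.single k (-1))
  have a3 := mov_inc hT f 1 (Pi.single k 1)
  have a4 := mov_inc hT f 1 (Pi.single k (-1))
  rw [h, h'] at a1 a2 a3 a4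
  constructor <;> linarith

theorem mov_sq (hT : Tay Q.ev T N R H) (f : Fin 3 → V3) (k : Fin 3) :
    (movQ f T Q).g k k = H.ev (f k) := by
  have h : ∀ z (s : ℝ), (movQ f T Q).ev z (Pi.single k s) - (movQ f T Q).ev z 0 =
      s * ((movQ f T Q).b k + (movQ f T Q).d k * z) + s ^ 2 * (movQ f T Q).g k k := by
    intro z s
    simp only [Qd.ev, Fin.sum_univ_three]
    fin_cases k <;> simp <;> ring
  have h' : ∀ z (s : ℝ), Fq N R H z (cmb f (Pi.single k s)) =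
      s * (dt N (f k) + z * dt R (f k)) + s ^ 2 * H.ev (f k) := by
    intro z s
    simp only [Fq, bz, cmb, dt, QF.ev]
    fin_cases k <;> simp <;> ring
  have a1 := mov_inc hT f 0 (Pi.single k 1)
  have a2 := mov_inc hT f 0 (Pi.single k (-1))
  rw [h, h'] at a1 a2
  linarith

theorem mov_pol (hT : Tay Q.ev T N R H) (f : Fin 3 → V3) :
    (movQ f T Q).g 0 1 + (movQ f T Q).g 1 0 = H.pol (f 0) (f 1) ∧
      (movQ f T Q).g 0 2 + (movQ f T Q).g 2 0 = H.pol (f 0) (f 2) ∧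
      (movQ f T Q).g 1 2 + (movQ f T Q).g 2 1 = H.pol (f 1) (f 2) := by
  have l := mov_lin hT f
  have q := mov_sq hT f
  have l0 := l 0
  have l1 := l 1
  have l2 := l 2
  have q0 := q 0
  have q1 := q 1
  have q2 := q 2
  have a1 := mov_inc hT f 0 ![1, 1, 0]
  have a2 := mov_inc hT f 0 ![1, 0, 1]
  have a3 := mov_inc hT f 0 ![0, 1, 1]
  have e : ∀ a b c : ℝ, (movQ f T Q).ev 0 ![a, b, c] - (movQ f T Q).ev 0 0 =
      (movQ f T Q).b 0 * a + (movQ f T Q).b 1 * b + (movQ f T Q).b 2 * c +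
      ((movQ f T Q).g 0 0 * a ^ 2 + (movQ f T Q).g 1 1 * b ^ 2 + (movQ f T Q).g 2 2 * c ^ 2 +
        ((movQ f T Q).g 0 1 + (movQ f T Q).g 1 0) * (a * b) +
        ((movQ f T Q).g 0 2 + (movQ f T Q).g 2 0) * (a * c) +
        ((movQ f T Q).g 1 2 + (movQ f T Q).g 2 1) * (b * c)) := by
    intro a b c
    simp only [Qd.ev, Fin.sum_univ_three, Matrix.cons_val, Pi.zero_apply]
    ring
  have e' : ∀ a b c : ℝ, Fq N R H 0 (cmb f ![a, b, c]) =
      dt N (f 0) * a + dt N (f 1) * b + dt N (f 2) * c +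
      (H.ev (f 0) * a ^ 2 + H.ev (f 1) * b ^ 2 + H.ev (f 2) * c ^ 2 +
        H.pol (f 0) (f 1) * (a * b) + H.pol (f 0) (f 2) * (a * c) +
        H.pol (f 1) (f 2) * (b * c)) := by
    intro a b c
    simp only [Fq, bz, cmb, dt, QF.ev, QF.pol, Matrix.cons_val]
    ring
  rw [e, e', l0.1, l1.1, l2.1, q0, q1, q2] at a1 a2 a3
  refine ⟨?_, ?_, ?_⟩ <;> linarith

end

theorem hat_b {f : Fin 3 → V3} {T : Ln4} {Q : Qd} {u : Un} (hu : u.Ok) (k : Fin 3) :
    (hatQ f T u Q).b k = u.W k * ((movQ f T Q).b k + u.zc * (movQ f T Q).d k) := by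
  have hH := hu.H0.ne'
  have hW := (hu.W0 k).ne'
  simp only [hatQ, unQ, Qd.scl]
  field_simp
  ring

theorem hat_d {f : Fin 3 → V3} {T : Ln4} {Q : Qd} {u : Un} (hu : u.Ok) (k : Fin 3) :
    (hatQ f T u Q).d k = u.W k * u.H * (movQ f T Q).d k := by
  have hH := hu.H0.ne'
  have hW := (hu.W0 k).ne'
  simp only [hatQ, unQ, Qd.scl]
  field_simp

theorem hat_g {f : Fin 3 → V3} {T : Ln4} {Q : Qd} {u : Un} (hu : u.Ok) (k l : Fin 3) :
    (hatQ f T u Q).g k l = u.W k * u.W l * (movQ f T Q).g k l := by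
  have hk := (hu.W0 k).ne'
  have hl := (hu.W0 l).ne'
  simp only [hatQ, unQ, Qd.scl]
  field_simp

theorem div_le_of {x y b η : ℝ} (hb : 0 < |b|) (h : |y| ≤ η * |b|) (hx : x = y / b) :
    |x| ≤ η := by
  rw [hx, abs_div, div_le_iff₀ hb]; exact h

/-- **construction of the container** (literal of 768) -/
theorem cont_build {S : Plk4} {T : Ln4} {z0 ρ : ℝ} {N R : V3} {H : QF} (hq : IsQ S.q)
    (hT : Tay S.q T N R H) (hρ : 0 < ρ) {f : Fin 3 → V3} (hf : Ortho f) {G WY WA WB η : ℝ}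
    (g0 : dt (N + (z0 + ρ / 2) • R) (f 0) = G) (g1 : dt (N + (z0 + ρ / 2) • R) (f 1) = 0)
    (g2 : dt (N + (z0 + ρ / 2) • R) (f 2) = 0) (r2 : 2 * ρ * dt R (f 2) * WB = -(G * WY))
    (hG : 1 / 4 ≤ |G| ∧ |G| ≤ 4) (hWY : 0 < WY) (hη : η ≤ 1) (hYB : WY ≤ η * WB)
    (hBA : WB ≤ η * WA) (k1 : WY * |G| ≤ 4 * (|H.ev (f 1)| * WA ^ 2))
    (k2 : 2 * (|H.ev (f 1)| * WA ^ 2) ≤ WY * |G|)
    (r1 : 2 * ρ * |dt R (f 1)| * WA ≤ η * (WY * |G|)) (r0 : 2 * ρ * |dt R (f 0)| ≤ η * |G|)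
    (h1 : |H.pol (f 1) (f 2)| * (WA * WB) ≤ η * (WY * |G|))
    (h2 : |H.ev (f 2)| * WB ^ 2 ≤ η * (WY * |G|))
    (h3 : |H.pol (f 0) (f 1)| * (WA * WY) ≤ η * (WY * |G|))
    (h4 : |H.pol (f 0) (f 2)| * (WB * WY) ≤ η * (WY * |G|))
    (h5 : |H.ev (f 0)| * WY ^ 2 ≤ η * (WY * |G|)) :
    ∃ Q : Qd, Cont S T z0 ρ f ⟨WY, WA, WB, z0 + ρ / 2, 2 * ρ⟩ Q η := by
  obtain ⟨Q, hQ⟩ := exists_Qd hq
  rw [hQ] at hT
  obtain ⟨hG1, hG2⟩ := hG
  have hGp : 0 < |G| := by linarith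
  have hG0 : G ≠ 0 := abs_pos.1 hGp
  have hη0 : 0 ≤ η := by
    by_contra hneg
    have h0 : 0 ≤ 2 * ρ * |dt R (f 0)| := by positivity
    have : η * |G| < 0 := mul_neg_of_neg_of_pos (not_le.1 hneg) hGp
    linarith
  have hWB : 0 < WB := by
    by_contra hneg
    have : η * WB ≤ 0 := mul_nonpos_of_nonneg_of_nonpos hη0 (not_lt.1 hneg)
    linarith
  have hWA : 0 < WA := by
    by_contra hneg
    have : η * WA ≤ 0 := mul_nonpos_of_nonneg_of_nonpos hη0 (not_lt.1 hneg)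
    linarith
  have hYB' : WY ≤ WB := hYB.trans (mul_le_of_le_one_left hWB.le hη)
  have hBA' : WB ≤ WA := hBA.trans (mul_le_of_le_one_left hWA.le hη)
  obtain ⟨u, hu⟩ : ∃ u : Un, u = ⟨WY, WA, WB, z0 + ρ / 2, 2 * ρ⟩ := ⟨_, rfl⟩
  have huok : u.Ok := by
    rw [hu]
    exact ⟨hWY, hYB', hBA', by show 0 < 2 * ρ; positivity⟩
  have W0 : u.W 0 = WY := by rw [hu]; rfl
  have W1 : u.W 1 = WA := by rw [hu]; rfl
  have W2 : u.W 2 = WB := by rw [hu]; rfl
  have uz : u.zc = z0 + ρ / 2 := by rw [hu]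
  have uH : u.H = 2 * ρ := by rw [hu]
  have lin := mov_lin hT f
  have sqs := mov_sq hT f
  obtain ⟨p01, p02, p12⟩ := mov_pol hT f
  have dtN : ∀ k, dt N (f k) + (z0 + ρ / 2) * dt R (f k) = dt (N + (z0 + ρ / 2) • R) (f k) := by
    intro k
    simp only [dt, Pi.add_apply, Pi.smul_apply, smul_eq_mul]; ring
  have b0 : (hatQ f T u Q).b 0 = WY * G := by
    rw [hat_b huok, (lin 0).1, (lin 0).2, uz, dtN, g0, W0]
  have b1 : (hatQ f T u Q).b 1 = 0 := by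
    rw [hat_b huok, (lin 1).1, (lin 1).2, uz, dtN, g1, mul_zero]
  have b2 : (hatQ f T u Q).b 2 = 0 := by
    rw [hat_b huok, (lin 2).1, (lin 2).2, uz, dtN, g2, mul_zero]
  have d0 : (hatQ f T u Q).d 0 = WY * (2 * ρ * dt R (f 0)) := by
    rw [hat_d huok, (lin 0).2, uH, W0]; ring
  have d1 : (hatQ f T u Q).d 1 = 2 * ρ * dt R (f 1) * WA := by
    rw [hat_d huok, (lin 1).2, uH, W1]; ring
  have d2 : (hatQ f T u Q).d 2 = -(hatQ f T u Q).b 0 := by
    rw [hat_d huok, (lin 2).2, uH, W2, b0]; linarith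
  have g00 : (hatQ f T u Q).g 0 0 = H.ev (f 0) * WY ^ 2 := by
    rw [hat_g huok, sqs, W0]; ring
  have g11 : (hatQ f T u Q).g 1 1 = H.ev (f 1) * WA ^ 2 := by
    rw [hat_g huok, sqs, W1]; ring
  have g22 : (hatQ f T u Q).g 2 2 = H.ev (f 2) * WB ^ 2 := by
    rw [hat_g huok, sqs, W2]; ring
  have g12 : (hatQ f T u Q).g 1 2 + (hatQ f T u Q).g 2 1 = H.pol (f 1) (f 2) * (WA * WB) := by
    rw [hat_g huok, hat_g huok, W1, W2, ← p12]; ring
  have g01 : (hatQ f T u Q).g 0 1 + (hatQ f T u Q).g 1 0 = H.pol (f 0) (f 1) * (WA * WY) := by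
    rw [hat_g huok, hat_g huok, W0, W1, ← p01]; ring
  have g02 : (hatQ f T u Q).g 0 2 + (hatQ f T u Q).g 2 0 = H.pol (f 0) (f 2) * (WB * WY) := by
    rw [hat_g huok, hat_g huok, W0, W2, ← p02]; ring
  have hbG : |(hatQ f T u Q).b 0| = WY * |G| := by rw [b0, abs_mul, abs_of_pos hWY]
  have hbp : 0 < |(hatQ f T u Q).b 0| := by rw [hbG]; positivity
  refine ⟨Q, ?_⟩
  rw [← hu]
  refine ⟨hf, huok, hQ, uH, uz, b1, b2, d2, ?_, ?_, ?_, ?_, ?_⟩
  · have e : u.WY = WY := by rw [hu]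
    rw [hbG, e]
    have q1 := mul_le_mul_of_nonneg_left hG1 hWY.le
    have q2 := mul_le_mul_of_nonneg_left hG2 hWY.le
    clear * - q1 q2
    constructor <;> linarith
  · refine ⟨?_, ?_, ?_, ?_, ?_, ?_, ?_⟩
    · refine div_le_of hbp (y := (hatQ f T u Q).d 0) ?_ rfl
      rw [hbG, d0, abs_mul, abs_of_pos hWY, abs_mul, abs_of_pos (by positivity : 0 < 2 * ρ)]
      have := mul_le_mul_of_nonneg_left r0 hWY.le
      linarith
    · show |-((hatQ f T u Q).d 1 / (hatQ f T u Q).b 0)| ≤ η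
      rw [abs_neg]
      refine div_le_of hbp (y := (hatQ f T u Q).d 1) ?_ rfl
      rw [hbG, d1, abs_mul, abs_of_pos hWA, abs_mul, abs_of_pos (by positivity : 0 < 2 * ρ)]
      exact r1
    · refine div_le_of hbp (y := (hatQ f T u Q).g 1 2 + (hatQ f T u Q).g 2 1) ?_ rfl
      rw [hbG, g12, abs_mul, abs_of_pos (by positivity : 0 < WA * WB)]
      exact h1
    · refine div_le_of hbp (y := (hatQ f T u Q).g 2 2) ?_ rfl
      rw [hbG, g22, abs_mul, abs_of_pos (by positivity : 0 < WB ^ 2)]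
      exact h2
    · refine div_le_of hbp (y := (hatQ f T u Q).g 0 1 + (hatQ f T u Q).g 1 0) ?_ rfl
      rw [hbG, g01, abs_mul, abs_of_pos (by positivity : 0 < WA * WY)]
      exact h3
    · refine div_le_of hbp (y := (hatQ f T u Q).g 0 2 + (hatQ f T u Q).g 2 0) ?_ rfl
      rw [hbG, g02, abs_mul, abs_of_pos (by positivity : 0 < WB * WY)]
      exact h4
    · refine div_le_of hbp (y := (hatQ f T u Q).g 0 0) ?_ rfl
      rw [hbG, g00, abs_mul, abs_of_pos (by positivity : 0 < WY ^ 2)]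
      exact h5
  · have e : |(wqOf (hatQ f T u Q)).κ| = |H.ev (f 1)| * WA ^ 2 / (WY * |G|) := by
      show |-((hatQ f T u Q).g 1 1 / (hatQ f T u Q).b 0)| = _
      rw [abs_neg, abs_div, hbG, g11, abs_mul, abs_of_pos (by positivity : 0 < WA ^ 2)]
    have hp : 0 < WY * |G| := by positivity
    rw [e, le_div_iff₀ hp, div_le_iff₀ hp]
    clear * - k1 k2
    constructor <;> linarith
  · rw [hu]; exact hYB
  · rw [hu]; exact hBA

end Crest.Agent.R136.Cb650
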