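import Crest.Agent.R136.Ndl_372

/-!
# R136, U4 (PLAN 2 of helper294), (G4): the end of the two-step count (helper372)

`Ndl372.needle` with the scales `xs Λ K k = Λ^(-k/K)` (from `1` to `1/Λ`), hull
`Nh x = (x Λ E)^(1+p0) Λ^(1+p2)`, meeting place `rs σ x = (Λ x)^-(1-σ)`, share
`sg = W Λ^-(1+m1) E^-(1+m2)`:

* `nd_gen` : `Λ ^ (m1 - p2 - p0 - s - 1/K) * E ^ (m2 - p0) ≤ 6 * 4^K * W^5`;
* `nd_fin2` : (`8 (p2+p0) ≤ m1`, `2 p0 ≤ m2`, `8 s ≤ m1`, `8 ≤ K m1`)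
  `Λ^(m1/2) * E^(m2/2) ≤ 6 * 4^K * W^5`.
-/

set_option autoImplicit false

open Finset

namespace Crest.Agent.R136.Nde372

open Crest.Agent.R136.Ndl372

/-- the scales `Λ^(-k/K)` -/
noncomputable def xs (Λ : ℝ) (K k : ℕ) : ℝ := Λ ^ (-((k : ℝ) / K))

/-- number of classes in the hull at scale `x` -/
noncomputable def Nh (Λ E p0 p2 x : ℝ) : ℝ := (x * Λ * E) ^ (1 + p0) * Λ ^ (1 + p2)

/-- meeting place at scale `x` -/
noncomputable def rs (Λ σ x : ℝ) : ℝ := (1 / (Λ * x)) ^ (1 - σ)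

/-- share -/
noncomputable def sg (W Λ E m1 m2 : ℝ) : ℝ := W * (Λ ^ (-(1 + m1)) * E ^ (-(1 + m2)))

theorem xs_pos {Λ : ℝ} (hΛ : 1 ≤ Λ) (K k : ℕ) : 0 < xs Λ K k :=
  Real.rpow_pos_of_pos (by linarith) _

theorem xs_zero (Λ : ℝ) (K : ℕ) : xs Λ K 0 = 1 := by
  rw [xs]; norm_num

theorem xs_last (Λ : ℝ) {K : ℕ} (hK : 0 < K) : xs Λ K K = Λ⁻¹ := by
  rw [xs, div_self (by positivity), Real.rpow_neg_one]

theorem xs_le_one {Λ : ℝ} (hΛ : 1 ≤ Λ) (K k : ℕ) : xs Λ K k ≤ 1 :=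
  Real.rpow_le_one_of_one_le_of_nonpos hΛ (by
    have : (0:ℝ) ≤ (k : ℝ) / K := by positivity
    linarith)

theorem xs_ge {Λ : ℝ} (hΛ : 1 ≤ Λ) {K k : ℕ} (hK : 0 < K) (hk : k ≤ K) : Λ⁻¹ ≤ xs Λ K k := by
  rw [← xs_last Λ hK, xs, xs]
  refine Real.rpow_le_rpow_of_exponent_le hΛ ?_
  have hK' : (0:ℝ) < K := by exact_mod_cast hK
  have : (k : ℝ) / K ≤ (K : ℝ) / K := div_le_div_of_nonneg_right (by exact_mod_cast hk) hK'.le
  linarith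

theorem xs_mono_x {Λ : ℝ} (hΛ : 1 ≤ Λ) {K k l : ℕ} (hkl : k ≤ l) : xs Λ K l ≤ xs Λ K k := by
  rw [xs, xs]
  refine Real.rpow_le_rpow_of_exponent_le hΛ ?_
  have : (k : ℝ) / K ≤ (l : ℝ) / K := div_le_div_of_nonneg_right (by exact_mod_cast hkl)
    (Nat.cast_nonneg _)
  linarith

theorem Nh_nonneg {Λ E p0 p2 x : ℝ} (hΛ : 1 ≤ Λ) (hE : 1 ≤ E) (hx : 0 ≤ x) :
    0 ≤ Nh Λ E p0 p2 x := by
  have : 0 ≤ Λ := by linarith
  have : 0 ≤ E := by linarith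
  unfold Nh; positivity

theorem rs_nonneg {Λ σ x : ℝ} (hΛ : 1 ≤ Λ) (hx : 0 ≤ x) : 0 ≤ rs Λ σ x := by
  have : 0 ≤ Λ := by linarith
  unfold rs; positivity

theorem sg_nonneg {W Λ E m1 m2 : ℝ} (hW : 0 ≤ W) (hΛ : 1 ≤ Λ) (hE : 1 ≤ E) :
    0 ≤ sg W Λ E m1 m2 := by
  have : 0 ≤ Λ := by linarith
  have : 0 ≤ E := by linarith
  unfold sg; positivity

/-- hull at scale `x_k` as powers -/
theorem Nh_xs {Λ E p0 p2 : ℝ} (hΛ : 1 ≤ Λ) (hE : 1 ≤ E) (K k : ℕ) :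
    Nh Λ E p0 p2 (xs Λ K k) = Λ ^ ((1 - (k : ℝ) / K) * (1 + p0) + (1 + p2)) * E ^ (1 + p0) := by
  have hΛ0 : 0 < Λ := by linarith
  have hE0 : 0 < E := by linarith
  have h1 : xs Λ K k * Λ = Λ ^ (1 - (k : ℝ) / K) := by
    rw [xs]
    nth_rewrite 2 [← Real.rpow_one Λ]
    rw [← Real.rpow_add hΛ0]
    congr 1; ring
  rw [Nh, h1, Real.mul_rpow (by positivity) hE0.le, ← Real.rpow_mul hΛ0.le,
    Real.rpow_add hΛ0 ((1 - (k : ℝ) / K) * (1 + p0)) (1 + p2)]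
  ring

theorem rs_xs {Λ : ℝ} (hΛ : 1 ≤ Λ) (σ : ℝ) (K k : ℕ) :
    rs Λ σ (xs Λ K k) = Λ ^ ((-1 + (k : ℝ) / K) * (1 - σ)) := by
  have hΛ0 : 0 < Λ := by linarith
  have h1 : 1 / (Λ * xs Λ K k) = Λ ^ (-1 + (k : ℝ) / K) := by
    rw [xs, Real.rpow_add hΛ0, Real.rpow_neg_one, Real.rpow_neg hΛ0.le]
    have : 0 < Λ ^ ((k : ℝ) / K) := by positivity
    field_simp
  rw [rs, h1, ← Real.rpow_mul hΛ0.le]

/-- **the end**: `Λ ^ (m1 - p2 - p0 - s - 1/K) * E ^ (m2 - p0) ≤ 6 * 4^K * W^5`, any scales `x` -/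
theorem nd_gen {ι κ κ' : Type*} {P : Finset ι} {u : ι → κ} {v : ι → κ'} {cu cv : ι → ι → Prop}
    {au av : ι → ι → ℝ} {x : ℕ → ℝ} {K : ℕ} {M W σ Λ E p0 p2 m1 m2 s : ℝ} {N r : ℝ → ℝ}
    (hK : 0 < K) (hΛ : 1 ≤ Λ) (hE : 1 ≤ E) (hp0 : 0 ≤ p0) (hs : 0 ≤ s)
    (h : Nd P u v cu cv au av x K M W σ N r)
    (hN : ∀ k, k ≤ K → N (x k) ≤ Nh Λ E p0 p2 (xs Λ K k))
    (hr : ∀ k, k ≤ K → r (x k) ≤ rs Λ s (xs Λ K k))
    (hσ : σ ≤ sg W Λ E m1 m2) :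
    Λ ^ (m1 - p2 - p0 - s - 1 / K) * E ^ (m2 - p0) ≤ 6 * 4 ^ K * W ^ 5 := by
  have hW := h.W1
  have hΛ0 : 0 < Λ := by linarith
  have hE0 : 0 < E := by linarith
  have hW0 : 0 < W := by linarith
  have hK' : (0:ℝ) < K := by exact_mod_cast hK
  have key : 1 ≤ 6 * 4 ^ K * W ^ 5 *
      (Λ ^ (-(m1 - p2 - p0 - s - 1 / K)) * E ^ (-(m2 - p0))) := by
    rcases needle h with ⟨k, hk, h1⟩ | h1
    · have h0 : 6 * 4 ^ k * W ^ 4 * N (x k) * r (x (k + 1)) * σ ≤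
          6 * 4 ^ k * W ^ 4 * Nh Λ E p0 p2 (xs Λ K k) * rs Λ s (xs Λ K (k + 1)) *
            sg W Λ E m1 m2 := by
        have a1 := hN k hk.le
        have a2 := hr (k + 1) hk
        have a3 := h.N0 k
        have a4 := h.r0 (k + 1)
        have a5 := h.σ0
        have a6 := Nh_nonneg (p0 := p0) (p2 := p2) hΛ hE (xs_pos hΛ K k).le
        have a7 := rs_nonneg (σ := s) hΛ (xs_pos hΛ K (k + 1)).le
        gcongr
      replace h1 := h1.trans h0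
      rw [Nh_xs hΛ hE, rs_xs hΛ, sg] at h1
      have e1 : 6 * 4 ^ k * W ^ 4 * (Λ ^ ((1 - (k : ℝ) / K) * (1 + p0) + (1 + p2)) *
          E ^ (1 + p0)) * Λ ^ ((-1 + ((k + 1 : ℕ) : ℝ) / K) * (1 - s)) *
          (W * (Λ ^ (-(1 + m1)) * E ^ (-(1 + m2)))) =
          6 * 4 ^ k * W ^ 5 * (Λ ^ (((1 - (k : ℝ) / K) * (1 + p0) + (1 + p2)) +
            ((-1 + ((k + 1 : ℕ) : ℝ) / K) * (1 - s)) + (-(1 + m1))) *
            E ^ ((1 + p0) + (-(1 + m2)))) := by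
        rw [Real.rpow_add hΛ0 (((1 - (k : ℝ) / K) * (1 + p0) + (1 + p2)) +
            ((-1 + ((k + 1 : ℕ) : ℝ) / K) * (1 - s))) (-(1 + m1)),
          Real.rpow_add hΛ0 ((1 - (k : ℝ) / K) * (1 + p0) + (1 + p2))
            ((-1 + ((k + 1 : ℕ) : ℝ) / K) * (1 - s)),
          Real.rpow_add hE0 (1 + p0) (-(1 + m2))]
        ring
      rw [e1] at h1
      refine h1.trans ?_
      have hkK : (k : ℝ) ≤ K := by exact_mod_cast hk.le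
      have h4 : (4:ℝ) ^ k ≤ 4 ^ K := pow_le_pow_right₀ (by norm_num) hk.le
      have hx : ((1 - (k : ℝ) / K) * (1 + p0) + (1 + p2)) +
            ((-1 + ((k + 1 : ℕ) : ℝ) / K) * (1 - s)) + (-(1 + m1)) ≤
            -(m1 - p2 - p0 - s - 1 / K) := by
        have h5 : 0 ≤ (k : ℝ) / K * p0 := by positivity
        have h5' : 0 ≤ ((k + 1 : ℕ) : ℝ) / K * s := by positivity
        have h6 : ((k + 1 : ℕ) : ℝ) / K = (k : ℝ) / K + 1 / K := by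
          push_cast; ring
        rw [h6] at h5' ⊢; nlinarith
      have h7 : Λ ^ (((1 - (k : ℝ) / K) * (1 + p0) + (1 + p2)) +
            ((-1 + ((k + 1 : ℕ) : ℝ) / K) * (1 - s)) + (-(1 + m1))) ≤
            Λ ^ (-(m1 - p2 - p0 - s - 1 / K)) :=
        Real.rpow_le_rpow_of_exponent_le hΛ hx
      have h8 : (1 + p0) + (-(1 + m2)) = -(m2 - p0) := by ring
      rw [h8]
      gcongr
    · have h0 : 2 * 4 ^ K * W ^ 4 * N (x K) * σ ≤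
          2 * 4 ^ K * W ^ 4 * Nh Λ E p0 p2 (xs Λ K K) * sg W Λ E m1 m2 := by
        have a1 := hN K le_rfl
        have a3 := h.N0 K
        have a5 := h.σ0
        have a6 := Nh_nonneg (p0 := p0) (p2 := p2) hΛ hE (xs_pos hΛ K K).le
        gcongr
      replace h1 := h1.trans h0
      rw [Nh_xs hΛ hE, sg] at h1
      have e1 : 2 * 4 ^ K * W ^ 4 * (Λ ^ ((1 - (K : ℝ) / K) * (1 + p0) + (1 + p2)) *
          E ^ (1 + p0)) * (W * (Λ ^ (-(1 + m1)) * E ^ (-(1 + m2)))) =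
          2 * 4 ^ K * W ^ 5 * (Λ ^ (((1 - (K : ℝ) / K) * (1 + p0) + (1 + p2)) +
            (-(1 + m1))) * E ^ ((1 + p0) + (-(1 + m2)))) := by
        rw [Real.rpow_add hΛ0 ((1 - (K : ℝ) / K) * (1 + p0) + (1 + p2)) (-(1 + m1)),
          Real.rpow_add hE0 (1 + p0) (-(1 + m2))]
        ring
      rw [e1] at h1
      refine h1.trans ?_
      have hx : ((1 - (K : ℝ) / K) * (1 + p0) + (1 + p2)) + (-(1 + m1)) ≤
          -(m1 - p2 - p0 - s - 1 / K) := by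
        rw [div_self hK'.ne']
        have : (0:ℝ) < 1 / K := by positivity
        nlinarith
      have h7 : Λ ^ (((1 - (K : ℝ) / K) * (1 + p0) + (1 + p2)) + (-(1 + m1))) ≤
          Λ ^ (-(m1 - p2 - p0 - s - 1 / K)) :=
        Real.rpow_le_rpow_of_exponent_le hΛ hx
      have h8 : (1 + p0) + (-(1 + m2)) = -(m2 - p0) := by ring
      rw [h8]
      gcongr
      norm_num
  rw [Real.rpow_neg hΛ0.le, Real.rpow_neg hE0.le, ← mul_inv] at key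
  have hpos : 0 < Λ ^ (m1 - p2 - p0 - s - 1 / K) * E ^ (m2 - p0) := by positivity
  rwa [← div_eq_mul_inv, le_div_iff₀ hpos, one_mul] at key

/-- the exponents of `Ex2` -/
theorem nd_fin2 {ι κ κ' : Type*} {P : Finset ι} {u : ι → κ} {v : ι → κ'} {cu cv : ι → ι → Prop}
    {au av : ι → ι → ℝ} {x : ℕ → ℝ} {K : ℕ} {M W σ Λ E p0 p2 m1 m2 s : ℝ} {N r : ℝ → ℝ}
    (hΛ : 1 ≤ Λ) (hE : 1 ≤ E) (hp0 : 0 ≤ p0) (hm1 : 0 < m1) (he1 : 8 * (p2 + p0) ≤ m1)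
    (he2 : 2 * p0 ≤ m2) (hs : 0 ≤ s) (hsm : 8 * s ≤ m1) (hKm : 8 ≤ K * m1)
    (h : Nd P u v cu cv au av x K M W σ N r)
    (hN : ∀ k, k ≤ K → N (x k) ≤ Nh Λ E p0 p2 (xs Λ K k))
    (hr : ∀ k, k ≤ K → r (x k) ≤ rs Λ s (xs Λ K k))
    (hσ : σ ≤ sg W Λ E m1 m2) :
    Λ ^ (m1 / 2) * E ^ (m2 / 2) ≤ 6 * 4 ^ K * W ^ 5 := by
  have hK : 0 < K := by
    rcases Nat.eq_zero_or_pos K with h0 | h0
    · rw [h0] at hKm; norm_num at hKm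
    · exact h0
  have hK' : (0:ℝ) < K := by exact_mod_cast hK
  refine le_trans ?_ (nd_gen hK hΛ hE hp0 hs h hN hr hσ)
  have h1 : (1:ℝ) / K ≤ m1 / 8 := by
    rw [div_le_div_iff₀ hK' (by norm_num)]
    linarith
  have a1 : m1 / 2 ≤ m1 - p2 - p0 - s - 1 / K := by linarith
  have a2 : m2 / 2 ≤ m2 - p0 := by linarith
  have hE0 : 0 ≤ E := by linarith
  have hΛ0 : 0 ≤ Λ := by linarith
  exact mul_le_mul (Real.rpow_le_rpow_of_exponent_le hΛ a1)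
    (Real.rpow_le_rpow_of_exponent_le hE a2) (by positivity) (by positivity)

end Crest.Agent.R136.Nde372
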