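import Crest.Agent.R136.Cmt_113
import Crest.Agent.R136.Chl_89
import Crest.Agent.R136.Nde_372

/-!
# R136 (S0187), PLAN 2, leaf (C5): the core case of `TiltCore` (helper372)

`core_big` : `TCore` with one dyadic pair `j, k'` (`Λ = 2^j`, `E = 2^k'`), the robust crossing
property (C2) with constants `B, θ, D` and the hull counts (C4) with constant `G` ⊢
`Λ ^ (qm 1 / 2) * (E Y / a) ^ (qm 2 / 2) ≤ 6 * 4^K * WW^5`,
`WW = D + 4 W + 16^(1 + qp 0) G + (B + 4 W) 800000 / θ`.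
-/

set_option autoImplicit false
set_option linter.unusedVariables false

open Finset

namespace Crest.Agent.R136.Cbg372

open Crest.Agent.R136.Sh605 Crest.Agent.R136.Fl808
open Crest.Agent.R136.Cbx140 (Tb tb_of_dy)
open Crest.Agent.R136.Hl706 (det3 sh det3_frame)
open Crest.Agent.R136.Ndl372 (reach join Nd)
open Crest.Agent.R136.Nde372
open Crest.Agent.R136.Cmd113
open Crest.Agent.R136.Pl2 (TCore)
open Crest.Agent.R136.Pl2W102 (Ex2)

/-- the normalised determinant is at most `4` -/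
theorem det_le {e f g : Fin 3 → V3} (he : Ortho e) {Y w1 w2 Λ E : ℝ} (hY : 0 < Y) (hw2 : 0 < w2)
    (hw1 : 0 < w1) (hΛ : 0 < Λ) (hE : 0 < E) (hf : Tb e f Y w1 w2 Λ E) (hg : Tb e g Y w1 w2 Λ E) :
    |det3 (e 1) (f 1) (g 1)| * w1 ^ 2 / (Λ ^ 2 * E * Y * w2) ≤ 4 := by
  rw [div_le_iff₀ (by positivity), det3_frame he]
  have h1 : |sh e (f 1) (g 1)| ≤ |dt (e 2) (f 1)| * |dt (e 0) (g 1)| +
      |dt (e 0) (f 1)| * |dt (e 2) (g 1)| := by
    unfold sh
    refine (abs_sub _ _).trans ?_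
    rw [abs_mul, abs_mul]
  calc |sh e (f 1) (g 1)| * w1 ^ 2 ≤ (|dt (e 2) (f 1)| * |dt (e 0) (g 1)| +
      |dt (e 0) (f 1)| * |dt (e 2) (g 1)|) * w1 ^ 2 := by gcongr
    _ = (|dt (e 2) (f 1)| * w1) * (|dt (e 0) (g 1)| * w1) +
        (|dt (e 0) (f 1)| * w1) * (|dt (e 2) (g 1)| * w1) := by ring
    _ ≤ (2 * (Λ * w2)) * (Λ * E * Y) + (Λ * E * Y) * (2 * (Λ * w2)) := by
        have a1 := hf.a21
        have a2 := hg.t01
        have a3 := hf.t01
        have a4 := hg.a21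
        gcongr
    _ = 4 * (Λ ^ 2 * E * Y * w2) := by ring

section

variable {qm qp : Fin 3 → ℝ} {L : ℕ → Ln4} {P : Finset ℕ} {u v : ℕ → ℕ} {bu bv : ℕ → Ln4}
  {eu ev : ℕ → Fin 3 → V3} {W M a Y w1 w2 z0 ρ : ℝ}

/-- `aV ≤ 4` on pairs of one class -/
theorem aV_top (ov : ∀ t ∈ P, Ortho (ev (v t))) {Λ E : ℝ}
    (hY : 0 < Y) (hw2 : 0 < w2) (hw1 : 0 < w1) (hΛ : 0 < Λ) (hE : 0 < E)
    (tb : ∀ t ∈ P, Tb (ev (v t)) (eu (u t)) Y w1 w2 Λ E) {s t : ℕ} (hs : s ∈ P) (ht : t ∈ P)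
    (h : v s = v t) : aV u v eu ev Y w1 w2 Λ E s t ≤ 4 := by
  unfold aV
  rw [if_pos h, Hl706.det3_swap]
  have h1 := tb s hs
  rw [h] at h1
  exact det_le (ov t ht) hY hw2 hw1 hΛ hE h1 (tb t ht)

/-- the constant of `Nd` -/
noncomputable def WW (qp : Fin 3 → ℝ) (W B θ D G : ℝ) : ℝ :=
  D + 4 * W + 16 ^ (1 + qp 0) * G + (B + 4 * W) * (800000 / θ)

open Classical in
theorem core_big {η : ℝ} (hx : Ex2 η qm qp) {K : ℕ} (hK : 8 ≤ K * qm 1)
    (H : TCore qm qp L P u v bu bv eu ev W M a Y w1 w2 z0 ρ) (hP : P.Nonempty) {j k' : ℕ}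
    (hD : ∀ t ∈ P, Dy (eu (u t)) (ev (v t)) Y w1 w2 j k') (hW : W ≤ (2:ℝ) ^ j * 2 ^ k')
    {B θ D G : ℝ} (hB : 0 ≤ B) (hθ : 0 < θ) (hθ1 : θ ≤ 1) (hD1 : 1 ≤ D) (hG : 0 ≤ G)
    (crU : ∀ Q ⊆ P, P.card ≤ 4 * Q.card → (P.card : ℝ) * M ≤
      D * (((Q ×ˢ Q).filter fun p => u p.1 = u p.2 ∧
        CrV L P v u ev eu w1 z0 ρ M (2 ^ j) B θ p.1 p.2).card : ℝ))
    (crV : ∀ Q ⊆ P, P.card ≤ 4 * Q.card → (P.card : ℝ) * M ≤
      D * (((Q ×ˢ Q).filter fun p => v p.1 = v p.2 ∧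
        CrV L P u v eu ev w1 z0 ρ M (2 ^ j) B θ p.1 p.2).card : ℝ))
    (hU : ∀ (cu cv : ℕ → ℕ → Prop) (x : ℝ), 1 ≤ x * 2 ^ j → ∀ t0 ∈ P,
      ((reach P u v cu cv (aV v u ev eu Y w1 w2 (2 ^ j) (2 ^ k'))
        (aV u v eu ev Y w1 w2 (2 ^ j) (2 ^ k')) x t0).card : ℝ) ≤
        G * ((x * (2 ^ j * 2 ^ k') * (Y / a)) ^ (1 + qp 0) * ((2:ℝ) ^ j) ^ (1 + qp 2)))
    (hV : ∀ (cu cv : ℕ → ℕ → Prop) (x : ℝ), 1 ≤ x * 2 ^ j → ∀ t0 ∈ P,
      ((reach P v u cv cu (aV u v eu ev Y w1 w2 (2 ^ j) (2 ^ k'))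
        (aV v u ev eu Y w1 w2 (2 ^ j) (2 ^ k')) x t0).card : ℝ) ≤
        G * ((x * (2 ^ j * 2 ^ k') * (Y / a)) ^ (1 + qp 0) * ((2:ℝ) ^ j) ^ (1 + qp 2)))
    (h1 : ∀ (cu : ℕ → ℕ → Prop) (x : ℝ), 1 ≤ x * 2 ^ j → ∀ t0 ∈ P,
      ∀ (inst : DecidableEq ℕ) (inst' : DecidablePred fun t =>
      u t0 = u t ∧ cu t0 t ∧ aV v u ev eu Y w1 w2 (2 ^ j) (2 ^ k') t0 t ≤ x),
      (((@Finset.image ℕ ℕ inst v (@Finset.filter ℕ (fun t => u t0 = u t ∧ cu t0 t ∧
        aV v u ev eu Y w1 w2 (2 ^ j) (2 ^ k') t0 t ≤ x) inst' P)).card : ℕ) : ℝ) ≤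
        G * ((x * (2 ^ j * 2 ^ k') * (Y / a)) ^ (1 + qp 0) * ((2:ℝ) ^ j) ^ (1 + qp 2))) :
    ((2:ℝ) ^ j) ^ (qm 1 / 2) * ((2:ℝ) ^ k' * (Y / a)) ^ (qm 2 / 2) ≤
      6 * 4 ^ K * (WW qp W B θ D G) ^ 5 := by
  have hW1 := H.W1
  have hW0 : 0 < W := by linarith
  have hM := H.M0
  have ha := H.a0
  have hY : 0 < Y := ha.trans_le H.aY
  have hw2 : 0 < w2 := hY.trans_le H.Yw
  have hw1 : 0 < w1 := hw2.trans_le H.ww
  have q0 := hx.le 0
  have q2 := hx.le 2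
  have p00 : 0 ≤ qp 0 := q0.1.trans q0.2
  have p20 : 0 ≤ qp 2 := q2.1.trans q2.2
  have hm1 : 0 < qm 1 := by
    have := hx.e1; have := hx.pos; linarith [q2.2]
  set Λ : ℝ := (2:ℝ) ^ j with hΛd
  set E : ℝ := (2:ℝ) ^ k' with hEd
  have hΛ : 1 ≤ Λ := one_le_pow₀ (by norm_num)
  have hE : 1 ≤ E := one_le_pow₀ (by norm_num)
  have hΛ0 : 0 < Λ := by linarith
  have hE0 : 0 < E := by linarith
  have hX : 1 ≤ Y / a := (one_le_div ha).2 H.aY
  have hEX : 1 ≤ E * (Y / a) := by nlinarith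
  have hEX0 : 0 < E * (Y / a) := by linarith
  set Wc : ℝ := WW qp W B θ D G with hWc
  have t3 : 0 ≤ 16 ^ (1 + qp 0) * G := by positivity
  have t4 : 0 ≤ (B + 4 * W) * (800000 / θ) := by positivity
  have hWcD : D ≤ Wc := by rw [hWc, WW]; linarith
  have hWcW : 4 * W ≤ Wc := by rw [hWc, WW]; linarith
  have hWcG : 16 ^ (1 + qp 0) * G ≤ Wc := by rw [hWc, WW]; linarith
  have hWcM : (B + 4 * W) * (800000 / θ) ≤ Wc := by rw [hWc, WW]; linarith
  have hWc0 : 0 < Wc := by linarith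
  set x : ℕ → ℝ := fun k => 16 * xs Λ K k with hxd
  have hx16 : ∀ k, x k / 16 = xs Λ K k := fun k => by rw [hxd]; ring
  have hxs : ∀ k, 0 < xs Λ K k := fun k => xs_pos hΛ K k
  have hK0 : 0 < K := by
    rcases Nat.eq_zero_or_pos K with h0 | h0
    · rw [h0] at hK; norm_num at hK
    · exact h0
  have hxk : ∀ k, k ≤ K → 1 ≤ x k * Λ := by
    intro k hk
    have h2 := xs_ge hΛ hK0 hk
    have : 1 ≤ xs Λ K k * Λ := by
      calc (1:ℝ) = Λ⁻¹ * Λ := by field_simp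
        _ ≤ xs Λ K k * Λ := by gcongr
    rw [hxd]
    show 1 ≤ 16 * xs Λ K k * Λ
    nlinarith
  have hxk16 : ∀ k, x k ≤ 16 := by
    intro k
    have := xs_le_one hΛ K k
    rw [hxd]
    show 16 * xs Λ K k ≤ 16
    linarith
  have hxk0 : ∀ k, 0 < x k := fun k => by
    rw [hxd]; show 0 < 16 * xs Λ K k; have := hxs k; linarith
  -- the hull count at scale `k`
  have hnum : ∀ k, G * ((x k * (Λ * E) * (Y / a)) ^ (1 + qp 0) * Λ ^ (1 + qp 2)) ≤
      Wc * Nh Λ (E * (Y / a)) (qp 0) (qp 2) (x k / 16) := by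
    intro k
    rw [hx16, Nh]
    have e1 : x k * (Λ * E) * (Y / a) = 16 * (xs Λ K k * Λ * (E * (Y / a))) := by
      rw [hxd]; ring
    have e2 : 0 ≤ xs Λ K k * Λ * (E * (Y / a)) := by have := hxs k; positivity
    rw [e1, Real.mul_rpow (by norm_num) e2]
    have e3 : 0 ≤ (xs Λ K k * Λ * (E * (Y / a))) ^ (1 + qp 0) * Λ ^ (1 + qp 2) := by positivity
    calc G * (16 ^ (1 + qp 0) * (xs Λ K k * Λ * (E * (Y / a))) ^ (1 + qp 0) * Λ ^ (1 + qp 2)) =
        (16 ^ (1 + qp 0) * G) *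
          ((xs Λ K k * Λ * (E * (Y / a))) ^ (1 + qp 0) * Λ ^ (1 + qp 2)) := by ring
      _ ≤ _ := mul_le_mul_of_nonneg_right hWcG e3
  -- the meeting count at scale `k`
  have hmt : ∀ k, (B + 4 * W) * (12800000 / (θ * x k * Λ)) * M ≤
      Wc * (1 / (Λ * (x k / 16))) * M := by
    intro k
    have h2 := hxk0 k
    have e1 : (B + 4 * W) * (12800000 / (θ * x k * Λ)) =
        ((B + 4 * W) * (800000 / θ)) * (1 / (Λ * (x k / 16))) := by
      field_simp; ring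
    rw [e1]
    gcongr
  have tbu : ∀ t ∈ P, Tb (eu (u t)) (ev (v t)) Y w1 w2 Λ E := fun t ht =>
    tb_of_dy (hD t ht) (H.ou t ht) (H.ov t ht) hY H.Yw H.ww
  set σ : ℝ := W / (Λ ^ (1 + qm 1) * (E * (Y / a)) ^ (1 + qm 2)) with hσd
  have hσ0 : 0 ≤ σ := by rw [hσd]; positivity
  have hNd : Nd P u v (CrV L P v u ev eu w1 z0 ρ M Λ B θ) (CrV L P u v eu ev w1 z0 ρ M Λ B θ)
      (aV v u ev eu Y w1 w2 Λ E) (aV u v eu ev Y w1 w2 Λ E) x K M Wc σ
      (fun x => Nh Λ (E * (Y / a)) (qp 0) (qp 2) (x / 16)) (fun x => 1 / (Λ * (x / 16))) := by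
    refine
      { ne := hP
        W1 := by linarith
        M0 := hM
        σ0 := hσ0
        N0 := fun k => by
          show 0 ≤ Nh Λ (E * (Y / a)) (qp 0) (qp 2) (x k / 16)
          rw [hx16]; exact Nh_nonneg hΛ hEX (hxs k).le
        r0 := fun k => by
          show 0 ≤ 1 / (Λ * (x k / 16))
          rw [hx16]; have := hxs k; positivity
        symU := fun s t h => h.symm
        symV := fun s t h => h.symm
        symAu := fun s t => aV_comm _ _ _ _ _ _ _ _ _ s t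
        symAv := fun s t => aV_comm _ _ _ _ _ _ _ _ _ s t
        topU := fun s hs t ht h _ => by
          have h4 := aV_top (u := v) (v := u) (eu := ev) (ev := eu) H.ou hY hw2 hw1 hΛ0 hE0 tbu
            hs ht h
          have : x 0 = 16 := by rw [hxd]; show 16 * xs Λ K 0 = 16; rw [xs_zero]; ring
          rw [this]; linarith
        topV := fun s hs t ht h _ => by
          have h4 := aV_top (u := u) (v := v) (eu := eu) (ev := ev) H.ov hY hw2 hw1 hΛ0 hE0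
            (fun t ht => (tbu t ht).symm) hs ht h
          have : x 0 = 16 := by rw [hxd]; show 16 * xs Λ K 0 = 16; rw [xs_zero]; ring
          rw [this]; linarith
        size := fun c' => by
          have h4 := core_size' H c'
          have h5 : 4 * (W * M) ≤ Wc * M := by nlinarith
          refine le_trans (le_of_eq ?_) (h4.trans h5)
          congr
        crU := fun Q hQ hc => by
          refine (crU Q hQ hc).trans (le_trans (le_of_eq ?_)
            (mul_le_mul_of_nonneg_right hWcD (Nat.cast_nonneg _)))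
          congr
        crV := fun Q hQ hc => by
          refine (crV Q hQ hc).trans (le_trans (le_of_eq ?_)
            (mul_le_mul_of_nonneg_right hWcD (Nat.cast_nonneg _)))
          congr
        share := fun c c' => by
          rcases (P.filter fun t => u t = c ∧ v t = c').eq_empty_or_nonempty with h0 | ⟨t, ht⟩
          · have : 0 ≤ σ * M := mul_nonneg hσ0 hM.le
            refine le_trans (le_of_eq ?_) this
            rw [← Nat.cast_zero, Nat.cast_inj, Finset.card_eq_zero]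
            refine Eq.trans ?_ h0
            congr
          · rw [mem_filter] at ht
            obtain ⟨htP, htu, htv⟩ := ht
            have h4 := H.share t htP j k' (hD t htP) hW
            have h5 : W * M / (Λ ^ (1 + qm 1) * (E * (Y / a)) ^ (1 + qm 2)) = σ * M := by
              rw [hσd]; ring
            rw [htu, htv] at h4
            refine le_trans (le_of_eq ?_) (h4.trans (le_of_eq h5))
            congr
        hullU := fun k hk t0 ht0 => (hU _ _ _ (hxk k hk.le) t0 ht0).trans (hnum k)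
        hullV := fun k hk t0 ht0 => (hV _ _ _ (hxk k hk.le) t0 ht0).trans (hnum k)
        hull1 := fun t0 ht0 => (h1 _ _ (hxk K le_rfl) t0 ht0 _ _).trans (hnum K)
        meetU := fun k hk c c'' => (core_meet H hD hB hθ hθ1 c c'' (x (k + 1)) (hxk0 _)
          (hxk16 _)).trans (hmt (k + 1))
        meetV := fun k hk c c'' => (core_meet' H hD hB hθ hθ1 c c'' (x (k + 1)) (hxk0 _)
          (hxk16 _)).trans (hmt (k + 1)) }
  refine nd_fin2 (s := 0) (m1 := qm 1) (m2 := qm 2) (p0 := qp 0) (p2 := qp 2) hΛ hEX p00 hm1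
    hx.e1 hx.e02 le_rfl (by linarith) hK hNd ?_ ?_ ?_
  · intro k _
    show Nh Λ (E * (Y / a)) (qp 0) (qp 2) (x k / 16) ≤ _
    rw [hx16]
  · intro k _
    show 1 / (Λ * (x k / 16)) ≤ _
    rw [hx16, rs, sub_zero, Real.rpow_one]
  · rw [sg, hσd, Real.rpow_neg hΛ0.le, Real.rpow_neg hEX0.le, ← mul_inv, ← div_eq_mul_inv]
    gcongr
    linarith

end

end Crest.Agent.R136.Cbg372
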