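import Mathlib
import Crest.Agent.R136.Sh1_605

/-!
# R136 (U4, PLAN 2, (L4)): the crossing box (helper140)

Two planks `S`, `S''` of one system, both crossed by planks of the other system, meet in ONE box of side
`r = E / (α κ μ)` of the `(z, long)`-plane.

* `cramer` : the linear algebra;
* `Tube` : `T'` lies along `T` up to a multiple of the direction `d` and an error box `b`;
* `crossing_place`.
-/

set_option autoImplicit false
set_option linter.unusedVariables false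

namespace Crest.Agent.R136.Cbx140

open Crest.Agent.R136.Sh605

/-- Cramer's rule with bounds -/
theorem cramer {x y Λv Λ2 μv μ2 c E Λ μ κ : ℝ} (hc : 0 ≤ c) (hE : 0 ≤ E) (hΛ : 0 < Λ)
    (h1 : |x * Λv + y * Λ2| ≤ c) (h2 : |x * μv + y * μ2| ≤ c * E) (hΛv : |Λv| ≤ Λ)
    (hΛ2 : |Λ2| ≤ Λ) (hμv : |μv| ≤ μ) (hμ2 : |μ2| ≤ μ) (hμE : μ ≤ Λ * E)
    (hdet : κ * Λ * μ ≤ |Λv * μ2 - μv * Λ2|) :
    |x| * (κ * μ) ≤ 2 * c * E ∧ |y| * (κ * μ) ≤ 2 * c * E := by
  have key : ∀ t R : ℝ, |t| * |Λv * μ2 - μv * Λ2| ≤ R → R ≤ 2 * c * E * Λ →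
      |t| * (κ * μ) ≤ 2 * c * E := by
    intro t R ht hR
    have h3 : |t| * (κ * Λ * μ) ≤ 2 * c * E * Λ :=
      (mul_le_mul_of_nonneg_left hdet (abs_nonneg t)).trans (ht.trans hR)
    have h4 : (|t| * (κ * μ)) * Λ ≤ (2 * c * E) * Λ := by nlinarith
    exact le_of_mul_le_mul_right h4 hΛ
  have hμ : 0 ≤ μ := (abs_nonneg _).trans hμv
  have hb : c * μ + c * E * Λ ≤ 2 * c * E * Λ := by nlinarith [mul_le_mul_of_nonneg_left hμE hc]
  constructor
  · refine key x (c * μ + c * E * Λ) ?_ hb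
    rw [← abs_mul]
    have : x * (Λv * μ2 - μv * Λ2) = (x * Λv + y * Λ2) * μ2 - (x * μv + y * μ2) * Λ2 := by ring
    rw [this]
    refine (abs_sub _ _).trans (add_le_add ?_ ?_)
    · rw [abs_mul]; exact mul_le_mul h1 hμ2 (abs_nonneg _) hc
    · rw [abs_mul]; exact mul_le_mul h2 hΛ2 (abs_nonneg _) (by positivity)
  · refine key y (c * μ + c * E * Λ) ?_ hb
    rw [← abs_mul]
    have : y * (Λv * μ2 - μv * Λ2) = (x * μv + y * μ2) * Λv - (x * Λv + y * Λ2) * μv := by ring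
    rw [this]
    refine (abs_sub _ _).trans ?_
    rw [add_comm]
    refine add_le_add ?_ ?_
    · rw [abs_mul]; exact mul_le_mul h1 hμv (abs_nonneg _) hc
    · rw [abs_mul]; exact mul_le_mul h2 hΛv (abs_nonneg _) (by positivity)

/-- over the cell, `T' - T` is a multiple (affine in `z`) of the direction `d`, up to the box `b` in
the frame `e` -/
def Tube (e : Fin 3 → V3) (d : V3) (T T' : Ln4) (τ0 τ1 : ℝ) (b : V3) (z0 ρ : ℝ) : Prop :=
  ∀ z, z0 ≤ z → z ≤ z0 + ρ → ∀ i, |dt (e i) (T'.pos z - T.pos z - (τ0 + τ1 * z) • d)| ≤ b i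

theorem dt_add (x y z : V3) : dt x (y + z) = dt x y + dt x z := by
  simp only [dt, Pi.add_apply]; ring

theorem dt_sub (x y z : V3) : dt x (y - z) = dt x y - dt x z := by
  simp only [dt, Pi.sub_apply]; ring

theorem dt_smul (x y : V3) (c : ℝ) : dt x (c • y) = c * dt x y := by
  simp only [dt, Pi.smul_apply, smul_eq_mul]; ring

theorem four {X m p r S k : ℝ} (h : X = -m + p + r + S) (hX : |X| ≤ k) (hm : |m| ≤ k)
    (hp : |p| ≤ k) (hr : |r| ≤ k) : |S| ≤ 4 * k := by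
  rw [abs_le] at *
  constructor <;> linarith [hX.1, hX.2, hm.1, hm.2, hp.1, hp.2, hr.1, hr.2]

theorem five {X m p r S1 S2 k l : ℝ} (h : X = -m + p + r + (S1 + S2)) (hm : |m| ≤ k)
    (hp : |p| ≤ k) (hr : |r| ≤ k) (h1 : |S1| ≤ l) (h2 : |S2| ≤ l) : |X| ≤ 3 * k + 2 * l := by
  rw [abs_le] at *
  constructor <;> linarith [hm.1, hm.2, hp.1, hp.2, hr.1, hr.2, h1.1, h1.2, h2.1, h2.2]

/-- **the crossing place** : `e` = frame of the plank `S` (`e 1` long, `e 2` narrow, `e 0` normal),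
units `w1`, `w2`, `Y`; `d`, `d2` = long directions of the crossing plank and of `S''`. -/
theorem crossing_place {e : Fin 3 → V3} {T T2 T1 T12 : Ln4} {d d2 : V3}
    {τ0 τ1 s0 s1 z0 ρ zs z1 w1 w2 Y Λ μ E κ α c : ℝ}
    (hw1 : 0 < w1) (hw2 : 0 < w2) (hY : 0 < Y) (hρ : 0 < ρ) (hα : 0 < α) (hα4 : α ≤ 4) (hκ : 0 < κ)
    (hμ : 0 < μ) (hΛ : 1 ≤ Λ) (hE : 1 ≤ E) (hμE : μ ≤ Λ * E) (hc : 1 ≤ c)
    (hd1 : |dt (e 1) d| ≤ 1) (hd21 : |dt (e 1) d2| ≤ 1)
    (hdB : |dt (e 2) d| * w1 ≤ Λ * w2) (hdY : |dt (e 0) d| * w1 ≤ μ * Y)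
    (hd2B : |dt (e 2) d2| * w1 ≤ Λ * w2) (hd2Y : |dt (e 0) d2| * w1 ≤ μ * Y)
    (hdet : κ * Λ * μ * (w2 * Y) ≤ |dt (e 2) d * dt (e 0) d2 - dt (e 0) d * dt (e 2) d2| * w1 ^ 2)
    (hT2 : Tube e d T T2 τ0 τ1 ![c * E * Y, c * w1 / Λ, c * w2] z0 ρ)
    (hzs : |τ0 + τ1 * zs| ≤ c * w1 / Λ) (hτ1 : α * w1 ≤ |τ1| * ρ)
    (hT12 : Tube e d2 T2 T12 s0 s1 ![c * E * Y, c * w1 / Λ, c * w2] z0 ρ)
    (hmeet : ∀ i, |dt (e i) (T12.pos z1 - T1.pos z1)| ≤ ![c * E * Y, c * w1 / Λ, c * w2] i)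
    (hT1 : ∀ z, z0 ≤ z → z ≤ z0 + ρ → ∀ i, |dt (e i) (T1.pos z - T.pos z)| ≤
      ![c * E * Y, 2 * w1, c * w2] i)
    (hs : z0 ≤ zs ∧ zs ≤ z0 + ρ) (h1 : z0 ≤ z1 ∧ z1 ≤ z0 + ρ) :
    |z1 - zs| ≤ 10 * c * (E / (α * κ * μ)) * ρ ∧
      |dt (e 1) (T1.pos zs - T.pos zs)| ≤ 160 * c * (E / (α * κ * μ)) * w1 := by
  have hΛ0 : 0 < Λ := by linarith
  have hE0 : 0 < E := by linarith
  have hc0 : 0 < c := by linarith
  set τ := τ0 + τ1 * z1 with hτ
  set s := s0 + s1 * z1 with hs'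
  -- the decomposition at the height z1
  have dec : ∀ i, dt (e i) (T1.pos z1 - T.pos z1) =
      -dt (e i) (T12.pos z1 - T1.pos z1) + dt (e i) (T12.pos z1 - T2.pos z1 - s • d2)
        + dt (e i) (T2.pos z1 - T.pos z1 - τ • d) + (s * dt (e i) d2 + τ * dt (e i) d) := by
    intro i
    simp only [dt_sub, dt_smul]; ring
  have a1 := hT2 z1 h1.1 h1.2
  have a2 := hT12 z1 h1.1 h1.2
  have a3 := hT1 z1 h1.1 h1.2
  have hB : |τ * dt (e 2) d + s * dt (e 2) d2| ≤ 4 * c * w2 := by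
    have h3 := four (dec 2) (a3 2) (hmeet 2) (a2 2) (a1 2)
    have h4 : |s * dt (e 2) d2 + τ * dt (e 2) d| ≤ 4 * (c * w2) := h3
    rw [add_comm] at h4
    linarith
  have hN : |τ * dt (e 0) d + s * dt (e 0) d2| ≤ 4 * c * E * Y := by
    have h3 := four (dec 0) (a3 0) (hmeet 0) (a2 0) (a1 0)
    have h4 : |s * dt (e 0) d2 + τ * dt (e 0) d| ≤ 4 * (c * E * Y) := h3
    rw [add_comm] at h4
    linarith
  -- Cramer in relative units
  have hcr := cramer (x := τ / w1) (y := s / w1) (Λv := dt (e 2) d * w1 / w2)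
    (Λ2 := dt (e 2) d2 * w1 / w2) (μv := dt (e 0) d * w1 / Y) (μ2 := dt (e 0) d2 * w1 / Y)
    (c := 4 * c) (E := E) (Λ := Λ) (μ := μ) (κ := κ) (by positivity) hE0.le hΛ0
    (by
      have : τ / w1 * (dt (e 2) d * w1 / w2) + s / w1 * (dt (e 2) d2 * w1 / w2) =
          (τ * dt (e 2) d + s * dt (e 2) d2) / w2 := by field_simp
      rw [this, abs_div, abs_of_pos hw2, div_le_iff₀ hw2]; exact hB)
    (by
      have : τ / w1 * (dt (e 0) d * w1 / Y) + s / w1 * (dt (e 0) d2 * w1 / Y) =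
          (τ * dt (e 0) d + s * dt (e 0) d2) / Y := by field_simp
      rw [this, abs_div, abs_of_pos hY, div_le_iff₀ hY]; exact hN)
    (by rw [abs_div, abs_mul, abs_of_pos hw1, abs_of_pos hw2, div_le_iff₀ hw2]; exact hdB)
    (by rw [abs_div, abs_mul, abs_of_pos hw1, abs_of_pos hw2, div_le_iff₀ hw2]; exact hd2B)
    (by rw [abs_div, abs_mul, abs_of_pos hw1, abs_of_pos hY, div_le_iff₀ hY]; exact hdY)
    (by rw [abs_div, abs_mul, abs_of_pos hw1, abs_of_pos hY, div_le_iff₀ hY]; exact hd2Y)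
    hμE
    (by
      have : dt (e 2) d * w1 / w2 * (dt (e 0) d2 * w1 / Y) -
          dt (e 0) d * w1 / Y * (dt (e 2) d2 * w1 / w2) =
          (dt (e 2) d * dt (e 0) d2 - dt (e 0) d * dt (e 2) d2) * w1 ^ 2 / (w2 * Y) := by
        field_simp
      rw [this, abs_div, abs_mul, abs_of_pos (by positivity : 0 < w1 ^ 2),
        abs_of_pos (by positivity : 0 < w2 * Y), le_div_iff₀ (by positivity)]
      exact hdet)
  -- κ ≤ 2
  have hκ2 : κ ≤ 2 := by
    have u1 : |dt (e 2) d * dt (e 0) d2 - dt (e 0) d * dt (e 2) d2| * w1 ^ 2 ≤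
        2 * (Λ * μ * (w2 * Y)) := by
      have v1 : |dt (e 2) d * dt (e 0) d2 - dt (e 0) d * dt (e 2) d2| ≤
          |dt (e 2) d| * |dt (e 0) d2| + |dt (e 0) d| * |dt (e 2) d2| := by
        refine (abs_sub _ _).trans ?_
        rw [abs_mul, abs_mul]
      have v2 : (|dt (e 2) d| * w1) * (|dt (e 0) d2| * w1) ≤ (Λ * w2) * (μ * Y) :=
        mul_le_mul hdB hd2Y (by positivity) (by positivity)
      have v3 : (|dt (e 0) d| * w1) * (|dt (e 2) d2| * w1) ≤ (μ * Y) * (Λ * w2) :=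
        mul_le_mul hdY hd2B (by positivity) (by positivity)
      calc _ ≤ (|dt (e 2) d| * |dt (e 0) d2| + |dt (e 0) d| * |dt (e 2) d2|) * w1 ^ 2 :=
            mul_le_mul_of_nonneg_right v1 (by positivity)
        _ = (|dt (e 2) d| * w1) * (|dt (e 0) d2| * w1) +
            (|dt (e 0) d| * w1) * (|dt (e 2) d2| * w1) := by ring
        _ ≤ (Λ * w2) * (μ * Y) + (μ * Y) * (Λ * w2) := add_le_add v2 v3
        _ = _ := by ring
    have u2 : κ * (Λ * μ * (w2 * Y)) ≤ 2 * (Λ * μ * (w2 * Y)) := by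
      calc κ * (Λ * μ * (w2 * Y)) = κ * Λ * μ * (w2 * Y) := by ring
        _ ≤ _ := hdet.trans u1
    exact le_of_mul_le_mul_right u2 (by positivity)
  set R := E / (κ * μ) with hR
  have hR0 : 0 < R := by positivity
  have hRr : E / (α * κ * μ) = R / α := by rw [hR]; field_simp
  have hΛR : 1 / Λ ≤ 2 * R := by
    rw [hR, div_le_iff₀ hΛ0]
    have : κ * μ ≤ 2 * (Λ * E) := by
      calc κ * μ ≤ 2 * μ := mul_le_mul_of_nonneg_right hκ2 hμ.le
        _ ≤ 2 * (Λ * E) := by linarith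
    rw [show 2 * (E / (κ * μ)) * Λ = (2 * (Λ * E)) / (κ * μ) by field_simp,
      le_div_iff₀ (by positivity)]
    linarith
  have hτR : |τ| ≤ 8 * c * R * w1 := by
    have h3 := hcr.1
    rw [abs_div, abs_of_pos hw1, div_mul_eq_mul_div, div_le_iff₀ hw1] at h3
    rw [hR, show 8 * c * (E / (κ * μ)) * w1 = (2 * (4 * c) * E * w1) / (κ * μ) by field_simp; ring,
      le_div_iff₀ (by positivity)]
    exact h3
  have hsR : |s| ≤ 8 * c * R * w1 := by
    have h3 := hcr.2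
    rw [abs_div, abs_of_pos hw1, div_mul_eq_mul_div, div_le_iff₀ hw1] at h3
    rw [hR, show 8 * c * (E / (κ * μ)) * w1 = (2 * (4 * c) * E * w1) / (κ * μ) by field_simp; ring,
      le_div_iff₀ (by positivity)]
    exact h3
  have hcΛ : c * w1 / Λ ≤ 2 * c * R * w1 := by
    have := mul_le_mul_of_nonneg_left hΛR (by positivity : 0 ≤ c * w1)
    calc c * w1 / Λ = c * w1 * (1 / Λ) := by ring
      _ ≤ c * w1 * (2 * R) := this
      _ = _ := by ring
  -- heights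
  have hz : |z1 - zs| ≤ 10 * c * (R / α) * ρ := by
    have h3 : |τ1| * |z1 - zs| ≤ 10 * c * R * w1 := by
      rw [← abs_mul]
      have : τ1 * (z1 - zs) = τ - (τ0 + τ1 * zs) := by rw [hτ]; ring
      rw [this]
      refine (abs_sub _ _).trans ?_
      have := hzs.trans hcΛ
      linarith
    have h4 : α * w1 * |z1 - zs| ≤ 10 * c * R * w1 * ρ := by
      calc α * w1 * |z1 - zs| ≤ |τ1| * ρ * |z1 - zs| :=
            mul_le_mul_of_nonneg_right hτ1 (abs_nonneg _)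
        _ = |τ1| * |z1 - zs| * ρ := by ring
        _ ≤ 10 * c * R * w1 * ρ := mul_le_mul_of_nonneg_right h3 hρ.le
    have h5 : w1 * (α * |z1 - zs|) ≤ w1 * (10 * c * R * ρ) := by
      calc w1 * (α * |z1 - zs|) = α * w1 * |z1 - zs| := by ring
        _ ≤ 10 * c * R * w1 * ρ := h4
        _ = _ := by ring
    have h6 := le_of_mul_le_mul_left h5 hw1
    rw [show 10 * c * (R / α) * ρ = (10 * c * R * ρ) / α by ring, le_div_iff₀ hα]
    linarith
  refine ⟨by rw [hRr]; exact hz, ?_⟩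
  -- position at the height z1
  have hA1 : |dt (e 1) (T1.pos z1 - T.pos z1)| ≤ 22 * c * R * w1 := by
    have f1 : |s * dt (e 1) d2| ≤ 8 * c * R * w1 := by
      rw [abs_mul]
      calc |s| * |dt (e 1) d2| ≤ |s| * 1 := mul_le_mul_of_nonneg_left hd21 (abs_nonneg _)
        _ ≤ _ := by rw [mul_one]; exact hsR
    have f2 : |τ * dt (e 1) d| ≤ 8 * c * R * w1 := by
      rw [abs_mul]
      calc |τ| * |dt (e 1) d| ≤ |τ| * 1 := mul_le_mul_of_nonneg_left hd1 (abs_nonneg _)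
        _ ≤ _ := by rw [mul_one]; exact hτR
    have h3 := five (dec 1) (hmeet 1) (a2 1) (a1 1) f1 f2
    have h4 : |dt (e 1) (T1.pos z1 - T.pos z1)| ≤ 3 * (c * w1 / Λ) + 2 * (8 * c * R * w1) := h3
    linarith
  -- velocity
  set V := dt (e 1) (T1.v - T.v) with hV
  have hlin : ∀ z z' : ℝ, dt (e 1) (T1.pos z - T.pos z) - dt (e 1) (T1.pos z' - T.pos z') =
      (z - z') * V := by
    intro z z'
    rw [hV]
    simp only [dt, Ln4.pos, Pi.sub_apply]; ring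
  have hVb : |V| * ρ ≤ 4 * w1 := by
    have h3 : |dt (e 1) (T1.pos z0 - T.pos z0)| ≤ 2 * w1 := hT1 z0 le_rfl (by linarith) 1
    have h4 : |dt (e 1) (T1.pos (z0 + ρ) - T.pos (z0 + ρ))| ≤ 2 * w1 :=
      hT1 (z0 + ρ) (by linarith) le_rfl 1
    have h5 := hlin (z0 + ρ) z0
    have h6 : ρ * V = dt (e 1) (T1.pos (z0 + ρ) - T.pos (z0 + ρ)) -
        dt (e 1) (T1.pos z0 - T.pos z0) := by rw [h5]; ring
    have h7 : |V| * ρ = |ρ * V| := by rw [abs_mul, abs_of_pos hρ, mul_comm]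
    rw [h7, h6]
    refine (abs_sub _ _).trans ?_
    linarith
  have h8 : |dt (e 1) (T1.pos zs - T.pos zs)| ≤ 22 * c * R * w1 + |z1 - zs| * |V| := by
    have h9 := hlin zs z1
    have h10 : dt (e 1) (T1.pos zs - T.pos zs) =
        dt (e 1) (T1.pos z1 - T.pos z1) + (zs - z1) * V := by linarith
    rw [h10]
    refine (abs_add_le _ _).trans ?_
    rw [abs_mul, abs_sub_comm zs z1]
    linarith
  have h11 : |z1 - zs| * |V| ≤ 40 * c * (R / α) * w1 := by
    calc |z1 - zs| * |V| ≤ (10 * c * (R / α) * ρ) * |V| :=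
          mul_le_mul_of_nonneg_right hz (abs_nonneg _)
      _ = 10 * c * (R / α) * (|V| * ρ) := by ring
      _ ≤ 10 * c * (R / α) * (4 * w1) := mul_le_mul_of_nonneg_left hVb (by positivity)
      _ = _ := by ring
  have h12 : R ≤ 4 * (R / α) := by
    calc R = α * (R / α) := by field_simp
      _ ≤ 4 * (R / α) := mul_le_mul_of_nonneg_right hα4 (by positivity)
  rw [hRr]
  have h13 : 22 * c * R * w1 ≤ 88 * c * (R / α) * w1 := by
    calc 22 * c * R * w1 = 22 * c * w1 * R := by ring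
      _ ≤ 22 * c * w1 * (4 * (R / α)) := mul_le_mul_of_nonneg_left h12 (by positivity)
      _ = _ := by ring
  have h14 : 0 < c * (R / α) * w1 := by positivity
  linarith

end Crest.Agent.R136.Cbx140
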