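import Crest.Agent.R136.Sh1_605

/-!
# R136 (S0187): flat boxes, geometry of the one-step tilt count (helper808)

Boxes `InB t l e s z0 ρ`: `|<e i, t(z) - l(z)>| ≤ s i` for all `z ∈ [z0, z0 + ρ]`; `s 0` thickness,
`s 1` wide side, `s 2` narrow side. Two boxes of the same dimensions whose wide axes are aligned.
-/

set_option autoImplicit false
set_option linter.unusedVariables false

namespace Crest.Agent.R136.Fl808

open Finset Crest.Agent.R136.Sh605

/-- the line `t` lies in the box with axes `e`, half-widths `s`, around the line `l`, over the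
heights `[z0, z0 + ρ]` -/
def InB (t l : Ln4) (e : Fin 3 → V3) (s : V3) (z0 ρ : ℝ) : Prop :=
  ∀ z, z0 ≤ z → z ≤ z0 + ρ → ∀ i, |dt (e i) (t.pos z - l.pos z)| ≤ s i

theorem dt_expand {e : Fin 3 → V3} (h : Ortho e) (x u : V3) :
    dt x u = dt x (e 0) * dt (e 0) u + dt x (e 1) * dt (e 1) u + dt x (e 2) * dt (e 2) u := by
  have h0 := h.expand u 0
  have h1 := h.expand u 1
  have h2 := h.expand u 2
  have : dt x u = x 0 * u 0 + x 1 * u 1 + x 2 * u 2 := rfl
  rw [this, h0, h1, h2]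
  simp only [dt]
  ring

/-- the transition matrix is orthogonal -/
theorem ortho_trans {e e' : Fin 3 → V3} (h : Ortho e) (h' : Ortho e') :
    Ortho fun i => ![dt (e' i) (e 0), dt (e' i) (e 1), dt (e' i) (e 2)] := by
  intro i j
  rw [← h' i j, dt_expand h (e' i) (e' j), dt_comm (e 0), dt_comm (e 1), dt_comm (e 2)]
  simp only [dt, Matrix.cons_val_zero, Matrix.cons_val_one, Matrix.cons_val]

theorem abs_dt_le_one {e e' : Fin 3 → V3} (h : Ortho e) (h' : Ortho e') (i j : Fin 3) :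
    |dt (e' i) (e j)| ≤ 1 := by
  have h1 := (ortho_trans h h') i i
  simp only [dt, if_true, Matrix.cons_val_zero, Matrix.cons_val_one, Matrix.cons_val] at h1
  rw [← sq_le_one_iff_abs_le_one]
  simp only [dt]
  fin_cases j
  · simp only [Fin.zero_eta]
    nlinarith [sq_nonneg (e' i 0 * e 1 0 + e' i 1 * e 1 1 + e' i 2 * e 1 2),
      sq_nonneg (e' i 0 * e 2 0 + e' i 1 * e 2 1 + e' i 2 * e 2 2)]
  · simp only [Fin.mk_one]
    nlinarith [sq_nonneg (e' i 0 * e 0 0 + e' i 1 * e 0 1 + e' i 2 * e 0 2),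
      sq_nonneg (e' i 0 * e 2 0 + e' i 1 * e 2 1 + e' i 2 * e 2 2)]
  · simp only [Fin.reduceFinMk]
    nlinarith [sq_nonneg (e' i 0 * e 0 0 + e' i 1 * e 0 1 + e' i 2 * e 0 2),
      sq_nonneg (e' i 0 * e 1 0 + e' i 1 * e 1 1 + e' i 2 * e 1 2)]

theorem minor_trans {e e' : Fin 3 → V3} (h : Ortho e) (h' : Ortho e') {i j k : Fin 3}
    (hij : i ≠ j) (hik : i ≠ k) (hjk : j ≠ k) :
    |dt (e' k) (e 0)| ≤ |dt (e' i) (e 1)| * |dt (e' j) (e 2)| +
      |dt (e' i) (e 2)| * |dt (e' j) (e 1)| := by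
  have h1 := (ortho_trans h h').minor hij hik hjk
  simp only [Matrix.cons_val_zero, Matrix.cons_val_one, Matrix.cons_val] at h1
  have h2 : |dt (e' k) (e 0)| =
      |dt (e' i) (e 1) * dt (e' j) (e 2) - dt (e' i) (e 2) * dt (e' j) (e 1)| := by
    rw [← sq_eq_sq_iff_abs_eq_abs, h1]
  rw [h2]
  refine (abs_sub _ _).trans (le_of_eq ?_)
  rw [abs_mul, abs_mul]

/-- the wide axes of two boxes of widths `w 1 ≥ w 2` are aligned -/
structure Aligned (e e' : Fin 3 → V3) (w1 w2 : ℝ) : Prop where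
  a12 : |dt (e' 1) (e 2)| * w1 ≤ w2
  a21 : |dt (e' 2) (e 1)| * w1 ≤ w2
  a01 : |dt (e' 0) (e 1)| * w1 ≤ w2

/-- the tilt of the normal directions, measured on the base -/
noncomputable def tlt (e e' : Fin 3 → V3) (w1 w2 : ℝ) : ℝ :=
  max (|dt (e' 0) (e 1)| * w1) (|dt (e' 0) (e 2)| * w2)

theorem tlt_le {e e' : Fin 3 → V3} (h : Ortho e) (h' : Ortho e') {w1 w2 : ℝ} (hw2 : 0 ≤ w2)
    (hA : Aligned e e' w1 w2) : tlt e e' w1 w2 ≤ w2 := by
  refine max_le hA.a01 ?_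
  have := abs_dt_le_one h h' 0 2
  nlinarith

/-- **hull**: if two boxes of dimensions `(a, w1, w2)` have a common line, then the second one lies
in a box with the frame of the first one and thickness `11 max(a, tilt)`. -/
theorem hull {e e' : Fin 3 → V3} (h : Ortho e) (h' : Ortho e') {a w1 w2 τ z0 ρ : ℝ} (ha : 0 < a)
    (haw : a ≤ w2) (hw : w2 ≤ w1) (hA : Aligned e e' w1 w2) (hτ : tlt e e' w1 w2 ≤ τ) (haτ : a ≤ τ)
    {l l' t t2 : Ln4} (ht : InB t l e ![a, w1, w2] z0 ρ) (ht' : InB t l' e' ![a, w1, w2] z0 ρ)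
    (h2 : InB t2 l' e' ![a, w1, w2] z0 ρ) :
    InB t2 l e ![11 * τ, 11 * w1, 11 * w2] z0 ρ := by
  intro z hz0 hz1
  have hw2 : 0 < w2 := ha.trans_le haw
  have hw1 : 0 < w1 := hw2.trans_le hw
  have p := ht z hz0 hz1
  have p' := ht' z hz0 hz1
  have p2 := h2 z hz0 hz1
  have t01 : |dt (e' 0) (e 1)| * w1 ≤ τ := (le_max_left _ _).trans hτ
  have t02 : |dt (e' 0) (e 2)| * w2 ≤ τ := (le_max_right _ _).trans hτ
  have m1 := minor_trans h h' (i := 0) (j := 2) (k := 1) (by decide) (by decide) (by decide)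
  have m2 := minor_trans h h' (i := 0) (j := 1) (k := 2) (by decide) (by decide) (by decide)
  have r10 : |dt (e' 1) (e 0)| * w1 ≤ 2 * τ := by
    have b1 := abs_dt_le_one h h' 2 2
    have b2 := hA.a21
    have c1 : |dt (e' 0) (e 1)| * |dt (e' 2) (e 2)| * w1 ≤ τ := by
      calc |dt (e' 0) (e 1)| * |dt (e' 2) (e 2)| * w1 ≤ |dt (e' 0) (e 1)| * 1 * w1 := by gcongr
        _ ≤ τ := by rw [mul_one]; exact t01
    have c2 : |dt (e' 0) (e 2)| * |dt (e' 2) (e 1)| * w1 ≤ τ := by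
      calc |dt (e' 0) (e 2)| * |dt (e' 2) (e 1)| * w1 =
            |dt (e' 0) (e 2)| * (|dt (e' 2) (e 1)| * w1) := by ring
        _ ≤ |dt (e' 0) (e 2)| * w2 := by gcongr
        _ ≤ τ := t02
    nlinarith
  have r20 : |dt (e' 2) (e 0)| * w2 ≤ 2 * τ := by
    have b1 := abs_dt_le_one h h' 1 2
    have b2 := abs_dt_le_one h h' 1 1
    have c1 : |dt (e' 0) (e 1)| * |dt (e' 1) (e 2)| * w2 ≤ τ := by
      calc |dt (e' 0) (e 1)| * |dt (e' 1) (e 2)| * w2 ≤ |dt (e' 0) (e 1)| * 1 * w1 := by gcongr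
        _ ≤ τ := by rw [mul_one]; exact t01
    have c2 : |dt (e' 0) (e 2)| * |dt (e' 1) (e 1)| * w2 ≤ τ := by
      calc |dt (e' 0) (e 2)| * |dt (e' 1) (e 1)| * w2 ≤ |dt (e' 0) (e 2)| * 1 * w2 := by gcongr
        _ ≤ τ := by rw [mul_one]; exact t02
    nlinarith
  have hy : ∀ i, |dt (e' i) (t2.pos z - t.pos z)| ≤ 2 * (![a, w1, w2] : V3) i := by
    intro i
    have : t2.pos z - t.pos z = (t2.pos z - l'.pos z) - (t.pos z - l'.pos z) := by abel
    rw [this, dt_sub]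
    exact (abs_sub _ _).trans (by linarith [p' i, p2 i])
  have y0 := hy 0
  have y1 := hy 1
  have y2 := hy 2
  simp only [Matrix.cons_val_zero, Matrix.cons_val_one, Matrix.cons_val] at y0 y1 y2
  have hj : ∀ j, |dt (e j) (t2.pos z - l.pos z)| ≤ (![a, w1, w2] : V3) j +
      (|dt (e' 0) (e j)| * (2 * a) + |dt (e' 1) (e j)| * (2 * w1) +
        |dt (e' 2) (e j)| * (2 * w2)) := by
    intro j
    have : t2.pos z - l.pos z = (t2.pos z - t.pos z) + (t.pos z - l.pos z) := by abel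
    rw [this, dt_add]
    have h3 : |dt (e j) (t2.pos z - t.pos z)| ≤ |dt (e' 0) (e j)| * (2 * a) +
        |dt (e' 1) (e j)| * (2 * w1) + |dt (e' 2) (e j)| * (2 * w2) := by
      rw [dt_expand h' (e j) (t2.pos z - t.pos z), dt_comm (e j) (e' 0), dt_comm (e j) (e' 1),
        dt_comm (e j) (e' 2)]
      refine (abs_add_le _ _).trans (add_le_add ((abs_add_le _ _).trans (add_le_add ?_ ?_)) ?_)
      · rw [abs_mul]; gcongr
      · rw [abs_mul]; gcongr
      · rw [abs_mul]; gcongr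
    have h4 := p j
    exact (abs_add_le _ _).trans (by linarith)
  have hτ0 : 0 < τ := ha.trans_le haτ
  intro j
  have h5 := hj j
  have q0 := abs_dt_le_one h h' 0 j
  have q1 := abs_dt_le_one h h' 1 j
  have q2 := abs_dt_le_one h h' 2 j
  have c0 : |dt (e' 0) (e j)| * (2 * a) ≤ 2 * a := by nlinarith
  fin_cases j
  · simp only [Fin.zero_eta, Matrix.cons_val_zero] at h5 c0 q2 ⊢
    have c1 : |dt (e' 1) (e 0)| * (2 * w1) ≤ 4 * τ := by nlinarith
    have c2 : |dt (e' 2) (e 0)| * (2 * w2) ≤ 4 * τ := by nlinarith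
    linarith
  · simp only [Fin.mk_one, Matrix.cons_val_one] at h5 c0 q1 q2 ⊢
    have c1 : |dt (e' 1) (e 1)| * (2 * w1) ≤ 2 * w1 := by nlinarith
    have c2 : |dt (e' 2) (e 1)| * (2 * w2) ≤ 2 * w2 := by nlinarith
    simp only [Matrix.cons_val_zero, Matrix.cons_val_one, Matrix.cons_val] at h5 ⊢
    linarith
  · simp only [Fin.reduceFinMk, Matrix.cons_val] at h5 c0 q1 q2 ⊢
    have c1 : |dt (e' 1) (e 2)| * (2 * w1) ≤ 2 * w2 := by nlinarith [hA.a12]
    have c2 : |dt (e' 2) (e 2)| * (2 * w2) ≤ 2 * w2 := by nlinarith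
    linarith

/-- rotation of the base axes -/
def rotB (e : Fin 3 → V3) (c s : ℝ) : Fin 3 → V3 := ![e 0, c • e 1 + s • e 2, (-s) • e 1 + c • e 2]

theorem rotB_ortho {e : Fin 3 → V3} (h : Ortho e) {c s : ℝ} (hcs : c ^ 2 + s ^ 2 = 1) :
    Ortho (rotB e c s) := by
  have h00 := h 0 0
  have h01 := h 0 1
  have h02 := h 0 2
  have h10 := h 1 0
  have h11 := h 1 1
  have h12 := h 1 2
  have h20 := h 2 0
  have h21 := h 2 1
  have h22 := h 2 2
  simp only [if_true, Fin.isValue, Fin.reduceEq, if_false, zero_ne_one, one_ne_zero] at h00 h01 h02 h10 h11 h12 h20 h21 h22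
  intro i j
  fin_cases i <;> fin_cases j <;>
    simp only [rotB, Fin.zero_eta, Fin.mk_one, Fin.reduceFinMk, Matrix.cons_val_zero,
      Matrix.cons_val_one, Matrix.cons_val, dt_add, dt_smul, add_dt, smul_dt, h00, h01, h02, h10,
      h11, h12, h20, h21, h22, if_true, Fin.isValue, Fin.reduceEq, if_false, zero_ne_one,
      one_ne_zero] <;> nlinarith

theorem rotB_0 (e : Fin 3 → V3) (c s : ℝ) : rotB e c s 0 = e 0 := rfl
theorem rotB_1 (e : Fin 3 → V3) (c s : ℝ) (u : V3) :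
    dt (rotB e c s 1) u = c * dt (e 1) u + s * dt (e 2) u := by
  change dt (c • e 1 + s • e 2) u = _
  rw [add_dt, smul_dt, smul_dt]
theorem rotB_2 (e : Fin 3 → V3) (c s : ℝ) (u : V3) :
    dt (rotB e c s 2) u = -s * dt (e 1) u + c * dt (e 2) u := by
  change dt ((-s) • e 1 + c • e 2) u = _
  rw [add_dt, smul_dt, smul_dt]

end Crest.Agent.R136.Fl808
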