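import Mathlib
import Crest.Agent.R136.Cbx_140
import Crest.Agent.R136.Fl1_808

/-!
# R136 (U4, PLAN 2, (L4)): the crossing box for dyadic tilts (helper140)

* `Tb e f Y w1 w2 Λ E` : base tilt at most `Λ`, thickness tilt at most `E` (symmetric);
* `Tb.comp` : two steps;
* `place_tb` : two sheets `S`, `S''` (frames `e`, `g`) adjacent to a common `v` (frame `f`), all
  places where a `v'` crosses both lie in one box of side `r = C / (θ η Λ)` of `S`.
-/

set_option autoImplicit false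
set_option linter.unusedVariables false

namespace Crest.Agent.R136.Cbx140

open Crest.Agent.R136.Sh605
open Crest.Agent.R136.Fl808 (dt_expand abs_dt_le_one)

/-- base tilt at most `Λ`, thickness tilt at most `E` -/
structure Tb (e f : Fin 3 → V3) (Y w1 w2 Λ E : ℝ) : Prop where
  a12 : |dt (e 1) (f 2)| * w1 ≤ 2 * (Λ * w2)
  a21 : |dt (e 2) (f 1)| * w1 ≤ 2 * (Λ * w2)
  a10 : |dt (e 1) (f 0)| * w1 ≤ 2 * (Λ * w2)
  a01 : |dt (e 0) (f 1)| * w1 ≤ 2 * (Λ * w2)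
  t10 : |dt (e 1) (f 0)| * w1 ≤ Λ * E * Y
  t01 : |dt (e 0) (f 1)| * w1 ≤ Λ * E * Y
  t20 : |dt (e 2) (f 0)| * w2 ≤ E * Y
  t02 : |dt (e 0) (f 2)| * w2 ≤ E * Y

theorem Tb.symm {e f : Fin 3 → V3} {Y w1 w2 Λ E : ℝ} (h : Tb e f Y w1 w2 Λ E) :
    Tb f e Y w1 w2 Λ E :=
  ⟨by rw [dt_comm]; exact h.a21, by rw [dt_comm]; exact h.a12, by rw [dt_comm]; exact h.a01,
    by rw [dt_comm]; exact h.a10, by rw [dt_comm]; exact h.t01, by rw [dt_comm]; exact h.t10,
    by rw [dt_comm]; exact h.t02, by rw [dt_comm]; exact h.t20⟩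

/-- the one sided bounds used by the crossing lemma -/
structure Tw (e g : Fin 3 → V3) (Y w1 w2 Λ E K : ℝ) : Prop where
  a12 : |dt (e 1) (g 2)| * w1 ≤ K * (Λ * w2)
  a10 : |dt (e 1) (g 0)| * w1 ≤ K * (Λ * w2)
  a21 : |dt (e 2) (g 1)| * w1 ≤ K * (Λ * w2)
  t01 : |dt (e 0) (g 1)| * w1 ≤ K * (Λ * E * Y)
  t02 : |dt (e 0) (g 2)| * w2 ≤ K * (E * Y)

theorem Tb.tw {e f : Fin 3 → V3} {Y w1 w2 Λ E : ℝ} (h : Tb e f Y w1 w2 Λ E) (hΛ : 0 ≤ Λ)
    (hE : 0 ≤ E) (hY : 0 ≤ Y) : Tw e f Y w1 w2 Λ E 2 := by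
  have p : 0 ≤ Λ * E * Y := by positivity
  have p' : 0 ≤ E * Y := by positivity
  exact ⟨h.a12, h.a10, h.a21, by linarith [h.t01], by linarith [h.t02]⟩

theorem abs3 {x y z : ℝ} : |x + y + z| ≤ |x| + |y| + |z| :=
  (abs_add_le _ _).trans (add_le_add (abs_add_le _ _) le_rfl)

/-- composition of two steps -/
theorem Tb.comp {e f g : Fin 3 → V3} (he : Ortho e) (hf : Ortho f) (hg : Ortho g)
    {Y w1 w2 Λ E : ℝ} (hw1 : 0 < w1) (hw2 : 0 < w2) (hY : 0 < Y) (hΛ : 1 ≤ Λ) (hE : 1 ≤ E)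
    (hlw : Λ * w2 ≤ 2 * w1) (h : Tb e f Y w1 w2 Λ E) (h' : Tb f g Y w1 w2 Λ E) :
    Tw e g Y w1 w2 Λ E 10 := by
  have hΛ0 : 0 < Λ := by linarith
  have hE0 : 0 < E := by linarith
  have one : ∀ i j, |dt (e i) (f j)| ≤ 1 := fun i j => abs_dt_le_one hf he i j
  have one' : ∀ i j, |dt (f i) (g j)| ≤ 1 := fun i j => abs_dt_le_one hg hf i j
  have pB : 0 < Λ * w2 := by positivity
  have pN : 0 < Λ * E * Y := by positivity
  have pE : 0 < E * Y := by positivity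
  -- product with one factor at most one
  have ml : ∀ {x y w K : ℝ}, |x| * w ≤ K → |y| ≤ 1 → 0 ≤ w → |x * y| * w ≤ K := by
    intro x y w K hx hy hw
    rw [abs_mul]
    calc |x| * |y| * w = (|x| * w) * |y| := by ring
      _ ≤ (|x| * w) * 1 := mul_le_mul_of_nonneg_left hy (by positivity)
      _ ≤ K := by linarith
  have mr : ∀ {x y w K : ℝ}, |y| * w ≤ K → |x| ≤ 1 → 0 ≤ w → |x * y| * w ≤ K := by
    intro x y w K hy hx hw
    rw [mul_comm x y]; exact ml hy hx hw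
  have add3 : ∀ {x y z w A B C : ℝ}, 0 ≤ w → |x| * w ≤ A → |y| * w ≤ B → |z| * w ≤ C →
      |x + y + z| * w ≤ A + B + C := by
    intro x y z w A B C hw hx hy hz
    calc |x + y + z| * w ≤ (|x| + |y| + |z|) * w := mul_le_mul_of_nonneg_right abs3 hw
      _ = |x| * w + |y| * w + |z| * w := by ring
      _ ≤ _ := add_le_add (add_le_add hx hy) hz
  have hw1' := hw1.le
  have hw2' := hw2.le
  refine ⟨?_, ?_, ?_, ?_, ?_⟩
  · rw [dt_expand hf (e 1) (g 2)]
    have := add3 hw1' (ml h.a10 (one' 0 2) hw1') (mr h'.a12 (one 1 1) hw1')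
      (ml h.a12 (one' 2 2) hw1')
    linarith
  · rw [dt_expand hf (e 1) (g 0)]
    have := add3 hw1' (ml h.a10 (one' 0 0) hw1') (mr h'.a10 (one 1 1) hw1')
      (ml h.a12 (one' 2 0) hw1')
    linarith
  · rw [dt_expand hf (e 2) (g 1)]
    have := add3 hw1' (mr h'.a01 (one 2 0) hw1') (ml h.a21 (one' 1 1) hw1')
      (mr h'.a21 (one 2 2) hw1')
    linarith
  · rw [dt_expand hf (e 0) (g 1)]
    have h3 : |dt (e 0) (f 2) * dt (f 2) (g 1)| * w1 ≤ 2 * (Λ * E * Y) := by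
      rw [abs_mul]
      have h4 : (|dt (e 0) (f 2)| * w2) * (|dt (f 2) (g 1)| * w1) ≤ (E * Y) * (2 * (Λ * w2)) :=
        mul_le_mul h.t02 h'.a21 (by positivity) pE.le
      have h5 : (|dt (e 0) (f 2)| * |dt (f 2) (g 1)| * w1) * w2 ≤ (2 * (Λ * E * Y)) * w2 := by
        calc _ = (|dt (e 0) (f 2)| * w2) * (|dt (f 2) (g 1)| * w1) := by ring
          _ ≤ _ := h4
          _ = _ := by ring
      exact le_of_mul_le_mul_right h5 hw2
    have := add3 hw1' (mr h'.t01 (one 0 0) hw1') (ml h.t01 (one' 1 1) hw1') h3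
    linarith
  · rw [dt_expand hf (e 0) (g 2)]
    have h3 : |dt (e 0) (f 1) * dt (f 1) (g 2)| * w2 ≤ 8 * (E * Y) := by
      rw [abs_mul]
      have h4 : (|dt (e 0) (f 1)| * w1) * (|dt (f 1) (g 2)| * w1) ≤
          (Λ * E * Y) * (2 * (Λ * w2)) := mul_le_mul h.t01 h'.a12 (by positivity) pN.le
      have h5 : (|dt (e 0) (f 1)| * |dt (f 1) (g 2)| * w2) * w1 ^ 2 ≤
          (8 * (E * Y)) * w1 ^ 2 := by
        calc _ = w2 * ((|dt (e 0) (f 1)| * w1) * (|dt (f 1) (g 2)| * w1)) := by ring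
          _ ≤ w2 * ((Λ * E * Y) * (2 * (Λ * w2))) := mul_le_mul_of_nonneg_left h4 hw2'
          _ = 2 * (E * Y) * (Λ * w2) ^ 2 := by ring
          _ ≤ 2 * (E * Y) * (2 * w1) ^ 2 := by gcongr
          _ = _ := by ring
      exact le_of_mul_le_mul_right h5 (by positivity)
    have := add3 hw2' (mr h'.t02 (one 0 0) hw2') h3 (ml h.t02 (one' 2 2) hw2')
    linarith

/-- removing the long component in the frame `g` -/
theorem res {g : Fin 3 → V3} (hg : Ortho g) (x u : V3) :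
    dt x (u - (dt (g 1) u) • g 1) = dt x (g 0) * dt (g 0) u + dt x (g 2) * dt (g 2) u := by
  have h := dt_expand hg x u
  have e1 : dt x (u - (dt (g 1) u) • g 1) = dt x u - dt (g 1) u * dt x (g 1) := by
    simp only [dt, Pi.sub_apply, Pi.smul_apply, smul_eq_mul]; ring
  rw [e1, h]; ring

theorem box3 {x y z : ℝ} {F : Fin 3 → ℝ} (h0 : F 0 ≤ x) (h1 : F 1 ≤ y) (h2 : F 2 ≤ z) :
    ∀ i, F i ≤ ![x, y, z] i := by
  intro i
  fin_cases i
  · exact h0
  · exact h1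
  · exact h2

/-- a difference of two lines of the sheet `g`, seen from the frame `e` -/
theorem tube_tw {e g : Fin 3 → V3} (he : Ortho e) (hg : Ortho g) {Y w1 w2 Λ E K : ℝ}
    (hw1 : 0 < w1) (hw2 : 0 < w2) (hY : 0 < Y) (hYw : Y ≤ w2) (hΛ : 1 ≤ Λ) (hE : 1 ≤ E)
    (hK : 1 ≤ K) (hlw : Λ * w2 ≤ 2 * w1) (h : Tw e g Y w1 w2 Λ E K) {u : V3}
    (h0 : |dt (g 0) u| ≤ 2 * Y) (h2 : |dt (g 2) u| ≤ 2 * w2) :
    |dt (e 0) (u - (dt (g 1) u) • g 1)| ≤ 4 * K * (E * Y) ∧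
    |dt (e 1) (u - (dt (g 1) u) • g 1)| ≤ 16 * K * (w1 / Λ) ∧
    |dt (e 2) (u - (dt (g 1) u) • g 1)| ≤ 4 * w2 := by
  have hΛ0 : 0 < Λ := by linarith
  have hE0 : 0 < E := by linarith
  have hK0 : 0 < K := by linarith
  have one : ∀ i j, |dt (e i) (g j)| ≤ 1 := fun i j => abs_dt_le_one hg he i j
  have sum : ∀ i, |dt (e i) (u - (dt (g 1) u) • g 1)| ≤
      |dt (e i) (g 0)| * (2 * Y) + |dt (e i) (g 2)| * (2 * w2) := by
    intro i
    rw [res hg]
    refine (abs_add_le _ _).trans ?_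
    rw [abs_mul, abs_mul]
    exact add_le_add (mul_le_mul_of_nonneg_left h0 (abs_nonneg _))
      (mul_le_mul_of_nonneg_left h2 (abs_nonneg _))
  refine ⟨?_, ?_, ?_⟩
  · refine (sum 0).trans ?_
    have h3 : |dt (e 0) (g 0)| * (2 * Y) ≤ 1 * (2 * Y) :=
      mul_le_mul_of_nonneg_right (one 0 0) (by positivity)
    have h4 := h.t02
    have h5 : Y ≤ K * (E * Y) := by
      calc Y = 1 * (1 * Y) := by ring
        _ ≤ K * (E * Y) := by gcongr
    linarith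
  · refine (sum 1).trans ?_
    have h3 : |dt (e 1) (g 0)| * (2 * Y) ≤ |dt (e 1) (g 0)| * (2 * w2) :=
      mul_le_mul_of_nonneg_left (by linarith) (abs_nonneg _)
    have h4 : (|dt (e 1) (g 0)| * (2 * w2) + |dt (e 1) (g 2)| * (2 * w2)) * (w1 * Λ) ≤
        (16 * K * (w1 / Λ)) * (w1 * Λ) := by
      calc _ = (|dt (e 1) (g 0)| * w1 + |dt (e 1) (g 2)| * w1) * (2 * (Λ * w2)) := by ring
        _ ≤ (K * (Λ * w2) + K * (Λ * w2)) * (2 * (Λ * w2)) := by
            have := h.a10; have := h.a12; gcongr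
        _ = 4 * K * (Λ * w2) ^ 2 := by ring
        _ ≤ 4 * K * (2 * w1) ^ 2 := by gcongr
        _ = _ := by field_simp; ring
    have h5 := le_of_mul_le_mul_right h4 (by positivity : 0 < w1 * Λ)
    linarith
  · refine (sum 2).trans ?_
    have h3 : |dt (e 2) (g 0)| * (2 * Y) ≤ 1 * (2 * w2) :=
      mul_le_mul (one 2 0) (by linarith) (by positivity) (by norm_num)
    have h4 : |dt (e 2) (g 2)| * (2 * w2) ≤ 1 * (2 * w2) :=
      mul_le_mul_of_nonneg_right (one 2 2) (by positivity)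
    linarith

/-- **the crossing place for dyadic tilts** -/
theorem place_tb {e f g f' : Fin 3 → V3} (he : Ortho e) (hf : Ortho f) (hg : Ortho g)
    (hf' : Ortho f') {T T2 T1 T12 : Ln4} {Y w1 w2 Λ E θ η c z0 ρ zs z1 : ℝ}
    (hw1 : 0 < w1) (hw2 : 0 < w2) (hY : 0 < Y) (hYw : Y ≤ w2) (hΛ : 1 ≤ Λ) (hE : 1 ≤ E)
    (hlw : Λ * w2 ≤ 2 * w1) (hρ : 0 < ρ) (hc : 1 ≤ c) (hθ : 0 < θ) (hθ4 : θ ≤ 4) (hη : 0 < η)
    (hSv : Tb e f Y w1 w2 Λ E) (hvS : Tb f g Y w1 w2 Λ E) (hSv' : Tb e f' Y w1 w2 Λ E)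
    (hTT2 : ∀ z, z0 ≤ z → z ≤ z0 + ρ →
      |dt (f 0) (T2.pos z - T.pos z)| ≤ 2 * Y ∧ |dt (f 2) (T2.pos z - T.pos z)| ≤ 2 * w2)
    (hzs : |dt (f 1) (T2.pos zs - T.pos zs)| ≤ c * (w1 / Λ))
    (hθv : θ * w1 ≤ |dt (f 1) (T2.v - T.v)| * ρ)
    (hT12 : ∀ z, z0 ≤ z → z ≤ z0 + ρ →
      |dt (g 0) (T12.pos z - T2.pos z)| ≤ 2 * Y ∧ |dt (g 2) (T12.pos z - T2.pos z)| ≤ 2 * w2)
    (hm0 : |dt (f' 0) (T12.pos z1 - T1.pos z1)| ≤ 2 * Y)
    (hm1 : |dt (f' 1) (T12.pos z1 - T1.pos z1)| ≤ c * (w1 / Λ))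
    (hm2 : |dt (f' 2) (T12.pos z1 - T1.pos z1)| ≤ 2 * w2)
    (hT1 : ∀ z, z0 ≤ z → z ≤ z0 + ρ → |dt (e 0) (T1.pos z - T.pos z)| ≤ 2 * Y ∧
      |dt (e 1) (T1.pos z - T.pos z)| ≤ 2 * w1 ∧ |dt (e 2) (T1.pos z - T.pos z)| ≤ 2 * w2)
    (hs : z0 ≤ zs ∧ zs ≤ z0 + ρ) (h1 : z0 ≤ z1 ∧ z1 ≤ z0 + ρ)
    (hdet : η * (Λ ^ 2 * E * Y * w2) ≤
      |dt (e 2) (f 1) * dt (e 0) (g 1) - dt (e 0) (f 1) * dt (e 2) (g 1)| * w1 ^ 2) :
    |z1 - zs| ≤ 3200000 * (c / (θ * η * Λ)) * ρ ∧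
      |dt (e 1) (T1.pos zs - T.pos zs)| ≤ 3200000 * (c / (θ * η * Λ)) * w1 := by
  have hΛ0 : 0 < Λ := by linarith
  have hE0 : 0 < E := by linarith
  have hc0 : 0 < c := by linarith
  have hcomp := hSv.comp he hf hg hw1 hw2 hY hΛ hE hlw hvS
  have hw := hSv.tw hΛ0.le hE0.le hY.le
  have hw' := hSv'.tw hΛ0.le hE0.le hY.le
  have pq : 0 < w1 / Λ := by positivity
  have hEY : Y ≤ E * Y := by nlinarith
  have pEY : 0 < E * Y := by positivity
  have hcEY : E * Y ≤ c * (E * Y) := by nlinarith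
  have hcw : w2 ≤ c * w2 := by nlinarith
  have hcq : w1 / Λ ≤ c * (w1 / Λ) := by nlinarith
  have conv : 2000 * c * w1 / (10 * Λ) = 200 * (c * (w1 / Λ)) := by field_simp; ring
  -- the tubes
  have tub : ∀ {h : Fin 3 → V3} {K : ℝ} {A B : Ln4} (hh : Ortho h) (hK : 1 ≤ K) (hK' : K ≤ 10)
      (hTw : Tw e h Y w1 w2 Λ E K)
      (hAB : ∀ z, z0 ≤ z → z ≤ z0 + ρ →
        |dt (h 0) (B.pos z - A.pos z)| ≤ 2 * Y ∧ |dt (h 2) (B.pos z - A.pos z)| ≤ 2 * w2),
      Tube e (h 1) A B (dt (h 1) (B.p - A.p)) (dt (h 1) (B.v - A.v))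
        ![2000 * c * E * Y, 2000 * c * w1 / (10 * Λ), 2000 * c * w2] z0 ρ := by
    intro h K A B hh hK hK' hTw hAB z hz hz'
    have h3 := hAB z hz hz'
    have h4 := tube_tw he hh hw1 hw2 hY hYw hΛ hE hK hlw hTw h3.1 h3.2
    have e1 : dt (h 1) (B.p - A.p) + dt (h 1) (B.v - A.v) * z = dt (h 1) (B.pos z - A.pos z) := by
      simp only [dt, Ln4.pos, Pi.sub_apply]; ring
    rw [e1]
    refine box3 ?_ ?_ ?_
    · refine h4.1.trans ?_
      have : K * (E * Y) ≤ 10 * (E * Y) := by gcongr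
      have : 2000 * c * E * Y = 2000 * (c * (E * Y)) := by ring
      linarith
    · refine h4.2.1.trans ?_
      have : K * (w1 / Λ) ≤ 10 * (w1 / Λ) := by gcongr
      rw [conv]
      linarith
    · refine h4.2.2.trans ?_
      have : 2000 * c * w2 = 2000 * (c * w2) := by ring
      linarith
  have key := crossing_place (e := e) (T := T) (T2 := T2) (T1 := T1) (T12 := T12) (d := f 1)
    (d2 := g 1) (τ0 := dt (f 1) (T2.p - T.p)) (τ1 := dt (f 1) (T2.v - T.v))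
    (s0 := dt (g 1) (T12.p - T2.p)) (s1 := dt (g 1) (T12.v - T2.v)) (z0 := z0) (ρ := ρ)
    (zs := zs) (z1 := z1) (w1 := w1) (w2 := w2) (Y := Y) (Λ := 10 * Λ) (μ := 10 * Λ * E) (E := E)
    (κ := η / 100) (α := θ) (c := 2000 * c) hw1 hw2 hY hρ hθ hθ4 (by positivity) (by positivity)
    (by linarith) hE le_rfl (by linarith) (abs_dt_le_one hf he 1 1) (abs_dt_le_one hg he 1 1)
    (by have := hw.a21; have : 0 < Λ * w2 := by positivity
        linarith)
    (by have := hw.t01; have : 0 < Λ * E * Y := by positivity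
        linarith)
    (by have := hcomp.a21; linarith) (by have := hcomp.t01; linarith)
    (by
      refine le_trans (le_of_eq ?_) hdet
      ring)
    (tub hf (by norm_num) (by norm_num) hw hTT2)
    (by
      have e1 : dt (f 1) (T2.p - T.p) + dt (f 1) (T2.v - T.v) * zs =
          dt (f 1) (T2.pos zs - T.pos zs) := by
        simp only [dt, Ln4.pos, Pi.sub_apply]; ring
      rw [e1, conv]
      have : 0 < c * (w1 / Λ) := by positivity
      linarith)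
    hθv
    (tub hg (by norm_num) le_rfl hcomp hT12)
    (by
      have h3 := tube_tw he hf' hw1 hw2 hY hYw hΛ hE (by norm_num) hlw hw' hm0 hm2
      set u := T12.pos z1 - T1.pos z1 with hu
      have dec : ∀ i, |dt (e i) u| ≤ |dt (e i) (u - (dt (f' 1) u) • f' 1)| +
          |dt (e i) (f' 1)| * (c * (w1 / Λ)) := by
        intro i
        have e1 : dt (e i) u = dt (e i) (u - (dt (f' 1) u) • f' 1) +
            dt (e i) (f' 1) * dt (f' 1) u := by
          simp only [dt, Pi.sub_apply, Pi.smul_apply, smul_eq_mul]; ring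
        calc |dt (e i) u| = |dt (e i) (u - (dt (f' 1) u) • f' 1) +
            dt (e i) (f' 1) * dt (f' 1) u| := by rw [← e1]
          _ ≤ _ := (abs_add_le _ _).trans
              (add_le_add le_rfl (by rw [abs_mul]; exact mul_le_mul_of_nonneg_left hm1 (abs_nonneg _)))
      refine box3 ?_ ?_ ?_
      · refine (dec 0).trans ?_
        have h4 : |dt (e 0) (f' 1)| * (c * (w1 / Λ)) ≤ 2 * (c * (E * Y)) := by
          calc |dt (e 0) (f' 1)| * (c * (w1 / Λ)) = (|dt (e 0) (f' 1)| * w1) * (c / Λ) := by ring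
            _ ≤ (2 * (Λ * E * Y)) * (c / Λ) := by have := hw'.t01; gcongr
            _ = _ := by field_simp
        have h5 := h3.1
        have : 2000 * c * E * Y = 2000 * (c * (E * Y)) := by ring
        linarith
      · refine (dec 1).trans ?_
        have h4 : |dt (e 1) (f' 1)| * (c * (w1 / Λ)) ≤ 1 * (c * (w1 / Λ)) :=
          mul_le_mul_of_nonneg_right (abs_dt_le_one hf' he 1 1) (by positivity)
        have h5 := h3.2.1
        rw [conv]
        linarith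
      · refine (dec 2).trans ?_
        have h4 : |dt (e 2) (f' 1)| * (c * (w1 / Λ)) ≤ 2 * (c * w2) := by
          calc |dt (e 2) (f' 1)| * (c * (w1 / Λ)) = (|dt (e 2) (f' 1)| * w1) * (c / Λ) := by ring
            _ ≤ (2 * (Λ * w2)) * (c / Λ) := by have := hw'.a21; gcongr
            _ = _ := by field_simp
        have h5 := h3.2.2
        have : 2000 * c * w2 = 2000 * (c * w2) := by ring
        linarith)
    (by
      intro z hz hz'
      have h3 := hT1 z hz hz'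
      refine box3 ?_ ?_ ?_
      · have : 2000 * c * E * Y = 2000 * (c * (E * Y)) := by ring
        linarith [h3.1]
      · exact h3.2.1
      · have : 2000 * c * w2 = 2000 * (c * w2) := by ring
        linarith [h3.2.2])
    hs h1
  have hr : E / (θ * (η / 100) * (10 * Λ * E)) = 10 / (θ * η * Λ) := by field_simp; ring
  rw [hr] at key
  have p1 : 0 < c / (θ * η * Λ) := by positivity
  refine ⟨key.1.trans ?_, key.2.trans ?_⟩
  · have e1 : 10 * (2000 * c) * (10 / (θ * η * Λ)) * ρ = 200000 * ((c / (θ * η * Λ)) * ρ) := by ring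
    have e2 : 3200000 * (c / (θ * η * Λ)) * ρ = 3200000 * ((c / (θ * η * Λ)) * ρ) := by ring
    rw [e1, e2]
    have : 0 < (c / (θ * η * Λ)) * ρ := by positivity
    linarith
  · refine le_of_eq ?_
    ring

end Crest.Agent.R136.Cbx140
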