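import Mathlib

/-!
# R136, W-chart: coefficients of a quadratic polynomial restricted to the quadric (helper650)

`Q0 : Y = z B + κ A²`.  `evW κ w z A B` = value at the point of `Q0` above `(z, A, B)` of the
quadratic polynomial with the fourteen coefficients `w` in the monomials, in this order,
`YY, BY, AY, BB, zY, AB, AA, zB, zA, zz, B, A, z, 1`.
`evW_scale` : homogeneity; `coefW_le` : the coefficients are bounded by the maximum on a lightlike box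
`|z| ≤ ρ, |A| ≤ α ρ, |B| ≤ α² ρ`.
-/

set_option autoImplicit false

namespace Crest.Agent.R136.CfW650

/-- value on `Q0` -/
def evW (κ : ℝ) (w : Fin 14 → ℝ) (z a b : ℝ) : ℝ :=
  w 0 * (z * b + κ * a ^ 2) ^ 2 + w 1 * (b * (z * b + κ * a ^ 2)) +
  w 2 * (a * (z * b + κ * a ^ 2)) + w 3 * b ^ 2 + w 4 * (z * (z * b + κ * a ^ 2)) +
  w 5 * (a * b) + w 6 * a ^ 2 + w 7 * (z * b) + w 8 * (z * a) + w 9 * z ^ 2 + w 10 * b +
  w 11 * a + w 12 * z + w 13

/-- the size of the `k`-th monomial on the box of sizes `z ~ r`, `A ~ s r`, `B ~ s² r` -/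
def szW (r s : ℝ) : Fin 14 → ℝ :=
  ![s ^ 4 * r ^ 4, s ^ 4 * r ^ 3, s ^ 3 * r ^ 3, s ^ 4 * r ^ 2, s ^ 2 * r ^ 3, s ^ 3 * r ^ 2,
    s ^ 2 * r ^ 2, s ^ 2 * r ^ 2, s * r ^ 2, r ^ 2, s ^ 2 * r, s * r, r, 1]

theorem szW_pos {r s : ℝ} (hr : 0 < r) (hs : 0 < s) (k : Fin 14) : 0 < szW r s k := by
  fin_cases k <;> simp only [szW, Matrix.cons_val, Fin.zero_eta, Fin.mk_one, Fin.reduceFinMk] <;>
    positivity

theorem evW_sub (κ : ℝ) (w w' : Fin 14 → ℝ) (z a b : ℝ) :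
    evW κ (w - w') z a b = evW κ w z a b - evW κ w' z a b := by
  simp only [evW, Pi.sub_apply]; ring

/-- homogeneity -/
theorem evW_scale (κ : ℝ) (w : Fin 14 → ℝ) (r s z a b : ℝ) :
    evW κ w (r * z) (s * r * a) (s ^ 2 * r * b) = evW κ (fun k => szW r s k * w k) z a b := by
  simp only [evW, szW, Matrix.cons_val]; ring

/-- unit box -/
theorem coefW_unit {κ M : ℝ} (hκ : |κ| ≤ 1) {w : Fin 14 → ℝ}
    (h : ∀ z a b : ℝ, |z| ≤ 1 → |a| ≤ 1 → |b| ≤ 1 → |evW κ w z a b| ≤ M) (k : Fin 14) :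
    |w k| ≤ 6 * M := by
  have o : |(1 : ℝ)| ≤ 1 := by norm_num
  have m : |(-1 : ℝ)| ≤ 1 := by norm_num
  have n : |(0 : ℝ)| ≤ 1 := by norm_num
  have hM : 0 ≤ M := (abs_nonneg _).trans (h 0 0 0 n n n)
  obtain ⟨F, hF⟩ : ∃ F : ℝ → ℝ → ℝ → ℝ, ∀ z a b, F z a b = evW κ w z a b := ⟨_, fun _ _ _ => rfl⟩
  have hf : ∀ z a b : ℝ, |z| ≤ 1 → |a| ≤ 1 → |b| ≤ 1 → -M ≤ F z a b ∧ F z a b ≤ M := by
    intro z a b hz ha hb
    rw [hF]; exact abs_le.1 (h z a b hz ha hb)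
  have i13 : w 13 = F 0 0 0 := by simp only [hF, evW]; ring
  have i12 : w 12 = (F 1 0 0 - F (-1) 0 0) / 2 := by simp only [hF, evW]; ring
  have i9 : w 9 = (F 1 0 0 + F (-1) 0 0) / 2 - F 0 0 0 := by simp only [hF, evW]; ring
  have i10 : w 10 = (F 0 0 1 - F 0 0 (-1)) / 2 := by simp only [hF, evW]; ring
  have i3 : w 3 = (F 0 0 1 + F 0 0 (-1)) / 2 - F 0 0 0 := by simp only [hF, evW]; ring
  have i7 : w 7 = (F 1 0 1 - F 1 0 (-1) - F (-1) 0 1 + F (-1) 0 (-1)) / 4 := by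
    simp only [hF, evW]; ring
  have i4 : w 4 = (F 1 0 1 - F 1 0 (-1) + F (-1) 0 1 - F (-1) 0 (-1)) / 4 -
      (F 0 0 1 - F 0 0 (-1)) / 2 := by simp only [hF, evW]; ring
  have i1 : w 1 = (F 1 0 1 + F 1 0 (-1) - F (-1) 0 1 - F (-1) 0 (-1)) / 4 -
      (F 1 0 0 - F (-1) 0 0) / 2 := by simp only [hF, evW]; ring
  have i0 : w 0 = (F 1 0 1 + F 1 0 (-1) + F (-1) 0 1 + F (-1) 0 (-1)) / 4 -
      (F 1 0 0 + F (-1) 0 0) / 2 - (F 0 0 1 + F 0 0 (-1)) / 2 + F 0 0 0 := by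
    simp only [hF, evW]; ring
  have i2 : w 2 = (F 1 1 1 - F 1 (-1) 1 - F 1 1 (-1) + F 1 (-1) (-1) - F (-1) 1 1 +
      F (-1) (-1) 1 + F (-1) 1 (-1) - F (-1) (-1) (-1)) / 8 := by simp only [hF, evW]; ring
  have i8 : w 8 = (F 1 1 0 - F 1 (-1) 0 - F (-1) 1 0 + F (-1) (-1) 0) / 4 := by
    simp only [hF, evW]; ring
  have i5 : w 5 = (F 0 1 1 - F 0 (-1) 1 - F 0 1 (-1) + F 0 (-1) (-1)) / 4 := by
    simp only [hF, evW]; ring
  have i11 : w 11 = (F 0 1 0 - F 0 (-1) 0) / 2 - κ * w 2 := by simp only [hF, evW]; ring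
  have i6 : w 6 = (F 0 1 0 + F 0 (-1) 0) / 2 - w 13 - κ ^ 2 * w 0 := by
    simp only [hF, evW]; ring
  obtain ⟨x000, y000⟩ := hf 0 0 0 n n n
  obtain ⟨x100, y100⟩ := hf 1 0 0 o n n
  obtain ⟨xm00, ym00⟩ := hf (-1) 0 0 m n n
  obtain ⟨x001, y001⟩ := hf 0 0 1 n n o
  obtain ⟨x00m, y00m⟩ := hf 0 0 (-1) n n m
  obtain ⟨x101, y101⟩ := hf 1 0 1 o n o
  obtain ⟨x10m, y10m⟩ := hf 1 0 (-1) o n m
  obtain ⟨xm01, ym01⟩ := hf (-1) 0 1 m n o
  obtain ⟨xm0m, ym0m⟩ := hf (-1) 0 (-1) m n m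
  obtain ⟨x010, y010⟩ := hf 0 1 0 n o n
  obtain ⟨x0m0, y0m0⟩ := hf 0 (-1) 0 n m n
  obtain ⟨x110, y110⟩ := hf 1 1 0 o o n
  obtain ⟨x1m0, y1m0⟩ := hf 1 (-1) 0 o m n
  obtain ⟨xm10, ym10⟩ := hf (-1) 1 0 m o n
  obtain ⟨xmm0, ymm0⟩ := hf (-1) (-1) 0 m m n
  obtain ⟨x011, y011⟩ := hf 0 1 1 n o o
  obtain ⟨x0m1, y0m1⟩ := hf 0 (-1) 1 n m o
  obtain ⟨x01m, y01m⟩ := hf 0 1 (-1) n o m
  obtain ⟨x0mm, y0mm⟩ := hf 0 (-1) (-1) n m m
  obtain ⟨x111, y111⟩ := hf 1 1 1 o o o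
  obtain ⟨x1m1, y1m1⟩ := hf 1 (-1) 1 o m o
  obtain ⟨x11m, y11m⟩ := hf 1 1 (-1) o o m
  obtain ⟨x1mm, y1mm⟩ := hf 1 (-1) (-1) o m m
  obtain ⟨xm11, ym11⟩ := hf (-1) 1 1 m o o
  obtain ⟨xmm1, ymm1⟩ := hf (-1) (-1) 1 m m o
  obtain ⟨xm1m, ym1m⟩ := hf (-1) 1 (-1) m o m
  obtain ⟨xmmm, ymmm⟩ := hf (-1) (-1) (-1) m m m
  clear hf h
  have k13 : |w 13| ≤ M := by rw [i13, abs_le]; constructor <;> linarith only [x000, y000]
  have k12 : |w 12| ≤ M := by
    rw [i12, abs_le]; constructor <;> linarith only [x100, y100, xm00, ym00]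
  have k9 : |w 9| ≤ 2 * M := by
    rw [i9, abs_le]; constructor <;> linarith only [x000, y000, x100, y100, xm00, ym00]
  have k10 : |w 10| ≤ M := by
    rw [i10, abs_le]; constructor <;> linarith only [x001, y001, x00m, y00m]
  have k3 : |w 3| ≤ 2 * M := by
    rw [i3, abs_le]; constructor <;> linarith only [x000, y000, x001, y001, x00m, y00m]
  have k7 : |w 7| ≤ M := by
    rw [i7, abs_le]
    constructor <;> linarith only [x101, y101, x10m, y10m, xm01, ym01, xm0m, ym0m]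
  have k4 : |w 4| ≤ 2 * M := by
    rw [i4, abs_le]
    constructor <;> linarith only [x101, y101, x10m, y10m, xm01, ym01, xm0m, ym0m, x001, y001,
      x00m, y00m]
  have k1 : |w 1| ≤ 2 * M := by
    rw [i1, abs_le]
    constructor <;> linarith only [x101, y101, x10m, y10m, xm01, ym01, xm0m, ym0m, x100, y100,
      xm00, ym00]
  have k0 : |w 0| ≤ 4 * M := by
    rw [i0, abs_le]
    constructor <;> linarith only [x101, y101, x10m, y10m, xm01, ym01, xm0m, ym0m, x001, y001,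
      x00m, y00m, x100, y100, xm00, ym00, x000, y000]
  have k2 : |w 2| ≤ M := by
    rw [i2, abs_le]
    constructor <;> linarith only [x111, y111, x1m1, y1m1, x11m, y11m, x1mm, y1mm, xm11, ym11,
      xmm1, ymm1, xm1m, ym1m, xmmm, ymmm]
  have k8 : |w 8| ≤ M := by
    rw [i8, abs_le]
    constructor <;> linarith only [x110, y110, x1m0, y1m0, xm10, ym10, xmm0, ymm0]
  have k5 : |w 5| ≤ M := by
    rw [i5, abs_le]
    constructor <;> linarith only [x011, y011, x0m1, y0m1, x01m, y01m, x0mm, y0mm]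
  have k11 : |w 11| ≤ 2 * M := by
    have h1 : |κ * w 2| ≤ 1 * M := by
      rw [abs_mul]; exact mul_le_mul hκ k2 (abs_nonneg _) zero_le_one
    rw [abs_le] at h1
    rw [i11, abs_le]
    constructor <;> linarith only [x010, y010, x0m0, y0m0, h1.1, h1.2]
  have k6 : |w 6| ≤ 6 * M := by
    have h1 : |κ ^ 2 * w 0| ≤ 1 * (4 * M) := by
      rw [abs_mul]
      refine mul_le_mul ?_ k0 (abs_nonneg _) zero_le_one
      rw [abs_pow]; exact pow_le_one₀ (abs_nonneg _) hκ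
    rw [abs_le] at h1 k13
    rw [i6, abs_le]
    constructor <;> linarith only [x010, y010, x0m0, y0m0, h1.1, h1.2, k13.1, k13.2]
  fin_cases k
  · exact k0.trans (by linarith)
  · exact k1.trans (by linarith)
  · exact k2.trans (by linarith)
  · exact k3.trans (by linarith)
  · exact k4.trans (by linarith)
  · exact k5.trans (by linarith)
  · exact k6
  · exact k7.trans (by linarith)
  · exact k8.trans (by linarith)
  · exact k9.trans (by linarith)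
  · exact k10.trans (by linarith)
  · exact k11.trans (by linarith)
  · exact k12.trans (by linarith)
  · exact k13.trans (by linarith)

/-- **the coefficients from the maximum on a lightlike box** -/
theorem coefW_le {κ M r s : ℝ} (hκ : |κ| ≤ 1) (hr : 0 < r) (hs : 0 < s) {w : Fin 14 → ℝ}
    (h : ∀ z a b : ℝ, |z| ≤ r → |a| ≤ s * r → |b| ≤ s ^ 2 * r → |evW κ w z a b| ≤ M)
    (k : Fin 14) : |w k| ≤ 6 * M / szW r s k := by
  have hk := szW_pos hr hs k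
  have h1 := coefW_unit (κ := κ) (M := M) hκ (w := fun k => szW r s k * w k) (fun z a b hz ha hb => by
    rw [← evW_scale]
    refine h _ _ _ ?_ ?_ ?_
    · rw [abs_mul, abs_of_pos hr]; exact mul_le_of_le_one_right hr.le hz
    · rw [abs_mul, abs_of_pos (mul_pos hs hr)]
      exact mul_le_of_le_one_right (mul_pos hs hr).le ha
    · rw [abs_mul, abs_of_pos (by positivity : 0 < s ^ 2 * r)]
      exact mul_le_of_le_one_right (by positivity) hb) k
  rw [le_div_iff₀ hk]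
  simp only [abs_mul, abs_of_pos hk] at h1
  linarith

/-- and back -/
theorem evW_le {κ M r s : ℝ} (hκ : |κ| ≤ 1) (hr : 0 < r) (hs : 0 < s) {w : Fin 14 → ℝ}
    (h : ∀ k, |w k| ≤ M / szW r s k) {z a b : ℝ} (hz : |z| ≤ r) (ha : |a| ≤ s * r)
    (hb : |b| ≤ s ^ 2 * r) : |evW κ w z a b| ≤ 24 * M := by
  -- rescale to the unit box
  have hM : 0 ≤ M := by
    have := (abs_nonneg _).trans (h 13)
    simpa [szW] using this
  set z' := z / r with hz'
  set a' := a / (s * r) with ha'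
  set b' := b / (s ^ 2 * r) with hb'
  have ez : r * z' = z := by rw [hz']; field_simp
  have ea : s * r * a' = a := by rw [ha']; field_simp
  have eb : s ^ 2 * r * b' = b := by rw [hb']; field_simp
  have bz : |z'| ≤ 1 := by rw [hz', abs_div, abs_of_pos hr]; exact (div_le_one hr).2 hz
  have ba : |a'| ≤ 1 := by
    rw [ha', abs_div, abs_of_pos (mul_pos hs hr)]; exact (div_le_one (mul_pos hs hr)).2 ha
  have bb : |b'| ≤ 1 := by
    have hp : 0 < s ^ 2 * r := by positivity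
    rw [hb', abs_div, abs_of_pos hp]; exact (div_le_one hp).2 hb
  rw [← ez, ← ea, ← eb, evW_scale]
  have hw : ∀ k, |szW r s k * w k| ≤ M := by
    intro k
    have hk := szW_pos hr hs k
    rw [abs_mul, abs_of_pos hk]
    have := h k
    rw [le_div_iff₀ hk] at this
    linarith
  have hy : |z' * b' + κ * a' ^ 2| ≤ 2 := by
    have h1 : |z' * b'| ≤ 1 := by rw [abs_mul]; exact mul_le_one₀ bz (abs_nonneg _) bb
    have h2 : |κ * a' ^ 2| ≤ 1 := by
      rw [abs_mul, abs_pow]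
      exact mul_le_one₀ hκ (by positivity) (pow_le_one₀ (abs_nonneg _) ba)
    have := abs_add_le (z' * b') (κ * a' ^ 2)
    linarith
  set y := z' * b' + κ * a' ^ 2 with hyd
  have t : ∀ (u m c : ℝ), |u| ≤ M → |m| ≤ c → |u * m| ≤ M * c := by
    intro u m c hu hm
    rw [abs_mul]; exact mul_le_mul hu hm (abs_nonneg _) hM
  have p1 : ∀ x : ℝ, |x| ≤ 1 → |x ^ 2| ≤ 1 := fun x hx => by
    rw [abs_pow]; exact pow_le_one₀ (abs_nonneg _) hx
  have p2 : ∀ x x' : ℝ, |x| ≤ 1 → |x'| ≤ 1 → |x * x'| ≤ 1 := fun x x' hx hx' => by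
    rw [abs_mul]; exact mul_le_one₀ hx (abs_nonneg _) hx'
  have p3 : ∀ x : ℝ, |x| ≤ 1 → |x * y| ≤ 2 := fun x hx => by
    rw [abs_mul]
    calc |x| * |y| ≤ 1 * 2 := mul_le_mul hx hy (abs_nonneg _) zero_le_one
      _ = 2 := by norm_num
  have p4 : |y ^ 2| ≤ 4 := by
    rw [abs_pow]
    calc |y| ^ 2 ≤ 2 ^ 2 := pow_le_pow_left₀ (abs_nonneg _) hy 2
      _ = 4 := by norm_num
  have q0 := t _ _ _ (hw 0) p4
  have q1 := t _ _ _ (hw 1) (p3 b' bb)
  have q2 := t _ _ _ (hw 2) (p3 a' ba)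
  have q3 := t _ _ _ (hw 3) (p1 b' bb)
  have q4 := t _ _ _ (hw 4) (p3 z' bz)
  have q5 := t _ _ _ (hw 5) (p2 a' b' ba bb)
  have q6 := t _ _ _ (hw 6) (p1 a' ba)
  have q7 := t _ _ _ (hw 7) (p2 z' b' bz bb)
  have q8 := t _ _ _ (hw 8) (p2 z' a' bz ba)
  have q9 := t _ _ _ (hw 9) (p1 z' bz)
  have q10 := t _ _ _ (hw 10) bb
  have q11 := t _ _ _ (hw 11) ba
  have q12 := t _ _ _ (hw 12) bz
  have q13 := hw 13
  simp only [evW, ← hyd]
  rw [abs_le] at *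
  constructor <;> linarith

end Crest.Agent.R136.CfW650
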