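import Crest.Agent.R136.PinE_851
import Crest.Agent.R136.HtW_887

/-!
# R136, dead rows `K > 2` (helper400, for helper848): the chains

Rungs of slope `s = 1 - θ₀ + w θ₁ > 2`, `s ≠ 3`, `w = 2, 3, 4`; the slots of weight `w`
(`wc k = -w`) have `KW k = s`: they are in the group of `z` and may be visible, so 851's `Pin` is
too strong there (`z` is full only in boxes where these slots are coarse).

* `PinD` : the facts of `Pin` which hold on these rungs; `Pin.toD`
* `LfQ lam V X F q`, `HtQ lam V f k` : leaf and height links (conclusions of `Pin.leaf`, `Pin.ht`)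

* `tauW w k = wc k + w * wn k` : twist weight; `par_of_G` : two slots of one group are parallel
* `NC` : decidable: the groups of two slots are different in the whole region of `s`
* `OkL`, `OkH`, `OkF` : decidable side conditions of the steps (`stepL`, `stepH`, `stepF`)
* `ch3, ch2A, ch2z, ch4B, ch4Y, chYY` : a visible slot ⊢ `EndP`
-/

set_option autoImplicit false
set_option linter.unusedSectionVars false
set_option linter.unusedVariables false

open Finset Filter Topology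

namespace Crest.Agent.R136.Ch400

open Crest.Agent.R136.NetW191 Crest.Agent.R136.Net191
open Crest.Agent.R136.LadW697
open Crest.Agent.R136.LfW619 (LeafDat)
open Crest.Agent.R136.Ht887 (HtDat)
open Crest.Agent.R136.PrW464 (wz wc wn btW grW)
open Crest.Agent.R136.NatW697 (saW)
open Crest.Agent.R136.Pin851
open Crest.Agent.R136.Dg219 (gC gC_zero gC_eq)

/-- twist weight of a slot -/
def tauW (w : ℤ) (k : Fin 18) : ℤ := wc k + w * wn k

theorem btW_tau {θ : Fin 3 → ℝ} {s : ℝ} {w : ℤ} (hs : s = 1 - θ 0 + w * θ 1) (k : Fin 18) :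
    btW θ k = saW s k - θ 1 * tauW w k := by
  simp only [btW, grW, saW, tauW, hs]
  push_cast
  ring

/-- **two slots of one group are parallel** -/
theorem par_of_G {θ : Fin 3 → ℝ} {s : ℝ} {w : ℤ} (hs : s = 1 - θ 0 + w * θ 1) (h1 : 0 < θ 1)
    {i j : Fin 18} (hi : i ∉ DrW s) (hj : j ∉ DrW s)
    (h : gC (TW s) (btW θ) i = gC (TW s) (btW θ) j) :
    TW s i * tauW w j = TW s j * tauW w i := by
  by_cases h0 : TW s i = 0
  · have h2 : TW s j = 0 := gC_zero.1 (h ▸ gC_zero.2 h0)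
    rw [h0, h2]; ring
  · have h2 : TW s j ≠ 0 := fun h2 => h0 (gC_zero.1 (h.trans (gC_zero.2 h2)))
    have h3 := (gC_eq h0 h2).1 h
    rw [div_eq_div_iff h0 h2, btW_tau hs i, btW_tau hs j, ← TW_of_not hi, ← TW_of_not hj] at h3
    have h4 : θ 1 * (TW s i * tauW w j - TW s j * tauW w i) = 0 := by linarith
    rcases mul_eq_zero.1 h4 with h5 | h5
    · exact absurd h5 h1.ne'
    · linarith

/-! ### different groups, decidable -/

/-- two weights of one sign, not both `0` -/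
def NZ (a b : ℤ) : Prop :=
  (0 ≤ a ∧ 0 ≤ b ∧ ¬ (a = 0 ∧ b = 0)) ∨ (a ≤ 0 ∧ b ≤ 0 ∧ ¬ (a = 0 ∧ b = 0))

instance (a b : ℤ) : Decidable (NZ a b) := by unfold NZ; infer_instance

theorem NZ.ne {a b : ℤ} (h : NZ a b) {α β : ℝ} (hα : 0 < α) (hβ : 0 < β) :
    α * a + β * b ≠ 0 := by
  intro he
  rcases h with ⟨h1, h2, h3⟩ | ⟨h1, h2, h3⟩
  · have a1 : (0 : ℝ) ≤ a := by exact_mod_cast h1
    have a2 : (0 : ℝ) ≤ b := by exact_mod_cast h2
    have b1 := mul_nonneg hα.le a1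
    have b2 := mul_nonneg hβ.le a2
    have c1 : α * a = 0 := by linarith
    have c2 : β * b = 0 := by linarith
    have d1 : (a : ℝ) = 0 := (mul_eq_zero.1 c1).resolve_left hα.ne'
    have d2 : (b : ℝ) = 0 := (mul_eq_zero.1 c2).resolve_left hβ.ne'
    exact h3 ⟨by exact_mod_cast d1, by exact_mod_cast d2⟩
  · have a1 : (a : ℝ) ≤ 0 := by exact_mod_cast h1
    have a2 : (b : ℝ) ≤ 0 := by exact_mod_cast h2
    have b1 := mul_nonpos_of_nonneg_of_nonpos hα.le a1
    have b2 := mul_nonpos_of_nonneg_of_nonpos hβ.le a2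
    have c1 : α * a = 0 := by linarith
    have c2 : β * b = 0 := by linarith
    have d1 : (a : ℝ) = 0 := (mul_eq_zero.1 c1).resolve_left hα.ne'
    have d2 : (b : ℝ) = 0 := (mul_eq_zero.1 c2).resolve_left hβ.ne'
    exact h3 ⟨by exact_mod_cast d1, by exact_mod_cast d2⟩

/-- the groups of `i, j` are different in the cone of `v, u` (`(1, s)` is a positive combination of
`v, u`) -/
def NC (Dr : Finset (Fin 18)) (v u : ℤ × ℤ) (w : ℤ) (i j : Fin 18) : Prop :=
  i ∉ Dr ∧ j ∉ Dr ∧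
    NZ ((wz i * tauW w j - wz j * tauW w i) * v.1 + (wn i * tauW w j - wn j * tauW w i) * v.2)
      ((wz i * tauW w j - wz j * tauW w i) * u.1 + (wn i * tauW w j - wn j * tauW w i) * u.2)

instance (Dr : Finset (Fin 18)) (v u : ℤ × ℤ) (w : ℤ) (i j : Fin 18) :
    Decidable (NC Dr v u w i j) := by unfold NC; infer_instance

/-- `(1, s)` is a positive combination of `v, u` -/
def InR (v u : ℤ × ℤ) (s : ℝ) : Prop :=
  ∃ α β : ℝ, 0 < α ∧ 0 < β ∧ 1 = α * v.1 + β * u.1 ∧ s = α * v.2 + β * u.2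

theorem inR_Ioo {s : ℝ} {a b : ℤ} (h1 : (a : ℝ) < s) (h2 : s < b) : InR (1, a) (1, b) s := by
  have h3 : (0 : ℝ) < b - a := by linarith
  refine ⟨(b - s) / (b - a), (s - a) / (b - a), div_pos (by linarith) h3,
    div_pos (by linarith) h3, ?_, ?_⟩
  · field_simp; push_cast; ring
  · field_simp; ring

theorem inR_Ioi {s : ℝ} {a : ℤ} (h1 : (a : ℝ) < s) : InR (1, a) (0, 1) s :=
  ⟨1, s - a, one_pos, by linarith, by push_cast; ring, by push_cast; ring⟩

theorem inR_pt {s : ℝ} {a : ℤ} (h1 : s = a) : InR (1, a) (1, a) s :=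
  ⟨1 / 2, 1 / 2, by norm_num, by norm_num, by push_cast; ring, by rw [h1]; ring⟩

variable {Dr V W W' W0 P S : Finset (Fin 18)} {T c c' : Fin 18 → ℝ} {G : Fin 18 → ℕ} {m s : ℝ}
  {HT : Finset (Fin 18) → Fin 18 → Fin 18 → Prop} {lam : (Fin 18 → ℝ) → ℝ} {f k : Fin 18}
  {v u : ℤ × ℤ} {w : ℤ} {θ : Fin 3 → ℝ}

theorem NC.ne' (hT : ∀ i, i ∉ Dr → T i = wz i + s * wn i)
    (hp : ∀ i j, i ∉ Dr → j ∉ Dr → G i = G j → T i * tauW w j = T j * tauW w i)
    (hr : InR v u s) {i j : Fin 18} (h : NC Dr v u w i j) : G i ≠ G j := by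
  intro he
  obtain ⟨hi, hj, hz⟩ := h
  have h2 := hp i j hi hj he
  rw [hT i hi, hT j hj] at h2
  obtain ⟨α, β, hα, hβ, e1, e2⟩ := hr
  refine hz.ne hα hβ ?_
  push_cast
  have : α * (((wz i : ℝ) * tauW w j - wz j * tauW w i) * v.1 +
      ((wn i : ℝ) * tauW w j - wn j * tauW w i) * v.2) +
      β * (((wz i : ℝ) * tauW w j - wz j * tauW w i) * u.1 +
      ((wn i : ℝ) * tauW w j - wn j * tauW w i) * u.2) =
      ((wz i : ℝ) * tauW w j - wz j * tauW w i) * (α * v.1 + β * u.1) +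
      ((wn i : ℝ) * tauW w j - wn j * tauW w i) * (α * v.2 + β * u.2) := by ring
  rw [this, ← e1, ← e2]
  linarith

theorem NC.ne (hs : s = 1 - θ 0 + w * θ 1) (h1 : 0 < θ 1) (hD : (Dr : Set (Fin 18)) = DrW s)
    (hr : InR v u s) {i j : Fin 18} (h : NC Dr v u w i j) :
    gC (TW s) (btW θ) i ≠ gC (TW s) (btW θ) j := by
  have hn : ∀ i, i ∉ Dr → i ∉ DrW s := fun i hi => by
    rw [← hD]; exact fun h => hi (Finset.mem_coe.1 h)
  exact NC.ne' (T := TW s) (G := gC (TW s) (btW θ)) (fun i hi => TW_of_not (hn i hi))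
    (fun i j hi hj he => par_of_G hs h1 (hn i hi) (hn j hj) he) hr h

/-! ### the steps -/

/-- different groups on the symmetric difference, decidable -/
def SameN (N : Fin 18 → Fin 18 → Prop) (f : Fin 18) (W W' : Finset (Fin 18)) : Prop :=
  ∀ i ∈ symmDiff W W', i ≠ f → N i f

instance (N : Fin 18 → Fin 18 → Prop) [∀ i j, Decidable (N i j)] (f : Fin 18)
    (W W' : Finset (Fin 18)) : Decidable (SameN N f W W') := by unfold SameN; infer_instance

theorem SameN.same {N : Fin 18 → Fin 18 → Prop} (hN : ∀ i j, N i j → G i ≠ G j)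
    (h : SameN N f W W') : Same G f W W' := fun i hi hif => hN i f (h i hi hif)

/-- side conditions of a leaf step -/
def OkL (N : Fin 18 → Fin 18 → Prop) (Dr S W0 V : Finset (Fin 18)) (X : Fin 4) (F q : Fin 14) :
    Prop :=
  Up2 Dr V (Fin.castAdd 14 X) ∧
  (Up2 Dr S (Fin.castAdd 14 X) ∧
    Up2 Dr (insert (Fin.natAdd 4 F) (insert (Fin.natAdd 4 q) V)) (Fin.castAdd 14 X) ∧
    SameN N (Fin.castAdd 14 X) S (insert (Fin.natAdd 4 F) (insert (Fin.natAdd 4 q) V))) ∧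
  (Up2 Dr W0 (Fin.natAdd 4 F) ∧
    Up2 Dr (insert (Fin.castAdd 14 X) (insert (Fin.natAdd 4 q) V)) (Fin.natAdd 4 F) ∧
    SameN N (Fin.natAdd 4 F) W0 (insert (Fin.castAdd 14 X) (insert (Fin.natAdd 4 q) V))) ∧
  Up2 Dr (insert (Fin.castAdd 14 X) V) (Fin.natAdd 4 q)

instance (N : Fin 18 → Fin 18 → Prop) [∀ i j, Decidable (N i j)] (Dr S W0 V : Finset (Fin 18))
    (X : Fin 4) (F q : Fin 14) : Decidable (OkL N Dr S W0 V X F q) := by
  unfold OkL; infer_instance

/-- side conditions of a height step -/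
def OkH (N : Fin 18 → Fin 18 → Prop) (Dr W0 V : Finset (Fin 18)) (f k : Fin 18) : Prop :=
  Up2 Dr W0 f ∧ Up2 Dr (insert k V) f ∧ SameN N f W0 (insert k V) ∧ Up2 Dr V k

instance (N : Fin 18 → Fin 18 → Prop) [∀ i j, Decidable (N i j)] (Dr W0 V : Finset (Fin 18))
    (f k : Fin 18) : Decidable (OkH N Dr W0 V f k) := by
  unfold OkH; infer_instance

/-- side conditions of a transfer -/
def OkV (N : Fin 18 → Fin 18 → Prop) (Dr W W' : Finset (Fin 18)) (f : Fin 18) : Prop :=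
  Up2 Dr W f ∧ Up2 Dr W' f ∧ SameN N f W W'

instance (N : Fin 18 → Fin 18 → Prop) [∀ i j, Decidable (N i j)] (Dr W W' : Finset (Fin 18))
    (f : Fin 18) : Decidable (OkV N Dr W W' f) := by
  unfold OkV; infer_instance

/-- side conditions of the end -/
def OkF (N : Fin 18 → Fin 18 → Prop) (Dr V : Finset (Fin 18)) : Prop :=
  Up2 Dr V 17 ∧ Up2 Dr {0, 2, 3} 17 ∧ SameN N 17 V {0, 2, 3} ∧
  Up2 Dr {0} 2 ∧ Up2 Dr {0, 2} 3 ∧ N 0 2 ∧ N 3 2 ∧ N 0 3

instance (N : Fin 18 → Fin 18 → Prop) [∀ i j, Decidable (N i j)] (Dr V : Finset (Fin 18)) :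
    Decidable (OkF N Dr V) := by
  unfold OkF; infer_instance

/-! ### the engine without `z` -/

/-- **facts about a tangent on a rung, without the links; `z` is full in the tower box** -/
structure PinD (Dr : Finset (Fin 18)) (T : Fin 18 → ℝ) (G : Fin 18 → ℕ)
    (lam : (Fin 18 → ℝ) → ℝ) : Prop where
  anti : ∀ c ∈ CL Dr, ∀ c' ∈ CL Dr, c ≤ c' → lam c' ≤ lam c
  sharp : ∀ c ∈ CL Dr, ∀ c' ∈ CL Dr, c ≤ c' → lam c - lam c' ≤ ∑ i, (c' i - c i)
  T0 : ∀ i, 0 ≤ T i
  T1 : T 0 = 1 ∧ T 2 = 1 ∧ T 3 = 1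
  nT : T ∈ CL Dr
  dec : ∀ (f : Fin 18) (y : ℝ) (c c' : Fin 18 → ℝ), c ∈ CL Dr → Function.update c f y ∈ CL Dr →
    c' ∈ CL Dr → Function.update c' f y ∈ CL Dr → (∀ i, G i = G f → c i = c' i) →
    lam c - lam (Function.update c f y) = lam c' - lam (Function.update c' f y)
  addT : ∀ u : ℝ, 0 ≤ u → ∀ c ∈ CL Dr, lam (u • T + c) = lam (u • T) + lam c
  /-- `z` is full in the tower box -/
  zw : ∀ x y : ℝ, 0 ≤ x → x ≤ y →
    y - x ≤ lam (ind {0, 2, 3} x) - lam (Function.update (ind {0, 2, 3} x) 0 y)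

/-- a leaf link `F → q` via `X` in the box `V` (conclusion of `Pin.leaf`) -/
def LfQ (lam : (Fin 18 → ℝ) → ℝ) (V : Finset (Fin 18)) (X : Fin 4) (F q : Fin 14) : Prop :=
  ∀ j x : ℝ, 0 ≤ j → j ≤ x →
    x ≤ lam (ind (insert (Fin.natAdd 4 F) (insert (Fin.natAdd 4 q) V)) x) -
      lam (ind (insert (Fin.castAdd 14 X)
        (insert (Fin.natAdd 4 F) (insert (Fin.natAdd 4 q) V))) x) →
    lam (Function.update (ind (insert (Fin.castAdd 14 X) (insert (Fin.natAdd 4 q) V)) x)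
      (Fin.natAdd 4 F) j) < lam (ind (insert (Fin.castAdd 14 X) (insert (Fin.natAdd 4 q) V)) x) →
    2 * x - j ≤ lam (ind V x) - lam (ind (insert (Fin.castAdd 14 X) (insert (Fin.natAdd 4 q) V)) x)

/-- a height link `f → k` in the box `V` (conclusion of `Pin.ht`) -/
def HtQ (lam : (Fin 18 → ℝ) → ℝ) (V : Finset (Fin 18)) (f k : Fin 18) : Prop :=
  ∀ j x : ℝ, 0 ≤ j → j ≤ x →
    lam (Function.update (ind (insert k V) x) f j) < lam (ind (insert k V) x) →
    x - j ≤ lam (ind V x) - lam (ind (insert k V) x)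

theorem toD (H : Pin Dr T G m HT lam) (h3 : UpW Dr ({0, 2, 3} : Finset (Fin 18))) :
    PinD Dr T G lam where
  anti := H.anti
  sharp := H.sharp
  T0 := H.T0
  T1 := ⟨H.T1.1, H.T1.2.2⟩
  nT := H.nT
  dec := H.dec
  addT := H.addT
  zw := fun x y hx hxy => by
    have e : ind ({0, 2, 3} : Finset (Fin 18)) x 0 = x := ind_mem (by decide)
    rw [H.zf _ (mem_ind h3 hx) y (by rw [e]; exact hxy), e]

section core

variable (H : PinD Dr T G lam)
include H

/-- loss of one slot is at most its exponent -/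
theorem PinD.one_le (h2 : Up2 Dr W f) {x y y' : ℝ} (hy : 0 ≤ y) (hyy : y ≤ y') (hx : y' ≤ x) :
    lam (Function.update (ind W x) f y) - lam (Function.update (ind W x) f y') ≤ y' - y := by
  have h := H.sharp _ (mem_upd h2.1 h2.2.1 h2.2.2 hy (hyy.trans hx)) _
    (mem_upd h2.1 h2.2.1 h2.2.2 (hy.trans hyy) hx) (fun i => by
      by_cases hi : i = f
      · subst hi; rw [Function.update_self, Function.update_self]; exact hyy
      · rw [Function.update_of_ne hi, Function.update_of_ne hi])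
  refine h.trans (le_of_eq ?_)
  have e : Function.update (ind W x) f y' =
      Function.update (Function.update (ind W x) f y) f y' := by
    rw [Function.update_idem]
  rw [e, sum_upd, Function.update_self]

theorem PinD.ins_le (h2 : Up2 Dr W f) {x : ℝ} (hx : 0 ≤ x) :
    lam (ind W x) - lam (ind (insert f W) x) ≤ x := by
  have h := H.one_le h2 (x := x) le_rfl hx le_rfl
  have e : Function.update (ind W x) f 0 = ind W x := by
    conv_rhs => rw [← Function.update_eq_self f (ind W x)]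
    rw [ind_notMem h2.2.2]
  rw [e, ← ind_insert h2.2.2, sub_zero] at h
  exact h

/-- transfer of the visibility to another box -/
theorem PinD.tr_vis (h : Vis lam W f) (h2 : Up2 Dr W f) (h2' : Up2 Dr W' f)
    (hG : Same G f W W') : Vis lam W' f := by
  obtain ⟨j, e, he, hj, h3⟩ := h
  refine ⟨j, e, he, hj, fun x hx => (h3 x hx).trans (le_of_eq ?_)⟩
  exact H.dec f j _ _ (mem_ind h2.1 (hj.trans hx)) (mem_upd h2.1 h2.2.1 h2.2.2 hj hx)
    (mem_ind h2'.1 (hj.trans hx)) (mem_upd h2'.1 h2'.2.1 h2'.2.2 hj hx)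
    (hG.eq h2.2.2 h2'.2.2 x)

theorem PinD.tr_full (h : Full lam W f) (h2 : Up2 Dr W f) (h2' : Up2 Dr W' f)
    (hG : Same G f W W') : Full lam W' f := by
  obtain ⟨j, hj, h3⟩ := h
  refine ⟨j, hj, fun x hx => (h3 x hx).trans (le_of_eq ?_)⟩
  have hx0 := hj.trans hx
  rw [ind_insert h2.2.2, ind_insert h2'.2.2]
  exact H.dec f x _ _ (mem_ind h2.1 hx0) (mem_upd h2.1 h2.2.1 h2.2.2 hx0 le_rfl)
    (mem_ind h2'.1 hx0) (mem_upd h2'.1 h2'.2.1 h2'.2.2 hx0 le_rfl) (hG.eq h2.2.2 h2'.2.2 x)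

theorem PinD.tr_XF (h : XF lam W f) (h2 : Up2 Dr W f) (h2' : Up2 Dr W' f)
    (hG : Same G f W W') : XF lam W' f := by
  intro x hx
  refine (h x hx).trans (le_of_eq ?_)
  rw [ind_insert h2.2.2, ind_insert h2'.2.2]
  exact H.dec f x _ _ (mem_ind h2.1 hx) (mem_upd h2.1 h2.2.1 h2.2.2 hx le_rfl)
    (mem_ind h2'.1 hx) (mem_upd h2'.1 h2'.2.1 h2'.2.2 hx le_rfl) (hG.eq h2.2.2 h2'.2.2 x)

/-- a full slot is visible -/
theorem PinD.vis_of_full (h : Full lam W f) (h2 : Up2 Dr W f) : Vis lam W f := by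
  obtain ⟨j, hj, h3⟩ := h
  refine ⟨j + 1, 1, one_pos, by linarith, fun x hx => ?_⟩
  have h4 := h3 x (by linarith)
  have h5 := H.one_le h2 (x := x) (y := j + 1) (y' := x) (by linarith) hx le_rfl
  rw [ind_insert h2.2.2] at h4
  linarith

/-- **leaf step** -/
theorem PinD.leafStep {X : Fin 4} {F q : Fin 14} (hL : LfQ lam V X F q)
    (u1 : Up2 Dr V (Fin.castAdd 14 X))
    (hX : XF lam (insert (Fin.natAdd 4 F) (insert (Fin.natAdd 4 q) V)) (Fin.castAdd 14 X))
    (hv : Vis lam (insert (Fin.castAdd 14 X) (insert (Fin.natAdd 4 q) V)) (Fin.natAdd 4 F)) :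
    Full lam (insert (Fin.castAdd 14 X) V) (Fin.natAdd 4 q) := by
  obtain ⟨j, e', he, hj, h3⟩ := hv
  refine ⟨j, hj, fun x hx => ?_⟩
  have h4 := h3 x hx
  have h5 := hL j x hj hx (hX x (hj.trans hx)) (by linarith)
  have h6 := H.ins_le u1 (hj.trans hx)
  rw [Finset.insert_comm (Fin.natAdd 4 q) (Fin.castAdd 14 X) V]
  linarith

omit H in
/-- **height step** -/
theorem htStepD (hd : HtQ lam V f k) (hv : Vis lam (insert k V) f) : Full lam V k := by
  obtain ⟨j, e', he, hj, h3⟩ := hv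
  refine ⟨j, hj, fun x hx => ?_⟩
  have h4 := h3 x hx
  exact hd j x hj hx (by linarith)

omit H in
theorem ind_nn {x : ℝ} (hx : 0 ≤ x) (W : Finset (Fin 18)) (i : Fin 18) : 0 ≤ ind W x i :=
  ind_nonneg hx i

/-- **the end of a chain**, tower `{z, A, B}` -/
theorem PinD.fin (hs : T 17 = s) (hP : Full lam {0, 2, 3} 17) (uP : Up2 Dr {0, 2, 3} 17)
    (hA : XF lam {0} 2) (hB : XF lam {0, 2} 3)
    (uA : Up2 Dr {0} 2) (uB : Up2 Dr {0, 2} 3) (g20 : G 0 ≠ G 2) (g23 : G 3 ≠ G 2)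
    (g30 : G 0 ≠ G 3) :
    ∃ C : ℝ, ∀ u : ℝ, 0 ≤ u → lam (u • T) ≤ -((3 + s) * u) + C := by
  obtain ⟨j, hj, hN⟩ := hP
  refine ⟨j, fun u hu => ?_⟩
  obtain ⟨P, hPd⟩ : ∃ P : Finset (Fin 18), P = {0, 2, 3} := ⟨_, rfl⟩
  have p0 : (0 : Fin 18) ∈ P := by rw [hPd]; decide
  have p2 : (2 : Fin 18) ∈ P := by rw [hPd]; decide
  have p3 : (3 : Fin 18) ∈ P := by rw [hPd]; decide
  have pm : ∀ i ∈ P, i = 0 ∨ i = 2 ∨ i = 3 := by rw [hPd]; decide
  have hz := H.zw
  rw [← hPd] at hN uP hz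
  have hs0 : 0 ≤ s := by rw [← hs]; exact H.T0 17
  have hsu : 0 ≤ s * u := mul_nonneg hs0 hu
  obtain ⟨x, hx⟩ : ∃ x, x = s * u + j := ⟨_, rfl⟩
  obtain ⟨X', hX⟩ : ∃ X', X' = x + u := ⟨_, rfl⟩
  have hx0 : 0 ≤ x := by rw [hx]; linarith
  have hxX : x ≤ X' := by rw [hX]; linarith
  have hX0 : 0 ≤ X' := hx0.trans hxX
  have hsx : s * u ≤ x := by rw [hx]; linarith
  have hn : (17 : Fin 18) ∉ P := uP.2.2
  set c0 := ind P x with hc0
  set c1 := Function.update c0 0 X' with hc1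
  set c2 := Function.update c1 2 X' with hc2
  set c3 := Function.update c2 3 X' with hc3
  set c4 := Function.update c3 17 (s * u) with hc4
  have v0 : ∀ i, c0 i = if i ∈ P then x else 0 := fun i => rfl
  have v1 : ∀ i, c1 i = if i = 0 then X' else c0 i := fun i => by
    rw [hc1, Function.update_apply]
  have v2 : ∀ i, c2 i = if i = 2 then X' else c1 i := fun i => by
    rw [hc2, Function.update_apply]
  have v3 : ∀ i, c3 i = if i = 3 then X' else c2 i := fun i => by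
    rw [hc3, Function.update_apply]
  have v4 : ∀ i, c4 i = if i = 17 then s * u else c3 i := fun i => by
    rw [hc4, Function.update_apply]
  have m0 : c0 ∈ CL Dr := mem_ind uP.1 hx0
  have m1 : c1 ∈ CL Dr := by
    refine mem_tower uP.2.1 uP.1 hx0 hxX (fun k => ?_) (fun k hk => ?_) (fun k => ?_)
    · rw [v1, v0]; split_ifs <;> first | assumption | exact le_rfl
    · rw [v1, v0, if_pos hk]; split_ifs <;> first | assumption | exact le_rfl
    · by_cases h0 : k = 0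
      · exact Or.inr (Or.inr (Or.inl h0))
      · rw [v1, if_neg h0, v0]
        by_cases hk : k ∈ P
        · rw [if_pos hk]; exact Or.inr (Or.inl ⟨le_rfl, Finset.mem_insert_of_mem hk⟩)
        · rw [if_neg hk]; exact Or.inl le_rfl
  have m2 : c2 ∈ CL Dr := by
    refine mem_tower uP.2.1 uP.1 hx0 hxX (fun k => ?_) (fun k hk => ?_) (fun k => ?_)
    · rw [v2, v1, v0]; split_ifs <;> first | assumption | exact le_rfl
    · rw [v2, v1, v0, if_pos hk]; split_ifs <;> first | assumption | exact le_rfl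
    · by_cases h0 : k = 0
      · exact Or.inr (Or.inr (Or.inl h0))
      by_cases h2 : k = 2
      · refine Or.inr (Or.inr (Or.inr (Or.inl ⟨h2, ?_⟩)))
        rw [v2, if_pos rfl, v2, if_neg (by decide), v1, if_pos rfl]
      · rw [v2, if_neg h2, v1, if_neg h0, v0]
        by_cases hk : k ∈ P
        · rw [if_pos hk]; exact Or.inr (Or.inl ⟨le_rfl, Finset.mem_insert_of_mem hk⟩)
        · rw [if_neg hk]; exact Or.inl le_rfl
  have w30 : c3 0 = X' := by
    rw [v3, if_neg (by decide), v2, if_neg (by decide), v1, if_pos rfl]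
  have w32 : c3 2 = X' := by
    rw [v3, if_neg (by decide), v2, if_pos rfl]
  have w33 : c3 3 = X' := by rw [v3, if_pos rfl]
  have m3 : c3 ∈ CL Dr := by
    refine mem_tower uP.2.1 uP.1 hx0 hxX (fun k => ?_) (fun k hk => ?_) (fun k => ?_)
    · rw [v3, v2, v1, v0]; split_ifs <;> first | assumption | exact le_rfl
    · rw [v3, v2, v1, v0, if_pos hk]; split_ifs <;> first | assumption | exact le_rfl
    · by_cases h0 : k = 0
      · exact Or.inr (Or.inr (Or.inl h0))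
      by_cases h2 : k = 2
      · exact Or.inr (Or.inr (Or.inr (Or.inl ⟨h2, by rw [w32, w30]⟩)))
      by_cases h3 : k = 3
      · exact Or.inr (Or.inr (Or.inr (Or.inr ⟨h3, by rw [w33, w30], by rw [w33, w32]⟩)))
      · rw [v3, if_neg h3, v2, if_neg h2, v1, if_neg h0, v0]
        by_cases hk : k ∈ P
        · rw [if_pos hk]; exact Or.inr (Or.inl ⟨le_rfl, Finset.mem_insert_of_mem hk⟩)
        · rw [if_neg hk]; exact Or.inl le_rfl
  have w40 : c4 0 = X' := by rw [v4, if_neg (by decide), w30]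
  have w42 : c4 2 = X' := by rw [v4, if_neg (by decide), w32]
  have w43 : c4 3 = X' := by rw [v4, if_neg (by decide), w33]
  have m4 : c4 ∈ CL Dr := by
    refine mem_tower uP.2.1 uP.1 hx0 hxX (fun k => ?_) (fun k hk => ?_) (fun k => ?_)
    · rw [v4, v3, v2, v1, v0]; split_ifs <;> first | assumption | exact le_rfl
    · have : k ≠ 17 := fun h => hn (h ▸ hk)
      rw [v4, if_neg this, v3, v2, v1, v0, if_pos hk]
      split_ifs <;> first | assumption | exact le_rfl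
    · by_cases h0 : k = 0
      · exact Or.inr (Or.inr (Or.inl h0))
      by_cases h2 : k = 2
      · exact Or.inr (Or.inr (Or.inr (Or.inl ⟨h2, by rw [w42, w40]⟩)))
      by_cases h3 : k = 3
      · exact Or.inr (Or.inr (Or.inr (Or.inr ⟨h3, by rw [w43, w40], by rw [w43, w42]⟩)))
      by_cases h17 : k = 17
      · rw [v4, if_pos h17]
        exact Or.inr (Or.inl ⟨hsx, by rw [h17]; exact Finset.mem_insert_self _ _⟩)
      · rw [v4, if_neg h17, v3, if_neg h3, v2, if_neg h2, v1, if_neg h0, v0]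
        by_cases hk : k ∈ P
        · rw [if_pos hk]; exact Or.inr (Or.inl ⟨le_rfl, Finset.mem_insert_of_mem hk⟩)
        · rw [if_neg hk]; exact Or.inl le_rfl
  -- the height
  have L0 : u ≤ lam c0 - lam c1 := by
    have := hz x X' hx0 hxX
    rw [hc1, hc0]
    linarith
  -- the slot A
  have LA : u ≤ lam c1 - lam c2 := by
    set a := Function.update (ind ({0} : Finset (Fin 18)) X') 2 x with ha
    have ea : Function.update a 2 X' = Function.update (ind ({0} : Finset (Fin 18)) X') 2 X' := by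
      rw [ha, Function.update_idem]
    have ma : a ∈ CL Dr := mem_upd uA.1 uA.2.1 uA.2.2 hx0 hxX
    have ma' : Function.update a 2 X' ∈ CL Dr := by
      rw [ea]; exact mem_upd uA.1 uA.2.1 uA.2.2 hX0 le_rfl
    have e := H.dec 2 X' c1 a m1 m2 ma ma' (fun i hi => by
      by_cases h2 : i = 2
      · subst h2
        rw [v1, if_neg (by decide), v0, if_pos p2, ha, Function.update_self]
      · have hiP : i ∉ P := fun h => by
          rcases pm i h with rfl | rfl | rfl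
          · exact g20 hi
          · exact h2 rfl
          · exact g23 hi
        have hi0 : i ≠ 0 := fun h => hiP (h ▸ p0)
        rw [v1, if_neg hi0, v0, if_neg hiP, ha, Function.update_of_ne h2, ind_notMem (by simpa using hi0)])
    rw [e, ea]
    have h1 := hA X' hX0
    rw [ind_insert uA.2.2] at h1
    have h2 := H.one_le uA (x := X') (y := 0) (y' := x) le_rfl hx0 hxX
    have e0 : Function.update (ind ({0} : Finset (Fin 18)) X') 2 0 = ind ({0} : Finset (Fin 18)) X' := by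
      conv_rhs => rw [← Function.update_eq_self 2 (ind ({0} : Finset (Fin 18)) X')]
      rw [ind_notMem uA.2.2]
    rw [e0] at h2
    rw [ha]; linarith
  have LB : u ≤ lam c2 - lam c3 := by
    set a := Function.update (ind ({0, 2} : Finset (Fin 18)) X') 3 x with ha
    have ea : Function.update a 3 X' = Function.update (ind ({0, 2} : Finset (Fin 18)) X') 3 X' := by
      rw [ha, Function.update_idem]
    have ma : a ∈ CL Dr := mem_upd uB.1 uB.2.1 uB.2.2 hx0 hxX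
    have ma' : Function.update a 3 X' ∈ CL Dr := by
      rw [ea]; exact mem_upd uB.1 uB.2.1 uB.2.2 hX0 le_rfl
    have e := H.dec 3 X' c2 a m2 m3 ma ma' (fun i hi => by
      by_cases h3 : i = 3
      · subst h3
        rw [v2, if_neg (by decide), v1, if_neg (by decide), v0, if_pos p3, ha,
          Function.update_self]
      · have hiP : i ∉ P := fun h => by
          rcases pm i h with rfl | rfl | rfl
          · exact g30 hi
          · exact g23 hi.symm
          · exact h3 rfl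
        have hi0 : i ≠ 0 := fun h => hiP (h ▸ p0)
        have hi2 : i ≠ 2 := fun h => hiP (h ▸ p2)
        rw [v2, if_neg hi2, v1, if_neg hi0, v0, if_neg hiP, ha, Function.update_of_ne h3,
          ind_notMem (by simp [hi0, hi2])])
    rw [e, ea]
    have h1 := hB X' hX0
    rw [ind_insert uB.2.2] at h1
    have h2 := H.one_le uB (x := X') (y := 0) (y' := x) le_rfl hx0 hxX
    have e0 : Function.update (ind ({0, 2} : Finset (Fin 18)) X') 3 0 = ind ({0, 2} : Finset (Fin 18)) X' := by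
      conv_rhs => rw [← Function.update_eq_self 3 (ind ({0, 2} : Finset (Fin 18)) X')]
      rw [ind_notMem uB.2.2]
    rw [e0] at h2
    rw [ha]; linarith
  have LN : s * u - j ≤ lam c3 - lam c4 := by
    have e := H.dec 17 (s * u) c3 (ind P X') m3 m4 (mem_ind uP.1 hX0)
      (mem_upd uP.1 uP.2.1 hn hsu (hsx.trans hxX)) (fun i hi => by
        by_cases h17 : i = 17
        · subst h17
          rw [v3, if_neg (by decide), v2, if_neg (by decide), v1, if_neg (by decide), v0,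
            if_neg hn, ind_notMem hn]
        · by_cases hiP : i ∈ P
          · rw [ind_mem hiP]
            rcases pm i hiP with h | h | h
            · rw [h, w30]
            · rw [h, w32]
            · rw [h, w33]
          · have hi0 : i ≠ 0 := fun h => hiP (h ▸ p0)
            have hi2 : i ≠ 2 := fun h => hiP (h ▸ p2)
            have hi3 : i ≠ 3 := fun h => hiP (h ▸ p3)
            rw [v3, if_neg hi3, v2, if_neg hi2, v1, if_neg hi0, v0, if_neg hiP,
              ind_notMem hiP])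
    rw [e]
    have h1 := hN X' (by rw [hX, hx]; linarith)
    rw [ind_insert hn] at h1
    have h2 := H.one_le uP (x := X') (y := s * u) (y' := X') hsu (hsx.trans hxX) le_rfl
    linarith
  have mT : u • T + c0 ∈ CL Dr := K2S774.cn_add (K2S774.cn_smul H.nT hu) m0
  have h5 := H.anti c4 m4 _ mT (fun i => by
    simp only [Pi.add_apply, Pi.smul_apply, smul_eq_mul]
    by_cases h17 : i = 17
    · subst h17
      rw [v4, if_pos rfl, hs, v0, if_neg hn]; linarith
    by_cases h3 : i = 3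
    · subst h3; rw [w43, H.T1.2.2, v0, if_pos p3, hX]; linarith
    by_cases h2 : i = 2
    · subst h2; rw [w42, H.T1.2.1, v0, if_pos p2, hX]; linarith
    by_cases h0 : i = 0
    · subst h0; rw [w40, H.T1.1, v0, if_pos p0, hX]; linarith
    · rw [v4, if_neg h17, v3, if_neg h3, v2, if_neg h2, v1, if_neg h0]
      have := mul_nonneg hu (H.T0 i)
      linarith)
  rw [H.addT u hu c0 m0] at h5
  linarith

end core

section steps

variable {N : Fin 18 → Fin 18 → Prop} (H : PinD Dr T G lam) (hN : ∀ i j, N i j → G i ≠ G j)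
include H hN

theorem stepL {X : Fin 4} {F q : Fin 14} (hX : XF lam S (Fin.castAdd 14 X))
    (hL : LfQ lam V X F q) (ok : OkL N Dr S W0 V X F q) (hv : Vis lam W0 (Fin.natAdd 4 F)) :
    Full lam (insert (Fin.castAdd 14 X) V) (Fin.natAdd 4 q) := by
  obtain ⟨h5, ⟨a1, a2, a3⟩, ⟨b1, b2, b3⟩, -⟩ := ok
  exact H.leafStep hL h5 (H.tr_XF hX a1 a2 (a3.same hN)) (H.tr_vis hv b1 b2 (b3.same hN))

/-- leaf step, visible form -/
theorem stepL' {X : Fin 4} {F q : Fin 14} (hX : XF lam S (Fin.castAdd 14 X))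
    (hL : LfQ lam V X F q) (ok : OkL N Dr S W0 V X F q) (hv : Vis lam W0 (Fin.natAdd 4 F)) :
    Vis lam (insert (Fin.castAdd 14 X) V) (Fin.natAdd 4 q) :=
  H.vis_of_full (stepL H hN hX hL ok hv) ok.2.2.2

theorem stepH (hd : HtQ lam V f k) (ok : OkH N Dr W0 V f k) (hv : Vis lam W0 f) :
    Full lam V k :=
  htStepD hd (H.tr_vis hv ok.1 ok.2.1 (ok.2.2.1.same hN))

/-- height step, visible form -/
theorem stepH' (hd : HtQ lam V f k) (ok : OkH N Dr W0 V f k) (hv : Vis lam W0 f) :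
    Vis lam V k :=
  H.vis_of_full (stepH H hN hd ok hv) ok.2.2.2

theorem stepF (hs : T 17 = s) (hA : XF lam {0} 2) (hB : XF lam {0, 2} 3) (ok : OkF N Dr V)
    (hF : Full lam V 17) :
    ∃ C : ℝ, ∀ u : ℝ, 0 ≤ u → lam (u • T) ≤ -((3 + s) * u) + C := by
  obtain ⟨a1, a2, a3, u2, u3, g1, g2, g3⟩ := ok
  exact H.fin hs (H.tr_full hF a1 a2 (a3.same hN)) a2 hA hB u2 u3 (hN _ _ g1) (hN _ _ g2)
    (hN _ _ g3)

end steps

/-! ### regions -/

/-- conclusion of the chains: the full loss along the ray, up to a constant -/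
def EndP (s : ℝ) (lam : (Fin 18 → ℝ) → ℝ) : Prop :=
  ∃ C : ℝ, ∀ u : ℝ, 0 ≤ u → lam (u • TW s) ≤ -((3 + s) * u) + C

theorem mem_Dr (hD : (Dr : Set (Fin 18)) = DrW s) (k : Fin 18) :
    k ∈ Dr ↔ 4 ≤ k ∧ s < alW k := by
  have : k ∈ (Dr : Set (Fin 18)) ↔ k ∈ DrW s := by rw [hD]
  rw [← Finset.mem_coe, this]
  rfl

theorem Dr_eq {j : ℤ} {S : Finset (Fin 18)} (hD : (Dr : Set (Fin 18)) = DrW s)
    (h1 : ((j : ℝ) ≤ s)) (h2 : s < j + 1)
    (hS : Finset.univ.filter (fun k : Fin 18 => 4 ≤ k ∧ j + 1 ≤ alW k) = S) : Dr = S := by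
  rw [← hS]
  ext k
  rw [mem_Dr hD, Finset.mem_filter]
  constructor
  · rintro ⟨h3, h4⟩
    refine ⟨Finset.mem_univ _, h3, ?_⟩
    have h5 : (j : ℝ) < alW k := h1.trans_lt h4
    have h6 : j < alW k := by exact_mod_cast h5
    omega
  · rintro ⟨-, h3, h4⟩
    refine ⟨h3, ?_⟩
    have h5 : ((j + 1 : ℤ) : ℝ) ≤ alW k := by exact_mod_cast h4
    push_cast at h5
    linarith

theorem Dr_empty (hD : (Dr : Set (Fin 18)) = DrW s) (h4 : 4 ≤ s) : Dr = ∅ := by
  rw [DrW_four h4] at hD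
  exact_mod_cast hD

/-- the regions of the dead rows `2 < s`, `s ≠ 3` -/
theorem regs (hD : (Dr : Set (Fin 18)) = DrW s) (h2 : 2 < s) (h3 : s ≠ 3) :
    (Dr = {4, 5, 6, 8} ∧ InR (1, 2) (1, 3) s) ∨ (Dr = {4} ∧ InR (1, 3) (1, 4) s) ∨
      (Dr = ∅ ∧ s = 4 ∧ InR (1, 4) (1, 4) s) ∨ (Dr = ∅ ∧ InR (1, 4) (0, 1) s) := by
  rcases lt_or_gt_of_ne h3 with h | h
  · left
    refine ⟨Dr_eq (j := 2) hD (by push_cast; linarith) (by push_cast; linarith) (by decide), ?_⟩
    exact inR_Ioo (by push_cast; exact h2) (by push_cast; exact h)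
  · right
    rcases lt_trichotomy s 4 with h4 | h4 | h4
    · left
      refine ⟨Dr_eq (j := 3) hD (by push_cast; linarith) (by push_cast; linarith) (by decide), ?_⟩
      exact inR_Ioo (by push_cast; exact h) (by push_cast; exact h4)
    · right; left
      exact ⟨Dr_empty hD h4.ge, h4, inR_pt (by push_cast; exact h4)⟩
    · right; right
      exact ⟨Dr_empty hD h4.le, inR_Ioi (by push_cast; exact h4)⟩

/-- the regions of the dead rows, without `Dr` -/
theorem regs' (h2 : 2 < s) (h3 : s ≠ 3) :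
    (s < 3 ∧ InR (1, 2) (1, 3) s) ∨ (3 < s ∧ InR (1, 3) (1, 4) s) ∨
      (s = 4 ∧ InR (1, 4) (1, 4) s) ∨ (4 < s ∧ InR (1, 4) (0, 1) s) := by
  rcases lt_or_gt_of_ne h3 with h | h
  · exact Or.inl ⟨h, inR_Ioo (by push_cast; exact h2) (by push_cast; exact h)⟩
  · rcases lt_trichotomy s 4 with h4 | h4 | h4
    · exact Or.inr (Or.inl ⟨h, inR_Ioo (by push_cast; exact h) (by push_cast; exact h4)⟩)
    · exact Or.inr (Or.inr (Or.inl ⟨h4, inR_pt (by push_cast; exact h4)⟩))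
    · exact Or.inr (Or.inr (Or.inr ⟨h4, inR_Ioi (by push_cast; exact h4)⟩))

theorem TW17 (h : 0 ≤ s) : TW s 17 = s := by
  have h0 : alW 17 = 0 := by decide
  have h1 : (17 : Fin 18) ∉ DrW s := by
    rintro ⟨-, h2⟩
    rw [h0] at h2
    push_cast at h2
    linarith
  rw [TW_flag (by decide) h1, h0]
  push_cast
  ring

/-! ### the chains -/

section chains

variable (h1 : 0 < θ 1) (hD : (Dr : Set (Fin 18)) = DrW s) (h2 : 2 < s) (h3 : s ≠ 3)
  (H : PinD Dr (TW s) (gC (TW s) (btW θ)) lam) (hA : XF lam {0} 2) (hB : XF lam {0, 2} 3)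
include h1 hD h2 h3 H hA hB

/-- end of the chains from `w_B` -/
theorem endB (hl : LfQ lam {0, 2, 7} 3 10 13) {N : Fin 18 → Fin 18 → Prop}
    (hN : ∀ i j, N i j → gC (TW s) (btW θ) i ≠ gC (TW s) (btW θ) j)
    (ok : OkL N Dr {0, 2} W0 {0, 2, 7} 3 10 13) (ok' : OkF N Dr {3, 0, 2, 7})
    (hv : Vis lam W0 14) : EndP s lam :=
  stepF H hN (TW17 (by linarith)) hA hB ok'
    (stepL H hN (X := 3) (F := 10) (q := 13) hB hl ok hv)

/-- **`w = 3`**: `w_B` visible -/
theorem ch3 (hs : s = 1 - θ 0 + (3 : ℤ) * θ 1) (hl : LfQ lam {0, 2, 7} 3 10 13)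
    (hv : Vis lam ({0, 4, 5, 6, 7, 9} \ Dr) 14) : EndP s lam := by
  rcases regs hD h2 h3 with ⟨rfl, hr⟩ | ⟨rfl, hr⟩ | ⟨rfl, h4, hr⟩ | ⟨rfl, hr⟩
  all_goals
    exact endB h1 hD h2 h3 H hA hB hl (fun i j h => NC.ne hs h1 hD hr h) (by decide +kernel)
      (by decide +kernel) hv

/-- **`w = 2`**: `w_A` visible (level slot: `AA = 10`) -/
theorem ch2A (hs : s = 1 - θ 0 + (2 : ℤ) * θ 1)
    (hl : LfQ lam ({0, 1, 3, 4, 5, 6, 10} \ Dr) 2 11 13)
    (hv : Vis lam ({0, 4, 5, 6, 7, 8, 9, 10, 11, 14} \ Dr) 15) : EndP s lam := by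
  rcases regs hD h2 h3 with ⟨rfl, hr⟩ | ⟨rfl, hr⟩ | ⟨rfl, h4, hr⟩ | ⟨rfl, hr⟩
  all_goals
    have hN := fun i j h => NC.ne (i := i) (j := j) hs h1 hD hr h
    exact stepF H hN (TW17 (by linarith)) hA hB (by decide +kernel)
      (stepL H hN (X := 2) (F := 11) (q := 13) hA hl (by decide +kernel) hv)

/-- **`w = 2`**: `zA` visible (level slot: `zB = 11` for `s < 3`, `zY = 8` for `3 < s`) -/
theorem ch2z (hs : s = 1 - θ 0 + (2 : ℤ) * θ 1)
    (hl : s < 3 → LfQ lam {0, 1, 11} 2 8 12) (hl' : 3 < s → LfQ lam {0, 1, 3, 8} 2 8 12)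
    (hPN : HtQ lam {0, 1, 2, 3, 13} 16 17)
    (hv : Vis lam ({0, 4, 5, 6, 7, 8, 9, 10, 11, 14} \ Dr) 12) : EndP s lam := by
  have hr3 : ∀ {a : ℤ}, InR (1, 3) (1, a) s → 3 < a → 3 < s := by
    rintro a ⟨α, β, hα, hβ, e1, e2⟩ ha
    have ha' : (3 : ℝ) < a := by exact_mod_cast ha
    push_cast at e1 e2
    nlinarith
  rcases regs hD h2 h3 with ⟨rfl, hr⟩ | ⟨rfl, hr⟩ | ⟨rfl, h4, hr⟩ | ⟨rfl, hr⟩
  · have hN := fun i j h => NC.ne (i := i) (j := j) hs h1 hD hr h
    have hs3 : s < 3 := by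
      obtain ⟨α, β, hα, hβ, e1, e2⟩ := hr
      push_cast at e1 e2
      linarith
    exact stepF H hN (TW17 (by linarith)) hA hB (by decide +kernel)
      (stepH H hN hPN (by decide +kernel)
        (stepL' H hN (X := 2) (F := 8) (q := 12) hA (hl hs3) (by decide +kernel) hv))
  · have hN := fun i j h => NC.ne (i := i) (j := j) hs h1 hD hr h
    exact stepF H hN (TW17 (by linarith)) hA hB (by decide +kernel)
      (stepH H hN hPN (by decide +kernel)
        (stepL' H hN (X := 2) (F := 8) (q := 12) hA (hl' (hr3 hr (by norm_num)))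
          (by decide +kernel) hv))
  · have hN := fun i j h => NC.ne (i := i) (j := j) hs h1 hD hr h
    exact stepF H hN (TW17 (by linarith)) hA hB (by decide +kernel)
      (stepH H hN hPN (by decide +kernel)
        (stepL' H hN (X := 2) (F := 8) (q := 12) hA (hl' (by linarith))
          (by decide +kernel) hv))
  · have hN := fun i j h => NC.ne (i := i) (j := j) hs h1 hD hr h
    have hs4 : 3 < s := by
      obtain ⟨α, β, hα, hβ, e1, e2⟩ := hr
      push_cast at e1 e2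
      linarith
    exact stepF H hN (TW17 (by linarith)) hA hB (by decide +kernel)
      (stepH H hN hPN (by decide +kernel)
        (stepL' H hN (X := 2) (F := 8) (q := 12) hA (hl' hs4) (by decide +kernel) hv))

/-- **`w = 4`**: `AB` visible (level slots: `BY = 5`, `BB = 7`) -/
theorem ch4B (hs : s = 1 - θ 0 + (4 : ℤ) * θ 1) (h4 : s ≠ 4)
    (hl : LfQ lam ({0, 5, 7} \ Dr) 2 5 10) (hl' : LfQ lam {0, 2, 7} 3 10 13)
    (hv : Vis lam ({0, 4, 5, 7} \ Dr) 9) : EndP s lam := by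
  rcases regs hD h2 h3 with ⟨rfl, hr⟩ | ⟨rfl, hr⟩ | ⟨rfl, h5, hr⟩ | ⟨rfl, hr⟩
  · have hN := fun i j h => NC.ne (i := i) (j := j) hs h1 hD hr h
    exact endB h1 hD h2 h3 H hA hB hl' hN (by decide +kernel) (by decide +kernel)
      (stepL' H hN (X := 2) (F := 5) (q := 10) hA hl (by decide +kernel) hv)
  · have hN := fun i j h => NC.ne (i := i) (j := j) hs h1 hD hr h
    exact endB h1 hD h2 h3 H hA hB hl' hN (by decide +kernel) (by decide +kernel)
      (stepL' H hN (X := 2) (F := 5) (q := 10) hA hl (by decide +kernel) hv)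
  · exact absurd h5 h4
  · have hN := fun i j h => NC.ne (i := i) (j := j) hs h1 hD hr h
    exact endB h1 hD h2 h3 H hA hB hl' hN (by decide +kernel) (by decide +kernel)
      (stepL' H hN (X := 2) (F := 5) (q := 10) hA hl (by decide +kernel) hv)

/-- **`w = 4`**: `AY` visible (level slots: `YY = 4`, `BY = 5`, `BB = 7`) -/
theorem ch4Y (hs : s = 1 - θ 0 + (4 : ℤ) * θ 1) (h4 : s ≠ 4) (h3' : 3 < s)
    (hl : LfQ lam ({0, 5, 7} \ Dr) 2 5 10) (hl' : LfQ lam {0, 2, 7} 3 10 13)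
    (hYB : HtQ lam ({0, 4, 5, 7} \ Dr) 6 9) (hv : Vis lam ({0, 4, 5, 7} \ Dr) 6) :
    EndP s lam := by
  refine ch4B h1 hD h2 h3 H hA hB hs h4 hl hl' ?_
  rcases regs hD h2 h3 with ⟨rfl, hr⟩ | ⟨rfl, hr⟩ | ⟨rfl, h5, hr⟩ | ⟨rfl, hr⟩
  · obtain ⟨α, β, hα, hβ, e1, e2⟩ := hr
    push_cast at e1 e2
    linarith
  · exact stepH' H (fun i j h => NC.ne (i := i) (j := j) hs h1 hD hr h) hYB (by decide +kernel) hv
  · exact absurd h5 h4
  · exact stepH' H (fun i j h => NC.ne (i := i) (j := j) hs h1 hD hr h) hYB (by decide +kernel) hv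

/-- `ch4Y` with `c`, `A` narrow in the height link -/
theorem ch4Y' (hs : s = 1 - θ 0 + (4 : ℤ) * θ 1) (h4 : s ≠ 4) (h3' : 3 < s)
    (hl : LfQ lam ({0, 5, 7} \ Dr) 2 5 10) (hl' : LfQ lam {0, 2, 7} 3 10 13)
    (hYB : HtQ lam ({0, 1, 2, 4, 5, 7} \ Dr) 6 9) (hv : Vis lam ({0, 4, 5, 7} \ Dr) 6) :
    EndP s lam := by
  refine ch4B h1 hD h2 h3 H hA hB hs h4 hl hl' ?_
  rcases regs hD h2 h3 with ⟨rfl, hr⟩ | ⟨rfl, hr⟩ | ⟨rfl, h5, hr⟩ | ⟨rfl, hr⟩
  · obtain ⟨α, β, hα, hβ, e1, e2⟩ := hr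
    push_cast at e1 e2
    linarith
  · have hN := fun i j h => NC.ne (i := i) (j := j) hs h1 hD hr h
    have v9 := stepH' H hN hYB (by decide +kernel) hv
    have ok : OkV (NC {4} (1, 3) (1, 4) 4) {4} ({0, 1, 2, 4, 5, 7} \ {4}) ({0, 4, 5, 7} \ {4}) 9 := by
      decide +kernel
    exact H.tr_vis v9 ok.1 ok.2.1 (ok.2.2.same hN)
  · exact absurd h5 h4
  · have hN := fun i j h => NC.ne (i := i) (j := j) hs h1 hD hr h
    have v9 := stepH' H hN hYB (by decide +kernel) hv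
    have ok : OkV (NC ∅ (1, 4) (0, 1) 4) ∅ ({0, 1, 2, 4, 5, 7} \ ∅) ({0, 4, 5, 7} \ ∅) 9 := by
      decide +kernel
    exact H.tr_vis v9 ok.1 ok.2.1 (ok.2.2.same hN)

/-- `ch4Y` with the height link in the box `{z, c, A}` -/
theorem ch4Y0 (hs : s = 1 - θ 0 + (4 : ℤ) * θ 1) (h4 : s ≠ 4) (h3' : 3 < s)
    (hl : LfQ lam ({0, 5, 7} \ Dr) 2 5 10) (hl' : LfQ lam {0, 2, 7} 3 10 13)
    (hYB : HtQ lam {0, 1, 2} 6 9) (hv : Vis lam ({0, 4, 5, 7} \ Dr) 6) :
    EndP s lam := by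
  refine ch4B h1 hD h2 h3 H hA hB hs h4 hl hl' ?_
  rcases regs hD h2 h3 with ⟨rfl, hr⟩ | ⟨rfl, hr⟩ | ⟨rfl, h5, hr⟩ | ⟨rfl, hr⟩
  · obtain ⟨α, β, hα, hβ, e1, e2⟩ := hr
    push_cast at e1 e2
    linarith
  · have hN := fun i j h => NC.ne (i := i) (j := j) hs h1 hD hr h
    have v9 := stepH' H hN hYB (by decide +kernel) hv
    have ok : OkV (NC {4} (1, 3) (1, 4) 4) {4} {0, 1, 2} ({0, 4, 5, 7} \ {4}) 9 := by
      decide +kernel
    exact H.tr_vis v9 ok.1 ok.2.1 (ok.2.2.same hN)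
  · exact absurd h5 h4
  · have hN := fun i j h => NC.ne (i := i) (j := j) hs h1 hD hr h
    have v9 := stepH' H hN hYB (by decide +kernel) hv
    have ok : OkV (NC ∅ (1, 4) (0, 1) 4) ∅ {0, 1, 2} ({0, 4, 5, 7} \ ∅) 9 := by
      decide +kernel
    exact H.tr_vis v9 ok.1 ok.2.1 (ok.2.2.same hN)

/-- **`s = 4`, `w = 2`**: `YY` visible ⊢ `w_A` visible, `YY → BY → AB → w_A` (`w_B` is of weight
`w`) -/
theorem visYY2 (hs : s = 1 - θ 0 + (2 : ℤ) * θ 1) (h4 : s = 4) (h45 : HtQ lam {0} 4 5)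
    (h59 : LfQ lam {0, 1} 2 1 5) (h9A : LfQ lam {0, 1, 2} 3 5 11)
    (hv : Vis lam {0} 4) (hW : Up2 Dr W 15) : Vis lam W 15 := by
  obtain rfl : Dr = ∅ := Dr_empty hD h4.ge
  have hN := fun i j h => NC.ne (i := i) (j := j) hs h1 hD
    (inR_pt (a := 4) (by push_cast; exact h4)) h
  have v5 : Vis lam {0} 5 := stepH' H hN h45 (by decide +kernel) hv
  have v9 := stepL' H hN (X := 2) (F := 1) (q := 5) hA h59 (by decide +kernel) v5
  have v15 := stepL' H hN (X := 3) (F := 5) (q := 11) hB h9A (by decide +kernel) v9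
  have ok : ∀ i, i ≠ 15 → NC ∅ (1, 4) (1, 4) 2 i 15 := by decide +kernel
  exact H.tr_vis v15 (by decide +kernel) hW fun i _ hi => hN i 15 (ok i hi)

/-- **`s = 4`, `w = 3`**: `YY` visible ⊢ `w_B` visible, `YY → BY → BB → w_B` -/
theorem visYY3 (hs : s = 1 - θ 0 + (3 : ℤ) * θ 1) (h4 : s = 4) (h45 : HtQ lam {0} 4 5)
    (h57 : HtQ lam {0, 4} 5 7) (h7B : LfQ lam {0, 2} 3 3 10)
    (hv : Vis lam {0} 4) (hW : Up2 Dr W 14) : Vis lam W 14 := by
  obtain rfl : Dr = ∅ := Dr_empty hD h4.ge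
  have hN := fun i j h => NC.ne (i := i) (j := j) hs h1 hD
    (inR_pt (a := 4) (by push_cast; exact h4)) h
  have v5 : Vis lam {0} 5 := stepH' H hN h45 (by decide +kernel) hv
  have v7 : Vis lam {0, 4} 7 := stepH' H hN h57 (by decide +kernel) v5
  have v14 := stepL' H hN (X := 3) (F := 3) (q := 10) hB h7B (by decide +kernel) v7
  have ok : ∀ i, i ≠ 14 → NC ∅ (1, 4) (1, 4) 3 i 14 := by decide +kernel
  exact H.tr_vis v14 (by decide +kernel) hW fun i _ hi => hN i 14 (ok i hi)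

/-- **`s = 4`, `w = 2`**: `YY` visible; `YY → BY → AB → w_A → N` (`w_B` is of weight `w`) -/
theorem chYY2 (hs : s = 1 - θ 0 + (2 : ℤ) * θ 1) (h4 : s = 4) (h45 : HtQ lam {0} 4 5)
    (h59 : LfQ lam {0, 1} 2 1 5) (h9A : LfQ lam {0, 1, 2} 3 5 11)
    (hl : LfQ lam ({0, 1, 3, 4, 5, 6, 10} \ Dr) 2 11 13)
    (hv : Vis lam {0} 4) : EndP s lam := by
  obtain rfl : Dr = ∅ := Dr_empty hD h4.ge
  have hN := fun i j h => NC.ne (i := i) (j := j) hs h1 hD
    (inR_pt (a := 4) (by push_cast; exact h4)) h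
  have v5 : Vis lam {0} 5 := stepH' H hN h45 (by decide +kernel) hv
  have v9 := stepL' H hN (X := 2) (F := 1) (q := 5) hA h59 (by decide +kernel) v5
  have v15 := stepL' H hN (X := 3) (F := 5) (q := 11) hB h9A (by decide +kernel) v9
  exact stepF H hN (TW17 (by linarith)) hA hB (by decide +kernel)
      (stepL H hN (X := 2) (F := 11) (q := 13) hA hl (by decide +kernel) v15)

/-- **`s = 4`, `w = 3`**: `YY` visible; `YY → BY → BB → w_B → N` -/
theorem chYY3 (hs : s = 1 - θ 0 + (3 : ℤ) * θ 1) (h4 : s = 4) (h45 : HtQ lam {0} 4 5)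
    (h57 : HtQ lam {0, 4} 5 7) (h7B : LfQ lam {0, 2} 3 3 10) (hl : LfQ lam {0, 2, 7} 3 10 13)
    (hv : Vis lam {0} 4) : EndP s lam := by
  obtain rfl : Dr = ∅ := Dr_empty hD h4.ge
  have hN := fun i j h => NC.ne (i := i) (j := j) hs h1 hD
    (inR_pt (a := 4) (by push_cast; exact h4)) h
  have v5 : Vis lam {0} 5 := stepH' H hN h45 (by decide +kernel) hv
  have v7 : Vis lam {0, 4} 7 := stepH' H hN h57 (by decide +kernel) v5
  have v14 := stepL' H hN (X := 3) (F := 3) (q := 10) hB h7B (by decide +kernel) v7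
  exact endB h1 hD h2 h3 H hA hB hl hN (by decide +kernel) (by decide +kernel) v14

end chains

/-! ### the same chains over `Pin`, every flag of weight `≥ w` dropped -/

/-- side conditions of a leaf link of `Pin` -/
def OkP (Dr V : Finset (Fin 18)) (X : Fin 4) (F q : Fin 14) (n : ℤ) (e : ℕ) : Prop :=
  n ≠ 0 ∧ Disjoint V Dr ∧ Fin.natAdd 4 F ∉ Dr ∧ Fin.natAdd 4 q ∉ Dr ∧
  LeafDat {0} (V ∪ Dr) X F q n e ∧ UpW Dr V ∧
  UpW Dr (insert (Fin.natAdd 4 F) (insert (Fin.natAdd 4 q) V)) ∧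
  UpW Dr (insert (Fin.castAdd 14 X) (insert (Fin.natAdd 4 q) V)) ∧
  UpW Dr (insert (Fin.natAdd 4 F) (insert (Fin.castAdd 14 X) (insert (Fin.natAdd 4 q) V)))

instance (Dr V : Finset (Fin 18)) (X : Fin 4) (F q : Fin 14) (n : ℤ) (e : ℕ) :
    Decidable (OkP Dr V X F q n e) := by
  unfold OkP; infer_instance

theorem lfQ_of (H : Pin Dr T G m HT lam) {X : Fin 4} {F q : Fin 14} (n : ℤ) (e : ℕ)
    (ok : OkP Dr V X F q n e) : LfQ lam V X F q := by
  obtain ⟨h1, h2, h3, h4, h5, h6, h7, h8, h9⟩ := ok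
  exact H.leaf V X F q n e h1 h2 h3 h4 h5 h6 h7 h8 h9

theorem htQ_of (H : Pin Dr T G m HT lam) (h : HT V f k) : HtQ lam V f k := H.ht V f k h

section kchains

variable (H : Pin Dr T G m HT lam) (hT : ∀ i, i ∉ Dr → T i = wz i + s * wn i)
  (hp : ∀ i j, i ∉ Dr → j ∉ Dr → G i = G j → T i * tauW w j = T j * tauW w i)
  (h2 : 2 < s) (h3 : s ≠ 3) (hA : XF lam {0} 2) (hB : XF lam {0, 2} 3)
include H hT hp h2 h3 hA hB

omit H hp h2 h3 hA hB in
theorem T17 (h : (17 : Fin 18) ∉ Dr) : T 17 = s := by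
  rw [hT 17 h]
  have a : wz 17 = 0 := by decide
  have b : wn 17 = 1 := by decide
  rw [a, b]
  push_cast
  ring

/-- end of the chains from `w_B` -/
theorem kendB (h17 : (17 : Fin 18) ∉ Dr) {N : Fin 18 → Fin 18 → Prop}
    (hN : ∀ i j, N i j → G i ≠ G j) (h023 : UpW Dr ({0, 2, 3} : Finset (Fin 18)))
    (okp : OkP Dr {0, 2} 3 10 13 1 0)
    (ok : OkL N Dr {0, 2} W0 {0, 2} 3 10 13) (ok' : OkF N Dr {3, 0, 2})
    (hv : Vis lam W0 14) : ∃ C : ℝ, ∀ u : ℝ, 0 ≤ u → lam (u • T) ≤ -((3 + s) * u) + C :=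
  stepF (toD H h023) hN (T17 hT h17) hA hB ok'
    (stepL (toD H h023) hN (X := 3) (F := 10) (q := 13) hB (lfQ_of H 1 0 okp) ok hv)

/-- **`w = 3`**: `w_B` visible -/
theorem kch3 (hw : w = 3) (hD : s < 3 ∧ Dr = {4, 5, 6, 7, 8, 9} ∨ 3 < s ∧ Dr = {4, 5, 6, 7, 9})
    (hv : Vis lam {0} 14) : ∃ C : ℝ, ∀ u : ℝ, 0 ≤ u → lam (u • T) ≤ -((3 + s) * u) + C := by
  subst hw
  rcases hD with ⟨hs, rfl⟩ | ⟨hs, rfl⟩
  · rcases regs' h2 h3 with ⟨hs', hr⟩ | ⟨hs', hr⟩ | ⟨hs', hr⟩ | ⟨hs', hr⟩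
    · exact kendB H hT hp h2 h3 hA hB (by decide) (fun i j h => NC.ne' hT hp hr h) (by decide)
        (by decide +kernel) (by decide +kernel) (by decide +kernel) hv
    all_goals exact absurd hs (by linarith)
  · rcases regs' h2 h3 with ⟨hs', hr⟩ | ⟨hs', hr⟩ | ⟨hs', hr⟩ | ⟨hs', hr⟩
    · exact absurd hs (by linarith)
    all_goals
      exact kendB H hT hp h2 h3 hA hB (by decide) (fun i j h => NC.ne' hT hp hr h) (by decide)
        (by decide +kernel) (by decide +kernel) (by decide +kernel) hv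

/-- **`w = 2`**: `w_A` visible -/
theorem kch2A (hw : w = 2) (hD : Dr = {4, 5, 6, 7, 8, 9, 10, 11, 14})
    (hv : Vis lam {0} 15) : ∃ C : ℝ, ∀ u : ℝ, 0 ≤ u → lam (u • T) ≤ -((3 + s) * u) + C := by
  subst hw
  subst hD
  have hl : LfQ lam {0} 2 11 13 := lfQ_of H 1 0 (by decide +kernel)
  rcases regs' h2 h3 with ⟨hs', hr⟩ | ⟨hs', hr⟩ | ⟨hs', hr⟩ | ⟨hs', hr⟩
  all_goals
    have hN := fun i j h => NC.ne' (i := i) (j := j) hT hp hr h
    exact stepF (toD H (by decide)) hN (T17 hT (by decide)) hA hB (by decide +kernel)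
      (stepL (toD H (by decide)) hN (X := 2) (F := 11) (q := 13) hA hl (by decide +kernel) hv)

/-- **`w = 2`**: `zA` visible -/
theorem kch2z (hw : w = 2) (hD : Dr = {4, 5, 6, 7, 8, 9, 10, 11, 14})
    (hPN : HT {0, 1, 2, 3, 13} 16 17) (hv : Vis lam {0} 12) :
    ∃ C : ℝ, ∀ u : ℝ, 0 ≤ u → lam (u • T) ≤ -((3 + s) * u) + C := by
  subst hw
  subst hD
  have hl : LfQ lam {0, 1} 2 8 12 := lfQ_of H 1 0 (by decide +kernel)
  rcases regs' h2 h3 with ⟨hs', hr⟩ | ⟨hs', hr⟩ | ⟨hs', hr⟩ | ⟨hs', hr⟩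
  all_goals
    have hN := fun i j h => NC.ne' (i := i) (j := j) hT hp hr h
    exact stepF (toD H (by decide)) hN (T17 hT (by decide)) hA hB (by decide +kernel)
      (stepH (toD H (by decide)) hN (htQ_of H hPN) (by decide +kernel)
        (stepL' (toD H (by decide)) hN (X := 2) (F := 8) (q := 12) hA hl (by decide +kernel) hv))

/-- **`w = 4`**: `AB` visible -/
theorem kch4B (hw : w = 4) (h4 : s ≠ 4)
    (hD : s < 3 ∧ Dr = {4, 5, 6, 7, 8} ∨ 3 < s ∧ Dr = {4, 5, 7})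
    (hv : Vis lam {0} 9) : ∃ C : ℝ, ∀ u : ℝ, 0 ≤ u → lam (u • T) ≤ -((3 + s) * u) + C := by
  subst hw
  rcases hD with ⟨hs, rfl⟩ | ⟨hs, rfl⟩
  · have hl : LfQ lam {0} 2 5 10 := lfQ_of H 1 0 (by decide +kernel)
    rcases regs' h2 h3 with ⟨hs', hr⟩ | ⟨hs', hr⟩ | ⟨hs', hr⟩ | ⟨hs', hr⟩
    · have hN := fun i j h => NC.ne' (i := i) (j := j) hT hp hr h
      exact kendB H hT hp h2 h3 hA hB (by decide) hN (by decide)
        (by decide +kernel) (by decide +kernel) (by decide +kernel)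
        (stepL' (toD H (by decide)) hN (X := 2) (F := 5) (q := 10) hA hl (by decide +kernel) hv)
    all_goals exact absurd hs (by linarith)
  · have hl : LfQ lam {0} 2 5 10 := lfQ_of H 1 0 (by decide +kernel)
    rcases regs' h2 h3 with ⟨hs', hr⟩ | ⟨hs', hr⟩ | ⟨hs', hr⟩ | ⟨hs', hr⟩
    · exact absurd hs (by linarith)
    · have hN := fun i j h => NC.ne' (i := i) (j := j) hT hp hr h
      exact kendB H hT hp h2 h3 hA hB (by decide) hN (by decide)
        (by decide +kernel) (by decide +kernel) (by decide +kernel)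
        (stepL' (toD H (by decide)) hN (X := 2) (F := 5) (q := 10) hA hl (by decide +kernel) hv)
    · exact absurd hs' h4
    · have hN := fun i j h => NC.ne' (i := i) (j := j) hT hp hr h
      exact kendB H hT hp h2 h3 hA hB (by decide) hN (by decide)
        (by decide +kernel) (by decide +kernel) (by decide +kernel)
        (stepL' (toD H (by decide)) hN (X := 2) (F := 5) (q := 10) hA hl (by decide +kernel) hv)

/-- **`w = 4`**, `3 < s`: `AY` visible -/
theorem kch4Y (hw : w = 4) (h4 : s ≠ 4) (hs3 : 3 < s) (hD : Dr = {4, 5, 7})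
    (hYB : HT {0, 1, 2} 6 9)
    (hv : Vis lam {0} 6) : ∃ C : ℝ, ∀ u : ℝ, 0 ≤ u → lam (u • T) ≤ -((3 + s) * u) + C := by
  refine kch4B H hT hp h2 h3 hA hB hw h4 (Or.inr ⟨hs3, hD⟩) ?_
  subst hw
  subst hD
  rcases regs' h2 h3 with ⟨hs', hr⟩ | ⟨hs', hr⟩ | ⟨hs', hr⟩ | ⟨hs', hr⟩
  · exact absurd hs' (by linarith)
  · have hN := fun i j h => NC.ne' (i := i) (j := j) hT hp hr h
    have v9 := stepH' (toD H (by decide)) hN (htQ_of H hYB) (by decide +kernel) hv
    have ok : OkV (NC {4, 5, 7} (1, 3) (1, 4) 4) {4, 5, 7} {0, 1, 2} {0} 9 := by decide +kernel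
    exact H.tr_vis v9 ok.1 ok.2.1 (ok.2.2.same hN)
  · exact absurd hs' h4
  · have hN := fun i j h => NC.ne' (i := i) (j := j) hT hp hr h
    have v9 := stepH' (toD H (by decide)) hN (htQ_of H hYB) (by decide +kernel) hv
    have ok : OkV (NC {4, 5, 7} (1, 4) (0, 1) 4) {4, 5, 7} {0, 1, 2} {0} 9 := by decide +kernel
    exact H.tr_vis v9 ok.1 ok.2.1 (ok.2.2.same hN)

end kchains

/-! ### data of the height links (887's `HtDat`) -/

/-- `P → N`, `w = 2`: `O` without `z` and the slots of weight `w` -/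
theorem htPN2 : HtDat ({0, 1, 2, 3, 13} ∪ {4, 5, 6, 7, 8, 9, 10, 11, 14})
    (Finset.univ \ {0, 8, 10, 11, 14}) {4, 5, 6, 7, 9, 13} 12 13 1 0 := by decide +kernel

/-- `P → N`, `w = 2`, boxes of `ch2z` -/
theorem htPN_23 : HtDat ({0, 1, 2, 3, 13} ∪ {4, 5, 6, 8})
    (Finset.univ \ {0, 10, 11, 14}) {4, 5, 6, 8, 13} 12 13 1 0 := by decide +kernel
theorem htPN_34 : HtDat ({0, 1, 2, 3, 13} ∪ {4})
    (Finset.univ \ {0, 8, 10, 11, 14}) {4, 13} 12 13 1 0 := by decide +kernel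
theorem htPN_4 : HtDat ({0, 1, 2, 3, 13} ∪ ∅)
    (Finset.univ \ {0, 8, 10, 11, 14}) {13} 12 13 1 0 := by decide +kernel

/-- `AY → AB`, `w = 4`, box of `ch4Y'`: `O` without the slots of weight `w` -/
theorem htYB4' : HtDat ({0, 1, 2, 4, 5, 7} ∪ ∅) (Finset.univ \ {0, 4, 5, 7}) ∅ 2 5 1 0 := by
  decide +kernel
/-- `AY → AB`, `w = 4`, box of `ch4Y`: `O` with the slots of weight `w` -/
theorem htYB4o : HtDat ({0, 4, 5, 7} ∪ ∅) (Finset.univ \ {0}) {4, 5, 7} 2 5 1 0 := by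
  decide +kernel

/-- `AY → AB`, `w = 4`: `O` without `z` and the slots of weight `w` -/
theorem htYB4 : HtDat ({0, 1, 2} ∪ {4, 5, 7}) (Finset.univ \ {0, 4, 5, 7}) ∅ 2 5 1 0 := by
  decide +kernel

/-- `YY → BY`, `w = 2` -/
theorem ht45_2 : HtDat {0} (Finset.univ \ {0, 8, 10, 11, 14}) ∅ 0 1 2 0 := by decide +kernel

/-- `YY → BY`, `w = 3` -/
theorem ht45_3 : HtDat {0} (Finset.univ \ {0, 6, 9}) ∅ 0 1 2 0 := by decide +kernel

/-- `BY → BB`, `w = 3` -/
theorem ht57_3 : HtDat {0, 4} (Finset.univ \ {0, 6, 9}) {4} 1 3 1 0 := by decide +kernel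

/-- `BY → AB` via `A` -/
theorem lf59 : LeafDat {0} {0, 1} 2 1 5 2 1 := by decide +kernel

/-- `AB → w_A` via `B` -/
theorem lf9A : LeafDat {0} {0, 1, 2} 3 5 11 1 0 := by decide +kernel

/-- `BB → w_B` via `B` -/
theorem lf7B : LeafDat {0} {0, 2} 3 3 10 2 0 := by decide +kernel

end Crest.Agent.R136.Ch400
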