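import Mathlib
import Crest.Agent.R136.Rk3_601

/-!
# R136 (U4, PLAN 2 (3) = (AL)): moving the base point and changing the chart (helper862)

`sh q y w`     : jet of the same quadratic function at the point moved by `(y; w)`.
`pull c M G`   : jet of `c • (G ∘ affine map with linear part M)`.
* `tg_sh`, `th_sh`, `mn_sh`     : the tangential jet at the moved point. `κ` = size of the second form
  of the sheet; the mixed and normal second derivatives of `q' - μ q` may be as large as `N / κ`,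
  `N / κ ^ 2` (in the direction adapted to the sheet), the point moves along the sheet up to `κ δ`.
* `tg_pull`, `th_pull`, `mn_pull` : the tangential jet in the other chart.
* `th_swap` : roles of `q` and `q'` exchanged.
-/

set_option autoImplicit false

namespace Crest.Agent.R136.Chm862

open Crest.Agent.R136.Rk601

/-- gradient on the vector `(x0; x)` -/
noncomputable def gr (P : Jt) (x0 : ℝ) (x : Fin 3 → ℝ) : ℝ := P.a0 * x0 + ∑ i, P.a i * x i

/-- Hessian on two vectors -/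
noncomputable def hs (P : Jt) (x0 : ℝ) (x : Fin 3 → ℝ) (y0 : ℝ) (y : Fin 3 → ℝ) : ℝ :=
  P.h00 * (x0 * y0) + x0 * ∑ j, P.h0 j * y j + y0 * ∑ i, P.h0 i * x i +
    ∑ i, ∑ j, P.h i j * (x i * y j)

/-! ### moving the base point -/

/-- jet of the same (quadratic) function at the point moved by `(y; w)` -/
abbrev sh (P : Jt) (y : ℝ) (w : Fin 3 → ℝ) : Jt := P.shift y w

/-- mixed derivative in the direction tangent to the sheet -/
noncomputable def gm (q P : Jt) (i : Fin 3) : ℝ := P.h0 i + sl q i * P.h00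

/-- `q' - μ q` with the normal derivative `0` -/
noncomputable def df (q q' : Jt) : Jt := q'.addm (-(q'.a0 / q.a0)) q

theorem df_a0 {q q' : Jt} (h : q.a0 ≠ 0) : (df q q').a0 = 0 := by
  simp only [df, Jt.addm]; field_simp; ring

theorem df_a {q q' : Jt} (i : Fin 3) : (df q q').a i = tg q q' i := by
  simp only [df, Jt.addm, tg]; ring

theorem df_lf {q q' : Jt} (i j : Fin 3) : lf (df q q') (sl q) i j = th q q' i j := by
  simp only [df, Jt.addm, th, lf]; ring

theorem sh_addm (q q' : Jt) (k y : ℝ) (w : Fin 3 → ℝ) :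
    sh (q'.addm k q) y w = (sh q' y w).addm k (sh q y w) := by
  simp only [Jt.shift, dp, Jt.addm, Fin.sum_univ_three, Jt.mk.injEq, and_true]
  constructor
  · ring
  · funext i; ring

/-- `tg`, `th` at the moved point in terms of `df` -/
theorem tg_sh_df {q q' : Jt} {y : ℝ} {w : Fin 3 → ℝ} (h : (sh q y w).a0 ≠ 0) (i : Fin 3) :
    tg (sh q y w) (sh q' y w) i = tg (sh q y w) (sh (df q q') y w) i := by
  rw [df, sh_addm, tg_addm h]

theorem th_sh_df {q q' : Jt} {y : ℝ} {w : Fin 3 → ℝ} (h : (sh q y w).a0 ≠ 0) (i j : Fin 3) :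
    th (sh q y w) (sh q' y w) i j = th (sh q y w) (sh (df q q') y w) i j := by
  rw [df, sh_addm, th_addm h]

theorem sh_tan (q P : Jt) (w : Fin 3 → ℝ) (y : ℝ) (i : Fin 3) :
    (sh P y w).a i + sl q i * (sh P y w).a0 = (P.a i + sl q i * P.a0) +
      ∑ k, w k * lf P (sl q) i k + (y - ∑ k, sl q k * w k) * gm q P i := by
  simp only [Jt.shift, dp, lf, gm, Fin.sum_univ_three]
  ring

theorem sh_nor (q P : Jt) (w : Fin 3 → ℝ) (y : ℝ) :
    (sh P y w).a0 = P.a0 + ∑ k, w k * gm q P k + (y - ∑ k, sl q k * w k) * P.h00 := by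
  simp only [Jt.shift, dp, gm, Fin.sum_univ_three]
  ring

theorem sl_tan {q : Jt} (h : q.a0 ≠ 0) (i : Fin 3) : q.a i + sl q i * q.a0 = 0 := by
  unfold sl; field_simp; ring

/-- difference of the slopes -/
theorem sl_sh {q : Jt} {y : ℝ} {w : Fin 3 → ℝ} (h0 : q.a0 ≠ 0) (h : (sh q y w).a0 ≠ 0) (i : Fin 3) :
    (sl (sh q y w) i - sl q i) * (sh q y w).a0 = -(∑ k, w k * lf q (sl q) i k +
      (y - ∑ k, sl q k * w k) * gm q q i) := by
  have e1 := sh_tan q q w y i
  rw [sl_tan h0] at e1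
  have e2 := sl_tan h i
  linarith

theorem sum3_le {f : Fin 3 → ℝ} {B : ℝ} (h : ∀ i, |f i| ≤ B) : |∑ i, f i| ≤ 3 * B := by
  rw [Fin.sum_univ_three]
  have := abs_add_three (f 0) (f 1) (f 2)
  linarith [h 0, h 1, h 2]

theorem lf_add (P : Jt) (s σ : Fin 3 → ℝ) (i j : Fin 3) :
    lf P (fun i => s i + σ i) i j = lf P s i j + σ j * (P.h0 i + s i * P.h00) +
      σ i * (P.h0 j + s j * P.h00) + P.h00 * (σ i * σ j) := by
  unfold lf; ring

section shift

variable {q q' : Jt} {y : ℝ} {w : Fin 3 → ℝ} {K κ δ N R : ℝ}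

/-- hypotheses for the move of the base point; `R` = size of `q` -/
structure Mv (q q' : Jt) (y : ℝ) (w : Fin 3 → ℝ) (K κ δ N R : ℝ) : Prop where
  K1 : 1 ≤ K
  R0 : 0 < R
  κ0 : 0 ≤ κ
  κ1 : κ ≤ 1
  δ0 : 0 ≤ δ
  δ1 : δ ≤ 1
  q0 : q.a0 ≠ 0
  q1 : R / K ≤ |(sh q y w).a0|
  hw : ∀ k, |w k| ≤ δ
  hy : |y - ∑ k, sl q k * w k| ≤ κ * δ
  hq : ∀ i j, |lf q (sl q) i j| ≤ K * κ * R
  hg : ∀ i, |gm q q i| ≤ K * R
  h00 : |q.h00| ≤ K * R
  hN : ∀ i j, |th q q' i j| ≤ N
  hNg : ∀ i, κ * |gm q (df q q') i| ≤ N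
  hN0 : κ ^ 2 * |(df q q').h00| ≤ N

theorem Mv.ne (H : Mv q q' y w K κ δ N R) : (sh q y w).a0 ≠ 0 := by
  intro h
  have h1 := H.q1
  rw [h, abs_zero] at h1
  have : 0 < R / K := div_pos H.R0 (by have := H.K1; linarith)
  linarith

theorem Mv.sl_le (H : Mv q q' y w K κ δ N R) (i : Fin 3) :
    |sl (sh q y w) i - sl q i| ≤ 4 * K ^ 2 * (κ * δ) := by
  have hK := H.K1
  have hK0 : (0 : ℝ) < K := by linarith
  have hκ := H.κ0
  have hδ := H.δ0
  have e := sl_sh H.q0 H.ne i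
  have hR := H.R0
  have h1 : |∑ k, w k * lf q (sl q) i k| ≤ 3 * (δ * (K * κ * R)) := by
    refine sum3_le fun k => ?_
    rw [abs_mul]
    exact mul_le_mul (H.hw k) (H.hq i k) (abs_nonneg _) hδ
  have h2 : |(y - ∑ k, sl q k * w k) * gm q q i| ≤ κ * δ * (K * R) := by
    rw [abs_mul]
    exact mul_le_mul H.hy (H.hg i) (abs_nonneg _) (by positivity)
  have h3 : |sl (sh q y w) i - sl q i| * |(sh q y w).a0| ≤ 4 * K * (κ * δ) * R := by
    rw [← abs_mul, e, abs_neg]
    refine (abs_add_le _ _).trans ?_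
    linarith
  have h4 : |sl (sh q y w) i - sl q i| * (R / K) ≤ 4 * K * (κ * δ) * R :=
    (mul_le_mul_of_nonneg_left H.q1 (abs_nonneg _)).trans h3
  have h5 : |sl (sh q y w) i - sl q i| * R ≤ 4 * K ^ 2 * (κ * δ) * R := by
    have h6 := mul_le_mul_of_nonneg_right h4 hK0.le
    calc |sl (sh q y w) i - sl q i| * R = |sl (sh q y w) i - sl q i| * (R / K) * K := by
          field_simp
      _ ≤ 4 * K * (κ * δ) * R * K := h6
      _ = _ := by ring
  exact le_of_mul_le_mul_right h5 hR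

theorem Mv.nor_le (H : Mv q q' y w K κ δ N R) : κ * |(sh (df q q') y w).a0| ≤ 4 * (δ * N) := by
  have hκ := H.κ0
  have hδ := H.δ0
  rw [sh_nor q, df_a0 H.q0, zero_add]
  have h1 : |∑ k, (κ * (w k * gm q (df q q') k))| ≤ 3 * (δ * N) := by
    refine sum3_le fun k => ?_
    have : κ * (w k * gm q (df q q') k) = w k * (κ * gm q (df q q') k) := by ring
    rw [this, abs_mul]
    refine mul_le_mul (H.hw k) ?_ (abs_nonneg _) hδ
    rw [abs_mul, abs_of_nonneg hκ]; exact H.hNg k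
  have h2 : |κ * ((y - ∑ k, sl q k * w k) * (df q q').h00)| ≤ δ * N := by
    rw [abs_mul, abs_mul, abs_of_nonneg hκ]
    calc κ * (|y - ∑ k, sl q k * w k| * |(df q q').h00|) ≤ κ * (κ * δ * |(df q q').h00|) := by
          gcongr; exact H.hy
      _ = δ * (κ ^ 2 * |(df q q').h00|) := by ring
      _ ≤ δ * N := mul_le_mul_of_nonneg_left H.hN0 hδ
  have h3 : κ * |∑ k, w k * gm q (df q q') k + (y - ∑ k, sl q k * w k) * (df q q').h00| =
      |∑ k, (κ * (w k * gm q (df q q') k)) + κ * ((y - ∑ k, sl q k * w k) * (df q q').h00)| := by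
    rw [← Finset.mul_sum, ← mul_add, abs_mul, abs_of_nonneg hκ]
  rw [h3]
  refine (abs_add_le _ _).trans ?_
  linarith

/-- **the tangential gradient at the moved point** -/
theorem Mv.tg_le (H : Mv q q' y w K κ δ N R) (i : Fin 3) :
    |tg (sh q y w) (sh q' y w) i - tg q q' i| ≤ 20 * K ^ 2 * (N * δ) := by
  have hK := H.K1
  have hK0 : (0 : ℝ) < K := by linarith
  have hK2 : 1 ≤ K ^ 2 := one_le_pow₀ hK
  have hκ := H.κ0
  have hδ := H.δ0
  have hN : 0 ≤ N := (abs_nonneg _).trans (H.hN 0 0)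
  rw [tg_sh_df H.ne]
  set P := df q q' with hP
  have e1 : tg (sh q y w) (sh P y w) i =
      (sh P y w).a i + sl q i * (sh P y w).a0 + (sl (sh q y w) i - sl q i) * (sh P y w).a0 := by
    unfold tg sl; field_simp; ring
  have e2 := sh_tan q P w y i
  rw [hP, df_a0 H.q0, df_a, mul_zero, add_zero, ← hP] at e2
  have e3 : tg (sh q y w) (sh P y w) i - tg q q' i = ∑ k, w k * lf P (sl q) i k +
      (y - ∑ k, sl q k * w k) * gm q P i + (sl (sh q y w) i - sl q i) * (sh P y w).a0 := by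
    rw [e1, e2]; ring
  rw [e3]
  have h1 : |∑ k, w k * lf P (sl q) i k| ≤ 3 * (δ * N) := by
    refine sum3_le fun k => ?_
    rw [hP, df_lf, abs_mul]
    exact mul_le_mul (H.hw k) (H.hN i k) (abs_nonneg _) hδ
  have h2 : |(y - ∑ k, sl q k * w k) * gm q P i| ≤ δ * N := by
    rw [abs_mul]
    calc |y - ∑ k, sl q k * w k| * |gm q P i| ≤ κ * δ * |gm q P i| :=
          mul_le_mul_of_nonneg_right H.hy (abs_nonneg _)
      _ = δ * (κ * |gm q P i|) := by ring
      _ ≤ δ * N := mul_le_mul_of_nonneg_left (H.hNg i) hδ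
  have h3 : |(sl (sh q y w) i - sl q i) * (sh P y w).a0| ≤ 16 * K ^ 2 * (N * δ) := by
    rw [abs_mul]
    calc |sl (sh q y w) i - sl q i| * |(sh P y w).a0| ≤ 4 * K ^ 2 * (κ * δ) * |(sh P y w).a0| :=
          mul_le_mul_of_nonneg_right (H.sl_le i) (abs_nonneg _)
      _ = 4 * K ^ 2 * δ * (κ * |(sh P y w).a0|) := by ring
      _ ≤ 4 * K ^ 2 * δ * (4 * (δ * N)) := mul_le_mul_of_nonneg_left H.nor_le (by positivity)
      _ = 16 * K ^ 2 * (N * δ) * δ := by ring
      _ ≤ 16 * K ^ 2 * (N * δ) * 1 := mul_le_mul_of_nonneg_left H.δ1 (by positivity)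
      _ = _ := by ring
  have h4 : N * δ ≤ K ^ 2 * (N * δ) := le_mul_of_one_le_left (by positivity) hK2
  have h5 := abs_add_three (∑ k, w k * lf P (sl q) i k) ((y - ∑ k, sl q k * w k) * gm q P i)
    ((sl (sh q y w) i - sl q i) * (sh P y w).a0)
  nlinarith

/-- **the tangential Hessian at the moved point** -/
theorem Mv.th_le (H : Mv q q' y w K κ δ N R) (i j : Fin 3) :
    |th (sh q y w) (sh q' y w) i j - th q q' i j| ≤ 124 * K ^ 6 * (N * δ) := by
  have hK := H.K1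
  have hK0 : (0 : ℝ) < K := by linarith
  have hκ := H.κ0
  have hκ1 := H.κ1
  have hδ := H.δ0
  have hδ1 := H.δ1
  have hN : 0 ≤ N := (abs_nonneg _).trans (H.hN 0 0)
  rw [th_sh_df H.ne]
  set P := df q q' with hP
  set σ : Fin 3 → ℝ := fun i => sl (sh q y w) i - sl q i with hσ
  have hs : sl (sh q y w) = fun i => sl q i + σ i := by funext i; simp only [hσ]; ring
  have hσb : ∀ i, |σ i| ≤ 4 * K ^ 2 * (κ * δ) := fun i => H.sl_le i
  have elf : ∀ s, lf (sh P y w) s i j = lf P s i j := fun s => rfl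
  have elq : ∀ s, lf (sh q y w) s i j = lf q s i j := fun s => rfl
  have e1 : th (sh q y w) (sh P y w) i j - th q q' i j = σ j * gm q P i + σ i * gm q P j +
      P.h00 * (σ i * σ j) - (sh P y w).a0 / (sh q y w).a0 * lf q (sl (sh q y w)) i j := by
    unfold th
    rw [elf, elq]
    have : lf q' (sl q) i j - q'.a0 / q.a0 * lf q (sl q) i j = lf P (sl q) i j := by
      rw [hP, df_lf]; rfl
    rw [this, hs, lf_add P]
    simp only [gm]
    ring
  rw [e1]
  -- bounds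
  have hg : ∀ i j, |σ j * gm q P i| ≤ 4 * K ^ 2 * (δ * N) := fun i j => by
    rw [abs_mul]
    calc |σ j| * |gm q P i| ≤ 4 * K ^ 2 * (κ * δ) * |gm q P i| :=
          mul_le_mul_of_nonneg_right (hσb j) (abs_nonneg _)
      _ = 4 * K ^ 2 * δ * (κ * |gm q P i|) := by ring
      _ ≤ 4 * K ^ 2 * δ * N := mul_le_mul_of_nonneg_left (H.hNg i) (by positivity)
      _ = _ := by ring
  have hss : |σ i * σ j| ≤ 16 * K ^ 4 * (κ ^ 2 * δ ^ 2) := by
    rw [abs_mul]
    calc |σ i| * |σ j| ≤ (4 * K ^ 2 * (κ * δ)) * (4 * K ^ 2 * (κ * δ)) :=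
          mul_le_mul (hσb i) (hσb j) (abs_nonneg _) (by positivity)
      _ = _ := by ring
  have hδ2 : δ ^ 2 ≤ δ := by nlinarith
  have h0 : |P.h00 * (σ i * σ j)| ≤ 16 * K ^ 4 * (δ * N) := by
    rw [abs_mul]
    calc |P.h00| * |σ i * σ j| ≤ |P.h00| * (16 * K ^ 4 * (κ ^ 2 * δ ^ 2)) :=
          mul_le_mul_of_nonneg_left hss (abs_nonneg _)
      _ = 16 * K ^ 4 * δ ^ 2 * (κ ^ 2 * |P.h00|) := by ring
      _ ≤ 16 * K ^ 4 * δ * N := by
          refine mul_le_mul ?_ H.hN0 (by positivity) (by positivity)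
          exact mul_le_mul_of_nonneg_left hδ2 (by positivity)
      _ = _ := by ring
  have hR := H.R0
  have hκR : 0 ≤ κ * R := by positivity
  have hlq : |lf q (sl (sh q y w)) i j| ≤ 25 * K ^ 5 * κ * R := by
    rw [hs, lf_add q]
    have a1 := H.hq i j
    have a2 : |σ j * (q.h0 i + sl q i * q.h00)| ≤ 4 * K ^ 3 * (κ * R) := by
      rw [abs_mul]
      calc |σ j| * |gm q q i| ≤ 4 * K ^ 2 * (κ * δ) * (K * R) :=
            mul_le_mul (hσb j) (H.hg i) (abs_nonneg _) (by positivity)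
        _ = 4 * K ^ 3 * (κ * R) * δ := by ring
        _ ≤ 4 * K ^ 3 * (κ * R) * 1 := mul_le_mul_of_nonneg_left hδ1 (by positivity)
        _ = _ := by ring
    have a3 : |σ i * (q.h0 j + sl q j * q.h00)| ≤ 4 * K ^ 3 * (κ * R) := by
      rw [abs_mul]
      calc |σ i| * |gm q q j| ≤ 4 * K ^ 2 * (κ * δ) * (K * R) :=
            mul_le_mul (hσb i) (H.hg j) (abs_nonneg _) (by positivity)
        _ = 4 * K ^ 3 * (κ * R) * δ := by ring
        _ ≤ 4 * K ^ 3 * (κ * R) * 1 := mul_le_mul_of_nonneg_left hδ1 (by positivity)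
        _ = _ := by ring
    have a4 : |q.h00 * (σ i * σ j)| ≤ 16 * K ^ 5 * (κ * R) := by
      rw [abs_mul]
      calc |q.h00| * |σ i * σ j| ≤ (K * R) * (16 * K ^ 4 * (κ ^ 2 * δ ^ 2)) :=
            mul_le_mul H.h00 hss (abs_nonneg _) (by positivity)
        _ = 16 * K ^ 5 * (κ * R) * (κ * δ ^ 2) := by ring
        _ ≤ 16 * K ^ 5 * (κ * R) * 1 := by
            refine mul_le_mul_of_nonneg_left ?_ (by positivity)
            have : δ ^ 2 ≤ 1 := hδ2.trans hδ1
            nlinarith [sq_nonneg δ]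
        _ = _ := by ring
    have b1 : K ≤ K ^ 5 := le_self_pow₀ hK (by norm_num)
    have b2 : K ^ 3 ≤ K ^ 5 := pow_le_pow_right₀ hK (by norm_num)
    have c1 : K * (κ * R) ≤ K ^ 5 * (κ * R) := mul_le_mul_of_nonneg_right b1 hκR
    have c2 : K ^ 3 * (κ * R) ≤ K ^ 5 * (κ * R) := mul_le_mul_of_nonneg_right b2 hκR
    have c3 : |lf q (sl q) i j + σ j * (q.h0 i + sl q i * q.h00) +
        σ i * (q.h0 j + sl q j * q.h00) + q.h00 * (σ i * σ j)| ≤ |lf q (sl q) i j| +
        |σ j * (q.h0 i + sl q i * q.h00)| + |σ i * (q.h0 j + sl q j * q.h00)| +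
        |q.h00 * (σ i * σ j)| :=
      (abs_add_le _ _).trans (add_le_add_left ((abs_add_three _ _ _)) _)
    linarith
  have hK' : 1 / |(sh q y w).a0| ≤ K / R := by
    have hp : 0 < |(sh q y w).a0| := abs_pos.2 H.ne
    rw [div_le_div_iff₀ hp hR, one_mul]
    have h7 := mul_le_mul_of_nonneg_left H.q1 hK0.le
    rwa [mul_div_cancel₀ _ hK0.ne'] at h7
  have hlast : |(sh P y w).a0 / (sh q y w).a0 * lf q (sl (sh q y w)) i j| ≤
      100 * K ^ 6 * (δ * N) := by
    rw [abs_mul, abs_div, div_eq_mul_one_div]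
    calc |(sh P y w).a0| * (1 / |(sh q y w).a0|) * |lf q (sl (sh q y w)) i j| ≤
          |(sh P y w).a0| * (K / R) * (25 * K ^ 5 * κ * R) := by gcongr
      _ = |(sh P y w).a0| * K * (25 * K ^ 5 * κ) := by field_simp
      _ = 25 * K ^ 6 * (κ * |(sh P y w).a0|) := by ring
      _ ≤ 25 * K ^ 6 * (4 * (δ * N)) := mul_le_mul_of_nonneg_left H.nor_le (by positivity)
      _ = _ := by ring
  have b1 : K ^ 2 ≤ K ^ 6 := pow_le_pow_right₀ hK (by norm_num)
  have b2 : K ^ 4 ≤ K ^ 6 := pow_le_pow_right₀ hK (by norm_num)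
  have hδN : 0 ≤ δ * N := by positivity
  have c1 : K ^ 2 * (δ * N) ≤ K ^ 6 * (δ * N) := mul_le_mul_of_nonneg_right b1 hδN
  have c2 : K ^ 4 * (δ * N) ≤ K ^ 6 * (δ * N) := mul_le_mul_of_nonneg_right b2 hδN
  have h5 := abs_add_three (σ j * gm q P i) (σ i * gm q P j) (P.h00 * (σ i * σ j))
  have h6 := abs_sub (σ j * gm q P i + σ i * gm q P j + P.h00 * (σ i * σ j))
    ((sh P y w).a0 / (sh q y w).a0 * lf q (sl (sh q y w)) i j)
  have h7 := hg i j
  have h8 := hg j i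
  linarith

/-- the minors at the moved point -/
theorem Mv.mn_le (H : Mv q q' y w K κ δ N R) (i j k l : Fin 3) :
    |mn (th (sh q y w) (sh q' y w)) i j k l - mn (th q q') i j k l| ≤
      62000 * K ^ 12 * (N ^ 2 * δ) := by
  have hK := H.K1
  have hK0 : (0 : ℝ) < K := by linarith
  have hδ := H.δ0
  have hN : 0 ≤ N := (abs_nonneg _).trans (H.hN 0 0)
  have hK6 : 1 ≤ K ^ 6 := one_le_pow₀ hK
  have h1 : ∀ i j, |th (sh q y w) (sh q' y w) i j| ≤ 125 * K ^ 6 * N := fun i j => by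
    have h := H.th_le i j
    have h2 := H.hN i j
    have h3 := abs_sub_abs_le_abs_sub (th (sh q y w) (sh q' y w) i j) (th q q' i j)
    have h4 : K ^ 6 * (N * δ) ≤ K ^ 6 * N := by
      have := mul_le_mul_of_nonneg_left H.δ1 hN
      rw [mul_one] at this
      exact mul_le_mul_of_nonneg_left this (by positivity)
    have h5 : N ≤ K ^ 6 * N := le_mul_of_one_le_left hN hK6
    linarith
  have h2 : ∀ i j, |th q q' i j| ≤ 125 * K ^ 6 * N := fun i j => by
    have h5 : N ≤ K ^ 6 * N := le_mul_of_one_le_left hN hK6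
    have := H.hN i j
    have : 0 ≤ K ^ 6 * N := by positivity
    linarith
  refine (mn_sub_le h1 h2 H.th_le i j k l).trans (le_of_eq ?_)
  ring

end shift

/-! ### displacement along a sheet -/

/-- increment of `q` in adapted coordinates -/
theorem incr_eq {q : Jt} (hs : q.Sym) (h0 : q.a0 ≠ 0) (y : ℝ) (w : Fin 3 → ℝ) :
    q.a0 * y + dp q.a w + 1 / 2 * (q.h00 * y ^ 2 + 2 * y * dp q.h0 w + qf q.h w) =
      q.a0 * (y - ∑ k, sl q k * w k) + 1 / 2 * (∑ i, ∑ j, w i * w j * lf q (sl q) i j +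
        2 * (y - ∑ k, sl q k * w k) * ∑ i, w i * gm q q i +
        (y - ∑ k, sl q k * w k) ^ 2 * q.h00) := by
  have e : ∀ k, q.a k = -(sl q k * q.a0) := fun k => by have := sl_tan h0 k; linarith
  simp only [dp, qf, lf, gm, Fin.sum_univ_three]
  rw [e 0, e 1, e 2, hs 1 0, hs 2 0, hs 2 1]
  ring

/-- **displacement along the sheet** : if `q` changes by at most `α` between the two points then the
second point is within `2 K (α / R) + 9 K² κ δ²` of the tangent space. -/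
theorem disp_le {q : Jt} {y : ℝ} {w : Fin 3 → ℝ} {K κ δ R α : ℝ} (hs : q.Sym) (hK : 1 ≤ K)
    (hR : 0 < R) (hδ : 0 ≤ δ) (h0 : R / K ≤ |q.a0|) (hw : ∀ k, |w k| ≤ δ)
    (hq : ∀ i j, |lf q (sl q) i j| ≤ K * κ * R) (hg : ∀ i, |gm q q i| ≤ K * R)
    (h00 : |q.h00| ≤ K * R) (hδ' : 12 * K ^ 2 * δ ≤ 1)
    (he : 2 * K ^ 2 * |y - ∑ k, sl q k * w k| ≤ 1)
    (hα : |q.a0 * y + dp q.a w + 1 / 2 * (q.h00 * y ^ 2 + 2 * y * dp q.h0 w + qf q.h w)| ≤
      α * R) :
    |y - ∑ k, sl q k * w k| ≤ 2 * K * α + 9 * K ^ 2 * κ * δ ^ 2 := by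
  have hK0 : (0 : ℝ) < K := by linarith
  have hne : q.a0 ≠ 0 := by
    intro h; rw [h, abs_zero] at h0
    have : 0 < R / K := div_pos hR hK0
    linarith
  rw [incr_eq hs hne] at hα
  set e := y - ∑ k, sl q k * w k with he'
  have h1 : |∑ i, ∑ j, w i * w j * lf q (sl q) i j| ≤ 9 * (δ * δ * (K * κ * R)) := by
    have h9 : ∀ i, |∑ j, w i * w j * lf q (sl q) i j| ≤ 3 * (δ * δ * (K * κ * R)) := fun i => by
      refine sum3_le fun j => ?_
      rw [abs_mul, abs_mul]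
      exact mul_le_mul (mul_le_mul (hw i) (hw j) (abs_nonneg _) hδ) (hq i j) (abs_nonneg _)
        (by positivity)
    have := sum3_le h9
    linarith
  have h2 : |∑ i, w i * gm q q i| ≤ 3 * (δ * (K * R)) := by
    refine sum3_le fun j => ?_
    rw [abs_mul]
    exact mul_le_mul (hw j) (hg j) (abs_nonneg _) hδ
  have h3 : |2 * e * ∑ i, w i * gm q q i| ≤ 2 * |e| * (3 * (δ * (K * R))) := by
    rw [abs_mul, abs_mul, abs_two]
    exact mul_le_mul_of_nonneg_left h2 (by positivity)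
  have h4 : |e ^ 2 * q.h00| ≤ |e| ^ 2 * (K * R) := by
    rw [abs_mul, abs_pow]
    exact mul_le_mul_of_nonneg_left h00 (by positivity)
  have h5 : |e| * |q.a0| ≤ α * R + 1 / 2 * (9 * (δ * δ * (K * κ * R)) +
      2 * |e| * (3 * (δ * (K * R))) + |e| ^ 2 * (K * R)) := by
    rw [← abs_mul]
    set A := ∑ i, ∑ j, w i * w j * lf q (sl q) i j
    set B := ∑ i, w i * gm q q i
    have e1 : e * q.a0 = (q.a0 * e + 1 / 2 * (A + 2 * e * B + e ^ 2 * q.h00)) +
        -(1 / 2 * (A + 2 * e * B + e ^ 2 * q.h00)) := by ring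
    rw [e1]
    refine (abs_add_le _ _).trans (add_le_add hα ?_)
    rw [abs_neg, abs_mul, abs_of_pos (by norm_num : (0:ℝ) < 1 / 2)]
    refine mul_le_mul_of_nonneg_left ?_ (by norm_num)
    refine (abs_add_three _ _ _).trans ?_
    linarith
  have h6 : |e| * (R / K) ≤ |e| * |q.a0| := mul_le_mul_of_nonneg_left h0 (abs_nonneg _)
  -- divide by `R`
  have he0 := abs_nonneg e
  have h7 : |e| * (R / K) * K = |e| * R := by field_simp
  have h8 : |e| * R ≤ (K * α + 9 / 2 * K ^ 2 * κ * δ ^ 2 + 3 * K ^ 2 * δ * |e| +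
      1 / 2 * K ^ 2 * |e| * |e|) * R := by
    rw [← h7]
    calc |e| * (R / K) * K ≤ (α * R + 1 / 2 * (9 * (δ * δ * (K * κ * R)) +
          2 * |e| * (3 * (δ * (K * R))) + |e| ^ 2 * (K * R))) * K :=
          mul_le_mul_of_nonneg_right (h6.trans h5) hK0.le
      _ = _ := by ring
  have h9 := le_of_mul_le_mul_right h8 hR
  have h10 : 3 * K ^ 2 * δ * |e| ≤ 1 / 4 * |e| := by nlinarith
  have h11 : 1 / 2 * K ^ 2 * |e| * |e| ≤ 1 / 4 * |e| := by nlinarith
  linarith

/-! ### affine change of the chart -/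

/-- linear map of `ℝ × ℝ³`: `e_y ↦ (m00; mC)`, `e_i ↦ (mR i; mm · i)` -/
structure Lm where
  m00 : ℝ
  mR : Fin 3 → ℝ
  mC : Fin 3 → ℝ
  mm : Fin 3 → Fin 3 → ℝ

/-- jet of `c • (G ∘ affine map with linear part L)` -/
noncomputable def pull (c : ℝ) (L : Lm) (G : Jt) : Jt where
  a0 := c * gr G L.m00 L.mC
  a := fun i => c * gr G (L.mR i) (fun k => L.mm k i)
  h00 := c * hs G L.m00 L.mC L.m00 L.mC
  h0 := fun i => c * hs G L.m00 L.mC (L.mR i) (fun k => L.mm k i)
  h := fun i j => c * hs G (L.mR i) (fun k => L.mm k i) (L.mR j) (fun k => L.mm k j)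

/-- tangential matrix of the change of the chart -/
noncomputable def tm (c : ℝ) (L : Lm) (G : Jt) (k i : Fin 3) : ℝ :=
  L.mm k i + L.mC k * sl (pull c L G) i

theorem gr_comb (P : Jt) (x0 z0 s : ℝ) (x z : Fin 3 → ℝ) :
    gr P (x0 + s * z0) (fun k => x k + z k * s) = gr P x0 x + s * gr P z0 z := by
  simp only [gr, Fin.sum_univ_three]; ring

/-- the image of a tangent vector is tangent -/
theorem im_tan {c : ℝ} {L : Lm} {G : Jt} (hc : c ≠ 0) (h0 : G.a0 ≠ 0) (h : (pull c L G).a0 ≠ 0)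
    (i : Fin 3) : L.mR i + sl (pull c L G) i * L.m00 = ∑ k, sl G k * tm c L G k i := by
  have e1 := sl_tan h i
  have e2 := gr_comb G (L.mR i) L.m00 (sl (pull c L G) i) (fun k => L.mm k i) L.mC
  have e3 : gr G (L.mR i + sl (pull c L G) i * L.m00) (fun k => L.mm k i +
      L.mC k * sl (pull c L G) i) = 0 := by
    rw [e2]
    have e4 : (pull c L G).a i = c * gr G (L.mR i) (fun k => L.mm k i) := rfl
    have e5 : (pull c L G).a0 = c * gr G L.m00 L.mC := rfl
    rw [e4, e5] at e1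
    have e6 : c * (gr G (L.mR i) (fun k => L.mm k i) + sl (pull c L G) i * gr G L.m00 L.mC) = 0 := by
      rw [← e1]; ring
    exact (mul_eq_zero.1 e6).resolve_left hc
  simp only [gr] at e3
  have e7 : ∀ k, G.a k = -(sl G k * G.a0) := fun k => by have := sl_tan h0 k; linarith
  simp only [Fin.sum_univ_three] at e3
  rw [e7 0, e7 1, e7 2] at e3
  have e8 : G.a0 * (L.mR i + sl (pull c L G) i * L.m00 - ∑ k, sl G k * tm c L G k i) = 0 := by
    simp only [tm, Fin.sum_univ_three]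
    linear_combination e3
  have := (mul_eq_zero.1 e8).resolve_left h0
  linarith

theorem gr_tan (q P : Jt) {x0 : ℝ} {x : Fin 3 → ℝ} (h : x0 = ∑ k, sl q k * x k) :
    gr P x0 x = ∑ k, x k * (P.a k + sl q k * P.a0) := by
  rw [h]; simp only [gr, Fin.sum_univ_three]; ring

theorem hs_tan (q P : Jt) {x0 y0 : ℝ} {x y : Fin 3 → ℝ} (hx : x0 = ∑ k, sl q k * x k)
    (hy : y0 = ∑ k, sl q k * y k) :
    hs P x0 x y0 y = ∑ k, ∑ l, x k * y l * lf P (sl q) k l := by
  rw [hx, hy]; simp only [hs, lf, Fin.sum_univ_three]; ring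

theorem tg_eq {q q' : Jt} (i : Fin 3) : tg q q' i = q'.a i + sl q i * q'.a0 := by
  unfold tg sl; ring

/-- **tangential gradient in the other chart** -/
theorem tg_pull {c : ℝ} {L : Lm} {G G' : Jt} (hc : c ≠ 0) (h0 : G.a0 ≠ 0)
    (h : (pull c L G).a0 ≠ 0) (i : Fin 3) :
    tg (pull c L G) (pull c L G') i = c * ∑ k, tm c L G k i * tg G G' k := by
  rw [tg_eq]
  have e1 : (pull c L G').a i + sl (pull c L G) i * (pull c L G').a0 =
      c * gr G' (L.mR i + sl (pull c L G) i * L.m00)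
        (fun k => L.mm k i + L.mC k * sl (pull c L G) i) := by
    rw [gr_comb]
    show c * gr G' (L.mR i) (fun k => L.mm k i) + sl (pull c L G) i * (c * gr G' L.m00 L.mC) = _
    ring
  have e2 := gr_tan G G' (im_tan hc h0 h i)
  have e3 : gr G' (L.mR i + sl (pull c L G) i * L.m00)
      (fun k => L.mm k i + L.mC k * sl (pull c L G) i) = ∑ k, tm c L G k i * tg G G' k := by
    refine e2.trans (Finset.sum_congr rfl fun k _ => ?_)
    rw [tg_eq]
  rw [e1, e3]

theorem hs_comb (P : Jt) (x0 z0 s x0' s' : ℝ) (x x' z : Fin 3 → ℝ) :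
    hs P (x0 + s * z0) (fun k => x k + z k * s) (x0' + s' * z0) (fun k => x' k + z k * s') =
      hs P x0 x x0' x' + hs P z0 z x0 x * s' + hs P z0 z x0' x' * s + hs P z0 z z0 z * (s * s') +
      s' * (hs P x0 x z0 z - hs P z0 z x0 x) := by
  simp only [hs, Fin.sum_univ_three]; ring

theorem hs_symm {P : Jt} (hP : ∀ i j, P.h i j = P.h j i) (x0 : ℝ) (x : Fin 3 → ℝ) (y0 : ℝ)
    (y : Fin 3 → ℝ) : hs P x0 x y0 y = hs P y0 y x0 x := by
  simp only [hs, Fin.sum_univ_three]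
  rw [hP 1 0, hP 2 0, hP 2 1]; ring

/-- second form of the pulled function on tangent vectors -/
theorem lf_pull {c : ℝ} {L : Lm} {G P : Jt} (hP : ∀ i j, P.h i j = P.h j i) (hc : c ≠ 0)
    (h0 : G.a0 ≠ 0) (h : (pull c L G).a0 ≠ 0) (i j : Fin 3) :
    lf (pull c L P) (sl (pull c L G)) i j =
      c * ∑ k, ∑ l, tm c L G k i * tm c L G l j * lf P (sl G) k l := by
  have e0 : lf (pull c L P) (sl (pull c L G)) i j =
      c * hs P (L.mR i + sl (pull c L G) i * L.m00) (fun k => L.mm k i + L.mC k * sl (pull c L G) i)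
        (L.mR j + sl (pull c L G) j * L.m00) (fun k => L.mm k j + L.mC k * sl (pull c L G) j) := by
    rw [hs_comb, hs_symm hP (L.mR i) _ L.m00]
    simp only [lf, pull]
    ring
  rw [e0]
  exact congrArg (c * ·) (hs_tan G P (im_tan hc h0 h i) (im_tan hc h0 h j))

/-- quotient of the normal derivatives in the two charts -/
theorem mu_pull {c : ℝ} {L : Lm} {G G' : Jt} (hc : c ≠ 0) (h0 : G.a0 ≠ 0)
    (h : (pull c L G).a0 ≠ 0) :
    (pull c L G').a0 / (pull c L G).a0 = G'.a0 / G.a0 +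
      (∑ k, tg G G' k * L.mC k) / gr G L.m00 L.mC := by
  have e1 : (pull c L G).a0 = c * gr G L.m00 L.mC := rfl
  have hg : gr G L.m00 L.mC ≠ 0 := by
    intro h1; apply h; rw [e1, h1, mul_zero]
  have e2 : gr G' L.m00 L.mC = G'.a0 / G.a0 * gr G L.m00 L.mC + ∑ k, tg G G' k * L.mC k := by
    simp only [gr, tg, Fin.sum_univ_three]
    field_simp
    ring
  show c * gr G' L.m00 L.mC / (c * gr G L.m00 L.mC) = _
  rw [mul_div_mul_left _ _ hc, e2, add_div, mul_div_cancel_right₀ _ hg]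

/-- the corrected tangential Hessian -/
noncomputable def thc (L : Lm) (G G' : Jt) (k l : Fin 3) : ℝ :=
  th G G' k l - (∑ k, tg G G' k * L.mC k) / gr G L.m00 L.mC * lf G (sl G) k l

/-- **tangential Hessian in the other chart** -/
theorem th_pull {c : ℝ} {L : Lm} {G G' : Jt} (hG : ∀ i j, G.h i j = G.h j i)
    (hG' : ∀ i j, G'.h i j = G'.h j i) (hc : c ≠ 0) (h0 : G.a0 ≠ 0)
    (h : (pull c L G).a0 ≠ 0) (i j : Fin 3) :
    th (pull c L G) (pull c L G') i j =
      c * ∑ k, ∑ l, tm c L G k i * tm c L G l j * thc L G G' k l := by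
  rw [th, lf_pull hG' hc h0 h, lf_pull hG hc h0 h, mu_pull hc h0 h]
  simp only [thc, th, Fin.sum_univ_three]
  ring

theorem mn_right (H τ : Fin 3 → Fin 3 → ℝ) (i j k l : Fin 3) :
    mn (fun i j => ∑ r, H i r * τ r j) i j k l = ∑ r, ∑ s, τ r j * τ s l * mn H i r k s := by
  simp only [mn, Fin.sum_univ_three]; ring

theorem mn_left (H τ : Fin 3 → Fin 3 → ℝ) (i j k l : Fin 3) :
    mn (fun i j => ∑ r, τ r i * H r j) i j k l = ∑ r, ∑ s, τ r i * τ s k * mn H r j s l := by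
  simp only [mn, Fin.sum_univ_three]; ring

theorem sum33_le {f : Fin 3 → Fin 3 → ℝ} {B : ℝ} (h : ∀ i j, |f i j| ≤ B) :
    |∑ i, ∑ j, f i j| ≤ 9 * B := by
  have := sum3_le (B := 3 * B) fun i => sum3_le (h i)
  linarith

/-- minors of a congruent matrix -/
theorem mn_cong {H τ : Fin 3 → Fin 3 → ℝ} {t m : ℝ} (ht : ∀ i j, |τ i j| ≤ t)
    (hm : ∀ i j k l, |mn H i j k l| ≤ m) (i j k l : Fin 3) :
    |mn (fun i j => ∑ r, ∑ s, τ r i * τ s j * H r s) i j k l| ≤ 81 * (t ^ 4 * m) := by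
  have t0 : 0 ≤ t := (abs_nonneg _).trans (ht 0 0)
  have m0 : 0 ≤ m := (abs_nonneg _).trans (hm 0 0 0 0)
  have e : (fun i j => ∑ r, ∑ s, τ r i * τ s j * H r s) =
      fun i j => ∑ r, τ r i * (fun r j => ∑ s, H r s * τ s j) r j := by
    funext i j
    refine Finset.sum_congr rfl fun r _ => ?_
    rw [Finset.mul_sum]
    exact Finset.sum_congr rfl fun s _ => by ring
  rw [e, mn_left]
  have h1 : ∀ i j k l, |mn (fun r j => ∑ s, H r s * τ s j) i j k l| ≤ 9 * (t * t * m) := by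
    intro i j k l
    rw [mn_right]
    refine sum33_le fun r s => ?_
    rw [abs_mul, abs_mul]
    exact mul_le_mul (mul_le_mul (ht _ _) (ht _ _) (abs_nonneg _) t0) (hm _ _ _ _) (abs_nonneg _)
      (by positivity)
  have h2 : |∑ r, ∑ s, τ r i * τ s k * mn (fun r j => ∑ s, H r s * τ s j) r j s l| ≤
      9 * (t * t * (9 * (t * t * m))) := by
    refine sum33_le fun r s => ?_
    rw [abs_mul, abs_mul]
    exact mul_le_mul (mul_le_mul (ht _ _) (ht _ _) (abs_nonneg _) t0) (h1 _ _ _ _) (abs_nonneg _)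
      (by positivity)
  refine h2.trans (le_of_eq ?_)
  ring

/-- hypotheses for the change of the chart -/
structure Cc (c : ℝ) (L : Lm) (G G' : Jt) (K A N m : ℝ) : Prop where
  K1 : 1 ≤ K
  c0 : 0 < c
  sy : ∀ i j, G.h i j = G.h j i
  sy' : ∀ i j, G'.h i j = G'.h j i
  g0 : G.a0 ≠ 0
  gr0 : gr G L.m00 L.mC ≠ 0
  gK : ∀ k i j, |L.mC k| * |lf G (Rk601.sl G) i j| ≤ K * |gr G L.m00 L.mC|
  mC : ∀ k, |L.mC k| ≤ K
  mm : ∀ k i, |L.mm k i| ≤ K
  sl : ∀ i, |sl (pull c L G) i| ≤ K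
  hA : ∀ i, |tg G G' i| ≤ A
  hN : ∀ i j, |th G G' i j| ≤ N
  hm : ∀ i j k l, |mn (th G G') i j k l| ≤ m

section

variable {c : ℝ} {L : Lm} {G G' : Jt} {K A N m : ℝ}

theorem Cc.ne (H : Cc c L G G' K A N m) : (pull c L G).a0 ≠ 0 := by
  intro h
  have e1 : c * gr G L.m00 L.mC = 0 := h
  exact H.gr0 ((mul_eq_zero.1 e1).resolve_left H.c0.ne')

theorem Cc.tm_le (H : Cc c L G G' K A N m) (k i : Fin 3) : |tm c L G k i| ≤ 2 * K ^ 2 := by
  have hK := H.K1
  have hK0 : (0 : ℝ) < K := by linarith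
  unfold tm
  refine (abs_add_le _ _).trans ?_
  rw [abs_mul]
  have h1 := H.mm k i
  have h2 := mul_le_mul (H.mC k) (H.sl i) (abs_nonneg _) hK0.le
  nlinarith

/-- gradient in the other chart -/
theorem Cc.tg_le (H : Cc c L G G' K A N m) (i : Fin 3) :
    |tg (pull c L G) (pull c L G') i| ≤ 6 * K ^ 2 * (c * A) := by
  have hK := H.K1
  have hK0 : (0 : ℝ) < K := by linarith
  have hc := H.c0
  rw [tg_pull hc.ne' H.g0 H.ne, abs_mul, abs_of_pos hc]
  have h1 : |∑ k, tm c L G k i * tg G G' k| ≤ 3 * (2 * K ^ 2 * A) := by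
    refine sum3_le fun k => ?_
    rw [abs_mul]
    exact mul_le_mul (H.tm_le k i) (H.hA k) (abs_nonneg _) (by positivity)
  calc c * |∑ k, tm c L G k i * tg G G' k| ≤ c * (3 * (2 * K ^ 2 * A)) := by gcongr
    _ = _ := by ring

theorem Cc.thc_sub (H : Cc c L G G' K A N m) (k l : Fin 3) :
    |thc L G G' k l - th G G' k l| ≤ 3 * K * A := by
  have hK := H.K1
  have hK0 : (0 : ℝ) < K := by linarith
  have hA0 : 0 ≤ A := (abs_nonneg _).trans (H.hA 0)
  have e : thc L G G' k l - th G G' k l =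
      -((∑ r, tg G G' r * (L.mC r * Rk601.lf G (Rk601.sl G) k l)) / gr G L.m00 L.mC) := by
    unfold thc
    simp only [Fin.sum_univ_three]
    ring
  have hp : 0 < |gr G L.m00 L.mC| := abs_pos.2 H.gr0
  have h1 : |∑ r, tg G G' r * (L.mC r * Rk601.lf G (Rk601.sl G) k l)| ≤
      3 * (A * (K * |gr G L.m00 L.mC|)) := by
    refine sum3_le fun r => ?_
    rw [abs_mul, abs_mul]
    exact mul_le_mul (H.hA r) (H.gK r k l) (by positivity) hA0
  rw [e, abs_neg, abs_div, div_le_iff₀ hp]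
  refine h1.trans (le_of_eq ?_)
  ring

/-- Hessian in the other chart -/
theorem Cc.th_le (H : Cc c L G G' K A N m) (i j : Fin 3) :
    |th (pull c L G) (pull c L G') i j| ≤ 108 * K ^ 5 * (c * (N + A)) := by
  have hK := H.K1
  have hK0 : (0 : ℝ) < K := by linarith
  have hc := H.c0
  have hA0 : 0 ≤ A := (abs_nonneg _).trans (H.hA 0)
  have hN0 : 0 ≤ N := (abs_nonneg _).trans (H.hN 0 0)
  rw [th_pull H.sy H.sy' hc.ne' H.g0 H.ne, abs_mul, abs_of_pos hc]
  have h0 : ∀ k l, |thc L G G' k l| ≤ 3 * K * (N + A) := fun k l => by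
    have h1 := H.thc_sub k l
    have h2 := H.hN k l
    have h3 := abs_sub_abs_le_abs_sub (thc L G G' k l) (th G G' k l)
    have h4 : N ≤ K * N := le_mul_of_one_le_left hN0 hK
    nlinarith
  have h1 : |∑ k, ∑ l, tm c L G k i * tm c L G l j * thc L G G' k l| ≤
      9 * (2 * K ^ 2 * (2 * K ^ 2) * (3 * K * (N + A))) := by
    refine sum33_le fun k l => ?_
    rw [abs_mul, abs_mul]
    exact mul_le_mul (mul_le_mul (H.tm_le _ _) (H.tm_le _ _) (abs_nonneg _) (by positivity))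
      (h0 k l) (abs_nonneg _) (by positivity)
  calc _ ≤ c * (9 * (2 * K ^ 2 * (2 * K ^ 2) * (3 * K * (N + A)))) := by gcongr
    _ = _ := by ring

/-- minors in the other chart -/
theorem Cc.mn_le (H : Cc c L G G' K A N m) (i j k l : Fin 3) :
    |mn (th (pull c L G) (pull c L G')) i j k l| ≤
      50000 * K ^ 10 * (c ^ 2 * (m + (N + A) * A)) := by
  have hK := H.K1
  have hK0 : (0 : ℝ) < K := by linarith
  have hc := H.c0
  have hA0 : 0 ≤ A := (abs_nonneg _).trans (H.hA 0)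
  have hN0 : 0 ≤ N := (abs_nonneg _).trans (H.hN 0 0)
  have hm0 : 0 ≤ m := (abs_nonneg _).trans (H.hm 0 0 0 0)
  have hK2 : 1 ≤ K ^ 2 := one_le_pow₀ hK
  have e1 : th (pull c L G) (pull c L G') = fun i j => c * (fun i j => ∑ k, ∑ l,
      tm c L G k i * tm c L G l j * thc L G G' k l) i j := by
    funext i j
    exact th_pull H.sy H.sy' hc.ne' H.g0 H.ne i j
  have h0 : ∀ k l, |thc L G G' k l| ≤ 3 * K * (N + A) := fun k l => by
    have h1 := H.thc_sub k l
    have h2 := H.hN k l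
    have h3 := abs_sub_abs_le_abs_sub (thc L G G' k l) (th G G' k l)
    have h4 : N ≤ K * N := le_mul_of_one_le_left hN0 hK
    nlinarith
  have h0' : ∀ k l, |th G G' k l| ≤ 3 * K * (N + A) := fun k l => by
    have h2 := H.hN k l
    have h4 : N ≤ K * N := le_mul_of_one_le_left hN0 hK
    have h5 : 0 ≤ K * A := by positivity
    nlinarith
  have h2 : ∀ i j k l, |mn (thc L G G') i j k l| ≤ 37 * K ^ 2 * (m + (N + A) * A) :=
      fun i j k l => by
    have h3 := mn_sub_le h0 h0' (H.thc_sub) i j k l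
    have h4 := H.hm i j k l
    have h5 := abs_sub_abs_le_abs_sub (mn (thc L G G') i j k l) (mn (th G G') i j k l)
    have h6 : 4 * (3 * K * (N + A) * (3 * K * A)) = 36 * K ^ 2 * ((N + A) * A) := by ring
    have h7 : m ≤ K ^ 2 * m := le_mul_of_one_le_left hm0 hK2
    have h8 : 0 ≤ K ^ 2 * ((N + A) * A) := by positivity
    have h9 : 0 ≤ K ^ 2 * m := by positivity
    rw [h6] at h3
    nlinarith
  rw [e1, mn_smul, abs_mul, abs_of_nonneg (sq_nonneg c)]
  have h3 := mn_cong (τ := tm c L G) (H := thc L G G') H.tm_le h2 i j k l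
  have hx : 0 ≤ c ^ 2 * (m + (N + A) * A) := by positivity
  calc _ ≤ c ^ 2 * (81 * ((2 * K ^ 2) ^ 4 * (37 * K ^ 2 * (m + (N + A) * A)))) :=
        mul_le_mul_of_nonneg_left h3 (sq_nonneg c)
    _ = 47952 * K ^ 10 * (c ^ 2 * (m + (N + A) * A)) := by ring
    _ ≤ _ := by
        refine mul_le_mul_of_nonneg_right ?_ hx
        have : 0 ≤ K ^ 10 := by positivity
        linarith

end

/-! ### roles of the two functions exchanged -/

/-- `tg q' q = - (q.a0 / q'.a0) tg q q'` -/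
theorem tg_swap {q q' : Jt} (h : q.a0 ≠ 0) (h' : q'.a0 ≠ 0) (i : Fin 3) :
    tg q' q i = -(q.a0 / q'.a0 * tg q q' i) := by
  unfold tg; field_simp; ring

/-- `th q' q = - (q.a0 / q'.a0) th q q'` up to the gradient -/
theorem th_swap {q q' : Jt} {B K η : ℝ} (h : q.a0 ≠ 0) (h' : q'.a0 ≠ 0)
    (s0 : ∀ i, |sl q' i| ≤ K) (s1 : ∀ i, |sl q i| ≤ K)
    (hη : ∀ i, |tg q' q i| ≤ η * |q.a0|)
    (hB0 : ∀ i, |q'.h0 i - q'.a0 / q.a0 * q.h0 i| ≤ B)
    (hB : |q'.h00 - q'.a0 / q.a0 * q.h00| ≤ B) (i j : Fin 3) :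
    |q'.a0 / q.a0 * th q' q i j + th q q' i j| ≤ 2 * B * (1 + K) * η := by
  have := th_comp (q0 := q') (q1 := q) (q2 := q') h' h s0 s1 hη hB0 hB i j
  rw [th_self h', zero_sub, abs_neg] at this
  exact this

end Crest.Agent.R136.Chm862
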