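import Crest.Agent.R136.AlD_601
import Crest.Agent.R136.Chm_862
import Crest.Agent.R136.Asm1_102

/-!
# R136 (U4, PLAN 2 (3) = (AL)): transition between the charts of two sheets (helper862)

* `co e w x`  : coordinates of `x` in the frame `w k • e k`.
* `Tr K S S'` : the dimensions and the long axes of `S`, `S'` are comparable.
* `tr S S' ρ` : linear part of the transition from the chart of `S` to the chart of `S'`.
* `jt_tr`     : the jet in the chart of `S` from the jet in the chart of `S'`.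
* `jt_shift`  : the jet at another point.
-/

set_option autoImplicit false

namespace Crest.Agent.R136.Chm862

open Crest.Agent.R136.Sh605
open Crest.Agent.R136.Rk601
open Crest.Agent.R136.AlD601
open Crest.Agent.R136.K4 (Plk4)
open Crest.Agent.R136.Tlt51 (Shp InP)
open Crest.Agent.R136.Tl102 (cmb fr angC dt_cmb_fr)
open Crest.Agent.R136.Deep51 (dt_exp abs_dt_exp abs_dt_unit)

/-- coordinates of `x` in the frame `w k • e k` -/
noncomputable def co (e : Fin 3 → V3) (w : V3) (x : V3) : V3 := fun k => dt (e k) x / w k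

theorem cmb_co {e : Fin 3 → V3} {w : V3} (he : Ortho e) (hw : ∀ i, 0 < w i) (x : V3) :
    cmb (fr e w) (co e w x) = x := by
  funext j
  have h := he.expand x j
  simp only [cmb, fr, co, Pi.smul_apply, smul_eq_mul]
  rw [h]
  have h0 := (hw 0).ne'
  have h1 := (hw 1).ne'
  have h2 := (hw 2).ne'
  field_simp

theorem co_add (e : Fin 3 → V3) (w : V3) (x y : V3) (k : Fin 3) :
    co e w (x + y) k = co e w x k + co e w y k := by
  simp only [co, dt_add, add_div]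

theorem co_smul (e : Fin 3 → V3) (w : V3) (c : ℝ) (x : V3) (k : Fin 3) :
    co e w (c • x) k = c * co e w x k := by
  simp only [co, dt, Pi.smul_apply, smul_eq_mul]; ring

theorem cmb_lin (f : Fin 3 → V3) (a b : ℝ) (x y : V3) :
    cmb f (a • x + b • y) = a • cmb f x + b • cmb f y := by
  funext i
  simp only [cmb, Pi.add_apply, Pi.smul_apply, smul_eq_mul]; ring

/-- comparable dimensions and long axes -/
structure Tr (K : ℝ) (S S' : Plk4) : Prop where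
  K1 : 1 ≤ K
  o : Ortho S.e
  o' : Ortho S'.e
  w0 : 0 < S.w 0
  w0' : 0 < S'.w 0
  w02 : S.w 0 ≤ S.w 2
  w02' : S'.w 0 ≤ S'.w 2
  w21 : S.w 2 ≤ S.w 1
  w21' : S'.w 2 ≤ S'.w 1
  c1 : S.w 1 ≤ K * S'.w 1
  c2 : S.w 2 ≤ K * S'.w 2
  an2 : |dt (S'.e 2) (S.e 1)| * S.w 1 ≤ K * S'.w 2
  an0 : |dt (S'.e 0) (S.e 1)| * S.w 1 ≤ K * S'.w 2

section

variable {K K' : ℝ} {S S' S'' : Plk4}

theorem Tr.pos (H : Tr K S S') (i : Fin 3) : 0 < S.w i := by
  have h2 := H.w0.trans_le H.w02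
  fin_cases i
  · exact H.w0
  · exact h2.trans_le H.w21
  · exact h2

theorem Tr.pos' (H : Tr K S S') (i : Fin 3) : 0 < S'.w i := by
  have h2 := H.w0'.trans_le H.w02'
  fin_cases i
  · exact H.w0'
  · exact h2.trans_le H.w21'
  · exact h2

theorem Tr.mono (H : Tr K S S') (h : K ≤ K') : Tr K' S S' := by
  have p1 := H.pos' 1
  have p2 := H.pos' 2
  exact { H with
    K1 := H.K1.trans h
    c1 := H.c1.trans (mul_le_mul_of_nonneg_right h p1.le)
    c2 := H.c2.trans (mul_le_mul_of_nonneg_right h p2.le)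
    an2 := H.an2.trans (mul_le_mul_of_nonneg_right h p2.le)
    an0 := H.an0.trans (mul_le_mul_of_nonneg_right h p2.le) }

/-- from the dimensions and the angle of the long axes -/
theorem Tr.of_ang {w1 w2 z0 ρ r : ℝ} (hK : 1 ≤ K) (hr : 0 < r) (hS : Shp S z0 ρ r)
    (hS' : Shp S' z0 ρ r) (h1 : w1 ≤ K * S.w 1 ∧ S.w 1 ≤ K * w1)
    (h2 : w2 ≤ K * S.w 2 ∧ S.w 2 ≤ K * w2) (h1' : w1 ≤ K * S'.w 1 ∧ S'.w 1 ≤ K * w1)
    (h2' : w2 ≤ K * S'.w 2 ∧ S'.w 2 ≤ K * w2) (ha : angC S S' * w1 ≤ K * w2) :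
    Tr (K ^ 3) S S' ∧ Tr (K ^ 3) S' S := by
  have hK0 : (0 : ℝ) < K := by linarith
  have w0 : 0 < S.w 0 := (hr.trans_le hS.r0_le).trans_le hS.a_le0
  have w0' : 0 < S'.w 0 := (hr.trans_le hS'.r0_le).trans_le hS'.a_le0
  have w2p : 0 < S.w 2 := w0.trans_le hS.w0_le
  have w1p : 0 < S.w 1 := w2p.trans_le hS.w_le
  have w2p' : 0 < S'.w 2 := w0'.trans_le hS'.w0_le
  have w1p' : 0 < S'.w 1 := w2p'.trans_le hS'.w_le
  have hK3 : 1 ≤ K ^ 3 := one_le_pow₀ hK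
  have hK23 : K ^ 2 ≤ K ^ 3 := pow_le_pow_right₀ hK (by norm_num)
  have a1 : |dt (S.e 1) (S'.e 0)| ≤ angC S S' := (le_max_left _ _).trans (le_max_left _ _)
  have a2 : |dt (S.e 1) (S'.e 2)| ≤ angC S S' := (le_max_right _ _).trans (le_max_left _ _)
  have a3 : |dt (S.e 0) (S'.e 1)| ≤ angC S S' := (le_max_left _ _).trans (le_max_right _ _)
  have a4 : |dt (S.e 2) (S'.e 1)| ≤ angC S S' := (le_max_right _ _).trans (le_max_right _ _)
  have hA : 0 ≤ angC S S' := (abs_nonneg _).trans a1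
  have hw1 : 0 ≤ w1 := by nlinarith [h1.2]
  have key : ∀ x y1 y2 : ℝ, x ≤ angC S S' → 0 ≤ x → y1 ≤ K * w1 → w2 ≤ K * y2 →
      x * y1 ≤ K ^ 3 * y2 := by
    intro x y1 y2 hx hx0 hy1 hy2
    calc x * y1 ≤ x * (K * w1) := mul_le_mul_of_nonneg_left hy1 hx0
      _ ≤ angC S S' * (K * w1) := mul_le_mul_of_nonneg_right hx (by positivity)
      _ = K * (angC S S' * w1) := by ring
      _ ≤ K * (K * w2) := mul_le_mul_of_nonneg_left ha hK0.le
      _ ≤ K * (K * (K * y2)) := by gcongr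
      _ = _ := by ring
  have c : ∀ x y : ℝ, ∀ wd : ℝ, 0 < y → x ≤ K * wd → wd ≤ K * y → x ≤ K ^ 3 * y := by
    intro x y wd hy hx hwd
    calc x ≤ K * wd := hx
      _ ≤ K * (K * y) := mul_le_mul_of_nonneg_left hwd hK0.le
      _ = K ^ 2 * y := by ring
      _ ≤ K ^ 3 * y := mul_le_mul_of_nonneg_right hK23 hy.le
  refine ⟨⟨hK3, hS.ortho, hS'.ortho, w0, w0', hS.w0_le, hS'.w0_le, hS.w_le, hS'.w_le,
    c _ _ _ w1p' h1.2 h1'.1, c _ _ _ w2p' h2.2 h2'.1, ?_, ?_⟩,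
    ⟨hK3, hS'.ortho, hS.ortho, w0', w0, hS'.w0_le, hS.w0_le, hS'.w_le, hS.w_le,
    c _ _ _ w1p h1'.2 h1.1, c _ _ _ w2p h2'.2 h2.1, ?_, ?_⟩⟩
  · rw [dt_comm]; exact key _ _ _ a2 (abs_nonneg _) h1.2 h2'.1
  · rw [dt_comm]; exact key _ _ _ a1 (abs_nonneg _) h1.2 h2'.1
  · exact key _ _ _ a4 (abs_nonneg _) h1'.2 h2.1
  · exact key _ _ _ a3 (abs_nonneg _) h1'.2 h2.1

/-- composition -/
theorem Tr.trans (H : Tr K S S') (H' : Tr K' S' S'') : Tr (3 * K * K') S S'' := by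
  have hK := H.K1
  have hK' := H'.K1
  have hK0 : (0 : ℝ) < K := by linarith
  have hK0' : (0 : ℝ) < K' := by linarith
  have hKK : 1 ≤ K * K' := by nlinarith
  have p1 := H'.pos' 1
  have p2 := H'.pos' 2
  have s1 := H.pos 1
  have key : ∀ i, (|dt (S''.e i) (S'.e 1)| * S'.w 1 ≤ K' * S''.w 2) →
      |dt (S''.e i) (S.e 1)| * S.w 1 ≤ 3 * K * K' * S''.w 2 := by
    intro i hi
    have h := abs_dt_exp H'.o' H.o' i (S.e 1)
    have u0 := abs_dt_unit H'.o' H.o' i 0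
    have u2 := abs_dt_unit H'.o' H.o' i 2
    have u1 := abs_dt_unit H.o' H.o 1 1
    have k0 : |dt (S''.e i) (S'.e 0)| * |dt (S'.e 0) (S.e 1)| * S.w 1 ≤ K * K' * S''.w 2 := by
      calc _ ≤ 1 * |dt (S'.e 0) (S.e 1)| * S.w 1 := by gcongr
        _ = |dt (S'.e 0) (S.e 1)| * S.w 1 := by ring
        _ ≤ K * S'.w 2 := H.an0
        _ ≤ K * (K' * S''.w 2) := mul_le_mul_of_nonneg_left H'.c2 hK0.le
        _ = _ := by ring
    have k2 : |dt (S''.e i) (S'.e 2)| * |dt (S'.e 2) (S.e 1)| * S.w 1 ≤ K * K' * S''.w 2 := by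
      calc _ ≤ 1 * |dt (S'.e 2) (S.e 1)| * S.w 1 := by gcongr
        _ = |dt (S'.e 2) (S.e 1)| * S.w 1 := by ring
        _ ≤ K * S'.w 2 := H.an2
        _ ≤ K * (K' * S''.w 2) := mul_le_mul_of_nonneg_left H'.c2 hK0.le
        _ = _ := by ring
    have k1 : |dt (S''.e i) (S'.e 1)| * |dt (S'.e 1) (S.e 1)| * S.w 1 ≤ K * K' * S''.w 2 := by
      calc _ ≤ |dt (S''.e i) (S'.e 1)| * 1 * (K * S'.w 1) := by gcongr; exact H.c1
        _ = K * (|dt (S''.e i) (S'.e 1)| * S'.w 1) := by ring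
        _ ≤ K * (K' * S''.w 2) := mul_le_mul_of_nonneg_left hi hK0.le
        _ = _ := by ring
    calc |dt (S''.e i) (S.e 1)| * S.w 1 ≤ _ * S.w 1 := mul_le_mul_of_nonneg_right h s1.le
      _ = |dt (S''.e i) (S'.e 0)| * |dt (S'.e 0) (S.e 1)| * S.w 1 +
          |dt (S''.e i) (S'.e 1)| * |dt (S'.e 1) (S.e 1)| * S.w 1 +
          |dt (S''.e i) (S'.e 2)| * |dt (S'.e 2) (S.e 1)| * S.w 1 := by ring
      _ ≤ _ := by linarith
  refine ⟨by linarith, H.o, H'.o', H.w0, H'.w0', H.w02, H'.w02', H.w21, H'.w21', ?_, ?_,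
    key 2 H'.an2, key 0 H'.an0⟩
  · calc S.w 1 ≤ K * S'.w 1 := H.c1
      _ ≤ K * (K' * S''.w 1) := mul_le_mul_of_nonneg_left H'.c1 hK0.le
      _ ≤ 3 * K * K' * S''.w 1 := by nlinarith [mul_pos (mul_pos hK0 hK0') p1]
  · calc S.w 2 ≤ K * S'.w 2 := H.c2
      _ ≤ K * (K' * S''.w 2) := mul_le_mul_of_nonneg_left H'.c2 hK0.le
      _ ≤ 3 * K * K' * S''.w 2 := by nlinarith [mul_pos (mul_pos hK0 hK0') p2]

/-- entries of the transition matrix -/
theorem Tr.ent (H : Tr K S S') (i k : Fin 3) (hk : k ≠ 0) :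
    |co S'.e S'.w (fr S.e S.w i) k| ≤ K := by
  have hK := H.K1
  have hK0 : (0 : ℝ) < K := by linarith
  have e1 : co S'.e S'.w (fr S.e S.w i) k = S.w i * dt (S'.e k) (S.e i) / S'.w k := by
    simp only [co, fr, dt, Pi.smul_apply, smul_eq_mul]; ring
  have pk := H.pos' k
  have pi := H.pos i
  have u := abs_dt_unit H.o' H.o k i
  rw [e1, abs_div, abs_of_pos pk, div_le_iff₀ pk, abs_mul, abs_of_pos pi]
  have w2 : S'.w 2 ≤ S'.w k := by
    fin_cases k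
    · exact absurd rfl hk
    · exact H.w21'
    · exact le_rfl
  have h2 : K * S'.w 2 ≤ K * S'.w k := mul_le_mul_of_nonneg_left w2 hK0.le
  have triv : ∀ x : ℝ, 0 ≤ x → x * |dt (S'.e k) (S.e i)| ≤ x := fun x hx =>
    mul_le_of_le_one_right hx u
  fin_cases i
  · exact (triv _ pi.le).trans (H.w02.trans (H.c2.trans h2))
  · fin_cases k
    · exact absurd rfl hk
    · exact (triv _ pi.le).trans H.c1
    · have := H.an2
      rw [mul_comm] at this
      exact this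
  · exact (triv _ pi.le).trans (H.c2.trans h2)

/-- boxes -/
theorem Tr.box (H : Tr K S S') {x : V3} {m : ℝ} (hm : ∀ i, |dt (S.e i) x| ≤ m * S.w i) (k : Fin 3)
    (hk : k ≠ 0) : |co S'.e S'.w x k| ≤ 3 * (K * m) := by
  have hx : x = (dt (S.e 0) x / S.w 0) • fr S.e S.w 0 + (dt (S.e 1) x / S.w 1) • fr S.e S.w 1 +
      (dt (S.e 2) x / S.w 2) • fr S.e S.w 2 := by
    have := cmb_co H.o H.pos x
    conv_lhs => rw [← this]
    funext j
    simp only [cmb, co, Pi.add_apply, Pi.smul_apply, smul_eq_mul]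
  have hb : ∀ i, |dt (S.e i) x / S.w i| ≤ m := fun i => by
    rw [abs_div, abs_of_pos (H.pos i), div_le_iff₀ (H.pos i)]; exact hm i
  have m0 : 0 ≤ m := (abs_nonneg _).trans (hb 0)
  have hK0 : (0 : ℝ) < K := by have := H.K1; linarith
  conv_lhs => rw [hx]
  rw [co_add, co_add, co_smul, co_smul, co_smul]
  have t : ∀ i, |dt (S.e i) x / S.w i * co S'.e S'.w (fr S.e S.w i) k| ≤ m * K := fun i => by
    rw [abs_mul]
    exact mul_le_mul (hb i) (H.ent i k hk) (abs_nonneg _) m0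
  refine (abs_add_three _ _ _).trans ?_
  linarith [t 0, t 1, t 2]

/-- relative velocity of a line in a sheet -/
theorem vel_InP {T : Ln4} {z0 ρ : ℝ} (hρ : 0 ≤ ρ) (h : InP T S z0 ρ) (i : Fin 3) :
    |dt (S.e i) (ρ • (T.v - S.c.v))| ≤ 2 * S.w i := by
  have h1 := (h z0 le_rfl (by linarith)).1 i
  have h2 := (h (z0 + ρ) (by linarith) le_rfl).1 i
  have e : dt (S.e i) (ρ • (T.v - S.c.v)) = dt (S.e i) (T.pos (z0 + ρ) - S.c.pos (z0 + ρ)) -
      dt (S.e i) (T.pos z0 - S.c.pos z0) := by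
    simp only [dt, Ln4.pos, Pi.smul_apply, Pi.sub_apply, smul_eq_mul]
    ring
  rw [e]
  refine (abs_sub _ _).trans ?_
  linarith

/-- the relative shear of the two charts, through two lines `T ∈ S ∩ V`, `T' ∈ V ∩ S'` -/
theorem Tr.shear {V : Plk4} (H : Tr K S S') (H' : Tr K V S') {T T' : Ln4} {z0 ρ : ℝ} (hρ : 0 ≤ ρ)
    (h1 : InP T S z0 ρ) (h2 : InP T V z0 ρ) (h3 : InP T' V z0 ρ) (h4 : InP T' S' z0 ρ) (k : Fin 3)
    (hk : k ≠ 0) : |co S'.e S'.w (ρ • (S.c.v - S'.c.v)) k| ≤ 20 * K := by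
  have hK := H.K1
  have e : co S'.e S'.w (ρ • (S.c.v - S'.c.v)) k = -co S'.e S'.w (ρ • (T.v - S.c.v)) k +
      co S'.e S'.w (ρ • (T.v - V.c.v)) k + -co S'.e S'.w (ρ • (T'.v - V.c.v)) k +
      co S'.e S'.w (ρ • (T'.v - S'.c.v)) k := by
    simp only [co, dt, Pi.smul_apply, Pi.sub_apply, smul_eq_mul]
    ring
  rw [e]
  have b1 := H.box (vel_InP hρ h1) k hk
  have b2 := H'.box (vel_InP hρ h2) k hk
  have b3 := H'.box (vel_InP hρ h3) k hk
  have b4 : |co S'.e S'.w (ρ • (T'.v - S'.c.v)) k| ≤ 2 := by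
    have pk := H.pos' k
    unfold co
    rw [abs_div, abs_of_pos pk, div_le_iff₀ pk]
    exact vel_InP hρ h4 k
  rw [abs_le] at *
  constructor <;> linarith [b1.1, b1.2, b2.1, b2.2, b3.1, b3.2, b4.1, b4.2]

end

/-! ### transition map -/

/-- linear part of the transition from the chart of `S` to the chart of `S'` -/
noncomputable def tr (S S' : Plk4) (ρ : ℝ) : Lm where
  m00 := co S'.e S'.w (fr S.e S.w 0) 0
  mC := ![0, co S'.e S'.w (fr S.e S.w 0) 1, co S'.e S'.w (fr S.e S.w 0) 2]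
  mR := ![co S'.e S'.w (ρ • (S.c.v - S'.c.v)) 0, co S'.e S'.w (fr S.e S.w 1) 0,
    co S'.e S'.w (fr S.e S.w 2) 0]
  mm := ![![1, 0, 0], ![co S'.e S'.w (ρ • (S.c.v - S'.c.v)) 1, co S'.e S'.w (fr S.e S.w 1) 1,
    co S'.e S'.w (fr S.e S.w 2) 1], ![co S'.e S'.w (ρ • (S.c.v - S'.c.v)) 2,
    co S'.e S'.w (fr S.e S.w 1) 2, co S'.e S'.w (fr S.e S.w 2) 2]]

theorem pull_sym {c : ℝ} {L : Lm} {G : Jt} (h : G.Sym) : (pull c L G).Sym := by
  intro i j
  simp only [pull]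
  rw [hs_symm h]

theorem jet_tr {S S' : Plk4} {q : ℝ → V3 → ℝ} {z : ℝ} {X : V3} {ρ : ℝ} {J : Jt}
    (ho : Ortho S'.e) (hw : ∀ i, 0 < S'.w i)
    (h : JetAt q (fr S'.e S'.w) S'.c.v z X ρ J) (hsy : J.Sym) :
    JetAt q (fr S.e S.w) S.c.v z X ρ (pull 1 (tr S S' ρ) J) := by
  intro y ζ u v
  set D := co S'.e S'.w (ρ • (S.c.v - S'.c.v)) with hD
  set A := co S'.e S'.w (fr S.e S.w 0) with hA
  set B := co S'.e S'.w (fr S.e S.w 1) with hB
  set C := co S'.e S'.w (fr S.e S.w 2) with hC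
  have eD : cmb (fr S'.e S'.w) D = ρ • (S.c.v - S'.c.v) := cmb_co ho hw _
  have eA : cmb (fr S'.e S'.w) A = fr S.e S.w 0 := cmb_co ho hw _
  have eB : cmb (fr S'.e S'.w) B = fr S.e S.w 1 := cmb_co ho hw _
  have eC : cmb (fr S'.e S'.w) C = fr S.e S.w 2 := cmb_co ho hw _
  have hX : X + (ρ * ζ) • S.c.v + cmb (fr S.e S.w) ![y, u, v] =
      X + (ρ * ζ) • S'.c.v + cmb (fr S'.e S'.w) ![ζ * D 0 + y * A 0 + u * B 0 + v * C 0,
        ζ * D 1 + y * A 1 + u * B 1 + v * C 1, ζ * D 2 + y * A 2 + u * B 2 + v * C 2] := by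
    funext i
    have d := congrFun eD i
    have a := congrFun eA i
    have b := congrFun eB i
    have c := congrFun eC i
    simp only [cmb, Pi.add_apply, Pi.smul_apply, Pi.sub_apply, smul_eq_mul, Matrix.cons_val]
      at d a b c ⊢
    linear_combination (-ζ) * d - y * a - u * b - v * c
  rw [hX, h]
  have s10 := hsy 1 0
  have s20 := hsy 2 0
  have s21 := hsy 2 1
  simp only [pull, tr, gr, hs, dp, qf, Fin.sum_univ_three, Matrix.cons_val, ← hD, ← hA, ← hB, ← hC]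
  rw [s10, s20, s21]
  ring

/-- **change of the chart** -/
theorem jt_tr {S S' : Plk4} {q : ℝ → V3 → ℝ} (hq : IsQ q) (ho : Ortho S'.e) (hw : ∀ i, 0 < S'.w i)
    (z : ℝ) (X : V3) (ρ : ℝ) : jt q (fr S.e S.w) S.c.v z X ρ =
      pull 1 (tr S S' ρ) (jt q (fr S'.e S'.w) S'.c.v z X ρ) := by
  obtain ⟨h, hs⟩ := jt_jet hq (fr S'.e S'.w) S'.c.v z X ρ
  exact jt_eq (jet_tr ho hw h hs) (pull_sym hs)

/-- **the jet at another point at the same height** -/
theorem jt_shift {q : ℝ → V3 → ℝ} (hq : IsQ q) (f : Fin 3 → V3) (V : V3) (z : ℝ) (X : V3) (ρ : ℝ)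
    (y u v : ℝ) : jt q f V z (X + cmb f ![y, u, v]) ρ = (jt q f V z X ρ).shift y ![0, u, v] := by
  obtain ⟨h, hs⟩ := jt_jet hq f V z X ρ
  have h1 := jet_shift h hs y 0 u v
  have e1 : z + ρ * 0 = z := by ring
  have e2 : X + (ρ * 0) • V + cmb f ![y, u, v] = X + cmb f ![y, u, v] := by simp
  rw [e1, e2] at h1
  exact jt_eq h1 hs

/-- derivative along a vector does not depend on the chart -/
theorem gr_inv {q : ℝ → V3 → ℝ} (hq : IsQ q) {f f' : Fin 3 → V3} {V V' : V3} {z : ℝ} {X : V3}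
    {ρ y u v y' u' v' : ℝ} (h : cmb f ![y, u, v] = cmb f' ![y', u', v']) :
    gr (jt q f V z X ρ) y ![0, u, v] = gr (jt q f' V' z X ρ) y' ![0, u', v'] := by
  obtain ⟨h1, -⟩ := jt_jet hq f V z X ρ
  obtain ⟨h2, -⟩ := jt_jet hq f' V' z X ρ
  have hn : cmb f ![-y, -u, -v] = cmb f' ![-y', -u', -v'] := by
    have e1 : cmb f ![-y, -u, -v] = -cmb f ![y, u, v] := by
      funext i; simp only [cmb, Pi.neg_apply, Matrix.cons_val]; ring
    have e2 : cmb f' ![-y', -u', -v'] = -cmb f' ![y', u', v'] := by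
      funext i; simp only [cmb, Pi.neg_apply, Matrix.cons_val]; ring
    rw [e1, e2, h]
  have a1 := h1 y 0 u v
  have a2 := h1 (-y) 0 (-u) (-v)
  have b1 := h2 y' 0 u' v'
  have b2 := h2 (-y') 0 (-u') (-v')
  simp only [mul_zero, add_zero, zero_smul] at a1 a2 b1 b2
  rw [h] at a1
  rw [hn] at a2
  rw [a1] at b1
  rw [a2] at b2
  simp only [dp, qf, gr, Fin.sum_univ_three, Matrix.cons_val] at b1 b2 ⊢
  linarith

end Crest.Agent.R136.Chm862
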