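import Crest.Agent.R136.Chm2_862
import Crest.Agent.R136.KapP_335

/-!
# R136 (U4, PLAN 2 (3) = (AL)): jets of a sheet on its own lines (helper862)

* `quad_along` : `q` along a line of the sheet.
* `own_T`      : jet of `S.q` in the chart moving with the line.
* `own`        : jet of `S.q` in the chart of `S` (`jS S S.q`).
-/

set_option autoImplicit false

namespace Crest.Agent.R136.Chm862

open Crest.Agent.R136.Sh605
open Crest.Agent.R136.Rk601
open Crest.Agent.R136.AlD601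
open Crest.Agent.R136.Gbx862 (zj)
open Crest.Agent.R136.K4 (Plk4)
open Crest.Agent.R136.Tlt51 (Shp InP)
open Crest.Agent.R136.Tl102
open Crest.Agent.R136.KapP335 (kapP expP expP_spec)

/-- `q` along a line is a quadratic polynomial -/
theorem quad_along {q : ℝ → V3 → ℝ} (hq : IsQ q) (T : Ln4) (z0 ρ : ℝ) :
    ∃ c1 c2 : ℝ, ∀ ζ, q (z0 + ρ * ζ) (T.pos (z0 + ρ * ζ)) = q z0 (T.pos z0) + c1 * ζ +
      c2 * ζ ^ 2 := by
  obtain ⟨h, -⟩ := jt_jet hq (fun _ => 0) T.v z0 (T.pos z0) ρ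
  refine ⟨(jt q (fun _ => 0) T.v z0 (T.pos z0) ρ).a 0,
    1 / 2 * (jt q (fun _ => 0) T.v z0 (T.pos z0) ρ).h 0 0, fun ζ => ?_⟩
  have h1 := h 0 ζ 0 0
  have e : T.pos z0 + (ρ * ζ) • T.v + cmb (fun _ => 0) ![0, 0, 0] = T.pos (z0 + ρ * ζ) := by
    funext i
    simp only [cmb, Ln4.pos, Pi.add_apply, Pi.smul_apply, Pi.zero_apply, smul_eq_mul]
    ring
  rw [e] at h1
  rw [h1]
  simp only [dp, qf, Fin.sum_univ_three, Matrix.cons_val]
  ring

/-- bounds for a quadratic polynomial on `[0, 1]` -/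
theorem quad_bd {f0 c1 c2 a : ℝ} (h : ∀ ζ, 0 ≤ ζ → ζ ≤ 1 → |f0 + c1 * ζ + c2 * ζ ^ 2| ≤ a) :
    |c1| ≤ 8 * a ∧ |c2| ≤ 8 * a := by
  have h0 := h 0 le_rfl zero_le_one
  have h1 := h (1 / 2) (by norm_num) (by norm_num)
  have h2 := h 1 zero_le_one le_rfl
  rw [abs_le] at h0 h1 h2
  refine ⟨?_, ?_⟩ <;> rw [abs_le] <;> constructor <;>
    linarith [h0.1, h0.2, h1.1, h1.2, h2.1, h2.2]

/-- bounds of the jet of a sheet function; `w` = half-width, `k` = curvature -/
structure Own (C w k : ℝ) (J : Jt) : Prop where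
  sy : J.Sym
  lo : w / 2 ≤ J.a0
  hi : J.a0 ≤ 2 * w
  s : ∀ i, |sl J i| ≤ C
  g : ∀ i, |gm J J i| ≤ C * w
  h00 : |J.h00| ≤ 2 * w
  lf : ∀ i j, |lf J (sl J) i j| ≤ C * k

/-- pull-back by a map which preserves the normal direction -/
theorem gm_pull0 {c : ℝ} {L : Lm} {G P : Jt} (hc : c ≠ 0) (h0 : G.a0 ≠ 0)
    (h : (pull c L G).a0 ≠ 0) (hC : L.mC = 0) (i : Fin 3) :
    gm (pull c L G) (pull c L P) i = c * L.m00 * ∑ k, L.mm k i * gm G P k := by
  have e := im_tan hc h0 h i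
  have e2 : ∀ k, tm c L G k i = L.mm k i := fun k => by
    simp only [tm, hC, Pi.zero_apply, zero_mul, add_zero]
  simp only [e2] at e
  have e3 : gm (pull c L G) (pull c L P) i = c * L.m00 *
      (P.h00 * (L.mR i + sl (pull c L G) i * L.m00) + ∑ k, P.h0 k * L.mm k i) := by
    simp only [gm, pull, hs, hC, Pi.zero_apply, Fin.sum_univ_three]
    ring
  rw [e3, e]
  simp only [gm, Fin.sum_univ_three]
  ring

section

variable {S : Plk4} {T : Ln4} {z0 ρ r : ℝ}

/-- the chart moving with the line -/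
def mv (S : Plk4) (T : Ln4) : Plk4 := { S with c := T }

theorem tr_mv_m00 (hS : Ortho S.e) (hw : ∀ i, 0 < S.w i) (ρ : ℝ) : (tr S (mv S T) ρ).m00 = 1 := by
  show dt (S.e 0) (S.w 0 • S.e 0) / S.w 0 = 1
  have h : dt (S.e 0) (S.e 0) = 1 := by simpa using hS 0 0
  have e : dt (S.e 0) (S.w 0 • S.e 0) = S.w 0 * dt (S.e 0) (S.e 0) := by
    simp only [dt, Pi.smul_apply, smul_eq_mul]; ring
  rw [e, h, mul_one, div_self (hw 0).ne']

theorem co_fr (hS : Ortho S.e) (hw : ∀ i, 0 < S.w i) (i k : Fin 3) :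
    co S.e S.w (fr S.e S.w i) k = if k = i then 1 else 0 := by
  have h : dt (S.e k) (S.e i) = if k = i then 1 else 0 := hS k i
  have e : co S.e S.w (fr S.e S.w i) k = S.w i * dt (S.e k) (S.e i) / S.w k := by
    simp only [co, fr, dt, Pi.smul_apply, smul_eq_mul]; ring
  rw [e, h]
  split_ifs with hh
  · rw [hh, mul_one, div_self (hw i).ne']
  · simp

theorem tr_mv (hS : Ortho S.e) (hw : ∀ i, 0 < S.w i) (ρ : ℝ) :
    tr S (mv S T) ρ = (⟨1, ![co S.e S.w (ρ • (S.c.v - T.v)) 0, 0, 0], 0,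
      ![![1, 0, 0], ![co S.e S.w (ρ • (S.c.v - T.v)) 1, 1, 0],
        ![co S.e S.w (ρ • (S.c.v - T.v)) 2, 0, 1]]⟩ : Lm) := by
  have h := fun i k => co_fr hS hw i k
  simp only [tr, mv]
  rw [h 0 0, h 0 1, h 0 2, h 1 0, h 1 1, h 1 2, h 2 0, h 2 1, h 2 2]
  simp only [Lm.mk.injEq]
  refine ⟨by simp, by simp, ?_, by simp⟩
  funext i; fin_cases i <;> simp

theorem shear_mv (hρ : 0 ≤ ρ) (hw : ∀ i, 0 < S.w i) (hT : InP T S z0 ρ) (k : Fin 3) :
    |co S.e S.w (ρ • (S.c.v - T.v)) k| ≤ 2 := by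
  have h := vel_InP hρ hT k
  have e : dt (S.e k) (ρ • (S.c.v - T.v)) = -dt (S.e k) (ρ • (T.v - S.c.v)) := by
    simp only [dt, Pi.smul_apply, Pi.sub_apply, smul_eq_mul]; ring
  unfold co
  rw [e, abs_div, abs_neg, abs_of_pos (hw k), div_le_iff₀ (hw k)]
  exact h

/-- from the chart moving with the line to the chart of the sheet -/
theorem Own.pull_mv {C w k : ℝ} {J : Jt} (hC : 1 ≤ C) (hw' : 0 < w) (h : Own C w k J)
    (hρ : 0 ≤ ρ) (hS : Ortho S.e) (hw : ∀ i, 0 < S.w i) (hT : InP T S z0 ρ) :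
    Own (36 * C) w k (pull 1 (tr S (mv S T) ρ) J) := by
  have a0 : J.a0 ≠ 0 := by have := h.lo; intro h0; rw [h0] at this; linarith
  have e0 : (pull 1 (tr S (mv S T) ρ) J).a0 = J.a0 := by
    rw [tr_mv hS hw]; simp [pull, gr]
  have hne : (pull 1 (tr S (mv S T) ρ) J).a0 ≠ 0 := by rw [e0]; exact a0
  have hmC : (tr S (mv S T) ρ).mC = 0 := by rw [tr_mv hS hw]
  have hm00 : (tr S (mv S T) ρ).m00 = 1 := by rw [tr_mv hS hw]
  have htm : ∀ k i, tm 1 (tr S (mv S T) ρ) J k i = (tr S (mv S T) ρ).mm k i := fun k i => by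
    simp only [tm, hmC, Pi.zero_apply, zero_mul, add_zero]
  have sv := shear_mv hρ hw hT
  have hmm : ∀ k i, |(tr S (mv S T) ρ).mm k i| ≤ 2 := by
    intro k i
    rw [tr_mv hS hw]
    have s1 := sv 1
    have s2 := sv 2
    fin_cases k <;> fin_cases i <;> simp <;> first | exact s1 | exact s2 | norm_num
  have hmR : ∀ i, |(tr S (mv S T) ρ).mR i| ≤ 2 := by
    intro i
    rw [tr_mv hS hw]
    have s0 := sv 0
    fin_cases i <;> simp <;> exact s0
  have hsl : ∀ i, |sl (pull 1 (tr S (mv S T) ρ) J) i| ≤ 36 * C := by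
    intro i
    have e := im_tan one_ne_zero a0 hne i
    rw [hm00, mul_one] at e
    have e2 : sl (pull 1 (tr S (mv S T) ρ) J) i = ∑ k, sl J k * tm 1 (tr S (mv S T) ρ) J k i -
        (tr S (mv S T) ρ).mR i := by linarith
    rw [e2]
    have h1 : |∑ k, sl J k * tm 1 (tr S (mv S T) ρ) J k i| ≤ 3 * (C * 2) := by
      refine sum3_le fun k => ?_
      rw [abs_mul, htm]
      exact mul_le_mul (h.s k) (hmm k i) (abs_nonneg _) (by linarith)
    have h2 := hmR i
    refine (abs_sub _ _).trans ?_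
    linarith
  refine ⟨pull_sym h.sy, by rw [e0]; exact h.lo, by rw [e0]; exact h.hi, hsl, fun i => ?_, ?_,
    fun i j => ?_⟩
  · rw [gm_pull0 one_ne_zero a0 hne hmC, hm00, one_mul, one_mul]
    have h1 : |∑ k, (tr S (mv S T) ρ).mm k i * gm J J k| ≤ 3 * (2 * (C * w)) := by
      refine sum3_le fun k => ?_
      rw [abs_mul]
      exact mul_le_mul (hmm k i) (h.g k) (abs_nonneg _) (by norm_num)
    refine h1.trans ?_
    nlinarith [mul_pos (lt_of_lt_of_le one_pos hC) hw']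
  · have e1 : (pull 1 (tr S (mv S T) ρ) J).h00 = J.h00 := by
      rw [tr_mv hS hw]; simp [pull, hs]
    rw [e1]; exact h.h00
  · rw [lf_pull h.sy one_ne_zero a0 hne, one_mul]
    have h1 : |∑ k, ∑ l, tm 1 (tr S (mv S T) ρ) J k i * tm 1 (tr S (mv S T) ρ) J l j *
        Rk601.lf J (sl J) k l| ≤ 9 * (2 * 2 * (C * k)) := by
      refine sum33_le fun a b => ?_
      rw [abs_mul, abs_mul, htm, htm]
      exact mul_le_mul (mul_le_mul (hmm _ _) (hmm _ _) (abs_nonneg _) (by norm_num)) (h.lf a b)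
        (abs_nonneg _) (by norm_num)
    refine h1.trans (le_of_eq ?_)
    ring

set_option maxHeartbeats 1000000 in
/-- explicit jet with small curvature -/
theorem own_expl {w κ b0 b1 b2 c0 c1 c2 yy yu yv uu uv vv k1 k2 a ζ : ℝ} (hw : 0 < w)
    (hζ : 0 ≤ ζ) (hζ1 : ζ ≤ 1) (hκ : 0 ≤ κ) (ha : 0 ≤ a) (haw : a ≤ w) (haκ : a ≤ κ * w)
    (lo : 1 / 2 ≤ b0 + ζ * c0) (hi : b0 + ζ * c0 ≤ 2) (lo0 : 1 / 2 ≤ b0) (hc0 : |c0| ≤ 2)
    (hb1 : |b1| ≤ 1) (hb2 : |b2| ≤ 1)
    (hyy : |yy| ≤ 1) (hyu : |yu| ≤ 1) (hyv : |yv| ≤ 1)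
    (s1 : |c1 - b1 / b0 * c0| ≤ κ) (s2 : |c2 - b2 / b0 * c0| ≤ κ)
    (guu : |uu - b1 / b0 * yu + (b1 / b0) ^ 2 * yy| ≤ κ)
    (gvv : |vv - b2 / b0 * yv + (b2 / b0) ^ 2 * yy| ≤ κ)
    (guv : |uv - b1 / b0 * yv - b2 / b0 * yu + 2 * (b1 / b0) * (b2 / b0) * yy| ≤ κ)
    (hκ1 : κ ≤ 20) (hk1 : |k1| ≤ 24 * a) (hk2 : |k2| ≤ 8 * a) :
    Own 100000 w (κ * w)
      { a0 := w * (b0 + ζ * c0)
        a := ![k1, w * (b1 + ζ * c1), w * (b2 + ζ * c2)]
        h00 := 2 * (w * yy)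
        h0 := ![w * c0, w * yu, w * yv]
        h := ![![2 * k2, w * c1, w * c2], ![w * c1, 2 * (w * uu), w * uv],
          ![w * c2, w * uv, 2 * (w * vv)]] } := by
  set A := b0 + ζ * c0 with hA
  have A0 : 0 < A := by linarith
  have B0 : 0 < b0 := by linarith
  have pr : ∀ {p q P Q : ℝ}, |p| ≤ P → |q| ≤ Q → |p * q| ≤ P * Q := by
    intro p q P Q hp hq
    rw [abs_mul]
    exact mul_le_mul hp hq (abs_nonneg _) ((abs_nonneg _).trans hp)
  have hAi : |1 / A| ≤ 2 := by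
    rw [abs_of_pos (by positivity), div_le_iff₀ A0]; linarith
  have hBi : |1 / b0| ≤ 2 := by
    rw [abs_of_pos (by positivity), div_le_iff₀ B0]; linarith
  set σ1 := b1 / b0 with hσ1
  set σ2 := b2 / b0 with hσ2
  have σ1b : |σ1| ≤ 2 := by
    rw [hσ1, div_eq_mul_one_div]; exact (pr hb1 hBi).trans (by norm_num)
  have σ2b : |σ2| ≤ 2 := by
    rw [hσ2, div_eq_mul_one_div]; exact (pr hb2 hBi).trans (by norm_num)
  set J : Jt := { a0 := w * A
                  a := ![k1, w * (b1 + ζ * c1), w * (b2 + ζ * c2)]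
                  h00 := 2 * (w * yy)
                  h0 := ![w * c0, w * yu, w * yv]
                  h := ![![2 * k2, w * c1, w * c2], ![w * c1, 2 * (w * uu), w * uv],
                    ![w * c2, w * uv, 2 * (w * vv)]] } with hJ
  set t0 := sl J 0 with ht0
  set t1 := sl J 1 + σ1 with ht1
  set t2 := sl J 2 + σ2 with ht2
  have e0 : t0 = -(k1 / w) * (1 / A) := by
    show -k1 / (w * A) = _
    field_simp
  have e1 : t1 = -(ζ * (c1 - σ1 * c0)) * (1 / A) := by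
    show -(w * (b1 + ζ * c1)) / (w * A) + σ1 = _
    rw [hσ1, hA]
    have : b0 + ζ * c0 ≠ 0 := by rw [← hA]; exact A0.ne'
    field_simp
    ring
  have e2 : t2 = -(ζ * (c2 - σ2 * c0)) * (1 / A) := by
    show -(w * (b2 + ζ * c2)) / (w * A) + σ2 = _
    rw [hσ2, hA]
    have : b0 + ζ * c0 ≠ 0 := by rw [← hA]; exact A0.ne'
    field_simp
    ring
  have ζb : |ζ| ≤ 1 := by rw [abs_of_nonneg hζ]; exact hζ1
  have t1b : |t1| ≤ 2 * κ := by
    rw [e1]
    have := pr (p := -(ζ * (c1 - σ1 * c0))) (q := 1 / A) (P := 1 * κ) (Q := 2)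
      (by rw [abs_neg]; exact pr ζb s1) hAi
    linarith
  have t2b : |t2| ≤ 2 * κ := by
    rw [e2]
    have := pr (p := -(ζ * (c2 - σ2 * c0))) (q := 1 / A) (P := 1 * κ) (Q := 2)
      (by rw [abs_neg]; exact pr ζb s2) hAi
    linarith
  have k1w : |k1 / w| ≤ 24 * κ := by
    rw [abs_div, abs_of_pos hw, div_le_iff₀ hw]; nlinarith
  have k1w' : |k1 / w| ≤ 24 := by
    rw [abs_div, abs_of_pos hw, div_le_iff₀ hw]; linarith
  have t0b : |t0| ≤ 48 * κ := by
    rw [e0]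
    have := pr (p := -(k1 / w)) (q := 1 / A) (P := 24 * κ) (Q := 2) (by rw [abs_neg]; exact k1w) hAi
    linarith
  have t0b' : |t0| ≤ 48 := by
    rw [e0]
    have := pr (p := -(k1 / w)) (q := 1 / A) (P := 24) (Q := 2) (by rw [abs_neg]; exact k1w') hAi
    linarith
  have t1b' : |t1| ≤ 40 := by linarith
  have t2b' : |t2| ≤ 40 := by linarith
  have sl1 : sl J 1 = t1 - σ1 := by rw [ht1]; ring
  have sl2 : sl J 2 = t2 - σ2 := by rw [ht2]; ring
  have s1b : |sl J 1| ≤ 42 := by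
    rw [sl1]; exact (abs_sub _ _).trans (by linarith)
  have s2b : |sl J 2| ≤ 42 := by
    rw [sl2]; exact (abs_sub _ _).trans (by linarith)
  have hslb : ∀ i, |sl J i| ≤ 48 := by
    intro i; fin_cases i
    · exact t0b'
    · exact s1b.trans (by norm_num)
    · exact s2b.trans (by norm_num)
  have wb : |w| ≤ w := by rw [abs_of_pos hw]
  have hyy2 : |2 * (w * yy)| ≤ 2 * w := by
    have := pr (p := 2 * w) (q := yy) (P := 2 * w) (Q := 1) (by rw [abs_of_pos (by linarith)]) hyy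
    rw [mul_one] at this
    rw [← mul_assoc]; exact this
  have hsy : J.Sym := by
    intro i j
    fin_cases i <;> fin_cases j <;> rfl
  have h0b : ∀ i, |J.h0 i| ≤ 2 * w := by
    intro i; fin_cases i
    · show |w * c0| ≤ 2 * w
      have := pr wb hc0; linarith
    · show |w * yu| ≤ 2 * w
      have := pr wb hyu; linarith
    · show |w * yv| ≤ 2 * w
      have := pr wb hyv; linarith
  refine ⟨hsy, ?_, ?_, fun i => (hslb i).trans (by norm_num), fun i => ?_, hyy2, ?_⟩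
  · show w / 2 ≤ w * A
    nlinarith
  · show w * A ≤ 2 * w
    nlinarith
  · unfold gm
    have h1 := pr (hslb i) hyy2
    have h2 := h0b i
    refine (abs_add_le _ _).trans ?_
    have h3 : |sl J i * J.h00| ≤ 48 * (2 * w) := h1
    linarith
  · -- second form
    have κw : 0 ≤ κ * w := by positivity
    have κκ : κ * κ ≤ 20 * κ := by nlinarith
    have m0 : ∀ {x X : ℝ}, |x| ≤ X → |w * x| ≤ w * X := fun h => pr wb h
    have b00 : |lf J (sl J) 0 0| ≤ 100000 * (κ * w) := by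
      have e : lf J (sl J) 0 0 = 2 * k2 + w * (2 * (c0 * t0)) + w * (2 * (yy * (t0 * t0))) := by
        simp only [lf, hJ, ht0, Matrix.cons_val]; ring
      have a1 : |2 * k2| ≤ 16 * (κ * w) := by
        rw [abs_mul, abs_two]; linarith
      have a2 : |w * (2 * (c0 * t0))| ≤ w * (2 * (2 * (48 * κ))) :=
        m0 (by rw [abs_mul, abs_two]; exact mul_le_mul_of_nonneg_left (pr hc0 t0b) (by norm_num))
      have a3 : |w * (2 * (yy * (t0 * t0)))| ≤ w * (2 * (1 * (48 * κ * 48))) :=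
        m0 (by
          rw [abs_mul, abs_two]
          exact mul_le_mul_of_nonneg_left (pr hyy (pr t0b t0b')) (by norm_num))
      rw [e]
      refine (abs_add_three _ _ _).trans ?_
      linarith
    have b0k : ∀ (ck yk sk tk σk : ℝ), sk = tk - σk → |ck - σk * c0| ≤ κ → |tk| ≤ 2 * κ →
        |sk| ≤ 42 → |yk| ≤ 1 →
        |w * ck + w * c0 * sk + w * yk * t0 + 2 * (w * yy) * (t0 * sk)| ≤
          100000 * (κ * w) := by
      intro ck yk sk tk σk hs h1 h2 h3 h4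
      have e : w * ck + w * c0 * sk + w * yk * t0 + 2 * (w * yy) * (t0 * sk) =
          w * (ck - σk * c0) + w * (c0 * tk) + (w * (yk * t0) + w * (2 * (yy * (t0 * sk)))) := by
        rw [hs]; ring
      have a1 := m0 h1
      have a2 := m0 (pr hc0 h2)
      have a3 := m0 (pr h4 t0b)
      have a4 : |w * (2 * (yy * (t0 * sk)))| ≤ w * (2 * (1 * (48 * κ * 42))) :=
        m0 (by
          rw [abs_mul, abs_two]
          exact mul_le_mul_of_nonneg_left (pr hyy (pr t0b h3)) (by norm_num))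
      rw [e]
      refine (abs_add_three _ _ _).trans ?_
      have a5 := abs_add_le (w * (yk * t0)) (w * (2 * (yy * (t0 * sk))))
      linarith
    have bkk : ∀ (g yk sk tk σk : ℝ), sk = tk - σk → |g - σk * yk + σk ^ 2 * yy| ≤ κ →
        |tk| ≤ 2 * κ → |tk| ≤ 40 → |σk| ≤ 2 → |yk| ≤ 1 →
        |2 * (w * g) + w * yk * sk + w * yk * sk + 2 * (w * yy) * (sk * sk)| ≤
          100000 * (κ * w) := by
      intro g yk sk tk σk hs h1 h2 h2' h3 h4
      have e : 2 * (w * g) + w * yk * sk + w * yk * sk + 2 * (w * yy) * (sk * sk) =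
          w * (2 * (g - σk * yk + σk ^ 2 * yy)) + w * (2 * (yk * tk)) +
            (w * (2 * (yy * (tk * tk))) + w * (-4 * (yy * (tk * σk)))) := by
        rw [hs]; ring
      have a1 : |w * (2 * (g - σk * yk + σk ^ 2 * yy))| ≤ w * (2 * κ) :=
        m0 (by rw [abs_mul, abs_two]; exact mul_le_mul_of_nonneg_left h1 (by norm_num))
      have a2 : |w * (2 * (yk * tk))| ≤ w * (2 * (1 * (2 * κ))) :=
        m0 (by rw [abs_mul, abs_two]; exact mul_le_mul_of_nonneg_left (pr h4 h2) (by norm_num))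
      have a3 : |w * (2 * (yy * (tk * tk)))| ≤ w * (2 * (1 * (2 * κ * 40))) :=
        m0 (by
          rw [abs_mul, abs_two]
          exact mul_le_mul_of_nonneg_left (pr hyy (pr h2 h2')) (by norm_num))
      have a4 : |w * (-4 * (yy * (tk * σk)))| ≤ w * (4 * (1 * (2 * κ * 2))) :=
        m0 (by
          rw [abs_mul, abs_neg, abs_of_pos (by norm_num : (0:ℝ) < 4)]
          exact mul_le_mul_of_nonneg_left (pr hyy (pr h2 h3)) (by norm_num))
      rw [e]
      refine (abs_add_three _ _ _).trans ?_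
      have a5 := abs_add_le (w * (2 * (yy * (tk * tk)))) (w * (-4 * (yy * (tk * σk))))
      linarith
    have b12 : |w * uv + w * yu * sl J 2 + w * yv * sl J 1 + 2 * (w * yy) * (sl J 1 * sl J 2)| ≤
        100000 * (κ * w) := by
      have e : w * uv + w * yu * sl J 2 + w * yv * sl J 1 + 2 * (w * yy) * (sl J 1 * sl J 2) =
          w * (uv - σ1 * yv - σ2 * yu + 2 * σ1 * σ2 * yy) + (w * (yu * t2) + w * (yv * t1)) +
            (w * (2 * (yy * (t1 * t2))) + (w * (-2 * (yy * (t1 * σ2))) +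
              w * (-2 * (yy * (t2 * σ1))))) := by
        rw [sl1, sl2]; ring
      have a1 := m0 guv
      have a2 := m0 (pr hyu t2b)
      have a3 := m0 (pr hyv t1b)
      have a4 : |w * (2 * (yy * (t1 * t2)))| ≤ w * (2 * (1 * (2 * κ * 40))) :=
        m0 (by
          rw [abs_mul, abs_two]
          exact mul_le_mul_of_nonneg_left (pr hyy (pr t1b t2b')) (by norm_num))
      have a5 : |w * (-2 * (yy * (t1 * σ2)))| ≤ w * (2 * (1 * (2 * κ * 2))) :=
        m0 (by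
          rw [abs_mul, abs_neg, abs_of_pos (by norm_num : (0:ℝ) < 2)]
          exact mul_le_mul_of_nonneg_left (pr hyy (pr t1b σ2b)) (by norm_num))
      have a6 : |w * (-2 * (yy * (t2 * σ1)))| ≤ w * (2 * (1 * (2 * κ * 2))) :=
        m0 (by
          rw [abs_mul, abs_neg, abs_of_pos (by norm_num : (0:ℝ) < 2)]
          exact mul_le_mul_of_nonneg_left (pr hyy (pr t2b σ1b)) (by norm_num))
      rw [e]
      refine (abs_add_three _ _ _).trans ?_
      have a7 := abs_add_le (w * (yu * t2)) (w * (yv * t1))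
      have a8 := abs_add_three (w * (2 * (yy * (t1 * t2)))) (w * (-2 * (yy * (t1 * σ2))))
        (w * (-2 * (yy * (t2 * σ1))))
      rw [add_assoc] at a8
      linarith
    have c1k := b0k c1 yu (sl J 1) t1 σ1 sl1 s1 t1b s1b hyu
    have c2k := b0k c2 yv (sl J 2) t2 σ2 sl2 s2 t2b s2b hyv
    have d11 := bkk uu yu (sl J 1) t1 σ1 sl1 guu t1b t1b' σ1b hyu
    have d22 := bkk vv yv (sl J 2) t2 σ2 sl2 gvv t2b t2b' σ2b hyv
    have ls : ∀ i j, lf J (sl J) i j = lf J (sl J) j i := by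
      intro i j
      unfold lf
      rw [hsy i j]; ring
    have b01 : |lf J (sl J) 0 1| ≤ 100000 * (κ * w) := c1k
    have b02 : |lf J (sl J) 0 2| ≤ 100000 * (κ * w) := c2k
    have b11 : |lf J (sl J) 1 1| ≤ 100000 * (κ * w) := d11
    have b22 : |lf J (sl J) 2 2| ≤ 100000 * (κ * w) := d22
    have b12' : |lf J (sl J) 1 2| ≤ 100000 * (κ * w) := b12
    intro i j
    fin_cases i <;> fin_cases j
    · exact b00
    · exact b01
    · exact b02
    · show |lf J (sl J) 1 0| ≤ _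
      rw [ls]; exact b01
    · exact b11
    · exact b12'
    · show |lf J (sl J) 2 0| ≤ _
      rw [ls]; exact b02
    · show |lf J (sl J) 2 1| ≤ _
      rw [ls]; exact b12'
    · exact b22

/-- **own jets in the chart moving with the line** -/
theorem own_T {H j : ℕ} (hr : 0 < r) (hρ : 0 ≤ ρ) (hS : Shp S z0 ρ r) (hT : InP T S z0 ρ)
    (hj : j ≤ H) (hk : S.a ≤ kapP S z0 ρ T) :
    Own 100000 (S.w 0) (kapP S z0 ρ T)
      (jt S.q (fr S.e S.w) T.v (zj z0 ρ H j) (T.pos (zj z0 ρ H j)) ρ) := by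
  have a0 : 0 < S.a := hr.trans_le hS.r0_le
  have w0 : 0 < S.w 0 := a0.trans_le hS.a_le0
  have hexp := expP_spec (S := S) hS.isQ w0.ne' z0 ρ T
  have N := IsExp.nrmC (StP.of_shN hS w0) hρ (fun z h1 h2 => (hT z h1 h2).1) hexp
  have hkap : kapP S z0 ρ T = S.w 0 * kap (expP S z0 ρ T).1 (expP S z0 ρ T).2.1
    (expP S z0 ρ T).2.2 := rfl
  set b0 := (expP S z0 ρ T).1
  set b1 := (expP S z0 ρ T).2.1
  set G := (expP S z0 ρ T).2.2
  have κ0 := kap_nonneg b0 b1 G
  have κ13 := kap_le N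
  set κ := kap b0 b1 G with hκ
  have ζ0 : (0 : ℝ) ≤ (j : ℝ) / H := by positivity
  have ζ1 : (j : ℝ) / H ≤ 1 := by
    rcases Nat.eq_zero_or_pos H with h | h
    · rw [h]; simp
    · rw [div_le_one (by exact_mod_cast h)]; exact_mod_cast hj
  obtain ⟨c1, c2, hq⟩ := quad_along hS.isQ T z0 ρ
  have bd := quad_bd (a := S.a) (f0 := S.q z0 (T.pos z0)) (c1 := c1) (c2 := c2) (fun ζ h1 h2 => by
    rw [← hq ζ]
    refine (hT _ ?_ ?_).2
    · nlinarith
    · nlinarith)
  set z := (j : ℝ) / H with hz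
  have hk2 : ∀ ζ, S.q (z0 + ρ * (z + ζ)) (T.pos (z0 + ρ * (z + ζ))) =
      S.q (z0 + ρ * z) (T.pos (z0 + ρ * z)) + (c1 + 2 * c2 * z) * ζ + c2 * ζ ^ 2 := by
    intro ζ
    rw [hq, hq]; ring
  have J := jet_exp hexp hk2
  have e0 : zj z0 ρ H j = z0 + ρ * z := rfl
  have hsy : ({ a0 := S.w 0 * (b0 0 + z * b1 0)
                a := ![c1 + 2 * c2 * z, S.w 0 * (b0 1 + z * b1 1), S.w 0 * (b0 2 + z * b1 2)]
                h00 := 2 * (S.w 0 * G.yy)
                h0 := ![S.w 0 * b1 0, S.w 0 * G.yu, S.w 0 * G.yv]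
                h := ![![2 * c2, S.w 0 * b1 1, S.w 0 * b1 2],
                  ![S.w 0 * b1 1, 2 * (S.w 0 * G.uu), S.w 0 * G.uv],
                  ![S.w 0 * b1 2, S.w 0 * G.uv, 2 * (S.w 0 * G.vv)]] } : Jt).Sym := by
    intro a b
    fin_cases a <;> fin_cases b <;> rfl
  rw [e0, jt_eq J hsy, hkap, mul_comm (S.w 0) κ]
  have st := N.st z ζ0 ζ1 0 0 0 (by norm_num) (by norm_num) (by norm_num)
  have st0 := N.st 0 le_rfl zero_le_one 0 0 0 (by norm_num) (by norm_num) (by norm_num)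
  have st1 := N.st 1 zero_le_one le_rfl 0 0 0 (by norm_num) (by norm_num) (by norm_num)
  simp only [mul_zero, add_zero, zero_mul, one_mul] at st st0 st1
  obtain ⟨k1, k2⟩ := bd
  have m1 : |shB1 b0 b1 1| ≤ κ := (le_max_left _ _).trans (le_max_left _ _)
  have m2 : |shB1 b0 b1 2| ≤ κ := (le_max_right _ _).trans (le_max_left _ _)
  have m3 : |(shG b0 G).uu| ≤ κ :=
    ((le_max_left _ _).trans (le_max_left _ _)).trans (le_max_right _ _)
  have m4 : |(shG b0 G).uv| ≤ κ :=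
    ((le_max_right _ _).trans (le_max_left _ _)).trans (le_max_right _ _)
  have m5 : |(shG b0 G).vv| ≤ κ := (le_max_right _ _).trans (le_max_right _ _)
  have hc0 : |b1 0| ≤ 2 := by
    rw [abs_le]; constructor <;> linarith [st0.1, st0.2, st1.1, st1.2]
  have G1 := N.G_le
  refine own_expl w0 ζ0 ζ1 κ0 a0.le hS.a_le0 ?_ st.1 st.2 st0.1 hc0 N.b01 N.b02
    G1.1 G1.2.1 G1.2.2.1 m1 m2 m3 m5 ?_ (by linarith) ?_ k2
  · rw [mul_comm]; rw [← hkap]; exact hk
  · have e : G.uv - b0 1 / b0 0 * G.yv - b0 2 / b0 0 * G.yu +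
        2 * (b0 1 / b0 0) * (b0 2 / b0 0) * G.yy = (shG b0 G).uv := by
      simp only [shG]; ring
    rw [e]; exact m4
  · have h1 : |2 * c2 * z| ≤ 2 * (8 * S.a) * 1 := by
      rw [abs_mul, abs_mul, abs_two, abs_of_nonneg ζ0]
      exact mul_le_mul (mul_le_mul_of_nonneg_left k2 (by norm_num)) ζ1 ζ0 (by positivity)
    have h2 := abs_add_le c1 (2 * c2 * z)
    linarith

/-- **own jets** : `jS S S.q` -/
theorem own {H j : ℕ} (hr : 0 < r) (hρ : 0 ≤ ρ) (hS : Shp S z0 ρ r) (hT : InP T S z0 ρ)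
    (hj : j ≤ H) (hk : S.a ≤ kapP S z0 ρ T) :
    Own 3600000 (S.w 0) (kapP S z0 ρ T) (jS S S.q z0 ρ H j T) := by
  have a0 : 0 < S.a := hr.trans_le hS.r0_le
  have w0 : 0 < S.w 0 := a0.trans_le hS.a_le0
  have w2 : 0 < S.w 2 := w0.trans_le hS.w0_le
  have w1 : 0 < S.w 1 := w2.trans_le hS.w_le
  have hw : ∀ i, 0 < S.w i := by intro i; fin_cases i <;> assumption
  have h := own_T (H := H) (j := j) hr hρ hS hT hj hk
  have h2 := h.pull_mv (T := T) (by norm_num) w0 hρ hS.ortho hw hT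
  have e := jt_tr (S := S) (S' := mv S T) hS.isQ hS.ortho hw (zj z0 ρ H j) (T.pos (zj z0 ρ H j)) ρ
  unfold jS
  rw [e]
  have e3 : (36 : ℝ) * 100000 = 3600000 := by norm_num
  rw [e3] at h2
  exact h2

end

end Crest.Agent.R136.Chm862
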