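import Crest.Agent.R136.Wdg1_296
import Crest.Agent.R136.KapP_335

/-!
# R136 (S0187), PLAN 2, (AL), leaf `Gen` (helper296)

Two sheets: `(e, w)` = frame of the base class, `(e', w', q')` = the middle sheet.  A linear condition
`|n₀ + n₁ V₁ + n₂ V₂| ≤ t` on the velocities in the chart of the base class, for lines of the middle
sheet near the point `T(ζ)`, puts their velocities (frame of the middle sheet) in two small balls.
-/

set_option autoImplicit false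

namespace Crest.Agent.R136.Wdg296

open Crest.Agent.R136.Sh605 Crest.Agent.R136.Arc880 Crest.Agent.R136.Tl102

theorem dtx {e' : Fin 3 → V3} (h : Ortho e') (x D : V3) :
    dt x D = dt x (e' 0) * dt (e' 0) D + dt x (e' 1) * dt (e' 1) D + dt x (e' 2) * dt (e' 2) D := by
  have h0 := h.expand D 0
  have h1 := h.expand D 1
  have h2 := h.expand D 2
  have : dt x D = x 0 * D 0 + x 1 * D 1 + x 2 * D 2 := rfl
  rw [this, h0, h1, h2]
  simp only [dt]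
  ring

theorem dt_cmb_fr' (x : V3) (e : Fin 3 → V3) (w τ : V3) :
    dt x (cmb (fr e w) τ) = τ 0 * w 0 * dt x (e 0) + τ 1 * w 1 * dt x (e 1) +
      τ 2 * w 2 * dt x (e 2) := by
  simp only [dt, cmb, fr, Pi.smul_apply, smul_eq_mul]; ring

/-- coordinates of a vector in the second frame give the vector -/
theorem cmb_back {e' : Fin 3 → V3} (h : Ortho e') {w' : V3} (hw' : ∀ k, w' k ≠ 0) (D : V3) :
    cmb (fr e' w') (fun l => dt (e' l) D / w' l) = D := by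
  ext i
  rw [h.expand D i]
  simp only [cmb, fr, Pi.smul_apply, smul_eq_mul]
  have h0 := hw' 0
  have h1 := hw' 1
  have h2 := hw' 2
  field_simp

/-- coefficient of the functional `n₁ V₁ + n₂ V₂` on the `l`-th coordinate of the second frame -/
noncomputable def mc (e e' : Fin 3 → V3) (w w' : V3) (n : Fin 3 → ℝ) (l : Fin 3) : ℝ :=
  n 1 * (w' l / w 1 * dt (e 1) (e' l)) + n 2 * (w' l / w 2 * dt (e 2) (e' l))

/-- the functional in the two frames -/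
theorem fun_eq {e e' : Fin 3 → V3} (he' : Ortho e') {w w' : V3} (hw : ∀ k, w k ≠ 0)
    (hw' : ∀ k, w' k ≠ 0) (n : Fin 3 → ℝ) (D : V3) :
    n 1 * (dt (e 1) D / w 1) + n 2 * (dt (e 2) D / w 2) =
      mc e e' w w' n 0 * (dt (e' 0) D / w' 0) + mc e e' w w' n 1 * (dt (e' 1) D / w' 1) +
        mc e e' w w' n 2 * (dt (e' 2) D / w' 2) := by
  rw [dtx he' (e 1) D, dtx he' (e 2) D]
  unfold mc
  have h0 := hw' 0
  have h1 := hw' 1
  have h2 := hw' 2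
  have g1 := hw 1
  have g2 := hw 2
  field_simp
  ring

/-- the reduced coefficients -/
noncomputable def rc (e e' : Fin 3 → V3) (w w' : V3) (G : V3) (n : Fin 3 → ℝ) (l : Fin 3) : ℝ :=
  mc e e' w w' n l - mc e e' w w' n 0 * (G l / G 0)

/-- the functional on tangent vectors -/
theorem fun_tan {e e' : Fin 3 → V3} (he : Ortho e) (he' : Ortho e') {w w' : V3}
    (hw : ∀ k, w k ≠ 0) (hw' : ∀ k, w' k ≠ 0) {G : V3} (hG : G 0 ≠ 0) (n : Fin 3 → ℝ) (τ : V3)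
    (hτ : dt G (fun l => dt (e' l) (cmb (fr e w) τ) / w' l) = 0) :
    n 1 * τ 1 + n 2 * τ 2 =
      rc e e' w w' G n 1 * (dt (e' 1) (cmb (fr e w) τ) / w' 1) +
        rc e e' w w' G n 2 * (dt (e' 2) (cmb (fr e w) τ) / w' 2) := by
  have h := fun_eq (e := e) he' hw hw' n (cmb (fr e w) τ)
  rw [dt_cmb_fr he, dt_cmb_fr he, mul_div_cancel_left₀ _ (hw 1), mul_div_cancel_left₀ _ (hw 2)] at h
  rw [h]
  set x0 := dt (e' 0) (cmb (fr e w) τ) / w' 0 with hx0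
  set x1 := dt (e' 1) (cmb (fr e w) τ) / w' 1 with hx1
  set x2 := dt (e' 2) (cmb (fr e w) τ) / w' 2 with hx2
  have h3 : G 0 * x0 + G 1 * x1 + G 2 * x2 = 0 := hτ
  have h4 : x0 = -(G 1 / G 0 * x1 + G 2 / G 0 * x2) := by
    field_simp
    linarith
  rw [h4]
  unfold rc
  ring

/-- **lower bound of the reduced coefficients** -/
theorem rc_lower {e e' : Fin 3 → V3} (he : Ortho e) (he' : Ortho e') {w w' : V3}
    (hw : ∀ k, 0 < w k) (hw' : ∀ k, 0 < w' k) {K : ℝ} (hK : 1 ≤ K)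
    (hb : ∀ l, l ≠ 0 → ∀ k, w k * |dt (e' l) (e k)| ≤ K ^ 2 * w' l)
    {g G : V3} (hgG : ∀ τ : V3, dt g τ = 0 → dt G (fun l => dt (e' l) (cmb (fr e w) τ) / w' l) = 0)
    (hg0 : g 0 ≠ 0) (hg : ∀ k, k ≠ 0 → |g k| ≤ K * |g 0|) (hG : G 0 ≠ 0) (n : Fin 3 → ℝ) :
    |n 1| ≤ 2 * K ^ 3 * (|rc e e' w w' G n 1| + |rc e e' w w' G n 2|) ∧
      |n 2| ≤ 2 * K ^ 3 * (|rc e e' w w' G n 1| + |rc e e' w w' G n 2|) := by
  have hK2 : 1 ≤ K ^ 2 := one_le_pow₀ hK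
  have hK3 : K ^ 2 ≤ K ^ 3 := pow_le_pow_right₀ hK (by norm_num)
  have hg0' : 0 < |g 0| := abs_pos.2 hg0
  -- coordinates of a tangent vector in the second frame
  have bd : ∀ (τ : V3), |τ 0| ≤ K → |τ 1| + |τ 2| ≤ 1 → ∀ l, l ≠ 0 →
      |dt (e' l) (cmb (fr e w) τ) / w' l| ≤ 2 * K ^ 3 := by
    intro τ h0 h1 l hl
    rw [abs_div, abs_of_pos (hw' l), div_le_iff₀ (hw' l), dt_cmb_fr']
    have c := hb l hl
    have e0 : ∀ k, |τ k * w k * dt (e' l) (e k)| ≤ |τ k| * (K ^ 2 * w' l) := by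
      intro k
      rw [abs_mul, abs_mul, abs_of_pos (hw k), mul_assoc]
      exact mul_le_mul_of_nonneg_left (c k) (abs_nonneg _)
    have e1 := abs_add_three (τ 0 * w 0 * dt (e' l) (e 0)) (τ 1 * w 1 * dt (e' l) (e 1))
      (τ 2 * w 2 * dt (e' l) (e 2))
    have e2 : 0 ≤ K ^ 2 * w' l := mul_nonneg (by positivity) (hw' l).le
    calc _ ≤ |τ 0| * (K ^ 2 * w' l) + |τ 1| * (K ^ 2 * w' l) + |τ 2| * (K ^ 2 * w' l) := by
          linarith [e0 0, e0 1, e0 2]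
      _ = |τ 0| * (K ^ 2 * w' l) + (|τ 1| + |τ 2|) * (K ^ 2 * w' l) := by ring
      _ ≤ K * (K ^ 2 * w' l) + 1 * (K ^ 2 * w' l) := by gcongr
      _ ≤ K * (K ^ 2 * w' l) + K * (K ^ 2 * w' l) := by gcongr
      _ = 2 * K ^ 3 * w' l := by ring
  have main : ∀ (τ : V3), dt g τ = 0 → |τ 0| ≤ K → |τ 1| + |τ 2| ≤ 1 →
      |n 1 * τ 1 + n 2 * τ 2| ≤ 2 * K ^ 3 * (|rc e e' w w' G n 1| + |rc e e' w w' G n 2|) := by
    intro τ h1 h2 h3
    rw [fun_tan he he' (fun k => (hw k).ne') (fun k => (hw' k).ne') hG n τ (hgG τ h1)]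
    refine (abs_add_le _ _).trans ?_
    rw [abs_mul, abs_mul]
    have b1 := mul_le_mul_of_nonneg_left (bd τ h2 h3 1 (by decide))
      (abs_nonneg (rc e e' w w' G n 1))
    have b2 := mul_le_mul_of_nonneg_left (bd τ h2 h3 2 (by decide))
      (abs_nonneg (rc e e' w w' G n 2))
    linarith
  have q1 : |-(g 1 / g 0)| ≤ K := by
    rw [abs_neg, abs_div, div_le_iff₀ hg0']; exact hg 1 (by decide)
  have q2 : |-(g 2 / g 0)| ≤ K := by
    rw [abs_neg, abs_div, div_le_iff₀ hg0']; exact hg 2 (by decide)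
  constructor
  · have := main ![-(g 1 / g 0), 1, 0] (by
      change g 0 * -(g 1 / g 0) + g 1 * 1 + g 2 * 0 = 0
      field_simp
      ring) q1 (by
      change |(1 : ℝ)| + |(0 : ℝ)| ≤ 1
      norm_num)
    simpa using this
  · have := main ![-(g 2 / g 0), 0, 1] (by
      change g 0 * -(g 2 / g 0) + g 1 * 0 + g 2 * 1 = 0
      field_simp
      ring) q2 (by
      change |(0 : ℝ)| + |(1 : ℝ)| ≤ 1
      norm_num)
    simpa using this

/-- the relative velocity is nearly tangent -/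
theorem grad_near {e : Fin 3 → V3} {c : Ln4} {w : V3} {q : ℝ → V3 → ℝ} {z0 ρ a : ℝ}
    (S : StP e c w q z0 ρ) (hρ : 0 ≤ ρ) {T : Ln4} (hT : InSheet T e c w q a z0 ρ)
    {b0 b1 : V3} {G : QF} (hE : IsExp q e w T z0 ρ b0 b1 G) (hκ : 0 < kap b0 b1 G)
    {r ζ : ℝ} (hr : 0 ≤ r) (hsm : 400000 * (r + a / (w 0 * kap b0 b1 G)) ≤ 1)
    (hζ : 0 ≤ ζ) (hζ' : ζ ≤ 1) {L : Ln4} (hL : InSheet L e c w q a z0 ρ)
    (k1 : |rp e w z0 ρ T L ζ 1| ≤ r) (k2 : |rp e w z0 ρ T L ζ 2| ≤ r) :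
    |dt (bz b0 b1 ζ) (vel e w ρ T L)| ≤ 4000000 * (r + a / (w 0 * kap b0 b1 G)) := by
  have hTK : ∀ z, z0 ≤ z → z ≤ z0 + ρ → InK e c w z (T.pos z) := fun z h1 h2 => (hT z h1 h2).1
  have N := hE.nrmC S hρ hTK
  obtain ⟨g1, g2, g3, g4, g5, -, -, -, -⟩ := N.b1_le
  have hk13 := kap_le N
  have hb0 : b0 0 ≠ 0 := by linarith
  have hw0 := S.pos 0
  have hwne : ∀ i, w i ≠ 0 := fun i => (S.pos i).ne'
  have hz : ∀ ζ, 0 ≤ ζ → ζ ≤ 1 → z0 ≤ z0 + ρ * ζ ∧ z0 + ρ * ζ ≤ z0 + ρ := by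
    intro ζ h1 h2
    constructor
    · nlinarith
    · nlinarith
  have ha : 0 ≤ a := (abs_nonneg _).trans (hT z0 le_rfl (by linarith)).2
  obtain ⟨c1, c2, c3, c4, c5, c6, c7, c8, c9, c10⟩ := N.sc_le hκ
  set κ := kap b0 b1 G with hκdef
  have hwk : 0 < w 0 * κ := mul_pos hw0 hκ
  set A := a / (w 0 * κ) with hAd
  have hA0 : 0 ≤ A := by positivity
  have hr40 : r ≤ 1 / 40 := by linarith
  have hA2 : A ≤ 1 / 2 := by linarith
  obtain ⟨d1, d2⟩ := captured S hρ hT hL hE hκ hA2 hζ hζ' hr40 k1 k2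
  have hG13 : (scG κ b0 G).Le 13 := ⟨c5, c6.trans (by norm_num), c7.trans (by norm_num),
    c8.trans (by norm_num), c9.trans (by norm_num), c10.trans (by norm_num)⟩
  have h0 : ∀ z', 0 ≤ z' → z' ≤ 1 → |Fq (shB0 b0) (scB1 κ b0 b1) (scG κ b0 G) z'
      (pos (sD κ b0 (rp e w z0 ρ T L ζ)) (sD κ b0 (vel e w ρ T L)) ζ z')| ≤ 2 * A := by
    intro ζ hζ hζ'
    obtain ⟨z1, z2⟩ := hz ζ hζ hζ'
    rw [sD_pos]
    have h1 := hE.at S.ortho hwne hκ.ne' b0 ζ (L.pos (z0 + ρ * ζ))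
    rw [gl_own hb0, gl_own1, gM_own] at h1
    have q1 := (hL _ z1 z2).2
    have q2 := (hT _ z1 z2).2
    have h2 : w 0 * κ * |Fq (shB0 b0) (scB1 κ b0 b1) (scG κ b0 G) ζ
        (sD κ b0 (rp e w z0 ρ T L ζ))| ≤ 2 * a := by
      rw [← abs_of_pos hwk, ← abs_mul, mul_assoc]
      have e1 : w 0 * (κ * Fq (shB0 b0) (scB1 κ b0 b1) (scG κ b0 G) ζ
          (sD κ b0 (rp e w z0 ρ T L ζ))) =
          q (z0 + ρ * ζ) (L.pos (z0 + ρ * ζ)) - q (z0 + ρ * ζ) (T.pos (z0 + ρ * ζ)) := by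
        rw [h1]; unfold rp; ring
      rw [e1]
      exact (abs_sub _ _).trans (by linarith)
    have h3 : 2 * A * (w 0 * κ) = 2 * a := by rw [hAd]; field_simp
    exact le_of_mul_le_mul_left (by linarith) hwk
  obtain ⟨L1, -⟩ := line_coef hζ hζ' h0 hG13 c2 d1 d2
  have e : dt (bz b0 b1 ζ) (vel e w ρ T L) =
      κ * dt (bz (shB0 b0) (scB1 κ b0 b1) ζ) (sD κ b0 (vel e w ρ T L)) := by
    have hκ' : κ ≠ 0 := hκ.ne'
    simp only [dt, bz, shB0, scB1, shB1, sD, yc, Matrix.cons_val]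
    field_simp
    ring
  rw [e, abs_mul, abs_of_pos hκ]
  have h1 : 8 * (2 * A) + (3 * (3 / 2) + 12 * (13 * 256)) * (5 * r + 4 * A) ≤
      200000 * (r + A) := by nlinarith
  have h2 := mul_le_mul hk13 (L1.trans h1) (abs_nonneg _) (by norm_num)
  linarith

/-- gradients in the two frames have the same kernel -/
theorem ker_grad {e e' : Fin 3 → V3} (he' : Ortho e') {w w' : V3} (hw' : ∀ k, 0 < w' k)
    {q' : ℝ → V3 → ℝ} {z0 ρ ζ : ℝ} {T : Ln4} {b0 b1 : V3} {G : QF}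
    (hE : IsExp q' e' w' T z0 ρ b0 b1 G) {g : V3}
    (hg : ∀ τ : V3, q' (z0 + ρ * ζ) (T.pos (z0 + ρ * ζ) + cmb (fr e w) τ) -
      q' (z0 + ρ * ζ) (T.pos (z0 + ρ * ζ) - cmb (fr e w) τ) = dt g τ) (τ : V3) (hτ : dt g τ = 0) :
    dt (bz b0 b1 ζ) (fun l => dt (e' l) (cmb (fr e w) τ) / w' l) = 0 := by
  set x : V3 := fun l => dt (e' l) (cmb (fr e w) τ) / w' l with hx
  have hb : cmb (fr e' w') x = cmb (fr e w) τ := cmb_back he' (fun k => (hw' k).ne') _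
  have hm : cmb (fr e' w') (fun k => -x k) = -cmb (fr e w) τ := by
    rw [← hb]
    ext i
    simp only [cmb, Pi.neg_apply]
    ring
  have h1 := hE ζ x
  have h2 := hE ζ (fun k => -x k)
  rw [hb] at h1
  rw [hm, ← sub_eq_add_neg] at h2
  have h3 := hg τ
  rw [h1, h2, hτ] at h3
  have h4 : Fq b0 b1 G ζ x - Fq b0 b1 G ζ (fun k => -x k) = 2 * dt (bz b0 b1 ζ) x := by
    simp only [Fq, dt, QF.ev]
    ring
  have h5 : w' 0 * (2 * dt (bz b0 b1 ζ) x) = 0 := by rw [← h4]; linarith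
  have h6 : w' 0 ≠ 0 := (hw' 0).ne'
  rcases mul_eq_zero.1 h5 with h | h
  · exact absurd h h6
  · linarith

/-- velocities in the chart of a class -/
theorem vel_add (e : Fin 3 → V3) (w : V3) (ρ : ℝ) (c T L : Ln4) (k : Fin 3) :
    vel e w ρ c L k = vel e w ρ c T k + vel e w ρ T L k := by
  simp only [vel, dt, Pi.sub_apply]
  ring

theorem vel_le_two {e : Fin 3 → V3} {c : Ln4} {w : V3} {z0 ρ : ℝ} (hρ : 0 ≤ ρ) (hw : ∀ k, 0 < w k)
    {T : Ln4} (hT : ∀ z, z0 ≤ z → z ≤ z0 + ρ → InK e c w z (T.pos z)) (k : Fin 3) :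
    |vel e w ρ c T k| ≤ 2 := by
  have h0 := hT z0 le_rfl (by linarith) k
  have h1 := hT (z0 + ρ) (by linarith) le_rfl k
  have e1 : ρ * dt (e k) (T.v - c.v) = dt (e k) (T.pos (z0 + ρ) - c.pos (z0 + ρ)) -
      dt (e k) (T.pos z0 - c.pos z0) := by
    simp only [dt, Pi.sub_apply, Ln4.pos]
    ring
  unfold vel
  rw [abs_div, abs_of_pos (hw k), div_le_iff₀ (hw k), e1]
  exact (abs_sub _ _).trans (by linarith)

set_option maxHeartbeats 1000000 in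
/-- **Gen, balls.**  `(e, c, w)` = chart of the base class, `(e', c', w', q')` = the middle sheet. -/
theorem gen_ball {e : Fin 3 → V3} {c : Ln4} {w : V3} (he : Ortho e) (hw : ∀ k, 0 < w k)
    {e' : Fin 3 → V3} {c' : Ln4} {w' : V3} {q' : ℝ → V3 → ℝ} {z0 ρ a' : ℝ}
    (S' : StP e' c' w' q' z0 ρ) (hρ : 0 ≤ ρ) {T : Ln4}
    (hT : ∀ z, z0 ≤ z → z ≤ z0 + ρ → InK e c w z (T.pos z)) (hT' : InSheet T e' c' w' q' a' z0 ρ)
    {b0 b1 : V3} {G : QF} (hE : IsExp q' e' w' T z0 ρ b0 b1 G) (hκ : 0 < kap b0 b1 G)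
    {κd β r t K ζ : ℝ} (hκd : 0 < κd) (hκd1 : κd ≤ 1) (hβ : 0 < β) (hβ1 : β ≤ 1)
    (hζ : 0 ≤ ζ) (hζ' : ζ ≤ 1)
    (hnd : κd ≤ |det3 (fan (shB0 b0) (scB1 (kap b0 b1 G) b0 b1) (scG (kap b0 b1 G) b0 G) ζ)|)
    (hK : 1 ≤ K) (ha : ∀ k, k ≠ 0 → ∀ l, w' l * |dt (e k) (e' l)| ≤ K ^ 2 * w k)
    (hb : ∀ l, l ≠ 0 → ∀ k, w k * |dt (e' l) (e k)| ≤ K ^ 2 * w' l) {g : V3}
    (hg : ∀ τ : V3, q' (z0 + ρ * ζ) (T.pos (z0 + ρ * ζ) + cmb (fr e w) τ) -
      q' (z0 + ρ * ζ) (T.pos (z0 + ρ * ζ) - cmb (fr e w) τ) = dt g τ)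
    (hg0 : g 0 ≠ 0) (hgk : ∀ k, k ≠ 0 → |g k| ≤ K * |g 0|) (hr : 0 ≤ r) (ht : 0 ≤ t)
    (hnum : 2 * 10 ^ 12 * K ^ 7 * (r + a' / (w' 0 * kap b0 b1 G)) + 10 ^ 5 * K ^ 4 * t ≤
      (κd * β ^ 2 / 216) ^ 3)
    {n : Fin 3 → ℝ} (hnK : ∀ i, |n i| ≤ K) (hn : ∃ i, 1 / K ≤ |n i|) :
    ∃ p : Fin 2 → ℝ × ℝ, ∀ L : Ln4, InSheet L e' c' w' q' a' z0 ρ →
      |rp e' w' z0 ρ T L ζ 1| ≤ r → |rp e' w' z0 ρ T L ζ 2| ≤ r →
      |n 0 + n 1 * vel e w ρ c L 1 + n 2 * vel e w ρ c L 2| ≤ t →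
        ∃ i, dist (vel e' w' ρ T L 1, vel e' w' ρ T L 2) (p i) < 4 * β := by
  have hTK : ∀ z, z0 ≤ z → z ≤ z0 + ρ → InK e' c' w' z (T.pos z) := fun z h1 h2 => (hT' z h1 h2).1
  have N := hE.nrmC S' hρ hTK
  obtain ⟨g1, g2, g3, g4, g5, -, -, -, -⟩ := N.b1_le
  have hw' : ∀ k, 0 < w' k := S'.pos
  have ha0 : 0 ≤ a' := (abs_nonneg _).trans (hT' z0 le_rfl (by linarith)).2
  set κ := kap b0 b1 G with hκdef
  have hwk : 0 < w' 0 * κ := mul_pos (hw' 0) hκ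
  set A := a' / (w' 0 * κ) with hAd
  have hA0 : 0 ≤ A := by positivity
  set B := bz b0 b1 ζ with hB
  have hB0 : 1 / 2 ≤ B 0 := by
    change 1 / 2 ≤ b0 0 + ζ * b1 0
    nlinarith
  have hBne : B 0 ≠ 0 := by linarith
  have hKp : 0 < K := by linarith
  have hK3 : 1 ≤ K ^ 3 := one_le_pow₀ hK
  have hK4 : 1 ≤ K ^ 4 := one_le_pow₀ hK
  have hK7 : 1 ≤ K ^ 7 := one_le_pow₀ hK
  have hβ2 : β ^ 2 ≤ 1 := pow_le_one₀ hβ.le hβ1
  set θ := κd * β ^ 2 / 216 with hθ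
  have hθ0 : 0 < θ := by rw [hθ]; positivity
  have hθ1 : θ ≤ 1 := by
    have : κd * β ^ 2 ≤ 1 * 1 := mul_le_mul hκd1 hβ2 (by positivity) (by norm_num)
    rw [hθ]; linarith
  have hθ31 : θ ^ 3 ≤ 1 := pow_le_one₀ hθ0.le hθ1
  have hrA : 0 ≤ r + A := by positivity
  have hKt : 0 ≤ K ^ 4 * t := by positivity
  have hKr : r + A ≤ K ^ 7 * (r + A) := le_mul_of_one_le_left hrA hK7
  have hsm1 : 2 * 10 ^ 12 * (r + A) ≤ θ ^ 3 := by
    have e1 : 2 * 10 ^ 12 * K ^ 7 * (r + A) = 2 * 10 ^ 12 * (K ^ 7 * (r + A)) := by ring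
    have e2 : 10 ^ 5 * K ^ 4 * t = 10 ^ 5 * (K ^ 4 * t) := by ring
    rw [e1, e2] at hnum
    linarith
  -- the functional in the frame of the middle sheet
  set V1 := vel e w ρ c T 1 with hV1
  set V2 := vel e w ρ c T 2 with hV2
  have v1 : |V1| ≤ 2 := vel_le_two hρ hw hT 1
  have v2 : |V2| ≤ 2 := vel_le_two hρ hw hT 2
  set c0 := n 0 + n 1 * V1 + n 2 * V2 with hc0
  set m := mc e e' w w' n with hm
  set R := rc e e' w w' B n with hR
  have hm0 : |m 0| ≤ 2 * K ^ 3 := by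
    have e1 : ∀ k : Fin 3, k ≠ 0 → |n k * (w' 0 / w k * dt (e k) (e' 0))| ≤ K * K ^ 2 := by
      intro k hk
      rw [abs_mul]
      refine mul_le_mul (hnK k) ?_ (abs_nonneg _) hKp.le
      rw [abs_mul, abs_div, abs_of_pos (hw' 0), abs_of_pos (hw k), div_mul_eq_mul_div,
        div_le_iff₀ (hw k)]
      exact ha k hk 0
    have := (abs_add_le (n 1 * (w' 0 / w 1 * dt (e 1) (e' 0)))
      (n 2 * (w' 0 / w 2 * dt (e 2) (e' 0)))).trans
      (add_le_add (e1 1 (by decide)) (e1 2 (by decide)))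
    calc |m 0| ≤ K * K ^ 2 + K * K ^ 2 := this
      _ = 2 * K ^ 3 := by ring
  have hlow := rc_lower he S'.ortho hw hw' hK hb (fun τ hτ => ker_grad S'.ortho hw' hE hg τ hτ)
    hg0 hgk hBne n
  rw [← hB, ← hR] at hlow
  -- one coefficient is not small
  have hex : ∃ i, 1 / (17 * K ^ 4) ≤ |(![c0, R 1, R 2] : Fin 3 → ℝ) i| := by
    by_contra hcon
    push Not at hcon
    have h0 : |c0| < 1 / (17 * K ^ 4) := hcon 0
    have h1 : |R 1| < 1 / (17 * K ^ 4) := hcon 1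
    have h2 : |R 2| < 1 / (17 * K ^ 4) := hcon 2
    set η := 1 / (17 * K ^ 4) with hη
    have hη0 : 0 < η := by rw [hη]; positivity
    have hηK : 17 * K ^ 3 * η = 1 / K := by rw [hη]; field_simp
    have hK3p : 0 < K ^ 3 := by positivity
    have b : |R 1| + |R 2| < 2 * η := by linarith
    have hy : η ≤ K ^ 3 * η := le_mul_of_one_le_left hη0.le hK3
    have n12 : 2 * K ^ 3 * (|R 1| + |R 2|) < 4 * (K ^ 3 * η) := by
      calc 2 * K ^ 3 * (|R 1| + |R 2|) < 2 * K ^ 3 * (2 * η) :=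
            mul_lt_mul_of_pos_left b (by positivity)
        _ = 4 * (K ^ 3 * η) := by ring
    have n1 : |n 1| < 4 * (K ^ 3 * η) := lt_of_le_of_lt hlow.1 n12
    have n2 : |n 2| < 4 * (K ^ 3 * η) := lt_of_le_of_lt hlow.2 n12
    have hyp : 0 < K ^ 3 * η := mul_pos hK3p hη0
    have h17 : 17 * K ^ 3 * η = 17 * (K ^ 3 * η) := by ring
    have n0 : |n 0| < 17 * (K ^ 3 * η) := by
      have e0 : n 0 = c0 - n 1 * V1 - n 2 * V2 := by rw [hc0]; ring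
      have m1 : |n 1 * V1| ≤ |n 1| * 2 := by
        rw [abs_mul]; exact mul_le_mul_of_nonneg_left v1 (abs_nonneg _)
      have m2 : |n 2 * V2| ≤ |n 2| * 2 := by
        rw [abs_mul]; exact mul_le_mul_of_nonneg_left v2 (abs_nonneg _)
      have : |n 0| ≤ |c0| + |n 1| * 2 + |n 2| * 2 := by
        rw [e0]; exact abs_sub2 (abs_sub2 le_rfl m1) m2
      linarith
    have hlt : ∀ i, |n i| < 1 / K := by
      intro i
      rw [← hηK, h17]
      fin_cases i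
      · exact n0
      · refine lt_of_lt_of_le n1 ?_
        linarith
      · refine lt_of_lt_of_le n2 ?_
        linarith
    obtain ⟨i, hi⟩ := hn
    exact absurd hi (not_le.2 (hlt i))
  set t' := t + 16 * 10 ^ 6 * K ^ 3 * (r + A) with ht'
  obtain ⟨p, hp⟩ := wedge S' hρ hT' hE hκ (κd := κd) (β := β) (r := r) (t := t')
    (K := 17 * K ^ 4) (ζ := ζ) hκd hκd1 hβ hβ1 hζ hζ' hnd hr (by linarith)
    (by rw [← hθ]; linarith)
    (by
      rw [← hθ, ht']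
      have e1 : 4096 * (17 * K ^ 4 * (t + 16 * 10 ^ 6 * K ^ 3 * (r + A))) =
          69632 * (K ^ 4 * t) + 69632 * (16 * 10 ^ 6) * (K ^ 7 * (r + A)) := by ring
      rw [e1]
      have e2 : 0 ≤ K ^ 7 * (r + A) := by positivity
      have e3 : 2 * 10 ^ 12 * K ^ 7 * (r + A) = 2 * 10 ^ 12 * (K ^ 7 * (r + A)) := by ring
      have e4 : 10 ^ 5 * K ^ 4 * t = 10 ^ 5 * (K ^ 4 * t) := by ring
      rw [e3, e4] at hnum
      linarith)
    (n := ![c0, R 1, R 2]) hex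
  refine ⟨p, fun L hL k1 k2 k3 => hp L hL k1 k2 ?_⟩
  have hδ := grad_near S' hρ hT' hE hκ hr (by linarith) hζ hζ' hL k1 k2
  rw [← hB] at hδ
  set x0 := vel e' w' ρ T L 0 with hx0
  set x1 := vel e' w' ρ T L 1 with hx1
  set x2 := vel e' w' ρ T L 2 with hx2
  have hf : n 1 * vel e w ρ T L 1 + n 2 * vel e w ρ T L 2 = m 0 * x0 + m 1 * x1 + m 2 * x2 := by
    have h := fun_eq (e := e) S'.ortho (w := w) (w' := w') (fun k => (hw k).ne')
      (fun k => (hw' k).ne') n (ρ • (L.v - T.v))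
    simp only [dt_smul] at h
    exact h
  have hBx : dt B (vel e' w' ρ T L) = B 0 * x0 + B 1 * x1 + B 2 * x2 := rfl
  have hd : c0 + R 1 * x1 + R 2 * x2 =
      (n 0 + n 1 * vel e w ρ c L 1 + n 2 * vel e w ρ c L 2) -
        m 0 * (dt B (vel e' w' ρ T L) / B 0) := by
    rw [vel_add e w ρ c T L 1, vel_add e w ρ c T L 2, hBx]
    have e1 : n 0 + n 1 * (vel e w ρ c T 1 + vel e w ρ T L 1) +
        n 2 * (vel e w ρ c T 2 + vel e w ρ T L 2) = c0 +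
        (n 1 * vel e w ρ T L 1 + n 2 * vel e w ρ T L 2) := by
      rw [hc0, hV1, hV2]; ring
    rw [e1, hf, hR, hm]
    unfold rc
    field_simp
    ring
  change |c0 + R 1 * x1 + R 2 * x2| ≤ t'
  rw [hd]
  refine (abs_sub _ _).trans ?_
  have h2 : |m 0 * (dt B (vel e' w' ρ T L) / B 0)| ≤ 2 * K ^ 3 * (8 * 10 ^ 6 * (r + A)) := by
    rw [abs_mul]
    refine mul_le_mul hm0 ?_ (abs_nonneg _) (by positivity)
    rw [abs_div, abs_of_pos (by linarith : 0 < B 0), div_le_iff₀ (by linarith)]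
    have h3 : 8 * 10 ^ 6 * (r + A) * (1 / 2) ≤ 8 * 10 ^ 6 * (r + A) * B 0 :=
      mul_le_mul_of_nonneg_left hB0 (by positivity)
    linarith
  have h4 : 2 * K ^ 3 * (8 * 10 ^ 6 * (r + A)) = 16 * 10 ^ 6 * K ^ 3 * (r + A) := by ring
  rw [ht']
  linarith

end Crest.Agent.R136.Wdg296
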