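import Crest.Agent.R136.Adj_214
import Crest.Agent.R136.AlD_601
import Crest.Agent.R136.Chm_862
import Crest.Agent.R136.Wdg2_296

/-!
# R136 (S0187), PLAN 2, (AL): 214's division in 601's chart (helper296)

* `jet_cx` : a function which is quadratic in 214's chart `cx` has, in the chart `(fr e w, c.v)` at
  the height `ζj`, the jet `pull M (Lc ..) (J.shift ..)` (862's `pull`, `mC = 0`).
* `Dv`, `dv_of` : tangential Hessian, mixed and normal second derivatives of `q'` over the sheet `S`.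
-/

set_option autoImplicit false
set_option linter.unusedVariables false

namespace Crest.Agent.R136.Wdg296

open Crest.Agent.R136.Sh605 Crest.Agent.R136.Tl102 Crest.Agent.R136.Rk601
open Crest.Agent.R136.K4 (Plk4)
open Crest.Agent.R136.Tlt51 (Shp InP)
open Crest.Agent.R136.Gbx862 (zj zj_mem)
open Crest.Agent.R136.AlD601 (jt jS jt_eq)
open Crest.Agent.R136.Deep51 (CloseC)
open Crest.Agent.R136.KapP335 (kapP kapP_eq)
open Crest.Agent.R136.Chm862 (gr pull Lm df gm tm th_pull im_tan hs_symm thc sl_tan df_a0)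
open Crest.Agent.R136.Adj214 (ev NJ JB KD divide chart KD_pos)

/-- vectors of `ζ, u, v` : the map from 601's chart to 214's chart, linear part -/
noncomputable def Lc (κ : ℝ) (b0 : V3) (ν : V3) : Lm where
  m00 := 256 / κ
  mR := ![256 / κ * (-(ν 0) - b0 1 / b0 0 * ν 1 - b0 2 / b0 0 * ν 2), 256 / κ * (b0 1 / b0 0),
    256 / κ * (b0 2 / b0 0)]
  mC := fun _ => 0
  mm := ![![1, 0, 0], ![-(256 * ν 1), 256, 0], ![-(256 * ν 2), 0, 256]]

/-- velocity of `T` in the chart, in units of the plank -/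
noncomputable def nu (e : Fin 3 → V3) (w : V3) (ρ : ℝ) (c T : Ln4) : V3 :=
  fun k => ρ * dt (e k) (T.v - c.v) / w k

theorem nu_cmb {e : Fin 3 → V3} (he : Ortho e) {w : V3} (hw : ∀ k, w k ≠ 0) (ρ : ℝ) (c T : Ln4) :
    cmb (fr e w) (nu e w ρ c T) = ρ • (T.v - c.v) := by
  rw [← cmb_back he hw (ρ • (T.v - c.v))]
  congr 1
  funext k
  simp only [nu, dt, Pi.smul_apply, smul_eq_mul]
  ring

/-- **jets in 601's chart from 214's chart** -/
theorem jet_cx {e : Fin 3 → V3} (he : Ortho e) {w : V3} (hw : ∀ k, w k ≠ 0) {κ : ℝ} (hκ : κ ≠ 0)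
    {b0 : V3} {z0 ρ : ℝ} {c T : Ln4} {F : ℝ → V3 → ℝ} {cc M : ℝ} {J : Jt} (hs : J.Sym)
    (hF : ∀ ζ y u v, F (z0 + ρ * ζ) (Adj214.cx e w b0 κ z0 ρ T ζ y u v) = cc + M * ev J y ![ζ, u, v])
    (ζj : ℝ) :
    JetAt F (fr e w) c.v (z0 + ρ * ζj) (T.pos (z0 + ρ * ζj)) ρ
      (pull M (Lc κ b0 (nu e w ρ c T)) (J.shift 0 ![ζj, 0, 0])) := by
  intro y ζ u v
  obtain ⟨ν, hν⟩ : ∃ ν, ν = nu e w ρ c T := ⟨_, rfl⟩
  have hν' : cmb (fr e w) ν = ρ • (T.v - c.v) := by rw [hν]; exact nu_cmb he hw ρ c T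
  rw [← hν]
  obtain ⟨s1, hs1⟩ : ∃ s, s = b0 1 / b0 0 := ⟨_, rfl⟩
  obtain ⟨s2, hs2⟩ : ∃ s, s = b0 2 / b0 0 := ⟨_, rfl⟩
  have eP : T.pos (z0 + ρ * ζj) + (ρ * ζ) • c.v + cmb (fr e w) ![y, u, v] =
      Adj214.cx e w b0 κ z0 ρ T (ζj + ζ)
        (256 / κ * (y + (-(ν 0) - s1 * ν 1 - s2 * ν 2) * ζ + s1 * u + s2 * v))
        (256 * (u - ν 1 * ζ)) (256 * (v - ν 2 * ζ)) := by
    unfold Adj214.cx
    have e1 : unsh b0 (κ * (1 / 256 * (256 / κ * (y + (-(ν 0) - s1 * ν 1 - s2 * ν 2) * ζ +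
        s1 * u + s2 * v)))) (1 / 256 * (256 * (u - ν 1 * ζ))) (1 / 256 * (256 * (v - ν 2 * ζ))) =
        fun k => (![y, u, v] : V3) k - ζ * ν k := by
      have e0 : κ * (1 / 256 * (256 / κ * (y + (-(ν 0) - s1 * ν 1 - s2 * ν 2) * ζ +
          s1 * u + s2 * v))) = y + (-(ν 0) - s1 * ν 1 - s2 * ν 2) * ζ + s1 * u + s2 * v := by
        field_simp
      rw [e0]
      unfold unsh
      rw [← hs1, ← hs2]
      funext k
      fin_cases k
      · change y + (-(ν 0) - s1 * ν 1 - s2 * ν 2) * ζ + s1 * u + s2 * v -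
          s1 * (1 / 256 * (256 * (u - ν 1 * ζ))) - s2 * (1 / 256 * (256 * (v - ν 2 * ζ))) =
          y - ζ * ν 0
        ring
      · change 1 / 256 * (256 * (u - ν 1 * ζ)) = u - ζ * ν 1
        ring
      · change 1 / 256 * (256 * (v - ν 2 * ζ)) = v - ζ * ν 2
        ring
    rw [e1]
    have e2 : cmb (fr e w) (fun k => (![y, u, v] : V3) k - ζ * ν k) =
        cmb (fr e w) ![y, u, v] - ζ • cmb (fr e w) ν := by
      ext i
      simp only [cmb, Pi.sub_apply, Pi.smul_apply, smul_eq_mul]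
      ring
    rw [e2, hν']
    ext i
    simp only [Ln4.pos, Pi.add_apply, Pi.sub_apply, Pi.smul_apply, smul_eq_mul]
    ring
  have eZ : z0 + ρ * ζj + ρ * ζ = z0 + ρ * (ζj + ζ) := by ring
  have e0 : T.pos (z0 + ρ * ζj) = Adj214.cx e w b0 κ z0 ρ T ζj 0 0 0 := by
    unfold Adj214.cx unsh
    ext i
    simp [cmb]
  rw [eZ, eP, hF]
  have h0 := hF ζj 0 0 0
  rw [← e0] at h0
  rw [h0]
  have s10 := hs 1 0
  have s20 := hs 2 0
  have s21 := hs 2 1
  simp only [pull, gr, Chm862.hs, ev, dp, qf, Lc, Jt.shift, Fin.sum_univ_three, Matrix.cons_val]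
  rw [s10, s20, s21, ← hs1, ← hs2]
  ring

/-- `k • J` -/
noncomputable def sc (k : ℝ) (J : Jt) : Jt where
  a0 := k * J.a0
  a := fun i => k * J.a i
  h00 := k * J.h00
  h0 := fun i => k * J.h0 i
  h := fun i j => k * J.h i j

theorem pull_sym {c : ℝ} {L : Lm} {G : Jt} (hG : G.Sym) : (pull c L G).Sym := fun i j => by
  change c * _ = c * _
  rw [hs_symm hG]

/-- mixed derivative in the other chart (`mC = 0`) -/
theorem gm_pull {c : ℝ} {L : Lm} {G P : Jt} (hL : L.mC = fun _ => 0) (hc : c ≠ 0)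
    (h0 : G.a0 ≠ 0) (h : (pull c L G).a0 ≠ 0) (i : Fin 3) :
    gm (pull c L G) (pull c L P) i = c * L.m00 * ∑ k, L.mm k i * gm G P k := by
  have h1 := im_tan hc h0 h i
  have htm : ∀ k, tm c L G k i = L.mm k i := fun k => by
    unfold tm; rw [hL]; ring
  simp only [htm] at h1
  have e1 : gm (pull c L G) (pull c L P) i = c * L.m00 * ((L.mR i + sl (pull c L G) i * L.m00) *
      P.h00 + ∑ k, L.mm k i * P.h0 k) := by
    simp only [gm, pull, Chm862.hs, hL, Fin.sum_univ_three]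
    ring
  rw [e1, h1]
  simp only [gm, Fin.sum_univ_three]
  ring

theorem df_pull {c : ℝ} {L : Lm} {G P : Jt} (hL : L.mC = fun _ => 0) (hc : c ≠ 0)
    (h0 : G.a0 ≠ 0) (h : (pull c L G).a0 ≠ 0) :
    df (pull c L G) (pull c L P) = pull c L (df G P) := by
  have e1 : ∀ Q : Jt, (pull c L Q).a0 = c * (Q.a0 * L.m00) := fun Q => by
    simp only [pull, gr, hL, Fin.sum_univ_three]; ring
  have hm : L.m00 ≠ 0 := by
    intro hh
    apply h
    rw [e1, hh]; ring
  have e2 : (pull c L P).a0 / (pull c L G).a0 = P.a0 / G.a0 := by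
    rw [e1, e1]; field_simp
  unfold df
  rw [e2]
  simp only [pull, gr, Chm862.hs, Jt.addm, Fin.sum_univ_three, Jt.mk.injEq]
  refine ⟨by ring, ?_, by ring, ?_, ?_⟩
  · funext i; ring
  · funext i; ring
  · funext i j; ring

theorem df_addm {G P : Jt} (h0 : G.a0 ≠ 0) (k : ℝ) : df G (P.addm k G) = df G P := by
  have e : (P.a0 + k * G.a0) / G.a0 = P.a0 / G.a0 + k := by field_simp
  unfold df
  simp only [Jt.addm]
  rw [e]
  simp only [Jt.mk.injEq]
  refine ⟨by ring, ?_, by ring, ?_, ?_⟩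
  · funext i; ring
  · funext i; ring
  · funext i j; ring

/-- sizes of a jet -/
structure Sz (A B : ℝ) (J : Jt) : Prop where
  a0 : |J.a0| ≤ A
  a : ∀ i, |J.a i| ≤ A
  h00 : |J.h00| ≤ B
  h0 : ∀ i, |J.h0 i| ≤ B
  h : ∀ i j, |J.h i j| ≤ B

theorem lf_le' {J : Jt} {A B s : ℝ} (hJ : Sz A B J) (hs : 1 ≤ s) {σ : Fin 3 → ℝ}
    (hσ : ∀ i, |σ i| ≤ s) (i j : Fin 3) : |lf J σ i j| ≤ 4 * s ^ 2 * B := by
  have hB : 0 ≤ B := (abs_nonneg _).trans hJ.h00
  have hs0 : 0 ≤ s := by linarith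
  have h1 : |J.h0 i * σ j| ≤ B * s := by
    rw [abs_mul]; exact mul_le_mul (hJ.h0 i) (hσ j) (abs_nonneg _) hB
  have h2 : |J.h0 j * σ i| ≤ B * s := by
    rw [abs_mul]; exact mul_le_mul (hJ.h0 j) (hσ i) (abs_nonneg _) hB
  have h3 : |J.h00 * (σ i * σ j)| ≤ B * (s * s) := by
    rw [abs_mul, abs_mul]
    exact mul_le_mul hJ.h00 (mul_le_mul (hσ i) (hσ j) (abs_nonneg _) hs0) (by positivity) hB
  have h4 := hJ.h i j
  unfold lf
  have t1 := abs_add_le (J.h i j + J.h0 i * σ j + J.h0 j * σ i) (J.h00 * (σ i * σ j))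
  have t2 := abs_add_le (J.h i j + J.h0 i * σ j) (J.h0 j * σ i)
  have t3 := abs_add_le (J.h i j) (J.h0 i * σ j)
  have t4 : B * s ≤ B * s ^ 2 := mul_le_mul_of_nonneg_left (by nlinarith) hB
  have t5 : B ≤ B * s := le_mul_of_one_le_right hB hs
  nlinarith

/-- the three sizes in 214's chart -/
theorem dv_core {J P : Jt} {N : ℝ} (hJ0 : 1 / 2 ≤ J.a0) (hJ : Sz 3 2 J) (hP : Sz (2 * N) (2 * N) P) :
    (∀ i j, |th J P i j| ≤ 5000 * N) ∧ (∀ i, |gm J (df J P) i| ≤ 5000 * N) ∧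
      |(df J P).h00| ≤ 5000 * N := by
  have hN : 0 ≤ N := by have := (abs_nonneg _).trans hP.a0; linarith
  have j0 : 0 < J.a0 := by linarith
  have hsl : ∀ i, |sl J i| ≤ 6 := fun i => by
    unfold sl
    rw [abs_div, abs_neg, abs_of_pos j0, div_le_iff₀ j0]
    have := hJ.a i
    linarith
  have hμ : |P.a0 / J.a0| ≤ 4 * N := by
    rw [abs_div, abs_of_pos j0, div_le_iff₀ j0]
    have := hP.a0
    nlinarith
  have l1 : ∀ i j, |lf P (sl J) i j| ≤ 288 * N := fun i j => by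
    refine (lf_le' hP (by norm_num : (1 : ℝ) ≤ 6) hsl i j).trans (le_of_eq ?_)
    ring
  have l2 : ∀ i j, |lf J (sl J) i j| ≤ 288 := fun i j => by
    refine (lf_le' hJ (by norm_num : (1 : ℝ) ≤ 6) hsl i j).trans (le_of_eq ?_)
    ring
  have d00 : |(df J P).h00| ≤ 10 * N := by
    change |P.h00 + -(P.a0 / J.a0) * J.h00| ≤ _
    refine (abs_add_le _ _).trans ?_
    rw [abs_mul, abs_neg]
    have := hP.h00
    have := mul_le_mul hμ hJ.h00 (abs_nonneg _) (by positivity)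
    linarith
  have d0 : ∀ i, |(df J P).h0 i| ≤ 10 * N := fun i => by
    change |P.h0 i + -(P.a0 / J.a0) * J.h0 i| ≤ _
    refine (abs_add_le _ _).trans ?_
    rw [abs_mul, abs_neg]
    have := hP.h0 i
    have := mul_le_mul hμ (hJ.h0 i) (abs_nonneg _) (by positivity)
    linarith
  refine ⟨fun i j => ?_, fun i => ?_, by linarith⟩
  · unfold th
    refine (abs_sub _ _).trans ?_
    rw [abs_mul]
    have := l1 i j
    have := mul_le_mul hμ (l2 i j) (abs_nonneg _) (by positivity)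
    linarith
  · unfold gm
    refine (abs_add_le _ _).trans ?_
    rw [abs_mul]
    have := d0 i
    have := mul_le_mul (hsl i) d00 (abs_nonneg _) (by norm_num)
    linarith

/-- **the data of `q'` over the sheet `S` at a point** (601, 862, 455) -/
structure Dv (S : Plk4) (q' : ℝ → V3 → ℝ) (z0 ρ : ℝ) (H j : ℕ) (T : Ln4) (K κ s : ℝ) : Prop where
  th : ∀ i i', |Rk601.th (jS S S.q z0 ρ H j T) (jS S q' z0 ρ H j T) i i'| ≤ K * s
  gm : ∀ i, κ * |Chm862.gm (jS S S.q z0 ρ H j T)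
    (df (jS S S.q z0 ρ H j T) (jS S q' z0 ρ H j T)) i| ≤ K * s
  h00 : κ ^ 2 * |(df (jS S S.q z0 ρ H j T) (jS S q' z0 ρ H j T)).h00| ≤ K * s

/-- **division in 601's chart** -/
theorem dv_of {S : Plk4} {q' : ℝ → V3 → ℝ} {z0 ρ r s : ℝ} {H j : ℕ} {T : Ln4}
    (hS : ShN S.e S.c S.w S.q S.a z0 ρ r) (ha : 0 < S.a) (hρ : 0 ≤ ρ) (hT : InP T S z0 ρ)
    (hk : 10 ^ 6 * S.a ≤ kapP S z0 ρ T) (hq' : IsQ q')
    (hC : CloseC S.e S.w S.q S.a q' s T z0 ρ) (hj : j ≤ H) :
    Dv S q' z0 ρ H j T (10 ^ 13 * KD) (kapP S z0 ρ T / S.w 0) s := by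
  have hw0 : 0 < S.w 0 := ha.trans_le hS.a_le0
  have SP := StP.of_shN hS hw0
  have hwne : ∀ i, S.w i ≠ 0 := fun i => (SP.pos i).ne'
  obtain ⟨b0, b1, G, hE⟩ := exists_isExp hS.isQ S.e hw0.ne' T z0 ρ
  have hkP := kapP_eq hw0.ne' hE
  have hk' : 10 ^ 6 * S.a ≤ S.w 0 * kap b0 b1 G := by rw [← hkP]; exact hk
  obtain ⟨c0, J, NN, -, -, -, hq⟩ := chart hS ha hρ hT hE hk'
  obtain ⟨μ, c', D, hD, hqD⟩ := divide hS ha hρ hT hE hk' hq' hC
  have hκ : 0 < kap b0 b1 G := by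
    by_contra h
    push Not at h
    have := mul_nonpos_of_nonneg_of_nonpos hw0.le h
    have h2 : 0 < 10 ^ 6 * S.a := by positivity
    linarith
  have hκe : kapP S z0 ρ T / S.w 0 = kap b0 b1 G := by rw [hkP]; field_simp
  rw [hκe]
  generalize kap b0 b1 G = κ at *
  obtain ⟨M, hM⟩ : ∃ M, M = κ * (1 / 256) * S.w 0 := ⟨_, rfl⟩
  rw [← hM] at hq
  have hM0 : 0 < M := by rw [hM]; positivity
  have hz : (0 : ℝ) ≤ (j : ℝ) / H ∧ (j : ℝ) / H ≤ 1 := by
    refine ⟨by positivity, ?_⟩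
    rcases Nat.eq_zero_or_pos H with h | h
    · rw [h]; simp
    · rw [div_le_one (by exact_mod_cast h)]; exact_mod_cast hj
  obtain ⟨ζ, hζ⟩ : ∃ ζ : ℝ, ζ = (j : ℝ) / H := ⟨_, rfl⟩
  rw [← hζ] at hz
  obtain ⟨hz1, hz2⟩ := hz
  obtain ⟨L, hL⟩ : ∃ L, L = Lc κ b0 (nu S.e S.w ρ S.c T) := ⟨_, rfl⟩
  -- the two jets in 214's chart
  obtain ⟨J', hJ'⟩ : ∃ J', J' = J.shift 0 ![ζ, 0, 0] := ⟨_, rfl⟩
  obtain ⟨P, hP⟩ : ∃ P, P = (sc (1 / M) D).shift 0 ![ζ, 0, 0] := ⟨_, rfl⟩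
  have hJs : J'.Sym := by rw [hJ']; exact NN.sym
  have hDs : (sc (1 / M) D).Sym := fun i j => by
    change 1 / M * D.h i j = 1 / M * D.h j i
    rw [hD.sym i j]
  have hPs : P.Sym := by rw [hP]; exact hDs
  have hPJs : (P.addm μ J').Sym := fun i j => by
    change P.h i j + μ * J'.h i j = P.h j i + μ * J'.h j i
    rw [hPs i j, hJs i j]
  have f0 : jS S S.q z0 ρ H j T = pull M L J' := by
    have h1 := jet_cx (c := S.c) hS.ortho hwne hκ.ne' (F := S.q) (cc := M * c0) (M := M) NN.sym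
      (fun ζ y u v => by rw [hq]; ring) ζ
    rw [← hL, ← hJ'] at h1
    unfold jS zj
    rw [← hζ]
    exact jt_eq h1 (pull_sym hJs)
  have f1 : jS S q' z0 ρ H j T = pull M L (P.addm μ J') := by
    have hs' : ((sc (1 / M) D).addm μ J).Sym := fun i j => by
      change 1 / M * D.h i j + μ * J.h i j = 1 / M * D.h j i + μ * J.h j i
      rw [hD.sym i j, NN.sym i j]
    have h1 := jet_cx (c := S.c) hS.ortho hwne hκ.ne' (F := q') (cc := c' + μ * (M * c0))
      (M := M) hs' (fun ζ y u v => by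
        have e1 := hqD ζ y u v
        rw [hq] at e1
        have e2 : ev ((sc (1 / M) D).addm μ J) y ![ζ, u, v] =
            1 / M * ev D y ![ζ, u, v] + μ * ev J y ![ζ, u, v] := by
          simp only [ev, dp, qf, Jt.addm, sc, Fin.sum_univ_three, Matrix.cons_val]
          ring
        rw [e2]
        have e3 : M * (1 / M * ev D y ![ζ, u, v] + μ * ev J y ![ζ, u, v]) =
            ev D y ![ζ, u, v] + μ * (M * ev J y ![ζ, u, v]) := by
          field_simp
        rw [e3]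
        linear_combination e1) ζ
    have e4 : ((sc (1 / M) D).addm μ J).shift 0 ![ζ, 0, 0] = P.addm μ J' := by
      rw [hP, hJ']
      exact Chm862.sh_addm J (sc (1 / M) D) μ 0 ![ζ, 0, 0]
    rw [← hL, e4] at h1
    unfold jS zj
    rw [← hζ]
    exact jt_eq h1 (pull_sym hPJs)
  have s0 : 0 ≤ KD * s := (abs_nonneg _).trans hD.c
  -- sizes
  have hJ0 : 1 / 2 ≤ J'.a0 := by
    have := (NN.st 0 ![ζ, 0, 0] (by norm_num) hz1 hz2 (by simp) (by simp)).1
    rw [hJ']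
    change 1 / 2 ≤ J.a0 + J.h00 * 0 + dp J.h0 ![ζ, 0, 0]
    exact this
  have hJsz : Sz 3 2 J' := by
    have hh0 : ∀ i, |J.h0 i| ≤ 2 := fun i => by
      fin_cases i
      · exact NN.h0.trans (by norm_num)
      · exact NN.h1.trans (by norm_num)
      · exact NN.h2.trans (by norm_num)
    rw [hJ']
    refine ⟨?_, fun i => ?_, NN.h00, hh0, NN.h⟩
    · have h2 := (NN.st 0 ![ζ, 0, 0] (by norm_num) hz1 hz2 (by simp) (by simp))
      change |J.a0 + J.h00 * 0 + dp J.h0 ![ζ, 0, 0]| ≤ 3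
      rw [abs_of_nonneg (by linarith [h2.1])]
      linarith [h2.2]
    · change |J.a i + 0 * J.h0 i + ∑ j, J.h i j * (![ζ, 0, 0] : Fin 3 → ℝ) j| ≤ 3
      have e : J.a i + 0 * J.h0 i + ∑ j, J.h i j * (![ζ, 0, 0] : Fin 3 → ℝ) j =
          J.a i + J.h i 0 * ζ := by
        simp [Fin.sum_univ_three]
      rw [e]
      have ha : |J.a i| ≤ 1 / 400 := by
        fin_cases i
        · exact NN.a0
        · change |J.a 1| ≤ _
          rw [NN.a1, abs_zero]; norm_num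
        · change |J.a 2| ≤ _
          rw [NN.a2, abs_zero]; norm_num
      refine (abs_add_le _ _).trans ?_
      rw [abs_mul, abs_of_nonneg hz1]
      have := mul_le_mul (NN.h i 0) hz2 hz1 (by norm_num)
      linarith
  obtain ⟨N, hN⟩ : ∃ N, N = KD * s / M := ⟨_, rfl⟩
  have hN0 : 0 ≤ N := by rw [hN]; positivity
  have hMN : M * N = KD * s := by rw [hN]; field_simp
  have hPsz : Sz (2 * N) (2 * N) P := by
    have kk : ∀ x : ℝ, |x| ≤ KD * s → |1 / M * x| ≤ N := fun x hx => by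
      rw [abs_mul, abs_of_pos (by positivity : 0 < 1 / M), hN, div_mul_eq_mul_div, one_mul]
      exact div_le_div_of_nonneg_right hx hM0.le
    rw [hP]
    refine ⟨?_, fun i => ?_, (kk _ hD.h00).trans (by linarith), fun i => (kk _ (hD.h0 i)).trans
      (by linarith), fun i j => (kk _ (hD.h i j)).trans (by linarith)⟩
    · change |1 / M * D.a0 + 1 / M * D.h00 * 0 + dp (fun i => 1 / M * D.h0 i) ![ζ, 0, 0]| ≤ _
      have e : 1 / M * D.a0 + 1 / M * D.h00 * 0 + dp (fun i => 1 / M * D.h0 i) ![ζ, 0, 0] =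
          1 / M * D.a0 + 1 / M * D.h0 0 * ζ := by
        simp [dp, Fin.sum_univ_three]
      rw [e]
      refine (abs_add_le _ _).trans ?_
      rw [abs_mul (1 / M * D.h0 0), abs_of_nonneg hz1]
      have := mul_le_mul (kk _ (hD.h0 0)) hz2 hz1 hN0
      have := kk _ hD.a0
      linarith
    · change |1 / M * D.a i + 0 * (1 / M * D.h0 i) +
        ∑ j, 1 / M * D.h i j * (![ζ, 0, 0] : Fin 3 → ℝ) j| ≤ _
      have e : 1 / M * D.a i + 0 * (1 / M * D.h0 i) +
          ∑ j, 1 / M * D.h i j * (![ζ, 0, 0] : Fin 3 → ℝ) j =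
          1 / M * D.a i + 1 / M * D.h i 0 * ζ := by
        simp [Fin.sum_univ_three]
      rw [e]
      refine (abs_add_le _ _).trans ?_
      rw [abs_mul (1 / M * D.h i 0), abs_of_nonneg hz1]
      have := mul_le_mul (kk _ (hD.h i 0)) hz2 hz1 hN0
      have := kk _ (hD.a i)
      linarith
  obtain ⟨k1, k2, k3⟩ := dv_core hJ0 hJsz hPsz
  have hJne : J'.a0 ≠ 0 := by intro h; rw [h] at hJ0; norm_num at hJ0
  have hLC : L.mC = fun _ => 0 := by rw [hL]; rfl
  have hm00 : L.m00 = 256 / κ := by rw [hL]; rfl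
  have hpa : (pull M L J').a0 ≠ 0 := by
    have : (pull M L J').a0 = M * (J'.a0 * L.m00) := by
      simp only [pull, gr, hLC, Fin.sum_univ_three]; ring
    rw [this, hm00]
    positivity
  have hmm : ∀ k i, |L.mm k i| ≤ 512 := by
    have hν : ∀ k, |nu S.e S.w ρ S.c T k| ≤ 2 := fun k => by
      have := vel_le_two (e := S.e) (c := S.c) (w := S.w) (z0 := z0) hρ SP.pos
        (fun z h1 h2 => (hT z h1 h2).1) k
      exact this
    have h1 := hν 1
    have h2 := hν 2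
    intro k i
    rw [hL]
    fin_cases k <;> fin_cases i
    · change |(1 : ℝ)| ≤ 512; norm_num
    · change |(0 : ℝ)| ≤ 512; norm_num
    · change |(0 : ℝ)| ≤ 512; norm_num
    · change |-(256 * nu S.e S.w ρ S.c T 1)| ≤ 512
      rw [abs_neg, abs_mul, abs_of_pos (by norm_num : (0 : ℝ) < 256)]; linarith
    · change |(256 : ℝ)| ≤ 512; norm_num
    · change |(0 : ℝ)| ≤ 512; norm_num
    · change |-(256 * nu S.e S.w ρ S.c T 2)| ≤ 512
      rw [abs_neg, abs_mul, abs_of_pos (by norm_num : (0 : ℝ) < 256)]; linarith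
    · change |(0 : ℝ)| ≤ 512; norm_num
    · change |(256 : ℝ)| ≤ 512; norm_num
  have htm : ∀ k i, tm M L J' k i = L.mm k i := fun k i => by
    unfold tm; rw [hLC]; ring
  have hdf : df (pull M L J') (pull M L (P.addm μ J')) = pull M L (df J' P) := by
    rw [df_pull hLC hM0.ne' hJne hpa, df_addm hJne]
  have h000 : 0 ≤ KD * s := s0
  refine ⟨fun i i' => ?_, fun i => ?_, ?_⟩
  · rw [f0, f1, th_pull hJs hPJs hM0.ne' hJne hpa]
    have e1 : ∀ k l, thc L J' (P.addm μ J') k l = Rk601.th J' P k l := fun k l => by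
      unfold thc
      rw [hLC, th_addm hJne]
      simp
    simp only [e1, htm]
    rw [abs_mul, abs_of_pos hM0]
    have h1 : |∑ k, ∑ l, L.mm k i * L.mm l i' * Rk601.th J' P k l| ≤
        9 * (512 * 512 * (5000 * N)) := by
      refine Chm862.sum33_le fun k l => ?_
      rw [abs_mul, abs_mul]
      exact mul_le_mul (mul_le_mul (hmm _ _) (hmm _ _) (abs_nonneg _) (by norm_num)) (k1 _ _)
        (abs_nonneg _) (by norm_num)
    have h2 := mul_le_mul_of_nonneg_left h1 hM0.le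
    have h3 : M * (9 * (512 * 512 * (5000 * N))) = 11796480000 * (M * N) := by ring
    rw [h3, hMN] at h2
    linarith
  · rw [f0, f1, hdf, gm_pull hLC hM0.ne' hJne hpa]
    rw [abs_mul, abs_mul, abs_of_pos hM0, hm00, abs_of_pos (by positivity : 0 < 256 / κ)]
    have h1 : |∑ k, L.mm k i * Chm862.gm J' (df J' P) k| ≤ 3 * (512 * (5000 * N)) := by
      refine Chm862.sum3_le fun k => ?_
      rw [abs_mul]
      exact mul_le_mul (hmm _ _) (k2 _) (abs_nonneg _) (by norm_num)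
    have h2 : κ * (M * (256 / κ) * |∑ k, L.mm k i * Chm862.gm J' (df J' P) k|) =
        256 * M * |∑ k, L.mm k i * Chm862.gm J' (df J' P) k| := by field_simp
    rw [h2]
    have h3 := mul_le_mul_of_nonneg_left h1 (by positivity : 0 ≤ 256 * M)
    have h4 : 256 * M * (3 * (512 * (5000 * N))) = 1966080000 * (M * N) := by ring
    rw [h4, hMN] at h3
    linarith
  · rw [f0, f1, hdf]
    have h1 : (pull M L (df J' P)).h00 = M * (256 / κ) ^ 2 * (df J' P).h00 := by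
      simp only [pull, Chm862.hs, hLC, Fin.sum_univ_three, hm00]; ring
    rw [h1, abs_mul, abs_of_pos (by positivity : 0 < M * (256 / κ) ^ 2)]
    have h2 : κ ^ 2 * (M * (256 / κ) ^ 2 * |(df J' P).h00|) = 65536 * M * |(df J' P).h00| := by
      field_simp; ring
    rw [h2]
    have h3 := mul_le_mul_of_nonneg_left k3 (by positivity : 0 ≤ 65536 * M)
    have h4 : 65536 * M * (5000 * N) = 327680000 * (M * N) := by ring
    rw [h4, hMN] at h3
    linarith

end Crest.Agent.R136.Wdg296
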