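import Crest.Agent.R136.Wdg2_296
import Crest.Agent.R136.AlD_601

/-!
# R136 (S0187), PLAN 2, (AL): slopes in the chart of the base sheet (helper296)

* `jS_self`          : the base sheet in its own chart, `w₀/2 ≤ a0 ≤ 2 w₀`, `|a 1|, |a 2| ≤ w₀`;
* `slopes_of_not_Nd` : `¬ Nd` (small tangential gradient) gives `w₀/32 ≤ |a0'| ≤ 4 w₀` and
  `|a' k| ≤ 16 |a0'|`, `k = 1, 2`, for a steep sheet `S'`.
-/

set_option autoImplicit false

namespace Crest.Agent.R136.Wdg296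

open Crest.Agent.R136.Sh605 Crest.Agent.R136.Tl102 Crest.Agent.R136.Rk601
open Crest.Agent.R136.K4 (Plk4)
open Crest.Agent.R136.Tlt51 (Shp InP)
open Crest.Agent.R136.Gbx862 (zj zj_mem)
open Crest.Agent.R136.AlD601 (jt jS Nd not_Nd jt_jet)

/-- 601's jets, central differences -/
theorem jet_central {q : ℝ → V3 → ℝ} {f : Fin 3 → V3} {V : V3} {z : ℝ} {X : V3} {ρ : ℝ} {J : Jt}
    (h : JetAt q f V z X ρ J) (τ : V3) : q z (X + cmb f τ) - q z (X - cmb f τ) =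
      2 * (J.a0 * τ 0 + J.a 1 * τ 1 + J.a 2 * τ 2) := by
  have h1 := h (τ 0) 0 (τ 1) (τ 2)
  have h2 := h (-τ 0) 0 (-τ 1) (-τ 2)
  have e0 : (ρ * 0) • V = (0 : V3) := by rw [mul_zero, zero_smul]
  have e1 : cmb f ![τ 0, τ 1, τ 2] = cmb f τ := by
    ext i; simp [cmb]
  have e2 : X + 0 + cmb f ![-τ 0, -τ 1, -τ 2] = X - cmb f τ := by
    ext i
    simp only [cmb, Pi.add_apply, Pi.sub_apply, Pi.zero_apply, Matrix.cons_val]
    ring
  have e3 : X + 0 + cmb f ![τ 0, τ 1, τ 2] = X + cmb f τ := by rw [e1, add_zero]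
  rw [e0, mul_zero, add_zero, e3] at h1
  rw [e0, mul_zero, add_zero, e2] at h2
  rw [h1, h2]
  simp only [dp, qf, Fin.sum_univ_three, Matrix.cons_val]
  ring

/-- central differences of a sheet along its axes -/
theorem central_axes {e : Fin 3 → V3} {c : Ln4} {w : V3} {q : ℝ → V3 → ℝ} {z0 ρ : ℝ}
    (S : StP e c w q z0 ρ) {z : ℝ} (hz : z0 ≤ z) (hz' : z ≤ z0 + ρ) {X : V3}
    (hX : InK e c w z X) :
    (w 0 ≤ q z (X + w 0 • e 0) - q z (X - w 0 • e 0) ∧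
      q z (X + w 0 • e 0) - q z (X - w 0 • e 0) ≤ 4 * w 0) ∧
    |q z (X + w 1 • e 1) - q z (X - w 1 • e 1)| ≤ 2 * w 0 ∧
    |q z (X + w 2 • e 2) - q z (X - w 2 • e 2)| ≤ 2 * w 0 := by
  have key : ∀ (k : Fin 3) (s : ℝ), |s| ≤ 1 → InK e c (dbl3 w) z (X + (s * w k) • e k) := by
    intro k s hs i
    have e1 : dt (e i) (X + (s * w k) • e k - c.pos z) =
        dt (e i) (X - c.pos z) + s * w k * dt (e i) (e k) := by
      simp only [dt, Pi.add_apply, Pi.sub_apply, Pi.smul_apply, smul_eq_mul]; ring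
    rw [e1]
    refine (abs_add_le _ _).trans ?_
    have h1 := hX i
    have h2 : |s * w k * dt (e i) (e k)| ≤ w i := by
      rw [S.ortho i k]
      split_ifs with hik
      · subst hik
        rw [mul_one, abs_mul, abs_of_pos (S.pos i)]
        exact mul_le_of_le_one_left (S.pos i).le hs
      · rw [mul_zero, abs_zero]; exact (S.pos i).le
    change _ ≤ 2 * w i
    linarith
  have st : ∀ k : Fin 3, InK e c (dbl3 w) z (X - w k • e k) ∧
      InK e c (dbl3 w) z (X - w k • e k + (2 * w k) • e k) ∧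
      X - w k • e k + (2 * w k) • e k = X + w k • e k := by
    intro k
    have a1 := key k (-1) (by norm_num)
    have a2 := key k 1 (by norm_num)
    have e1 : X + (-1 * w k) • e k = X - w k • e k := by
      ext i; simp only [Pi.add_apply, Pi.sub_apply, Pi.smul_apply, smul_eq_mul]; ring
    have e2 : X - w k • e k + (2 * w k) • e k = X + w k • e k := by
      ext i; simp only [Pi.add_apply, Pi.sub_apply, Pi.smul_apply, smul_eq_mul]; ring
    rw [e1] at a1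
    rw [one_mul] at a2
    exact ⟨a1, by rw [e2]; exact a2, e2⟩
  have p0 := S.pos 0
  have p1 := S.pos 1
  have p2 := S.pos 2
  obtain ⟨b1, b2, b3⟩ := st 0
  obtain ⟨c1, c2, c3⟩ := st 1
  obtain ⟨d1, d2, d3⟩ := st 2
  have s0 := S.st0 z hz hz' _ (2 * w 0) (by linarith) b1 b2
  have s1 := S.st1 z hz hz' _ (2 * w 1) (by linarith) c1 c2
  have s2 := S.st2 z hz hz' _ (2 * w 2) (by linarith) d1 d2
  rw [b3] at s0
  rw [c3] at s1
  rw [d3] at s2
  have e1 : w 0 / w 1 * (2 * w 1) = 2 * w 0 := by field_simp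
  have e2 : w 0 / w 2 * (2 * w 2) = 2 * w 0 := by field_simp
  rw [e1] at s1
  rw [e2] at s2
  exact ⟨⟨by linarith [s0.1], by linarith [s0.2]⟩, s1, s2⟩

/-- the base sheet in its own chart -/
theorem jet_self {e : Fin 3 → V3} {c : Ln4} {w : V3} {q : ℝ → V3 → ℝ} {z0 ρ : ℝ}
    (S : StP e c w q z0 ρ) {z : ℝ} (hz : z0 ≤ z) (hz' : z ≤ z0 + ρ) {X V : V3}
    (hX : InK e c w z X) {J : Jt} (h : JetAt q (fr e w) V z X ρ J) :
    w 0 / 2 ≤ J.a0 ∧ J.a0 ≤ 2 * w 0 ∧ ∀ k : Fin 3, k ≠ 0 → |J.a k| ≤ w 0 := by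
  obtain ⟨⟨h1, h2⟩, h3, h4⟩ := central_axes S hz hz' hX
  have c0 : cmb (fr e w) ![1, 0, 0] = w 0 • e 0 := by
    ext i; simp [cmb, fr]
  have c1 : cmb (fr e w) ![0, 1, 0] = w 1 • e 1 := by
    ext i; simp [cmb, fr]
  have c2 : cmb (fr e w) ![0, 0, 1] = w 2 • e 2 := by
    ext i; simp [cmb, fr]
  have j0 := jet_central h ![1, 0, 0]
  have j1 := jet_central h ![0, 1, 0]
  have j2 := jet_central h ![0, 0, 1]
  rw [c0] at j0
  rw [c1] at j1
  rw [c2] at j2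
  simp only [Matrix.cons_val, mul_one, mul_zero, add_zero, zero_add] at j0 j1 j2
  rw [j0] at h1 h2
  rw [j1, abs_mul, abs_two] at h3
  rw [j2, abs_mul, abs_two] at h4
  refine ⟨by linarith, by linarith, fun k hk => ?_⟩
  fin_cases k
  · exact absurd rfl hk
  · change |J.a 1| ≤ w 0
    linarith
  · change |J.a 2| ≤ w 0
    linarith

/-- another sheet in the chart: size of the gradient -/
theorem jet_other {e : Fin 3 → V3} (he : Ortho e) {w : V3} (hw : ∀ k, 0 < w k)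
    {e' : Fin 3 → V3} {c' : Ln4} {w' : V3} {q' : ℝ → V3 → ℝ} {z0 ρ : ℝ}
    (S' : StP e' c' w' q' z0 ρ) {z : ℝ} (hz : z0 ≤ z) (hz' : z ≤ z0 + ρ) {X V : V3}
    (hX : InK e' c' w' z X) (w02 : w' 0 ≤ w' 2) (w21 : w' 2 ≤ w' 1) {J : Jt}
    (h : JetAt q' (fr e w) V z X ρ J) :
    1 / 2 ≤ |J.a0| / w 0 + |J.a 1| / w 1 + |J.a 2| / w 2 ∧
      |J.a0| / w 0 ≤ 4 ∧ |J.a 1| / w 1 ≤ 4 ∧ |J.a 2| / w 2 ≤ 4 := by
  obtain ⟨⟨h1, h2⟩, h3, h4⟩ := central_axes S' hz hz' hX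
  have hwne : ∀ k, w k ≠ 0 := fun k => (hw k).ne'
  -- value on an arbitrary vector
  have val : ∀ D : V3, q' z (X + D) - q' z (X - D) =
      2 * (J.a0 / w 0 * dt (e 0) D + J.a 1 / w 1 * dt (e 1) D + J.a 2 / w 2 * dt (e 2) D) := by
    intro D
    have := jet_central h (fun l => dt (e l) D / w l)
    rw [cmb_back he hwne D] at this
    rw [this]
    ring
  set A0 := J.a0 / w 0 with hA0
  set A1 := J.a 1 / w 1 with hA1
  set A2 := J.a 2 / w 2 with hA2
  have ab0 : |J.a0| / w 0 = |A0| := by rw [hA0, abs_div, abs_of_pos (hw 0)]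
  have ab1 : |J.a 1| / w 1 = |A1| := by rw [hA1, abs_div, abs_of_pos (hw 1)]
  have ab2 : |J.a 2| / w 2 = |A2| := by rw [hA2, abs_div, abs_of_pos (hw 2)]
  rw [ab0, ab1, ab2]
  have un : ∀ i j, |dt (e i) (e' j)| ≤ 1 := fun i j =>
    Crest.Agent.R136.Deep51.abs_dt_unit he S'.ortho i j
  have dsm : ∀ (s : ℝ) (x y : V3), dt x (s • y) = s * dt x y := by
    intro s x y; simp only [dt, Pi.smul_apply, smul_eq_mul]; ring
  -- components along the second frame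
  have m0 := val (w' 0 • e' 0)
  have m1 := val (w' 1 • e' 1)
  have m2 := val (w' 2 • e' 2)
  simp only [dsm] at m0 m1 m2
  have q0 := S'.pos 0
  have q1 := S'.pos 1
  have q2 := S'.pos 2
  set B0 := A0 * dt (e 0) (e' 0) + A1 * dt (e 1) (e' 0) + A2 * dt (e 2) (e' 0) with hB0
  set B1 := A0 * dt (e 0) (e' 1) + A1 * dt (e 1) (e' 1) + A2 * dt (e 2) (e' 1) with hB1
  set B2 := A0 * dt (e 0) (e' 2) + A1 * dt (e 1) (e' 2) + A2 * dt (e 2) (e' 2) with hB2
  have n0 : q' z (X + w' 0 • e' 0) - q' z (X - w' 0 • e' 0) = w' 0 * (2 * B0) := by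
    rw [m0, hB0]; ring
  have n1 : q' z (X + w' 1 • e' 1) - q' z (X - w' 1 • e' 1) = w' 1 * (2 * B1) := by
    rw [m1, hB1]; ring
  have n2 : q' z (X + w' 2 • e' 2) - q' z (X - w' 2 • e' 2) = w' 2 * (2 * B2) := by
    rw [m2, hB2]; ring
  rw [n0] at h1 h2
  rw [n1, abs_mul, abs_of_pos q1, abs_mul, abs_two] at h3
  rw [n2, abs_mul, abs_of_pos q2, abs_mul, abs_two] at h4
  have l0 : 1 / 2 ≤ B0 := by
    have : w' 0 * 1 ≤ w' 0 * (2 * B0) := by linarith
    have := le_of_mul_le_mul_left this q0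
    linarith
  have u0 : B0 ≤ 2 := by
    have : w' 0 * (2 * B0) ≤ w' 0 * 4 := by linarith
    have := le_of_mul_le_mul_left this q0
    linarith
  have u1 : |B1| ≤ 1 := by
    have : w' 1 * (2 * |B1|) ≤ w' 1 * 2 := by linarith
    have := le_of_mul_le_mul_left this q1
    linarith
  have u2 : |B2| ≤ 1 := by
    have : w' 2 * (2 * |B2|) ≤ w' 2 * 2 := by linarith
    have := le_of_mul_le_mul_left this q2
    linarith
  have tri : ∀ x y z : ℝ, |x + y + z| ≤ |x| + |y| + |z| := fun x y z => by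
    refine (abs_add_le _ _).trans ?_
    have := abs_add_le x y
    linarith
  constructor
  · refine l0.trans ((le_abs_self _).trans ((tri _ _ _).trans ?_))
    rw [abs_mul, abs_mul, abs_mul]
    have t0 := mul_le_of_le_one_right (abs_nonneg A0) (un 0 0)
    have t1 := mul_le_of_le_one_right (abs_nonneg A1) (un 1 0)
    have t2 := mul_le_of_le_one_right (abs_nonneg A2) (un 2 0)
    linarith
  · -- back to the first frame
    have back : ∀ i : Fin 3, (A0 * dt (e 0) (e i) + A1 * dt (e 1) (e i) + A2 * dt (e 2) (e i)) =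
        B0 * dt (e i) (e' 0) + B1 * dt (e i) (e' 1) + B2 * dt (e i) (e' 2) := by
      intro i
      have d0 := dtx S'.ortho (e 0) (e i)
      have d1 := dtx S'.ortho (e 1) (e i)
      have d2 := dtx S'.ortho (e 2) (e i)
      rw [d0, d1, d2, dt_comm (e' 0) (e i), dt_comm (e' 1) (e i), dt_comm (e' 2) (e i), hB0, hB1,
        hB2]
      ring
    have bd : ∀ i : Fin 3, |B0 * dt (e i) (e' 0) + B1 * dt (e i) (e' 1) + B2 * dt (e i) (e' 2)| ≤
        4 := by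
      intro i
      refine (tri _ _ _).trans ?_
      rw [abs_mul, abs_mul, abs_mul]
      have t0 := mul_le_mul (abs_le.2 ⟨by linarith, u0⟩) (un i 0) (abs_nonneg _) (by norm_num)
      have t1 := mul_le_mul u1 (un i 1) (abs_nonneg _) (by norm_num)
      have t2 := mul_le_mul u2 (un i 2) (abs_nonneg _) (by norm_num)
      linarith
    refine ⟨?_, ?_, ?_⟩
    · have := back 0
      rw [he 0 0, he 1 0, he 2 0, if_pos rfl, if_neg (by decide), if_neg (by decide), mul_one,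
        mul_zero, mul_zero, add_zero, add_zero] at this
      rw [this]; exact bd 0
    · have := back 1
      rw [he 0 1, he 1 1, he 2 1, if_neg (by decide), if_pos rfl, if_neg (by decide), mul_one,
        mul_zero, mul_zero, zero_add, add_zero] at this
      rw [this]; exact bd 1
    · have := back 2
      rw [he 0 2, he 1 2, he 2 2, if_neg (by decide), if_neg (by decide), if_pos rfl, mul_one,
        mul_zero, mul_zero, zero_add, zero_add] at this
      rw [this]; exact bd 2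

/-- the base sheet in its own chart, 601's letters -/
theorem jS_self {S : Plk4} {z0 ρ a : ℝ} {H j : ℕ} {T : Ln4} (hS : StP S.e S.c S.w S.q z0 ρ)
    (hρ : 0 ≤ ρ) (hj : j ≤ H) (hT : InSheet T S.e S.c S.w S.q a z0 ρ) :
    S.w 0 / 2 ≤ (jS S S.q z0 ρ H j T).a0 ∧ (jS S S.q z0 ρ H j T).a0 ≤ 2 * S.w 0 ∧
      ∀ k : Fin 3, k ≠ 0 → |(jS S S.q z0 ρ H j T).a k| ≤ S.w 0 := by
  obtain ⟨z1, z2⟩ := zj_mem hρ hj
  exact jet_self hS z1 z2 (hT _ z1 z2).1 (jt_jet hS.isQ _ _ _ _ _).1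

/-- **slopes of the second sheet at a point where the tangential gradient is small** -/
theorem slopes_of_not_Nd {S S' : Plk4} {z0 ρ a a' : ℝ} {H j : ℕ} {T : Ln4}
    (hS : StP S.e S.c S.w S.q z0 ρ) (hS' : StP S'.e S'.c S'.w S'.q z0 ρ) (hρ : 0 ≤ ρ)
    (hj : j ≤ H) (w02 : S.w 0 ≤ S.w 2) (w21 : S.w 2 ≤ S.w 1) (w02' : S'.w 0 ≤ S'.w 2)
    (w21' : S'.w 2 ≤ S'.w 1) (hT : InSheet T S.e S.c S.w S.q a z0 ρ)
    (hT' : InSheet T S'.e S'.c S'.w S'.q a' z0 ρ) {l m s : ℝ}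
    (h : ¬ Nd S S'.q z0 ρ H j T l m s) (hls : l * s ≤ S.w 0 / 64) :
    S.w 0 / 32 ≤ |(jS S S'.q z0 ρ H j T).a0| ∧ |(jS S S'.q z0 ρ H j T).a0| ≤ 4 * S.w 0 ∧
      ∀ k : Fin 3, k ≠ 0 →
        |(jS S S'.q z0 ρ H j T).a k| ≤ 16 * |(jS S S'.q z0 ρ H j T).a0| := by
  obtain ⟨z1, z2⟩ := zj_mem hρ hj
  obtain ⟨s1, s2, s3⟩ := jS_self hS hρ hj hT
  obtain ⟨o1, o2, -, -⟩ := jet_other hS.ortho hS.pos hS' z1 z2 (hT' _ z1 z2).1 w02' w21'
    (jt_jet hS'.isQ (fr S.e S.w) S.c.v (zj z0 ρ H j) (T.pos (zj z0 ρ H j)) ρ).1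
  obtain ⟨g, -⟩ := not_Nd.1 h
  change 1 / 2 ≤ |(jS S S'.q z0 ρ H j T).a0| / S.w 0 + |(jS S S'.q z0 ρ H j T).a 1| / S.w 1 +
    |(jS S S'.q z0 ρ H j T).a 2| / S.w 2 at o1
  change |(jS S S'.q z0 ρ H j T).a0| / S.w 0 ≤ 4 at o2
  set J0 := jS S S.q z0 ρ H j T with hJ0
  set J := jS S S'.q z0 ρ H j T with hJ
  have p0 := hS.pos 0
  have p1 := hS.pos 1
  have p2 := hS.pos 2
  have a0pos : 0 < J0.a0 := by linarith
  have key : ∀ k : Fin 3, k ≠ 0 → |J.a k| ≤ S.w 0 / 64 + 2 * |J.a0| := by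
    intro k hk
    have h1 := (g k).trans hls
    unfold Rk601.tg at h1
    have h2 := s3 k hk
    have h3 : |J.a0 / J0.a0 * J0.a k| ≤ 2 * |J.a0| := by
      rw [abs_mul, abs_div, abs_of_pos a0pos, div_mul_eq_mul_div, div_le_iff₀ a0pos]
      have h4 : |J0.a k| ≤ 2 * J0.a0 := by linarith
      calc |J.a0| * |J0.a k| ≤ |J.a0| * (2 * J0.a0) := mul_le_mul_of_nonneg_left h4 (abs_nonneg _)
        _ = 2 * |J.a0| * J0.a0 := by ring
    have h5 : |J.a k| ≤ |J.a k - J.a0 / J0.a0 * J0.a k| + |J.a0 / J0.a0 * J0.a k| := by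
      have := abs_add_le (J.a k - J.a0 / J0.a0 * J0.a k) (J.a0 / J0.a0 * J0.a k)
      rwa [sub_add_cancel] at this
    linarith
  have k1 := key 1 (by decide)
  have k2 := key 2 (by decide)
  have f1 : |J.a 1| / S.w 1 ≤ |J.a 1| / S.w 0 :=
    div_le_div_of_nonneg_left (abs_nonneg _) p0 (w02.trans w21)
  have f2 : |J.a 2| / S.w 2 ≤ |J.a 2| / S.w 0 := div_le_div_of_nonneg_left (abs_nonneg _) p0 w02
  have o3 : S.w 0 / 2 ≤ |J.a0| + |J.a 1| + |J.a 2| := by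
    have h1 : 1 / 2 ≤ (|J.a0| + |J.a 1| + |J.a 2|) / S.w 0 := by
      rw [add_div, add_div]; linarith
    rw [le_div_iff₀ p0] at h1
    linarith
  have l0 : S.w 0 / 16 ≤ |J.a0| := by linarith
  refine ⟨by linarith, ?_, fun k hk => ?_⟩
  · rwa [div_le_iff₀ p0] at o2
  · have := key k hk
    linarith

end Crest.Agent.R136.Wdg296
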