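import Crest.Agent.R136.Chm3_862
import Crest.Agent.R136.Sln_296
import Crest.Agent.R136.Dvb_296

/-!
# R136 (U4, PLAN 2 (3) = (AL), V6): the jets of `U t'`, `V` moved from `T'` to `T` (helper862)
-/

set_option autoImplicit false

namespace Crest.Agent.R136.Chm862

open Crest.Agent.R136.Sh605
open Crest.Agent.R136.Rk601
open Crest.Agent.R136.AlD601
open Crest.Agent.R136.Gbx862 (zj zj_mem)
open Crest.Agent.R136.K4 (Plk4)
open Crest.Agent.R136.Tlt51 (Shp InP)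
open Crest.Agent.R136.Tl102
open Crest.Agent.R136.KapP335 (kapP expP expP_spec)

theorem gr_eq {J : Jt} (h : J.a0 ≠ 0) (y : ℝ) (w : Fin 3 → ℝ) :
    gr J y w = J.a0 * (y - ∑ k, sl J k * w k) := by
  have e : ∀ k, J.a k = -(sl J k * J.a0) := fun k => by have := sl_tan h k; linarith
  simp only [gr, Fin.sum_univ_three]
  rw [e 0, e 1, e 2]; ring

theorem Own.ne {C w k : ℝ} {J : Jt} (h : Own C w k J) (hw : 0 < w) : J.a0 ≠ 0 := by
  have := h.lo; intro h0; rw [h0] at this; linarith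

theorem Own.abs {C w k : ℝ} {J : Jt} (h : Own C w k J) (hw : 0 < w) :
    w / 2 ≤ |J.a0| ∧ |J.a0| ≤ 2 * w := by
  have h1 := h.lo
  rw [abs_of_pos (by linarith)]
  exact ⟨h1, h.hi⟩

theorem Own.mono {C C' w k : ℝ} {J : Jt} (h : Own C w k J) (hC : C ≤ C') (hw : 0 ≤ w)
    (hk : 0 ≤ k) : Own C' w k J :=
  ⟨h.sy, h.lo, h.hi, fun i => (h.s i).trans hC,
    fun i => (h.g i).trans (mul_le_mul_of_nonneg_right hC hw), h.h00,
    fun i j => (h.lf i j).trans (mul_le_mul_of_nonneg_right hC hk)⟩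

/-- the gradient along the displacement of two points of the sheet is small -/
theorem grad_small {J : Jt} {w k K y u v δ α : ℝ} (hK : 2 ≤ K) (h : Own K w k J) (hw : 0 < w)
    (hδ0 : 0 ≤ δ) (hy : |y| ≤ δ) (hu : |u| ≤ δ) (hv : |v| ≤ δ)
    (hδ : 16 * K ^ 3 * δ ≤ 1)
    (hα : |J.a0 * y + dp J.a ![0, u, v] + 1 / 2 * (J.h00 * y ^ 2 + 2 * y * dp J.h0 ![0, u, v] +
      qf J.h ![0, u, v])| ≤ α) :
    |gr J y ![0, u, v]| ≤ 4 * K * α + 18 * K ^ 2 * k * δ ^ 2 := by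
  have hK0 : (0 : ℝ) < K := by linarith
  have hK1 : (1 : ℝ) ≤ K := by linarith
  obtain ⟨l1, l2⟩ := h.abs hw
  have wk : ∀ i, |(![0, u, v] : Fin 3 → ℝ) i| ≤ δ := by
    intro i; fin_cases i
    · simpa using hδ0
    · exact hu
    · exact hv
  have hκR : K * (k / w) * w = K * k := by field_simp
  have hα0 : α / w * w = α := by field_simp
  have hs : |∑ i, sl J i * (![0, u, v] : Fin 3 → ℝ) i| ≤ 3 * (K * δ) := by
    refine sum3_le fun i => ?_
    rw [abs_mul]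
    exact mul_le_mul (h.s i) (wk i) (abs_nonneg _) hK0.le
  have he : |y - ∑ i, sl J i * (![0, u, v] : Fin 3 → ℝ) i| ≤ 4 * K * δ := by
    refine (abs_sub _ _).trans ?_
    nlinarith
  have hK3 : K ^ 2 ≤ K ^ 3 := pow_le_pow_right₀ hK1 (by norm_num)
  have key := disp_le (q := J) (y := y) (w := ![0, u, v]) (K := K) (κ := k / w) (δ := δ) (R := w)
    (α := α / w) h.sy hK1 hw hδ0
    ((div_le_div_of_nonneg_left hw.le (by norm_num) hK).trans l1)
    wk (fun i j => by rw [hκR]; exact h.lf i j) h.g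
    (h.h00.trans (mul_le_mul_of_nonneg_right hK hw.le)) (by nlinarith)
    (by
      calc 2 * K ^ 2 * |y - ∑ i, sl J i * (![0, u, v] : Fin 3 → ℝ) i| ≤
            2 * K ^ 2 * (4 * K * δ) := mul_le_mul_of_nonneg_left he (by positivity)
        _ = 8 * (K ^ 3 * δ) := by ring
        _ ≤ 1 := by nlinarith [mul_nonneg (pow_nonneg hK0.le 3) hδ0])
    (by rw [hα0]; exact hα)
  rw [gr_eq (h.ne hw), abs_mul]
  calc |J.a0| * |y - ∑ i, sl J i * (![0, u, v] : Fin 3 → ℝ) i| ≤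
        2 * w * (2 * K * (α / w) + 9 * K ^ 2 * (k / w) * δ ^ 2) :=
        mul_le_mul l2 key (abs_nonneg _) (by positivity)
    _ = 4 * K * (α / w * w) + 18 * K ^ 2 * (k / w * w) * δ ^ 2 := by ring
    _ = 4 * K * α + 18 * K ^ 2 * k * δ ^ 2 := by
        rw [hα0]
        have : k / w * w = k := by field_simp
        rw [this]

/-- **displacement along the first sheet from the gradient of the second one** -/
theorem disp_other {J J' : Jt} {w k K y δ A g : ℝ} {W : Fin 3 → ℝ} (h : Own K w k J) (hw : 0 < w)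
    (hδ0 : 0 ≤ δ) (hW : ∀ i, |W i| ≤ δ) (ht : ∀ i, |tg J J' i| ≤ A) (h0 : w / 32 ≤ |J'.a0|)
    (hg : |gr J' y W| ≤ g) :
    w * |y - ∑ i, sl J i * W i| ≤ 128 * (g + 3 * (δ * A)) := by
  have hne := h.ne hw
  obtain ⟨l1, l2⟩ := h.abs hw
  have hA0 : 0 ≤ A := (abs_nonneg _).trans (ht 0)
  set e := y - ∑ i, sl J i * W i with he
  have e1 : gr J' y W = J'.a0 * e + ∑ i, W i * tg J J' i := by
    rw [he]
    have hs : ∀ i, sl J i * J.a0 = -J.a i := fun i => by have := sl_tan hne i; linarith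
    simp only [gr, Fin.sum_univ_three, tg_eq]
    ring
  have h1 : |∑ i, W i * tg J J' i| ≤ 3 * (δ * A) := by
    refine sum3_le fun i => ?_
    rw [abs_mul]
    exact mul_le_mul (hW i) (ht i) (abs_nonneg _) hδ0
  have h2 : |J'.a0| * |e| ≤ g + 3 * (δ * A) := by
    rw [← abs_mul]
    have : J'.a0 * e = gr J' y W - ∑ i, W i * tg J J' i := by rw [e1]; ring
    rw [this]
    exact (abs_sub _ _).trans (add_le_add hg h1)
  have h3 : w / 32 * |e| ≤ |J'.a0| * |e| := mul_le_mul_of_nonneg_right h0 (abs_nonneg _)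
  have h4 : 0 ≤ g + 3 * (δ * A) := by
    have := (abs_nonneg _).trans hg
    positivity
  linarith

variable {q q' J1 J' : Jt} {y κ δ N R : ℝ} {w W : Fin 3 → ℝ}

theorem Mv.lf_le {K : ℝ} (H : Mv q q' y w K κ δ N R) (i j : Fin 3) :
    |lf (sh q y w) (sl (sh q y w)) i j| ≤ 25 * K ^ 5 * (κ * R) := by
  have hK := H.K1
  have hK0 : (0 : ℝ) < K := by linarith
  have hκ := H.κ0
  have hκ1 := H.κ1
  have hδ := H.δ0
  have hδ1 := H.δ1
  change |lf q (sl (sh q y w)) i j| ≤ _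
  set σ : Fin 3 → ℝ := fun i => sl (sh q y w) i - sl q i with hσ
  have hs : sl (sh q y w) = fun i => sl q i + σ i := by funext i; simp only [hσ]; ring
  have hσb : ∀ i, |σ i| ≤ 4 * K ^ 2 * (κ * δ) := fun i => H.sl_le i
  have hss : |σ i * σ j| ≤ 16 * K ^ 4 * (κ ^ 2 * δ ^ 2) := by
    rw [abs_mul]
    calc |σ i| * |σ j| ≤ (4 * K ^ 2 * (κ * δ)) * (4 * K ^ 2 * (κ * δ)) :=
          mul_le_mul (hσb i) (hσb j) (abs_nonneg _) (by positivity)
      _ = _ := by ring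
  have hδ2 : δ ^ 2 ≤ δ := by nlinarith
  have hR := H.R0
  have hκR : 0 ≤ κ * R := by positivity
  rw [hs, lf_add q]
  have a1 := H.hq i j
  have a2 : ∀ i j, |σ j * (q.h0 i + sl q i * q.h00)| ≤ 4 * K ^ 3 * (κ * R) := fun i j => by
    rw [abs_mul]
    calc |σ j| * |gm q q i| ≤ 4 * K ^ 2 * (κ * δ) * (K * R) :=
          mul_le_mul (hσb j) (H.hg i) (abs_nonneg _) (by positivity)
      _ = 4 * K ^ 3 * (κ * R) * δ := by ring
      _ ≤ 4 * K ^ 3 * (κ * R) * 1 := mul_le_mul_of_nonneg_left hδ1 (by positivity)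
      _ = _ := by ring
  have a4 : |q.h00 * (σ i * σ j)| ≤ 16 * K ^ 5 * (κ * R) := by
    rw [abs_mul]
    calc |q.h00| * |σ i * σ j| ≤ (K * R) * (16 * K ^ 4 * (κ ^ 2 * δ ^ 2)) :=
          mul_le_mul H.h00 hss (abs_nonneg _) (by positivity)
      _ = 16 * K ^ 5 * (κ * R) * (κ * δ ^ 2) := by ring
      _ ≤ 16 * K ^ 5 * (κ * R) * 1 := by
          refine mul_le_mul_of_nonneg_left ?_ (by positivity)
          have : δ ^ 2 ≤ 1 := hδ2.trans hδ1
          nlinarith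
      _ = _ := by ring
  have k3 : K ^ 3 ≤ K ^ 5 := pow_le_pow_right₀ hK (by norm_num)
  have k1 : K ≤ K ^ 5 := by
    calc K = K ^ 1 := (pow_one K).symm
      _ ≤ K ^ 5 := pow_le_pow_right₀ hK (by norm_num)
  have b1 : 4 * K ^ 3 * (κ * R) ≤ 4 * K ^ 5 * (κ * R) :=
    mul_le_mul_of_nonneg_right (by linarith) hκR
  have b2 : K * κ * R ≤ K ^ 5 * (κ * R) := by
    calc K * κ * R = K * (κ * R) := by ring
      _ ≤ _ := mul_le_mul_of_nonneg_right k1 hκR
  calc _ ≤ |lf q (sl q) i j| + |σ j * (q.h0 i + sl q i * q.h00)| +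
        |σ i * (q.h0 j + sl q j * q.h00)| + |q.h00 * (σ i * σ j)| := by
        refine (abs_add_le _ _).trans (add_le_add ((abs_add_le _ _).trans (add_le_add
          (abs_add_le _ _) le_rfl)) le_rfl)
    _ ≤ _ := by linarith [a2 i j, a2 j i]

/-- **(1) moving in the chart of the first sheet** -/
theorem move1 {ω k kk K s l : ℝ} (hK : 10 ^ 7 ≤ K) (hω : 0 < ω)
    (k13 : k ≤ 13 * ω) (own : Own K ω k J1) (kk0 : 0 < kk) (c1 : kk ≤ K * k)
    (s0 : 0 ≤ s) (s1 : s ≤ K * kk) (l1 : l ≤ 1) (hδ0 : 0 ≤ δ) (hδ : K ^ 19 * δ ≤ 1)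
    (hW : ∀ i, |W i| ≤ 3 * (K * (K * δ))) (hg : |gr J' y W| ≤ 10 * K ^ 2 * (kk * δ))
    (ht : ∀ i, |tg J1 J' i| ≤ l * s) (h0 : ω / 32 ≤ |J'.a0|)
    (n : ∀ i j, |th J1 J' i j| ≤ K * s) (ng : ∀ i, k / ω * |gm J1 (df J1 J') i| ≤ K * s)
    (n0 : (k / ω) ^ 2 * |(df J1 J').h00| ≤ K * s) :
    Mv J1 J' y W (K ^ 2) (k / (K * ω)) (K ^ 6 * δ) (K * s) ω ∧ ω / 4 ≤ |(sh J1 y W).a0| := by
  have hK0 : (0 : ℝ) < K := by linarith
  have hK1 : (1 : ℝ) ≤ K := by linarith
  have k0 : 0 < k := by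
    by_contra h
    push Not at h
    nlinarith
  have hp : ∀ {a b : ℕ}, a ≤ b → K ^ a ≤ K ^ b := fun h => pow_le_pow_right₀ hK1 h
  have hdp : ∀ {a b : ℕ}, a ≤ b → K ^ a * δ ≤ K ^ b * δ := fun h =>
    mul_le_mul_of_nonneg_right (hp h) hδ0
  have hδ7 : K ^ 7 * δ ≤ 1 := (hdp (by norm_num)).trans hδ
  have hδ6 : K ^ 6 * δ ≤ 1 / 10 ^ 7 := by
    have : K ^ 6 * δ * K ≤ 1 := by
      calc K ^ 6 * δ * K = K ^ 7 * δ := by ring
        _ ≤ 1 := hδ7
    rw [le_div_iff₀ (by norm_num)]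
    exact (mul_le_mul_of_nonneg_left hK (by positivity)).trans this
  have hw3 : 3 * (K * (K * δ)) ≤ K ^ 6 * δ := by
    calc 3 * (K * (K * δ)) = 3 * (K ^ 2 * δ) := by ring
      _ ≤ K * (K ^ 2 * δ) := mul_le_mul_of_nonneg_right (by linarith) (by positivity)
      _ = K ^ 3 * δ := by ring
      _ ≤ K ^ 6 * δ := hdp (by norm_num)
  set e := y - ∑ i, sl J1 i * W i with he
  -- the displacement
  have hA : l * s ≤ K * kk := by nlinarith
  have hd := disp_other (K := K) (k := k) own hω (by positivity) hW (A := K * kk)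
    (fun i => (ht i).trans hA) h0 hg
  have hd2 : ω * |e| ≤ K ^ 5 * (k * δ) := by
    refine hd.trans ?_
    calc 128 * (10 * K ^ 2 * (kk * δ) + 3 * (3 * (K * (K * δ)) * (K * kk))) =
          (1280 * K ^ 2 + 1152 * K ^ 3) * (kk * δ) := by ring
      _ ≤ K ^ 4 * (kk * δ) := by
          refine mul_le_mul_of_nonneg_right ?_ (by positivity)
          have h2 : K ^ 2 ≤ K ^ 3 := hp (by norm_num)
          have h3 : K ^ 4 = K * K ^ 3 := by ring
          have h4 : 10 ^ 7 * K ^ 3 ≤ K * K ^ 3 := mul_le_mul_of_nonneg_right hK (by positivity)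
          rw [h3]; nlinarith [pow_pos hK0 3]
      _ ≤ K ^ 4 * ((K * k) * δ) :=
          mul_le_mul_of_nonneg_left (mul_le_mul_of_nonneg_right c1 hδ0) (by positivity)
      _ = K ^ 5 * (k * δ) := by ring
  have hκ : k / (K * ω) ≤ k / ω := by
    refine div_le_div_of_nonneg_left k0.le hω ?_
    nlinarith
  have hκ0 : 0 ≤ k / (K * ω) := by positivity
  have hκω : k / (K * ω) * ω = k / K := by field_simp
  have hy : |e| ≤ k / (K * ω) * (K ^ 6 * δ) := by
    have e1 : k / (K * ω) * (K ^ 6 * δ) = K ^ 5 * (k * δ) / ω := by field_simp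
    rw [e1, le_div_iff₀ hω]; linarith
  have hκ1 : k / (K * ω) ≤ 1 := by
    rw [div_le_one (by positivity)]
    calc k ≤ 13 * ω := k13
      _ ≤ K * ω := mul_le_mul_of_nonneg_right (by linarith) hω.le
  have hK12 : K ≤ K ^ 2 := by nlinarith
  have hlo : ω / 4 ≤ |(sh J1 y W).a0| := by
    have e1 := sh_nor J1 J1 W y
    have a1 : |∑ i, W i * gm J1 J1 i| ≤ 3 * (3 * (K * (K * δ)) * (K * ω)) := by
      refine sum3_le fun i => ?_
      rw [abs_mul]
      exact mul_le_mul (hW i) (own.g i) (abs_nonneg _) (by positivity)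
    have a2 : |e * J1.h00| ≤ K ^ 6 * δ * (2 * ω) := by
      rw [abs_mul]
      refine mul_le_mul (hy.trans ?_) own.h00 (abs_nonneg _) (by positivity)
      calc _ ≤ 1 * (K ^ 6 * δ) := mul_le_mul_of_nonneg_right hκ1 (by positivity)
        _ = _ := one_mul _
    have a3 : 3 * (3 * (K * (K * δ)) * (K * ω)) ≤ K ^ 6 * δ * (9 * ω) := by
      calc 3 * (3 * (K * (K * δ)) * (K * ω)) = K ^ 3 * δ * (9 * ω) := by ring
        _ ≤ _ := mul_le_mul_of_nonneg_right (hdp (by norm_num)) (by positivity)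
    have a4 : K ^ 6 * δ * (11 * ω) ≤ 1 / 10 ^ 7 * (11 * ω) :=
      mul_le_mul_of_nonneg_right hδ6 (by positivity)
    have a5 := own.lo
    have b1 := neg_abs_le (∑ i, W i * gm J1 J1 i)
    have b2 := neg_abs_le (e * J1.h00)
    refine le_trans ?_ (le_abs_self _)
    rw [e1]
    norm_num at a4
    nlinarith
  refine ⟨⟨by nlinarith, hω, hκ0, hκ1, by positivity, by linarith, own.ne hω, ?_,
    fun i => (hW i).trans hw3, hy, fun i j => ?_, fun i => (own.g i).trans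
      (mul_le_mul_of_nonneg_right hK12 hω.le), own.h00.trans
      (mul_le_mul_of_nonneg_right (by nlinarith) hω.le), n, fun i => ?_, ?_⟩, hlo⟩
  · refine le_trans ?_ hlo
    exact div_le_div_of_nonneg_left hω.le (by norm_num) (by nlinarith)
  · refine (own.lf i j).trans (le_of_eq ?_)
    field_simp
  · exact (mul_le_mul_of_nonneg_right hκ (abs_nonneg _)).trans (ng i)
  · refine le_trans (mul_le_mul_of_nonneg_right ?_ (abs_nonneg _)) n0
    exact pow_le_pow_left₀ hκ0 hκ 2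

end Crest.Agent.R136.Chm862
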