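import Crest.Agent.R136.Chm4_862

/-!
# R136 (U4, PLAN 2 (3) = (AL), V6): `v6_move`, the jets moved from `T'` to `T` (helper862)
-/

set_option autoImplicit false

namespace Crest.Agent.R136.Chm862

open Crest.Agent.R136.Sh605
open Crest.Agent.R136.Rk601
open Crest.Agent.R136.AlD601
open Crest.Agent.R136.Gbx862 (zj zj_mem)
open Crest.Agent.R136.K4 (Plk4)
open Crest.Agent.R136.Tlt51 (Shp InP)
open Crest.Agent.R136.Tl102
open Crest.Agent.R136.KapP335 (kapP expP expP_spec)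
open Crest.Agent.R136.Deep51 (abs_dt_unit)

/-- the data of a pair of jets `G, G'` (moved), with the scales `ω` of the sheet, `κR` -/
structure Md (G G' : Jt) (K ω c s l m δ k : ℝ) : Prop where
  sy : G.Sym
  sy' : G'.Sym
  lo : ω / 4 ≤ |G.a0|
  hsl : ∀ i, |sl G i| ≤ 2 * K
  hlf : ∀ i j, |lf G (sl G) i j| ≤ K ^ 11 * c
  htg : ∀ i, |tg G G' i| ≤ K ^ 12 * ((l + δ) * s)
  hth : ∀ i j, |th G G' i j| ≤ 2 * K * s
  hen : ∃ i j, k * s ≤ |th G G' i j| + K ^ 20 * (δ * s)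
  hmn : ∀ i j k l', |mn (th G G') i j k l'| ≤ K ^ 33 * ((m + δ) * s ^ 2)

theorem md_of {J1 J' : Jt} {y ω c K s l m δ k : ℝ} {W : Fin 3 → ℝ} (hK : 10 ^ 7 ≤ K)
    (c0 : 0 ≤ c)
    (H : Mv J1 J' y W (K ^ 2) (c / (K * ω)) (K ^ 6 * δ) (K * s) ω)
    (lo : ω / 4 ≤ |(sh J1 y W).a0|) (hs : ∀ i, |sl J1 i| ≤ K) (sy : J1.Sym) (sy' : J'.Sym)
    (s0 : 0 ≤ s) (l0 : 0 ≤ l) (m0 : 0 ≤ m) (hδ0 : 0 ≤ δ) (hδ : K ^ 19 * δ ≤ 1)
    (ht : ∀ i, |tg J1 J' i| ≤ l * s) (hm : ∀ i j k l', |mn (th J1 J') i j k l'| ≤ m * s ^ 2)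
    (hk : ∃ i j, k * s ≤ |th J1 J' i j|) :
    Md (sh J1 y W) (sh J' y W) K ω c s l m δ k := by
  have hK0 : (0 : ℝ) < K := by linarith
  have hK1 : (1 : ℝ) ≤ K := by linarith
  have hω := H.R0
  have hp : ∀ {a b : ℕ}, a ≤ b → K ^ a ≤ K ^ b := fun h => pow_le_pow_right₀ hK1 h
  have hup : ∀ {n : ℕ} {x : ℝ}, 0 ≤ x → x ≤ 10 ^ 7 → x * K ^ n ≤ K ^ (n + 1) := fun hx hx' => by
    rw [pow_succ']
    exact mul_le_mul_of_nonneg_right (hx'.trans hK) (by positivity)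
  have hdp : ∀ {a b : ℕ}, a ≤ b → K ^ a * δ ≤ K ^ b * δ := fun h =>
    mul_le_mul_of_nonneg_right (hp h) hδ0
  have ew : c / (K * ω) * ω = c / K := by field_simp
  have ec : c / K ≤ c := div_le_self c0 hK1
  have e1 : c / (K * ω) ≤ 1 := H.κ1
  refine ⟨sy, sy', lo, fun i => ?_, fun i j => ?_, fun i => ?_, fun i j => ?_, ?_,
    fun i j k l' => ?_⟩
  · have h1 := H.sl_le i
    have h2 : 4 * (K ^ 2) ^ 2 * (c / (K * ω) * (K ^ 6 * δ)) ≤ K := by
      calc 4 * (K ^ 2) ^ 2 * (c / (K * ω) * (K ^ 6 * δ)) ≤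
            4 * (K ^ 2) ^ 2 * (1 * (K ^ 6 * δ)) := by
            refine mul_le_mul_of_nonneg_left ?_ (by positivity)
            exact mul_le_mul_of_nonneg_right e1 (by positivity)
        _ = 4 * (K ^ 10 * δ) := by ring
        _ ≤ 4 * (K ^ 19 * δ) := mul_le_mul_of_nonneg_left (hdp (by norm_num)) (by norm_num)
        _ ≤ 4 * 1 := mul_le_mul_of_nonneg_left hδ (by norm_num)
        _ ≤ K := by linarith
    have h3 := hs i
    have h4 : |sl (sh J1 y W) i| ≤ |sl (sh J1 y W) i - sl J1 i| + |sl J1 i| := by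
      have := abs_add_le (sl (sh J1 y W) i - sl J1 i) (sl J1 i)
      rwa [sub_add_cancel] at this
    linarith
  · refine (H.lf_le i j).trans ?_
    rw [ew]
    calc 25 * (K ^ 2) ^ 5 * (c / K) ≤ 25 * (K ^ 2) ^ 5 * c :=
          mul_le_mul_of_nonneg_left ec (by positivity)
      _ = 25 * K ^ 10 * c := by ring
      _ ≤ K ^ 11 * c := mul_le_mul_of_nonneg_right (hup (by norm_num) (by norm_num)) c0
  · have h1 := H.tg_le i
    have h2 := ht i
    have h4 : |tg (sh J1 y W) (sh J' y W) i| ≤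
        |tg (sh J1 y W) (sh J' y W) i - tg J1 J' i| + |tg J1 J' i| := by
      have := abs_add_le (tg (sh J1 y W) (sh J' y W) i - tg J1 J' i) (tg J1 J' i)
      rwa [sub_add_cancel] at this
    have h5 : 20 * (K ^ 2) ^ 2 * (K * s * (K ^ 6 * δ)) ≤ K ^ 12 * (δ * s) := by
      calc 20 * (K ^ 2) ^ 2 * (K * s * (K ^ 6 * δ)) = 20 * K ^ 11 * (δ * s) := by ring
        _ ≤ _ := mul_le_mul_of_nonneg_right (hup (by norm_num) (by norm_num)) (by positivity)
    have h6 : l * s ≤ K ^ 12 * (l * s) := le_mul_of_one_le_left (by positivity)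
      (one_le_pow₀ hK1)
    calc _ ≤ K ^ 12 * (δ * s) + K ^ 12 * (l * s) := by linarith
      _ = _ := by ring
  · have h1 := H.th_le i j
    have h2 := H.hN i j
    have h4 : |th (sh J1 y W) (sh J' y W) i j| ≤
        |th (sh J1 y W) (sh J' y W) i j - th J1 J' i j| + |th J1 J' i j| := by
      have := abs_add_le (th (sh J1 y W) (sh J' y W) i j - th J1 J' i j) (th J1 J' i j)
      rwa [sub_add_cancel] at this
    have h5 : 124 * (K ^ 2) ^ 6 * (K * s * (K ^ 6 * δ)) ≤ K * s := by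
      calc 124 * (K ^ 2) ^ 6 * (K * s * (K ^ 6 * δ)) = 124 * K ^ 18 * δ * (K * s) := by ring
        _ ≤ K ^ 19 * δ * (K * s) := by
          refine mul_le_mul_of_nonneg_right ?_ (by positivity)
          exact mul_le_mul_of_nonneg_right (hup (by norm_num) (by norm_num)) hδ0
        _ ≤ 1 * (K * s) := mul_le_mul_of_nonneg_right hδ (by positivity)
        _ = _ := one_mul _
    linarith
  · obtain ⟨i, j, hij⟩ := hk
    refine ⟨i, j, ?_⟩
    have h1 := H.th_le i j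
    have h4 : |th J1 J' i j| ≤
        |th (sh J1 y W) (sh J' y W) i j - th J1 J' i j| + |th (sh J1 y W) (sh J' y W) i j| := by
      have := abs_sub (th (sh J1 y W) (sh J' y W) i j)
        (th (sh J1 y W) (sh J' y W) i j - th J1 J' i j)
      rw [sub_sub_cancel] at this
      linarith
    have h5 : 124 * (K ^ 2) ^ 6 * (K * s * (K ^ 6 * δ)) ≤ K ^ 20 * (δ * s) := by
      calc 124 * (K ^ 2) ^ 6 * (K * s * (K ^ 6 * δ)) = 124 * K ^ 19 * (δ * s) := by ring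
        _ ≤ _ := mul_le_mul_of_nonneg_right (hup (by norm_num) (by norm_num)) (by positivity)
    linarith
  · have h1 := H.mn_le i j k l'
    have h2 := hm i j k l'
    have h4 : |mn (th (sh J1 y W) (sh J' y W)) i j k l'| ≤
        |mn (th (sh J1 y W) (sh J' y W)) i j k l' - mn (th J1 J') i j k l'| +
          |mn (th J1 J') i j k l'| := by
      have := abs_add_le (mn (th (sh J1 y W) (sh J' y W)) i j k l' - mn (th J1 J') i j k l')
        (mn (th J1 J') i j k l')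
      rwa [sub_add_cancel] at this
    have h5 : 62000 * (K ^ 2) ^ 12 * ((K * s) ^ 2 * (K ^ 6 * δ)) ≤ K ^ 33 * (δ * s ^ 2) := by
      calc 62000 * (K ^ 2) ^ 12 * ((K * s) ^ 2 * (K ^ 6 * δ)) =
            62000 * K ^ 32 * (δ * s ^ 2) := by ring
        _ ≤ _ := mul_le_mul_of_nonneg_right (hup (by norm_num) (by norm_num)) (by positivity)
    have h6 : m * s ^ 2 ≤ K ^ 33 * (m * s ^ 2) := le_mul_of_one_le_left (by positivity)
      (one_le_pow₀ hK1)
    calc _ ≤ K ^ 33 * (δ * s ^ 2) + K ^ 33 * (m * s ^ 2) := by linarith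
      _ = _ := by ring

/-- the maps of the change of chart: sizes -/
structure Lb (K r ω : ℝ) (L : Lm) : Prop where
  mC : ∀ k, |L.mC k| ≤ K
  mCr : ∀ k, |L.mC k| * ω ≤ r
  mm : ∀ k i, |L.mm k i| ≤ 20 * K

/-- **(2) the change of chart** : `r` = width of the new sheet, `ω` = width of the old one -/
theorem cc_of {G G' : Jt} {L : Lm} {K ω r c s l m δ k : ℝ} (hK : 10 ^ 7 ≤ K) (ω0 : 0 < ω)
    (r0 : 0 < r) (cω : c ≤ 13 * ω) (H : Md G G' K ω c s l m δ k)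
    (hL : Lb K r ω L) (hr : r / 32 ≤ |(pull 1 L G).a0|) (hsl : ∀ i, |sl (pull 1 L G) i| ≤ 2 * K) :
    Cc 1 L G G' (K ^ 12) (K ^ 12 * ((l + δ) * s)) (2 * K * s) (K ^ 33 * ((m + δ) * s ^ 2)) := by
  have hK0 : (0 : ℝ) < K := by linarith
  have hK1 : (1 : ℝ) ≤ K := by linarith
  have hp : ∀ {a b : ℕ}, a ≤ b → K ^ a ≤ K ^ b := fun h => pow_le_pow_right₀ hK1 h
  have hup : ∀ {n : ℕ} {x : ℝ}, 0 ≤ x → x ≤ 10 ^ 7 → x * K ^ n ≤ K ^ (n + 1) := fun hx hx' => by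
    rw [pow_succ']
    exact mul_le_mul_of_nonneg_right (hx'.trans hK) (by positivity)
  have egr : gr G L.m00 L.mC = (pull 1 L G).a0 := (one_mul _).symm
  have hG0 : G.a0 ≠ 0 := by
    intro h; have := H.lo; rw [h, abs_zero] at this; linarith
  have k12 : 20 * K ≤ K ^ 12 := by
    calc 20 * K = 20 * K ^ 1 := by ring
      _ ≤ K ^ 2 := hup (by norm_num) (by norm_num)
      _ ≤ K ^ 12 := hp (by norm_num)
  refine ⟨one_le_pow₀ hK1, one_pos, H.sy, H.sy', hG0, ?_, fun k i j => ?_,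
    fun k => (hL.mC k).trans (by linarith), fun k i => (hL.mm k i).trans k12,
    fun i => (hsl i).trans (by linarith), H.htg, H.hth, H.hmn⟩
  · rw [egr]
    intro h
    rw [h, abs_zero] at hr
    linarith
  · rw [egr]
    have hc : |lf G (sl G) i j| ≤ K ^ 11 * (13 * ω) :=
      (H.hlf i j).trans (mul_le_mul_of_nonneg_left cω (by positivity))
    calc |L.mC k| * |lf G (sl G) i j| ≤ |L.mC k| * (K ^ 11 * (13 * ω)) :=
          mul_le_mul_of_nonneg_left hc (abs_nonneg _)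
      _ = 13 * K ^ 11 * (|L.mC k| * ω) := by ring
      _ ≤ 13 * K ^ 11 * r := mul_le_mul_of_nonneg_left (hL.mCr k) (by positivity)
      _ = 416 * K ^ 11 * (r / 32) := by ring
      _ ≤ 416 * K ^ 11 * |(pull 1 L G).a0| := mul_le_mul_of_nonneg_left hr (by positivity)
      _ ≤ K ^ 12 * |(pull 1 L G).a0| :=
          mul_le_mul_of_nonneg_right (hup (by norm_num) (by norm_num)) (abs_nonneg _)

theorem lb_of {S S' : Plk4} {K ρ : ℝ} (H : Tr K S S')
    (h : ∀ k, k ≠ 0 → |co S'.e S'.w (ρ • (S.c.v - S'.c.v)) k| ≤ 20 * K) :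
    Lb K (S.w 0) (S'.w 0) (tr S S' ρ) := by
  have hK := H.K1
  have hK0 : (0 : ℝ) < K := by linarith
  have e1 : (1 : Fin 3) ≠ 0 := by decide
  have e2 : (2 : Fin 3) ≠ 0 := by decide
  have key : ∀ k, k ≠ 0 → |co S'.e S'.w (fr S.e S.w 0) k| * S'.w 0 ≤ S.w 0 := by
    intro k hk
    have e : co S'.e S'.w (fr S.e S.w 0) k = S.w 0 * dt (S'.e k) (S.e 0) / S'.w k := by
      simp only [co, fr, dt, Pi.smul_apply, smul_eq_mul]; ring
    have pk := H.pos' k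
    have p0 := H.pos 0
    have u := abs_dt_unit H.o' H.o k 0
    have w0k : S'.w 0 ≤ S'.w k := by
      fin_cases k
      · exact absurd rfl hk
      · exact H.w02'.trans H.w21'
      · exact H.w02'
    rw [e, abs_div, abs_of_pos pk, abs_mul, abs_of_pos p0, div_mul_eq_mul_div, div_le_iff₀ pk]
    exact mul_le_mul (mul_le_of_le_one_right p0.le u) w0k H.w0'.le p0.le
  have t0 : |(0 : ℝ)| ≤ K := by rw [abs_zero]; exact hK0.le
  have z0 : |(0 : ℝ)| ≤ 20 * K := by rw [abs_zero]; positivity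
  have o0 : |(1 : ℝ)| ≤ 20 * K := by rw [abs_one]; linarith
  have le20 : K ≤ 20 * K := by linarith
  refine ⟨fun k => ?_, fun k => ?_, fun k i => ?_⟩
  · fin_cases k
    · exact t0
    · exact H.ent 0 1 e1
    · exact H.ent 0 2 e2
  · fin_cases k
    · change |(0 : ℝ)| * S'.w 0 ≤ S.w 0
      rw [abs_zero, zero_mul]; exact (H.pos 0).le
    · exact key 1 e1
    · exact key 2 e2
  · fin_cases k <;> fin_cases i
    · exact o0
    · exact z0
    · exact z0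
    · exact h 1 e1
    · exact (H.ent 1 1 e1).trans le20
    · exact (H.ent 2 1 e1).trans le20
    · exact h 2 e2
    · exact (H.ent 1 2 e2).trans le20
    · exact (H.ent 2 2 e2).trans le20

/-- **(3) the way back** -/
theorem cc_rev {G G' : Jt} {L L' : Lm} {K ω r c s l m δ k N : ℝ} (hK : 10 ^ 7 ≤ K)
    (c0 : 0 ≤ c) (cr : c ≤ K ^ 2 * r) (H : Md G G' K ω c s l m δ k)
    (C : Cc 1 L G G' (K ^ 12) (K ^ 12 * ((l + δ) * s)) (2 * K * s) (K ^ 33 * ((m + δ) * s ^ 2)))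
    (hL' : Lb K ω r L') (hG : pull 1 L' (pull 1 L G) = G)
    (hN : ∀ i j, |th (pull 1 L G) (pull 1 L G') i j| ≤ N) :
    Cc 1 L' (pull 1 L G) (pull 1 L G') (K ^ 62) (6 * (K ^ 12) ^ 2 * (1 * (K ^ 12 * ((l + δ) * s)))) N
      (50000 * (K ^ 12) ^ 10 * (1 ^ 2 * (K ^ 33 * ((m + δ) * s ^ 2) +
        (2 * K * s + K ^ 12 * ((l + δ) * s)) * (K ^ 12 * ((l + δ) * s))))) := by
  have hK0 : (0 : ℝ) < K := by linarith
  have hK1 : (1 : ℝ) ≤ K := by linarith
  have hp : ∀ {a b : ℕ}, a ≤ b → K ^ a ≤ K ^ b := fun h => pow_le_pow_right₀ hK1 h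
  have hup : ∀ {n : ℕ} {x : ℝ}, 0 ≤ x → x ≤ 10 ^ 7 → x * K ^ n ≤ K ^ (n + 1) := fun hx hx' => by
    rw [pow_succ']
    exact mul_le_mul_of_nonneg_right (hx'.trans hK) (by positivity)
  have egr : gr (pull 1 L G) L'.m00 L'.mC = G.a0 := by
    have h1 : (pull 1 L' (pull 1 L G)).a0 = 1 * gr (pull 1 L G) L'.m00 L'.mC := rfl
    rw [hG, one_mul] at h1
    exact h1.symm
  have hG0 : G.a0 ≠ 0 := C.g0
  have k12 : 20 * K ≤ K ^ 62 := by
    calc 20 * K = 20 * K ^ 1 := by ring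
      _ ≤ K ^ 2 := hup (by norm_num) (by norm_num)
      _ ≤ K ^ 62 := hp (by norm_num)
  have hlf : ∀ i j, |lf (pull 1 L G) (sl (pull 1 L G)) i j| ≤ K ^ 62 / 4 * r := by
    intro i j
    rw [lf_pull H.sy one_ne_zero hG0 C.ne]
    rw [one_mul]
    have h1 : |∑ k, ∑ l, tm 1 L G k i * tm 1 L G l j * lf G (sl G) k l| ≤
        9 * ((2 * (K ^ 12) ^ 2) * (2 * (K ^ 12) ^ 2) * (K ^ 11 * c)) := by
      refine sum33_le fun k l => ?_
      rw [abs_mul, abs_mul]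
      refine mul_le_mul (mul_le_mul (C.tm_le k i) (C.tm_le l j) (abs_nonneg _) (by positivity))
        (H.hlf k l) (abs_nonneg _) (by positivity)
    refine h1.trans ?_
    calc 9 * ((2 * (K ^ 12) ^ 2) * (2 * (K ^ 12) ^ 2) * (K ^ 11 * c)) = 36 * K ^ 59 * c := by ring
      _ ≤ 36 * K ^ 59 * (K ^ 2 * r) := mul_le_mul_of_nonneg_left cr (by positivity)
      _ = 144 * K ^ 61 / 4 * r := by ring
      _ ≤ K ^ 62 / 4 * r := by
          have hr : 0 ≤ r := by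
            by_contra h
            push Not at h
            have : K ^ 2 * r < 0 := mul_neg_of_pos_of_neg (by positivity) h
            linarith
          refine mul_le_mul_of_nonneg_right ?_ hr
          exact div_le_div_of_nonneg_right (hup (by norm_num) (by norm_num)) (by norm_num)
  refine ⟨one_le_pow₀ hK1, one_pos, pull_sym H.sy, pull_sym H.sy', C.ne, ?_, fun k i j => ?_,
    fun k => (hL'.mC k).trans (by linarith), fun k i => (hL'.mm k i).trans k12,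
    fun i => ?_, C.tg_le, hN, C.mn_le⟩
  · rw [egr]; exact hG0
  · rw [egr]
    calc |L'.mC k| * |lf (pull 1 L G) (sl (pull 1 L G)) i j| ≤ |L'.mC k| * (K ^ 62 / 4 * r) :=
          mul_le_mul_of_nonneg_left (hlf i j) (abs_nonneg _)
      _ = K ^ 62 / 4 * (|L'.mC k| * r) := by ring
      _ ≤ K ^ 62 / 4 * ω := mul_le_mul_of_nonneg_left (hL'.mCr k) (by positivity)
      _ = K ^ 62 * (ω / 4) := by ring
      _ ≤ K ^ 62 * |G.a0| := mul_le_mul_of_nonneg_left H.lo (by positivity)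
  · rw [hG]
    exact (H.hsl i).trans (by linarith)

/-- **(4) the conclusion in the new chart** -/
theorem md_end {G G' : Jt} {L L' : Lm} {K ω r c s l m δ k : ℝ} (hK : 10 ^ 7 ≤ K) (ω0 : 0 < ω)
    (r0 : 0 < r) (c0 : 0 ≤ c) (cω : c ≤ 13 * ω) (cr : c ≤ K ^ 2 * r) (s0 : 0 < s) (l0 : 0 ≤ l)
    (m0 : 0 ≤ m) (δ0 : 0 ≤ δ) (k1 : k ≤ 1) (hP : K ^ 400 * (l + δ) ≤ k)
    (H : Md G G' K ω c s l m δ k) (hL : Lb K r ω L) (hL' : Lb K ω r L')
    (hr : r / 32 ≤ |(pull 1 L G).a0|) (hsl : ∀ i, |sl (pull 1 L G) i| ≤ 2 * K)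
    (hG : pull 1 L' (pull 1 L G) = G) (hG' : pull 1 L' (pull 1 L G') = G') :
    (∀ i i', |th (pull 1 L G) (pull 1 L G') i i'| ≤ K ^ 400 * s) ∧
    (∃ i i', k * s ≤ K ^ 400 * |th (pull 1 L G) (pull 1 L G') i i'|) ∧
    (∀ i i' j j', |mn (th (pull 1 L G) (pull 1 L G')) i i' j j'| ≤
      K ^ 400 * ((l + m + δ) * s ^ 2)) ∧
    ∀ i, |tg (pull 1 L G) (pull 1 L G') i| ≤ K ^ 400 * ((l + δ) * s) := by
  have hK0 : (0 : ℝ) < K := by linarith
  have hK1 : (1 : ℝ) ≤ K := by linarith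
  have hp : ∀ {a b : ℕ}, a ≤ b → K ^ a ≤ K ^ b := fun h => pow_le_pow_right₀ hK1 h
  have hup : ∀ {n : ℕ} {x : ℝ}, 0 ≤ x → x ≤ 10 ^ 7 → x * K ^ n ≤ K ^ (n + 1) := fun hx hx' => by
    rw [pow_succ']
    exact mul_le_mul_of_nonneg_right (hx'.trans hK) (by positivity)
  have C := cc_of hK ω0 r0 cω H hL hr hsl
  obtain ⟨A, hA⟩ : ∃ A, A = (l + δ) * s := ⟨_, rfl⟩
  have A0 : 0 ≤ A := by rw [hA]; positivity
  have A1 : K ^ 12 * A ≤ s := by
    rw [hA]
    have h1 : K ^ 12 * (l + δ) ≤ 1 := by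
      calc K ^ 12 * (l + δ) ≤ K ^ 400 * (l + δ) :=
            mul_le_mul_of_nonneg_right (hp (by norm_num)) (by positivity)
        _ ≤ 1 := hP.trans k1
    calc K ^ 12 * ((l + δ) * s) = K ^ 12 * (l + δ) * s := by ring
      _ ≤ 1 * s := mul_le_mul_of_nonneg_right h1 s0.le
      _ = s := one_mul _
  refine ⟨fun i i' => ?_, ?_, fun i i' j j' => ?_, fun i => ?_⟩
  · refine (C.th_le i i').trans ?_
    rw [← hA]
    calc 108 * (K ^ 12) ^ 5 * (1 * (2 * K * s + K ^ 12 * A)) ≤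
          108 * (K ^ 12) ^ 5 * (1 * (2 * K * s + K * s)) := by
          refine mul_le_mul_of_nonneg_left ?_ (by positivity)
          nlinarith
      _ = 324 * K ^ 61 * s := by ring
      _ ≤ K ^ 62 * s := mul_le_mul_of_nonneg_right (hup (by norm_num) (by norm_num)) s0.le
      _ ≤ K ^ 400 * s := mul_le_mul_of_nonneg_right (hp (by norm_num)) s0.le
  · by_contra hne
    push Not at hne
    have hks : 0 < k * s := lt_of_le_of_lt (by positivity) (hne 0 0)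
    have hN : ∀ i j, |th (pull 1 L G) (pull 1 L G') i j| ≤ k * s / K ^ 400 := fun i j => by
      rw [le_div_iff₀ (by positivity)]
      linarith [hne i j]
    have D := cc_rev hK c0 cr H C hL' hG hN
    obtain ⟨i, j, hij⟩ := H.hen
    have h1 := D.th_le i j
    rw [hG, hG', ← hA] at h1
    have h2 : 108 * (K ^ 62) ^ 5 * (1 * (k * s / K ^ 400 + 6 * (K ^ 12) ^ 2 * (1 * (K ^ 12 * A)))) =
        108 * K ^ 310 * (k * s / K ^ 400) + 648 * K ^ 346 * A := by ring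
    have h3 : 108 * K ^ 310 * (k * s / K ^ 400) ≤ k * s / 4 := by
      rw [← mul_div_assoc, div_le_div_iff₀ (by positivity) (by norm_num)]
      calc 108 * K ^ 310 * (k * s) * 4 = 432 * K ^ 310 * (k * s) := by ring
        _ ≤ K ^ 311 * (k * s) := mul_le_mul_of_nonneg_right (hup (by norm_num) (by norm_num)) hks.le
        _ ≤ K ^ 400 * (k * s) := mul_le_mul_of_nonneg_right (hp (by norm_num)) hks.le
        _ = k * s * K ^ 400 := by ring
    have h4 : K ^ 20 * (δ * s) ≤ K ^ 346 * A := by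
      rw [hA]
      refine mul_le_mul (hp (by norm_num)) ?_ (by positivity) (by positivity)
      exact mul_le_mul_of_nonneg_right (by linarith) s0.le
    have h5 : 649 * K ^ 346 * A ≤ k * s / 4 := by
      have : 4 * (649 * K ^ 346 * A) ≤ K ^ 400 * (l + δ) * s := by
        calc 4 * (649 * K ^ 346 * A) = 2596 * K ^ 346 * A := by ring
          _ ≤ K ^ 347 * A := mul_le_mul_of_nonneg_right (hup (by norm_num) (by norm_num)) A0
          _ ≤ K ^ 400 * A := mul_le_mul_of_nonneg_right (hp (by norm_num)) A0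
          _ = _ := by rw [hA]; ring
      have h6 : K ^ 400 * (l + δ) * s ≤ k * s := mul_le_mul_of_nonneg_right hP s0.le
      linarith
    rw [h2] at h1
    linarith
  · refine (C.mn_le i i' j j').trans ?_
    rw [← hA]
    obtain ⟨B, hB⟩ : ∃ B, B = (l + m + δ) * s ^ 2 := ⟨_, rfl⟩
    have b1 : (m + δ) * s ^ 2 ≤ B := by
      rw [hB]; exact mul_le_mul_of_nonneg_right (by linarith) (by positivity)
    have b2 : s * A ≤ B := by
      rw [hB, hA]
      calc s * ((l + δ) * s) = (l + δ) * s ^ 2 := by ring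
        _ ≤ _ := mul_le_mul_of_nonneg_right (by linarith) (by positivity)
    have B0 : 0 ≤ B := by rw [hB]; positivity
    rw [← hB]
    have b3 : (2 * K * s + K ^ 12 * A) * (K ^ 12 * A) ≤ 3 * K ^ 13 * B := by
      calc (2 * K * s + K ^ 12 * A) * (K ^ 12 * A) ≤ (2 * K * s + K * s) * (K ^ 12 * A) := by
            refine mul_le_mul_of_nonneg_right ?_ (by positivity)
            nlinarith
        _ = 3 * K ^ 13 * (s * A) := by ring
        _ ≤ _ := mul_le_mul_of_nonneg_left b2 (by positivity)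
    have b4 : 3 * K ^ 13 * B ≤ K ^ 33 * B := by
      calc 3 * K ^ 13 * B ≤ K ^ 14 * B :=
            mul_le_mul_of_nonneg_right (hup (by norm_num) (by norm_num)) B0
        _ ≤ K ^ 33 * B := mul_le_mul_of_nonneg_right (hp (by norm_num)) B0
    have b5 : K ^ 33 * ((m + δ) * s ^ 2) ≤ K ^ 33 * B := mul_le_mul_of_nonneg_left b1 (by positivity)
    calc 50000 * (K ^ 12) ^ 10 * (1 ^ 2 * (K ^ 33 * ((m + δ) * s ^ 2) +
          (2 * K * s + K ^ 12 * A) * (K ^ 12 * A))) ≤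
          50000 * (K ^ 12) ^ 10 * (1 ^ 2 * (K ^ 33 * B + K ^ 33 * B)) := by
          refine mul_le_mul_of_nonneg_left ?_ (by positivity)
          linarith
      _ = 100000 * K ^ 153 * B := by ring
      _ ≤ K ^ 154 * B := mul_le_mul_of_nonneg_right (hup (by norm_num) (by norm_num)) B0
      _ ≤ K ^ 400 * B := mul_le_mul_of_nonneg_right (hp (by norm_num)) B0
  · refine (C.tg_le i).trans ?_
    rw [← hA]
    calc 6 * (K ^ 12) ^ 2 * (1 * (K ^ 12 * A)) = 6 * K ^ 36 * A := by ring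
      _ ≤ K ^ 37 * A := mul_le_mul_of_nonneg_right (hup (by norm_num) (by norm_num)) A0
      _ ≤ K ^ 400 * A := mul_le_mul_of_nonneg_right (hp (by norm_num)) A0

theorem vec3 (x : V3) : ![x 0, x 1, x 2] = x := by
  funext i; fin_cases i <;> rfl

/-- slopes from the tangential differences -/
theorem sl_of_tg {q0 q2 : Jt} {K A r : ℝ} (h0 : ∀ i, |sl q0 i| ≤ K) (r0 : 0 < r)
    (hr : r / 32 ≤ |q2.a0|) (hA : ∀ i, |tg q0 q2 i| ≤ A) (hAr : A ≤ r / 32) (i : Fin 3) :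
    |sl q2 i| ≤ K + 1 := by
  have hne : q2.a0 ≠ 0 := by
    intro h; rw [h, abs_zero] at hr; linarith
  have hpos : 0 < |q2.a0| := abs_pos.2 hne
  have e : sl q2 i * q2.a0 = sl q0 i * q2.a0 - tg q0 q2 i := by
    have := sl_tan hne i
    rw [tg_eq]; linarith
  have h1 : |sl q2 i| * |q2.a0| ≤ (K + 1) * |q2.a0| := by
    rw [← abs_mul, e]
    refine (abs_sub _ _).trans ?_
    rw [abs_mul]
    have := mul_le_mul_of_nonneg_right (h0 i) (abs_nonneg q2.a0)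
    linarith [hA i]
  exact le_of_mul_le_mul_right h1 hpos

/-- **`v6_move`** : the pair `(R, V)` at the point of `T`, in the chart of `U`, from the data in
the chart of `R` at the point of `T'`. -/
theorem v6_move {U V R : Plk4} {T T' : Ln4} {z0 ρ K kV kR kk s l m δ k : ℝ} {H j : ℕ}
    (hK : 10 ^ 7 ≤ K) (hρ : 0 ≤ ρ) (qV : IsQ V.q) (qR : IsQ R.q)
    (oV : Own K (V.w 0) kV (jS V V.q z0 ρ H j T')) (oR : Own K (R.w 0) kR (jS R R.q z0 ρ H j T'))
    (c1 : kV ≤ K * kk) (c2 : kk ≤ K * kR) (c3 : kR ≤ 13 * R.w 0) (c4 : kk ≤ K * U.w 0)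
    (c5 : kR ≤ K * kk)
    (VR : Tr K V R) (UR : Tr K U R) (RU : Tr K R U) (VU : Tr K V U)
    (i1 : InP T U z0 ρ) (i2 : InP T V z0 ρ) (i3 : InP T' V z0 ρ) (i4 : InP T' R z0 ρ)
    (qa : |V.q (zj z0 ρ H j) (T.pos (zj z0 ρ H j))| ≤ K * kk * δ)
    (qa' : |V.q (zj z0 ρ H j) (T'.pos (zj z0 ρ H j))| ≤ K * kk * δ)
    (hd : ∀ i, |dt (V.e i) (T.pos (zj z0 ρ H j) - T'.pos (zj z0 ρ H j))| ≤ K * δ * V.w i)
    (s0 : 0 < s) (s1 : s ≤ K * kk)
    (nd : ¬ Nd R V.q z0 ρ H j T' l m s) (sm : ¬ Sm R V.q z0 ρ H j T' k s)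
    (a0 : R.w 0 / 32 ≤ |(jS R V.q z0 ρ H j T').a0|)
    (dv : Wdg296.Dv R V.q z0 ρ H j T' K (kR / R.w 0) s)
    (b0 : U.w 0 / 32 ≤ |(jS U R.q z0 ρ H j T).a0|)
    (bs : ∀ i, |sl (jS U R.q z0 ρ H j T) i| ≤ 2 * K)
    (k1 : k ≤ 1) (l0 : 0 ≤ l) (m0 : 0 ≤ m) (δ0 : 0 ≤ δ) (hP : K ^ 400 * (l + δ) ≤ k) :
    (∀ i i', |th (jS U R.q z0 ρ H j T) (jS U V.q z0 ρ H j T) i i'| ≤ K ^ 400 * s) ∧
    (∃ i i', k * s ≤ K ^ 400 * |th (jS U R.q z0 ρ H j T) (jS U V.q z0 ρ H j T) i i'|) ∧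
    (∀ i i' j' k', |mn (th (jS U R.q z0 ρ H j T) (jS U V.q z0 ρ H j T)) i i' j' k'| ≤
      K ^ 400 * ((l + m + δ) * s ^ 2)) ∧
    ∀ i, |tg (jS U R.q z0 ρ H j T) (jS U V.q z0 ρ H j T) i| ≤ K ^ 400 * ((l + δ) * s) := by
  have hK0 : (0 : ℝ) < K := by linarith
  have hK1 : (1 : ℝ) ≤ K := by linarith
  have hp : ∀ {a b : ℕ}, a ≤ b → K ^ a ≤ K ^ b := fun h => pow_le_pow_right₀ hK1 h
  have kk0 : 0 < kk := by
    by_contra h
    push Not at h
    nlinarith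
  have kR0 : 0 < kR := by
    by_contra h
    push Not at h
    nlinarith
  have ω0 := UR.w0'
  have r0 := UR.w0
  have hδl : K ^ 400 * (l + δ) ≤ 1 := hP.trans k1
  have hδ : ∀ n : ℕ, n ≤ 400 → K ^ n * δ ≤ 1 := fun n hn => by
    calc K ^ n * δ ≤ K ^ 400 * (l + δ) :=
          mul_le_mul (hp hn) (by linarith) δ0 (by positivity)
      _ ≤ 1 := hδl
  have l1 : l ≤ 1 := by
    calc l ≤ l + δ := by linarith
      _ ≤ K ^ 400 * (l + δ) := le_mul_of_one_le_left (by positivity) (one_le_pow₀ hK1)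
      _ ≤ 1 := hδl
  obtain ⟨z, hz⟩ : ∃ z, z = zj z0 ρ H j := ⟨_, rfl⟩
  rw [← hz] at qa qa' hd
  obtain ⟨D, hD⟩ : ∃ D, D = T.pos z - T'.pos z := ⟨_, rfl⟩
  rw [← hD] at hd
  have hTD : T.pos z = T'.pos z + D := by rw [hD]; abel
  -- coordinates of the displacement
  obtain ⟨y, hy⟩ : ∃ y, y = co R.e R.w D 0 := ⟨_, rfl⟩
  obtain ⟨u, hu⟩ : ∃ u, u = co R.e R.w D 1 := ⟨_, rfl⟩
  obtain ⟨v, hv⟩ : ∃ v, v = co R.e R.w D 2 := ⟨_, rfl⟩
  have eR : cmb (fr R.e R.w) ![y, u, v] = D := by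
    rw [hy, hu, hv, vec3, cmb_co UR.o' UR.pos']
  have eV : cmb (fr V.e V.w) ![co V.e V.w D 0, co V.e V.w D 1, co V.e V.w D 2] = D := by
    rw [vec3, cmb_co VR.o VR.pos]
  have bV : ∀ i, |co V.e V.w D i| ≤ K * δ := fun i => by
    unfold co
    rw [abs_div, abs_of_pos (VR.pos i), div_le_iff₀ (VR.pos i)]
    exact hd i
  have bW : ∀ i, |(![0, u, v] : Fin 3 → ℝ) i| ≤ 3 * (K * (K * δ)) := by
    intro i
    fin_cases i
    · simp only [Fin.zero_eta, Matrix.cons_val_zero, abs_zero]; positivity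
    · have := VR.box hd 1 (by decide)
      rw [← hu] at this; exact this
    · have := VR.box hd 2 (by decide)
      rw [← hv] at this; exact this
  -- the gradient in the chart of `V`
  have gV : |gr (jS V V.q z0 ρ H j T') (co V.e V.w D 0)
      ![0, co V.e V.w D 1, co V.e V.w D 2]| ≤ 10 * K ^ 2 * (kk * δ) := by
    have hj := (jt_jet qV (fr V.e V.w) V.c.v z (T'.pos z) ρ).1 (co V.e V.w D 0) 0 (co V.e V.w D 1)
      (co V.e V.w D 2)
    rw [eV, mul_zero, zero_smul, add_zero, add_zero, ← hTD] at hj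
    have g1 := grad_small (K := K) (δ := K * δ) (α := 2 * (K * kk * δ)) (by linarith) oV VR.w0
      (by positivity) (bV 0) (bV 1) (bV 2)
      (by
        calc 16 * K ^ 3 * (K * δ) = 16 * (K ^ 4 * δ) := by ring
          _ ≤ K * (K ^ 4 * δ) := mul_le_mul_of_nonneg_right (by linarith) (by positivity)
          _ = K ^ 5 * δ := by ring
          _ ≤ 1 := hδ 5 (by norm_num))
      (by
        change |(jt V.q (fr V.e V.w) V.c.v (zj z0 ρ H j) (T'.pos (zj z0 ρ H j)) ρ).a0 *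
          co V.e V.w D 0 + dp (jt V.q (fr V.e V.w) V.c.v (zj z0 ρ H j)
            (T'.pos (zj z0 ρ H j)) ρ).a ![0, co V.e V.w D 1, co V.e V.w D 2] + 1 / 2 *
          ((jt V.q (fr V.e V.w) V.c.v (zj z0 ρ H j) (T'.pos (zj z0 ρ H j)) ρ).h00 *
            (co V.e V.w D 0) ^ 2 + 2 * (co V.e V.w D 0) *
            dp (jt V.q (fr V.e V.w) V.c.v (zj z0 ρ H j) (T'.pos (zj z0 ρ H j)) ρ).h0
              ![0, co V.e V.w D 1, co V.e V.w D 2] +
            qf (jt V.q (fr V.e V.w) V.c.v (zj z0 ρ H j) (T'.pos (zj z0 ρ H j)) ρ).h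
              ![0, co V.e V.w D 1, co V.e V.w D 2])| ≤ 2 * (K * kk * δ)
        rw [← hz]
        rw [abs_le] at *
        constructor <;> linarith [qa.1, qa.2, qa'.1, qa'.2])
    refine g1.trans ?_
    have h1 : 18 * K ^ 2 * kV * (K * δ) ^ 2 ≤ 2 * K ^ 2 * (kk * δ) := by
      calc 18 * K ^ 2 * kV * (K * δ) ^ 2 = 18 * K ^ 2 * (K * δ) ^ 2 * kV := by ring
        _ ≤ 18 * K ^ 2 * (K * δ) ^ 2 * (K * kk) := mul_le_mul_of_nonneg_left c1 (by positivity)
        _ = 18 * (K ^ 3 * δ) * (K ^ 2 * (kk * δ)) := by ring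
        _ ≤ 2 * (K ^ 2 * (kk * δ)) := by
            refine mul_le_mul_of_nonneg_right ?_ (by positivity)
            have : 10 ^ 7 * (K ^ 3 * δ) ≤ 1 := by
              calc 10 ^ 7 * (K ^ 3 * δ) ≤ K * (K ^ 3 * δ) :=
                    mul_le_mul_of_nonneg_right hK (by positivity)
                _ = K ^ 4 * δ := by ring
                _ ≤ 1 := hδ 4 (by norm_num)
            linarith
        _ = _ := by ring
    calc 4 * K * (2 * (K * kk * δ)) + 18 * K ^ 2 * kV * (K * δ) ^ 2 ≤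
          8 * K ^ 2 * (kk * δ) + 2 * K ^ 2 * (kk * δ) := by
          have : 4 * K * (2 * (K * kk * δ)) = 8 * K ^ 2 * (kk * δ) := by ring
          linarith
      _ = _ := by ring
  have gR : |gr (jS R V.q z0 ρ H j T') y ![0, u, v]| ≤ 10 * K ^ 2 * (kk * δ) := by
    have := gr_inv qV (f := fr V.e V.w) (f' := fr R.e R.w) (V := V.c.v) (V' := R.c.v)
      (z := zj z0 ρ H j) (X := T'.pos (zj z0 ρ H j)) (ρ := ρ) (eV.trans eR.symm)
    unfold jS at gV ⊢
    rw [← this]; exact gV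
  obtain ⟨nt, nm⟩ := not_Nd.1 nd
  obtain ⟨hM, hlo⟩ := move1 (J1 := jS R R.q z0 ρ H j T') (J' := jS R V.q z0 ρ H j T') (y := y)
    (W := ![0, u, v]) (l := l) hK ω0 c3 oR kk0 c2 s0.le s1 l1 δ0 (hδ 19 (by norm_num)) bW gR nt a0
    dv.th dv.gm dv.h00
  have sV : (jS R V.q z0 ρ H j T').Sym := (jt_jet qV _ _ _ _ _).2
  have hsm : ∃ i i', k * s ≤ |th (jS R R.q z0 ρ H j T') (jS R V.q z0 ρ H j T') i i'| := by
    unfold Sm at sm
    push Not at sm
    obtain ⟨i, i', h⟩ := sm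
    exact ⟨i, i', h.le⟩
  have hMd := md_of hK kR0.le hM hlo oR.s oR.sy sV s0.le l0 m0 δ0 (hδ 19 (by norm_num)) nt nm hsm
  -- the changes of chart
  have t1 : ∀ q : ℝ → V3 → ℝ, IsQ q → sh (jS R q z0 ρ H j T') y ![0, u, v] =
      jt q (fr R.e R.w) R.c.v z (T.pos z) ρ := fun q hq => by
    have := jt_shift hq (fr R.e R.w) R.c.v z (T'.pos z) ρ y u v
    rw [eR, ← hTD] at this
    rw [this, hz]
    rfl
  have t2 : ∀ q : ℝ → V3 → ℝ, IsQ q → pull 1 (tr U R ρ) (sh (jS R q z0 ρ H j T') y ![0, u, v]) =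
      jS U q z0 ρ H j T := fun q hq => by
    rw [t1 q hq, ← jt_tr hq UR.o' UR.pos', hz]
    rfl
  have t3 : ∀ q : ℝ → V3 → ℝ, IsQ q → pull 1 (tr R U ρ) (pull 1 (tr U R ρ)
      (sh (jS R q z0 ρ H j T') y ![0, u, v])) = sh (jS R q z0 ρ H j T') y ![0, u, v] :=
    fun q hq => by
      rw [t2 q hq, t1 q hq]
      unfold jS
      rw [← jt_tr hq RU.o' RU.pos', hz]
  have L1 := lb_of UR (fun i hi => UR.shear VR hρ i1 i2 i3 i4 i hi)
  have L2 := lb_of RU (fun i hi => RU.shear VU hρ i4 i3 i2 i1 i hi)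
  have key := md_end hK ω0 r0 kR0.le c3 (c5.trans (by
      calc K * kk ≤ K * (K * U.w 0) := mul_le_mul_of_nonneg_left c4 hK0.le
        _ = K ^ 2 * U.w 0 := by ring)) s0 l0 m0 δ0 k1 hP hMd L1 L2 (by rw [t2 _ qR]; exact b0)
    (by rw [t2 _ qR]; exact bs) (t3 _ qR) (t3 _ qV)
  rw [t2 _ qR, t2 _ qV] at key
  exact key

end Crest.Agent.R136.Chm862
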