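import Crest.Agent.R136.Hcp1_208

/-!
# R136 (S0187), PLAN 2 (3), block (B): capture and count for an aligned pair (helper208)

* `compC_al` : comparability from common dimensions and a small base tilt;
* `a_le_al` : the thickness is at most `13 K w 2 / E`;
* `nr_al` : closeness in the frame of the other sheet gives closeness in the frame of the curved one;
* `cap_al` : capture at the scale `E^(-c0)`;
* `cnt_al` : **count** of the common lines of the pair in one box.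
-/

set_option autoImplicit false
set_option linter.unusedVariables false

open Finset

namespace Crest.Agent.R136.Hcp208

open Crest.Agent.R136.Sh605
open Crest.Agent.R136.K4 (Plk4)
open Crest.Agent.R136.Tlt51 (Shp InP CompC Agree)
open Crest.Agent.R136.Deep51 (CoinC CloseC dt_exp)
open Crest.Agent.R136.Tl102 (StP StP.of_shN IsExp exists_isExp angC)
open Crest.Agent.R136.KapP335 (kapP kapP_eq DetP)
open Crest.Agent.R136.Pl2W102 (Near Two1)

/-- the dimensions of the sheet are `a, w1, w2` up to `K` -/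
def Dims (K a w1 w2 : ℝ) (S : Plk4) : Prop := Near K a S.a ∧ Near K w1 (S.w 1) ∧ Near K w2 (S.w 2)

theorem angC_comm (S S' : Plk4) : angC S S' = angC S' S := by
  unfold angC
  rw [dt_comm (S'.e 1) (S.e 0), dt_comm (S'.e 1) (S.e 2), dt_comm (S'.e 0) (S.e 1),
    dt_comm (S'.e 2) (S.e 1), max_comm]

/-- **facts of an aligned pair**: `S` is the curved sheet -/
structure Al (K E a w1 w2 z0 ρ r : ℝ) (S S' : Plk4) (T : Ln4) : Prop where
  K1 : 1 ≤ K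
  r0 : 0 < r
  ρ0 : 0 < ρ
  a0 : 0 < a
  sh : Shp S z0 ρ r
  sh' : Shp S' z0 ρ r
  mem : InP T S z0 ρ
  mem' : InP T S' z0 ρ
  dim : Dims K a w1 w2 S
  dim' : Dims K a w1 w2 S'
  ang : angC S S' * w1 ≤ K * w2
  cur : E * a ≤ K * kapP S z0 ρ T
  det : DetP K⁻¹ S z0 ρ T
  far : ¬ (CloseC S.e S.w S.q S.a S'.q (E * a) T z0 ρ ∧
    CloseC S'.e S'.w S'.q S'.a S.q (E * a) T z0 ρ)

section

variable {K E a w1 w2 z0 ρ r : ℝ} {S S' : Plk4} {T : Ln4}

theorem compC_al (h : Al K E a w1 w2 z0 ρ r S S' T) : CompC (K ^ 2) (K ^ 3) S S' := by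
  have hK := h.K1
  have hK0 : 0 < K := by linarith
  obtain ⟨⟨a1, a2⟩, ⟨b1, b2⟩, ⟨c1, c2⟩⟩ := h.dim
  obtain ⟨⟨a1', a2'⟩, ⟨b1', b2'⟩, ⟨c1', c2'⟩⟩ := h.dim'
  have hw0 : 0 < S.w 0 := h.r0.trans_le (h.sh.r0_le.trans h.sh.a_le0)
  have hw2 : 0 < S.w 2 := hw0.trans_le h.sh.w0_le
  have hw1 : 0 < S.w 1 := hw2.trans_le h.sh.w_le
  have hw0' : 0 < S'.w 0 := h.r0.trans_le (h.sh'.r0_le.trans h.sh'.a_le0)
  have hw2' : 0 < S'.w 2 := hw0'.trans_le h.sh'.w0_le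
  have hw1' : 0 < S'.w 1 := hw2'.trans_le h.sh'.w_le
  have two : ∀ x y X : ℝ, y ≤ K * X → X ≤ K * x → y ≤ K ^ 2 * x := by
    intro x y X h1 h2
    have := mul_le_mul_of_nonneg_left h2 hK0.le
    nlinarith
  have hang0 : 0 ≤ angC S S' := (abs_nonneg (dt (S.e 1) (S'.e 0))).trans
    ((le_max_left _ _).trans (le_max_left _ _))
  have hA : angC S S' * S.w 1 ≤ K ^ 3 * S.w 2 := by
    calc angC S S' * S.w 1 ≤ angC S S' * (K * w1) := mul_le_mul_of_nonneg_left b2 hang0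
      _ = K * (angC S S' * w1) := by ring
      _ ≤ K * (K * w2) := mul_le_mul_of_nonneg_left h.ang hK0.le
      _ ≤ K * (K * (K * S.w 2)) :=
        mul_le_mul_of_nonneg_left (mul_le_mul_of_nonneg_left c1 hK0.le) hK0.le
      _ = _ := by ring
  refine ⟨?_, ⟨two _ _ _ a2 a1', two _ _ _ a2' a1⟩, ?_, ?_⟩
  · intro i hi
    fin_cases i
    · exact absurd rfl hi
    · exact ⟨two _ _ _ b2 b1', two _ _ _ b2' b1⟩
    · exact ⟨two _ _ _ c2 c1', two _ _ _ c2' c1⟩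
  · intro i hi
    refine le_trans (mul_le_mul_of_nonneg_right ?_ hw1.le) hA
    unfold angC
    fin_cases i
    · exact (le_max_left _ _).trans (le_max_left _ _)
    · exact absurd rfl hi
    · exact (le_max_right _ _).trans (le_max_left _ _)
  · intro i hi
    refine le_trans (mul_le_mul_of_nonneg_right ?_ hw1.le) hA
    unfold angC
    fin_cases i
    · exact (le_max_left _ _).trans (le_max_right _ _)
    · exact absurd rfl hi
    · exact (le_max_right _ _).trans (le_max_right _ _)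

/-- the thickness of the other sheet -/
theorem a_le_al (h : Al K E a w1 w2 z0 ρ r S S' T) (hE : 0 < E) :
    4 * K ^ 3 * S'.a ≤ 52 * K ^ 5 / E * S.w 2 := by
  have hK := h.K1
  have hK0 : 0 < K := by linarith
  have hk := kapP_le h.r0 h.ρ0.le h.sh h.mem
  have hw := h.sh.w0_le
  have h1 : S'.a ≤ K * a := h.dim'.1.2
  have h2 : E * a ≤ K * (13 * S.w 2) := h.cur.trans (mul_le_mul_of_nonneg_left (by linarith) hK0.le)
  have h3 : a ≤ 13 * K * S.w 2 / E := by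
    rw [le_div_iff₀ hE]; linarith
  calc 4 * K ^ 3 * S'.a ≤ 4 * K ^ 3 * (K * (13 * K * S.w 2 / E)) := by
        refine mul_le_mul_of_nonneg_left (h1.trans (mul_le_mul_of_nonneg_left h3 hK0.le))
          (by positivity)
    _ = _ := by ring

/-- closeness in either frame gives closeness in the frame of the curved sheet -/
theorem nr_al (h : Al K E a w1 w2 z0 ρ r S S' T) (hE : 0 < E) {t t' : Ln4}
    (ht : InP t S' z0 ρ) (ht' : InP t' S' z0 ρ) {c z : ℝ} (hc : 0 ≤ c) (h0 : z0 ≤ z)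
    (h1 : z ≤ z0 + ρ) (hN : Nr S c z t t' ∨ Nr S' c z t t') :
    Nr S (60 * K ^ 5 * (c + 1 / E)) z t t' := by
  have hK := h.K1
  have hK0 : 0 < K := by linarith
  have hw0 : 0 < S.w 0 := h.r0.trans_le (h.sh.r0_le.trans h.sh.a_le0)
  have hw2 : 0 < S.w 2 := hw0.trans_le h.sh.w0_le
  have hw1 : 0 < S.w 1 := hw2.trans_le h.sh.w_le
  have h5 : 1 ≤ K ^ 5 := one_le_pow₀ hK
  have hE1 : 0 < 1 / E := by positivity
  rcases hN with hN | hN
  · refine hN.mono ?_ hw1.le hw2.le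
    nlinarith [mul_nonneg (by linarith : 0 ≤ K ^ 5 - 1) (by linarith : 0 ≤ c + 1 / E)]
  · have := nr_change h.r0 (one_le_pow₀ hK) (one_le_pow₀ hK) h.sh h.sh' (compC_al h) ht ht' hc h0
      h1 (a_le_al h hE) hN
    refine this.mono ?_ hw1.le hw2.le
    have e : 52 * K ^ 5 / E + 6 * K ^ 3 * K ^ 2 * c = 52 * (K ^ 5 * (1 / E)) + 6 * (K ^ 5 * c) := by
      ring
    rw [e]
    have g1 : 0 ≤ K ^ 5 * c := by positivity
    have g2 : 0 ≤ K ^ 5 * (1 / E) := by positivity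
    nlinarith

end

set_option maxHeartbeats 2000000 in
/-- **capture at the scale `E^(-c0)`** -/
theorem cap_al : ∃ c0 : ℝ, 0 < c0 ∧ c0 ≤ 1 / 4 ∧ ∃ C : ℝ, 1 ≤ C ∧ ∃ N : ℕ, 1 ≤ N ∧
    ∀ (K E a w1 w2 z0 ρ r : ℝ) (S S' : Plk4) (T : Ln4), (2 * K) ^ C ≤ E →
    Al K E a w1 w2 z0 ρ r S S' T →
    ∃ s : Fin 2 → ℝ, ∀ h, 0 ≤ h → h ≤ 1 → (∀ i, E ^ (-c0) ≤ |h - s i|) →
      ∃ V : Fin N → V3, ∀ t : Ln4, InP t S z0 ρ → InP t S' z0 ρ →
        (Nr S (E ^ (-(1 / 4 : ℝ))) (z0 + ρ * h) t T ∨ Nr S' (E ^ (-(1 / 4 : ℝ))) (z0 + ρ * h) t T) →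
          ∃ l, Nv S (E ^ (-c0)) ρ t.v (V l) := by
  obtain ⟨C1, hC1, N, hN, key⟩ := cap_line
  have hC10 : 0 < C1 := by linarith
  set c0 : ℝ := 1 / (4 * C1) with hc0
  have hc0p : 0 < c0 := by positivity
  have hc04 : c0 ≤ 1 / 4 := by
    rw [hc0]; exact one_div_le_one_div_of_le (by norm_num) (by linarith)
  refine ⟨c0, hc0p, hc04, 16 * C1 + Real.log C1 / Real.log 2 / c0 + 4 / c0, ?_, N, hN, ?_⟩
  · have h1 : 0 ≤ Real.log C1 / Real.log 2 / c0 := by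
      have := Real.log_nonneg hC1
      have := Real.log_pos (by norm_num : (1:ℝ) < 2)
      positivity
    have h2 : 0 ≤ 4 / c0 := by positivity
    linarith
  intro K E a w1 w2 z0 ρ r S S' T hE h
  have hK := h.K1
  have hK0 : 0 < K := by linarith
  have h2K : 1 ≤ 2 * K := by linarith
  have h2K0 : 0 < 2 * K := by linarith
  set C : ℝ := 16 * C1 + Real.log C1 / Real.log 2 / c0 + 4 / c0 with hC
  have hlog2 : 0 < Real.log 2 := Real.log_pos (by norm_num)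
  have hlogC : 0 ≤ Real.log C1 := Real.log_nonneg hC1
  have hCpos : 0 < (2 * K) ^ C := Real.rpow_pos_of_pos h2K0 _
  have hE0 : 0 < E := hCpos.trans_le hE
  have hCc : 4 + Real.log C1 / Real.log 2 ≤ C * c0 := by
    have e : C * c0 = 16 * C1 * c0 + Real.log C1 / Real.log 2 + 4 := by
      rw [hC]; field_simp
    rw [e]
    have : 0 ≤ 16 * C1 * c0 := by positivity
    linarith
  have hC16 : 16 ≤ C := by
    have h1 : 0 ≤ Real.log C1 / Real.log 2 / c0 := by positivity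
    have h2 : 0 ≤ 4 / c0 := by positivity
    rw [hC]; nlinarith
  -- `E^c0`
  have hX : (2 * K) ^ 4 * C1 ≤ E ^ c0 := by
    have h1 : ((2 * K) ^ C) ^ c0 ≤ E ^ c0 := Real.rpow_le_rpow hCpos.le hE hc0p.le
    rw [← Real.rpow_mul h2K0.le] at h1
    refine le_trans ?_ h1
    refine le_trans ?_ (Real.rpow_le_rpow_of_exponent_le h2K hCc)
    rw [Real.rpow_add h2K0]
    have e4 : (2 * K) ^ (4 : ℝ) = (2 * K) ^ 4 := by
      rw [← Real.rpow_natCast]; norm_num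
    rw [e4]
    refine mul_le_mul_of_nonneg_left ?_ (by positivity)
    have e5 : C1 = (2 : ℝ) ^ (Real.log C1 / Real.log 2) := by
      rw [Real.rpow_def_of_pos (by norm_num), mul_div_cancel₀ _ hlog2.ne', Real.exp_log hC10]
    calc C1 = (2 : ℝ) ^ (Real.log C1 / Real.log 2) := e5
      _ ≤ (2 * K) ^ (Real.log C1 / Real.log 2) :=
        Real.rpow_le_rpow (by norm_num) (by linarith) (by positivity)
  have hY : (2 * K) ^ 4 ≤ E ^ (1 / 4 : ℝ) := by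
    have h1 : ((2 * K) ^ C) ^ (1 / 4 : ℝ) ≤ E ^ (1 / 4 : ℝ) :=
      Real.rpow_le_rpow hCpos.le hE (by norm_num)
    rw [← Real.rpow_mul h2K0.le] at h1
    refine le_trans ?_ h1
    have e4 : (2 * K) ^ (4 : ℝ) = (2 * K) ^ 4 := by
      rw [← Real.rpow_natCast]; norm_num
    rw [← e4]
    exact Real.rpow_le_rpow_of_exponent_le h2K (by linarith)
  have hK16 : 16 * K ^ 4 = (2 * K) ^ 4 := by ring
  have hK4 : K ≤ K ^ 4 ∧ K ^ 2 ≤ K ^ 4 ∧ K ^ 3 ≤ K ^ 4 ∧ 1 ≤ K ^ 4 :=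
    ⟨le_self_pow₀ hK (by norm_num), pow_le_pow_right₀ hK (by norm_num),
      pow_le_pow_right₀ hK (by norm_num), one_le_pow₀ hK⟩
  have hX1 : K ^ 4 ≤ E ^ c0 := by
    have : K ^ 4 ≤ (2 * K) ^ 4 * C1 := by
      rw [← hK16]; nlinarith [hK4.2.2.2]
    linarith
  have hX2 : C1 ≤ E ^ c0 := by
    have : C1 ≤ (2 * K) ^ 4 * C1 := by
      rw [← hK16]; nlinarith [hK4.2.2.2]
    linarith
  have hEc : 0 < E ^ c0 := Real.rpow_pos_of_pos hE0 _
  set θ : ℝ := E ^ (-c0) with hθd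
  have hθe : θ = (E ^ c0)⁻¹ := Real.rpow_neg hE0.le _
  have hθ0 : 0 < θ := Real.rpow_pos_of_pos hE0 _
  have hθi : θ⁻¹ = E ^ c0 := by rw [hθe, inv_inv]
  have mulθ : ∀ x, x ≤ E ^ c0 → x * θ ≤ 1 := by
    intro x hx
    rw [hθe, ← div_eq_mul_inv, div_le_one hEc]; exact hx
  have hE1 : 1 ≤ E := by
    have : (1 : ℝ) ≤ (2 * K) ^ C := Real.one_le_rpow h2K (by linarith)
    linarith
  have hq0 : 0 < E ^ (1 / 4 : ℝ) := Real.rpow_pos_of_pos hE0 _
  have hθC : θ ^ (-C1) = E ^ (1 / 4 : ℝ) := by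
    rw [hθd, ← Real.rpow_mul hE0.le]
    congr 1
    rw [hc0]; field_simp
  have hθC' : θ ^ C1 = E ^ (-(1 / 4 : ℝ)) := by
    rw [hθd, ← Real.rpow_mul hE0.le]
    congr 1
    rw [hc0]; field_simp
  -- `2 K² E^(1/4) ≤ E`
  have hbig : 2 * K ^ 2 * E ^ (1 / 4 : ℝ) ≤ E := by
    have h1 : 2 * K ^ 2 ≤ E ^ (1 / 4 : ℝ) := by
      refine le_trans ?_ hY
      rw [← hK16]; linarith [hK4.2.1, hK4.2.2.2]
    have h2 : E ^ (1 / 4 : ℝ) * E ^ (1 / 4 : ℝ) = E ^ (1 / 2 : ℝ) := by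
      rw [← Real.rpow_add hE0]; norm_num
    have h3 : E ^ (1 / 2 : ℝ) ≤ E := by
      calc E ^ (1 / 2 : ℝ) ≤ E ^ (1 : ℝ) := Real.rpow_le_rpow_of_exponent_le hE1 (by norm_num)
        _ = E := Real.rpow_one E
    nlinarith [mul_le_mul_of_nonneg_right h1 hq0.le]
  have haa : S.a + S'.a ≤ 2 * K * a := by
    have := h.dim.1.2; have := h.dim'.1.2; linarith
  have hkp : θ ^ (-C1) * (S.a + S'.a) ≤ kapP S z0 ρ T := by
    rw [hθC]
    have h1 : K * (E ^ (1 / 4 : ℝ) * (S.a + S'.a)) ≤ K * kapP S z0 ρ T := by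
      refine le_trans ?_ h.cur
      calc K * (E ^ (1 / 4 : ℝ) * (S.a + S'.a)) ≤ K * (E ^ (1 / 4 : ℝ) * (2 * K * a)) :=
            mul_le_mul_of_nonneg_left (mul_le_mul_of_nonneg_left haa hq0.le) hK0.le
        _ = (2 * K ^ 2 * E ^ (1 / 4 : ℝ)) * a := by ring
        _ ≤ E * a := mul_le_mul_of_nonneg_right hbig h.a0.le
    exact le_of_mul_le_mul_left h1 hK0
  have hEa : θ ^ (-C1) * (S.a + S'.a) ≤ E * a := by
    rw [hθC]
    calc E ^ (1 / 4 : ℝ) * (S.a + S'.a) ≤ E ^ (1 / 4 : ℝ) * (2 * K * a) :=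
          mul_le_mul_of_nonneg_left haa hq0.le
      _ ≤ (2 * K ^ 2 * E ^ (1 / 4 : ℝ)) * a := by
        have : K ≤ K ^ 2 := le_self_pow₀ hK (by norm_num)
        have h2 : 0 ≤ E ^ (1 / 4 : ℝ) * a := mul_nonneg hq0.le h.a0.le
        nlinarith
      _ ≤ E * a := mul_le_mul_of_nonneg_right hbig h.a0.le
  have hdet : DetP θ S z0 ρ T := by
    refine h.det.mono ?_
    rw [hθe]
    exact inv_anti₀ hK0 (hK4.1.trans hX1)
  have hcomp : CompC θ⁻¹ (K ^ 3) S S' := by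
    have hc := compC_al h
    have hw0 : 0 < S.w 0 := h.r0.trans_le (h.sh.r0_le.trans h.sh.a_le0)
    have hw2 : 0 < S.w 2 := hw0.trans_le h.sh.w0_le
    have hw1 : 0 < S.w 1 := hw2.trans_le h.sh.w_le
    have hw0' : 0 < S'.w 0 := h.r0.trans_le (h.sh'.r0_le.trans h.sh'.a_le0)
    have hw2' : 0 < S'.w 2 := hw0'.trans_le h.sh'.w0_le
    have hw1' : 0 < S'.w 1 := hw2'.trans_le h.sh'.w_le
    have hle : K ^ 2 ≤ θ⁻¹ := by rw [hθi]; exact hK4.2.1.trans hX1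
    have ha : 0 < S.a := h.r0.trans_le h.sh.r0_le
    have ha' : 0 < S'.a := h.r0.trans_le h.sh'.r0_le
    refine ⟨?_, ⟨hc.a.1.trans (mul_le_mul_of_nonneg_right hle ha'.le),
      hc.a.2.trans (mul_le_mul_of_nonneg_right hle ha.le)⟩, hc.g, hc.g'⟩
    intro i hi
    have hp : 0 ≤ S.w i ∧ 0 ≤ S'.w i := by
      fin_cases i
      · exact ⟨hw0.le, hw0'.le⟩
      · exact ⟨hw1.le, hw1'.le⟩
      · exact ⟨hw2.le, hw2'.le⟩
    exact ⟨(hc.w i hi).1.trans (mul_le_mul_of_nonneg_right hle hp.2),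
      (hc.w i hi).2.trans (mul_le_mul_of_nonneg_right hle hp.1)⟩
  obtain ⟨s, hs⟩ := key θ (K ^ 3) (E * a) S S' T z0 ρ r hθ0 (mulθ _ hX2)
    (one_le_pow₀ hK) (mulθ _ (hK4.2.2.1.trans hX1)) h.r0 h.ρ0 h.sh h.sh' hcomp h.mem h.mem' hkp
    hdet hEa h.far
  refine ⟨fun i => (s i - z0) / ρ, fun x hx0 hx1 hoff => ?_⟩
  have hρ := h.ρ0
  obtain ⟨V, hV⟩ := hs (z0 + ρ * x) (by nlinarith) (by nlinarith) fun i => by
    have h1 := hoff i
    have e : z0 + ρ * x - s i = ρ * (x - (s i - z0) / ρ) := by field_simp; ring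
    rw [e, abs_mul, abs_of_pos hρ, mul_comm θ ρ]
    exact mul_le_mul_of_nonneg_left h1 hρ.le
  refine ⟨V, fun t ht ht' hcl => hV t ht ht' ?_⟩
  rw [hθC']
  exact hcl

/-- **count**: the common lines of an aligned pair in one box (frame of either sheet) at a height
outside two intervals; `m` bounds the lines of a ball of velocities. -/
theorem cnt_al : ∃ c0 : ℝ, 0 < c0 ∧ c0 ≤ 1 / 4 ∧ ∃ C : ℝ, 1 ≤ C ∧ ∃ N : ℕ, 1 ≤ N ∧
    ∀ (K E a w1 w2 z0 ρ r : ℝ) (S S' : Plk4) (T : Ln4), (2 * K) ^ C ≤ E →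
    Al K E a w1 w2 z0 ρ r S S' T →
    ∃ s : Fin 2 → ℝ, ∀ h, 0 ≤ h → h ≤ 1 → (∀ i, E ^ (-c0) ≤ |h - s i|) →
      ∀ {ι : Type} (G : Finset ι) (L : ι → Ln4) (c m : ℝ), 0 ≤ c → c ≤ E ^ (-(1 / 4 : ℝ)) →
        0 ≤ m → (∀ y ∈ G, InP (L y) S z0 ρ) → (∀ y ∈ G, InP (L y) S' z0 ρ) →
        ((∀ y ∈ G, Nr S c (z0 + ρ * h) (L y) T) ∨ (∀ y ∈ G, Nr S' c (z0 + ρ * h) (L y) T)) →
        (∀ x ∈ G, ∀ G' ⊆ G, (∀ y ∈ G', Nr S (60 * K ^ 5 * (2 * c + 1 / E)) (z0 + ρ * h) (L y) (L x) ∧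
          Nv S (2 * E ^ (-c0)) ρ (L y).v (L x).v) → (G'.card : ℝ) ≤ m) →
        (G.card : ℝ) ≤ N * m := by
  classical
  obtain ⟨c0, h1, h2, C, h3, N, hN, key⟩ := cap_al
  refine ⟨c0, h1, h2, C, h3, N, hN, ?_⟩
  intro K E a w1 w2 z0 ρ r S S' T hE h
  obtain ⟨s, hs⟩ := key K E a w1 w2 z0 ρ r S S' T hE h
  refine ⟨s, fun x hx0 hx1 hoff ι G L c m hc hcE hm hG hG' hcl hball => ?_⟩
  obtain ⟨V, hV⟩ := hs x hx0 hx1 hoff
  have hK := h.K1
  have hE0 : 0 < E := (Real.rpow_pos_of_pos (by linarith) _).trans_le hE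
  have hρ := h.ρ0
  have hw0 : 0 < S.w 0 := h.r0.trans_le (h.sh.r0_le.trans h.sh.a_le0)
  have hw2 : 0 < S.w 2 := hw0.trans_le h.sh.w0_le
  have hw1 : 0 < S.w 1 := hw2.trans_le h.sh.w_le
  have hw0' : 0 < S'.w 0 := h.r0.trans_le (h.sh'.r0_le.trans h.sh'.a_le0)
  have hw2' : 0 < S'.w 2 := hw0'.trans_le h.sh'.w0_le
  have hw1' : 0 < S'.w 1 := hw2'.trans_le h.sh'.w_le
  have hz0 : z0 ≤ z0 + ρ * x := by nlinarith
  have hz1 : z0 + ρ * x ≤ z0 + ρ := by nlinarith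
  have hball' : ∀ y ∈ G, ∃ l, Nv S (E ^ (-c0)) ρ (L y).v (V l) := by
    intro y hy
    refine hV (L y) (hG y hy) (hG' y hy) ?_
    rcases hcl with k | k
    · exact Or.inl ((k y hy).mono hcE hw1.le hw2.le)
    · exact Or.inr ((k y hy).mono hcE hw1'.le hw2'.le)
  have hpair : ∀ y ∈ G, ∀ y' ∈ G,
      Nr S (60 * K ^ 5 * (2 * c + 1 / E)) (z0 + ρ * x) (L y) (L y') := by
    intro y hy y' hy'
    refine nr_al h hE0 (hG' y hy) (hG' y' hy') (by linarith) hz0 hz1 ?_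
    rcases hcl with k | k
    · left
      have := (k y hy).trans (k y' hy').symm
      rwa [two_mul]
    · right
      have := (k y hy).trans (k y' hy').symm
      rwa [two_mul]
  have hsub : G ⊆ (univ : Finset (Fin N)).biUnion fun l =>
      G.filter fun y => Nv S (E ^ (-c0)) ρ (L y).v (V l) := by
    intro y hy
    obtain ⟨l, hl⟩ := hball' y hy
    exact mem_biUnion.2 ⟨l, mem_univ _, mem_filter.2 ⟨hy, hl⟩⟩
  have hc1 : (G.card : ℝ) ≤ ∑ l : Fin N,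
      ((G.filter fun y => Nv S (E ^ (-c0)) ρ (L y).v (V l)).card : ℝ) := by
    exact_mod_cast (card_le_card hsub).trans card_biUnion_le
  refine hc1.trans ((sum_le_card_nsmul _ _ m fun l _ => ?_).trans (le_of_eq ?_))
  · by_cases hem : (G.filter fun y => Nv S (E ^ (-c0)) ρ (L y).v (V l)).Nonempty
    · obtain ⟨y0, hy0⟩ := hem
      obtain ⟨hy0G, hy0v⟩ := mem_filter.1 hy0
      refine hball y0 hy0G _ (filter_subset _ _) fun y hy => ?_
      obtain ⟨hyG, hyv⟩ := mem_filter.1 hy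
      refine ⟨hpair y hyG y0 hy0G, ?_⟩
      have := hyv.trans hρ.le hy0v.symm
      rwa [two_mul]
    · rw [not_nonempty_iff_eq_empty] at hem
      rw [hem]; simpa using hm
  · rw [nsmul_eq_mul, card_univ, Fintype.card_fin]

end Crest.Agent.R136.Hcp208
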