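import Crest.Agent.R136.Pl2C_860
import Crest.Agent.R136.Hcp2_208

/-!
# R136 (S0187), PLAN 2, alignment: from `S'` close to `S` to `S` close to `S'` (helper208)

Lemmas: `fq_near`, `exists_zero`, `seg`, `slopes`, `small_w2`, `lat`, `cmb_co`, `numfin`, `num`.
-/

set_option autoImplicit false
set_option linter.unusedVariables false

open Finset

namespace Crest.Agent.R136.Clb208

open Crest.Agent.R136.Sh605 Crest.Agent.R136.Pl2
open Crest.Agent.R136.K4 (Plk4)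
open Crest.Agent.R136.Tlt51 (Shp InP)
open Crest.Agent.R136.Deep51 (CloseC dt_exp)
open Crest.Agent.R136.KapP335 (kapP kapP_eq)
open Crest.Agent.R136.Tl102
open Crest.Agent.R136.Pl2W102 (Near)

/-- the function of the sheet in tangent coordinates: slope times `y` up to curvature terms -/
theorem fq_near {b0 b1 : V3} {G : QF} (N : NrmC b0 b1 G) {ζ y u v m : ℝ} (h0 : 0 ≤ ζ) (h1 : ζ ≤ 1)
    (hm : |u| + |v| ≤ m) :
    |Fq b0 b1 G ζ (unsh b0 y u v) - (b0 0 + ζ * b1 0) * y| ≤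
      kap b0 b1 G * (m + m ^ 2) + |y| * (|y| + 5 * m) := by
  obtain ⟨-, -, g1, g2, -, -, -⟩ := N.sh_le
  obtain ⟨m1, -⟩ := N.G_le
  have hb : b0 0 ≠ 0 := by have := N.b1_le.1; intro h; rw [h] at this; linarith
  have hκ := kap_nonneg b0 b1 G
  have k1 : |shB1 b0 b1 1| ≤ kap b0 b1 G := (le_max_left _ _).trans (le_max_left _ _)
  have k2 : |shB1 b0 b1 2| ≤ kap b0 b1 G := (le_max_right _ _).trans (le_max_left _ _)
  have k3 : |(shG b0 G).uu| ≤ kap b0 b1 G :=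
    (le_max_left _ _).trans ((le_max_left _ _).trans (le_max_right _ _))
  have k4 : |(shG b0 G).uv| ≤ kap b0 b1 G :=
    (le_max_right _ _).trans ((le_max_left _ _).trans (le_max_right _ _))
  have k5 : |(shG b0 G).vv| ≤ kap b0 b1 G := (le_max_right _ _).trans (le_max_right _ _)
  set κ := kap b0 b1 G with hκd
  have e : Fq b0 b1 G ζ (unsh b0 y u v) - (b0 0 + ζ * b1 0) * y =
      ζ * (shB1 b0 b1 1 * u + shB1 b0 b1 2 * v) +
      ((shG b0 G).uu * u ^ 2 + (shG b0 G).uv * (u * v) + (shG b0 G).vv * v ^ 2) +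
      y * (G.yy * y + (shG b0 G).yu * u + (shG b0 G).yv * v) := by
    rw [Fq_unsh hb]
    have e1 : shB1 b0 b1 0 = b1 0 := rfl
    have e2 : (shG b0 G).yy = G.yy := rfl
    simp only [Fq, dt, bz, QF.ev, shB0, Matrix.cons_val, e1, e2]
    ring
  rw [e]
  have hu := abs_nonneg u
  have hv := abs_nonneg v
  have hm0 : 0 ≤ m := by linarith
  have p1 : |ζ * (shB1 b0 b1 1 * u + shB1 b0 b1 2 * v)| ≤ κ * m := by
    have a1 := mul_abs_le k1 (le_refl |u|)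
    have a2 := mul_abs_le k2 (le_refl |v|)
    have a3 := abs_add_le (shB1 b0 b1 1 * u) (shB1 b0 b1 2 * v)
    rw [abs_mul, abs_of_nonneg h0]
    have a4 : ζ * |shB1 b0 b1 1 * u + shB1 b0 b1 2 * v| ≤ |shB1 b0 b1 1 * u + shB1 b0 b1 2 * v| :=
      mul_le_of_le_one_left (abs_nonneg _) h1
    have a5 : κ * |u| + κ * |v| ≤ κ * m := by
      rw [← mul_add]; exact mul_le_mul_of_nonneg_left hm hκ
    linarith
  have p2 : |(shG b0 G).uu * u ^ 2 + (shG b0 G).uv * (u * v) + (shG b0 G).vv * v ^ 2| ≤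
      κ * m ^ 2 := by
    have a1 := mul_abs_le k3 (le_of_eq (abs_pow u 2))
    have a2 := mul_abs_le k4 (le_of_eq (abs_mul u v))
    have a3 := mul_abs_le k5 (le_of_eq (abs_pow v 2))
    have a4 := abs_add_three ((shG b0 G).uu * u ^ 2) ((shG b0 G).uv * (u * v))
      ((shG b0 G).vv * v ^ 2)
    have a5 : |u| ^ 2 + |u| * |v| + |v| ^ 2 ≤ m ^ 2 := by
      have : (|u| + |v|) ^ 2 ≤ m ^ 2 := pow_le_pow_left₀ (by linarith) hm 2
      nlinarith [mul_nonneg hu hv]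
    have a6 := mul_le_mul_of_nonneg_left a5 hκ
    linarith
  have p3 : |y * (G.yy * y + (shG b0 G).yu * u + (shG b0 G).yv * v)| ≤ |y| * (|y| + 5 * m) := by
    rw [abs_mul]
    apply mul_le_mul_of_nonneg_left _ (abs_nonneg y)
    have a1 := mul_abs_le m1 (le_refl |y|)
    have a2 := mul_abs_le g1 (le_refl |u|)
    have a3 := mul_abs_le g2 (le_refl |v|)
    have a4 := abs_add_three (G.yy * y) ((shG b0 G).yu * u) ((shG b0 G).yv * v)
    linarith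
  have p4 := abs_add_three (ζ * (shB1 b0 b1 1 * u + shB1 b0 b1 2 * v))
    ((shG b0 G).uu * u ^ 2 + (shG b0 G).uv * (u * v) + (shG b0 G).vv * v ^ 2)
    (y * (G.yy * y + (shG b0 G).yu * u + (shG b0 G).yv * v))
  have : κ * (m + m ^ 2) = κ * m + κ * m ^ 2 := by ring
  linarith

/-- points of the surface over small lateral offsets -/
theorem exists_zero {b0 b1 : V3} {G : QF} (N : NrmC b0 b1 G) {ζ u v A w : ℝ} (h0 : 0 ≤ ζ)
    (h1 : ζ ≤ 1) (hw : 0 < w) (huv : |u| + |v| ≤ 1 / 100) (hA : |A| ≤ w / 1000) :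
    ∃ x0, |x0| ≤ 3 / 100 ∧ A + w * Fq b0 b1 G ζ ![x0, u, v] = 0 := by
  have hu := abs_nonneg u
  have hv := abs_nonneg v
  have e : ∀ x0, Fq b0 b1 G ζ ![x0, u, v] = Fq b0 b1 G ζ ![0, u, v] +
      x0 * (b0 0 + ζ * b1 0 + G.yy * x0 + G.yu * u + G.yv * v) := by
    intro x0
    simp only [Fq, dt, bz, QF.ev, Matrix.cons_val]
    ring
  have c1 : |b0 1 + ζ * b1 1| ≤ 1 := by
    have a := abs_le.1 N.b01
    have b := abs_le.1 N.b11
    rw [abs_le]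
    constructor <;> nlinarith [a.1, a.2, b.1, b.2]
  have c2 : |b0 2 + ζ * b1 2| ≤ 1 := by
    have a := abs_le.1 N.b02
    have b := abs_le.1 N.b12
    rw [abs_le]
    constructor <;> nlinarith [a.1, a.2, b.1, b.2]
  obtain ⟨-, -, -, m4, m5, m6⟩ := N.G_le
  have hF0 : |Fq b0 b1 G ζ ![0, u, v]| ≤ 101 / 10000 := by
    have e0 : Fq b0 b1 G ζ ![0, u, v] = (b0 1 + ζ * b1 1) * u + (b0 2 + ζ * b1 2) * v +
        (G.uu * u ^ 2 + G.uv * (u * v) + G.vv * v ^ 2) := by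
      simp only [Fq, dt, bz, QF.ev, Matrix.cons_val]
      ring
    rw [e0]
    have a1 := mul_abs_le c1 (le_refl |u|)
    have a2 := mul_abs_le c2 (le_refl |v|)
    have a3 := mul_abs_le m4 (le_of_eq (abs_pow u 2))
    have a4 := mul_abs_le m5 (le_of_eq (abs_mul u v))
    have a5 := mul_abs_le m6 (le_of_eq (abs_pow v 2))
    have a6 := abs_add_three (G.uu * u ^ 2) (G.uv * (u * v)) (G.vv * v ^ 2)
    have a7 := abs_add_three ((b0 1 + ζ * b1 1) * u) ((b0 2 + ζ * b1 2) * v)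
      (G.uu * u ^ 2 + G.uv * (u * v) + G.vv * v ^ 2)
    have a8 : |u| ^ 2 + |u| * |v| + |v| ^ 2 ≤ 1 / 10000 := by
      have : (|u| + |v|) ^ 2 ≤ (1 / 100) ^ 2 := pow_le_pow_left₀ (by linarith) huv 2
      nlinarith [mul_nonneg hu hv]
    linarith
  have hF := abs_le.1 hF0
  have hA' := abs_le.1 hA
  have u1 : |u| ≤ 1 := by linarith
  have v1 : |v| ≤ 1 := by linarith
  have s1 := N.st ζ h0 h1 (3 / 100) u v (by norm_num) u1 v1
  have s2 := N.st ζ h0 h1 (-(3 / 100)) u v (by norm_num) u1 v1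
  have hc : Continuous fun x0 : ℝ => A + w * Fq b0 b1 G ζ ![x0, u, v] := by
    simp only [Fq, dt, bz, QF.ev, Matrix.cons_val]
    fun_prop
  have hpos : 0 ≤ A + w * Fq b0 b1 G ζ ![3 / 100, u, v] := by
    rw [e]
    have : 39 / 10000 ≤ Fq b0 b1 G ζ ![0, u, v] +
      3 / 100 * (b0 0 + ζ * b1 0 + G.yy * (3 / 100) + G.yu * u + G.yv * v) := by
      linarith [hF.1, s1.1]
    nlinarith [hA'.1]
  have hneg : A + w * Fq b0 b1 G ζ ![-(3 / 100), u, v] ≤ 0 := by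
    rw [e]
    have : Fq b0 b1 G ζ ![0, u, v] +
      -(3 / 100) * (b0 0 + ζ * b1 0 + G.yy * -(3 / 100) + G.yu * u + G.yv * v) ≤ -(39 / 10000) := by
      linarith [hF.2, s2.1]
    nlinarith [hA'.2]
  obtain ⟨x0, hx, hx'⟩ := intermediate_value_Icc (by norm_num : (-(3 / 100) : ℝ) ≤ 3 / 100)
    hc.continuousOn ⟨hneg, hpos⟩
  exact ⟨x0, abs_le.2 ⟨hx.1, hx.2⟩, hx'⟩

theorem near_trans {K w x y : ℝ} (hK : 0 ≤ K) (h1 : x ≤ K * w) (h2 : w ≤ K * y) :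
    x ≤ K ^ 2 * y := by
  have := mul_le_mul_of_nonneg_left h2 hK
  nlinarith

/-- scalar product with a combination -/
theorem dt_cmb' (n : V3) (e : Fin 3 → V3) (w x : V3) :
    dt n (cmb (fr e w) x) = w 0 * x 0 * dt n (e 0) + w 1 * x 1 * dt n (e 1) +
      w 2 * x 2 * dt n (e 2) := by
  simp only [dt, cmb, fr, Pi.smul_apply, smul_eq_mul]; ring

set_option maxHeartbeats 1000000 in
/-- **the tangent plane of `S'` at its line is seen by the normal `f 0`**: two points of the surface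
of `S'` near the line -/
theorem seg {K Y w1 w2 z0 ρ r : ℝ} {S' : Plk4} {T : Ln4} {f g : Fin 3 → V3} (hK : 1 ≤ K)
    (hr : 0 < r) (hρ : 0 < ρ) (hS' : Shp S' z0 ρ r) (hT' : InP T S' z0 ρ) (hw1 : 0 < w1)
    (hw2 : 0 < w2) (n1 : Near K w1 (S'.w 1)) (n2 : Near K w2 (S'.w 2))
    (ha : 10 ^ 5 * K * S'.a ≤ Y) (hY : Y ≤ K * kapP S' z0 ρ T) (hY' : kapP S' z0 ρ T ≤ K * Y)
    (hf : Ortho f) (hg : FH K Y S' g z0 ρ) (t1 : |dt (f 0) (g 1)| * w1 ≤ K * Y)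
    (t2 : |dt (f 0) (g 2)| * w2 ≤ K * Y) {b0 b1 : V3} {G : QF}
    (hE : IsExp S'.q S'.e S'.w T z0 ρ b0 b1 G) {u v : ℝ} (huv : |u| + |v| ≤ 1 / 100) :
    |u * (S'.w 1 * dt (f 0) (S'.e 1) - b0 1 / b0 0 * (S'.w 0 * dt (f 0) (S'.e 0))) +
      v * (S'.w 2 * dt (f 0) (S'.e 2) - b0 2 / b0 0 * (S'.w 0 * dt (f 0) (S'.e 0)))| ≤
      4 * K ^ 3 * Y := by
  have hK0 : 0 < K := by linarith
  have hw0 : 0 < S'.w 0 := hr.trans_le (hS'.r0_le.trans hS'.a_le0)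
  have P := StP.of_shN hS' hw0
  have hwp1 : 0 < S'.w 1 := P.pos 1
  have hwp2 : 0 < S'.w 2 := P.pos 2
  have ha0 : 0 < S'.a := hr.trans_le hS'.r0_le
  have N := hE.nrmC P hρ.le (fun z h0 h1 => (hT' z h0 h1).1)
  have hkap := kapP_eq hw0.ne' hE
  have hκ13 := kap_le N
  have hκ0 := kap_nonneg b0 b1 G
  set κ := kap b0 b1 G with hκd
  have hY0 : 0 < Y := by
    have : 0 < 10 ^ 5 * K * S'.a := by positivity
    linarith
  -- thickness
  have ha1 : 10 ^ 5 * S'.a ≤ 13 * S'.w 0 := by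
    have h1 : K * (10 ^ 5 * S'.a) ≤ K * (13 * S'.w 0) := by
      have : K * kapP S' z0 ρ T ≤ K * (13 * S'.w 0) := by
        apply mul_le_mul_of_nonneg_left _ hK0.le
        rw [hkap]; nlinarith
      nlinarith
    exact le_of_mul_le_mul_left h1 hK0
  have ha2 : 10 ^ 5 * S'.a ≤ Y := by
    have : 10 ^ 5 * S'.a ≤ 10 ^ 5 * K * S'.a := by nlinarith
    linarith
  have hz0 : z0 ≤ z0 + ρ * 0 := by linarith
  have hz1 : z0 + ρ * 0 ≤ z0 + ρ := by linarith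
  set z := z0 + ρ * 0 with hz
  obtain ⟨hTk, hTa⟩ := hT' z hz0 hz1
  obtain ⟨x0, hx0, hx⟩ := exists_zero N le_rfl zero_le_one hw0 huv
    (A := S'.q z (T.pos z)) (by linarith)
  set X : V3 := ![x0, u, v] with hX
  set D := cmb (fr S'.e S'.w) X with hD
  have hq : S'.q z (T.pos z + D) = 0 := by rw [← hx]; exact hE 0 X
  have hu := abs_nonneg u
  have hv := abs_nonneg v
  have hXb : ∀ i, |X i| ≤ 1 / 8 := by
    intro i
    fin_cases i
    · exact hx0.trans (by norm_num)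
    · change |u| ≤ 1 / 8; linarith
    · change |v| ≤ 1 / 8; linarith
  have eD : ∀ n : V3, dt n (T.pos z + D - T.pos z) = dt n D := by
    intro n; simp only [dt, Pi.add_apply, Pi.sub_apply]; ring
  have hDe : ∀ i, dt (S'.e i) D = S'.w i * X i := fun i => dt_cmb_fr hS'.ortho S'.w X i
  have hDb : ∀ i, |dt (S'.e i) D| ≤ S'.w i * (1 / 8) := by
    intro i
    rw [hDe, abs_mul, abs_of_pos (P.pos i)]
    exact mul_le_mul_of_nonneg_left (hXb i) (P.pos i).le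
  have hbox : InK S'.e T (fun i => S'.w i / 8) z (T.pos z + D) := by
    intro i
    rw [eD]
    have := hDb i
    show _ ≤ S'.w i / 8
    linarith
  have hg0 := hg.pt T hT' z hz0 hz1 _ hbox (by rw [hq, abs_zero]; exact ha0.le)
  rw [eD] at hg0
  -- `⟨f 0, D⟩`
  have w01 : S'.w 0 ≤ S'.w 1 := hS'.w0_le.trans hS'.w_le
  have hg1 : |dt (g 1) D| ≤ S'.w 1 := by
    rw [dt_exp hS'.ortho (g 1) D]
    have a0 := mul_abs_le (Tl102.dt_le_one hg.ortho hS'.ortho 1 0) (hDb 0)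
    have a1 := mul_abs_le (Tl102.dt_le_one hg.ortho hS'.ortho 1 1) (hDb 1)
    have a2 := mul_abs_le (Tl102.dt_le_one hg.ortho hS'.ortho 1 2) (hDb 2)
    have a3 := abs_add_three (dt (g 1) (S'.e 0) * dt (S'.e 0) D)
      (dt (g 1) (S'.e 1) * dt (S'.e 1) D) (dt (g 1) (S'.e 2) * dt (S'.e 2) D)
    have := hS'.w_le
    linarith
  have hg2 : |dt (g 2) D| ≤ K * S'.w 2 := by
    rw [dt_exp hS'.ortho (g 2) D]
    have a0 := mul_abs_le (Tl102.dt_le_one hg.ortho hS'.ortho 2 0) (hDb 0)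
    have a1 : |dt (g 2) (S'.e 1) * dt (S'.e 1) D| ≤ K * S'.w 2 * (1 / 8) := by
      rw [abs_mul]
      have h1 := mul_le_mul_of_nonneg_left (hDb 1) (abs_nonneg (dt (g 2) (S'.e 1)))
      have h2 := hg.e21
      nlinarith
    have a2 := mul_abs_le (Tl102.dt_le_one hg.ortho hS'.ortho 2 2) (hDb 2)
    have a3 := abs_add_three (dt (g 2) (S'.e 0) * dt (S'.e 0) D)
      (dt (g 2) (S'.e 1) * dt (S'.e 1) D) (dt (g 2) (S'.e 2) * dt (S'.e 2) D)
    have h4 : S'.w 2 ≤ K * S'.w 2 := le_mul_of_one_le_left hwp2.le hK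
    have := hS'.w0_le
    linarith
  have hf0 : |dt (f 0) D| ≤ 3 * K ^ 3 * Y := by
    rw [dt_exp hg.ortho (f 0) D]
    have a0 := mul_abs_le (Tl102.dt_le_one hf hg.ortho 0 0) hg0
    have a1 : |dt (f 0) (g 1) * dt (g 1) D| ≤ K ^ 2 * Y := by
      rw [abs_mul]
      have h1 : |dt (g 1) D| ≤ K * w1 := hg1.trans n1.2
      have h2 := mul_le_mul_of_nonneg_left h1 (abs_nonneg (dt (f 0) (g 1)))
      have h3 := mul_le_mul_of_nonneg_left t1 hK0.le
      nlinarith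
    have a2 : |dt (f 0) (g 2) * dt (g 2) D| ≤ K ^ 3 * Y := by
      rw [abs_mul]
      have h1 : |dt (g 2) D| ≤ K * (K * w2) := hg2.trans (mul_le_mul_of_nonneg_left n2.2 hK0.le)
      have h2 := mul_le_mul_of_nonneg_left h1 (abs_nonneg (dt (f 0) (g 2)))
      have h3 := mul_le_mul_of_nonneg_left t2 (mul_pos hK0 hK0).le
      nlinarith
    have a3 := abs_add_three (dt (f 0) (g 0) * dt (g 0) D)
      (dt (f 0) (g 1) * dt (g 1) D) (dt (f 0) (g 2) * dt (g 2) D)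
    have k1 : K ≤ K ^ 3 := by
      have : K ^ 1 ≤ K ^ 3 := pow_le_pow_right₀ hK (by norm_num)
      simpa using this
    have k2 : K ^ 2 ≤ K ^ 3 := pow_le_pow_right₀ hK (by norm_num)
    have k3 := mul_le_mul_of_nonneg_right k1 hY0.le
    have k4 := mul_le_mul_of_nonneg_right k2 hY0.le
    linarith
  -- the tangent coordinate
  obtain ⟨g1, g2, -, -, -, -, -, s1, s2⟩ := N.b1_le
  set y := x0 + b0 1 / b0 0 * u + b0 2 / b0 0 * v with hy
  have hyX : unsh b0 y u v = X := by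
    rw [hX, hy]
    ext i
    fin_cases i
    · change x0 + b0 1 / b0 0 * u + b0 2 / b0 0 * v - b0 1 / b0 0 * u - b0 2 / b0 0 * v = x0
      ring
    · rfl
    · rfl
  have hy1 : |y| ≤ 1 / 20 := by
    have a1 := mul_abs_le s1 (le_refl |u|)
    have a2 := mul_abs_le s2 (le_refl |v|)
    have a3 := abs_add_three x0 (b0 1 / b0 0 * u) (b0 2 / b0 0 * v)
    linarith
  have hnear := fq_near N (y := y) le_rfl zero_le_one huv
  rw [hyX, zero_mul, add_zero] at hnear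
  have hy2 : S'.w 0 * |y| ≤ K * Y := by
    have e1 : S'.w 0 * (b0 0 * y) = -(S'.q z (T.pos z)) -
        S'.w 0 * (Fq b0 b1 G 0 X - b0 0 * y) := by
      have := hx
      linarith
    have h1 : S'.w 0 * (b0 0 * |y|) ≤ S'.a + S'.w 0 * (κ * (1 / 100 + (1 / 100) ^ 2) +
        |y| * (|y| + 5 * (1 / 100))) := by
      have h2 : |S'.w 0 * (b0 0 * y)| = S'.w 0 * (b0 0 * |y|) := by
        rw [abs_mul, abs_mul, abs_of_pos hw0, abs_of_pos (by linarith : 0 < b0 0)]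
      rw [← h2, e1]
      have h3 := abs_sub (-(S'.q z (T.pos z))) (S'.w 0 * (Fq b0 b1 G 0 X - b0 0 * y))
      rw [abs_neg, abs_mul, abs_of_pos hw0] at h3
      have h4 := mul_le_mul_of_nonneg_left hnear hw0.le
      linarith
    have hy0 := abs_nonneg y
    have h2 : S'.w 0 * (1 / 2 * |y|) ≤ S'.w 0 * (b0 0 * |y|) :=
      mul_le_mul_of_nonneg_left (mul_le_mul_of_nonneg_right g1 hy0) hw0.le
    have h3 : S'.w 0 * (|y| * (|y| + 5 * (1 / 100))) ≤ S'.w 0 * (|y| * (1 / 10)) := by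
      apply mul_le_mul_of_nonneg_left _ hw0.le
      apply mul_le_mul_of_nonneg_left _ hy0
      linarith
    have h4 : S'.w 0 * κ ≤ K * Y := by rw [← hkap]; exact hY'
    have h5 : Y ≤ K * Y := le_mul_of_one_le_left hY0.le hK
    nlinarith
  -- conclusion
  have e2 : u * (S'.w 1 * dt (f 0) (S'.e 1) - b0 1 / b0 0 * (S'.w 0 * dt (f 0) (S'.e 0))) +
      v * (S'.w 2 * dt (f 0) (S'.e 2) - b0 2 / b0 0 * (S'.w 0 * dt (f 0) (S'.e 0))) =
      dt (f 0) D - S'.w 0 * y * dt (f 0) (S'.e 0) := by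
    rw [hD, dt_cmb']
    have x0e : X 0 = x0 := rfl
    have x1e : X 1 = u := rfl
    have x2e : X 2 = v := rfl
    rw [x0e, x1e, x2e, hy]
    ring
  rw [e2]
  have a1 := abs_sub (dt (f 0) D) (S'.w 0 * y * dt (f 0) (S'.e 0))
  have a2 : |S'.w 0 * y * dt (f 0) (S'.e 0)| ≤ K * Y * 1 := by
    apply mul_abs_le _ (Tl102.dt_le_one hf hS'.ortho 0 0)
    rw [abs_mul, abs_of_pos hw0]; exact hy2
  have k1 : K ≤ K ^ 3 := by
    have : K ^ 1 ≤ K ^ 3 := pow_le_pow_right₀ hK (by norm_num)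
    simpa using this
  have k3 := mul_le_mul_of_nonneg_right k1 hY0.le
  linarith

/-- the slopes `d 1`, `d 2` of the tangent plane of `S'` over `f 0` -/
theorem slopes {K Y w1 w2 z0 ρ r : ℝ} {S' : Plk4} {T : Ln4} {f g : Fin 3 → V3} (hK : 1 ≤ K)
    (hr : 0 < r) (hρ : 0 < ρ) (hS' : Shp S' z0 ρ r) (hT' : InP T S' z0 ρ) (hw1 : 0 < w1)
    (hw2 : 0 < w2) (n1 : Near K w1 (S'.w 1)) (n2 : Near K w2 (S'.w 2))
    (ha : 10 ^ 5 * K * S'.a ≤ Y) (hY : Y ≤ K * kapP S' z0 ρ T) (hY' : kapP S' z0 ρ T ≤ K * Y)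
    (hf : Ortho f) (hg : FH K Y S' g z0 ρ) (t1 : |dt (f 0) (g 1)| * w1 ≤ K * Y)
    (t2 : |dt (f 0) (g 2)| * w2 ≤ K * Y) {b0 b1 : V3} {G : QF}
    (hE : IsExp S'.q S'.e S'.w T z0 ρ b0 b1 G) :
    |S'.w 1 * dt (f 0) (S'.e 1) - b0 1 / b0 0 * (S'.w 0 * dt (f 0) (S'.e 0))| ≤
      400 * K ^ 3 * Y ∧
    |S'.w 2 * dt (f 0) (S'.e 2) - b0 2 / b0 0 * (S'.w 0 * dt (f 0) (S'.e 0))| ≤
      400 * K ^ 3 * Y := by
  have h1 := seg hK hr hρ hS' hT' hw1 hw2 n1 n2 ha hY hY' hf hg t1 t2 hE (u := 1 / 100) (v := 0)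
    (by norm_num)
  have h2 := seg hK hr hρ hS' hT' hw1 hw2 n1 n2 ha hY hY' hf hg t1 t2 hE (u := 0) (v := 1 / 100)
    (by norm_num)
  rw [zero_mul, add_zero, abs_mul, abs_of_pos (by norm_num : (0 : ℝ) < 1 / 100)] at h1
  rw [zero_mul, zero_add, abs_mul, abs_of_pos (by norm_num : (0 : ℝ) < 1 / 100)] at h2
  constructor <;> linarith

/-- if `f 0` is nearly orthogonal to `S'.e 0` then `w 2` is small -/
theorem small_w2 {D : ℝ} {e' f : Fin 3 → V3} {w : V3} {s1 s2 : ℝ} (hf : Ortho f) (he' : Ortho e')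
    (hw0 : 0 < w 0) (h02 : w 0 ≤ w 2) (h21 : w 2 ≤ w 1) (hs1 : |s1| ≤ 2) (hs2 : |s2| ≤ 2)
    (d1 : |w 1 * dt (f 0) (e' 1) - s1 * (w 0 * dt (f 0) (e' 0))| ≤ D)
    (d2 : |w 2 * dt (f 0) (e' 2) - s2 * (w 0 * dt (f 0) (e' 0))| ≤ D)
    (h : |dt (f 0) (e' 0)| < 1 / 10) : w 2 ≤ 2 * D := by
  have hp := parseval hf he' 0
  set E0 := dt (f 0) (e' 0) with hE0
  set E1 := dt (f 0) (e' 1) with hE1
  set E2 := dt (f 0) (e' 2) with hE2
  have hw2 : 0 < w 2 := hw0.trans_le h02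
  have hw1 : 0 < w 1 := hw2.trans_le h21
  have h0 : E0 ^ 2 ≤ 1 / 100 := by
    rw [← sq_abs]
    have := abs_nonneg E0
    nlinarith
  -- `|s w0 E0| ≤ w0 / 5`
  have hs : ∀ s : ℝ, |s| ≤ 2 → |s * (w 0 * E0)| ≤ 1 / 5 * w 0 := by
    intro s hs
    have a : |w 0 * E0| ≤ w 0 * (1 / 10) := by
      rw [abs_mul, abs_of_pos hw0]; exact mul_le_mul_of_nonneg_left h.le hw0.le
    have := mul_abs_le hs a
    linarith
  have key : ∀ (wk Ek s : ℝ), 0 < wk → w 0 ≤ wk → |s| ≤ 2 → |wk * Ek - s * (w 0 * E0)| ≤ D →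
      7 / 10 ≤ |Ek| → wk ≤ 2 * D := by
    intro wk Ek s hk h0k hs' hd hE
    have a := hs s hs'
    have b : |wk * Ek| ≤ |wk * Ek - s * (w 0 * E0)| + |s * (w 0 * E0)| := by
      have := abs_add_le (wk * Ek - s * (w 0 * E0)) (s * (w 0 * E0))
      rwa [sub_add_cancel] at this
    rw [abs_mul, abs_of_pos hk] at b
    have c : wk * (7 / 10) ≤ wk * |Ek| := mul_le_mul_of_nonneg_left hE hk.le
    linarith
  rcases le_or_gt (7 / 10) |E2| with h2 | h2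
  · exact key _ _ _ hw2 h02 hs2 d2 h2
  · have h1 : 7 / 10 ≤ |E1| := by
      by_contra hc
      push Not at hc
      have b1 : E1 ^ 2 ≤ 49 / 100 := by
        rw [← sq_abs]
        have := abs_nonneg E1
        nlinarith
      have b2 : E2 ^ 2 ≤ 49 / 100 := by
        rw [← sq_abs]
        have := abs_nonneg E2
        nlinarith
      linarith
    exact h21.trans (key _ _ _ hw1 (h02.trans h21) hs1 d1 h1)

/-- lateral coordinates, in the frame of `S'`, of a point of the box of `S` -/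
theorem lat {K w1 w2 : ℝ} {S S' : Plk4} {D : V3} (hK : 1 ≤ K) (hw1 : 0 < w1) (hw2 : 0 < w2)
    (he : Ortho S.e) (he' : Ortho S'.e) (p0 : 0 < S.w 0) (p02 : S.w 0 ≤ S.w 2)
    (p21 : S.w 2 ≤ S.w 1) (q0 : 0 < S'.w 0) (q02 : S'.w 0 ≤ S'.w 2) (q21 : S'.w 2 ≤ S'.w 1)
    (m1 : Near K w1 (S.w 1)) (m2 : Near K w2 (S.w 2)) (n1 : Near K w1 (S'.w 1))
    (n2 : Near K w2 (S'.w 2)) (hang : angC S S' * w1 ≤ K * w2)
    (hD : ∀ i, |dt (S.e i) D| ≤ S.w i / 8) :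
    |dt (S'.e 1) D| ≤ K ^ 2 / 2 * S'.w 1 ∧ |dt (S'.e 2) D| ≤ K ^ 3 / 2 * S'.w 2 ∧
      |dt (S'.e 0) D| ≤ K ^ 3 / 2 * S'.w 2 := by
  have hK0 : 0 < K := by linarith
  have hw1S : S.w 1 ≤ K ^ 2 * S'.w 1 := near_trans hK0.le m1.2 n1.1
  have hw2S : S.w 2 ≤ K ^ 2 * S'.w 2 := near_trans hK0.le m2.2 n2.1
  have pw2 : 0 < S.w 2 := p0.trans_le p02
  have pw1 : 0 < S.w 1 := pw2.trans_le p21
  have qw2 : 0 < S'.w 2 := q0.trans_le q02
  have ang0 : 0 ≤ angC S S' := (abs_nonneg (dt (S.e 1) (S'.e 0))).trans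
    ((le_max_left _ _).trans (le_max_left _ _))
  have hA : angC S S' * S.w 1 ≤ K ^ 3 * S'.w 2 := by
    calc angC S S' * S.w 1 ≤ angC S S' * (K * w1) := mul_le_mul_of_nonneg_left m1.2 ang0
      _ = K * (angC S S' * w1) := by ring
      _ ≤ K * (K * w2) := mul_le_mul_of_nonneg_left hang hK0.le
      _ ≤ K * (K * (K * S'.w 2)) :=
        mul_le_mul_of_nonneg_left (mul_le_mul_of_nonneg_left n2.1 hK0.le) hK0.le
      _ = K ^ 3 * S'.w 2 := by ring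
  have ex : ∀ k, |dt (S'.e k) D| ≤ |dt (S'.e k) (S.e 0) * dt (S.e 0) D| +
      |dt (S'.e k) (S.e 1) * dt (S.e 1) D| + |dt (S'.e k) (S.e 2) * dt (S.e 2) D| := by
    intro k
    rw [dt_exp he (S'.e k) D]
    exact abs_add_three _ _ _
  have one : ∀ k i, |dt (S'.e k) (S.e i) * dt (S.e i) D| ≤ 1 * (S.w i / 8) := fun k i =>
    mul_abs_le (Tl102.dt_le_one he' he k i) (hD i)
  have an : ∀ k, |dt (S'.e k) (S.e 1)| ≤ angC S S' →
      |dt (S'.e k) (S.e 1) * dt (S.e 1) D| ≤ K ^ 3 * S'.w 2 / 8 := by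
    intro k hk
    have := mul_abs_le hk (hD 1)
    linarith
  have a0 : |dt (S'.e 0) (S.e 1)| ≤ angC S S' := by
    rw [dt_comm]; exact (le_max_left _ _).trans (le_max_left _ _)
  have a2 : |dt (S'.e 2) (S.e 1)| ≤ angC S S' := by
    rw [dt_comm]; exact (le_max_right _ _).trans (le_max_left _ _)
  have k23 : K ^ 2 ≤ K ^ 3 := pow_le_pow_right₀ hK (by norm_num)
  have hw2S' : S.w 2 ≤ K ^ 3 * S'.w 2 := hw2S.trans (mul_le_mul_of_nonneg_right k23 qw2.le)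
  refine ⟨?_, ?_, ?_⟩
  · have := ex 1
    have := one 1 0
    have := one 1 1
    have := one 1 2
    linarith
  · have := ex 2
    have := one 2 0
    have := an 2 a2
    have := one 2 2
    linarith
  · have := ex 0
    have := one 0 0
    have := an 0 a0
    have := one 0 2
    linarith

/-- the point of the box as a combination of the frame of `S'` -/
theorem cmb_co {e : Fin 3 → V3} (he : Ortho e) {w : V3} (hw : ∀ i, 0 < w i) (D : V3) :
    cmb (fr e w) (fun k => dt (e k) D / w k) = D := by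
  ext j
  rw [he.expand D j]
  have h0 := (hw 0).ne'
  have h1 := (hw 1).ne'
  have h2 := (hw 2).ne'
  simp only [cmb, fr, Pi.smul_apply, smul_eq_mul]
  field_simp

/-- numerical end -/
theorem numfin {K m Y y w κ F q qT : ℝ} (hK : 1 ≤ K) (hmd : m = K ^ 3) (hY : 0 ≤ Y) (hw : 0 < w)
    (hA : w * |y| ≤ 10000 * m ^ 2 * Y) (hy1 : |y| ≤ 130000 * K * m ^ 2) (hκ : w * κ ≤ K * Y)
    (hF : |F| ≤ 2 * |y| + (κ * (m + m ^ 2) + |y| * (|y| + 5 * m))) (hqT : |qT| ≤ Y)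
    (hq : q = qT + w * F) : |q| ≤ 10 ^ 10 * K ^ 13 * Y := by
  have hm1 : 1 ≤ m := by rw [hmd]; exact one_le_pow₀ hK
  have hm2 : m ≤ m ^ 2 := by nlinarith
  have hm3 : m ^ 2 ≤ m ^ 4 := pow_le_pow_right₀ hm1 (by norm_num)
  have hy0 := abs_nonneg y
  have hm0 : 0 ≤ m := by linarith
  have hK0 : 0 ≤ K := by linarith
  have c1 : w * |F| ≤ 2 * (w * |y|) + (w * κ) * (m + m ^ 2) + (w * |y|) * (|y| + 5 * m) := by
    have := mul_le_mul_of_nonneg_left hF hw.le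
    linarith
  have c2 : (w * κ) * (m + m ^ 2) ≤ 2 * (K * m ^ 2 * Y) := by
    have h1 : (w * κ) * (m + m ^ 2) ≤ (K * Y) * (m + m ^ 2) :=
      mul_le_mul_of_nonneg_right hκ (by positivity)
    have h2 : (K * Y) * (m + m ^ 2) ≤ (K * Y) * (2 * m ^ 2) :=
      mul_le_mul_of_nonneg_left (by linarith) (by positivity)
    linarith
  have c3 : (w * |y|) * (|y| + 5 * m) ≤ (10000 * m ^ 2 * Y) * (130005 * K * m ^ 2) := by
    apply mul_le_mul hA _ (by positivity) (by positivity)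
    have h1 : m ^ 2 ≤ K * m ^ 2 := le_mul_of_one_le_left (by positivity) hK
    linarith
  have t0 : Y ≤ K * m ^ 4 * Y := by
    apply le_mul_of_one_le_left hY
    have : (1:ℝ) ≤ m ^ 4 := one_le_pow₀ hm1
    nlinarith
  have t1 : K * m ^ 2 * Y ≤ K * m ^ 4 * Y :=
    mul_le_mul_of_nonneg_right (mul_le_mul_of_nonneg_left hm3 hK0) hY
  have t2 : m ^ 2 * Y ≤ K * m ^ 2 * Y := by
    apply mul_le_mul_of_nonneg_right _ hY
    exact le_mul_of_one_le_left (by positivity) hK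
  have e1 : K * m ^ 4 = K ^ 13 := by rw [hmd]; ring
  have c4 : |q| ≤ |qT| + w * |F| := by
    rw [hq]
    have := abs_add_le qT (w * F)
    rwa [abs_mul, abs_of_pos hw] at this
  have c5 : (10000 * m ^ 2 * Y) * (130005 * K * m ^ 2) = 1300050000 * (K * m ^ 4 * Y) := by ring
  rw [← e1]
  have t3 : 0 ≤ K * m ^ 4 * Y := by positivity
  linarith

theorem num (K : ℝ) (hK : 1 ≤ K) : 10 ^ 10 * K ^ 13 ≤ (2 * K) ^ (40 : ℝ) := by
  have e : (2 * K) ^ (40 : ℝ) = (2 * K) ^ (40 : ℕ) := by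
    rw [← Real.rpow_natCast]; norm_num
  rw [e, mul_pow]
  have h : K ^ 13 ≤ K ^ 40 := pow_le_pow_right₀ hK (by norm_num)
  have hp : 0 ≤ K ^ 13 := by positivity
  nlinarith

/-- bound of the tangent coordinate, case `f 0` transversal -/
theorem ybd1 {K m Y w0 y E0 X1 X2 δ1 δ2 fD : ℝ} (hK : 1 ≤ K) (hKm : K ≤ m) (hY : 0 ≤ Y)
    (hw : 0 < w0) (hm : |X1| + |X2| ≤ m) (d1 : |δ1| ≤ 400 * m * Y) (d2 : |δ2| ≤ 400 * m * Y)
    (hf : |fD| ≤ K * Y) (e1 : fD = w0 * y * E0 + (X1 * δ1 + X2 * δ2)) (h : 1 / 10 ≤ |E0|) :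
    w0 * |y| ≤ 10000 * m ^ 2 * Y := by
  have hm0 : 0 ≤ m := by linarith
  have a1 : |X1 * δ1 + X2 * δ2| ≤ 400 * (m ^ 2 * Y) := by
    have b1 : |X1 * δ1| ≤ |X1| * (400 * m * Y) := mul_abs_le le_rfl d1
    have b2 : |X2 * δ2| ≤ |X2| * (400 * m * Y) := mul_abs_le le_rfl d2
    have b3 := abs_add_le (X1 * δ1) (X2 * δ2)
    have b4 : (|X1| + |X2|) * (400 * m * Y) ≤ m * (400 * m * Y) :=
      mul_le_mul_of_nonneg_right hm (by positivity)
    have b5 : m * (400 * m * Y) = 400 * (m ^ 2 * Y) := by ring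
    linarith
  have a2 : |w0 * y * E0| ≤ K * Y + 400 * (m ^ 2 * Y) := by
    have e2 : w0 * y * E0 = fD - (X1 * δ1 + X2 * δ2) := by rw [e1]; ring
    rw [e2]
    have := abs_sub fD (X1 * δ1 + X2 * δ2)
    linarith
  rw [abs_mul, abs_mul, abs_of_pos hw] at a2
  have a3 : w0 * |y| * (1 / 10) ≤ w0 * |y| * |E0| := mul_le_mul_of_nonneg_left h (by positivity)
  have a4 : K * Y ≤ m ^ 2 * Y := by
    apply mul_le_mul_of_nonneg_right _ hY
    nlinarith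
  have a5 : 0 ≤ m ^ 2 * Y := by positivity
  linarith

/-- bound of the tangent coordinate, the other case -/
theorem ybd2 {m Y w0 w2 X0 X1 X2 s1 s2 : ℝ} (hm0 : 0 ≤ m) (hY : 0 ≤ Y) (hw : 0 < w0)
    (h02 : w0 ≤ w2) (hm : |X1| + |X2| ≤ m) (hs1 : |s1| ≤ 2) (hs2 : |s2| ≤ 2)
    (hX0 : w0 * |X0| ≤ m / 2 * w2) (hs : w2 ≤ 2 * (400 * m * Y)) :
    w0 * |X0 + s1 * X1 + s2 * X2| ≤ 10000 * m ^ 2 * Y := by
  have a1 : w0 * |X0 + s1 * X1 + s2 * X2| ≤ w0 * |X0| + w0 * (2 * m) := by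
    have b1 := mul_abs_le hs1 (le_refl |X1|)
    have b2 := mul_abs_le hs2 (le_refl |X2|)
    have b3 := abs_add_three X0 (s1 * X1) (s2 * X2)
    rw [← mul_add]
    apply mul_le_mul_of_nonneg_left _ hw.le
    linarith
  have a2 : w0 * (2 * m) ≤ w2 * (2 * m) := mul_le_mul_of_nonneg_right h02 (by positivity)
  have a3 : w2 * (5 / 2 * m) ≤ 2 * (400 * m * Y) * (5 / 2 * m) :=
    mul_le_mul_of_nonneg_right hs (by positivity)
  have a4 : 0 ≤ m ^ 2 * Y := by positivity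
  have a5 : 2 * (400 * m * Y) * (5 / 2 * m) = 2000 * (m ^ 2 * Y) := by ring
  have a6 : m / 2 * w2 + w2 * (2 * m) = w2 * (5 / 2 * m) := by ring
  linarith

end Crest.Agent.R136.Clb208
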