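import Crest.Agent.R136.Clb0_208

/-!
# R136 (S0187), PLAN 2, alignment: from `S'` close to `S` to `S` close to `S'` (helper208)

`close_back` : balanced curvatures, `S'` close to `S` up to `K kp S` and aligned hull frames give
`S` close to `S'` up to `(2K)^C kp S`.
-/

set_option autoImplicit false
set_option linter.unusedVariables false

open Finset

namespace Crest.Agent.R136.Clb208

open Crest.Agent.R136.Sh605 Crest.Agent.R136.Pl2
open Crest.Agent.R136.K4 (Plk4)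
open Crest.Agent.R136.Tlt51 (Shp InP)
open Crest.Agent.R136.Deep51 (CloseC dt_exp)
open Crest.Agent.R136.KapP335 (kapP kapP_eq)
open Crest.Agent.R136.Tl102
open Crest.Agent.R136.Pl2W102 (Near)

set_option maxHeartbeats 1000000 in
/-- **from `S'` close to `S` to `S` close to `S'`** (balanced curvatures) -/
theorem close_back : ∃ C : ℝ, 0 ≤ C ∧ ∀ (K a w1 w2 z0 ρ r : ℝ) (S S' : Plk4) (T : Ln4),
    1 ≤ K → 0 < r → 0 < ρ → Shp S z0 ρ r → Shp S' z0 ρ r → InP T S z0 ρ → InP T S' z0 ρ →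
    Near K w1 (S.w 1) → Near K w2 (S.w 2) → Near K w1 (S'.w 1) → Near K w2 (S'.w 2) →
    10 ^ 5 * K * S'.a ≤ kp S z0 ρ T → kp S' z0 ρ T ≤ K * kp S z0 ρ T →
    kp S z0 ρ T ≤ K * kp S' z0 ρ T → Al1 K S S' T a w1 w2 z0 ρ →
    CloseC S.e S.w S.q S.a S'.q ((2 * K) ^ C * kp S z0 ρ T) T z0 ρ := by
  refine ⟨40, by norm_num, ?_⟩
  intro K a w1 w2 z0 ρ r S S' T hK hr hρ hS hS' hT hT' m1 m2 n1 n2 ha hY' hY hA
  obtain ⟨hang, -, f, g, hf, -, hg, t1, t2, -, -⟩ := hA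
  have hK0 : 0 < K := by linarith
  have p0 : 0 < S.w 0 := hr.trans_le (hS.r0_le.trans hS.a_le0)
  have q0 : 0 < S'.w 0 := hr.trans_le (hS'.r0_le.trans hS'.a_le0)
  have P := StP.of_shN hS p0
  have Q := StP.of_shN hS' q0
  have qw1 : 0 < S'.w 1 := Q.pos 1
  have qw2 : 0 < S'.w 2 := Q.pos 2
  have hw1 : 0 < w1 := by
    have h := n1.2
    by_contra hc
    push Not at hc
    nlinarith
  have hw2 : 0 < w2 := by
    have h := n2.2
    by_contra hc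
    push Not at hc
    nlinarith
  obtain ⟨b0, b1, G, hE⟩ := exists_isExp hS'.isQ S'.e q0.ne' T z0 ρ
  have N := hE.nrmC Q hρ.le (fun z h0 h1 => (hT' z h0 h1).1)
  have hkap : kp S' z0 ρ T = S'.w 0 * kap b0 b1 G := kapP_eq q0.ne' hE
  have hκ13 := kap_le N
  have hκ0 := kap_nonneg b0 b1 G
  obtain ⟨d1, d2⟩ := slopes hK hr hρ hS' hT' hw1 hw2 n1 n2 ha hY hY' hf.ortho hg t1 t2 hE
  set Y := kp S z0 ρ T with hYd
  have ha0 : 0 < S'.a := hr.trans_le hS'.r0_le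
  have hY0 : 0 < Y := by
    have : 0 < 10 ^ 5 * K * S'.a := by positivity
    linarith
  have haY : S'.a ≤ Y := by
    have : S'.a ≤ 10 ^ 5 * K * S'.a := by nlinarith
    linarith
  have hYw : Y ≤ 13 * K * S'.w 0 := by
    rw [hkap] at hY
    have : K * (S'.w 0 * kap b0 b1 G) ≤ K * (S'.w 0 * 13) :=
      mul_le_mul_of_nonneg_left (mul_le_mul_of_nonneg_left hκ13 q0.le) hK0.le
    linarith
  obtain ⟨g1, g2, -, -, -, -, -, s1, s2⟩ := N.b1_le
  intro z hz0 hz1 x hx hxa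
  set D : V3 := x - T.pos z with hD
  have hDb : ∀ i, |dt (S.e i) D| ≤ S.w i / 8 := hx
  obtain ⟨l1, l2, l0⟩ := lat hK hw1 hw2 hS.ortho hS'.ortho p0 hS.w0_le hS.w_le q0 hS'.w0_le
    hS'.w_le m1 m2 n1 n2 hang hDb
  have hf0 : |dt (f 0) D| ≤ K * Y := hf.pt T hT z hz0 hz1 x hx hxa
  set X : V3 := fun k => dt (S'.e k) D / S'.w k with hX
  have hXD : cmb (fr S'.e S'.w) X = D := cmb_co hS'.ortho Q.pos D
  have hX1 : |X 1| ≤ K ^ 2 / 2 := by
    change |dt (S'.e 1) D / S'.w 1| ≤ _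
    rw [abs_div, abs_of_pos qw1, div_le_iff₀ qw1]; exact l1
  have hX2 : |X 2| ≤ K ^ 3 / 2 := by
    change |dt (S'.e 2) D / S'.w 2| ≤ _
    rw [abs_div, abs_of_pos qw2, div_le_iff₀ qw2]; exact l2
  have hX0 : S'.w 0 * |X 0| ≤ K ^ 3 / 2 * S'.w 2 := by
    change S'.w 0 * |dt (S'.e 0) D / S'.w 0| ≤ _
    rw [abs_div, abs_of_pos q0, mul_div_cancel₀ _ q0.ne']; exact l0
  have k23 : K ^ 2 ≤ K ^ 3 := pow_le_pow_right₀ hK (by norm_num)
  have k13 : K ≤ K ^ 3 := by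
    have : K ^ 1 ≤ K ^ 3 := pow_le_pow_right₀ hK (by norm_num)
    simpa using this
  have k03 : 1 ≤ K ^ 3 := one_le_pow₀ hK
  have k36 : K ^ 3 ≤ K ^ 6 := pow_le_pow_right₀ hK (by norm_num)
  have hm : |X 1| + |X 2| ≤ K ^ 3 := by linarith
  set m := K ^ 3 with hmd
  have hm0 : 0 < m := by linarith
  set y := X 0 + b0 1 / b0 0 * X 1 + b0 2 / b0 0 * X 2 with hy
  have hyX : unsh b0 y (X 1) (X 2) = X := by
    rw [hy]
    ext i
    fin_cases i
    · change X 0 + b0 1 / b0 0 * X 1 + b0 2 / b0 0 * X 2 - b0 1 / b0 0 * X 1 -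
        b0 2 / b0 0 * X 2 = X 0
      ring
    · rfl
    · rfl
  set δ1 := S'.w 1 * dt (f 0) (S'.e 1) - b0 1 / b0 0 * (S'.w 0 * dt (f 0) (S'.e 0)) with hδ1
  set δ2 := S'.w 2 * dt (f 0) (S'.e 2) - b0 2 / b0 0 * (S'.w 0 * dt (f 0) (S'.e 0)) with hδ2
  have e1 : dt (f 0) D = S'.w 0 * y * dt (f 0) (S'.e 0) + (X 1 * δ1 + X 2 * δ2) := by
    conv_lhs => rw [← hXD]
    rw [dt_cmb', hδ1, hδ2, hy]
    ring
  -- the bound of the tangent coordinate
  have hyb : S'.w 0 * |y| ≤ 10000 * m ^ 2 * Y := by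
    rcases le_or_gt (1 / 10) |dt (f 0) (S'.e 0)| with h | h
    · exact ybd1 hK k13 hY0.le q0 hm d1 d2 hf0 e1 h
    · exact ybd2 hm0.le hY0.le q0 hS'.w0_le hm s1 s2 hX0
        (small_w2 hf.ortho hS'.ortho q0 hS'.w0_le hS'.w_le s1 s2 d1 d2 h)
  -- the value of the function
  set ζ := (z - z0) / ρ with hζ
  have hζz : z0 + ρ * ζ = z := by rw [hζ]; field_simp; ring
  have hζ0 : 0 ≤ ζ := div_nonneg (by linarith) hρ.le
  have hζ1 : ζ ≤ 1 := by rw [hζ, div_le_one hρ]; linarith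
  have hq := hE ζ X
  rw [hζz, hXD] at hq
  have hxT : T.pos z + D = x := by rw [hD]; abel
  rw [hxT] at hq
  have hnear := fq_near N (y := y) hζ0 hζ1 hm
  rw [hyX] at hnear
  have hsl := N.st ζ hζ0 hζ1 0 0 0 (by norm_num) (by norm_num) (by norm_num)
  simp only [mul_zero, add_zero] at hsl
  obtain ⟨hsl1, hsl2⟩ := hsl
  have hF : |Fq b0 b1 G ζ X| ≤ 2 * |y| + (kap b0 b1 G * (m + m ^ 2) + |y| * (|y| + 5 * m)) := by
    have c1 : |(b0 0 + ζ * b1 0) * y| ≤ 2 * |y| := by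
      rw [abs_mul, abs_of_pos (by linarith)]
      exact mul_le_mul_of_nonneg_right hsl2 (abs_nonneg y)
    have c2 := abs_add_le (Fq b0 b1 G ζ X - (b0 0 + ζ * b1 0) * y) ((b0 0 + ζ * b1 0) * y)
    rw [sub_add_cancel] at c2
    linarith
  have hqT : |S'.q z (T.pos z)| ≤ Y := (hT' z hz0 hz1).2.trans haY
  have hy1 : |y| ≤ 130000 * K * m ^ 2 := by
    have c1 : S'.w 0 * |y| ≤ S'.w 0 * (130000 * K * m ^ 2) := by
      have c2 := mul_le_mul_of_nonneg_left hYw (by positivity : 0 ≤ 10000 * m ^ 2)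
      have c3 : 10000 * m ^ 2 * (13 * K * S'.w 0) = S'.w 0 * (130000 * K * m ^ 2) := by ring
      linarith
    exact le_of_mul_le_mul_left c1 q0
  have hkY : S'.w 0 * kap b0 b1 G ≤ K * Y := by rw [← hkap]; exact hY'
  have hfin := numfin hK hmd hY0.le q0 hyb hy1 hkY hF hqT hq
  exact hfin.trans (mul_le_mul_of_nonneg_right (num K hK) hY0.le)

end Crest.Agent.R136.Clb208
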