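import Mathlib

/-!
# R136 (S0187), PLAN 2, share of a pair of sheets: counting with two velocity clusters (helper816)

`cluster_count`: the common lines of two sheets have a position `s` and a velocity `t` along the
free direction; every line `T` has a length `l T` such that the lines within `l T` of it have
velocities in at most two clusters of size `K l T`, and a plank of length `l T` around `T` has at
most `Q (l T)^(1+q)` lines.  Then there are at most `C (I + 1) Q` lines.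
-/

set_option autoImplicit false
set_option linter.unusedVariables false

open Finset

namespace Crest.Agent.R136.Clc816

open Classical in
/-- one cell -/
theorem cell_count {ι : Type*} {Z Y : Finset ι} {s t tst l : ι → ℝ} {K q Q lam : ℝ}
    (hlam : 0 < lam) (hK : 1 ≤ K) (hq : 0 ≤ q) (hQ : 0 ≤ Q) (hYZ : Y ⊆ Z)
    (hl : ∀ T ∈ Y, lam ≤ l T ∧ l T ≤ 2 * lam)
    (hs : ∀ T ∈ Y, ∀ T' ∈ Y, |s T' - s T| ≤ lam)
    (hcl : ∀ T ∈ Z, ∀ T' ∈ Z, |s T' - s T| ≤ l T →
      |t T' - t T| ≤ K * l T ∨ |t T' - t T - tst T| ≤ K * l T)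
    (hpl : ∀ T ∈ Z, ((Z.filter fun T' => |s T' - s T| ≤ 2 * l T ∧
      |t T' - t T| ≤ 4 * K * l T).card : ℝ) ≤ Q * (l T) ^ (1 + q)) :
    (Y.card : ℝ) ≤ 2 * (Q * (2 * lam) ^ (1 + q)) := by
  have hB : 0 ≤ Q * (2 * lam) ^ (1 + q) := by positivity
  have hone : ∀ T ∈ Y, Q * (l T) ^ (1 + q) ≤ Q * (2 * lam) ^ (1 + q) := by
    intro T hT
    have h1 := hl T hT
    exact mul_le_mul_of_nonneg_left (Real.rpow_le_rpow (by linarith) h1.2 (by linarith)) hQ
  rcases Y.eq_empty_or_nonempty with hE | ⟨T, hT⟩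
  · rw [hE]; simp; exact hB
  set Y1 := Y.filter fun T' => |t T' - t T| ≤ K * l T with hY1
  set Y2 := Y.filter fun T' => |t T' - t T - tst T| ≤ K * l T with hY2
  have hlT := hl T hT
  have hcov : Y ⊆ Y1 ∪ Y2 := by
    intro T' hT'
    rw [Finset.mem_union]
    rcases hcl T (hYZ hT) T' (hYZ hT') ((hs T hT T' hT').trans hlT.1) with h | h
    · exact Or.inl (Finset.mem_filter.2 ⟨hT', h⟩)
    · exact Or.inr (Finset.mem_filter.2 ⟨hT', h⟩)
  have h1 : (Y1.card : ℝ) ≤ Q * (2 * lam) ^ (1 + q) := by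
    refine le_trans ?_ ((hpl T (hYZ hT)).trans (hone T hT))
    have : Y1 ⊆ Z.filter fun T' => |s T' - s T| ≤ 2 * l T ∧ |t T' - t T| ≤ 4 * K * l T := by
      intro T' hT'
      rw [hY1, Finset.mem_filter] at hT'
      refine Finset.mem_filter.2 ⟨hYZ hT'.1, (hs T hT T' hT'.1).trans (by linarith), ?_⟩
      refine hT'.2.trans ?_
      have : 0 ≤ K * l T := by
        have := hlam.trans_le hlT.1
        positivity
      linarith
    exact_mod_cast Finset.card_le_card this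
  have h2 : (Y2.card : ℝ) ≤ Q * (2 * lam) ^ (1 + q) := by
    rcases Y2.eq_empty_or_nonempty with hE | ⟨T2, hT2⟩
    · rw [hE]; simp; exact hB
    have hT2' := hT2
    rw [hY2, Finset.mem_filter] at hT2'
    have hlT2 := hl T2 hT2'.1
    refine le_trans ?_ ((hpl T2 (hYZ hT2'.1)).trans (hone T2 hT2'.1))
    have : Y2 ⊆ Z.filter fun T' => |s T' - s T2| ≤ 2 * l T2 ∧ |t T' - t T2| ≤ 4 * K * l T2 := by
      intro T' hT'
      rw [hY2, Finset.mem_filter] at hT'
      refine Finset.mem_filter.2 ⟨hYZ hT'.1, (hs T2 hT2'.1 T' hT'.1).trans (by linarith), ?_⟩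
      have e : t T' - t T2 = (t T' - t T - tst T) - (t T2 - t T - tst T) := by ring
      rw [e]
      refine (abs_sub _ _).trans ?_
      have a1 := hT'.2
      have a2 := hT2'.2
      have a3 : K * l T ≤ K * (2 * lam) := mul_le_mul_of_nonneg_left hlT.2 (by linarith)
      have a4 : K * lam ≤ K * l T2 := mul_le_mul_of_nonneg_left hlT2.1 (by linarith)
      nlinarith
    exact_mod_cast Finset.card_le_card this
  have h3 : (Y.card : ℝ) ≤ (Y1.card : ℝ) + Y2.card := by
    have := (Finset.card_le_card hcov).trans (Finset.card_union_le Y1 Y2)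
    exact_mod_cast this
  linarith

/-- dyadic position of a number in `[2^-I, 1]` -/
theorem dyad {x : ℝ} {I : ℕ} (h0 : (2:ℝ)⁻¹ ^ I ≤ x) (h1 : x ≤ 1) :
    ∃ i : ℕ, i ≤ I ∧ (2:ℝ)⁻¹ ^ (i + 1) ≤ x ∧ x ≤ 2 * (2:ℝ)⁻¹ ^ (i + 1) := by
  induction I with
  | zero =>
    refine ⟨0, le_rfl, ?_, ?_⟩
    · norm_num at h0 ⊢; linarith
    · norm_num at h0 ⊢; linarith
  | succ I ih =>
    by_cases h : (2:ℝ)⁻¹ ^ I ≤ x
    · obtain ⟨i, hi, h2, h3⟩ := ih h
      exact ⟨i, by omega, h2, h3⟩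
    · push Not at h
      refine ⟨I, by omega, h0, ?_⟩
      rw [pow_succ]
      linarith

open Classical in
/-- **counting with two velocity clusters** -/
theorem cluster_count {ι : Type*} (Z : Finset ι) (s t tst l : ι → ℝ) {K q Q S : ℝ} {I : ℕ}
    (hK : 1 ≤ K) (hq : 0 ≤ q) (hQ : 0 ≤ Q) (hS0 : 0 ≤ S) (hS : ∀ T ∈ Z, |s T| ≤ S)
    (hl : ∀ T ∈ Z, (2:ℝ)⁻¹ ^ I ≤ l T ∧ l T ≤ 1)
    (hcl : ∀ T ∈ Z, ∀ T' ∈ Z, |s T' - s T| ≤ l T →
      |t T' - t T| ≤ K * l T ∨ |t T' - t T - tst T| ≤ K * l T)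
    (hpl : ∀ T ∈ Z, ((Z.filter fun T' => |s T' - s T| ≤ 2 * l T ∧
      |t T' - t T| ≤ 4 * K * l T).card : ℝ) ≤ Q * (l T) ^ (1 + q)) :
    (Z.card : ℝ) ≤ (I + 1) * (8 * (S + 1) * Q) := by
  have hex : ∀ T, T ∈ Z → ∃ i : ℕ, i ≤ I ∧ (2:ℝ)⁻¹ ^ (i + 1) ≤ l T ∧
      l T ≤ 2 * (2:ℝ)⁻¹ ^ (i + 1) := fun T hT => dyad (hl T hT).1 (hl T hT).2
  choose! f hf using hex
  have hsum : (Z.card : ℝ) = ∑ i ∈ Finset.range (I + 1), ((Z.filter fun T => f T = i).card : ℝ) := by
    have := Finset.card_eq_sum_card_fiberwise (f := f) (s := Z) (t := Finset.range (I + 1))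
      (fun T hT => by
        rw [Finset.coe_range, Set.mem_Iio]
        exact Nat.lt_succ_of_le (hf T hT).1)
    exact_mod_cast this
  rw [hsum]
  have hone : ∀ i ∈ Finset.range (I + 1), ((Z.filter fun T => f T = i).card : ℝ) ≤
      8 * (S + 1) * Q := by
    intro i _
    set lam : ℝ := (2:ℝ)⁻¹ ^ (i + 1) with hlam
    have hlam0 : 0 < lam := by positivity
    have hlam1 : 2 * lam ≤ 1 := by
      rw [hlam, pow_succ]
      have : (2:ℝ)⁻¹ ^ i ≤ 1 := pow_le_one₀ (by norm_num) (by norm_num)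
      linarith
    set Zi := Z.filter fun T => f T = i with hZi
    set g : ι → ℤ := fun T => ⌊s T / lam⌋ with hg
    have hmap : ∀ T ∈ Zi, g T ∈ Finset.Icc ⌊-S / lam⌋ ⌊S / lam⌋ := by
      intro T hT
      have h1 := abs_le.1 (hS T (Finset.mem_filter.1 hT).1)
      rw [Finset.mem_Icc]
      exact ⟨Int.floor_le_floor (by gcongr; exact h1.1), Int.floor_le_floor (by gcongr; exact h1.2)⟩
    have hcard : (Zi.card : ℝ) = ∑ c ∈ Finset.Icc ⌊-S / lam⌋ ⌊S / lam⌋,
        ((Zi.filter fun T => g T = c).card : ℝ) := by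
      have := Finset.card_eq_sum_card_fiberwise (f := g) (s := Zi)
        (t := Finset.Icc ⌊-S / lam⌋ ⌊S / lam⌋) (fun T hT => by
          exact Finset.mem_coe.2 (hmap T (Finset.mem_coe.1 hT)))
      exact_mod_cast this
    have hcell : ∀ c ∈ Finset.Icc ⌊-S / lam⌋ ⌊S / lam⌋,
        ((Zi.filter fun T => g T = c).card : ℝ) ≤ 2 * (Q * (2 * lam)) := by
      intro c _
      have h1 := cell_count (Z := Z) (Y := Zi.filter fun T => g T = c) (s := s) (t := t)
        (tst := tst) (l := l) (K := K) (q := q) (Q := Q) hlam0 hK hq hQ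
        (fun T hT => (Finset.mem_filter.1 (Finset.mem_filter.1 hT).1).1)
        (fun T hT => by
          have h2 := Finset.mem_filter.1 (Finset.mem_filter.1 hT).1
          have h3 := hf T h2.1
          rw [h2.2] at h3
          exact ⟨h3.2.1, h3.2.2⟩)
        (fun T hT T' hT' => by
          have h2 : ⌊s T / lam⌋ = c := (Finset.mem_filter.1 hT).2
          have h3 : ⌊s T' / lam⌋ = c := (Finset.mem_filter.1 hT').2
          have h4 : |s T' / lam - s T / lam| < 1 := Int.abs_sub_lt_one_of_floor_eq_floor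
            (h3.trans h2.symm)
          have h5 : s T' / lam - s T / lam = (s T' - s T) / lam := by ring
          rw [h5, abs_div, abs_of_pos hlam0, div_lt_one hlam0] at h4
          exact h4.le) hcl hpl
      refine h1.trans ?_
      have h6 : (2 * lam) ^ (1 + q) ≤ 2 * lam := by
        have := Real.rpow_le_rpow_of_exponent_ge (x := 2 * lam) (by positivity) hlam1
          (show (1:ℝ) ≤ 1 + q by linarith)
        rwa [Real.rpow_one] at this
      have := mul_le_mul_of_nonneg_left h6 hQ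
      linarith
    have hI : ((Finset.Icc ⌊-S / lam⌋ ⌊S / lam⌋).card : ℝ) ≤ 2 * S / lam + 2 := by
      rw [Int.card_Icc]
      have h1 := Int.floor_le (S / lam)
      have h2 := Int.lt_floor_add_one (-S / lam)
      have h3 : ⌊-S / lam⌋ ≤ ⌊S / lam⌋ + 1 := by
        have : ⌊-S / lam⌋ ≤ ⌊S / lam⌋ := Int.floor_le_floor (by gcongr; linarith)
        omega
      have h4 : (((⌊S / lam⌋ + 1 - ⌊-S / lam⌋).toNat : ℕ) : ℝ) =
          (⌊S / lam⌋ : ℝ) + 1 - (⌊-S / lam⌋ : ℝ) := by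
        have h5 : ((⌊S / lam⌋ + 1 - ⌊-S / lam⌋).toNat : ℤ) = ⌊S / lam⌋ + 1 - ⌊-S / lam⌋ :=
          Int.toNat_of_nonneg (by omega)
        exact_mod_cast congrArg (fun x : ℤ => (x : ℝ)) h5
      rw [h4]
      have h6 : -S / lam = -(S / lam) := by ring
      have h7 : 2 * S / lam = 2 * (S / lam) := by ring
      rw [h6] at h2 ⊢
      rw [h7]
      linarith
    rw [hcard]
    refine (Finset.sum_le_card_nsmul _ _ _ hcell).trans ?_
    rw [nsmul_eq_mul]
    have h8 : ((Finset.Icc ⌊-S / lam⌋ ⌊S / lam⌋).card : ℝ) * (2 * (Q * (2 * lam))) ≤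
        (2 * S / lam + 2) * (2 * (Q * (2 * lam))) :=
      mul_le_mul_of_nonneg_right hI (by positivity)
    refine h8.trans ?_
    have h9 : (2 * S / lam + 2) * (2 * (Q * (2 * lam))) = 8 * S * Q + 8 * (lam * Q) := by
      field_simp
      ring
    rw [h9]
    have h10 : lam * Q ≤ 1 * Q := mul_le_mul_of_nonneg_right (by linarith) hQ
    linarith
  refine (Finset.sum_le_card_nsmul _ _ _ hone).trans ?_
  rw [nsmul_eq_mul, Finset.card_range]
  push_cast
  exact le_rfl

end Crest.Agent.R136.Clc816
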