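import Mathlib

/-!
# R136 (S0187), PLAN 2, leaf (B4) share: the two-cluster lemma (helper108)

Two sheets through one line `T`; `T'` in both, displacement `p + z c`.  `(ξ, ζ)` orthonormal
coordinates in strip units, `ξ` along the gradient (of length `M`) of the difference `P` of the two
sheets at the base height; `s = p_ζ`, `t = c_ζ`.  `g, H` and `g', H'` : rotation and second form
of the two sheets in direction `ζ`.

* `two_cluster` : `|g t + H t^2| ≤ K Q`, `|g' t + H' t^2| ≤ K Q` and `4 K |s| ≤ ℓ` leave two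
  clusters for `t`.
* `bundle_eq` : the coefficient inequalities of the two sheets give these two inequalities.
* `bundle` : both together.
-/

set_option autoImplicit false
set_option linter.unusedVariables false

namespace Crest.Agent.R136.Clu108

/-- size of the right-hand side of the fan equations -/
def Qs (τ η s t : ℝ) : ℝ := 1 + τ * |s| + η * |s| * (|s| + |t|)

/-- centre of the second cluster -/
noncomputable def ts (g H g' H' : ℝ) : ℝ := if |H'| ≤ |H| then -g / H else -g' / H'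

theorem abs_ts_le {g H g' H' τ η : ℝ} (h1 : |g| ≤ τ) (h2 : |g'| ≤ τ) (hη : 0 < η)
    (hH : η = max |H| |H'|) : |ts g H g' H'| ≤ τ / η := by
  unfold ts
  split_ifs with h
  · have e : η = |H| := by rw [hH, max_eq_left h]
    rw [abs_div, abs_neg, ← e]
    gcongr
  · push Not at h
    have e : η = |H'| := by rw [hH, max_eq_right h.le]
    rw [abs_div, abs_neg, ← e]
    gcongr

set_option maxHeartbeats 1000000 in
/-- **two clusters** -/
theorem two_cluster {K τ η l s t g H g' H' : ℝ} (hK : 1 ≤ K) (hτ : τ = max |g| |g'|)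
    (hη : η = max |H| |H'|) (l0 : 0 < l) (l1 : l ≤ 1) (lτ : τ * l ≤ 1) (lη : η * l ^ 2 ≤ 1)
    (hmax : l = 1 ∨ τ * l = 1 ∨ η * l ^ 2 = 1) (ht : |t| ≤ 1) (hs : 4 * K * |s| ≤ l)
    (h1 : |g * t + H * t ^ 2| ≤ K * Qs τ η s t) (h2 : |g' * t + H' * t ^ 2| ≤ K * Qs τ η s t) :
    |t| ≤ 4 * K * l ∨ |t - ts g H g' H'| ≤ 9 * K * l := by
  have K0 : 0 < K := by linarith
  have s0 := abs_nonneg s
  have t0 := abs_nonneg t
  have τ0 : 0 ≤ τ := by rw [hτ]; exact (abs_nonneg g).trans (le_max_left _ _)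
  have η0 : 0 ≤ η := by rw [hη]; exact (abs_nonneg H).trans (le_max_left _ _)
  have hsl : |s| ≤ l / 4 := by nlinarith
  have hKs : K * |s| ≤ l / 4 := by linarith
  -- the right-hand side
  have hQ : K * Qs τ η s t ≤ 2 * K + η * l * |t| / 4 := by
    have a1 : K * (τ * |s|) ≤ 1 / 4 := by
      calc K * (τ * |s|) = τ * (K * |s|) := by ring
        _ ≤ τ * (l / 4) := mul_le_mul_of_nonneg_left hKs τ0
        _ ≤ 1 / 4 := by linarith
    have a2 : K * (η * |s| * |s|) ≤ 1 / 4 := by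
      calc K * (η * |s| * |s|) = η * ((K * |s|) * |s|) := by ring
        _ ≤ η * ((l / 4) * (l / 4)) := by
            refine mul_le_mul_of_nonneg_left (mul_le_mul hKs hsl s0 (by positivity)) η0
        _ ≤ 1 / 4 := by nlinarith
    have a3 : K * (η * |s| * |t|) ≤ η * l * |t| / 4 := by
      calc K * (η * |s| * |t|) = η * |t| * (K * |s|) := by ring
        _ ≤ η * |t| * (l / 4) := mul_le_mul_of_nonneg_left hKs (by positivity)
        _ = η * l * |t| / 4 := by ring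
    have e : K * Qs τ η s t = K + K * (τ * |s|) + K * (η * |s| * |s|) + K * (η * |s| * |t|) := by
      unfold Qs; ring
    rw [e]; linarith
  have hg : |g| ≤ τ := by rw [hτ]; exact le_max_left _ _
  have hg' : |g'| ≤ τ := by rw [hτ]; exact le_max_right _ _
  have hH : |H| ≤ η := by rw [hη]; exact le_max_left _ _
  have hH' : |H'| ≤ η := by rw [hη]; exact le_max_right _ _
  -- the `η`-equation
  obtain ⟨gs, Hs, e1, e2, e3, e4⟩ : ∃ gs Hs : ℝ, |Hs| = η ∧ |gs| ≤ τ ∧
      |gs * t + Hs * t ^ 2| ≤ K * Qs τ η s t ∧ ts g H g' H' = -gs / Hs := by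
    by_cases h : |H'| ≤ |H|
    · exact ⟨g, H, by rw [hη, max_eq_left h], hg, h1, by rw [ts, if_pos h]⟩
    · exact ⟨g', H', by rw [hη, max_eq_right (le_of_not_ge h)], hg', h2, by rw [ts, if_neg h]⟩
  -- the `τ`-equation
  obtain ⟨gt, Ht, f1, f2, f3⟩ : ∃ gt Ht : ℝ, |gt| = τ ∧ |Ht| ≤ η ∧
      |gt * t + Ht * t ^ 2| ≤ K * Qs τ η s t := by
    by_cases h : |g'| ≤ |g|
    · exact ⟨g, H, by rw [hτ, max_eq_left h], hH, h1⟩
    · exact ⟨g', H', by rw [hτ, max_eq_right (le_of_not_ge h)], hH', h2⟩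
  rcases hmax with hm | hm | hm
  · left
    rw [hm]; linarith
  · -- `τ l = 1`
    have τ1 : 0 < τ := by
      rcases τ0.lt_or_eq with h | h
      · exact h
      · rw [← h] at hm; norm_num at hm
    have hηl : η * l ≤ τ := by
      have : η * l * l ≤ τ * l := by rw [hm]; linarith [show η * l * l = η * l ^ 2 by ring]
      exact le_of_mul_le_mul_right this l0
    by_cases hc : 4 * (η * |t|) ≤ τ
    · left
      have b1 : τ * |t| ≤ η * |t| ^ 2 + (2 * K + η * l * |t| / 4) := by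
        have : |gt * t| ≤ |Ht * t ^ 2| + |gt * t + Ht * t ^ 2| := by
          have := abs_sub (gt * t + Ht * t ^ 2) (Ht * t ^ 2)
          rw [add_sub_cancel_right] at this
          linarith
        rw [abs_mul, f1] at this
        have c1 : |Ht * t ^ 2| ≤ η * |t| ^ 2 := by
          rw [abs_mul, abs_pow]
          exact mul_le_mul_of_nonneg_right f2 (by positivity)
        linarith
      have b2 : η * |t| ^ 2 ≤ τ / 4 * |t| := by
        calc η * |t| ^ 2 = (η * |t|) * |t| := by ring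
          _ ≤ τ / 4 * |t| := mul_le_mul_of_nonneg_right (by linarith) t0
      have b3 : η * l * |t| ≤ τ * |t| := mul_le_mul_of_nonneg_right hηl t0
      have b4 : τ * |t| ≤ 4 * K := by linarith
      calc |t| = (τ * l) * |t| := by rw [hm, one_mul]
        _ = (τ * |t|) * l := by ring
        _ ≤ 4 * K * l := mul_le_mul_of_nonneg_right b4 l0.le
    · right
      push Not at hc
      have η1 : 0 < η := by
        rcases η0.lt_or_eq with h | h
        · exact h
        · rw [← h] at hc; linarith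
      have t1 : 0 < |t| := by
        rcases t0.lt_or_eq with h | h
        · exact h
        · rw [← h] at hc; linarith
      have Hs0 : Hs ≠ 0 := by
        intro h; rw [h, abs_zero] at e1; linarith
      have b1 : |t| * |gs + Hs * t| ≤ 2 * K + η * l * |t| / 4 := by
        rw [← abs_mul]
        have : t * (gs + Hs * t) = gs * t + Hs * t ^ 2 := by ring
        rw [this]; exact e3.trans hQ
      have b2 : 2 * K ≤ 8 * K * (η * l) * |t| := by
        have : 1 ≤ 4 * (η * l) * |t| := by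
          calc (1:ℝ) = τ * l := hm.symm
            _ ≤ (4 * (η * |t|)) * l := mul_le_mul_of_nonneg_right hc.le l0.le
            _ = 4 * (η * l) * |t| := by ring
        nlinarith
      have b3 : |t| * |gs + Hs * t| ≤ |t| * (9 * K * (η * l)) := by
        have : η * l * |t| ≤ K * (η * l * |t|) := by
          have : 0 ≤ η * l * |t| := by positivity
          nlinarith
        nlinarith
      have b4 : |gs + Hs * t| ≤ 9 * K * (η * l) := le_of_mul_le_mul_left b3 t1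
      have e : gs + Hs * t = Hs * (t - ts g H g' H') := by
        rw [e4]; field_simp; ring
      rw [e, abs_mul, e1] at b4
      have b5 : η * |t - ts g H g' H'| ≤ η * (9 * K * l) := by
        calc _ ≤ _ := b4
          _ = η * (9 * K * l) := by ring
      exact le_of_mul_le_mul_left b5 η1
  · -- `η l² = 1`
    left
    have b1 : η * |t| ^ 2 ≤ τ * |t| + (2 * K + η * l * |t| / 4) := by
      have : |Hs * t ^ 2| ≤ |gs * t| + |gs * t + Hs * t ^ 2| := by
        have := abs_sub (gs * t + Hs * t ^ 2) (gs * t)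
        rw [add_sub_cancel_left] at this
        linarith
      rw [abs_mul, e1, abs_pow, abs_mul] at this
      have c1 : |gs| * |t| ≤ τ * |t| := mul_le_mul_of_nonneg_right e2 t0
      linarith
    have hτ' : τ ≤ η * l := by
      have : τ * l ≤ η * l * l := by rw [show η * l * l = η * l ^ 2 by ring, hm]; exact lτ
      exact le_of_mul_le_mul_right this l0
    by_contra hc
    push Not at hc
    -- multiply by `l²`
    have c1 : τ * |t| ≤ η * l * |t| := mul_le_mul_of_nonneg_right hτ' t0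
    have c2 : η * |t| ^ 2 * l ^ 2 ≤ (5 / 4 * (η * l * |t|) + 2 * K) * l ^ 2 := by
      refine mul_le_mul_of_nonneg_right ?_ (by positivity)
      linarith
    have c3 : η * |t| ^ 2 * l ^ 2 = |t| ^ 2 := by
      calc η * |t| ^ 2 * l ^ 2 = (η * l ^ 2) * |t| ^ 2 := by ring
        _ = |t| ^ 2 := by rw [hm, one_mul]
    have c4 : (5 / 4 * (η * l * |t|) + 2 * K) * l ^ 2 = 5 / 4 * (l * |t|) + 2 * K * l ^ 2 := by
      calc (5 / 4 * (η * l * |t|) + 2 * K) * l ^ 2 =
          5 / 4 * ((η * l ^ 2) * (l * |t|)) + 2 * K * l ^ 2 := by ring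
        _ = 5 / 4 * (l * |t|) + 2 * K * l ^ 2 := by rw [hm, one_mul]
    rw [c3, c4] at c2
    have d0 : l ≤ K * l := le_mul_of_one_le_left l0.le hK
    have d1 : l ≤ |t| / 4 := by linarith
    have d2 : l * |t| ≤ |t| / 4 * |t| := mul_le_mul_of_nonneg_right d1 t0
    have d3 : 2 * K * l ^ 2 ≤ |t| * |t| / 8 := by
      have g1 : K * l ≤ |t| / 4 := by linarith
      have g2 : (K * l) * l ≤ (|t| / 4) * (|t| / 4) := mul_le_mul g1 d1 l0.le (by positivity)
      have g3 : (|t| / 4) * (|t| / 4) = |t| * |t| / 16 := by ring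
      have g4 : 2 * K * l ^ 2 = 2 * ((K * l) * l) := by ring
      rw [g4]; linarith
    have d4 : 0 < |t| := by
      have : 0 < K * l := by positivity
      linarith
    have d5 : 0 < |t| * |t| := by positivity
    have d6 : |t| ^ 2 = |t| * |t| := by ring
    have d7 : 5 / 4 * (l * |t|) ≤ 5 / 16 * (|t| * |t|) := by linarith
    linarith

/-- second form in the plane -/
def h2 (h : ℝ × ℝ × ℝ) (x y : ℝ) : ℝ := h.1 * x ^ 2 + 2 * h.2.1 * (x * y) + h.2.2 * y ^ 2

/-- its polarisation -/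
def pl (h : ℝ × ℝ × ℝ) (x y x' y' : ℝ) : ℝ :=
  h.1 * (x * x') + h.2.1 * (x * y' + y * x') + h.2.2 * (y * y')

/-- coefficients of a sheet -/
structure Bd (B : ℝ) (g : ℝ × ℝ) (h : ℝ × ℝ × ℝ) : Prop where
  g1 : |g.1| ≤ B
  h1 : |h.1| ≤ B
  h12 : |h.2.1| ≤ B

theorem h2_le {B η x y m : ℝ} {g : ℝ × ℝ} {h : ℝ × ℝ × ℝ} (hb : Bd B g h) (hη : |h.2.2| ≤ η)
    (hx : |x| ≤ m) (hy : |y| ≤ m) : |h2 h x y| ≤ η * y ^ 2 + 3 * (B * m) * |x| := by
  have m0 : 0 ≤ m := (abs_nonneg x).trans hx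
  have B0 : 0 ≤ B := (abs_nonneg _).trans hb.g1
  have x0 := abs_nonneg x
  have y0 := abs_nonneg y
  have a1 : |h.1 * x ^ 2| ≤ B * m * |x| := by
    rw [abs_mul, abs_pow, sq, ← mul_assoc]
    refine mul_le_mul_of_nonneg_right (mul_le_mul hb.h1 hx x0 B0) x0
  have a2 : |2 * h.2.1 * (x * y)| ≤ 2 * (B * m * |x|) := by
    have : |2 * h.2.1 * (x * y)| = 2 * (|h.2.1| * |y| * |x|) := by
      rw [abs_mul, abs_mul, abs_mul, abs_two]; ring
    rw [this]
    have := mul_le_mul_of_nonneg_right (mul_le_mul hb.h12 hy y0 B0) x0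
    linarith
  have a3 : |h.2.2 * y ^ 2| ≤ η * y ^ 2 := by
    rw [abs_mul, abs_of_nonneg (sq_nonneg y)]
    exact mul_le_mul_of_nonneg_right hη (sq_nonneg y)
  unfold h2
  refine (abs_add_le _ _).trans ?_
  have := abs_add_le (h.1 * x ^ 2) (2 * h.2.1 * (x * y))
  linarith

theorem pl_le {B η x y x' y' m : ℝ} {g : ℝ × ℝ} {h : ℝ × ℝ × ℝ} (hb : Bd B g h)
    (hη : |h.2.2| ≤ η) (hx : |x| ≤ m) (hy : |y| ≤ m) (hy' : |y'| ≤ m) :
    |pl h x y x' y'| ≤ η * (|y| * |y'|) + B * m * |x| + 2 * (B * m) * |x'| := by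
  have m0 : 0 ≤ m := (abs_nonneg x).trans hx
  have B0 : 0 ≤ B := (abs_nonneg _).trans hb.g1
  have x0 := abs_nonneg x
  have x0' := abs_nonneg x'
  have y0 := abs_nonneg y
  have y0' := abs_nonneg y'
  have a1 : |h.1 * (x * x')| ≤ B * m * |x'| := by
    have : |h.1 * (x * x')| = |h.1| * |x| * |x'| := by rw [abs_mul, abs_mul]; ring
    rw [this]
    exact mul_le_mul_of_nonneg_right (mul_le_mul hb.h1 hx x0 B0) x0'
  have a2 : |h.2.1 * (x * y' + y * x')| ≤ B * m * |x| + B * m * |x'| := by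
    have e : h.2.1 * (x * y' + y * x') = h.2.1 * y' * x + h.2.1 * y * x' := by ring
    rw [e]
    refine (abs_add_le _ _).trans (add_le_add ?_ ?_)
    · rw [abs_mul, abs_mul]
      exact mul_le_mul_of_nonneg_right (mul_le_mul hb.h12 hy' y0' B0) x0
    · rw [abs_mul, abs_mul]
      exact mul_le_mul_of_nonneg_right (mul_le_mul hb.h12 hy y0 B0) x0'
  have a3 : |h.2.2 * (y * y')| ≤ η * (|y| * |y'|) := by
    rw [abs_mul, abs_mul]
    exact mul_le_mul_of_nonneg_right hη (by positivity)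
  unfold pl
  refine (abs_add_le _ _).trans ?_
  have := abs_add_le (h.1 * (x * x')) (h.2.1 * (x * y' + y * x'))
  linarith

/-- **the six coefficient inequalities** of two sheets along a common line.  `y0, y1` : position and
velocity in the normal coordinate of the first sheet, the normal coordinate of the second one is
`y + M ξ`. -/
structure Six (K d M : ℝ) (g g' : ℝ × ℝ) (h h' : ℝ × ℝ × ℝ) (y0 y1 px s cx t : ℝ) : Prop where
  a0 : |y0 + h2 h px s| ≤ K + d * (|y0| + M * |px|)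
  a1 : |y1 + (g.1 * px + g.2 * s) + 2 * pl h px s cx t| ≤
    K * (1 + |y0| + M * |px|) + d * (|y1| + M * |cx|)
  a2 : |(g.1 * cx + g.2 * t) + h2 h cx t| ≤ K * (1 + |y0| + M * |px| + |y1| + M * |cx|)
  b0 : |y0 + M * px + h2 h' px s| ≤ K + d * (|y0| + M * |px|)
  b1 : |y1 + M * cx + (g'.1 * px + g'.2 * s) + 2 * pl h' px s cx t| ≤
    K * (1 + |y0| + M * |px|) + d * (|y1| + M * |cx|)
  b2 : |(g'.1 * cx + g'.2 * t) + h2 h' cx t| ≤ K * (1 + |y0| + M * |px| + |y1| + M * |cx|)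

theorem facts {K W Q : ℝ} (hK : 1 ≤ K) (hW : 1 ≤ W) (hQ : 1 ≤ Q) :
    K * Q ≤ W * K ^ 2 * Q ∧ K ^ 2 * Q ≤ W * K ^ 2 * Q ∧ W * K * Q ≤ W * K ^ 2 * Q ∧
      Q ≤ W * K ^ 2 * Q ∧ W * (W * K ^ 2 * Q) ≤ W ^ 2 * K ^ 3 * Q ∧
      K * (W * K ^ 2 * Q) ≤ W ^ 2 * K ^ 3 * Q ∧ K * (K * Q) ≤ W ^ 2 * K ^ 3 * Q ∧
      W * K ^ 2 * Q ≤ W ^ 2 * K ^ 3 * Q := by
  have K0 : 0 < K := by linarith
  have W0 : 0 < W := by linarith
  have Q0 : 0 < Q := by linarith
  have WK : 1 ≤ W * K := by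
    calc (1:ℝ) = 1 * 1 := by norm_num
      _ ≤ W * K := mul_le_mul hW hK zero_le_one W0.le
  have WKK : 1 ≤ W * K * K := by
    calc (1:ℝ) = 1 * 1 := by norm_num
      _ ≤ W * K * K := mul_le_mul WK hK zero_le_one (by positivity)
  have one : ∀ x y z : ℝ, 0 ≤ x → 1 ≤ y → z = y * x → x ≤ z := fun x y z h0 h1 h2 => by
    rw [h2]; exact le_mul_of_one_le_left h0 h1
  refine ⟨one _ (W * K) _ (by positivity) WK (by ring), one _ W _ (by positivity) hW (by ring),
    one _ K _ (by positivity) hK (by ring), one _ (W * K * K) _ (by positivity) WKK (by ring),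
    one _ K _ (by positivity) hK (by ring), one _ W _ (by positivity) hW (by ring),
    one _ (W * (W * K)) _ (by positivity) ?_ (by ring),
    one _ (W * K) _ (by positivity) WK (by ring)⟩
  calc (1:ℝ) = 1 * 1 := by norm_num
    _ ≤ W * (W * K) := mul_le_mul hW WK zero_le_one W0.le

set_option maxHeartbeats 2000000 in
/-- **the fan equations** -/
theorem bundle_eq {K d M W m τ η : ℝ} {g g' : ℝ × ℝ} {h h' : ℝ × ℝ × ℝ} {y0 y1 px s cx t : ℝ}
    (H : Six K d M g g' h h' y0 y1 px s cx t) (hK : 1 ≤ K) (hW : 1 ≤ W) (hM : 0 < M)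
    (hd : 100 * d ≤ 1) (hb : Bd (W * M) g h) (hb' : Bd (W * M) g' h')
    (hτ : |g.2| ≤ τ) (hτ' : |g'.2| ≤ τ) (hη : |h.2.2| ≤ η) (hη' : |h'.2.2| ≤ η)
    (hm : 100 * (W * m) ≤ 1) (hpx : |px| ≤ m) (hs : |s| ≤ m) (hcx : |cx| ≤ m) (ht : |t| ≤ m) :
    |y0| + M * |px| ≤ 4 * K * (1 + η * s ^ 2) ∧
      |y1| + M * |cx| ≤ 60 * W * K ^ 2 * Qs τ η s t ∧
      |g.2 * t + h.2.2 * t ^ 2| ≤ 200 * W ^ 2 * K ^ 3 * Qs τ η s t ∧
      |g'.2 * t + h'.2.2 * t ^ 2| ≤ 200 * W ^ 2 * K ^ 3 * Qs τ η s t := by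
  have m0 : 0 ≤ m := (abs_nonneg s).trans hs
  have s0 := abs_nonneg s
  have t0 := abs_nonneg t
  have η0 : 0 ≤ η := (abs_nonneg _).trans hη
  have τ0 : 0 ≤ τ := (abs_nonneg _).trans hτ
  have K0 : 0 < K := by linarith
  have W0 : 0 < W := by linarith
  obtain ⟨a, ha⟩ : ∃ a, a = |y0| := ⟨_, rfl⟩
  obtain ⟨b, hbb⟩ : ∃ b, b = M * |px| := ⟨_, rfl⟩
  obtain ⟨c, hc⟩ : ∃ c, c = |y1| := ⟨_, rfl⟩
  obtain ⟨e, he⟩ : ∃ e, e = M * |cx| := ⟨_, rfl⟩
  have a0 : 0 ≤ a := by rw [ha]; exact abs_nonneg _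
  have b0 : 0 ≤ b := by rw [hbb]; positivity
  have c0 : 0 ≤ c := by rw [hc]; exact abs_nonneg _
  have e0 : 0 ≤ e := by rw [he]; positivity
  have hA0 := H.a0
  have hA1 := H.a1
  have hA2 := H.a2
  have hB0 := H.b0
  have hB1 := H.b1
  have hB2 := H.b2
  rw [← ha, ← hbb] at hA0 hA1 hA2 hB0 hB1 hB2 ⊢
  rw [← hc, ← he] at hA1 hA2 hB1 hB2 ⊢
  -- `W M m |px| ≤ b / 100`
  have wm : ∀ x : ℝ, W * M * m * |x| ≤ M * |x| / 100 := by
    intro x
    have : 100 * (W * m) * (M * |x|) ≤ 1 * (M * |x|) :=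
      mul_le_mul_of_nonneg_right hm (by positivity)
    linarith
  have wb : W * M * m * |px| ≤ b / 100 := by rw [hbb]; exact wm px
  have we : W * M * m * |cx| ≤ e / 100 := by rw [he]; exact wm cx
  -- step 0
  have q1 := h2_le hb hη hpx hs
  have q2 := h2_le hb' hη' hpx hs
  obtain ⟨S, hS⟩ : ∃ S, S = η * s ^ 2 := ⟨_, rfl⟩
  have S0 : 0 ≤ S := by rw [hS]; positivity
  rw [← hS] at q1 q2 ⊢
  have q1' : |h2 h px s| ≤ S + 3 / 100 * b := by linarith
  have q2' : |h2 h' px s| ≤ S + 3 / 100 * b := by linarith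
  have dab : d * (a + b) ≤ (a + b) / 100 := by
    have := mul_le_mul_of_nonneg_right hd (add_nonneg a0 b0)
    linarith
  have r1 : a ≤ S + 3 / 100 * b + K + (a + b) / 100 := by
    have : |y0| ≤ |y0 + h2 h px s| + |h2 h px s| := by
      have := abs_sub (y0 + h2 h px s) (h2 h px s)
      rwa [add_sub_cancel_right] at this
    rw [← ha] at this
    linarith
  have r2 : b ≤ 2 * S + 6 / 100 * b + 2 * K + 2 * ((a + b) / 100) := by
    have e1 : M * px = (y0 + M * px + h2 h' px s) - (y0 + h2 h px s) - h2 h' px s + h2 h px s := by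
      ring
    have : |M * px| ≤ |y0 + M * px + h2 h' px s| + |y0 + h2 h px s| + |h2 h' px s| +
        |h2 h px s| := by
      calc |M * px| = |(y0 + M * px + h2 h' px s) - (y0 + h2 h px s) - h2 h' px s + h2 h px s| := by
            rw [← e1]
        _ ≤ _ := (abs_add_le _ _).trans (add_le_add ((abs_sub _ _).trans (add_le_add
          (abs_sub _ _) le_rfl)) le_rfl)
    rw [abs_mul, abs_of_pos hM, ← hbb] at this
    linarith
  have r3 : a + b ≤ 4 * (S + K) := by linarith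
  have r3' : a + b ≤ 4 * K * (1 + S) := by
    have : S ≤ K * S := le_mul_of_one_le_left S0 hK
    linarith
  -- step 1
  have p1 := pl_le (x' := cx) hb hη hpx hs ht
  have p2 := pl_le (x' := cx) hb' hη' hpx hs ht
  obtain ⟨T, hT⟩ : ∃ T, T = η * (|s| * |t|) := ⟨_, rfl⟩
  have T0 : 0 ≤ T := by rw [hT]; positivity
  rw [← hT] at p1 p2
  have p1' : |2 * pl h px s cx t| ≤ 2 * T + 2 / 100 * b + 4 / 100 * e := by
    rw [abs_mul, abs_two]; linarith
  have p2' : |2 * pl h' px s cx t| ≤ 2 * T + 2 / 100 * b + 4 / 100 * e := by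
    rw [abs_mul, abs_two]; linarith
  obtain ⟨V, hV⟩ : ∃ V, V = τ * |s| := ⟨_, rfl⟩
  have V0 : 0 ≤ V := by rw [hV]; positivity
  have g1 : |g.1 * px + g.2 * s| ≤ W * b + V := by
    refine (abs_add_le _ _).trans (add_le_add ?_ ?_)
    · rw [abs_mul, hbb]
      calc |g.1| * |px| ≤ W * M * |px| := mul_le_mul_of_nonneg_right hb.g1 (abs_nonneg _)
        _ = W * (M * |px|) := by ring
    · rw [abs_mul, hV]; exact mul_le_mul_of_nonneg_right hτ s0
  have g2 : |g'.1 * px + g'.2 * s| ≤ W * b + V := by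
    refine (abs_add_le _ _).trans (add_le_add ?_ ?_)
    · rw [abs_mul, hbb]
      calc |g'.1| * |px| ≤ W * M * |px| := mul_le_mul_of_nonneg_right hb'.g1 (abs_nonneg _)
        _ = W * (M * |px|) := by ring
    · rw [abs_mul, hV]; exact mul_le_mul_of_nonneg_right hτ' s0
  have dce : d * (c + e) ≤ (c + e) / 100 := by
    have := mul_le_mul_of_nonneg_right hd (add_nonneg c0 e0)
    linarith
  obtain ⟨Z, hZ⟩ : ∃ Z, Z = W * b + V + 2 * T + 2 / 100 * b + K * (1 + a + b) := ⟨_, rfl⟩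
  have t1 : c ≤ Z + 4 / 100 * e + (c + e) / 100 := by
    have e1 : y1 = (y1 + (g.1 * px + g.2 * s) + 2 * pl h px s cx t) - (g.1 * px + g.2 * s) -
        2 * pl h px s cx t := by ring
    have : |y1| ≤ |y1 + (g.1 * px + g.2 * s) + 2 * pl h px s cx t| + |g.1 * px + g.2 * s| +
        |2 * pl h px s cx t| := by
      calc |y1| = |(y1 + (g.1 * px + g.2 * s) + 2 * pl h px s cx t) - (g.1 * px + g.2 * s) -
            2 * pl h px s cx t| := by rw [← e1]
        _ ≤ _ := (abs_sub _ _).trans (add_le_add (abs_sub _ _) le_rfl)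
    rw [← hc] at this
    rw [hZ]; linarith
  have t2 : e ≤ 2 * Z + 8 / 100 * e + 2 * ((c + e) / 100) := by
    have e1 : M * cx = (y1 + M * cx + (g'.1 * px + g'.2 * s) + 2 * pl h' px s cx t) -
        (y1 + (g.1 * px + g.2 * s) + 2 * pl h px s cx t) - (g'.1 * px + g'.2 * s) -
        2 * pl h' px s cx t + (g.1 * px + g.2 * s) + 2 * pl h px s cx t := by ring
    have : |M * cx| ≤ |y1 + M * cx + (g'.1 * px + g'.2 * s) + 2 * pl h' px s cx t| +
        |y1 + (g.1 * px + g.2 * s) + 2 * pl h px s cx t| + |g'.1 * px + g'.2 * s| +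
        |2 * pl h' px s cx t| + |g.1 * px + g.2 * s| + |2 * pl h px s cx t| := by
      calc |M * cx| = |(y1 + M * cx + (g'.1 * px + g'.2 * s) + 2 * pl h' px s cx t) -
            (y1 + (g.1 * px + g.2 * s) + 2 * pl h px s cx t) - (g'.1 * px + g'.2 * s) -
            2 * pl h' px s cx t + (g.1 * px + g.2 * s) + 2 * pl h px s cx t| := by rw [← e1]
        _ ≤ _ := (abs_add_le _ _).trans (add_le_add ((abs_add_le _ _).trans (add_le_add
          ((abs_sub _ _).trans (add_le_add ((abs_sub _ _).trans (add_le_add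
          (abs_sub _ _) le_rfl)) le_rfl)) le_rfl)) le_rfl)
    rw [abs_mul, abs_of_pos hM, ← he] at this
    rw [hZ]; linarith
  have t3 : c + e ≤ 4 * Z := by
    have : 0 ≤ Z := by rw [hZ]; positivity
    linarith
  obtain ⟨Q, hQ⟩ : ∃ Q, Q = Qs τ η s t := ⟨_, rfl⟩
  have eQ : Q = 1 + V + S + T := by
    rw [hQ, hV, hS, hT, ← sq_abs s]; unfold Qs; ring
  have Q1 : 1 ≤ Q := by rw [eQ]; linarith
  obtain ⟨F1, F2, F3, F4, F5, F6, F7, F8⟩ := facts hK hW Q1
  have u0 : a + b ≤ 4 * K * Q := by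
    refine r3'.trans ?_
    refine mul_le_mul_of_nonneg_left ?_ (by positivity)
    rw [eQ]; linarith
  have u1 : W * b ≤ 4 * (W * K ^ 2 * Q) := by
    have : W * b ≤ W * (4 * K * Q) := mul_le_mul_of_nonneg_left (by linarith) W0.le
    linarith
  have u2 : K * (1 + a + b) ≤ 5 * (W * K ^ 2 * Q) := by
    have e1 : K * (1 + (a + b)) ≤ K * (Q + 4 * K * Q) :=
      mul_le_mul_of_nonneg_left (by linarith) K0.le
    have e4 : K * (1 + a + b) = K * (1 + (a + b)) := by ring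
    rw [e4]; linarith
  have u3 : 2 / 100 * b ≤ 1 * (W * K ^ 2 * Q) := by
    have e1 : b ≤ 4 * K * Q := by linarith
    have : 0 ≤ W * K ^ 2 * Q := by positivity
    linarith
  have u4 : V + 2 * T ≤ 2 * (W * K ^ 2 * Q) := by
    have : V + 2 * T ≤ 2 * Q := by rw [eQ]; linarith
    linarith
  have u5 : c + e ≤ 60 * W * K ^ 2 * Q := by
    have : Z ≤ 12 * (W * K ^ 2 * Q) := by rw [hZ]; linarith
    have : 0 ≤ W * K ^ 2 * Q := by positivity
    linarith
  rw [← hQ]
  have rhs : K * (1 + a + b + c + e) ≤ 65 * (W ^ 2 * K ^ 3 * Q) := by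
    have e1 : K * (1 + a + b + c + e) = K * 1 + K * (a + b) + K * (c + e) := by ring
    have e2 : K * (a + b) ≤ 4 * (K * (K * Q)) := by
      calc K * (a + b) ≤ K * (4 * K * Q) := mul_le_mul_of_nonneg_left u0 K0.le
        _ = _ := by ring
    have e3 : K * (c + e) ≤ 60 * (K * (W * K ^ 2 * Q)) := by
      calc K * (c + e) ≤ K * (60 * W * K ^ 2 * Q) := mul_le_mul_of_nonneg_left u5 K0.le
        _ = _ := by ring
    have e4 : K * 1 ≤ K * Q := mul_le_mul_of_nonneg_left Q1 K0.le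
    have e5 : 0 ≤ W ^ 2 * K ^ 3 * Q := by positivity
    rw [e1]; linarith
  have last : ∀ (g : ℝ × ℝ) (h : ℝ × ℝ × ℝ), Bd (W * M) g h →
      |(g.1 * cx + g.2 * t) + h2 h cx t| ≤ K * (1 + a + b + c + e) →
      |g.2 * t + h.2.2 * t ^ 2| ≤ 200 * W ^ 2 * K ^ 3 * Q := by
    intro g h hb hA
    have i0 : |g.1 * cx| ≤ W * e := by
      rw [abs_mul, he]
      calc |g.1| * |cx| ≤ W * M * |cx| := mul_le_mul_of_nonneg_right hb.g1 (abs_nonneg _)
        _ = W * (M * |cx|) := by ring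
    have i1 : |h.1 * cx ^ 2| ≤ e / 100 := by
      rw [abs_mul, abs_pow, sq, ← mul_assoc]
      have := mul_le_mul_of_nonneg_right (mul_le_mul hb.h1 hcx (abs_nonneg _)
        (by positivity : 0 ≤ W * M)) (abs_nonneg cx)
      linarith
    have i2 : |2 * h.2.1 * (cx * t)| ≤ 2 * (e / 100) := by
      have e1 : |2 * h.2.1 * (cx * t)| = 2 * (|h.2.1| * |t| * |cx|) := by
        rw [abs_mul, abs_mul, abs_mul, abs_two]; ring
      rw [e1]
      have := mul_le_mul_of_nonneg_right (mul_le_mul hb.h12 ht t0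
        (by positivity : 0 ≤ W * M)) (abs_nonneg cx)
      linarith
    have e1 : g.2 * t + h.2.2 * t ^ 2 = ((g.1 * cx + g.2 * t) + h2 h cx t) - g.1 * cx -
        h.1 * cx ^ 2 - 2 * h.2.1 * (cx * t) := by unfold h2; ring
    have e2 : |g.2 * t + h.2.2 * t ^ 2| ≤ |(g.1 * cx + g.2 * t) + h2 h cx t| + |g.1 * cx| +
        |h.1 * cx ^ 2| + |2 * h.2.1 * (cx * t)| := by
      rw [e1]
      exact (abs_sub _ _).trans (add_le_add ((abs_sub _ _).trans (add_le_add (abs_sub _ _)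
        le_rfl)) le_rfl)
    have e3 : W * e + 3 * (e / 100) ≤ 120 * (W ^ 2 * K ^ 3 * Q) := by
      have j1 : e ≤ 60 * W * K ^ 2 * Q := by linarith
      have j2 : W * e ≤ 60 * (W * (W * K ^ 2 * Q)) := by
        calc W * e ≤ W * (60 * W * K ^ 2 * Q) := mul_le_mul_of_nonneg_left j1 W0.le
          _ = _ := by ring
      linarith
    linarith
  exact ⟨r3', u5, last g h hb hA2, last g' h' hb' hB2⟩

/-- size of the right-hand side in the two clusters -/
theorem Qs_le {K τ η l s t g H g' H' : ℝ} (hK : 1 ≤ K) (hτ : τ = max |g| |g'|)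
    (hη : η = max |H| |H'|) (l0 : 0 < l) (l1 : l ≤ 1) (lτ : τ * l ≤ 1) (lη : η * l ^ 2 ≤ 1)
    (hs : 4 * K * |s| ≤ l) (ht : |t| ≤ 4 * K * l ∨ |t - ts g H g' H'| ≤ 9 * K * l) :
    Qs τ η s t ≤ 4 := by
  have K0 : 0 < K := by linarith
  have s0 := abs_nonneg s
  have t0 := abs_nonneg t
  have τ0 : 0 ≤ τ := by rw [hτ]; exact (abs_nonneg g).trans (le_max_left _ _)
  have η0 : 0 ≤ η := by rw [hη]; exact (abs_nonneg H).trans (le_max_left _ _)
  have sK : |s| ≤ K * |s| := le_mul_of_one_le_left s0 hK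
  have hsl : |s| ≤ l / 4 := by linarith
  have hKs : K * |s| ≤ l / 4 := by linarith
  have a1 : τ * |s| ≤ 1 / 4 := by
    calc τ * |s| ≤ τ * (l / 4) := mul_le_mul_of_nonneg_left hsl τ0
      _ ≤ 1 / 4 := by linarith
  have a2 : η * |s| * |s| ≤ 1 / 16 := by
    calc η * |s| * |s| = η * (|s| * |s|) := by ring
      _ ≤ η * ((l / 4) * (l / 4)) :=
          mul_le_mul_of_nonneg_left (mul_le_mul hsl hsl s0 (by positivity)) η0
      _ = η * l ^ 2 / 16 := by ring
      _ ≤ 1 / 16 := by linarith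
  have a3 : η * |s| * (K * l) ≤ 1 / 4 := by
    calc η * |s| * (K * l) = η * l * (K * |s|) := by ring
      _ ≤ η * l * (l / 4) := mul_le_mul_of_nonneg_left hKs (by positivity)
      _ = η * l ^ 2 / 4 := by ring
      _ ≤ 1 / 4 := by linarith
  have a4 : η * |s| * |t| ≤ 5 / 2 := by
    rcases ht with h | h
    · have : η * |s| * |t| ≤ η * |s| * (4 * K * l) :=
        mul_le_mul_of_nonneg_left h (by positivity)
      linarith
    · rcases η0.lt_or_eq with h0 | h0
      · have e := abs_ts_le (τ := τ) (g := g) (H := H) (g' := g') (H' := H')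
          (by rw [hτ]; exact le_max_left _ _) (by rw [hτ]; exact le_max_right _ _) h0 hη
        have e1 : |t| ≤ 9 * K * l + τ / η := by
          have := abs_add_le (t - ts g H g' H') (ts g H g' H')
          rw [sub_add_cancel] at this
          linarith
        have e2 : η * |s| * |t| ≤ η * |s| * (9 * K * l + τ / η) :=
          mul_le_mul_of_nonneg_left e1 (by positivity)
        have e3 : η * |s| * (9 * K * l + τ / η) = 9 * (η * |s| * (K * l)) + τ * |s| := by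
          field_simp
        rw [e3] at e2
        linarith
      · rw [← h0]; norm_num
  have e : Qs τ η s t = 1 + τ * |s| + η * |s| * |s| + η * |s| * |t| := by unfold Qs; ring
  rw [e]; linarith

set_option maxHeartbeats 1000000 in
/-- **bundles** : near `T` (positions at the base height within `l / (4 K1)` along `ζ`) the common lines
form two flat planks. `K1 = 200 W^2 K^3`.  With the bound of the normal coordinate. -/
theorem bundle3 {K d M W m l : ℝ} {g g' : ℝ × ℝ} {h h' : ℝ × ℝ × ℝ} {y0 y1 px s cx t : ℝ}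
    (H : Six K d M g g' h h' y0 y1 px s cx t) (hK : 1 ≤ K) (hW : 1 ≤ W) (hM : 0 < M)
    (hd : 100 * d ≤ 1) (hb : Bd (W * M) g h) (hb' : Bd (W * M) g' h')
    (hh : |h.2.2| ≤ W * M) (hh' : |h'.2.2| ≤ W * M)
    (hm : 100 * (K * (W * m)) ≤ 1) (hpx : |px| ≤ m) (hs : |s| ≤ m) (hcx : |cx| ≤ m)
    (ht : |t| ≤ m) (l0 : 0 < l) (l1 : l ≤ 1) (lτ : max |g.2| |g'.2| * l ≤ 1)
    (lη : max |h.2.2| |h'.2.2| * l ^ 2 ≤ 1)
    (hmax : l = 1 ∨ max |g.2| |g'.2| * l = 1 ∨ max |h.2.2| |h'.2.2| * l ^ 2 = 1) :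
    |px| ≤ 200 * W ^ 2 * K ^ 3 / M + |s| / 4 ∧
      (4 * (200 * W ^ 2 * K ^ 3) * |s| ≤ l →
        (|t| ≤ 4 * (200 * W ^ 2 * K ^ 3) * l ∨
          |t - ts g.2 h.2.2 g'.2 h'.2.2| ≤ 9 * (200 * W ^ 2 * K ^ 3) * l) ∧
        ∀ z : ℝ, |z| ≤ 1 → |px + z * cx| ≤ 10 * (200 * W ^ 2 * K ^ 3) / M ∧
          |y0 + z * y1| ≤ 10 * (200 * W ^ 2 * K ^ 3)) := by
  have K0 : 0 < K := by linarith
  have W0 : 0 < W := by linarith
  have m0 : 0 ≤ m := (abs_nonneg s).trans hs
  have s0 := abs_nonneg s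
  have Wm : 0 ≤ W * m := by positivity
  have hm1 : 100 * (W * m) ≤ 1 := by
    have : W * m ≤ K * (W * m) := le_mul_of_one_le_left Wm hK
    linarith
  have hm2 : m ≤ 1 := by
    have : m ≤ W * m := le_mul_of_one_le_left m0 hW
    linarith
  have B := bundle_eq (τ := max |g.2| |g'.2|) (η := max |h.2.2| |h'.2.2|) H hK hW hM hd hb hb'
    (le_max_left _ _) (le_max_right _ _) (le_max_left _ _) (le_max_right _ _) hm1 hpx hs hcx ht
  obtain ⟨τ, hτ⟩ : ∃ τ, τ = max |g.2| |g'.2| := ⟨_, rfl⟩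
  obtain ⟨η, hη⟩ : ∃ η, η = max |h.2.2| |h'.2.2| := ⟨_, rfl⟩
  rw [← hτ, ← hη] at B
  rw [← hτ] at lτ hmax
  rw [← hη] at lη hmax
  obtain ⟨B0, B1, B2, B3⟩ := B
  have η0 : 0 ≤ η := by rw [hη]; exact (abs_nonneg _).trans (le_max_left _ _)
  have ηM : η ≤ W * M := by rw [hη]; exact max_le hh hh'
  obtain ⟨F1, F2, F3, F4, F5, F6, F7, F8⟩ := facts hK hW (le_refl (1:ℝ))
  simp only [mul_one] at F1 F2 F3 F4 F5 F6 F7 F8
  obtain ⟨K1, hK1⟩ : ∃ K1, K1 = 200 * W ^ 2 * K ^ 3 := ⟨_, rfl⟩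
  rw [← hK1] at B2 B3 ⊢
  have K11 : 1 ≤ K1 := by rw [hK1]; linarith
  have KK1 : 8 * K ≤ K1 := by rw [hK1]; linarith
  have KK2 : 240 * W * K ^ 2 ≤ 2 * K1 := by rw [hK1]; linarith
  have y00 := abs_nonneg y0
  have y10 := abs_nonneg y1
  refine ⟨?_, ?_⟩
  · have e1 : M * |px| ≤ 4 * K + 4 * K * (η * s ^ 2) := by linarith
    have e2 : K * (η * s ^ 2) ≤ K * (W * m) * (M * |s|) := by
      have i1 : η * |s| ≤ (W * M) * m := mul_le_mul ηM hs s0 (by positivity)
      calc K * (η * s ^ 2) = K * ((η * |s|) * |s|) := by rw [← sq_abs s]; ring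
        _ ≤ K * (((W * M) * m) * |s|) := by
            refine mul_le_mul_of_nonneg_left (mul_le_mul_of_nonneg_right i1 s0) K0.le
        _ = K * (W * m) * (M * |s|) := by ring
    have e3 : 100 * (K * (W * m)) * (M * |s|) ≤ 1 * (M * |s|) :=
      mul_le_mul_of_nonneg_right hm (by positivity)
    have e4 : M * |px| ≤ K1 + M * |s| / 4 := by linarith [show 0 ≤ M * |s| by positivity]
    have e5 : K1 / M + |s| / 4 = (K1 + M * |s| / 4) / M := by field_simp
    rw [e5, le_div_iff₀ hM]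
    linarith
  · intro hs4
    have T := two_cluster K11 hτ hη l0 l1 lτ lη hmax (ht.trans hm2) hs4 B2 B3
    have Q4 := Qs_le K11 hτ hη l0 l1 lτ lη hs4 T
    refine ⟨T, fun z hz => ?_⟩
    have c1 : M * |cx| ≤ 2 * K1 := by
      have : 60 * W * K ^ 2 * Qs τ η s t ≤ 60 * W * K ^ 2 * 4 :=
        mul_le_mul_of_nonneg_left Q4 (by positivity)
      linarith
    have c2 : M * |px| ≤ K1 := by
      have i1 : |s| ≤ l := by
        have : |s| ≤ K1 * |s| := le_mul_of_one_le_left s0 K11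
        have : 0 ≤ K1 * |s| := by positivity
        linarith
      have i2 : η * s ^ 2 ≤ 1 := by
        calc η * s ^ 2 = η * (|s| ^ 2) := by rw [sq_abs]
          _ ≤ η * l ^ 2 := by gcongr
          _ ≤ 1 := lη
      have : 4 * K * (1 + η * s ^ 2) ≤ 4 * K * 2 :=
        mul_le_mul_of_nonneg_left (by linarith) (by positivity)
      linarith
    have d1 : |y1| ≤ 2 * K1 := by
      have : 60 * W * K ^ 2 * Qs τ η s t ≤ 60 * W * K ^ 2 * 4 :=
        mul_le_mul_of_nonneg_left Q4 (by positivity)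
      have : 0 ≤ M * |cx| := by positivity
      linarith
    have d2 : |y0| ≤ K1 := by
      have i1 : |s| ≤ l := by
        have : |s| ≤ K1 * |s| := le_mul_of_one_le_left s0 K11
        have : 0 ≤ K1 * |s| := by positivity
        linarith
      have i2 : η * s ^ 2 ≤ 1 := by
        calc η * s ^ 2 = η * (|s| ^ 2) := by rw [sq_abs]
          _ ≤ η * l ^ 2 := by gcongr
          _ ≤ 1 := lη
      have : 4 * K * (1 + η * s ^ 2) ≤ 4 * K * 2 :=
        mul_le_mul_of_nonneg_left (by linarith) (by positivity)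
      have : 0 ≤ M * |px| := by positivity
      linarith
    refine ⟨?_, ?_⟩
    · rw [le_div_iff₀ hM]
      have c3 : |px + z * cx| ≤ |px| + 1 * |cx| := by
        refine (abs_add_le _ _).trans (add_le_add le_rfl ?_)
        rw [abs_mul]
        exact mul_le_mul_of_nonneg_right hz (abs_nonneg _)
      calc |px + z * cx| * M ≤ (|px| + 1 * |cx|) * M := mul_le_mul_of_nonneg_right c3 hM.le
        _ = M * |px| + M * |cx| := by ring
        _ ≤ 10 * K1 := by linarith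
    · have c3 : |y0 + z * y1| ≤ |y0| + 1 * |y1| := by
        refine (abs_add_le _ _).trans (add_le_add le_rfl ?_)
        rw [abs_mul]
        exact mul_le_mul_of_nonneg_right hz (abs_nonneg _)
      linarith

/-- `bundle3` without the normal coordinate -/
theorem bundle {K d M W m l : ℝ} {g g' : ℝ × ℝ} {h h' : ℝ × ℝ × ℝ} {y0 y1 px s cx t : ℝ}
    (H : Six K d M g g' h h' y0 y1 px s cx t) (hK : 1 ≤ K) (hW : 1 ≤ W) (hM : 0 < M)
    (hd : 100 * d ≤ 1) (hb : Bd (W * M) g h) (hb' : Bd (W * M) g' h')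
    (hh : |h.2.2| ≤ W * M) (hh' : |h'.2.2| ≤ W * M)
    (hm : 100 * (K * (W * m)) ≤ 1) (hpx : |px| ≤ m) (hs : |s| ≤ m) (hcx : |cx| ≤ m)
    (ht : |t| ≤ m) (l0 : 0 < l) (l1 : l ≤ 1) (lτ : max |g.2| |g'.2| * l ≤ 1)
    (lη : max |h.2.2| |h'.2.2| * l ^ 2 ≤ 1)
    (hmax : l = 1 ∨ max |g.2| |g'.2| * l = 1 ∨ max |h.2.2| |h'.2.2| * l ^ 2 = 1) :
    |px| ≤ 200 * W ^ 2 * K ^ 3 / M + |s| / 4 ∧
      (4 * (200 * W ^ 2 * K ^ 3) * |s| ≤ l →
        (|t| ≤ 4 * (200 * W ^ 2 * K ^ 3) * l ∨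
          |t - ts g.2 h.2.2 g'.2 h'.2.2| ≤ 9 * (200 * W ^ 2 * K ^ 3) * l) ∧
        ∀ z : ℝ, |z| ≤ 1 → |px + z * cx| ≤ 10 * (200 * W ^ 2 * K ^ 3) / M) := by
  obtain ⟨h1, h2⟩ := bundle3 H hK hW hM hd hb hb' hh hh' hm hpx hs hcx ht l0 l1 lτ lη hmax
  exact ⟨h1, fun h => ⟨(h2 h).1, fun z hz => ((h2 h).2 z hz).1⟩⟩

/-- the length `l = min 1 (1/τ) (1/√η)` -/
theorem exists_l (τ η : ℝ) (τ0 : 0 ≤ τ) (η0 : 0 ≤ η) : ∃ l : ℝ, 0 < l ∧ l ≤ 1 ∧ τ * l ≤ 1 ∧
    η * l ^ 2 ≤ 1 ∧ (l = 1 ∨ τ * l = 1 ∨ η * l ^ 2 = 1) ∧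
    ∀ B, 1 ≤ B → τ ≤ B → η ≤ B → 1 ≤ B * l := by
  obtain ⟨σ, hσ⟩ : ∃ σ, σ = Real.sqrt η := ⟨_, rfl⟩
  have σ0 : 0 ≤ σ := by rw [hσ]; exact Real.sqrt_nonneg _
  have hσ2 : σ ^ 2 = η := by rw [hσ]; exact Real.sq_sqrt η0
  obtain ⟨μ, hμ⟩ : ∃ μ, μ = max 1 (max τ σ) := ⟨_, rfl⟩
  have m1 : 1 ≤ μ := by rw [hμ]; exact le_max_left _ _
  have mτ : τ ≤ μ := by rw [hμ]; exact (le_max_left _ _).trans (le_max_right _ _)
  have mσ : σ ≤ μ := by rw [hμ]; exact (le_max_right _ _).trans (le_max_right _ _)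
  have μ0 : 0 < μ := by linarith
  refine ⟨μ⁻¹, inv_pos.2 μ0, inv_le_one_of_one_le₀ m1, ?_, ?_, ?_, ?_⟩
  · rw [← div_eq_mul_inv, div_le_one μ0]; exact mτ
  · rw [← hσ2, ← mul_pow, ← div_eq_mul_inv]
    have : σ / μ ≤ 1 := (div_le_one μ0).2 mσ
    exact pow_le_one₀ (by positivity) this
  · rcases max_choice 1 (max τ σ) with h | h
    · left; rw [hμ, h, inv_one]
    · rcases max_choice τ σ with h' | h'
      · right; left
        rw [h'] at h
        have e : μ = τ := by rw [hμ, h', h]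
        rw [← e, mul_inv_cancel₀ μ0.ne']
      · right; right
        rw [h'] at h
        have e : μ = σ := by rw [hμ, h', h]
        rw [← hσ2, ← e, ← mul_pow, mul_inv_cancel₀ μ0.ne', one_pow]
  · intro B B1 Bτ Bη
    rw [← div_eq_mul_inv, le_div_iff₀ μ0, one_mul, hμ]
    refine max_le B1 (max_le Bτ ?_)
    rw [hσ]
    refine Real.sqrt_le_iff.2 ⟨by linarith, Bη.trans ?_⟩
    have : B * 1 ≤ B * B := mul_le_mul_of_nonneg_left B1 (by linarith)
    linarith [show B ^ 2 = B * B by ring]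

end Crest.Agent.R136.Clu108
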