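import Crest.Agent.R136.GR2_650

/-!
# R136, L15, record closeness (helper650), part 3: `gR` for the straight chart
-/

set_option autoImplicit false
set_option linter.unusedVariables false

open Finset Filter Topology

namespace Crest.Agent.R136.GR650

open Crest.Agent.R138.Ex926 (Base U)
open Crest.Agent.R138.Mk163 (zc zl rho alive)
open Crest.Agent.R138.MkRef627 (lc kc)
open Crest.Agent.R138.Dp76 (dpow_pos dpow_add dpow_le dpow_le_one)
open Crest.Agent.R138.ArgM163 (ev_const log_dpow)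
open Crest.Agent.R136.Net191
open Crest.Agent.R136.NetQ186
open Crest.Agent.R136.GeoQ186
open Crest.Agent.R136.Sh605

/-- the height lies in its cell -/
theorem zl_le (i : ℕ) (z : ℝ) : zl i (zc i z) ≤ z ∧ z ≤ zl i (zc i z) + rho i := by
  have hp : (0 : ℝ) < 2 ^ i := by positivity
  have h1 := Int.floor_le ((2 : ℝ) ^ i * z)
  have h2 := (Int.lt_floor_add_one ((2 : ℝ) ^ i * z)).le
  constructor
  · unfold zl zc
    rw [div_le_iff₀ hp]
    linarith
  · unfold zl zc rho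
    rw [← add_div, le_div_iff₀ hp]
    linarith

/-- finite form: sizes of the scaled coordinates, from ratios.  `Za`, ... = bounds of the ratios. -/
theorem size_le {H Wa Wb Wy ρ w0 w1 w2 e : ℝ} (hH : 0 < H) (ha : 0 < Wa) (hb : 0 < Wb)
    (hy : 0 < Wy) (hρ : 0 < ρ) (h0 : 0 < w0) (h2 : 0 < w2) (h1 : 0 < w1) (he : 1 ≤ e)
    (h02 : w0 ≤ w2) (h21 : w2 ≤ w1) {x : Fin 11 → ℝ}
    (x0 : |x 0| ≤ ρ) (x1 : x 1 = 0) (x2 : |x 2| ≤ w2 / w1 * e) (x3 : |x 3| ≤ w0 / w2 * e)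
    (x4 : |x 4| ≤ w0 / w1 * e) (x5 : |x 5| ≤ 2 * (w0 * e + w1 * e + w2 * e) / ρ)
    (x6 : |x 6| ≤ 2 * (2 * (w0 * e + w2 * e)) / ρ) (x7 : |x 7| ≤ 2 * (2 * (w0 * e)) / ρ)
    (x8 : |x 8| ≤ w0 * e + w1 * e + w2 * e) (x9 : |x 9| ≤ 2 * (w0 * e + w2 * e))
    (x10 : |x 10| ≤ 2 * (w0 * e)) (k : Fin 11) :
    |sfac H Wa Wb Wy k * x k| ≤ 8 * e *
      ![H * ρ, 0, (w2 / ρ / Wb) / (w1 / ρ / Wa), (w0 / ρ / Wy) / (w2 / ρ / Wb),
        (w0 / ρ / Wy) / (w1 / ρ / Wa), w1 / ρ / Wa, w2 / ρ / Wb, w0 / ρ / Wy,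
        H * ρ * (w1 / ρ / Wa), H * ρ * (w2 / ρ / Wb), H * ρ * (w0 / ρ / Wy)] k := by
  have he0 : 0 < e := by linarith
  have mul : ∀ {s y b c : ℝ}, 0 < s → |y| ≤ b → s * b ≤ c → |s * y| ≤ c := by
    intro s y b c hs hy hc
    rw [abs_mul, abs_of_pos hs]
    exact (mul_le_mul_of_nonneg_left hy hs.le).trans hc
  have q01 : w0 ≤ w1 := h02.trans h21
  fin_cases k
  · show |H * x 0| ≤ 8 * e * (H * ρ)
    refine mul hH x0 ?_
    have : 0 < H * ρ := by positivity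
    nlinarith
  · show |1 / (H * Wy) * x 1| ≤ 8 * e * 0
    rw [x1, mul_zero, mul_zero, abs_zero]
  · show |Wa / Wb * x 2| ≤ 8 * e * ((w2 / ρ / Wb) / (w1 / ρ / Wa))
    refine mul (by positivity) x2 ?_
    have e1 : (w2 / ρ / Wb) / (w1 / ρ / Wa) = Wa / Wb * (w2 / w1) := by field_simp
    rw [e1]
    have : 0 < Wa / Wb * (w2 / w1) := by positivity
    nlinarith [mul_pos this he0]
  · show |Wb / Wy * x 3| ≤ 8 * e * ((w0 / ρ / Wy) / (w2 / ρ / Wb))
    refine mul (by positivity) x3 ?_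
    have e1 : (w0 / ρ / Wy) / (w2 / ρ / Wb) = Wb / Wy * (w0 / w2) := by field_simp
    rw [e1]
    have : 0 < Wb / Wy * (w0 / w2) := by positivity
    nlinarith [mul_pos this he0]
  · show |Wa / Wy * x 4| ≤ 8 * e * ((w0 / ρ / Wy) / (w1 / ρ / Wa))
    refine mul (by positivity) x4 ?_
    have e1 : (w0 / ρ / Wy) / (w1 / ρ / Wa) = Wa / Wy * (w0 / w1) := by field_simp
    rw [e1]
    have : 0 < Wa / Wy * (w0 / w1) := by positivity
    nlinarith [mul_pos this he0]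
  · show |1 / Wa * x 5| ≤ 8 * e * (w1 / ρ / Wa)
    refine mul (by positivity) x5 ?_
    have e1 : 1 / Wa * (2 * (w0 * e + w1 * e + w2 * e) / ρ) =
        2 * e * ((w0 + w1 + w2) / (ρ * Wa)) := by field_simp
    have e2 : 8 * e * (w1 / ρ / Wa) = 2 * e * (4 * w1 / (ρ * Wa)) := by field_simp; ring
    rw [e1, e2]
    refine mul_le_mul_of_nonneg_left ?_ (by positivity)
    exact div_le_div_of_nonneg_right (by linarith) (by positivity)
  · show |1 / Wb * x 6| ≤ 8 * e * (w2 / ρ / Wb)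
    refine mul (by positivity) x6 ?_
    have e1 : 1 / Wb * (2 * (2 * (w0 * e + w2 * e)) / ρ) =
        4 * e * ((w0 + w2) / (ρ * Wb)) := by field_simp; ring
    have e2 : 8 * e * (w2 / ρ / Wb) = 4 * e * (2 * w2 / (ρ * Wb)) := by field_simp; ring
    rw [e1, e2]
    refine mul_le_mul_of_nonneg_left ?_ (by positivity)
    exact div_le_div_of_nonneg_right (by linarith) (by positivity)
  · show |1 / Wy * x 7| ≤ 8 * e * (w0 / ρ / Wy)
    refine mul (by positivity) x7 ?_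
    have e1 : 1 / Wy * (2 * (2 * (w0 * e)) / ρ) = 4 * e * (w0 / ρ / Wy) := by
      field_simp; ring
    rw [e1]
    have : 0 < e * (w0 / ρ / Wy) := by positivity
    nlinarith
  · show |H / Wa * x 8| ≤ 8 * e * (H * ρ * (w1 / ρ / Wa))
    refine mul (by positivity) x8 ?_
    have e1 : H / Wa * (w0 * e + w1 * e + w2 * e) = e * (H / Wa) * (w0 + w1 + w2) := by ring
    have e2 : 8 * e * (H * ρ * (w1 / ρ / Wa)) = e * (H / Wa) * (8 * w1) := by field_simp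
    rw [e1, e2]
    exact mul_le_mul_of_nonneg_left (by linarith) (by positivity)
  · show |H / Wb * x 9| ≤ 8 * e * (H * ρ * (w2 / ρ / Wb))
    refine mul (by positivity) x9 ?_
    have e1 : H / Wb * (2 * (w0 * e + w2 * e)) = e * (H / Wb) * (2 * (w0 + w2)) := by ring
    have e2 : 8 * e * (H * ρ * (w2 / ρ / Wb)) = e * (H / Wb) * (8 * w2) := by field_simp
    rw [e1, e2]
    exact mul_le_mul_of_nonneg_left (by linarith) (by positivity)
  · show |H / Wy * x 10| ≤ 8 * e * (H * ρ * (w0 / ρ / Wy))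
    refine mul (by positivity) x10 ?_
    have e1 : H / Wy * (2 * (w0 * e)) = e * (H / Wy) * (2 * w0) := by ring
    have e2 : 8 * e * (H * ρ * (w0 / ρ / Wy)) = e * (H / Wy) * (8 * w0) := by field_simp
    rw [e1, e2]
    exact mul_le_mul_of_nonneg_left (by linarith) (by positivity)

section

variable {B : Base} {I : ℕ → Finset (ℕ × ℝ)} {lev : ℕ → ℚ → ℕ} {f : ℕ → ℚ → ℕ → ℤ → ℕ}
  {w : Fin 3 → ℕ → ℚ → ℝ} {θ : Fin 3 → ℝ} {w0 sa sb sy R1 : ℝ}

/-- unit of the heights -/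
noncomputable def uH (B : Base) (lev : ℕ → ℚ → ℕ) (w0 : ℝ) (n : ℕ) : ℝ :=
  B.d n ^ w0 * 2 ^ (lev n 0)

/-- angular unit of the width `j`, shift `s` -/
noncomputable def uW (B : Base) (lev : ℕ → ℚ → ℕ) (w : Fin 3 → ℕ → ℚ → ℝ) (j : Fin 3) (s : ℝ)
    (n : ℕ) : ℝ := w j n 1 / rho (lev n 1) * B.d n ^ (-s)

/-- linear widths -/
structure LinW (B : Base) (lev : ℕ → ℚ → ℕ) (w : Fin 3 → ℕ → ℚ → ℝ) (θ : Fin 3 → ℝ) : Prop where
  lev_lim : ∀ u v : ℚ, 0 ≤ u → u ≤ v → v ≤ 1 →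
    Tendsto (fun n => ((lev n v : ℝ) - lev n u) * Real.log 2 / B.L n) U (𝓝 ((v : ℝ) - u))
  wpos : ∀ j, ∀ v : ℚ, 0 ≤ v → v ≤ 1 → ∀ᶠ n in (U : Filter ℕ), 0 < w j n v
  tau : ∀ j, ∀ v : ℚ, 0 ≤ v → v ≤ 1 →
    Tendsto (fun n => Real.log ((rho (lev n v) / w j n v) / (rho (lev n 1) / w j n 1)) / B.L n) U
      (𝓝 (θ j * (1 - v)))
  ord : ∀ v : ℚ, 0 ≤ v → v ≤ 1 → ∀ᶠ n in (U : Filter ℕ), w 0 n v ≤ w 2 n v ∧ w 2 n v ≤ w 1 n v

/-- sizes of the record box, in the units -/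
theorem LinW.sizes (h : LinW B lev w θ) {u : ℚ} (u0 : 0 ≤ u) (u1 : u ≤ 1) {t : ℝ} (ht : 0 < t) :
    ∀ᶠ n in (U : Filter ℕ), ∀ k : Fin 11, k ≠ 1 →
      ![uH B lev w0 n * rho (lev n u), 0,
        (w 2 n u / rho (lev n u) / uW B lev w 2 sb n) / (w 1 n u / rho (lev n u) / uW B lev w 1 sa n),
        (w 0 n u / rho (lev n u) / uW B lev w 0 sy n) / (w 2 n u / rho (lev n u) / uW B lev w 2 sb n),
        (w 0 n u / rho (lev n u) / uW B lev w 0 sy n) / (w 1 n u / rho (lev n u) / uW B lev w 1 sa n),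
        w 1 n u / rho (lev n u) / uW B lev w 1 sa n, w 2 n u / rho (lev n u) / uW B lev w 2 sb n,
        w 0 n u / rho (lev n u) / uW B lev w 0 sy n,
        uH B lev w0 n * rho (lev n u) * (w 1 n u / rho (lev n u) / uW B lev w 1 sa n),
        uH B lev w0 n * rho (lev n u) * (w 2 n u / rho (lev n u) / uW B lev w 2 sb n),
        uH B lev w0 n * rho (lev n u) * (w 0 n u / rho (lev n u) / uW B lev w 0 sy n)] k ≤
      B.d n ^ (rS θ w0 sa sb sy R1 u k - t) := by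
  have h2 : (0 : ℝ) < t / 2 := by positivity
  have hz := ev_rho (h.lev_lim 0 u le_rfl u0 u1) h2
  have ang : ∀ j, ∀ᶠ n in (U : Filter ℕ),
      B.d n ^ (θ j * (1 - u) + t / 2) ≤
        (w j n u / rho (lev n u)) / (w j n 1 / rho (lev n 1)) ∧
      (w j n u / rho (lev n u)) / (w j n 1 / rho (lev n 1)) ≤ B.d n ^ (θ j * (1 - u) - t / 2) :=
    fun j => ev_ang (h.wpos j u u0 u1) (h.wpos j 1 zero_le_one le_rfl) (h.tau j u u0 u1) h2
  filter_upwards [hz, ang 0, ang 1, ang 2, h.wpos 0 1 zero_le_one le_rfl,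
    h.wpos 1 1 zero_le_one le_rfl, h.wpos 2 1 zero_le_one le_rfl, h.wpos 0 u u0 u1,
    h.wpos 1 u u0 u1, h.wpos 2 u u0 u1] with n hz a0 a1 a2 p0 p1 p2 q0 q1 q2 k hk
  have add : ∀ a b : ℝ, B.d n ^ a * B.d n ^ b = B.d n ^ (a + b) := fun a b => (dpow_add B n a b).symm
  have dp := dpow_pos B n
  have hρ := rho_pos (lev n u)
  have hρ1 := rho_pos (lev n 1)
  -- the angular ratios
  have key : ∀ (j : Fin 3) (s : ℝ), 0 < w j n u → 0 < w j n 1 →
      B.d n ^ (θ j * (1 - u) + t / 2) ≤ (w j n u / rho (lev n u)) / (w j n 1 / rho (lev n 1)) →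
      (w j n u / rho (lev n u)) / (w j n 1 / rho (lev n 1)) ≤ B.d n ^ (θ j * (1 - u) - t / 2) →
      B.d n ^ (θ j * (1 - u) + s + t / 2) ≤ w j n u / rho (lev n u) / uW B lev w j s n ∧
      w j n u / rho (lev n u) / uW B lev w j s n ≤ B.d n ^ (θ j * (1 - u) + s - t / 2) := by
    intro j s hu h1 a b
    have e1 : w j n u / rho (lev n u) / uW B lev w j s n =
        (w j n u / rho (lev n u)) / (w j n 1 / rho (lev n 1)) * B.d n ^ s := by
      unfold uW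
      rw [Real.rpow_neg (B.pos n).le]
      have := dp s
      field_simp
    rw [e1]
    constructor
    · calc B.d n ^ (θ j * (1 - u) + s + t / 2) = B.d n ^ (θ j * (1 - u) + t / 2) * B.d n ^ s := by
            rw [add]; congr 1; ring
        _ ≤ _ := mul_le_mul_of_nonneg_right a (dp s).le
    · calc _ ≤ B.d n ^ (θ j * (1 - u) - t / 2) * B.d n ^ s :=
            mul_le_mul_of_nonneg_right b (dp s).le
        _ = _ := by rw [add]; congr 1; ring
  obtain ⟨ly, hy⟩ := key 0 sy q0 p0 a0.1 a0.2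
  obtain ⟨la, ha⟩ := key 1 sa q1 p1 a1.1 a1.2
  obtain ⟨lb, hb⟩ := key 2 sb q2 p2 a2.1 a2.2
  -- the height
  have hH : uH B lev w0 n * rho (lev n u) ≤ B.d n ^ (w0 + u - t / 2) := by
    have e1 : uH B lev w0 n * rho (lev n u) =
        B.d n ^ w0 * (rho (lev n u) / rho (lev n 0)) := by
      unfold uH
      have : rho (lev n 0) = ((2 : ℝ) ^ (lev n 0))⁻¹ := by unfold rho; rw [one_div]
      rw [this, div_inv_eq_mul]; ring
    rw [e1]
    calc B.d n ^ w0 * (rho (lev n u) / rho (lev n 0)) ≤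
          B.d n ^ w0 * B.d n ^ ((u : ℝ) - (0 : ℚ) - t / 2) :=
          mul_le_mul_of_nonneg_left hz.2 (dp w0).le
      _ = _ := by rw [add]; congr 1; push_cast; ring
  have hH0 : 0 ≤ uH B lev w0 n * rho (lev n u) := by
    unfold uH; have := dp w0; positivity
  generalize uH B lev w0 n * rho (lev n u) = Z at hH hH0 ⊢
  generalize w 0 n u / rho (lev n u) / uW B lev w 0 sy n = Y at ly hy ⊢
  generalize w 1 n u / rho (lev n u) / uW B lev w 1 sa n = A at la ha ⊢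
  generalize w 2 n u / rho (lev n u) / uW B lev w 2 sb n = Q at lb hb ⊢
  have hY0 : 0 < Y := (dp _).trans_le ly
  have hA0 : 0 < A := (dp _).trans_le la
  have hQ0 : 0 < Q := (dp _).trans_le lb
  have quo : ∀ {X Y a b c : ℝ}, 0 ≤ X → X ≤ B.d n ^ a → B.d n ^ b ≤ Y → c ≤ a - b →
      X / Y ≤ B.d n ^ c := by
    intro X Y a b c h0 h1 h2 h3
    calc X / Y ≤ B.d n ^ a / B.d n ^ b := div_le_div₀ (dp a).le h1 (dp b) h2
      _ = B.d n ^ (a - b) := by rw [← Real.rpow_sub (B.pos n)]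
      _ ≤ _ := dpow_le B n h3
  have prd : ∀ {X Y a b c : ℝ}, 0 ≤ X → X ≤ B.d n ^ a → Y ≤ B.d n ^ b → 0 ≤ Y → c ≤ a + b →
      X * Y ≤ B.d n ^ c := by
    intro X Y a b c h0 h1 h2 h4 h3
    calc X * Y ≤ B.d n ^ a * B.d n ^ b := mul_le_mul h1 h2 h4 (dp a).le
      _ = B.d n ^ (a + b) := add a b
      _ ≤ _ := dpow_le B n h3
  fin_cases k
  · show Z ≤ B.d n ^ (w0 + u - t)
    exact hH.trans (dpow_le B n (by linarith))
  · exact absurd rfl hk
  · show Q / A ≤ B.d n ^ ((θ 2 - θ 1) * (1 - u) + (sb - sa) - t)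
    exact quo hQ0.le hb la (by linarith)
  · show Y / Q ≤ B.d n ^ ((θ 0 - θ 2) * (1 - u) + (sy - sb) - t)
    exact quo hY0.le hy lb (by linarith)
  · show Y / A ≤ B.d n ^ ((θ 0 - θ 1) * (1 - u) + (sy - sa) - t)
    exact quo hY0.le hy la (by linarith)
  · show A ≤ B.d n ^ (θ 1 * (1 - u) + sa - t)
    exact ha.trans (dpow_le B n (by linarith))
  · show Q ≤ B.d n ^ (θ 2 * (1 - u) + sb - t)
    exact hb.trans (dpow_le B n (by linarith))
  · show Y ≤ B.d n ^ (θ 0 * (1 - u) + sy - t)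
    exact hy.trans (dpow_le B n (by linarith))
  · show Z * A ≤ B.d n ^ (w0 + u + (θ 1 * (1 - u) + sa) - t)
    exact prd hH0 hH ha hA0.le (by linarith)
  · show Z * Q ≤ B.d n ^ (w0 + u + (θ 2 * (1 - u) + sb) - t)
    exact prd hH0 hH hb hQ0.le (by linarith)
  · show Z * Y ≤ B.d n ^ (w0 + u + (θ 0 * (1 - u) + sy) - t)
    exact prd hH0 hH hy hY0.le (by linarith)

/-- **`gR` of the straight chart.**  Marks: box `(E, c, w)` over the cell; own flags close to the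
slopes of the mark, up to the precisions. -/
theorem gR_straight (h : LinW B lev w θ) (hu : Units θ w0 sa sb sy R1)
    {L : ℕ → ℕ → Ln4} {π : Equiv.Perm (Fin 3)} {E : ℕ → ℚ → ℕ × ℤ → Fin 3 → V3}
    {c : ℕ → ℚ → ℕ × ℤ → Ln4}
    (hadm : ∀ u : ℚ, 0 ≤ u → u ≤ 1 → ∀ᶠ n in (U : Filter ℕ), ∀ x ∈ I n,
      Adm π (E n u (kc (lev n u) (f n u) x)))
    (hin : ∀ u : ℚ, 0 ≤ u → u ≤ 1 → ∀ ε : ℝ, 0 < ε → ∀ᶠ n in (U : Filter ℕ), ∀ x ∈ I n, ∀ z,
      zl (lev n u) (zc (lev n u) x.2) ≤ z → z ≤ zl (lev n u) (zc (lev n u) x.2) + rho (lev n u) →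
        InK (E n u (kc (lev n u) (f n u) x)) (c n u (kc (lev n u) (f n u) x))
          (fun j => w j n u * B.d n ^ (-ε)) z ((L n x.1).pos z))
    {inc : ℕ → ℕ × ℝ → Fq4}
    (hinc : ∀ n, ∀ x ∈ I n, ∃ ee Fa Fb, inc n x = mkT (cLn π (L n x.1)) x.2 ee Fa Fb)
    (hfl : ∀ u : ℚ, 0 ≤ u → u ≤ 1 → ∀ ε : ℝ, 0 < ε → ∀ᶠ n in (U : Filter ℕ), ∀ x ∈ I n,
      |(inc n x).e - sE π (E n u (kc (lev n u) (f n u) x))| ≤
        w 2 n u / w 1 n u * B.d n ^ (-ε) ∧
      |(inc n x).fb - sB π (E n u (kc (lev n u) (f n u) x))| ≤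
        w 0 n u / w 2 n u * B.d n ^ (-ε) ∧
      |((inc n x).fa - sA π (E n u (kc (lev n u) (f n u) x))) +
        sE π (E n u (kc (lev n u) (f n u) x)) *
          ((inc n x).fb - sB π (E n u (kc (lev n u) (f n u) x)))| ≤
        w 0 n u / w 1 n u * B.d n ^ (-ε))
    (u : ℚ) (u0 : 0 ≤ u) (u1 : u ≤ 1) (ε : ℝ) (hε : 0 < ε) :
    ∀ᶠ n in (U : Filter ℕ), ∀ x ∈ I n, ∀ y ∈ I n,
      kc (lev n u) (f n u) y = kc (lev n u) (f n u) x → ∀ k,
        |coQ (scl (uH B lev w0 n) (uW B lev w 1 sa n) (uW B lev w 2 sb n) (uW B lev w 0 sy n)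
            (inc n x))
          (scl (uH B lev w0 n) (uW B lev w 1 sa n) (uW B lev w 2 sb n) (uW B lev w 0 sy n)
            (inc n y)) k| ≤ B.d n ^ (rS θ w0 sa sb sy R1 u k - ε) := by
  have u0' : (0 : ℝ) ≤ u := by exact_mod_cast u0
  have u1' : (u : ℝ) ≤ 1 := by exact_mod_cast u1
  obtain ⟨δ, hδ, hpos⟩ := hu.pos
  refine gR_of (Φ := Fq4) (M := monQ) (C := 2)
    (cF := fun n i j => coQ (scl (uH B lev w0 n) (uW B lev w 1 sa n) (uW B lev w 2 sb n)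
      (uW B lev w 0 sy n) i) (scl (uH B lev w0 n) (uW B lev w 1 sa n) (uW B lev w 2 sb n)
      (uW B lev w 0 sy n) j))
    (fun n J => chartQ J _) (hu.legal u0' u1') hδ (hpos u u0' u1')
    (cen := fun n u a => mkF π (c n u a) (zl (lev n u) a.2) (E n u a)) ?_ hε
  intro ε hε
  have h3 : 0 < ε / 3 := by positivity
  filter_upwards [hadm u u0 u1, hin u u0 u1 _ h3, hfl u u0 u1 _ h3,
    h.sizes (w0 := w0) (sa := sa) (sb := sb) (sy := sy) (R1 := R1) u0 u1 h3,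
    ev_const B (show (0 : ℝ) < 8 by norm_num) h3, h.ord u u0 u1,
    h.wpos 0 1 zero_le_one le_rfl, h.wpos 1 1 zero_le_one le_rfl, h.wpos 2 1 zero_le_one le_rfl,
    h.wpos 0 u u0 u1, h.wpos 1 u u0 u1, h.wpos 2 u u0 u1]
    with n hadm hin hfl hsz h8 hord p0 p1 p2 q0 q1 q2 x hx k
  have dp := dpow_pos B n
  have hρ := rho_pos (lev n u)
  have hρ1 := rho_pos (lev n 1)
  set a := kc (lev n u) (f n u) x with ha
  have ha2 : a.2 = zc (lev n u) x.2 := rfl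
  have hH : 0 < uH B lev w0 n := by unfold uH; have := dp w0; positivity
  have hWa : 0 < uW B lev w 1 sa n := by unfold uW; have := dp (-sa); positivity
  have hWb : 0 < uW B lev w 2 sb n := by unfold uW; have := dp (-sb); positivity
  have hWy : 0 < uW B lev w 0 sy n := by unfold uW; have := dp (-sy); positivity
  have he : 1 ≤ B.d n ^ (-(ε / 3)) := by linarith
  obtain ⟨z1, z2⟩ := zl_le (lev n u) x.2
  have hpl := plank_co (j := inc n x) (hadm x hx) hρ (zm := zl (lev n u) a.2) (z0 := zl (lev n u) a.2)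
    le_rfl (by linarith) (hin x hx) (by
      obtain ⟨ee, Fa, Fb, h⟩ := hinc n x hx
      exact ⟨x.2, ee, Fa, Fb, h⟩)
  obtain ⟨c1, c5, c6, c7, c8, c9, c10⟩ := hpl
  obtain ⟨f2, f3, f4⟩ := hfl x hx
  have hzx : (inc n x).z = x.2 := by
    obtain ⟨ee, Fa, Fb, h⟩ := hinc n x hx
    rw [h]; rfl
  have c0 : |coQ (mkF π (c n u a) (zl (lev n u) a.2) (E n u a)) (inc n x) 0| ≤ rho (lev n u) := by
    simp only [coQ, Matrix.cons_val, mkF, mkT, hzx, ha2]
    rw [abs_le]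
    constructor <;> linarith
  have c2 : |coQ (mkF π (c n u a) (zl (lev n u) a.2) (E n u a)) (inc n x) 2| ≤
      w 2 n u / w 1 n u * B.d n ^ (-(ε / 3)) := by
    simpa only [coQ, Matrix.cons_val, mkF, mkT] using f2
  have c3 : |coQ (mkF π (c n u a) (zl (lev n u) a.2) (E n u a)) (inc n x) 3| ≤
      w 0 n u / w 2 n u * B.d n ^ (-(ε / 3)) := by
    simpa only [coQ, Matrix.cons_val, mkF, mkT] using f3
  have c4 : |coQ (mkF π (c n u a) (zl (lev n u) a.2) (E n u a)) (inc n x) 4| ≤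
      w 0 n u / w 1 n u * B.d n ^ (-(ε / 3)) := by
    simpa only [coQ, Matrix.cons_val, mkF, mkT] using f4
  have hs := size_le hH hWa hWb hWy hρ q0 q2 q1 he hord.1 hord.2 c0 c1 c2 c3 c4 c5 c6 c7 c8 c9 c10 k
  show |coQ (scl _ _ _ _ (mkF π (c n u a) (zl (lev n u) a.2) (E n u a))) (scl _ _ _ _ (inc n x)) k| ≤
    B.d n ^ (rS θ w0 sa sb sy R1 u k - ε)
  rw [coQ_scl hH.ne' hWa.ne' hWb.ne' hWy.ne']
  by_cases hk : k = 1
  · subst hk
    rw [c1, mul_zero, abs_zero]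
    exact (dp _).le
  · refine hs.trans ?_
    have h5 := hsz k hk
    calc _ ≤ (B.d n ^ (-(ε / 3)) * B.d n ^ (-(ε / 3))) *
          B.d n ^ (rS θ w0 sa sb sy R1 u k - ε / 3) := by
          refine mul_le_mul (mul_le_mul_of_nonneg_right h8 (dp _).le) h5 ?_ (by
            have := dp (-(ε / 3)); positivity)
          fin_cases k <;> simp only [Fin.zero_eta, Fin.mk_one, Fin.reduceFinMk, Matrix.cons_val] <;>
            positivity
      _ = _ := by rw [← dpow_add, ← dpow_add]; congr 1; ring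

end

end Crest.Agent.R136.GR650
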