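import Mathlib
import Crest.Agent.R136.TD3_627
import Crest.Agent.R136.ArgA1_163

/-!
# R136: triangular slots (helper627), part 4: J2

`j2T` : marked sequence with linear exponents + tilt lemma in the slots with `0 < β j` + cell
hypothesis + product rule of the precisions ⟹ `NatT` (every slot invisible, tied or capped), flags
`fl n x = fr n 1 x`.

The chain over a fine mesh is run for all slots at once with the graded exponents
`-η (deg + 1)^j` (`WallE.grade`); `NearE` is closed under composition, so nothing accumulates.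
-/

set_option autoImplicit false
set_option linter.unusedVariables false
set_option linter.unusedSectionVars false

open Finset Filter Topology

namespace Crest.Agent.R136.TD627

open Crest.Agent.R138.Ex926 (Base U exists_diag)
open Crest.Agent.R138.Dp76
open Crest.Agent.R138.Ps926
open Crest.Agent.R138.Mk163 (zc zl rho alive own Negl)
open Crest.Agent.R138.NatTw76 (exists_avoid)
open Crest.Agent.R136.MkA627
open Crest.Agent.R136.Net191 (Mons)
open Crest.Agent.R136.ArgA163 (PrLin mq mq_zero mq_last mq_succ mq_ge mq_le le_of_log)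

variable {σ κ φ : Type*} {m : ℕ}

/-- tilt of the slot `j`, outside negligible sets -/
def TiltT (P : TDist φ m) (B : Base) (I : ℕ → Finset (ℕ × ℝ)) (fr : ℕ → ℚ → ℕ × ℝ → φ)
    (pr : Fin m → ℕ → ℚ → ℝ) (j : Fin m) (C : ℝ) : Prop :=
  ∀ u v : ℚ, 0 ≤ u → u < v → v ≤ 1 → ∀ ε : ℝ, 0 < ε → Negl B I fun n x =>
    max (pr j n u) (pr j n v) * B.d n ^ (-(C * ((v : ℝ) - u)) - ε) ≤
      P.d j n (fr n u x) (fr n v x)

/-- tilt of the slot `j`, everywhere -/
def TiltE (P : TDist φ m) (B : Base) (I : ℕ → Finset (ℕ × ℝ)) (fr : ℕ → ℚ → ℕ × ℝ → φ)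
    (pr : Fin m → ℕ → ℚ → ℝ) (j : Fin m) (C : ℝ) : Prop :=
  ∀ u v : ℚ, 0 ≤ u → u < v → v ≤ 1 → ∀ ε : ℝ, 0 < ε → ∀ᶠ n in (U : Filter ℕ), ∀ x ∈ I n,
    P.d j n (fr n u x) (fr n v x) ≤
      max (pr j n u) (pr j n v) * B.d n ^ (-(C * ((v : ℝ) - u)) - ε)

/-- zero slot: the flags of all levels of one line agree to infinite order in the slot `j` -/
def ZeroS (P : TDist φ m) (B : Base) (I : ℕ → Finset (ℕ × ℝ)) (fr : ℕ → ℚ → ℕ × ℝ → φ)
    (pr : Fin m → ℕ → ℚ → ℝ) (j : Fin m) : Prop :=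
  ∀ u v : ℚ, 0 ≤ u → u ≤ 1 → 0 ≤ v → v ≤ 1 → ∀ M : ℝ, ∀ᶠ n in (U : Filter ℕ), ∀ x ∈ I n,
    ∀ y ∈ I n, y.1 = x.1 → P.d j n (fr n u x) (fr n v y) ≤ pr j n 0 * B.d n ^ M

theorem ZeroS.dense {P : TDist φ m} {B : Base} {I J : ℕ → Finset (ℕ × ℝ)}
    {fr : ℕ → ℚ → ℕ × ℝ → φ} {pr : Fin m → ℕ → ℚ → ℝ} {j : Fin m} (h : ZeroS P B I fr pr j)
    (hd : Dense B J I) : ZeroS P B J fr pr j := by
  intro u v h0 h1 h2 h3 M
  filter_upwards [h u v h0 h1 h2 h3 M, hd.1] with n a1 a2 x hx y hy using a1 x (a2 hx) y (a2 hy)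

/-- exact form: distance `0` -/
theorem ZeroS.of_eq {P : TDist φ m} {B : Base} {I : ℕ → Finset (ℕ × ℝ)}
    {fr : ℕ → ℚ → ℕ × ℝ → φ} {pr : Fin m → ℕ → ℚ → ℝ} {j : Fin m}
    (hp : ∀ᶠ n in (U : Filter ℕ), 0 < pr j n 0)
    (h : ∀ u v : ℚ, 0 ≤ u → u ≤ 1 → 0 ≤ v → v ≤ 1 → ∀ᶠ n in (U : Filter ℕ), ∀ x ∈ I n,
      ∀ y ∈ I n, y.1 = x.1 → P.d j n (fr n u x) (fr n v y) ≤ 0) : ZeroS P B I fr pr j := by
  intro u v h0 h1 h2 h3 M
  filter_upwards [h u v h0 h1 h2 h3, hp] with n a1 a2 x hx y hy hxy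
  exact (a1 x hx y hy hxy).trans (mul_pos a2 (dpow_pos B n M)).le

/-- cell hypothesis on the level flags -/
def CellT (P : TDist φ m) (B : Base) (I : ℕ → Finset (ℕ × ℝ)) (lev : ℕ → ℚ → ℕ)
    (fr : ℕ → ℚ → ℕ × ℝ → φ) (pr : Fin m → ℕ → ℚ → ℝ) : Prop :=
  ∀ j, ∀ v : ℚ, 0 ≤ v → v ≤ 1 → ∀ ε : ℝ, 0 < ε → ∀ᶠ n in (U : Filter ℕ), ∀ x ∈ I n,
    ∀ y ∈ I n, y.1 = x.1 → zc (lev n v) y.2 = zc (lev n v) x.2 →
      P.d j n (fr n v x) (fr n v y) ≤ pr j n v * B.d n ^ (-ε)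

/-- the flags of the marks are constant in a cell: `CellT` -/
theorem cellT_frA {P : TDist φ m} {B : Base} {I : ℕ → Finset (ℕ × ℝ)} {lev : ℕ → ℚ → ℕ}
    {f : ℕ → ℚ → ℕ → ℤ → ℕ} {e : ℕ → ℚ → ℕ → φ} {pr : Fin m → ℕ → ℚ → ℝ}
    (hp : ∀ j, ∀ v : ℚ, 0 ≤ v → v ≤ 1 → ∀ᶠ n in (U : Filter ℕ), 0 < pr j n v) :
    CellT P B I lev (fun n v x => frA lev f e n v x) pr := by
  intro j v h0 h1 ε hε
  filter_upwards [hp j v h0 h1] with n hn x hx y hy hxy hz
  have e1 : frA lev f e n v x = frA lev f e n v y := by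
    unfold frA
    rw [hxy, hz]
  rw [e1, P.self]
  exact (mul_pos hn (dpow_pos B n _)).le

/-- product rule of the precisions -/
def ProdT (P : TDist φ m) (B : Base) (pr : Fin m → ℕ → ℚ → ℝ) : Prop :=
  ∀ j, ∀ a ∈ P.M.mon j, ∀ v : ℚ, 0 ≤ v → v ≤ 1 → ∀ ε : ℝ, 0 < ε →
    ∀ᶠ n in (U : Filter ℕ), ∏ t, pr t n v ^ a t ≤ pr j n v * B.d n ^ (-ε)

section grade

variable {P : TDist φ m} {B : Base} {sc : Fin m → ℕ → ℝ}

/-- graded exponents -/
def grd (P : TDist φ m) (η : ℝ) (j : Fin m) : ℝ := -(η * ((P.M.deg : ℝ) + 1) ^ (j : ℕ))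

theorem grd_le (P : TDist φ m) {η : ℝ} (hη : 0 ≤ η) (j : Fin m) : grd P η j ≤ -η := by
  unfold grd
  have h1 : (1 : ℝ) ≤ ((P.M.deg : ℝ) + 1) ^ (j : ℕ) := one_le_pow₀ (by
    have : (0 : ℝ) ≤ P.M.deg := Nat.cast_nonneg _
    linarith)
  nlinarith

theorem WallE.grade (hw : WallE P B sc fun _ => 0) (hsc : ∀ j n, 0 < sc j n) {η : ℝ}
    (hη : 0 ≤ η) : WallE P B sc (grd P η) := by
  intro j a ha ε hε
  have hdeg : (0 : ℝ) ≤ P.M.deg := Nat.cast_nonneg _
  set D : ℝ := (P.M.deg : ℝ) + 1 with hD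
  have hD1 : 1 ≤ D := by rw [hD]; linarith
  have hsum : ∑ t, (a t : ℝ) * D ^ (t : ℕ) ≤ D ^ (j : ℕ) := by
    have h1 : ∀ t : Fin m, (a t : ℝ) * D ^ (t : ℕ) ≤ (a t : ℝ) * (D ^ (j : ℕ) / D) := by
      intro t
      by_cases ht : a t = 0
      · rw [ht]; simp
      · refine mul_le_mul_of_nonneg_left ?_ (Nat.cast_nonneg _)
        have h2 : t < j := mon_lt P.M ha ht
        rw [le_div_iff₀ (by linarith), ← pow_succ]
        exact pow_le_pow_right₀ hD1 (Nat.succ_le_of_lt h2)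
    calc ∑ t, (a t : ℝ) * D ^ (t : ℕ) ≤ ∑ t, (a t : ℝ) * (D ^ (j : ℕ) / D) :=
          Finset.sum_le_sum fun t _ => h1 t
      _ = (∑ t, (a t : ℝ)) * (D ^ (j : ℕ) / D) := by rw [Finset.sum_mul]
      _ ≤ D * (D ^ (j : ℕ) / D) := by
          refine mul_le_mul_of_nonneg_right ?_ (by positivity)
          have := sum_nat_le P.M ha
          rw [hD]; linarith
      _ = D ^ (j : ℕ) := by field_simp
  filter_upwards [hw j a ha ε hε] with n hn
  rw [prod_dpow] at hn ⊢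
  have e1 : ∑ t, (a t : ℝ) * (0 : ℝ) = 0 := by simp
  rw [e1, Real.rpow_zero, mul_one] at hn
  refine (mul_le_mul_of_nonneg_right hn (dpow_pos B n _).le).trans ?_
  rw [mul_assoc, ← dpow_add]
  refine mul_le_mul_of_nonneg_left (dpow_le B n ?_) (hsc j n).le
  have e2 : ∑ t, (a t : ℝ) * grd P η t = -(η * ∑ t, (a t : ℝ) * D ^ (t : ℕ)) := by
    unfold grd
    rw [Finset.mul_sum, ← Finset.sum_neg_distrib]
    exact Finset.sum_congr rfl fun t _ => by ring
  rw [e2]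
  have e3 : grd P η j = -(η * D ^ (j : ℕ)) := rfl
  rw [e3]
  have := mul_le_mul_of_nonneg_left hsum hη
  linarith

/-- a bound for all graded exponents is a bound -/
theorem NearE.of_grade {ι : Type*} {S : ℕ → ι → Prop} {a b : ℕ → ι → φ}
    (hsc : ∀ j n, 0 < sc j n)
    (h : ∀ η : ℝ, 0 < η → NearE P B sc (grd P η) S a b) : NearE P B sc (fun _ => 0) S a b := by
  intro j ε hε
  have hdeg : (0 : ℝ) ≤ P.M.deg := Nat.cast_nonneg _
  set D : ℝ := ((P.M.deg : ℝ) + 1) ^ (j : ℕ) with hD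
  have hD1 : 1 ≤ D := by rw [hD]; exact one_le_pow₀ (by linarith)
  filter_upwards [h (ε / (2 * D)) (by positivity) j (ε / 2) (by positivity)] with n hn p hp
  refine (hn p hp).trans (mul_le_mul_of_nonneg_left (dpow_le B n ?_) (hsc j n).le)
  have e1 : grd P (ε / (2 * D)) j = -(ε / 2) := by
    have : grd P (ε / (2 * D)) j = -(ε / (2 * D) * D) := rfl
    rw [this]
    field_simp
  rw [e1]
  linarith

end grade

section

variable {P : TDist φ m} {G : Geo σ κ} {g s : ℝ} {θ : κ → ℝ} {β C0 : Fin m → ℝ}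
    {B : Base} {I : ℕ → Finset (ℕ × ℝ)} {lev : ℕ → ℚ → ℕ} {A : ℕ → ℝ}
    {f : ℕ → ℚ → ℕ → ℤ → ℕ} {b : ℕ → ℚ → ℕ → σ} {vm : ℕ → ℚ → ℝ} {w : κ → ℕ → ℚ → ℝ}
    {fr : ℕ → ℚ → ℕ × ℝ → φ} {pr : Fin m → ℕ → ℚ → ℝ}

/-- precision of level `u`, made positive -/
noncomputable def ps (pr : Fin m → ℕ → ℚ → ℝ) (u : ℚ) (j : Fin m) (n : ℕ) : ℝ :=
  if 0 < pr j n u then pr j n u else 1

theorem ps_pos (pr : Fin m → ℕ → ℚ → ℝ) (u : ℚ) (j : Fin m) (n : ℕ) : 0 < ps pr u j n := by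
  unfold ps
  split_ifs with h
  · exact h
  · exact one_pos

theorem ps_eq {pr : Fin m → ℕ → ℚ → ℝ} {u : ℚ} {j : Fin m} {n : ℕ} (h : 0 < pr j n u) :
    ps pr u j n = pr j n u := if_pos h

/-- two precisions, `β u ≤ β s + δ` -/
theorem pr_pair (hpr : ∀ j, PrLin B pr j (β j)) (j : Fin m) {u s : ℚ} (h0 : 0 ≤ u) (h1 : u ≤ 1)
    (h2 : 0 ≤ s) (h3 : s ≤ 1) {δ : ℝ} (hδ : β j * ((u : ℝ) - s) < δ) :
    ∀ᶠ n in (U : Filter ℕ), pr j n s ≤ pr j n u * B.d n ^ (-δ) := by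
  have h5 := (hpr j).pair h0 h1 h2 h3
  filter_upwards [h5.eventually_const_lt (show -δ < β j * ((s : ℝ) - u) by nlinarith),
    (hpr j).1 u h0 h1, (hpr j).1 s h2 h3] with n a b c
  exact le_of_log c b a.le

theorem wall_ps (hpr : ∀ j, PrLin B pr j (β j)) (hwpr : ProdT P B pr) {u : ℚ} (h0 : 0 ≤ u)
    (h1 : u ≤ 1) : WallE P B (ps pr u) fun _ => 0 := by
  intro j a ha ε hε
  have hall : ∀ᶠ n in (U : Filter ℕ), ∀ t : Fin m, 0 < pr t n u := by
    rw [Filter.eventually_all]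
    exact fun t => (hpr t).1 u h0 h1
  filter_upwards [hall, hwpr j a ha u h0 h1 ε hε] with n a1 a2
  have e1 : ∀ t, ps pr u t n = pr t n u := fun t => ps_eq (a1 t)
  rw [e1]
  simp only [e1, Real.rpow_zero, mul_one, zero_sub]
  exact a2

/-- **chain over a fine mesh** -/
theorem near_up {C : Fin m → ℝ} (hC : ∀ j, 0 ≤ C j) (hpr : ∀ j, PrLin B pr j (β j))
    (hT : ∀ j, ZeroS P B I fr pr j ∨ (0 < β j ∧ TiltE P B I fr pr j (C j)))
    (hwpr : ProdT P B pr) {u s₁ s₂ : ℚ} (h0 : 0 ≤ u) (hus : u ≤ s₁) (hss : s₁ ≤ s₂)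
    (hs1 : s₂ ≤ 1) :
    NearE P B (ps pr u) (fun _ => 0) (fun n x => x ∈ I n) (fun n x => fr n s₁ x)
      (fun n x => fr n s₂ x) := by
  have h1 : u ≤ 1 := hus.trans (hss.trans hs1)
  have hspos := ps_pos pr u
  rcases hss.eq_or_lt with rfl | hlt
  · intro j ε hε
    refine Eventually.of_forall fun n x hx => ?_
    rw [P.self]
    exact (mul_pos (hspos j n) (dpow_pos B n _)).le
  refine NearE.of_grade hspos fun η hη => ?_
  have hw := (wall_ps (P := P) hpr hwpr h0 h1).grade hspos hη.le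
  have hba : (0 : ℝ) < (s₂ : ℝ) - s₁ := by
    have : (s₁ : ℝ) < s₂ := by exact_mod_cast hlt
    linarith
  set Cm : ℝ := ∑ j, C j with hCm
  have hCj : ∀ j, C j ≤ Cm := fun j => Finset.single_le_sum (fun i _ => hC i) (mem_univ j)
  have hCm0 : 0 ≤ Cm := Finset.sum_nonneg fun j _ => hC j
  obtain ⟨N, hN⟩ := exists_nat_gt (Cm * ((s₂ : ℝ) - s₁) / η)
  have hNpos : 0 < N := by
    rcases Nat.eq_zero_or_pos N with h | h
    · exfalso
      rw [h] at hN
      have : 0 ≤ Cm * ((s₂ : ℝ) - s₁) / η := by positivity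
      simp only [Nat.cast_zero] at hN
      linarith
    · exact h
  have hN' : (0 : ℝ) < N := by exact_mod_cast hNpos
  have hcc : Cm * (((s₂ : ℝ) - s₁) / N) ≤ η := by
    rw [div_lt_iff₀ hη] at hN
    rw [← mul_div_assoc, div_le_iff₀ hN']
    linarith
  -- one step of the mesh
  have hstep : ∀ i, i < N → NearE P B (ps pr u) (grd P η) (fun n x => x ∈ I n)
      (fun n x => fr n (mq s₁ s₂ N i) x) (fun n x => fr n (mq s₁ s₂ N (i + 1)) x) := by
    intro i hi j ε hε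
    have hstp : (0 : ℚ) < (s₂ - s₁) / N := by
      have : (0 : ℚ) < N := by exact_mod_cast hNpos
      exact div_pos (by linarith) this
    have hd := mq_succ s₁ s₂ hNpos i
    have g0 : u ≤ mq s₁ s₂ N i := hus.trans (mq_ge hlt.le N i)
    have g1 : u ≤ mq s₁ s₂ N (i + 1) := hus.trans (mq_ge hlt.le N (i + 1))
    have k0 : mq s₁ s₂ N i ≤ 1 := (mq_le hlt.le hNpos hi.le).trans hs1
    have k1 : mq s₁ s₂ N (i + 1) ≤ 1 := (mq_le hlt.le hNpos hi).trans hs1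
    have hgr := grd_le P hη.le j
    rcases hT j with hZ | ⟨hβ, hTj⟩
    · -- zero slot
      filter_upwards [hZ _ _ (h0.trans g0) k0 (h0.trans g1) k1 (|β j| + 1 + |grd P η j|),
        pr_pair hpr j h0 h1 le_rfl zero_le_one (δ := |β j| + 1) (by
          have h3 : (u : ℝ) ≤ 1 := by exact_mod_cast h1
          have h4 : (0 : ℝ) ≤ u := by exact_mod_cast h0
          have h5 := le_abs_self (β j)
          have h6 := abs_nonneg (β j)
          push_cast
          nlinarith), (hpr j).1 u h0 h1] with n a1 a2 a3 x hx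
      refine (a1 x hx x hx rfl).trans ?_
      rw [ps_eq a3]
      refine (mul_le_mul_of_nonneg_right a2 (dpow_pos B n _).le).trans ?_
      rw [mul_assoc, ← dpow_add]
      refine mul_le_mul_of_nonneg_left (dpow_le B n ?_) a3.le
      have := le_abs_self (grd P η j)
      linarith
    · have hβ' : ∀ q : ℚ, u ≤ q → β j * ((u : ℝ) - q) < ε / 4 := fun q hq => by
        have : (u : ℝ) ≤ q := by exact_mod_cast hq
        have h2 : 0 ≤ β j * ((q : ℝ) - u) := mul_nonneg hβ.le (by linarith)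
        nlinarith
      filter_upwards [hTj _ _ (h0.trans g0) (by linarith) k1 (ε / 4) (by positivity),
        pr_pair hpr j h0 h1 (h0.trans g0) k0 (hβ' _ g0),
        pr_pair hpr j h0 h1 (h0.trans g1) k1 (hβ' _ g1), (hpr j).1 u h0 h1] with n a1 a2 a3 a4 x hx
      refine (a1 x hx).trans ?_
      rw [ps_eq a4]
      refine (mul_le_mul_of_nonneg_right (max_le a2 a3) (dpow_pos B n _).le).trans ?_
      rw [mul_assoc, ← dpow_add]
      refine mul_le_mul_of_nonneg_left (dpow_le B n ?_) a4.le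
      have h5 : ((mq s₁ s₂ N (i + 1) : ℚ) : ℝ) - (mq s₁ s₂ N i : ℚ) = ((s₂ : ℝ) - s₁) / N := by
        rw [← Rat.cast_sub, hd]; push_cast; ring
      rw [h5]
      have h6 : C j * (((s₂ : ℝ) - s₁) / N) ≤ η :=
        (mul_le_mul_of_nonneg_right (hCj j) (by positivity)).trans hcc
      linarith
  have key : ∀ i, i ≤ N → NearE P B (ps pr u) (grd P η) (fun n x => x ∈ I n)
      (fun n x => fr n (mq s₁ s₂ N 0) x) (fun n x => fr n (mq s₁ s₂ N i) x) := by
    intro i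
    induction i with
    | zero =>
      intro _ j ε hε
      refine Eventually.of_forall fun n x hx => ?_
      rw [P.self]
      exact (mul_pos (hspos j n) (dpow_pos B n _)).le
    | succ i ih =>
      intro hi
      exact (ih (by omega)).trans hw hspos (hstep i (by omega))
  have h2 := key N le_rfl
  rw [mq_zero, mq_last s₁ s₂ hNpos] at h2
  exact h2

/-- **closeness of the top flags to the flags of every level**, in every slot. -/
theorem closeT {C : Fin m → ℝ} (hC : ∀ j, 0 ≤ C j) (hpr : ∀ j, PrLin B pr j (β j))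
    (hT : ∀ j, ZeroS P B I fr pr j ∨ (0 < β j ∧ TiltE P B I fr pr j (C j)))
    (hwpr : ProdT P B pr) (j : Fin m) (v : ℚ) (h0 : 0 ≤ v) (h1 : v ≤ 1) (ε : ℝ) (hε : 0 < ε) :
    ∀ᶠ n in (U : Filter ℕ), ∀ x ∈ I n,
      P.d j n (fr n 1 x) (fr n v x) ≤ pr j n v * B.d n ^ (-ε) := by
  have h2 := (near_up (P := P) hC hpr hT hwpr h0 le_rfl h1 le_rfl).symm
    (wall_ps (P := P) hpr hwpr h0 h1) (ps_pos pr v)
  filter_upwards [h2 j ε hε, (hpr j).1 v h0 h1] with n a1 a2 x hx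
  have := a1 x hx
  rw [ps_eq a2] at this
  simpa using this

open Classical in
/-- slot data on a dense part, from the tilt lemma. -/
theorem tsys_of_tilt {C : Fin m → ℝ}
    (hM : MkA B I G lev A (fun v => g * v) (fun v => s * v) (fun j v => θ j * (1 - v)) f b vm w)
    (hC : ∀ j, 0 ≤ C j) (hpr : ∀ j, PrLin B pr j (β j))
    (hT : ∀ j, ZeroS P B I fr pr j ∨ (0 < β j ∧ TiltT P B I fr pr j (C j)))
    (hcell : CellT P B I lev fr pr) (hwpr : ProdT P B pr) :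
    ∃ J : ℕ → Finset (ℕ × ℝ), (∀ n, J n ⊆ I n) ∧ Dense B J I ∧
      TSys P G g s θ β B J lev A f b vm w fr pr (fun n x => fr n 1 x) (ps pr 0) := by
  have hprc : ∀ j, ∀ v : ℚ, 0 ≤ v → v ≤ 1 →
      Tendsto (fun n => Real.log (ps pr 0 j n / pr j n v) / B.L n) U (𝓝 (β j * v)) := by
    intro j v h0 h1
    refine ((hpr j).2 v h0 h1).congr' ?_
    filter_upwards [(hpr j).1 0 le_rfl zero_le_one] with n hn
    rw [ps_eq hn]
  rcases isEmpty_or_nonempty (Fin m) with hι | hι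
  · exact ⟨I, fun n => Finset.Subset.refl _, Dense.refl B I,
      ⟨hM, ps_pos pr 0, fun j => (hι.false j).elim, fun j => (hι.false j).elim,
        fun j => (hι.false j).elim, fun j => (hι.false j).elim, fun j => (hι.false j).elim⟩⟩
  have : Nonempty (Fin m × (ℚ × ℚ) × ℕ) := ⟨(Classical.arbitrary (Fin m), (0, 0), 0)⟩
  obtain ⟨en, hen⟩ := exists_surjective_nat (Fin m × (ℚ × ℚ) × ℕ)
  have hN : ∀ k, Negl B I fun n x =>
      ((0 < β (en k).1 ∧ TiltT P B I fr pr (en k).1 (C (en k).1)) ∧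
        0 ≤ (en k).2.1.1 ∧ (en k).2.1.1 < (en k).2.1.2 ∧ (en k).2.1.2 ≤ 1) ∧
      max (pr (en k).1 n (en k).2.1.1) (pr (en k).1 n (en k).2.1.2) *
          B.d n ^ (-(C (en k).1 * (((en k).2.1.2 : ℝ) - (en k).2.1.1)) -
            (1 / (((en k).2.2 : ℝ) + 1))) ≤
        P.d (en k).1 n (fr n (en k).2.1.1 x) (fr n (en k).2.1.2 x) := by
    intro k
    by_cases h : (0 < β (en k).1 ∧ TiltT P B I fr pr (en k).1 (C (en k).1)) ∧
        0 ≤ (en k).2.1.1 ∧ (en k).2.1.1 < (en k).2.1.2 ∧ (en k).2.1.2 ≤ 1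
    · exact (h.1.2 (en k).2.1.1 (en k).2.1.2 h.2.1 h.2.2.1 h.2.2.2 (1 / (((en k).2.2 : ℝ) + 1))
        (by positivity)).mono (Eventually.of_forall fun n x _ hx => hx.2)
    · exact Negl.false.mono (Eventually.of_forall fun n x _ hx => h hx.1)
  obtain ⟨J0, hJ0I, hJ0d, hJ0⟩ := exists_avoid (B := B) (I := I) _ hN
  obtain ⟨J, hJs, hJd, -, hJ⟩ := MkA.refine' hM hJ0d
  have hJI : Dense B J I := hJd.trans hJ0d
  have hT' : ∀ j, ZeroS P B J fr pr j ∨ (0 < β j ∧ TiltE P B J fr pr j (C j)) := by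
    intro j
    rcases hT j with hZ | hTj
    · exact Or.inl (hZ.dense hJI)
    · refine Or.inr ⟨hTj.1, fun u v h0 huv h1 ε hε => ?_⟩
      obtain ⟨K, hK⟩ := exists_nat_one_div_lt hε
      obtain ⟨k, hk⟩ := hen (j, (u, v), K)
      have h2 := hJ0 k
      rw [hk] at h2
      filter_upwards [h2, (hpr j).1 u h0 (huv.le.trans h1)] with n a1 a2 x hx
      have a3 := a1 x (hJs n hx)
      have a4 : ¬ max (pr j n u) (pr j n v) * B.d n ^ (-(C j * ((v : ℝ) - u)) -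
          (1 / ((K : ℝ) + 1))) ≤ P.d j n (fr n u x) (fr n v x) :=
        fun hc => a3 ⟨⟨hTj, h0, huv, h1⟩, hc⟩
      refine (not_le.1 a4).le.trans ?_
      refine mul_le_mul_of_nonneg_left (dpow_le B n ?_) (a2.le.trans (le_max_left _ _))
      linarith
  refine ⟨J, fun n => (hJs n).trans (hJ0I n), hJI, hJ, ps_pos pr 0, fun j => (hpr j).1, hprc,
    fun j v h0 h1 ε hε => ?_, fun j v h0 h1 ε hε => closeT hC hpr hT' hwpr j v h0 h1 ε hε, hwpr⟩
  filter_upwards [hcell j v h0 h1 ε hε] with n a1 x hx y hy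
  exact a1 x ((hJs n).trans (hJ0I n) hx) y ((hJs n).trans (hJ0I n) hy)

/-- **J2 for triangular slots**: linear marked sequence with the tilt lemma in the slots with
`0 < β j` (the others are zero slots): after a zoom every slot is invisible, tied or capped. -/
theorem j2T [Countable κ] {C : Fin m → ℝ}
    (hM : MkA B I G lev A (fun v => g * v) (fun v => s * v) (fun j v => θ j * (1 - v)) f b vm w)
    (hC : ∀ j, 0 ≤ C j) (hpr : ∀ j, PrLin B pr j (β j))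
    (hT : ∀ j, ZeroS P B I fr pr j ∨ (0 < β j ∧ TiltT P B I fr pr j (C j)))
    (hcell : CellT P B I lev fr pr) (hwpr : ProdT P B pr) (hC0 : ∀ j, β j ≤ C0 j) :
    NatT P G g s θ β C0 (fun n x => fr n 1 x) B I lev f b vm w fr pr := by
  obtain ⟨J, hJI, hJd, hS⟩ := tsys_of_tilt hM hC hpr hT hcell hwpr
  refine NatT.mono (Eventually.of_forall hJI) (hS.natT (fun j => ?_) hC0)
  rcases hT j with hZ | hTj
  · left
    intro M
    filter_upwards [hZ 1 1 zero_le_one le_rfl zero_le_one le_rfl M,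
      (hpr j).1 0 le_rfl zero_le_one] with n a1 a2 x hx y hy hxy
    rw [ps_eq a2]
    exact a1 x (hJI n hx) y (hJI n hy) hxy
  · exact Or.inr hTj.1

end

end Crest.Agent.R136.TD627
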