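import Mathlib
import Crest.Agent.R136.TD4_627

/-!
# R136, U6 thick side (helper627): slot system of the flags of planks

`sn n v x = (e, fb, fa)` : slopes of the flag of the mark of level `v` at the incidence `x`;
slots `0 = E`, `1 = F_b`, `2 = F_a`, distance in the last one `(fa' - fa) + e (fb' - fb)`.

* `tdF` : triangular distances;
* `chainR`, `closeR` : chain over a fine mesh for real functions of the level;
* `flF` : composite flags (sign rule);
* `tsysF` : linear marked sequence + tilt of the three slots ⟹ `TSys` on a dense part;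
* `natF` : ⟹ `NatT`.
-/

set_option autoImplicit false
set_option linter.unusedVariables false
set_option linter.unusedSectionVars false

open Finset Filter Topology

namespace Crest.Agent.R136.Ut627

open Crest.Agent.R138.Ex926 (Base U)
open Crest.Agent.R138.Dp76
open Crest.Agent.R138.Mk163 (zc zl rho alive own Negl)
open Crest.Agent.R138.NatTw76 (exists_avoid)
open Crest.Agent.R136.MkA627
open Crest.Agent.R136.Net191 (Mons)
open Crest.Agent.R136.TD627
open Crest.Agent.R136.ArgA163 (PrLin mq mq_zero mq_last mq_succ mq_ge mq_le le_of_log prLin_mono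
  monoW)

/-! ### the triangular distances -/

/-- monomials: `E F_b` in the slot `F_a` -/
def monF : Mons 3 where
  mon := ![∅, ∅, {![1, 1, 0]}]
  low := by
    intro k e he s hs
    fin_cases k
    · simp at he
    · simp at he
    · simp only [Fin.reduceFinMk, Matrix.cons_val, Finset.mem_singleton] at he
      subst he
      fin_cases s
      · exact absurd hs (by decide)
      · exact absurd hs (by decide)
      · rfl
  ne := by
    intro k e he
    fin_cases k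
    · simp at he
    · simp at he
    · simp only [Fin.reduceFinMk, Matrix.cons_val, Finset.mem_singleton] at he
      subst he
      exact ⟨0, by simp⟩

theorem mem_monF {k : Fin 3} {a : Fin 3 → ℕ} (ha : a ∈ monF.mon k) : k = 2 ∧ a = ![1, 1, 0] := by
  fin_cases k
  · simp [monF] at ha
  · simp [monF] at ha
  · exact ⟨rfl, by simpa [monF] using ha⟩

/-- coordinates of the flag `b` seen from the flag `a` -/
def coF (a b : Fin 3 → ℝ) : Fin 3 → ℝ :=
  ![b 0 - a 0, b 1 - a 1, (b 2 - a 2) + a 0 * (b 1 - a 1)]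

theorem coF_zero (a b : Fin 3 → ℝ) : coF a b 0 = b 0 - a 0 := rfl
theorem coF_one (a b : Fin 3 → ℝ) : coF a b 1 = b 1 - a 1 := rfl
theorem coF_two (a b : Fin 3 → ℝ) : coF a b 2 = (b 2 - a 2) + a 0 * (b 1 - a 1) := rfl

theorem coF_refl (a : Fin 3 → ℝ) (k : Fin 3) : coF a a k = 0 := by
  fin_cases k <;> simp [coF]

theorem coF_add (a b c : Fin 3 → ℝ) (k : Fin 3) :
    |coF a c k - coF a b k - coF b c k| ≤
      1 * ∑ e ∈ monF.mon k, ∏ s, (max |coF a b s| |coF b c s|) ^ e s := by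
  fin_cases k
  · simp only [Fin.zero_eta, Fin.isValue, coF_zero, one_mul]
    have e1 : c 0 - a 0 - (b 0 - a 0) - (c 0 - b 0) = 0 := by ring
    rw [e1, abs_zero]
    exact Finset.sum_nonneg fun e _ => Finset.prod_nonneg fun s _ =>
      pow_nonneg ((abs_nonneg _).trans (le_max_left _ _)) _
  · simp only [Fin.mk_one, Fin.isValue, coF_one, one_mul]
    have e1 : c 1 - a 1 - (b 1 - a 1) - (c 1 - b 1) = 0 := by ring
    rw [e1, abs_zero]
    exact Finset.sum_nonneg fun e _ => Finset.prod_nonneg fun s _ =>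
      pow_nonneg ((abs_nonneg _).trans (le_max_left _ _)) _
  · have e0 : monF.mon ⟨2, by norm_num⟩ = {![1, 1, 0]} := rfl
    rw [e0, Finset.sum_singleton, Fin.prod_univ_three, one_mul]
    simp only [Fin.reduceFinMk, Fin.isValue, coF_two, coF_zero, coF_one, Matrix.cons_val,
      pow_one, pow_zero, mul_one]
    have e1 : c 2 - a 2 + a 0 * (c 1 - a 1) - (b 2 - a 2 + a 0 * (b 1 - a 1)) -
        (c 2 - b 2 + b 0 * (c 1 - b 1)) = -((b 0 - a 0) * (c 1 - b 1)) := by ring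
    rw [e1, abs_neg, abs_mul]
    exact mul_le_mul (le_max_left _ _) (le_max_right _ _) (abs_nonneg _)
      ((abs_nonneg _).trans (le_max_left _ _))

/-- **triangular distances of the flags of planks** -/
noncomputable def tdF : TDist (Fin 3 → ℝ) 3 :=
  TDist.ofChart monF (fun _ a b => coF a b) 1 zero_le_one (fun _ a k => coF_refl a k)
    fun _ a b c k => coF_add a b c k

theorem tdF_d (j : Fin 3) (n : ℕ) (a b : Fin 3 → ℝ) : tdF.d j n a b = |coF a b j| := rfl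

/-! ### precisions -/

/-- precisions of the slots: `w₂/w₁`, `w₀/w₂`, `w₀/w₁` (`0` thickness, `1` wide, `2` narrow) -/
noncomputable def prF (w : Fin 3 → ℕ → ℚ → ℝ) (j : Fin 3) (n : ℕ) (v : ℚ) : ℝ :=
  ![w 2 n v / w 1 n v, w 0 n v / w 2 n v, w 0 n v / w 1 n v] j

theorem prF_zero (w : Fin 3 → ℕ → ℚ → ℝ) (n : ℕ) (v : ℚ) : prF w 0 n v = w 2 n v / w 1 n v := rfl
theorem prF_one (w : Fin 3 → ℕ → ℚ → ℝ) (n : ℕ) (v : ℚ) : prF w 1 n v = w 0 n v / w 2 n v := rfl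
theorem prF_two (w : Fin 3 → ℕ → ℚ → ℝ) (n : ℕ) (v : ℚ) : prF w 2 n v = w 0 n v / w 1 n v := rfl

/-- rates of the slots -/
def btF (θ : Fin 3 → ℝ) (j : Fin 3) : ℝ := ![θ 1 - θ 2, θ 2 - θ 0, θ 1 - θ 0] j

theorem btF_zero (θ : Fin 3 → ℝ) : btF θ 0 = θ 1 - θ 2 := rfl
theorem btF_one (θ : Fin 3 → ℝ) : btF θ 1 = θ 2 - θ 0 := rfl
theorem btF_two (θ : Fin 3 → ℝ) : btF θ 2 = θ 1 - θ 0 := rfl

section

variable {σ : Type*} {G : Geo σ (Fin 3)} {g s : ℝ} {θ : Fin 3 → ℝ}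
    {B : Base} {I : ℕ → Finset (ℕ × ℝ)} {lev : ℕ → ℚ → ℕ} {A : ℕ → ℝ}
    {f : ℕ → ℚ → ℕ → ℤ → ℕ} {b : ℕ → ℚ → ℕ → σ} {vm : ℕ → ℚ → ℝ} {w : Fin 3 → ℕ → ℚ → ℝ}

theorem prF_eq (lev : ℕ → ℚ → ℕ) (w : Fin 3 → ℕ → ℚ → ℝ) (j : Fin 3) (n : ℕ) (v : ℚ) :
    prF w j n v = monoW lev w (![![0, -1, 1], ![1, 0, -1], ![1, -1, 0]] j) 0 n v := by
  unfold monoW
  rw [Real.rpow_zero, mul_one, Fin.prod_univ_three]
  fin_cases j
  · simp only [prF, Fin.zero_eta, Fin.isValue, Matrix.cons_val]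
    rw [Real.rpow_zero, Real.rpow_neg_one, Real.rpow_one]
    ring
  · simp only [prF, Fin.mk_one, Fin.isValue, Matrix.cons_val]
    rw [Real.rpow_zero, Real.rpow_neg_one, Real.rpow_one]
    ring
  · simp only [prF, Fin.reduceFinMk, Matrix.cons_val]
    rw [Real.rpow_zero, Real.rpow_neg_one, Real.rpow_one]
    ring

theorem prLinF
    (hM : MkA B I G lev A (fun v => g * v) (fun v => s * v) (fun j v => θ j * (1 - v)) f b vm w)
    (j : Fin 3) : PrLin B (prF w) j (btF θ j) := by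
  have h1 := prLin_mono (pr := prF w) (j := j) hM (a := ![![0, -1, 1], ![1, 0, -1], ![1, -1, 0]] j)
    (a₀ := 0) (fun n v => prF_eq lev w j n v)
  convert h1 using 1
  rw [Fin.sum_univ_three]
  fin_cases j
  · simp only [btF, Fin.zero_eta, Fin.isValue, Matrix.cons_val]; ring
  · simp only [btF, Fin.mk_one, Fin.isValue, Matrix.cons_val]; ring
  · simp only [btF, Fin.reduceFinMk, Matrix.cons_val]; ring

theorem wpos_all {c Λ : ℝ → ℝ} {τ : Fin 3 → ℝ → ℝ} (hM : MkA B I G lev A c Λ τ f b vm w) {v : ℚ}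
    (h0 : 0 ≤ v) (h1 : v ≤ 1) : ∀ᶠ n in (U : Filter ℕ), ∀ k, 0 < w k n v :=
  Filter.eventually_all.2 fun k => hM.wpos k v h0 h1

theorem prF_mul {n : ℕ} {v : ℚ} (h : ∀ k, 0 < w k n v) :
    prF w 0 n v * prF w 1 n v = prF w 2 n v := by
  rw [prF_zero, prF_one, prF_two]
  have h1 := h 1
  have h2 := h 2
  field_simp

theorem prodF {c Λ : ℝ → ℝ} {τ : Fin 3 → ℝ → ℝ} (hM : MkA B I G lev A c Λ τ f b vm w) :
    ProdT tdF B (prF w) := by
  intro j a ha v h0 h1 ε hε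
  obtain ⟨rfl, rfl⟩ := mem_monF (show a ∈ monF.mon j from ha)
  filter_upwards [wpos_all hM h0 h1] with n hn
  rw [Fin.prod_univ_three]
  simp only [Matrix.cons_val, pow_one, pow_zero, mul_one]
  rw [prF_mul hn]
  have h2 : 0 < prF w 2 n v := div_pos (hn 0) (hn 1)
  have h3 : 1 ≤ B.d n ^ (-ε) := by
    have := dpow_le B n (show -ε ≤ 0 by linarith)
    rwa [Real.rpow_zero] at this
  nlinarith

/-! ### chains of real functions -/

/-- chain over a fine mesh -/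
theorem chainR {J : ℕ → Finset (ℕ × ℝ)} {h : ℕ → ℚ → ℕ × ℝ → ℝ} {p : ℕ → ℚ → ℝ} {C : ℝ}
    (hC : 0 ≤ C)
    (hT : ∀ u v : ℚ, 0 ≤ u → u < v → v ≤ 1 → ∀ ε : ℝ, 0 < ε → ∀ᶠ n in (U : Filter ℕ), ∀ x ∈ J n,
      |h n v x - h n u x| ≤ max (p n u) (p n v) * B.d n ^ (-(C * ((v : ℝ) - u)) - ε))
    {a b : ℚ} (ha : 0 ≤ a) (hab : a ≤ b) (hb : b ≤ 1) {M : ℕ → ℝ}
    (hM0 : ∀ᶠ n in (U : Filter ℕ), 0 < M n)
    (hM : ∀ s : ℚ, a ≤ s → s ≤ b → ∀ δ : ℝ, 0 < δ →
      ∀ᶠ n in (U : Filter ℕ), p n s ≤ M n * B.d n ^ (-δ)) {ε : ℝ} (hε : 0 < ε) :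
    ∀ᶠ n in (U : Filter ℕ), ∀ x ∈ J n, |h n b x - h n a x| ≤ M n * B.d n ^ (-ε) := by
  rcases hab.eq_or_lt with rfl | hlt
  · filter_upwards [hM0] with n hn x hx
    rw [sub_self, abs_zero]
    exact (mul_pos hn (dpow_pos B n _)).le
  obtain ⟨N, hN⟩ := exists_nat_gt (C * ((b : ℝ) - a) / (ε / 4))
  have hba : (0 : ℝ) < (b : ℝ) - a := by
    have : (a : ℝ) < b := by exact_mod_cast hlt
    linarith
  have hNpos : 0 < N := by
    rcases Nat.eq_zero_or_pos N with h | h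
    · exfalso
      rw [h] at hN
      have : 0 ≤ C * ((b : ℝ) - a) / (ε / 4) := by positivity
      simp only [Nat.cast_zero] at hN
      linarith
    · exact h
  have hN' : (0 : ℝ) < N := by exact_mod_cast hNpos
  have hcc : C * (((b : ℝ) - a) / N) ≤ ε / 4 := by
    rw [div_lt_iff₀ (by positivity)] at hN
    rw [← mul_div_assoc, div_le_iff₀ hN']
    linarith
  have hstp : (0 : ℚ) < (b - a) / N := by
    have : (0 : ℚ) < N := by exact_mod_cast hNpos
    exact div_pos (by linarith) this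
  have hstep : ∀ᶠ n in (U : Filter ℕ), ∀ i ∈ range N, ∀ x ∈ J n,
      |h n (mq a b N (i + 1)) x - h n (mq a b N i) x| ≤
        max (p n (mq a b N i)) (p n (mq a b N (i + 1))) *
          B.d n ^ (-(C * (((mq a b N (i + 1) : ℚ) : ℝ) - (mq a b N i : ℚ))) - ε / 4) := by
    rw [Filter.eventually_all_finset]
    intro i hi
    have hi' : i < N := mem_range.1 hi
    have hd := mq_succ a b hNpos i
    exact hT _ _ (ha.trans (mq_ge hlt.le N i)) (by linarith) ((mq_le hlt.le hNpos hi').trans hb)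
      (ε / 4) (by positivity)
  have hMall : ∀ᶠ n in (U : Filter ℕ), ∀ i ∈ range (N + 1),
      p n (mq a b N i) ≤ M n * B.d n ^ (-(ε / 4)) := by
    rw [Filter.eventually_all_finset]
    intro i hi
    exact hM _ (mq_ge hlt.le N i) (mq_le hlt.le hNpos (Nat.lt_succ_iff.1 (mem_range.1 hi)))
      (ε / 4) (by positivity)
  filter_upwards [hM0, hstep, hMall, ev_const B (C := (N : ℝ)) (ε := ε / 4) (Nat.cast_nonneg _)
    (by positivity)] with n h0 h1 h2 h3 x hx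
  have e1 : h n b x - h n a x =
      ∑ i ∈ range N, (h n (mq a b N (i + 1)) x - h n (mq a b N i) x) := by
    rw [Finset.sum_range_sub (fun i => h n (mq a b N i) x), mq_zero, mq_last a b hNpos]
  rw [e1]
  have hone : ∀ i ∈ range N, |h n (mq a b N (i + 1)) x - h n (mq a b N i) x| ≤
      M n * B.d n ^ (-(3 * (ε / 4))) := by
    intro i hi
    refine (h1 i hi x hx).trans ?_
    have m1 : max (p n (mq a b N i)) (p n (mq a b N (i + 1))) ≤ M n * B.d n ^ (-(ε / 4)) :=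
      max_le (h2 i (mem_range.2 (by have := mem_range.1 hi; omega)))
        (h2 (i + 1) (mem_range.2 (by have := mem_range.1 hi; omega)))
    refine (mul_le_mul_of_nonneg_right m1 (dpow_pos B n _).le).trans ?_
    rw [mul_assoc, ← dpow_add]
    refine mul_le_mul_of_nonneg_left (dpow_le B n ?_) h0.le
    have h5 : ((mq a b N (i + 1) : ℚ) : ℝ) - (mq a b N i : ℚ) = ((b : ℝ) - a) / N := by
      rw [← Rat.cast_sub, mq_succ a b hNpos i]; push_cast; ring
    rw [h5]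
    linarith
  refine (Finset.abs_sum_le_sum_abs _ _).trans ((Finset.sum_le_sum hone).trans ?_)
  rw [Finset.sum_const, Finset.card_range, nsmul_eq_mul]
  have b2 := h3 (M n) (-ε) h0.le
  have e2 : -ε + ε / 4 = -(3 * (ε / 4)) := by ring
  rwa [e2] at b2

/-- level at which a slot with rate `β` is read -/
noncomputable def lvl (β : ℝ) : ℚ := if 0 < β then 1 else 0

/-- closeness of the value at the level `lvl β` to the values at all levels -/
theorem closeR {J : ℕ → Finset (ℕ × ℝ)} {h : ℕ → ℚ → ℕ × ℝ → ℝ} {pr : Fin 3 → ℕ → ℚ → ℝ}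
    {j : Fin 3} {C β : ℝ} (hC : 0 ≤ C)
    (hT : ∀ u v : ℚ, 0 ≤ u → u < v → v ≤ 1 → ∀ ε : ℝ, 0 < ε → ∀ᶠ n in (U : Filter ℕ), ∀ x ∈ J n,
      |h n v x - h n u x| ≤ max (pr j n u) (pr j n v) * B.d n ^ (-(C * ((v : ℝ) - u)) - ε))
    (hp : PrLin B pr j β) {v : ℚ} (h0 : 0 ≤ v) (h1 : v ≤ 1) {ε : ℝ} (hε : 0 < ε) :
    ∀ᶠ n in (U : Filter ℕ), ∀ x ∈ J n,
      |h n v x - h n (lvl β) x| ≤ pr j n v * B.d n ^ (-ε) := by
  have hpair : ∀ s : ℚ, 0 ≤ s → s ≤ 1 → 0 ≤ β * ((s : ℝ) - v) → ∀ δ : ℝ, 0 < δ →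
      ∀ᶠ n in (U : Filter ℕ), pr j n s ≤ pr j n v * B.d n ^ (-δ) := by
    intro s hs hs1 hsg δ hδ
    have h2 := hp.pair h0 h1 hs hs1
    filter_upwards [h2.eventually_const_lt (show -δ < _ by linarith), hp.1 v h0 h1,
      hp.1 s hs hs1] with n a b c
    exact le_of_log c b a.le
  unfold lvl
  split_ifs with hβ
  · have := chainR hC hT h0 h1 le_rfl (hp.1 v h0 h1) (fun s hs hs1 => hpair s (h0.trans hs) hs1 (by
      have : (v : ℝ) ≤ s := by exact_mod_cast hs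
      exact mul_nonneg hβ.le (by linarith))) hε
    filter_upwards [this] with n hn x hx
    rw [abs_sub_comm]
    exact hn x hx
  · exact chainR hC hT le_rfl h0 h1 (hp.1 v h0 h1) (fun s hs hs1 => hpair s hs (hs1.trans h1) (by
      have : (s : ℝ) ≤ v := by exact_mod_cast hs1
      exact mul_nonneg_of_nonpos_of_nonpos (not_lt.1 hβ) (by linarith))) hε

/-! ### composite flags -/

/-- slope `e` of the composite flag -/
noncomputable def eS (θ : Fin 3 → ℝ) (sn : ℕ → ℚ → ℕ × ℝ → Fin 3 → ℝ) (n : ℕ) (x : ℕ × ℝ) : ℝ :=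
  sn n (lvl (btF θ 0)) x 0

/-- slope `fb` of the composite flag -/
noncomputable def bS (θ : Fin 3 → ℝ) (sn : ℕ → ℚ → ℕ × ℝ → Fin 3 → ℝ) (n : ℕ) (x : ℕ × ℝ) : ℝ :=
  sn n (lvl (btF θ 1)) x 1

/-- `fa + e fb` with the slope `e` of the composite flag -/
noncomputable def FS (θ : Fin 3 → ℝ) (sn : ℕ → ℚ → ℕ × ℝ → Fin 3 → ℝ) (n : ℕ) (v : ℚ)
    (x : ℕ × ℝ) : ℝ := sn n v x 2 + eS θ sn n x * sn n v x 1

/-- **composite flag** -/
noncomputable def flF (θ : Fin 3 → ℝ) (sn : ℕ → ℚ → ℕ × ℝ → Fin 3 → ℝ) (n : ℕ) (x : ℕ × ℝ) :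
    Fin 3 → ℝ :=
  ![eS θ sn n x, bS θ sn n x, FS θ sn n (lvl (btF θ 2)) x - eS θ sn n x * bS θ sn n x]

theorem coF_flF (θ : Fin 3 → ℝ) (sn : ℕ → ℚ → ℕ × ℝ → Fin 3 → ℝ) (n : ℕ) (v : ℚ) (x : ℕ × ℝ) :
    coF (flF θ sn n x) (sn n v x) = ![sn n v x 0 - eS θ sn n x, sn n v x 1 - bS θ sn n x,
      FS θ sn n v x - FS θ sn n (lvl (btF θ 2)) x] := by
  unfold coF flF
  ext k
  fin_cases k
  · simp
  · simp
  · simp only [Fin.isValue, Matrix.cons_val, Fin.reduceFinMk]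
    unfold FS
    ring

/-- hypothesis: the level flags are functions of the line and the cell -/
def SnCell (I : ℕ → Finset (ℕ × ℝ)) (lev : ℕ → ℚ → ℕ) (sn : ℕ → ℚ → ℕ × ℝ → Fin 3 → ℝ) : Prop :=
  ∀ v : ℚ, 0 ≤ v → v ≤ 1 → ∀ᶠ n in (U : Filter ℕ), ∀ x ∈ I n, ∀ y ∈ I n, y.1 = x.1 →
    zc (lev n v) y.2 = zc (lev n v) x.2 → sn n v y = sn n v x

variable {sn : ℕ → ℚ → ℕ × ℝ → Fin 3 → ℝ}

open Classical in
/-- tilt everywhere on a dense part -/
theorem exists_tiltE {C : ℝ} {c Λ : ℝ → ℝ} {τ : Fin 3 → ℝ → ℝ}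
    (hM : MkA B I G lev A c Λ τ f b vm w) (hT : ∀ j, TiltT tdF B I sn (prF w) j C) :
    ∃ J : ℕ → Finset (ℕ × ℝ), (∀ n, J n ⊆ I n) ∧ Dense B J I ∧ MkA B J G lev A c Λ τ f b vm w ∧
      ∀ j, TiltE tdF B J sn (prF w) j C := by
  have : Nonempty (Fin 3 × (ℚ × ℚ) × ℕ) := ⟨(0, (0, 0), 0)⟩
  obtain ⟨en, hen⟩ := exists_surjective_nat (Fin 3 × (ℚ × ℚ) × ℕ)
  have hN : ∀ k, Negl B I fun n x =>
      (0 ≤ (en k).2.1.1 ∧ (en k).2.1.1 < (en k).2.1.2 ∧ (en k).2.1.2 ≤ 1) ∧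
      max (prF w (en k).1 n (en k).2.1.1) (prF w (en k).1 n (en k).2.1.2) *
          B.d n ^ (-(C * (((en k).2.1.2 : ℝ) - (en k).2.1.1)) -
            (1 / (((en k).2.2 : ℝ) + 1))) ≤
        tdF.d (en k).1 n (sn n (en k).2.1.1 x) (sn n (en k).2.1.2 x) := by
    intro k
    by_cases h : 0 ≤ (en k).2.1.1 ∧ (en k).2.1.1 < (en k).2.1.2 ∧ (en k).2.1.2 ≤ 1
    · exact (hT (en k).1 (en k).2.1.1 (en k).2.1.2 h.1 h.2.1 h.2.2 (1 / (((en k).2.2 : ℝ) + 1))
        (by positivity)).mono (Eventually.of_forall fun n x _ hx => hx.2)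
    · exact Negl.false.mono (Eventually.of_forall fun n x _ hx => h hx.1)
  obtain ⟨J0, hJ0I, hJ0d, hJ0⟩ := exists_avoid (B := B) (I := I) _ hN
  obtain ⟨J, hJs, hJd, -, hJ⟩ := MkA.refine' hM hJ0d
  refine ⟨J, fun n => (hJs n).trans (hJ0I n), hJd.trans hJ0d, hJ, ?_⟩
  intro j u v h0 huv h1 ε hε
  obtain ⟨K, hK⟩ := exists_nat_one_div_lt hε
  obtain ⟨k, hk⟩ := hen (j, (u, v), K)
  have h2 := hJ0 k
  rw [hk] at h2
  filter_upwards [h2, wpos_all hM h0 (huv.le.trans h1)] with n a1 a2 x hx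
  have a3 := a1 x (hJs n hx)
  have a4 : ¬ max (prF w j n u) (prF w j n v) * B.d n ^ (-(C * ((v : ℝ) - u)) -
      (1 / ((K : ℝ) + 1))) ≤ tdF.d j n (sn n u x) (sn n v x) :=
    fun hc => a3 ⟨⟨h0, huv, h1⟩, hc⟩
  refine (not_le.1 a4).le.trans ?_
  have hp : 0 ≤ prF w j n u := by
    fin_cases j
    · exact (div_pos (a2 2) (a2 1)).le
    · exact (div_pos (a2 0) (a2 2)).le
    · exact (div_pos (a2 0) (a2 1)).le
  refine mul_le_mul_of_nonneg_left (dpow_le B n ?_) (hp.trans (le_max_left _ _))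
  linarith

/-- closeness of the composite flags to the flags of every level -/
theorem closeF {C : ℝ} (hC : 0 ≤ C)
    (hM : MkA B I G lev A (fun v => g * v) (fun v => s * v) (fun j v => θ j * (1 - v)) f b vm w)
    (hT : ∀ j, TiltE tdF B I sn (prF w) j C) (j : Fin 3) {v : ℚ} (h0 : 0 ≤ v) (h1 : v ≤ 1) {ε : ℝ}
    (hε : 0 < ε) : ∀ᶠ n in (U : Filter ℕ), ∀ x ∈ I n,
      tdF.d j n (flF θ sn n x) (sn n v x) ≤ prF w j n v * B.d n ^ (-ε) := by
  have hpr := prLinF hM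
  have hE : ∀ v : ℚ, 0 ≤ v → v ≤ 1 → ∀ ε : ℝ, 0 < ε → ∀ᶠ n in (U : Filter ℕ), ∀ x ∈ I n,
      |sn n v x 0 - eS θ sn n x| ≤ prF w 0 n v * B.d n ^ (-ε) := fun v h0 h1 ε hε =>
    closeR (h := fun n v x => sn n v x 0) hC (fun u v h0 huv h1 ε hε => by
      filter_upwards [hT 0 u v h0 huv h1 ε hε] with n hn x hx using hn x hx) (hpr 0) h0 h1 hε
  have hb : ∀ v : ℚ, 0 ≤ v → v ≤ 1 → ∀ ε : ℝ, 0 < ε → ∀ᶠ n in (U : Filter ℕ), ∀ x ∈ I n,
      |sn n v x 1 - bS θ sn n x| ≤ prF w 1 n v * B.d n ^ (-ε) := fun v h0 h1 ε hε =>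
    closeR (h := fun n v x => sn n v x 1) hC (fun u v h0 huv h1 ε hε => by
      filter_upwards [hT 1 u v h0 huv h1 ε hε] with n hn x hx using hn x hx) (hpr 1) h0 h1 hε
  -- tilt of `F`
  have hFT : ∀ u v : ℚ, 0 ≤ u → u < v → v ≤ 1 → ∀ ε : ℝ, 0 < ε → ∀ᶠ n in (U : Filter ℕ),
      ∀ x ∈ I n, |FS θ sn n v x - FS θ sn n u x| ≤
        max (prF w 2 n u) (prF w 2 n v) * B.d n ^ (-((C + |btF θ 1|) * ((v : ℝ) - u)) - ε) := by
    intro u v h0 huv h1 ε hε
    have huv' : (0 : ℝ) ≤ (v : ℝ) - u := by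
      have : (u : ℝ) < v := by exact_mod_cast huv
      linarith
    have hu1 : u ≤ 1 := huv.le.trans h1
    have hv0 : 0 ≤ v := h0.trans huv.le
    -- `pr_b v ≤ pr_b u d^(-|β_b| (v-u) - ε/8)`
    have hpb : ∀ᶠ n in (U : Filter ℕ), prF w 1 n v ≤
        prF w 1 n u * B.d n ^ (-(|btF θ 1| * ((v : ℝ) - u) + ε / 8)) := by
      have h2 := (hpr 1).pair h0 hu1 hv0 h1
      filter_upwards [h2.eventually_const_lt (show -(|btF θ 1| * ((v : ℝ) - u) + ε / 8) < _ by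
        have := mul_le_mul_of_nonneg_right (neg_abs_le (btF θ 1)) huv'
        linarith), (hpr 1).1 u h0 hu1, (hpr 1).1 v hv0 h1] with n a b c
      exact le_of_log c b a.le
    filter_upwards [hT 2 u v h0 huv h1 (ε / 2) (by positivity),
      hT 1 u v h0 huv h1 (ε / 8) (by positivity), hE u h0 hu1 (ε / 8) (by positivity), hpb,
      wpos_all hM h0 hu1, wpos_all hM hv0 h1,
      ev_const B (C := (2 : ℝ)) (ε := ε / 2) (by norm_num) (by positivity)]
      with n a1 a2 a3 a4 a5 a6 a7 x hx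
    have t2 := a1 x hx
    have t1 := a2 x hx
    have te := a3 x hx
    rw [tdF_d, coF_two] at t2
    rw [tdF_d, coF_one] at t1
    have e1 : FS θ sn n v x - FS θ sn n u x =
        (sn n v x 2 - sn n u x 2 + sn n u x 0 * (sn n v x 1 - sn n u x 1)) +
          -((sn n u x 0 - eS θ sn n x) * (sn n v x 1 - sn n u x 1)) := by
      unfold FS; ring
    rw [e1]
    set Mx : ℝ := max (prF w 2 n u) (prF w 2 n v) with hMx
    have p0 : 0 < prF w 0 n u := div_pos (a5 2) (a5 1)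
    have p1 : 0 < prF w 1 n u := div_pos (a5 0) (a5 2)
    have p2 : 0 < prF w 2 n u := div_pos (a5 0) (a5 1)
    have hMx0 : 0 < Mx := p2.trans_le (le_max_left _ _)
    have hmul := prF_mul a5
    -- bound of the product
    have hone : 1 ≤ B.d n ^ (-(|btF θ 1| * ((v : ℝ) - u) + ε / 8)) := by
      have h4 : -(|btF θ 1| * ((v : ℝ) - u) + ε / 8) ≤ 0 := by
        have := mul_nonneg (abs_nonneg (btF θ 1)) huv'
        linarith
      have := dpow_le B n h4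
      rwa [Real.rpow_zero] at this
    have hmaxb : max (prF w 1 n u) (prF w 1 n v) ≤
        prF w 1 n u * B.d n ^ (-(|btF θ 1| * ((v : ℝ) - u) + ε / 8)) :=
      max_le (by nlinarith) a4
    have hprod : |(sn n u x 0 - eS θ sn n x) * (sn n v x 1 - sn n u x 1)| ≤
        Mx * B.d n ^ (-((C + |btF θ 1|) * ((v : ℝ) - u)) - ε / 2) := by
      rw [abs_mul]
      calc |sn n u x 0 - eS θ sn n x| * |sn n v x 1 - sn n u x 1|
          ≤ (prF w 0 n u * B.d n ^ (-(ε / 8))) *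
            ((prF w 1 n u * B.d n ^ (-(|btF θ 1| * ((v : ℝ) - u) + ε / 8))) *
              B.d n ^ (-(C * ((v : ℝ) - u)) - ε / 8)) :=
            mul_le_mul te (t1.trans (mul_le_mul_of_nonneg_right hmaxb (dpow_pos B n _).le))
              (abs_nonneg _) (mul_pos p0 (dpow_pos B n _)).le
        _ = (prF w 0 n u * prF w 1 n u) * (B.d n ^ (-(ε / 8)) *
            B.d n ^ (-(|btF θ 1| * ((v : ℝ) - u) + ε / 8)) *
            B.d n ^ (-(C * ((v : ℝ) - u)) - ε / 8)) := by ring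
        _ = prF w 2 n u * B.d n ^ (-((C + |btF θ 1|) * ((v : ℝ) - u)) - 3 * (ε / 8)) := by
            rw [hmul, ← dpow_add, ← dpow_add]
            congr 2
            ring
        _ ≤ Mx * B.d n ^ (-((C + |btF θ 1|) * ((v : ℝ) - u)) - ε / 2) :=
            mul_le_mul (le_max_left _ _) (dpow_le B n (by linarith)) (dpow_pos B n _).le hMx0.le
    have hfirst : |sn n v x 2 - sn n u x 2 + sn n u x 0 * (sn n v x 1 - sn n u x 1)| ≤
        Mx * B.d n ^ (-((C + |btF θ 1|) * ((v : ℝ) - u)) - ε / 2) := by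
      refine t2.trans (mul_le_mul_of_nonneg_left (dpow_le B n ?_) hMx0.le)
      have := mul_nonneg (abs_nonneg (btF θ 1)) huv'
      nlinarith
    refine (abs_add_le _ _).trans ?_
    rw [abs_neg]
    have b2 := a7 Mx (-((C + |btF θ 1|) * ((v : ℝ) - u)) - ε) hMx0.le
    have e2 : -((C + |btF θ 1|) * ((v : ℝ) - u)) - ε + ε / 2 =
        -((C + |btF θ 1|) * ((v : ℝ) - u)) - ε / 2 := by ring
    rw [e2] at b2
    linarith
  have hF : ∀ v : ℚ, 0 ≤ v → v ≤ 1 → ∀ ε : ℝ, 0 < ε → ∀ᶠ n in (U : Filter ℕ), ∀ x ∈ I n,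
      |FS θ sn n v x - FS θ sn n (lvl (btF θ 2)) x| ≤ prF w 2 n v * B.d n ^ (-ε) :=
    fun v h0 h1 ε hε => closeR (h := FS θ sn) (add_nonneg hC (abs_nonneg _)) hFT (hpr 2) h0 h1 hε
  fin_cases j
  · filter_upwards [hE v h0 h1 ε hε] with n hn x hx
    rw [tdF_d, coF_flF]
    exact hn x hx
  · filter_upwards [hb v h0 h1 ε hε] with n hn x hx
    rw [tdF_d, coF_flF]
    exact hn x hx
  · filter_upwards [hF v h0 h1 ε hε] with n hn x hx
    rw [tdF_d, coF_flF]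
    exact hn x hx

/-- the slots with `β ≤ 0` are invisible -/
theorem invF (hcell : ∀ᶠ n in (U : Filter ℕ), ∀ x ∈ I n, ∀ y ∈ I n,
      zc (lev n 0) x.2 = zc (lev n 0) y.2) (hsn : SnCell I lev sn) {j : Fin 3}
    (hβ : btF θ j ≤ 0) {sc : ℕ → ℝ} (hsc : ∀ n, 0 < sc n) :
    InvT tdF B I j (flF θ sn) sc := by
  intro M
  filter_upwards [hcell, hsn 0 le_rfl zero_le_one] with n h1 h2 x hx y hy hxy
  have e0 : sn n 0 y = sn n 0 x := h2 x hx y hy hxy (h1 y hy x hx)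
  refine le_trans (le_of_eq ?_) (mul_pos (hsc n) (dpow_pos B n M)).le
  rw [tdF_d]
  have hE : btF θ 0 ≤ 0 → eS θ sn n y = eS θ sn n x := by
    intro h
    unfold eS lvl
    rw [if_neg (not_lt.2 h), e0]
  have hb : btF θ 1 ≤ 0 → ∀ z, bS θ sn n z = sn n 0 z 1 := by
    intro h z
    unfold bS lvl
    rw [if_neg (not_lt.2 h)]
  fin_cases j
  · have : coF (flF θ sn n x) (flF θ sn n y) ⟨0, by norm_num⟩ = eS θ sn n y - eS θ sn n x := rfl
    rw [this, hE hβ, sub_self, abs_zero]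
  · have : coF (flF θ sn n x) (flF θ sn n y) ⟨1, by norm_num⟩ = bS θ sn n y - bS θ sn n x := rfl
    rw [this, hb hβ, hb hβ, e0, sub_self, abs_zero]
  · have hb2 : btF θ 2 ≤ 0 := hβ
    have e3 : coF (flF θ sn n x) (flF θ sn n y) ⟨2, by norm_num⟩ =
        (eS θ sn n y - eS θ sn n x) * (sn n 0 x 1 - bS θ sn n y) := by
      show coF (flF θ sn n x) (flF θ sn n y) 2 = _
      rw [coF_two]
      simp only [flF, Matrix.cons_val, FS]
      have e4 : lvl (btF θ 2) = 0 := by unfold lvl; rw [if_neg (not_lt.2 hb2)]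
      rw [e4, e0]
      ring
    rw [e3]
    by_cases hE0 : btF θ 0 ≤ 0
    · rw [hE hE0, sub_self, zero_mul, abs_zero]
    · have h3 : btF θ 1 ≤ 0 := by
        rw [btF_zero] at hE0
        rw [btF_two] at hb2
        rw [btF_one]
        linarith
      rw [hb h3, e0, sub_self, mul_zero, abs_zero]

/-- **slot system of the flags of planks, on a dense part.** -/
theorem tsysF {C : ℝ} (hC : 0 ≤ C)
    (hM : MkA B I G lev A (fun v => g * v) (fun v => s * v) (fun j v => θ j * (1 - v)) f b vm w)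
    (hsn : SnCell I lev sn) (hT : ∀ j, TiltT tdF B I sn (prF w) j C) :
    ∃ J : ℕ → Finset (ℕ × ℝ), (∀ n, J n ⊆ I n) ∧ Dense B J I ∧
      TSys tdF G g s θ (btF θ) B J lev A f b vm w sn (prF w) (flF θ sn) (ps (prF w) 0) ∧
      ∀ j, InvT tdF B J j (flF θ sn) (ps (prF w) 0 j) ∨ 0 < btF θ j := by
  obtain ⟨J, hJI, hJd, hJ, hJT⟩ := exists_tiltE hM hT
  have hpr := prLinF hM
  have hsnJ : SnCell J lev sn := fun v h0 h1 => by
    filter_upwards [hsn v h0 h1] with n hn x hx y hy using hn x (hJI n hx) y (hJI n hy)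
  refine ⟨J, hJI, hJd, ⟨hJ, ps_pos (prF w) 0, fun j => (hpr j).1, ?_, ?_,
    fun j v h0 h1 ε hε => closeF hC hJ hJT j h0 h1 hε, prodF hJ⟩, ?_⟩
  · intro j v h0 h1
    refine ((hpr j).2 v h0 h1).congr' ?_
    filter_upwards [(hpr j).1 0 le_rfl zero_le_one] with n hn
    rw [ps_eq hn]
  · intro j v h0 h1 ε hε
    filter_upwards [hsnJ v h0 h1, (hpr j).1 v h0 h1] with n hn hp x hx y hy hxy hz
    rw [hn x hx y hy hxy hz, tdF.self]
    exact (mul_pos hp (dpow_pos B n _)).le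
  · intro j
    by_cases hβ : 0 < btF θ j
    · exact Or.inr hβ
    · exact Or.inl (invF hJ.cell0 hsnJ (not_lt.1 hβ) fun n => ps_pos (prF w) 0 j n)

/-- **second zoom for the flags of planks.** -/
theorem natF {C : ℝ} (hC : 0 ≤ C)
    (hM : MkA B I G lev A (fun v => g * v) (fun v => s * v) (fun j v => θ j * (1 - v)) f b vm w)
    (hsn : SnCell I lev sn) (hT : ∀ j, TiltT tdF B I sn (prF w) j C) :
    NatT tdF G g s θ (btF θ) (fun j => |btF θ j| + 1) (flF θ sn) B I lev f b vm w sn (prF w) := by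
  obtain ⟨J, hJI, hJd, hS, hI⟩ := tsysF hC hM hsn hT
  exact NatT.mono (Eventually.of_forall hJI) (hS.natT hI fun j => by
    have := le_abs_self (btF θ j)
    linarith)

end

end Crest.Agent.R136.Ut627
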