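import Crest.Agent.R136.Fw1_650
import Crest.Agent.R136.Ut2_627
import Crest.Agent.R136.PrW2_464
import Crest.Agent.R136.GR3_650

/-!
# R136, flags of the W-chart (helper650), part 2: the data of the first thin window

* `ThinG` : the marks of all levels in normal coordinates, without flags of the incidences;
* `flW` : the flagged incidences (`FlW464.FW1`): slots of rate `≤ 0` from the mark of level `0`, the
  others from the mark of level `1`, exact on the line;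
* `TiltG` : tilt of the flag slots in the frame of the incidence; `exists_flagsE` : everywhere on a
  dense part; `flG_close` : closeness of the flags to the marks of every level.
-/

set_option autoImplicit false
set_option linter.unusedVariables false

open Finset Filter Topology

namespace Crest.Agent.R136.Fw650

open Crest.Agent.R138.Ex926 (Base U)
open Crest.Agent.R138.Mk163 (zc zl rho alive Negl)
open Crest.Agent.R138.MkRef627 (lc kc)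
open Crest.Agent.R138.Dp76
open Crest.Agent.R138.NatTw76 (exists_avoid)
open Crest.Agent.R136.Sh605
open Crest.Agent.R136.Net191
open Crest.Agent.R136.NetW191
open Crest.Agent.R136.MkA627
open Crest.Agent.R136.TD627
open Crest.Agent.R136.Ut627 (closeR lvl)
open Crest.Agent.R136.ArgA163 (PrLin)
open Crest.Agent.R136.GW650
open Crest.Agent.R136.FlW464
open Crest.Agent.R136.PrW464 (unW unW_pos grW wz wc wn tdW tdW_d WData)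

/-- normal height of an incidence -/
def zhN (hz zs : ℕ → ℝ) (n : ℕ) (x : ℕ × ℝ) : ℝ := hz n * x.2 - zs n

/-- left end of the cell `J` of level `v` in normal heights -/
noncomputable def z0N (lev : ℕ → ℚ → ℕ) (hz zs : ℕ → ℝ) (v : ℚ) (n : ℕ) (J : ℤ) : ℝ :=
  hz n * zl (lev n v) J - zs n

/-- length of the cells of level `v` in normal heights -/
noncomputable def rhN (lev : ℕ → ℚ → ℕ) (hz : ℕ → ℝ) (n : ℕ) (v : ℚ) : ℝ :=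
  hz n * rho (lev n v)

theorem cellN {lev : ℕ → ℚ → ℕ} {hz zs : ℕ → ℝ} {n : ℕ} (h : 0 < hz n) (v : ℚ) (x : ℕ × ℝ) :
    z0N lev hz zs v n (zc (lev n v) x.2) ≤ zhN hz zs n x ∧
      zhN hz zs n x ≤ z0N lev hz zs v n (zc (lev n v) x.2) + rhN lev hz n v := by
  obtain ⟨h1, h2⟩ := GR650.zl_le (lev n v) x.2
  unfold z0N zhN rhN
  constructor <;> nlinarith

/-- **the marks of all levels in normal coordinates, without flags of the incidences.** -/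
structure ThinG (B : Base) (I : ℕ → Finset (ℕ × ℝ)) (lev : ℕ → ℚ → ℕ)
    (f : ℕ → ℚ → ℕ → ℤ → ℕ) (kp σ hz zs : ℕ → ℝ) (L : ℕ → ℕ → Ln4) (wA wB a : ℕ → ℚ → ℝ)
    (Mk : ℚ → ℕ → ℕ × ℤ → Fin 14 → ℝ) (E : ℚ → ℕ → ℕ × ℤ → ℝ) : Prop where
  kp1 : ∀ n, |kp n| ≤ 1
  σ0 : ∀ n, 0 < σ n
  hz0 : ∀ n, 0 < hz n
  σs : ∀ M : ℝ, ∀ᶠ n in (U : Filter ℕ), σ n ≤ B.d n ^ M
  zb : ∀ᶠ n in (U : Filter ℕ), ∀ x ∈ I n, |zhN hz zs n x| ≤ 1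
  Lb : ∃ C : ℝ, ∀ᶠ n in (U : Filter ℕ), ∀ x ∈ I n, ∀ k,
    |(L n x.1).v k| ≤ B.d n ^ (-C) ∧ |(L n x.1).p k| ≤ B.d n ^ (-C)
  rb : ∃ C : ℝ, ∀ᶠ n in (U : Filter ℕ), B.d n ^ C ≤ rhN lev hz n 0 ∧
    rhN lev hz n 0 ≤ B.d n ^ (-C)
  top : ∃ C : ℝ, ∀ᶠ n in (U : Filter ℕ), a n 0 ≤ B.d n ^ (-C) ∧ wA n 0 ≤ B.d n ^ (-C)
  Mb : ∀ v : ℚ, 0 ≤ v → v ≤ 1 → ∃ C : ℝ, ∀ᶠ n in (U : Filter ℕ), ∀ x ∈ I n, ∀ k,
    |Mk v n (kc (lev n v) (f n v) x) k| ≤ B.d n ^ (-C)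
  A0 : ∀ v : ℚ, 0 ≤ v → v ≤ 1 → ∀ᶠ n in (U : Filter ℕ), 0 < wA n v
  low : ∀ v : ℚ, 0 ≤ v → v ≤ 1 → ∃ C : ℝ, ∀ᶠ n in (U : Filter ℕ), B.d n ^ C ≤ a n v ∧
    B.d n ^ C ≤ wB n v
  /-- thickness -/
  q : ∀ v : ℚ, 0 ≤ v → v ≤ 1 → ∀ ε : ℝ, 0 < ε → ∀ᶠ n in (U : Filter ℕ), ∀ x ∈ I n, ∀ z,
    z0N lev hz zs v n (zc (lev n v) x.2) ≤ z →
    z ≤ z0N lev hz zs v n (zc (lev n v) x.2) + rhN lev hz n v →
      |ht (kp n) z ((L n x.1).pos z 1) ((L n x.1).pos z 2) ((L n x.1).pos z 0) -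
        σ n * evY (Mk v n (kc (lev n v) (f n v) x)) z ((L n x.1).pos z 1) ((L n x.1).pos z 2)
          ((L n x.1).pos z 0)| ≤ σ n * (a n v * B.d n ^ (-ε))
  /-- lateral extent -/
  lat : ∀ v : ℚ, 0 ≤ v → v ≤ 1 → ∀ ε : ℝ, 0 < ε → ∀ᶠ n in (U : Filter ℕ), ∀ x ∈ I n, ∀ y ∈ I n,
    kc (lev n v) (f n v) y = kc (lev n v) (f n v) x → ∀ z,
      z0N lev hz zs v n (zc (lev n v) x.2) ≤ z →
      z ≤ z0N lev hz zs v n (zc (lev n v) x.2) + rhN lev hz n v →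
        |(L n y.1).pos z 1 - (L n x.1).pos z 1| ≤ wA n v * B.d n ^ (-ε) ∧
        |((L n y.1).pos z 2 - (L n x.1).pos z 2) - E v n (kc (lev n v) (f n v) x) *
            ((L n y.1).pos z 1 - (L n x.1).pos z 1)| ≤ wB n v * B.d n ^ (-ε)
  /-- the wide axis is the tangent of the null cone -/
  ax : ∀ v : ℚ, 0 ≤ v → v ≤ 1 → ∀ ε : ℝ, 0 < ε → ∀ᶠ n in (U : Filter ℕ), ∀ x ∈ I n,
    |E v n (kc (lev n v) (f n v) x) + 2 * kp n * (L n x.1).v 1| ≤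
      wB n v / wA n v * B.d n ^ (-ε)
  /-- balance -/
  bal : ∀ v : ℚ, 0 ≤ v → v ≤ 1 → ∀ ε : ℝ, 0 < ε → ∀ᶠ n in (U : Filter ℕ),
    wA n v ^ 2 / rhN lev hz n v ≤ wB n v * B.d n ^ (-ε) ∧
      wB n v ≤ wA n v ^ 2 / rhN lev hz n v * B.d n ^ (-ε)

/-- slots which are read at level `0` -/
def S0 (χ ν : ℝ) (k : Fin 14) : Prop := grW 1 χ ν (Fin.natAdd 4 k) ≤ 0

theorem shiftOk_S0 (χ ν : ℝ) : ShiftOk (S0 χ ν) := by
  have e : ∀ k : Fin 14, grW 1 χ ν (Fin.natAdd 4 k) =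
      (![-4, -3, -3, -2, -3, -2, -2, -2, -2, -2, -1, -1, -1, 0] k : ℝ) +
      (![-4, -4, -3, -4, -2, -3, -2, -2, -1, 0, -2, -1, 0, 0] k : ℝ) * χ + ν := by
    intro k
    fin_cases k <;> simp [grW, wz, wc, wn]
  unfold ShiftOk S0
  simp only [e, Matrix.cons_val]
  refine ⟨fun h => by linarith, fun h => ⟨by linarith, by linarith⟩, fun h => by linarith,
    fun h => by linarith, fun h => by linarith, fun h => ⟨by linarith, by linarith⟩,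
    fun h => by linarith⟩

/-- **the flagged incidences** -/
noncomputable def flW (kp σ hz zs : ℕ → ℝ) (L : ℕ → ℕ → Ln4) (lev : ℕ → ℚ → ℕ)
    (f : ℕ → ℚ → ℕ → ℤ → ℕ) (Mk : ℚ → ℕ → ℕ × ℤ → Fin 14 → ℝ) (χ ν : ℝ) (n : ℕ) (x : ℕ × ℝ) :
    FW :=
  FW1 (kp n) (σ n) (S0 χ ν) (L n x.1) (zhN hz zs n x) (Mk 0 n (kc (lev n 0) (f n 0) x))
    (Mk 1 n (kc (lev n 1) (f n 1) x))

/-- entry `k` of the mark of level `v` in the frame of the incidence -/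
noncomputable def hW (kp hz zs : ℕ → ℝ) (L : ℕ → ℕ → Ln4) (lev : ℕ → ℚ → ℕ)
    (f : ℕ → ℚ → ℕ → ℤ → ℕ) (Mk : ℚ → ℕ → ℕ × ℤ → Fin 14 → ℝ) (k : Fin 14) (n : ℕ) (v : ℚ)
    (x : ℕ × ℝ) : ℝ :=
  tr (kp n) (FlW464.frW (L n x.1) (zhN hz zs n x)) (Mk v n (kc (lev n v) (f n v) x)) k

section

variable {σ' κ' : Type*} {G : Geo σ' κ'} {B : Base} {I : ℕ → Finset (ℕ × ℝ)} {lev : ℕ → ℚ → ℕ}
    {A : ℕ → ℝ} {f : ℕ → ℚ → ℕ → ℤ → ℕ} {b : ℕ → ℚ → ℕ → σ'} {vm : ℕ → ℚ → ℝ}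
    {w : κ' → ℕ → ℚ → ℝ} {kp σ hz zs : ℕ → ℝ} {L : ℕ → ℕ → Ln4} {wA wB a : ℕ → ℚ → ℝ}
    {Mk : ℚ → ℕ → ℕ × ℤ → Fin 14 → ℝ} {E : ℚ → ℕ → ℕ × ℤ → ℝ}

theorem flW_g (χ ν : ℝ) (n : ℕ) (x : ℕ × ℝ) :
    (flW kp σ hz zs L lev f Mk χ ν n x).g = FlW464.frW (L n x.1) (zhN hz zs n x) := rfl

theorem flW_true {n : ℕ} (hσ : 0 < σ n) (χ ν : ℝ) (x : ℕ × ℝ) :
    GeoW778.TrueW (kp n) (σ n) (flW kp σ hz zs L lev f Mk χ ν n x) (L n x.1) :=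
  trueW_FW1 hσ _ _ _ _ _

/-- own entries against the entries of a mark -/
theorem flW_sub (χ ν : ℝ) (n : ℕ) (x : ℕ × ℝ) (v : ℚ) (k : Fin 14) (h9 : k ≠ 9) (h12 : k ≠ 12)
    (h13 : k ≠ 13) :
    tr (kp n) (flW kp σ hz zs L lev f Mk χ ν n x).g ((flW kp σ hz zs L lev f Mk χ ν n x).G -
      Mk v n (kc (lev n v) (f n v) x)) k =
    hW kp hz zs L lev f Mk k n (lvl (grW 1 χ ν (Fin.natAdd 4 k))) x -
      hW kp hz zs L lev f Mk k n v x := by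
  have h := own_sub (kp n) (σ n) (S0 χ ν) (L n x.1) (zhN hz zs n x)
    (Mk 0 n (kc (lev n 0) (f n 0) x)) (Mk 1 n (kc (lev n 1) (f n 1) x))
    (Mk v n (kc (lev n v) (f n v) x)) k h9 h12 h13
  refine Eq.trans h ?_
  unfold mixW lvl S0
  by_cases hk : grW 1 χ ν (Fin.natAdd 4 k) ≤ 0
  · rw [if_pos hk, if_neg (not_lt.2 hk)]
    rfl
  · rw [if_neg hk, if_pos (not_le.1 hk)]
    rfl

/-- tilt of the flag slots, in the frame of the incidence, outside negligible sets -/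
def TiltG (B : Base) (I : ℕ → Finset (ℕ × ℝ)) (h : Fin 14 → ℕ → ℚ → ℕ × ℝ → ℝ)
    (pr : Fin 18 → ℕ → ℚ → ℝ) (C : ℝ) : Prop :=
  ∀ k : Fin 14, k ≠ 9 → k ≠ 12 → k ≠ 13 → ∀ u v : ℚ, 0 ≤ u → u < v → v ≤ 1 → ∀ ε : ℝ, 0 < ε →
    Negl B I fun n x => max (pr (Fin.natAdd 4 k) n u) (pr (Fin.natAdd 4 k) n v) *
      B.d n ^ (-(C * ((v : ℝ) - u)) - ε) ≤ |h k n v x - h k n u x|

/-- the same everywhere -/
def TiltGE (B : Base) (I : ℕ → Finset (ℕ × ℝ)) (h : Fin 14 → ℕ → ℚ → ℕ × ℝ → ℝ)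
    (pr : Fin 18 → ℕ → ℚ → ℝ) (C : ℝ) : Prop :=
  ∀ k : Fin 14, k ≠ 9 → k ≠ 12 → k ≠ 13 → ∀ u v : ℚ, 0 ≤ u → u < v → v ≤ 1 → ∀ ε : ℝ, 0 < ε →
    ∀ᶠ n in (U : Filter ℕ), ∀ x ∈ I n, |h k n v x - h k n u x| ≤
      max (pr (Fin.natAdd 4 k) n u) (pr (Fin.natAdd 4 k) n v) *
        B.d n ^ (-(C * ((v : ℝ) - u)) - ε)

open Classical in
/-- **tilt everywhere on a dense part** -/
theorem exists_flagsE {C : ℝ} {c Λ : ℝ → ℝ} {τ : κ' → ℝ → ℝ}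
    (hM : MkA B I G lev A c Λ τ f b vm w) {h : Fin 14 → ℕ → ℚ → ℕ × ℝ → ℝ}
    {pr : Fin 18 → ℕ → ℚ → ℝ}
    (hp : ∀ k, ∀ v : ℚ, 0 ≤ v → v ≤ 1 → ∀ᶠ n in (U : Filter ℕ), 0 < pr k n v)
    (hT : TiltG B I h pr C) :
    ∃ J : ℕ → Finset (ℕ × ℝ), (∀ n, J n ⊆ I n) ∧ Dense B J I ∧ MkA B J G lev A c Λ τ f b vm w ∧
      TiltGE B J h pr C := by
  have : Nonempty (Fin 14 × (ℚ × ℚ) × ℕ) := ⟨(0, (0, 0), 0)⟩
  obtain ⟨en, hen⟩ := exists_surjective_nat (Fin 14 × (ℚ × ℚ) × ℕ)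
  have hN : ∀ k, Negl B I fun n x =>
      (((en k).1 ≠ 9 ∧ (en k).1 ≠ 12 ∧ (en k).1 ≠ 13) ∧
        0 ≤ (en k).2.1.1 ∧ (en k).2.1.1 < (en k).2.1.2 ∧ (en k).2.1.2 ≤ 1) ∧
      max (pr (Fin.natAdd 4 (en k).1) n (en k).2.1.1) (pr (Fin.natAdd 4 (en k).1) n (en k).2.1.2) *
          B.d n ^ (-(C * (((en k).2.1.2 : ℝ) - (en k).2.1.1)) -
            (1 / (((en k).2.2 : ℝ) + 1))) ≤
        |h (en k).1 n (en k).2.1.2 x - h (en k).1 n (en k).2.1.1 x| := by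
    intro k
    by_cases h : ((en k).1 ≠ 9 ∧ (en k).1 ≠ 12 ∧ (en k).1 ≠ 13) ∧
        0 ≤ (en k).2.1.1 ∧ (en k).2.1.1 < (en k).2.1.2 ∧ (en k).2.1.2 ≤ 1
    · exact (hT (en k).1 h.1.1 h.1.2.1 h.1.2.2 (en k).2.1.1 (en k).2.1.2 h.2.1 h.2.2.1 h.2.2.2
        (1 / (((en k).2.2 : ℝ) + 1)) (by positivity)).mono
          (Eventually.of_forall fun n x _ hx => hx.2)
    · exact Negl.false.mono (Eventually.of_forall fun n x _ hx => h hx.1)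
  obtain ⟨J0, hJ0I, hJ0d, hJ0⟩ := exists_avoid (B := B) (I := I) _ hN
  obtain ⟨J, hJs, hJd, -, hJ⟩ := MkA.refine' hM hJ0d
  refine ⟨J, fun n => (hJs n).trans (hJ0I n), hJd.trans hJ0d, hJ, ?_⟩
  intro j h9 h12 h13 u v h0 huv h1 ε hε
  obtain ⟨K, hK⟩ := exists_nat_one_div_lt hε
  obtain ⟨k, hk⟩ := hen (j, (u, v), K)
  have h2 := hJ0 k
  rw [hk] at h2
  filter_upwards [h2, hp (Fin.natAdd 4 j) u h0 (huv.le.trans h1)] with n a1 a2 x hx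
  have a3 := a1 x (hJs n hx)
  have a4 : ¬ max (pr (Fin.natAdd 4 j) n u) (pr (Fin.natAdd 4 j) n v) *
      B.d n ^ (-(C * ((v : ℝ) - u)) - (1 / ((K : ℝ) + 1))) ≤ |h j n v x - h j n u x| :=
    fun hc => a3 ⟨⟨⟨h9, h12, h13⟩, h0, huv, h1⟩, hc⟩
  refine (not_le.1 a4).le.trans ?_
  refine mul_le_mul_of_nonneg_left (dpow_le B n ?_) (a2.le.trans (le_max_left _ _))
  linarith

/-- **closeness of the value at the level `lvl β` to the values at all levels** -/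
theorem flG_close {J : ℕ → Finset (ℕ × ℝ)} {h : Fin 14 → ℕ → ℚ → ℕ × ℝ → ℝ}
    {pr : Fin 18 → ℕ → ℚ → ℝ} {C : ℝ} (hC : 0 ≤ C) {β : Fin 18 → ℝ}
    (hpr : ∀ k, PrLin B pr k (β k)) (hT : TiltGE B J h pr C) {k : Fin 14} (h9 : k ≠ 9)
    (h12 : k ≠ 12) (h13 : k ≠ 13) {v : ℚ} (h0 : 0 ≤ v) (h1 : v ≤ 1) {ε : ℝ} (hε : 0 < ε) :
    ∀ᶠ n in (U : Filter ℕ), ∀ x ∈ J n,
      |h k n v x - h k n (lvl (β (Fin.natAdd 4 k))) x| ≤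
        pr (Fin.natAdd 4 k) n v * B.d n ^ (-ε) :=
  closeR (h := h k) (pr := fun _ => pr (Fin.natAdd 4 k)) (j := 0) hC
    (fun u v h0 huv h1 ε hε => hT k h9 h12 h13 u v h0 huv h1 ε hε)
    ⟨(hpr (Fin.natAdd 4 k)).1, (hpr (Fin.natAdd 4 k)).2⟩ h0 h1 hε

end

end Crest.Agent.R136.Fw650
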