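import Crest.Agent.R136.Cap1_102

/-!
# R136 (S0187), U6 thin side (helper768): invariants of a quadratic sheet along a line

`q(z, T(z) + X) = q(z, T(z)) + (N + zR)·X + H(X)`.  `Ω = N × R` does not depend on the height;
`D3 = H(Ω)`; `P4 H (N + zR)` = `4 (N + zR)ᵗ adj H (N + zR)`.  Laws under linear changes, exact
normal form `D H(X) = H(Ω, X)² + Wᵗ adj H W`, `W = R (N·X) - N (R·X)`.
-/

set_option autoImplicit false
set_option linter.unusedVariables false

namespace Crest.Agent.R136.Thn768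

open Crest.Agent.R136.Sh605 Crest.Agent.R136.Tl102

/-- `q(z, T(z) + X) = q(z, T(z)) + (N + zR)·X + H(X)` -/
def Tay (q : ℝ → V3 → ℝ) (T : Ln4) (N R : V3) (H : QF) : Prop :=
  ∀ z X, q z (T.pos z + X) = q z (T.pos z) + Fq N R H z X

/-- cross product -/
def cr (x y : V3) : V3 :=
  ![x 1 * y 2 - x 2 * y 1, x 2 * y 0 - x 0 * y 2, x 0 * y 1 - x 1 * y 0]

/-- components of a covector in a basis -/
def dtf (f : Fin 3 → V3) (g : V3) : V3 := fun k => dt g (f k)

/-- quadratic form in a basis -/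
def pull (f : Fin 3 → V3) (H : QF) : QF where
  yy := H.ev (f 0)
  yu := H.pol (f 0) (f 1)
  yv := H.pol (f 0) (f 2)
  uu := H.ev (f 1)
  uv := H.pol (f 1) (f 2)
  vv := H.ev (f 2)

/-- determinant of a basis -/
def dtm (f : Fin 3 → V3) : ℝ := dt (f 0) (cr (f 1) (f 2))

/-- `H(N × R)` -/
def D3 (N R : V3) (H : QF) : ℝ := H.ev (cr N R)

/-- `4 bᵗ adj H b'` -/
def P4 (H : QF) (b c : V3) : ℝ :=
  b 0 * c 0 * (4 * H.uu * H.vv - H.uv ^ 2) + b 1 * c 1 * (4 * H.yy * H.vv - H.yv ^ 2) +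
    b 2 * c 2 * (4 * H.yy * H.uu - H.yu ^ 2) +
    (b 0 * c 1 + b 1 * c 0) * (H.uv * H.yv - 2 * H.yu * H.vv) +
    (b 0 * c 2 + b 2 * c 0) * (H.yu * H.uv - 2 * H.uu * H.yv) +
    (b 1 * c 2 + b 2 * c 1) * (H.yu * H.yv - 2 * H.yy * H.uv)

theorem dt_cmb (f : Fin 3 → V3) (g x : V3) : dt g (cmb f x) = dt (dtf f g) x := by
  simp only [dt, cmb, dtf]; ring

theorem pull_ev (f : Fin 3 → V3) (H : QF) (x : V3) : (pull f H).ev x = H.ev (cmb f x) := by
  simp only [QF.ev, QF.pol, pull, cmb]; ring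

theorem pull_pol (f : Fin 3 → V3) (H : QF) (x y : V3) :
    (pull f H).pol x y = H.pol (cmb f x) (cmb f y) := by
  simp only [QF.ev, QF.pol, pull, cmb]; ring

theorem cr_dtf (f : Fin 3 → V3) (g g' : V3) :
    cmb f (cr (dtf f g) (dtf f g')) = dtm f • cr g g' := by
  ext i
  fin_cases i <;> simp only [cmb, cr, dtf, dtm, dt, Pi.smul_apply, smul_eq_mul, Matrix.cons_val,
    Fin.zero_eta, Fin.mk_one, Fin.reduceFinMk] <;> ring

theorem cr_add_smul (N R : V3) (z : ℝ) : cr (N + z • R) R = cr N R := by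
  ext i
  fin_cases i <;> simp only [cr, Pi.add_apply, Pi.smul_apply, smul_eq_mul, Matrix.cons_val,
    Fin.zero_eta, Fin.mk_one, Fin.reduceFinMk] <;> ring

theorem ev_smul (H : QF) (c : ℝ) (x : V3) : H.ev (c • x) = c ^ 2 * H.ev x := by
  simp only [QF.ev, Pi.smul_apply, smul_eq_mul]; ring

/-- law of `D3` -/
theorem D3_pull (f : Fin 3 → V3) (N R : V3) (H : QF) :
    D3 (dtf f N) (dtf f R) (pull f H) = dtm f ^ 2 * D3 N R H := by
  unfold D3
  rw [pull_ev, cr_dtf, ev_smul]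

/-- law of `P4` -/
theorem P4_pull (f : Fin 3 → V3) (H : QF) (b c : V3) :
    P4 (pull f H) (dtf f b) (dtf f c) = dtm f ^ 2 * P4 H b c := by
  simp only [P4, pull, dtf, dtm, dt, cr, QF.ev, QF.pol, Matrix.cons_val]
  ring

/-- **exact normal form** -/
theorem lagr (N R : V3) (H : QF) (X : V3) :
    4 * (D3 N R H * H.ev X) = H.pol (cr N R) X ^ 2 +
      P4 H ((dt N X) • R - (dt R X) • N) ((dt N X) • R - (dt R X) • N) := by
  simp only [P4, D3, dt, cr, QF.ev, QF.pol, Matrix.cons_val, Pi.sub_apply, Pi.smul_apply,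
    smul_eq_mul]
  ring

end Crest.Agent.R136.Thn768
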