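import Crest.Agent.R136.GW1_650
import Crest.Agent.R136.GR1_650

/-!
# R136, GEO-R in the W-chart (helper650), part 2: field `gR` of `PreQ` over `coW`

`gR_of2` : chart-free half, pseudo-incidence of the mark depending on the incidence;
`MarkW` : what is used of the marks of one level `u` in normal (model) coordinates;
`gR_W` : record closeness.
-/

set_option autoImplicit false
set_option linter.unusedVariables false

open Finset Filter Topology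

namespace Crest.Agent.R136.GW650

open Crest.Agent.R138.Ex926 (Base U)
open Crest.Agent.R138.Mk163 (zc zl rho alive)
open Crest.Agent.R138.MkRef627 (lc kc)
open Crest.Agent.R138.Dp76 (dpow_pos dpow_add dpow_le dpow_le_one)
open Crest.Agent.R138.ArgM163 (ev_const)
open Crest.Agent.R136.Sh605
open Crest.Agent.R136.Net191
open Crest.Agent.R136.NetW191
open Crest.Agent.R136.GeoW778
open Crest.Agent.R136.GR650 (relax)

variable {m : ℕ}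

/-- **record closeness, chart-free half**, pseudo-incidences `S n x` -/
theorem gR_of2 {Φ : Type*} {B : Base} {I : ℕ → Finset (ℕ × ℝ)} {cF : ℕ → Φ → Φ → Fin m → ℝ}
    {M : Mons m} {C : ℝ} (hch : ∀ (n : ℕ) (J : Finset Φ), Chart J (cF n) M C)
    {inc S : ℕ → ℕ × ℝ → Φ} {rel : ℕ → ℕ × ℝ → ℕ × ℝ → Prop}
    {r : Fin m → ℝ} (hr : Legal M r) {δ : ℝ} (hδ : 0 < δ) (hpos : ∀ k, δ ≤ r k)
    (hS : ∀ ε : ℝ, 0 < ε → ∀ᶠ n in (U : Filter ℕ), ∀ x ∈ I n, ∀ k,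
      |cF n (S n x) (inc n x) k| ≤ B.d n ^ (r k - ε))
    (hT : ∀ ε : ℝ, 0 < ε → ∀ᶠ n in (U : Filter ℕ), ∀ x ∈ I n, ∀ y ∈ I n, rel n x y → ∀ k,
      |cF n (S n x) (S n y) k| ≤ B.d n ^ (r k - ε))
    {ε : ℝ} (hε : 0 < ε) :
    ∀ᶠ n in (U : Filter ℕ), ∀ x ∈ I n, ∀ y ∈ I n, rel n x y →
        ∀ k, |cF n (inc n x) (inc n y) k| ≤ B.d n ^ (r k - ε) := by
  classical
  obtain ⟨η, hη, hleg, hlow, hdom⟩ := relax (B := B) hr hδ hpos (half_pos hε)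
  have hC0 : 0 ≤ C := (hch 0 ∅).C0
  set K1 : ℝ := symC M C 1 m with hK1
  have hs1 : 1 ≤ K1 := symC_ge M hC0 le_rfl m
  set K2 : ℝ := triC M C K1 with hK2
  have hs2 : K1 ≤ K2 := triC_ge hC0 hs1
  set K3 : ℝ := triC M C K2 with hK3
  have hs3 : K2 ≤ K3 := triC_ge hC0 (hs1.trans hs2)
  filter_upwards [hS η hη, hT η hη, ev_const B (show (0 : ℝ) < K3 by linarith) (half_pos hε)]
    with n h1 h1' h2 x hx y hy hxy k
  have nx : Near (cF n) (B.d n) (lowp M η r) 1 (S n x) (inc n x) := fun s => by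
    rw [one_mul]; exact (h1 x hx s).trans (hdom n s)
  have ny : Near (cF n) (B.d n) (lowp M η r) 1 (S n y) (inc n y) := fun s => by
    rw [one_mul]; exact (h1 y hy s).trans (hdom n s)
  have nxy : Near (cF n) (B.d n) (lowp M η r) 1 (S n x) (S n y) := fun s => by
    rw [one_mul]; exact (h1' x hx y hy hxy s).trans (hdom n s)
  set J : Finset Φ := {S n x, S n y, inc n x, inc n y} with hJ
  have mS : S n x ∈ J := by simp [hJ]
  have mS' : S n y ∈ J := by simp [hJ]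
  have mx : inc n x ∈ J := by simp [hJ]
  have my : inc n y ∈ J := by simp [hJ]
  have h3 := (hch n J).symm hleg (B.pos n) (B.lt n).le le_rfl mS mx nx
  have h4 := (hch n J).tri hleg (B.pos n) (B.lt n).le hs1 mx mS mS' h3
    (nxy.mono (B.pos n) hs1)
  have h5 := (hch n J).tri hleg (B.pos n) (B.lt n).le (hs1.trans hs2) mx mS' my h4
    (ny.mono (B.pos n) (hs1.trans hs2))
  refine (h5 k).trans ?_
  have h6 : B.d n ^ (lowp M η r k) ≤ B.d n ^ (r k - ε / 2) := dpow_le B n (hlow k)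
  calc K3 * B.d n ^ (lowp M η r k) ≤ B.d n ^ (-(ε / 2)) * B.d n ^ (r k - ε / 2) :=
        mul_le_mul h2 h6 (dpow_pos B n _).le (dpow_pos B n _).le
    _ = B.d n ^ (r k - ε) := by rw [← dpow_add]; congr 1; ring

/-- sizes of the coordinates of the box of a mark: height `ρ`, wide `wA`, narrow `wB`, precisions
`pr` of the flag slots, relative thickness `a` -/
noncomputable def sizeW (ρ wA wB a : ℝ) (pr : Fin 14 → ℝ) : Fin 18 → ℝ :=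
  Fin.append (m := 4) (n := 14) ![ρ, wA / ρ, wA, wB]
    ![pr 0, pr 1, pr 2, pr 3, pr 4, pr 5, pr 6, pr 7, pr 8, a / ρ ^ 2, pr 10, pr 11, a / ρ, a]

/-- polynomial bounds of one configuration -/
structure BdW (κ σ Γ : ℝ) (i : FW) (t : Ln4) (z0 ρ : ℝ) : Prop where
  true : TrueW κ σ i t
  G : ∀ k, |i.G k| ≤ Γ
  V : ∀ k, |t.v k| ≤ Γ
  X : ∀ z, z0 ≤ z → z ≤ z0 + ρ → ∀ k, |t.pos z k| ≤ Γ
  z : ∀ z, z0 ≤ z → z ≤ z0 + ρ → |z| ≤ Γ
  i0 : z0 ≤ i.g 0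
  i1 : i.g 0 ≤ z0 + ρ

/-- all error terms are bounded by one power -/
theorem DW_le {Γ ρ : ℝ} (hΓ : 1 ≤ Γ) (h0 : 0 ≤ ρ) (h : ρ ≤ Γ) : DW Γ Γ Γ Γ ρ ≤ 40 * Γ ^ 5 := by
  have p2 : Γ ≤ Γ ^ 2 := by nlinarith
  have hΓ0 : 0 ≤ Γ := by linarith
  have q : ∀ {a b : ℕ}, a ≤ b → Γ ^ a ≤ Γ ^ b := fun h => pow_le_pow_right₀ hΓ h
  have r1 : Γ ≤ Γ ^ 5 := by simpa using q (a := 1) (b := 5) (by norm_num)
  have r2 : Γ ^ 2 ≤ Γ ^ 5 := q (by norm_num)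
  have r3 : Γ ^ 3 ≤ Γ ^ 5 := q (by norm_num)
  have r4 : Γ ^ 4 ≤ Γ ^ 5 := q (by norm_num)
  have e1 : DW Γ Γ Γ Γ ρ = (Γ + 3 * Γ ^ 2 + 10 * Γ ^ 3) +
      (Γ + 4 * Γ ^ 2 + 9 * Γ ^ 3 + 6 * Γ ^ 4) * ρ := by
    simp only [DW]; ring
  have e2 : (Γ + 4 * Γ ^ 2 + 9 * Γ ^ 3 + 6 * Γ ^ 4) * ρ ≤
      (Γ + 4 * Γ ^ 2 + 9 * Γ ^ 3 + 6 * Γ ^ 4) * Γ :=
    mul_le_mul_of_nonneg_left h (by positivity)
  have e3 : (Γ + 4 * Γ ^ 2 + 9 * Γ ^ 3 + 6 * Γ ^ 4) * Γ =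
      Γ ^ 2 + 4 * Γ ^ 3 + 9 * Γ ^ 4 + 6 * Γ ^ 5 := by ring
  rw [e1]
  rw [e3] at e2
  linarith

theorem EW_le {Γ ρ : ℝ} (hΓ : 1 ≤ Γ) (h0 : 0 ≤ ρ) (h : ρ ≤ Γ) : EW Γ Γ Γ Γ ρ ≤ 800 * Γ ^ 7 := by
  have hΓ0 : 0 ≤ Γ := by linarith
  have h1 := DW_le hΓ h0 h
  have e1 : EW Γ Γ Γ Γ ρ = (10 * Γ + 10 * Γ ^ 2) * DW Γ Γ Γ Γ ρ := by simp only [EW]; ring
  have p2 : Γ ≤ Γ ^ 2 := by nlinarith
  rw [e1]
  calc (10 * Γ + 10 * Γ ^ 2) * DW Γ Γ Γ Γ ρ ≤ (10 * Γ + 10 * Γ ^ 2) * (40 * Γ ^ 5) :=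
        mul_le_mul_of_nonneg_left h1 (by positivity)
    _ ≤ (20 * Γ ^ 2) * (40 * Γ ^ 5) :=
        mul_le_mul_of_nonneg_right (by linarith) (by positivity)
    _ = 800 * Γ ^ 7 := by ring

/-- finite form, mark against incidence -/
theorem mark_inc {κ σ Γ : ℝ} {i : FW} {t : Ln4} {z0 ρ : ℝ} (h : BdW κ σ Γ i t z0 ρ)
    (hΓ : 1 ≤ Γ) (hσ : 0 < σ) (hρ : 0 < ρ) (hρΓ : ρ ≤ Γ) {M : Fin 14 → ℝ}
    (hM : ∀ k, |M k| ≤ Γ) {a e : ℝ} (he : 1 ≤ e) (ha : 0 < a)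
    (hsm : σ * (800 * Γ ^ 7) ≤ min 1 a)
    (hq : ∀ z, z0 ≤ z → z ≤ z0 + ρ → |qS κ σ (mkS M i) z (t.pos z)| ≤ σ * (a * e))
    {pr : Fin 14 → ℝ} (hpr : ∀ k, 0 ≤ pr k)
    (hf : ∀ k, k ≠ 9 → k ≠ 12 → k ≠ 13 → |tr κ i.g (i.G - M) k| ≤ pr k * e) {wA wB : ℝ}
    (hA : 0 ≤ wA) (hB : 0 ≤ wB) (k : Fin 18) :
    |coW κ (mkS M i) i k| ≤ 48 * e * sizeW ρ wA wB a pr k := by
  have hΓ0 : 0 ≤ Γ := by linarith
  have he0 : 0 ≤ e := by linarith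
  have hD := DW_le hΓ hρ.le hρΓ
  have hE := EW_le hΓ hρ.le hρΓ
  have hp : Γ ^ 5 ≤ Γ ^ 7 := pow_le_pow_right₀ hΓ (by norm_num)
  have hsm1 : σ * DW Γ Γ Γ Γ ρ ≤ 1 := by
    refine le_trans (mul_le_mul_of_nonneg_left ?_ hσ.le) (hsm.trans (min_le_left _ _))
    have : (0 : ℝ) ≤ Γ ^ 7 := by positivity
    linarith
  have hsm2 : σ * EW Γ Γ Γ Γ ρ ≤ a :=
    le_trans (mul_le_mul_of_nonneg_left hE hσ.le) (hsm.trans (min_le_right _ _))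
  obtain ⟨n17, n16, n13⟩ := npr_of_mark (i := mkS M i) h.true hσ (Γ := Γ) (V := Γ) (R := Γ) (X := Γ)
    hM h.G h.V hρ h.i0 h.i1 h.z h.X hsm1 (a := a * e) hq
  have hae : a * e + σ * EW Γ Γ Γ Γ ρ ≤ 2 * (a * e) := by nlinarith
  have key : ∀ j : Fin 14, (48 : ℝ) * e * sizeW ρ wA wB a pr (Fin.natAdd 4 j) =
      48 * e * (![pr 0, pr 1, pr 2, pr 3, pr 4, pr 5, pr 6, pr 7, pr 8, a / ρ ^ 2, pr 10, pr 11,
        a / ρ, a] : Fin 14 → ℝ) j := fun j => by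
    unfold sizeW; rw [Fin.append_right]
  have slot : ∀ j : Fin 14, j ≠ 9 → j ≠ 12 → j ≠ 13 →
      |coW κ (mkS M i) i (Fin.natAdd 4 j)| ≤ 48 * e * pr j := by
    intro j h9 h12 h13
    rw [coW_mkS_right]
    have h1 := hf j h9 h12 h13
    have h2 : 0 ≤ pr j * e := mul_nonneg (hpr j) he0
    linarith
  refine Fin.addCases (m := 4) (n := 14) (fun j => ?_) (fun j => ?_) k
  · rw [coW_mkS_left, abs_zero]
    have : sizeW ρ wA wB a pr (Fin.castAdd 14 j) = (![ρ, wA / ρ, wA, wB] : Fin 4 → ℝ) j :=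
      Fin.append_left _ _ _
    rw [this]
    refine mul_nonneg (by positivity) ?_
    fin_cases j
    · exact hρ.le
    · exact div_nonneg hA hρ.le
    · exact hA
    · exact hB
  · rw [key]
    by_cases h9 : j = 9
    · subst h9
      refine n13.trans ?_
      show _ ≤ 48 * e * (a / ρ ^ 2)
      rw [div_le_iff₀ (by positivity)]
      have : 48 * e * (a / ρ ^ 2) * ρ ^ 2 = 48 * (a * e) := by field_simp
      rw [this]
      have : 0 ≤ a * e := mul_nonneg ha.le he0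
      linarith
    by_cases h12 : j = 12
    · subst h12
      refine n16.trans ?_
      show _ ≤ 48 * e * (a / ρ)
      rw [div_le_iff₀ hρ]
      have : 48 * e * (a / ρ) * ρ = 48 * (a * e) := by field_simp
      rw [this]
      linarith
    by_cases h13 : j = 13
    · subst h13
      refine n17.trans ?_
      show _ ≤ 48 * e * a
      have : 0 ≤ a * e := mul_nonneg ha.le he0
      linarith
    · have h1 := slot j h9 h12 h13
      fin_cases j <;> first | exact h1 | exact absurd rfl h9 | exact absurd rfl h12 |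
        exact absurd rfl h13

/-- finite form, two pseudo-incidences of one mark -/
theorem mark_mark {κ σ Γ : ℝ} {i j : FW} {t t' : Ln4} {z0 ρ : ℝ} (h : BdW κ σ Γ i t z0 ρ)
    (h' : BdW κ σ Γ j t' z0 ρ) (hΓ : 1 ≤ Γ) (hσ : 0 < σ) (hρ : 0 < ρ) (hρΓ : ρ ≤ Γ)
    (M : Fin 14 → ℝ) {e wA wB a E : ℝ} (he : 1 ≤ e) (hwA : 0 < wA) (hwB : 0 < wB) (ha : 0 ≤ a)
    {pr : Fin 14 → ℝ} (hpr : ∀ k, 0 ≤ pr k)
    (hA : ∀ z, z0 ≤ z → z ≤ z0 + ρ → |t'.pos z 1 - t.pos z 1| ≤ wA * e)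
    (hB : ∀ z, z0 ≤ z → z ≤ z0 + ρ →
      |(t'.pos z 2 - t.pos z 2) - E * (t'.pos z 1 - t.pos z 1)| ≤ wB * e)
    (hE : |E + 2 * κ * i.g 1| ≤ wB / wA * e) (hsm : σ * (10 * Γ ^ 4) ≤ wB) (k : Fin 18) :
    |coW κ (mkS M i) (mkS M j) k| ≤ 3 * e ^ 2 * sizeW ρ wA wB a pr k := by
  have he0 : 0 ≤ e := by linarith
  have he2 : e ≤ e ^ 2 := by nlinarith
  have hΓ0 : 0 ≤ Γ := by linarith
  have p1 : Γ ≤ Γ ^ 4 := by
    simpa using (pow_le_pow_right₀ hΓ (show 1 ≤ 4 by norm_num))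
  have p2 : Γ ^ 2 ≤ Γ ^ 4 := pow_le_pow_right₀ hΓ (by norm_num)
  have p3 : Γ ^ 3 ≤ Γ ^ 4 := pow_le_pow_right₀ hΓ (by norm_num)
  obtain ⟨c0, c1, c2, c3⟩ := rel_of_lat h.true h'.true hσ.le h.G h.V hρ h.i0 h.i1 h'.i0 h'.i1 hA hB hE
  refine Fin.addCases (m := 4) (n := 14) (fun l => ?_) (fun l => ?_) k
  · rw [coW_mkS_mkS_left]
    have : sizeW ρ wA wB a pr (Fin.castAdd 14 l) = (![ρ, wA / ρ, wA, wB] : Fin 4 → ℝ) l :=
      Fin.append_left _ _ _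
    rw [this]
    fin_cases l
    · show |coW κ i j 0| ≤ 3 * e ^ 2 * ρ
      nlinarith
    · show |coW κ i j 1| ≤ 3 * e ^ 2 * (wA / ρ)
      refine c1.trans ?_
      rw [div_le_iff₀ hρ]
      have : 3 * e ^ 2 * (wA / ρ) * ρ = 3 * e ^ 2 * wA := by field_simp
      rw [this]
      nlinarith
    · show |coW κ i j 2| ≤ 3 * e ^ 2 * wA
      refine c2.trans ?_
      nlinarith
    · show |coW κ i j 3| ≤ 3 * e ^ 2 * wB
      refine c3.trans ?_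
      have e1 : wB / wA * e * (wA * e) = wB * e ^ 2 := by field_simp
      have e2 : σ * (Γ * (1 + 3 * Γ + 6 * Γ ^ 2)) * ρ ≤ wB := by
        refine le_trans ?_ hsm
        rw [mul_assoc]
        refine mul_le_mul_of_nonneg_left ?_ hσ.le
        calc Γ * (1 + 3 * Γ + 6 * Γ ^ 2) * ρ ≤ Γ * (1 + 3 * Γ + 6 * Γ ^ 2) * Γ :=
              mul_le_mul_of_nonneg_left hρΓ (by positivity)
          _ = Γ ^ 2 + 3 * Γ ^ 3 + 6 * Γ ^ 4 := by ring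
          _ ≤ 10 * Γ ^ 4 := by linarith
      rw [e1]
      nlinarith
  · rw [coW_mkS_mkS_right, abs_zero]
    have : sizeW ρ wA wB a pr (Fin.natAdd 4 l) = (![pr 0, pr 1, pr 2, pr 3, pr 4, pr 5, pr 6,
        pr 7, pr 8, a / ρ ^ 2, pr 10, pr 11, a / ρ, a] : Fin 14 → ℝ) l := Fin.append_right _ _ _
    rw [this]
    refine mul_nonneg (by positivity) ?_
    fin_cases l <;> first | exact hpr _ | exact div_nonneg ha (by positivity) | exact ha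

end Crest.Agent.R136.GW650
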