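import Crest.Agent.R136.Wit4_321
import Crest.Agent.R136.GW2_650

/-!
# R136: bridge from the original geometry to normal coordinates, finite part (helper321)

* `movQ f c Q` : the polynomial in the coordinates of a moving frame; `unQ u Q` : in anisotropic
  units; `hatQ_ev`.
* `wqOf`, `ev_wqOf` : a polynomial with adapted frame and units is `Wq`; `Wq.Sm` : small
  coefficients, `Wq.Sm.pj`, `Wq.Sm.kap`.
* `ev_pull_inv`, `nrm_thick` : thickness of a mark in normal coordinates.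
* `nrm_lat` : lateral extents in normal coordinates.
* `close_pt` : closeness of two sheets at a point, in normal coordinates.
* `bdW_of` : 650's `BdW`.
-/

set_option autoImplicit false
set_option linter.unusedVariables false

namespace Crest.Agent.R136.Wit321

open Crest.Agent.R136.Sh605
open Crest.Agent.R136.NetW191
open Crest.Agent.R136.GeoN778
open Crest.Agent.R136.GeoW778 (qS TrueW)

/-! ### change of coordinates -/

/-- the polynomial in the coordinates of the frame `f` moving along `c` -/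
def movQ (f : Fin 3 → V3) (c : Ln4) (Q : Qd) : Qd where
  c0 := Q.c0 + ∑ i, Q.b i * c.p i + ∑ i, ∑ j, Q.g i j * (c.p i * c.p j)
  c1 := Q.c1 + ∑ i, (Q.b i * c.v i + Q.d i * c.p i) +
    ∑ i, ∑ j, Q.g i j * (c.p i * c.v j + c.v i * c.p j)
  c2 := Q.c2 + ∑ i, Q.d i * c.v i + ∑ i, ∑ j, Q.g i j * (c.v i * c.v j)
  b := fun k => ∑ i, Q.b i * f k i + ∑ i, ∑ j, Q.g i j * (c.p i * f k j + f k i * c.p j)
  d := fun k => ∑ i, Q.d i * f k i + ∑ i, ∑ j, Q.g i j * (c.v i * f k j + f k i * c.v j)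
  g := fun k l => ∑ i, ∑ j, Q.g i j * (f k i * f l j)

theorem movQ_ev (f : Fin 3 → V3) (c : Ln4) (Q : Qd) (z : ℝ) (y : V3) :
    (movQ f c Q).ev z y =
      Q.ev z (fun i => c.pos z i + (y 0 * f 0 i + y 1 * f 1 i + y 2 * f 2 i)) := by
  simp only [movQ, Qd.ev, Ln4.pos, Fin.sum_univ_three]
  ring

theorem movQ_phi {f : Fin 3 → V3} (hf : Ortho f) (c : Ln4) (Q : Qd) (z : ℝ) (x : V3) :
    (movQ f c Q).ev z (phi f c z x) = Q.ev z x := by
  rw [movQ_ev]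
  congr 1
  funext i
  have := hf.expand (x - c.pos z) i
  simp only [Pi.sub_apply] at this
  simp only [phi]
  linarith

/-- the polynomial in the units `u` -/
noncomputable def unQ (u : Un) (Q : Qd) : Qd :=
  Q.scl 1 (-(u.zc / u.H)) (1 / u.H) (fun k => 1 / u.W k)

theorem unQ_ev {u : Un} (hu : u.Ok) (Q : Qd) (z : ℝ) (x : V3) :
    (unQ u Q).ev (u.zh z) (u.xh x) = Q.ev z x := by
  have hH := hu.H0.ne'
  have hW := fun k => (hu.W0 k).ne'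
  unfold unQ
  rw [Q.scl_ev (one_div_ne_zero hH) (fun i => one_div_ne_zero (hW i)), one_mul]
  have e1 : (u.zh z - -(u.zc / u.H)) / (1 / u.H) = z := by
    simp only [Un.zh]; field_simp; ring
  have e2 : (fun i => u.xh x i / (1 / u.W i)) = x := by
    funext i
    have := hW i
    simp only [Un.xh]
    field_simp
  rw [e1, e2]

/-- the polynomial in container coordinates -/
noncomputable def hatQ (f : Fin 3 → V3) (c : Ln4) (u : Un) (Q : Qd) : Qd := unQ u (movQ f c Q)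

theorem hatQ_ev {f : Fin 3 → V3} (hf : Ortho f) (c : Ln4) {u : Un} (hu : u.Ok) (Q : Qd) (z : ℝ)
    (x : V3) : (hatQ f c u Q).ev (u.zh z) (u.xh (phi f c z x)) = Q.ev z x := by
  unfold hatQ
  rw [unQ_ev hu, movQ_phi hf]

/-- along a line -/
theorem hatQ_line {f : Fin 3 → V3} (hf : Ortho f) (c : Ln4) {u : Un} (hu : u.Ok) (Q : Qd) (z : ℝ)
    (t : Ln4) : (hatQ f c u Q).ev (u.zh z) ((ul u (rl f c t)).pos (u.zh z)) =
      Q.ev z (t.pos z) := by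
  rw [ul_pos hu, rl_pos, hatQ_ev hf c hu]

/-! ### adapted coordinates -/

/-- the normalised coefficients -/
noncomputable def wqOf (Q : Qd) : Wq where
  γ := Q.d 0 / Q.b 0
  ζ := -(Q.d 1 / Q.b 0)
  κ := -(Q.g 1 1 / Q.b 0)
  c1 := (Q.g 1 2 + Q.g 2 1) / Q.b 0
  c2 := Q.g 2 2 / Q.b 0
  c3 := (Q.g 0 1 + Q.g 1 0) / Q.b 0
  c4 := (Q.g 0 2 + Q.g 2 0) / Q.b 0
  c5 := Q.g 0 0 / Q.b 0

/-- **adapted coordinates** -/
theorem ev_wqOf {Q : Qd} (hM : Q.b 0 ≠ 0) (h1 : Q.b 1 = 0) (h2 : Q.b 2 = 0)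
    (hd : Q.d 2 = -Q.b 0) (z : ℝ) (x : V3) :
    Q.ev z x = Q.c0 + Q.c1 * z + Q.c2 * z ^ 2 + Q.b 0 * (wqOf Q).q z x := by
  simp only [Qd.ev, wqOf, Wq.q, Fin.sum_univ_three, h1, h2, hd]
  field_simp
  ring

/-- all coefficients but `κ` are small -/
structure Wq.Sm (w : Wq) (η : ℝ) : Prop where
  γ : |w.γ| ≤ η
  ζ : |w.ζ| ≤ η
  c1 : |w.c1| ≤ η
  c2 : |w.c2| ≤ η
  c3 : |w.c3| ≤ η
  c4 : |w.c4| ≤ η
  c5 : |w.c5| ≤ η

theorem Wq.Sm.pj {w : Wq} {η : ℝ} (h : w.Sm η) (hη : η ≤ 1) : w.pj.Sm (5 * η) := by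
  have h0 : 0 ≤ η := (abs_nonneg _).trans h.γ
  have q2 : η * η ≤ η := by nlinarith
  have q3 : η * η * η ≤ η := by nlinarith [mul_nonneg h0 h0]
  have two : |(2 : ℝ)| ≤ 2 := by norm_num
  refine ⟨?_, ?_, ?_, ?_, ?_, ?_, ?_⟩
  · show |-w.γ| ≤ _
    rw [abs_neg]; linarith [h.γ]
  · show |w.ζ| ≤ _
    linarith [h.ζ]
  · show |-w.c1 + w.c2 * w.ζ| ≤ _
    have hc : |-w.c1| ≤ η := by rw [abs_neg]; exact h.c1
    refine (a2 hc (m2 h.c2 h.ζ)).trans ?_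
    linarith
  · show |-w.c2| ≤ _
    rw [abs_neg]; linarith [h.c2]
  · show |-(w.c4 + w.γ * w.c2)| ≤ _
    rw [abs_neg]
    refine (a2 h.c4 (m2 h.γ h.c2)).trans ?_
    linarith
  · show |w.c3 + w.γ * w.c1 - 2 * w.c2 * w.ζ * w.γ - w.c4 * w.ζ| ≤ _
    refine (s2 (s2 (a2 h.c3 (m2 h.γ h.c1)) (m2 (m2 (m2 two h.c2) h.ζ) h.γ))
      (m2 h.c4 h.ζ)).trans ?_
    nlinarith
  · show |w.c5 + w.γ * w.c4 + w.γ ^ 2 * w.c2| ≤ _
    have g2 : |w.γ ^ 2| ≤ η * η := by rw [sq]; exact m2 h.γ h.γ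
    refine (a2 (a2 h.c5 (m2 h.γ h.c4)) (m2 g2 h.c2)).trans ?_
    linarith

theorem Wq.Sm.kap {w : Wq} {η : ℝ} (h : w.Sm η) (hη : η ≤ 1) : |w.κ' - w.κ| ≤ 2 * η := by
  have h0 : 0 ≤ η := (abs_nonneg _).trans h.γ
  have q2 : η * η ≤ η := by nlinarith
  have q3 : η * (η * η) ≤ η := by nlinarith [mul_nonneg h0 h0]
  have e : w.κ' - w.κ = w.c1 * w.ζ - w.c2 * w.ζ ^ 2 := by simp only [Wq.κ']; ring
  have g2 : |w.ζ ^ 2| ≤ η * η := by rw [sq]; exact m2 h.ζ h.ζ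
  rw [e]
  refine (s2 (m2 h.c1 h.ζ) (m2 h.c2 g2)).trans ?_
  linarith

/-! ### sheets in normal coordinates -/

theorem ev_pull_inv (P : Pj) (Q : Qd) {z : ℝ} {x : V3} (hT : P.T x ≠ 0) :
    (pullQ P.inv Q).ev (P.ht z x) (P.pt x) = Q.ev z x / P.T x ^ 2 := by
  have h1 := P.inv_T hT
  have h2 : P.inv.T (P.pt x) ≠ 0 := by rw [h1]; exact one_div_ne_zero hT
  rw [pullQ_ev _ _ h2, P.inv_ht hT, P.inv_pt hT, h1]
  field_simp

/-- values of a quadratic polynomial between and near its values at three points -/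
theorem quad_ext {p0 p1 p2 A s t w L z : ℝ} (hL : 0 < L) (hst : 3 / 8 * L ≤ t - s)
    (htw : 3 / 8 * L ≤ w - t) (h1 : |p0 + p1 * s + p2 * s ^ 2| ≤ A)
    (h2 : |p0 + p1 * t + p2 * t ^ 2| ≤ A) (h3 : |p0 + p1 * w + p2 * w ^ 2| ≤ A)
    (z1 : |z - s| ≤ 17 / 16 * L) (z2 : |z - t| ≤ 17 / 16 * L) (z3 : |z - w| ≤ 17 / 16 * L) :
    |p0 + p1 * z + p2 * z ^ 2| ≤ 25 * A := by
  have hA : 0 ≤ A := (abs_nonneg _).trans h1
  have e1 : 0 < t - s := by linarith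
  have e2 : 0 < w - t := by linarith
  have e3 : 0 < w - s := by linarith
  have n1 : t - s ≠ 0 := e1.ne'
  have n2 : w - t ≠ 0 := e2.ne'
  have n3 : w - s ≠ 0 := e3.ne'
  have id : p0 + p1 * z + p2 * z ^ 2 =
      (p0 + p1 * s + p2 * s ^ 2) * ((z - t) * (z - w) / ((t - s) * (w - s))) +
      (p0 + p1 * t + p2 * t ^ 2) * (-((z - s) * (z - w) / ((t - s) * (w - t)))) +
      (p0 + p1 * w + p2 * w ^ 2) * ((z - s) * (z - t) / ((w - s) * (w - t))) := by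
    field_simp
    ring
  have key : ∀ {a b c d : ℝ}, |a| ≤ 17 / 16 * L → |b| ≤ 17 / 16 * L → 3 / 8 * L ≤ c →
      3 / 8 * L ≤ d → |a * b / (c * d)| ≤ 25 / 3 := by
    intro a b c d ha hb hc hd
    have hc0 : 0 < c := by linarith
    have hd0 : 0 < d := by linarith
    rw [abs_div, abs_of_pos (mul_pos hc0 hd0), div_le_iff₀ (mul_pos hc0 hd0)]
    have := m2 ha hb
    have h4 : 3 / 8 * L * (3 / 8 * L) ≤ c * d := mul_le_mul hc hd (by positivity) hc0.le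
    nlinarith
  rw [id]
  have k1 := key z2 z3 hst (by linarith : 3 / 8 * L ≤ w - s)
  have k2 := key z1 z3 hst htw
  have k3 := key z1 z2 (by linarith : 3 / 8 * L ≤ w - s) htw
  rw [← abs_neg] at k2
  refine (a2 (a2 (m2 h1 k1) (m2 h2 k2)) (m2 h3 k3)).trans (le_of_eq (by ring))

/-- along a line a quadratic polynomial is quadratic -/
theorem Qd.ev_along (Q : Qd) (t : Ln4) : ∃ p0 p1 p2 : ℝ, ∀ z, Q.ev z (t.pos z) =
    p0 + p1 * z + p2 * z ^ 2 := by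
  refine ⟨Q.c0 + ∑ i, Q.b i * t.p i + ∑ i, ∑ j, Q.g i j * (t.p i * t.p j),
    Q.c1 + ∑ i, (Q.b i * t.v i + Q.d i * t.p i) +
      ∑ i, ∑ j, Q.g i j * (t.p i * t.v j + t.v i * t.p j),
    Q.c2 + ∑ i, Q.d i * t.v i + ∑ i, ∑ j, Q.g i j * (t.v i * t.v j), fun z => ?_⟩
  simp only [Qd.ev, Ln4.pos, Fin.sum_univ_three]
  ring

/-- **thickness in normal coordinates**: a line `t` (unit coordinates) lies in `{|Q| ≤ a}` over the
heights `[α, α + L]`; then its image lies in `{|pullQ P.inv Q| ≤ 100 a}` over the same heights. -/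
theorem nrm_thick {P : Pj} {η R α L a : ℝ} (h : P.Sm η) (hR : 1 ≤ R) (hη : 20 * (η * R) ≤ 1)
    (hL : 0 < L) (hη' : 160 * (η * R ^ 2) ≤ L) {Q : Qd} {t : Ln4} (hp : ∀ k, |t.p k| ≤ R)
    (hv : ∀ k, |t.v k| ≤ R)
    (hz : ∀ z, α ≤ z → z ≤ α + L → |z| ≤ R ∧ (∀ k, |t.pos z k| ≤ R) ∧ |Q.ev z (t.pos z)| ≤ a)
    {z : ℝ} (z0 : α ≤ z) (z1 : z ≤ α + L) :
    |(pullQ P.inv Q).ev z ((P.line t).pos z)| ≤ 100 * a := by
  have h0 := h.nn
  have hn : 0 ≤ η * R := by positivity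
  have h4 : 4 * (η * R) ≤ 1 := by linarith
  have hD : P.D t ≠ 0 := by
    have := Pj.D_half h hp hv hη
    have : 0 < P.D t := by linarith
    exact this.ne'
  obtain ⟨p0, p1, p2, hq⟩ := Qd.ev_along (pullQ P.inv Q) (P.line t)
  have node : ∀ s, α ≤ s → s ≤ α + L → |P.ht s (t.pos s) - s| ≤ L / 16 ∧
      |p0 + p1 * P.ht s (t.pos s) + p2 * P.ht s (t.pos s) ^ 2| ≤ 4 * a := by
    intro s s0 s1
    obtain ⟨b1, b2, b3⟩ := hz s s0 s1
    obtain ⟨t1, t2⟩ := Pj.T_half h b2 h4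
    have hT0 : 0 < P.T (t.pos s) := by linarith
    refine ⟨(Pj.ht_near h b2 b1 hR h4).trans (by linarith), ?_⟩
    rw [← hq, P.line_pos hD hT0.ne', ev_pull_inv P Q hT0.ne', abs_div,
      abs_of_pos (by positivity : 0 < P.T (t.pos s) ^ 2), div_le_iff₀ (by positivity)]
    have ha : 0 ≤ a := (abs_nonneg _).trans b3
    have h5 : 1 / 4 ≤ P.T (t.pos s) ^ 2 := by nlinarith
    nlinarith
  obtain ⟨u0, v0⟩ := node α le_rfl (by linarith)
  obtain ⟨u1, v1⟩ := node (α + L / 2) (by linarith) (by linarith)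
  obtain ⟨u2, v2⟩ := node (α + L) (by linarith) le_rfl
  rw [abs_le] at u0 u1 u2
  rw [hq]
  refine (quad_ext hL (by linarith [u0.2, u1.1]) (by linarith [u1.2, u2.1]) v0 v1 v2
    (abs_le.2 ⟨by linarith [u0.1, u0.2], by linarith [u0.1, u0.2]⟩)
    (abs_le.2 ⟨by linarith [u1.1, u1.2], by linarith [u1.1, u1.2]⟩)
    (abs_le.2 ⟨by linarith [u2.1, u2.2], by linarith [u2.1, u2.2]⟩)).trans (le_of_eq (by ring))

/-- the same for the flagged sheet -/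
theorem nrm_thick_qS {P : Pj} {η R α L a κ σ ν : ℝ} (h : P.Sm η) (hR : 1 ≤ R)
    (hη : 20 * (η * R) ≤ 1) (hL : 0 < L) (hη' : 160 * (η * R ^ 2) ≤ L) {Q : Qd} {t : Ln4}
    (hp : ∀ k, |t.p k| ≤ R) (hv : ∀ k, |t.v k| ≤ R)
    (hz : ∀ z, α ≤ z → z ≤ α + L → |z| ≤ R ∧ (∀ k, |t.pos z k| ≤ R) ∧ |Q.ev z (t.pos z)| ≤ a)
    (hσ : σ ≠ 0) (hν : 0 < ν) (hν' : ν ≤ |(pullQ P.inv Q).b 0|) (i : FW)
    (hi : i.G = flg κ σ (pullQ P.inv Q)) {z : ℝ} (z0 : α ≤ z) (z1 : z ≤ α + L) :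
    |qS κ σ i z ((P.line t).pos z)| ≤ 100 * a / ν := by
  have h1 := nrm_thick h hR hη hL hη' hp hv hz z0 z1
  have hb : (pullQ P.inv Q).b 0 ≠ 0 := by
    intro h2
    rw [h2, abs_zero] at hν'
    linarith
  have h2 : (pullQ P.inv Q).ev z ((P.line t).pos z) =
      (pullQ P.inv Q).b 0 * qS κ σ i z ((P.line t).pos z) := by
    rw [ev_flg hσ hb (κ := κ)]
    simp only [qS, hi]
  rw [h2, abs_mul] at h1
  rw [le_div_iff₀ hν, mul_comm]
  exact (mul_le_mul_of_nonneg_right hν' (abs_nonneg _)).trans h1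

/-- **lateral extents in normal coordinates** -/
theorem nrm_lat {P : Pj} {η R E wA wB : ℝ} (h : P.Sm η) (hR : 1 ≤ R) (hη : 20 * (η * R) ≤ 1)
    {t t' : Ln4} (hp : ∀ k, |t.p k| ≤ R) (hv : ∀ k, |t.v k| ≤ R) (hp' : ∀ k, |t'.p k| ≤ R)
    (hv' : ∀ k, |t'.v k| ≤ R) {z : ℝ} (hz : |z| ≤ R)
    (hA : |t'.pos z 1 - t.pos z 1| ≤ wA)
    (hB : |(t'.pos z 2 - t.pos z 2) - E * (t'.pos z 1 - t.pos z 1)| ≤ wB) :
    |(P.line t').pos z 1 - (P.line t).pos z 1| ≤ wA + 160 * (η * R ^ 3) ∧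
    |((P.line t').pos z 2 - (P.line t).pos z 2) - E * ((P.line t').pos z 1 - (P.line t).pos z 1)| ≤
      wB + 160 * (η * R ^ 3) * (1 + |E|) := by
  have h0 := h.nn
  have near : ∀ (s : Ln4), (∀ k, |s.p k| ≤ R) → (∀ k, |s.v k| ≤ R) → ∀ k,
      |(P.line s).pos z k - s.pos z k| ≤ 80 * (η * R ^ 3) := by
    intro s hs hs' k
    have e : (P.line s).pos z k - s.pos z k =
        ((P.line s).p k - s.p k) + z * ((P.line s).v k - s.v k) := by
      simp only [Ln4.pos]; ring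
    rw [e]
    refine (a2 (Pj.line_p h hs hs' hR hη k) (m2 hz (Pj.line_v h hs hs' hR hη k))).trans ?_
    have h1 : 0 ≤ η * R ^ 2 := by positivity
    have h2 : η * R ^ 2 ≤ η * R ^ 3 := by
      have : η * R ^ 3 = η * R ^ 2 * R := by ring
      rw [this]
      nlinarith
    have h3 : R * (40 * (η * R ^ 2)) = 40 * (η * R ^ 3) := by ring
    linarith
  have k1 := near t hp hv 1
  have k2 := near t hp hv 2
  have k1' := near t' hp' hv' 1
  have k2' := near t' hp' hv' 2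
  constructor
  · have e : (P.line t').pos z 1 - (P.line t).pos z 1 = (t'.pos z 1 - t.pos z 1) +
        (((P.line t').pos z 1 - t'.pos z 1) - ((P.line t).pos z 1 - t.pos z 1)) := by ring
    rw [e]
    exact (a2 hA (s2 k1' k1)).trans (le_of_eq (by ring))
  · have e : ((P.line t').pos z 2 - (P.line t).pos z 2) -
        E * ((P.line t').pos z 1 - (P.line t).pos z 1) =
        ((t'.pos z 2 - t.pos z 2) - E * (t'.pos z 1 - t.pos z 1)) +
        ((((P.line t').pos z 2 - t'.pos z 2) - ((P.line t).pos z 2 - t.pos z 2)) -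
          E * (((P.line t').pos z 1 - t'.pos z 1) - ((P.line t).pos z 1 - t.pos z 1))) := by ring
    rw [e]
    exact (a2 hB (s2 (s2 k2' k2) (m2 (le_refl |E|) (s2 k1' k1)))).trans (le_of_eq (by ring))

/-- **closeness of two sheets at a point, in normal coordinates** -/
theorem close_pt {P : Pj} {η R κ σ δ ν : ℝ} (h : P.Sm η) (hη1 : η ≤ 1) (hη : 8 * (η * R) ≤ 1)
    (hσ : σ ≠ 0) {Q₁ Q₂ : Qd} (hν₁ : (pullQ P.inv Q₁).b 0 ≠ 0) (hν : 0 < ν)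
    (hν₂ : ν ≤ |(pullQ P.inv Q₂).b 0|) {z : ℝ} {x : V3} (hx : ∀ k, |x k| ≤ R)
    (h1 : ht κ z (x 1) (x 2) (x 0) = σ * evY (flg κ σ (pullQ P.inv Q₁)) z (x 1) (x 2) (x 0))
    (hc : Q₁.ev (P.inv.ht z x) (P.inv.pt x) = 0 → |Q₂.ev (P.inv.ht z x) (P.inv.pt x)| ≤ δ) :
    |ht κ z (x 1) (x 2) (x 0) - σ * evY (flg κ σ (pullQ P.inv Q₂)) z (x 1) (x 2) (x 0)| ≤
      4 * δ / ν := by
  have hi := h.inv hη1
  have hT := Pj.T_half hi hx (by linarith)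
  have hT0 : P.inv.T x ≠ 0 := by
    have : 0 < P.inv.T x := by linarith [hT.1]
    exact this.ne'
  have e1 := ev_flg hσ hν₁ (κ := κ) z x
  rw [h1, sub_self, mul_zero, pullQ_ev _ _ hT0] at e1
  have e2 : Q₁.ev (P.inv.ht z x) (P.inv.pt x) = 0 := by
    rcases mul_eq_zero.1 e1 with h2 | h2
    · exact absurd h2 (pow_ne_zero 2 hT0)
    · exact h2
  have h3 := hc e2
  have hb : (pullQ P.inv Q₂).b 0 ≠ 0 := by
    intro h2
    rw [h2, abs_zero] at hν₂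
    linarith
  have e3 := ev_flg hσ hb (κ := κ) z x
  rw [pullQ_ev _ _ hT0] at e3
  have hδ : 0 ≤ δ := (abs_nonneg _).trans h3
  have h4 : |P.inv.T x ^ 2 * Q₂.ev (P.inv.ht z x) (P.inv.pt x)| ≤ 4 * δ := by
    rw [abs_mul, abs_of_nonneg (sq_nonneg _)]
    have : P.inv.T x ^ 2 ≤ 4 := by nlinarith [hT.1, hT.2]
    exact mul_le_mul this h3 (abs_nonneg _) (by norm_num)
  rw [e3, abs_mul] at h4
  rw [le_div_iff₀ hν, mul_comm]
  exact (mul_le_mul_of_nonneg_right hν₂ (abs_nonneg _)).trans h4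

/-- 650's `BdW` for the flag of an image line -/
theorem bdW_of {κ σ Γ : ℝ} (hσ : σ ≠ 0) {G : Fin 14 → ℝ} {M : Ln4} {zx z0 ρ : ℝ}
    (hG : ∀ k, |(mkF κ σ G M zx).G k| ≤ Γ) (hV : ∀ k, |M.v k| ≤ Γ)
    (hX : ∀ z, z0 ≤ z → z ≤ z0 + ρ → ∀ k, |M.pos z k| ≤ Γ)
    (hz : ∀ z, z0 ≤ z → z ≤ z0 + ρ → |z| ≤ Γ) (h0 : z0 ≤ zx) (h1 : zx ≤ z0 + ρ) :
    GW650.BdW κ σ Γ (mkF κ σ G M zx) M z0 ρ where
  true := mkF_true hσ G M zx
  G := hG
  V := hV
  X := hX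
  z := hz
  i0 := h0
  i1 := h1

end Crest.Agent.R136.Wit321
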