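import Crest.Agent.R136.Tlt0_51
import Crest.Agent.R136.KapP_335
import Crest.Agent.R136.Wit3_321
import Crest.Agent.R136.Thn1_768

/-!
# R136 (S0187), U6 thin side (helper768): the window of the thin branch

`ThinW p D` : interface between the macroscopic stage (exponents, smallness, zoom) and the window
stage (321's straightening, ball, 650's flags).  `D.B` = base of the zoomed window.
-/

set_option autoImplicit false
set_option linter.unusedVariables false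

open Finset Filter Topology

namespace Crest.Agent.R136.Thn768

open Crest.Agent.R138.Ex926 (Base U)
open Crest.Agent.R138.Mk163 (zc zl rho)
open Crest.Agent.R136.MkA627 Crest.Agent.R136.Sh605 Crest.Agent.R136.K4 Crest.Agent.R136.Top484
open Crest.Agent.R136.Tlt51 (Close mk4 zx rh)
open Crest.Agent.R136.KapP335 (kapP DetP)
open Crest.Agent.R136.GeoN778 (Qd Un)
open Crest.Agent.R136.Wit321 (hatQ wqOf Wq Wq.Sm)
open Crest.Agent.R136.Tl102 (QF Fq)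

/-- **container at one `n`**: the sheet `S` over the cell `[z0, z0 + ρ]` along its line `T` in the
orthonormal frame `f` and the units `u` is the model up to `η` -/
structure Cont (S : Plk4) (T : Ln4) (z0 ρ : ℝ) (f : Fin 3 → V3) (u : Un) (Q : Qd) (η : ℝ) :
    Prop where
  ortho : Ortho f
  ok : u.Ok
  q : S.q = Q.ev
  H : u.H = 2 * ρ
  zc : u.zc = z0 + ρ / 2
  b1 : (hatQ f T u Q).b 1 = 0
  b2 : (hatQ f T u Q).b 2 = 0
  d2 : (hatQ f T u Q).d 2 = -(hatQ f T u Q).b 0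
  b0 : u.WY / 4 ≤ |(hatQ f T u Q).b 0| ∧ |(hatQ f T u Q).b 0| ≤ 4 * u.WY
  sm : (wqOf (hatQ f T u Q)).Sm η
  kap : 1 / 4 ≤ |(wqOf (hatQ f T u Q)).κ| ∧ |(wqOf (hatQ f T u Q)).κ| ≤ 1 / 2
  YB : u.WY ≤ η * u.WB
  BA : u.WB ≤ η * u.WA

/-- the gradient and the vector `N × R` of the sheet `S` along `T` are nearly parallel to `f 0`,
`f 1` (constant `1 / 10`), at the height `z` -/
def Frm (S : Plk4) (T : Ln4) (z : ℝ) (f : Fin 3 → V3) : Prop :=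
  ∀ N R H, Tay S.q T N R H →
    |dt (N + z • R) (f 1)| ≤ |dt (N + z • R) (f 0)| / 10 ∧
    |dt (N + z • R) (f 2)| ≤ |dt (N + z • R) (f 0)| / 10 ∧
    |dt (cr N R) (f 0)| ≤ |dt (cr N R) (f 1)| / 10 ∧
    |dt (cr N R) (f 2)| ≤ |dt (cr N R) (f 1)| / 10

/-- **the window of the thin branch**, `D.B` = base of the zoomed window -/
structure ThinW (p : Par4) (D : Dat4) : Prop where
  mka : MkA D.B D.I (D.G p) D.lev D.A (fun v => p.g * v) (fun v => 0 * v)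
    (fun j v => p.θ j * (1 - v)) D.f D.b D.vm D.w
  vel : ∀ᶠ n in (U : Filter ℕ), ∀ x ∈ D.I n, ∀ i, |(D.L n x.1).v i| ≤ 1
  θ1 : 0 < p.θ 1
  θ2 : p.θ 2 = 2 * p.θ 1
  /-- all marks are nondegenerate -/
  nd : ∀ v : ℚ, 0 ≤ v → v ≤ 1 → ∀ ε : ℝ, 0 < ε → ∀ᶠ n in (U : Filter ℕ), ∀ x ∈ D.I n,
    DetP (D.B.d n ^ ε) (mk4 D n v x) (zx D n v x) (rh D n v) (D.L n x.1)
  /-- the curvature extents are infinitely large compared with the thickness -/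
  thin : ∀ v : ℚ, 0 ≤ v → v ≤ 1 → ∀ M : ℝ, ∀ᶠ n in (U : Filter ℕ), ∀ x ∈ D.I n,
    (mk4 D n v x).a ≤ D.B.d n ^ M * kapP (mk4 D n v x) (zx D n v x) (rh D n v) (D.L n x.1)
  /-- tilt -/
  tilt : ∃ C : ℝ, 0 ≤ C ∧ ∀ u v : ℚ, 0 ≤ u → u < v → v ≤ 1 → ∀ ε : ℝ, 0 < ε →
    ∀ᶠ n in (U : Filter ℕ), ∀ x ∈ D.I n,
      Close (D.B.d n ^ (-(C * ((v : ℝ) - u)) - ε) * max (D.w 0 n u) (D.w 0 n v))
        (mk4 D n v x) (mk4 D n u x) (D.L n x.1) (zx D n v x) (rh D n v)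
  /-- the container is the level-`0` mark of one incidence -/
  cont : ∃ (x0 : ℕ → ℕ × ℝ) (f : ℕ → Fin 3 → V3) (u : ℕ → Un) (Q : ℕ → Qd) (η : ℕ → ℝ),
    (∀ᶠ n in (U : Filter ℕ), x0 n ∈ D.I n ∧
      Cont (mk4 D n 0 (x0 n)) (D.L n (x0 n).1) (zx D n 0 (x0 n)) (rh D n 0) (f n) (u n) (Q n)
        (η n)) ∧
    (∀ M : ℝ, ∀ᶠ n in (U : Filter ℕ), η n ≤ D.B.d n ^ M) ∧
    (∀ ε : ℝ, 0 < ε → ∀ᶠ n in (U : Filter ℕ),
      D.B.d n ^ ε * (u n).WA ≤ D.w 1 n 0 ∧ D.w 1 n 0 ≤ D.B.d n ^ (-ε) * (u n).WA ∧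
      D.B.d n ^ ε * (u n).WB ≤ D.w 2 n 0 ∧ D.w 2 n 0 ≤ D.B.d n ^ (-ε) * (u n).WB) ∧
    ∀ᶠ n in (U : Filter ℕ), ∀ x ∈ D.I n,
      Frm (mk4 D n 0 x) (D.L n x.1) x.2 (f n)
  /-- range of the tests -/
  wrs : Rng D.B D.wr D.cr D.w

end Crest.Agent.R136.Thn768
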