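import Crest.Agent.R136.Fw3_650

/-!
# R136, flags of the W-chart (helper650), part 4: conclusion

* `ThinG.inv` : the flag slots of rate `≤ 0` do not move along the lines;
* `ThinG.lowS` : the scales of level `0` are polynomial;
* **`flags_of`** : `ThinG` + linear marked sequence + tilt of the flag slots ⊢ `FlagsW` on a dense
  part.
-/

set_option autoImplicit false
set_option linter.unusedVariables false

open Finset Filter Topology

namespace Crest.Agent.R136.Fw650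

open Crest.Agent.R138.Ex926 (Base U)
open Crest.Agent.R138.Mk163 (zc zl rho alive Negl)
open Crest.Agent.R138.MkRef627 (lc kc)
open Crest.Agent.R138.Dp76
open Crest.Agent.R138.ArgM163 (ev_const)
open Crest.Agent.R136.Sh605
open Crest.Agent.R136.Net191
open Crest.Agent.R136.NetW191
open Crest.Agent.R136.MkA627
open Crest.Agent.R136.TD627
open Crest.Agent.R136.Ut627 (closeR lvl)
open Crest.Agent.R136.ArgA163 (PrLin rho_pos)
open Crest.Agent.R136.GW650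
open Crest.Agent.R136.FlW464
open Crest.Agent.R136.PrW464 (unW unW_pos grW wz wc wn tdW tdW_d WData)

/-- zpow of a polynomially bounded quantity -/
theorem zpow_low {B : Base} {n : ℕ} {u C : ℝ} (hC : 0 ≤ C) (h1 : B.d n ^ C ≤ u)
    (h2 : u ≤ B.d n ^ (-C)) (m : ℤ) (hm : |m| ≤ 4) : B.d n ^ (4 * C) ≤ u ^ m := by
  have dp := dpow_pos B n
  have u0 : 0 < u := (dp C).trans_le h1
  have key : ∀ (y : ℝ) (k : ℕ), B.d n ^ C ≤ y → k ≤ 4 → B.d n ^ (4 * C) ≤ y ^ k := by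
    intro y k hy hk
    calc B.d n ^ (4 * C) ≤ B.d n ^ ((k : ℝ) * C) := by
          refine dpow_le B n ?_
          have : (k : ℝ) ≤ 4 := by exact_mod_cast hk
          exact mul_le_mul_of_nonneg_right this hC
      _ = (B.d n ^ C) ^ k := by
          rw [← Real.rpow_natCast, ← Real.rpow_mul (B.pos n).le, mul_comm]
      _ ≤ y ^ k := pow_le_pow_left₀ (dp C).le hy k
  obtain ⟨k, rfl | rfl⟩ := Int.eq_nat_or_neg m
  · rw [zpow_natCast]
    refine key u k h1 ?_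
    rw [abs_of_nonneg (Int.natCast_nonneg k)] at hm
    exact_mod_cast hm
  · rw [zpow_neg, zpow_natCast, ← inv_pow]
    refine key u⁻¹ k ?_ ?_
    · rw [le_inv_comm₀ (dp C) u0, ← Real.rpow_neg (B.pos n).le]
      exact h2
    · rw [abs_neg, abs_of_nonneg (Int.natCast_nonneg k)] at hm
      exact_mod_cast hm

section

variable {σ' κ' : Type*} {G : Geo σ' κ'} {B : Base} {I : ℕ → Finset (ℕ × ℝ)} {lev : ℕ → ℚ → ℕ}
    {A : ℕ → ℝ} {f : ℕ → ℚ → ℕ → ℤ → ℕ} {b : ℕ → ℚ → ℕ → σ'} {vm : ℕ → ℚ → ℝ}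
    {w : κ' → ℕ → ℚ → ℝ} {kp σ hz zs : ℕ → ℝ} {L : ℕ → ℕ → Ln4} {wA wB a : ℕ → ℚ → ℝ}
    {Mk : ℚ → ℕ → ℕ × ℤ → Fin 14 → ℝ} {E : ℚ → ℕ → ℕ × ℤ → ℝ}

/-- **the flag slots of rate `≤ 0` do not move along the lines** -/
theorem ThinG.inv (h : ThinG B I lev f kp σ hz zs L wA wB a Mk E) {c Λ : ℝ → ℝ}
    {τ : κ' → ℝ → ℝ} (hM : MkA B I G lev A c Λ τ f b vm w) {χ ν : ℝ} {k : Fin 14}
    (hk : grW 1 χ ν (Fin.natAdd 4 k) ≤ 0) (h9 : k ≠ 9) (h12 : k ≠ 12) (h13 : k ≠ 13) (M : ℝ) :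
    ∀ᶠ n in (U : Filter ℕ), ∀ x ∈ I n, ∀ y ∈ I n, y.1 = x.1 →
      |coW (kp n) (flW kp σ hz zs L lev f Mk χ ν n x) (flW kp σ hz zs L lev f Mk χ ν n y)
        (Fin.natAdd 4 k)| ≤ B.d n ^ M := by
  obtain ⟨D, D0, hD⟩ := h.base hM χ ν
  have hw := h.wdata hM χ ν
  filter_upwards [hD, hM.cell0, h.zb, hw.small 20 (-(3 * D)) 0 (by norm_num),
    hw.small (940 * 470 ^ 7 * 20) (-(52 * D)) M (by norm_num)] with n hn hc hzb hs1 hs2 x hx y hy
    hxy
  obtain ⟨g1, bz, bL, bG, bfr, bM⟩ := hn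
  set Γ := B.d n ^ (-D) with hΓ
  have G0 : 0 < Γ := by linarith
  have hσ := h.σ0 n
  -- the two flags
  have eL : L n y.1 = L n x.1 := by rw [hxy]
  have e0 : kc (lev n 0) (f n 0) y = kc (lev n 0) (f n 0) x := by
    unfold kc
    rw [hxy, hc x hx y hy]
  have eF : flW kp σ hz zs L lev f Mk χ ν n y =
      FW1 (kp n) (σ n) (S0 χ ν) (L n x.1) (zhN hz zs n y)
        (Mk 0 n (kc (lev n 0) (f n 0) x)) (Mk 1 n (kc (lev n 1) (f n 1) y)) := by
    unfold flW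
    rw [eL, e0]
  -- drift
  have hdr : |drW (kp n) (L n x.1)| ≤ σ n * (10 * Γ ^ 3) := by
    have h1 := (flW_true (kp := kp) (zs := zs) (hz := hz) (L := L) (lev := lev) (f := f)
      (Mk := Mk) hσ χ ν x).drift_bound hσ.le (Γ := Γ) (V := Γ) (bG x hx)
      (fun k => (bL x hx k).1)
    refine le_trans ?_ (h1.trans (mul_le_mul_of_nonneg_left ?_ hσ.le))
    · exact le_of_eq rfl
    · have p2 : Γ ≤ Γ ^ 2 := by nlinarith
      have p3 : Γ ^ 2 ≤ Γ ^ 3 := pow_le_pow_right₀ g1 (by norm_num)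
      nlinarith [mul_le_mul_of_nonneg_left p2 G0.le]
  have hzz : |zhN hz zs n y - zhN hz zs n x| ≤ 2 := by
    have a1 := hzb x hx
    have a2 := hzb y hy
    rw [abs_le] at a1 a2 ⊢
    constructor <;> linarith
  have hd : |drW (kp n) (L n x.1) * (zhN hz zs n y - zhN hz zs n x)| ≤ σ n * (20 * Γ ^ 3) := by
    rw [abs_mul]
    calc _ ≤ σ n * (10 * Γ ^ 3) * 2 := mul_le_mul hdr hzz (abs_nonneg _) (by positivity)
      _ = _ := by ring
  have e3 : Γ ^ 3 = B.d n ^ (-(3 * D)) := by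
    rw [hΓ, ← Real.rpow_natCast, ← Real.rpow_mul (B.pos n).le]; congr 1; push_cast; ring
  have e52 : Γ ^ 52 = B.d n ^ (-(52 * D)) := by
    rw [hΓ, ← Real.rpow_natCast, ← Real.rpow_mul (B.pos n).le]; congr 1; push_cast; ring
  have hK : (1 : ℝ) ≤ 470 * Γ ^ 7 := by
    have := one_le_pow₀ g1 (n := 7)
    linarith
  have hd1 : |drW (kp n) (L n x.1) * (zhN hz zs n y - zhN hz zs n x)| ≤ 470 * Γ ^ 7 := by
    refine (hd.trans ?_).trans hK
    rw [e3]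
    rwa [Real.rpow_zero] at hs1
  have hfin := inv_FW1 (σ := σ n) (h.kp1 n) (shiftOk_S0 χ ν) (L n x.1) (z := zhN hz zs n x)
    (z' := zhN hz zs n y) (a := Mk 0 n (kc (lev n 0) (f n 0) x))
    (b := Mk 1 n (kc (lev n 1) (f n 1) x)) (b' := Mk 1 n (kc (lev n 1) (f n 1) y))
    (K := 470 * Γ ^ 7) hK (hzz.trans (by
      have := one_le_pow₀ g1 (n := 7)
      linarith)) hd1
    (fun q => tr_size1 (h.kp1 n) g1 (bfr x hx) (fun k => (bM x hx k).1) q)
    (fun q => tr_size1 (h.kp1 n) g1 (bfr x hx) (fun k => (bM x hx k).2) q) k hk h9 h12 h13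
  rw [eF]
  refine hfin.trans (le_trans (mul_le_mul_of_nonneg_left hd (by positivity)) ?_)
  have e : 940 * (470 * Γ ^ 7) ^ 7 * (σ n * (20 * Γ ^ 3)) =
      σ n * (940 * 470 ^ 7 * 20 * Γ ^ 52) := by ring
  rw [e, e52]
  exact hs2

/-- **the scales of level `0` are polynomial** -/
theorem ThinG.lowS (h : ThinG B I lev f kp σ hz zs L wA wB a Mk E) :
    ∃ C : ℝ, ∀ᶠ n in (U : Filter ℕ), ∀ k,
      B.d n ^ C ≤ ps (prG (rhN lev hz) wA a) 0 k n := by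
  obtain ⟨C2, h2⟩ := h.rb
  obtain ⟨C3, h3⟩ := h.top
  obtain ⟨C4, h4⟩ := h.low 0 le_rfl zero_le_one
  set D : ℝ := max (max C2 C3) (max C4 0) with hD
  have d2 : C2 ≤ D := (le_max_left _ _).trans (le_max_left _ _)
  have d3 : C3 ≤ D := (le_max_right _ _).trans (le_max_left _ _)
  have d4 : C4 ≤ D := (le_max_left _ _).trans (le_max_right _ _)
  have d0 : 0 ≤ D := (le_max_right _ _).trans (le_max_right _ _)
  refine ⟨4 * (3 * D + 1) + 4 * (3 * D + 1) + 4 * (3 * D + 1), ?_⟩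
  filter_upwards [h2, h3, h4, h.A0 0 le_rfl zero_le_one, h.bal 0 le_rfl zero_le_one 1 one_pos]
    with n h2 h3 h4 hA hb k
  have dp := dpow_pos B n
  have hr := rhN_pos (lev := lev) h.hz0 n 0
  have a0 : 0 < a n 0 := (dp _).trans_le h4.1
  have hp : 0 < prG (rhN lev hz) wA a k n 0 := unW_pos hr (div_pos hA hr) a0 k
  rw [ps_eq hp]
  -- bounds with the exponent `D' = 3 D + 1`
  have up : ∀ {x C : ℝ}, C ≤ D → x ≤ B.d n ^ (-C) → x ≤ B.d n ^ (-(3 * D + 1)) :=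
    fun hC hx => hx.trans (dpow_le B n (by linarith))
  have lo : ∀ {x C : ℝ}, C ≤ D → B.d n ^ C ≤ x → B.d n ^ (3 * D + 1) ≤ x :=
    fun hC hx => (dpow_le B n (by linarith)).trans hx
  have wAlo : B.d n ^ (D + 1 / 2) ≤ wA n 0 := by
    have e1 : wB n 0 * rhN lev hz n 0 ≤ wA n 0 ^ 2 * B.d n ^ (-(1 : ℝ)) := by
      have := hb.2
      rw [div_mul_eq_mul_div, le_div_iff₀ hr] at this
      exact this
    have e2 : B.d n ^ (D + D) ≤ wB n 0 * rhN lev hz n 0 := by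
      rw [dpow_add]
      exact mul_le_mul ((dpow_le B n d4).trans h4.2) ((dpow_le B n d2).trans h2.1) (dp _).le
        ((dp C4).le.trans h4.2)
    have e3 : B.d n ^ (D + D + 1) ≤ wA n 0 ^ 2 := by
      have e4 := e2.trans e1
      calc B.d n ^ (D + D + 1) = B.d n ^ (D + D) * B.d n ^ (1 : ℝ) := dpow_add B n _ _
        _ ≤ wA n 0 ^ 2 * B.d n ^ (-(1 : ℝ)) * B.d n ^ (1 : ℝ) :=
            mul_le_mul_of_nonneg_right e4 (dp _).le
        _ = wA n 0 ^ 2 := by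
            rw [mul_assoc, ← dpow_add, neg_add_cancel, Real.rpow_zero, mul_one]
    have e5 : (B.d n ^ (D + 1 / 2)) ^ 2 ≤ wA n 0 ^ 2 := by
      refine le_trans (le_of_eq ?_) e3
      rw [sq, ← dpow_add]; congr 1; ring
    exact (pow_le_pow_iff_left₀ (dp _).le hA.le two_ne_zero).1 e5
  have c1 : B.d n ^ (3 * D + 1) ≤ wA n 0 / rhN lev hz n 0 := by
    rw [le_div_iff₀ hr]
    have e1 : rhN lev hz n 0 ≤ B.d n ^ (-D) := h2.2.trans (dpow_le B n (by linarith))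
    calc B.d n ^ (3 * D + 1) * rhN lev hz n 0 ≤ B.d n ^ (3 * D + 1) * B.d n ^ (-D) :=
          mul_le_mul_of_nonneg_left e1 (dp _).le
      _ = B.d n ^ (2 * D + 1) := by rw [← dpow_add]; congr 1; ring
      _ ≤ B.d n ^ (D + 1 / 2) := dpow_le B n (by linarith)
      _ ≤ wA n 0 := wAlo
  have c2 : wA n 0 / rhN lev hz n 0 ≤ B.d n ^ (-(3 * D + 1)) := by
    rw [div_le_iff₀ hr]
    have e1 : B.d n ^ D ≤ rhN lev hz n 0 := (dpow_le B n d2).trans h2.1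
    calc wA n 0 ≤ B.d n ^ (-D) := h3.2.trans (dpow_le B n (by linarith))
      _ ≤ B.d n ^ (-(2 * D + 1)) := dpow_le B n (by linarith)
      _ = B.d n ^ (-(3 * D + 1)) * B.d n ^ D := by rw [← dpow_add]; congr 1; ring
      _ ≤ _ := mul_le_mul_of_nonneg_left e1 (dp _).le
  have D1 : 0 ≤ 3 * D + 1 := by linarith
  have z1 : |wz k| ≤ 4 := (by decide : ∀ k, |wz k| ≤ 4) k
  have z2 : |wc k| ≤ 4 := (by decide : ∀ k, |wc k| ≤ 4) k
  have z3 : |wn k| ≤ 4 := (by decide : ∀ k, |wn k| ≤ 4) k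
  unfold prG unW
  rw [dpow_add, dpow_add]
  refine mul_le_mul (mul_le_mul (zpow_low D1 (lo d2 h2.1) (up d2 h2.2) _ z1)
    (zpow_low D1 c1 c2 _ z2) (dp _).le (zpow_pos hr _).le)
    (zpow_low D1 (lo d4 h4.1) (up d3 h3.1) _ z3) (dp _).le
    (mul_pos (zpow_pos hr _) (zpow_pos (div_pos hA hr) _)).le

/-- **output of the flags of the thin window** -/
structure FlagsW (G : Geo σ' κ') (g s : ℝ) (θ : κ' → ℝ) (χ ν : ℝ) (B : Base)
    (I : ℕ → Finset (ℕ × ℝ)) (lev : ℕ → ℚ → ℕ) (A : ℕ → ℝ) (f : ℕ → ℚ → ℕ → ℤ → ℕ)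
    (b : ℕ → ℚ → ℕ → σ') (vm : ℕ → ℚ → ℝ) (w : κ' → ℕ → ℚ → ℝ) (kp σ hz zs : ℕ → ℝ)
    (hκ : ∀ n, |kp n| ≤ 1) (L : ℕ → ℕ → Ln4) (F : ℕ → ℕ × ℝ → FW) (wA wB a : ℕ → ℚ → ℝ)
    (Mk : ℚ → ℕ → ℕ × ℤ → Fin 14 → ℝ) (E : ℚ → ℕ → ℕ × ℤ → ℝ) : Prop where
  wd : WData B I kp σ hz zs L F
  marks : MarksW B I lev f kp σ F L (fun v => z0N lev hz zs v) (rhN lev hz) wA wB a Mk E
  sys : TSys (tdW kp hκ) G g s θ (grW 1 χ ν) B I lev A f b vm w (GW650.frW lev f Mk F)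
    (prG (rhN lev hz) wA a) F (ps (prG (rhN lev hz) wA a) 0)
  alt : ∀ k, InvT (tdW kp hκ) B I k F (ps (prG (rhN lev hz) wA a) 0 k) ∨ 0 < grW 1 χ ν k
  low : ∃ C : ℝ, ∀ᶠ n in (U : Filter ℕ), ∀ k, B.d n ^ C ≤ ps (prG (rhN lev hz) wA a) 0 k n

/-- **the flags of the thin window** -/
theorem flags_of {g s : ℝ} {θ : κ' → ℝ} (h : ThinG B I lev f kp σ hz zs L wA wB a Mk E)
    (hM : MkA B I G lev A (fun v => g * v) (fun v => s * v) (fun j v => θ j * (1 - v)) f b vm w)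
    {χ ν C : ℝ} (hC : 0 ≤ C) (hA : Lin B wA (1 + χ)) (ha : Lin B a ν)
    (hT : TiltG B I (hW kp hz zs L lev f Mk) (prG (rhN lev hz) wA a) C) :
    ∃ J : ℕ → Finset (ℕ × ℝ), (∀ n, J n ⊆ I n) ∧ Dense B J I ∧
      MkA B J G lev A (fun v => g * v) (fun v => s * v) (fun j v => θ j * (1 - v)) f b vm w ∧
      ThinG B J lev f kp σ hz zs L wA wB a Mk E ∧
      FlagsW G g s θ χ ν B J lev A f b vm w kp σ hz zs h.kp1 L
        (flW kp σ hz zs L lev f Mk χ ν) wA wB a Mk E := by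
  have hρ : Lin B (rhN lev hz) 1 := lin_rho hM h.hz0
  have hpr := fun k => prLin_gr hρ hA ha k
  obtain ⟨J, hJ, hJd, hJM, hJT⟩ := exists_flagsE hM (fun k => (hpr k).1) hT
  have hJ' := h.mono hJ
  have hm := hJ'.marksW hJM hC hpr hJT
  have hw := hJ'.wdata hJM χ ν
  obtain ⟨D, hD⟩ := hJ'.lowS
  have hinv : ∀ k, (∀ M : ℝ, ∀ᶠ n in (U : Filter ℕ), ∀ x ∈ J n, ∀ y ∈ J n, y.1 = x.1 →
      |coW (kp n) (flW kp σ hz zs L lev f Mk χ ν n x) (flW kp σ hz zs L lev f Mk χ ν n y) k| ≤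
        B.d n ^ M) → InvT (tdW kp h.kp1) B J k (flW kp σ hz zs L lev f Mk χ ν)
          (ps (prG (rhN lev hz) wA a) 0 k) := by
    intro k hk M
    filter_upwards [hk (D + M), hD] with n h1 h2 x hx y hy hxy
    rw [tdW_d]
    refine (h1 x hx y hy hxy).trans ?_
    rw [dpow_add]
    exact mul_le_mul_of_nonneg_right (h2 k) (dpow_pos B n M).le
  refine ⟨J, hJ, hJd, hJM, hJ', hw, hm, tsysW hJM hm hρ hA ha, fun k => ?_, ⟨D, hD⟩⟩
  refine Fin.addCases (m := 4) (n := 14) (fun i => ?_) (fun q => ?_) k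
  · fin_cases i
    · right
      show 0 < grW 1 χ ν 0
      simp [grW, wz, wc, wn]
    · left; exact hinv 1 (hw.inv_line 1 (by decide))
    · left; exact hinv 2 (hw.inv_line 2 (by decide))
    · left; exact hinv 3 (hw.inv_line 3 (by decide))
  · by_cases h9 : q = 9
    · subst h9; left; exact hinv 13 (hw.inv_line 13 (by decide))
    by_cases h12 : q = 12
    · subst h12; left; exact hinv 16 (hw.inv_line 16 (by decide))
    by_cases h13 : q = 13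
    · subst h13; left; exact hinv 17 (hw.inv_line 17 (by decide))
    rcases le_or_gt (grW 1 χ ν (Fin.natAdd 4 q)) 0 with hq | hq
    · left; exact hinv _ (hJ'.inv hJM hq h9 h12 h13)
    · exact Or.inr hq

end

end Crest.Agent.R136.Fw650
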