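import Crest.Agent.R136.TwL2_327
import Crest.Agent.R136.Fw4_650

/-!
# R136, U6 thin (helper327): `TiltG` (hypothesis of 650's `flags_of`) from the closeness of the level
sheets

* `dr_small` : the drift of the lines is infinitely small; `zmN` : middle of the cell;
* **`tiltG_of_clW`**.
-/

set_option autoImplicit false
set_option linter.unusedVariables false

open Finset Filter Topology

namespace Crest.Agent.R136.Tn327

open Crest.Agent.R138.Ex926 (Base U)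
open Crest.Agent.R138.Mk163 (zc zl rho alive Negl)
open Crest.Agent.R138.MkRef627 (lc kc)
open Crest.Agent.R138.Dp76 (dpow_pos dpow_add dpow_le dpow_le_one)
open Crest.Agent.R138.ArgM163 (ev_const ev_const_mul)
open Crest.Agent.R136.Sh605
open Crest.Agent.R136.NetW191
open Crest.Agent.R136.GeoW778
open Crest.Agent.R136.MkA627
open Crest.Agent.R136.GW650 (Lin prG lin_rho prLin_gr)
open Crest.Agent.R136.ArgA163 (rho_pos)
open Crest.Agent.R136.FlW464 (drW)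
open Crest.Agent.R136.Fw650
open Crest.Agent.R136.PrW464 (WData)

/-- **the drift of the lines is infinitely small** -/
theorem dr_small {B : Base} {I : ℕ → Finset (ℕ × ℝ)} {kp sg hz zs : ℕ → ℝ} {L : ℕ → ℕ → Ln4}
    {F : ℕ → ℕ × ℝ → FW} (h : WData B I kp sg hz zs L F) (M : ℝ) :
    ∀ᶠ n in (U : Filter ℕ), ∀ x ∈ I n, |drW (kp n) (L n x.1)| ≤ B.d n ^ M := by
  obtain ⟨C, C0, hC⟩ := h.bd
  filter_upwards [hC, h.tru, h.small 10 (-(3 * C)) M (by norm_num)] with n h1 h2 h3 x hx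
  obtain ⟨bG, bV, -⟩ := h1 x hx
  set Γ := B.d n ^ (-C) with hΓ
  have g1 : 1 ≤ Γ := by
    have := dpow_le B n (show -C ≤ (0 : ℝ) by linarith)
    rwa [Real.rpow_zero] at this
  have hσ := h.sg0 n
  have hb := (h2 x hx).drift_bound hσ.le (Γ := Γ) (V := Γ) bG bV
  have p2 : Γ ≤ Γ ^ 2 := by nlinarith
  have p3 : Γ ^ 2 ≤ Γ ^ 3 := pow_le_pow_right₀ g1 (by norm_num)
  have e3 : Γ ^ 3 = B.d n ^ (-(3 * C)) := by
    rw [hΓ, ← Real.rpow_natCast, ← Real.rpow_mul (B.pos n).le]; congr 1; push_cast; ring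
  refine le_trans (le_of_eq ?_) (hb.trans (le_trans (mul_le_mul_of_nonneg_left ?_ hσ.le) h3))
  · unfold drW dB
    rw [(h2 x hx).c]
  · rw [← e3]
    nlinarith

/-- middle of the cell of level `v` of the incidence, in normal heights -/
noncomputable def zmN (lev : ℕ → ℚ → ℕ) (hz zs : ℕ → ℝ) (v : ℚ) (n : ℕ) (x : ℕ × ℝ) : ℝ :=
  z0N lev hz zs v n (zc (lev n v) x.2) + rhN lev hz n v / 2

theorem abs_zh_zm {lev : ℕ → ℚ → ℕ} {hz zs : ℕ → ℝ} {n : ℕ} (h : 0 < hz n) (v : ℚ)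
    (x : ℕ × ℝ) : |zhN hz zs n x - zmN lev hz zs v n x| ≤ rhN lev hz n v := by
  obtain ⟨h1, h2⟩ := cellN (lev := lev) (zs := zs) h v x
  have h3 : 0 < rhN lev hz n v := mul_pos h (rho_pos _)
  unfold zmN
  rw [abs_le]
  constructor <;> linarith

section

variable {σ' κ' : Type*} {G : Geo σ' κ'} {B : Base} {I : ℕ → Finset (ℕ × ℝ)} {lev : ℕ → ℚ → ℕ}
    {A : ℕ → ℝ} {f : ℕ → ℚ → ℕ → ℤ → ℕ} {b : ℕ → ℚ → ℕ → σ'} {vm : ℕ → ℚ → ℝ}
    {w : κ' → ℕ → ℚ → ℝ} {kp σ hz zs : ℕ → ℝ} {L : ℕ → ℕ → Ln4} {wA wB a : ℕ → ℚ → ℝ}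
    {Mk : ℚ → ℕ → ℕ × ℤ → Fin 14 → ℝ} {E : ℚ → ℕ → ℕ × ℤ → ℝ}

/-- **`TiltG` from the closeness of the level sheets** -/
theorem tiltG_of_clW {g s : ℝ} {θ : κ' → ℝ} (h : ThinG B I lev f kp σ hz zs L wA wB a Mk E)
    (hM : MkA B I G lev A (fun v => g * v) (fun v => s * v) (fun j v => θ j * (1 - v)) f b vm w)
    {χ ν : ℝ} (hA : Lin B wA (1 + χ)) (ha : Lin B a ν)
    (hcl : ClW B I lev f kp L (zmN lev hz zs) (rhN lev hz) wA a Mk) :
    ∃ C : ℝ, 0 ≤ C ∧ TiltG B I (hW kp hz zs L lev f Mk) (prG (rhN lev hz) wA a) C := by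
  have hρ : Lin B (rhN lev hz) 1 := lin_rho hM h.hz0
  have hw := h.wdata hM χ ν
  obtain ⟨C, hC⟩ := tiltW (zh := zhN hz zs) (zm := zmN lev hz zs) h.kp1 hρ hA ha
    (fun v _ _ => Eventually.of_forall fun n x _ => abs_zh_zm (h.hz0 n) v x)
    (fun v v0 v1 => by
      obtain ⟨C1, h1⟩ := h.rb
      have hl := lin_two hρ le_rfl zero_le_one v0 v1 one_pos
      obtain ⟨C2, h2⟩ := h.low v v0 v1
      have v0' : (0 : ℝ) ≤ v := by exact_mod_cast v0
      filter_upwards [dr_small hw (C1 + C2 + 2), h1, hl, h2, h.bal v v0 v1 1 one_pos]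
        with n a1 a2 a3 a4 a5 x hx
      have dp := dpow_pos B n
      have e1 : rhN lev hz n v ≤ B.d n ^ (-C1 - 1) := by
        calc rhN lev hz n v ≤ rhN lev hz n 0 * B.d n ^ (1 * ((v : ℝ) - (0 : ℚ)) - 1) := a3.2.2.2
          _ ≤ B.d n ^ (-C1) * B.d n ^ (-1 : ℝ) :=
            mul_le_mul a2.2 (dpow_le B n (by push_cast; linarith)) (dp _).le (dp _).le
          _ = _ := by rw [← dpow_add]; congr 1
      have e2 : B.d n ^ (C2 + 1) ≤ wA n v ^ 2 / rhN lev hz n v := by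
        have e3 : B.d n ^ (-1 : ℝ) * B.d n ^ (1 : ℝ) = 1 := by
          rw [← dpow_add, neg_add_cancel, Real.rpow_zero]
        calc B.d n ^ (C2 + 1) = B.d n ^ C2 * B.d n ^ (1 : ℝ) := dpow_add B n _ _
          _ ≤ wB n v * B.d n ^ (1 : ℝ) := mul_le_mul_of_nonneg_right a4.2 (dp _).le
          _ ≤ wA n v ^ 2 / rhN lev hz n v * B.d n ^ (-1 : ℝ) * B.d n ^ (1 : ℝ) :=
            mul_le_mul_of_nonneg_right a5.2 (dp _).le
          _ = _ := by rw [mul_assoc, e3, mul_one]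
      refine le_trans ?_ e2
      calc |drW (kp n) (L n x.1)| * rhN lev hz n v ≤ B.d n ^ (C1 + C2 + 2) * B.d n ^ (-C1 - 1) :=
            mul_le_mul (a1 x hx) e1 a3.2.1.le (dp _).le
        _ = B.d n ^ (C2 + 1) := by rw [← dpow_add]; congr 1; ring) hcl
  refine ⟨max C 0, le_max_right _ _, fun k h9 h12 h13 u v u0 uv v1 ε hε => ?_⟩
  have hp := prLin_gr hρ hA ha (Fin.natAdd 4 k)
  refine (hC k h9 h12 h13 u v u0 uv v1 ε hε).mono ?_
  filter_upwards [hp.1 v (u0.trans uv.le) v1] with n hn x hx hb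
  have uv' : (0 : ℝ) ≤ (v : ℝ) - u := by
    have : (u : ℝ) < v := by exact_mod_cast uv
    linarith
  have e1 : |hW kp hz zs L lev f Mk k n v x - hW kp hz zs L lev f Mk k n u x| =
      |tr (kp n) (FlW464.frW (L n x.1) (zhN hz zs n x))
        (Mk v n (kc (lev n v) (f n v) x) - Mk u n (kc (lev n u) (f n u) x)) k| := by
    rw [tr_sub, Pi.sub_apply]
    rfl
  rw [e1] at hb
  refine le_trans (mul_le_mul_of_nonneg_left (dpow_le B n ?_) ?_) hb
  · have := mul_le_mul_of_nonneg_right (le_max_left C 0) uv'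
    linarith
  · exact hn.le.trans (le_max_right _ _)

end

end Crest.Agent.R136.Tn327
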