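import Crest.Agent.R136.GW4_650
import Crest.Agent.R136.CfW_650

/-!
# R136, GEO-R in the W-chart (helper650), part 5: natural precisions

* `coefW3` : the coefficients of a flag polynomial from its maximum on the box `|z| ≤ r`, `|A| ≤ α`,
  `|B| ≤ β` of the quadric, `|κ| α² ≤ r β`;
* `fl_of_sup` : two sheets which are close on the box of the quadric around the incidence have close
  flag slots (field `fl` of `MarkW` with the natural precisions `a / sz3`);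
* `gR_W_nat` : field `gR` of `PreQ` with the path `pathW`.
-/

set_option autoImplicit false
set_option linter.unusedVariables false

open Finset Filter Topology

namespace Crest.Agent.R136.GW650

open Crest.Agent.R138.Ex926 (Base U)
open Crest.Agent.R138.Mk163 (zc zl rho alive)
open Crest.Agent.R138.MkRef627 (lc kc)
open Crest.Agent.R138.Dp76 (dpow_pos dpow_add dpow_le dpow_le_one)
open Crest.Agent.R136.Sh605
open Crest.Agent.R136.Net191
open Crest.Agent.R136.NetW191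
open Crest.Agent.R136.PqG464 (wtW chartW_gr)
open Crest.Agent.R136.CfW650 (evW coefW_unit)

/-- change of scale -/
theorem evW_scale3 {κ r α β : ℝ} (hr : 0 < r) (hβ : 0 < β) (w : Fin 14 → ℝ) (z a b : ℝ) :
    evW κ w (r * z) (α * a) (β * b) =
      evW (κ * α ^ 2 / (r * β)) (fun k => sz3 r α β k * w k) z a b := by
  have h1 : κ * α ^ 2 = κ * α ^ 2 / (r * β) * (r * β) := by field_simp
  set μ := κ * α ^ 2 / (r * β) with hμ
  have h2 : r * z * (β * b) + κ * (α * a) ^ 2 = r * β * (z * b + μ * a ^ 2) := by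
    linear_combination a ^ 2 * h1
  simp only [evW, sz3, Matrix.cons_val]
  rw [h2]
  ring

/-- **coefficients from the maximum on a box** -/
theorem coefW3 {κ M r α β : ℝ} (hr : 0 < r) (hα : 0 < α) (hβ : 0 < β) (hκ : |κ| * α ^ 2 ≤ r * β)
    {w : Fin 14 → ℝ}
    (h : ∀ z a b : ℝ, |z| ≤ r → |a| ≤ α → |b| ≤ β → |evW κ w z a b| ≤ M) (k : Fin 14) :
    |w k| ≤ 6 * M / sz3 r α β k := by
  have hk := sz3_pos hr hα hβ k
  have hκ' : |κ * α ^ 2 / (r * β)| ≤ 1 := by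
    rw [abs_div, abs_mul, abs_of_pos (mul_pos hr hβ), abs_of_nonneg (sq_nonneg α),
      div_le_one (mul_pos hr hβ)]
    exact hκ
  have h1 := coefW_unit (κ := κ * α ^ 2 / (r * β)) (M := M) hκ'
    (w := fun k => sz3 r α β k * w k) (fun z a b hz ha hb => by
      rw [← evW_scale3 hr hβ]
      refine h _ _ _ ?_ ?_ ?_
      · rw [abs_mul, abs_of_pos hr]; exact mul_le_of_le_one_right hr.le hz
      · rw [abs_mul, abs_of_pos hα]; exact mul_le_of_le_one_right hα.le ha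
      · rw [abs_mul, abs_of_pos hβ]; exact mul_le_of_le_one_right hβ.le hb) k
  rw [le_div_iff₀ hk]
  simp only [abs_mul, abs_of_pos hk] at h1
  linarith

theorem evW_evY (κ : ℝ) (w : Fin 14 → ℝ) (z a b : ℝ) :
    evW κ w z a b = evY w z a b (z * b + κ * a ^ 2) := by
  simp only [evW, evY]

/-- value of the transported coefficients on the quadric -/
theorem evW_tr (κ : ℝ) (g : Fin 4 → ℝ) (w : Fin 14 → ℝ) (z a b : ℝ) :
    evW κ (tr κ g w) z a b = evY w (fz g z) (fA g z a) (fB κ g z a b)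
      (fz g z * fB κ g z a b + κ * fA g z a ^ 2) := by
  rw [evW_evY, evY_tr]
  have h0 : ht κ z a b (z * b + κ * a ^ 2) = 0 := by simp only [ht]; ring
  have h1 := ht_inv κ g z a b (z * b + κ * a ^ 2)
  rw [h0] at h1
  have h2 : fY κ g z a b (z * b + κ * a ^ 2) = fz g z * fB κ g z a b + κ * fA g z a ^ 2 := by
    simp only [ht] at h1
    linarith
  rw [h0, h2, mul_zero, sub_zero]

/-- **flag slots from closeness on the box around the incidence**: `D` = bound of the difference of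
the two sheets (unit `σ`) at the points of the quadric whose coordinates in the frame of `i` are in
the box. -/
theorem fl_of_sup {κ r α β D : ℝ} (hr : 0 < r) (hα : 0 < α) (hβ : 0 < β)
    (hκ : |κ| * α ^ 2 ≤ r * β) (i : FW) (M : Fin 14 → ℝ)
    (h : ∀ z a b : ℝ, |z| ≤ r → |a| ≤ α → |b| ≤ β →
      |evY i.G (fz i.g z) (fA i.g z a) (fB κ i.g z a b)
          (fz i.g z * fB κ i.g z a b + κ * fA i.g z a ^ 2) -
        evY M (fz i.g z) (fA i.g z a) (fB κ i.g z a b)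
          (fz i.g z * fB κ i.g z a b + κ * fA i.g z a ^ 2)| ≤ D) (k : Fin 14) :
    |tr κ i.g (i.G - M) k| ≤ 6 * D / sz3 r α β k := by
  refine coefW3 hr hα hβ hκ (fun z a b hz ha hb => ?_) k
  rw [evW_tr, GeoW778.evY_sub]
  exact h z a b hz ha hb

/-- **GEO-R of the W-chart, natural sizes.** -/
theorem gR_W_nat {B : Base} {I : ℕ → Finset (ℕ × ℝ)} {lev : ℕ → ℚ → ℕ} {f : ℕ → ℚ → ℕ → ℤ → ℕ}
    {u : ℚ} (u0 : 0 ≤ u) (u1 : u ≤ 1) {κ σ : ℕ → ℝ} (hκ : ∀ n, |κ n| ≤ 1)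
    {inc : ℕ → ℕ × ℝ → FW} {L : ℕ → ℕ → Ln4} {z0 : ℕ → ℤ → ℝ} {ρ : ℕ → ℝ}
    {Mk : ℕ → ℕ × ℤ → Fin 14 → ℝ} {E : ℕ → ℕ × ℤ → ℝ} {wA wB a : ℕ → ℝ}
    (h : MarkW B I lev f u κ σ inc L z0 ρ Mk E wA wB a
      (fun n k => a n / sz3 (ρ n) (wA n) (wB n) k))
    (hσ0 : ∀ᶠ n in (U : Filter ℕ), 0 < σ n)
    (hσ : ∀ M : ℝ, ∀ᶠ n in (U : Filter ℕ), σ n ≤ B.d n ^ M)
    {w0 α β ν T : ℝ} (ha : |α| ≤ T) (hb : |β| ≤ T) (hn : |ν| ≤ T) (hw : 3 + 3 * T ≤ w0)
    (hK : 1 + β ≤ 2 * α)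
    (eρ : ∀ ε : ℝ, 0 < ε → ∀ᶠ n in (U : Filter ℕ), B.d n ^ ((u : ℝ) + ε) ≤ ρ n ∧
      ρ n ≤ B.d n ^ ((u : ℝ) - ε))
    (eA : ∀ ε : ℝ, 0 < ε → ∀ᶠ n in (U : Filter ℕ), B.d n ^ (α * u + ε) ≤ wA n ∧
      wA n ≤ B.d n ^ (α * u - ε))
    (eB : ∀ ε : ℝ, 0 < ε → ∀ᶠ n in (U : Filter ℕ), B.d n ^ (β * u + ε) ≤ wB n ∧
      wB n ≤ B.d n ^ (β * u - ε))
    (ea : ∀ ε : ℝ, 0 < ε → ∀ᶠ n in (U : Filter ℕ), 0 < a n ∧ a n ≤ B.d n ^ (ν * u - ε))
    {ε : ℝ} (hε : 0 < ε) :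
    ∀ᶠ n in (U : Filter ℕ), ∀ x ∈ I n, ∀ y ∈ I n,
      kc (lev n u) (f n u) y = kc (lev n u) (f n u) x →
        ∀ k, |(B.d n ^ w0) ^ wtW k * coW (κ n) (inc n x) (inc n y) k| ≤
          B.d n ^ (pathW w0 α β ν u k - ε) := by
  have v0 : (0 : ℝ) ≤ u := by exact_mod_cast u0
  have v1 : (u : ℝ) ≤ 1 := by exact_mod_cast u1
  exact gR_W h hσ0 hσ (un := fun n k => (B.d n ^ w0) ^ wtW k)
    (fun n k => pow_pos (dpow_pos B n w0) _)
    (fun n J => chartW_gr J (fun i => i) (hκ n) (dpow_pos B n w0))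
    (pathW_legal ha hb hn hw hK v0 v1) one_pos (fun k => (pathW_bd ha hb hn hw v0 v1 k).1)
    (fun ε hε => hsz_nat eρ eA eB ea hε) hε

end Crest.Agent.R136.GW650
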