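import Crest.Agent.R136.Wit2_321
import Crest.Agent.R136.GW5_650

/-!
# R136: classification of the sheets close to the container (helper321)

* `rem κ Q` : the fourteen coefficients of `Q - ν · model`, `ν = Q.b 0`; `ev_rem`, `rem_le`
  (bounded by the values on the model quadric over the unit box).
* `flg κ σ Q` : the flag coefficients, `ev_flg` : `Q = ν (ht - σ evY (flg κ σ Q))`.
* `flg_le` : `|Q| ≤ δ` on the model quadric over the unit box gives `|flg| ≤ 6 δ / (ν σ)`.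
* `lift_pt` : a point of the model quadric can be moved in the `Y` direction onto a flagged sheet.
* `sup_of_close` : two flagged sheets `M₁, M₂`; if `q₂` is small at the points of the sheet `M₁`,
  then `evY (M₁ - M₂)` is small at the points of the model quadric.
-/

set_option autoImplicit false
set_option linter.unusedVariables false

namespace Crest.Agent.R136.Wit321

open Crest.Agent.R136.Sh605
open Crest.Agent.R136.NetW191
open Crest.Agent.R136.GeoN778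
open Crest.Agent.R136.GeoW778 (qS TrueW evW_eq evY_sub evY_lip evW_bound)
open Crest.Agent.R136.CfW650 (coefW_unit)

/-- coefficients of `Q - ν · model` -/
def rem (κ : ℝ) (Q : Qd) : Fin 14 → ℝ :=
  ![Q.g 0 0, Q.g 0 2 + Q.g 2 0, Q.g 0 1 + Q.g 1 0, Q.g 2 2, Q.d 0, Q.g 1 2 + Q.g 2 1,
    Q.g 1 1 + κ * Q.b 0, Q.d 2 + Q.b 0, Q.d 1, Q.c2, Q.b 2, Q.b 1, Q.c1, Q.c0]

theorem ev_rem (κ : ℝ) (Q : Qd) (z : ℝ) (x : V3) :
    Q.ev z x = Q.b 0 * ht κ z (x 1) (x 2) (x 0) + evY (rem κ Q) z (x 1) (x 2) (x 0) := by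
  simp only [Qd.ev, rem, ht, evY, Fin.sum_univ_three, Matrix.cons_val]
  ring

/-- a point of the model quadric -/
def q0 (κ z a b : ℝ) : V3 := ![z * b + κ * a ^ 2, a, b]

theorem ht_q0 (κ z a b : ℝ) : ht κ z (q0 κ z a b 1) (q0 κ z a b 2) (q0 κ z a b 0) = 0 := by
  simp only [ht, q0, Matrix.cons_val]; ring

theorem ev_q0 (κ : ℝ) (Q : Qd) (z a b : ℝ) :
    Q.ev z (q0 κ z a b) = CfW650.evW κ (rem κ Q) z a b := by
  rw [ev_rem, ht_q0, GW650.evW_evY]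
  simp only [q0, Matrix.cons_val, mul_zero, zero_add]

/-- the remainder is bounded by the values on the model quadric -/
theorem rem_le {κ δ : ℝ} (hκ : |κ| ≤ 1) {Q : Qd}
    (h : ∀ z a b : ℝ, |z| ≤ 1 → |a| ≤ 1 → |b| ≤ 1 → |Q.ev z (q0 κ z a b)| ≤ δ) (k : Fin 14) :
    |rem κ Q k| ≤ 6 * δ :=
  coefW_unit hκ (fun z a b hz ha hb => by rw [← ev_q0]; exact h z a b hz ha hb) k

/-- the same on a box of any size -/
theorem rem_le3 {κ δ r α β : ℝ} (hr : 0 < r) (hα : 0 < α) (hβ : 0 < β) (hκ : |κ| * α ^ 2 ≤ r * β)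
    {Q : Qd}
    (h : ∀ z a b : ℝ, |z| ≤ r → |a| ≤ α → |b| ≤ β → |Q.ev z (q0 κ z a b)| ≤ δ) (k : Fin 14) :
    |rem κ Q k| ≤ 6 * δ / GW650.sz3 r α β k :=
  GW650.coefW3 hr hα hβ hκ (fun z a b hz ha hb => by rw [← ev_q0]; exact h z a b hz ha hb) k

/-- flag coefficients of a sheet -/
noncomputable def flg (κ σ : ℝ) (Q : Qd) : Fin 14 → ℝ := fun k => -rem κ Q k / (Q.b 0 * σ)

theorem evY_smul (c : ℝ) (G : Fin 14 → ℝ) (z A B Y : ℝ) :
    evY (fun k => c * G k) z A B Y = c * evY G z A B Y := by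
  simp only [evY]; ring

theorem ev_flg {κ σ : ℝ} {Q : Qd} (hσ : σ ≠ 0) (hν : Q.b 0 ≠ 0) (z : ℝ) (x : V3) :
    Q.ev z x = Q.b 0 * (ht κ z (x 1) (x 2) (x 0) - σ * evY (flg κ σ Q) z (x 1) (x 2) (x 0)) := by
  have e : evY (flg κ σ Q) z (x 1) (x 2) (x 0) =
      -(1 / (Q.b 0 * σ)) * evY (rem κ Q) z (x 1) (x 2) (x 0) := by
    rw [← evY_smul]
    congr 1
    funext k
    simp only [flg]
    ring
  rw [ev_rem κ, e]
  field_simp
  ring

theorem flg_le {κ σ δ : ℝ} (hκ : |κ| ≤ 1) (hσ : 0 < σ) {Q : Qd} (hν : Q.b 0 ≠ 0)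
    (h : ∀ z a b : ℝ, |z| ≤ 1 → |a| ≤ 1 → |b| ≤ 1 → |Q.ev z (q0 κ z a b)| ≤ δ) (k : Fin 14) :
    |flg κ σ Q k| ≤ 6 * δ / (|Q.b 0| * σ) := by
  have hp : 0 < |Q.b 0| * σ := mul_pos (abs_pos.2 hν) hσ
  simp only [flg]
  rw [abs_div, abs_neg, abs_mul, abs_of_pos hσ]
  exact div_le_div_of_nonneg_right (rem_le hκ h k) hp.le

/-- continuity in `Y` -/
theorem evY_cont (G : Fin 14 → ℝ) (z A B : ℝ) : Continuous fun Y => evY G z A B Y := by
  simp only [evY]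
  fun_prop

/-- **a point of the model quadric can be lifted onto a flagged sheet** -/
theorem lift_pt {κ σ m R X : ℝ} {G : Fin 14 → ℝ} (hσ : 0 ≤ σ) {z : ℝ} {x : V3} (hz : |z| ≤ R)
    (hG : ∀ k, |G k| ≤ m) (hx : ∀ k, |x k| ≤ X) (h0 : ht κ z (x 1) (x 2) (x 0) = 0)
    (hs : σ * (m * (1 + R + 2 * (X + 1) + R ^ 2 + 3 * (R * (X + 1)) + 6 * (X + 1) ^ 2)) ≤ 1) :
    ∃ y : ℝ, |y| ≤ σ * (m * (1 + R + 2 * (X + 1) + R ^ 2 + 3 * (R * (X + 1)) + 6 * (X + 1) ^ 2)) ∧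
      ht κ z (x 1) (x 2) (x 0 + y) = σ * evY G z (x 1) (x 2) (x 0 + y) := by
  set K := σ * (m * (1 + R + 2 * (X + 1) + R ^ 2 + 3 * (R * (X + 1)) + 6 * (X + 1) ^ 2)) with hK
  have hX : 0 ≤ X := (abs_nonneg _).trans (hx 0)
  have hR : 0 ≤ R := (abs_nonneg _).trans hz
  have hm : 0 ≤ m := (abs_nonneg _).trans (hG 0)
  have hK0 : 0 ≤ K := by rw [hK]; positivity
  have bd : ∀ y, |y| ≤ K → |σ * evY G z (x 1) (x 2) (x 0 + y)| ≤ K := by
    intro y hy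
    have hx' : ∀ k, |(![x 0 + y, x 1, x 2] : V3) k| ≤ X + 1 := by
      intro k
      fin_cases k
      · show |x 0 + y| ≤ X + 1
        have := a2 (hx 0) hy
        linarith
      · show |x 1| ≤ X + 1
        linarith [hx 1]
      · show |x 2| ≤ X + 1
        linarith [hx 2]
    have h1 := evW_bound (G := G) hG hz hx'
    rw [evW_eq] at h1
    rw [abs_mul, abs_of_nonneg hσ, hK]
    exact mul_le_mul_of_nonneg_left h1 hσ
  -- intermediate values of `y - σ evY`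
  have hc : ContinuousOn (fun y => y - σ * evY G z (x 1) (x 2) (x 0 + y)) (Set.Icc (-K) K) := by
    refine Continuous.continuousOn ?_
    have h5 : Continuous fun y : ℝ => x 0 + y := continuous_const.add continuous_id
    exact continuous_id.sub (continuous_const.mul ((evY_cont G z (x 1) (x 2)).comp h5))
  have hle : -K ≤ K := by linarith
  have h1 : -K - σ * evY G z (x 1) (x 2) (x 0 + -K) ≤ 0 := by
    have := (abs_le.1 (bd (-K) (by rw [abs_neg, abs_of_nonneg hK0]))).1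
    linarith
  have h2 : 0 ≤ K - σ * evY G z (x 1) (x 2) (x 0 + K) := by
    have := (abs_le.1 (bd K (by rw [abs_of_nonneg hK0]))).2
    linarith
  obtain ⟨y, hy, hy0⟩ := intermediate_value_Icc hle hc ⟨h1, h2⟩
  refine ⟨y, abs_le.2 ⟨hy.1, hy.2⟩, ?_⟩
  have e : ht κ z (x 1) (x 2) (x 0 + y) = ht κ z (x 1) (x 2) (x 0) + y := by
    simp only [ht]; ring
  simp only at hy0
  rw [e, h0]
  linarith

/-- **closeness of the flags from closeness at the points of the sheet** -/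
theorem sup_of_close {κ σ m R X D : ℝ} {G₁ G₂ : Fin 14 → ℝ} (hσ : 0 < σ) {z : ℝ} {x : V3}
    (hz : |z| ≤ R) (hG₁ : ∀ k, |G₁ k| ≤ m) (hG₂ : ∀ k, |G₂ k| ≤ m) (hx : ∀ k, |x k| ≤ X)
    (h0 : ht κ z (x 1) (x 2) (x 0) = 0)
    (hs : σ * (m * (1 + R + 2 * (X + 1) + R ^ 2 + 3 * (R * (X + 1)) + 6 * (X + 1) ^ 2)) ≤ 1)
    (hc : ∀ y : ℝ, |y| ≤ σ * (m * (1 + R + 2 * (X + 1) + R ^ 2 + 3 * (R * (X + 1)) +
        6 * (X + 1) ^ 2)) → ht κ z (x 1) (x 2) (x 0 + y) = σ * evY G₁ z (x 1) (x 2) (x 0 + y) →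
      |ht κ z (x 1) (x 2) (x 0 + y) - σ * evY G₂ z (x 1) (x 2) (x 0 + y)| ≤ σ * D) :
    |evY G₁ z (x 1) (x 2) (x 0) - evY G₂ z (x 1) (x 2) (x 0)| ≤
      D + 2 * m * (1 + R + 4 * (X + 1)) *
        (σ * (m * (1 + R + 2 * (X + 1) + R ^ 2 + 3 * (R * (X + 1)) + 6 * (X + 1) ^ 2))) := by
  obtain ⟨y, hy, hy1⟩ := lift_pt hσ.le hz hG₁ hx h0 hs
  set K := σ * (m * (1 + R + 2 * (X + 1) + R ^ 2 + 3 * (R * (X + 1)) + 6 * (X + 1) ^ 2)) with hK
  have h1 := hc y hy hy1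
  have hX : 0 ≤ X := (abs_nonneg _).trans (hx 0)
  have e1 : ht κ z (x 1) (x 2) (x 0 + y) - σ * evY G₂ z (x 1) (x 2) (x 0 + y) =
      σ * evY (G₁ - G₂) z (x 1) (x 2) (x 0 + y) := by
    rw [hy1, evY_sub]; ring
  rw [e1, abs_mul, abs_of_pos hσ] at h1
  have h2 : |evY (G₁ - G₂) z (x 1) (x 2) (x 0 + y)| ≤ D := le_of_mul_le_mul_left h1 hσ
  have hd : ∀ k, |(G₁ - G₂) k| ≤ 2 * m := by
    intro k
    rw [Pi.sub_apply]
    have := s2 (hG₁ k) (hG₂ k)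
    linarith
  have hx1 : ∀ k, |x k| ≤ X + 1 := fun k => (hx k).trans (by linarith)
  have hx' : ∀ k, |(![x 0 + y, x 1, x 2] : V3) k| ≤ X + 1 := by
    intro k
    fin_cases k
    · show |x 0 + y| ≤ X + 1
      have := a2 (hx 0) hy
      linarith
    · show |x 1| ≤ X + 1
      linarith [hx 1]
    · show |x 2| ≤ X + 1
      linarith [hx 2]
  have h3 := evY_lip (G := G₁ - G₂) hd hz hx1 hx'
  simp only [Matrix.cons_val, sub_self, abs_zero, add_zero] at h3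
  have e2 : x 0 - (x 0 + y) = -y := by ring
  rw [e2, abs_neg] at h3
  have hR : 0 ≤ R := (abs_nonneg _).trans hz
  have hm : 0 ≤ m := (abs_nonneg _).trans (hG₁ 0)
  have h4 : 2 * m * (1 + R + 4 * (X + 1)) * |y| ≤ 2 * m * (1 + R + 4 * (X + 1)) * K :=
    mul_le_mul_of_nonneg_left hy (by positivity)
  have e3 : evY G₁ z (x 1) (x 2) (x 0) - evY G₂ z (x 1) (x 2) (x 0) =
      evY (G₁ - G₂) z (x 1) (x 2) (x 0 + y) +
        (evY (G₁ - G₂) z (x 1) (x 2) (x 0) - evY (G₁ - G₂) z (x 1) (x 2) (x 0 + y)) := by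
    rw [← evY_sub]; ring
  rw [e3]
  exact a2 h2 (h3.trans h4)

end Crest.Agent.R136.Wit321
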