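import Crest.Agent.R136.Stc3_321
import Crest.Agent.R136.ThnD_768
import Crest.Agent.R136.Fw2_650
import Crest.Agent.R136.TwL3_327
import Crest.Agent.R136.Wit4_321

/-!
# R136, U6 thin side, stage C (helper321): definitions and interface

* `CtD` : data of the container (frame, axis, units, straightening map, `κ`, `σ`); `CtD.t`, `CtD.l` :
  lines in container / normal coordinates; `CtD.Q`, `CtD.M` : sheets in normal coordinates, flags.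
* `Gd D K C n x` : the incidence is good (coordinates and level-`0` flags at most `d^-C`).
* `StcA p D K x0` : interface between the level lemmas and the assembly (ball, `ThinG`, `ClW`).
-/

set_option autoImplicit false
set_option linter.unusedVariables false

open Finset Filter Topology

namespace Crest.Agent.R136.Stc321

open Crest.Agent.R138.Ex926 (Base U)
open Crest.Agent.R138.Mk163 (zc zl rho)
open Crest.Agent.R138.MkRef627 (lc kc)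
open Crest.Agent.R136.Sh605
open Crest.Agent.R136.NetW191
open Crest.Agent.R136.GeoN778
open Crest.Agent.R136.Wit321
open Crest.Agent.R136.Top484
open Crest.Agent.R136.Tlt51 (Close mk4 zx rh)
open Crest.Agent.R136.KapP335 (kapP DetP)
open Crest.Agent.R136.Fw650 (z0N zhN rhN)
open Crest.Agent.R136.Tn327 (CloseW zmN)
open Crest.Agent.R136.FlW464 (frW)
open Crest.Agent.R136.Thn768 (ThinW Frm)

/-- data of the container -/
structure CtD where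
  f : Fin 3 → V3
  c : Ln4
  u : Un
  P : Pj
  κ : ℝ
  σ : ℝ

open Classical in
/-- symmetric coefficients of a sheet function -/
noncomputable def qdOf (q : ℝ → V3 → ℝ) : Qd :=
  if h : ∃ Q : Qd, q = Q.ev ∧ ∀ i j, Q.g i j = Q.g j i then h.choose
  else ⟨0, 0, 0, 0, 0, 0⟩

namespace CtD

variable (K : CtD)

/-- the line in container coordinates -/
noncomputable def t (T : Ln4) : Ln4 := ul K.u (rl K.f K.c T)

/-- the line in normal coordinates -/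
noncomputable def l (T : Ln4) : Ln4 := K.P.line (K.t T)

/-- the sheet in container coordinates -/
noncomputable def Qh (q : ℝ → V3 → ℝ) : Qd := hatQ K.f K.c K.u (qdOf q)

/-- the sheet in normal coordinates -/
noncomputable def Q (q : ℝ → V3 → ℝ) : Qd := pullQ K.P.inv (K.Qh q)

/-- the flags of the sheet -/
noncomputable def M (q : ℝ → V3 → ℝ) : Fin 14 → ℝ := flg K.κ K.σ (K.Q q)

end CtD

section seq

variable (D : Dat4) (K : ℕ → CtD)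

/-- unit of the heights -/
noncomputable def hzS (n : ℕ) : ℝ := 1 / (K n).u.H

/-- shift of the heights -/
noncomputable def zsS (n : ℕ) : ℝ := (K n).u.zc / (K n).u.H

/-- lines in normal coordinates -/
noncomputable def LS (n i : ℕ) : Ln4 := (K n).l (D.L n i)

noncomputable def wAS (n : ℕ) (v : ℚ) : ℝ := D.w 1 n v / (K n).u.WA

noncomputable def wBS (n : ℕ) (v : ℚ) : ℝ := wAS D K n v ^ 2 / rhN D.lev (hzS K) n v

noncomputable def aS (n : ℕ) (v : ℚ) : ℝ := D.w 0 n v / D.w 0 n 0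

/-- marks in normal coordinates -/
noncomputable def MkS (v : ℚ) (n : ℕ) (c : ℕ × ℤ) : Fin 14 → ℝ := (K n).M (D.b n v c.1).q

/-- good incidence: hat coordinates of the line and level-`0` flags at most `d^-C` -/
def Gd (C : ℝ) (n : ℕ) (x : ℕ × ℝ) : Prop :=
  (∀ k, |((K n).t (D.L n x.1)).p k| ≤ D.B.d n ^ (-C) ∧
    |((K n).t (D.L n x.1)).v k| ≤ D.B.d n ^ (-C)) ∧
  ((K n).Q (mk4 D n 0 x).q).b 0 ≠ 0 ∧ ∀ k, |(K n).M (mk4 D n 0 x).q k| ≤ D.B.d n ^ (-C)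

end seq

/-- **interface between the level lemmas and the assembly** -/
structure StcA (p : Par4) (D : Dat4) (K : ℕ → CtD) (x0 : ℕ → ℕ × ℝ) : Prop where
  kp1 : ∀ n, |(K n).κ| ≤ 1
  σ0 : ∀ n, 0 < (K n).σ
  ok : ∀ n, (K n).u.Ok
  ortho : ∀ n, Ortho (K n).f
  kp0 : ∀ᶠ n in (U : Filter ℕ), 1 / 5 ≤ |(K n).κ|
  sm : ∀ M : ℝ, ∀ᶠ n in (U : Filter ℕ), (K n).P.Sm (D.B.d n ^ M)
  σs : ∀ M : ℝ, ∀ᶠ n in (U : Filter ℕ), (K n).σ ≤ D.B.d n ^ M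
  /-- gaps between the units -/
  YB : ∀ M : ℝ, ∀ᶠ n in (U : Filter ℕ), (K n).u.WY ≤ D.B.d n ^ M * (K n).u.WB
  BA : ∀ M : ℝ, ∀ᶠ n in (U : Filter ℕ), (K n).u.WB ≤ D.B.d n ^ M * (K n).u.WA
  σw : ∀ᶠ n in (U : Filter ℕ), (K n).u.WY * (K n).σ = D.w 0 n 0
  H : ∀ᶠ n in (U : Filter ℕ), (K n).u.H = 2 * rho (D.lev n 0)
  zcc : ∀ᶠ n in (U : Filter ℕ), ∀ x ∈ D.I n, (K n).u.zc = zx D n 0 x + rho (D.lev n 0) / 2
  wid : ∀ ε : ℝ, 0 < ε → ∀ᶠ n in (U : Filter ℕ),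
    D.B.d n ^ ε * (K n).u.WA ≤ D.w 1 n 0 ∧ D.w 1 n 0 ≤ D.B.d n ^ (-ε) * (K n).u.WA ∧
    D.B.d n ^ ε * (K n).u.WB ≤ D.w 2 n 0 ∧ D.w 2 n 0 ≤ D.B.d n ^ (-ε) * (K n).u.WB
  frm : ∀ᶠ n in (U : Filter ℕ), ∀ x ∈ D.I n, Frm (mk4 D n 0 x) (D.L n x.1) x.2 (K n).f
  cen : ∀ᶠ n in (U : Filter ℕ), x0 n ∈ D.I n
  cenG : ∃ C : ℝ, ∀ᶠ n in (U : Filter ℕ), Gd D K C n (x0 n)
  /-- class mates of good incidences are good -/
  mate : ∀ C : ℝ, ∀ v : ℚ, 0 ≤ v → v ≤ 1 → ∃ C' : ℝ, ∀ᶠ n in (U : Filter ℕ), ∀ x ∈ D.I n,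
    ∀ y ∈ D.I n, kc (D.lev n v) (D.f n v) y = kc (D.lev n v) (D.f n v) x → Gd D K C n x →
      Gd D K C' n y
  /-- flags of all levels -/
  Mb : ∀ C : ℝ, ∀ v : ℚ, 0 ≤ v → v ≤ 1 → ∃ C' : ℝ, ∀ᶠ n in (U : Filter ℕ), ∀ x ∈ D.I n,
    Gd D K C n x → ((K n).Q (mk4 D n v x).q).b 0 ≠ 0 ∧
      ∀ k, |MkS D K v n (kc (D.lev n v) (D.f n v) x) k| ≤ D.B.d n ^ (-C')
  /-- thickness -/
  thick : ∀ C : ℝ, ∀ v : ℚ, 0 ≤ v → v ≤ 1 → ∀ ε : ℝ, 0 < ε → ∀ᶠ n in (U : Filter ℕ),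
    ∀ x ∈ D.I n, Gd D K C n x → ∀ z, z0N D.lev (hzS K) (zsS K) v n (zc (D.lev n v) x.2) ≤ z →
      z ≤ z0N D.lev (hzS K) (zsS K) v n (zc (D.lev n v) x.2) + rhN D.lev (hzS K) n v →
      |ht (K n).κ z ((LS D K n x.1).pos z 1) ((LS D K n x.1).pos z 2) ((LS D K n x.1).pos z 0) -
        (K n).σ * evY (MkS D K v n (kc (D.lev n v) (D.f n v) x)) z ((LS D K n x.1).pos z 1)
          ((LS D K n x.1).pos z 2) ((LS D K n x.1).pos z 0)| ≤
        (K n).σ * (aS D n v * D.B.d n ^ (-ε))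
  /-- lateral extents -/
  lat : ∀ C : ℝ, ∀ v : ℚ, 0 ≤ v → v ≤ 1 → ∀ ε : ℝ, 0 < ε → ∀ᶠ n in (U : Filter ℕ),
    ∀ x ∈ D.I n, ∀ y ∈ D.I n, kc (D.lev n v) (D.f n v) y = kc (D.lev n v) (D.f n v) x →
      Gd D K C n x → ∀ z, z0N D.lev (hzS K) (zsS K) v n (zc (D.lev n v) x.2) ≤ z →
      z ≤ z0N D.lev (hzS K) (zsS K) v n (zc (D.lev n v) x.2) + rhN D.lev (hzS K) n v →
      |(LS D K n y.1).pos z 1 - (LS D K n x.1).pos z 1| ≤ wAS D K n v * D.B.d n ^ (-ε) ∧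
      |((LS D K n y.1).pos z 2 - (LS D K n x.1).pos z 2) +
        2 * (K n).κ * (LS D K n x.1).v 1 *
          ((LS D K n y.1).pos z 1 - (LS D K n x.1).pos z 1)| ≤ wBS D K n v * D.B.d n ^ (-ε)
  /-- closeness of the sheets of two levels -/
  clw : ∃ C0 : ℝ, 0 ≤ C0 ∧ ∀ C : ℝ, ∀ u v : ℚ, 0 ≤ u → u < v → v ≤ 1 → ∀ ε : ℝ, 0 < ε →
    ∀ᶠ n in (U : Filter ℕ), ∀ x ∈ D.I n, Gd D K C n x →
      CloseW (K n).κ (frW (LS D K n x.1) (zmN D.lev (hzS K) (zsS K) v n x))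
        (rhN D.lev (hzS K) n v * D.B.d n ^ ε) (wAS D K n v * D.B.d n ^ ε)
        (wAS D K n v ^ 2 / rhN D.lev (hzS K) n v * D.B.d n ^ ε)
        (max (aS D n u) (aS D n v) * D.B.d n ^ (-(C0 * ((v : ℝ) - u)) - ε))
        (MkS D K v n (kc (D.lev n v) (D.f n v) x)) (MkS D K u n (kc (D.lev n u) (D.f n u) x))
  /-- balance of the widths -/
  bal : ∀ v : ℚ, 0 ≤ v → v ≤ 1 → ∀ ε : ℝ, 0 < ε → ∀ᶠ n in (U : Filter ℕ),
    D.w 2 n v ≤ (K n).u.WB * (wBS D K n v * D.B.d n ^ (-ε)) ∧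
      (K n).u.WB * wBS D K n v ≤ D.w 2 n v * D.B.d n ^ (-ε)

end Crest.Agent.R136.Stc321
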