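import Crest.Agent.R136.StcD_321

/-!
# R136, U6 thin side, stage C (helper327): sizes of the coefficients, symmetric coefficients

* `sz_of` : size of all coefficients from the gradient, its derivative, the second order form and the
  values along one line;
* `qdOf_spec`, `Qd_ext` : the symmetric coefficients exist and are unique;
* `dif_mul_pull`, `dif_mul_hat`, `rem_pull_lin` : linearity of `pullQ`, `hatQ`, `rem`.
-/

set_option autoImplicit false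
set_option linter.unusedVariables false

namespace Crest.Agent.R136.Szo327

open Crest.Agent.R136.Sh605
open Crest.Agent.R136.GeoN778
open Crest.Agent.R136.Wit321
open Crest.Agent.R136.Stc321 (gd qdOf)

private theorem mb {x y A B : ℝ} (hx : |x| ≤ A) (hy : |y| ≤ B) : |x * y| ≤ A * B := by
  rw [abs_mul]; exact mul_le_mul hx hy (abs_nonneg _) ((abs_nonneg _).trans hx)

private theorem ad {x y A B : ℝ} (hx : |x| ≤ A) (hy : |y| ≤ B) : |x + y| ≤ A + B :=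
  (abs_add_le _ _).trans (add_le_add hx hy)

private theorem sb {x y A B : ℝ} (hx : |x| ≤ A) (hy : |y| ≤ B) : |x - y| ≤ A + B :=
  (abs_sub _ _).trans (add_le_add hx hy)

private theorem s3 {x : Fin 3 → ℝ} {A : ℝ} (h : ∀ k, |x k| ≤ A) : |∑ k, x k| ≤ 3 * A := by
  rw [Fin.sum_univ_three]
  exact (ad (ad (h 0) (h 1)) (h 2)).trans (by linarith)

/-- **sizes of the coefficients** -/
theorem sz_of {Q : Qd} (hs : ∀ i j, Q.g i j = Q.g j i) {t : Ln4} {R Kb L α z1 : ℝ} (hR : 1 ≤ R)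
    (hp : ∀ k, |t.p k| ≤ R) (hv : ∀ k, |t.v k| ≤ R) (hz1 : |z1| ≤ R)
    (hg : ∀ k, |Q.gr z1 (t.pos z1) k| ≤ Kb) (hd : ∀ k, |gd Q t k| ≤ Kb)
    (hh : ∀ i j, |Q.g i j| ≤ Kb) (hL : 0 < L) (hL1 : L ≤ 1) (hα : |α| ≤ R)
    (hc : ∀ z, α ≤ z → z ≤ α + L → |Q.ev z (t.pos z)| ≤ Kb) :
    Sz Q (10 ^ 4 * R ^ 4 * Kb / L ^ 2) := by
  have hKb : 0 ≤ Kb := (abs_nonneg _).trans (hh 0 0)
  have hR0 : 0 < R := by linarith
  obtain ⟨X, hX⟩ : ∃ X, X = Kb / L ^ 2 := ⟨_, rfl⟩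
  have hX0 : 0 ≤ X := by rw [hX]; positivity
  have hKX : Kb ≤ X := by
    rw [hX, le_div_iff₀ (by positivity)]
    have : L ^ 2 ≤ 1 := pow_le_one₀ hL.le hL1
    nlinarith
  have hKL : Kb / L ≤ X := by
    rw [hX, div_le_div_iff₀ hL (by positivity)]
    have h1 : L ^ 2 ≤ L := by nlinarith
    exact mul_le_mul_of_nonneg_left h1 hKb
  have r2 : R ≤ R ^ 2 := by nlinarith
  have r3 : R ^ 2 ≤ R ^ 3 := by nlinarith [sq_nonneg R]
  have r4 : R ^ 3 ≤ R ^ 4 := by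
    have : 0 < R ^ 3 := by positivity
    nlinarith
  have x1 : R * X ≤ R ^ 4 * X := mul_le_mul_of_nonneg_right (by linarith) hX0
  have x0 : X ≤ R ^ 4 * X := by nlinarith
  have x2 : R ^ 2 * X ≤ R ^ 4 * X := mul_le_mul_of_nonneg_right (by linarith) hX0
  have x3 : R ^ 3 * X ≤ R ^ 4 * X := mul_le_mul_of_nonneg_right r4 hX0
  have eX : 10 ^ 4 * R ^ 4 * Kb / L ^ 2 = 10 ^ 4 * (R ^ 4 * X) := by rw [hX]; ring
  rw [eX]
  have y1 : R * Kb ≤ R * X := mul_le_mul_of_nonneg_left hKX hR0.le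
  have y2 : R ^ 2 * Kb ≤ R ^ 2 * X := mul_le_mul_of_nonneg_left hKX (by positivity)
  have y3 : R ^ 3 * Kb ≤ R ^ 3 * X := mul_le_mul_of_nonneg_left hKX (by positivity)
  have z1' : Kb ≤ R * Kb := by nlinarith
  have z2' : R * Kb ≤ R ^ 2 * Kb := mul_le_mul_of_nonneg_right r2 hKb
  have z3' : R ^ 2 * Kb ≤ R ^ 3 * Kb := mul_le_mul_of_nonneg_right r3 hKb
  -- `d`
  have bd : ∀ k, |Q.d k| ≤ 7 * (R * Kb) := by
    intro k
    have e : Q.d k = gd Q t k - ∑ j, (Q.g k j + Q.g j k) * t.v j := by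
      simp only [gd]; ring
    rw [e]
    have h1 : |∑ j, (Q.g k j + Q.g j k) * t.v j| ≤ 3 * ((Kb + Kb) * R) :=
      s3 fun j => mb (ad (hh k j) (hh j k)) (hv j)
    exact (sb (hd k) h1).trans (by linarith)
  -- `b`
  have bpos : ∀ k, |t.pos z1 k| ≤ 2 * R ^ 2 := by
    intro k
    have e : t.pos z1 k = t.p k + z1 * t.v k := by simp [Ln4.pos]
    rw [e]
    exact (ad (hp k) (mb hz1 (hv k))).trans (by nlinarith)
  have bb : ∀ k, |Q.b k| ≤ 20 * (R ^ 2 * Kb) := by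
    intro k
    have e : Q.b k = Q.gr z1 (t.pos z1) k - (Q.d k * z1 + ∑ j, (Q.g k j + Q.g j k) * t.pos z1 j) := by
      simp only [Qd.gr]; ring
    rw [e]
    have h1 : |∑ j, (Q.g k j + Q.g j k) * t.pos z1 j| ≤ 3 * ((Kb + Kb) * (2 * R ^ 2)) :=
      s3 fun j => mb (ad (hh k j) (hh j k)) (bpos j)
    have h2 : |Q.d k * z1| ≤ 7 * (R * Kb) * R := mb (bd k) hz1
    refine (sb (hg k) (ad h2 h1)).trans ?_
    nlinarith
  -- values along the line
  obtain ⟨f, hf⟩ : ∃ f : ℝ → ℝ, f = fun z => Q.ev z (t.pos z) := ⟨_, rfl⟩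
  obtain ⟨p0, hp0⟩ : ∃ p0, p0 = Q.c0 + ∑ i, Q.b i * t.p i + ∑ i, ∑ j, Q.g i j * (t.p i * t.p j) :=
    ⟨_, rfl⟩
  obtain ⟨p1, hp1⟩ : ∃ p1, p1 = Q.c1 + ∑ i, (Q.b i * t.v i + Q.d i * t.p i) +
      ∑ i, ∑ j, Q.g i j * (t.p i * t.v j + t.v i * t.p j) := ⟨_, rfl⟩
  obtain ⟨p2, hp2⟩ : ∃ p2, p2 = Q.c2 + ∑ i, Q.d i * t.v i + ∑ i, ∑ j, Q.g i j * (t.v i * t.v j) :=
    ⟨_, rfl⟩
  have hfe : ∀ z, f z = p0 + p1 * z + p2 * z ^ 2 := by
    intro z
    rw [hf, hp0, hp1, hp2]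
    simp only [Qd.ev, Ln4.pos, Fin.sum_univ_three]
    ring
  have v0 : |f α| ≤ Kb := by rw [hf]; exact hc α le_rfl (by linarith)
  have v1 : |f (α + L / 2)| ≤ Kb := by rw [hf]; exact hc _ (by linarith) (by linarith)
  have v2 : |f (α + L)| ≤ Kb := by rw [hf]; exact hc _ (by linarith) le_rfl
  have two : |(2 : ℝ)| ≤ 2 := by norm_num
  have three : |(3 : ℝ)| ≤ 3 := by norm_num
  have four : |(4 : ℝ)| ≤ 4 := by norm_num
  -- second coefficient
  have bp2 : |p2| ≤ 8 * X := by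
    have e : p2 = (2 * (f (α + L) - 2 * f (α + L / 2) + f α)) / L ^ 2 := by
      rw [eq_div_iff (by positivity), hfe, hfe, hfe]; ring
    have h1 : |2 * (f (α + L) - 2 * f (α + L / 2) + f α)| ≤ 8 * Kb :=
      (mb two (ad (sb v2 (mb two v1)) v0)).trans (by linarith)
    rw [e, abs_div, abs_of_pos (by positivity : 0 < L ^ 2), hX, ← mul_div_assoc]
    exact div_le_div_of_nonneg_right h1 (by positivity)
  have bB : |p1 + 2 * α * p2| ≤ 8 * X := by
    have e : p1 + 2 * α * p2 = (4 * f (α + L / 2) - 3 * f α - f (α + L)) / L := by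
      rw [eq_div_iff (by positivity), hfe, hfe, hfe]; ring
    have h1 : |4 * f (α + L / 2) - 3 * f α - f (α + L)| ≤ 8 * Kb :=
      (sb (sb (mb four v1) (mb three v0)) v2).trans (by linarith)
    rw [e, abs_div, abs_of_pos hL]
    refine (div_le_div_of_nonneg_right h1 hL.le).trans ?_
    rw [mul_div_assoc]
    linarith
  have bp1 : |p1| ≤ 24 * (R * X) := by
    have e : p1 = (p1 + 2 * α * p2) - 2 * α * p2 := by ring
    rw [e]
    refine (sb bB (mb (mb two hα) bp2)).trans ?_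
    nlinarith
  have bp0 : |p0| ≤ 33 * (R ^ 2 * X) := by
    have e : p0 = f α - (p1 * α + p2 * (α * α)) := by rw [hfe]; ring
    rw [e]
    refine (sb v0 (ad (mb bp1 hα) (mb bp2 (mb hα hα)))).trans ?_
    nlinarith
  refine ⟨?_, ?_, ?_, fun k => ?_, fun k => ?_, fun i j => ?_⟩
  · have e : Q.c0 = p0 - (∑ i, Q.b i * t.p i + ∑ i, ∑ j, Q.g i j * (t.p i * t.p j)) := by
      rw [hp0]; ring
    have h1 : |∑ i, Q.b i * t.p i| ≤ 3 * (20 * (R ^ 2 * Kb) * R) := s3 fun i => mb (bb i) (hp i)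
    have h2 : |∑ i, ∑ j, Q.g i j * (t.p i * t.p j)| ≤ 3 * (3 * (Kb * (R * R))) :=
      s3 fun i => s3 fun j => mb (hh i j) (mb (hp i) (hp j))
    rw [e]
    refine (sb bp0 (ad h1 h2)).trans ?_
    have e1 : 3 * (20 * (R ^ 2 * Kb) * R) = 60 * (R ^ 3 * Kb) := by ring
    have e2 : 3 * (3 * (Kb * (R * R))) = 9 * (R ^ 2 * Kb) := by ring
    rw [e1, e2]
    linarith
  · have e : Q.c1 = p1 - (∑ i, (Q.b i * t.v i + Q.d i * t.p i) +
        ∑ i, ∑ j, Q.g i j * (t.p i * t.v j + t.v i * t.p j)) := by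
      rw [hp1]; ring
    have h1 : |∑ i, (Q.b i * t.v i + Q.d i * t.p i)| ≤
        3 * (20 * (R ^ 2 * Kb) * R + 7 * (R * Kb) * R) :=
      s3 fun i => ad (mb (bb i) (hv i)) (mb (bd i) (hp i))
    have h2 : |∑ i, ∑ j, Q.g i j * (t.p i * t.v j + t.v i * t.p j)| ≤
        3 * (3 * (Kb * (R * R + R * R))) :=
      s3 fun i => s3 fun j => mb (hh i j) (ad (mb (hp i) (hv j)) (mb (hv i) (hp j)))
    rw [e]
    refine (sb bp1 (ad h1 h2)).trans ?_
    have e1 : 3 * (20 * (R ^ 2 * Kb) * R + 7 * (R * Kb) * R) =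
        60 * (R ^ 3 * Kb) + 21 * (R ^ 2 * Kb) := by ring
    have e2 : 3 * (3 * (Kb * (R * R + R * R))) = 18 * (R ^ 2 * Kb) := by ring
    rw [e1, e2]
    linarith
  · have e : Q.c2 = p2 - (∑ i, Q.d i * t.v i + ∑ i, ∑ j, Q.g i j * (t.v i * t.v j)) := by
      rw [hp2]; ring
    have h1 : |∑ i, Q.d i * t.v i| ≤ 3 * (7 * (R * Kb) * R) := s3 fun i => mb (bd i) (hv i)
    have h2 : |∑ i, ∑ j, Q.g i j * (t.v i * t.v j)| ≤ 3 * (3 * (Kb * (R * R))) :=
      s3 fun i => s3 fun j => mb (hh i j) (mb (hv i) (hv j))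
    rw [e]
    refine (sb bp2 (ad h1 h2)).trans ?_
    have e1 : 3 * (7 * (R * Kb) * R) = 21 * (R ^ 2 * Kb) := by ring
    have e2 : 3 * (3 * (Kb * (R * R))) = 9 * (R ^ 2 * Kb) := by ring
    rw [e1, e2]
    linarith
  · exact (bb k).trans (by linarith)
  · exact (bd k).trans (by linarith)
  · exact (hh i j).trans (by linarith)

/-- **the symmetric coefficients of a sheet function** -/
theorem qdOf_spec {q : ℝ → V3 → ℝ} (h : IsQ q) :
    q = (qdOf q).ev ∧ ∀ i j, (qdOf q).g i j = (qdOf q).g j i := by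
  obtain ⟨Q, hQ⟩ := exists_Qd h
  have hex : ∃ Q : Qd, q = Q.ev ∧ ∀ i j, Q.g i j = Q.g j i := by
    refine ⟨{ Q with g := fun i j => (Q.g i j + Q.g j i) / 2 }, ?_, fun i j => ?_⟩
    · rw [hQ]
      funext z x
      simp only [Qd.ev, Fin.sum_univ_three]
      ring
    · show (Q.g i j + Q.g j i) / 2 = (Q.g j i + Q.g i j) / 2
      ring
  unfold qdOf
  rw [dif_pos hex]
  exact hex.choose_spec

/-- **symmetric coefficients are unique** -/
theorem Qd_ext {Q Q2 : Qd} (hs : ∀ i j, Q.g i j = Q.g j i) (hs2 : ∀ i j, Q2.g i j = Q2.g j i)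
    (h : ∀ z x, Q.ev z x = Q2.ev z x) : Q = Q2 := by
  have e0 : ∀ (Q : Qd) z, Q.ev z 0 = Q.c0 + Q.c1 * z + Q.c2 * z ^ 2 := by
    intro Q z
    simp [Qd.ev]
  have c00 := h 0 0
  have c01 := h 1 0
  have c02 := h (-1) 0
  rw [e0, e0] at c00 c01 c02
  have k0 : Q.c0 = Q2.c0 := by linarith
  have k1 : Q.c1 = Q2.c1 := by linarith
  have k2 : Q.c2 = Q2.c2 := by linarith
  -- along an axis
  have ax : ∀ (Q : Qd) z (k : Fin 3) (s : ℝ), Q.ev z (Pi.single k s) =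
      Q.c0 + Q.c1 * z + Q.c2 * z ^ 2 + (Q.b k + Q.d k * z) * s + Q.g k k * (s * s) := by
    intro Q z k s
    fin_cases k <;> simp [Qd.ev, Fin.sum_univ_three]
  have hb : ∀ k, Q.b k = Q2.b k ∧ Q.d k = Q2.d k ∧ Q.g k k = Q2.g k k := by
    intro k
    have a1 := h 0 (Pi.single k 1)
    have a2 := h 0 (Pi.single k (-1))
    have a3 := h 1 (Pi.single k 1)
    rw [ax, ax] at a1 a2 a3
    refine ⟨?_, ?_, ?_⟩ <;> linarith
  have pr : ∀ (Q : Qd) (i j : Fin 3), i ≠ j → Q.ev 0 (Pi.single i 1 + Pi.single j 1) =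
      Q.c0 + Q.b i + Q.b j + Q.g i i + Q.g j j + (Q.g i j + Q.g j i) := by
    intro Q i j hij
    fin_cases i <;> fin_cases j <;> first
      | exact absurd rfl hij
      | (simp [Qd.ev, Fin.sum_univ_three]; ring)
  have hg : ∀ i j, Q.g i j = Q2.g i j := by
    intro i j
    rcases eq_or_ne i j with rfl | hij
    · exact (hb i).2.2
    · have a1 := h 0 (Pi.single i 1 + Pi.single j 1)
      rw [pr Q i j hij, pr Q2 i j hij] at a1
      have s1 := hs i j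
      have s2 := hs2 i j
      have b1 := (hb i).1
      have b2 := (hb j).1
      have g1 := (hb i).2.2
      have g2 := (hb j).2.2
      linarith
  obtain ⟨a0, a1, a2, a3, a4, a5⟩ := Q
  obtain ⟨b0, b1, b2, b3, b4, b5⟩ := Q2
  simp only [Qd.mk.injEq]
  exact ⟨k0, k1, k2, funext fun k => (hb k).1, funext fun k => (hb k).2.1,
    funext fun i => funext fun j => hg i j⟩

/-- `pullQ` is linear -/
theorem dif_mul_pull (P : Pj) (m : ℝ) (Q W : Qd) :
    pullQ P (dif Q (mul m W)) = dif (pullQ P Q) (mul m (pullQ P W)) := by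
  simp only [pullQ, dif, mul, Fin.sum_univ_three, Qd.mk.injEq]
  refine ⟨trivial, trivial, trivial, ?_, ?_, ?_⟩
  · funext i; ring
  · funext i; ring
  · funext i j; ring

/-- `hatQ` is linear -/
theorem dif_mul_hat (f : Fin 3 → V3) (c : Ln4) (u : Un) (m : ℝ) (Q W : Qd) :
    hatQ f c u (dif Q (mul m W)) = dif (hatQ f c u Q) (mul m (hatQ f c u W)) := by
  simp only [hatQ, unQ, movQ, Qd.scl, dif, mul, Fin.sum_univ_three, Qd.mk.injEq]
  refine ⟨?_, ?_, ?_, ?_, ?_, ?_⟩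
  · ring
  · ring
  · ring
  · funext i; ring
  · funext i; ring
  · funext i j; ring

/-- `rem` is linear -/
theorem rem_lin (κ m : ℝ) (Q W : Qd) (k : Fin 14) :
    rem κ (dif Q (mul m W)) k = rem κ Q k - m * rem κ W k := by
  fin_cases k <;> simp [rem, dif, mul] <;> ring

/-- `rem` of the pull back is linear -/
theorem rem_pull_lin (κ : ℝ) (P : Pj) (m : ℝ) (Q W : Qd) (k : Fin 14) :
    rem κ (pullQ P (dif Q (mul m W))) k = rem κ (pullQ P Q) k - m * rem κ (pullQ P W) k := by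
  rw [dif_mul_pull, rem_lin]

theorem b_pull_lin (P : Pj) (m : ℝ) (Q W : Qd) (k : Fin 3) :
    (pullQ P (dif Q (mul m W))).b k = (pullQ P Q).b k - m * (pullQ P W).b k := by
  rw [dif_mul_pull]; rfl

end Crest.Agent.R136.Szo327
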