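import Crest.Agent.R136.Stc5_321
import Crest.Agent.R136.StcD_321
import Crest.Agent.R136.Szo_327

/-!
# R136, U6 thin side, stage C (helper768): closeness of the sheets of two levels, finite part 1

`om_pt` : values of `q' - m q` at a point near the line, in container coordinates;
`dsp` : displacement of a point of the model quadric from the line, through the straightening map.
-/

set_option autoImplicit false
set_option linter.unusedVariables false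

namespace Crest.Agent.R136.Clw768

open Crest.Agent.R136.Sh605
open Crest.Agent.R136.K4
open Crest.Agent.R136.NetW191
open Crest.Agent.R136.GeoN778
open Crest.Agent.R136.Wit321
open Crest.Agent.R136.Tl102 (QF Fq bz fan shB0 scB1 scG shG shB1 kap NrmC IsExp fr cmb StP OmB om0
  om1 omM tv pv gl om_val cmb_pv sD)
open Crest.Agent.R136.Thn768 (Own Snd Tay cr dtm ev_le bs)
open Crest.Agent.R136.Stc321

/-- values of `ω` in own coordinates -/
theorem fq_om_le {κ X : ℝ} {b0 b1 : V3} {G : QF} {b0' b1' : V3} {G' : QF} (hb : b0 0 ≠ 0)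
    (O : OmB κ X X X b0 b1 G b0' b1' G') {ζ : ℝ} (h0 : 0 ≤ ζ) (h1 : ζ ≤ 1) {τ : V3}
    (hτ : ∀ k, |τ k| ≤ 1) :
    |Fq (om0 κ b0 b0') (om1 κ b0 b1 b0' b1') (omM κ b0 G b0' G') ζ τ| ≤ 11 * X := by
  have hX : 0 ≤ X := O.nonneg.1
  have hζ : |ζ| ≤ 1 := by rw [abs_of_nonneg h0]; exact h1
  have z0 : om0 κ b0 b0' 0 = 0 := Tl102.om0_zero κ hb b0'
  have hM : (omM κ b0 G b0' G').Le X := ⟨O.yy, O.yu, O.yv, O.uu, O.uv, O.vv⟩
  have h2 := ev_le hM hτ
  have k0 : |om1 κ b0 b1 b0' b1' 0| ≤ X := O.y1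
  have e : dt (bz (om0 κ b0 b0') (om1 κ b0 b1 b0' b1') ζ) τ =
      (ζ * om1 κ b0 b1 b0' b1' 0) * τ 0 + (om0 κ b0 b0' 1 + ζ * om1 κ b0 b1 b0' b1' 1) * τ 1 +
        (om0 κ b0 b0' 2 + ζ * om1 κ b0 b1 b0' b1' 2) * τ 2 := by
    simp only [dt, bz, z0]; ring
  unfold Fq
  rw [e]
  have a0 := m2 (m2 hζ k0) (hτ 0)
  have a1 := m2 (a2 O.h01 (m2 hζ O.h11)) (hτ 1)
  have a2' := m2 (a2 O.h02 (m2 hζ O.h12)) (hτ 2)
  refine (a2 (a2 (a2 a0 a1) a2') h2).trans (le_of_eq (by ring))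

section pt

variable {S : Plk4} {T : Ln4} {z0 ρ δ : ℝ} {b0 b1 : V3} {G : QF} {f : Fin 3 → V3} {c : Ln4} {u : Un}

/-- own coordinates of a vector given in container coordinates -/
noncomputable def tc (f : Fin 3 → V3) (u : Un) (S : Plk4) (b0 b1 : V3) (G : QF) (V : V3) : V3 :=
  tv (kap b0 b1 G) b0 S.e S.w (cmb (fW f u) V)

/-- a vector is a combination of the adapted basis -/
theorem tc_spec (O : Own S T z0 ρ δ b0 b1 G) (hf : Ortho f) (hu : u.Ok) (V : V3) (k : Fin 3) :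
    V k = tc f u S b0 b1 G V 0 * φb f u S.e S.w (kap b0 b1 G) b0 0 k +
      tc f u S b0 b1 G V 1 * φb f u S.e S.w (kap b0 b1 G) b0 1 k +
      tc f u S b0 b1 G V 2 * φb f u S.e S.w (kap b0 b1 G) b0 2 k := by
  set κs := kap b0 b1 G with hκs
  set τ := tc f u S b0 b1 G V with hτ
  have hW : u.W k ≠ 0 := (hu.W0 k).ne'
  have h1 : cmb (bs S.e S.w b0 κs) τ = cmb (fW f u) V := O.cmb_tv (cmb (fW f u) V)
  have h2 : dt (f k) (cmb (fW f u) V) = u.W k * V k := dt_cmb_fW hf u V k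
  have h3 : V k = dt (f k) (cmb (fW f u) V) / u.W k := by
    rw [h2]; field_simp
  have h4 : ∀ i, φb f u S.e S.w κs b0 i k = dt (f k) (bs S.e S.w b0 κs i) / u.W k := by
    intro i
    have e : cmb (fr S.e S.w) (tb κs b0 i) = bs S.e S.w b0 κs i := by
      funext j
      fin_cases i
      · simp [cmb, Tl102.fr, tb, bs]; ring
      · simp [cmb, Tl102.fr, tb, tE, bs]; ring
      · simp [cmb, Tl102.fr, tb, tE, bs]; ring
    show dt (f k) (cmb (fr S.e S.w) (tb κs b0 i)) / u.W k = _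
    rw [e]
  rw [h4, h4, h4, h3, ← h1]
  simp only [dt, cmb]
  ring

/-- **values of `q' - m q` near the line**, container coordinates -/
theorem om_pt (O : Own S T z0 ρ δ b0 b1 G) (hf : Ortho f) (hu : u.Ok) {Qv Qu : Qd}
    (hv : S.q = Qv.ev) {b0' b1' : V3} {G' : QF} {X : ℝ}
    (hE : IsExp Qu.ev S.e S.w T z0 ρ b0' b1' G')
    (hO : OmB (kap b0 b1 G) X X X b0 b1 G b0' b1' G') {ζ : ℝ} (ζ0 : 0 ≤ ζ) (ζ1 : ζ ≤ 1) {V : V3}
    (hτ : ∀ k, |tc f u S b0 b1 G V k| ≤ 1) {tv' tu' M : ℝ} (hm : |b0' 0 / b0 0| ≤ M)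
    (h1 : |Qv.ev (z0 + ρ * ζ) (T.pos (z0 + ρ * ζ))| ≤ tv')
    (h2 : |Qu.ev (z0 + ρ * ζ) (T.pos (z0 + ρ * ζ))| ≤ tu') :
    |(hatQ f c u Qu).ev (u.zh (z0 + ρ * ζ))
        (fun k => (ul u (rl f c T)).pos (u.zh (z0 + ρ * ζ)) k + V k) -
      b0' 0 / b0 0 * (hatQ f c u Qv).ev (u.zh (z0 + ρ * ζ))
        (fun k => (ul u (rl f c T)).pos (u.zh (z0 + ρ * ζ)) k + V k)| ≤
      11 * (X * (S.w 0 * kap b0 b1 G)) + tu' + M * tv' := by
  set z := z0 + ρ * ζ with hz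
  set κs := kap b0 b1 G with hκs
  obtain ⟨n1, n2, n3, n4, n5, n6, n7⟩ := NrmC.base O.nrm
  have hb0 : b0 0 ≠ 0 := by linarith
  have hκ : κs ≠ 0 := O.k0.ne'
  have hw : ∀ k, S.w k ≠ 0 := fun k => (O.pos k).ne'
  have e1 : (fun k => (ul u (rl f c T)).pos (u.zh z) k + V k) =
      u.xh (phi f c z (T.pos z + cmb (fW f u) V)) := (xh_fW hf hu T z V).symm
  rw [e1, hatQ_ev hf c hu, hatQ_ev hf c hu]
  have hEv : IsExp Qv.ev S.e S.w T z0 ρ b0 b1 G := by rw [← hv]; exact O.exp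
  have h3 := om_val O.ortho hw hEv hE hκ ζ (T.pos z + cmb (fW f u) V)
  rw [← hz] at h3
  have e2 : T.pos z + cmb (fW f u) V - T.pos z = cmb (fW f u) V := by abel
  rw [e2] at h3
  have h4 := fq_om_le hb0 hO ζ0 ζ1 hτ
  have hYe : 0 < S.w 0 * κs := mul_pos (O.pos 0) O.k0
  have e3 : Qu.ev z (T.pos z + cmb (fW f u) V) - b0' 0 / b0 0 * Qv.ev z (T.pos z + cmb (fW f u) V) =
      S.w 0 * κs * Fq (om0 κs b0 b0') (om1 κs b0 b1 b0' b1') (omM κs b0 G b0' G') ζ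
        (tv κs b0 S.e S.w (cmb (fW f u) V)) + Qu.ev z (T.pos z) -
        b0' 0 / b0 0 * Qv.ev z (T.pos z) := by
    rw [← h3]; ring
  rw [e3]
  have h5 : |S.w 0 * κs * Fq (om0 κs b0 b0') (om1 κs b0 b1 b0' b1') (omM κs b0 G b0' G') ζ
        (tv κs b0 S.e S.w (cmb (fW f u) V))| ≤ 11 * (X * (S.w 0 * κs)) := by
    rw [abs_mul, abs_of_pos hYe]
    have := mul_le_mul_of_nonneg_left h4 hYe.le
    refine this.trans (le_of_eq (by ring))
  exact s2 (a2 h5 h2) (m2 hm h1)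

end pt

/-- displacement of a point from the line, through the straightening map -/
theorem dsp {P : Pj} {η R : ℝ} (h : P.Sm η) (hR : 1 ≤ R) (hη : 20 * (η * R) ≤ 1) {t : Ln4}
    (hp : ∀ k, |t.p k| ≤ R) (hv : ∀ k, |t.v k| ≤ R) {z : ℝ} {x : V3} (hz : |z| ≤ R)
    (hx : ∀ k, |x k| ≤ R) :
    |P.inv.ht z x - z| ≤ 20 * (η * R ^ 2) ∧
      (∀ k, |t.pos (P.inv.ht z x) k - (P.line t).pos z k| ≤ 120 * (η * R ^ 3)) ∧
      ∀ k, |(P.inv.pt x k - t.pos (P.inv.ht z x) k) - (x k - (P.line t).pos z k)| ≤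
        120 * (η * R ^ 3) := by
  have hη0 := h.nn
  have hRη : 0 ≤ η * R := by positivity
  have hη1 : η ≤ 1 := by
    have : η ≤ η * R := le_mul_of_one_le_right hη0 hR
    linarith
  have hi := h.inv hη1
  have h4 : 4 * (2 * η * R) ≤ 1 := by linarith
  have a := Pj.ht_near hi hx hz hR h4
  have b := Pj.pt_near hi hx hR h4
  have lp := Pj.line_p h hp hv hR hη
  have lv := Pj.line_v h hp hv hR hη
  have R0 : 0 ≤ R := by linarith
  have e1 : η * R ^ 2 ≤ η * R ^ 3 := mul_le_mul_of_nonneg_left (pow_le_pow_right₀ hR (by norm_num)) hη0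
  have e3 : 10 * (2 * η * R ^ 2) * R = 20 * (η * R ^ 3) := by ring
  have e2 : R * (40 * (η * R ^ 2)) = 40 * (η * R ^ 3) := by ring
  have c1 := fun k => m2 hz (lv k)
  have c2 := fun k => m2 a (hv k)
  have e5 : 0 ≤ η * R ^ 3 := by positivity
  refine ⟨a.trans (le_of_eq (by ring)), fun k => ?_, fun k => ?_⟩
  · have e : t.pos (P.inv.ht z x) k - (P.line t).pos z k = (P.inv.ht z x - z) * t.v k -
        (((P.line t).p k - t.p k) + z * ((P.line t).v k - t.v k)) := by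
      simp only [Ln4.pos]; ring
    rw [e]
    refine (s2 (c2 k) (a2 (lp k) (c1 k))).trans ?_
    rw [e2, e3]
    linarith
  · have e : (P.inv.pt x k - t.pos (P.inv.ht z x) k) - (x k - (P.line t).pos z k) =
        (P.inv.pt x k - x k) + (((P.line t).p k - t.p k) + z * ((P.line t).v k - t.v k) -
          (P.inv.ht z x - z) * t.v k) := by
      simp only [Ln4.pos]; ring
    rw [e]
    refine (a2 (b k) (s2 (a2 (lp k) (c1 k)) (c2 k))).trans ?_
    rw [e2, e3]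
    linarith

/-- **a point of the model quadric near the line, in container coordinates** -/
theorem geo_pt {P : Pj} {η R κ η' : ℝ} (h : P.Sm η) (hκ : |κ| ≤ 1) (hR : 1 ≤ R)
    (hη : 20 * (η * R) ≤ 1) {t : Ln4} (hp : ∀ k, |t.p k| ≤ R) (hv : ∀ k, |t.v k| ≤ R)
    {z a b e α β hh : ℝ} (hz : |z| ≤ R)
    (hx : ∀ k, |q0 κ z (a + (P.line t).pos z 1)
      (b - 2 * κ * (P.line t).v 1 * a - e + (P.line t).pos z 2) k| ≤ R)
    (ha : |a| ≤ α) (hα : α ≤ R) (hb : |b| + |e| ≤ β)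
    (hh1 : |ht κ z ((P.line t).pos z 1) ((P.line t).pos z 2) ((P.line t).pos z 0)| ≤ hh)
    {x : V3} (hxd : x = q0 κ z (a + (P.line t).pos z 1)
      (b - 2 * κ * (P.line t).v 1 * a - e + (P.line t).pos z 2))
    {V : V3} (hV : ∀ k, V k = P.inv.pt x k - t.pos (P.inv.ht z x) k) :
    |V 1| ≤ α + 120 * (η * R ^ 3) ∧
    |V 2 + 2 * κ * t.v 1 * V 1| ≤ β + 480 * (η * R ^ 4) ∧
    ∀ γ : V3, |γ 0 - 1| ≤ η' → |γ 1 + 2 * κ * t.pos (P.inv.ht z x) 1| ≤ η' →
      |γ 2 + P.inv.ht z x| ≤ η' →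
      |dt γ V| ≤ α ^ 2 + hh + 5200 * (η * R ^ 5) + 39 * (R ^ 2 * η') := by
  rw [← hxd] at hx
  obtain ⟨d1, d2, d3⟩ := dsp h hR hη hp hv hz hx
  have lp := Pj.line_p h hp hv hR hη
  have lv := Pj.line_v h hp hv hR hη
  have hη0 := h.nn
  have R0 : 0 ≤ R := by linarith
  set M := P.line t with hM
  set E := 120 * (η * R ^ 3) with hE
  have hE0 : 0 ≤ E := by rw [hE]; positivity
  have hR2 : 1 ≤ R ^ 2 := one_le_pow₀ hR
  have E6 : E ≤ 6 * R ^ 2 := by
    rw [hE]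
    have e : 120 * (η * R ^ 3) = 6 * R ^ 2 * (20 * (η * R)) := by ring
    rw [e]
    exact mul_le_of_le_one_right (by positivity) hη
  have Mp : ∀ k, |M.pos z k| ≤ 6 * R ^ 2 := by
    intro k
    have e : M.pos z k = (M.p k - t.p k) + t.p k + z * ((M.v k - t.v k) + t.v k) := by
      simp only [Ln4.pos]; ring
    rw [e]
    have e40 : 40 * (η * R ^ 2) ≤ 2 * R := by
      have e : 40 * (η * R ^ 2) = 2 * R * (20 * (η * R)) := by ring
      rw [e]
      exact mul_le_of_le_one_right (by positivity) hη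
    refine (a2 (a2 ((lp k).trans e40) (hp k)) (m2 hz (a2 ((lv k).trans e40) (hv k)))).trans ?_
    nlinarith
  have x0 : x 0 = z * x 2 + κ * x 1 ^ 2 := by rw [hxd]; rfl
  have x1 : x 1 = a + M.pos z 1 := by rw [hxd]; rfl
  have x2 : x 2 = b - 2 * κ * M.v 1 * a - e + M.pos z 2 := by rw [hxd]; rfl
  have Vd : ∀ k, |V k - (x k - M.pos z k)| ≤ E := by
    intro k; rw [hV k]; exact d3 k
  have Vs : ∀ k, |V k| ≤ 13 * R ^ 2 := by
    intro k
    have e : V k = (V k - (x k - M.pos z k)) + (x k - M.pos z k) := by ring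
    rw [e]
    refine (a2 ((Vd k).trans E6) (s2 (hx k) (Mp k))).trans ?_
    nlinarith
  have two : |(2 : ℝ)| ≤ 2 := by norm_num
  have hα0 : 0 ≤ α := (abs_nonneg _).trans ha
  refine ⟨?_, ?_, ?_⟩
  · have e : V 1 = (x 1 - M.pos z 1) + (V 1 - (x 1 - M.pos z 1)) := by ring
    rw [e]
    refine a2 ?_ (Vd 1)
    rw [x1, add_sub_cancel_right]
    exact ha
  · have e1 : V 2 + 2 * κ * t.v 1 * V 1 = (b - e) + (V 2 - (x 2 - M.pos z 2)) +
        2 * κ * t.v 1 * (V 1 - (x 1 - M.pos z 1)) + 2 * κ * (t.v 1 - M.v 1) * a := by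
      rw [x1, x2]; ring
    rw [e1]
    have k1 : |t.v 1 - M.v 1| ≤ 40 * (η * R ^ 2) := by rw [abs_sub_comm]; exact lv 1
    have k2 : |b - e| ≤ β := (abs_sub _ _).trans hb
    refine (a2 (a2 (a2 k2 (Vd 2)) (m2 (m2 (m2 two hκ) (hv 1)) (Vd 1)))
      (m2 (m2 (m2 two hκ) k1) (ha.trans hα))).trans ?_
    have e2 : 2 * 1 * (40 * (η * R ^ 2)) * R = 80 * (η * R ^ 3) := by ring
    have e3 : 2 * 1 * R * E = 240 * (η * R ^ 4) := by rw [hE]; ring
    have e4 : η * R ^ 3 ≤ η * R ^ 4 :=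
      mul_le_mul_of_nonneg_left (pow_le_pow_right₀ hR (by norm_num)) hη0
    rw [e2, e3, hE]
    have : 0 ≤ η * R ^ 4 := by positivity
    linarith
  · intro γ g0 g1 g2
    set zz := P.inv.ht z x with hzz
    have hm : |V 0 - 2 * κ * t.pos zz 1 * V 1 - zz * V 2| ≤ α ^ 2 + hh + 43 * (R ^ 2 * E) := by
      have e1 : V 0 - 2 * κ * t.pos zz 1 * V 1 - zz * V 2 =
          (κ * a ^ 2 - ht κ z (M.pos z 1) (M.pos z 2) (M.pos z 0)) +
          (V 0 - (x 0 - M.pos z 0)) - 2 * κ * (t.pos zz 1 - M.pos z 1) * V 1 -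
          2 * κ * M.pos z 1 * (V 1 - (x 1 - M.pos z 1)) - (zz - z) * V 2 -
          z * (V 2 - (x 2 - M.pos z 2)) := by
        rw [x0]
        have : x 1 = a + M.pos z 1 := x1
        simp only [ht]
        rw [x1]
        ring
      rw [e1]
      have ka : |κ * a ^ 2| ≤ α ^ 2 := by
        have := m2 hκ (m2 ha ha)
        rw [← pow_two, ← pow_two, one_mul] at this
        exact this
      have kd : |zz - z| ≤ E / 6 := by
        refine d1.trans ?_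
        rw [hE]
        have e4 : η * R ^ 2 ≤ η * R ^ 3 :=
          mul_le_mul_of_nonneg_left (pow_le_pow_right₀ hR (by norm_num)) hη0
        linarith
      refine (s2 (s2 (s2 (s2 (a2 (s2 ka hh1) (Vd 0)) (m2 (m2 (m2 two hκ) (d2 1)) (Vs 1)))
        (m2 (m2 (m2 two hκ) (Mp 1)) (Vd 1))) (m2 kd (Vs 2))) (m2 hz (Vd 2))).trans ?_
      have r1 : E ≤ R ^ 2 * E := le_mul_of_one_le_left hE0 hR2
      have r2 : R * E ≤ R ^ 2 * E := by
        refine mul_le_mul_of_nonneg_right ?_ hE0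
        nlinarith
      have r3 : 0 ≤ R ^ 2 * E := by positivity
      nlinarith
    have e2 : dt γ V = (γ 0 - 1) * V 0 + (γ 1 + 2 * κ * t.pos zz 1) * V 1 + (γ 2 + zz) * V 2 +
        (V 0 - 2 * κ * t.pos zz 1 * V 1 - zz * V 2) := by
      simp only [dt]; ring
    rw [e2]
    refine (a2 (a2 (a2 (m2 g0 (Vs 0)) (m2 g1 (Vs 1))) (m2 g2 (Vs 2))) hm).trans ?_
    have e3 : 43 * (R ^ 2 * E) = 5160 * (η * R ^ 5) := by rw [hE]; ring
    rw [e3]
    have : 0 ≤ η * R ^ 5 := by positivity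
    nlinarith

end Crest.Agent.R136.Clw768
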