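import Crest.Agent.R136.Stc6_321

/-!
# R136, U6 thin side, stage C (helper321), part 7: the difference of the functions of two sheets

`omq m Q2 Qv = Q2 - m Qv`; sizes on the adapted basis, coefficients, values.
-/

set_option autoImplicit false
set_option linter.unusedVariables false

namespace Crest.Agent.R136.Stc321

open Crest.Agent.R136.Sh605
open Crest.Agent.R136.K4
open Crest.Agent.R136.NetW191
open Crest.Agent.R136.GeoN778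
open Crest.Agent.R136.Wit321
open Crest.Agent.R136.Tl102 (QF Fq bz fan shB0 scB1 scG shG shB1 kap NrmC IsExp fr cmb StP OmB om0
  om1 omM tv pv gl gM sD yc cmb_pv Fq_comb Fq_g)

/-- the difference -/
def omq (m : ℝ) (Q2 Qv : Qd) : Qd := dif Q2 (Wit321.mul m Qv)

theorem omq_ev (m : ℝ) (Q2 Qv : Qd) (z : ℝ) (x : V3) :
    (omq m Q2 Qv).ev z x = Q2.ev z x - m * Qv.ev z x := by
  unfold omq; rw [dif_ev, mul_ev]

theorem omq_exp {Q2 Qv : Qd} {e : Fin 3 → V3} {w : V3} {T : Ln4} {z0 ρ : ℝ} {b0 b1 b0' b1' : V3}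
    {G G' : QF} (hE : IsExp Qv.ev e w T z0 ρ b0 b1 G) (hE2 : IsExp Q2.ev e w T z0 ρ b0' b1' G')
    (m : ℝ) : IsExp (omq m Q2 Qv).ev e w T z0 ρ (fun k => b0' k - m * b0 k)
      (fun k => b1' k - m * b1 k) (QF.comb m G' G) := by
  intro ζ x
  rw [omq_ev, omq_ev, hE ζ x, hE2 ζ x, Fq_comb]
  ring

/-- coordinates in the adapted basis -/
theorem tv_φ {f e : Fin 3 → V3} (he : Ortho e) {u : Un} {w b0 : V3} (hw : ∀ k, w k ≠ 0)
    {κs : ℝ} (hκ : κs ≠ 0) (Z : V3) (k : Fin 3) :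
    dt (f k) Z / u.W k = tv κs b0 e w Z 0 * φb f u e w κs b0 0 k +
      tv κs b0 e w Z 1 * φb f u e w κs b0 1 k + tv κs b0 e w Z 2 * φb f u e w κs b0 2 k := by
  have h := cmb_pv he hw Z
  set y := pv e w Z with hy
  have t0 : tv κs b0 e w Z 0 = (y 0 + b0 1 / b0 0 * y 1 + b0 2 / b0 0 * y 2) / κs := rfl
  have t1 : tv κs b0 e w Z 1 = y 1 := rfl
  have t2 : tv κs b0 e w Z 2 = y 2 := rfl
  have e1 : y = fun j => (tv κs b0 e w Z 0 * tb κs b0 0 j + tv κs b0 e w Z 1 * tb κs b0 1 j) +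
      tv κs b0 e w Z 2 * tb κs b0 2 j := by
    funext j
    rw [t0, t1, t2]
    fin_cases j
    · simp [tb, tE]; field_simp; ring
    · simp [tb, tE]
    · simp [tb, tE]
  have e2 : dt (f k) Z / u.W k = mh f u e w y k := by
    unfold mh; rw [h]
  rw [e2, e1]
  simp only [φb, mh, dt, cmb, Tl102.fr, Pi.smul_apply, smul_eq_mul]
  ring

/-- every vector has coordinates -/
theorem exists_τ {f e : Fin 3 → V3} (hf : Ortho f) (he : Ortho e) {u : Un} (hu : u.Ok) {w b0 : V3}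
    (hw : ∀ k, w k ≠ 0) {κs : ℝ} (hκ : κs ≠ 0) (V : V3) : ∃ τ : V3, ∀ k,
    V k = τ 0 * φb f u e w κs b0 0 k + τ 1 * φb f u e w κs b0 1 k +
      τ 2 * φb f u e w κs b0 2 k := by
  refine ⟨tv κs b0 e w (cmb (fW f u) V), fun k => ?_⟩
  rw [← tv_φ he hw hκ, dt_cmb_fW hf]
  have := (hu.W0 k).ne'
  field_simp

section om

variable {f e : Fin 3 → V3} {c : Ln4} {u : Un} {w : V3} {T : Ln4} {z0 ρ κs X : ℝ}
  {b0 b1 b0' b1' : V3} {G G' : QF} {Q2 Qv : Qd}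

/-- sizes on the adapted basis -/
theorem om_basis (hf : Ortho f) (hu : u.Ok) (hw0 : 0 < w 0) (hκ : 0 < κs) (hb0 : b0 0 ≠ 0)
    (hE : IsExp Qv.ev e w T z0 ρ b0 b1 G) (hE2 : IsExp Q2.ev e w T z0 ρ b0' b1' G')
    (hX0 : 0 ≤ X) (hO : OmB κs X X X b0 b1 G b0' b1' G') (i : Fin 3) :
    |dt ((hatQ f c u (omq (b0' 0 / b0 0) Q2 Qv)).gr (u.zh z0)
      ((ul u (rl f c T)).pos (u.zh z0))) (φb f u e w κs b0 i)| ≤ w 0 * κs * X ∧
    |ρ / u.H * dt (gd (hatQ f c u (omq (b0' 0 / b0 0) Q2 Qv)) (ul u (rl f c T)))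
      (φb f u e w κs b0 i)| ≤ w 0 * κs * X := by
  have hEω := omq_exp hE hE2 (b0' 0 / b0 0)
  have hx := exp_hat (c := c) hf hu hEω
  have hYe : 0 < w 0 * κs := by positivity
  have φe : ∀ k, φb f u e w κs b0 k = mh f u e w (tb κs b0 k) := fun k => rfl
  have t0 : ∀ b : V3, dt b (tb κs b0 0) = κs * b 0 := by
    intro b; simp only [dt, tb, Matrix.cons_val]; ring
  have t1 : ∀ b : V3, dt b (tb κs b0 1) = b 1 - b0 1 / b0 0 * b 0 := by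
    intro b; simp only [dt, tb, tE, Matrix.cons_val]; simp; ring
  have t2 : ∀ b : V3, dt b (tb κs b0 2) = b 2 - b0 2 / b0 0 * b 0 := by
    intro b; simp only [dt, tb, tE, Matrix.cons_val]; simp; ring
  have f0 : ∀ {a x : ℝ}, a = w 0 * κs * x → |x| ≤ X → |a| ≤ w 0 * κs * X := by
    intro a x h1 h2
    rw [h1, abs_mul, abs_of_pos hYe]
    exact mul_le_mul_of_nonneg_left h2 hYe.le
  have g0 := hx (tb κs b0 i)
  rw [φe, ← g0.1, ← g0.2.1]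
  fin_cases i
  · refine ⟨f0 (x := 0) ?_ (by rw [abs_zero]; exact hX0), f0 (x := om1 κs b0 b1 b0' b1' 0) ?_ hO.y1⟩
    · show w 0 * dt _ (tb κs b0 0) = _
      rw [t0]; field_simp; ring
    · show w 0 * dt _ (tb κs b0 0) = _
      rw [t0]
      change _ = w 0 * κs * (b1' 0 - b0' 0 / b0 0 * b1 0)
      ring
  · refine ⟨f0 (x := om0 κs b0 b0' 1) ?_ hO.h01, f0 (x := om1 κs b0 b1 b0' b1' 1) ?_ hO.h11⟩
    · show w 0 * dt _ (tb κs b0 1) = _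
      rw [t1]
      change _ = w 0 * κs * ((b0' 1 - b0' 0 / b0 0 * b0 1 -
        b0 1 / b0 0 * (b0' 0 - b0' 0 / b0 0 * b0 0)) / κs)
      field_simp
    · show w 0 * dt _ (tb κs b0 1) = _
      rw [t1]
      change _ = w 0 * κs * ((b1' 1 - b0' 0 / b0 0 * b1 1 -
        b0 1 / b0 0 * (b1' 0 - b0' 0 / b0 0 * b1 0)) / κs)
      field_simp
  · refine ⟨f0 (x := om0 κs b0 b0' 2) ?_ hO.h02, f0 (x := om1 κs b0 b1 b0' b1' 2) ?_ hO.h12⟩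
    · show w 0 * dt _ (tb κs b0 2) = _
      rw [t2]
      change _ = w 0 * κs * ((b0' 2 - b0' 0 / b0 0 * b0 2 -
        b0 2 / b0 0 * (b0' 0 - b0' 0 / b0 0 * b0 0)) / κs)
      field_simp
    · show w 0 * dt _ (tb κs b0 2) = _
      rw [t2]
      change _ = w 0 * κs * ((b1' 2 - b0' 0 / b0 0 * b1 2 -
        b0 2 / b0 0 * (b1' 0 - b0' 0 / b0 0 * b1 0)) / κs)
      field_simp

theorem omM_le {κ X B : ℝ} (hX0 : 0 ≤ X) (hO : OmB κ X X X b0 b1 G b0' b1' G') {τ : V3}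
    (hτ : ∀ k, |τ k| ≤ B) : |(omM κ b0 G b0' G').ev τ| ≤ 6 * (X * B ^ 2) := by
  have e : (omM κ b0 G b0' G').ev τ = (omM κ b0 G b0' G').yy * (τ 0 * τ 0) +
      (omM κ b0 G b0' G').yu * (τ 0 * τ 1) + (omM κ b0 G b0' G').yv * (τ 0 * τ 2) +
      (omM κ b0 G b0' G').uu * (τ 1 * τ 1) + (omM κ b0 G b0' G').uv * (τ 1 * τ 2) +
      (omM κ b0 G b0' G').vv * (τ 2 * τ 2) := by
    simp only [QF.ev]; ring
  rw [e]
  have p := fun i j => m2 (hτ i) (hτ j)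
  refine (a2 (a2 (a2 (a2 (a2 (m2 hO.yy (p 0 0)) (m2 hO.yu (p 0 1))) (m2 hO.yv (p 0 2)))
    (m2 hO.uu (p 1 1))) (m2 hO.uv (p 1 2))) (m2 hO.vv (p 2 2))).trans (le_of_eq (by ring))

theorem om_hes (hf : Ortho f) (hu : u.Ok) (hw0 : 0 < w 0) (hκ : 0 < κs) (hb0 : b0 0 ≠ 0)
    (hE : IsExp Qv.ev e w T z0 ρ b0 b1 G) (hE2 : IsExp Q2.ev e w T z0 ρ b0' b1' G')
    (hX0 : 0 ≤ X) (hO : OmB κs X X X b0 b1 G b0' b1' G') {τ V : V3} {B : ℝ}
    (hV : ∀ k, V k = τ 0 * φb f u e w κs b0 0 k + τ 1 * φb f u e w κs b0 1 k +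
      τ 2 * φb f u e w κs b0 2 k) (hτ : ∀ k, |τ k| ≤ B) :
    |hes (hatQ f c u (omq (b0' 0 / b0 0) Q2 Qv)) V| ≤ 6 * (w 0 * κs * X * B ^ 2) := by
  have hEω := omq_exp hE hE2 (b0' 0 / b0 0)
  set x : V3 := ![κs * τ 0 - b0 1 / b0 0 * τ 1 - b0 2 / b0 0 * τ 2, τ 1, τ 2] with hx
  have e1 : V = mh f u e w x := by
    funext k
    rw [hV k]
    simp only [φb, mh, dt, cmb, Tl102.fr, Pi.smul_apply, smul_eq_mul, tb, tE, hx, Matrix.cons_val]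
    simp
    ring
  have h1 := (exp_hat (c := c) hf hu hEω x).2.2
  rw [e1, ← h1]
  have h2 := Fq_g (s₁ := b0 1 / b0 0) (s₂ := b0 2 / b0 0) hκ.ne' 0 0
    (QF.comb (b0' 0 / b0 0) G' G) 0 (τ 0) (τ 1) (τ 2)
  have e2 : ∀ (M : QF) (y : V3) (s1 s2 : ℝ), Fq (gl κs s1 s2 0) (gl κs s1 s2 0) M 0 y = M.ev y := by
    intro M y s1 s2
    simp [Fq, dt, bz, gl]
  have e3 : ∀ (M : QF) (y : V3), Fq 0 0 M 0 y = M.ev y := by
    intro M y
    simp [Fq, dt, bz]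
  rw [e2, e3] at h2
  have e4 : (![τ 0, τ 1, τ 2] : V3) = τ := by
    funext k; fin_cases k <;> rfl
  rw [e4] at h2
  rw [hx, h2]
  have h3 := omM_le (κ := κs) hX0 hO hτ
  have hYe : 0 < w 0 * κs := by positivity
  have e5 : w 0 * (κs * (gM κs (b0 1 / b0 0) (b0 2 / b0 0) (QF.comb (b0' 0 / b0 0) G' G)).ev τ) =
      w 0 * κs * (omM κs b0 G b0' G').ev τ := by
    unfold omM; ring
  rw [e5, abs_mul, abs_of_pos hYe]
  refine (mul_le_mul_of_nonneg_left h3 hYe.le).trans (le_of_eq (by ring))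

/-- **value of the difference at a point of the box** -/
theorem om_le (he : Ortho e) (hw0 : 0 < w 0) (hw : ∀ k, w k ≠ 0) (hκ : 0 < κs) (hb0 : b0 0 ≠ 0)
    (hE : IsExp Qv.ev e w T z0 ρ b0 b1 G) (hE2 : IsExp Q2.ev e w T z0 ρ b0' b1' G')
    (hX0 : 0 ≤ X) (hO : OmB κs X X X b0 b1 G b0' b1' G') {ζ : ℝ} (h0 : 0 ≤ ζ) (h1 : ζ ≤ 1)
    {P : V3} {B : ℝ} (hB : 1 ≤ B)
    (hτ : ∀ k, |tv κs b0 e w (P - T.pos (z0 + ρ * ζ)) k| ≤ B) :
    |Q2.ev (z0 + ρ * ζ) P - Q2.ev (z0 + ρ * ζ) (T.pos (z0 + ρ * ζ)) - b0' 0 / b0 0 *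
      (Qv.ev (z0 + ρ * ζ) P - Qv.ev (z0 + ρ * ζ) (T.pos (z0 + ρ * ζ)))| ≤
      12 * (w 0 * κs * X * B ^ 2) := by
  rw [Tl102.om_val he hw hE hE2 hκ.ne' ζ P]
  set τ := tv κs b0 e w (P - T.pos (z0 + ρ * ζ)) with hτd
  have hYe : 0 < w 0 * κs := by positivity
  have e : Fq (om0 κs b0 b0') (om1 κs b0 b1 b0' b1') (omM κs b0 G b0' G') ζ τ =
      ((om0 κs b0 b0' 0 + ζ * om1 κs b0 b1 b0' b1' 0) * τ 0 +
      (om0 κs b0 b0' 1 + ζ * om1 κs b0 b1 b0' b1' 1) * τ 1 +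
      (om0 κs b0 b0' 2 + ζ * om1 κs b0 b1 b0' b1' 2) * τ 2) + (omM κs b0 G b0' G').ev τ := by
    simp only [Fq, dt, bz]
  have hζ : |ζ| ≤ 1 := by rw [abs_of_nonneg h0]; exact h1
  have o0 : |om0 κs b0 b0' 0| ≤ X := by
    rw [Tl102.om0_zero κs hb0, abs_zero]; exact hX0
  have c0 := a2 o0 (m2 hζ hO.y1)
  have c1 := a2 hO.h01 (m2 hζ hO.h11)
  have c2 := a2 hO.h02 (m2 hζ hO.h12)
  have h2 := a2 (a2 (a2 (m2 c0 (hτ 0)) (m2 c1 (hτ 1))) (m2 c2 (hτ 2))) (omM_le hX0 hO hτ)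
  rw [← e] at h2
  rw [abs_mul, abs_of_pos hYe]
  have h3 : |Fq (om0 κs b0 b0') (om1 κs b0 b1 b0' b1') (omM κs b0 G b0' G') ζ τ| ≤
      12 * (X * B ^ 2) := by
    refine h2.trans ?_
    have hBB : B ≤ B ^ 2 := by nlinarith
    have := mul_le_mul_of_nonneg_left hBB hX0
    linarith
  refine (mul_le_mul_of_nonneg_left h3 hYe.le).trans (le_of_eq (by ring))

end om

/-- **coefficients of a polynomial from its sizes on a basis** -/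
theorem coef_of_basis {W : Qd} (hs : ∀ i j, W.g i j = W.g j i) {t : Ln4} {z1 rh : ℝ}
    (hrh : 0 < rh) {φ : Fin 3 → V3} {K τm : ℝ} (hK : 0 ≤ K)
    (h1 : ∀ i, |dt (W.gr z1 (t.pos z1)) (φ i)| ≤ K) (h2 : ∀ i, |rh * dt (gd W t) (φ i)| ≤ K)
    (h3 : ∀ (τ V : V3) (B : ℝ), (∀ k, V k = τ 0 * φ 0 k + τ 1 * φ 1 k + τ 2 * φ 2 k) →
      (∀ k, |τ k| ≤ B) → |hes W V| ≤ 6 * (K * B ^ 2))
    (hinv : ∀ V : V3, (∀ k, |V k| ≤ 1) → ∃ τ : V3, (∀ k, |τ k| ≤ τm) ∧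
      ∀ k, V k = τ 0 * φ 0 k + τ 1 * φ 1 k + τ 2 * φ 2 k) :
    (∀ k, |W.gr z1 (t.pos z1) k| ≤ 3 * (τm * K)) ∧ (∀ k, |gd W t k| ≤ 3 * (τm * K) / rh) ∧
      ∀ i j, |W.g i j| ≤ 18 * (K * τm ^ 2) := by
  -- unit vectors
  set ee : Fin 3 → V3 := ![![1, 0, 0], ![0, 1, 0], ![0, 0, 1]] with hee
  have he1 : ∀ j k, |ee j k| ≤ 1 := by
    intro j k; fin_cases j <;> fin_cases k <;> simp [hee]
  have hdt : ∀ (a : V3) j, dt a (ee j) = a j := by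
    intro a j; fin_cases j <;> simp [hee, dt]
  have hsum : ∀ (a : V3) (τ V : V3), (∀ k, V k = τ 0 * φ 0 k + τ 1 * φ 1 k + τ 2 * φ 2 k) →
      dt a V = τ 0 * dt a (φ 0) + τ 1 * dt a (φ 1) + τ 2 * dt a (φ 2) := by
    intro a τ V h
    simp only [dt, h]; ring
  refine ⟨?_, ?_, ?_⟩
  · intro k
    obtain ⟨τ, hτ, hV⟩ := hinv (ee k) (he1 k)
    rw [← hdt (W.gr z1 (t.pos z1)) k, hsum _ τ _ hV]
    refine (a2 (a2 (m2 (hτ 0) (h1 0)) (m2 (hτ 1) (h1 1))) (m2 (hτ 2) (h1 2))).trans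
      (le_of_eq (by ring))
  · intro k
    obtain ⟨τ, hτ, hV⟩ := hinv (ee k) (he1 k)
    rw [le_div_iff₀ hrh, ← hdt (gd W t) k]
    have e : |dt (gd W t) (ee k)| * rh = |rh * dt (gd W t) (ee k)| := by
      rw [abs_mul, abs_of_pos hrh, mul_comm]
    rw [e, hsum _ τ _ hV]
    have e2 : rh * (τ 0 * dt (gd W t) (φ 0) + τ 1 * dt (gd W t) (φ 1) + τ 2 * dt (gd W t) (φ 2)) =
        τ 0 * (rh * dt (gd W t) (φ 0)) + τ 1 * (rh * dt (gd W t) (φ 1)) +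
          τ 2 * (rh * dt (gd W t) (φ 2)) := by ring
    rw [e2]
    refine (a2 (a2 (m2 (hτ 0) (h2 0)) (m2 (hτ 1) (h2 1))) (m2 (hτ 2) (h2 2))).trans
      (le_of_eq (by ring))
  · intro i j
    obtain ⟨τ, hτ, hV⟩ := hinv (ee i) (he1 i)
    obtain ⟨τ', hτ', hV'⟩ := hinv (ee j) (he1 j)
    have a1 := h3 τ (ee i) τm hV hτ
    have a3 := h3 τ' (ee j) τm hV' hτ'
    have a4 := h3 (fun k => τ k + τ' k) (fun k => ee i k + ee j k) (τm + τm)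
      (fun k => by rw [hV k, hV' k]; ring) (fun k => a2 (hτ k) (hτ' k))
    have e : 2 * W.g i j = hes W (fun k => ee i k + ee j k) - hes W (ee i) - hes W (ee j) := by
      have e1 : hes W (fun k => ee i k + ee j k) - hes W (ee i) - hes W (ee j) =
          W.g i j + W.g j i := by
        fin_cases i <;> fin_cases j <;> simp [hes, hee, Fin.sum_univ_three] <;> ring
      rw [e1, ← hs i j]; ring
    have h5 := s2 (s2 a4 a1) a3
    rw [← e, abs_mul, abs_two] at h5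
    nlinarith

end Crest.Agent.R136.Stc321
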