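import Crest.Agent.R136.Clw1_768
import Crest.Agent.R136.Stc7_321

/-!
# R136, U6 thin side, stage C (helper768): closeness of the sheets of two levels, finite part 2

`gr_good` : gradient of a polynomial with bounded flags; `coord_small` : small coordinates in the
adapted basis; `val_fin` : values of `q' - m q` on the box of the model quadric;
`flg_close` : closeness of the flags.
-/

set_option autoImplicit false
set_option linter.unusedVariables false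

namespace Crest.Agent.R136.Clw768

open Crest.Agent.R136.Sh605
open Crest.Agent.R136.K4
open Crest.Agent.R136.NetW191
open Crest.Agent.R136.GeoN778
open Crest.Agent.R136.Wit321
open Crest.Agent.R136.Tl102 (QF Fq bz fan shB0 scB1 scG shG shB1 kap NrmC IsExp fr cmb StP OmB om0
  om1 omM tv pv gl om_val cmb_pv sD)
open Crest.Agent.R136.Thn768 (Own Snd Tay cr dtm ev_le bs)
open Crest.Agent.R136.Stc321
open Crest.Agent.R136.FlW464 (frW drW)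
open Crest.Agent.R136.Tn327 (CloseW)

/-- **bounded flags in normal coordinates: the gradient in container coordinates** -/
theorem gr_good {P : Pj} {η Γ σ κ R : ℝ} (hP : P.Sm η) (hη : 16 * η ≤ 1) {Q : Qd}
    (hσ : 0 < σ) (hκ : |κ| ≤ 1) (hν : (pullQ P.inv Q).b 0 ≠ 0)
    (hf : ∀ k, |flg κ σ (pullQ P.inv Q) k| ≤ Γ) (hΓ : σ * Γ ≤ 1) {z : ℝ} {x : V3}
    (hz : |z| ≤ R) (hx : ∀ k, |x k| ≤ R) (k : Fin 3) :
    |Q.gr z x k - (pullQ P.inv Q).b 0 * (mod κ).gr z x k| ≤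
      |(pullQ P.inv Q).b 0| * (24 * η + σ * Γ) * (1 + 7 * R) := by
  set Q' := pullQ P.inv Q with hQ'
  have hη0 : 0 ≤ η := hP.nn
  have hΓ0 : 0 ≤ Γ := (abs_nonneg _).trans (hf 0)
  set ν := Q'.b 0 with hνd
  have hrem := rem_le_of_flg hσ hν hf
  rw [← hνd] at hrem
  have h1 := cl_of_rem hrem
  have ms := Stc321.mod_sz (ν := ν) hκ
  rw [← hνd] at h1
  have h2 : Sz (sym Q') (|ν| * (σ * Γ) + |ν|) := h1.sz ms
  have hev : ∀ z x, |z| ≤ 1 → (∀ k, |x k| ≤ 1) → (pullQ P (sym Q')).ev z x = Q.ev z x := by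
    intro z x hz hx
    have hT := Pj.T_half hP hx (by linarith)
    have hT0 : P.T x ≠ 0 := by
      have : 0 < P.T x := by linarith [hT.1]
      exact this.ne'
    rw [pullQ_ev _ _ hT0, sym_ev, hQ', ev_pull_inv P Q hT0]
    field_simp
  have h2' : Sz (sym Q') (2 * |ν|) := by
    have hK : |ν| * (σ * Γ) + |ν| ≤ 2 * |ν| := by
      have := mul_le_of_le_one_right (abs_nonneg ν) hΓ
      linarith
    exact ⟨h2.c0.trans hK, h2.c1.trans hK, h2.c2.trans hK, fun i => (h2.b i).trans hK,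
      fun i => (h2.d i).trans hK, fun i j => (h2.g i j).trans hK⟩
  have h3 := pullQ_cl hP (by linarith) h2'
  have h4 := h3.trans h1
  have e6 : 12 * (η * (2 * |ν|)) + |ν| * (σ * Γ) = |ν| * (24 * η + σ * Γ) := by ring
  rw [e6] at h4
  obtain ⟨k1, k2, k3⟩ := gr_of_ev hev
  have h5 := h4.gr hz hx k
  rw [k1, mul_gr] at h5
  exact h5

/-- **small coordinates in the adapted basis** -/
theorem coord_small {g g' : V3} {φ : Fin 3 → V3} {κ v1 R η rh Y X A1 A2 α : ℝ}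
    (h : Bas g g' φ κ v1 R η rh Y X A1 A2 α)
    (hs : 10 ^ 6 * (Y * (η * Bas.sz R rh Y A1)) ≤ α)
    (hs2 : 2 ^ 27 * (400 * (Y * η * Bas.rt R η rh Y A1) + 3600 * (A1 * R * (Y * η))) ≤ α)
    {μ θ : ℝ} (hμ : 0 < μ) (hμ1 : μ ≤ 1) (hθ : 0 ≤ θ) (hθμ : 4 * 10 ^ 10 * θ ≤ μ ^ 2)
    (hα : μ * (A1 * (A1 ^ 2 / rh)) ≤ α) (hY1 : μ * A1 ^ 2 ≤ 8 * Y) (hY2 : μ * Y ≤ 8 * A1 ^ 2)
    (hsz : 3 * (η * Bas.sz R rh Y A1) ≤ A1 ^ 2 / rh)
    {τ : V3} {V : V3} (hV : ∀ k, V k = τ 0 * φ 0 k + τ 1 * φ 1 k + τ 2 * φ 2 k) {ζ : ℝ}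
    (ha : |V 1| ≤ 2 * (A1 * θ)) (hb : |V 2 + 2 * κ * v1 * V 1| ≤ 2 * (A1 ^ 2 / rh * θ))
    (ζ0 : 0 ≤ ζ) (ζ1 : ζ ≤ 1) (hc : |dt g V + ζ * (rh * dt g' V)| ≤ 2 * (A1 ^ 2 * θ))
    (k : Fin 3) : |τ k| ≤ 1 := by
  have hrh := h.rh0
  have hY := h.Y0
  have hA1 : 0 < A1 := h.A0.trans_le h.A12
  set B1 := A1 ^ 2 / rh with hB1
  have hB10 : 0 < B1 := by positivity
  have hα0 := h.α0
  have hc' : |dt g V + ζ * (rh * dt g' V)| ≤ Y * (16 * (θ / μ)) := by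
    refine hc.trans ?_
    have e : Y * (16 * (θ / μ)) = 2 * (8 * Y * θ) / μ := by ring
    rw [e, le_div_iff₀ hμ]
    have := mul_le_mul_of_nonneg_right hY1 hθ
    linarith
  obtain ⟨t1, t0⟩ := h.coord hs hs2 hV ha hb ζ0 ζ1 hc'
  have hrt : Bas.rt R η rh Y A1 ≤ 137 * (B1 / μ) := by
    have e1 : 17 * (Y / rh) ≤ 136 * (B1 / μ) := by
      rw [hB1, ← mul_div_assoc, ← mul_div_assoc, div_le_div_iff₀ hrh hμ]
      have e : 136 * (A1 ^ 2 / rh) * rh = 136 * A1 ^ 2 := by field_simp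
      rw [e]
      linarith
    have e2 : B1 ≤ B1 / μ := by
      rw [le_div_iff₀ hμ]
      exact mul_le_of_le_one_right hB10.le hμ1
    unfold Bas.rt
    linarith
  have hrt0 : 0 ≤ Bas.rt R η rh Y A1 := h.rt0
  have hT : 30000 / α * (2 * (2 * (A1 * θ) * Bas.rt R η rh Y A1) + 6 * (A1 * (2 * (B1 * θ)))) ≤
      168 * 10 ^ 5 * (θ / μ ^ 2) := by
    have e1 : 2 * (2 * (A1 * θ) * Bas.rt R η rh Y A1) + 6 * (A1 * (2 * (B1 * θ))) ≤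
        560 * (A1 * B1 * θ / μ) := by
      have f1 : 2 * (2 * (A1 * θ) * Bas.rt R η rh Y A1) ≤ 2 * (2 * (A1 * θ) * (137 * (B1 / μ))) := by
        have : 0 ≤ 2 * (A1 * θ) := by positivity
        have := mul_le_mul_of_nonneg_left hrt this
        linarith
      have f2 : A1 * B1 * θ ≤ A1 * B1 * θ / μ := by
        rw [le_div_iff₀ hμ]
        exact mul_le_of_le_one_right (by positivity) hμ1
      have f3 : 2 * (2 * (A1 * θ) * (137 * (B1 / μ))) = 548 * (A1 * B1 * θ / μ) := by ring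
      have f4 : 6 * (A1 * (2 * (B1 * θ))) = 12 * (A1 * B1 * θ) := by ring
      rw [f4]
      linarith
    have e2 : 30000 / α ≤ 30000 / (μ * (A1 * B1)) :=
      div_le_div_of_nonneg_left (by norm_num) (by positivity) hα
    have e3 : 0 ≤ 560 * (A1 * B1 * θ / μ) := by positivity
    calc 30000 / α * (2 * (2 * (A1 * θ) * Bas.rt R η rh Y A1) + 6 * (A1 * (2 * (B1 * θ))))
        ≤ 30000 / α * (560 * (A1 * B1 * θ / μ)) :=
          mul_le_mul_of_nonneg_left e1 (by positivity)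
      _ ≤ 30000 / (μ * (A1 * B1)) * (560 * (A1 * B1 * θ / μ)) :=
          mul_le_mul_of_nonneg_right e2 e3
      _ = 168 * 10 ^ 5 * (θ / μ ^ 2) := by field_simp; ring
  have hq : θ / μ ^ 2 ≤ 1 / (4 * 10 ^ 10) := by
    rw [div_le_div_iff₀ (by positivity) (by norm_num)]
    linarith
  have hq0 : 0 ≤ θ / μ ^ 2 := by positivity
  have hc2 : 16 * (θ / μ) ≤ 16 * (θ / μ ^ 2) := by
    have : θ / μ ≤ θ / μ ^ 2 := by
      refine div_le_div_of_nonneg_left hθ (by positivity) ?_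
      rw [pow_two]
      exact mul_le_of_le_one_left hμ.le hμ1
    linarith
  have a1 := abs_nonneg (τ 1)
  have a2' := abs_nonneg (τ 2)
  fin_cases k
  · show |τ 0| ≤ 1
    linarith
  · show |τ 1| ≤ 1
    linarith
  · show |τ 2| ≤ 1
    linarith

/-- values of a flag polynomial -/
theorem evY_le {G : Fin 14 → ℝ} {Γ R z A B Y : ℝ} (hG : ∀ k, |G k| ≤ Γ) (hR : 1 ≤ R)
    (hz : |z| ≤ R) (hA : |A| ≤ R) (hB : |B| ≤ R) (hY : |Y| ≤ R) :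
    |evY G z A B Y| ≤ 14 * (Γ * R ^ 2) := by
  have hΓ : 0 ≤ Γ := (abs_nonneg _).trans (hG 0)
  have R0 : 0 ≤ R := by linarith
  have q : ∀ {x y : ℝ}, |x| ≤ R → |y| ≤ R → ∀ k, |G k * (x * y)| ≤ Γ * R ^ 2 := by
    intro x y hx hy k
    refine (m2 (hG k) (m2 hx hy)).trans (le_of_eq (by ring))
  have q2 : ∀ {x : ℝ}, |x| ≤ R → ∀ k, |G k * x ^ 2| ≤ Γ * R ^ 2 := by
    intro x hx k
    have := q hx hx k
    rwa [← pow_two] at this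
  have q1 : ∀ {x : ℝ}, |x| ≤ R → ∀ k, |G k * x| ≤ Γ * R ^ 2 := by
    intro x hx k
    refine (m2 (hG k) hx).trans (mul_le_mul_of_nonneg_left ?_ hΓ)
    nlinarith
  have qc : |G 13| ≤ Γ * R ^ 2 := (hG 13).trans (le_mul_of_one_le_right hΓ (one_le_pow₀ hR))
  unfold evY
  refine (a2 (a2 (a2 (a2 (a2 (a2 (a2 (a2 (a2 (a2 (a2 (a2 (a2 (q2 hY 0) (q hB hY 1)) (q hA hY 2))
    (q2 hB 3)) (q hz hY 4)) (q hA hB 5)) (q2 hA 6)) (q hz hB 7)) (q hz hA 8)) (q2 hz 9))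
    (q1 hB 10)) (q1 hA 11)) (q1 hz 12)) qc).trans (le_of_eq (by ring))

/-- sizes of a point of the box -/
theorem box_pt {P : Pj} {ηP R κ : ℝ} (hP : P.Sm ηP) (hκ : |κ| ≤ 1) (hR : 1 ≤ R) {t : Ln4}
    (hp : ∀ k, |t.p k| ≤ R) (hv : ∀ k, |t.v k| ≤ R) {y0 rh θ A B zm z' a b : ℝ} (hrh0 : 0 < rh)
    (hrh1 : rh ≤ 1) (s5 : 80 * (ηP * (100 * R ^ 2) ^ 2) ≤ rh) (hy : |y0| ≤ 1)
    (hzm : zm = y0 + rh / 2) (hθ : 0 ≤ θ) (hθ1 : θ ≤ 1 / 4) (hz' : |z'| ≤ rh * θ)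
    (hA : A ≤ R) (hB0 : 0 ≤ B) (hB : B ≤ R) (ha : |a| ≤ A * θ) (hb : |b| ≤ B * θ)
    (s3 : 2 * |drW κ (P.line t)| ≤ B * θ) {x : V3}
    (hxd : x = q0 κ (fz (frW (P.line t) zm) z') (fA (frW (P.line t) zm) z' a)
      (fB κ (frW (P.line t) zm) z' a b)) :
    |z'| ≤ rh / 4 ∧ |z' + zm| ≤ 2 ∧ (∀ k, |x k| ≤ 100 * R ^ 2) ∧
      x = q0 κ (z' + zm) (a + (P.line t).pos (z' + zm) 1)
        (b - 2 * κ * (P.line t).v 1 * a - drW κ (P.line t) * z' + (P.line t).pos (z' + zm) 2) ∧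
      |b| + |drW κ (P.line t) * z'| ≤ 3 / 2 * (B * θ) := by
  have R0 : 0 ≤ R := by linarith
  have hηP := hP.nn
  have hR2 : R ≤ R ^ 2 := by nlinarith
  have hη20' : 20 * (ηP * R) ≤ 1 := by
    have h1 : ηP * R ≤ ηP * (100 * R ^ 2) ^ 2 := by
      refine mul_le_mul_of_nonneg_left ?_ hηP
      nlinarith
    have h2 : 0 ≤ ηP * (100 * R ^ 2) ^ 2 := by positivity
    linarith
  have hη40 : 40 * (ηP * R ^ 2) ≤ R := by
    have h1 : ηP * R ^ 2 ≤ ηP * (100 * R ^ 2) ^ 2 := by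
      refine mul_le_mul_of_nonneg_left ?_ hηP
      nlinarith [sq_nonneg (R ^ 2)]
    linarith
  have lp := Pj.line_p hP hp hv hR hη20'
  have lv := Pj.line_v hP hp hv hR hη20'
  obtain ⟨M, hM⟩ : ∃ M : Ln4, M = P.line t := ⟨_, rfl⟩
  rw [← hM] at hxd s3 lp lv ⊢
  have Mp : ∀ k, |M.p k| ≤ 2 * R := by
    intro k
    have e : M.p k = (M.p k - t.p k) + t.p k := by ring
    rw [e]
    refine (a2 ((lp k).trans hη40) (hp k)).trans (by linarith)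
  have Mv : ∀ k, |M.v k| ≤ 2 * R := by
    intro k
    have e : M.v k = (M.v k - t.v k) + t.v k := by ring
    rw [e]
    refine (a2 ((lv k).trans hη40) (hv k)).trans (by linarith)
  have hz'' : |z'| ≤ rh / 4 := by
    refine hz'.trans ?_
    have := mul_le_mul_of_nonneg_left hθ1 hrh0.le
    linarith
  obtain ⟨zl, zu⟩ := abs_le.1 hz''
  obtain ⟨yl, yu⟩ := abs_le.1 hy
  obtain ⟨z, hz⟩ : ∃ z : ℝ, z = z' + zm := ⟨_, rfl⟩
  rw [← hz]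
  have z2 : |z| ≤ 2 := abs_le.2 ⟨by rw [hz, hzm]; linarith, by rw [hz, hzm]; linarith⟩
  have Mpos : ∀ k, |M.pos z k| ≤ 6 * R := by
    intro k
    refine (a2 (Mp k) (m2 z2 (Mv k))).trans (by linarith)
  have hθ1' : θ ≤ 1 := by linarith
  have ha1 : |a| ≤ R := ha.trans (by
    have := mul_le_mul hA hθ1' hθ R0
    linarith)
  have hbR : B * θ ≤ R := by
    have := mul_le_mul hB hθ1' hθ R0
    linarith
  have hb1 : |b| ≤ R := hb.trans hbR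
  obtain ⟨e, he⟩ : ∃ e : ℝ, e = drW κ M * z' := ⟨_, rfl⟩
  rw [← he]
  have he1 : |e| ≤ B * θ / 2 := by
    rw [he, abs_mul]
    have h2 : |z'| ≤ 1 := hz''.trans (by linarith)
    have h3 := mul_le_mul_of_nonneg_left h2 (abs_nonneg (drW κ M))
    linarith
  have he2 : |e| ≤ R := he1.trans (by
    have := mul_nonneg hB0 hθ
    linarith)
  have hxd' : x = q0 κ z (a + M.pos z 1) (b - 2 * κ * M.v 1 * a - e + M.pos z 2) := by
    have e1 : fz (frW M zm) z' = z := by rw [hz]; rfl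
    have e2 : fA (frW M zm) z' a = a + M.pos z 1 := by
      show a + M.v 1 * z' + M.pos zm 1 = _
      simp only [Ln4.pos, hz]; ring
    have e3 : fB κ (frW M zm) z' a b = b - 2 * κ * M.v 1 * a - e + M.pos z 2 := by
      show b - 2 * κ * M.v 1 * a - κ * M.v 1 ^ 2 * z' + M.pos zm 2 = _
      simp only [Ln4.pos, hz, he, drW]; ring
    rw [hxd, e1, e2, e3]
  have two : |(2 : ℝ)| ≤ 2 := by norm_num
  have hx1 : |x 1| ≤ 7 * R := by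
    have : x 1 = a + M.pos z 1 := by rw [hxd']; rfl
    rw [this]
    refine (a2 ha1 (Mpos 1)).trans (by linarith)
  have hx2 : |x 2| ≤ 12 * R ^ 2 := by
    have : x 2 = b - 2 * κ * M.v 1 * a - e + M.pos z 2 := by rw [hxd']; rfl
    rw [this]
    refine (a2 (s2 (s2 hb1 (m2 (m2 (m2 two hκ) (Mv 1)) ha1)) he2) (Mpos 2)).trans ?_
    have e5 : 2 * 1 * (2 * R) * R = 4 * R ^ 2 := by ring
    rw [e5]
    linarith
  have hx0 : |x 0| ≤ 100 * R ^ 2 := by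
    have : x 0 = z * x 2 + κ * x 1 ^ 2 := by rw [hxd']; rfl
    rw [this]
    have h1 : |x 1 ^ 2| ≤ (7 * R) ^ 2 := by
      rw [abs_pow]; exact pow_le_pow_left₀ (abs_nonneg _) hx1 2
    refine (a2 (m2 z2 hx2) (m2 hκ h1)).trans ?_
    have e5 : 1 * (7 * R) ^ 2 = 49 * R ^ 2 := by ring
    rw [e5]
    linarith [sq_nonneg R]
  refine ⟨hz'', z2, ?_, hxd', by linarith⟩
  intro k
  fin_cases k
  · exact hx0
  · exact hx1.trans (by linarith)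
  · exact hx2.trans (by linarith [sq_nonneg R])

/-- **displacement of a point of the box** -/
theorem dsp_pt {P : Pj} {ηP R κ η' : ℝ} (hP : P.Sm ηP) (hκ : |κ| ≤ 1) (hR : 1 ≤ R) {t : Ln4}
    (hp : ∀ k, |t.p k| ≤ R) (hv : ∀ k, |t.v k| ≤ R) {y0 rh θ A B zm z' a b hh : ℝ}
    (hrh0 : 0 < rh)
    (hrh1 : rh ≤ 1) (s5 : 80 * (ηP * (100 * R ^ 2) ^ 2) ≤ rh) (hy : |y0| ≤ 1)
    (hzm : zm = y0 + rh / 2) (hθ : 0 ≤ θ) (hθ1 : θ ≤ 1 / 4) (hz' : |z'| ≤ rh * θ)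
    (hA : A ≤ R) (hB0 : 0 ≤ B) (hB : B ≤ R) (ha : |a| ≤ A * θ) (hb : |b| ≤ B * θ)
    (s3 : 2 * |drW κ (P.line t)| ≤ B * θ)
    (s1 : 120 * (ηP * (100 * R ^ 2) ^ 3) ≤ A * θ)
    (s2' : 960 * (ηP * (100 * R ^ 2) ^ 4) ≤ B * θ)
    (s4 : hh + 5200 * (ηP * (100 * R ^ 2) ^ 5) + 39 * ((100 * R ^ 2) ^ 2 * η') ≤ A ^ 2 * θ)
    (hh1 : ∀ z, y0 ≤ z → z ≤ y0 + rh →
      |ht κ z ((P.line t).pos z 1) ((P.line t).pos z 2) ((P.line t).pos z 0)| ≤ hh) {x : V3}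
    (hxd : x = q0 κ (fz (frW (P.line t) zm) z') (fA (frW (P.line t) zm) z' a)
      (fB κ (frW (P.line t) zm) z' a b)) {V : V3}
    (hV : ∀ k, V k = P.inv.pt x k - t.pos (P.inv.ht (z' + zm) x) k) :
    |z' + zm| ≤ 2 ∧ (∀ k, |x k| ≤ 100 * R ^ 2) ∧ y0 ≤ P.inv.ht (z' + zm) x ∧
      P.inv.ht (z' + zm) x ≤ y0 + rh ∧ |P.inv.ht (z' + zm) x| ≤ 3 * (100 * R ^ 2) ^ 2 ∧
      (∀ k, |t.pos (P.inv.ht (z' + zm) x) k| ≤ 3 * (100 * R ^ 2) ^ 2) ∧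
      |V 1| ≤ 2 * (A * θ) ∧ |V 2 + 2 * κ * t.v 1 * V 1| ≤ 2 * (B * θ) ∧
      ∀ γ : V3, |γ 0 - 1| ≤ η' → |γ 1 + 2 * κ * t.pos (P.inv.ht (z' + zm) x) 1| ≤ η' →
        |γ 2 + P.inv.ht (z' + zm) x| ≤ η' → |dt γ V| ≤ 2 * (A ^ 2 * θ) := by
  obtain ⟨hz'', z2, hx, hxd', hbe⟩ := box_pt hP hκ hR hp hv hrh0 hrh1 s5 hy hzm hθ hθ1 hz' hA hB0 hB
    ha hb s3 hxd
  have R0 : 0 ≤ R := by linarith
  have hηP := hP.nn
  obtain ⟨Rb, hRb⟩ : ∃ Rb : ℝ, Rb = 100 * R ^ 2 := ⟨_, rfl⟩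
  have hR2 : R ≤ R ^ 2 := by nlinarith
  have hRRb : R ≤ Rb := by rw [hRb]; linarith
  have Rb1 : 1 ≤ Rb := hR.trans hRRb
  have Rb0 : 0 ≤ Rb := by linarith
  have Rb100 : 100 ≤ Rb := by rw [hRb]; nlinarith
  rw [← hRb] at s5 s1 s2' s4 hx ⊢
  have hη20 : 20 * (ηP * Rb) ≤ 1 := by
    have h2 : ηP * Rb ≤ ηP * Rb ^ 2 := mul_le_mul_of_nonneg_left (by nlinarith) hηP
    have h3 : 0 ≤ ηP * Rb := by positivity
    linarith
  have hp' : ∀ k, |t.p k| ≤ Rb := fun k => (hp k).trans hRRb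
  have hv' : ∀ k, |t.v k| ≤ Rb := fun k => (hv k).trans hRRb
  obtain ⟨zl, zu⟩ := abs_le.1 hz''
  obtain ⟨z, hz⟩ : ∃ z : ℝ, z = z' + zm := ⟨_, rfl⟩
  rw [← hz] at z2 hxd' hV ⊢
  have zlo : y0 ≤ z := by rw [hz, hzm]; linarith
  have zhi : z ≤ y0 + rh := by rw [hz, hzm]; linarith
  have hzR : |z| ≤ Rb := z2.trans (by linarith)
  have hAθ : A * θ ≤ Rb := by
    have h1 : θ ≤ 1 := by linarith
    have := mul_le_mul hA h1 hθ R0
    linarith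
  have hx' : ∀ k, |q0 κ z (a + (P.line t).pos z 1)
      (b - 2 * κ * (P.line t).v 1 * a - drW κ (P.line t) * z' + (P.line t).pos z 2) k| ≤ Rb := by
    intro k
    have := hx k
    rw [hxd'] at this
    exact this
  obtain ⟨g1, g2, g3⟩ := geo_pt (P := P) (η := ηP) (R := Rb) (κ := κ) (t := t) (z := z) (a := a)
    (b := b) (e := drW κ (P.line t) * z') (α := A * θ) (β := 3 / 2 * (B * θ)) (hh := hh)
    (η' := η') hP hκ Rb1 hη20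
    hp' hv' hzR hx' ha hAθ hbe (hh1 z zlo zhi) (x := x) hxd' (V := V) hV
  obtain ⟨d1, d2, d3⟩ := dsp hP Rb1 hη20 hp' hv' hzR hx
  obtain ⟨zz, hzz⟩ : ∃ zz : ℝ, zz = P.inv.ht z x := ⟨_, rfl⟩
  rw [← hzz] at g3 d1 d2 hV ⊢
  have d1' : |zz - z| ≤ rh / 4 := by linarith
  obtain ⟨wl, wu⟩ := abs_le.1 d1'
  have h3 : |zz| ≤ 3 := by
    have : zz = (zz - z) + z := by ring
    rw [this]
    refine (a2 d1' z2).trans (by linarith)
  have hRb2 : Rb ≤ Rb ^ 2 := by nlinarith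
  refine ⟨z2, hx, ?_, ?_, h3.trans (by linarith), ?_, ?_, ?_, ?_⟩
  · have : y0 + rh / 4 ≤ z := by rw [hz, hzm]; linarith only [zl]
    linarith only [this, wl]
  · have : z ≤ y0 + rh * (3 / 4) := by rw [hz, hzm]; linarith only [zu]
    linarith only [this, wu]
  · intro k
    refine (a2 (hp k) (m2 h3 (hv k))).trans ?_
    have h4 : R * 100 ≤ Rb := by rw [hRb]; linarith only [hR2]
    linarith only [h4, hRb2, R0]
  · exact g1.trans (by linarith only [s1])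
  · exact g2.trans (by linarith only [s2'])
  · intro γ h0 h1 h2
    refine (g3 γ h0 h1 h2).trans ?_
    have h5 : (A * θ) ^ 2 ≤ A ^ 2 * θ := by
      rw [mul_pow]
      refine mul_le_mul_of_nonneg_left ?_ (sq_nonneg _)
      rw [pow_two]
      exact mul_le_of_le_one_left hθ (by linarith only [hθ1])
    linarith only [h5, s4]

section fin

/-- data at one incidence: own plank `S`, polynomial `Qv` of the plank, second polynomial `Qu`,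
polynomial `Q2` near the model -/
structure CwD (S : Plk4) (T : Ln4) (z0 ρ δ : ℝ) (b0 b1 : V3) (G : QF) (f : Fin 3 → V3) (c : Ln4)
    (u : Un) (Qv Qu Q2 : Qd) (b0' b1' : V3) (G' : QF) (X : ℝ) (P : Pj)
    (κ σ Γ R η ηP Y X' A1 A2 α μ θ tv' tu' hh : ℝ) : Prop where
  O : Own S T z0 ρ δ b0 b1 G
  hf : Ortho f
  hu : u.Ok
  hv : S.q = Qv.ev
  hE : IsExp Qu.ev S.e S.w T z0 ρ b0' b1' G'
  m1 : |b0' 0 / b0 0| ≤ 16
  hO : OmB (kap b0 b1 G) X X X b0 b1 G b0' b1' G'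
  hκ : |κ| ≤ 1
  hσ : 0 < σ
  hν0 : (pullQ P.inv (hatQ f c u Q2)).b 0 ≠ 0
  hfl : ∀ k, |flg κ σ (pullQ P.inv (hatQ f c u Q2)) k| ≤ Γ
  hΓ : σ * Γ ≤ 1
  bas : Bas (fun k => (hatQ f c u Q2).gr (u.zh z0) ((ul u (rl f c T)).pos (u.zh z0)) k /
      (pullQ P.inv (hatQ f c u Q2)).b 0)
    (fun k => gd (hatQ f c u Q2) (ul u (rl f c T)) k / (pullQ P.inv (hatQ f c u Q2)).b 0)
    (φb f u S.e S.w (kap b0 b1 G) b0) κ ((ul u (rl f c T)).v 1) R η (ρ / u.H) Y X' A1 A2 α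
  hs : 10 ^ 6 * (Y * (η * Bas.sz R (ρ / u.H) Y A1)) ≤ α
  hs2 : 2 ^ 27 * (400 * (Y * η * Bas.rt R η (ρ / u.H) Y A1) + 3600 * (A1 * R * (Y * η))) ≤ α
  hμ : 0 < μ
  hμ1 : μ ≤ 1
  hθ : 0 ≤ θ
  hθμ : 4 * 10 ^ 10 * θ ≤ μ ^ 2
  hα : μ * (A1 * (A1 ^ 2 / (ρ / u.H))) ≤ α
  hY1 : μ * A1 ^ 2 ≤ 8 * Y
  hY2 : μ * Y ≤ 8 * A1 ^ 2
  hsz : 3 * (η * Bas.sz R (ρ / u.H) Y A1) ≤ A1 ^ 2 / (ρ / u.H)
  A1' : A1 ≤ R
  B1' : A1 ^ 2 / (ρ / u.H) ≤ R
  hP : P.Sm ηP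
  th : ∀ z, z0 ≤ z → z ≤ z0 + ρ → |Qv.ev z (T.pos z)| ≤ tv' ∧ |Qu.ev z (T.pos z)| ≤ tu'
  tp : ∀ k, |(ul u (rl f c T)).p k| ≤ R
  tv : ∀ k, |(ul u (rl f c T)).v k| ≤ R
  z1 : |u.zh z0| ≤ 1
  s1 : 120 * (ηP * (100 * R ^ 2) ^ 3) ≤ A1 * θ
  s2 : 960 * (ηP * (100 * R ^ 2) ^ 4) ≤ A1 ^ 2 / (ρ / u.H) * θ
  s3 : 2 * |drW κ (P.line (ul u (rl f c T)))| ≤ A1 ^ 2 / (ρ / u.H) * θ
  s4 : hh + 5200 * (ηP * (100 * R ^ 2) ^ 5) + 39 * ((100 * R ^ 2) ^ 2 *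
    ((24 * ηP + σ * Γ) * (1 + 7 * (3 * (100 * R ^ 2) ^ 2)))) ≤ A1 ^ 2 * θ
  s5 : 80 * (ηP * (100 * R ^ 2) ^ 2) ≤ ρ / u.H
  hh1 : ∀ z, u.zh z0 ≤ z → z ≤ u.zh z0 + ρ / u.H →
    |ht κ z ((P.line (ul u (rl f c T))).pos z 1) ((P.line (ul u (rl f c T))).pos z 2)
      ((P.line (ul u (rl f c T))).pos z 0)| ≤ hh

variable {S : Plk4} {T : Ln4} {z0 ρ δ : ℝ} {b0 b1 : V3} {G : QF} {f : Fin 3 → V3} {c : Ln4} {u : Un}
  {Qv Qu Q2 : Qd} {b0' b1' : V3} {G' : QF} {X : ℝ} {P : Pj}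
  {κ σ Γ R η ηP Y X' A1 A2 α μ θ tv' tu' hh : ℝ}

/-- gradient of the second polynomial -/
theorem CwD.grad (D : CwD S T z0 ρ δ b0 b1 G f c u Qv Qu Q2 b0' b1' G' X P κ σ Γ R η ηP Y X' A1 A2 α
      μ θ tv' tu' hh) (hη : 16 * ηP ≤ 1) {z Rz : ℝ} (hz : |z| ≤ Rz)
      (ht : ∀ k, |(ul u (rl f c T)).pos z k| ≤ Rz) {γ : V3}
      (hγ : ∀ k, γ k = (hatQ f c u Q2).gr z ((ul u (rl f c T)).pos z) k /
        (pullQ P.inv (hatQ f c u Q2)).b 0) :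
    |γ 0 - 1| ≤ (24 * ηP + σ * Γ) * (1 + 7 * Rz) ∧
      |γ 1 + 2 * κ * (ul u (rl f c T)).pos z 1| ≤ (24 * ηP + σ * Γ) * (1 + 7 * Rz) ∧
      |γ 2 + z| ≤ (24 * ηP + σ * Γ) * (1 + 7 * Rz) := by
  have hνn := D.hν0
  have hνp := abs_pos.2 hνn
  have hgr : ∀ k, |γ k - (mod κ).gr z ((ul u (rl f c T)).pos z) k| ≤
      (24 * ηP + σ * Γ) * (1 + 7 * Rz) := by
    intro k
    have h1 := gr_good D.hP hη D.hσ D.hκ D.hν0 D.hfl D.hΓ hz ht k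
    have e : γ k - (mod κ).gr z ((ul u (rl f c T)).pos z) k =
        ((hatQ f c u Q2).gr z ((ul u (rl f c T)).pos z) k - (pullQ P.inv (hatQ f c u Q2)).b 0 *
          (mod κ).gr z ((ul u (rl f c T)).pos z) k) / (pullQ P.inv (hatQ f c u Q2)).b 0 := by
      rw [hγ k]; field_simp
    rw [e, abs_div, div_le_iff₀ hνp]
    refine h1.trans (le_of_eq (by ring))
  refine ⟨?_, ?_, ?_⟩
  · have := hgr 0
    rw [mod_gr] at this
    exact this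
  · have := hgr 1
    rw [mod_gr] at this
    have e : γ 1 + 2 * κ * (ul u (rl f c T)).pos z 1 = γ 1 -
        ![1, -2 * κ * (ul u (rl f c T)).pos z 1, -z] 1 := by
      show _ = γ 1 - (-2 * κ * (ul u (rl f c T)).pos z 1)
      ring
    rw [e]; exact this
  · have := hgr 2
    rw [mod_gr] at this
    have e : γ 2 + z = γ 2 - ![1, -2 * κ * (ul u (rl f c T)).pos z 1, -z] 2 := by
      show γ 2 + z = γ 2 - (-z)
      ring
    rw [e]; exact this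

/-- coordinates of a point of the box -/
theorem CwD.crd (D : CwD S T z0 ρ δ b0 b1 G f c u Qv Qu Q2 b0' b1' G' X P κ σ Γ R η ηP Y X' A1 A2 α
      μ θ tv' tu' hh) {zz : ℝ} (h0 : u.zh z0 ≤ zz) (h1 : zz ≤ u.zh z0 + ρ / u.H) {V : V3}
      (g1 : |V 1| ≤ 2 * (A1 * θ))
      (g2 : |V 2 + 2 * κ * (ul u (rl f c T)).v 1 * V 1| ≤ 2 * (A1 ^ 2 / (ρ / u.H) * θ))
      {γ : V3} (hγ : ∀ k, γ k = (hatQ f c u Q2).gr zz ((ul u (rl f c T)).pos zz) k /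
        (pullQ P.inv (hatQ f c u Q2)).b 0) (g3 : |dt γ V| ≤ 2 * (A1 ^ 2 * θ)) :
    |(hatQ f c u Qu).ev zz (fun k => (ul u (rl f c T)).pos zz k + V k) -
      b0' 0 / b0 0 * (hatQ f c u Qv).ev zz (fun k => (ul u (rl f c T)).pos zz k + V k)| ≤
      11 * (X * (S.w 0 * kap b0 b1 G)) + tu' + 16 * tv' := by
  have hrh0 : 0 < ρ / u.H := D.bas.rh0
  obtain ⟨ζ, hζ⟩ : ∃ ζ : ℝ, ζ = (zz - u.zh z0) / (ρ / u.H) := ⟨_, rfl⟩
  have ζ0 : 0 ≤ ζ := by rw [hζ]; exact div_nonneg (by linarith) hrh0.le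
  have ζ1 : ζ ≤ 1 := by rw [hζ, div_le_one hrh0]; linarith
  have hd : zz - u.zh z0 = ζ * (ρ / u.H) := by
    rw [hζ, div_mul_cancel₀ _ hrh0.ne']
  have ezz : u.zh (z0 + ρ * ζ) = zz := by
    rw [zh_add]; linarith
  have hgg : dt (fun k => (hatQ f c u Q2).gr (u.zh z0) ((ul u (rl f c T)).pos (u.zh z0)) k /
        (pullQ P.inv (hatQ f c u Q2)).b 0) V +
      ζ * (ρ / u.H * dt (fun k => gd (hatQ f c u Q2) (ul u (rl f c T)) k /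
        (pullQ P.inv (hatQ f c u Q2)).b 0) V) = dt γ V := by
    have h1 : ∀ k, (hatQ f c u Q2).gr zz ((ul u (rl f c T)).pos zz) k =
        (hatQ f c u Q2).gr (u.zh z0) ((ul u (rl f c T)).pos (u.zh z0)) k +
        (zz - u.zh z0) * gd (hatQ f c u Q2) (ul u (rl f c T)) k :=
      fun k => gr_along (hatQ f c u Q2) (ul u (rl f c T)) (u.zh z0) zz k
    simp only [dt, hγ, h1, hd]
    ring
  have hVτ := tc_spec D.O D.hf D.hu V
  have hτ1 : ∀ k, |tc f u S b0 b1 G V k| ≤ 1 := by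
    intro k
    refine coord_small D.bas D.hs D.hs2 D.hμ D.hμ1 D.hθ D.hθμ D.hα D.hY1 D.hY2 D.hsz
      (τ := tc f u S b0 b1 G V) (V := V) hVτ (ζ := ζ) g1 g2 ζ0 ζ1 ?_ k
    rw [hgg]; exact g3
  have zr0 : z0 ≤ z0 + ρ * ζ := by
    have := mul_nonneg D.O.hρ.le ζ0
    linarith
  have zr1 : z0 + ρ * ζ ≤ z0 + ρ := by
    have := mul_le_mul_of_nonneg_left ζ1 D.O.hρ.le
    linarith
  obtain ⟨t1, t2⟩ := D.th (z0 + ρ * ζ) zr0 zr1
  have key := om_pt D.O D.hf D.hu (c := c) D.hv D.hE D.hO ζ0 ζ1 (V := V) hτ1 D.m1 t1 t2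
  rw [ezz] at key
  exact key

/-- **values of `q' - m q` on the box of the model quadric** -/
theorem val_fin (D : CwD S T z0 ρ δ b0 b1 G f c u Qv Qu Q2 b0' b1' G' X P κ σ Γ R η ηP Y X' A1 A2 α
      μ θ tv' tu' hh) {zm z' a b : ℝ} (hzm : zm = u.zh z0 + ρ / u.H / 2)
    (hz' : |z'| ≤ ρ / u.H * θ) (ha : |a| ≤ A1 * θ) (hb : |b| ≤ A1 ^ 2 / (ρ / u.H) * θ)
    {x : V3} (hxd : x = q0 κ (fz (frW (P.line (ul u (rl f c T))) zm) z')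
      (fA (frW (P.line (ul u (rl f c T))) zm) z' a)
      (fB κ (frW (P.line (ul u (rl f c T))) zm) z' a b)) :
    |z' + zm| ≤ 2 ∧ (∀ k, |x k| ≤ 100 * R ^ 2) ∧
      |(pullQ P.inv (hatQ f c u Qu)).ev (z' + zm) x -
        b0' 0 / b0 0 * (pullQ P.inv (hatQ f c u Qv)).ev (z' + zm) x| ≤
        3 * (11 * (X * (S.w 0 * kap b0 b1 G)) + tu' + 16 * tv') := by
  have hrh0 : 0 < ρ / u.H := D.bas.rh0
  have hR := D.bas.R1
  have hηP := D.hP.nn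
  have hθ1 : θ ≤ 1 / 4 := by
    have h1 := D.hθμ
    have h2 : μ ^ 2 ≤ 1 := pow_le_one₀ D.hμ.le D.hμ1
    linarith
  have hB0 : 0 ≤ A1 ^ 2 / (ρ / u.H) := by positivity
  obtain ⟨V, hV⟩ : ∃ V : V3, V = fun k => P.inv.pt x k -
    (ul u (rl f c T)).pos (P.inv.ht (z' + zm) x) k := ⟨_, rfl⟩
  obtain ⟨z2, hx, k1, k2, k3, k4, g1, g2, g3⟩ := dsp_pt D.hP D.hκ hR D.tp D.tv hrh0 D.bas.rh1 D.s5
    D.z1 hzm D.hθ hθ1 hz' D.A1' hB0 D.B1' ha hb D.s3 D.s1 D.s2 D.s4 D.hh1 hxd (V := V)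
    (fun k => by rw [hV])
  have hη1 : 16 * (ηP * (100 * R ^ 2)) ≤ 1 := by
    have h1 := D.s5
    have h2 : ηP * (100 * R ^ 2) ≤ ηP * (100 * R ^ 2) ^ 2 :=
      mul_le_mul_of_nonneg_left (le_self_pow₀ (by nlinarith) (by norm_num)) hηP
    have h3 := D.bas.rh1
    have h4 : 0 ≤ ηP * (100 * R ^ 2) := by positivity
    linarith
  have hη16 : 16 * ηP ≤ 1 := by
    have : ηP ≤ ηP * (100 * R ^ 2) := le_mul_of_one_le_right hηP (by nlinarith)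
    linarith
  obtain ⟨c0, c1, c2⟩ := D.grad hη16 k3 k4 (γ := fun k => (hatQ f c u Q2).gr
    (P.inv.ht (z' + zm) x) ((ul u (rl f c T)).pos (P.inv.ht (z' + zm) x)) k /
        (pullQ P.inv (hatQ f c u Q2)).b 0) (fun k => rfl)
  have key := D.crd k1 k2 g1 g2 (fun k => rfl) (g3 _ c0 c1 c2)
  refine ⟨z2, hx, ?_⟩
  have ex : (fun k => (ul u (rl f c T)).pos (P.inv.ht (z' + zm) x) k + V k) = P.inv.pt x := by
    funext k
    rw [hV]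
    ring
  rw [ex] at key
  have hi := D.hP.inv (by linarith)
  have hT := Pj.T_half hi hx (by linarith)
  have hT0 : P.inv.T x ≠ 0 := by
    have : 0 < P.inv.T x := by linarith [hT.1]
    exact this.ne'
  rw [pullQ_ev _ _ hT0, pullQ_ev _ _ hT0]
  have eT : P.inv.T x ^ 2 * (hatQ f c u Qu).ev (P.inv.ht (z' + zm) x) (P.inv.pt x) -
      b0' 0 / b0 0 * (P.inv.T x ^ 2 * (hatQ f c u Qv).ev (P.inv.ht (z' + zm) x) (P.inv.pt x)) =
      P.inv.T x ^ 2 * ((hatQ f c u Qu).ev (P.inv.ht (z' + zm) x) (P.inv.pt x) -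
        b0' 0 / b0 0 * (hatQ f c u Qv).ev (P.inv.ht (z' + zm) x) (P.inv.pt x)) := by ring
  rw [eT]
  have hT2 : |P.inv.T x ^ 2| ≤ 3 := by
    rw [abs_of_nonneg (sq_nonneg _)]
    have h1 := hT.1
    have h2 := hT.2
    nlinarith
  exact m2 hT2 key

end fin

end Crest.Agent.R136.Clw768
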