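import Crest.Agent.R136.Clw2_768

/-!
# R136, U6 thin side, stage C (helper768): closeness of the sheets of two levels, finite part 3

`closeW_fin` : `CloseW` of the flags of two levels; `nums`, `nums2` : numerical hypotheses;
`drift_le` : drift of a line near the model quadric.
-/

set_option autoImplicit false
set_option linter.unusedVariables false

namespace Crest.Agent.R136.Clw768

open Crest.Agent.R136.Sh605
open Crest.Agent.R136.K4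
open Crest.Agent.R136.NetW191
open Crest.Agent.R136.GeoN778
open Crest.Agent.R136.Wit321
open Crest.Agent.R136.Tl102 (QF kap IsExp OmB)
open Crest.Agent.R136.Thn768 (Own)
open Crest.Agent.R136.Stc321
open Crest.Agent.R136.FlW464 (frW drW)
open Crest.Agent.R136.Tn327 (CloseW)

section fin

variable {S : Plk4} {T : Ln4} {z0 ρ δ : ℝ} {b0 b1 : V3} {G : QF} {f : Fin 3 → V3} {c : Ln4} {u : Un}
  {Qv Qu Q2 : Qd} {b0' b1' : V3} {G' : QF} {X : ℝ} {P : Pj}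
  {κ σ Γ R η ηP Y X' A1 A2 α μ θ tv' tu' hh : ℝ}

/-- **closeness of the flags of two levels** -/
theorem closeW_fin (D : CwD S T z0 ρ δ b0 b1 G f c u Qv Qu Q2 b0' b1' G' X P κ σ Γ R η ηP Y X' A1 A2
      α μ θ tv' tu' hh) {zm Γv Kb W : ℝ} (hzm : zm = u.zh z0 + ρ / u.H / 2)
    (hv0 : (pullQ P.inv (hatQ f c u Qv)).b 0 ≠ 0) (hW0 : 0 < W)
    (hW : W ≤ |(pullQ P.inv (hatQ f c u Qu)).b 0|)
    (hΓv : ∀ k, |flg κ σ (pullQ P.inv (hatQ f c u Qv)) k| ≤ Γv)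
    (hb : |(pullQ P.inv (hatQ f c u Qu)).b 0 -
      b0' 0 / b0 0 * (pullQ P.inv (hatQ f c u Qv)).b 0| ≤ Kb) :
    CloseW κ (frW (P.line (ul u (rl f c T))) zm) (ρ / u.H * θ) (A1 * θ) (A1 ^ 2 / (ρ / u.H) * θ)
      ((3 * (11 * (X * (S.w 0 * kap b0 b1 G)) + tu' + 16 * tv') / σ +
        Kb * (14 * (Γv * (100 * R ^ 2) ^ 2))) / W)
      (flg κ σ (pullQ P.inv (hatQ f c u Qv))) (flg κ σ (pullQ P.inv (hatQ f c u Qu))) := by
  intro z' a b hz' ha hb'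
  obtain ⟨x, hx⟩ : ∃ x : V3, x = q0 κ (fz (frW (P.line (ul u (rl f c T))) zm) z')
      (fA (frW (P.line (ul u (rl f c T))) zm) z' a)
      (fB κ (frW (P.line (ul u (rl f c T))) zm) z' a b) := ⟨_, rfl⟩
  obtain ⟨z2, hxx, key⟩ := val_fin D hzm hz' ha hb' hx
  have hu0 : (pullQ P.inv (hatQ f c u Qu)).b 0 ≠ 0 := by
    intro h
    rw [h, abs_zero] at hW
    linarith
  obtain ⟨z, hz⟩ : ∃ z : ℝ, z = z' + zm := ⟨_, rfl⟩
  have hz0 : fz (frW (P.line (ul u (rl f c T))) zm) z' = z := by rw [hz]; rfl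
  have x0 : x 0 = fz (frW (P.line (ul u (rl f c T))) zm) z' *
      fB κ (frW (P.line (ul u (rl f c T))) zm) z' a b +
      κ * fA (frW (P.line (ul u (rl f c T))) zm) z' a ^ 2 := by rw [hx]; rfl
  have x1 : x 1 = fA (frW (P.line (ul u (rl f c T))) zm) z' a := by rw [hx]; rfl
  have x2 : x 2 = fB κ (frW (P.line (ul u (rl f c T))) zm) z' a b := by rw [hx]; rfl
  rw [← x0, ← x1, ← x2, hz0]
  rw [← hz] at key z2
  have hht : ht κ z (x 1) (x 2) (x 0) = 0 := by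
    rw [hx, hz0]; exact ht_q0 κ z _ _
  obtain ⟨bu, hbu⟩ : ∃ bu : ℝ, bu = (pullQ P.inv (hatQ f c u Qu)).b 0 := ⟨_, rfl⟩
  obtain ⟨bv, hbv⟩ : ∃ bv : ℝ, bv = (pullQ P.inv (hatQ f c u Qv)).b 0 := ⟨_, rfl⟩
  have hσ := D.hσ
  rw [ev_flg hσ.ne' hu0, ev_flg hσ.ne' hv0, hht, ← hbu, ← hbv] at key
  rw [← hbu, ← hbv] at hb
  rw [← hbu] at hW
  have hR := D.bas.R1
  have hRb : (1 : ℝ) ≤ 100 * R ^ 2 := by nlinarith
  have hzb : |z| ≤ 100 * R ^ 2 := z2.trans (by nlinarith)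
  have hev := evY_le hΓv hRb hzb (hxx 1) (hxx 2) (hxx 0)
  obtain ⟨eu, heu⟩ : ∃ eu : ℝ, eu = evY (flg κ σ (pullQ P.inv (hatQ f c u Qu))) z (x 1) (x 2)
    (x 0) := ⟨_, rfl⟩
  obtain ⟨ev, hev'⟩ : ∃ ev : ℝ, ev = evY (flg κ σ (pullQ P.inv (hatQ f c u Qv))) z (x 1) (x 2)
    (x 0) := ⟨_, rfl⟩
  rw [← heu, ← hev'] at key ⊢
  rw [← hev'] at hev
  obtain ⟨L, hL⟩ : ∃ L : ℝ, L = 3 * (11 * (X * (S.w 0 * kap b0 b1 G)) + tu' + 16 * tv') :=
    ⟨_, rfl⟩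
  obtain ⟨m, hm⟩ : ∃ m : ℝ, m = b0' 0 / b0 0 := ⟨_, rfl⟩
  rw [← hm] at key hb
  rw [← hL] at key ⊢
  have hbu0 : 0 < |bu| := hW0.trans_le hW
  have e1 : σ * (bu * (ev - eu)) = (bu * (0 - σ * eu) - m * (bv * (0 - σ * ev))) +
      σ * ((bu - m * bv) * ev) := by ring
  have h1 : |σ * (bu * (ev - eu))| ≤ L + σ * (Kb * (14 * (Γv * (100 * R ^ 2) ^ 2))) := by
    rw [e1]
    refine a2 key ?_
    rw [abs_mul, abs_of_pos hσ]
    exact mul_le_mul_of_nonneg_left (m2 hb hev) hσ.le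
  rw [abs_mul, abs_of_pos hσ, abs_mul] at h1
  have h2 : |bu| * |ev - eu| ≤ L / σ + Kb * (14 * (Γv * (100 * R ^ 2) ^ 2)) := by
    rw [← mul_le_mul_iff_right₀ hσ]
    refine h1.trans (le_of_eq ?_)
    field_simp
  rw [le_div_iff₀ hW0]
  have h3 : |ev - eu| * W ≤ |ev - eu| * |bu| := mul_le_mul_of_nonneg_left hW (abs_nonneg _)
  linarith

end fin

/-- numerical hypotheses of `coord_small` -/
theorem nums {R η μ Y A1 rh α : ℝ} (hR : 1 ≤ R) (hη : 0 ≤ η) (hηR : 10 ^ 24 * (η * R ^ 22) ≤ 1)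
    (hμ : 0 < μ) (hRμ : 1 ≤ R * μ) (hY : 0 < Y) (hA : 0 < A1) (hA1 : A1 ≤ R) (hA2 : 1 ≤ R * A1)
    (hrh : 0 < rh) (hrh1 : rh ≤ 1) (hrh2 : 1 ≤ R * rh) (hY2 : μ * Y ≤ 8 * A1 ^ 2)
    (hα : μ * (A1 * (A1 ^ 2 / rh)) ≤ α) :
    10 ^ 6 * (Y * (η * Bas.sz R rh Y A1)) ≤ α ∧
    2 ^ 27 * (400 * (Y * η * Bas.rt R η rh Y A1) + 3600 * (A1 * R * (Y * η))) ≤ α ∧
    3 * (η * Bas.sz R rh Y A1) ≤ A1 ^ 2 / rh ∧ 1 ≤ R ^ 2 * (A1 ^ 2 / rh) ∧
    A1 ^ 2 / rh ≤ R ^ 3 := by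
  have R0 : 0 < R := by linarith
  have hYR : Y ≤ 8 * R ^ 3 := by
    have h1 : Y ≤ R * μ * Y := le_mul_of_one_le_left hY.le hRμ
    have h2 : R * (μ * Y) ≤ R * (8 * A1 ^ 2) := mul_le_mul_of_nonneg_left hY2 R0.le
    have h3 : A1 ^ 2 ≤ R ^ 2 := pow_le_pow_left₀ hA.le hA1 2
    have h4 : R * (8 * A1 ^ 2) ≤ R * (8 * R ^ 2) := by
      refine mul_le_mul_of_nonneg_left ?_ R0.le
      linarith
    calc Y ≤ R * μ * Y := h1
      _ = R * (μ * Y) := by ring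
      _ ≤ R * (8 * R ^ 2) := h2.trans h4
      _ = 8 * R ^ 3 := by ring
  have hinv : 1 / rh ≤ R := by rw [div_le_iff₀ hrh]; linarith
  have hYrh : Y / rh ≤ 8 * R ^ 4 := by
    have : Y / rh = Y * (1 / rh) := by ring
    rw [this]
    calc Y * (1 / rh) ≤ 8 * R ^ 3 * R := mul_le_mul hYR hinv (by positivity) (by positivity)
      _ = 8 * R ^ 4 := by ring
  have hsz : Bas.sz R rh Y A1 ≤ 1200 * R ^ 5 := by
    unfold Bas.sz
    have h1 : R * Y / rh ≤ 8 * R ^ 5 := by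
      have : R * Y / rh = R * (Y / rh) := by ring
      rw [this]
      calc R * (Y / rh) ≤ R * (8 * R ^ 4) := mul_le_mul_of_nonneg_left hYrh R0.le
        _ = 8 * R ^ 5 := by ring
    have h2 : R ^ 2 * A1 ≤ R ^ 5 := by
      calc R ^ 2 * A1 ≤ R ^ 2 * R := mul_le_mul_of_nonneg_left hA1 (by positivity)
        _ = R ^ 3 := by ring
        _ ≤ R ^ 5 := pow_le_pow_right₀ hR (by norm_num)
    have h3 : 0 ≤ R ^ 5 := by positivity
    linarith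
  have hsz0 : 0 ≤ Bas.sz R rh Y A1 := by unfold Bas.sz; positivity
  have hB1 : 1 ≤ R ^ 2 * (A1 ^ 2 / rh) := by
    have h1 : 1 ≤ (R * A1) ^ 2 := one_le_pow₀ hA2
    have h2 : A1 ^ 2 ≤ A1 ^ 2 / rh := by
      rw [le_div_iff₀ hrh]
      exact mul_le_of_le_one_right (by positivity) hrh1
    have h3 := mul_le_mul_of_nonneg_left h2 (by positivity : 0 ≤ R ^ 2)
    have h4 : (R * A1) ^ 2 = R ^ 2 * A1 ^ 2 := by ring
    linarith
  have hB2 : A1 ^ 2 / rh ≤ R ^ 3 := by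
    have : A1 ^ 2 / rh = A1 ^ 2 * (1 / rh) := by ring
    rw [this]
    calc A1 ^ 2 * (1 / rh) ≤ R ^ 2 * R :=
          mul_le_mul (pow_le_pow_left₀ hA.le hA1 2) hinv (by positivity) (by positivity)
      _ = R ^ 3 := by ring
  have hα1 : 1 ≤ R ^ 4 * α := by
    have h1 : 1 ≤ (R * μ) * (R * A1) * (R ^ 2 * (A1 ^ 2 / rh)) := by
      have := mul_le_mul hRμ hA2 zero_le_one (by positivity : 0 ≤ R * μ)
      rw [one_mul] at this
      have := mul_le_mul this hB1 zero_le_one (by positivity)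
      linarith
    have h2 := mul_le_mul_of_nonneg_left hα (by positivity : 0 ≤ R ^ 4)
    have h3 : (R * μ) * (R * A1) * (R ^ 2 * (A1 ^ 2 / rh)) =
      R ^ 4 * (μ * (A1 * (A1 ^ 2 / rh))) := by ring
    linarith
  have hp : ∀ k : ℕ, k ≤ 22 → 10 ^ 24 * (η * R ^ k) ≤ 1 := by
    intro k hk
    have h1 : η * R ^ k ≤ η * R ^ 22 :=
      mul_le_mul_of_nonneg_left (pow_le_pow_right₀ hR hk) hη
    linarith
  have fin : ∀ {s : ℝ}, R ^ 4 * s ≤ 1 → s ≤ α := by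
    intro s hs
    have h1 : R ^ 4 * s ≤ R ^ 4 * α := hs.trans hα1
    exact le_of_mul_le_mul_left h1 (by positivity)
  refine ⟨fin ?_, fin ?_, ?_, hB1, hB2⟩
  · have h1 : Y * (η * Bas.sz R rh Y A1) ≤ 8 * R ^ 3 * (η * (1200 * R ^ 5)) := by
      refine mul_le_mul hYR (mul_le_mul_of_nonneg_left hsz hη) (by positivity) (by positivity)
    have h2 : R ^ 4 * (10 ^ 6 * (Y * (η * Bas.sz R rh Y A1))) ≤
        R ^ 4 * (10 ^ 6 * (8 * R ^ 3 * (η * (1200 * R ^ 5)))) := by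
      refine mul_le_mul_of_nonneg_left ?_ (by positivity)
      linarith
    have h3 : R ^ 4 * (10 ^ 6 * (8 * R ^ 3 * (η * (1200 * R ^ 5)))) =
        96 * 10 ^ 8 * (η * R ^ 12) := by ring
    have h4 := hp 12 (by norm_num)
    have h5 : 0 ≤ η * R ^ 12 := by positivity
    linarith
  · have hrt : Bas.rt R η rh Y A1 ≤ 140 * R ^ 4 := by
      unfold Bas.rt
      have h1 : η * Bas.sz R rh Y A1 ≤ 1 / 10 := by
        have h2 : η * Bas.sz R rh Y A1 ≤ η * (1200 * R ^ 5) := mul_le_mul_of_nonneg_left hsz hη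
        have h3 := hp 5 (by norm_num)
        have h4 : 0 ≤ η * R ^ 5 := by positivity
        linarith
      have h5 : 1 ≤ R ^ 4 := one_le_pow₀ hR
      linarith
    have hrt0 : 0 ≤ Bas.rt R η rh Y A1 := by unfold Bas.rt; positivity
    have h1 : Y * η * Bas.rt R η rh Y A1 ≤ 8 * R ^ 3 * η * (140 * R ^ 4) :=
      mul_le_mul (mul_le_mul_of_nonneg_right hYR hη) hrt hrt0 (by positivity)
    have h2 : A1 * R * (Y * η) ≤ R * R * (8 * R ^ 3 * η) :=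
      mul_le_mul (mul_le_mul_of_nonneg_right hA1 R0.le) (mul_le_mul_of_nonneg_right hYR hη)
        (by positivity) (by positivity)
    have h3 : R ^ 4 * (2 ^ 27 * (400 * (Y * η * Bas.rt R η rh Y A1) +
        3600 * (A1 * R * (Y * η)))) ≤ R ^ 4 * (2 ^ 27 * (400 * (8 * R ^ 3 * η * (140 * R ^ 4)) +
        3600 * (R * R * (8 * R ^ 3 * η)))) := by
      refine mul_le_mul_of_nonneg_left ?_ (by positivity)
      linarith
    have h4 : R ^ 4 * (2 ^ 27 * (400 * (8 * R ^ 3 * η * (140 * R ^ 4)) +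
        3600 * (R * R * (8 * R ^ 3 * η)))) =
        2 ^ 27 * (448000 * (η * R ^ 11) + 28800 * (η * R ^ 9)) := by ring
    have h5 := hp 11 (by norm_num)
    have h6 := hp 9 (by norm_num)
    have h7 : 0 ≤ η * R ^ 11 := by positivity
    have h8 : 0 ≤ η * R ^ 9 := by positivity
    linarith
  · have h1 : 3 * (η * Bas.sz R rh Y A1) ≤ 3600 * (η * R ^ 5) := by
      have := mul_le_mul_of_nonneg_left hsz hη
      linarith
    have h2 : R ^ 2 * (3 * (η * Bas.sz R rh Y A1)) ≤ 1 := by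
      have h3 := mul_le_mul_of_nonneg_left h1 (by positivity : 0 ≤ R ^ 2)
      have h4 : R ^ 2 * (3600 * (η * R ^ 5)) = 3600 * (η * R ^ 7) := by ring
      have h5 := hp 7 (by norm_num)
      have h6 : 0 ≤ η * R ^ 7 := by positivity
      linarith
    exact le_of_mul_le_mul_left (h2.trans hB1) (by positivity)

/-- smallness of the straightening map and of the flags -/
theorem nums2 {R ηP μ A1 rh θ hh σΓ : ℝ} (hR : 1 ≤ R) (hηP : 0 ≤ ηP)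
    (hη : 10 ^ 24 * (ηP * R ^ 22) ≤ 1) (hA : 0 < A1) (hA2 : 1 ≤ R * A1)
    (hrh : 0 < rh) (hrh2 : 1 ≤ R * rh) (hRθ : 1 ≤ R * θ) (hθ : 0 < θ)
    (hB1 : 1 ≤ R ^ 2 * (A1 ^ 2 / rh)) (hh0 : 10 * (hh * R ^ 3) ≤ 1) (hσ0 : 0 ≤ σΓ)
    (hσ : 10 ^ 24 * (σΓ * R ^ 22) ≤ 1) :
    120 * (ηP * (100 * R ^ 2) ^ 3) ≤ A1 * θ ∧
    960 * (ηP * (100 * R ^ 2) ^ 4) ≤ A1 ^ 2 / rh * θ ∧
    hh + 5200 * (ηP * (100 * R ^ 2) ^ 5) + 39 * ((100 * R ^ 2) ^ 2 *
      ((24 * ηP + σΓ) * (1 + 7 * (3 * (100 * R ^ 2) ^ 2)))) ≤ A1 ^ 2 * θ ∧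
    80 * (ηP * (100 * R ^ 2) ^ 2) ≤ rh := by
  have R0 : 0 < R := by linarith
  have hp : ∀ k : ℕ, k ≤ 22 → 10 ^ 24 * (ηP * R ^ k) ≤ 1 := by
    intro k hk
    have h1 : ηP * R ^ k ≤ ηP * R ^ 22 :=
      mul_le_mul_of_nonneg_left (pow_le_pow_right₀ hR hk) hηP
    linarith
  have hq : ∀ k : ℕ, k ≤ 22 → 10 ^ 24 * (σΓ * R ^ k) ≤ 1 := by
    intro k hk
    have h1 : σΓ * R ^ k ≤ σΓ * R ^ 22 :=
      mul_le_mul_of_nonneg_left (pow_le_pow_right₀ hR hk) hσ0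
    linarith
  have hAθ : 1 ≤ R ^ 2 * (A1 * θ) := by
    have := mul_le_mul hA2 hRθ zero_le_one (by positivity)
    linarith
  have hBθ : 1 ≤ R ^ 3 * (A1 ^ 2 / rh * θ) := by
    have := mul_le_mul hB1 hRθ zero_le_one (by positivity)
    linarith
  have hAAθ : 1 ≤ R ^ 3 * (A1 ^ 2 * θ) := by
    have h1 := mul_le_mul hA2 hA2 zero_le_one (by positivity)
    have := mul_le_mul h1 hRθ (by norm_num) (by positivity)
    linarith
  refine ⟨?_, ?_, ?_, ?_⟩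
  · refine le_of_mul_le_mul_left (a := R ^ 2) ?_ (by positivity)
    have e : R ^ 2 * (120 * (ηP * (100 * R ^ 2) ^ 3)) = 12 * 10 ^ 7 * (ηP * R ^ 8) := by ring
    have := hp 8 (by norm_num)
    have : 0 ≤ ηP * R ^ 8 := by positivity
    linarith
  · refine le_of_mul_le_mul_left (a := R ^ 3) ?_ (by positivity)
    have e : R ^ 3 * (960 * (ηP * (100 * R ^ 2) ^ 4)) = 96 * 10 ^ 9 * (ηP * R ^ 11) := by ring
    have := hp 11 (by norm_num)
    have : 0 ≤ ηP * R ^ 11 := by positivity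
    linarith
  · refine le_of_mul_le_mul_left (a := R ^ 3) ?_ (by positivity)
    have e : R ^ 3 * (hh + 5200 * (ηP * (100 * R ^ 2) ^ 5) + 39 * ((100 * R ^ 2) ^ 2 *
      ((24 * ηP + σΓ) * (1 + 7 * (3 * (100 * R ^ 2) ^ 2))))) =
      hh * R ^ 3 + 52 * 10 ^ 12 * (ηP * R ^ 13) +
        39 * 10 ^ 4 * (24 * (ηP * R ^ 7) + σΓ * R ^ 7) +
        39 * 10 ^ 4 * (21 * 10 ^ 4) * (24 * (ηP * R ^ 11) + σΓ * R ^ 11) := by ring
    rw [e]
    have a1 := hp 13 (by norm_num)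
    have a2' := hp 7 (by norm_num)
    have a3 := hp 11 (by norm_num)
    have a4 := hq 7 (by norm_num)
    have a5 := hq 11 (by norm_num)
    have b1 : 0 ≤ ηP * R ^ 13 := by positivity
    have b2 : 0 ≤ ηP * R ^ 7 := by positivity
    have b3 : 0 ≤ ηP * R ^ 11 := by positivity
    have b4 : 0 ≤ σΓ * R ^ 7 := by positivity
    have b5 : 0 ≤ σΓ * R ^ 11 := by positivity
    linarith
  · refine le_of_mul_le_mul_left (a := R) ?_ R0
    have e : R * (80 * (ηP * (100 * R ^ 2) ^ 2)) = 8 * 10 ^ 5 * (ηP * R ^ 5) := by ring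
    have := hp 5 (by norm_num)
    have : 0 ≤ ηP * R ^ 5 := by positivity
    linarith

/-- **drift of a line near the model quadric** -/
theorem drift_le {κ y rh hh : ℝ} {M : Ln4} (hrh : 0 < rh)
    (h : ∀ z, y ≤ z → z ≤ y + rh → |ht κ z (M.pos z 1) (M.pos z 2) (M.pos z 0)| ≤ hh) :
    |drW κ M| ≤ 8 * hh / rh ^ 2 := by
  have h0 := h y le_rfl (by linarith)
  have h1 := h (y + rh / 2) (by linarith) (by linarith)
  have h2 := h (y + rh) (by linarith) le_rfl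
  have e : drW κ M * rh ^ 2 = 2 * (2 * ht κ (y + rh / 2) (M.pos (y + rh / 2) 1)
      (M.pos (y + rh / 2) 2) (M.pos (y + rh / 2) 0) -
      ht κ y (M.pos y 1) (M.pos y 2) (M.pos y 0) -
      ht κ (y + rh) (M.pos (y + rh) 1) (M.pos (y + rh) 2) (M.pos (y + rh) 0)) := by
    simp only [drW, ht, Ln4.pos]; ring
  rw [le_div_iff₀ (by positivity)]
  have e2 : |drW κ M| * rh ^ 2 = |drW κ M * rh ^ 2| := by
    rw [abs_mul, abs_of_nonneg (sq_nonneg rh)]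
  rw [e2, e]
  have two : |(2 : ℝ)| ≤ 2 := by norm_num
  refine (m2 two (s2 (s2 (m2 two h1) h0) h2)).trans (le_of_eq (by ring))

end Crest.Agent.R136.Clw768
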