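import Crest.Agent.R136.Thn1_768
import Crest.Agent.R136.KapP_335

/-!
# R136 (S0187), U6 thin side (helper768), part 2: one sheet in the basis of a (possibly other) sheet

`Hat F c z0 ρ N R H β0 β1 Γ` : coefficients of `(N, R, H)` in the basis `F`, heights `z0 + ρ ζ`, unit
`c`.  Laws of `D3`, `Ω = cr N R`, `P4`.  `bs` = basis of a sheet of 102's dictionary along its line.
-/

set_option autoImplicit false
set_option linter.unusedVariables false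

namespace Crest.Agent.R136.Thn768

open Crest.Agent.R136.Sh605 Crest.Agent.R136.Tl102

theorem QF.ext' {G G' : QF} (h1 : G.yy = G'.yy) (h2 : G.yu = G'.yu) (h3 : G.yv = G'.yv)
    (h4 : G.uu = G'.uu) (h5 : G.uv = G'.uv) (h6 : G.vv = G'.vv) : G = G' := by
  cases G; cases G'; simp_all

/-- coefficients in a basis -/
structure Hat (F : Fin 3 → V3) (c z0 ρ : ℝ) (N R : V3) (H : QF) (β0 β1 : V3) (Γ : QF) : Prop where
  h0 : dtf F (N + z0 • R) = c • β0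
  h1 : ρ • dtf F R = c • β1
  h2 : pull F H = Γ.smul c

theorem dtf_add (F : Fin 3 → V3) (x y : V3) : dtf F (x + y) = dtf F x + dtf F y := by
  ext k; simp only [dtf, dt, Pi.add_apply]; ring

theorem dtf_smul (F : Fin 3 → V3) (c : ℝ) (x : V3) : dtf F (c • x) = c • dtf F x := by
  ext k; simp only [dtf, dt, Pi.smul_apply, smul_eq_mul]; ring

theorem cr_smul (a b : ℝ) (x y : V3) : cr (a • x) (b • y) = (a * b) • cr x y := by
  ext i
  fin_cases i <;> simp only [cr, Pi.smul_apply, smul_eq_mul, Matrix.cons_val, Fin.zero_eta,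
    Fin.mk_one, Fin.reduceFinMk] <;> ring

theorem cmb_smul (F : Fin 3 → V3) (a : ℝ) (x : V3) : cmb F (a • x) = a • cmb F x := by
  ext i; simp only [cmb, Pi.smul_apply, smul_eq_mul]; ring

theorem smul_ev (a : ℝ) (G : QF) (x : V3) : (G.smul a).ev x = a * G.ev x := by
  simp only [QF.ev, QF.smul]; ring

theorem smul_pol (a : ℝ) (G : QF) (x y : V3) : (G.smul a).pol x y = a * G.pol x y := by
  simp only [QF.pol, QF.smul]; ring

theorem P4_smul (a b c : ℝ) (G : QF) (x y : V3) :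
    P4 (G.smul a) (b • x) (c • y) = a ^ 2 * b * c * P4 G x y := by
  simp only [P4, QF.smul, Pi.smul_apply, smul_eq_mul]; ring

theorem Fq_hat (F : Fin 3 → V3) (N R : V3) (H : QF) (z0 ρ ζ : ℝ) (x : V3) :
    Fq N R H (z0 + ρ * ζ) (cmb F x) = Fq (dtf F (N + z0 • R)) (ρ • dtf F R) (pull F H) ζ x := by
  unfold Fq
  rw [pull_ev]
  congr 1
  simp only [dt, bz, cmb, dtf, Pi.add_apply, Pi.smul_apply, smul_eq_mul]
  ring

/-- from the functional identity to the coefficients -/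
theorem Hat.of {F : Fin 3 → V3} {c z0 ρ : ℝ} {N R : V3} {H : QF} {β0 β1 : V3} {Γ : QF}
    (h : ∀ ζ x, Fq N R H (z0 + ρ * ζ) (cmb F x) = c * Fq β0 β1 Γ ζ x) :
    Hat F c z0 ρ N R H β0 β1 Γ := by
  have h' : ∀ ζ x, Fq (dtf F (N + z0 • R)) (ρ • dtf F R) (pull F H) ζ x =
      Fq (c • β0) (c • β1) (Γ.smul c) ζ x := by
    intro ζ x
    rw [← Fq_hat, h, ← Fq_smul]
    rfl
  obtain ⟨e1, e2, e3⟩ := KapP335.Fq_inj h'
  exact ⟨e1, e2, e3⟩

section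

variable {F : Fin 3 → V3} {c z0 ρ : ℝ} {N R : V3} {H : QF} {β0 β1 : V3} {Γ : QF}

/-- law of `Ω` -/
theorem Hat.Ω (h : Hat F c z0 ρ N R H β0 β1 Γ) :
    (dtm F * ρ) • cr N R = (c ^ 2) • cmb F (cr β0 β1) := by
  have e1 := cr_dtf F (N + z0 • R) R
  rw [cr_add_smul] at e1
  have e2 : cr (dtf F (N + z0 • R)) (ρ • dtf F R) = ρ • cr (dtf F (N + z0 • R)) (dtf F R) := by
    have := cr_smul 1 ρ (dtf F (N + z0 • R)) (dtf F R)
    rwa [one_smul, one_mul] at this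
  have e3 : cmb F (cr (dtf F (N + z0 • R)) (ρ • dtf F R)) = (ρ * dtm F) • cr N R := by
    rw [e2, cmb_smul, e1, smul_smul]
  rw [h.h0, h.h1, cr_smul, cmb_smul] at e3
  rw [mul_comm (dtm F), ← e3, sq]

/-- law of `D3` -/
theorem Hat.D (h : Hat F c z0 ρ N R H β0 β1 Γ) :
    dtm F ^ 2 * ρ ^ 2 * D3 N R H = c ^ 5 * D3 β0 β1 Γ := by
  have e1 : (dtm F * ρ) ^ 2 * H.ev (cr N R) = H.ev ((dtm F * ρ) • cr N R) := (ev_smul _ _ _).symm
  have e2 : H.ev ((dtm F * ρ) • cr N R) = (c ^ 2) ^ 2 * (Γ.smul c).ev (cr β0 β1) := by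
    rw [h.Ω, ev_smul, ← pull_ev, h.h2]
  unfold D3
  rw [smul_ev] at e2
  rw [show dtm F ^ 2 * ρ ^ 2 = (dtm F * ρ) ^ 2 by ring, e1, e2]
  ring

/-- gradient at the height `z0 + ρ ζ` -/
theorem Hat.g (h : Hat F c z0 ρ N R H β0 β1 Γ) (ζ : ℝ) :
    dtf F (N + (z0 + ρ * ζ) • R) = c • (β0 + ζ • β1) := by
  have e : N + (z0 + ρ * ζ) • R = (N + z0 • R) + ζ • (ρ • R) := by
    rw [add_smul, add_assoc, smul_smul, mul_comm ζ ρ]
  rw [e, dtf_add, dtf_smul, dtf_smul, h.h0, h.h1, smul_add, smul_comm ζ c]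

/-- law of `P4` -/
theorem Hat.P (h : Hat F c z0 ρ N R H β0 β1 Γ) (ζ : ℝ) :
    dtm F ^ 2 * P4 H (N + (z0 + ρ * ζ) • R) (N + (z0 + ρ * ζ) • R) =
      c ^ 4 * P4 Γ (β0 + ζ • β1) (β0 + ζ • β1) := by
  rw [← P4_pull, h.g, h.h2, P4_smul]
  ring

/-- bilinear form on two vectors -/
theorem Hat.pol (h : Hat F c z0 ρ N R H β0 β1 Γ) (x y : V3) :
    H.pol (cmb F x) (cmb F y) = c * Γ.pol x y := by
  rw [← pull_pol, h.h2, smul_pol]

theorem Hat.ev (h : Hat F c z0 ρ N R H β0 β1 Γ) (x : V3) :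
    H.ev (cmb F x) = c * Γ.ev x := by
  rw [← pull_ev, h.h2, smul_ev]

theorem Hat.dg (h : Hat F c z0 ρ N R H β0 β1 Γ) (ζ : ℝ) (x : V3) :
    dt (N + (z0 + ρ * ζ) • R) (cmb F x) = c * dt (β0 + ζ • β1) x := by
  rw [dt_cmb, h.g]
  simp only [dt, Pi.smul_apply, smul_eq_mul]
  ring

theorem Hat.dR (h : Hat F c z0 ρ N R H β0 β1 Γ) (x : V3) :
    ρ * dt R (cmb F x) = c * dt β1 x := by
  have e : ρ * dt R (cmb F x) = dt (ρ • dtf F R) x := by
    rw [dt_cmb]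
    simp only [dt, Pi.smul_apply, smul_eq_mul]
    ring
  rw [e, h.h1]
  simp only [dt, Pi.smul_apply, smul_eq_mul]
  ring

end

/-! ### the basis of a sheet -/

/-- `κ w₀ e₀`, `E₁`, `E₂` -/
noncomputable def bs (e : Fin 3 → V3) (w : V3) (b0 : V3) (κ : ℝ) : Fin 3 → V3 :=
  ![(κ * w 0) • e 0, w 1 • e 1 - (b0 1 / b0 0 * w 0) • e 0, w 2 • e 2 - (b0 2 / b0 0 * w 0) • e 0]

theorem cmb_bs (e : Fin 3 → V3) (w b0 : V3) (κ y u v : ℝ) :
    cmb (bs e w b0 κ) ![y, u, v] = cmb (fr e w) (unsh b0 (κ * y) u v) := by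
  ext i
  simp only [cmb, bs, fr, unsh, Matrix.cons_val, Pi.sub_apply, Pi.smul_apply, smul_eq_mul]
  ring

theorem dtm_bs (e : Fin 3 → V3) (w b0 : V3) (κ : ℝ) :
    dtm (bs e w b0 κ) = κ * w 0 * w 1 * w 2 * dtm e := by
  simp only [dtm, bs, dt, cr, Matrix.cons_val, Pi.sub_apply, Pi.smul_apply, smul_eq_mul]
  ring

theorem dtm_ortho {e : Fin 3 → V3} (he : Ortho e) : dtm e ^ 2 = 1 := by
  have h : ∀ i j, dt (e i) (e j) = if i = j then 1 else 0 := he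
  have e1 : dtm e ^ 2 = dt (e 0) (e 0) * dt (e 1) (e 1) * dt (e 2) (e 2) +
      2 * (dt (e 0) (e 1) * dt (e 1) (e 2) * dt (e 0) (e 2)) -
      dt (e 0) (e 0) * dt (e 1) (e 2) ^ 2 - dt (e 1) (e 1) * dt (e 0) (e 2) ^ 2 -
      dt (e 2) (e 2) * dt (e 0) (e 1) ^ 2 := by
    simp only [dtm, dt, cr, Matrix.cons_val]
    ring
  have h00 : dt (e 0) (e 0) = 1 := by simpa using h 0 0
  have h11 : dt (e 1) (e 1) = 1 := by simpa using h 1 1
  have h22 : dt (e 2) (e 2) = 1 := by simpa using h 2 2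
  have h01 : dt (e 0) (e 1) = 0 := by simpa using h 0 1
  have h12 : dt (e 1) (e 2) = 0 := by simpa using h 1 2
  have h02 : dt (e 0) (e 2) = 0 := by simpa using h 0 2
  rw [e1, h00, h11, h22, h01, h12, h02]
  norm_num

/-- second function in the basis of the sheet, from 102's expansions -/
theorem hat_of_exp {q : ℝ → V3 → ℝ} {e : Fin 3 → V3} {w : V3} {T : Ln4} {z0 ρ : ℝ} {b0 b1 : V3}
    {G : QF} (h : IsExp q e w T z0 ρ b0 b1 G) {N R : V3} {H : QF} (hT : Tay q T N R H)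
    {c0 : V3} (hc : c0 0 ≠ 0) {κ : ℝ} (hκ : κ ≠ 0) :
    ∀ ζ x, Fq N R H (z0 + ρ * ζ) (cmb (bs e w c0 κ) x) =
      w 0 * Fq b0 b1 G ζ (unsh c0 (κ * x 0) (x 1) (x 2)) := by
  intro ζ x
  have hx : x = ![x 0, x 1, x 2] := by
    ext i; fin_cases i <;> rfl
  have e1 := h ζ (unsh c0 (κ * x 0) (x 1) (x 2))
  rw [← cmb_bs, ← hx] at e1
  have e2 := hT (z0 + ρ * ζ) (cmb (bs e w c0 κ) x)
  linarith

/-- **own coefficients** -/
theorem own_hat {q : ℝ → V3 → ℝ} {e : Fin 3 → V3} {w : V3} {T : Ln4} {z0 ρ : ℝ} {b0 b1 : V3}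
    {G : QF} (h : IsExp q e w T z0 ρ b0 b1 G) {N R : V3} {H : QF} (hT : Tay q T N R H)
    (hb : b0 0 ≠ 0) {κ : ℝ} (hκ : κ ≠ 0) :
    Hat (bs e w b0 κ) (w 0 * κ) z0 ρ N R H (shB0 b0) (scB1 κ b0 b1) (scG κ b0 G) := by
  refine Hat.of fun ζ x => ?_
  have hx : x = ![x 0, x 1, x 2] := by
    ext i; fin_cases i <;> rfl
  rw [hat_of_exp h hT hb hκ, Fq_scaled hb hκ, ← hx]
  ring

theorem exists_tay {q : ℝ → V3 → ℝ} (hq : IsQ q) (T : Ln4) : ∃ N R H, Tay q T N R H := by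
  obtain ⟨b0, b1, G, h⟩ := expand hq T ![![1, 0, 0], ![0, 1, 0], ![0, 0, 1]] 0 1
  refine ⟨b0, b1, G, fun z X => ?_⟩
  have := h z X
  rw [zero_add, one_mul] at this
  have e : cmb ![![1, 0, 0], ![0, 1, 0], ![0, 0, 1]] X = X := by
    ext i; fin_cases i <;> simp [cmb]
  rwa [e] at this

end Crest.Agent.R136.Thn768
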