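import Crest.Agent.R136.Wcn2_464
import Crest.Agent.R136.ThnD_768
import Crest.Agent.R136.Thn2_768

/-!
# R136 (S0187), thin branch (helper464): physical slopes in the container, part 3

* `tay_gr` : gradient along a line in the frame `f` = gradient of `hatQ` divided by the units;
* `gr_flg` : the gradient of `hatQ` from the flags of the sheet (321's `flg`);
* `slope_frm` : 768's `Frm` ⊢ `|2κ v̂ 1| WB ≤ WA`, `|2κ x̂ 1| WY ≤ WA`;
* `slopes` : sequence form (`hsl` of `qw_of`).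
-/

set_option autoImplicit false
set_option linter.unusedVariables false

open Finset Filter Topology

namespace Crest.Agent.R136.Wcn464

open Crest.Agent.R138
open Crest.Agent.R138.Ex926 (Base U)
open Crest.Agent.R138.Dp76 (dpow_pos dpow_add dpow_le dpow_le_one)
open Crest.Agent.R138.ArgM163 (ev_const log_dpow)
open Crest.Agent.R138.Mk163 (zc zl rho alive)
open Crest.Agent.R138.MkRef627 (lc kc)
open Crest.Agent.R136.MkA627 Crest.Agent.R136.K4
open Crest.Agent.R136.NetW191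
open Crest.Agent.R136.Sh605
open Crest.Agent.R136.PrW464 (WData)
open Crest.Agent.R136.GeoN778
open Crest.Agent.R136.Wit321
open Crest.Agent.R136.GeoW778 (qS TrueW)
open Crest.Agent.R136.Thn768 (Tay cr dtf dtm Frm cr_dtf cr_add_smul exists_tay)
open Crest.Agent.R136.Tl102 (QF Fq bz cmb)

/-- central difference -/
theorem Qd.ev_cd (Q : Qd) (z : ℝ) (x y : V3) : Q.ev z (x + y) - Q.ev z (x - y) =
    2 * (Q.gr z x 0 * y 0 + Q.gr z x 1 * y 1 + Q.gr z x 2 * y 2) := by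
  simp only [Qd.ev, Qd.gr, Fin.sum_univ_three, Pi.add_apply, Pi.sub_apply]
  ring

/-- **gradient along a line** -/
theorem tay_gr {f : Fin 3 → V3} (hf : Ortho f) (c : Ln4) {u : Un} (hu : u.Ok) {Q : Qd} {T : Ln4}
    {N R : V3} {H : QF} (hT : Tay Q.ev T N R H) (z : ℝ) (k : Fin 3) :
    dt (N + z • R) (f k) =
      (hatQ f c u Q).gr (u.zh z) ((ul u (rl f c T)).pos (u.zh z)) k / u.W k := by
  have hW := (hu.W0 k).ne'
  have h1 := hT z (f k)
  have h2 := hT z (-(f k))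
  have e1 : Q.ev z (T.pos z + f k) - Q.ev z (T.pos z + -(f k)) = 2 * dt (N + z • R) (f k) := by
    rw [h1, h2]
    simp only [Fq, bz, dt, QF.ev, Pi.add_apply, Pi.smul_apply, Pi.neg_apply, smul_eq_mul]
    ring
  set y : V3 := fun j => if j = k then 1 / u.W k else 0 with hy
  have e2 : ∀ s : ℝ, u.xh (phi f c z (T.pos z + s • f k)) =
      (ul u (rl f c T)).pos (u.zh z) + s • y := by
    intro s
    rw [ul_pos hu]
    funext j
    have ho := hf j k
    simp only [Un.xh, phi, rl_pos, Pi.add_apply, Pi.smul_apply, smul_eq_mul, hy]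
    have e3 : dt (f j) (T.pos z + s • f k - c.pos z) = dt (f j) (T.pos z - c.pos z) +
        s * dt (f j) (f k) := by
      simp only [dt, Pi.add_apply, Pi.sub_apply, Pi.smul_apply, smul_eq_mul]; ring
    rw [e3, ho]
    have hWj := (hu.W0 j).ne'
    split_ifs with h
    · subst h; field_simp
    · simp
  have e3 := hatQ_ev hf c hu Q z (T.pos z + f k)
  have e4 := hatQ_ev hf c hu Q z (T.pos z + -(f k))
  have e5 := e2 1
  have e6 := e2 (-1)
  rw [one_smul, one_smul] at e5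
  rw [neg_one_smul, neg_one_smul, ← sub_eq_add_neg ((ul u (rl f c T)).pos (u.zh z))] at e6
  rw [e5] at e3
  rw [e6] at e4
  rw [← e3, ← e4, Qd.ev_cd] at e1
  have e7 : (hatQ f c u Q).gr (u.zh z) ((ul u (rl f c T)).pos (u.zh z)) 0 * y 0 +
      (hatQ f c u Q).gr (u.zh z) ((ul u (rl f c T)).pos (u.zh z)) 1 * y 1 +
      (hatQ f c u Q).gr (u.zh z) ((ul u (rl f c T)).pos (u.zh z)) 2 * y 2 =
      (hatQ f c u Q).gr (u.zh z) ((ul u (rl f c T)).pos (u.zh z)) k / u.W k := by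
    fin_cases k <;> simp [hy] <;> ring
  rw [e7] at e1
  linarith

/-- unit vector -/
def ek (k : Fin 3) : V3 := fun j => if j = k then 1 else 0

theorem Qd.ev_ek (Q : Qd) (z : ℝ) (x : V3) (k : Fin 3) :
    Q.ev z (x + ek k) - Q.ev z (x - ek k) = 2 * Q.gr z x k := by
  rw [Qd.ev_cd]
  fin_cases k <;> simp [ek]

theorem ek_le (k j : Fin 3) : |ek k j| ≤ 1 := by
  unfold ek; split_ifs <;> simp

/-- the sheet from its flags -/
theorem ev_of_flg {P : Pj} {h : Qd} {κ σ : ℝ} {i : FW} (hσ : σ ≠ 0)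
    (hi : i.G = flg κ σ (pullQ P.inv h)) (hm : (pullQ P.inv h).b 0 ≠ 0) {z : ℝ} {x : V3}
    (hT : P.T x ≠ 0) :
    h.ev z x = (pullQ P.inv h).b 0 * (pullQ P (qSd κ σ i)).ev z x := by
  have h1 := ev_pull_inv P h (z := z) hT
  have h2 := pullQ_ev P (qSd κ σ i) (z := z) hT
  have h3 := ev_flg hσ hm (κ := κ) (P.ht z x) (P.pt x)
  rw [h2, qSd_ev]
  have e : qS κ σ i (P.ht z x) (P.pt x) = NetW191.ht κ (P.ht z x) (P.pt x 1) (P.pt x 2) (P.pt x 0) -
      σ * evY (flg κ σ (pullQ P.inv h)) (P.ht z x) (P.pt x 1) (P.pt x 2) (P.pt x 0) := by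
    simp only [qS, hi]
  rw [e]
  have h4 : (pullQ P.inv h).b 0 * (P.T x ^ 2 * (NetW191.ht κ (P.ht z x) (P.pt x 1) (P.pt x 2)
      (P.pt x 0) - σ * evY (flg κ σ (pullQ P.inv h)) (P.ht z x) (P.pt x 1) (P.pt x 2)
        (P.pt x 0))) = P.T x ^ 2 * (pullQ P.inv h).ev (P.ht z x) (P.pt x) := by
    rw [h3]; ring
  rw [h4, h1]
  field_simp

/-- **gradient of a sheet from its flags** -/
theorem gr_flg {P : Pj} {η R : ℝ} (hP : P.Sm η) {h : Qd} {κ σ : ℝ} {i : FW} (hσ : σ ≠ 0)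
    (hi : i.G = flg κ σ (pullQ P.inv h)) (hm : (pullQ P.inv h).b 0 ≠ 0)
    (hη : 4 * (η * (R + 1)) ≤ 1) (z : ℝ) {x : V3} (hx : ∀ k, |x k| ≤ R) (k : Fin 3) :
    h.gr z x k = (pullQ P.inv h).b 0 * (pullQ P (qSd κ σ i)).gr z x k := by
  have hp : ∀ j, |(x + ek k) j| ≤ R + 1 := fun j => a2 (hx j) (ek_le k j)
  have hq : ∀ j, |(x - ek k) j| ≤ R + 1 := fun j => s2 (hx j) (ek_le k j)
  have t1 : P.T (x + ek k) ≠ 0 := by
    have := (Pj.T_half hP hp hη).1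
    intro h0; rw [h0] at this; linarith
  have t2 : P.T (x - ek k) ≠ 0 := by
    have := (Pj.T_half hP hq hη).1
    intro h0; rw [h0] at this; linarith
  have e1 := ev_of_flg hσ hi hm (z := z) t1
  have e2 := ev_of_flg hσ hi hm (z := z) t2
  have e3 := Qd.ev_ek h z x k
  have e4 := Qd.ev_ek (pullQ P (qSd κ σ i)) z x k
  rw [e1, e2, ← mul_sub, e4] at e3
  linarith

/-- **gradient close to the model** -/
theorem gr_near {P : Pj} {η R κ σ Γ : ℝ} (hP : P.Sm η) (hη1 : η ≤ 1) {h : Qd} {i : FW}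
    (hκ : |κ| ≤ 1) (hσ : 0 < σ) (hG : ∀ k, |i.G k| ≤ Γ) (hs : σ * Γ ≤ 1)
    (hi : i.G = flg κ σ (pullQ P.inv h)) (hm : (pullQ P.inv h).b 0 ≠ 0)
    (hη : 4 * (η * (R + 1)) ≤ 1) {z : ℝ} (hz : |z| ≤ R) {x : V3} (hx : ∀ k, |x k| ≤ R) :
    ∃ e0 e1 e2 : ℝ, |e0| ≤ (24 * η + σ * Γ) * (1 + 7 * R) ∧
      |e1| ≤ (24 * η + σ * Γ) * (1 + 7 * R) ∧ |e2| ≤ (24 * η + σ * Γ) * (1 + 7 * R) ∧
      h.gr z x 0 = (pullQ P.inv h).b 0 * (1 + e0) ∧
      h.gr z x 1 = (pullQ P.inv h).b 0 * (-(2 * κ * x 1) + e1) ∧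
      h.gr z x 2 = (pullQ P.inv h).b 0 * (-z + e2) := by
  obtain ⟨n0, n1, n2⟩ := (pull_cl (κ := κ) hP hη1 hκ hσ.le hG hs).nearG hz hx le_rfl
  refine ⟨_, _, _, n0, n1, n2, ?_, ?_, ?_⟩
  · rw [gr_flg hP hσ.ne' hi hm hη z hx]; ring
  · rw [gr_flg hP hσ.ne' hi hm hη z hx]; ring
  · rw [gr_flg hP hσ.ne' hi hm hη z hx]; ring

/-- the arithmetic of the slopes: `a`, `r` = gradient and its derivative in the frame -/
theorem slope_num {m W0 W1 W2 Hh X V ζ e : ℝ} {e0 e1 e2 d0 d1 d2 : ℝ} (hm : m ≠ 0)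
    (hW0 : 0 < W0) (hW2 : 0 < W2) (h02 : W0 ≤ W2) (h21 : W2 ≤ W1) (hH : 0 < Hh) (he0 : 0 ≤ e)
    (hζ : |ζ| ≤ 1) (he : 100 * e ≤ 1) (heX : 100 * (|X| * e) ≤ 1)
    (b0 : |e0| ≤ e) (b1 : |e1| ≤ e) (b2 : |e2| ≤ e) (c0 : |d0| ≤ e) (c1 : |d1| ≤ e)
    (c2 : |d2| ≤ e) {a r : V3}
    (ha0 : a 0 = m * (1 + e0) / W0) (ha1 : a 1 = m * (-X + e1) / W1)
    (ha2 : a 2 = m * (-ζ + e2) / W2) (hr0 : r 0 = m * (d0 - e0) / (Hh * W0))
    (hr1 : r 1 = m * (-V + (d1 - e1)) / (Hh * W1))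
    (hr2 : r 2 = m * (-1 + (d2 - e2)) / (Hh * W2))
    (f1 : |a 1| ≤ |a 0| / 10) (f2 : |cr a r 2| ≤ |cr a r 1| / 10) :
    |X| * W0 ≤ W1 ∧ |V| * W2 ≤ W1 := by
  have hW1 : 0 < W1 := by linarith
  have hmp : 0 < |m| := abs_pos.2 hm
  have B0 := abs_le.1 b0
  have B1 := abs_le.1 b1
  have B2 := abs_le.1 b2
  have C0 := abs_le.1 c0
  have C1 := abs_le.1 c1
  have C2 := abs_le.1 c2
  constructor
  · rw [ha1, ha0, abs_div, abs_div, abs_mul, abs_mul, abs_of_pos hW1, abs_of_pos hW0,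
      div_div, div_le_div_iff₀ hW1 (by positivity)] at f1
    have f3 : |-X + e1| * W0 * 10 ≤ |1 + e0| * W1 := by
      have e : |m| * (|-X + e1| * W0 * 10) ≤ |m| * (|1 + e0| * W1) := by linarith
      exact le_of_mul_le_mul_left e hmp
    have g1 : |X| - e ≤ |-X + e1| := by
      have := abs_sub_abs_le_abs_sub X e1
      rw [show -X + e1 = -(X - e1) by ring, abs_neg]
      linarith
    have g2 : |1 + e0| ≤ 1 + e := by
      rw [abs_le]; constructor <;> linarith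
    have g3 := mul_le_mul_of_nonneg_right g1 hW0.le
    have g4 := mul_le_mul_of_nonneg_right g2 hW1.le
    have g5 : e * W0 ≤ e * W1 := mul_le_mul_of_nonneg_left (by linarith) he0
    nlinarith
  · have u1 : cr a r 2 = m ^ 2 / (Hh * (W0 * W1)) *
        ((1 + e0) * (-V + (d1 - e1)) - (-X + e1) * (d0 - e0)) := by
      simp only [cr, Matrix.cons_val]
      rw [ha0, ha1, hr0, hr1]
      field_simp
    have u2 : cr a r 1 = m ^ 2 / (Hh * (W0 * W2)) *
        ((-ζ + e2) * (d0 - e0) - (1 + e0) * (-1 + (d2 - e2))) := by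
      simp only [cr, Matrix.cons_val]
      rw [ha0, ha2, hr0, hr2]
      field_simp
    rw [u1, u2, abs_mul, abs_mul, abs_of_pos (by positivity : 0 < m ^ 2 / (Hh * (W0 * W1))),
      abs_of_pos (by positivity : 0 < m ^ 2 / (Hh * (W0 * W2)))] at f2
    set y1 := (1 + e0) * (-V + (d1 - e1)) - (-X + e1) * (d0 - e0) with hy1
    set y2 := (-ζ + e2) * (d0 - e0) - (1 + e0) * (-1 + (d2 - e2)) with hy2
    have f3 : |y1| * W2 * 10 ≤ |y2| * W1 := by
      have k1 : m ^ 2 / (Hh * (W0 * W1)) * |y1| * (Hh * (W0 * W1) * W2 * 10) =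
          m ^ 2 * (|y1| * W2 * 10) := by field_simp
      have k2 : m ^ 2 / (Hh * (W0 * W2)) * |y2| / 10 * (Hh * (W0 * W1) * W2 * 10) =
          m ^ 2 * (|y2| * W1) := by field_simp
      have k3 := mul_le_mul_of_nonneg_right f2
        (show 0 ≤ Hh * (W0 * W1) * W2 * 10 by positivity)
      rw [k1, k2] at k3
      exact le_of_mul_le_mul_left k3 (by positivity)
    have D0 : |d0 - e0| ≤ 2 * e := (s2 c0 b0).trans (by linarith)
    have D1 : |d1 - e1| ≤ 2 * e := (s2 c1 b1).trans (by linarith)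
    have D2 : |d2 - e2| ≤ 2 * e := (s2 c2 b2).trans (by linarith)
    have he2 : e * e ≤ e / 100 := by
      have := mul_le_mul_of_nonneg_left he he0
      linarith
    have g2 : |y2| ≤ 2 := by
      have q1 : |-ζ + e2| ≤ 1 + e := (abs_add_le _ _).trans (by rw [abs_neg]; linarith)
      have q2 : |1 + e0| ≤ 1 + e := by rw [abs_le]; constructor <;> linarith
      have q3 : |-1 + (d2 - e2)| ≤ 1 + 2 * e := (abs_add_le _ _).trans (by
        rw [abs_neg, abs_one]; linarith)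
      refine (s2 (m2 q1 D0) (m2 q2 q3)).trans ?_
      have q4 : (1 + e) * (2 * e) + (1 + e) * (1 + 2 * e) = 1 + 5 * e + 4 * (e * e) := by ring
      rw [q4]
      linarith
    have g1 : |V| / 2 - 1 / 10 ≤ |y1| := by
      have q1 : |(-X + e1) * (d0 - e0)| ≤ (|X| + e) * (2 * e) :=
        m2 ((abs_add_le _ _).trans (by rw [abs_neg]; linarith)) D0
      have q2 : (1 - e) * (|V| - 2 * e) ≤ |(1 + e0) * (-V + (d1 - e1))| := by
        rw [abs_mul]
        have r1 : 1 - e ≤ |1 + e0| := le_trans (by linarith) (le_abs_self _)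
        have r2 : |V| - 2 * e ≤ |-V + (d1 - e1)| := by
          have := abs_sub_abs_le_abs_sub V (d1 - e1)
          rw [show -V + (d1 - e1) = -(V - (d1 - e1)) by ring, abs_neg]
          linarith
        have r3 : 0 ≤ |-V + (d1 - e1)| := abs_nonneg _
        have r4 : (1 - e) * (|V| - 2 * e) ≤ (1 - e) * |-V + (d1 - e1)| :=
          mul_le_mul_of_nonneg_left r2 (by linarith)
        exact r4.trans (mul_le_mul_of_nonneg_right r1 r3)
      have q3 := abs_sub_abs_le_abs_sub ((1 + e0) * (-V + (d1 - e1))) ((-X + e1) * (d0 - e0))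
      rw [← hy1] at q3
      have q4 := abs_nonneg V
      have q5 : e * |V| ≤ |V| / 100 := by
        have := mul_le_mul_of_nonneg_right he q4
        linarith
      have q6 : (1 - e) * (|V| - 2 * e) = |V| - 2 * e - e * |V| + 2 * (e * e) := by ring
      have q7 : (|X| + e) * (2 * e) = 2 * (|X| * e) + 2 * (e * e) := by ring
      rw [q6] at q2
      rw [q7] at q1
      have q8 := mul_nonneg he0 he0
      linarith
    have g3 := mul_le_mul_of_nonneg_right g1 hW2.le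
    have g4 := mul_le_mul_of_nonneg_right g2 hW1.le
    linarith

theorem dt_cmb_f {f : Fin 3 → V3} (hf : Ortho f) (y : V3) (j : Fin 3) : dt (cmb f y) (f j) = y j := by
  have h0 := hf 0 j
  have h1 := hf 1 j
  have h2 := hf 2 j
  have e : dt (cmb f y) (f j) = y 0 * dt (f 0) (f j) + y 1 * dt (f 1) (f j) +
      y 2 * dt (f 2) (f j) := by
    simp only [cmb, dt]; ring
  rw [e, h0, h1, h2]
  fin_cases j <;> simp

/-- **768's `Frm` in the container** -/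
theorem slope_frm {S : Plk4} {T : Ln4} {z : ℝ} {f : Fin 3 → V3} (hf : Ortho f) (c : Ln4) {u : Un}
    (hu : u.Ok) (hfrm : Frm S T z f) {Q : Qd} (hQ : S.q = Q.ev) {P : Pj} {η κ σ Γ R : ℝ}
    (hP : P.Sm η) (hη1 : η ≤ 1) (hκ : |κ| ≤ 1) (hσ : 0 < σ) {i : FW} (hG : ∀ k, |i.G k| ≤ Γ)
    (hs : σ * Γ ≤ 1) (hi : i.G = flg κ σ (pullQ P.inv (hatQ f c u Q)))
    (hm : (pullQ P.inv (hatQ f c u Q)).b 0 ≠ 0) (hR : 1 ≤ R)
    (hp : ∀ k, |(ul u (rl f c T)).p k| ≤ R) (hv : ∀ k, |(ul u (rl f c T)).v k| ≤ R)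
    (hz : |u.zh z| ≤ 1) (hη : 4 * (η * (3 * R + 1)) ≤ 1)
    (he : 400 * (R * ((24 * η + σ * Γ) * (1 + 7 * (3 * R)))) ≤ 1) :
    |2 * κ * (ul u (rl f c T)).pos (u.zh z) 1| * u.WY ≤ u.WA ∧
      |2 * κ * (ul u (rl f c T)).v 1| * u.WB ≤ u.WA := by
  set t : Ln4 := ul u (rl f c T) with ht
  set ζ : ℝ := u.zh z with hζ
  obtain ⟨N, R', H, hT⟩ := exists_tay (by rw [hQ]; exact Q.isQ : IsQ S.q) T
  obtain ⟨f1, -, -, f4⟩ := hfrm N R' H hT
  rw [hQ] at hT
  have hH := hu.H0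
  have Γ0 : 0 ≤ Γ := (abs_nonneg _).trans (hG 0)
  have x1 : ∀ k, |t.pos ζ k| ≤ 2 * R := fun k => by
    have := a2 (hp k) (m2 hz (hv k))
    show |t.p k + ζ * t.v k| ≤ _
    linarith
  have x2 : ∀ k, |t.pos (ζ + 1) k| ≤ 3 * R := fun k => by
    have e : t.pos (ζ + 1) k = t.pos ζ k + t.v k := by simp only [Ln4.pos]; ring
    rw [e]
    have := a2 (x1 k) (hv k)
    linarith
  have z2 : |ζ + 1| ≤ 3 * R := by
    have := a2 hz (abs_one.le : |(1 : ℝ)| ≤ 1)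
    linarith
  obtain ⟨e0, e1, e2, b0, b1, b2, g0, g1, g2⟩ := gr_near (R := 3 * R) hP hη1 hκ hσ hG hs hi hm hη
    (z := ζ) (hz.trans (by linarith)) (x := t.pos ζ) (fun k => (x1 k).trans (by linarith))
  obtain ⟨d0, d1, d2, c0, c1, c2, k0, k1, k2⟩ := gr_near (R := 3 * R) hP hη1 hκ hσ hG hs hi hm hη
    (z := ζ + 1) z2 (x := t.pos (ζ + 1)) x2
  set m := (pullQ P.inv (hatQ f c u Q)).b 0 with hmd
  set e := (24 * η + σ * Γ) * (1 + 7 * (3 * R)) with hed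
  have he0 : 0 ≤ e := (abs_nonneg _).trans b0
  have hzz : u.zh (z + u.H) = ζ + 1 := by
    rw [hζ]; simp only [Un.zh]; field_simp; ring
  have A : ∀ k, dt (N + z • R') (f k) = (hatQ f c u Q).gr ζ (t.pos ζ) k / u.W k := fun k =>
    tay_gr hf c hu hT z k
  have A' : ∀ k, dt (N + (z + u.H) • R') (f k) =
      (hatQ f c u Q).gr (ζ + 1) (t.pos (ζ + 1)) k / u.W k := fun k => by
    have := tay_gr hf c hu hT (z + u.H) k
    rwa [hzz] at this
  have Rk : ∀ k, dt R' (f k) = ((hatQ f c u Q).gr (ζ + 1) (t.pos (ζ + 1)) k -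
      (hatQ f c u Q).gr ζ (t.pos ζ) k) / (u.H * u.W k) := fun k => by
    have hW := (hu.W0 k).ne'
    have e3 : u.H * dt R' (f k) = dt (N + (z + u.H) • R') (f k) - dt (N + z • R') (f k) := by
      simp only [dt, Pi.add_apply, Pi.smul_apply, smul_eq_mul]; ring
    rw [A, A'] at e3
    field_simp
    field_simp at e3
    linarith
  -- the cross product
  have hcr : ∀ j, cr (dtf f (N + z • R')) (dtf f R') j = dtm f * dt (cr N R') (f j) := by
    intro j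
    rw [← dt_cmb_f hf (cr (dtf f (N + z • R')) (dtf f R')) j, cr_dtf, cr_add_smul]
    simp only [dt, Pi.smul_apply, smul_eq_mul]; ring
  have hX : |2 * κ * t.pos ζ 1| ≤ 4 * R := by
    have := m2 (m2 (le_of_eq abs_two : |(2 : ℝ)| ≤ 2) hκ) (x1 1)
    linarith
  refine slope_num (W0 := u.WY) (W1 := u.WA) (W2 := u.WB) (Hh := u.H)
    (X := 2 * κ * t.pos ζ 1) (V := 2 * κ * t.v 1) (ζ := ζ) (e := e)
    (a := dtf f (N + z • R')) (r := dtf f R') hm hu.Y0 hu.B0 hu.YB hu.BA hH he0 hz ?_ ?_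
    b0 b1 b2 c0 c1 c2 ?_ ?_ ?_ ?_ ?_ ?_ f1 ?_
  · nlinarith
  · have := mul_le_mul_of_nonneg_right hX he0
    linarith
  · show dt (N + z • R') (f 0) = _
    rw [A 0, g0]; rfl
  · show dt (N + z • R') (f 1) = _
    rw [A 1, g1]; rfl
  · show dt (N + z • R') (f 2) = _
    rw [A 2, g2]; rfl
  · show dt R' (f 0) = _
    rw [Rk 0, g0, k0]
    show _ / (u.H * u.WY) = _
    congr 1; ring
  · show dt R' (f 1) = _
    rw [Rk 1, g1, k1]
    show _ / (u.H * u.WA) = _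
    congr 1
    simp only [Ln4.pos]; ring
  · show dt R' (f 2) = _
    rw [Rk 2, g2, k2]
    show _ / (u.H * u.WB) = _
    congr 1; ring
  · rw [hcr, hcr, abs_mul, abs_mul]
    have := mul_le_mul_of_nonneg_left f4 (abs_nonneg (dtm f))
    linarith

section seq

open Crest.Agent.R136.Top484 (Dat4)
open Crest.Agent.R136.Tlt51 (mk4 zx rh)
open Crest.Agent.R136.Fw650 (zhN flW flW_g)

variable {D : Dat4} {kp sg hz zs : ℕ → ℝ} {L : ℕ → ℕ → Ln4} {Mk : ℚ → ℕ → ℕ × ℤ → Fin 14 → ℝ}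
  {f : ℕ → Fin 3 → V3} {c : ℕ → Ln4} {u : ℕ → Un} {P : ℕ → Pj} {χ ν : ℝ}

/-- **the physical slopes in the container** (`hsl` of `qw_of`) -/
theorem slopes (kp1 : ∀ n, |kp n| ≤ 1) (sg0 : ∀ n, 0 < sg n)
    (sgs : ∀ M : ℝ, ∀ᶠ n in (U : Filter ℕ), sg n ≤ D.B.d n ^ M)
    (zb : ∀ᶠ n in (U : Filter ℕ), ∀ x ∈ D.I n, |zhN hz zs n x| ≤ 1)
    (hf : ∀ᶠ n in (U : Filter ℕ), Ortho (f n)) (hu : ∀ᶠ n in (U : Filter ℕ), (u n).Ok)
    (hz' : ∀ᶠ n in (U : Filter ℕ), ∀ z, (u n).zh z = hz n * z - zs n)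
    (hP : ∀ M : ℝ, ∀ᶠ n in (U : Filter ℕ), (P n).Sm (D.B.d n ^ M))
    (hL : ∀ᶠ n in (U : Filter ℕ), ∀ x ∈ D.I n,
      L n x.1 = (P n).line (ul (u n) (rl (f n) (c n) (D.L n x.1))))
    (hb : ∃ C : ℝ, ∀ᶠ n in (U : Filter ℕ), ∀ x ∈ D.I n, ∀ k,
      |(ul (u n) (rl (f n) (c n) (D.L n x.1))).p k| ≤ D.B.d n ^ (-C) ∧
        |(ul (u n) (rl (f n) (c n) (D.L n x.1))).v k| ≤ D.B.d n ^ (-C))
    (hfrm : ∀ᶠ n in (U : Filter ℕ), ∀ x ∈ D.I n, Frm (mk4 D n 0 x) (D.L n x.1) x.2 (f n))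
    (hMk : ∀ᶠ n in (U : Filter ℕ), ∀ x ∈ D.I n, ∃ Q : Qd, (mk4 D n 0 x).q = Q.ev ∧
      (pullQ (P n).inv (hatQ (f n) (c n) (u n) Q)).b 0 ≠ 0 ∧
      Mk 0 n (kc (D.lev n 0) (D.f n 0) x) =
        flg (kp n) (sg n) (pullQ (P n).inv (hatQ (f n) (c n) (u n) Q)))
    (hMb : ∃ C : ℝ, ∀ᶠ n in (U : Filter ℕ), ∀ x ∈ D.I n, ∀ k,
      |Mk 0 n (kc (D.lev n 0) (D.f n 0) x) k| ≤ D.B.d n ^ (-C)) (δ : ℝ) (hδ : 0 < δ) :
    ∀ᶠ n in (U : Filter ℕ), ∀ x ∈ D.I n,
      |2 * kp n * (flW kp sg hz zs L D.lev D.f Mk χ ν n x).g 1| * (u n).WB ≤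
        D.B.d n ^ (-δ) * (u n).WA ∧
      |2 * kp n * (flW kp sg hz zs L D.lev D.f Mk χ ν n x).g 2| * (u n).WY ≤
        D.B.d n ^ (-δ) * (u n).WA := by
  obtain ⟨C1, h1⟩ := hb
  obtain ⟨C2, h2⟩ := hMb
  set E : ℝ := max (max C1 C2) 1 with hE
  have d1 : C1 ≤ E := (le_max_left _ _).trans (le_max_left _ _)
  have d2 : C2 ≤ E := (le_max_right _ _).trans (le_max_left _ _)
  have d3 : 1 ≤ E := le_max_right _ _
  filter_upwards [h1, h2, zb, hf, hu, hz', hP (2 * E + 2), sgs (3 * E + 2), hL, hfrm, hMk,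
    ev_le D.B 220000 (show (0 : ℝ) < 2 by norm_num), ev_const D.B (C := 2) (by norm_num) hδ]
    with n h1 h2 zb hf hu hz' hP hsg hL hfrm hMk hc hd x hx
  obtain ⟨Q, hQ, hm, hG⟩ := hMk x hx
  set X : ℝ := D.B.d n ^ (-E) with hX
  have X1 : 1 ≤ X := Real.one_le_rpow_of_pos_of_le_one_of_nonpos (D.B.pos n) (D.B.lt n).le
    (by linarith)
  have hp : ∀ k, |(ul (u n) (rl (f n) (c n) (D.L n x.1))).p k| ≤ X := fun k =>
    (h1 x hx k).1.trans (dpow_le D.B n (by linarith))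
  have hv : ∀ k, |(ul (u n) (rl (f n) (c n) (D.L n x.1))).v k| ≤ X := fun k =>
    (h1 x hx k).2.trans (dpow_le D.B n (by linarith))
  set t : Ln4 := ul (u n) (rl (f n) (c n) (D.L n x.1)) with ht
  set η : ℝ := D.B.d n ^ (2 * E + 2) with hη
  have η0 : 0 < η := dpow_pos D.B n _
  have e2 : η * X ^ 2 = D.B.d n ^ (2 : ℝ) := by
    rw [hη, hX, sq, ← dpow_add, ← dpow_add]; congr 1; ring
  rw [Real.rpow_zero] at hc
  have e3 : 220000 * (η * X ^ 2) ≤ 1 := by rw [e2]; exact hc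
  have e4 : η * X ≤ η * X ^ 2 := by
    have : η * X * 1 ≤ η * X * X := mul_le_mul_of_nonneg_left X1 (by positivity)
    calc η * X = η * X * 1 := by ring
      _ ≤ η * X * X := this
      _ = η * X ^ 2 := by ring
  have e5 : η ≤ η * X := le_mul_of_one_le_right η0.le X1
  have hσX : sg n * X ≤ η := by
    calc sg n * X ≤ D.B.d n ^ (3 * E + 2) * D.B.d n ^ (-E) :=
          mul_le_mul_of_nonneg_right hsg (by linarith)
      _ = η := by rw [hη, ← dpow_add]; congr 1; ring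
  have hzx : (u n).zh x.2 = zhN hz zs n x := hz' x.2
  have hz1 : |(u n).zh x.2| ≤ 1 := by rw [hzx]; exact zb x hx
  have key := slope_frm (i := ⟨0, Mk 0 n (kc (D.lev n 0) (D.f n 0) x)⟩) hf (c n) hu
    (hfrm x hx) hQ hP (by linarith) (kp1 n) (sg0 n)
    (Γ := X) (fun k => (h2 x hx k).trans (dpow_le D.B n (by linarith))) (by linarith) hG hm X1 hp
    hv hz1 (by nlinarith) (by
      have a1 : (24 * η + sg n * X) * (1 + 7 * (3 * X)) ≤ (25 * η) * (22 * X) :=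
        mul_le_mul (by linarith) (by linarith) (by linarith) (by positivity)
      have a2 := mul_le_mul_of_nonneg_left a1 (by linarith : (0 : ℝ) ≤ X)
      have a3 : 400 * (X * (25 * η * (22 * X))) = 220000 * (η * X ^ 2) := by ring
      linarith)
  obtain ⟨k1, k2⟩ := key
  rw [flW_g, hL x hx]
  have hv1 := Pj.line_v hP hp hv X1 (by linarith) 1
  have hp1 := Pj.line_p hP hp hv X1 (by linarith) 1
  have hWA := hu.A0
  have hWB := hu.B0
  have hWY := hu.Y0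
  have hBA := hu.BA
  have hYA : (u n).WY ≤ (u n).WA := hu.YB.trans hBA
  have s1 : 0 ≤ η * X ^ 2 := by positivity
  have fin : ∀ {a b W : ℝ}, 0 < W → W ≤ (u n).WA → |2 * kp n * b| * W ≤ (u n).WA →
      |a - b| ≤ 80 * (η * X ^ 2) → |2 * kp n * a| * W ≤ D.B.d n ^ (-δ) * (u n).WA := by
    intro a b W hW hWW h1 h2
    have r1 : |2 * kp n * a| ≤ |2 * kp n * b| + 1 := by
      have e : 2 * kp n * a = 2 * kp n * b + 2 * kp n * (a - b) := by ring
      rw [e]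
      refine (abs_add_le _ _).trans ?_
      have := m2 (m2 (le_of_eq abs_two : |(2 : ℝ)| ≤ 2) (kp1 n)) h2
      linarith
    calc |2 * kp n * a| * W ≤ (|2 * kp n * b| + 1) * W := mul_le_mul_of_nonneg_right r1 hW.le
      _ = |2 * kp n * b| * W + W := by ring
      _ ≤ 2 * (u n).WA := by linarith
      _ ≤ _ := mul_le_mul_of_nonneg_right hd hWA.le
  constructor
  · exact fin hWB hBA k2 (hv1.trans (by linarith))
  · refine fin hWY hYA k1 ?_
    have e : ((P n).line t).pos (zhN hz zs n x) 1 - t.pos (zhN hz zs n x) 1 =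
        (((P n).line t).p 1 - t.p 1) + zhN hz zs n x * (((P n).line t).v 1 - t.v 1) := by
      simp only [Ln4.pos]; ring
    rw [hzx]
    show |((P n).line t).pos (zhN hz zs n x) 1 - t.pos (zhN hz zs n x) 1| ≤ _
    rw [e]
    have := a2 hp1 (m2 (zb x hx) hv1)
    linarith

end seq

end Crest.Agent.R136.Wcn464
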