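import Crest.Agent.R136.Stk3_464
import Crest.Agent.R136.Wcn3_464

/-!
# R136, U6 thin side, stage C (helper464): level lemmas of `StcA`, thickness

* `grad_nm` : the gradient of a mark has length between `1/2` and `10`;
* `b0_num`, `b0_ge` : `WY / 4 ≤ |b 0| ≤ 16 WY` for the marks in normal coordinates;
* `thick_of` : the field `thick` of `StcA` from `ThinW`, `StcK` and `Mb`.
-/

set_option autoImplicit false
set_option linter.unusedVariables false

open Finset Filter Topology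

namespace Crest.Agent.R136.Stk464

open Crest.Agent.R138
open Crest.Agent.R138.Ex926 (Base U)
open Crest.Agent.R138.Dp76 (dpow_pos dpow_add dpow_le dpow_le_one)
open Crest.Agent.R138.ArgM163 (ev_const)
open Crest.Agent.R138.Mk163 (zc zl rho alive)
open Crest.Agent.R138.MkRef627 (lc kc mem_alive)
open Crest.Agent.R136.MkA627
open Crest.Agent.R136.Sh605
open Crest.Agent.R136.NetW191
open Crest.Agent.R136.GeoN778
open Crest.Agent.R136.Wit321
open Crest.Agent.R136.Top484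
open Crest.Agent.R136.Stc321
open Crest.Agent.R136.Tl102 (QF kap Fq bz cmb fr IsExp)
open Crest.Agent.R136.Tlt51 (Close mk4 zx rh Shp InP)
open Crest.Agent.R136.KapP335 (kapP DetP kapP_eq)
open Crest.Agent.R136.Fw650 (z0N zhN rhN)
open Crest.Agent.R136.Thn768 (ThinW Frm Cont Own Snd Tay D3 nm cr exists_tay abs_dt_unit nm_le_sum)
open Crest.Agent.R136.TL650 (own_of)
open Crest.Agent.R136.Wcn464 (gr_near tay_gr)

/-- **length of the gradient of a mark** -/
theorem grad_nm {S : K4.Plk4} {T : Ln4} {z0 ρ δ : ℝ} {b0 b1 : V3} {G : QF}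
    (O : Own S T z0 ρ δ b0 b1 G) {N R : V3} {H : QF} (hT : Tay S.q T N R H) :
    1 / 2 ≤ nm (N + z0 • R) ∧ nm (N + z0 • R) ≤ 10 := by
  have key : ∀ x : V3, Fq N R H z0 (cmb (fr S.e S.w) x) = S.w 0 * Fq b0 b1 G 0 x := by
    intro x
    have h1 := O.exp 0 x
    have e : z0 + ρ * 0 = z0 := by ring
    rw [e] at h1
    have h2 := hT z0 (cmb (fr S.e S.w) x)
    linarith
  have lin : ∀ x : V3, dt (N + z0 • R) (cmb (fr S.e S.w) x) = S.w 0 * dt b0 x := by
    intro x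
    have h1 := key x
    have h2 := key (fun k => -x k)
    have e0 : cmb (fr S.e S.w) (fun k => -x k) = fun k => -cmb (fr S.e S.w) x k := by
      funext k; simp only [cmb]; ring
    rw [e0] at h2
    set y := cmb (fr S.e S.w) x with hy
    have e1 : Fq N R H z0 y = dt (N + z0 • R) y + H.ev y := by
      simp only [Fq, dt, bz, Pi.add_apply, Pi.smul_apply, smul_eq_mul]
    have e2 : Fq N R H z0 (fun k => -y k) = -dt (N + z0 • R) y + H.ev y := by
      simp only [Fq, dt, bz, QF.ev, Pi.add_apply, Pi.smul_apply, smul_eq_mul]; ring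
    have e3 : Fq b0 b1 G 0 x = dt b0 x + G.ev x := by
      simp only [Fq, dt, bz]; ring
    have e4 : Fq b0 b1 G 0 (fun k => -x k) = -dt b0 x + G.ev x := by
      simp only [Fq, dt, bz, QF.ev]; ring
    rw [e1, e3] at h1
    rw [e2, e4] at h2
    linarith
  have comp : ∀ k, S.w k * dt (S.e k) (N + z0 • R) = S.w 0 * b0 k := by
    intro k
    have h := lin (Pi.single k 1)
    have e1 : dt (N + z0 • R) (cmb (fr S.e S.w) (Pi.single k 1)) =
        S.w k * dt (S.e k) (N + z0 • R) := by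
      fin_cases k <;> simp [dt, cmb, Tl102.fr] <;> ring
    have e2 : dt b0 (Pi.single k 1) = b0 k := by
      fin_cases k <;> simp [dt]
    rwa [e1, e2] at h
  obtain ⟨g1, g2, -, -, -, -, -, s1, s2⟩ := O.nrm.b1_le
  have w0 := O.pos 0
  have w1 := O.pos 1
  have w2 := O.pos 2
  have c0 : dt (S.e 0) (N + z0 • R) = b0 0 := by
    have := comp 0
    exact mul_left_cancel₀ w0.ne' this
  have b00 : 0 < b0 0 := by linarith
  have hb : ∀ k, |b0 k / b0 0| ≤ 2 → |b0 k| ≤ 4 := by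
    intro k h
    rw [abs_div, abs_of_pos b00, div_le_iff₀ b00] at h
    linarith
  have cc : ∀ k, S.w 0 ≤ S.w k → 0 < S.w k → |b0 k| ≤ 4 → |dt (S.e k) (N + z0 • R)| ≤ 4 := by
    intro k h h' hk
    have h3 := congrArg abs (comp k)
    rw [abs_mul, abs_mul, abs_of_pos h', abs_of_pos w0] at h3
    have h4 : S.w 0 * |b0 k| ≤ S.w k * 4 := mul_le_mul h hk (abs_nonneg _) h'.le
    rw [← h3] at h4
    exact le_of_mul_le_mul_left h4 h'
  have c1 := cc 1 (O.w02.trans O.w21) w1 (hb 1 s1)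
  have c2 := cc 2 O.w02 w2 (hb 2 s2)
  constructor
  · have := abs_dt_unit O.ortho 0 (N + z0 • R)
    rw [c0, abs_of_pos b00] at this
    linarith
  · refine (nm_le_sum O.ortho _).trans ?_
    rw [c0, abs_of_pos b00]
    linarith

/-- **size of `b 0` of a mark in normal coordinates** -/
theorem b0_num {S : K4.Plk4} {T : Ln4} {z0 ρ δ : ℝ} {b0 b1 : V3} {G : QF}
    (O : Own S T z0 ρ δ b0 b1 G) {f : Fin 3 → V3} (hf : Ortho f) (c : Ln4) {u : Un}
    (hu : u.Ok) {Q : Qd} (hQ : S.q = Q.ev) {P : Pj} {η κ σ Γ R : ℝ} (hP : P.Sm η) (hη1 : η ≤ 1)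
    (hκ : |κ| ≤ 1) (hσ : 0 < σ) {i : FW} (hG : ∀ k, |i.G k| ≤ Γ) (hs : σ * Γ ≤ 1)
    (hi : i.G = flg κ σ (pullQ P.inv (hatQ f c u Q)))
    (hm : (pullQ P.inv (hatQ f c u Q)).b 0 ≠ 0) (hR : 1 ≤ R)
    (hp : ∀ k, |(ul u (rl f c T)).p k| ≤ R) (hv : ∀ k, |(ul u (rl f c T)).v k| ≤ R)
    (hz : |u.zh z0| ≤ 1) (hη : 4 * (η * (2 * R + 1)) ≤ 1)
    (he : 100 * ((24 * η + σ * Γ) * (1 + 7 * (2 * R))) ≤ 1) (hYB : u.WY ≤ η * u.WB)
    (hηR : 1000 * (η * R) ≤ 1) :
    u.WY / 4 ≤ |(pullQ P.inv (hatQ f c u Q)).b 0| ∧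
      |(pullQ P.inv (hatQ f c u Q)).b 0| ≤ 16 * u.WY := by
  set t : Ln4 := ul u (rl f c T) with ht
  set ζ : ℝ := u.zh z0 with hζ
  obtain ⟨N, R', H, hT⟩ := exists_tay (by rw [hQ]; exact Q.isQ : IsQ S.q) T
  obtain ⟨n1, n2⟩ := grad_nm O hT
  rw [hQ] at hT
  have x1 : ∀ k, |t.pos ζ k| ≤ 2 * R := fun k => by
    have := a2 (hp k) (m2 hz (hv k))
    show |t.p k + ζ * t.v k| ≤ _
    linarith
  obtain ⟨e0, e1, e2, k0, k1, k2, g0, g1, g2⟩ := gr_near (R := 2 * R) hP hη1 hκ hσ hG hs hi hm hη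
    (z := ζ) (hz.trans (by linarith)) (x := t.pos ζ) x1
  set m := (pullQ P.inv (hatQ f c u Q)).b 0 with hmd
  set e := (24 * η + σ * Γ) * (1 + 7 * (2 * R)) with hed
  have he0 : 0 ≤ e := (abs_nonneg _).trans k0
  have hWY := hu.Y0
  have hWB := hu.B0
  have hWA := hu.A0
  have hYA : u.WY ≤ η * u.WA := hYB.trans (mul_le_mul_of_nonneg_left hu.BA hP.nn)
  have hmp : 0 < |m| := abs_pos.2 hm
  have A : ∀ k, dt (f k) (N + z0 • R') = (hatQ f c u Q).gr ζ (t.pos ζ) k / u.W k := fun k => by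
    have := tay_gr hf c hu hT z0 k
    rw [← this]
    simp only [dt]; ring
  have W0 : u.W 0 = u.WY := rfl
  have W1 : u.W 1 = u.WA := rfl
  have W2 : u.W 2 = u.WB := rfl
  -- the components
  set y := |m| / u.WY with hy
  have hy0 : 0 < y := div_pos hmp hWY
  have c0 : |dt (f 0) (N + z0 • R')| ≤ y * (101 / 100) ∧
      y * (99 / 100) ≤ |dt (f 0) (N + z0 • R')| := by
    rw [A 0, g0, W0, abs_div, abs_mul, abs_of_pos hWY]
    have := abs_le.1 k0
    have e3 : |m| * |1 + e0| / u.WY = y * |1 + e0| := by rw [hy]; ring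
    rw [e3, abs_of_pos (by linarith [this.1] : 0 < 1 + e0)]
    constructor
    · exact mul_le_mul_of_nonneg_left (by linarith [this.2]) hy0.le
    · exact mul_le_mul_of_nonneg_left (by linarith [this.1]) hy0.le
  have small : ∀ {W b M : ℝ}, 0 < W → u.WY ≤ η * W → |b| ≤ M → M * η ≤ 1 / 100 →
      |m * b / W| ≤ y * (1 / 100) := by
    intro W b M hW h1 h2 h3
    rw [abs_div, abs_mul, abs_of_pos hW, div_le_iff₀ hW]
    have h4 : |m| = y * u.WY := by rw [hy]; field_simp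
    rw [h4]
    have hM : 0 ≤ M := (abs_nonneg _).trans h2
    calc y * u.WY * |b| ≤ y * (η * W) * M :=
          mul_le_mul (mul_le_mul_of_nonneg_left h1 hy0.le) h2 (abs_nonneg _)
            (mul_nonneg hy0.le (mul_nonneg hP.nn hW.le))
      _ = (y * W) * (M * η) := by ring
      _ ≤ (y * W) * (1 / 100) := mul_le_mul_of_nonneg_left h3 (by positivity)
      _ = y * (1 / 100) * W := by ring
  have c1 : |dt (f 1) (N + z0 • R')| ≤ y * (1 / 100) := by
    rw [A 1, g1, W1]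
    refine small (M := 5 * R) hWA hYA ?_ (by linarith)
    have e3 : |2 * κ * t.pos ζ 1| ≤ 4 * R := by
      have := m2 (m2 (le_of_eq abs_two : |(2 : ℝ)| ≤ 2) hκ) (x1 1)
      linarith
    rw [← abs_neg] at e3
    exact (a2 e3 k1).trans (by linarith)
  have c2 : |dt (f 2) (N + z0 • R')| ≤ y * (1 / 100) := by
    rw [A 2, g2, W2]
    refine small (M := 2 * R) hWB hYB ?_ (by linarith)
    have e3 : |(-ζ)| ≤ 1 := by rw [abs_neg]; exact hz
    exact (a2 e3 k2).trans (by linarith)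
  have s1 := nm_le_sum hf (N + z0 • R')
  have s2 := abs_dt_unit hf 0 (N + z0 • R')
  have y1 : 1 / 4 ≤ y := by linarith [c0.1]
  have y2 : y ≤ 16 := by linarith [c0.2]
  rw [hy, le_div_iff₀ hWY] at y1
  rw [hy, div_le_iff₀ hWY] at y2
  constructor <;> linarith

section seq

variable {p : Par4} {D : Dat4} {K : ℕ → CtD} {x0 : ℕ → ℕ × ℝ}

/-- normal heights of the incidences -/
theorem zh_le (hK : StcK p D K x0) : ∀ᶠ n in (U : Filter ℕ), ∀ x ∈ D.I n,
    |zhN (hzS K) (zsS K) n x| ≤ 1 / 4 := by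
  filter_upwards [hK.H, hK.zcc] with n h1 h2 x hx
  have hr := rho_pos' (D.lev n 0)
  obtain ⟨l1, l2⟩ := GR650.zl_le (D.lev n 0) x.2
  have h3 := h2 x hx
  have e : zhN (hzS K) (zsS K) n x = (x.2 - (K n).u.zc) / (K n).u.H := by
    show 1 / (K n).u.H * x.2 - (K n).u.zc / (K n).u.H = _
    ring
  have e2 : zx D n 0 x = zl (D.lev n 0) (zc (D.lev n 0) x.2) := rfl
  rw [e, h1, h3, e2, abs_div, abs_of_pos (show (0 : ℝ) < 2 * rho (D.lev n 0) by linarith),
    div_le_iff₀ (by linarith), abs_le]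
  constructor <;> linarith

theorem uzh_eq (K : ℕ → CtD) (n : ℕ) (z : ℝ) : (K n).u.zh z = hzS K n * z - zsS K n := by
  show (z - (K n).u.zc) / (K n).u.H = 1 / (K n).u.H * z - (K n).u.zc / (K n).u.H
  ring

/-- cells of level `v` in normal heights -/
theorem cell_v (hD : MkA D.B D.I (D.G p) D.lev D.A (fun v => p.g * v) (fun v => 0 * v)
      (fun j v => p.θ j * (1 - v)) D.f D.b D.vm D.w) (hK : StcK p D K x0) {v : ℚ} (h0 : 0 ≤ v)
    (h1 : v ≤ 1) : ∀ᶠ n in (U : Filter ℕ), D.B.d n ^ ((v : ℝ) + 1) ≤ rhN D.lev (hzS K) n v ∧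
      rhN D.lev (hzS K) n v ≤ 1 / 2 ∧ ∀ x ∈ D.I n, ∀ z,
        z0N D.lev (hzS K) (zsS K) v n (zc (D.lev n v) x.2) ≤ z →
        z ≤ z0N D.lev (hzS K) (zsS K) v n (zc (D.lev n v) x.2) + rhN D.lev (hzS K) n v →
        |z| ≤ 1 := by
  have t := (hD.lev_lim 0 v le_rfl h0 h1).eventually_lt_const
    (show (v : ℝ) - (0 : ℚ) < v + 1 / 2 by push_cast; linarith)
  filter_upwards [hK.H, zh_le hK, hD.lev_mono 0 v le_rfl h0 h1, t,
    ev_const D.B (C := 2) (by norm_num) (show (0 : ℝ) < 1 / 2 by norm_num)] with n a1 a2 a3 a4 a5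
  have hr := rho_pos' (D.lev n 0)
  have hH : 0 < (K n).u.H := (hK.ok n).H0
  have hz : 0 < hzS K n := one_div_pos.2 hH
  have e0 : hzS K n * rho (D.lev n 0) = 1 / 2 := by
    show 1 / (K n).u.H * rho (D.lev n 0) = 1 / 2
    rw [a1]; field_simp
  have hle : rhN D.lev (hzS K) n v ≤ 1 / 2 := by
    rw [← e0]
    refine mul_le_mul_of_nonneg_left ?_ hz.le
    unfold rho
    exact one_div_le_one_div_of_le (by positivity) (pow_le_pow_right₀ (by norm_num) a3)
  refine ⟨?_, hle, fun x hx z z1 z2 => ?_⟩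
  · have hL := D.B.L_pos n
    rw [div_lt_iff₀ hL] at a4
    have e1 : rhN D.lev (hzS K) n v = 1 / 2 * (rho (D.lev n v) / rho (D.lev n 0)) := by
      rw [← e0]
      show hzS K n * rho (D.lev n v) = _
      field_simp
    have k1 : D.B.d n ^ ((v : ℝ) + 1 / 2) ≤ rho (D.lev n v) / rho (D.lev n 0) := by
      have hp : 0 < rho (D.lev n v) / rho (D.lev n 0) := div_pos (rho_pos' _) hr
      rw [← Real.log_le_log_iff (dpow_pos D.B n _) hp,
        Real.log_div (rho_pos' _).ne' hr.ne', ArgM163.log_dpow, ArgA163.log_rho,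
        ArgA163.log_rho]
      linarith
    have k2 : D.B.d n ^ ((v : ℝ) + 1) * 2 ≤ D.B.d n ^ ((v : ℝ) + 1 / 2) := by
      have := mul_le_mul_of_nonneg_left a5 (dpow_pos D.B n ((v : ℝ) + 1)).le
      refine this.trans (le_of_eq ?_)
      rw [← dpow_add]; congr 1; ring
    rw [e1]
    linarith
  · obtain ⟨c1, c2⟩ := Fw650.cellN (lev := D.lev) (zs := zsS K) hz v x
    have := abs_le.1 (a2 x hx)
    rw [abs_le]
    constructor <;> linarith [this.1, this.2]

/-- **`b 0` of the marks in normal coordinates** -/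
theorem b0_ge (h : ThinW p D) (hK : StcK p D K x0) {C C' : ℝ} {v : ℚ} (h0 : 0 ≤ v) (h1 : v ≤ 1)
    (Mb : ∀ᶠ n in (U : Filter ℕ), ∀ x ∈ D.I n,
      Gd D K C n x → ((K n).Q (mk4 D n v x).q).b 0 ≠ 0 ∧
        ∀ k, |MkS D K v n (kc (D.lev n v) (D.f n v) x) k| ≤ D.B.d n ^ (-C')) :
    ∀ᶠ n in (U : Filter ℕ), ∀ x ∈ D.I n, Gd D K C n x →
      (K n).u.WY / 4 ≤ |((K n).Q (mk4 D n v x).q).b 0| ∧
        |((K n).Q (mk4 D n v x).q).b 0| ≤ 16 * (K n).u.WY := by
  set E : ℝ := max (max C C') 1 with hE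
  have d1 : C ≤ E := (le_max_left _ _).trans (le_max_left _ _)
  have d2 : C' ≤ E := (le_max_right _ _).trans (le_max_left _ _)
  have d3 : 1 ≤ E := le_max_right _ _
  filter_upwards [Mb, mk_facts h.mka h0 h1, h.nd v h0 h1 1 one_pos, cell_v h.mka hK h0 h1,
    hK.sm (E + 1), hK.σs (2 * E + 1), hK.YB (E + 1),
    ev_const D.B (C := 40000) (by norm_num) one_pos] with n a1 a2 a3 a4 a5 a6 a7 a8 x hx hg
  obtain ⟨m0, m⟩ := a2
  obtain ⟨m1, m2', m3, m4, m5⟩ := m x hx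
  obtain ⟨hb, hG⟩ := a1 x hx hg
  have ha : 0 < (mk4 D n v x).a := by rw [m3]; exact m0
  have dp := dpow_pos D.B n
  obtain ⟨b0, b1, G, O⟩ := own_of m2' ha m1 (rho_pos' _) (dp 1) (a3 x hx)
  set X : ℝ := D.B.d n ^ (-E) with hX
  have X1 : 1 ≤ X := Real.one_le_rpow_of_pos_of_le_one_of_nonpos (D.B.pos n) (D.B.lt n).le
    (by linarith)
  set η : ℝ := D.B.d n ^ (E + 1) with hη
  have η0 : 0 < η := dp _
  have ed : 40000 * D.B.d n ^ (1 : ℝ) ≤ 1 := by
    have e : D.B.d n ^ (1 : ℝ) * D.B.d n ^ (-(1 : ℝ)) = 1 := by rw [← dpow_add]; simp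
    have := mul_le_mul_of_nonneg_left a8 (dp 1).le
    linarith
  have e2 : η * X = D.B.d n ^ (1 : ℝ) := by
    rw [hη, hX, ← dpow_add]; congr 1; ring
  have e3 : η ≤ η * X := le_mul_of_one_le_right η0.le X1
  have hσX : (K n).σ * X ≤ η := by
    calc (K n).σ * X ≤ D.B.d n ^ (2 * E + 1) * D.B.d n ^ (-E) :=
          mul_le_mul_of_nonneg_right a6 (by linarith)
      _ = η := by rw [hη, ← dpow_add]; congr 1; ring
  have hzz : |(K n).u.zh (zx D n v x)| ≤ 1 := by
    refine a4.2.2 x hx _ (le_of_eq ?_) ?_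
    · rw [uzh_eq]; rfl
    · rw [uzh_eq]
      show z0N D.lev (hzS K) (zsS K) v n (zc (D.lev n v) x.2) ≤ _
      have : 0 < rhN D.lev (hzS K) n v := lt_of_lt_of_le (dp _) a4.1
      linarith
  exact b0_num (R := X) (Γ := X) (i := ⟨fun _ => 0, (K n).M (mk4 D n v x).q⟩) O (hK.ortho n)
    (K n).c (hK.ok n) (qdOf_spec m2'.isQ).1 a5 (by linarith) (hK.kp1 n) (hK.σ0 n)
    (fun k => (hG k).trans (dpow_le D.B n (by linarith))) (by linarith) rfl hb X1
    (fun k => (hg.1 k).1.trans (dpow_le D.B n (by linarith)))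
    (fun k => (hg.1 k).2.trans (dpow_le D.B n (by linarith))) hzz (by nlinarith)
    (by
      have q1 : (24 * η + (K n).σ * X) * (1 + 7 * (2 * X)) ≤ (25 * η) * (15 * X) :=
        mul_le_mul (by linarith) (by linarith) (by linarith) (by positivity)
      have q2 : 100 * (25 * η * (15 * X)) = 37500 * (η * X) := by ring
      linarith) a7 (by linarith)

/-- **thickness of the marks in normal coordinates** : the field `thick` of `StcA` -/
theorem thick_of (h : ThinW p D) (hK : StcK p D K x0)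
    (Mb : ∀ C : ℝ, ∀ v : ℚ, 0 ≤ v → v ≤ 1 → ∃ C' : ℝ, ∀ᶠ n in (U : Filter ℕ), ∀ x ∈ D.I n,
      Gd D K C n x → ((K n).Q (mk4 D n v x).q).b 0 ≠ 0 ∧
        ∀ k, |MkS D K v n (kc (D.lev n v) (D.f n v) x) k| ≤ D.B.d n ^ (-C')) :
    ∀ C : ℝ, ∀ v : ℚ, 0 ≤ v → v ≤ 1 → ∀ ε : ℝ, 0 < ε → ∀ᶠ n in (U : Filter ℕ),
    ∀ x ∈ D.I n, Gd D K C n x → ∀ z, z0N D.lev (hzS K) (zsS K) v n (zc (D.lev n v) x.2) ≤ z →
      z ≤ z0N D.lev (hzS K) (zsS K) v n (zc (D.lev n v) x.2) + rhN D.lev (hzS K) n v →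
      |ht (K n).κ z ((LS D K n x.1).pos z 1) ((LS D K n x.1).pos z 2) ((LS D K n x.1).pos z 0) -
        (K n).σ * evY (MkS D K v n (kc (D.lev n v) (D.f n v) x)) z ((LS D K n x.1).pos z 1)
          ((LS D K n x.1).pos z 2) ((LS D K n x.1).pos z 0)| ≤
        (K n).σ * (aS D n v * D.B.d n ^ (-ε)) := by
  intro C v h0 h1 ε hε
  obtain ⟨C', hMb⟩ := Mb C v h0 h1
  set E : ℝ := max C 1 with hE
  have d1 : C ≤ E := le_max_left _ _
  have d3 : 1 ≤ E := le_max_right _ _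
  filter_upwards [hMb, b0_ge h hK h0 h1 hMb, mk_facts h.mka h0 h1, cell_v h.mka hK h0 h1,
    hK.sm (2 * E + (v : ℝ) + 3), hK.σw, h.mka.wpos 0 0 le_rfl zero_le_one,
    ev_const D.B (C := 1000) (by norm_num) one_pos, ev_const D.B (C := 400) (by norm_num) hε]
    with n a0 a1 a2 a4 a5 a6 a7 a8 a9 x hx hg z z1 z2
  obtain ⟨m0, m⟩ := a2
  obtain ⟨m1, m2', m3, m4, m5⟩ := m x hx
  obtain ⟨hb, hG⟩ := a0 x hx hg
  obtain ⟨b1, b2⟩ := a1 x hx hg
  have dp := dpow_pos D.B n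
  set X : ℝ := D.B.d n ^ (-E) with hX
  have X1 : 1 ≤ X := Real.one_le_rpow_of_pos_of_le_one_of_nonpos (D.B.pos n) (D.B.lt n).le
    (by linarith)
  set η : ℝ := D.B.d n ^ (2 * E + (v : ℝ) + 3) with hη
  have η0 : 0 < η := dp _
  have ed : 1000 * D.B.d n ^ (1 : ℝ) ≤ 1 := by
    have e : D.B.d n ^ (1 : ℝ) * D.B.d n ^ (-(1 : ℝ)) = 1 := by rw [← dpow_add]; simp
    have := mul_le_mul_of_nonneg_left a8 (dp 1).le
    linarith
  have v0 : (0 : ℝ) ≤ v := by exact_mod_cast h0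
  have e2 : η * X ^ 2 = D.B.d n ^ ((v : ℝ) + 1) * D.B.d n ^ (2 : ℝ) := by
    rw [hη, hX, sq, ← dpow_add, ← dpow_add, ← dpow_add]; congr 1; ring
  have e3 : D.B.d n ^ (2 : ℝ) ≤ D.B.d n ^ (1 : ℝ) := dpow_le D.B n (by norm_num)
  have e4 : D.B.d n ^ ((v : ℝ) + 1) ≤ 1 := dpow_le_one D.B n (by linarith)
  have e5 : η * X ^ 2 ≤ D.B.d n ^ (1 : ℝ) := by
    rw [e2]
    calc D.B.d n ^ ((v : ℝ) + 1) * D.B.d n ^ (2 : ℝ) ≤ 1 * D.B.d n ^ (1 : ℝ) :=
          mul_le_mul e4 e3 (dp _).le zero_le_one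
      _ = _ := one_mul _
  have e6 : η * X ≤ η * X ^ 2 := by
    have : η * X * 1 ≤ η * X * X := mul_le_mul_of_nonneg_left X1 (by positivity)
    calc η * X = η * X * 1 := by ring
      _ ≤ η * X * X := this
      _ = η * X ^ 2 := by ring
  set L := rhN D.lev (hzS K) n v with hL
  have hL0 : 0 < L := lt_of_lt_of_le (dp _) a4.1
  have hH := (hK.ok n).H0
  have hWY := (hK.ok n).Y0
  have hQs := (qdOf_spec m2'.isQ).1
  have hp : ∀ k, |((K n).t (D.L n x.1)).p k| ≤ X := fun k =>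
    (hg.1 k).1.trans (dpow_le D.B n (by linarith))
  have hv : ∀ k, |((K n).t (D.L n x.1)).v k| ≤ X := fun k =>
    (hg.1 k).2.trans (dpow_le D.B n (by linarith))
  have key := nrm_thick (P := (K n).P) (η := η) (R := 2 * X)
    (α := z0N D.lev (hzS K) (zsS K) v n (zc (D.lev n v) x.2)) (L := L)
    (a := (mk4 D n v x).a) a5 (by linarith) (by nlinarith) hL0 (by
      have q1 : 160 * (η * (2 * X) ^ 2) = 640 * (D.B.d n ^ ((v : ℝ) + 1) * D.B.d n ^ (2 : ℝ)) := by
        rw [← e2]; ring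
      rw [q1]
      have q2 : 640 * (D.B.d n ^ ((v : ℝ) + 1) * D.B.d n ^ (2 : ℝ)) ≤ D.B.d n ^ ((v : ℝ) + 1) := by
        have := mul_le_mul_of_nonneg_left (show 640 * D.B.d n ^ (2 : ℝ) ≤ 1 by linarith)
          (dp ((v : ℝ) + 1)).le
        linarith
      exact q2.trans a4.1) (Q := (K n).Qh (mk4 D n v x).q) (t := (K n).t (D.L n x.1))
    (fun k => (hp k).trans (by linarith)) (fun k => (hv k).trans (by linarith)) (by
      intro y y1 y2
      have hy := a4.2.2 x hx y y1 y2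
      refine ⟨hy.trans (by linarith), fun k => ?_, ?_⟩
      · have := a2 (hp k) (m2 hy (hv k))
        show |((K n).t (D.L n x.1)).p k + y * ((K n).t (D.L n x.1)).v k| ≤ _
        linarith
      · set zr : ℝ := (K n).u.zc + (K n).u.H * y with hzr
        have ez : (K n).u.zh zr = y := by
          simp only [Un.zh, hzr]; field_simp; ring
        have e := hatQ_line (hK.ortho n) (K n).c (hK.ok n) (qdOf (mk4 D n v x).q) zr (D.L n x.1)
        rw [ez] at e
        have e' : ((K n).Qh (mk4 D n v x).q).ev y (((K n).t (D.L n x.1)).pos y) =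
            (mk4 D n v x).q zr ((D.L n x.1).pos zr) := e.trans (by rw [← hQs])
        rw [e']
        have eu := uzh_eq K n zr
        rw [ez] at eu
        unfold z0N at y1 y2
        rw [eu] at y1 y2
        refine (m1 zr ?_ ?_).2
        · have q : hzS K n * zl (D.lev n v) (zc (D.lev n v) x.2) - zsS K n ≤
              hzS K n * zr - zsS K n := y1
          have hz : 0 < hzS K n := one_div_pos.2 hH
          refine le_of_mul_le_mul_left (a := hzS K n) ?_ hz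
          show hzS K n * zl (D.lev n v) (zc (D.lev n v) x.2) ≤ hzS K n * zr
          linarith
        · have q : hzS K n * zr - zsS K n ≤
              (hzS K n * zl (D.lev n v) (zc (D.lev n v) x.2) - zsS K n) +
                hzS K n * rho (D.lev n v) := y2
          have hz : 0 < hzS K n := one_div_pos.2 hH
          refine le_of_mul_le_mul_left (a := hzS K n) ?_ hz
          show hzS K n * zr ≤ hzS K n * (zl (D.lev n v) (zc (D.lev n v) x.2) + rho (D.lev n v))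
          linarith) z1 z2
  have e7 := ev_flg (hK.σ0 n).ne' hb (κ := (K n).κ) z ((LS D K n x.1).pos z)
  have e8 : (pullQ (K n).P.inv ((K n).Qh (mk4 D n v x).q)).ev z
      (((K n).P.line ((K n).t (D.L n x.1))).pos z) =
      ((K n).Q (mk4 D n v x).q).ev z ((LS D K n x.1).pos z) := rfl
  rw [e8, e7, abs_mul] at key
  have e9 : flg (K n).κ (K n).σ ((K n).Q (mk4 D n v x).q) =
      MkS D K v n (kc (D.lev n v) (D.f n v) x) := rfl
  rw [e9] at key
  set Y := |ht (K n).κ z ((LS D K n x.1).pos z 1) ((LS D K n x.1).pos z 2)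
    ((LS D K n x.1).pos z 0) - (K n).σ * evY (MkS D K v n (kc (D.lev n v) (D.f n v) x)) z
      ((LS D K n x.1).pos z 1) ((LS D K n x.1).pos z 2) ((LS D K n x.1).pos z 0)| with hY
  have Y0 : 0 ≤ Y := abs_nonneg _
  have k1 : (K n).u.WY / 4 * Y ≤ 100 * D.w 0 n v := by
    rw [← m3]
    exact (mul_le_mul_of_nonneg_right b1 Y0).trans key
  have k2 : (K n).u.WY * ((K n).σ * aS D n v) = D.w 0 n v := by
    rw [← mul_assoc, a6]
    show D.w 0 n 0 * (D.w 0 n v / D.w 0 n 0) = _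
    have := a7.ne'
    field_simp
  have k3 : (K n).u.WY * Y ≤ (K n).u.WY * ((K n).σ * aS D n v * 400) := by
    have : (K n).u.WY * ((K n).σ * aS D n v * 400) = 400 * D.w 0 n v := by rw [← k2]; ring
    rw [this]; linarith
  have k4 := le_of_mul_le_mul_left k3 hWY
  have k5 : 0 ≤ (K n).σ * aS D n v := by
    have : 0 < (K n).u.WY * ((K n).σ * aS D n v) := by rw [k2]; exact m0
    exact ((mul_pos_iff_of_pos_left hWY).1 this).le
  calc Y ≤ (K n).σ * aS D n v * 400 := k4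
    _ ≤ (K n).σ * aS D n v * D.B.d n ^ (-ε) := mul_le_mul_of_nonneg_left a9 k5
    _ = _ := by ring

end seq

end Crest.Agent.R136.Stk464
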