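import Crest.Agent.R136.StcL_321
import Crest.Agent.R136.Stk4_464

/-!
# R136, U6 thin side, stage C (helper321): the level `0` function is a second function of every mark
-/

set_option autoImplicit false
set_option linter.unusedVariables false

open Finset Filter Topology

namespace Crest.Agent.R136.Stc321

open Crest.Agent.R138
open Crest.Agent.R138.Ex926 (Base U)
open Crest.Agent.R138.Dp76 (dpow_pos dpow_add dpow_le dpow_le_one)
open Crest.Agent.R138.Mk163 (zc zl rho)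
open Crest.Agent.R136.MkA627
open Crest.Agent.R136.Sh605
open Crest.Agent.R136.K4
open Crest.Agent.R136.Top484
open Crest.Agent.R136.ArgA163 (tau_zero le_of_log)
open Crest.Agent.R136.Tlt51 (Close mk4 zx rh Shp InP)
open Crest.Agent.R136.KapP335 (kapP DetP kapP_eq)
open Crest.Agent.R136.Tl102 (QF kap IsExp OmB)
open Crest.Agent.R136.Thn768 (ThinW Own Snd Tay exists_tay)
open Crest.Agent.R136.TL650 (own_of snd_of_close)
open Crest.Agent.R136.Stk464 (mk_facts rho_pos')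

/-- cells are nested -/
theorem cell_in {i j : ℕ} (h : i ≤ j) (z : ℝ) : zl i (zc i z) ≤ zl j (zc j z) ∧
    zl j (zc j z) + rho j ≤ zl i (zc i z) + rho i := by
  have hp : (0:ℝ) < 2 ^ i := by positivity
  have hq : (0:ℝ) < 2 ^ j := by positivity
  have e0 : (2:ℝ) ^ j = 2 ^ (j - i) * 2 ^ i := by rw [← pow_add]; congr 1; omega
  have e1 : 2 ^ (j - i) * zc i z ≤ zc j z := by
    unfold zc
    rw [Int.le_floor]
    push_cast
    rw [e0, mul_assoc]
    exact mul_le_mul_of_nonneg_left (Int.floor_le _) (by positivity)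
  have e2 : zc j z + 1 ≤ 2 ^ (j - i) * (zc i z + 1) := by
    have h3 : zc j z < 2 ^ (j - i) * (zc i z + 1) := by
      unfold zc
      rw [Int.floor_lt]
      push_cast
      rw [e0, mul_assoc]
      exact mul_lt_mul_of_pos_left (Int.lt_floor_add_one _) (by positivity)
    omega
  have e3 : (2:ℝ) ^ (j - i) * (zc i z : ℝ) ≤ zc j z := by exact_mod_cast e1
  have e4 : (zc j z : ℝ) + 1 ≤ 2 ^ (j - i) * ((zc i z : ℝ) + 1) := by exact_mod_cast e2
  unfold zl rho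
  constructor
  · rw [div_le_div_iff₀ hp hq, e0]
    nlinarith
  · rw [← add_div, ← add_div, div_le_div_iff₀ hq hp, e0]
    nlinarith

/-- the level `0` function is a second function of every mark -/
def SndLev (D : Dat4) : Prop := ∃ Cs : ℝ, ∀ v : ℚ, 0 ≤ v → v ≤ 1 → ∀ M : ℝ,
  ∀ᶠ n in (U : Filter ℕ), ∀ x ∈ D.I n, ∀ (b0 b1 : V3) (G : QF),
    Own (mk4 D n v x) (D.L n x.1) (zx D n v x) (rh D n v) (D.B.d n ^ (1 / 100 : ℝ)) b0 b1 G →
    ∃ (X : ℝ) (N R : V3) (H : QF),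
      Snd (mk4 D n v x) (D.L n x.1) (zx D n v x) (rh D n v) b0 b1 G X (mk4 D n 0 x).q N R H ∧
      X ≤ D.B.d n ^ M ∧ 0 ≤ X ∧
      (mk4 D n v x).w 0 * kap b0 b1 G * X ≤ D.B.d n ^ (-Cs) * D.w 0 n 0

/-- widths of two levels -/
theorem wid_two {p : Par4} {D : Dat4} (mka : MkA D.B D.I (D.G p) D.lev D.A (fun v => p.g * v)
    (fun v => 0 * v) (fun j v => p.θ j * (1 - v)) D.f D.b D.vm D.w) (k : Fin 3) {v : ℚ}
    (h0 : 0 ≤ v) (h1 : v ≤ 1) : ∀ᶠ n in (U : Filter ℕ), 0 < D.w k n 0 ∧ 0 < D.w k n v ∧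
      D.w k n v ≤ D.w k n 0 * D.B.d n ^ (-(|1 - p.θ k| + 1)) ∧
      D.w k n 0 ≤ D.w k n v * D.B.d n ^ (-(|1 - p.θ k| + 1)) := by
  have v0 : (0 : ℝ) ≤ v := by exact_mod_cast h0
  have v1 : (v : ℝ) ≤ 1 := by exact_mod_cast h1
  have hb : |(1 - p.θ k) * (v : ℝ)| ≤ |1 - p.θ k| := by
    rw [abs_mul, abs_of_nonneg v0]
    exact mul_le_of_le_one_right (abs_nonneg _) v1
  have hb' := abs_le.1 hb
  have t1 := (tau_zero mka k h0 h1).eventually_const_lt
    (show -(|1 - p.θ k| + 1) < (1 - p.θ k) * (v : ℝ) by linarith [hb'.1])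
  have t2 := (tau_zero mka k h0 h1).eventually_lt_const
    (show (1 - p.θ k) * (v : ℝ) < |1 - p.θ k| + 1 by linarith [hb'.2])
  filter_upwards [t1, t2, mka.wpos k v h0 h1, mka.wpos k 0 le_rfl zero_le_one] with n a1 a2 a3 a4
  refine ⟨a4, a3, le_of_log a3 a4 ?_, le_of_log a4 a3 ?_⟩
  · rw [Real.log_div a4.ne' a3.ne']; exact a1.le
  · rw [Real.log_div a3.ne' a4.ne']
    have e : (Real.log (D.w k n v) - Real.log (D.w k n 0)) / D.B.L n =
        -((Real.log (D.w k n 0) - Real.log (D.w k n v)) / D.B.L n) := by ring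
    rw [e]; linarith

theorem sndLev_of {p : Par4} {D : Dat4} (h : ThinW p D) : SndLev D := by
  obtain ⟨Ct, hCt, ht⟩ := h.tilt
  set W : ℝ := |1 - p.θ 0| + 1 with hW
  have W0 : 0 ≤ W := by have := abs_nonneg (1 - p.θ 0); linarith
  refine ⟨Ct + W + 3, fun v v0 v1 M => ?_⟩
  rcases v0.eq_or_lt with hv | hv
  · subst hv
    filter_upwards [mk_facts h.mka le_rfl zero_le_one] with n a1 x hx b0 b1 G O
    obtain ⟨f1, f2, f3, f4, f5⟩ := a1.2 x hx
    obtain ⟨N, R, H, hT⟩ := exists_tay f2.isQ (D.L n x.1)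
    refine ⟨0, N, R, H, O.snd hT, (dpow_pos D.B n M).le, le_rfl, ?_⟩
    rw [mul_zero]
    exact mul_nonneg (dpow_pos D.B n _).le a1.1.le
  · set M1 : ℝ := |M| + Ct + W + 5 with hM1
    filter_upwards [mk_facts h.mka le_rfl zero_le_one, mk_facts h.mka v0 v1,
      ht 0 v le_rfl hv v1 1 one_pos, h.thin v v0 v1 M1, wid_two h.mka 0 v0 v1,
      h.mka.lev_mono 0 v le_rfl v0 v1,
      Wcn464.ev_le D.B (10 ^ 20) (show (0 : ℝ) < 1 by norm_num)]
      with n a1 a2 a3 a4 a5 a6 a7 x hx b0 b1 G O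
    obtain ⟨f1, f2, f3, f4, f5⟩ := a2.2 x hx
    obtain ⟨g1, g2, g3, g4, g5⟩ := a1.2 x hx
    have dp := dpow_pos D.B n
    rw [Real.rpow_zero] at a7
    obtain ⟨w0, wv, wl, wl'⟩ := a5
    have hYe := O.Ye0
    have hw0' : 0 < (mk4 D n 0 x).w 0 := by
      have := g2.a_le0
      rw [g3] at this
      exact w0.trans_le this
    have hkp := a4 x hx
    rw [kapP_eq (O.pos 0).ne' O.exp, f3] at hkp
    set Ye := (mk4 D n v x).w 0 * kap b0 b1 G with hYed
    have v0' : (0 : ℝ) < (v : ℝ) := by exact_mod_cast hv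
    have v1' : (v : ℝ) ≤ 1 := by exact_mod_cast v1
    set E : ℝ := D.B.d n ^ (-(Ct * ((v : ℝ) - (0 : ℚ))) - 1) * max (D.w 0 n 0) (D.w 0 n v) with hE
    have p8 : (D.B.d n ^ (1 / 100 : ℝ)) ^ 8 = D.B.d n ^ (8 / 100 : ℝ) := by
      rw [← Real.rpow_natCast, ← Real.rpow_mul (D.B.pos n).le]
      congr 1; norm_num
    have hdW : 1 ≤ D.B.d n ^ (-W) :=
      Real.one_le_rpow_of_pos_of_le_one_of_nonpos (D.B.pos n) (D.B.lt n).le (by linarith)
    have hcv : Ct * (v : ℝ) ≤ Ct := mul_le_of_le_one_right hCt v1'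
    have hcv0 : 0 ≤ Ct * (v : ℝ) := mul_nonneg hCt v0'.le
    have m1 : max (D.w 0 n 0) (D.w 0 n v) ≤ D.w 0 n v * D.B.d n ^ (-W) :=
      max_le wl' (le_mul_of_one_le_right wv.le hdW)
    have m2 : max (D.w 0 n 0) (D.w 0 n v) ≤ D.w 0 n 0 * D.B.d n ^ (-W) :=
      max_le (le_mul_of_one_le_right w0.le hdW) wl
    have e0 : D.B.d n ^ (-(Ct * ((v : ℝ) - (0 : ℚ))) - 1) ≤ D.B.d n ^ (-Ct - 1) :=
      dpow_le D.B n (by push_cast; linarith)
    have E1 : E ≤ D.B.d n ^ (-Ct - 1 - W) * D.w 0 n v := by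
      calc E ≤ D.B.d n ^ (-Ct - 1) * (D.w 0 n v * D.B.d n ^ (-W)) :=
            mul_le_mul e0 m1 (w0.le.trans (le_max_left _ _)) (dp _).le
        _ = D.B.d n ^ (-Ct - 1) * D.B.d n ^ (-W) * D.w 0 n v := by ring
        _ = _ := by rw [← dpow_add]; congr 2
    have E2 : E ≤ D.B.d n ^ (-Ct - 1 - W) * D.w 0 n 0 := by
      calc E ≤ D.B.d n ^ (-Ct - 1) * (D.w 0 n 0 * D.B.d n ^ (-W)) :=
            mul_le_mul e0 m2 (w0.le.trans (le_max_left _ _)) (dp _).le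
        _ = D.B.d n ^ (-Ct - 1) * D.B.d n ^ (-W) * D.w 0 n 0 := by ring
        _ = _ := by rw [← dpow_add]; congr 2
    have E3 : E ≤ D.B.d n ^ (|M| + 4) * Ye := by
      calc E ≤ D.B.d n ^ (-Ct - 1 - W) * (D.B.d n ^ M1 * Ye) :=
            E1.trans (mul_le_mul_of_nonneg_left hkp (dp _).le)
        _ = D.B.d n ^ (-Ct - 1 - W) * D.B.d n ^ M1 * Ye := by ring
        _ = _ := by rw [← dpow_add]; congr 2; rw [hM1]; ring
    have hE0 : 0 ≤ E := mul_nonneg (dp _).le (w0.le.trans (le_max_left _ _))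
    have hsm : 10 ^ 20 * E ≤ (D.B.d n ^ (1 / 100 : ℝ)) ^ 8 * Ye := by
      rw [p8]
      calc 10 ^ 20 * E ≤ 10 ^ 20 * (D.B.d n ^ (|M| + 4) * Ye) :=
            mul_le_mul_of_nonneg_left E3 (by norm_num)
        _ = 10 ^ 20 * D.B.d n ^ (1 : ℝ) * (D.B.d n ^ (|M| + 3) * Ye) := by
            have : D.B.d n ^ (|M| + 4) = D.B.d n ^ (1 : ℝ) * D.B.d n ^ (|M| + 3) := by
              rw [← dpow_add]; congr 1; ring
            rw [this]; ring
        _ ≤ 1 * (D.B.d n ^ (|M| + 3) * Ye) :=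
            mul_le_mul_of_nonneg_right a7 (mul_nonneg (dp _).le hYe.le)
        _ ≤ D.B.d n ^ (8 / 100 : ℝ) * Ye := by
            rw [one_mul]
            refine mul_le_mul_of_nonneg_right (dpow_le D.B n ?_) hYe.le
            have := abs_nonneg M
            linarith
    obtain ⟨c1, c2⟩ := cell_in a6 x.2
    obtain ⟨N, R, H, hS⟩ := snd_of_close O f2 f1 g2 hw0' c1 c2 g1 (a3 x hx) hsm
    have hX0 : 0 ≤ 10 ^ 19 * E / (D.B.d n ^ (1 / 100 : ℝ)) ^ 8 / Ye := by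
      have := dp (1 / 100 : ℝ)
      positivity
    have k8 : 10 ^ 19 / (D.B.d n ^ (1 / 100 : ℝ)) ^ 8 ≤ D.B.d n ^ (-(2 : ℝ)) := by
      rw [p8, div_le_iff₀ (dp _), ← dpow_add]
      have e : D.B.d n ^ (1 : ℝ) * D.B.d n ^ (-(1 : ℝ)) = 1 := by
        rw [← dpow_add]; simp
      have h3 := mul_le_mul_of_nonneg_right a7 (dp (-(1 : ℝ))).le
      rw [mul_assoc, e] at h3
      have h4 : D.B.d n ^ (-(1 : ℝ)) ≤ D.B.d n ^ (-(2 : ℝ) + 8 / 100) :=
        dpow_le D.B n (by norm_num)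
      linarith
    have k9 : 10 ^ 19 * E / (D.B.d n ^ (1 / 100 : ℝ)) ^ 8 ≤ D.B.d n ^ (-(2 : ℝ)) * E := by
      have := mul_le_mul_of_nonneg_right k8 hE0
      refine le_trans (le_of_eq (by ring)) this
    refine ⟨_, N, R, H, hS, ?_, hX0, ?_⟩
    · rw [div_le_iff₀ hYe]
      refine k9.trans ?_
      calc D.B.d n ^ (-(2 : ℝ)) * E ≤ D.B.d n ^ (-(2 : ℝ)) * (D.B.d n ^ (|M| + 4) * Ye) :=
            mul_le_mul_of_nonneg_left E3 (dp _).le
        _ = D.B.d n ^ (|M| + 2) * Ye := by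
            rw [← mul_assoc, ← dpow_add]; congr 2; ring
        _ ≤ D.B.d n ^ M * Ye := by
            refine mul_le_mul_of_nonneg_right (dpow_le D.B n ?_) hYe.le
            have := le_abs_self M
            linarith
    · have e : Ye * (10 ^ 19 * E / (D.B.d n ^ (1 / 100 : ℝ)) ^ 8 / Ye) =
          10 ^ 19 * E / (D.B.d n ^ (1 / 100 : ℝ)) ^ 8 := by field_simp
      rw [e]
      refine k9.trans ?_
      calc D.B.d n ^ (-(2 : ℝ)) * E ≤ D.B.d n ^ (-(2 : ℝ)) *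
            (D.B.d n ^ (-Ct - 1 - W) * D.w 0 n 0) := mul_le_mul_of_nonneg_left E2 (dp _).le
        _ = D.B.d n ^ (-(Ct + W + 3)) * D.w 0 n 0 := by
            rw [← mul_assoc, ← dpow_add]; congr 2; ring

end Crest.Agent.R136.Stc321
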