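import Crest.Agent.R136.StcL_321
import Crest.Agent.R136.Stk4_464
import Crest.Agent.R136.StcS_321

/-!
# R136, U6 thin side, stage C (helper321), part 9: the data of the levels

`lev_data_of` : every good incidence has the data `LvD` at every level.
-/

set_option autoImplicit false
set_option linter.unusedVariables false

open Finset Filter Topology

namespace Crest.Agent.R136.Stc321

open Crest.Agent.R138
open Crest.Agent.R138.Ex926 (Base U)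
open Crest.Agent.R138.Dp76 (dpow_pos dpow_add dpow_le dpow_le_one)
open Crest.Agent.R138.ArgM163 (ev_const)
open Crest.Agent.R138.Mk163 (zc zl rho)
open Crest.Agent.R138.MkRef627 (lc kc)
open Crest.Agent.R136.MkA627
open Crest.Agent.R136.Sh605
open Crest.Agent.R136.K4
open Crest.Agent.R136.NetW191
open Crest.Agent.R136.GeoN778
open Crest.Agent.R136.Wit321
open Crest.Agent.R136.Top484
open Crest.Agent.R136.Tlt51 (Close mk4 zx rh Shp InP)
open Crest.Agent.R136.KapP335 (kapP DetP)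
open Crest.Agent.R136.Tl102 (QF kap IsExp OmB)
open Crest.Agent.R136.Fw650 (z0N zhN rhN)
open Crest.Agent.R136.Thn768 (ThinW Frm Own Snd Tay)
open Crest.Agent.R136.TL650 (own_of)
open Crest.Agent.R136.Stk464 (StcK mk_facts rho_pos' zh_le uzh_eq cell_v)

theorem Nr.mono {Q : Qd} {t : Ln4} {z1 κ ν R η η' : ℝ} (h : Nr Q t z1 κ ν R η) (hη : η ≤ η') :
    Nr Q t z1 κ ν R η' := by
  have hν := abs_nonneg ν
  have k := mul_le_mul_of_nonneg_left hη hν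
  exact ⟨h.g0.trans k, h.g1, h.g2, h.d0.trans k, h.d1.trans k, h.d2.trans k, fun X B hX =>
    (h.hh X B hX).trans (mul_le_mul_of_nonneg_left
      (mul_le_mul_of_nonneg_right hη (sq_nonneg B)) hν)⟩

/-- a constant against a power -/
theorem cpow_le (B : Base) (c : ℝ) {a b : ℝ} (hab : b < a) :
    ∀ᶠ n in (U : Filter ℕ), c * B.d n ^ a ≤ B.d n ^ b := Wcn464.ev_le B c hab

theorem cube_le {a b : ℝ} (ha : 0 ≤ a) (hb : 0 ≤ b) (h : a ^ 3 ≤ b ^ 3) : a ≤ b :=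
  le_of_pow_le_pow_left₀ (by norm_num) hb h

set_option maxHeartbeats 1000000 in
/-- **the data of the levels** -/
theorem lev_data_of {p : Par4} {D : Dat4} {K : ℕ → CtD} {x0 : ℕ → ℕ × ℝ} (h : ThinW p D)
    (hk : StcK p D K x0) (hs : SndLev D) (C : ℝ) {v : ℚ} (v0 : 0 ≤ v) (v1 : v ≤ 1) :
    ∃ C2 : ℝ, 0 ≤ C2 ∧ ∀ ε : ℝ, 0 < ε → ∀ M : ℝ, 4 * C2 + 10 ≤ M →
      ∀ᶠ n in (U : Filter ℕ), ∀ x ∈ D.I n, Gd D K C n x →
        LvD D K n v x (D.B.d n ^ ε) (D.B.d n ^ (-C2)) (D.B.d n ^ M) := by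
  obtain ⟨Cs, hs⟩ := hs
  set C0 : ℝ := max C 0 with hC0
  have c00 : 0 ≤ C0 := le_max_right _ _
  have cC0 : C ≤ C0 := le_max_left _ _
  set C2 : ℝ := max (C0 + 1) Cs with hC2
  have c21 : C0 + 1 ≤ C2 := le_max_left _ _
  have c2s : Cs ≤ C2 := le_max_right _ _
  refine ⟨C2, by linarith, fun ε hε M hM => ?_⟩
  set MX : ℝ := M + ε + 1 with hMX
  set MP : ℝ := M + C2 + 1 with hMP
  filter_upwards [hs v v0 v1 MX, mk_facts h.mka v0 v1, mk_facts h.mka le_rfl zero_le_one,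
    h.nd v v0 v1 ε hε, h.nd v v0 v1 (1 / 100) (by norm_num), h.nd v v0 v1 (ε / 2) (by linarith),
    h.nd 0 le_rfl zero_le_one 1 one_pos, hk.sm MP, hk.σs (MP + C0), hk.YB M, hk.kp0, hk.frm,
    zh_le hk, cell_v h.mka hk v0 v1, hk.bal v v0 v1 (ε / 4) (by linarith),
    cpow_le D.B (10 ^ 6) (show (0 : ℝ) < 1 by norm_num),
    cpow_le D.B (10 ^ 18) (show (0 : ℝ) < ε / 2 by linarith),
    hk.H] with n hs mf mf0 nd nd1 nd2 nd0 sm σs YB kp0 frm zhl cv bal k1 k2 hH x hx hg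
  have dp := dpow_pos D.B n
  have d1 : ∀ {s : ℝ}, 0 ≤ s → D.B.d n ^ s ≤ 1 := fun hs => dpow_le_one D.B n hs
  rw [Real.rpow_zero] at k1 k2
  obtain ⟨f1, f2, f3, f4, f5⟩ := mf.2 x hx
  obtain ⟨g1, g2, g3, g4, g5⟩ := mf0.2 x hx
  have ha : 0 < (mk4 D n v x).a := by rw [f3]; exact mf.1
  have ha0 : 0 < (mk4 D n 0 x).a := by rw [g3]; exact mf0.1
  have hρ : 0 < rh D n v := rho_pos' _
  obtain ⟨b0, b1, G, O⟩ := own_of f2 ha f1 hρ (dp ε) (nd x hx)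
  obtain ⟨c0, c1, G0, O0⟩ := own_of g2 ha0 g1 (rho_pos' _) (dp 1) (nd0 x hx)
  have O1 : Own (mk4 D n v x) (D.L n x.1) (zx D n v x) (rh D n v) (D.B.d n ^ (1 / 100 : ℝ))
      b0 b1 G := ⟨O.ortho, O.pos, O.w02, O.w21, O.hρ, O.exp, O.nrm, O.k0, dp _, nd1 x hx⟩
  have O2 : Own (mk4 D n v x) (D.L n x.1) (zx D n v x) (rh D n v) (D.B.d n ^ (ε / 2))
      b0 b1 G := ⟨O.ortho, O.pos, O.w02, O.w21, O.hρ, O.exp, O.nrm, O.k0, dp _, nd2 x hx⟩
  obtain ⟨X, N, R', H, hS, hX1, hX0, hX2⟩ := hs x hx b0 b1 G O1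
  have hq0 := (Stk464.qdOf_spec g2.isQ).1
  have hSQ : Snd (mk4 D n v x) (D.L n x.1) (zx D n v x) (rh D n v) b0 b1 G X
      (qdOf (mk4 D n 0 x).q).ev N R' H := by rw [← hq0]; exact hS
  obtain ⟨b0p, b1p, Gp, hE, m1, m2', hO⟩ := hSQ.ex
  -- numbers
  set Rr : ℝ := D.B.d n ^ (-C2) with hRr
  set η : ℝ := D.B.d n ^ M with hη
  have R1 : 1 ≤ Rr := Real.one_le_rpow_of_pos_of_le_one_of_nonpos (D.B.pos n) (D.B.lt n).le
    (by linarith)
  have η0 : 0 < η := dp _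
  set Γ : ℝ := D.B.d n ^ (-C) with hΓ
  set P1 : ℝ := D.B.d n ^ MP with hP1
  have hP10 : 0 < P1 := dp _
  have e1 : P1 * Rr = η * D.B.d n ^ (1 : ℝ) := by
    rw [hP1, hRr, hη, ← dpow_add, ← dpow_add]; congr 1; rw [hMP]; ring
  have σ0 := hk.σ0 n
  have hσΓ : (K n).σ * Γ ≤ P1 := by
    calc (K n).σ * Γ ≤ D.B.d n ^ (MP + C0) * D.B.d n ^ (-C) :=
          mul_le_mul_of_nonneg_right σs (dp _).le
      _ = D.B.d n ^ (MP + C0 - C) := by rw [← dpow_add]; congr 1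
      _ ≤ P1 := dpow_le D.B n (by linarith)
  have hσΓ0 : 0 ≤ (K n).σ * Γ := mul_nonneg σ0.le (dp _).le
  have hd1 : D.B.d n ^ (1 : ℝ) ≤ 1 / 10 ^ 6 := by
    rw [le_div_iff₀ (by norm_num)]; linarith
  have hP1s : P1 ≤ 1 / 10 ^ 6 := by
    refine le_trans (dpow_le D.B n (show (1 : ℝ) ≤ MP by rw [hMP]; linarith)) hd1
  have hηs : η ≤ 1 / 10 ^ 6 := le_trans (dpow_le D.B n (show (1 : ℝ) ≤ M by linarith)) hd1
  have hRη : Rr ^ 4 * η ≤ 1 / 10 ^ 6 := by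
    have e : Rr ^ 4 = D.B.d n ^ (-(4 * C2)) := by
      rw [hRr, ← Real.rpow_natCast, ← Real.rpow_mul (D.B.pos n).le]; congr 1; push_cast; ring
    rw [e, hη, ← dpow_add]
    exact le_trans (dpow_le D.B n (by linarith)) hd1
  have hR4 : Rr ≤ Rr ^ 4 := by
    have : Rr ^ 1 ≤ Rr ^ 4 := pow_le_pow_right₀ R1 (by norm_num)
    rwa [pow_one] at this
  have hRη1 : Rr * η ≤ 1 / 10 ^ 6 := (mul_le_mul_of_nonneg_right hR4 η0.le).trans hRη
  -- positions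
  obtain ⟨gl, gb, gf⟩ := hg
  have hC2' : D.B.d n ^ (-C0) * 2 ≤ Rr := by
    have a : 2 ≤ D.B.d n ^ (-(1 : ℝ)) := by
      have e : D.B.d n ^ (1 : ℝ) * D.B.d n ^ (-(1 : ℝ)) = 1 := by
        rw [← dpow_add]; simp
      have h3 := mul_le_mul_of_nonneg_right hd1 (dp (-(1 : ℝ))).le
      rw [e] at h3
      linarith
    calc D.B.d n ^ (-C0) * 2 ≤ D.B.d n ^ (-C0) * D.B.d n ^ (-(1 : ℝ)) :=
          mul_le_mul_of_nonneg_left a (dp _).le
      _ = D.B.d n ^ (-C0 + -1) := (dpow_add D.B n _ _).symm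
      _ ≤ Rr := dpow_le D.B n (by linarith)
  have hΓC : Γ ≤ D.B.d n ^ (-C0) := dpow_le D.B n (by linarith)
  set t := (K n).t (D.L n x.1) with ht
  have tp : ∀ k, |t.p k| ≤ D.B.d n ^ (-C0) := fun k => (gl k).1.trans hΓC
  have tvb : ∀ k, |t.v k| ≤ D.B.d n ^ (-C0) := fun k => (gl k).2.trans hΓC
  have dC0 := dp (-C0)
  have tpR : ∀ k, |t.p k| ≤ Rr := fun k => (tp k).trans (by linarith)
  have tvR : ∀ k, |t.v k| ≤ Rr := fun k => (tvb k).trans (by linarith)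
  have pos : ∀ z, |z| ≤ 1 → ∀ k, |t.pos z k| ≤ Rr := by
    intro z hz k
    have := a2 (tp k) (m2 hz (tvb k))
    show |t.p k + z * t.v k| ≤ _
    linarith
  have zz0 : |(K n).u.zh (zx D n v x)| ≤ 1 := by
    refine cv.2.2 x hx _ (le_of_eq ?_) ?_
    · rw [uzh_eq]; rfl
    · rw [uzh_eq]
      show z0N D.lev (hzS K) (zsS K) v n (zc (D.lev n v) x.2) ≤ _
      have : 0 < rhN D.lev (hzS K) n v := lt_of_lt_of_le (dp _) cv.1
      linarith
  have zz1 : |(K n).u.zh x.2| ≤ 1 := by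
    rw [uzh_eq]
    have := zhl x hx
    show |zhN (hzS K) (zsS K) n x| ≤ 1
    linarith
  -- near the model
  have nr : ∀ z, |z| ≤ 1 → Nr ((K n).Qh (mk4 D n 0 x).q) t z (K n).κ
      (((K n).Q (mk4 D n 0 x).q).b 0) Rr η := by
    intro z hz
    have hb1 : Rr * (24 * P1 + (K n).σ * Γ) ≤ 25 * (P1 * Rr) := by
      have := mul_le_mul_of_nonneg_left (show 24 * P1 + (K n).σ * Γ ≤ 25 * P1 by linarith)
        (by linarith : 0 ≤ Rr)
      linarith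
    have hb2 : 25 * (P1 * Rr) ≤ η / 9 := by
      rw [e1]
      have := mul_le_mul_of_nonneg_left hd1 η0.le
      linarith
    have := nr_good (z1 := z) sm (by linarith) σ0 (hk.kp1 n) gb gf (by linarith) (t := t) R1
      (hz.trans R1) (pos z hz) tvR (by linarith)
    exact this.mono (by linarith)
  -- multiplier
  have hzl := GR650.zl_le (D.lev n 0) x.2
  have hnu := nu_good (c := (K n).c) O0 (hk.ortho n) (hk.ok n) hq0 (z := x.2) hzl.1 hzl.2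
    (frm x hx) (nr _ zz1) η0.le (by linarith)
  obtain ⟨nu1, nu2⟩ := hnu
  have hWY := (hk.ok n).Y0
  have hWA := (hk.ok n).A0
  have hWB := (hk.ok n).B0
  have hHp := (hk.ok n).H0
  have hrh : rh D n v / (K n).u.H = rhN D.lev (hzS K) n v := by
    show rho (D.lev n v) / (K n).u.H = 1 / (K n).u.H * rho (D.lev n v)
    ring
  have hXη : X ≤ η := hX1.trans (dpow_le D.B n (by rw [hMX]; linarith))
  have hOη := hO.mono hXη hXη hXη
  have hRη' : 6000 * (η * Rr ^ 4) ≤ 1 := by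
    have : η * Rr ^ 4 = Rr ^ 4 * η := mul_comm _ _
    rw [this]; linarith
  have hBas := bas_of (c := (K n).c) O (hk.ortho n) (hk.ok n) hE m1 m2' hOη η0.le (by linarith)
    (nr _ zz0) (hk.kp1 n) R1 (tvR 1) η0.le (by linarith)
    (by
      have : rh D n v / (K n).u.H ≤ 1 := by rw [hrh]; linarith [cv.2.1]
      rwa [div_le_one hHp] at this) (by linarith) (by linarith) YB
  -- curvature extent
  have hX9 : X ≤ D.B.d n ^ (ε / 2) / 10 ^ 9 := by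
    rw [le_div_iff₀ (by norm_num)]
    have e : D.B.d n ^ MX = D.B.d n ^ (ε / 2) * D.B.d n ^ (M + ε / 2 + 1) := by
      rw [← dpow_add]; congr 1; rw [hMX]; ring
    have e2 : D.B.d n ^ (M + ε / 2 + 1) ≤ D.B.d n ^ (2 : ℝ) := dpow_le D.B n (by linarith)
    have e3 : D.B.d n ^ (2 : ℝ) ≤ 1 / 10 ^ 6 * (1 / 10 ^ 6) := by
      have e4 : D.B.d n ^ (2 : ℝ) = D.B.d n ^ (1 : ℝ) * D.B.d n ^ (1 : ℝ) := by
        rw [← dpow_add]; norm_num
      rw [e4]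
      exact mul_le_mul hd1 hd1 (dp _).le (by norm_num)
    have e5 : D.B.d n ^ MX ≤ D.B.d n ^ (ε / 2) * (1 / 10 ^ 6 * (1 / 10 ^ 6)) := by
      rw [e]; exact mul_le_mul_of_nonneg_left (e2.trans e3) (dp _).le
    have := dp (ε / 2)
    nlinarith
  have up := ye_up (c := (K n).c) O2 hSQ (d1 (by linarith)) hX9 (hk.ortho n) (hk.ok n) (nr _ zz0)
    (hk.kp1 n) kp0 R1 (tvR 1) η0.le hRη' nu1 nu2
  set A := (mk4 D n v x).w 1 / (K n).u.WA with hA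
  have hA0 : 0 < A := div_pos (O.pos 1) hWA
  have hYe := O.Ye0
  have hup : D.B.d n ^ ε * ((mk4 D n v x).w 0 * kap b0 b1 G) ≤ (K n).u.WY * A ^ 2 := by
    have e : D.B.d n ^ ε = D.B.d n ^ (ε / 2) * D.B.d n ^ (ε / 2) := by
      rw [← dpow_add]; congr 1; ring
    have hp : 0 < (K n).u.WY * A ^ 2 := by positivity
    calc D.B.d n ^ ε * ((mk4 D n v x).w 0 * kap b0 b1 G) =
          D.B.d n ^ (ε / 2) * (D.B.d n ^ (ε / 2) * ((mk4 D n v x).w 0 * kap b0 b1 G)) := by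
            rw [e]; ring
      _ ≤ D.B.d n ^ (ε / 2) * (10 ^ 18 * ((K n).u.WY * A ^ 2)) :=
          mul_le_mul_of_nonneg_left up (dp _).le
      _ = 10 ^ 18 * D.B.d n ^ (ε / 2) * ((K n).u.WY * A ^ 2) := by ring
      _ ≤ 1 * ((K n).u.WY * A ^ 2) := mul_le_mul_of_nonneg_right k2 hp.le
      _ = _ := one_mul _
  have hbb : D.B.d n ^ (ε / 4) * A ^ 2 ≤
      rh D n v / (K n).u.H * ((mk4 D n v x).w 2 / (K n).u.WB) := by
    have b2 := bal.2
    have e : wBS D K n v = A ^ 2 / rhN D.lev (hzS K) n v := by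
      rw [hA, f4]; rfl
    have hr0 : 0 < rhN D.lev (hzS K) n v := lt_of_lt_of_le (dp _) cv.1
    rw [e] at b2
    rw [hrh, f5]
    have e3 : D.B.d n ^ (ε / 4) * D.B.d n ^ (-(ε / 4)) = 1 := by rw [← dpow_add]; simp
    have b3 := mul_le_mul_of_nonneg_left b2
      (div_nonneg (mul_nonneg (dp (ε / 4)).le hr0.le) hWB.le)
    have e4 : D.B.d n ^ (ε / 4) * rhN D.lev (hzS K) n v / (K n).u.WB *
        ((K n).u.WB * (A ^ 2 / rhN D.lev (hzS K) n v)) = D.B.d n ^ (ε / 4) * A ^ 2 := by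
      field_simp
    have e5 : D.B.d n ^ (ε / 4) * rhN D.lev (hzS K) n v / (K n).u.WB *
        (D.w 2 n v * D.B.d n ^ (-(ε / 4))) = (D.B.d n ^ (ε / 4) * D.B.d n ^ (-(ε / 4))) *
          (rhN D.lev (hzS K) n v * (D.w 2 n v / (K n).u.WB)) := by ring
    rw [e4, e5, e3, one_mul] at b3
    exact b3
  have low := ye_low (c := (K n).c) O2 hSQ (d1 (by linarith)) hX9 (hk.ortho n) (hk.ok n)
    (nr _ zz0) (hk.kp1 n) kp0 R1 (tvR 1) η0.le hRη' nu1 (dp (ε / 4)) hbb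
  have hlow : D.B.d n ^ ε * ((K n).u.WY * A ^ 2) ≤ (mk4 D n v x).w 0 * kap b0 b1 G := by
    refine cube_le (mul_nonneg (dp _).le (by positivity)) hYe.le ?_
    have e : (D.B.d n ^ ε * ((K n).u.WY * A ^ 2)) ^ 3 =
        D.B.d n ^ (5 * ε / 2) * ((D.B.d n ^ (ε / 4)) ^ 2 * ((K n).u.WY * A ^ 2) ^ 3) := by
      rw [mul_pow, ← mul_assoc]
      congr 1
      rw [← Real.rpow_natCast, ← Real.rpow_mul (D.B.pos n).le, ← Real.rpow_natCast,
        ← Real.rpow_mul (D.B.pos n).le, ← dpow_add]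
      congr 1; push_cast; ring
    rw [e]
    have k3 : D.B.d n ^ (5 * ε / 2) * 10 ^ 17 ≤ 1 := by
      have : D.B.d n ^ (5 * ε / 2) ≤ D.B.d n ^ (ε / 2) := dpow_le D.B n (by linarith)
      have := dp (ε / 2)
      linarith
    calc D.B.d n ^ (5 * ε / 2) * ((D.B.d n ^ (ε / 4)) ^ 2 * ((K n).u.WY * A ^ 2) ^ 3) ≤
          D.B.d n ^ (5 * ε / 2) * (10 ^ 17 * ((mk4 D n v x).w 0 * kap b0 b1 G) ^ 3) :=
          mul_le_mul_of_nonneg_left low (dp _).le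
      _ = D.B.d n ^ (5 * ε / 2) * 10 ^ 17 * ((mk4 D n v x).w 0 * kap b0 b1 G) ^ 3 := by ring
      _ ≤ 1 * ((mk4 D n v x).w 0 * kap b0 b1 G) ^ 3 :=
          mul_le_mul_of_nonneg_right k3 (pow_pos hYe 3).le
      _ = _ := one_mul _
  refine ⟨b0, b1, G, b0p, b1p, Gp, O, hE, m1, m2', hOη, nu1, nu2, nr _ zz0, hBas, hup, hlow,
    fun k => ⟨tpR k, tvR k⟩, zz0, X, hX0, hXη, ?_, hO⟩
  refine hX2.trans (mul_le_mul_of_nonneg_right (dpow_le D.B n (by linarith)) ?_)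
  exact mf0.1.le

/-- **`lev_data`** -/
theorem lev_data {p : Par4} {D : Dat4} {K : ℕ → CtD} {x0 : ℕ → ℕ × ℝ} (h : ThinW p D)
    (hk : StcK p D K x0) (C : ℝ) {v : ℚ} (v0 : 0 ≤ v) (v1 : v ≤ 1) :
    ∃ C2 : ℝ, 0 ≤ C2 ∧ ∀ ε : ℝ, 0 < ε → ∀ M : ℝ, 4 * C2 + 10 ≤ M →
      ∀ᶠ n in (U : Filter ℕ), ∀ x ∈ D.I n, Gd D K C n x →
        LvD D K n v x (D.B.d n ^ ε) (D.B.d n ^ (-C2)) (D.B.d n ^ M) :=
  lev_data_of h hk (sndLev_of h) C v0 v1

end Crest.Agent.R136.Stc321
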