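import Crest.Agent.R136.Lat1_327
import Crest.Agent.R136.Stc9_321
import Crest.Agent.R136.Stk4_464

/-!
# R136, U6 thin side, stage C (helper327): lateral extents of a class, part 2 (sequences)

`wA_bd` : the widths `wAS` are powers of `d`; `lev_num` : numerical hypotheses of `Lat1_327` from
321's `LvD`; **`lat_of`** : the field `lat` of `StcA`; `mate_bd` : the lines of a class are bounded.
-/

set_option autoImplicit false
set_option linter.unusedVariables false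

open Finset Filter Topology

namespace Crest.Agent.R136.Lat327

open Crest.Agent.R138
open Crest.Agent.R138.Ex926 (Base U)
open Crest.Agent.R138.Dp76 (dpow_pos dpow_add dpow_le dpow_le_one)
open Crest.Agent.R138.ArgM163 (ev_const)
open Crest.Agent.R138.Mk163 (zc zl rho alive)
open Crest.Agent.R138.MkRef627 (lc kc mem_alive)
open Crest.Agent.R136.MkA627
open Crest.Agent.R136.Sh605
open Crest.Agent.R136.K4
open Crest.Agent.R136.NetW191
open Crest.Agent.R136.GeoN778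
open Crest.Agent.R136.Wit321
open Crest.Agent.R136.Top484
open Crest.Agent.R136.Stc321
open Crest.Agent.R136.Stk464
open Crest.Agent.R136.Tl102 (QF kap)
open Crest.Agent.R136.Tlt51 (Close mk4 zx rh Shp InP)
open Crest.Agent.R136.KapP335 (kapP DetP kapP_eq)
open Crest.Agent.R136.Fw650 (z0N zhN rhN)
open Crest.Agent.R136.Thn768 (ThinW Own)
open Crest.Agent.R136.ArgA163 (tau_zero le_of_log)
open Crest.Agent.R136.Wcn464 (wid_le)

section

variable {p : Par4} {D : Dat4} {K : ℕ → CtD} {x0 : ℕ → ℕ × ℝ}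

/-- **the widths are powers of `d`** -/
theorem wA_bd (hD : MkA D.B D.I (D.G p) D.lev D.A (fun v => p.g * v) (fun v => 0 * v)
      (fun j v => p.θ j * (1 - v)) D.f D.b D.vm D.w) (hK : StcK p D K x0) {v : ℚ} (h0 : 0 ≤ v)
    (h1 : v ≤ 1) : ∀ᶠ n in (U : Filter ℕ),
      D.B.d n ^ (|1 - p.θ 1| + 2) ≤ wAS D K n v ∧
        wAS D K n v ≤ D.B.d n ^ (-(|1 - p.θ 1| + 2)) := by
  have ht := (tau_zero hD 1 h0 h1).eventually_lt_const
    (show (1 - p.θ 1) * (v : ℝ) < (1 - p.θ 1) * v + 1 by linarith)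
  filter_upwards [ht, wid_le hD 1 h0 h1, hD.wpos 1 v h0 h1, hD.wpos 1 0 le_rfl zero_le_one,
    hK.wid 1 one_pos] with n a1 a2 a3 a4 a5
  have dp := dpow_pos D.B n
  have hWA := (hK.ok n).A0
  have hge : D.w 1 n 0 ≤ D.w 1 n v * D.B.d n ^ (-(|1 - p.θ 1| + 1)) := by
    refine le_of_log a4 a3 ?_
    rw [Real.log_div a3.ne' a4.ne']
    have e : (Real.log (D.w 1 n v) - Real.log (D.w 1 n 0)) / D.B.L n =
        -((Real.log (D.w 1 n 0) - Real.log (D.w 1 n v)) / D.B.L n) := by ring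
    rw [e]
    refine neg_le_neg (a1.le.trans ?_)
    have v0 : (0 : ℝ) ≤ v := by exact_mod_cast h0
    have v1 : (v : ℝ) ≤ 1 := by exact_mod_cast h1
    have e := le_abs_self ((1 - p.θ 1) * (v : ℝ))
    rw [abs_mul, abs_of_nonneg v0] at e
    have : |1 - p.θ 1| * (v : ℝ) ≤ |1 - p.θ 1| * 1 :=
      mul_le_mul_of_nonneg_left v1 (abs_nonneg _)
    linarith
  show D.B.d n ^ (|1 - p.θ 1| + 2) ≤ D.w 1 n v / (K n).u.WA ∧
    D.w 1 n v / (K n).u.WA ≤ D.B.d n ^ (-(|1 - p.θ 1| + 2))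
  constructor
  · rw [le_div_iff₀ hWA]
    have e1 : D.B.d n ^ (1 : ℝ) * (K n).u.WA ≤ D.w 1 n v * D.B.d n ^ (-(|1 - p.θ 1| + 1)) :=
      a5.1.trans hge
    have e2 := mul_le_mul_of_nonneg_right e1 (dp (|1 - p.θ 1| + 1)).le
    have e3 : D.w 1 n v * D.B.d n ^ (-(|1 - p.θ 1| + 1)) * D.B.d n ^ (|1 - p.θ 1| + 1) =
        D.w 1 n v := by
      rw [mul_assoc, ← dpow_add, neg_add_cancel, Real.rpow_zero, mul_one]
    have e4 : D.B.d n ^ (1 : ℝ) * (K n).u.WA * D.B.d n ^ (|1 - p.θ 1| + 1) =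
        D.B.d n ^ (|1 - p.θ 1| + 2) * (K n).u.WA := by
      rw [mul_right_comm, ← dpow_add]; congr 2; ring
    rw [e3, e4] at e2
    exact e2
  · rw [div_le_iff₀ hWA]
    calc D.w 1 n v ≤ D.w 1 n 0 * D.B.d n ^ (-(|1 - p.θ 1| + 1)) := a2
      _ ≤ (D.B.d n ^ (-(1 : ℝ)) * (K n).u.WA) * D.B.d n ^ (-(|1 - p.θ 1| + 1)) :=
          mul_le_mul_of_nonneg_right a5.2.1 (dp _).le
      _ = _ := by rw [mul_right_comm, ← dpow_add]; congr 2; ring

/-- heights of a normal cell -/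
theorem exists_ht (hK : StcK p D K x0) (n : ℕ) (v : ℚ) (x : ℕ × ℝ) {z : ℝ}
    (z1 : z0N D.lev (hzS K) (zsS K) v n (zc (D.lev n v) x.2) ≤ z)
    (z2 : z ≤ z0N D.lev (hzS K) (zsS K) v n (zc (D.lev n v) x.2) + rhN D.lev (hzS K) n v) :
    ∃ Z, z = (K n).u.zh Z ∧ zx D n v x ≤ Z ∧ Z ≤ zx D n v x + rh D n v := by
  have hH := (hK.ok n).H0
  set zr : ℝ := (K n).u.zc + (K n).u.H * z with hzr
  have ez : (K n).u.zh zr = z := by
    simp only [Un.zh, hzr]; field_simp; ring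
  have eu := uzh_eq K n zr
  rw [ez] at eu
  have hz : 0 < hzS K n := one_div_pos.2 hH
  refine ⟨zr, ez.symm, ?_, ?_⟩
  · have q : hzS K n * zl (D.lev n v) (zc (D.lev n v) x.2) - zsS K n ≤
        hzS K n * zr - zsS K n := by rw [← eu]; exact z1
    refine le_of_mul_le_mul_left (a := hzS K n) ?_ hz
    show hzS K n * zl (D.lev n v) (zc (D.lev n v) x.2) ≤ hzS K n * zr
    linarith
  · have q : hzS K n * zr - zsS K n ≤
        (hzS K n * zl (D.lev n v) (zc (D.lev n v) x.2) - zsS K n) +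
          hzS K n * rho (D.lev n v) := by rw [← eu]; exact z2
    refine le_of_mul_le_mul_left (a := hzS K n) ?_ hz
    show hzS K n * zr ≤ hzS K n * (zl (D.lev n v) (zc (D.lev n v) x.2) + rho (D.lev n v))
    linarith

/-- **two lines of a class** -/
theorem pair_of (h : ThinW p D) (hK : StcK p D K x0) {C : ℝ} {v : ℚ} (h0 : 0 ≤ v) (h1 : v ≤ 1)
    {C2 : ℝ} (hL : ∀ ε : ℝ, 0 < ε → ∀ M : ℝ, 4 * C2 + 10 ≤ M → ∀ᶠ n in (U : Filter ℕ),
      ∀ x ∈ D.I n, Gd D K C n x →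
        LvD D K n v x (D.B.d n ^ ε) (D.B.d n ^ (-C2)) (D.B.d n ^ M)) :
    ∃ C' : ℝ, ∀ ε : ℝ, 0 < ε → ε ≤ 1 → ∀ᶠ n in (U : Filter ℕ), ∀ x ∈ D.I n, ∀ y ∈ D.I n,
      kc (D.lev n v) (D.f n v) y = kc (D.lev n v) (D.f n v) x → Gd D K C n x →
      (∀ k, |((K n).t (D.L n y.1)).p k| ≤ D.B.d n ^ (-C') ∧
        |((K n).t (D.L n y.1)).v k| ≤ D.B.d n ^ (-C')) ∧
      ∀ z, z0N D.lev (hzS K) (zsS K) v n (zc (D.lev n v) x.2) ≤ z →
      z ≤ z0N D.lev (hzS K) (zsS K) v n (zc (D.lev n v) x.2) + rhN D.lev (hzS K) n v →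
      |(LS D K n y.1).pos z 1 - (LS D K n x.1).pos z 1| ≤ wAS D K n v * D.B.d n ^ (-ε) ∧
      |((LS D K n y.1).pos z 2 - (LS D K n x.1).pos z 2) +
        2 * (K n).κ * (LS D K n x.1).v 1 *
          ((LS D K n y.1).pos z 1 - (LS D K n x.1).pos z 1)| ≤ wBS D K n v * D.B.d n ^ (-ε) := by
  have v0 : (0 : ℝ) ≤ v := by exact_mod_cast h0
  set E : ℝ := |C2| + (|1 - p.θ 1| + 2) + (v + 1) with hE
  have b1 := abs_nonneg C2
  have b2 := abs_nonneg (1 - p.θ 1)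
  have b3 := le_abs_self C2
  have hE0 : 0 < E := by rw [hE]; linarith
  refine ⟨6 * E + 1, fun ε hε hε1 => ?_⟩
  have hε2 : 0 < ε / 2 := by linarith
  filter_upwards [hL (ε / 2) hε2 (22 * E + 2) (by rw [hE]; linarith), mk_facts h.mka h0 h1, h.thin v h0 h1 1,
    cell_v h.mka hK h0 h1, wA_bd h.mka hK h0 h1, hK.sm (22 * E + 2),
    ev_const D.B (C := 10 ^ 24) (by norm_num) one_pos,
    ev_const D.B (C := 549) (by norm_num) hε2] with n c1 c2 c3 c4 c5 c6 c7 c8 x hx y hy hxy hg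
  obtain ⟨m0, m⟩ := c2
  obtain ⟨m1, m2', m3, m4, m5⟩ := m x hx
  obtain ⟨m1y, -, -, -, -⟩ := m y hy
  have em : mk4 D n v y = mk4 D n v x := congrArg (fun c : ℕ × ℤ => D.b n v c.1) hxy
  have ez : zx D n v y = zx D n v x := congrArg (fun c : ℕ × ℤ => zl (D.lev n v) c.2) hxy
  rw [em, ez] at m1y
  obtain ⟨b0, b1', G, b0p, b1p, Gp, O, -, -, -, -, ν1, ν2, -, hB, y1, -, tb, z1, -⟩ :=
    (c1 x hx hg).ex
  have dp := dpow_pos D.B n
  have hH := (hK.ok n).H0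
  have hWY := (hK.ok n).Y0
  set R : ℝ := D.B.d n ^ (-E) with hR
  set η : ℝ := D.B.d n ^ (22 * E + 2) with hη
  set δ : ℝ := D.B.d n ^ (ε / 2) with hδ
  have η0 : 0 < η := dp _
  have R1 : 1 ≤ R := Real.one_le_rpow_of_pos_of_le_one_of_nonpos (D.B.pos n) (D.B.lt n).le
    (by linarith)
  have e1 : D.B.d n ^ (1 : ℝ) * D.B.d n ^ (-(1 : ℝ)) = 1 := by rw [← dpow_add]; simp
  have ed : 10 ^ 24 * D.B.d n ^ (1 : ℝ) ≤ 1 := by
    have := mul_le_mul_of_nonneg_left c7 (dp 1).le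
    linarith
  have eR : R ^ 22 = D.B.d n ^ (-(22 * E)) := by
    rw [hR, ← Real.rpow_mul_natCast (D.B.pos n).le]; congr 1; push_cast; ring
  have eη : 10 ^ 24 * (η * R ^ 22) ≤ 1 := by
    have e2 : η * R ^ 22 = D.B.d n ^ (2 : ℝ) := by
      rw [eR, hη, ← dpow_add]; congr 1; ring
    rw [e2]
    have : D.B.d n ^ (2 : ℝ) ≤ D.B.d n ^ (1 : ℝ) := dpow_le D.B n (by norm_num)
    linarith
  have hge : ∀ {a t : ℝ}, a ≤ E → D.B.d n ^ a ≤ t → 1 ≤ R * t := by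
    intro a t ha ht
    have e3 : (1 : ℝ) ≤ R * D.B.d n ^ a := by
      rw [hR, ← dpow_add]
      exact Real.one_le_rpow_of_pos_of_le_one_of_nonpos (D.B.pos n) (D.B.lt n).le (by linarith)
    exact e3.trans (mul_le_mul_of_nonneg_left ht (dp _).le)
  have hRC : D.B.d n ^ (-C2) ≤ R := dpow_le D.B n (by rw [hE]; linarith)
  have hRη : 40 * (R * η) ≤ 1 := by
    have e2 : R ≤ R ^ 22 := le_self_pow₀ R1 (by norm_num)
    have := mul_le_mul_of_nonneg_left e2 η0.le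
    have : 0 < η * R ^ 22 := by positivity
    nlinarith
  have hB' := bas_mono hB hRC hRη
  have hρH : rh D n v / (K n).u.H = rhN D.lev (hzS K) n v := by
    show rho (D.lev n v) / (K n).u.H = 1 / (K n).u.H * rho (D.lev n v)
    ring
  have hAe : (mk4 D n v x).w 1 / (K n).u.WA = wAS D K n v := by rw [m4]; rfl
  -- hypotheses
  have hk := O.k0
  have hthin : 8 * (mk4 D n v x).a ≤ (mk4 D n v x).w 0 * kap b0 b1' G := by
    have k := c3 x hx
    rw [kapP_eq (O.pos 0).ne' O.exp] at k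
    have hpos : 0 < (mk4 D n v x).w 0 * kap b0 b1' G := O.Ye0
    have := mul_le_mul_of_nonneg_right ed hpos.le
    have e4 : 0 < D.B.d n ^ (1 : ℝ) * ((mk4 D n v x).w 0 * kap b0 b1' G) := mul_pos (dp _) hpos
    have e5 : 8 * (D.B.d n ^ (1 : ℝ) * ((mk4 D n v x).w 0 * kap b0 b1' G)) ≤
        10 ^ 24 * D.B.d n ^ (1 : ℝ) * ((mk4 D n v x).w 0 * kap b0 b1' G) := by
      have : 10 ^ 24 * D.B.d n ^ (1 : ℝ) * ((mk4 D n v x).w 0 * kap b0 b1' G) =
        10 ^ 24 * (D.B.d n ^ (1 : ℝ) * ((mk4 D n v x).w 0 * kap b0 b1' G)) := by ring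
      rw [this]; linarith
    linarith
  have hν : 0 < |((K n).Q (mk4 D n 0 x).q).b 0| := by linarith
  have hY : δ * ((mk4 D n v x).w 0 * kap b0 b1' G / |((K n).Q (mk4 D n 0 x).q).b 0|) ≤
      8 * ((mk4 D n v x).w 1 / (K n).u.WA) ^ 2 := by
    rw [mul_div_assoc', div_le_iff₀ hν]
    refine y1.trans ?_
    have : 0 ≤ ((mk4 D n v x).w 1 / (K n).u.WA) ^ 2 := sq_nonneg _
    have := mul_le_mul_of_nonneg_right ν1 this
    linarith
  have hδ1 : δ ≤ 1 := dpow_le_one D.B n hε2.le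
  have hRδ : 1 ≤ R * δ := hge (a := ε / 2) (by rw [hE]; linarith) le_rfl
  have hA : (mk4 D n v x).w 1 / (K n).u.WA ≤ R := by
    rw [hAe]
    exact c5.2.trans (dpow_le D.B n (by rw [hE]; linarith))
  have hA' : 1 ≤ R * ((mk4 D n v x).w 1 / (K n).u.WA) := by
    rw [hAe]
    exact hge (by rw [hE]; linarith) c5.1
  have hrh : 1 ≤ R * (rh D n v / (K n).u.H) := by
    rw [hρH]
    exact hge (by rw [hE]; linarith) c4.1
  have hp : ∀ k, |(ul (K n).u (rl (K n).f (K n).c (D.L n x.1))).p k| ≤ R :=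
    fun k => (tb k).1.trans hRC
  have hv : ∀ k, |(ul (K n).u (rl (K n).f (K n).c (D.L n x.1))).v k| ≤ R :=
    fun k => (tb k).2.trans hRC
  have hm := (mate_fin (T2 := D.L n y.1) O m2' m1 m1y hthin (hK.ok n) hB' hY hδ1 hRδ hA hA' hrh
    hp hv z1 eη).2
  have hC' : 4 * 10 ^ 6 * R ^ 6 ≤ D.B.d n ^ (-(6 * E + 1)) := by
    have e6 : R ^ 6 = D.B.d n ^ (-(6 * E)) := by
      rw [hR, ← Real.rpow_mul_natCast (D.B.pos n).le]; congr 1; push_cast; ring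
    have e7 : D.B.d n ^ (-(6 * E + 1)) = D.B.d n ^ (-(1 : ℝ)) * D.B.d n ^ (-(6 * E)) := by
      rw [← dpow_add]; congr 1; ring
    rw [e6, e7]
    exact mul_le_mul_of_nonneg_right (le_trans (by norm_num) c7) (dp _).le
  refine ⟨fun k => ⟨(hm k).1.trans hC', (hm k).2.trans hC'⟩, fun z zl zr => ?_⟩
  obtain ⟨Z, rfl, hZ, hZ'⟩ := exists_ht hK n v x zl zr
  obtain ⟨l1, l2⟩ := lat_fin (T2 := D.L n y.1) O m2' m1 m1y hthin (hK.ok n) hB' hY hδ1 hRδ hA hA'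
    hrh hp hv z1 c6 eη hZ hZ' (c4.2.2 x hx _ zl zr)
  have k8 : (549 : ℝ) ≤ D.B.d n ^ (-(ε / 2)) := c8
  have d2 : D.B.d n ^ (-(ε / 2)) ≤ D.B.d n ^ (-ε) := dpow_le D.B n (by linarith)
  have hA0 : 0 < (mk4 D n v x).w 1 / (K n).u.WA := hB'.A1p
  constructor
  · refine l1.trans ?_
    rw [← hAe]
    have : (14 : ℝ) ≤ D.B.d n ^ (-ε) := by linarith
    have := mul_le_mul_of_nonneg_left this hA0.le
    linarith
  · refine l2.trans ?_
    have e8 : wBS D K n v = ((mk4 D n v x).w 1 / (K n).u.WA) ^ 2 / (rh D n v / (K n).u.H) := by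
      rw [hρH, hAe]; rfl
    rw [← e8]
    have hW0 : 0 < wBS D K n v := by
      rw [e8]
      exact div_pos (by positivity) hB'.rh0
    have e9 : D.B.d n ^ (-ε) = D.B.d n ^ (-(ε / 2)) * D.B.d n ^ (-(ε / 2)) := by
      rw [← dpow_add]; congr 1; ring
    have e10 : D.B.d n ^ (-(ε / 2)) * δ = 1 := by
      rw [hδ, ← dpow_add, neg_add_cancel, Real.rpow_zero]
    rw [e9, mul_div_assoc', div_le_iff₀ (dp _)]
    have e11 : wBS D K n v * (D.B.d n ^ (-(ε / 2)) * D.B.d n ^ (-(ε / 2))) * δ =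
        D.B.d n ^ (-(ε / 2)) * wBS D K n v := by
      calc _ = D.B.d n ^ (-(ε / 2)) * wBS D K n v * (D.B.d n ^ (-(ε / 2)) * δ) := by ring
        _ = _ := by rw [e10, mul_one]
    rw [e11]
    exact mul_le_mul_of_nonneg_right k8 hW0.le

/-- **lateral extents of the marks in normal coordinates** : the field `lat` of `StcA` -/
theorem lat_of (h : ThinW p D) (hK : StcK p D K x0) :
    ∀ C : ℝ, ∀ v : ℚ, 0 ≤ v → v ≤ 1 → ∀ ε : ℝ, 0 < ε → ∀ᶠ n in (U : Filter ℕ),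
    ∀ x ∈ D.I n, ∀ y ∈ D.I n, kc (D.lev n v) (D.f n v) y = kc (D.lev n v) (D.f n v) x →
      Gd D K C n x → ∀ z, z0N D.lev (hzS K) (zsS K) v n (zc (D.lev n v) x.2) ≤ z →
      z ≤ z0N D.lev (hzS K) (zsS K) v n (zc (D.lev n v) x.2) + rhN D.lev (hzS K) n v →
      |(LS D K n y.1).pos z 1 - (LS D K n x.1).pos z 1| ≤ wAS D K n v * D.B.d n ^ (-ε) ∧
      |((LS D K n y.1).pos z 2 - (LS D K n x.1).pos z 2) +
        2 * (K n).κ * (LS D K n x.1).v 1 *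
          ((LS D K n y.1).pos z 1 - (LS D K n x.1).pos z 1)| ≤ wBS D K n v * D.B.d n ^ (-ε) := by
  intro C v h0 h1 ε hε
  obtain ⟨C2, -, hL⟩ := lev_data h hK C h0 h1
  obtain ⟨C', hp⟩ := pair_of h hK h0 h1 hL
  filter_upwards [hp (min ε 1) (lt_min hε one_pos) (min_le_right _ _), cell_v h.mka hK h0 h1,
    wA_bd h.mka hK h0 h1] with n a1 a2 a3 x hx y hy hxy hg z z1 z2
  obtain ⟨k1, k2⟩ := (a1 x hx y hy hxy hg).2 z z1 z2
  have dp := dpow_pos D.B n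
  have hA : 0 < wAS D K n v := lt_of_lt_of_le (dp _) a3.1
  have hr : 0 < rhN D.lev (hzS K) n v := lt_of_lt_of_le (dp _) a2.1
  have hB : 0 < wBS D K n v := by
    show 0 < wAS D K n v ^ 2 / rhN D.lev (hzS K) n v
    positivity
  have hd : D.B.d n ^ (-(min ε 1)) ≤ D.B.d n ^ (-ε) :=
    dpow_le D.B n (neg_le_neg (min_le_left _ _))
  exact ⟨k1.trans (mul_le_mul_of_nonneg_left hd hA.le),
    k2.trans (mul_le_mul_of_nonneg_left hd hB.le)⟩

/-- **the lines of a class are bounded** -/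
theorem mate_bd (h : ThinW p D) (hK : StcK p D K x0) :
    ∀ C : ℝ, ∀ v : ℚ, 0 ≤ v → v ≤ 1 → ∃ C' : ℝ, ∀ᶠ n in (U : Filter ℕ), ∀ x ∈ D.I n,
    ∀ y ∈ D.I n, kc (D.lev n v) (D.f n v) y = kc (D.lev n v) (D.f n v) x → Gd D K C n x →
      ∀ k, |((K n).t (D.L n y.1)).p k| ≤ D.B.d n ^ (-C') ∧
        |((K n).t (D.L n y.1)).v k| ≤ D.B.d n ^ (-C') := by
  intro C v h0 h1
  obtain ⟨C2, -, hL⟩ := lev_data h hK C h0 h1
  obtain ⟨C', hp⟩ := pair_of h hK h0 h1 hL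
  refine ⟨C', ?_⟩
  filter_upwards [hp 1 one_pos le_rfl] with n a1 x hx y hy hxy hg
  exact (a1 x hx y hy hxy hg).1

end

end Crest.Agent.R136.Lat327
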