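import Crest.Agent.R136.StcL_321
import Crest.Agent.R136.Szo_327
import Crest.Agent.R136.Stk4_464

/-!
# R136, U6 thin side, stage C (helper464): level lemmas of `StcA`, flags of all levels

* `om_sz` : all coefficients of the difference of two sheets (container coordinates);
* `flags_v` : flags of one sheet from those of the other;
* `Mb_of` : the field `Mb` of `StcA` from `ThinW`, `StcK` and the level data `LvD`.
-/

set_option autoImplicit false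
set_option linter.unusedVariables false

open Finset Filter Topology

namespace Crest.Agent.R136.Stk464

open Crest.Agent.R138
open Crest.Agent.R138.Ex926 (Base U)
open Crest.Agent.R138.Dp76 (dpow_pos dpow_add dpow_le dpow_le_one)
open Crest.Agent.R138.ArgM163 (ev_const)
open Crest.Agent.R138.Mk163 (zc zl rho alive)
open Crest.Agent.R138.MkRef627 (lc kc mem_alive)
open Crest.Agent.R136.MkA627
open Crest.Agent.R136.Sh605
open Crest.Agent.R136.NetW191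
open Crest.Agent.R136.GeoN778
open Crest.Agent.R136.Wit321
open Crest.Agent.R136.Top484
open Crest.Agent.R136.Stc321
open Crest.Agent.R136.Tl102 (QF kap Fq bz cmb fr IsExp OmB)
open Crest.Agent.R136.Tlt51 (Close mk4 zx rh Shp InP)
open Crest.Agent.R136.KapP335 (kapP DetP kapP_eq)
open Crest.Agent.R136.Fw650 (z0N zhN rhN)
open Crest.Agent.R136.Thn768 (ThinW Frm Cont Own Snd Tay D3 nm cr exists_tay abs_dt_unit nm_le_sum)
open Crest.Agent.R136.ArgA163 (tau_zero le_of_log)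

/-- symmetric coefficients in container coordinates -/
theorem hatQ_sym {f : Fin 3 → V3} {c : Ln4} {u : Un} {Q : Qd} (h : ∀ i j, Q.g i j = Q.g j i)
    (i j : Fin 3) : (hatQ f c u Q).g i j = (hatQ f c u Q).g j i := by
  have h01 := h 0 1
  have h02 := h 0 2
  have h12 := h 1 2
  simp only [hatQ, unQ, movQ, Qd.scl, Fin.sum_univ_three, ← h01, ← h02, ← h12]
  rw [mul_comm (1 / u.W j) (1 / u.W i)]
  ring

/-- **size of the difference of the functions of two sheets** -/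
theorem om_sz {S : K4.Plk4} {T : Ln4} {z0 ρ δ : ℝ} {b0 b1 : V3} {G : QF}
    (O : Own S T z0 ρ δ b0 b1 G) {f : Fin 3 → V3} (hf : Ortho f) {c : Ln4} {u : Un} (hu : u.Ok)
    {Q2 Qv : Qd} (hQ : S.q = Qv.ev) (s2 : ∀ i j, Q2.g i j = Q2.g j i)
    (sv : ∀ i j, Qv.g i j = Qv.g j i) {b0' b1' : V3} {G' : QF}
    (hE : IsExp Q2.ev S.e S.w T z0 ρ b0' b1' G') {X : ℝ} (hX0 : 0 ≤ X)
    (hO : OmB (kap b0 b1 G) X X X b0 b1 G b0' b1' G')
    {gg gg' : V3} {κ v1 R η Y X' A1 A2 α : ℝ}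
    (hB : Bas gg gg' (φb f u S.e S.w (kap b0 b1 G) b0) κ v1 R η (ρ / u.H) Y X' A1 A2 α)
    (hp : ∀ k, |(ul u (rl f c T)).p k| ≤ R) (hv : ∀ k, |(ul u (rl f c T)).v k| ≤ R)
    (hz : |u.zh z0| ≤ R) {K τm : ℝ} (hK : S.w 0 * kap b0 b1 G * X ≤ K)
    (hc : ∀ z, z0 ≤ z → z ≤ z0 + ρ → |Q2.ev z (T.pos z) - b0' 0 / b0 0 * Qv.ev z (T.pos z)| ≤ K)
    (hτ : 1200 * (1 * (200 * Y + Bas.sz R (ρ / u.H) Y A1) ^ 2) / (Y * α) ≤ τm) (hτ1 : 1 ≤ τm) :
    Sz (hatQ f c u (omq (b0' 0 / b0 0) Q2 Qv))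
      (10 ^ 4 * R ^ 4 * (18 * (K * τm ^ 2) / (ρ / u.H)) / (ρ / u.H) ^ 2) := by
  have hrh := hB.rh0
  have hrh1 := hB.rh1
  have hH := hu.H0
  have w0 := O.pos 0
  have hk := O.k0
  obtain ⟨n1, n2, -⟩ := NrmC.base O.nrm
  have hb0 : b0 0 ≠ 0 := by linarith
  have hEv : IsExp Qv.ev S.e S.w T z0 ρ b0 b1 G := by rw [← hQ]; exact O.exp
  set W := hatQ f c u (omq (b0' 0 / b0 0) Q2 Qv) with hW
  have hX : 0 ≤ S.w 0 * kap b0 b1 G * X := by positivity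
  have hK0 : 0 ≤ K := hX.trans hK
  have hsW : ∀ i j, W.g i j = W.g j i := by
    refine hatQ_sym fun i j => ?_
    simp only [omq, dif, Wit321.mul]
    rw [s2 i j, sv i j]
  obtain ⟨c1, c2, c3⟩ := coef_of_basis (W := W) hsW (t := ul u (rl f c T)) (z1 := u.zh z0) hrh
    (φ := φb f u S.e S.w (kap b0 b1 G) b0) (K := K) (τm := τm) hK0
    (fun i => ((om_basis (c := c) hf hu w0 hk hb0 hEv hE hX0 hO i).1).trans hK)
    (fun i => ((om_basis (c := c) hf hu w0 hk hb0 hEv hE hX0 hO i).2).trans hK)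
    (fun τ V B hV hτ => by
      refine (om_hes (c := c) hf hu w0 hk hb0 hEv hE hX0 hO hV hτ).trans ?_
      have := mul_le_mul_of_nonneg_right hK (sq_nonneg B)
      linarith)
    (fun V hV => by
      obtain ⟨τ, h⟩ := exists_τ hf O.ortho hu (b0 := b0) (fun k => (O.pos k).ne') hk.ne' V
      exact ⟨τ, fun k => (hB.inv h hV k).trans hτ, h⟩)
  have q0 : 0 ≤ K * τm ^ 2 := by positivity
  have q1 : K * τm ≤ K * τm ^ 2 := mul_le_mul_of_nonneg_left (by nlinarith) hK0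
  have q2 : 18 * (K * τm ^ 2) ≤ 18 * (K * τm ^ 2) / (ρ / u.H) := by
    rw [le_div_iff₀ hrh]
    have := mul_le_mul_of_nonneg_left hrh1 (show 0 ≤ 18 * (K * τm ^ 2) by positivity)
    linarith
  have q3 : K ≤ K * τm := by
    have := mul_le_mul_of_nonneg_left hτ1 hK0
    linarith
  refine Szo327.sz_of hsW (t := ul u (rl f c T)) (z1 := u.zh z0) (α := u.zh z0) hB.R1 hp hv hz
    (fun k => (c1 k).trans (by linarith)) (fun k => (c2 k).trans ?_)
    (fun i j => (c3 i j).trans (by linarith)) hrh hrh1 hz (fun z z1 z2 => ?_)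
  · refine div_le_div_of_nonneg_right ?_ hrh.le
    linarith
  · set zr : ℝ := u.zc + u.H * z with hzr
    have ez : u.zh zr = z := by
      simp only [Un.zh, hzr]; field_simp; ring
    have e := hatQ_line hf c hu (omq (b0' 0 / b0 0) Q2 Qv) zr T
    rw [ez] at e
    rw [hW, e, omq_ev]
    refine (hc zr ?_ ?_).trans (by linarith)
    · have : (z0 - u.zc) / u.H ≤ z := z1
      rw [div_le_iff₀ hH] at this
      rw [hzr]; linarith
    · have : z ≤ (z0 - u.zc) / u.H + ρ / u.H := z2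
      rw [← add_div, le_div_iff₀ hH] at this
      rw [hzr]; linarith

/-- sizes in normal coordinates -/
theorem pull_sz {P : Pj} {η Kw : ℝ} (hP : P.Sm η) (hη : 12 * η ≤ 1) {W : Qd} (hW : Sz W Kw) {κ : ℝ}
    (hκ : |κ| ≤ 1) : |(pullQ P W).b 0| ≤ 2 * Kw ∧ ∀ k, |rem κ (pullQ P W) k| ≤ 4 * Kw := by
  have hm : (0 : ℝ) ≤ Kw := (abs_nonneg _).trans hW.c0
  have hη0 := hP.nn
  have h := pullQ_cl hP (by linarith) hW
  have hle : 12 * (η * Kw) ≤ Kw := by nlinarith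
  have ad : ∀ {a b : ℝ}, |a - b| ≤ 12 * (η * Kw) → |b| ≤ Kw → |a| ≤ 2 * Kw := by
    intro a b h1 h2
    have e : a = (a - b) + b := by ring
    rw [e]
    exact (abs_add_le _ _).trans (by linarith)
  have kb : ∀ i, |(pullQ P W).b i| ≤ 2 * Kw := fun i => ad (h.b i) (hW.b i)
  have kd : ∀ i, |(pullQ P W).d i| ≤ 2 * Kw := fun i => ad (h.d i) (hW.d i)
  have kg : ∀ i j, |(pullQ P W).g i j| ≤ 2 * Kw := fun i j => ad (h.g i j) (hW.g i j)
  have k0 : |(pullQ P W).c0| ≤ 2 * Kw := ad h.c0 hW.c0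
  have k1 : |(pullQ P W).c1| ≤ 2 * Kw := ad h.c1 hW.c1
  have k2 : |(pullQ P W).c2| ≤ 2 * Kw := ad h.c2 hW.c2
  refine ⟨kb 0, fun k => ?_⟩
  have one : ∀ {x : ℝ}, |x| ≤ 2 * Kw → |x| ≤ 4 * Kw := fun h => h.trans (by linarith)
  have two : ∀ {x y : ℝ}, |x| ≤ 2 * Kw → |y| ≤ 2 * Kw → |x + y| ≤ 4 * Kw :=
    fun h h' => (abs_add_le _ _).trans (by linarith)
  fin_cases k
  · exact one (kg 0 0)
  · exact two (kg 0 2) (kg 2 0)
  · exact two (kg 0 1) (kg 1 0)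
  · exact one (kg 2 2)
  · exact one (kd 0)
  · exact two (kg 1 2) (kg 2 1)
  · refine two (kg 1 1) ?_
    rw [abs_mul]
    calc |κ| * |(pullQ P W).b 0| ≤ 1 * (2 * Kw) :=
          mul_le_mul hκ (kb 0) (abs_nonneg _) zero_le_one
      _ = _ := one_mul _
  · exact two (kd 2) (kb 0)
  · exact one (kd 1)
  · exact one k2
  · exact one (kb 2)
  · exact one (kb 1)
  · exact one k1
  · exact one k0

/-- **flags of a sheet from the flags of another one** -/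
theorem flags_v {P : Pj} {η : ℝ} (hP : P.Sm η) (hη : 12 * η ≤ 1) {f : Fin 3 → V3} {c : Ln4} {u : Un}
    {Q0 Qv : Qd} {κ σ m Kw Γ WY : ℝ} (hκ : |κ| ≤ 1) (hσ : 0 < σ) (hWY : 0 < WY)
    (hW : Sz (hatQ f c u (omq m Q0 Qv)) Kw) (m1 : 1 / 16 ≤ |m|) (m2 : |m| ≤ 16)
    (hν1 : WY / 8 ≤ |(pullQ P (hatQ f c u Q0)).b 0|)
    (hν2 : |(pullQ P (hatQ f c u Q0)).b 0| ≤ 8 * WY)
    (hΓ : ∀ k, |flg κ σ (pullQ P (hatQ f c u Q0)) k| ≤ Γ) (hKw : 100 * Kw ≤ WY) :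
    WY / 200 ≤ |(pullQ P (hatQ f c u Qv)).b 0| ∧
      ∀ k, |flg κ σ (pullQ P (hatQ f c u Qv)) k| ≤ 3200 * (8 * Γ + 4 * (Kw / (WY * σ))) := by
  obtain ⟨w1, w2⟩ := pull_sz hP hη hW hκ
  have e0 : hatQ f c u (omq m Q0 Qv) = dif (hatQ f c u Q0) (Wit321.mul m (hatQ f c u Qv)) :=
    Szo327.dif_mul_hat f c u m Q0 Qv
  rw [e0] at w1 w2
  rw [Szo327.b_pull_lin] at w1
  set A := pullQ P (hatQ f c u Q0) with hA
  set B := pullQ P (hatQ f c u Qv) with hB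
  have mp : 0 < |m| := by linarith
  have hν : A.b 0 ≠ 0 := by
    intro e; rw [e, abs_zero] at hν1; linarith
  have k1 : WY / 10 ≤ |m| * |B.b 0| := by
    rw [← abs_mul]
    have h1 := abs_sub_abs_le_abs_sub (A.b 0) (m * B.b 0)
    linarith
  have k2 : WY / 200 ≤ |B.b 0| := by
    have := mul_le_mul_of_nonneg_right m2 (abs_nonneg (B.b 0))
    linarith
  have hB0 : B.b 0 ≠ 0 := by
    intro e; rw [e, abs_zero] at k2; linarith
  refine ⟨k2, ?_⟩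
  refine flg_le_of_rem hσ hB0 fun k => ?_
  have r1 := rem_le_of_flg hσ hν hΓ k
  have r2 := w2 k
  rw [Szo327.rem_pull_lin] at r2
  have hΓ0 : 0 ≤ Γ := (abs_nonneg _).trans (hΓ 0)
  have hKw0 : 0 ≤ Kw := (abs_nonneg _).trans hW.c0
  have r3 : |m * rem κ B k| ≤ |A.b 0| * (σ * Γ) + 4 * Kw := by
    have e : m * rem κ B k = rem κ A k - (rem κ A k - m * rem κ B k) := by ring
    rw [e]
    exact (abs_sub _ _).trans (add_le_add r1 r2)
  rw [abs_mul] at r3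
  have r4 : |rem κ B k| ≤ 16 * (8 * WY * (σ * Γ) + 4 * Kw) := by
    have h1 := mul_le_mul_of_nonneg_right m1 (abs_nonneg (rem κ B k))
    have h2 := mul_le_mul_of_nonneg_right hν2 (mul_nonneg hσ.le hΓ0)
    linarith
  refine r4.trans ?_
  have e2 : σ * (3200 * (8 * Γ + 4 * (Kw / (WY * σ)))) = 3200 * (8 * (σ * Γ) + 4 * Kw / WY) := by
    field_simp
  rw [e2]
  have h3 : 0 ≤ 3200 * (8 * (σ * Γ) + 4 * Kw / WY) := by positivity
  have h4 := mul_le_mul_of_nonneg_right k2 h3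
  refine le_trans (le_of_eq ?_) h4
  field_simp
  ring

/-- **the other direction** -/
theorem flags_0 {P : Pj} {η : ℝ} (hP : P.Sm η) (hη : 12 * η ≤ 1) {f : Fin 3 → V3} {c : Ln4} {u : Un}
    {Q0 Qv : Qd} {κ σ m Kw Γ WY : ℝ} (hκ : |κ| ≤ 1) (hσ : 0 < σ) (hWY : 0 < WY)
    (hW : Sz (hatQ f c u (omq m Q0 Qv)) Kw) (m1 : 1 / 16 ≤ |m|) (m2' : |m| ≤ 16)
    (hν1 : WY / 200 ≤ |(pullQ P (hatQ f c u Qv)).b 0|)
    (hν2 : |(pullQ P (hatQ f c u Qv)).b 0| ≤ 200 * WY)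
    (hΓ : ∀ k, |flg κ σ (pullQ P (hatQ f c u Qv)) k| ≤ Γ) (hKw : 10 ^ 4 * Kw ≤ WY) :
    WY / 10 ^ 4 ≤ |(pullQ P (hatQ f c u Q0)).b 0| ∧
      ∀ k, |flg κ σ (pullQ P (hatQ f c u Q0)) k| ≤
        10 ^ 4 * (3200 * Γ + 4 * (Kw / (WY * σ))) := by
  obtain ⟨w1, w2⟩ := pull_sz hP hη hW hκ
  have e0 : hatQ f c u (omq m Q0 Qv) = dif (hatQ f c u Q0) (Wit321.mul m (hatQ f c u Qv)) :=
    Szo327.dif_mul_hat f c u m Q0 Qv
  rw [e0] at w1 w2
  rw [Szo327.b_pull_lin] at w1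
  set A := pullQ P (hatQ f c u Q0) with hA
  set B := pullQ P (hatQ f c u Qv) with hB
  have mp : 0 < |m| := by linarith
  have hν : B.b 0 ≠ 0 := by
    intro e; rw [e, abs_zero] at hν1; linarith
  have k1 : WY / 3200 ≤ |m * B.b 0| := by
    rw [abs_mul]
    calc WY / 3200 = 1 / 16 * (WY / 200) := by ring
      _ ≤ |m| * |B.b 0| := mul_le_mul m1 hν1 (by positivity) (abs_nonneg _)
  have k2 : WY / 10 ^ 4 ≤ |A.b 0| := by
    have h1 := abs_sub_abs_le_abs_sub (m * B.b 0) (A.b 0)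
    rw [abs_sub_comm] at h1
    have h2 : WY / 3200 - 2 * Kw ≤ |A.b 0| := by linarith
    have h3 : WY / 10 ^ 4 + 2 * (WY / 10 ^ 4) ≤ WY / 3200 := by linarith
    have h4 : Kw ≤ WY / 10 ^ 4 := by
      rw [le_div_iff₀ (by norm_num)]; linarith
    linarith
  have hA0 : A.b 0 ≠ 0 := by
    intro e
    rw [e, abs_zero] at k2
    have : 0 < WY / 10 ^ 4 := by positivity
    linarith
  refine ⟨k2, ?_⟩
  refine flg_le_of_rem hσ hA0 fun k => ?_
  have r1 := rem_le_of_flg hσ hν hΓ k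
  have r2 := w2 k
  rw [Szo327.rem_pull_lin] at r2
  have hΓ0 : 0 ≤ Γ := (abs_nonneg _).trans (hΓ 0)
  have hKw0 : 0 ≤ Kw := (abs_nonneg _).trans hW.c0
  have r3 : |rem κ A k| ≤ 16 * (200 * WY * (σ * Γ)) + 4 * Kw := by
    have e : rem κ A k = m * rem κ B k + (rem κ A k - m * rem κ B k) := by ring
    rw [e]
    refine (abs_add_le _ _).trans (add_le_add ?_ r2)
    rw [abs_mul]
    refine mul_le_mul m2' ?_ (abs_nonneg _) (by norm_num)
    exact r1.trans (mul_le_mul_of_nonneg_right hν2 (mul_nonneg hσ.le hΓ0))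
  refine r3.trans ?_
  have e2 : σ * (10 ^ 4 * (3200 * Γ + 4 * (Kw / (WY * σ)))) =
      10 ^ 4 * (3200 * (σ * Γ) + 4 * Kw / WY) := by
    field_simp
  rw [e2]
  have h3 : 0 ≤ 10 ^ 4 * (3200 * (σ * Γ) + 4 * Kw / WY) := by positivity
  have h4 := mul_le_mul_of_nonneg_right k2 h3
  refine le_trans (le_of_eq ?_) h4
  field_simp
  ring

/-- cells are nested -/
theorem cell_nest {i j : ℕ} (h : i ≤ j) (z : ℝ) : zl i (zc i z) ≤ zl j (zc j z) ∧
    zl j (zc j z) + rho j ≤ zl i (zc i z) + rho i := by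
  have hp : (0:ℝ) < 2 ^ i := by positivity
  have hq : (0:ℝ) < 2 ^ j := by positivity
  have e0 : (2:ℝ) ^ j = 2 ^ (j - i) * 2 ^ i := by rw [← pow_add]; congr 1; omega
  have e1 : 2 ^ (j - i) * zc i z ≤ zc j z := by
    unfold zc
    rw [Int.le_floor]
    push_cast
    rw [e0, mul_assoc]
    exact mul_le_mul_of_nonneg_left (Int.floor_le _) (by positivity)
  have e2 : zc j z + 1 ≤ 2 ^ (j - i) * (zc i z + 1) := by
    have h3 : zc j z < 2 ^ (j - i) * (zc i z + 1) := by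
      unfold zc
      rw [Int.floor_lt]
      push_cast
      rw [e0, mul_assoc]
      exact mul_lt_mul_of_pos_left (Int.lt_floor_add_one _) (by positivity)
    omega
  have e3 : (2:ℝ) ^ (j - i) * (zc i z : ℝ) ≤ zc j z := by exact_mod_cast e1
  have e4 : (zc j z : ℝ) + 1 ≤ 2 ^ (j - i) * ((zc i z : ℝ) + 1) := by exact_mod_cast e2
  unfold zl rho
  constructor
  · rw [div_le_div_iff₀ hp hq, e0]
    nlinarith
  · rw [← add_div, ← add_div, div_le_div_iff₀ hq hp, e0]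
    nlinarith

/-- numbers -/
theorem mb_num {t R Y r A1 α : ℝ} (ht : 10 ^ 6 ≤ t) (hR1 : 1 ≤ R) (hR : R ≤ t) (hY0 : 0 < Y)
    (hY1 : Y ≤ t ^ 2) (hY2 : 1 ≤ t ^ 2 * Y) (hr : 0 < r) (hr' : 1 ≤ t * r) (hA0 : 0 ≤ A1)
    (hA : A1 ≤ t) (hα : 0 < α) (hα' : 1 ≤ t ^ 2 * α) :
    1200 * (1 * (200 * Y + Bas.sz R r Y A1) ^ 2) / (Y * α) ≤ t ^ 15 ∧
      ∀ K, 0 ≤ K → 10 ^ 4 * R ^ 4 * (18 * (K * (t ^ 15) ^ 2) / r) / r ^ 2 ≤ K * t ^ 38 := by
  have t0 : 0 < t := by linarith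
  have t1 : 1 ≤ t := by linarith
  constructor
  · have s1 : R * Y / r ≤ t ^ 4 := by
      rw [div_le_iff₀ hr]
      calc R * Y ≤ t * t ^ 2 := mul_le_mul hR hY1 hY0.le t0.le
        _ = t ^ 3 * 1 := by ring
        _ ≤ t ^ 3 * (t * r) := mul_le_mul_of_nonneg_left hr' (by positivity)
        _ = t ^ 4 * r := by ring
    have s2 : R ^ 2 * A1 ≤ t ^ 4 := by
      calc R ^ 2 * A1 ≤ t ^ 2 * t :=
            mul_le_mul (pow_le_pow_left₀ (by linarith) hR 2) hA hA0 (by positivity)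
        _ = t ^ 3 := by ring
        _ ≤ t ^ 4 := pow_le_pow_right₀ t1 (by norm_num)
    have s3 : Y ≤ t ^ 4 := hY1.trans (pow_le_pow_right₀ t1 (by norm_num))
    have s4 : 200 * Y + Bas.sz R r Y A1 ≤ t ^ 5 := by
      unfold Bas.sz
      have k1 : 414 * t ^ 4 ≤ t * t ^ 4 :=
        mul_le_mul_of_nonneg_right (by linarith) (by positivity)
      have k2 : t * t ^ 4 = t ^ 5 := by ring
      linarith
    have s5 : 0 ≤ 200 * Y + Bas.sz R r Y A1 := by unfold Bas.sz; positivity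
    rw [div_le_iff₀ (by positivity)]
    have s6 := pow_le_pow_left₀ s5 s4 2
    have s7 : 1 ≤ t ^ 2 * Y * (t ^ 2 * α) := one_le_mul_of_one_le_of_one_le hY2 hα'
    calc 1200 * (1 * (200 * Y + Bas.sz R r Y A1) ^ 2) ≤ 1200 * (1 * (t ^ 5) ^ 2) := by linarith
      _ = 1200 * t ^ 10 := by ring
      _ ≤ t * t ^ 10 := mul_le_mul_of_nonneg_right (by linarith) (by positivity)
      _ = t ^ 11 * 1 := by ring
      _ ≤ t ^ 11 * (t ^ 2 * Y * (t ^ 2 * α)) := mul_le_mul_of_nonneg_left s7 (by positivity)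
      _ = t ^ 15 * (Y * α) := by ring
  · intro K hK
    have e : 10 ^ 4 * R ^ 4 * (18 * (K * (t ^ 15) ^ 2) / r) / r ^ 2 =
        180000 * (R ^ 4 * (K * t ^ 30)) / r ^ 3 := by
      field_simp
      ring
    rw [e, div_le_iff₀ (by positivity)]
    have s1 : R ^ 4 ≤ t ^ 4 := pow_le_pow_left₀ (by linarith) hR 4
    have s2 : R ^ 4 * (K * t ^ 30) ≤ t ^ 4 * (K * t ^ 30) :=
      mul_le_mul_of_nonneg_right s1 (by positivity)
    have s3 : (1 : ℝ) ≤ (t * r) ^ 3 := one_le_pow₀ hr'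
    calc 180000 * (R ^ 4 * (K * t ^ 30)) ≤ t * (t ^ 4 * (K * t ^ 30)) :=
          mul_le_mul (by linarith) s2 (by positivity) t0.le
      _ = K * t ^ 35 * 1 := by ring
      _ ≤ K * t ^ 35 * (t * r) ^ 3 := mul_le_mul_of_nonneg_left s3 (by positivity)
      _ = K * t ^ 38 * r ^ 3 := by ring

/-- decay of a width -/
theorem wid_ge {σ' : Type*} {G : Geo σ' (Fin 3)} {B : Base} {I : ℕ → Finset (ℕ × ℝ)}
    {lev : ℕ → ℚ → ℕ} {A : ℕ → ℝ} {c Λ : ℝ → ℝ} {θ : Fin 3 → ℝ} {f : ℕ → ℚ → ℕ → ℤ → ℕ}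
    {b : ℕ → ℚ → ℕ → σ'} {vm : ℕ → ℚ → ℝ} {w : Fin 3 → ℕ → ℚ → ℝ}
    (h : MkA B I G lev A c Λ (fun j v => θ j * (1 - v)) f b vm w) (k : Fin 3) {v : ℚ}
    (h0 : 0 ≤ v) (h1 : v ≤ 1) : ∀ᶠ n in (U : Filter ℕ),
      w k n 0 ≤ w k n v * B.d n ^ (-(|1 - θ k| + 1)) := by
  have ht := (tau_zero h k h0 h1).eventually_lt_const
    (show (1 - θ k) * (v : ℝ) < (1 - θ k) * v + 1 by linarith)
  filter_upwards [ht, h.wpos k v h0 h1, h.wpos k 0 le_rfl zero_le_one] with n a1 a2 a3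
  refine le_of_log a3 a2 ?_
  rw [Real.log_div a2.ne' a3.ne']
  have e : (Real.log (w k n v) - Real.log (w k n 0)) / B.L n =
      -((Real.log (w k n 0) - Real.log (w k n v)) / B.L n) := by ring
  rw [e]
  have v0 : (0 : ℝ) ≤ v := by exact_mod_cast h0
  have v1 : (v : ℝ) ≤ 1 := by exact_mod_cast h1
  have : (1 - θ k) * v ≤ |1 - θ k| := by
    have e := le_abs_self ((1 - θ k) * (v : ℝ))
    rw [abs_mul, abs_of_nonneg v0] at e
    have : |1 - θ k| * (v : ℝ) ≤ |1 - θ k| * 1 := mul_le_mul_of_nonneg_left v1 (abs_nonneg _)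
    linarith
  linarith

section seq

variable {p : Par4} {D : Dat4} {K : ℕ → CtD} {x0 : ℕ → ℕ × ℝ}

set_option maxHeartbeats 1600000 in
/-- **flags of all levels** : the field `Mb` of `StcA` -/
theorem Mb_of (h : ThinW p D) (hK : StcK p D K x0)
    (lv : ∀ C : ℝ, ∀ v : ℚ, 0 ≤ v → v ≤ 1 → ∃ C2 M : ℝ,
      ∀ᶠ n in (U : Filter ℕ), ∀ x ∈ D.I n, Gd D K C n x →
        LvD D K n v x (D.B.d n ^ (1 : ℝ)) (D.B.d n ^ (-C2)) (D.B.d n ^ M)) :
    ∀ C : ℝ, ∀ v : ℚ, 0 ≤ v → v ≤ 1 → ∃ C' : ℝ, ∀ᶠ n in (U : Filter ℕ), ∀ x ∈ D.I n,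
      Gd D K C n x → ((K n).Q (mk4 D n v x).q).b 0 ≠ 0 ∧
        ∀ k, |MkS D K v n (kc (D.lev n v) (D.f n v) x) k| ≤ D.B.d n ^ (-C') := by
  intro C v h0 h1
  obtain ⟨C2, M, hC2⟩ := lv C v h0 h1
  set a : ℝ := |1 - p.θ 0| + |1 - p.θ 1| + |1 - p.θ 2| with ha
  set e : ℝ := max (max C C2) 0 + a + 4 with he
  have a0 := abs_nonneg (1 - p.θ 0)
  have a1 := abs_nonneg (1 - p.θ 1)
  have a2' := abs_nonneg (1 - p.θ 2)
  have m0 : 0 ≤ max (max C C2) 0 := le_max_right _ _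
  have eC : C ≤ e := by
    have : C ≤ max (max C C2) 0 := (le_max_left _ _).trans (le_max_left _ _)
    linarith
  have eC2 : C2 ≤ e := by
    have : C2 ≤ max (max C C2) 0 := (le_max_right _ _).trans (le_max_left _ _)
    linarith
  have e4 : 4 ≤ e := by linarith
  have ep : 0 < e := by linarith
  refine ⟨41 * e, ?_⟩
  filter_upwards [hC2, mk_facts h.mka h0 h1, mk_facts h.mka le_rfl zero_le_one,
    cell_v h.mka hK h0 h1, hK.sm 1, hK.σs (41 * e), hK.σw, hK.wid 1 one_pos,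
    Wcn464.wid_le h.mka 0 h0 h1, Wcn464.wid_le h.mka 1 h0 h1, wid_ge h.mka 1 h0 h1,
    wid_ge h.mka 2 h0 h1, h.mka.lev_mono 0 v le_rfl h0 h1, ev_const D.B (C := 10 ^ 6) (by norm_num) ep,
    ev_const D.B (C := 1000) (by norm_num) one_pos] with n b1 b2 b3 b4 b5 b6 b7 b8 c0 c1 c2 c3 b9
      b10 b11 x hx hg
  obtain ⟨B0, B1, G, B0p, B1p, Gp, O, hE, q1, q2, -, q3, q4, hN, hB, y1, y2, hpv, hzh, X, X0, -, X2,
    hO⟩ := (b1 x hx hg).ex
  obtain ⟨mv0, mv⟩ := b2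
  obtain ⟨v1, v2, v3, v4, v5⟩ := mv x hx
  obtain ⟨mo0, mo⟩ := b3
  obtain ⟨o1, o2, o3, o4, o5⟩ := mo x hx
  have dp := dpow_pos D.B n
  have hWA := (hK.ok n).A0
  have hWB := (hK.ok n).B0
  have hWY := (hK.ok n).Y0
  have hH := (hK.ok n).H0
  set t : ℝ := D.B.d n ^ (-e) with ht
  have t0 : 0 < t := dp _
  have t1 : 1 ≤ t := by linarith
  set dd : ℝ := D.B.d n ^ (1 : ℝ) with hdd
  have dd0 : 0 < dd := dp _
  have ed : D.B.d n ^ (-(1 : ℝ)) * dd = 1 := by rw [hdd, ← dpow_add]; simp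
  have hd1 : 1000 * dd ≤ 1 := by
    have := mul_le_mul_of_nonneg_right b11 dd0.le
    linarith
  -- the widths
  set s1 : ℝ := D.B.d n ^ (-(|1 - p.θ 1| + 2)) with hs1
  set s2 : ℝ := D.B.d n ^ (-(|1 - p.θ 2| + 2)) with hs2
  have s10 : 0 < s1 := dp _
  have s20 : 0 < s2 := dp _
  have es1 : s1 * D.B.d n ^ (-(1 : ℝ)) ≤ t := by
    rw [hs1, ← dpow_add]
    exact dpow_le D.B n (by linarith)
  have es2 : s2 ≤ t := dpow_le D.B n (by linarith)
  have es1' : s1 ≤ t := dpow_le D.B n (by linarith)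
  set A1 : ℝ := (mk4 D n v x).w 1 / (K n).u.WA with hA1
  set A2 : ℝ := (mk4 D n v x).w 2 / (K n).u.WB with hA2
  have A10 : 0 < A1 := div_pos (O.pos 1) hWA
  have A20 : 0 < A2 := div_pos (O.pos 2) hWB
  have A1u : A1 ≤ s1 := by
    rw [hA1, div_le_iff₀ hWA, v4]
    have k1 := mul_le_mul_of_nonneg_right b8.2.1 (dp (-(|1 - p.θ 1| + 1))).le
    refine (c1.trans k1).trans (le_of_eq ?_)
    have e1 : s1 = D.B.d n ^ (-(1 : ℝ)) * D.B.d n ^ (-(|1 - p.θ 1| + 1)) := by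
      rw [hs1, ← dpow_add]; congr 1; ring
    rw [e1]; ring
  have low : ∀ {w0 wv W E : ℝ}, 0 < W → dd * W ≤ w0 → w0 ≤ wv * D.B.d n ^ (-(E + 1)) →
      1 ≤ D.B.d n ^ (-(E + 2)) * (wv / W) := by
    intro w0 wv W E hW k1 k2
    have e1 : D.B.d n ^ (-(E + 2)) = D.B.d n ^ (-(1 : ℝ)) * D.B.d n ^ (-(E + 1)) := by
      rw [← dpow_add]; congr 1; ring
    have k3 := mul_le_mul_of_nonneg_left (k1.trans k2) (dp (-(1 : ℝ))).le
    rw [← mul_assoc, ed, one_mul] at k3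
    have e2 : D.B.d n ^ (-(E + 2)) * (wv / W) =
        D.B.d n ^ (-(1 : ℝ)) * (wv * D.B.d n ^ (-(E + 1))) / W := by rw [e1]; ring
    rw [e2, le_div_iff₀ hW, one_mul]
    exact k3
  have A1l : 1 ≤ s1 * A1 := by
    rw [hA1, v4]; exact low hWA b8.1 c2
  have A2l : 1 ≤ s2 * A2 := by
    rw [hA2, v5]; exact low hWB b8.2.2.1 c3
  have hα : 0 < A1 * A2 := mul_pos A10 A20
  have hα' : 1 ≤ t ^ 2 * (A1 * A2) := by
    calc (1 : ℝ) ≤ s1 * A1 * (s2 * A2) := one_le_mul_of_one_le_of_one_le A1l A2l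
      _ ≤ t * A1 * (t * A2) := mul_le_mul (mul_le_mul_of_nonneg_right es1' A10.le)
          (mul_le_mul_of_nonneg_right es2 A20.le) (by positivity) (by positivity)
      _ = t ^ 2 * (A1 * A2) := by ring
  -- the curvature extent
  set ν := ((K n).Q (mk4 D n 0 x).q).b 0 with hν
  have hν0 : 0 < |ν| := by linarith
  set Ye : ℝ := (mk4 D n v x).w 0 * kap B0 B1 G with hYe
  have Ye0 : 0 < Ye := O.Ye0
  set Y : ℝ := Ye / |ν| with hY
  have Y0 : 0 < Y := div_pos Ye0 hν0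
  have Y1 : Y ≤ t ^ 2 := by
    rw [hY, div_le_iff₀ hν0]
    have k1 : dd * Ye ≤ (K n).u.WY * s1 ^ 2 := by
      refine y1.trans ?_
      exact mul_le_mul_of_nonneg_left (pow_le_pow_left₀ A10.le A1u 2) hWY.le
    have k2 := mul_le_mul_of_nonneg_left k1 (dp (-(1 : ℝ))).le
    rw [← mul_assoc, ed, one_mul] at k2
    have k3 : t ^ 2 * ((K n).u.WY / 8) ≤ t ^ 2 * |ν| := mul_le_mul_of_nonneg_left q3 (by positivity)
    refine le_trans ?_ k3
    have k4 : (s1 * D.B.d n ^ (-(1 : ℝ))) ^ 2 ≤ t ^ 2 :=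
      pow_le_pow_left₀ (mul_pos s10 (dp _)).le es1 2
    have k5 := mul_le_mul_of_nonneg_right k4 (show 0 ≤ (K n).u.WY / 8 by positivity)
    refine le_trans ?_ k5
    refine k2.trans ?_
    have k6 : 8 * (D.B.d n ^ (-(1 : ℝ)) * ((K n).u.WY * s1 ^ 2)) ≤
        D.B.d n ^ (-(1 : ℝ)) * (D.B.d n ^ (-(1 : ℝ)) * ((K n).u.WY * s1 ^ 2)) :=
      mul_le_mul_of_nonneg_right (by linarith) (mul_pos (dp _) (by positivity)).le
    have e1 : (s1 * D.B.d n ^ (-(1 : ℝ))) ^ 2 * ((K n).u.WY / 8) =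
        D.B.d n ^ (-(1 : ℝ)) * (D.B.d n ^ (-(1 : ℝ)) * ((K n).u.WY * s1 ^ 2)) / 8 := by ring
    rw [e1]
    linarith
  have Y2 : 1 ≤ t ^ 2 * Y := by
    have k1 : dd * ((K n).u.WY * A1 ^ 2) ≤ Ye := y2
    have k2 : dd * A1 ^ 2 / 8 ≤ Y := by
      rw [hY, le_div_iff₀ hν0]
      have k3 := mul_le_mul_of_nonneg_left q4 (show 0 ≤ dd * A1 ^ 2 / 8 by positivity)
      refine k3.trans (le_trans (le_of_eq ?_) k1)
      ring
    have k4 : (s1 * D.B.d n ^ (-(1 : ℝ))) ^ 2 ≤ t ^ 2 :=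
      pow_le_pow_left₀ (mul_pos s10 (dp _)).le es1 2
    have k5 : (s1 * D.B.d n ^ (-(1 : ℝ))) ^ 2 * (dd * A1 ^ 2 / 8) ≤ t ^ 2 * Y :=
      mul_le_mul k4 k2 (by positivity) (by positivity)
    refine le_trans ?_ k5
    have e1 : (s1 * D.B.d n ^ (-(1 : ℝ))) ^ 2 * (dd * A1 ^ 2 / 8) =
        (s1 * A1) ^ 2 * (D.B.d n ^ (-(1 : ℝ)) * (D.B.d n ^ (-(1 : ℝ)) * dd) / 8) := by ring
    rw [e1, ed, mul_one]
    have k6 : (1 : ℝ) ≤ (s1 * A1) ^ 2 := one_le_pow₀ A1l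
    exact one_le_mul_of_one_le_of_one_le k6 (by linarith)
  -- the cell
  have hr := hB.rh0
  have erh : rh D n v / (K n).u.H = rhN D.lev (hzS K) n v := by
    show rho (D.lev n v) / (K n).u.H = 1 / (K n).u.H * rho (D.lev n v)
    ring
  have hv1 : (v : ℝ) ≤ 1 := by exact_mod_cast h1
  have hr' : 1 ≤ t * (rh D n v / (K n).u.H) := by
    rw [erh]
    have k1 := mul_le_mul_of_nonneg_left b4.1 t0.le
    refine le_trans ?_ k1
    rw [ht, ← dpow_add]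
    exact Real.one_le_rpow_of_pos_of_le_one_of_nonpos (D.B.pos n) (D.B.lt n).le (by linarith)
  have hR : D.B.d n ^ (-C2) ≤ t := dpow_le D.B n (by linarith)
  obtain ⟨n1, n2⟩ := mb_num b10 hB.R1 hR Y0 Y1 Y2 hr hr' A10.le (A1u.trans es1') hα hα'
  -- values on the cell
  have hsv := qdOf_spec v2.isQ
  have hs0 := qdOf_spec o2.isQ
  set Kk : ℝ := D.w 0 n 0 * t ^ 2 with hKk
  have tt : t ≤ t ^ 2 := le_self_pow₀ t1 (by norm_num)
  have hKX : Ye * X ≤ Kk := by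
    refine X2.trans ?_
    rw [hKk, mul_comm]
    exact mul_le_mul_of_nonneg_left (hR.trans tt) mo0.le
  have hwv : D.w 0 n v ≤ D.w 0 n 0 * t :=
    c0.trans (mul_le_mul_of_nonneg_left (dpow_le D.B n (by linarith)) mo0.le)
  have cell : ∀ z, zx D n v x ≤ z → z ≤ zx D n v x + rh D n v →
      |(qdOf (mk4 D n 0 x).q).ev z ((D.L n x.1).pos z) - B0p 0 / B0 0 *
        (qdOf (mk4 D n v x).q).ev z ((D.L n x.1).pos z)| ≤ Kk := by
    intro z z1 z2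
    rw [← hsv.1, ← hs0.1]
    obtain ⟨u1, u2⟩ := cell_nest b9 x.2
    have k1 := (v1 z z1 z2).2
    have k2 := (o1 z (u1.trans z1) (z2.trans u2)).2
    rw [v3] at k1
    rw [o3] at k2
    refine (abs_sub _ _).trans ?_
    rw [abs_mul]
    have k3 : |B0p 0 / B0 0| * |(mk4 D n v x).q z ((D.L n x.1).pos z)| ≤ 16 * D.w 0 n v :=
      mul_le_mul q2 k1 (abs_nonneg _) (by norm_num)
    have k4 : D.w 0 n 0 ≤ D.w 0 n 0 * t := le_mul_of_one_le_right mo0.le t1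
    have k5 : 17 * (D.w 0 n 0 * t) ≤ t * (D.w 0 n 0 * t) :=
      mul_le_mul_of_nonneg_right (by linarith) (by positivity)
    have k6 : t * (D.w 0 n 0 * t) = Kk := by rw [hKk]; ring
    linarith
  have Kk0 : 0 ≤ Kk := by rw [hKk]; positivity
  have hW := om_sz O (hK.ortho n) (c := (K n).c) (hK.ok n) hsv.1 hs0.2 hsv.2 hE X0 hO hB
    (fun k => (hpv k).1) (fun k => (hpv k).2) (hzh.trans hB.R1) hKX cell n1
    (one_le_pow₀ t1)
  have hKw := n2 Kk Kk0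
  set Kw : ℝ := 10 ^ 4 * (D.B.d n ^ (-C2)) ^ 4 * (18 * (Kk * (t ^ 15) ^ 2) /
    (rh D n v / (K n).u.H)) / (rh D n v / (K n).u.H) ^ 2 with hKwd
  have k40 : Kw ≤ D.w 0 n 0 * t ^ 40 := by
    refine hKw.trans (le_of_eq ?_)
    rw [hKk]; ring
  have t40 : t ^ 40 = D.B.d n ^ (-(40 * e)) := by
    rw [ht, ← Real.rpow_natCast, ← Real.rpow_mul (D.B.pos n).le]; congr 1; push_cast; ring
  have t41 : t ^ 41 = D.B.d n ^ (-(41 * e)) := by
    rw [ht, ← Real.rpow_natCast, ← Real.rpow_mul (D.B.pos n).le]; congr 1; push_cast; ring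
  have hσ := hK.σ0 n
  have hσt : (K n).σ * t ^ 41 ≤ 1 := by
    have k1 := mul_le_mul_of_nonneg_right b6 (show 0 ≤ t ^ 41 by positivity)
    refine k1.trans (le_of_eq ?_)
    rw [t41, ← dpow_add]; simp
  have k100 : 100 * Kw ≤ (K n).u.WY := by
    have k1 : 100 * (D.w 0 n 0 * t ^ 40) ≤ t * (D.w 0 n 0 * t ^ 40) :=
      mul_le_mul_of_nonneg_right (by linarith) (by positivity)
    have k2 : t * (D.w 0 n 0 * t ^ 40) = (K n).u.WY * ((K n).σ * t ^ 41) := by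
      rw [← b7]; ring
    have k3 := mul_le_mul_of_nonneg_left hσt hWY.le
    linarith
  obtain ⟨r1, r2⟩ := flags_v (Γ := t) (b5.inv (by linarith)) (by linarith) (hK.kp1 n) hσ hWY hW q1 q2
    q3 q4 (fun k => (hg.2.2 k).trans (dpow_le D.B n (by linarith))) k100
  refine ⟨fun e0 => ?_, fun k => (r2 k).trans ?_⟩
  · have r1' : (K n).u.WY / 200 ≤ |((K n).Q (mk4 D n v x).q).b 0| := r1
    rw [e0, abs_zero] at r1'
    linarith
  · rw [← t41]
    have k1 : Kw / ((K n).u.WY * (K n).σ) ≤ t ^ 40 := by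
      rw [b7, div_le_iff₀ mo0]
      linarith
    have k2 : t ≤ t ^ 40 := le_self_pow₀ t1 (by norm_num)
    have k3 : 38400 * t ^ 40 ≤ t * t ^ 40 :=
      mul_le_mul_of_nonneg_right (by linarith) (by positivity)
    have k4 : t * t ^ 40 = t ^ 41 := by ring
    linarith

end seq

end Crest.Agent.R136.Stk464
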