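import Crest.Agent.R136.Clw3_768
import Crest.Agent.R136.Stk5_464
import Crest.Agent.R136.Lat2_327
import Crest.Agent.R136.Stc9_321

/-!
# R136, U6 thin side, stage C (helper768): closeness of the sheets of two levels, sequences

`clw_of_snd` : the field `clw` of `StcA` from the level data, `Mb`, `thick` and the expansions of the
level-`u` function on the level-`v` marks (`SndUV`).
-/

set_option autoImplicit false
set_option linter.unusedVariables false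

open Finset Filter Topology

namespace Crest.Agent.R136.Clw768

open Crest.Agent.R138
open Crest.Agent.R138.Ex926 (Base U)
open Crest.Agent.R138.Dp76 (dpow_pos dpow_add dpow_le dpow_le_one)
open Crest.Agent.R138.ArgM163 (ev_const)
open Crest.Agent.R138.Mk163 (zc zl rho alive)
open Crest.Agent.R138.MkRef627 (lc kc mem_alive)
open Crest.Agent.R136.MkA627
open Crest.Agent.R136.Sh605
open Crest.Agent.R136.K4
open Crest.Agent.R136.NetW191
open Crest.Agent.R136.GeoN778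
open Crest.Agent.R136.Wit321
open Crest.Agent.R136.Top484
open Crest.Agent.R136.Stc321
open Crest.Agent.R136.Stk464 (StcK mk_facts cell_v b0_ge om_sz mb_num pull_sz cell_nest uzh_eq)
open Crest.Agent.R136.Tl102 (QF kap IsExp OmB)
open Crest.Agent.R136.Tlt51 (Close mk4 zx rh Shp InP)
open Crest.Agent.R136.Fw650 (z0N zhN rhN)
open Crest.Agent.R136.Thn768 (ThinW Own)
open Crest.Agent.R136.Tn327 (CloseW zmN)
open Crest.Agent.R136.FlW464 (frW drW)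
open Crest.Agent.R136.Lat327 (wA_bd bas_mono)

/-- expansions of the level-`u` function on the level-`v` marks -/
def SndUV (D : Dat4) : Prop := ∃ Ct : ℝ, 0 ≤ Ct ∧ ∀ u v : ℚ, 0 ≤ u → u < v → v ≤ 1 → ∀ ε : ℝ,
  0 < ε → ∀ᶠ n in (U : Filter ℕ), ∀ x ∈ D.I n, ∀ (b0 b1 : V3) (G : QF),
    Own (mk4 D n v x) (D.L n x.1) (zx D n v x) (rh D n v) (D.B.d n ^ (ε / 16)) b0 b1 G →
    ∃ (X : ℝ) (b0p b1p : V3) (Gp : QF),
      IsExp (mk4 D n u x).q (mk4 D n v x).e (mk4 D n v x).w (D.L n x.1) (zx D n v x) (rh D n v)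
        b0p b1p Gp ∧ 1 / 16 ≤ |b0p 0 / b0 0| ∧ |b0p 0 / b0 0| ≤ 16 ∧ 0 ≤ X ∧
      OmB (kap b0 b1 G) X X X b0 b1 G b0p b1p Gp ∧
      X * ((mk4 D n v x).w 0 * kap b0 b1 G) ≤
        D.B.d n ^ (-(Ct * ((v : ℝ) - u)) - ε) * max (D.w 0 n u) (D.w 0 n v)

/-- more numerical facts -/
theorem nums3 {R μ Y A1 rh α : ℝ} (hR : 8 ≤ R) (hμ : 0 < μ) (hRμ : 1 ≤ R * μ) (hY : 0 < Y)
    (hA : 0 < A1) (hA1 : A1 ≤ R) (hA2 : 1 ≤ R * A1) (hrh : 0 < rh) (hrh1 : rh ≤ 1)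
    (hY1 : μ * A1 ^ 2 ≤ 8 * Y) (hY2 : μ * Y ≤ 8 * A1 ^ 2)
    (hα : μ * (A1 * (A1 ^ 2 / rh)) ≤ α) :
    Y ≤ (R ^ 4) ^ 2 ∧ 1 ≤ (R ^ 4) ^ 2 * Y ∧ 1 ≤ (R ^ 4) ^ 2 * α := by
  have R0 : 0 < R := by linarith
  have R1 : 1 ≤ R := by linarith
  refine ⟨?_, ?_, ?_⟩
  · have h1 : Y ≤ R * μ * Y := le_mul_of_one_le_left hY.le hRμ
    have h2 : R * (μ * Y) ≤ R * (8 * A1 ^ 2) := mul_le_mul_of_nonneg_left hY2 R0.le
    have h3 : A1 ^ 2 ≤ R ^ 2 := pow_le_pow_left₀ hA.le hA1 2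
    have h4 : R * (8 * A1 ^ 2) ≤ R * (8 * R ^ 2) := by
      refine mul_le_mul_of_nonneg_left ?_ R0.le
      linarith
    have h5 : R * (8 * R ^ 2) ≤ R * (R * R ^ 2) := by
      refine mul_le_mul_of_nonneg_left ?_ R0.le
      exact mul_le_mul_of_nonneg_right hR (by positivity)
    have h6 : R * (R * R ^ 2) ≤ (R ^ 4) ^ 2 := by
      have e1 : R * (R * R ^ 2) = R ^ 4 := by ring
      rw [e1]
      exact le_self_pow₀ (one_le_pow₀ R1) (by norm_num)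
    linarith
  · have h1 : 1 ≤ (R * A1) ^ 2 := one_le_pow₀ hA2
    have h2 : 1 ≤ (R * μ) * (R * A1) ^ 2 := by
      have := mul_le_mul hRμ h1 zero_le_one (by positivity)
      linarith
    have h3 : (R * μ) * (R * A1) ^ 2 = R ^ 3 * (μ * A1 ^ 2) := by ring
    have h4 := mul_le_mul_of_nonneg_left hY1 (by positivity : 0 ≤ R ^ 3)
    have h5 : R ^ 3 * (8 * Y) ≤ (R ^ 4) ^ 2 * Y := by
      have h6 : R ^ 3 * 8 ≤ R ^ 3 * R := mul_le_mul_of_nonneg_left hR (by positivity)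
      have h7 : R ^ 3 * R ≤ (R ^ 4) ^ 2 := by
        have e1 : R ^ 3 * R = R ^ 4 := by ring
        rw [e1]
        exact le_self_pow₀ (one_le_pow₀ R1) (by norm_num)
      have h8 := mul_le_mul_of_nonneg_right (h6.trans h7) hY.le
      linarith
    linarith
  · have h1 : 1 ≤ (R * A1) ^ 2 := one_le_pow₀ hA2
    have h2 : A1 ^ 2 ≤ A1 ^ 2 / rh := by
      rw [le_div_iff₀ hrh]
      exact mul_le_of_le_one_right (by positivity) hrh1
    have h3 : 1 ≤ (R * μ) * (R * A1) * (R ^ 2 * (A1 ^ 2 / rh)) := by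
      have k1 := mul_le_mul hRμ hA2 zero_le_one (by positivity : 0 ≤ R * μ)
      rw [one_mul] at k1
      have k2 : 1 ≤ R ^ 2 * (A1 ^ 2 / rh) := by
        have := mul_le_mul_of_nonneg_left h2 (by positivity : 0 ≤ R ^ 2)
        have e1 : (R * A1) ^ 2 = R ^ 2 * A1 ^ 2 := by ring
        linarith
      have := mul_le_mul k1 k2 zero_le_one (by positivity)
      linarith
    have h4 : (R * μ) * (R * A1) * (R ^ 2 * (A1 ^ 2 / rh)) =
      R ^ 4 * (μ * (A1 * (A1 ^ 2 / rh))) := by ring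
    have h5 := mul_le_mul_of_nonneg_left hα (by positivity : 0 ≤ R ^ 4)
    have hα0 : 0 ≤ α := le_trans (by positivity) hα
    have h6 : R ^ 4 * α ≤ (R ^ 4) ^ 2 * α :=
      mul_le_mul_of_nonneg_right (le_self_pow₀ (one_le_pow₀ R1) (by norm_num)) hα0
    linarith

/-- positions of the image line -/
theorem pos_le {P : Pj} {ηP R : ℝ} (hP : P.Sm ηP) (hR : 1 ≤ R) {t : Ln4}
    (hp : ∀ k, |t.p k| ≤ R) (hv : ∀ k, |t.v k| ≤ R) (hη : 40 * (ηP * R) ≤ 1) {z : ℝ}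
    (hz : |z| ≤ 1) (k : Fin 3) : |(P.line t).pos z k| ≤ 4 * R := by
  have hηP := hP.nn
  have R0 : 0 ≤ R := by linarith
  have h0 : 0 ≤ ηP * R := by positivity
  have lp := Pj.line_p hP hp hv hR (by linarith) k
  have lv := Pj.line_v hP hp hv hR (by linarith) k
  have e40 : 40 * (ηP * R ^ 2) ≤ R := by
    have e : 40 * (ηP * R ^ 2) = R * (40 * (ηP * R)) := by ring
    rw [e]
    exact mul_le_of_le_one_right R0 hη
  have e : (P.line t).pos z k = ((P.line t).p k - t.p k) + t.p k +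
      z * (((P.line t).v k - t.v k) + t.v k) := by
    simp only [Ln4.pos]; ring
  rw [e]
  refine (a2 (a2 (lp.trans e40) (hp k)) (m2 hz (a2 (lv.trans e40) (hv k)))).trans ?_
  linarith

/-- the last inequality -/
theorem last_num {L w0 WY σ K E Kb Γv R t : ℝ} (hw0 : 0 < w0) (hWY : 0 < WY) (hσ : 0 < σ)
    (hσw : WY * σ = w0) (hL : L ≤ 84 * E) (hK : K ≤ 18 * E) (hK0 : 0 ≤ K) (hE : 0 ≤ E)
    (hKb : Kb ≤ 2 * (K * t ^ 38)) (ht : 1 ≤ t) (hΓ0 : 0 ≤ Γv) (hΓ : Γv ≤ t) (hR : R ≤ t)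
    (hR0 : 0 ≤ R) (hσt : 10 ^ 8 * (σ * t ^ 43) ≤ 1) :
    (L / σ + Kb * (14 * (Γv * (100 * R ^ 2) ^ 2))) / (WY / 4) ≤ 440 * (E / w0) := by
  have t0 : 0 < t := by linarith
  have h1 : Kb * (14 * (Γv * (100 * R ^ 2) ^ 2)) ≤ 2 * (K * t ^ 38) * (14 * (t * (100 * t ^ 2) ^ 2)) := by
    have k1 : 14 * (Γv * (100 * R ^ 2) ^ 2) ≤ 14 * (t * (100 * t ^ 2) ^ 2) := by
      have k2 : (100 * R ^ 2) ^ 2 ≤ (100 * t ^ 2) ^ 2 := by
        refine pow_le_pow_left₀ (by positivity) ?_ 2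
        have := pow_le_pow_left₀ hR0 hR 2
        linarith
      have := mul_le_mul hΓ k2 (by positivity) t0.le
      linarith
    refine (mul_le_mul_of_nonneg_right hKb (by positivity)).trans ?_
    exact mul_le_mul_of_nonneg_left k1 (by positivity)
  have h2 : 2 * (K * t ^ 38) * (14 * (t * (100 * t ^ 2) ^ 2)) = 28 * 10 ^ 4 * (K * t ^ 43) := by ring
  have h3 : σ * (28 * 10 ^ 4 * (K * t ^ 43)) ≤ K := by
    have e : σ * (28 * 10 ^ 4 * (K * t ^ 43)) = 28 * 10 ^ 4 * (K * (σ * t ^ 43)) := by ring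
    have := mul_le_mul_of_nonneg_left hσt hK0
    have : 0 ≤ K * (σ * t ^ 43) := by positivity
    linarith
  rw [div_le_iff₀ (by positivity)]
  have e4 : 440 * (E / w0) * (WY / 4) = 110 * E / σ := by
    rw [← hσw]; field_simp; ring
  rw [e4, le_div_iff₀ hσ]
  have e5 : (L / σ + Kb * (14 * (Γv * (100 * R ^ 2) ^ 2))) * σ =
      L + σ * (Kb * (14 * (Γv * (100 * R ^ 2) ^ 2))) := by field_simp
  rw [e5]
  have h4 := mul_le_mul_of_nonneg_left h1 hσ.le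
  rw [h2] at h4
  linarith

set_option maxHeartbeats 1000000 in
/-- **closeness of two levels**, from the expansions of the level-`u` function -/
theorem clw_of_snd {p : Par4} {D : Dat4} {K : ℕ → CtD} {x0 : ℕ → ℕ × ℝ} (h : ThinW p D)
    (hK : StcK p D K x0) (hS : SndUV D)
    (Mb : ∀ C : ℝ, ∀ v : ℚ, 0 ≤ v → v ≤ 1 → ∃ C' : ℝ, ∀ᶠ n in (U : Filter ℕ), ∀ x ∈ D.I n,
      Gd D K C n x → ((K n).Q (mk4 D n v x).q).b 0 ≠ 0 ∧
        ∀ k, |MkS D K v n (kc (D.lev n v) (D.f n v) x) k| ≤ D.B.d n ^ (-C'))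
    (thk : ∀ C : ℝ, ∀ v : ℚ, 0 ≤ v → v ≤ 1 → ∀ ε : ℝ, 0 < ε → ∀ᶠ n in (U : Filter ℕ),
    ∀ x ∈ D.I n, Gd D K C n x → ∀ z, z0N D.lev (hzS K) (zsS K) v n (zc (D.lev n v) x.2) ≤ z →
      z ≤ z0N D.lev (hzS K) (zsS K) v n (zc (D.lev n v) x.2) + rhN D.lev (hzS K) n v →
      |ht (K n).κ z ((LS D K n x.1).pos z 1) ((LS D K n x.1).pos z 2) ((LS D K n x.1).pos z 0) -
        (K n).σ * evY (MkS D K v n (kc (D.lev n v) (D.f n v) x)) z ((LS D K n x.1).pos z 1)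
          ((LS D K n x.1).pos z 2) ((LS D K n x.1).pos z 0)| ≤
        (K n).σ * (aS D n v * D.B.d n ^ (-ε))) :
    ∃ C0 : ℝ, 0 ≤ C0 ∧ ∀ C : ℝ, ∀ u v : ℚ, 0 ≤ u → u < v → v ≤ 1 → ∀ ε : ℝ, 0 < ε →
    ∀ᶠ n in (U : Filter ℕ), ∀ x ∈ D.I n, Gd D K C n x →
      CloseW (K n).κ (frW (LS D K n x.1) (zmN D.lev (hzS K) (zsS K) v n x))
        (rhN D.lev (hzS K) n v * D.B.d n ^ ε) (wAS D K n v * D.B.d n ^ ε)
        (wAS D K n v ^ 2 / rhN D.lev (hzS K) n v * D.B.d n ^ ε)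
        (max (aS D n u) (aS D n v) * D.B.d n ^ (-(C0 * ((v : ℝ) - u)) - ε))
        (MkS D K v n (kc (D.lev n v) (D.f n v) x))
        (MkS D K u n (kc (D.lev n u) (D.f n u) x)) := by
  obtain ⟨Ct, Ct0, hS⟩ := hS
  refine ⟨Ct, Ct0, fun C u v u0 uv v1 ε hε => ?_⟩
  have v0 : 0 ≤ v := u0.trans uv.le
  have u1 : u ≤ 1 := uv.le.trans v1
  obtain ⟨Cv, Mv⟩ := Mb C v v0 v1
  obtain ⟨Cu, Mu⟩ := Mb C u u0 u1
  obtain ⟨C2, C20, hL⟩ := lev_data h hK C v0 v1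
  set a : ℝ := |1 - p.θ 0| + |1 - p.θ 1| + |1 - p.θ 2| with ha
  set e : ℝ := |C| + |Cv| + C2 + 2 * a + ε + 8 with he
  have a0 := abs_nonneg (1 - p.θ 0)
  have a1 := abs_nonneg (1 - p.θ 1)
  have a2' := abs_nonneg (1 - p.θ 2)
  have c0 := abs_nonneg C
  have c0' := abs_nonneg Cv
  have eC : C ≤ e := by have := le_abs_self C; linarith
  have eCv : Cv ≤ e := by have := le_abs_self Cv; linarith
  have eC2 : C2 ≤ e := by linarith
  have ep : 0 < e := by linarith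
  have vr0 : (0 : ℝ) ≤ v := by exact_mod_cast v0
  have vr1 : (v : ℝ) ≤ 1 := by exact_mod_cast v1
  have uvr : (0 : ℝ) ≤ (v : ℝ) - u := by
    have : (u : ℝ) ≤ v := by exact_mod_cast uv.le
    linarith
  filter_upwards [hL (ε / 2 / 16) (by positivity) (30 * e + 10) (by linarith),
    hS u v u0 uv v1 (ε / 2) (by positivity), mk_facts h.mka v0 v1, mk_facts h.mka u0 u1,
    mk_facts h.mka le_rfl zero_le_one, cell_v h.mka hK v0 v1, wA_bd h.mka hK v0 v1,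
    hK.sm (30 * e + 10), hK.σs (200 * e), hK.σw, hK.bal v v0 v1 (ε / 4) (by positivity),
    b0_ge h hK u0 u1 Mu, Mv, thk C v v0 v1 1 one_pos, h.mka.lev_mono u v u0 uv.le v1,
    Wcn464.wid_le h.mka 0 v0 v1, ev_const D.B (C := 10 ^ 24) (by norm_num) one_pos,
    ev_const D.B (C := 4 * 10 ^ 10) (by norm_num) (show 0 < ε / 2 by positivity)] with n
    f1 f2 f3 f4 f5 f6 f7 f8 f9 g1 g2 g3 g4 g5 g6 g7 g8 g9 x hx hg
  obtain ⟨b0, b1, G, b0p, b1p, Gp, O, -, -, -, -, q3, q4, -, hB, y1, y2, hpv, hzh, -⟩ :=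
    (f1 x hx hg).ex
  obtain ⟨X, c0p, c1p, Cp, hE, m1, m2', X0, hO, hX⟩ := f2 x hx b0 b1 G O
  obtain ⟨mv0, mv⟩ := f3
  obtain ⟨i1, i2, i3, i4, i5⟩ := mv x hx
  obtain ⟨mu0, mu⟩ := f4
  obtain ⟨j1, j2, j3, j4, j5⟩ := mu x hx
  obtain ⟨mo0, mo⟩ := f5
  obtain ⟨o1, o2, o3, o4, o5⟩ := mo x hx
  obtain ⟨bu1, bu2⟩ := g3 x hx hg
  obtain ⟨bv0, hΓv⟩ := g4 x hx hg
  have thx := g5 x hx hg
  have dp := dpow_pos D.B n
  have hWA := (hK.ok n).A0
  have hWB := (hK.ok n).B0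
  have hWY := (hK.ok n).Y0
  have hH := (hK.ok n).H0
  have hσ := hK.σ0 n
  have hκ := hK.kp1 n
  -- powers
  obtain ⟨R, hR⟩ : ∃ R : ℝ, R = D.B.d n ^ (-e) := ⟨_, rfl⟩
  have R0 : 0 < R := by rw [hR]; exact dp _
  have one_le : ∀ {a : ℝ}, 0 ≤ a → (1 : ℝ) ≤ D.B.d n ^ (-a) := fun ha =>
    Real.one_le_rpow_of_pos_of_le_one_of_nonpos (D.B.pos n) (D.B.lt n).le (by linarith)
  have R24 : 10 ^ 24 ≤ R := by
    rw [hR]; exact g8.trans (dpow_le D.B n (by linarith))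
  have R1 : 1 ≤ R := by linarith
  have Rk : ∀ k : ℕ, R ^ k = D.B.d n ^ (-(k * e)) := by
    intro k
    rw [hR, ← Real.rpow_natCast, ← Real.rpow_mul (D.B.pos n).le]; congr 1; ring
  have sml : ∀ (k : ℕ) {M s : ℝ}, (k : ℝ) * e + 1 ≤ M → 0 ≤ s → s ≤ D.B.d n ^ M →
      10 ^ 24 * (s * R ^ k) ≤ 1 := by
    intro k M s hM hs0 hs
    have h1 : s * R ^ k ≤ D.B.d n ^ (1 : ℝ) := by
      rw [Rk]
      refine (mul_le_mul_of_nonneg_right hs (dp _).le).trans ?_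
      rw [← dpow_add]
      exact dpow_le D.B n (by linarith)
    have h2 : 10 ^ 24 * D.B.d n ^ (1 : ℝ) ≤ D.B.d n ^ (-(1 : ℝ)) * D.B.d n ^ (1 : ℝ) :=
      mul_le_mul_of_nonneg_right g8 (dp _).le
    rw [← dpow_add, neg_add_cancel, Real.rpow_zero] at h2
    have h3 := mul_le_mul_of_nonneg_left h1 (by norm_num : (0 : ℝ) ≤ 10 ^ 24)
    linarith
  have hge : ∀ {b t : ℝ}, b ≤ e → D.B.d n ^ b ≤ t → 1 ≤ R * t := by
    intro b t hb ht
    have h1 : (1 : ℝ) ≤ R * D.B.d n ^ b := by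
      rw [hR, ← dpow_add]
      exact Real.one_le_rpow_of_pos_of_le_one_of_nonpos (D.B.pos n) (D.B.lt n).le (by linarith)
    exact h1.trans (mul_le_mul_of_nonneg_left ht R0.le)
  obtain ⟨η, hη⟩ : ∃ η : ℝ, η = D.B.d n ^ (30 * e + 10) := ⟨_, rfl⟩
  have η0 : 0 < η := by rw [hη]; exact dp _
  have ηR : 10 ^ 24 * (η * R ^ 22) ≤ 1 :=
    sml 22 (M := 30 * e + 10) (by push_cast; linarith) η0.le hη.le
  have hRC : D.B.d n ^ (-C2) ≤ R := by rw [hR]; exact dpow_le D.B n (by linarith)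
  have hR22 : R ≤ R ^ 22 := le_self_pow₀ R1 (by norm_num)
  have hRη : 40 * (R * η) ≤ 1 := by
    have h1 := mul_le_mul_of_nonneg_left hR22 η0.le
    have h2 : 0 < η * R ^ 22 := by positivity
    linarith
  rw [← hη] at hB f8
  have hB' := bas_mono hB hRC hRη
  -- sizes
  have hρH : rh D n v / (K n).u.H = rhN D.lev (hzS K) n v := by
    show rho (D.lev n v) / (K n).u.H = 1 / (K n).u.H * rho (D.lev n v)
    ring
  have hAe : (mk4 D n v x).w 1 / (K n).u.WA = wAS D K n v := by rw [i4]; rfl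
  obtain ⟨A1, hA1⟩ : ∃ A1 : ℝ, A1 = (mk4 D n v x).w 1 / (K n).u.WA := ⟨_, rfl⟩
  obtain ⟨r, hr⟩ : ∃ r : ℝ, r = rh D n v / (K n).u.H := ⟨_, rfl⟩
  have hA0 : 0 < A1 := by rw [hA1]; exact hB'.A1p
  have hA1R : A1 ≤ R := by
    rw [hA1, hAe, hR]
    exact f7.2.trans (dpow_le D.B n (by linarith))
  have hA1R' : 1 ≤ R * A1 := by
    rw [hA1, hAe]
    exact hge (b := |1 - p.θ 1| + 2) (by linarith) f7.1
  have hr0 : 0 < r := by rw [hr]; exact hB'.rh0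
  have hr1 : r ≤ 1 := by rw [hr]; exact hB'.rh1
  have hrR : 1 ≤ R * r := by
    rw [hr, hρH]
    exact hge (b := (v : ℝ) + 1) (by linarith) f6.1
  obtain ⟨μ, hμ⟩ : ∃ μ : ℝ, μ = D.B.d n ^ (ε / 4) := ⟨_, rfl⟩
  have μ0 : 0 < μ := by rw [hμ]; exact dp _
  have μ1 : μ ≤ 1 := by rw [hμ]; exact dpow_le_one D.B n (by positivity)
  have μR : 1 ≤ R * μ := hge (b := ε / 4) (by linarith) hμ.ge
  obtain ⟨θ, hθ⟩ : ∃ θ : ℝ, θ = D.B.d n ^ ε := ⟨_, rfl⟩
  have θ0 : 0 < θ := by rw [hθ]; exact dp _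
  have θR : 1 ≤ R * θ := hge (b := ε) (by linarith) hθ.ge
  have hθμ : 4 * 10 ^ 10 * θ ≤ μ ^ 2 := by
    have h1 := mul_le_mul_of_nonneg_right g9 θ0.le
    have h2 : D.B.d n ^ (-(ε / 2)) * θ = μ ^ 2 := by
      rw [hθ, hμ, pow_two, ← dpow_add, ← dpow_add]; congr 1; ring
    rw [h2] at h1
    exact h1
  obtain ⟨ν, hν⟩ : ∃ ν : ℝ, ν = ((K n).Q (mk4 D n 0 x).q).b 0 := ⟨_, rfl⟩
  rw [← hν] at q3 q4
  have ν0 : 0 < |ν| := by linarith
  obtain ⟨Ye, hYe⟩ : ∃ Ye : ℝ, Ye = (mk4 D n v x).w 0 * kap b0 b1 G := ⟨_, rfl⟩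
  have Ye0 : 0 < Ye := by rw [hYe]; exact O.Ye0
  have δμ : μ ≤ D.B.d n ^ (ε / 2 / 16) := by rw [hμ]; exact dpow_le D.B n (by linarith)
  rw [← hYe, ← hA1] at y1 y2
  have hY0 : 0 < Ye / |ν| := div_pos Ye0 ν0
  have hY1 : μ * A1 ^ 2 ≤ 8 * (Ye / |ν|) := by
    have h1 : μ * ((K n).u.WY * A1 ^ 2) ≤ Ye :=
      (mul_le_mul_of_nonneg_right δμ (by positivity)).trans y2
    rw [← mul_div_assoc, le_div_iff₀ ν0]
    have h2 := mul_le_mul_of_nonneg_left q4 (show 0 ≤ μ * A1 ^ 2 by positivity)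
    have e1 : μ * A1 ^ 2 * (8 * (K n).u.WY) = 8 * (μ * ((K n).u.WY * A1 ^ 2)) := by ring
    linarith
  have hY2 : μ * (Ye / |ν|) ≤ 8 * A1 ^ 2 := by
    have h1 : μ * Ye ≤ (K n).u.WY * A1 ^ 2 :=
      (mul_le_mul_of_nonneg_right δμ Ye0.le).trans y1
    rw [mul_div_assoc', div_le_iff₀ ν0]
    have h2 := mul_le_mul_of_nonneg_left q3 (show 0 ≤ 8 * A1 ^ 2 by positivity)
    have e1 : 8 * A1 ^ 2 * ((K n).u.WY / 8) = (K n).u.WY * A1 ^ 2 := by ring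
    linarith
  obtain ⟨α, hα⟩ : ∃ α : ℝ, α = (mk4 D n v x).w 1 / (K n).u.WA * ((mk4 D n v x).w 2 / (K n).u.WB) :=
    ⟨_, rfl⟩
  have hαμ : μ * (A1 * (A1 ^ 2 / r)) ≤ α := by
    have h1 : (K n).u.WB * wBS D K n v ≤ D.w 2 n v * D.B.d n ^ (-(ε / 4)) := g2.2
    have h2 : wBS D K n v = A1 ^ 2 / r := by rw [hA1, hr, hρH, hAe]; rfl
    rw [h2] at h1
    have h3 : μ * (A1 ^ 2 / r) ≤ D.w 2 n v / (K n).u.WB := by
      rw [le_div_iff₀ hWB]
      have h4 := mul_le_mul_of_nonneg_left h1 μ0.le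
      have h5 : μ * (D.w 2 n v * D.B.d n ^ (-(ε / 4))) = D.w 2 n v := by
        rw [hμ]
        calc _ = D.w 2 n v * (D.B.d n ^ (ε / 4) * D.B.d n ^ (-(ε / 4))) := by ring
          _ = _ := by rw [← dpow_add, add_neg_cancel, Real.rpow_zero, mul_one]
      rw [h5] at h4
      linarith
    rw [hα, ← hA1, i5]
    calc μ * (A1 * (A1 ^ 2 / r)) = A1 * (μ * (A1 ^ 2 / r)) := by ring
      _ ≤ A1 * (D.w 2 n v / (K n).u.WB) := mul_le_mul_of_nonneg_left h3 hA0.le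
  obtain ⟨n1, n2, n3, n4, n5⟩ := nums R1 η0.le ηR μ0 μR hY0 hA0 hA1R hA1R' hr0 hr1 hrR hY2 hαμ
  obtain ⟨l1, l2, l3⟩ := nums3 (by linarith) μ0 μR hY0 hA0 hA1R hA1R' hr0 hr1 hY1 hY2 hαμ
  -- the flags
  have hΓ0 : ∀ k, |(K n).M (mk4 D n 0 x).q k| ≤ R := fun k =>
    (hg.2.2 k).trans (by rw [hR]; exact dpow_le D.B n (by linarith))
  have hΓv' : ∀ k, |(K n).M (mk4 D n v x).q k| ≤ R := fun k =>
    (hΓv k).trans (by rw [hR]; exact dpow_le D.B n (by linarith))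
  have hpR : ∀ k, |((K n).t (D.L n x.1)).p k| ≤ R := fun k => (hpv k).1.trans hRC
  have hvR : ∀ k, |((K n).t (D.L n x.1)).v k| ≤ R := fun k => (hpv k).2.trans hRC
  have σk : ∀ k : ℕ, k ≤ 190 → 10 ^ 24 * ((K n).σ * R ^ k) ≤ 1 := by
    intro k hk
    refine sml k (M := 200 * e) ?_ hσ.le f9
    have : (k : ℝ) ≤ 190 := by exact_mod_cast hk
    have := mul_le_mul_of_nonneg_right this ep.le
    linarith
  obtain ⟨hh, hhd⟩ : ∃ hh : ℝ, hh = (K n).σ * R ^ 4 := ⟨_, rfl⟩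
  -- the cell in normal heights
  have ezh : (K n).u.zh (zx D n v x) = z0N D.lev (hzS K) (zsS K) v n (zc (D.lev n v) x.2) :=
    uzh_eq K n (zx D n v x)
  have hηR40 : 40 * (η * R) ≤ 1 := by linarith
  have hh1 : ∀ z, (K n).u.zh (zx D n v x) ≤ z → z ≤ (K n).u.zh (zx D n v x) + r →
      |ht (K n).κ z (((K n).P.line ((K n).t (D.L n x.1))).pos z 1)
        (((K n).P.line ((K n).t (D.L n x.1))).pos z 2)
        (((K n).P.line ((K n).t (D.L n x.1))).pos z 0)| ≤ hh := by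
    intro z z1 z2
    rw [ezh] at z1 z2
    rw [hr, hρH] at z2
    have k1 := thx z z1 z2
    have k2 := f6.2.2 x hx z z1 z2
    have k3 : ∀ k, |(LS D K n x.1).pos z k| ≤ 4 * R := fun k =>
      pos_le f8 R1 hpR hvR hηR40 k2 k
    have k4 := evY_le (G := MkS D K v n (kc (D.lev n v) (D.f n v) x)) (Γ := R) (R := 4 * R)
      hΓv' (by linarith) (k2.trans (by linarith)) (k3 1) (k3 2) (k3 0)
    have k5 : aS D n v * D.B.d n ^ (-(1 : ℝ)) ≤ R := by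
      have k6 : aS D n v ≤ D.B.d n ^ (-(|1 - p.θ 0| + 1)) := by
        show D.w 0 n v / D.w 0 n 0 ≤ _
        rw [div_le_iff₀ mo0, mul_comm]
        exact g7
      refine (mul_le_mul_of_nonneg_right k6 (dp _).le).trans ?_
      rw [← dpow_add, hR]
      exact dpow_le D.B n (by linarith)
    have k7 : ht (K n).κ z ((LS D K n x.1).pos z 1) ((LS D K n x.1).pos z 2)
        ((LS D K n x.1).pos z 0) = (ht (K n).κ z ((LS D K n x.1).pos z 1)
        ((LS D K n x.1).pos z 2) ((LS D K n x.1).pos z 0) -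
        (K n).σ * evY (MkS D K v n (kc (D.lev n v) (D.f n v) x)) z ((LS D K n x.1).pos z 1)
          ((LS D K n x.1).pos z 2) ((LS D K n x.1).pos z 0)) +
        (K n).σ * evY (MkS D K v n (kc (D.lev n v) (D.f n v) x)) z ((LS D K n x.1).pos z 1)
          ((LS D K n x.1).pos z 2) ((LS D K n x.1).pos z 0) := by ring
    show |ht (K n).κ z ((LS D K n x.1).pos z 1) ((LS D K n x.1).pos z 2)
        ((LS D K n x.1).pos z 0)| ≤ hh
    rw [k7]
    have k8 : |(K n).σ * evY (MkS D K v n (kc (D.lev n v) (D.f n v) x)) z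
        ((LS D K n x.1).pos z 1) ((LS D K n x.1).pos z 2) ((LS D K n x.1).pos z 0)| ≤
        (K n).σ * (14 * (R * (4 * R) ^ 2)) := by
      rw [abs_mul, abs_of_pos hσ]
      exact mul_le_mul_of_nonneg_left k4 hσ.le
    refine (a2 (k1.trans (mul_le_mul_of_nonneg_left k5 hσ.le)) k8).trans ?_
    rw [hhd, ← mul_add]
    refine mul_le_mul_of_nonneg_left ?_ hσ.le
    have k9 : 225 * R ^ 3 ≤ R * R ^ 3 := mul_le_mul_of_nonneg_right (by linarith) (by positivity)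
    have k10 : R ≤ R ^ 3 := le_self_pow₀ R1 (by norm_num)
    have e1 : 14 * (R * (4 * R) ^ 2) = 224 * R ^ 3 := by ring
    have e2 : R * R ^ 3 = R ^ 4 := by ring
    linarith
  have hh0 : 0 ≤ hh := by rw [hhd]; positivity
  have hdr := drift_le hr0 hh1
  have s3 : 2 * |drW (K n).κ ((K n).P.line ((K n).t (D.L n x.1)))| ≤ A1 ^ 2 / r * θ := by
    have k1 : 8 * hh / r ^ 2 ≤ 8 * hh * R ^ 2 := by
      rw [div_le_iff₀ (by positivity)]
      have k2 : 1 ≤ (R * r) ^ 2 := one_le_pow₀ hrR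
      have k3 := mul_le_mul_of_nonneg_left k2 (show 0 ≤ 8 * hh by positivity)
      have e1 : 8 * hh * R ^ 2 * r ^ 2 = 8 * hh * (R * r) ^ 2 := by ring
      linarith
    have k4 : 1 ≤ R ^ 3 * (A1 ^ 2 / r * θ) := by
      have := mul_le_mul n4 θR zero_le_one (by positivity)
      linarith
    refine le_of_mul_le_mul_left (a := R ^ 3) ?_ (by positivity)
    have k5 : R ^ 3 * (2 * |drW (K n).κ ((K n).P.line ((K n).t (D.L n x.1)))|) ≤
        R ^ 3 * (2 * (8 * hh * R ^ 2)) := by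
      refine mul_le_mul_of_nonneg_left ?_ (by positivity)
      linarith
    have e2 : R ^ 3 * (2 * (8 * hh * R ^ 2)) = 16 * ((K n).σ * R ^ 9) := by rw [hhd]; ring
    have k6 := σk 9 (by norm_num)
    have k7 : 0 ≤ (K n).σ * R ^ 9 := by positivity
    linarith
  obtain ⟨p1, p2, p3, p4⟩ := nums2 (μ := μ) (hh := hh) (σΓ := (K n).σ * R) R1 η0.le ηR hA0 hA1R' hr0 hrR θR θ0
    n4 (by
      have e1 : 10 * (hh * R ^ 3) = 10 * ((K n).σ * R ^ 7) := by rw [hhd]; ring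
      rw [e1]
      have k6 := σk 7 (by norm_num)
      have k7 : 0 ≤ (K n).σ * R ^ 7 := by positivity
      linarith) (by positivity) (by
      have e1 : (K n).σ * R * R ^ 22 = (K n).σ * R ^ 23 := by ring
      rw [e1]; exact σk 23 (by norm_num))
  -- polynomials
  have hsv := Stk464.qdOf_spec i2.isQ
  have hsu := Stk464.qdOf_spec j2.isQ
  have hs0 := Stk464.qdOf_spec o2.isQ
  rw [hsu.1] at hE
  have hcell : ∀ z, zx D n v x ≤ z → z ≤ zx D n v x + rh D n v →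
      |(qdOf (mk4 D n v x).q).ev z ((D.L n x.1).pos z)| ≤ D.w 0 n v ∧
        |(qdOf (mk4 D n u x).q).ev z ((D.L n x.1).pos z)| ≤ D.w 0 n u := by
    intro z z1 z2
    rw [← hsv.1, ← hsu.1]
    obtain ⟨u1, u2⟩ := cell_nest g6 x.2
    have k1 := (i1 z z1 z2).2
    have k2 := (j1 z (u1.trans z1) (z2.trans u2)).2
    rw [i3] at k1
    rw [j3] at k2
    exact ⟨k1, k2⟩
  have hBR : A1 ^ 2 / r ≤ R := by
    have k1 : A1 ≤ D.B.d n ^ (-(|1 - p.θ 1| + 2)) := by rw [hA1, hAe]; exact f7.2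
    have k2 : A1 ^ 2 ≤ D.B.d n ^ (-(2 * (|1 - p.θ 1| + 2))) := by
      have e9 : (D.B.d n ^ (-(|1 - p.θ 1| + 2))) ^ 2 =
          D.B.d n ^ (-(2 * (|1 - p.θ 1| + 2))) := by
        rw [← Real.rpow_natCast, ← Real.rpow_mul (D.B.pos n).le]
        congr 1; push_cast; ring
      rw [← e9]
      exact pow_le_pow_left₀ hA0.le k1 2
    rw [div_le_iff₀ hr0]
    have k3 : D.B.d n ^ ((v : ℝ) + 1) ≤ r := by rw [hr, hρH]; exact f6.1
    have k4 : D.B.d n ^ (-(2 * (|1 - p.θ 1| + 2))) ≤ R * D.B.d n ^ ((v : ℝ) + 1) := by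
      rw [hR, ← dpow_add]
      exact dpow_le D.B n (by linarith)
    exact (k2.trans k4).trans (mul_le_mul_of_nonneg_left k3 R0.le)
  have hσR : (K n).σ * R ≤ 1 := by
    have k1 := σk 1 (by norm_num)
    rw [pow_one] at k1
    have k2 : 0 ≤ (K n).σ * R := by positivity
    linarith
  rw [← hYe, ← hα, ← hA1, ← hr] at hB'
  have hcw : CwD (mk4 D n v x) (D.L n x.1) (zx D n v x) (rh D n v) (D.B.d n ^ (ε / 2 / 16)) b0 b1
      G (K n).f (K n).c (K n).u (qdOf (mk4 D n v x).q) (qdOf (mk4 D n u x).q)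
      (qdOf (mk4 D n 0 x).q) c0p c1p Cp X (K n).P (K n).κ (K n).σ R R η η (Ye / |ν|) η A1
      ((mk4 D n v x).w 2 / (K n).u.WA) α μ θ (D.w 0 n v) (D.w 0 n u) hh :=
    { O := O
      hf := hK.ortho n
      hu := hK.ok n
      hv := hsv.1
      hE := hE
      m1 := m2'
      hO := hO
      hκ := hκ
      hσ := hσ
      hν0 := hg.2.1
      hfl := hΓ0
      hΓ := hσR
      bas := by
        rw [← hr, hν]
        exact hB'
      hs := by rw [← hr]; exact n1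
      hs2 := by rw [← hr]; exact n2
      hμ := μ0
      hμ1 := μ1
      hθ := θ0.le
      hθμ := hθμ
      hα := by rw [← hr]; exact hαμ
      hY1 := hY1
      hY2 := hY2
      hsz := by rw [← hr]; exact n3
      A1' := hA1R
      B1' := by rw [← hr]; exact hBR
      hP := f8
      th := hcell
      tp := hpR
      tv := hvR
      z1 := hzh
      s1 := p1
      s2 := by rw [← hr]; exact p2
      s3 := by rw [← hr]; exact s3
      s4 := p3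
      s5 := by rw [← hr]; exact p4
      hh1 := by rw [← hr]; exact hh1 }
  -- the coefficient of `Y`
  obtain ⟨t, ht⟩ : ∃ t : ℝ, t = R ^ 4 := ⟨_, rfl⟩
  have hRt : R ≤ t := by rw [ht]; exact le_self_pow₀ R1 (by norm_num)
  have t1 : 1 ≤ t := R1.trans hRt
  have t6 : 10 ^ 6 ≤ t := by linarith
  rw [← ht] at l1 l2 l3
  have hα0 : 0 < α := lt_of_lt_of_le (by positivity) hαμ
  obtain ⟨r1', r2'⟩ := mb_num t6 R1 hRt hY0 l1 l2 hr0
    (hrR.trans (mul_le_mul_of_nonneg_right hRt hr0.le)) hA0.le (hA1R.trans hRt) hα0 l3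
  obtain ⟨Kk, hKk⟩ : ∃ Kk : ℝ, Kk = Ye * X + D.w 0 n u + 16 * D.w 0 n v := ⟨_, rfl⟩
  have hYX : 0 ≤ Ye * X := mul_nonneg Ye0.le X0
  have Kk0 : 0 ≤ Kk := by rw [hKk]; positivity
  have hcell' : ∀ z, zx D n v x ≤ z → z ≤ zx D n v x + rh D n v →
      |(qdOf (mk4 D n u x).q).ev z ((D.L n x.1).pos z) - c0p 0 / b0 0 *
        (qdOf (mk4 D n v x).q).ev z ((D.L n x.1).pos z)| ≤ Kk := by
    intro z z1 z2
    obtain ⟨k1, k2⟩ := hcell z z1 z2
    refine (s2 k2 (m2 m2' k1)).trans ?_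
    rw [hKk]; linarith
  have hW := om_sz O (hK.ortho n) (c := (K n).c) (hK.ok n) hsv.1 hsu.2 hsv.2 hE X0 hO hcw.bas
    hpR hvR (hzh.trans R1) (K := Kk) (τm := t ^ 15) (by rw [← hYe, hKk]; linarith [mv0, mu0])
    hcell' (by rw [← hr]; exact r1') (one_le_pow₀ t1)
  rw [← hr] at hW
  have hη1 : η ≤ 1 / 24 := by
    have : η ≤ η * R := le_mul_of_one_le_right η0.le R1
    linarith
  have hi := f8.inv (by linarith)
  obtain ⟨w1, -⟩ := pull_sz hi (by linarith) hW hκ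
  have e0 : hatQ (K n).f (K n).c (K n).u
      (omq (c0p 0 / b0 0) (qdOf (mk4 D n u x).q) (qdOf (mk4 D n v x).q)) =
      dif (hatQ (K n).f (K n).c (K n).u (qdOf (mk4 D n u x).q))
        (Wit321.mul (c0p 0 / b0 0) (hatQ (K n).f (K n).c (K n).u (qdOf (mk4 D n v x).q))) :=
    Szo327.dif_mul_hat _ _ _ _ _ _
  rw [e0, Szo327.b_pull_lin] at w1
  have hzm : zmN D.lev (hzS K) (zsS K) v n x =
      (K n).u.zh (zx D n v x) + rh D n v / (K n).u.H / 2 := by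
    rw [ezh, hρH]; rfl
  have key := closeW_fin hcw hzm bv0 (show 0 < (K n).u.WY / 4 by positivity) bu1 hΓv' w1
  rw [hρH, hA1, hAe] at key
  have e1 : wAS D K n v = D.w 1 n v / (K n).u.WA := rfl
  rw [hθ] at key
  intro z' a' b' hz' ha' hb'
  refine (key z' a' b' hz' ha' hb').trans ?_
  -- numbers
  obtain ⟨E, hEd⟩ : ∃ E : ℝ, E = D.B.d n ^ (-(Ct * ((v : ℝ) - u)) - ε / 2) *
    max (D.w 0 n u) (D.w 0 n v) := ⟨_, rfl⟩
  have hmx : 0 < max (D.w 0 n u) (D.w 0 n v) := lt_max_of_lt_left mu0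
  have hd1 : (1 : ℝ) ≤ D.B.d n ^ (-(Ct * ((v : ℝ) - u)) - ε / 2) := by
    refine Real.one_le_rpow_of_pos_of_le_one_of_nonpos (D.B.pos n) (D.B.lt n).le ?_
    have := mul_nonneg Ct0 uvr
    linarith
  have hmE : max (D.w 0 n u) (D.w 0 n v) ≤ E := by
    rw [hEd]; exact le_mul_of_one_le_left hmx.le hd1
  have hwu : D.w 0 n u ≤ E := (le_max_left _ _).trans hmE
  have hwv : D.w 0 n v ≤ E := (le_max_right _ _).trans hmE
  have hE0 : 0 ≤ E := hmx.le.trans hmE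
  rw [← hYe] at hX
  rw [← hEd] at hX
  have hσw : (K n).u.WY * (K n).σ = D.w 0 n 0 := g1
  have hfin := last_num (L := 3 * (11 * (X * Ye) + D.w 0 n u + 16 * D.w 0 n v)) (w0 := D.w 0 n 0)
    (WY := (K n).u.WY) (σ := (K n).σ) (K := Kk) (E := E)
    (Kb := 2 * (10 ^ 4 * R ^ 4 * (18 * (Kk * (t ^ 15) ^ 2) / r) / r ^ 2)) (Γv := R) (R := R)
    (t := t) mo0 hWY hσ hσw (by linarith) (by rw [hKk]; linarith) Kk0 hE0
    (by have := r2' Kk Kk0; linarith) t1 R0.le hRt hRt R0.le (by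
      have k1 := σk 172 (by norm_num)
      have e2 : t ^ 43 = R ^ 172 := by rw [ht, ← pow_mul]
      rw [e2]
      have k2 : 0 ≤ (K n).σ * R ^ 172 := by positivity
      linarith)
  rw [← hYe]
  refine hfin.trans ?_
  have e2 : max (aS D n u) (aS D n v) = max (D.w 0 n u) (D.w 0 n v) / D.w 0 n 0 := by
    show max (D.w 0 n u / D.w 0 n 0) (D.w 0 n v / D.w 0 n 0) = _
    exact max_div_div_right mo0.le _ _
  rw [e2]
  have e3 : D.B.d n ^ (-(Ct * ((v : ℝ) - u)) - ε) = D.B.d n ^ (-(ε / 2)) *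
      D.B.d n ^ (-(Ct * ((v : ℝ) - u)) - ε / 2) := by
    rw [← dpow_add]; congr 1; ring
  rw [e3]
  have k400 : (440 : ℝ) ≤ D.B.d n ^ (-(ε / 2)) := le_trans (by norm_num) g9
  have k5 : 0 ≤ E / D.w 0 n 0 := div_nonneg hE0 mo0.le
  have k6 := mul_le_mul_of_nonneg_right k400 k5
  refine k6.trans (le_of_eq ?_)
  rw [hEd]; ring

end Crest.Agent.R136.Clw768
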