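import Crest.Agent.R136.Clw4_768

/-!
# R136, U6 thin side, stage C (helper768): expansions of the level-`u` function on level-`v` marks

`sndUV_of : ThinW p D → SndUV D`.
-/

set_option autoImplicit false
set_option linter.unusedVariables false

open Finset Filter Topology

namespace Crest.Agent.R136.Clw768

open Crest.Agent.R138
open Crest.Agent.R138.Ex926 (Base U)
open Crest.Agent.R138.Dp76 (dpow_pos dpow_add dpow_le dpow_le_one)
open Crest.Agent.R138.ArgM163 (ev_const)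
open Crest.Agent.R138.Mk163 (zc zl rho alive)
open Crest.Agent.R136.MkA627
open Crest.Agent.R136.Sh605
open Crest.Agent.R136.K4
open Crest.Agent.R136.Top484
open Crest.Agent.R136.Stc321 (cell_in wid_two)
open Crest.Agent.R136.Stk464 (mk_facts)
open Crest.Agent.R136.Tl102 (QF kap IsExp OmB)
open Crest.Agent.R136.Tlt51 (Close mk4 zx rh Shp InP)
open Crest.Agent.R136.KapP335 (kapP DetP kapP_eq)
open Crest.Agent.R136.TL650 (own_of snd_of_close)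
open Crest.Agent.R136.Thn768 (ThinW Own Snd Tay exists_tay)

theorem sndUV_of {p : Par4} {D : Dat4} (h : ThinW p D) : SndUV D := by
  obtain ⟨Ct, hCt, ht⟩ := h.tilt
  set W : ℝ := |1 - p.θ 0| + 1 with hW
  have W0 : 0 ≤ W := by have := abs_nonneg (1 - p.θ 0); linarith
  refine ⟨Ct, hCt, fun u v u0 uv v1 ε hε => ?_⟩
  have v0 : 0 ≤ v := u0.trans uv.le
  have u1 : u ≤ 1 := uv.le.trans v1
  have vr1 : (v : ℝ) ≤ 1 := by exact_mod_cast v1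
  have ur0 : (0 : ℝ) ≤ u := by exact_mod_cast u0
  have uvr : (0 : ℝ) ≤ (v : ℝ) - u := by
    have : (u : ℝ) ≤ v := by exact_mod_cast uv.le
    linarith
  filter_upwards [mk_facts h.mka u0 u1, mk_facts h.mka v0 v1,
    ht u v u0 uv v1 (ε / 4) (by positivity), h.thin v v0 v1 (Ct + 2 * W + ε + 2),
    wid_two h.mka 0 v0 v1, wid_two h.mka 0 u0 u1, h.mka.lev_mono u v u0 uv.le v1,
    ev_const D.B (C := 10 ^ 20) (by norm_num) one_pos,
    ev_const D.B (C := 10 ^ 19) (by norm_num) (show 0 < ε / 4 by positivity)]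
    with n a1 a2 a3 a4 a5 a5' a6 a7 a8 x hx b0 b1 G O
  obtain ⟨f1, f2, f3, f4, f5⟩ := a2.2 x hx
  obtain ⟨g1, g2, g3, g4, g5⟩ := a1.2 x hx
  have dp := dpow_pos D.B n
  obtain ⟨w0, wv, wl, wl'⟩ := a5
  obtain ⟨-, wu, wlu, wlu'⟩ := a5'
  have hYe := O.Ye0
  have hw0' : 0 < (mk4 D n u x).w 0 := by
    have := g2.a_le0
    rw [g3] at this
    exact wu.trans_le this
  have hkp := a4 x hx
  rw [kapP_eq (O.pos 0).ne' O.exp, f3] at hkp
  obtain ⟨Ye, hYed⟩ : ∃ Ye : ℝ, Ye = (mk4 D n v x).w 0 * kap b0 b1 G := ⟨_, rfl⟩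
  rw [← hYed] at hYe hkp
  obtain ⟨E, hE⟩ : ∃ E : ℝ, E = D.B.d n ^ (-(Ct * ((v : ℝ) - u)) - ε / 4) *
    max (D.w 0 n u) (D.w 0 n v) := ⟨_, rfl⟩
  have p8 : (D.B.d n ^ (ε / 16)) ^ 8 = D.B.d n ^ (ε / 2) := by
    rw [← Real.rpow_natCast, ← Real.rpow_mul (D.B.pos n).le]
    congr 1; push_cast; ring
  have hdW : 1 ≤ D.B.d n ^ (-(2 * W)) :=
    Real.one_le_rpow_of_pos_of_le_one_of_nonpos (D.B.pos n) (D.B.lt n).le (by linarith)
  have hcv : Ct * ((v : ℝ) - u) ≤ Ct := mul_le_of_le_one_right hCt (by linarith)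
  have m1 : max (D.w 0 n u) (D.w 0 n v) ≤ D.w 0 n v * D.B.d n ^ (-(2 * W)) := by
    refine max_le ?_ (le_mul_of_one_le_right wv.le hdW)
    calc D.w 0 n u ≤ D.w 0 n 0 * D.B.d n ^ (-W) := wlu
      _ ≤ D.w 0 n v * D.B.d n ^ (-W) * D.B.d n ^ (-W) := mul_le_mul_of_nonneg_right wl' (dp _).le
      _ = D.w 0 n v * D.B.d n ^ (-(2 * W)) := by
          rw [mul_assoc, ← dpow_add]; congr 2; ring
  have hmx : 0 ≤ max (D.w 0 n u) (D.w 0 n v) := wu.le.trans (le_max_left _ _)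
  have hE0 : 0 ≤ E := by rw [hE]; exact mul_nonneg (dp _).le hmx
  have E3 : E ≤ D.B.d n ^ (3 * ε / 4 + 2) * Ye := by
    have e0 : D.B.d n ^ (-(Ct * ((v : ℝ) - u)) - ε / 4) ≤ D.B.d n ^ (-Ct - ε / 4) :=
      dpow_le D.B n (by linarith)
    calc E ≤ D.B.d n ^ (-Ct - ε / 4) * (D.w 0 n v * D.B.d n ^ (-(2 * W))) := by
          rw [hE]; exact mul_le_mul e0 m1 hmx (dp _).le
      _ = D.B.d n ^ (-Ct - ε / 4) * D.B.d n ^ (-(2 * W)) * D.w 0 n v := by ring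
      _ ≤ D.B.d n ^ (-Ct - ε / 4) * D.B.d n ^ (-(2 * W)) *
          (D.B.d n ^ (Ct + 2 * W + ε + 2) * Ye) :=
          mul_le_mul_of_nonneg_left hkp (mul_nonneg (dp _).le (dp _).le)
      _ = D.B.d n ^ (3 * ε / 4 + 2) * Ye := by
          rw [← mul_assoc, ← dpow_add, ← dpow_add]; congr 2; ring
  have hsm : 10 ^ 20 * E ≤ (D.B.d n ^ (ε / 16)) ^ 8 * Ye := by
    rw [p8]
    have h1 : 10 ^ 20 * D.B.d n ^ (3 * ε / 4 + 2) ≤ D.B.d n ^ (ε / 2) := by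
      calc 10 ^ 20 * D.B.d n ^ (3 * ε / 4 + 2) ≤ D.B.d n ^ (-(1 : ℝ)) *
            D.B.d n ^ (3 * ε / 4 + 2) := mul_le_mul_of_nonneg_right a7 (dp _).le
        _ = D.B.d n ^ (3 * ε / 4 + 1) := by rw [← dpow_add]; congr 1; ring
        _ ≤ D.B.d n ^ (ε / 2) := dpow_le D.B n (by linarith)
    calc 10 ^ 20 * E ≤ 10 ^ 20 * (D.B.d n ^ (3 * ε / 4 + 2) * Ye) :=
          mul_le_mul_of_nonneg_left E3 (by norm_num)
      _ = 10 ^ 20 * D.B.d n ^ (3 * ε / 4 + 2) * Ye := by ring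
      _ ≤ D.B.d n ^ (ε / 2) * Ye := mul_le_mul_of_nonneg_right h1 hYe.le
  obtain ⟨c1, c2⟩ := cell_in a6 x.2
  have hcl := a3 x hx
  rw [← hE] at hcl
  rw [hYed] at hsm
  obtain ⟨N, R, H, hS⟩ := snd_of_close O f2 f1 g2 hw0' c1 c2 g1 hcl hsm
  rw [← hYed] at hS
  obtain ⟨b0', b1', G', hx', k1, k2, hO⟩ := hS.ex
  have hX0 : 0 ≤ 10 ^ 19 * E / (D.B.d n ^ (ε / 16)) ^ 8 / Ye := by
    have := dp (ε / 16)
    positivity
  refine ⟨_, b0', b1', G', hx', k1, k2, hX0, hO, ?_⟩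
  rw [← hYed]
  have e1 : 10 ^ 19 * E / (D.B.d n ^ (ε / 16)) ^ 8 / Ye * Ye =
      10 ^ 19 * E / (D.B.d n ^ (ε / 16)) ^ 8 := by field_simp
  rw [e1, p8, div_le_iff₀ (dp _), hE]
  have e2 : D.B.d n ^ (-(Ct * ((v : ℝ) - u)) - ε) * max (D.w 0 n u) (D.w 0 n v) *
      D.B.d n ^ (ε / 2) = D.B.d n ^ (-(ε / 4)) *
      (D.B.d n ^ (-(Ct * ((v : ℝ) - u)) - ε / 4) * max (D.w 0 n u) (D.w 0 n v)) := by
    have e3 : D.B.d n ^ (-(Ct * ((v : ℝ) - u)) - ε) * D.B.d n ^ (ε / 2) =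
        D.B.d n ^ (-(ε / 4)) * D.B.d n ^ (-(Ct * ((v : ℝ) - u)) - ε / 4) := by
      rw [← dpow_add, ← dpow_add]; congr 1; ring
    calc _ = D.B.d n ^ (-(Ct * ((v : ℝ) - u)) - ε) * D.B.d n ^ (ε / 2) *
          max (D.w 0 n u) (D.w 0 n v) := by ring
      _ = _ := by rw [e3]; ring
  rw [e2]
  exact mul_le_mul_of_nonneg_right a8 (mul_nonneg (dp _).le hmx)

end Crest.Agent.R136.Clw768
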