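import Crest.Agent.R136.Stk5_464
import Crest.Agent.R136.Stc9_321

/-!
# R136, U6 thin side, stage C (helper464): the fields `Mb` and `thick` of `StcA`
-/

set_option autoImplicit false
set_option linter.unusedVariables false

open Finset Filter Topology

namespace Crest.Agent.R136.Stk464

open Crest.Agent.R138
open Crest.Agent.R138.Ex926 (Base U)
open Crest.Agent.R138.Mk163 (zc zl rho alive)
open Crest.Agent.R138.MkRef627 (lc kc mem_alive)
open Crest.Agent.R136.Sh605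
open Crest.Agent.R136.NetW191
open Crest.Agent.R136.GeoN778
open Crest.Agent.R136.Wit321
open Crest.Agent.R136.Top484
open Crest.Agent.R136.Stc321
open Crest.Agent.R136.Tlt51 (Close mk4 zx rh Shp InP)
open Crest.Agent.R136.Fw650 (z0N zhN rhN)
open Crest.Agent.R136.Thn768 (ThinW)

variable {p : Par4} {D : Dat4} {K : ℕ → CtD} {x0 : ℕ → ℕ × ℝ}

/-- **flags of all levels** : the field `Mb` of `StcA` -/
theorem Mb_all (h : ThinW p D) (hK : StcK p D K x0) :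
    ∀ C : ℝ, ∀ v : ℚ, 0 ≤ v → v ≤ 1 → ∃ C' : ℝ, ∀ᶠ n in (U : Filter ℕ), ∀ x ∈ D.I n,
      Gd D K C n x → ((K n).Q (mk4 D n v x).q).b 0 ≠ 0 ∧
        ∀ k, |MkS D K v n (kc (D.lev n v) (D.f n v) x) k| ≤ D.B.d n ^ (-C') :=
  Mb_of h hK fun C v h0 h1 => by
    obtain ⟨C2, c0, hC2⟩ := lev_data h hK C h0 h1
    exact ⟨C2, 4 * C2 + 10, hC2 1 one_pos _ le_rfl⟩

/-- **thickness** : the field `thick` of `StcA` -/
theorem thick_all (h : ThinW p D) (hK : StcK p D K x0) :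
    ∀ C : ℝ, ∀ v : ℚ, 0 ≤ v → v ≤ 1 → ∀ ε : ℝ, 0 < ε → ∀ᶠ n in (U : Filter ℕ),
    ∀ x ∈ D.I n, Gd D K C n x → ∀ z, z0N D.lev (hzS K) (zsS K) v n (zc (D.lev n v) x.2) ≤ z →
      z ≤ z0N D.lev (hzS K) (zsS K) v n (zc (D.lev n v) x.2) + rhN D.lev (hzS K) n v →
      |ht (K n).κ z ((LS D K n x.1).pos z 1) ((LS D K n x.1).pos z 2) ((LS D K n x.1).pos z 0) -
        (K n).σ * evY (MkS D K v n (kc (D.lev n v) (D.f n v) x)) z ((LS D K n x.1).pos z 1)
          ((LS D K n x.1).pos z 2) ((LS D K n x.1).pos z 0)| ≤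
        (K n).σ * (aS D n v * D.B.d n ^ (-ε)) :=
  thick_of h hK (Mb_all h hK)

end Crest.Agent.R136.Stk464
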