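import Crest.Agent.R136.Clw5_768
import Crest.Agent.R136.Stk6_464

/-!
# R136, U6 thin side, stage C (helper768): the field `clw` of `StcA`
-/

set_option autoImplicit false
set_option linter.unusedVariables false

open Finset Filter Topology

namespace Crest.Agent.R136.Clw768

open Crest.Agent.R138.Ex926 (Base U)
open Crest.Agent.R138.Mk163 (zc zl rho)
open Crest.Agent.R138.MkRef627 (lc kc)
open Crest.Agent.R136.Top484
open Crest.Agent.R136.Stc321
open Crest.Agent.R136.Stk464 (StcK)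
open Crest.Agent.R136.Fw650 (z0N zhN rhN)
open Crest.Agent.R136.Thn768 (ThinW)
open Crest.Agent.R136.Tn327 (CloseW zmN)
open Crest.Agent.R136.FlW464 (frW drW)

/-- **closeness of the sheets of two levels** : the field `clw` of `StcA` -/
theorem clw_of {p : Par4} {D : Dat4} {K : ℕ → CtD} {x0 : ℕ → ℕ × ℝ} (h : ThinW p D)
    (hK : StcK p D K x0) :
    ∃ C0 : ℝ, 0 ≤ C0 ∧ ∀ C : ℝ, ∀ u v : ℚ, 0 ≤ u → u < v → v ≤ 1 → ∀ ε : ℝ, 0 < ε →
    ∀ᶠ n in (U : Filter ℕ), ∀ x ∈ D.I n, Gd D K C n x →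
      CloseW (K n).κ (frW (LS D K n x.1) (zmN D.lev (hzS K) (zsS K) v n x))
        (rhN D.lev (hzS K) n v * D.B.d n ^ ε) (wAS D K n v * D.B.d n ^ ε)
        (wAS D K n v ^ 2 / rhN D.lev (hzS K) n v * D.B.d n ^ ε)
        (max (aS D n u) (aS D n v) * D.B.d n ^ (-(C0 * ((v : ℝ) - u)) - ε))
        (MkS D K v n (kc (D.lev n v) (D.f n v) x))
        (MkS D K u n (kc (D.lev n u) (D.f n u) x)) :=
  clw_of_snd h hK (sndUV_of h) (Stk464.Mb_all h hK) (Stk464.thick_all h hK)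

end Crest.Agent.R136.Clw768
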