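import Crest.Agent.R136.Cmd_113
import Crest.Agent.R136.Cbx3_140
import Crest.Agent.R136.Ndl_372

/-!
# R136 (S0187), PLAN 2, (C3): `meetU`, `meetV` of `Ndl372` over `TCore`
-/

set_option autoImplicit false
set_option linter.unusedVariables false

open Finset

namespace Crest.Agent.R136.Cmd113

open Crest.Agent.R136.Sh605 Crest.Agent.R136.Fl808
open Crest.Agent.R136.Hl706 (det3)
open Crest.Agent.R136.Cbx140 (Tb Tb.symm tb_of_dy place_dy inB_sub)
open Crest.Agent.R136.Ndl372 (join)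
open Crest.Agent.R136.Pl2

open Classical in
theorem mem_join {ι κ κ' : Type*} {P : Finset ι} {u : ι → κ} {v : ι → κ'} {cv : ι → ι → Prop}
    {av : ι → ι → ℝ} {y : ℝ} {c c'' : κ} {t : ι} :
    t ∈ join P u v cv av y c c'' ↔
      t ∈ P ∧ u t = c ∧ ∃ t'' ∈ P, u t'' = c'' ∧ v t'' = v t ∧ cv t t'' ∧ y < av t t'' := by
  unfold join
  exact mem_filter

/-- an affine function which is small at both ends is small inside -/
theorem dt_affine (n : V3) (s t : Ln4) {z0 ρ m : ℝ} (hρ : 0 < ρ)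
    (h0 : |dt n (s.pos z0 - t.pos z0)| ≤ m) (h1 : |dt n (s.pos (z0 + ρ) - t.pos (z0 + ρ))| ≤ m) :
    ∀ z, z0 ≤ z → z ≤ z0 + ρ → |dt n (s.pos z - t.pos z)| ≤ m := by
  intro z hz hz'
  have key : ρ * dt n (s.pos z - t.pos z) =
      (z0 + ρ - z) * dt n (s.pos z0 - t.pos z0) + (z - z0) *
        dt n (s.pos (z0 + ρ) - t.pos (z0 + ρ)) := by
    simp only [dt, Ln4.pos, Pi.sub_apply]; ring
  rw [abs_le] at h0 h1 ⊢
  have a1 : 0 ≤ z0 + ρ - z := by linarith
  have a2 : 0 ≤ z - z0 := by linarith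
  constructor
  · nlinarith [mul_le_mul_of_nonneg_left h0.1 a1, mul_le_mul_of_nonneg_left h1.1 a2]
  · nlinarith [mul_le_mul_of_nonneg_left h0.2 a1, mul_le_mul_of_nonneg_left h1.2 a2]

open Classical in
/-- a class is covered by four tubes of width `w1` -/
theorem size_of {L : ℕ → Ln4} {P : Finset ℕ} {u : ℕ → ℕ} {bu : ℕ → Ln4} {eu : ℕ → Fin 3 → V3}
    {Y w1 w2 z0 ρ G : ℝ} (hρ : 0 < ρ) (hw : 0 < w1)
    (hm : ∀ t ∈ P, InB (L t) (bu (u t)) (eu (u t)) ![Y, w1, w2] z0 ρ)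
    (ht : ∀ t ∈ P, ((P.filter fun s => u s = u t ∧ ∀ z, z0 ≤ z → z ≤ z0 + ρ →
      |dt (eu (u t) 1) ((L s).pos z - (L t).pos z)| ≤ w1).card : ℝ) ≤ G) (hG : 0 ≤ G) :
    ∀ c, ((P.filter fun s => u s = c).card : ℝ) ≤ 4 * G := by
  intro c
  -- the quadrant of a line
  set f : ℕ → Bool × Bool := fun s =>
    (decide (0 ≤ dt (eu c 1) ((L s).pos z0 - (bu c).pos z0)),
      decide (0 ≤ dt (eu c 1) ((L s).pos (z0 + ρ) - (bu c).pos (z0 + ρ)))) with hf
  have key : ∀ q : Bool × Bool,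
      (((P.filter fun s => u s = c).filter fun s => f s = q).card : ℝ) ≤ G := by
    intro q
    rcases ((P.filter fun s => u s = c).filter fun s => f s = q).eq_empty_or_nonempty with h | h
    · rw [h]; simpa using hG
    obtain ⟨t, ht0⟩ := h
    rw [mem_filter, mem_filter] at ht0
    obtain ⟨⟨htP, htc⟩, htq⟩ := ht0
    refine le_trans (Nat.cast_le.2 (card_le_card ?_)) (ht t htP)
    intro s hs
    rw [mem_filter, mem_filter] at hs
    obtain ⟨⟨hsP, hsc⟩, hsq⟩ := hs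
    rw [mem_filter]
    refine ⟨hsP, hsc.trans htc.symm, ?_⟩
    rw [htc]
    have hh : f s = f t := hsq.trans htq.symm
    rw [hf] at hh
    simp only [Prod.mk.injEq, decide_eq_decide] at hh
    have ms := hm s hsP
    have mt := hm t htP
    rw [hsc] at ms
    rw [htc] at mt
    have small : ∀ z, z0 ≤ z → z ≤ z0 + ρ →
        (0 ≤ dt (eu c 1) ((L s).pos z - (bu c).pos z) ↔
          0 ≤ dt (eu c 1) ((L t).pos z - (bu c).pos z)) →
        |dt (eu c 1) ((L s).pos z - (L t).pos z)| ≤ w1 := by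
      intro z hz hz' hi
      have e1 : dt (eu c 1) ((L s).pos z - (L t).pos z) =
          dt (eu c 1) ((L s).pos z - (bu c).pos z) - dt (eu c 1) ((L t).pos z - (bu c).pos z) := by
        simp only [dt, Pi.sub_apply]; ring
      have m1 := ms z hz hz' 1
      have m2 := mt z hz hz' 1
      simp only [Matrix.cons_val_one, Matrix.cons_val_zero] at m1 m2
      rw [e1]
      rw [abs_le] at m1 m2 ⊢
      by_cases hp : 0 ≤ dt (eu c 1) ((L s).pos z - (bu c).pos z)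
      · have hp' := hi.1 hp
        constructor <;> linarith [m1.1, m1.2, m2.1, m2.2]
      · have hp' : ¬ 0 ≤ dt (eu c 1) ((L t).pos z - (bu c).pos z) := fun h => hp (hi.2 h)
        rw [not_le] at hp hp'
        constructor <;> linarith [m1.1, m1.2, m2.1, m2.2]
    exact dt_affine _ _ _ hρ (small z0 le_rfl (by linarith) hh.1)
      (small (z0 + ρ) (by linarith) le_rfl hh.2)
  have h1 : (P.filter fun s => u s = c).card =
      ∑ q : Bool × Bool, ((P.filter fun s => u s = c).filter fun s => f s = q).card :=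
    card_eq_sum_card_fiberwise fun _ _ => mem_univ _
  rw [h1]; push_cast
  calc ∑ q : Bool × Bool, (((P.filter fun s => u s = c).filter fun s => f s = q).card : ℝ)
      ≤ ∑ _q : Bool × Bool, G := sum_le_sum fun q _ => key q
    _ = 4 * G := by
        rw [sum_const, nsmul_eq_mul]
        simp

open Classical in
/-- the count, generic form -/
theorem meet_of {L : ℕ → Ln4} {P : Finset ℕ} {u v : ℕ → ℕ} {bu bv : ℕ → Ln4}
    {eu ev : ℕ → Fin 3 → V3} {M Y w1 w2 z0 ρ B θ S : ℝ} {j k' : ℕ}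
    (hM : 0 < M) (hρ : 0 < ρ) (hY : 0 < Y) (hYw : Y ≤ w2) (hw : w2 ≤ w1)
    (ou : ∀ t ∈ P, Ortho (eu (u t))) (ov : ∀ t ∈ P, Ortho (ev (v t)))
    (mu : ∀ t ∈ P, InB (L t) (bu (u t)) (eu (u t)) ![Y, w1, w2] z0 ρ)
    (mv : ∀ t ∈ P, InB (L t) (bv (v t)) (ev (v t)) ![Y, w1, w2] z0 ρ)
    (tb : ∀ t ∈ P, Tb (eu (u t)) (ev (v t)) Y w1 w2 (2 ^ j) (2 ^ k'))
    (hlw : (2:ℝ) ^ j * w2 ≤ 2 * w1)
    (hS : ∀ c, ((P.filter fun s => u s = c).card : ℝ) ≤ S * M) (hS0 : 0 ≤ S)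
    (hB : 0 ≤ B) (hθ : 0 < θ) (hθ1 : θ ≤ 1) :
    ∀ (c c'' : ℕ) (y : ℝ), 0 < y → y ≤ 16 →
      ((join P u v (CrV L P u v eu ev w1 z0 ρ M (2 ^ j) B θ)
        (aV u v eu ev Y w1 w2 (2 ^ j) (2 ^ k')) y c c'').card : ℝ) ≤
        (B + S) * (12800000 / (θ * y * 2 ^ j)) * M := by
  intro c c'' y hy hy16
  have hw2 : 0 < w2 := hY.trans_le hYw
  have hw1 : 0 < w1 := hw2.trans_le hw
  have hj : (1:ℝ) ≤ 2 ^ j := one_le_pow₀ (by norm_num)
  have hj0 : (0:ℝ) < 2 ^ j := by positivity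
  have hk0 : (0:ℝ) < 2 ^ k' := by positivity
  have hD : 0 < ((2:ℝ) ^ j) ^ 2 * 2 ^ k' * Y * w2 := by positivity
  have hden : 0 < θ * y * 2 ^ j := by positivity
  set r : ℝ := 12800000 / (θ * y * 2 ^ j) with hr
  have hr0 : 0 < r := by rw [hr]; positivity
  have hBS : 0 ≤ B + S := by linarith
  rcases (join P u v (CrV L P u v eu ev w1 z0 ρ M (2 ^ j) B θ)
        (aV u v eu ev Y w1 w2 (2 ^ j) (2 ^ k')) y c c'').eq_empty_or_nonempty with hE | hE
  · rw [hE, card_empty, Nat.cast_zero]; positivity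
  obtain ⟨T, hT⟩ := hE
  rw [mem_join] at hT
  obtain ⟨hTP, hTc, T2, hT2P, hT2c, hT2v, hcr, hdet⟩ := hT
  obtain ⟨hvv, zs, hzs0, hzs1, hx1, hx2, hgT, -⟩ := hcr
  -- the determinant
  have detl : ∀ s t : ℕ, v s = v t → y < aV u v eu ev Y w1 w2 (2 ^ j) (2 ^ k') s t →
      y * ((2 ^ j) ^ 2 * 2 ^ k' * Y * w2) ≤
        |det3 (eu (u s) 1) (ev (v t) 1) (eu (u t) 1)| * w1 ^ 2 := by
    intro s t hst h
    rw [aV, if_pos hst, lt_div_iff₀ hD] at h
    exact h.le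
  have hle : ∀ t ∈ join P u v (CrV L P u v eu ev w1 z0 ρ M (2 ^ j) B θ)
        (aV u v eu ev Y w1 w2 (2 ^ j) (2 ^ k')) y c c'',
      t ∈ P ∧ u t = c ∧ |dt (eu c 1) ((L t).pos zs - (L T).pos zs)| ≤ r * w1 := by
    intro t ht
    rw [mem_join] at ht
    obtain ⟨htP, htc, t2, ht2P, ht2c, ht2v, htcr, -⟩ := ht
    obtain ⟨htvv, z1, hz10, hz11, hy1, hy2, -, -⟩ := htcr
    refine ⟨htP, htc, ?_⟩
    have e1 := (place_dy (e := eu c) (f := ev (v T)) (g := eu c'') (f' := ev (v t))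
      (T := L T) (T2 := L T2) (T1 := L t) (T12 := L t2) (bS := bu c) (bv := bv (v T))
      (bS2 := bu c'') (bv' := bv (v t)) (Y := Y) (w1 := w1) (w2 := w2) (θ := θ) (η := y)
      (c := 4) (z0 := z0) (ρ := ρ) (zs := zs) (z1 := z1) (j := j) (k' := k')
      (hTc ▸ ou T hTP) (ov T hTP) (hT2c ▸ ou T2 hT2P) (ov t htP) hY hYw hw hρ (by norm_num) hθ
      (by linarith) hy (hTc ▸ tb T hTP) (by have := tb T2 hT2P; rwa [hT2c, hT2v] at this)
      (htc ▸ tb t htP) hlw (hTc ▸ mu T hTP) (htc ▸ mu t htP) (mv T hTP)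
      (by have := mv T2 hT2P; rwa [hT2v] at this) (hT2c ▸ mu T2 hT2P) (ht2c ▸ mu t2 ht2P)
      (mv t htP) (by have := mv t2 ht2P; rwa [ht2v] at this) ⟨hzs0, hzs1⟩ ⟨hz10, hz11⟩
      (by rw [dt_sub_abs, ← hT2v]; exact hx1)
      (by rw [dt_sub_abs, ← hT2v]; exact hx2)
      (by rw [dt_sub_abs, ← ht2v]; exact hy1)
      (by have := detl T T2 hvv hdet; rwa [hTc, hT2c, hT2v] at this)).2
    have e2 : (3200000:ℝ) * (4 / (θ * y * 2 ^ j)) = r := by rw [hr]; ring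
    rw [e2] at e1
    exact e1
  rcases le_or_gt r 1 with h1 | h1
  · have hrΛ : 1 ≤ r * 2 ^ j := by
      have : r * 2 ^ j = 12800000 / (θ * y) := by
        rw [hr]; field_simp
      rw [this, le_div_iff₀ (by positivity)]
      nlinarith
    have h2 := hgT r hrΛ h1
    calc ((join P u v (CrV L P u v eu ev w1 z0 ρ M (2 ^ j) B θ)
        (aV u v eu ev Y w1 w2 (2 ^ j) (2 ^ k')) y c c'').card : ℝ)
        ≤ ((P.filter fun s => u s = u T ∧
            |dt (eu (u T) 1) ((L s).pos zs - (L T).pos zs)| ≤ r * w1).card : ℝ) := by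
          refine Nat.cast_le.2 (card_le_card fun t ht => ?_)
          obtain ⟨a1, a2, a3⟩ := hle t ht
          rw [mem_filter, hTc]
          exact ⟨a1, a2, a3⟩
      _ ≤ B * r * M := h2
      _ ≤ (B + S) * r * M := by gcongr; linarith
  · calc ((join P u v (CrV L P u v eu ev w1 z0 ρ M (2 ^ j) B θ)
        (aV u v eu ev Y w1 w2 (2 ^ j) (2 ^ k')) y c c'').card : ℝ)
        ≤ ((P.filter fun s => u s = c).card : ℝ) := by
          refine Nat.cast_le.2 (card_le_card fun t ht => ?_)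
          obtain ⟨a1, a2, a3⟩ := hle t ht
          rw [mem_filter]
          exact ⟨a1, a2⟩
      _ ≤ S * M := hS c
      _ = S * 1 * M := by ring
      _ ≤ (B + S) * r * M := by
          have : S * 1 ≤ (B + S) * r := by
            calc S * 1 ≤ (B + S) * 1 := by linarith
              _ ≤ (B + S) * r := by gcongr
          gcongr

section core

variable {qm qp : Fin 3 → ℝ} {L : ℕ → Ln4} {P : Finset ℕ} {u v : ℕ → ℕ} {bu bv : ℕ → Ln4}
  {eu ev : ℕ → Fin 3 → V3} {W M a Y w1 w2 z0 ρ : ℝ}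

open Classical in
/-- class sizes, first system -/
theorem core_size (h : TCore qm qp L P u v bu bv eu ev W M a Y w1 w2 z0 ρ) :
    ∀ c, ((P.filter fun s => u s = c).card : ℝ) ≤ 4 * (W * M) := by
  have hw2 : 0 < w2 := (h.a0.trans_le h.aY).trans_le h.Yw
  have hw1 : 0 < w1 := hw2.trans_le h.ww
  have hWM : 0 ≤ W * M := mul_nonneg (by linarith [h.W1]) h.M0.le
  refine size_of h.ρ0 hw1 h.mu (fun t ht => ?_) hWM
  have h1 := h.tubeu t ht 1 (by linarith [h.ww]) le_rfl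
  simpa using h1

open Classical in
/-- class sizes, second system -/
theorem core_size' (h : TCore qm qp L P u v bu bv eu ev W M a Y w1 w2 z0 ρ) :
    ∀ c, ((P.filter fun s => v s = c).card : ℝ) ≤ 4 * (W * M) := by
  have hw2 : 0 < w2 := (h.a0.trans_le h.aY).trans_le h.Yw
  have hw1 : 0 < w1 := hw2.trans_le h.ww
  have hWM : 0 ≤ W * M := mul_nonneg (by linarith [h.W1]) h.M0.le
  refine size_of h.ρ0 hw1 h.mv (fun t ht => ?_) hWM
  have h1 := h.tubev t ht 1 (by linarith [h.ww]) le_rfl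
  simpa using h1

open Classical in
/-- **`meetU`** -/
theorem core_meet (h : TCore qm qp L P u v bu bv eu ev W M a Y w1 w2 z0 ρ) {j k' : ℕ}
    (hd : ∀ t ∈ P, Dy (eu (u t)) (ev (v t)) Y w1 w2 j k') {B θ : ℝ} (hB : 0 ≤ B) (hθ : 0 < θ)
    (hθ1 : θ ≤ 1) :
    ∀ (c c'' : ℕ) (y : ℝ), 0 < y → y ≤ 16 →
      ((join P u v (CrV L P u v eu ev w1 z0 ρ M (2 ^ j) B θ)
        (aV u v eu ev Y w1 w2 (2 ^ j) (2 ^ k')) y c c'').card : ℝ) ≤
        (B + 4 * W) * (12800000 / (θ * y * 2 ^ j)) * M := by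
  intro c c'' y hy hy16
  rcases P.eq_empty_or_nonempty with hP | ⟨t0, ht0⟩
  · have hW : 0 ≤ W := by linarith [h.W1]
    have hM := h.M0
    have : join P u v (CrV L P u v eu ev w1 z0 ρ M (2 ^ j) B θ)
        (aV u v eu ev Y w1 w2 (2 ^ j) (2 ^ k')) y c c'' = ∅ := by
      rw [eq_empty_iff_forall_notMem]
      intro t ht
      rw [mem_join, hP] at ht
      exact absurd ht.1 (notMem_empty t)
    rw [this, card_empty, Nat.cast_zero]
    positivity
  · have hY : 0 < Y := h.a0.trans_le h.aY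
    have hw2 : 0 < w2 := hY.trans_le h.Yw
    have hlw := (hd t0 ht0).hlw (h.ou t0 ht0) (h.ov t0 ht0) hY h.Yw h.ww
    exact meet_of h.M0 h.ρ0 hY h.Yw h.ww h.ou h.ov h.mu h.mv
      (fun t ht => tb_of_dy (hd t ht) (h.ou t ht) (h.ov t ht) hY h.Yw h.ww) hlw
      (fun c => by have := core_size h c; linarith) (by linarith [h.W1]) hB hθ hθ1 c c'' y hy hy16

open Classical in
/-- **`meetV`** -/
theorem core_meet' (h : TCore qm qp L P u v bu bv eu ev W M a Y w1 w2 z0 ρ) {j k' : ℕ}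
    (hd : ∀ t ∈ P, Dy (eu (u t)) (ev (v t)) Y w1 w2 j k') {B θ : ℝ} (hB : 0 ≤ B) (hθ : 0 < θ)
    (hθ1 : θ ≤ 1) :
    ∀ (c c'' : ℕ) (y : ℝ), 0 < y → y ≤ 16 →
      ((join P v u (CrV L P v u ev eu w1 z0 ρ M (2 ^ j) B θ)
        (aV v u ev eu Y w1 w2 (2 ^ j) (2 ^ k')) y c c'').card : ℝ) ≤
        (B + 4 * W) * (12800000 / (θ * y * 2 ^ j)) * M := by
  intro c c'' y hy hy16
  rcases P.eq_empty_or_nonempty with hP | ⟨t0, ht0⟩
  · have hW : 0 ≤ W := by linarith [h.W1]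
    have hM := h.M0
    have : join P v u (CrV L P v u ev eu w1 z0 ρ M (2 ^ j) B θ)
        (aV v u ev eu Y w1 w2 (2 ^ j) (2 ^ k')) y c c'' = ∅ := by
      rw [eq_empty_iff_forall_notMem]
      intro t ht
      rw [mem_join, hP] at ht
      exact absurd ht.1 (notMem_empty t)
    rw [this, card_empty, Nat.cast_zero]
    positivity
  · have hY : 0 < Y := h.a0.trans_le h.aY
    have hw2 : 0 < w2 := hY.trans_le h.Yw
    have hlw := (hd t0 ht0).hlw (h.ou t0 ht0) (h.ov t0 ht0) hY h.Yw h.ww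
    exact meet_of h.M0 h.ρ0 hY h.Yw h.ww h.ov h.ou h.mv h.mu
      (fun t ht => (tb_of_dy (hd t ht) (h.ou t ht) (h.ov t ht) hY h.Yw h.ww).symm) hlw
      (fun c => by have := core_size' h c; linarith) (by linarith [h.W1]) hB hθ hθ1 c c'' y hy hy16

end core

end Crest.Agent.R136.Cmd113
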