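import Crest.Agent.R136.Nmx2b_44
import Crest.Agent.R136.Amd_84

/-!
# R136 (S0187), PLAN 2 (AL) (A), NdMx: the two pointwise literals of the wiring (helper325's text,
message 26370; typed by helper84)
-/

set_option autoImplicit false

namespace Crest.Agent.R136.Cmx84

open Crest.Agent.R136.Sh605 Crest.Agent.R136.Tl102
open Crest.Agent.R136.K4 (Plk4)
open Crest.Agent.R136.Tlt51 (Shp InP)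
open Crest.Agent.R136.KapP335 (kapP DetP)
open Crest.Agent.R136.Pl2W102 (Near)
open Crest.Agent.R136.Pl2 (kp Al1)
open Crest.Agent.R136.Hcp208 (Dims)
open Crest.Agent.R136.Rk601 (Jt)
open Crest.Agent.R136.Adp876 (ev sh Bd cg)

/-- **the chart of `V` around `T0` with both sheet functions** -/
def ChartMx : Prop := ∃ C : ℝ, 1 ≤ C ∧
  ∀ (W Y a w1 w2 z0 ρ r : ℝ) (U V : Plk4) (T0 : Ln4), 1 ≤ W → 0 < r → 0 < ρ → r ≤ ρ → 0 < a →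
    Shp U z0 ρ r → Shp V z0 ρ r → InP T0 U z0 ρ → InP T0 V z0 ρ → Dims W a w1 w2 U →
    Dims W a w1 w2 V → Al1 W U V T0 a w1 w2 z0 ρ → DetP W⁻¹ U z0 ρ T0 →
    Near 4 Y (kp U z0 ρ T0) → (2 * W) ^ C * kp V z0 ρ T0 ≤ Y → (2 * W) ^ C * a ≤ Y →
    ∃ (σ s1 s2 rr k0 μ Λ cq cP ε αq : ℝ) (Jq JP : Jt),
      σ ≠ 0 ∧ 0 < rr ∧ 1 / rr ≤ (2 * W) ^ C ∧ k0 ≠ 0 ∧ 0 < Λ ∧ Λ ≤ (2 * W) ^ C * Y ∧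
      Y ≤ (2 * W) ^ C * Λ ∧ |μ| * V.a ≤ (2 * W) ^ C * a ∧
      (∀ ζ y u v, V.q (z0 + ρ * ζ) (cg (fr V.e V.w) T0 z0 ρ σ s1 s2 rr ζ y u v) =
        k0 * (cq + ev Jq y ![ζ, u, v])) ∧
      (∀ ζ y u v, U.q (z0 + ρ * ζ) (cg (fr V.e V.w) T0 z0 ρ σ s1 s2 rr ζ y u v) -
        μ * V.q (z0 + ρ * ζ) (cg (fr V.e V.w) T0 z0 ρ σ s1 s2 rr ζ y u v) =
        Λ * (cP + ev JP y ![ζ, u, v])) ∧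
      Bd Jq ((2 * W) ^ C) ∧ JP.Sym ∧ (∀ i, |JP.a i| ≤ (2 * W) ^ C) ∧
      (∀ i j, |JP.h i j| ≤ (2 * W) ^ C) ∧ |JP.a0| ≤ (2 * W) ^ C * ε ∧
      |JP.h00| ≤ (2 * W) ^ C * ε ∧ (∀ i, |JP.h0 i| ≤ (2 * W) ^ C * ε) ∧
      (∀ (y : ℝ) (x : Fin 3 → ℝ), |y| ≤ 1 → (∀ i, |x i| ≤ 1) → 0 ≤ x 0 →
        1 / (2 * W) ^ C ≤ |(sh Jq y x).a0|) ∧
      0 < αq ∧ αq ≤ 1 ∧ 0 < ε ∧ ε ≤ 1 ∧ ε * αq * Y ≤ (2 * W) ^ C * a ∧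
      V.a ≤ |k0| * ((2 * W) ^ C * αq) ∧
      ∀ T, InP T V z0 ρ →
        (∀ k, |dt (V.e k) (T.pos z0 - T0.pos z0)| ≤ V.w k / (2 * W) ^ C) →
        (∀ k, |dt (V.e k) (T.pos (z0 + ρ) - T0.pos (z0 + ρ))| ≤ V.w k / (2 * W) ^ C) →
        ∀ ζ, 0 ≤ ζ → ζ ≤ 1 → ∃ y u v, |y| ≤ 1 ∧ |u| ≤ 1 ∧ |v| ≤ 1 ∧
          T.pos (z0 + ρ * ζ) = cg (fr V.e V.w) T0 z0 ρ σ s1 s2 rr ζ y u v

/-- **nondegeneracy at one line** (615) -/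
def NdPt : Prop := ∃ C : ℝ, 1 ≤ C ∧
  ∀ (W Y a w1 w2 z0 ρ r : ℝ) (U V : Plk4) (T : Ln4) (H j : ℕ), 1 ≤ W → 0 < r → 0 < ρ → r ≤ ρ →
    0 < a → Shp U z0 ρ r → Shp V z0 ρ r → InP T U z0 ρ → InP T V z0 ρ → Dims W a w1 w2 U →
    Dims W a w1 w2 V → Al1 W U V T a w1 w2 z0 ρ → DetP W⁻¹ U z0 ρ T →
    Near 4 Y (kp U z0 ρ T) → (2 * W) ^ C * kp V z0 ρ T ≤ Y → (2 * W) ^ C * a ≤ Y → 1 ≤ H →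
    j ≤ H → AlD601.Nd V U.q z0 ρ H j T (((2 * W) ^ C)⁻¹) (((2 * W) ^ C)⁻¹) Y

end Crest.Agent.R136.Cmx84
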