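import Crest.Agent.R136.Pl2W_102

/-!
# R136 (S0187), PLAN 2, leaf C5, numeric half (helper683)

`core_num` : 372's `Ndl372.needle` with the scales `xs x0 Λ K k = x0 * Λ ^ (-(k / K))`, hull numbers
`Nf qp Λ E X x = (x Λ E X)^(1 + qp 0) Λ^(1 + qp 2)`, crossing boxes `rf G Λ y = G / (Λ y)` and shares
`sf qm S Λ E X = S / (Λ^(1 + qm 1) (E X)^(1 + qm 2))` bounds `Λ E` by a power of `2 W`.
-/

set_option autoImplicit false
set_option linter.unusedVariables false

open Finset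

namespace Crest.Agent.R136.Cn683

open Crest.Agent.R136.Pl2W102 (Ex2)

/-- the scales of the determinant -/
noncomputable def xs (x0 Λ : ℝ) (K k : ℕ) : ℝ := x0 * Λ ^ (-((k : ℝ) / K))

/-- number of classes in the hull at the scale `x` -/
noncomputable def Nf (qp : Fin 3 → ℝ) (Λ E X x : ℝ) : ℝ :=
  (x * Λ * (E * X)) ^ (1 + qp 0) * Λ ^ (1 + qp 2)

/-- part of the lines of a class in the crossing box at the scale `y` -/
noncomputable def rf (G Λ y : ℝ) : ℝ := G / (Λ * y)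

/-- share of a pair -/
noncomputable def sf (qm : Fin 3 → ℝ) (S Λ E X : ℝ) : ℝ :=
  S / (Λ ^ (1 + qm 1) * (E * X) ^ (1 + qm 2))

theorem xs_pos {x0 Λ : ℝ} (hx : 0 < x0) (hΛ : 0 < Λ) (K k : ℕ) : 0 < xs x0 Λ K k := by
  unfold xs; positivity

/-- the scales decrease -/
theorem xs_anti {x0 Λ : ℝ} (hx : 0 < x0) (hΛ : 1 ≤ Λ) {K k l : ℕ} (h : k ≤ l) :
    xs x0 Λ K l ≤ xs x0 Λ K k := by
  unfold xs
  refine mul_le_mul_of_nonneg_left (Real.rpow_le_rpow_of_exponent_le hΛ ?_) hx.le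
  have h1 : (k : ℝ) ≤ l := by exact_mod_cast h
  have h2 : (k : ℝ) / K ≤ l / K := div_le_div_of_nonneg_right h1 (Nat.cast_nonneg K)
  linarith

theorem xs_zero (x0 Λ : ℝ) (K : ℕ) : xs x0 Λ K 0 = x0 := by simp [xs]

/-- the last scale is `x0 / Λ` -/
theorem xs_last (x0 : ℝ) {Λ : ℝ} {K : ℕ} (hK : 0 < K) : xs x0 Λ K K = x0 / Λ := by
  have hK' : (K : ℝ) ≠ 0 := by exact_mod_cast hK.ne'
  unfold xs
  rw [div_self hK', Real.rpow_neg_one, div_eq_mul_inv]

/-- all scales are at least `x0 / Λ` -/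
theorem xs_ge {x0 Λ : ℝ} (hx : 0 < x0) (hΛ : 1 ≤ Λ) {K k : ℕ} (hK : 0 < K) (h : k ≤ K) :
    x0 / Λ ≤ xs x0 Λ K k := by
  rw [← xs_last x0 hK]
  exact xs_anti hx hΛ h

theorem Nf_nonneg {qp : Fin 3 → ℝ} {Λ E X x : ℝ} (hΛ : 0 ≤ Λ) (hE : 0 ≤ E) (hX : 0 ≤ X)
    (hx : 0 ≤ x) : 0 ≤ Nf qp Λ E X x := by unfold Nf; positivity

theorem rf_nonneg {G Λ y : ℝ} (hG : 0 ≤ G) (hΛ : 0 ≤ Λ) (hy : 0 ≤ y) : 0 ≤ rf G Λ y := by
  unfold rf; positivity

theorem sf_nonneg {qm : Fin 3 → ℝ} {S Λ E X : ℝ} (hS : 0 ≤ S) (hΛ : 0 ≤ Λ) (hE : 0 ≤ E)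
    (hX : 0 ≤ X) : 0 ≤ sf qm S Λ E X := by unfold sf; positivity

/-- the last step: logarithms -/
theorem fin_log {δ c C1 l e w : ℝ} (hδ : 0 < δ) (hc : 0 ≤ c) (hC1 : 0 ≤ C1)
    (hw : Real.log 2 ≤ w) (h : δ * (l + e) ≤ c + 6 * (C1 * w)) :
    l + e ≤ w * ((c / Real.log 2 + 6 * C1) / δ) := by
  have h2 : 0 < Real.log 2 := Real.log_pos (by norm_num)
  have h3 : c ≤ c / Real.log 2 * w := by
    rw [div_mul_eq_mul_div, le_div_iff₀ h2]
    exact mul_le_mul_of_nonneg_left hw hc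
  have h4 : w * ((c / Real.log 2 + 6 * C1) / δ) = (c / Real.log 2 * w + 6 * (C1 * w)) / δ := by
    ring
  rw [h4, le_div_iff₀ hδ]
  linarith

/-- **numeric half of C5** -/
theorem core_num {η : ℝ} {qm qp : Fin 3 → ℝ} (h : Ex2 η qm qp) : ∃ K : ℕ, 0 < K ∧
    ∀ C1 x0 : ℝ, 0 ≤ C1 → 1 ≤ x0 → ∃ C : ℝ, 0 ≤ C ∧ ∀ W W1 Λ E X G S : ℝ, 1 ≤ W →
      0 ≤ W1 → W1 ≤ (2 * W) ^ C1 → 1 ≤ Λ → 1 ≤ E → 1 ≤ X → 0 ≤ G → G ≤ (2 * W) ^ C1 →
      0 ≤ S → S ≤ (2 * W) ^ C1 →
      ((∃ k < K, 1 ≤ 6 * 4 ^ k * W1 ^ 4 * Nf qp Λ E X (xs x0 Λ K k) *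
          rf G Λ (xs x0 Λ K (k + 1)) * sf qm S Λ E X) ∨
        1 ≤ 2 * 4 ^ K * W1 ^ 4 * Nf qp Λ E X (xs x0 Λ K K) * sf qm S Λ E X) →
      Λ * E ≤ (2 * W) ^ C := by
  have q2 := h.pos
  have l0 := h.le 0
  have l1 := h.le 1
  have l2 := h.le 2
  have e1 := h.e1
  have e02 := h.e02
  have q1 : 0 < qm 1 := by linarith
  have p0 : 0 ≤ qp 0 := by linarith
  have p2 : 0 ≤ qp 2 := by linarith
  obtain ⟨K, hK⟩ := exists_nat_gt (4 / qm 1)
  have hK0 : (0 : ℝ) < K := lt_trans (by positivity) hK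
  have hKn : 0 < K := by exact_mod_cast hK0
  have hKs : 1 / (K : ℝ) ≤ qm 1 / 4 := by
    rw [div_le_iff₀ hK0]
    rw [div_lt_iff₀ q1] at hK
    nlinarith
  refine ⟨K, hKn, fun C1 x0 hC1 hx0 => ?_⟩
  set δ : ℝ := min (qm 1 / 2) (qm 2 / 2) with hδ
  have hδ0 : 0 < δ := lt_min (by linarith) (by linarith)
  have hδ1 : δ ≤ qm 1 / 2 := min_le_left _ _
  have hδ2 : δ ≤ qm 2 / 2 := min_le_right _ _
  have hlx : 0 ≤ Real.log x0 := Real.log_nonneg hx0
  set c : ℝ := Real.log 6 + K * Real.log 4 + (1 + qp 0) * Real.log x0 with hc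
  have hl6 : 0 ≤ Real.log 6 := Real.log_nonneg (by norm_num)
  have hl4 : 0 ≤ Real.log 4 := Real.log_nonneg (by norm_num)
  have hc0 : 0 ≤ c := by rw [hc]; positivity
  have hl2 : 0 < Real.log 2 := Real.log_pos (by norm_num)
  refine ⟨(c / Real.log 2 + 6 * C1) / δ, by positivity, ?_⟩
  intro W W1 Λ E X G S hW hW1 hW1' hΛ hE hX hG hG' hS hS' hor
  have hΛ0 : 0 < Λ := by linarith
  have hE0 : 0 < E := by linarith
  have hX0 : 0 < X := by linarith
  have hx00 : 0 < x0 := by linarith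
  have h2W : 0 < 2 * W := by linarith
  set B : ℝ := (2 * W) ^ C1 with hB
  have hB0 : 0 < B := Real.rpow_pos_of_pos h2W _
  have hlB : Real.log B = C1 * Real.log (2 * W) := Real.log_rpow h2W _
  have hl : 0 ≤ Real.log Λ := Real.log_nonneg hΛ
  have he : 0 ≤ Real.log E := Real.log_nonneg hE
  have hξ : 0 ≤ Real.log X := Real.log_nonneg hX
  have hw : Real.log 2 ≤ Real.log (2 * W) := Real.log_le_log (by norm_num) (by linarith)
  have hw0 : 0 ≤ Real.log (2 * W) := hl2.le.trans hw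
  have hW4 : W1 ^ 4 ≤ B ^ 4 := pow_le_pow_left₀ hW1 hW1' 4
  -- logarithms of the three numbers
  have xp : ∀ k, 0 < xs x0 Λ K k := xs_pos hx00 hΛ0 K
  have lx : ∀ k : ℕ, Real.log (xs x0 Λ K k) = Real.log x0 - (k : ℝ) / K * Real.log Λ := by
    intro k
    unfold xs
    rw [Real.log_mul hx00.ne' (Real.rpow_pos_of_pos hΛ0 _).ne', Real.log_rpow hΛ0]
    ring
  have Np : ∀ k, 0 < Nf qp Λ E X (xs x0 Λ K k) := fun k => by
    have := xp k
    unfold Nf; positivity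
  have lN : ∀ k : ℕ, Real.log (Nf qp Λ E X (xs x0 Λ K k)) =
      (1 + qp 0) * (Real.log x0 - (k : ℝ) / K * Real.log Λ + Real.log Λ +
        (Real.log E + Real.log X)) + (1 + qp 2) * Real.log Λ := by
    intro k
    have h1 := xp k
    have h2 : 0 < xs x0 Λ K k * Λ * (E * X) := by positivity
    unfold Nf
    rw [Real.log_mul (Real.rpow_pos_of_pos h2 _).ne' (Real.rpow_pos_of_pos hΛ0 _).ne',
      Real.log_rpow h2, Real.log_rpow hΛ0, Real.log_mul (by positivity) (by positivity),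
      Real.log_mul h1.ne' hΛ0.ne', Real.log_mul hE0.ne' hX0.ne', lx]
  have sp : 0 < sf qm B Λ E X := by unfold sf; positivity
  have ls : Real.log (sf qm B Λ E X) = Real.log B - ((1 + qm 1) * Real.log Λ +
      (1 + qm 2) * (Real.log E + Real.log X)) := by
    have h2 : 0 < E * X := by positivity
    unfold sf
    rw [Real.log_div hB0.ne' (by positivity), Real.log_mul (Real.rpow_pos_of_pos hΛ0 _).ne'
      (Real.rpow_pos_of_pos h2 _).ne', Real.log_rpow hΛ0, Real.log_rpow h2,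
      Real.log_mul hE0.ne' hX0.ne']
  have sle : sf qm S Λ E X ≤ sf qm B Λ E X := by
    unfold sf
    exact div_le_div_of_nonneg_right hS' (by positivity)
  have rp : ∀ k, 0 < rf B Λ (xs x0 Λ K k) := fun k => by
    have := xp k
    unfold rf; positivity
  have lr : ∀ k : ℕ, Real.log (rf B Λ (xs x0 Λ K k)) = Real.log B - (Real.log Λ +
      (Real.log x0 - (k : ℝ) / K * Real.log Λ)) := by
    intro k
    have h1 := xp k
    unfold rf
    rw [Real.log_div hB0.ne' (by positivity), Real.log_mul hΛ0.ne' h1.ne', lx]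
  have rle : ∀ k, rf G Λ (xs x0 Λ K k) ≤ rf B Λ (xs x0 Λ K k) := fun k => by
    have := xp k
    unfold rf
    exact div_le_div_of_nonneg_right hG' (by positivity)
  -- conclusion from the logarithms
  have fin : δ * (Real.log Λ + Real.log E) ≤ c + 6 * (C1 * Real.log (2 * W)) →
      Λ * E ≤ (2 * W) ^ ((c / Real.log 2 + 6 * C1) / δ) := by
    intro hh
    have h1 := fin_log hδ0 hc0 hC1 hw hh
    rw [← Real.log_mul hΛ0.ne' hE0.ne'] at h1
    have h3 : 0 < Λ * E := by positivity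
    rw [Real.rpow_def_of_pos h2W]
    calc Λ * E = Real.exp (Real.log (Λ * E)) := (Real.exp_log h3).symm
      _ ≤ _ := Real.exp_le_exp.2 h1
  have hδe : δ * Real.log E ≤ (qm 2 - qp 0) * (Real.log E + Real.log X) := by
    have a1 : δ * Real.log E ≤ (qm 2 - qp 0) * Real.log E :=
      mul_le_mul_of_nonneg_right (by linarith) he
    have a2 : 0 ≤ (qm 2 - qp 0) * Real.log X := mul_nonneg (by linarith) hξ
    linarith
  rcases hor with ⟨k, hk, h1⟩ | h1
  · refine fin ?_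
    have hkK : (k : ℝ) / K ≤ 1 := by
      rw [div_le_one hK0]; exact_mod_cast hk.le
    have hk0 : 0 ≤ (k : ℝ) / K := by positivity
    have g1 : (1 : ℝ) ≤ 6 * 4 ^ k * B ^ 4 * Nf qp Λ E X (xs x0 Λ K k) *
        rf B Λ (xs x0 Λ K (k + 1)) * sf qm B Λ E X := by
      refine h1.trans ?_
      have n0 := (Np k).le
      have r0 := rf_nonneg hG hΛ0.le (xp (k + 1)).le
      have s0 := sf_nonneg (qm := qm) hS hΛ0.le hE0.le hX0.le
      have r1 := (rp (k + 1)).le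
      gcongr
      · exact rle (k + 1)
    have g2 := Real.log_nonneg g1
    have hn := Np k
    have hr := rp (k + 1)
    rw [Real.log_mul (by positivity) sp.ne', Real.log_mul (by positivity) hr.ne',
      Real.log_mul (by positivity) hn.ne', Real.log_mul (by positivity) (by positivity),
      Real.log_mul (by norm_num) (by positivity), Real.log_pow, Real.log_pow, lN, lr, ls, hlB] at g2
    push_cast at g2
    have ek : ((k : ℝ) + 1) / K = (k : ℝ) / K + 1 / K := by ring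
    rw [ek] at g2
    have b1 : (k : ℝ) * Real.log 4 ≤ K * Real.log 4 :=
      mul_le_mul_of_nonneg_right (by exact_mod_cast hk.le) hl4
    have b2 : 1 / (K : ℝ) * Real.log Λ ≤ qm 1 / 4 * Real.log Λ :=
      mul_le_mul_of_nonneg_right hKs hl
    have b3 : 0 ≤ qp 0 * ((k : ℝ) / K * Real.log Λ) := by positivity
    have b4 : δ * Real.log Λ ≤ (qm 1 - qm 1 / 4 - qp 0 - qp 2) * Real.log Λ :=
      mul_le_mul_of_nonneg_right (by linarith) hl
    rw [hc]
    clear_value B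
    clear fin lN lx lr ls rle sle rp sp Np xp hn hr
    linarith
  · refine fin ?_
    have g1 : (1 : ℝ) ≤ 2 * 4 ^ K * B ^ 4 * Nf qp Λ E X (xs x0 Λ K K) * sf qm B Λ E X := by
      refine h1.trans ?_
      have n0 := (Np K).le
      have s0 := sf_nonneg (qm := qm) hS hΛ0.le hE0.le hX0.le
      gcongr
    have g2 := Real.log_nonneg g1
    have hn := Np K
    rw [Real.log_mul (by positivity) sp.ne', Real.log_mul (by positivity) hn.ne',
      Real.log_mul (by positivity) (by positivity),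
      Real.log_mul (by norm_num) (by positivity), Real.log_pow, Real.log_pow, lN, ls, hlB] at g2
    push_cast at g2
    rw [div_self hK0.ne'] at g2
    have b4 : δ * Real.log Λ ≤ (qm 1 - qp 2) * Real.log Λ :=
      mul_le_mul_of_nonneg_right (by linarith) hl
    have b5 : Real.log 2 ≤ Real.log 6 := Real.log_le_log (by norm_num) (by norm_num)
    have b6 : 0 ≤ C1 * Real.log (2 * W) := mul_nonneg hC1 hw0
    rw [hc]
    clear_value B
    clear fin lN lx lr ls rle sle rp sp Np xp hn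
    linarith

end Crest.Agent.R136.Cn683
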