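import Crest.Agent.R136.Net1_191

/-!
# R136: the chart of `ℝ⁴` with quadratic heights (helper186)

A line of the gauge chart: lateral part `(A, B)(z) = (A + z ca, B + z cb)`, height
`Y(z) = y0 + y1 z + y2 z²` (`y2 = 0` : straight lines of `ℝ⁴`).  Incidence = line, height `z`, flag
`V2 ⊂ V3`: axis `(1, e)` of `V2` in the `(A, B)` plane, `V3 = {Y = fa A + fb B}`.

Relative coordinates of the incidence `j` seen from `i`, in the frame of `i`, at the height of `i`: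
`0 : z`, `1 : R`, `2 : E`, `3 : F_b`, `4 : F_a`, `5 : C_a`, `6 : C_b`, `7 : P`, `8 : X_a`,
`9 : X_b`, `10 : N`.

`chartQ` : they form a triangular chart (`Net191.Chart`) with constant `2` and monomials `monQ`;
`legalQ_iff` : the walls.
-/

set_option autoImplicit false

namespace Crest.Agent.R136.NetQ186

open Finset
open Crest.Agent.R136.Net191

/-- an incidence of the gauge chart with its flag -/
structure Fq4 where
  /-- wide lateral position at height `0` -/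
  A : ℝ
  /-- narrow lateral position at height `0` -/
  B : ℝ
  /-- wide lateral velocity -/
  ca : ℝ
  /-- narrow lateral velocity -/
  cb : ℝ
  /-- height, coefficient of `1` -/
  y0 : ℝ
  /-- height, coefficient of `z` -/
  y1 : ℝ
  /-- height, coefficient of `z²` -/
  y2 : ℝ
  /-- the height of the incidence -/
  z : ℝ
  /-- slope of `V2` inside `V3` -/
  e : ℝ
  /-- slope of `V3` in the direction `A` -/
  fa : ℝ
  /-- slope of `V3` in the direction `B` -/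
  fb : ℝ

/-- wide lateral position at height `s` -/
def Fq4.pa (i : Fq4) (s : ℝ) : ℝ := i.A + s * i.ca
/-- narrow lateral position at height `s` -/
def Fq4.pb (i : Fq4) (s : ℝ) : ℝ := i.B + s * i.cb
/-- normal position at height `s` -/
def Fq4.py (i : Fq4) (s : ℝ) : ℝ := i.y0 + i.y1 * s + i.y2 * s ^ 2
/-- normal velocity at height `s` -/
def Fq4.vy (i : Fq4) (s : ℝ) : ℝ := i.y1 + 2 * i.y2 * s

/-- relative coordinates of `j` seen from `i` -/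
def coQ (i j : Fq4) : Fin 11 → ℝ :=
  ![j.z - i.z,
    j.y2 - i.y2,
    j.e - i.e,
    j.fb - i.fb,
    (j.fa - i.fa) + i.e * (j.fb - i.fb),
    j.ca - i.ca,
    (j.cb - i.cb) - i.e * (j.ca - i.ca),
    (j.vy i.z - i.vy i.z) - i.fa * (j.ca - i.ca) - i.fb * (j.cb - i.cb),
    j.pa i.z - i.pa i.z,
    (j.pb i.z - i.pb i.z) - i.e * (j.pa i.z - i.pa i.z),
    (j.py i.z - i.py i.z) - i.fa * (j.pa i.z - i.pa i.z) - i.fb * (j.pb i.z - i.pb i.z)]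

/-- the monomials -/
def mfQ : Fin 11 → Finset (Fin 11 → ℕ) :=
  ![∅,
    ∅,
    ∅,
    ∅,
    {![0, 0, 1, 1, 0, 0, 0, 0, 0, 0, 0]},
    ∅,
    {![0, 0, 1, 0, 0, 1, 0, 0, 0, 0, 0]},
    {![1, 1, 0, 0, 0, 0, 0, 0, 0, 0, 0], ![0, 0, 0, 0, 1, 1, 0, 0, 0, 0, 0], ![0, 0, 1, 1, 0, 1, 0, 0, 0, 0, 0], ![0, 0, 0, 1, 0, 0, 1, 0, 0, 0, 0]},
    {![1, 0, 0, 0, 0, 1, 0, 0, 0, 0, 0]},
    {![1, 0, 0, 0, 0, 0, 1, 0, 0, 0, 0], ![0, 0, 1, 0, 0, 0, 0, 0, 1, 0, 0], ![1, 0, 1, 0, 0, 1, 0, 0, 0, 0, 0]},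
    {![1, 0, 0, 0, 0, 0, 0, 1, 0, 0, 0], ![2, 1, 0, 0, 0, 0, 0, 0, 0, 0, 0], ![0, 0, 0, 0, 1, 0, 0, 0, 1, 0, 0], ![0, 0, 1, 1, 0, 0, 0, 0, 1, 0, 0], ![1, 0, 0, 0, 1, 1, 0, 0, 0, 0, 0], ![1, 0, 1, 1, 0, 1, 0, 0, 0, 0, 0], ![0, 0, 0, 1, 0, 0, 0, 0, 0, 1, 0], ![1, 0, 0, 1, 0, 0, 1, 0, 0, 0, 0]}]

/-- the walls of the chart -/
def monQ : Mons 11 where
  mon := mfQ
  low := by decide
  ne := by decide

theorem sumQ4 (x : Fin 11 → ℝ) : ∑ e ∈ mfQ 4, ∏ s, x s ^ e s =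
    x 2 * x 3 := by
  show ∑ e ∈ ({![0, 0, 1, 1, 0, 0, 0, 0, 0, 0, 0]} : Finset (Fin 11 → ℕ)), ∏ s, x s ^ e s = _
  rw [Finset.sum_singleton]
  simp [Fin.prod_univ_succ]

theorem sumQ6 (x : Fin 11 → ℝ) : ∑ e ∈ mfQ 6, ∏ s, x s ^ e s =
    x 2 * x 5 := by
  show ∑ e ∈ ({![0, 0, 1, 0, 0, 1, 0, 0, 0, 0, 0]} : Finset (Fin 11 → ℕ)), ∏ s, x s ^ e s = _
  rw [Finset.sum_singleton]
  simp [Fin.prod_univ_succ]

theorem sumQ7 (x : Fin 11 → ℝ) : ∑ e ∈ mfQ 7, ∏ s, x s ^ e s =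
    x 0 * x 1 + x 4 * x 5 + x 2 * x 3 * x 5 + x 3 * x 6 := by
  show ∑ e ∈ ({![1, 1, 0, 0, 0, 0, 0, 0, 0, 0, 0], ![0, 0, 0, 0, 1, 1, 0, 0, 0, 0, 0], ![0, 0, 1, 1, 0, 1, 0, 0, 0, 0, 0], ![0, 0, 0, 1, 0, 0, 1, 0, 0, 0, 0]} : Finset (Fin 11 → ℕ)), ∏ s, x s ^ e s = _
  rw [Finset.sum_insert (by decide), Finset.sum_insert (by decide), Finset.sum_insert (by decide), Finset.sum_singleton]
  simp [Fin.prod_univ_succ]
  ring

theorem sumQ8 (x : Fin 11 → ℝ) : ∑ e ∈ mfQ 8, ∏ s, x s ^ e s =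
    x 0 * x 5 := by
  show ∑ e ∈ ({![1, 0, 0, 0, 0, 1, 0, 0, 0, 0, 0]} : Finset (Fin 11 → ℕ)), ∏ s, x s ^ e s = _
  rw [Finset.sum_singleton]
  simp [Fin.prod_univ_succ]

theorem sumQ9 (x : Fin 11 → ℝ) : ∑ e ∈ mfQ 9, ∏ s, x s ^ e s =
    x 0 * x 6 + x 2 * x 8 + x 0 * x 2 * x 5 := by
  show ∑ e ∈ ({![1, 0, 0, 0, 0, 0, 1, 0, 0, 0, 0], ![0, 0, 1, 0, 0, 0, 0, 0, 1, 0, 0], ![1, 0, 1, 0, 0, 1, 0, 0, 0, 0, 0]} : Finset (Fin 11 → ℕ)), ∏ s, x s ^ e s = _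
  rw [Finset.sum_insert (by decide), Finset.sum_insert (by decide), Finset.sum_singleton]
  simp [Fin.prod_univ_succ]
  ring

theorem sumQ10 (x : Fin 11 → ℝ) : ∑ e ∈ mfQ 10, ∏ s, x s ^ e s =
    x 0 * x 7 + x 0 * x 0 * x 1 + x 4 * x 8 + x 2 * x 3 * x 8 + x 0 * x 4 * x 5 + x 0 * x 2 * x 3 * x 5 + x 3 * x 9 + x 0 * x 3 * x 6 := by
  show ∑ e ∈ ({![1, 0, 0, 0, 0, 0, 0, 1, 0, 0, 0], ![2, 1, 0, 0, 0, 0, 0, 0, 0, 0, 0], ![0, 0, 0, 0, 1, 0, 0, 0, 1, 0, 0], ![0, 0, 1, 1, 0, 0, 0, 0, 1, 0, 0], ![1, 0, 0, 0, 1, 1, 0, 0, 0, 0, 0], ![1, 0, 1, 1, 0, 1, 0, 0, 0, 0, 0], ![0, 0, 0, 1, 0, 0, 0, 0, 0, 1, 0], ![1, 0, 0, 1, 0, 0, 1, 0, 0, 0, 0]} : Finset (Fin 11 → ℕ)), ∏ s, x s ^ e s = _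
  rw [Finset.sum_insert (by decide), Finset.sum_insert (by decide), Finset.sum_insert (by decide), Finset.sum_insert (by decide), Finset.sum_insert (by decide), Finset.sum_insert (by decide), Finset.sum_insert (by decide), Finset.sum_singleton]
  simp [Fin.prod_univ_succ]
  ring

/-- **the cocycle identities** -/
theorem coQ_add (i j l : Fq4) :
    coQ i l 0 = coQ i j 0 + coQ j l 0 ∧
    coQ i l 1 = coQ i j 1 + coQ j l 1 ∧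
    coQ i l 2 = coQ i j 2 + coQ j l 2 ∧
    coQ i l 3 = coQ i j 3 + coQ j l 3 ∧
    coQ i l 4 = coQ i j 4 + coQ j l 4 - coQ i j 2 * coQ j l 3 ∧
    coQ i l 5 = coQ i j 5 + coQ j l 5 ∧
    coQ i l 6 = coQ i j 6 + coQ j l 6 + coQ i j 2 * coQ j l 5 ∧
    coQ i l 7 = coQ i j 7 + coQ j l 7 - 2 * (coQ i j 0 * coQ j l 1) +
      (coQ i j 4 + coQ i j 2 * coQ i j 3) * coQ j l 5 + coQ i j 3 * coQ j l 6 ∧
    coQ i l 8 = coQ i j 8 + coQ j l 8 - coQ i j 0 * coQ j l 5 ∧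
    coQ i l 9 = coQ i j 9 + (coQ j l 9 - coQ i j 0 * coQ j l 6) +
      coQ i j 2 * (coQ j l 8 - coQ i j 0 * coQ j l 5) ∧
    coQ i l 10 = coQ i j 10 + (coQ j l 10 - coQ i j 0 * coQ j l 7 + coQ i j 0 ^ 2 * coQ j l 1) +
      (coQ i j 4 + coQ i j 2 * coQ i j 3) * (coQ j l 8 - coQ i j 0 * coQ j l 5) +
      coQ i j 3 * (coQ j l 9 - coQ i j 0 * coQ j l 6) := by
  simp only [coQ, Fq4.pa, Fq4.pb, Fq4.py, Fq4.vy, Matrix.cons_val]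
  refine ⟨by ring, by ring, by ring, by ring, by ring, by ring, by ring, by ring, by ring,
    by ring, by ring⟩

theorem aux_m2 {a b u w : ℝ} (ha : |a| ≤ u) (hb : |b| ≤ w) : |a * b| ≤ u * w := by
  rw [abs_mul]
  exact mul_le_mul ha hb (abs_nonneg _) ((abs_nonneg _).trans ha)

theorem aux_a2 {a b u w : ℝ} (ha : |a| ≤ u) (hb : |b| ≤ w) : |a + b| ≤ u + w :=
  (abs_add_le _ _).trans (add_le_add ha hb)

theorem aux_s2 {a b u w : ℝ} (ha : |a| ≤ u) (hb : |b| ≤ w) : |a - b| ≤ u + w :=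
  (abs_sub _ _).trans (add_le_add ha hb)

theorem aux_n {a u : ℝ} (ha : |a| ≤ u) : |-a| ≤ u := by rwa [abs_neg]

/-- **the chart** -/
theorem chartQ {ι : Type*} (I : Finset ι) (f : ι → Fq4) :
    Chart I (fun i j => coQ (f i) (f j)) monQ 2 where
  C0 := zero_le_two
  refl := by
    intro i _ k
    fin_cases k <;> simp [coQ]
  add := by
    intro i _ j _ l _ k
    obtain ⟨h0, h1, h2, h3, h4, h5, h6, h7, h8, h9, h10⟩ := coQ_add (f i) (f j) (f l)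
    set x : Fin 11 → ℝ := fun s => max |coQ (f i) (f j) s| |coQ (f j) (f l) s| with hx
    have hl : ∀ s, |coQ (f i) (f j) s| ≤ x s := fun s => le_max_left _ _
    have hr : ∀ s, |coQ (f j) (f l) s| ≤ x s := fun s => le_max_right _ _
    have hx0 : ∀ s, 0 ≤ x s := fun s => (abs_nonneg _).trans (hl s)
    have hm : ∀ s t, 0 ≤ x s * x t := fun s t => mul_nonneg (hx0 s) (hx0 t)
    have hm3 : ∀ s t r, 0 ≤ x s * x t * x r := fun s t r => mul_nonneg (hm s t) (hx0 r)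
    have hm4 : ∀ s t r q, 0 ≤ x s * x t * x r * x q := fun s t r q =>
      mul_nonneg (hm3 s t r) (hx0 q)
    set a := coQ (f i) (f j) with ha
    set b := coQ (f j) (f l) with hb
    set c := coQ (f i) (f l) with hc
    show |c k - a k - b k| ≤ 2 * ∑ e ∈ mfQ k, ∏ s, x s ^ e s
    fin_cases k
    · show |c 0 - a 0 - b 0| ≤ _
      rw [h0]; simp [mfQ]
    · show |c 1 - a 1 - b 1| ≤ _
      rw [h1]; simp [mfQ]
    · show |c 2 - a 2 - b 2| ≤ _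
      rw [h2]; simp [mfQ]
    · show |c 3 - a 3 - b 3| ≤ _
      rw [h3]; simp [mfQ]
    · show |c 4 - a 4 - b 4| ≤ _
      rw [show (⟨4, _⟩ : Fin 11) = 4 from rfl, sumQ4, h4,
        show a 4 + b 4 - a 2 * b 3 - a 4 - b 4 = -(a 2 * b 3) by ring]
      have := aux_n (aux_m2 (hl 2) (hr 3))
      linarith [hm 2 3]
    · show |c 5 - a 5 - b 5| ≤ _
      rw [h5]; simp [mfQ]
    · show |c 6 - a 6 - b 6| ≤ _
      rw [show (⟨6, _⟩ : Fin 11) = 6 from rfl, sumQ6, h6,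
        show a 6 + b 6 + a 2 * b 5 - a 6 - b 6 = a 2 * b 5 by ring]
      have := aux_m2 (hl 2) (hr 5)
      linarith [hm 2 5]
    · show |c 7 - a 7 - b 7| ≤ _
      rw [show (⟨7, _⟩ : Fin 11) = 7 from rfl, sumQ7, h7,
        show a 7 + b 7 - 2 * (a 0 * b 1) + (a 4 + a 2 * a 3) * b 5 + a 3 * b 6 - a 7 - b 7 =
          -(a 0 * b 1) - a 0 * b 1 + a 4 * b 5 + a 2 * a 3 * b 5 + a 3 * b 6 by ring]
      have := aux_a2 (aux_a2 (aux_a2 (aux_s2 (aux_n (aux_m2 (hl 0) (hr 1))) (aux_m2 (hl 0) (hr 1)))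
        (aux_m2 (hl 4) (hr 5))) (aux_m2 (aux_m2 (hl 2) (hl 3)) (hr 5))) (aux_m2 (hl 3) (hr 6))
      linarith [hm 0 1, hm 4 5, hm3 2 3 5, hm 3 6]
    · show |c 8 - a 8 - b 8| ≤ _
      rw [show (⟨8, _⟩ : Fin 11) = 8 from rfl, sumQ8, h8,
        show a 8 + b 8 - a 0 * b 5 - a 8 - b 8 = -(a 0 * b 5) by ring]
      have := aux_n (aux_m2 (hl 0) (hr 5))
      linarith [hm 0 5]
    · show |c 9 - a 9 - b 9| ≤ _
      rw [show (⟨9, _⟩ : Fin 11) = 9 from rfl, sumQ9, h9,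
        show a 9 + (b 9 - a 0 * b 6) + a 2 * (b 8 - a 0 * b 5) - a 9 - b 9 =
          -(a 0 * b 6) + a 2 * b 8 - a 0 * a 2 * b 5 by ring]
      have := aux_s2 (aux_a2 (aux_n (aux_m2 (hl 0) (hr 6))) (aux_m2 (hl 2) (hr 8)))
        (aux_m2 (aux_m2 (hl 0) (hl 2)) (hr 5))
      linarith [hm 0 6, hm 2 8, hm3 0 2 5]
    · show |c 10 - a 10 - b 10| ≤ _
      rw [show (⟨10, _⟩ : Fin 11) = 10 from rfl, sumQ10, h10,
        show a 10 + (b 10 - a 0 * b 7 + a 0 ^ 2 * b 1) + (a 4 + a 2 * a 3) * (b 8 - a 0 * b 5) +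
          a 3 * (b 9 - a 0 * b 6) - a 10 - b 10 =
          -(a 0 * b 7) + a 0 * a 0 * b 1 + a 4 * b 8 + a 2 * a 3 * b 8 - a 0 * a 4 * b 5 -
          a 0 * a 2 * a 3 * b 5 + a 3 * b 9 - a 0 * a 3 * b 6 by ring]
      have := aux_s2 (aux_a2 (aux_s2 (aux_s2 (aux_a2 (aux_a2 (aux_a2 (aux_n (aux_m2 (hl 0) (hr 7)))
        (aux_m2 (aux_m2 (hl 0) (hl 0)) (hr 1))) (aux_m2 (hl 4) (hr 8)))
        (aux_m2 (aux_m2 (hl 2) (hl 3)) (hr 8))) (aux_m2 (aux_m2 (hl 0) (hl 4)) (hr 5)))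
        (aux_m2 (aux_m2 (aux_m2 (hl 0) (hl 2)) (hl 3)) (hr 5))) (aux_m2 (hl 3) (hr 9)))
        (aux_m2 (aux_m2 (hl 0) (hl 3)) (hr 6))
      linarith [hm 0 7, hm3 0 0 1, hm 4 8, hm3 2 3 8, hm3 0 4 5, hm4 0 2 3 5, hm 3 9, hm3 0 3 6]

/-- the walls of the chart, explicitly -/
theorem legalQ_iff {p : Fin 11 → ℝ} : Legal monQ p ↔ (∀ k, 0 ≤ p k) ∧
    p 4 ≤ p 2 + p 3 ∧
    p 6 ≤ p 2 + p 5 ∧
    p 7 ≤ p 0 + p 1 ∧
    p 7 ≤ p 4 + p 5 ∧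
    p 7 ≤ p 3 + p 6 ∧
    p 8 ≤ p 0 + p 5 ∧
    p 9 ≤ p 0 + p 6 ∧
    p 9 ≤ p 2 + p 8 ∧
    p 10 ≤ p 0 + p 7 ∧
    p 10 ≤ p 4 + p 8 ∧
    p 10 ≤ p 3 + p 9 := by
  have hs : ∀ e : Fin 11 → ℕ, ∑ s, (e s : ℝ) * p s = e 0 * p 0 + e 1 * p 1 + e 2 * p 2 +
      e 3 * p 3 + e 4 * p 4 + e 5 * p 5 + e 6 * p 6 + e 7 * p 7 + e 8 * p 8 + e 9 * p 9 +
      e 10 * p 10 := by
    intro e
    simp [Fin.sum_univ_succ]
    ring
  constructor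
  · intro h
    have w := h.wall
    simp only [hs] at w
    refine ⟨h.nonneg, ?_, ?_, ?_, ?_, ?_, ?_, ?_, ?_, ?_, ?_, ?_⟩
    · simpa using w 4 ![0, 0, 1, 1, 0, 0, 0, 0, 0, 0, 0] (by decide)
    · simpa using w 6 ![0, 0, 1, 0, 0, 1, 0, 0, 0, 0, 0] (by decide)
    · simpa using w 7 ![1, 1, 0, 0, 0, 0, 0, 0, 0, 0, 0] (by decide)
    · simpa using w 7 ![0, 0, 0, 0, 1, 1, 0, 0, 0, 0, 0] (by decide)
    · simpa using w 7 ![0, 0, 0, 1, 0, 0, 1, 0, 0, 0, 0] (by decide)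
    · simpa using w 8 ![1, 0, 0, 0, 0, 1, 0, 0, 0, 0, 0] (by decide)
    · simpa using w 9 ![1, 0, 0, 0, 0, 0, 1, 0, 0, 0, 0] (by decide)
    · simpa using w 9 ![0, 0, 1, 0, 0, 0, 0, 0, 1, 0, 0] (by decide)
    · simpa using w 10 ![1, 0, 0, 0, 0, 0, 0, 1, 0, 0, 0] (by decide)
    · simpa using w 10 ![0, 0, 0, 0, 1, 0, 0, 0, 1, 0, 0] (by decide)
    · simpa using w 10 ![0, 0, 0, 1, 0, 0, 0, 0, 0, 1, 0] (by decide)
  · rintro ⟨h0, w0, w1, w2, w3, w4, w5, w6, w7, w8, w9, w10⟩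
    have q0 := h0 0
    have q1 := h0 1
    have q2 := h0 2
    have q3 := h0 3
    have q4 := h0 4
    have q5 := h0 5
    refine ⟨h0, fun k e he => ?_⟩
    rw [hs]
    change e ∈ mfQ k at he
    fin_cases k <;> simp [mfQ] at he
    · subst he; simp; linarith
    · subst he; simp; linarith
    · rcases he with rfl | rfl | rfl | rfl <;> simp <;> linarith
    · subst he; simp; linarith
    · rcases he with rfl | rfl | rfl <;> simp <;> linarith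
    · rcases he with rfl | rfl | rfl | rfl | rfl | rfl | rfl | rfl <;> simp <;> linarith

end Crest.Agent.R136.NetQ186
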