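import Crest.Agent.R136.End3_882
import Crest.Agent.R136.ExtZ_779
import Crest.Agent.R136.Net4_186
import Crest.Agent.R138.MkDef_163

/-!
# R136 (S0187), END: one container of the second profile (helper638)

* `exists_cont` : in a window profile with own profile (`ExtZ`) there is a nonempty set of pairwise
  `pc`-close incidences in one cell of level `i`, whose own classes at `pu` (level `i`) and at `pl`
  (level `l`) and whose classes at `pv` (level `j`) are almost full;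
* `own_le_box` : own count of a box.
-/

set_option autoImplicit false
set_option linter.unusedVariables false
set_option linter.unusedSectionVars false

open Filter Topology

namespace Crest.Agent.R136.Cnt638

open Finset Crest.Agent.R138.Ex926 Crest.Agent.R136.Net191 Crest.Agent.R136.Qg926
open Crest.Agent.R136.Zpr779 Crest.Agent.R136.Sec779 Crest.Agent.R136.NetQ186
open Crest.Agent.R138.Mk163 (zc rho)

/-! ### cells -/

theorem zc_eq_div {i j : ℕ} (h : i ≤ j) (z : ℝ) : zc i z = zc j z / ((2 ^ (j - i) : ℕ) : ℤ) := by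
  unfold zc
  rw [← Int.floor_div_natCast]
  congr 1
  push_cast
  rw [eq_div_iff (by positivity)]
  rw [mul_right_comm, ← pow_add, Nat.add_sub_cancel' h]

theorem zc_nest {i j : ℕ} (h : i ≤ j) {z z' : ℝ} (hz : zc j z = zc j z') : zc i z = zc i z' := by
  rw [zc_eq_div h, zc_eq_div h, hz]

theorem zc_near {i : ℕ} {z z' : ℝ} (h : |z' - z| ≤ rho i) :
    zc i z' ∈ Icc (zc i z - 1) (zc i z + 1) := by
  have h2 : |(2 : ℝ) ^ i * z' - 2 ^ i * z| ≤ 1 := by
    rw [← mul_sub, abs_mul, abs_of_pos (by positivity : (0 : ℝ) < 2 ^ i)]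
    calc (2 : ℝ) ^ i * |z' - z| ≤ 2 ^ i * rho i := mul_le_mul_of_nonneg_left h (by positivity)
      _ = 1 := by unfold Crest.Agent.R138.Mk163.rho; field_simp
  rw [abs_le] at h2
  unfold zc
  rw [mem_Icc]
  constructor
  · have : ((⌊(2 : ℝ) ^ i * z⌋ - 1 : ℤ) : ℝ) ≤ 2 ^ i * z' := by
      push_cast
      have := Int.floor_le ((2 : ℝ) ^ i * z)
      linarith
    exact Int.le_floor.2 this
  · have : (2 : ℝ) ^ i * z' < ((⌊(2 : ℝ) ^ i * z⌋ + 1 + 1 : ℤ) : ℝ) := by
      push_cast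
      have := Int.lt_floor_add_one ((2 : ℝ) ^ i * z)
      linarith
    have := Int.floor_lt.2 this
    omega

/-- classes (label, cell) -/
theorem card_lab_cell {α β : Type*} [DecidableEq β] (J : Finset α) (f : α → β) (g : α → ℤ)
    (h : ∀ x ∈ J, ∀ y ∈ J, f y = f x → g y ∈ Icc (g x - 1) (g x + 1)) :
    ((J.image fun x => (f x, g x)).card : ℝ) ≤ 3 * (J.image f).card := by
  classical
  have h1 : (J.image fun x => (f x, g x)).card ≤
      3 * ((J.image fun x => (f x, g x)).image Prod.fst).card := by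
    refine card_le_mul_card_image _ 3 fun a ha => ?_
    obtain ⟨q, hq, rfl⟩ := mem_image.1 ha
    obtain ⟨x, hx, rfl⟩ := mem_image.1 hq
    have hs : ((J.image fun x => (f x, g x)).filter fun q => q.1 = f x) ⊆
        (Icc (g x - 1) (g x + 1)).image fun t => (f x, t) := by
      intro q hq
      rw [mem_filter] at hq
      obtain ⟨y, hy, rfl⟩ := mem_image.1 hq.1
      exact mem_image.2 ⟨g y, h x hx y hy hq.2, by rw [← hq.2]⟩
    refine (card_le_card hs).trans (card_image_le.trans ?_)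
    rw [Int.card_Icc]
    omega
  have h2 : ((J.image fun x => (f x, g x)).image Prod.fst) = J.image f := by
    rw [image_image]; rfl
  rw [h2] at h1
  exact_mod_cast h1

/-- `card_le_fib` of helper779 -/
theorem card_le_fib' {α β : Type*} [DecidableEq α] [DecidableEq β] (A : Finset α) (f : α → β)
    {K : ℝ} (h : ∀ x ∈ A, ((A.filter fun y => f y = f x).card : ℝ) ≤ K) :
    (A.card : ℝ) ≤ K * (A.image f).card := by
  have h1 : (A.card : ℝ) = ∑ b ∈ A.image f, ((A.filter fun i => f i = b).card : ℝ) := by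
    rw [card_eq_sum_card_image f A]; push_cast; rfl
  rw [h1]
  refine (sum_le_card_nsmul _ _ K fun b hb => ?_).trans (le_of_eq (by rw [nsmul_eq_mul, mul_comm]))
  obtain ⟨x, hx, rfl⟩ := mem_image.1 hb
  exact h x hx

/-- a constant can be added to legal exponents -/
theorem Leg_shift {m : ℕ} {M : Mons m} {R : ℝ} {p : Fin m → ℝ} (hp : p ∈ Leg M R) {δ : ℝ}
    (hδ : 0 ≤ δ) (h : ∀ k, p k + δ ≤ R) : (fun k => p k + δ) ∈ Leg M R := by
  refine ⟨⟨fun k => add_nonneg (hp.1.nonneg k) hδ, fun k e he => ?_⟩, h⟩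
  have h1 := hp.1.wall k e he
  have h2 : ∑ s, (e s : ℝ) * (p s + δ) = ∑ s, (e s : ℝ) * p s + (∑ s, (e s : ℝ)) * δ := by
    rw [sum_mul, ← sum_add_distrib]
    exact sum_congr rfl fun s _ => by ring
  have h3 : (1 : ℝ) ≤ ∑ s, (e s : ℝ) := by
    have := M.one_le he
    exact_mod_cast this
  change p k + δ ≤ ∑ s, (e s : ℝ) * (p s + δ)
  rw [h2]
  nlinarith

theorem norm_shift {m : ℕ} (p : Fin m → ℝ) {δ : ℝ} (hδ : 0 ≤ δ) :
    ‖(fun k => p k + δ) - p‖ ≤ δ := by
  refine (pi_norm_le_iff_of_nonneg hδ).2 fun k => ?_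
  rw [Pi.sub_apply, add_sub_cancel_left, Real.norm_eq_abs, abs_of_nonneg hδ]

/-- one profile number: `N` classes of size `T d^(-ν' + e)` among `#J` points -/
theorem cnt_of_root {N T c d ν e : ℝ} (hd : 0 < d) (h : N * T ≤ c * d ^ (ν - e)) :
    N * (T * d ^ (-ν + e)) ≤ c := by
  have h1 : 0 < d ^ (-ν + e) := Real.rpow_pos_of_pos hd _
  calc N * (T * d ^ (-ν + e)) = N * T * d ^ (-ν + e) := by ring
    _ ≤ c * d ^ (ν - e) * d ^ (-ν + e) := mul_le_mul_of_nonneg_right h h1.le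
    _ = c * (d ^ (ν - e) * d ^ (-ν + e)) := by ring
    _ = c := by
      rw [← Real.rpow_add hd, show ν - e + (-ν + e) = 0 by ring, Real.rpow_zero, mul_one]

/-- absorption of the constants -/
theorem absorb {d T K ν ν' ε e : ℝ} (hd : 0 < d) (hd1 : d ≤ 1) (hT : 0 < T) (hK : 0 < K)
    (hKd : K ≤ d ^ (-(ε / 2))) (hν : |ν' - ν| ≤ ε / 4) (he : e = ε / 4) :
    T * d ^ (-ν + ε) ≤ T * d ^ (-ν' + e) / K := by
  rw [le_div_iff₀ hK]
  have h1 : 0 < d ^ (-ν + ε) := Real.rpow_pos_of_pos hd _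
  calc T * d ^ (-ν + ε) * K ≤ T * d ^ (-ν + ε) * d ^ (-(ε / 2)) :=
        mul_le_mul_of_nonneg_left hKd (mul_pos hT h1).le
    _ = T * d ^ (-ν + ε / 2) := by
        rw [mul_assoc, ← Real.rpow_add hd]; congr 2; ring
    _ ≤ T * d ^ (-ν' + e) := by
        refine mul_le_mul_of_nonneg_left (Real.rpow_le_rpow_of_exponent_ge hd hd1 ?_) hT.le
        rw [abs_le] at hν
        rw [he]
        linarith

variable {B B' : Base} {E J : ℕ → Finset (ℕ × ℝ)}
  {co : ∀ n : ℕ, ℕ × ℝ → ℕ × ℝ → Fin 11 → ℝ} {X : ℕ → Fin 11 → ℝ} {w : ℕ → ℝ} {R' : ℝ}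
  {Tn To : ℕ → ℝ} {PD : Set (Fin 11 → ℝ)} {D : (Fin 11 → ℝ) → ℝ} {r o : ℝ → Fin 11 → ℝ}
  {Er : ℝ → ℝ} {T : Fin 11 → Prop} {ν own : (Fin 11 → ℝ) → ℝ} {c₀ : ℝ}

open Classical in
set_option maxHeartbeats 1000000 in
/-- **one container** of the window profile -/
theorem exists_cont (H : ExtZ B B' E J co monQ 2 X w monQ R' Tn To 0 0 0 PD D r o Er T ν own c₀)
    {pc pu pl pv : Fin 11 → ℝ} (hpc : pc ∈ Leg monQ R') (hpu : pu ∈ Leg monQ R')
    (hpl : pl ∈ Leg monQ R') (hpv : pv ∈ Leg monQ R')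
    (hR : ∀ k, pu k < R' ∧ pl k < R' ∧ pv k < R') (h1 : pc ≤ pu) (h2 : pc ≤ pl) (h3 : pc ≤ pv)
    {uh : ℕ → ℝ} (huh : ∀ n, 0 < uh n) (hz : ∀ n, ∀ x y, co n x y 0 = uh n * (y.2 - x.2))
    {i l j : ℕ → ℕ} (hil : ∀ᶠ n in (U : Filter ℕ), i n ≤ l n)
    (hlj : ∀ᶠ n in (U : Filter ℕ), l n ≤ j n)
    (hi : ∀ᶠ n in (U : Filter ℕ), B.d n ^ X n 0 * B'.d n ^ pu 0 ≤ uh n * rho (i n))
    (hl : ∀ᶠ n in (U : Filter ℕ), B.d n ^ X n 0 * B'.d n ^ pl 0 ≤ uh n * rho (l n))
    (hj : ∀ᶠ n in (U : Filter ℕ), B.d n ^ X n 0 * B'.d n ^ pv 0 ≤ uh n * rho (j n))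
    {ε : ℝ} (hε : 0 < ε) : ∀ᶠ n in (U : Filter ℕ), ∃ F ⊆ J n, F.Nonempty ∧
      (∀ x ∈ F, ∀ y ∈ F, zc (i n) x.2 = zc (i n) y.2) ∧
      (∀ x ∈ F, ∀ y ∈ F, ∀ k, |co n x y k| ≤ B'.d n ^ (-ε) * (B.d n ^ X n k * B'.d n ^ pc k)) ∧
      (∀ x ∈ F, To n * B'.d n ^ (-(own pu) + ε) ≤
        ((F.filter fun y => y.1 = x.1 ∧ zc (i n) y.2 = zc (i n) x.2).card : ℝ)) ∧
      (∀ x ∈ F, To n * B'.d n ^ (-(own pl) + ε) ≤
        ((F.filter fun y => y.1 = x.1 ∧ zc (l n) y.2 = zc (l n) x.2).card : ℝ)) ∧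
      (∀ x ∈ F, Tn n * B'.d n ^ (-(ν pv) + ε) ≤
        ((F.filter fun y => zc (j n) y.2 = zc (j n) x.2 ∧
          ∀ k, |co n x y k| ≤ B'.d n ^ (-ε) * (B.d n ^ X n k * B'.d n ^ pv k)).card : ℝ)) := by
  have hC0 : 0 < cK0 monQ 2 := lt_of_lt_of_le one_pos (cK0_one (H.win.chart 0).C0)
  have hN0 : 0 < cN monQ 2 1 := cN_pos monQ (H.win.chart 0).C0 le_rfl
  obtain ⟨δ0, hδ0, hδR⟩ : ∃ δ0 : ℝ, 0 < δ0 ∧
      ∀ k, pu k + δ0 ≤ R' ∧ pl k + δ0 ≤ R' ∧ pv k + δ0 ≤ R' := by
    have hne : (univ : Finset (Fin 11)).Nonempty := ⟨0, mem_univ _⟩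
    refine ⟨univ.inf' hne fun k => min (R' - pu k) (min (R' - pl k) (R' - pv k)), ?_, ?_⟩
    · rw [Finset.lt_inf'_iff]
      intro k _
      obtain ⟨a1, a2, a3⟩ := hR k
      exact lt_min (by linarith) (lt_min (by linarith) (by linarith))
    · intro k
      have a1 := Finset.inf'_le (fun k => min (R' - pu k) (min (R' - pl k) (R' - pv k)))
        (mem_univ k)
      have a2 := a1.trans (min_le_left _ _)
      have a3 := (a1.trans (min_le_right _ _)).trans (min_le_left _ _)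
      have a4 := (a1.trans (min_le_right _ _)).trans (min_le_right _ _)
      refine ⟨by linarith, by linarith, by linarith⟩
  set δ : ℝ := min δ0 (ε / 44) with hδd
  have hδ : 0 < δ := lt_min hδ0 (by positivity)
  have hδ1 : δ ≤ δ0 := min_le_left _ _
  have hδ2 : δ ≤ ε / 44 := min_le_right _ _
  set pu' : Fin 11 → ℝ := fun k => pu k + δ with hpu'
  set pl' : Fin 11 → ℝ := fun k => pl k + δ with hpl'
  set pv' : Fin 11 → ℝ := fun k => pv k + δ with hpv'
  have mu : pu' ∈ Leg monQ R' := Leg_shift hpu hδ.le fun k => by linarith [(hδR k).1]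
  have ml : pl' ∈ Leg monQ R' := Leg_shift hpl hδ.le fun k => by linarith [(hδR k).2.1]
  have mv : pv' ∈ Leg monQ R' := Leg_shift hpv hδ.le fun k => by linarith [(hδR k).2.2]
  have lu : |own pu' - own pu| ≤ ε / 4 := by
    refine (H.olip pu' mu pu hpu).trans ?_
    have := norm_shift pu hδ.le
    push_cast
    linarith
  have ll : |own pl' - own pl| ≤ ε / 4 := by
    refine (H.olip pl' ml pl hpl).trans ?_
    have := norm_shift pl hδ.le
    push_cast
    linarith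
  have lv : |ν pv' - ν pv| ≤ ε / 4 := by
    refine (H.win.lip pv' mv pv hpv).trans ?_
    have := norm_shift pv hδ.le
    push_cast
    linarith
  set K : ℝ := 2 * (((3 : ℕ) : ℝ) + 1) * cN monQ 2 1 * 3 with hK
  have hK0 : 0 < K := by positivity
  filter_upwards [H.win.sub, H.win.ne, hil, hlj, hi, hl, hj,
    H.oprof.root (ε / 4) (by positivity), H.win.prof.root R' (ε / 4) (by positivity),
    H.win.legal R', ev_const_le B' hC0 hδ, ev_const_le B' hC0 hε,
    ev_const_le B' hK0 (ε := ε / 2) (by positivity)] with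
    n a1 a2 a3 a4 a5 a6 a7 a8 a9 a10 a11 a12 a13
  have hd := B'.pos n
  have hd1 := (B'.lt n).le
  have hpos : ∀ t : ℝ, 0 < B'.d n ^ t := fun t => Real.rpow_pos_of_pos hd t
  have hBp : ∀ t : ℝ, 0 < B.d n ^ t := fun t => Real.rpow_pos_of_pos (B.pos n) t
  have hTo := H.oprof.pos n
  have hTn := H.win.T0 n
  have hw0 := H.win.w0 n
  have leg : ∀ p ∈ Leg monQ R', Legal monQ (X n + w n • p) := fun p hp =>
    a10 p hp (Leg_norm H.R0 hp)
  -- equal labels at `p + δ` : the box `p` with constant 1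
  have box : ∀ p : Fin 11 → ℝ, (fun k => p k + δ) ∈ Leg monQ R' → ∀ x ∈ J n, ∀ y ∈ J n,
      zlab B E co monQ 2 X w n (fun k => p k + δ) x = zlab B E co monQ 2 X w n (fun k => p k + δ) y →
      ∀ k, |co n x y k| ≤ B.d n ^ X n k * B'.d n ^ p k := by
    intro p hp x hx y hy hxy k
    have e1 := H.win.near_of_zlab (leg _ hp) (a1 hx) (a1 hy) hxy k
    refine e1.trans ?_
    calc cK0 monQ 2 * (B.d n ^ X n k * B'.d n ^ (p k + δ))
        ≤ B'.d n ^ (-δ) * (B.d n ^ X n k * B'.d n ^ (p k + δ)) :=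
          mul_le_mul_of_nonneg_right a11 (mul_pos (hBp _) (hpos _)).le
      _ = B.d n ^ X n k * (B'.d n ^ (-δ) * B'.d n ^ (p k + δ)) := by ring
      _ = B.d n ^ X n k * B'.d n ^ p k := by
          rw [← Real.rpow_add hd]; congr 2; ring
  -- heights of a class
  have cell : ∀ p : Fin 11 → ℝ, (fun k => p k + δ) ∈ Leg monQ R' → ∀ s : ℕ,
      B.d n ^ X n 0 * B'.d n ^ p 0 ≤ uh n * rho s → ∀ x ∈ J n, ∀ y ∈ J n,
      zlab B E co monQ 2 X w n (fun k => p k + δ) x = zlab B E co monQ 2 X w n (fun k => p k + δ) y →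
      zc s y.2 ∈ Icc (zc s x.2 - 1) (zc s x.2 + 1) := by
    intro p hp s hs x hx y hy hxy
    refine zc_near ?_
    have e1 := (box p hp x hx y hy hxy 0).trans hs
    rw [hz, abs_mul, abs_of_pos (huh n)] at e1
    exact le_of_mul_le_mul_left e1 (huh n)
  -- the classes
  set P : Fin 3 → Fin 11 → ℝ := ![pu', pl', pv'] with hP
  set lv3 : Fin 3 → ℕ := ![i n, l n, j n] with hlv3
  set ln : Fin 3 → ℕ × ℝ → ℕ := ![fun x => x.1, fun x => x.1, fun _ => 0] with hln
  set TT : Fin 3 → ℝ := ![To n, To n, Tn n] with hTT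
  set NN : Fin 3 → ℝ := ![own pu', own pl', ν pv'] with hNN
  set cl : Fin 3 → ℕ × ℝ → (ℕ × (ℕ × ℝ)) × ℤ := fun s x =>
    ((ln s x, zlab B E co monQ 2 X w n (P s) x), zc (lv3 s) x.2) with hcl
  set μ : Fin 3 → ℝ := fun s => TT s * B'.d n ^ (-(NN s) + ε / 4) with hμ
  have hμ0 : ∀ s, 0 ≤ μ s := by
    intro s
    fin_cases s
    · exact (mul_pos hTo (hpos _)).le
    · exact (mul_pos hTo (hpos _)).le
    · exact (mul_pos hTn (hpos _)).le
  have b0 := a8 pu' mu
  have b1 := a8 pl' ml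
  have b2 := a9 pv' mv (Leg_norm H.R0 mv)
  have cnt : ∀ s, (((J n).image (cl s)).card : ℝ) * μ s ≤ 3 * (J n).card := by
    have key : ∀ s, (∀ x ∈ J n, ∀ y ∈ J n,
        (ln s y, zlab B E co monQ 2 X w n (P s) y) = (ln s x, zlab B E co monQ 2 X w n (P s) x) →
        zc (lv3 s) y.2 ∈ Icc (zc (lv3 s) x.2 - 1) (zc (lv3 s) x.2 + 1)) →
        (((J n).image fun x => (ln s x, zlab B E co monQ 2 X w n (P s) x)).card : ℝ) * TT s ≤
          (J n).card * B'.d n ^ (NN s - ε / 4) →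
        (((J n).image (cl s)).card : ℝ) * μ s ≤ 3 * (J n).card := by
      intro s k1 k2
      have k3 := card_lab_cell (J n) (fun x => (ln s x, zlab B E co monQ 2 X w n (P s) x))
        (fun x => zc (lv3 s) x.2) k1
      have k4 := cnt_of_root hd k2
      calc (((J n).image (cl s)).card : ℝ) * μ s ≤
          (3 * ((J n).image fun x => (ln s x, zlab B E co monQ 2 X w n (P s) x)).card) * μ s := by
            refine mul_le_mul_of_nonneg_right ?_ (hμ0 s)
            exact k3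
        _ = 3 * ((((J n).image fun x => (ln s x, zlab B E co monQ 2 X w n (P s) x)).card : ℝ) *
            (TT s * B'.d n ^ (-(NN s) + ε / 4))) := by rw [hμ]; ring
        _ ≤ 3 * (J n).card := by linarith
    intro s
    fin_cases s
    · refine key 0 (fun x hx y hy hxy => ?_) b0
      exact cell pu mu (i n) a5 x hx y hy (Prod.mk.inj hxy).2.symm
    · refine key 1 (fun x hx y hy hxy => ?_) b1
      exact cell pl ml (l n) a6 x hx y hy (Prod.mk.inj hxy).2.symm
    · refine key 2 (fun x hx y hy hxy => ?_) ?_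
      · exact cell pv mv (j n) a7 x hx y hy (Prod.mk.inj hxy).2.symm
      · refine le_trans (mul_le_mul_of_nonneg_right ?_ hTn.le) b2
        have : ((J n).image fun x => (ln 2 x, zlab B E co monQ 2 X w n (P 2) x)) =
            ((J n).image (zlab B E co monQ 2 X w n pv')).image fun b => ((0 : ℕ), b) := by
          rw [image_image]; rfl
        rw [this]
        exact_mod_cast card_image_le
  have near : ∀ s, ∀ x ∈ J n, ∀ y ∈ J n, cl s x = cl s y →
      Near (co n) (B.d n) (X n + w n • pc) 1 x y := by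
    have key : ∀ p : Fin 11 → ℝ, (fun k => p k + δ) ∈ Leg monQ R' → pc ≤ p → ∀ x ∈ J n,
        ∀ y ∈ J n, zlab B E co monQ 2 X w n (fun k => p k + δ) x =
          zlab B E co monQ 2 X w n (fun k => p k + δ) y →
        Near (co n) (B.d n) (X n + w n • pc) 1 x y := by
      intro p hp hpp x hx y hy hxy k
      rw [H.win.d_eq, one_mul]
      refine (box p hp x hx y hy hxy k).trans ?_
      exact mul_le_mul_of_nonneg_left
        (Real.rpow_le_rpow_of_exponent_ge hd hd1 (hpp k)) (hBp _).le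
    intro s x hx y hy hxy
    have h5 := (Prod.mk.inj (Prod.mk.inj hxy).1).2
    fin_cases s
    · exact key pu mu h1 x hx y hy h5
    · exact key pl ml h2 x hx y hy h5
    · exact key pv mv h3 x hx y hy h5
  have hchJ : Chart (J n) (co n) monQ 2 := by
    have hch := H.win.chart n
    exact ⟨hch.C0, fun x hx => hch.refl x (a1 hx), fun x hx y hy z hz' =>
      hch.add x (a1 hx) y (a1 hy) z (a1 hz')⟩
  obtain ⟨F, hFJ, hFne, hFn, hFc⟩ := End882.exists_container hchJ (B.pos n) (B.lt n).le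
    (leg pc hpc) cl μ hμ0 near a2 (A := 3) (by norm_num) (fun s => by convert cnt s)
  have hFc' : ∀ s, ∀ x ∈ F, μ s / K ≤ ((F.filter fun y => cl s y = cl s x).card : ℝ) :=
    fun s x hx => by convert hFc s x hx
  obtain ⟨x₀, hx₀⟩ := hFne
  have hNear : ∀ x ∈ F, ∀ y ∈ F, ∀ k, |co n x y k| ≤
      B'.d n ^ (-ε) * (B.d n ^ X n k * B'.d n ^ pc k) := by
    intro x hx y hy k
    have e1 := hFn x hx y hy k
    rw [H.win.d_eq] at e1
    exact e1.trans (mul_le_mul_of_nonneg_right a12 (mul_pos (hBp _) (hpos _)).le)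
  refine ⟨F.filter fun x => zc (i n) x.2 = zc (i n) x₀.2, (filter_subset _ _).trans hFJ,
    ⟨x₀, mem_filter.2 ⟨hx₀, rfl⟩⟩, ?_, ?_, ?_, ?_, ?_⟩
  · intro x hx y hy
    rw [mem_filter] at hx hy
    rw [hx.2, hy.2]
  · intro x hx y hy
    rw [mem_filter] at hx hy
    exact hNear x hx.1 y hy.1
  · intro x hx
    rw [mem_filter] at hx
    refine (absorb hd hd1 hTo hK0 a13 lu rfl).trans ((hFc' 0 x hx.1).trans ?_)
    refine Nat.cast_le.2 (card_le_card fun y hy => ?_)
    rw [mem_filter] at hy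
    have e1 := (Prod.mk.inj hy.2).2
    have e2 := (Prod.mk.inj (Prod.mk.inj hy.2).1).1
    change zc (i n) y.2 = zc (i n) x.2 at e1
    change y.1 = x.1 at e2
    exact mem_filter.2 ⟨mem_filter.2 ⟨hy.1, e1.trans hx.2⟩, e2, e1⟩
  · intro x hx
    rw [mem_filter] at hx
    refine (absorb hd hd1 hTo hK0 a13 ll rfl).trans ((hFc' 1 x hx.1).trans ?_)
    refine Nat.cast_le.2 (card_le_card fun y hy => ?_)
    rw [mem_filter] at hy
    have e1 := (Prod.mk.inj hy.2).2
    have e2 := (Prod.mk.inj (Prod.mk.inj hy.2).1).1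
    change zc (l n) y.2 = zc (l n) x.2 at e1
    change y.1 = x.1 at e2
    exact mem_filter.2 ⟨mem_filter.2 ⟨hy.1, (zc_nest a3 e1).trans hx.2⟩, e2, e1⟩
  · intro x hx
    rw [mem_filter] at hx
    refine (absorb hd hd1 hTn hK0 a13 lv rfl).trans ((hFc' 2 x hx.1).trans ?_)
    refine Nat.cast_le.2 (card_le_card fun y hy => ?_)
    rw [mem_filter] at hy
    have e1 := (Prod.mk.inj hy.2).2
    have e2 := (Prod.mk.inj (Prod.mk.inj hy.2).1).2
    change zc (j n) y.2 = zc (j n) x.2 at e1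
    refine mem_filter.2 ⟨mem_filter.2 ⟨hy.1, (zc_nest (a3.trans a4) e1).trans hx.2⟩, e1, ?_⟩
    intro k
    refine (box pv mv x (hFJ hx.1) y (hFJ hy.1) e2.symm k).trans ?_
    refine le_mul_of_one_le_left (mul_pos (hBp _) (hpos _)).le ?_
    exact Real.one_le_rpow_of_pos_of_le_one_of_nonpos hd hd1 (by linarith)

open Classical in
/-- **own count of a box** -/
theorem own_le_box (H : ExtZ B B' E J co monQ 2 X w monQ R' Tn To 0 0 0 PD D r o Er T ν own c₀)
    {p : Fin 11 → ℝ} (hp : p ∈ Leg monQ R') {ε : ℝ} (hε : 0 < ε) :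
    ∃ δ : ℝ, 0 < δ ∧ ∀ᶠ n in (U : Filter ℕ), ∀ x ∈ J n, ∀ F ⊆ J n,
      (∀ y ∈ F, y.1 = x.1 ∧ ∀ k, |co n x y k| ≤
        B'.d n ^ (-δ) * (B.d n ^ X n k * B'.d n ^ p k)) →
      (F.card : ℝ) ≤ To n * B'.d n ^ (-(own p) - ε) := by
  have hl : ∀ᶠ n in (U : Filter ℕ), Legal monQ (X n + w n • p) := by
    filter_upwards [H.win.legal ‖p‖] with n hn using hn p hp le_rfl
  obtain ⟨δ, hδ, _, hev⟩ := card_zlab_close (B' := B') (ε := ε / 2) H.win.chart H.win.base hl
    (by positivity)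
  refine ⟨δ, hδ, ?_⟩
  filter_upwards [hev, H.oprof.up (ε / 2) (by positivity), H.win.sub] with n b1 b2 b3 x hx F hF hb
  have hpos : ∀ t : ℝ, 0 < B'.d n ^ t := fun t => Real.rpow_pos_of_pos (B'.pos n) t
  have hTo := H.oprof.pos n
  have c1 := b1 x (b3 hx) F (hF.trans b3) fun y hy => (hb y hy).2
  have c2 : (F.card : ℝ) ≤ (To n * B'.d n ^ (-(own p + ε / 2))) *
      (F.image (zlab B E co monQ 2 X w n p)).card := by
    refine card_le_fib' F (zlab B E co monQ 2 X w n p) fun y hy => ?_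
    refine le_trans ?_ (b2 p hp y (hF hy))
    refine Nat.cast_le.2 (card_le_card fun z hz' => ?_)
    rw [mem_filter] at hz'
    refine mem_cls.2 ⟨hF hz'.1, ?_⟩
    change (z.1, zlab B E co monQ 2 X w n p z) = (y.1, zlab B E co monQ 2 X w n p y)
    rw [(hb z hz'.1).1, (hb y hy).1, hz'.2]
  calc (F.card : ℝ) ≤ (To n * B'.d n ^ (-(own p + ε / 2))) * B'.d n ^ (-(ε / 2)) :=
        c2.trans (mul_le_mul_of_nonneg_left c1 (mul_pos hTo (hpos _)).le)
    _ = _ := by rw [mul_assoc, ← Real.rpow_add (B'.pos n)]; congr 2; ring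

end Crest.Agent.R136.Cnt638
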