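import Crest.Agent.R136.Cod_289
import Crest.Agent.R136.Bet_879

/-!
# R136 (U4): the supremum bound on codes (helper289)

* `CodeDat` : sequence of codes `ℓ n`, geometry `G`, legality predicates `Leg n`, resolution `r n`;
* `ValB`    : upper bound `β'` for the values of the valid configurations of a class `𝒞`;
* `ubw_of`  : `ValB ⊢ UBw` (helper248's literal, `R` trivial); `UBd`, `ubd_of` : any levels `j > lo`
  and any incidences of the lines of `I n` (helper770's literal).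
-/

set_option autoImplicit false
set_option linter.unusedVariables false

open Finset Filter Topology

namespace Crest.Agent.R136.Cod289

open Sh605 K4 KS879 En879 XA248
open Crest.Agent.R138.Ex926 (Base U)
open Crest.Agent.R138.Mk163 (zc zl rho alive own)
open Crest.Agent.R138.MkRef627 (mem_alive)
open MkA627 (Geo)

noncomputable section

/-- a sequence of codes with its geometry; `q` = rewards of `G.val` -/
structure CodeDat (G : Geo Plk4 (Fin 3)) (ℓ : ℕ → ℕ → Ln4) (I : ℕ → Finset (ℕ × ℝ))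
    (Leg : ℕ → ℕ → ℝ → ℝ → Plk4 → Prop) (r Λ : ℕ → ℝ) (lo hi : ℕ → ℕ) (q : Fin 3 → ℝ) :
    Prop where
  geo : ∀ n, GeoOf G (ℓ n) q n fun i K => Leg n i (r n) (Λ n) K
  pos : ∀ n i K, Leg n i (r n) (Λ n) K → 0 < K.a ∧ 0 < K.w 2 ∧ 0 < K.w 1
  r0 : ∀ n, 0 < r n
  Λ1 : ∀ n, 1 ≤ Λ n
  inj : ∀ n, Inj (ℓ n) (I n)
  len : Tendsto (fun n => (hi n : ℝ) - lo n) U atTop
  size : ∀ δ : ℝ, 0 < δ → ∀ᶠ n in (U : Filter ℕ),
    Real.logb 2 ((I n).card : ℝ) ≤ (2:ℝ) ^ (δ * ((hi n : ℝ) - lo n))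
  res : ∀ δ : ℝ, 0 < δ → ∀ᶠ n in (U : Filter ℕ),
    Real.logb 2 (1 / (r n * 2 ^ lo n)) ≤ (2:ℝ) ^ (δ * ((hi n : ℝ) - lo n))
  slope : ∀ δ : ℝ, 0 < δ → ∀ᶠ n in (U : Filter ℕ), Λ n ≤ (2:ℝ) ^ (δ * ((hi n : ℝ) - lo n))
  vel : ∀ᶠ n in (U : Filter ℕ), ∀ x ∈ I n, ∀ i, |(ℓ n x.1).v i| ≤ 1

/-- upper bound `β'` for the values of the valid configurations in the class `𝒞 n` -/
def ValB (Leg : ℕ → ℕ → ℝ → ℝ → Plk4 → Prop) (q : Fin 3 → ℝ) (𝒞 : ℝ → ℕ → Cf6 → Prop)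
    (β' : ℝ) : Prop :=
  ∀ η : ℝ, 0 < η → ∃ δ : ℝ, 0 < δ ∧ ∀ᶠ n in (U : Filter ℕ), ∀ F : Cf6, 𝒞 η n F →
    Ok6 (Leg n) q F → Adm6 δ F → 1 / δ ≤ (F.M : ℝ) → F.toCf4.val ≤ β' + η

/-- from the value to the densities -/
theorem le_of_val {D0 D1 β : ℝ} {M : ℕ} (hM : 1 ≤ M) (h0 : 0 < D0) (h1 : 0 < D1)
    (h : Real.logb 2 (D1 / D0) / M ≤ β) : D1 ≤ D0 * (2:ℝ) ^ (β * M) := by
  have hM' : (0:ℝ) < M := by exact_mod_cast hM
  rw [div_le_iff₀ hM'] at h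
  have h2 := (Real.logb_le_iff_le_rpow one_lt_two (div_pos h1 h0)).1 h
  rw [div_le_iff₀ h0] at h2
  linarith

section

variable {G : Geo Plk4 (Fin 3)} {ℓ : ℕ → ℕ → Ln4} {I : ℕ → Finset (ℕ × ℝ)}
  {Leg : ℕ → ℕ → ℝ → ℝ → Plk4 → Prop} {r Λ : ℕ → ℝ} {lo hi : ℕ → ℕ} {q : Fin 3 → ℝ}

/-- injectivity of the codes of a family whose lines are lines of `I` -/
theorem inj_of_lines {ℓ : ℕ → Ln4} {I A : Finset (ℕ × ℝ)} (h : Inj ℓ I)
    (hA : ∀ x ∈ A, ∃ y ∈ I, y.1 = x.1) : Inj ℓ A := by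
  intro x hx y hy hxy
  obtain ⟨u, hu, hu1⟩ := hA x hx
  obtain ⟨v, hv, hv1⟩ := hA y hy
  rw [← hu1, ← hv1] at hxy ⊢
  exact h u hu v hv hxy

open Classical in
theorem card_enc {ℓ : ℕ → Ln4} {A : Finset (ℕ × ℝ)} : (enc ℓ A).card ≤ A.card := by
  classical
  unfold enc
  exact card_image_le

/-- the finite bound -/
theorem fin_bound {n : ℕ} (hG : GeoOf G (ℓ n) q n fun i K => Leg n i (r n) (Λ n) K)
    (hpos : ∀ i K, Leg n i (r n) (Λ n) K → 0 < K.a ∧ 0 < K.w 2 ∧ 0 < K.w 1)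
    (hr : 0 < r n) (hΛ : 1 ≤ Λ n) {x : Fin 3 → ℝ} {i j h : ℕ} (hij : i < j)
    (hrj : r n ≤ 1 / 2 ^ j) {A : Finset (ℕ × ℝ)} (hi : Inj (ℓ n) A) (hne : A.Nonempty)
    (hcell : ∀ x ∈ A, ∀ y ∈ A, zc i x.2 = zc i y.2)
    (hown : ∀ x ∈ A, 2 ^ (j - i + 20) ≤ 2 ^ h * (own A i j x).card) (hh : h ≤ j - i)
    {R : Rel (Fin 3)} {c : ℕ → ℤ → ℕ} {b : ℕ → Plk4} {w : Fin 3 → ℝ} {D0 D1 : ℝ}
    (hD0 : 0 < D0) (hD1 : 0 < D1) (hcl : IsCl G n j A c b w) (hlow : Low G x n j A c b D1)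
    (hR : ∀ l J s, G.adm n l J s → R l (wv G s) j w)
    (hup : ∀ l : ℕ, i ≤ l → l ≤ i + h → Up G R x n l A j w D0)
    {δ β : ℝ} (hδ : 0 < δ)
    (hval : ∀ F : Cf6, F = cfO (ℓ n) A i j h (r n) (Λ n) c b D0 D1 →
      Ok6 (Leg n) (q + x) F → Adm6 δ F → 1 / δ ≤ (F.M : ℝ) → F.toCf4.val ≤ β)
    (hh2 : (h : ℝ) ≤ δ * ((j : ℝ) - i))
    (hsize : Real.logb 2 (A.card : ℝ) ≤ (2:ℝ) ^ (δ * ((j : ℝ) - i)))
    (hres : Real.logb 2 (1 / (r n * 2 ^ i)) ≤ (2:ℝ) ^ (δ * ((j : ℝ) - i)))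
    (hslope : Λ n ≤ (2:ℝ) ^ (δ * ((j : ℝ) - i)))
    (hvel : ∀ x ∈ A, ∀ i, |(ℓ n x.1).v i| ≤ 1) (hlong : 1 / δ ≤ (j : ℝ) - i) :
    D1 ≤ D0 * (2:ℝ) ^ (β * ((j : ℝ) - i)) := by
  have hok := cfO_ok hG hpos hr hΛ hij hrj hi hne hcell hown hh hD1 hcl hlow hR hup
  have eM : (((cfO (ℓ n) A i j h (r n) (Λ n) c b D0 D1).M : ℕ) : ℝ) = (j : ℝ) - i := by
    show (((j - i : ℕ)) : ℝ) = _
    rw [Nat.cast_sub hij.le]
  have hadm : Adm6 δ (cfO (ℓ n) A i j h (r n) (Λ n) c b D0 D1) := by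
    refine ⟨?_, ?_, ?_, ?_, ?_⟩
    · rw [eM]; exact hh2
    · rw [eM]
      refine le_trans ?_ hsize
      show Real.logb 2 ((enc (ℓ n) A).card : ℝ) ≤ _
      refine Real.logb_le_logb_of_le one_lt_two ?_ (Nat.cast_le.2 card_enc)
      obtain ⟨x, hx⟩ := hne
      exact_mod_cast card_pos.2 ⟨_, mem_enc.2 ⟨x, hx, rfl⟩⟩
    · rw [eM]; exact hres
    · rw [eM]; exact hslope
    · intro y hy
      obtain ⟨u, hu, rfl⟩ := mem_enc.1 hy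
      exact hvel u hu
  have h1 := hval _ rfl hok hadm (by rw [eM]; exact hlong)
  have h2 : Real.logb 2 (D1 / D0) / ((j - i : ℕ) : ℝ) ≤ β := h1
  have h3 := le_of_val (by omega : 1 ≤ j - i) hD0 hD1 h2
  rwa [Nat.cast_sub hij.le] at h3

/-- **the supremum bound on codes**: 248's `UBw`, no range -/
theorem ubw_of (hC : CodeDat G ℓ I Leg r Λ lo hi q) (hrt : ∀ n, r n ≤ 1 / 2 ^ hi n)
    {x : Fin 3 → ℝ} {β' : ℝ} {𝒞 : ℝ → ℕ → Cf6 → Prop} (hB : ValB Leg (q + x) 𝒞 β')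
    (h𝒞 : ∀ η : ℝ, 0 < η → ∀ᶠ n in (U : Filter ℕ), ∀ i j h : ℕ, lo n ≤ i → i < j → j ≤ hi n →
      η * ((hi n : ℝ) - lo n) ≤ (j : ℝ) - i →
      ∀ A : Finset (ℕ × ℝ), A ⊆ I n → A.Nonempty → ∀ (c : ℕ → ℤ → ℕ) (b : ℕ → Plk4)
        (w : Fin 3 → ℝ) (D0 D1 : ℝ), IsCl G n j A c b w →
        𝒞 η n (cfO (ℓ n) A i j h (r n) (Λ n) c b D0 D1)) :
    UBw G (fun _ _ _ _ => True) I lo hi x β' := by
  intro η hη
  obtain ⟨δ', hδ', hB'⟩ := hB η hη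
  refine ⟨min (δ' * η) η, lt_min (by positivity) hη, ?_⟩
  have hlen : ∀ᶠ n in (U : Filter ℕ), 1 / (δ' * η) ≤ (hi n : ℝ) - lo n :=
    hC.len.eventually_ge_atTop _
  filter_upwards [hB', h𝒞 η hη, hC.size (δ' * η) (by positivity),
    hC.res (δ' * η) (by positivity), hC.slope (δ' * η) (by positivity), hC.vel, hlen] with n h1
    h2 h3 h4 h5 h6 h7
  intro i j h hi1 hij hj hlong hh A hA hne hcell hown c b w D0 D1 hD0 hD1 hcl hlow hup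
  have hN : 0 < (hi n : ℝ) - lo n := lt_of_lt_of_le (by positivity) h7
  have hmono : δ' * η * ((hi n : ℝ) - lo n) ≤ δ' * ((j : ℝ) - i) := by
    calc δ' * η * ((hi n : ℝ) - lo n) = δ' * (η * ((hi n : ℝ) - lo n)) := by ring
      _ ≤ δ' * ((j : ℝ) - i) := mul_le_mul_of_nonneg_left hlong hδ'.le
  have hpow : (2:ℝ) ^ (δ' * η * ((hi n : ℝ) - lo n)) ≤ (2:ℝ) ^ (δ' * ((j : ℝ) - i)) :=
    Real.rpow_le_rpow_of_exponent_le (by norm_num) hmono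
  have hh1 : (h : ℝ) ≤ η * ((hi n : ℝ) - lo n) :=
    hh.trans (mul_le_mul_of_nonneg_right (min_le_right _ _) hN.le)
  have hh2 : (h : ℝ) ≤ δ' * ((j : ℝ) - i) :=
    (hh.trans (mul_le_mul_of_nonneg_right (min_le_left _ _) hN.le)).trans hmono
  have hhj : h ≤ j - i := by
    have : (h : ℝ) ≤ ((j - i : ℕ) : ℝ) := by
      rw [Nat.cast_sub hij.le]; exact hh1.trans hlong
    exact_mod_cast this
  have hrj : r n ≤ 1 / 2 ^ j := (hrt n).trans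
    (one_div_le_one_div_of_le (by positivity) (pow_le_pow_right₀ one_le_two hj))
  have hAne : (0:ℝ) < A.card := by exact_mod_cast card_pos.2 hne
  refine fin_bound (hC.geo n) (hC.pos n) (hC.r0 n) (hC.Λ1 n) hij hrj
    (inj_of_lines (hC.inj n) fun x hx => ⟨x, hA hx, rfl⟩) hne hcell hown hhj hD0 hD1 hcl hlow
    (fun _ _ _ _ => trivial) hup hδ' ?_ hh2 ?_ ?_ (h5.trans hpow)
    (fun x hx => h6 x (hA hx)) ?_
  · intro F hF hok hadm hM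
    refine h1 F ?_ hok hadm hM
    rw [hF]
    exact h2 i j h hi1 hij hj hlong A hA hne c b w D0 D1 hcl
  · refine le_trans ?_ (h3.trans hpow)
    exact Real.logb_le_logb_of_le one_lt_two hAne (Nat.cast_le.2 (card_le_card hA))
  · refine le_trans ?_ (h4.trans hpow)
    have hr := hC.r0 n
    refine Real.logb_le_logb_of_le one_lt_two (by positivity) ?_
    refine one_div_le_one_div_of_le (by positivity) ?_
    exact mul_le_mul_of_nonneg_left (pow_le_pow_right₀ one_le_two hi1) hr.le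
  · -- length
    have h8 : 1 / δ' ≤ η * ((hi n : ℝ) - lo n) := by
      have e : 1 / δ' = η * (1 / (δ' * η)) := by field_simp
      rw [e]
      exact mul_le_mul_of_nonneg_left h7 hη.le
    exact h8.trans hlong

/-- **(UB) at arbitrary depth** (literal of helper770, message 16526): any level `j > lo n`, any
incidences `A` of the lines of `I n`; `Q` = condition on the sheets of the classes, `Rg n` = range of
the test sets. -/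
def UBd {σ κ : Type} [Fintype κ] (G : Geo σ κ) (Rg : ℕ → Rel κ) (Q : ℕ → ℕ → σ → Prop)
    (I : ℕ → Finset (ℕ × ℝ)) (lo hi : ℕ → ℕ) (r0 : ℕ → ℝ) (β' : ℝ) : Prop :=
  ∀ η : ℝ, 0 < η → ∃ δ : ℝ, 0 < δ ∧ ∀ᶠ n in (U : Filter ℕ), ∀ j h : ℕ, lo n < j →
    r0 n ≤ rho j → η * ((hi n : ℝ) - lo n) ≤ (j : ℝ) - lo n →
    (h : ℝ) ≤ δ * ((hi n : ℝ) - lo n) → ∀ A : Finset (ℕ × ℝ), A.Nonempty →
    (∀ x ∈ A, ∃ y ∈ I n, y.1 = x.1) →
    (∀ x ∈ A, ∀ y ∈ A, zc (lo n) x.2 = zc (lo n) y.2) →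
    (∀ x ∈ A, ∀ y ∈ A, x.1 = y.1 → zc j x.2 = zc j y.2 → x = y) →
    Real.logb 2 (A.card : ℝ) ≤ (2:ℝ) ^ (δ * ((j : ℝ) - lo n)) →
    (∀ x ∈ A, 2 ^ (j - lo n + 20) ≤ 2 ^ h * (own A (lo n) j x).card) →
    ∀ (c : ℕ → ℤ → ℕ) (b : ℕ → σ) (w : κ → ℝ) (D0 D1 : ℝ), 0 < D0 → 0 < D1 →
      IsCl G n j A c b w → (∀ J : ℤ, ∀ t ∈ alive A j J, Q n j (b (c t J))) →
      Low G 0 n j A c b D1 →
      (∀ i' : ℕ, lo n ≤ i' → i' ≤ lo n + h → Up G (Rg n) 0 n i' A j w D0) →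
      D1 ≤ D0 * (2:ℝ) ^ ((β' + η) * ((j : ℝ) - lo n))

/-- `ValB` gives `UBd` -/
theorem ubd_of (hC : CodeDat G ℓ I Leg r Λ lo hi q)
    {β' : ℝ} {𝒞 : ℝ → ℕ → Cf6 → Prop} (hB : ValB Leg q 𝒞 β') {Rg : ℕ → Rel (Fin 3)}
    {Q : ℕ → ℕ → Plk4 → Prop}
    (h𝒞 : ∀ η : ℝ, 0 < η → ∀ᶠ n in (U : Filter ℕ), ∀ j h : ℕ, lo n < j → r n ≤ rho j →
      η * ((hi n : ℝ) - lo n) ≤ (j : ℝ) - lo n →
      ∀ A : Finset (ℕ × ℝ), A.Nonempty → (∀ x ∈ A, ∃ y ∈ I n, y.1 = x.1) →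
        (∀ x ∈ A, ∀ y ∈ A, zc (lo n) x.2 = zc (lo n) y.2) →
        ∀ (c : ℕ → ℤ → ℕ) (b : ℕ → Plk4)
        (w : Fin 3 → ℝ) (D0 D1 : ℝ), IsCl G n j A c b w →
        (∀ J : ℤ, ∀ t ∈ alive A j J, Q n j (b (c t J))) →
        𝒞 η n (cfO (ℓ n) A (lo n) j h (r n) (Λ n) c b D0 D1))
    (hRg : ∀ (n : ℕ) l J s j (w : Fin 3 → ℝ), G.adm n l J s → Rg n l (wv G s) j w) :
    UBd G Rg Q I lo hi r β' := by
  intro η hη
  have hB0 : ValB Leg (q + 0) 𝒞 β' := by rw [add_zero]; exact hB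
  obtain ⟨δ', hδ', hB'⟩ := hB0 η hη
  refine ⟨min (min (δ' * η) η) δ', lt_min (lt_min (by positivity) hη) hδ', ?_⟩
  have hlen : ∀ᶠ n in (U : Filter ℕ), 1 / (δ' * η) ≤ (hi n : ℝ) - lo n :=
    hC.len.eventually_ge_atTop _
  filter_upwards [hB', h𝒞 η hη, hC.res (δ' * η) (by positivity),
    hC.slope (δ' * η) (by positivity), hC.vel, hlen] with n h1 h2 h4 h5 h6 h7
  intro j h hij hrj hlong hh A hne hA hcell hone hsize hown c b w D0 D1 hD0 hD1 hcl hQ hlow hup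
  have hN : 0 < (hi n : ℝ) - lo n := lt_of_lt_of_le (by positivity) h7
  have hmono : δ' * η * ((hi n : ℝ) - lo n) ≤ δ' * ((j : ℝ) - lo n) := by
    calc δ' * η * ((hi n : ℝ) - lo n) = δ' * (η * ((hi n : ℝ) - lo n)) := by ring
      _ ≤ δ' * ((j : ℝ) - lo n) := mul_le_mul_of_nonneg_left hlong hδ'.le
  have hpow : (2:ℝ) ^ (δ' * η * ((hi n : ℝ) - lo n)) ≤ (2:ℝ) ^ (δ' * ((j : ℝ) - lo n)) :=
    Real.rpow_le_rpow_of_exponent_le (by norm_num) hmono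
  have hm1 : min (min (δ' * η) η) δ' ≤ η := (min_le_left _ _).trans (min_le_right _ _)
  have hm2 : min (min (δ' * η) η) δ' ≤ δ' * η := (min_le_left _ _).trans (min_le_left _ _)
  have hh1 : (h : ℝ) ≤ η * ((hi n : ℝ) - lo n) :=
    hh.trans (mul_le_mul_of_nonneg_right hm1 hN.le)
  have hh2 : (h : ℝ) ≤ δ' * ((j : ℝ) - lo n) :=
    (hh.trans (mul_le_mul_of_nonneg_right hm2 hN.le)).trans hmono
  have hhj : h ≤ j - lo n := by
    have : (h : ℝ) ≤ ((j - lo n : ℕ) : ℝ) := by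
      rw [Nat.cast_sub hij.le]; exact hh1.trans hlong
    exact_mod_cast this
  have hjl : (0:ℝ) ≤ (j : ℝ) - lo n := by
    have : (lo n : ℝ) < j := by exact_mod_cast hij
    linarith
  refine fin_bound (hC.geo n) (hC.pos n) (hC.r0 n) (hC.Λ1 n) hij hrj
    (inj_of_lines (hC.inj n) hA) hne hcell hown hhj hD0 hD1 hcl hlow
    (fun l J s hs => hRg n l J s j w hs) hup hδ' ?_ hh2 ?_ (h4.trans hpow) (h5.trans hpow)
    ?_ ?_
  · intro F hF hok hadm hM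
    refine h1 F ?_ hok hadm hM
    rw [hF]
    exact h2 j h hij hrj hlong A hne hA hcell c b w D0 D1 hcl hQ
  · refine hsize.trans (Real.rpow_le_rpow_of_exponent_le (by norm_num) ?_)
    exact mul_le_mul_of_nonneg_right (min_le_right _ _) hjl
  · intro x hx
    obtain ⟨y, hy, hyx⟩ := hA x hx
    rw [← hyx]
    exact h6 y hy
  · have h8 : 1 / δ' ≤ η * ((hi n : ℝ) - lo n) := by
      have e : 1 / δ' = η * (1 / (δ' * η)) := by field_simp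
      rw [e]
      exact mul_le_mul_of_nonneg_left h7 hη.le
    exact h8.trans hlong

end

/-- `IsBeta` of the full class gives `ValB` (`𝒞` trivial) -/
theorem valB_of_isBeta {q : Fin 3 → ℝ} {β' : ℝ} (h : Bet879.IsBeta (Bet879.VV q) β') :
    ValB (fun _ => LegN) q (fun _ _ _ => True) β' := by
  intro η hη
  obtain ⟨δ, hδ, h1⟩ := h.le η hη
  exact ⟨δ, hδ, Eventually.of_forall fun n F _ hok hadm hM => h1 _ ⟨F, ⟨hok, hadm, hM⟩, rfl⟩⟩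

end

end Crest.Agent.R136.Cod289
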