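import Crest.Agent.R136.KDef6_879
import Crest.Agent.R136.Bet_879

/-!
# R136: configurations with container and resolution (helper879; ARCH 7, 332, 770)

Index of the widths: `0` = thickness, `1` = wide, `2` = narrow.  `LegR Leg wr c` : members of the
class whose widths lie in `[wr k, c k]`.  `Cf7` = `Cf6` with a container sheet `KC` over the bottom
cell and a resolution vector `wr`.  `Ok7` : `Ok6` for the class `LegR`, all lines in the container.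
`InC κ C` : the class of range `C` (in units of the window), margin `κ C` below the top marks.

* `lip7`   : the value is `2 ((κ + 2) C + 1)`-Lipschitz in the rewards;
* `enemy7` : `¬ KS4` gives configurations of class `C ≥ 1` of value `≥ b0 - ∑ |q i|`;
* `VC`, `exists_betaC`, `betaC_lip`.
-/

set_option autoImplicit false

open Finset

namespace Crest.Agent.R136.K4

open Sh605 KS879 En879

noncomputable section

/-- the widths: thickness, wide, narrow -/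
def wd (K : Plk4) : Fin 3 → ℝ := ![K.a, K.w 1, K.w 2]

@[simp] theorem wd_zero (K : Plk4) : wd K 0 = K.a := rfl
@[simp] theorem wd_one (K : Plk4) : wd K 1 = K.w 1 := rfl
@[simp] theorem wd_two (K : Plk4) : wd K 2 = K.w 2 := rfl

/-- members of the class with widths in the range `[wr, c]` -/
def LegR (Leg : ℕ → ℝ → ℝ → Plk4 → Prop) (wr c : Fin 3 → ℝ) (m : ℕ) (r Λm : ℝ) (K : Plk4) :
    Prop :=
  Leg m r Λm K ∧ ∀ k, wr k ≤ wd K k ∧ wd K k ≤ c k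

/-- configuration with container and resolution -/
structure Cf7 extends Cf6 where
  /-- container: a sheet over the bottom cell -/
  KC : Plk4
  /-- resolution of the widths -/
  wr : Fin 3 → ℝ

/-- widths of the top sheet of `x` -/
def Cf4.T (F : Cf4) (x : Ln4 × ℝ) : Fin 3 → ℝ := wd (F.K (F.cl (ob4 F.top x)))

/-- validity of a configuration with container and resolution -/
structure Ok7 (Leg : ℕ → ℝ → ℝ → Plk4 → Prop) (q : Fin 3 → ℝ) (F : Cf7) : Prop where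
  ok : Ok6 (LegR Leg F.wr (wd F.KC)) q F.toCf6
  conL : Leg F.m F.r F.Λm F.KC
  con : ∀ x ∈ F.I, In4 F.m F.KC (ob4 F.m x)
  wrp : ∀ k, 0 < F.wr k

/-- configurations of class `C`, margin constant `κ` -/
structure InC (κ C : ℝ) (F : Cf7) : Prop where
  con : ∀ x ∈ F.I, ∀ k, wd F.KC k ≤ F.T x k * (2:ℝ) ^ (C * F.M)
  mar : ∀ x ∈ F.I, ∀ k, k ≠ 0 → F.wr k * (2:ℝ) ^ (κ * C * F.M) ≤ F.T x k
  low : ∀ x ∈ F.I, ∀ k, F.T x k ≤ F.wr k * (2:ℝ) ^ ((κ + 1) * C * F.M)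
  thk : ∀ x ∈ F.I, F.T x 0 * (2:ℝ) ^ (7 * (F.M : ℝ)) ≤ wd F.KC 0 ∨ wd F.KC 2 ≤ wd F.KC 0

/-! ### Lipschitz in the rewards -/

theorem cap5_wd {q : Fin 3 → ℝ} {m : ℕ} {K : Plk4} :
    cap5 q m K = K.a * K.w 2 * K.w 1 * ∏ k, (wd K k * 2 ^ m) ^ q k := by
  unfold cap5
  rw [Fin.prod_univ_three]
  rfl

/-- change of one reward -/
theorem rew_change {x R t A p p' : ℝ} (hR : 0 < R) (ht : 1 ≤ t) (hA : t ≤ (2:ℝ) ^ A)
    (hx : x = R * t) :
    x ^ p ≤ x ^ p' * R ^ (p - p') * (2:ℝ) ^ (A * |p - p'|) ∧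
      x ^ p' * R ^ (p - p') * (2:ℝ) ^ (-(A * |p - p'|)) ≤ x ^ p := by
  have ht0 : 0 < t := by linarith
  have hx0 : 0 < x := by rw [hx]; positivity
  have h2 : (0:ℝ) < 2 ^ A := by positivity
  have e1 : x ^ p = x ^ p' * (R ^ (p - p') * t ^ (p - p')) := by
    rw [← Real.mul_rpow hR.le ht0.le, ← hx, ← Real.rpow_add hx0]; congr 1; ring
  have hA0 : 0 ≤ A := by
    by_contra h
    push Not at h
    have : (2:ℝ) ^ A < 1 := Real.rpow_lt_one_of_one_lt_of_neg (by norm_num) h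
    linarith
  have k1 : t ^ (p - p') ≤ (2:ℝ) ^ (A * |p - p'|) := by
    rw [Real.rpow_mul (by norm_num)]
    calc t ^ (p - p') ≤ t ^ |p - p'| := Real.rpow_le_rpow_of_exponent_le ht (le_abs_self _)
      _ ≤ _ := Real.rpow_le_rpow ht0.le hA (abs_nonneg _)
  have k2 : (2:ℝ) ^ (-(A * |p - p'|)) ≤ t ^ (p - p') := by
    rw [Real.rpow_neg (by norm_num), inv_le_comm₀ (by positivity) (by positivity),
      ← Real.rpow_neg ht0.le, Real.rpow_mul (by norm_num)]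
    calc t ^ (-(p - p')) ≤ t ^ |p - p'| :=
          Real.rpow_le_rpow_of_exponent_le ht (neg_le_abs _)
      _ ≤ _ := Real.rpow_le_rpow ht0.le hA (abs_nonneg _)
  have hpos : 0 < x ^ p' * R ^ (p - p') := by positivity
  constructor
  · rw [e1, ← mul_assoc]
    exact mul_le_mul_of_nonneg_left k1 hpos.le
  · rw [e1, ← mul_assoc]
    exact mul_le_mul_of_nonneg_left k2 hpos.le

/-- total change of the rewards -/
def dq (q q' : Fin 3 → ℝ) : ℝ := ∑ k, |q k - q' k|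

/-- change of the rewards in the capacity, in a range of `A` dyadic levels above `R` -/
theorem cap5_change {q q' : Fin 3 → ℝ} {m : ℕ} {K : Plk4} {R : Fin 3 → ℝ} {A : ℝ}
    (hR : ∀ k, 0 < R k) (ha : 0 < K.a) (h2 : 0 < K.w 2) (h1 : 0 < K.w 1)
    (hlo : ∀ k, R k ≤ wd K k * 2 ^ m) (hhi : ∀ k, wd K k * 2 ^ m ≤ R k * (2:ℝ) ^ A) :
    cap5 q m K ≤ cap5 q' m K * (∏ k, R k ^ (q k - q' k)) * (2:ℝ) ^ (A * dq q q') ∧
      cap5 q' m K * (∏ k, R k ^ (q k - q' k)) * (2:ℝ) ^ (-(A * dq q q')) ≤ cap5 q m K := by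
  have hw : ∀ k, 0 < wd K k * 2 ^ m := by
    intro k
    have : 0 < wd K k := by fin_cases k <;> assumption
    positivity
  have key : ∀ k, (wd K k * 2 ^ m) ^ q k ≤ (wd K k * 2 ^ m) ^ q' k * R k ^ (q k - q' k) *
        (2:ℝ) ^ (A * |q k - q' k|) ∧
      (wd K k * 2 ^ m) ^ q' k * R k ^ (q k - q' k) * (2:ℝ) ^ (-(A * |q k - q' k|)) ≤
        (wd K k * 2 ^ m) ^ q k := by
    intro k
    refine rew_change (hR k) (t := wd K k * 2 ^ m / R k) ((one_le_div (hR k)).2 (hlo k)) ?_ ?_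
    · rw [div_le_iff₀ (hR k)]
      have := hhi k
      linarith
    · field_simp [(hR k).ne']
  have hc : 0 ≤ K.a * K.w 2 * K.w 1 := by positivity
  have e2 : ∀ s : ℝ, (2:ℝ) ^ (s * (A * dq q q')) = ∏ k, (2:ℝ) ^ (s * (A * |q k - q' k|)) := by
    intro s
    rw [← Real.rpow_sum_of_pos (by norm_num)]
    congr 1
    unfold dq
    rw [Finset.mul_sum, Finset.mul_sum]
  have e3 := e2 1
  have e4 := e2 (-1)
  simp only [one_mul, neg_one_mul] at e3 e4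
  rw [cap5_wd, cap5_wd, e3, e4]
  constructor
  · calc K.a * K.w 2 * K.w 1 * ∏ k, (wd K k * 2 ^ m) ^ q k
        ≤ K.a * K.w 2 * K.w 1 * ∏ k, ((wd K k * 2 ^ m) ^ q' k * R k ^ (q k - q' k) *
          (2:ℝ) ^ (A * |q k - q' k|)) := by
          refine mul_le_mul_of_nonneg_left (Finset.prod_le_prod (fun k _ => ?_)
            (fun k _ => (key k).1)) hc
          exact (Real.rpow_pos_of_pos (hw k) _).le
      _ = _ := by rw [Finset.prod_mul_distrib, Finset.prod_mul_distrib]; ring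
  · calc _ = K.a * K.w 2 * K.w 1 * ∏ k, ((wd K k * 2 ^ m) ^ q' k * R k ^ (q k - q' k) *
          (2:ℝ) ^ (-(A * |q k - q' k|))) := by
          rw [Finset.prod_mul_distrib, Finset.prod_mul_distrib]; ring
      _ ≤ _ := by
          refine mul_le_mul_of_nonneg_left (Finset.prod_le_prod (fun k _ => ?_)
            (fun k _ => (key k).2)) hc
          have := Real.rpow_pos_of_pos (hw k) (q' k)
          have := Real.rpow_pos_of_pos (hR k) (q k - q' k)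
          positivity

/-- the same configuration with other densities -/
def Cf7.setD (F : Cf7) (D0 D1 : ℝ) : Cf7 :=
  { F with D0 := D0, D1 := D1 }

/-- what is needed of the class for the change of the rewards -/
def LegPos (Leg : ℕ → ℝ → ℝ → Plk4 → Prop) : Prop :=
  ∀ m r Λm K, 0 < r → Leg m r Λm K → 0 < K.a ∧ 0 < K.w 2 ∧ 0 < K.w 1

/-- **the value of a configuration of class `C` is Lipschitz in the rewards.** -/
theorem lip7 {Leg : ℕ → ℝ → ℝ → Plk4 → Prop} (hLeg : LegPos Leg) {q q' : Fin 3 → ℝ} {F : Cf7}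
    (hF : Ok7 Leg q F) {κ C : ℝ} (hC : InC κ C F) (hκC : 0 ≤ (κ + 2) * C) (h0 : 0 < F.D0) :
    ∃ D0 D1 : ℝ, 0 < D0 ∧ Ok7 Leg q' (F.setD D0 D1) ∧ InC κ C (F.setD D0 D1) ∧
      F.toCf4.val - 2 * (((κ + 2) * C + 1) * dq q q') ≤ (F.setD D0 D1).toCf4.val := by
  obtain ⟨x0, hx0⟩ := hF.ok.ne
  have hM0 : (0:ℝ) < F.M := by exact_mod_cast hF.ok.M1
  -- the reference widths and the range
  set R : Fin 3 → ℝ := fun k => F.wr k * 2 ^ F.m with hRdef
  have hR : ∀ k, 0 < R k := fun k => mul_pos (hF.wrp k) (by positivity)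
  set A : ℝ := ((κ + 2) * C + 1) * F.M with hA
  have hrange : ∀ k, wd F.KC k ≤ F.wr k * (2:ℝ) ^ ((κ + 2) * C * F.M) := by
    intro k
    have h1 := hC.con x0 hx0 k
    have h2 := hC.low x0 hx0 k
    calc wd F.KC k ≤ F.T x0 k * (2:ℝ) ^ (C * F.M) := h1
      _ ≤ (F.wr k * (2:ℝ) ^ ((κ + 1) * C * F.M)) * (2:ℝ) ^ (C * F.M) := by gcongr
      _ = _ := by rw [mul_assoc, ← Real.rpow_add (by norm_num)]; congr 2; ring
  have hch : ∀ i, F.m ≤ i → i ≤ F.top → ∀ K, LegR Leg F.wr (wd F.KC) i F.r F.Λm K →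
      cap5 q i K ≤ cap5 q' i K * (∏ k, R k ^ (q k - q' k)) * (2:ℝ) ^ (A * dq q q') ∧
      cap5 q' i K * (∏ k, R k ^ (q k - q' k)) * (2:ℝ) ^ (-(A * dq q q')) ≤ cap5 q i K := by
    intro i hi1 hi2 K hK
    obtain ⟨pa, p2, p1⟩ := hLeg _ _ _ _ hF.ok.r0 hK.1
    have hwp : ∀ k, 0 ≤ wd K k := fun k => (hF.wrp k).le.trans (hK.2 k).1
    refine cap5_change hR pa p2 p1 (fun k => ?_) (fun k => ?_)
    · have e1 : (2:ℝ) ^ F.m ≤ 2 ^ i := pow_le_pow_right₀ (by norm_num) hi1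
      exact mul_le_mul (hK.2 k).1 e1 (by positivity) (hwp k)
    · have e1 : (2:ℝ) ^ i ≤ 2 ^ F.m * (2:ℝ) ^ (F.M : ℝ) := by
        rw [Real.rpow_natCast, ← pow_add]
        exact pow_le_pow_right₀ (by norm_num) hi2
      calc wd K k * 2 ^ i ≤ (F.wr k * (2:ℝ) ^ ((κ + 2) * C * F.M)) *
            (2 ^ F.m * (2:ℝ) ^ (F.M : ℝ)) :=
            mul_le_mul ((hK.2 k).2.trans (hrange k)) e1 (by positivity)
              ((hwp k).trans ((hK.2 k).2.trans (hrange k)))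
        _ = R k * ((2:ℝ) ^ ((κ + 2) * C * F.M) * (2:ℝ) ^ (F.M : ℝ)) := by rw [hRdef]; ring
        _ = R k * (2:ℝ) ^ A := by
          rw [← Real.rpow_add (by norm_num)]; congr 2; rw [hA]; ring
  set P : ℝ := ∏ k, R k ^ (q k - q' k) with hP
  have hPp : 0 < P := Finset.prod_pos fun k _ => Real.rpow_pos_of_pos (hR k) _
  set E : ℝ := (2:ℝ) ^ (A * dq q q') with hE
  have hEp : 0 < E := by positivity
  have hEn : (2:ℝ) ^ (-(A * dq q q')) = E⁻¹ := by rw [Real.rpow_neg (by norm_num)]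
  have hD1 := hF.ok.D1p
  refine ⟨F.D0 * P * E, F.D1 * P * E⁻¹, by positivity, ⟨?_, hF.conL, hF.con, hF.wrp⟩,
    ⟨hC.con, hC.mar, hC.low, hC.thk⟩, ?_⟩
  · refine ⟨⟨hF.ok.M1, hF.ok.r0, hF.ok.rle, hF.ok.Λ1, hF.ok.ne, hF.ok.cell, ?_, hF.ok.legal,
      hF.ok.mem, ?_, ?_⟩, hF.ok.h20, hF.ok.hM, ?_, hF.ok.own⟩
    · show 0 < F.D1 * P * E⁻¹
      positivity
    · intro x hx
      show F.D1 * P * E⁻¹ * cap5 q' F.top (F.K (F.cl (ob4 F.top x))) ≤ ((F.cls x).card : ℝ)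
      have h1 := hF.ok.low x hx
      obtain ⟨-, h2⟩ := hch F.top (Nat.le_add_right _ _) le_rfl _ (hF.ok.legal x hx)
      rw [hEn] at h2
      refine le_trans ?_ h1
      calc F.D1 * P * E⁻¹ * cap5 q' F.top (F.K (F.cl (ob4 F.top x)))
          = F.D1 * (cap5 q' F.top (F.K (F.cl (ob4 F.top x))) * P * E⁻¹) := by ring
        _ ≤ _ := mul_le_mul_of_nonneg_left h2 hD1.le
    · intro K hK
      show ((objs4 F.m F.I K).card : ℝ) ≤ F.D0 * P * E * cap5 q' F.m K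
      have h1 := hF.ok.up K hK
      obtain ⟨h2, -⟩ := hch F.m le_rfl (Nat.le_add_right _ _) _ hK
      calc ((objs4 F.m F.I K).card : ℝ) ≤ F.D0 * cap5 q F.m K := h1
        _ ≤ F.D0 * (cap5 q' F.m K * P * E) := mul_le_mul_of_nonneg_left h2 h0.le
        _ = _ := by ring
    · intro i hi1 hi2 K hK
      show ((objs4 i F.I K).card : ℝ) ≤ F.D0 * P * E * cap5 q' i K
      have h1 := hF.ok.ups i hi1 hi2 K hK
      have hi3 : i ≤ F.top := by
        have := hF.ok.hM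
        have hi2' : i ≤ F.m + F.h := hi2
        unfold Cf4.top
        omega
      obtain ⟨h2, -⟩ := hch i hi1 hi3 _ hK
      calc ((objs4 i F.I K).card : ℝ) ≤ F.D0 * cap5 q i K := h1
        _ ≤ F.D0 * (cap5 q' i K * P * E) := mul_le_mul_of_nonneg_left h2 h0.le
        _ = _ := by ring
  · show Real.logb 2 (F.D1 / F.D0) / F.M - 2 * (((κ + 2) * C + 1) * dq q q') ≤
      Real.logb 2 ((F.D1 * P * E⁻¹) / (F.D0 * P * E)) / F.M
    have e1 : (F.D1 * P * E⁻¹) / (F.D0 * P * E) = (F.D1 / F.D0) * (E⁻¹ * E⁻¹) := by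
      field_simp
    have e2 : Real.logb 2 (E⁻¹ * E⁻¹) = -(2 * (A * dq q q')) := by
      rw [← hEn, ← Real.rpow_add (by norm_num), Real.logb_rpow (by norm_num) (by norm_num)]
      ring
    rw [e1, Real.logb_mul (by positivity) (by positivity), e2, hA, add_div]
    have e3 : -(2 * ((((κ + 2) * C + 1) * F.M) * dq q q')) / (F.M : ℝ) =
        -(2 * (((κ + 2) * C + 1) * dq q q')) := by
      field_simp
    rw [e3]
    linarith


/-! ### the enemy -/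

/-- what the enemy needs from the class -/
structure ClsOK7 (Leg : ℕ → ℝ → ℝ → Plk4 → Prop) (κ : ℕ) : Prop extends ClsOK6 Leg κ where
  unit : ∀ r Λm, 0 < r → r ≤ 1 → 1 ≤ Λm → Leg 0 r Λm (cubeK 1 ((⟨0, 0⟩ : Ln4), (0:ℤ)))

theorem clsOK7_N : ClsOK7 LegN 2 where
  toClsOK6 := clsOK6_N
  unit := by
    intro r Λm _ hr1 _
    have h := clsOK6_N.cube 0 1 1 ((⟨0, 0⟩ : Ln4), (0:ℤ)) one_pos le_rfl (by norm_num)
    exact ⟨{ h.1 with r0_le := hr1.trans h.1.r0_le }, h.2⟩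

theorem legPos_N : LegPos LegN := by
  intro m r Λm K hr h
  obtain ⟨h1, h2, h3, -⟩ := clsOK6_N.width _ _ _ _ hr h
  exact ⟨hr.trans_le h1, (hr.trans_le h1).trans_le h2,
    ((hr.trans_le h1).trans_le h2).trans_le h3⟩

open Classical in
/-- **configuration of a raw grid family**, general class, `h` coarse levels -/
theorem exists_cf7 {Leg : ℕ → ℝ → ℝ → Plk4 → Prop} {κ : ℕ} (hL : ClsOK7 Leg κ)
    {b0 η : ℝ} {N M : ℕ} {s : Finset GLine4} {I : Finset (GLine4 × ℤ)} {μ : ℝ}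
    (h : Raw b0 η N M s I μ) (q : Fin 3 → ℝ) {Λm : ℝ} (hΛ : 1 ≤ Λm) {g : ℕ} (hg : 20 ≤ g)
    (hgM : g ≤ M) (hgη : η * M + 25 ≤ g)
    {wr : Fin 3 → ℝ} (hwr : ∀ k, 0 < wr k ∧ wr k ≤ 1 / 2 ^ M) :
    ∃ F : Cf7, Ok7 Leg q F ∧ F.wr = wr ∧ (∀ k, wd F.KC k = 1) ∧ (∀ x k, F.T x k = 1 / 2 ^ M) ∧ F.m = 0 ∧ F.M = M ∧ F.r = 1 / 2 ^ M ∧ F.Λm = Λm ∧ F.h = g ∧
      (F.I.card : ℝ) ≤ 2 ^ (5 * M) ∧ F.D1 = μ * 8 ^ M ∧
      F.D0 = 128000000 * ((M : ℝ) + 2 * κ + g + 6) ^ 2 * 8 ^ (M + κ + g) *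
        (2:ℝ) ^ (qs q * (M + κ)) ∧
      (∀ x ∈ F.I, 1 / 4 ≤ x.2 ∧ x.2 ≤ 3 / 4) ∧
      (∀ x ∈ F.I, ∀ y ∈ F.I, ob4 M x = ob4 M y → x = y) ∧
      (∀ x ∈ F.I, ∀ i, |x.1.v i| ≤ 1 / 16 ∧ |x.1.p i| ≤ 3 / 64) := by
  have hN := h.N1
  have hN0 : (0:ℝ) < N := by exact_mod_cast hN
  obtain ⟨J, cl, ctr, hne, hcard, hcard5, hz, hz0, hinj, hvel, hmem, hmul, hown, hsep⟩ :=
    grid_cf6 h
  have hμ : 0 < μ := lt_of_lt_of_le (by positivity) h.big
  have hp : (0:ℝ) < 2 ^ M := by positivity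
  have hr : (0:ℝ) < 1 / 2 ^ M := by positivity
  have htop : (0 + M) = M := by omega
  have hups : ∀ i, i ≤ g → ∀ K, Leg i (1 / 2 ^ M) Λm K → ((objs4 i J K).card : ℝ) ≤
      128000000 * ((M : ℝ) + 2 * κ + g + 6) ^ 2 * 8 ^ (M + κ + g) *
        (2:ℝ) ^ (qs q * (M + κ)) * cap5 q i K := by
    intro i hi K hK
    obtain ⟨ha, h2, h1, hw⟩ := hL.width _ _ _ _ hr hK
    have pa : 0 < K.a := hr.trans_le ha
    have p2 : 0 < K.w 2 := pa.trans_le h2
    have p1 : 0 < K.w 1 := p2.trans_le h1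
    have q1 : (1:ℝ) ≤ 2 ^ i := one_le_pow₀ (by norm_num)
    have hw' : K.w 1 ≤ 2 ^ κ := by nlinarith
    have h3 := kr_cell6 J hsep (hL.sheet _ _ _ _ hr hK) hw'
    have ha' : 1 / 2 ^ M ≤ K.a * 2 ^ i := by nlinarith
    have h2' : K.a * 2 ^ i ≤ K.w 2 * 2 ^ i := by gcongr
    have h1' : K.w 2 * 2 ^ i ≤ K.w 1 * 2 ^ i := by gcongr
    have g0 := width_rpow (p := q 0) ha' ((h2'.trans h1').trans hw)
    have g1 := width_rpow (p := q 1) ((ha'.trans h2').trans h1') hw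
    have g2 := width_rpow (p := q 2) (ha'.trans h2') (h1'.trans hw)
    have e : (2:ℝ) ^ (qs q * ((M:ℝ) + κ)) = 2 ^ (|q 0| * ((M:ℝ) + κ)) *
        2 ^ (|q 1| * ((M:ℝ) + κ)) * 2 ^ (|q 2| * ((M:ℝ) + κ)) := by
      rw [← Real.rpow_add (by norm_num), ← Real.rpow_add (by norm_num)]
      congr 1; unfold qs; ring
    have hrew : 1 ≤ (2:ℝ) ^ (qs q * ((M:ℝ) + κ)) *
        ((K.a * 2 ^ i) ^ q 0 * (K.w 1 * 2 ^ i) ^ q 1 * (K.w 2 * 2 ^ i) ^ q 2) := by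
      rw [e]
      calc (1:ℝ) ≤ (2 ^ (|q 0| * ((M:ℝ) + κ)) * (K.a * 2 ^ i) ^ q 0) *
            (2 ^ (|q 1| * ((M:ℝ) + κ)) * (K.w 1 * 2 ^ i) ^ q 1) *
            (2 ^ (|q 2| * ((M:ℝ) + κ)) * (K.w 2 * 2 ^ i) ^ q 2) :=
            one_le_mul_of_one_le_of_one_le (one_le_mul_of_one_le_of_one_le g0 g1) g2
        _ = _ := by ring
    have hir : (i:ℝ) ≤ g := by exact_mod_cast hi
    have h4 : 128000000 * ((M : ℝ) + 2 * κ + i + 6) ^ 2 * 8 ^ (M + κ + i) *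
        (K.a * K.w 2 * K.w 1) ≤
        128000000 * ((M : ℝ) + 2 * κ + g + 6) ^ 2 * 8 ^ (M + κ + g) *
        (K.a * K.w 2 * K.w 1) := by
      have : (8:ℝ) ^ (M + κ + i) ≤ 8 ^ (M + κ + g) :=
        pow_le_pow_right₀ (by norm_num) (by omega)
      gcongr
    refine h3.trans (h4.trans ?_)
    unfold cap5
    have h5 : 0 ≤ 128000000 * ((M : ℝ) + 2 * κ + g + 6) ^ 2 * 8 ^ (M + κ + g) *
        (K.a * K.w 2 * K.w 1) := by positivity
    calc 128000000 * ((M : ℝ) + 2 * κ + g + 6) ^ 2 * 8 ^ (M + κ + g) * (K.a * K.w 2 * K.w 1)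
        ≤ 128000000 * ((M : ℝ) + 2 * κ + g + 6) ^ 2 * 8 ^ (M + κ + g) *
          (K.a * K.w 2 * K.w 1) *
          ((2:ℝ) ^ (qs q * (M + κ)) * ((K.a * 2 ^ i) ^ q 0 * (K.w 1 * 2 ^ i) ^ q 1 *
            (K.w 2 * 2 ^ i) ^ q 2)) := le_mul_of_one_le_right h5 hrew
      _ = _ := by ring
  have hKC : ∀ k, wd (cubeK 1 ((⟨0, 0⟩ : Ln4), (0:ℤ))) k = 1 := by
    intro k; fin_cases k <;> rfl
  have hT : ∀ (x : Ln4 × ℝ) (k : Fin 3), wd (cubeK (1 / 2 ^ M) (ctr (cl (ob4 (0 + M) x)))) k =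
      1 / 2 ^ M := by
    intro x k; fin_cases k <;> rfl
  refine ⟨⟨⟨⟨0, M, 1 / 2 ^ M, Λm, J, cl, fun n => cubeK (1 / 2 ^ M) (ctr n),
    128000000 * ((M : ℝ) + 2 * κ + g + 6) ^ 2 * 8 ^ (M + κ + g) * (2:ℝ) ^ (qs q * (M + κ)),
    μ * 8 ^ M⟩, g⟩, cubeK 1 (⟨0, 0⟩, 0), wr⟩, ?_, rfl, hKC, hT, rfl, rfl, rfl, rfl, rfl, hcard5,
    rfl, rfl, hz, hinj, hvel⟩
  have hM1 : (1:ℝ) / 2 ^ M ≤ 1 := by
    rw [div_le_one hp]; exact one_le_pow₀ (by norm_num)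
  refine ⟨⟨⟨h.M1, by positivity, ?_, hΛ, hne, ?_, by positivity, ?_, ?_, ?_, ?_⟩, hg, hgM, ?_, ?_⟩,
    hL.unit _ _ hr hM1 hΛ, ?_, fun k => (hwr k).1⟩
  · show (1:ℝ) / 2 ^ M ≤ 1 / 2 ^ (0 + M); rw [htop]
  · intro x hx y hy
    show zc4 0 x.2 = zc4 0 y.2
    rw [hz0 x hx, hz0 y hy]
  · intro x hx
    refine ⟨hL.cube _ _ _ _ hr hΛ (by show (1:ℝ) / 2 ^ M ≤ 1 / 2 ^ (0 + M); rw [htop]),
      fun k => ?_⟩
    have h1 := hT x k
    have h2 := hKC k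
    constructor
    · show wr k ≤ wd (cubeK (1 / 2 ^ M) (ctr (cl (ob4 (0 + M) x)))) k
      rw [h1]
      exact (hwr k).2
    · show wd (cubeK (1 / 2 ^ M) (ctr (cl (ob4 (0 + M) x)))) k ≤
        wd (cubeK 1 ((⟨0, 0⟩ : Ln4), (0:ℤ))) k
      rw [h1, h2]
      exact hM1
  · intro x hx
    show In4 (0 + M) (cubeK (1 / 2 ^ M) (ctr (cl (ob4 (0 + M) x)))) (ob4 (0 + M) x)
    rw [htop]
    exact hmem x hx
  · intro x hx
    show μ * 8 ^ M * cap5 q (0 + M) (cubeK (1 / 2 ^ M) (ctr (cl (ob4 (0 + M) x)))) ≤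
      (((J.image (ob4 (0 + M))).filter fun o => cl o = cl (ob4 (0 + M) x)).card : ℝ)
    rw [htop, cap5_cube]
    have e2 : μ * 8 ^ M * (1 / 8 ^ M) = μ := by field_simp
    rw [e2]
    exact hmul x hx
  · intro K hK
    exact hups 0 (Nat.zero_le _) K hK.1
  · intro i _ hi K hK
    exact hups i (by simpa using hi) K hK.1
  · intro x hx
    show 2 ^ (M + 20) ≤ 2 ^ g * ownc4 0 (0 + M) J x
    rw [htop]
    have h1 := hown x hx
    have hle : (((J.filter fun y => y.1 = x.1).image (ob4 M)).card : ℝ) ≤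
        (ownc4 0 M J x : ℝ) := by
      unfold ownc4
      have hsub : (J.filter fun y => y.1 = x.1) ⊆ (J.filter fun y => ob4 0 y = ob4 0 x) := by
        intro y hy
        rw [mem_filter] at hy ⊢
        refine ⟨hy.1, ?_⟩
        unfold ob4
        rw [hy.2, hz0 y hy.1, hz0 x hx]
      exact_mod_cast card_le_card (image_subset_image (f := ob4 M) hsub)
    have h2 : (2:ℝ) ^ ((M:ℝ) + 20) ≤ (2:ℝ) ^ (g:ℝ) * (ownc4 0 M J x : ℝ) := by
      have h3 : (2:ℝ) ^ ((1 - η) * M) ≤ 2 ^ (5:ℝ) * (ownc4 0 M J x : ℝ) := by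
        have : (2:ℝ) ^ (5:ℝ) = 32 := by norm_num
        rw [this]; linarith
      have h4 : (2:ℝ) ^ ((M:ℝ) + 20) ≤ (2:ℝ) ^ ((1 - η) * M) * 2 ^ ((g:ℝ) - 5) := by
        rw [← Real.rpow_add (by norm_num)]
        exact Real.rpow_le_rpow_of_exponent_le (by norm_num) (by linarith)
      have h5 : (0:ℝ) < (2:ℝ) ^ ((g:ℝ) - 5) := by positivity
      calc (2:ℝ) ^ ((M:ℝ) + 20) ≤ (2:ℝ) ^ ((1 - η) * M) * 2 ^ ((g:ℝ) - 5) := h4
        _ ≤ (2 ^ (5:ℝ) * (ownc4 0 M J x : ℝ)) * 2 ^ ((g:ℝ) - 5) := by gcongr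
        _ = (2 ^ (5:ℝ) * 2 ^ ((g:ℝ) - 5)) * (ownc4 0 M J x : ℝ) := by ring
        _ = _ := by rw [← Real.rpow_add (by norm_num)]; congr 2; ring
    have h6 : (2:ℝ) ^ ((M:ℝ) + 20) = ((2 ^ (M + 20) : ℕ) : ℝ) := by
      push_cast
      rw [← Real.rpow_natCast]; congr 1; push_cast; ring
    rw [h6, Real.rpow_natCast] at h2
    exact_mod_cast h2
  · -- all lines are in the container
    intro x hx
    refine ⟨?_, ?_⟩
    · show zc4 0 x.2 = 0
      exact hz0 x hx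
    · intro z hz1 hz2
      have hz1' : 0 ≤ z := by simpa [cubeK] using hz1
      have hz2' : z ≤ 1 := by simpa [cubeK] using hz2
      have hb : ∀ i, |x.1.pos z i| ≤ 1 := by
        intro i
        obtain ⟨b1, b2⟩ := hvel x hx i
        have : |z * x.1.v i| ≤ 1 / 16 := by
          rw [abs_mul, abs_of_nonneg hz1']
          have := abs_nonneg (x.1.v i)
          nlinarith
        calc |x.1.p i + z * x.1.v i| ≤ |x.1.p i| + |z * x.1.v i| := abs_add_le _ _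
          _ ≤ 1 := by linarith
      have hpos0 : ∀ i, (⟨0, 0⟩ : Ln4).pos z i = 0 := by intro i; simp [Ln4.pos]
      constructor
      · intro i
        show |dt (stdE i) (x.1.pos z - (⟨0, 0⟩ : Ln4).pos z)| ≤ (![1, 1, 1] : V3) i
        rw [dt_std, Pi.sub_apply, hpos0, sub_zero]
        refine (hb i).trans (le_of_eq ?_)
        fin_cases i <;> rfl
      · show |x.1.pos z 0 - (⟨0, 0⟩ : Ln4).pos z 0| ≤ 1
        rw [hpos0, sub_zero]
        exact hb 0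


set_option maxHeartbeats 800000 in
/-- **ENEMY**, general class, three rewards of any sign, `h` coarse levels. -/
theorem enemy7 (h : ¬ KS4) {Leg : ℕ → ℝ → ℝ → Plk4 → Prop} {κ : ℕ} (hL : ClsOK7 Leg κ) :
    ∃ b0 : ℝ, 0 < b0 ∧ ∀ q : Fin 3 → ℝ,
    ∀ δ : ℝ, 0 < δ → ∀ (M0 : ℕ) (κ' C' : ℝ), 0 ≤ κ' → 1 ≤ C' →
    ∃ F : Cf7, Ok7 Leg q F ∧ InC κ' C' F ∧ Adm6 δ F.toCf6 ∧ M0 ≤ F.M ∧ F.m = 0 ∧
      F.r = 1 / 2 ^ F.M ∧ (F.I.card : ℝ) ≤ 2 ^ (5 * F.M) ∧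
      (∀ x ∈ F.I, 1 / 4 ≤ x.2 ∧ x.2 ≤ 3 / 4) ∧
      (∀ x ∈ F.I, ∀ y ∈ F.I, ob4 F.M x = ob4 F.M y → x = y) ∧
      (∀ x ∈ F.I, ∀ i, |x.1.v i| ≤ 1 / 16 ∧ |x.1.p i| ≤ 3 / 64) ∧
      b0 - qs q ≤ F.toCf4.val := by
  obtain ⟨b0, hb0, hraw⟩ := enemy_raw h
  refine ⟨b0 / 4, by linarith, fun q δ0 hδ0 M0 κ' C' hκ' hC' => ?_⟩
  have hqs : 0 ≤ qs q := by unfold qs; positivity
  -- the effective `δ`
  obtain ⟨δ, hδ, hδδ, hδ1, hδb⟩ : ∃ δ : ℝ, 0 < δ ∧ δ ≤ δ0 ∧ δ ≤ 1 ∧ 3 * δ ≤ b0 / 4 :=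
    ⟨min δ0 (min 1 (b0 / 12)), by positivity, min_le_left _ _,
      (min_le_right _ _).trans (min_le_left _ _), by
        have := (min_le_right δ0 (min 1 (b0 / 12))).trans (min_le_right _ _)
        linarith⟩
  -- all constants
  set C : ℝ := 128000000 * (2 + 2 * (κ:ℝ)) ^ 2 * 8 ^ κ * (2:ℝ) ^ (qs q * κ) with hC
  have hCp : 0 < C := by positivity
  have ev := ((poly_small (32 + 5) (by norm_num) (by positivity : 0 < δ / 2)).and
    ((poly_small C hCp (by positivity : 0 < b0 / 2)).and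
      ((Filter.eventually_ge_atTop M0).and
        (Filter.eventually_ge_atTop ⌈60 / δ⌉₊)))).exists_forall_of_atTop
  obtain ⟨M1, hM1⟩ := ev
  obtain ⟨N, M, s, I, μ, hMM, hR⟩ := hraw (δ / 2) (by positivity) M1
  obtain ⟨k1, k2, k3, k4⟩ := hM1 M hMM
  have hMr : (1:ℝ) ≤ M := by exact_mod_cast hR.M1
  have hM0 : (0:ℝ) < M := by linarith
  have hΛ : (1:ℝ) ≤ (2:ℝ) ^ (δ * M) := Real.one_le_rpow (by norm_num) (by positivity)
  have hk4 : 60 ≤ δ * M := by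
    have h1 : (60 / δ : ℝ) ≤ M := (Nat.le_ceil _).trans (by exact_mod_cast k4)
    rw [div_le_iff₀ hδ] at h1; linarith
  set g : ℕ := ⌊δ * M⌋₊ with hg
  have g1 : (g:ℝ) ≤ δ * M := Nat.floor_le (by positivity)
  have g2 : δ * M - 1 ≤ g := by have := Nat.lt_floor_add_one (δ * M); rw [← hg] at this; linarith
  have g20 : 20 ≤ g := by
    have : (20:ℝ) ≤ g := by linarith
    exact_mod_cast this
  have gM : g ≤ M := by
    have : (g:ℝ) ≤ M := g1.trans (by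
      calc δ * (M:ℝ) ≤ 1 * M := mul_le_mul_of_nonneg_right hδ1 hM0.le
        _ = M := one_mul _)
    exact_mod_cast this
  have hp2 : (0:ℝ) < 2 ^ M := by positivity
  have hκC : 0 ≤ κ' * C' := by positivity
  obtain ⟨F, hF, hFwr, hFKC, hFT, hm, hM, hr, hΛm, hh, hcard, hD1, hD0, hz, hinj, hvel⟩ :=
    exists_cf7 hL hR q hΛ g20 gM (by linarith)
      (wr := fun k => if k = 0 then 1 / 2 ^ M else 1 / 2 ^ M * (2:ℝ) ^ (-(κ' * C' * M)))
      (fun k => by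
        by_cases hk : k = 0
        · simp only [hk, if_true]; exact ⟨by positivity, le_rfl⟩
        · simp only [hk, if_false]
          refine ⟨by positivity, mul_le_of_le_one_right (by positivity) ?_⟩
          exact Real.rpow_le_one_of_one_le_of_nonpos (by norm_num) (by
            have : 0 ≤ κ' * C' * M := by positivity
            linarith))
  have hinC : InC κ' C' F := by
    have hMC : (2:ℝ) ^ (M : ℝ) ≤ (2:ℝ) ^ (C' * M) :=
      Real.rpow_le_rpow_of_exponent_le (by norm_num) (by nlinarith)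
    refine ⟨?_, ?_, ?_, ?_⟩
    · intro x _ k
      rw [hFKC, hFT, hM]
      rw [Real.rpow_natCast] at hMC
      rw [div_mul_eq_mul_div, one_mul, le_div_iff₀ hp2, one_mul]
      exact hMC
    · intro x _ k hk
      rw [hFT, hFwr, hM]
      simp only [hk, if_false]
      rw [mul_assoc, ← Real.rpow_add (by norm_num)]
      have e0 : -(κ' * C' * (M:ℝ)) + κ' * C' * M = 0 := by ring
      rw [e0, Real.rpow_zero, mul_one]
    · intro x _ k
      rw [hFT, hFwr, hM]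
      by_cases hk : k = 0
      · simp only [hk, if_true]
        refine le_mul_of_one_le_right (by positivity) ?_
        exact Real.one_le_rpow (by norm_num) (by positivity)
      · simp only [hk, if_false]
        rw [mul_assoc, ← Real.rpow_add (by norm_num)]
        refine le_mul_of_one_le_right (by positivity) ?_
        refine Real.one_le_rpow (by norm_num) ?_
        have : 0 ≤ C' * (M:ℝ) := by positivity
        nlinarith
    · intro x _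
      right
      rw [hFKC, hFKC]
  have hbig : (37:ℝ) * (M + 6) ≤ (2:ℝ) ^ (δ / 2 * M) := by
    refine le_trans ?_ k1
    have : (M:ℝ) + 6 ≤ (M + 6) ^ 2 := by nlinarith
    nlinarith
  have hmono : (2:ℝ) ^ (δ / 2 * M) ≤ (2:ℝ) ^ (δ * M) :=
    Real.rpow_le_rpow_of_exponent_le (by norm_num) (by nlinarith)
  have h5M : (5:ℝ) * M ≤ (2:ℝ) ^ (δ * M) := by
    refine le_trans ?_ (hbig.trans hmono); linarith
  have hadm : Adm6 δ F.toCf6 := by
    refine ⟨?_, ?_, ?_, ?_, ?_⟩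
    · rw [hh, hM]; exact g1
    · -- size
      rw [hM]
      have hne : (0:ℝ) < F.I.card := by exact_mod_cast card_pos.2 hF.ok.ne
      calc Real.logb 2 (F.I.card : ℝ) ≤ Real.logb 2 (2 ^ (5 * M)) :=
            Real.logb_le_logb_of_le one_lt_two hne hcard
        _ = 5 * M := by
          rw [Real.logb_pow, Real.logb_self_eq_one one_lt_two, mul_one]; push_cast; ring
        _ ≤ _ := h5M
    · -- resolution
      rw [hM, hr, hm, pow_zero, mul_one, one_div_one_div, Real.logb_pow,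
        Real.logb_self_eq_one one_lt_two, mul_one]
      linarith
    · rw [hM, hΛm]
    · intro x hx i
      have := (hvel x hx i).1
      linarith
  refine ⟨F, hF, hinC, hadm.mono hδδ, by rw [hM]; exact k3, hm, by rw [hr, hM],
    by rw [hM]; exact hcard, hz, by rw [hM]; exact hinj, hvel, ?_⟩
  -- value
  unfold Cf4.val
  rw [hD1, hD0, hM, le_div_iff₀ hM0]
  have hμ : (0:ℝ) < (2:ℝ) ^ (b0 * M) := by positivity
  have e1 : (2:ℝ) ^ ((b0 / 4 - qs q) * M) ≤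
      μ * 8 ^ M / (128000000 * ((M : ℝ) + 2 * κ + g + 6) ^ 2 * 8 ^ (M + κ + g) *
        (2:ℝ) ^ (qs q * (M + κ))) := by
    rw [le_div_iff₀ (by positivity)]
    have h8 : (0:ℝ) < 8 ^ M := by positivity
    have hgr : (g:ℝ) ≤ M := by exact_mod_cast gM
    have hκ : (M:ℝ) + 2 * κ + g + 6 ≤ (2 + 2 * κ) * (M + 6) := by
      have h1 : (0:ℝ) ≤ κ := Nat.cast_nonneg κ
      have h2 : (0:ℝ) ≤ κ * M := by positivity
      have e : (2 + 2 * (κ:ℝ)) * (M + 6) = 2 * M + 12 + 2 * (κ * M) + 12 * κ := by ring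
      rw [e]; linarith
    have h8g : (8:ℝ) ^ g ≤ (2:ℝ) ^ (b0 / 4 * M) := by
      have e5 : (8:ℝ) ^ g = (2:ℝ) ^ (3 * (g:ℝ)) := by
        rw [Real.rpow_mul (by norm_num)]; norm_num
      rw [e5]
      refine Real.rpow_le_rpow_of_exponent_le (by norm_num) ?_
      calc 3 * (g:ℝ) ≤ 3 * (δ * M) := by linarith
        _ = (3 * δ) * M := by ring
        _ ≤ b0 / 4 * M := mul_le_mul_of_nonneg_right hδb hM0.le
    have h9 : 128000000 * ((M : ℝ) + 2 * κ + g + 6) ^ 2 * 8 ^ (M + κ + g) *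
        (2:ℝ) ^ (qs q * (M + κ)) ≤
        (C * ((M:ℝ) + 6) ^ 2) * ((2:ℝ) ^ (b0 / 4 * M) * 8 ^ M * (2:ℝ) ^ (qs q * M)) := by
      have e3 : (2:ℝ) ^ (qs q * ((M:ℝ) + κ)) = 2 ^ (qs q * M) * 2 ^ (qs q * κ) := by
        rw [← Real.rpow_add (by norm_num)]; congr 1; ring
      rw [e3, pow_add, pow_add]
      have e4 : ((M : ℝ) + 2 * κ + g + 6) ^ 2 ≤ ((2 + 2 * κ) * (M + 6)) ^ 2 :=
        pow_le_pow_left₀ (by positivity) hκ 2
      calc 128000000 * ((M : ℝ) + 2 * κ + g + 6) ^ 2 * (8 ^ M * 8 ^ κ * 8 ^ g) *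
            ((2:ℝ) ^ (qs q * M) * 2 ^ (qs q * κ))
          ≤ 128000000 * ((2 + 2 * κ) * ((M:ℝ) + 6)) ^ 2 *
            (8 ^ M * 8 ^ κ * (2:ℝ) ^ (b0 / 4 * M)) *
            ((2:ℝ) ^ (qs q * M) * 2 ^ (qs q * κ)) := by gcongr
        _ = _ := by rw [hC]; ring
    calc (2:ℝ) ^ ((b0 / 4 - qs q) * M) *
          (128000000 * ((M : ℝ) + 2 * κ + g + 6) ^ 2 * 8 ^ (M + κ + g) *
            (2:ℝ) ^ (qs q * (M + κ)))
        ≤ (2:ℝ) ^ ((b0 / 4 - qs q) * M) *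
          ((C * ((M:ℝ) + 6) ^ 2) * ((2:ℝ) ^ (b0 / 4 * M) * 8 ^ M * (2:ℝ) ^ (qs q * M))) := by
            gcongr
      _ = ((2:ℝ) ^ ((b0 / 4 - qs q) * M) * (2:ℝ) ^ (qs q * M)) * (2:ℝ) ^ (b0 / 4 * M) *
          (C * ((M : ℝ) + 6) ^ 2) * 8 ^ M := by ring
      _ = (2:ℝ) ^ (b0 / 2 * M) * (C * ((M : ℝ) + 6) ^ 2) * 8 ^ M := by
        rw [← Real.rpow_add (by norm_num), ← Real.rpow_add (by norm_num)]; congr 3; ring
      _ ≤ (2:ℝ) ^ (b0 / 2 * M) * (2:ℝ) ^ (b0 / 2 * M) * 8 ^ M := by gcongr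
      _ = (2:ℝ) ^ (b0 * M) * 8 ^ M := by
        rw [← Real.rpow_add (by norm_num)]; congr 2; ring
      _ ≤ μ * 8 ^ M := by
        have := hR.big
        gcongr
  have e2 := Real.logb_le_logb_of_le one_lt_two (by positivity) e1
  rw [Real.logb_rpow (by norm_num) (by norm_num)] at e2
  linarith

end

end Crest.Agent.R136.K4
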