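import Crest.Agent.R136.Cod2_289
import Crest.Agent.R136.KDef7_879

/-!
# R136 (U4): the supremum bound on codes with a range relation (helper289)

* `LegX Leg R j w` : legality together with the range relation `R` to the widths `w` of level `j`;
* `fin_boundR`     : `fin_bound` for an arbitrary relation;
* `ValR`, `ubw_ofR` : `UBw G R`; `ubd_ofR` : `UBd` for an arbitrary range;
* `ok6_legX`       : passage to fewer test sets.
-/

set_option autoImplicit false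
set_option linter.unusedVariables false

open Finset Filter Topology

namespace Crest.Agent.R136.Cod289

open Sh605 K4 KS879 En879 XA248
open Crest.Agent.R138.Ex926 (Base U)
open Crest.Agent.R138.Mk163 (zc zl rho alive own)
open Crest.Agent.R138.MkRef627 (mem_alive)
open MkA627 (Geo)

noncomputable section

/-- legality together with the range relation `R` to the widths `w` of level `j` -/
def LegX (Leg : ℕ → ℝ → ℝ → Plk4 → Prop) (R : Rel (Fin 3)) (j : ℕ) (w : Fin 3 → ℝ) (l : ℕ)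
    (r Λ : ℝ) (K : Plk4) : Prop :=
  Leg l r Λ K ∧ R l (wd K) j w

/-- the geometry with fewer admissible test sets -/
def cutG (G : Geo Plk4 (Fin 3)) (T : ℕ → Plk4 → Prop) : Geo Plk4 (Fin 3) where
  mem := G.mem
  adm := fun n l J s => G.adm n l J s ∧ T l s
  val := G.val
  wid := G.wid

theorem GeoOf.wv_eq {G : Geo Plk4 (Fin 3)} {ℓ : ℕ → Ln4} {q : Fin 3 → ℝ} {n : ℕ}
    {Lg : ℕ → Plk4 → Prop} (hG : GeoOf G ℓ q n Lg) (s : Plk4) : wv G s = wd s := by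
  funext k
  exact hG.wid k s

theorem wd_atJ (J : ℤ) (s : Plk4) : wd (atJ J s) = wd s := rfl

theorem GeoOf.cut {G : Geo Plk4 (Fin 3)} {ℓ : ℕ → Ln4} {q : Fin 3 → ℝ} {n : ℕ}
    {Lg : ℕ → Plk4 → Prop} (hG : GeoOf G ℓ q n Lg) (R : Rel (Fin 3)) (j : ℕ) (w : Fin 3 → ℝ) :
    GeoOf (cutG G fun l s => R l (wd s) j w) ℓ q n fun l K => Lg l K ∧ R l (wd K) j w where
  mem := hG.mem
  adm := by
    intro i J s
    show G.adm n i J s ∧ R i (wd s) j w ↔ Lg i (atJ J s) ∧ R i (wd (atJ J s)) j w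
    rw [hG.adm, wd_atJ]
  val := hG.val
  wid := hG.wid

section

variable {G : Geo Plk4 (Fin 3)} {ℓ : ℕ → ℕ → Ln4} {I : ℕ → Finset (ℕ × ℝ)}
  {Leg : ℕ → ℕ → ℝ → ℝ → Plk4 → Prop} {r Λ : ℕ → ℝ} {lo hi : ℕ → ℕ} {q : Fin 3 → ℝ}

/-- the finite bound, range relation `R` -/
theorem fin_boundR {n : ℕ} (hG : GeoOf G (ℓ n) q n fun i K => Leg n i (r n) (Λ n) K)
    (hpos : ∀ i K, Leg n i (r n) (Λ n) K → 0 < K.a ∧ 0 < K.w 2 ∧ 0 < K.w 1)
    (hr : 0 < r n) (hΛ : 1 ≤ Λ n) {x : Fin 3 → ℝ} {i j h : ℕ} (hij : i < j)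
    (hrj : r n ≤ 1 / 2 ^ j) {A : Finset (ℕ × ℝ)} (hi : Inj (ℓ n) A) (hne : A.Nonempty)
    (hcell : ∀ x ∈ A, ∀ y ∈ A, zc i x.2 = zc i y.2)
    (hown : ∀ x ∈ A, 2 ^ (j - i + 20) ≤ 2 ^ h * (own A i j x).card) (hh : h ≤ j - i)
    {R : Rel (Fin 3)} {c : ℕ → ℤ → ℕ} {b : ℕ → Plk4} {w : Fin 3 → ℝ} {D0 D1 : ℝ}
    (hD0 : 0 < D0) (hD1 : 0 < D1) (hcl : IsCl G n j A c b w) (hlow : Low G x n j A c b D1)
    (hR : R j w j w)
    (hup : ∀ l : ℕ, i ≤ l → l ≤ i + h → Up G R x n l A j w D0)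
    {δ β : ℝ} (hδ : 0 < δ)
    (hval : ∀ F : Cf6, F = cfO (ℓ n) A i j h (r n) (Λ n) c b D0 D1 →
      Ok6 (LegX (Leg n) R j w) (q + x) F → Adm6 δ F → 1 / δ ≤ (F.M : ℝ) → F.toCf4.val ≤ β)
    (hh2 : (h : ℝ) ≤ δ * ((j : ℝ) - i))
    (hsize : Real.logb 2 (A.card : ℝ) ≤ (2:ℝ) ^ (δ * ((j : ℝ) - i)))
    (hres : Real.logb 2 (1 / (r n * 2 ^ i)) ≤ (2:ℝ) ^ (δ * ((j : ℝ) - i)))
    (hslope : Λ n ≤ (2:ℝ) ^ (δ * ((j : ℝ) - i)))
    (hvel : ∀ x ∈ A, ∀ i, |(ℓ n x.1).v i| ≤ 1) (hlong : 1 / δ ≤ (j : ℝ) - i) :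
    D1 ≤ D0 * (2:ℝ) ^ (β * ((j : ℝ) - i)) := by
  have hG' := hG.cut R j w
  refine fin_bound (G := cutG G fun l s => R l (wd s) j w)
    (Leg := fun _ => LegX (Leg n) R j w) (ℓ := ℓ) (r := r) (Λ := Λ) (n := n) hG'
    (fun l K hK => hpos l K hK.1) hr hΛ hij hrj hi hne hcell hown hh
    (R := fun _ _ _ _ => True) (c := c) (b := b) (w := w) hD0 hD1 ?_ hlow
    (fun _ _ _ _ => trivial) ?_ hδ hval hh2 hsize hres hslope hvel hlong
  · intro J t ht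
    obtain ⟨h1, h2, h3⟩ := hcl J t ht
    refine ⟨h1, ⟨h2, ?_⟩, h3⟩
    show R j (wd (b (c t J))) j w
    rw [← hG.wv_eq, h3]
    exact hR
  · intro l hl1 hl2 J s hs _
    have h4 : R l (wv G s) j w := by
      rw [hG.wv_eq]
      exact hs.2
    exact hup l hl1 hl2 J s hs.1 h4

/-- upper bound `β'` for the values of the valid configurations, range relation `R` -/
def ValR (Leg : ℕ → ℕ → ℝ → ℝ → Plk4 → Prop) (R : ℕ → Rel (Fin 3)) (q : Fin 3 → ℝ)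
    (𝒞 : ℝ → ℕ → (Fin 3 → ℝ) → Cf6 → Prop) (β' : ℝ) : Prop :=
  ∀ η : ℝ, 0 < η → ∃ δ : ℝ, 0 < δ ∧ ∀ᶠ n in (U : Filter ℕ), ∀ (w : Fin 3 → ℝ) (F : Cf6),
    𝒞 η n w F → Ok6 (LegX (Leg n) (R n) F.top w) q F → Adm6 δ F → 1 / δ ≤ (F.M : ℝ) →
      F.toCf4.val ≤ β' + η

/-- **the supremum bound on codes**: 248's `UBw G R` -/
theorem ubw_ofR (hC : CodeDat G ℓ I Leg r Λ lo hi q) (hrt : ∀ n, r n ≤ 1 / 2 ^ hi n)
    {R : Rel (Fin 3)} {x : Fin 3 → ℝ} {β' : ℝ} {𝒞 : ℝ → ℕ → (Fin 3 → ℝ) → Cf6 → Prop}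
    (hB : ValR Leg (fun _ => R) (q + x) 𝒞 β')
    (hRr : ∀ n j J s, G.adm n j J s → R j (wv G s) j (wv G s))
    (h𝒞 : ∀ η : ℝ, 0 < η → ∀ᶠ n in (U : Filter ℕ), ∀ i j h : ℕ, lo n ≤ i → i < j → j ≤ hi n →
      η * ((hi n : ℝ) - lo n) ≤ (j : ℝ) - i → (h : ℝ) ≤ η * ((j : ℝ) - i) →
      ∀ A : Finset (ℕ × ℝ), A ⊆ I n → A.Nonempty → ∀ (c : ℕ → ℤ → ℕ) (b : ℕ → Plk4)
        (w : Fin 3 → ℝ) (D0 D1 : ℝ), IsCl G n j A c b w →
        𝒞 η n w (cfO (ℓ n) A i j h (r n) (Λ n) c b D0 D1)) :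
    UBw G R I lo hi x β' := by
  intro η hη
  obtain ⟨δ', hδ', hB'⟩ := hB η hη
  refine ⟨min (δ' * η) (η * min η 1), lt_min (by positivity) (by positivity), ?_⟩
  have hlen : ∀ᶠ n in (U : Filter ℕ), 1 / (δ' * η) ≤ (hi n : ℝ) - lo n :=
    hC.len.eventually_ge_atTop _
  filter_upwards [hB', h𝒞 η hη, hC.size (δ' * η) (by positivity),
    hC.res (δ' * η) (by positivity), hC.slope (δ' * η) (by positivity), hC.vel, hlen] with n h1
    h2 h3 h4 h5 h6 h7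
  intro i j h hi1 hij hj hlong hh A hA hne hcell hown c b w D0 D1 hD0 hD1 hcl hlow hup
  have hN : 0 < (hi n : ℝ) - lo n := lt_of_lt_of_le (by positivity) h7
  have hmono : δ' * η * ((hi n : ℝ) - lo n) ≤ δ' * ((j : ℝ) - i) := by
    calc δ' * η * ((hi n : ℝ) - lo n) = δ' * (η * ((hi n : ℝ) - lo n)) := by ring
      _ ≤ δ' * ((j : ℝ) - i) := mul_le_mul_of_nonneg_left hlong hδ'.le
  have hpow : (2:ℝ) ^ (δ' * η * ((hi n : ℝ) - lo n)) ≤ (2:ℝ) ^ (δ' * ((j : ℝ) - i)) :=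
    Real.rpow_le_rpow_of_exponent_le (by norm_num) hmono
  have hji : 0 ≤ (j : ℝ) - i := (by positivity : 0 ≤ η * ((hi n : ℝ) - lo n)).trans hlong
  have hh0 : (h : ℝ) ≤ min η 1 * ((j : ℝ) - i) := by
    calc (h : ℝ) ≤ η * min η 1 * ((hi n : ℝ) - lo n) :=
          hh.trans (mul_le_mul_of_nonneg_right (min_le_right _ _) hN.le)
      _ = min η 1 * (η * ((hi n : ℝ) - lo n)) := by ring
      _ ≤ _ := mul_le_mul_of_nonneg_left hlong (by positivity)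
  have hh1 : (h : ℝ) ≤ 1 * ((j : ℝ) - i) :=
    hh0.trans (mul_le_mul_of_nonneg_right (min_le_right _ _) hji)
  have hh3 : (h : ℝ) ≤ η * ((j : ℝ) - i) :=
    hh0.trans (mul_le_mul_of_nonneg_right (min_le_left _ _) hji)
  have hh2 : (h : ℝ) ≤ δ' * ((j : ℝ) - i) :=
    (hh.trans (mul_le_mul_of_nonneg_right (min_le_left _ _) hN.le)).trans hmono
  have hhj : h ≤ j - i := by
    have : (h : ℝ) ≤ ((j - i : ℕ) : ℝ) := by
      rw [Nat.cast_sub hij.le]; linarith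
    exact_mod_cast this
  have hrj : r n ≤ 1 / 2 ^ j := (hrt n).trans
    (one_div_le_one_div_of_le (by positivity) (pow_le_pow_right₀ one_le_two hj))
  have hAne : (0:ℝ) < A.card := by exact_mod_cast card_pos.2 hne
  have hRw : R j w j w := by
    obtain ⟨y, hy⟩ := hne
    obtain ⟨-, g2, g3⟩ := hcl (zc j y.2) y.1 (mem_alive.2 ⟨y, hy, rfl, rfl⟩)
    have := hRr n j _ _ g2
    rwa [g3] at this
  refine fin_boundR (hC.geo n) (hC.pos n) (hC.r0 n) (hC.Λ1 n) hij hrj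
    (inj_of_lines (hC.inj n) fun x hx => ⟨x, hA hx, rfl⟩) hne hcell hown hhj hD0 hD1 hcl hlow
    hRw hup hδ' ?_ hh2 ?_ ?_ (h5.trans hpow) (fun x hx => h6 x (hA hx)) ?_
  · intro F hF hok hadm hM
    have et : F.top = j := by rw [hF]; exact cfO_top A hij.le h (r n) (Λ n) c b D0 D1
    refine h1 w F ?_ (by rw [et]; exact hok) hadm hM
    rw [hF]
    exact h2 i j h hi1 hij hj hlong hh3 A hA hne c b w D0 D1 hcl
  · refine le_trans ?_ (h3.trans hpow)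
    exact Real.logb_le_logb_of_le one_lt_two hAne (Nat.cast_le.2 (card_le_card hA))
  · refine le_trans ?_ (h4.trans hpow)
    have hr := hC.r0 n
    refine Real.logb_le_logb_of_le one_lt_two (by positivity) ?_
    refine one_div_le_one_div_of_le (by positivity) ?_
    exact mul_le_mul_of_nonneg_left (pow_le_pow_right₀ one_le_two hi1) hr.le
  · -- length
    have h8 : 1 / δ' ≤ η * ((hi n : ℝ) - lo n) := by
      have e : 1 / δ' = η * (1 / (δ' * η)) := by field_simp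
      rw [e]
      exact mul_le_mul_of_nonneg_left h7 hη.le
    exact h8.trans hlong

/-- `ValR` gives `UBd` (any depth), range `Rg` -/
theorem ubd_ofR (hC : CodeDat G ℓ I Leg r Λ lo hi q)
    {β' : ℝ} {𝒞 : ℝ → ℕ → (Fin 3 → ℝ) → Cf6 → Prop} {Rg : ℕ → Rel (Fin 3)}
    (hB : ValR Leg Rg q 𝒞 β') {Q : ℕ → ℕ → Plk4 → Prop}
    (hRr : ∀ n j J s, G.adm n j J s → Rg n j (wv G s) j (wv G s))
    (h𝒞 : ∀ η : ℝ, 0 < η → ∀ᶠ n in (U : Filter ℕ), ∀ j h : ℕ, lo n < j → r n ≤ rho j →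
      η * ((hi n : ℝ) - lo n) ≤ (j : ℝ) - lo n → (h : ℝ) ≤ η * ((j : ℝ) - lo n) →
      ∀ A : Finset (ℕ × ℝ), A.Nonempty → (∀ x ∈ A, ∃ y ∈ I n, y.1 = x.1) →
        (∀ x ∈ A, ∀ y ∈ A, zc (lo n) x.2 = zc (lo n) y.2) →
        ∀ (c : ℕ → ℤ → ℕ) (b : ℕ → Plk4)
        (w : Fin 3 → ℝ) (D0 D1 : ℝ), IsCl G n j A c b w →
        (∀ J : ℤ, ∀ t ∈ alive A j J, Q n j (b (c t J))) →
        𝒞 η n w (cfO (ℓ n) A (lo n) j h (r n) (Λ n) c b D0 D1)) :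
    UBd G Rg Q I lo hi r β' := by
  intro η hη
  obtain ⟨δ', hδ', hB'⟩ := hB η hη
  refine ⟨min (min (δ' * η) (η * min η 1)) δ',
    lt_min (lt_min (by positivity) (by positivity)) hδ', ?_⟩
  have hlen : ∀ᶠ n in (U : Filter ℕ), 1 / (δ' * η) ≤ (hi n : ℝ) - lo n :=
    hC.len.eventually_ge_atTop _
  filter_upwards [hB', h𝒞 η hη, hC.res (δ' * η) (by positivity),
    hC.slope (δ' * η) (by positivity), hC.vel, hlen] with n h1 h2 h4 h5 h6 h7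
  intro j h hij hrj hlong hh A hne hA hcell hone hsize hown c b w D0 D1 hD0 hD1 hcl hQ hlow hup
  have hN : 0 < (hi n : ℝ) - lo n := lt_of_lt_of_le (by positivity) h7
  have hmono : δ' * η * ((hi n : ℝ) - lo n) ≤ δ' * ((j : ℝ) - lo n) := by
    calc δ' * η * ((hi n : ℝ) - lo n) = δ' * (η * ((hi n : ℝ) - lo n)) := by ring
      _ ≤ δ' * ((j : ℝ) - lo n) := mul_le_mul_of_nonneg_left hlong hδ'.le
  have hpow : (2:ℝ) ^ (δ' * η * ((hi n : ℝ) - lo n)) ≤ (2:ℝ) ^ (δ' * ((j : ℝ) - lo n)) :=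
    Real.rpow_le_rpow_of_exponent_le (by norm_num) hmono
  have hjl : (0:ℝ) ≤ (j : ℝ) - lo n := by
    have : (lo n : ℝ) < j := by exact_mod_cast hij
    linarith
  have hm1 : min (min (δ' * η) (η * min η 1)) δ' ≤ η * min η 1 :=
    (min_le_left _ _).trans (min_le_right _ _)
  have hm2 : min (min (δ' * η) (η * min η 1)) δ' ≤ δ' * η :=
    (min_le_left _ _).trans (min_le_left _ _)
  have hh0 : (h : ℝ) ≤ min η 1 * ((j : ℝ) - lo n) := by
    calc (h : ℝ) ≤ η * min η 1 * ((hi n : ℝ) - lo n) :=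
          hh.trans (mul_le_mul_of_nonneg_right hm1 hN.le)
      _ = min η 1 * (η * ((hi n : ℝ) - lo n)) := by ring
      _ ≤ _ := mul_le_mul_of_nonneg_left hlong (by positivity)
  have hh1 : (h : ℝ) ≤ 1 * ((j : ℝ) - lo n) :=
    hh0.trans (mul_le_mul_of_nonneg_right (min_le_right _ _) hjl)
  have hh3 : (h : ℝ) ≤ η * ((j : ℝ) - lo n) :=
    hh0.trans (mul_le_mul_of_nonneg_right (min_le_left _ _) hjl)
  have hh2 : (h : ℝ) ≤ δ' * ((j : ℝ) - lo n) :=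
    (hh.trans (mul_le_mul_of_nonneg_right hm2 hN.le)).trans hmono
  have hhj : h ≤ j - lo n := by
    have : (h : ℝ) ≤ ((j - lo n : ℕ) : ℝ) := by
      rw [Nat.cast_sub hij.le]; linarith
    exact_mod_cast this
  have hRw : Rg n j w j w := by
    obtain ⟨y, hy⟩ := hne
    obtain ⟨-, g2, g3⟩ := hcl (zc j y.2) y.1 (mem_alive.2 ⟨y, hy, rfl, rfl⟩)
    have := hRr n j _ _ g2
    rwa [g3] at this
  have hlow' : Low G (0 : Fin 3 → ℝ) n j A c b D1 := hlow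
  refine fin_boundR (x := 0) (hC.geo n) (hC.pos n) (hC.r0 n) (hC.Λ1 n) hij hrj
    (inj_of_lines (hC.inj n) hA) hne hcell hown hhj hD0 hD1 hcl hlow'
    hRw hup hδ' ?_ hh2 ?_ (h4.trans hpow) (h5.trans hpow)
    ?_ ?_
  · intro F hF hok hadm hM
    rw [add_zero] at hok
    have et : F.top = j := by rw [hF]; exact cfO_top A hij.le h (r n) (Λ n) c b D0 D1
    refine h1 w F ?_ (by rw [et]; exact hok) hadm hM
    rw [hF]
    exact h2 j h hij hrj hlong hh3 A hne hA hcell c b w D0 D1 hcl hQ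
  · refine hsize.trans (Real.rpow_le_rpow_of_exponent_le (by norm_num) ?_)
    exact mul_le_mul_of_nonneg_right (min_le_right _ _) hjl
  · intro x hx
    obtain ⟨y, hy, hyx⟩ := hA x hx
    rw [← hyx]
    exact h6 y hy
  · have h8 : 1 / δ' ≤ η * ((hi n : ℝ) - lo n) := by
      have e : 1 / δ' = η * (1 / (δ' * η)) := by field_simp
      rw [e]
      exact mul_le_mul_of_nonneg_left h7 hη.le
    exact h8.trans hlong

end

/-! ### fewer test sets -/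

/-- passage to a smaller class of test sets containing the top sheets -/
theorem ok6_mono {Leg Leg' : ℕ → ℝ → ℝ → Plk4 → Prop} {q : Fin 3 → ℝ} {F : Cf6}
    (h : Ok6 Leg q F)
    (hle : ∀ l, F.m ≤ l → l ≤ F.m + F.h → ∀ K, Leg' l F.r F.Λm K → Leg l F.r F.Λm K)
    (htop : ∀ x ∈ F.I, Leg' F.top F.r F.Λm (F.K (F.cl (ob4 F.top x)))) : Ok6 Leg' q F :=
  ⟨⟨h.M1, h.r0, h.rle, h.Λ1, h.ne, h.cell, h.D1p, htop, h.mem, h.low,
    fun K hK => h.up K (hle F.m le_rfl (Nat.le_add_right _ _) K hK)⟩, h.h20, h.hM,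
    fun i hi1 hi2 K hK => h.ups i hi1 hi2 K (hle i hi1 hi2 K hK), h.own⟩

end

end Crest.Agent.R136.Cod289
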