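import Crest.Agent.R136.KDef5_879

/-!
# R136: literal configurations with `h` coarse levels (helper879; ARCH 5)

`Cf6 = Cf4` with a number `h`: the bound `D0` holds at ALL levels `m ≤ i ≤ m + h` (sheets over
cells of level `i`, objects = (line alive in the cell, cell)), and the own loss is at most `h - 20`
levels.  `Adm6 δ` bounds `h ≤ δ M`, so it is monotone in `δ`.
`enemy6`: `¬ KS4` gives admissible configurations of value `≥ b0 - ∑ |q i|`.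
-/

set_option autoImplicit false

open Finset

namespace Crest.Agent.R136.K4

open Sh605 KS879 En879

noncomputable section

/-- configuration with `h` coarse levels -/
structure Cf6 extends Cf4 where
  /-- number of coarse levels at which `D0` bounds the densities -/
  h : ℕ

/-- validity of a configuration -/
structure Ok6 (Leg : ℕ → ℝ → ℝ → Plk4 → Prop) (q : Fin 3 → ℝ) (F : Cf6) : Prop
    extends Ok5 Leg q F.toCf4 where
  h20 : 20 ≤ F.h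
  hM : F.h ≤ F.M
  ups : ∀ i, F.m ≤ i → i ≤ F.m + F.h → ∀ K, Leg i F.r F.Λm K →
    ((objs4 i F.I K).card : ℝ) ≤ F.D0 * cap5 q i K
  own : ∀ x ∈ F.I, 2 ^ (F.M + 20) ≤ 2 ^ F.h * ownc4 F.m F.top F.I x

/-- admissibility with error `δ` (monotone in `δ`) -/
structure Adm6 (δ : ℝ) (F : Cf6) : Prop where
  hle : (F.h : ℝ) ≤ δ * F.M
  size : Real.logb 2 (F.I.card : ℝ) ≤ (2:ℝ) ^ (δ * F.M)
  res : Real.logb 2 (1 / (F.r * 2 ^ F.m)) ≤ (2:ℝ) ^ (δ * F.M)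
  slope : F.Λm ≤ (2:ℝ) ^ (δ * F.M)
  vel : ∀ x ∈ F.I, ∀ i, |x.1.v i| ≤ 1

theorem Adm6.mono {δ δ' : ℝ} {F : Cf6} (h : Adm6 δ F) (hd : δ ≤ δ') : Adm6 δ' F := by
  have h0 : (0:ℝ) ≤ F.M := Nat.cast_nonneg _
  have h1 : δ * F.M ≤ δ' * F.M := mul_le_mul_of_nonneg_right hd h0
  have h2 : (2:ℝ) ^ (δ * F.M) ≤ (2:ℝ) ^ (δ' * F.M) :=
    Real.rpow_le_rpow_of_exponent_le (by norm_num) h1
  exact ⟨h.hle.trans h1, h.size.trans h2, h.res.trans h2, h.slope.trans h2, h.vel⟩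

theorem Ok6.adm {Leg : ℕ → ℝ → ℝ → Plk4 → Prop} {q : Fin 3 → ℝ} {F : Cf6} (hF : Ok6 Leg q F)
    {δ : ℝ} (h : Adm6 δ F) : F.toCf4.Adm δ := by
  refine ⟨fun x hx => ?_, h.size, h.res, h.slope, h.vel⟩
  have h1 := hF.own x hx
  have h2 : (2:ℝ) ^ ((F.M : ℝ) + 20) ≤ (2:ℝ) ^ (F.h : ℝ) * (ownc4 F.m F.top F.I x : ℝ) := by
    have : ((2 ^ (F.M + 20) : ℕ) : ℝ) ≤ ((2 ^ F.h * ownc4 F.m F.top F.I x : ℕ) : ℝ) := by
      exact_mod_cast h1
    push_cast at this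
    rw [Real.rpow_natCast]
    refine le_trans (le_of_eq ?_) this
    rw [← Real.rpow_natCast]; congr 1; push_cast; ring
  have h3 : (2:ℝ) ^ (F.h : ℝ) ≤ (2:ℝ) ^ (δ * F.M) :=
    Real.rpow_le_rpow_of_exponent_le (by norm_num) h.hle
  have h0 : (0:ℝ) ≤ (ownc4 F.m F.top F.I x : ℝ) := Nat.cast_nonneg _
  have h4 : (2:ℝ) ^ ((F.M : ℝ)) ≤ (2:ℝ) ^ (δ * F.M) * (ownc4 F.m F.top F.I x : ℝ) := by
    refine le_trans ?_ (h2.trans (mul_le_mul_of_nonneg_right h3 h0))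
    exact Real.rpow_le_rpow_of_exponent_le (by norm_num) (by linarith)
  have h5 : (2:ℝ) ^ ((1 - δ) * F.M) * (2:ℝ) ^ (δ * F.M) = (2:ℝ) ^ ((F.M : ℝ)) := by
    rw [← Real.rpow_add (by norm_num)]; congr 1; ring
  have h6 : (0:ℝ) < (2:ℝ) ^ (δ * F.M) := by positivity
  rw [← h5, mul_comm] at h4
  exact le_of_mul_le_mul_left h4 h6

/-- what the enemy needs from the class, at all levels -/
structure ClsOK6 (Leg : ℕ → ℝ → ℝ → Plk4 → Prop) (κ : ℕ) : Prop where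
  sheet : ∀ i r Λm K, 0 < r → Leg i r Λm K →
    Sheet K.e K.c K.w K.q K.a ((K.j : ℝ) / 2 ^ i) (1 / 2 ^ i) (r / 2 ^ κ)
  width : ∀ i r Λm K, 0 < r → Leg i r Λm K →
    r ≤ K.a ∧ K.a ≤ K.w 2 ∧ K.w 2 ≤ K.w 1 ∧ K.w 1 * 2 ^ i ≤ 2 ^ κ
  cube : ∀ m r Λm o, 0 < r → 1 ≤ Λm → r ≤ 1 / 2 ^ m → Leg m r Λm (cubeK r o)

theorem clsOK6_N : ClsOK6 LegN 2 where
  sheet := fun i r Λm K hr h => shN_toSheet hr h.1
  width := by
    intro i r Λm K _ h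
    refine ⟨h.1.r0_le, h.1.a_le, h.1.w_le, ?_⟩
    have h2 := h.2
    rw [le_div_iff₀ (by positivity)] at h2
    exact h2.trans (by norm_num)
  cube := by
    intro m r Λm o hr _ hrm
    exact ⟨cubeN o.1 hr, hrm⟩

theorem sheet_mono {e : Fin 3 → V3} {c : Ln4} {w : V3} {q : ℝ → V3 → ℝ} {a z0 ρ r0 r1 : ℝ}
    (h : Sheet e c w q a z0 ρ r0) (hr : r1 ≤ r0) : Sheet e c w q a z0 ρ r1 := by
  refine ⟨h.ortho, h.isQ, h.steep, h.a_le, h.w_le, hr.trans h.r0_le, ?_⟩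
  obtain ⟨Λ, h0, h1, h2⟩ := h.res
  exact ⟨Λ, h0, h1, (mul_le_mul_of_nonneg_right hr h0).trans h2⟩

/-- **Katz–Rogers on cells of level `i`** -/
theorem kr_cell6 {M κ i : ℕ} (J : Finset (Ln4 × ℝ))
    (hsep : ∀ x ∈ J, ∀ y ∈ J, x.1 ≠ y.1 → ∃ k, 1 / 2 ^ M ≤ |x.1.v k - y.1.v k|) {K : Plk4}
    (hS : Sheet K.e K.c K.w K.q K.a ((K.j : ℝ) / 2 ^ i) (1 / 2 ^ i) (1 / 2 ^ M / 2 ^ κ))
    (hw : K.w 1 ≤ 2 ^ κ) :
    ((objs4 i J K).card : ℝ) ≤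
      128000000 * ((M : ℝ) + 2 * κ + i + 6) ^ 2 * 8 ^ (M + κ + i) * (K.a * K.w 2 * K.w 1) := by
  classical
  have hr : (0:ℝ) < 1 / 2 ^ M / 2 ^ κ / 2 ^ i := by positivity
  have hS' : Sheet K.e K.c K.w K.q K.a ((K.j : ℝ) / 2 ^ i) (1 / 2 ^ i)
      (1 / 2 ^ M / 2 ^ κ / 2 ^ i) :=
    sheet_mono hS (div_le_self (by positivity) (one_le_pow₀ (by norm_num)))
  have hmem : ∀ t ∈ objs4 i J K, (∃ x ∈ J, x.1 = t.1) ∧ t.2 = K.j ∧
      InSheet t.1 K.e K.c K.w K.q K.a ((K.j : ℝ) / 2 ^ i) (1 / 2 ^ i) := by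
    intro t ht
    unfold objs4 at ht
    rw [mem_filter, mem_image] at ht
    obtain ⟨⟨x, hx, rfl⟩, h1, h2⟩ := ht
    exact ⟨⟨x, hx, rfl⟩, h1, h2⟩
  have h := KR879.kr_sheet (objs4 i J K) (fun t => t.1) (r0 := 1 / 2 ^ M / 2 ^ κ / 2 ^ i) hr
    (by positivity) hS' (fun t ht => (hmem t ht).2.2)
    (fun t ht t' ht' hne => by
      obtain ⟨⟨x, hx, hx1⟩, hj, _⟩ := hmem t ht
      obtain ⟨⟨y, hy, hy1⟩, hj', _⟩ := hmem t' ht'
      have hne' : x.1 ≠ y.1 := by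
        intro h3
        exact hne (Prod.ext (by rw [← hx1, ← hy1, h3]) (by rw [hj, hj']))
      obtain ⟨k, hk⟩ := hsep x hx y hy hne'
      refine ⟨k, ?_⟩
      rw [hx1, hy1] at hk
      have e1 : (1:ℝ) / 2 ^ M / 2 ^ κ / 2 ^ i = 1 / 2 ^ i * (1 / 2 ^ M / 2 ^ κ) := by ring
      rw [e1]
      refine mul_le_mul_of_nonneg_left (le_trans ?_ hk) (by positivity)
      exact div_le_self (by positivity) (one_le_pow₀ (by norm_num)))
    (M + 2 * κ + i + 4) (by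
      have e1 : (10:ℝ) * K.w 1 / (1 / 2 ^ M / 2 ^ κ / 2 ^ i) =
          10 * K.w 1 * (2 ^ M * 2 ^ κ * 2 ^ i) := by
        field_simp
      have e2 : (2:ℝ) ^ (M + 2 * κ + i + 4) = 16 * (2 ^ κ * (2 ^ M * 2 ^ κ * 2 ^ i)) := by ring
      rw [e1, e2]
      have h3 : K.w 1 * (2 ^ M * 2 ^ κ * 2 ^ i) ≤ 2 ^ κ * (2 ^ M * 2 ^ κ * 2 ^ i) :=
        mul_le_mul_of_nonneg_right hw (by positivity)
      have h4 : (0:ℝ) ≤ 2 ^ κ * (2 ^ M * 2 ^ κ * 2 ^ i) := by positivity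
      nlinarith)
  refine h.trans (le_of_eq ?_)
  have e1 : (8:ℝ) ^ (M + κ + i) = (2 ^ M * 2 ^ κ * 2 ^ i) ^ 3 := by
    rw [← pow_add, ← pow_add, ← pow_mul, mul_comm, pow_mul]; norm_num
  rw [e1]
  push_cast
  field_simp
  ring

open Classical in
/-- **a raw grid configuration as incidences of real lines.** -/
theorem grid_cf6 {b0 η : ℝ} {N M : ℕ} {s : Finset GLine4} {I : Finset (GLine4 × ℤ)} {μ : ℝ}
    (h : Raw b0 η N M s I μ) :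
    ∃ (J : Finset (Ln4 × ℝ)) (cl : Ln4 × ℤ → ℕ) (ctr : ℕ → Ln4 × ℤ),
      J.Nonempty ∧ J.card = I.card ∧ (J.card : ℝ) ≤ 2 ^ (5 * M) ∧
      (∀ x ∈ J, 1 / 4 ≤ x.2 ∧ x.2 ≤ 3 / 4) ∧ (∀ x ∈ J, zc4 0 x.2 = 0) ∧
      (∀ x ∈ J, ∀ y ∈ J, ob4 M x = ob4 M y → x = y) ∧
      (∀ x ∈ J, ∀ i, |x.1.v i| ≤ 1 / 16 ∧ |x.1.p i| ≤ 3 / 64) ∧
      -- classes of level `M`
      (∀ x ∈ J, zc4 M x.2 = (ctr (cl (ob4 M x))).2 ∧
        InSheet x.1 stdE (ctr (cl (ob4 M x))).1 ![1 / 2 ^ M, 1 / 2 ^ M, 1 / 2 ^ M]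
          (cubeQ (ctr (cl (ob4 M x))).1) (1 / 2 ^ M)
          (((ctr (cl (ob4 M x))).2 : ℝ) / 2 ^ M) (1 / 2 ^ M)) ∧
      (∀ x ∈ J, μ ≤ (((J.image (ob4 M)).filter fun o => cl o = cl (ob4 M x)).card : ℝ)) ∧
      -- own cells
      (∀ x ∈ J, (2:ℝ) ^ ((1 - η) * M) ≤
        32 * (((J.filter fun y => y.1 = x.1).image (ob4 M)).card : ℝ)) ∧
      -- separated directions
      (∀ x ∈ J, ∀ y ∈ J, x.1 ≠ y.1 → ∃ i, 1 / 2 ^ M ≤ |x.1.v i - y.1.v i|) := by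
  have hN := h.N1
  have hN0 : (0:ℝ) < N := by exact_mod_cast hN
  have hobi : ∀ x y : GLine4 × ℤ, ob4 M (phi4 N x) = ob4 M (phi4 N y) → x = y :=
    fun x y => phi4_inj hN h.hM
  have hφi : Function.Injective (phi4 N) := fun x y hxy => hobi x y (by rw [hxy])
  -- classes
  set cl : Ln4 × ℤ → ℕ := fun o => if h : ∃ x : GLine4 × ℤ, ob4 M (phi4 N x) = o then
    Encodable.encode (key4 N h.choose) else 0 with hcl
  have hcl' : ∀ x, cl (ob4 M (phi4 N x)) = Encodable.encode (key4 N x) := by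
    intro x
    have hex : ∃ x' : GLine4 × ℤ, ob4 M (phi4 N x') = ob4 M (phi4 N x) := ⟨x, rfl⟩
    simp only [hcl]
    rw [dif_pos hex]
    rw [hobi _ _ hex.choose_spec]
  set ctr : ℕ → Ln4 × ℤ := fun c => if h : ∃ x ∈ I, Encodable.encode (key4 N x) = c then
    ob4 M (phi4 N h.choose) else (⟨0, 0⟩, 0) with hctr
  have hctr' : ∀ x ∈ I, ∃ y ∈ I, key4 N y = key4 N x ∧ ctr (cl (ob4 M (phi4 N x))) =
      ob4 M (phi4 N y) := by
    intro x hx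
    rw [hcl']
    have hex : ∃ y ∈ I, Encodable.encode (key4 N y) = Encodable.encode (key4 N x) := ⟨x, hx, rfl⟩
    refine ⟨hex.choose, hex.choose_spec.1, Encodable.encode_injective hex.choose_spec.2, ?_⟩
    simp only [hctr]
    rw [dif_pos hex]
  have hz0 : ∀ x ∈ I, zc4 0 (rh4 N x.2) = 0 := by
    intro x hx
    obtain ⟨a1, a2⟩ := rh4_mem hN (h.mem x hx).2
    unfold zc4
    rw [pow_zero, one_mul, Int.floor_eq_zero_iff]
    exact ⟨by linarith, by linarith⟩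
  refine ⟨I.image (phi4 N), cl, ctr, h.Ine.image _, card_image_of_injective _ hφi, ?_, ?_, ?_, ?_,
    ?_, ?_, ?_, ?_, ?_⟩
  · -- cardinality
    rw [card_image_of_injective _ hφi]
    have hMr : (16:ℝ) * N ≤ 2 ^ M := by
      have : ((16 * N : ℕ) : ℝ) ≤ ((2 ^ M : ℕ) : ℝ) := by exact_mod_cast h.hM
      push_cast at this; exact this
    have h1 : I ⊆ s ×ˢ Icc (-(N : ℤ)) N := by
      intro x hx
      obtain ⟨a1, a2⟩ := h.mem x hx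
      rw [mem_product, mem_Icc]
      exact ⟨a1, abs_le.1 a2⟩
    have h2 := card_le_card h1
    rw [card_product, Int.card_Icc] at h2
    have h3 : ((N : ℤ) + 1 - -(N : ℤ)).toNat ≤ 3 * N := by omega
    have h4 := card_le_of_inj hN h.bd h.inj
    have h5 : (I.card : ℝ) ≤ (s.card : ℝ) * (3 * N) := by
      have : I.card ≤ s.card * (3 * N) := h2.trans (Nat.mul_le_mul_left _ h3)
      exact_mod_cast this
    have hN1 : (1:ℝ) ≤ N := by exact_mod_cast hN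
    calc (I.card : ℝ) ≤ (s.card : ℝ) * (3 * N) := h5
      _ ≤ (27 * (N : ℝ) ^ 3) * (3 * N) := by gcongr
      _ = 81 * (N:ℝ) ^ 4 := by ring
      _ ≤ 81 * ((N:ℝ) ^ 4 * N) := by
        have : (N:ℝ) ^ 4 ≤ (N:ℝ) ^ 4 * N := le_mul_of_one_le_right (by positivity) hN1
        linarith
      _ ≤ (16 * (N : ℝ)) ^ 5 := by
        have : (0:ℝ) ≤ (N : ℝ) ^ 5 := by positivity
        nlinarith
      _ ≤ (2 ^ M) ^ 5 := by gcongr
      _ = 2 ^ (5 * M) := by rw [← pow_mul]; ring_nf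
  · intro x hx
    obtain ⟨x', hx', rfl⟩ := mem_image.1 hx
    exact rh4_mem hN (h.mem x' hx').2
  · intro x hx
    obtain ⟨x', hx', rfl⟩ := mem_image.1 hx
    exact hz0 x' hx'
  · intro x hx y hy hxy
    obtain ⟨x', hx', rfl⟩ := mem_image.1 hx
    obtain ⟨y', hy', rfl⟩ := mem_image.1 hy
    rw [hobi x' y' hxy]
  · intro x hx i
    obtain ⟨x', hx', rfl⟩ := mem_image.1 hx
    have hb := h.bd _ (h.mem x' hx').1 i
    have b1 : |((x'.1.1 i : ℤ) : ℝ)| ≤ N := by exact_mod_cast hb.1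
    have b2 : |((x'.1.2 i : ℤ) : ℝ)| ≤ N := by exact_mod_cast hb.2
    have c1 : |((x'.1.1 i : ℤ) : ℝ) / N| ≤ 1 := by
      rw [abs_div, abs_of_pos hN0, div_le_one hN0]; exact b1
    have c2 : |((x'.1.2 i : ℤ) : ℝ) / N| ≤ 1 := by
      rw [abs_div, abs_of_pos hN0, div_le_one hN0]; exact b2
    simp only [phi4, rl4]
    rw [abs_le] at c1 c2
    constructor
    · rw [abs_le]; constructor <;> linarith [c2.1, c2.2]
    · rw [abs_le]; constructor <;> linarith [c1.1, c1.2, c2.1, c2.2]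
  · intro x hx
    obtain ⟨x', hx', rfl⟩ := mem_image.1 hx
    obtain ⟨y, hy, hxy, hK⟩ := hctr' x' hx'
    rw [hK]
    have h2 : x'.2 = y.2 := by
      have := congrArg Prod.snd hxy; simpa [key4] using this.symm
    refine ⟨?_, ?_⟩
    · show zc4 M (rh4 N x'.2) = zc4 M (rh4 N y.2)
      rw [h2]
    · exact mates_in hN h.hM' (h.bd _ (h.mem x' hx').1) (h.bd _ (h.mem y hy).1) hxy.symm
  · intro x hx
    obtain ⟨x', hx', rfl⟩ := mem_image.1 hx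
    rw [hcl']
    refine (h.mul x' hx').1.trans (Nat.cast_le.2 ?_)
    refine card_le_card_of_injOn (fun y => ob4 M (phi4 N y)) (fun y hy => ?_)
      (fun a _ b _ hab => hobi a b hab)
    rw [Finset.mem_coe, mem_filter] at hy
    rw [Finset.mem_coe, mem_filter]
    refine ⟨mem_image_of_mem _ (mem_image_of_mem _ hy.1), ?_⟩
    rw [hcl', hy.2]
  · intro x hx
    obtain ⟨x', hx', rfl⟩ := mem_image.1 hx
    refine (h.own x'.1 (h.mem x' hx').1).trans ?_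
    have : ((I.filter fun y => y.1 = x'.1).card : ℝ) ≤
        ((((I.image (phi4 N)).filter fun y => y.1 = (phi4 N x').1).image (ob4 M)).card : ℝ) := by
      refine Nat.cast_le.2 (card_le_card_of_injOn (fun y => ob4 M (phi4 N y)) (fun y hy => ?_)
        (fun a _ b _ hab => hobi a b hab))
      rw [Finset.mem_coe, mem_filter] at hy
      rw [Finset.mem_coe]
      refine mem_image_of_mem _ (mem_filter.2 ⟨mem_image_of_mem _ hy.1, ?_⟩)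
      show rl4 N y.1 = rl4 N x'.1
      rw [hy.2]
    linarith
  · intro x hx y hy hne
    obtain ⟨x', hx', rfl⟩ := mem_image.1 hx
    obtain ⟨y', hy', rfl⟩ := mem_image.1 hy
    have h2 : x'.1.2 ≠ y'.1.2 := by
      intro h3
      apply hne
      show rl4 N x'.1 = rl4 N y'.1
      rw [h.inj (h.mem x' hx').1 (h.mem y' hy').1 h3]
    obtain ⟨i, hi⟩ := vel_sep hN h2
    refine ⟨i, le_trans ?_ hi⟩
    have hMr : (16:ℝ) * N ≤ 2 ^ M := by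
      have : ((16 * N : ℕ) : ℝ) ≤ ((2 ^ M : ℕ) : ℝ) := by exact_mod_cast h.hM
      push_cast at this; exact this
    exact one_div_le_one_div_of_le (by positivity) hMr

open Classical in
/-- **configuration of a raw grid family**, general class, `h` coarse levels -/
theorem exists_cf6 {Leg : ℕ → ℝ → ℝ → Plk4 → Prop} {κ : ℕ} (hL : ClsOK6 Leg κ)
    {b0 η : ℝ} {N M : ℕ} {s : Finset GLine4} {I : Finset (GLine4 × ℤ)} {μ : ℝ}
    (h : Raw b0 η N M s I μ) (q : Fin 3 → ℝ) {Λm : ℝ} (hΛ : 1 ≤ Λm) {g : ℕ} (hg : 20 ≤ g)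
    (hgM : g ≤ M) (hgη : η * M + 25 ≤ g) :
    ∃ F : Cf6, Ok6 Leg q F ∧ F.m = 0 ∧ F.M = M ∧ F.r = 1 / 2 ^ M ∧ F.Λm = Λm ∧ F.h = g ∧
      (F.I.card : ℝ) ≤ 2 ^ (5 * M) ∧ F.D1 = μ * 8 ^ M ∧
      F.D0 = 128000000 * ((M : ℝ) + 2 * κ + g + 6) ^ 2 * 8 ^ (M + κ + g) *
        (2:ℝ) ^ (qs q * (M + κ)) ∧
      (∀ x ∈ F.I, 1 / 4 ≤ x.2 ∧ x.2 ≤ 3 / 4) ∧
      (∀ x ∈ F.I, ∀ y ∈ F.I, ob4 M x = ob4 M y → x = y) ∧
      (∀ x ∈ F.I, ∀ i, |x.1.v i| ≤ 1 / 16 ∧ |x.1.p i| ≤ 3 / 64) := by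
  have hN := h.N1
  have hN0 : (0:ℝ) < N := by exact_mod_cast hN
  obtain ⟨J, cl, ctr, hne, hcard, hcard5, hz, hz0, hinj, hvel, hmem, hmul, hown, hsep⟩ :=
    grid_cf6 h
  have hμ : 0 < μ := lt_of_lt_of_le (by positivity) h.big
  have hp : (0:ℝ) < 2 ^ M := by positivity
  have hr : (0:ℝ) < 1 / 2 ^ M := by positivity
  have htop : (0 + M) = M := by omega
  have hups : ∀ i, i ≤ g → ∀ K, Leg i (1 / 2 ^ M) Λm K → ((objs4 i J K).card : ℝ) ≤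
      128000000 * ((M : ℝ) + 2 * κ + g + 6) ^ 2 * 8 ^ (M + κ + g) *
        (2:ℝ) ^ (qs q * (M + κ)) * cap5 q i K := by
    intro i hi K hK
    obtain ⟨ha, h2, h1, hw⟩ := hL.width _ _ _ _ hr hK
    have pa : 0 < K.a := hr.trans_le ha
    have p2 : 0 < K.w 2 := pa.trans_le h2
    have p1 : 0 < K.w 1 := p2.trans_le h1
    have q1 : (1:ℝ) ≤ 2 ^ i := one_le_pow₀ (by norm_num)
    have hw' : K.w 1 ≤ 2 ^ κ := by nlinarith
    have h3 := kr_cell6 J hsep (hL.sheet _ _ _ _ hr hK) hw'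
    have ha' : 1 / 2 ^ M ≤ K.a * 2 ^ i := by nlinarith
    have h2' : K.a * 2 ^ i ≤ K.w 2 * 2 ^ i := by gcongr
    have h1' : K.w 2 * 2 ^ i ≤ K.w 1 * 2 ^ i := by gcongr
    have g0 := width_rpow (p := q 0) ha' ((h2'.trans h1').trans hw)
    have g1 := width_rpow (p := q 1) ((ha'.trans h2').trans h1') hw
    have g2 := width_rpow (p := q 2) (ha'.trans h2') (h1'.trans hw)
    have e : (2:ℝ) ^ (qs q * ((M:ℝ) + κ)) = 2 ^ (|q 0| * ((M:ℝ) + κ)) *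
        2 ^ (|q 1| * ((M:ℝ) + κ)) * 2 ^ (|q 2| * ((M:ℝ) + κ)) := by
      rw [← Real.rpow_add (by norm_num), ← Real.rpow_add (by norm_num)]
      congr 1; unfold qs; ring
    have hrew : 1 ≤ (2:ℝ) ^ (qs q * ((M:ℝ) + κ)) *
        ((K.a * 2 ^ i) ^ q 0 * (K.w 1 * 2 ^ i) ^ q 1 * (K.w 2 * 2 ^ i) ^ q 2) := by
      rw [e]
      calc (1:ℝ) ≤ (2 ^ (|q 0| * ((M:ℝ) + κ)) * (K.a * 2 ^ i) ^ q 0) *
            (2 ^ (|q 1| * ((M:ℝ) + κ)) * (K.w 1 * 2 ^ i) ^ q 1) *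
            (2 ^ (|q 2| * ((M:ℝ) + κ)) * (K.w 2 * 2 ^ i) ^ q 2) :=
            one_le_mul_of_one_le_of_one_le (one_le_mul_of_one_le_of_one_le g0 g1) g2
        _ = _ := by ring
    have hir : (i:ℝ) ≤ g := by exact_mod_cast hi
    have h4 : 128000000 * ((M : ℝ) + 2 * κ + i + 6) ^ 2 * 8 ^ (M + κ + i) *
        (K.a * K.w 2 * K.w 1) ≤
        128000000 * ((M : ℝ) + 2 * κ + g + 6) ^ 2 * 8 ^ (M + κ + g) *
        (K.a * K.w 2 * K.w 1) := by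
      have : (8:ℝ) ^ (M + κ + i) ≤ 8 ^ (M + κ + g) :=
        pow_le_pow_right₀ (by norm_num) (by omega)
      gcongr
    refine h3.trans (h4.trans ?_)
    unfold cap5
    have h5 : 0 ≤ 128000000 * ((M : ℝ) + 2 * κ + g + 6) ^ 2 * 8 ^ (M + κ + g) *
        (K.a * K.w 2 * K.w 1) := by positivity
    calc 128000000 * ((M : ℝ) + 2 * κ + g + 6) ^ 2 * 8 ^ (M + κ + g) * (K.a * K.w 2 * K.w 1)
        ≤ 128000000 * ((M : ℝ) + 2 * κ + g + 6) ^ 2 * 8 ^ (M + κ + g) *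
          (K.a * K.w 2 * K.w 1) *
          ((2:ℝ) ^ (qs q * (M + κ)) * ((K.a * 2 ^ i) ^ q 0 * (K.w 1 * 2 ^ i) ^ q 1 *
            (K.w 2 * 2 ^ i) ^ q 2)) := le_mul_of_one_le_right h5 hrew
      _ = _ := by ring
  refine ⟨⟨⟨0, M, 1 / 2 ^ M, Λm, J, cl, fun n => cubeK (1 / 2 ^ M) (ctr n),
    128000000 * ((M : ℝ) + 2 * κ + g + 6) ^ 2 * 8 ^ (M + κ + g) * (2:ℝ) ^ (qs q * (M + κ)),
    μ * 8 ^ M⟩, g⟩, ?_, rfl, rfl, rfl, rfl, rfl, hcard5, rfl, rfl, hz, hinj, hvel⟩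
  refine ⟨⟨h.M1, by positivity, ?_, hΛ, hne, ?_, by positivity, ?_, ?_, ?_, ?_⟩, hg, hgM, ?_, ?_⟩
  · show (1:ℝ) / 2 ^ M ≤ 1 / 2 ^ (0 + M); rw [htop]
  · intro x hx y hy
    show zc4 0 x.2 = zc4 0 y.2
    rw [hz0 x hx, hz0 y hy]
  · intro x hx
    exact hL.cube _ _ _ _ hr hΛ (by show (1:ℝ) / 2 ^ M ≤ 1 / 2 ^ (0 + M); rw [htop])
  · intro x hx
    show In4 (0 + M) (cubeK (1 / 2 ^ M) (ctr (cl (ob4 (0 + M) x)))) (ob4 (0 + M) x)
    rw [htop]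
    exact hmem x hx
  · intro x hx
    show μ * 8 ^ M * cap5 q (0 + M) (cubeK (1 / 2 ^ M) (ctr (cl (ob4 (0 + M) x)))) ≤
      (((J.image (ob4 (0 + M))).filter fun o => cl o = cl (ob4 (0 + M) x)).card : ℝ)
    rw [htop, cap5_cube]
    have e2 : μ * 8 ^ M * (1 / 8 ^ M) = μ := by field_simp
    rw [e2]
    exact hmul x hx
  · intro K hK
    exact hups 0 (Nat.zero_le _) K hK
  · intro i _ hi K hK
    exact hups i (by simpa using hi) K hK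
  · intro x hx
    show 2 ^ (M + 20) ≤ 2 ^ g * ownc4 0 (0 + M) J x
    rw [htop]
    have h1 := hown x hx
    have hle : (((J.filter fun y => y.1 = x.1).image (ob4 M)).card : ℝ) ≤
        (ownc4 0 M J x : ℝ) := by
      unfold ownc4
      have hsub : (J.filter fun y => y.1 = x.1) ⊆ (J.filter fun y => ob4 0 y = ob4 0 x) := by
        intro y hy
        rw [mem_filter] at hy ⊢
        refine ⟨hy.1, ?_⟩
        unfold ob4
        rw [hy.2, hz0 y hy.1, hz0 x hx]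
      exact_mod_cast card_le_card (image_subset_image (f := ob4 M) hsub)
    have h2 : (2:ℝ) ^ ((M:ℝ) + 20) ≤ (2:ℝ) ^ (g:ℝ) * (ownc4 0 M J x : ℝ) := by
      have h3 : (2:ℝ) ^ ((1 - η) * M) ≤ 2 ^ (5:ℝ) * (ownc4 0 M J x : ℝ) := by
        have : (2:ℝ) ^ (5:ℝ) = 32 := by norm_num
        rw [this]; linarith
      have h4 : (2:ℝ) ^ ((M:ℝ) + 20) ≤ (2:ℝ) ^ ((1 - η) * M) * 2 ^ ((g:ℝ) - 5) := by
        rw [← Real.rpow_add (by norm_num)]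
        exact Real.rpow_le_rpow_of_exponent_le (by norm_num) (by linarith)
      have h5 : (0:ℝ) < (2:ℝ) ^ ((g:ℝ) - 5) := by positivity
      calc (2:ℝ) ^ ((M:ℝ) + 20) ≤ (2:ℝ) ^ ((1 - η) * M) * 2 ^ ((g:ℝ) - 5) := h4
        _ ≤ (2 ^ (5:ℝ) * (ownc4 0 M J x : ℝ)) * 2 ^ ((g:ℝ) - 5) := by gcongr
        _ = (2 ^ (5:ℝ) * 2 ^ ((g:ℝ) - 5)) * (ownc4 0 M J x : ℝ) := by ring
        _ = _ := by rw [← Real.rpow_add (by norm_num)]; congr 2; ring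
    have h6 : (2:ℝ) ^ ((M:ℝ) + 20) = ((2 ^ (M + 20) : ℕ) : ℝ) := by
      push_cast
      rw [← Real.rpow_natCast]; congr 1; push_cast; ring
    rw [h6, Real.rpow_natCast] at h2
    exact_mod_cast h2

set_option maxHeartbeats 800000 in
/-- **ENEMY**, general class, three rewards of any sign, `h` coarse levels. -/
theorem enemy6 (h : ¬ KS4) {Leg : ℕ → ℝ → ℝ → Plk4 → Prop} {κ : ℕ} (hL : ClsOK6 Leg κ) :
    ∃ b0 : ℝ, 0 < b0 ∧ ∀ q : Fin 3 → ℝ,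
    ∀ δ : ℝ, 0 < δ → ∀ M0 : ℕ, ∃ F : Cf6, Ok6 Leg q F ∧ Adm6 δ F ∧ M0 ≤ F.M ∧ F.m = 0 ∧
      F.r = 1 / 2 ^ F.M ∧ (F.I.card : ℝ) ≤ 2 ^ (5 * F.M) ∧
      (∀ x ∈ F.I, 1 / 4 ≤ x.2 ∧ x.2 ≤ 3 / 4) ∧
      (∀ x ∈ F.I, ∀ y ∈ F.I, ob4 F.M x = ob4 F.M y → x = y) ∧
      (∀ x ∈ F.I, ∀ i, |x.1.v i| ≤ 1 / 16 ∧ |x.1.p i| ≤ 3 / 64) ∧
      b0 - qs q ≤ F.toCf4.val := by
  obtain ⟨b0, hb0, hraw⟩ := enemy_raw h
  refine ⟨b0 / 4, by linarith, fun q δ0 hδ0 M0 => ?_⟩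
  have hqs : 0 ≤ qs q := by unfold qs; positivity
  -- the effective `δ`
  obtain ⟨δ, hδ, hδδ, hδ1, hδb⟩ : ∃ δ : ℝ, 0 < δ ∧ δ ≤ δ0 ∧ δ ≤ 1 ∧ 3 * δ ≤ b0 / 4 :=
    ⟨min δ0 (min 1 (b0 / 12)), by positivity, min_le_left _ _,
      (min_le_right _ _).trans (min_le_left _ _), by
        have := (min_le_right δ0 (min 1 (b0 / 12))).trans (min_le_right _ _)
        linarith⟩
  -- all constants
  set C : ℝ := 128000000 * (2 + 2 * (κ:ℝ)) ^ 2 * 8 ^ κ * (2:ℝ) ^ (qs q * κ) with hC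
  have hCp : 0 < C := by positivity
  have ev := ((poly_small (32 + 5) (by norm_num) (by positivity : 0 < δ / 2)).and
    ((poly_small C hCp (by positivity : 0 < b0 / 2)).and
      ((Filter.eventually_ge_atTop M0).and
        (Filter.eventually_ge_atTop ⌈60 / δ⌉₊)))).exists_forall_of_atTop
  obtain ⟨M1, hM1⟩ := ev
  obtain ⟨N, M, s, I, μ, hMM, hR⟩ := hraw (δ / 2) (by positivity) M1
  obtain ⟨k1, k2, k3, k4⟩ := hM1 M hMM
  have hMr : (1:ℝ) ≤ M := by exact_mod_cast hR.M1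
  have hM0 : (0:ℝ) < M := by linarith
  have hΛ : (1:ℝ) ≤ (2:ℝ) ^ (δ * M) := Real.one_le_rpow (by norm_num) (by positivity)
  have hk4 : 60 ≤ δ * M := by
    have h1 : (60 / δ : ℝ) ≤ M := (Nat.le_ceil _).trans (by exact_mod_cast k4)
    rw [div_le_iff₀ hδ] at h1; linarith
  set g : ℕ := ⌊δ * M⌋₊ with hg
  have g1 : (g:ℝ) ≤ δ * M := Nat.floor_le (by positivity)
  have g2 : δ * M - 1 ≤ g := by have := Nat.lt_floor_add_one (δ * M); rw [← hg] at this; linarith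
  have g20 : 20 ≤ g := by
    have : (20:ℝ) ≤ g := by linarith
    exact_mod_cast this
  have gM : g ≤ M := by
    have : (g:ℝ) ≤ M := g1.trans (by
      calc δ * (M:ℝ) ≤ 1 * M := mul_le_mul_of_nonneg_right hδ1 hM0.le
        _ = M := one_mul _)
    exact_mod_cast this
  obtain ⟨F, hF, hm, hM, hr, hΛm, hh, hcard, hD1, hD0, hz, hinj, hvel⟩ :=
    exists_cf6 hL hR q hΛ g20 gM (by linarith)
  have hbig : (37:ℝ) * (M + 6) ≤ (2:ℝ) ^ (δ / 2 * M) := by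
    refine le_trans ?_ k1
    have : (M:ℝ) + 6 ≤ (M + 6) ^ 2 := by nlinarith
    nlinarith
  have hmono : (2:ℝ) ^ (δ / 2 * M) ≤ (2:ℝ) ^ (δ * M) :=
    Real.rpow_le_rpow_of_exponent_le (by norm_num) (by nlinarith)
  have h5M : (5:ℝ) * M ≤ (2:ℝ) ^ (δ * M) := by
    refine le_trans ?_ (hbig.trans hmono); linarith
  have hadm : Adm6 δ F := by
    refine ⟨?_, ?_, ?_, ?_, ?_⟩
    · rw [hh, hM]; exact g1
    · -- size
      rw [hM]
      have hne : (0:ℝ) < F.I.card := by exact_mod_cast card_pos.2 hF.ne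
      calc Real.logb 2 (F.I.card : ℝ) ≤ Real.logb 2 (2 ^ (5 * M)) :=
            Real.logb_le_logb_of_le one_lt_two hne hcard
        _ = 5 * M := by
          rw [Real.logb_pow, Real.logb_self_eq_one one_lt_two, mul_one]; push_cast; ring
        _ ≤ _ := h5M
    · -- resolution
      rw [hM, hr, hm, pow_zero, mul_one, one_div_one_div, Real.logb_pow,
        Real.logb_self_eq_one one_lt_two, mul_one]
      linarith
    · rw [hM, hΛm]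
    · intro x hx i
      have := (hvel x hx i).1
      linarith
  refine ⟨F, hF, hadm.mono hδδ, by rw [hM]; exact k3, hm, by rw [hr, hM],
    by rw [hM]; exact hcard, hz, by rw [hM]; exact hinj, hvel, ?_⟩
  -- value
  unfold Cf4.val
  rw [hD1, hD0, hM, le_div_iff₀ hM0]
  have hμ : (0:ℝ) < (2:ℝ) ^ (b0 * M) := by positivity
  have e1 : (2:ℝ) ^ ((b0 / 4 - qs q) * M) ≤
      μ * 8 ^ M / (128000000 * ((M : ℝ) + 2 * κ + g + 6) ^ 2 * 8 ^ (M + κ + g) *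
        (2:ℝ) ^ (qs q * (M + κ))) := by
    rw [le_div_iff₀ (by positivity)]
    have h8 : (0:ℝ) < 8 ^ M := by positivity
    have hgr : (g:ℝ) ≤ M := by exact_mod_cast gM
    have hκ : (M:ℝ) + 2 * κ + g + 6 ≤ (2 + 2 * κ) * (M + 6) := by
      have h1 : (0:ℝ) ≤ κ := Nat.cast_nonneg κ
      have h2 : (0:ℝ) ≤ κ * M := by positivity
      have e : (2 + 2 * (κ:ℝ)) * (M + 6) = 2 * M + 12 + 2 * (κ * M) + 12 * κ := by ring
      rw [e]; linarith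
    have h8g : (8:ℝ) ^ g ≤ (2:ℝ) ^ (b0 / 4 * M) := by
      have e5 : (8:ℝ) ^ g = (2:ℝ) ^ (3 * (g:ℝ)) := by
        rw [Real.rpow_mul (by norm_num)]; norm_num
      rw [e5]
      refine Real.rpow_le_rpow_of_exponent_le (by norm_num) ?_
      calc 3 * (g:ℝ) ≤ 3 * (δ * M) := by linarith
        _ = (3 * δ) * M := by ring
        _ ≤ b0 / 4 * M := mul_le_mul_of_nonneg_right hδb hM0.le
    have h9 : 128000000 * ((M : ℝ) + 2 * κ + g + 6) ^ 2 * 8 ^ (M + κ + g) *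
        (2:ℝ) ^ (qs q * (M + κ)) ≤
        (C * ((M:ℝ) + 6) ^ 2) * ((2:ℝ) ^ (b0 / 4 * M) * 8 ^ M * (2:ℝ) ^ (qs q * M)) := by
      have e3 : (2:ℝ) ^ (qs q * ((M:ℝ) + κ)) = 2 ^ (qs q * M) * 2 ^ (qs q * κ) := by
        rw [← Real.rpow_add (by norm_num)]; congr 1; ring
      rw [e3, pow_add, pow_add]
      have e4 : ((M : ℝ) + 2 * κ + g + 6) ^ 2 ≤ ((2 + 2 * κ) * (M + 6)) ^ 2 :=
        pow_le_pow_left₀ (by positivity) hκ 2
      calc 128000000 * ((M : ℝ) + 2 * κ + g + 6) ^ 2 * (8 ^ M * 8 ^ κ * 8 ^ g) *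
            ((2:ℝ) ^ (qs q * M) * 2 ^ (qs q * κ))
          ≤ 128000000 * ((2 + 2 * κ) * ((M:ℝ) + 6)) ^ 2 *
            (8 ^ M * 8 ^ κ * (2:ℝ) ^ (b0 / 4 * M)) *
            ((2:ℝ) ^ (qs q * M) * 2 ^ (qs q * κ)) := by gcongr
        _ = _ := by rw [hC]; ring
    calc (2:ℝ) ^ ((b0 / 4 - qs q) * M) *
          (128000000 * ((M : ℝ) + 2 * κ + g + 6) ^ 2 * 8 ^ (M + κ + g) *
            (2:ℝ) ^ (qs q * (M + κ)))
        ≤ (2:ℝ) ^ ((b0 / 4 - qs q) * M) *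
          ((C * ((M:ℝ) + 6) ^ 2) * ((2:ℝ) ^ (b0 / 4 * M) * 8 ^ M * (2:ℝ) ^ (qs q * M))) := by
            gcongr
      _ = ((2:ℝ) ^ ((b0 / 4 - qs q) * M) * (2:ℝ) ^ (qs q * M)) * (2:ℝ) ^ (b0 / 4 * M) *
          (C * ((M : ℝ) + 6) ^ 2) * 8 ^ M := by ring
      _ = (2:ℝ) ^ (b0 / 2 * M) * (C * ((M : ℝ) + 6) ^ 2) * 8 ^ M := by
        rw [← Real.rpow_add (by norm_num), ← Real.rpow_add (by norm_num)]; congr 3; ring
      _ ≤ (2:ℝ) ^ (b0 / 2 * M) * (2:ℝ) ^ (b0 / 2 * M) * 8 ^ M := by gcongr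
      _ = (2:ℝ) ^ (b0 * M) * 8 ^ M := by
        rw [← Real.rpow_add (by norm_num)]; congr 2; ring
      _ ≤ μ * 8 ^ M := by
        have := hR.big
        gcongr
  have e2 := Real.logb_le_logb_of_le one_lt_two (by positivity) e1
  rw [Real.logb_rpow (by norm_num) (by norm_num)] at e2
  linarith

end

end Crest.Agent.R136.K4
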