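import Crest.Agent.R136.XA1_248
import Crest.Agent.R136.KDef6_879

/-!
# R136 (U4): configurations and codes (helper289)

* `GeoOf` : geometry of sheets for codes `ℓ : ℕ → Ln4` and a legality predicate `Lg`;
* `enc`   : incidences of codes as incidences of lines;
* `exists_cf6` : a family of codes with honest classes over the levels `[i, j]` is a configuration.
-/

set_option autoImplicit false
set_option linter.unusedVariables false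

open Finset

namespace Crest.Agent.R136.Cod289

open Sh605 K4 KS879 En879 XA248
open Crest.Agent.R138.Mk163 (zc zl rho alive own)
open Crest.Agent.R138.MkRef627 (mem_alive)
open MkA627 (Geo)

noncomputable section

/-- replace the cell index -/
def atJ (J : ℤ) (s : Plk4) : Plk4 := { s with j := J }

/-- geometry of sheets for the codes `ℓ`, stage `n` -/
structure GeoOf (G : Geo Plk4 (Fin 3)) (ℓ : ℕ → Ln4) (q : Fin 3 → ℝ) (n : ℕ)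
    (Lg : ℕ → Plk4 → Prop) : Prop where
  mem : ∀ (i : ℕ) (J : ℤ) (s : Plk4) (t : ℕ), G.mem n i J s t ↔
    InSheet (ℓ t) s.e s.c s.w s.q s.a (zl i J) (rho i)
  adm : ∀ (i : ℕ) (J : ℤ) (s : Plk4), G.adm n i J s ↔ Lg i (atJ J s)
  val : ∀ (i : ℕ) (J : ℤ) (s : Plk4), G.val n i J s = s.a * s.w 2 * s.w 1 *
    ((s.a / rho i) ^ q 0 * (s.w 1 / rho i) ^ q 1 * (s.w 2 / rho i) ^ q 2)
  wid : ∀ (k : Fin 3) (s : Plk4), G.wid k s = ![s.a, s.w 1, s.w 2] k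

theorem zc_eq (i : ℕ) (z : ℝ) : zc i z = zc4 i z := rfl

theorem div_rho (x : ℝ) (i : ℕ) : x / rho i = x * 2 ^ i := by
  unfold rho
  rw [div_div_eq_mul_div, div_one]

variable {G : Geo Plk4 (Fin 3)} {ℓ : ℕ → Ln4} {q : Fin 3 → ℝ} {n : ℕ} {Lg : ℕ → Plk4 → Prop}

theorem GeoOf.mem_iff (hG : GeoOf G ℓ q n Lg) (i : ℕ) (J : ℤ) (s : Plk4) (t : ℕ) :
    G.mem n i J s t ↔ In4 i (atJ J s) (ℓ t, J) := by
  rw [hG.mem]
  unfold In4 atJ
  constructor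
  · intro h; exact ⟨rfl, h⟩
  · intro h; exact h.2

/-- sizes -/
theorem GeoOf.valx_eq (hG : GeoOf G ℓ q n Lg) (x : Fin 3 → ℝ) (i : ℕ) (J : ℤ) {s : Plk4}
    (ha : 0 < s.a) (h2 : 0 < s.w 2) (h1 : 0 < s.w 1) :
    valx G x n i J s = cap5 (q + x) i (atJ J s) := by
  have hp : (0:ℝ) < 2 ^ i := by positivity
  unfold valx rew wv cap5
  rw [hG.val, Fin.prod_univ_three, hG.wid, hG.wid, hG.wid]
  simp only [div_rho, Pi.add_apply, atJ, Matrix.cons_val_zero, Matrix.cons_val_one,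
    Matrix.cons_val]
  rw [Real.rpow_add (by positivity), Real.rpow_add (by positivity),
    Real.rpow_add (by positivity)]
  ring

/-! ### codes and lines -/

open Classical in
/-- incidences of codes as incidences of lines -/
def enc (ℓ : ℕ → Ln4) (A : Finset (ℕ × ℝ)) : Finset (Ln4 × ℝ) :=
  A.image fun x => (ℓ x.1, x.2)

/-- `ℓ` is injective on the codes of `A` -/
def Inj (ℓ : ℕ → Ln4) (A : Finset (ℕ × ℝ)) : Prop :=
  ∀ x ∈ A, ∀ y ∈ A, ℓ x.1 = ℓ y.1 → x.1 = y.1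

theorem mem_enc {A : Finset (ℕ × ℝ)} {y : Ln4 × ℝ} :
    y ∈ enc ℓ A ↔ ∃ x ∈ A, (ℓ x.1, x.2) = y := by
  classical
  unfold enc
  rw [mem_image]

open Classical in
/-- code of a line -/
def dec (ℓ : ℕ → Ln4) (A : Finset (ℕ × ℝ)) (l : Ln4) : ℕ :=
  if h : ∃ x ∈ A, ℓ x.1 = l then h.choose.1 else 0

theorem dec_eq {A : Finset (ℕ × ℝ)} (hi : Inj ℓ A) {x : ℕ × ℝ} (hx : x ∈ A) :
    dec ℓ A (ℓ x.1) = x.1 := by
  have h : ∃ y ∈ A, ℓ y.1 = ℓ x.1 := ⟨x, hx, rfl⟩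
  unfold dec
  rw [dif_pos h]
  exact hi _ h.choose_spec.1 _ hx h.choose_spec.2

open Classical in
/-- **objects and alive codes** -/
theorem card_objs (hG : GeoOf G ℓ q n Lg) {A : Finset (ℕ × ℝ)} (hi : Inj ℓ A) (i : ℕ)
    (K : Plk4) :
    (objs4 i (enc ℓ A) K).card =
      ((alive A i K.j).filter fun t => G.mem n i K.j K t).card := by
  classical
  refine card_bij' (fun o _ => dec ℓ A o.1) (fun t _ => (ℓ t, K.j)) ?_ ?_ ?_ ?_
  · intro o ho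
    unfold objs4 at ho
    rw [mem_filter] at ho
    obtain ⟨ho1, ho2⟩ := ho
    obtain ⟨y, hy, rfl⟩ := mem_image.1 ho1
    obtain ⟨x, hx, rfl⟩ := mem_enc.1 hy
    have e1 : dec ℓ A (ℓ x.1) = x.1 := dec_eq hi hx
    show dec ℓ A (ℓ x.1) ∈ _
    rw [e1, mem_filter, mem_alive]
    exact ⟨⟨x, hx, rfl, ho2.1⟩, (hG.mem_iff _ _ _ _).2 ⟨rfl, ho2.2⟩⟩
  · intro t ht
    rw [mem_filter, mem_alive] at ht
    obtain ⟨⟨x, hx, hx1, hx2⟩, ht2⟩ := ht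
    unfold objs4
    rw [mem_filter]
    refine ⟨mem_image.2 ⟨(ℓ x.1, x.2), mem_enc.2 ⟨x, hx, rfl⟩, ?_⟩, ?_⟩
    · unfold ob4
      show (ℓ x.1, zc4 i x.2) = (ℓ t, K.j)
      rw [hx1, ← hx2]; rfl
    · exact (hG.mem_iff _ _ _ _).1 ht2
  · intro o ho
    unfold objs4 at ho
    rw [mem_filter] at ho
    obtain ⟨ho1, ho2⟩ := ho
    obtain ⟨y, hy, rfl⟩ := mem_image.1 ho1
    obtain ⟨x, hx, rfl⟩ := mem_enc.1 hy
    show (ℓ (dec ℓ A (ℓ x.1)), K.j) = _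
    rw [dec_eq hi hx]
    exact Prod.ext rfl ho2.1.symm
  · intro t ht
    rw [mem_filter, mem_alive] at ht
    obtain ⟨⟨x, hx, hx1, hx2⟩, ht2⟩ := ht
    show dec ℓ A (ℓ t) = t
    rw [← hx1]
    exact dec_eq hi hx

open Classical in
/-- own cells -/
theorem ownc4_enc {A : Finset (ℕ × ℝ)} (hi : Inj ℓ A) (i j : ℕ) {x : ℕ × ℝ} (hx : x ∈ A) :
    ownc4 i j (enc ℓ A) (ℓ x.1, x.2) = (own A i j x).card := by
  classical
  unfold ownc4 own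
  refine card_bij' (fun o _ => o.2) (fun J _ => (ℓ x.1, J)) ?_ ?_ ?_ ?_
  · intro o ho
    obtain ⟨y, hy, rfl⟩ := mem_image.1 ho
    rw [mem_filter] at hy
    obtain ⟨hy1, hy2⟩ := hy
    obtain ⟨u, hu, rfl⟩ := mem_enc.1 hy1
    unfold ob4 at hy2
    rw [Prod.ext_iff] at hy2
    refine mem_image.2 ⟨u, mem_filter.2 ⟨hu, hi u hu x hx hy2.1, hy2.2⟩, rfl⟩
  · intro J hJ
    obtain ⟨u, hu, rfl⟩ := mem_image.1 hJ
    rw [mem_filter] at hu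
    refine mem_image.2 ⟨(ℓ u.1, u.2), mem_filter.2 ⟨mem_enc.2 ⟨u, hu.1, rfl⟩, ?_⟩, ?_⟩
    · unfold ob4
      exact Prod.ext (by show ℓ u.1 = ℓ x.1; rw [hu.2.1]) hu.2.2
    · unfold ob4
      exact Prod.ext (by show ℓ u.1 = ℓ x.1; rw [hu.2.1]) rfl
  · intro o ho
    obtain ⟨y, hy, rfl⟩ := mem_image.1 ho
    rw [mem_filter] at hy
    obtain ⟨hy1, hy2⟩ := hy
    unfold ob4 at hy2 ⊢
    rw [Prod.ext_iff] at hy2
    exact Prod.ext hy2.1.symm rfl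
  · intro J hJ
    rfl

/-! ### classes -/

/-- integers as naturals -/
def zn (J : ℤ) : ℕ := Equiv.intEquivNat J
/-- naturals as integers -/
def nz (m : ℕ) : ℤ := Equiv.intEquivNat.symm m

theorem nz_zn (J : ℤ) : nz (zn J) = J := Equiv.symm_apply_apply _ _

/-- class of an object -/
def clO (ℓ : ℕ → Ln4) (A : Finset (ℕ × ℝ)) (c : ℕ → ℤ → ℕ) (o : Ln4 × ℤ) : ℕ :=
  Nat.pair (c (dec ℓ A o.1) o.2) (zn o.2)

/-- sheet of a class -/
def KO (b : ℕ → Plk4) (m : ℕ) : Plk4 := atJ (nz (Nat.unpair m).2) (b (Nat.unpair m).1)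

theorem KO_clO (A : Finset (ℕ × ℝ)) (c : ℕ → ℤ → ℕ) (b : ℕ → Plk4) (o : Ln4 × ℤ) :
    KO b (clO ℓ A c o) = atJ o.2 (b (c (dec ℓ A o.1) o.2)) := by
  unfold KO clO
  rw [Nat.unpair_pair]
  simp only [nz_zn]

/-- the configuration of a family of codes -/
def cfO (ℓ : ℕ → Ln4) (A : Finset (ℕ × ℝ)) (i j h : ℕ) (r Λ : ℝ) (c : ℕ → ℤ → ℕ)
    (b : ℕ → Plk4) (D0 D1 : ℝ) : Cf6 :=
  ⟨⟨i, j - i, r, Λ, enc ℓ A, clO ℓ A c, KO b, D0, D1⟩, h⟩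

theorem cfO_top (A : Finset (ℕ × ℝ)) {i j : ℕ} (hij : i ≤ j) (h : ℕ) (r Λ : ℝ)
    (c : ℕ → ℤ → ℕ) (b : ℕ → Plk4) (D0 D1 : ℝ) :
    (cfO ℓ A i j h r Λ c b D0 D1).top = j := by
  show i + (j - i) = j
  omega

/-- top sheet of an incidence -/
theorem cfO_K {A : Finset (ℕ × ℝ)} (hi : Inj ℓ A) {i j : ℕ} (hij : i ≤ j) (h : ℕ) (r Λ : ℝ)
    (c : ℕ → ℤ → ℕ) (b : ℕ → Plk4) (D0 D1 : ℝ) {x : ℕ × ℝ} (hx : x ∈ A) :
    (cfO ℓ A i j h r Λ c b D0 D1).K ((cfO ℓ A i j h r Λ c b D0 D1).cl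
      (ob4 (cfO ℓ A i j h r Λ c b D0 D1).top (ℓ x.1, x.2))) =
      atJ (zc j x.2) (b (c x.1 (zc j x.2))) := by
  rw [cfO_top A hij]
  show KO b (clO ℓ A c (ob4 j (ℓ x.1, x.2))) = _
  rw [KO_clO]
  unfold ob4
  show atJ (zc4 j x.2) (b (c (dec ℓ A (ℓ x.1)) (zc4 j x.2))) = _
  rw [dec_eq hi hx]
  rfl

/-- number of own cells is at most `2 ^ (j - i)` -/
theorem own_le (A : Finset (ℕ × ℝ)) {i j : ℕ} (hij : i ≤ j) (x : ℕ × ℝ) :
    (own A i j x).card ≤ 2 ^ (j - i) := by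
  classical
  have hk : (0:ℤ) < 2 ^ (j - i) := by positivity
  have hsub : own A i j x ⊆
      Ico (zc i x.2 * 2 ^ (j - i)) (zc i x.2 * 2 ^ (j - i) + 2 ^ (j - i)) := by
    intro J hJ
    unfold own at hJ
    obtain ⟨y, hy, rfl⟩ := mem_image.1 hJ
    rw [mem_filter] at hy
    have h1 := Int.floor_le ((2:ℝ) ^ j * y.2)
    have h2 := Int.lt_floor_add_one ((2:ℝ) ^ j * y.2)
    have g1 := Int.floor_le ((2:ℝ) ^ i * y.2)
    have g2 := Int.lt_floor_add_one ((2:ℝ) ^ i * y.2)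
    have e : (2:ℝ) ^ j = 2 ^ i * 2 ^ (j - i) := by rw [← pow_add]; congr 1; omega
    have hp : (0:ℝ) < 2 ^ (j - i) := by positivity
    rw [← hy.2.2, mem_Ico]
    unfold zc
    constructor
    · rw [Int.le_floor]
      push_cast
      rw [e]
      nlinarith
    · have h3 : ((⌊(2:ℝ) ^ j * y.2⌋ : ℤ) : ℝ) <
          ((⌊(2:ℝ) ^ i * y.2⌋ * 2 ^ (j - i) + 2 ^ (j - i) : ℤ) : ℝ) := by
        push_cast
        refine lt_of_le_of_lt h1 ?_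
        rw [e]
        nlinarith
      exact_mod_cast h3
  refine (card_le_card hsub).trans ?_
  rw [Int.card_Ico, add_sub_cancel_left]
  have : ((2:ℤ) ^ (j - i)).toNat = 2 ^ (j - i) := by
    rw [show (2:ℤ) ^ (j - i) = ((2 ^ (j - i) : ℕ) : ℤ) by push_cast; rfl, Int.toNat_natCast]
  rw [this]

open Classical in
/-- **a family of codes with honest classes over the levels `[i, j]` is a configuration** -/
theorem cfO_ok {Leg : ℕ → ℝ → ℝ → Plk4 → Prop} {r Λ : ℝ}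
    (hG : GeoOf G ℓ q n fun i K => Leg i r Λ K)
    (hpos : ∀ i K, Leg i r Λ K → 0 < K.a ∧ 0 < K.w 2 ∧ 0 < K.w 1)
    (hr : 0 < r) (hΛ : 1 ≤ Λ) {x : Fin 3 → ℝ} {i j h : ℕ} (hij : i < j) (hrj : r ≤ 1 / 2 ^ j)
    {A : Finset (ℕ × ℝ)} (hi : Inj ℓ A) (hne : A.Nonempty)
    (hcell : ∀ x ∈ A, ∀ y ∈ A, zc i x.2 = zc i y.2)
    (hown : ∀ x ∈ A, 2 ^ (j - i + 20) ≤ 2 ^ h * (own A i j x).card) (hh : h ≤ j - i)
    {R : Rel (Fin 3)} {c : ℕ → ℤ → ℕ} {b : ℕ → Plk4} {w : Fin 3 → ℝ} {D0 D1 : ℝ}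
    (hD1 : 0 < D1) (hcl : IsCl G n j A c b w) (hlow : Low G x n j A c b D1)
    (hR : ∀ l J s, G.adm n l J s → R l (wv G s) j w)
    (hup : ∀ l : ℕ, i ≤ l → l ≤ i + h → Up G R x n l A j w D0) :
    Ok6 Leg (q + x) (cfO ℓ A i j h r Λ c b D0 D1) := by
  have et : (cfO ℓ A i j h r Λ c b D0 D1).top = j := cfO_top A hij.le h r Λ c b D0 D1
  have hmemA : ∀ y ∈ (cfO ℓ A i j h r Λ c b D0 D1).I, ∃ x ∈ A, (ℓ x.1, x.2) = y :=
    fun y hy => mem_enc.1 hy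
  have hal : ∀ x ∈ A, x.1 ∈ alive A j (zc j x.2) := fun x hx => mem_alive.2 ⟨x, hx, rfl, rfl⟩
  have hups : ∀ l, i ≤ l → l ≤ i + h → ∀ K, Leg l r Λ K →
      ((objs4 l (enc ℓ A) K).card : ℝ) ≤ D0 * cap5 (q + x) l K := by
    intro l h1 h2 K hK
    have hK' : G.adm n l K.j K := (hG.adm _ _ _).2 hK
    have h3 := hup l h1 h2 K.j K hK' (hR l K.j K hK')
    obtain ⟨pa, p2, p1⟩ := hpos l K hK
    rw [hG.valx_eq x l K.j pa p2 p1] at h3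
    rw [card_objs hG hi l K]
    exact h3
  refine ⟨⟨?_, hr, ?_, hΛ, ?_, ?_, hD1, ?_, ?_, ?_, ?_⟩, ?_, hh, ?_, ?_⟩
  · show 1 ≤ j - i; omega
  · rw [et]; exact hrj
  · obtain ⟨x, hx⟩ := hne
    exact ⟨_, mem_enc.2 ⟨x, hx, rfl⟩⟩
  · intro y hy y' hy'
    obtain ⟨u, hu, rfl⟩ := hmemA y hy
    obtain ⟨v, hv, rfl⟩ := hmemA y' hy'
    exact hcell u hu v hv
  · intro y hy
    obtain ⟨u, hu, rfl⟩ := hmemA y hy
    rw [cfO_K hi hij.le h r Λ c b D0 D1 hu, et]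
    exact (hG.adm _ _ _).1 (hcl _ _ (hal u hu)).2.1
  · intro y hy
    obtain ⟨u, hu, rfl⟩ := hmemA y hy
    rw [cfO_K hi hij.le h r Λ c b D0 D1 hu, et]
    exact (hG.mem_iff _ _ _ _).1 (hcl _ _ (hal u hu)).1
  · intro y hy
    obtain ⟨u, hu, rfl⟩ := hmemA y hy
    rw [cfO_K hi hij.le h r Λ c b D0 D1 hu, et]
    have h1 := hlow _ _ (hal u hu)
    obtain ⟨pa, p2, p1⟩ := hpos _ _ ((hG.adm _ _ _).1 (hcl _ _ (hal u hu)).2.1)
    rw [hG.valx_eq x j (zc j u.2) (s := b (c u.1 (zc j u.2))) pa p2 p1] at h1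
    refine h1.trans (Nat.cast_le.2 ?_)
    unfold Cf4.cls
    refine card_le_card_of_injOn (fun s => (ℓ s, zc j u.2)) (fun s hs => ?_) ?_
    · rw [Finset.mem_coe, mem_filter, mem_alive] at hs
      obtain ⟨⟨v, hv, hv1, hv2⟩, hs2⟩ := hs
      rw [Finset.mem_coe, et, mem_filter]
      refine ⟨mem_image.2 ⟨(ℓ v.1, v.2), mem_enc.2 ⟨v, hv, rfl⟩, ?_⟩, ?_⟩
      · unfold ob4
        show (ℓ v.1, zc4 j v.2) = (ℓ s, zc j u.2)
        rw [hv1, ← hv2]; rfl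
      · show clO ℓ A c (ℓ s, zc j u.2) = clO ℓ A c (ob4 j (ℓ u.1, u.2))
        unfold clO ob4
        show Nat.pair (c (dec ℓ A (ℓ s)) (zc j u.2)) (zn (zc j u.2)) =
          Nat.pair (c (dec ℓ A (ℓ u.1)) (zc4 j u.2)) (zn (zc4 j u.2))
        rw [dec_eq hi hu, ← hv1, dec_eq hi hv, hv1, hs2]
        rfl
    · intro s hs s' hs' hss
      rw [Finset.mem_coe, mem_filter, mem_alive] at hs hs'
      obtain ⟨⟨v, hv, hv1, hv2⟩, -⟩ := hs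
      obtain ⟨⟨v', hv', hv1', hv2'⟩, -⟩ := hs'
      have h2 : ℓ s = ℓ s' := (Prod.ext_iff.1 hss).1
      rw [← hv1, ← hv1'] at h2 ⊢
      exact hi v hv v' hv' h2
  · intro K hK
    exact hups i le_rfl (Nat.le_add_right _ _) K hK
  · -- 20 ≤ h
    obtain ⟨x, hx⟩ := hne
    have h1 := hown x hx
    have h2 := own_le A hij.le x
    have h3 : 2 ^ (j - i + 20) ≤ 2 ^ h * 2 ^ (j - i) := h1.trans (Nat.mul_le_mul_left _ h2)
    rw [← pow_add] at h3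
    have h4 := (Nat.pow_le_pow_iff_right (by norm_num : 1 < 2)).1 h3
    show 20 ≤ h
    omega
  · intro l h1 h2 K hK
    exact hups l h1 h2 K hK
  · intro y hy
    obtain ⟨u, hu, rfl⟩ := hmemA y hy
    rw [et]
    show 2 ^ (j - i + 20) ≤ 2 ^ h * ownc4 i j (enc ℓ A) (ℓ u.1, u.2)
    rw [ownc4_enc hi i j hu]
    exact hown u hu

end

end Crest.Agent.R136.Cod289
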