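import Crest.Agent.R136.Cap2_102

/-!
# R136 (S0187): two sheets through a common line, transition of tangent coordinates (helper102)

Base sheet `(e, c, w, q)`, second sheet `(e', c', w', q')`, common line `T`;
`q' = m q + ω`, `ω` in the basis `(κ f 0, E 1, E 2)` of the base sheet.
-/

set_option autoImplicit false

namespace Crest.Agent.R136.Tl102

open Crest.Agent.R136.Sh605

/-! ### vectors in plank coordinates -/

/-- plank coordinates of a vector -/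
noncomputable def pv (e : Fin 3 → V3) (w : V3) (V : V3) : V3 := fun k => dt (e k) V / w k

theorem pc_pv (e : Fin 3 → V3) (w : V3) (T : Ln4) (z : ℝ) (X : V3) :
    pc e w T z X = pv e w (X - T.pos z) := rfl

theorem cmb_pv {e : Fin 3 → V3} (he : Ortho e) {w : V3} (hw : ∀ k, w k ≠ 0) (V : V3) :
    cmb (fr e w) (pv e w V) = V := by
  have h := cmb_pc he hw ⟨0, 0⟩ 0 V
  have h0 : (⟨0, 0⟩ : Ln4).pos 0 = 0 := by
    funext i; simp [Ln4.pos]
  rw [pc_pv, h0, sub_zero, zero_add] at h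
  exact h

/-- an entry of the transition matrix of two orthonormal frames -/
theorem dt_le_one {e e' : Fin 3 → V3} (he : Ortho e) (he' : Ortho e') (i j : Fin 3) :
    |dt (e i) (e' j)| ≤ 1 := by
  have h1 : dt (e i) (e i) = 1 := by simpa using he i i
  have h2 : dt (e' j) (e' j) = 1 := by simpa using he' j j
  have h3 : 0 ≤ dt (e i - e' j) (e i - e' j) := by
    simp only [dt]; nlinarith [sq_nonneg ((e i - e' j) 0), sq_nonneg ((e i - e' j) 1),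
      sq_nonneg ((e i - e' j) 2)]
  have h4 : 0 ≤ dt (e i + e' j) (e i + e' j) := by
    simp only [dt]; nlinarith [sq_nonneg ((e i + e' j) 0), sq_nonneg ((e i + e' j) 1),
      sq_nonneg ((e i + e' j) 2)]
  have e3 : dt (e i - e' j) (e i - e' j) = dt (e i) (e i) + dt (e' j) (e' j) -
      2 * dt (e i) (e' j) := by
    simp only [dt, Pi.sub_apply]; ring
  have e4 : dt (e i + e' j) (e i + e' j) = dt (e i) (e i) + dt (e' j) (e' j) +
      2 * dt (e i) (e' j) := by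
    simp only [dt, Pi.add_apply]; ring
  rw [abs_le]
  constructor <;> linarith

/-- scaled tangent coordinates of a vector -/
noncomputable def tv (κ : ℝ) (b0 : V3) (e : Fin 3 → V3) (w : V3) (V : V3) : V3 :=
  sD κ b0 (pv e w V)

theorem tv_add (κ : ℝ) (b0 : V3) (e : Fin 3 → V3) (w : V3) (U V : V3) :
    tv κ b0 e w (U + V) = tv κ b0 e w U + tv κ b0 e w V := by
  ext k
  fin_cases k
  · change yc b0 (pv e w (U + V)) / κ = yc b0 (pv e w U) / κ + yc b0 (pv e w V) / κ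
    simp only [yc, pv, dt_add]; ring
  · change dt (e 1) (U + V) / w 1 = dt (e 1) U / w 1 + dt (e 1) V / w 1
    rw [dt_add]; ring
  · change dt (e 2) (U + V) / w 2 = dt (e 2) U / w 2 + dt (e 2) V / w 2
    rw [dt_add]; ring

theorem tv_smul (κ : ℝ) (b0 : V3) (e : Fin 3 → V3) (w : V3) (t : ℝ) (V : V3) :
    tv κ b0 e w (t • V) = t • tv κ b0 e w V := by
  ext k
  fin_cases k
  · change yc b0 (pv e w (t • V)) / κ = t * (yc b0 (pv e w V) / κ)
    simp only [yc, pv, dt_smul]; ring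
  · change dt (e 1) (t • V) / w 1 = t * (dt (e 1) V / w 1)
    rw [dt_smul]; ring
  · change dt (e 2) (t • V) / w 2 = t * (dt (e 2) V / w 2)
    rw [dt_smul]; ring

/-! ### the same function in two frames -/

/-- **the expansions of one function in two frames** -/
theorem cross {q' : ℝ → V3 → ℝ} {e e' : Fin 3 → V3} (he : Ortho e) (he' : Ortho e') {w w' : V3}
    (hw : ∀ k, w k ≠ 0) (hw' : ∀ k, w' k ≠ 0) {T : Ln4} {z0 ρ : ℝ} {b0' b1' : V3} {G' : QF}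
    (hE' : IsExp q' e w T z0 ρ b0' b1' G') {d0 d1 : V3} {H : QF}
    (hH : IsExp q' e' w' T z0 ρ d0 d1 H) (V : V3) :
    w 0 * dt b0' (pv e w V) = w' 0 * dt d0 (pv e' w' V) ∧
      w 0 * dt b1' (pv e w V) = w' 0 * dt d1 (pv e' w' V) ∧
      w 0 * G'.ev (pv e w V) = w' 0 * H.ev (pv e' w' V) := by
  have h : ∀ ζ t : ℝ, w 0 * Fq b0' b1' G' ζ (pv e w (t • V)) =
      w' 0 * Fq d0 d1 H ζ (pv e' w' (t • V)) := by
    intro ζ t
    have h1 := hE' ζ (pv e w (t • V))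
    have h2 := hH ζ (pv e' w' (t • V))
    rw [cmb_pv he hw] at h1
    rw [cmb_pv he' hw'] at h2
    linarith
  have f : ∀ (b c : V3) (M : QF) (e : Fin 3 → V3) (w : V3) (ζ t : ℝ),
      Fq b c M ζ (pv e w (t • V)) = t * (dt b (pv e w V) + ζ * dt c (pv e w V)) +
        t ^ 2 * M.ev (pv e w V) := by
    intro b c M e w ζ t
    simp only [Fq, bz, dt, QF.ev, pv, Pi.smul_apply, smul_eq_mul]
    ring
  have h1 := h 0 1
  have h2 := h 0 (-1)
  have h3 := h 1 1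
  rw [f, f] at h1 h2 h3
  refine ⟨by linarith, by linarith, by linarith⟩

/-- linear part of `ω = q' - m q` -/
noncomputable def om0 (κ : ℝ) (b0 b0' : V3) : V3 :=
  gl κ (b0 1 / b0 0) (b0 2 / b0 0) (fun k => b0' k - b0' 0 / b0 0 * b0 k)

/-- rotation part of `ω` -/
noncomputable def om1 (κ : ℝ) (b0 b1 b0' b1' : V3) : V3 :=
  gl κ (b0 1 / b0 0) (b0 2 / b0 0) (fun k => b1' k - b0' 0 / b0 0 * b1 k)

/-- second order part of `ω` -/
noncomputable def omM (κ : ℝ) (b0 : V3) (G : QF) (b0' : V3) (G' : QF) : QF :=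
  gM κ (b0 1 / b0 0) (b0 2 / b0 0) (QF.comb (b0' 0 / b0 0) G' G)

theorem om0_zero (κ : ℝ) {b0 : V3} (h : b0 0 ≠ 0) (b0' : V3) : om0 κ b0 b0' 0 = 0 := by
  change b0' 0 - b0' 0 / b0 0 * b0 0 = 0
  rw [div_mul_cancel₀ _ h, sub_self]

/-- **`q' = m q + ω`** -/
theorem om_val {q q' : ℝ → V3 → ℝ} {e : Fin 3 → V3} (he : Ortho e) {w : V3} (hw : ∀ k, w k ≠ 0)
    {T : Ln4} {z0 ρ : ℝ} {b0 b1 : V3} {G : QF} (hE : IsExp q e w T z0 ρ b0 b1 G)
    {b0' b1' : V3} {G' : QF} (hE' : IsExp q' e w T z0 ρ b0' b1' G') {κ : ℝ} (hκ : κ ≠ 0)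
    (ζ : ℝ) (X : V3) :
    q' (z0 + ρ * ζ) X - q' (z0 + ρ * ζ) (T.pos (z0 + ρ * ζ)) -
      b0' 0 / b0 0 * (q (z0 + ρ * ζ) X - q (z0 + ρ * ζ) (T.pos (z0 + ρ * ζ))) = w 0 * κ *
        Fq (om0 κ b0 b0') (om1 κ b0 b1 b0' b1') (omM κ b0 G b0' G') ζ
          (tv κ b0 e w (X - T.pos (z0 + ρ * ζ))) := by
  have hEω : IsExp (fun z X => q' z X - b0' 0 / b0 0 * q z X) e w T z0 ρ
      (fun k => b0' k - b0' 0 / b0 0 * b0 k) (fun k => b1' k - b0' 0 / b0 0 * b1 k)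
      (QF.comb (b0' 0 / b0 0) G' G) := by
    intro ζ x
    have h1 := hE ζ x
    have h2 := hE' ζ x
    beta_reduce
    rw [h1, h2, Fq_comb]
    ring
  have := hEω.at he hw hκ b0 ζ X
  rw [pc_pv] at this
  change _ = w 0 * κ * Fq (om0 κ b0 b0') (om1 κ b0 b1 b0' b1') (omM κ b0 G b0' G') ζ
    (sD κ b0 (pv e w (X - T.pos (z0 + ρ * ζ))))
  unfold om0 om1 omM
  linarith

/-- the own function in scaled tangent coordinates -/
theorem own_val {q : ℝ → V3 → ℝ} {e : Fin 3 → V3} (he : Ortho e) {w : V3} (hw : ∀ k, w k ≠ 0)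
    {T : Ln4} {z0 ρ : ℝ} {b0 b1 : V3} {G : QF} (hE : IsExp q e w T z0 ρ b0 b1 G)
    (hb0 : b0 0 ≠ 0) {κ : ℝ} (hκ : κ ≠ 0) (ζ : ℝ) (X : V3) :
    q (z0 + ρ * ζ) X - q (z0 + ρ * ζ) (T.pos (z0 + ρ * ζ)) = w 0 * κ *
      Fq (shB0 b0) (scB1 κ b0 b1) (scG κ b0 G) ζ (tv κ b0 e w (X - T.pos (z0 + ρ * ζ))) := by
  have := hE.at he hw hκ b0 ζ X
  rw [gl_own hb0, gl_own1, gM_own, pc_pv] at this
  change _ = w 0 * κ * Fq (shB0 b0) (scB1 κ b0 b1) (scG κ b0 G) ζ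
    (sD κ b0 (pv e w (X - T.pos (z0 + ρ * ζ))))
  linarith

/-- coefficients of `ω` (units `w 0 * κ`): the coefficient of `ζ y` at most `Y`, the second order
coefficients with `y` at most `Z`, the other ones at most `X` -/
structure OmB (κ X Y Z : ℝ) (b0 b1 : V3) (G : QF) (b0' b1' : V3) (G' : QF) : Prop where
  h01 : |om0 κ b0 b0' 1| ≤ X
  h02 : |om0 κ b0 b0' 2| ≤ X
  h11 : |om1 κ b0 b1 b0' b1' 1| ≤ X
  h12 : |om1 κ b0 b1 b0' b1' 2| ≤ X
  uu : |(omM κ b0 G b0' G').uu| ≤ X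
  uv : |(omM κ b0 G b0' G').uv| ≤ X
  vv : |(omM κ b0 G b0' G').vv| ≤ X
  y1 : |om1 κ b0 b1 b0' b1' 0| ≤ Y
  yy : |(omM κ b0 G b0' G').yy| ≤ Z
  yu : |(omM κ b0 G b0' G').yu| ≤ Z
  yv : |(omM κ b0 G b0' G').yv| ≤ Z

theorem OmB.nonneg {κ X Y Z : ℝ} {b0 b1 : V3} {G : QF} {b0' b1' : V3} {G' : QF}
    (O : OmB κ X Y Z b0 b1 G b0' b1' G') : 0 ≤ X ∧ 0 ≤ Y ∧ 0 ≤ Z :=
  ⟨(abs_nonneg _).trans O.h01, (abs_nonneg _).trans O.y1, (abs_nonneg _).trans O.yy⟩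

/-- all coefficients at most `X` -/
theorem OmB.of_le {κ X : ℝ} {b0 b1 : V3} {G : QF} {b0' b1' : V3} {G' : QF}
    (h0 : ∀ k, |om0 κ b0 b0' k| ≤ X) (h1 : ∀ k, |om1 κ b0 b1 b0' b1' k| ≤ X)
    (hM : (omM κ b0 G b0' G').Le X) : OmB κ X X X b0 b1 G b0' b1' G' where
  h01 := h0 1
  h02 := h0 2
  h11 := h1 1
  h12 := h1 2
  uu := hM.2.2.2.1
  uv := hM.2.2.2.2.1
  vv := hM.2.2.2.2.2
  y1 := h1 0
  yy := hM.1
  yu := hM.2.1
  yv := hM.2.2.1

/-- evaluation of `ω` -/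
theorem OmB.le {κ X Y Z : ℝ} {b0 b1 : V3} {G : QF} {b0' b1' : V3} {G' : QF}
    (O : OmB κ X Y Z b0 b1 G b0' b1' G') (hb0 : b0 0 ≠ 0) {ζ h t : ℝ} {p : V3} (hζ : |ζ| ≤ 1)
    (h0 : |p 0| ≤ h) (h1 : |p 1| ≤ t) (h2 : |p 2| ≤ t) :
    |Fq (om0 κ b0 b0') (om1 κ b0 b1 b0' b1') (omM κ b0 G b0' G') ζ p| ≤
      Y * h + Z * (h ^ 2 + 2 * (h * t)) + X * (4 * t + 3 * t ^ 2) := by
  have z0 := om0_zero κ hb0 b0'
  have e : Fq (om0 κ b0 b0') (om1 κ b0 b1 b0' b1') (omM κ b0 G b0' G') ζ p =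
      (ζ * om1 κ b0 b1 b0' b1' 0 * p 0 + (omM κ b0 G b0' G').yy * (p 0 * p 0) +
        ((omM κ b0 G b0' G').yu * (p 0 * p 1) + (omM κ b0 G b0' G').yv * (p 0 * p 2))) +
      ((om0 κ b0 b0' 1 * p 1 + om0 κ b0 b0' 2 * p 2) +
        (ζ * om1 κ b0 b1 b0' b1' 1 * p 1 + ζ * om1 κ b0 b1 b0' b1' 2 * p 2) +
        ((omM κ b0 G b0' G').uu * (p 1 * p 1) + (omM κ b0 G b0' G').uv * (p 1 * p 2) +
          (omM κ b0 G b0' G').vv * (p 2 * p 2))) := by
    simp only [Fq, dt, bz, QF.ev, z0]; ring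
  rw [e]
  refine (Arc880.abs_add2 (Arc880.abs_add2 (Arc880.abs_add2
    (mul_abs_le (mul_abs_le hζ O.y1) h0) (mul_abs_le O.yy (mul_abs_le h0 h0)))
    (Arc880.abs_add2 (mul_abs_le O.yu (mul_abs_le h0 h1)) (mul_abs_le O.yv (mul_abs_le h0 h2))))
    (Arc880.abs_add2 (Arc880.abs_add2
      (Arc880.abs_add2 (mul_abs_le O.h01 h1) (mul_abs_le O.h02 h2))
      (Arc880.abs_add2 (mul_abs_le (mul_abs_le hζ O.h11) h1)
        (mul_abs_le (mul_abs_le hζ O.h12) h2)))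
      (Arc880.abs_add2 (Arc880.abs_add2 (mul_abs_le O.uu (mul_abs_le h1 h1))
        (mul_abs_le O.uv (mul_abs_le h1 h2))) (mul_abs_le O.vv (mul_abs_le h2 h2))))).trans
    (le_of_eq (by ring))

/-- bounds of the scaled coefficients, free `κ` -/
theorem NrmC.sc_le' {b0 b1 : V3} {G : QF} (N : NrmC b0 b1 G) {κ : ℝ} (hκ : 0 < κ)
    (hk : kap b0 b1 G ≤ κ) (hκ1 : κ ≤ 13) :
    (∀ k, |shB0 b0 k| ≤ 13) ∧ (∀ k, |scB1 κ b0 b1 k| ≤ 13) ∧ (scG κ b0 G).Le 13 := by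
  obtain ⟨g1, g2, -, -, g3, -, -, -, -⟩ := N.b1_le
  obtain ⟨h1, h2, h3, h4, h5, h6, h7⟩ := N.sh_le
  obtain ⟨m1, -⟩ := N.G_le
  have d : ∀ x, |x| ≤ kap b0 b1 G → |x / κ| ≤ 13 := by
    intro x hx
    rw [abs_div, abs_of_pos hκ, div_le_iff₀ hκ]; linarith
  refine ⟨?_, ?_, ?_, h3.trans (by norm_num), h4.trans (by norm_num), ?_, ?_, ?_⟩
  · intro k
    fin_cases k
    · change |b0 0| ≤ 13
      rw [abs_le]; constructor <;> linarith
    · change |(0 : ℝ)| ≤ 13; norm_num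
    · change |(0 : ℝ)| ≤ 13; norm_num
  · intro k
    fin_cases k
    · exact g3.trans (by norm_num)
    · exact d _ ((le_max_left _ _).trans (le_max_left _ _))
    · exact d _ ((le_max_right _ _).trans (le_max_left _ _))
  · change |κ * G.yy| ≤ 13
    have := mul_abs_le (abs_le.2 ⟨by linarith, hκ1⟩ : |κ| ≤ 13) m1
    linarith
  · exact d _ ((le_max_left _ _).trans ((le_max_left _ _).trans (le_max_right _ _)))
  · exact d _ ((le_max_right _ _).trans ((le_max_left _ _).trans (le_max_right _ _)))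
  · exact d _ ((le_max_right _ _).trans (le_max_right _ _))

/-! ### height over the tangent plane on the doubled box -/

/-- **height of a point of the doubled box over the tangent plane** -/
theorem yc_le2 {e : Fin 3 → V3} {c : Ln4} {w : V3} {q : ℝ → V3 → ℝ} {z0 ρ : ℝ}
    (S : StP e c w q z0 ρ) (hρ : 0 ≤ ρ) {T : Ln4}
    (hT : ∀ z, z0 ≤ z → z ≤ z0 + ρ → InK e c w z (T.pos z)) {b0 b1 : V3} {G : QF}
    (hE : IsExp q e w T z0 ρ b0 b1 G) {ζ : ℝ} (hζ : 0 ≤ ζ) (hζ' : ζ ≤ 1) {X : V3}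
    (hX : InK e c (dbl3 w) (z0 + ρ * ζ) X) {r : ℝ} (hr : r ≤ 1 / 8)
    (h1 : |pc e w T (z0 + ρ * ζ) X 1| ≤ r) (h2 : |pc e w T (z0 + ρ * ζ) X 2| ≤ r) :
    w 0 * |yc b0 (pc e w T (z0 + ρ * ζ) X)| ≤
      2 * (|q (z0 + ρ * ζ) X| + |q (z0 + ρ * ζ) (T.pos (z0 + ρ * ζ))|) +
        5 * r * (w 0 * kap b0 b1 G) := by
  have N := hE.nrmC S hρ hT
  obtain ⟨g1, g2, -, -, -, -, -, s1, s2⟩ := N.b1_le
  have hr0 : 0 ≤ r := (abs_nonneg _).trans h1
  have hw0 := S.pos 0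
  have hwn : ∀ i, 0 ≤ w i := fun i => (S.pos i).le
  have hwne : ∀ i, w i ≠ 0 := fun i => (S.pos i).ne'
  set z := z0 + ρ * ζ with hz
  have z1 : z0 ≤ z := by rw [hz]; nlinarith
  have z2 : z ≤ z0 + ρ := by rw [hz]; nlinarith
  set x := pc e w T z X with hx
  set y := yc b0 x with hy
  -- the base point over the tangent plane
  set P := T.pos z + cmb (fr e w) (unsh b0 0 (x 1) (x 2)) with hP
  have hxX : T.pos z + cmb (fr e w) x = X := cmb_pc S.ortho hwne T z X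
  have hu0 : ∀ i, |(unsh b0 0 (x 1) (x 2)) i| ≤ 1 := by
    intro i
    fin_cases i
    · change |0 - b0 1 / b0 0 * x 1 - b0 2 / b0 0 * x 2| ≤ 1
      have a1 := mul_abs_le s1 h1
      have a2 := mul_abs_le s2 h2
      rw [abs_le] at a1 a2 ⊢
      constructor <;> linarith [a1.1, a1.2, a2.1, a2.2]
    · exact h1.trans (by linarith)
    · exact h2.trans (by linarith)
  have hPK : InK e c (dbl3 w) z P := inK_cmb S.ortho hwn (hT z z1 z2) hu0
  have hXK : InK e c (dbl3 w) z X := hX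
  -- X = P + (y w0) e0
  have hXP : X = P + (y * w 0) • e 0 := by
    rw [← hxX, hP]
    ext i
    have e0 : x 0 = y - b0 1 / b0 0 * x 1 - b0 2 / b0 0 * x 2 := by rw [hy]; unfold yc; ring
    simp only [Pi.add_apply, cmb, fr, Pi.smul_apply, smul_eq_mul, unsh, Matrix.cons_val, e0]
    ring
  -- steepness
  have hst : w 0 * |y| ≤ 2 * |q z X - q z P| := by
    rcases le_total 0 y with h0 | h0
    · have hy0 : 0 ≤ y * w 0 := mul_nonneg h0 hw0.le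
      have := (S.st0 z z1 z2 P (y * w 0) hy0 hPK (by rw [← hXP]; exact hXK)).1
      rw [← hXP] at this
      rw [abs_of_nonneg h0]
      have h3 := le_abs_self (q z X - q z P)
      have h4 : w 0 * y = y * w 0 := by ring
      rw [h4]; linarith
    · have hy0 : 0 ≤ -y * w 0 := mul_nonneg (by linarith) hw0.le
      have hPX : P = X + (-y * w 0) • e 0 := by
        rw [hXP]
        ext i
        simp only [Pi.add_apply, Pi.smul_apply, smul_eq_mul]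
        ring
      have := (S.st0 z z1 z2 X (-y * w 0) hy0 hXK (by rw [← hPX]; exact hPK)).1
      rw [← hPX] at this
      rw [abs_of_nonpos h0, abs_sub_comm]
      have h3 := le_abs_self (q z P - q z X)
      have h4 : w 0 * -y = -y * w 0 := by ring
      rw [h4]; linarith
  -- the value at P
  have hPv : q z P = q z (T.pos z) + w 0 * Fq (shB0 b0) (shB1 b0 b1) (shG b0 G) ζ ![0, x 1, x 2] := by
    rw [← Fq_unsh (by linarith : b0 0 ≠ 0), hP, hz]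
    exact hE ζ _
  have hF : |Fq (shB0 b0) (shB1 b0 b1) (shG b0 G) ζ ![0, x 1, x 2]| ≤ 5 / 2 * r * kap b0 b1 G := by
    have k1 : |shB1 b0 b1 1| ≤ kap b0 b1 G := (le_max_left _ _).trans (le_max_left _ _)
    have k2 : |shB1 b0 b1 2| ≤ kap b0 b1 G := (le_max_right _ _).trans (le_max_left _ _)
    have k3 : |(shG b0 G).uu| ≤ kap b0 b1 G :=
      (le_max_left _ _).trans ((le_max_left _ _).trans (le_max_right _ _))
    have k4 : |(shG b0 G).uv| ≤ kap b0 b1 G :=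
      (le_max_right _ _).trans ((le_max_left _ _).trans (le_max_right _ _))
    have k5 : |(shG b0 G).vv| ≤ kap b0 b1 G := (le_max_right _ _).trans (le_max_right _ _)
    have k0 := kap_nonneg b0 b1 G
    have hζa : |ζ| ≤ 1 := by rw [abs_of_nonneg hζ]; exact hζ'
    have e1 : Fq (shB0 b0) (shB1 b0 b1) (shG b0 G) ζ ![0, x 1, x 2] =
        ζ * shB1 b0 b1 1 * x 1 + ζ * shB1 b0 b1 2 * x 2 + ((shG b0 G).uu * (x 1 * x 1) +
          (shG b0 G).uv * (x 1 * x 2) + (shG b0 G).vv * (x 2 * x 2)) := by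
      simp only [Fq, dt, bz, QF.ev, shB0, Matrix.cons_val]
      ring
    rw [e1]
    have a1 := mul_abs_le (mul_abs_le hζa k1) h1
    have a2 := mul_abs_le (mul_abs_le hζa k2) h2
    have a3 := mul_abs_le k3 (mul_abs_le h1 h1)
    have a4 := mul_abs_le k4 (mul_abs_le h1 h2)
    have a5 := mul_abs_le k5 (mul_abs_le h2 h2)
    refine (Arc880.abs_add2 (Arc880.abs_add2 a1 a2)
      (Arc880.abs_add2 (Arc880.abs_add2 a3 a4) a5)).trans ?_
    have a6 : kap b0 b1 G * (r * r) ≤ kap b0 b1 G * (r * (1 / 8)) := by gcongr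
    nlinarith
  have h3 : |q z X - q z P| ≤ (|q z X| + |q z (T.pos z)|) + w 0 * (5 / 2 * r * kap b0 b1 G) := by
    rw [hPv]
    have e1 : q z X - (q z (T.pos z) + w 0 * Fq (shB0 b0) (shB1 b0 b1) (shG b0 G) ζ ![0, x 1, x 2]) =
        (q z X - q z (T.pos z)) -
          w 0 * Fq (shB0 b0) (shB1 b0 b1) (shG b0 G) ζ ![0, x 1, x 2] := by ring
    rw [e1]
    refine (abs_sub _ _).trans (add_le_add (abs_sub _ _) ?_)
    rw [abs_mul, abs_of_pos hw0]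
    exact mul_le_mul_of_nonneg_left hF hw0.le
  calc w 0 * |y| ≤ 2 * |q z X - q z P| := hst
    _ ≤ 2 * ((|q z X| + |q z (T.pos z)|) + w 0 * (5 / 2 * r * kap b0 b1 G)) := by linarith
    _ = _ := by ring

/-! ### two sheets through a common line -/

/-- the data of two sheets through the line `T` -/
structure Two (e : Fin 3 → V3) (c : Ln4) (w : V3) (q : ℝ → V3 → ℝ) (e' : Fin 3 → V3) (c' : Ln4)
    (w' : V3) (q' : ℝ → V3 → ℝ) (T : Ln4) (z0 ρ a a' : ℝ) (b0 b1 : V3) (G : QF)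
    (b0' b1' : V3) (G' : QF) (d0 d1 : V3) (H : QF) (B lam : ℝ) : Prop where
  S : StP e c w q z0 ρ
  S' : StP e' c' w' q' z0 ρ
  hρ : 0 ≤ ρ
  hT : InSheet T e c w q a z0 ρ
  hT' : InSheet T e' c' w' q' a' z0 ρ
  hE : IsExp q e w T z0 ρ b0 b1 G
  hE' : IsExp q' e w T z0 ρ b0' b1' G'
  hH : IsExp q' e' w' T z0 ρ d0 d1 H
  w02 : w 0 ≤ w 2
  w21 : w 2 ≤ w 1
  w02' : w' 0 ≤ w' 2
  w21' : w' 2 ≤ w' 1
  B1 : 1 ≤ B
  lam1 : 1 ≤ lam
  wB1 : w' 1 ≤ B * w 1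
  wB2 : w' 2 ≤ B * w 2
  wB1' : w 1 ≤ B * w' 1
  wB2' : w 2 ≤ B * w' 2
  tilt : |dt (e 2) (e' 1)| * w 1 ≤ lam * w 2
  tilt' : |dt (e' 2) (e 1)| * w 1 ≤ lam * w 2

section two

variable {e : Fin 3 → V3} {c : Ln4} {w : V3} {q : ℝ → V3 → ℝ} {e' : Fin 3 → V3} {c' : Ln4}
  {w' : V3} {q' : ℝ → V3 → ℝ} {T : Ln4} {z0 ρ a a' : ℝ} {b0 b1 : V3} {G : QF}
  {b0' b1' : V3} {G' : QF} {d0 d1 : V3} {H : QF} {B lam : ℝ}

theorem Two.nrm (D : Two e c w q e' c' w' q' T z0 ρ a a' b0 b1 G b0' b1' G' d0 d1 H B lam) :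
    NrmC b0 b1 G := D.hE.nrmC D.S D.hρ fun z h1 h2 => (D.hT z h1 h2).1

theorem Two.nrm' (D : Two e c w q e' c' w' q' T z0 ρ a a' b0 b1 G b0' b1' G' d0 d1 H B lam) :
    NrmC d0 d1 H := D.hH.nrmC D.S' D.hρ fun z h1 h2 => (D.hT' z h1 h2).1

/-- gradient in physical units is at most `4` in every unit direction -/
theorem grad_le {e e' : Fin 3 → V3} (he : Ortho e) (he' : Ortho e') {w : V3} (hw : ∀ i, 0 < w i)
    (w02 : w 0 ≤ w 2) (w21 : w 2 ≤ w 1) {b0 b1 : V3} {G : QF} (N : NrmC b0 b1 G) (j : Fin 3) :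
    |w 0 * dt b0 (pv e w (e' j))| ≤ 4 := by
  obtain ⟨g1, g2, -, -, -, -, -, -, -⟩ := N.b1_le
  have e1 : w 0 * dt b0 (pv e w (e' j)) = b0 0 * dt (e 0) (e' j) +
      b0 1 * (w 0 / w 1 * dt (e 1) (e' j)) + b0 2 * (w 0 / w 2 * dt (e 2) (e' j)) := by
    have h0 := (hw 0).ne'
    simp only [dt, pv]
    field_simp
  have h1 : |w 0 / w 1| ≤ 1 := by
    rw [abs_of_pos (div_pos (hw 0) (hw 1)), div_le_one (hw 1)]; exact w02.trans w21
  have h2 : |w 0 / w 2| ≤ 1 := by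
    rw [abs_of_pos (div_pos (hw 0) (hw 2)), div_le_one (hw 2)]; exact w02
  rw [e1]
  refine (Arc880.abs_add2 (Arc880.abs_add2
    (mul_abs_le (abs_le.2 ⟨by linarith, g2⟩ : |b0 0| ≤ 2) (dt_le_one he he' 0 j))
    (mul_abs_le N.b01 (mul_abs_le h1 (dt_le_one he he' 1 j))))
    (mul_abs_le N.b02 (mul_abs_le h2 (dt_le_one he he' 2 j)))).trans (by norm_num)

theorem pv_self {e : Fin 3 → V3} (he : Ortho e) (w : V3) (i k : Fin 3) :
    pv e w (e i) k = if k = i then 1 / w k else 0 := by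
  have h := he k i
  simp only [pv, h]
  split_ifs <;> simp

/-- `|b0' 0| ≤ 4` -/
theorem Two.b0'_le (D : Two e c w q e' c' w' q' T z0 ρ a a' b0 b1 G b0' b1' G' d0 d1 H B lam) :
    |b0' 0| ≤ 4 := by
  have hwne : ∀ i, w i ≠ 0 := fun i => (D.S.pos i).ne'
  have hwne' : ∀ i, w' i ≠ 0 := fun i => (D.S'.pos i).ne'
  have h := (cross D.S.ortho D.S'.ortho hwne hwne' D.hE' D.hH (e 0)).1
  have e1 : w 0 * dt b0' (pv e w (e 0)) = b0' 0 := by
    have k0 := pv_self D.S.ortho w 0 0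
    have k1 := pv_self D.S.ortho w 0 1
    have k2 := pv_self D.S.ortho w 0 2
    simp only [dt, k0, k1, k2]
    have := hwne 0
    simp
    field_simp
  rw [← e1, h]
  exact grad_le D.S'.ortho D.S.ortho D.S'.pos D.w02' D.w21' D.nrm' 0

/-- `|m| ≤ 8` -/
theorem Two.m_le (D : Two e c w q e' c' w' q' T z0 ρ a a' b0 b1 G b0' b1' G' d0 d1 H B lam) :
    |b0' 0 / b0 0| ≤ 8 := by
  obtain ⟨g1, g2, -, -, -, -, -, -, -⟩ := D.nrm.b1_le
  have := D.b0'_le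
  rw [abs_div, abs_of_pos (by linarith : 0 < b0 0), div_le_iff₀ (by linarith)]; linarith

/-- the gradient of `q'` in scaled tangent coordinates -/
theorem grad' {b0 : V3} (hb0 : b0 0 ≠ 0) {κ : ℝ} (hκ : κ ≠ 0) (e : Fin 3 → V3) (w b0' V : V3) :
    dt b0' (pv e w V) = κ * (b0' 0 / b0 0 * (b0 0 * tv κ b0 e w V 0) +
      (om0 κ b0 b0' 1 * tv κ b0 e w V 1 + om0 κ b0 b0' 2 * tv κ b0 e w V 2)) := by
  change dt b0' (pv e w V) = κ * (b0' 0 / b0 0 * (b0 0 * (yc b0 (pv e w V) / κ)) +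
    ((b0' 1 - b0' 0 / b0 0 * b0 1 - b0 1 / b0 0 * (b0' 0 - b0' 0 / b0 0 * b0 0)) / κ * pv e w V 1 +
    (b0' 2 - b0' 0 / b0 0 * b0 2 - b0 2 / b0 0 * (b0' 0 - b0' 0 / b0 0 * b0 0)) / κ * pv e w V 2))
  simp only [dt, yc]
  field_simp
  ring

/-- **`|m| ≥ 1 / 16`** -/
theorem Two.le_m (D : Two e c w q e' c' w' q' T z0 ρ a a' b0 b1 G b0' b1' G' d0 d1 H B lam)
    {κ X Y Z : ℝ} (hκ : 0 < κ) (O : OmB κ X Y Z b0 b1 G b0' b1' G')
    (hX : 8 * (X * (w 0 * κ)) ≤ w 2) : 1 / 16 ≤ |b0' 0 / b0 0| := by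
  have hwne : ∀ i, w i ≠ 0 := fun i => (D.S.pos i).ne'
  have hwne' : ∀ i, w' i ≠ 0 := fun i => (D.S'.pos i).ne'
  obtain ⟨g1, g2, -, -, -, -, -, -, -⟩ := D.nrm.b1_le
  obtain ⟨g1', g2', -, -, -, -, -, -, -⟩ := D.nrm'.b1_le
  have hb0 : b0 0 ≠ 0 := by linarith
  have h := (cross D.S.ortho D.S'.ortho hwne hwne' D.hE' D.hH (e' 0)).1
  have e1 : w' 0 * dt d0 (pv e' w' (e' 0)) = d0 0 := by
    have k0 := pv_self D.S'.ortho w' 0 0
    have k1 := pv_self D.S'.ortho w' 0 1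
    have k2 := pv_self D.S'.ortho w' 0 2
    simp only [dt, k0, k1, k2]
    have := hwne' 0
    simp
    field_simp
  have e2 := grad' hb0 hκ.ne' e w b0' (e' 0)
  have e3 : dt b0 (pv e w (e' 0)) = κ * (b0 0 * tv κ b0 e w (e' 0) 0) := by
    change dt b0 (pv e w (e' 0)) = κ * (b0 0 * (yc b0 (pv e w (e' 0)) / κ))
    simp only [dt, yc]
    field_simp
  have h3 := grad_le D.S.ortho D.S'.ortho D.S.pos D.w02 D.w21 D.nrm 0
  have hO : ∀ k, |om0 κ b0 b0' k| ≤ X := by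
    intro k
    fin_cases k
    · change |om0 κ b0 b0' 0| ≤ X
      rw [om0_zero κ hb0, abs_zero]; exact O.nonneg.1
    · exact O.h01
    · exact O.h02
  have h4 : ∀ k, w 2 ≤ w k → |w 0 * κ * (om0 κ b0 b0' k * tv κ b0 e w (e' 0) k)| ≤ 1 / 8 ∨ k = 0 := by
    intro k hk
    by_cases hk0 : k = 0
    · exact Or.inr hk0
    left
    have e4 : tv κ b0 e w (e' 0) k = dt (e k) (e' 0) / w k := by
      fin_cases k
      · exact absurd rfl hk0
      · rfl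
      · rfl
    have e5 : w 0 * κ * (om0 κ b0 b0' k * tv κ b0 e w (e' 0) k) =
        (om0 κ b0 b0' k * dt (e k) (e' 0)) * (w 0 * κ) / w k := by
      rw [e4]; ring
    have hwk := D.S.pos k
    rw [e5, abs_div, abs_of_pos hwk, div_le_iff₀ hwk, abs_mul,
      abs_of_pos (mul_pos (D.S.pos 0) hκ)]
    have h6 := mul_abs_le (hO k) (dt_le_one D.S.ortho D.S'.ortho k 0)
    have h7 := mul_le_mul_of_nonneg_right h6 (mul_pos (D.S.pos 0) hκ).le
    linarith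
  have h5 := (h4 1 D.w21).resolve_right (by decide)
  have h6 := (h4 2 le_rfl).resolve_right (by decide)
  have e6 : d0 0 = b0' 0 / b0 0 * (w 0 * dt b0 (pv e w (e' 0))) +
      (w 0 * κ * (om0 κ b0 b0' 1 * tv κ b0 e w (e' 0) 1) +
        w 0 * κ * (om0 κ b0 b0' 2 * tv κ b0 e w (e' 0) 2)) := by
    rw [← e1, ← h, e2, e3]; ring
  have h7 : |d0 0| ≤ |b0' 0 / b0 0| * 4 + (1 / 8 + 1 / 8) := by
    rw [e6]
    exact Arc880.abs_add2 (mul_abs_le le_rfl h3) (Arc880.abs_add2 h5 h6)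
  rw [abs_of_pos (by linarith : 0 < d0 0)] at h7
  linarith

end two

end Crest.Agent.R136.Tl102
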