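import Crest.Agent.R136.Fl8_808
import Crest.Agent.R136.Pl2W_102

/-!
# R136 (S0187), PLAN 2 (tilt at one level, no growth): literals (helper860)

* `TCore`  : abstract data of the base tilt theorem: one cell, two systems of boxes of the same
  dimensions `Y, w1, w2` (`Y` = flat thickness of the sheets, `a` = thickness of the sheets), hull
  D-max, tubes, shares.  `TiltCore` : target.
* `TypU`   : facts at a typical line.
* `BT`, `AL` : base tilt and alignment theorems for 102's `Two1`.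
-/

set_option autoImplicit false
set_option linter.unusedVariables false

open Finset

namespace Crest.Agent.R136.Pl2

open Crest.Agent.R136.Sh605 Crest.Agent.R136.Fl808
open Crest.Agent.R136.K4 (Plk4)
open Crest.Agent.R136.Tlt51 (Shp InP)
open Crest.Agent.R136.Phc248 (ph phC)
open Crest.Agent.R136.Deep51 (CloseC)
open Crest.Agent.R136.KapP335 (kapP expP DetP)
open Crest.Agent.R136.Tl102 (angC scB1 kap)
open Crest.Agent.R136.Pl2W102 (Near Ex2 Two1)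

open Classical in
/-- **data of the base tilt theorem** (one cell `[z0, z0 + ρ]`).  Class labels `u`, `v`; the class of
`t` is contained in the box with frame `eu (u t)`, half-widths `Y, w1, w2`. -/
structure TCore (qm qp : Fin 3 → ℝ) (L : ℕ → Ln4) (P : Finset ℕ) (u v : ℕ → ℕ) (bu bv : ℕ → Ln4)
    (eu ev : ℕ → Fin 3 → V3) (W M a Y w1 w2 z0 ρ : ℝ) : Prop where
  W1 : 1 ≤ W
  M0 : 0 < M
  ρ0 : 0 < ρ
  a0 : 0 < a
  aY : a ≤ Y
  Yw : Y ≤ w2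
  ww : w2 ≤ w1
  lg : Real.log (w1 / a) ≤ W
  ou : ∀ t ∈ P, Ortho (eu (u t))
  ov : ∀ t ∈ P, Ortho (ev (v t))
  mu : ∀ t ∈ P, InB (L t) (bu (u t)) (eu (u t)) ![Y, w1, w2] z0 ρ
  mv : ∀ t ∈ P, InB (L t) (bv (v t)) (ev (v t)) ![Y, w1, w2] z0 ρ
  fu : ∀ t ∈ P, M ≤ W * ((P.filter fun s => u s = u t).card : ℝ)
  fv : ∀ t ∈ P, M ≤ W * ((P.filter fun s => v s = v t).card : ℝ)
  /-- hull D-max (wider boxes) -/
  hull : ∀ (b : Ln4) (f : Fin 3 → V3) (X0 X2 : ℝ), Ortho f → a ≤ X0 → w2 ≤ X2 → X0 ≤ X2 →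
    X2 ≤ 10 ^ 6 * w1 →
    ((P.filter fun t => InB (L t) b f ![X0, 10 ^ 6 * w1, X2] z0 ρ).card : ℝ) ≤
      W * M * ((X0 / a) ^ (1 + qp 0) * (X2 / w2) ^ (1 + qp 2))
  /-- tubes in the classes -/
  tubeu : ∀ t ∈ P, ∀ δ : ℝ, w2 ≤ 8 * (δ * w1) → δ ≤ 1 →
    ((P.filter fun s => u s = u t ∧ ∀ z, z0 ≤ z → z ≤ z0 + ρ →
      |dt (eu (u t) 1) ((L s).pos z - (L t).pos z)| ≤ δ * w1).card : ℝ) ≤ W * M * δ ^ (1 + qm 1)
  tubev : ∀ t ∈ P, ∀ δ : ℝ, w2 ≤ 8 * (δ * w1) → δ ≤ 1 →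
    ((P.filter fun s => v s = v t ∧ ∀ z, z0 ≤ z → z ≤ z0 + ρ →
      |dt (ev (v t) 1) ((L s).pos z - (L t).pos z)| ≤ δ * w1).card : ℝ) ≤ W * M * δ ^ (1 + qm 1)
  /-- share of a pair with tilt -/
  share : ∀ t ∈ P, ∀ j k' : ℕ, Dy (eu (u t)) (ev (v t)) Y w1 w2 j k' → W ≤ (2:ℝ) ^ j * 2 ^ k' →
    ((P.filter fun s => u s = u t ∧ v s = v t).card : ℝ) ≤
      W * M / (((2:ℝ) ^ j) ^ (1 + qm 1) * ((2:ℝ) ^ k' * (Y / a)) ^ (1 + qm 2))

/-- **TARGET 1** (base tilt, abstract): some line has small tilts. -/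
def TiltCore : Prop := ∀ (η : ℝ) (qm qp : Fin 3 → ℝ), Ex2 η qm qp → ∃ C : ℝ, 0 ≤ C ∧
  ∀ (L : ℕ → Ln4) (P : Finset ℕ) (u v : ℕ → ℕ) (bu bv : ℕ → Ln4) (eu ev : ℕ → Fin 3 → V3)
    (W M a Y w1 w2 z0 ρ : ℝ), TCore qm qp L P u v bu bv eu ev W M a Y w1 w2 z0 ρ → P.Nonempty →
    ∃ t ∈ P, ∃ j k' : ℕ, Dy (eu (u t)) (ev (v t)) Y w1 w2 j k' ∧
      (2:ℝ) ^ j * 2 ^ k' ≤ (2 * W) ^ C

/-- curvature extent of the sheet along the line `T` over the cell -/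
noncomputable def kp (S : Plk4) (z0 ρ : ℝ) (T : Ln4) : ℝ := kapP S z0 ρ T

/-- rotation of the sheet along its second axis, scaled tangent coordinates (`Kil327.kilN`) -/
noncomputable def rot2 (S : Plk4) (z0 ρ : ℝ) (T : Ln4) : ℝ :=
  |scB1 (kap (expP S z0 ρ T).1 (expP S z0 ρ T).2.1 (expP S z0 ρ T).2.2) (expP S z0 ρ T).1
    (expP S z0 ρ T).2.1 2|

/-- facts at a typical line `T` of the sheet `S` : curved sheets are nondegenerate, and of type I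
when they are narrow. (`K` is not used: everything is monotone in `W`.) -/
structure TypU (K W a : ℝ) (S : Plk4) (T : Ln4) (z0 ρ : ℝ) : Prop where
  det : W * a ≤ kp S z0 ρ T → DetP W⁻¹ S z0 ρ T
  rot : W * a ≤ kp S z0 ρ T → W * S.w 2 ≤ S.w 1 → 1 / W ≤ rot2 S z0 ρ T

/-- hypotheses at the lines of `P` : the sheets of the first system are the more curved ones, and
curved (`K` = large power of `W`). -/
structure TypP (K W a : ℝ) (S S' : Plk4) (T : Ln4) (z0 ρ : ℝ) : Prop where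
  big : K * a ≤ kp S z0 ρ T
  le : kp S' z0 ρ T ≤ kp S z0 ρ T
  typ : TypU K W a S T z0 ρ
  typ' : TypU K W a S' T z0 ρ

/-- **TARGET 2** (base tilt of sheets): some line has a small base tilt, and there the flatter sheet
`V` is close to the more curved sheet `U` up to the curvature extent of `U`. -/
def BT : Prop := ∀ (η : ℝ) (qm qp : Fin 3 → ℝ), Ex2 η qm qp → ∃ K0 C : ℝ, 0 ≤ K0 ∧ 0 ≤ C ∧
  ∀ (L : ℕ → Ln4) (P : Finset ℕ) (cu cv : ℕ → ℕ) (Uf Vf : ℕ → Plk4) (W M a w1 w2 z0 ρ r : ℝ),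
    Two1 qm qp L P cu cv Uf Vf W M a w1 w2 z0 ρ r → P.Nonempty →
    (∀ t ∈ P, TypP ((2 * W) ^ K0) W a (Uf (cu t)) (Vf (cv t)) (L t) z0 ρ) →
    ∃ t ∈ P, angC (Uf (cu t)) (Vf (cv t)) * w1 ≤ (2 * W) ^ C * w2 ∧
      CloseC (Vf (cv t)).e (Vf (cv t)).w (Vf (cv t)).q (Vf (cv t)).a (Uf (cu t)).q
        ((2 * W) ^ C * kp (Uf (cu t)) z0 ρ (L t)) (L t) z0 ρ

/-- **TARGET 3** (alignment): with small base tilt the sheets are close up to `W^C a`, both ways. -/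
def AL : Prop := ∃ η : ℝ, 0 < η ∧ ∀ qm qp : Fin 3 → ℝ, Ex2 η qm qp → ∃ K0 C : ℝ, 0 ≤ K0 ∧ 0 ≤ C ∧
  ∀ (L : ℕ → Ln4) (P : Finset ℕ) (cu cv : ℕ → ℕ) (Uf Vf : ℕ → Plk4) (W M a w1 w2 z0 ρ r : ℝ),
    Two1 qm qp L P cu cv Uf Vf W M a w1 w2 z0 ρ r → P.Nonempty →
    (∀ t ∈ P, TypP ((2 * W) ^ K0) W a (Uf (cu t)) (Vf (cv t)) (L t) z0 ρ) →
    (∀ t ∈ P, angC (Uf (cu t)) (Vf (cv t)) * w1 ≤ W * w2 ∧
      CloseC (Vf (cv t)).e (Vf (cv t)).w (Vf (cv t)).q (Vf (cv t)).a (Uf (cu t)).q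
        (W * kp (Uf (cu t)) z0 ρ (L t)) (L t) z0 ρ) →
    ∃ t ∈ P,
      CloseC (Uf (cu t)).e (Uf (cu t)).w (Uf (cu t)).q (Uf (cu t)).a (Vf (cv t)).q
        ((2 * W) ^ C * a) (L t) z0 ρ ∧
      CloseC (Vf (cv t)).e (Vf (cv t)).w (Vf (cv t)).q (Vf (cv t)).a (Uf (cu t)).q
        ((2 * W) ^ C * a) (L t) z0 ρ

end Crest.Agent.R136.Pl2
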