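import Crest.Agent.R136.Adj4_214
import Crest.Agent.R136.Coi1_102
import Crest.Agent.R136.Pl2Def_860

/-!
# R136 (S0187), U4 (AL): points of the chart at a line, closeness from a division (helper501)

* `cx` : helper214's chart at a line `T` of a curved sheet (`y` in units of `κ`, tangent shear).
* `chart_pt` : points near `T` with a small value of `q` are chart points, `y` small.
* `close_of_div` : `q' - μ q = Λ P` with a bounded jet `P` gives a bound of `q'` there.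
-/

set_option autoImplicit false
set_option linter.unusedVariables false

namespace Crest.Agent.R136.Cod501

open Crest.Agent.R136.Sh605
open Crest.Agent.R136.K4 (Plk4)
open Crest.Agent.R136.Tlt51 (Shp InP)
open Crest.Agent.R136.KapP335 (kapP expP DetP expP_spec)
open Crest.Agent.R136.Tl102
open Crest.Agent.R136.Deep51 (CloseC)
open Crest.Agent.R136.Rk601 (Jt dp qf)
open Crest.Agent.R136.Adj214 (ev JB)

/-- curvature of the sheet along `T`, in units of `w 0` -/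
noncomputable def kS (S : Plk4) (z0 ρ : ℝ) (T : Ln4) : ℝ :=
  kap (expP S z0 ρ T).1 (expP S z0 ρ T).2.1 (expP S z0 ρ T).2.2

/-- **the chart** at the line `T` : `y` in units of `κ / 256`, `u, v` in units `w k / 256` -/
noncomputable def cx (S : Plk4) (z0 ρ : ℝ) (T : Ln4) (ζ y u v : ℝ) : V3 :=
  T.pos (z0 + ρ * ζ) + cmb (fr S.e S.w)
    (unsh (expP S z0 ρ T).1 (kS S z0 ρ T * (1 / 256 * y)) (1 / 256 * u) (1 / 256 * v))

theorem kapP_eq (S : Plk4) (z0 ρ : ℝ) (T : Ln4) : kapP S z0 ρ T = S.w 0 * kS S z0 ρ T := rfl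

theorem cx_zero (S : Plk4) (z0 ρ : ℝ) (T : Ln4) (ζ : ℝ) : cx S z0 ρ T ζ 0 0 0 = T.pos (z0 + ρ * ζ) := by
  ext i
  simp [cx, unsh, cmb]

/-- **points near `T` are chart points** -/
theorem chart_pt {S : Plk4} {z0 ρ r0 : ℝ} {T : Ln4} (hr0 : 0 < r0) (hρ : 0 ≤ ρ)
    (hS : Shp S z0 ρ r0) (hT : InP T S z0 ρ) (hκ : 0 < kapP S z0 ρ T) {ζ : ℝ} (hζ : 0 ≤ ζ)
    (hζ' : ζ ≤ 1) {X : V3} {A s : ℝ} (hs : s ≤ 1 / 8)
    (hX0 : |dt (S.e 0) (X - T.pos (z0 + ρ * ζ))| ≤ S.w 0 / 8)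
    (hX1 : |dt (S.e 1) (X - T.pos (z0 + ρ * ζ))| ≤ s * S.w 1)
    (hX2 : |dt (S.e 2) (X - T.pos (z0 + ρ * ζ))| ≤ s * S.w 2)
    (hq : |S.q (z0 + ρ * ζ) X| ≤ A) :
    ∃ y u v : ℝ, X = cx S z0 ρ T ζ y u v ∧ |u| ≤ 256 * s ∧ |v| ≤ 256 * s ∧
      |y| ≤ 512 * ((A + S.a) / kapP S z0 ρ T) + 1280 * s := by
  have ha : 0 < S.a := hr0.trans_le hS.r0_le
  have hw0 : 0 < S.w 0 := ha.trans_le hS.a_le0
  have hP := StP.of_shN hS hw0
  have hE := expP_spec hP.isQ hw0.ne' z0 ρ T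
  have hwp := hP.pos
  have hwne : ∀ i, S.w i ≠ 0 := fun i => (hwp i).ne'
  have hTK : ∀ z, z0 ≤ z → z ≤ z0 + ρ → InK S.e S.c S.w z (T.pos z) := fun z h1 h2 => (hT z h1 h2).1
  have z1 : z0 ≤ z0 + ρ * ζ := by nlinarith
  have z2 : z0 + ρ * ζ ≤ z0 + ρ := by nlinarith
  set z := z0 + ρ * ζ with hz
  set b0 := (expP S z0 ρ T).1 with hb0
  set x := pc S.e S.w T z X with hx
  have hs0 : 0 ≤ s := by
    have h1 := (abs_nonneg _).trans hX1
    by_contra hc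
    push Not at hc
    have := mul_neg_of_neg_of_pos hc (hwp 1)
    linarith
  have hx1 : |x 1| ≤ s := by
    change |dt (S.e 1) (X - T.pos z) / S.w 1| ≤ s
    rw [abs_div, abs_of_pos (hwp 1), div_le_iff₀ (hwp 1)]; exact hX1
  have hx2 : |x 2| ≤ s := by
    change |dt (S.e 2) (X - T.pos z) / S.w 2| ≤ s
    rw [abs_div, abs_of_pos (hwp 2), div_le_iff₀ (hwp 2)]; exact hX2
  have hXd : InK S.e S.c (dbl3 S.w) z X := by
    intro i
    have h1 := hTK z z1 z2 i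
    have h2 : |dt (S.e i) (X - T.pos z)| ≤ S.w i := by
      have k0 : |dt (S.e 0) (X - T.pos z)| ≤ S.w 0 := hX0.trans (by linarith)
      have k1 : |dt (S.e 1) (X - T.pos z)| ≤ S.w 1 := hX1.trans (by nlinarith [hwp 1])
      have k2 : |dt (S.e 2) (X - T.pos z)| ≤ S.w 2 := hX2.trans (by nlinarith [hwp 2])
      fin_cases i
      · exact k0
      · exact k1
      · exact k2
    have e1 : dt (S.e i) (X - S.c.pos z) = dt (S.e i) (X - T.pos z) +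
        dt (S.e i) (T.pos z - S.c.pos z) := by
      simp only [dt, Pi.sub_apply]; ring
    rw [e1]
    refine (abs_add_le _ _).trans ?_
    change _ ≤ 2 * S.w i
    linarith
  have hy := yc_le2 hP hρ hTK hE hζ hζ' hXd hs hx1 hx2
  rw [← hz, ← hx] at hy
  have hTq := (hT z z1 z2).2
  have hkS : 0 < kS S z0 ρ T := by
    rw [kapP_eq] at hκ
    exact (mul_pos_iff_of_pos_left hw0).1 hκ
  have hκe : S.w 0 * kap b0 (expP S z0 ρ T).2.1 (expP S z0 ρ T).2.2 = kapP S z0 ρ T := rfl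
  rw [hκe] at hy
  have hy' : S.w 0 * |yc b0 x| ≤ 2 * (A + S.a) + 5 * s * kapP S z0 ρ T := by
    linarith
  refine ⟨256 * (yc b0 x / kS S z0 ρ T), 256 * x 1, 256 * x 2, ?_, ?_, ?_, ?_⟩
  · have h1 := cmb_pc hP.ortho hwne T z X
    rw [← hx] at h1
    rw [← h1]
    unfold cx
    rw [← hz]
    congr 2
    have e1 : kS S z0 ρ T * (1 / 256 * (256 * (yc b0 x / kS S z0 ρ T))) = yc b0 x := by
      field_simp
    have e2 : (1 / 256 * (256 * x 1) : ℝ) = x 1 := by ring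
    have e3 : (1 / 256 * (256 * x 2) : ℝ) = x 2 := by ring
    rw [e1, e2, e3]
    exact (unsh_yc b0 x).symm
  · rw [abs_mul, abs_of_pos (by norm_num : (0:ℝ) < 256)]; linarith
  · rw [abs_mul, abs_of_pos (by norm_num : (0:ℝ) < 256)]; linarith
  · rw [abs_mul, abs_of_pos (by norm_num : (0:ℝ) < 256), abs_div, abs_of_pos hkS]
    have e1 : |yc b0 x| / kS S z0 ρ T = S.w 0 * |yc b0 x| / kapP S z0 ρ T := by
      rw [kapP_eq, mul_div_mul_left _ _ hw0.ne']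
    rw [e1]
    have e2 : S.w 0 * |yc b0 x| / kapP S z0 ρ T ≤ 2 * ((A + S.a) / kapP S z0 ρ T) + 5 * s := by
      rw [div_le_iff₀ hκ]
      have e3 : (2 * ((A + S.a) / kapP S z0 ρ T) + 5 * s) * kapP S z0 ρ T =
          2 * (A + S.a) + 5 * s * kapP S z0 ρ T := by
        field_simp
      rw [e3]; exact hy'
    linarith

/-- increment of a bounded jet -/
theorem ev_sub_le {K c : ℝ} {J : Jt} (hJ : JB K c J) {ζ y u v d : ℝ} (hζ : 0 ≤ ζ) (hζ' : ζ ≤ 1)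
    (hy : |y| ≤ d) (hu : |u| ≤ d) (hv : |v| ≤ d) :
    |ev J y ![ζ, u, v] - ev J 0 ![ζ, 0, 0]| ≤ K * (6 * d + 5 * d ^ 2) := by
  have hd : 0 ≤ d := (abs_nonneg _).trans hy
  have hK : 0 ≤ K := (abs_nonneg _).trans hJ.c
  have hz : |ζ| ≤ 1 := by rw [abs_of_nonneg hζ]; exact hζ'
  have s10 := hJ.sym 1 0
  have s20 := hJ.sym 2 0
  have s21 := hJ.sym 2 1
  have e : ev J y ![ζ, u, v] - ev J 0 ![ζ, 0, 0] = J.a0 * y + J.a 1 * u + J.a 2 * v +
      (1 / 2 * (J.h00 * (y * y)) + J.h0 0 * (y * ζ) + J.h0 1 * (y * u) + J.h0 2 * (y * v)) +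
      (J.h 0 1 * (ζ * u) + J.h 0 2 * (ζ * v) + 1 / 2 * (J.h 1 1 * (u * u)) +
        J.h 1 2 * (u * v) + 1 / 2 * (J.h 2 2 * (v * v))) := by
    simp only [ev, dp, qf, Fin.sum_univ_three, Matrix.cons_val]
    rw [s10, s20, s21]
    ring
  have m : ∀ a x : ℝ, |a| ≤ K → ∀ X : ℝ, |x| ≤ X → |a * x| ≤ K * X := fun a x ha X hx => by
    rw [abs_mul]; exact mul_le_mul ha hx (abs_nonneg _) hK
  have p : ∀ a x X Y : ℝ, |a| ≤ X → |x| ≤ Y → |a * x| ≤ X * Y := fun a x X Y ha hx => by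
    rw [abs_mul]; exact mul_le_mul ha hx (abs_nonneg _) ((abs_nonneg _).trans ha)
  have q1 := m _ _ hJ.a0 _ hy
  have q2 := m _ _ (hJ.a 1) _ hu
  have q3 := m _ _ (hJ.a 2) _ hv
  have q4 := m _ _ hJ.h00 _ (p y y d d hy hy)
  have q5 := m _ _ (hJ.h0 0) _ (p y ζ d 1 hy hz)
  have q6 := m _ _ (hJ.h0 1) _ (p y u d d hy hu)
  have q7 := m _ _ (hJ.h0 2) _ (p y v d d hy hv)
  have q8 := m _ _ (hJ.h 0 1) _ (p ζ u 1 d hz hu)
  have q9 := m _ _ (hJ.h 0 2) _ (p ζ v 1 d hz hv)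
  have q10 := m _ _ (hJ.h 1 1) _ (p u u d d hu hu)
  have q11 := m _ _ (hJ.h 1 2) _ (p u v d d hu hv)
  have q12 := m _ _ (hJ.h 2 2) _ (p v v d d hv hv)
  have tot : K * (6 * d + 5 * d ^ 2) = K * d + K * d + K * d +
      (K * (d * 1) + K * (1 * d) + K * (1 * d)) + 5 * (K * (d * d)) := by ring
  rw [e, tot]
  have hdd : 0 ≤ K * (d * d) := by positivity
  rw [abs_le] at q1 q2 q3 q4 q5 q6 q7 q8 q9 q10 q11 q12 ⊢
  constructor <;> linarith [q1.1, q1.2, q2.1, q2.2, q3.1, q3.2, q4.1, q4.2, q5.1, q5.2, q6.1, q6.2,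
    q7.1, q7.2, q8.1, q8.2, q9.1, q9.2, q10.1, q10.2, q11.1, q11.2, q12.1, q12.2]

/-- value of a bounded jet on the axis -/
theorem ev_axis_le {K c : ℝ} {J : Jt} (hJ : JB K c J) {ζ : ℝ} (hζ : 0 ≤ ζ) (hζ' : ζ ≤ 1) :
    |c + ev J 0 ![ζ, 0, 0]| ≤ 3 * K := by
  have hK : 0 ≤ K := (abs_nonneg _).trans hJ.c
  have e : c + ev J 0 ![ζ, 0, 0] = c + J.a 0 * ζ + 1 / 2 * (J.h 0 0 * (ζ * ζ)) := by
    simp only [ev, dp, qf, Fin.sum_univ_three, Matrix.cons_val]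
    ring
  rw [e]
  have z2 : ζ * ζ ≤ 1 := by nlinarith
  have h1 : |J.a 0 * ζ| ≤ K := by
    rw [abs_mul, abs_of_nonneg hζ]
    have := hJ.a 0
    nlinarith [abs_nonneg (J.a 0)]
  have h2 : |J.h 0 0 * (ζ * ζ)| ≤ K := by
    rw [abs_mul, abs_of_nonneg (mul_nonneg hζ hζ)]
    have := hJ.h 0 0
    nlinarith [abs_nonneg (J.h 0 0), mul_nonneg hζ hζ]
  have h3 := hJ.c
  rw [abs_le] at h1 h2 h3 ⊢
  constructor <;> linarith [h1.1, h1.2, h2.1, h2.2, h3.1, h3.2]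

/-- **closeness from a division** : improved near `T`, and the crude form. -/
theorem close_of_div {S : Plk4} {z0 ρ r0 : ℝ} {T : Ln4} (hr0 : 0 < r0) (hρ : 0 ≤ ρ)
    (hS : Shp S z0 ρ r0) (hT : InP T S z0 ρ) (hκ : 0 < kapP S z0 ρ T) (haκ : S.a ≤ kapP S z0 ρ T)
    {q' : ℝ → V3 → ℝ} {μ Λ K c : ℝ} {J : Jt} (hΛ : 0 ≤ Λ) (hJ : JB K c J)
    (hdiv : ∀ ζ y u v, q' (z0 + ρ * ζ) (cx S z0 ρ T ζ y u v) -
      μ * S.q (z0 + ρ * ζ) (cx S z0 ρ T ζ y u v) = Λ * (c + ev J y ![ζ, u, v]))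
    {ζ : ℝ} (hζ : 0 ≤ ζ) (hζ' : ζ ≤ 1) {X : V3} {A s : ℝ} (hs : s ≤ 1 / 8)
    (hX0 : |dt (S.e 0) (X - T.pos (z0 + ρ * ζ))| ≤ S.w 0 / 8)
    (hX1 : |dt (S.e 1) (X - T.pos (z0 + ρ * ζ))| ≤ s * S.w 1)
    (hX2 : |dt (S.e 2) (X - T.pos (z0 + ρ * ζ))| ≤ s * S.w 2)
    (hq : |S.q (z0 + ρ * ζ) X| ≤ A) (hA : A ≤ kapP S z0 ρ T) :
    |q' (z0 + ρ * ζ) X| ≤ |q' (z0 + ρ * ζ) (T.pos (z0 + ρ * ζ))| + |μ| * (A + S.a) +
        10 ^ 8 * K * Λ * (s + (A + S.a) / kapP S z0 ρ T) ∧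
      |q' (z0 + ρ * ζ) X| ≤ |μ| * A + 10 ^ 8 * K * Λ := by
  obtain ⟨y, u, v, hX, hu, hv, hy⟩ := chart_pt hr0 hρ hS hT hκ hζ hζ' hs hX0 hX1 hX2 hq
  have hK : 0 ≤ K := (abs_nonneg _).trans hJ.c
  have ha : 0 < S.a := hr0.trans_le hS.r0_le
  have hw0 : 0 < S.w 0 := ha.trans_le hS.a_le0
  have hP := StP.of_shN hS hw0
  have hA0 : 0 ≤ A := (abs_nonneg _).trans hq
  have hs0 : 0 ≤ s := by
    have h1 := (abs_nonneg _).trans hX1
    by_contra hc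
    push Not at hc
    have := mul_neg_of_neg_of_pos hc (hP.pos 1)
    linarith
  have z1 : z0 ≤ z0 + ρ * ζ := by nlinarith
  have z2 : z0 + ρ * ζ ≤ z0 + ρ := by nlinarith
  set t := (A + S.a) / kapP S z0 ρ T with ht
  have ht0 : 0 ≤ t := by positivity
  have ht2 : t ≤ 2 := by rw [ht, div_le_iff₀ hκ]; linarith
  set d := 512 * t + 1280 * s with hd
  have hd0 : 0 ≤ d := by positivity
  have hd1 : d ≤ 1184 := by linarith
  have h1 := ev_sub_le hJ hζ hζ' (d := d) hy (hu.trans (by linarith)) (hv.trans (by linarith))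
  have h2 := ev_axis_le hJ hζ hζ'
  have h3 := hdiv ζ y u v
  have h4 := hdiv ζ 0 0 0
  rw [← hX] at h3
  rw [cx_zero] at h4
  have hTq := (hT _ z1 z2).2
  set D := ev J y ![ζ, u, v] - ev J 0 ![ζ, 0, 0] with hD
  have hDd : |D| ≤ K * (6000 * d) := by
    refine h1.trans (mul_le_mul_of_nonneg_left ?_ hK)
    nlinarith
  have hDc : 6000 * d ≤ 10 ^ 7 * (s + t) := by
    rw [hd]; linarith
  constructor
  · have e1 : q' (z0 + ρ * ζ) X = q' (z0 + ρ * ζ) (T.pos (z0 + ρ * ζ)) +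
        μ * (S.q (z0 + ρ * ζ) X - S.q (z0 + ρ * ζ) (T.pos (z0 + ρ * ζ))) + Λ * D := by
      rw [hD]; linear_combination h3 - h4
    rw [e1]
    have k1 : |μ * (S.q (z0 + ρ * ζ) X - S.q (z0 + ρ * ζ) (T.pos (z0 + ρ * ζ)))| ≤
        |μ| * (A + S.a) := by
      rw [abs_mul]
      exact mul_le_mul_of_nonneg_left ((abs_sub _ _).trans (by linarith)) (abs_nonneg _)
    have k2 : |Λ * D| ≤ 10 ^ 8 * K * Λ * (s + t) := by
      rw [abs_mul, abs_of_nonneg hΛ]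
      calc Λ * |D| ≤ Λ * (K * (10 ^ 8 * (s + t))) := by
            refine mul_le_mul_of_nonneg_left (hDd.trans (mul_le_mul_of_nonneg_left ?_ hK)) hΛ
            have : 0 ≤ s + t := by positivity
            linarith
        _ = _ := by ring
    refine (abs_add_le _ _).trans (add_le_add ((abs_add_le _ _).trans (add_le_add le_rfl k1)) k2)
  · have e1 : q' (z0 + ρ * ζ) X = μ * S.q (z0 + ρ * ζ) X +
        Λ * ((c + ev J 0 ![ζ, 0, 0]) + D) := by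
      rw [hD]; linear_combination h3
    rw [e1]
    have k1 : |μ * S.q (z0 + ρ * ζ) X| ≤ |μ| * A := by
      rw [abs_mul]; exact mul_le_mul_of_nonneg_left hq (abs_nonneg _)
    have k2 : |Λ * ((c + ev J 0 ![ζ, 0, 0]) + D)| ≤ 10 ^ 8 * K * Λ := by
      rw [abs_mul, abs_of_nonneg hΛ]
      have k3 : |(c + ev J 0 ![ζ, 0, 0]) + D| ≤ K * 10 ^ 8 := by
        refine (abs_add_le _ _).trans ?_
        have : K * (6000 * d) ≤ K * (6000 * 1184) :=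
          mul_le_mul_of_nonneg_left (by linarith) hK
        linarith
      calc Λ * |(c + ev J 0 ![ζ, 0, 0]) + D| ≤ Λ * (K * 10 ^ 8) :=
            mul_le_mul_of_nonneg_left k3 hΛ
        _ = _ := by ring
    exact (abs_add_le _ _).trans (add_le_add k1 k2)

/-- the crude form as closeness -/
theorem closeC_of_div {S : Plk4} {z0 ρ r0 : ℝ} {T : Ln4} (hr0 : 0 < r0) (hρ : 0 < ρ)
    (hS : Shp S z0 ρ r0) (hT : InP T S z0 ρ) (haκ : S.a ≤ kapP S z0 ρ T)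
    {q' : ℝ → V3 → ℝ} {μ Λ K c : ℝ} {J : Jt} (hΛ : 0 ≤ Λ) (hJ : JB K c J)
    (hdiv : ∀ ζ y u v, q' (z0 + ρ * ζ) (cx S z0 ρ T ζ y u v) -
      μ * S.q (z0 + ρ * ζ) (cx S z0 ρ T ζ y u v) = Λ * (c + ev J y ![ζ, u, v])) :
    CloseC S.e S.w S.q S.a q' (|μ| * S.a + 10 ^ 8 * K * Λ) T z0 ρ := by
  have ha : 0 < S.a := hr0.trans_le hS.r0_le
  have hκ : 0 < kapP S z0 ρ T := ha.trans_le haκ
  intro z hz1 hz2 x hx hqx
  have e : z = z0 + ρ * ((z - z0) / ρ) := by field_simp; ring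
  have g1 : 0 ≤ (z - z0) / ρ := div_nonneg (by linarith) hρ.le
  have g2 : (z - z0) / ρ ≤ 1 := by rw [div_le_one hρ]; linarith
  have x0 := hx 0
  have x1 := hx 1
  have x2 := hx 2
  simp only at x0 x1 x2
  rw [e] at x0 x1 x2 hqx ⊢
  exact (close_of_div hr0 hρ.le hS hT hκ haκ hΛ hJ hdiv g1 g2 (s := 1 / 8) le_rfl x0
    (by linarith) (by linarith) hqx haκ).2

end Crest.Agent.R136.Cod501
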