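import Crest.Agent.R136.Coi1_102

/-!
# R136 (S0187): two sheets through a common line, transition of tangent coordinates II (helper102)
-/

set_option autoImplicit false

namespace Crest.Agent.R136.Tl102

open Crest.Agent.R136.Sh605

section two

variable {e : Fin 3 → V3} {c : Ln4} {w : V3} {q : ℝ → V3 → ℝ} {e' : Fin 3 → V3} {c' : Ln4}
  {w' : V3} {q' : ℝ → V3 → ℝ} {T : Ln4} {z0 ρ a a' : ℝ} {b0 b1 : V3} {G : QF}
  {b0' b1' : V3} {G' : QF} {d0 d1 : V3} {H : QF} {B lam : ℝ}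

/-! ### transition of the tangent vectors -/

/-- tangent vectors of the second sheet at `T` (lower end of the cell) -/
noncomputable def tg (e' : Fin 3 → V3) (w' d0 : V3) (k : Fin 3) : V3 :=
  w' k • e' k - (d0 k / d0 0 * w' 0) • e' 0

theorem tg_split (he' : Ortho e') (hw' : ∀ k, w' k ≠ 0) (d0 V : V3) :
    V = (w' 0 * yc d0 (pv e' w' V)) • e' 0 +
      (pv e' w' V 1 • tg e' w' d0 1 + pv e' w' V 2 • tg e' w' d0 2) := by
  have h := cmb_pv he' hw' V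
  generalize pv e' w' V = x at h ⊢
  conv_lhs => rw [← h]
  ext i
  simp only [cmb, fr, tg, yc, Pi.add_apply, Pi.sub_apply, Pi.smul_apply, smul_eq_mul]
  ring

theorem tv_split (he' : Ortho e') (hw' : ∀ k, w' k ≠ 0) (κ : ℝ) (b0 : V3) (e : Fin 3 → V3)
    (w d0 V : V3) (k : Fin 3) : tv κ b0 e w V k =
      w' 0 * yc d0 (pv e' w' V) * tv κ b0 e w (e' 0) k +
        (pv e' w' V 1 * tv κ b0 e w (tg e' w' d0 1) k +
          pv e' w' V 2 * tv κ b0 e w (tg e' w' d0 2) k) := by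
  conv_lhs => rw [tg_split he' hw' d0 V]
  rw [tv_add, tv_add, tv_smul, tv_smul, tv_smul]
  rfl

theorem pv_tg (he' : Ortho e') (hw' : ∀ k, w' k ≠ 0) {d0 : V3} (hd : d0 0 ≠ 0) {k : Fin 3}
    (hk : k ≠ 0) : dt d0 (pv e' w' (tg e' w' d0 k)) = 0 := by
  have h : ∀ j, pv e' w' (tg e' w' d0 k) j =
      (w' k * (if j = k then 1 else 0) - d0 k / d0 0 * w' 0 * (if j = 0 then 1 else 0)) / w' j := by
    intro j
    have h1 := he' j k
    have h2 := he' j 0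
    simp only [pv, tg, dt_sub, dt_smul, h1, h2]
  have h0 := hw' 0
  fin_cases k
  · exact absurd rfl hk
  · have h1 := hw' 1
    simp only [dt, h]
    simp
    field_simp
    ring
  · have h1 := hw' 2
    simp only [dt, h]
    simp
    field_simp
    ring

/-- lateral coordinates of the tangent vectors -/
theorem Two.tg_le (D : Two e c w q e' c' w' q' T z0 ρ a a' b0 b1 G b0' b1' G' d0 d1 H B lam)
    (κ : ℝ) {k : Fin 3} (hk : k ≠ 0) : |tv κ b0 e w (tg e' w' d0 k) 1| ≤ 3 * (B * lam) ∧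
      |tv κ b0 e w (tg e' w' d0 k) 2| ≤ 3 * (B * lam) := by
  obtain ⟨-, -, -, -, -, -, -, s1, s2⟩ := D.nrm'.b1_le
  have hw0 := D.S.pos 0
  have hw1 := D.S.pos 1
  have hw2 := D.S.pos 2
  have hw0' := D.S'.pos 0
  have hw1' := D.S'.pos 1
  have hw2' := D.S'.pos 2
  have hB := D.B1
  have hlam := D.lam1
  have hs : |d0 k / d0 0| ≤ 2 := by
    fin_cases k
    · exact absurd rfl hk
    · exact s1
    · exact s2
  have hBl : B ≤ B * lam := le_mul_of_one_le_right (by linarith) hlam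
  have hgen : ∀ j, |dt (e j) (tg e' w' d0 k)| ≤ |dt (e j) (e' k)| * w' k + 2 * w' 0 := by
    intro j
    rw [tg, dt_sub, dt_smul, dt_smul]
    refine (abs_sub _ _).trans (add_le_add ?_ ?_)
    · rw [abs_mul, abs_of_pos (D.S'.pos k), mul_comm]
    · rw [abs_mul, abs_mul, abs_of_pos hw0']
      have h1 := dt_le_one D.S.ortho D.S'.ortho j 0
      have h2 : |d0 k / d0 0| * w' 0 * |dt (e j) (e' 0)| ≤ 2 * w' 0 * 1 := by gcongr
      linarith
  have h1 := hgen 1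
  have h2 := hgen 2
  have u1 := dt_le_one D.S.ortho D.S'.ortho 1 k
  have w1B := D.wB1
  have w2B := D.wB2
  have w02' := D.w02'
  have w21' := D.w21'
  have w21 := D.w21
  constructor
  · change |dt (e 1) (tg e' w' d0 k) / w 1| ≤ _
    rw [abs_div, abs_of_pos hw1, div_le_iff₀ hw1]
    have h3 : |dt (e 1) (e' k)| * w' k ≤ 1 * w' 1 := by
      apply mul_le_mul u1 _ (D.S'.pos k).le zero_le_one
      fin_cases k
      · exact absurd rfl hk
      · exact le_rfl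
      · exact w21'
    have h4 : B * w 1 ≤ B * lam * w 1 := mul_le_mul_of_nonneg_right hBl hw1.le
    linarith
  · change |dt (e 2) (tg e' w' d0 k) / w 2| ≤ _
    rw [abs_div, abs_of_pos hw2, div_le_iff₀ hw2]
    have h4 : B * w 2 ≤ B * lam * w 2 := mul_le_mul_of_nonneg_right hBl hw2.le
    have h3 : |dt (e 2) (e' k)| * w' k ≤ B * lam * w 2 := by
      fin_cases k
      · exact absurd rfl hk
      · change |dt (e 2) (e' 1)| * w' 1 ≤ _
        calc |dt (e 2) (e' 1)| * w' 1 ≤ |dt (e 2) (e' 1)| * (B * w 1) :=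
              mul_le_mul_of_nonneg_left w1B (abs_nonneg _)
          _ = B * (|dt (e 2) (e' 1)| * w 1) := by ring
          _ ≤ B * (lam * w 2) := mul_le_mul_of_nonneg_left D.tilt (by linarith)
          _ = _ := by ring
      · change |dt (e 2) (e' 2)| * w' 2 ≤ _
        have u2 := dt_le_one D.S.ortho D.S'.ortho 2 2
        have := mul_le_mul_of_nonneg_right u2 hw2'.le
        linarith
    linarith

/-- **normal coordinate of the tangent vectors** -/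
theorem Two.tg_zero (D : Two e c w q e' c' w' q' T z0 ρ a a' b0 b1 G b0' b1' G' d0 d1 H B lam)
    {κ X Y Z : ℝ} (hκ : 0 < κ) (O : OmB κ X Y Z b0 b1 G b0' b1' G')
    (hX : 8 * (X * (w 0 * κ)) ≤ w 2) {k : Fin 3} (hk : k ≠ 0) :
    |tv κ b0 e w (tg e' w' d0 k) 0| ≤ 192 * (X * (B * lam)) := by
  have hwne : ∀ i, w i ≠ 0 := fun i => (D.S.pos i).ne'
  have hwne' : ∀ i, w' i ≠ 0 := fun i => (D.S'.pos i).ne'
  obtain ⟨g1, g2, -, -, -, -, -, -, -⟩ := D.nrm.b1_le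
  obtain ⟨g1', g2', -, -, -, -, -, -, -⟩ := D.nrm'.b1_le
  have hb0 : b0 0 ≠ 0 := by linarith
  have hm := D.le_m hκ O hX
  have h := (cross D.S.ortho D.S'.ortho hwne hwne' D.hE' D.hH (tg e' w' d0 k)).1
  rw [pv_tg D.S'.ortho hwne' (by linarith) hk, mul_zero] at h
  have h1 := (mul_eq_zero.1 h).resolve_left (hwne 0)
  rw [grad' hb0 hκ.ne' e w b0'] at h1
  have h2 := (mul_eq_zero.1 h1).resolve_left hκ.ne'
  obtain ⟨t1, t2⟩ := D.tg_le κ hk
  set p := tv κ b0 e w (tg e' w' d0 k) with hp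
  have h3 : |b0' 0 / b0 0 * (b0 0 * p 0)| ≤ X * (3 * (B * lam)) + X * (3 * (B * lam)) := by
    have : b0' 0 / b0 0 * (b0 0 * p 0) = -(om0 κ b0 b0' 1 * p 1 + om0 κ b0 b0' 2 * p 2) := by
      linarith
    rw [this, abs_neg]
    exact Arc880.abs_add2 (mul_abs_le O.h01 t1) (mul_abs_le O.h02 t2)
  rw [abs_mul, abs_mul, abs_of_pos (by linarith : 0 < b0 0)] at h3
  have h4 : 1 / 16 * (1 / 2 * |p 0|) ≤ |b0' 0 / b0 0| * (b0 0 * |p 0|) := by
    apply mul_le_mul hm _ (by positivity) (abs_nonneg _)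
    exact mul_le_mul_of_nonneg_right g1 (abs_nonneg _)
  linarith

/-- coordinates of the normal vector -/
theorem Two.nv_le (D : Two e c w q e' c' w' q' T z0 ρ a a' b0 b1 G b0' b1' G' d0 d1 H B lam)
    {κ : ℝ} (hκ : 0 < κ) : |tv κ b0 e w (e' 0) 0| ≤ 5 / (w 0 * κ) ∧
      |tv κ b0 e w (e' 0) 1| ≤ 1 / w 2 ∧ |tv κ b0 e w (e' 0) 2| ≤ 1 / w 2 := by
  obtain ⟨-, -, -, -, -, -, -, s1, s2⟩ := D.nrm.b1_le
  have hw0 := D.S.pos 0
  have hw1 := D.S.pos 1
  have hw2 := D.S.pos 2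
  have h1 : |dt (e 1) (e' 0) / w 1| ≤ 1 / w 2 := by
    rw [abs_div, abs_of_pos hw1]
    calc |dt (e 1) (e' 0)| / w 1 ≤ 1 / w 1 :=
          div_le_div_of_nonneg_right (dt_le_one D.S.ortho D.S'.ortho 1 0) hw1.le
      _ ≤ 1 / w 2 := one_div_le_one_div_of_le hw2 D.w21
  have h2 : |dt (e 2) (e' 0) / w 2| ≤ 1 / w 2 := by
    rw [abs_div, abs_of_pos hw2]
    exact div_le_div_of_nonneg_right (dt_le_one D.S.ortho D.S'.ortho 2 0) hw2.le
  have h0 : |dt (e 0) (e' 0) / w 0| ≤ 1 / w 0 := by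
    rw [abs_div, abs_of_pos hw0]
    exact div_le_div_of_nonneg_right (dt_le_one D.S.ortho D.S'.ortho 0 0) hw0.le
  refine ⟨?_, h1, h2⟩
  change |(dt (e 0) (e' 0) / w 0 + b0 1 / b0 0 * (dt (e 1) (e' 0) / w 1) +
    b0 2 / b0 0 * (dt (e 2) (e' 0) / w 2)) / κ| ≤ _
  have h3 : 1 / w 2 ≤ 1 / w 0 := one_div_le_one_div_of_le hw0 D.w02
  have h4 := Arc880.abs_add2 (Arc880.abs_add2 h0 (mul_abs_le s1 (h1.trans h3)))
    (mul_abs_le s2 (h2.trans h3))
  rw [abs_div, abs_of_pos hκ]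
  calc _ ≤ (1 / w 0 + 2 * (1 / w 0) + 2 * (1 / w 0)) / κ := div_le_div_of_nonneg_right h4 hκ.le
    _ = 5 / (w 0 * κ) := by field_simp; ring

/-- **transition of coordinates**: `d` = distance to the tangent plane of the second sheet -/
theorem Two.coords (D : Two e c w q e' c' w' q' T z0 ρ a a' b0 b1 G b0' b1' G' d0 d1 H B lam)
    {κ X Y Z : ℝ} (hκ : 0 < κ) (O : OmB κ X Y Z b0 b1 G b0' b1' G')
    (hX : 8 * (X * (w 0 * κ)) ≤ w 2) {V : V3} {d r : ℝ} (hd : w' 0 * |yc d0 (pv e' w' V)| ≤ d)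
    (h1 : |pv e' w' V 1| ≤ r) (h2 : |pv e' w' V 2| ≤ r) :
    |tv κ b0 e w V 0| ≤ 5 * d / (w 0 * κ) + 384 * (r * (X * (B * lam))) ∧
      |tv κ b0 e w V 1| ≤ d / w 2 + 6 * (r * (B * lam)) ∧
      |tv κ b0 e w V 2| ≤ d / w 2 + 6 * (r * (B * lam)) := by
  have hwne' : ∀ i, w' i ≠ 0 := fun i => (D.S'.pos i).ne'
  obtain ⟨n0, n1, n2⟩ := D.nv_le hκ
  have p1 := D.tg_le κ (k := 1) (by decide)
  have p2 := D.tg_le κ (k := 2) (by decide)
  have q1 := D.tg_zero hκ O hX (k := 1) (by decide)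
  have q2 := D.tg_zero hκ O hX (k := 2) (by decide)
  have hd' : |w' 0 * yc d0 (pv e' w' V)| ≤ d := by
    rw [abs_mul, abs_of_pos (D.S'.pos 0)]; exact hd
  have s := tv_split D.S'.ortho hwne' κ b0 e w d0 V
  refine ⟨?_, ?_, ?_⟩
  · rw [s 0]
    exact (Arc880.abs_add2 (mul_abs_le hd' n0) (Arc880.abs_add2 (mul_abs_le h1 q1)
      (mul_abs_le h2 q2))).trans (le_of_eq (by ring))
  · rw [s 1]
    exact (Arc880.abs_add2 (mul_abs_le hd' n1) (Arc880.abs_add2 (mul_abs_le h1 p1.1)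
      (mul_abs_le h2 p2.1))).trans (le_of_eq (by ring))
  · rw [s 2]
    exact (Arc880.abs_add2 (mul_abs_le hd' n2) (Arc880.abs_add2 (mul_abs_le h1 p1.2)
      (mul_abs_le h2 p2.2))).trans (le_of_eq (by ring))

/-- the curvature extent from the values on the tangent plane -/
theorem kap_of_values {d0 d1 : V3} {H : QF} {ω W : ℝ} (hω : 0 < ω)
    (h : ∀ ζ u v : ℝ, 0 ≤ ζ → ζ ≤ 1 → |u| ≤ 1 → |v| ≤ 1 →
      |ω * Fq (shB0 d0) (shB1 d0 d1) (shG d0 H) ζ ![0, u, v]| ≤ W) : ω * kap d0 d1 H ≤ W := by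
  have f : ∀ ζ u v : ℝ, ω * Fq (shB0 d0) (shB1 d0 d1) (shG d0 H) ζ ![0, u, v] =
      ω * (ζ * (shB1 d0 d1 1 * u + shB1 d0 d1 2 * v) + ((shG d0 H).uu * u ^ 2 +
        (shG d0 H).uv * (u * v) + (shG d0 H).vv * v ^ 2)) := by
    intro ζ u v
    simp only [Fq, dt, bz, QF.ev, shB0, Matrix.cons_val]; ring
  have a0 : |(0 : ℝ)| ≤ 1 := by norm_num
  have a1 : |(1 : ℝ)| ≤ 1 := by norm_num
  have a2 : |(-1 : ℝ)| ≤ 1 := by norm_num
  have h1 := h 0 1 0 le_rfl zero_le_one a1 a0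
  have h2 := h 0 0 1 le_rfl zero_le_one a0 a1
  have h3 := h 0 1 1 le_rfl zero_le_one a1 a1
  have h4 := h 0 1 (-1) le_rfl zero_le_one a1 a2
  have h5 := h 1 1 0 zero_le_one le_rfl a1 a0
  have h6 := h 1 (-1) 0 zero_le_one le_rfl a2 a0
  have h7 := h 1 0 1 zero_le_one le_rfl a0 a1
  have h8 := h 1 0 (-1) zero_le_one le_rfl a0 a2
  rw [f, abs_le] at h1 h2 h3 h4 h5 h6 h7 h8
  have g : ∀ x : ℝ, -W ≤ ω * x → ω * x ≤ W → |x| ≤ W / ω := by
    intro x k1 k2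
    have k3 : |ω * x| ≤ W := abs_le.2 ⟨k1, k2⟩
    rw [abs_mul, abs_of_pos hω] at k3
    rw [le_div_iff₀ hω]
    linarith
  have k : kap d0 d1 H ≤ W / ω := by
    refine max_le (max_le ?_ ?_) (max_le (max_le ?_ ?_) ?_) <;> apply g <;>
      linarith [h1.1, h1.2, h2.1, h2.2, h3.1, h3.2, h4.1, h4.2, h5.1, h5.2, h6.1, h6.2, h7.1, h7.2,
        h8.1, h8.2]
  rw [le_div_iff₀ hω] at k
  linarith

/-- **the curvature extents of the two sheets** -/
theorem Two.kap_le (D : Two e c w q e' c' w' q' T z0 ρ a a' b0 b1 G b0' b1' G' d0 d1 H B lam)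
    {κ X Y Z : ℝ} (hκ : 0 < κ) (hk : kap b0 b1 G ≤ κ) (hκ1 : κ ≤ 13)
    (O : OmB κ X Y Z b0 b1 G b0' b1' G') (hX : 8 * (X * (w 0 * κ)) ≤ w 2) :
    w' 0 * kap d0 d1 H ≤
      2 * 10 ^ 8 * ((1 + X + Y + Z) * (1 + X) ^ 2 * (B * lam) ^ 2) * (w 0 * κ) := by
  have hwne : ∀ i, w i ≠ 0 := fun i => (D.S.pos i).ne'
  have hwne' : ∀ i, w' i ≠ 0 := fun i => (D.S'.pos i).ne'
  obtain ⟨g1, g2, -, -, -, -, -, -, -⟩ := D.nrm.b1_le
  obtain ⟨g1', g2', -, -, -, -, -, -, -⟩ := D.nrm'.b1_le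
  have hb0 : b0 0 ≠ 0 := by linarith
  have hd0 : d0 0 ≠ 0 := by linarith
  obtain ⟨X0, Y0, Z0⟩ := O.nonneg
  have hwk : 0 < w 0 * κ := mul_pos (D.S.pos 0) hκ
  have hBl : 1 ≤ B * lam := one_le_mul_of_one_le_of_one_le D.B1 D.lam1
  apply kap_of_values (D.S'.pos 0)
  intro ζ u v hζ hζ' hu hv
  set V : V3 := u • tg e' w' d0 1 + v • tg e' w' d0 2 with hV
  have hpv : pv e' w' V = unsh d0 0 u v := by
    have h : ∀ j, pv e' w' V j = (u * (w' 1 * (if j = 1 then 1 else 0) -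
        d0 1 / d0 0 * w' 0 * (if j = 0 then 1 else 0)) + v * (w' 2 * (if j = 2 then 1 else 0) -
        d0 2 / d0 0 * w' 0 * (if j = 0 then 1 else 0))) / w' j := by
      intro j
      have h1 := D.S'.ortho j 1
      have h2 := D.S'.ortho j 2
      have h3 := D.S'.ortho j 0
      simp only [pv, hV, tg, dt_add, dt_sub, dt_smul, h1, h2, h3]
    have k0 := hwne' 0
    have k1 := hwne' 1
    have k2 := hwne' 2
    ext j
    rw [h]
    fin_cases j
    · change _ = 0 - d0 1 / d0 0 * u - d0 2 / d0 0 * v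
      simp
      field_simp
      ring
    · change _ = u
      simp
      field_simp
    · change _ = v
      simp
      field_simp
  have hX1 := D.hH ζ (pv e' w' V)
  rw [cmb_pv D.S'.ortho hwne'] at hX1
  have e1 := om_val D.S.ortho hwne D.hE D.hE' hκ.ne' ζ (T.pos (z0 + ρ * ζ) + V)
  have e2 := own_val D.S.ortho hwne D.hE hb0 hκ.ne' ζ (T.pos (z0 + ρ * ζ) + V)
  rw [add_sub_cancel_left] at e1 e2
  rw [e2, hX1, hpv, Fq_unsh hd0] at e1
  set m := b0' 0 / b0 0 with hm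
  have e3 : w' 0 * Fq (shB0 d0) (shB1 d0 d1) (shG d0 H) ζ ![0, u, v] =
      w 0 * κ * (m * Fq (shB0 b0) (scB1 κ b0 b1) (scG κ b0 G) ζ (tv κ b0 e w V) +
        Fq (om0 κ b0 b0') (om1 κ b0 b1 b0' b1') (omM κ b0 G b0' G') ζ (tv κ b0 e w V)) := by
    linarith
  rw [e3, abs_mul, abs_of_pos hwk]
  -- coordinates of `V`
  have p1 := D.tg_le κ (k := 1) (by decide)
  have p2 := D.tg_le κ (k := 2) (by decide)
  have q1 := D.tg_zero hκ O hX (k := 1) (by decide)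
  have q2 := D.tg_zero hκ O hX (k := 2) (by decide)
  set R := 384 * ((1 + X) * (B * lam)) with hR
  have hR1 : 1 ≤ R := by
    have : 1 ≤ (1 + X) * (B * lam) := one_le_mul_of_one_le_of_one_le (by linarith) hBl
    rw [hR]; linarith
  have hV' : ∀ k, tv κ b0 e w V k = u * tv κ b0 e w (tg e' w' d0 1) k +
      v * tv κ b0 e w (tg e' w' d0 2) k := by
    intro k
    rw [hV, tv_add, tv_smul, tv_smul]; rfl
  have hXB : 0 ≤ X * (B * lam) := by positivity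
  have hRe : R = 384 * (X * (B * lam)) + 384 * (B * lam) := by rw [hR]; ring
  have hc : ∀ k, |tv κ b0 e w V k| ≤ R := by
    intro k
    rw [hV' k]
    fin_cases k
    · exact (Arc880.abs_add2 (mul_abs_le hu q1) (mul_abs_le hv q2)).trans (by linarith)
    · exact (Arc880.abs_add2 (mul_abs_le hu p1.1) (mul_abs_le hv p2.1)).trans (by linarith)
    · exact (Arc880.abs_add2 (mul_abs_le hu p1.2) (mul_abs_le hv p2.2)).trans (by linarith)
  have hζa : |ζ| ≤ 1 := by rw [abs_of_nonneg hζ]; exact hζ'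
  obtain ⟨c1, c2, c3⟩ := D.nrm.sc_le' hκ hk hκ1
  have f1 := Fq_le c1 c2 c3 hζa hc hR1
  have f2 := O.le hb0 hζa (hc 0) (hc 1) (hc 2)
  have f3 := Arc880.abs_add2 (mul_abs_le D.m_le f1) f2
  have hRR : R ≤ R ^ 2 := by nlinarith
  have hR2 : 0 ≤ R ^ 2 := by positivity
  have f4 : 8 * (12 * R ^ 2 * 13) + (Y * R + Z * (R ^ 2 + 2 * (R * R)) + X * (4 * R + 3 * R ^ 2)) ≤
      1300 * ((1 + X + Y + Z) * R ^ 2) := by
    have k1 : Y * R ≤ Y * R ^ 2 := mul_le_mul_of_nonneg_left hRR Y0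
    have k2 : X * R ≤ X * R ^ 2 := mul_le_mul_of_nonneg_left hRR X0
    have k3 : 0 ≤ X * R ^ 2 := by positivity
    have k4 : 0 ≤ Y * R ^ 2 := by positivity
    have k5 : 0 ≤ Z * R ^ 2 := by positivity
    have k6 : R * R = R ^ 2 := by ring
    rw [k6]
    linarith
  calc w 0 * κ * _ ≤ w 0 * κ * (1300 * ((1 + X + Y + Z) * R ^ 2)) :=
        mul_le_mul_of_nonneg_left (f3.trans f4) hwk.le
    _ = (1300 * 384 ^ 2) * ((1 + X + Y + Z) * (1 + X) ^ 2 * (B * lam) ^ 2) * (w 0 * κ) := by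
        rw [hR]; ring
    _ ≤ _ := by
        have k5 : 0 ≤ (1 + X + Y + Z) * (1 + X) ^ 2 * (B * lam) ^ 2 := by positivity
        have k6 := mul_nonneg k5 hwk.le
        nlinarith

end two

end Crest.Agent.R136.Tl102
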