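import Crest.Agent.R136.Coi2_102
import Crest.Agent.R136.Cap3_102

/-!
# R136 (S0187): pencil lemma and capture, coefficient form (helper102)
-/

set_option autoImplicit false

namespace Crest.Agent.R136.Tl102

open Crest.Agent.R136.Sh605
open Crest.Agent.R136.Arc880

/-- constant of the coefficients -/
def cX : ℝ := 2 * 10 ^ 11 * 256 ^ 7 * cTw ^ 10

theorem cX_pos : 0 < cX := by unfold cX; have := cTw_pos; positivity

/-- bound of the coefficients of `ω`, `wk = w 0 * kap` -/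
noncomputable def xP (η a a₂ wk : ℝ) : ℝ :=
  2 * 10 ^ 11 * 256 ^ 7 * ((2 * a₂ + 16 * a) / wk) / (η ^ 2 / cTw) ^ 10

theorem xP_eq {η : ℝ} (hη : 0 < η) (a a₂ wk : ℝ) :
    xP η a a₂ wk = cX * (2 * a₂ + 16 * a) / η ^ 20 / wk := by
  have := cTw_pos
  rw [xP, cX, div_pow]
  field_simp

theorem xP_mul {η : ℝ} (hη : 0 < η) (a a₂ : ℝ) {wk : ℝ} (hk : wk ≠ 0) :
    xP η a a₂ wk * wk = cX * (2 * a₂ + 16 * a) / η ^ 20 := by
  rw [xP_eq hη, div_mul_cancel₀ _ hk]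

/-- **the pencil lemma for sheets, coefficient form** -/
theorem pencil_coef {e : Fin 3 → V3} {c : Ln4} {w : V3} {q q₂ : ℝ → V3 → ℝ} {z0 ρ a a₂ : ℝ}
    (S : StP e c w q z0 ρ) (hρ : 0 ≤ ρ) {T : Ln4} (hT : InSheet T e c w q a z0 ρ)
    {b0 b1 : V3} {G : QF} (hE : IsExp q e w T z0 ρ b0 b1 G) (hκ : 0 < kap b0 b1 G)
    {b0' b1' : V3} {G' : QF} (hE' : IsExp q₂ e w T z0 ρ b0' b1' G') (hm : |b0' 0| ≤ 4)
    (hT₂ : ∀ z, z0 ≤ z → z ≤ z0 + ρ → |q₂ z (T.pos z)| ≤ a₂)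
    {η r : ℝ} (hη : 0 < η) (hη1 : η ≤ 1)
    {s : Fin 3 → ℝ} (hs : ∀ i, 0 ≤ s i ∧ s i ≤ 1) (hsd : ∀ i j, i ≠ j → η ≤ |s i - s j|)
    {L : Fin 3 → Fin 3 → Ln4} (hL : ∀ i j, InSheet (L i j) e c w q a z0 ρ)
    (hL₂ : ∀ i j, ∀ z, z0 ≤ z → z ≤ z0 + ρ → |q₂ z ((L i j).pos z)| ≤ a₂)
    (hr1 : ∀ i j, |rp e w z0 ρ T (L i j) (s i) 1| ≤ r)
    (hr2 : ∀ i j, |rp e w z0 ρ T (L i j) (s i) 2| ≤ r)
    (htd : ∀ i j j', j ≠ j' → η ≤ |vel e w ρ T (L i j) 1 * vel e w ρ T (L i j') 2 -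
      vel e w ρ T (L i j') 1 * vel e w ρ T (L i j) 2|)
    (hsm : cSm * (r + a / (w 0 * kap b0 b1 G)) ≤ η ^ 20) :
    OmB (kap b0 b1 G) (xP η a a₂ (w 0 * kap b0 b1 G)) (xP η a a₂ (w 0 * kap b0 b1 G))
      (xP η a a₂ (w 0 * kap b0 b1 G)) b0 b1 G b0' b1' G' := by
  have hw0 := S.pos 0
  have hwne : ∀ i, w i ≠ 0 := fun i => (S.pos i).ne'
  have hz : ∀ ζ, 0 ≤ ζ → ζ ≤ 1 → z0 ≤ z0 + ρ * ζ ∧ z0 + ρ * ζ ≤ z0 + ρ := by
    intro ζ h1 h2
    constructor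
    · nlinarith
    · nlinarith
  have hTK : ∀ z, z0 ≤ z → z ≤ z0 + ρ → InK e c w z (T.pos z) := fun z h1 h2 => (hT z h1 h2).1
  have N := hE.nrmC S hρ hTK
  obtain ⟨g1, g2, g3, g4, g5, -, -, -, -⟩ := N.b1_le
  have hb0 : b0 0 ≠ 0 := by linarith
  obtain ⟨c1, c2, c3, c4, c5, c6, c7, c8, c9, c10⟩ := N.sc_le hκ
  set κ := kap b0 b1 G with hκd
  have ha : 0 ≤ a := (abs_nonneg _).trans (hT z0 le_rfl (by linarith)).2
  have ha₂ : 0 ≤ a₂ := (abs_nonneg _).trans (hT₂ z0 le_rfl (by linarith))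
  have hr : 0 ≤ r := (abs_nonneg _).trans (hr1 0 0)
  have hwk : 0 < w 0 * κ := mul_pos hw0 hκ
  set A := a / (w 0 * κ) with hAd
  have hA0 : 0 ≤ A := by positivity
  have hcT := cTw_pos
  -- smallness
  set ηp := η ^ 2 / cTw with hηp
  have hηp0 : 0 < ηp := by positivity
  have hηp1 : ηp ≤ 1 / 2 := by
    rw [hηp, div_le_iff₀ hcT]
    have : η ^ 2 ≤ 1 := pow_le_one₀ hη.le hη1
    have : (2 : ℝ) ≤ cTw := by unfold cTw; norm_num
    linarith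
  have hηpη : ηp ≤ η := by
    rw [hηp, div_le_iff₀ hcT]
    have := one_le_cTw
    nlinarith
  have hsm1 : 10 ^ 12 * 256 ^ 8 * (6 * (r + A)) ≤ ηp ^ 10 := by
    have e1 : ηp ^ 10 = η ^ 20 / cTw ^ 10 := by rw [hηp, div_pow]; ring
    rw [e1, le_div_iff₀ (by positivity)]
    refine le_trans (le_of_eq ?_) hsm
    rw [cSm]; ring
  have hsm2 : 6 * (r + A) ≤ ηp / 2 ∧ 6 * (r + A) ≤ 1 / 40 := by
    have h1 : ηp ^ 10 ≤ ηp := by
      calc ηp ^ 10 ≤ ηp ^ 1 := pow_le_pow_of_le_one hηp0.le (by linarith) (by norm_num)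
        _ = ηp := pow_one _
    have h3 : 0 ≤ 6 * (r + A) := by positivity
    constructor <;> nlinarith
  have hr40 : r ≤ 1 / 40 := by linarith [hsm2.2]
  have hA2 : A ≤ 1 / 2 := by linarith [hsm2.2]
  -- the captured lines
  have cap := fun i j => captured S hρ hT (hL i j) hE hκ hA2 (hs i).1 (hs i).2 hr40 (hr1 i j)
    (hr2 i j)
  set D : Fin 3 → Fin 3 → V3 := fun i j => sD κ b0 (rp e w z0 ρ T (L i j) (s i)) with hD
  set t : Fin 3 → Fin 3 → V3 := fun i j => sD κ b0 (vel e w ρ T (L i j)) with ht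
  have hDr : ∀ i j k, |D i j k| ≤ 5 * r + 4 * A := fun i j k => (cap i j).1 k
  have htr : ∀ i j k, |t i j k| ≤ 256 := fun i j k => (cap i j).2 k
  have hpos : ∀ i j ζ, pos (D i j) (t i j) (s i) ζ = sD κ b0 (rp e w z0 ρ T (L i j) ζ) :=
    fun i j ζ => sD_pos b0 e w z0 ρ T (L i j) (s i) ζ
  have htd' : ∀ i j j', j ≠ j' → η ≤ |t i j 1 * t i j' 2 - t i j' 1 * t i j 2| :=
    fun i j j' h => htd i j j' h
  -- values
  have h0 : ∀ i j z', 0 ≤ z' → z' ≤ 1 →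
      |Fq (shB0 b0) (scB1 κ b0 b1) (scG κ b0 G) z' (pos (D i j) (t i j) (s i) z')| ≤ 2 * A := by
    intro i j ζ hζ hζ'
    obtain ⟨z1, z2⟩ := hz ζ hζ hζ'
    rw [hpos]
    have h1 := hE.at S.ortho hwne hκ.ne' b0 ζ ((L i j).pos (z0 + ρ * ζ))
    rw [gl_own hb0, gl_own1, gM_own] at h1
    have q1 := (hL i j _ z1 z2).2
    have q2 := (hT _ z1 z2).2
    have h2 : w 0 * κ * |Fq (shB0 b0) (scB1 κ b0 b1) (scG κ b0 G) ζ
        (sD κ b0 (rp e w z0 ρ T (L i j) ζ))| ≤ 2 * a := by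
      rw [← abs_of_pos hwk, ← abs_mul, mul_assoc]
      have e1 : w 0 * (κ * Fq (shB0 b0) (scB1 κ b0 b1) (scG κ b0 G) ζ
          (sD κ b0 (rp e w z0 ρ T (L i j) ζ))) =
          q (z0 + ρ * ζ) ((L i j).pos (z0 + ρ * ζ)) - q (z0 + ρ * ζ) (T.pos (z0 + ρ * ζ)) := by
        rw [h1]; unfold rp; ring
      rw [e1]
      exact (abs_sub _ _).trans (by linarith)
    have h3 : 2 * A * (w 0 * κ) = 2 * a := by rw [hAd]; field_simp
    exact le_of_mul_le_mul_left (by linarith) hwk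
  set m := b0' 0 / b0 0 with hmd
  have hm8 : |m| ≤ 8 := by
    rw [hmd, abs_div, abs_of_pos (by linarith : 0 < b0 0), div_le_iff₀ (by linarith)]; linarith
  set l0 : V3 := fun k => b0' k - m * b0 k with hl0
  set l1 : V3 := fun k => b1' k - m * b1 k with hl1
  set M := QF.comb m G' G with hM
  set σ₁ := b0 1 / b0 0 with hσ₁
  set σ₂ := b0 2 / b0 0 with hσ₂
  have hωE : ∀ ζ X, q₂ (z0 + ρ * ζ) X - q₂ (z0 + ρ * ζ) (T.pos (z0 + ρ * ζ)) -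
      m * (q (z0 + ρ * ζ) X - q (z0 + ρ * ζ) (T.pos (z0 + ρ * ζ))) = w 0 * κ *
        Fq (gl κ σ₁ σ₂ l0) (gl κ σ₁ σ₂ l1) (gM κ σ₁ σ₂ M) ζ
          (sD κ b0 (pc e w T (z0 + ρ * ζ) X)) := by
    have hEω : IsExp (fun z X => q₂ z X - m * q z X) e w T z0 ρ l0 l1 M := by
      intro ζ x
      have h1 := hE ζ x
      have h2 := hE' ζ x
      beta_reduce
      rw [h1, h2, hl0, hl1, hM, Fq_comb]
      ring
    intro ζ X
    have := hEω.at S.ortho hwne hκ.ne' b0 ζ X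
    linarith
  have hB1 : ∀ i j z', 0 ≤ z' → z' ≤ 1 → |Fq (gl κ σ₁ σ₂ l0) (gl κ σ₁ σ₂ l1) (gM κ σ₁ σ₂ M) z'
      (pos (D i j) (t i j) (s i) z')| ≤ (2 * a₂ + 16 * a) / (w 0 * κ) := by
    intro i j ζ hζ hζ'
    obtain ⟨z1, z2⟩ := hz ζ hζ hζ'
    rw [hpos, le_div_iff₀ hwk]
    have h1 := hωE ζ ((L i j).pos (z0 + ρ * ζ))
    have q1 := (hL i j _ z1 z2).2
    have q2 := (hT _ z1 z2).2
    have q3 := hL₂ i j _ z1 z2
    have q4 := hT₂ _ z1 z2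
    have e0 : |Fq (gl κ σ₁ σ₂ l0) (gl κ σ₁ σ₂ l1) (gM κ σ₁ σ₂ M) ζ
        (sD κ b0 (rp e w z0 ρ T (L i j) ζ))| * (w 0 * κ) =
        |w 0 * κ * Fq (gl κ σ₁ σ₂ l0) (gl κ σ₁ σ₂ l1) (gM κ σ₁ σ₂ M) ζ
          (sD κ b0 (pc e w T (z0 + ρ * ζ) ((L i j).pos (z0 + ρ * ζ))))| := by
      rw [abs_mul, abs_of_pos hwk, mul_comm]; rfl
    rw [e0, ← h1]
    have a1 : |q₂ (z0 + ρ * ζ) ((L i j).pos (z0 + ρ * ζ)) -
        q₂ (z0 + ρ * ζ) (T.pos (z0 + ρ * ζ))| ≤ a₂ + a₂ := Arc880.abs_sub2 q3 q4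
    have a2 : |m * (q (z0 + ρ * ζ) ((L i j).pos (z0 + ρ * ζ)) -
        q (z0 + ρ * ζ) (T.pos (z0 + ρ * ζ)))| ≤ 8 * (a + a) :=
      mul_abs_le hm8 (Arc880.abs_sub2 q1 q2)
    exact (Arc880.abs_sub2 a1 a2).trans (by linarith)
  -- twist
  have hG'' : (scG κ b0 G).Le 256 := ⟨c5.trans (by norm_num), c6.trans (by norm_num),
    c7.trans (by norm_num), c8.trans (by norm_num), c9.trans (by norm_num), c10.trans (by norm_num)⟩
  have hw := twist_lower N hκ hη (hs 0).1 (hs 0).2 (fun j k => hDr 0 j k) (fun j k => htr 0 j k)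
    (htd' 0) (h0 0) (by linarith [hsm2.1]) hηp1
  have P := pencil_curved (K := 256) hηp0 (by linarith) (by norm_num)
    (fun k => (c1 k).trans (by norm_num)) (fun k => (c2 k).trans (by norm_num)) hG''
    (show 1 / 2 ≤ shB0 b0 0 from g1) (show shB0 b0 0 ≤ 2 from g2)
    (show 1 / 2 ≤ shB0 b0 0 + scB1 κ b0 b1 0 from g3)
    (show shB0 b0 0 + scB1 κ b0 b1 0 ≤ 2 from g4) hw
    (show gl κ σ₁ σ₂ l0 0 = 0 by
      change b0' 0 - m * b0 0 = 0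
      rw [hmd, div_mul_cancel₀ _ hb0, sub_self]) hs
    (fun i j h => hηpη.trans (hsd i j h)) hDr htr (fun i j j' h => hηpη.trans (htd' i j j' h))
    h0 hB1 (by
      refine le_trans ?_ hsm1
      have : 5 * r + 4 * A + 2 * A ≤ 6 * (r + A) := by linarith
      gcongr)
  exact OmB.of_le (fun k => (P.1 k).1) (fun k => (P.1 k).2) P.2

/-- **capture, general form**: if three pencils of captured lines of `𝓛` are impossible, then the
captured lines lie in three balls, for all heights outside two intervals. -/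
theorem cap_gen {e : Fin 3 → V3} {c : Ln4} {w : V3} {q : ℝ → V3 → ℝ} {z0 ρ a : ℝ}
    (S : StP e c w q z0 ρ) (hρ : 0 ≤ ρ) {T : Ln4} (hT : InSheet T e c w q a z0 ρ)
    {b0 b1 : V3} {G : QF} (hE : IsExp q e w T z0 ρ b0 b1 G) (hκ : 0 < kap b0 b1 G)
    {κd β η r : ℝ} (hκd : 0 < κd) (hκd1 : κd ≤ 1) (hβ : 0 < β) (hβ1 : β ≤ 1)
    (hnd : ∀ ζ, 0 ≤ ζ → ζ ≤ 1 →
      κd ≤ |det3 (fan (shB0 b0) (scB1 (kap b0 b1 G) b0 b1) (scG (kap b0 b1 G) b0 G) ζ)|)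
    (hη : 0 < η) (hη3 : η ≤ (κd * β ^ 2 / 216) ^ 3 / 48) (hr : 0 ≤ r)
    (hsm : cSm * (r + a / (w 0 * kap b0 b1 G)) ≤ η ^ 20)
    {𝓛 : Set Ln4} (hL : ∀ L ∈ 𝓛, InSheet L e c w q a z0 ρ)
    (hbig : ∀ s : Fin 3 → ℝ, (∀ i, 0 ≤ s i ∧ s i ≤ 1) → (∀ i j, i ≠ j → η ≤ |s i - s j|) →
      ∀ L : Fin 3 → Fin 3 → Ln4, (∀ i j, L i j ∈ 𝓛) →
      (∀ i j, |rp e w z0 ρ T (L i j) (s i) 1| ≤ r) → (∀ i j, |rp e w z0 ρ T (L i j) (s i) 2| ≤ r) →
      (∀ i j j', j ≠ j' → η ≤ |vel e w ρ T (L i j) 1 * vel e w ρ T (L i j') 2 -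
        vel e w ρ T (L i j') 1 * vel e w ρ T (L i j) 2|) → False) :
    ∃ s : Fin 2 → ℝ, ∀ ζ, 0 ≤ ζ → ζ ≤ 1 → (∀ i, η ≤ |ζ - s i|) →
      ∃ p : Fin 3 → ℝ × ℝ, ∀ L ∈ 𝓛, |rp e w z0 ρ T L ζ 1| ≤ r → |rp e w z0 ρ T L ζ 2| ≤ r →
        ∃ i, dist (vel e w ρ T L 1, vel e w ρ T L 2) (p i) < 8 * β := by
  have hTK : ∀ z, z0 ≤ z → z ≤ z0 + ρ → InK e c w z (T.pos z) := fun z h1 h2 => (hT z h1 h2).1
  have N := hE.nrmC S hρ hTK
  obtain ⟨g1, g2, g3, g4, g5, -, -, -, -⟩ := N.b1_le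
  have hb0 : b0 0 ≠ 0 := by linarith
  have hw0 := S.pos 0
  have hwne : ∀ i, w i ≠ 0 := fun i => (S.pos i).ne'
  have hz : ∀ ζ, 0 ≤ ζ → ζ ≤ 1 → z0 ≤ z0 + ρ * ζ ∧ z0 + ρ * ζ ≤ z0 + ρ := by
    intro ζ h1 h2
    constructor
    · nlinarith
    · nlinarith
  have ha : 0 ≤ a := (abs_nonneg _).trans (hT z0 le_rfl (by linarith)).2
  set κ := kap b0 b1 G with hκdef
  have hwk : 0 < w 0 * κ := mul_pos hw0 hκ
  set A := a / (w 0 * κ) with hAd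
  have hA0 : 0 ≤ A := by positivity
  -- smallness
  have hβ2 : β ^ 2 ≤ 1 := pow_le_one₀ hβ.le hβ1
  have hθ0 : 0 ≤ κd * β ^ 2 / 216 := by positivity
  have hθ1 : κd * β ^ 2 / 216 ≤ 1 := by
    rw [div_le_one (by norm_num)]
    have : κd * β ^ 2 ≤ 1 * 1 := mul_le_mul hκd1 hβ2 (by positivity) (by norm_num)
    linarith
  have hθ31 : (κd * β ^ 2 / 216) ^ 3 ≤ 1 := pow_le_one₀ hθ0 hθ1
  have hη1 : η ≤ 1 := by linarith
  have hη20 : η ^ 20 ≤ η := by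
    calc η ^ 20 ≤ η ^ 1 := pow_le_pow_of_le_one hη.le hη1 (by norm_num)
      _ = η := pow_one _
  have hcSm : 10 ^ 12 ≤ cSm := by
    have h1 : 1 ≤ cTw ^ 10 := one_le_pow₀ one_le_cTw
    unfold cSm
    nlinarith
  have hrA : 0 ≤ r + A := by positivity
  have hsm1 : 10 ^ 12 * (r + A) ≤ η := by
    have := mul_le_mul_of_nonneg_right hcSm hrA
    linarith
  have hδ : 244 * (5000000 * (r + A)) ≤ (κd * β ^ 2 / 216) ^ 3 := by linarith
  have hr40 : r ≤ 1 / 40 := by linarith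
  have hA2 : A ≤ 1 / 2 := by linarith
  -- the bad heights
  set bad : Set ℝ := {ζ | 0 ≤ ζ ∧ ζ ≤ 1 ∧ ¬ ∃ p : Fin 3 → ℝ × ℝ, ∀ L ∈ 𝓛,
    |rp e w z0 ρ T L ζ 1| ≤ r → |rp e w z0 ρ T L ζ 2| ≤ r →
      ∃ i, dist (vel e w ρ T L 1, vel e w ρ T L 2) (p i) < 8 * β} with hbad
  have hno : ¬ ∃ s : Fin (2 + 1) → ℝ, (∀ i, s i ∈ bad) ∧ ∀ i j, i ≠ j → η ≤ dist (s i) (s j) := by
    rintro ⟨s, hs, hsd⟩
    have hex : ∀ i, ∃ L : Fin 3 → Ln4, (∀ j, L j ∈ 𝓛) ∧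
        (∀ j, |rp e w z0 ρ T (L j) (s i) 1| ≤ r) ∧ (∀ j, |rp e w z0 ρ T (L j) (s i) 2| ≤ r) ∧
        ∀ j j', j ≠ j' → η ≤ |vel e w ρ T (L j) 1 * vel e w ρ T (L j') 2 -
          vel e w ρ T (L j') 1 * vel e w ρ T (L j) 2| := by
      intro i
      obtain ⟨s1, s2, s3⟩ := hs i
      by_contra hcon
      apply s3
      set X : Set (ℝ × ℝ) := {p | ∃ L ∈ 𝓛, |rp e w z0 ρ T L (s i) 1| ≤ r ∧
        |rp e w z0 ρ T L (s i) 2| ≤ r ∧ p = (vel e w ρ T L 1 / 4, vel e w ρ T L 2 / 4)} with hXd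
      have hcap : ∀ L ∈ 𝓛, |rp e w z0 ρ T L (s i) 1| ≤ r → |rp e w z0 ρ T L (s i) 2| ≤ r →
          |vel e w ρ T L 1 / 4| ≤ 1 ∧ |vel e w ρ T L 2 / 4| ≤ 1 ∧
          |qf (fan (shB0 b0) (scB1 κ b0 b1) (scG κ b0 G) (s i)) (vel e w ρ T L 1 / 4)
            (vel e w ρ T L 2 / 4)| ≤ 5000000 * (r + A) := by
        intro L hLL k1 k2
        obtain ⟨d1, d2⟩ := captured S hρ hT (hL L hLL) hE hκ hA2 s1 s2 hr40 k1 k2
        have hx : ∀ ζ, 0 ≤ ζ → ζ ≤ 1 → ∀ k, |rp e w z0 ρ T L ζ k| ≤ 2 := by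
          intro ζ hζ hζ' k
          obtain ⟨z1, z2⟩ := hz ζ hζ hζ'
          have k1 := (hL L hLL _ z1 z2).1 k
          have k2 := (hT _ z1 z2).1 k
          have hwk := S.pos k
          have e1 : dt (e k) (L.pos (z0 + ρ * ζ) - T.pos (z0 + ρ * ζ)) =
              dt (e k) (L.pos (z0 + ρ * ζ) - c.pos (z0 + ρ * ζ)) -
                dt (e k) (T.pos (z0 + ρ * ζ) - c.pos (z0 + ρ * ζ)) := by
            rw [dt_sub, dt_sub, dt_sub]; ring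
          change |dt (e k) (L.pos (z0 + ρ * ζ) - T.pos (z0 + ρ * ζ)) / w k| ≤ 2
          rw [abs_div, abs_of_pos hwk, div_le_iff₀ hwk, e1]
          exact (abs_sub _ _).trans (by linarith)
        have hv : ∀ k, |vel e w ρ T L k / 4| ≤ 1 := by
          intro k
          have e1 := rp_affine e w z0 ρ T L 0 1 k
          have e2 : vel e w ρ T L k = rp e w z0 ρ T L 1 k - rp e w z0 ρ T L 0 k := by
            rw [e1]; ring
          rw [abs_div, abs_of_pos (by norm_num : (0 : ℝ) < 4), div_le_one (by norm_num), e2]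
          refine (abs_sub _ _).trans ?_
          have := hx 1 zero_le_one le_rfl k
          have := hx 0 le_rfl zero_le_one k
          linarith
        refine ⟨hv 1, hv 2, ?_⟩
        have := qf_captured (D := sD κ b0 (rp e w z0 ρ T L (s i)))
          (t := sD κ b0 (vel e w ρ T L)) N hκ s1 s2 hr hA0 (by linarith) d1 d2 (by
            intro ζ hζ hζ'
            obtain ⟨z1, z2⟩ := hz ζ hζ hζ'
            rw [sD_pos]
            have h1 := hE.at S.ortho hwne hκ.ne' b0 ζ (L.pos (z0 + ρ * ζ))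
            rw [gl_own hb0, gl_own1, gM_own] at h1
            have q1 := (hL L hLL _ z1 z2).2
            have q2 := (hT _ z1 z2).2
            have h2 : w 0 * κ * |Fq (shB0 b0) (scB1 κ b0 b1) (scG κ b0 G) ζ
                (sD κ b0 (rp e w z0 ρ T L ζ))| ≤ 2 * a := by
              rw [← abs_of_pos hwk, ← abs_mul, mul_assoc]
              have e1 : w 0 * (κ * Fq (shB0 b0) (scB1 κ b0 b1) (scG κ b0 G) ζ
                  (sD κ b0 (rp e w z0 ρ T L ζ))) =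
                  q (z0 + ρ * ζ) (L.pos (z0 + ρ * ζ)) - q (z0 + ρ * ζ) (T.pos (z0 + ρ * ζ)) := by
                rw [h1]; unfold rp; ring
              rw [e1]
              exact (abs_sub _ _).trans (by linarith)
            have h3 : 2 * A * (w 0 * κ) = 2 * a := by rw [hAd]; field_simp
            exact le_of_mul_le_mul_left (by linarith) hwk)
        exact this
      obtain ⟨p, hp⟩ := arcs3_ball (x0 := 0) (y0 := 0) (X := X) (fan_le N hκ s1 s2).1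
        (hnd _ s1 s2) hκd.le hκd1 hβ hβ1 hδ hη3 (by norm_num) (by norm_num) (by
          have : qf (fan (shB0 b0) (scB1 κ b0 b1) (scG κ b0 G) (s i)) 0 0 = 0 := by
            simp [qf, fan]
          rw [this, abs_zero]; positivity)
        (by
          rintro p ⟨L, hLL, k1, k2, rfl⟩
          exact hcap L hLL k1 k2)
        (by
          rintro ⟨p, hpX, hpt⟩
          choose L hLL k1 k2 hpe using hpX
          refine hcon ⟨L, hLL, k1, k2, fun j j' hj => ?_⟩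
          have := hpt j j' hj
          rw [hpe j, hpe j'] at this
          have e1 : ar 0 0 (vel e w ρ T (L j) 1 / 4) (vel e w ρ T (L j) 2 / 4)
              (vel e w ρ T (L j') 1 / 4) (vel e w ρ T (L j') 2 / 4) =
              (vel e w ρ T (L j) 1 * vel e w ρ T (L j') 2 -
                vel e w ρ T (L j') 1 * vel e w ρ T (L j) 2) / 16 := by
            unfold ar; ring
          simp only at this
          rw [e1, abs_div, abs_of_pos (by norm_num : (0 : ℝ) < 16), le_div_iff₀ (by norm_num)] at this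
          linarith)
      refine ⟨fun i => (4 * (p i).1, 4 * (p i).2), fun L hLL k1 k2 => ?_⟩
      obtain ⟨i, hi⟩ := hp _ ⟨L, hLL, k1, k2, rfl⟩
      refine ⟨i, ?_⟩
      rw [Prod.dist_eq, max_lt_iff, Real.dist_eq, Real.dist_eq] at hi ⊢
      obtain ⟨i1, i2⟩ := hi
      have f1 : ∀ x y : ℝ, |x / 4 - y| < 2 * β → |x - 4 * y| < 8 * β := by
        intro x y h
        have : x - 4 * y = 4 * (x / 4 - y) := by ring
        rw [this, abs_mul, abs_of_pos (by norm_num : (0 : ℝ) < 4)]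
        linarith
      exact ⟨f1 _ _ i1, f1 _ _ i2⟩
    choose L hLm k1 k2 htr using hex
    exact hbig s (fun i => ⟨(hs i).1, (hs i).2.1⟩)
      (fun i j h => by have := hsd i j h; rwa [Real.dist_eq] at this) L hLm k1 k2 htr
  obtain ⟨s, hs⟩ := coverN 2 hno
  refine ⟨s, fun ζ hζ hζ' hfar => ?_⟩
  by_contra hcon
  obtain ⟨i, hi⟩ := hs ζ ⟨hζ, hζ', hcon⟩
  rw [Real.dist_eq] at hi
  exact absurd hi (not_lt.2 (hfar i))

/-- **capture, coefficient form** -/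
theorem cap_coef {e : Fin 3 → V3} {c : Ln4} {w : V3} {q q₂ : ℝ → V3 → ℝ} {z0 ρ a a₂ : ℝ}
    (S : StP e c w q z0 ρ) (hρ : 0 ≤ ρ) {T : Ln4} (hT : InSheet T e c w q a z0 ρ)
    {b0 b1 : V3} {G : QF} (hE : IsExp q e w T z0 ρ b0 b1 G) (hκ : 0 < kap b0 b1 G)
    {b0' b1' : V3} {G' : QF} (hE' : IsExp q₂ e w T z0 ρ b0' b1' G') (hm : |b0' 0| ≤ 4)
    (hT₂ : ∀ z, z0 ≤ z → z ≤ z0 + ρ → |q₂ z (T.pos z)| ≤ a₂)
    {κd β η r : ℝ} (hκd : 0 < κd) (hκd1 : κd ≤ 1) (hβ : 0 < β) (hβ1 : β ≤ 1)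
    (hnd : ∀ ζ, 0 ≤ ζ → ζ ≤ 1 →
      κd ≤ |det3 (fan (shB0 b0) (scB1 (kap b0 b1 G) b0 b1) (scG (kap b0 b1 G) b0 G) ζ)|)
    (hη : 0 < η) (hη3 : η ≤ (κd * β ^ 2 / 216) ^ 3 / 48) (hr : 0 ≤ r)
    (hsm : cSm * (r + a / (w 0 * kap b0 b1 G)) ≤ η ^ 20)
    {𝓛 : Set Ln4} (hL : ∀ L ∈ 𝓛, InSheet L e c w q a z0 ρ)
    (hL₂ : ∀ L ∈ 𝓛, ∀ z, z0 ≤ z → z ≤ z0 + ρ → |q₂ z (L.pos z)| ≤ a₂)
    (hbig : ¬ OmB (kap b0 b1 G) (xP η a a₂ (w 0 * kap b0 b1 G)) (xP η a a₂ (w 0 * kap b0 b1 G))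
      (xP η a a₂ (w 0 * kap b0 b1 G)) b0 b1 G b0' b1' G') :
    ∃ s : Fin 2 → ℝ, ∀ ζ, 0 ≤ ζ → ζ ≤ 1 → (∀ i, η ≤ |ζ - s i|) →
      ∃ p : Fin 3 → ℝ × ℝ, ∀ L ∈ 𝓛, |rp e w z0 ρ T L ζ 1| ≤ r → |rp e w z0 ρ T L ζ 2| ≤ r →
        ∃ i, dist (vel e w ρ T L 1, vel e w ρ T L 2) (p i) < 8 * β := by
  have hη1 : η ≤ 1 := by
    have hβ2 : β ^ 2 ≤ 1 := pow_le_one₀ hβ.le hβ1
    have hθ0 : 0 ≤ κd * β ^ 2 / 216 := by positivity
    have hθ1 : κd * β ^ 2 / 216 ≤ 1 := by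
      rw [div_le_one (by norm_num)]
      have : κd * β ^ 2 ≤ 1 * 1 := mul_le_mul hκd1 hβ2 (by positivity) (by norm_num)
      linarith
    have hθ31 : (κd * β ^ 2 / 216) ^ 3 ≤ 1 := pow_le_one₀ hθ0 hθ1
    linarith
  exact cap_gen S hρ hT hE hκ hκd hκd1 hβ hβ1 hnd hη hη3 hr hsm hL fun s hs hsd L hLm k1 k2 htr =>
    hbig (pencil_coef S hρ hT hE hκ hE' hm hT₂ hη hη1 hs hsd (fun i j => hL _ (hLm i j))
      (fun i j => hL₂ _ (hLm i j)) k1 k2 htr hsm)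

/-! ### the second plank is not thin -/

/-- the affine function of a plank -/
def aff (u : V3) (c : Ln4) : ℝ → V3 → ℝ := fun z x => dt u (x - c.pos z)

/-- its expansion -/
theorem aff_isExp (u : V3) (c' : Ln4) (e : Fin 3 → V3) {w : V3} (hw0 : w 0 ≠ 0) (T : Ln4)
    (z0 ρ : ℝ) : IsExp (aff u c') e w T z0 ρ (fun k => w k * dt u (e k) / w 0) 0
      ⟨0, 0, 0, 0, 0, 0⟩ := by
  intro ζ x
  simp only [aff, Fq, bz, dt, QF.ev, cmb, fr, Pi.add_apply, Pi.sub_apply, Pi.smul_apply,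
    smul_eq_mul, Pi.zero_apply]
  field_simp
  ring

/-- **no curved sheet in a flat plank**: coefficient bounds `X` for an affine function of unit
gradient force `X ≥ 1 / 30` -/
theorem aff_lower {e : Fin 3 → V3} {c : Ln4} {w : V3} {q : ℝ → V3 → ℝ} {z0 ρ : ℝ}
    (S : StP e c w q z0 ρ) {b0 b1 : V3} {G : QF} (N : NrmC b0 b1 G) (hκ : 0 < kap b0 b1 G)
    (w02 : w 0 ≤ w 2) (w21 : w 2 ≤ w 1) {e' : Fin 3 → V3} (he' : Ortho e') {X Y Z : ℝ}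
    (O : OmB (kap b0 b1 G) X Y Z b0 b1 G (fun k => w k * dt (e' 0) (e k) / w 0) 0
      ⟨0, 0, 0, 0, 0, 0⟩) : 1 / 30 ≤ X := by
  have hw0 := S.pos 0
  have hw1 := S.pos 1
  have hw2 := S.pos 2
  have hwne : ∀ i, w i ≠ 0 := fun i => (S.pos i).ne'
  obtain ⟨g1, g2, -, -, -, -, -, -, -⟩ := N.b1_le
  have hb0 : b0 0 ≠ 0 := by linarith
  have hk13 := Tl102.kap_le N
  obtain ⟨X0, -, -⟩ := O.nonneg
  set κ := kap b0 b1 G with hκd
  set b0' : V3 := fun k => w k * dt (e' 0) (e k) / w 0 with hb0'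
  set m := b0' 0 / b0 0 with hm
  -- the five coefficients
  have f1 : om1 κ b0 b1 b0' 0 1 = -(m * shB1 b0 b1 1) / κ := by
    change ((0 - m * b1 1) - b0 1 / b0 0 * (0 - m * b1 0)) / κ = -(m * (b1 1 - b0 1 / b0 0 * b1 0)) / κ
    ring
  have f2 : om1 κ b0 b1 b0' 0 2 = -(m * shB1 b0 b1 2) / κ := by
    change ((0 - m * b1 2) - b0 2 / b0 0 * (0 - m * b1 0)) / κ = -(m * (b1 2 - b0 2 / b0 0 * b1 0)) / κ
    ring
  have f3 : (omM κ b0 G b0' ⟨0, 0, 0, 0, 0, 0⟩).uu = -(m * (shG b0 G).uu) / κ := by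
    simp only [omM, gM, QF.comb, shG]; ring
  have f4 : (omM κ b0 G b0' ⟨0, 0, 0, 0, 0, 0⟩).uv = -(m * (shG b0 G).uv) / κ := by
    simp only [omM, gM, QF.comb, shG]; ring
  have f5 : (omM κ b0 G b0' ⟨0, 0, 0, 0, 0, 0⟩).vv = -(m * (shG b0 G).vv) / κ := by
    simp only [omM, gM, QF.comb, shG]; ring
  have g : ∀ x y : ℝ, |x| ≤ X → x = -(m * y) / κ → |m| * |y| ≤ X * κ := by
    intro x y h1 h2
    rw [h2, abs_div, abs_neg, abs_mul, abs_of_pos hκ, div_le_iff₀ hκ] at h1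
    exact h1
  have h1 := g _ _ O.h11 f1
  have h2 := g _ _ O.h12 f2
  have h3 := g _ _ O.uu f3
  have h4 := g _ _ O.uv f4
  have h5 := g _ _ O.vv f5
  have hmX : |m| ≤ X := by
    have h6 : |m| * κ ≤ X * κ := by
      rcases (abs_nonneg m).eq_or_lt with h0 | h0
      · rw [← h0, zero_mul]; positivity
      · have h7 : κ ≤ X * κ / |m| := by
          refine max_le (max_le ?_ ?_) (max_le (max_le ?_ ?_) ?_) <;> rw [le_div_iff₀ h0] <;> linarith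
        rw [le_div_iff₀ h0] at h7
        linarith
    exact le_of_mul_le_mul_right h6 hκ
  -- the gradient in the direction `e' 0`
  have e1 : w 0 * dt b0' (pv e w (e' 0)) = 1 := by
    have h6 : dt (e' 0) (e' 0) = 1 := by simpa using he' 0 0
    have h7 := cmb_pv S.ortho hwne (e' 0)
    have h8 : w 0 * dt b0' (pv e w (e' 0)) = dt (e' 0) (cmb (fr e w) (pv e w (e' 0))) := by
      simp only [hb0', dt, cmb, fr, Pi.smul_apply, smul_eq_mul]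
      field_simp
      ring
    rw [h8, h7, h6]
  have e2 := grad' hb0 hκ.ne' e w b0' (e' 0)
  have e3 : dt b0 (pv e w (e' 0)) = κ * (b0 0 * tv κ b0 e w (e' 0) 0) := by
    change dt b0 (pv e w (e' 0)) = κ * (b0 0 * (yc b0 (pv e w (e' 0)) / κ))
    simp only [dt, yc]
    field_simp
  have h6 := grad_le S.ortho he' S.pos w02 w21 N 0
  have h7 : ∀ k, k ≠ 0 → w 2 ≤ w k → |om0 κ b0 b0' k| ≤ X →
      |w 0 * κ * (om0 κ b0 b0' k * tv κ b0 e w (e' 0) k)| ≤ 13 * X := by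
    intro k hk0 hk hO
    have e4 : tv κ b0 e w (e' 0) k = dt (e k) (e' 0) / w k := by
      fin_cases k
      · exact absurd rfl hk0
      · rfl
      · rfl
    have e5 : w 0 * κ * (om0 κ b0 b0' k * tv κ b0 e w (e' 0) k) =
        (om0 κ b0 b0' k * dt (e k) (e' 0)) * (w 0 * κ) / w k := by
      rw [e4]; ring
    have hwk := S.pos k
    rw [e5, abs_div, abs_of_pos hwk, div_le_iff₀ hwk, abs_mul, abs_of_pos (mul_pos hw0 hκ)]
    have h8 := mul_abs_le hO (dt_le_one S.ortho he' k 0)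
    have h9 : w 0 * κ ≤ w k * 13 := mul_le_mul (w02.trans hk) hk13 hκ.le hwk.le
    calc _ ≤ X * 1 * (w k * 13) := mul_le_mul h8 h9 (mul_pos hw0 hκ).le (by linarith)
      _ = _ := by ring
  have h8 := h7 1 (by decide) w21 O.h01
  have h9 := h7 2 (by decide) le_rfl O.h02
  have e6 : (1 : ℝ) = m * (w 0 * dt b0 (pv e w (e' 0))) +
      (w 0 * κ * (om0 κ b0 b0' 1 * tv κ b0 e w (e' 0) 1) +
        w 0 * κ * (om0 κ b0 b0' 2 * tv κ b0 e w (e' 0) 2)) := by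
    rw [← e1, e2, e3]; ring
  have h10 : |(1 : ℝ)| ≤ X * 4 + (13 * X + 13 * X) := by
    rw [e6]
    exact Arc880.abs_add2 (mul_abs_le hmX h6) (Arc880.abs_add2 h8 h9)
  rw [abs_one] at h10
  linarith

end Crest.Agent.R136.Tl102
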