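import Crest.Agent.R136.Coi3_102

/-!
# R136 (S0187): coincidence and closeness of two sheets from the coefficients of `ω` (helper102)
-/

set_option autoImplicit false

namespace Crest.Agent.R136.Tl102

open Crest.Agent.R136.Sh605

section two

variable {e : Fin 3 → V3} {c : Ln4} {w : V3} {q : ℝ → V3 → ℝ} {e' : Fin 3 → V3} {c' : Ln4}
  {w' : V3} {q' : ℝ → V3 → ℝ} {T : Ln4} {z0 ρ a a' : ℝ} {b0 b1 : V3} {G : QF}
  {b0' b1' : V3} {G' : QF} {d0 d1 : V3} {H : QF} {B lam : ℝ}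

theorem Two.hz (D : Two e c w q e' c' w' q' T z0 ρ a a' b0 b1 G b0' b1' G' d0 d1 H B lam) {ζ : ℝ}
    (hζ : 0 ≤ ζ) (hζ' : ζ ≤ 1) : z0 ≤ z0 + ρ * ζ ∧ z0 + ρ * ζ ≤ z0 + ρ := by
  have := D.hρ
  constructor
  · nlinarith
  · nlinarith

/-- the normal coordinate of the base sheet -/
theorem Two.n_le (D : Two e c w q e' c' w' q' T z0 ρ a a' b0 b1 G b0' b1' G' d0 d1 H B lam)
    {κ : ℝ} (hκ : 0 < κ) {V : V3} {h t : ℝ} (h0 : |tv κ b0 e w V 0| ≤ h)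
    (h1 : |tv κ b0 e w V 1| ≤ t) (h2 : |tv κ b0 e w V 2| ≤ t) :
    |dt (e 0) V| ≤ w 0 * (κ * h + 4 * t) := by
  obtain ⟨-, -, -, -, -, -, -, s1, s2⟩ := D.nrm.b1_le
  have hw0 := D.S.pos 0
  have e1 : dt (e 0) V = w 0 * (κ * tv κ b0 e w V 0 - (b0 1 / b0 0 * tv κ b0 e w V 1 +
      b0 2 / b0 0 * tv κ b0 e w V 2)) := by
    change dt (e 0) V = w 0 * (κ * ((dt (e 0) V / w 0 + b0 1 / b0 0 * (dt (e 1) V / w 1) +
      b0 2 / b0 0 * (dt (e 2) V / w 2)) / κ) - (b0 1 / b0 0 * (dt (e 1) V / w 1) +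
      b0 2 / b0 0 * (dt (e 2) V / w 2)))
    rw [mul_div_cancel₀ _ hκ.ne']
    have e2 : w 0 * (dt (e 0) V / w 0) = dt (e 0) V := mul_div_cancel₀ _ hw0.ne'
    linear_combination -e2
  rw [e1, abs_mul, abs_of_pos hw0]
  apply mul_le_mul_of_nonneg_left _ hw0.le
  exact (Arc880.abs_sub2 (mul_abs_le (le_of_eq (abs_of_pos hκ)) h0)
    (Arc880.abs_add2 (mul_abs_le s1 h1) (mul_abs_le s2 h2))).trans (le_of_eq (by ring))

/-- coordinates of a point of the second sheet -/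
theorem Two.pointA (D : Two e c w q e' c' w' q' T z0 ρ a a' b0 b1 G b0' b1' G' d0 d1 H B lam)
    {κ X Y Z : ℝ} (hκ : 0 < κ) (O : OmB κ X Y Z b0 b1 G b0' b1' G')
    (hX : 8 * (X * (w 0 * κ)) ≤ w 2) {ζ : ℝ} (hζ : 0 ≤ ζ) (hζ' : ζ ≤ 1) {P : V3} {α r W d : ℝ}
    (hP : InK e' c' (dbl3 w') (z0 + ρ * ζ) P) (hq : |q' (z0 + ρ * ζ) P| ≤ α)
    (hr : r ≤ 1 / 8) (h1 : |pv e' w' (P - T.pos (z0 + ρ * ζ)) 1| ≤ r)
    (h2 : |pv e' w' (P - T.pos (z0 + ρ * ζ)) 2| ≤ r) (hW : w' 0 * kap d0 d1 H ≤ W)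
    (hd : 2 * (α + a') + 5 * (r * W) ≤ d) :
    |tv κ b0 e w (P - T.pos (z0 + ρ * ζ)) 0| ≤ 5 * d / (w 0 * κ) + 384 * (r * (X * (B * lam))) ∧
      |tv κ b0 e w (P - T.pos (z0 + ρ * ζ)) 1| ≤ d / w 2 + 6 * (r * (B * lam)) ∧
      |tv κ b0 e w (P - T.pos (z0 + ρ * ζ)) 2| ≤ d / w 2 + 6 * (r * (B * lam)) := by
  have hr0 : 0 ≤ r := (abs_nonneg _).trans h1
  obtain ⟨z1, z2⟩ := D.hz hζ hζ'
  have hy := yc_le2 D.S' D.hρ (fun z h1 h2 => (D.hT' z h1 h2).1) D.hH hζ hζ' hP hr h1 h2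
  have hT := (D.hT' _ z1 z2).2
  refine D.coords hκ O hX (d := d) (hy.trans ?_) h1 h2
  have h3 := mul_le_mul_of_nonneg_left hW hr0
  linarith

/-- value of the base function -/
theorem Two.valA (D : Two e c w q e' c' w' q' T z0 ρ a a' b0 b1 G b0' b1' G' d0 d1 H B lam)
    {κ X Y Z : ℝ} (hκ : 0 < κ) (O : OmB κ X Y Z b0 b1 G b0' b1' G')
    (hX : 8 * (X * (w 0 * κ)) ≤ w 2) {ζ : ℝ} (hζ : 0 ≤ ζ) (hζ' : ζ ≤ 1) {P : V3} {α h t : ℝ}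
    (hq : |q' (z0 + ρ * ζ) P| ≤ α) (h0 : |tv κ b0 e w (P - T.pos (z0 + ρ * ζ)) 0| ≤ h)
    (h1 : |tv κ b0 e w (P - T.pos (z0 + ρ * ζ)) 1| ≤ t)
    (h2 : |tv κ b0 e w (P - T.pos (z0 + ρ * ζ)) 2| ≤ t) :
    |q (z0 + ρ * ζ) P| ≤ a + 16 * (α + a' + w 0 * κ *
      (Y * h + Z * (h ^ 2 + 2 * (h * t)) + X * (4 * t + 3 * t ^ 2))) := by
  have hwne : ∀ i, w i ≠ 0 := fun i => (D.S.pos i).ne'
  obtain ⟨g1, g2, -, -, -, -, -, -, -⟩ := D.nrm.b1_le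
  have hb0 : b0 0 ≠ 0 := by linarith
  have hwk : 0 < w 0 * κ := mul_pos (D.S.pos 0) hκ
  obtain ⟨z1, z2⟩ := D.hz hζ hζ'
  have hm := D.le_m hκ O hX
  have e1 := om_val D.S.ortho hwne D.hE D.hE' hκ.ne' ζ P
  have hζa : |ζ| ≤ 1 := by rw [abs_of_nonneg hζ]; exact hζ'
  have f := O.le hb0 hζa h0 h1 h2
  set m := b0' 0 / b0 0 with hmd
  set Ω := Fq (om0 κ b0 b0') (om1 κ b0 b1 b0' b1') (omM κ b0 G b0' G') ζ
    (tv κ b0 e w (P - T.pos (z0 + ρ * ζ))) with hΩ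
  set F := Y * h + Z * (h ^ 2 + 2 * (h * t)) + X * (4 * t + 3 * t ^ 2) with hF
  have hT := (D.hT _ z1 z2).2
  have hT' := (D.hT' _ z1 z2).2
  have e2 : m * (q (z0 + ρ * ζ) P - q (z0 + ρ * ζ) (T.pos (z0 + ρ * ζ))) =
      q' (z0 + ρ * ζ) P - q' (z0 + ρ * ζ) (T.pos (z0 + ρ * ζ)) - w 0 * κ * Ω := by linarith
  have h3 : |m * (q (z0 + ρ * ζ) P - q (z0 + ρ * ζ) (T.pos (z0 + ρ * ζ)))| ≤
      α + a' + w 0 * κ * F := by
    rw [e2]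
    exact Arc880.abs_sub2 (Arc880.abs_sub2 hq hT')
      (mul_abs_le (le_of_eq (abs_of_pos hwk)) f)
  rw [abs_mul] at h3
  have h4 : 1 / 16 * |q (z0 + ρ * ζ) P - q (z0 + ρ * ζ) (T.pos (z0 + ρ * ζ))| ≤
      |m| * |q (z0 + ρ * ζ) P - q (z0 + ρ * ζ) (T.pos (z0 + ρ * ζ))| :=
    mul_le_mul_of_nonneg_right hm (abs_nonneg _)
  have h5 : |q (z0 + ρ * ζ) P| ≤ |q (z0 + ρ * ζ) (T.pos (z0 + ρ * ζ))| +
      |q (z0 + ρ * ζ) P - q (z0 + ρ * ζ) (T.pos (z0 + ρ * ζ))| := by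
    have := abs_add_le (q (z0 + ρ * ζ) (T.pos (z0 + ρ * ζ)))
      (q (z0 + ρ * ζ) P - q (z0 + ρ * ζ) (T.pos (z0 + ρ * ζ)))
    rwa [add_sub_cancel] at this
  linarith

/-- coordinates of a point of the base sheet -/
theorem Two.pointB (D : Two e c w q e' c' w' q' T z0 ρ a a' b0 b1 G b0' b1' G' d0 d1 H B lam)
    {κ : ℝ} (hκ : 0 < κ) (hk : kap b0 b1 G ≤ κ) {ζ : ℝ} (hζ : 0 ≤ ζ) (hζ' : ζ ≤ 1) {P : V3}
    {α r : ℝ} (hP : InK e c (dbl3 w) (z0 + ρ * ζ) P) (hq : |q (z0 + ρ * ζ) P| ≤ α)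
    (hr : r ≤ 1 / 8) (h1 : |pv e w (P - T.pos (z0 + ρ * ζ)) 1| ≤ r)
    (h2 : |pv e w (P - T.pos (z0 + ρ * ζ)) 2| ≤ r) :
    |tv κ b0 e w (P - T.pos (z0 + ρ * ζ)) 0| ≤ 2 * (α + a) / (w 0 * κ) + 5 * r ∧
      |tv κ b0 e w (P - T.pos (z0 + ρ * ζ)) 1| ≤ r ∧
      |tv κ b0 e w (P - T.pos (z0 + ρ * ζ)) 2| ≤ r := by
  have hr0 : 0 ≤ r := (abs_nonneg _).trans h1
  have hw0 := D.S.pos 0
  have hwk : 0 < w 0 * κ := mul_pos hw0 hκ
  obtain ⟨z1, z2⟩ := D.hz hζ hζ'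
  have hy := yc_le2 D.S D.hρ (fun z h1 h2 => (D.hT z h1 h2).1) D.hE hζ hζ' hP hr h1 h2
  have hT := (D.hT _ z1 z2).2
  refine ⟨?_, h1, h2⟩
  change |yc b0 (pc e w T (z0 + ρ * ζ) P) / κ| ≤ _
  rw [abs_div, abs_of_pos hκ, div_le_iff₀ hκ]
  have h3 : w 0 * |yc b0 (pc e w T (z0 + ρ * ζ) P)| ≤ 2 * (α + a) + 5 * (r * (w 0 * κ)) := by
    have h4 : r * (w 0 * kap b0 b1 G) ≤ r * (w 0 * κ) :=
      mul_le_mul_of_nonneg_left (mul_le_mul_of_nonneg_left hk hw0.le) hr0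
    linarith
  have e1 : w 0 * ((2 * (α + a) / (w 0 * κ) + 5 * r) * κ) = 2 * (α + a) + 5 * (r * (w 0 * κ)) := by
    field_simp
  exact le_of_mul_le_mul_left (by rw [e1]; exact h3) hw0

/-- value of the second function -/
theorem Two.valB (D : Two e c w q e' c' w' q' T z0 ρ a a' b0 b1 G b0' b1' G' d0 d1 H B lam)
    {κ X Y Z : ℝ} (hκ : 0 < κ) (O : OmB κ X Y Z b0 b1 G b0' b1' G')
    {ζ : ℝ} (hζ : 0 ≤ ζ) (hζ' : ζ ≤ 1) {P : V3} {α h t : ℝ}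
    (hq : |q (z0 + ρ * ζ) P| ≤ α) (h0 : |tv κ b0 e w (P - T.pos (z0 + ρ * ζ)) 0| ≤ h)
    (h1 : |tv κ b0 e w (P - T.pos (z0 + ρ * ζ)) 1| ≤ t)
    (h2 : |tv κ b0 e w (P - T.pos (z0 + ρ * ζ)) 2| ≤ t) :
    |q' (z0 + ρ * ζ) P| ≤ a' + 8 * (α + a) + w 0 * κ *
      (Y * h + Z * (h ^ 2 + 2 * (h * t)) + X * (4 * t + 3 * t ^ 2)) := by
  have hwne : ∀ i, w i ≠ 0 := fun i => (D.S.pos i).ne'
  obtain ⟨g1, g2, -, -, -, -, -, -, -⟩ := D.nrm.b1_le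
  have hb0 : b0 0 ≠ 0 := by linarith
  have hwk : 0 < w 0 * κ := mul_pos (D.S.pos 0) hκ
  obtain ⟨z1, z2⟩ := D.hz hζ hζ'
  have e1 := om_val D.S.ortho hwne D.hE D.hE' hκ.ne' ζ P
  have hζa : |ζ| ≤ 1 := by rw [abs_of_nonneg hζ]; exact hζ'
  have f := O.le hb0 hζa h0 h1 h2
  have hm := D.m_le
  set m := b0' 0 / b0 0 with hmd
  set Ω := Fq (om0 κ b0 b0') (om1 κ b0 b1 b0' b1') (omM κ b0 G b0' G') ζ
    (tv κ b0 e w (P - T.pos (z0 + ρ * ζ))) with hΩ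
  have hT := (D.hT _ z1 z2).2
  have hT' := (D.hT' _ z1 z2).2
  have e2 : q' (z0 + ρ * ζ) P = q' (z0 + ρ * ζ) (T.pos (z0 + ρ * ζ)) +
      m * (q (z0 + ρ * ζ) P - q (z0 + ρ * ζ) (T.pos (z0 + ρ * ζ))) + w 0 * κ * Ω := by linarith
  rw [e2]
  exact Arc880.abs_add2 (Arc880.abs_add2 hT' (mul_abs_le hm (Arc880.abs_sub2 hq hT)))
    (mul_abs_le (le_of_eq (abs_of_pos hwk)) f)

/-- normal coordinate of the second sheet -/
theorem Two.nB (D : Two e c w q e' c' w' q' T z0 ρ a a' b0 b1 G b0' b1' G' d0 d1 H B lam)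
    {κ X Y Z : ℝ} (hκ : 0 < κ) (O : OmB κ X Y Z b0 b1 G b0' b1' G')
    {V : V3} {h t : ℝ} (h0 : |tv κ b0 e w V 0| ≤ h)
    (h1 : |tv κ b0 e w V 1| ≤ t) (h2 : |tv κ b0 e w V 2| ≤ t) :
    |dt (e' 0) V| ≤ 2 * (w 0 * κ * (18 * h + 2 * (X * t)) + 12 * (t * (B * lam)) * w' 0) := by
  have hwne : ∀ i, w i ≠ 0 := fun i => (D.S.pos i).ne'
  have hwne' : ∀ i, w' i ≠ 0 := fun i => (D.S'.pos i).ne'
  have hw0 := D.S.pos 0
  have hw1 := D.S.pos 1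
  have hw2 := D.S.pos 2
  have hw0' := D.S'.pos 0
  have hw1' := D.S'.pos 1
  have hw2' := D.S'.pos 2
  obtain ⟨g1, g2, -, -, -, -, -, -, -⟩ := D.nrm.b1_le
  obtain ⟨g1', g2', -, -, -, -, -, -, -⟩ := D.nrm'.b1_le
  have hb0 : b0 0 ≠ 0 := by linarith
  have hwk : 0 < w 0 * κ := mul_pos hw0 hκ
  have hh : 0 ≤ h := (abs_nonneg _).trans h0
  have ht : 0 ≤ t := (abs_nonneg _).trans h1
  have hB := D.B1
  have hlam := D.lam1
  have hBl : B ≤ B * lam := le_mul_of_one_le_right (by linarith) hlam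
  -- normal component
  have n0 := D.n_le hκ h0 h1 h2
  have e1 : dt (e 1) V = tv κ b0 e w V 1 * w 1 := by
    change dt (e 1) V = dt (e 1) V / w 1 * w 1
    rw [div_mul_cancel₀ _ hw1.ne']
  have e2 : dt (e 2) V = tv κ b0 e w V 2 * w 2 := by
    change dt (e 2) V = dt (e 2) V / w 2 * w 2
    rw [div_mul_cancel₀ _ hw2.ne']
  have n1 : |dt (e 1) V| ≤ t * w 1 := by
    rw [e1, abs_mul, abs_of_pos hw1]; exact mul_le_mul_of_nonneg_right h1 hw1.le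
  have n2 : |dt (e 2) V| ≤ t * w 2 := by
    rw [e2, abs_mul, abs_of_pos hw2]; exact mul_le_mul_of_nonneg_right h2 hw2.le
  have ex : ∀ k, dt (e' k) V = dt (e' k) (e 0) * dt (e 0) V + dt (e' k) (e 1) * dt (e 1) V +
      dt (e' k) (e 2) * dt (e 2) V := by
    intro k
    have x0 := D.S.ortho.expand V 0
    have x1 := D.S.ortho.expand V 1
    have x2 := D.S.ortho.expand V 2
    have : dt (e' k) V = e' k 0 * V 0 + e' k 1 * V 1 + e' k 2 * V 2 := rfl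
    rw [this, x0, x1, x2]
    simp only [dt]; ring
  have w02 := D.w02
  have w21 := D.w21
  have w02' := D.w02'
  have w21' := D.w21'
  have m1 : |dt (e' 1) V| ≤ w 0 * κ * h + 6 * (t * w 1) := by
    rw [ex 1]
    refine (Arc880.abs_add2 (Arc880.abs_add2
      (mul_abs_le (dt_le_one D.S'.ortho D.S.ortho 1 0) n0)
      (mul_abs_le (dt_le_one D.S'.ortho D.S.ortho 1 1) n1))
      (mul_abs_le (dt_le_one D.S'.ortho D.S.ortho 1 2) n2)).trans ?_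
    have k1 : t * w 0 ≤ t * w 1 := mul_le_mul_of_nonneg_left (w02.trans w21) ht
    have k2 : t * w 2 ≤ t * w 1 := mul_le_mul_of_nonneg_left w21 ht
    linarith
  have m2 : |dt (e' 2) V| ≤ w 0 * κ * h + 6 * (t * lam * w 2) := by
    rw [ex 2]
    have k3 : |dt (e' 2) (e 1) * dt (e 1) V| ≤ t * lam * w 2 := by
      rw [abs_mul]
      calc |dt (e' 2) (e 1)| * |dt (e 1) V| ≤ |dt (e' 2) (e 1)| * (t * w 1) :=
            mul_le_mul_of_nonneg_left n1 (abs_nonneg _)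
        _ = t * (|dt (e' 2) (e 1)| * w 1) := by ring
        _ ≤ t * (lam * w 2) := mul_le_mul_of_nonneg_left D.tilt' ht
        _ = _ := by ring
    refine (Arc880.abs_add2 (Arc880.abs_add2
      (mul_abs_le (dt_le_one D.S'.ortho D.S.ortho 2 0) n0) k3)
      (mul_abs_le (dt_le_one D.S'.ortho D.S.ortho 2 2) n2)).trans ?_
    have k1 : t * w 0 ≤ t * w 2 := mul_le_mul_of_nonneg_left w02 ht
    have k2 : t * w 2 ≤ t * lam * w 2 :=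
      mul_le_mul_of_nonneg_right (le_mul_of_one_le_right ht hlam) hw2.le
    linarith
  -- gradient
  have hc := (cross D.S.ortho D.S'.ortho hwne hwne' D.hE' D.hH V).1
  have hg := grad' hb0 hκ.ne' e w b0' V
  have k1 : |w 0 * dt b0' (pv e w V)| ≤ w 0 * κ * (16 * h + 2 * (X * t)) := by
    have e3 : w 0 * dt b0' (pv e w V) = w 0 * κ * (b0' 0 / b0 0 * (b0 0 * tv κ b0 e w V 0) +
        (om0 κ b0 b0' 1 * tv κ b0 e w V 1 + om0 κ b0 b0' 2 * tv κ b0 e w V 2)) := by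
      rw [hg]; ring
    rw [e3]
    refine (mul_abs_le (le_of_eq (abs_of_pos hwk)) (Arc880.abs_add2 (mul_abs_le D.m_le
      (mul_abs_le (abs_le.2 ⟨by linarith, g2⟩ : |b0 0| ≤ 2) h0))
      (Arc880.abs_add2 (mul_abs_le O.h01 h1) (mul_abs_le O.h02 h2)))).trans (le_of_eq (by ring))
  rw [hc] at k1
  have e4 : w' 0 * dt d0 (pv e' w' V) = d0 0 * dt (e' 0) V + d0 1 * (w' 0 / w' 1 * dt (e' 1) V) +
      d0 2 * (w' 0 / w' 2 * dt (e' 2) V) := by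
    simp only [dt, pv]
    field_simp
  have r1 : |w' 0 / w' 1 * dt (e' 1) V| ≤ w 0 * κ * h + 6 * (t * (B * lam)) * w' 0 := by
    rw [abs_mul, abs_of_pos (div_pos hw0' hw1')]
    have q1 : w' 0 / w' 1 ≤ 1 := by rw [div_le_one hw1']; exact w02'.trans w21'
    have q0 : 0 ≤ w' 0 / w' 1 := (div_pos hw0' hw1').le
    calc w' 0 / w' 1 * |dt (e' 1) V| ≤ w' 0 / w' 1 * (w 0 * κ * h + 6 * (t * w 1)) :=
          mul_le_mul_of_nonneg_left m1 q0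
      _ = w' 0 / w' 1 * (w 0 * κ * h) + w' 0 / w' 1 * (6 * (t * w 1)) := by ring
      _ ≤ 1 * (w 0 * κ * h) + w' 0 / w' 1 * (6 * (t * (B * w' 1))) := by
          apply add_le_add (mul_le_mul_of_nonneg_right q1 (by positivity))
          apply mul_le_mul_of_nonneg_left _ q0
          have := mul_le_mul_of_nonneg_left D.wB1' ht
          linarith
      _ = w 0 * κ * h + 6 * (t * B) * w' 0 := by field_simp
      _ ≤ w 0 * κ * h + 6 * (t * (B * lam)) * w' 0 := by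
          have := mul_le_mul_of_nonneg_right (mul_le_mul_of_nonneg_left hBl ht) hw0'.le
          linarith
  have r2 : |w' 0 / w' 2 * dt (e' 2) V| ≤ w 0 * κ * h + 6 * (t * (B * lam)) * w' 0 := by
    rw [abs_mul, abs_of_pos (div_pos hw0' hw2')]
    have q1 : w' 0 / w' 2 ≤ 1 := by rw [div_le_one hw2']; exact w02'
    have q0 : 0 ≤ w' 0 / w' 2 := (div_pos hw0' hw2').le
    calc w' 0 / w' 2 * |dt (e' 2) V| ≤ w' 0 / w' 2 * (w 0 * κ * h + 6 * (t * lam * w 2)) :=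
          mul_le_mul_of_nonneg_left m2 q0
      _ = w' 0 / w' 2 * (w 0 * κ * h) + w' 0 / w' 2 * (6 * (t * lam * w 2)) := by ring
      _ ≤ 1 * (w 0 * κ * h) + w' 0 / w' 2 * (6 * (t * lam * (B * w' 2))) := by
          apply add_le_add (mul_le_mul_of_nonneg_right q1 (by positivity))
          apply mul_le_mul_of_nonneg_left _ q0
          have := mul_le_mul_of_nonneg_left D.wB2' (mul_nonneg ht (by linarith : 0 ≤ lam))
          linarith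
      _ = w 0 * κ * h + 6 * (t * (B * lam)) * w' 0 := by field_simp
  have e5 : d0 0 * dt (e' 0) V = w' 0 * dt d0 (pv e' w' V) -
      (d0 1 * (w' 0 / w' 1 * dt (e' 1) V) + d0 2 * (w' 0 / w' 2 * dt (e' 2) V)) := by
    rw [e4]; ring
  have h5 : |d0 0 * dt (e' 0) V| ≤ w 0 * κ * (16 * h + 2 * (X * t)) +
      (1 * (w 0 * κ * h + 6 * (t * (B * lam)) * w' 0) +
        1 * (w 0 * κ * h + 6 * (t * (B * lam)) * w' 0)) := by
    rw [e5]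
    exact Arc880.abs_sub2 k1 (Arc880.abs_add2 (mul_abs_le D.nrm'.b01 r1)
      (mul_abs_le D.nrm'.b02 r2))
  rw [abs_mul, abs_of_pos (by linarith : 0 < d0 0)] at h5
  have h6 : 1 / 2 * |dt (e' 0) V| ≤ d0 0 * |dt (e' 0) V| :=
    mul_le_mul_of_nonneg_right g1' (abs_nonneg _)
  linarith

end two

end Crest.Agent.R136.Tl102
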