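import Crest.Agent.R136.Coi4_102

/-!
# R136 (S0187): coincidence and closeness of a curved sheet and a second sheet (helper102)
-/

set_option autoImplicit false

namespace Crest.Agent.R136.Tl102

open Crest.Agent.R136.Sh605

/-- coefficient bounds for a smaller unit -/
theorem OmB.mono {κ X X' Y Y' Z Z' : ℝ} {b0 b1 : V3} {G : QF} {b0' b1' : V3} {G' : QF}
    (O : OmB κ X Y Z b0 b1 G b0' b1' G') (hX : X ≤ X') (hY : Y ≤ Y') (hZ : Z ≤ Z') :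
    OmB κ X' Y' Z' b0 b1 G b0' b1' G' where
  h01 := O.h01.trans hX
  h02 := O.h02.trans hX
  h11 := O.h11.trans hX
  h12 := O.h12.trans hX
  uu := O.uu.trans hX
  uv := O.uv.trans hX
  vv := O.vv.trans hX
  y1 := O.y1.trans hY
  yy := O.yy.trans hZ
  yu := O.yu.trans hZ
  yv := O.yv.trans hZ

/-- change of the unit of the normal coordinate: `κ' ≤ κ` -/
theorem OmB.mono_kap {κ κ' X Y Z : ℝ} {b0 b1 : V3} {G : QF} {b0' b1' : V3} {G' : QF}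
    (O : OmB κ X Y Z b0 b1 G b0' b1' G') (h0 : 0 < κ') (h : κ' ≤ κ) :
    OmB κ' (X * (κ / κ')) Y Z b0 b1 G b0' b1' G' := by
  have hκ : 0 < κ := h0.trans_le h
  have g : ∀ x y : ℝ, |x / κ| ≤ y → |x / κ'| ≤ y * (κ / κ') := by
    intro x y hxy
    have e : x / κ' = x / κ * (κ / κ') := by field_simp
    rw [e, abs_mul, abs_of_pos (div_pos hκ h0)]
    exact mul_le_mul_of_nonneg_right hxy (div_pos hκ h0).le
  refine ⟨g _ _ O.h01, g _ _ O.h02, g _ _ O.h11, g _ _ O.h12, g _ _ O.uu, g _ _ O.uv, g _ _ O.vv,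
    O.y1, ?_, O.yu, O.yv⟩
  have e : (omM κ' b0 G b0' G').yy = (omM κ b0 G b0' G').yy * (κ' / κ) := by
    simp only [omM, gM]
    field_simp
  rw [e, abs_mul, abs_of_pos (div_pos h0 hκ)]
  have h1 : κ' / κ ≤ 1 := by rw [div_le_one hκ]; exact h
  calc |(omM κ b0 G b0' G').yy| * (κ' / κ) ≤ Z * 1 :=
        mul_le_mul O.yy h1 (div_pos h0 hκ).le O.nonneg.2.2
    _ = Z := mul_one Z

section two

variable {e : Fin 3 → V3} {c : Ln4} {w : V3} {q : ℝ → V3 → ℝ} {e' : Fin 3 → V3} {c' : Ln4}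
  {w' : V3} {q' : ℝ → V3 → ℝ} {T : Ln4} {z0 ρ a a' : ℝ} {b0 b1 : V3} {G : QF}
  {b0' b1' : V3} {G' : QF} {d0 d1 : V3} {H : QF} {B lam : ℝ}

/-- extent of the second sheet, `X ≤ 1` -/
theorem Two.kap_le1 (D : Two e c w q e' c' w' q' T z0 ρ a a' b0 b1 G b0' b1' G' d0 d1 H B lam)
    {κ X : ℝ} (hκ : 0 < κ) (hk : kap b0 b1 G ≤ κ) (hκ1 : κ ≤ 13)
    (O : OmB κ X X X b0 b1 G b0' b1' G') (hX : 8 * (X * (w 0 * κ)) ≤ w 2) (hX1 : X ≤ 1) :
    w' 0 * kap d0 d1 H ≤ 4 * 10 ^ 9 * (B * lam) ^ 2 * (w 0 * κ) := by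
  have h := D.kap_le hκ hk hκ1 O hX
  obtain ⟨X0, -, -⟩ := O.nonneg
  have hwk : 0 < w 0 * κ := mul_pos (D.S.pos 0) hκ
  have h1 : (1 + X + X + X) * (1 + X) ^ 2 ≤ 4 * 2 ^ 2 := by
    apply mul_le_mul (by linarith) _ (by positivity) (by norm_num)
    exact pow_le_pow_left₀ (by linarith) (by linarith) 2
  have h2 : 0 ≤ (B * lam) ^ 2 * (w 0 * κ) := by positivity
  have h3 := mul_le_mul_of_nonneg_right h1 h2
  nlinarith

/-- **coincidence**: a point of the second sheet near `T` -/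
theorem Two.coin (D : Two e c w q e' c' w' q' T z0 ρ a a' b0 b1 G b0' b1' G' d0 d1 H B lam)
    {κ X Λ δ r : ℝ} (hκ : 0 < κ) (hk : kap b0 b1 G ≤ κ) (hκ1 : κ ≤ 13)
    (O : OmB κ X X X b0 b1 G b0' b1' G') (hX : 8 * (X * (w 0 * κ)) ≤ w 2) (hX1 : X ≤ 1)
    (hΛ : X * (w 0 * κ) ≤ Λ) (hδ : a' ≤ δ * (w 0 * κ)) (hr : r ≤ 1 / 8)
    (hε : 10 ^ 12 * (δ + r * (B * lam) ^ 2) ≤ 1)
    {ζ : ℝ} (hζ : 0 ≤ ζ) (hζ' : ζ ≤ 1) {P : V3} (hP : InK e' c' (dbl3 w') (z0 + ρ * ζ) P)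
    (hq : |q' (z0 + ρ * ζ) P| ≤ a') (h1 : |pv e' w' (P - T.pos (z0 + ρ * ζ)) 1| ≤ r)
    (h2 : |pv e' w' (P - T.pos (z0 + ρ * ζ)) 2| ≤ r) :
    |dt (e 0) (P - T.pos (z0 + ρ * ζ))| ≤ w 0 * (17 * (10 ^ 12 * (δ + r * (B * lam) ^ 2))) ∧
      |q (z0 + ρ * ζ) P| ≤ a + 16 * (2 * a' + 11 * (10 ^ 12 * (δ + r * (B * lam) ^ 2)) * Λ) := by
  have hw0 := D.S.pos 0
  have hw2 := D.S.pos 2
  have hwk : 0 < w 0 * κ := mul_pos hw0 hκ
  obtain ⟨X0, -, -⟩ := O.nonneg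
  have hr0 : 0 ≤ r := (abs_nonneg _).trans h1
  have ha' : 0 ≤ a' := (abs_nonneg _).trans hq
  have hM1 : 1 ≤ B * lam := one_le_mul_of_one_le_of_one_le D.B1 D.lam1
  set M := B * lam with hM
  have hδ0 : 0 ≤ δ := by
    by_contra hc
    push Not at hc
    nlinarith
  have hrM : 0 ≤ r * M ^ 2 := by positivity
  have hMM : M ≤ M ^ 2 := by nlinarith
  have hrMM : r * M ≤ r * M ^ 2 := mul_le_mul_of_nonneg_left hMM hr0
  set ε := 10 ^ 12 * (δ + r * M ^ 2) with hεd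
  have hε0 : 0 ≤ ε := by positivity
  set W := 4 * 10 ^ 9 * M ^ 2 * (w 0 * κ) with hW
  have hkap := D.kap_le1 hκ hk hκ1 O hX hX1
  set d := 2 * (a' + a') + 5 * (r * W) with hd
  obtain ⟨p0, p1, p2⟩ := D.pointA hκ O hX hζ hζ' hP hq hr h1 h2 hkap (le_refl d)
  have hd1 : d ≤ (4 * δ + 2 * 10 ^ 10 * (r * M ^ 2)) * (w 0 * κ) := by
    have : (4 * δ + 2 * 10 ^ 10 * (r * M ^ 2)) * (w 0 * κ) =
        4 * (δ * (w 0 * κ)) + 5 * (r * W) := by rw [hW]; ring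
    rw [this, hd]; linarith
  have hd2 : d / (w 0 * κ) ≤ 4 * δ + 2 * 10 ^ 10 * (r * M ^ 2) := by
    rw [div_le_iff₀ hwk]; exact hd1
  have hd3 : d / w 2 ≤ 13 * (4 * δ + 2 * 10 ^ 10 * (r * M ^ 2)) := by
    rw [div_le_iff₀ hw2]
    have h3 : w 0 * κ ≤ 13 * w 2 := by
      have := D.w02
      nlinarith
    have h4 : 0 ≤ 4 * δ + 2 * 10 ^ 10 * (r * M ^ 2) := by positivity
    have h5 := mul_le_mul_of_nonneg_left h3 h4
    linarith
  have hXr : r * (X * M) ≤ r * M ^ 2 := by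
    apply mul_le_mul_of_nonneg_left _ hr0
    have : X * M ≤ 1 * M := mul_le_mul_of_nonneg_right hX1 (by linarith)
    linarith
  have hh : |tv κ b0 e w (P - T.pos (z0 + ρ * ζ)) 0| ≤ ε := by
    refine p0.trans ?_
    have e1 : 5 * d / (w 0 * κ) = 5 * (d / (w 0 * κ)) := by ring
    rw [e1, hεd]; linarith
  have ht : d / w 2 + 6 * (r * M) ≤ ε := by
    rw [hεd]; linarith
  constructor
  · have hn := D.n_le hκ hh (p1.trans ht) (p2.trans ht)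
    refine hn.trans (mul_le_mul_of_nonneg_left ?_ hw0.le)
    have := mul_le_mul_of_nonneg_right hκ1 hε0
    linarith
  · have hv := D.valA hκ O hX hζ hζ' hq hh (p1.trans ht) (p2.trans ht)
    refine hv.trans ?_
    have e2 : X * ε + X * (ε ^ 2 + 2 * (ε * ε)) + X * (4 * ε + 3 * ε ^ 2) =
        X * (5 * ε + 6 * (ε * ε)) := by ring
    have h6 : ε * ε ≤ ε * 1 := mul_le_mul_of_nonneg_left hε hε0
    have h7 : X * (5 * ε + 6 * (ε * ε)) ≤ X * (11 * ε) :=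
      mul_le_mul_of_nonneg_left (by linarith) X0
    have h8 : w 0 * κ * (X * (11 * ε)) ≤ 11 * ε * Λ := by
      have : w 0 * κ * (X * (11 * ε)) = 11 * ε * (X * (w 0 * κ)) := by ring
      rw [this]
      exact mul_le_mul_of_nonneg_left hΛ (by positivity)
    rw [e2]
    have h9 := mul_le_mul_of_nonneg_left h7 hwk.le
    linarith

/-- **closeness**: the second function on the base sheet -/
theorem Two.closeA (D : Two e c w q e' c' w' q' T z0 ρ a a' b0 b1 G b0' b1' G' d0 d1 H B lam)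
    {κ X Λ : ℝ} (hκ : 0 < κ) (hk : kap b0 b1 G ≤ κ)
    (O : OmB κ X X X b0 b1 G b0' b1' G')
    (hΛ : X * (w 0 * κ) ≤ Λ) (hδ : 16 * a ≤ w 0 * κ)
    {ζ : ℝ} (hζ : 0 ≤ ζ) (hζ' : ζ ≤ 1) {P : V3} (hP : InK e T (fun i => w i / 8) (z0 + ρ * ζ) P)
    (hq : |q (z0 + ρ * ζ) P| ≤ a) : |q' (z0 + ρ * ζ) P| ≤ a' + 16 * a + 4 * Λ := by
  have hw0 := D.S.pos 0
  have hwk : 0 < w 0 * κ := mul_pos hw0 hκ
  obtain ⟨X0, -, -⟩ := O.nonneg
  have ha : 0 ≤ a := (abs_nonneg _).trans hq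
  obtain ⟨z1, z2⟩ := D.hz hζ hζ'
  have hPK : InK e c (dbl3 w) (z0 + ρ * ζ) P := by
    intro i
    have e1 : dt (e i) (P - c.pos (z0 + ρ * ζ)) = dt (e i) (P - T.pos (z0 + ρ * ζ)) +
        dt (e i) (T.pos (z0 + ρ * ζ) - c.pos (z0 + ρ * ζ)) := by
      rw [dt_sub, dt_sub, dt_sub]; ring
    rw [e1]
    have h1 := hP i
    have h2 := (D.hT _ z1 z2).1 i
    have := D.S.pos i
    refine (abs_add_le _ _).trans ?_
    change _ ≤ 2 * w i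
    beta_reduce at h1
    linarith
  have hl : ∀ i, |pv e w (P - T.pos (z0 + ρ * ζ)) i| ≤ 1 / 8 := by
    intro i
    have hwi := D.S.pos i
    change |dt (e i) (P - T.pos (z0 + ρ * ζ)) / w i| ≤ 1 / 8
    rw [abs_div, abs_of_pos hwi, div_le_iff₀ hwi]
    have := hP i
    beta_reduce at this
    linarith
  obtain ⟨p0, p1, p2⟩ := D.pointB hκ hk hζ hζ' hPK hq (le_refl (1 / 8)) (hl 1) (hl 2)
  have h0 : |tv κ b0 e w (P - T.pos (z0 + ρ * ζ)) 0| ≤ 1 := by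
    refine p0.trans ?_
    have : 2 * (a + a) / (w 0 * κ) ≤ 1 / 4 := by
      rw [div_le_iff₀ hwk]; linarith
    linarith
  have hv := D.valB hκ O hζ hζ' hq h0 p1 p2
  refine hv.trans ?_
  have e2 : w 0 * κ * (X * 1 + X * (1 ^ 2 + 2 * (1 * (1 / 8))) + X * (4 * (1 / 8) + 3 * (1 / 8) ^ 2)) =
      179 / 64 * (X * (w 0 * κ)) := by ring
  have h3 : 0 ≤ X * (w 0 * κ) := by positivity
  rw [e2]
  linarith

/-- **closeness**: the base function on the second sheet -/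
theorem Two.closeB (D : Two e c w q e' c' w' q' T z0 ρ a a' b0 b1 G b0' b1' G' d0 d1 H B lam)
    {κ X Λ : ℝ} (hκ : 0 < κ) (hk : kap b0 b1 G ≤ κ) (hκ1 : κ ≤ 13)
    (O : OmB κ X X X b0 b1 G b0' b1' G') (hX : 8 * (X * (w 0 * κ)) ≤ w 2) (hX1 : X ≤ 1)
    (hΛ : X * (w 0 * κ) ≤ Λ) (hδ : a' ≤ w 0 * κ)
    {ζ : ℝ} (hζ : 0 ≤ ζ) (hζ' : ζ ≤ 1) {P : V3}
    (hP : InK e' T (fun i => w' i / 8) (z0 + ρ * ζ) P) (hq : |q' (z0 + ρ * ζ) P| ≤ a') :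
    |q (z0 + ρ * ζ) P| ≤ a + 16 * (2 * a' + 11 * (10 ^ 11 * (B * lam) ^ 2) ^ 2 * Λ) := by
  have hw0 := D.S.pos 0
  have hw2 := D.S.pos 2
  have hwk : 0 < w 0 * κ := mul_pos hw0 hκ
  obtain ⟨X0, -, -⟩ := O.nonneg
  have ha' : 0 ≤ a' := (abs_nonneg _).trans hq
  have hM1 : 1 ≤ B * lam := one_le_mul_of_one_le_of_one_le D.B1 D.lam1
  set M := B * lam with hM
  have hMM : M ≤ M ^ 2 := by nlinarith
  obtain ⟨z1, z2⟩ := D.hz hζ hζ'
  have hPK : InK e' c' (dbl3 w') (z0 + ρ * ζ) P := by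
    intro i
    have e1 : dt (e' i) (P - c'.pos (z0 + ρ * ζ)) = dt (e' i) (P - T.pos (z0 + ρ * ζ)) +
        dt (e' i) (T.pos (z0 + ρ * ζ) - c'.pos (z0 + ρ * ζ)) := by
      rw [dt_sub, dt_sub, dt_sub]; ring
    rw [e1]
    have h1 := hP i
    have h2 := (D.hT' _ z1 z2).1 i
    have := D.S'.pos i
    refine (abs_add_le _ _).trans ?_
    change _ ≤ 2 * w' i
    beta_reduce at h1
    linarith
  have hl : ∀ i, |pv e' w' (P - T.pos (z0 + ρ * ζ)) i| ≤ 1 / 8 := by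
    intro i
    have hwi := D.S'.pos i
    change |dt (e' i) (P - T.pos (z0 + ρ * ζ)) / w' i| ≤ 1 / 8
    rw [abs_div, abs_of_pos hwi, div_le_iff₀ hwi]
    have := hP i
    beta_reduce at this
    linarith
  set W := 4 * 10 ^ 9 * M ^ 2 * (w 0 * κ) with hW
  have hkap := D.kap_le1 hκ hk hκ1 O hX hX1
  set d := 2 * (a' + a') + 5 * (1 / 8 * W) with hd
  obtain ⟨p0, p1, p2⟩ := D.pointA hκ O hX hζ hζ' hPK hq (le_refl (1 / 8)) (hl 1) (hl 2) hkap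
    (le_refl d)
  have hd1 : d ≤ 3 * 10 ^ 9 * M ^ 2 * (w 0 * κ) := by
    have h3 : w 0 * κ ≤ M ^ 2 * (w 0 * κ) := le_mul_of_one_le_left hwk.le (by linarith)
    rw [hd, hW]; linarith
  have hd2 : d / (w 0 * κ) ≤ 3 * 10 ^ 9 * M ^ 2 := by
    rw [div_le_iff₀ hwk]; exact hd1
  have hd3 : d / w 2 ≤ 13 * (3 * 10 ^ 9 * M ^ 2) := by
    rw [div_le_iff₀ hw2]
    have h3 : w 0 * κ ≤ 13 * w 2 := by
      have := D.w02
      nlinarith
    have h4 : 0 ≤ 3 * 10 ^ 9 * M ^ 2 := by positivity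
    have h5 := mul_le_mul_of_nonneg_left h3 h4
    linarith
  set R := 10 ^ 11 * M ^ 2 with hR
  have hR1 : 1 ≤ R := by rw [hR]; linarith
  have hh : |tv κ b0 e w (P - T.pos (z0 + ρ * ζ)) 0| ≤ R := by
    refine p0.trans ?_
    have e1 : 5 * d / (w 0 * κ) = 5 * (d / (w 0 * κ)) := by ring
    have h6 : X * M ≤ 1 * M := mul_le_mul_of_nonneg_right hX1 (by linarith)
    rw [e1, hR]; linarith
  have ht : d / w 2 + 6 * (1 / 8 * M) ≤ R := by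
    rw [hR]; linarith
  have hv := D.valA hκ O hX hζ hζ' hq hh (p1.trans ht) (p2.trans ht)
  refine hv.trans ?_
  have e2 : X * R + X * (R ^ 2 + 2 * (R * R)) + X * (4 * R + 3 * R ^ 2) =
      X * (5 * R + 6 * R ^ 2) := by ring
  have h7 : X * (5 * R + 6 * R ^ 2) ≤ X * (11 * R ^ 2) :=
    mul_le_mul_of_nonneg_left (by nlinarith) X0
  have h8 : w 0 * κ * (X * (11 * R ^ 2)) ≤ 11 * R ^ 2 * Λ := by
    have : w 0 * κ * (X * (11 * R ^ 2)) = 11 * R ^ 2 * (X * (w 0 * κ)) := by ring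
    rw [this]
    exact mul_le_mul_of_nonneg_left hΛ (by positivity)
  rw [e2]
  have h9 := mul_le_mul_of_nonneg_left h7 hwk.le
  linarith

end two

end Crest.Agent.R136.Tl102
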