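import Crest.Agent.R136.Coi6_102

/-!
# R136 (S0187): capture, official literal `CapC`, end (helper102)
-/

set_option autoImplicit false

namespace Crest.Agent.R136.Tl102

open Crest.Agent.R136.Sh605
open Crest.Agent.R136.Arc880 (det3)
open Crest.Agent.R136.K4 (Plk4)
open Crest.Agent.R136.Deep51 (CoinC CloseC)
open Crest.Agent.R136.Tlt51 (CompC Agree CapC Shp InP)
open Crest.Agent.R136.KapP335
open Crest.Agent.R136.Cps605

/-- **three pencils of common lines force agreement** -/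
theorem agree_main {θ lam A u : ℝ} {S S' : Plk4} {T : Ln4} {z0 ρ : ℝ} (hθ : 0 < θ)
    (hK : cC * θ ≤ 1) (hlam : 1 ≤ lam) (hlamθ : lam * θ ≤ 1) (hρ : 0 < ρ)
    (hS : StP S.e S.c S.w S.q z0 ρ) (hS' : StP S'.e S'.c S'.w S'.q z0 ρ)
    (w02 : S.w 0 ≤ S.w 2) (w21 : S.w 2 ≤ S.w 1) (w02' : S'.w 0 ≤ S'.w 2) (w21' : S'.w 2 ≤ S'.w 1)
    (hC : CompC θ⁻¹ lam S S') (hT : InP T S z0 ρ) (hT' : InP T S' z0 ρ)
    {b0 b1 : V3} {G : QF} (hE : IsExp S.q S.e S.w T z0 ρ b0 b1 G) (hκ : 0 < kap b0 b1 G)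
    (hu : 0 < u) (hu7 : u ≤ θ ^ 700) (hA : cC * (S.a + S'.a) ≤ A)
    (hv : S.a + S'.a ≤ θ ^ 698 * (S.w 0 * kap b0 b1 G))
    {s : Fin 3 → ℝ} (hs : ∀ i, 0 ≤ s i ∧ s i ≤ 1) (hsd : ∀ i j, i ≠ j → etaC θ ≤ |s i - s j|)
    {L : Fin 3 → Fin 3 → Ln4} (hL : ∀ i j, InP (L i j) S z0 ρ) (hL' : ∀ i j, InP (L i j) S' z0 ρ)
    (hr1 : ∀ i j, |rp S.e S.w z0 ρ T (L i j) (s i) 1| ≤ u)
    (hr2 : ∀ i j, |rp S.e S.w z0 ρ T (L i j) (s i) 2| ≤ u)
    (htd : ∀ i j j', j ≠ j' → etaC θ ≤ |vel S.e S.w ρ T (L i j) 1 * vel S.e S.w ρ T (L i j') 2 -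
      vel S.e S.w ρ T (L i j') 1 * vel S.e S.w ρ T (L i j) 2|) :
    AgreeP A ((S.a + S'.a) / u) u lam S S' T z0 ρ := by
  obtain ⟨k1, k2, k3⟩ := cK_ge
  have hH := cH_pos
  have hcK : cK * θ ≤ 1 := by
    have : cC = 700 + cK := rfl
    rw [this] at hK
    nlinarith
  have hθN : 2 * 10 ^ 24 * θ ≤ 1 := (mul_le_mul_of_nonneg_right k1 hθ.le).trans hcK
  have hθ1 : θ ≤ 1 := by linarith
  have hη : 0 < etaC θ := by rw [etaC_eq]; positivity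
  have hη1 : etaC θ ≤ 1 := by
    rw [etaC_eq, div_le_one (by positivity)]
    exact (pow_le_one₀ hθ.le hθ1).trans (by norm_num)
  have ha : 0 ≤ S.a := (abs_nonneg _).trans (hT z0 le_rfl (by linarith)).2
  have ha' : 0 ≤ S'.a := (abs_nonneg _).trans (hT' z0 le_rfl (by linarith)).2
  have hw0 := hS.pos 0
  have hw2 := hS.pos 2
  set a := S.a with had
  set a' := S'.a with had'
  set κ := kap b0 b1 G with hκd
  set v := S.w 0 * κ with hvd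
  have hv0 : 0 < v := mul_pos hw0 hκ
  -- expansions
  obtain ⟨b0', b1', G', hE'⟩ := exists_isExp hS'.isQ S.e hw0.ne' T z0 ρ
  obtain ⟨d0, d1, H, hH'⟩ := exists_isExp hS'.isQ S'.e (hS'.pos 0).ne' T z0 ρ
  have D : Two S.e S.c S.w S.q S'.e S'.c S'.w S'.q T z0 ρ a a' b0 b1 G b0' b1' G' d0 d1 H θ⁻¹ lam :=
    { S := hS
      S' := hS'
      hρ := hρ.le
      hT := hT
      hT' := hT'
      hE := hE
      hE' := hE'
      hH := hH'
      w02 := w02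
      w21 := w21
      w02' := w02'
      w21' := w21'
      B1 := one_le_inv_iff₀.2 ⟨hθ, hθ1⟩
      lam1 := hlam
      wB1 := (hC.w 1 (by decide)).2
      wB2 := (hC.w 2 (by decide)).2
      wB1' := (hC.w 1 (by decide)).1
      wB2' := (hC.w 2 (by decide)).1
      tilt := hC.g' 2 (by decide)
      tilt' := by rw [dt_comm]; exact hC.g 2 (by decide) }
  have hκ13 : κ ≤ 13 := Tl102.kap_le D.nrm
  -- the pencil
  have hpos : ∀ n : ℕ, 0 < θ ^ n := fun n => by positivity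
  have h7 : θ ^ 700 ≤ θ ^ 698 := pow_le_pow_of hθ.le hθ1 (by norm_num)
  have hav : a ≤ θ ^ 698 * v := by linarith
  have hsm := num_cap hθ hcK hu7 hv0 hav
  have O := pencil_coef hS hρ.le hT hE hκ hE' D.b0'_le (fun z h1 h2 => (hT' z h1 h2).2) hη hη1 hs
    hsd hL (fun i j z h1 h2 => (hL' i j z h1 h2).2) hr1 hr2 htd hsm
  obtain ⟨x1, x2⟩ := num_X hθ hcK ha ha' hv0 hv
  set X := xP (etaC θ) a a' v with hX
  set Λ := (a + a') / θ ^ 301 with hΛ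
  have hΛ0 : 0 ≤ Λ := by positivity
  have hΛe : Λ * θ ^ 301 = a + a' := by rw [hΛ]; field_simp
  have hX1 : X ≤ 1 := x2.trans (pow_le_one₀ hθ.le hθ1)
  have hv13 : v ≤ 13 * S.w 2 := by
    rw [hvd]
    calc S.w 0 * κ ≤ S.w 2 * 13 := mul_le_mul w02 hκ13 hκ.le hw2.le
      _ = _ := by ring
  have hX8 : 8 * (X * v) ≤ S.w 2 := by
    have h1 : X * v ≤ θ * (13 * S.w 2) := by
      have h2 : θ ^ 397 ≤ θ ^ 1 := pow_le_pow_of hθ.le hθ1 (by norm_num)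
      rw [pow_one] at h2
      calc X * v ≤ θ * v := mul_le_mul_of_nonneg_right (x2.trans h2) hv0.le
        _ ≤ _ := mul_le_mul_of_nonneg_left hv13 hθ.le
    nlinarith
  -- products
  have hBθ : θ⁻¹ * θ = 1 := inv_mul_cancel₀ hθ.ne'
  have hM0 : 0 ≤ θ⁻¹ * lam := by positivity
  have hMθ : (θ⁻¹ * lam) * θ ^ 2 ≤ 1 := by
    calc (θ⁻¹ * lam) * θ ^ 2 = (θ⁻¹ * θ) * (lam * θ) := by ring
      _ ≤ 1 * 1 := by rw [hBθ]; linarith
      _ = 1 := by norm_num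
  have hM4 : (θ⁻¹ * lam) ^ 2 * θ ^ 4 ≤ 1 := by
    calc (θ⁻¹ * lam) ^ 2 * θ ^ 4 = ((θ⁻¹ * lam) * θ ^ 2) ^ 2 := by ring
      _ ≤ 1 := pow_le_one₀ (by positivity) hMθ
  have hM8 : ((θ⁻¹ * lam) ^ 2) ^ 2 * θ ^ 8 ≤ 1 := by
    calc ((θ⁻¹ * lam) ^ 2) ^ 2 * θ ^ 8 = ((θ⁻¹ * lam) ^ 2 * θ ^ 4) ^ 2 := by ring
      _ ≤ 1 := pow_le_one₀ (by positivity) hM4
  have huB : u * θ⁻¹ ≤ θ ^ 699 := by
    calc u * θ⁻¹ ≤ θ ^ 700 * θ⁻¹ := mul_le_mul_of_nonneg_right hu7 (by positivity)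
      _ = θ ^ 699 * (θ⁻¹ * θ) := by ring
      _ = θ ^ 699 := by rw [hBθ, mul_one]
  have huM : u * θ⁻¹ * (θ⁻¹ * lam) ^ 2 ≤ θ ^ 695 := by
    calc u * θ⁻¹ * (θ⁻¹ * lam) ^ 2 ≤ θ ^ 699 * (θ⁻¹ * lam) ^ 2 :=
          mul_le_mul_of_nonneg_right huB (by positivity)
      _ = θ ^ 695 * ((θ⁻¹ * lam) ^ 2 * θ ^ 4) := by ring
      _ ≤ θ ^ 695 * 1 := mul_le_mul_of_nonneg_left hM4 (hpos _).le
      _ = θ ^ 695 := mul_one _
  have hp : ∀ n : ℕ, 1 ≤ n → θ ^ n ≤ θ := by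
    intro n hn
    calc θ ^ n ≤ θ ^ 1 := pow_le_pow_of hθ.le hθ1 hn
      _ = θ := pow_one _
  have hε1 : 10 ^ 12 * (θ ^ 698 + u * θ⁻¹ * (θ⁻¹ * lam) ^ 2) ≤ θ ^ 694 := by
    have h1 : θ ^ 698 ≤ θ ^ 695 := pow_le_pow_of hθ.le hθ1 (by norm_num)
    calc 10 ^ 12 * (θ ^ 698 + u * θ⁻¹ * (θ⁻¹ * lam) ^ 2) ≤ 10 ^ 12 * (θ ^ 695 + θ ^ 695) := by
          gcongr
      _ = (2 * 10 ^ 12 * θ) * θ ^ 694 := by ring
      _ ≤ 1 * θ ^ 694 := by
          gcongr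
          linarith
      _ = _ := one_mul _
  have hε : 10 ^ 12 * (θ ^ 698 + u * θ⁻¹ * (θ⁻¹ * lam) ^ 2) ≤ 1 / 34 := by
    have := hp 694 (by norm_num)
    linarith
  have hε0 : 0 ≤ 10 ^ 12 * (θ ^ 698 + u * θ⁻¹ * (θ⁻¹ * lam) ^ 2) := by positivity
  have hεΛ : 10 ^ 12 * (θ ^ 698 + u * θ⁻¹ * (θ⁻¹ * lam) ^ 2) * Λ ≤ θ * (a + a') := by
    calc _ ≤ θ ^ 694 * Λ := mul_le_mul_of_nonneg_right hε1 hΛ0
      _ = θ ^ 393 * (Λ * θ ^ 301) := by ring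
      _ ≤ θ * (a + a') := by
          rw [hΛe]
          exact mul_le_mul_of_nonneg_right (hp _ (by norm_num)) (by linarith)
  -- comparison with `1 / u`
  have hdiv : ∀ (n : ℕ) (C : ℝ), n + 1 ≤ 700 → C * θ ≤ 1 → C * (a + a') / θ ^ n ≤ (a + a') / u := by
    intro n C hn hCθ
    rw [div_le_div_iff₀ (hpos n) hu]
    have h1 : u ≤ θ * θ ^ n := by
      refine hu7.trans ?_
      rw [← pow_succ']
      exact pow_le_pow_of hθ.le hθ1 hn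
    have h2 : 0 ≤ a + a' := by linarith
    rcases le_or_gt C 0 with hC0 | hC0
    · have : C * (a + a') * u ≤ 0 := by
        have := mul_nonneg h2 hu.le
        nlinarith
      exact this.trans (mul_nonneg h2 (hpos n).le)
    · calc C * (a + a') * u ≤ C * (a + a') * (θ * θ ^ n) :=
            mul_le_mul_of_nonneg_left h1 (by positivity)
        _ = (C * θ) * ((a + a') * θ ^ n) := by ring
        _ ≤ 1 * ((a + a') * θ ^ n) := mul_le_mul_of_nonneg_right hCθ (mul_nonneg h2 (hpos n).le)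
        _ = _ := one_mul _
  have hle1 : a + a' ≤ Λ := by
    rw [hΛ, le_div_iff₀ (hpos _)]
    have := mul_le_mul_of_nonneg_left (pow_le_one₀ hθ.le hθ1 : θ ^ 301 ≤ 1)
      (by linarith : 0 ≤ a + a')
    linarith
  refine { coin := ?_, close := ?_, close' := ?_, poly := ?_ }
  · refine D.coinC hρ hκ le_rfl hκ13 O hX8 hX1 x1 (by linarith) hu.le ?_ hε ?_
    · have := hp 699 (by norm_num)
      linarith
    · have hcC : 700 ≤ cC := by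
        have : cC = 700 + cK := rfl
        rw [this]; linarith
      have h1 := mul_le_mul_of_nonneg_right hcC (by linarith : 0 ≤ a + a')
      have h2 : θ * (a + a') ≤ 1 * (a + a') := mul_le_mul_of_nonneg_right hθ1 (by linarith)
      linarith
  · refine D.closeC hρ hκ le_rfl O x1 ?_ (Λ := Λ) ?_
    · have h1 := hp 698 (by norm_num)
      have h2 := mul_le_mul_of_nonneg_right h1 hv0.le
      have h3 : θ * v ≤ 1 / 16 * v := mul_le_mul_of_nonneg_right (by linarith) hv0.le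
      linarith
    · refine le_trans ?_ (hdiv 301 20 (by norm_num) (by linarith))
      have : 20 * (a + a') / θ ^ 301 = 20 * Λ := by rw [hΛ]; ring
      rw [this]; linarith
  · refine D.closeC' hρ hκ le_rfl hκ13 O hX8 hX1 x1 ?_ (Λ := Λ) ?_
    · have h1 := hp 698 (by norm_num)
      have h2 := mul_le_mul_of_nonneg_right h1 hv0.le
      have h3 : θ * v ≤ 1 * v := mul_le_mul_of_nonneg_right hθ1 hv0.le
      linarith
    · refine le_trans ?_ (hdiv 309 (2 * 10 ^ 24) (by norm_num) hθN)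
      have e1 : 2 * 10 ^ 24 * (a + a') / θ ^ 309 = 2 * 10 ^ 24 * (Λ / θ ^ 8) := by
        rw [hΛ]; field_simp
      have h1 : ((θ⁻¹ * lam) ^ 2) ^ 2 ≤ 1 / θ ^ 8 := by
        rw [le_div_iff₀ (hpos 8)]; exact hM8
      have h2 : ((θ⁻¹ * lam) ^ 2) ^ 2 * Λ ≤ Λ / θ ^ 8 := by
        calc _ ≤ 1 / θ ^ 8 * Λ := mul_le_mul_of_nonneg_right h1 hΛ0
          _ = _ := by ring
      have h3 : Λ ≤ Λ / θ ^ 8 := by
        rw [le_div_iff₀ (hpos 8)]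
        have := mul_le_mul_of_nonneg_left (pow_le_one₀ hθ.le hθ1 : θ ^ 8 ≤ 1) hΛ0
        linarith
      have e2 : a + 16 * (2 * a' + 11 * (10 ^ 11 * (θ⁻¹ * lam) ^ 2) ^ 2 * Λ) =
          a + 32 * a' + 176 * 10 ^ 22 * (((θ⁻¹ * lam) ^ 2) ^ 2 * Λ) := by ring
      rw [e1, e2]
      linarith
  · intro β0 β1 Γ β0' β1' Γ' hβ hβ'
    obtain ⟨r1, r2, r3⟩ := isExp_unique hw0.ne' hβ hE
    obtain ⟨r1', r2', r3'⟩ := isExp_unique hw0.ne' hβ' hE'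
    subst r1 r2 r3 r1' r2' r3'
    refine ⟨D.le_m hκ O hX8, D.m_le, X, ?_, O⟩
    refine x1.trans ?_
    have := hdiv 301 1 (by norm_num) (by linarith)
    rw [one_mul] at this
    exact this

/-- **capture, stronger form**: the sheets do not agree or the coefficients are not close -/
theorem capP : ∃ C1 : ℝ, 1 ≤ C1 ∧ ∃ N : ℕ, 1 ≤ N ∧
    ∀ (θ lam A : ℝ) (S S' : Plk4) (T : Ln4) (z0 ρ z1 ρ1 z2 ρ2 r : ℝ),
    0 < θ → C1 * θ ≤ 1 → 1 ≤ lam → lam * θ ≤ 1 → 0 < r → 0 < ρ →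
    z1 ≤ z0 → z0 + ρ ≤ z1 + ρ1 → θ * ρ1 ≤ ρ → z2 ≤ z0 → z0 + ρ ≤ z2 + ρ2 → θ * ρ2 ≤ ρ →
    Shp S z1 ρ1 r → Shp S' z2 ρ2 r → CompC θ⁻¹ lam S S' → InP T S z1 ρ1 → InP T S' z2 ρ2 →
    θ ^ (-C1) * (S.a + S'.a) ≤ kapP S z1 ρ1 T → DetP θ S z1 ρ1 T → C1 * (S.a + S'.a) ≤ A →
    ¬ AgreeP A (θ ^ (-C1) * (S.a + S'.a)) (θ ^ C1) lam S S' T z0 ρ →
    ∃ s : Fin 2 → ℝ, ∀ ζ, z0 ≤ ζ → ζ ≤ z0 + ρ → (∀ i, θ * ρ ≤ |ζ - s i|) →
      ∃ V : Fin N → V3, ∀ t : Ln4, InP t S z1 ρ1 → InP t S' z2 ρ2 →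
        |dt (S.e 1) (t.pos ζ - T.pos ζ)| ≤ θ ^ C1 * S.w 1 →
        |dt (S.e 2) (t.pos ζ - T.pos ζ)| ≤ θ ^ C1 * S.w 2 →
          ∃ l, |dt (S.e 1) (t.v - V l)| * ρ ≤ θ * S.w 1 ∧
            |dt (S.e 2) (t.v - V l)| * ρ ≤ θ * S.w 2 := by
  obtain ⟨k1, k2, k3⟩ := cK_ge
  have hcC : cC = 700 + cK := rfl
  refine ⟨cC, by rw [hcC]; linarith, 3, by norm_num, ?_⟩
  intro θ lam A S S' T z0 ρ z1 ρ1 z2 ρ2 r hθ hK hlam hlamθ hr hρ hz1 hz1' hρ1 hz2 hz2' hρ2 hS hS' hC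
    hT hT' hkap hdet hA hnot
  have hcK : cK * θ ≤ 1 := by rw [hcC] at hK; nlinarith
  have hθN : 2 * 10 ^ 24 * θ ≤ 1 := (mul_le_mul_of_nonneg_right k1 hθ.le).trans hcK
  have hθ1 : θ ≤ 1 := by linarith
  have hw0 : 0 < S.w 0 := hr.trans_le (hS.r0_le.trans hS.a_le0)
  have hw0' : 0 < S'.w 0 := hr.trans_le (hS'.r0_le.trans hS'.a_le0)
  have ha : 0 < S.a := hr.trans_le hS.r0_le
  have ha' : 0 < S'.a := hr.trans_le hS'.r0_le
  have hρ1' : 0 < ρ1 := by linarith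
  -- `u`
  set u := θ ^ cC with hu
  have hu0 : 0 < u := Real.rpow_pos_of_pos hθ _
  have hu7 : u ≤ θ ^ 700 := by
    rw [hu, ← Real.rpow_natCast]
    apply Real.rpow_le_rpow_of_exponent_ge hθ hθ1
    rw [hcC]; push_cast; linarith
  have hun : θ ^ (-cC) = u⁻¹ := Real.rpow_neg hθ.le _
  rw [hun] at hkap hnot
  -- the base sheet over its cell
  have StS := StP.of_shN hS hw0
  have StS' := StP.of_shN hS' hw0'
  obtain ⟨b0, b1, G, hE⟩ := exists_isExp StS.isQ S.e hw0.ne' T z1 ρ1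
  rw [kapP_eq hw0.ne' hE] at hkap
  have hdet' := (detP_iff hw0.ne' hE θ).1 hdet
  have N := hE.nrmC StS hρ1'.le (fun z h1 h2 => (hT z h1 h2).1)
  have hkap0 : 0 < kap b0 b1 G := by
    have h1 : 0 < u⁻¹ * (S.a + S'.a) := by positivity
    have h2 : 0 < S.w 0 * kap b0 b1 G := h1.trans_le hkap
    exact (mul_pos_iff_of_pos_left hw0).1 h2
  -- the sub-cell
  obtain ⟨m0, m1, m2⟩ := hgt_mem (z0' := z1) (z0 := z0) hρ1' hρ.le hz1 hz1'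
  have hEs := isExp_mono (z0 := z0) (ρ := ρ) hE hρ1'.ne'
  set ζ0 := (z0 - z1) / ρ1 with hζ0
  set τ := ρ / ρ1 with hτ
  have hτ0 : 0 < τ := div_pos hρ hρ1'
  have hτθ : θ ≤ τ := by rw [hτ, le_div_iff₀ hρ1']; exact hρ1
  obtain ⟨hks, hnd⟩ := nd_mono N m0 hτ0 m2 hkap0 hdet'
  have hkl := kap_le_sub N m0 hτ0.le m2
  set c0 := b0s b0 b1 ζ0 with hc0
  set c1 := b1s b1 τ with hc1
  have Ss := stP_mono StS hz1 hz1'
  have Ss' := stP_mono StS' hz2 hz2'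
  have Ts : InP T S z0 ρ := inSheet_mono hT hz1 hz1'
  have Ts' : InP T S' z0 ρ := inSheet_mono hT' hz2 hz2'
  set κ := kap c0 c1 G with hκ
  have hv0 : 0 < S.w 0 * κ := mul_pos hw0 hks
  -- `a + a' ≤ θ^698 v`
  have hv : S.a + S'.a ≤ θ ^ 698 * (S.w 0 * κ) := by
    have h1 : θ * (u⁻¹ * (S.a + S'.a)) ≤ 160 * (S.w 0 * κ) := by
      calc θ * (u⁻¹ * (S.a + S'.a)) ≤ τ * (S.w 0 * kap b0 b1 G) :=
            mul_le_mul hτθ hkap (by positivity) hτ0.le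
        _ = S.w 0 * (τ * kap b0 b1 G) := by ring
        _ ≤ S.w 0 * (160 * κ) := mul_le_mul_of_nonneg_left hkl hw0.le
        _ = _ := by ring
    have h2 : θ * (S.a + S'.a) ≤ 160 * (S.w 0 * κ) * u := by
      have := mul_le_mul_of_nonneg_right h1 hu0.le
      have e1 : θ * (u⁻¹ * (S.a + S'.a)) * u = θ * (S.a + S'.a) := by field_simp
      rwa [e1] at this
    have h3 : θ * (S.a + S'.a) ≤ θ * (θ ^ 698 * (S.w 0 * κ)) := by
      calc θ * (S.a + S'.a) ≤ 160 * (S.w 0 * κ) * θ ^ 700 :=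
            h2.trans (mul_le_mul_of_nonneg_left hu7 (by positivity))
        _ = (160 * θ) * (θ ^ 699 * (S.w 0 * κ)) := by ring
        _ ≤ 1 * (θ ^ 699 * (S.w 0 * κ)) :=
            mul_le_mul_of_nonneg_right (by linarith) (by positivity)
        _ = _ := by ring
    exact le_of_mul_le_mul_left h3 hθ
  -- capture
  have hβ : 0 < θ / 8 := by positivity
  have hκd : 0 < θ ^ 3 / 64000 := by positivity
  have hη : 0 < etaC θ := by rw [etaC_eq]; positivity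
  have hηθ : etaC θ ≤ θ := by
    rw [etaC_eq, div_le_iff₀ (by positivity)]
    have h1 : θ ^ 15 ≤ θ ^ 1 := pow_le_pow_of hθ.le hθ1 (by norm_num)
    rw [pow_one] at h1
    have h2 : θ * 1 ≤ θ * (48 * 884736000 ^ 3) := mul_le_mul_of_nonneg_left (by norm_num) hθ.le
    linarith
  have hnd' : ∀ ζ, 0 ≤ ζ → ζ ≤ 1 →
      θ ^ 3 / 64000 ≤ |det3 (fan (shB0 c0) (scB1 κ c0 c1) (scG κ c0 G) ζ)| := by
    intro ζ h1 h2
    refine le_trans ?_ (hnd ζ h1 h2)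
    have h3 : θ ^ 2 ≤ τ ^ 2 := pow_le_pow_left₀ hθ.le hτθ 2
    calc θ ^ 3 / 64000 = θ ^ 2 / 40 ^ 3 * θ := by ring
      _ ≤ τ ^ 2 / 40 ^ 3 * θ := by gcongr
  obtain ⟨s, hs⟩ := cap_gen Ss hρ.le Ts hEs hks hκd (by
      have : θ ^ 3 ≤ 1 := pow_le_one₀ hθ.le hθ1
      linarith) hβ (by linarith) hnd' hη (le_of_eq rfl) hu0.le
    (num_cap hθ hcK hu7 hv0 (by linarith)) (𝓛 := {t | InP t S z0 ρ ∧ InP t S' z0 ρ})
    (fun L hL => hL.1) (fun s hs hsd L hL hr1 hr2 htd => hnot (by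
      have := agree_main hθ hK hlam hlamθ hρ Ss Ss' hS.w0_le hS.w_le hS'.w0_le hS'.w_le hC Ts Ts'
        hEs hks hu0 hu7 hA hv hs hsd (fun i j => (hL i j).1) (fun i j => (hL i j).2) hr1 hr2 htd
      have e1 : (S.a + S'.a) / u = u⁻¹ * (S.a + S'.a) := by ring
      rwa [e1] at this))
  refine ⟨fun i => z0 + ρ * s i, fun ζ hζ hζ' hfar => ?_⟩
  obtain ⟨x, hx, hx', rfl⟩ := height_exists hρ hζ hζ'
  obtain ⟨p, hp⟩ := hs x hx hx' (fun i => by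
    have h1 := hfar i
    have e1 : z0 + ρ * x - (z0 + ρ * s i) = ρ * (x - s i) := by ring
    rw [e1, abs_mul, abs_of_pos hρ] at h1
    have h2 : θ ≤ |x - s i| := by
      have : ρ * θ ≤ ρ * |x - s i| := by linarith
      exact le_of_mul_le_mul_left this hρ
    exact hηθ.trans h2)
  refine ⟨fun l => T.v + (((p l).1 * S.w 1 / ρ) • S.e 1 + ((p l).2 * S.w 2 / ρ) • S.e 2),
    fun t ht ht' h1 h2 => ?_⟩
  have hw1 := StS.pos 1
  have hw2 := StS.pos 2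
  have hts : InP t S z0 ρ := inSheet_mono ht hz1 hz1'
  have hts' : InP t S' z0 ρ := inSheet_mono ht' hz2 hz2'
  obtain ⟨l, hl⟩ := hp t ⟨hts, hts'⟩
    (by
      change |dt (S.e 1) (t.pos (z0 + ρ * x) - T.pos (z0 + ρ * x)) / S.w 1| ≤ u
      rw [abs_div, abs_of_pos hw1, div_le_iff₀ hw1]; exact h1)
    (by
      change |dt (S.e 2) (t.pos (z0 + ρ * x) - T.pos (z0 + ρ * x)) / S.w 2| ≤ u
      rw [abs_div, abs_of_pos hw2, div_le_iff₀ hw2]; exact h2)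
  refine ⟨l, ?_⟩
  rw [Prod.dist_eq, max_lt_iff, Real.dist_eq, Real.dist_eq] at hl
  obtain ⟨l1, l2⟩ := hl
  have o11 : dt (S.e 1) (S.e 1) = 1 := by simpa using StS.ortho 1 1
  have o12 : dt (S.e 1) (S.e 2) = 0 := by simpa using StS.ortho 1 2
  have o21 : dt (S.e 2) (S.e 1) = 0 := by simpa using StS.ortho 2 1
  have o22 : dt (S.e 2) (S.e 2) = 1 := by simpa using StS.ortho 2 2
  have g : ∀ (x y w ρ : ℝ), 0 < w → 0 < ρ → |ρ * x / w - y| < 8 * (θ / 8) →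
      |x - y * w / ρ| * ρ ≤ θ * w := by
    intro x y w ρ hw hρ h
    have e1 : x - y * w / ρ = (ρ * x / w - y) * (w / ρ) := by field_simp
    rw [e1, abs_mul, abs_of_pos (div_pos hw hρ)]
    have e2 : |ρ * x / w - y| * (w / ρ) * ρ = |ρ * x / w - y| * w := by field_simp
    rw [e2]
    exact mul_le_mul_of_nonneg_right (by linarith) hw.le
  constructor
  · have e1 : dt (S.e 1) (t.v - (T.v + (((p l).1 * S.w 1 / ρ) • S.e 1 +
        ((p l).2 * S.w 2 / ρ) • S.e 2))) = dt (S.e 1) (t.v - T.v) - (p l).1 * S.w 1 / ρ := by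
      rw [dt_sub, dt_sub, dt_add, dt_add, dt_smul, dt_smul, o11, o12]; ring
    beta_reduce
    rw [e1]
    exact g _ _ _ _ hw1 hρ l1
  · have e1 : dt (S.e 2) (t.v - (T.v + (((p l).1 * S.w 1 / ρ) • S.e 1 +
        ((p l).2 * S.w 2 / ρ) • S.e 2))) = dt (S.e 2) (t.v - T.v) - (p l).2 * S.w 2 / ρ := by
      rw [dt_sub, dt_sub, dt_add, dt_add, dt_smul, dt_smul, o21, o22]; ring
    beta_reduce
    rw [e1]
    exact g _ _ _ _ hw2 hρ l2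

/-- **[CAP]**, official literal -/
theorem capC : CapC kapP DetP := by
  obtain ⟨C1, h1, N, hN, h⟩ := capP
  refine ⟨C1, h1, N, hN, ?_⟩
  intro θ lam A S S' T z0 ρ z1 ρ1 z2 ρ2 r g1 g2 g3 g4 g5 g6 g7 g8 g9 g10 g11 g12 g13 g14 g15 g16 g17
    g18 g19 g20 g21
  exact h θ lam A S S' T z0 ρ z1 ρ1 z2 ρ2 r g1 g2 g3 g4 g5 g6 g7 g8 g9 g10 g11 g12 g13 g14 g15 g16
    g17 g18 g19 g20 fun hA => g21 hA.toAgree

end Crest.Agent.R136.Tl102
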