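import Crest.Agent.R136.Cmd_113
import Crest.Agent.R136.Cr4_18

/-!
# R136, PLAN 2, (C2) `core_cross`: the fields `crU`, `crV` of `Ndl372.Nd` over `TCore` (helper18)

* `core_cross` : base tilt `2 ^ j ≥ (2 W) ^ C` : transversal crossing pairs (relation `CrV` of
  `Cmd_113`) in every quarter of the lines, `θ = (2 W) ^ (-C)`, loss `(2 W) ^ (C + 12)`;
  hypothesis = the good incidences of helper524.
* `core_same`  : small base tilt: all pairs of the classes.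
* `core_sizeU`, `core_sizeV` : the classes have at most `4 W M` lines.
-/

set_option autoImplicit false
set_option linter.unusedVariables false

open Finset

namespace Crest.Agent.R136.Cx18

open Crest.Agent.R136.Sh605 Crest.Agent.R136.Fl808 Crest.Agent.R136.Pl2
open Crest.Agent.R136.Cmd113 Crest.Agent.R136.Cr418 Crest.Agent.R136.Cr318

/-- choice of the exponent -/
theorem theta_ok {K q : ℝ} (hK : 0 < K) (hq : 0 < q) : ∃ C : ℝ, 0 ≤ C ∧ ∀ W : ℝ, 1 ≤ W →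
    K * W ^ 2 * ((2 * W) ^ (-C)) ^ q ≤ 9 / 160 := by
  set D : ℝ := max 0 (Real.logb 2 (K * 160 / 9)) with hD
  have hD0 : 0 ≤ D := le_max_left _ _
  have h2D : K * 160 / 9 ≤ 2 ^ D := by
    have h1 : (2:ℝ) ^ (Real.logb 2 (K * 160 / 9)) = K * 160 / 9 :=
      Real.rpow_logb (by norm_num) (by norm_num) (by positivity)
    calc K * 160 / 9 = 2 ^ (Real.logb 2 (K * 160 / 9)) := h1.symm
      _ ≤ 2 ^ D := Real.rpow_le_rpow_of_exponent_le (by norm_num) (le_max_right _ _)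
  refine ⟨(2 + D) / q, by positivity, fun W hW => ?_⟩
  have hW0 : 0 < W := by linarith
  have h2W : 0 < 2 * W := by linarith
  have e1 : ((2 * W) ^ (-((2 + D) / q))) ^ q = ((2 * W) ^ (2:ℝ))⁻¹ * ((2 * W) ^ D)⁻¹ := by
    rw [← Real.rpow_mul h2W.le]
    have : -((2 + D) / q) * q = -(2 + D) := by field_simp
    rw [this, Real.rpow_neg h2W.le, Real.rpow_add h2W, mul_inv]
  rw [e1]
  have h3 : (2 * W) ^ (2:ℝ) = (2 * W) ^ 2 := by norm_cast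
  rw [h3]
  have h4 : (2:ℝ) ^ D ≤ (2 * W) ^ D := Real.rpow_le_rpow (by norm_num) (by linarith) hD0
  have h5 : 0 < (2:ℝ) ^ D := by positivity
  have h6 : K * 160 / 9 ≤ (2 * W) ^ D := h2D.trans h4
  have h7 : 0 < (2 * W) ^ D := by positivity
  have h8 : K * W ^ 2 * (((2 * W) ^ 2)⁻¹ * ((2 * W) ^ D)⁻¹) = K / 4 / (2 * W) ^ D := by
    field_simp; ring
  rw [h8, div_le_iff₀ h7]
  nlinarith

section

variable {qm qp : Fin 3 → ℝ} {L : ℕ → Ln4} {P : Finset ℕ} {u v : ℕ → ℕ} {bu bv : ℕ → Ln4}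
  {eu ev : ℕ → Fin 3 → V3} {W M a Y w1 w2 z0 ρ : ℝ}

/-- exchange of the two systems -/
theorem _root_.Crest.Agent.R136.Pl2.TCore.w20
    (H : TCore qm qp L P u v bu bv eu ev W M a Y w1 w2 z0 ρ) : 0 < w2 :=
  (H.a0.trans_le H.aY).trans_le H.Yw

theorem _root_.Crest.Agent.R136.Pl2.TCore.w10
    (H : TCore qm qp L P u v bu bv eu ev W M a Y w1 w2 z0 ρ) : 0 < w1 :=
  H.w20.trans_le H.ww

theorem hmU (H : TCore qm qp L P u v bu bv eu ev W M a Y w1 w2 z0 ρ) :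
    ∀ t ∈ P, ∀ z, z0 ≤ z → z ≤ z0 + ρ →
      |dt (eu (u t) 1) ((L t).pos z - (bu (u t)).pos z)| ≤ w1 :=
  fun t ht z hz hz' => H.mu t ht z hz hz' 1

theorem hmV (H : TCore qm qp L P u v bu bv eu ev W M a Y w1 w2 z0 ρ) :
    ∀ t ∈ P, ∀ z, z0 ≤ z → z ≤ z0 + ρ →
      |dt (ev (v t) 1) ((L t).pos z - (bv (v t)).pos z)| ≤ w1 :=
  fun t ht z hz hz' => H.mv t ht z hz hz' 1

open Classical in
/-- three quarters of the incidences of every line are good -/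
def GoodMost (L : ℕ → Ln4) (P : Finset ℕ) (u : ℕ → ℕ) (e : ℕ → Fin 3 → V3)
    (w1 M B z0 ρ : ℝ) (j : ℕ) : Prop :=
  ∀ t ∈ P, 4 * ((range (2 ^ (j + 1))).filter fun i : ℕ =>
    ¬ GoodI L P u e w1 M (2 ^ j) B t (z0 + ρ * ((i : ℝ) / ((2 ^ (j + 1) : ℕ) : ℝ)))).card ≤
      2 ^ (j + 1)

end

/-- `4000 W / θ ≤ (2 W) ^ (C + 12)` -/
theorem loss_le {W C : ℝ} (hW : 1 ≤ W) (hC : 0 ≤ C) :
    4000 * W / (2 * W) ^ (-C) ≤ (2 * W) ^ (C + 12) := by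
  have h2W : 0 < 2 * W := by linarith
  rw [Real.rpow_neg h2W.le, div_inv_eq_mul, Real.rpow_add h2W]
  have h1 : (2 * W) ^ (12:ℝ) = (2 * W) ^ 12 := by norm_cast
  rw [h1, mul_comm]
  apply mul_le_mul_of_nonneg_left _ (by positivity)
  have h2 : W ≤ W ^ 12 := le_self_pow₀ hW (by norm_num)
  calc 4000 * W ≤ 4096 * W ^ 12 := by nlinarith
    _ = (2 * W) ^ 12 := by ring

open Classical in
/-- **(C2)** : transversal crossing pairs at good incidences in every quarter of the lines. -/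
theorem core_cross {q : ℝ} (hq : 0 < q) : ∃ C : ℝ, 0 ≤ C ∧
    ∀ (qm qp : Fin 3 → ℝ) (L : ℕ → Ln4) (P : Finset ℕ) (u v : ℕ → ℕ) (bu bv : ℕ → Ln4)
      (eu ev : ℕ → Fin 3 → V3) (W M a Y w1 w2 z0 ρ B : ℝ) (j : ℕ), qm 1 = q →
      TCore qm qp L P u v bu bv eu ev W M a Y w1 w2 z0 ρ → 2 ^ j * w2 ≤ 2 * w1 →
      (2 * W) ^ C ≤ 2 ^ j → GoodMost L P u eu w1 M B z0 ρ j → GoodMost L P v ev w1 M B z0 ρ j →
      (∀ Q ⊆ P, P.card ≤ 4 * Q.card → (P.card : ℝ) * M ≤ (2 * W) ^ (C + 12) *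
        (((Q ×ˢ Q).filter fun p => u p.1 = u p.2 ∧
          CrV L P v u ev eu w1 z0 ρ M (2 ^ j) B ((2 * W) ^ (-C)) p.1 p.2).card : ℝ)) ∧
      (∀ Q ⊆ P, P.card ≤ 4 * Q.card → (P.card : ℝ) * M ≤ (2 * W) ^ (C + 12) *
        (((Q ×ˢ Q).filter fun p => v p.1 = v p.2 ∧
          CrV L P u v eu ev w1 z0 ρ M (2 ^ j) B ((2 * W) ^ (-C)) p.1 p.2).card : ℝ)) := by
  have h4q : (0 : ℝ) < 4 ^ (1 + q) := Real.rpow_pos_of_pos (by norm_num) _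
  obtain ⟨C, hC, hCW⟩ := theta_ok (K := Cq q * (8 * 4 ^ (1 + q))) (q := q)
    (mul_pos (Cq_pos hq) (by positivity)) hq
  refine ⟨C, hC, ?_⟩
  intro qm qp L P u v bu bv eu ev W M a Y w1 w2 z0 ρ B j hqm H hjw hj hGu hGv
  have hW := H.W1
  have hW0 : 0 < W := by linarith
  have h2W : 0 < 2 * W := by linarith
  have hw1 := H.w10
  have hjp : (0:ℝ) < 2 ^ j := by positivity
  set θ : ℝ := (2 * W) ^ (-C) with hθ
  have hθ0 : 0 < θ := by positivity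
  have hθ1 : θ ≤ 1 := Real.rpow_le_one_of_one_le_of_nonpos (by linarith) (by linarith)
  have hθn : 1 ≤ θ * 2 ^ (j + 1) := by
    have h1 : θ * (2 * W) ^ C = 1 := by
      rw [hθ, ← Real.rpow_add h2W]; simp
    have h2 : θ * (2 * W) ^ C ≤ θ * 2 ^ j := mul_le_mul_of_nonneg_left hj hθ0.le
    rw [pow_succ]
    nlinarith [mul_pos hθ0 hjp]
  have hsm : Cq q * (8 * 4 ^ (1 + q) * W ^ 2) * θ ^ q ≤ 9 / 160 := by
    have := hCW W hW
    calc _ = Cq q * (8 * 4 ^ (1 + q)) * W ^ 2 * ((2 * W) ^ (-C)) ^ q := by rw [hθ]; ring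
      _ ≤ _ := this
  have hl := loss_le hW hC
  -- one system
  have main : ∀ (v' : ℕ → ℕ) (e : ℕ → Fin 3 → V3) (bb : ℕ → Ln4) (G : ℕ → ℝ → Prop)
      (R : ℕ → ℕ → Prop), (∀ s t, v' s = v' t → (∃ z, z0 ≤ z ∧ z ≤ z0 + ρ ∧
          |dt (e (v' t) 1) ((L s).pos z - (L t).pos z)| ≤ 4 * (w1 / 2 ^ j) ∧
          θ * w1 ≤ |dt (e (v' t) 1) ((L s).v - (L t).v)| * ρ ∧ G s z ∧ G t z) → R s t) →
      (∀ t ∈ P, ∀ δ : ℝ, w2 ≤ 8 * (δ * w1) → δ ≤ 1 →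
      ((P.filter fun s => v' s = v' t ∧ ∀ z, z0 ≤ z → z ≤ z0 + ρ →
        |dt (e (v' t) 1) ((L s).pos z - (L t).pos z)| ≤ δ * w1).card : ℝ) ≤ W * M * δ ^ (1 + q)) →
      (∀ t ∈ P, ∀ z, z0 ≤ z → z ≤ z0 + ρ →
        |dt (e (v' t) 1) ((L t).pos z - (bb (v' t)).pos z)| ≤ w1) →
      (∀ t ∈ P, M ≤ W * ((P.filter fun s => v' s = v' t).card : ℝ)) →
      (∀ t ∈ P, 4 * ((range (2 ^ (j + 1))).filter fun i : ℕ =>
        ¬ G t (z0 + ρ * ((i : ℝ) / ((2 ^ (j + 1) : ℕ) : ℝ)))).card ≤ 2 ^ (j + 1)) →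
      ∀ Q ⊆ P, P.card ≤ 4 * Q.card → (P.card : ℝ) * M ≤ (2 * W) ^ (C + 12) *
        (((Q ×ˢ Q).filter fun p => v' p.1 = v' p.2 ∧ R p.1 p.2).card : ℝ) := by
    intro v' e bb G R hR ht hm hf hG Q hQ hc
    have h1 := cross_core (bv := bb) hW H.M0 hq hw1 hjw H.ρ0 ht hm hf G hG hθn hθ1 hsm hQ hc
    refine h1.trans ?_
    refine mul_le_mul hl ?_ (by positivity) (by positivity)
    refine Nat.cast_le.2 (card_le_card fun p hp => ?_)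
    rw [mem_filter] at hp ⊢
    obtain ⟨hpQ, hpv, z, hz, hz', hz1, hrest⟩ := hp
    refine ⟨hpQ, hpv, hR _ _ hpv ⟨z, hz, hz', hz1.trans ?_, hrest⟩⟩
    have : 0 < w1 / 2 ^ j := by positivity
    linarith
  constructor
  · exact main u eu bu (GoodI L P v ev w1 M (2 ^ j) B)
      (CrV L P v u ev eu w1 z0 ρ M (2 ^ j) B θ) (fun s t h h' => ⟨h, h'⟩)
      (by rw [← hqm]; exact H.tubeu) (hmU H) H.fu hGv
  · exact main v ev bv (GoodI L P u eu w1 M (2 ^ j) B)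
      (CrV L P u v eu ev w1 z0 ρ M (2 ^ j) B θ) (fun s t h h' => ⟨h, h'⟩)
      (by rw [← hqm]; exact H.tubev) (hmV H) H.fv hGu

open Classical in
/-- small base tilt: all pairs of the classes -/
theorem core_same {qm qp : Fin 3 → ℝ} {L : ℕ → Ln4} {P : Finset ℕ} {u v : ℕ → ℕ}
    {bu bv : ℕ → Ln4} {eu ev : ℕ → Fin 3 → V3} {W M a Y w1 w2 z0 ρ : ℝ}
    (H : TCore qm qp L P u v bu bv eu ev W M a Y w1 w2 z0 ρ) :
    (∀ Q ⊆ P, P.card ≤ 4 * Q.card → (P.card : ℝ) * M ≤ 64 * W *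
      (((Q ×ˢ Q).filter fun p => u p.1 = u p.2 ∧ True).card : ℝ)) ∧
    (∀ Q ⊆ P, P.card ≤ 4 * Q.card → (P.card : ℝ) * M ≤ 64 * W *
      (((Q ×ˢ Q).filter fun p => v p.1 = v p.2 ∧ True).card : ℝ)) :=
  ⟨fun _ hQ hc => same_core H.W1 H.M0 H.fu hQ hc, fun _ hQ hc => same_core H.W1 H.M0 H.fv hQ hc⟩

end Crest.Agent.R136.Cx18
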