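import Crest.Agent.R136.CoreX_18
import Crest.Agent.R136.Gin_524

/-!
# R136, PLAN 2, (C2) complete: `core_cross` without hypothesis on good incidences (helper18)
-/

set_option autoImplicit false
set_option linter.unusedVariables false

open Finset

namespace Crest.Agent.R136.Cx18

open Crest.Agent.R136.Sh605 Crest.Agent.R136.Fl808 Crest.Agent.R136.Pl2
open Crest.Agent.R136.Cmd113

open Classical in
/-- **(C2)** : crossing pairs, all constants. -/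
theorem core_cr {q : ℝ} (hq : 0 < q) : ∃ C : ℝ, 0 ≤ C ∧
    ∀ (qm qp : Fin 3 → ℝ) (L : ℕ → Ln4) (P : Finset ℕ) (u v : ℕ → ℕ) (bu bv : ℕ → Ln4)
      (eu ev : ℕ → Fin 3 → V3) (W M a Y w1 w2 z0 ρ B : ℝ) (j : ℕ), qm 1 = q →
      TCore qm qp L P u v bu bv eu ev W M a Y w1 w2 z0 ρ → 2 ^ j * w2 ≤ 2 * w1 →
      (2 * W) ^ C ≤ 2 ^ j → Gin524.Kq q * W ^ 2 ≤ B →
      (∀ Q ⊆ P, P.card ≤ 4 * Q.card → (P.card : ℝ) * M ≤ (2 * W) ^ (C + 12) *
        (((Q ×ˢ Q).filter fun p => u p.1 = u p.2 ∧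
          CrV L P v u ev eu w1 z0 ρ M (2 ^ j) B ((2 * W) ^ (-C)) p.1 p.2).card : ℝ)) ∧
      (∀ Q ⊆ P, P.card ≤ 4 * Q.card → (P.card : ℝ) * M ≤ (2 * W) ^ (C + 12) *
        (((Q ×ˢ Q).filter fun p => v p.1 = v p.2 ∧
          CrV L P u v eu ev w1 z0 ρ M (2 ^ j) B ((2 * W) ^ (-C)) p.1 p.2).card : ℝ)) := by
  obtain ⟨C, hC, h⟩ := core_cross hq
  refine ⟨C, hC, ?_⟩
  intro qm qp L P u v bu bv eu ev W M a Y w1 w2 z0 ρ B j hqm H hjw hj hB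
  have hq' : 0 < qm 1 := by rw [hqm]; exact hq
  have hB' : Gin524.Kq (qm 1) * W ^ 2 ≤ B := by rw [hqm]; exact hB
  exact h qm qp L P u v bu bv eu ev W M a Y w1 w2 z0 ρ B j hqm H hjw hj
    (fun t ht => Gin524.good_u H hq' hjw (Nat.le_succ j) hB' t ht)
    (fun t ht => Gin524.good_v H hq' hjw (Nat.le_succ j) hB' t ht)

end Crest.Agent.R136.Cx18
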