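import Crest.Agent.R136.Fn1_880
import Crest.Agent.R136.Cap3_102

/-!
# R136 (U5 TILT, curved), seam (C3): passage of `kap` and `det3 (fan ..)` to a sub-cell (helper565)

The expansion `(b0, b1, G)` of a sheet around a line over `[z0, z0 + ρ]` gives the expansion
`(b0 + ζ₁ b1, l b1, G)` over `[z0 + ρ ζ₁, z0 + ρ ζ₁ + ρ l]`.  We bound the curvature extent and the
determinant of the fan of the second one by those of the first one.
-/

set_option autoImplicit false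
set_option linter.unusedVariables false

namespace Crest.Agent.R136.Cpp565

open Crest.Agent.R136.Sh605 Crest.Agent.R136.Tl102
open Crest.Agent.R136.Arc880 (det3 abs_mul_le abs_add2 abs_sub2)

/-- constant part of the expansion over the sub-cell -/
def sub0 (b0 b1 : V3) (ζ₁ : ℝ) : V3 := fun k => b0 k + ζ₁ * b1 k

/-- rotation part of the expansion over the sub-cell -/
def sub1 (b1 : V3) (l : ℝ) : V3 := fun k => l * b1 k

theorem Fq_sub (b0 b1 : V3) (G : QF) (ζ₁ l ζ : ℝ) (x : V3) :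
    Fq (sub0 b0 b1 ζ₁) (sub1 b1 l) G ζ x = Fq b0 b1 G (ζ₁ + l * ζ) x := by
  simp only [Fq, dt, bz, sub0, sub1]
  ring

/-- **expansion over a sub-cell** -/
theorem isExp_sub {q : ℝ → V3 → ℝ} {e : Fin 3 → V3} {w : V3} {T : Ln4} {z0 ρ : ℝ} {b0 b1 : V3}
    {G : QF} (h : IsExp q e w T z0 ρ b0 b1 G) (ζ₁ l : ℝ) :
    IsExp q e w T (z0 + ρ * ζ₁) (ρ * l) (sub0 b0 b1 ζ₁) (sub1 b1 l) G := by
  intro ζ x
  have e1 : z0 + ρ * ζ₁ + ρ * l * ζ = z0 + ρ * (ζ₁ + l * ζ) := by ring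
  rw [e1, Fq_sub, h]

/-- the expansion over a sub-cell given by its end points -/
theorem isExp_sub' {q : ℝ → V3 → ℝ} {e : Fin 3 → V3} {w : V3} {T : Ln4} {z0 ρ z1 ρ1 : ℝ}
    {b0 b1 : V3} {G : QF} (h : IsExp q e w T z0 ρ b0 b1 G) (hρ : 0 < ρ) :
    IsExp q e w T z1 ρ1 (sub0 b0 b1 ((z1 - z0) / ρ)) (sub1 b1 (ρ1 / ρ)) G := by
  have h1 := isExp_sub h ((z1 - z0) / ρ) (ρ1 / ρ)
  rw [mul_div_cancel₀ _ hρ.ne', mul_div_cancel₀ _ hρ.ne'] at h1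
  have e1 : z0 + (z1 - z0) = z1 := by ring
  rwa [e1] at h1

/-- normalisation over the sub-cell -/
theorem nrmC_sub {b0 b1 : V3} {G : QF} (N : NrmC b0 b1 G) {ζ₁ l : ℝ} (h0 : 0 ≤ ζ₁) (hl : 0 ≤ l)
    (h1 : ζ₁ + l ≤ 1) : NrmC (sub0 b0 b1 ζ₁) (sub1 b1 l) G := by
  have lat : ∀ k, |b0 k| ≤ 1 → |b0 k + b1 k| ≤ 1 → ∀ t, 0 ≤ t → t ≤ 1 → |b0 k + t * b1 k| ≤ 1 := by
    intro k e1 e2 t ht ht'
    have e3 : b0 k + t * b1 k = (1 - t) * b0 k + t * (b0 k + b1 k) := by ring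
    rw [e3]
    refine (abs_add_le _ _).trans ?_
    rw [abs_mul, abs_mul, abs_of_nonneg (by linarith only [ht'] : 0 ≤ 1 - t), abs_of_nonneg ht]
    nlinarith only [e1, e2, ht, ht']
  have e4 : ∀ k, sub0 b0 b1 ζ₁ k + sub1 b1 l k = b0 k + (ζ₁ + l) * b1 k := by
    intro k; simp only [sub0, sub1]; ring
  refine ⟨?_, ?_, ?_, ?_, ?_, N.G_le⟩
  · intro ζ hζ hζ' σ u v hσ hu hv
    have h2 : 0 ≤ l * ζ := mul_nonneg hl hζ
    have h3 : l * ζ ≤ l * 1 := mul_le_mul_of_nonneg_left hζ' hl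
    have := N.st (ζ₁ + l * ζ) (by linarith) (by linarith) σ u v hσ hu hv
    have e5 : sub0 b0 b1 ζ₁ 0 + ζ * sub1 b1 l 0 = b0 0 + (ζ₁ + l * ζ) * b1 0 := by
      simp only [sub0, sub1]; ring
    rw [e5]; exact this
  · exact lat 1 N.b01 N.b11 ζ₁ h0 (by linarith)
  · exact lat 2 N.b02 N.b12 ζ₁ h0 (by linarith)
  · rw [e4]; exact lat 1 N.b01 N.b11 _ (by linarith) h1
  · rw [e4]; exact lat 2 N.b02 N.b12 _ (by linarith) h1

/-- slopes at an intermediate height -/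
theorem slope_sub {b0 b1 : V3} {G : QF} (N : NrmC b0 b1 G) {ζ₁ : ℝ} (h0 : 0 ≤ ζ₁) (h1 : ζ₁ ≤ 1)
    (k : Fin 3) (hk : |b0 k| ≤ 1) (hk' : |b0 k + b1 k| ≤ 1) :
    sub0 b0 b1 ζ₁ k / sub0 b0 b1 ζ₁ 0 - b0 k / b0 0 =
        ζ₁ / sub0 b0 b1 ζ₁ 0 * (b1 k - b0 k / b0 0 * b1 0) ∧
      |sub0 b0 b1 ζ₁ k / sub0 b0 b1 ζ₁ 0| ≤ 2 ∧ 1 / 2 ≤ sub0 b0 b1 ζ₁ 0 ∧
      sub0 b0 b1 ζ₁ 0 ≤ 2 := by
  have a0 : |(0 : ℝ)| ≤ 1 := by norm_num
  have hg := N.st ζ₁ h0 h1 0 0 0 a0 a0 a0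
  have hg0 := N.st 0 le_rfl zero_le_one 0 0 0 a0 a0 a0
  simp only [mul_zero, add_zero, zero_mul] at hg hg0
  have gp : sub0 b0 b1 ζ₁ 0 ≠ 0 := by
    have : (0 : ℝ) < b0 0 + ζ₁ * b1 0 := by linarith only [hg.1]
    exact this.ne'
  have gp0 : b0 0 ≠ 0 := by
    have : (0 : ℝ) < b0 0 := by linarith only [hg0.1]
    exact this.ne'
  refine ⟨?_, ?_, hg.1, hg.2⟩
  · rw [div_sub_div _ _ gp gp0, div_mul_eq_mul_div, div_eq_div_iff (mul_ne_zero gp gp0) gp]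
    have e1 : b0 k / b0 0 * b1 0 = b0 k * b1 0 / b0 0 := by ring
    rw [e1, mul_sub, mul_div_assoc']
    have e2 : (ζ₁ * b1 k - ζ₁ * (b0 k * b1 0) / b0 0) * (sub0 b0 b1 ζ₁ 0 * b0 0) =
        (ζ₁ * b1 k * b0 0 - ζ₁ * (b0 k * b1 0)) * sub0 b0 b1 ζ₁ 0 := by
      have : ζ₁ * (b0 k * b1 0) / b0 0 * b0 0 = ζ₁ * (b0 k * b1 0) := div_mul_cancel₀ _ gp0
      linear_combination (-(sub0 b0 b1 ζ₁ 0)) * this
    rw [e2]
    simp only [sub0]
    ring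
  · have hp : (0 : ℝ) < sub0 b0 b1 ζ₁ 0 := lt_of_lt_of_le (by norm_num) hg.1
    rw [abs_div, abs_of_pos hp, div_le_iff₀ hp]
    have e3 : sub0 b0 b1 ζ₁ k = (1 - ζ₁) * b0 k + ζ₁ * (b0 k + b1 k) := by
      simp only [sub0]; ring
    have e4 : |sub0 b0 b1 ζ₁ k| ≤ 1 := by
      rw [e3]
      refine (abs_add_le _ _).trans ?_
      rw [abs_mul, abs_mul, abs_of_nonneg (by linarith only [h1] : 0 ≤ 1 - ζ₁), abs_of_nonneg h0]
      nlinarith only [hk, hk', h0, h1]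
    have : (1 : ℝ) ≤ 2 * sub0 b0 b1 ζ₁ 0 := by
      have := hg.1
      change 1 / 2 ≤ sub0 b0 b1 ζ₁ 0 at this
      linarith only [this]
    exact e4.trans this

/-- **curvature extent over a sub-cell** : upper and lower bound -/
theorem kap_sub {b0 b1 : V3} {G : QF} (N : NrmC b0 b1 G) {ζ₁ l : ℝ} (h0 : 0 ≤ ζ₁) (h1 : ζ₁ ≤ 1)
    (hl : 0 < l) (hl1 : l ≤ 1) :
    kap (sub0 b0 b1 ζ₁) (sub1 b1 l) G ≤ 21 * kap b0 b1 G ∧
      l * kap b0 b1 G ≤ 81 * kap (sub0 b0 b1 ζ₁) (sub1 b1 l) G := by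
  obtain ⟨d1, s1', g1, g2⟩ := slope_sub N h0 h1 1 N.b01 N.b11
  obtain ⟨d2, s2', -, -⟩ := slope_sub N h0 h1 2 N.b02 N.b12
  obtain ⟨p1, p2, -, -, -, -, -, s1, s2⟩ := N.b1_le
  obtain ⟨m1, m2, m3, m4, m5, m6⟩ := N.G_le
  have gp : (0 : ℝ) < sub0 b0 b1 ζ₁ 0 := lt_of_lt_of_le (by norm_num) g1
  have pp : (0 : ℝ) < b0 0 := lt_of_lt_of_le (by norm_num) p1
  set g := sub0 b0 b1 ζ₁ 0 with hgd
  set S1 := sub0 b0 b1 ζ₁ 1 / g with hS1
  set S2 := sub0 b0 b1 ζ₁ 2 / g with hS2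
  set t1 := b0 1 / b0 0 with ht1
  set t2 := b0 2 / b0 0 with ht2
  -- rotation part
  have r1 : shB1 (sub0 b0 b1 ζ₁) (sub1 b1 l) 1 = l * (b0 0 / g) * shB1 b0 b1 1 := by
    change l * b1 1 - S1 * (l * b1 0) = l * (b0 0 / g) * (b1 1 - t1 * b1 0)
    have e1 : S1 = t1 + ζ₁ / g * (b1 1 - t1 * b1 0) := by linarith only [d1]
    have e2 : b0 0 / g = 1 - ζ₁ / g * b1 0 := by
      have : g = b0 0 + ζ₁ * b1 0 := rfl
      rw [eq_sub_iff_add_eq, div_mul_eq_mul_div, ← add_div, ← this, div_self gp.ne']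
    rw [e1, e2]; ring
  have r2 : shB1 (sub0 b0 b1 ζ₁) (sub1 b1 l) 2 = l * (b0 0 / g) * shB1 b0 b1 2 := by
    change l * b1 2 - S2 * (l * b1 0) = l * (b0 0 / g) * (b1 2 - t2 * b1 0)
    have e1 : S2 = t2 + ζ₁ / g * (b1 2 - t2 * b1 0) := by linarith only [d2]
    have e2 : b0 0 / g = 1 - ζ₁ / g * b1 0 := by
      have : g = b0 0 + ζ₁ * b1 0 := rfl
      rw [eq_sub_iff_add_eq, div_mul_eq_mul_div, ← add_div, ← this, div_self gp.ne']
    rw [e1, e2]; ring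
  have hr4 : b0 0 / g ≤ 4 := by rw [div_le_iff₀ gp]; linarith only [g1, p2]
  have hr4' : 1 / 4 ≤ b0 0 / g := by rw [le_div_iff₀ gp]; linarith only [g2, p1]
  -- change of the slopes
  have D : ∀ {S t h : ℝ}, S - t = ζ₁ / g * h → |S - t| ≤ 2 * |h| := by
    intro S t h e
    rw [e, abs_mul, abs_of_nonneg (div_nonneg h0 gp.le)]
    refine mul_le_mul_of_nonneg_right ?_ (abs_nonneg _)
    rw [div_le_iff₀ gp]; linarith only [g1, h1]
  have D1 : |S1 - t1| ≤ 2 * |shB1 b0 b1 1| := D d1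
  have D2 : |S2 - t2| ≤ 2 * |shB1 b0 b1 2| := D d2
  -- second order part
  have q1 : |(shG (sub0 b0 b1 ζ₁) G).uu - (shG b0 G).uu| ≤ 10 * |shB1 b0 b1 1| := by
    have e1 : (shG (sub0 b0 b1 ζ₁) G).uu - (shG b0 G).uu =
        (S1 - t1) * ((S1 + t1) * G.yy - G.yu) := by
      change G.uu - S1 * G.yu + S1 ^ 2 * G.yy - (G.uu - t1 * G.yu + t1 ^ 2 * G.yy) = _
      ring
    rw [e1, abs_mul]
    have e2 : |(S1 + t1) * G.yy - G.yu| ≤ 5 := by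
      have := abs_sub2 (abs_mul_le (abs_add2 s1' s1) m1) m2
      linarith only [this]
    have := mul_le_mul D1 e2 (abs_nonneg _) (by positivity)
    linarith only [this]
  have q3 : |(shG (sub0 b0 b1 ζ₁) G).vv - (shG b0 G).vv| ≤ 10 * |shB1 b0 b1 2| := by
    have e1 : (shG (sub0 b0 b1 ζ₁) G).vv - (shG b0 G).vv =
        (S2 - t2) * ((S2 + t2) * G.yy - G.yv) := by
      change G.vv - S2 * G.yv + S2 ^ 2 * G.yy - (G.vv - t2 * G.yv + t2 ^ 2 * G.yy) = _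
      ring
    rw [e1, abs_mul]
    have e2 : |(S2 + t2) * G.yy - G.yv| ≤ 5 := by
      have := abs_sub2 (abs_mul_le (abs_add2 s2' s2) m1) m3
      linarith only [this]
    have := mul_le_mul D2 e2 (abs_nonneg _) (by positivity)
    linarith only [this]
  have q2 : |(shG (sub0 b0 b1 ζ₁) G).uv - (shG b0 G).uv| ≤
      10 * |shB1 b0 b1 1| + 10 * |shB1 b0 b1 2| := by
    have e1 : (shG (sub0 b0 b1 ζ₁) G).uv - (shG b0 G).uv =
        (S1 - t1) * (2 * (S2 * G.yy) - G.yv) + (S2 - t2) * (2 * (t1 * G.yy) - G.yu) := by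
      change G.uv - S2 * G.yu - S1 * G.yv + 2 * (S1 * S2) * G.yy -
        (G.uv - t2 * G.yu - t1 * G.yv + 2 * (t1 * t2) * G.yy) = _
      ring
    rw [e1]
    have u2 : |(2 : ℝ)| ≤ 2 := by norm_num
    have e2 : |2 * (S2 * G.yy) - G.yv| ≤ 5 := by
      have := abs_sub2 (abs_mul_le u2 (abs_mul_le s2' m1)) m3
      linarith only [this]
    have e3 : |2 * (t1 * G.yy) - G.yu| ≤ 5 := by
      have := abs_sub2 (abs_mul_le u2 (abs_mul_le s1 m1)) m2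
      linarith only [this]
    refine (abs_add_le _ _).trans ?_
    rw [abs_mul, abs_mul]
    have f1 := mul_le_mul D1 e2 (abs_nonneg _) (by positivity)
    have f2 := mul_le_mul D2 e3 (abs_nonneg _) (by positivity)
    linarith only [f1, f2]
  -- the maxima
  set κ := kap b0 b1 G with hκ
  set κ' := kap (sub0 b0 b1 ζ₁) (sub1 b1 l) G with hκ'
  have k0 : 0 ≤ κ := kap_nonneg _ _ _
  have k0' : 0 ≤ κ' := kap_nonneg _ _ _
  have a1 : |shB1 b0 b1 1| ≤ κ := (le_max_left _ _).trans (le_max_left _ _)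
  have a2 : |shB1 b0 b1 2| ≤ κ := (le_max_right _ _).trans (le_max_left _ _)
  have a3 : |(shG b0 G).uu| ≤ κ :=
    (le_max_left _ _).trans ((le_max_left _ _).trans (le_max_right _ _))
  have a4 : |(shG b0 G).uv| ≤ κ :=
    (le_max_right _ _).trans ((le_max_left _ _).trans (le_max_right _ _))
  have a5 : |(shG b0 G).vv| ≤ κ := (le_max_right _ _).trans (le_max_right _ _)
  have c1 : |shB1 (sub0 b0 b1 ζ₁) (sub1 b1 l) 1| ≤ κ' :=
    (le_max_left _ _).trans (le_max_left _ _)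
  have c2 : |shB1 (sub0 b0 b1 ζ₁) (sub1 b1 l) 2| ≤ κ' :=
    (le_max_right _ _).trans (le_max_left _ _)
  have c3 : |(shG (sub0 b0 b1 ζ₁) G).uu| ≤ κ' :=
    (le_max_left _ _).trans ((le_max_left _ _).trans (le_max_right _ _))
  have c4 : |(shG (sub0 b0 b1 ζ₁) G).uv| ≤ κ' :=
    (le_max_right _ _).trans ((le_max_left _ _).trans (le_max_right _ _))
  have c5 : |(shG (sub0 b0 b1 ζ₁) G).vv| ≤ κ' := (le_max_right _ _).trans (le_max_right _ _)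
  have rot : ∀ {x y : ℝ}, y = l * (b0 0 / g) * x → |y| ≤ 4 * |x| ∧ l * |x| ≤ 4 * |y| := by
    intro x y e
    have e1 : |y| = l * (b0 0 / g) * |x| := by
      rw [e, abs_mul, abs_of_nonneg (mul_nonneg hl.le (div_nonneg pp.le gp.le))]
    have hx := abs_nonneg x
    have f1 : l * (b0 0 / g) ≤ 1 * 4 := mul_le_mul hl1 hr4 (div_nonneg pp.le gp.le) zero_le_one
    have f2 : l * (1 / 4) ≤ l * (b0 0 / g) := mul_le_mul_of_nonneg_left hr4' hl.le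
    rw [e1]
    constructor
    · have := mul_le_mul_of_nonneg_right f1 hx
      linarith only [this]
    · have := mul_le_mul_of_nonneg_right f2 hx
      linarith only [this]
  obtain ⟨x1, y1⟩ := rot r1
  obtain ⟨x2, y2⟩ := rot r2
  have tri : ∀ {x y B : ℝ}, |x - y| ≤ B → |x| ≤ |y| + B ∧ |y| ≤ |x| + B := by
    intro x y B h
    have h1 := abs_sub_abs_le_abs_sub x y
    have h2 := abs_sub_abs_le_abs_sub y x
    rw [abs_sub_comm y x] at h2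
    constructor
    · linarith only [h, h1]
    · linarith only [h, h2]
  obtain ⟨v1, w1⟩ := tri q1
  obtain ⟨v2, w2⟩ := tri q2
  obtain ⟨v3, w3⟩ := tri q3
  constructor
  · refine max_le (max_le ?_ ?_) (max_le (max_le ?_ ?_) ?_)
    · linarith only [x1, a1, k0]
    · linarith only [x2, a2, k0]
    · linarith only [v1, a1, a3, k0]
    · linarith only [v2, a1, a2, a4, k0]
    · linarith only [v3, a2, a5, k0]
  · have hlk : l * κ' ≤ 1 * κ' := mul_le_mul_of_nonneg_right hl1 k0'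
    have mulmax : ∀ {x : ℝ}, l * x ≤ 81 * κ' → x ≤ 81 * κ' / l := by
      intro x h
      rw [le_div_iff₀ hl]; linarith only [h]
    have fin : κ ≤ 81 * κ' / l := by
      refine max_le (max_le ?_ ?_) (max_le (max_le ?_ ?_) ?_) <;> apply mulmax
      · linarith only [y1, c1, k0']
      · linarith only [y2, c2, k0']
      · have := mul_le_mul_of_nonneg_left w1 hl.le
        have f2 := mul_le_mul_of_nonneg_left c3 hl.le
        linarith only [this, f2, hlk, y1, c1, k0']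
      · have := mul_le_mul_of_nonneg_left w2 hl.le
        have f2 := mul_le_mul_of_nonneg_left c4 hl.le
        linarith only [this, f2, hlk, y1, y2, c1, c2, k0']
      · have := mul_le_mul_of_nonneg_left w3 hl.le
        have f2 := mul_le_mul_of_nonneg_left c5 hl.le
        linarith only [this, f2, hlk, y2, c2, k0']
    rw [le_div_iff₀ hl] at fin
    linarith only [fin]

/-- slopes of the lift over the sub-cell -/
theorem slp_sub (b0 b1 : V3) (ζ₁ l ζ : ℝ) (k : Fin 3) :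
    slp (sub0 b0 b1 ζ₁) (sub1 b1 l) k ζ = slp b0 b1 k (ζ₁ + l * ζ) := by
  have e : ∀ j, sub0 b0 b1 ζ₁ j + ζ * sub1 b1 l j = b0 j + (ζ₁ + l * ζ) * b1 j := by
    intro j; simp only [sub0, sub1]; ring
  unfold slp
  rw [e, e]

/-- **determinant of the fan over a sub-cell** -/
theorem det3_sub (b0 b1 : V3) (G : QF) (ζ₁ l ζ : ℝ) :
    det3 (fan (sub0 b0 b1 ζ₁) (sub1 b1 l) G ζ) = l ^ 2 * det3 (fan b0 b1 G (ζ₁ + l * ζ)) := by
  unfold det3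
  simp only [fan, Matrix.cons_val, slp_sub, sub1]
  ring

/-- **(C3)** nondegeneracy passes to the sub-cell, with the loss `l ^ 2 / 9261` -/
theorem nondeg_sub {b0 b1 : V3} {G : QF} (N : NrmC b0 b1 G) (hκ : 0 < kap b0 b1 G) {ζ₁ l κd : ℝ}
    (h0 : 0 ≤ ζ₁) (hl : 0 < l) (h1 : ζ₁ + l ≤ 1)
    (hnd : ∀ ζ, 0 ≤ ζ → ζ ≤ 1 →
      κd ≤ |det3 (fan (shB0 b0) (scB1 (kap b0 b1 G) b0 b1) (scG (kap b0 b1 G) b0 G) ζ)|)
    (hκd : 0 ≤ κd) :
    0 < kap (sub0 b0 b1 ζ₁) (sub1 b1 l) G ∧ ∀ ζ, 0 ≤ ζ → ζ ≤ 1 →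
      l ^ 2 / 9261 * κd ≤ |det3 (fan (shB0 (sub0 b0 b1 ζ₁))
        (scB1 (kap (sub0 b0 b1 ζ₁) (sub1 b1 l) G) (sub0 b0 b1 ζ₁) (sub1 b1 l))
        (scG (kap (sub0 b0 b1 ζ₁) (sub1 b1 l) G) (sub0 b0 b1 ζ₁) G) ζ)| := by
  obtain ⟨K1, K2⟩ := kap_sub N h0 (by linarith : ζ₁ ≤ 1) hl (by linarith : l ≤ 1)
  have N' := nrmC_sub N h0 hl.le h1
  set κ := kap b0 b1 G with hκ'
  set κ' := kap (sub0 b0 b1 ζ₁) (sub1 b1 l) G with hκ''
  have hp : 0 < κ' := by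
    have : 0 < l * κ := mul_pos hl hκ
    linarith only [this, K2]
  refine ⟨hp, fun ζ hζ hζ' => ?_⟩
  have a0 : |(0 : ℝ)| ≤ 1 := by norm_num
  have ne : ∀ {c0 c1 : V3} {H : QF}, NrmC c0 c1 H → ∀ ζ, 0 ≤ ζ → ζ ≤ 1 → c0 0 + ζ * c1 0 ≠ 0 := by
    intro c0 c1 H M ζ h h'
    have := M.st ζ h h' 0 0 0 a0 a0 a0
    simp only [mul_zero, add_zero] at this
    exact ne_of_gt (by linarith only [this.1])
  have n1 := ne N' ζ hζ hζ'
  have n2 := ne N' 0 le_rfl zero_le_one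
  rw [zero_mul, add_zero] at n2
  have m1 : 0 ≤ ζ₁ + l * ζ := add_nonneg h0 (mul_nonneg hl.le hζ)
  have m2 : ζ₁ + l * ζ ≤ 1 := by
    have := mul_le_mul_of_nonneg_left hζ' hl.le
    linarith only [this, h1]
  have n3 := ne N (ζ₁ + l * ζ) m1 m2
  have n4 := ne N 0 le_rfl zero_le_one
  rw [zero_mul, add_zero] at n4
  have h2 := hnd _ m1 m2
  rw [Fn880.det3_scaled n4 n3 hκ.ne', abs_div, abs_of_pos (pow_pos hκ 3),
    le_div_iff₀ (pow_pos hκ 3)] at h2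
  rw [Fn880.det3_scaled n2 n1 hp.ne', det3_sub, abs_div, abs_of_pos (pow_pos hp 3),
    le_div_iff₀ (pow_pos hp 3), abs_mul, abs_of_nonneg (sq_nonneg l)]
  have h3 : κ' ^ 3 ≤ (21 * κ) ^ 3 := pow_le_pow_left₀ hp.le K1 3
  have h4 : l ^ 2 / 9261 * κd * κ' ^ 3 ≤ l ^ 2 / 9261 * κd * (21 * κ) ^ 3 :=
    mul_le_mul_of_nonneg_left h3 (by positivity)
  have h5 : l ^ 2 / 9261 * κd * (21 * κ) ^ 3 = l ^ 2 * (κd * κ ^ 3) := by ring
  rw [h5] at h4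
  exact h4.trans (mul_le_mul_of_nonneg_left h2 (sq_nonneg l))

end Crest.Agent.R136.Cpp565
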