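import Crest.Agent.R136.Cap3_102
import Crest.Agent.R136.Fl1_808

/-!
# R136 (U5 TILT, curved), seam (C2): captured lines in the frames of the two sheets (helper565)

* `near_cap`  : a line of the sheet captured by `T` is tangent to the sheet at `T`;
* `area_pass` : transversality (areas of the lateral velocities) passes from the frame `(e', w')`
  to the frame `(e, w)` of the sheet;
* `rp_pass`   : the capture in the frame of `S` gives the capture in the frame of `S'`;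
* `vel_pass`  : closeness of lateral velocities passes from the frame of `S'` to the frame of `S`;
* `balls_pass`: three balls of velocities in the frame of `S'` give three balls in the frame of `S`.
-/

set_option autoImplicit false
set_option linter.unusedVariables false

namespace Crest.Agent.R136.Cpp565

open Crest.Agent.R136.Sh605 Crest.Agent.R136.Tl102
open Crest.Agent.R136.Arc880 (abs_mul_le abs_add2 abs_sub2)
open Crest.Agent.R136.Fl808 (dt_expand abs_dt_le_one)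

/-- relative positions of two lines of the sheet -/
theorem rp_le_two {e : Fin 3 → V3} {c : Ln4} {w : V3} {q : ℝ → V3 → ℝ} {z0 ρ a : ℝ}
    (hw : ∀ i, 0 < w i) (hρ : 0 ≤ ρ) {T L : Ln4} (hT : InSheet T e c w q a z0 ρ)
    (hL : InSheet L e c w q a z0 ρ) {ζ : ℝ} (hζ : 0 ≤ ζ) (hζ' : ζ ≤ 1) (k : Fin 3) :
    |rp e w z0 ρ T L ζ k| ≤ 2 := by
  have z1 : z0 ≤ z0 + ρ * ζ := by nlinarith
  have z2 : z0 + ρ * ζ ≤ z0 + ρ := by nlinarith
  have k1 := (hL _ z1 z2).1 k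
  have k2 := (hT _ z1 z2).1 k
  have hwk := hw k
  have e1 : dt (e k) (L.pos (z0 + ρ * ζ) - T.pos (z0 + ρ * ζ)) =
      dt (e k) (L.pos (z0 + ρ * ζ) - c.pos (z0 + ρ * ζ)) -
        dt (e k) (T.pos (z0 + ρ * ζ) - c.pos (z0 + ρ * ζ)) := by
    rw [dt_sub, dt_sub, dt_sub]; ring
  change |dt (e k) (L.pos (z0 + ρ * ζ) - T.pos (z0 + ρ * ζ)) / w k| ≤ 2
  rw [abs_div, abs_of_pos hwk, div_le_iff₀ hwk, e1]
  exact (abs_sub _ _).trans (by linarith)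

theorem vel_le_four {e : Fin 3 → V3} {c : Ln4} {w : V3} {q : ℝ → V3 → ℝ} {z0 ρ a : ℝ}
    (hw : ∀ i, 0 < w i) (hρ : 0 ≤ ρ) {T L : Ln4} (hT : InSheet T e c w q a z0 ρ)
    (hL : InSheet L e c w q a z0 ρ) (k : Fin 3) : |vel e w ρ T L k| ≤ 4 := by
  have e1 := rp_affine e w z0 ρ T L 0 1 k
  have e2 : vel e w ρ T L k = rp e w z0 ρ T L 1 k - rp e w z0 ρ T L 0 k := by
    rw [e1]; ring
  rw [e2]
  refine (abs_sub _ _).trans ?_
  have := rp_le_two hw hρ hT hL zero_le_one le_rfl k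
  have := rp_le_two hw hρ hT hL le_rfl zero_le_one k
  linarith

/-- **a captured line is tangent to the sheet** -/
theorem near_cap {e : Fin 3 → V3} {c : Ln4} {w : V3} {q : ℝ → V3 → ℝ} {z0 ρ a : ℝ}
    (S : StP e c w q z0 ρ) (hρ : 0 ≤ ρ) {T L : Ln4} (hT : InSheet T e c w q a z0 ρ)
    (hL : InSheet L e c w q a z0 ρ) {b0 b1 : V3} {G : QF} (hE : IsExp q e w T z0 ρ b0 b1 G)
    {s r : ℝ} (hs : 0 ≤ s) (hs' : s ≤ 1) (hr : r ≤ 1 / 8)
    (h1 : |rp e w z0 ρ T L s 1| ≤ r) (h2 : |rp e w z0 ρ T L s 2| ≤ r) :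
    |rp e w z0 ρ T L s 0| ≤ 69 * r + 4 * (a / w 0) ∧
      |dt (bz b0 b1 s) (vel e w ρ T L)| ≤ 4000 * (r + a / w 0) := by
  have hTK : ∀ z, z0 ≤ z → z ≤ z0 + ρ → InK e c w z (T.pos z) := fun z h1 h2 => (hT z h1 h2).1
  have N := hE.nrmC S hρ hTK
  obtain ⟨g1, g2, g3, g4, g5, g6, g7, s1, s2⟩ := N.b1_le
  have hw0 := S.pos 0
  have hwne : ∀ i, w i ≠ 0 := fun i => (S.pos i).ne'
  have hr0 : 0 ≤ r := (abs_nonneg _).trans h1
  have ha : 0 ≤ a := (abs_nonneg _).trans (hT z0 le_rfl (by linarith)).2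
  set A := a / w 0 with hAd
  have hA0 : 0 ≤ A := by positivity
  have haA : a = A * w 0 := by rw [hAd, div_mul_cancel₀ _ hw0.ne']
  have hz : ∀ ζ, 0 ≤ ζ → ζ ≤ 1 → z0 ≤ z0 + ρ * ζ ∧ z0 + ρ * ζ ≤ z0 + ρ := by
    intro ζ h1 h2
    constructor
    · nlinarith
    · nlinarith
  have D0 : |rp e w z0 ρ T L s 0| ≤ 69 * r + 4 * A := by
    obtain ⟨z1, z2⟩ := hz s hs hs'
    have := yc_le S hρ hTK hE hs hs' (hL _ z1 z2).1 hr h1 h2
    have q1 := (hL _ z1 z2).2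
    have q2 := (hT _ z1 z2).2
    have hk := kap_le N
    have h3 : w 0 * |yc b0 (rp e w z0 ρ T L s)| ≤ w 0 * (4 * A + 65 * r) := by
      have h4 : 5 * r * (w 0 * kap b0 b1 G) ≤ 5 * r * (w 0 * 13) := by gcongr
      have e1 : w 0 * (4 * A + 65 * r) = 2 * (a + a) + 5 * r * (w 0 * 13) := by rw [haA]; ring
      rw [e1]
      exact this.trans (add_le_add (by linarith) h4)
    have h5 : |yc b0 (rp e w z0 ρ T L s)| ≤ 4 * A + 65 * r := le_of_mul_le_mul_left h3 hw0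
    have e2 : rp e w z0 ρ T L s 0 = yc b0 (rp e w z0 ρ T L s) -
        b0 1 / b0 0 * rp e w z0 ρ T L s 1 - b0 2 / b0 0 * rp e w z0 ρ T L s 2 := by
      unfold yc; ring
    rw [e2]
    have := abs_sub2 (abs_sub2 h5 (abs_mul_le s1 h1)) (abs_mul_le s2 h2)
    linarith only [this]
  refine ⟨D0, ?_⟩
  have hF : ∀ z, 0 ≤ z → z ≤ 1 →
      |Fq b0 b1 G z (pos (rp e w z0 ρ T L s) (vel e w ρ T L) s z)| ≤ 2 * A := by
    intro z hz1 hz2
    obtain ⟨z1, z2⟩ := hz z hz1 hz2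
    have e1 : pos (rp e w z0 ρ T L s) (vel e w ρ T L) s z = rp e w z0 ρ T L z := by
      funext k
      rw [rp_affine e w z0 ρ T L s z k]
      rfl
    rw [e1]
    have h3 := hE z (rp e w z0 ρ T L z)
    have e2 : T.pos (z0 + ρ * z) + Tl102.cmb (fr e w) (rp e w z0 ρ T L z) =
        L.pos (z0 + ρ * z) := cmb_pc S.ortho hwne T _ _
    rw [e2] at h3
    have q1 := (hL _ z1 z2).2
    have q2 := (hT _ z1 z2).2
    have h4 : w 0 * |Fq b0 b1 G z (rp e w z0 ρ T L z)| ≤ w 0 * (2 * A) := by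
      rw [← abs_of_pos hw0, ← abs_mul, abs_of_pos hw0]
      have e3 : w 0 * Fq b0 b1 G z (rp e w z0 ρ T L z) =
          q (z0 + ρ * z) (L.pos (z0 + ρ * z)) - q (z0 + ρ * z) (T.pos (z0 + ρ * z)) := by
        rw [h3]; ring
      rw [e3]
      refine (abs_sub _ _).trans ?_
      have : w 0 * (2 * A) = a + a := by rw [haA]; ring
      linarith
    exact le_of_mul_le_mul_left h4 hw0
  have hD : ∀ k, |rp e w z0 ρ T L s k| ≤ 69 * r + 4 * A := by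
    intro k
    fin_cases k
    · exact D0
    · exact h1.trans (by linarith)
    · exact h2.trans (by linarith)
  have hb : ∀ k, |b1 k| ≤ 2 := by
    intro k
    fin_cases k
    · exact g5.trans (by norm_num)
    · exact g6
    · exact g7
  have := (line_coef hs hs' hF N.G_le hb hD
    (fun k => vel_le_four S.pos hρ hT hL k)).1
  linarith only [this, hA0, hr0]

/-- components of the tangent covector -/
theorem bz_bd {b0 b1 : V3} {G : QF} (N : NrmC b0 b1 G) {s : ℝ} (hs : 0 ≤ s) (hs' : s ≤ 1) :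
    1 / 2 ≤ bz b0 b1 s 0 ∧ bz b0 b1 s 0 ≤ 2 ∧ |bz b0 b1 s 1| ≤ 1 ∧ |bz b0 b1 s 2| ≤ 1 := by
  have a0 : |(0 : ℝ)| ≤ 1 := by norm_num
  have hg := N.st s hs hs' 0 0 0 a0 a0 a0
  simp only [mul_zero, add_zero] at hg
  have lat : ∀ k, |b0 k| ≤ 1 → |b0 k + b1 k| ≤ 1 → |b0 k + s * b1 k| ≤ 1 := by
    intro k e1 e2
    have e3 : b0 k + s * b1 k = (1 - s) * b0 k + s * (b0 k + b1 k) := by ring
    rw [e3]
    refine (abs_add_le _ _).trans ?_
    rw [abs_mul, abs_mul, abs_of_nonneg (by linarith only [hs'] : 0 ≤ 1 - s), abs_of_nonneg hs]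
    nlinarith only [e1, e2, hs, hs']
  exact ⟨hg.1, hg.2, lat 1 N.b01 N.b11, lat 2 N.b02 N.b12⟩

/-- algebra: the mixed minors are controlled by the lateral one -/
theorem minor0 {β0 β1 β2 t0 t1 t2 u0 u1 u2 δ : ℝ} (h0 : 1 / 2 ≤ β0) (h2 : |β2| ≤ 1)
    (ht : |β0 * t0 + β1 * t1 + β2 * t2| ≤ δ) (hu : |β0 * u0 + β1 * u1 + β2 * u2| ≤ δ)
    (ht1 : |t1| ≤ 4) (hu1 : |u1| ≤ 4) :
    |t0 * u1 - u0 * t1| ≤ 16 * δ + 2 * |t1 * u2 - u1 * t2| := by
  have e1 : β0 * (t0 * u1 - u0 * t1) = (β0 * t0 + β1 * t1 + β2 * t2) * u1 -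
      (β0 * u0 + β1 * u1 + β2 * u2) * t1 + β2 * (t1 * u2 - u1 * t2) := by ring
  have hp : 0 < β0 := lt_of_lt_of_le (by norm_num) h0
  have h3 : β0 * |t0 * u1 - u0 * t1| ≤ δ * 4 + δ * 4 + 1 * |t1 * u2 - u1 * t2| := by
    have e2 : β0 * |t0 * u1 - u0 * t1| = |β0 * (t0 * u1 - u0 * t1)| := by
      rw [abs_mul, abs_of_pos hp]
    rw [e2, e1]
    exact abs_add2 (abs_sub2 (abs_mul_le ht hu1) (abs_mul_le hu ht1)) (abs_mul_le h2 le_rfl)
  have h4 := mul_le_mul_of_nonneg_right h0 (abs_nonneg (t0 * u1 - u0 * t1))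
  linarith only [h3, h4]

/-- lateral velocities in two frames -/
theorem vel_trans {e e' : Fin 3 → V3} (he : Ortho e) {w w' : V3} (hw : ∀ i, 0 < w i)
    (hw' : ∀ i, 0 < w' i) (ρ : ℝ) (T L : Ln4) (k : Fin 3) :
    w' k * vel e' w' ρ T L k = dt (e' k) (e 0) * (w 0 * vel e w ρ T L 0) +
      dt (e' k) (e 1) * (w 1 * vel e w ρ T L 1) + dt (e' k) (e 2) * (w 2 * vel e w ρ T L 2) := by
  have h : ∀ (f : Fin 3 → V3) (v : V3) (j : Fin 3), 0 < v j →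
      v j * vel f v ρ T L j = ρ * dt (f j) (L.v - T.v) := by
    intro f v j hv
    simp only [vel]
    rw [mul_div_cancel₀ _ hv.ne']
  rw [h e' w' k (hw' k), h e w 0 (hw 0), h e w 1 (hw 1), h e w 2 (hw 2)]
  have := dt_expand he (e' k) (L.v - T.v)
  linear_combination ρ * this

/-- relative positions in two frames -/
theorem rp_trans {e e' : Fin 3 → V3} (he : Ortho e) {w w' : V3} (hw : ∀ i, 0 < w i)
    (hw' : ∀ i, 0 < w' i) (z0 ρ : ℝ) (T L : Ln4) (s : ℝ) (k : Fin 3) :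
    w' k * rp e' w' z0 ρ T L s k = dt (e' k) (e 0) * (w 0 * rp e w z0 ρ T L s 0) +
      dt (e' k) (e 1) * (w 1 * rp e w z0 ρ T L s 1) +
      dt (e' k) (e 2) * (w 2 * rp e w z0 ρ T L s 2) := by
  have h : ∀ (f : Fin 3 → V3) (v : V3) (j : Fin 3), 0 < v j →
      v j * rp f v z0 ρ T L s j = dt (f j) (L.pos (z0 + ρ * s) - T.pos (z0 + ρ * s)) := by
    intro f v j hv
    simp only [rp, pc]
    rw [mul_div_cancel₀ _ hv.ne']
  rw [h e' w' k (hw' k), h e w 0 (hw 0), h e w 1 (hw 1), h e w 2 (hw 2)]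
  exact dt_expand he (e' k) (L.pos (z0 + ρ * s) - T.pos (z0 + ρ * s))

/-- **(C2)(i)**: transversality passes from the frame `(e', w')` to the frame of the sheet:
`area' ≤ B² (10 area + 256000 (r + a / w 0))` -/
theorem area_pass {e : Fin 3 → V3} {c : Ln4} {w : V3} {q : ℝ → V3 → ℝ} {z0 ρ a : ℝ}
    (S : StP e c w q z0 ρ) (hρ : 0 ≤ ρ) (h02 : w 0 ≤ w 2) (h21 : w 2 ≤ w 1) {T L L' : Ln4}
    (hT : InSheet T e c w q a z0 ρ) (hL : InSheet L e c w q a z0 ρ)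
    (hL' : InSheet L' e c w q a z0 ρ) {s r : ℝ} (hs : 0 ≤ s) (hs' : s ≤ 1) (hr : r ≤ 1 / 8)
    (h1 : |rp e w z0 ρ T L s 1| ≤ r) (h2 : |rp e w z0 ρ T L s 2| ≤ r)
    (h1' : |rp e w z0 ρ T L' s 1| ≤ r) (h2' : |rp e w z0 ρ T L' s 2| ≤ r)
    {e' : Fin 3 → V3} (he' : Ortho e') {w' : V3} (hw' : ∀ i, 0 < w' i) {B : ℝ} (hB : 0 ≤ B)
    (hB1 : w 1 ≤ B * w' 1) (hB2 : w 2 ≤ B * w' 2) :
    |vel e' w' ρ T L 1 * vel e' w' ρ T L' 2 - vel e' w' ρ T L' 1 * vel e' w' ρ T L 2| ≤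
      B ^ 2 * (10 * |vel e w ρ T L 1 * vel e w ρ T L' 2 - vel e w ρ T L' 1 * vel e w ρ T L 2| +
        256000 * (r + a / w 0)) := by
  have hTK : ∀ z, z0 ≤ z → z ≤ z0 + ρ → InK e c w z (T.pos z) := fun z h1 h2 => (hT z h1 h2).1
  have hw0 := S.pos 0
  have hw1 := S.pos 1
  have hw2 := S.pos 2
  obtain ⟨b0, b1, G, hE⟩ := exists_isExp S.isQ e hw0.ne' T z0 ρ
  have N := hE.nrmC S hρ hTK
  obtain ⟨β1, -, β2, β3⟩ := bz_bd N hs hs'
  have ct := (near_cap S hρ hT hL hE hs hs' hr h1 h2).2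
  have cu := (near_cap S hρ hT hL' hE hs hs' hr h1' h2').2
  have v4 := vel_le_four S.pos hρ hT hL
  have v4' := vel_le_four S.pos hρ hT hL'
  set t := vel e w ρ T L with ht
  set u := vel e w ρ T L' with hu
  set δ := 4000 * (r + a / w 0) with hδ
  set Ar := |t 1 * u 2 - u 1 * t 2| with hAr
  have hδ0 : 0 ≤ δ := (abs_nonneg _).trans ct
  have hAr0 : 0 ≤ Ar := abs_nonneg _
  have ct' : |bz b0 b1 s 0 * t 0 + bz b0 b1 s 1 * t 1 + bz b0 b1 s 2 * t 2| ≤ δ := ct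
  have cu' : |bz b0 b1 s 0 * u 0 + bz b0 b1 s 1 * u 1 + bz b0 b1 s 2 * u 2| ≤ δ := cu
  have m1 : |t 0 * u 1 - u 0 * t 1| ≤ 16 * δ + 2 * Ar :=
    minor0 β1 β3 ct' cu' (v4 1) (v4' 1)
  have m2 : |t 0 * u 2 - u 0 * t 2| ≤ 16 * δ + 2 * Ar := by
    have ct2 : |bz b0 b1 s 0 * t 0 + bz b0 b1 s 2 * t 2 + bz b0 b1 s 1 * t 1| ≤ δ := by
      rw [add_right_comm]; exact ct'
    have cu2 : |bz b0 b1 s 0 * u 0 + bz b0 b1 s 2 * u 2 + bz b0 b1 s 1 * u 1| ≤ δ := by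
      rw [add_right_comm]; exact cu'
    have := minor0 β1 β2 ct2 cu2 (v4 2) (v4' 2)
    have e1 : |t 2 * u 1 - u 2 * t 1| = Ar := by
      rw [hAr, ← abs_neg]; congr 1; ring
    rwa [e1] at this
  -- transition
  have E1 := vel_trans (e' := e') S.ortho S.pos hw' ρ T L 1
  have E2 := vel_trans (e' := e') S.ortho S.pos hw' ρ T L 2
  have F1 := vel_trans (e' := e') S.ortho S.pos hw' ρ T L' 1
  have F2 := vel_trans (e' := e') S.ortho S.pos hw' ρ T L' 2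
  set t' := vel e' w' ρ T L with ht'
  set u' := vel e' w' ρ T L' with hu'
  rw [← ht] at E1 E2
  rw [← hu] at F1 F2
  have R := fun i j => abs_dt_le_one S.ortho he' i j
  set r10 := dt (e' 1) (e 0) with hr10
  set r11 := dt (e' 1) (e 1) with hr11
  set r12 := dt (e' 1) (e 2) with hr12
  set r20 := dt (e' 2) (e 0) with hr20
  set r21 := dt (e' 2) (e 1) with hr21
  set r22 := dt (e' 2) (e 2) with hr22
  have key : w' 1 * w' 2 * (t' 1 * u' 2 - u' 1 * t' 2) =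
      (r10 * r21 - r11 * r20) * (w 0 * w 1 * (t 0 * u 1 - u 0 * t 1)) +
      (r10 * r22 - r12 * r20) * (w 0 * w 2 * (t 0 * u 2 - u 0 * t 2)) +
      (r11 * r22 - r12 * r21) * (w 1 * w 2 * (t 1 * u 2 - u 1 * t 2)) := by
    have e1 : w' 1 * w' 2 * (t' 1 * u' 2 - u' 1 * t' 2) =
        (w' 1 * t' 1) * (w' 2 * u' 2) - (w' 1 * u' 1) * (w' 2 * t' 2) := by ring
    rw [e1, E1, E2, F1, F2]
    ring
  have mn : ∀ {x y x' y' : ℝ}, |x| ≤ 1 → |y| ≤ 1 → |x'| ≤ 1 → |y'| ≤ 1 →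
      |x * y - x' * y'| ≤ 2 := by
    intro x y x' y' h1 h2 h3 h4
    have := abs_sub2 (abs_mul_le h1 h2) (abs_mul_le h3 h4)
    linarith only [this]
  have W : 0 < w 1 * w 2 := mul_pos hw1 hw2
  have hm : 0 ≤ 16 * δ + 2 * Ar := by positivity
  have W1 : w 0 * w 1 ≤ w 1 * w 2 := by rw [mul_comm (w 0)]; exact mul_le_mul_of_nonneg_left h02 hw1.le
  have W2 : w 0 * w 2 ≤ w 1 * w 2 := mul_le_mul_of_nonneg_right (h02.trans h21) hw2.le
  have T1 : |w 0 * w 1 * (t 0 * u 1 - u 0 * t 1)| ≤ w 1 * w 2 * (16 * δ + 2 * Ar) := by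
    rw [abs_mul, abs_of_pos (mul_pos hw0 hw1)]
    exact mul_le_mul W1 m1 (abs_nonneg _) W.le
  have T2 : |w 0 * w 2 * (t 0 * u 2 - u 0 * t 2)| ≤ w 1 * w 2 * (16 * δ + 2 * Ar) := by
    rw [abs_mul, abs_of_pos (mul_pos hw0 hw2)]
    exact mul_le_mul W2 m2 (abs_nonneg _) W.le
  have T3 : |w 1 * w 2 * (t 1 * u 2 - u 1 * t 2)| ≤ w 1 * w 2 * Ar := by
    rw [abs_mul, abs_of_pos W]
  have big : w' 1 * w' 2 * |t' 1 * u' 2 - u' 1 * t' 2| ≤ w 1 * w 2 * (10 * Ar + 64 * δ) := by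
    have W' : 0 < w' 1 * w' 2 := mul_pos (hw' 1) (hw' 2)
    have e2 : w' 1 * w' 2 * |t' 1 * u' 2 - u' 1 * t' 2| =
        |w' 1 * w' 2 * (t' 1 * u' 2 - u' 1 * t' 2)| := by
      rw [abs_mul, abs_of_pos W']
    rw [e2, key]
    have := abs_add2 (abs_add2 (abs_mul_le (mn (R 1 0) (R 2 1) (R 1 1) (R 2 0)) T1)
      (abs_mul_le (mn (R 1 0) (R 2 2) (R 1 2) (R 2 0)) T2))
      (abs_mul_le (mn (R 1 1) (R 2 2) (R 1 2) (R 2 1)) T3)
    refine this.trans (le_of_eq ?_)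
    ring
  have W' : 0 < w' 1 * w' 2 := mul_pos (hw' 1) (hw' 2)
  have hBB : w 1 * w 2 ≤ w' 1 * w' 2 * B ^ 2 := by
    calc w 1 * w 2 ≤ (B * w' 1) * (B * w' 2) :=
          mul_le_mul hB1 hB2 hw2.le (mul_nonneg hB (hw' 1).le)
      _ = _ := by ring
  have fin : w' 1 * w' 2 * |t' 1 * u' 2 - u' 1 * t' 2| ≤
      w' 1 * w' 2 * (B ^ 2 * (10 * Ar + 64 * δ)) := by
    refine big.trans ?_
    have h64 : 0 ≤ 10 * Ar + 64 * δ := by linarith only [hAr0, hδ0]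
    have := mul_le_mul_of_nonneg_right hBB h64
    refine this.trans (le_of_eq ?_)
    ring
  have := le_of_mul_le_mul_left fin W'
  have e3 : 64 * δ = 256000 * (r + a / w 0) := by rw [hδ]; ring
  rwa [e3] at this

/-- **capture in the other frame** -/
theorem rp_pass {e : Fin 3 → V3} {c : Ln4} {w : V3} {q : ℝ → V3 → ℝ} {z0 ρ a : ℝ}
    (S : StP e c w q z0 ρ) (hρ : 0 ≤ ρ) (h02 : w 0 ≤ w 2) (h21 : w 2 ≤ w 1) {T L : Ln4}
    (hT : InSheet T e c w q a z0 ρ) (hL : InSheet L e c w q a z0 ρ)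
    {s r : ℝ} (hs : 0 ≤ s) (hs' : s ≤ 1) (hr : r ≤ 1 / 8)
    (h1 : |rp e w z0 ρ T L s 1| ≤ r) (h2 : |rp e w z0 ρ T L s 2| ≤ r)
    {e' : Fin 3 → V3} (he' : Ortho e') {w' : V3} (hw' : ∀ i, 0 < w' i) {B lam : ℝ} (hB : 0 ≤ B)
    (hB1 : w 1 ≤ B * w' 1) (hB2 : w 2 ≤ B * w' 2) (hlam : 1 ≤ lam)
    (hang : |dt (e' 2) (e 1)| * w 1 ≤ lam * w 2) :
    |rp e' w' z0 ρ T L s 1| ≤ B * (72 * lam * r + 4 * (a / w 0)) ∧
      |rp e' w' z0 ρ T L s 2| ≤ B * (72 * lam * r + 4 * (a / w 0)) := by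
  have hTK : ∀ z, z0 ≤ z → z ≤ z0 + ρ → InK e c w z (T.pos z) := fun z h1 h2 => (hT z h1 h2).1
  have hw0 := S.pos 0
  have hw1 := S.pos 1
  have hw2 := S.pos 2
  have hr0 : 0 ≤ r := (abs_nonneg _).trans h1
  have ha : 0 ≤ a := (abs_nonneg _).trans (hT z0 le_rfl (by linarith)).2
  obtain ⟨b0, b1, G, hE⟩ := exists_isExp S.isQ e hw0.ne' T z0 ρ
  have c0 := (near_cap S hρ hT hL hE hs hs' hr h1 h2).1
  set A := a / w 0 with hA
  have hA0 : 0 ≤ A := by positivity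
  have R := fun i j => abs_dt_le_one S.ortho he' i j
  have E1 := rp_trans (e' := e') S.ortho S.pos hw' z0 ρ T L s 1
  have E2 := rp_trans (e' := e') S.ortho S.pos hw' z0 ρ T L s 2
  set x := rp e w z0 ρ T L s with hx
  have D0 : |w 0 * x 0| ≤ w 0 * (69 * r + 4 * A) := by
    rw [abs_mul, abs_of_pos hw0]; exact mul_le_mul_of_nonneg_left c0 hw0.le
  have D1 : |w 1 * x 1| ≤ w 1 * r := by
    rw [abs_mul, abs_of_pos hw1]; exact mul_le_mul_of_nonneg_left h1 hw1.le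
  have D2 : |w 2 * x 2| ≤ w 2 * r := by
    rw [abs_mul, abs_of_pos hw2]; exact mul_le_mul_of_nonneg_left h2 hw2.le
  have hc0 : 0 ≤ 69 * r + 4 * A := by positivity
  have hlr : r ≤ lam * r := le_mul_of_one_le_left hr0 hlam
  have hX : 0 ≤ 72 * lam * r + 4 * A := by
    have : 0 ≤ lam * r := hr0.trans hlr
    linarith only [this, hA0]
  constructor
  · have b1 : |w' 1 * rp e' w' z0 ρ T L s 1| ≤ w 1 * (72 * lam * r + 4 * A) := by
      rw [E1]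
      refine (abs_add2 (abs_add2 (abs_mul_le (R 1 0) D0) (abs_mul_le (R 1 1) D1))
        (abs_mul_le (R 1 2) D2)).trans ?_
      have f1 : w 0 * (69 * r + 4 * A) ≤ w 1 * (69 * r + 4 * A) :=
        mul_le_mul_of_nonneg_right (h02.trans h21) hc0
      have f2 : w 2 * r ≤ w 1 * r := mul_le_mul_of_nonneg_right h21 hr0
      have f3 : w 1 * (71 * r + 4 * A) ≤ w 1 * (72 * lam * r + 4 * A) :=
        mul_le_mul_of_nonneg_left (by linarith only [hlr, hr0]) hw1.le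
      linarith only [f1, f2, f3]
    rw [abs_mul, abs_of_pos (hw' 1)] at b1
    have b2 : w 1 * (72 * lam * r + 4 * A) ≤ w' 1 * (B * (72 * lam * r + 4 * A)) := by
      have := mul_le_mul_of_nonneg_right hB1 hX
      linarith only [this]
    exact le_of_mul_le_mul_left (b1.trans b2) (hw' 1)
  · have b1 : |w' 2 * rp e' w' z0 ρ T L s 2| ≤ w 2 * (72 * lam * r + 4 * A) := by
      rw [E2]
      have D1' : |dt (e' 2) (e 1) * (w 1 * x 1)| ≤ lam * w 2 * r := by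
        rw [abs_mul, abs_mul, abs_of_pos hw1, ← mul_assoc]
        exact mul_le_mul hang h1 (abs_nonneg _) (by positivity)
      refine (abs_add2 (abs_add2 (abs_mul_le (R 2 0) D0) D1') (abs_mul_le (R 2 2) D2)).trans ?_
      have f1 : w 0 * (69 * r + 4 * A) ≤ w 2 * (69 * r + 4 * A) :=
        mul_le_mul_of_nonneg_right h02 hc0
      have f3 : w 2 * (70 * r + lam * r + 4 * A) ≤ w 2 * (72 * lam * r + 4 * A) :=
        mul_le_mul_of_nonneg_left (by linarith only [hlr, hr0]) hw2.le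
      linarith only [f1, f3]
    rw [abs_mul, abs_of_pos (hw' 2)] at b1
    have b2 : w 2 * (72 * lam * r + 4 * A) ≤ w' 2 * (B * (72 * lam * r + 4 * A)) := by
      have := mul_le_mul_of_nonneg_right hB2 hX
      linarith only [this]
    exact le_of_mul_le_mul_left (b1.trans b2) (hw' 2)

/-- **(C2)(ii)**, captured in the frame of `S'` : closeness of the lateral velocities passes from
the frame of `S'` to the frame `(e, w)` -/
theorem vel_pass' {e' : Fin 3 → V3} {c' : Ln4} {w' : V3} {q' : ℝ → V3 → ℝ} {z0 ρ a' : ℝ}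
    (S' : StP e' c' w' q' z0 ρ) (hρ : 0 ≤ ρ) (h02 : w' 0 ≤ w' 2) (h21 : w' 2 ≤ w' 1)
    {T L L' : Ln4} (hT : InSheet T e' c' w' q' a' z0 ρ) (hL : InSheet L e' c' w' q' a' z0 ρ)
    (hL' : InSheet L' e' c' w' q' a' z0 ρ) {s r : ℝ} (hs : 0 ≤ s) (hs' : s ≤ 1) (hr : r ≤ 1 / 8)
    (h1 : |rp e' w' z0 ρ T L s 1| ≤ r) (h2 : |rp e' w' z0 ρ T L s 2| ≤ r)
    (h1' : |rp e' w' z0 ρ T L' s 1| ≤ r) (h2' : |rp e' w' z0 ρ T L' s 2| ≤ r)
    {e : Fin 3 → V3} (he : Ortho e) {w : V3} (hw : ∀ i, 0 < w i) {B lam δ : ℝ} (hB : 0 ≤ B)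
    (hB1 : w' 1 ≤ B * w 1) (hB2 : w' 2 ≤ B * w 2) (hlam : 1 ≤ lam)
    (hang : |dt (e 2) (e' 1)| * w 1 ≤ lam * w 2)
    (d1 : |vel e' w' ρ T L 1 - vel e' w' ρ T L' 1| ≤ δ)
    (d2 : |vel e' w' ρ T L 2 - vel e' w' ρ T L' 2| ≤ δ) :
    |vel e w ρ T L 1 - vel e w ρ T L' 1| ≤ B * (7 * lam * δ + 16000 * (r + a' / w' 0)) ∧
      |vel e w ρ T L 2 - vel e w ρ T L' 2| ≤ B * (7 * lam * δ + 16000 * (r + a' / w' 0)) := by
  have hTK : ∀ z, z0 ≤ z → z ≤ z0 + ρ → InK e' c' w' z (T.pos z) :=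
    fun z h1 h2 => (hT z h1 h2).1
  have hw0 := S'.pos 0
  have hw1 := S'.pos 1
  have hw2 := S'.pos 2
  have hδ0 : 0 ≤ δ := (abs_nonneg _).trans d1
  obtain ⟨b0, b1, G, hE⟩ := exists_isExp S'.isQ e' hw0.ne' T z0 ρ
  have N := hE.nrmC S' hρ hTK
  obtain ⟨β1, -, β2, β3⟩ := bz_bd N hs hs'
  have ct := (near_cap S' hρ hT hL hE hs hs' hr h1 h2).2
  have cu := (near_cap S' hρ hT hL' hE hs hs' hr h1' h2').2
  have E1 := vel_trans (e' := e) S'.ortho S'.pos hw ρ T L 1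
  have E2 := vel_trans (e' := e) S'.ortho S'.pos hw ρ T L 2
  have F1 := vel_trans (e' := e) S'.ortho S'.pos hw ρ T L' 1
  have F2 := vel_trans (e' := e) S'.ortho S'.pos hw ρ T L' 2
  have R := fun i j => abs_dt_le_one S'.ortho he i j
  set t := vel e' w' ρ T L with ht
  set u := vel e' w' ρ T L' with hu
  set ε := 4000 * (r + a' / w' 0) with hε
  have hε0 : 0 ≤ ε := (abs_nonneg _).trans ct
  have ct' : |bz b0 b1 s 0 * t 0 + bz b0 b1 s 1 * t 1 + bz b0 b1 s 2 * t 2| ≤ ε := ct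
  have cu' : |bz b0 b1 s 0 * u 0 + bz b0 b1 s 1 * u 1 + bz b0 b1 s 2 * u 2| ≤ ε := cu
  have d0 : |t 0 - u 0| ≤ 4 * δ + 4 * ε := by
    have hp : 0 < bz b0 b1 s 0 := lt_of_lt_of_le (by norm_num) β1
    have e1 : bz b0 b1 s 0 * (t 0 - u 0) =
        (bz b0 b1 s 0 * t 0 + bz b0 b1 s 1 * t 1 + bz b0 b1 s 2 * t 2) -
        (bz b0 b1 s 0 * u 0 + bz b0 b1 s 1 * u 1 + bz b0 b1 s 2 * u 2) -
        bz b0 b1 s 1 * (t 1 - u 1) - bz b0 b1 s 2 * (t 2 - u 2) := by ring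
    have h3 : bz b0 b1 s 0 * |t 0 - u 0| ≤ ε + ε + 1 * δ + 1 * δ := by
      have e2 : bz b0 b1 s 0 * |t 0 - u 0| = |bz b0 b1 s 0 * (t 0 - u 0)| := by
        rw [abs_mul, abs_of_pos hp]
      rw [e2, e1]
      exact abs_sub2 (abs_sub2 (abs_sub2 ct' cu') (abs_mul_le β2 d1)) (abs_mul_le β3 d2)
    have h4 := mul_le_mul_of_nonneg_right β1 (abs_nonneg (t 0 - u 0))
    linarith only [h3, h4]
  have D0 : |w' 0 * (t 0 - u 0)| ≤ w' 0 * (4 * δ + 4 * ε) := by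
    rw [abs_mul, abs_of_pos hw0]; exact mul_le_mul_of_nonneg_left d0 hw0.le
  have D1 : |w' 1 * (t 1 - u 1)| ≤ w' 1 * δ := by
    rw [abs_mul, abs_of_pos hw1]; exact mul_le_mul_of_nonneg_left d1 hw1.le
  have D2 : |w' 2 * (t 2 - u 2)| ≤ w' 2 * δ := by
    rw [abs_mul, abs_of_pos hw2]; exact mul_le_mul_of_nonneg_left d2 hw2.le
  have hc0 : 0 ≤ 4 * δ + 4 * ε := by positivity
  have hld : δ ≤ lam * δ := le_mul_of_one_le_left hδ0 hlam
  have eqn : 16000 * (r + a' / w' 0) = 4 * ε := by rw [hε]; ring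
  rw [eqn]
  have hX : 0 ≤ 7 * lam * δ + 4 * ε := by
    have : 0 ≤ lam * δ := hδ0.trans hld
    linarith only [this, hε0]
  constructor
  · have b1 : |w 1 * (vel e w ρ T L 1 - vel e w ρ T L' 1)| ≤ w' 1 * (7 * lam * δ + 4 * ε) := by
      have e1 : w 1 * (vel e w ρ T L 1 - vel e w ρ T L' 1) =
          dt (e 1) (e' 0) * (w' 0 * (t 0 - u 0)) + dt (e 1) (e' 1) * (w' 1 * (t 1 - u 1)) +
            dt (e 1) (e' 2) * (w' 2 * (t 2 - u 2)) := by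
        rw [mul_sub, E1, F1]; ring
      rw [e1]
      refine (abs_add2 (abs_add2 (abs_mul_le (R 1 0) D0) (abs_mul_le (R 1 1) D1))
        (abs_mul_le (R 1 2) D2)).trans ?_
      have f1 : w' 0 * (4 * δ + 4 * ε) ≤ w' 1 * (4 * δ + 4 * ε) :=
        mul_le_mul_of_nonneg_right (h02.trans h21) hc0
      have f2 : w' 2 * δ ≤ w' 1 * δ := mul_le_mul_of_nonneg_right h21 hδ0
      have f3 : w' 1 * (6 * δ + 4 * ε) ≤ w' 1 * (7 * lam * δ + 4 * ε) :=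
        mul_le_mul_of_nonneg_left (by linarith only [hld, hδ0]) hw1.le
      linarith only [f1, f2, f3]
    rw [abs_mul, abs_of_pos (hw 1)] at b1
    have b2 : w' 1 * (7 * lam * δ + 4 * ε) ≤ w 1 * (B * (7 * lam * δ + 4 * ε)) := by
      have := mul_le_mul_of_nonneg_right hB1 hX
      linarith only [this]
    exact le_of_mul_le_mul_left (b1.trans b2) (hw 1)
  · have b1 : |w 2 * (vel e w ρ T L 2 - vel e w ρ T L' 2)| ≤
        w 2 * (B * (7 * lam * δ + 4 * ε)) := by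
      have e1 : w 2 * (vel e w ρ T L 2 - vel e w ρ T L' 2) =
          dt (e 2) (e' 0) * (w' 0 * (t 0 - u 0)) + dt (e 2) (e' 1) * (w' 1 * (t 1 - u 1)) +
            dt (e 2) (e' 2) * (w' 2 * (t 2 - u 2)) := by
        rw [mul_sub, E2, F2]; ring
      rw [e1]
      have D1' : |dt (e 2) (e' 1) * (w' 1 * (t 1 - u 1))| ≤ B * (lam * w 2) * δ := by
        rw [abs_mul, abs_mul, abs_of_pos hw1, ← mul_assoc]
        have f0 : |dt (e 2) (e' 1)| * w' 1 ≤ B * (lam * w 2) := by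
          have f1 := mul_le_mul_of_nonneg_left hB1 (abs_nonneg (dt (e 2) (e' 1)))
          have f2 := mul_le_mul_of_nonneg_left hang hB
          linarith only [f1, f2]
        exact mul_le_mul f0 d1 (abs_nonneg _) (by
          have := hw 2; positivity)
      refine (abs_add2 (abs_add2 (abs_mul_le (R 2 0) D0) D1') (abs_mul_le (R 2 2) D2)).trans ?_
      have f1 : w' 0 * (4 * δ + 4 * ε) ≤ B * w 2 * (4 * δ + 4 * ε) :=
        mul_le_mul_of_nonneg_right (h02.trans hB2) hc0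
      have f2 : w' 2 * δ ≤ B * w 2 * δ := mul_le_mul_of_nonneg_right hB2 hδ0
      have f3 : B * w 2 * (5 * δ + lam * δ + 4 * ε) ≤ B * w 2 * (7 * lam * δ + 4 * ε) :=
        mul_le_mul_of_nonneg_left (by linarith only [hld, hδ0]) (mul_nonneg hB (hw 2).le)
      linarith only [f1, f2, f3]
    rw [abs_mul, abs_of_pos (hw 2)] at b1
    exact le_of_mul_le_mul_left b1 (hw 2)

/-- **(C2)(ii)** : captured in the frame of `S`, lateral velocities in the frame of `S'` within `δ`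
⊢ lateral velocities in the frame of `S` within `3·10⁶ B² lam (δ + r + a / w 0 + a' / w' 0)` -/
theorem vel_pass {e : Fin 3 → V3} {c : Ln4} {w : V3} {q : ℝ → V3 → ℝ} {z0 ρ a : ℝ}
    (S : StP e c w q z0 ρ) (hρ : 0 ≤ ρ) (h02 : w 0 ≤ w 2) (h21 : w 2 ≤ w 1)
    {e' : Fin 3 → V3} {c' : Ln4} {w' : V3} {q' : ℝ → V3 → ℝ} {a' : ℝ}
    (S' : StP e' c' w' q' z0 ρ) (h02' : w' 0 ≤ w' 2) (h21' : w' 2 ≤ w' 1)
    {T L L' : Ln4} (hT : InSheet T e c w q a z0 ρ) (hL : InSheet L e c w q a z0 ρ)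
    (hL' : InSheet L' e c w q a z0 ρ) (kT : InSheet T e' c' w' q' a' z0 ρ)
    (kL : InSheet L e' c' w' q' a' z0 ρ) (kL' : InSheet L' e' c' w' q' a' z0 ρ)
    {s r B lam δ : ℝ} (hs : 0 ≤ s) (hs' : s ≤ 1)
    (h1 : |rp e w z0 ρ T L s 1| ≤ r) (h2 : |rp e w z0 ρ T L s 2| ≤ r)
    (h1' : |rp e w z0 ρ T L' s 1| ≤ r) (h2' : |rp e w z0 ρ T L' s 2| ≤ r)
    (hB : 1 ≤ B) (hB1 : w 1 ≤ B * w' 1) (hB2 : w 2 ≤ B * w' 2) (hB1' : w' 1 ≤ B * w 1)
    (hB2' : w' 2 ≤ B * w 2) (hlam : 1 ≤ lam) (hang : |dt (e' 2) (e 1)| * w 1 ≤ lam * w 2)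
    (hang' : |dt (e 2) (e' 1)| * w 1 ≤ lam * w 2)
    (hsm : B * (72 * lam * r + 4 * (a / w 0)) ≤ 1 / 8)
    (d1 : |vel e' w' ρ T L 1 - vel e' w' ρ T L' 1| ≤ δ)
    (d2 : |vel e' w' ρ T L 2 - vel e' w' ρ T L' 2| ≤ δ) :
    |vel e w ρ T L 1 - vel e w ρ T L' 1| ≤
        1200000 * B ^ 2 * lam * (δ + r + a / w 0 + a' / w' 0) ∧
      |vel e w ρ T L 2 - vel e w ρ T L' 2| ≤
        1200000 * B ^ 2 * lam * (δ + r + a / w 0 + a' / w' 0) := by
  have hw0 := S.pos 0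
  have hw0' := S'.pos 0
  have hr0 : 0 ≤ r := (abs_nonneg _).trans h1
  have ha : 0 ≤ a := (abs_nonneg _).trans (hT z0 le_rfl (by linarith)).2
  have ha' : 0 ≤ a' := (abs_nonneg _).trans (kT z0 le_rfl (by linarith)).2
  have hδ0 : 0 ≤ δ := (abs_nonneg _).trans d1
  have hB0 : 0 ≤ B := by linarith
  have hA : 0 ≤ a / w 0 := by positivity
  have hA' : 0 ≤ a' / w' 0 := by positivity
  have hl0 : 0 ≤ lam := by linarith
  have hBl : B ≤ B ^ 2 * lam := by nlinarith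
  have hr8 : r ≤ 1 / 8 := by
    have f1 : 72 * r ≤ 72 * lam * r := by nlinarith
    have f2 : 72 * lam * r + 4 * (a / w 0) ≤ B * (72 * lam * r + 4 * (a / w 0)) :=
      le_mul_of_one_le_left (by positivity) hB
    linarith only [f1, f2, hsm, hA, hr0]
  obtain ⟨p1, p2⟩ := rp_pass S hρ h02 h21 hT hL hs hs' hr8 h1 h2 S'.ortho S'.pos hB0 hB1 hB2 hlam
    hang
  obtain ⟨p1', p2'⟩ := rp_pass S hρ h02 h21 hT hL' hs hs' hr8 h1' h2' S'.ortho S'.pos hB0 hB1 hB2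
    hlam hang
  obtain ⟨v1, v2⟩ := vel_pass' S' hρ h02' h21' kT kL kL' hs hs' hsm p1 p2 p1' p2' S.ortho S.pos
    hB0 hB1' hB2' hlam hang' d1 d2
  have fin : B * (7 * lam * δ + 16000 * (B * (72 * lam * r + 4 * (a / w 0)) + a' / w' 0)) ≤
      1200000 * B ^ 2 * lam * (δ + r + a / w 0 + a' / w' 0) := by
    have e1 : B * (7 * lam * δ + 16000 * (B * (72 * lam * r + 4 * (a / w 0)) + a' / w' 0)) =
        7 * (B * lam * δ) + 1152000 * (B ^ 2 * lam * r) + 64000 * (B ^ 2 * (a / w 0)) +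
          16000 * (B * (a' / w' 0)) := by ring
    have e2 : 1200000 * B ^ 2 * lam * (δ + r + a / w 0 + a' / w' 0) =
        1200000 * (B ^ 2 * lam * δ) + 1200000 * (B ^ 2 * lam * r) +
          1200000 * (B ^ 2 * lam * (a / w 0)) + 1200000 * (B ^ 2 * lam * (a' / w' 0)) := by ring
    have f1 : B * lam * δ ≤ B ^ 2 * lam * δ := by
      apply mul_le_mul_of_nonneg_right _ hδ0
      apply mul_le_mul_of_nonneg_right _ hl0
      nlinarith
    have f2 : B ^ 2 * (a / w 0) ≤ B ^ 2 * lam * (a / w 0) := by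
      apply mul_le_mul_of_nonneg_right _ hA
      exact le_mul_of_one_le_right (by positivity) hlam
    have f3 : B * (a' / w' 0) ≤ B ^ 2 * lam * (a' / w' 0) :=
      mul_le_mul_of_nonneg_right hBl hA'
    have n1 : 0 ≤ B ^ 2 * lam * δ := by positivity
    have n2 : 0 ≤ B ^ 2 * lam * r := by positivity
    have n3 : 0 ≤ B ^ 2 * lam * (a / w 0) := by positivity
    have n4 : 0 ≤ B ^ 2 * lam * (a' / w' 0) := by positivity
    rw [e1, e2]
    linarith only [f1, f2, f3, n1, n2, n3, n4]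
  exact ⟨v1.trans fin, v2.trans fin⟩

/-- **three balls in the frame of `S'` give three balls in the frame of `S`** -/
theorem balls_pass {e : Fin 3 → V3} {c : Ln4} {w : V3} {q : ℝ → V3 → ℝ} {z0 ρ a : ℝ}
    (S : StP e c w q z0 ρ) (hρ : 0 ≤ ρ) (h02 : w 0 ≤ w 2) (h21 : w 2 ≤ w 1)
    {e' : Fin 3 → V3} {c' : Ln4} {w' : V3} {q' : ℝ → V3 → ℝ} {a' : ℝ}
    (S' : StP e' c' w' q' z0 ρ) (h02' : w' 0 ≤ w' 2) (h21' : w' 2 ≤ w' 1)
    {T : Ln4} (hT : InSheet T e c w q a z0 ρ) (kT : InSheet T e' c' w' q' a' z0 ρ)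
    {𝓛 : Set Ln4} (hL : ∀ L ∈ 𝓛, InSheet L e c w q a z0 ρ)
    (kL : ∀ L ∈ 𝓛, InSheet L e' c' w' q' a' z0 ρ)
    {s r B lam β : ℝ} (hs : 0 ≤ s) (hs' : s ≤ 1) (hr : 0 ≤ r) (hβ : 0 ≤ β)
    (hB : 1 ≤ B) (hB1 : w 1 ≤ B * w' 1) (hB2 : w 2 ≤ B * w' 2) (hB1' : w' 1 ≤ B * w 1)
    (hB2' : w' 2 ≤ B * w 2) (hlam : 1 ≤ lam) (hang : |dt (e' 2) (e 1)| * w 1 ≤ lam * w 2)
    (hang' : |dt (e 2) (e' 1)| * w 1 ≤ lam * w 2)
    (hsm : B * (72 * lam * r + 4 * (a / w 0)) ≤ 1 / 8)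
    (h : ∃ p : Fin 3 → ℝ × ℝ, ∀ L ∈ 𝓛,
      |rp e' w' z0 ρ T L s 1| ≤ B * (72 * lam * r + 4 * (a / w 0)) →
      |rp e' w' z0 ρ T L s 2| ≤ B * (72 * lam * r + 4 * (a / w 0)) →
        ∃ i, dist (vel e' w' ρ T L 1, vel e' w' ρ T L 2) (p i) < β) :
    ∃ p : Fin 3 → ℝ × ℝ, ∀ L ∈ 𝓛, |rp e w z0 ρ T L s 1| ≤ r → |rp e w z0 ρ T L s 2| ≤ r →
      ∃ i, dist (vel e w ρ T L 1, vel e w ρ T L 2) (p i) ≤
        1200000 * B ^ 2 * lam * (2 * β + r + a / w 0 + a' / w' 0) := by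
  classical
  have hw0 := S.pos 0
  have ha : 0 ≤ a := (abs_nonneg _).trans (hT z0 le_rfl (by linarith)).2
  have hA : 0 ≤ a / w 0 := by positivity
  have hB0 : 0 ≤ B := by linarith
  have hr8 : r ≤ 1 / 8 := by
    have f1 : 72 * r ≤ 72 * lam * r := by nlinarith
    have f2 : 72 * lam * r + 4 * (a / w 0) ≤ B * (72 * lam * r + 4 * (a / w 0)) :=
      le_mul_of_one_le_left (by positivity) hB
    linarith only [f1, f2, hsm, hA, hr]
  obtain ⟨p, hp⟩ := h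
  -- a member of every ball
  set M : Fin 3 → Ln4 → Prop := fun i L => L ∈ 𝓛 ∧ |rp e w z0 ρ T L s 1| ≤ r ∧
    |rp e w z0 ρ T L s 2| ≤ r ∧ dist (vel e' w' ρ T L 1, vel e' w' ρ T L 2) (p i) < β with hM
  have hch : ∀ i, ∃ x : ℝ × ℝ, ∀ L, M i L → dist (vel e w ρ T L 1, vel e w ρ T L 2) x ≤
      1200000 * B ^ 2 * lam * (2 * β + r + a / w 0 + a' / w' 0) := by
    intro i
    by_cases hi : ∃ L, M i L
    · obtain ⟨L0, a1, a2, a3, a4⟩ := hi
      refine ⟨(vel e w ρ T L0 1, vel e w ρ T L0 2), ?_⟩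
      rintro L ⟨c1, c2, c3, c4⟩
      have hd := dist_triangle_right (vel e' w' ρ T L 1, vel e' w' ρ T L 2)
        (vel e' w' ρ T L0 1, vel e' w' ρ T L0 2) (p i)
      have hd2 : dist (vel e' w' ρ T L 1, vel e' w' ρ T L 2)
        (vel e' w' ρ T L0 1, vel e' w' ρ T L0 2) ≤ 2 * β := by linarith
      rw [Prod.dist_eq, max_le_iff, Real.dist_eq, Real.dist_eq] at hd2
      obtain ⟨g1, g2⟩ := vel_pass S hρ h02 h21 S' h02' h21' hT (hL L c1) (hL L0 a1) kT (kL L c1)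
        (kL L0 a1) hs hs' c2 c3 a2 a3 hB hB1 hB2 hB1' hB2' hlam hang hang' hsm hd2.1 hd2.2
      rw [Prod.dist_eq, max_le_iff, Real.dist_eq, Real.dist_eq]
      exact ⟨g1, g2⟩
    · exact ⟨(0, 0), fun L hL0 => absurd ⟨L, hL0⟩ hi⟩
  choose x hx using hch
  refine ⟨x, fun L hLL k1 k2 => ?_⟩
  obtain ⟨p1, p2⟩ := rp_pass S hρ h02 h21 hT (hL L hLL) hs hs' hr8 k1 k2 S'.ortho S'.pos hB0 hB1
    hB2 hlam hang
  obtain ⟨i, hi⟩ := hp L hLL p1 p2
  exact ⟨i, hx i L ⟨hLL, k1, k2, hi⟩⟩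

end Crest.Agent.R136.Cpp565
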