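import Mathlib

/-! helper18, PLAN 2 leaf (L3): crossing pairs of one class, with good incidences. -/

set_option autoImplicit false

open Finset

namespace Crest.Agent.R136.Cr318

variable {ι : Type*}

/-- index of the `1/n`-box of the planar line `A t + α t z` at the height `i/n` -/
noncomputable def bx (n : ℕ) (A α : ι → ℝ) (i : ℕ) (t : ι) : ℤ :=
  ⌊(A t + α t * ((i : ℝ) / n)) * n⌋

theorem bx_close {n : ℕ} (hn : 0 < n) {A α : ι → ℝ} {i : ℕ} {t t' : ι}
    (h : bx n A α i t = bx n A α i t') :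
    |(A t' - A t) + (α t' - α t) * ((i : ℝ) / n)| < 1 / n := by
  have hn' : (0 : ℝ) < n := by exact_mod_cast hn
  unfold bx at h
  have h1 := Int.abs_sub_lt_one_of_floor_eq_floor h
  rw [lt_div_iff₀ hn']
  calc |(A t' - A t) + (α t' - α t) * ((i : ℝ) / n)| * n
      = |((A t' - A t) + (α t' - α t) * ((i : ℝ) / n)) * n| := by
        rw [abs_mul, abs_of_pos hn']
    _ = |(A t + α t * ((i : ℝ) / n)) * n - (A t' + α t' * ((i : ℝ) / n)) * n| := by
        rw [← abs_neg]; congr 1; ring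
    _ < 1 := h1

/-- number of heights at which two lines with velocity difference `> d` are in one box -/
theorem card_heights {n : ℕ} (hn : 0 < n) {A α : ι → ℝ} {t t' : ι} {d : ℝ} (hd : 0 < d)
    (hα : d ≤ |α t' - α t|) (P : ℕ → Prop) [DecidablePred P]
    (hP : ∀ i, P i → bx n A α i t = bx n A α i t') :
    (((range n).filter P).card : ℝ) ≤ 2 / d + 1 := by
  have hn' : (0 : ℝ) < n := by exact_mod_cast hn
  set F := (range n).filter P with hF
  rcases F.eq_empty_or_nonempty with h0 | h0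
  · rw [h0]; simp only [card_empty, Nat.cast_zero]; positivity
  · set a := F.min' h0 with ha
    have haF : a ∈ F := F.min'_mem h0
    have hsub : F ⊆ Finset.Icc a (a + ⌊2 / d⌋₊) := by
      intro i hi
      have h1 := bx_close hn (hP i (mem_filter.1 hi).2)
      have h2 := bx_close hn (hP a (mem_filter.1 haF).2)
      have hai : a ≤ i := F.min'_le i hi
      have h3 : |(α t' - α t) * (((i : ℝ) - a) / n)| < 2 / n := by
        have : (α t' - α t) * (((i : ℝ) - a) / n)
            = ((A t' - A t) + (α t' - α t) * ((i : ℝ) / n))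
              - ((A t' - A t) + (α t' - α t) * ((a : ℝ) / n)) := by ring
        rw [this]
        calc _ ≤ |(A t' - A t) + (α t' - α t) * ((i : ℝ) / n)|
              + |(A t' - A t) + (α t' - α t) * ((a : ℝ) / n)| := abs_sub _ _
          _ < 1 / n + 1 / n := by linarith
          _ = 2 / n := by ring
      have hia : (0 : ℝ) ≤ (i : ℝ) - a := by
        have : (a : ℝ) ≤ i := by exact_mod_cast hai
        linarith
      rw [abs_mul, abs_of_nonneg (div_nonneg hia hn'.le)] at h3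
      have h4 : d * ((i : ℝ) - a) < 2 := by
        have h5 : d * (((i : ℝ) - a) / n) ≤ |α t' - α t| * (((i : ℝ) - a) / n) :=
          mul_le_mul_of_nonneg_right hα (div_nonneg hia hn'.le)
        have h6 : d * (((i : ℝ) - a) / n) < 2 / n := lt_of_le_of_lt h5 h3
        have h7 : d * (((i : ℝ) - a) / n) * n < 2 / n * n := mul_lt_mul_of_pos_right h6 hn'
        have h8 : d * (((i : ℝ) - a) / n) * n = d * ((i : ℝ) - a) := by field_simp
        have h9 : (2 : ℝ) / n * n = 2 := by field_simp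
        linarith
      have h10 : (i : ℝ) - a ≤ 2 / d := by
        rw [le_div_iff₀ hd]; nlinarith
      rw [Finset.mem_Icc]
      refine ⟨hai, ?_⟩
      have h11 : ((i - a : ℕ) : ℝ) ≤ 2 / d := by
        rw [Nat.cast_sub hai]; exact h10
      have h12 : i - a ≤ ⌊2 / d⌋₊ := Nat.le_floor h11
      omega
    have hc : F.card ≤ ⌊2 / d⌋₊ + 1 := by
      calc F.card ≤ (Finset.Icc a (a + ⌊2 / d⌋₊)).card := card_le_card hsub
        _ = ⌊2 / d⌋₊ + 1 := by rw [Nat.card_Icc]; omega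
    calc (F.card : ℝ) ≤ (⌊2 / d⌋₊ + 1 : ℕ) := by exact_mod_cast hc
      _ = (⌊2 / d⌋₊ : ℝ) + 1 := by push_cast; ring
      _ ≤ 2 / d + 1 := by
        have := Nat.floor_le (show (0 : ℝ) ≤ 2 / d by positivity)
        linarith

/-- one pair: the number of common heights is at most a dyadic sum -/
theorem pair_dyadic {n : ℕ} (hn : 0 < n) {A α : ι → ℝ} {t t' : ι} {θ : ℝ} (hθ1 : θ ≤ 1)
    (hα : |α t' - α t| ≤ θ) :
    (((range n).filter fun i => bx n A α i t = bx n A α i t').card : ℝ) ≤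
      ∑ k ∈ range (Nat.clog 2 ⌈(n : ℝ) * θ⌉₊ + 1),
        if |A t' - A t| ≤ (2 : ℝ) ^ (k + 1) / n ∧ |α t' - α t| ≤ (2 : ℝ) ^ (k + 1) / n then
          6 * n / (2 : ℝ) ^ k else 0 := by
  classical
  have hn' : (0 : ℝ) < n := by exact_mod_cast hn
  have hnn : ∀ k : ℕ, (0 : ℝ) ≤
      if |A t' - A t| ≤ (2 : ℝ) ^ (k + 1) / n ∧ |α t' - α t| ≤ (2 : ℝ) ^ (k + 1) / n then
          6 * n / (2 : ℝ) ^ k else 0 := by
    intro k; split_ifs <;> positivity
  set F := (range n).filter fun i => bx n A α i t = bx n A α i t' with hF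
  rcases F.eq_empty_or_nonempty with h0 | ⟨i, hi⟩
  · rw [h0]; simp only [card_empty, Nat.cast_zero]
    exact sum_nonneg fun k _ => hnn k
  · have hi' := bx_close hn (mem_filter.1 hi).2
    have hin : ((i : ℝ) / n) ≤ 1 := by
      rw [div_le_one hn']
      have := mem_range.1 (mem_filter.1 hi).1
      exact_mod_cast this.le
    have hin0 : (0 : ℝ) ≤ (i : ℝ) / n := by positivity
    have hA : |A t' - A t| ≤ 1 / n + |α t' - α t| := by
      have h1 : A t' - A t = ((A t' - A t) + (α t' - α t) * ((i : ℝ) / n))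
          - (α t' - α t) * ((i : ℝ) / n) := by ring
      rw [h1]
      calc _ ≤ |(A t' - A t) + (α t' - α t) * ((i : ℝ) / n)|
            + |(α t' - α t) * ((i : ℝ) / n)| := abs_sub _ _
        _ ≤ 1 / n + |α t' - α t| := by
          rw [abs_mul, abs_of_nonneg hin0]
          have := mul_le_mul_of_nonneg_left hin (abs_nonneg (α t' - α t))
          linarith
    set x : ℝ := n * |α t' - α t| with hx
    set k := Nat.clog 2 ⌈x⌉₊ with hk
    have hkK : k ∈ range (Nat.clog 2 ⌈(n : ℝ) * θ⌉₊ + 1) := by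
      rw [mem_range]
      have : k ≤ Nat.clog 2 ⌈(n : ℝ) * θ⌉₊ := by
        apply Nat.clog_mono_right
        apply Nat.ceil_mono
        exact mul_le_mul_of_nonneg_left hα hn'.le
      omega
    have hxk : x ≤ (2 : ℝ) ^ k := by
      have h1 : ⌈x⌉₊ ≤ 2 ^ k := Nat.le_pow_clog (by norm_num) _
      calc x ≤ ⌈x⌉₊ := Nat.le_ceil x
        _ ≤ ((2 ^ k : ℕ) : ℝ) := by exact_mod_cast h1
        _ = (2 : ℝ) ^ k := by push_cast; ring
    have hαk : |α t' - α t| ≤ (2 : ℝ) ^ k / n := by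
      rw [le_div_iff₀ hn', mul_comm]; exact hxk
    have h1k : (1 : ℝ) ≤ 2 ^ k := one_le_pow₀ (by norm_num)
    have hcond : |A t' - A t| ≤ (2 : ℝ) ^ (k + 1) / n ∧
        |α t' - α t| ≤ (2 : ℝ) ^ (k + 1) / n := by
      have h2 : (2 : ℝ) ^ (k + 1) / n = (2 : ℝ) ^ k / n + (2 : ℝ) ^ k / n := by
        rw [pow_succ]; ring
      have h3 : (0 : ℝ) ≤ (2 : ℝ) ^ k / n := by positivity
      have h4 : (1 : ℝ) / n ≤ (2 : ℝ) ^ k / n := div_le_div_of_nonneg_right h1k hn'.le
      constructor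
      · rw [h2]; linarith
      · rw [h2]; linarith
    have hFn : (F.card : ℝ) ≤ n := by
      have : F.card ≤ (range n).card := card_le_card (filter_subset _ _)
      rw [card_range] at this
      exact_mod_cast this
    have hmain : (F.card : ℝ) ≤ 6 * n / (2 : ℝ) ^ k := by
      rcases Nat.eq_zero_or_pos k with hk0 | hk0
      · rw [hk0, pow_zero, div_one]
        linarith
      · have h5 : 1 < ⌈x⌉₊ := by
          by_contra hcon
          have : Nat.clog 2 ⌈x⌉₊ = 0 := Nat.clog_of_right_le_one (by omega) 2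
          omega
        have h6 : 2 ^ (k - 1) < ⌈x⌉₊ := by
          have := Nat.pow_pred_clog_lt_self (b := 2) (by norm_num) h5
          simpa [hk, Nat.pred_eq_sub_one] using this
        have h7 : (2 : ℝ) ^ (k - 1) < x := by
          have := Nat.lt_ceil.1 h6
          push_cast at this
          exact this
        have h8 : (2 : ℝ) ^ k = 2 * 2 ^ (k - 1) := by
          obtain ⟨m, hm⟩ : ∃ m, k = m + 1 := ⟨k - 1, by omega⟩
          rw [hm, Nat.add_sub_cancel, pow_succ]; ring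
        have hd : 0 < (2 : ℝ) ^ (k - 1) / n := by positivity
        have h9 : (2 : ℝ) ^ (k - 1) / n ≤ |α t' - α t| := by
          rw [div_le_iff₀ hn', mul_comm]; exact h7.le
        have h10 := card_heights hn hd h9 (fun i => bx n A α i t = bx n A α i t')
          (fun i hi => hi)
        have h11 : (2 : ℝ) / ((2 : ℝ) ^ (k - 1) / n) = 4 * n / (2 : ℝ) ^ k := by
          rw [h8]; field_simp; norm_num
        have h12 : (2 : ℝ) ^ k ≤ 2 * n * |α t' - α t| := by rw [h8]; nlinarith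
        have h13 : (2 : ℝ) ^ k ≤ 2 * n := by nlinarith
        have h14 : (1 : ℝ) ≤ 2 * n / (2 : ℝ) ^ k := by
          rw [le_div_iff₀ (by positivity)]; linarith
        have h15 : (6 : ℝ) * n / 2 ^ k = 4 * n / 2 ^ k + 2 * n / 2 ^ k := by ring
        rw [h15]
        calc (F.card : ℝ) ≤ 2 / ((2 : ℝ) ^ (k - 1) / n) + 1 := h10
          _ ≤ _ := by rw [h11]; linarith
    calc (F.card : ℝ) ≤ 6 * n / (2 : ℝ) ^ k := hmain
      _ = if |A t' - A t| ≤ (2 : ℝ) ^ (k + 1) / n ∧ |α t' - α t| ≤ (2 : ℝ) ^ (k + 1) / n then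
          6 * n / (2 : ℝ) ^ k else 0 := by rw [if_pos hcond]
      _ ≤ _ := single_le_sum (f := fun k : ℕ =>
          if |A t' - A t| ≤ (2 : ℝ) ^ (k + 1) / n ∧ |α t' - α t| ≤ (2 : ℝ) ^ (k + 1) / n then
          6 * n / (2 : ℝ) ^ k else 0) (fun k _ => hnn k) hkK

/-- the constant of the angular sum -/
noncomputable def Cq (q : ℝ) : ℝ := 12 * 4 ^ q / (1 - 2 ^ (-q))

theorem Cq_pos {q : ℝ} (hq : 0 < q) : 0 < Cq q := by
  unfold Cq
  have h1 : (2 : ℝ) ^ (-q) < 1 := Real.rpow_lt_one_of_one_lt_of_neg (by norm_num) (by linarith)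
  have h2 : (0 : ℝ) < 4 ^ q := Real.rpow_pos_of_pos (by norm_num) _
  apply div_pos (by positivity) (by linarith)

/-- dyadic geometric sum -/
theorem geo_sum {q : ℝ} (hq : 0 < q) (n : ℝ) (hn : 0 < n) (K : ℕ) :
    ∑ k ∈ range (K + 1), ((2 : ℝ) ^ k / n) ^ q ≤ ((2 : ℝ) ^ K / n) ^ q / (1 - 2 ^ (-q)) := by
  have h1 : (2 : ℝ) ^ (-q) < 1 := Real.rpow_lt_one_of_one_lt_of_neg (by norm_num) (by linarith)
  have h0 : (0 : ℝ) < 2 ^ (-q) := Real.rpow_pos_of_pos (by norm_num) _
  induction K with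
  | zero =>
    simp only [zero_add, range_one, sum_singleton, pow_zero]
    have h3 : (0 : ℝ) ≤ (1 / n) ^ q := by positivity
    rw [le_div_iff₀ (by linarith)]
    nlinarith
  | succ K ih =>
    rw [sum_range_succ]
    have h4 : ((2 : ℝ) ^ (K + 1) / n) ^ q * 2 ^ (-q) = ((2 : ℝ) ^ K / n) ^ q := by
      have h5 : (2 : ℝ) ^ K / n = ((2 : ℝ) ^ (K + 1) / n) * 2⁻¹ := by rw [pow_succ]; ring
      rw [h5, Real.mul_rpow (by positivity) (by norm_num), Real.rpow_neg (by norm_num),
        Real.inv_rpow (by norm_num)]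
    rw [← h4] at ih
    have h6 : (0 : ℝ) ≤ ((2 : ℝ) ^ (K + 1) / n) ^ q := by positivity
    have hne : (1 : ℝ) - 2 ^ (-q) ≠ 0 := by linarith
    calc _ ≤ ((2 : ℝ) ^ (K + 1) / n) ^ q * 2 ^ (-q) / (1 - 2 ^ (-q))
          + ((2 : ℝ) ^ (K + 1) / n) ^ q := by linarith
      _ = _ := by field_simp; ring

/-- D-max of one class in the planar chart -/
def DM (S : Finset ι) (A α : ι → ℝ) (n : ℕ) (W q : ℝ) : Prop :=
  ∀ t ∈ S, ∀ k : ℕ, (2 : ℝ) ^ k ≤ 4 * n →
    ((S.filter fun t' => |A t' - A t| ≤ (2 : ℝ) ^ k / n ∧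
      |α t' - α t| ≤ (2 : ℝ) ^ k / n).card : ℝ) ≤ W * ((2 : ℝ) ^ k / n) ^ (1 + q) * S.card

/-- small angles, one line -/
theorem small_one {S : Finset ι} {A α : ι → ℝ} {n : ℕ} (hn : 0 < n) {W q θ : ℝ} (hW : 0 ≤ W)
    (hq : 0 < q) (hD : DM S A α n W q) (hθ : 1 ≤ θ * n) (hθ1 : θ ≤ 1) {t : ι} (ht : t ∈ S) :
    ∑ t' ∈ S.filter (fun t' => |α t' - α t| ≤ θ),
      (((range n).filter fun i => bx n A α i t = bx n A α i t').card : ℝ) ≤
      Cq q * W * θ ^ q * S.card := by
  classical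
  have hn' : (0 : ℝ) < n := by exact_mod_cast hn
  have hθ0 : 0 < θ := by
    by_contra h
    have : θ * n ≤ 0 := mul_nonpos_of_nonpos_of_nonneg (not_lt.1 h) hn'.le
    linarith
  set K := Nat.clog 2 ⌈(n : ℝ) * θ⌉₊ with hK
  have hnθ : (n : ℝ) * θ ≤ n := by nlinarith
  have hK2 : (2 : ℝ) ^ K ≤ 2 * (n * θ) := by
    rcases Nat.eq_zero_or_pos K with h0 | h0
    · rw [h0, pow_zero]; linarith
    · have h5 : 1 < ⌈(n : ℝ) * θ⌉₊ := by
        by_contra hcon
        have : Nat.clog 2 ⌈(n : ℝ) * θ⌉₊ = 0 := Nat.clog_of_right_le_one (by omega) 2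
        omega
      have h6 : 2 ^ (K - 1) < ⌈(n : ℝ) * θ⌉₊ := by
        have := Nat.pow_pred_clog_lt_self (b := 2) (by norm_num) h5
        simpa [hK, Nat.pred_eq_sub_one] using this
      have h7 : (2 : ℝ) ^ (K - 1) < n * θ := by
        have := Nat.lt_ceil.1 h6
        push_cast at this
        exact this
      have h8 : (2 : ℝ) ^ K = 2 * 2 ^ (K - 1) := by
        obtain ⟨m, hm⟩ : ∃ m, K = m + 1 := ⟨K - 1, by omega⟩
        rw [hm, Nat.add_sub_cancel, pow_succ]; ring
      rw [h8]; linarith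
  have hstep : ∑ t' ∈ S.filter (fun t' => |α t' - α t| ≤ θ),
      (((range n).filter fun i => bx n A α i t = bx n A α i t').card : ℝ) ≤
      ∑ k ∈ range (K + 1), 6 * n / (2 : ℝ) ^ k *
        (S.filter fun t' => |A t' - A t| ≤ (2 : ℝ) ^ (k + 1) / n ∧
          |α t' - α t| ≤ (2 : ℝ) ^ (k + 1) / n).card := by
    calc _ ≤ ∑ t' ∈ S.filter (fun t' => |α t' - α t| ≤ θ), ∑ k ∈ range (K + 1),
          (if |A t' - A t| ≤ (2 : ℝ) ^ (k + 1) / n ∧ |α t' - α t| ≤ (2 : ℝ) ^ (k + 1) / n then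
          6 * n / (2 : ℝ) ^ k else 0) :=
          sum_le_sum fun t' h => pair_dyadic hn hθ1 (mem_filter.1 h).2
      _ ≤ ∑ t' ∈ S, ∑ k ∈ range (K + 1),
          (if |A t' - A t| ≤ (2 : ℝ) ^ (k + 1) / n ∧ |α t' - α t| ≤ (2 : ℝ) ^ (k + 1) / n then
          6 * n / (2 : ℝ) ^ k else 0) := by
          apply sum_le_sum_of_subset_of_nonneg (filter_subset _ _)
          intro t' _ _
          apply sum_nonneg
          intro k _
          split_ifs <;> positivity
      _ = ∑ k ∈ range (K + 1), ∑ t' ∈ S,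
          (if |A t' - A t| ≤ (2 : ℝ) ^ (k + 1) / n ∧ |α t' - α t| ≤ (2 : ℝ) ^ (k + 1) / n then
          6 * n / (2 : ℝ) ^ k else 0) := sum_comm
      _ = _ := by
          apply sum_congr rfl
          intro k _
          rw [← sum_filter, sum_const, nsmul_eq_mul, mul_comm]
  refine hstep.trans ?_
  have hterm : ∀ k ∈ range (K + 1), 6 * n / (2 : ℝ) ^ k *
        (S.filter fun t' => |A t' - A t| ≤ (2 : ℝ) ^ (k + 1) / n ∧
          |α t' - α t| ≤ (2 : ℝ) ^ (k + 1) / n).card ≤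
        12 * 2 ^ q * W * S.card * ((2 : ℝ) ^ k / n) ^ q := by
    intro k hk
    have hkK : k ≤ K := by have := mem_range.1 hk; omega
    have h1 : (2 : ℝ) ^ (k + 1) ≤ 4 * n := by
      have h2 : (2 : ℝ) ^ k ≤ 2 ^ K := pow_le_pow_right₀ (by norm_num) hkK
      rw [pow_succ]; nlinarith
    have h3 := hD t ht (k + 1) h1
    have h4 : (0 : ℝ) < (2 : ℝ) ^ k := by positivity
    have h5 : ((2 : ℝ) ^ (k + 1) / n) ^ (1 + q) = (2 * 2 ^ q) * ((2 : ℝ) ^ k / n) *
        ((2 : ℝ) ^ k / n) ^ q := by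
      have h6 : (2 : ℝ) ^ (k + 1) / n = 2 * ((2 : ℝ) ^ k / n) := by rw [pow_succ]; ring
      have h7 : (0 : ℝ) < (2 : ℝ) ^ k / n := by positivity
      rw [h6, Real.mul_rpow (by norm_num) h7.le, Real.rpow_add (by norm_num),
        Real.rpow_add h7, Real.rpow_one, Real.rpow_one]
      ring
    rw [h5] at h3
    calc _ ≤ 6 * n / (2 : ℝ) ^ k * (W * ((2 * 2 ^ q) * ((2 : ℝ) ^ k / n) *
        ((2 : ℝ) ^ k / n) ^ q) * S.card) :=
          mul_le_mul_of_nonneg_left h3 (by positivity)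
      _ = _ := by field_simp; ring
  calc _ ≤ ∑ k ∈ range (K + 1), 12 * 2 ^ q * W * S.card * ((2 : ℝ) ^ k / n) ^ q :=
        sum_le_sum hterm
    _ = 12 * 2 ^ q * W * S.card * ∑ k ∈ range (K + 1), ((2 : ℝ) ^ k / n) ^ q := by
        rw [mul_sum]
    _ ≤ 12 * 2 ^ q * W * S.card * (((2 : ℝ) ^ K / n) ^ q / (1 - 2 ^ (-q))) := by
        apply mul_le_mul_of_nonneg_left (geo_sum hq _ hn' K)
        have : (0 : ℝ) < 2 ^ q := Real.rpow_pos_of_pos (by norm_num) _
        positivity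
    _ ≤ 12 * 2 ^ q * W * S.card * ((2 ^ q * θ ^ q) / (1 - 2 ^ (-q))) := by
        have h1 : (2 : ℝ) ^ (-q) < 1 :=
          Real.rpow_lt_one_of_one_lt_of_neg (by norm_num) (by linarith)
        have h2 : ((2 : ℝ) ^ K / n) ^ q ≤ 2 ^ q * θ ^ q := by
          rw [← Real.mul_rpow (by norm_num) hθ0.le]
          apply Real.rpow_le_rpow (by positivity) _ hq.le
          rw [div_le_iff₀ hn']; nlinarith
        have : (0 : ℝ) < 2 ^ q := Real.rpow_pos_of_pos (by norm_num) _
        apply mul_le_mul_of_nonneg_left _ (by positivity)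
        exact div_le_div_of_nonneg_right h2 (by linarith)
    _ = Cq q * W * θ ^ q * S.card := by
        unfold Cq
        have h4 : (4 : ℝ) ^ q = 2 ^ q * 2 ^ q := by
          rw [← Real.mul_rpow (by norm_num) (by norm_num)]; norm_num
        rw [h4]; ring

open Classical in
/-- Cauchy-Schwarz over the boxes of one height -/
theorem cs_one {S : Finset ι} {A α : ι → ℝ} {n : ℕ} (hn : 0 < n) (hA : ∀ t ∈ S, |A t| ≤ 1)
    (hα : ∀ t ∈ S, |α t| ≤ 1) {i : ℕ} (hi : i < n) (P : ι → Prop) :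
    (((S.filter P).card : ℝ)) ^ 2 ≤ 5 * n *
      (((S ×ˢ S).filter fun p => P p.1 ∧ P p.2 ∧
        bx n A α i p.1 = bx n A α i p.2).card : ℝ) := by
  have hn' : (0 : ℝ) < n := by exact_mod_cast hn
  set Γ := S.filter P with hΓ
  set B : Finset ℤ := Finset.Icc (-(2 * n : ℤ)) (2 * n) with hB
  have hmem : ∀ t ∈ Γ, bx n A α i t ∈ B := by
    intro t ht
    have htS := (mem_filter.1 ht).1
    have h1 := hA t htS
    have h2 := hα t htS
    have hin : ((i : ℝ) / n) ≤ 1 := by
      rw [div_le_one hn']; exact_mod_cast hi.le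
    have hin0 : (0 : ℝ) ≤ (i : ℝ) / n := by positivity
    have h3 : |α t * ((i : ℝ) / n)| ≤ 1 := by
      rw [abs_mul, abs_of_nonneg hin0]
      nlinarith [abs_nonneg (α t)]
    have h4 : |A t + α t * ((i : ℝ) / n)| ≤ 2 := (abs_add_le _ _).trans (by linarith)
    rw [abs_le] at h4
    have h5 : (-(2 * n : ℤ) : ℝ) ≤ (A t + α t * ((i : ℝ) / n)) * n := by
      push_cast; nlinarith [h4.1]
    have h6 : (A t + α t * ((i : ℝ) / n)) * n ≤ ((2 * n : ℤ) : ℝ) := by
      push_cast; nlinarith [h4.2]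
    rw [hB, Finset.mem_Icc]
    constructor
    · unfold bx
      apply Int.le_floor.2
      push_cast at h5 ⊢
      exact h5
    · unfold bx
      have := (Int.floor_le ((A t + α t * ((i : ℝ) / n)) * n)).trans h6
      exact_mod_cast this
  have hcardB : (B.card : ℝ) ≤ 5 * n := by
    have h1 : B.card = 4 * n + 1 := by
      rw [hB, Int.card_Icc]; omega
    rw [h1]
    have h2 : (1 : ℝ) ≤ n := by exact_mod_cast hn
    push_cast; linarith
  have h1 : Γ.card = ∑ b ∈ B, (Γ.filter fun t => bx n A α i t = b).card :=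
    card_eq_sum_card_fiberwise hmem
  have h2 : ((S ×ˢ S).filter fun p => P p.1 ∧ P p.2 ∧
        bx n A α i p.1 = bx n A α i p.2).card =
      ∑ b ∈ B, ((Γ.filter fun t => bx n A α i t = b).card) ^ 2 := by
    rw [card_eq_sum_card_fiberwise (f := fun p : ι × ι => bx n A α i p.1) (t := B)]
    · apply sum_congr rfl
      intro b _
      rw [sq, ← card_product]
      congr 1
      ext p
      simp only [mem_filter, mem_product, hΓ]
      constructor
      · rintro ⟨⟨⟨h1, h2⟩, h3, h4, h5⟩, h6⟩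
        exact ⟨⟨⟨h1, h3⟩, h6⟩, ⟨h2, h4⟩, by rw [← h5, h6]⟩
      · rintro ⟨⟨⟨h1, h3⟩, h6⟩, ⟨h2, h4⟩, h7⟩
        exact ⟨⟨⟨h1, h2⟩, h3, h4, by rw [h6, h7]⟩, h6⟩
    · intro p hp
      have := (mem_filter.1 hp)
      exact hmem p.1 (mem_filter.2 ⟨(mem_product.1 this.1).1, this.2.1⟩)
  have h3 := sq_sum_le_card_mul_sum_sq (s := B)
    (f := fun b => ((Γ.filter fun t => bx n A α i t = b).card : ℝ))
  have h4 : ((Γ.card : ℝ)) = ∑ b ∈ B, ((Γ.filter fun t => bx n A α i t = b).card : ℝ) := by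
    exact_mod_cast h1
  have h5 : ((((S ×ˢ S).filter fun p => P p.1 ∧ P p.2 ∧
        bx n A α i p.1 = bx n A α i p.2).card : ℕ) : ℝ) =
      ∑ b ∈ B, ((Γ.filter fun t => bx n A α i t = b).card : ℝ) ^ 2 := by
    exact_mod_cast h2
  rw [h4, h5]
  refine h3.trans ?_
  exact mul_le_mul_of_nonneg_right hcardB (sum_nonneg fun _ _ => sq_nonneg _)

open Classical in
/-- (L3) crossing pairs at good incidences -/
theorem cross_good {S : Finset ι} {A α : ι → ℝ} {n : ℕ} (hn : 0 < n) {W q θ c : ℝ}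
    (hW : 0 ≤ W) (hq : 0 < q) (hA : ∀ t ∈ S, |A t| ≤ 1) (hα : ∀ t ∈ S, |α t| ≤ 1)
    (hD : DM S A α n W q) (G : ι → ℕ → Prop) (hc : 0 ≤ c)
    (hG : c * n * S.card ≤ (((S ×ˢ range n).filter fun p => G p.1 p.2).card : ℝ))
    (hθ : 1 ≤ θ * n) (hθ1 : θ ≤ 1) (hsm : Cq q * W * θ ^ q ≤ c ^ 2 / 10) :
    c ^ 2 / 30 * θ * (S.card : ℝ) ^ 2 ≤
      (((S ×ˢ S).filter fun p => ∃ i < n, G p.1 i ∧ G p.2 i ∧
        bx n A α i p.1 = bx n A α i p.2 ∧ θ < |α p.2 - α p.1|).card : ℝ) := by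
  have hn' : (0 : ℝ) < n := by exact_mod_cast hn
  have hθ0 : 0 < θ := by
    by_contra h
    have : θ * n ≤ 0 := mul_nonpos_of_nonpos_of_nonneg (not_lt.1 h) hn'.le
    linarith
  set M : ℝ := (S.card : ℝ) with hM
  have hM0 : 0 ≤ M := by positivity
  -- number of good incidences, height by height
  have h1 : (((S ×ˢ range n).filter fun p => G p.1 p.2).card : ℝ) =
      ∑ i ∈ range n, ((S.filter fun t => G t i).card : ℝ) := by
    have : ((S ×ˢ range n).filter fun p => G p.1 p.2).card =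
        ∑ i ∈ range n, (S.filter fun t => G t i).card := by
      rw [card_filter, sum_product_right]
      apply sum_congr rfl
      intro i _
      rw [card_filter]
    exact_mod_cast this
  rw [h1] at hG
  have h2 : (c * n * M) ^ 2 ≤ n * ∑ i ∈ range n, ((S.filter fun t => G t i).card : ℝ) ^ 2 := by
    have h3 := sq_sum_le_card_mul_sum_sq (s := range n)
      (f := fun i => ((S.filter fun t => G t i).card : ℝ))
    rw [card_range] at h3
    refine le_trans ?_ h3
    exact pow_le_pow_left₀ (by positivity) hG 2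
  set Lf : ℕ → ℝ := fun i => (((S ×ˢ S).filter fun p => G p.1 i ∧ G p.2 i ∧
        bx n A α i p.1 = bx n A α i p.2).card : ℝ) with hLf
  have h3 : ∑ i ∈ range n, ((S.filter fun t => G t i).card : ℝ) ^ 2 ≤
      ∑ i ∈ range n, 5 * n * Lf i :=
    sum_le_sum fun i hi => cs_one hn hA hα (mem_range.1 hi) (fun t => G t i)
  rw [← mul_sum] at h3
  have h4 : c ^ 2 / 5 * M ^ 2 ≤ ∑ i ∈ range n, Lf i := by
    have h5 : (c * n * M) ^ 2 ≤ n * (5 * n * ∑ i ∈ range n, Lf i) :=
      h2.trans (mul_le_mul_of_nonneg_left h3 hn'.le)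
    have h6 : (n : ℝ) ^ 2 * (c ^ 2 * M ^ 2) ≤ n ^ 2 * (5 * ∑ i ∈ range n, Lf i) := by
      nlinarith
    have h7 := le_of_mul_le_mul_left h6 (by positivity)
    linarith
  -- exchange the sums
  have h5 : ∑ i ∈ range n, Lf i = ∑ p ∈ S ×ˢ S,
      (((range n).filter fun i => G p.1 i ∧ G p.2 i ∧
        bx n A α i p.1 = bx n A α i p.2).card : ℝ) := by
    have : ∑ i ∈ range n, ((S ×ˢ S).filter fun p => G p.1 i ∧ G p.2 i ∧
        bx n A α i p.1 = bx n A α i p.2).card = ∑ p ∈ S ×ˢ S,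
      ((range n).filter fun i => G p.1 i ∧ G p.2 i ∧
        bx n A α i p.1 = bx n A α i p.2).card := by
      simp_rw [card_filter]
      exact sum_comm
    have h55 : ∑ i ∈ range n, Lf i = ((∑ i ∈ range n, ((S ×ˢ S).filter fun p => G p.1 i ∧
        G p.2 i ∧ bx n A α i p.1 = bx n A α i p.2).card : ℕ) : ℝ) := by
      rw [Nat.cast_sum]
    rw [h55, this, Nat.cast_sum]
  -- small angles
  have h6 : ∑ p ∈ (S ×ˢ S).filter (fun p => |α p.2 - α p.1| ≤ θ),
      (((range n).filter fun i => G p.1 i ∧ G p.2 i ∧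
        bx n A α i p.1 = bx n A α i p.2).card : ℝ) ≤ c ^ 2 / 10 * M ^ 2 := by
    calc _ ≤ ∑ p ∈ (S ×ˢ S).filter (fun p => |α p.2 - α p.1| ≤ θ),
          (((range n).filter fun i => bx n A α i p.1 = bx n A α i p.2).card : ℝ) := by
          apply sum_le_sum
          intro p _
          exact_mod_cast card_le_card (fun i hi => by
            rw [mem_filter] at hi ⊢
            exact ⟨hi.1, hi.2.2.2⟩)
      _ = ∑ t ∈ S, ∑ t' ∈ S.filter (fun t' => |α t' - α t| ≤ θ),
          (((range n).filter fun i => bx n A α i t = bx n A α i t').card : ℝ) := by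
          rw [sum_filter, sum_product]
          apply sum_congr rfl
          intro t _
          rw [sum_filter]
      _ ≤ ∑ t ∈ S, Cq q * W * θ ^ q * S.card :=
          sum_le_sum fun t ht => small_one hn hW hq hD hθ hθ1 ht
      _ = Cq q * W * θ ^ q * M ^ 2 := by
          rw [sum_const, nsmul_eq_mul]; ring
      _ ≤ c ^ 2 / 10 * M ^ 2 := mul_le_mul_of_nonneg_right hsm (by positivity)
  -- large angles
  set Q := (S ×ˢ S).filter fun p => ∃ i < n, G p.1 i ∧ G p.2 i ∧
        bx n A α i p.1 = bx n A α i p.2 ∧ θ < |α p.2 - α p.1| with hQ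
  have h7 : ∑ p ∈ (S ×ˢ S).filter (fun p => ¬ |α p.2 - α p.1| ≤ θ),
      (((range n).filter fun i => G p.1 i ∧ G p.2 i ∧
        bx n A α i p.1 = bx n A α i p.2).card : ℝ) ≤ Q.card * (3 / θ) := by
    calc _ ≤ ∑ p ∈ Q, (3 / θ : ℝ) := by
          rw [← sum_filter_add_sum_filter_not ((S ×ˢ S).filter
            (fun p => ¬ |α p.2 - α p.1| ≤ θ)) (fun p => p ∈ Q)]
          have hz : ∑ p ∈ ((S ×ˢ S).filter (fun p => ¬ |α p.2 - α p.1| ≤ θ)).filter
              (fun p => ¬ p ∈ Q), (((range n).filter fun i => G p.1 i ∧ G p.2 i ∧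
              bx n A α i p.1 = bx n A α i p.2).card : ℝ) = 0 := by
            apply sum_eq_zero
            intro p hp
            rw [mem_filter, mem_filter] at hp
            have : ((range n).filter fun i => G p.1 i ∧ G p.2 i ∧
              bx n A α i p.1 = bx n A α i p.2) = ∅ := by
              rw [filter_eq_empty_iff]
              rintro i hi ⟨ha, hb, hcc⟩
              exact hp.2 (mem_filter.2 ⟨hp.1.1, i, mem_range.1 hi, ha, hb, hcc,
                not_le.1 hp.1.2⟩)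
            rw [this]; simp
          rw [hz, add_zero]
          have hsub : ((S ×ˢ S).filter (fun p => ¬ |α p.2 - α p.1| ≤ θ)).filter
              (fun p => p ∈ Q) ⊆ Q := fun p hp => (mem_filter.1 hp).2
          calc _ ≤ ∑ p ∈ (((S ×ˢ S).filter (fun p => ¬ |α p.2 - α p.1| ≤ θ)).filter
                (fun p => p ∈ Q)), (3 / θ : ℝ) := by
                apply sum_le_sum
                intro p hp
                rw [mem_filter, mem_filter] at hp
                have h8 := card_heights hn hθ0 (not_le.1 hp.1.2).le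
                  (fun i => G p.1 i ∧ G p.2 i ∧ bx n A α i p.1 = bx n A α i p.2)
                  (fun i hi => hi.2.2)
                have h9 : (1 : ℝ) ≤ 1 / θ := by rw [le_div_iff₀ hθ0]; linarith
                have h10 : (3 : ℝ) / θ = 2 / θ + 1 / θ := by ring
                rw [h10]; linarith
            _ ≤ ∑ p ∈ Q, (3 / θ : ℝ) := by
                apply sum_le_sum_of_subset_of_nonneg hsub
                intro _ _ _
                positivity
      _ = Q.card * (3 / θ) := by rw [sum_const, nsmul_eq_mul]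
  have h8 : c ^ 2 / 10 * M ^ 2 ≤ Q.card * (3 / θ) := by
    rw [h5, ← sum_filter_add_sum_filter_not (S ×ˢ S) (fun p => |α p.2 - α p.1| ≤ θ)] at h4
    linarith
  have h9 : (Q.card : ℝ) * (3 / θ) * (θ / 3) = Q.card := by field_simp
  calc c ^ 2 / 30 * θ * M ^ 2 = c ^ 2 / 10 * M ^ 2 * (θ / 3) := by ring
    _ ≤ Q.card * (3 / θ) * (θ / 3) := mul_le_mul_of_nonneg_right h8 (by positivity)
    _ = Q.card := h9

/-- the exact crossing of a pair -/
theorem cross_at {A α : ι → ℝ} {n : ℕ} (hn : 0 < n) {i : ℕ} {t t' : ι} {θ : ℝ} (hθ0 : 0 < θ)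
    (h : bx n A α i t = bx n A α i t') (hθ : θ < |α t' - α t|) :
    ∃ z : ℝ, |z - (i : ℝ) / n| ≤ 1 / (θ * n) ∧ A t + α t * z = A t' + α t' * z ∧
      |(A t + α t * z) - (A t + α t * ((i : ℝ) / n))| ≤ |α t| / (θ * n) := by
  have hn' : (0 : ℝ) < n := by exact_mod_cast hn
  have h1 := bx_close hn h
  have hne : α t' - α t ≠ 0 := by
    intro h0; rw [h0, abs_zero] at hθ; linarith
  set ε := (A t' - A t) + (α t' - α t) * ((i : ℝ) / n) with hε
  have hz : |(i : ℝ) / n - ε / (α t' - α t) - (i : ℝ) / n| ≤ 1 / (θ * n) := by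
    have : (i : ℝ) / n - ε / (α t' - α t) - (i : ℝ) / n = -(ε / (α t' - α t)) := by ring
    rw [this, abs_neg, abs_div, div_le_div_iff₀ (by positivity) (by positivity)]
    rw [lt_div_iff₀ hn'] at h1
    nlinarith [abs_nonneg ε]
  refine ⟨(i : ℝ) / n - ε / (α t' - α t), hz, ?_, ?_⟩
  · have h2 : (α t' - α t) * (ε / (α t' - α t)) = ε := by field_simp
    have h3 : ε = (A t' - A t) + (α t' - α t) * ((i : ℝ) / n) := hε
    nlinarith
  · have h4 : (A t + α t * ((i : ℝ) / n - ε / (α t' - α t))) - (A t + α t * ((i : ℝ) / n))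
        = α t * ((i : ℝ) / n - ε / (α t' - α t) - (i : ℝ) / n) := by ring
    rw [h4, abs_mul, div_eq_mul_one_div (|α t|)]
    exact mul_le_mul_of_nonneg_left hz (abs_nonneg _)

end Crest.Agent.R136.Cr318
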