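import Crest.Agent.R136.GeoW1_778
import Crest.Agent.R136.NetW3_191

/-!
# R136, GEO-D in the W-chart (helper778)

Coordinates of `ℝ³` in the order `(Y, A, B)`.  A flagged line of the W-chart (`FW`, NetW_191) with
unit `σ` (thickness of the container) has the sheet `qS κ σ f = (Y - zB - κA²) - σ g(z, A, B, Y)`,
`g = f.G`.  `TrueW κ σ f t` : `t` is the true line of `f` (it lies on the sheet; position and slope
`A` at its own height are those of the frame `f.g`).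

* `drift_bound` : the `B`-slope of `t` is `-κ c²` up to `σ Γ (..)`.
* `ra_eq`, `rb_eq`, `q_null` : relative positions in terms of the slots of `coW`.
* `q_bound` : `|qS (sheet of i) (line of j)| ≤ σ (s 17 + ρ' s 16 + ρ'² s 13 + σ E)`.
* `sheetS`, **`boxW_inSheet`** : a legal box of the chart `coW` around `i` is contained in one
  sheet of the class `Sh605.Sheet`.
-/

set_option autoImplicit false
set_option linter.unusedVariables false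

namespace Crest.Agent.R136.GeoW778

open Crest.Agent.R136.Sh605
open Crest.Agent.R136.NetW191

/-- the function vanishing on the flagged sheet -/
def qS (κ σ : ℝ) (f : FW) (z : ℝ) (x : V3) : ℝ :=
  ht κ z (x 1) (x 2) (x 0) - σ * evY f.G z (x 1) (x 2) (x 0)

theorem qS_eq (κ σ : ℝ) (f : FW) : qS κ σ f = qW κ (fun k => σ * f.G k) := by
  funext z x
  rw [qW_eq, evW_smul, evW_eq]
  rfl

/-- `t` is the true line of the flagged line `f` -/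
structure TrueW (κ σ : ℝ) (f : FW) (t : Ln4) : Prop where
  c : t.v 1 = f.g 1
  A : t.pos (f.g 0) 1 = f.g 2
  B : t.pos (f.g 0) 2 = f.g 3
  on : ∀ z, qS κ σ f z (t.pos z) = 0

/-- deviation of the `B`-slope from the null line -/
def dB (κ : ℝ) (f : FW) (t : Ln4) : ℝ := t.v 2 + κ * f.g 1 ^ 2

theorem TrueW.posA {κ σ : ℝ} {f : FW} {t : Ln4} (h : TrueW κ σ f t) (z : ℝ) :
    t.pos z 1 = f.g 2 + f.g 1 * (z - f.g 0) := by
  have h1 := h.A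
  have h2 := h.c
  simp only [Ln4.pos] at h1 ⊢
  rw [← h1, h2]; ring

theorem TrueW.posB {κ σ : ℝ} {f : FW} {t : Ln4} (h : TrueW κ σ f t) (z : ℝ) :
    t.pos z 2 = f.g 3 - κ * f.g 1 ^ 2 * (z - f.g 0) + dB κ f t * (z - f.g 0) := by
  have h1 := h.B
  simp only [Ln4.pos] at h1 ⊢
  rw [← h1, dB]; ring

theorem TrueW.ht_eq {κ σ : ℝ} {f : FW} {t : Ln4} (h : TrueW κ σ f t) (z : ℝ) :
    ht κ z (t.pos z 1) (t.pos z 2) (t.pos z 0) =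
      σ * evY f.G z (t.pos z 1) (t.pos z 2) (t.pos z 0) := by
  have := h.on z
  simp only [qS] at this
  linarith

theorem TrueW.drift {κ σ : ℝ} {f : FW} {t : Ln4} (h : TrueW κ σ f t) :
    dB κ f t = -(σ * (f.G 0 * t.v 0 ^ 2 + f.G 1 * (t.v 2 * t.v 0) + f.G 2 * (t.v 1 * t.v 0) +
      f.G 3 * t.v 2 ^ 2 + f.G 4 * t.v 0 + f.G 5 * (t.v 1 * t.v 2) + f.G 6 * t.v 1 ^ 2 +
      f.G 7 * t.v 2 + f.G 8 * t.v 1 + f.G 9)) := by
  have h0 := h.ht_eq 0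
  have h1 := h.ht_eq 1
  have h2 := h.ht_eq (-1)
  simp only [ht, evY, Ln4.pos] at h0 h1 h2
  rw [dB, ← h.c]
  linear_combination (1 / 2 : ℝ) * (2 * h0 - h1 - h2)

theorem TrueW.drift_bound {κ σ : ℝ} {f : FW} {t : Ln4} (h : TrueW κ σ f t) (hσ : 0 ≤ σ) {Γ V : ℝ}
    (hG : ∀ k, |f.G k| ≤ Γ) (hV : ∀ k, |t.v k| ≤ V) :
    |dB κ f t| ≤ σ * (Γ * (1 + 3 * V + 6 * V ^ 2)) := by
  rw [h.drift, abs_neg, abs_mul, abs_of_nonneg hσ]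
  refine mul_le_mul_of_nonneg_left ?_ hσ
  have b := a2 (a2 (a2 (a2 (a2 (a2 (a2 (a2 (a2
    (m2 (hG 0) (m2 (hV 0) (hV 0))) (m2 (hG 1) (m2 (hV 2) (hV 0)))) (m2 (hG 2) (m2 (hV 1) (hV 0))))
    (m2 (hG 3) (m2 (hV 2) (hV 2)))) (m2 (hG 4) (hV 0))) (m2 (hG 5) (m2 (hV 1) (hV 2))))
    (m2 (hG 6) (m2 (hV 1) (hV 1)))) (m2 (hG 7) (hV 2))) (m2 (hG 8) (hV 1))) (hG 9)
  have e : f.G 0 * t.v 0 ^ 2 + f.G 1 * (t.v 2 * t.v 0) + f.G 2 * (t.v 1 * t.v 0) +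
      f.G 3 * t.v 2 ^ 2 + f.G 4 * t.v 0 + f.G 5 * (t.v 1 * t.v 2) + f.G 6 * t.v 1 ^ 2 +
      f.G 7 * t.v 2 + f.G 8 * t.v 1 + f.G 9 =
      f.G 0 * (t.v 0 * t.v 0) + f.G 1 * (t.v 2 * t.v 0) + f.G 2 * (t.v 1 * t.v 0) +
      f.G 3 * (t.v 2 * t.v 2) + f.G 4 * t.v 0 + f.G 5 * (t.v 1 * t.v 2) +
      f.G 6 * (t.v 1 * t.v 1) + f.G 7 * t.v 2 + f.G 8 * t.v 1 + f.G 9 := by ring
  rw [e]
  refine b.trans (le_of_eq ?_)
  ring

/-! ### relative positions -/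

theorem ra_eq {κ σ : ℝ} {i j : FW} {t t' : Ln4} (ht : TrueW κ σ i t) (ht' : TrueW κ σ j t')
    (z : ℝ) : t'.pos z 1 - t.pos z 1 = coW κ i j 2 + (z - j.g 0) * coW κ i j 1 := by
  have e2 : coW κ i j 2 = rel κ i.g j.g 2 := coW_left κ i j 2
  have e1 : coW κ i j 1 = rel κ i.g j.g 1 := coW_left κ i j 1
  rw [ht.posA, ht'.posA, e1, e2]
  simp only [rel, Matrix.cons_val]
  ring

theorem rb_eq {κ σ : ℝ} {i j : FW} {t t' : Ln4} (ht : TrueW κ σ i t) (ht' : TrueW κ σ j t')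
    (z : ℝ) : (t'.pos z 2 - t.pos z 2) - (-2 * κ * i.g 1) * (t'.pos z 1 - t.pos z 1) =
      coW κ i j 3 - κ * (z - j.g 0) * coW κ i j 1 ^ 2 +
        (dB κ j t' * (z - j.g 0) - dB κ i t * (z - i.g 0)) := by
  have e3 : coW κ i j 3 = rel κ i.g j.g 3 := coW_left κ i j 3
  have e1 : coW κ i j 1 = rel κ i.g j.g 1 := coW_left κ i j 1
  rw [ht.posA, ht'.posA, ht.posB, ht'.posB, e1, e3]
  simp only [rel, Matrix.cons_val]
  ring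

/-- the difference of two flags along the null line of the second one -/
theorem q_null (κ : ℝ) (i j : FW) (z : ℝ) :
    evY (j.G - i.G) z (j.g 2 + j.g 1 * (z - j.g 0)) (j.g 3 - κ * j.g 1 ^ 2 * (z - j.g 0))
      (z * (j.g 3 - κ * j.g 1 ^ 2 * (z - j.g 0)) + κ * (j.g 2 + j.g 1 * (z - j.g 0)) ^ 2) =
      coW κ i j 17 + (z - j.g 0) * coW κ i j 16 + (z - j.g 0) ^ 2 * coW κ i j 13 := by
  have e17 : coW κ i j 17 = tr κ j.g (j.G - i.G) 13 := coW_right κ i j 13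
  have e16 : coW κ i j 16 = tr κ j.g (j.G - i.G) 12 := coW_right κ i j 12
  have e13 : coW κ i j 13 = tr κ j.g (j.G - i.G) 9 := coW_right κ i j 9
  have h := evY_tr κ j.g (j.G - i.G) (z - j.g 0) 0 0 0
  have h1 : evY (tr κ j.g (j.G - i.G)) (z - j.g 0) 0 0 0 =
      coW κ i j 17 + (z - j.g 0) * coW κ i j 16 + (z - j.g 0) ^ 2 * coW κ i j 13 := by
    rw [e17, e16, e13]
    simp only [evY]
    ring
  have h2 : ht κ (z - j.g 0) 0 0 0 = 0 := by simp [ht]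
  rw [h1, h2, mul_zero, sub_zero] at h
  rw [h]
  have f0 : fz j.g (z - j.g 0) = z := by simp [fz]
  have f1 : fA j.g (z - j.g 0) 0 = j.g 2 + j.g 1 * (z - j.g 0) := by simp only [fA]; ring
  have f2 : fB κ j.g (z - j.g 0) 0 0 = j.g 3 - κ * j.g 1 ^ 2 * (z - j.g 0) := by
    simp only [fB]; ring
  have f3 : fY κ j.g (z - j.g 0) 0 0 0 = z * (j.g 3 - κ * j.g 1 ^ 2 * (z - j.g 0)) +
      κ * (j.g 2 + j.g 1 * (z - j.g 0)) ^ 2 := by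
    simp only [fY]; ring
  rw [f0, f1, f2, f3]

/-- `Lipschitz bound for flags, in the coordinates `(Y, A, B)` -/
theorem evY_lip {G : Fin 14 → ℝ} {γ R X z : ℝ} {x x' : V3} (hG : ∀ k, |G k| ≤ γ) (hz : |z| ≤ R)
    (hx : ∀ k, |x k| ≤ X) (hx' : ∀ k, |x' k| ≤ X) :
    |evY G z (x 1) (x 2) (x 0) - evY G z (x' 1) (x' 2) (x' 0)| ≤
      γ * (1 + R + 4 * X) * (|x 0 - x' 0| + |x 1 - x' 1| + |x 2 - x' 2|) := by
  rw [← evW_eq, ← evW_eq]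
  exact evW_lip hG hz hx hx'

/-- distance of a true line to its null line, divided by `σ` -/
def DW (Γ R X V ρ' : ℝ) : ℝ :=
  Γ * (1 + R + 2 * X + R ^ 2 + 3 * (R * X) + 6 * X ^ 2) +
    (1 + R) * (Γ * (1 + 3 * V + 6 * V ^ 2) * ρ')

/-- the second-order constant of the W-chart -/
def EW (Γ R X V ρ' : ℝ) : ℝ := 2 * Γ * (1 + R + 4 * (X + 1)) * DW Γ R X V ρ'

theorem evY_sub (G G' : Fin 14 → ℝ) (z A B Y : ℝ) :
    evY (G - G') z A B Y = evY G z A B Y - evY G' z A B Y := by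
  simp only [evY, Pi.sub_apply]; ring

/-- **the value of the sheet of `i` along the line of `j`** -/
theorem q_bound {κ σ : ℝ} {i j : FW} {t' : Ln4} (ht' : TrueW κ σ j t')
    (hσ : 0 ≤ σ) {Γ V R X ρ' : ℝ} (hGi : ∀ k, |i.G k| ≤ Γ) (hGj : ∀ k, |j.G k| ≤ Γ)
    (hV : ∀ k, |t'.v k| ≤ V) {z : ℝ} (hz : |z| ≤ R) (hX : ∀ k, |t'.pos z k| ≤ X)
    (hzj : |z - j.g 0| ≤ ρ') {s : Fin 18 → ℝ} (hs : ∀ k, |coW κ i j k| ≤ s k)
    (hsm : σ * DW Γ R X V ρ' ≤ 1) :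
    |qS κ σ i z (t'.pos z)| ≤
      σ * (s 17 + ρ' * s 16 + ρ' ^ 2 * s 13 + σ * EW Γ R X V ρ') := by
  have hR0 : 0 ≤ R := (abs_nonneg _).trans hz
  have hX0 : 0 ≤ X := (abs_nonneg _).trans (hX 0)
  have hV0 : 0 ≤ V := (abs_nonneg _).trans (hV 0)
  have hΓ0 : 0 ≤ Γ := (abs_nonneg _).trans (hGi 0)
  have hρ0 : 0 ≤ ρ' := (abs_nonneg _).trans hzj
  have hh := ht'.ht_eq z
  -- the null point
  set x := t'.pos z with hx
  set B0 := j.g 3 - κ * j.g 1 ^ 2 * (z - j.g 0) with hB0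
  set Y0 := z * B0 + κ * (j.g 2 + j.g 1 * (z - j.g 0)) ^ 2 with hY0
  have hA : x 1 = j.g 2 + j.g 1 * (z - j.g 0) := ht'.posA z
  have hB : x 2 - B0 = dB κ j t' * (z - j.g 0) := by
    rw [hx, ht'.posB z, hB0]; ring
  have hY : x 0 - Y0 = ht κ z (x 1) (x 2) (x 0) + z * (x 2 - B0) := by
    simp only [ht, hY0, ← hA]; ring
  have bB : |x 2 - B0| ≤ σ * (Γ * (1 + 3 * V + 6 * V ^ 2) * ρ') := by
    rw [hB]
    refine (m2 (ht'.drift_bound hσ hGj hV) hzj).trans (le_of_eq ?_)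
    ring
  have bh : |ht κ z (x 1) (x 2) (x 0)| ≤
      σ * (Γ * (1 + R + 2 * X + R ^ 2 + 3 * (R * X) + 6 * X ^ 2)) := by
    rw [hh, abs_mul, abs_of_nonneg hσ, ← evW_eq]
    exact mul_le_mul_of_nonneg_left (evW_bound hGj hz hX) hσ
  have bY : |x 0 - Y0| ≤ σ * (Γ * (1 + R + 2 * X + R ^ 2 + 3 * (R * X) + 6 * X ^ 2)) +
      R * (σ * (Γ * (1 + 3 * V + 6 * V ^ 2) * ρ')) := by
    rw [hY]
    exact a2 bh (m2 hz bB)
  have bsum : |x 0 - Y0| + |x 2 - B0| ≤ σ * DW Γ R X V ρ' := by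
    refine (add_le_add bY bB).trans (le_of_eq ?_)
    simp only [DW]; ring
  have n0 := abs_nonneg (x 0 - Y0)
  have n2 := abs_nonneg (x 2 - B0)
  -- the null point as a vector
  have hx0 : ∀ k, |(![Y0, x 1, B0] : V3) k| ≤ X + 1 := by
    intro k
    fin_cases k
    · show |Y0| ≤ X + 1
      have := abs_sub (x 0) (x 0 - Y0)
      rw [sub_sub_cancel] at this
      linarith [hX 0]
    · show |x 1| ≤ X + 1
      linarith [hX 1]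
    · show |B0| ≤ X + 1
      have := abs_sub (x 2) (x 2 - B0)
      rw [sub_sub_cancel] at this
      linarith [hX 2]
  have hGd : ∀ k, |(j.G - i.G) k| ≤ 2 * Γ := by
    intro k
    rw [Pi.sub_apply]
    linarith [s2 (hGj k) (hGi k)]
  have hl := evY_lip (x := x) (x' := ![Y0, x 1, B0]) hGd hz
    (fun k => (hX k).trans (by linarith)) hx0
  simp only [Matrix.cons_val, sub_self, abs_zero, add_zero] at hl
  have hn := q_null κ i j z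
  rw [← hB0, ← hY0, ← hA] at hn
  have e : qS κ σ i z x = σ * (evY (j.G - i.G) z (x 1) B0 Y0 +
      (evY (j.G - i.G) z (x 1) (x 2) (x 0) - evY (j.G - i.G) z (x 1) B0 Y0)) := by
    simp only [qS, hh, evY_sub]
    ring
  rw [e, abs_mul, abs_of_nonneg hσ]
  refine mul_le_mul_of_nonneg_left ?_ hσ
  have b1 : |evY (j.G - i.G) z (x 1) B0 Y0| ≤ s 17 + ρ' * s 16 + ρ' ^ 2 * s 13 := by
    rw [hn]
    refine a2 (a2 (hs 17) (m2 hzj (hs 16))) (m2 ?_ (hs 13))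
    rw [abs_pow]
    exact pow_le_pow_left₀ (abs_nonneg _) hzj 2
  refine (a2 b1 hl).trans (add_le_add le_rfl ?_)
  have hc : 0 ≤ 2 * Γ * (1 + R + 4 * (X + 1)) := by positivity
  calc 2 * Γ * (1 + R + 4 * (X + 1)) * (|x 0 - Y0| + |x 2 - B0|)
      ≤ 2 * Γ * (1 + R + 4 * (X + 1)) * (σ * DW Γ R X V ρ') :=
        mul_le_mul_of_nonneg_left bsum hc
    _ = σ * EW Γ R X V ρ' := by simp only [EW]; ring

/-- lateral displacement, wide direction -/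
theorem ra_bound {κ σ : ℝ} {i j : FW} {t t' : Ln4} (ht : TrueW κ σ i t) (ht' : TrueW κ σ j t')
    {z ρ' : ℝ} (hzj : |z - j.g 0| ≤ ρ') {s : Fin 18 → ℝ} (hs : ∀ k, |coW κ i j k| ≤ s k) :
    |t'.pos z 1 - t.pos z 1| ≤ s 2 + ρ' * s 1 := by
  rw [ra_eq ht ht']
  exact a2 (hs 2) (m2 hzj (hs 1))

/-- lateral displacement, narrow direction -/
theorem rb_bound {κ σ : ℝ} {i j : FW} {t t' : Ln4} (ht : TrueW κ σ i t) (ht' : TrueW κ σ j t')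
    (hκ : |κ| ≤ 1) (hσ : 0 ≤ σ) {Γ V : ℝ} (hGi : ∀ k, |i.G k| ≤ Γ) (hGj : ∀ k, |j.G k| ≤ Γ)
    (hV : ∀ k, |t.v k| ≤ V) (hV' : ∀ k, |t'.v k| ≤ V) {z ρ' : ℝ} (hzi : |z - i.g 0| ≤ ρ')
    (hzj : |z - j.g 0| ≤ ρ') {s : Fin 18 → ℝ} (hs : ∀ k, |coW κ i j k| ≤ s k) :
    |(t'.pos z 2 - t.pos z 2) - (-2 * κ * i.g 1) * (t'.pos z 1 - t.pos z 1)| ≤
      s 3 + ρ' * s 1 ^ 2 + 2 * (σ * (Γ * (1 + 3 * V + 6 * V ^ 2)) * ρ') := by
  rw [rb_eq ht ht']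
  have h1 : |κ * (z - j.g 0) * coW κ i j 1 ^ 2| ≤ 1 * ρ' * s 1 ^ 2 := by
    refine m2 (m2 hκ hzj) ?_
    rw [abs_pow]
    exact pow_le_pow_left₀ (abs_nonneg _) (hs 1) 2
  have h2 := s2 (m2 (ht'.drift_bound hσ hGj hV') hzj) (m2 (ht.drift_bound hσ hGi hV) hzi)
  have := a2 (s2 (hs 3) h1) h2
  linarith

/-! ### the sheet of a flagged line and the boxes of the chart -/

theorem small_flag {σ Γ : ℝ} (hσ : 0 ≤ σ) {G : Fin 14 → ℝ} (hG : ∀ k, |G k| ≤ Γ) (k : Fin 14) :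
    |(fun k => σ * G k) k| ≤ σ * Γ := by
  show |σ * G k| ≤ σ * Γ
  rw [abs_mul, abs_of_nonneg hσ]
  exact mul_le_mul_of_nonneg_left (hG k) hσ

/-- **the sheet of a flagged line** -/
theorem sheetS {κ σ : ℝ} {i : FW} {t : Ln4} {e : ℝ} {Γ R X : ℝ} (hκ : |κ| ≤ 1) (hσ : 0 ≤ σ)
    (hG : ∀ k, |i.G k| ≤ Γ) (hγ : σ * Γ * (1 + R + 4 * X) ≤ 1 / 2) {w : V3} {a z0 ρ r0 : ℝ}
    (hR : ∀ z, z0 ≤ z → z ≤ z0 + ρ → |z| ≤ R) (hR0 : 0 ≤ R) (hX0 : 0 ≤ X)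
    (hX : ∀ z, z0 ≤ z → z ≤ z0 + ρ → |t.pos z 0| + w 0 ≤ X ∧
      |t.pos z 1| + (2 * w 1 + 2 * w 2) ≤ X ∧ |t.pos z 2| + (2 * w 1 + 2 * w 2) ≤ X)
    (ha : a ≤ w 2) (hw : w 2 ≤ w 1) (hr : r0 ≤ a) (hres : r0 * (2 + R + 2 * X) ≤ a) :
    Sheet (frm e) t w (qS κ σ i) a z0 ρ r0 := by
  rw [qS_eq]
  exact sheetW hκ (fun k => small_flag hσ hG k) hγ hR hR0 hX0 hX ha hw hr hres

/-- **GEO-D in the W-chart: a legal box around `i` is contained in the sheet of `i`.** -/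
theorem boxW_inSheet {κ σ : ℝ} {i j : FW} {t t' : Ln4} (ht : TrueW κ σ i t)
    (ht' : TrueW κ σ j t') (hκ : |κ| ≤ 1) (hσ : 0 ≤ σ) {Γ V R X ρ' E : ℝ}
    (hGi : ∀ k, |i.G k| ≤ Γ) (hGj : ∀ k, |j.G k| ≤ Γ) (hV : ∀ k, |t.v k| ≤ V)
    (hV' : ∀ k, |t'.v k| ≤ V) (hγ : σ * Γ * (1 + R + 4 * X) ≤ 1 / 2)
    (hsm : σ * DW Γ R X V ρ' ≤ 1) (he : |-2 * κ * i.g 1| ≤ E) {s : Fin 18 → ℝ}
    (hs : ∀ k, |coW κ i j k| ≤ s k) {w : V3} {a z0 ρ : ℝ} (hρ : 0 ≤ ρ)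
    (hR : ∀ z, z0 ≤ z → z ≤ z0 + ρ → |z| ≤ R)
    (hX : ∀ z, z0 ≤ z → z ≤ z0 + ρ → ∀ k, |t.pos z k| ≤ X ∧ |t'.pos z k| ≤ X)
    (hz : ∀ z, z0 ≤ z → z ≤ z0 + ρ → |z - i.g 0| ≤ ρ' ∧ |z - j.g 0| ≤ ρ') {Ra Rb : ℝ}
    (hRa : s 2 + ρ' * s 1 ≤ Ra)
    (hRb : s 3 + ρ' * s 1 ^ 2 + 2 * (σ * (Γ * (1 + 3 * V + 6 * V ^ 2)) * ρ') ≤ Rb)
    (h3 : σ * (s 17 + ρ' * s 16 + ρ' ^ 2 * s 13 + σ * EW Γ R X V ρ') ≤ a)
    (h1 : (1 + E ^ 2) * Ra + E * Rb ≤ w 1) (h2 : Rb ≤ w 2)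
    (h0 : 4 * a + (4 + 2 * R + 4 * X) * ((1 + E) * Ra + Rb) ≤ w 0) :
    InSheet t' (frm (-2 * κ * i.g 1)) t w (qS κ σ i) a z0 ρ := by
  have hend : z0 ≤ z0 ∧ z0 ≤ z0 + ρ := ⟨le_refl _, by linarith⟩
  have hq : ∀ z, z0 ≤ z → z ≤ z0 + ρ → |qS κ σ i z (t'.pos z)| ≤ a := by
    intro z hz0 hz1
    exact (q_bound ht' hσ hGi hGj hV' (hR z hz0 hz1) (fun k => (hX z hz0 hz1 k).2)
      (hz z hz0 hz1).2 hs hsm).trans h3
  have ha0 : 0 ≤ a := (abs_nonneg _).trans (hq z0 hend.1 hend.2)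
  have hq' : ∀ z, z0 ≤ z → z ≤ z0 + ρ → |qS κ σ i z (t.pos z)| ≤ a := by
    intro z hz0 hz1
    rw [ht.on z, abs_zero]
    exact ha0
  rw [qS_eq] at hq hq' ⊢
  exact lines_inSheet hκ (fun k => small_flag hσ hGi k) hγ hR he hX
    (fun z hz0 hz1 => (ra_bound ht ht' (hz z hz0 hz1).2 hs).trans hRa)
    (fun z hz0 hz1 => (rb_bound ht ht' hκ hσ hGi hGj hV hV' (hz z hz0 hz1).1
      (hz z hz0 hz1).2 hs).trans hRb) hq hq' h1 h2 h0 hρ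

end Crest.Agent.R136.GeoW778
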