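import Crest.Agent.R136.NetW7_191
import Crest.Agent.R136.GeoWD_778

/-!
# R136, thin branch (helper464): flags of the incidences, finite part

* `frW t z` : frame of the line `t` at the height `z`; `rel_fr`.
* `fixW κ σ t G₀` : the coefficients of `z², z, 1` are chosen such that the true line `t` lies on the
  sheet: `trueW_fix`; the other coefficients are not touched, in any frame: `tr_fix`.
* `mixW S a b` : slots of `S` from `a`, the others from `b`; `ShiftOk S` : a `z`-shift feeds a slot of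
  `S` only from slots of `S`.
* `FW1 κ σ S t z a b` : the flagged incidence; `own_tr` (its slots in its own frame), **`inv_FW1`** :
  the slots of `S` do not move along the line.
-/

set_option autoImplicit false
set_option linter.unusedVariables false

namespace Crest.Agent.R136.FlW464

open Crest.Agent.R136.Sh605
open Crest.Agent.R136.NetW191
open Crest.Agent.R136.GeoW778
open Crest.Agent.R136.EvW938 (SidesW tr_lip tr_size)

/-- frame of a line at the height `z` -/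
def frW (t : Ln4) (z : ℝ) : Fin 4 → ℝ := ![z, t.v 1, t.pos z 1, t.pos z 2]

/-- drift of the line -/
def drW (κ : ℝ) (t : Ln4) : ℝ := t.v 2 + κ * t.v 1 ^ 2

theorem rel_fr (κ : ℝ) (t : Ln4) (z z' : ℝ) :
    rel κ (frW t z) (frW t z') = ![z' - z, 0, 0, drW κ t * (z' - z)] := by
  funext k
  fin_cases k <;> simp [rel, frW, drW, Ln4.pos] <;> ring

/-! ### the exact flag -/

/-- the error of a sheet along the line, in units `σ` -/
noncomputable def erW (κ σ : ℝ) (t : Ln4) (G₀ : Fin 14 → ℝ) (z : ℝ) : ℝ :=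
  ht κ z (t.pos z 1) (t.pos z 2) (t.pos z 0) / σ - evY G₀ z (t.pos z 1) (t.pos z 2) (t.pos z 0)

/-- correction of the coefficients of `z²` (`9`), `z` (`12`), `1` (`13`) -/
noncomputable def crW (κ σ : ℝ) (t : Ln4) (G₀ : Fin 14 → ℝ) : Fin 14 → ℝ :=
  ![0, 0, 0, 0, 0, 0, 0, 0, 0,
    (erW κ σ t G₀ 1 + erW κ σ t G₀ (-1)) / 2 - erW κ σ t G₀ 0, 0, 0,
    (erW κ σ t G₀ 1 - erW κ σ t G₀ (-1)) / 2, erW κ σ t G₀ 0]

noncomputable def fixW (κ σ : ℝ) (t : Ln4) (G₀ : Fin 14 → ℝ) : Fin 14 → ℝ := G₀ + crW κ σ t G₀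

theorem erW_quad (κ σ : ℝ) (t : Ln4) (G₀ : Fin 14 → ℝ) (z : ℝ) :
    erW κ σ t G₀ z = ((erW κ σ t G₀ 1 + erW κ σ t G₀ (-1)) / 2 - erW κ σ t G₀ 0) * z ^ 2 +
      (erW κ σ t G₀ 1 - erW κ σ t G₀ (-1)) / 2 * z + erW κ σ t G₀ 0 := by
  simp only [erW, ht, evY, Ln4.pos]
  ring

/-- **the true line lies on the corrected sheet** -/
theorem trueW_fix {κ σ : ℝ} (hσ : 0 < σ) (t : Ln4) (z : ℝ) (G₀ : Fin 14 → ℝ) :
    TrueW κ σ ⟨frW t z, fixW κ σ t G₀⟩ t where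
  c := rfl
  A := rfl
  B := rfl
  on := fun z' => by
    have h1 := erW_quad κ σ t G₀ z'
    have h2 : evY (fixW κ σ t G₀) z' (t.pos z' 1) (t.pos z' 2) (t.pos z' 0) =
        evY G₀ z' (t.pos z' 1) (t.pos z' 2) (t.pos z' 0) + erW κ σ t G₀ z' := by
      rw [h1]
      simp only [fixW, crW, evY, Pi.add_apply, Matrix.cons_val]
      ring
    show ht κ z' (t.pos z' 1) (t.pos z' 2) (t.pos z' 0) -
      σ * evY (fixW κ σ t G₀) z' (t.pos z' 1) (t.pos z' 2) (t.pos z' 0) = 0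
    rw [h2]
    unfold erW
    field_simp
    ring

theorem tr_cr (κ σ : ℝ) (t : Ln4) (G₀ : Fin 14 → ℝ) (h : Fin 4 → ℝ) (k : Fin 14) (h9 : k ≠ 9)
    (h12 : k ≠ 12) (h13 : k ≠ 13) : tr κ h (crW κ σ t G₀) k = 0 := by
  fin_cases k <;> first
    | exact absurd rfl h9
    | exact absurd rfl h12
    | exact absurd rfl h13
    | simp [tr, crW]

/-- the other slots are not touched -/
theorem tr_fix (κ σ : ℝ) (t : Ln4) (G₀ : Fin 14 → ℝ) (h : Fin 4 → ℝ) (k : Fin 14) (h9 : k ≠ 9)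
    (h12 : k ≠ 12) (h13 : k ≠ 13) : tr κ h (fixW κ σ t G₀) k = tr κ h G₀ k := by
  rw [fixW, tr_add, Pi.add_apply, tr_cr κ σ t G₀ h k h9 h12 h13, add_zero]

/-! ### mixed slots -/

open Classical in
/-- slots of `S` from `a`, the others from `b` -/
noncomputable def mixW (S : Fin 14 → Prop) (a b : Fin 14 → ℝ) (k : Fin 14) : ℝ :=
  if S k then a k else b k

/-- a `z`-shift feeds the slots of `S` only from slots of `S` -/
def ShiftOk (S : Fin 14 → Prop) : Prop :=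
  (S 1 → S 0) ∧ (S 3 → S 0 ∧ S 1) ∧ (S 5 → S 2) ∧ (S 6 → S 4) ∧ (S 7 → S 4) ∧
    (S 10 → S 4 ∧ S 7) ∧ (S 11 → S 8)

theorem sh_mix {κ u : ℝ} {S : Fin 14 → Prop} (hS : ShiftOk S) {a c : Fin 14 → ℝ}
    (hac : ∀ k, S k → c k = a k) (k : Fin 14) (hk : S k) (h9 : k ≠ 9) (h12 : k ≠ 12)
    (h13 : k ≠ 13) : tr κ (sh u) c k = tr κ (sh u) a k := by
  obtain ⟨s1, s3, s5, s6, s7, s10, s11⟩ := hS
  fin_cases k
  · show tr κ (sh u) c 0 = tr κ (sh u) a 0
    rw [tr_sh0, tr_sh0, hac 0 hk]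
  · show tr κ (sh u) c 1 = tr κ (sh u) a 1
    rw [tr_sh1, tr_sh1, hac 1 hk, hac 0 (s1 hk)]
  · show tr κ (sh u) c 2 = tr κ (sh u) a 2
    rw [tr_sh2, tr_sh2, hac 2 hk]
  · show tr κ (sh u) c 3 = tr κ (sh u) a 3
    rw [tr_sh3, tr_sh3, hac 3 hk, hac 0 (s3 hk).1, hac 1 (s3 hk).2]
  · show tr κ (sh u) c 4 = tr κ (sh u) a 4
    rw [tr_sh4, tr_sh4, hac 4 hk]
  · show tr κ (sh u) c 5 = tr κ (sh u) a 5
    rw [tr_sh5, tr_sh5, hac 5 hk, hac 2 (s5 hk)]
  · show tr κ (sh u) c 6 = tr κ (sh u) a 6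
    rw [tr_sh6, tr_sh6, hac 6 hk, hac 4 (s6 hk)]
  · show tr κ (sh u) c 7 = tr κ (sh u) a 7
    rw [tr_sh7, tr_sh7, hac 7 hk, hac 4 (s7 hk)]
  · show tr κ (sh u) c 8 = tr κ (sh u) a 8
    rw [tr_sh8, tr_sh8, hac 8 hk]
  · exact absurd rfl h9
  · show tr κ (sh u) c 10 = tr κ (sh u) a 10
    rw [tr_sh10, tr_sh10, hac 10 hk, hac 4 (s10 hk).1, hac 7 (s10 hk).2]
  · show tr κ (sh u) c 11 = tr κ (sh u) a 11
    rw [tr_sh11, tr_sh11, hac 11 hk, hac 8 (s11 hk)]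
  · exact absurd rfl h12
  · exact absurd rfl h13

/-! ### the flagged incidence -/

/-- **the flagged incidence of the line `t` at the height `z`** : in its own frame the slots of `S` are
those of the sheet `a`, the others those of the sheet `b`. -/
noncomputable def FW1 (κ σ : ℝ) (S : Fin 14 → Prop) (t : Ln4) (z : ℝ) (a b : Fin 14 → ℝ) : FW :=
  ⟨frW t z, fixW κ σ t (tr κ (iv κ (frW t z)) (mixW S (tr κ (frW t z) a) (tr κ (frW t z) b)))⟩

theorem trueW_FW1 {κ σ : ℝ} (hσ : 0 < σ) (S : Fin 14 → Prop) (t : Ln4) (z : ℝ)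
    (a b : Fin 14 → ℝ) : TrueW κ σ (FW1 κ σ S t z a b) t := trueW_fix hσ t z _

theorem FW1_g (κ σ : ℝ) (S : Fin 14 → Prop) (t : Ln4) (z : ℝ) (a b : Fin 14 → ℝ) :
    (FW1 κ σ S t z a b).g = frW t z := rfl

/-- slots in the own frame -/
theorem own_tr (κ σ : ℝ) (S : Fin 14 → Prop) (t : Ln4) (z : ℝ) (a b : Fin 14 → ℝ) (k : Fin 14)
    (h9 : k ≠ 9) (h12 : k ≠ 12) (h13 : k ≠ 13) :
    tr κ (frW t z) (FW1 κ σ S t z a b).G k =
      mixW S (tr κ (frW t z) a) (tr κ (frW t z) b) k := by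
  show tr κ (frW t z) (fixW κ σ t _) k = _
  rw [tr_fix κ σ t _ _ k h9 h12 h13, tr_iv]

/-- differences with another sheet, in the own frame -/
theorem own_sub (κ σ : ℝ) (S : Fin 14 → Prop) (t : Ln4) (z : ℝ) (a b m : Fin 14 → ℝ) (k : Fin 14)
    (h9 : k ≠ 9) (h12 : k ≠ 12) (h13 : k ≠ 13) :
    tr κ (frW t z) ((FW1 κ σ S t z a b).G - m) k =
      mixW S (tr κ (frW t z) a) (tr κ (frW t z) b) k - tr κ (frW t z) m k := by
  rw [tr_sub, Pi.sub_apply, own_tr κ σ S t z a b k h9 h12 h13]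

theorem sidesW_one : SidesW (fun _ => 1) where
  pos := fun _ => zero_le_one
  wall := fun k l hl => by simp

/-- crude Lipschitz bound of the substitution -/
theorem tr_lip1 {κ : ℝ} (hκ : |κ| ≤ 1) {h h' : Fin 4 → ℝ} {w : Fin 14 → ℝ} {K τ : ℝ}
    (hK : 1 ≤ K) (hτ : 0 ≤ τ) (h1 : ∀ i, |h i| ≤ K) (h2 : ∀ i, |h' i| ≤ K)
    (h3 : ∀ i, |h i - h' i| ≤ K * τ) (w1 : ∀ q, |w q| ≤ K) (q : Fin 14) :
    |tr κ h w q - tr κ h' w q| ≤ 470 * K ^ 7 * τ := by
  have := tr_lip (w' := w) hκ sidesW_one hK hτ (fun i => by simpa using h1 i)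
    (fun i => by simpa using h2 i) (fun i => by simpa using h3 i) (fun q => by simpa using w1 q)
    (fun q => by
      rw [sub_self, abs_zero, mul_one]
      exact mul_nonneg (by linarith) hτ) q
  simpa using this

theorem tr_size1 {κ : ℝ} (hκ : |κ| ≤ 1) {h : Fin 4 → ℝ} {w : Fin 14 → ℝ} {K : ℝ}
    (hK : 1 ≤ K) (h1 : ∀ i, |h i| ≤ K) (w1 : ∀ q, |w q| ≤ K) (q : Fin 14) :
    |tr κ h w q| ≤ 470 * K ^ 7 := by
  have := tr_size hκ sidesW_one hK (fun i => by simpa using h1 i) (fun q => by simpa using w1 q) q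
  simpa using this

/-- **the slots of `S` do not move along the line** -/
theorem inv_FW1 {κ σ : ℝ} (hκ : |κ| ≤ 1) {S : Fin 14 → Prop} (hS : ShiftOk S) (t : Ln4)
    {z z' : ℝ} {a b b' : Fin 14 → ℝ} {K : ℝ} (hK : 1 ≤ K) (hz : |z' - z| ≤ K)
    (hd : |drW κ t * (z' - z)| ≤ K) (ha : ∀ q, |tr κ (frW t z) a q| ≤ K)
    (hb : ∀ q, |tr κ (frW t z) b q| ≤ K) (k : Fin 14) (hk : S k) (h9 : k ≠ 9) (h12 : k ≠ 12)
    (h13 : k ≠ 13) :
    |coW κ (FW1 κ σ S t z a b) (FW1 κ σ S t z' a b') (Fin.natAdd 4 k)| ≤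
      940 * K ^ 7 * |drW κ t * (z' - z)| := by
  classical
  have e0 : coW κ (FW1 κ σ S t z a b) (FW1 κ σ S t z' a b') (Fin.natAdd 4 k) =
      tr κ (frW t z') ((FW1 κ σ S t z' a b').G - (FW1 κ σ S t z a b).G) k :=
    coW_right κ _ _ k
  set c : Fin 14 → ℝ := mixW S (tr κ (frW t z) a) (tr κ (frW t z) b) with hc
  have e1 : tr κ (frW t z') (FW1 κ σ S t z' a b').G k = tr κ (frW t z') a k := by
    rw [own_tr κ σ S t z' a b' k h9 h12 h13, mixW, if_pos hk]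
  have e2 : tr κ (frW t z') (FW1 κ σ S t z a b).G k =
      tr κ (rel κ (frW t z) (frW t z')) c k := by
    show tr κ (frW t z') (fixW κ σ t (tr κ (iv κ (frW t z)) c)) k = _
    rw [tr_fix κ σ t _ _ k h9 h12 h13, tr_rel κ (frW t z) (frW t z'), tr_iv]
  have e3 : tr κ (frW t z') a k =
      tr κ (rel κ (frW t z) (frW t z')) (tr κ (frW t z) a) k := by
    rw [← tr_rel]
  rw [e0, tr_sub, Pi.sub_apply, e1, e2, e3, rel_fr]
  set u := z' - z with hu
  set δ := drW κ t * u with hδ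
  have hcK : ∀ q, |c q| ≤ K := by
    intro q
    rw [hc]; unfold mixW
    split_ifs
    · exact ha q
    · exact hb q
  have hac : ∀ k, S k → c k = tr κ (frW t z) a k := fun k hk => by
    rw [hc]; unfold mixW; rw [if_pos hk]
  have h1 : ∀ i, |(![u, 0, 0, δ] : Fin 4 → ℝ) i| ≤ K := by
    intro i
    fin_cases i
    · exact hz
    · show |(0 : ℝ)| ≤ K
      rw [abs_zero]; linarith
    · show |(0 : ℝ)| ≤ K
      rw [abs_zero]; linarith
    · exact hd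
  have h2 : ∀ i, |sh u i| ≤ K := by
    intro i
    fin_cases i
    · exact hz
    · show |(0 : ℝ)| ≤ K
      rw [abs_zero]; linarith
    · show |(0 : ℝ)| ≤ K
      rw [abs_zero]; linarith
    · show |(0 : ℝ)| ≤ K
      rw [abs_zero]; linarith
  have h3 : ∀ i, |(![u, 0, 0, δ] : Fin 4 → ℝ) i - sh u i| ≤ K * |δ| := by
    have h0 : 0 ≤ K * |δ| := mul_nonneg (by linarith) (abs_nonneg _)
    intro i
    fin_cases i
    · show |u - u| ≤ _
      rw [sub_self, abs_zero]; exact h0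
    · show |(0 : ℝ) - 0| ≤ _
      rw [sub_self, abs_zero]; exact h0
    · show |(0 : ℝ) - 0| ≤ _
      rw [sub_self, abs_zero]; exact h0
    · show |δ - 0| ≤ _
      rw [sub_zero]
      nlinarith [abs_nonneg δ]
  have f1 := tr_lip1 hκ hK (abs_nonneg δ) h1 h2 h3 ha k
  have f2 := tr_lip1 hκ hK (abs_nonneg δ) h1 h2 h3 hcK k
  have f3 := sh_mix (κ := κ) (u := u) hS hac k hk h9 h12 h13
  have e4 : tr κ ![u, 0, 0, δ] (tr κ (frW t z) a) k - tr κ ![u, 0, 0, δ] c k =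
      (tr κ ![u, 0, 0, δ] (tr κ (frW t z) a) k - tr κ (sh u) (tr κ (frW t z) a) k) -
      (tr κ ![u, 0, 0, δ] c k - tr κ (sh u) c k) := by
    rw [f3]; ring
  rw [e4]
  refine (abs_sub _ _).trans ((add_le_add f1 f2).trans (le_of_eq ?_))
  ring

end Crest.Agent.R136.FlW464
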