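import Crest.Agent.R136.EvW1_938

/-!
# The W-chart (helper191), part 7: corrected labels (re-centring of a resonant slot)

`iv` inverse frame.  `FW.cor κ E f` : the flag of `f` plus the quadratic polynomial whose
coefficients in the frame of `f` are `E`.  `coW_cor` : the relative coordinates of corrected flags
(exact).  `fake_rot` : if the corrected flags of one line at two heights agree then the own rotation
of the original flags is `tr (sh u) E - E` (rows `fake_*`).  `colzA .. colYY`, `tr_zA .. tr_YY` : the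
six monomials which contain the height, in a new frame.
-/

set_option autoImplicit false
set_option linter.unusedSimpArgs false
set_option linter.unreachableTactic false
set_option linter.unusedTactic false

namespace Crest.Agent.R136.NetW191

open Finset Crest.Agent.R136.Net191

/-! ### inverse frames -/

/-- inverse frame -/
def iv (κ : ℝ) (g : Fin 4 → ℝ) : Fin 4 → ℝ := rel κ g 0

lemma mul_iv (κ : ℝ) (g : Fin 4 → ℝ) : mul κ (iv κ g) g = 0 := by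
  funext k
  fin_cases k <;> simp [mul, iv, rel]
  ring

lemma mul_iv' (κ : ℝ) (g : Fin 4 → ℝ) : mul κ g (iv κ g) = 0 := mul_rel κ g 0

lemma tr_id (κ : ℝ) (w : Fin 14 → ℝ) : tr κ 0 w = w := by
  funext k
  fin_cases k
  · change tr κ 0 w 0 = w 0
    simp [tr0]
  · change tr κ 0 w 1 = w 1
    simp [tr1]
  · change tr κ 0 w 2 = w 2
    simp [tr2]
  · change tr κ 0 w 3 = w 3
    simp [tr3]
  · change tr κ 0 w 4 = w 4
    simp [tr4]
  · change tr κ 0 w 5 = w 5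
    simp [tr5]
  · change tr κ 0 w 6 = w 6
    simp [tr6]
  · change tr κ 0 w 7 = w 7
    simp [tr7]
  · change tr κ 0 w 8 = w 8
    simp [tr8]
  · change tr κ 0 w 9 = w 9
    simp [tr9]
  · change tr κ 0 w 10 = w 10
    simp [tr10]
  · change tr κ 0 w 11 = w 11
    simp [tr11]
  · change tr κ 0 w 12 = w 12
    simp [tr12]
  · change tr κ 0 w 13 = w 13
    simp [tr13]

theorem tr_iv (κ : ℝ) (g : Fin 4 → ℝ) (w : Fin 14 → ℝ) : tr κ g (tr κ (iv κ g) w) = w := by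
  rw [← tr_mul, mul_iv, tr_id]

theorem iv_tr (κ : ℝ) (g : Fin 4 → ℝ) (w : Fin 14 → ℝ) : tr κ (iv κ g) (tr κ g w) = w := by
  rw [← tr_mul, mul_iv', tr_id]

/-- change of frame -/
lemma tr_rel (κ : ℝ) (g g' : Fin 4 → ℝ) (w : Fin 14 → ℝ) :
    tr κ g' w = tr κ (rel κ g g') (tr κ g w) := by
  rw [← tr_mul, mul_rel]

/-- `tr κ h w q - w q` is small if `h` is small, exact form -/
lemma tr_smul (κ c : ℝ) (h : Fin 4 → ℝ) (w : Fin 14 → ℝ) : tr κ h (c • w) = c • tr κ h w := by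
  funext q
  have e : ∀ L : List Tm, (L.map (Tm.ev κ h (c • w))).sum = c * (L.map (Tm.ev κ h w)).sum := by
    intro L
    induction L with
    | nil => simp
    | cons a L ih =>
      simp only [List.map_cons, List.sum_cons, ih, mul_add]
      congr 1
      simp only [Tm.ev, Pi.smul_apply, smul_eq_mul]
      ring
  rw [Pi.smul_apply, smul_eq_mul, tr_tms, tr_tms, e, Pi.smul_apply, smul_eq_mul]
  ring

/-! ### corrected flags -/

/-- **corrected flag**: add the polynomial with coefficients `E` in the frame of `f` -/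
def FW.cor (κ : ℝ) (E : Fin 14 → ℝ) (f : FW) : FW := ⟨f.g, f.G + tr κ (iv κ f.g) E⟩

@[simp] lemma FW.cor_g (κ : ℝ) (E : Fin 14 → ℝ) (f : FW) : (f.cor κ E).g = f.g := rfl

lemma FW.cor_G (κ : ℝ) (E : Fin 14 → ℝ) (f : FW) :
    (f.cor κ E).G = f.G + tr κ (iv κ f.g) E := rfl

lemma FW.cor_zero (κ : ℝ) (f : FW) : f.cor κ 0 = f := by
  cases f
  simp [FW.cor, tr_zero]

lemma FW.cor_cor (κ : ℝ) (E E' : Fin 14 → ℝ) (f : FW) : (f.cor κ E).cor κ E' = f.cor κ (E + E') := by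
  simp only [FW.cor, tr_add, add_assoc]

/-- the corrected flag in its own frame -/
lemma own_cor (κ : ℝ) (E : Fin 14 → ℝ) (f : FW) :
    tr κ f.g (f.cor κ E).G = tr κ f.g f.G + E := by
  rw [FW.cor_G, tr_add, tr_iv]

/-- **relative flag of corrected flags**, constants `E` and `E'` -/
theorem flg_cor (κ : ℝ) (E E' : Fin 14 → ℝ) (f f' : FW) :
    tr κ f'.g ((f'.cor κ E').G - (f.cor κ E).G) =
      tr κ f'.g (f'.G - f.G) + (E' - tr κ (rel κ f.g f'.g) E) := by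
  have h1 : (f'.cor κ E').G - (f.cor κ E).G =
      (f'.G - f.G) + (tr κ (iv κ f'.g) E' - tr κ (iv κ f.g) E) := by
    rw [FW.cor_G, FW.cor_G]; abel
  have h2 : tr κ f'.g (tr κ (iv κ f.g) E) = tr κ (rel κ f.g f'.g) E := by
    rw [tr_rel κ f.g f'.g, tr_iv]
  have h3 : tr κ f'.g (tr κ (iv κ f'.g) E' - tr κ (iv κ f.g) E) =
      E' - tr κ (rel κ f.g f'.g) E := by
    rw [tr_sub, tr_iv, h2]
  rw [h1, tr_add, h3]

/-- **relative coordinates of corrected flags** -/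
theorem coW_cor (κ : ℝ) (E E' : Fin 14 → ℝ) (f f' : FW) :
    coW κ (f.cor κ E) (f'.cor κ E') = coW κ f f' +
      Fin.append (m := 4) (n := 14) 0 (E' - tr κ (rel κ f.g f'.g) E) := by
  funext k
  refine Fin.addCases (m := 4) (n := 14) (fun a => ?_) (fun q => ?_) k
  · rw [Pi.add_apply, coW_left, coW_left, Fin.append_left]
    simp
  · rw [Pi.add_apply, coW_right, coW_right, Fin.append_right, FW.cor_g, flg_cor, Pi.add_apply]

lemma coW_cor_left (κ : ℝ) (E E' : Fin 14 → ℝ) (f f' : FW) (i : Fin 4) :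
    coW κ (f.cor κ E) (f'.cor κ E') (Fin.castAdd 14 i) = coW κ f f' (Fin.castAdd 14 i) := by
  rw [coW_cor, Pi.add_apply, Fin.append_left]; simp

lemma coW_cor_right (κ : ℝ) (E E' : Fin 14 → ℝ) (f f' : FW) (q : Fin 14) :
    coW κ (f.cor κ E) (f'.cor κ E') (Fin.natAdd 4 q) = coW κ f f' (Fin.natAdd 4 q) +
      (E' q - tr κ (rel κ f.g f'.g) E q) := by
  rw [coW_cor, Pi.add_apply, Fin.append_right]; rfl

/-- **sizes**: a correction of natural size changes the relative coordinates by natural size -/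
theorem coW_cor_size {κ : ℝ} (hκ : |κ| ≤ 1) {X : Fin 18 → ℝ} (hX : EvW938.SidesW X) {K : ℝ}
    (hK : 1 ≤ K) {f f' : FW} (h1 : ∀ i : Fin 4, |rel κ f.g f'.g i| ≤ K * X (Fin.castAdd 14 i))
    {E : Fin 14 → ℝ} (hE : ∀ q : Fin 14, |E q| ≤ K * X (Fin.natAdd 4 q)) (s : Fin 18) :
    |coW κ (f.cor κ E) (f'.cor κ E) s - coW κ f f' s| ≤ 471 * K ^ 7 * X s := by
  have hK0 : 0 ≤ K := by linarith
  refine Fin.addCases (m := 4) (n := 14) (fun a => ?_) (fun q => ?_) s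
  · rw [coW_cor_left, sub_self, abs_zero]
    have := hX.pos (Fin.castAdd 14 a)
    positivity
  · rw [coW_cor_right, add_sub_cancel_left]
    have g1 := EvW938.tr_size hκ hX hK h1 hE q
    have g2 := hE q
    have g3 : K * X (Fin.natAdd 4 q) ≤ K ^ 7 * X (Fin.natAdd 4 q) := by
      have h6 : K ≤ K ^ 7 := by
        calc K = K ^ 1 := (pow_one K).symm
          _ ≤ K ^ 7 := pow_le_pow_right₀ hK (by norm_num)
      exact mul_le_mul_of_nonneg_right h6 (hX.pos _)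
    have g4 := abs_sub (E q) (tr κ (rel κ f.g f'.g) E q)
    calc |E q - tr κ (rel κ f.g f'.g) E q| ≤ |E q| + |tr κ (rel κ f.g f'.g) E q| := g4
      _ ≤ K ^ 7 * X (Fin.natAdd 4 q) + 470 * K ^ 7 * X (Fin.natAdd 4 q) :=
        add_le_add (g2.trans g3) g1
      _ = 471 * K ^ 7 * X (Fin.natAdd 4 q) := by ring

/-- **close frames**: the correction is Lipschitz in the relative frame (for pairs with narrow
relative frame it disappears up to `τ`) -/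
theorem coW_cor_near {κ : ℝ} (hκ : |κ| ≤ 1) {X : Fin 18 → ℝ} (hX : EvW938.SidesW X) {K τ : ℝ}
    (hK : 1 ≤ K) (hτ : 0 ≤ τ) (hτ1 : τ ≤ 1) {f f' : FW}
    (h1 : ∀ i : Fin 4, |rel κ f.g f'.g i| ≤ K * τ * X (Fin.castAdd 14 i))
    {E : Fin 14 → ℝ} (hE : ∀ q : Fin 14, |E q| ≤ K * X (Fin.natAdd 4 q)) (s : Fin 18) :
    |coW κ (f.cor κ E) (f'.cor κ E) s - coW κ f f' s| ≤ 470 * K ^ 7 * τ * X s := by
  have hK0 : 0 ≤ K := by linarith
  refine Fin.addCases (m := 4) (n := 14) (fun a => ?_) (fun q => ?_) s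
  · rw [coW_cor_left, sub_self, abs_zero]
    have := hX.pos (Fin.castAdd 14 a)
    positivity
  · rw [coW_cor_right, add_sub_cancel_left]
    have g0 : ∀ i : Fin 4, |(0 : Fin 4 → ℝ) i| ≤ K * X (Fin.castAdd 14 i) := fun i => by
      have := hX.pos (Fin.castAdd 14 i)
      simp only [Pi.zero_apply, abs_zero]; positivity
    have g1 : ∀ i : Fin 4, |rel κ f.g f'.g i| ≤ K * X (Fin.castAdd 14 i) := fun i => by
      refine (h1 i).trans ?_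
      have := hX.pos (Fin.castAdd 14 i)
      have h6 : K * τ ≤ K := by nlinarith
      exact mul_le_mul_of_nonneg_right h6 this
    have g := EvW938.tr_lip (h := 0) (h' := rel κ f.g f'.g) (w := E) (w' := E) hκ hX hK hτ g0 g1
      (fun i => by rw [Pi.zero_apply, zero_sub, abs_neg]; exact h1 i) hE
      (fun q => by
        have := hX.pos (Fin.natAdd 4 q)
        rw [sub_self, abs_zero]; positivity) q
    rwa [tr_id] at g

/-! ### the fake rotation -/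

/-- **fake rotation**: `f`, `f'` = the same line at the heights `z`, `z + u`; if the corrected flags
agree then the own rotation of the original flags is `tr (sh u) E - E'` -/
theorem fake_rot {κ u : ℝ} {E E' : Fin 14 → ℝ} {f f' : FW} (hl : f'.g = mul κ f.g (sh u)) :
    tr κ f'.g (f'.G - f.G) = tr κ f'.g ((f'.cor κ E').G - (f.cor κ E).G) +
      (tr κ (sh u) E - E') := by
  rw [flg_cor, rel_of_mul hl]
  abel

section

variable (κ u ψ : ℝ)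

/-- rotation of the monomial `zA` -/
lemma fake_zA : tr κ (sh u) (Pi.single 8 ψ) - Pi.single 8 ψ =
    ![0, 0, 0, 0, 0, 0, 0, 0, 0, 0, 0, ψ * u, 0, 0] := by
  funext k
  rw [Pi.sub_apply]
  fin_cases k
  · change tr κ (sh u) (Pi.single 8 ψ) 0 - (Pi.single 8 ψ : Fin 14 → ℝ) 0 = 0
    rw [tr_sh0]
    simp [Pi.single_apply]
    try ring
  · change tr κ (sh u) (Pi.single 8 ψ) 1 - (Pi.single 8 ψ : Fin 14 → ℝ) 1 = 0
    rw [tr_sh1]
    simp [Pi.single_apply]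
    try ring
  · change tr κ (sh u) (Pi.single 8 ψ) 2 - (Pi.single 8 ψ : Fin 14 → ℝ) 2 = 0
    rw [tr_sh2]
    simp [Pi.single_apply]
    try ring
  · change tr κ (sh u) (Pi.single 8 ψ) 3 - (Pi.single 8 ψ : Fin 14 → ℝ) 3 = 0
    rw [tr_sh3]
    simp [Pi.single_apply]
    try ring
  · change tr κ (sh u) (Pi.single 8 ψ) 4 - (Pi.single 8 ψ : Fin 14 → ℝ) 4 = 0
    rw [tr_sh4]
    simp [Pi.single_apply]
    try ring
  · change tr κ (sh u) (Pi.single 8 ψ) 5 - (Pi.single 8 ψ : Fin 14 → ℝ) 5 = 0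
    rw [tr_sh5]
    simp [Pi.single_apply]
    try ring
  · change tr κ (sh u) (Pi.single 8 ψ) 6 - (Pi.single 8 ψ : Fin 14 → ℝ) 6 = 0
    rw [tr_sh6]
    simp [Pi.single_apply]
    try ring
  · change tr κ (sh u) (Pi.single 8 ψ) 7 - (Pi.single 8 ψ : Fin 14 → ℝ) 7 = 0
    rw [tr_sh7]
    simp [Pi.single_apply]
    try ring
  · change tr κ (sh u) (Pi.single 8 ψ) 8 - (Pi.single 8 ψ : Fin 14 → ℝ) 8 = 0
    rw [tr_sh8]
    simp [Pi.single_apply]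
    try ring
  · change tr κ (sh u) (Pi.single 8 ψ) 9 - (Pi.single 8 ψ : Fin 14 → ℝ) 9 = 0
    rw [tr_sh9]
    simp [Pi.single_apply]
    try ring
  · change tr κ (sh u) (Pi.single 8 ψ) 10 - (Pi.single 8 ψ : Fin 14 → ℝ) 10 = 0
    rw [tr_sh10]
    simp [Pi.single_apply]
    try ring
  · change tr κ (sh u) (Pi.single 8 ψ) 11 - (Pi.single 8 ψ : Fin 14 → ℝ) 11 = ψ * u
    rw [tr_sh11]
    simp [Pi.single_apply]
    try ring
  · change tr κ (sh u) (Pi.single 8 ψ) 12 - (Pi.single 8 ψ : Fin 14 → ℝ) 12 = 0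
    rw [tr_sh12]
    simp [Pi.single_apply]
    try ring
  · change tr κ (sh u) (Pi.single 8 ψ) 13 - (Pi.single 8 ψ : Fin 14 → ℝ) 13 = 0
    rw [tr_sh13]
    simp [Pi.single_apply]
    try ring

/-- rotation of the monomial `zB` -/
lemma fake_zB : tr κ (sh u) (Pi.single 7 ψ) - Pi.single 7 ψ =
    ![0, 0, 0, 0, 0, 0, 0, 0, 0, 0, ψ * u, 0, 0, 0] := by
  funext k
  rw [Pi.sub_apply]
  fin_cases k
  · change tr κ (sh u) (Pi.single 7 ψ) 0 - (Pi.single 7 ψ : Fin 14 → ℝ) 0 = 0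
    rw [tr_sh0]
    simp [Pi.single_apply]
    try ring
  · change tr κ (sh u) (Pi.single 7 ψ) 1 - (Pi.single 7 ψ : Fin 14 → ℝ) 1 = 0
    rw [tr_sh1]
    simp [Pi.single_apply]
    try ring
  · change tr κ (sh u) (Pi.single 7 ψ) 2 - (Pi.single 7 ψ : Fin 14 → ℝ) 2 = 0
    rw [tr_sh2]
    simp [Pi.single_apply]
    try ring
  · change tr κ (sh u) (Pi.single 7 ψ) 3 - (Pi.single 7 ψ : Fin 14 → ℝ) 3 = 0
    rw [tr_sh3]
    simp [Pi.single_apply]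
    try ring
  · change tr κ (sh u) (Pi.single 7 ψ) 4 - (Pi.single 7 ψ : Fin 14 → ℝ) 4 = 0
    rw [tr_sh4]
    simp [Pi.single_apply]
    try ring
  · change tr κ (sh u) (Pi.single 7 ψ) 5 - (Pi.single 7 ψ : Fin 14 → ℝ) 5 = 0
    rw [tr_sh5]
    simp [Pi.single_apply]
    try ring
  · change tr κ (sh u) (Pi.single 7 ψ) 6 - (Pi.single 7 ψ : Fin 14 → ℝ) 6 = 0
    rw [tr_sh6]
    simp [Pi.single_apply]
    try ring
  · change tr κ (sh u) (Pi.single 7 ψ) 7 - (Pi.single 7 ψ : Fin 14 → ℝ) 7 = 0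
    rw [tr_sh7]
    simp [Pi.single_apply]
    try ring
  · change tr κ (sh u) (Pi.single 7 ψ) 8 - (Pi.single 7 ψ : Fin 14 → ℝ) 8 = 0
    rw [tr_sh8]
    simp [Pi.single_apply]
    try ring
  · change tr κ (sh u) (Pi.single 7 ψ) 9 - (Pi.single 7 ψ : Fin 14 → ℝ) 9 = 0
    rw [tr_sh9]
    simp [Pi.single_apply]
    try ring
  · change tr κ (sh u) (Pi.single 7 ψ) 10 - (Pi.single 7 ψ : Fin 14 → ℝ) 10 = ψ * u
    rw [tr_sh10]
    simp [Pi.single_apply]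
    try ring
  · change tr κ (sh u) (Pi.single 7 ψ) 11 - (Pi.single 7 ψ : Fin 14 → ℝ) 11 = 0
    rw [tr_sh11]
    simp [Pi.single_apply]
    try ring
  · change tr κ (sh u) (Pi.single 7 ψ) 12 - (Pi.single 7 ψ : Fin 14 → ℝ) 12 = 0
    rw [tr_sh12]
    simp [Pi.single_apply]
    try ring
  · change tr κ (sh u) (Pi.single 7 ψ) 13 - (Pi.single 7 ψ : Fin 14 → ℝ) 13 = 0
    rw [tr_sh13]
    simp [Pi.single_apply]
    try ring

/-- rotation of the monomial `zY` -/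
lemma fake_zY : tr κ (sh u) (Pi.single 4 ψ) - Pi.single 4 ψ =
    ![0, 0, 0, 0, 0, 0, κ * ψ * u, 2 * ψ * u, 0, 0, ψ * u ^ 2, 0, 0, 0] := by
  funext k
  rw [Pi.sub_apply]
  fin_cases k
  · change tr κ (sh u) (Pi.single 4 ψ) 0 - (Pi.single 4 ψ : Fin 14 → ℝ) 0 = 0
    rw [tr_sh0]
    simp [Pi.single_apply]
    try ring
  · change tr κ (sh u) (Pi.single 4 ψ) 1 - (Pi.single 4 ψ : Fin 14 → ℝ) 1 = 0
    rw [tr_sh1]
    simp [Pi.single_apply]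
    try ring
  · change tr κ (sh u) (Pi.single 4 ψ) 2 - (Pi.single 4 ψ : Fin 14 → ℝ) 2 = 0
    rw [tr_sh2]
    simp [Pi.single_apply]
    try ring
  · change tr κ (sh u) (Pi.single 4 ψ) 3 - (Pi.single 4 ψ : Fin 14 → ℝ) 3 = 0
    rw [tr_sh3]
    simp [Pi.single_apply]
    try ring
  · change tr κ (sh u) (Pi.single 4 ψ) 4 - (Pi.single 4 ψ : Fin 14 → ℝ) 4 = 0
    rw [tr_sh4]
    simp [Pi.single_apply]
    try ring
  · change tr κ (sh u) (Pi.single 4 ψ) 5 - (Pi.single 4 ψ : Fin 14 → ℝ) 5 = 0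
    rw [tr_sh5]
    simp [Pi.single_apply]
    try ring
  · change tr κ (sh u) (Pi.single 4 ψ) 6 - (Pi.single 4 ψ : Fin 14 → ℝ) 6 = κ * ψ * u
    rw [tr_sh6]
    simp [Pi.single_apply]
    try ring
  · change tr κ (sh u) (Pi.single 4 ψ) 7 - (Pi.single 4 ψ : Fin 14 → ℝ) 7 = 2 * ψ * u
    rw [tr_sh7]
    simp [Pi.single_apply]
    try ring
  · change tr κ (sh u) (Pi.single 4 ψ) 8 - (Pi.single 4 ψ : Fin 14 → ℝ) 8 = 0
    rw [tr_sh8]
    simp [Pi.single_apply]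
    try ring
  · change tr κ (sh u) (Pi.single 4 ψ) 9 - (Pi.single 4 ψ : Fin 14 → ℝ) 9 = 0
    rw [tr_sh9]
    simp [Pi.single_apply]
    try ring
  · change tr κ (sh u) (Pi.single 4 ψ) 10 - (Pi.single 4 ψ : Fin 14 → ℝ) 10 = ψ * u ^ 2
    rw [tr_sh10]
    simp [Pi.single_apply]
    try ring
  · change tr κ (sh u) (Pi.single 4 ψ) 11 - (Pi.single 4 ψ : Fin 14 → ℝ) 11 = 0
    rw [tr_sh11]
    simp [Pi.single_apply]
    try ring
  · change tr κ (sh u) (Pi.single 4 ψ) 12 - (Pi.single 4 ψ : Fin 14 → ℝ) 12 = 0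
    rw [tr_sh12]
    simp [Pi.single_apply]
    try ring
  · change tr κ (sh u) (Pi.single 4 ψ) 13 - (Pi.single 4 ψ : Fin 14 → ℝ) 13 = 0
    rw [tr_sh13]
    simp [Pi.single_apply]
    try ring

/-- rotation of the monomial `AY` -/
lemma fake_AY : tr κ (sh u) (Pi.single 2 ψ) - Pi.single 2 ψ =
    ![0, 0, 0, 0, 0, ψ * u, 0, 0, 0, 0, 0, 0, 0, 0] := by
  funext k
  rw [Pi.sub_apply]
  fin_cases k
  · change tr κ (sh u) (Pi.single 2 ψ) 0 - (Pi.single 2 ψ : Fin 14 → ℝ) 0 = 0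
    rw [tr_sh0]
    simp [Pi.single_apply]
    try ring
  · change tr κ (sh u) (Pi.single 2 ψ) 1 - (Pi.single 2 ψ : Fin 14 → ℝ) 1 = 0
    rw [tr_sh1]
    simp [Pi.single_apply]
    try ring
  · change tr κ (sh u) (Pi.single 2 ψ) 2 - (Pi.single 2 ψ : Fin 14 → ℝ) 2 = 0
    rw [tr_sh2]
    simp [Pi.single_apply]
    try ring
  · change tr κ (sh u) (Pi.single 2 ψ) 3 - (Pi.single 2 ψ : Fin 14 → ℝ) 3 = 0
    rw [tr_sh3]
    simp [Pi.single_apply]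
    try ring
  · change tr κ (sh u) (Pi.single 2 ψ) 4 - (Pi.single 2 ψ : Fin 14 → ℝ) 4 = 0
    rw [tr_sh4]
    simp [Pi.single_apply]
    try ring
  · change tr κ (sh u) (Pi.single 2 ψ) 5 - (Pi.single 2 ψ : Fin 14 → ℝ) 5 = ψ * u
    rw [tr_sh5]
    simp [Pi.single_apply]
    try ring
  · change tr κ (sh u) (Pi.single 2 ψ) 6 - (Pi.single 2 ψ : Fin 14 → ℝ) 6 = 0
    rw [tr_sh6]
    simp [Pi.single_apply]
    try ring
  · change tr κ (sh u) (Pi.single 2 ψ) 7 - (Pi.single 2 ψ : Fin 14 → ℝ) 7 = 0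
    rw [tr_sh7]
    simp [Pi.single_apply]
    try ring
  · change tr κ (sh u) (Pi.single 2 ψ) 8 - (Pi.single 2 ψ : Fin 14 → ℝ) 8 = 0
    rw [tr_sh8]
    simp [Pi.single_apply]
    try ring
  · change tr κ (sh u) (Pi.single 2 ψ) 9 - (Pi.single 2 ψ : Fin 14 → ℝ) 9 = 0
    rw [tr_sh9]
    simp [Pi.single_apply]
    try ring
  · change tr κ (sh u) (Pi.single 2 ψ) 10 - (Pi.single 2 ψ : Fin 14 → ℝ) 10 = 0
    rw [tr_sh10]
    simp [Pi.single_apply]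
    try ring
  · change tr κ (sh u) (Pi.single 2 ψ) 11 - (Pi.single 2 ψ : Fin 14 → ℝ) 11 = 0
    rw [tr_sh11]
    simp [Pi.single_apply]
    try ring
  · change tr κ (sh u) (Pi.single 2 ψ) 12 - (Pi.single 2 ψ : Fin 14 → ℝ) 12 = 0
    rw [tr_sh12]
    simp [Pi.single_apply]
    try ring
  · change tr κ (sh u) (Pi.single 2 ψ) 13 - (Pi.single 2 ψ : Fin 14 → ℝ) 13 = 0
    rw [tr_sh13]
    simp [Pi.single_apply]
    try ring

/-- rotation of the monomial `BY` -/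
lemma fake_BY : tr κ (sh u) (Pi.single 1 ψ) - Pi.single 1 ψ =
    ![0, 0, 0, ψ * u, 0, 0, 0, 0, 0, 0, 0, 0, 0, 0] := by
  funext k
  rw [Pi.sub_apply]
  fin_cases k
  · change tr κ (sh u) (Pi.single 1 ψ) 0 - (Pi.single 1 ψ : Fin 14 → ℝ) 0 = 0
    rw [tr_sh0]
    simp [Pi.single_apply]
    try ring
  · change tr κ (sh u) (Pi.single 1 ψ) 1 - (Pi.single 1 ψ : Fin 14 → ℝ) 1 = 0
    rw [tr_sh1]
    simp [Pi.single_apply]
    try ring
  · change tr κ (sh u) (Pi.single 1 ψ) 2 - (Pi.single 1 ψ : Fin 14 → ℝ) 2 = 0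
    rw [tr_sh2]
    simp [Pi.single_apply]
    try ring
  · change tr κ (sh u) (Pi.single 1 ψ) 3 - (Pi.single 1 ψ : Fin 14 → ℝ) 3 = ψ * u
    rw [tr_sh3]
    simp [Pi.single_apply]
    try ring
  · change tr κ (sh u) (Pi.single 1 ψ) 4 - (Pi.single 1 ψ : Fin 14 → ℝ) 4 = 0
    rw [tr_sh4]
    simp [Pi.single_apply]
    try ring
  · change tr κ (sh u) (Pi.single 1 ψ) 5 - (Pi.single 1 ψ : Fin 14 → ℝ) 5 = 0
    rw [tr_sh5]
    simp [Pi.single_apply]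
    try ring
  · change tr κ (sh u) (Pi.single 1 ψ) 6 - (Pi.single 1 ψ : Fin 14 → ℝ) 6 = 0
    rw [tr_sh6]
    simp [Pi.single_apply]
    try ring
  · change tr κ (sh u) (Pi.single 1 ψ) 7 - (Pi.single 1 ψ : Fin 14 → ℝ) 7 = 0
    rw [tr_sh7]
    simp [Pi.single_apply]
    try ring
  · change tr κ (sh u) (Pi.single 1 ψ) 8 - (Pi.single 1 ψ : Fin 14 → ℝ) 8 = 0
    rw [tr_sh8]
    simp [Pi.single_apply]
    try ring
  · change tr κ (sh u) (Pi.single 1 ψ) 9 - (Pi.single 1 ψ : Fin 14 → ℝ) 9 = 0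
    rw [tr_sh9]
    simp [Pi.single_apply]
    try ring
  · change tr κ (sh u) (Pi.single 1 ψ) 10 - (Pi.single 1 ψ : Fin 14 → ℝ) 10 = 0
    rw [tr_sh10]
    simp [Pi.single_apply]
    try ring
  · change tr κ (sh u) (Pi.single 1 ψ) 11 - (Pi.single 1 ψ : Fin 14 → ℝ) 11 = 0
    rw [tr_sh11]
    simp [Pi.single_apply]
    try ring
  · change tr κ (sh u) (Pi.single 1 ψ) 12 - (Pi.single 1 ψ : Fin 14 → ℝ) 12 = 0
    rw [tr_sh12]
    simp [Pi.single_apply]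
    try ring
  · change tr κ (sh u) (Pi.single 1 ψ) 13 - (Pi.single 1 ψ : Fin 14 → ℝ) 13 = 0
    rw [tr_sh13]
    simp [Pi.single_apply]
    try ring

/-- rotation of the monomial `YY` -/
lemma fake_YY : tr κ (sh u) (Pi.single 0 ψ) - Pi.single 0 ψ =
    ![0, 2 * ψ * u, 0, ψ * u ^ 2, 0, 0, 0, 0, 0, 0, 0, 0, 0, 0] := by
  funext k
  rw [Pi.sub_apply]
  fin_cases k
  · change tr κ (sh u) (Pi.single 0 ψ) 0 - (Pi.single 0 ψ : Fin 14 → ℝ) 0 = 0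
    rw [tr_sh0]
    simp [Pi.single_apply]
    try ring
  · change tr κ (sh u) (Pi.single 0 ψ) 1 - (Pi.single 0 ψ : Fin 14 → ℝ) 1 = 2 * ψ * u
    rw [tr_sh1]
    simp [Pi.single_apply]
    try ring
  · change tr κ (sh u) (Pi.single 0 ψ) 2 - (Pi.single 0 ψ : Fin 14 → ℝ) 2 = 0
    rw [tr_sh2]
    simp [Pi.single_apply]
    try ring
  · change tr κ (sh u) (Pi.single 0 ψ) 3 - (Pi.single 0 ψ : Fin 14 → ℝ) 3 = ψ * u ^ 2
    rw [tr_sh3]
    simp [Pi.single_apply]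
    try ring
  · change tr κ (sh u) (Pi.single 0 ψ) 4 - (Pi.single 0 ψ : Fin 14 → ℝ) 4 = 0
    rw [tr_sh4]
    simp [Pi.single_apply]
    try ring
  · change tr κ (sh u) (Pi.single 0 ψ) 5 - (Pi.single 0 ψ : Fin 14 → ℝ) 5 = 0
    rw [tr_sh5]
    simp [Pi.single_apply]
    try ring
  · change tr κ (sh u) (Pi.single 0 ψ) 6 - (Pi.single 0 ψ : Fin 14 → ℝ) 6 = 0
    rw [tr_sh6]
    simp [Pi.single_apply]
    try ring
  · change tr κ (sh u) (Pi.single 0 ψ) 7 - (Pi.single 0 ψ : Fin 14 → ℝ) 7 = 0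
    rw [tr_sh7]
    simp [Pi.single_apply]
    try ring
  · change tr κ (sh u) (Pi.single 0 ψ) 8 - (Pi.single 0 ψ : Fin 14 → ℝ) 8 = 0
    rw [tr_sh8]
    simp [Pi.single_apply]
    try ring
  · change tr κ (sh u) (Pi.single 0 ψ) 9 - (Pi.single 0 ψ : Fin 14 → ℝ) 9 = 0
    rw [tr_sh9]
    simp [Pi.single_apply]
    try ring
  · change tr κ (sh u) (Pi.single 0 ψ) 10 - (Pi.single 0 ψ : Fin 14 → ℝ) 10 = 0
    rw [tr_sh10]
    simp [Pi.single_apply]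
    try ring
  · change tr κ (sh u) (Pi.single 0 ψ) 11 - (Pi.single 0 ψ : Fin 14 → ℝ) 11 = 0
    rw [tr_sh11]
    simp [Pi.single_apply]
    try ring
  · change tr κ (sh u) (Pi.single 0 ψ) 12 - (Pi.single 0 ψ : Fin 14 → ℝ) 12 = 0
    rw [tr_sh12]
    simp [Pi.single_apply]
    try ring
  · change tr κ (sh u) (Pi.single 0 ψ) 13 - (Pi.single 0 ψ : Fin 14 → ℝ) 13 = 0
    rw [tr_sh13]
    simp [Pi.single_apply]
    try ring

end

/-! ### the six monomials which contain the height -/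

/-- the monomial `zA` in the frame `h` -/
def colzA (κ : ℝ) (h : Fin 4 → ℝ) : Fin 14 → ℝ := ![
    0,
    0,
    0,
    0,
    0,
    0,
    0,
    0,
    1,
    h 1,
    0,
    h 0,
    h 2 + h 0 * h 1,
    h 0 * h 2]

lemma tr_zA (κ ψ : ℝ) (h : Fin 4 → ℝ) :
    tr κ h (Pi.single 8 ψ) = ψ • colzA κ h := by
  funext k
  rw [Pi.smul_apply, smul_eq_mul]
  fin_cases k
  · change tr κ h (Pi.single 8 ψ) 0 = ψ * (0)
    rw [tr0]
    simp [Pi.single_apply]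
    try ring
  · change tr κ h (Pi.single 8 ψ) 1 = ψ * (0)
    rw [tr1]
    simp [Pi.single_apply]
    try ring
  · change tr κ h (Pi.single 8 ψ) 2 = ψ * (0)
    rw [tr2]
    simp [Pi.single_apply]
    try ring
  · change tr κ h (Pi.single 8 ψ) 3 = ψ * (0)
    rw [tr3]
    simp [Pi.single_apply]
    try ring
  · change tr κ h (Pi.single 8 ψ) 4 = ψ * (0)
    rw [tr4]
    simp [Pi.single_apply]
    try ring
  · change tr κ h (Pi.single 8 ψ) 5 = ψ * (0)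
    rw [tr5]
    simp [Pi.single_apply]
    try ring
  · change tr κ h (Pi.single 8 ψ) 6 = ψ * (0)
    rw [tr6]
    simp [Pi.single_apply]
    try ring
  · change tr κ h (Pi.single 8 ψ) 7 = ψ * (0)
    rw [tr7]
    simp [Pi.single_apply]
    try ring
  · change tr κ h (Pi.single 8 ψ) 8 = ψ * (1)
    rw [tr8]
    simp [Pi.single_apply]
    try ring
  · change tr κ h (Pi.single 8 ψ) 9 = ψ * (h 1)
    rw [tr9]
    simp [Pi.single_apply]
    try ring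
  · change tr κ h (Pi.single 8 ψ) 10 = ψ * (0)
    rw [tr10]
    simp [Pi.single_apply]
    try ring
  · change tr κ h (Pi.single 8 ψ) 11 = ψ * (h 0)
    rw [tr11]
    simp [Pi.single_apply]
    try ring
  · change tr κ h (Pi.single 8 ψ) 12 = ψ * (h 2 + h 0 * h 1)
    rw [tr12]
    simp [Pi.single_apply]
    try ring
  · change tr κ h (Pi.single 8 ψ) 13 = ψ * (h 0 * h 2)
    rw [tr13]
    simp [Pi.single_apply]
    try ring

/-- the monomial `zB` in the frame `h` -/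
def colzB (κ : ℝ) (h : Fin 4 → ℝ) : Fin 14 → ℝ := ![
    0,
    0,
    0,
    0,
    0,
    0,
    0,
    1,
    -(2 * κ * h 1),
    -(κ * h 1 ^ 2),
    h 0,
    -(2 * κ * h 0 * h 1),
    h 3 - κ * h 0 * h 1 ^ 2,
    h 0 * h 3]

lemma tr_zB (κ ψ : ℝ) (h : Fin 4 → ℝ) :
    tr κ h (Pi.single 7 ψ) = ψ • colzB κ h := by
  funext k
  rw [Pi.smul_apply, smul_eq_mul]
  fin_cases k
  · change tr κ h (Pi.single 7 ψ) 0 = ψ * (0)
    rw [tr0]
    simp [Pi.single_apply]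
    try ring
  · change tr κ h (Pi.single 7 ψ) 1 = ψ * (0)
    rw [tr1]
    simp [Pi.single_apply]
    try ring
  · change tr κ h (Pi.single 7 ψ) 2 = ψ * (0)
    rw [tr2]
    simp [Pi.single_apply]
    try ring
  · change tr κ h (Pi.single 7 ψ) 3 = ψ * (0)
    rw [tr3]
    simp [Pi.single_apply]
    try ring
  · change tr κ h (Pi.single 7 ψ) 4 = ψ * (0)
    rw [tr4]
    simp [Pi.single_apply]
    try ring
  · change tr κ h (Pi.single 7 ψ) 5 = ψ * (0)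
    rw [tr5]
    simp [Pi.single_apply]
    try ring
  · change tr κ h (Pi.single 7 ψ) 6 = ψ * (0)
    rw [tr6]
    simp [Pi.single_apply]
    try ring
  · change tr κ h (Pi.single 7 ψ) 7 = ψ * (1)
    rw [tr7]
    simp [Pi.single_apply]
    try ring
  · change tr κ h (Pi.single 7 ψ) 8 = ψ * (-(2 * κ * h 1))
    rw [tr8]
    simp [Pi.single_apply]
    try ring
  · change tr κ h (Pi.single 7 ψ) 9 = ψ * (-(κ * h 1 ^ 2))
    rw [tr9]
    simp [Pi.single_apply]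
    try ring
  · change tr κ h (Pi.single 7 ψ) 10 = ψ * (h 0)
    rw [tr10]
    simp [Pi.single_apply]
    try ring
  · change tr κ h (Pi.single 7 ψ) 11 = ψ * (-(2 * κ * h 0 * h 1))
    rw [tr11]
    simp [Pi.single_apply]
    try ring
  · change tr κ h (Pi.single 7 ψ) 12 = ψ * (h 3 - κ * h 0 * h 1 ^ 2)
    rw [tr12]
    simp [Pi.single_apply]
    try ring
  · change tr κ h (Pi.single 7 ψ) 13 = ψ * (h 0 * h 3)
    rw [tr13]
    simp [Pi.single_apply]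
    try ring

/-- the monomial `zY` in the frame `h` -/
def colzY (κ : ℝ) (h : Fin 4 → ℝ) : Fin 14 → ℝ := ![
    0,
    0,
    0,
    0,
    1,
    0,
    κ * h 0,
    2 * h 0,
    2 * κ * h 2 - 2 * κ * h 0 * h 1,
    2 * κ * h 1 * h 2 + h 3 - κ * h 0 * h 1 ^ 2,
    h 0 ^ 2,
    2 * κ * h 0 * h 2 - 2 * κ * h 0 ^ 2 * h 1,
    κ * h 2 ^ 2 + 2 * κ * h 0 * h 1 * h 2 + 2 * h 0 * h 3 - κ * h 0 ^ 2 * h 1 ^ 2,
    κ * h 0 * h 2 ^ 2 + h 0 ^ 2 * h 3]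

lemma tr_zY (κ ψ : ℝ) (h : Fin 4 → ℝ) :
    tr κ h (Pi.single 4 ψ) = ψ • colzY κ h := by
  funext k
  rw [Pi.smul_apply, smul_eq_mul]
  fin_cases k
  · change tr κ h (Pi.single 4 ψ) 0 = ψ * (0)
    rw [tr0]
    simp [Pi.single_apply]
    try ring
  · change tr κ h (Pi.single 4 ψ) 1 = ψ * (0)
    rw [tr1]
    simp [Pi.single_apply]
    try ring
  · change tr κ h (Pi.single 4 ψ) 2 = ψ * (0)
    rw [tr2]
    simp [Pi.single_apply]
    try ring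
  · change tr κ h (Pi.single 4 ψ) 3 = ψ * (0)
    rw [tr3]
    simp [Pi.single_apply]
    try ring
  · change tr κ h (Pi.single 4 ψ) 4 = ψ * (1)
    rw [tr4]
    simp [Pi.single_apply]
    try ring
  · change tr κ h (Pi.single 4 ψ) 5 = ψ * (0)
    rw [tr5]
    simp [Pi.single_apply]
    try ring
  · change tr κ h (Pi.single 4 ψ) 6 = ψ * (κ * h 0)
    rw [tr6]
    simp [Pi.single_apply]
    try ring
  · change tr κ h (Pi.single 4 ψ) 7 = ψ * (2 * h 0)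
    rw [tr7]
    simp [Pi.single_apply]
    try ring
  · change tr κ h (Pi.single 4 ψ) 8 = ψ * (2 * κ * h 2 - 2 * κ * h 0 * h 1)
    rw [tr8]
    simp [Pi.single_apply]
    try ring
  · change tr κ h (Pi.single 4 ψ) 9 = ψ * (2 * κ * h 1 * h 2 + h 3 - κ * h 0 * h 1 ^ 2)
    rw [tr9]
    simp [Pi.single_apply]
    try ring
  · change tr κ h (Pi.single 4 ψ) 10 = ψ * (h 0 ^ 2)
    rw [tr10]
    simp [Pi.single_apply]
    try ring
  · change tr κ h (Pi.single 4 ψ) 11 = ψ * (2 * κ * h 0 * h 2 - 2 * κ * h 0 ^ 2 * h 1)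
    rw [tr11]
    simp [Pi.single_apply]
    try ring
  · change tr κ h (Pi.single 4 ψ) 12 = ψ * (κ * h 2 ^ 2 + 2 * κ * h 0 * h 1 * h 2 + 2 * h 0 * h 3 - κ * h 0 ^ 2 * h 1 ^ 2)
    rw [tr12]
    simp [Pi.single_apply]
    try ring
  · change tr κ h (Pi.single 4 ψ) 13 = ψ * (κ * h 0 * h 2 ^ 2 + h 0 ^ 2 * h 3)
    rw [tr13]
    simp [Pi.single_apply]
    try ring

/-- the monomial `AY` in the frame `h` -/
def colAY (κ : ℝ) (h : Fin 4 → ℝ) : Fin 14 → ℝ := ![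
    0,
    0,
    1,
    0,
    h 1,
    h 0,
    3 * κ * h 2 - 2 * κ * h 0 * h 1,
    h 2 + h 0 * h 1,
    4 * κ * h 1 * h 2 + h 3 - 3 * κ * h 0 * h 1 ^ 2,
    2 * κ * h 1 ^ 2 * h 2 + h 1 * h 3 - κ * h 0 * h 1 ^ 3,
    h 0 * h 2,
    3 * κ * h 2 ^ 2 - 2 * κ * h 0 * h 1 * h 2 + h 0 * h 3,
    3 * κ * h 1 * h 2 ^ 2 + h 2 * h 3 - κ * h 0 * h 1 ^ 2 * h 2 + h 0 * h 1 * h 3,
    κ * h 2 ^ 3 + h 0 * h 2 * h 3]

lemma tr_AY (κ ψ : ℝ) (h : Fin 4 → ℝ) :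
    tr κ h (Pi.single 2 ψ) = ψ • colAY κ h := by
  funext k
  rw [Pi.smul_apply, smul_eq_mul]
  fin_cases k
  · change tr κ h (Pi.single 2 ψ) 0 = ψ * (0)
    rw [tr0]
    simp [Pi.single_apply]
    try ring
  · change tr κ h (Pi.single 2 ψ) 1 = ψ * (0)
    rw [tr1]
    simp [Pi.single_apply]
    try ring
  · change tr κ h (Pi.single 2 ψ) 2 = ψ * (1)
    rw [tr2]
    simp [Pi.single_apply]
    try ring
  · change tr κ h (Pi.single 2 ψ) 3 = ψ * (0)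
    rw [tr3]
    simp [Pi.single_apply]
    try ring
  · change tr κ h (Pi.single 2 ψ) 4 = ψ * (h 1)
    rw [tr4]
    simp [Pi.single_apply]
    try ring
  · change tr κ h (Pi.single 2 ψ) 5 = ψ * (h 0)
    rw [tr5]
    simp [Pi.single_apply]
    try ring
  · change tr κ h (Pi.single 2 ψ) 6 = ψ * (3 * κ * h 2 - 2 * κ * h 0 * h 1)
    rw [tr6]
    simp [Pi.single_apply]
    try ring
  · change tr κ h (Pi.single 2 ψ) 7 = ψ * (h 2 + h 0 * h 1)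
    rw [tr7]
    simp [Pi.single_apply]
    try ring
  · change tr κ h (Pi.single 2 ψ) 8 = ψ * (4 * κ * h 1 * h 2 + h 3 - 3 * κ * h 0 * h 1 ^ 2)
    rw [tr8]
    simp [Pi.single_apply]
    try ring
  · change tr κ h (Pi.single 2 ψ) 9 = ψ * (2 * κ * h 1 ^ 2 * h 2 + h 1 * h 3 - κ * h 0 * h 1 ^ 3)
    rw [tr9]
    simp [Pi.single_apply]
    try ring
  · change tr κ h (Pi.single 2 ψ) 10 = ψ * (h 0 * h 2)
    rw [tr10]
    simp [Pi.single_apply]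
    try ring
  · change tr κ h (Pi.single 2 ψ) 11 = ψ * (3 * κ * h 2 ^ 2 - 2 * κ * h 0 * h 1 * h 2 + h 0 * h 3)
    rw [tr11]
    simp [Pi.single_apply]
    try ring
  · change tr κ h (Pi.single 2 ψ) 12 = ψ * (3 * κ * h 1 * h 2 ^ 2 + h 2 * h 3 - κ * h 0 * h 1 ^ 2 * h 2 + h 0 * h 1 * h 3)
    rw [tr12]
    simp [Pi.single_apply]
    try ring
  · change tr κ h (Pi.single 2 ψ) 13 = ψ * (κ * h 2 ^ 3 + h 0 * h 2 * h 3)
    rw [tr13]
    simp [Pi.single_apply]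
    try ring

/-- the monomial `BY` in the frame `h` -/
def colBY (κ : ℝ) (h : Fin 4 → ℝ) : Fin 14 → ℝ := ![
    0,
    1,
    -(2 * κ * h 1),
    h 0,
    -(κ * h 1 ^ 2),
    2 * κ * h 2 - 4 * κ * h 0 * h 1,
    -(4 * κ ^ 2 * h 1 * h 2) + κ * h 3 + 4 * κ ^ 2 * h 0 * h 1 ^ 2,
    2 * κ * h 1 * h 2 + 2 * h 3 - 2 * κ * h 0 * h 1 ^ 2,
    -(6 * κ ^ 2 * h 1 ^ 2 * h 2) - 2 * κ * h 1 * h 3 + 4 * κ ^ 2 * h 0 * h 1 ^ 3,
    -(2 * κ ^ 2 * h 1 ^ 3 * h 2) - κ * h 1 ^ 2 * h 3 + κ ^ 2 * h 0 * h 1 ^ 4,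
    κ * h 2 ^ 2 + 2 * h 0 * h 3,
    -(2 * κ ^ 2 * h 1 * h 2 ^ 2) + 2 * κ * h 2 * h 3 - 4 * κ * h 0 * h 1 * h 3,
    -(κ ^ 2 * h 1 ^ 2 * h 2 ^ 2) + 2 * κ * h 1 * h 2 * h 3 + h 3 ^ 2 - 2 * κ * h 0 * h 1 ^ 2 * h 3,
    κ * h 2 ^ 2 * h 3 + h 0 * h 3 ^ 2]

lemma tr_BY (κ ψ : ℝ) (h : Fin 4 → ℝ) :
    tr κ h (Pi.single 1 ψ) = ψ • colBY κ h := by
  funext k
  rw [Pi.smul_apply, smul_eq_mul]
  fin_cases k
  · change tr κ h (Pi.single 1 ψ) 0 = ψ * (0)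
    rw [tr0]
    simp [Pi.single_apply]
    try ring
  · change tr κ h (Pi.single 1 ψ) 1 = ψ * (1)
    rw [tr1]
    simp [Pi.single_apply]
    try ring
  · change tr κ h (Pi.single 1 ψ) 2 = ψ * (-(2 * κ * h 1))
    rw [tr2]
    simp [Pi.single_apply]
    try ring
  · change tr κ h (Pi.single 1 ψ) 3 = ψ * (h 0)
    rw [tr3]
    simp [Pi.single_apply]
    try ring
  · change tr κ h (Pi.single 1 ψ) 4 = ψ * (-(κ * h 1 ^ 2))
    rw [tr4]
    simp [Pi.single_apply]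
    try ring
  · change tr κ h (Pi.single 1 ψ) 5 = ψ * (2 * κ * h 2 - 4 * κ * h 0 * h 1)
    rw [tr5]
    simp [Pi.single_apply]
    try ring
  · change tr κ h (Pi.single 1 ψ) 6 = ψ * (-(4 * κ ^ 2 * h 1 * h 2) + κ * h 3 + 4 * κ ^ 2 * h 0 * h 1 ^ 2)
    rw [tr6]
    simp [Pi.single_apply]
    try ring
  · change tr κ h (Pi.single 1 ψ) 7 = ψ * (2 * κ * h 1 * h 2 + 2 * h 3 - 2 * κ * h 0 * h 1 ^ 2)
    rw [tr7]
    simp [Pi.single_apply]
    try ring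
  · change tr κ h (Pi.single 1 ψ) 8 = ψ * (-(6 * κ ^ 2 * h 1 ^ 2 * h 2) - 2 * κ * h 1 * h 3 + 4 * κ ^ 2 * h 0 * h 1 ^ 3)
    rw [tr8]
    simp [Pi.single_apply]
    try ring
  · change tr κ h (Pi.single 1 ψ) 9 = ψ * (-(2 * κ ^ 2 * h 1 ^ 3 * h 2) - κ * h 1 ^ 2 * h 3 + κ ^ 2 * h 0 * h 1 ^ 4)
    rw [tr9]
    simp [Pi.single_apply]
    try ring
  · change tr κ h (Pi.single 1 ψ) 10 = ψ * (κ * h 2 ^ 2 + 2 * h 0 * h 3)
    rw [tr10]
    simp [Pi.single_apply]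
    try ring
  · change tr κ h (Pi.single 1 ψ) 11 = ψ * (-(2 * κ ^ 2 * h 1 * h 2 ^ 2) + 2 * κ * h 2 * h 3 - 4 * κ * h 0 * h 1 * h 3)
    rw [tr11]
    simp [Pi.single_apply]
    try ring
  · change tr κ h (Pi.single 1 ψ) 12 = ψ * (-(κ ^ 2 * h 1 ^ 2 * h 2 ^ 2) + 2 * κ * h 1 * h 2 * h 3 + h 3 ^ 2 - 2 * κ * h 0 * h 1 ^ 2 * h 3)
    rw [tr12]
    simp [Pi.single_apply]
    try ring
  · change tr κ h (Pi.single 1 ψ) 13 = ψ * (κ * h 2 ^ 2 * h 3 + h 0 * h 3 ^ 2)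
    rw [tr13]
    simp [Pi.single_apply]
    try ring

/-- the monomial `YY` in the frame `h` -/
def colYY (κ : ℝ) (h : Fin 4 → ℝ) : Fin 14 → ℝ := ![
    1,
    2 * h 0,
    4 * κ * h 2 - 4 * κ * h 0 * h 1,
    h 0 ^ 2,
    4 * κ * h 1 * h 2 + 2 * h 3 - 2 * κ * h 0 * h 1 ^ 2,
    4 * κ * h 0 * h 2 - 4 * κ * h 0 ^ 2 * h 1,
    6 * κ ^ 2 * h 2 ^ 2 - 8 * κ ^ 2 * h 0 * h 1 * h 2 + 2 * κ * h 0 * h 3 + 4 * κ ^ 2 * h 0 ^ 2 * h 1 ^ 2,
    2 * κ * h 2 ^ 2 + 4 * κ * h 0 * h 1 * h 2 + 4 * h 0 * h 3 - 2 * κ * h 0 ^ 2 * h 1 ^ 2,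
    8 * κ ^ 2 * h 1 * h 2 ^ 2 + 4 * κ * h 2 * h 3 - 12 * κ ^ 2 * h 0 * h 1 ^ 2 * h 2 - 4 * κ * h 0 * h 1 * h 3 + 4 * κ ^ 2 * h 0 ^ 2 * h 1 ^ 3,
    4 * κ ^ 2 * h 1 ^ 2 * h 2 ^ 2 + 4 * κ * h 1 * h 2 * h 3 - 4 * κ ^ 2 * h 0 * h 1 ^ 3 * h 2 + h 3 ^ 2 - 2 * κ * h 0 * h 1 ^ 2 * h 3 + κ ^ 2 * h 0 ^ 2 * h 1 ^ 4,
    2 * κ * h 0 * h 2 ^ 2 + 2 * h 0 ^ 2 * h 3,
    4 * κ ^ 2 * h 2 ^ 3 - 4 * κ ^ 2 * h 0 * h 1 * h 2 ^ 2 + 4 * κ * h 0 * h 2 * h 3 - 4 * κ * h 0 ^ 2 * h 1 * h 3,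
    4 * κ ^ 2 * h 1 * h 2 ^ 3 + 2 * κ * h 2 ^ 2 * h 3 - 2 * κ ^ 2 * h 0 * h 1 ^ 2 * h 2 ^ 2 + 4 * κ * h 0 * h 1 * h 2 * h 3 + 2 * h 0 * h 3 ^ 2 - 2 * κ * h 0 ^ 2 * h 1 ^ 2 * h 3,
    κ ^ 2 * h 2 ^ 4 + 2 * κ * h 0 * h 2 ^ 2 * h 3 + h 0 ^ 2 * h 3 ^ 2]

lemma tr_YY (κ ψ : ℝ) (h : Fin 4 → ℝ) :
    tr κ h (Pi.single 0 ψ) = ψ • colYY κ h := by
  funext k
  rw [Pi.smul_apply, smul_eq_mul]
  fin_cases k
  · change tr κ h (Pi.single 0 ψ) 0 = ψ * (1)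
    rw [tr0]
    simp [Pi.single_apply]
    try ring
  · change tr κ h (Pi.single 0 ψ) 1 = ψ * (2 * h 0)
    rw [tr1]
    simp [Pi.single_apply]
    try ring
  · change tr κ h (Pi.single 0 ψ) 2 = ψ * (4 * κ * h 2 - 4 * κ * h 0 * h 1)
    rw [tr2]
    simp [Pi.single_apply]
    try ring
  · change tr κ h (Pi.single 0 ψ) 3 = ψ * (h 0 ^ 2)
    rw [tr3]
    simp [Pi.single_apply]
    try ring
  · change tr κ h (Pi.single 0 ψ) 4 = ψ * (4 * κ * h 1 * h 2 + 2 * h 3 - 2 * κ * h 0 * h 1 ^ 2)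
    rw [tr4]
    simp [Pi.single_apply]
    try ring
  · change tr κ h (Pi.single 0 ψ) 5 = ψ * (4 * κ * h 0 * h 2 - 4 * κ * h 0 ^ 2 * h 1)
    rw [tr5]
    simp [Pi.single_apply]
    try ring
  · change tr κ h (Pi.single 0 ψ) 6 = ψ * (6 * κ ^ 2 * h 2 ^ 2 - 8 * κ ^ 2 * h 0 * h 1 * h 2 + 2 * κ * h 0 * h 3 + 4 * κ ^ 2 * h 0 ^ 2 * h 1 ^ 2)
    rw [tr6]
    simp [Pi.single_apply]
    try ring
  · change tr κ h (Pi.single 0 ψ) 7 = ψ * (2 * κ * h 2 ^ 2 + 4 * κ * h 0 * h 1 * h 2 + 4 * h 0 * h 3 - 2 * κ * h 0 ^ 2 * h 1 ^ 2)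
    rw [tr7]
    simp [Pi.single_apply]
    try ring
  · change tr κ h (Pi.single 0 ψ) 8 = ψ * (8 * κ ^ 2 * h 1 * h 2 ^ 2 + 4 * κ * h 2 * h 3 - 12 * κ ^ 2 * h 0 * h 1 ^ 2 * h 2 - 4 * κ * h 0 * h 1 * h 3 + 4 * κ ^ 2 * h 0 ^ 2 * h 1 ^ 3)
    rw [tr8]
    simp [Pi.single_apply]
    try ring
  · change tr κ h (Pi.single 0 ψ) 9 = ψ * (4 * κ ^ 2 * h 1 ^ 2 * h 2 ^ 2 + 4 * κ * h 1 * h 2 * h 3 - 4 * κ ^ 2 * h 0 * h 1 ^ 3 * h 2 + h 3 ^ 2 - 2 * κ * h 0 * h 1 ^ 2 * h 3 + κ ^ 2 * h 0 ^ 2 * h 1 ^ 4)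
    rw [tr9]
    simp [Pi.single_apply]
    try ring
  · change tr κ h (Pi.single 0 ψ) 10 = ψ * (2 * κ * h 0 * h 2 ^ 2 + 2 * h 0 ^ 2 * h 3)
    rw [tr10]
    simp [Pi.single_apply]
    try ring
  · change tr κ h (Pi.single 0 ψ) 11 = ψ * (4 * κ ^ 2 * h 2 ^ 3 - 4 * κ ^ 2 * h 0 * h 1 * h 2 ^ 2 + 4 * κ * h 0 * h 2 * h 3 - 4 * κ * h 0 ^ 2 * h 1 * h 3)
    rw [tr11]
    simp [Pi.single_apply]
    try ring
  · change tr κ h (Pi.single 0 ψ) 12 = ψ * (4 * κ ^ 2 * h 1 * h 2 ^ 3 + 2 * κ * h 2 ^ 2 * h 3 - 2 * κ ^ 2 * h 0 * h 1 ^ 2 * h 2 ^ 2 + 4 * κ * h 0 * h 1 * h 2 * h 3 + 2 * h 0 * h 3 ^ 2 - 2 * κ * h 0 ^ 2 * h 1 ^ 2 * h 3)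
    rw [tr12]
    simp [Pi.single_apply]
    try ring
  · change tr κ h (Pi.single 0 ψ) 13 = ψ * (κ ^ 2 * h 2 ^ 4 + 2 * κ * h 0 * h 2 ^ 2 * h 3 + h 0 ^ 2 * h 3 ^ 2)
    rw [tr13]
    simp [Pi.single_apply]
    try ring

end Crest.Agent.R136.NetW191
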