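import Crest.Agent.R136.EvW3_938
import Crest.Agent.R136.NetW7_191
import Crest.Agent.R136.FlW1_464

/-!
# R136, specials of the thin pins, rows (helper544), part 1: normalised flags and pairs

* `tr_scale`, `coW_nf` : multiplicative units, the normalised flag `nf κ u f0 f` relative to `f0`
* `shf`, `coW_shf` : base frame at another height
* `pair_main` : relative coordinates of two close flags in the base frame
-/

set_option autoImplicit false
set_option linter.unusedVariables false

namespace Crest.Agent.R136.Cr544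

open Crest.Agent.R136.NetW191 Crest.Agent.R136.EvW938

section alg

variable {u : Fin 18 → ℝ}

theorem GrU.w2 (hu : GrU u) : u 2 = u 1 * u 0 := by
  have := hu.mul 2 [1, 0] (by decide)
  simpa using this.symm

theorem GrU.w3 (hu : GrU u) : u 3 = u 1 * u 2 := by
  have := hu.mul 3 [1, 2] (by decide)
  simpa using this.symm

theorem list_div {ι : Type*} (h v : ι → ℝ) (l : List ι) :
    (l.map fun i => h i / v i).prod = (l.map h).prod / (l.map v).prod := by
  induction l with
  | nil => simp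
  | cons a l ih => simp only [List.map_cons, List.prod_cons, ih]; rw [mul_div_mul_comm]

/-- **scaling of the substitution** -/
theorem tr_scale (hu : GrU u) (κ : ℝ) (h : Fin 4 → ℝ) (w : Fin 14 → ℝ) (q : Fin 14) :
    tr κ (fun i => h i / u (Fin.castAdd 14 i)) (fun q => w q / u (Fin.natAdd 4 q)) q =
      tr κ h w q / u (Fin.natAdd 4 q) := by
  rw [tr_tms, tr_tms, add_div]
  congr 1
  have key : ∀ L : List Tm, (∀ t ∈ L, t ∈ tms q) →
      (L.map (Tm.ev κ (fun i => h i / u (Fin.castAdd 14 i))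
        (fun q => w q / u (Fin.natAdd 4 q)))).sum = (L.map (Tm.ev κ h w)).sum /
          u (Fin.natAdd 4 q) := by
    intro L
    induction L with
    | nil => intro _; simp
    | cons t L ih =>
      intro hL
      simp only [List.map_cons, List.sum_cons]
      rw [ih fun t ht => hL t (List.mem_cons_of_mem _ ht), add_div]
      congr 1
      have h1 : (t.idx.map u).prod = u (Fin.natAdd 4 q) := by
        refine hu.mul _ _ ?_
        rw [mlW_right]
        exact List.mem_map_of_mem (hL t List.mem_cons_self)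
      have h2 : (t.idx.map u).prod = (t.hl.map fun i => u (Fin.castAdd 14 i)).prod *
          u (Fin.natAdd 4 t.s) := by
        unfold Tm.idx
        rw [List.map_append, List.prod_append, List.map_map, List.map_singleton,
          List.prod_singleton]
        rfl
      unfold Tm.ev
      rw [list_div, ← h1, h2, mul_div_mul_comm]
      ring
  exact key _ fun t ht => ht

theorem rel_scale (hu : GrU u) (κ : ℝ) (g h : Fin 4 → ℝ) (i : Fin 4) :
    rel κ (fun i => g i / u (Fin.castAdd 14 i)) (fun i => h i / u (Fin.castAdd 14 i)) i =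
      rel κ g h i / u (Fin.castAdd 14 i) := by
  have p0 := hu.pos 0
  have p1 := hu.pos 1
  have e2 := GrU.w2 hu
  have e3 := GrU.w3 hu
  rw [e2] at e3
  have c0 : (Fin.castAdd 14 (0 : Fin 4) : Fin 18) = 0 := rfl
  have c1 : (Fin.castAdd 14 (1 : Fin 4) : Fin 18) = 1 := rfl
  have c2 : (Fin.castAdd 14 (2 : Fin 4) : Fin 18) = 2 := rfl
  have c3 : (Fin.castAdd 14 (3 : Fin 4) : Fin 18) = 3 := rfl
  fin_cases i
  · change h 0 / u 0 - g 0 / u 0 = (h 0 - g 0) / u 0
    ring
  · change h 1 / u 1 - g 1 / u 1 = (h 1 - g 1) / u 1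
    ring
  · change h 2 / u 2 - g 2 / u 2 - g 1 / u 1 * (h 0 / u 0 - g 0 / u 0) =
      (h 2 - g 2 - g 1 * (h 0 - g 0)) / u 2
    rw [e2]
    field_simp
  · change h 3 / u 3 - g 3 / u 3 + 2 * κ * (g 1 / u 1) * (h 2 / u 2 - g 2 / u 2 -
        g 1 / u 1 * (h 0 / u 0 - g 0 / u 0)) + κ * (g 1 / u 1) ^ 2 * (h 0 / u 0 - g 0 / u 0) =
      (h 3 - g 3 + 2 * κ * g 1 * (h 2 - g 2 - g 1 * (h 0 - g 0)) + κ * g 1 ^ 2 * (h 0 - g 0)) / u 3
    rw [e3, e2]
    field_simp

/-- left translations -/
theorem rel_left (κ : ℝ) (a g g' : Fin 4 → ℝ) : rel κ (rel κ a g) (rel κ a g') = rel κ g g' :=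
  rel_of_mul (rel_rel κ a g g').symm

/-- normalised coordinates -/
noncomputable def cn (κ : ℝ) (u : Fin 18 → ℝ) (f0 f : FW) : Fin 18 → ℝ :=
  fun s => coW κ f0 f s / u s

/-- **normalised flag** -/
noncomputable def nf (κ : ℝ) (u : Fin 18 → ℝ) (f0 f : FW) : FW where
  g := frm (cn κ u f0 f)
  G := tr κ (iv κ (frm (cn κ u f0 f))) (flg (cn κ u f0 f))

theorem coW_flg (κ : ℝ) (f f' : FW) (q : Fin 14) :
    coW κ f f' (Fin.natAdd 4 q) = tr κ f'.g f'.G q - tr κ (rel κ f.g f'.g) (tr κ f.g f.G) q := by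
  rw [coW_right, tr_sub, Pi.sub_apply, ← tr_rel]

theorem coW_nf (hu : GrU u) (κ : ℝ) (f0 f f' : FW) (s : Fin 18) :
    coW κ (nf κ u f0 f) (nf κ u f0 f') s = coW κ f f' s / u s := by
  have hg : ∀ f : FW, frm (cn κ u f0 f) = fun i => rel κ f0.g f.g i / u (Fin.castAdd 14 i) := by
    intro f; funext i
    change cn κ u f0 f (Fin.castAdd 14 i) = _
    unfold cn
    rw [coW_left]
  have hr : rel κ (nf κ u f0 f).g (nf κ u f0 f').g =
      fun i => rel κ f.g f'.g i / u (Fin.castAdd 14 i) := by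
    funext i
    change rel κ (frm (cn κ u f0 f)) (frm (cn κ u f0 f')) i = _
    rw [hg, hg, rel_scale hu, rel_left]
  refine Fin.addCases (m := 4) (n := 14)
    (motive := fun s : Fin 18 => coW κ (nf κ u f0 f) (nf κ u f0 f') s = coW κ f f' s / u s)
    (fun i => ?_) (fun q => ?_) s
  · rw [coW_left, coW_left, hr]
  · rw [coW_flg, hr]
    have h1 : ∀ f : FW, tr κ (nf κ u f0 f).g (nf κ u f0 f).G = flg (cn κ u f0 f) := fun f =>
      tr_iv κ _ _
    rw [h1, h1]
    have h2 : ∀ f : FW, flg (cn κ u f0 f) =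
        fun q => tr κ f.g (f.G - f0.G) q / u (Fin.natAdd 4 q) := by
      intro f; funext q
      change cn κ u f0 f (Fin.natAdd 4 q) = _
      unfold cn
      rw [coW_right]
    rw [h2, h2, tr_scale hu, ← sub_div, ← tr_rel, coW_right]
    rw [← Pi.sub_apply, ← tr_sub, sub_sub_sub_cancel_right]

/-- base frame at the height `z` -/
noncomputable def shf (κ z : ℝ) (f : FW) : FW where
  g := rel κ (sh z) f.g
  G := tr κ (sh z) f.G

theorem coW_shf (κ z : ℝ) (f f' : FW) (s : Fin 18) :
    coW κ (shf κ z f) (shf κ z f') s = coW κ f f' s := by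
  refine Fin.addCases (m := 4) (n := 14)
    (motive := fun s : Fin 18 => coW κ (shf κ z f) (shf κ z f') s = coW κ f f' s)
    (fun i => ?_) (fun q => ?_) s
  · rw [coW_left, coW_left]
    change rel κ (rel κ (sh z) f.g) (rel κ (sh z) f'.g) i = _
    rw [rel_left]
  · rw [coW_right, coW_right]
    change tr κ (rel κ (sh z) f'.g) (tr κ (sh z) f'.G - tr κ (sh z) f.G) q = _
    rw [← tr_sub, ← tr_rel]

theorem shf_g (κ z : ℝ) (f : FW) : (shf κ z f).g 0 = f.g 0 - z ∧ (shf κ z f).g 1 = f.g 1 ∧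
    (shf κ z f).g 2 = f.g 2 ∧ (shf κ z f).g 3 = f.g 3 := by
  refine ⟨?_, ?_, ?_, ?_⟩ <;> simp [shf, rel, sh]

end alg

end Crest.Agent.R136.Cr544
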