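import Crest.Agent.R136.Cra_544

/-!
# R136, specials of the thin pins, rows (helper544), part 2: pairs of `34`

Two flags `P, P'` with almost equal height in the base frame, the slots `Y², BY, BB` of the pair
narrow.
-/

set_option autoImplicit false
set_option linter.unusedVariables false

namespace Crest.Agent.R136.Cr544

open Crest.Agent.R136.NetW191 Crest.Agent.R136.EvW938

/-- the constant of the pairs -/
def CP (K : ℝ) : ℝ := 2350 * (2 * K) ^ 7

/-- a sum of products with small second factors -/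
theorem sum_small {A e : ℝ} (hA : 0 ≤ A) (l : List (ℝ × ℝ)) (h : ∀ p ∈ l, |p.1| ≤ A ∧ |p.2| ≤ e) :
    |(l.map fun p => p.1 * p.2).sum| ≤ l.length * (A * e) := by
  induction l with
  | nil => simp
  | cons a l ih =>
    have h1 := ih fun p hp => h p (List.mem_cons_of_mem _ hp)
    obtain ⟨h2, h3⟩ := h a List.mem_cons_self
    have h4 : |a.1 * a.2| ≤ A * e := by
      rw [abs_mul]; exact mul_le_mul h2 h3 (abs_nonneg _) hA
    simp only [List.map_cons, List.sum_cons, List.length_cons]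
    refine (abs_add_le _ _).trans ((add_le_add h4 h1).trans (le_of_eq ?_))
    push_cast
    ring

/-- **data of a pair** (normalised) -/
structure Pr (κ K τ : ℝ) (P P' : FW) : Prop where
  hκ : |κ| ≤ 1
  K1 : 1 ≤ K
  τ0 : 0 ≤ τ
  τ1 : τ ≤ 1
  g : ∀ i, |P.g i| ≤ K
  g' : ∀ i, |P'.g i| ≤ K
  G : ∀ q, |P.G q| ≤ K
  G' : ∀ q, |P'.G q| ≤ K
  t : |P.g 0| ≤ τ
  t' : |P'.g 0| ≤ τ
  d4 : |coW κ P P' 4| ≤ τ
  d5 : |coW κ P P' 5| ≤ τ
  d7 : |coW κ P P' 7| ≤ τ

variable {κ K τ : ℝ} {P P' : FW}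

/-- difference of the flags in the base frame -/
def dl (P P' : FW) : Fin 14 → ℝ := P'.G - P.G

/-- main part of the flag difference -/
def dl0 (P P' : FW) : Fin 14 → ℝ := fun q => if q = 0 ∨ q = 1 ∨ q = 3 then 0 else dl P P' q

/-- main part of the frame -/
def fr0 (P' : FW) : Fin 4 → ℝ := ![0, P'.g 1, P'.g 2, P'.g 3]

theorem Pr.main (H : Pr κ K τ P P') (q : Fin 14) :
    |coW κ P P' (Fin.natAdd 4 q) - tr κ (fr0 P') (dl0 P P') q| ≤ CP K * τ := by
  obtain ⟨hκ, hK, hτ, hτ1, g, g', G, G', t, t', d4, d5, d7⟩ := H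
  have hdl : ∀ q, |dl P P' q| ≤ 2 * K := fun q => by
    have h := abs_sub (P'.G q) (P.G q)
    have e : dl P P' q = P'.G q - P.G q := rfl
    rw [e]
    have := G q; have := G' q
    linarith
  have c4 : coW κ P P' 4 = dl P P' 0 := by
    have := coW_right κ P P' 0
    rw [tr0] at this
    exact this
  have c5 : coW κ P P' 5 = dl P P' 1 + 2 * P'.g 0 * dl P P' 0 := by
    have := coW_right κ P P' 1
    rw [tr1] at this
    exact this
  have c7 : coW κ P P' 7 = dl P P' 3 + P'.g 0 ^ 2 * dl P P' 0 + P'.g 0 * dl P P' 1 := by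
    have := coW_right κ P P' 3
    rw [tr3] at this
    exact this
  have a0 : |dl P P' 0| ≤ τ := by rw [← c4]; exact d4
  have a00 : |P'.g 0 * dl P P' 0| ≤ τ := by
    rw [abs_mul]
    calc _ ≤ τ * τ := mul_le_mul t' a0 (abs_nonneg _) hτ
      _ ≤ _ := by nlinarith
  have a1 : |dl P P' 1| ≤ 3 * τ := by
    have e : dl P P' 1 = coW κ P P' 5 - 2 * (P'.g 0 * dl P P' 0) := by rw [c5]; ring
    rw [e]
    refine (abs_sub _ _).trans ?_
    rw [abs_mul, abs_two]
    linarith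
  have a01 : |P'.g 0 * dl P P' 1| ≤ 3 * τ := by
    rw [abs_mul]
    calc _ ≤ τ * (3 * τ) := mul_le_mul t' a1 (abs_nonneg _) hτ
      _ ≤ _ := by nlinarith
  have a000 : |P'.g 0 * (P'.g 0 * dl P P' 0)| ≤ τ := by
    rw [abs_mul]
    calc _ ≤ τ * τ := mul_le_mul t' a00 (abs_nonneg _) hτ
      _ ≤ _ := by nlinarith
  have a3 : |dl P P' 3| ≤ 5 * τ := by
    have e : dl P P' 3 = coW κ P P' 7 - P'.g 0 * (P'.g 0 * dl P P' 0) - P'.g 0 * dl P P' 1 := by
      rw [c7]; ring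
    rw [e]
    have h1 := abs_sub (coW κ P P' 7 - P'.g 0 * (P'.g 0 * dl P P' 0)) (P'.g 0 * dl P P' 1)
    have h2 := abs_sub (coW κ P P' 7) (P'.g 0 * (P'.g 0 * dl P P' 0))
    linarith
  have K2 : (1 : ℝ) ≤ 2 * K := by linarith
  have hr : coW κ P P' (Fin.natAdd 4 q) = tr κ P'.g (dl P P') q := coW_right _ _ _ _
  rw [hr]
  have h5 : (0 : ℝ) ≤ 5 * τ := by linarith
  have hbig : 5 * τ ≤ 2 * K * (5 * τ) * 1 := by nlinarith
  have h := tr_lip (κ := κ) (h := P'.g) (h' := fr0 P') (w := dl P P') (w' := dl0 P P')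
    (X := fun _ => 1) hκ FlW464.sidesW_one (K := 2 * K) (τ := 5 * τ) K2 h5
    (fun i => by have := g' i; simp only [mul_one]; linarith)
    (fun i => by
      simp only [mul_one]
      fin_cases i
      · change |(0 : ℝ)| ≤ _
        rw [abs_zero]; linarith
      · have := g' 1; change |P'.g 1| ≤ _; linarith
      · have := g' 2; change |P'.g 2| ≤ _; linarith
      · have := g' 3; change |P'.g 3| ≤ _; linarith)
    (fun i => by
      fin_cases i
      · change |P'.g 0 - 0| ≤ _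
        rw [sub_zero]; linarith
      · change |P'.g 1 - P'.g 1| ≤ _
        rw [sub_self, abs_zero]; linarith
      · change |P'.g 2 - P'.g 2| ≤ _
        rw [sub_self, abs_zero]; linarith
      · change |P'.g 3 - P'.g 3| ≤ _
        rw [sub_self, abs_zero]; linarith)
    (fun q => by simp only [mul_one]; exact hdl q)
    (fun q => by
      unfold dl0
      split_ifs with h
      · rw [sub_zero]
        rcases h with rfl | rfl | rfl <;> linarith
      · rw [sub_self, abs_zero]; linarith) q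
  refine h.trans (le_of_eq ?_)
  unfold CP
  ring

/-! ### the functions of `34` -/

/-- `β` -/
def fB (κ : ℝ) (P : FW) : ℝ := P.g 3 + 2 * κ * (P.g 1 * P.g 2)
/-- `Y` -/
def fY (P : FW) : ℝ := 3 * P.G 2
/-- `Q` -/
def fQ (P : FW) : ℝ := 2 * P.G 10 + 4 * (P.g 2 * P.G 5)
/-- `K` -/
def fK (κ : ℝ) (P : FW) : ℝ := 2 * P.G 6 - 4 * κ * (P.g 1 * P.G 5)
/-- `Φ` -/
def fP (κ : ℝ) (P : FW) : ℝ := P.G 11 - 2 * κ * (P.g 1 * P.G 10)

/-- all small quantities of a pair -/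
theorem Pr.errs (H : Pr κ K τ P P') :
    |coW κ P P' 6 - dl P P' 2| ≤ CP K * τ ∧
    |coW κ P P' 9 - dl P P' 5| ≤ CP K * τ ∧
    |coW κ P P' 10 - (dl P P' 6 + 3 * κ * P'.g 2 * dl P P' 2 - 2 * κ * P'.g 1 * dl P P' 5)| ≤
      CP K * τ ∧
    |coW κ P P' 14 - (dl P P' 10 + P'.g 2 * dl P P' 5)| ≤ CP K * τ ∧
    |coW κ P P' 15 - (dl P P' 11 + 3 * κ * P'.g 2 ^ 2 * dl P P' 2 -
      2 * κ * P'.g 1 * P'.g 2 * dl P P' 5 + P'.g 3 * dl P P' 5 + 2 * P'.g 2 * dl P P' 6 -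
      2 * κ * P'.g 1 * dl P P' 10)| ≤ CP K * τ := by
  have h2 := H.main 2
  have h5 := H.main 5
  have h6 := H.main 6
  have h10 := H.main 10
  have h11 := H.main 11
  have z0 : fr0 P' 0 = 0 := rfl
  have z1 : fr0 P' 1 = P'.g 1 := rfl
  have z2 : fr0 P' 2 = P'.g 2 := rfl
  have z3 : fr0 P' 3 = P'.g 3 := rfl
  have d0 : dl0 P P' 0 = 0 := by simp [dl0]
  have d1 : dl0 P P' 1 = 0 := by simp [dl0]
  have d3 : dl0 P P' 3 = 0 := by simp [dl0]
  have dd : ∀ q : Fin 14, q ≠ 0 → q ≠ 1 → q ≠ 3 → dl0 P P' q = dl P P' q := by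
    intro q a b c
    simp [dl0, a, b, c]
  have d2 := dd 2 (by decide) (by decide) (by decide)
  have d4 := dd 4 (by decide) (by decide) (by decide)
  have d5 := dd 5 (by decide) (by decide) (by decide)
  have d6 := dd 6 (by decide) (by decide) (by decide)
  have d7 := dd 7 (by decide) (by decide) (by decide)
  have d8 := dd 8 (by decide) (by decide) (by decide)
  have d10 := dd 10 (by decide) (by decide) (by decide)
  have d11 := dd 11 (by decide) (by decide) (by decide)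
  rw [tr2, z0, z1, z2, d0, d1, d2] at h2
  rw [tr5, z0, z1, z2, d0, d1, d2, d3, d5] at h5
  rw [tr6, z0, z1, z2, z3, d0, d1, d2, d3, d4, d5, d6] at h6
  rw [tr10, z0, z2, z3, d0, d1, d2, d3, d4, d5, d7, d10] at h10
  rw [tr11, z0, z1, z2, z3, d0, d1, d2, d3, d4, d5, d6, d7, d8, d10, d11] at h11
  refine ⟨?_, ?_, ?_, ?_, ?_⟩
  · refine le_trans (le_of_eq ?_) h2
    congr 1
    change coW κ P P' 6 - _ = coW κ P P' 6 - _
    ring
  · refine le_trans (le_of_eq ?_) h5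
    congr 1
    change coW κ P P' 9 - _ = coW κ P P' 9 - _
    ring
  · refine le_trans (le_of_eq ?_) h6
    congr 1
    change coW κ P P' 10 - _ = coW κ P P' 10 - _
    ring
  · refine le_trans (le_of_eq ?_) h10
    congr 1
    change coW κ P P' 14 - _ = coW κ P P' 14 - _
    ring
  · refine le_trans (le_of_eq ?_) h11
    congr 1
    change coW κ P P' 15 - _ = coW κ P P' 15 - _
    ring

/-- the frames of a pair -/
theorem frames (κ : ℝ) (P P' : FW) : coW κ P P' 0 = P'.g 0 - P.g 0 ∧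
    P'.g 1 = P.g 1 + coW κ P P' 1 ∧ P'.g 2 = P.g 2 + coW κ P P' 2 + P.g 1 * coW κ P P' 0 ∧
    P'.g 3 = P.g 3 + coW κ P P' 3 - 2 * κ * P.g 1 * coW κ P P' 2 -
      κ * P.g 1 ^ 2 * coW κ P P' 0 := by
  have h0 := coW_left κ P P' 0
  have h1 := coW_left κ P P' 1
  have h2 := coW_left κ P P' 2
  have h3 := coW_left κ P P' 3
  have e0 : coW κ P P' 0 = P'.g 0 - P.g 0 := h0
  have e1 : coW κ P P' 1 = P'.g 1 - P.g 1 := h1
  have e2 : coW κ P P' 2 = P'.g 2 - P.g 2 - P.g 1 * (P'.g 0 - P.g 0) := h2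
  have e3 : coW κ P P' 3 = P'.g 3 - P.g 3 + 2 * κ * P.g 1 * (P'.g 2 - P.g 2 -
    P.g 1 * (P'.g 0 - P.g 0)) + κ * P.g 1 ^ 2 * (P'.g 0 - P.g 0) := h3
  refine ⟨e0, ?_, ?_, ?_⟩
  · rw [e1]; ring
  · rw [e2, e0]; ring
  · rw [e3, e2, e0]; ring

/-- the constant of the rows -/
def CR (K : ℝ) : ℝ := 12 * (100 * K ^ 4 * (1 + CP K))

theorem one_CP (hK : 1 ≤ K) : 2 ≤ CP K := by
  unfold CP
  have : (1 : ℝ) ≤ (2 * K) ^ 7 := one_le_pow₀ (by linarith)
  linarith

theorem rowc {A e : ℝ} (hK : 1 ≤ K) (hτ : 0 ≤ τ) (hA : A = 100 * K ^ 4) (he : e = (1 + CP K) * τ)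
    {R : ℝ} (l : List (ℝ × ℝ)) (hl : l.length ≤ 12) (hR : R = (l.map fun p => p.1 * p.2).sum)
    (h : ∀ p ∈ l, |p.1| ≤ A ∧ |p.2| ≤ e) : |R| ≤ CR K * τ := by
  have hC := one_CP hK
  have hA0 : 0 ≤ A := by rw [hA]; positivity
  have he0 : 0 ≤ e := by rw [he]; nlinarith
  rw [hR]
  refine (sum_small hA0 l h).trans ?_
  have h1 : (l.length : ℝ) ≤ 12 := by exact_mod_cast hl
  calc (l.length : ℝ) * (A * e) ≤ 12 * (A * e) :=
        mul_le_mul_of_nonneg_right h1 (mul_nonneg hA0 he0)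
    _ = CR K * τ := by rw [hA, he, CR]; ring

end Crest.Agent.R136.Cr544
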