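import Crest.Agent.R136.Crb_544

/-!
# R136, specials of the thin pins, rows (helper544), part 3: the rows of a pair, `34`
-/

set_option autoImplicit false
set_option linter.unusedVariables false

namespace Crest.Agent.R136.Cr544

open Crest.Agent.R136.NetW191 Crest.Agent.R136.EvW938

variable {κ K τ : ℝ} {P P' : FW}

/-- bound with a power of `K` -/
def Bd (K s : ℝ) (i : ℕ) (x : ℝ) : Prop := |x| ≤ s * K ^ i

theorem Bd.mul {s t x y : ℝ} {i j : ℕ} (hK : 1 ≤ K) (hs : 0 ≤ s) (hx : Bd K s i x)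
    (hy : Bd K t j y) : Bd K (s * t) (i + j) (x * y) := by
  unfold Bd at *
  rw [abs_mul, pow_add]
  calc |x| * |y| ≤ (s * K ^ i) * (t * K ^ j) :=
        mul_le_mul hx hy (abs_nonneg _) (mul_nonneg hs (by positivity))
    _ = _ := by ring

theorem Bd.fin {s x : ℝ} {i : ℕ} (hK : 1 ≤ K) (hx : Bd K s i x) (hs : s ≤ 25) (hi : i ≤ 4) :
    |x| ≤ 25 * K ^ 4 := by
  refine hx.trans ?_
  have h1 : K ^ i ≤ K ^ 4 := pow_le_pow_right₀ hK hi
  have h0 : 0 ≤ K ^ i := by positivity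
  nlinarith

theorem b0 {n s : ℝ} (h : |n| ≤ s) : Bd K s 0 n := by
  unfold Bd; rw [pow_zero, mul_one]; exact h

theorem b1 {x : ℝ} (h : |x| ≤ K) : Bd K 1 1 x := by
  unfold Bd; rw [pow_one, one_mul]; exact h

/-- monomials -/
theorem mon0 (hK : 1 ≤ K) {n : ℝ} (hn : |n| ≤ 6) : |n| ≤ 25 * K ^ 4 :=
  (b0 (K := K) hn).fin hK (by norm_num) (by norm_num)

theorem mon1 (hK : 1 ≤ K) {n x : ℝ} (hn : |n| ≤ 6) (hx : |x| ≤ K) : |n * x| ≤ 25 * K ^ 4 :=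
  ((b0 (K := K) hn).mul hK (by norm_num) (b1 hx)).fin hK (by norm_num) (by norm_num)

theorem mon2 (hK : 1 ≤ K) {n x y : ℝ} (hn : |n| ≤ 6) (hx : |x| ≤ K) (hy : |y| ≤ K) :
    |n * (x * y)| ≤ 25 * K ^ 4 :=
  ((b0 (K := K) hn).mul hK (by norm_num) ((b1 hx).mul hK (by norm_num) (b1 hy))).fin hK
    (by norm_num) (by norm_num)

theorem mon3 (hK : 1 ≤ K) {n x y z : ℝ} (hn : |n| ≤ 6) (hx : |x| ≤ K) (hy : |y| ≤ K)
    (hz : |z| ≤ K) : |n * (x * y * z)| ≤ 25 * K ^ 4 :=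
  ((b0 (K := K) hn).mul hK (by norm_num) (((b1 hx).mul hK (by norm_num) (b1 hy)).mul hK
    (by norm_num) (b1 hz))).fin hK (by norm_num) (by norm_num)

theorem mon4 (hK : 1 ≤ K) {n x y z t : ℝ} (hn : |n| ≤ 6) (hx : |x| ≤ K) (hy : |y| ≤ K)
    (hz : |z| ≤ K) (ht : |t| ≤ K) : |n * (x * y * z * t)| ≤ 25 * K ^ 4 :=
  ((b0 (K := K) hn).mul hK (by norm_num) ((((b1 hx).mul hK (by norm_num) (b1 hy)).mul hK
    (by norm_num) (b1 hz)).mul hK (by norm_num) (b1 ht))).fin hK (by norm_num) (by norm_num)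

/-- common data of the rows -/
structure Dt (κ K τ e : ℝ) (P P' : FW) : Prop where
  H : Pr κ K τ P P'
  he : e = (1 + CP K) * τ
  κK : |κ| ≤ K
  τe : τ ≤ e
  D0 : |coW κ P P' 0| ≤ e
  e2 : |coW κ P P' 6 - dl P P' 2| ≤ e
  e5 : |coW κ P P' 9 - dl P P' 5| ≤ e
  e6 : |coW κ P P' 10 - (dl P P' 6 + 3 * κ * P'.g 2 * dl P P' 2 - 2 * κ * P'.g 1 * dl P P' 5)| ≤ e
  e10 : |coW κ P P' 14 - (dl P P' 10 + P'.g 2 * dl P P' 5)| ≤ e
  e11 : |coW κ P P' 15 - (dl P P' 11 + 3 * κ * P'.g 2 ^ 2 * dl P P' 2 -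
      2 * κ * P'.g 1 * P'.g 2 * dl P P' 5 + P'.g 3 * dl P P' 5 + 2 * P'.g 2 * dl P P' 6 -
      2 * κ * P'.g 1 * dl P P' 10)| ≤ e

theorem Pr.dt (H : Pr κ K τ P P') : Dt κ K τ ((1 + CP K) * τ) P P' := by
  have hC := one_CP H.K1
  have hτ := H.τ0
  have h1 : CP K * τ ≤ (1 + CP K) * τ := by nlinarith
  obtain ⟨e2, e5, e6, e10, e11⟩ := H.errs
  obtain ⟨f0, -⟩ := frames κ P P'
  refine ⟨H, rfl, H.hκ.trans H.K1, by nlinarith, ?_, e2.trans h1, e5.trans h1, e6.trans h1,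
    e10.trans h1, e11.trans h1⟩
  rw [f0]
  have := abs_sub (P'.g 0) (P.g 0)
  have := H.t
  have := H.t'
  nlinarith

theorem Dt.row {e : ℝ} (D : Dt κ K τ e P P') {R : ℝ} (l : List (ℝ × ℝ)) (hl : l.length ≤ 12)
    (hR : R = (l.map fun p => p.1 * p.2).sum) (h : ∀ p ∈ l, |p.1| ≤ 100 * K ^ 4 ∧ |p.2| ≤ e) :
    |R| ≤ CR K * τ :=
  rowc D.H.K1 D.H.τ0 rfl D.he l hl hR h

theorem up4 (hK : 1 ≤ K) {x : ℝ} (h : |x| ≤ 25 * K ^ 4) : |x| ≤ 100 * K ^ 4 := by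
  have : 0 ≤ K ^ 4 := by positivity
  linarith

theorem up4' (hK : 1 ≤ K) {x y : ℝ} (h : |x| ≤ 25 * K ^ 4) (h' : |y| ≤ 25 * K ^ 4) :
    |x + y| ≤ 100 * K ^ 4 := by
  have : 0 ≤ K ^ 4 := by positivity
  have := abs_add_le x y
  linarith

/-- `a` -/
theorem Dt.ra {e : ℝ} (D : Dt κ K τ e P P') (d2 : |coW κ P P' 2| ≤ τ) :
    |P'.g 2 - P.g 2| ≤ CR K * τ := by
  have hK := D.H.K1
  obtain ⟨f0, f1, f2, f3⟩ := frames κ P P'
  refine D.row [(1, coW κ P P' 2), (P.g 1, coW κ P P' 0)] (by simp) ?_ ?_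
  · simp only [List.map_cons, List.map_nil, List.sum_cons, List.sum_nil]
    rw [f2]; ring
  · simp only [List.forall_mem_cons, List.not_mem_nil, false_implies, implies_true, and_true]
    refine ⟨⟨up4 hK (mon0 hK (by norm_num)), d2.trans D.τe⟩, ?_, D.D0⟩
    have := mon1 hK (n := 1) (by norm_num) (D.H.g 1)
    rw [one_mul] at this
    exact up4 hK this

/-- `F` -/
theorem Dt.rF {e : ℝ} (D : Dt κ K τ e P P') (d9 : |coW κ P P' 9| ≤ τ) :
    |P'.G 5 - P.G 5| ≤ CR K * τ := by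
  have hK := D.H.K1
  refine D.row [(1, coW κ P P' 9), (-1, coW κ P P' 9 - dl P P' 5)] (by simp) ?_ ?_
  · simp only [List.map_cons, List.map_nil, List.sum_cons, List.sum_nil]
    have : dl P P' 5 = P'.G 5 - P.G 5 := rfl
    rw [this]; ring
  · simp only [List.forall_mem_cons, List.not_mem_nil, false_implies, implies_true, and_true]
    exact ⟨⟨up4 hK (mon0 hK (by norm_num)), d9.trans D.τe⟩,
      up4 hK (mon0 hK (by rw [abs_neg]; norm_num)), D.e5⟩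

/-- `Y` -/
theorem Dt.rY {e : ℝ} (D : Dt κ K τ e P P') (d6 : |coW κ P P' 6| ≤ τ) :
    |fY P' - fY P| ≤ CR K * τ := by
  have hK := D.H.K1
  refine D.row [(3, coW κ P P' 6), (-3, coW κ P P' 6 - dl P P' 2)] (by simp) ?_ ?_
  · simp only [List.map_cons, List.map_nil, List.sum_cons, List.sum_nil]
    have : dl P P' 2 = P'.G 2 - P.G 2 := rfl
    rw [this]; unfold fY; ring
  · simp only [List.forall_mem_cons, List.not_mem_nil, false_implies, implies_true, and_true]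
    exact ⟨⟨up4 hK (mon0 hK (by norm_num)), d6.trans D.τe⟩,
      up4 hK (mon0 hK (by rw [abs_neg]; norm_num)), D.e2⟩

/-- `Q` -/
theorem Dt.rQ {e : ℝ} (D : Dt κ K τ e P P') (d2 : |coW κ P P' 2| ≤ τ)
    (d9 : |coW κ P P' 9| ≤ τ) (d14 : |coW κ P P' 14| ≤ τ) : |fQ P' - fQ P| ≤ CR K * τ := by
  have hK := D.H.K1
  obtain ⟨f0, f1, f2, f3⟩ := frames κ P P'
  refine D.row [(2, coW κ P P' 14), (-2, coW κ P P' 14 - (dl P P' 10 + P'.g 2 * dl P P' 5)),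
    (2 * P'.g 2, coW κ P P' 9), (-2 * P'.g 2, coW κ P P' 9 - dl P P' 5),
    (4 * P.G 5, coW κ P P' 2), (4 * (P.G 5 * P.g 1), coW κ P P' 0)] (by simp) ?_ ?_
  · simp only [List.map_cons, List.map_nil, List.sum_cons, List.sum_nil]
    have h5 : dl P P' 5 = P'.G 5 - P.G 5 := rfl
    have h10 : dl P P' 10 = P'.G 10 - P.G 10 := rfl
    rw [h5, h10]; unfold fQ
    linear_combination (4 * P.G 5) * f2
  · simp only [List.forall_mem_cons, List.not_mem_nil, false_implies, implies_true, and_true]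
    exact ⟨⟨up4 hK (mon0 hK (by norm_num)), d14.trans D.τe⟩,
      ⟨up4 hK (mon0 hK (by rw [abs_neg]; norm_num)), D.e10⟩,
      ⟨up4 hK (mon1 hK (by norm_num) (D.H.g' 2)), d9.trans D.τe⟩,
      ⟨up4 hK (mon1 hK (by rw [abs_neg]; norm_num) (D.H.g' 2)), D.e5⟩,
      ⟨up4 hK (mon1 hK (by norm_num) (D.H.G 5)), d2.trans D.τe⟩,
      up4 hK (mon2 hK (by norm_num) (D.H.G 5) (D.H.g 1)), D.D0⟩

/-- the big row of the positions -/
theorem Dt.rp {e : ℝ} (D : Dt κ K τ e P P') (d2 : |coW κ P P' 2| ≤ τ)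
    (d9 : |coW κ P P' 9| ≤ τ) (d14 : |coW κ P P' 14| ≤ τ) (d15 : |coW κ P P' 15| ≤ τ) :
    |(fP κ P' + κ * P'.g 2 ^ 2 * fY P' + P'.g 2 * fK κ P' + κ * (P'.g 1 * fQ P')) -
      (fP κ P + κ * P.g 2 ^ 2 * fY P + P.g 2 * fK κ P + κ * (P.g 1 * fQ P))| ≤ CR K * τ := by
  have hK := D.H.K1
  obtain ⟨f0, f1, f2, f3⟩ := frames κ P P'
  refine D.row [(1, coW κ P P' 15), (-1, coW κ P P' 15 - (dl P P' 11 +
      3 * κ * P'.g 2 ^ 2 * dl P P' 2 - 2 * κ * P'.g 1 * P'.g 2 * dl P P' 5 +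
      P'.g 3 * dl P P' 5 + 2 * P'.g 2 * dl P P' 6 - 2 * κ * P'.g 1 * dl P P' 10)),
    (-1 * P'.g 3, coW κ P P' 9), (1 * P'.g 3, coW κ P P' 9 - dl P P' 5),
    (2 * (κ * P'.g 1), coW κ P P' 14),
    (-2 * (κ * P'.g 1), coW κ P P' 14 - (dl P P' 10 + P'.g 2 * dl P P' 5)),
    (3 * (κ * P'.g 2 * P.G 2) + 3 * (κ * P.g 2 * P.G 2), coW κ P P' 2),
    (2 * P.G 6, coW κ P P' 2),
    (3 * (κ * P'.g 2 * P.G 2 * P.g 1) + 3 * (κ * P.g 2 * P.G 2 * P.g 1), coW κ P P' 0),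
    (2 * (P.G 6 * P.g 1), coW κ P P' 0)] (by simp) ?_ ?_
  · simp only [List.map_cons, List.map_nil, List.sum_cons, List.sum_nil]
    have h2 : dl P P' 2 = P'.G 2 - P.G 2 := rfl
    have h5 : dl P P' 5 = P'.G 5 - P.G 5 := rfl
    have h6 : dl P P' 6 = P'.G 6 - P.G 6 := rfl
    have h10 : dl P P' 10 = P'.G 10 - P.G 10 := rfl
    have h11 : dl P P' 11 = P'.G 11 - P.G 11 := rfl
    rw [h2, h5, h6, h10, h11]; unfold fP fY fK fQ
    linear_combination (3 * κ * (P'.g 2 + P.g 2) * P.G 2 + 2 * P.G 6) * f2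
  · simp only [List.forall_mem_cons, List.not_mem_nil, false_implies, implies_true, and_true]
    exact ⟨⟨up4 hK (mon0 hK (by norm_num)), d15.trans D.τe⟩,
      ⟨up4 hK (mon0 hK (by rw [abs_neg]; norm_num)), D.e11⟩,
      ⟨up4 hK (mon1 hK (by rw [abs_neg]; norm_num) (D.H.g' 3)), d9.trans D.τe⟩,
      ⟨up4 hK (mon1 hK (by norm_num) (D.H.g' 3)), D.e5⟩,
      ⟨up4 hK (mon2 hK (by norm_num) D.κK (D.H.g' 1)), d14.trans D.τe⟩,
      ⟨up4 hK (mon2 hK (by rw [abs_neg]; norm_num) D.κK (D.H.g' 1)), D.e10⟩,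
      ⟨up4' hK (mon3 hK (by norm_num) D.κK (D.H.g' 2) (D.H.G 2))
        (mon3 hK (by norm_num) D.κK (D.H.g 2) (D.H.G 2)), d2.trans D.τe⟩,
      ⟨up4 hK (mon1 hK (by norm_num) (D.H.G 6)), d2.trans D.τe⟩,
      ⟨up4' hK (mon4 hK (by norm_num) D.κK (D.H.g' 2) (D.H.G 2) (D.H.g 1))
        (mon4 hK (by norm_num) D.κK (D.H.g 2) (D.H.G 2) (D.H.g 1)), D.D0⟩,
      up4 hK (mon2 hK (by norm_num) (D.H.G 6) (D.H.g 1)), D.D0⟩

/-- `c` -/
theorem Dt.rc {e : ℝ} (D : Dt κ K τ e P P') (d1 : |coW κ P P' 1| ≤ τ) :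
    |P'.g 1 - P.g 1| ≤ CR K * τ := by
  have hK := D.H.K1
  obtain ⟨f0, f1, f2, f3⟩ := frames κ P P'
  refine D.row [(1, coW κ P P' 1)] (by simp) ?_ ?_
  · simp only [List.map_cons, List.map_nil, List.sum_cons, List.sum_nil]
    rw [f1]; ring
  · simp only [List.forall_mem_cons, List.not_mem_nil, false_implies, implies_true, and_true]
    exact ⟨up4 hK (mon0 hK (by norm_num)), d1.trans D.τe⟩

/-- the coordinate `A` of the pair is bounded -/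
theorem Dt.D2 {e : ℝ} (D : Dt κ K τ e P P') : |2 * (κ * coW κ P P' 2)| ≤ 25 * K ^ 4 := by
  have hK := D.H.K1
  obtain ⟨f0, f1, f2, f3⟩ := frames κ P P'
  have h1 : |coW κ P P' 2| ≤ 4 * K ^ 2 := by
    have e1 : coW κ P P' 2 = P'.g 2 - P.g 2 - P.g 1 * (P'.g 0 - P.g 0) := by
      rw [f2, f0]; ring
    rw [e1]
    have h1 := abs_sub (P'.g 2 - P.g 2) (P.g 1 * (P'.g 0 - P.g 0))
    have h2 := abs_sub (P'.g 2) (P.g 2)
    have h3 : |P.g 1 * (P'.g 0 - P.g 0)| ≤ K * 2 := by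
      rw [abs_mul]
      refine mul_le_mul (D.H.g 1) ?_ (abs_nonneg _) (by linarith)
      have := abs_sub (P'.g 0) (P.g 0)
      have := D.H.t
      have := D.H.t'
      have := D.H.τ1
      linarith
    have := D.H.g 2
    have := D.H.g' 2
    nlinarith
  rw [abs_mul, abs_mul, abs_two]
  have h2 := D.H.hκ
  have h3 : |κ| * |coW κ P P' 2| ≤ 1 * (4 * K ^ 2) :=
    mul_le_mul h2 h1 (abs_nonneg _) (by norm_num)
  have h4 : K ^ 2 ≤ K ^ 4 := pow_le_pow_right₀ hK (by norm_num)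
  nlinarith

/-- `β` on a cell of the velocities -/
theorem Dt.rB {e : ℝ} (D : Dt κ K τ e P P') (d1 : |coW κ P P' 1| ≤ τ) (d3 : |coW κ P P' 3| ≤ τ) :
    |fB κ P' - fB κ P| ≤ CR K * τ := by
  have hK := D.H.K1
  obtain ⟨f0, f1, f2, f3⟩ := frames κ P P'
  refine D.row [(1, coW κ P P' 3), (2 * (κ * coW κ P P' 2) + 2 * (κ * P.g 2), coW κ P P' 1),
    (2 * (κ * P'.g 1 * P.g 1) + -1 * (κ * P.g 1 * P.g 1), coW κ P P' 0)] (by simp) ?_ ?_
  · simp only [List.map_cons, List.map_nil, List.sum_cons, List.sum_nil]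
    unfold fB
    rw [f3, f2, f1]; ring
  · simp only [List.forall_mem_cons, List.not_mem_nil, false_implies, implies_true, and_true]
    exact ⟨⟨up4 hK (mon0 hK (by norm_num)), d3.trans D.τe⟩,
      ⟨up4' hK D.D2 (mon2 hK (by norm_num) D.κK (D.H.g 2)), d1.trans D.τe⟩,
      up4' hK (mon3 hK (by norm_num) D.κK (D.H.g' 1) (D.H.g 1))
        (mon3 hK (by rw [abs_neg]; norm_num) D.κK (D.H.g 1) (D.H.g 1)), D.D0⟩

/-- `K` on a cell of the velocities -/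
theorem Dt.rK {e : ℝ} (D : Dt κ K τ e P P') (d1 : |coW κ P P' 1| ≤ τ) (d6 : |coW κ P P' 6| ≤ τ)
    (d10 : |coW κ P P' 10| ≤ τ) : |fK κ P' - fK κ P| ≤ CR K * τ := by
  have hK := D.H.K1
  obtain ⟨f0, f1, f2, f3⟩ := frames κ P P'
  refine D.row [(2, coW κ P P' 10), (-2, coW κ P P' 10 - (dl P P' 6 +
      3 * κ * P'.g 2 * dl P P' 2 - 2 * κ * P'.g 1 * dl P P' 5)),
    (-6 * (κ * P'.g 2), coW κ P P' 6), (6 * (κ * P'.g 2), coW κ P P' 6 - dl P P' 2),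
    (-4 * (κ * P.G 5), coW κ P P' 1)] (by simp) ?_ ?_
  · simp only [List.map_cons, List.map_nil, List.sum_cons, List.sum_nil]
    have h2 : dl P P' 2 = P'.G 2 - P.G 2 := rfl
    have h5 : dl P P' 5 = P'.G 5 - P.G 5 := rfl
    have h6 : dl P P' 6 = P'.G 6 - P.G 6 := rfl
    rw [h2, h5, h6]; unfold fK
    linear_combination (-4 * κ * P.G 5) * f1
  · simp only [List.forall_mem_cons, List.not_mem_nil, false_implies, implies_true, and_true]
    exact ⟨⟨up4 hK (mon0 hK (by norm_num)), d10.trans D.τe⟩,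
      ⟨up4 hK (mon0 hK (by rw [abs_neg]; norm_num)), D.e6⟩,
      ⟨up4 hK (mon2 hK (by rw [abs_neg]; norm_num) D.κK (D.H.g' 2)), d6.trans D.τe⟩,
      ⟨up4 hK (mon2 hK (by norm_num) D.κK (D.H.g' 2)), D.e2⟩,
      up4 hK (mon2 hK (by rw [abs_neg]; norm_num) D.κK (D.H.G 5)), d1.trans D.τe⟩

/-- the big row of the velocities -/
theorem Dt.rv {e : ℝ} (D : Dt κ K τ e P P') (d1 : |coW κ P P' 1| ≤ τ) (d3 : |coW κ P P' 3| ≤ τ)
    (d6 : |coW κ P P' 6| ≤ τ) (d10 : |coW κ P P' 10| ≤ τ) (d15 : |coW κ P P' 15| ≤ τ) :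
    |(fP κ P' + fB κ P' * P'.G 5) - (fP κ P + fB κ P * P.G 5)| ≤ 2 * (CR K * τ) := by
  have hK := D.H.K1
  obtain ⟨f0, f1, f2, f3⟩ := frames κ P P'
  -- without the change of `β`
  have h1 : |(fP κ P' + fB κ P' * P'.G 5) - (fP κ P + fB κ P * P.G 5) -
      P.G 5 * (fB κ P' - fB κ P)| ≤ CR K * τ := by
    refine D.row [(1, coW κ P P' 15), (-1, coW κ P P' 15 - (dl P P' 11 +
        3 * κ * P'.g 2 ^ 2 * dl P P' 2 - 2 * κ * P'.g 1 * P'.g 2 * dl P P' 5 +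
        P'.g 3 * dl P P' 5 + 2 * P'.g 2 * dl P P' 6 - 2 * κ * P'.g 1 * dl P P' 10)),
      (3 * (κ * P'.g 2 * P'.g 2), coW κ P P' 6),
      (-3 * (κ * P'.g 2 * P'.g 2), coW κ P P' 6 - dl P P' 2),
      (-2 * P'.g 2, coW κ P P' 10), (2 * P'.g 2, coW κ P P' 10 - (dl P P' 6 +
        3 * κ * P'.g 2 * dl P P' 2 - 2 * κ * P'.g 1 * dl P P' 5)),
      (-2 * (κ * P.G 10), coW κ P P' 1)] (by simp) ?_ ?_
    · simp only [List.map_cons, List.map_nil, List.sum_cons, List.sum_nil]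
      have h2 : dl P P' 2 = P'.G 2 - P.G 2 := rfl
      have h5 : dl P P' 5 = P'.G 5 - P.G 5 := rfl
      have h6 : dl P P' 6 = P'.G 6 - P.G 6 := rfl
      have h10 : dl P P' 10 = P'.G 10 - P.G 10 := rfl
      have h11 : dl P P' 11 = P'.G 11 - P.G 11 := rfl
      rw [h2, h5, h6, h10, h11]; unfold fP fB
      linear_combination (-2 * κ * P.G 10) * f1
    · simp only [List.forall_mem_cons, List.not_mem_nil, false_implies, implies_true, and_true]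
      exact ⟨⟨up4 hK (mon0 hK (by norm_num)), d15.trans D.τe⟩,
        ⟨up4 hK (mon0 hK (by rw [abs_neg]; norm_num)), D.e11⟩,
        ⟨up4 hK (mon3 hK (by norm_num) D.κK (D.H.g' 2) (D.H.g' 2)), d6.trans D.τe⟩,
        ⟨up4 hK (mon3 hK (by rw [abs_neg]; norm_num) D.κK (D.H.g' 2) (D.H.g' 2)), D.e2⟩,
        ⟨up4 hK (mon1 hK (by rw [abs_neg]; norm_num) (D.H.g' 2)), d10.trans D.τe⟩,
        ⟨up4 hK (mon1 hK (by norm_num) (D.H.g' 2)), D.e6⟩,
        up4 hK (mon2 hK (by rw [abs_neg]; norm_num) D.κK (D.H.G 10)), d1.trans D.τe⟩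
  have h2 : |P.G 5 * (fB κ P' - fB κ P)| ≤ CR K * τ := by
    refine D.row [(1 * P.G 5, coW κ P P' 3), (P.G 5 * (2 * (κ * coW κ P P' 2)) +
        2 * (κ * P.g 2 * P.G 5), coW κ P P' 1),
      (2 * (κ * P'.g 1 * P.g 1 * P.G 5) + -1 * (κ * P.g 1 * P.g 1 * P.G 5), coW κ P P' 0)]
      (by simp) ?_ ?_
    · simp only [List.map_cons, List.map_nil, List.sum_cons, List.sum_nil]
      unfold fB
      rw [f3, f2, f1]; ring
    · simp only [List.forall_mem_cons, List.not_mem_nil, false_implies, implies_true, and_true]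
      refine ⟨⟨up4 hK (mon1 hK (by norm_num) (D.H.G 5)), d3.trans D.τe⟩,
        ⟨up4' hK ?_ (mon3 hK (by norm_num) D.κK (D.H.g 2) (D.H.G 5)), d1.trans D.τe⟩,
        up4' hK (mon4 hK (by norm_num) D.κK (D.H.g' 1) (D.H.g 1) (D.H.G 5))
          (mon4 hK (by rw [abs_neg]; norm_num) D.κK (D.H.g 1) (D.H.g 1) (D.H.G 5)), D.D0⟩
      have h1 : |2 * (κ * coW κ P P' 2)| ≤ 8 * K ^ 2 := by
        have e1 : coW κ P P' 2 = P'.g 2 - P.g 2 - P.g 1 * (P'.g 0 - P.g 0) := by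
          rw [f2, f0]; ring
        have h1 := abs_sub (P'.g 2 - P.g 2) (P.g 1 * (P'.g 0 - P.g 0))
        have h2 := abs_sub (P'.g 2) (P.g 2)
        have h3 : |P.g 1 * (P'.g 0 - P.g 0)| ≤ K * 2 := by
          rw [abs_mul]
          refine mul_le_mul (D.H.g 1) ?_ (abs_nonneg _) (by linarith)
          have := abs_sub (P'.g 0) (P.g 0)
          have := D.H.t
          have := D.H.t'
          have := D.H.τ1
          linarith
        have g1 := D.H.g 2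
        have g2 := D.H.g' 2
        have h4 : |coW κ P P' 2| ≤ 4 * K ^ 2 := by rw [e1]; nlinarith
        rw [abs_mul, abs_mul, abs_two]
        have h5 : |κ| * |coW κ P P' 2| ≤ 1 * (4 * K ^ 2) :=
          mul_le_mul D.H.hκ h4 (abs_nonneg _) (by norm_num)
        linarith
      rw [abs_mul]
      calc |P.G 5| * |2 * (κ * coW κ P P' 2)| ≤ K * (8 * K ^ 2) :=
            mul_le_mul (D.H.G 5) h1 (abs_nonneg _) (by linarith)
        _ ≤ 25 * K ^ 4 := by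
            have : K ^ 3 ≤ K ^ 4 := pow_le_pow_right₀ hK (by norm_num)
            nlinarith [show 0 ≤ K ^ 4 by positivity]
  have e1 : (fP κ P' + fB κ P' * P'.G 5) - (fP κ P + fB κ P * P.G 5) =
      ((fP κ P' + fB κ P' * P'.G 5) - (fP κ P + fB κ P * P.G 5) -
      P.G 5 * (fB κ P' - fB κ P)) + P.G 5 * (fB κ P' - fB κ P) := by ring
  rw [e1]
  refine (abs_add_le _ _).trans ?_
  linarith

/-- `β` on a cell of the sheet -/
theorem Dt.rBz {e : ℝ} (D : Dt κ K τ e P P') (d1 : |coW κ P P' 1| ≤ 6 * K)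
    (d2 : |coW κ P P' 2| ≤ τ) (d3 : |coW κ P P' 3| ≤ τ) :
    |(fB κ P - fB κ P') - 2 * κ * P.g 2 * (P.g 1 - P'.g 1)| ≤ CR K * τ := by
  have hK := D.H.K1
  obtain ⟨f0, f1, f2, f3⟩ := frames κ P P'
  refine D.row [(-1, coW κ P P' 3), (-2 * (κ * coW κ P P' 1), coW κ P P' 2),
    (-2 * (κ * P'.g 1 * P.g 1) + 1 * (κ * P.g 1 * P.g 1), coW κ P P' 0)] (by simp) ?_ ?_
  · simp only [List.map_cons, List.map_nil, List.sum_cons, List.sum_nil]
    unfold fB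
    rw [f3, f2, f1]; ring
  · simp only [List.forall_mem_cons, List.not_mem_nil, false_implies, implies_true, and_true]
    refine ⟨⟨up4 hK (mon0 hK (by rw [abs_neg]; norm_num)), d3.trans D.τe⟩,
      ⟨?_, d2.trans D.τe⟩,
      up4' hK (mon3 hK (by rw [abs_neg]; norm_num) D.κK (D.H.g' 1) (D.H.g 1))
        (mon3 hK (by norm_num) D.κK (D.H.g 1) (D.H.g 1)), D.D0⟩
    rw [abs_mul, abs_mul, abs_neg, abs_two]
    have h5 : |κ| * |coW κ P P' 1| ≤ 1 * (6 * K) :=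
      mul_le_mul D.H.hκ d1 (abs_nonneg _) (by norm_num)
    have : K ≤ K ^ 4 := by
      calc K = K ^ 1 := (pow_one K).symm
        _ ≤ K ^ 4 := pow_le_pow_right₀ hK (by norm_num)
    linarith

/-- the row of the sheet -/
theorem Dt.rz {e : ℝ} (D : Dt κ K τ e P P') (d2 : |coW κ P P' 2| ≤ τ)
    (d9 : |coW κ P P' 9| ≤ τ) (d10 : |coW κ P P' 10| ≤ τ) :
    |(fK κ P' + 4 * κ * P'.g 1 * P'.G 5 + 2 * κ * P'.g 2 * fY P') -
      (fK κ P + 4 * κ * P.g 1 * P.G 5 + 2 * κ * P.g 2 * fY P)| ≤ CR K * τ := by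
  have hK := D.H.K1
  obtain ⟨f0, f1, f2, f3⟩ := frames κ P P'
  refine D.row [(2, coW κ P P' 10), (-2, coW κ P P' 10 - (dl P P' 6 +
      3 * κ * P'.g 2 * dl P P' 2 - 2 * κ * P'.g 1 * dl P P' 5)),
    (4 * (κ * P'.g 1), coW κ P P' 9), (-4 * (κ * P'.g 1), coW κ P P' 9 - dl P P' 5),
    (6 * (κ * P.G 2), coW κ P P' 2), (6 * (κ * P.G 2 * P.g 1), coW κ P P' 0)] (by simp) ?_ ?_
  · simp only [List.map_cons, List.map_nil, List.sum_cons, List.sum_nil]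
    have h2 : dl P P' 2 = P'.G 2 - P.G 2 := rfl
    have h5 : dl P P' 5 = P'.G 5 - P.G 5 := rfl
    have h6 : dl P P' 6 = P'.G 6 - P.G 6 := rfl
    rw [h2, h5, h6]; unfold fK fY
    linear_combination (6 * κ * P.G 2) * f2
  · simp only [List.forall_mem_cons, List.not_mem_nil, false_implies, implies_true, and_true]
    exact ⟨⟨up4 hK (mon0 hK (by norm_num)), d10.trans D.τe⟩,
      ⟨up4 hK (mon0 hK (by rw [abs_neg]; norm_num)), D.e6⟩,
      ⟨up4 hK (mon2 hK (by norm_num) D.κK (D.H.g' 1)), d9.trans D.τe⟩,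
      ⟨up4 hK (mon2 hK (by rw [abs_neg]; norm_num) D.κK (D.H.g' 1)), D.e5⟩,
      ⟨up4 hK (mon2 hK (by norm_num) D.κK (D.H.G 2)), d2.trans D.τe⟩,
      up4 hK (mon3 hK (by norm_num) D.κK (D.H.G 2) (D.H.g 1)), D.D0⟩

/-- backwards: slot `A` -/
theorem Dt.sa {e : ℝ} (D : Dt κ K τ e P P') : |coW κ P P' 2 - (P'.g 2 - P.g 2)| ≤ CR K * τ := by
  have hK := D.H.K1
  obtain ⟨f0, f1, f2, f3⟩ := frames κ P P'
  refine D.row [(-1 * P.g 1, coW κ P P' 0)] (by simp) ?_ ?_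
  · simp only [List.map_cons, List.map_nil, List.sum_cons, List.sum_nil]
    rw [f2]; ring
  · simp only [List.forall_mem_cons, List.not_mem_nil, false_implies, implies_true, and_true]
    exact ⟨up4 hK (mon1 hK (by rw [abs_neg]; norm_num) (D.H.g 1)), D.D0⟩

/-- backwards: slot `B` -/
theorem Dt.sb {e : ℝ} (D : Dt κ K τ e P P') (d1 : |coW κ P P' 1| ≤ τ) :
    |coW κ P P' 3 - (fB κ P' - fB κ P)| ≤ CR K * τ := by
  have hK := D.H.K1
  obtain ⟨f0, f1, f2, f3⟩ := frames κ P P'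
  refine D.row [(-1 * (2 * (κ * coW κ P P' 2)) + -2 * (κ * P.g 2), coW κ P P' 1),
    (-2 * (κ * P'.g 1 * P.g 1) + 1 * (κ * P.g 1 * P.g 1), coW κ P P' 0)] (by simp) ?_ ?_
  · simp only [List.map_cons, List.map_nil, List.sum_cons, List.sum_nil]
    unfold fB
    rw [f3, f2, f1]; ring
  · simp only [List.forall_mem_cons, List.not_mem_nil, false_implies, implies_true, and_true]
    refine ⟨⟨up4' hK ?_ (mon2 hK (by rw [abs_neg]; norm_num) D.κK (D.H.g 2)), d1.trans D.τe⟩,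
      up4' hK (mon3 hK (by rw [abs_neg]; norm_num) D.κK (D.H.g' 1) (D.H.g 1))
        (mon3 hK (by norm_num) D.κK (D.H.g 1) (D.H.g 1)), D.D0⟩
    rw [abs_mul, abs_neg, abs_one, one_mul]
    exact D.D2

/-- backwards: slot `AY` -/
theorem Dt.sY {e : ℝ} (D : Dt κ K τ e P P') :
    |coW κ P P' 6 - (fY P' - fY P) / 3| ≤ CR K * τ := by
  have hK := D.H.K1
  refine D.row [(1, coW κ P P' 6 - dl P P' 2)] (by simp) ?_ ?_
  · simp only [List.map_cons, List.map_nil, List.sum_cons, List.sum_nil]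
    have : dl P P' 2 = P'.G 2 - P.G 2 := rfl
    rw [this]; unfold fY; ring
  · simp only [List.forall_mem_cons, List.not_mem_nil, false_implies, implies_true, and_true]
    exact ⟨up4 hK (mon0 hK (by norm_num)), D.e2⟩

/-- backwards: slot `AB` -/
theorem Dt.sF {e : ℝ} (D : Dt κ K τ e P P') :
    |coW κ P P' 9 - (P'.G 5 - P.G 5)| ≤ CR K * τ := by
  have hK := D.H.K1
  refine D.row [(1, coW κ P P' 9 - dl P P' 5)] (by simp) ?_ ?_
  · simp only [List.map_cons, List.map_nil, List.sum_cons, List.sum_nil]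
    have : dl P P' 5 = P'.G 5 - P.G 5 := rfl
    rw [this]; ring
  · simp only [List.forall_mem_cons, List.not_mem_nil, false_implies, implies_true, and_true]
    exact ⟨up4 hK (mon0 hK (by norm_num)), D.e5⟩

end Crest.Agent.R136.Cr544
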