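import Crest.Agent.R136.Cap3_102

/-!
# R136 (U5, crude tilt of curved marks), helper705: counting of concentrated lines

`conc_count`: lines of a sheet whose neighbours have their relative velocities in three small balls
(for all heights outside two short intervals) are few, if the test sheets `72 β r w` over the deep
cells of relative length `r` contain at most `M` lines: their number is at most `150 M / (β r)²`.
-/

set_option autoImplicit false
set_option linter.unusedVariables false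

namespace Crest.Agent.R136.Crd705

open Finset Crest.Agent.R136.Sh605 Crest.Agent.R136.Tl102

/-! ### two points of a sheet -/

/-- one step along an axis, both signs -/
theorem step {e : Fin 3 → V3} {c : Ln4} {w : V3} {q : ℝ → V3 → ℝ} {z s : ℝ} {k : Fin 3}
    (h : ∀ (x : V3) (τ : ℝ), 0 ≤ τ → InK e c (dbl3 w) z x → InK e c (dbl3 w) z (x + τ • e k) →
      |q z (x + τ • e k) - q z x| ≤ s * τ) {x : V3} {τ : ℝ} (hx : InK e c (dbl3 w) z x)
    (hx' : InK e c (dbl3 w) z (x + τ • e k)) : |q z (x + τ • e k) - q z x| ≤ s * |τ| := by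
  rcases le_total 0 τ with h0 | h0
  · rw [abs_of_nonneg h0]; exact h x τ h0 hx hx'
  · have e1 : x = (x + τ • e k) + (-τ) • e k := by
      ext i; simp only [Pi.add_apply, Pi.smul_apply, smul_eq_mul]; ring
    have := h (x + τ • e k) (-τ) (by linarith) hx' (by rw [← e1]; exact hx)
    rw [← e1] at this
    rw [abs_of_nonpos h0, abs_sub_comm]
    exact this

/-- steepness, both signs -/
theorem steep {e : Fin 3 → V3} {c : Ln4} {w : V3} {q : ℝ → V3 → ℝ} {z0 ρ z : ℝ}
    (S : StP e c w q z0 ρ) (h1 : z0 ≤ z) (h2 : z ≤ z0 + ρ) {x : V3} {τ : ℝ}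
    (hx : InK e c (dbl3 w) z x) (hx' : InK e c (dbl3 w) z (x + τ • e 0)) :
    |τ| ≤ 2 * |q z (x + τ • e 0) - q z x| := by
  rcases le_total 0 τ with h0 | h0
  · have := (S.st0 z h1 h2 x τ h0 hx hx').1
    rw [abs_of_nonneg h0]
    linarith [le_abs_self (q z (x + τ • e 0) - q z x)]
  · have e1 : x = (x + τ • e 0) + (-τ) • e 0 := by
      ext i; simp only [Pi.add_apply, Pi.smul_apply, smul_eq_mul]; ring
    have := (S.st0 z h1 h2 (x + τ • e 0) (-τ) (by linarith) hx' (by rw [← e1]; exact hx)).1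
    rw [← e1] at this
    rw [abs_of_nonpos h0, abs_sub_comm]
    linarith [le_abs_self (q z x - q z (x + τ • e 0))]

/-- normal distance of two points of a sheet -/
theorem off {e : Fin 3 → V3} {c : Ln4} {w : V3} {q : ℝ → V3 → ℝ} {z0 ρ z a : ℝ}
    (S : StP e c w q z0 ρ) (h1 : z0 ≤ z) (h2 : z ≤ z0 + ρ) {P P' : V3} (hP : InK e c w z P)
    (hP' : InK e c w z P') (hq : |q z P| ≤ a) (hq' : |q z P'| ≤ a) :
    |dt (e 0) (P - P')| ≤ 4 * a + 2 * (w 0 / w 1 * |dt (e 1) (P - P')| +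
      w 0 / w 2 * |dt (e 2) (P - P')|) := by
  set Δ0 := dt (e 0) (P - P') with hΔ0
  set Δ1 := dt (e 1) (P - P') with hΔ1
  set Δ2 := dt (e 2) (P - P') with hΔ2
  set P1 := P' + Δ1 • e 1 with hP1
  set P2 := P1 + Δ2 • e 2 with hP2
  have hPe : P2 + Δ0 • e 0 = P := by
    ext i
    have := S.ortho.expand (P - P') i
    rw [Pi.sub_apply] at this
    simp only [hP2, hP1, Pi.add_apply, Pi.smul_apply, smul_eq_mul]
    linarith
  have hor : ∀ i j, dt (e i) (e j) = if i = j then 1 else 0 := S.ortho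
  have hsub : ∀ k, dt (e k) (P - P') = dt (e k) (P - c.pos z) - dt (e k) (P' - c.pos z) := by
    intro k; rw [dt_sub, dt_sub, dt_sub]; ring
  have dbl : ∀ {X : V3}, InK e c w z X → InK e c (dbl3 w) z X := by
    intro X h i
    have := h i
    have h0 := (S.pos i).le
    change _ ≤ 2 * w i
    linarith
  have hK1 : InK e c w z P1 := by
    intro i
    have e1 : dt (e i) (P1 - c.pos z) = dt (e i) (P' - c.pos z) + Δ1 * dt (e i) (e 1) := by
      have : P1 - c.pos z = (P' - c.pos z) + Δ1 • e 1 := by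
        rw [hP1]; ext j; simp only [Pi.sub_apply, Pi.add_apply]; ring
      rw [this, dt_add, dt_smul]
    rw [e1, hor]
    by_cases hi : i = 1
    · subst hi
      rw [if_pos rfl, mul_one, hΔ1, hsub 1]
      have : dt (e 1) (P' - c.pos z) + (dt (e 1) (P - c.pos z) - dt (e 1) (P' - c.pos z)) =
          dt (e 1) (P - c.pos z) := by ring
      rw [this]; exact hP 1
    · rw [if_neg hi, mul_zero, add_zero]; exact hP' i
  have hK2 : InK e c w z P2 := by
    intro i
    have e1 : dt (e i) (P2 - c.pos z) = dt (e i) (P1 - c.pos z) + Δ2 * dt (e i) (e 2) := by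
      have : P2 - c.pos z = (P1 - c.pos z) + Δ2 • e 2 := by
        rw [hP2]; ext j; simp only [Pi.sub_apply, Pi.add_apply]; ring
      rw [this, dt_add, dt_smul]
    rw [e1, hor]
    by_cases hi : i = 2
    · subst hi
      rw [if_pos rfl, mul_one]
      have e2 : dt (e 2) (P1 - c.pos z) = dt (e 2) (P' - c.pos z) := by
        have : P1 - c.pos z = (P' - c.pos z) + Δ1 • e 1 := by
          rw [hP1]; ext j; simp only [Pi.sub_apply, Pi.add_apply]; ring
        rw [this, dt_add, dt_smul, hor, if_neg (by decide), mul_zero, add_zero]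
      rw [e2, hΔ2, hsub 2]
      have : dt (e 2) (P' - c.pos z) + (dt (e 2) (P - c.pos z) - dt (e 2) (P' - c.pos z)) =
          dt (e 2) (P - c.pos z) := by ring
      rw [this]; exact hP 2
    · rw [if_neg hi, mul_zero, add_zero]; exact hK1 i
  have k1 := step (k := 1) (s := w 0 / w 1) (fun x τ hτ => S.st1 z h1 h2 x τ hτ) (dbl hP')
    (dbl hK1)
  have k2 := step (k := 2) (s := w 0 / w 2) (fun x τ hτ => S.st2 z h1 h2 x τ hτ) (dbl hK1)
    (dbl hK2)
  have k0 := steep S h1 h2 (dbl hK2) (by rw [hPe]; exact dbl hP)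
  rw [hPe] at k0
  rw [← hP1] at k1
  rw [← hP2] at k2
  have k3 : |q z P - q z P2| ≤ 2 * a + (w 0 / w 1 * |Δ1| + w 0 / w 2 * |Δ2|) := by
    rw [abs_le] at hq hq' k1 k2 ⊢
    constructor <;> linarith [hq.1, hq.2, hq'.1, hq'.2, k1.1, k1.2, k2.1, k2.2]
  linarith

/-! ### counting integers -/

/-- naturals `j` with `|j r - s| < η` -/
theorem card_near {N : ℕ} {r s η : ℝ} (hr : 0 < r) (hη : 0 ≤ η) :
    (((range N).filter fun j : ℕ => |(j : ℝ) * r - s| < η).card : ℝ) ≤ 2 * (η / r) + 1 := by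
  set T := (range N).filter fun j : ℕ => |(j : ℝ) * r - s| < η with hT
  have h1 : T.card ≤ (Icc ⌈s / r - η / r⌉ ⌊s / r + η / r⌋).card := by
    refine card_le_card_of_injOn (fun j : ℕ => (j : ℤ)) (fun j hj => ?_) (fun a _ b _ h => by
      simpa using h)
    have hj' := (mem_filter.1 (Finset.mem_coe.1 hj)).2
    rw [abs_lt] at hj'
    rw [Finset.mem_coe, mem_Icc, Int.ceil_le, Int.le_floor, ← sub_div, ← add_div,
      div_le_iff₀ hr, le_div_iff₀ hr]
    push_cast
    constructor <;> linarith [hj'.1, hj'.2]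
  have h2 : ((Icc ⌈s / r - η / r⌉ ⌊s / r + η / r⌋).card : ℝ) ≤ 2 * (η / r) + 1 := by
    rw [Int.card_Icc]
    have h0 : 0 ≤ η / r := by positivity
    rcases le_total 0 (⌊s / r + η / r⌋ + 1 - ⌈s / r - η / r⌉) with h | h
    · have : (((⌊s / r + η / r⌋ + 1 - ⌈s / r - η / r⌉).toNat : ℕ) : ℝ) =
          ((⌊s / r + η / r⌋ + 1 - ⌈s / r - η / r⌉ : ℤ) : ℝ) := by
        exact_mod_cast congrArg (fun x : ℤ => (x : ℝ)) (Int.toNat_of_nonneg h)
      rw [this]
      push_cast
      have a1 := Int.floor_le (s / r + η / r)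
      have a2 := Int.le_ceil (s / r - η / r)
      linarith
    · rw [Int.toNat_of_nonpos h]
      push_cast
      linarith
  exact (by exact_mod_cast h1 : (T.card : ℝ) ≤ ((Icc ⌈s / r - η / r⌉ ⌊s / r + η / r⌋).card : ℝ)).trans h2

/-! ### lines in the coordinates of the plank -/

/-- coordinates of the line at height `ζ` -/
noncomputable def xl (e : Fin 3 → V3) (w : V3) (c : Ln4) (z0 ρ : ℝ) (T : Ln4) (ζ : ℝ) (k : Fin 3) : ℝ :=
  pc e w c (z0 + ρ * ζ) (T.pos (z0 + ρ * ζ)) k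

theorem rp_eq (e : Fin 3 → V3) (w : V3) (c : Ln4) (z0 ρ : ℝ) (T T' : Ln4) (ζ : ℝ) (k : Fin 3) :
    rp e w z0 ρ T T' ζ k = xl e w c z0 ρ T' ζ k - xl e w c z0 ρ T ζ k := by
  simp only [rp, xl, pc, ← sub_div]
  congr 1
  rw [dt_sub, dt_sub, dt_sub]; ring

theorem vel_tri (e : Fin 3 → V3) (w : V3) (ρ : ℝ) (T U U' : Ln4) (k : Fin 3) :
    vel e w ρ U' U k = vel e w ρ T U k - vel e w ρ T U' k := by
  simp only [vel, ← sub_div]
  congr 1
  rw [dt_sub, dt_sub, dt_sub]; ring

/-- two lines of the sheet with nearby positions and velocities -/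
theorem in_test {e : Fin 3 → V3} {c : Ln4} {w : V3} {q : ℝ → V3 → ℝ} {z0 ρ a : ℝ}
    (S : StP e c w q z0 ρ) (hρ : 0 < ρ) {U U' : Ln4} (hU : InSheet U e c w q a z0 ρ)
    (hU' : InSheet U' e c w q a z0 ρ) {β r ζ : ℝ} (hβ : 0 ≤ β) (hr : 0 ≤ r) (hζ : 0 ≤ ζ)
    (hζ' : ζ + r ≤ 1) (ha : a ≤ β * r * w 0)
    (hx : ∀ k, k ≠ 0 → |rp e w z0 ρ U' U ζ k| ≤ β * r)
    (hv : ∀ k, k ≠ 0 → |vel e w ρ U' U k| ≤ 16 * β) :
    InSheet U e U' (fun k => 72 * (β * r) * w k) q a (z0 + ρ * ζ) (ρ * r) := by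
  intro z hz hz'
  have z1 : z0 ≤ z := by nlinarith
  have z2 : z ≤ z0 + ρ := by nlinarith
  obtain ⟨i1, i2⟩ := hU z z1 z2
  obtain ⟨i1', i2'⟩ := hU' z z1 z2
  set ζ' := (z - z0) / ρ with hζ'd
  have hzz : z0 + ρ * ζ' = z := by rw [hζ'd]; field_simp; ring
  have g1 : ζ ≤ ζ' := by rw [hζ'd, le_div_iff₀ hρ]; linarith
  have g2 : ζ' - ζ ≤ r := by
    rw [hζ'd, sub_le_iff_le_add, div_le_iff₀ hρ]; nlinarith
  have hβr : 0 ≤ β * r := mul_nonneg hβ hr
  have hlat : ∀ k, k ≠ 0 → |dt (e k) (U.pos z - U'.pos z)| ≤ 17 * (β * r) * w k := by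
    intro k hk
    have h1 := rp_affine e w z0 ρ U' U ζ ζ' k
    have h2 : |rp e w z0 ρ U' U ζ' k| ≤ 17 * (β * r) := by
      rw [h1]
      refine (abs_add_le _ _).trans ?_
      rw [abs_mul, abs_of_nonneg (by linarith : 0 ≤ ζ' - ζ)]
      have := mul_le_mul g2 (hv k hk) (abs_nonneg _) hr
      linarith [hx k hk]
    have h3 : rp e w z0 ρ U' U ζ' k = dt (e k) (U.pos z - U'.pos z) / w k := by
      simp only [rp, pc, hzz]
    rw [h3, abs_div, abs_of_pos (S.pos k), div_le_iff₀ (S.pos k)] at h2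
    exact h2
  refine ⟨fun k => ?_, i2⟩
  have hw0 := S.pos 0
  have hw1 := S.pos 1
  have hw2 := S.pos 2
  by_cases hk : k = 0
  · subst hk
    have h1 := off S z1 z2 i1 i1' i2 i2'
    have h2 : w 0 / w 1 * |dt (e 1) (U.pos z - U'.pos z)| ≤ 17 * (β * r) * w 0 := by
      have := mul_le_mul_of_nonneg_left (hlat 1 (by decide)) (div_pos hw0 hw1).le
      refine this.trans (le_of_eq ?_)
      field_simp
    have h3 : w 0 / w 2 * |dt (e 2) (U.pos z - U'.pos z)| ≤ 17 * (β * r) * w 0 := by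
      have := mul_le_mul_of_nonneg_left (hlat 2 (by decide)) (div_pos hw0 hw2).le
      refine this.trans (le_of_eq ?_)
      field_simp
    change _ ≤ 72 * (β * r) * w 0
    linarith
  · have h1 := hlat k hk
    have h2 : 0 ≤ β * r * w k := mul_nonneg hβr (S.pos k).le
    change _ ≤ 72 * (β * r) * w k
    linarith

/-! ### counting of concentrated lines -/

open Classical in
/-- one height -/
theorem conc_height {ι : Type*} {A B : Finset ι} {L : ι → Ln4} {e : Fin 3 → V3} {c : Ln4} {w : V3}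
    {q : ℝ → V3 → ℝ} {z0 ρ a : ℝ} (S : StP e c w q z0 ρ) (hρ : 0 < ρ) (hBA : B ⊆ A)
    (hA : ∀ u ∈ A, InSheet (L u) e c w q a z0 ρ) {β r ζ M : ℝ} (hβ : 0 < β) (hβ1 : β ≤ 1)
    (hr : 0 < r) (hr1 : r ≤ 1) (hζ : 0 ≤ ζ) (hζ' : ζ + r ≤ 1) (ha : a ≤ β * r * w 0) (hM0 : 0 ≤ M)
    (hconc : ∀ t ∈ B, ∃ p : Fin 3 → ℝ × ℝ, ∀ u ∈ A, |rp e w z0 ρ (L t) (L u) ζ 1| ≤ r →
      |rp e w z0 ρ (L t) (L u) ζ 2| ≤ r →
        ∃ i, dist (vel e w ρ (L t) (L u) 1, vel e w ρ (L t) (L u) 2) (p i) < 8 * β)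
    (hM : ∀ u' ∈ A, ((A.filter fun u => InSheet (L u) e (L u') (fun k => 72 * (β * r) * w k) q a
      (z0 + ρ * ζ) (ρ * r)).card : ℝ) ≤ M) :
    (B.card : ℝ) ≤ 75 * M / (β * r) ^ 2 := by
  rcases B.eq_empty_or_nonempty with hB | hB
  · rw [hB, card_empty]; push_cast; positivity
  have : Nonempty ι := ⟨hB.choose⟩
  have hβr : 0 < β * r := mul_pos hβ hr
  have hβr1 : β * r ≤ 1 := by nlinarith
  have hβrr : β * r ≤ r := by nlinarith
  have hz1 : z0 ≤ z0 + ρ * ζ := by nlinarith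
  have hz2 : z0 + ρ * ζ ≤ z0 + ρ := by nlinarith
  set X : ι → Fin 3 → ℝ := fun u k => xl e w c z0 ρ (L u) ζ k with hX
  set σ : ι → ℤ × ℤ := fun u => (⌊X u 1 / (β * r)⌋, ⌊X u 2 / (β * r)⌋) with hσ
  have hσd : ∀ u u', σ u = σ u' → ∀ k, k ≠ 0 → |X u k - X u' k| ≤ β * r := by
    intro u u' h k hk
    have h1 : ⌊X u k / (β * r)⌋ = ⌊X u' k / (β * r)⌋ := by
      rw [hσ] at h
      simp only [Prod.mk.injEq] at h
      fin_cases k
      · exact absurd rfl hk
      · exact h.1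
      · exact h.2
    have h2 := Int.abs_sub_lt_one_of_floor_eq_floor h1
    rw [← sub_div, abs_div, abs_of_pos hβr, div_lt_one hβr] at h2
    exact h2.le
  set rep : ℤ × ℤ → ι := fun s => Function.invFunOn σ (B : Set ι) s with hrep
  have hrep1 : ∀ u ∈ B, rep (σ u) ∈ B ∧ σ (rep (σ u)) = σ u := by
    intro u hu
    have h : ∃ a ∈ (B : Set ι), σ a = σ u := ⟨u, hu, rfl⟩
    exact ⟨by simpa using Function.invFunOn_mem h, Function.invFunOn_eq h⟩
  have hcl : ∀ u ∈ B, ∃ i : Fin 3, dist (vel e w ρ (L (rep (σ u))) (L u) 1,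
      vel e w ρ (L (rep (σ u))) (L u) 2) (if h : rep (σ u) ∈ B then (hconc _ h).choose i
        else (0, 0)) < 8 * β := by
    intro u hu
    obtain ⟨h1, h2⟩ := hrep1 u hu
    have h3 := (hconc _ h1).choose_spec u (hBA hu) (by
      rw [rp_eq e w c]
      exact (hσd u _ h2.symm 1 (by decide)).trans hβrr) (by
      rw [rp_eq e w c]
      exact (hσd u _ h2.symm 2 (by decide)).trans hβrr)
    obtain ⟨i, hi⟩ := h3
    refine ⟨i, ?_⟩
    rw [dif_pos h1]
    exact hi
  set ix : ι → Fin 3 := fun u => if h : u ∈ B then (hcl u h).choose else 0 with hix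
  set lab : ι → (ℤ × ℤ) × Fin 3 := fun u => (σ u, ix u) with hlab
  have hfib : ∀ b ∈ B.image lab, (((B.filter fun u => lab u = b).card : ℕ) : ℝ) ≤ M := by
    intro b hb
    obtain ⟨u', hu', rfl⟩ := mem_image.1 hb
    refine le_trans ?_ (hM u' (hBA hu'))
    norm_cast
    refine card_le_card fun u hu => ?_
    obtain ⟨hu, hl⟩ := mem_filter.1 hu
    rw [hlab] at hl
    simp only [Prod.mk.injEq] at hl
    obtain ⟨l1, l2⟩ := hl
    refine mem_filter.2 ⟨hBA hu, ?_⟩
    have d1 := (hcl u hu).choose_spec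
    have d2 := (hcl u' hu').choose_spec
    have e1 : (hcl u hu).choose = (hcl u' hu').choose := by
      have : ix u = ix u' := l2
      rw [hix] at this
      simpa only [dif_pos hu, dif_pos hu'] using this
    rw [← e1, ← l1] at d2
    have hv : ∀ k, k ≠ 0 → |vel e w ρ (L u') (L u) k| ≤ 16 * β := by
      have h3 := (dist_triangle_right _ _ _).trans_lt (add_lt_add d1 d2)
      rw [Prod.dist_eq, max_lt_iff, Real.dist_eq, Real.dist_eq] at h3
      obtain ⟨h4, h5⟩ := h3
      intro k hk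
      rw [vel_tri e w ρ (L (rep (σ u))) (L u) (L u') k]
      fin_cases k
      · exact absurd rfl hk
      · exact h4.le.trans (le_of_eq (by ring))
      · exact h5.le.trans (le_of_eq (by ring))
    exact in_test S hρ (hA u (hBA hu)) (hA u' (hBA hu')) hβ.le hr.le hζ hζ' ha (fun k hk => by
      rw [rp_eq e w c]; exact hσd u u' l1 k hk) hv
  -- number of labels
  have hXb : ∀ u ∈ B, ∀ k, |X u k| ≤ 1 := by
    intro u hu k
    have := (hA u (hBA hu) _ hz1 hz2).1 k
    change |dt (e k) ((L u).pos (z0 + ρ * ζ) - c.pos (z0 + ρ * ζ)) / w k| ≤ 1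
    rw [abs_div, abs_of_pos (S.pos k), div_le_one (S.pos k)]
    exact this
  set K : ℕ := ⌈1 / (β * r)⌉₊ with hK
  have hK1 : 1 / (β * r) ≤ K := Nat.le_ceil _
  have hK2 : (K : ℝ) < 1 / (β * r) + 1 := Nat.ceil_lt_add_one (by positivity)
  have himg : B.image lab ⊆ ((Ico (-(K : ℤ)) (K + 1)) ×ˢ (Ico (-(K : ℤ)) (K + 1))) ×ˢ univ := by
    intro b hb
    obtain ⟨u, hu, rfl⟩ := mem_image.1 hb
    have h1 : ∀ k, ⌊X u k / (β * r)⌋ ∈ Ico (-(K : ℤ)) (K + 1) := by
      intro k
      have h2 := hXb u hu k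
      rw [abs_le] at h2
      have h3 : |X u k / (β * r)| ≤ K := by
        rw [abs_div, abs_of_pos hβr]
        refine le_trans ?_ hK1
        exact div_le_div_of_nonneg_right (hXb u hu k) hβr.le
      rw [abs_le] at h3
      rw [mem_Ico, Int.le_floor, Int.floor_lt]
      push_cast
      constructor
      · exact h3.1
      · linarith [h3.2]
    rw [mem_product, mem_product]
    exact ⟨⟨h1 1, h1 2⟩, mem_univ _⟩
  have hcard : ((B.image lab).card : ℝ) ≤ 75 / (β * r) ^ 2 := by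
    have h1 := card_le_card himg
    rw [card_product, card_product, Int.card_Ico, card_univ, Fintype.card_fin] at h1
    have h2 : ((K : ℤ) + 1 - -(K : ℤ)).toNat = 2 * K + 1 := by omega
    rw [h2] at h1
    have h3 : ((B.image lab).card : ℝ) ≤ (2 * (K : ℝ) + 1) * (2 * K + 1) * 3 := by exact_mod_cast h1
    refine h3.trans ?_
    have h4 : 1 ≤ 1 / (β * r) := by rw [le_div_iff₀ hβr]; linarith
    have h5 : 2 * (K : ℝ) + 1 ≤ 5 * (1 / (β * r)) := by linarith
    have h9 : 0 ≤ 2 * (K : ℝ) + 1 := by positivity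
    have h10 := mul_le_mul h5 h5 h9 (by positivity)
    have e1 : 75 / (β * r) ^ 2 = 75 * ((1 / (β * r)) * (1 / (β * r))) := by field_simp
    rw [e1]
    linarith
  have e1 : B.card = ∑ b ∈ B.image lab, (B.filter fun u => lab u = b).card :=
    card_eq_sum_card_image _ _
  rw [e1]
  push_cast
  calc ∑ b ∈ B.image lab, (((B.filter fun u => lab u = b).card : ℕ) : ℝ)
      ≤ ∑ b ∈ B.image lab, M := sum_le_sum hfib
    _ = ((B.image lab).card : ℝ) * M := by rw [sum_const, nsmul_eq_mul]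
    _ ≤ 75 / (β * r) ^ 2 * M := mul_le_mul_of_nonneg_right hcard hM0
    _ = _ := by ring

open Classical in
/-- **counting of concentrated lines** -/
theorem conc_count {ι : Type*} {A B : Finset ι} {L : ι → Ln4} {e : Fin 3 → V3} {c : Ln4} {w : V3}
    {q : ℝ → V3 → ℝ} {z0 ρ a : ℝ} (S : StP e c w q z0 ρ) (hρ : 0 < ρ) (hBA : B ⊆ A)
    (hA : ∀ u ∈ A, InSheet (L u) e c w q a z0 ρ) {β η r M : ℝ} {N : ℕ} (hN : 8 ≤ N)
    (hrN : r * N = 1) (hβ : 0 < β) (hβ1 : β ≤ 1) (hη : 0 ≤ η) (hη1 : η ≤ 1 / 16)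
    (ha : a ≤ β * r * w 0) (hM0 : 0 ≤ M)
    (hconc : ∀ t ∈ B, ∃ s : Fin 2 → ℝ, ∀ ζ, 0 ≤ ζ → ζ ≤ 1 → (∀ i, η ≤ |ζ - s i|) →
      ∃ p : Fin 3 → ℝ × ℝ, ∀ u ∈ A, |rp e w z0 ρ (L t) (L u) ζ 1| ≤ r →
        |rp e w z0 ρ (L t) (L u) ζ 2| ≤ r →
          ∃ i, dist (vel e w ρ (L t) (L u) 1, vel e w ρ (L t) (L u) 2) (p i) < 8 * β)
    (hM : ∀ j < N, ∀ u' ∈ A, ((A.filter fun u => InSheet (L u) e (L u')
      (fun k => 72 * (β * r) * w k) q a (z0 + ρ * (j * r)) (ρ * r)).card : ℝ) ≤ M) :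
    (B.card : ℝ) ≤ 150 * M / (β * r) ^ 2 := by
  have hN0 : (0 : ℝ) < N := by
    have : 0 < N := by omega
    exact_mod_cast this
  have hr : 0 < r := by
    by_contra h
    have := mul_nonpos_of_nonpos_of_nonneg (not_lt.1 h) hN0.le
    linarith
  have hN8 : (8 : ℝ) ≤ N := by exact_mod_cast hN
  have hr1 : r ≤ 1 := by nlinarith
  choose! s hs using hconc
  set good : ι → ℕ → Prop := fun t j => ∀ i, η ≤ |(j : ℝ) * r - s t i| with hgood
  -- bad heights of one line
  have hbad : ∀ t ∈ B, (N : ℝ) / 2 ≤ (((range N).filter fun j => good t j).card : ℝ) := by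
    intro t _
    have h1 : ((range N).filter fun j => ¬ good t j) ⊆
        ((range N).filter fun j : ℕ => |(j : ℝ) * r - s t 0| < η) ∪
          ((range N).filter fun j : ℕ => |(j : ℝ) * r - s t 1| < η) := by
      intro j hj
      obtain ⟨h2, h3⟩ := mem_filter.1 hj
      rw [hgood] at h3
      push Not at h3
      obtain ⟨i, hi⟩ := h3
      rw [mem_union, mem_filter, mem_filter]
      fin_cases i
      · exact Or.inl ⟨h2, hi⟩
      · exact Or.inr ⟨h2, hi⟩
    have h2 := (card_le_card h1).trans (card_union_le _ _)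
    have h3 := card_near (N := N) (s := s t 0) hr hη
    have h4 := card_near (N := N) (s := s t 1) hr hη
    have h5 : η / r = η * N := by
      rw [div_eq_iff hr.ne', mul_assoc, mul_comm (N : ℝ) r, hrN, mul_one]
    rw [h5] at h3 h4
    have h6 := card_filter_add_card_filter_not (s := range N) (fun j => good t j)
    rw [card_range] at h6
    have h7 : (((range N).filter fun j => good t j).card : ℝ) +
        (((range N).filter fun j => ¬ good t j).card : ℝ) = N := by exact_mod_cast h6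
    have h8 : (((range N).filter fun j => ¬ good t j).card : ℝ) ≤
        (((range N).filter fun j : ℕ => |(j : ℝ) * r - s t 0| < η).card : ℝ) +
          (((range N).filter fun j : ℕ => |(j : ℝ) * r - s t 1| < η).card : ℝ) := by
      exact_mod_cast h2
    have h9 : η * N ≤ 1 / 16 * N := mul_le_mul_of_nonneg_right hη1 hN0.le
    linarith
  have hsum : ∑ t ∈ B, (((range N).filter fun j => good t j).card : ℝ) =
      ∑ j ∈ range N, ((B.filter fun t => good t j).card : ℝ) := by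
    simp only [card_filter]
    push_cast
    exact sum_comm
  have hlow : (B.card : ℝ) * (N / 2) ≤ ∑ t ∈ B, (((range N).filter fun j => good t j).card : ℝ) := by
    rw [← nsmul_eq_mul]
    exact card_nsmul_le_sum _ _ _ hbad
  have hup : ∑ j ∈ range N, ((B.filter fun t => good t j).card : ℝ) ≤
      N * (75 * M / (β * r) ^ 2) := by
    have h1 : ∀ j ∈ range N, ((B.filter fun t => good t j).card : ℝ) ≤ 75 * M / (β * r) ^ 2 := by
      intro j hj
      have hj' := mem_range.1 hj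
      have h2 : (j : ℝ) * r + r ≤ 1 := by
        have : (j : ℝ) + 1 ≤ N := by exact_mod_cast hj'
        nlinarith
      have h3 : 0 ≤ (j : ℝ) * r := by positivity
      refine conc_height (A := A) S hρ ((filter_subset _ _).trans hBA) hA hβ hβ1 hr hr1 h3 h2 ha hM0
        (fun t ht => ?_) (hM j hj')
      obtain ⟨ht1, ht2⟩ := mem_filter.1 ht
      exact hs t ht1 _ h3 (by linarith) ht2
    calc _ ≤ ∑ j ∈ range N, 75 * M / (β * r) ^ 2 := sum_le_sum h1
      _ = _ := by rw [sum_const, card_range, nsmul_eq_mul]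
  rw [hsum] at hlow
  have h1 := hlow.trans hup
  have h2 : (B.card : ℝ) * (N / 2) = N * (B.card / 2) := by ring
  rw [h2] at h1
  have h3 := le_of_mul_le_mul_left h1 hN0
  have h4 : 150 * M / (β * r) ^ 2 = 2 * (75 * M / (β * r) ^ 2) := by ring
  rw [h4]
  linarith

open Classical in
/-- **counting of concentrated lines, lines alive in part of the deep cells**: `A j` = lines alive in
the deep cell `j`, every line of `B` is alive in at least `N / X` of the `N` deep cells -/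
theorem conc_count2 {ι : Type*} {Aa B : Finset ι} {A : ℕ → Finset ι} {L : ι → Ln4}
    {e : Fin 3 → V3} {c : Ln4} {w : V3}
    {q : ℝ → V3 → ℝ} {z0 ρ a : ℝ} (S : StP e c w q z0 ρ) (hρ : 0 < ρ) (hAA : ∀ j, A j ⊆ Aa)
    (hA : ∀ u ∈ Aa, InSheet (L u) e c w q a z0 ρ) {β η r M X : ℝ} {N : ℕ} (hX : 1 ≤ X)
    (hN : 8 * X ≤ N) (hrN : r * N = 1) (hβ : 0 < β) (hβ1 : β ≤ 1) (hη : 0 ≤ η)
    (hη1 : 16 * X * η ≤ 1) (ha : a ≤ β * r * w 0) (hM0 : 0 ≤ M)
    (hfib : ∀ t ∈ B, (N : ℝ) ≤ X * (((range N).filter fun j => t ∈ A j).card : ℝ))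
    (hconc : ∀ t ∈ B, ∃ s : Fin 2 → ℝ, ∀ ζ, 0 ≤ ζ → ζ ≤ 1 → (∀ i, η ≤ |ζ - s i|) →
      ∃ p : Fin 3 → ℝ × ℝ, ∀ u ∈ Aa, |rp e w z0 ρ (L t) (L u) ζ 1| ≤ r →
        |rp e w z0 ρ (L t) (L u) ζ 2| ≤ r →
          ∃ i, dist (vel e w ρ (L t) (L u) 1, vel e w ρ (L t) (L u) 2) (p i) < 8 * β)
    (hM : ∀ j < N, ∀ u' ∈ A j, (((A j).filter fun u => InSheet (L u) e (L u')
      (fun k => 72 * (β * r) * w k) q a (z0 + ρ * (j * r)) (ρ * r)).card : ℝ) ≤ M) :
    (B.card : ℝ) ≤ 150 * X * M / (β * r) ^ 2 := by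
  have hX0 : 0 < X := by linarith
  have hN0 : (0 : ℝ) < N := by linarith
  have hr : 0 < r := by
    by_contra h
    have := mul_nonpos_of_nonpos_of_nonneg (not_lt.1 h) hN0.le
    linarith
  have hr1 : r ≤ 1 := by nlinarith
  choose! s hs using hconc
  set good : ι → ℕ → Prop := fun t j => t ∈ A j ∧ ∀ i, η ≤ |(j : ℝ) * r - s t i| with hgood
  have hbad : ∀ t ∈ B, (N : ℝ) / (2 * X) ≤ (((range N).filter fun j => good t j).card : ℝ) := by
    intro t ht
    have h1 : ((range N).filter fun j => t ∈ A j) ⊆ ((range N).filter fun j => good t j) ∪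
        (((range N).filter fun j : ℕ => |(j : ℝ) * r - s t 0| < η) ∪
          ((range N).filter fun j : ℕ => |(j : ℝ) * r - s t 1| < η)) := by
      intro j hj
      obtain ⟨h2, h3⟩ := mem_filter.1 hj
      rw [mem_union, mem_union, mem_filter, mem_filter, mem_filter]
      by_cases h4 : ∀ i, η ≤ |(j : ℝ) * r - s t i|
      · exact Or.inl ⟨h2, h3, h4⟩
      · push Not at h4
        obtain ⟨i, hi⟩ := h4
        fin_cases i
        · exact Or.inr (Or.inl ⟨h2, hi⟩)
        · exact Or.inr (Or.inr ⟨h2, hi⟩)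
    have h2 := (card_le_card h1).trans ((card_union_le _ _).trans
      (Nat.add_le_add_left (card_union_le _ _) _))
    have h3 := card_near (N := N) (s := s t 0) hr hη
    have h4 := card_near (N := N) (s := s t 1) hr hη
    have h5 : η / r = η * N := by
      rw [div_eq_iff hr.ne', mul_assoc, mul_comm (N : ℝ) r, hrN, mul_one]
    rw [h5] at h3 h4
    have h6 := hfib t ht
    have h8 : (((range N).filter fun j => t ∈ A j).card : ℝ) ≤
        (((range N).filter fun j => good t j).card : ℝ) +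
        ((((range N).filter fun j : ℕ => |(j : ℝ) * r - s t 0| < η).card : ℝ) +
          (((range N).filter fun j : ℕ => |(j : ℝ) * r - s t 1| < η).card : ℝ)) := by
      exact_mod_cast h2
    have h9 : 16 * X * η * N ≤ 1 * N := mul_le_mul_of_nonneg_right hη1 hN0.le
    rw [div_le_iff₀ (by positivity)]
    have h10 := mul_le_mul_of_nonneg_left h8 hX0.le
    have h11 : X * (2 * (η * N) + 1) ≤ N / 8 + N / 8 := by nlinarith
    have h12 := mul_le_mul_of_nonneg_left h3 hX0.le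
    have h13 := mul_le_mul_of_nonneg_left h4 hX0.le
    nlinarith
  have hsum : ∑ t ∈ B, (((range N).filter fun j => good t j).card : ℝ) =
      ∑ j ∈ range N, ((B.filter fun t => good t j).card : ℝ) := by
    simp only [card_filter]
    push_cast
    exact sum_comm
  have hlow : (B.card : ℝ) * (N / (2 * X)) ≤
      ∑ t ∈ B, (((range N).filter fun j => good t j).card : ℝ) := by
    rw [← nsmul_eq_mul]
    exact card_nsmul_le_sum _ _ _ hbad
  have hup : ∑ j ∈ range N, ((B.filter fun t => good t j).card : ℝ) ≤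
      N * (75 * M / (β * r) ^ 2) := by
    have h1 : ∀ j ∈ range N, ((B.filter fun t => good t j).card : ℝ) ≤ 75 * M / (β * r) ^ 2 := by
      intro j hj
      have hj' := mem_range.1 hj
      have h2 : (j : ℝ) * r + r ≤ 1 := by
        have : (j : ℝ) + 1 ≤ N := by exact_mod_cast hj'
        nlinarith
      have h3 : 0 ≤ (j : ℝ) * r := by positivity
      have hsub : (B.filter fun t => good t j) ⊆ A j := fun t ht => (mem_filter.1 ht).2.1
      refine conc_height (A := A j) S hρ hsub (fun u hu => hA u (hAA j hu)) hβ hβ1 hr hr1 h3 h2 ha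
        hM0 (fun t ht => ?_) (hM j hj')
      obtain ⟨ht1, ht2⟩ := mem_filter.1 ht
      obtain ⟨p, hp⟩ := hs t ht1 _ h3 (by linarith) ht2.2
      exact ⟨p, fun u hu => hp u (hAA j hu)⟩
    calc _ ≤ ∑ j ∈ range N, 75 * M / (β * r) ^ 2 := sum_le_sum h1
      _ = _ := by rw [sum_const, card_range, nsmul_eq_mul]
  rw [hsum] at hlow
  have h1 := hlow.trans hup
  have h2 : (B.card : ℝ) * (N / (2 * X)) = N * (B.card / (2 * X)) := by ring
  rw [h2] at h1
  have h3 := le_of_mul_le_mul_left h1 hN0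
  rw [div_le_iff₀ (by positivity)] at h3
  refine h3.trans (le_of_eq ?_)
  ring

end Crest.Agent.R136.Crd705
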