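import Crest.Agent.R136.Crd1_705

/-!
# R136 (U5, crude tilt of curved marks), helper705: the test sheets

The test sheets `G w` around the lines of a sheet of the class `ShN` are sheets of the class; D-max at
the deep level bounds the number of concentrated lines.
-/

set_option autoImplicit false
set_option linter.unusedVariables false

namespace Crest.Agent.R136.Crd705

open Finset Crest.Agent.R136.Sh605 Crest.Agent.R136.Tl102

/-- smaller boxes around a line of the sheet are sheets of the class -/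
theorem test_ShN {e : Fin 3 → V3} {c : Ln4} {w : V3} {q : ℝ → V3 → ℝ} {a z0 ρ r0 : ℝ}
    (S : ShN e c w q a z0 ρ r0) (ha : 0 ≤ a) {U : Ln4} (hU : InSheet U e c w q a z0 ρ) {G z1 ρ1 : ℝ}
    (hG : 0 < G) (hG2 : 2 * G ≤ 1) (haG : a ≤ G * w 0) (hz : z0 ≤ z1) (hz' : z1 + ρ1 ≤ z0 + ρ) :
    ShN e U (fun k => G * w k) q a z1 ρ1 r0 := by
  have hw0 : 0 ≤ w 0 := ha.trans S.a_le0
  have hw2 : 0 ≤ w 2 := hw0.trans S.w0_le
  have hw1 : 0 ≤ w 1 := hw2.trans S.w_le
  have hw : ∀ k, 0 ≤ w k := by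
    intro k; fin_cases k
    · exact hw0
    · exact hw1
    · exact hw2
  have sub : ∀ z, z1 ≤ z → z ≤ z1 + ρ1 → ∀ x, InK e U (dbl3 fun k => G * w k) z x →
      InK e c (dbl3 w) z x := by
    intro z h1 h2 x hx i
    have g1 := hx i
    have g2 := (hU z (by linarith) (by linarith)).1 i
    have e1 : dt (e i) (x - c.pos z) = dt (e i) (x - U.pos z) + dt (e i) (U.pos z - c.pos z) := by
      rw [dt_sub, dt_sub, dt_sub]; ring
    rw [e1]
    refine (abs_add_le _ _).trans ?_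
    change _ ≤ 2 * (G * w i) at g1
    change _ ≤ 2 * w i
    have := mul_le_mul_of_nonneg_right hG2 (hw i)
    linarith
  have ratio : ∀ k, G * w 0 / (G * w k) = w 0 / w k := fun k => mul_div_mul_left _ _ hG.ne'
  refine ⟨S.ortho, S.isQ, haG, mul_le_mul_of_nonneg_left S.w0_le hG.le,
    mul_le_mul_of_nonneg_left S.w_le hG.le, S.r0_le, ?_, ?_, ?_⟩
  · intro z h1 h2 x τ hτ i1 i2
    exact S.st0 z (by linarith) (by linarith) x τ hτ (sub z h1 h2 x i1) (sub z h1 h2 _ i2)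
  · intro z h1 h2 x τ hτ i1 i2
    rw [ratio]
    exact S.sl1 z (by linarith) (by linarith) x τ hτ (sub z h1 h2 x i1) (sub z h1 h2 _ i2)
  · intro z h1 h2 x τ hτ i1 i2
    rw [ratio]
    exact S.sl2 z (by linarith) (by linarith) x τ hτ (sub z h1 h2 x i1) (sub z h1 h2 _ i2)

open Classical in
/-- value of a test sheet -/
theorem test_count {ι : Type} {A : Finset ι} {L : ι → Ln4} {e : Fin 3 → V3} {c : Ln4} {w : V3}
    {q : ℝ → V3 → ℝ} {a z0 ρ r0 : ℝ} (S : ShN e c w q a z0 ρ r0) (ha : 0 ≤ a)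
    (hA : ∀ u ∈ A, InSheet (L u) e c w q a z0 ρ) {G z1 ρ1 D wmax : ℝ} {R : ℝ → ℝ → ℝ → ℝ}
    (hG : 0 < G) (hG2 : 2 * G ≤ 1) (haG : a ≤ G * w 0) (hz : z0 ≤ z1) (hz' : z1 + ρ1 ≤ z0 + ρ)
    (hD : DMaxN A L z1 ρ1 D R r0 wmax) (hw : G * w 1 ≤ wmax) : ∀ u' ∈ A,
      ((A.filter fun u => InSheet (L u) e (L u') (fun k => G * w k) q a z1 ρ1).card : ℝ) ≤
        D * (a * (G * w 2) * (G * w 1) * R a (G * w 2) (G * w 1)) := by
  intro u' hu'
  exact hD e (L u') (fun k => G * w k) q a (test_ShN S ha (hA u' hu') hG hG2 haG hz hz') hw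

end Crest.Agent.R136.Crd705
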