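import Crest.Agent.R136.PinC_851
import Crest.Agent.R136.BaseW_619
import Crest.Agent.R136.Bas1_938
import Crest.Agent.R136.AwJ_774
import Crest.Agent.R136.HtW_887
import Crest.Agent.R136.ThB_830

/-!
# R136, thin pins (helper851): windows at a point of a rung

* `Cht` : the chart facts; `PWin` : window with `S = {z}`, resolution `x` in all slots
* `exists_pwin` : window from `AeW` (own loss `1`, no visible slot)
* `PWin.leaf`, `PWin.hA`, `PWin.hB` : the leaf links, `A` full, `B` full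
* `pin_of` : the structure `Pin`
-/

set_option autoImplicit false
set_option linter.unusedSectionVars false
set_option linter.unusedVariables false

open Filter Topology

namespace Crest.Agent.R136.Pin851

open Finset Crest.Agent.R138.Ex926 Crest.Agent.R136.Net191 Crest.Agent.R136.Gf356
open Crest.Agent.R136.Qg926 Crest.Agent.R136.Dg219 Crest.Agent.R136.Aw413
open Crest.Agent.R136.NetW191 Crest.Agent.R136.EvW938 Crest.Agent.R136.PrW464
open Crest.Agent.R136.LadW697 Crest.Agent.R136.AwJ774 Crest.Agent.R136.Bas938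
open Crest.Agent.R136.LfW619 Crest.Agent.R136.BaseW619 Crest.Agent.R136.Lf400
open Crest.Agent.R136.Ht887
open Crest.Agent.R136.Rc146 (OutA)
open Crest.Agent.R136.K2S774 (cn)

variable {ι : ℕ → Type*} [∀ n, DecidableEq (ι n)]

/-- chart facts -/
structure Cht (I : ∀ n, Finset (ι n)) (co : ∀ n, ι n → ι n → Fin 18 → ℝ) (kp : ℕ → ℝ)
    (un : ℕ → Fin 18 → ℝ) (F : ∀ n, ι n → FW) : Prop where
  hκ : ∀ n, |kp n| ≤ 1
  hU : ∀ n, GrU (un n)
  hco : ∀ n, ∀ i ∈ I n, ∀ j ∈ I n, ∀ s, co n i j s = un n s * coW (kp n) (F n i) (F n j) s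

/-- **window**, level slot `z`, resolution `x` in all slots -/
structure PWin (W : Wnd 18 ι) (E : ∀ n, Finset (ι n)) (kp : ℕ → ℝ) (un : ℕ → Fin 18 → ℝ)
    (F : ∀ n, ι n → FW) (Dr : Finset (Fin 18)) (lam : (Fin 18 → ℝ) → ℝ) (x : ℝ) : Prop where
  ww : WWnd W kp un F
  ev : EvG W E
  mod : RModel W.B' (W.cfg E) 1 x W.legW W.nu W.Dc
  S : W.S = {0}
  top : ∀ s, W.top s = x
  leg : ∀ c : Fin 18 → ℝ, Function.update c 0 x ∈ CL Dr → (∀ k, 0 ≤ c k) → (∀ k, c k ≤ x) →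
    c ∈ W.legW
  nu : ∀ c : Fin 18 → ℝ, W.nu c = lam (Function.update c 0 x) - lam (fun _ => x)
  tight : ∀ k, k ∉ Dr → ∀ l ∈ mlW k, (∀ s ∈ l, s ∉ Dr) → ∀ n, W.X n k = (l.map (W.X n)).sum
  kap : ∀ ε : ℝ, 0 < ε → ∀ᶠ n in (U : Filter ℕ), W.B'.d n ^ ε ≤ |kp n|

theorem cone_eq (Dr : Finset (Fin 18)) :
    coneM (mA monW (actW (Dr : Set (Fin 18)))) = CL Dr := coneM_mA

/-- active monomials in list form -/
theorem mem_mAW {Dr : Finset (Fin 18)} {k : Fin 18} {e : Fin 18 → ℕ} :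
    e ∈ (mA monW (actW (Dr : Set (Fin 18)))).mon k ↔
      k ∉ Dr ∧ ∃ l ∈ mlW k, (∀ s ∈ l, s ∉ Dr) ∧ e = fun s => l.count s := by
  rw [mem_mA]
  constructor
  · rintro ⟨h1, h2, h3⟩
    obtain ⟨l, hl, rfl⟩ := List.mem_map.1 (List.mem_toFinset.1 h1)
    refine ⟨fun h => h2 (Finset.mem_coe.2 h), l, hl, fun s hs hsD => ?_, rfl⟩
    exact (List.count_pos_iff.2 hs).ne' (h3 s (Finset.mem_coe.2 hsD))
  · rintro ⟨h1, l, hl, h2, rfl⟩
    refine ⟨List.mem_toFinset.2 (List.mem_map.2 ⟨l, hl, rfl⟩), fun h => h1 (Finset.mem_coe.1 h),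
      fun s hs => ?_⟩
    exact List.count_eq_zero.2 fun hm => h2 s hm (Finset.mem_coe.1 hs)

theorem mlW0 : mlW 0 = [] := by decide

theorem cut0 (c : Fin 18 → ℝ) (x : ℝ) : cut {0} c (fun _ => x) = Function.update c 0 x := by
  funext s
  by_cases hs : s = 0
  · subst hs; rw [cut_of_mem (mem_singleton_self _), Function.update_self]
  · rw [cut_of_notMem (by simpa using hs), Function.update_of_ne hs]

section win

variable {B Bo : Base} {I J : ∀ n, Finset (ι n)} {co : ∀ n, ι n → ι n → Fin 18 → ℝ}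
  {kp : ℕ → ℝ} {un : ℕ → Fin 18 → ℝ} {F : ∀ n, ι n → FW} {Dr : Finset (Fin 18)} {C : ℝ}
  {lam : (Fin 18 → ℝ) → ℝ} {a b : Fin 18 → ℝ} {A : ℝ × ℝ} {φ : ℕ → (Fin 18 → ℝ) → ℝ} {r : ℕ → ℝ}
  {κ : Fin 18 → ℝ} {V Tw : Fin 18 → Prop}

/-- static data -/
noncomputable def stP (Dr : Finset (Fin 18)) (x : ℝ) : WSt 18 where
  S := {0}
  kz := 0
  top := fun _ => x
  kap := fun _ => 1
  Mw := mA monW (actW (Dr : Set (Fin 18)))
  R' := x

/-- legality in the window -/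
theorem leg_iff {Dr : Finset (Fin 18)} {x : ℝ} {c : Fin 18 → ℝ} (h0 : ∀ k, 0 ≤ c k)
    (hx : ∀ k, c k ≤ x) (hc : c ∈ CL Dr) : c ∈ Leg (mA monW (actW (Dr : Set (Fin 18)))) x := by
  refine ⟨⟨h0, fun k e he => ?_⟩, hx⟩
  have h1 : c ∈ coneM (mA monW (actW (Dr : Set (Fin 18)))) := by rw [cone_eq]; exact hc
  exact h1 k e he

theorem const_mem (Dr : Finset (Fin 18)) {x : ℝ} (hx : 0 ≤ x) :
    (fun _ => x : Fin 18 → ℝ) ∈ CL Dr :=
  mem_max (fun _ => hx) fun k l hl _ => by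
    obtain ⟨j, hj⟩ := List.exists_mem_of_ne_nil l (mlW_ne k l hl)
    exact ⟨j, hj, le_rfl⟩

theorem stP_ok (Dr : Finset (Fin 18)) {x : ℝ} (hx : 0 ≤ x) :
    (stP Dr x).Ok monW (coneM (mA monW (actW (Dr : Set (Fin 18))))) where
  R0 := hx
  leg := fun c hc k e he => hc.1.wall k e he
  top_leg := leg_iff (fun _ => hx) (fun _ => le_rfl) (const_mem Dr hx)
  lin_leg := by
    show cut {0} (fun _ => x) 0 ∈ _
    have e : cut {0} (fun _ => x : Fin 18 → ℝ) 0 = fun s => if s = 0 then 0 else x := by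
      funext s
      by_cases hs : s = 0
      · subst hs; rw [cut_of_mem (mem_singleton_self _), if_pos rfl]; rfl
      · rw [cut_of_notMem (by simpa using hs), if_neg hs]
    rw [e]
    have h0 : ∀ k : Fin 18, (0:ℝ) ≤ if k = 0 then 0 else x := fun k => by
      split_ifs; exacts [le_rfl, hx]
    refine leg_iff h0 (fun k => ?_) (mem_max h0 fun k l hl _ => ?_)
    · split_ifs; exacts [hx, le_rfl]
    · have key : ∀ k, ∀ l ∈ mlW k, ∃ j ∈ l, j ≠ 0 := by decide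
      obtain ⟨j, hj, hj0⟩ := key k l hl
      refine ⟨j, hj, ?_⟩
      simp only [if_neg hj0]
      split_ifs; exacts [hx, le_rfl]
  lev_leg := by
    show cut {0} 0 (fun _ => x) ∈ _
    rw [cut0]
    have h0 : ∀ k : Fin 18, (0:ℝ) ≤ Function.update (0 : Fin 18 → ℝ) 0 x k := fun k => by
      rw [Function.update_apply]; split_ifs; exacts [hx, le_rfl]
    refine leg_iff h0 (fun k => ?_) (mem_max h0 fun k l hl _ => ?_)
    · rw [Function.update_apply]; split_ifs; exacts [le_rfl, hx]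
    · have hk : k ≠ 0 := by
        rintro rfl
        rw [mlW0] at hl
        exact absurd hl (List.not_mem_nil)
      obtain ⟨j, hj⟩ := List.exists_mem_of_ne_nil l (mlW_ne k l hl)
      refine ⟨j, hj, ?_⟩
      rw [Function.update_of_ne hk]
      exact h0 j
  kzS := mem_singleton_self _
  kz0 := by
    show monW.mon 0 = ∅
    rw [eq_empty_iff_forall_notMem]
    intro e he
    obtain ⟨l, hl, -⟩ := List.mem_map.1 (List.mem_toFinset.1 he)
    rw [mlW0] at hl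
    exact absurd hl (List.not_mem_nil)
  kzw := by
    show (mA monW (actW (Dr : Set (Fin 18)))).mon 0 = ∅
    rw [eq_empty_iff_forall_notMem]
    intro e he
    obtain ⟨-, l, hl, -⟩ := mem_mAW.1 he
    rw [mlW0] at hl
    exact absurd hl (List.not_mem_nil)
  kap := fun _ => one_pos

/-- `z` is full -/
theorem aew_zf (h : AeW B Bo I J co monW (mA monW (actW (Dr : Set (Fin 18)))) C lam a b A φ r 0 1
    κ V Tw) (hV : ∀ k, ¬ V k) {c : Fin 18 → ℝ} (hc : c ∈ CL Dr) {y : ℝ} (hy : c 0 ≤ y) :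
    lam c - lam (Function.update c 0 y) = y - c 0 := by
  have hle := le_upd (c := c) (f := 0) hy
  have hm : Function.update c 0 y ∈ CL Dr := by
    refine mem_cn_of_head hc hle fun w _ => ?_
    rw [Function.update_of_ne (no_wall_c w).1]
  have h1 := h.own c (by rw [cone_eq]; exact hc) _ (by rw [cone_eq]; exact hm) hle
    fun k hk => absurd hk (hV k)
  have h2 := h.sharp c (by rw [cone_eq]; exact hc) _ (by rw [cone_eq]; exact hm) hle
  rw [sum_upd] at h2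
  rw [Function.update_self, one_mul] at h1
  linarith

/-- **the window** -/
theorem exists_pwin (h : AeW B Bo I J co monW (mA monW (actW (Dr : Set (Fin 18)))) C lam a b A φ r
    0 1 κ V Tw) (hV : ∀ k, ¬ V k) (hc : Cht I co kp un F) (hk0 : Bo.Sub (fun n => |kp n|⁻¹))
    (hJ : ∀ᶠ n in (U : Filter ℕ), (J n).Nonempty) {x : ℝ} (hx : 0 < x) :
    ∃ (W : Wnd 18 ι) (E : ∀ n, Finset (ι n)), PWin W E kp un F Dr lam x := by
  have hst := stP_ok Dr hx.le
  obtain ⟨W, g1, g2, g3⟩ := h.wnd (stP Dr x) rfl hst (fun _ n => |kp n|⁻¹) (fun _ => hk0) J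
    (fun _ => 1) (Eventually.of_forall fun n => Subset.refl _) hJ (Base.Sub.const one_pos)
    (Eventually.of_forall fun n => by rw [one_mul])
  have hm1 : cut {0} (fun _ => x : Fin 18 → ℝ) 0 ∈ CL Dr := by
    have := hst.leg hst.lin_leg
    rwa [cone_eq] at this
  have hm2 : Function.update (0 : Fin 18 → ℝ) 0 x ∈ CL Dr := by
    have := hst.leg hst.lev_leg
    rw [cone_eq] at this
    have e : cut (stP Dr x).S 0 (stP Dr x).top = Function.update (0 : Fin 18 → ℝ) 0 x := cut0 _ _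
    rwa [e] at this
  have e1 : Function.update (cut {0} (fun _ => x : Fin 18 → ℝ) 0) 0 x = fun _ => x := by
    funext s
    by_cases hs : s = 0
    · subst hs; rw [Function.update_self]
    · rw [Function.update_of_ne hs, cut_of_notMem (by simpa using hs)]
  have e2 : (cut {0} (fun _ => x : Fin 18 → ℝ) 0) 0 = 0 := by
    rw [cut_of_mem (mem_singleton_self _)]; rfl
  have z0 : ∀ y, 0 ≤ y → lam (Function.update (0 : Fin 18 → ℝ) 0 y) = -y := by
    intro y hy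
    have h3 := aew_zf h hV (K2S774.cn_zero) (y := y) (by simpa using hy)
    rw [h.zero] at h3
    simp only [Pi.zero_apply] at h3
    linarith
  have hden : (stP Dr x).Dens lam 1 x := by
    refine ⟨?_, zero_le_one, le_rfl, le_rfl, fun y hy hyx => ?_⟩
    · show lam (fun _ => x) ≤ lam (cut {0} (fun _ => x) 0) + lam (cut {0} 0 (fun _ => x))
      rw [cut0]
      have h1 := aew_zf h hV hm1 (y := x) (by rw [e2]; exact hx.le)
      rw [e1, e2] at h1
      rw [z0 x hx.le]; linarith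
    · show lam (Pi.single 0 y) ≤ -(1 * y)
      have := z0 y hy
      rw [one_mul, ← this]
      exact le_rfl
  obtain ⟨E, g, q1, q2, q3, q4⟩ := g1.model hden (fun _ _ _ => 0) (g₀ := fun n => 1 + W.B'.L n)
    (tendsto_atTop.2 fun b => (W.B'.ev_L_ge b).mono fun n hn => by linarith)
    (fun k hk => absurd hk (hV k))
  have eT : W.top = fun _ => x := g1.etop
  have eS : W.S = {0} := g1.eS
  refine ⟨W, E, ?_, ?_, q3, g1.eS, fun s => by rw [eT], ?_, ?_, ?_, ?_⟩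
  · refine ⟨g1.ok, hc.hκ, hc.hU, g1.eM, ?_, g1.ekz, by rw [eS]; exact mem_singleton_self _, ?_⟩
    · intro n i hi j hj s
      rw [g1.eI] at hi hj
      rw [g1.eco]
      exact hc.hco n i hi j hj s
    · intro s hs
      rw [eS, mem_singleton] at hs
      subst hs
      decide
  · filter_upwards [Wnd.ev_cfg g1.ok g1.ok.eok_section q1] with n hn
    exact ⟨hn.1, (q1.sub n).trans hn.2.1, hn.2.2.2⟩
  · intro c hc h0 hcx
    refine ⟨?_, fun s _ => by rw [eT]; exact hcx s⟩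
    rw [eS, eT, cut0, g1.eMw, g1.eR]
    refine leg_iff (fun k => ?_) (fun k => ?_) hc
    · rw [Function.update_apply]; split_ifs; exacts [hx.le, h0 k]
    · rw [Function.update_apply]; split_ifs; exacts [le_rfl, hcx k]
  · intro c
    show W.lam (cut W.S c W.top) - W.lam W.top = _
    rw [eS, eT, cut0, g1.elam]
  · intro k hk l hl hls n
    have := g1.act k _ (mem_mAW.2 ⟨hk, l, hl, hls, rfl⟩) n
    rw [this, sum_count]
  · intro ε hε
    filter_upwards [(g2 0).ev_le hε] with n h1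
    obtain ⟨h2, h1⟩ := h1
    have h3 : 0 < |kp n| := inv_pos.1 h2
    have h5 : |kp n|⁻¹ ≤ W.B'.d n ^ (-ε) := by
      rw [← W.B'.exp_eq, ← Real.exp_log h2]
      exact Real.exp_le_exp.2 h1
    have h4 : 0 < W.B'.d n ^ ε := Real.rpow_pos_of_pos (W.B'.pos n) _
    rw [Real.rpow_neg (W.B'.pos n).le] at h5
    exact (inv_le_inv₀ h3 h4).1 h5

end win

/-! ### the links -/

/-- the dropped slots do not matter -/
def Ind (Dr : Finset (Fin 18)) (lam : (Fin 18 → ℝ) → ℝ) : Prop :=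
  ∀ c ∈ CL Dr, ∀ c' ∈ CL Dr, (∀ i, i ∉ Dr → c i = c' i) → lam c = lam c'

section use

variable {Dr V V1 V2 : Finset (Fin 18)} {lam : (Fin 18 → ℝ) → ℝ} {x y j : ℝ}

theorem mem_max' {c : Fin 18 → ℝ} (h0 : ∀ k, 0 ≤ c k)
    (h : ∀ k, k ∉ Dr → ∀ l ∈ mlW k, (∀ a ∈ l, a ∉ Dr) → ∃ j ∈ l, c k ≤ c j) : c ∈ CL Dr := by
  rw [CL, mem_cnW]
  intro k hk l hl hD
  obtain ⟨j, hj, hkj⟩ := h k (fun hkD => hk (Finset.mem_coe.2 hkD)) l hl
    fun a ha haD => hD a ha (Finset.mem_coe.2 haD)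
  refine hkj.trans (List.single_le_sum ?_ _ (List.mem_map.2 ⟨j, hj, rfl⟩))
  intro y hy
  obtain ⟨a, _, rfl⟩ := List.mem_map.1 hy
  exact h0 a

/-- boxes with the values `x`, `y`, `0` off the dropped slots -/
theorem mem_two (hV : UpW Dr V1) (hW : UpW Dr V2) (hy : 0 ≤ y) (hyx : y ≤ x) {c : Fin 18 → ℝ}
    (h0 : ∀ k, 0 ≤ c k) (h1 : ∀ i, i ∉ Dr → i ∈ V1 → c i = x)
    (h2 : ∀ i, i ∉ Dr → i ∉ V1 → i ∈ V2 → c i = y)
    (h3 : ∀ i, i ∉ Dr → i ∉ V1 → i ∉ V2 → c i = 0) : c ∈ CL Dr := by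
  refine mem_max' h0 fun k hk l hl hD => ?_
  by_cases k1 : k ∈ V1
  · obtain ⟨j, hj, hjV⟩ := hV k k1 l hl hD
    exact ⟨j, hj, by rw [h1 k hk k1, h1 j (hD j hj) hjV]⟩
  by_cases k2 : k ∈ V2
  · obtain ⟨j, hj, hjW⟩ := hW k k2 l hl hD
    refine ⟨j, hj, ?_⟩
    rw [h2 k hk k1 k2]
    by_cases j1 : j ∈ V1
    · rw [h1 j (hD j hj) j1]; exact hyx
    · rw [h2 j (hD j hj) j1 hjW]
  · obtain ⟨j, hj⟩ := List.exists_mem_of_ne_nil l (mlW_ne k l hl)
    exact ⟨j, hj, by rw [h3 k hk k1 k2]; exact h0 j⟩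

/-- the value of a slot of a box -/
def Val (V1 V2 : Finset (Fin 18)) (x y : ℝ) (i : Fin 18) (v : ℝ) : Prop :=
  (i ∈ V1 ∧ v = x) ∨ (i ∉ V1 ∧ i ∈ V2 ∧ v = y) ∨ (i ∉ V1 ∧ i ∉ V2 ∧ v = 0)

theorem Val.nonneg {i : Fin 18} {v : ℝ} (h : Val V1 V2 x y i v) (hx : 0 ≤ x) (hy : 0 ≤ y) :
    0 ≤ v := by
  rcases h with ⟨-, rfl⟩ | ⟨-, -, rfl⟩ | ⟨-, -, rfl⟩
  exacts [hx, hy, le_rfl]

theorem Val.le {i : Fin 18} {v : ℝ} (h : Val V1 V2 x y i v) (hx : 0 ≤ x) (hy : y ≤ x) :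
    v ≤ x := by
  rcases h with ⟨-, rfl⟩ | ⟨-, -, rfl⟩ | ⟨-, -, rfl⟩
  exacts [le_rfl, hy, hx]

section bx

variable {sX sF sN : Fin 18} {cX cF cN : ℝ} (nX : sX ∉ V ∪ Dr) (nF : sF ∉ V ∪ Dr)
  (nN : sN ∉ V ∪ Dr) (hFX : sF ≠ sX) (hNX : sN ≠ sX) (hNF : sN ≠ sF)

theorem bx_nonneg (hX : 0 ≤ cX) (hF : 0 ≤ cF) (hN : 0 ≤ cN) (hx : 0 ≤ x) (k : Fin 18) :
    0 ≤ bx (ind (V ∪ Dr) x) sX sF sN cX cF cN k := by
  unfold bx
  split_ifs
  exacts [hX, hF, hN, ind_nonneg hx k]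

theorem bx_le_x (hX : cX ≤ x) (hF : cF ≤ x) (hN : cN ≤ x) (hx : 0 ≤ x) (k : Fin 18) :
    bx (ind (V ∪ Dr) x) sX sF sN cX cF cN k ≤ x := by
  unfold bx
  split_ifs
  exacts [hX, hF, hN, ind_le hx k]

include nX nF nN in
theorem bx_V {i : Fin 18} (hi : i ∈ V) : bx (ind (V ∪ Dr) x) sX sF sN cX cF cN i = x := by
  have hi' : i ∈ V ∪ Dr := mem_union_left _ hi
  have h1 : i ≠ sX := by intro h; rw [h] at hi'; exact nX hi'
  have h2 : i ≠ sF := by intro h; rw [h] at hi'; exact nF hi'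
  have h3 : i ≠ sN := by intro h; rw [h] at hi'; exact nN hi'
  rw [bx_o h1 h2 h3, ind_mem hi']

theorem bx_out {i : Fin 18} (h1 : i ≠ sX) (h2 : i ≠ sF) (h3 : i ≠ sN) (hV : i ∉ V)
    (hD : i ∉ Dr) : bx (ind (V ∪ Dr) x) sX sF sN cX cF cN i = 0 := by
  rw [bx_o h1 h2 h3, ind_notMem (by simp [hV, hD])]

include nX nF nN hFX hNX hNF in
/-- legality of the boxes of a leaf link -/
theorem mem_bx (hx : 0 ≤ x) (hy : 0 ≤ y) (hyx : y ≤ x) (hV1 : UpW Dr V1) (hV2 : UpW Dr V2)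
    (vX : Val V1 V2 x y sX cX) (vF : Val V1 V2 x y sF cF) (vN : Val V1 V2 x y sN cN)
    (hVV : ∀ i, i ≠ sX → i ≠ sF → i ≠ sN → (i ∈ V1 ↔ i ∈ V) ∧ (i ∈ V2 ↔ i ∈ V)) :
    bx (ind (V ∪ Dr) x) sX sF sN cX cF cN ∈ CL Dr := by
  have key : ∀ i, i ∉ Dr → Val V1 V2 x y i (bx (ind (V ∪ Dr) x) sX sF sN cX cF cN i) := by
    intro i hi
    by_cases h1 : i = sX
    · subst h1; rw [bx_X]; exact vX
    by_cases h2 : i = sF
    · subst h2; rw [bx_F hFX]; exact vF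
    by_cases h3 : i = sN
    · subst h3; rw [bx_N hNX hNF]; exact vN
    obtain ⟨e1, e2⟩ := hVV i h1 h2 h3
    by_cases hV : i ∈ V
    · rw [bx_V nX nF nN hV]; exact Or.inl ⟨e1.2 hV, rfl⟩
    · rw [bx_out h1 h2 h3 hV hi]
      exact Or.inr (Or.inr ⟨fun h => hV (e1.1 h), fun h => hV (e2.1 h), rfl⟩)
  refine mem_two hV1 hV2 hy hyx (bx_nonneg (vX.nonneg hx hy) (vF.nonneg hx hy) (vN.nonneg hx hy) hx)
    (fun i hi h => ?_) (fun i hi h h' => ?_) (fun i hi h h' => ?_)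
  · rcases key i hi with ⟨-, e⟩ | ⟨a, -⟩ | ⟨a, -⟩
    · exact e
    · exact absurd h a
    · exact absurd h a
  · rcases key i hi with ⟨a, -⟩ | ⟨-, -, e⟩ | ⟨-, a, -⟩
    · exact absurd a h
    · exact e
    · exact absurd h' a
  · rcases key i hi with ⟨a, -⟩ | ⟨-, a, -⟩ | ⟨-, -, e⟩
    · exact absurd a h
    · exact absurd a h'
    · exact e

end bx

variable {ι : ℕ → Type*} [∀ n, DecidableEq (ι n)] {W : Wnd 18 ι} {E : ∀ n, Finset (ι n)}
  {kp : ℕ → ℝ} {un : ℕ → Fin 18 → ℝ} {F : ∀ n, ι n → FW}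

theorem upd_self0 {c : Fin 18 → ℝ} (h : c 0 = x) : Function.update c 0 x = c := by
  rw [← h, Function.update_eq_self]

theorem PWin.leg' (h : PWin W E kp un F Dr lam x) {c : Fin 18 → ℝ} (hc : c ∈ CL Dr)
    (h0 : ∀ k, 0 ≤ c k) (hx : ∀ k, c k ≤ x) (hz : c 0 = x) : c ∈ W.legW :=
  h.leg c (by rw [upd_self0 hz]; exact hc) h0 hx

theorem PWin.nu' (h : PWin W E kp un F Dr lam x) {c : Fin 18 → ℝ} (hz : c 0 = x) :
    W.nu c = lam c - lam (fun _ => x) := by rw [h.nu, upd_self0 hz]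

/-- **the leaf link** -/
theorem PWin.leaf (h : PWin W E kp un F Dr lam x) (hi : Ind Dr lam)
    (hsh : ∀ c ∈ CL Dr, ∀ c' ∈ CL Dr, c ≤ c' → lam c - lam c' ≤ ∑ i, (c' i - c i))
    (hx : 0 < x) {X : Fin 4} {Ff q : Fin 14} {n : ℤ} {e : ℕ} (hn : n ≠ 0) (hD0 : 0 ∉ Dr)
    (hD : Disjoint V Dr) (hF : Fin.natAdd 4 Ff ∉ Dr) (hq : Fin.natAdd 4 q ∉ Dr)
    (hd : LeafDat {0} (V ∪ Dr) X Ff q n e) (u1 : UpW Dr V)
    (u2 : UpW Dr (insert (Fin.natAdd 4 Ff) (insert (Fin.natAdd 4 q) V)))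
    (u3 : UpW Dr (insert (Fin.castAdd 14 X) (insert (Fin.natAdd 4 q) V)))
    (u4 : UpW Dr (insert (Fin.natAdd 4 Ff) (insert (Fin.castAdd 14 X)
      (insert (Fin.natAdd 4 q) V)))) (hj : 0 ≤ j) (hjx : j ≤ x)
    (hX : x ≤ lam (ind (insert (Fin.natAdd 4 Ff) (insert (Fin.natAdd 4 q) V)) x) -
      lam (ind (insert (Fin.castAdd 14 X)
        (insert (Fin.natAdd 4 Ff) (insert (Fin.natAdd 4 q) V))) x))
    (hv : lam (Function.update (ind (insert (Fin.castAdd 14 X) (insert (Fin.natAdd 4 q) V)) x)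
      (Fin.natAdd 4 Ff) j) < lam (ind (insert (Fin.castAdd 14 X) (insert (Fin.natAdd 4 q) V)) x)) :
    2 * x - j ≤ lam (ind V x) -
      lam (ind (insert (Fin.castAdd 14 X) (insert (Fin.natAdd 4 q) V)) x) := by
  obtain ⟨hmem, nX, nF⟩ := hd.mem
  have nN := hd.hq
  have h0 : 0 ∈ V := (mem_union.1 (hd.hS hd.h0)).resolve_right hD0
  have hFX : (Fin.natAdd 4 Ff : Fin 18) ≠ Fin.castAdd 14 X := by
    intro he
    have := congrArg Fin.val he
    simp only [Fin.val_natAdd, Fin.val_castAdd] at this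
    omega
  have hNX : (Fin.natAdd 4 q : Fin 18) ≠ Fin.castAdd 14 X := by
    intro he
    have := congrArg Fin.val he
    simp only [Fin.val_natAdd, Fin.val_castAdd] at this
    omega
  have hNF : (Fin.natAdd 4 q : Fin 18) ≠ Fin.natAdd 4 Ff := hd.lt.ne'
  have hXD : Fin.castAdd 14 X ∉ Dr := fun h => nX (mem_union_right _ h)
  have hXV : Fin.castAdd 14 X ∉ V := fun h => nX (mem_union_left _ h)
  have hFV : Fin.natAdd 4 Ff ∉ V := fun h => nF (mem_union_left _ h)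
  have hqV : Fin.natAdd 4 q ∉ V := fun h => nN (mem_union_left _ h)
  have hx0 := hx.le
  have hxj : 0 ≤ x - j := by linarith
  have hxj' : x - j ≤ x := by linarith
  set sX : Fin 18 := Fin.castAdd 14 X with hsX
  set sF : Fin 18 := Fin.natAdd 4 Ff with hsF
  set sN : Fin 18 := Fin.natAdd 4 q with hsN
  -- values of the boxes
  have m1 : ∀ {cX cF cN y : ℝ} {V1 V2 : Finset (Fin 18)}, 0 ≤ y → y ≤ x → UpW Dr V1 → UpW Dr V2 →
      Val V1 V2 x y sX cX → Val V1 V2 x y sF cF → Val V1 V2 x y sN cN →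
      (∀ i, i ≠ sX → i ≠ sF → i ≠ sN → (i ∈ V1 ↔ i ∈ V) ∧ (i ∈ V2 ↔ i ∈ V)) →
      bx (ind (V ∪ Dr) x) sX sF sN cX cF cN ∈ CL Dr ∧
      bx (ind (V ∪ Dr) x) sX sF sN cX cF cN ∈ W.legW := by
    intro cX cF cN y V1 V2 hy hyx hV1 hV2 vX vF vN hVV
    have m := mem_bx nX nF nN hFX hNX hNF hx0 hy hyx hV1 hV2 vX vF vN hVV
    exact ⟨m, h.leg' m (bx_nonneg (vX.nonneg hx0 hy) (vF.nonneg hx0 hy) (vN.nonneg hx0 hy) hx0)
      (bx_le_x (vX.le hx0 hyx) (vF.le hx0 hyx) (vN.le hx0 hyx) hx0) (bx_V nX nF nN h0)⟩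
  have o : ∀ i, i ≠ sX → i ≠ sF → i ≠ sN → (i ∈ V ↔ i ∈ V) := fun _ _ _ _ => Iff.rfl
  have oL : ∀ i, i ≠ sX → i ≠ sF → i ≠ sN → (i ∈ insert sF (insert sN V) ↔ i ∈ V) :=
    fun i _ h2 h3 => by simp [h2, h3]
  have oQ : ∀ i, i ≠ sX → i ≠ sF → i ≠ sN → (i ∈ insert sX (insert sN V) ↔ i ∈ V) :=
    fun i h1 _ h3 => by simp [h1, h3]
  have oA : ∀ i, i ≠ sX → i ≠ sF → i ≠ sN → (i ∈ insert sF (insert sX (insert sN V)) ↔ i ∈ V) :=
    fun i h1 h2 h3 => by simp [h1, h2, h3]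
  have hXL : sX ∉ insert sF (insert sN V) := by simp [hFX.symm, hNX.symm, hXV]
  have hFQ : sF ∉ insert sX (insert sN V) := by simp [hFX, hNF.symm, hFV]
  have a0 := m1 (cX := 0) (cF := 0) (cN := 0) (y := 0) le_rfl hx0 u1 u1
    (Or.inr (Or.inr ⟨hXV, hXV, rfl⟩)) (Or.inr (Or.inr ⟨hFV, hFV, rfl⟩))
    (Or.inr (Or.inr ⟨hqV, hqV, rfl⟩)) (fun i h1 h2 h3 => ⟨o i h1 h2 h3, o i h1 h2 h3⟩)
  have aL := m1 (cX := 0) (cF := x) (cN := x) (y := 0) le_rfl hx0 u2 u2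
    (Or.inr (Or.inr ⟨hXL, hXL, rfl⟩)) (Or.inl ⟨by simp, rfl⟩) (Or.inl ⟨by simp, rfl⟩)
    (fun i h1 h2 h3 => ⟨oL i h1 h2 h3, oL i h1 h2 h3⟩)
  have aQ' := m1 (cX := x) (cF := x) (cN := x) (y := 0) le_rfl hx0 u4 u4
    (Or.inl ⟨by simp, rfl⟩) (Or.inl ⟨by simp, rfl⟩) (Or.inl ⟨by simp, rfl⟩)
    (fun i h1 h2 h3 => ⟨oA i h1 h2 h3, oA i h1 h2 h3⟩)
  have aQ := m1 (cX := x) (cF := 0) (cN := x) (y := 0) le_rfl hx0 u3 u3
    (Or.inl ⟨by simp, rfl⟩) (Or.inr (Or.inr ⟨hFQ, hFQ, rfl⟩)) (Or.inl ⟨by simp, rfl⟩)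
    (fun i h1 h2 h3 => ⟨oQ i h1 h2 h3, oQ i h1 h2 h3⟩)
  have ajj := m1 (cX := 0) (cF := j) (cN := j) (y := j) hj hjx u1 u2
    (Or.inr (Or.inr ⟨hXV, hXL, rfl⟩)) (Or.inr (Or.inl ⟨hFV, by simp, rfl⟩))
    (Or.inr (Or.inl ⟨hqV, by simp, rfl⟩)) (fun i h1 h2 h3 => ⟨o i h1 h2 h3, oL i h1 h2 h3⟩)
  have aQj := m1 (cX := x) (cF := j) (cN := x) (y := j) hj hjx u3 u4
    (Or.inl ⟨by simp, rfl⟩) (Or.inr (Or.inl ⟨hFQ, by simp, rfl⟩)) (Or.inl ⟨by simp, rfl⟩)
    (fun i h1 h2 h3 => ⟨oQ i h1 h2 h3, oA i h1 h2 h3⟩)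
  have aR := m1 (cX := x - j) (cF := x) (cN := x) (y := x - j) hxj hxj' u2 u4
    (Or.inr (Or.inl ⟨hXL, by simp, rfl⟩)) (Or.inl ⟨by simp, rfl⟩) (Or.inl ⟨by simp, rfl⟩)
    (fun i h1 h2 h3 => ⟨oL i h1 h2 h3, oA i h1 h2 h3⟩)
  have mi : ∀ {V' : Finset (Fin 18)}, UpW Dr V' → ind V' x ∈ CL Dr := fun hV' => mem_ind hV' hx0
  -- equality with the boxes of `Pin`
  have e0 : lam (bx (ind (V ∪ Dr) x) sX sF sN 0 0 0) = lam (ind V x) := by
    refine hi _ a0.1 _ (mi u1) fun i hi => ?_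
    by_cases h1 : i = sX
    · subst h1; rw [bx_X, ind_notMem hXV]
    by_cases h2 : i = sF
    · subst h2; rw [bx_F hFX, ind_notMem hFV]
    by_cases h3 : i = sN
    · subst h3; rw [bx_N hNX hNF, ind_notMem hqV]
    by_cases hV : i ∈ V
    · rw [bx_V nX nF nN hV, ind_mem hV]
    · rw [bx_out h1 h2 h3 hV hi, ind_notMem hV]
  have eL : lam (bx (ind (V ∪ Dr) x) sX sF sN 0 x x) = lam (ind (insert sF (insert sN V)) x) := by
    refine hi _ aL.1 _ (mi u2) fun i hi => ?_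
    by_cases h1 : i = sX
    · subst h1; rw [bx_X, ind_notMem hXL]
    by_cases h2 : i = sF
    · subst h2; rw [bx_F hFX, ind_mem (by simp)]
    by_cases h3 : i = sN
    · subst h3; rw [bx_N hNX hNF, ind_mem (by simp)]
    by_cases hV : i ∈ V
    · rw [bx_V nX nF nN hV, ind_mem (by simp [hV])]
    · rw [bx_out h1 h2 h3 hV hi, ind_notMem (by simp [h2, h3, hV])]
  have eQ' : lam (bx (ind (V ∪ Dr) x) sX sF sN x x x) =
      lam (ind (insert sX (insert sF (insert sN V))) x) := by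
    have u5 : UpW Dr (insert sX (insert sF (insert sN V))) := by
      rw [Finset.insert_comm]; exact u4
    refine hi _ aQ'.1 _ (mi u5) fun i hi => ?_
    by_cases h1 : i = sX
    · subst h1; rw [bx_X, ind_mem (by simp)]
    by_cases h2 : i = sF
    · subst h2; rw [bx_F hFX, ind_mem (by simp)]
    by_cases h3 : i = sN
    · subst h3; rw [bx_N hNX hNF, ind_mem (by simp)]
    by_cases hV : i ∈ V
    · rw [bx_V nX nF nN hV, ind_mem (by simp [hV])]
    · rw [bx_out h1 h2 h3 hV hi, ind_notMem (by simp [h1, h2, h3, hV])]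
  have eQ : lam (bx (ind (V ∪ Dr) x) sX sF sN x 0 x) = lam (ind (insert sX (insert sN V)) x) := by
    refine hi _ aQ.1 _ (mi u3) fun i hi => ?_
    by_cases h1 : i = sX
    · subst h1; rw [bx_X, ind_mem (by simp)]
    by_cases h2 : i = sF
    · subst h2; rw [bx_F hFX, ind_notMem hFQ]
    by_cases h3 : i = sN
    · subst h3; rw [bx_N hNX hNF, ind_mem (by simp)]
    by_cases hV : i ∈ V
    · rw [bx_V nX nF nN hV, ind_mem (by simp [hV])]
    · rw [bx_out h1 h2 h3 hV hi, ind_notMem (by simp [h1, h3, hV])]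
  have eQj : lam (bx (ind (V ∪ Dr) x) sX sF sN x j x) =
      lam (Function.update (ind (insert sX (insert sN V)) x) sF j) := by
    refine hi _ aQj.1 _ (mem_upd u3 u4 hFQ hj hjx) fun i hi => ?_
    by_cases h1 : i = sX
    · subst h1; rw [bx_X, Function.update_of_ne hFX.symm, ind_mem (by simp)]
    by_cases h2 : i = sF
    · subst h2; rw [bx_F hFX, Function.update_self]
    by_cases h3 : i = sN
    · subst h3; rw [bx_N hNX hNF, Function.update_of_ne hNF, ind_mem (by simp)]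
    by_cases hV : i ∈ V
    · rw [bx_V nX nF nN hV, Function.update_of_ne h2, ind_mem (by simp [hV])]
    · rw [bx_out h1 h2 h3 hV hi, Function.update_of_ne h2, ind_notMem (by simp [h1, h3, hV])]
  have hz : ∀ cX cF cN : ℝ, bx (ind (V ∪ Dr) x) sX sF sN cX cF cN 0 = x := fun _ _ _ =>
    bx_V nX nF nN h0
  have hd' : LeafDat W.S (V ∪ Dr) X Ff q n e := by rw [h.S]; exact hd
  have key := leafW_loss h.ww h.ev h.mod.toRUnif (b := ind (V ∪ Dr) x) hd' hj hjx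
    (fun s _ => (h.top s).ge) (fun s hs _ => by rw [ind_mem hs])
    (cLf_ok h.ww hd' hn (fun _ => h.kap) (Eventually.of_forall fun m => by
      have := h.tight sN hq [sX, sF] hd.wall (fun s hs => by
        rcases List.mem_cons.1 hs with h1 | h1
        · rw [h1]; exact hXD
        · rw [List.mem_singleton.1 h1]; exact hF) m
      rw [this, List.map_cons, List.map_cons, List.map_nil, List.sum_cons, List.sum_cons,
        List.sum_nil, add_zero]))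
    ⟨a0.2, aL.2, aQ'.2, aQ.2, ajj.2, aQj.2, aR.2⟩
    (by rw [h.nu' (hz _ _ _), h.nu' (hz _ _ _), eL, eQ']; linarith)
    (by
      rw [h.nu' (hz _ _ _), h.nu' (hz _ _ _)]
      have h5 := hsh _ aR.1 _ aQ'.1 (bx_le hxj' le_rfl le_rfl)
      have h6 : ∑ i, (bx (ind (V ∪ Dr) x) sX sF sN x x x i -
          bx (ind (V ∪ Dr) x) sX sF sN (x - j) x x i) = j := by
        rw [Finset.sum_eq_single sX]
        · rw [bx_X, bx_X]; ring
        · intro i _ h1
          unfold bx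
          rw [if_neg h1, if_neg h1]
          split_ifs <;> ring
        · intro h; exact absurd (mem_univ _) h
      rw [h6] at h5
      linarith)
    (by rw [h.nu' (hz _ _ _), h.nu' (hz _ _ _), eQ, eQj]; linarith)
  rw [h.nu' (hz _ _ _), h.nu' (hz _ _ _), e0, eQ] at key
  linarith

/-- the boxes `bx .. 2 1 3` (leaf `c → B`, lateral `A`) -/
theorem PWin.leafB (h : PWin W E kp un F Dr lam x) (hi : Ind Dr lam)
    (hx : 0 < x) (hD : Disjoint V Dr) (d1 : 1 ∉ Dr) (d2 : 2 ∉ Dr) (d3 : 3 ∉ Dr) (h0 : 0 ∈ V)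
    (h1 : 1 ∉ V) (h2 : 2 ∉ V) (h3 : 3 ∉ V) (hV : UpW Dr V) (hj : 0 ≤ j) (hjx : j ≤ x)
    (hX : x ≤ lam (ind (insert 1 (insert 3 V)) x) - lam (ind (insert 2 (insert 1 (insert 3 V))) x))
    (hv : lam (Function.update (ind (insert 2 (insert 3 V)) x) 1 j) <
      lam (ind (insert 2 (insert 3 V)) x)) :
    2 * x - j ≤ lam (ind V x) - lam (ind (insert 2 (insert 3 V)) x) := by
  have hx0 := hx.le
  have hxj : 0 ≤ x - j := by linarith
  have hxj' : x - j ≤ x := by linarith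
  have nX : (2 : Fin 18) ∉ V ∪ Dr := by simp [h2, d2]
  have nF : (1 : Fin 18) ∉ V ∪ Dr := by simp [h1, d1]
  have nN : (3 : Fin 18) ∉ V ∪ Dr := by simp [h3, d3]
  have hFX : (1 : Fin 18) ≠ 2 := by decide
  have hNX : (3 : Fin 18) ≠ 2 := by decide
  have hNF : (3 : Fin 18) ≠ 1 := by decide
  -- up-closed sets
  have up1 : UpW Dr (insert 1 V) := up_insert1 hV
  have uB : ∀ {U : Finset (Fin 18)}, UpW Dr U → 0 ∈ U → (1 ∈ U ∨ 2 ∈ U) → UpW Dr (insert 3 U) := by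
    intro U hU u0 u12 k hk l hl hDl
    rcases mem_insert.1 hk with e | e
    · subst e
      have e3 : mlW 3 = [[1, 2], [1, 1, 0]] := by decide
      rw [e3] at hl
      rcases List.mem_cons.1 hl with h5 | h5
      · rw [h5]
        rcases u12 with h6 | h6
        · exact ⟨1, by simp, mem_insert_of_mem h6⟩
        · exact ⟨2, by simp, mem_insert_of_mem h6⟩
      · rw [List.mem_singleton.1 h5]
        exact ⟨0, by simp, mem_insert_of_mem u0⟩
    · obtain ⟨j, hj, hjU⟩ := hU k e l hl hDl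
      exact ⟨j, hj, mem_insert_of_mem hjU⟩
  have uA : ∀ {U : Finset (Fin 18)}, UpW Dr U → 0 ∈ U → UpW Dr (insert 2 U) := by
    intro U hU u0 k hk l hl hDl
    rcases mem_insert.1 hk with e | e
    · subst e
      have e2 : mlW 2 = [[1, 0]] := by decide
      rw [e2] at hl
      rw [List.mem_singleton.1 hl]
      exact ⟨0, by simp, mem_insert_of_mem u0⟩
    · obtain ⟨j, hj, hjU⟩ := hU k e l hl hDl
      exact ⟨j, hj, mem_insert_of_mem hjU⟩
  have w1 : UpW Dr (insert 3 (insert 1 V)) := uB up1 (by simp [h0]) (Or.inl (by simp))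
  have u2 : UpW Dr (insert 1 (insert 3 V)) := by rw [Finset.insert_comm]; exact w1
  have w2 : UpW Dr (insert 2 V) := uA hV h0
  have w3 : UpW Dr (insert 3 (insert 2 V)) := uB w2 (by simp [h0]) (Or.inr (by simp))
  have u3 : UpW Dr (insert 2 (insert 3 V)) := by rw [Finset.insert_comm]; exact w3
  have u4 : UpW Dr (insert 1 (insert 2 (insert 3 V))) := up_insert1 u3
  have u5 : UpW Dr (insert 2 (insert 1 (insert 3 V))) := by rw [Finset.insert_comm]; exact u4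
  have m1 : ∀ {cX cF cN y : ℝ} {V1 V2 : Finset (Fin 18)}, 0 ≤ y → y ≤ x → UpW Dr V1 → UpW Dr V2 →
      Val V1 V2 x y 2 cX → Val V1 V2 x y 1 cF → Val V1 V2 x y 3 cN →
      (∀ i, i ≠ 2 → i ≠ 1 → i ≠ 3 → (i ∈ V1 ↔ i ∈ V) ∧ (i ∈ V2 ↔ i ∈ V)) →
      bx (ind (V ∪ Dr) x) 2 1 3 cX cF cN ∈ CL Dr ∧
      bx (ind (V ∪ Dr) x) 2 1 3 cX cF cN ∈ W.legW := by
    intro cX cF cN y V1 V2 hy hyx hV1 hV2 vX vF vN hVV
    have m := mem_bx nX nF nN hFX hNX hNF hx0 hy hyx hV1 hV2 vX vF vN hVV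
    exact ⟨m, h.leg' m (bx_nonneg (vX.nonneg hx0 hy) (vF.nonneg hx0 hy) (vN.nonneg hx0 hy) hx0)
      (bx_le_x (vX.le hx0 hyx) (vF.le hx0 hyx) (vN.le hx0 hyx) hx0) (bx_V nX nF nN h0)⟩
  have o : ∀ i : Fin 18, i ≠ 2 → i ≠ 1 → i ≠ 3 → (i ∈ V ↔ i ∈ V) := fun _ _ _ _ => Iff.rfl
  have oL : ∀ i : Fin 18, i ≠ 2 → i ≠ 1 → i ≠ 3 → (i ∈ insert 1 (insert 3 V) ↔ i ∈ V) :=
    fun i _ h2 h3 => by simp [h2, h3]
  have oQ : ∀ i : Fin 18, i ≠ 2 → i ≠ 1 → i ≠ 3 → (i ∈ insert 2 (insert 3 V) ↔ i ∈ V) :=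
    fun i h1 _ h3 => by simp [h1, h3]
  have oA : ∀ i : Fin 18, i ≠ 2 → i ≠ 1 → i ≠ 3 →
      (i ∈ insert 1 (insert 2 (insert 3 V)) ↔ i ∈ V) :=
    fun i h1 h2 h3 => by simp [h1, h2, h3]
  have hXL : (2 : Fin 18) ∉ insert 1 (insert 3 V) := by simp [h2]
  have hFQ : (1 : Fin 18) ∉ insert 2 (insert 3 V) := by simp [h1]
  have a0 := m1 (cX := 0) (cF := 0) (cN := 0) (y := 0) le_rfl hx0 hV hV
    (Or.inr (Or.inr ⟨h2, h2, rfl⟩)) (Or.inr (Or.inr ⟨h1, h1, rfl⟩))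
    (Or.inr (Or.inr ⟨h3, h3, rfl⟩)) (fun i h1 h2 h3 => ⟨o i h1 h2 h3, o i h1 h2 h3⟩)
  have aL := m1 (cX := 0) (cF := x) (cN := x) (y := 0) le_rfl hx0 u2 u2
    (Or.inr (Or.inr ⟨hXL, hXL, rfl⟩)) (Or.inl ⟨by simp, rfl⟩) (Or.inl ⟨by simp, rfl⟩)
    (fun i h1 h2 h3 => ⟨oL i h1 h2 h3, oL i h1 h2 h3⟩)
  have aQ' := m1 (cX := x) (cF := x) (cN := x) (y := 0) le_rfl hx0 u4 u4
    (Or.inl ⟨by simp, rfl⟩) (Or.inl ⟨by simp, rfl⟩) (Or.inl ⟨by simp, rfl⟩)
    (fun i h1 h2 h3 => ⟨oA i h1 h2 h3, oA i h1 h2 h3⟩)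
  have aQ := m1 (cX := x) (cF := 0) (cN := x) (y := 0) le_rfl hx0 u3 u3
    (Or.inl ⟨by simp, rfl⟩) (Or.inr (Or.inr ⟨hFQ, hFQ, rfl⟩)) (Or.inl ⟨by simp, rfl⟩)
    (fun i h1 h2 h3 => ⟨oQ i h1 h2 h3, oQ i h1 h2 h3⟩)
  have ajj := m1 (cX := 0) (cF := j) (cN := j) (y := j) hj hjx hV u2
    (Or.inr (Or.inr ⟨h2, hXL, rfl⟩)) (Or.inr (Or.inl ⟨h1, by simp, rfl⟩))
    (Or.inr (Or.inl ⟨h3, by simp, rfl⟩)) (fun i h1 h2 h3 => ⟨o i h1 h2 h3, oL i h1 h2 h3⟩)
  have aQj := m1 (cX := x) (cF := j) (cN := x) (y := j) hj hjx u3 u4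
    (Or.inl ⟨by simp, rfl⟩) (Or.inr (Or.inl ⟨hFQ, by simp, rfl⟩)) (Or.inl ⟨by simp, rfl⟩)
    (fun i h1 h2 h3 => ⟨oQ i h1 h2 h3, oA i h1 h2 h3⟩)
  have aR := m1 (cX := x - j) (cF := x) (cN := x) (y := x - j) hxj hxj' u2 u4
    (Or.inr (Or.inl ⟨hXL, by simp, rfl⟩)) (Or.inl ⟨by simp, rfl⟩) (Or.inl ⟨by simp, rfl⟩)
    (fun i h1 h2 h3 => ⟨oL i h1 h2 h3, oA i h1 h2 h3⟩)
  have mi : ∀ {V' : Finset (Fin 18)}, UpW Dr V' → ind V' x ∈ CL Dr := fun hV' => mem_ind hV' hx0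
  have e0 : lam (bx (ind (V ∪ Dr) x) 2 1 3 0 0 0) = lam (ind V x) := by
    refine hi _ a0.1 _ (mi hV) fun i hi => ?_
    by_cases k1 : i = 2
    · subst k1; rw [bx_X, ind_notMem h2]
    by_cases k2 : i = 1
    · subst k2; rw [bx_F hFX, ind_notMem h1]
    by_cases k3 : i = 3
    · subst k3; rw [bx_N hNX hNF, ind_notMem h3]
    by_cases hiV : i ∈ V
    · rw [bx_V nX nF nN hiV, ind_mem hiV]
    · rw [bx_out k1 k2 k3 hiV hi, ind_notMem hiV]
  have eL : lam (bx (ind (V ∪ Dr) x) 2 1 3 0 x x) = lam (ind (insert 1 (insert 3 V)) x) := by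
    refine hi _ aL.1 _ (mi u2) fun i hi => ?_
    by_cases k1 : i = 2
    · subst k1; rw [bx_X, ind_notMem hXL]
    by_cases k2 : i = 1
    · subst k2; rw [bx_F hFX, ind_mem (by simp)]
    by_cases k3 : i = 3
    · subst k3; rw [bx_N hNX hNF, ind_mem (by simp)]
    by_cases hiV : i ∈ V
    · rw [bx_V nX nF nN hiV, ind_mem (by simp [hiV])]
    · rw [bx_out k1 k2 k3 hiV hi, ind_notMem (by simp [k2, k3, hiV])]
  have eQ' : lam (bx (ind (V ∪ Dr) x) 2 1 3 x x x) =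
      lam (ind (insert 2 (insert 1 (insert 3 V))) x) := by
    refine hi _ aQ'.1 _ (mi u5) fun i hi => ?_
    by_cases k1 : i = 2
    · subst k1; rw [bx_X, ind_mem (by simp)]
    by_cases k2 : i = 1
    · subst k2; rw [bx_F hFX, ind_mem (by simp)]
    by_cases k3 : i = 3
    · subst k3; rw [bx_N hNX hNF, ind_mem (by simp)]
    by_cases hiV : i ∈ V
    · rw [bx_V nX nF nN hiV, ind_mem (by simp [hiV])]
    · rw [bx_out k1 k2 k3 hiV hi, ind_notMem (by simp [k1, k2, k3, hiV])]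
  have eQ : lam (bx (ind (V ∪ Dr) x) 2 1 3 x 0 x) = lam (ind (insert 2 (insert 3 V)) x) := by
    refine hi _ aQ.1 _ (mi u3) fun i hi => ?_
    by_cases k1 : i = 2
    · subst k1; rw [bx_X, ind_mem (by simp)]
    by_cases k2 : i = 1
    · subst k2; rw [bx_F hFX, ind_notMem hFQ]
    by_cases k3 : i = 3
    · subst k3; rw [bx_N hNX hNF, ind_mem (by simp)]
    by_cases hiV : i ∈ V
    · rw [bx_V nX nF nN hiV, ind_mem (by simp [hiV])]
    · rw [bx_out k1 k2 k3 hiV hi, ind_notMem (by simp [k1, k3, hiV])]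
  have eQj : lam (bx (ind (V ∪ Dr) x) 2 1 3 x j x) =
      lam (Function.update (ind (insert 2 (insert 3 V)) x) 1 j) := by
    refine hi _ aQj.1 _ (mem_upd u3 u4 hFQ hj hjx) fun i hi => ?_
    by_cases k1 : i = 2
    · subst k1; rw [bx_X, Function.update_of_ne (by decide), ind_mem (by simp)]
    by_cases k2 : i = 1
    · subst k2; rw [bx_F hFX, Function.update_self]
    by_cases k3 : i = 3
    · subst k3; rw [bx_N hNX hNF, Function.update_of_ne (by decide), ind_mem (by simp)]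
    by_cases hiV : i ∈ V
    · rw [bx_V nX nF nN hiV, Function.update_of_ne k2, ind_mem (by simp [hiV])]
    · rw [bx_out k1 k2 k3 hiV hi, Function.update_of_ne k2, ind_notMem (by simp [k1, k3, hiV])]
  have hz : ∀ cX cF cN : ℝ, bx (ind (V ∪ Dr) x) 2 1 3 cX cF cN 0 = x := fun _ _ _ =>
    bx_V nX nF nN h0
  have key := baseB h.ww h.ev h.mod.toRUnif (ind (V ∪ Dr) x) hj hjx (h.top 0).ge h.kap
    (Eventually.of_forall fun m => by
      have := h.tight 3 d3 [1, 2] (by decide) (fun s hs => by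
        rcases List.mem_cons.1 hs with k1 | k1
        · rw [k1]; exact d1
        · rw [List.mem_singleton.1 k1]; exact d2) m
      rw [this, List.map_cons, List.map_cons, List.map_nil, List.sum_cons, List.sum_cons,
        List.sum_nil, add_zero])
    ⟨a0.2, aL.2, aQ'.2, aQ.2, ajj.2, aQj.2, aR.2⟩
    (by rw [h.nu' (hz _ _ _), h.nu' (hz _ _ _), eL, eQ']; linarith)
    (by rw [h.nu' (hz _ _ _), h.nu' (hz _ _ _), eQ, eQj]; linarith)
  rw [h.nu' (hz _ _ _), h.nu' (hz _ _ _), e0, eQ] at key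
  linarith

section b2

variable {sF sN : Fin 18} {cF cN : ℝ} (nF : sF ∉ V ∪ Dr) (nN : sN ∉ V ∪ Dr) (hNF : sN ≠ sF)

theorem b2_nonneg (hF : 0 ≤ cF) (hN : 0 ≤ cN) (hx : 0 ≤ x) (k : Fin 18) :
    0 ≤ b2 (ind (V ∪ Dr) x) sF sN cF cN k := by
  unfold b2
  split_ifs
  exacts [hF, hN, ind_nonneg hx k]

theorem b2_le_x (hF : cF ≤ x) (hN : cN ≤ x) (hx : 0 ≤ x) (k : Fin 18) :
    b2 (ind (V ∪ Dr) x) sF sN cF cN k ≤ x := by
  unfold b2
  split_ifs
  exacts [hF, hN, ind_le hx k]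

include nF nN in
theorem b2_V {i : Fin 18} (hi : i ∈ V) : b2 (ind (V ∪ Dr) x) sF sN cF cN i = x := by
  have hi' : i ∈ V ∪ Dr := mem_union_left _ hi
  have h2 : i ≠ sF := by intro h; rw [h] at hi'; exact nF hi'
  have h3 : i ≠ sN := by intro h; rw [h] at hi'; exact nN hi'
  rw [b2_o h2 h3, ind_mem hi']

theorem b2_out {i : Fin 18} (h2 : i ≠ sF) (h3 : i ≠ sN) (hV : i ∉ V)
    (hD : i ∉ Dr) : b2 (ind (V ∪ Dr) x) sF sN cF cN i = 0 := by
  rw [b2_o h2 h3, ind_notMem (by simp [hV, hD])]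

include nF nN hNF in
/-- legality of the boxes of a height link -/
theorem mem_b2 (hx : 0 ≤ x) (hy : 0 ≤ y) (hyx : y ≤ x) (hV1 : UpW Dr V1) (hV2 : UpW Dr V2)
    (vF : Val V1 V2 x y sF cF) (vN : Val V1 V2 x y sN cN)
    (hVV : ∀ i, i ≠ sF → i ≠ sN → (i ∈ V1 ↔ i ∈ V) ∧ (i ∈ V2 ↔ i ∈ V)) :
    b2 (ind (V ∪ Dr) x) sF sN cF cN ∈ CL Dr := by
  have key : ∀ i, i ∉ Dr → Val V1 V2 x y i (b2 (ind (V ∪ Dr) x) sF sN cF cN i) := by
    intro i hi
    by_cases h2 : i = sF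
    · subst h2; rw [b2_F]; exact vF
    by_cases h3 : i = sN
    · subst h3; rw [b2_N hNF]; exact vN
    obtain ⟨e1, e2⟩ := hVV i h2 h3
    by_cases hV : i ∈ V
    · rw [b2_V nF nN hV]; exact Or.inl ⟨e1.2 hV, rfl⟩
    · rw [b2_out h2 h3 hV hi]
      exact Or.inr (Or.inr ⟨fun h => hV (e1.1 h), fun h => hV (e2.1 h), rfl⟩)
  refine mem_two hV1 hV2 hy hyx (b2_nonneg (vF.nonneg hx hy) (vN.nonneg hx hy) hx)
    (fun i hi h => ?_) (fun i hi h h' => ?_) (fun i hi h h' => ?_)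
  · rcases key i hi with ⟨-, e⟩ | ⟨a, -⟩ | ⟨a, -⟩
    · exact e
    · exact absurd h a
    · exact absurd h a
  · rcases key i hi with ⟨a, -⟩ | ⟨-, -, e⟩ | ⟨-, a, -⟩
    · exact absurd a h
    · exact e
    · exact absurd h' a
  · rcases key i hi with ⟨a, -⟩ | ⟨-, a, -⟩ | ⟨-, -, e⟩
    · exact absurd a h
    · exact absurd a h'
    · exact e

end b2

/-- **the height link** of the flag slots -/
theorem PWin.ht (h : PWin W E kp un F Dr lam x) (hi : Ind Dr lam) (hx : 0 < x) (hD0 : 0 ∉ Dr)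
    {Ff q : Fin 14} {n : ℤ} {e : ℕ} (hn : n ≠ 0) (hF : Fin.natAdd 4 Ff ∉ Dr)
    (hq : Fin.natAdd 4 q ∉ Dr) (hd : HtDat (V ∪ Dr) O0 ((V ∪ Dr) \ {0, 1, 2, 3}) Ff q n e)
    (u1 : UpW Dr V) (u2 : UpW Dr (insert (Fin.natAdd 4 q) V))
    (u3 : UpW Dr (insert (Fin.natAdd 4 Ff) (insert (Fin.natAdd 4 q) V)))
    (hj : 0 ≤ j) (hjx : j ≤ x)
    (hv : lam (Function.update (ind (insert (Fin.natAdd 4 q) V) x) (Fin.natAdd 4 Ff) j) <
      lam (ind (insert (Fin.natAdd 4 q) V) x)) :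
    x - j ≤ lam (ind V x) - lam (ind (insert (Fin.natAdd 4 q) V) x) := by
  have h0 : 0 ∈ V := (mem_union.1 hd.A0).resolve_right hD0
  have nF := hd.AF
  have nN := hd.Aq
  have hNF := hd.ne
  have hx0 := hx.le
  have hFV : Fin.natAdd 4 Ff ∉ V := fun h => nF (mem_union_left _ h)
  have hqV : Fin.natAdd 4 q ∉ V := fun h => nN (mem_union_left _ h)
  have hwall := hd.wall
  set sF : Fin 18 := Fin.natAdd 4 Ff with hsF
  set sN : Fin 18 := Fin.natAdd 4 q with hsN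
  have hFq : sF ∉ insert sN V := by simp [hNF.symm, hFV]
  have m1 : ∀ {cF cN y : ℝ} {V1 V2 : Finset (Fin 18)}, 0 ≤ y → y ≤ x → UpW Dr V1 → UpW Dr V2 →
      Val V1 V2 x y sF cF → Val V1 V2 x y sN cN →
      (∀ i, i ≠ sF → i ≠ sN → (i ∈ V1 ↔ i ∈ V) ∧ (i ∈ V2 ↔ i ∈ V)) →
      b2 (ind (V ∪ Dr) x) sF sN cF cN ∈ CL Dr ∧
      b2 (ind (V ∪ Dr) x) sF sN cF cN ∈ W.legW := by
    intro cF cN y V1 V2 hy hyx hV1 hV2 vF vN hVV
    have m := mem_b2 nF nN hNF hx0 hy hyx hV1 hV2 vF vN hVV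
    exact ⟨m, h.leg' m (b2_nonneg (vF.nonneg hx0 hy) (vN.nonneg hx0 hy) hx0)
      (b2_le_x (vF.le hx0 hyx) (vN.le hx0 hyx) hx0) (b2_V nF nN h0)⟩
  have oq : ∀ i, i ≠ sF → i ≠ sN → (i ∈ insert sN V ↔ i ∈ V) := fun i _ h3 => by simp [h3]
  have oA : ∀ i, i ≠ sF → i ≠ sN → (i ∈ insert sF (insert sN V) ↔ i ∈ V) :=
    fun i h2 h3 => by simp [h2, h3]
  have adx : ∀ t, 0 ≤ t → t ≤ x → b2 (ind (V ∪ Dr) x) sF sN t x ∈ CL Dr ∧
      b2 (ind (V ∪ Dr) x) sF sN t x ∈ W.legW := fun t ht htx =>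
    m1 ht htx u2 u3 (Or.inr (Or.inl ⟨hFq, by simp, rfl⟩)) (Or.inl ⟨by simp, rfl⟩)
      (fun i h2 h3 => ⟨oq i h2 h3, oA i h2 h3⟩)
  have adg : ∀ t, 0 ≤ t → t ≤ x → b2 (ind (V ∪ Dr) x) sF sN t t ∈ CL Dr ∧
      b2 (ind (V ∪ Dr) x) sF sN t t ∈ W.legW := fun t ht htx =>
    m1 ht htx u1 u3 (Or.inr (Or.inl ⟨hFV, by simp, rfl⟩)) (Or.inr (Or.inl ⟨hqV, by simp, rfl⟩))
      (fun i h2 h3 => ⟨Iff.rfl, oA i h2 h3⟩)
  have mi : ∀ {V' : Finset (Fin 18)}, UpW Dr V' → ind V' x ∈ CL Dr := fun hV' => mem_ind hV' hx0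
  have e00 : lam (b2 (ind (V ∪ Dr) x) sF sN 0 0) = lam (ind V x) := by
    refine hi _ (adg 0 le_rfl hx0).1 _ (mi u1) fun i hi => ?_
    by_cases h2 : i = sF
    · subst h2; rw [b2_F, ind_notMem hFV]
    by_cases h3 : i = sN
    · subst h3; rw [b2_N hNF, ind_notMem hqV]
    by_cases hV : i ∈ V
    · rw [b2_V nF nN hV, ind_mem hV]
    · rw [b2_out h2 h3 hV hi, ind_notMem hV]
  have ejx : lam (b2 (ind (V ∪ Dr) x) sF sN j x) =
      lam (Function.update (ind (insert sN V) x) sF j) := by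
    refine hi _ (adx j hj hjx).1 _ (mem_upd u2 u3 hFq hj hjx) fun i hi => ?_
    by_cases h2 : i = sF
    · subst h2; rw [b2_F, Function.update_self]
    by_cases h3 : i = sN
    · subst h3; rw [b2_N hNF, Function.update_of_ne hNF, ind_mem (by simp)]
    by_cases hV : i ∈ V
    · rw [b2_V nF nN hV, Function.update_of_ne h2, ind_mem (by simp [hV])]
    · rw [b2_out h2 h3 hV hi, Function.update_of_ne h2, ind_notMem (by simp [h3, hV])]
  have e0x : lam (b2 (ind (V ∪ Dr) x) sF sN 0 x) = lam (ind (insert sN V) x) := by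
    refine hi _ (adx 0 le_rfl hx0).1 _ (mi u2) fun i hi => ?_
    by_cases h2 : i = sF
    · subst h2; rw [b2_F, ind_notMem hFq]
    by_cases h3 : i = sN
    · subst h3; rw [b2_N hNF, ind_mem (by simp)]
    by_cases hV : i ∈ V
    · rw [b2_V nF nN hV, ind_mem (by simp [hV])]
    · rw [b2_out h2 h3 hV hi, ind_notMem (by simp [h3, hV])]
  have hz : ∀ cF cN : ℝ, b2 (ind (V ∪ Dr) x) sF sN cF cN 0 = x := fun _ _ => b2_V nF nN h0
  have hbox : HtBox W (V ∪ Dr) O0 ((V ∪ Dr) \ {0, 1, 2, 3}) Ff q (ind (V ∪ Dr) x)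
      (fun _ => 0) x :=
    HtBox.of_zero h.S hx0 (ind_nonneg hx0) (fun s => (h.top s).ge)
      (fun s hs _ => ind_mem hs) (fun s hs _ _ _ => ind_notMem hs) (fun q' hq' => by
        have h1 : ∀ q' : Fin 14, Fin.natAdd 4 q' ∉ ({0, 1, 2, 3} : Finset (Fin 18)) := by decide
        exact Finset.mem_sdiff.2 ⟨hq', h1 q'⟩)
  have key := HtDat.pos hd h.ww h.ev h.mod hbox hx le_rfl le_rfl hj hjx
    (fun t ht htx => (adx t ht htx).2) (fun t ht htx => (adg t ht htx).2)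
    (OwnV.zero W E fun _ _ => le_rfl)
    (cHt_ok h.ww hwall hn (fun _ => h.kap) (Eventually.of_forall fun m => by
      have := h.tight sN hq [0, sF] hwall (fun s hs => by
        rcases List.mem_cons.1 hs with h1 | h1
        · rw [h1]; exact hD0
        · rw [List.mem_singleton.1 h1]; exact hF) m
      rw [this, List.map_cons, List.map_cons, List.map_nil, List.sum_cons, List.sum_cons,
        List.sum_nil, add_zero]))
    (by rw [h.nu' (hz _ _), h.nu' (hz _ _), ejx, e0x]; linarith)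
  rw [h.nu' (hz _ _), h.nu' (hz _ _), e00, e0x] at key
  linarith

/-- **the height link `c → A`**, base `z` -/
theorem PWin.htA (h : PWin W E kp un F Dr lam x) (hx : 0 < x) (hD0 : 0 ∉ Dr) (d1 : 1 ∉ Dr)
    (d2 : 2 ∉ Dr) (hj : 0 ≤ j) (hjx : j ≤ x)
    (hv : lam (Function.update (ind {2, 0} x) 1 j) < lam (ind {2, 0} x)) :
    x - j ≤ lam (ind {0} x) - lam (ind {2, 0} x) := by
  have hx0 := hx.le
  have u0 : UpW Dr ({0} : Finset (Fin 18)) := by
    have := up_insert0 (Dr := Dr) (W := ∅) (by intro k hk; simp at hk)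
    simpa using this
  have u2 : UpW Dr ({2, 0} : Finset (Fin 18)) := by
    intro k hk l hl hD
    rcases mem_insert.1 hk with e | e
    · subst e
      have e2 : mlW 2 = [[1, 0]] := by decide
      rw [e2] at hl
      rw [List.mem_singleton.1 hl]
      exact ⟨0, by simp, by simp⟩
    · rw [mem_singleton.1 e, mlW0] at hl
      exact absurd hl (List.not_mem_nil)
  have u3 : UpW Dr (insert 1 ({2, 0} : Finset (Fin 18))) := up_insert1 u2
  set b0 : Fin 18 → ℝ := fun _ => 0 with hb0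
  have hval : ∀ (t w : ℝ) (i : Fin 18), Function.update (b2 b0 1 2 t w) 0 x i =
      if i = 0 then x else if i = 1 then t else if i = 2 then w else 0 := by
    intro t w i
    rw [Function.update_apply]
    unfold b2
    rfl
  have hnn : ∀ t w : ℝ, 0 ≤ t → 0 ≤ w → ∀ k, 0 ≤ b2 b0 1 2 t w k := by
    intro t w ht hw k
    unfold b2
    split_ifs
    exacts [ht, hw, le_rfl]
  have hle : ∀ t w : ℝ, t ≤ x → w ≤ x → ∀ k, b2 b0 1 2 t w k ≤ x := by
    intro t w ht hw k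
    unfold b2
    split_ifs
    exacts [ht, hw, hx0]
  have hnn' : ∀ t w : ℝ, 0 ≤ t → 0 ≤ w → ∀ k, 0 ≤ Function.update (b2 b0 1 2 t w) 0 x k := by
    intro t w ht hw k
    rw [hval]
    split_ifs
    exacts [hx0, ht, hw, le_rfl]
  have mdx : ∀ t, 0 ≤ t → t ≤ x → Function.update (b2 b0 1 2 t x) 0 x ∈ CL Dr := by
    intro t ht htx
    refine mem_two u2 u3 ht htx (hnn' t x ht hx0) (fun i _ hi => ?_) (fun i _ hi hi' => ?_)
      fun i _ hi hi' => ?_
    · rw [hval]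
      rcases mem_insert.1 hi with e | e
      · subst e; rfl
      · rw [mem_singleton.1 e]; rfl
    · rw [hval]
      rcases mem_insert.1 hi' with e | e
      · subst e; rfl
      · exact absurd e hi
    · rw [hval]
      simp only [mem_insert, mem_singleton, not_or] at hi hi'
      rw [if_neg hi.2, if_neg hi'.1, if_neg hi.1]
  have mdg : ∀ t, 0 ≤ t → t ≤ x → Function.update (b2 b0 1 2 t t) 0 x ∈ CL Dr := by
    intro t ht htx
    refine mem_two u0 u3 ht htx (hnn' t t ht ht) (fun i _ hi => ?_) (fun i _ hi hi' => ?_)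
      fun i _ hi hi' => ?_
    · rw [hval, if_pos (mem_singleton.1 hi)]
    · rw [hval, if_neg (by simpa using hi)]
      simp only [mem_insert, mem_singleton] at hi hi'
      rcases hi' with e | e | e
      · rw [if_pos e]
      · subst e; rfl
      · exact absurd e hi
    · rw [hval]
      simp only [mem_insert, mem_singleton, not_or] at hi hi'
      rw [if_neg hi, if_neg hi'.1, if_neg hi'.2.1]
  have e0x : Function.update (b2 b0 1 2 0 x) 0 x = ind {2, 0} x := by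
    funext i
    rw [hval]
    by_cases e : i = 0
    · subst e; rw [if_pos rfl, ind_mem (by decide)]
    by_cases e1 : i = 1
    · subst e1; rw [if_neg (by decide), if_pos rfl, ind_notMem (by decide)]
    by_cases e2 : i = 2
    · subst e2; rw [if_neg (by decide), if_neg (by decide), if_pos rfl, ind_mem (by decide)]
    · rw [if_neg e, if_neg e1, if_neg e2, ind_notMem (by simp [e, e2])]
  have ejx : Function.update (b2 b0 1 2 j x) 0 x = Function.update (ind {2, 0} x) 1 j := by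
    funext i
    rw [hval]
    by_cases e : i = 0
    · subst e; rw [if_pos rfl, Function.update_of_ne (by decide), ind_mem (by decide)]
    by_cases e1 : i = 1
    · subst e1; rw [if_neg (by decide), if_pos rfl, Function.update_self]
    by_cases e2 : i = 2
    · subst e2
      rw [if_neg (by decide), if_neg (by decide), if_pos rfl, Function.update_of_ne (by decide),
        ind_mem (by decide)]
    · rw [if_neg e, if_neg e1, if_neg e2, Function.update_of_ne e1, ind_notMem (by simp [e, e2])]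
  have e00 : Function.update (b2 b0 1 2 0 0) 0 x = ind {0} x := by
    funext i
    rw [hval]
    by_cases e : i = 0
    · subst e; rw [if_pos rfl, ind_mem (by decide)]
    · rw [if_neg e, ind_notMem (by simpa using e)]
      split_ifs <;> rfl
  have key := baseA h.ww h.ev h.mod hx le_rfl hj hjx (fun s => (h.top s).ge) (b := b0)
    (fun _ => le_rfl) (Eventually.of_forall fun m => by
      have := h.tight 2 d2 [1, 0] (by decide) (fun s hs => by
        rcases List.mem_cons.1 hs with h1 | h1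
        · rw [h1]; exact d1
        · rw [List.mem_singleton.1 h1]; exact hD0) m
      rw [this, List.map_cons, List.map_cons, List.map_nil, List.sum_cons, List.sum_cons,
        List.sum_nil, add_zero])
    (fun t ht htx => h.leg _ (mdx t ht htx) (hnn t x ht hx0) (hle t x htx le_rfl))
    (fun t ht htx => h.leg _ (mdg t ht htx) (hnn t t ht ht) (hle t t htx htx))
    (by rw [h.nu, h.nu, e0x, ejx]; linarith)
  rw [h.nu, h.nu, e00, e0x] at key
  linarith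

end use

end Crest.Agent.R136.Pin851
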