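import Crest.Agent.R136.Crc_544
import Crest.Agent.R136.PinX_851

/-!
# R136, specials of the thin pins, rows (helper544), part 4: the flags of a window

`PWin` : all walls are tight, so the sides of the window are units (`vv`) off the slot `4`;
`PP n k l` : flag of the line `l` at the height `k`, normalised with the flag of one line alive
at this height.
-/

set_option autoImplicit false
set_option linter.unusedSectionVars false
set_option linter.unusedVariables false

open Filter Topology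

namespace Crest.Agent.R136.Cr544

open Finset Crest.Agent.R136.NetW191 Crest.Agent.R136.EvW938 Crest.Agent.R136.PrW464
open Crest.Agent.R136.Net191 Crest.Agent.R136.Qg926 Crest.Agent.R136.Pin851
open Crest.Agent.R136.Gf356
open Crest.Agent.R138.Ex926 (Base U)

theorem GrU.times {a b : Fin 18 → ℝ} (ha : GrU a) (hb : GrU b) : GrU fun s => a s * b s where
  pos s := mul_pos (ha.pos s) (hb.pos s)
  mul k l hl := by rw [List.prod_map_mul, ha.mul k l hl, hb.mul k l hl]

theorem GrU.dv {a b : Fin 18 → ℝ} (ha : GrU a) (hb : GrU b) : GrU fun s => a s / b s where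
  pos s := div_pos (ha.pos s) (hb.pos s)
  mul k l hl := by rw [list_div, ha.mul k l hl, hb.mul k l hl]

variable {ι : ℕ → Type*} [∀ n, DecidableEq (ι n)]

/-- constants of the units -/
noncomputable def th (W : Wnd 18 ι) (s : Fin 18) : ℝ := unW (W.kap 0) 1 1 s

/-- weights -/
noncomputable def gw (W : Wnd 18 ι) (n : ℕ) (s : Fin 18) : ℝ :=
  grW (W.X n 0) (W.X n 1) (W.X n 5 + 3 * W.X n 0 + 4 * W.X n 1) s

/-- units -/
noncomputable def vv (W : Wnd 18 ι) (u : ℕ → Fin 18 → ℝ) (n : ℕ) (s : Fin 18) : ℝ :=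
  th W s * (W.B.d n ^ gw W n s / u n s)

/-- constants of a slot -/
noncomputable def tS (W : Wnd 18 ι) (s : Fin 18) : ℝ :=
  W.K0 / th W s + W.kap s / th W s + th W s / W.kap s + CW W.K0 / th W s + CW W.K0 / W.kap s +
    W.K0 / W.kap s

/-- constant of the evolution of the slots `5`, `7` -/
noncomputable def kB (W : Wnd 18 ι) : ℝ :=
  2 * (([0, 4].map W.kap).prod / W.kap 5 * (W.K0 / W.kap 0)) +
    ([0, 0, 4].map W.kap).prod / W.kap 7 * (W.K0 / W.kap 0) ^ 2 +
    ([0, 5].map W.kap).prod / W.kap 7 * (W.K0 / W.kap 0)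

/-- the constant -/
noncomputable def KK (W : Wnd 18 ι) : ℝ := 2 + 4 * ∑ s, tS W s + kB W

open Classical in
/-- a line alive at the height `k` -/
noncomputable def lk (W : Wnd 18 ι) (E : ∀ n, Finset (ι n)) (n k : ℕ) : ℕ :=
  if h : ∃ l, (l, k) ∈ (W.cfg0 n (E n)).I then h.choose else 0

/-- **the normalised flags** -/
noncomputable def PP (W : Wnd 18 ι) (E : ∀ n, Finset (ι n)) (κ : ℕ → ℝ) (u : ℕ → Fin 18 → ℝ)
    (f : ∀ n, ι n → FW) (n k l : ℕ) : FW :=
  nf (κ n) (vv W u n) (f n (W.rep n (lk W E n k) k)) (f n (W.rep n l k))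

section

variable {W : Wnd 18 ι} {E : ∀ n, Finset (ι n)} {κ : ℕ → ℝ} {u : ℕ → Fin 18 → ℝ}
  {f : ∀ n, ι n → FW} {lam : (Fin 18 → ℝ) → ℝ} {x : ℝ}

theorem lk_mem {n k l : ℕ} (h : (l, k) ∈ (W.cfg0 n (E n)).I) :
    (lk W E n k, k) ∈ (W.cfg0 n (E n)).I := by
  have h' : ∃ l, (l, k) ∈ (W.cfg0 n (E n)).I := ⟨l, h⟩
  unfold lk
  rw [dif_pos h']
  exact h'.choose_spec

theorem gru_th (hW : PWin W E κ u f {4} lam x) : GrU (th W) :=
  GrU.unW (hW.ww.ok.kap 0) one_pos one_pos

theorem gru_v (hW : PWin W E κ u f {4} lam x) (n : ℕ) : GrU (vv W u n) := by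
  have h2 : GrU (fun s => W.B.d n ^ gw W n s) := by
    have h := GrU.unW (Real.rpow_pos_of_pos (W.B.pos n) (W.X n 0))
      (Real.rpow_pos_of_pos (W.B.pos n) (W.X n 1))
      (Real.rpow_pos_of_pos (W.B.pos n) (W.X n 5 + 3 * W.X n 0 + 4 * W.X n 1))
    have e : unW (W.B.d n ^ W.X n 0) (W.B.d n ^ W.X n 1)
      (W.B.d n ^ (W.X n 5 + 3 * W.X n 0 + 4 * W.X n 1)) = fun s => W.B.d n ^ gw W n s :=
      funext fun s => unW_rpow (W.B.pos n) _ _ _ s
    rwa [e] at h
  exact GrU.times (gru_th hW) (GrU.dv h2 (hW.ww.hl n))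

/-- all sides off the slot `4` are natural -/
theorem X_eq (hW : PWin W E κ u f {4} lam x) (n : ℕ) : ∀ s, s ≠ 4 → W.X n s = gw W n s := by
  have key : ∀ k, k ≠ 4 → ∀ l ∈ mlW k, (∀ s ∈ l, s ≠ 4) → (∀ s ∈ l, W.X n s = gw W n s) →
      W.X n k = gw W n k := by
    intro k hk l hl h4 hs
    rw [hW.tight k (by simpa using hk) l hl (fun s hs => by simpa using h4 s hs) n]
    have : l.map (W.X n) = l.map (gw W n) := List.map_congr_left hs
    rw [this]
    exact grW_list _ _ _ k l hl
  have x0 : W.X n 0 = gw W n 0 := by simp [gw, grW, wz, wc, wn]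
  have x1 : W.X n 1 = gw W n 1 := by simp [gw, grW, wz, wc, wn]
  have x5 : W.X n 5 = gw W n 5 := by
    simp [gw, grW, wz, wc, wn]; ring
  have x2 := key 2 (by decide) [1, 0] (by decide) (by decide) (by
    simp only [List.forall_mem_cons, List.not_mem_nil, false_implies, implies_true, and_true]
    exact ⟨x1, x0⟩)
  have x3 := key 3 (by decide) [1, 2] (by decide) (by decide) (by
    simp only [List.forall_mem_cons, List.not_mem_nil, false_implies, implies_true, and_true]
    exact ⟨x1, x2⟩)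
  have x6 := key 6 (by decide) [1, 5] (by decide) (by decide) (by
    simp only [List.forall_mem_cons, List.not_mem_nil, false_implies, implies_true, and_true]
    exact ⟨x1, x5⟩)
  have x7 := key 7 (by decide) [0, 5] (by decide) (by decide) (by
    simp only [List.forall_mem_cons, List.not_mem_nil, false_implies, implies_true, and_true]
    exact ⟨x0, x5⟩)
  have x8 := key 8 (by decide) [1, 6] (by decide) (by decide) (by
    simp only [List.forall_mem_cons, List.not_mem_nil, false_implies, implies_true, and_true]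
    exact ⟨x1, x6⟩)
  have x9 := key 9 (by decide) [2, 5] (by decide) (by decide) (by
    simp only [List.forall_mem_cons, List.not_mem_nil, false_implies, implies_true, and_true]
    exact ⟨x2, x5⟩)
  have x10 := key 10 (by decide) [3, 5] (by decide) (by decide) (by
    simp only [List.forall_mem_cons, List.not_mem_nil, false_implies, implies_true, and_true]
    exact ⟨x3, x5⟩)
  have x11 := key 11 (by decide) [3, 5] (by decide) (by decide) (by
    simp only [List.forall_mem_cons, List.not_mem_nil, false_implies, implies_true, and_true]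
    exact ⟨x3, x5⟩)
  have x12 := key 12 (by decide) [3, 1, 5] (by decide) (by decide) (by
    simp only [List.forall_mem_cons, List.not_mem_nil, false_implies, implies_true, and_true]
    exact ⟨x3, x1, x5⟩)
  have x13 := key 13 (by decide) [3, 1, 1, 5] (by decide) (by decide) (by
    simp only [List.forall_mem_cons, List.not_mem_nil, false_implies, implies_true, and_true]
    exact ⟨x3, x1, x1, x5⟩)
  have x14 := key 14 (by decide) [2, 2, 5] (by decide) (by decide) (by
    simp only [List.forall_mem_cons, List.not_mem_nil, false_implies, implies_true, and_true]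
    exact ⟨x2, x2, x5⟩)
  have x15 := key 15 (by decide) [2, 3, 5] (by decide) (by decide) (by
    simp only [List.forall_mem_cons, List.not_mem_nil, false_implies, implies_true, and_true]
    exact ⟨x2, x3, x5⟩)
  have x16 := key 16 (by decide) [2, 3, 1, 5] (by decide) (by decide) (by
    simp only [List.forall_mem_cons, List.not_mem_nil, false_implies, implies_true, and_true]
    exact ⟨x2, x3, x1, x5⟩)
  have x17 := key 17 (by decide) [2, 2, 3, 5] (by decide) (by decide) (by
    simp only [List.forall_mem_cons, List.not_mem_nil, false_implies, implies_true, and_true]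
    exact ⟨x2, x2, x3, x5⟩)
  intro s hs
  fin_cases s
  · exact x0
  · exact x1
  · exact x2
  · exact x3
  · exact absurd rfl hs
  · exact x5
  · exact x6
  · exact x7
  · exact x8
  · exact x9
  · exact x10
  · exact x11
  · exact x12
  · exact x13
  · exact x14
  · exact x15
  · exact x16
  · exact x17

theorem v_eq (hW : PWin W E κ u f {4} lam x) (n : ℕ) {s : Fin 18} (hs : s ≠ 4) :
    vv W u n s = th W s * sd W u n s := by
  unfold vv sd
  rw [X_eq hW n s hs]

theorem v_ge (hW : PWin W E κ u f {4} lam x) {n : ℕ} (g : W.Good n) (s : Fin 18) :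
    th W s * sd W u n s ≤ vv W u n s := by
  by_cases hs : s = 4
  · subst hs
    have h1 : sd W u n 0 * sd W u n 4 ≤ sd W u n 5 := by
      simpa using (hW.ww.sides g).wall 5 [0, 4] (by decide)
    have h2 : vv W u n 0 * vv W u n 4 = vv W u n 5 := by
      simpa using (gru_v hW n).mul 5 [0, 4] (by decide)
    have h3 : th W 0 * th W 4 = th W 5 := by
      simpa using (gru_th hW).mul 5 [0, 4] (by decide)
    have e0 := v_eq hW n (s := 0) (by decide)
    have e5 := v_eq hW n (s := 5) (by decide)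
    have p0 := (gru_v hW n).pos 0
    have p5 := (gru_th hW).pos 5
    refine le_of_mul_le_mul_left ?_ p0
    rw [h2, e0, e5, ← h3]
    have := mul_le_mul_of_nonneg_left h1 p5.le
    rw [← h3] at this
    linarith
  · exact (v_eq hW n hs).ge

/-! ### the constants -/

theorem tS_parts (hW : PWin W E κ u f {4} lam x) (s : Fin 18) : 0 ≤ W.K0 / th W s ∧
    0 ≤ W.kap s / th W s ∧ 0 ≤ th W s / W.kap s ∧ 0 ≤ CW W.K0 / th W s ∧
    0 ≤ CW W.K0 / W.kap s ∧ 0 ≤ W.K0 / W.kap s := by
  have h1 := (gru_th hW).pos s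
  have h2 := hW.ww.ok.kap s
  have h3 := hW.ww.ok.K0_one
  have h4 : 0 ≤ W.K0 := by linarith
  have h5 : 0 ≤ CW W.K0 := by unfold CW; positivity
  refine ⟨?_, ?_, ?_, ?_, ?_, ?_⟩ <;> positivity

theorem kB_nonneg (hW : PWin W E κ u f {4} lam x) : 0 ≤ kB W := by
  have k0 := hW.ww.ok.kap 0
  have k4 := hW.ww.ok.kap 4
  have k5 := hW.ww.ok.kap 5
  have k7 := hW.ww.ok.kap 7
  have h3 := hW.ww.ok.K0_one
  have h4 : 0 ≤ W.K0 := by linarith
  unfold kB
  simp only [List.map_cons, List.map_nil, List.prod_cons, List.prod_nil, mul_one]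
  positivity

theorem tS_le (hW : PWin W E κ u f {4} lam x) (s : Fin 18) : 0 ≤ tS W s ∧
    2 + 4 * tS W s + kB W ≤ KK W := by
  have h0 : ∀ s, 0 ≤ tS W s := fun s => by
    obtain ⟨a1, a2, a3, a4, a5, a6⟩ := tS_parts hW s
    unfold tS; linarith
  have h1 := Finset.single_le_sum (f := tS W) (fun s _ => h0 s) (Finset.mem_univ s)
  refine ⟨h0 s, ?_⟩
  unfold KK
  linarith

/-- what the constant dominates -/
theorem KK_ge (hW : PWin W E κ u f {4} lam x) (s : Fin 18) : 2 ≤ KK W ∧ W.K0 / th W s ≤ KK W ∧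
    W.kap s / th W s ≤ KK W ∧ th W s / W.kap s ≤ KK W ∧ CW W.K0 / th W s ≤ KK W ∧
    2 * (W.K0 / W.kap s) ≤ KK W ∧ 1 + kB W + CW W.K0 / W.kap s ≤ KK W := by
  obtain ⟨a1, a2, a3, a4, a5, a6⟩ := tS_parts hW s
  obtain ⟨h0, h1⟩ := tS_le hW s
  have hb := kB_nonneg hW
  unfold tS at h1
  refine ⟨?_, ?_, ?_, ?_, ?_, ?_, ?_⟩ <;> linarith

/-! ### coordinates in units -/

variable {n : ℕ}

/-- from raw to units -/
theorem to_v (hW : PWin W E κ u f {4} lam x) (g : W.Good n) {s : Fin 18} {a D : ℝ}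
    (h : |a| ≤ D * sd W u n s) (hD : 0 ≤ D) : |a / vv W u n s| ≤ D / th W s := by
  have hv := (gru_v hW n).pos s
  have ht := (gru_th hW).pos s
  rw [abs_div, abs_of_pos hv, div_le_div_iff₀ hv ht]
  have := mul_le_mul_of_nonneg_left (v_ge hW g s) hD
  have h2 := mul_le_mul_of_nonneg_right h ht.le
  linarith

theorem co_bd (hW : PWin W E κ u f {4} lam x) (g : W.Good n) {X Y : ι n} (hX : X ∈ W.Cl n)
    (hY : Y ∈ W.Cl n) (s : Fin 18) : |coW (κ n) (f n X) (f n Y) s / vv W u n s| ≤ KK W :=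
  (to_v hW g (hW.ww.bnd g hX hY s) (by have := hW.ww.ok.K0_one; linarith)).trans
    (KK_ge hW s).2.1

/-- coordinates in units and normalised coordinates -/
theorem co_crd (hW : PWin W E κ u f {4} lam x) (g : W.Good n) {X Y : ι n} (hX : X ∈ W.Cl n)
    (hY : Y ∈ W.Cl n) (s : Fin 18) :
    |coW (κ n) (f n X) (f n Y) s / vv W u n s| ≤ KK W * |W.crd n X Y s| := by
  have hk := hW.ww.ok.kap s
  have h1 : |coW (κ n) (f n X) (f n Y) s| ≤ (W.kap s * |W.crd n X Y s|) * sd W u n s := by
    rw [hW.ww.crd_eq g hX hY]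
    exact hW.ww.raw_le le_rfl
  refine (to_v hW g h1 (by positivity)).trans ?_
  have h2 := mul_le_mul_of_nonneg_right (KK_ge hW s).2.2.1 (abs_nonneg (W.crd n X Y s))
  refine le_trans (le_of_eq ?_) h2
  ring

/-- backwards, off the slot `4` -/
theorem crd_co (hW : PWin W E κ u f {4} lam x) (g : W.Good n) {X Y : ι n} (hX : X ∈ W.Cl n)
    (hY : Y ∈ W.Cl n) {s : Fin 18} (hs : s ≠ 4) :
    |W.crd n X Y s| ≤ KK W * |coW (κ n) (f n X) (f n Y) s / vv W u n s| := by
  have hk := hW.ww.ok.kap s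
  have ht := (gru_th hW).pos s
  have hsd := hW.ww.sd_pos n s
  have h1 : W.crd n X Y s = th W s / W.kap s *
      (coW (κ n) (f n X) (f n Y) s / vv W u n s) := by
    rw [hW.ww.crd_eq g hX hY, v_eq hW n hs]
    unfold un
    field_simp
  rw [h1, abs_mul, abs_of_pos (div_pos ht hk)]
  exact mul_le_mul_of_nonneg_right (KK_ge hW s).2.2.2.1 (abs_nonneg _)

/-- the height slot in units -/
theorem co_zero (hW : PWin W E κ u f {4} lam x) (g : W.Good n) {X Y : ι n} (hX : X ∈ W.Cl n)
    (hY : Y ∈ W.Cl n) : coW (κ n) (f n X) (f n Y) 0 / vv W u n 0 = W.crd n X Y 0 := by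
  have hk := hW.ww.ok.kap 0
  have hsd := hW.ww.sd_pos n 0
  have e : th W 0 = W.kap 0 := unW_zero _ _ _
  rw [hW.ww.crd_eq g hX hY, v_eq hW n (by decide), e]
  unfold un
  field_simp

/-! ### the flags -/

theorem PP_co (hW : PWin W E κ u f {4} lam x) (k l l' : ℕ) (s : Fin 18) :
    coW (κ n) (PP W E κ u f n k l) (PP W E κ u f n k l') s =
      coW (κ n) (f n (W.rep n l k)) (f n (W.rep n l' k)) s / vv W u n s :=
  coW_nf (gru_v hW n) _ _ _ _ _

theorem nf_self (κ : ℝ) (hκ : |κ| ≤ 1) (v : Fin 18 → ℝ) (f0 : FW) :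
    (nf κ v f0 f0).g = 0 ∧ (nf κ v f0 f0).G = 0 := by
  have h : cn κ v f0 f0 = 0 := by
    funext s
    unfold cn
    rw [coW_refl κ hκ, zero_div, Pi.zero_apply]
  constructor
  · change frm (cn κ v f0 f0) = 0
    rw [h]; rfl
  · change tr κ (iv κ (frm (cn κ v f0 f0))) (flg (cn κ v f0 f0)) = 0
    have : flg (cn κ v f0 f0) = 0 := by rw [h]; rfl
    rw [this]
    have h1 := tr_smul κ 0 (iv κ (frm (cn κ v f0 f0))) 0
    simpa using h1

theorem PP_g (hW : PWin W E κ u f {4} lam x) (k l : ℕ) (i : Fin 4) :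
    (PP W E κ u f n k l).g i = coW (κ n) (f n (W.rep n (lk W E n k) k)) (f n (W.rep n l k))
      (Fin.castAdd 14 i) / vv W u n (Fin.castAdd 14 i) := rfl

theorem PP_G (hW : PWin W E κ u f {4} lam x) (k l : ℕ) (q : Fin 14) :
    (PP W E κ u f n k l).G q = -(coW (κ n) (f n (W.rep n l k)) (f n (W.rep n (lk W E n k) k))
      (Fin.natAdd 4 q) / vv W u n (Fin.natAdd 4 q)) := by
  have h := PP_co (E := E) (κ := κ) (f := f) (n := n) hW k l (lk W E n k) (Fin.natAdd 4 q)
  rw [← h, coW_right]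
  obtain ⟨h1, h2⟩ := nf_self (κ n) (hW.ww.hκ n) (vv W u n) (f n (W.rep n (lk W E n k) k))
  have e1 : (PP W E κ u f n k (lk W E n k)).g = 0 := h1
  have e2 : (PP W E κ u f n k (lk W E n k)).G = 0 := h2
  rw [e1, e2, tr_id, zero_sub, Pi.neg_apply, neg_neg]

end

end Crest.Agent.R136.Cr544
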