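import Crest.Agent.R136.Crd_544

/-!
# R136, specials of the thin pins, rows (helper544), part 5: pairs and evolution in a window
-/

set_option autoImplicit false
set_option linter.unusedSectionVars false
set_option linter.unusedVariables false

open Filter Topology

namespace Crest.Agent.R136.Cr544

open Finset Crest.Agent.R136.NetW191 Crest.Agent.R136.EvW938 Crest.Agent.R136.PrW464
open Crest.Agent.R136.Net191 Crest.Agent.R136.Qg926 Crest.Agent.R136.Pin851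
open Crest.Agent.R136.Gf356
open Crest.Agent.R138.Ex926 (Base U)

theorem mm {x y a b : ℝ} (h1 : |x| ≤ a) (h2 : |y| ≤ b) : |x * y| ≤ a * b := by
  rw [abs_mul]; exact mul_le_mul h1 h2 (abs_nonneg _) ((abs_nonneg _).trans h1)

/-! ### crude bounds -/

/-- a bounded flag -/
structure Bn (κ K : ℝ) (P : FW) : Prop where
  hκ : |κ| ≤ 1
  K1 : 1 ≤ K
  g : ∀ i, |P.g i| ≤ K
  G : ∀ q, |P.G q| ≤ K

section crude

variable {κ K : ℝ} {P : FW} (H : Bn κ K P)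

include H

theorem Bn.K2 : K ≤ K ^ 2 ∧ K ^ 2 ≤ K ^ 4 ∧ K ^ 3 ≤ K ^ 4 ∧ 1 ≤ K ^ 2 := by
  have := H.K1
  refine ⟨by nlinarith, pow_le_pow_right₀ this (by norm_num),
    pow_le_pow_right₀ this (by norm_num), one_le_pow₀ this⟩

theorem Bn.Y : |fY P| ≤ 3 * K := by
  unfold fY
  rw [abs_mul, abs_of_pos (by norm_num : (0:ℝ) < 3)]
  exact mul_le_mul_of_nonneg_left (H.G 2) (by norm_num)

theorem Bn.κ2 : |2 * κ| ≤ 2 := by
  rw [abs_mul, abs_two]; linarith [H.hκ]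

theorem Bn.κ4 : |4 * κ| ≤ 4 := by
  rw [abs_mul, abs_of_pos (by norm_num : (0:ℝ) < 4)]; linarith [H.hκ]

theorem Bn.B : |fB κ P| ≤ 3 * K ^ 2 := by
  unfold fB
  have h1 := mm H.κ2 (mm (H.g 1) (H.g 2))
  have h2 := abs_add_le (P.g 3) (2 * κ * (P.g 1 * P.g 2))
  have h3 := H.g 3
  have h4 := H.K2.1
  nlinarith

theorem Bn.Q : |fQ P| ≤ 6 * K ^ 2 := by
  unfold fQ
  have h1 : |4 * (P.g 2 * P.G 5)| ≤ 4 * (K * K) :=
    mm (by rw [abs_of_pos (by norm_num : (0:ℝ) < 4)]) (mm (H.g 2) (H.G 5))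
  have h5 : |2 * P.G 10| ≤ 2 * K := mm (by rw [abs_two]) (H.G 10)
  have h2 := abs_add_le (2 * P.G 10) (4 * (P.g 2 * P.G 5))
  have h4 := H.K2.1
  nlinarith

theorem Bn.kk : |fK κ P| ≤ 6 * K ^ 2 := by
  unfold fK
  have h1 := mm H.κ4 (mm (H.g 1) (H.G 5))
  have h5 : |2 * P.G 6| ≤ 2 * K := mm (by rw [abs_two]) (H.G 6)
  have h2 := abs_sub (2 * P.G 6) (4 * κ * (P.g 1 * P.G 5))
  have h4 := H.K2.1
  nlinarith

theorem Bn.pp : |fP κ P| ≤ 3 * K ^ 2 := by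
  unfold fP
  have h1 := mm H.κ2 (mm (H.g 1) (H.G 10))
  have h2 := abs_sub (P.G 11) (2 * κ * (P.g 1 * P.G 10))
  have h3 := H.G 11
  have h4 := H.K2.1
  nlinarith

/-- the big row of the positions -/
theorem Bn.pos : |fP κ P + κ * P.g 2 ^ 2 * fY P + P.g 2 * fK κ P + κ * (P.g 1 * fQ P)| ≤
    18 * K ^ 4 := by
  obtain ⟨k1, k2, k3, k4⟩ := H.K2
  have a1 := H.pp
  have a2 : |κ * P.g 2 ^ 2 * fY P| ≤ 1 * (K * K) * (3 * K) := by
    have h := mm (mm H.hκ (mm (H.g 2) (H.g 2))) H.Y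
    rwa [← sq] at h
  have a3 := mm (H.g 2) H.kk
  have a4 := mm H.hκ (mm (H.g 1) H.Q)
  have b1 := abs_add_le (fP κ P + κ * P.g 2 ^ 2 * fY P + P.g 2 * fK κ P) (κ * (P.g 1 * fQ P))
  have b2 := abs_add_le (fP κ P + κ * P.g 2 ^ 2 * fY P) (P.g 2 * fK κ P)
  have b3 := abs_add_le (fP κ P) (κ * P.g 2 ^ 2 * fY P)
  have e1 : 1 * (K * K) * (3 * K) = 3 * K ^ 3 := by ring
  have e2 : K * (6 * K ^ 2) = 6 * K ^ 3 := by ring
  rw [e1] at a2
  rw [e2] at a3 a4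
  linarith

/-- the big row of the velocities -/
theorem Bn.vel : |fP κ P + fB κ P * P.G 5| ≤ 18 * K ^ 4 := by
  obtain ⟨k1, k2, k3, k4⟩ := H.K2
  have a1 := H.pp
  have a2 := mm H.B (H.G 5)
  have b1 := abs_add_le (fP κ P) (fB κ P * P.G 5)
  have e1 : 3 * K ^ 2 * K = 3 * K ^ 3 := by ring
  rw [e1] at a2
  linarith [pow_nonneg (zero_le_one.trans H.K1) 4]

/-- the row of the sheet -/
theorem Bn.sheet : |fK κ P + 4 * κ * P.g 1 * P.G 5 + 2 * κ * P.g 2 * fY P| ≤ 18 * K ^ 4 := by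
  obtain ⟨k1, k2, k3, k4⟩ := H.K2
  have a1 := H.kk
  have a2 := mm (mm H.κ4 (H.g 1)) (H.G 5)
  have a3 := mm (mm H.κ2 (H.g 2)) H.Y
  have b1 := abs_add_le (fK κ P + 4 * κ * P.g 1 * P.G 5) (2 * κ * P.g 2 * fY P)
  have b2 := abs_add_le (fK κ P) (4 * κ * P.g 1 * P.G 5)
  have e1 : 4 * K * K = 4 * K ^ 2 := by ring
  have e2 : 2 * K * (3 * K) = 6 * K ^ 2 := by ring
  rw [e1] at a2
  rw [e2] at a3
  linarith [pow_nonneg (zero_le_one.trans H.K1) 4]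

theorem Bn.low : |P.g 2| ≤ 18 * K ^ 4 ∧ |P.G 5| ≤ 18 * K ^ 4 ∧ |fQ P| ≤ 18 * K ^ 4 ∧
    |P.g 1| ≤ 18 * K ^ 4 ∧ |fB κ P| ≤ 18 * K ^ 4 ∧ |fY P| ≤ 18 * K ^ 4 ∧
    |fK κ P| ≤ 18 * K ^ 4 := by
  obtain ⟨k1, k2, k3, k4⟩ := H.K2
  have := H.K1
  have h1 := H.g 2
  have h2 := H.G 5
  have h3 := H.Q
  have h4 := H.g 1
  have h5 := H.B
  have h6 := H.Y
  have h7 := H.kk
  refine ⟨?_, ?_, ?_, ?_, ?_, ?_, ?_⟩ <;> linarith

end crude

theorem crude2 {a b c : ℝ} (h1 : |a| ≤ c) (h2 : |b| ≤ c) : |a - b| ≤ 2 * c := by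
  have := abs_sub a b; linarith

/-! ### the evolution of the slots -/

theorem evoW_flag (κ : ℝ) (a b : Fin 18 → ℝ) (q : Fin 14) :
    evoW κ {0} a b (Fin.natAdd 4 q) = tr κ (sh (a 0)) (flg b) q := by
  have hq : ∀ q : Fin 14, (Fin.natAdd 4 q : Fin 18) ∉ ({0} : Finset (Fin 18)) := by decide
  have e1 : offS {0} (flg b) = flg b := funext fun q => if_neg (hq q)
  have e2 : onS {0} (flg a) = 0 := funext fun q => if_neg (hq q)
  have e3 : tr κ (frE κ (a 0) b) 0 = 0 := by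
    have h1 := tr_smul κ 0 (frE κ (a 0) b) 0
    simpa using h1
  have e4 : evoW κ {0} a b (Fin.natAdd 4 q) =
      (tr κ (sh (a 0)) (offS {0} (flg b)) - tr κ (frE κ (a 0) b) (onS {0} (flg a))) q :=
    Fin.append_right _ _ _
  rw [e4, e1, e2, e3, sub_zero]

theorem evoW4 (κ : ℝ) (a b : Fin 18 → ℝ) : evoW κ {0} a b 4 = b 4 := by
  have h := evoW_flag κ a b 0
  rw [tr0] at h
  exact h

theorem evoW5 (κ : ℝ) (a b : Fin 18 → ℝ) : evoW κ {0} a b 5 = b 5 + 2 * a 0 * b 4 := by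
  have h := evoW_flag κ a b 1
  rw [tr1] at h
  exact h

theorem evoW7 (κ : ℝ) (a b : Fin 18 → ℝ) :
    evoW κ {0} a b 7 = b 7 + a 0 ^ 2 * b 4 + a 0 * b 5 := by
  have h := evoW_flag κ a b 3
  rw [tr3] at h
  exact h

theorem evoW9 (κ : ℝ) (a b : Fin 18 → ℝ) : evoW κ {0} a b 9 = b 9 + a 0 * b 6 := by
  have h := evoW_flag κ a b 5
  rw [tr_sh5] at h
  exact h

variable {ι : ℕ → Type*} [∀ n, DecidableEq (ι n)]

section

variable {W : Wnd 18 ι} {E : ∀ n, Finset (ι n)} {κ : ℕ → ℝ} {u : ℕ → Fin 18 → ℝ}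
  {f : ∀ n, ι n → FW} {lam : (Fin 18 → ℝ) → ℝ} {x : ℝ} {n : ℕ}

theorem evoC4 (hW : PWin W E κ u f {4} lam x) (a b : Fin 18 → ℝ) :
    evoC W κ u n a b 4 = b 4 := by
  have := (hW.ww.un_pos n 4).ne'
  unfold evoC
  rw [hW.S, evoW4]
  field_simp

theorem evoC5 (hW : PWin W E κ u f {4} lam x) (a b : Fin 18 → ℝ) :
    evoC W κ u n a b 5 = b 5 + 2 * (cfl W u n [0, 4] 5 * (a 0 * b 4)) := by
  have := (hW.ww.un_pos n 5).ne'
  unfold evoC cfl
  rw [hW.S, evoW5]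
  simp only [List.map_cons, List.map_nil, List.prod_cons, List.prod_nil, mul_one]
  field_simp

theorem evoC7 (hW : PWin W E κ u f {4} lam x) (a b : Fin 18 → ℝ) :
    evoC W κ u n a b 7 = b 7 + cfl W u n [0, 0, 4] 7 * (a 0 ^ 2 * b 4) +
      cfl W u n [0, 5] 7 * (a 0 * b 5) := by
  have := (hW.ww.un_pos n 7).ne'
  unfold evoC cfl
  rw [hW.S, evoW7]
  simp only [List.map_cons, List.map_nil, List.prod_cons, List.prod_nil, mul_one]
  field_simp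

/-- **the slots `Y², BY, BB` at another height** -/
theorem base_slot (hW : PWin W E κ u f {4} lam x) (g : W.Good n) (hE : E n ⊆ W.Cl n)
    {k k' l l' : ℕ} (h1 : (l, k) ∈ (W.cfg0 n (E n)).I) (h2 : (l, k') ∈ (W.cfg0 n (E n)).I)
    (h3 : (l', k) ∈ (W.cfg0 n (E n)).I) (h4 : (l', k') ∈ (W.cfg0 n (E n)).I) {δ : ℝ}
    (hδ : W.B'.d n ^ x ≤ δ)
    (hs : ∀ s : Fin 18, s = 4 ∨ s = 5 ∨ s = 7 → |(W.cfg0 n (E n)).rel k l l' s| ≤ δ) :
    ∀ s : Fin 18, s = 4 ∨ s = 5 ∨ s = 7 → |(W.cfg0 n (E n)).rel k' l l' s| ≤ KK W * δ := by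
  have hS : ∀ s : Fin 18, s ≠ 0 → s ∉ W.S := fun s h => by rw [hW.S]; simpa using h
  have hδ0 : 0 ≤ δ := (Real.rpow_nonneg (W.B'.pos n).le x).trans hδ
  have ev : ∀ s : Fin 18, s ≠ 0 → |(W.cfg0 n (E n)).rel k' l l' s -
      evoC W κ u n (ownC W n l k k') ((W.cfg0 n (E n)).rel k l l') s| ≤
      CW W.K0 / W.kap s * δ := fun s h => by
    refine (hW.ww.evo_cfg g hE h1 h2 h3 h4 (t := x) (fun s => (hW.top s).ge) s (hS s h)).trans ?_
    have := (tS_parts hW s).2.2.2.2.1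
    have h5 := mul_le_mul_of_nonneg_left hδ this
    refine le_trans (le_of_eq ?_) h5
    ring
  have ha : |ownC W n l k k' 0| ≤ W.K0 / W.kap 0 := hW.ww.own_le g hE h1 h2 0
  have hA0 := (abs_nonneg _).trans ha
  have k1 := KK_ge hW
  have r4 := hs 4 (Or.inl rfl)
  have r5 := hs 5 (Or.inr (Or.inl rfl))
  have r7 := hs 7 (Or.inr (Or.inr rfl))
  have c5 := hW.ww.cfl_le g (l := [0, 4]) (s := 5) (by decide)
  have c7 := hW.ww.cfl_le g (l := [0, 0, 4]) (s := 7) (by decide)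
  have c7' := hW.ww.cfl_le g (l := [0, 5]) (s := 7) (by decide)
  have p5 := hW.ww.cfl_pos n [0, 4] 5
  have p7 := hW.ww.cfl_pos n [0, 0, 4] 7
  have p7' := hW.ww.cfl_pos n [0, 5] 7
  have t5 : |cfl W u n [0, 4] 5 * (ownC W n l k k' 0 * (W.cfg0 n (E n)).rel k l l' 4)| ≤
      ([0, 4].map W.kap).prod / W.kap 5 * (W.K0 / W.kap 0 * δ) :=
    mm (by rw [abs_of_pos p5]; exact c5) (mm ha r4)
  have t7 : |cfl W u n [0, 0, 4] 7 * (ownC W n l k k' 0 ^ 2 *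
      (W.cfg0 n (E n)).rel k l l' 4)| ≤
      ([0, 0, 4].map W.kap).prod / W.kap 7 * ((W.K0 / W.kap 0) ^ 2 * δ) := by
    refine mm (by rw [abs_of_pos p7]; exact c7) (mm ?_ r4)
    rw [abs_pow]
    exact pow_le_pow_left₀ (abs_nonneg _) ha 2
  have t7' : |cfl W u n [0, 5] 7 * (ownC W n l k k' 0 * (W.cfg0 n (E n)).rel k l l' 5)| ≤
      ([0, 5].map W.kap).prod / W.kap 7 * (W.K0 / W.kap 0 * δ) :=
    mm (by rw [abs_of_pos p7']; exact c7') (mm ha r5)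
  have e1 : 2 * (([0, 4].map W.kap).prod / W.kap 5 * (W.K0 / W.kap 0 * δ)) +
      ([0, 0, 4].map W.kap).prod / W.kap 7 * ((W.K0 / W.kap 0) ^ 2 * δ) +
      ([0, 5].map W.kap).prod / W.kap 7 * (W.K0 / W.kap 0 * δ) = kB W * δ := by
    unfold kB; ring
  have a5 := (abs_nonneg _).trans t5
  have a7 := (abs_nonneg _).trans t7
  have a7' := (abs_nonneg _).trans t7'
  have hB : 0 ≤ kB W * δ := mul_nonneg (kB_nonneg hW) hδ0
  have fin : ∀ s : Fin 18, (1 + kB W + CW W.K0 / W.kap s) * δ ≤ KK W * δ := fun s =>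
    mul_le_mul_of_nonneg_right (k1 s).2.2.2.2.2.2 hδ0
  rintro s (rfl | rfl | rfl)
  · have h := ev 4 (by decide)
    rw [evoC4 hW] at h
    have h5 := abs_add_le ((W.cfg0 n (E n)).rel k' l l' 4 - (W.cfg0 n (E n)).rel k l l' 4)
      ((W.cfg0 n (E n)).rel k l l' 4)
    rw [sub_add_cancel] at h5
    have := fin 4
    linarith
  · have h := ev 5 (by decide)
    rw [evoC5 hW] at h
    have h5 := abs_add_le ((W.cfg0 n (E n)).rel k' l l' 5 - ((W.cfg0 n (E n)).rel k l l' 5 +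
      2 * (cfl W u n [0, 4] 5 * (ownC W n l k k' 0 * (W.cfg0 n (E n)).rel k l l' 4))))
      ((W.cfg0 n (E n)).rel k l l' 5 +
      2 * (cfl W u n [0, 4] 5 * (ownC W n l k k' 0 * (W.cfg0 n (E n)).rel k l l' 4)))
    rw [sub_add_cancel] at h5
    have h6 := abs_add_le ((W.cfg0 n (E n)).rel k l l' 5)
      (2 * (cfl W u n [0, 4] 5 * (ownC W n l k k' 0 * (W.cfg0 n (E n)).rel k l l' 4)))
    rw [abs_mul 2, abs_two] at h6
    have := fin 5
    linarith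
  · have h := ev 7 (by decide)
    rw [evoC7 hW] at h
    have h5 := abs_add_le ((W.cfg0 n (E n)).rel k' l l' 7 - ((W.cfg0 n (E n)).rel k l l' 7 +
      cfl W u n [0, 0, 4] 7 * (ownC W n l k k' 0 ^ 2 * (W.cfg0 n (E n)).rel k l l' 4) +
      cfl W u n [0, 5] 7 * (ownC W n l k k' 0 * (W.cfg0 n (E n)).rel k l l' 5)))
      ((W.cfg0 n (E n)).rel k l l' 7 +
      cfl W u n [0, 0, 4] 7 * (ownC W n l k k' 0 ^ 2 * (W.cfg0 n (E n)).rel k l l' 4) +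
      cfl W u n [0, 5] 7 * (ownC W n l k k' 0 * (W.cfg0 n (E n)).rel k l l' 5))
    rw [sub_add_cancel] at h5
    have h6 := abs_add_le ((W.cfg0 n (E n)).rel k l l' 7 +
      cfl W u n [0, 0, 4] 7 * (ownC W n l k k' 0 ^ 2 * (W.cfg0 n (E n)).rel k l l' 4))
      (cfl W u n [0, 5] 7 * (ownC W n l k k' 0 * (W.cfg0 n (E n)).rel k l l' 5))
    have h7 := abs_add_le ((W.cfg0 n (E n)).rel k l l' 7)
      (cfl W u n [0, 0, 4] 7 * (ownC W n l k k' 0 ^ 2 * (W.cfg0 n (E n)).rel k l l' 4))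
    have := fin 7
    linarith

/-- bounds of the flags -/
theorem PP_bn (hW : PWin W E κ u f {4} lam x) (g : W.Good n) (hE : E n ⊆ W.Cl n) {k l : ℕ}
    (hl : (l, k) ∈ (W.cfg0 n (E n)).I) : Bn (κ n) (KK W) (PP W E κ u f n k l) := by
  have h1 := (Wnd.rep_of_mem hE hl).1
  have h2 := (Wnd.rep_of_mem hE (lk_mem hl)).1
  refine ⟨hW.ww.hκ n, by linarith [(KK_ge hW 0).1], fun i => ?_, fun q => ?_⟩
  · rw [PP_g hW]
    exact co_bd hW g h2 h1 _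
  · rw [PP_G hW, abs_neg]
    exact co_bd hW g h1 h2 _

theorem PP_g0 (hW : PWin W E κ u f {4} lam x) (g : W.Good n) (hE : E n ⊆ W.Cl n) {k l : ℕ}
    (hl : (l, k) ∈ (W.cfg0 n (E n)).I) :
    |(PP W E κ u f n k l).g 0| ≤ KK W * W.B'.d n ^ x := by
  have h1 := Wnd.rep_of_mem hE hl
  have h2 := Wnd.rep_of_mem hE (lk_mem hl)
  have e : (PP W E κ u f n k l).g 0 = W.crd n (W.rep n (lk W E n k) k) (W.rep n l k) 0 :=
    co_zero hW g h2.1 h1.1
  rw [e]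
  have h0 : (0 : Fin 18) ∈ W.S := by rw [hW.S]; exact mem_singleton_self _
  refine (hW.ww.crd_lev g h2.1 h1.1 (h2.2.2.trans h1.2.2.symm) h0 (t := x) (hW.top 0).ge).trans ?_
  have hp := Real.rpow_nonneg (W.B'.pos n).le x
  have h3 : W.K0 / W.kap 0 ≤ KK W := by
    have := (KK_ge hW 0).2.2.2.2.2.1
    have h6 := (tS_parts hW 0).2.2.2.2.2
    linarith
  have h4 := mul_le_mul_of_nonneg_right h3 hp
  refine le_trans (le_of_eq ?_) h4
  ring

/-- slots of a pair -/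
theorem pair_slot (hW : PWin W E κ u f {4} lam x) (g : W.Good n) (hE : E n ⊆ W.Cl n)
    {k l l' : ℕ} (hl : (l, k) ∈ (W.cfg0 n (E n)).I) (hl' : (l', k) ∈ (W.cfg0 n (E n)).I)
    {s : Fin 18} (hs : s ≠ 0) :
    |coW (κ n) (PP W E κ u f n k l) (PP W E κ u f n k l') s| ≤
      KK W * |(W.cfg0 n (E n)).rel k l l' s| := by
  rw [PP_co hW, hW.ww.rel_eq l l' k (by rw [hW.S]; simpa using hs)]
  exact co_crd hW g (Wnd.rep_of_mem hE hl).1 (Wnd.rep_of_mem hE hl').1 s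

theorem slot_pair (hW : PWin W E κ u f {4} lam x) (g : W.Good n) (hE : E n ⊆ W.Cl n)
    {k l l' : ℕ} (hl : (l, k) ∈ (W.cfg0 n (E n)).I) (hl' : (l', k) ∈ (W.cfg0 n (E n)).I)
    {s : Fin 18} (hs : s ≠ 0) (hs4 : s ≠ 4) :
    |(W.cfg0 n (E n)).rel k l l' s| ≤
      KK W * |coW (κ n) (PP W E κ u f n k l) (PP W E κ u f n k l') s| := by
  rw [PP_co hW, hW.ww.rel_eq l l' k (by rw [hW.S]; simpa using hs)]
  exact crd_co hW g (Wnd.rep_of_mem hE hl).1 (Wnd.rep_of_mem hE hl').1 hs4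

/-- **evolution of a pair** -/
theorem evo_pp (hW : PWin W E κ u f {4} lam x) (g : W.Good n) (hE : E n ⊆ W.Cl n)
    {k k' l l' : ℕ} (h1 : (l, k) ∈ (W.cfg0 n (E n)).I) (h2 : (l, k') ∈ (W.cfg0 n (E n)).I)
    (h3 : (l', k) ∈ (W.cfg0 n (E n)).I) (h4 : (l', k') ∈ (W.cfg0 n (E n)).I) :
    |coW (κ n) (PP W E κ u f n k' l) (PP W E κ u f n k' l') 1 -
      coW (κ n) (PP W E κ u f n k l) (PP W E κ u f n k l') 1| ≤ KK W * W.B'.d n ^ x ∧
    |coW (κ n) (PP W E κ u f n k' l) (PP W E κ u f n k' l') 2 -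
      (coW (κ n) (PP W E κ u f n k l) (PP W E κ u f n k l') 2 + ownC W n l k k' 0 *
        coW (κ n) (PP W E κ u f n k l) (PP W E κ u f n k l') 1)| ≤ KK W * W.B'.d n ^ x ∧
    |coW (κ n) (PP W E κ u f n k' l) (PP W E κ u f n k' l') 9 -
      (coW (κ n) (PP W E κ u f n k l) (PP W E κ u f n k l') 9 + ownC W n l k k' 0 *
        coW (κ n) (PP W E κ u f n k l) (PP W E κ u f n k l') 6)| ≤ KK W * W.B'.d n ^ x := by
  obtain ⟨a1, a2, a3⟩ := Wnd.rep_of_mem hE h1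
  obtain ⟨b1, b2, b3⟩ := Wnd.rep_of_mem hE h2
  obtain ⟨c1, c2, c3⟩ := Wnd.rep_of_mem hE h3
  obtain ⟨d1, d2, d3⟩ := Wnd.rep_of_mem hE h4
  have hp := Real.rpow_nonneg (W.B'.pos n).le x
  have hv := gru_v hW n
  have ev : ∀ s : Fin 18, s ≠ 0 → |(coW (κ n) (f n (W.rep n l k')) (f n (W.rep n l' k')) s -
      evoW (κ n) {0} (coW (κ n) (f n (W.rep n l k)) (f n (W.rep n l k')))
        (coW (κ n) (f n (W.rep n l k)) (f n (W.rep n l' k))) s) / vv W u n s| ≤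
      KK W * W.B'.d n ^ x := by
    intro s hs
    have h5 := hW.ww.evoR g a1 b1 c1 d1 (a2.trans b2.symm) (c2.trans d2.symm)
      (a3.trans c3.symm) (b3.trans d3.symm) (t := x) (fun s => (hW.top s).ge) s
      (by rw [hW.S]; simpa using hs)
    rw [hW.S] at h5
    have hC : 0 ≤ CW W.K0 := by
      have := hW.ww.ok.K0_one
      unfold CW; positivity
    refine (to_v hW g h5 (mul_nonneg hC hp)).trans ?_
    have h6 := mul_le_mul_of_nonneg_right (KK_ge hW s).2.2.2.2.1 hp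
    refine le_trans (le_of_eq ?_) h6
    ring
  have e0 : ownC W n l k k' 0 = coW (κ n) (f n (W.rep n l k)) (f n (W.rep n l k')) 0 /
      vv W u n 0 := (co_zero hW g a1 b1).symm
  have v2 := GrU.w2 hv
  have v9 : vv W u n 9 = vv W u n 0 * vv W u n 6 := by
    have := hv.mul 9 [0, 6] (by decide)
    simpa using this.symm
  have p0 := (hv.pos 0).ne'
  have p1 := (hv.pos 1).ne'
  have p6 := (hv.pos 6).ne'
  simp only [PP_co hW]
  refine ⟨?_, ?_, ?_⟩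
  · have h := ev 1 (by decide)
    rw [evoW1, sub_div] at h
    exact h
  · have h := ev 2 (by decide)
    rw [evoW2] at h
    refine le_trans (le_of_eq ?_) h
    congr 1
    rw [e0, v2]
    field_simp
  · have h := ev 9 (by decide)
    rw [evoW9] at h
    refine le_trans (le_of_eq ?_) h
    congr 1
    rw [e0, v9]
    field_simp

end

end Crest.Agent.R136.Cr544
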