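import Mathlib

/-!
# R136 (S0187), U5 crude tilt, flat half (helper861), part 1: the count

A finite family of points which lies, at three heights, in the set `|P| ≤ h` of a quadratic
polynomial in two variables with a large coefficient, is (up to few pieces) contained in a pair of
small squares: `count3`.
-/

set_option autoImplicit false
set_option linter.unusedVariables false
set_option linter.unusedSectionVars false

open Finset

namespace Crest.Agent.R136.Crf861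

section

variable {α : Type*}

open Classical in
/-- a family of diameter `ℓ` contains a sub-family of diameter `h` -/
theorem pop (s : Finset α) (x : α → ℝ) {ℓ h : ℝ} (hh : 0 < h) (hs : s.Nonempty)
    (hd : ∀ t ∈ s, ∀ t' ∈ s, |x t - x t'| ≤ ℓ) :
    ∃ s' ⊆ s, s'.Nonempty ∧ (s.card : ℝ) ≤ (ℓ / h + 1) * s'.card ∧
      ∀ t ∈ s', ∀ t' ∈ s', |x t - x t'| ≤ h := by
  obtain ⟨t0, ht0, hmin⟩ := exists_min_image s x hs
  have hℓ : 0 ≤ ℓ := (abs_nonneg _).trans (hd t0 ht0 t0 ht0)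
  set N : ℕ := ⌊ℓ / h⌋₊ with hN
  have hm : ∀ t ∈ s, ⌊(x t - x t0) / h⌋₊ ∈ range (N + 1) := by
    intro t ht
    rw [mem_range, Nat.lt_succ_iff]
    apply Nat.floor_le_floor
    exact div_le_div_of_nonneg_right ((le_abs_self _).trans (hd t ht t0 ht0)) hh.le
  obtain ⟨y, -, hy⟩ := exists_le_card_fiber_of_nsmul_le_card_of_maps_to (s := s)
    (t := range (N + 1)) (f := fun t => ⌊(x t - x t0) / h⌋₊)
    (b := (s.card : ℝ) / (N + 1)) hm ⟨0, by simp⟩ (by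
      rw [card_range, nsmul_eq_mul]; push_cast
      rw [mul_div_cancel₀ _ (by positivity)])
  have hN1 : (0 : ℝ) < N + 1 := by positivity
  have hsc : (0 : ℝ) < s.card := by exact_mod_cast hs.card_pos
  refine ⟨s.filter fun t => ⌊(x t - x t0) / h⌋₊ = y, filter_subset _ _, ?_, ?_, ?_⟩
  · rw [← card_pos]
    have : (0 : ℝ) < ((s.filter fun t => ⌊(x t - x t0) / h⌋₊ = y).card : ℝ) :=
      lt_of_lt_of_le (by positivity) hy
    exact_mod_cast this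
  · rw [div_le_iff₀ hN1] at hy
    have h1 : (N : ℝ) ≤ ℓ / h := Nat.floor_le (by positivity)
    calc (s.card : ℝ) ≤ _ * (N + 1) := hy
      _ = (N + 1) * ((s.filter fun t => ⌊(x t - x t0) / h⌋₊ = y).card : ℝ) := mul_comm _ _
      _ ≤ _ := by gcongr
  · intro t ht t' ht'
    rw [mem_filter] at ht ht'
    have a1 : 0 ≤ (x t - x t0) / h := div_nonneg (sub_nonneg.2 (hmin t ht.1)) hh.le
    have a2 : 0 ≤ (x t' - x t0) / h := div_nonneg (sub_nonneg.2 (hmin t' ht'.1)) hh.le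
    have b1 := Nat.floor_le a1
    have b2 := Nat.floor_le a2
    have c1 := Nat.lt_floor_add_one ((x t - x t0) / h)
    have c2 := Nat.lt_floor_add_one ((x t' - x t0) / h)
    rw [ht.2] at b1 c1
    rw [ht'.2] at b2 c2
    rw [le_div_iff₀ hh] at b1 b2
    rw [div_lt_iff₀ hh] at c1 c2
    rw [abs_le]
    constructor <;> nlinarith

open Classical in
/-- pigeonhole with five classes -/
theorem pig5 (s : Finset α) (p : Fin 5 → α → Prop) (h : ∀ t ∈ s, ∃ i, p i t) :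
    ∃ i, (s.card : ℝ) ≤ 5 * ((s.filter (p i)).card : ℝ) := by
  by_contra hc
  push Not at hc
  have h1 : s ⊆ univ.biUnion fun i : Fin 5 => s.filter (p i) := by
    intro t ht
    obtain ⟨i, hi⟩ := h t ht
    exact mem_biUnion.2 ⟨i, mem_univ _, mem_filter.2 ⟨ht, hi⟩⟩
  have h2 : (s.card : ℝ) ≤ ∑ i : Fin 5, ((s.filter (p i)).card : ℝ) := by
    exact_mod_cast (card_le_card h1).trans card_biUnion_le
  have h3 : ∑ i : Fin 5, ((s.filter (p i)).card : ℝ) < ∑ i : Fin 5, (s.card : ℝ) / 5 := by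
    apply sum_lt_sum_of_nonempty ⟨0, mem_univ _⟩
    intro i _
    have := hc i
    linarith
  rw [sum_const, card_univ, Fintype.card_fin] at h3
  simp at h3
  linarith

/-- quadratic polynomial without constant term -/
def Pq (b1 b2 g11 g12 g22 x y : ℝ) : ℝ :=
  b1 * x + b2 * y + g11 * x ^ 2 + 2 * g12 * x * y + g22 * y ^ 2

/-- partial derivative in `x` -/
def D1 (b1 g11 g12 x y : ℝ) : ℝ := b1 + 2 * g11 * x + 2 * g12 * y

theorem Pq_swap (b1 b2 g11 g12 g22 x y : ℝ) : Pq b1 b2 g11 g12 g22 x y = Pq b2 b1 g22 g12 g11 y x := by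
  unfold Pq; ring

theorem Pq_sub (b1 b2 g11 g12 g22 x y x' y' : ℝ) :
    Pq b1 b2 g11 g12 g22 x y - Pq b1 b2 g11 g12 g22 x' y' =
      (x - x') * ((D1 b1 g11 g12 x y + D1 b1 g11 g12 x' y') / 2) +
        (y - y') * ((D1 b2 g22 g12 y x + D1 b2 g22 g12 y' x') / 2) := by
  unfold Pq D1; ring

theorem D1_le {b1 g11 g12 x y : ℝ} (h1 : |b1| ≤ 1) (h2 : |g11| ≤ 1) (h3 : |g12| ≤ 1)
    (hx : |x| ≤ 2) (hy : |y| ≤ 2) : |D1 b1 g11 g12 x y| ≤ 9 := by
  have e1 : |2 * g11 * x| ≤ 4 := by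
    rw [abs_mul, abs_mul, abs_two]
    nlinarith [abs_nonneg g11, abs_nonneg x]
  have e2 : |2 * g12 * y| ≤ 4 := by
    rw [abs_mul, abs_mul, abs_two]
    nlinarith [abs_nonneg g12, abs_nonneg y]
  unfold D1
  calc |b1 + 2 * g11 * x + 2 * g12 * y| ≤ |b1 + 2 * g11 * x| + |2 * g12 * y| := abs_add_le _ _
    _ ≤ |b1| + |2 * g11 * x| + |2 * g12 * y| := by linarith [abs_add_le b1 (2 * g11 * x)]
    _ ≤ 9 := by linarith

/-- **type 1**: large gradient -/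
theorem loc1 (s : Finset α) (x y : α → ℝ) {b1 b2 g11 g12 g22 h δ : ℝ} (hs : s.Nonempty)
    (hh : 0 < h) (hh1 : h ≤ 1) (hδ : 0 < δ) (hδ1 : δ ≤ 1)
    (hb1 : |b1| ≤ 1) (hb2 : |b2| ≤ 1) (h11 : |g11| ≤ 1) (h12 : |g12| ≤ 1) (h22 : |g22| ≤ 1)
    (hx : ∀ t ∈ s, |x t| ≤ 2) (hy : ∀ t ∈ s, |y t| ≤ 2)
    (hP : ∀ t ∈ s, |Pq b1 b2 g11 g12 g22 (x t) (y t)| ≤ h)
    (hD : ∀ t ∈ s, ∀ t' ∈ s, 2 * δ ≤ |D1 b1 g11 g12 (x t) (y t) + D1 b1 g11 g12 (x t') (y t')|) :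
    ∃ s' ⊆ s, s'.Nonempty ∧ (s.card : ℝ) ≤ 78 / (h * δ) * s'.card ∧
      ∀ t ∈ s', ∀ t' ∈ s', |x t - x t'| ≤ h ∧ |y t - y t'| ≤ h := by
  obtain ⟨s1, h1s, h1n, h1c, h1d⟩ := pop s y (ℓ := 4) hh hs (fun t ht t' ht' => by
    have a := hy t ht
    have b := hy t' ht'
    rw [abs_le] at a b ⊢
    constructor <;> linarith)
  have key : ∀ t ∈ s1, ∀ t' ∈ s1, |x t - x t'| ≤ 11 * h / δ := by
    intro t ht t' ht'
    have e1 := Pq_sub b1 b2 g11 g12 g22 (x t) (y t) (x t') (y t')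
    have e2 := h1d t ht t' ht'
    have e3 := hD t (h1s ht) t' (h1s ht')
    have p1 := hP t (h1s ht)
    have p2 := hP t' (h1s ht')
    have q1 := D1_le hb2 h22 h12 (hy t (h1s ht)) (hx t (h1s ht))
    have q2 := D1_le hb2 h22 h12 (hy t' (h1s ht')) (hx t' (h1s ht'))
    set A := D1 b1 g11 g12 (x t) (y t) + D1 b1 g11 g12 (x t') (y t') with hA
    set C := D1 b2 g22 g12 (y t) (x t)
    set C' := D1 b2 g22 g12 (y t') (x t')
    have e4 : |(y t - y t') * ((C + C') / 2)| ≤ h * 9 := by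
      rw [abs_mul]
      apply mul_le_mul e2 _ (abs_nonneg _) hh.le
      rw [abs_le] at q1 q2 ⊢
      constructor <;> linarith
    have e5 : |(x t - x t') * (A / 2)| ≤ 11 * h := by
      have : (x t - x t') * (A / 2) = Pq b1 b2 g11 g12 g22 (x t) (y t) -
          Pq b1 b2 g11 g12 g22 (x t') (y t') - (y t - y t') * ((C + C') / 2) := by
        rw [e1]; ring
      rw [this]
      rw [abs_le] at p1 p2 e4 ⊢
      constructor <;> linarith
    rw [abs_mul, abs_div, abs_two] at e5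
    rw [le_div_iff₀ hδ]
    nlinarith [abs_nonneg (x t - x t')]
  obtain ⟨s2, h2s, h2n, h2c, h2d⟩ := pop s1 x (ℓ := 11 * h / δ) hh h1n key
  refine ⟨s2, h2s.trans h1s, h2n, ?_, fun t ht t' ht' => ⟨h2d t ht t' ht',
    h1d t (h2s ht) t' (h2s ht')⟩⟩
  have e1 : 4 / h + 1 ≤ 6 / h := by
    rw [div_add_one hh.ne', div_le_div_iff_of_pos_right hh]; linarith
  have e2 : 11 * h / δ / h + 1 ≤ 13 / δ := by
    have : 11 * h / δ / h = 11 / δ := by field_simp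
    rw [this, div_add_one hδ.ne', div_le_div_iff_of_pos_right hδ]; linarith
  calc (s.card : ℝ) ≤ (4 / h + 1) * s1.card := h1c
    _ ≤ (6 / h) * ((13 / δ) * s2.card) := by
      apply mul_le_mul e1 _ (by positivity) (by positivity)
      exact h2c.trans (mul_le_mul_of_nonneg_right e2 (by positivity))
    _ = 78 / (h * δ) * s2.card := by field_simp; norm_num

/-- strip: one equation with a large coefficient -/
theorem strip (s : Finset α) (x y : α → ℝ) {b g g' δ : ℝ} (hs : s.Nonempty)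
    (hδ : 0 < δ) (hδ1 : δ ≤ 1) (h1 : |g| ≤ 1) (h2 : |g'| ≤ 1) (hg : 1 / 512 ≤ |g|)
    (hx : ∀ t ∈ s, |x t| ≤ 2) (hy : ∀ t ∈ s, |y t| ≤ 2)
    (hD : ∀ t ∈ s, |b + 2 * g * x t + 2 * g' * y t| ≤ δ) :
    ∃ s' ⊆ s, s'.Nonempty ∧ (s.card : ℝ) ≤ 6150 / δ * s'.card ∧
      ∀ t ∈ s', ∀ t' ∈ s', |x t - x t'| ≤ δ ∧ |y t - y t'| ≤ δ := by
  obtain ⟨s1, h1s, h1n, h1c, h1d⟩ := pop s y (ℓ := 4) hδ hs (fun t ht t' ht' => by
    have a := hy t ht
    have b := hy t' ht'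
    rw [abs_le] at a b ⊢
    constructor <;> linarith)
  have key : ∀ t ∈ s1, ∀ t' ∈ s1, |x t - x t'| ≤ 1024 * δ := by
    intro t ht t' ht'
    have p1 := hD t (h1s ht)
    have p2 := hD t' (h1s ht')
    have e2 := h1d t ht t' ht'
    have e3 : |g' * (y t - y t')| ≤ δ := by
      rw [abs_mul]
      nlinarith [abs_nonneg g', abs_nonneg (y t - y t')]
    have e4 : |g * (x t - x t')| ≤ 2 * δ := by
      rw [abs_le] at p1 p2 e3 ⊢
      constructor <;> linarith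
    rw [abs_mul] at e4
    nlinarith [abs_nonneg (x t - x t')]
  obtain ⟨s2, h2s, h2n, h2c, h2d⟩ := pop s1 x (ℓ := 1024 * δ) hδ h1n key
  refine ⟨s2, h2s.trans h1s, h2n, ?_, fun t ht t' ht' => ⟨h2d t ht t' ht',
    h1d t (h2s ht) t' (h2s ht')⟩⟩
  have e1 : 4 / δ + 1 ≤ 6 / δ := by
    rw [div_add_one hδ.ne', div_le_div_iff_of_pos_right hδ]; linarith
  have e2 : 1024 * δ / δ + 1 = 1025 := by
    rw [mul_div_assoc, div_self hδ.ne']; norm_num
  calc (s.card : ℝ) ≤ (4 / δ + 1) * s1.card := h1c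
    _ ≤ (6 / δ) * (1025 * s2.card) := by
      apply mul_le_mul e1 _ (by positivity) (by positivity)
      rw [e2] at h2c
      exact h2c
    _ = 6150 / δ * s2.card := by ring

/-- **type 2**: small gradient -/
theorem loc2 (s : Finset α) (x y : α → ℝ) {b1 b2 g11 g12 g22 δ : ℝ} (hs : s.Nonempty)
    (hδ : 0 < δ) (hδ1 : δ ≤ 1 / 64)
    (h11 : |g11| ≤ 1) (h12 : |g12| ≤ 1) (h22 : |g22| ≤ 1)
    (hx : ∀ t ∈ s, |x t| ≤ 2) (hy : ∀ t ∈ s, |y t| ≤ 2)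
    (hgood : 1 / 16 ≤ |b1| ∨ 1 / 16 ≤ |b2| ∨ 1 / 16 ≤ |g11| ∨ 1 / 16 ≤ |g12| ∨ 1 / 16 ≤ |g22|)
    (hD1 : ∀ t ∈ s, |D1 b1 g11 g12 (x t) (y t)| ≤ δ)
    (hD2 : ∀ t ∈ s, |D1 b2 g22 g12 (y t) (x t)| ≤ δ) :
    ∃ s' ⊆ s, s'.Nonempty ∧ (s.card : ℝ) ≤ 6150 / δ * s'.card ∧
      ∀ t ∈ s', ∀ t' ∈ s', |x t - x t'| ≤ δ ∧ |y t - y t'| ≤ δ := by
  have hδ' : δ ≤ 1 := by linarith
  obtain ⟨t0, ht0⟩ := hs
  -- a large second-order coefficient
  have hG : 1 / 512 ≤ |g11| ∨ 1 / 512 ≤ |g12| ∨ 1 / 512 ≤ |g22| := by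
    by_contra hc
    push Not at hc
    obtain ⟨c1, c2, c3⟩ := hc
    have step : ∀ b g g' u v : ℝ, |g| < 1 / 512 → |g'| < 1 / 512 → |u| ≤ 2 → |v| ≤ 2 →
        |D1 b g g' u v| ≤ δ → |b| < 1 / 16 := by
      intro b g g' u v hg hg' hu hv hD
      have k1 : |2 * g * u| ≤ 4 / 512 := by
        rw [abs_mul, abs_mul, abs_two]
        nlinarith [abs_nonneg g, abs_nonneg u]
      have k2 : |2 * g' * v| ≤ 4 / 512 := by
        rw [abs_mul, abs_mul, abs_two]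
        nlinarith [abs_nonneg g', abs_nonneg v]
      unfold D1 at hD
      rw [abs_le] at k1 k2 hD
      rw [abs_lt]
      constructor <;> linarith
    have a1 := step b1 g11 g12 (x t0) (y t0) c1 c2 (hx t0 ht0) (hy t0 ht0) (hD1 t0 ht0)
    have a2 := step b2 g22 g12 (y t0) (x t0) c3 c2 (hy t0 ht0) (hx t0 ht0) (hD2 t0 ht0)
    rcases hgood with h | h | h | h | h <;> linarith
  have hs' : s.Nonempty := ⟨t0, ht0⟩
  rcases hG with h | h | h
  · exact strip s x y (b := b1) hs' hδ hδ' h11 h12 h hx hy (fun t ht => hD1 t ht)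
  · obtain ⟨s', a1, a2, a3, a4⟩ := strip s x y (b := b2) (g := g12) (g' := g22) hs' hδ hδ' h12 h22 h
      hx hy (fun t ht => by
        have := hD2 t ht
        unfold D1 at this
        rwa [show b2 + 2 * g12 * x t + 2 * g22 * y t = b2 + 2 * g22 * y t + 2 * g12 * x t by ring])
    exact ⟨s', a1, a2, a3, a4⟩
  · obtain ⟨s', a1, a2, a3, a4⟩ := strip s y x (b := b2) hs' hδ hδ' h22 h12 h
      hy hx (fun t ht => hD2 t ht)
    exact ⟨s', a1, a2, a3, fun t ht t' ht' => (a4 t ht t' ht').symm⟩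

/-- type of a family at one height: `true` = large gradient -/
def Ty (s : Finset α) (x y : α → ℝ) (b1 b2 g11 g12 g22 δ : ℝ) : Bool → Prop
  | true => (∀ t ∈ s, ∀ t' ∈ s,
      2 * δ ≤ |D1 b1 g11 g12 (x t) (y t) + D1 b1 g11 g12 (x t') (y t')|) ∨
      (∀ t ∈ s, ∀ t' ∈ s, 2 * δ ≤ |D1 b2 g22 g12 (y t) (x t) + D1 b2 g22 g12 (y t') (x t')|)
  | false => (∀ t ∈ s, |D1 b1 g11 g12 (x t) (y t)| ≤ δ) ∧
      (∀ t ∈ s, |D1 b2 g22 g12 (y t) (x t)| ≤ δ)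

theorem Ty.mono {s s' : Finset α} {x y : α → ℝ} {b1 b2 g11 g12 g22 δ : ℝ} {i : Bool}
    (h : Ty s x y b1 b2 g11 g12 g22 δ i) (hs : s' ⊆ s) : Ty s' x y b1 b2 g11 g12 g22 δ i := by
  cases i
  · exact ⟨fun t ht => h.1 t (hs ht), fun t ht => h.2 t (hs ht)⟩
  · rcases h with h | h
    · exact Or.inl fun t ht t' ht' => h t (hs ht) t' (hs ht')
    · exact Or.inr fun t ht t' ht' => h t (hs ht) t' (hs ht')

open Classical in
/-- every family contains a fifth of uniform type -/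
theorem exists_ty (s : Finset α) (x y : α → ℝ) (b1 b2 g11 g12 g22 : ℝ) {δ : ℝ} (hδ : 0 < δ)
    (hs : s.Nonempty) :
    ∃ s' ⊆ s, ∃ i, s'.Nonempty ∧ (s.card : ℝ) ≤ 5 * s'.card ∧
      Ty s' x y b1 b2 g11 g12 g22 δ i := by
  obtain ⟨i, hi⟩ := pig5 s ![fun t => δ ≤ D1 b1 g11 g12 (x t) (y t),
    fun t => D1 b1 g11 g12 (x t) (y t) ≤ -δ, fun t => δ ≤ D1 b2 g22 g12 (y t) (x t),
    fun t => D1 b2 g22 g12 (y t) (x t) ≤ -δ,
    fun t => |D1 b1 g11 g12 (x t) (y t)| ≤ δ ∧ |D1 b2 g22 g12 (y t) (x t)| ≤ δ] (by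
      intro t ht
      by_cases h0 : δ ≤ D1 b1 g11 g12 (x t) (y t)
      · exact ⟨0, h0⟩
      by_cases h1 : D1 b1 g11 g12 (x t) (y t) ≤ -δ
      · exact ⟨1, h1⟩
      by_cases h2 : δ ≤ D1 b2 g22 g12 (y t) (x t)
      · exact ⟨2, h2⟩
      by_cases h3 : D1 b2 g22 g12 (y t) (x t) ≤ -δ
      · exact ⟨3, h3⟩
      refine ⟨4, ?_⟩
      push Not at h0 h1 h2 h3
      exact ⟨abs_le.2 ⟨h1.le, h0.le⟩, abs_le.2 ⟨h3.le, h2.le⟩⟩)
  have hne : ∀ s' : Finset α, (s.card : ℝ) ≤ 5 * (s'.card : ℝ) → s'.Nonempty := by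
    intro s' h
    rw [← card_pos]
    have h0 : (0 : ℝ) < s.card := by exact_mod_cast hs.card_pos
    have : (0 : ℝ) < s'.card := by linarith
    exact_mod_cast this
  fin_cases i
  · refine ⟨_, filter_subset _ _, true, hne _ hi, hi, Or.inl ?_⟩
    intro t ht t' ht'
    have a := (mem_filter.1 ht).2
    have b := (mem_filter.1 ht').2
    simp at a b
    exact (by linarith : 2 * δ ≤ D1 b1 g11 g12 (x t) (y t) + D1 b1 g11 g12 (x t') (y t')).trans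
      (le_abs_self _)
  · refine ⟨_, filter_subset _ _, true, hne _ hi, hi, Or.inl ?_⟩
    intro t ht t' ht'
    have a := (mem_filter.1 ht).2
    have b := (mem_filter.1 ht').2
    simp at a b
    exact (by linarith : 2 * δ ≤ -(D1 b1 g11 g12 (x t) (y t) + D1 b1 g11 g12 (x t') (y t'))).trans
      (neg_le_abs _)
  · refine ⟨_, filter_subset _ _, true, hne _ hi, hi, Or.inr ?_⟩
    intro t ht t' ht'
    have a := (mem_filter.1 ht).2
    have b := (mem_filter.1 ht').2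
    simp at a b
    exact (by linarith : 2 * δ ≤ D1 b2 g22 g12 (y t) (x t) + D1 b2 g22 g12 (y t') (x t')).trans
      (le_abs_self _)
  · refine ⟨_, filter_subset _ _, true, hne _ hi, hi, Or.inr ?_⟩
    intro t ht t' ht'
    have a := (mem_filter.1 ht).2
    have b := (mem_filter.1 ht').2
    simp at a b
    exact (by linarith : 2 * δ ≤ -(D1 b2 g22 g12 (y t) (x t) + D1 b2 g22 g12 (y t') (x t'))).trans
      (neg_le_abs _)
  · refine ⟨_, filter_subset _ _, false, hne _ hi, hi, ?_, ?_⟩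
    · intro t ht
      have a := (mem_filter.1 ht).2
      simp at a
      exact a.1
    · intro t ht
      have a := (mem_filter.1 ht).2
      simp at a
      exact a.2

/-- localisation at one height, both types: side `σ`, loss `N / σ` -/
theorem loc (s : Finset α) (x y : α → ℝ) {b1 b2 g11 g12 g22 h δ : ℝ} (hs : s.Nonempty)
    (hh : 0 < h) (hh1 : h ≤ 1) (hδ : 0 < δ) (hδ1 : δ ≤ 1 / 64)
    (hb1 : |b1| ≤ 1) (hb2 : |b2| ≤ 1) (h11 : |g11| ≤ 1) (h12 : |g12| ≤ 1) (h22 : |g22| ≤ 1)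
    (hx : ∀ t ∈ s, |x t| ≤ 2) (hy : ∀ t ∈ s, |y t| ≤ 2)
    (hP : ∀ t ∈ s, |Pq b1 b2 g11 g12 g22 (x t) (y t)| ≤ h)
    (hgood : 1 / 16 ≤ |b1| ∨ 1 / 16 ≤ |b2| ∨ 1 / 16 ≤ |g11| ∨ 1 / 16 ≤ |g12| ∨ 1 / 16 ≤ |g22|)
    {i : Bool} (hT : Ty s x y b1 b2 g11 g12 g22 δ i) :
    ∃ s' ⊆ s, s'.Nonempty ∧
      (s.card : ℝ) ≤ (cond i (78 / δ) 6150) / (cond i h δ) * s'.card ∧
      ∀ t ∈ s', ∀ t' ∈ s', |x t - x t'| ≤ cond i h δ ∧ |y t - y t'| ≤ cond i h δ := by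
  have hδ' : δ ≤ 1 := by linarith
  cases i
  · exact loc2 s x y hs hδ hδ1 h11 h12 h22 hx hy hgood hT.1 hT.2
  · have e : (78 / δ) / h = 78 / (h * δ) := by rw [div_div, mul_comm δ h]
    rcases hT with hT | hT
    · obtain ⟨s', a1, a2, a3, a4⟩ := loc1 s x y hs hh hh1 hδ hδ' hb1 hb2 h11 h12 h22 hx hy hP hT
      refine ⟨s', a1, a2, ?_, a4⟩
      show (s.card : ℝ) ≤ (78 / δ) / h * s'.card
      rw [e]; exact a3
    · obtain ⟨s', a1, a2, a3, a4⟩ := loc1 s y x hs hh hh1 hδ hδ' hb2 hb1 h22 h12 h11 hy hx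
        (fun t ht => by rw [← Pq_swap]; exact hP t ht) hT
      refine ⟨s', a1, a2, ?_, fun t ht t' ht' => (a4 t ht t' ht').symm⟩
      show (s.card : ℝ) ≤ (78 / δ) / h * s'.card
      rw [e]; exact a3

/-- **the count** : three heights -/
theorem count3 (s : Finset α) (x y : Fin 3 → α → ℝ) {b1 b2 : Fin 3 → ℝ} {g11 g12 g22 h δ : ℝ}
    (hs : s.Nonempty) (hh : 0 < h) (hh1 : h ≤ 1) (hδ : 0 < δ) (hδ1 : δ ≤ 1 / 64)
    (hb1 : ∀ k, |b1 k| ≤ 1) (hb2 : ∀ k, |b2 k| ≤ 1)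
    (h11 : |g11| ≤ 1) (h12 : |g12| ≤ 1) (h22 : |g22| ≤ 1)
    (hx : ∀ k, ∀ t ∈ s, |x k t| ≤ 2) (hy : ∀ k, ∀ t ∈ s, |y k t| ≤ 2)
    (hP : ∀ k, ∀ t ∈ s, |Pq (b1 k) (b2 k) g11 g12 g22 (x k t) (y k t)| ≤ h)
    (hgood : ∀ k, 1 / 16 ≤ |b1 k| ∨ 1 / 16 ≤ |b2 k| ∨ 1 / 16 ≤ |g11| ∨ 1 / 16 ≤ |g12| ∨
      1 / 16 ≤ |g22|) :
    ∃ s' ⊆ s, ∃ k l : Fin 3, k ≠ l ∧ ∃ i : Bool, s'.Nonempty ∧
      (s.card : ℝ) ≤ 125 * ((cond i (78 / δ) 6150) / (cond i h δ)) ^ 2 * s'.card ∧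
      ∀ t ∈ s', ∀ t' ∈ s', (|x k t - x k t'| ≤ cond i h δ ∧ |y k t - y k t'| ≤ cond i h δ) ∧
        (|x l t - x l t'| ≤ cond i h δ ∧ |y l t - y l t'| ≤ cond i h δ) := by
  obtain ⟨s1, u1, i1, n1, c1, T1⟩ := exists_ty s (x 0) (y 0) (b1 0) (b2 0) g11 g12 g22 hδ hs
  obtain ⟨s2, u2, i2, n2, c2, T2⟩ := exists_ty s1 (x 1) (y 1) (b1 1) (b2 1) g11 g12 g22 hδ n1
  obtain ⟨s3, u3, i3, n3, c3, T3⟩ := exists_ty s2 (x 2) (y 2) (b1 2) (b2 2) g11 g12 g22 hδ n2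
  have us : s3 ⊆ s := u3.trans (u2.trans u1)
  have cs : (s.card : ℝ) ≤ 125 * s3.card := by linarith
  have T1' := T1.mono (u3.trans u2)
  have T2' := T2.mono u3
  -- two heights of the same type
  have main : ∀ (k l : Fin 3) (i : Bool), k ≠ l →
      Ty s3 (x k) (y k) (b1 k) (b2 k) g11 g12 g22 δ i →
      Ty s3 (x l) (y l) (b1 l) (b2 l) g11 g12 g22 δ i →
      ∃ s' ⊆ s, ∃ k l : Fin 3, k ≠ l ∧ ∃ i : Bool, s'.Nonempty ∧
      (s.card : ℝ) ≤ 125 * ((cond i (78 / δ) 6150) / (cond i h δ)) ^ 2 * s'.card ∧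
      ∀ t ∈ s', ∀ t' ∈ s', (|x k t - x k t'| ≤ cond i h δ ∧ |y k t - y k t'| ≤ cond i h δ) ∧
        (|x l t - x l t'| ≤ cond i h δ ∧ |y l t - y l t'| ≤ cond i h δ) := by
    intro k l i hkl hk hl
    obtain ⟨s4, a1, a2, a3, a4⟩ := loc s3 (x k) (y k) n3 hh hh1 hδ hδ1 (hb1 k) (hb2 k) h11 h12 h22
      (fun t ht => hx k t (us ht)) (fun t ht => hy k t (us ht)) (fun t ht => hP k t (us ht))
      (hgood k) hk
    obtain ⟨s5, b1', b2', b3', b4'⟩ := loc s4 (x l) (y l) a2 hh hh1 hδ hδ1 (hb1 l) (hb2 l) h11 h12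
      h22 (fun t ht => hx l t (us (a1 ht))) (fun t ht => hy l t (us (a1 ht)))
      (fun t ht => hP l t (us (a1 ht))) (hgood l) (hl.mono a1)
    have h0 : 0 ≤ (cond i (78 / δ) 6150) / (cond i h δ) := by
      cases i <;> simp only [cond_true, cond_false] <;> positivity
    refine ⟨s5, (b1'.trans a1).trans us, k, l, hkl, i, b2', ?_, fun t ht t' ht' =>
      ⟨a4 t (b1' ht) t' (b1' ht'), b4' t ht t' ht'⟩⟩
    set Q := (cond i (78 / δ) 6150) / (cond i h δ) with hQ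
    calc (s.card : ℝ) ≤ 125 * s3.card := cs
      _ ≤ 125 * (Q * (Q * s5.card)) := by
        have := mul_le_mul_of_nonneg_left b3' h0
        nlinarith
      _ = 125 * Q ^ 2 * s5.card := by ring
  by_cases h12' : i1 = i2
  · subst h12'
    exact main 0 1 i1 (by decide) T1' T2'
  · by_cases h13 : i1 = i3
    · subst h13
      exact main 0 2 i1 (by decide) T1' T3
    · have h23 : i2 = i3 := by
        cases i1 <;> cases i2 <;> cases i3 <;> simp_all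
      subst h23
      exact main 1 2 i2 (by decide) T2' T3

end

end Crest.Agent.R136.Crf861
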