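import Crest.Agent.R136.UB1_861

/-!
# R136 (S0187): (UB) for the class ShN (half-width `w 0` free), one sheet (helper861)
-/

set_option autoImplicit false
set_option linter.unusedVariables false

namespace Crest.Agent.R136.UB861

open Sh605 Finset

noncomputable section

/-- size of the cells -/
def kapC (Λ : ℝ) : ℝ := 1 / (2 ^ 24 * Λ ^ 4)

/-- bound for the ratios -/
def BBC (Λ : ℝ) : ℝ := 2 ^ 24 * Λ ^ 4

/-- the constants -/
theorem constsC {Λ : ℝ} (hΛ : 1 ≤ Λ) : 0 < kapC Λ ∧ BBC Λ * kapC Λ = 1 ∧ 0 < BBC Λ ∧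
    64 * Λ ^ 2 ≤ BBC Λ ∧ 15552 * (Λ ^ 2 * kapC Λ) * Λ ≤ 1 / 8 ∧ Λ ^ 2 * kapC Λ ≤ 1 / 100 ∧
    Λ * kapC Λ ≤ Λ ^ 2 * kapC Λ ∧ kapC Λ ≤ Λ * kapC Λ ∧ 64 * Λ * kapC Λ = kap Λ ∧
    64 * Λ * BB Λ = BBC Λ := by
  have hΛp : 0 < Λ := by linarith
  have hκp : 0 < kapC Λ := by unfold kapC; positivity
  have hκ4 : kapC Λ * Λ ^ 4 = 1 / 2 ^ 24 := by unfold kapC; field_simp
  have hΛ2 : Λ ^ 2 ≤ Λ ^ 4 := pow_le_pow_right₀ hΛ (by norm_num)
  have hΛ3 : Λ ^ 3 ≤ Λ ^ 4 := pow_le_pow_right₀ hΛ (by norm_num)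
  have hκ2 : kapC Λ * Λ ^ 2 ≤ 1 / 2 ^ 24 := by
    rw [← hκ4]; exact mul_le_mul_of_nonneg_left hΛ2 hκp.le
  have hκ3 : kapC Λ * Λ ^ 3 ≤ 1 / 2 ^ 24 := by
    rw [← hκ4]; exact mul_le_mul_of_nonneg_left hΛ3 hκp.le
  refine ⟨hκp, ?_, ?_, ?_, ?_, ?_, ?_, ?_, ?_, ?_⟩
  · unfold kapC BBC; field_simp
  · unfold BBC; positivity
  · unfold BBC
    have : 0 < Λ ^ 2 := by positivity
    nlinarith
  · have : 15552 * (Λ ^ 2 * kapC Λ) * Λ = 15552 * (kapC Λ * Λ ^ 3) := by ring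
    rw [this]
    refine (mul_le_mul_of_nonneg_left hκ3 (by norm_num)).trans (by norm_num)
  · rw [mul_comm]; refine hκ2.trans (by norm_num)
  · apply mul_le_mul_of_nonneg_right _ hκp.le
    nlinarith
  · calc kapC Λ = 1 * kapC Λ := (one_mul _).symm
      _ ≤ _ := mul_le_mul_of_nonneg_right hΛ hκp.le
  · unfold kap kapC; field_simp; ring
  · unfold BB BBC; ring

/-- the thick case: the box itself -/
theorem box_sheetC {e : Fin 3 → V3} (he : Ortho e) (y : Ln4) {w' : V3} {z' ρ' r0 : ℝ}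
    (hp : 0 < w' 0) (hw0 : w' 0 ≤ w' 2) (hw : w' 2 ≤ w' 1) (hr0 : r0 ≤ w' 0) :
    ShN e y w' (fun z x => dt (e 0) (x - y.pos z)) (w' 0) z' ρ' r0 := by
  have hs : ∀ (i : Fin 3) (z : ℝ) (x : V3) (τ : ℝ),
      dt (e 0) (x + τ • e i - y.pos z) - dt (e 0) (x - y.pos z) = τ * dt (e 0) (e i) := by
    intro i z x τ
    simp only [dt, Pi.add_apply, Pi.sub_apply, Pi.smul_apply, smul_eq_mul]; ring
  have h00 : dt (e 0) (e 0) = 1 := by simpa using he 0 0
  have h01 : dt (e 0) (e 1) = 0 := by simpa using he 0 1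
  have h02 : dt (e 0) (e 2) = 0 := by simpa using he 0 2
  have hp2 : 0 < w' 2 := hp.trans_le hw0
  have hp1 : 0 < w' 1 := hp2.trans_le hw
  refine ⟨he, ?_, le_rfl, hw0, hw, hr0, ?_, ?_, ?_⟩
  · refine ⟨-(dt (e 0) y.p), -(dt (e 0) y.v), 0, e 0, 0, 0, fun z x => ?_⟩
    simp only [dt, Pi.sub_apply, Ln4.pos, Fin.sum_univ_three, Pi.zero_apply]; ring
  · intro z _ _ x τ hτ _ _
    simp only [hs, h00]
    constructor <;> linarith
  · intro z _ _ x τ hτ _ _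
    simp only [hs, h01]
    rw [mul_zero, abs_zero]
    positivity
  · intro z _ _ x τ hτ _ _
    simp only [hs, h02]
    rw [mul_zero, abs_zero]
    positivity

/-- the curved sheet -/
theorem flat_sheetC {e' : Fin 3 → V3} (he' : Ortho e') {q : ℝ → V3 → ℝ} {c0 c1 c2 : ℝ} {b d : V3}
    {g : Fin 3 → Fin 3 → ℝ} (hq : QR q c0 c1 c2 b d g) (y : Ln4) {w' : V3} {a' m z' ρ' r0 : ℝ}
    (hm : m ≠ 0) (hp : 0 < w' 0) (ha : a' ≤ w' 0) (hw0 : w' 0 ≤ w' 2) (hw : w' 2 ≤ w' 1)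
    (hr0 : r0 ≤ a')
    (g0 : ∀ z, z' ≤ z → z ≤ z' + ρ' → |Gf b d g z (y.pos z) (e' 0) - m| ≤ |m| / 64)
    (g1 : ∀ z, z' ≤ z → z ≤ z' + ρ' → |Gf b d g z (y.pos z) (e' 1)| ≤ |m| / 2 * (w' 0 / w' 1))
    (g2 : ∀ z, z' ≤ z → z ≤ z' + ρ' → |Gf b d g z (y.pos z) (e' 2)| ≤ |m| / 2 * (w' 0 / w' 2))
    (b0 : ∀ k : V3, (∀ i, |dt (e' i) k| ≤ 2 * w' i) → |Bf g k (e' 0)| ≤ |m| / 4)
    (b1 : ∀ k : V3, (∀ i, |dt (e' i) k| ≤ 2 * w' i) → |Bf g k (e' 1)| ≤ |m| / 4 * (w' 0 / w' 1))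
    (b2 : ∀ k : V3, (∀ i, |dt (e' i) k| ≤ 2 * w' i) → |Bf g k (e' 2)| ≤ |m| / 4 * (w' 0 / w' 2)) :
    ShN e' y w' (fun z x => q z x / m) a' z' ρ' r0 := by
  have hmp : 0 < |m| := abs_pos.2 hm
  have hp2 : 0 < w' 2 := hp.trans_le hw0
  have hp1 : 0 < w' 1 := hp2.trans_le hw
  have mid : ∀ (i : Fin 3) (z : ℝ) (x : V3) (τ : ℝ), InK e' y (dbl3 w') z x →
      InK e' y (dbl3 w') z (x + τ • e' i) →
      ∃ k : V3, (∀ j, |dt (e' j) k| ≤ 2 * w' j) ∧
        q z (x + τ • e' i) / m - q z x / m =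
          τ * ((Gf b d g z (y.pos z) (e' i) + Bf g k (e' i)) / m) := by
    intro i z x τ h1 h2
    refine ⟨x + (τ / 2) • e' i - y.pos z, ?_, ?_⟩
    · intro j
      have h3 := abs_le.1 (h1 j)
      have h4 := abs_le.1 (h2 j)
      have e1 : dt (e' j) (x + (τ / 2) • e' i - y.pos z) =
          (dt (e' j) (x - y.pos z) + dt (e' j) (x + τ • e' i - y.pos z)) / 2 := by
        simp only [dt, Pi.add_apply, Pi.sub_apply, Pi.smul_apply, smul_eq_mul]; ring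
      have h5 : dbl3 w' j = 2 * w' j := rfl
      rw [h5] at h3 h4
      rw [e1, abs_le]
      constructor <;> linarith [h3.1, h3.2, h4.1, h4.2]
    · have e2 : x + (τ / 2) • e' i = y.pos z + (x + (τ / 2) • e' i - y.pos z) := by
        funext k; simp only [Pi.add_apply, Pi.sub_apply]; ring
      rw [← sub_div, q_diff hq, ← Gf_shift, ← e2, mul_div_assoc]
  have lat : ∀ (i : Fin 3) (R : ℝ), 0 ≤ R → (∀ z, z' ≤ z → z ≤ z' + ρ' →
      |Gf b d g z (y.pos z) (e' i)| ≤ |m| / 2 * R) →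
      (∀ k : V3, (∀ i, |dt (e' i) k| ≤ 2 * w' i) → |Bf g k (e' i)| ≤ |m| / 4 * R) →
      ∀ z, z' ≤ z → z ≤ z' + ρ' → ∀ (x : V3) (τ : ℝ), 0 ≤ τ → InK e' y (dbl3 w') z x →
        InK e' y (dbl3 w') z (x + τ • e' i) → |q z (x + τ • e' i) / m - q z x / m| ≤ R * τ := by
    intro i R hR hg hb z hz hz' x τ hτ h1 h2
    obtain ⟨k, hk, h3⟩ := mid i z x τ h1 h2
    rw [h3, abs_mul, abs_of_nonneg hτ, abs_div, mul_comm R]
    apply mul_le_mul_of_nonneg_left _ hτ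
    rw [div_le_iff₀ hmp]
    refine (abs_add_le _ _).trans ?_
    have h4 := hg z hz hz'
    have h5 := hb k hk
    have h6 : 0 ≤ |m| * R := by positivity
    nlinarith
  refine ⟨he', ?_, ha, hw0, hw, hr0, ?_, ?_, ?_⟩
  · refine ⟨c0 / m, c1 / m, c2 / m, fun i => b i / m, fun i => d i / m, fun i j => g i j / m,
      fun z x => ?_⟩
    show q z x / m = _
    rw [hq]
    simp only [Fin.sum_univ_three]
    field_simp
  · intro z hz hz' x τ hτ h1 h2
    obtain ⟨k, hk, h3⟩ := mid 0 z x τ h1 h2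
    simp only [h3]
    have h4 := b0 k hk
    have h5 := g0 z hz hz'
    have h6 : |(Gf b d g z (y.pos z) (e' 0) + Bf g k (e' 0)) / m - 1| ≤ 1 / 2 := by
      have e1 : (Gf b d g z (y.pos z) (e' 0) + Bf g k (e' 0)) / m - 1 =
          ((Gf b d g z (y.pos z) (e' 0) - m) + Bf g k (e' 0)) / m := by field_simp; ring
      rw [e1, abs_div, div_le_iff₀ hmp]
      refine (abs_add_le _ _).trans ?_
      linarith
    obtain ⟨h7, h8⟩ := abs_le.1 h6
    constructor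
    · calc τ / 2 = τ * (1 / 2) := by ring
        _ ≤ _ := mul_le_mul_of_nonneg_left (by linarith) hτ
    · calc _ ≤ τ * 2 := mul_le_mul_of_nonneg_left (by linarith) hτ
        _ = 2 * τ := by ring
  · exact lat 1 _ (div_nonneg hp.le hp1.le) g1 b1
  · exact lat 2 _ (div_nonneg hp.le hp2.le) g2 b2

section basicC
variable {e : Fin 3 → V3} {c : Ln4} {w : V3} {q : ℝ → V3 → ℝ} {a z0 ρ r0 : ℝ}
variable {c0 c1 c2 : ℝ} {b d : V3} {g : Fin 3 → Fin 3 → ℝ}

theorem aC_pos (S : ShN e c w q a z0 ρ r0) (hr : 0 < r0) : 0 < a := hr.trans_le S.r0_le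

theorem wC_pos (S : ShN e c w q a z0 ρ r0) (hr : 0 < r0) (i : Fin 3) : 0 < w i := by
  have h0 : 0 < w 0 := (aC_pos S hr).trans_le S.a_le0
  have h2 : 0 < w 2 := h0.trans_le S.w0_le
  have h1 : 0 < w 1 := h2.trans_le S.w_le
  fin_cases i
  · exact h0
  · exact h1
  · exact h2

/-- the difference quotient along `e i` over a chord centred at `x` -/
theorem dq_midC (he : Ortho e) (hw : ∀ i, 0 < w i) (hq : QR q c0 c1 c2 b d g) {z : ℝ}
    {x : V3} (hx : ∀ j, |dt (e j) (x - c.pos z)| ≤ 3 / 2 * w j) (i : Fin 3) :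
    ∃ x1 : V3, InK e c (dbl3 w) z x1 ∧ InK e c (dbl3 w) z (x1 + w i • e i) ∧
      q z (x1 + w i • e i) - q z x1 = w i * Gf b d g z x (e i) := by
  refine ⟨x + (-(w i / 2)) • e i, ?_, ?_, ?_⟩
  · apply inK_shift he hx hw
    rw [abs_neg, abs_of_pos (by linarith [hw i])]
  · have : x + (-(w i / 2)) • e i + w i • e i = x + (w i / 2) • e i := by
      funext k; simp only [Pi.add_apply, Pi.smul_apply, smul_eq_mul]; ring
    rw [this]
    apply inK_shift he hx hw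
    rw [abs_of_pos (by linarith [hw i])]
  · rw [q_diff hq]
    have : x + (-(w i / 2)) • e i + (w i / 2) • e i = x := by
      funext k; simp only [Pi.add_apply, Pi.smul_apply, smul_eq_mul]; ring
    rw [this]

/-- derivative bounds -/
theorem gradC (S : ShN e c w q a z0 ρ r0) (hr : 0 < r0) (hq : QR q c0 c1 c2 b d g) {z : ℝ}
    (hz : z0 ≤ z) (hz' : z ≤ z0 + ρ)
    {x : V3} (hx : ∀ j, |dt (e j) (x - c.pos z)| ≤ 3 / 2 * w j) :
    (1 / 2 ≤ Gf b d g z x (e 0) ∧ Gf b d g z x (e 0) ≤ 2) ∧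
    |Gf b d g z x (e 1)| ≤ w 0 / w 1 ∧ |Gf b d g z x (e 2)| ≤ w 0 / w 2 := by
  have hw := wC_pos S hr
  refine ⟨?_, ?_, ?_⟩
  · obtain ⟨x1, h1, h2, h3⟩ := dq_midC S.ortho hw hq hx 0
    have := S.st0 z hz hz' x1 (w 0) (hw 0).le h1 h2
    rw [h3] at this
    constructor
    · have h4 : w 0 * (1 / 2) ≤ w 0 * Gf b d g z x (e 0) := by linarith [this.1]
      exact le_of_mul_le_mul_left h4 (hw 0)
    · have h4 : w 0 * Gf b d g z x (e 0) ≤ w 0 * 2 := by linarith [this.2]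
      exact le_of_mul_le_mul_left h4 (hw 0)
  · obtain ⟨x1, h1, h2, h3⟩ := dq_midC S.ortho hw hq hx 1
    have := S.sl1 z hz hz' x1 (w 1) (hw 1).le h1 h2
    rw [h3, abs_mul, abs_of_pos (hw 1), mul_comm (w 0 / w 1)] at this
    exact le_of_mul_le_mul_left this (hw 1)
  · obtain ⟨x1, h1, h2, h3⟩ := dq_midC S.ortho hw hq hx 2
    have := S.sl2 z hz hz' x1 (w 2) (hw 2).le h1 h2
    rw [h3, abs_mul, abs_of_pos (hw 2), mul_comm (w 0 / w 2)] at this
    exact le_of_mul_le_mul_left this (hw 2)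

/-- second derivatives -/
theorem hessC (S : ShN e c w q a z0 ρ r0) (hr : 0 < r0) (hρ : 0 ≤ ρ) (hq : QR q c0 c1 c2 b d g)
    {y : Ln4} (hy : InSheet y e c w q a z0 ρ) (j i : Fin 3) :
    |Bf g (e j) (e i)| * (w j * w i) ≤ 4 * w 0 := by
  have hw := wC_pos S hr
  have hyK := (hy z0 le_rfl (by linarith)).1
  set x := y.pos z0 with hx
  have hx1 : ∀ k, |dt (e k) (x - c.pos z0)| ≤ 3 / 2 * w k := fun k => by
    have := hyK k
    have := hw k
    linarith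
  have hx2 : ∀ k, |dt (e k) (x + (w j / 2) • e j - c.pos z0)| ≤ 3 / 2 * w k := fun k => by
    have e1 : x + (w j / 2) • e j - c.pos z0 = (x - c.pos z0) + (w j / 2) • e j := by
      funext k; simp only [Pi.add_apply, Pi.sub_apply]; ring
    rw [e1, dt_add, dt_smul, S.ortho k j]
    by_cases hkj : k = j
    · subst hkj
      rw [if_pos rfl, mul_one]
      calc |dt (e k) (x - c.pos z0) + w k / 2| ≤ |dt (e k) (x - c.pos z0)| + |w k / 2| :=
            abs_add_le _ _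
        _ ≤ 3 / 2 * w k := by
            have h7 : |w k / 2| = w k / 2 := abs_of_pos (by linarith [hw k])
            rw [h7]
            have := hyK k
            linarith
    · rw [if_neg hkj, mul_zero, add_zero]
      have := hyK k
      have := hw k
      linarith
  have hsh : Gf b d g z0 (x + (w j / 2) • e j) (e i) - Gf b d g z0 x (e i) =
      w j / 2 * Bf g (e j) (e i) := by
    rw [Gf_shift, Bf_smul]; ring
  have fin : ∀ K : ℝ, |w j / 2 * Bf g (e j) (e i)| ≤ K → 2 * K * w i ≤ 4 * w 0 →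
      |Bf g (e j) (e i)| * (w j * w i) ≤ 4 * w 0 := by
    intro K h1 h2
    rw [abs_mul, abs_of_pos (by linarith [hw j])] at h1
    have h3 : w j / 2 * |Bf g (e j) (e i)| * w i ≤ K * w i :=
      mul_le_mul_of_nonneg_right h1 (hw i).le
    nlinarith
  have hz1 : z0 ≤ z0 := le_rfl
  have hz2 : z0 ≤ z0 + ρ := by linarith
  have h1 := gradC S hr hq hz1 hz2 hx1
  have h2 := gradC S hr hq hz1 hz2 hx2
  have rat : ∀ i : Fin 3, 2 * (2 * (w 0 / w i)) * w i ≤ 4 * w 0 := by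
    intro i
    have h8 : 2 * (2 * (w 0 / w i)) * w i = 4 * w 0 := by
      have := (hw i).ne'
      field_simp
      ring
    exact h8.le
  fin_cases i
  · apply fin (3 / 2)
    · rw [← hsh]
      rw [abs_le]
      constructor <;> simp only [Fin.zero_eta] <;> linarith [h1.1.1, h1.1.2, h2.1.1, h2.1.2]
    · show 2 * (3 / 2) * w 0 ≤ 4 * w 0
      have := hw 0
      linarith
  · apply fin (2 * (w 0 / w 1))
    · rw [← hsh]
      have h3 := abs_le.1 h1.2.1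
      have h4 := abs_le.1 h2.2.1
      rw [abs_le]
      constructor <;> simp only [Fin.mk_one] <;> linarith [h3.1, h3.2, h4.1, h4.2]
    · exact rat 1
  · apply fin (2 * (w 0 / w 2))
    · rw [← hsh]
      have h3 := abs_le.1 h1.2.2
      have h4 := abs_le.1 h2.2.2
      rw [abs_le]
      constructor <;> simp only [Fin.reduceFinMk] <;> linarith [h3.1, h3.2, h4.1, h4.2]
    · exact rat 2

/-- second derivative of `q` on the new box -/
theorem bf_boundC (he : Ortho e) (hw : ∀ i, 0 < w i) {W : ℝ}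
    (hH : ∀ j i, |Bf g (e j) (e i)| * (w j * w i) ≤ W) {k : V3} {al : V3}
    (hal : ∀ j, 0 ≤ al j) (hk : ∀ j, |dt (e j) k| ≤ al j * w j) (i : Fin 3) :
    |Bf g k (e i)| * w i ≤ W * (al 0 + al 1 + al 2) := by
  have hexp : Bf g k (e i) = dt (e 0) k * Bf g (e 0) (e i) + dt (e 1) k * Bf g (e 1) (e i) +
      dt (e 2) k * Bf g (e 2) (e i) := by
    conv_lhs => rw [expand_lc he k]
    rw [Bf_lc_left]
  have one : ∀ j, |dt (e j) k * Bf g (e j) (e i)| * w i ≤ W * al j := by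
    intro j
    rw [abs_mul]
    calc |dt (e j) k| * |Bf g (e j) (e i)| * w i ≤ (al j * w j) * |Bf g (e j) (e i)| * w i := by
          have := hk j
          have := abs_nonneg (Bf g (e j) (e i))
          have := (hw i).le
          gcongr
      _ = al j * (|Bf g (e j) (e i)| * (w j * w i)) := by ring
      _ ≤ al j * W := mul_le_mul_of_nonneg_left (hH j i) (hal j)
      _ = W * al j := by ring
  rw [hexp]
  have h1 : |dt (e 0) k * Bf g (e 0) (e i) + dt (e 1) k * Bf g (e 1) (e i) +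
      dt (e 2) k * Bf g (e 2) (e i)| ≤ |dt (e 0) k * Bf g (e 0) (e i)| +
      |dt (e 1) k * Bf g (e 1) (e i)| + |dt (e 2) k * Bf g (e 2) (e i)| := by
    refine (abs_add_le _ _).trans ?_
    linarith [abs_add_le (dt (e 0) k * Bf g (e 0) (e i)) (dt (e 1) k * Bf g (e 1) (e i))]
  have h2 := mul_le_mul_of_nonneg_right h1 (hw i).le
  have h3 := one 0
  have h4 := one 1
  have h5 := one 2
  linarith

/-- the gradient curve of `y` -/
theorem grad_curveC (S : ShN e c w q a z0 ρ r0) (hr : 0 < r0) (hρ : 0 < ρ)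
    (hq : QR q c0 c1 c2 b d g) {L Z0 : ℝ} (hL : 1 ≤ L) (h0 : Z0 ≤ z0)
    (h1 : z0 + ρ ≤ Z0 + L * ρ) {y : Ln4} (hy : InSheet y e c w q a z0 ρ) :
    ∃ P0 P1 : V3, (∀ z i, Gf b d g z (y.pos z) (e i) = Pc P0 P1 ((z - Z0) / (L * ρ)) i) ∧
      (0 ≤ (z0 - Z0) / (L * ρ) ∧ (z0 - Z0) / (L * ρ) ≤ 1) ∧
      1 / 2 ≤ Pc P0 P1 ((z0 - Z0) / (L * ρ)) 0 ∧
      (∀ z, Z0 ≤ z → z ≤ Z0 + L * ρ → |Gf b d g z (y.pos z) (e 1)| ≤ 2 * L * (w 0 / w 1) ∧
        |Gf b d g z (y.pos z) (e 2)| ≤ 2 * L * (w 0 / w 2)) := by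
  have hℓp : 0 < L * ρ := by positivity
  have hw := wC_pos S hr
  have hPc : ∀ z i, Gf b d g z (y.pos z) (e i) =
      Pc (fun i => Gf b d g Z0 (y.pos Z0) (e i))
        (fun i => Gf b d g (Z0 + L * ρ) (y.pos (Z0 + L * ρ)) (e i)) ((z - Z0) / (L * ρ)) i := by
    intro z i
    have e1 : z = (1 - (z - Z0) / (L * ρ)) * Z0 + ((z - Z0) / (L * ρ)) * (Z0 + L * ρ) := by
      field_simp; ring
    conv_lhs => rw [e1]
    rw [Gf_aff]
    rfl
  have hyx : ∀ z, z0 ≤ z → z ≤ z0 + ρ → ∀ j, |dt (e j) (y.pos z - c.pos z)| ≤ 3 / 2 * w j := by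
    intro z hz hz' j
    have := (hy z hz hz').1 j
    have := hw j
    linarith
  refine ⟨_, _, hPc, ⟨div_nonneg (by linarith) hℓp.le, by rw [div_le_iff₀ hℓp]; linarith⟩, ?_, ?_⟩
  · rw [← hPc]
    exact (gradC S hr hq le_rfl (by linarith) (hyx z0 le_rfl (by linarith))).1.1
  · intro z hz hz'
    obtain ⟨s, hs1, hs2, hs3, hs4⟩ := s_bound hρ hL h0 h1 hz hz'
    have k1 := gradC S hr hq le_rfl (by linarith) (hyx z0 le_rfl (by linarith))
    have k2 := gradC S hr hq (by linarith) le_rfl (hyx (z0 + ρ) (by linarith) le_rfl)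
    rw [hs1, Gf_aff, Gf_aff]
    exact ⟨aff_bound hs3 hs4 k1.2.1 k2.2.1, aff_bound hs3 hs4 k1.2.2 k2.2.2⟩

/-- the conclusion of `ub_oneC` for one window -/
def ConclC (e : Fin 3 → V3) (c : Ln4) (w : V3) (q : ℝ → V3 → ℝ) (a z0 ρ r0 Λ : ℝ) (y : Ln4)
    (z' ρ' : ℝ) : Prop :=
  ∃ (e' : Fin 3 → V3) (c' : Ln4) (w' : V3) (q' : ℝ → V3 → ℝ) (a' : ℝ),
    ShN e' c' w' q' a' z' ρ' r0 ∧
    (∀ t : Ln4, InSheet t e c w q a z0 ρ →
      (∀ i, |dt (e i) (t.pos z0 - y.pos z0)| ≤ kapC Λ * w i) →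
      (∀ i, |dt (e i) (t.pos (z0 + ρ) - y.pos (z0 + ρ))| ≤ kapC Λ * w i) →
      InSheet t e' c' w' q' a' z' ρ') ∧
    a ≤ a' ∧ a' ≤ BBC Λ * a ∧ w' 2 ≤ w 2 ∧ w 2 ≤ BBC Λ * w' 2 ∧ w' 1 ≤ w 1 ∧ w 1 ≤ BBC Λ * w' 1

/-- the thick case -/
theorem conclC_box (S : ShN e c w q a z0 ρ r0) (hr : 0 < r0) (hρ : 0 < ρ) {L Z0 Λ : ℝ}
    (hL : 1 ≤ L) (hΛ : 1 ≤ Λ) (hLΛ : L ≤ Λ) (h0 : Z0 ≤ z0) (h1 : z0 + ρ ≤ Z0 + L * ρ) {y : Ln4}
    {v0 v2 v1 : ℝ} (hv0 : 0 < v0) (hv2' : v2 ≤ w 2) (hv1' : v1 ≤ w 1) (hv0' : v0 ≤ w 0)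
    (hB2 : w 2 ≤ BBC Λ * max v2 (max v0 a))
    (hB1 : w 1 ≤ BBC Λ * v1) (hc0 : 2 * Λ * (kapC Λ * w 0) ≤ v0)
    (hc2 : 2 * Λ * (kapC Λ * w 2) ≤ v2) (hc1 : 2 * Λ * (kapC Λ * w 1) ≤ v1)
    (hth : v0 ≤ BBC Λ * a) (hBB : 1 ≤ BBC Λ)
    {z' ρ' : ℝ} (hz' : Z0 ≤ z') (hz'' : z' + ρ' ≤ Z0 + L * ρ) :
    ConclC e c w q a z0 ρ r0 Λ y z' ρ' := by
  have ha := aC_pos S hr
  set W : ℝ := max v0 a with hW
  have hWv : v0 ≤ W := le_max_left _ _
  have hWa : a ≤ W := le_max_right _ _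
  have hWw : W ≤ w 0 := max_le hv0' S.a_le0
  set V2 : ℝ := max v2 W with hV2
  have hV2v : v2 ≤ V2 := le_max_left _ _
  have hV2W : W ≤ V2 := le_max_right _ _
  have hV2w : V2 ≤ w 2 := max_le hv2' (hWw.trans S.w0_le)
  refine ⟨e, y, ![W, max v1 V2, V2], fun z x => dt (e 0) (x - y.pos z), W, ?_, ?_, hWa, ?_, hV2w,
    hB2, ?_, ?_⟩
  · exact box_sheetC (w' := ![W, max v1 V2, V2]) S.ortho y (hv0.trans_le hWv) hV2W
      (le_max_right _ _) (S.r0_le.trans hWa)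
  · intro t ht hc hc' z hz hz2
    obtain ⟨s, hs1, hs2, hs3, hs4⟩ := s_bound hρ hL h0 h1 (hz'.trans hz) (hz2.trans hz'')
    have hb : ∀ i, |dt (e i) (t.pos z - y.pos z)| ≤ 2 * Λ * (kapC Λ * w i) := by
      intro i
      rw [hs1, dt_aff]
      exact aff_bound (hs3.trans hLΛ) (hs4.trans hLΛ) (hc i) (hc' i)
    constructor
    · intro i
      fin_cases i
      · exact (hb 0).trans (hc0.trans hWv)
      · exact (hb 1).trans (hc1.trans (le_max_left _ _))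
      · exact (hb 2).trans (hc2.trans hV2v)
    · exact (hb 0).trans (hc0.trans hWv)
  · exact max_le hth (by nlinarith)
  · exact max_le hv1' (hV2w.trans S.w_le)
  · calc w 1 ≤ BBC Λ * v1 := hB1
      _ ≤ BBC Λ * max v1 V2 := mul_le_mul_of_nonneg_left (le_max_left _ _) (by linarith)

/-- the flat case: no rotation -/
theorem caseC_flat (S : ShN e c w q a z0 ρ r0) (hr : 0 < r0) (hρ : 0 < ρ) {L lam Z0 Λ : ℝ}
    (hL : 1 ≤ L) (hl : 0 < lam) (hΛ : 1 ≤ Λ) (hLΛ : L ≤ Λ) (hlam : lam * Λ = L)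
    (h0 : Z0 ≤ z0) (h1 : z0 + ρ ≤ Z0 + L * ρ)
    {y : Ln4} (hy : InSheet y e c w q a z0 ρ) (hcig : 12 * Λ * w 0 ≤ w 2) :
    ∃ zb : ℝ, ∀ z' ρ' : ℝ, Z0 ≤ z' → 0 ≤ ρ' → z' + ρ' ≤ Z0 + L * ρ →
      ρ' ≤ lam * (L * ρ) / 128 → 2 * lam * (L * ρ) ≤ |z' - zb| →
      ConclC e c w q a z0 ρ r0 Λ y z' ρ' := by
  obtain ⟨c0, c1, c2, b, d, g, hq'⟩ := S.isQ
  have hq : QR q c0 c1 c2 b d g := hq'
  clear hq'
  obtain ⟨hκp, hBκ, hBBp, hBB16, hK1, hK2, hK3, hK4, -, -⟩ := constsC hΛ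
  obtain ⟨P0, P1, hPc, ⟨hs0, hs0'⟩, hg0, hg1⟩ := grad_curveC S hr hρ hq hL h0 h1 hy
  have hH := hessC S hr hρ.le hq hy
  have ha := aC_pos S hr
  have hw := wC_pos S hr
  have hw0 := hw 0
  have hw2 := hw 2
  have hw1 := hw 1
  have hw21 := S.w_le
  have hΛp : 0 < Λ := by linarith
  have hΛ2 : 1 ≤ Λ ^ 2 := one_le_pow₀ hΛ
  have hBB1 : 1 ≤ BBC Λ := by linarith
  have hℓp : 0 < L * ρ := by positivity
  have hmu1 : 0 < 2 * (Λ * kapC Λ) := by positivity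
  have hmu0 : 0 < 24 * (Λ ^ 2 * kapC Λ) := by positivity
  have hv02 : 24 * (Λ ^ 2 * kapC Λ) * w 0 ≤ 2 * (Λ * kapC Λ) * w 2 := by
    have := mul_le_mul_of_nonneg_left hcig hmu1.le
    calc _ = 2 * (Λ * kapC Λ) * (12 * Λ * w 0) := by ring
      _ ≤ _ := this
  have hv0' : 24 * (Λ ^ 2 * kapC Λ) * w 0 ≤ w 0 := by
    calc _ ≤ 1 * w 0 := mul_le_mul_of_nonneg_right (by linarith) hw0.le
      _ = w 0 := one_mul _
  have hvi' : ∀ i, 2 * (Λ * kapC Λ) * w i ≤ w i := by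
    intro i
    calc _ ≤ 1 * w i := mul_le_mul_of_nonneg_right (by linarith) (hw i).le
      _ = w i := one_mul _
  have hBi : ∀ i, w i ≤ BBC Λ * (2 * (Λ * kapC Λ) * w i) := by
    intro i
    have e1 : BBC Λ * (2 * (Λ * kapC Λ) * w i) = 2 * Λ * (BBC Λ * kapC Λ) * w i := by ring
    rw [e1, hBκ, mul_one]
    calc w i = 1 * w i := (one_mul _).symm
      _ ≤ _ := mul_le_mul_of_nonneg_right (by linarith) (hw i).le
  have hrat : ∀ i, 24 * (Λ ^ 2 * kapC Λ) * w 0 / (2 * (Λ * kapC Λ) * w i) =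
      12 * Λ * (w 0 / w i) := by
    intro i
    have := hκp.ne'
    have := (hw i).ne'
    field_simp
    ring
  have hsmall : 2 * Λ * (kapC Λ * w 0) ≤ 24 * (Λ ^ 2 * kapC Λ) * w 0 := by
    have h3 : Λ * kapC Λ * w 0 ≤ Λ ^ 2 * kapC Λ * w 0 := mul_le_mul_of_nonneg_right hK3 hw0.le
    have h4 : 0 < Λ ^ 2 * kapC Λ * w 0 := by positivity
    linarith
  by_cases hth : 16 * Λ ^ 2 * a ≤ 24 * (Λ ^ 2 * kapC Λ) * w 0
  · have pr0 : ∀ s, Pc (![P0 0, 0, 0] : V3) ![P1 0, 0, 0] s = ![Pc P0 P1 s 0, 0, 0] := by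
      intro s
      funext i
      fin_cases i
      · rfl
      · show (1 - s) * 0 + s * 0 = 0
        ring
      · show (1 - s) * 0 + s * 0 = 0
        ring
    have dt0 : ∀ u v : ℝ, dt (![u, 0, 0] : V3) ![v, 0, 0] = u * v := by
      intro u v
      show u * v + 0 * 0 + 0 * 0 = _
      ring
    have hc4 : 1 / 4 ≤ dt (Pc (![P0 0, 0, 0] : V3) ![P1 0, 0, 0] ((z0 - Z0) / (L * ρ)))
        (Pc (![P0 0, 0, 0] : V3) ![P1 0, 0, 0] ((z0 - Z0) / (L * ρ))) := by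
      rw [pr0, dt0]
      nlinarith
    obtain ⟨sb, hsb⟩ := curve (![P0 0, 0, 0] : V3) ![P1 0, 0, 0] hl hs0 hs0' hc4
    refine ⟨Z0 + sb * (L * ρ), fun z' ρ' hz' hρ' hz'' hρl hzb => ?_⟩
    obtain ⟨hs, hs', hsl, hpar⟩ := param hℓp hz' hρ' hz'' hρl hzb
    obtain ⟨m', hm', hm2, hcl⟩ := hsb _ hs hs' hsl
    have hmp' : 0 < m' := lt_of_lt_of_le (by positivity) hm'
    set m : ℝ := Pc P0 P1 ((z' - Z0) / (L * ρ)) 0 with hmdef
    have hmm : m' = |m| := by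
      rw [pr0, dt0] at hm2
      rw [← abs_of_pos hmp']
      exact (sq_eq_sq_iff_abs_eq_abs _ _).1 (by rw [hm2]; ring)
    have hm : lam / 2 ≤ |m| := hmm ▸ hm'
    have hmp : 0 < |m| := hmm ▸ hmp'
    have hm0 : m ≠ 0 := abs_pos.1 hmp
    have hmΛ : 1 / 8 ≤ |m| / 4 * Λ := by
      have h3 : lam / 2 * Λ ≤ |m| * Λ := mul_le_mul_of_nonneg_right hm hΛp.le
      linarith
    have hG0 : ∀ z, z' ≤ z → z ≤ z' + ρ' →
        |Gf b d g z (y.pos z) (e 0) - m| ≤ |m| / 64 := by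
      intro z hz hz2
      obtain ⟨hp2, hp3⟩ := hpar z hz hz2
      have hE := hcl _ hp2 hp3
      rw [hPc, ← hmm]
      apply abs_le_of_sq_le_sq _ (by positivity)
      refine le_trans (le_of_eq ?_) hE
      rw [pr0, pr0]
      show _ = (Pc P0 P1 ((z - Z0) / (L * ρ)) 0 - m) * (Pc P0 P1 ((z - Z0) / (L * ρ)) 0 - m) +
        (0 - 0) * (0 - 0) + (0 - 0) * (0 - 0)
      ring
    have hlat : ∀ i, 0 < w 0 / w i → ∀ G : ℝ, |G| ≤ 2 * L * (w 0 / w i) →
        |G| ≤ |m| / 2 * (12 * Λ * (w 0 / w i)) := by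
      intro i hi G hG
      refine hG.trans ?_
      have h4 : 2 * L ≤ |m| / 2 * (12 * Λ) := by
        have h5 : lam / 2 * Λ ≤ |m| * Λ := mul_le_mul_of_nonneg_right hm hΛp.le
        linarith
      calc 2 * L * (w 0 / w i) ≤ |m| / 2 * (12 * Λ) * (w 0 / w i) :=
            mul_le_mul_of_nonneg_right h4 hi.le
        _ = _ := by ring
    have hbf : ∀ k : V3, |dt (e 0) k| ≤ 2 * (24 * (Λ ^ 2 * kapC Λ) * w 0) →
        |dt (e 1) k| ≤ 2 * (2 * (Λ * kapC Λ) * w 1) → |dt (e 2) k| ≤ 2 * (2 * (Λ * kapC Λ) * w 2) →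
        ∀ i, |Bf g k (e i)| ≤ |m| / 4 * (w 0 / w i) := by
      intro k hk0 hk1 hk2 i
      have hk : ∀ j, |dt (e j) k| ≤
          (![48 * (Λ ^ 2 * kapC Λ), 4 * (Λ * kapC Λ), 4 * (Λ * kapC Λ)] : V3) j * w j := by
        intro j
        fin_cases j
        · show _ ≤ 48 * (Λ ^ 2 * kapC Λ) * w 0
          exact hk0.trans (by linarith)
        · show _ ≤ 4 * (Λ * kapC Λ) * w 1
          exact hk1.trans (by linarith)
        · show _ ≤ 4 * (Λ * kapC Λ) * w 2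
          exact hk2.trans (by linarith)
      have hal : ∀ j, 0 ≤
          (![48 * (Λ ^ 2 * kapC Λ), 4 * (Λ * kapC Λ), 4 * (Λ * kapC Λ)] : V3) j := by
        intro j
        fin_cases j
        · show 0 ≤ 48 * (Λ ^ 2 * kapC Λ)
          positivity
        · show 0 ≤ 4 * (Λ * kapC Λ)
          positivity
        · show 0 ≤ 4 * (Λ * kapC Λ)
          positivity
      have h3 : |Bf g k (e i)| * w i ≤
          4 * w 0 * (48 * (Λ ^ 2 * kapC Λ) + 4 * (Λ * kapC Λ) + 4 * (Λ * kapC Λ)) :=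
        bf_boundC S.ortho hw hH hal hk i
      have h4 : 4 * (48 * (Λ ^ 2 * kapC Λ) + 4 * (Λ * kapC Λ) + 4 * (Λ * kapC Λ)) ≤ |m| / 4 := by
        have h5 : 4 * (48 * (Λ ^ 2 * kapC Λ) + 4 * (Λ * kapC Λ) + 4 * (Λ * kapC Λ)) * Λ ≤
            |m| / 4 * Λ := by
          have h6 : 4 * (48 * (Λ ^ 2 * kapC Λ) + 4 * (Λ * kapC Λ) + 4 * (Λ * kapC Λ)) * Λ ≤
              224 * (Λ ^ 2 * kapC Λ) * Λ := mul_le_mul_of_nonneg_right (by linarith) hΛp.le
          linarith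
        exact le_of_mul_le_mul_right h5 hΛp
      have h5 : |Bf g k (e i)| * w i ≤ |m| / 4 * w 0 := by
        refine h3.trans ?_
        have := mul_le_mul_of_nonneg_right h4 hw0.le
        linarith
      rw [← le_div_iff₀ (hw i)] at h5
      rw [← mul_div_assoc]; exact h5
    have hbf' : ∀ k : V3, |dt (e 0) k| ≤ 2 * (24 * (Λ ^ 2 * kapC Λ) * w 0) →
        |dt (e 1) k| ≤ 2 * (2 * (Λ * kapC Λ) * w 1) → |dt (e 2) k| ≤ 2 * (2 * (Λ * kapC Λ) * w 2) →
        ∀ i, |Bf g k (e i)| ≤ |m| / 4 *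
          (24 * (Λ ^ 2 * kapC Λ) * w 0 / (2 * (Λ * kapC Λ) * w i)) := by
      intro k hk0 hk1 hk2 i
      refine (hbf k hk0 hk1 hk2 i).trans ?_
      rw [hrat]
      have h3 : 0 < w 0 / w i := div_pos hw0 (hw i)
      apply mul_le_mul_of_nonneg_left _ (by positivity)
      nlinarith
    have haa : a ≤ 16 * Λ ^ 2 * a := by nlinarith
    refine ⟨e, y, ![24 * (Λ ^ 2 * kapC Λ) * w 0, 2 * (Λ * kapC Λ) * w 1, 2 * (Λ * kapC Λ) * w 2],
      fun z x => q z x / m, 16 * Λ ^ 2 * a, ?_, ?_, haa, ?_, hvi' 2, hBi 2, hvi' 1, hBi 1⟩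
    · refine flat_sheetC (w' := ![24 * (Λ ^ 2 * kapC Λ) * w 0, 2 * (Λ * kapC Λ) * w 1,
        2 * (Λ * kapC Λ) * w 2]) S.ortho hq y hm0 (mul_pos hmu0 hw0) hth hv02 ?_
        (S.r0_le.trans haa) hG0 ?_ ?_ ?_ ?_ ?_
      · exact mul_le_mul_of_nonneg_left hw21 hmu1.le
      · intro z hz hz2
        show _ ≤ |m| / 2 * (24 * (Λ ^ 2 * kapC Λ) * w 0 / (2 * (Λ * kapC Λ) * w 1))
        rw [hrat]
        exact hlat 1 (div_pos hw0 hw1) _ (hg1 z (hz'.trans hz) (hz2.trans hz'')).1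
      · intro z hz hz2
        show _ ≤ |m| / 2 * (24 * (Λ ^ 2 * kapC Λ) * w 0 / (2 * (Λ * kapC Λ) * w 2))
        rw [hrat]
        exact hlat 2 (div_pos hw0 hw2) _ (hg1 z (hz'.trans hz) (hz2.trans hz'')).2
      · intro k hk
        have := hbf k (hk 0) (hk 1) (hk 2) 0
        rw [div_self hw0.ne', mul_one] at this
        exact this
      · intro k hk
        exact hbf' k (hk 0) (hk 1) (hk 2) 1
      · intro k hk
        exact hbf' k (hk 0) (hk 1) (hk 2) 2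
    · intro t ht hc hc' z hz hz2
      obtain ⟨s, hs1, hs2, hs3, hs4⟩ := s_bound hρ hL h0 h1 (hz'.trans hz) (hz2.trans hz'')
      have hbb : ∀ i, |dt (e i) (t.pos z - y.pos z)| ≤ 2 * Λ * (kapC Λ * w i) := by
        intro i
        rw [hs1, dt_aff]
        exact aff_bound (hs3.trans hLΛ) (hs4.trans hLΛ) (hc i) (hc' i)
      constructor
      · intro i
        fin_cases i
        · exact (hbb 0).trans hsmall
        · exact (hbb 1).trans (le_of_eq (by show _ = 2 * (Λ * kapC Λ) * w 1; ring))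
        · exact (hbb 2).trans (le_of_eq (by show _ = 2 * (Λ * kapC Λ) * w 2; ring))
      · have h2 := q_ext hq hρ ht hL hs3 hs4
        rw [← hs2] at h2
        show |q z (t.pos z) / m| ≤ _
        rw [abs_div, div_le_iff₀ hmp]
        refine h2.trans ?_
        have h4 : (8 : ℝ) * L ^ 2 ≤ 16 * Λ ^ 2 * |m| := by
          have h5 : L * L ≤ L * Λ := mul_le_mul_of_nonneg_left hLΛ (by linarith)
          have h6 : L * Λ = lam * Λ ^ 2 := by rw [← hlam]; ring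
          have h7 : lam / 2 * Λ ^ 2 ≤ |m| * Λ ^ 2 := mul_le_mul_of_nonneg_right hm (sq_nonneg _)
          nlinarith
        calc 8 * L ^ 2 * a ≤ 16 * Λ ^ 2 * |m| * a := mul_le_mul_of_nonneg_right h4 ha.le
          _ = 16 * Λ ^ 2 * a * |m| := by ring
    · exact mul_le_mul_of_nonneg_right (by linarith) ha.le
  · refine ⟨0, fun z' ρ' hz' hρ' hz'' hρl hzb => ?_⟩
    push Not at hth
    refine conclC_box S hr hρ hL hΛ hLΛ h0 h1 (mul_pos hmu0 hw0) (hvi' 2) (hvi' 1) hv0' ?_ (hBi 1)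
      hsmall ?_ ?_ ?_ hBB1 hz' hz''
    · exact (hBi 2).trans (mul_le_mul_of_nonneg_left (le_max_left _ _) hBBp.le)
    · exact le_of_eq (by ring)
    · exact le_of_eq (by ring)
    · exact hth.le.trans (mul_le_mul_of_nonneg_right (by linarith) ha.le)

/-- the cigar case: the sub-cigar around `y` -/
theorem caseC_cigar (S : ShN e c w q a z0 ρ r0) (hr : 0 < r0) (hρ : 0 < ρ) {L lam Z0 : ℝ}
    (hL : 1 ≤ L) (hl : 0 < lam) (hl' : lam ≤ 1) (h0 : Z0 ≤ z0) (h1 : z0 + ρ ≤ Z0 + L * ρ)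
    {y : Ln4} (hy : InSheet y e c w q a z0 ρ) (hcig : w 2 ≤ 12 * (L / lam) * w 0) :
    ∃ zb : ℝ, ∀ z' ρ' : ℝ, Z0 ≤ z' → 0 ≤ ρ' → z' + ρ' ≤ Z0 + L * ρ →
      ρ' ≤ lam * (L * ρ) / 128 → 2 * lam * (L * ρ) ≤ |z' - zb| →
      ConclC e c w q a z0 ρ r0 (L / lam) y z' ρ' := by
  have hΛ : 1 ≤ L / lam := by rw [le_div_iff₀ hl]; linarith
  have hLΛ : L ≤ L / lam := by rw [le_div_iff₀ hl]; nlinarith
  obtain ⟨hκp, hBκ, hBBp, hBB16, hK1, hK2, hK3, hK4, hkk, hBB⟩ := constsC hΛ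
  obtain ⟨hκp', hBκ', hBBp', hBB1', -⟩ := consts hΛ
  have ha := aC_pos S hr
  have hw := wC_pos S hr
  have hw0 := hw 0
  have hw2 := hw 2
  have hw1 := hw 1
  have hw21 := S.w_le
  have hw02 := S.w0_le
  have hΛp : 0 < L / lam := by linarith
  have hΛ2 : 1 ≤ (L / lam) ^ 2 := one_le_pow₀ hΛ
  have hBB1 : 1 ≤ BBC (L / lam) := by linarith
  by_cases hth : a ≤ w 0 / 2
  · -- the sub-cigar
    have S' : ShN0 e y ![w 0 / 2, w 1 / 2, w 0 / 2] q a z0 ρ r0 := by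
      have hsub : ∀ z, z0 ≤ z → z ≤ z0 + ρ → ∀ x : V3,
          InK e y (dbl3 ![w 0 / 2, w 1 / 2, w 0 / 2]) z x → InK e c (dbl3 w) z x := by
        intro z hz hz' x hx j
        have hyj := (hy z hz hz').1 j
        have hxj := hx j
        have e1 : dt (e j) (x - c.pos z) = dt (e j) (x - y.pos z) + dt (e j) (y.pos z - c.pos z) := by
          simp only [dt, Pi.sub_apply]; ring
        rw [e1]
        refine (abs_add_le _ _).trans ?_
        show _ ≤ 2 * w j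
        have h5 : dbl3 ![w 0 / 2, w 1 / 2, w 0 / 2] j ≤ w j := by
          fin_cases j
          · show 2 * (w 0 / 2) ≤ w 0
            linarith
          · show 2 * (w 1 / 2) ≤ w 1
            linarith
          · show 2 * (w 0 / 2) ≤ w 2
            linarith
        linarith
      refine ⟨S.ortho, S.isQ, rfl, hth, ?_, S.r0_le, ?_, ?_, ?_⟩
      · show w 0 / 2 ≤ w 1 / 2
        linarith
      · intro z hz hz' x τ hτ h3 h4
        exact S.st0 z hz hz' x τ hτ (hsub z hz hz' x h3) (hsub z hz hz' _ h4)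
      · intro z hz hz' x τ hτ h3 h4
        refine (S.sl1 z hz hz' x τ hτ (hsub z hz hz' x h3) (hsub z hz hz' _ h4)).trans ?_
        show _ ≤ w 0 / 2 / (w 1 / 2) * τ
        have : w 0 / 2 / (w 1 / 2) = w 0 / w 1 := by field_simp
        rw [this]
      · intro z hz hz' x τ hτ h3 h4
        refine (S.sl2 z hz hz' x τ hτ (hsub z hz hz' x h3) (hsub z hz hz' _ h4)).trans ?_
        have h6 : w 0 / w 2 ≤ 1 := by rw [div_le_one hw2]; exact hw02
        calc w 0 / w 2 * τ ≤ 1 * τ := mul_le_mul_of_nonneg_right h6 hτ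
          _ = τ := one_mul τ
    have hy' : InSheet y e y ![w 0 / 2, w 1 / 2, w 0 / 2] q a z0 ρ := by
      intro z hz hz'
      refine ⟨fun i => ?_, (hy z hz hz').2⟩
      rw [sub_self]
      have : dt (e i) 0 = 0 := by simp [dt]
      rw [this, abs_zero]
      fin_cases i
      · show 0 ≤ w 0 / 2
        linarith
      · show 0 ≤ w 1 / 2
        linarith
      · show 0 ≤ w 0 / 2
        linarith
    obtain ⟨zb, hzb⟩ := ub_one S' hr hρ hL hl hl' h0 h1 hy'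
    refine ⟨zb, fun z' ρ' hz' hρ' hz'' hρl hz3 => ?_⟩
    obtain ⟨e', c', w', q', a', hS', hin, ha1, ha2, hw2a, hw2b, hw1a, hw1b⟩ :=
      hzb z' ρ' hz' hρ' hz'' hρl hz3
    have hw2a' : w' 2 ≤ w 0 / 2 := hw2a
    have hw2b' : w 0 / 2 ≤ BB (L / lam) * w' 2 := hw2b
    have hw1a' : w' 1 ≤ w 1 / 2 := hw1a
    have hw1b' : w 1 / 2 ≤ BB (L / lam) * w' 1 := hw1b
    have hBBle : 24 * (L / lam) * BB (L / lam) ≤ BBC (L / lam) := by
      rw [← hBB]
      have : 0 < (L / lam) * BB (L / lam) := by positivity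
      linarith
    have hBBle1 : BB (L / lam) ≤ BBC (L / lam) := by nlinarith
    have hBBle2 : 2 * BB (L / lam) ≤ BBC (L / lam) := by nlinarith
    -- comparison of the closeness conditions
    have hclose : ∀ i (G : ℝ), |G| ≤ kapC (L / lam) * w i →
        |G| ≤ kap (L / lam) * (![w 0 / 2, w 1 / 2, w 0 / 2] : V3) i := by
      intro i G hG
      refine hG.trans ?_
      rw [← hkk]
      have hbase : ∀ u v : ℝ, 0 < v → u ≤ 32 * (L / lam) * v →
          kapC (L / lam) * u ≤ 64 * (L / lam) * kapC (L / lam) * (v / 2) := by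
        intro u v hv huv
        have := mul_le_mul_of_nonneg_left huv hκp.le
        linarith
      fin_cases i
      · exact hbase (w 0) (w 0) hw0 (by nlinarith)
      · exact hbase (w 1) (w 1) hw1 (by nlinarith)
      · exact hbase (w 2) (w 0) hw0 (by nlinarith)
    refine ⟨e', c', w', q', a', ShN0.toN hS', ?_, ha1, ?_, ?_, ?_, ?_, ?_⟩
    · intro t ht hc hc'
      have ht' : InSheet t e y ![w 0 / 2, w 1 / 2, w 0 / 2] q a z0 ρ := by
        intro z hz hz4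
        refine ⟨fun i => ?_, (ht z hz hz4).2⟩
        have e1 : z = (1 - (z - z0) / ρ) * z0 + (z - z0) / ρ * (z0 + ρ) := by field_simp; ring
        have hs1 : 0 ≤ (z - z0) / ρ := div_nonneg (by linarith) hρ.le
        have hs2 : (z - z0) / ρ ≤ 1 := by rw [div_le_one hρ]; linarith
        rw [e1, dt_aff]
        set s := (z - z0) / ρ with hs
        have k1 := hclose i _ (hc i)
        have k2 := hclose i _ (hc' i)
        have hkap1 : kap (L / lam) ≤ 1 := by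
          have : kap (L / lam) = 64 * ((L / lam) * kapC (L / lam)) := by rw [← hkk]; ring
          rw [this]
          linarith
        have hwi : 0 ≤ (![w 0 / 2, w 1 / 2, w 0 / 2] : V3) i := by
          fin_cases i
          · show 0 ≤ w 0 / 2
            linarith
          · show 0 ≤ w 1 / 2
            linarith
          · show 0 ≤ w 0 / 2
            linarith
        have k3 : kap (L / lam) * (![w 0 / 2, w 1 / 2, w 0 / 2] : V3) i ≤
            (![w 0 / 2, w 1 / 2, w 0 / 2] : V3) i := by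
          calc _ ≤ 1 * (![w 0 / 2, w 1 / 2, w 0 / 2] : V3) i :=
                mul_le_mul_of_nonneg_right hkap1 hwi
            _ = _ := one_mul _
        have k1' := k1.trans k3
        have k2' := k2.trans k3
        refine (abs_add_le _ _).trans ?_
        rw [abs_mul, abs_mul, abs_of_nonneg hs1, abs_of_nonneg (by linarith : 0 ≤ 1 - s)]
        have k4 := mul_le_mul_of_nonneg_left k1' (by linarith : 0 ≤ 1 - s)
        have k5 := mul_le_mul_of_nonneg_left k2' hs1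
        linarith
      exact hin t ht' (fun i => hclose i _ (hc i)) (fun i => hclose i _ (hc' i))
    · exact ha2.trans (mul_le_mul_of_nonneg_right hBBle1 ha.le)
    · linarith
    · calc w 2 ≤ 12 * (L / lam) * w 0 := hcig
        _ = 24 * (L / lam) * (w 0 / 2) := by ring
        _ ≤ 24 * (L / lam) * (BB (L / lam) * w' 2) :=
            mul_le_mul_of_nonneg_left hw2b' (by positivity)
        _ = 24 * (L / lam) * BB (L / lam) * w' 2 := by ring
        _ ≤ BBC (L / lam) * w' 2 := by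
            apply mul_le_mul_of_nonneg_right hBBle
            have : 0 < BB (L / lam) * w' 2 := lt_of_lt_of_le (by linarith) hw2b'
            exact ((mul_pos_iff_of_pos_left hBBp').1 this).le
    · linarith
    · calc w 1 = 2 * (w 1 / 2) := by ring
        _ ≤ 2 * (BB (L / lam) * w' 1) := mul_le_mul_of_nonneg_left hw1b' (by norm_num)
        _ = 2 * BB (L / lam) * w' 1 := by ring
        _ ≤ BBC (L / lam) * w' 1 := by
            apply mul_le_mul_of_nonneg_right hBBle2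
            have : 0 < BB (L / lam) * w' 1 := lt_of_lt_of_le (by linarith) hw1b'
            exact ((mul_pos_iff_of_pos_left hBBp').1 this).le
  · -- thick
    push Not at hth
    refine ⟨0, fun z' ρ' hz' hρ' hz'' hρl hzb => ?_⟩
    have hsm : ∀ i, 2 * (L / lam) * (kapC (L / lam) * w i) ≤ w i := by
      intro i
      calc _ = 2 * ((L / lam) * kapC (L / lam)) * w i := by ring
        _ ≤ 1 * w i := mul_le_mul_of_nonneg_right (by linarith) (hw i).le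
        _ = w i := one_mul _
    have hp0 : 0 < 2 * (L / lam) * (kapC (L / lam) * w 0) := by positivity
    refine conclC_box S hr hρ hL hΛ hLΛ h0 h1 hp0 (hsm 2) (hsm 1) (hsm 0) ?_ ?_ le_rfl le_rfl
      le_rfl ?_ hBB1 hz' hz''
    · calc w 2 ≤ 12 * (L / lam) * w 0 := hcig
        _ ≤ 24 * (L / lam) * a := by nlinarith
        _ ≤ BBC (L / lam) * a := by
            apply mul_le_mul_of_nonneg_right _ ha.le
            nlinarith
        _ ≤ _ := by
            apply mul_le_mul_of_nonneg_left _ hBBp.le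
            exact (le_max_right _ _).trans (le_max_right _ _)
    · have e1 : BBC (L / lam) * (2 * (L / lam) * (kapC (L / lam) * w 1)) =
        2 * (L / lam) * (BBC (L / lam) * kapC (L / lam)) * w 1 := by ring
      rw [e1, hBκ, mul_one]
      nlinarith
    · have h5 := hsm 0
      nlinarith

/-- **one sheet, class ShN** -/
theorem ub_oneC (S : ShN e c w q a z0 ρ r0) (hr : 0 < r0) (hρ : 0 < ρ) {L lam Z0 : ℝ}
    (hL : 1 ≤ L) (hl : 0 < lam) (hl' : lam ≤ 1) (h0 : Z0 ≤ z0) (h1 : z0 + ρ ≤ Z0 + L * ρ)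
    {y : Ln4} (hy : InSheet y e c w q a z0 ρ) :
    ∃ zb : ℝ, ∀ z' ρ' : ℝ, Z0 ≤ z' → 0 ≤ ρ' → z' + ρ' ≤ Z0 + L * ρ →
      ρ' ≤ lam * (L * ρ) / 128 → 2 * lam * (L * ρ) ≤ |z' - zb| →
      ∃ (e' : Fin 3 → V3) (c' : Ln4) (w' : V3) (q' : ℝ → V3 → ℝ) (a' : ℝ),
        ShN e' c' w' q' a' z' ρ' r0 ∧
        (∀ t : Ln4, InSheet t e c w q a z0 ρ →
          (∀ i, |dt (e i) (t.pos z0 - y.pos z0)| ≤ kapC (L / lam) * w i) →
          (∀ i, |dt (e i) (t.pos (z0 + ρ) - y.pos (z0 + ρ))| ≤ kapC (L / lam) * w i) →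
          InSheet t e' c' w' q' a' z' ρ') ∧
        a ≤ a' ∧ a' ≤ BBC (L / lam) * a ∧ w' 2 ≤ w 2 ∧ w 2 ≤ BBC (L / lam) * w' 2 ∧
        w' 1 ≤ w 1 ∧ w 1 ≤ BBC (L / lam) * w' 1 := by
  have hlam : lam * (L / lam) = L := by field_simp
  have hΛ : 1 ≤ L / lam := by rw [le_div_iff₀ hl]; linarith
  have hLΛ : L ≤ L / lam := by
    rw [le_div_iff₀ hl]; nlinarith
  rcases le_total (12 * (L / lam) * w 0) (w 2) with h | h
  · exact caseC_flat S hr hρ hL hl hΛ hLΛ hlam h0 h1 hy h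
  · exact caseC_cigar S hr hρ hL hl hl' h0 h1 hy h

end basicC

end

end Crest.Agent.R136.UB861
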