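import Crest.Agent.R136.Crf1_861
import Crest.Agent.R136.UB3_861

/-!
# R136 (S0187), U5 crude tilt, flat half (helper861), part 2: one class against the container

`crudeA` : the gradient of the container is almost normal to a near-maximal flat box;
`spread`, `axisB` : the wide axis; `pair6` : six entries of the transition matrix of two flat boxes.
-/

set_option autoImplicit false
set_option linter.unusedVariables false
set_option linter.unusedSectionVars false

open Finset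

namespace Crest.Agent.R136.Crf861

open Sh605 Crest.Agent.R136.UB861

/-- three good heights -/
theorem good3 {β0 β1 : ℝ} (h0 : |β0| ≤ 1) (h1 : |β1| ≤ 1) (h : |β0| = 1 ∨ |β1| = 1) :
    ∃ j : Fin 3 → ℝ, (∀ k, 0 ≤ j k ∧ j k ≤ 1) ∧ (∀ k l, k ≠ l → 1 / 4 ≤ |j k - j l|) ∧
      ∀ k, 1 / 16 ≤ |(1 - j k) * β0 + j k * β1| := by
  have key : ∀ x y : ℝ, |x| ≤ 1 → |y| = 1 → 1 / 16 ≤ |(1 - 1 / 2) * x + 1 / 2 * y| ∨
      1 / 16 ≤ |(1 - 1 / 4) * x + 1 / 4 * y| := by
    intro x y hx hy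
    by_contra hc
    push Not at hc
    obtain ⟨c1, c2⟩ := hc
    rw [abs_lt] at c1 c2
    rw [abs_le] at hx
    rcases abs_eq (zero_le_one) |>.1 hy with hy | hy <;> subst hy <;> linarith [c1.1, c1.2, c2.1, c2.2]
  have q34 : ∀ x y : ℝ, |x| ≤ 1 → |y| = 1 → 1 / 16 ≤ |(1 - 3 / 4) * x + 3 / 4 * y| := by
    intro x y hx hy
    rw [abs_le] at hx
    rcases abs_eq (zero_le_one) |>.1 hy with hy | hy
    · subst hy
      refine le_trans ?_ (le_abs_self _); linarith [hx.1]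
    · subst hy
      refine le_trans ?_ (neg_le_abs _); linarith [hx.2]
  rcases h with h | h
  · rcases key β1 β0 h1 h with hk | hk
    · refine ⟨![0, 1 / 4, 1 / 2], ?_, ?_, ?_⟩
      · intro k; fin_cases k <;> simp <;> norm_num
      · intro k l hkl
        fin_cases k <;> fin_cases l <;> simp at hkl ⊢ <;> norm_num [abs_of_pos, abs_of_neg]
      · intro k
        fin_cases k
        · simp [h]; norm_num
        · have := q34 β1 β0 h1 h
          simp only [Fin.mk_one, Matrix.cons_val_one, Matrix.cons_val_zero]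
          rw [show (1 - 1 / 4) * β0 + 1 / 4 * β1 = (1 - 3 / 4) * β1 + 3 / 4 * β0 by ring]
          exact this
        · simp only [Fin.reduceFinMk, Matrix.cons_val]
          rw [show (1 - 1 / 2) * β0 + 1 / 2 * β1 = (1 - 1 / 2) * β1 + 1 / 2 * β0 by ring]
          exact hk
    · refine ⟨![0, 1 / 4, 3 / 4], ?_, ?_, ?_⟩
      · intro k; fin_cases k <;> simp <;> norm_num
      · intro k l hkl
        fin_cases k <;> fin_cases l <;> simp at hkl ⊢ <;> norm_num [abs_of_pos, abs_of_neg]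
      · intro k
        fin_cases k
        · simp [h]; norm_num
        · have := q34 β1 β0 h1 h
          simp only [Fin.mk_one, Matrix.cons_val_one, Matrix.cons_val_zero]
          rw [show (1 - 1 / 4) * β0 + 1 / 4 * β1 = (1 - 3 / 4) * β1 + 3 / 4 * β0 by ring]
          exact this
        · simp only [Fin.reduceFinMk, Matrix.cons_val]
          rw [show (1 - 3 / 4) * β0 + 3 / 4 * β1 = (1 - 1 / 4) * β1 + 1 / 4 * β0 by ring]
          exact hk
  · rcases key β0 β1 h0 h with hk | hk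
    · refine ⟨![1, 3 / 4, 1 / 2], ?_, ?_, ?_⟩
      · intro k; fin_cases k <;> simp <;> norm_num
      · intro k l hkl
        fin_cases k <;> fin_cases l <;> simp at hkl ⊢ <;> norm_num [abs_of_pos, abs_of_neg]
      · intro k
        fin_cases k
        · simp [h]; norm_num
        · exact q34 β0 β1 h0 h
        · exact hk
    · refine ⟨![1, 3 / 4, 1 / 4], ?_, ?_, ?_⟩
      · intro k; fin_cases k <;> simp <;> norm_num
      · intro k l hkl
        fin_cases k <;> fin_cases l <;> simp at hkl ⊢ <;> norm_num [abs_of_pos, abs_of_neg]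
      · intro k
        fin_cases k
        · simp [h]; norm_num
        · exact q34 β0 β1 h0 h
        · exact hk

/-- affine functions are controlled by two heights at distance `≥ 1/4` -/
theorem aff_ctl {A B u v s σ : ℝ} (hu : 0 ≤ u) (hu' : u ≤ 1) (hv : 0 ≤ v) (hv' : v ≤ 1)
    (hs : 0 ≤ s) (hs' : s ≤ 1) (huv : 1 / 4 ≤ |u - v|)
    (h1 : |(1 - u) * A + u * B| ≤ σ) (h2 : |(1 - v) * A + v * B| ≤ σ) :
    |(1 - s) * A + s * B| ≤ 8 * σ := by
  have hσ : 0 ≤ σ := (abs_nonneg _).trans h1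
  have e : ((1 - s) * A + s * B) * (u - v) =
      (s - v) * ((1 - u) * A + u * B) - (s - u) * ((1 - v) * A + v * B) := by ring
  have e1 : |(s - v) * ((1 - u) * A + u * B)| ≤ 1 * σ := by
    rw [abs_mul]
    exact mul_le_mul (abs_le.2 ⟨by linarith, by linarith⟩) h1 (abs_nonneg _) zero_le_one
  have e2 : |(s - u) * ((1 - v) * A + v * B)| ≤ 1 * σ := by
    rw [abs_mul]
    exact mul_le_mul (abs_le.2 ⟨by linarith, by linarith⟩) h2 (abs_nonneg _) zero_le_one
  have e3 : |((1 - s) * A + s * B) * (u - v)| ≤ 2 * σ := by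
    rw [e]
    rw [abs_le] at e1 e2 ⊢
    constructor <;> linarith
  rw [abs_mul] at e3
  nlinarith [abs_nonneg ((1 - s) * A + s * B)]

/-- centre of a thin tube inside a flat box -/
def ctr (e : Fin 3 → V3) (c T : Ln4) : Ln4 :=
  ⟨T.p - dt (e 0) (T.p - c.p) • e 0, T.v - dt (e 0) (T.v - c.v) • e 0⟩

theorem ctr_pos (e : Fin 3 → V3) (c T : Ln4) (z : ℝ) :
    (ctr e c T).pos z = T.pos z - dt (e 0) (T.pos z - c.pos z) • e 0 := by
  funext i
  simp only [ctr, Ln4.pos, dt, Pi.sub_apply, Pi.smul_apply, smul_eq_mul]; ring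

theorem ctr0 {e : Fin 3 → V3} (he : Ortho e) (c T : Ln4) (z : ℝ) (x : V3) :
    dt (e 0) (x - (ctr e c T).pos z) = dt (e 0) (x - c.pos z) := by
  rw [ctr_pos]
  have h0 : dt (e 0) (e 0) = 1 := by simpa using he 0 0
  have : x - (T.pos z - dt (e 0) (T.pos z - c.pos z) • e 0) =
      (x - T.pos z) + dt (e 0) (T.pos z - c.pos z) • e 0 := by abel
  rw [this, dt_add, dt_smul, h0]
  simp only [dt, Pi.sub_apply]; ring

theorem ctrk {e : Fin 3 → V3} (he : Ortho e) (c T : Ln4) (z : ℝ) (x : V3) {k : Fin 3}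
    (hk : k ≠ 0) : dt (e k) (x - (ctr e c T).pos z) = dt (e k) (x - T.pos z) := by
  rw [ctr_pos]
  have h0 : dt (e k) (e 0) = 0 := by rw [he k 0, if_neg hk]
  have : x - (T.pos z - dt (e 0) (T.pos z - c.pos z) • e 0) =
      (x - T.pos z) + dt (e 0) (T.pos z - c.pos z) • e 0 := by abel
  rw [this, dt_add, dt_smul, h0]
  ring

/-- box membership over a cell -/
def InBx (t : Ln4) (e : Fin 3 → V3) (c : Ln4) (s0 s1 s2 z0 ρ : ℝ) : Prop :=
  ∀ z, z0 ≤ z → z ≤ z0 + ρ → |dt (e 0) (t.pos z - c.pos z)| ≤ s0 ∧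
    |dt (e 1) (t.pos z - c.pos z)| ≤ s1 ∧ |dt (e 2) (t.pos z - c.pos z)| ≤ s2

section

variable {e f : Fin 3 → V3} {c cK : Ln4} {W : V3} {q : ℝ → V3 → ℝ} {a w1 w2 aK z0 ρ zK ρK rK : ℝ}
variable {k0 k1 k2 : ℝ} {b d : V3} {g : Fin 3 → Fin 3 → ℝ}

/-- increments of `q` along the frame of `S` -/
theorem q_inc (he : Ortho e) (hq : QR q k0 k1 k2 b d g) (z : ℝ) (x Δ : V3) :
    q z (x + Δ) - q z x =
      (dt (e 1) Δ * Gf b d g z x (e 1) + dt (e 2) Δ * Gf b d g z x (e 2) +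
        (dt (e 1) Δ) ^ 2 * (Bf g (e 1) (e 1) / 2) +
        2 * (dt (e 1) Δ * dt (e 2) Δ) * (Bf g (e 1) (e 2) / 2) +
        (dt (e 2) Δ) ^ 2 * (Bf g (e 2) (e 2) / 2)) +
      (dt (e 0) Δ * Gf b d g z x (e 0) + dt (e 0) Δ * Bf g Δ (e 0) -
        (dt (e 0) Δ) ^ 2 / 2 * Bf g (e 0) (e 0)) := by
  have h1 := q_diff hq z x Δ 1
  rw [one_smul, one_mul, Gf_shift, Bf_smul] at h1
  have h2 : Gf b d g z x Δ = dt (e 0) Δ * Gf b d g z x (e 0) + dt (e 1) Δ * Gf b d g z x (e 1) +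
      dt (e 2) Δ * Gf b d g z x (e 2) := by
    conv_lhs => rw [expand_lc he Δ]
    rw [Gf_lc]
  have hc : ∀ u v : V3, Bf g u v = Bf g v u := by
    intro u v
    simp only [Bf, Fin.sum_univ_three]; ring
  have h3 : ∀ u : V3, Bf g u Δ = dt (e 0) Δ * Bf g u (e 0) + dt (e 1) Δ * Bf g u (e 1) +
      dt (e 2) Δ * Bf g u (e 2) := by
    intro u
    conv_lhs => rw [expand_lc he Δ]
    rw [Bf_lc]
  rw [h1, h2, h3 Δ, hc Δ (e 0), hc Δ (e 1), hc Δ (e 2), h3 (e 0), h3 (e 1), h3 (e 2),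
    hc (e 1) (e 0), hc (e 2) (e 0), hc (e 2) (e 1)]
  ring

/-- bounds for the part of the increment normal to `S` -/
theorem err_le (S : ShN f cK W q aK zK ρK rK) (hr : 0 < rK) (hρK : 0 ≤ ρK)
    (hq : QR q k0 k1 k2 b d g) (he : Ortho e) {t T : Ln4} (ht : InSheet t f cK W q aK zK ρK)
    (hT : InSheet T f cK W q aK zK ρK) {z X : ℝ} (hz : zK ≤ z) (hz' : z ≤ zK + ρK) (ha : 0 < a)
    (h0 : |dt (e 0) (t.pos z - T.pos z)| ≤ 2 * a) (hX : 1 ≤ X) (haW : a ≤ X * W 0) :
    |dt (e 0) (t.pos z - T.pos z) * Gf b d g z (T.pos z) (e 0) +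
        dt (e 0) (t.pos z - T.pos z) * Bf g (t.pos z - T.pos z) (e 0) -
        (dt (e 0) (t.pos z - T.pos z)) ^ 2 / 2 * Bf g (e 0) (e 0)| ≤ 230 * X * a := by
  have hw := wC_pos S hr
  have hTK := (hT z hz hz').1
  have htK := (ht z hz hz').1
  set Δ := t.pos z - T.pos z with hΔ
  have hent : ∀ i, |dt (f i) (e 0)| ≤ 1 := by
    intro i
    have h1 := parseval S.ortho (e 0)
    have h2 : dt (e 0) (e 0) = 1 := by simpa using he 0 0
    rw [h2] at h1
    apply abs_le_of_sq_le_sq _ zero_le_one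
    have p0 := sq_nonneg (dt (f 0) (e 0))
    have p1 := sq_nonneg (dt (f 1) (e 0))
    have p2 := sq_nonneg (dt (f 2) (e 0))
    fin_cases i <;> simp only [Fin.zero_eta, Fin.mk_one, Fin.reduceFinMk] <;> linarith
  -- gradient
  have hG := gradC S hr hq hz hz' (x := T.pos z) (fun j => by
    have := hTK j; have := hw j; linarith)
  have r1 : W 0 / W 1 ≤ 1 := div_le_one_of_le₀ (S.w0_le.trans S.w_le) (hw 1).le
  have r2 : W 0 / W 2 ≤ 1 := div_le_one_of_le₀ S.w0_le (hw 2).le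
  have hG0 : |Gf b d g z (T.pos z) (e 0)| ≤ 4 := by
    have e1 : Gf b d g z (T.pos z) (e 0) = dt (f 0) (e 0) * Gf b d g z (T.pos z) (f 0) +
        dt (f 1) (e 0) * Gf b d g z (T.pos z) (f 1) +
        dt (f 2) (e 0) * Gf b d g z (T.pos z) (f 2) := by
      conv_lhs => rw [expand_lc S.ortho (e 0)]
      rw [Gf_lc]
    have a0 : |dt (f 0) (e 0) * Gf b d g z (T.pos z) (f 0)| ≤ 1 * 2 := by
      rw [abs_mul]
      exact mul_le_mul (hent 0) (abs_le.2 ⟨by linarith [hG.1.1], hG.1.2⟩) (abs_nonneg _) zero_le_one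
    have a1 : |dt (f 1) (e 0) * Gf b d g z (T.pos z) (f 1)| ≤ 1 * 1 := by
      rw [abs_mul]
      exact mul_le_mul (hent 1) (hG.2.1.trans r1) (abs_nonneg _) zero_le_one
    have a2 : |dt (f 2) (e 0) * Gf b d g z (T.pos z) (f 2)| ≤ 1 * 1 := by
      rw [abs_mul]
      exact mul_le_mul (hent 2) (hG.2.2.trans r2) (abs_nonneg _) zero_le_one
    rw [e1]
    rw [abs_le] at a0 a1 a2 ⊢
    constructor <;> linarith
  -- mixed second derivative
  have hH := fun j i => hessC S hr hρK hq hT j i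
  have hΔK : ∀ j, |dt (f j) Δ| ≤ (fun _ => (2 : ℝ) : V3) j * W j := by
    intro j
    have e1 : dt (f j) Δ = dt (f j) (t.pos z - cK.pos z) - dt (f j) (T.pos z - cK.pos z) := by
      rw [hΔ]; simp only [dt, Pi.sub_apply]; ring
    have a1 := htK j
    have a2 := hTK j
    show |dt (f j) Δ| ≤ 2 * W j
    rw [e1]
    rw [abs_le] at a1 a2 ⊢
    constructor <;> linarith
  have hB : ∀ i, |Bf g Δ (f i)| * W i ≤ 4 * W 0 * ((fun _ => (2 : ℝ) : V3) 0 +
      (fun _ => (2 : ℝ) : V3) 1 + (fun _ => (2 : ℝ) : V3) 2) :=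
    fun i => bf_boundC S.ortho hw hH (fun _ => by norm_num) hΔK i
  have hW0 : ∀ i, W 0 ≤ W i := by
    intro i
    fin_cases i
    · exact le_rfl
    · exact S.w0_le.trans S.w_le
    · exact S.w0_le
  have hB' : ∀ i, |Bf g Δ (f i)| ≤ 24 := by
    intro i
    have h1 := hB i
    have h2 := hW0 i
    have h3 := hw i
    have h4 : |Bf g Δ (f i)| * W i ≤ 24 * W i := by
      simp only at h1
      nlinarith
    exact le_of_mul_le_mul_right h4 h3
  have hBe : |Bf g Δ (e 0)| ≤ 72 := by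
    have e1 : Bf g Δ (e 0) = dt (f 0) (e 0) * Bf g Δ (f 0) + dt (f 1) (e 0) * Bf g Δ (f 1) +
        dt (f 2) (e 0) * Bf g Δ (f 2) := by
      conv_lhs => rw [expand_lc S.ortho (e 0)]
      rw [Bf_lc]
    have a0 : ∀ i, |dt (f i) (e 0) * Bf g Δ (f i)| ≤ 1 * 24 := fun i => by
      rw [abs_mul]
      exact mul_le_mul (hent i) (hB' i) (abs_nonneg _) zero_le_one
    have b0 := a0 0
    have b1 := a0 1
    have b2 := a0 2
    rw [e1]
    rw [abs_le] at b0 b1 b2 ⊢
    constructor <;> linarith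
  -- pure second derivative
  have hBff : ∀ i j, |Bf g (f i) (f j)| ≤ 4 / W 0 := by
    intro i j
    rw [le_div_iff₀ (hw 0)]
    have h1 := hH i j
    have h2 : |Bf g (f i) (f j)| * (W 0 * W 0) ≤ |Bf g (f i) (f j)| * (W i * W j) :=
      mul_le_mul_of_nonneg_left (mul_le_mul (hW0 i) (hW0 j) (hw 0).le (hw i).le) (abs_nonneg _)
    have h3 : (|Bf g (f i) (f j)| * W 0) * W 0 ≤ 4 * W 0 := by
      calc _ = |Bf g (f i) (f j)| * (W 0 * W 0) := by ring
        _ ≤ _ := h2.trans h1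
    exact le_of_mul_le_mul_right h3 (hw 0)
  have hBfe : ∀ i, |Bf g (f i) (e 0)| ≤ 12 / W 0 := by
    intro i
    have e1 : Bf g (f i) (e 0) = dt (f 0) (e 0) * Bf g (f i) (f 0) +
        dt (f 1) (e 0) * Bf g (f i) (f 1) + dt (f 2) (e 0) * Bf g (f i) (f 2) := by
      conv_lhs => rw [expand_lc S.ortho (e 0)]
      rw [Bf_lc]
    have a0 : ∀ j, |dt (f j) (e 0) * Bf g (f i) (f j)| ≤ 1 * (4 / W 0) := fun j => by
      rw [abs_mul]
      exact mul_le_mul (hent j) (hBff i j) (abs_nonneg _) zero_le_one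
    have b0 := a0 0
    have b1 := a0 1
    have b2 := a0 2
    have e2 : 12 / W 0 = 4 / W 0 + 4 / W 0 + 4 / W 0 := by ring
    rw [e1, e2]
    rw [abs_le] at b0 b1 b2 ⊢
    constructor <;> linarith
  have hBee : |Bf g (e 0) (e 0)| ≤ 36 / W 0 := by
    have e1 : Bf g (e 0) (e 0) = dt (f 0) (e 0) * Bf g (f 0) (e 0) +
        dt (f 1) (e 0) * Bf g (f 1) (e 0) + dt (f 2) (e 0) * Bf g (f 2) (e 0) := by
      conv_lhs => rw [expand_lc S.ortho (e 0)]
      rw [Bf_lc_left]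
      rw [← expand_lc S.ortho (e 0)]
    have a0 : ∀ j, |dt (f j) (e 0) * Bf g (f j) (e 0)| ≤ 1 * (12 / W 0) := fun j => by
      rw [abs_mul]
      exact mul_le_mul (hent j) (hBfe j) (abs_nonneg _) zero_le_one
    have b0 := a0 0
    have b1 := a0 1
    have b2 := a0 2
    have e2 : 36 / W 0 = 12 / W 0 + 12 / W 0 + 12 / W 0 := by ring
    rw [e1, e2]
    rw [abs_le] at b0 b1 b2 ⊢
    constructor <;> linarith
  -- sum
  have t1 : |dt (e 0) Δ * Gf b d g z (T.pos z) (e 0)| ≤ 2 * a * 4 := by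
    rw [abs_mul]; exact mul_le_mul h0 hG0 (abs_nonneg _) (by positivity)
  have t2 : |dt (e 0) Δ * Bf g Δ (e 0)| ≤ 2 * a * 72 := by
    rw [abs_mul]; exact mul_le_mul h0 hBe (abs_nonneg _) (by positivity)
  have t3 : |(dt (e 0) Δ) ^ 2 / 2 * Bf g (e 0) (e 0)| ≤ 72 * X * a := by
    have u1 : (dt (e 0) Δ) ^ 2 ≤ (2 * a) ^ 2 := by
      rw [← sq_abs]
      exact pow_le_pow_left₀ (abs_nonneg _) h0 2
    rw [abs_mul, abs_of_nonneg (by positivity)]
    calc (dt (e 0) Δ) ^ 2 / 2 * |Bf g (e 0) (e 0)| ≤ (2 * a) ^ 2 / 2 * (36 / W 0) := by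
          apply mul_le_mul _ hBee (abs_nonneg _) (by positivity)
          linarith
      _ = 72 * (a * (a / W 0)) := by ring
      _ ≤ 72 * (a * X) := by
          have : a / W 0 ≤ X := by rw [div_le_iff₀ (hw 0)]; exact haW
          gcongr
      _ = 72 * X * a := by ring
  have hXa : a ≤ X * a := by nlinarith
  rw [abs_le] at t1 t2 t3 ⊢
  constructor <;> nlinarith

end

end Crest.Agent.R136.Crf861
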