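import Crest.Agent.R136.Crf2_861

/-!
# R136 (S0187), U5 crude tilt, flat half (helper861), part 3: `crudeA`
-/

set_option autoImplicit false
set_option linter.unusedVariables false
set_option linter.unusedSectionVars false

open Finset

namespace Crest.Agent.R136.Crf861

open Sh605 Crest.Agent.R136.UB861

section

variable {e f : Fin 3 → V3} {c cK : Ln4} {W : V3} {q : ℝ → V3 → ℝ} {a w1 w2 aK z0 ρ zK ρK rK : ℝ}
variable {k0 k1 k2 : ℝ} {b d : V3} {g : Fin 3 → Fin 3 → ℝ} {α : Type*}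

set_option maxHeartbeats 3200000 in
open Classical in
/-- **the gradient of the container is almost normal to a near-maximal flat box** -/
theorem crudeA0 (s : Finset α) (L : α → Ln4)
    (hρ : 0 < ρ) (he : Ortho e) (ha : 0 < a) (hw1 : 0 < w1) (hw2 : 0 < w2)
    (hS : ∀ t ∈ s, InBx (L t) e c a w1 w2 z0 ρ)
    {E X1 V κ h δ : ℝ} (hE0 : 0 < E)
    (hPE : ∀ t ∈ s, ∀ T ∈ s, ∀ z, z0 ≤ z → z ≤ z0 + ρ →
      |dt (e 1) ((L t).pos z - (L T).pos z) * Gf b d g z ((L T).pos z) (e 1) +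
        dt (e 2) ((L t).pos z - (L T).pos z) * Gf b d g z ((L T).pos z) (e 2) +
        dt (e 1) ((L t).pos z - (L T).pos z) ^ 2 * (Bf g (e 1) (e 1) / 2) +
        2 * (dt (e 1) ((L t).pos z - (L T).pos z) * dt (e 2) ((L t).pos z - (L T).pos z)) *
          (Bf g (e 1) (e 2) / 2) +
        dt (e 2) ((L t).pos z - (L T).pos z) ^ 2 * (Bf g (e 2) (e 2) / 2)| ≤ E)
    (hX1 : 0 < X1) (hV : V ≤ X1 * s.card) (hh : 0 < h) (hh1 : h ≤ 1) (hδ : 0 < δ) (hδ1 : δ ≤ 1 / 64)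
    (hD : ∀ (c' : Ln4) (σ : ℝ), (σ = 8 * h ∨ σ = 8 * δ) →
      ((s.filter fun t => InBx (L t) e c' a (σ * w1) (σ * w2) z0 ρ).card : ℝ) ≤ V * σ ^ (2 + κ))
    (N1 : X1 * (48672000 * (8 * h) ^ κ / δ ^ 2) < 1)
    (N2 : X1 * (302580000000 * (8 * δ) ^ κ) < 1) :
    ∀ t ∈ s, ∀ z, z0 ≤ z → z ≤ z0 + ρ →
      |w1 * Gf b d g z ((L t).pos z) (e 1)| ≤ E / h ∧
      |w2 * Gf b d g z ((L t).pos z) (e 2)| ≤ E / h := by
  intro tT htT z hz hz'
  set T := L tT with hTdef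
  have hsn : s.Nonempty := ⟨tT, htT⟩
  set A1 := w1 * Gf b d g z0 (T.pos z0) (e 1) with hA1
  set B1 := w1 * Gf b d g (z0 + ρ) (T.pos (z0 + ρ)) (e 1) with hB1
  set A2 := w2 * Gf b d g z0 (T.pos z0) (e 2) with hA2
  set B2 := w2 * Gf b d g (z0 + ρ) (T.pos (z0 + ρ)) (e 2) with hB2
  set G11 := w1 ^ 2 * (Bf g (e 1) (e 1) / 2) with hG11
  set G12 := w1 * w2 * (Bf g (e 1) (e 2) / 2) with hG12
  set G22 := w2 ^ 2 * (Bf g (e 2) (e 2) / 2) with hG22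
  set v : Fin 7 → ℝ := ![A1, B1, A2, B2, G11, G12, G22] with hv
  obtain ⟨im, him⟩ := Finite.exists_max (fun i => |v i|)
  set M := |v im| with hM
  have affk : ∀ (ω : ℝ) (k : Fin 3) (j : ℝ), ω * Gf b d g (z0 + j * ρ) (T.pos (z0 + j * ρ)) (e k) =
      (1 - j) * (ω * Gf b d g z0 (T.pos z0) (e k)) +
        j * (ω * Gf b d g (z0 + ρ) (T.pos (z0 + ρ)) (e k)) := by
    intro ω k j
    have := Gf_aff (b := b) (d := d) (g := g) T (e k) z0 (z0 + ρ) j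
    rw [show (1 - j) * z0 + j * (z0 + ρ) = z0 + j * ρ by ring] at this
    rw [this]; ring
  -- it is enough to bound `M`
  suffices hsuff : M ≤ E / h by
    have hj : z = z0 + (z - z0) / ρ * ρ := by field_simp; ring
    have j0 : 0 ≤ (z - z0) / ρ := div_nonneg (by linarith) hρ.le
    have j1 : (z - z0) / ρ ≤ 1 := by rw [div_le_one hρ]; linarith
    have conv : ∀ A B : ℝ, |A| ≤ M → |B| ≤ M →
        |(1 - (z - z0) / ρ) * A + (z - z0) / ρ * B| ≤ M := by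
      intro A B hA hB
      set j := (z - z0) / ρ
      have u1 : |(1 - j) * A| ≤ (1 - j) * M := by
        rw [abs_mul, abs_of_nonneg (by linarith)]
        exact mul_le_mul_of_nonneg_left hA (by linarith)
      have u2 : |j * B| ≤ j * M := by
        rw [abs_mul, abs_of_nonneg j0]
        exact mul_le_mul_of_nonneg_left hB j0
      calc |(1 - j) * A + j * B| ≤ |(1 - j) * A| + |j * B| := abs_add_le _ _
        _ ≤ (1 - j) * M + j * M := add_le_add u1 u2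
        _ = M := by ring
    rw [hj]
    constructor
    · rw [affk w1 1]
      exact (conv _ _ (him 0) (him 1)).trans hsuff
    · rw [affk w2 2]
      exact (conv _ _ (him 2) (him 3)).trans hsuff
  by_contra hc
  push Not at hc
  have hM0 : 0 < M := lt_trans (by positivity) hc
  have hEM : E / M ≤ h := by
    rw [div_lt_iff₀ hh] at hc
    rw [div_le_iff₀ hM0]
    linarith
  have n1 : ∀ i, |v i / M| ≤ 1 := by
    intro i
    rw [abs_div, abs_of_pos hM0, div_le_one hM0]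
    exact him i
  have nm : |v im / M| = 1 := by
    rw [abs_div, abs_of_pos hM0, ← hM, div_self hM0.ne']
  have m0 : |A1 / M| ≤ 1 := n1 0
  have m1 : |B1 / M| ≤ 1 := n1 1
  have m2 : |A2 / M| ≤ 1 := n1 2
  have m3 : |B2 / M| ≤ 1 := n1 3
  have m4 : |G11 / M| ≤ 1 := n1 4
  have m5 : |G12 / M| ≤ 1 := n1 5
  have m6 : |G22 / M| ≤ 1 := n1 6
  -- three good heights
  obtain ⟨j, hj01, hjd, hgood⟩ : ∃ j : Fin 3 → ℝ, (∀ k, 0 ≤ j k ∧ j k ≤ 1) ∧
      (∀ k l, k ≠ l → 1 / 4 ≤ |j k - j l|) ∧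
      ∀ k, 1 / 16 ≤ |(1 - j k) * (A1 / M) + j k * (B1 / M)| ∨
        1 / 16 ≤ |(1 - j k) * (A2 / M) + j k * (B2 / M)| ∨
        1 / 16 ≤ |G11 / M| ∨ 1 / 16 ≤ |G12 / M| ∨ 1 / 16 ≤ |G22 / M| := by
    have g1 : |A1 / M| = 1 ∨ |B1 / M| = 1 → ∃ j : Fin 3 → ℝ, (∀ k, 0 ≤ j k ∧ j k ≤ 1) ∧
      (∀ k l, k ≠ l → 1 / 4 ≤ |j k - j l|) ∧
      ∀ k, 1 / 16 ≤ |(1 - j k) * (A1 / M) + j k * (B1 / M)| ∨
        1 / 16 ≤ |(1 - j k) * (A2 / M) + j k * (B2 / M)| ∨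
        1 / 16 ≤ |G11 / M| ∨ 1 / 16 ≤ |G12 / M| ∨ 1 / 16 ≤ |G22 / M| := by
      intro h
      obtain ⟨j, a1, a2, a3⟩ := good3 m0 m1 h
      exact ⟨j, a1, a2, fun k => Or.inl (a3 k)⟩
    have g2 : |A2 / M| = 1 ∨ |B2 / M| = 1 → ∃ j : Fin 3 → ℝ, (∀ k, 0 ≤ j k ∧ j k ≤ 1) ∧
      (∀ k l, k ≠ l → 1 / 4 ≤ |j k - j l|) ∧
      ∀ k, 1 / 16 ≤ |(1 - j k) * (A1 / M) + j k * (B1 / M)| ∨
        1 / 16 ≤ |(1 - j k) * (A2 / M) + j k * (B2 / M)| ∨
        1 / 16 ≤ |G11 / M| ∨ 1 / 16 ≤ |G12 / M| ∨ 1 / 16 ≤ |G22 / M| := by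
      intro h
      obtain ⟨j, a1, a2, a3⟩ := good3 m2 m3 h
      exact ⟨j, a1, a2, fun k => Or.inr (Or.inl (a3 k))⟩
    have g3 : 1 / 16 ≤ |G11 / M| ∨ 1 / 16 ≤ |G12 / M| ∨ 1 / 16 ≤ |G22 / M| →
      ∃ j : Fin 3 → ℝ, (∀ k, 0 ≤ j k ∧ j k ≤ 1) ∧
      (∀ k l, k ≠ l → 1 / 4 ≤ |j k - j l|) ∧
      ∀ k, 1 / 16 ≤ |(1 - j k) * (A1 / M) + j k * (B1 / M)| ∨
        1 / 16 ≤ |(1 - j k) * (A2 / M) + j k * (B2 / M)| ∨
        1 / 16 ≤ |G11 / M| ∨ 1 / 16 ≤ |G12 / M| ∨ 1 / 16 ≤ |G22 / M| := by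
      intro h
      obtain ⟨j, a1, a2, a3⟩ := good3 (β0 := 1) (β1 := 1) (by simp) (by simp) (Or.inl (by simp))
      exact ⟨j, a1, a2, fun k => Or.inr (Or.inr h)⟩
    have h16 : (1 : ℝ) / 16 ≤ 1 := by norm_num
    fin_cases im
    · exact g1 (Or.inl nm)
    · exact g1 (Or.inr nm)
    · exact g2 (Or.inl nm)
    · exact g2 (Or.inr nm)
    · exact g3 (Or.inl (h16.trans nm.ge))
    · exact g3 (Or.inr (Or.inl (h16.trans nm.ge)))
    · exact g3 (Or.inr (Or.inr (h16.trans nm.ge)))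
  have zc : ∀ k, z0 ≤ z0 + j k * ρ ∧ z0 + j k * ρ ≤ z0 + ρ := by
    intro k
    obtain ⟨u1, u2⟩ := hj01 k
    constructor <;> nlinarith
  -- coordinates
  have disp : ∀ t ∈ s, ∀ z, z0 ≤ z → z ≤ z0 + ρ → |dt (e 0) ((L t).pos z - T.pos z)| ≤ 2 * a ∧
      |dt (e 1) ((L t).pos z - T.pos z)| ≤ 2 * w1 ∧
      |dt (e 2) ((L t).pos z - T.pos z)| ≤ 2 * w2 := by
    intro t ht z h1 h2
    have p := hS t ht z h1 h2
    have p' := hS tT htT z h1 h2
    have e1 : ∀ i, dt (e i) ((L t).pos z - T.pos z) = dt (e i) ((L t).pos z - c.pos z) -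
        dt (e i) (T.pos z - c.pos z) := by
      intro i; simp only [dt, Pi.sub_apply]; ring
    obtain ⟨a1, a2, a3⟩ := p
    obtain ⟨b1, b2, b3⟩ := p'
    rw [abs_le] at a1 a2 a3 b1 b2 b3
    refine ⟨?_, ?_, ?_⟩ <;> rw [e1, abs_le] <;> constructor <;> linarith
  have convM : ∀ (k : Fin 3) (A B : ℝ), |A| ≤ 1 → |B| ≤ 1 → |(1 - j k) * A + j k * B| ≤ 1 := by
    intro k A B hA hB
    obtain ⟨u1, u2⟩ := hj01 k
    rw [abs_le] at hA hB ⊢
    constructor <;> nlinarith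
  have hP : ∀ k, ∀ t ∈ s, |Pq ((1 - j k) * (A1 / M) + j k * (B1 / M))
      ((1 - j k) * (A2 / M) + j k * (B2 / M)) (G11 / M) (G12 / M) (G22 / M)
      (dt (e 1) ((L t).pos (z0 + j k * ρ) - T.pos (z0 + j k * ρ)) / w1)
      (dt (e 2) ((L t).pos (z0 + j k * ρ) - T.pos (z0 + j k * ρ)) / w2)| ≤ h := by
    intro k t ht
    have hz1 := (zc k).1
    have hz2 := (zc k).2
    set ζ := z0 + j k * ρ with hζ
    have f1 := affk w1 1 (j k)
    have f2 := affk w2 2 (j k)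
    rw [← hζ] at f1 f2
    set x1 := dt (e 1) ((L t).pos ζ - T.pos ζ) with hx1
    set x2 := dt (e 2) ((L t).pos ζ - T.pos ζ) with hx2
    have eq : Pq ((1 - j k) * (A1 / M) + j k * (B1 / M)) ((1 - j k) * (A2 / M) + j k * (B2 / M))
        (G11 / M) (G12 / M) (G22 / M) (x1 / w1) (x2 / w2) =
        (x1 * Gf b d g ζ (T.pos ζ) (e 1) + x2 * Gf b d g ζ (T.pos ζ) (e 2) +
          x1 ^ 2 * (Bf g (e 1) (e 1) / 2) + 2 * (x1 * x2) * (Bf g (e 1) (e 2) / 2) +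
          x2 ^ 2 * (Bf g (e 2) (e 2) / 2)) / M := by
      have s1 : (1 - j k) * (A1 / M) + j k * (B1 / M) =
          w1 * Gf b d g ζ (T.pos ζ) (e 1) / M := by
        rw [f1]; ring
      have s2 : (1 - j k) * (A2 / M) + j k * (B2 / M) =
          w2 * Gf b d g ζ (T.pos ζ) (e 2) / M := by
        rw [f2]; ring
      rw [s1, s2, hG11, hG12, hG22]
      unfold Pq
      field_simp
    rw [eq, abs_div, abs_of_pos hM0]
    refine le_trans ?_ hEM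
    apply div_le_div_of_nonneg_right _ hM0.le
    exact hPE t ht tT htT ζ hz1 hz2
  obtain ⟨s', hs', k, l, hkl, i, hne, hcard, hdiam⟩ := count3 s
    (fun k t => dt (e 1) ((L t).pos (z0 + j k * ρ) - T.pos (z0 + j k * ρ)) / w1)
    (fun k t => dt (e 2) ((L t).pos (z0 + j k * ρ) - T.pos (z0 + j k * ρ)) / w2)
    (b1 := fun k => (1 - j k) * (A1 / M) + j k * (B1 / M))
    (b2 := fun k => (1 - j k) * (A2 / M) + j k * (B2 / M))
    (g11 := G11 / M) (g12 := G12 / M) (g22 := G22 / M) (h := h) (δ := δ) hsn hh hh1 hδ hδ1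
    (fun k => convM k _ _ m0 m1) (fun k => convM k _ _ m2 m3) m4 m5 m6
    (fun k t ht => by
      rw [abs_div, abs_of_pos hw1, div_le_iff₀ hw1]
      exact (disp t ht _ (zc k).1 (zc k).2).2.1)
    (fun k t ht => by
      rw [abs_div, abs_of_pos hw2, div_le_iff₀ hw2]
      exact (disp t ht _ (zc k).1 (zc k).2).2.2)
    hP
    hgood
  -- the tube
  obtain ⟨t0, ht0⟩ := hne
  set σ0 : ℝ := cond i h δ with hσ0
  have hσp : 0 < σ0 := by cases i <;> simp [hσ0, hh, hδ]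
  have htube : ∀ t ∈ s', InBx (L t) e (ctr e c (L t0)) a (8 * σ0 * w1) (8 * σ0 * w2) z0 ρ := by
    intro t ht z hz1 hz2
    have hjz : z = (1 - (z - z0) / ρ) * z0 + (z - z0) / ρ * (z0 + ρ) := by
      field_simp; ring
    have j0 : 0 ≤ (z - z0) / ρ := div_nonneg (by linarith) hρ.le
    have j1 : (z - z0) / ρ ≤ 1 := by rw [div_le_one hρ]; linarith
    have hzk : ∀ k, z0 + j k * ρ = (1 - j k) * z0 + j k * (z0 + ρ) := fun k => by ring
    have ctl : ∀ (m : Fin 3) (ω : ℝ), 0 < ω →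
        |dt (e m) ((L t).pos (z0 + j k * ρ) - T.pos (z0 + j k * ρ)) / ω -
          dt (e m) ((L t0).pos (z0 + j k * ρ) - T.pos (z0 + j k * ρ)) / ω| ≤ σ0 →
        |dt (e m) ((L t).pos (z0 + j l * ρ) - T.pos (z0 + j l * ρ)) / ω -
          dt (e m) ((L t0).pos (z0 + j l * ρ) - T.pos (z0 + j l * ρ)) / ω| ≤ σ0 →
        |dt (e m) ((L t).pos z - (L t0).pos z)| ≤ 8 * σ0 * ω := by
      intro m ω hω h1 h2
      have red : ∀ y : ℝ, dt (e m) ((L t).pos y - T.pos y) / ω -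
          dt (e m) ((L t0).pos y - T.pos y) / ω = dt (e m) ((L t).pos y - (L t0).pos y) / ω := by
        intro y
        simp only [dt, Pi.sub_apply]; ring
      rw [red, abs_div, abs_of_pos hω, div_le_iff₀ hω] at h1 h2
      rw [hzk, dt_aff] at h1 h2
      have := aff_ctl (s := (z - z0) / ρ) (hj01 k).1 (hj01 k).2 (hj01 l).1 (hj01 l).2 j0 j1
        (hjd k l hkl) h1 h2
      rw [← dt_aff, ← hjz] at this
      linarith
    have dd := hdiam t ht t0 ht0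
    refine ⟨?_, ?_, ?_⟩
    · rw [ctr0 he]
      exact (hS t (hs' ht) z hz1 hz2).1
    · rw [ctrk he _ _ _ _ (by decide)]
      exact ctl 1 w1 hw1 dd.1.1 dd.2.1
    · rw [ctrk he _ _ _ _ (by decide)]
      exact ctl 2 w2 hw2 dd.1.2 dd.2.2
  have hsub : s' ⊆ s.filter fun t => InBx (L t) e (ctr e c (L t0)) a (8 * σ0 * w1) (8 * σ0 * w2)
      z0 ρ := fun t ht => mem_filter.2 ⟨hs' ht, htube t ht⟩
  have h1 : (s'.card : ℝ) ≤ V * (8 * σ0) ^ (2 + κ) := by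
    refine le_trans (by exact_mod_cast card_le_card hsub) (hD _ _ ?_)
    cases i
    · exact Or.inr rfl
    · exact Or.inl rfl
  have hsc : (0 : ℝ) < s.card := by exact_mod_cast hsn.card_pos
  have hpw : (8 * σ0) ^ (2 + κ) = (8 * σ0) ^ 2 * (8 * σ0) ^ κ := by
    rw [Real.rpow_add (by positivity)]
    norm_num
  have hpk : 0 < (8 * σ0) ^ κ := Real.rpow_pos_of_pos (by positivity) _
  set Q := (cond i (78 / δ) 6150) with hQ
  have hQ0 : 0 < Q := by cases i <;> simp only [hQ, cond_true, cond_false] <;> positivity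
  have h2 : (s.card : ℝ) ≤ X1 * (8000 * Q ^ 2 * (8 * σ0) ^ κ) * s.card := by
    calc (s.card : ℝ) ≤ 125 * (Q / σ0) ^ 2 * s'.card := hcard
      _ ≤ 125 * (Q / σ0) ^ 2 * (V * ((8 * σ0) ^ 2 * (8 * σ0) ^ κ)) := by
          rw [← hpw]; gcongr
      _ = V * (8000 * Q ^ 2 * (8 * σ0) ^ κ) := by field_simp; ring
      _ ≤ (X1 * s.card) * (8000 * Q ^ 2 * (8 * σ0) ^ κ) := by gcongr
      _ = _ := by ring
  have h3 : X1 * (8000 * Q ^ 2 * (8 * σ0) ^ κ) < 1 := by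
    cases i
    · have : 8000 * (6150 : ℝ) ^ 2 = 302580000000 := by norm_num
      show X1 * (8000 * (6150 : ℝ) ^ 2 * (8 * δ) ^ κ) < 1
      rw [this]; exact N2
    · have : 8000 * (78 / δ) ^ 2 * (8 * h) ^ κ = 48672000 * (8 * h) ^ κ / δ ^ 2 := by
        field_simp; norm_num
      show X1 * (8000 * (78 / δ) ^ 2 * (8 * h) ^ κ) < 1
      rw [this]; exact N1
  nlinarith

end

end Crest.Agent.R136.Crf861
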