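import Crest.Agent.R136.Crf2_861

/-!
# R136 (S0187), U5 crude tilt, flat half (helper861), part 4: wide axis, six entries
-/

set_option autoImplicit false
set_option linter.unusedVariables false
set_option linter.unusedSectionVars false

open Finset

namespace Crest.Agent.R136.Crf861

open Sh605 Crest.Agent.R136.UB861

section

variable {e f : Fin 3 → V3} {c cK : Ln4} {W : V3} {q : ℝ → V3 → ℝ} {a w1 w2 aK z0 ρ zK ρK rK : ℝ}
variable {k0 k1 k2 : ℝ} {b d : V3} {g : Fin 3 → Fin 3 → ℝ} {α : Type*}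

/-- centre of a box which is thin in the direction `e 1` -/
def ctb (e : Fin 3 → V3) (c T : Ln4) : Ln4 :=
  ⟨c.p + dt (e 1) (T.p - c.p) • e 1, c.v + dt (e 1) (T.v - c.v) • e 1⟩

theorem ctb_pos (e : Fin 3 → V3) (c T : Ln4) (z : ℝ) :
    (ctb e c T).pos z = c.pos z + dt (e 1) (T.pos z - c.pos z) • e 1 := by
  funext i
  simp only [ctb, Ln4.pos, dt, Pi.sub_apply, Pi.add_apply, Pi.smul_apply, smul_eq_mul]; ring

theorem ctb1 {e : Fin 3 → V3} (he : Ortho e) (c T : Ln4) (z : ℝ) (x : V3) :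
    dt (e 1) (x - (ctb e c T).pos z) = dt (e 1) (x - T.pos z) := by
  rw [ctb_pos]
  have h0 : dt (e 1) (e 1) = 1 := by simpa using he 1 1
  have : x - (c.pos z + dt (e 1) (T.pos z - c.pos z) • e 1) =
      (x - c.pos z) + (-dt (e 1) (T.pos z - c.pos z)) • e 1 := by
    rw [neg_smul]; abel
  rw [this, dt_add, dt_smul, h0]
  simp only [dt, Pi.sub_apply]; ring

theorem ctbk {e : Fin 3 → V3} (he : Ortho e) (c T : Ln4) (z : ℝ) (x : V3) {k : Fin 3}
    (hk : k ≠ 1) : dt (e k) (x - (ctb e c T).pos z) = dt (e k) (x - c.pos z) := by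
  rw [ctb_pos]
  have h0 : dt (e k) (e 1) = 0 := by rw [he k 1, if_neg hk]
  have : x - (c.pos z + dt (e 1) (T.pos z - c.pos z) • e 1) =
      (x - c.pos z) + (-dt (e 1) (T.pos z - c.pos z)) • e 1 := by
    rw [neg_smul]; abel
  rw [this, dt_add, dt_smul, h0]
  ring

open Classical in
/-- **spread**: a near-maximal box contains two lines far apart in the wide direction -/
theorem spread (s : Finset α) (L : α → Ln4) (he : Ortho e) (hsn : s.Nonempty)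
    (hS : ∀ t ∈ s, InBx (L t) e c a w1 w2 z0 ρ) {X1 V θ : ℝ} (hX1 : 0 ≤ X1)
    (hθ : 0 < θ)
    (hV : V ≤ X1 * s.card)
    (hD : ∀ c' : Ln4,
      ((s.filter fun t => InBx (L t) e c' a (θ * w1) w2 z0 ρ).card : ℝ) ≤ V * θ)
    (hN : X1 * θ < 1) :
    ∃ t ∈ s, ∃ t' ∈ s, ∃ z, z0 ≤ z ∧ z ≤ z0 + ρ ∧
      θ * w1 < |dt (e 1) ((L t).pos z - (L t').pos z)| := by
  by_contra hc
  push Not at hc
  obtain ⟨t0, ht0⟩ := hsn
  have hsub : s ⊆ s.filter fun t => InBx (L t) e (ctb e c (L t0)) a (θ * w1) w2 z0 ρ := by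
    intro t ht
    refine mem_filter.2 ⟨ht, fun z hz hz' => ?_⟩
    have h1 := hS t ht z hz hz'
    rw [ctb1 he, ctbk he _ _ _ _ (by decide : (0 : Fin 3) ≠ 1),
      ctbk he _ _ _ _ (by decide : (2 : Fin 3) ≠ 1)]
    exact ⟨h1.1, hc t ht t0 ht0 z hz hz', h1.2.2⟩
  have h1 : (s.card : ℝ) ≤ V * θ := le_trans (by exact_mod_cast card_le_card hsub) (hD _)
  have hsc : (0 : ℝ) < s.card := by exact_mod_cast card_pos.2 ⟨t0, ht0⟩
  have h2 : (s.card : ℝ) ≤ X1 * s.card * θ := h1.trans (mul_le_mul_of_nonneg_right hV hθ.le)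
  nlinarith

/-- the crude information about a flat box (frame `e`, numbers `a, w1, w2`) relative to the
container (frame `f`, gradient `n`) -/
structure Crd (e f : Fin 3 → V3) (n : V3) (a w1 w2 Y : ℝ) : Prop where
  n1 : w1 * |dt n (e 1)| ≤ Y * a
  n2 : w2 * |dt n (e 2)| ≤ Y * a
  a2 : w1 * |dt (e 1) (f 2)| ≤ Y * w2
  a0 : w1 * |dt (e 1) (f 0)| ≤ Y * w2

theorem Crd.mono {e f : Fin 3 → V3} {n : V3} {a w1 w2 Y Y' : ℝ} (h : Crd e f n a w1 w2 Y)
    (ha : 0 ≤ a) (hw2 : 0 ≤ w2) (hY : Y ≤ Y') : Crd e f n a w1 w2 Y' :=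
  ⟨h.n1.trans (mul_le_mul_of_nonneg_right hY ha), h.n2.trans (mul_le_mul_of_nonneg_right hY ha),
    h.a2.trans (mul_le_mul_of_nonneg_right hY hw2), h.a0.trans (mul_le_mul_of_nonneg_right hY hw2)⟩

theorem dt_split {f : Fin 3 → V3} (hf : Ortho f) (x y : V3) :
    dt x y = dt (f 0) x * dt (f 0) y + dt (f 1) x * dt (f 1) y + dt (f 2) x * dt (f 2) y := by
  conv_lhs => rw [expand_lc hf x]
  rw [dt_lc]

theorem dt_one {u v : V3} (hu : dt u u = 1) (hv : dt v v = 1) : |dt u v| ≤ 1 := by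
  have := cauchy u v
  rw [hu, hv] at this
  exact abs_le_of_sq_le_sq (by linarith) zero_le_one

/-- **wide axis** from two lines far apart in the wide direction -/
theorem axisB (S : ShN f cK W q aK zK ρK rK) (he : Ortho e) (ha2 : a ≤ w2)
    (hw1 : 0 < w1) (hw2 : 0 < w2) {t t' : Ln4} {z X θ : ℝ}
    (hz : z0 ≤ z) (hz' : z ≤ z0 + ρ) (hzK : zK ≤ z) (hzK' : z ≤ zK + ρK)
    (h1 : InBx t e c a w1 w2 z0 ρ) (h2 : InBx t' e c a w1 w2 z0 ρ)
    (k1 : InSheet t f cK W q aK zK ρK) (k2 : InSheet t' f cK W q aK zK ρK)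
    (hX : 1 ≤ X) (hW2 : W 2 ≤ X * w2) (hθ : 0 < θ)
    (hsp : θ * w1 < |dt (e 1) (t.pos z - t'.pos z)|) :
    (w1 * |dt (e 1) (f 2)| ≤ 6 * X / θ * w2 ∧ w1 * |dt (e 1) (f 0)| ≤ 6 * X / θ * w2) ∧
      θ * w1 ≤ 4 * W 1 := by
  set Δ := t.pos z - t'.pos z with hΔ
  have sub : ∀ (u : V3) (c : Ln4), dt u Δ = dt u (t.pos z - c.pos z) - dt u (t'.pos z - c.pos z) := by
    intro u c; rw [hΔ]; simp only [dt, Pi.sub_apply]; ring
  have d0 : |dt (e 0) Δ| ≤ 2 * w2 := by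
    have p := (h1 z hz hz').1
    have p' := (h2 z hz hz').1
    rw [sub _ c]
    rw [abs_le] at p p' ⊢
    constructor <;> linarith
  have d2 : |dt (e 2) Δ| ≤ 2 * w2 := by
    have p := (h1 z hz hz').2.2
    have p' := (h2 z hz hz').2.2
    rw [sub _ c]
    rw [abs_le] at p p' ⊢
    constructor <;> linarith
  have dK : ∀ i, |dt (f i) Δ| ≤ 2 * W i := by
    intro i
    have p := (k1 z hzK hzK').1 i
    have p' := (k2 z hzK hzK').1 i
    rw [sub _ cK]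
    rw [abs_le] at p p' ⊢
    constructor <;> linarith
  have hf1 : ∀ i, dt (f i) (f i) = 1 := fun i => by simpa using S.ortho i i
  have he1 : ∀ i, dt (e i) (e i) = 1 := fun i => by simpa using he i i
  have W0 : W 0 ≤ X * w2 := S.w0_le.trans hW2
  have key : ∀ i, W i ≤ X * w2 → w1 * |dt (e 1) (f i)| ≤ 6 * X / θ * w2 := by
    intro i hi
    have e1 := dt_split he (f i) Δ
    have b0 : |dt (e 0) (f i) * dt (e 0) Δ| ≤ 1 * (2 * w2) := by
      rw [abs_mul]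
      exact mul_le_mul (dt_one (he1 0) (hf1 i)) d0 (abs_nonneg _) zero_le_one
    have b2 : |dt (e 2) (f i) * dt (e 2) Δ| ≤ 1 * (2 * w2) := by
      rw [abs_mul]
      exact mul_le_mul (dt_one (he1 2) (hf1 i)) d2 (abs_nonneg _) zero_le_one
    have b1 : |dt (e 1) (f i) * dt (e 1) Δ| ≤ 6 * X * w2 := by
      have e2 : dt (e 1) (f i) * dt (e 1) Δ = dt (f i) Δ - dt (e 0) (f i) * dt (e 0) Δ -
          dt (e 2) (f i) * dt (e 2) Δ := by rw [e1]; ring
      have e3 := dK i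
      have e4 : w2 ≤ X * w2 := by nlinarith
      rw [e2]
      rw [abs_le] at b0 b2 e3 ⊢
      constructor <;> nlinarith
    rw [abs_mul] at b1
    rw [div_mul_eq_mul_div, le_div_iff₀ hθ]
    nlinarith [abs_nonneg (dt (e 1) (f i))]
  refine ⟨⟨key 2 hW2, key 0 W0⟩, ?_⟩
  have p1 := parseval he Δ
  have p2 := parseval S.ortho Δ
  have m0 : |dt (f 0) Δ| ≤ 2 * W 1 := (dK 0).trans (by linarith [S.w0_le, S.w_le])
  have m1 := dK 1
  have m2 : |dt (f 2) Δ| ≤ 2 * W 1 := (dK 2).trans (by linarith [S.w_le])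
  have hW1 : 0 ≤ W 1 := by linarith [(abs_nonneg (dt (f 1) Δ)).trans m1]
  have s0 : dt (f 0) Δ ^ 2 ≤ (2 * W 1) ^ 2 := sq_le_sq' (abs_le.1 m0).1 (abs_le.1 m0).2
  have s1 : dt (f 1) Δ ^ 2 ≤ (2 * W 1) ^ 2 := sq_le_sq' (abs_le.1 m1).1 (abs_le.1 m1).2
  have s2 : dt (f 2) Δ ^ 2 ≤ (2 * W 1) ^ 2 := sq_le_sq' (abs_le.1 m2).1 (abs_le.1 m2).2
  have hle : dt (e 1) Δ ^ 2 ≤ (4 * W 1) ^ 2 := by
    have := sq_nonneg (dt (e 0) Δ)
    have := sq_nonneg (dt (e 2) Δ)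
    nlinarith [sq_nonneg (W 1)]
  have := abs_le_of_sq_le_sq hle (by positivity)
  linarith

/-- all vectors orthogonal to `e 1` are almost orthogonal to `e' 1` -/
theorem cross1 {e e' f : Fin 3 → V3} (he : Ortho e) (he' : Ortho e') (hf : Ortho f)
    {w1 w2 Y : ℝ} (hw1 : 0 < w1) (hw2 : 0 < w2) (hY : 0 ≤ Y)
    (p2 : w1 * |dt (e 1) (f 2)| ≤ Y * w2) (p0 : w1 * |dt (e 1) (f 0)| ≤ Y * w2)
    (p2' : w1 * |dt (e' 1) (f 2)| ≤ Y * w2) (p0' : w1 * |dt (e' 1) (f 0)| ≤ Y * w2)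
    {u : V3} (hu : dt u u = 1) (hue : dt (e 1) u = 0) : w1 * |dt (e' 1) u| ≤ 6 * Y * w2 := by
  have hf1 : ∀ i, dt (f i) (f i) = 1 := fun i => by simpa using hf i i
  have he1 : ∀ i, dt (e i) (e i) = 1 := fun i => by simpa using he i i
  have he1' : ∀ i, dt (e' i) (e' i) = 1 := fun i => by simpa using he' i i
  have u0 := dt_one hu (hf1 0)
  have u1 := dt_one hu (hf1 1)
  have u2 := dt_one hu (hf1 2)
  -- `<f 1, u>` is small
  have hfu : w1 * |dt (f 1) u| ≤ 4 * Y * w2 := by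
    by_cases hs : 1 / 2 ≤ |dt (e 1) (f 1)|
    · have e1 := dt_split hf (e 1) u
      rw [hue] at e1
      have c0 : |dt (f 0) (e 1) * dt (f 0) u| ≤ |dt (e 1) (f 0)| * 1 := by
        rw [abs_mul, dt_comm (f 0) (e 1), dt_comm (f 0) u]
        exact mul_le_mul_of_nonneg_left u0 (abs_nonneg _)
      have c2 : |dt (f 2) (e 1) * dt (f 2) u| ≤ |dt (e 1) (f 2)| * 1 := by
        rw [abs_mul, dt_comm (f 2) (e 1), dt_comm (f 2) u]
        exact mul_le_mul_of_nonneg_left u2 (abs_nonneg _)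
      have c1 : |dt (e 1) (f 1)| * |dt (f 1) u| ≤ |dt (e 1) (f 0)| + |dt (e 1) (f 2)| := by
        rw [dt_comm (e 1) (f 1), ← abs_mul]
        have e2 : dt (f 1) (e 1) * dt (f 1) u = -(dt (f 0) (e 1) * dt (f 0) u) -
            dt (f 2) (e 1) * dt (f 2) u := by linarith
        rw [e2]
        rw [mul_one] at c0 c2
        rw [abs_le] at c0 c2 ⊢
        constructor <;> linarith
      have c3 : 1 / 2 * |dt (f 1) u| ≤ |dt (e 1) (f 0)| + |dt (e 1) (f 2)| :=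
        (mul_le_mul_of_nonneg_right hs (abs_nonneg _)).trans c1
      nlinarith
    · push Not at hs
      have p := parseval hf (e 1)
      rw [he1 1, dt_comm (f 0), dt_comm (f 1), dt_comm (f 2)] at p
      have q1 : dt (e 1) (f 1) ^ 2 ≤ 1 / 4 := by
        rw [← sq_abs]
        nlinarith [abs_nonneg (dt (e 1) (f 1))]
      have q0 : w1 ^ 2 * dt (e 1) (f 0) ^ 2 ≤ (Y * w2) ^ 2 := by
        rw [← sq_abs (dt (e 1) (f 0)), ← mul_pow]
        exact pow_le_pow_left₀ (by positivity) p0 2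
      have q2 : w1 ^ 2 * dt (e 1) (f 2) ^ 2 ≤ (Y * w2) ^ 2 := by
        rw [← sq_abs (dt (e 1) (f 2)), ← mul_pow]
        exact pow_le_pow_left₀ (by positivity) p2 2
      have q3 : w1 ^ 2 ≤ (2 * (Y * w2)) ^ 2 := by
        have : w1 ^ 2 * (dt (e 1) (f 0) ^ 2 + dt (e 1) (f 1) ^ 2 + dt (e 1) (f 2) ^ 2) = w1 ^ 2 := by
          rw [p, mul_one]
        nlinarith [sq_nonneg w1]
      have q4 : w1 ≤ 2 * (Y * w2) := by
        exact (pow_le_pow_iff_left₀ hw1.le (by positivity) two_ne_zero).1 q3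
      have := dt_one (hf1 1) hu
      nlinarith [abs_nonneg (dt (f 1) u)]
  have e1 := dt_split hf (e' 1) u
  have c0 : |dt (f 0) (e' 1) * dt (f 0) u| ≤ |dt (e' 1) (f 0)| * 1 := by
    rw [abs_mul, dt_comm (f 0) (e' 1), dt_comm (f 0) u]
    exact mul_le_mul_of_nonneg_left u0 (abs_nonneg _)
  have c2 : |dt (f 2) (e' 1) * dt (f 2) u| ≤ |dt (e' 1) (f 2)| * 1 := by
    rw [abs_mul, dt_comm (f 2) (e' 1), dt_comm (f 2) u]
    exact mul_le_mul_of_nonneg_left u2 (abs_nonneg _)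
  have c1 : |dt (f 1) (e' 1) * dt (f 1) u| ≤ 1 * |dt (f 1) u| := by
    rw [abs_mul]
    exact mul_le_mul_of_nonneg_right (dt_one (hf1 1) (he1' 1)) (abs_nonneg _)
  have c3 : |dt (e' 1) u| ≤ |dt (e' 1) (f 0)| + |dt (f 1) u| + |dt (e' 1) (f 2)| := by
    rw [e1]
    rw [mul_one] at c0 c2
    rw [one_mul] at c1
    rw [abs_le] at c0 c1 c2 ⊢
    constructor <;> linarith
  nlinarith

/-- the normal vector against a second frame -/
theorem norm_cross {e : Fin 3 → V3} {n u : V3} (he : Ortho e) (hu : dt u u = 1)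
    {a w1 w2 Y : ℝ} (ha : 0 < a) (hw1 : 0 < w1) (hw2 : 0 < w2) (hY : 1 ≤ Y) (hn : 1 / 4 ≤ dt n n)
    (n1 : w1 * |dt n (e 1)| ≤ Y * a) (n2 : w2 * |dt n (e 2)| ≤ Y * a) (h21 : w2 ≤ w1)
    (hlt : 4 * (Y * a) < w2) :
    |dt (e 0) u| ≤ 3 * (|dt n u| + |dt n (e 1)| * |dt (e 1) u| + |dt n (e 2)| * |dt (e 2) u|) := by
  have p := parseval he n
  have b1 : |dt n (e 1)| ≤ 1 / 4 := by
    have h1 : w1 * |dt n (e 1)| ≤ w1 * (1 / 4) := by linarith
    exact le_of_mul_le_mul_left h1 hw1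
  have b2 : |dt n (e 2)| ≤ 1 / 4 := by
    have h1 : w2 * |dt n (e 2)| ≤ w2 * (1 / 4) := by linarith
    exact le_of_mul_le_mul_left h1 hw2
  have s1 : dt (e 1) n ^ 2 ≤ 1 / 16 := by
    rw [dt_comm, ← sq_abs]; nlinarith [abs_nonneg (dt n (e 1))]
  have s2 : dt (e 2) n ^ 2 ≤ 1 / 16 := by
    rw [dt_comm, ← sq_abs]; nlinarith [abs_nonneg (dt n (e 2))]
  have s0 : (1 / 3) ^ 2 ≤ dt (e 0) n ^ 2 := by linarith
  have s0' : 1 / 3 ≤ |dt (e 0) n| := by
    have := sq_le_sq.1 s0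
    rwa [abs_of_pos (by norm_num : (0 : ℝ) < 1 / 3)] at this
  have e1 := dt_split he n u
  have e2 : |dt (e 0) n * dt (e 0) u| ≤
      |dt n u| + |dt n (e 1)| * |dt (e 1) u| + |dt n (e 2)| * |dt (e 2) u| := by
    have e3 : dt (e 0) n * dt (e 0) u = dt n u - dt (e 1) n * dt (e 1) u -
        dt (e 2) n * dt (e 2) u := by rw [e1]; ring
    rw [e3, ← abs_mul, ← abs_mul, dt_comm (e 1) n, dt_comm (e 2) n]
    have a1 := abs_sub (dt n u - dt n (e 1) * dt (e 1) u) (dt n (e 2) * dt (e 2) u)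
    have a2 := abs_sub (dt n u) (dt n (e 1) * dt (e 1) u)
    linarith
  rw [abs_mul] at e2
  nlinarith [abs_nonneg (dt (e 0) u)]

/-- **six entries** (three of them; exchange the frames for the others) -/
theorem pair3 {e e' f : Fin 3 → V3} {n : V3} (he : Ortho e) (he' : Ortho e') (hf : Ortho f)
    {a w1 w2 Y : ℝ} (ha : 0 < a) (ha2 : a ≤ w2) (h21 : w2 ≤ w1) (hY : 1 ≤ Y)
    (hn : 1 / 4 ≤ dt n n) (h : Crd e f n a w1 w2 Y) (h' : Crd e' f n a w1 w2 Y) :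
    |dt (e 1) (e' 2)| ≤ 24 * Y ^ 2 * (w2 / w1) ∧ |dt (e 0) (e' 2)| ≤ 24 * Y ^ 2 * (a / w2) ∧
      |dt (e 0) (e' 1)| ≤ 24 * Y ^ 2 * (a / w1) := by
  have hw2 : 0 < w2 := ha.trans_le ha2
  have hw1 : 0 < w1 := hw2.trans_le h21
  have hY0 : 0 ≤ Y := by linarith
  have he1 : ∀ i, dt (e i) (e i) = 1 := fun i => by simpa using he i i
  have he1' : ∀ i, dt (e' i) (e' i) = 1 := fun i => by simpa using he' i i
  have hYY : Y ≤ Y ^ 2 := by nlinarith
  -- entry 12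
  have c12 : w1 * |dt (e 1) (e' 2)| ≤ 6 * Y * w2 := by
    have o : dt (e' 1) (e' 2) = 0 := by simpa using he' 1 2
    exact cross1 he' he hf hw1 hw2 hY0 h'.a2 h'.a0 h.a2 h.a0 (he1' 2) o
  have c01 : w1 * |dt (e' 1) (e 0)| ≤ 6 * Y * w2 := by
    have o : dt (e 1) (e 0) = 0 := by simpa using he 1 0
    exact cross1 he he' hf hw1 hw2 hY0 h.a2 h.a0 h'.a2 h'.a0 (he1 0) o
  have c21 : w1 * |dt (e' 1) (e 2)| ≤ 6 * Y * w2 := by
    have o : dt (e 1) (e 2) = 0 := by simpa using he 1 2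
    exact cross1 he he' hf hw1 hw2 hY0 h.a2 h.a0 h'.a2 h'.a0 (he1 2) o
  refine ⟨?_, ?_, ?_⟩
  · rw [mul_div_assoc', le_div_iff₀ hw1]
    nlinarith [abs_nonneg (dt (e 1) (e' 2))]
  · rw [mul_div_assoc', le_div_iff₀ hw2]
    by_cases hlt : 4 * (Y * a) < w2
    · have k := norm_cross (u := e' 2) he (he1' 2) ha hw1 hw2 hY hn h.n1 h.n2 h21 hlt
      have k1 : |dt (e 1) (e' 2)| ≤ 1 := dt_one (he1 1) (he1' 2)
      have k2 : |dt (e 2) (e' 2)| ≤ 1 := dt_one (he1 2) (he1' 2)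
      have k3 : |dt (e 0) (e' 2)| ≤ 3 * (|dt n (e' 2)| + |dt n (e 1)| + |dt n (e 2)|) := by
        have := mul_le_mul_of_nonneg_left k1 (abs_nonneg (dt n (e 1)))
        have := mul_le_mul_of_nonneg_left k2 (abs_nonneg (dt n (e 2)))
        linarith
      have k4 : w2 * |dt n (e 1)| ≤ Y * a :=
        (mul_le_mul_of_nonneg_right h21 (abs_nonneg _)).trans h.n1
      have k5 := h.n2
      have k6 := h'.n2
      nlinarith
    · push Not at hlt
      have := dt_one (he1 0) (he1' 2)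
      nlinarith
  · rw [mul_div_assoc', le_div_iff₀ hw1]
    by_cases hlt : 4 * (Y * a) < w2
    · have k := norm_cross (u := e' 1) he (he1' 1) ha hw1 hw2 hY hn h.n1 h.n2 h21 hlt
      have k1 : |dt (e 1) (e' 1)| ≤ 1 := dt_one (he1 1) (he1' 1)
      have k2 : w1 * |dt (e 2) (e' 1)| ≤ 6 * Y * w2 := by rw [dt_comm]; exact c21
      have k5 := h.n2
      have k6 := h'.n1
      have k7 := h.n1
      have k8 : w1 * (|dt n (e 2)| * |dt (e 2) (e' 1)|) ≤ 6 * Y * (Y * a) := by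
        calc w1 * (|dt n (e 2)| * |dt (e 2) (e' 1)|) = |dt n (e 2)| * (w1 * |dt (e 2) (e' 1)|) := by
              ring
          _ ≤ |dt n (e 2)| * (6 * Y * w2) := mul_le_mul_of_nonneg_left k2 (abs_nonneg _)
          _ = 6 * Y * (w2 * |dt n (e 2)|) := by ring
          _ ≤ 6 * Y * (Y * a) := mul_le_mul_of_nonneg_left k5 (by positivity)
      have k9 : w1 * (|dt n (e 1)| * |dt (e 1) (e' 1)|) ≤ Y * a := by
        calc w1 * (|dt n (e 1)| * |dt (e 1) (e' 1)|) ≤ w1 * (|dt n (e 1)| * 1) := by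
              apply mul_le_mul_of_nonneg_left _ hw1.le
              exact mul_le_mul_of_nonneg_left k1 (abs_nonneg _)
          _ = w1 * |dt n (e 1)| := by ring
          _ ≤ _ := k7
      have hYa : Y * a ≤ Y ^ 2 * a := mul_le_mul_of_nonneg_right hYY ha.le
      calc |dt (e 0) (e' 1)| * w1 ≤ 3 * (|dt n (e' 1)| + |dt n (e 1)| * |dt (e 1) (e' 1)| +
            |dt n (e 2)| * |dt (e 2) (e' 1)|) * w1 := mul_le_mul_of_nonneg_right k hw1.le
        _ = 3 * (w1 * |dt n (e' 1)| + w1 * (|dt n (e 1)| * |dt (e 1) (e' 1)|) +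
            w1 * (|dt n (e 2)| * |dt (e 2) (e' 1)|)) := by ring
        _ ≤ 3 * (Y * a + Y * a + 6 * Y * (Y * a)) := by linarith
        _ ≤ 24 * Y ^ 2 * a := by nlinarith
    · push Not at hlt
      rw [dt_comm]
      nlinarith

end

end Crest.Agent.R136.Crf861
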