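import Crest.Agent.R136.Crf3_861
import Crest.Agent.R136.Crf4_861

/-!
# R136 (S0187), U5 crude tilt, flat half (helper861), part 5: one class

`class_crdQ`, `class_crdL` : the crude information `Crd` for all lines of a near-maximal flat box
inside a container, the normal vector being the gradient of the container (thick container) or its
axis `f 0` (thin container).
-/

set_option autoImplicit false
set_option linter.unusedVariables false
set_option linter.unusedSectionVars false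

open Finset

namespace Crest.Agent.R136.Crf861

open Sh605 Crest.Agent.R136.UB861

/-- gradient vector -/
def nG (b d : V3) (g : Fin 3 → Fin 3 → ℝ) (z : ℝ) (x : V3) : V3 :=
  fun i => (b i + d i * z) + (∑ j, g i j * x j + ∑ j, g j i * x j)

theorem dt_nG (b d : V3) (g : Fin 3 → Fin 3 → ℝ) (z : ℝ) (x h : V3) :
    dt (nG b d g z x) h = Gf b d g z x h := by
  simp only [nG, dt, Gf, Fin.sum_univ_three]; ring

theorem nG_lin (u : V3) (z : ℝ) (x : V3) : nG u 0 0 z x = u := by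
  funext i; simp [nG]

section

variable {e f : Fin 3 → V3} {c cK : Ln4} {W : V3} {q : ℝ → V3 → ℝ} {a w1 w2 aK z0 ρ zK ρK rK : ℝ}
variable {k0 k1 k2 : ℝ} {b d : V3} {g : Fin 3 → Fin 3 → ℝ} {α : Type*}

open Classical in
/-- D-max for flat boxes with the frame of the class, widths down to `η` times the widths of the
class -/
def DBx (s : Finset α) (L : α → Ln4) (e : Fin 3 → V3) (a w1 w2 z0 ρ V q1 q2 η : ℝ) : Prop :=
  ∀ (c' : Ln4) (s1 s2 : ℝ), a ≤ s2 → s2 ≤ s1 → s1 ≤ w1 → s2 ≤ w2 → η * w1 ≤ s1 →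
    η * w2 ≤ s2 →
    ((s.filter fun t => InBx (L t) e c' a s1 s2 z0 ρ).card : ℝ) ≤
      V * ((s1 / w1) * (s2 / w2)) * ((s1 / w1) ^ q1 * (s2 / w2) ^ q2)

set_option maxHeartbeats 3200000 in
open Classical in
/-- **one class against the container** -/
theorem class_crd (s : Finset α) (L : α → Ln4) (hρ : 0 < ρ) (he : Ortho e) (ha : 0 < a)
    (ha2 : a ≤ w2) (h21 : w2 ≤ w1) (hS : ∀ t ∈ s, InBx (L t) e c a w1 w2 z0 ρ)
    (S : ShN f cK W q aK zK ρK rK) (hr : 0 < rK) (hcell : zK ≤ z0) (hcell' : z0 + ρ ≤ zK + ρK)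
    (hK : ∀ t ∈ s, InSheet (L t) f cK W q aK zK ρK)
    {X E X1 V q1 q2 h δ θ η : ℝ} (hX : 1 ≤ X) (hW2 : W 2 ≤ X * w2) (hE0 : 0 < E)
    (hE : E ≤ 232 * X * a)
    (hPE : ∀ t ∈ s, ∀ T ∈ s, ∀ z, z0 ≤ z → z ≤ z0 + ρ →
      |dt (e 1) ((L t).pos z - (L T).pos z) * Gf b d g z ((L T).pos z) (e 1) +
        dt (e 2) ((L t).pos z - (L T).pos z) * Gf b d g z ((L T).pos z) (e 2) +
        dt (e 1) ((L t).pos z - (L T).pos z) ^ 2 * (Bf g (e 1) (e 1) / 2) +
        2 * (dt (e 1) ((L t).pos z - (L T).pos z) * dt (e 2) ((L t).pos z - (L T).pos z)) *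
          (Bf g (e 1) (e 2) / 2) +
        dt (e 2) ((L t).pos z - (L T).pos z) ^ 2 * (Bf g (e 2) (e 2) / 2)| ≤ E)
    (hn : ∀ t ∈ s, ∀ z, z0 ≤ z → z ≤ z0 + ρ →
      |dt (nG b d g z ((L t).pos z)) (f 0)| ≤ 2 ∧ |dt (nG b d g z ((L t).pos z)) (f 2)| ≤ 1 ∧
        |dt (nG b d g z ((L t).pos z)) (f 1)| * W 1 ≤ W 0)
    (hX1 : 0 < X1) (hV0 : 0 ≤ V) (hV : V ≤ X1 * s.card) (hq1 : 0 ≤ q1)
    (hh : 0 < h) (hhδ : h ≤ δ) (hδ1 : δ ≤ 1 / 64) (hθ : 0 < θ) (hθ1 : θ ≤ 1)
    (hη1 : η ≤ 8 * h) (hη2 : η ≤ θ)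
    (hD : DBx s L e a w1 w2 z0 ρ V q1 q2 η)
    (N1 : X1 * (48672000 * (8 * h) ^ (q1 + q2) / δ ^ 2) < 1)
    (N2 : X1 * (302580000000 * (8 * δ) ^ (q1 + q2)) < 1) (N3 : X1 * θ < 1) :
    ∀ t ∈ s, ∀ z, z0 ≤ z → z ≤ z0 + ρ →
      Crd e f (nG b d g z ((L t).pos z)) a w1 w2 (232 * X / (h * θ)) := by
  intro t ht z hz hz'
  have hw2 : 0 < w2 := ha.trans_le ha2
  have hw1 : 0 < w1 := hw2.trans_le h21
  have hδ : 0 < δ := hh.trans_le hhδ
  have hsn : s.Nonempty := ⟨t, ht⟩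
  have hWp := wC_pos S hr
  have hf1 : ∀ i, dt (f i) (f i) = 1 := fun i => by simpa using S.ortho i i
  have he1 : ∀ i, dt (e i) (e i) = 1 := fun i => by simpa using he i i
  have hhθ : 0 < h * θ := by positivity
  have hh1 : h ≤ 1 := by linarith
  -- the wide axis
  have hax : (w1 * |dt (e 1) (f 2)| ≤ 6 * X / θ * w2 ∧ w1 * |dt (e 1) (f 0)| ≤ 6 * X / θ * w2) ∧
      (w2 ≤ θ * w1 → θ * w1 ≤ 4 * W 1) := by
    by_cases hc : w2 ≤ θ * w1
    · obtain ⟨t1, ht1, t2, ht2, z', hz1, hz2, hsp⟩ := spread s L he hsn hS hX1.le hθ hV (by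
        intro c'
        refine (hD c' (θ * w1) w2 ha2 hc (by nlinarith) le_rfl (by nlinarith) (by nlinarith)).trans ?_
        have e1 : θ * w1 / w1 = θ := by field_simp
        rw [e1, div_self hw2.ne', Real.one_rpow, mul_one, mul_one]
        have e2 : θ ^ q1 ≤ 1 := Real.rpow_le_one hθ.le hθ1 hq1
        have e3 : 0 ≤ V * θ := by positivity
        nlinarith) N3
      obtain ⟨u1, u2⟩ := axisB (aK := aK) S he ha2 hw1 hw2 hz1 hz2 (hcell.trans hz1)
        (hz2.trans hcell') (hS t1 ht1) (hS t2 ht2) (hK t1 ht1) (hK t2 ht2) hX hW2 hθ hsp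
      exact ⟨u1, fun _ => u2⟩
    · push Not at hc
      have k1 : w1 ≤ 6 * X / θ * w2 := by
        rw [div_mul_eq_mul_div, le_div_iff₀ hθ]
        nlinarith
      refine ⟨⟨?_, ?_⟩, fun h' => absurd h' (not_le.2 hc)⟩
      · have := dt_one (he1 1) (hf1 2)
        nlinarith [abs_nonneg (dt (e 1) (f 2))]
      · have := dt_one (he1 1) (hf1 0)
        nlinarith [abs_nonneg (dt (e 1) (f 0))]
  obtain ⟨⟨hb2, hb0⟩, hW1⟩ := hax
  have hcoef : 6 * X / θ ≤ 232 * X / (h * θ) := by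
    rw [div_le_div_iff₀ hθ hhθ]
    have : 0 < X * θ := by positivity
    nlinarith
  obtain ⟨m0, m2, m1⟩ := hn t ht z hz hz'
  set n := nG b d g z ((L t).pos z) with hndef
  have m1' : |dt n (f 1)| ≤ 1 := by
    have h1 : |dt n (f 1)| * W 1 ≤ 1 * W 1 := by
      rw [one_mul]; exact m1.trans (S.w0_le.trans S.w_le)
    exact le_of_mul_le_mul_right h1 (hWp 1)
  have split : ∀ i, |dt n (e i)| ≤ 2 * |dt (e i) (f 0)| + |dt n (f 1)| * |dt (e i) (f 1)| +
      |dt (e i) (f 2)| := by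
    intro i
    have e1 := dt_split S.ortho n (e i)
    rw [e1, dt_comm (f 0) n, dt_comm (f 1) n, dt_comm (f 2) n, dt_comm (f 0) (e i),
      dt_comm (f 1) (e i), dt_comm (f 2) (e i)]
    refine (abs_add_le _ _).trans ?_
    have a1 := abs_add_le (dt n (f 0) * dt (e i) (f 0)) (dt n (f 1) * dt (e i) (f 1))
    have b0 : |dt n (f 0) * dt (e i) (f 0)| ≤ 2 * |dt (e i) (f 0)| := by
      rw [abs_mul]; exact mul_le_mul_of_nonneg_right m0 (abs_nonneg _)
    have b1 : |dt n (f 1) * dt (e i) (f 1)| = |dt n (f 1)| * |dt (e i) (f 1)| := abs_mul _ _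
    have b2 : |dt n (f 2) * dt (e i) (f 2)| ≤ 1 * |dt (e i) (f 2)| := by
      rw [abs_mul]; exact mul_le_mul_of_nonneg_right m2 (abs_nonneg _)
    linarith
  have hne : ∀ i, |dt n (e i)| ≤ 4 := by
    intro i
    have a0 := dt_one (he1 i) (hf1 0)
    have a1 := dt_one (he1 i) (hf1 1)
    have a2 := dt_one (he1 i) (hf1 2)
    have := split i
    nlinarith [abs_nonneg (dt n (f 1)), abs_nonneg (dt (e i) (f 1))]
  refine ⟨?_, ?_, ?_, ?_⟩
  · by_cases hR : a ≤ 8 * h * w2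
    · have key := (crudeA0 s L hρ he ha hw1 hw2 hS hE0 hPE hX1 hV hh hh1 hδ hδ1 (κ := q1 + q2) (by
        intro c' σ hσ
        have hσp : 0 < σ := by rcases hσ with h | h <;> rw [h] <;> positivity
        have hσ1 : σ ≤ 1 := by rcases hσ with h | h <;> rw [h] <;> linarith
        have hσh : 8 * h ≤ σ := by rcases hσ with h | h <;> rw [h]; linarith
        refine (hD c' (σ * w1) (σ * w2) (hR.trans (by nlinarith)) (by nlinarith) (by nlinarith)
          (by nlinarith) (by nlinarith) (by nlinarith)).trans (le_of_eq ?_)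
        have e1 : σ * w1 / w1 = σ := by field_simp
        have e2 : σ * w2 / w2 = σ := by field_simp
        rw [e1, e2, Real.rpow_add hσp, Real.rpow_add hσp, Real.rpow_two]
        ring) N1 N2 t ht z hz hz').1
      rw [abs_mul, abs_of_pos hw1] at key
      rw [dt_nG]
      refine key.trans ?_
      rw [div_mul_eq_mul_div, div_le_div_iff₀ hh hhθ]
      have : E * (h * θ) ≤ 232 * X * a * (h * θ) := mul_le_mul_of_nonneg_right hE hhθ.le
      have h3 : 232 * X * a * (h * θ) ≤ 232 * X * a * h := by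
        have : 0 < 232 * X * a * h := by positivity
        nlinarith
      linarith
    · push Not at hR
      have k8 : h * w2 ≤ a / 8 := by linarith
      by_cases hc : w2 ≤ θ * w1
      · have hW1' := hW1 hc
        have s1 := split 1
        have a1 := dt_one (he1 1) (hf1 1)
        have t1 : w1 * (|dt n (f 1)| * |dt (e 1) (f 1)|) ≤ 4 * X / θ * w2 := by
          rw [div_mul_eq_mul_div, le_div_iff₀ hθ]
          have r1 : |dt n (f 1)| * |dt (e 1) (f 1)| ≤ |dt n (f 1)| := by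
            nlinarith [abs_nonneg (dt n (f 1))]
          have r2 : θ * w1 * |dt n (f 1)| ≤ 4 * (X * w2) := by
            have r3 : θ * w1 * |dt n (f 1)| ≤ 4 * W 1 * |dt n (f 1)| :=
              mul_le_mul_of_nonneg_right hW1' (abs_nonneg _)
            have r4 : W 0 ≤ X * w2 := S.w0_le.trans hW2
            nlinarith
          have r5 : w1 * (|dt n (f 1)| * |dt (e 1) (f 1)|) * θ ≤ w1 * |dt n (f 1)| * θ := by
            apply mul_le_mul_of_nonneg_right _ hθ.le
            exact mul_le_mul_of_nonneg_left r1 hw1.le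
          nlinarith
        have t2 : w1 * |dt n (e 1)| ≤ 22 * X / θ * w2 := by
          have e3 : w1 * |dt n (e 1)| ≤ 2 * (w1 * |dt (e 1) (f 0)|) +
              w1 * (|dt n (f 1)| * |dt (e 1) (f 1)|) + w1 * |dt (e 1) (f 2)| := by
            have := mul_le_mul_of_nonneg_left s1 hw1.le
            linarith
          have e4 : 22 * X / θ * w2 = 2 * (6 * X / θ * w2) + 4 * X / θ * w2 + 6 * X / θ * w2 := by
            ring
          rw [e4]; linarith
        refine t2.trans ?_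
        rw [div_mul_eq_mul_div, div_mul_eq_mul_div, div_le_div_iff₀ hθ hhθ]
        have hXθ : 0 < X * θ := by positivity
        nlinarith
      · push Not at hc
        have e5 : w1 * |dt n (e 1)| ≤ w1 * 4 := mul_le_mul_of_nonneg_left (hne 1) hw1.le
        rw [div_mul_eq_mul_div, le_div_iff₀ hhθ]
        have e6 : w1 * |dt n (e 1)| * (h * θ) ≤ w1 * 4 * (h * θ) :=
          mul_le_mul_of_nonneg_right e5 hhθ.le
        have e7 : w1 * 4 * (h * θ) ≤ 4 * (h * w2) := by nlinarith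
        have e8 : a ≤ X * a := by nlinarith
        linarith
  · by_cases hR : a ≤ 8 * h * w2
    · have key := (crudeA0 s L hρ he ha hw1 hw2 hS hE0 hPE hX1 hV hh hh1 hδ hδ1 (κ := q1 + q2) (by
        intro c' σ hσ
        have hσp : 0 < σ := by rcases hσ with h | h <;> rw [h] <;> positivity
        have hσ1 : σ ≤ 1 := by rcases hσ with h | h <;> rw [h] <;> linarith
        have hσh : 8 * h ≤ σ := by rcases hσ with h | h <;> rw [h]; linarith
        refine (hD c' (σ * w1) (σ * w2) (hR.trans (by nlinarith)) (by nlinarith) (by nlinarith)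
          (by nlinarith) (by nlinarith) (by nlinarith)).trans (le_of_eq ?_)
        have e1 : σ * w1 / w1 = σ := by field_simp
        have e2 : σ * w2 / w2 = σ := by field_simp
        rw [e1, e2, Real.rpow_add hσp, Real.rpow_add hσp, Real.rpow_two]
        ring) N1 N2 t ht z hz hz').2
      rw [abs_mul, abs_of_pos hw2] at key
      rw [dt_nG]
      refine key.trans ?_
      rw [div_mul_eq_mul_div, div_le_div_iff₀ hh hhθ]
      have : E * (h * θ) ≤ 232 * X * a * (h * θ) := mul_le_mul_of_nonneg_right hE hhθ.le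
      have h3 : 232 * X * a * (h * θ) ≤ 232 * X * a * h := by
        have : 0 < 232 * X * a * h := by positivity
        nlinarith
      linarith
    · push Not at hR
      have e5 : w2 * |dt n (e 2)| ≤ w2 * 4 := mul_le_mul_of_nonneg_left (hne 2) hw2.le
      rw [div_mul_eq_mul_div, le_div_iff₀ hhθ]
      have e6 : w2 * |dt n (e 2)| * (h * θ) ≤ w2 * 4 * (h * θ) :=
        mul_le_mul_of_nonneg_right e5 hhθ.le
      have e7 : w2 * 4 * (h * θ) ≤ 4 * (h * w2) := by
        have : 0 < h * w2 := by positivity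
        nlinarith
      have e8 : a ≤ X * a := by nlinarith
      linarith
  · exact hb2.trans (mul_le_mul_of_nonneg_right hcoef hw2.le)
  · exact hb0.trans (mul_le_mul_of_nonneg_right hcoef hw2.le)

open Classical in
/-- **thick container** : the normal vector is the gradient of the container -/
theorem class_crdQ (s : Finset α) (L : α → Ln4) (hρ : 0 < ρ) (he : Ortho e) (ha : 0 < a)
    (ha2 : a ≤ w2) (h21 : w2 ≤ w1) (hS : ∀ t ∈ s, InBx (L t) e c a w1 w2 z0 ρ)
    (S : ShN f cK W q aK zK ρK rK) (hr : 0 < rK) (hcell : zK ≤ z0) (hcell' : z0 + ρ ≤ zK + ρK)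
    (hq : QR q k0 k1 k2 b d g)
    (hK : ∀ t ∈ s, InSheet (L t) f cK W q aK zK ρK)
    {X X1 V q1 q2 h δ θ η : ℝ} (hX : 1 ≤ X) (hW2 : W 2 ≤ X * w2) (haK : aK ≤ X * a)
    (haW : a ≤ X * W 0)
    (hX1 : 0 < X1) (hV0 : 0 ≤ V) (hV : V ≤ X1 * s.card) (hq1 : 0 ≤ q1)
    (hh : 0 < h) (hhδ : h ≤ δ) (hδ1 : δ ≤ 1 / 64) (hθ : 0 < θ) (hθ1 : θ ≤ 1)
    (hη1 : η ≤ 8 * h) (hη2 : η ≤ θ)
    (hD : DBx s L e a w1 w2 z0 ρ V q1 q2 η)
    (N1 : X1 * (48672000 * (8 * h) ^ (q1 + q2) / δ ^ 2) < 1)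
    (N2 : X1 * (302580000000 * (8 * δ) ^ (q1 + q2)) < 1) (N3 : X1 * θ < 1) :
    ∀ t ∈ s, ∀ z, z0 ≤ z → z ≤ z0 + ρ →
      Crd e f (nG b d g z ((L t).pos z)) a w1 w2 (232 * X / (h * θ)) ∧
        1 / 4 ≤ dt (nG b d g z ((L t).pos z)) (nG b d g z ((L t).pos z)) := by
  have hρK : 0 ≤ ρK := by linarith
  have hWp := wC_pos S hr
  have grad : ∀ t ∈ s, ∀ z, z0 ≤ z → z ≤ z0 + ρ → _ := fun t ht z hz hz' =>
    gradC S hr hq (hcell.trans hz) (hz'.trans hcell') (x := (L t).pos z) (fun j => by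
      have := (hK t ht z (hcell.trans hz) (hz'.trans hcell')).1 j
      have := hWp j
      linarith)
  intro t ht z hz hz'
  refine ⟨class_crd s L hρ he ha ha2 h21 hS S hr hcell hcell' hK hX hW2
    (E := 232 * X * a) (by positivity) le_rfl ?_ ?_ hX1 hV0 hV hq1 hh hhδ hδ1 hθ hθ1 hη1 hη2 hD
    N1 N2 N3 t ht z hz hz', ?_⟩
  · intro t ht T hT z hz hz'
    have hzK : zK ≤ z := hcell.trans hz
    have hzK' : z ≤ zK + ρK := hz'.trans hcell'
    have inc := q_inc he hq z ((L T).pos z) ((L t).pos z - (L T).pos z)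
    have h0 : |dt (e 0) ((L t).pos z - (L T).pos z)| ≤ 2 * a := by
      have p := (hS t ht z hz hz').1
      have p' := (hS T hT z hz hz').1
      have e1 : dt (e 0) ((L t).pos z - (L T).pos z) = dt (e 0) ((L t).pos z - c.pos z) -
          dt (e 0) ((L T).pos z - c.pos z) := by simp only [dt, Pi.sub_apply]; ring
      rw [e1]
      rw [abs_le] at p p' ⊢
      constructor <;> linarith
    have er := err_le S hr hρK hq he (hK t ht) (hK T hT) hzK hzK' ha h0 hX haW
    have e0 : (L T).pos z + ((L t).pos z - (L T).pos z) = (L t).pos z := by abel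
    rw [e0] at inc
    have q1 := (hK t ht z hzK hzK').2
    have q2 := (hK T hT z hzK hzK').2
    rw [abs_le] at er q1 q2 ⊢
    constructor <;> nlinarith
  · intro t ht z hz hz'
    have G := grad t ht z hz hz'
    simp only [dt_nG]
    refine ⟨abs_le.2 ⟨by linarith [G.1.1], G.1.2⟩,
      G.2.2.trans (div_le_one_of_le₀ S.w0_le (hWp 2).le), ?_⟩
    have := G.2.1
    rwa [le_div_iff₀ (hWp 1)] at this
  · have G := grad t ht z hz hz'
    have hf1 : dt (f 0) (f 0) = 1 := by simpa using S.ortho 0 0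
    have c1 := cauchy (nG b d g z ((L t).pos z)) (f 0)
    rw [hf1, mul_one, dt_nG] at c1
    nlinarith [G.1.1]

open Classical in
/-- **thin container** : the normal vector is the axis `f 0` -/
theorem class_crdL (s : Finset α) (L : α → Ln4) (hρ : 0 < ρ) (he : Ortho e) (ha : 0 < a)
    (ha2 : a ≤ w2) (h21 : w2 ≤ w1) (hS : ∀ t ∈ s, InBx (L t) e c a w1 w2 z0 ρ)
    (S : ShN f cK W q aK zK ρK rK) (hr : 0 < rK) (hcell : zK ≤ z0) (hcell' : z0 + ρ ≤ zK + ρK)
    (hK : ∀ t ∈ s, InSheet (L t) f cK W q aK zK ρK)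
    {X X1 V q1 q2 h δ θ η : ℝ} (hX : 1 ≤ X) (hW2 : W 2 ≤ X * w2)
    (haW : W 0 ≤ X * a)
    (hX1 : 0 < X1) (hV0 : 0 ≤ V) (hV : V ≤ X1 * s.card) (hq1 : 0 ≤ q1)
    (hh : 0 < h) (hhδ : h ≤ δ) (hδ1 : δ ≤ 1 / 64) (hθ : 0 < θ) (hθ1 : θ ≤ 1)
    (hη1 : η ≤ 8 * h) (hη2 : η ≤ θ)
    (hD : DBx s L e a w1 w2 z0 ρ V q1 q2 η)
    (N1 : X1 * (48672000 * (8 * h) ^ (q1 + q2) / δ ^ 2) < 1)
    (N2 : X1 * (302580000000 * (8 * δ) ^ (q1 + q2)) < 1) (N3 : X1 * θ < 1) :
    ∀ t ∈ s, Crd e f (f 0) a w1 w2 (232 * X / (h * θ)) := by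
  have hWp := wC_pos S hr
  have hff : ∀ i, dt (f 0) (f i) = if (0 : Fin 3) = i then 1 else 0 := fun i => S.ortho 0 i
  intro t ht
  have := class_crd (b := f 0) (d := 0) (g := 0) s L hρ he ha ha2 h21 hS S hr hcell hcell' hK hX hW2
    (E := 232 * X * a) (by positivity) le_rfl ?_ ?_ hX1 hV0 hV hq1 hh hhδ hδ1 hθ hθ1 hη1 hη2 hD
    N1 N2 N3 t ht z0 le_rfl (by linarith)
  · rwa [nG_lin] at this
  · intro t ht T hT z hz hz'
    have hzK : zK ≤ z := hcell.trans hz
    have hzK' : z ≤ zK + ρK := hz'.trans hcell'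
    have g0 : ∀ x h : V3, Gf (f 0) 0 0 z x h = dt (f 0) h := by
      intro x h; rw [← dt_nG, nG_lin]
    have b0 : ∀ x h : V3, Bf (0 : Fin 3 → Fin 3 → ℝ) x h = 0 := by
      intro x h; simp [Bf]
    rw [g0, g0, b0, b0, b0]
    set Δ := (L t).pos z - (L T).pos z with hΔ
    have h0 : |dt (e 0) Δ| ≤ 2 * a := by
      have p := (hS t ht z hz hz').1
      have p' := (hS T hT z hz hz').1
      have e1 : dt (e 0) Δ = dt (e 0) ((L t).pos z - c.pos z) -
          dt (e 0) ((L T).pos z - c.pos z) := by rw [hΔ]; simp only [dt, Pi.sub_apply]; ring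
      rw [e1]
      rw [abs_le] at p p' ⊢
      constructor <;> linarith
    have h1 : |dt (f 0) Δ| ≤ 2 * W 0 := by
      have p := (hK t ht z hzK hzK').1 0
      have p' := (hK T hT z hzK hzK').1 0
      have e1 : dt (f 0) Δ = dt (f 0) ((L t).pos z - cK.pos z) -
          dt (f 0) ((L T).pos z - cK.pos z) := by rw [hΔ]; simp only [dt, Pi.sub_apply]; ring
      rw [e1]
      rw [abs_le] at p p' ⊢
      constructor <;> linarith
    have e2 := dt_split he (f 0) Δ
    have he1 : dt (e 0) (e 0) = 1 := by simpa using he 0 0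
    have hf1 : dt (f 0) (f 0) = 1 := by simpa using S.ortho 0 0
    have h2 : |dt (e 0) (f 0) * dt (e 0) Δ| ≤ 1 * (2 * a) := by
      rw [abs_mul]
      exact mul_le_mul (dt_one he1 hf1) h0 (abs_nonneg _) zero_le_one
    have e3 : dt (e 1) Δ * dt (f 0) (e 1) + dt (e 2) Δ * dt (f 0) (e 2) + dt (e 1) Δ ^ 2 * (0 / 2) +
        2 * (dt (e 1) Δ * dt (e 2) Δ) * (0 / 2) + dt (e 2) Δ ^ 2 * (0 / 2) =
        dt (f 0) Δ - dt (e 0) (f 0) * dt (e 0) Δ := by
      rw [e2, dt_comm (f 0) (e 1), dt_comm (f 0) (e 2)]; ring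
    rw [e3]
    have hXa : a ≤ X * a := by nlinarith
    rw [abs_le] at h1 h2 ⊢
    constructor <;> nlinarith
  · intro t ht z hz hz'
    rw [nG_lin, hff, hff, hff]
    simp only [if_true, (by decide : (0 : Fin 3) ≠ 2), (by decide : (0 : Fin 3) ≠ 1), if_false,
      abs_one, abs_zero, zero_mul]
    exact ⟨by norm_num, by norm_num, (hWp 0).le⟩

end

end Crest.Agent.R136.Crf861
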