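import Crest.Agent.R136.LmQ0_861

/-!
# R136, LEMMA A_Q, part 3: the dichotomy, finite form (helper861)
-/

set_option autoImplicit false
set_option linter.unusedVariables false
set_option linter.unusedSectionVars false

namespace Crest.Agent.R136.LmQ861

open Finset Crest.Agent.R138.LmA861

/-- plank relation around the incidence `x`: steep direction `n` (thickness `100 / R`), lateral
frame `E` with widths `100 w a H / R`, all at the height of `x`. -/
def Plk {ι : Type} (γ v : ι → ℝ → Fin 3 → ℝ) (R : ℝ) (H : ℕ) (n : Fin 3 → ℝ)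
    (E : Fin 2 → Fin 3 → ℝ) (w : Fin 2 → ℝ) (x y : ι × ℤ) : Prop :=
  |∑ i, n i * (γ y.1 ((x.2 : ℝ) / R) i - γ x.1 ((x.2 : ℝ) / R) i)| ≤ 100 / R ∧
  |∑ i, n i * (v y.1 ((x.2 : ℝ) / R) i - v x.1 ((x.2 : ℝ) / R) i)| ≤ 100 / H ∧
  ∀ a, |∑ i, E a i * (γ y.1 ((x.2 : ℝ) / R) i - γ x.1 ((x.2 : ℝ) / R) i)| ≤ 100 * w a * H / R ∧
    |∑ i, E a i * (v y.1 ((x.2 : ℝ) / R) i - v x.1 ((x.2 : ℝ) / R) i)| ≤ 100 * w a

open Classical in
/-- the one-slab lemma (helper480), consequence of the Kakeya maximal theorem in `R^3`. -/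
def SlabOne : Prop := ∀ ε : ℝ, 0 < ε → ∃ C : ℝ, 0 < C ∧
  ∀ {ι : Type} [DecidableEq ι] (J : Finset (ι × ℤ)) (γ v : ι → ℝ → Fin 3 → ℝ) (H : ℕ) (R : ℝ)
    (j0 : ℤ) (n : Fin 3 → ℝ) (θ θ' D : ℝ), J.Nonempty → 0 < H → (H : ℝ) ^ 2 ≤ R → 0 < θ →
    0 < θ' → 0 ≤ D → ∑ i, n i ^ 2 = 1 → |(j0 : ℝ)| ≤ R →
    (∀ x ∈ J, C11 γ v x.1 ∧ |(x.2 : ℝ)| ≤ R ∧ j0 ≤ x.2 ∧ x.2 < j0 + H) →
    (∀ x ∈ J, ∀ y ∈ J, ∀ i, |γ y.1 ((j0 : ℝ) / R) i - γ x.1 ((j0 : ℝ) / R) i| ≤ 8 * H / R) →
    (∀ x ∈ J, ∀ y ∈ J, |∑ i, n i * (γ y.1 ((j0 : ℝ) / R) i - γ x.1 ((j0 : ℝ) / R) i)| ≤ 1 / R) →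
    (∀ x ∈ J, ∀ y ∈ J, |∑ i, n i * (v y.1 ((j0 : ℝ) / R) i - v x.1 ((j0 : ℝ) / R) i)| ≤ 2 / H) →
    (∀ x ∈ J, θ ≤ ((J.filter fun y => cell γ R y = cell γ R x).card : ℝ)) →
    (∀ x ∈ J, θ' ≤ ((J.filter fun y => y.1 = x.1).card : ℝ)) →
    (∀ x ∈ J, ∀ E : Fin 2 → Fin 3 → ℝ, (∀ a b, ∑ i, E a i * E b i = if a = b then 1 else 0) →
      (∀ a, ∑ i, E a i * n i = 0) → ∀ w : Fin 2 → ℝ, (∀ a, 1 / (H : ℝ) ≤ w a ∧ w a ≤ 1) →
      (((J.filter (Plk γ v R H n E w x)).image Prod.fst).card : ℝ) ≤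
        D * (w 0 * w 1) * (H : ℝ) ^ 2) →
    θ * θ' ^ 2 ≤ C * (H : ℝ) ^ (2 + ε) * D

theorem abs_dot_le {n a : Fin 3 → ℝ} (hn : ∑ i, n i ^ 2 = 1) {M : ℝ} (h : ∀ i, |a i| ≤ M) :
    |∑ i, n i * a i| ≤ 3 * M := by
  have hn1 : ∀ i, |n i| ≤ 1 := by
    intro i
    rw [← sq_le_one_iff_abs_le_one]
    calc n i ^ 2 ≤ ∑ i, n i ^ 2 := single_le_sum (f := fun i => n i ^ 2)
          (fun i _ => sq_nonneg _) (mem_univ i)
      _ = 1 := hn
  have hM : 0 ≤ M := (abs_nonneg _).trans (h 0)
  calc |∑ i, n i * a i| ≤ ∑ i, |n i * a i| := abs_sum_le_sum_abs _ _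
    _ ≤ ∑ _i : Fin 3, M := by
        refine sum_le_sum fun i _ => ?_
        rw [abs_mul]
        calc |n i| * |a i| ≤ 1 * M := mul_le_mul (hn1 i) (h i) (abs_nonneg _) zero_le_one
          _ = M := one_mul _
    _ = 3 * M := by simp

open Classical in
/-- **LEMMA A_Q, finite form.** -/
theorem lemmaQ (hSlab : SlabOne) (ε : ℝ) (hε : 0 < ε) : ∃ C : ℝ, 0 < C ∧ ∃ N : ℕ,
    ∀ {ι : Type} [DecidableEq ι] (I : Finset (ι × ℤ)) (γ v : ι → ℝ → Fin 3 → ℝ) (H R' : ℕ)
      (R h0 h1 m D : ℝ), I.Nonempty → 0 < H → H ≤ R' → R = H * R' → 0 < h0 → 0 < h1 → 0 < m →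
      0 ≤ D →
      (∀ x ∈ I, |(x.2 : ℝ)| ≤ R ∧ (∀ i, |pt γ R x i| ≤ 1) ∧ C11 γ v x.1) →
      (∀ x ∈ I, h0 ≤ ((I.filter fun y => y.1 = x.1).card : ℝ)) →
      (∀ x ∈ I, h1 ≤ ((I.filter fun y => y.1 = x.1 ∧ y.2 / (H : ℤ) = x.2 / (H : ℤ)).card : ℝ)) →
      (∀ x ∈ I, m ≤ ((I.filter fun y => y.2 = x.2 ∧
        ∀ i, |pt γ R y i - pt γ R x i| ≤ 1 / R).card : ℝ)) →
      (∀ x ∈ I, ∀ n : Fin 3 → ℝ, ∑ i, n i ^ 2 = 1 → ∀ E : Fin 2 → Fin 3 → ℝ,
        (∀ a b, ∑ i, E a i * E b i = if a = b then 1 else 0) →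
        (∀ a, ∑ i, E a i * n i = 0) → ∀ w : Fin 2 → ℝ, (∀ a, 1 / (H : ℝ) ≤ w a ∧ w a ≤ 1) →
        (((I.filter fun y => |(y.2 : ℝ) - x.2| ≤ H ∧ Plk γ v R H n E w x y).image
          Prod.fst).card : ℝ) ≤ D * (w 0 * w 1) * (H : ℝ) ^ 2) →
      m * h0 ^ 3 ≤ C * (H : ℝ) ^ N * ((R' : ℝ) ^ ε) ^ 3 * ((I.image Prod.fst).card : ℝ) ∨
      m * h1 ^ 5 ≤ C * (H : ℝ) ^ (5 + ε) * D := by
  obtain ⟨C, hC, N, keyA⟩ := caseA nn4c ε hε
  obtain ⟨C', hC', keyB⟩ := hSlab ε hε
  refine ⟨6912 * C ^ 3 + 10 ^ 20 * C', by positivity, 3 * N + 3, ?_⟩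
  intro ι _ I γ v H R' R h0 h1 m D hI hH hHR' hRH hh0 hh1 hm hD hbd hown hw1 hrich hplank
  have hH0 : (0 : ℝ) < H := by exact_mod_cast hH
  have hH1 : (1 : ℝ) ≤ H := by exact_mod_cast hH
  have hR'n : 0 < R' := lt_of_lt_of_le hH hHR'
  have hR'1 : (1 : ℝ) ≤ R' := by exact_mod_cast hR'n
  have hR'0 : (0 : ℝ) < R' := by linarith
  have hR : 0 < R := by rw [hRH]; positivity
  have hHz : (0 : ℤ) < H := by exact_mod_cast hH
  have hHR'' : (H : ℝ) ≤ R' := by exact_mod_cast hHR'
  have hHHR : (H : ℝ) ^ 2 ≤ R := by rw [hRH]; nlinarith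
  have hHR : (H : ℝ) ≤ R := by nlinarith
  have hIc : (0 : ℝ) < I.card := by exact_mod_cast hI.card_pos
  have hHdR : (H : ℝ) / R = 1 / R' := by rw [hRH]; field_simp
  set cl := cell γ R with hcl
  set K : ι × ℤ → Fin 4 → ℤ := fun x => big H (cl x) with hK
  have hK3 : ∀ x, K x 3 = x.2 / (H : ℤ) := by
    intro x; simp [hK, big, hcl]
  -- class counts
  have hc1 : m * ((I.image cl).card : ℝ) ≤ 27 * (I.card : ℝ) := cells_le γ hR I hrich
  have hc2 : h1 * ((I.image fun x => (x.1, K x)).card : ℝ) ≤ 125 * (I.card : ℝ) := by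
    have e1 := lineK_le γ v hH hR hHR I (fun x hx => (hbd x hx).2.2) (fun x hx => (hbd x hx).1)
    have e2 : h1 * ((I.image fun x => (x.1, x.2 / (H : ℤ))).card : ℝ) ≤ (I.card : ℝ) := by
      refine mul_image_le_card I _ fun x hx => ?_
      refine (hw1 x hx).trans (le_of_eq ?_)
      congr 2
      ext y
      simp [Prod.ext_iff]
    calc h1 * ((I.image fun x => (x.1, K x)).card : ℝ) ≤
        h1 * (125 * ((I.image fun x => (x.1, x.2 / (H : ℤ))).card : ℝ)) :=
          mul_le_mul_of_nonneg_left e1 hh1.le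
      _ = 125 * (h1 * ((I.image fun x => (x.1, x.2 / (H : ℤ))).card : ℝ)) := by ring
      _ ≤ _ := by linarith
  -- first pruning
  obtain ⟨J, hJI, hJc, hJ1, hJ2⟩ := prune2 I cl (fun x => (x.1, K x)) (μ := m / 108)
    (ν := h1 / 500) (by positivity) (by positivity) (by linarith)
  have hJpos : (0 : ℝ) < J.card := by linarith
  -- narrow cells
  set Nar : (Fin 4 → ℤ) → Prop := fun k => ∃ un : (Fin 3 → ℝ) × (Fin 3 → ℝ),
    ∑ i, un.2 i ^ 2 = 1 ∧ ((FK J K k).card : ℝ) / 2 <
      (((FK J K k).filter fun l => |∑ i, un.2 i * (v l (((k 3 : ℤ) : ℝ) / R') i - un.1 i)| ≤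
        1 / H).card : ℝ) with hNar
  set A := J.filter fun x => ¬ Nar (K x) with hA
  set B := J.filter fun x => Nar (K x) with hB
  have hAB : (B.card : ℝ) + A.card = J.card := by
    have := card_filter_add_card_filter_not (s := J) (fun x => Nar (K x))
    exact_mod_cast this
  -- lines in a coarse cell
  have hFKlow : ∀ x ∈ J, m / 108 ≤ ((FK J K (K x)).card : ℝ) := by
    intro x hx
    refine (hJ1 x hx).trans ?_
    have e1 : (J.filter fun y => cl y = cl x).card =
        ((J.filter fun y => cl y = cl x).image Prod.fst).card := by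
      symm
      apply card_image_of_injOn
      intro y hy y' hy' he
      simp only [coe_filter, Set.mem_ofPred_eq] at hy hy'
      have e2 := congrFun (hy.2.trans hy'.2.symm) 3
      simp only [hcl, cell_last] at e2
      exact Prod.ext he e2
    rw [e1]
    have e3 : (J.filter fun y => cl y = cl x).image Prod.fst ⊆ FK J K (K x) := by
      intro l hl
      obtain ⟨y, hy, rfl⟩ := mem_image.1 hl
      rw [mem_filter] at hy
      exact mem_FK.2 ⟨y, hy.1, by simp only [hK, hy.2], rfl⟩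
    exact_mod_cast card_le_card e3
  rcases le_or_gt ((J.card : ℝ) / 2) (A.card : ℝ) with hcase | hcase
  · -- CASE A
    left
    have hmain := keyA J A γ v H R' R (m / 108) (filter_subset _ _) hH hR'n hRH
      (by positivity) (fun x hx => hbd x (hJI hx))
      (fun x hx => hFKlow x (filter_subset _ _ hx))
      (by
        intro x hx u n hn
        rw [hA, mem_filter] at hx
        by_contra hcon
        exact hx.2 ⟨(u, n), hn, not_le.1 hcon⟩)
    set L : ℝ := ((I.image Prod.fst).card : ℝ) with hL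
    have hL1 : ((J.image Prod.fst).card : ℝ) ≤ L := by
      rw [hL]
      exact_mod_cast card_le_card (image_subset_image hJI)
    have hL2 : h0 * L ≤ I.card := by
      refine mul_image_le_card I _ fun x hx => ?_
      exact hown x hx
    have hLpos : 0 < L := by
      have : 0 < (I.image Prod.fst).card := card_pos.2 (hI.image _)
      rw [hL]
      exact_mod_cast this
    set X : ℝ := H * (C * (H : ℝ) ^ N * (R' : ℝ) ^ ε) with hX
    have hX0 : 0 < X := by positivity
    have e1 : h0 * L / 4 ≤ A.card := by linarith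
    have hL43 : L ^ (4 / 3 : ℝ) = L * L ^ (1 / 3 : ℝ) := by
      rw [show (4 / 3 : ℝ) = 1 + 1 / 3 by norm_num,
        Real.rpow_add_of_nonneg hLpos.le zero_le_one (by norm_num), Real.rpow_one]
    have e2 : h0 * L / 4 * (m / 108) ^ (1 / 3 : ℝ) ≤ X * (L * L ^ (1 / 3 : ℝ)) := by
      refine (mul_le_mul_of_nonneg_right e1 (Real.rpow_nonneg (by positivity) _)).trans
        (hmain.trans ?_)
      rw [← hL43, hX]
      have : ((J.image Prod.fst).card : ℝ) ^ (4 / 3 : ℝ) ≤ L ^ (4 / 3 : ℝ) :=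
        Real.rpow_le_rpow (Nat.cast_nonneg _) hL1 (by norm_num)
      calc _ ≤ H * (C * (H : ℝ) ^ N * (R' : ℝ) ^ ε * L ^ (4 / 3 : ℝ)) := by gcongr
        _ = _ := by ring
    have e3 : h0 * (m / 108) ^ (1 / 3 : ℝ) ≤ 4 * X * L ^ (1 / 3 : ℝ) := by
      have : L * (h0 * (m / 108) ^ (1 / 3 : ℝ)) ≤ L * (4 * X * L ^ (1 / 3 : ℝ)) := by
        calc L * (h0 * (m / 108) ^ (1 / 3 : ℝ)) = 4 * (h0 * L / 4 * (m / 108) ^ (1 / 3 : ℝ)) := by
              ring
          _ ≤ 4 * (X * (L * L ^ (1 / 3 : ℝ))) := by linarith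
          _ = _ := by ring
      exact le_of_mul_le_mul_left this hLpos
    have hcube : ∀ t : ℝ, 0 ≤ t → (t ^ (1 / 3 : ℝ)) ^ 3 = t := by
      intro t ht
      rw [← Real.rpow_natCast, ← Real.rpow_mul ht]
      norm_num
    have e4 : h0 ^ 3 * (m / 108) ≤ 64 * X ^ 3 * L := by
      have h5 := pow_le_pow_left₀ (by positivity) e3 3
      have h6 : (h0 * (m / 108) ^ (1 / 3 : ℝ)) ^ 3 = h0 ^ 3 * (m / 108) := by
        rw [mul_pow, hcube _ (by positivity)]
      have h7 : (4 * X * L ^ (1 / 3 : ℝ)) ^ 3 = 64 * X ^ 3 * L := by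
        rw [mul_pow, hcube _ hLpos.le]; ring
      linarith
    have e5 : m * h0 ^ 3 ≤ 6912 * C ^ 3 * ((H : ℝ) ^ (3 * N + 3) * ((R' : ℝ) ^ ε) ^ 3 * L) := by
      have : 64 * X ^ 3 * L * 108 =
          6912 * C ^ 3 * ((H : ℝ) ^ (3 * N + 3) * ((R' : ℝ) ^ ε) ^ 3 * L) := by
        rw [hX]; ring
      linarith
    have e6 : 0 ≤ (H : ℝ) ^ (3 * N + 3) * ((R' : ℝ) ^ ε) ^ 3 * L := by positivity
    calc m * h0 ^ 3 ≤ 6912 * C ^ 3 * ((H : ℝ) ^ (3 * N + 3) * ((R' : ℝ) ^ ε) ^ 3 * L) := e5
      _ ≤ (6912 * C ^ 3 + 10 ^ 20 * C') * ((H : ℝ) ^ (3 * N + 3) * ((R' : ℝ) ^ ε) ^ 3 * L) :=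
          mul_le_mul_of_nonneg_right (by nlinarith) e6
      _ = _ := by ring
  · -- CASE B
    right
    have hBc : (J.card : ℝ) / 2 ≤ B.card := by linarith
    have hBpos : (0 : ℝ) < B.card := by linarith
    -- strips
    set un : (Fin 4 → ℤ) → (Fin 3 → ℝ) × (Fin 3 → ℝ) := fun k =>
      if h : Nar k then h.choose else (0, ![1, 0, 0]) with hun
    have hunit : ∀ k, ∑ i, (un k).2 i ^ 2 = 1 := by
      intro k
      simp only [hun]
      split_ifs with h
      · exact h.choose_spec.1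
      · simp [Fin.sum_univ_three]
    have hmaj : ∀ k, Nar k → ((FK J K k).card : ℝ) / 2 <
      (((FK J K k).filter fun l =>
        |∑ i, (un k).2 i * (v l (((k 3 : ℤ) : ℝ) / R') i - (un k).1 i)| ≤ 1 / H).card : ℝ) := by
      intro k h
      have := h.choose_spec.2
      simp only [hun, dif_pos h]
      exact this
    set J1 := B.filter fun x =>
      |∑ i, (un (K x)).2 i * (v x.1 (((K x 3 : ℤ) : ℝ) / R') i - (un (K x)).1 i)| ≤ 1 / H with hJ1d
    have hJ1B : J1 ⊆ B := filter_subset _ _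
    have hBJ : B ⊆ J := filter_subset _ _
    -- size of J1
    have hJ1c : h1 / 500 * (B.card : ℝ) ≤ 2 * H * J1.card := by
      have s1 : B.card = ∑ k ∈ B.image K, (B.filter fun y => K y = k).card :=
        card_eq_sum_card_image K B
      have s2 : ∑ k ∈ B.image K, (J1.filter fun y => K y = k).card ≤ J1.card := by
        have s3 : J1.card = ∑ k ∈ J1.image K, (J1.filter fun y => K y = k).card :=
          card_eq_sum_card_image K J1
        have s4 : ∑ k ∈ B.image K, (J1.filter fun y => K y = k).card =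
            ∑ k ∈ J1.image K, (J1.filter fun y => K y = k).card := by
          symm
          refine sum_subset (image_subset_image hJ1B) ?_
          intro k _ hk
          rw [card_eq_zero, filter_eq_empty_iff]
          intro y hy he
          exact hk (mem_image.2 ⟨y, hy, he⟩)
        rw [s4, ← s3]
      have s5 : ∀ k ∈ B.image K, h1 / 500 * ((B.filter fun y => K y = k).card : ℝ) ≤
          2 * H * ((J1.filter fun y => K y = k).card : ℝ) := by
        intro k hk
        obtain ⟨x, hx, rfl⟩ := mem_image.1 hk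
        have hNx : Nar (K x) := by rw [hB, mem_filter] at hx; exact hx.2
        have t1 : ((B.filter fun y => K y = K x).card : ℝ) ≤ H * ((FK J K (K x)).card : ℝ) := by
          refine le_trans ?_ (inc_le_FK γ R hH J (K x))
          exact_mod_cast card_le_card (filter_subset_filter _ hBJ)
        have t2 := hmaj (K x) hNx
        have t3 : h1 / 500 * (((FK J K (K x)).filter fun l =>
            |∑ i, (un (K x)).2 i * (v l (((K x 3 : ℤ) : ℝ) / R') i - (un (K x)).1 i)| ≤
              1 / H).card : ℝ) ≤ ((J1.filter fun y => K y = K x).card : ℝ) := by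
          have t4 : ((FK J K (K x)).filter fun l =>
            |∑ i, (un (K x)).2 i * (v l (((K x 3 : ℤ) : ℝ) / R') i - (un (K x)).1 i)| ≤ 1 / H) ⊆
              (J1.filter fun y => K y = K x).image Prod.fst := by
            intro l hl
            rw [mem_filter] at hl
            obtain ⟨y, hy, hyK, rfl⟩ := mem_FK.1 hl.1
            rw [mem_image]
            refine ⟨y, ?_, rfl⟩
            rw [mem_filter, hJ1d, mem_filter, hB, mem_filter]
            refine ⟨⟨⟨hy, ?_⟩, ?_⟩, hyK⟩
            · rw [hyK]; exact hNx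
            · rw [hyK]; exact hl.2
          have t5 : h1 / 500 * (((J1.filter fun y => K y = K x).image Prod.fst).card : ℝ) ≤
              ((J1.filter fun y => K y = K x).card : ℝ) := by
            refine mul_image_le_card _ _ fun y hy => ?_
            rw [mem_filter] at hy
            have hyJ : y ∈ J := hBJ (hJ1B hy.1)
            refine (hJ2 y hyJ).trans ?_
            have : (J.filter fun z => (z.1, K z) = (y.1, K y)) ⊆
                (J1.filter fun z => K z = K x).filter fun z => z.1 = y.1 := by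
              intro z hz
              rw [mem_filter, Prod.mk.injEq] at hz
              obtain ⟨hz1, hz2, hz3⟩ := hz
              rw [mem_filter, mem_filter, hJ1d, mem_filter, hB, mem_filter]
              have hy' := hy.1
              rw [hJ1d, mem_filter, hB, mem_filter] at hy'
              refine ⟨⟨⟨⟨hz1, ?_⟩, ?_⟩, hz3.trans hy.2⟩, hz2⟩
              · rw [hz3]; exact hy'.1.2
              · rw [hz3, hz2]; exact hy'.2
            exact_mod_cast card_le_card this
          have t6 : (((FK J K (K x)).filter fun l =>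
            |∑ i, (un (K x)).2 i * (v l (((K x 3 : ℤ) : ℝ) / R') i - (un (K x)).1 i)| ≤
              1 / H).card : ℝ) ≤
              (((J1.filter fun y => K y = K x).image Prod.fst).card : ℝ) := by
            exact_mod_cast card_le_card t4
          exact (mul_le_mul_of_nonneg_left t6 (by positivity)).trans t5
        calc h1 / 500 * ((B.filter fun y => K y = K x).card : ℝ) ≤
            h1 / 500 * (H * ((FK J K (K x)).card : ℝ)) :=
              mul_le_mul_of_nonneg_left t1 (by positivity)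
          _ = 2 * H * (h1 / 500 * (((FK J K (K x)).card : ℝ) / 2)) := by ring
          _ ≤ 2 * H * (h1 / 500 * (((FK J K (K x)).filter fun l =>
            |∑ i, (un (K x)).2 i * (v l (((K x 3 : ℤ) : ℝ) / R') i - (un (K x)).1 i)| ≤
              1 / H).card : ℝ)) := by
              gcongr
          _ ≤ _ := mul_le_mul_of_nonneg_left t3 (by positivity)
      calc h1 / 500 * (B.card : ℝ) =
            ∑ k ∈ B.image K, h1 / 500 * ((B.filter fun y => K y = k).card : ℝ) := by
            rw [s1]; push_cast; rw [mul_sum]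
        _ ≤ ∑ k ∈ B.image K, 2 * H * ((J1.filter fun y => K y = k).card : ℝ) := sum_le_sum s5
        _ = 2 * H * ((∑ k ∈ B.image K, (J1.filter fun y => K y = k).card : ℕ) : ℝ) := by
            push_cast; rw [mul_sum]
        _ ≤ 2 * H * J1.card := by
            have : ((∑ k ∈ B.image K, (J1.filter fun y => K y = k).card : ℕ) : ℝ) ≤ J1.card := by
              exact_mod_cast s2
            exact mul_le_mul_of_nonneg_left this (by positivity)
    -- heights
    have hz1 : ∀ x ∈ I, |((K x 3 : ℤ) : ℝ)| ≤ R' ∧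
        |(x.2 : ℝ) / R - ((K x 3 : ℤ) : ℝ) / R'| ≤ H / R := by
      intro x hx
      constructor
      · have h1 := (hbd x hx).1
        rw [hRH] at h1
        have h2 : |x.2| ≤ (H : ℤ) * R' := by
          have : ((|x.2| : ℤ) : ℝ) ≤ (((H : ℤ) * R' : ℤ) : ℝ) := by push_cast; exact h1
          exact_mod_cast this
        rw [abs_le] at h2
        have h3 : -(R' : ℤ) ≤ x.2 / (H : ℤ) := by
          rw [Int.le_ediv_iff_mul_le hHz]; linarith [h2.1, mul_comm (H : ℤ) (R' : ℤ)]
        have h4 : x.2 / (H : ℤ) ≤ R' := by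
          rw [← Int.lt_add_one_iff, Int.ediv_lt_iff_lt_mul hHz]
          nlinarith [h2.2]
        rw [hK3, abs_le]
        constructor
        · exact_mod_cast h3
        · exact_mod_cast h4
      · have h1 := div_int_near hH x.2
        rw [hK3]
        have e1 : (x.2 : ℝ) / R - ((x.2 / (H : ℤ) : ℤ) : ℝ) / R' =
            ((x.2 : ℝ) / H - ((x.2 / (H : ℤ) : ℤ) : ℝ)) / R' := by
          rw [hRH]; field_simp
        rw [e1, abs_div, abs_of_pos hR'0, hHdR]
        gcongr
    have hzK : ∀ x ∈ I, |((K x 3 : ℤ) : ℝ) / R'| ≤ 2 := by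
      intro x hx
      rw [abs_div, abs_of_pos hR'0, div_le_iff₀ hR'0]
      linarith [(hz1 x hx).1]
    have hzx : ∀ x ∈ I, |(x.2 : ℝ) / R| ≤ 2 := fun x hx =>
      (ht_le hR (hbd x hx).1).trans (by norm_num)
    have hJ1II : J1 ⊆ I := hJ1B.trans (hBJ.trans hJI)
    -- slab index
    set sl : ι × ℤ → ℤ := fun x =>
      ⌊R * ∑ i, (un (K x)).2 i * γ x.1 (((K x 3 : ℤ) : ℝ) / R') i⌋ with hsl
    have hstrip : ∀ x ∈ J1,
        |∑ i, (un (K x)).2 i * (v x.1 (((K x 3 : ℤ) : ℝ) / R') i - (un (K x)).1 i)| ≤ 1 / H := by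
      intro x hx
      rw [hJ1d, mem_filter] at hx
      exact hx.2
    have hstrip2 : ∀ x ∈ J1, ∀ y ∈ J1, K y = K x →
        |∑ i, (un (K x)).2 i * (v y.1 (((K x 3 : ℤ) : ℝ) / R') i -
          v x.1 (((K x 3 : ℤ) : ℝ) / R') i)| ≤ 2 / H := by
      intro x hx y hy hKy
      have e1 := hstrip x hx
      have e2 := hstrip y hy
      rw [hKy] at e2
      have e3 : ∑ i, (un (K x)).2 i * (v y.1 (((K x 3 : ℤ) : ℝ) / R') i -
          v x.1 (((K x 3 : ℤ) : ℝ) / R') i) =
          ∑ i, (un (K x)).2 i * (v y.1 (((K x 3 : ℤ) : ℝ) / R') i - (un (K x)).1 i) -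
          ∑ i, (un (K x)).2 i * (v x.1 (((K x 3 : ℤ) : ℝ) / R') i - (un (K x)).1 i) := by
        rw [← sum_sub_distrib]
        refine sum_congr rfl fun i _ => ?_
        ring
      rw [e3]
      refine (abs_sub _ _).trans ?_
      calc _ ≤ 1 / (H : ℝ) + 1 / H := add_le_add e2 e1
        _ = 2 / H := by ring
    have hslab12 : ∀ x ∈ J1, ∀ y ∈ J1, cl y = cl x → |sl y - sl x| ≤ 12 := by
      intro x hx y hy hc
      have hKy : K y = K x := by simp only [hK, hc]
      have hy2 : y.2 = x.2 := by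
        have := congrFun hc 3
        simpa [hcl] using this
      have hxI := hJ1II hx
      have hyI := hJ1II hy
      set z := (x.2 : ℝ) / R with hz
      set zk := ((K x 3 : ℤ) : ℝ) / R' with hzk
      set n := (un (K x)).2 with hn
      have hn1 : ∑ i, n i ^ 2 = 1 := hunit _
      have hzz := (hz1 x hxI).2
      have f1 : ∀ i, |γ y.1 z i - γ x.1 z i| ≤ 1 / R := by
        intro i
        have := congrFun hc i.castSucc
        simp only [hcl, cell_castSucc] at this
        have h := near_of_floor hR this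
        simp only [pt, hy2] at h
        exact h
      have f2 := ((hbd x hxI).2.2).2.1 zk z (hzK x hxI) (hzx x hxI)
      have f3 := ((hbd y hyI).2.2).2.1 zk z (hzK x hxI) (hzx x hxI)
      have hzsq : (z - zk) ^ 2 ≤ 1 / R := by
        have : (z - zk) ^ 2 ≤ (H / R) ^ 2 := by
          rw [← sq_abs (z - zk)]
          exact pow_le_pow_left₀ (abs_nonneg _) hzz 2
        refine this.trans ?_
        rw [div_pow, div_le_div_iff₀ (by positivity) hR]
        nlinarith
      have e1 : ∑ i, n i * γ y.1 zk i - ∑ i, n i * γ x.1 zk i =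
          ∑ i, n i * ((γ y.1 z i - γ x.1 z i) -
            ((γ y.1 z i - γ y.1 zk i - (z - zk) * v y.1 zk i) -
             (γ x.1 z i - γ x.1 zk i - (z - zk) * v x.1 zk i))) -
          (z - zk) * ∑ i, n i * (v y.1 zk i - v x.1 zk i) := by
        rw [← sum_sub_distrib, mul_sum, ← sum_sub_distrib]
        refine sum_congr rfl fun i _ => ?_
        ring
      have e2 : |∑ i, n i * ((γ y.1 z i - γ x.1 z i) -
            ((γ y.1 z i - γ y.1 zk i - (z - zk) * v y.1 zk i) -
             (γ x.1 z i - γ x.1 zk i - (z - zk) * v x.1 zk i)))| ≤ 3 * (3 / R) := by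
        refine abs_dot_le hn1 fun i => ?_
        refine (abs_sub _ _).trans ?_
        have := abs_sub (γ y.1 z i - γ y.1 zk i - (z - zk) * v y.1 zk i)
          (γ x.1 z i - γ x.1 zk i - (z - zk) * v x.1 zk i)
        have g1 := f1 i
        have g2 := f2 i
        have g3 := f3 i
        have e : (3 : ℝ) / R = 1 / R + 1 / R + 1 / R := by ring
        rw [e]
        linarith
      have e3 : |(z - zk) * ∑ i, n i * (v y.1 zk i - v x.1 zk i)| ≤ 2 / R := by
        rw [abs_mul]
        calc _ ≤ H / R * (2 / H) := mul_le_mul hzz (hstrip2 x hx y hy hKy) (abs_nonneg _)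
              (by positivity)
          _ = 2 / R := by field_simp
      have e4 : |∑ i, n i * γ y.1 zk i - ∑ i, n i * γ x.1 zk i| ≤ 11 / R := by
        rw [e1]
        refine (abs_sub _ _).trans ?_
        calc _ ≤ 3 * (3 / R) + 2 / R := add_le_add e2 e3
          _ = 11 / R := by ring
      have e5 : |R * ∑ i, n i * γ y.1 zk i - R * ∑ i, n i * γ x.1 zk i| ≤ 11 := by
        rw [← mul_sub, abs_mul, abs_of_pos hR]
        calc _ ≤ R * (11 / R) := by gcongr
          _ = 11 := by field_simp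
      have hsly : sl y = ⌊R * ∑ i, n i * γ y.1 zk i⌋ := by
        simp only [hsl, hKy, hn, hzk]
      have hslx : sl x = ⌊R * ∑ i, n i * γ x.1 zk i⌋ := rfl
      rw [hsly, hslx]
      set p := R * ∑ i, n i * γ y.1 zk i with hp
      set q := R * ∑ i, n i * γ x.1 zk i with hq
      have g4 := Int.floor_le p
      have g5 := Int.lt_floor_add_one p
      have g6 := Int.floor_le q
      have g7 := Int.lt_floor_add_one q
      rw [abs_le] at e5
      have g8 : (⌊p⌋ : ℝ) - ⌊q⌋ < 12 := by linarith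
      have g9 : (⌊q⌋ : ℝ) - ⌊p⌋ < 12 := by linarith
      have g8' : ⌊p⌋ - ⌊q⌋ < 12 := by exact_mod_cast g8
      have g9' : ⌊q⌋ - ⌊p⌋ < 12 := by exact_mod_cast g9
      rw [abs_le]; omega
    -- second pruning
    set lam : ℝ := h1 / (4000 * H) with hlam
    have hlam0 : 0 < lam := by positivity
    have hJ1I : lam * I.card ≤ J1.card := by
      have e1 : (I.card : ℝ) ≤ 4 * B.card := by linarith
      have e2 : h1 / 500 * (I.card : ℝ) ≤ 8 * H * J1.card := by
        calc h1 / 500 * (I.card : ℝ) ≤ h1 / 500 * (4 * B.card) := by gcongr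
          _ = 4 * (h1 / 500 * B.card) := by ring
          _ ≤ 4 * (2 * H * J1.card) := by linarith
          _ = _ := by ring
      have e3 : lam * (I.card : ℝ) * (8 * H) = h1 / 500 * I.card := by
        rw [hlam]; field_simp; norm_num
      have e4 : lam * (I.card : ℝ) * (8 * H) ≤ J1.card * (8 * H) := by
        rw [e3]; linarith
      exact le_of_mul_le_mul_right e4 (by positivity)
    have hfcount : ((J1.image fun x => (cl x, sl x)).card : ℝ) ≤
        25 * ((J1.image cl).card : ℝ) := by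
      have h1 := card_le_mul_image (J1.image fun x => (cl x, sl x))
        (fun p : (Fin 4 → ℤ) × ℤ => p.1) (n := 25) (by
          intro p hp
          obtain ⟨x, hx, rfl⟩ := mem_image.1 hp
          have h2 : ((J1.image fun x => (cl x, sl x)).filter fun q => q.1 = cl x) ⊆
              (Icc (sl x - 12) (sl x + 12)).image (fun s => (cl x, s)) := by
            intro q hq
            rw [mem_filter] at hq
            obtain ⟨hq1, hq2⟩ := hq
            obtain ⟨y, hy, rfl⟩ := mem_image.1 hq1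
            have := hslab12 x hx y hy hq2
            rw [abs_le] at this
            rw [mem_image]
            refine ⟨sl y, ?_, ?_⟩
            · rw [mem_Icc]; constructor <;> linarith [this.1, this.2]
            · rw [← hq2]
          have h3 := (card_le_card h2).trans card_image_le
          rw [Int.card_Icc] at h3
          have h4 : (sl x + 12 + 1 - (sl x - 12)).toNat = 25 := by
            have : sl x + 12 + 1 - (sl x - 12) = 25 := by ring
            rw [this]; rfl
          rw [h4] at h3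
          exact_mod_cast h3)
      refine h1.trans (le_of_eq ?_)
      congr 2
      rw [image_image]
      rfl
    obtain ⟨J3, hJ31, hJ3c, hJ3a, hJ3b⟩ := prune2 J1 (fun x => (cl x, sl x))
      (fun x => (x.1, K x)) (μ := lam * m / 2700) (ν := lam * h1 / 500) (by positivity)
      (by positivity) (by
        have e1 : ((J1.image cl).card : ℝ) ≤ ((I.image cl).card : ℝ) := by
          exact_mod_cast card_le_card (image_subset_image hJ1II)
        have e2 : ((J1.image fun x => (x.1, K x)).card : ℝ) ≤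
            ((I.image fun x => (x.1, K x)).card : ℝ) := by
          exact_mod_cast card_le_card (image_subset_image hJ1II)
        have e3 : ((J1.image fun x => (cl x, sl x)).card : ℝ) ≤ 25 * ((I.image cl).card : ℝ) :=
          hfcount.trans (by gcongr)
        calc lam * m / 2700 * ((J1.image fun x => (cl x, sl x)).card : ℝ) +
              lam * h1 / 500 * ((J1.image fun x => (x.1, K x)).card : ℝ) ≤
            lam * m / 2700 * (25 * ((I.image cl).card : ℝ)) +
              lam * h1 / 500 * ((I.image fun x => (x.1, K x)).card : ℝ) := by gcongr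
          _ = lam / 108 * (m * ((I.image cl).card : ℝ)) +
              lam / 500 * (h1 * ((I.image fun x => (x.1, K x)).card : ℝ)) := by ring
          _ ≤ lam / 108 * (27 * I.card) + lam / 500 * (125 * I.card) := by gcongr
          _ = lam * I.card / 2 := by ring
          _ ≤ J1.card / 2 := by linarith)
    have hJ1pos : (0 : ℝ) < J1.card := lt_of_lt_of_le (by positivity) hJ1I
    have hJ3n : J3.Nonempty := by
      rw [← card_pos]
      have : (0 : ℝ) < J3.card := by linarith
      exact_mod_cast this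
    obtain ⟨x0, hx0⟩ := hJ3n
    have hJ3I : J3 ⊆ I := hJ31.trans hJ1II
    have hx0I : x0 ∈ I := hJ3I hx0
    set k := K x0 with hk
    set J4 := J3.filter fun x => K x = k ∧ sl x = sl x0 with hJ4
    have hJ4m : ∀ x ∈ J4, x ∈ J3 ∧ K x = k ∧ sl x = sl x0 := by
      intro x hx
      rw [hJ4, mem_filter] at hx
      exact hx
    have hJ43 : J4 ⊆ J3 := filter_subset _ _
    have hj0R : (((H : ℤ) * k 3 : ℤ) : ℝ) / R = ((k 3 : ℤ) : ℝ) / R' := by
      push_cast
      rw [hRH]; field_simp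
    have hj0w : ∀ x ∈ J4, (H : ℤ) * k 3 ≤ x.2 ∧ x.2 < (H : ℤ) * k 3 + H := by
      intro x hx
      have e1 : x.2 / (H : ℤ) = k 3 := by rw [← hK3, (hJ4m x hx).2.1]
      have a1 := Int.emod_add_mul_ediv x.2 H
      have a3 := Int.emod_nonneg x.2 hHz.ne'
      have a5 := Int.emod_lt_of_pos x.2 hHz
      rw [e1] at a1
      constructor <;> linarith
    have hmain := keyB J4 γ v H R ((H : ℤ) * k 3) (un k).2 (lam * m / 2700) (lam * h1 / 500) D
      ⟨x0, by rw [hJ4, mem_filter]; exact ⟨hx0, rfl, rfl⟩⟩ hH hHHR (by positivity) (by positivity)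
      hD (hunit k) (by
        have := (hz1 x0 hx0I).1
        push_cast
        rw [abs_mul, abs_of_pos hH0, hRH]
        exact mul_le_mul_of_nonneg_left this hH0.le)
      (fun x hx => ⟨(hbd x (hJ3I (hJ43 hx))).2.2, (hbd x (hJ3I (hJ43 hx))).1, hj0w x hx⟩)
      (by
        intro x hx y hy i
        rw [hj0R]
        obtain ⟨hx3, hxK, hxs⟩ := hJ4m x hx
        obtain ⟨hy3, hyK, hys⟩ := hJ4m y hy
        have hxI := hJ3I hx3
        have hyI := hJ3I hy3
        have a1 := ((hbd x hxI).2.2).lip (hzK x hxI) (hzx x hxI) i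
        have a2 := ((hbd y hyI).2.2).lip (hzK y hyI) (hzx y hyI) i
        have hHR1 : (H : ℝ) / R ≤ 1 := by rw [div_le_one hR]; exact hHR
        have b1 : |(x.2 : ℝ) / R - ((K x 3 : ℤ) : ℝ) / R'| * (1 + |(x.2 : ℝ) / R -
            ((K x 3 : ℤ) : ℝ) / R'|) ≤ H / R * (1 + 1) := by
          have h := (hz1 x hxI).2
          gcongr
          exact h.trans hHR1
        have b2 : |(y.2 : ℝ) / R - ((K y 3 : ℤ) : ℝ) / R'| * (1 + |(y.2 : ℝ) / R -
            ((K y 3 : ℤ) : ℝ) / R'|) ≤ H / R * (1 + 1) := by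
          have h := (hz1 y hyI).2
          gcongr
          exact h.trans hHR1
        rw [hxK] at a1 b1
        rw [hyK] at a2 b2
        have c1 : |pt γ R y i - pt γ R x i| ≤ 2 * H / R := by
          have h1 : K y i.castSucc = K x i.castSucc := by rw [hyK, hxK]
          have h2 : ⌊R * pt γ R y i⌋ / (H : ℤ) = ⌊R * pt γ R x i⌋ / (H : ℤ) := by
            simpa [hK, big, hcl] using h1
          have h3 := window_near hH h2
          have h4 : |(⌊R * pt γ R y i⌋ : ℝ) - ⌊R * pt γ R x i⌋| ≤ H := by exact_mod_cast h3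
          have g4 := Int.floor_le (R * pt γ R y i)
          have g5 := Int.lt_floor_add_one (R * pt γ R y i)
          have g6 := Int.floor_le (R * pt γ R x i)
          have g7 := Int.lt_floor_add_one (R * pt γ R x i)
          have h5 : |R * (pt γ R y i - pt γ R x i)| ≤ 2 * H := by
            rw [abs_le] at h4 ⊢
            constructor <;> nlinarith
          rw [abs_mul, abs_of_pos hR] at h5
          rw [le_div_iff₀ hR]; linarith
        have e1 : γ y.1 (((k 3 : ℤ) : ℝ) / R') i - γ x.1 (((k 3 : ℤ) : ℝ) / R') i =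
            -(γ y.1 ((y.2 : ℝ) / R) i - γ y.1 (((k 3 : ℤ) : ℝ) / R') i) +
            (γ x.1 ((x.2 : ℝ) / R) i - γ x.1 (((k 3 : ℤ) : ℝ) / R') i) +
            (pt γ R y i - pt γ R x i) := by
          simp only [pt]; ring
        rw [e1]
        refine (abs_add_le _ _).trans ?_
        have d1 := abs_add_le (-(γ y.1 ((y.2 : ℝ) / R) i - γ y.1 (((k 3 : ℤ) : ℝ) / R') i))
            (γ x.1 ((x.2 : ℝ) / R) i - γ x.1 (((k 3 : ℤ) : ℝ) / R') i)
        rw [abs_neg] at d1
        have e2 : 8 * (H : ℝ) / R = H / R * (1 + 1) + H / R * (1 + 1) + 2 * H / R + 2 * H / R := by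
          ring
        have e3 : 0 ≤ 2 * (H : ℝ) / R := by positivity
        linarith [a1.trans b1, a2.trans b2])
      (by
        intro x hx y hy
        rw [hj0R]
        obtain ⟨hx3, hxK, hxs⟩ := hJ4m x hx
        obtain ⟨hy3, hyK, hys⟩ := hJ4m y hy
        have h1 : sl y = sl x := hys.trans hxs.symm
        simp only [hsl, hxK, hyK] at h1
        have h2 := near_of_floor hR h1
        refine le_trans (le_of_eq ?_) h2
        congr 1
        rw [← sum_sub_distrib]
        refine sum_congr rfl fun i _ => ?_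
        ring)
      (by
        intro x hx y hy
        rw [hj0R]
        obtain ⟨hx3, hxK, hxs⟩ := hJ4m x hx
        obtain ⟨hy3, hyK, hys⟩ := hJ4m y hy
        have h1 := hstrip2 x (hJ31 hx3) y (hJ31 hy3) (hyK.trans hxK.symm)
        rw [hxK] at h1
        exact h1)
      (by
        intro x hx
        obtain ⟨hx3, hxK, hxs⟩ := hJ4m x hx
        refine (hJ3a x hx3).trans ?_
        have : (J3.filter fun y => (cl y, sl y) = (cl x, sl x)) ⊆
            J4.filter fun y => cell γ R y = cell γ R x := by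
          intro y hy
          rw [mem_filter, Prod.mk.injEq] at hy
          rw [mem_filter, hJ4, mem_filter]
          refine ⟨⟨hy.1, ?_, hy.2.2.trans hxs⟩, hy.2.1⟩
          rw [← hxK]; simp only [hK, hy.2.1]
        exact_mod_cast card_le_card this)
      (by
        intro x hx
        obtain ⟨hx3, hxK, hxs⟩ := hJ4m x hx
        refine (hJ3b x hx3).trans ?_
        have : (J3.filter fun y => (y.1, K y) = (x.1, K x)) ⊆
            J4.filter fun y => y.1 = x.1 := by
          intro y hy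
          rw [mem_filter, Prod.mk.injEq] at hy
          rw [mem_filter, hJ4, mem_filter]
          refine ⟨⟨hy.1, hy.2.2.trans hxK, ?_⟩, hy.2.1⟩
          rw [← hxs]; simp only [hsl, hy.2.2, hy.2.1]
        exact_mod_cast card_le_card this)
      (by
        intro x hx E hE hEn w hw
        obtain ⟨hx3, hxK, hxs⟩ := hJ4m x hx
        refine le_trans ?_ (hplank x (hJ3I hx3) (un k).2 (hunit k) E hE hEn w hw)
        have : (J4.filter (Plk γ v R H (un k).2 E w x)).image Prod.fst ⊆
            (I.filter fun y => |(y.2 : ℝ) - x.2| ≤ H ∧ Plk γ v R H (un k).2 E w x y).image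
              Prod.fst := by
          refine image_subset_image ?_
          intro y hy
          rw [mem_filter] at hy ⊢
          refine ⟨hJ3I (hJ43 hy.1), ?_, hy.2⟩
          have b1 := hj0w x hx
          have b2 := hj0w y hy.1
          have b3 : |y.2 - x.2| ≤ H := by rw [abs_le]; constructor <;> linarith [b1.1, b1.2, b2.1, b2.2]
          exact_mod_cast b3
        exact_mod_cast card_le_card this)
    have e2 : lam * m / 2700 * (lam * h1 / 500) ^ 2 * (2700 * 500 ^ 2 * 4000 ^ 3 * (H : ℝ) ^ 3) =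
        m * h1 ^ 5 := by
      rw [hlam]; field_simp
    have e3 : m * h1 ^ 5 ≤ C' * (H : ℝ) ^ (2 + ε) * D * (2700 * 500 ^ 2 * 4000 ^ 3 * (H : ℝ) ^ 3) := by
      rw [← e2]
      exact mul_le_mul_of_nonneg_right hmain (by positivity)
    have e4 : (H : ℝ) ^ (5 + ε) = (H : ℝ) ^ (2 + ε) * (H : ℝ) ^ 3 := by
      rw [← Real.rpow_natCast, ← Real.rpow_add hH0]
      norm_num
      ring_nf
    have e5 : 0 ≤ (H : ℝ) ^ (5 + ε) * D := by positivity
    calc m * h1 ^ 5 ≤ C' * (H : ℝ) ^ (2 + ε) * D * (2700 * 500 ^ 2 * 4000 ^ 3 * (H : ℝ) ^ 3) := e3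
      _ = 2700 * 500 ^ 2 * 4000 ^ 3 * C' * ((H : ℝ) ^ (5 + ε) * D) := by rw [e4]; ring
      _ ≤ (6912 * C ^ 3 + 10 ^ 20 * C') * ((H : ℝ) ^ (5 + ε) * D) := by
          refine mul_le_mul_of_nonneg_right ?_ e5
          have : (0 : ℝ) < C ^ 3 := by positivity
          nlinarith
      _ = _ := by ring

end Crest.Agent.R136.LmQ861
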