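import Crest.Agent.R136.Sh3_605
import Crest.Agent.R136.LmQ3_861

/-!
# R136 (S0187): normalised curves of a sheet, plank hypothesis of Lemma A_Q (helper605)
-/

set_option autoImplicit false
set_option linter.unusedVariables false

namespace Crest.Agent.R136.Sh605

open Finset Crest.Agent.R136.LmQ861

/-- the sheet over a smaller window -/
theorem Sheet.restrict {e : Fin 3 → V3} {c : Ln4} {w : V3} {q : ℝ → V3 → ℝ} {a z0 ρ r0 z1 ρ1 : ℝ}
    (h : Sheet e c w q a z0 ρ r0) (h0 : z0 ≤ z1) (h1 : z1 + ρ1 ≤ z0 + ρ) :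
    Sheet e c w q a z1 ρ1 r0 := by
  obtain ⟨Λ, hΛ0, hΛ, hΛr⟩ := h.res
  exact
    { ortho := h.ortho
      isQ := h.isQ
      steep := fun z hz hz' => h.steep z (h0.trans hz) (hz'.trans h1)
      a_le := h.a_le
      w_le := h.w_le
      r0_le := h.r0_le
      res := ⟨Λ, hΛ0, fun z hz hz' => hΛ z (h0.trans hz) (hz'.trans h1), hΛr⟩ }

/-- the normalised height `q / a` along a line, `u ∈ [-1, 1]`, `z = zc + lam u` -/
noncomputable def hN (q : ℝ → V3 → ℝ) (a zc lam : ℝ) (t : Ln4) (u : ℝ) : ℝ :=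
  q (zc + lam * u) (t.pos (zc + lam * u)) / a

/-- normalised curves -/
noncomputable def gam (e : Fin 3 → V3) (c : Ln4) (w : V3) (q : ℝ → V3 → ℝ) (a zc lam : ℝ)
    (t : Ln4) (u : ℝ) : V3 :=
  ![(1 / 9) * hN q a zc lam t u,
    (1 / 9) * (dt (e 1) (t.pos (zc + lam * u) - c.pos (zc + lam * u)) / w 1),
    (1 / 9) * (dt (e 2) (t.pos (zc + lam * u) - c.pos (zc + lam * u)) / w 2)]

/-- their velocities -/
noncomputable def vel (e : Fin 3 → V3) (c : Ln4) (w : V3) (q : ℝ → V3 → ℝ) (a zc lam : ℝ)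
    (t : Ln4) (u : ℝ) : V3 :=
  ![(1 / 9) * ((hN q a zc lam t 1 - hN q a zc lam t (-1)) / 2 +
      (hN q a zc lam t 1 + hN q a zc lam t (-1) - 2 * hN q a zc lam t 0) * u),
    (1 / 9) * (lam * dt (e 1) (t.v - c.v) / w 1),
    (1 / 9) * (lam * dt (e 2) (t.v - c.v) / w 2)]

/-- `hN` is a quadratic polynomial -/
theorem hN_poly {q : ℝ → V3 → ℝ} (hq : IsQ q) (a zc lam : ℝ) (t : Ln4) :
    ∃ k0 k1 k2 : ℝ, ∀ u, hN q a zc lam t u = k0 + k1 * u + k2 * u ^ 2 := by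
  obtain ⟨k0, k1, k2, h⟩ := hq.along t
  refine ⟨(k0 + k1 * zc + k2 * zc ^ 2) / a, (k1 + 2 * k2 * zc) * lam / a, k2 * lam ^ 2 / a,
    fun u => ?_⟩
  rw [hN, h]
  ring

theorem lin_poly (e : V3) (c t : Ln4) (W zc lam u : ℝ) :
    dt e (t.pos (zc + lam * u) - c.pos (zc + lam * u)) / W =
      dt e (t.pos zc - c.pos zc) / W + lam * dt e (t.v - c.v) / W * u := by
  simp only [dt_sub, dt_pos]; ring

/-- bounds of the coefficients of a quadratic polynomial bounded by `1` on `[-1, 1]` -/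
theorem poly_bd {f : ℝ → ℝ} {k0 k1 k2 : ℝ} (h : ∀ u, f u = k0 + k1 * u + k2 * u ^ 2)
    (hb : ∀ u, -1 ≤ u → u ≤ 1 → |f u| ≤ 1) :
    (f 1 - f (-1)) / 2 = k1 ∧ f 1 + f (-1) - 2 * f 0 = 2 * k2 ∧ |k1| ≤ 1 ∧ |k2| ≤ 2 := by
  have e1 : (f 1 - f (-1)) / 2 = k1 := by rw [h, h]; ring
  have e2 : f 1 + f (-1) - 2 * f 0 = 2 * k2 := by rw [h 1, h (-1), h 0]; ring
  have b1 := abs_le.1 (hb 1 (by norm_num) (by norm_num))
  have b2 := abs_le.1 (hb (-1) (by norm_num) (by norm_num))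
  have b3 := abs_le.1 (hb 0 (by norm_num) (by norm_num))
  refine ⟨e1, e2, ?_, ?_⟩
  · rw [← e1, abs_le]; constructor <;> linarith [b1.1, b1.2, b2.1, b2.2]
  · rw [abs_le]; constructor <;> linarith [b1.1, b1.2, b2.1, b2.2, b3.1, b3.2]

section

variable {e : Fin 3 → V3} {c : Ln4} {w : V3} {q : ℝ → V3 → ℝ} {a z0 ρ zc lam : ℝ}

theorem hN_bd (ha : 0 < a) {t : Ln4} (ht : InSheet t e c w q a z0 ρ)
    (hz0 : z0 = zc - lam) (hρ : ρ = 2 * lam) (hlam : 0 ≤ lam) :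
    ∀ u, -1 ≤ u → u ≤ 1 → |hN q a zc lam t u| ≤ 1 := by
  intro u h1 h2
  rw [hN, abs_div, abs_of_pos ha, div_le_one ha]
  refine (ht _ ?_ ?_).2
  · rw [hz0]; nlinarith
  · rw [hz0, hρ]; nlinarith

theorem lin_bd {t : Ln4} (ht : InSheet t e c w q a z0 ρ) (i : Fin 3) (hw : 0 < w i)
    (hz0 : z0 = zc - lam) (hρ : ρ = 2 * lam) (hlam : 0 ≤ lam) :
    ∀ u, -1 ≤ u → u ≤ 1 →
      |dt (e i) (t.pos (zc + lam * u) - c.pos (zc + lam * u)) / w i| ≤ 1 := by
  intro u h1 h2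
  rw [abs_div, abs_of_pos hw, div_le_one hw]
  refine (ht _ ?_ ?_).1 i
  · rw [hz0]; nlinarith
  · rw [hz0, hρ]; nlinarith

theorem lin_vel {t : Ln4} (ht : InSheet t e c w q a z0 ρ) (i : Fin 3) (hw : 0 < w i)
    (hz0 : z0 = zc - lam) (hρ : ρ = 2 * lam) (hlam : 0 ≤ lam) :
    |lam * dt (e i) (t.v - c.v) / w i| ≤ 1 := by
  have b1 := lin_bd ht i hw hz0 hρ hlam 1 (by norm_num) (by norm_num)
  have b2 := lin_bd ht i hw hz0 hρ hlam (-1) (by norm_num) (by norm_num)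
  rw [lin_poly] at b1 b2
  rw [abs_le] at b1 b2 ⊢
  constructor <;> linarith [b1.1, b1.2, b2.1, b2.2]

/-- **the normalised curves are `C^{1,1}`** -/
theorem C11_gam {ι : Type} (L : ι → Ln4) (hq : IsQ q) (ha : 0 < a) (hw1 : 0 < w 1) (hw2 : 0 < w 2)
    (hz0 : z0 = zc - lam) (hρ : ρ = 2 * lam) (hlam : 0 ≤ lam) {l : ι}
    (hl : InSheet (L l) e c w q a z0 ρ) :
    C11 (fun l => gam e c w q a zc lam (L l)) (fun l => vel e c w q a zc lam (L l)) l := by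
  obtain ⟨k0, k1, k2, hk⟩ := hN_poly hq a zc lam (L l)
  obtain ⟨e1, e2, b1, b2⟩ := poly_bd hk (hN_bd ha hl hz0 hρ hlam)
  have v1 := lin_vel hl 1 hw1 hz0 hρ hlam
  have v2 := lin_vel hl 2 hw2 hz0 hρ hlam
  have hv : ∀ u, vel e c w q a zc lam (L l) u = ![(1 / 9) * (k1 + 2 * k2 * u),
      (1 / 9) * (lam * dt (e 1) ((L l).v - c.v) / w 1),
      (1 / 9) * (lam * dt (e 2) ((L l).v - c.v) / w 2)] := by
    intro u; rw [vel, e1, e2]
  refine ⟨?_, ?_, ?_⟩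
  · intro u hu i
    simp only [hv]
    fin_cases i
    · change |(1 / 9) * (k1 + 2 * k2 * u)| ≤ 1
      rw [abs_mul, abs_of_pos (by norm_num : (0:ℝ) < 1 / 9)]
      have : |k1 + 2 * k2 * u| ≤ 9 := by
        refine (abs_add_le _ _).trans ?_
        rw [abs_mul, abs_mul, abs_two]
        nlinarith [abs_nonneg k2, abs_nonneg u]
      linarith
    · change |(1 / 9) * (lam * dt (e 1) ((L l).v - c.v) / w 1)| ≤ 1
      rw [abs_mul, abs_of_pos (by norm_num : (0:ℝ) < 1 / 9)]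
      linarith
    · change |(1 / 9) * (lam * dt (e 2) ((L l).v - c.v) / w 2)| ≤ 1
      rw [abs_mul, abs_of_pos (by norm_num : (0:ℝ) < 1 / 9)]
      linarith
  · intro u u' _ _ i
    simp only [hv]
    fin_cases i
    · change |(1 / 9) * hN q a zc lam (L l) u' - (1 / 9) * hN q a zc lam (L l) u -
        (u' - u) * ((1 / 9) * (k1 + 2 * k2 * u))| ≤ (u' - u) ^ 2
      have : (1 / 9) * hN q a zc lam (L l) u' - (1 / 9) * hN q a zc lam (L l) u -
        (u' - u) * ((1 / 9) * (k1 + 2 * k2 * u)) = (1 / 9) * k2 * (u' - u) ^ 2 := by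
        rw [hk u', hk u]; ring
      rw [this, abs_mul, abs_mul, abs_of_pos (by norm_num : (0:ℝ) < 1 / 9),
        abs_of_nonneg (sq_nonneg (u' - u))]
      nlinarith [sq_nonneg (u' - u)]
    · change |(1 / 9) * (dt (e 1) ((L l).pos (zc + lam * u') - c.pos (zc + lam * u')) / w 1) -
        (1 / 9) * (dt (e 1) ((L l).pos (zc + lam * u) - c.pos (zc + lam * u)) / w 1) -
        (u' - u) * ((1 / 9) * (lam * dt (e 1) ((L l).v - c.v) / w 1))| ≤ (u' - u) ^ 2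
      rw [lin_poly, lin_poly]
      refine le_trans (le_of_eq ?_) (sq_nonneg (u' - u))
      rw [abs_eq_zero]; ring
    · change |(1 / 9) * (dt (e 2) ((L l).pos (zc + lam * u') - c.pos (zc + lam * u')) / w 2) -
        (1 / 9) * (dt (e 2) ((L l).pos (zc + lam * u) - c.pos (zc + lam * u)) / w 2) -
        (u' - u) * ((1 / 9) * (lam * dt (e 2) ((L l).v - c.v) / w 2))| ≤ (u' - u) ^ 2
      rw [lin_poly, lin_poly]
      refine le_trans (le_of_eq ?_) (sq_nonneg (u' - u))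
      rw [abs_eq_zero]; ring
  · intro u u' _ _ i
    simp only [hv]
    fin_cases i
    · change |(1 / 9) * (k1 + 2 * k2 * u') - (1 / 9) * (k1 + 2 * k2 * u)| ≤ |u' - u|
      have : (1 / 9) * (k1 + 2 * k2 * u') - (1 / 9) * (k1 + 2 * k2 * u) =
        (2 / 9) * k2 * (u' - u) := by ring
      rw [this, abs_mul, abs_mul, abs_of_pos (by norm_num : (0:ℝ) < 2 / 9)]
      nlinarith [abs_nonneg (u' - u)]
    · change |(1 / 9) * (lam * dt (e 1) ((L l).v - c.v) / w 1) -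
        (1 / 9) * (lam * dt (e 1) ((L l).v - c.v) / w 1)| ≤ |u' - u|
      rw [sub_self, abs_zero]; exact abs_nonneg _
    · change |(1 / 9) * (lam * dt (e 2) ((L l).v - c.v) / w 2) -
        (1 / 9) * (lam * dt (e 2) ((L l).v - c.v) / w 2)| ≤ |u' - u|
      rw [sub_self, abs_zero]; exact abs_nonneg _

theorem gam_bd (ha : 0 < a) (hw1 : 0 < w 1) (hw2 : 0 < w 2)
    (hz0 : z0 = zc - lam) (hρ : ρ = 2 * lam) (hlam : 0 ≤ lam) {t : Ln4}
    (hl : InSheet t e c w q a z0 ρ) {u : ℝ} (h1 : -1 ≤ u) (h2 : u ≤ 1) (i : Fin 3) :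
    |gam e c w q a zc lam t u i| ≤ 1 := by
  fin_cases i
  · change |(1 / 9) * hN q a zc lam t u| ≤ 1
    rw [abs_mul, abs_of_pos (by norm_num : (0:ℝ) < 1 / 9)]
    linarith [hN_bd ha hl hz0 hρ hlam u h1 h2]
  · change |(1 / 9) * (dt (e 1) (t.pos (zc + lam * u) - c.pos (zc + lam * u)) / w 1)| ≤ 1
    rw [abs_mul, abs_of_pos (by norm_num : (0:ℝ) < 1 / 9)]
    linarith [lin_bd hl 1 hw1 hz0 hρ hlam u h1 h2]
  · change |(1 / 9) * (dt (e 2) (t.pos (zc + lam * u) - c.pos (zc + lam * u)) / w 2)| ≤ 1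
    rw [abs_mul, abs_of_pos (by norm_num : (0:ℝ) < 1 / 9)]
    linarith [lin_bd hl 2 hw2 hz0 hρ hlam u h1 h2]

/-- normalised differences of two lines near the height `u0` -/
theorem nrm_near (hq : IsQ q) (ha : 0 < a) (hw1 : 0 < w 1) (hw2 : 0 < w 2)
    (hz0 : z0 = zc - lam) (hρ : ρ = 2 * lam) (hlam : 0 ≤ lam) {y t : Ln4}
    (hy : InSheet y e c w q a z0 ρ) (ht : InSheet t e c w q a z0 ρ) {n : V3} (hn : |n 0| ≤ 1)
    {u0 u b b' : ℝ}
    (h1 : |∑ i, n i * (gam e c w q a zc lam t u0 i - gam e c w q a zc lam y u0 i)| ≤ b)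
    (h2 : |∑ i, n i * (vel e c w q a zc lam t u0 i - vel e c w q a zc lam y u0 i)| ≤ b') :
    |dt n (nrm e w q a y t (zc + lam * u))| ≤ 9 * b + 9 * b' * |u - u0| + 4 * |u - u0| ^ 2 := by
  obtain ⟨k0, k1, k2, hk⟩ := hN_poly hq a zc lam t
  obtain ⟨m0, m1, m2, hm⟩ := hN_poly hq a zc lam y
  obtain ⟨e1, e2, b1, b2⟩ := poly_bd hk (hN_bd ha ht hz0 hρ hlam)
  obtain ⟨f1, f2, d1, d2⟩ := poly_bd hm (hN_bd ha hy hz0 hρ hlam)
  set G := ∑ i, n i * (gam e c w q a zc lam t u0 i - gam e c w q a zc lam y u0 i) with hG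
  set V := ∑ i, n i * (vel e c w q a zc lam t u0 i - vel e c w q a zc lam y u0 i) with hV
  have eG : G = n 0 * ((1 / 9) * hN q a zc lam t u0 - (1 / 9) * hN q a zc lam y u0) +
      n 1 * ((1 / 9) * (dt (e 1) (t.pos (zc + lam * u0) - c.pos (zc + lam * u0)) / w 1) -
        (1 / 9) * (dt (e 1) (y.pos (zc + lam * u0) - c.pos (zc + lam * u0)) / w 1)) +
      n 2 * ((1 / 9) * (dt (e 2) (t.pos (zc + lam * u0) - c.pos (zc + lam * u0)) / w 2) -
        (1 / 9) * (dt (e 2) (y.pos (zc + lam * u0) - c.pos (zc + lam * u0)) / w 2)) := by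
    rw [hG, Fin.sum_univ_three]; rfl
  have eV : V = n 0 * ((1 / 9) * (k1 + 2 * k2 * u0) - (1 / 9) * (m1 + 2 * m2 * u0)) +
      n 1 * ((1 / 9) * (lam * dt (e 1) (t.v - c.v) / w 1) -
        (1 / 9) * (lam * dt (e 1) (y.v - c.v) / w 1)) +
      n 2 * ((1 / 9) * (lam * dt (e 2) (t.v - c.v) / w 2) -
        (1 / 9) * (lam * dt (e 2) (y.v - c.v) / w 2)) := by
    rw [← e1, ← e2, ← f1, ← f2, hV, Fin.sum_univ_three]; rfl
  have key : dt n (nrm e w q a y t (zc + lam * u)) =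
      9 * G + 9 * V * (u - u0) + n 0 * (k2 - m2) * (u - u0) ^ 2 := by
    have g0 : nrm e w q a y t (zc + lam * u) 0 = hN q a zc lam t u - hN q a zc lam y u := by
      rw [nrm_zero, hN, hN, sub_div]
    have g1 : ∀ i : Fin 3, dt (e i) (t.pos (zc + lam * u) - y.pos (zc + lam * u)) / w i =
        dt (e i) (t.pos (zc + lam * u) - c.pos (zc + lam * u)) / w i -
        dt (e i) (y.pos (zc + lam * u) - c.pos (zc + lam * u)) / w i := by
      intro i; simp only [dt_sub]; ring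
    have g2 : dt n (nrm e w q a y t (zc + lam * u)) =
        n 0 * (hN q a zc lam t u - hN q a zc lam y u) +
        n 1 * (dt (e 1) (t.pos (zc + lam * u) - c.pos (zc + lam * u)) / w 1 -
          dt (e 1) (y.pos (zc + lam * u) - c.pos (zc + lam * u)) / w 1) +
        n 2 * (dt (e 2) (t.pos (zc + lam * u) - c.pos (zc + lam * u)) / w 2 -
          dt (e 2) (y.pos (zc + lam * u) - c.pos (zc + lam * u)) / w 2) := by
      rw [← g1, ← g1, ← g0, ← nrm_one, ← nrm_two]; rfl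
    rw [g2, eG, eV, hk u, hm u, hk u0, hm u0]
    rw [lin_poly (e 1) c t, lin_poly (e 1) c y, lin_poly (e 2) c t, lin_poly (e 2) c y,
      lin_poly (e 1) c t (w 1) zc lam u0, lin_poly (e 1) c y (w 1) zc lam u0,
      lin_poly (e 2) c t (w 2) zc lam u0, lin_poly (e 2) c y (w 2) zc lam u0]
    ring
  rw [key]
  have h3 : |k2 - m2| ≤ 4 := (abs_sub _ _).trans (by linarith)
  calc |9 * G + 9 * V * (u - u0) + n 0 * (k2 - m2) * (u - u0) ^ 2| ≤
      |9 * G| + |9 * V * (u - u0)| + |n 0 * (k2 - m2) * (u - u0) ^ 2| := by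
        refine (abs_add_le _ _).trans ?_
        gcongr
        exact abs_add_le _ _
    _ = 9 * |G| + 9 * |V| * |u - u0| + |n 0| * |k2 - m2| * |u - u0| ^ 2 := by
        rw [abs_mul, abs_mul, abs_mul, abs_mul, abs_mul, abs_pow,
          abs_of_pos (by norm_num : (0:ℝ) < 9)]
    _ ≤ 9 * b + 9 * b' * |u - u0| + 1 * 4 * |u - u0| ^ 2 := by gcongr
    _ = _ := by ring

end

end Crest.Agent.R136.Sh605
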