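import Mathlib
import Crest.Agent.R138.Tub3_70

/-!
# R136: Kakeya in `ℝ³` in multiplicity form (from `Tub70.KM32`)
-/

set_option autoImplicit false

open MeasureTheory Set Metric
open scoped ENNReal NNReal

namespace Crest.Agent.R136.Slb480

open Crest.Agent.R138.Defs (E2)

/-- time cell. -/
def tc (H : ℕ) (j : ℤ) : Set ℝ :=
  Set.Ico (((j : ℝ) - 1 / 2) / H) (((j : ℝ) + 1 / 2) / H) ∩ Set.Icc (-1) 1

theorem measurableSet_tc (H : ℕ) (j : ℤ) : MeasurableSet (tc H j) :=
  measurableSet_Ico.inter measurableSet_Icc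

theorem tc_disjoint {H : ℕ} (hH : 0 < H) {j k : ℤ} (hjk : j ≠ k) : Disjoint (tc H j) (tc H k) := by
  have hH' : (0 : ℝ) < H := by exact_mod_cast hH
  rw [Set.disjoint_left]
  rintro z ⟨⟨h1, h2⟩, -⟩ ⟨⟨h3, h4⟩, -⟩
  rw [div_le_iff₀ hH'] at h1 h3
  rw [lt_div_iff₀ hH'] at h2 h4
  apply hjk
  have a1 : (j : ℝ) < k + 1 := by linarith
  have a2 : (k : ℝ) < j + 1 := by linarith
  have b1 : j < k + 1 := by exact_mod_cast a1
  have b2 : k < j + 1 := by exact_mod_cast a2
  omega

theorem volume_tc {H : ℕ} (hH : 0 < H) {j : ℤ} (hj : |j| ≤ (H : ℤ)) :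
    ENNReal.ofReal (1 / (2 * H)) ≤ volume (tc H j) := by
  have hH' : (0 : ℝ) < H := by exact_mod_cast hH
  rw [abs_le] at hj
  have hj1 : -(H : ℝ) ≤ j := by exact_mod_cast hj.1
  have hj2 : (j : ℝ) ≤ H := by exact_mod_cast hj.2
  rcases le_total j 0 with h0 | h0
  · have h0' : (j : ℝ) ≤ 0 := by exact_mod_cast h0
    have hsub : Set.Ico ((j : ℝ) / H) (((j : ℝ) + 1 / 2) / H) ⊆ tc H j := by
      intro z hz
      obtain ⟨hz1, hz2⟩ := hz
      rw [div_le_iff₀ hH'] at hz1
      rw [lt_div_iff₀ hH'] at hz2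
      refine ⟨⟨?_, ?_⟩, ?_, ?_⟩
      · rw [div_le_iff₀ hH']; linarith
      · rw [lt_div_iff₀ hH']; linarith
      · nlinarith
      · have : (1:ℝ) ≤ H := by exact_mod_cast hH
        nlinarith
    refine le_trans ?_ (measure_mono hsub)
    rw [Real.volume_Ico]
    apply ENNReal.ofReal_le_ofReal
    apply le_of_eq
    field_simp
    ring
  · have h0' : (0 : ℝ) ≤ j := by exact_mod_cast h0
    have hsub : Set.Icc (((j : ℝ) - 1 / 2) / H) ((j : ℝ) / H) ⊆ tc H j := by
      intro z hz
      obtain ⟨hz1, hz2⟩ := hz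
      rw [div_le_iff₀ hH'] at hz1
      rw [le_div_iff₀ hH'] at hz2
      refine ⟨⟨?_, ?_⟩, ?_, ?_⟩
      · rw [div_le_iff₀ hH']; linarith
      · rw [lt_div_iff₀ hH']; linarith
      · have : (1:ℝ) ≤ H := by exact_mod_cast hH
        nlinarith
      · nlinarith
    refine le_trans ?_ (measure_mono hsub)
    rw [Real.volume_Icc]
    apply ENNReal.ofReal_le_ofReal
    apply le_of_eq
    field_simp
    ring

theorem near_tc {H : ℕ} (hH : 0 < H) {j : ℤ} {z : ℝ} (hz : z ∈ tc H j) :
    |z - (j : ℝ) / H| ≤ 1 / (2 * H) := by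
  have hH' : (0 : ℝ) < H := by exact_mod_cast hH
  obtain ⟨⟨h1, h2⟩, -⟩ := hz
  rw [div_le_iff₀ hH'] at h1
  rw [lt_div_iff₀ hH'] at h2
  rw [abs_le]
  have e : (1 : ℝ) / (2 * H) = (1 / 2) / H := by field_simp
  constructor
  · rw [e, neg_le, neg_sub, sub_le_iff_le_add, ← sub_le_iff_le_add', div_sub_div_same,
      ← sub_nonneg]
    have : z - ((j:ℝ) - 1/2) / H = (z * H - (j - 1/2)) / H := by field_simp
    rw [this]
    exact div_nonneg (by linarith) hH'.le
  · rw [e, sub_le_iff_le_add, ← add_div, le_div_iff₀ hH']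
    linarith

/-- position at time `z`. -/
noncomputable def ps {ι : Type} (p v : ι → E2) (i : ι) (z : ℝ) : E2 := p i + z • v i

theorem ps_sub {ι : Type} (p v : ι → E2) (i k : ι) (z z' : ℝ) :
    ps p v i z - ps p v k z = (ps p v i z' - ps p v k z') + (z - z') • (v i - v k) := by
  unfold ps
  module

open Classical in
/-- **core form**: rich incidences `I` of some lines of the family. -/
theorem km3_core (hKM : ∀ V : ℝ, Crest.Agent.R138.Tub70.KM32 V) (V A : ℝ) (hV : 0 ≤ V)
    (hA : 0 ≤ A) (ε : ℝ) (hε : 0 < ε) :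
    ∃ C : ℝ, 0 < C ∧ ∀ H : ℕ, 1 ≤ H → V + A + 1 ≤ (H : ℝ) → ∀ (ι : Type) [Fintype ι]
      (p v : ι → E2) (I : Finset (ι × ℤ)) (m D : ℝ), 0 < m → 0 ≤ D →
      (∀ i, ‖p i‖ ≤ V ∧ ‖v i‖ ≤ V) → (∀ x ∈ I, |x.2| ≤ (H : ℤ)) →
      (∀ x ∈ I, m ≤ ((Finset.univ.filter fun i =>
        ‖ps p v i (x.2 / H) - ps p v x.1 (x.2 / H)‖ ≤ A / H).card : ℝ)) →
      (∀ (b : OrthonormalBasis (Fin 2) ℝ E2) (s : Fin 2 → ℝ) (p0 v0 : E2),
        (∀ j, 1 / (H : ℝ) ≤ s j ∧ s j ≤ 1) →
        ((Finset.univ.filter fun i => Crest.Agent.R138.Tub70.InPl b s p0 v0 (p i) (v i)).card : ℝ) ≤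
          D * (s 0 * s 1) * (H : ℝ) ^ 2) →
      m * (I.card : ℝ) ^ 2 ≤ C * (H : ℝ) ^ (2 + ε) * D * (Fintype.card ι : ℝ) ^ 2 := by
  obtain ⟨C, hC, key⟩ := hKM V (ε / 2) (by positivity)
  refine ⟨4 * (C + 1) ^ 2 * (V + A + 1) ^ 6, by positivity, ?_⟩
  intro H hH hHV ι _ p v I m D hm hD hpv hI hmult hpl
  have hH' : (1 : ℝ) ≤ H := by exact_mod_cast hH
  have hH0 : (0 : ℝ) < H := by linarith
  set δ : ℝ := (V + A + 1) / H with hδ
  have hδ0 : 0 < δ := by positivity
  have hδ1 : δ ≤ 1 := by rw [hδ, div_le_one hH0]; exact hHV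
  have hδH : 1 / (H : ℝ) ≤ δ := by rw [hδ]; gcongr; linarith
  set Δ : ℝ := D * (V + A + 1) ^ 2 with hΔ
  have hΔ0 : 0 ≤ Δ := by positivity
  have hub := key δ hδ0 hδ1 ι p v (fun _ => 1) (fun _ => by norm_num) (fun i => (hpv i).1)
    (fun i => (hpv i).2) Δ hΔ0 (fun b s p0 v0 hs => by
      have h1 := hpl b s p0 v0 fun j => ⟨hδH.trans (hs j).1, (hs j).2⟩
      have h2 : ∑ i, (if Crest.Agent.R138.Tub70.InPl b s p0 v0 (p i) (v i) then
          (1:ℝ) * δ ^ 2 else 0) =
          ((Finset.univ.filter fun i => Crest.Agent.R138.Tub70.InPl b s p0 v0 (p i) (v i)).card : ℝ)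
            * δ ^ 2 := by
        rw [← Finset.sum_filter, Finset.sum_const, nsmul_eq_mul, one_mul]
      rw [h2]
      calc _ ≤ D * (s 0 * s 1) * (H : ℝ) ^ 2 * δ ^ 2 := by gcongr
        _ = Δ * (s 0 * s 1) := by
          rw [hΔ, hδ]
          field_simp)
  -- lower bound
  set n : ℝ := (Fintype.card ι : ℝ) with hn
  have hn0 : 0 ≤ n := by positivity
  set f : ℝ → E2 → ℝ≥0∞ := fun z x =>
    ∑ i, (if ‖x - p i - z • v i‖ ≤ δ then ENNReal.ofReal ((fun _ => (1:ℝ)) i) else 0) with hf
  set Ij : ℤ → Finset (ι × ℤ) := fun j => I.filter fun y => y.2 = j with hIj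
  have hpt : ∀ j : ℤ, |j| ≤ (H : ℤ) → ∀ z ∈ tc H j, ∀ x : E2,
      ENNReal.ofReal (Real.sqrt m) * ∑ y ∈ Ij j,
        (closedBall (ps p v y.1 z) (1 / H)).indicator (fun _ => (1 : ℝ≥0∞)) x ≤
      f z x ^ (3/2 : ℝ) := by
    intro j hj z hz x
    have hzj := near_tc (by omega : 0 < H) hz
    -- `g ≤ f`
    have hg : ∑ y ∈ Ij j, (closedBall (ps p v y.1 z) (1 / H)).indicator (fun _ => (1 : ℝ≥0∞)) x ≤
        f z x := by
      have hinj : Set.InjOn (fun y : ι × ℤ => y.1) (Ij j) := by
        intro y hy y' hy' he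
        simp only [hIj, Finset.coe_filter, Set.mem_ofPred_eq] at hy hy'
        exact Prod.ext he (hy.2.trans hy'.2.symm)
      calc _ = ∑ i ∈ (Ij j).image (fun y => y.1),
            (closedBall (ps p v i z) (1 / H)).indicator (fun _ => (1 : ℝ≥0∞)) x := by
            rw [Finset.sum_image hinj]
        _ ≤ ∑ i, (closedBall (ps p v i z) (1 / H)).indicator (fun _ => (1 : ℝ≥0∞)) x :=
            Finset.sum_le_sum_of_subset (Finset.subset_univ _)
        _ ≤ f z x := by
            simp only [hf]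
            refine Finset.sum_le_sum fun i _ => ?_
            by_cases hx : x ∈ closedBall (ps p v i z) (1 / (H : ℝ))
            · rw [Set.indicator_of_mem hx]
              have h1 : ‖x - p i - z • v i‖ ≤ δ := by
                rw [mem_closedBall, dist_eq_norm] at hx
                have : x - p i - z • v i = x - ps p v i z := by unfold ps; module
                rw [this]
                exact hx.trans hδH
              rw [if_pos h1]
              simp
            · rw [Set.indicator_of_notMem hx]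
              exact zero_le
    by_cases h0 : ∃ y ∈ Ij j, x ∈ closedBall (ps p v y.1 z) (1 / (H : ℝ))
    · obtain ⟨y, hy, hxy⟩ := h0
      simp only [hIj, Finset.mem_filter] at hy
      obtain ⟨hyI, hyj⟩ := hy
      have hfm : ENNReal.ofReal m ≤ f z x := by
        have h1 := hmult y hyI
        rw [hyj] at h1
        set S := Finset.univ.filter fun i : ι =>
          ‖ps p v i (j / H) - ps p v y.1 (j / H)‖ ≤ A / H with hS
        have h3 : (S.card : ℝ≥0∞) ≤ f z x := by
          simp only [hf]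
          calc (S.card : ℝ≥0∞) = ∑ i ∈ S, 1 := by simp
            _ ≤ ∑ i ∈ S, (if ‖x - p i - z • v i‖ ≤ δ then
                ENNReal.ofReal 1 else 0) := by
                refine Finset.sum_le_sum fun i hi => ?_
                rw [hS, Finset.mem_filter] at hi
                have h4 : ‖x - p i - z • v i‖ ≤ δ := by
                  have e1 : x - p i - z • v i = (x - ps p v y.1 z) -
                      ((ps p v i (j / H) - ps p v y.1 (j / H)) +
                        (z - j / H) • (v i - v y.1)) := by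
                    rw [← ps_sub p v i y.1 z (j / H)]
                    unfold ps
                    module
                  rw [e1]
                  rw [mem_closedBall, dist_eq_norm] at hxy
                  have e2 : ‖(z - (j : ℝ) / H) • (v i - v y.1)‖ ≤ 1 / (2 * H) * (2 * V) := by
                    rw [norm_smul, Real.norm_eq_abs]
                    have e3 : ‖v i - v y.1‖ ≤ 2 * V := by
                      refine (norm_sub_le _ _).trans ?_
                      linarith [(hpv i).2, (hpv y.1).2]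
                    gcongr
                  calc _ ≤ ‖x - ps p v y.1 z‖ + ‖(ps p v i (j / H) - ps p v y.1 (j / H)) +
                        (z - j / H) • (v i - v y.1)‖ := norm_sub_le _ _
                    _ ≤ ‖x - ps p v y.1 z‖ + (‖ps p v i (j / H) - ps p v y.1 (j / H)‖ +
                        ‖(z - (j : ℝ) / H) • (v i - v y.1)‖) := by
                        gcongr; exact norm_add_le _ _
                    _ ≤ 1 / H + (A / H + 1 / (2 * H) * (2 * V)) := by
                        gcongr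
                        exact hi.2
                    _ = δ := by rw [hδ]; field_simp; ring
                rw [if_pos h4]
                simp
            _ ≤ _ := Finset.sum_le_sum_of_subset (Finset.subset_univ _)
        refine le_trans ?_ h3
        rw [← ENNReal.ofReal_natCast]
        exact ENNReal.ofReal_le_ofReal h1
      calc _ ≤ ENNReal.ofReal (Real.sqrt m) * f z x := by gcongr
        _ ≤ f z x ^ (1/2 : ℝ) * f z x := by
            gcongr
            rw [Real.sqrt_eq_rpow, ← ENNReal.ofReal_rpow_of_pos hm]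
            exact ENNReal.rpow_le_rpow hfm (by norm_num)
        _ = f z x ^ (3/2 : ℝ) := by
            have hne0 : f z x ≠ 0 := fun h => by
              rw [h] at hfm
              simp only [nonpos_iff_eq_zero, ENNReal.ofReal_eq_zero] at hfm
              linarith
            have hnet : f z x ≠ ∞ := by
              simp only [hf]
              refine ENNReal.sum_ne_top.2 fun i _ => ?_
              split_ifs <;> simp
            nth_rewrite 2 [← ENNReal.rpow_one (f z x)]
            rw [← ENNReal.rpow_add _ _ hne0 hnet]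
            norm_num
    · push Not at h0
      have : ∑ y ∈ Ij j, (closedBall (ps p v y.1 z) (1 / H)).indicator (fun _ => (1 : ℝ≥0∞)) x
          = 0 := Finset.sum_eq_zero fun y hy => Set.indicator_of_notMem (h0 y hy) _
      rw [this, mul_zero]
      exact zero_le
  have hz : ∀ j : ℤ, |j| ≤ (H : ℤ) → ∀ z ∈ tc H j,
      ENNReal.ofReal (Real.sqrt m * (((Ij j).card : ℝ) * (1 / H) ^ 2)) ≤
        ∫⁻ x : E2, f z x ^ (3/2 : ℝ) := by
    intro j hj z hz
    calc ENNReal.ofReal (Real.sqrt m * (((Ij j).card : ℝ) * (1 / H) ^ 2)) ≤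
        ENNReal.ofReal (Real.sqrt m) * ∑ y ∈ Ij j,
          volume (closedBall (ps p v y.1 z) (1 / (H : ℝ))) := by
          rw [ENNReal.ofReal_mul (Real.sqrt_nonneg _)]
          gcongr
          rw [ENNReal.ofReal_mul (by positivity), ENNReal.ofReal_natCast, ← nsmul_eq_mul]
          rw [← Finset.sum_const]
          refine Finset.sum_le_sum fun y _ => ?_
          rw [EuclideanSpace.volume_closedBall_fin_two, ← ENNReal.ofReal_pow (by positivity)]
          calc ENNReal.ofReal ((1 / (H : ℝ)) ^ 2) = ENNReal.ofReal ((1 / (H : ℝ)) ^ 2) * 1 := by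
                rw [mul_one]
            _ ≤ _ := by
                gcongr
                rw [ENNReal.one_le_ofReal]
                linarith [Real.pi_gt_three]
      _ = ∫⁻ x : E2, ENNReal.ofReal (Real.sqrt m) * ∑ y ∈ Ij j,
            (closedBall (ps p v y.1 z) (1 / (H : ℝ))).indicator (fun _ => (1 : ℝ≥0∞)) x := by
          rw [lintegral_const_mul' _ _ ENNReal.ofReal_ne_top, lintegral_finsetSum']
          · congr 1
            refine Finset.sum_congr rfl fun y _ => ?_
            rw [lintegral_indicator_const measurableSet_closedBall, one_mul]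
          · intro y _
            exact (measurable_const.indicator measurableSet_closedBall).aemeasurable
      _ ≤ _ := lintegral_mono fun x => hpt j hj z hz x
  have hlow : ENNReal.ofReal (Real.sqrt m * (I.card : ℝ) / (2 * H ^ 3)) ≤
      ∫⁻ z in Set.Icc (-1 : ℝ) 1, ∫⁻ x : E2, f z x ^ (3/2 : ℝ) := by
    set JJ : Finset ℤ := Finset.Icc (-(H : ℤ)) H with hJJ
    have hsumI : ((I.card : ℝ)) = ∑ j ∈ JJ, ((Ij j).card : ℝ) := by
      have := Finset.card_eq_sum_card_fiberwise (s := I) (t := JJ) (f := fun y : ι × ℤ => y.2)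
        (fun y hy => by
          have := hI y hy
          rw [abs_le] at this
          simpa [hJJ] using this)
      rw [this]
      push_cast
      rfl
    calc ENNReal.ofReal (Real.sqrt m * (I.card : ℝ) / (2 * H ^ 3)) =
        ENNReal.ofReal (∑ j ∈ JJ, (Real.sqrt m * (((Ij j).card : ℝ) * (1 / H) ^ 2)) *
          (1 / (2 * H))) := by
          congr 1
          rw [hsumI, Finset.mul_sum, Finset.sum_div]
          refine Finset.sum_congr rfl fun j _ => ?_
          field_simp
      _ = ∑ j ∈ JJ, ENNReal.ofReal (Real.sqrt m * (((Ij j).card : ℝ) * (1 / H) ^ 2)) *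
            ENNReal.ofReal (1 / (2 * H)) := by
          rw [ENNReal.ofReal_sum_of_nonneg fun j _ => by positivity]
          refine Finset.sum_congr rfl fun j _ => ?_
          rw [← ENNReal.ofReal_mul (by positivity)]
      _ ≤ ∑ j ∈ JJ, ∫⁻ z in tc H j, ∫⁻ x : E2, f z x ^ (3/2 : ℝ) := by
          refine Finset.sum_le_sum fun j hj => ?_
          have hj' : |j| ≤ (H : ℤ) := by
            rw [abs_le]
            simpa [hJJ] using hj
          calc _ ≤ ENNReal.ofReal (Real.sqrt m * (((Ij j).card : ℝ) * (1 / H) ^ 2)) *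
                volume (tc H j) := by
                gcongr
                exact volume_tc (by omega) hj'
            _ = ∫⁻ _z in tc H j, ENNReal.ofReal (Real.sqrt m * (((Ij j).card : ℝ) * (1 / H) ^ 2)) := by
                rw [setLIntegral_const]
            _ ≤ _ := setLIntegral_mono' (measurableSet_tc H j) fun z hz' => hz j hj' z hz'
      _ = ∫⁻ z in ⋃ j ∈ JJ, tc H j, ∫⁻ x : E2, f z x ^ (3/2 : ℝ) := by
          rw [lintegral_biUnion_finset]
          · intro j _ k _ hjk
            exact tc_disjoint (by omega) hjk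
          · intro j _
            exact measurableSet_tc H j
      _ ≤ _ := by
          refine lintegral_mono_set ?_
          intro z hz'
          rw [mem_iUnion₂] at hz'
          obtain ⟨j, _, hz'⟩ := hz'
          exact hz'.2
  have hfinal := hlow.trans hub
  rw [ENNReal.ofReal_le_ofReal_iff (by
    have : 0 ≤ ∑ i : ι, (1:ℝ) * δ ^ 2 := Finset.sum_nonneg fun i _ => by positivity
    positivity)] at hfinal
  have hs : ∑ i : ι, (1:ℝ) * δ ^ 2 = n * ((V + A + 1) ^ 2 / H ^ 2) := by
    rw [Finset.sum_const, nsmul_eq_mul, hn, hδ, Finset.card_univ]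
    ring
  rw [hs] at hfinal
  have hδε : δ ^ (-(ε / 2)) ≤ (H : ℝ) ^ (ε / 2) := by
    rw [Real.rpow_neg hδ0.le, ← Real.inv_rpow hδ0.le]
    apply Real.rpow_le_rpow (by positivity) _ (by positivity)
    rw [inv_le_comm₀ hδ0 hH0, ← one_div]
    exact hδH
  have hsq : Real.sqrt m * (I.card : ℝ) ≤
      2 * (C + 1) * (V + A + 1) ^ 3 * ((H : ℝ) * (H : ℝ) ^ (ε / 2)) * Real.sqrt D * n := by
    have e1 : Real.sqrt Δ = Real.sqrt D * (V + A + 1) := by
      rw [hΔ, Real.sqrt_mul hD, Real.sqrt_sq (by positivity)]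
    rw [e1] at hfinal
    have e2 : C * δ ^ (-(ε / 2)) * (Real.sqrt D * (V + A + 1)) * (n * ((V + A + 1) ^ 2 / H ^ 2)) ≤
        (C + 1) * (H : ℝ) ^ (ε / 2) * (Real.sqrt D * (V + A + 1)) *
          (n * ((V + A + 1) ^ 2 / H ^ 2)) := by
      gcongr
      linarith
    have e3 := hfinal.trans e2
    rw [div_le_iff₀ (by positivity)] at e3
    refine e3.trans (le_of_eq ?_)
    field_simp
  have h0 : 0 ≤ Real.sqrt m * (I.card : ℝ) := by positivity
  have hsq2 := mul_self_le_mul_self h0 hsq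
  have f1 : Real.sqrt m * (I.card : ℝ) * (Real.sqrt m * (I.card : ℝ)) = m * (I.card : ℝ) ^ 2 := by
    calc _ = (Real.sqrt m * Real.sqrt m) * (I.card : ℝ) ^ 2 := by ring
      _ = _ := by rw [Real.mul_self_sqrt hm.le]
  have f2 : 2 * (C + 1) * (V + A + 1) ^ 3 * ((H : ℝ) * (H : ℝ) ^ (ε / 2)) * Real.sqrt D * n *
      (2 * (C + 1) * (V + A + 1) ^ 3 * ((H : ℝ) * (H : ℝ) ^ (ε / 2)) * Real.sqrt D * n) =
      4 * (C + 1) ^ 2 * (V + A + 1) ^ 6 * (H : ℝ) ^ (2 + ε) * D * n ^ 2 := by
    have g1 : (H : ℝ) ^ (2 + ε) = (H : ℝ) ^ 2 * ((H : ℝ) ^ (ε / 2) * (H : ℝ) ^ (ε / 2)) := by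
      rw [← Real.rpow_add hH0, ← Real.rpow_natCast (H : ℝ) 2, ← Real.rpow_add hH0]
      congr 1
      push_cast
      ring
    have g2 := Real.mul_self_sqrt hD
    calc _ = 4 * (C + 1) ^ 2 * (V + A + 1) ^ 6 *
          ((H : ℝ) ^ 2 * ((H : ℝ) ^ (ε / 2) * (H : ℝ) ^ (ε / 2))) *
          (Real.sqrt D * Real.sqrt D) * n ^ 2 := by ring
      _ = _ := by rw [← g1, g2]
  rw [f1, f2] at hsq2
  exact hsq2

open Classical in
/-- **multiplicity form of the Kakeya maximal theorem in `ℝ³`.** -/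
theorem km3_mult (hKM : ∀ V : ℝ, Crest.Agent.R138.Tub70.KM32 V) (V : ℝ) (hV : 0 ≤ V) (ε : ℝ)
    (hε : 0 < ε) :
    ∃ C : ℝ, 0 < C ∧ ∀ H : ℕ, 1 ≤ H → V + 2 ≤ (H : ℝ) → ∀ (ι : Type) [Fintype ι] [Nonempty ι]
      (p v : ι → E2) (I : Finset (ι × ℤ)) (m lam D : ℝ), 0 < m → 0 < lam → 0 ≤ D →
      (∀ i, ‖p i‖ ≤ V ∧ ‖v i‖ ≤ V) → (∀ x ∈ I, |x.2| ≤ (H : ℤ)) →
      (∀ i, lam * H ≤ ((I.filter fun x => x.1 = i).card : ℝ)) →
      (∀ x ∈ I, m ≤ ((I.filter fun y => y.2 = x.2 ∧
        ‖ps p v y.1 (x.2 / H) - ps p v x.1 (x.2 / H)‖ ≤ 1 / H).card : ℝ)) →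
      (∀ (b : OrthonormalBasis (Fin 2) ℝ E2) (s : Fin 2 → ℝ) (p0 v0 : E2),
        (∀ j, 1 / (H : ℝ) ≤ s j ∧ s j ≤ 1) →
        ((Finset.univ.filter fun i => Crest.Agent.R138.Tub70.InPl b s p0 v0 (p i) (v i)).card : ℝ) ≤
          D * (s 0 * s 1) * (H : ℝ) ^ 2) →
      m * lam ^ 2 ≤ C * (H : ℝ) ^ ε * D := by
  obtain ⟨C, hC, key⟩ := km3_core hKM V 1 hV (by norm_num) ε hε
  refine ⟨C, hC, ?_⟩
  intro H hH hHV ι _ _ p v I m lam D hm hlam hD hpv hI hline hmult hpl
  have hH0 : (0 : ℝ) < H := by exact_mod_cast hH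
  have hn0 : (0 : ℝ) < Fintype.card ι := by exact_mod_cast Fintype.card_pos
  have h1 := key H hH (by linarith) ι p v I m D hm hD hpv hI (fun x hx => by
    refine (hmult x hx).trans ?_
    set S := I.filter fun y => y.2 = x.2 ∧
        ‖ps p v y.1 (x.2 / H) - ps p v x.1 (x.2 / H)‖ ≤ 1 / H with hS
    have hinj : Set.InjOn (fun y : ι × ℤ => y.1) S := by
      intro a ha a' ha' he
      simp only [hS, Finset.coe_filter, Set.mem_ofPred_eq] at ha ha'
      exact Prod.ext he (ha.2.1.trans ha'.2.1.symm)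
    have h2 : S.card = (S.image fun y => y.1).card := (Finset.card_image_of_injOn hinj).symm
    rw [h2]
    have h3 : (S.image fun y => y.1) ⊆ Finset.univ.filter fun i =>
        ‖ps p v i (x.2 / H) - ps p v x.1 (x.2 / H)‖ ≤ 1 / H := by
      intro i hi
      obtain ⟨a, ha, rfl⟩ := Finset.mem_image.1 hi
      rw [hS, Finset.mem_filter] at ha
      rw [Finset.mem_filter]
      exact ⟨Finset.mem_univ _, ha.2.2⟩
    exact_mod_cast Finset.card_le_card h3) hpl
  have hIc : lam * H * Fintype.card ι ≤ (I.card : ℝ) := by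
    have h1 := Finset.card_eq_sum_card_fiberwise (s := I) (t := (Finset.univ : Finset ι))
      (f := fun y : ι × ℤ => y.1) (fun y _ => by simp)
    rw [h1]
    push_cast
    calc lam * H * Fintype.card ι = ∑ _i : ι, lam * H := by
          rw [Finset.sum_const, nsmul_eq_mul]; simp; ring
      _ ≤ _ := Finset.sum_le_sum fun i _ => hline i
  have h2 : m * (lam * H * Fintype.card ι) ^ 2 ≤
      C * (H : ℝ) ^ (2 + ε) * D * (Fintype.card ι : ℝ) ^ 2 := by
    refine le_trans ?_ h1
    gcongr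
  have h3 : (H : ℝ) ^ (2 + ε) = (H : ℝ) ^ 2 * (H : ℝ) ^ ε := by
    rw [Real.rpow_add hH0, ← Real.rpow_natCast (H : ℝ) 2]
    norm_num
  rw [h3] at h2
  have h4 : (m * lam ^ 2) * ((H : ℝ) ^ 2 * (Fintype.card ι : ℝ) ^ 2) ≤
      (C * (H : ℝ) ^ ε * D) * ((H : ℝ) ^ 2 * (Fintype.card ι : ℝ) ^ 2) := by
    calc _ = m * (lam * H * Fintype.card ι) ^ 2 := by ring
      _ ≤ _ := h2
      _ = _ := by ring
  exact le_of_mul_le_mul_right h4 (by positivity)

end Crest.Agent.R136.Slb480
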