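import Mathlib
import Crest.Agent.R136.Slb1_480

/-!
# R136: frames of `ℝ³`, projection along a unit vector
-/

set_option autoImplicit false

open Set Metric
open scoped InnerProductSpace

namespace Crest.Agent.R136.Slb480

open Crest.Agent.R138.Defs (E2)

/-- `ℝ³`. -/
abbrev E3 := EuclideanSpace ℝ (Fin 3)

/-- projection to the first two vectors of the frame. -/
noncomputable def prj (B : OrthonormalBasis (Fin 3) ℝ E3) (x : E3) : E2 :=
  WithLp.toLp 2 ![⟪B 0, x⟫_ℝ, ⟪B 1, x⟫_ℝ]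

/-- section. -/
noncomputable def sec (B : OrthonormalBasis (Fin 3) ℝ E3) (a : E2) : E3 := a 0 • B 0 + a 1 • B 1

theorem prj_sub (B : OrthonormalBasis (Fin 3) ℝ E3) (x y : E3) :
    prj B (x - y) = prj B x - prj B y := by
  unfold prj
  ext i
  fin_cases i <;> simp [inner_sub_right]

theorem prj_add (B : OrthonormalBasis (Fin 3) ℝ E3) (x y : E3) :
    prj B (x + y) = prj B x + prj B y := by
  unfold prj
  ext i
  fin_cases i <;> simp [inner_add_right]

theorem prj_smul (B : OrthonormalBasis (Fin 3) ℝ E3) (c : ℝ) (x : E3) :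
    prj B (c • x) = c • prj B x := by
  unfold prj
  ext i
  fin_cases i <;> simp [inner_smul_right]

theorem norm_prj_le (B : OrthonormalBasis (Fin 3) ℝ E3) (x : E3) : ‖prj B x‖ ≤ ‖x‖ := by
  have h1 : ‖prj B x‖ ^ 2 = ⟪B 0, x⟫_ℝ ^ 2 + ⟪B 1, x⟫_ℝ ^ 2 := by
    rw [EuclideanSpace.norm_sq_eq]
    simp [prj, Fin.sum_univ_two]
  have h2 := B.sum_sq_norm_inner_right x
  rw [Fin.sum_univ_three] at h2
  simp only [Real.norm_eq_abs, sq_abs] at h2
  have h3 : ‖prj B x‖ ^ 2 ≤ ‖x‖ ^ 2 := by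
    rw [h1, ← h2]
    nlinarith [sq_nonneg (⟪B 2, x⟫_ℝ)]
  exact le_of_sq_le_sq h3 (norm_nonneg _) 

theorem inner2 (a b : E2) : ⟪a, b⟫_ℝ = a 0 * b 0 + a 1 * b 1 := by
  rw [PiLp.inner_apply, Fin.sum_univ_two]
  simp [mul_comm]

theorem inner_sec (B : OrthonormalBasis (Fin 3) ℝ E3) (a : E2) (x : E3) :
    ⟪sec B a, x⟫_ℝ = ⟪a, prj B x⟫_ℝ := by
  rw [inner2]
  unfold sec prj
  rw [inner_add_left, real_inner_smul_left, real_inner_smul_left]
  rfl

theorem prj_sec (B : OrthonormalBasis (Fin 3) ℝ E3) (a : E2) : prj B (sec B a) = a := by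
  have h := B.orthonormal
  rw [orthonormal_iff_ite] at h
  unfold prj sec
  ext i
  fin_cases i
  · simp [inner_add_right, inner_smul_right, h]
  · simp [inner_add_right, inner_smul_right, h]

theorem inner_sec_sec (B : OrthonormalBasis (Fin 3) ℝ E3) (a a' : E2) :
    ⟪sec B a, sec B a'⟫_ℝ = ⟪a, a'⟫_ℝ := by
  rw [inner_sec, prj_sec]

theorem inner_sec_two (B : OrthonormalBasis (Fin 3) ℝ E3) (a : E2) : ⟪sec B a, B 2⟫_ℝ = 0 := by
  have h := B.orthonormal
  rw [orthonormal_iff_ite] at h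
  unfold sec
  rw [inner_add_left, inner_smul_left, inner_smul_left, h, h]
  simp

/-- a frame with third vector `n`. -/
theorem exists_frame {n : E3} (hn : ‖n‖ = 1) : ∃ B : OrthonormalBasis (Fin 3) ℝ E3, B 2 = n := by
  have h : Orthonormal ℝ (({2} : Set (Fin 3)).domRestrict fun _ : Fin 3 => n) := by
    rw [orthonormal_iff_ite]
    rintro ⟨i, hi⟩ ⟨j, hj⟩
    simp only [Set.mem_singleton_iff] at hi hj
    subst hi
    subst hj
    show ⟪n, n⟫_ℝ = _
    rw [real_inner_self_eq_norm_sq, hn]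
    simp
  obtain ⟨b, hb⟩ := h.exists_orthonormalBasis_extension_of_card_eq (by simp)
  exact ⟨b, hb 2 rfl⟩

/-- the frame of `ℝ³` given by a frame of the plane. -/
theorem exists_lift (B : OrthonormalBasis (Fin 3) ℝ E3) (b : OrthonormalBasis (Fin 2) ℝ E2) :
    ∃ b' : OrthonormalBasis (Fin 3) ℝ E3, b' 0 = sec B (b 0) ∧ b' 1 = sec B (b 1) ∧ b' 2 = B 2 := by
  set c : Fin 3 → E3 := ![sec B (b 0), sec B (b 1), B 2] with hc
  have hb := b.orthonormal
  rw [orthonormal_iff_ite] at hb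
  have hB := B.orthonormal
  rw [orthonormal_iff_ite] at hB
  have h0 : Orthonormal ℝ c := by
    rw [orthonormal_iff_ite]
    intro i j
    have h2 : ∀ a, ⟪B 2, sec B a⟫_ℝ = 0 := fun a => by
      rw [real_inner_comm]; exact inner_sec_two B a
    have h22 : ⟪B 2, B 2⟫_ℝ = 1 := by rw [hB]; simp
    fin_cases i <;> fin_cases j
    · show ⟪sec B (b 0), sec B (b 0)⟫_ℝ = _
      rw [inner_sec_sec, hb]; simp
    · show ⟪sec B (b 0), sec B (b 1)⟫_ℝ = _
      rw [inner_sec_sec, hb]; simp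
    · show ⟪sec B (b 0), B 2⟫_ℝ = _
      rw [inner_sec_two]; simp
    · show ⟪sec B (b 1), sec B (b 0)⟫_ℝ = _
      rw [inner_sec_sec, hb]; simp
    · show ⟪sec B (b 1), sec B (b 1)⟫_ℝ = _
      rw [inner_sec_sec, hb]; simp
    · show ⟪sec B (b 1), B 2⟫_ℝ = _
      rw [inner_sec_two]; simp
    · show ⟪B 2, sec B (b 0)⟫_ℝ = _
      rw [h2]; simp
    · show ⟪B 2, sec B (b 1)⟫_ℝ = _
      rw [h2]; simp
    · show ⟪B 2, B 2⟫_ℝ = _
      rw [h22]; simp
  have h : Orthonormal ℝ ((Set.univ : Set (Fin 3)).domRestrict c) :=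
    h0.comp Subtype.val Subtype.val_injective
  obtain ⟨b', hb'⟩ := h.exists_orthonormalBasis_extension_of_card_eq (by simp)
  exact ⟨b', hb' 0 (Set.mem_univ _), hb' 1 (Set.mem_univ _), hb' 2 (Set.mem_univ _)⟩

end Crest.Agent.R136.Slb480
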