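import Mathlib
import Crest.Agent.R136.Slb2_480
import Crest.Agent.R136.LmQ3_861

/-!
# R136, Lemma A_Q: the one-slab lemma `SlabOne` (LmQ3_861) from Kakeya in `ℝ³`
-/

set_option autoImplicit false

open Set Metric
open scoped InnerProductSpace

namespace Crest.Agent.R136.Slb480

open Crest.Agent.R138.Defs (E2)
open Crest.Agent.R136.LmQ861 (C11 cell Plk SlabOne)

theorem inner3 (u : E3) (a : Fin 3 → ℝ) : ⟪u, (WithLp.toLp 2 a : E3)⟫_ℝ = ∑ i, u i * a i := by
  rw [PiLp.inner_apply]
  simp [mul_comm]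

theorem norm3_le {a : Fin 3 → ℝ} {M : ℝ} (h : ∀ i, |a i| ≤ M) :
    ‖(WithLp.toLp 2 a : E3)‖ ≤ 3 * M := by
  have hM : 0 ≤ M := (abs_nonneg _).trans (h 0)
  have h1 : ‖(WithLp.toLp 2 a : E3)‖ ^ 2 ≤ (3 * M) ^ 2 := by
    rw [EuclideanSpace.norm_sq_eq]
    calc ∑ i, ‖(WithLp.toLp 2 a : E3) i‖ ^ 2 ≤ ∑ _i : Fin 3, M ^ 2 := by
          refine Finset.sum_le_sum fun i _ => ?_
          have : ‖(WithLp.toLp 2 a : E3) i‖ ≤ M := h i
          gcongr
      _ = 3 * M ^ 2 := by simp
      _ ≤ _ := by nlinarith [sq_nonneg M]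
  exact le_of_sq_le_sq h1 (by positivity)

theorem lin_pos {u : E3} (hu : ‖u‖ = 1) {X X0 V0 e : E3} {τ a c h d : ℝ}
    (hX : X = X0 + τ • V0 + e) (h1 : |⟪u, X0⟫_ℝ| ≤ a) (h2 : |⟪u, V0⟫_ℝ| ≤ c) (h3 : |τ| ≤ h)
    (h4 : ‖e‖ ≤ d) : |⟪u, X⟫_ℝ| ≤ a + h * c + d := by
  have h5 : |⟪u, e⟫_ℝ| ≤ d := by
    refine (abs_real_inner_le_norm u e).trans ?_
    rw [hu, one_mul]
    exact h4
  rw [hX, inner_add_right, inner_add_right, inner_smul_right]
  have h6 : |τ * ⟪u, V0⟫_ℝ| ≤ h * c := by
    rw [abs_mul]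
    exact mul_le_mul h3 h2 (abs_nonneg _) ((abs_nonneg _).trans h3)
  calc _ ≤ |⟪u, X0⟫_ℝ + τ * ⟪u, V0⟫_ℝ| + |⟪u, e⟫_ℝ| := abs_add_le _ _
    _ ≤ |⟪u, X0⟫_ℝ| + |τ * ⟪u, V0⟫_ℝ| + |⟪u, e⟫_ℝ| := by gcongr; exact abs_add_le _ _
    _ ≤ _ := by linarith

theorem inpl_diff {b : OrthonormalBasis (Fin 2) ℝ E2} {s : Fin 2 → ℝ} {p0 v0 p v p' v' : E2}
    (h : Crest.Agent.R138.Tub70.InPl b s p0 v0 p v)
    (h' : Crest.Agent.R138.Tub70.InPl b s p0 v0 p' v') (j : Fin 2) :
    |⟪b j, p - p'⟫_ℝ| ≤ 2 * s j ∧ |⟪b j, v - v'⟫_ℝ| ≤ 2 * s j := by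
  have e : ∀ (p v : E2) (z : ℝ), inner ℝ (p - p0 + z • (v - v0)) (b j) =
      ⟪b j, p - p0⟫_ℝ + z * ⟪b j, v - v0⟫_ℝ := by
    intro p v z
    rw [real_inner_comm, inner_add_right, inner_smul_right]
  have key : ∀ {p v : E2}, Crest.Agent.R138.Tub70.InPl b s p0 v0 p v →
      |⟪b j, p - p0⟫_ℝ| ≤ s j ∧ |⟪b j, v - v0⟫_ℝ| ≤ s j := by
    intro p v h
    have h0 := h 0 (by norm_num) j
    have h1 := h 1 (by norm_num) j
    have h2 := h (-1) (by norm_num) j
    rw [e] at h0 h1 h2
    rw [zero_mul, add_zero] at h0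
    rw [abs_le] at h1 h2
    refine ⟨h0, ?_⟩
    rw [abs_le]
    constructor
    · linarith [h1.1, h2.2]
    · linarith [h1.2, h2.1]
  obtain ⟨a1, a2⟩ := key h
  obtain ⟨a3, a4⟩ := key h'
  have e1 : ⟪b j, p - p'⟫_ℝ = ⟪b j, p - p0⟫_ℝ - ⟪b j, p' - p0⟫_ℝ := by
    rw [← inner_sub_right]
    congr 1
    abel
  have e2 : ⟪b j, v - v'⟫_ℝ = ⟪b j, v - v0⟫_ℝ - ⟪b j, v' - v0⟫_ℝ := by
    rw [← inner_sub_right]
    congr 1
    abel
  rw [e1, e2]
  rw [abs_le] at a1 a2 a3 a4
  constructor
  · rw [abs_le]; constructor <;> linarith [a1.1, a1.2, a3.1, a3.2]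
  · rw [abs_le]; constructor <;> linarith [a2.1, a2.2, a4.1, a4.2]

set_option maxHeartbeats 1600000 in
open Classical in
/-- **the one-slab lemma**. -/
theorem slabOne (hKM : ∀ V : ℝ, Crest.Agent.R138.Tub70.KM32 V) : SlabOne := by
  intro ε hε
  obtain ⟨C1, hC1, key⟩ := km3_core hKM 24 9 (by norm_num) (by norm_num) ε hε
  refine ⟨C1 + 34 ^ 2, by positivity, ?_⟩
  intro ι _ J γ v H R j0 n θ θ' D hJ hH hHR hθ hθ' hD hn hj0 hbd hbox hn1 hn2 hrich hline hpl
  have hH1 : (1 : ℝ) ≤ H := by exact_mod_cast hH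
  have hH0 : (0 : ℝ) < H := by linarith
  have hR1 : 1 ≤ R := by nlinarith
  have hR0 : 0 < R := by linarith
  set z0 : ℝ := (j0 : ℝ) / R with hz0
  have hz0b : |z0| ≤ 2 := by
    rw [hz0, abs_div, abs_of_pos hR0, div_le_iff₀ hR0]
    linarith
  have hzb : ∀ x ∈ J, |((x.2 : ℝ) / R)| ≤ 2 := by
    intro x hx
    rw [abs_div, abs_of_pos hR0, div_le_iff₀ hR0]
    linarith [(hbd x hx).2.1]
  have hzz : ∀ x ∈ J, |(x.2 : ℝ) / R - z0| ≤ H / R := by
    intro x hx
    rw [hz0, ← sub_div, abs_div, abs_of_pos hR0]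
    gcongr
    have h1 := (hbd x hx).2.2.1
    have h2 := (hbd x hx).2.2.2
    rw [abs_le]
    have h1' : (j0 : ℝ) ≤ x.2 := by exact_mod_cast h1
    have h2' : (x.2 : ℝ) < j0 + H := by exact_mod_cast h2
    constructor <;> linarith
  have hHR1 : (H : ℝ) / R ≤ 1 / H := by
    rw [div_le_div_iff₀ hR0 hH0]
    nlinarith
  have hHR2 : ((H : ℝ) / R) ^ 2 ≤ 1 / R := by
    rw [div_pow, div_le_div_iff₀ (by positivity) hR0]
    nlinarith
  -- the curves as curves in `E3`
  set X : ι → ℝ → E3 := fun l z => WithLp.toLp 2 (γ l z) with hX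
  set W : ι → ℝ → E3 := fun l z => WithLp.toLp 2 (v l z) with hW
  set N : E3 := WithLp.toLp 2 n with hN
  have hNn : ‖N‖ = 1 := by
    have : ‖N‖ ^ 2 = 1 := by
      rw [EuclideanSpace.norm_sq_eq]
      rw [← hn]
      refine Finset.sum_congr rfl fun i _ => ?_
      rw [Real.norm_eq_abs, sq_abs]
    have h0 := norm_nonneg N
    nlinarith
  have hXd : ∀ l l' z z', X l z - X l' z' = WithLp.toLp 2 (fun i => γ l z i - γ l' z' i) := by
    intro l l' z z'; rfl
  have hWd : ∀ l l' z z', W l z - W l' z' = WithLp.toLp 2 (fun i => v l z i - v l' z' i) := by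
    intro l l' z z'; rfl
  -- straightness
  have hst : ∀ y ∈ J, ∀ x ∈ J, ‖X y.1 (x.2 / R) - X y.1 z0 - ((x.2 : ℝ) / R - z0) • W y.1 z0‖ ≤
      3 / R := by
    intro y hy x hx
    have h1 := (hbd y hy).1.2.1 z0 (x.2 / R) hz0b (hzb x hx)
    have h2 : X y.1 (x.2 / R) - X y.1 z0 - ((x.2 : ℝ) / R - z0) • W y.1 z0 =
        WithLp.toLp 2 (fun i => γ y.1 (x.2 / R) i - γ y.1 z0 i -
          ((x.2 : ℝ) / R - z0) * v y.1 z0 i) := by rfl
    rw [h2]
    refine (norm3_le (M := 1 / R) fun i => (h1 i).trans ?_).trans (le_of_eq (by ring))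
    refine le_trans ?_ hHR2
    rw [← sq_abs]
    have := hzz x hx
    gcongr
  have hdv : ∀ y ∈ J, ∀ x ∈ J, ‖W y.1 (x.2 / R) - W y.1 z0‖ ≤ 3 / H := by
    intro y hy x hx
    have h1 := (hbd y hy).1.2.2 z0 (x.2 / R) hz0b (hzb x hx)
    rw [hWd]
    refine (norm3_le (M := 1 / H) fun i => (h1 i).trans ?_).trans (le_of_eq (by ring))
    exact (hzz x hx).trans hHR1
  set L : Finset ι := J.image Prod.fst with hL
  have hLJ : ∀ l ∈ L, ∃ y ∈ J, y.1 = l := fun l hl => by
    obtain ⟨y, hy, he⟩ := Finset.mem_image.1 hl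
    exact ⟨y, hy, he⟩
  have hLpos : 0 < (L.card : ℝ) := by exact_mod_cast (hJ.image _).card_pos
  -- membership in planks
  have hmem : ∀ (b' : OrthonormalBasis (Fin 3) ℝ E3) (w : Fin 2 → ℝ),
      b' 2 = N → (∀ a, 1 / (H : ℝ) ≤ w a ∧ w a ≤ 1) → ∀ x ∈ J, ∀ y ∈ J,
      (∀ a : Fin 2, |⟪b' a.castSucc, X y.1 z0 - X x.1 z0⟫_ℝ| ≤ 24 * w a * (H / R)) →
      (∀ a : Fin 2, |⟪b' a.castSucc, W y.1 z0 - W x.1 z0⟫_ℝ| ≤ 12 * w a) →
      Plk γ v R H n (fun a i => b' a.castSucc i) w x y := by
    intro b' w hb2 hw x hx y hy hp hv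
    set z1 : ℝ := (x.2 : ℝ) / R with hz1
    have hX1 : X y.1 z1 - X x.1 z1 = (X y.1 z0 - X x.1 z0) + (z1 - z0) • (W y.1 z0 - W x.1 z0) +
        ((X y.1 z1 - X y.1 z0 - (z1 - z0) • W y.1 z0) -
          (X x.1 z1 - X x.1 z0 - (z1 - z0) • W x.1 z0)) := by module
    have hW1 : W y.1 z1 - W x.1 z1 = (W y.1 z0 - W x.1 z0) + (0 : ℝ) • (0 : E3) +
        ((W y.1 z1 - W y.1 z0) - (W x.1 z1 - W x.1 z0)) := by module
    have he1 : ‖(X y.1 z1 - X y.1 z0 - (z1 - z0) • W y.1 z0) -
          (X x.1 z1 - X x.1 z0 - (z1 - z0) • W x.1 z0)‖ ≤ 6 / R := by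
      refine (norm_sub_le _ _).trans ?_
      have a1 := hst y hy x hx
      have a2 := hst x hx x hx
      calc _ ≤ 3 / R + 3 / R := add_le_add a1 a2
        _ = _ := by ring
    have he2 : ‖(W y.1 z1 - W y.1 z0) - (W x.1 z1 - W x.1 z0)‖ ≤ 6 / H := by
      refine (norm_sub_le _ _).trans ?_
      have a1 := hdv y hy x hx
      have a2 := hdv x hx x hx
      calc _ ≤ 3 / (H : ℝ) + 3 / H := add_le_add a1 a2
        _ = _ := by ring
    have hN1 : |⟪N, X y.1 z0 - X x.1 z0⟫_ℝ| ≤ 1 / R := by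
      rw [hXd, inner3]
      exact hn1 x hx y hy
    have hN2 : |⟪N, W y.1 z0 - W x.1 z0⟫_ℝ| ≤ 2 / H := by
      rw [hWd, inner3]
      exact hn2 x hx y hy
    have hz := hzz x hx
    refine ⟨?_, ?_, fun a => ⟨?_, ?_⟩⟩
    · have h1 := lin_pos hNn hX1 hN1 hN2 hz he1
      rw [hXd, inner3] at h1
      refine h1.trans ?_
      have : 1 / R + H / R * (2 / H) + 6 / R = 9 / R := by field_simp; norm_num
      rw [this]
      gcongr
      norm_num
    · have h1 := lin_pos hNn hW1 hN2 (c := 0) (by simp) (h := 0) (by simp) he2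
      rw [hWd, inner3] at h1
      refine h1.trans ?_
      have : 2 / (H : ℝ) + 0 * 0 + 6 / H = 8 / H := by ring
      rw [this]
      gcongr
      norm_num
    · have h1 := lin_pos (b'.norm_eq_one a.castSucc) hX1 (hp a) (hv a) hz he1
      rw [hXd, inner3] at h1
      refine h1.trans ?_
      have h2 : 1 / R ≤ w a * (H / R) := by
        calc 1 / R = 1 / H * (H / R) := by field_simp
          _ ≤ _ := by gcongr; exact (hw a).1
      have h3 : 6 / R = 6 * (1 / R) := by ring
      have h4 : 100 * w a * H / R = 100 * (w a * (H / R)) := by ring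
      rw [h3, h4]
      have h5 : 0 ≤ w a * (H / R) := le_trans (by positivity) h2
      nlinarith
    · have h1 := lin_pos (b'.norm_eq_one a.castSucc) hW1 (hv a) (c := 0) (by simp) (h := 0)
        (by simp) he2
      rw [hWd, inner3] at h1
      refine h1.trans ?_
      have h2 := (hw a).1
      have h3 : 6 / (H : ℝ) = 6 * (1 / H) := by ring
      rw [h3]
      have h5 : 0 ≤ w a := le_trans (by positivity) h2
      nlinarith
  -- orthonormality in coordinates
  have hEE : ∀ b' : OrthonormalBasis (Fin 3) ℝ E3, ∀ a c : Fin 2,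
      ∑ i, b' a.castSucc i * b' c.castSucc i = if a = c then 1 else 0 := by
    intro b' a c
    have h := b'.orthonormal
    rw [orthonormal_iff_ite] at h
    have h1 := h a.castSucc c.castSucc
    have h2 : ⟪b' a.castSucc, b' c.castSucc⟫_ℝ = ∑ i, b' a.castSucc i * b' c.castSucc i := by
      rw [← inner3]
    rw [← h2, h1]
    simp
  have hEn : ∀ b' : OrthonormalBasis (Fin 3) ℝ E3, b' 2 = N → ∀ a : Fin 2,
      ∑ i, b' a.castSucc i * n i = 0 := by
    intro b' hb a
    rw [← inner3]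
    change ⟪b' a.castSucc, N⟫_ℝ = 0
    rw [← hb]
    have h := b'.orthonormal
    rw [orthonormal_iff_ite] at h
    rw [h]
    have : (a.castSucc : Fin 3) ≠ 2 := by
      intro he
      have := congrArg Fin.val he
      simp at this
      omega
    rw [if_neg this]
  obtain ⟨B, hB⟩ := exists_frame hNn
  -- crude bounds
  have hcr1 : ∀ x ∈ J, ∀ y ∈ J, ‖X y.1 z0 - X x.1 z0‖ ≤ 24 * (H / R) := by
    intro x hx y hy
    rw [hXd]
    refine (norm3_le (M := 8 * H / R) fun i => hbox x hx y hy i).trans (le_of_eq (by ring))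
  have hcr2 : ∀ x ∈ J, ∀ y ∈ J, ‖W y.1 z0 - W x.1 z0‖ ≤ 6 := by
    intro x hx y hy
    rw [hWd]
    refine (norm3_le (M := 2) fun i => ?_).trans (by norm_num)
    have h1 := (hbd y hy).1.1 z0 hz0b i
    have h2 := (hbd x hx).1.1 z0 hz0b i
    rw [abs_le] at h1 h2 ⊢
    constructor <;> linarith [h1.1, h1.2, h2.1, h2.2]
  rcases lt_or_ge (H : ℝ) 34 with hsmall | hlarge
  · -- small `H`
    obtain ⟨x, hx⟩ := hJ
    have hall : L ⊆ (J.filter (Plk γ v R H n (fun a i => B a.castSucc i) (fun _ => 1) x)).image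
        Prod.fst := by
      intro l hl
      obtain ⟨y, hy, rfl⟩ := hLJ l hl
      refine Finset.mem_image_of_mem _ (Finset.mem_filter.2 ⟨hy, ?_⟩)
      refine hmem B (fun _ => 1) hB (fun a => ⟨?_, le_rfl⟩) x hx y hy (fun a => ?_) (fun a => ?_)
      · rw [div_le_one hH0]; exact hH1
      · refine (abs_real_inner_le_norm _ _).trans ?_
        rw [B.norm_eq_one, one_mul, mul_one]
        exact hcr1 x hx y hy
      · refine (abs_real_inner_le_norm _ _).trans ?_
        rw [B.norm_eq_one, one_mul, mul_one]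
        exact (hcr2 x hx y hy).trans (by norm_num)
    have h1 := hpl x hx (fun a i => B a.castSucc i) (fun a c => hEE B a c) (fun a => hEn B hB a)
      (fun _ => 1) (fun a => ⟨by rw [div_le_one hH0]; exact hH1, le_rfl⟩)
    have h2 : (L.card : ℝ) ≤ D * H ^ 2 := by
      have : (L.card : ℝ) ≤ ((((J.filter (Plk γ v R H n (fun a i => B a.castSucc i)
        (fun _ => 1) x)).image Prod.fst).card : ℕ) : ℝ) := by
        exact_mod_cast Finset.card_le_card hall
      refine this.trans (h1.trans (le_of_eq (by ring)))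
    have h3 : θ ≤ (L.card : ℝ) := by
      refine (hrich x hx).trans ?_
      have : (J.filter fun y => cell γ R y = cell γ R x).card ≤ L.card := by
        refine Finset.card_le_card_of_injOn Prod.fst ?_ ?_
        · intro y hy
          rw [Finset.mem_coe, Finset.mem_filter] at hy
          exact Finset.mem_image_of_mem _ hy.1
        · intro y hy y' hy' he
          rw [Finset.mem_coe, Finset.mem_filter] at hy hy'
          refine Prod.ext he ?_
          have := congrFun (hy.2.trans hy'.2.symm) 3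
          simpa using this
      exact_mod_cast this
    have h4 : θ' ≤ H := by
      refine (hline x hx).trans ?_
      have : (J.filter fun y => y.1 = x.1).card ≤ (Finset.Ico j0 (j0 + H)).card := by
        refine Finset.card_le_card_of_injOn Prod.snd ?_ ?_
        · intro y hy
          rw [Finset.mem_coe, Finset.mem_filter] at hy
          rw [Finset.mem_coe, Finset.mem_Ico]
          exact (hbd y hy.1).2.2
        · intro y hy y' hy' he
          rw [Finset.mem_coe, Finset.mem_filter] at hy hy'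
          exact Prod.ext (hy.2.trans hy'.2.symm) he
      rw [Int.card_Ico] at this
      simp at this
      exact_mod_cast this
    calc θ * θ' ^ 2 ≤ (D * H ^ 2) * H ^ 2 := by
          gcongr
          exact h3.trans h2
      _ ≤ (D * H ^ 2) * 34 ^ 2 := by gcongr
      _ = 34 ^ 2 * (H : ℝ) ^ (2 : ℝ) * D := by
          rw [Real.rpow_two]; ring
      _ ≤ (C1 + 34 ^ 2) * (H : ℝ) ^ (2 + ε) * D := by
          have g1 : (H : ℝ) ^ (2 : ℝ) ≤ (H : ℝ) ^ (2 + ε) :=
            Real.rpow_le_rpow_of_exponent_le hH1 (by linarith)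
          have g2 : (34 : ℝ) ^ 2 ≤ C1 + 34 ^ 2 := by linarith
          have g3 : (0 : ℝ) ≤ (H : ℝ) ^ (2 : ℝ) := by positivity
          calc 34 ^ 2 * (H : ℝ) ^ (2 : ℝ) * D ≤ (C1 + 34 ^ 2) * (H : ℝ) ^ (2 : ℝ) * D := by gcongr
            _ ≤ _ := by gcongr
  · -- large `H`
    obtain ⟨x0, hx0⟩ := hJ
    set p' : {l // l ∈ L} → E2 := fun i => (R / H) • prj B (X i z0 - X x0.1 z0) with hp'
    set v' : {l // l ∈ L} → E2 := fun i => prj B (W i z0 - W x0.1 z0) with hv'
    set I' : Finset ({l // l ∈ L} × ℤ) :=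
      ((Finset.univ : Finset {l // l ∈ L}) ×ˢ Finset.Icc (-(H : ℤ)) H).filter
        fun q => ((q.1 : ι), q.2 + j0) ∈ J with hI'
    have hI'mem : ∀ q ∈ I', |q.2| ≤ (H : ℤ) ∧ ((q.1 : ι), q.2 + j0) ∈ J := by
      intro q hq
      rw [hI', Finset.mem_filter, Finset.mem_product, Finset.mem_Icc] at hq
      exact ⟨abs_le.2 hq.1.2, hq.2⟩
    have hpos : ∀ (i : {l // l ∈ L}) (j : ℤ), ps p' v' i (j / H) =
        (R / H) • prj B (X i z0 - X x0.1 z0 + ((j : ℝ) / R) • (W i z0 - W x0.1 z0)) := by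
      intro i j
      unfold ps
      simp only [hp', hv']
      rw [prj_add, prj_smul, smul_add, smul_smul]
      congr 2
      field_simp
    have hbd' : ∀ i : {l // l ∈ L}, ‖p' i‖ ≤ 24 ∧ ‖v' i‖ ≤ 24 := by
      intro i
      obtain ⟨y, hy, hyi⟩ := hLJ i i.2
      have h1 := hcr1 x0 hx0 y hy
      have h2 := hcr2 x0 hx0 y hy
      rw [hyi] at h1 h2
      constructor
      · simp only [hp']
        rw [norm_smul, Real.norm_eq_abs, abs_of_pos (by positivity : (0:ℝ) < R / H)]
        calc (R / H) * ‖prj B (X i z0 - X x0.1 z0)‖ ≤ (R / H) * (24 * (H / R)) := by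
              gcongr
              exact (norm_prj_le _ _).trans h1
          _ = 24 := by field_simp
      · simp only [hv']
        exact (norm_prj_le _ _).trans (h2.trans (by norm_num))
    have hmult : ∀ q ∈ I', θ ≤ ((Finset.univ.filter fun i : {l // l ∈ L} =>
        ‖ps p' v' i (q.2 / H) - ps p' v' q.1 (q.2 / H)‖ ≤ 9 / H).card : ℝ) := by
      intro q hq
      obtain ⟨hq1, hqJ⟩ := hI'mem q hq
      set y : ι × ℤ := ((q.1 : ι), q.2 + j0) with hy
      refine (hrich y hqJ).trans ?_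
      have hinj : Set.InjOn (fun y : ι × ℤ => y.1) (J.filter fun y' => cell γ R y' = cell γ R y) := by
        intro a ha a' ha' he
        rw [Finset.mem_coe, Finset.mem_filter] at ha ha'
        refine Prod.ext he ?_
        have := congrFun (ha.2.trans ha'.2.symm) 3
        simpa using this
      set S2 : Finset {l // l ∈ L} := Finset.univ.filter fun i : {l // l ∈ L} =>
        ‖ps p' v' i (q.2 / H) - ps p' v' q.1 (q.2 / H)‖ ≤ 9 / H with hS2
      have h1 : ((J.filter fun y' => cell γ R y' = cell γ R y).image fun y => y.1) ⊆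
          Finset.image (fun i : {l // l ∈ L} => (i : ι)) S2 := by
        intro l hl
        obtain ⟨y', hy', rfl⟩ := Finset.mem_image.1 hl
        rw [Finset.mem_filter] at hy'
        obtain ⟨hy'J, hcell⟩ := hy'
        have hk : y'.2 = y.2 := by
          have := congrFun hcell 3
          simpa using this
        rw [Finset.mem_image]
        refine ⟨⟨y'.1, Finset.mem_image_of_mem _ hy'J⟩, ?_, rfl⟩
        rw [hS2, Finset.mem_filter]
        refine ⟨Finset.mem_univ _, ?_⟩
        rw [hpos, hpos, ← smul_sub, ← prj_sub, norm_smul, Real.norm_eq_abs,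
          abs_of_pos (by positivity : (0:ℝ) < R / H)]
        have hyk : (y.2 : ℝ) / R - z0 = (q.2 : ℝ) / R := by
          rw [hy, hz0]
          push_cast
          ring
        have hd : ‖X y'.1 (y.2 / R) - X y.1 (y.2 / R)‖ ≤ 3 / R := by
          rw [hXd]
          refine (norm3_le (M := 1 / R) fun i => ?_).trans (le_of_eq (by ring))
          have hci := congrFun hcell i.castSucc
          rw [LmQ861.cell_castSucc, LmQ861.cell_castSucc] at hci
          unfold LmQ861.pt at hci
          rw [hk] at hci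
          exact Crest.Agent.R138.LmA861.near_of_floor hR0 hci
        have e1 := hst y hqJ y hqJ
        have e2 := hst y' hy'J y hqJ
        rw [hyk] at e1 e2
        have e3 : ‖(X y'.1 z0 - X x0.1 z0 + ((q.2 : ℝ) / R) • (W y'.1 z0 - W x0.1 z0)) -
            (X y.1 z0 - X x0.1 z0 + ((q.2 : ℝ) / R) • (W y.1 z0 - W x0.1 z0))‖ ≤ 9 / R := by
          have e4 : (X y'.1 z0 - X x0.1 z0 + ((q.2 : ℝ) / R) • (W y'.1 z0 - W x0.1 z0)) -
            (X y.1 z0 - X x0.1 z0 + ((q.2 : ℝ) / R) • (W y.1 z0 - W x0.1 z0)) =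
            (X y'.1 (y.2 / R) - X y.1 (y.2 / R)) -
            ((X y'.1 (y.2 / R) - X y'.1 z0 - ((q.2 : ℝ) / R) • W y'.1 z0) -
              (X y.1 (y.2 / R) - X y.1 z0 - ((q.2 : ℝ) / R) • W y.1 z0)) := by module
          rw [e4]
          calc _ ≤ ‖X y'.1 (y.2 / R) - X y.1 (y.2 / R)‖ +
                ‖(X y'.1 (y.2 / R) - X y'.1 z0 - ((q.2 : ℝ) / R) • W y'.1 z0) -
              (X y.1 (y.2 / R) - X y.1 z0 - ((q.2 : ℝ) / R) • W y.1 z0)‖ := norm_sub_le _ _
            _ ≤ 3 / R + (3 / R + 3 / R) := by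
                gcongr
                exact (norm_sub_le _ _).trans (add_le_add e2 e1)
            _ = 9 / R := by ring
        calc (R / H) * _ ≤ (R / H) * (9 / R) := by
              gcongr
              exact (norm_prj_le _ _).trans e3
          _ = _ := by field_simp
      have h2 := Finset.card_le_card h1
      rw [Finset.card_image_of_injOn hinj] at h2
      have h3 := h2.trans Finset.card_image_le
      exact_mod_cast h3
    -- number of incidences
    have hIc : θ' * (L.card : ℝ) ≤ (I'.card : ℝ) := by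
      have h1 : J ⊆ I'.image fun q => ((q.1 : ι), q.2 + j0) := by
        intro y hy
        rw [Finset.mem_image]
        refine ⟨(⟨y.1, Finset.mem_image_of_mem _ hy⟩, y.2 - j0), ?_, ?_⟩
        · rw [hI', Finset.mem_filter, Finset.mem_product, Finset.mem_Icc]
          have h1 := (hbd y hy).2.2.1
          have h2 := (hbd y hy).2.2.2
          refine ⟨⟨Finset.mem_univ _, ?_, ?_⟩, ?_⟩
          · simp only; omega
          · simp only; omega
          · simp only [sub_add_cancel]
            exact hy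
        · simp
      have h2 : J.card ≤ I'.card := (Finset.card_le_card h1).trans Finset.card_image_le
      have h3 : J.card = ∑ l ∈ L, (J.filter fun y => y.1 = l).card :=
        Finset.card_eq_sum_card_fiberwise fun y hy => Finset.mem_image_of_mem _ hy
      calc θ' * (L.card : ℝ) = ∑ _l ∈ L, θ' := by
            rw [Finset.sum_const, nsmul_eq_mul, mul_comm]
        _ ≤ ∑ l ∈ L, ((J.filter fun y => y.1 = l).card : ℝ) := by
            refine Finset.sum_le_sum fun l hl => ?_
            obtain ⟨y, hy, hyl⟩ := hLJ l hl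
            have := hline y hy
            rw [hyl] at this
            exact this
        _ = (J.card : ℝ) := by rw [h3]; push_cast; rfl
        _ ≤ _ := by exact_mod_cast h2
    -- planks
    have hplank : ∀ (b : OrthonormalBasis (Fin 2) ℝ E2) (s : Fin 2 → ℝ) (p0 v0 : E2),
        (∀ j, 1 / (H : ℝ) ≤ s j ∧ s j ≤ 1) →
        ((Finset.univ.filter fun i : {l // l ∈ L} =>
          Crest.Agent.R138.Tub70.InPl b s p0 v0 (p' i) (v' i)).card : ℝ) ≤
          D * (s 0 * s 1) * (H : ℝ) ^ 2 := by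
      intro b s p0 v0 hs
      have hs0 : ∀ j, 0 < s j := fun j => lt_of_lt_of_le (by positivity) (hs j).1
      obtain ⟨b', hb0, hb1, hb2⟩ := exists_lift B b
      rw [hB] at hb2
      have hba : ∀ a : Fin 2, b' a.castSucc = sec B (b a) := by
        intro a
        fin_cases a
        · exact hb0
        · exact hb1
      rcases (Finset.univ.filter fun i : {l // l ∈ L} =>
          Crest.Agent.R138.Tub70.InPl b s p0 v0 (p' i) (v' i)).eq_empty_or_nonempty with he | ⟨i1, hi1⟩
      · rw [he]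
        have := hs0 0
        have := hs0 1
        simp only [Finset.card_empty, Nat.cast_zero]
        positivity
      · rw [Finset.mem_filter] at hi1
        obtain ⟨x, hx, hxi⟩ := hLJ i1 i1.2
        have h1 := hpl x hx (fun a i => b' a.castSucc i) (fun a c => hEE b' a c)
          (fun a => hEn b' hb2 a) s hs
        refine le_trans ?_ h1
        have hsub : (Finset.univ.filter fun i : {l // l ∈ L} =>
          Crest.Agent.R138.Tub70.InPl b s p0 v0 (p' i) (v' i)).card ≤
          ((J.filter (Plk γ v R H n (fun a i => b' a.castSucc i) s x)).image Prod.fst).card := by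
          refine Finset.card_le_card_of_injOn (fun i => (i : ι)) ?_ Subtype.val_injective.injOn
          intro i hi
          rw [Finset.mem_coe, Finset.mem_filter] at hi
          obtain ⟨y, hy, hyi⟩ := hLJ i i.2
          show (i : ι) ∈ _
          rw [← hyi]
          refine Finset.mem_image_of_mem _ (Finset.mem_filter.2 ⟨hy, ?_⟩)
          refine hmem b' s hb2 hs x hx y hy (fun a => ?_) (fun a => ?_)
          · have d := (inpl_diff hi.2 hi1.2 a).1
            rw [hba, inner_sec]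
            have : p' i - p' i1 = (R / H) • prj B (X y.1 z0 - X x.1 z0) := by
              simp only [hp']
              rw [← smul_sub, ← prj_sub, hyi, hxi]
              congr 2
              abel
            rw [this, inner_smul_right, abs_mul, abs_of_pos (by positivity : (0:ℝ) < R / H)] at d
            have h2 : |⟪b a, prj B (X y.1 z0 - X x.1 z0)⟫_ℝ| ≤ 2 * s a * (H / R) := by
              calc |⟪b a, prj B (X y.1 z0 - X x.1 z0)⟫_ℝ| =
                  (R / H * |⟪b a, prj B (X y.1 z0 - X x.1 z0)⟫_ℝ|) * (H / R) := by field_simp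
                _ ≤ _ := by gcongr
            refine h2.trans ?_
            have := hs0 a
            gcongr
            norm_num
          · have d := (inpl_diff hi.2 hi1.2 a).2
            rw [hba, inner_sec]
            have : v' i - v' i1 = prj B (W y.1 z0 - W x.1 z0) := by
              simp only [hv']
              rw [← prj_sub, hyi, hxi]
              congr 1
              abel
            rw [this] at d
            refine d.trans ?_
            have := hs0 a
            linarith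
        exact_mod_cast hsub
    have hfin := key H (by omega) (by linarith) {l // l ∈ L} p' v' I' θ D hθ hD hbd'
      (fun q hq => (hI'mem q hq).1) hmult hplank
    rw [Fintype.card_coe] at hfin
    have h1 : θ * (θ' * (L.card : ℝ)) ^ 2 ≤
        C1 * (H : ℝ) ^ (2 + ε) * D * (L.card : ℝ) ^ 2 := by
      refine le_trans ?_ hfin
      gcongr
    have h2 : (θ * θ' ^ 2) * (L.card : ℝ) ^ 2 ≤ (C1 * (H : ℝ) ^ (2 + ε) * D) * (L.card : ℝ) ^ 2 := by
      calc _ = θ * (θ' * (L.card : ℝ)) ^ 2 := by ring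
        _ ≤ _ := h1
    have h3 := le_of_mul_le_mul_right h2 (by positivity)
    refine h3.trans ?_
    gcongr
    linarith

end Crest.Agent.R136.Slb480
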