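import Crest.Agent.R136.HR1_829
import Crest.Agent.R136.SlbO_480
import Crest.Agent.R136.Sh4_605

/-!
# R136, HRot4 part 2 (helper829): no container, finite form for ONE sheet

`end_gam` = `nc_fin` for the normalised curves `gam` of 605: all lines `InSheet` over the cell `J0` of
level `i`; richness is asked in the natural form (normalised distance at ONE height of the fine
cell); the plank hypothesis is the literal conclusion of 605's `dmaxQ` (any class of sheets).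
-/

set_option autoImplicit false
set_option linter.unusedVariables false
set_option linter.unusedSectionVars false

namespace Crest.Agent.R136.HR829

open Finset
open Crest.Agent.R136.LmQ861 (C11 pt Plk SlabOne)
open Crest.Agent.R138.Mk163 (zc zl rho alive own)
open Crest.Agent.R136.Sh605

/-- centre of the cell `J` of level `i` -/
noncomputable def zm (i : ℕ) (J : ℤ) : ℝ := zl i J + rho i / 2

/-- normalised height of `z` in the cell `J` of level `i` -/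
noncomputable def un (i : ℕ) (J : ℤ) (z : ℝ) : ℝ := (z - zm i J) / (rho i / 2)

theorem rho_pos (i : ℕ) : 0 < rho i := by unfold rho; positivity

theorem un_spec (i : ℕ) (J : ℤ) (z : ℝ) : zm i J + rho i / 2 * un i J z = z := by
  have := rho_pos i
  unfold un
  field_simp
  ring

theorem un_uh (i M : ℕ) (J0 c : ℤ) : un i J0 (zl (i + M + 1) c) = uh M J0 c := by
  have h2 : (2 : ℝ) ^ i ≠ 0 := by positivity
  have h3 : (2 : ℝ) ^ M ≠ 0 := by positivity
  unfold un zm uh ix zl rho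
  rw [pow_add, pow_add]
  push_cast
  rw [pow_succ]
  field_simp
  ring

theorem zc_mem (i : ℕ) (z : ℝ) : zl i (zc i z) ≤ z ∧ z < zl i (zc i z) + rho i := by
  have h := Int.floor_le ((2 : ℝ) ^ i * z)
  have h' := Int.lt_floor_add_one ((2 : ℝ) ^ i * z)
  have h2 : (0 : ℝ) < 2 ^ i := by positivity
  unfold zl zc rho
  rw [← add_div]
  constructor
  · rw [div_le_iff₀ h2]; linarith
  · rw [lt_div_iff₀ h2]; linarith

theorem un_abs {i : ℕ} {J : ℤ} {z : ℝ} (h1 : zl i J ≤ z) (h2 : z ≤ zl i J + rho i) :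
    |un i J z| ≤ 1 := by
  have := rho_pos i
  unfold un zm
  rw [abs_div, abs_of_pos (by positivity : 0 < rho i / 2), div_le_one (by positivity), abs_le]
  constructor <;> linarith

/-- two heights in one cell of level `i + M + 1` -/
theorem un_near {i M : ℕ} {J0 : ℤ} {z : ℝ} :
    |un i J0 z - uh M J0 (zc (i + M + 1) z)| ≤ 1 / 2 ^ M := by
  have h := zc_mem (i + M + 1) z
  rw [← un_uh i M J0]
  have hp := rho_pos i
  have e : un i J0 z - un i J0 (zl (i + M + 1) (zc (i + M + 1) z)) =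
      (z - zl (i + M + 1) (zc (i + M + 1) z)) / (rho i / 2) := by
    unfold un
    rw [← sub_div]; congr 1; ring
  rw [e, abs_div, abs_of_pos (by positivity : 0 < rho i / 2), div_le_iff₀ (by positivity),
    abs_of_nonneg (by linarith [h.1])]
  have e2 : rho (i + M + 1) = 1 / 2 ^ M * (rho i / 2) := by
    unfold rho
    rw [pow_add, pow_add]
    field_simp
  rw [← e2]
  linarith [h.2]

theorem zc_nest {i j : ℕ} (h : i ≤ j) {z z' : ℝ} (hz : zc j z = zc j z') : zc i z = zc i z' := by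
  have e1 := zc_div i (j - i) z
  have e2 := zc_div i (j - i) z'
  rw [Nat.add_sub_cancel' h] at e1 e2
  rw [← e1, ← e2, hz]

/-- a subcell lies inside its cell -/
theorem sub_cell {i j : ℕ} (h : i ≤ j) (z : ℝ) : zl i (zc i z) ≤ zl j (zc j z) ∧
    zl j (zc j z) + rho j ≤ zl i (zc i z) + rho i := by
  obtain ⟨d, rfl⟩ := Nat.exists_eq_add_of_le h
  have e1 := zc_div i d z
  have hK : (0 : ℤ) < 2 ^ d := by positivity
  have h2 := Int.ediv_mul_le (zc (i + d) z) hK.ne'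
  have h3 := Int.lt_ediv_add_one_mul_self (zc (i + d) z) hK
  rw [e1] at h2 h3
  have h4 : (zc i z : ℝ) * 2 ^ d ≤ zc (i + d) z := by exact_mod_cast h2
  have h5 : (zc (i + d) z : ℝ) + 1 ≤ (zc i z + 1) * 2 ^ d := by
    have : zc (i + d) z + 1 ≤ (zc i z + 1) * 2 ^ d := by omega
    exact_mod_cast this
  unfold zl rho
  have p1 : (0 : ℝ) < 2 ^ i := by positivity
  have p2 : (0 : ℝ) < 2 ^ d := by positivity
  constructor
  · rw [pow_add, div_le_div_iff₀ p1 (by positivity)]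
    nlinarith
  · rw [← add_div, ← add_div, pow_add, div_le_div_iff₀ (by positivity) p1]
    nlinarith

/-- heights in a neighbouring window -/
theorem near_window {i M k : ℕ} {J0 : ℤ} (hk : k ≤ M) {x y : ℝ}
    (h : |zc (i + M + 1 - k) y - zc (i + M + 1 - k) x| ≤ 1) {z : ℝ}
    (h1 : zl (i + M + 1 - k) (zc (i + M + 1 - k) y) ≤ z)
    (h2 : z ≤ zl (i + M + 1 - k) (zc (i + M + 1 - k) y) + rho (i + M + 1 - k)) :
    |z - (zm i J0 + rho i / 2 * ((ix M J0 (zc (i + M + 1) x) : ℝ) / 2 ^ M))| ≤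
      2 * (rho i / 2) * ((2 ^ k : ℕ) : ℝ) / 2 ^ M := by
  have e0 : zm i J0 + rho i / 2 * ((ix M J0 (zc (i + M + 1) x) : ℝ) / 2 ^ M) =
      zl (i + M + 1) (zc (i + M + 1) x) := by
    have := un_spec i J0 (zl (i + M + 1) (zc (i + M + 1) x))
    rw [un_uh] at this
    exact this
  rw [e0]
  have e1 : 2 * (rho i / 2) * ((2 ^ k : ℕ) : ℝ) / 2 ^ M = 2 * rho (i + M + 1 - k) := by
    unfold rho
    have p1 : (2 : ℝ) ^ (i + M + 1) = 2 ^ (i + M + 1 - k) * 2 ^ k := by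
      rw [← pow_add]; congr 1; omega
    rw [pow_succ, pow_add] at p1
    push_cast
    field_simp
    linarith
  rw [e1]
  have hs := sub_cell (i := i + M + 1 - k) (j := i + M + 1) (by omega) x
  have hp := rho_pos (i + M + 1)
  have hq : |zl (i + M + 1 - k) (zc (i + M + 1 - k) y) - zl (i + M + 1 - k) (zc (i + M + 1 - k) x)| ≤
      rho (i + M + 1 - k) := by
    unfold zl rho
    rw [← sub_div, abs_div, abs_of_pos (by positivity : (0:ℝ) < 2 ^ (i + M + 1 - k))]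
    gcongr
    exact_mod_cast h
  rw [abs_le] at hq ⊢
  constructor <;> linarith [hs.1, hs.2, hq.1, hq.2]

section geo

variable {e : Fin 3 → V3} {c : Ln4} {w : V3} {q : ℝ → V3 → ℝ} {a z0 ρ zc lam : ℝ}

theorem markov {f : ℝ → ℝ} {k0 k1 k2 : ℝ} (h : ∀ u, f u = k0 + k1 * u + k2 * u ^ 2)
    (hb : ∀ u, -1 ≤ u → u ≤ 1 → |f u| ≤ 1) {u u' : ℝ} (hu : |u| ≤ 1) (hu' : |u'| ≤ 1) :
    |f u' - f u| ≤ 4 * |u' - u| := by
  have b1 := abs_le.1 (hb 1 (by norm_num) (by norm_num))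
  have b2 := abs_le.1 (hb (-1) (by norm_num) (by norm_num))
  have b3 := abs_le.1 (hb 0 (by norm_num) (by norm_num))
  rw [h] at b1 b2 b3
  have e1 : f u' - f u = (u' - u) * (k1 + 2 * k2 * ((u' + u) / 2)) := by rw [h, h]; ring
  rw [e1, abs_mul, mul_comm]
  refine mul_le_mul_of_nonneg_right ?_ (abs_nonneg _)
  rw [abs_le] at hu hu'
  set s := (u' + u) / 2 with hs
  have s1 : -1 ≤ s := by rw [hs]; linarith
  have s2 : s ≤ 1 := by rw [hs]; linarith
  rw [abs_le]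
  constructor
  · nlinarith [b1.1, b1.2, b2.1, b2.2, b3.1, b3.2]
  · nlinarith [b1.1, b1.2, b2.1, b2.2, b3.1, b3.2]

/-- two normalised curves move apart with velocity `≤ 8/9` -/
theorem gam_move (hq : IsQ q) (ha : 0 < a) (hw1 : 0 < w 1) (hw2 : 0 < w 2)
    (hz0 : z0 = zc - lam) (hρ : ρ = 2 * lam) (hlam : 0 ≤ lam) {y t : Ln4}
    (hy : InSheet y e c w q a z0 ρ) (ht : InSheet t e c w q a z0 ρ) {u u' : ℝ}
    (hu : |u| ≤ 1) (hu' : |u'| ≤ 1) (i : Fin 3) :
    |gam e c w q a zc lam t u' i - gam e c w q a zc lam y u' i| ≤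
      |gam e c w q a zc lam t u i - gam e c w q a zc lam y u i| + 8 / 9 * |u' - u| := by
  obtain ⟨k0, k1, k2, hk⟩ := hN_poly hq a zc lam t
  obtain ⟨m0, m1, m2, hm⟩ := hN_poly hq a zc lam y
  have b1 := markov hk (hN_bd ha ht hz0 hρ hlam) hu hu'
  have b2 := markov hm (hN_bd ha hy hz0 hρ hlam) hu hu'
  have hn : 0 ≤ |u' - u| := abs_nonneg _
  have lin : ∀ j : Fin 3, 0 < w j → ∀ s : Ln4, InSheet s e c w q a z0 ρ →
      |(dt (e j) (s.pos (zc + lam * u') - c.pos (zc + lam * u')) / w j) -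
        (dt (e j) (s.pos (zc + lam * u) - c.pos (zc + lam * u)) / w j)| ≤ 1 * |u' - u| := by
    intro j hj s hs
    rw [lin_poly, lin_poly]
    have v1 := lin_vel hs j hj hz0 hρ hlam
    have e1 : dt (e j) (s.pos zc - c.pos zc) / w j + lam * dt (e j) (s.v - c.v) / w j * u' -
        (dt (e j) (s.pos zc - c.pos zc) / w j + lam * dt (e j) (s.v - c.v) / w j * u) =
        lam * dt (e j) (s.v - c.v) / w j * (u' - u) := by ring
    rw [e1, abs_mul]
    exact mul_le_mul_of_nonneg_right v1 hn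
  have tri : ∀ A B A' B' K : ℝ, |A' - A| ≤ K * |u' - u| → |B' - B| ≤ K * |u' - u| → K ≤ 4 →
      |1 / 9 * A' - 1 / 9 * B'| ≤ |1 / 9 * A - 1 / 9 * B| + 8 / 9 * |u' - u| := by
    intro A B A' B' K h1 h2 hK
    have h3 : K * |u' - u| ≤ 4 * |u' - u| := mul_le_mul_of_nonneg_right hK hn
    have e1 : 1 / 9 * A' - 1 / 9 * B' = (1 / 9 * A - 1 / 9 * B) + 1 / 9 * (A' - A) -
        1 / 9 * (B' - B) := by ring
    rw [e1]
    refine (abs_sub _ _).trans ?_
    refine (add_le_add_left (abs_add_le _ _) _).trans ?_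
    rw [abs_mul, abs_mul (1 / 9 : ℝ) (B' - B), abs_of_pos (by norm_num : (0:ℝ) < 1 / 9)]
    linarith
  fin_cases i
  · exact tri _ _ _ _ 4 b1 b2 le_rfl
  · exact tri _ _ _ _ 1 (lin 1 hw1 t ht) (lin 1 hw1 y hy) (by norm_num)
  · exact tri _ _ _ _ 1 (lin 2 hw2 t ht) (lin 2 hw2 y hy) (by norm_num)

/-- the difference of two normalised curves is `nrm / 9` -/
theorem gam_nrm (y t : Ln4) (u : ℝ) (i : Fin 3) :
    gam e c w q a zc lam t u i - gam e c w q a zc lam y u i =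
      1 / 9 * nrm e w q a y t (zc + lam * u) i := by
  fin_cases i
  · change 1 / 9 * (q _ _ / a) - 1 / 9 * (q _ _ / a) = 1 / 9 * ((q _ _ - q _ _) / a)
    ring
  · change 1 / 9 * (dt (e 1) _ / w 1) - 1 / 9 * (dt (e 1) _ / w 1) = 1 / 9 * (dt (e 1) _ / w 1)
    simp only [dt_sub]; ring
  · change 1 / 9 * (dt (e 2) _ / w 2) - 1 / 9 * (dt (e 2) _ / w 2) = 1 / 9 * (dt (e 2) _ / w 2)
    simp only [dt_sub]; ring

end geo

open Classical in
/-- **END, finite form, one sheet** (any class: the plank hypothesis is the conclusion of `dmaxQ`). -/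
theorem end_gam (hKM : ∀ V : ℝ, Crest.Agent.R138.Tub70.KM32 V) {g : ℝ} (hg : 0 < g)
    {η₁ : ℝ} (hη₁ : 0 < η₁) (C₁ : ℝ) :
    ∃ η ε₀ : ℝ, ∃ M₀ : ℕ, 0 < η ∧ η ≤ η₁ ∧ η ≤ 1 / 4 ∧ 0 < ε₀ ∧
    ∀ (F : Finset (ℕ × ℝ)) (L : ℕ → Ln4) (e : Fin 3 → V3) (c : Ln4) (w : V3)
      (q : ℝ → V3 → ℝ) (a : ℝ) (i j M k : ℕ) (J0 : ℤ) (n₀ P : ℝ),
      F.Nonempty → M₀ ≤ M → η / 2 * M ≤ k → (k : ℝ) ≤ η * M → i + M + 1 ≤ j →
      (∀ x ∈ F, zc i x.2 = J0) →
      IsQ q → 0 < a → 0 < w 1 → 0 < w 2 →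
      (∀ x ∈ F, InSheet (L x.1) e c w q a (zl i J0) (rho i)) →
      -- own counts
      (∀ x ∈ F, (2 : ℝ) ^ ((M : ℝ) - ε₀ * M) ≤ ((own F i (i + M + 1) x).card : ℝ)) →
      (∀ x ∈ F, (2 : ℝ) ^ ((k : ℝ) - ε₀ * M) ≤
        ((own F (i + M + 1 - k) (i + M + 1) x).card : ℝ)) →
      -- rich: at one height of the cell of level `j`
      (∀ x ∈ F, ∃ z : ℝ, zc j z = zc j x.2 ∧ (2 : ℝ) ^ (n₀ - 3 * M + g * M - ε₀ * M) ≤
        (((alive F j (zc j x.2)).filter fun t =>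
          ∀ b, |nrm e w q a (L x.1) (L t) z b| ≤ 1 / 2 / 2 ^ M).card : ℝ)) →
      -- planks
      (∀ x ∈ F, ∀ y ∈ F, C₁ * ((2 ^ k : ℕ) : ℝ) ^ 2 ≤ 2 ^ M →
        zl i J0 ≤ zl (i + M + 1 - k) (zc (i + M + 1 - k) y.2) →
        zl (i + M + 1 - k) (zc (i + M + 1 - k) y.2) + rho (i + M + 1 - k) ≤ zl i J0 + rho i →
        (∀ z, zl (i + M + 1 - k) (zc (i + M + 1 - k) y.2) ≤ z →
          z ≤ zl (i + M + 1 - k) (zc (i + M + 1 - k) y.2) + rho (i + M + 1 - k) →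
          |z - (zm i J0 + rho i / 2 * ((ix M J0 (zc (i + M + 1) x.2) : ℝ) / 2 ^ M))| ≤
            2 * (rho i / 2) * ((2 ^ k : ℕ) : ℝ) / 2 ^ M) →
        ∀ n : Fin 3 → ℝ, ∑ i, n i ^ 2 = 1 → ∀ E : Fin 2 → Fin 3 → ℝ,
        (∀ a b, ∑ i, E a i * E b i = if a = b then 1 else 0) →
        (∀ a, ∑ i, E a i * n i = 0) → ∀ wd : Fin 2 → ℝ, (∀ a, 1 / (2 : ℝ) ^ k ≤ wd a ∧ wd a ≤ 1) →
        (((alive F (i + M + 1 - k) (zc (i + M + 1 - k) y.2)).filter fun t =>
          Plk (fun l => gam e c w q a (zm i J0) (rho i / 2) (L l))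
            (fun l => vel e c w q a (zm i J0) (rho i / 2) (L l)) (2 ^ M) (2 ^ k) n E wd
            (x.1, ix M J0 (zc (i + M + 1) x.2))
            (t, ix M J0 (zc (i + M + 1) x.2))).card : ℝ) ≤ P * (wd 0 * wd 1) * (2 ^ k) ^ 2) →
      P ≤ (2 : ℝ) ^ (n₀ - 3 * M + g * (M - k) + ε₀ * M) →
      ((F.image Prod.fst).card : ℝ) ≤ (2 : ℝ) ^ (n₀ + ε₀ * M) → False := by
  obtain ⟨η, ε₀, M₀, hη, hηη, hη1, hε, key⟩ := nc_fin (Slb480.slabOne hKM) hg
    (lt_min hη₁ (by norm_num : (0:ℝ) < 1 / 4))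
  obtain ⟨M₁, hM₁⟩ := pow_unbounded_of_one_lt C₁ (by norm_num : (1:ℝ) < 2)
  have hη4 : η ≤ 1 / 4 := hηη.trans (min_le_right _ _)
  refine ⟨η, ε₀, max M₀ (2 * M₁), hη, hηη.trans (min_le_left _ _), hη4, hε, ?_⟩
  intro F L e c w q a i j M k J0 n₀ P hF hM' hk1 hk2 hij hJ hq ha hw1 hw2 hin hown hwin hrich hplank
    hP hL
  have hM : M₀ ≤ M := (le_max_left _ _).trans hM'
  have hM2 : 2 * M₁ ≤ M := (le_max_right _ _).trans hM'
  have hk4 : 4 * k ≤ M := by
    have : (4 : ℝ) * k ≤ M := by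
      have h1 : η * M ≤ 1 / 4 * M := by gcongr
      linarith
    exact_mod_cast this
  have hkM : k ≤ M := by omega
  have hbig : C₁ * ((2 ^ k : ℕ) : ℝ) ^ 2 ≤ 2 ^ M := by
    push_cast
    calc C₁ * ((2 : ℝ) ^ k) ^ 2 ≤ 2 ^ M₁ * (2 ^ k) ^ 2 := by gcongr
      _ = 2 ^ (M₁ + 2 * k) := by rw [← pow_mul, ← pow_add]; congr 1; ring
      _ ≤ 2 ^ M := pow_le_pow_right₀ (by norm_num) (by omega)
  have hz0 : zl i J0 = zm i J0 - rho i / 2 := by unfold zm; ring
  have hρ : rho i = 2 * (rho i / 2) := by ring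
  have hlam : 0 ≤ rho i / 2 := by have := rho_pos i; positivity
  have hwd0 : ∀ wd : Fin 2 → ℝ, (∀ a, 1 / (2 : ℝ) ^ k ≤ wd a ∧ wd a ≤ 1) →
      0 ≤ wd 0 * wd 1 * (2 ^ k) ^ 2 := by
    intro wd h
    have e0 : (0:ℝ) ≤ 1 / 2 ^ k := by positivity
    have : 0 ≤ wd 0 := e0.trans (h 0).1
    have : 0 ≤ wd 1 := e0.trans (h 1).1
    positivity
  have hcell : ∀ x ∈ F, zl i J0 ≤ x.2 ∧ x.2 ≤ zl i J0 + rho i := by
    intro x hx
    have := zc_mem i x.2
    rw [hJ x hx] at this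
    exact ⟨this.1, this.2.le⟩
  refine key F (fun l => gam e c w q a (zm i J0) (rho i / 2) (L l))
    (fun l => vel e c w q a (zm i J0) (rho i / 2) (L l)) i M k J0 n₀ hF hM hk1 hk2 hJ ?_ hown hwin
    ?_ ?_ hL
  · intro x hx
    refine ⟨C11_gam L hq ha hw1 hw2 hz0 hρ hlam (hin x hx), fun z hz b => ?_⟩
    rw [abs_le] at hz
    exact gam_bd ha hw1 hw2 hz0 hρ hlam (hin x hx) hz.1 hz.2 b
  · intro x hx
    obtain ⟨z, hz, hr⟩ := hrich x hx
    refine hr.trans (Nat.cast_le.2 (card_le_card ?_))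
    intro t ht
    rw [mem_filter] at ht ⊢
    obtain ⟨ht1, ht2⟩ := ht
    unfold alive at ht1 ⊢
    rw [mem_image] at ht1 ⊢
    obtain ⟨y, hy, rfl⟩ := ht1
    rw [mem_filter] at hy
    have hnest : ∀ z z' : ℝ, zc j z = zc j z' → zc (i + M + 1) z = zc (i + M + 1) z' := by
      intro z z' h
      have e1 := zc_div (i + M + 1) (j - (i + M + 1)) z
      have e2 := zc_div (i + M + 1) (j - (i + M + 1)) z'
      rw [Nat.add_sub_cancel' hij] at e1 e2
      rw [← e1, ← e2, h]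
    have hyx := hnest _ _ hy.2
    have hzx := hnest _ _ hz
    refine ⟨⟨y, mem_filter.2 ⟨hy.1, hyx⟩, rfl⟩, fun b => ?_⟩
    have hzi : zc i z = J0 := by
      have e1 := zc_div i (M + 1) z
      have e2 := zc_div i (M + 1) x.2
      rw [← add_assoc] at e1 e2
      rw [← e1, hzx, e2, hJ x hx]
    have hzc := zc_mem i z
    rw [hzi] at hzc
    have hu1 : |un i J0 z| ≤ 1 := un_abs hzc.1 hzc.2.le
    have hu2 : |uh M J0 (zc (i + M + 1) x.2)| ≤ 1 := by
      unfold uh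
      rw [abs_div, abs_of_pos (by positivity : (0:ℝ) < 2 ^ M), div_le_one (by positivity)]
      exact ix_abs (hJ x hx)
    have h1 := gam_move hq ha hw1 hw2 hz0 hρ hlam (hin x hx) (hin y hy.1) hu1 hu2 b
    have h2 : |uh M J0 (zc (i + M + 1) x.2) - un i J0 z| ≤ 1 / 2 ^ M := by
      rw [abs_sub_comm, ← hzx]; exact un_near
    rw [gam_nrm (y := L x.1) (t := L y.1) (u := un i J0 z), un_spec] at h1
    refine h1.trans ?_
    rw [abs_mul, abs_of_pos (by norm_num : (0:ℝ) < 1 / 9)]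
    have h3 := ht2 b
    have h4 : (1 : ℝ) / 2 / 2 ^ M = 1 / 2 * (1 / 2 ^ M) := by ring
    rw [h4] at h3
    have h5 : (0:ℝ) ≤ 1 / 2 ^ M := by positivity
    linarith
  · intro x hx J1 hJ1 n hn E hE hEn wd hwd
    by_cases hne : ∃ y ∈ F, zc (i + M + 1 - k) y.2 = J1
    · obtain ⟨y, hy, rfl⟩ := hne
      have hsc := sub_cell (i := i) (j := i + M + 1 - k) (by omega) y.2
      rw [hJ y hy] at hsc
      refine le_trans (le_of_eq ?_) ((hplank x hx y hy hbig hsc.1 hsc.2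
        (fun z hz1 hz2 => near_window hkM hJ1 hz1 hz2) n hn E hE hEn wd hwd).trans ?_)
      · rfl
      · calc P * (wd 0 * wd 1) * (2 ^ k) ^ 2 = P * (wd 0 * wd 1 * (2 ^ k) ^ 2) := by ring
          _ ≤ (2 : ℝ) ^ (n₀ - 3 * M + g * (M - k) + ε₀ * M) * (wd 0 * wd 1 * (2 ^ k) ^ 2) :=
              mul_le_mul_of_nonneg_right hP (hwd0 wd hwd)
          _ = _ := by ring
    · have h0 : alive F (i + M + 1 - k) J1 = ∅ := by
        rw [eq_empty_iff_forall_notMem]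
        intro t ht
        unfold alive at ht
        rw [mem_image] at ht
        obtain ⟨y, hy, -⟩ := ht
        rw [mem_filter] at hy
        exact hne ⟨y, hy.1, hy.2⟩
      rw [h0, filter_empty, card_empty, Nat.cast_zero]
      have h1 := hwd0 wd hwd
      have h2 : (0:ℝ) < (2 : ℝ) ^ (n₀ - 3 * M + g * (M - k) + ε₀ * M) :=
        Real.rpow_pos_of_pos (by norm_num) _
      calc (0:ℝ) ≤ (2 : ℝ) ^ (n₀ - 3 * M + g * (M - k) + ε₀ * M) * (wd 0 * wd 1 * (2 ^ k) ^ 2) :=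
            mul_nonneg h2.le h1
        _ = _ := by ring

end Crest.Agent.R136.HR829
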