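import Crest.Agent.R136.Crf5_861
import Crest.Agent.R136.HR2_829
import Crest.Agent.R136.MkA_627
import Crest.Agent.R136.KDef4_879
import Crest.Agent.R138.ArgM1_163

/-!
# R136 (S0187), U5 crude tilt, flat half (helper861), part 6: sequence form

`crd_level` : for every marked sequence with flat marks inside a container `K n` (widths at most
`X n` times those of the marks): the crude information for ALL incidences;
`crude_pair` : six entries of the transition matrix of two levels.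
-/

set_option autoImplicit false
set_option linter.unusedVariables false
set_option linter.unusedSectionVars false

open Finset Filter Topology

namespace Crest.Agent.R136.Crf861

open Sh605 Crest.Agent.R136.UB861
open Crest.Agent.R138.Ex926 (Base U)
open Crest.Agent.R138.Dp76 (dpow_pos dpow_add dpow_le dpow_le_one)
open Crest.Agent.R138.Mk163 (zc zl rho alive)
open Crest.Agent.R138.MkRef627 (mem_alive)
open Crest.Agent.R138.ArgM163 (ev_const)
open Crest.Agent.R136.MkA627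
open Crest.Agent.R136.K4

/-- the geometry contains the flat boxes at the scales of the marks -/
structure GeoF (G : Geo Plk4 (Fin 3)) (L : ℕ → ℕ → Ln4) (r0 : ℕ → ℝ) (q : Fin 3 → ℝ) (B : Base)
    (lev : ℕ → ℚ → ℕ) (w : Fin 3 → ℕ → ℚ → ℝ) : Prop where
  mem : ∀ n i J s t, G.mem n i J s t ↔ InSheet (L n t) s.e s.c s.w s.q s.a (zl i J) (rho i)
  adm : ∀ n i J s, G.adm n i J s →
    ShN s.e s.c s.w s.q s.a (zl i J) (rho i) (r0 n) ∧ s.w 1 ≤ rho i
  val : ∀ n i J s, G.val n i J s = s.a * s.w 2 * s.w 1 *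
    ((s.a / rho i) ^ q 0 * (s.w 1 / rho i) ^ q 1 * (s.w 2 / rho i) ^ q 2)
  wid : ∀ k s, G.wid k s = ![s.a, s.w 1, s.w 2] k
  flat : ∀ v : ℚ, 0 ≤ v → v ≤ 1 → ∀ ε : ℝ, 0 < ε → ∀ᶠ n in (U : Filter ℕ),
    ∀ (J : ℤ) (e : Fin 3 → V3) (c' : Ln4) (s1 s2 : ℝ), Ortho e → w 0 n v ≤ s2 → s2 ≤ s1 →
      s1 ≤ w 1 n v → s2 ≤ w 2 n v → B.d n ^ ε * w 1 n v ≤ s1 → B.d n ^ ε * w 2 n v ≤ s2 →
      G.adm n (lev n v) J
        ⟨J, e, c', ![w 0 n v, s1, s2], fun z x => dt (e 0) (x - c'.pos z), w 0 n v⟩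

section

variable {B : Base} {I : ℕ → Finset (ℕ × ℝ)} {G : Geo Plk4 (Fin 3)} {L : ℕ → ℕ → Ln4}
  {r0 : ℕ → ℝ} {q : Fin 3 → ℝ} {lev : ℕ → ℚ → ℕ} {A : ℕ → ℝ} {c Λ : ℝ → ℝ}
  {τ : Fin 3 → ℝ → ℝ} {f : ℕ → ℚ → ℕ → ℤ → ℕ} {b : ℕ → ℚ → ℕ → Plk4} {vm : ℕ → ℚ → ℝ}
  {w : Fin 3 → ℕ → ℚ → ℝ}

theorem ev_lt1 (B : Base) (C : ℝ) {p : ℝ} (hp : 0 < p) :
    ∀ᶠ n in (U : Filter ℕ), C * B.d n ^ p < 1 := by
  have h := ev_const B (C := |C| + 2) (by positivity) hp
  filter_upwards [h] with n hn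
  have h1 := dpow_pos B n p
  have h2 : B.d n ^ (-p) * B.d n ^ p = 1 := by rw [← dpow_add]; simp
  have h3 : C < |C| + 2 := by linarith [le_abs_self C]
  calc C * B.d n ^ p < (|C| + 2) * B.d n ^ p := mul_lt_mul_of_pos_right h3 h1
    _ ≤ B.d n ^ (-p) * B.d n ^ p := mul_le_mul_of_nonneg_right hn h1.le
    _ = 1 := h2

open Classical in
/-- **one level** -/
theorem crd_level (h : MkA B I G lev A c Λ τ f b vm w) (hG : GeoF G L r0 q B lev w)
    (hq1 : 0 ≤ q 1) (hκ : 0 < q 1 + q 2) (r0pos : ∀ n, 0 < r0 n) {v : ℚ} (hv0 : 0 ≤ v)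
    (hv1 : v ≤ 1)
    (hF : ∀ (n : ℕ) (i : ℕ) (z : ℝ) (x : V3), (b n v i).q z x =
      dt ((b n v i).e 0) (x - (b n v i).c.pos z))
    {K : ℕ → Plk4} {X : ℕ → ℝ} (hX : ∀ n, 1 ≤ X n)
    (hcont : ∀ᶠ n in (U : Filter ℕ), ∀ x ∈ I n,
      ShN (K n).e (K n).c (K n).w (K n).q (K n).a (zl (lev n 0) (zc (lev n 0) x.2))
        (rho (lev n 0)) (r0 n) ∧
      InSheet (L n x.1) (K n).e (K n).c (K n).w (K n).q (K n).a (zl (lev n 0) (zc (lev n 0) x.2))
        (rho (lev n 0)) ∧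
      (K n).a ≤ X n * w 0 n v ∧ (K n).w 2 ≤ X n * w 2 n v)
    {ε : ℝ} (hε : 0 < ε) :
    ∀ᶠ n in (U : Filter ℕ), ∀ x ∈ I n,
      (w 0 n v ≤ X n * (K n).w 0 → ∀ (k0 k1 k2 : ℝ) (bb d : V3) (g : Fin 3 → Fin 3 → ℝ),
        QR (K n).q k0 k1 k2 bb d g →
        Crd (b n v (f n v x.1 (zc (lev n v) x.2))).e (K n).e
          (nG bb d g x.2 ((L n x.1).pos x.2)) (w 0 n v) (w 1 n v) (w 2 n v)
          (X n * B.d n ^ (-ε)) ∧
        1 / 4 ≤ dt (nG bb d g x.2 ((L n x.1).pos x.2)) (nG bb d g x.2 ((L n x.1).pos x.2))) ∧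
      ((K n).w 0 ≤ X n * w 0 n v →
        Crd (b n v (f n v x.1 (zc (lev n v) x.2))).e (K n).e ((K n).e 0)
          (w 0 n v) (w 1 n v) (w 2 n v) (X n * B.d n ^ (-ε))) := by
  set κ := q 1 + q 2 with hκd
  set κ0 := min κ 1 with hκ0
  have hκ0p : 0 < κ0 := lt_min hκ one_pos
  have hκ01 : κ0 ≤ 1 := min_le_right _ _
  have hκ0κ : κ0 ≤ κ := min_le_left _ _
  set εh := ε / 3 with hεh
  have hεhp : 0 < εh := by positivity
  set εδ := κ0 * εh / 4 with hεδ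
  have hεδp : 0 < εδ := by positivity
  set ε1 := κ0 ^ 2 * εh / 32 with hε1
  have hε1p : 0 < ε1 := by positivity
  -- exponents
  have x1 : 0 < κ * εh - 2 * εδ - 2 * ε1 := by
    have : κ0 * εh ≤ κ * εh := mul_le_mul_of_nonneg_right hκ0κ hεhp.le
    have h2 : κ0 ^ 2 * εh ≤ κ0 * εh := by
      apply mul_le_mul_of_nonneg_right _ hεhp.le
      nlinarith
    rw [hεδ, hε1]
    have : 0 < κ0 * εh := by positivity
    linarith
  have x2 : 0 < κ * εδ - 2 * ε1 := by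
    have h1 : κ0 * εδ ≤ κ * εδ := mul_le_mul_of_nonneg_right hκ0κ hεδp.le
    have h2 : κ0 * εδ = κ0 ^ 2 * εh / 4 := by rw [hεδ]; ring
    have : 0 < κ0 ^ 2 * εh := by positivity
    rw [hε1]; linarith
  have x3 : 0 < εh - 2 * ε1 := by
    have h2 : κ0 ^ 2 * εh ≤ 1 * εh := by
      apply mul_le_mul_of_nonneg_right _ hεhp.le
      nlinarith
    rw [hε1]; linarith
  have x4 : εδ ≤ εh := by rw [hεδ]; nlinarith
  filter_upwards [hcont, h.dmax v hv0 hv1 ε1 hε1p, h.near v hv0 hv1 ε1 hε1p, h.mark v hv0 hv1,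
    h.wpos 0 v hv0 hv1, h.vpos v hv0 hv1, hG.flat v hv0 hv1 εh hεhp,
    h.lev_mono 0 v le_rfl hv0 hv1, h.cell0,
    ev_lt1 B (48672000 * 8 ^ κ) x1, ev_lt1 B (302580000000 * 8 ^ κ) x2, ev_lt1 B 1 x3,
    ev_lt1 B 64 hεδp, ev_lt1 B 232 hεhp]
    with n hcn hdm hnr hmk hw0 hvp hfl hlm hc0 hN1 hN2 hN3 hδ64 h232
  intro x hx
  set J := zc (lev n v) x.2 with hJ
  set m := f n v x.1 J with hm
  have hal : x.1 ∈ alive (I n) (lev n v) J := mem_alive.2 ⟨x, hx, rfl, rfl⟩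
  obtain ⟨hm1, hm2, hm3, hm4⟩ := hmk J x.1 hal
  rw [← hm] at hm1 hm2 hm3 hm4
  obtain ⟨hS1, hS2⟩ := hG.adm _ _ _ _ hm2
  have wa : (b n v m).a = w 0 n v := by have := hm4 0; rw [hG.wid] at this; exact this
  have ww1 : (b n v m).w 1 = w 1 n v := by have := hm4 1; rw [hG.wid] at this; exact this
  have ww2 : (b n v m).w 2 = w 2 n v := by have := hm4 2; rw [hG.wid] at this; exact this
  have ha2 : w 0 n v ≤ w 2 n v := by rw [← wa, ← ww2]; exact hS1.a_le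
  have h21 : w 2 n v ≤ w 1 n v := by rw [← ww1, ← ww2]; exact hS1.w_le
  have hw2 : 0 < w 2 n v := hw0.trans_le ha2
  have hw1 : 0 < w 1 n v := hw2.trans_le h21
  have hρ : 0 < rho (lev n v) := by unfold rho; positivity
  set s := (alive (I n) (lev n v) J).filter fun t => f n v t J = m with hs
  have hxs : x.1 ∈ s := mem_filter.2 ⟨hal, rfl⟩
  have hbx : ∀ t ∈ s, InBx (L n t) (b n v m).e (b n v m).c (w 0 n v) (w 1 n v) (w 2 n v)
      (zl (lev n v) J) (rho (lev n v)) := by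
    intro t ht z hz hz'
    obtain ⟨ht1, ht2⟩ := mem_filter.1 ht
    have hmt := (hmk J t ht1).1
    rw [ht2, hG.mem] at hmt
    obtain ⟨k1, k2⟩ := hmt z hz hz'
    rw [hF, wa] at k2
    have k3 := k1 1
    have k4 := k1 2
    rw [ww1] at k3
    rw [ww2] at k4
    exact ⟨k2, k3, k4⟩
  obtain ⟨hSK, -, hKa, hK2⟩ := hcn x hx
  set zK := zl (lev n 0) (zc (lev n 0) x.2) with hzK
  have hcell := HR829.sub_cell hlm x.2
  have hKt : ∀ t ∈ s, InSheet (L n t) (K n).e (K n).c (K n).w (K n).q (K n).a zK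
      (rho (lev n 0)) := by
    intro t ht
    obtain ⟨ht1, ht2⟩ := mem_filter.1 ht
    obtain ⟨y, hy, hy1, hy2⟩ := mem_alive.1 ht1
    have := (hcn y hy).2.1
    rw [hy1, hc0 y hy x hx] at this
    exact this
  have hzm := HR829.zc_mem (lev n v) x.2
  set V := B.d n ^ (-ε1) * ampA B A c n v * vm n v with hV
  have hamp : 0 < ampA B A c n v := by unfold ampA; exact mul_pos (h.Apos n) (dpow_pos B n _)
  have hV0 : 0 ≤ V := by
    have := dpow_pos B n (-ε1)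
    positivity
  set X1 := B.d n ^ (-(2 * ε1)) with hX1
  have hX1p : 0 < X1 := dpow_pos B n _
  have hVs : V ≤ X1 * s.card := by
    have h1 := hnr J x.1 hal
    have h2 := dpow_pos B n (-ε1)
    calc V = B.d n ^ (-ε1) * (ampA B A c n v * vm n v) := by rw [hV]; ring
      _ ≤ B.d n ^ (-ε1) * (B.d n ^ (-ε1) * s.card) := mul_le_mul_of_nonneg_left h1 h2.le
      _ = X1 * s.card := by
        rw [hX1, show -(2 * ε1) = -ε1 + -ε1 by ring, dpow_add]; ring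
  have hval : vm n v = w 0 n v * w 2 n v * w 1 n v * ((w 0 n v / rho (lev n v)) ^ q 0 *
      (w 1 n v / rho (lev n v)) ^ q 1 * (w 2 n v / rho (lev n v)) ^ q 2) := by
    rw [← hm3, hG.val, wa, ww1, ww2]
  have hDB : DBx s (fun t => L n t) (b n v m).e (w 0 n v) (w 1 n v) (w 2 n v) (zl (lev n v) J)
      (rho (lev n v)) V (q 1) (q 2) (B.d n ^ εh) := by
    intro c' s1 s2 h1 h2 h3 h4 h5 h6
    have had := hfl J (b n v m).e c' s1 s2 hS1.ortho h1 h2 h3 h4 h5 h6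
    have hd := hdm J _ had
    rw [hG.val] at hd
    have hs2 : 0 < s2 := hw0.trans_le h1
    have hs1 : 0 < s1 := hs2.trans_le h2
    have hsub : (s.filter fun t => InBx (L n t) (b n v m).e c' (w 0 n v) s1 s2 (zl (lev n v) J)
        (rho (lev n v))) ⊆ (alive (I n) (lev n v) J).filter fun t => G.mem n (lev n v) J
        ⟨J, (b n v m).e, c', ![w 0 n v, s1, s2],
          fun z x => dt ((b n v m).e 0) (x - c'.pos z), w 0 n v⟩ t := by
      intro t ht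
      obtain ⟨ht1, ht2⟩ := mem_filter.1 ht
      refine mem_filter.2 ⟨(mem_filter.1 ht1).1, (hG.mem _ _ _ _ _).2 fun z hz hz' => ?_⟩
      obtain ⟨k0, k1, k2⟩ := ht2 z hz hz'
      refine ⟨fun i => ?_, k0⟩
      fin_cases i
      · exact k0
      · exact k1
      · exact k2
    refine le_trans (by exact_mod_cast card_le_card hsub) (hd.trans (le_of_eq ?_))
    simp only [Matrix.cons_val_one, Matrix.cons_val]
    rw [hV, hval]
    have e1 : (s1 / rho (lev n v)) ^ q 1 = (s1 / w 1 n v) ^ q 1 *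
        (w 1 n v / rho (lev n v)) ^ q 1 := by
      rw [← Real.mul_rpow (by positivity) (by positivity)]
      congr 1; field_simp
    have e2 : (s2 / rho (lev n v)) ^ q 2 = (s2 / w 2 n v) ^ q 2 *
        (w 2 n v / rho (lev n v)) ^ q 2 := by
      rw [← Real.mul_rpow (by positivity) (by positivity)]
      congr 1; field_simp
    rw [e1, e2]
    field_simp
  -- numbers
  set hh := B.d n ^ εh with hhd
  set δ := B.d n ^ εδ with hδd
  have hhp : 0 < hh := dpow_pos B n _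
  have hδp : 0 < δ := dpow_pos B n _
  have hhδ : hh ≤ δ := dpow_le B n x4
  have hh1 : hh ≤ 1 := dpow_le_one B n hεhp.le
  have hδ1 : δ ≤ 1 / 64 := by linarith
  have p8 : ∀ y : ℝ, 0 < y → (8 * y) ^ κ = 8 ^ κ * y ^ κ := fun y hy =>
    Real.mul_rpow (by norm_num) hy.le
  have N1 : X1 * (48672000 * (8 * hh) ^ (q 1 + q 2) / δ ^ 2) < 1 := by
    rw [← hκd, p8 hh hhp]
    have e1 : hh ^ κ = B.d n ^ (κ * εh) := by
      rw [hhd, ← Real.rpow_mul (B.pos n).le, mul_comm]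
    have e2 : δ ^ 2 = B.d n ^ (2 * εδ) := by
      rw [hδd, ← Real.rpow_natCast, ← Real.rpow_mul (B.pos n).le]; congr 1; push_cast; ring
    have e3 : B.d n ^ (κ * εh - 2 * εδ - 2 * ε1) =
        B.d n ^ (κ * εh) / B.d n ^ (2 * εδ) * X1 := by
      rw [hX1, show κ * εh - 2 * εδ - 2 * ε1 = κ * εh - 2 * εδ + -(2 * ε1) by ring, dpow_add,
        Real.rpow_sub (B.pos n)]
    rw [e3] at hN1
    rw [e1, e2]
    calc X1 * (48672000 * (8 ^ κ * B.d n ^ (κ * εh)) / B.d n ^ (2 * εδ)) =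
        48672000 * 8 ^ κ * (B.d n ^ (κ * εh) / B.d n ^ (2 * εδ) * X1) := by ring
      _ < 1 := hN1
  have N2 : X1 * (302580000000 * (8 * δ) ^ (q 1 + q 2)) < 1 := by
    rw [← hκd, p8 δ hδp]
    have e1 : δ ^ κ = B.d n ^ (κ * εδ) := by
      rw [hδd, ← Real.rpow_mul (B.pos n).le, mul_comm]
    have e3 : B.d n ^ (κ * εδ - 2 * ε1) = B.d n ^ (κ * εδ) * X1 := by
      rw [hX1, show κ * εδ - 2 * ε1 = κ * εδ + -(2 * ε1) by ring, dpow_add]
    rw [e3] at hN2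
    rw [e1]
    calc X1 * (302580000000 * (8 ^ κ * B.d n ^ (κ * εδ))) =
        302580000000 * 8 ^ κ * (B.d n ^ (κ * εδ) * X1) := by ring
      _ < 1 := hN2
  have N3 : X1 * hh < 1 := by
    have e3 : B.d n ^ (εh - 2 * ε1) = hh * X1 := by
      rw [hX1, hhd, show εh - 2 * ε1 = εh + -(2 * ε1) by ring, dpow_add]
    rw [e3] at hN3
    linarith
  have hY : 232 * X n / (hh * hh) ≤ X n * B.d n ^ (-ε) := by
    have hXn : 0 < X n := one_pos.trans_le (hX n)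
    have e1 : B.d n ^ (-ε) * (hh * hh * hh) = 1 := by
      rw [hhd, ← dpow_add, ← dpow_add, ← dpow_add, hεh]
      rw [show -ε + (ε / 3 + ε / 3 + ε / 3) = 0 by ring, Real.rpow_zero]
    have e2 : 0 < B.d n ^ (-ε) := dpow_pos B n _
    rw [div_le_iff₀ (by positivity)]
    have e3 : B.d n ^ (-ε) * (hh * hh) * (232 * hh) ≤ B.d n ^ (-ε) * (hh * hh) * 1 :=
      mul_le_mul_of_nonneg_left h232.le (by positivity)
    have e4 : 232 ≤ B.d n ^ (-ε) * (hh * hh) := by nlinarith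
    calc 232 * X n ≤ B.d n ^ (-ε) * (hh * hh) * X n := mul_le_mul_of_nonneg_right e4 hXn.le
      _ = X n * B.d n ^ (-ε) * (hh * hh) := by ring
  have hη1 : B.d n ^ εh ≤ 8 * hh := by linarith
  refine ⟨fun haW k0 k1 k2 bb d g hq => ?_, fun haW => ?_⟩
  · obtain ⟨r1, r2⟩ := class_crdQ s (fun t => L n t) hρ hS1.ortho hw0 ha2 h21 hbx hSK (r0pos n)
      hcell.1 hcell.2 hq hKt (hX n) hK2 hKa haW hX1p hV0 hVs hq1 hhp hhδ hδ1 hhp hh1 hη1 le_rfl hDB
      N1 N2 N3 x.1 hxs x.2 hzm.1 hzm.2.le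
    exact ⟨r1.mono hw0.le hw2.le hY, r2⟩
  · exact (class_crdL s (fun t => L n t) hρ hS1.ortho hw0 ha2 h21 hbx hSK (r0pos n)
      hcell.1 hcell.2 hKt (hX n) hK2 haW hX1p hV0 hVs hq1 hhp hhδ hδ1 hhp hh1 hη1 le_rfl hDB
      N1 N2 N3 x.1 hxs).mono hw0.le hw2.le hY

end

end Crest.Agent.R136.Crf861
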