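import Crest.Agent.R136.Crf6_861

/-!
# R136 (S0187), U5 crude tilt, flat half (helper861), part 7: two levels

`crude_pair` : six entries of the transition matrix of the frames of two levels, for ALL incidences;
`crude_flat` : the same with a constant exponent, from a container comparable with the marks.
-/

set_option autoImplicit false
set_option linter.unusedVariables false
set_option linter.unusedSectionVars false

open Finset Filter Topology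

namespace Crest.Agent.R136.Crf861

open Sh605 Crest.Agent.R136.UB861
open Crest.Agent.R138.Ex926 (Base U)
open Crest.Agent.R138.Dp76 (dpow_pos dpow_add dpow_le dpow_le_one)
open Crest.Agent.R138.Mk163 (zc zl rho alive)
open Crest.Agent.R138.MkRef627 (mem_alive)
open Crest.Agent.R138.ArgM163 (ev_const)
open Crest.Agent.R136.MkA627
open Crest.Agent.R136.K4

theorem Crd.trans {e f : Fin 3 → V3} {n : V3} {a w1 w2 a' w1' w2' X Y : ℝ}
    (h : Crd e f n a w1 w2 Y) (hX : 0 ≤ X) (hY : 0 ≤ Y) (h1 : w1' ≤ X * w1) (ha : a ≤ X * a')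
    (h2 : w2' ≤ X * w2) (h2' : w2 ≤ X * w2') : Crd e f n a' w1' w2' (X ^ 2 * Y) := by
  have hXY : 0 ≤ X * Y := mul_nonneg hX hY
  refine ⟨?_, ?_, ?_, ?_⟩
  · calc w1' * |dt n (e 1)| ≤ X * w1 * |dt n (e 1)| :=
          mul_le_mul_of_nonneg_right h1 (abs_nonneg _)
      _ = X * (w1 * |dt n (e 1)|) := by ring
      _ ≤ X * (Y * a) := mul_le_mul_of_nonneg_left h.n1 hX
      _ = X * Y * a := by ring
      _ ≤ X * Y * (X * a') := mul_le_mul_of_nonneg_left ha hXY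
      _ = X ^ 2 * Y * a' := by ring
  · calc w2' * |dt n (e 2)| ≤ X * w2 * |dt n (e 2)| :=
          mul_le_mul_of_nonneg_right h2 (abs_nonneg _)
      _ = X * (w2 * |dt n (e 2)|) := by ring
      _ ≤ X * (Y * a) := mul_le_mul_of_nonneg_left h.n2 hX
      _ = X * Y * a := by ring
      _ ≤ X * Y * (X * a') := mul_le_mul_of_nonneg_left ha hXY
      _ = X ^ 2 * Y * a' := by ring
  · calc w1' * |dt (e 1) (f 2)| ≤ X * w1 * |dt (e 1) (f 2)| :=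
          mul_le_mul_of_nonneg_right h1 (abs_nonneg _)
      _ = X * (w1 * |dt (e 1) (f 2)|) := by ring
      _ ≤ X * (Y * w2) := mul_le_mul_of_nonneg_left h.a2 hX
      _ = X * Y * w2 := by ring
      _ ≤ X * Y * (X * w2') := mul_le_mul_of_nonneg_left h2' hXY
      _ = X ^ 2 * Y * w2' := by ring
  · calc w1' * |dt (e 1) (f 0)| ≤ X * w1 * |dt (e 1) (f 0)| :=
          mul_le_mul_of_nonneg_right h1 (abs_nonneg _)
      _ = X * (w1 * |dt (e 1) (f 0)|) := by ring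
      _ ≤ X * (Y * w2) := mul_le_mul_of_nonneg_left h.a0 hX
      _ = X * Y * w2 := by ring
      _ ≤ X * Y * (X * w2') := mul_le_mul_of_nonneg_left h2' hXY
      _ = X ^ 2 * Y * w2' := by ring

/-- six entries of the transition matrix at most `Y` times the natural sizes -/
def Six (e e' : Fin 3 → V3) (a w1 w2 Y : ℝ) : Prop :=
  (|dt (e 1) (e' 2)| ≤ w2 / w1 * Y ∧ |dt (e 2) (e' 1)| ≤ w2 / w1 * Y) ∧
    (|dt (e 0) (e' 2)| ≤ a / w2 * Y ∧ |dt (e 2) (e' 0)| ≤ a / w2 * Y) ∧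
    (|dt (e 0) (e' 1)| ≤ a / w1 * Y ∧ |dt (e 1) (e' 0)| ≤ a / w1 * Y)

theorem six_of {e e' f : Fin 3 → V3} {n : V3} (he : Ortho e) (he' : Ortho e') (hf : Ortho f)
    {a w1 w2 Y Z : ℝ} (ha : 0 < a) (ha2 : a ≤ w2) (h21 : w2 ≤ w1) (hY : 1 ≤ Y)
    (hn : 1 / 4 ≤ dt n n) (h : Crd e f n a w1 w2 Y) (h' : Crd e' f n a w1 w2 Y)
    (hZ : 24 * Y ^ 2 ≤ Z) : Six e e' a w1 w2 Z := by
  obtain ⟨p1, p2, p3⟩ := pair3 he he' hf ha ha2 h21 hY hn h h'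
  obtain ⟨r1, r2, r3⟩ := pair3 he' he hf ha ha2 h21 hY hn h' h
  have hw2 : 0 < w2 := ha.trans_le ha2
  have hw1 : 0 < w1 := hw2.trans_le h21
  have q : ∀ y : ℝ, 0 ≤ y → 24 * Y ^ 2 * y ≤ y * Z := fun y hy => by
    rw [mul_comm y Z]; exact mul_le_mul_of_nonneg_right hZ hy
  have q1 := q (w2 / w1) (by positivity)
  have q2 := q (a / w2) (by positivity)
  have q3 := q (a / w1) (by positivity)
  refine ⟨⟨p1.trans q1, ?_⟩, ⟨p2.trans q2, ?_⟩, p3.trans q3, ?_⟩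
  · rw [dt_comm]; exact r1.trans q1
  · rw [dt_comm]; exact r2.trans q2
  · rw [dt_comm]; exact r3.trans q3

section

variable {B : Base} {I : ℕ → Finset (ℕ × ℝ)} {G : Geo Plk4 (Fin 3)} {L : ℕ → ℕ → Ln4}
  {r0 : ℕ → ℝ} {q : Fin 3 → ℝ} {lev : ℕ → ℚ → ℕ} {A : ℕ → ℝ} {c Λ : ℝ → ℝ}
  {τ : Fin 3 → ℝ → ℝ} {f : ℕ → ℚ → ℕ → ℤ → ℕ} {b : ℕ → ℚ → ℕ → Plk4} {vm : ℕ → ℚ → ℝ}
  {w : Fin 3 → ℕ → ℚ → ℝ}

/-- **container**: one sheet over the cell of level `0` which contains all lines -/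
def Cont (B : Base) (I : ℕ → Finset (ℕ × ℝ)) (L : ℕ → ℕ → Ln4) (lev : ℕ → ℚ → ℕ) (r0 : ℕ → ℝ)
    (K : ℕ → Plk4) : Prop :=
  ∀ᶠ n in (U : Filter ℕ), ∀ x ∈ I n,
    ShN (K n).e (K n).c (K n).w (K n).q (K n).a (zl (lev n 0) (zc (lev n 0) x.2))
      (rho (lev n 0)) (r0 n) ∧
    InSheet (L n x.1) (K n).e (K n).c (K n).w (K n).q (K n).a (zl (lev n 0) (zc (lev n 0) x.2))
      (rho (lev n 0))

/-- **two levels** -/
theorem crude_pair (h : MkA B I G lev A c Λ τ f b vm w) (hG : GeoF G L r0 q B lev w)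
    (hq1 : 0 ≤ q 1) (hκ : 0 < q 1 + q 2) (r0pos : ∀ n, 0 < r0 n) {u v : ℚ} (hu0 : 0 ≤ u)
    (hu1 : u ≤ 1) (hv0 : 0 ≤ v) (hv1 : v ≤ 1)
    (hF : ∀ (n : ℕ) (v : ℚ) (i : ℕ) (z : ℝ) (x : V3), (b n v i).q z x =
      dt ((b n v i).e 0) (x - (b n v i).c.pos z))
    {K : ℕ → Plk4} {X : ℕ → ℝ} (hX : ∀ n, 1 ≤ X n) (hcont : Cont B I L lev r0 K)
    (hKX : ∀ᶠ n in (U : Filter ℕ), (K n).a ≤ X n * w 0 n u ∧ (K n).w 2 ≤ X n * w 2 n u ∧
      (K n).a ≤ X n * w 0 n v ∧ (K n).w 2 ≤ X n * w 2 n v)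
    (hwX : ∀ᶠ n in (U : Filter ℕ), ∀ k, w k n u ≤ X n * w k n v ∧ w k n v ≤ X n * w k n u)
    {ε : ℝ} (hε : 0 < ε) :
    ∀ᶠ n in (U : Filter ℕ), ∀ x ∈ I n,
      Six (b n u (f n u x.1 (zc (lev n u) x.2))).e (b n v (f n v x.1 (zc (lev n v) x.2))).e
        (w 0 n v) (w 1 n v) (w 2 n v) (X n ^ 6 * B.d n ^ (-ε)) := by
  have hε4 : 0 < ε / 4 := by positivity
  have hcu : ∀ᶠ n in (U : Filter ℕ), ∀ x ∈ I n,
      ShN (K n).e (K n).c (K n).w (K n).q (K n).a (zl (lev n 0) (zc (lev n 0) x.2))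
        (rho (lev n 0)) (r0 n) ∧
      InSheet (L n x.1) (K n).e (K n).c (K n).w (K n).q (K n).a (zl (lev n 0) (zc (lev n 0) x.2))
        (rho (lev n 0)) ∧
      (K n).a ≤ X n * w 0 n u ∧ (K n).w 2 ≤ X n * w 2 n u := by
    filter_upwards [hcont, hKX] with n h1 h2 x hx
    exact ⟨(h1 x hx).1, (h1 x hx).2, h2.1, h2.2.1⟩
  have hcv : ∀ᶠ n in (U : Filter ℕ), ∀ x ∈ I n,
      ShN (K n).e (K n).c (K n).w (K n).q (K n).a (zl (lev n 0) (zc (lev n 0) x.2))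
        (rho (lev n 0)) (r0 n) ∧
      InSheet (L n x.1) (K n).e (K n).c (K n).w (K n).q (K n).a (zl (lev n 0) (zc (lev n 0) x.2))
        (rho (lev n 0)) ∧
      (K n).a ≤ X n * w 0 n v ∧ (K n).w 2 ≤ X n * w 2 n v := by
    filter_upwards [hcont, hKX] with n h1 h2 x hx
    exact ⟨(h1 x hx).1, (h1 x hx).2, h2.2.2.1, h2.2.2.2⟩
  filter_upwards [crd_level h hG hq1 hκ r0pos hu0 hu1 (fun n => hF n u) hX hcu hε4,
    crd_level h hG hq1 hκ r0pos hv0 hv1 (fun n => hF n v) hX hcv hε4,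
    hwX, hcont, h.mark u hu0 hu1, h.mark v hv0 hv1, h.wpos 0 u hu0 hu1, h.wpos 0 v hv0 hv1,
    ev_const B (C := 24) (by norm_num) (half_pos hε)]
    with n hnu hnv hw hcn hmu hmv hwu0 hwv0 h24 x hx
  obtain ⟨mu1, mu2, mu3, mu4⟩ := hmu (zc (lev n u) x.2) x.1 (mem_alive.2 ⟨x, hx, rfl, rfl⟩)
  obtain ⟨mv1, mv2, mv3, mv4⟩ := hmv (zc (lev n v) x.2) x.1 (mem_alive.2 ⟨x, hx, rfl, rfl⟩)
  obtain ⟨Su, -⟩ := hG.adm _ _ _ _ mu2
  obtain ⟨Sv, -⟩ := hG.adm _ _ _ _ mv2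
  have wa : (b n v (f n v x.1 (zc (lev n v) x.2))).a = w 0 n v := by
    have := mv4 0; rw [hG.wid] at this; exact this
  have ww1 : (b n v (f n v x.1 (zc (lev n v) x.2))).w 1 = w 1 n v := by
    have := mv4 1; rw [hG.wid] at this; exact this
  have ww2 : (b n v (f n v x.1 (zc (lev n v) x.2))).w 2 = w 2 n v := by
    have := mv4 2; rw [hG.wid] at this; exact this
  have ha2 : w 0 n v ≤ w 2 n v := by rw [← wa, ← ww2]; exact Sv.a_le
  have h21 : w 2 n v ≤ w 1 n v := by rw [← ww1, ← ww2]; exact Sv.w_le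
  obtain ⟨SK, -⟩ := hcn x hx
  have hXn := hX n
  have hX0 : 0 ≤ X n := by linarith
  set Y := X n * B.d n ^ (-(ε / 4)) with hY
  have hd4 : 1 ≤ B.d n ^ (-(ε / 4)) := by
    have := dpow_le B n (show -(ε / 4) ≤ 0 by linarith)
    rwa [Real.rpow_zero] at this
  have hY1 : 1 ≤ Y := by rw [hY]; nlinarith
  have hX2 : 1 ≤ X n ^ 2 := one_le_pow₀ hXn
  have hY2 : Y ≤ X n ^ 2 * Y := by nlinarith
  have hY3 : 1 ≤ X n ^ 2 * Y := hY1.trans hY2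
  have hZ : 24 * (X n ^ 2 * Y) ^ 2 ≤ X n ^ 6 * B.d n ^ (-ε) := by
    have e2 : B.d n ^ (-ε) = B.d n ^ (-(ε / 2)) * B.d n ^ (-(ε / 2)) := by
      rw [← dpow_add]; congr 1; ring
    have e3 : (X n ^ 2 * Y) ^ 2 = X n ^ 6 * (B.d n ^ (-(ε / 4))) ^ 2 := by rw [hY]; ring
    rw [e3, ← Real.rpow_natCast (B.d n ^ (-(ε / 4))) 2, ← Real.rpow_mul (B.pos n).le,
      show -(ε / 4) * ((2 : ℕ) : ℝ) = -(ε / 2) by push_cast; ring, e2]
    have h6 : 0 ≤ X n ^ 6 := by positivity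
    have h7 := dpow_pos B n (-(ε / 2))
    calc 24 * (X n ^ 6 * B.d n ^ (-(ε / 2))) = X n ^ 6 * (24 * B.d n ^ (-(ε / 2))) := by ring
      _ ≤ X n ^ 6 * (B.d n ^ (-(ε / 2)) * B.d n ^ (-(ε / 2))) := by gcongr
  have fin : ∀ nn : V3, 1 / 4 ≤ dt nn nn →
      Crd (b n u (f n u x.1 (zc (lev n u) x.2))).e (K n).e nn (w 0 n u) (w 1 n u) (w 2 n u) Y →
      Crd (b n v (f n v x.1 (zc (lev n v) x.2))).e (K n).e nn (w 0 n v) (w 1 n v) (w 2 n v) Y →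
      Six (b n u (f n u x.1 (zc (lev n u) x.2))).e (b n v (f n v x.1 (zc (lev n v) x.2))).e
        (w 0 n v) (w 1 n v) (w 2 n v) (X n ^ 6 * B.d n ^ (-ε)) := by
    intro nn h4 cu cv
    have cu' := cu.trans hX0 (by linarith) (hw 1).2 (hw 0).1 (hw 2).2 (hw 2).1
    have cv' := cv.mono hwv0.le (hwv0.le.trans ha2) hY2
    exact six_of Su.ortho Sv.ortho SK.ortho hwv0 ha2 h21 hY3 h4 cu' cv' hZ
  by_cases hc : (K n).w 0 ≤ w 0 n u
  · have h1 : (K n).w 0 ≤ X n * w 0 n u := by nlinarith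
    have h2 : (K n).w 0 ≤ X n * w 0 n v := hc.trans (hw 0).1
    have hff : dt ((K n).e 0) ((K n).e 0) = 1 := by simpa using SK.ortho 0 0
    exact fin _ (by rw [hff]; norm_num) ((hnu x hx).2 h1) ((hnv x hx).2 h2)
  · push Not at hc
    have h1 : w 0 n u ≤ X n * (K n).w 0 := by nlinarith
    have h2 : w 0 n v ≤ X n * (K n).w 0 :=
      (hw 0).2.trans (mul_le_mul_of_nonneg_left hc.le hX0)
    obtain ⟨k0, k1, k2, bb, d, g, hq⟩ := SK.isQ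
    obtain ⟨cu, h4⟩ := (hnu x hx).1 h1 k0 k1 k2 bb d g hq
    obtain ⟨cv, -⟩ := (hnv x hx).1 h2 k0 k1 k2 bb d g hq
    exact fin _ h4 cu cv

theorem wid_lim (h : MkA B I G lev A c Λ τ f b vm w) (k : Fin 3) {v : ℚ} (hv0 : 0 ≤ v)
    (hv1 : v ≤ 1) :
    Tendsto (fun n => (Real.log (w k n 1) - Real.log (w k n v)) / B.L n) U
      (𝓝 (τ k v - (1 - v))) := by
  have h1 := (h.tau k v hv0 hv1).sub (h.lev_lim v 1 hv0 hv1 le_rfl)
  have e1 : ((1 : ℚ) : ℝ) = 1 := by norm_num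
  rw [e1] at h1
  refine h1.congr' ?_
  filter_upwards [h.wpos k v hv0 hv1, h.wpos k 1 zero_le_one le_rfl] with n n1 n2
  have r1 : 0 < rho (lev n v) := by unfold rho; positivity
  have r2 : 0 < rho (lev n 1) := by unfold rho; positivity
  rw [← sub_div]
  congr 1
  rw [Real.log_div (by positivity) (by positivity), Real.log_div (by positivity) (by positivity),
    Real.log_div (by positivity) (by positivity)]
  have hl : ∀ i : ℕ, Real.log (rho i) = -(i * Real.log 2) := by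
    intro i
    unfold Crest.Agent.R138.Mk163.rho
    rw [one_div, Real.log_inv, Real.log_pow]
  rw [hl, hl]
  ring

/-- widths of two levels (helper335) -/
theorem wid_cmp (h : MkA B I G lev A c Λ τ f b vm w) (k : Fin 3) {u v : ℚ} (hu0 : 0 ≤ u)
    (hu1 : u ≤ 1) (hv0 : 0 ≤ v) (hv1 : v ≤ 1) : ∃ C : ℝ, 0 ≤ C ∧ ∀ᶠ n in (U : Filter ℕ),
      w k n u ≤ B.d n ^ (-C) * w k n v := by
  have h1 := (wid_lim h k hv0 hv1).sub (wid_lim h k hu0 hu1)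
  set C0 : ℝ := (τ k v - (1 - v)) - (τ k u - (1 - u)) with hC0
  refine ⟨max (C0 + 1) 0, le_max_right _ _, ?_⟩
  filter_upwards [h1.eventually_lt_const (show C0 < C0 + 1 by linarith), h.wpos k u hu0 hu1,
    h.wpos k v hv0 hv1] with n a0 a2 a3
  have hL := B.L_pos n
  have hp := dpow_pos B n (-(max (C0 + 1) 0))
  rw [← sub_div, div_lt_iff₀ hL] at a0
  rw [← Real.log_le_log_iff a2 (mul_pos hp a3), Real.log_mul hp.ne' a3.ne',
    Real.log_rpow (B.pos n)]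
  have h2 : (C0 + 1) * B.L n ≤ max (C0 + 1) 0 * B.L n :=
    mul_le_mul_of_nonneg_right (le_max_left _ _) hL.le
  unfold Base.L at a0 h2
  linarith

/-- **flat crude tilt**, constant exponent -/
theorem crude_flat (h : MkA B I G lev A c Λ τ f b vm w) (hG : GeoF G L r0 q B lev w)
    (hq1 : 0 ≤ q 1) (hκ : 0 < q 1 + q 2) (r0pos : ∀ n, 0 < r0 n)
    (hF : ∀ (n : ℕ) (v : ℚ) (i : ℕ) (z : ℝ) (x : V3), (b n v i).q z x =
      dt ((b n v i).e 0) (x - (b n v i).c.pos z))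
    {K : ℕ → Plk4} {C0 : ℝ} (hcont : Cont B I L lev r0 K)
    (hKX : ∀ᶠ n in (U : Filter ℕ), (K n).a ≤ B.d n ^ (-C0) * w 0 n 1 ∧
      (K n).w 2 ≤ B.d n ^ (-C0) * w 2 n 1)
    {u v : ℚ} (hu0 : 0 ≤ u) (hu1 : u ≤ 1) (hv0 : 0 ≤ v) (hv1 : v ≤ 1) :
    ∃ C : ℝ, 0 ≤ C ∧ ∀ᶠ n in (U : Filter ℕ), ∀ x ∈ I n,
      Six (b n u (f n u x.1 (zc (lev n u) x.2))).e (b n v (f n v x.1 (zc (lev n v) x.2))).e
        (w 0 n v) (w 1 n v) (w 2 n v) (B.d n ^ (-C)) := by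
  have key : ∀ (k : Fin 3) (s t : ℚ), 0 ≤ s → s ≤ 1 → 0 ≤ t → t ≤ 1 → ∃ C : ℝ, 0 ≤ C ∧
      ∀ᶠ n in (U : Filter ℕ), w k n s ≤ B.d n ^ (-C) * w k n t :=
    fun k s t a1 a2 a3 a4 => wid_cmp h k a1 a2 a3 a4
  choose! Cw hCw0 hCw using key
  set C1 : ℝ := ∑ k : Fin 3, (Cw k u v + Cw k v u + Cw k 1 u + Cw k 1 v) with hC1
  have t0 : ∀ k : Fin 3, 0 ≤ Cw k u v ∧ 0 ≤ Cw k v u ∧ 0 ≤ Cw k 1 u ∧ 0 ≤ Cw k 1 v := fun k =>
    ⟨hCw0 k u v hu0 hu1 hv0 hv1, hCw0 k v u hv0 hv1 hu0 hu1,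
      hCw0 k 1 u zero_le_one le_rfl hu0 hu1, hCw0 k 1 v zero_le_one le_rfl hv0 hv1⟩
  have t1 : ∀ k : Fin 3, Cw k u v + Cw k v u + Cw k 1 u + Cw k 1 v ≤ C1 := by
    intro k
    rw [hC1]
    refine Finset.single_le_sum (f := fun k => Cw k u v + Cw k v u + Cw k 1 u + Cw k 1 v)
      (fun j _ => ?_) (Finset.mem_univ k)
    obtain ⟨a1, a2, a3, a4⟩ := t0 j
    show 0 ≤ Cw j u v + Cw j v u + Cw j 1 u + Cw j 1 v
    linarith
  have hC10 : 0 ≤ C1 := by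
    obtain ⟨a1, a2, a3, a4⟩ := t0 0
    linarith [t1 0]
  set C2 : ℝ := |C0| + C1 with hC2
  have hC20 : 0 ≤ C2 := by positivity
  have hw : ∀ᶠ n in (U : Filter ℕ), ∀ k, w k n u ≤ B.d n ^ (-C2) * w k n v ∧
      w k n v ≤ B.d n ^ (-C2) * w k n u ∧ w k n 1 ≤ B.d n ^ (-C1) * w k n u ∧
      w k n 1 ≤ B.d n ^ (-C1) * w k n v ∧ 0 < w k n u ∧ 0 < w k n v := by
    rw [Filter.eventually_all]
    intro k
    filter_upwards [hCw k u v hu0 hu1 hv0 hv1, hCw k v u hv0 hv1 hu0 hu1,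
      hCw k 1 u zero_le_one le_rfl hu0 hu1, hCw k 1 v zero_le_one le_rfl hv0 hv1,
      h.wpos k u hu0 hu1, h.wpos k v hv0 hv1] with n b1 b2 b3 b4 p1 p2
    obtain ⟨a1, a2, a3, a4⟩ := t0 k
    have s := t1 k
    have c0 := abs_nonneg C0
    have up : ∀ (x y : ℝ) (y0 : 0 < y) (a b' : ℝ), a ≤ b' → x ≤ B.d n ^ (-a) * y →
        x ≤ B.d n ^ (-b') * y := by
      intro x y y0 a b' hab hx
      exact hx.trans (mul_le_mul_of_nonneg_right (dpow_le B n (by linarith)) y0.le)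
    exact ⟨up _ _ p2 _ _ (by linarith) b1, up _ _ p1 _ _ (by linarith) b2,
      up _ _ p1 _ _ (by linarith) b3, up _ _ p2 _ _ (by linarith) b4, p1, p2⟩
  have hX : ∀ n, 1 ≤ B.d n ^ (-C2) := by
    intro n
    have := dpow_le B n (show -C2 ≤ 0 by linarith)
    rwa [Real.rpow_zero] at this
  have hK' : ∀ᶠ n in (U : Filter ℕ), (K n).a ≤ B.d n ^ (-C2) * w 0 n u ∧
      (K n).w 2 ≤ B.d n ^ (-C2) * w 2 n u ∧
      (K n).a ≤ B.d n ^ (-C2) * w 0 n v ∧ (K n).w 2 ≤ B.d n ^ (-C2) * w 2 n v := by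
    filter_upwards [hKX, hw] with n h1 h2
    have e : ∀ (k : Fin 3) (s : ℚ), w k n 1 ≤ B.d n ^ (-C1) * w k n s → 0 < w k n s →
        B.d n ^ (-C0) * w k n 1 ≤ B.d n ^ (-C2) * w k n s := by
      intro k s h3 h4
      have p1 := dpow_pos B n (-C0)
      calc B.d n ^ (-C0) * w k n 1 ≤ B.d n ^ (-C0) * (B.d n ^ (-C1) * w k n s) :=
            mul_le_mul_of_nonneg_left h3 p1.le
        _ = B.d n ^ (-C0 + -C1) * w k n s := by rw [dpow_add]; ring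
        _ ≤ _ := by
          apply mul_le_mul_of_nonneg_right (dpow_le B n _) h4.le
          have := le_abs_self C0
          rw [hC2]; linarith
    obtain ⟨-, -, a3, a4, a5, a6⟩ := h2 0
    obtain ⟨-, -, b3, b4, b5, b6⟩ := h2 2
    exact ⟨h1.1.trans (e 0 u a3 a5), h1.2.trans (e 2 u b3 b5), h1.1.trans (e 0 v a4 a6),
      h1.2.trans (e 2 v b4 b6)⟩
  refine ⟨6 * C2 + 1, by positivity, ?_⟩
  have hp := crude_pair h hG hq1 hκ r0pos hu0 hu1 hv0 hv1 hF (X := fun n => B.d n ^ (-C2)) hX hcont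
    hK' (hw.mono fun n hn k => ⟨(hn k).1, (hn k).2.1⟩) one_pos
  filter_upwards [hp] with n hn x hx
  have e : (B.d n ^ (-C2)) ^ 6 * B.d n ^ (-(1 : ℝ)) = B.d n ^ (-(6 * C2 + 1)) := by
    rw [← Real.rpow_natCast, ← Real.rpow_mul (B.pos n).le, ← dpow_add]
    congr 1; push_cast; ring
  have := hn x hx
  rw [e] at this
  exact this

end

end Crest.Agent.R136.Crf861
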