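import Crest.Agent.R136.Crf7_861

/-!
# R136 (S0187), U5 crude tilt, flat half (helper861), part 8: the geometry of sheets with a range

`geoF_of` : `GeoF` for every geometry of the form of `geo4 L r0 wr cr q` (J1 v3c).
-/

set_option autoImplicit false
set_option linter.unusedVariables false
set_option linter.unusedSectionVars false

open Finset Filter Topology

namespace Crest.Agent.R136.Crf861

open Sh605 Crest.Agent.R136.UB861
open Crest.Agent.R138.Ex926 (Base U)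
open Crest.Agent.R138.Dp76 (dpow_pos dpow_add dpow_le dpow_le_one)
open Crest.Agent.R138.Mk163 (zc zl rho alive)
open Crest.Agent.R138.MkRef627 (mem_alive)
open Crest.Agent.R136.MkA627
open Crest.Agent.R136.K4

section

variable {B : Base} {I : ℕ → Finset (ℕ × ℝ)} {G : Geo Plk4 (Fin 3)} {L : ℕ → ℕ → Ln4}
  {r0 : ℕ → ℝ} {q : Fin 3 → ℝ} {lev : ℕ → ℚ → ℕ} {A : ℕ → ℝ} {c Λ : ℝ → ℝ}
  {τ : Fin 3 → ℝ → ℝ} {f : ℕ → ℚ → ℕ → ℤ → ℕ} {b : ℕ → ℚ → ℕ → Plk4} {vm : ℕ → ℚ → ℝ}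
  {w : Fin 3 → ℕ → ℚ → ℝ}

theorem geoF_of {wr cr : Fin 3 → ℕ → ℝ} (h : MkA B I G lev A c Λ τ f b vm w)
    (hmem : ∀ n i J s t, G.mem n i J s t ↔ InSheet (L n t) s.e s.c s.w s.q s.a (zl i J) (rho i))
    (hadm : ∀ n i J s, G.adm n i J s ↔
      (ShN s.e s.c s.w s.q s.a (zl i J) (rho i) (r0 n) ∧ s.w 1 ≤ rho i ∧
        ∀ k : Fin 3, wr k n ≤ ![s.a, s.w 1, s.w 2] k ∧ ![s.a, s.w 1, s.w 2] k ≤ cr k n))
    (hval : ∀ n i J s, G.val n i J s = s.a * s.w 2 * s.w 1 *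
      ((s.a / rho i) ^ q 0 * (s.w 1 / rho i) ^ q 1 * (s.w 2 / rho i) ^ q 2))
    (hwid : ∀ k s, G.wid k s = ![s.a, s.w 1, s.w 2] k)
    (hR : ∀ (C : ℝ) (k : Fin 3) (v : ℚ), 0 ≤ v → v ≤ 1 → ∀ᶠ n in (U : Filter ℕ),
      wr k n ≤ B.d n ^ C * w k n v ∧ w k n v ≤ B.d n ^ C * cr k n) :
    GeoF G L r0 q B lev w := by
  refine ⟨hmem, fun n i J s hs => ?_, hval, hwid, ?_⟩
  · have := (hadm n i J s).1 hs
    exact ⟨this.1, this.2.1⟩
  · intro v hv0 hv1 ε hε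
    filter_upwards [h.ne, h.mark v hv0 hv1, h.wpos 0 v hv0 hv1, hR 0 0 v hv0 hv1,
      hR 0 1 v hv0 hv1, hR 0 2 v hv0 hv1, hR ε 1 v hv0 hv1, hR ε 2 v hv0 hv1]
      with n hne hmk hw0 a0 a1 a2 b1 b2
    obtain ⟨x, hx⟩ := hne
    obtain ⟨m1, m2, m3, m4⟩ := hmk (zc (lev n v) x.2) x.1 (mem_alive.2 ⟨x, hx, rfl, rfl⟩)
    obtain ⟨S, S1, -⟩ := (hadm _ _ _ _).1 m2
    have wa : (b n v (f n v x.1 (zc (lev n v) x.2))).a = w 0 n v := by
      have := m4 0; rw [hwid] at this; exact this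
    have ww1 : (b n v (f n v x.1 (zc (lev n v) x.2))).w 1 = w 1 n v := by
      have := m4 1; rw [hwid] at this; exact this
    have hr0 : r0 n ≤ w 0 n v := by rw [← wa]; exact S.r0_le
    rw [ww1] at S1
    intro J e c' s1 s2 he h1 h2 h3 h4 h5 h6
    rw [hadm]
    simp only [Real.rpow_zero, one_mul] at a0 a1 a2
    refine ⟨?_, ?_, ?_⟩
    · exact box_sheetC he c' (w' := ![w 0 n v, s1, s2]) hw0 h1 h2 hr0
    · exact h3.trans S1
    · intro k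
      fin_cases k
      · exact a0
      · exact ⟨b1.1.trans h5, h3.trans a1.2⟩
      · exact ⟨b2.1.trans h6, h4.trans a2.2⟩

end

end Crest.Agent.R136.Crf861
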