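import Crest.Agent.R136.Cre_544

/-!
# R136, specials of the thin pins, rows (helper544), part 6: errors, rows and closures in a window
-/

set_option autoImplicit false
set_option linter.unusedSectionVars false
set_option linter.unusedVariables false

open Filter Topology

namespace Crest.Agent.R136.Cr544

open Finset Crest.Agent.R136.NetW191 Crest.Agent.R136.EvW938 Crest.Agent.R136.PrW464
open Crest.Agent.R136.Net191 Crest.Agent.R136.Qg926 Crest.Agent.R136.Pin851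
open Crest.Agent.R136.Gf356
open Crest.Agent.R138.Ex926 (Base U)

variable {ι : ℕ → Type*} [∀ n, DecidableEq (ι n)]

/-- constant of the rows -/
noncomputable def RR (W : Wnd 18 ι) : ℝ := CR (KK W)

/-- the big constant -/
noncomputable def NN (W : Wnd 18 ι) : ℝ := 10 * (RR W + 10) * KK W ^ 4

/-- good `n` -/
structure Ge (W : Wnd 18 ι) (E : ∀ n, Finset (ι n)) (ε : ℝ) (n : ℕ) : Prop where
  g : W.Good n
  s : E n ⊆ W.Cl n
  c : W.cfg E n = W.cfg0 n (E n)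
  N : NN W ≤ W.B'.d n ^ (-ε)

section

variable {W : Wnd 18 ι} {E : ∀ n, Finset (ι n)} {κ : ℕ → ℝ} {u : ℕ → Fin 18 → ℝ}
  {f : ∀ n, ι n → FW} {lam : (Fin 18 → ℝ) → ℝ} {x ε : ℝ} {n : ℕ}

theorem ev_Ge (hW : PWin W E κ u f {4} lam x) (hε : 0 < ε) :
    ∀ᶠ n in (U : Filter ℕ), Ge W E ε n := by
  filter_upwards [hW.ev, Gf356.ev_const_le W.B' hε (NN W)] with n h1 h2
  exact ⟨h1.1, h1.2.1, h1.2.2, h2⟩

theorem KR (hW : PWin W E κ u f {4} lam x) : 1 ≤ KK W ∧ 0 ≤ RR W ∧ KK W ≤ KK W ^ 2 ∧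
    KK W ^ 2 ≤ KK W ^ 3 ∧ KK W ^ 3 ≤ KK W ^ 4 := by
  have h1 : 1 ≤ KK W := by linarith [(KK_ge hW 0).1]
  have h2 := one_CP h1
  refine ⟨h1, ?_, ?_, pow_le_pow_right₀ h1 (by norm_num), pow_le_pow_right₀ h1 (by norm_num)⟩
  · unfold RR CR; positivity
  · nlinarith

/-- what the big constant dominates -/
theorem NN_ge (hW : PWin W E κ u f {4} lam x) : 1 ≤ NN W ∧ 100 * KK W ^ 4 ≤ NN W ∧
    2 * RR W * KK W ^ 2 ≤ NN W ∧ KK W + 2 * KK W ^ 3 ≤ NN W ∧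
    KK W + RR W * KK W ^ 3 ≤ NN W ∧ 3 * RR W * KK W ^ 3 + 3 * KK W ^ 2 ≤ NN W ∧
    7 * KK W ^ 2 ≤ NN W := by
  obtain ⟨k1, k2, k3, k4, k5⟩ := KR hW
  have e : NN W = 10 * (RR W * KK W ^ 4) + 100 * KK W ^ 4 := by unfold NN; ring
  have r4 : RR W * KK W ^ 3 ≤ RR W * KK W ^ 4 := mul_le_mul_of_nonneg_left k5 k2
  have r3 : RR W * KK W ^ 2 ≤ RR W * KK W ^ 3 := mul_le_mul_of_nonneg_left k4 k2
  have r0 : 0 ≤ RR W * KK W ^ 2 := by positivity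
  rw [e]
  refine ⟨?_, ?_, ?_, ?_, ?_, ?_, ?_⟩ <;> linarith

theorem rp (W : Wnd 18 ι) (n : ℕ) (t : ℝ) : 0 < W.B'.d n ^ t := Real.rpow_pos_of_pos (W.B'.pos n) t

theorem ra (W : Wnd 18 ι) (n : ℕ) {s t : ℝ} (h : s ≤ t) : W.B'.d n ^ t ≤ W.B'.d n ^ s :=
  Real.rpow_le_rpow_of_exponent_ge (W.B'.pos n) (W.B'.lt n).le h

/-- the constant is absorbed -/
theorem Ge.absorb (H : Ge W E ε n) {a t : ℝ} (h : |a| ≤ NN W * W.B'.d n ^ t) :
    |a| ≤ W.B'.d n ^ (t - ε) := by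
  refine h.trans ?_
  have h1 := mul_le_mul_of_nonneg_right H.N (rp W n t).le
  rw [← Real.rpow_add (W.B'.pos n)] at h1
  refine h1.trans (le_of_eq ?_)
  congr 1; ring

/-- **errors** -/
theorem Ge.fin (H : Ge W E ε n) (hε : 0 < ε) {a : ℝ} (h1 : |a| ≤ NN W)
    (h2 : ε < x / 8 → |a| ≤ NN W * W.B'.d n ^ (x - ε)) : |a| ≤ W.B'.d n ^ (x - 16 * ε) := by
  by_cases h8 : ε < x / 8
  · exact (H.absorb (h2 h8)).trans (ra W n (by linarith))
  · exact (h1.trans H.N).trans (ra W n (by linarith))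

/-- the small quantity -/
theorem Ge.small (hW : PWin W E κ u f {4} lam x) (H : Ge W E ε n) (hε : 0 < ε)
    (h8 : ε < x / 8) : KK W ^ 2 * W.B'.d n ^ (x - ε) ≤ 1 := by
  obtain ⟨k1, k2, k3, k4, k5⟩ := KR hW
  have h0 : 0 ≤ KK W ^ 2 * W.B'.d n ^ (x - ε) := mul_nonneg (by positivity) (rp W n _).le
  have h1 : |KK W ^ 2 * W.B'.d n ^ (x - ε)| ≤ NN W * W.B'.d n ^ (x - ε) := by
    rw [abs_of_nonneg h0]
    refine mul_le_mul_of_nonneg_right ?_ (rp W n _).le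
    linarith [(NN_ge hW).2.1]
  have h2 := H.absorb h1
  rw [abs_of_nonneg h0] at h2
  exact h2.trans (Real.rpow_le_one (W.B'.pos n).le (W.B'.lt n).le (by linarith))

/-- one row -/
theorem Ge.row (hW : PWin W E κ u f {4} lam x) (H : Ge W E ε n) (hε : 0 < ε) {a : ℝ}
    (h1 : |a| ≤ 36 * KK W ^ 4)
    (h2 : ε < x / 8 → |a| ≤ 2 * (RR W * (KK W ^ 2 * W.B'.d n ^ (x - ε)))) :
    |a| ≤ W.B'.d n ^ (x - 16 * ε) := by
  obtain ⟨k1, k2, k3, k4, k5⟩ := KR hW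
  obtain ⟨n0, n1, n2, n3, n4, n5, n6⟩ := NN_ge hW
  have : 0 ≤ KK W ^ 4 := by positivity
  refine H.fin hε (by linarith) fun h8 => (h2 h8).trans ?_
  have := mul_le_mul_of_nonneg_right n2 (rp W n (x - ε)).le
  linarith

/-- pair of a loose box -/
theorem pr_loose (hW : PWin W E κ u f {4} lam x) (hx : 0 < x) (hε : 0 < ε) (g : W.Good n)
    (hE : E n ⊆ W.Cl n) (hτ : KK W ^ 2 * W.B'.d n ^ (x - ε) ≤ 1) {k l l' : ℕ}
    (hl : (l, k) ∈ (W.cfg0 n (E n)).I) (hl' : (l', k) ∈ (W.cfg0 n (E n)).I)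
    (hs : ∀ s : Fin 18, s = 4 ∨ s = 5 ∨ s = 7 →
      |(W.cfg0 n (E n)).rel k l l' s| ≤ KK W * W.B'.d n ^ (x - ε)) :
    Pr (κ n) (KK W) (KK W ^ 2 * W.B'.d n ^ (x - ε)) (PP W E κ u f n k l)
      (PP W E κ u f n k l') := by
  obtain ⟨k1, k2, k3, k4, k5⟩ := KR hW
  have b1 := PP_bn hW g hE hl
  have b2 := PP_bn hW g hE hl'
  have e1 := PP_g0 hW g hE hl
  have e2 := PP_g0 hW g hE hl'
  have hρ : KK W * W.B'.d n ^ x ≤ KK W ^ 2 * W.B'.d n ^ (x - ε) :=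
    mul_le_mul k3 (ra W n (by linarith)) (rp W n _).le (by positivity)
  have hd : ∀ s : Fin 18, s ≠ 0 → s = 4 ∨ s = 5 ∨ s = 7 →
      |coW (κ n) (PP W E κ u f n k l) (PP W E κ u f n k l') s| ≤
        KK W ^ 2 * W.B'.d n ^ (x - ε) := by
    intro s h0 h
    refine (pair_slot hW g hE hl hl' h0).trans ?_
    have := mul_le_mul_of_nonneg_left (hs s h) (by linarith : (0:ℝ) ≤ KK W)
    refine this.trans (le_of_eq ?_)
    ring
  exact ⟨b1.hκ, k1, mul_nonneg (by positivity) (rp W n _).le, hτ, b1.g, b2.g, b1.G, b2.G,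
    e1.trans hρ, e2.trans hρ, hd 4 (by decide) (Or.inl rfl), hd 5 (by decide) (Or.inr (Or.inl rfl)),
    hd 7 (by decide) (Or.inr (Or.inr rfl))⟩

/-- slots of a loose box -/
theorem sl_loose (hW : PWin W E κ u f {4} lam x) (g : W.Good n)
    (hE : E n ⊆ W.Cl n) {k l l' : ℕ} (hl : (l, k) ∈ (W.cfg0 n (E n)).I)
    (hl' : (l', k) ∈ (W.cfg0 n (E n)).I) {p : Fin 18 → ℝ}
    (L : (W.cfg0 n (E n)).loose p ε k l l') {s : Fin 18} (h0 : s ≠ 0) (hp : p s = x) :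
    |coW (κ n) (PP W E κ u f n k l) (PP W E κ u f n k l') s| ≤
      KK W ^ 2 * W.B'.d n ^ (x - ε) := by
  obtain ⟨k1, k2, k3, k4, k5⟩ := KR hW
  refine (pair_slot hW g hE hl hl' h0).trans ?_
  have h1 : |(W.cfg0 n (E n)).rel k l l' s| ≤ W.B'.d n ^ (x - ε) := by
    have := L s
    rwa [hp] at this
  exact mul_le_mul k3 h1 (abs_nonneg _) (by positivity)

theorem dt_loose (hW : PWin W E κ u f {4} lam x) (hx : 0 < x) (hε : 0 < ε) (g : W.Good n)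
    (hE : E n ⊆ W.Cl n) (hτ : KK W ^ 2 * W.B'.d n ^ (x - ε) ≤ 1) {k l l' : ℕ}
    (hl : (l, k) ∈ (W.cfg0 n (E n)).I) (hl' : (l', k) ∈ (W.cfg0 n (E n)).I) {p : Fin 18 → ℝ}
    (L : (W.cfg0 n (E n)).loose p ε k l l') (hp : p 4 = x ∧ p 5 = x ∧ p 7 = x) :
    Dt (κ n) (KK W) (KK W ^ 2 * W.B'.d n ^ (x - ε))
      ((1 + CP (KK W)) * (KK W ^ 2 * W.B'.d n ^ (x - ε))) (PP W E κ u f n k l)
      (PP W E κ u f n k l') := by
  obtain ⟨k1, k2, k3, k4, k5⟩ := KR hW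
  refine (pr_loose hW hx hε g hE hτ hl hl' fun s hs => ?_).dt
  have h1 : |(W.cfg0 n (E n)).rel k l l' s| ≤ W.B'.d n ^ (x - ε) := by
    have := L s
    rcases hs with rfl | rfl | rfl
    · rwa [hp.1] at this
    · rwa [hp.2.1] at this
    · rwa [hp.2.2] at this
  have := rp W n (x - ε)
  nlinarith

theorem two {a b c : ℝ} (h : |a - b| ≤ c) (hc : 0 ≤ c) : |b - a| ≤ 2 * c := by
  rw [abs_sub_comm]; linarith

end

end Crest.Agent.R136.Cr544
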