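import Crest.Agent.R136.Cub5_191

/-!
# R136, the specials of the thin pins (helper191), part 6: two heights, the conclusion
-/

set_option autoImplicit false
set_option linter.unusedVariables false

open Filter Topology

namespace Crest.Agent.R136.Cub191

open Finset
open Crest.Agent.R136.Qd329
open Crest.Agent.R138.Ex926 (Base U)
open Crest.Agent.R136.Gf356

variable {κ : Type}

/-- rows of the evolution -/
structure SEvo (B : Base) (G : ℕ → RCfg κ) (x M C μ : ℝ) (p0 : κ → ℝ)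
    (a F c Y : ℕ → ℕ → ℕ → ℝ) : Prop where
  base : ∀ ε : ℝ, 0 < ε → ∀ᶠ n in (U : Filter ℕ), ∀ k k' l l', (l, k) ∈ (G n).I →
    (l, k') ∈ (G n).I → (l', k) ∈ (G n).I → (l', k') ∈ (G n).I → (G n).loose p0 ε k l l' →
      (G n).loose p0 (C * ε) k' l l'
  zbd : ∀ᶠ n in (U : Filter ℕ), ∀ k ∈ (G n).Z, ∀ k' ∈ (G n).Z, |(G n).z k' - (G n).z k| ≤ M
  evo : ∀ ε : ℝ, 0 < ε → ∀ᶠ n in (U : Filter ℕ), ∀ k k' l l', (l, k) ∈ (G n).I →
    (l, k') ∈ (G n).I → (l', k) ∈ (G n).I → (l', k') ∈ (G n).I → (G n).loose p0 ε k l l' →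
    |(a n k' l - a n k' l') - ((a n k l - a n k l') +
      ((G n).z k' - (G n).z k) * (c n k l - c n k l'))| ≤ B.d n ^ (x - C * ε) ∧
    |(F n k' l - F n k' l') - ((F n k l - F n k l') +
      μ * ((G n).z k' - (G n).z k) * (Y n k l - Y n k l'))| ≤ B.d n ^ (x - C * ε) ∧
    |(c n k' l - c n k' l') - (c n k l - c n k l')| ≤ B.d n ^ (x - C * ε)

/-- the two slopes are related -/
def SSlope (B : Base) (G : ℕ → RCfg κ) (ν : (κ → ℝ) → ℝ) (x s : ℝ) (p0 : κ → ℝ)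
    (a F Q c β Y K : ℕ → ℕ → ℕ → ℝ) (kp : ℕ → ℝ) : Prop :=
  ∀ ε : ℝ, 0 < ε → ∃ e0 : ℝ, 0 < e0 ∧ ∀ e : ℝ, 0 < e → e ≤ e0 → ∀ᶠ n in (U : Filter ℕ), ∀ k,
    ∀ r1 ∈ (G n).slice k, ∀ r2 ∈ (G n).slice k, ∀ r3 ∈ (G n).slice k,
    B.d n ^ e ≤ |a n k r2 - a n k r1| → B.d n ^ e ≤ |a n k r3 - a n k r1| →
    B.d n ^ e ≤ |a n k r3 - a n k r2| → ∀ L2 ⊆ (G n).slice k,
    (∀ l ∈ L2, ∀ l' ∈ L2, (G n).loose p0 e k l l') → B.d n ^ (-ν p0 + e) ≤ (L2.card : ℝ) →
    COut L2 (a n k) (F n k) (c n k) (β n k) (Y n k) (K n k) (kp n) (a n k r1) (a n k r2)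
      (a n k r3) (F n k r1) (F n k r2) (F n k r3) (Q n k r1) (Q n k r2) (Q n k r3)
      (B.d n ^ (x - e)) →
    |dd (a n k r2) (a n k r3) (dd (a n k r1) (a n k r2) (Q n k r1) (Q n k r2))
        (dd (a n k r1) (a n k r3) (Q n k r1) (Q n k r3)) -
      s * dd (a n k r1) (a n k r2) (F n k r1) (F n k r2)| ≤ B.d n ^ (x - ε)

theorem two_key {u f2 q' μ s M Λ δ da dc dF dY : ℝ} (hM : 1 ≤ M) (hΛ : 1 ≤ Λ) (hδ : 0 ≤ δ)
    (hu : |u| ≤ M) (hμ : 0 ≤ μ) (hμ1 : μ ≤ 2) (hs : 0 ≤ s) (hf : |f2| ≤ Λ) (hc : |dc| ≤ 2 * M)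
    (ha' : |da + u * dc| ≤ δ) (hF' : |dF + μ * u * dY| ≤ δ) (hF : |dF - f2 * da| ≤ δ)
    (hY : |dY + q' * dc| ≤ δ) (hq : |q' - s * f2| ≤ δ) :
    |f2 * (u * dc)| ≤ 20 * M ^ 2 * Λ * δ := by
  have id1 : (1 + μ * s) * (f2 * (u * dc)) = f2 * (da + u * dc) + (dF - f2 * da) -
      (dF + μ * u * dY) + μ * u * (dY + q' * dc) - μ * u * ((q' - s * f2) * dc) := by ring
  have h1 : |f2 * (u * dc)| ≤ |(1 + μ * s) * (f2 * (u * dc))| := by
    rw [abs_mul (1 + μ * s)]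
    have : 1 ≤ |1 + μ * s| := by
      have h2 : 0 ≤ μ * s := mul_nonneg hμ hs
      rw [abs_of_nonneg (by linarith)]; linarith
    nlinarith [abs_nonneg (f2 * (u * dc))]
  refine h1.trans ?_
  rw [id1]
  have t1 : |f2 * (da + u * dc)| ≤ Λ * δ := by
    rw [abs_mul]; exact mul_le_mul hf ha' (abs_nonneg _) (by linarith)
  have hμu : |μ * u| ≤ 2 * M := by
    rw [abs_mul, abs_of_nonneg hμ]; exact mul_le_mul hμ1 hu (abs_nonneg _) (by norm_num)
  have t2 : |μ * u * (dY + q' * dc)| ≤ 2 * M * δ := by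
    rw [abs_mul]; exact mul_le_mul hμu hY (abs_nonneg _) (by linarith)
  have t3 : |μ * u * ((q' - s * f2) * dc)| ≤ 2 * M * (δ * (2 * M)) := by
    rw [abs_mul, abs_mul (q' - s * f2)]
    exact mul_le_mul hμu (mul_le_mul hq hc (abs_nonneg _) hδ) (by positivity) (by linarith)
  have a1 := abs_sub (f2 * (da + u * dc) + (dF - f2 * da) - (dF + μ * u * dY) +
    μ * u * (dY + q' * dc)) (μ * u * ((q' - s * f2) * dc))
  have a2 := abs_add_le (f2 * (da + u * dc) + (dF - f2 * da) - (dF + μ * u * dY))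
    (μ * u * (dY + q' * dc))
  have a3 := abs_sub (f2 * (da + u * dc) + (dF - f2 * da)) (dF + μ * u * dY)
  have a4 := abs_add_le (f2 * (da + u * dc)) (dF - f2 * da)
  have b1 : δ ≤ M ^ 2 * Λ * δ := by
    have : 1 ≤ M ^ 2 * Λ := by
      have := one_le_pow₀ hM (n := 2)
      nlinarith
    nlinarith
  have b2 : Λ * δ ≤ M ^ 2 * Λ * δ := by
    have h2 : 1 ≤ M ^ 2 := one_le_pow₀ hM
    have h3 : 0 ≤ Λ * δ := by positivity
    nlinarith
  have b3 : M * δ ≤ M ^ 2 * Λ * δ := by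
    have h2 : M ≤ M ^ 2 := by nlinarith
    have h3 : M ^ 2 ≤ M ^ 2 * Λ := by nlinarith [sq_nonneg M]
    exact mul_le_mul_of_nonneg_right (h2.trans h3) hδ
  have b4 : M * (δ * M) ≤ M ^ 2 * Λ * δ := by
    have h3 : M ^ 2 ≤ M ^ 2 * Λ := by nlinarith [sq_nonneg M]
    have := mul_le_mul_of_nonneg_right h3 hδ
    nlinarith
  linarith

theorem consts {M s : ℝ} (hM : 1 ≤ M) (hs : 0 ≤ s) : 1 ≤ 1000 * M ^ 2 * (1 + s) ∧
    12 ≤ 1000 * M ^ 2 * (1 + s) ∧ 2 * M ≤ 1000 * M ^ 2 * (1 + s) ∧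
    20 * M ≤ 1000 * M ^ 2 * (1 + s) ∧ 120 * M ^ 2 ≤ 1000 * M ^ 2 * (1 + s) ∧
    1 + 2 * M + s * (2 * M) ≤ 1000 * M ^ 2 * (1 + s) := by
  have h1 : 1 ≤ M ^ 2 := one_le_pow₀ hM
  have h2 : M ≤ M ^ 2 := by nlinarith
  have h3 : 0 ≤ s * M ^ 2 := mul_nonneg hs (by positivity)
  have h4 : s * M ≤ s * M ^ 2 := mul_le_mul_of_nonneg_left h2 hs
  have e1 : 1000 * M ^ 2 * (1 + s) = 1000 * M ^ 2 + 1000 * (s * M ^ 2) := by ring
  have e2 : s * (2 * M) = 2 * (s * M) := by ring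
  rw [e1, e2]
  refine ⟨?_, ?_, ?_, ?_, ?_, ?_⟩ <;> linarith

/-- division by the height and by `c` -/
theorem two_div (B : Base) (n : ℕ) {M e w y A f X dc u : ℝ}
    (hK : 120 * M ^ 2 ≤ B.d n ^ (-e)) (hu : B.d n ^ w ≤ |u|) (hc : B.d n ^ y / 6 ≤ |dc|)
    (key : |f * (u * dc)| ≤ 20 * M ^ 2 * B.d n ^ (-(2 * e)) * B.d n ^ A)
    (hX : X ≤ A - 3 * e - w - y) : |f| ≤ B.d n ^ X := by
  have hpos : ∀ t : ℝ, 0 < B.d n ^ t := fun t => rpos B n t
  have g1 : B.d n ^ w * (B.d n ^ y / 6) * |f| ≤ 20 * M ^ 2 * B.d n ^ (-(2 * e)) * B.d n ^ A := by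
    refine le_trans ?_ key
    rw [abs_mul, abs_mul, mul_comm |f|]
    exact mul_le_mul_of_nonneg_right (mul_le_mul hu hc (by have := hpos y; positivity)
      (abs_nonneg _)) (abs_nonneg _)
  have g2 : B.d n ^ (w + y) * |f| ≤ 120 * M ^ 2 * B.d n ^ (-(2 * e) + A) := by
    rw [rpow_add', rpow_add' B n (-(2 * e))]
    linarith
  have g3 := mul_le_mul_of_nonneg_left g2 (hpos (-(w + y))).le
  rw [← mul_assoc, ← rpow_add', neg_add_cancel, Real.rpow_zero, one_mul] at g3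
  refine g3.trans ?_
  have g4 : B.d n ^ (-(w + y)) * (120 * M ^ 2 * B.d n ^ (-(2 * e) + A)) =
      120 * M ^ 2 * B.d n ^ (-(w + y) + (-(2 * e) + A)) := by
    rw [rpow_add' B n (-(w + y))]; ring
  rw [g4]
  calc 120 * M ^ 2 * B.d n ^ (-(w + y) + (-(2 * e) + A))
      ≤ B.d n ^ (-e) * B.d n ^ (-(w + y) + (-(2 * e) + A)) :=
        mul_le_mul_of_nonneg_right hK (hpos _).le
    _ = B.d n ^ (-e + (-(w + y) + (-(2 * e) + A))) := (rpow_add' B n _ _).symm
    _ ≤ _ := rpow_anti B n (by linarith)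

/-- pair at two heights -/
theorem pair_ht {A X δ : ℝ} (h : |A| ≤ δ) (h1 : |A - X| ≤ δ) : |X| ≤ 3 * δ := by
  have g1 : X = A - (A - X) := by ring
  rw [g1]
  have g3 := abs_sub A (A - X)
  have := abs_nonneg A
  linarith

/-- `Y` from the slope -/
theorem Y_close {Y c q s f2 M e1 e2 e3 : ℝ} (hs : 0 ≤ s) (h1 : |Y + q * c| ≤ e1)
    (h2 : |q - s * f2| ≤ e2) (h3 : |f2| ≤ e3) (hc : |c| ≤ 2 * M) (he2 : 0 ≤ e2) (he3 : 0 ≤ e3) :
    |Y| ≤ e1 + e2 * (2 * M) + s * e3 * (2 * M) := by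
  have g5 : Y = (Y + q * c) - (q - s * f2) * c - s * f2 * c := by ring
  rw [g5]
  have a1 := abs_sub ((Y + q * c) - (q - s * f2) * c) (s * f2 * c)
  have a2 := abs_sub (Y + q * c) ((q - s * f2) * c)
  have a3 : |(q - s * f2) * c| ≤ e2 * (2 * M) := by
    rw [abs_mul]; exact mul_le_mul h2 hc (abs_nonneg _) he2
  have a4 : |s * f2 * c| ≤ s * e3 * (2 * M) := by
    rw [abs_mul, abs_mul, abs_of_nonneg hs]
    exact mul_le_mul (mul_le_mul_of_nonneg_left h3 hs) hc (abs_nonneg _) (mul_nonneg hs he3)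
  linarith

section

variable {B : Base} {G : ℕ → RCfg κ} {Leg : Set (κ → ℝ)} {ν : (κ → ℝ) → ℝ} {D x M C m σ R : ℝ}
  {p0 pp pv pc ppv pY : κ → ℝ} {pa pb pq : ℝ → κ → ℝ} {a F Q c β Y K Φ : ℕ → ℕ → ℕ → ℝ}
  {kp : ℕ → ℝ}

/-- one height -/
theorem cub_one (H : RUnif B G Leg ν D)
    (S : SRow B G x M C p0 pp pv pc pa pb pq a F Q c β Y K Φ kp)
    (P : SProf Leg ν x m p0 pp pv pc ppv pa pb pq) {ε : ℝ} (hε : 0 < ε) :
    ∃ e1 : ℝ, 0 < e1 ∧ e1 ≤ ε ∧ ∀ᶠ n in (U : Filter ℕ), ∀ k, ∀ L ⊆ (G n).slice k, L.Nonempty →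
      (∀ l ∈ L, ∀ l' ∈ L, (G n).loose p0 e1 k l l') → B.d n ^ (-ν p0 + e1) ≤ (L.card : ℝ) →
      ∃ r1 ∈ L, ∃ r2 ∈ L, ∃ r3 ∈ L,
        B.d n ^ ε ≤ |a n k r2 - a n k r1| ∧ B.d n ^ ε ≤ |a n k r3 - a n k r1| ∧
        B.d n ^ ε ≤ |a n k r3 - a n k r2| ∧
        ∃ L2 ⊆ L, B.d n ^ (-ν p0 + ε) ≤ L2.card ∧
        COut L2 (a n k) (F n k) (c n k) (β n k) (Y n k) (K n k) (kp n) (a n k r1) (a n k r2)
          (a n k r3) (F n k r1) (F n k r2) (F n k r3) (Q n k r1) (Q n k r2) (Q n k r3)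
          (B.d n ^ (x - ε)) := by
  have hD := H.D1
  have hC := S.C1
  have hx := S.x0
  have hm := P.m0
  set t := min x ε with ht
  have ht0 : 0 < t := lt_min hx hε
  set K' := 10000 * (C * D ^ 10 + D ^ 9 + D ^ 9 / m + 1) with hK
  have hD7 : 1 ≤ D ^ 9 := one_le_pow₀ hD
  have hD10 : 1 ≤ D ^ 10 := one_le_pow₀ hD
  have hCD : 1 ≤ C * D ^ 10 := by nlinarith
  have hDm : 0 < D ^ 9 / m := by positivity
  have hK0 : 0 < K' := by positivity
  set e := t / K' with he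
  have he0 : 0 < e := by positivity
  have heK : K' * e = t := by rw [he]; field_simp
  have htx : t ≤ x := min_le_left _ _
  have htε : t ≤ ε := min_le_right _ _
  have q1 : 0 ≤ C * D ^ 10 * e := by positivity
  have q2 : 0 ≤ D ^ 9 * e := by positivity
  have q3 : 0 ≤ D ^ 9 / m * e := by positivity
  have hexp : K' * e = 10000 * (C * D ^ 10 * e) + 10000 * (D ^ 9 * e) +
      10000 * (D ^ 9 / m * e) + 10000 * e := by rw [hK]; ring
  have e1 : 105 * D ^ 9 * e / m = 105 * (D ^ 9 / m * e) := by ring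
  refine ⟨e, he0, by linarith, cub_fix H S P he0 ?_ ?_ ?_⟩
  · rw [e1]; linarith
  · linarith
  · rw [e1]; linarith

set_option maxHeartbeats 1000000 in
/-- **the slot of `Y` costs nothing** -/
theorem spec_fin (H : RModel B G σ R Leg ν D) (hσ : 0 < σ) (hR : 0 < R)
    (S : SRow B G x M C p0 pp pv pc pa pb pq a F Q c β Y K Φ kp)
    (P : SProf Leg ν x m p0 pp pv pc ppv pa pb pq) {μ s : ℝ}
    (V : SEvo B G x M C μ p0 a F c Y) (hμ : 0 ≤ μ) (hμ1 : μ ≤ 2) (hs : 0 ≤ s)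
    (hsl : SSlope B G ν x s p0 a F Q c β Y K kp) (hpY : pY ∈ Leg)
    (ycl : ∀ ε : ℝ, 0 < ε → ∀ᶠ n in (U : Filter ℕ), ∀ k l l', (l, k) ∈ (G n).I →
      (l', k) ∈ (G n).I → (G n).loose p0 ε k l l' → |Y n k l' - Y n k l| ≤ B.d n ^ (x - ε) →
      (G n).loose pY (2 * ε) k l l') : ν p0 ≤ ν pY := by
  classical
  have hD := H.D1
  have hD0 : 0 < D := by linarith
  have hC := S.C1
  have hx := S.x0
  have hm := P.m0
  have hM := S.M1
  have key : ∀ ε1 : ℝ, 0 < ε1 → ν p0 ≤ ν pY + (6 * D + 2) * ε1 := by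
    intro ε1 hε1
    obtain ⟨e0, he0, hsl0⟩ := hsl ε1 hε1
    set t := min (min (min x ε1) R) e0 with ht
    have ht0 : 0 < t := lt_min (lt_min (lt_min hx hε1) hR) he0
    set K' := 10000 * (C ^ 2 * D ^ 10 + C * D ^ 7 / m + 1 / m + 1 + 1 / σ + s) with hK
    have hD10 : 1 ≤ D ^ 10 := one_le_pow₀ hD
    have hCC : 1 ≤ C ^ 2 := one_le_pow₀ hC
    have hCD : 1 ≤ C ^ 2 * D ^ 10 := by nlinarith
    have hDm : 0 < C * D ^ 7 / m := by positivity
    have hm1 : 0 < 1 / m := by positivity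
    have hσ1 : 0 < 1 / σ := by positivity
    have hK0 : 0 < K' := by positivity
    have hK1 : 1 ≤ K' := by
      rw [hK]; nlinarith
    set e := t / K' with he
    have e0' : 0 < e := by positivity
    have heK : K' * e = t := by rw [he]; field_simp
    have het : e ≤ t := by rw [he]; exact div_le_self ht0.le hK1
    have htx : t ≤ x := (min_le_left _ _).trans ((min_le_left _ _).trans (min_le_left _ _))
    have htε : t ≤ ε1 := (min_le_left _ _).trans ((min_le_left _ _).trans (min_le_right _ _))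
    have htR : t ≤ R := (min_le_left _ _).trans (min_le_right _ _)
    have hte : t ≤ e0 := min_le_right _ _
    have q1 : 0 ≤ C ^ 2 * D ^ 10 * e := by positivity
    have q3 : 0 ≤ C * D ^ 7 / m * e := by positivity
    have q4 : 0 ≤ 1 / σ * e := by positivity
    have q5 : 0 ≤ 1 / m * e := by positivity
    have q6 : 0 ≤ s * e := by positivity
    have hexp : K' * e = 10000 * (C ^ 2 * D ^ 10 * e) +
        10000 * (C * D ^ 7 / m * e) + 10000 * (1 / m * e) + 10000 * e + 10000 * (1 / σ * e) +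
        10000 * (s * e) := by rw [hK]; ring
    have e3 : 4 * e / σ = 4 * (1 / σ * e) := by ring
    have e4 : (4 * e + 4 * D ^ 7 * (C * e)) / m = 4 * (1 / m * e) + 4 * (C * D ^ 7 / m * e) := by
      ring
    set y := (4 * e + 4 * D ^ 7 * (C * e)) / m with hy
    set w := 4 * e / σ with hw
    have i5 := D_pows hD e0' 5 10 (by norm_num)
    have j1 := D_pows hD e0' 0 10 (by norm_num)
    rw [pow_zero, one_mul] at j1
    have hCe0 : 0 < C * e := by positivity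
    have h510 : C * (D ^ 5 * (C * e)) ≤ C ^ 2 * D ^ 10 * e := by
      have h7 := mul_le_mul_of_nonneg_left i5 (by positivity : (0 : ℝ) ≤ C ^ 2)
      calc C * (D ^ 5 * (C * e)) = C ^ 2 * (D ^ 5 * e) := by ring
        _ ≤ C ^ 2 * (D ^ 10 * e) := h7
        _ = _ := by ring
    have hCe : C * e ≤ C ^ 2 * D ^ 10 * e := by
      have h6 : C * 1 ≤ C ^ 2 * D ^ 10 := by
        have : C ≤ C ^ 2 := by nlinarith
        exact mul_le_mul this hD10 zero_le_one (by positivity)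
      have h7 := mul_le_mul_of_nonneg_right h6 e0'.le
      linarith
    obtain ⟨e1, e10, e1e, hone0⟩ := cub_one H.toRUnif S P e0'
    have hbase : 0 < e1 / D ^ 2 := by positivity
    obtain ⟨n, hone, hlow0, hsy0, htr0, hsec, hsep, hsln, hzb, hevo, hbev, hbd, hpc,
        hycl, hup, hK2⟩ :=
      (hone0.and <| (H.low p0 P.l0 _ hbase).and <|
      (H.symm p0 P.l0 _ hbase).and <| (H.tri p0 P.l0 (D * (e1 / D ^ 2)) (by positivity)).and <|
      (second_height H hσ e0' (by rw [← hw, e3]; linarith)).and <|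
      (sep_pair' (c := c) H.toRUnif P.lp P.l0 P.pge P.lq hm P.H4 S.qcl hCe0
        (g := 4 * e) (by linarith) (by rw [← hy, e4]; linarith)).and <|
      (hsl0 e e0' (by linarith)).and <| V.zbd.and <| (V.evo e e0').and <|
      (V.base e e0').and <|
      S.bd.and <| (S.pcl _ (show 0 < D ^ 5 * (C * e) by positivity)).and <|
      (ycl (3 * ε1) (by linarith)).and <| (H.up pY hpY (2 * (3 * ε1)) (by linarith)).and <|
      (ev_const_le B e0' (1000 * M ^ 2 * (1 + s)))).exists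
    have hpos : ∀ t : ℝ, 0 < B.d n ^ t := fun t => rpos B n t
    have hcst : ∀ w t : ℝ, w ≤ 1000 * M ^ 2 * (1 + s) → ∀ t', t + e ≤ t' →
        w * B.d n ^ t' ≤ B.d n ^ t := by
      intro w t hw t' ht
      calc w * B.d n ^ t' ≤ B.d n ^ (-e) * B.d n ^ t' :=
            mul_le_mul_of_nonneg_right (hw.trans hK2) (hpos _).le
        _ = B.d n ^ (-e + t') := by rw [rpow_add']
        _ ≤ _ := rpow_anti B n (by linarith)
    obtain ⟨c1, c12, c2M, c20, c120, cY⟩ := consts hM hs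
    obtain ⟨⟨i0, k0⟩, hik⟩ := H.nonempty n
    have hk0 : k0 ∈ (G n).Z := H.memZ hik
    -- the base set
    set L := (G n).box p0 (e1 / D ^ 2) i0 k0 with hLdef
    have hLS : L ⊆ (G n).slice k0 := fun l hl => (RCfg.mem_box.1 hl).1
    have hLI : ∀ l ∈ L, (l, k0) ∈ (G n).I := fun l hl => H.memSlice.1 (hLS hl)
    have hLc : B.d n ^ (-ν p0 + e1) ≤ (L.card : ℝ) := by
      refine (rpow_anti B n ?_).trans (hlow0 i0 k0 hik)
      have : e1 / D ^ 2 ≤ e1 := div_le_self e10.le (one_le_pow₀ hD)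
      linarith
    have hLne : L.Nonempty := by
      rw [← card_pos]
      have : (0 : ℝ) < L.card := lt_of_lt_of_le (hpos _) hLc
      exact_mod_cast this
    have hLl : ∀ l ∈ L, ∀ l' ∈ L, (G n).loose p0 e1 k0 l l' := by
      intro l hl l' hl'
      have g1 := hsy0 k0 i0 l hik (hLI l hl) (RCfg.mem_box.1 hl).2
      have g2 : (G n).loose p0 (D * (e1 / D ^ 2)) k0 i0 l' := by
        refine H.loose_mono (fun _ => le_rfl) ?_ (RCfg.mem_box.1 hl').2
        nlinarith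
      have g3 := htr0 k0 l i0 l' (hLI l hl) hik (hLI l' hl') g1 g2
      have g4 : D * (D * (e1 / D ^ 2)) = e1 := by field_simp
      rwa [g4] at g3
    obtain ⟨r1, h1', r2, h2', r3, h3', s12, s13, s23, L2, hL2L, hc2, hout⟩ :=
      hone k0 L hLS hLne hLl hLc
    have h1 := hLS h1'
    have h2 := hLS h2'
    have h3 := hLS h3'
    have hL2 : L2 ⊆ (G n).slice k0 := hL2L.trans hLS
    have hL2l : ∀ l ∈ L2, ∀ l' ∈ L2, (G n).loose p0 e k0 l l' := fun l hl l' hl' =>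
      H.loose_mono (fun _ => le_rfl) e1e (hLl l (hL2L hl) l' (hL2L hl'))
    have hL2ne : L2.Nonempty := by
      rw [← card_pos]
      have : (0 : ℝ) < L2.card := lt_of_lt_of_le (hpos _) hc2
      exact_mod_cast this
    obtain ⟨k1, hk1, hu, hT⟩ := hsec k0 L2 hL2 hk0 hL2ne
    set T := L2.filter fun l => (l, k1) ∈ (G n).I with hTd
    have hTS : T ⊆ (G n).slice k1 := fun l hl => H.memSlice.2 (mem_filter.1 hl).2
    have hTc : B.d n ^ (-ν p0 + 4 * e) ≤ (T.card : ℝ) := by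
      have g1 := (mul_le_mul_of_nonneg_left hc2 (hpos (2 * e)).le).trans hT
      rw [← rpow_add'] at g1
      exact (rpow_anti B n (by linarith)).trans g1
    have hTne : T.Nonempty := by
      rw [← card_pos]
      have : (0 : ℝ) < T.card := lt_of_lt_of_le (hpos _) hTc
      exact_mod_cast this
    have hTl : ∀ l ∈ T, ∀ l' ∈ T, (G n).loose p0 (C * e) k1 l l' := by
      intro l hl l' hl'
      obtain ⟨q1, q2⟩ := mem_filter.1 hl
      obtain ⟨q3, q4⟩ := mem_filter.1 hl'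
      exact hbev k0 k1 l l' (H.memSlice.1 (hL2 q1)) q2 (H.memSlice.1 (hL2 q3)) q4
        (hL2l l q1 l' q3)
    obtain ⟨l, hl, l', hl', hloose, hsepc⟩ := hsep k1 T hTS hTne hTl hTc
    obtain ⟨hlL, hlI1⟩ := mem_filter.1 hl
    obtain ⟨hlL', hlI1'⟩ := mem_filter.1 hl'
    have hlI0 := H.memSlice.1 (hL2 hlL)
    have hlI0' := H.memSlice.1 (hL2 hlL')
    obtain ⟨pa', pF', -, -⟩ := hpc k1 l l' hlI1 hlI1' hloose
    obtain ⟨ea, eF, ec⟩ := hevo k0 k1 l l' hlI0 hlI1 hlI0' hlI1' (hL2l l hlL l' hlL')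
    have rslope := hsln k0 r1 h1 r2 h2 r3 h3 s12 s13 s23 L2 hL2 hL2l hc2 hout
    set u := (G n).z k1 - (G n).z k0 with hud
    have huM : |u| ≤ M := hzb k0 hk0 k1 hk1
    set f2 := dd (a n k0 r1) (a n k0 r2) (F n k0 r1) (F n k0 r2) with hf2
    set q' := dd (a n k0 r2) (a n k0 r3) (dd (a n k0 r1) (a n k0 r2) (Q n k0 r1) (Q n k0 r2))
      (dd (a n k0 r1) (a n k0 r3) (Q n k0 r1) (Q n k0 r3)) with hq'
    -- all errors
    set δ1 := B.d n ^ (x - C ^ 2 * D ^ 10 * e) with hδ1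
    have hδ10 : 0 < δ1 := hpos _
    have m1' : B.d n ^ (x - C * (D ^ 5 * (C * e))) ≤ δ1 := rpow_anti B n (by linarith)
    have m2' : B.d n ^ (x - C * e) ≤ δ1 := rpow_anti B n (by linarith)
    set δ := B.d n ^ (x - (C ^ 2 * D ^ 10 * e + e + ε1)) with hδ
    have hδ0 : 0 < δ := hpos _
    have hδδ : 3 * δ1 ≤ δ := by
      have h5 := hcst 12 (x - (C ^ 2 * D ^ 10 * e + e)) c12 (x - C ^ 2 * D ^ 10 * e)
        (by linarith)
      have h6 : B.d n ^ (x - (C ^ 2 * D ^ 10 * e + e)) ≤ δ := rpow_anti B n (by linarith)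
      linarith
    have hδe : B.d n ^ (x - e) ≤ δ := rpow_anti B n (by linarith)
    have hδε : B.d n ^ (x - ε1) ≤ δ := rpow_anti B n (by linarith)
    have hcM : |c n k0 l - c n k0 l'| ≤ 2 * M := by
      have g1 := (hbd k0 l hlI0).2.2.2.1
      have g2 := (hbd k0 l' hlI0').2.2.2.1
      have := abs_sub (c n k0 l) (c n k0 l')
      linarith
    have k1' : |(a n k0 l - a n k0 l') + u * (c n k0 l - c n k0 l')| ≤ δ :=
      (pair_ht (pa'.trans m1') (ea.trans m2')).trans hδδ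
    have k2' : |(F n k0 l - F n k0 l') + μ * u * (Y n k0 l - Y n k0 l')| ≤ δ :=
      (pair_ht (pF'.trans m1') (eF.trans m2')).trans hδδ
    set Λ := B.d n ^ (-(2 * e)) with hΛ
    have hΛ1 : 1 ≤ Λ := by
      have := hcst 1 (-(2 * e)) c1 0 (by linarith)
      rwa [Real.rpow_zero, mul_one] at this
    have hfΛ : |f2| ≤ Λ := by
      have g1 := (hbd k0 r1 (H.memSlice.1 h1)).2.1
      have g2 := (hbd k0 r2 (H.memSlice.1 h2)).2.1
      have g3 := abs_sub (F n k0 r2) (F n k0 r1)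
      have g4 : 0 < |a n k0 r2 - a n k0 r1| := lt_of_lt_of_le (hpos e) s12
      rw [hf2, dd, abs_div, div_le_iff₀ g4]
      have g5 : Λ * B.d n ^ e ≤ Λ * |a n k0 r2 - a n k0 r1| :=
        mul_le_mul_of_nonneg_left s12 (hpos _).le
      have g6 : Λ * B.d n ^ e = B.d n ^ (-e) := by
        rw [hΛ, ← rpow_add']; congr 1; ring
      have g7 := hcst (2 * M) (-e) c2M 0 (by linarith)
      rw [Real.rpow_zero, mul_one] at g7
      linarith
    have hkey := two_key (q' := q') (s := s) hM hΛ1 hδ0.le huM hμ hμ1 hs hfΛ hcM k1' k2'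
      ((hout.oF l hlL l' hlL').trans hδe) ((hout.oY l hlL l' hlL').trans hδe)
      (rslope.trans hδε)
    have hcsep : B.d n ^ y / 6 ≤ |c n k0 l - c n k0 l'| := by
      have h1 : c n k1 l' - c n k1 l = -(c n k0 l - c n k0 l') - ((c n k1 l - c n k1 l') -
          (c n k0 l - c n k0 l')) := by ring
      have h2 := abs_sub (-(c n k0 l - c n k0 l')) ((c n k1 l - c n k1 l') -
          (c n k0 l - c n k0 l'))
      rw [abs_neg] at h2
      rw [h1] at hsepc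
      have h4 := hcst 12 y c12 (x - C ^ 2 * D ^ 10 * e) (by rw [e4]; linarith)
      rw [← hδ1] at h4
      linarith
    -- the slope is small
    have hf3 : |f2| ≤ B.d n ^ (x - (2 * ε1 - e)) :=
      two_div B n (c120.trans hK2) hu.le hcsep hkey (by rw [← hw]; linarith [e3, e4])
    -- `Y` is almost constant
    have hee : e ≤ ε1 := het.trans htε
    have hYc : ∀ l ∈ L2, ∀ l' ∈ L2, |Y n k0 l' - Y n k0 l| ≤ B.d n ^ (x - 3 * ε1) := by
      intro l hl l' hl'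
      have g1 := (hbd k0 l (H.memSlice.1 (hL2 hl))).2.2.2.1
      have g2 := (hbd k0 l' (H.memSlice.1 (hL2 hl'))).2.2.2.1
      have g3 : |c n k0 l' - c n k0 l| ≤ 2 * M := by
        have := abs_sub (c n k0 l') (c n k0 l)
        linarith
      have g4 := Y_close hs ((hout.oY l' hl' l hl).trans (rpow_anti B n
        (show x - 2 * ε1 ≤ x - e by linarith))) (rslope.trans (rpow_anti B n
        (show x - 2 * ε1 ≤ x - ε1 by linarith))) (hf3.trans (rpow_anti B n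
        (show x - 2 * ε1 ≤ x - (2 * ε1 - e) by linarith))) g3 (hpos _).le (hpos _).le
      refine g4.trans ?_
      have b4 := hcst (1 + 2 * M + s * (2 * M)) (x - 3 * ε1) cY (x - 2 * ε1) (by linarith)
      refine le_trans (le_of_eq ?_) b4
      ring
    -- count
    obtain ⟨l0, hl0⟩ := hL2ne
    have hl0I := H.memSlice.1 (hL2 hl0)
    have hcount : (L2.card : ℝ) ≤ B.d n ^ (-ν pY - D * (2 * (3 * ε1))) := by
      refine le_trans (Nat.cast_le.2 (card_le_card ?_)) (hup l0 k0 hl0I)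
      intro l hl
      exact RCfg.mem_box.2 ⟨hL2 hl, hycl k0 l0 l hl0I (H.memSlice.1 (hL2 hl))
        (H.loose_mono (fun _ => le_rfl) (by linarith) (hL2l l0 hl0 l hl)) (hYc l0 hl0 l hl)⟩
    by_contra hcon
    push Not at hcon
    have hlt : B.d n ^ (-ν pY - D * (2 * (3 * ε1))) < B.d n ^ (-ν p0 + e) := by
      refine Real.rpow_lt_rpow_of_exponent_gt (B.pos n) (B.lt n) ?_
      have e7 : (6 * D + 2) * ε1 = D * (2 * (3 * ε1)) + 2 * ε1 := by ring
      rw [e7] at hcon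
      linarith
    linarith
  refine le_of_forall_pos_le_add fun ε hε => ?_
  have h6 : 0 < 6 * D + 2 := by linarith
  have := key (ε / (6 * D + 2)) (by positivity)
  have e1 : (6 * D + 2) * (ε / (6 * D + 2)) = ε := by field_simp
  rwa [e1] at this

/-- the slopes of `35` -/
theorem slope35 (S : SRow B G x M C p0 pp pv pc pa pb pq a F Q c β Y K Φ kp)
    (H : RUnif B G Leg ν D) (hQ : ∀ n k l, Q n k l = 2 * a n k l * F n k l) :
    SSlope B G ν x 2 p0 a F Q c β Y K kp := by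
  intro ε hε
  have hM := S.M1
  refine ⟨ε / 2, by linarith, fun e he hee => ?_⟩
  filter_upwards [S.bd, ev_const_le B (show 0 < ε / 2 by linarith) (2 * M)] with
    n hbd hK k r1 h1 r2 h2 r3 h3 s12 s13 s23 L2 hL2 hLl hc2 hout
  have hpos : ∀ t : ℝ, 0 < B.d n ^ t := fun t => rpos B n t
  have g12 : a n k r2 - a n k r1 ≠ 0 := by
    intro h; rw [h, abs_zero] at s12; have := hpos e; linarith
  have g13 : a n k r3 - a n k r1 ≠ 0 := by
    intro h; rw [h, abs_zero] at s13; have := hpos e; linarith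
  have g23 : a n k r3 - a n k r2 ≠ 0 := by
    intro h; rw [h, abs_zero] at s23; have := hpos e; linarith
  have id1 : dd (a n k r2) (a n k r3) (dd (a n k r1) (a n k r2) (Q n k r1) (Q n k r2))
        (dd (a n k r1) (a n k r3) (Q n k r1) (Q n k r3)) -
      2 * dd (a n k r1) (a n k r2) (F n k r1) (F n k r2) =
      2 * a n k r3 * dd (a n k r2) (a n k r3) (dd (a n k r1) (a n k r2) (F n k r1) (F n k r2))
        (dd (a n k r1) (a n k r3) (F n k r1) (F n k r3)) := by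
    rw [hQ, hQ, hQ]
    unfold dd
    field_simp
    ring
  rw [id1, abs_mul, abs_mul, abs_of_pos (by norm_num : (0:ℝ) < 2)]
  have g1 := (hbd k r3 (H.memSlice.1 h3)).1
  calc 2 * |a n k r3| * _ ≤ (2 * M) * B.d n ^ (x - e) :=
        mul_le_mul (by linarith) hout.og (abs_nonneg _) (by linarith)
    _ ≤ B.d n ^ (-(ε / 2)) * B.d n ^ (x - e) := mul_le_mul_of_nonneg_right hK (hpos _).le
    _ = B.d n ^ (-(ε / 2) + (x - e)) := by rw [rpow_add']
    _ ≤ _ := rpow_anti B n (by linarith)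

end

end Crest.Agent.R136.Cub191
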