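import Crest.Agent.R136.Crf_544
import Crest.Agent.R136.Cub6_191

/-!
# R136, specials of the thin pins, rows (helper544), part 7: rows and closures of `34`

The functions: `a = g 2`, `F = G 5`, `Q = fQ`, `c = g 1`, `β = fB`, `Y = fY`, `K = fK`, `Φ = fP` of
the normalised flags `PP`.
-/

set_option autoImplicit false
set_option linter.unusedSectionVars false
set_option linter.unusedVariables false

open Filter Topology

namespace Crest.Agent.R136.Cr544

open Finset Crest.Agent.R136.NetW191 Crest.Agent.R136.EvW938 Crest.Agent.R136.PrW464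
open Crest.Agent.R136.Net191 Crest.Agent.R136.Qg926 Crest.Agent.R136.Pin851
open Crest.Agent.R136.Gf356 Crest.Agent.R136.Cub191 Crest.Agent.R136.NetW191
open Crest.Agent.R138.Ex926 (Base U)

variable {ι : ℕ → Type*} [∀ n, DecidableEq (ι n)]

section

variable {W : Wnd 18 ι} {E : ∀ n, Finset (ι n)} {κ : ℕ → ℝ} {u : ℕ → Fin 18 → ℝ}
  {f : ∀ n, ι n → FW} {lam : (Fin 18 → ℝ) → ℝ} {x ε : ℝ} {n : ℕ}

/-- the position row -/
noncomputable def wP (κ : ℝ) (P : FW) : ℝ :=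
  fP κ P + κ * P.g 2 ^ 2 * fY P + P.g 2 * fK κ P + κ * (P.g 1 * fQ P)

/-- **rows of the positions** -/
theorem rows_p (hW : PWin W E κ u f {4} lam x) (hx : 0 < x) (hε : 0 < ε) (H : Ge W E ε n)
    {k l l' : ℕ} (hl : (l, k) ∈ (W.cfg0 n (E n)).I) (hl' : (l', k) ∈ (W.cfg0 n (E n)).I)
    (L : (W.cfg0 n (E n)).loose (ind {0, 2, 4, 5, 7, 9, 14, 15} x) ε k l l') :
    |(PP W E κ u f n k l).g 2 - (PP W E κ u f n k l').g 2| ≤ W.B'.d n ^ (x - 16 * ε) ∧
    |(PP W E κ u f n k l).G 5 - (PP W E κ u f n k l').G 5| ≤ W.B'.d n ^ (x - 16 * ε) ∧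
    |fQ (PP W E κ u f n k l) - fQ (PP W E κ u f n k l')| ≤ W.B'.d n ^ (x - 16 * ε) ∧
    |wP (κ n) (PP W E κ u f n k l) - wP (κ n) (PP W E κ u f n k l')| ≤
      W.B'.d n ^ (x - 16 * ε) := by
  have b1 := PP_bn hW H.g H.s hl
  have b2 := PP_bn hW H.g H.s hl'
  obtain ⟨m1, m2, m3, m4, m5, m6, m7⟩ := b1.low
  obtain ⟨o1, o2, o3, o4, o5, o6, o7⟩ := b2.low
  have e36 : 36 * KK W ^ 4 = 2 * (18 * KK W ^ 4) := by ring
  have hτ := fun h8 => Ge.small hW H hε h8
  have D := fun h8 => dt_loose hW hx hε H.g H.s (hτ h8) hl hl' L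
    ⟨ind_mem (by decide), ind_mem (by decide), ind_mem (by decide)⟩
  have d2 := sl_loose hW H.g H.s hl hl' L (s := 2) (by decide) (ind_mem (by decide))
  have d9 := sl_loose hW H.g H.s hl hl' L (s := 9) (by decide) (ind_mem (by decide))
  have d14 := sl_loose hW H.g H.s hl hl' L (s := 14) (by decide) (ind_mem (by decide))
  have d15 := sl_loose hW H.g H.s hl hl' L (s := 15) (by decide) (ind_mem (by decide))
  have hc : 0 ≤ RR W * (KK W ^ 2 * W.B'.d n ^ (x - ε)) := by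
    have h1 := (KR hW).2.1
    have h2 := rp W n (x - ε)
    positivity
  refine ⟨?_, ?_, ?_, ?_⟩
  · exact H.row hW hε (by rw [e36]; exact crude2 m1 o1) fun h8 => two ((D h8).ra d2) hc
  · exact H.row hW hε (by rw [e36]; exact crude2 m2 o2) fun h8 => two ((D h8).rF d9) hc
  · exact H.row hW hε (by rw [e36]; exact crude2 m3 o3) fun h8 => two ((D h8).rQ d2 d9 d14) hc
  · exact H.row hW hε (by rw [e36]; exact crude2 b1.pos b2.pos) fun h8 =>
      two ((D h8).rp d2 d9 d14 d15) hc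

/-- **rows of the velocities** -/
theorem rows_v (hW : PWin W E κ u f {4} lam x) (hx : 0 < x) (hε : 0 < ε) (H : Ge W E ε n)
    {k l l' : ℕ} (hl : (l, k) ∈ (W.cfg0 n (E n)).I) (hl' : (l', k) ∈ (W.cfg0 n (E n)).I)
    (L : (W.cfg0 n (E n)).loose (ind {0, 1, 3, 4, 5, 6, 7, 10, 15} x) ε k l l') :
    |(PP W E κ u f n k l).g 1 - (PP W E κ u f n k l').g 1| ≤ W.B'.d n ^ (x - 16 * ε) ∧
    |fB (κ n) (PP W E κ u f n k l) - fB (κ n) (PP W E κ u f n k l')| ≤
      W.B'.d n ^ (x - 16 * ε) ∧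
    |fY (PP W E κ u f n k l) - fY (PP W E κ u f n k l')| ≤ W.B'.d n ^ (x - 16 * ε) ∧
    |fK (κ n) (PP W E κ u f n k l) - fK (κ n) (PP W E κ u f n k l')| ≤
      W.B'.d n ^ (x - 16 * ε) ∧
    |(fP (κ n) (PP W E κ u f n k l) + fB (κ n) (PP W E κ u f n k l) *
        (PP W E κ u f n k l).G 5) -
      (fP (κ n) (PP W E κ u f n k l') + fB (κ n) (PP W E κ u f n k l') *
        (PP W E κ u f n k l').G 5)| ≤ W.B'.d n ^ (x - 16 * ε) := by
  have b1 := PP_bn hW H.g H.s hl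
  have b2 := PP_bn hW H.g H.s hl'
  obtain ⟨m1, m2, m3, m4, m5, m6, m7⟩ := b1.low
  obtain ⟨o1, o2, o3, o4, o5, o6, o7⟩ := b2.low
  have e36 : 36 * KK W ^ 4 = 2 * (18 * KK W ^ 4) := by ring
  have hτ := fun h8 => Ge.small hW H hε h8
  have D := fun h8 => dt_loose hW hx hε H.g H.s (hτ h8) hl hl' L
    ⟨ind_mem (by decide), ind_mem (by decide), ind_mem (by decide)⟩
  have d1 := sl_loose hW H.g H.s hl hl' L (s := 1) (by decide) (ind_mem (by decide))
  have d3 := sl_loose hW H.g H.s hl hl' L (s := 3) (by decide) (ind_mem (by decide))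
  have d6 := sl_loose hW H.g H.s hl hl' L (s := 6) (by decide) (ind_mem (by decide))
  have d10 := sl_loose hW H.g H.s hl hl' L (s := 10) (by decide) (ind_mem (by decide))
  have d15 := sl_loose hW H.g H.s hl hl' L (s := 15) (by decide) (ind_mem (by decide))
  have hc : 0 ≤ RR W * (KK W ^ 2 * W.B'.d n ^ (x - ε)) := by
    have h1 := (KR hW).2.1
    have h2 := rp W n (x - ε)
    positivity
  refine ⟨?_, ?_, ?_, ?_, ?_⟩
  · exact H.row hW hε (by rw [e36]; exact crude2 m4 o4) fun h8 => two ((D h8).rc d1) hc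
  · exact H.row hW hε (by rw [e36]; exact crude2 m5 o5) fun h8 => two ((D h8).rB d1 d3) hc
  · exact H.row hW hε (by rw [e36]; exact crude2 m6 o6) fun h8 => two ((D h8).rY d6) hc
  · exact H.row hW hε (by rw [e36]; exact crude2 m7 o7) fun h8 => two ((D h8).rK d1 d6 d10) hc
  · exact H.row hW hε (by rw [e36]; exact crude2 b1.vel b2.vel) fun h8 => by
      rw [abs_sub_comm]; exact (D h8).rv d1 d3 d6 d10 d15

/-- rows of the small boxes of the velocities -/
theorem rows_c (hW : PWin W E κ u f {4} lam x) (hx : 0 < x) (hε : 0 < ε) (H : Ge W E ε n)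
    {k l l' : ℕ} (hl : (l, k) ∈ (W.cfg0 n (E n)).I) (hl' : (l', k) ∈ (W.cfg0 n (E n)).I)
    (L : (W.cfg0 n (E n)).loose (ind {0, 1, 4, 5, 6, 7} x) ε k l l') :
    |(PP W E κ u f n k l).g 1 - (PP W E κ u f n k l').g 1| ≤ W.B'.d n ^ (x - 16 * ε) ∧
    |fY (PP W E κ u f n k l) - fY (PP W E κ u f n k l')| ≤ W.B'.d n ^ (x - 16 * ε) := by
  have b1 := PP_bn hW H.g H.s hl
  have b2 := PP_bn hW H.g H.s hl'
  obtain ⟨m1, m2, m3, m4, m5, m6, m7⟩ := b1.low
  obtain ⟨o1, o2, o3, o4, o5, o6, o7⟩ := b2.low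
  have e36 : 36 * KK W ^ 4 = 2 * (18 * KK W ^ 4) := by ring
  have D := fun h8 => dt_loose hW hx hε H.g H.s (Ge.small hW H hε h8) hl hl' L
    ⟨ind_mem (by decide), ind_mem (by decide), ind_mem (by decide)⟩
  have d1 := sl_loose hW H.g H.s hl hl' L (s := 1) (by decide) (ind_mem (by decide))
  have d6 := sl_loose hW H.g H.s hl hl' L (s := 6) (by decide) (ind_mem (by decide))
  have hc : 0 ≤ RR W * (KK W ^ 2 * W.B'.d n ^ (x - ε)) := by
    have h1 := (KR hW).2.1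
    have h2 := rp W n (x - ε)
    positivity
  refine ⟨?_, ?_⟩
  · exact H.row hW hε (by rw [e36]; exact crude2 m4 o4) fun h8 => two ((D h8).rc d1) hc
  · exact H.row hW hε (by rw [e36]; exact crude2 m6 o6) fun h8 => two ((D h8).rY d6) hc

/-- rows of the sheet -/
theorem rows_z (hW : PWin W E κ u f {4} lam x) (hx : 0 < x) (hε : 0 < ε) (H : Ge W E ε n)
    {k l l' : ℕ} (hl : (l, k) ∈ (W.cfg0 n (E n)).I) (hl' : (l', k) ∈ (W.cfg0 n (E n)).I)
    (L : (W.cfg0 n (E n)).loose (ind {0, 2, 3, 4, 5, 7, 9, 10} x) ε k l l') :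
    |(PP W E κ u f n k l).g 2 - (PP W E κ u f n k l').g 2| ≤ W.B'.d n ^ (x - 16 * ε) ∧
    |(PP W E κ u f n k l).G 5 - (PP W E κ u f n k l').G 5| ≤ W.B'.d n ^ (x - 16 * ε) ∧
    |(fB (κ n) (PP W E κ u f n k l) - fB (κ n) (PP W E κ u f n k l')) -
      2 * κ n * (PP W E κ u f n k l).g 2 * ((PP W E κ u f n k l).g 1 -
        (PP W E κ u f n k l').g 1)| ≤ W.B'.d n ^ (x - 16 * ε) ∧
    |(fK (κ n) (PP W E κ u f n k l) + 4 * κ n * (PP W E κ u f n k l).g 1 *
        (PP W E κ u f n k l).G 5 + 2 * κ n * (PP W E κ u f n k l).g 2 *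
          fY (PP W E κ u f n k l)) -
      (fK (κ n) (PP W E κ u f n k l') + 4 * κ n * (PP W E κ u f n k l').g 1 *
        (PP W E κ u f n k l').G 5 + 2 * κ n * (PP W E κ u f n k l').g 2 *
          fY (PP W E κ u f n k l'))| ≤ W.B'.d n ^ (x - 16 * ε) := by
  have b1 := PP_bn hW H.g H.s hl
  have b2 := PP_bn hW H.g H.s hl'
  obtain ⟨m1, m2, m3, m4, m5, m6, m7⟩ := b1.low
  obtain ⟨o1, o2, o3, o4, o5, o6, o7⟩ := b2.low
  have e36 : 36 * KK W ^ 4 = 2 * (18 * KK W ^ 4) := by ring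
  have D := fun h8 => dt_loose hW hx hε H.g H.s (Ge.small hW H hε h8) hl hl' L
    ⟨ind_mem (by decide), ind_mem (by decide), ind_mem (by decide)⟩
  have d2 := sl_loose hW H.g H.s hl hl' L (s := 2) (by decide) (ind_mem (by decide))
  have d3 := sl_loose hW H.g H.s hl hl' L (s := 3) (by decide) (ind_mem (by decide))
  have d9 := sl_loose hW H.g H.s hl hl' L (s := 9) (by decide) (ind_mem (by decide))
  have d10 := sl_loose hW H.g H.s hl hl' L (s := 10) (by decide) (ind_mem (by decide))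
  have hc : 0 ≤ RR W * (KK W ^ 2 * W.B'.d n ^ (x - ε)) := by
    have h1 := (KR hW).2.1
    have h2 := rp W n (x - ε)
    positivity
  obtain ⟨k1, k2, k3, k4, k5⟩ := KR hW
  refine ⟨?_, ?_, ?_, ?_⟩
  · exact H.row hW hε (by rw [e36]; exact crude2 m1 o1) fun h8 => two ((D h8).ra d2) hc
  · exact H.row hW hε (by rw [e36]; exact crude2 m2 o2) fun h8 => two ((D h8).rF d9) hc
  · refine H.row hW hε ?_ fun h8 => ?_
    · have t1 := crude2 b1.B b2.B
      have t2 := mm (mm b1.κ2 (b1.g 2)) (crude2 (b1.g 1) (b2.g 1))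
      have t3 := abs_sub (fB (κ n) (PP W E κ u f n k l) - fB (κ n) (PP W E κ u f n k l'))
        (2 * κ n * (PP W E κ u f n k l).g 2 * ((PP W E κ u f n k l).g 1 -
        (PP W E κ u f n k l').g 1))
      have e1 : 2 * KK W * (2 * KK W) = 4 * KK W ^ 2 := by ring
      rw [e1] at t2
      linarith [pow_nonneg (zero_le_one.trans k1) 4]
    · have h1 : |coW (κ n) (PP W E κ u f n k l) (PP W E κ u f n k l') 1| ≤ 6 * KK W := by
        have h2 := (frames (κ n) (PP W E κ u f n k l) (PP W E κ u f n k l')).2.1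
        have h3 : coW (κ n) (PP W E κ u f n k l) (PP W E κ u f n k l') 1 =
          (PP W E κ u f n k l').g 1 - (PP W E κ u f n k l).g 1 := by linarith
        rw [h3]
        have := crude2 (b2.g 1) (b1.g 1)
        linarith
      have := (D h8).rBz h1 d2 d3
      change |_| ≤ RR W * (KK W ^ 2 * W.B'.d n ^ (x - ε)) at this
      linarith
  · exact H.row hW hε (by rw [e36]; exact crude2 b1.sheet b2.sheet) fun h8 =>
      two ((D h8).rz d2 d9 d10) hc

/-! ### closures -/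

/-- a slot is narrowed -/
theorem loose_upd (G : RCfg (Fin 18)) {p q : Fin 18 → ℝ} {s : Fin 18} {y : ℝ} {k l l' : ℕ}
    (hs : |G.rel k l l' s| ≤ G.ρ ^ (y - ε))
    (hj : ∀ j, j ≠ s → p j = q j) (L : G.loose q ε k l l') :
    G.loose (Function.update p s y) ε k l l' := by
  intro j
  by_cases h : j = s
  · subst h; rw [Function.update_self]; exact hs
  · rw [Function.update_of_ne h, hj j h]; exact L j

theorem acl34 (hW : PWin W E κ u f {4} lam x) (hx : 0 < x) (hε : 0 < ε) (H : Ge W E ε n)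
    {k l l' : ℕ} (hl : (l, k) ∈ (W.cfg0 n (E n)).I) (hl' : (l', k) ∈ (W.cfg0 n (E n)).I)
    {y : ℝ} (hy0 : 0 ≤ y) (hy : y ≤ x)
    (L : (W.cfg0 n (E n)).loose (ind {0, 4, 5, 7} x) ε k l l')
    (h : |(PP W E κ u f n k l').g 2 - (PP W E κ u f n k l).g 2| ≤ W.B'.d n ^ y) :
    (W.cfg0 n (E n)).loose (Function.update (ind {0, 4, 5, 7} x) 2 y) ε k l l' := by
  refine loose_upd _ ?_ (fun _ _ => rfl) L
  obtain ⟨k1, k2, k3, k4, k5⟩ := KR hW
  obtain ⟨n0, n1, n2, n3, n4, n5, n6⟩ := NN_ge hW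
  have b1 := PP_bn hW H.g H.s hl
  have e1 := PP_g0 hW H.g H.s hl
  have e2 := PP_g0 hW H.g H.s hl'
  have hs := slot_pair hW H.g H.s hl hl' (s := 2) (by decide) (by decide)
  obtain ⟨f0, f1, f2, f3⟩ := frames (κ n) (PP W E κ u f n k l) (PP W E κ u f n k l')
  have hρ := ra W n hy
  have hp := rp W n x
  have hc : |coW (κ n) (PP W E κ u f n k l) (PP W E κ u f n k l') 2| ≤
      (1 + 2 * KK W ^ 2) * W.B'.d n ^ y := by
    have e3 : coW (κ n) (PP W E κ u f n k l) (PP W E κ u f n k l') 2 =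
        ((PP W E κ u f n k l').g 2 - (PP W E κ u f n k l).g 2) -
        (PP W E κ u f n k l).g 1 * ((PP W E κ u f n k l').g 0 - (PP W E κ u f n k l).g 0) := by
      rw [f2, f0]; ring
    rw [e3]
    have h1 := mm (b1.g 1) (crude2 e2 e1)
    have h2 := abs_sub ((PP W E κ u f n k l').g 2 - (PP W E κ u f n k l).g 2)
      ((PP W E κ u f n k l).g 1 * ((PP W E κ u f n k l').g 0 - (PP W E κ u f n k l).g 0))
    have h3 : KK W * (2 * (KK W * W.B'.d n ^ x)) ≤ 2 * KK W ^ 2 * W.B'.d n ^ y := by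
      have := mul_le_mul_of_nonneg_left hρ (by positivity : 0 ≤ 2 * KK W ^ 2)
      linarith
    linarith
  refine H.absorb (hs.trans ?_)
  have h4 := mul_le_mul_of_nonneg_left hc (by linarith : (0:ℝ) ≤ KK W)
  have h5 := mul_le_mul_of_nonneg_right n3 (rp W n y).le
  refine h4.trans (le_trans (le_of_eq ?_) h5)
  ring

/-- the slot `c` -/
theorem c34 (hW : PWin W E κ u f {4} lam x) (H : Ge W E ε n)
    {k l l' : ℕ} (hl : (l, k) ∈ (W.cfg0 n (E n)).I) (hl' : (l', k) ∈ (W.cfg0 n (E n)).I)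
    {y : ℝ} (h : |(PP W E κ u f n k l').g 1 - (PP W E κ u f n k l).g 1| ≤ W.B'.d n ^ y) :
    |(W.cfg0 n (E n)).rel k l l' 1| ≤ W.B'.d n ^ (y - ε) := by
  obtain ⟨k1, k2, k3, k4, k5⟩ := KR hW
  obtain ⟨n0, n1, n2, n3, n4, n5, n6⟩ := NN_ge hW
  have hs := slot_pair hW H.g H.s hl hl' (s := 1) (by decide) (by decide)
  obtain ⟨f0, f1, f2, f3⟩ := frames (κ n) (PP W E κ u f n k l) (PP W E κ u f n k l')
  have e3 : coW (κ n) (PP W E κ u f n k l) (PP W E κ u f n k l') 1 =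
      (PP W E κ u f n k l').g 1 - (PP W E κ u f n k l).g 1 := by linarith
  rw [e3] at hs
  refine H.absorb (hs.trans ?_)
  exact mul_le_mul (by nlinarith) h (abs_nonneg _) (by linarith)

theorem bcl34 (hW : PWin W E κ u f {4} lam x) (hx : 0 < x) (hε : 0 < ε) (H : Ge W E ε n)
    {k l l' : ℕ} (hl : (l, k) ∈ (W.cfg0 n (E n)).I) (hl' : (l', k) ∈ (W.cfg0 n (E n)).I)
    {y : ℝ} (hy0 : 0 ≤ y) (hy : y + 16 * ε ≤ x)
    (L : (W.cfg0 n (E n)).loose (ind {0, 2, 4, 5, 7, 9, 14, 15} x) ε k l l')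
    (L' : (W.cfg0 n (E n)).loose (ind {0, 1, 4, 5, 6, 7} x) ε k l l')
    (h : |fB (κ n) (PP W E κ u f n k l') - fB (κ n) (PP W E κ u f n k l)| ≤ W.B'.d n ^ y) :
    (W.cfg0 n (E n)).loose (Function.update (ind {0, 1, 2, 4, 5, 6, 7, 9, 14, 15} x) 3 y) ε
      k l l' := by
  obtain ⟨k1, k2, k3, k4, k5⟩ := KR hW
  obtain ⟨n0, n1, n2, n3, n4, n5, n6⟩ := NN_ge hW
  have h8 : ε < x / 8 := by linarith
  have D := dt_loose hW hx hε H.g H.s (Ge.small hW H hε h8) hl hl' L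
    ⟨ind_mem (by decide), ind_mem (by decide), ind_mem (by decide)⟩
  have d1 := sl_loose hW H.g H.s hl hl' L' (s := 1) (by decide) (ind_mem (by decide))
  have hb := D.sb d1
  have hs := slot_pair hW H.g H.s hl hl' (s := 3) (by decide) (by decide)
  have h3 : |(W.cfg0 n (E n)).rel k l l' 3| ≤ W.B'.d n ^ (y - ε) := by
    refine H.absorb (hs.trans ?_)
    have hc : |coW (κ n) (PP W E κ u f n k l) (PP W E κ u f n k l') 3| ≤
        (1 + RR W * KK W ^ 2) * W.B'.d n ^ y := by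
      have h4 := abs_add_le (coW (κ n) (PP W E κ u f n k l) (PP W E κ u f n k l') 3 -
        (fB (κ n) (PP W E κ u f n k l') - fB (κ n) (PP W E κ u f n k l)))
        (fB (κ n) (PP W E κ u f n k l') - fB (κ n) (PP W E κ u f n k l))
      rw [sub_add_cancel] at h4
      have h5 : RR W * (KK W ^ 2 * W.B'.d n ^ (x - ε)) ≤ RR W * KK W ^ 2 * W.B'.d n ^ y := by
        rw [← mul_assoc]
        exact mul_le_mul_of_nonneg_left (ra W n (by linarith)) (by positivity)
      change |_| ≤ RR W * (KK W ^ 2 * W.B'.d n ^ (x - ε)) at hb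
      linarith
    have h4 := mul_le_mul_of_nonneg_left hc (by linarith : (0:ℝ) ≤ KK W)
    have h5 := mul_le_mul_of_nonneg_right n4 (rp W n y).le
    refine h4.trans (le_trans (le_of_eq ?_) h5)
    ring
  have key : ∀ j : Fin 18, j ≠ 3 →
      (j ∈ ({0, 1, 2, 4, 5, 6, 7, 9, 14, 15} : Finset (Fin 18)) ↔
        j ∈ ({0, 2, 4, 5, 7, 9, 14, 15} : Finset (Fin 18))) ∨
      (j ∈ ({0, 1, 2, 4, 5, 6, 7, 9, 14, 15} : Finset (Fin 18)) ↔
        j ∈ ({0, 1, 4, 5, 6, 7} : Finset (Fin 18))) := by decide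
  intro j
  by_cases hj : j = 3
  · subst hj; rw [Function.update_self]; exact h3
  · rw [Function.update_of_ne hj]
    rcases key j hj with e | e
    · have e1 : ind {0, 1, 2, 4, 5, 6, 7, 9, 14, 15} x j =
          ind {0, 2, 4, 5, 7, 9, 14, 15} x j := by unfold ind; simp only [e]
      rw [e1]; exact L j
    · have e1 : ind {0, 1, 2, 4, 5, 6, 7, 9, 14, 15} x j =
          ind {0, 1, 4, 5, 6, 7} x j := by unfold ind; simp only [e]
      rw [e1]; exact L' j

theorem ycl34 (hW : PWin W E κ u f {4} lam x) (hx : 0 < x) (hε : 0 < ε) (H : Ge W E ε n)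
    (hc : KK W ^ 2 * W.B'.d n ^ (x - ε) ≤ 1 ∨ x ≤ ε)
    {k l l' : ℕ} (hl : (l, k) ∈ (W.cfg0 n (E n)).I) (hl' : (l', k) ∈ (W.cfg0 n (E n)).I)
    (L : (W.cfg0 n (E n)).loose (ind {0, 4, 5, 7} x) ε k l l')
    (h : |fY (PP W E κ u f n k l') - fY (PP W E κ u f n k l)| ≤ W.B'.d n ^ (x - ε)) :
    (W.cfg0 n (E n)).loose (ind {0, 4, 5, 6, 7} x) (2 * ε) k l l' := by
  obtain ⟨k1, k2, k3, k4, k5⟩ := KR hW
  obtain ⟨n0, n1, n2, n3, n4, n5, n6⟩ := NN_ge hW
  have h6 : |(W.cfg0 n (E n)).rel k l l' 6| ≤ W.B'.d n ^ (x - 2 * ε) := by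
    rcases hc with hc | hc
    · have D := dt_loose hW hx hε H.g H.s hc hl hl' L
        ⟨ind_mem (by decide), ind_mem (by decide), ind_mem (by decide)⟩
      have hb := D.sY
      change |_| ≤ RR W * (KK W ^ 2 * W.B'.d n ^ (x - ε)) at hb
      have hs := slot_pair hW H.g H.s hl hl' (s := 6) (by decide) (by decide)
      have e2 : x - 2 * ε = (x - ε) - ε := by ring
      rw [e2]
      refine H.absorb (hs.trans ?_)
      have h4 := abs_add_le (coW (κ n) (PP W E κ u f n k l) (PP W E κ u f n k l') 6 -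
        (fY (PP W E κ u f n k l') - fY (PP W E κ u f n k l)) / 3)
        ((fY (PP W E κ u f n k l') - fY (PP W E κ u f n k l)) / 3)
      rw [sub_add_cancel, abs_div (fY (PP W E κ u f n k l') - fY (PP W E κ u f n k l)),
        abs_of_pos (by norm_num : (0:ℝ) < 3)] at h4
      have h7 : |coW (κ n) (PP W E κ u f n k l) (PP W E κ u f n k l') 6| ≤
          (1 + RR W * KK W ^ 2) * W.B'.d n ^ (x - ε) := by
        have := rp W n (x - ε)
        linarith
      have h4 := mul_le_mul_of_nonneg_left h7 (by linarith : (0:ℝ) ≤ KK W)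
      have h5 := mul_le_mul_of_nonneg_right n4 (rp W n (x - ε)).le
      refine h4.trans (le_trans (le_of_eq ?_) h5)
      ring
    · have h1 : |(W.cfg0 n (E n)).rel k l l' 6| ≤ NN W * W.B'.d n ^ (0:ℝ) := by
        rw [Real.rpow_zero, mul_one]
        refine (hW.ww.rel_le H.g H.s hl hl' 6).trans ?_
        have h2 := (KK_ge hW 6).2.2.2.2.2.1
        have h3 := (tS_parts hW 6).2.2.2.2.2
        nlinarith
      refine (H.absorb h1).trans (ra W n (by linarith))
  intro j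
  by_cases hj : j = 6
  · subst hj; rw [ind_mem (by decide)]; exact h6
  · have key : ∀ j : Fin 18, j ≠ 6 → (j ∈ ({0, 4, 5, 6, 7} : Finset (Fin 18)) ↔
      j ∈ ({0, 4, 5, 7} : Finset (Fin 18))) := by decide
    have e := key j hj
    have e1 : ind {0, 4, 5, 6, 7} x j = ind {0, 4, 5, 7} x j := by unfold ind; simp only [e]
    rw [e1]
    exact (L j).trans (ra W n (by linarith))

end

end Crest.Agent.R136.Cr544
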