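import Crest.Agent.R136.Cub6_191

/-!
# R136, the specials of the thin pins: `slope34` (helper848)

The two slopes of the special case `b = 4` : `q' = 3 f2` (`Z`-cells: `A, B, AB, AA` narrow).
-/

set_option autoImplicit false
set_option linter.unusedVariables false

open Filter Topology

namespace Crest.Agent.R136.Cub191

open Finset
open Crest.Agent.R136.Qd329
open Crest.Agent.R138.Ex926 (Base U)
open Crest.Agent.R136.Gf356

/-- one pair in a `Z`-cell -/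
theorem brk34 {κ M δ Λ a a' F F' c c' β β' Y Y' K K' a1 a2 f2 q2 q' : ℝ} (hκ : |κ| ≤ 1)
    (hM : 1 ≤ M) (hδ : 0 ≤ δ) (ha : |a| ≤ M) (ha1 : |a1| ≤ M) (ha2 : |a2| ≤ M) (hc' : |c'| ≤ M)
    (hY' : |Y'| ≤ M) (hf : |f2| ≤ Λ) (z1 : |a - a'| ≤ δ) (z2 : |F - F'| ≤ δ)
    (z3 : |(β - β') - 2 * κ * a * (c - c')| ≤ δ)
    (z4 : |(K + 4 * κ * c * F + 2 * κ * a * Y) - (K' + 4 * κ * c' * F' + 2 * κ * a' * Y')| ≤ δ)
    (oY : |(Y - Y') + q' * (c - c')| ≤ δ)
    (oK : |(K - K') + κ * (a1 + a2) * (Y - Y') + κ * q2 * (c - c') - f2 * (β - β')| ≤ δ) :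
    |κ * (c - c') * ((a1 + a2) * q' - q2 + 2 * f2 * a + 4 * F - 2 * a * q')| ≤
      (2 + 10 * M + Λ) * δ := by
  have id1 : κ * (c - c') * ((a1 + a2) * q' - q2 + 2 * f2 * a + 4 * F - 2 * a * q') =
      ((K + 4 * κ * c * F + 2 * κ * a * Y) - (K' + 4 * κ * c' * F' + 2 * κ * a' * Y')) -
      ((K - K') + κ * (a1 + a2) * (Y - Y') + κ * q2 * (c - c') - f2 * (β - β')) -
      4 * κ * c' * (F - F') - 2 * κ * Y' * (a - a') -
      κ * (2 * a - (a1 + a2)) * ((Y - Y') + q' * (c - c')) -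
      f2 * ((β - β') - 2 * κ * a * (c - c')) := by ring
  rw [id1]
  have hM0 : 0 ≤ M := by linarith
  have t3 : |4 * κ * c' * (F - F')| ≤ 4 * M * δ := by
    rw [abs_mul, abs_mul, abs_mul, abs_of_pos (by norm_num : (0:ℝ) < 4)]
    refine mul_le_mul ?_ z2 (abs_nonneg _) (by positivity)
    have := mul_le_mul hκ hc' (abs_nonneg _) zero_le_one
    linarith
  have t4 : |2 * κ * Y' * (a - a')| ≤ 2 * M * δ := by
    rw [abs_mul, abs_mul, abs_mul, abs_of_pos (by norm_num : (0:ℝ) < 2)]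
    refine mul_le_mul ?_ z1 (abs_nonneg _) (by positivity)
    have := mul_le_mul hκ hY' (abs_nonneg _) zero_le_one
    linarith
  have t5 : |κ * (2 * a - (a1 + a2)) * ((Y - Y') + q' * (c - c'))| ≤ 4 * M * δ := by
    rw [abs_mul, abs_mul]
    refine mul_le_mul ?_ oY (abs_nonneg _) (by positivity)
    have h1 : |2 * a - (a1 + a2)| ≤ 4 * M := by
      rw [abs_le] at ha ha1 ha2 ⊢
      constructor <;> linarith [ha.1, ha.2, ha1.1, ha1.2, ha2.1, ha2.2]
    have := mul_le_mul hκ h1 (abs_nonneg _) zero_le_one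
    linarith
  have t6 : |f2 * ((β - β') - 2 * κ * a * (c - c'))| ≤ Λ * δ := by
    rw [abs_mul]
    exact mul_le_mul hf z3 (abs_nonneg _) ((abs_nonneg _).trans hf)
  rw [abs_le] at z4 oK t3 t4 t5 t6 ⊢
  constructor <;> nlinarith [z4.1, z4.2, oK.1, oK.2, t3.1, t3.2, t4.1, t4.2, t5.1, t5.2, t6.1,
    t6.2]

/-- two pairs with separated `a` -/
theorem two34 {κ κ0 w δ Ω a a' F F' c c' d d' f2 q2 q' s2 : ℝ} (hκ0 : 0 < κ0) (hw : 0 < w)
    (hκ : κ0 ≤ |κ|) (hc : w < |c' - c|) (hd : w < |d' - d|) (hΩ : 0 ≤ Ω) (hδ : 0 ≤ δ)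
    (b1 : |κ * (c - c') * (s2 * q' - q2 + 2 * f2 * a + 4 * F - 2 * a * q')| ≤ Ω)
    (b2 : |κ * (d - d') * (s2 * q' - q2 + 2 * f2 * a' + 4 * F' - 2 * a' * q')| ≤ Ω)
    (hF : |(F - F') - f2 * (a - a')| ≤ δ) (ha : w / 2 < |a - a'|) :
    |q' - 3 * f2| ≤ (2 * (Ω / (κ0 * w)) + 4 * δ) / w := by
  have hkw : 0 < κ0 * w := mul_pos hκ0 hw
  have brk : ∀ {y z : ℝ}, w < |y| → |κ * -y * z| ≤ Ω → |z| ≤ Ω / (κ0 * w) := by
    intro y z hy hz
    rw [le_div_iff₀ hkw]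
    rw [abs_mul, abs_mul, abs_neg] at hz
    have h1 : κ0 * w ≤ |κ| * |y| := mul_le_mul hκ hy.le hw.le (abs_nonneg _)
    have h2 := mul_le_mul_of_nonneg_right h1 (abs_nonneg z)
    linarith
  have e1 := brk hc (by rw [neg_sub]; exact b1)
  have e2 := brk hd (by rw [neg_sub]; exact b2)
  have id1 : 2 * ((q' - 3 * f2) * (a - a')) =
      (s2 * q' - q2 + 2 * f2 * a' + 4 * F' - 2 * a' * q') -
      (s2 * q' - q2 + 2 * f2 * a + 4 * F - 2 * a * q') +
      4 * ((F - F') - f2 * (a - a')) := by ring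
  have h3 : |2 * ((q' - 3 * f2) * (a - a'))| ≤ 2 * (Ω / (κ0 * w)) + 4 * δ := by
    rw [id1]
    rw [abs_le] at e1 e2 hF ⊢
    constructor <;> linarith [e1.1, e1.2, e2.1, e2.2, hF.1, hF.2]
  rw [le_div_iff₀ hw]
  rw [abs_mul, abs_mul, abs_of_pos (by norm_num : (0:ℝ) < 2)] at h3
  have h4 := mul_le_mul_of_nonneg_left ha.le (abs_nonneg (q' - 3 * f2))
  linarith

section

variable {κ : Type} {B : Base} {G : ℕ → RCfg κ} {Leg : Set (κ → ℝ)} {ν : (κ → ℝ) → ℝ}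
  {D x M C m : ℝ} {p0 pp pv pc ppv : κ → ℝ} {pa pb pq : ℝ → κ → ℝ}
  {a F Q c β Y K Φ : ℕ → ℕ → ℕ → ℝ} {kp : ℕ → ℝ}

set_option maxHeartbeats 1000000 in
/-- **the slopes of `34`** -/
theorem slope34 (H : RUnif B G Leg ν D)
    (S : SRow B G x M C p0 pp pv pc pa pb pq a F Q c β Y K Φ kp)
    (P : SProf Leg ν x m p0 pp pv pc ppv pa pb pq) {pz : κ → ℝ} {pqz : ℝ → κ → ℝ}
    (hz : pz ∈ Leg) (hge : ∀ j, p0 j ≤ pz j) (hqz : ∀ y, 0 ≤ y → y ≤ x → pqz y ∈ Leg)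
    (H5 : ∀ y, 0 ≤ y → y ≤ x → m * y ≤ ν pz - ν (pqz y))
    (zcl : ∀ y : ℝ, 0 ≤ y → y ≤ x → ∀ ε : ℝ, 0 < ε → ∀ᶠ n in (U : Filter ℕ), ∀ k l l',
      (l, k) ∈ (G n).I → (l', k) ∈ (G n).I → (G n).loose pz ε k l l' →
        |c n k l' - c n k l| ≤ B.d n ^ y → (G n).loose (pqz y) ε k l l')
    (zrow : ∀ ε : ℝ, 0 < ε → ∀ᶠ n in (U : Filter ℕ), ∀ k l l', (l, k) ∈ (G n).I →
      (l', k) ∈ (G n).I → (G n).loose pz ε k l l' →
        |a n k l - a n k l'| ≤ B.d n ^ (x - C * ε) ∧ |F n k l - F n k l'| ≤ B.d n ^ (x - C * ε) ∧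
        |(β n k l - β n k l') - 2 * kp n * a n k l * (c n k l - c n k l')| ≤
          B.d n ^ (x - C * ε) ∧
        |(K n k l + 4 * kp n * c n k l * F n k l + 2 * kp n * a n k l * Y n k l) -
          (K n k l' + 4 * kp n * c n k l' * F n k l' + 2 * kp n * a n k l' * Y n k l')| ≤
          B.d n ^ (x - C * ε)) :
    SSlope B G ν x 3 p0 a F Q c β Y K kp := by
  classical
  intro ε hε
  have hD := H.D1
  have hD0 : 0 < D := by linarith
  have hC := S.C1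
  have hM := S.M1
  have hx := S.x0
  have hm := P.m0
  set t := min x ε with ht
  have ht0 : 0 < t := lt_min hx hε
  set K' := C * D ^ 5 + 4 + 2 * ((2 + 4 * D ^ 7) / m) with hK
  have hK0 : 0 < K' := by positivity
  refine ⟨t / K', by positivity, fun e he hee => ?_⟩
  have htx : t ≤ x := min_le_left _ _
  have htε : t ≤ ε := min_le_right _ _
  have hKe : K' * e ≤ t := by
    rw [le_div_iff₀ hK0] at hee; linarith
  set y := (2 * e + 4 * D ^ 7 * e) / m with hy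
  have hy0 : 0 ≤ y := by positivity
  have hexp : K' * e = C * (D ^ 5 * e) + 4 * e + 2 * y := by rw [hK, hy]; ring
  have q1 : 0 ≤ C * (D ^ 5 * e) := by positivity
  have hyx : y ≤ x := by linarith
  have hD7 : D * e ≤ D ^ 7 * e := by
    have := D_pows hD he 1 7 (by norm_num)
    rwa [pow_one] at this
  set y2 := (2 * e + 2 * D * e) / m with hy2
  have hy2y : y2 ≤ y := by
    rw [hy2, hy]
    exact div_le_div_of_nonneg_right (by nlinarith [mul_pos hD0 he]) hm.le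
  filter_upwards [sep_pair' (c := c) (x := x) H hz P.l0 hge hqz hm H5 zcl he (g := 2 * e)
      (by linarith) hyx, close_card H S P he (g := 2 * e) (by linarith) (hy2y.trans hyx), S.bd,
    S.kpl e he,
    zrow _ (show 0 < D ^ 5 * e by positivity), ev_const_le B he (32 * M)] with
    n hsep hclose hbd hkp hz' hcn k r1 h1 r2 h2 r3 h3 s12 s13 s23 L2 hL2 hloc hc2 hout
  have hpos : ∀ t : ℝ, 0 < B.d n ^ t := fun t => rpos B n t
  have hcst : ∀ w t : ℝ, w ≤ 32 * M → ∀ t', t + e ≤ t' → w * B.d n ^ t' ≤ B.d n ^ t := by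
    intro w t hw t' ht
    calc w * B.d n ^ t' ≤ B.d n ^ (-e) * B.d n ^ t' :=
          mul_le_mul_of_nonneg_right (hw.trans hcn) (hpos _).le
      _ = B.d n ^ (-e + t') := by rw [rpow_add']
      _ ≤ _ := rpow_anti B n (by linarith)
  have hL2pos : (0 : ℝ) < L2.card := lt_of_lt_of_le (hpos _) hc2
  have hL2ne : L2.Nonempty := by
    rw [← card_pos]; exact_mod_cast hL2pos
  have hhalf : 2 * B.d n ^ (-ν p0 + 2 * e) ≤ B.d n ^ (-ν p0 + e) :=
    hcst 2 (-ν p0 + e) (by linarith) (-ν p0 + 2 * e) (by linarith)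
  -- first pair
  obtain ⟨l, hl, l', hl', hlo, hlc⟩ := hsep k L2 hL2 hL2ne hloc (by
    have := hpos (-ν p0 + 2 * e)
    linarith)
  -- second pair, with separated `a`
  set T := L2.filter fun i => ¬ |a n k i - a n k l| ≤ B.d n ^ y2 / 2 with hT
  have hTsub : T ⊆ L2 := filter_subset _ _
  have hTc : B.d n ^ (-ν p0 + 2 * e) ≤ (T.card : ℝ) := by
    have g1 := hclose k L2 hL2 hloc (a n k l)
    have g3 : ((L2.filter fun i => |a n k i - a n k l| ≤ B.d n ^ y2 / 2).card : ℝ) + T.card =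
        L2.card := by
      rw [hT]
      exact_mod_cast card_filter_add_card_filter_not (s := L2)
        (fun i => |a n k i - a n k l| ≤ B.d n ^ y2 / 2)
    linarith
  have hTne : T.Nonempty := by
    rw [← card_pos]
    have : (0 : ℝ) < T.card := lt_of_lt_of_le (hpos _) hTc
    exact_mod_cast this
  obtain ⟨i, hi, i', hi', hlo2, hlc2⟩ := hsep k T (hTsub.trans hL2) hTne
    (fun j hj j' hj' => hloc j (hTsub hj) j' (hTsub hj')) hTc
  have hia : B.d n ^ y / 2 < |a n k l - a n k i| := by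
    rw [abs_sub_comm]
    have g1 := not_le.1 (mem_filter.1 hi).2
    have g2 : B.d n ^ y ≤ B.d n ^ y2 := rpow_anti B n hy2y
    linarith
  -- sizes
  have mI : ∀ {j}, j ∈ L2 → (j, k) ∈ (G n).I := fun hj => H.memSlice.1 (hL2 hj)
  have hiL := hTsub hi
  have hiL' := hTsub hi'
  set f2 := dd (a n k r1) (a n k r2) (F n k r1) (F n k r2) with hf2
  set q2 := dd (a n k r1) (a n k r2) (Q n k r1) (Q n k r2) with hq2
  set q' := dd (a n k r2) (a n k r3) q2 (dd (a n k r1) (a n k r3) (Q n k r1) (Q n k r3)) with hq'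
  obtain ⟨ba1, bF1, -⟩ := hbd k r1 (H.memSlice.1 h1)
  obtain ⟨ba2, bF2, -⟩ := hbd k r2 (H.memSlice.1 h2)
  have bf2 : |f2| ≤ 2 * M / B.d n ^ e := dd_le (hpos e) s12 bF1 bF2
  set δ := B.d n ^ (x - (C * (D ^ 5 * e) + e)) with hδ
  have hδ0 : 0 < δ := hpos _
  have m1 : B.d n ^ (x - C * (D ^ 5 * e)) ≤ δ := rpow_anti B n (by linarith)
  have m2 : B.d n ^ (x - e) ≤ δ := rpow_anti B n (by linarith)
  have hk1 : |kp n| ≤ 1 := S.kp1 n
  have pair : ∀ {j j'}, j ∈ L2 → j' ∈ L2 → (G n).loose pz (D ^ 5 * e) k j j' →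
      |kp n * (c n k j - c n k j') * ((a n k r1 + a n k r2) * q' - q2 + 2 * f2 * a n k j +
        4 * F n k j - 2 * a n k j * q')| ≤ (2 + 10 * M + 2 * M / B.d n ^ e) * δ := by
    intro j j' hj hj' hlj
    obtain ⟨z1, z2, z3, z4⟩ := hz' k j j' (mI hj) (mI hj') hlj
    obtain ⟨u1, -, -, -, -, -, -⟩ := hbd k j (mI hj)
    obtain ⟨-, -, -, v1, -, v2, -⟩ := hbd k j' (mI hj')
    exact brk34 hk1 hM hδ0.le u1 ba1 ba2 v1 v2 bf2 (z1.trans m1) (z2.trans m1) (z3.trans m1)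
      (z4.trans m1) ((hout.oY j hj j' hj').trans m2) ((hout.oK j hj j' hj').trans m2)
  have hfin := two34 (hpos e) (hpos y) hkp hlc hlc2 (Ω := (2 + 10 * M + 2 * M / B.d n ^ e) * δ)
    (mul_nonneg (by have := hpos e; positivity) hδ0.le) hδ0.le
    (pair hl hl' hlo) (pair hiL hiL' hlo2) ((hout.oF l hl i hiL).trans m2) hia
  refine hfin.trans ?_
  -- arithmetic
  have he1 : B.d n ^ e ≤ 1 := Real.rpow_le_one (B.pos n).le (B.lt n).le he.le
  have hy1 : B.d n ^ y ≤ 1 := Real.rpow_le_one (B.pos n).le (B.lt n).le hy0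
  have k1 : (2 + 10 * M + 2 * M / B.d n ^ e) ≤ 14 * M / B.d n ^ e := by
    rw [le_div_iff₀ (hpos e)]
    have e2 : (2 + 10 * M + 2 * M / B.d n ^ e) * B.d n ^ e = (2 + 10 * M) * B.d n ^ e + 2 * M := by
      have := (hpos e).ne'
      field_simp
    rw [e2]
    have := mul_le_mul_of_nonneg_left he1 (show 0 ≤ 2 + 10 * M by linarith)
    linarith
  have k2 : (2 + 10 * M + 2 * M / B.d n ^ e) * δ / (B.d n ^ e * B.d n ^ y) ≤
      14 * M * B.d n ^ (x - (C * (D ^ 5 * e) + 3 * e + y)) := by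
    rw [div_le_iff₀ (mul_pos (hpos e) (hpos y))]
    refine (mul_le_mul_of_nonneg_right k1 hδ0.le).trans (le_of_eq ?_)
    have e3 : δ = B.d n ^ (x - (C * (D ^ 5 * e) + 3 * e + y)) * (B.d n ^ e * B.d n ^ e *
        B.d n ^ y) := by
      rw [hδ, ← rpow_add', ← rpow_add', ← rpow_add']
      congr 1; ring
    rw [e3]
    have := (hpos e).ne'
    field_simp
  have k3 : δ ≤ M * B.d n ^ (x - (C * (D ^ 5 * e) + 3 * e + y)) := by
    have h5 : δ ≤ B.d n ^ (x - (C * (D ^ 5 * e) + 3 * e + y)) := rpow_anti B n (by linarith)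
    have h6 := hpos (x - (C * (D ^ 5 * e) + 3 * e + y))
    nlinarith
  rw [div_le_iff₀ (hpos y)]
  have k4 : 2 * ((2 + 10 * M + 2 * M / B.d n ^ e) * δ / (B.d n ^ e * B.d n ^ y)) + 4 * δ ≤
      32 * M * B.d n ^ (x - (C * (D ^ 5 * e) + 3 * e + y)) := by linarith
  refine k4.trans ((hcst (32 * M) (x - (C * (D ^ 5 * e) + 4 * e + y)) le_rfl _
    (by linarith)).trans ?_)
  rw [← rpow_add']
  exact rpow_anti B n (by linarith)

end

end Crest.Agent.R136.Cub191
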