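import Crest.Agent.R136.Crg_544
import Crest.Agent.R136.CubZ_848

/-!
# R136, specials of the thin pins, rows (helper544), part 8: the rows of `34`

`rows34` : `SRow`, `SEvo`, the closures of `slope34` and `spec_fin`.
-/

set_option autoImplicit false
set_option linter.unusedSectionVars false
set_option linter.unusedVariables false

open Filter Topology

namespace Crest.Agent.R136.Cr544

open Finset Crest.Agent.R136.NetW191 Crest.Agent.R136.EvW938 Crest.Agent.R136.PrW464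
open Crest.Agent.R136.Net191 Crest.Agent.R136.Qg926 Crest.Agent.R136.Pin851
open Crest.Agent.R136.Gf356 Crest.Agent.R136.Cub191
open Crest.Agent.R138.Ex926 (Base U)

variable {ι : ℕ → Type*} [∀ n, DecidableEq (ι n)]

section

variable {W : Wnd 18 ι} {E : ∀ n, Finset (ι n)} {κ : ℕ → ℝ} {u : ℕ → Fin 18 → ℝ}
  {f : ∀ n, ι n → FW} {lam : (Fin 18 → ℝ) → ℝ} {x ε : ℝ} {n : ℕ}

/-- the heights of the window -/
theorem z_bd (hW : PWin W E κ u f {4} lam x) (g : W.Good n) (hE : E n ⊆ W.Cl n) {k k' : ℕ}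
    (hk : k ∈ (W.cfg0 n (E n)).Z) (hk' : k' ∈ (W.cfg0 n (E n)).Z) :
    |(W.cfg0 n (E n)).z k' - (W.cfg0 n (E n)).z k| ≤ KK W := by
  have key : ∀ k, k ∈ (W.cfg0 n (E n)).Z → |(W.cfg0 n (E n)).z k| ≤ W.K0 / W.kap 0 := by
    intro k hk
    obtain ⟨i, hi, rfl⟩ := Finset.mem_image.1 (show k ∈ (E n).image (W.zc n) from hk)
    have h1 := (W.zrep_spec (hE hi)).1
    have e : (W.cfg0 n (E n)).z (W.zc n i) = W.crd n (W.s₀ n) (W.zrep n (W.zc n i)) 0 := by
      show W.crd n (W.s₀ n) (W.zrep n (W.zc n i)) W.kz = _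
      rw [hW.ww.kz]
    rw [e]
    exact hW.ww.crd_le g g.s0 h1 0
  have := crude2 (key k' hk') (key k hk)
  exact this.trans (KK_ge hW 0).2.2.2.2.2.1

theorem mem_Z {k l : ℕ} (h : (l, k) ∈ (W.cfg0 n (E n)).I) : k ∈ (W.cfg0 n (E n)).Z := by
  obtain ⟨i, hi, h1, h2⟩ := Wnd.mem_I.1 h
  exact Finset.mem_image.2 ⟨i, hi, h2⟩

/-- **base of the evolution** -/
theorem base34 (hW : PWin W E κ u f {4} lam x) (hx : 0 < x) (hε : 0 < ε) (H : Ge W E ε n)
    {k k' l l' : ℕ} (h1 : (l, k) ∈ (W.cfg0 n (E n)).I) (h2 : (l, k') ∈ (W.cfg0 n (E n)).I)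
    (h3 : (l', k) ∈ (W.cfg0 n (E n)).I) (h4 : (l', k') ∈ (W.cfg0 n (E n)).I)
    (L : (W.cfg0 n (E n)).loose (ind {0, 4, 5, 7} x) ε k l l') :
    (W.cfg0 n (E n)).loose (ind {0, 4, 5, 7} x) (16 * ε) k' l l' := by
  obtain ⟨k1, k2, k3, k4, k5⟩ := KR hW
  obtain ⟨n0, n1, n2, n3, n4, n5, n6⟩ := NN_ge hW
  have hK4 : KK W ≤ NN W := by linarith
  have hb := base_slot hW H.g H.s h1 h2 h3 h4 (δ := W.B'.d n ^ (x - ε)) (ra W n (by linarith))
    (by
      rintro s (rfl | rfl | rfl)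
      · have := L 4
        rwa [ind_mem (by decide)] at this
      · have := L 5
        rwa [ind_mem (by decide)] at this
      · have := L 7
        rwa [ind_mem (by decide)] at this)
  have hs : ∀ s : Fin 18, s = 4 ∨ s = 5 ∨ s = 7 →
      |(W.cfg0 n (E n)).rel k' l l' s| ≤ W.B'.d n ^ (x - 16 * ε) := fun s h => by
    have h5 := hb s h
    have h6 := mul_le_mul_of_nonneg_right hK4 (rp W n (x - ε)).le
    exact (H.absorb (h5.trans h6)).trans (ra W n (by linarith))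
  have ho : ∀ s : Fin 18, |(W.cfg0 n (E n)).rel k' l l' s| ≤ W.B'.d n ^ (0 - 16 * ε) :=
      fun s => by
    have h5 : |(W.cfg0 n (E n)).rel k' l l' s| ≤ NN W * W.B'.d n ^ (0:ℝ) := by
      rw [Real.rpow_zero, mul_one]
      refine (hW.ww.rel_le H.g H.s h2 h4 s).trans ?_
      have h2 := (KK_ge hW s).2.2.2.2.2.1
      have h3 := (tS_parts hW s).2.2.2.2.2
      linarith
    exact (H.absorb h5).trans (ra W n (by linarith))
  intro j
  by_cases hj : j ∈ ({0, 4, 5, 7} : Finset (Fin 18))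
  · rw [ind_mem hj]
    by_cases h0 : j = 0
    · have e : (W.cfg0 n (E n)).rel k' l l' j = 0 :=
        if_pos (by rw [hW.S, h0]; exact mem_singleton_self _)
      rw [e, abs_zero]
      exact (rp W n _).le
    · have key : ∀ j : Fin 18, j ∈ ({0, 4, 5, 7} : Finset (Fin 18)) → j ≠ 0 →
        j = 4 ∨ j = 5 ∨ j = 7 := by decide
      exact hs j (key j hj h0)
  · rw [ind_notMem hj]; exact ho j

/-- algebra of the evolution of `F` -/
theorem evoF_alg {w9 v9 v6 D1 D0 dY o z K Rτ δ : ℝ} (s1 : |w9 - D1| ≤ Rτ) (s2 : |v9 - D0| ≤ Rτ)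
    (s3 : |v6 - dY / 3| ≤ Rτ) (s4 : |w9 - (v9 + o * v6)| ≤ K * δ) (s5 : |o - z| ≤ K * δ)
    (ho : |o| ≤ K) (hY : |dY| ≤ 6 * K) :
    |D1 - (D0 + 1 / 3 * z * dY)| ≤ (2 + K) * Rτ + K * δ + 2 * K ^ 2 * δ := by
  have e : D1 - (D0 + 1 / 3 * z * dY) = -(w9 - D1) + (w9 - (v9 + o * v6)) + (v9 - D0) +
      o * (v6 - dY / 3) + (o - z) * (dY / 3) := by ring
  have hY3 : |dY / 3| ≤ 2 * K := by
    rw [abs_div, abs_of_pos (by norm_num : (0:ℝ) < 3)]; linarith
  have t1 := mm ho s3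
  have t2 := mm s5 hY3
  rw [e]
  have a1 := abs_add_le (-(w9 - D1) + (w9 - (v9 + o * v6)) + (v9 - D0) + o * (v6 - dY / 3))
    ((o - z) * (dY / 3))
  have a2 := abs_add_le (-(w9 - D1) + (w9 - (v9 + o * v6)) + (v9 - D0)) (o * (v6 - dY / 3))
  have a3 := abs_add_le (-(w9 - D1) + (w9 - (v9 + o * v6))) (v9 - D0)
  have a4 := abs_add_le (-(w9 - D1)) (w9 - (v9 + o * v6))
  rw [abs_neg] at a4
  have e2 : K * δ * (2 * K) = 2 * K ^ 2 * δ := by ring
  linarith

/-- algebra of the evolution of `a` -/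
theorem evoA_alg {w2 v2 v1 D1 D0 t1 t0 o z K δ : ℝ} (hw : w2 = D1 - t1) (hv : v2 = D0 - t0)
    (s4 : |w2 - (v2 + o * v1)| ≤ K * δ) (s5 : |o - z| ≤ K * δ) (h1 : |t1| ≤ 2 * K ^ 2 * δ)
    (h0 : |t0| ≤ 2 * K ^ 2 * δ) (hc : |v1| ≤ 2 * K) :
    |D1 - (D0 + z * v1)| ≤ K * δ + 4 * K ^ 2 * δ + 2 * K ^ 2 * δ := by
  have e : D1 - (D0 + z * v1) = (w2 - (v2 + o * v1)) + t1 - t0 + (o - z) * v1 := by
    rw [hw, hv]; ring
  have t2 := mm s5 hc
  rw [e]
  have a1 := abs_add_le ((w2 - (v2 + o * v1)) + t1 - t0) ((o - z) * v1)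
  have a2 := abs_sub ((w2 - (v2 + o * v1)) + t1) t0
  have a3 := abs_add_le (w2 - (v2 + o * v1)) t1
  have e2 : K * δ * (2 * K) = 2 * K ^ 2 * δ := by ring
  linarith

set_option maxHeartbeats 2000000 in
/-- **the evolution of a pair** -/
theorem evo34 (hW : PWin W E κ u f {4} lam x) (hx : 0 < x) (hε : 0 < ε) (H : Ge W E ε n)
    {k k' l l' : ℕ} (h1 : (l, k) ∈ (W.cfg0 n (E n)).I) (h2 : (l, k') ∈ (W.cfg0 n (E n)).I)
    (h3 : (l', k) ∈ (W.cfg0 n (E n)).I) (h4 : (l', k') ∈ (W.cfg0 n (E n)).I)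
    (L : (W.cfg0 n (E n)).loose (ind {0, 4, 5, 7} x) ε k l l') :
    |((PP W E κ u f n k' l).g 2 - (PP W E κ u f n k' l').g 2) -
      (((PP W E κ u f n k l).g 2 - (PP W E κ u f n k l').g 2) +
      ((W.cfg0 n (E n)).z k' - (W.cfg0 n (E n)).z k) *
        ((PP W E κ u f n k l).g 1 - (PP W E κ u f n k l').g 1))| ≤ W.B'.d n ^ (x - 16 * ε) ∧
    |((PP W E κ u f n k' l).G 5 - (PP W E κ u f n k' l').G 5) -
      (((PP W E κ u f n k l).G 5 - (PP W E κ u f n k l').G 5) +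
      1 / 3 * ((W.cfg0 n (E n)).z k' - (W.cfg0 n (E n)).z k) *
        (fY (PP W E κ u f n k l) - fY (PP W E κ u f n k l')))| ≤ W.B'.d n ^ (x - 16 * ε) ∧
    |((PP W E κ u f n k' l).g 1 - (PP W E κ u f n k' l').g 1) -
      ((PP W E κ u f n k l).g 1 - (PP W E κ u f n k l').g 1)| ≤ W.B'.d n ^ (x - 16 * ε) := by
  obtain ⟨k1, k2, k3, k4, k5⟩ := KR hW
  obtain ⟨n0, n1, n2, n3, n4, n5, n6⟩ := NN_ge hW
  have p4 : 0 ≤ KK W ^ 4 := by positivity
  have b1 := PP_bn hW H.g H.s h1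
  have b2 := PP_bn hW H.g H.s h2
  have b3 := PP_bn hW H.g H.s h3
  have b4 := PP_bn hW H.g H.s h4
  have c1 := PP_g0 hW H.g H.s h1
  have c2 := PP_g0 hW H.g H.s h2
  have c3 := PP_g0 hW H.g H.s h3
  have c4 := PP_g0 hW H.g H.s h4
  obtain ⟨v1, v2, v9⟩ := evo_pp hW H.g H.s h1 h2 h3 h4
  have hz := z_bd hW H.g H.s (mem_Z h1) (mem_Z h2)
  have ho : |ownC W n l k k' 0| ≤ KK W := by
    refine (hW.ww.own_le H.g H.s h1 h2 0).trans ?_
    have h5 := (KK_ge hW 0).2.2.2.2.2.1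
    have h6 := (tS_parts hW 0).2.2.2.2.2
    linarith
  have hoz : |ownC W n l k k' 0 - ((W.cfg0 n (E n)).z k' - (W.cfg0 n (E n)).z k)| ≤
      KK W * W.B'.d n ^ x := by
    refine (hW.ww.own_zero H.g H.s h1 h2 (t := x) (hW.top 0).ge).trans ?_
    have h5 := mul_le_mul_of_nonneg_right (KK_ge hW 0).2.2.2.2.2.1 (rp W n x).le
    refine le_trans (le_of_eq ?_) h5
    ring
  obtain ⟨f0, f1, f2, f3⟩ := frames (κ n) (PP W E κ u f n k l) (PP W E κ u f n k l')
  obtain ⟨g0, g1, g2, g3⟩ := frames (κ n) (PP W E κ u f n k' l) (PP W E κ u f n k' l')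
  have e1 : coW (κ n) (PP W E κ u f n k l) (PP W E κ u f n k l') 1 =
      (PP W E κ u f n k l').g 1 - (PP W E κ u f n k l).g 1 := by linarith
  have e1' : coW (κ n) (PP W E κ u f n k' l) (PP W E κ u f n k' l') 1 =
      (PP W E κ u f n k' l').g 1 - (PP W E κ u f n k' l).g 1 := by linarith
  have e2 : coW (κ n) (PP W E κ u f n k l) (PP W E κ u f n k l') 2 =
      ((PP W E κ u f n k l').g 2 - (PP W E κ u f n k l).g 2) - (PP W E κ u f n k l).g 1 *
        ((PP W E κ u f n k l').g 0 - (PP W E κ u f n k l).g 0) := by rw [f2, f0]; ring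
  have e2' : coW (κ n) (PP W E κ u f n k' l) (PP W E κ u f n k' l') 2 =
      ((PP W E κ u f n k' l').g 2 - (PP W E κ u f n k' l).g 2) - (PP W E κ u f n k' l).g 1 *
        ((PP W E κ u f n k' l').g 0 - (PP W E κ u f n k' l).g 0) := by rw [g2, g0]; ring
  have eK : KK W * (2 * (KK W * W.B'.d n ^ x)) = 2 * KK W ^ 2 * W.B'.d n ^ x := by ring
  have t0 : |(PP W E κ u f n k l).g 1 *
      ((PP W E κ u f n k l').g 0 - (PP W E κ u f n k l).g 0)| ≤ 2 * KK W ^ 2 * W.B'.d n ^ x := by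
    rw [← eK]; exact mm (b1.g 1) (crude2 c3 c1)
  have t1 : |(PP W E κ u f n k' l).g 1 *
      ((PP W E κ u f n k' l').g 0 - (PP W E κ u f n k' l).g 0)| ≤
        2 * KK W ^ 2 * W.B'.d n ^ x := by
    rw [← eK]; exact mm (b2.g 1) (crude2 c4 c2)
  have dc := crude2 (b3.g 1) (b1.g 1)
  have hρ : W.B'.d n ^ x ≤ W.B'.d n ^ (x - ε) := ra W n (by linarith)
  have r0 := (rp W n x).le
  have r1 := (rp W n (x - ε)).le
  refine ⟨?_, ?_, ?_⟩
  · -- `a`
    rw [e1] at v2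
    have h5 := evoA_alg e2' e2 v2 hoz t1 t0 dc
    have e5 : ((PP W E κ u f n k' l).g 2 - (PP W E κ u f n k' l').g 2) -
      (((PP W E κ u f n k l).g 2 - (PP W E κ u f n k l').g 2) +
      ((W.cfg0 n (E n)).z k' - (W.cfg0 n (E n)).z k) *
        ((PP W E κ u f n k l).g 1 - (PP W E κ u f n k l').g 1)) =
      -(((PP W E κ u f n k' l').g 2 - (PP W E κ u f n k' l).g 2) -
      (((PP W E κ u f n k l').g 2 - (PP W E κ u f n k l).g 2) +
      ((W.cfg0 n (E n)).z k' - (W.cfg0 n (E n)).z k) *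
        ((PP W E κ u f n k l').g 1 - (PP W E κ u f n k l).g 1))) := by ring
    rw [e5, abs_neg]
    have h6 : KK W * W.B'.d n ^ x + 4 * KK W ^ 2 * W.B'.d n ^ x + 2 * KK W ^ 2 * W.B'.d n ^ x ≤
        NN W * W.B'.d n ^ (x - ε) := by
      calc _ ≤ 7 * KK W ^ 2 * W.B'.d n ^ x := by nlinarith
        _ ≤ NN W * W.B'.d n ^ x := mul_le_mul_of_nonneg_right n6 r0
        _ ≤ _ := mul_le_mul_of_nonneg_left hρ (by linarith)
    exact (H.absorb (h5.trans h6)).trans (ra W n (by linarith))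
  · -- `F`
    have dY := crude2 b3.Y b1.Y
    have dY' : |fY (PP W E κ u f n k l') - fY (PP W E κ u f n k l)| ≤ 6 * KK W := by linarith
    have e5 : ((PP W E κ u f n k' l).G 5 - (PP W E κ u f n k' l').G 5) -
      (((PP W E κ u f n k l).G 5 - (PP W E κ u f n k l').G 5) +
      1 / 3 * ((W.cfg0 n (E n)).z k' - (W.cfg0 n (E n)).z k) *
        (fY (PP W E κ u f n k l) - fY (PP W E κ u f n k l'))) =
      -(((PP W E κ u f n k' l').G 5 - (PP W E κ u f n k' l).G 5) -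
      (((PP W E κ u f n k l').G 5 - (PP W E κ u f n k l).G 5) +
      1 / 3 * ((W.cfg0 n (E n)).z k' - (W.cfg0 n (E n)).z k) *
        (fY (PP W E κ u f n k l') - fY (PP W E κ u f n k l)))) := by ring
    rw [e5, abs_neg]
    refine H.fin hε ?_ fun h8 => ?_
    · have a1 := crude2 (b4.G 5) (b2.G 5)
      have a2 := crude2 (b3.G 5) (b1.G 5)
      have a3 : |1 / 3 * ((W.cfg0 n (E n)).z k' - (W.cfg0 n (E n)).z k) *
        (fY (PP W E κ u f n k l') - fY (PP W E κ u f n k l))| ≤ 1 / 3 * KK W * (6 * KK W) :=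
        mm (mm (by rw [abs_of_pos (by norm_num : (0:ℝ) < 1 / 3)]) hz) dY'
      have a4 := abs_sub ((PP W E κ u f n k' l').G 5 - (PP W E κ u f n k' l).G 5)
        (((PP W E κ u f n k l').G 5 - (PP W E κ u f n k l).G 5) +
        1 / 3 * ((W.cfg0 n (E n)).z k' - (W.cfg0 n (E n)).z k) *
          (fY (PP W E κ u f n k l') - fY (PP W E κ u f n k l)))
      have a5 := abs_add_le ((PP W E κ u f n k l').G 5 - (PP W E κ u f n k l).G 5)
        (1 / 3 * ((W.cfg0 n (E n)).z k' - (W.cfg0 n (E n)).z k) *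
          (fY (PP W E κ u f n k l') - fY (PP W E κ u f n k l)))
      have e6 : 1 / 3 * KK W * (6 * KK W) = 2 * KK W ^ 2 := by ring
      rw [e6] at a3
      linarith
    · have hτ := Ge.small hW H hε h8
      have D := dt_loose hW hx hε H.g H.s hτ h1 h3 L
        ⟨ind_mem (by decide), ind_mem (by decide), ind_mem (by decide)⟩
      have hb := base_slot hW H.g H.s h1 h2 h3 h4 (δ := W.B'.d n ^ (x - ε)) hρ (by
        rintro s (rfl | rfl | rfl)
        · have := L 4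
          rwa [ind_mem (by decide)] at this
        · have := L 5
          rwa [ind_mem (by decide)] at this
        · have := L 7
          rwa [ind_mem (by decide)] at this)
      have D' := (pr_loose hW hx hε H.g H.s hτ h2 h4 hb).dt
      have s1 := D'.sF
      have s2 := D.sF
      have s3 := D.sY
      have h5 := evoF_alg s1 s2 s3 v9 hoz ho dY'
      refine h5.trans ?_
      change (2 + KK W) * (RR W * (KK W ^ 2 * W.B'.d n ^ (x - ε))) + _ + _ ≤ _
      have q1 : (2 + KK W) * (RR W * (KK W ^ 2 * W.B'.d n ^ (x - ε))) ≤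
          3 * RR W * KK W ^ 3 * W.B'.d n ^ (x - ε) := by
        have : (2 + KK W) * (RR W * (KK W ^ 2 * W.B'.d n ^ (x - ε))) ≤
          (3 * KK W) * (RR W * (KK W ^ 2 * W.B'.d n ^ (x - ε))) :=
          mul_le_mul_of_nonneg_right (by linarith) (by positivity)
        refine this.trans (le_of_eq ?_)
        ring
      have q2 : KK W * W.B'.d n ^ x + 2 * KK W ^ 2 * W.B'.d n ^ x ≤
          3 * KK W ^ 2 * W.B'.d n ^ (x - ε) := by
        calc _ ≤ 3 * KK W ^ 2 * W.B'.d n ^ x := by nlinarith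
          _ ≤ _ := mul_le_mul_of_nonneg_left hρ (by positivity)
      have q3 := mul_le_mul_of_nonneg_right n5 r1
      linarith
  · -- `c`
    rw [e1, e1'] at v1
    have e5 : ((PP W E κ u f n k' l).g 1 - (PP W E κ u f n k' l').g 1) -
      ((PP W E κ u f n k l).g 1 - (PP W E κ u f n k l').g 1) =
      -(((PP W E κ u f n k' l').g 1 - (PP W E κ u f n k' l).g 1) -
      ((PP W E κ u f n k l').g 1 - (PP W E κ u f n k l).g 1)) := by ring
    rw [e5, abs_neg]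
    have h6 : KK W * W.B'.d n ^ x ≤ NN W * W.B'.d n ^ (x - ε) :=
      mul_le_mul (by linarith) hρ r0 (by linarith)
    exact (H.absorb (v1.trans h6)).trans (ra W n (by linarith))

/-- **the rows of `34`** -/
theorem rows34 (hW : PWin W E κ u f {4} lam x) (hx : 0 < x) :
    ∃ (M C : ℝ) (a F Q c β Y K Φ : ℕ → ℕ → ℕ → ℝ),
      SRow W.B' (W.cfg E) x M C (ind {0, 4, 5, 7} x) (ind {0, 2, 4, 5, 7, 9, 14, 15} x)
        (ind {0, 1, 3, 4, 5, 6, 7, 10, 15} x) (ind {0, 1, 4, 5, 6, 7} x)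
        (fun y => Function.update (ind {0, 4, 5, 7} x) 2 y)
        (fun y => Function.update (ind {0, 1, 2, 4, 5, 6, 7, 9, 14, 15} x) 3 y)
        (fun y => Function.update (ind {0, 2, 4, 5, 7, 9, 14, 15} x) 1 y) a F Q c β Y K Φ κ ∧
      SEvo W.B' (W.cfg E) x M C (1 / 3) (ind {0, 4, 5, 7} x) a F c Y ∧
      (∀ y : ℝ, 0 ≤ y → y ≤ x → ∀ ε : ℝ, 0 < ε → ∀ᶠ n in (U : Filter ℕ), ∀ k l l',
        (l, k) ∈ (W.cfg E n).I → (l', k) ∈ (W.cfg E n).I →
        (W.cfg E n).loose (ind {0, 2, 3, 4, 5, 7, 9, 10} x) ε k l l' →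
          |c n k l' - c n k l| ≤ W.B'.d n ^ y →
          (W.cfg E n).loose (Function.update (ind {0, 2, 3, 4, 5, 7, 9, 10} x) 1 y) ε k l l') ∧
      (∀ ε : ℝ, 0 < ε → ∀ᶠ n in (U : Filter ℕ), ∀ k l l', (l, k) ∈ (W.cfg E n).I →
        (l', k) ∈ (W.cfg E n).I →
        (W.cfg E n).loose (ind {0, 2, 3, 4, 5, 7, 9, 10} x) ε k l l' →
          |a n k l - a n k l'| ≤ W.B'.d n ^ (x - C * ε) ∧
          |F n k l - F n k l'| ≤ W.B'.d n ^ (x - C * ε) ∧
          |(β n k l - β n k l') - 2 * κ n * a n k l * (c n k l - c n k l')| ≤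
            W.B'.d n ^ (x - C * ε) ∧
          |(K n k l + 4 * κ n * c n k l * F n k l + 2 * κ n * a n k l * Y n k l) -
            (K n k l' + 4 * κ n * c n k l' * F n k l' + 2 * κ n * a n k l' * Y n k l')| ≤
            W.B'.d n ^ (x - C * ε)) ∧
      (∀ ε : ℝ, 0 < ε → ∀ᶠ n in (U : Filter ℕ), ∀ k l l', (l, k) ∈ (W.cfg E n).I →
        (l', k) ∈ (W.cfg E n).I → (W.cfg E n).loose (ind {0, 4, 5, 7} x) ε k l l' →
          |Y n k l' - Y n k l| ≤ W.B'.d n ^ (x - ε) →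
          (W.cfg E n).loose (ind {0, 4, 5, 6, 7} x) (2 * ε) k l l') := by
  obtain ⟨k1, k2, k3, k4, k5⟩ := KR hW
  refine ⟨6 * KK W ^ 2, 16, fun n k l => (PP W E κ u f n k l).g 2,
    fun n k l => (PP W E κ u f n k l).G 5, fun n k l => fQ (PP W E κ u f n k l),
    fun n k l => (PP W E κ u f n k l).g 1, fun n k l => fB (κ n) (PP W E κ u f n k l),
    fun n k l => fY (PP W E κ u f n k l), fun n k l => fK (κ n) (PP W E κ u f n k l),
    fun n k l => fP (κ n) (PP W E κ u f n k l), ⟨hx, by linarith, by norm_num, hW.ww.hκ,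
    hW.kap, ?_, ?_, ?_, ?_, ?_, ?_, ?_⟩, ⟨?_, ?_, ?_⟩, ?_, ?_, ?_⟩
  · filter_upwards [hW.ev] with n hn k l hl
    rw [hn.2.2] at hl
    have b := PP_bn hW hn.1 hn.2.1 hl
    have h1 := b.g 2
    have h2 := b.G 5
    have h3 := b.Q
    have h4 := b.g 1
    have h5 := b.B
    have h6 := b.Y
    have h7 := b.kk
    refine ⟨?_, ?_, h3, ?_, ?_, ?_, h7⟩ <;> linarith
  · intro ε hε
    filter_upwards [ev_Ge hW hε] with n H k l l' hl hl' L
    rw [H.c] at hl hl' L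
    exact rows_p hW hx hε H hl hl' L
  · intro ε hε
    filter_upwards [ev_Ge hW hε] with n H k l l' hl hl' L
    rw [H.c] at hl hl' L
    exact rows_v hW hx hε H hl hl' L
  · intro ε hε
    filter_upwards [ev_Ge hW hε] with n H k l l' hl hl' L
    rw [H.c] at hl hl' L
    exact rows_c hW hx hε H hl hl' L
  · intro y hy0 hy ε hε
    filter_upwards [ev_Ge hW hε] with n H k l l' hl hl' L h
    rw [H.c] at hl hl' L ⊢
    exact acl34 hW hx hε H hl hl' hy0 hy L h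
  · intro y hy0 ε hε hy
    filter_upwards [ev_Ge hW hε] with n H k l l' hl hl' L L' h
    rw [H.c] at hl hl' L L' ⊢
    exact bcl34 hW hx hε H hl hl' hy0 hy L L' h
  · intro y hy0 hy ε hε
    filter_upwards [ev_Ge hW hε] with n H k l l' hl hl' L h
    rw [H.c] at hl hl' L ⊢
    exact loose_upd _ (c34 hW H hl hl' h) (fun _ _ => rfl) L
  · intro ε hε
    filter_upwards [ev_Ge hW hε] with n H k k' l l' h1 h2 h3 h4 L
    rw [H.c] at h1 h2 h3 h4 L ⊢
    exact base34 hW hx hε H h1 h2 h3 h4 L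
  · filter_upwards [hW.ev] with n hn k hk k' hk'
    rw [hn.2.2] at hk hk' ⊢
    exact (z_bd hW hn.1 hn.2.1 hk hk').trans (by linarith)
  · intro ε hε
    filter_upwards [ev_Ge hW hε] with n H k k' l l' h1 h2 h3 h4 L
    rw [H.c] at h1 h2 h3 h4 L ⊢
    exact evo34 hW hx hε H h1 h2 h3 h4 L
  · intro y hy0 hy ε hε
    filter_upwards [ev_Ge hW hε] with n H k l l' hl hl' L h
    rw [H.c] at hl hl' L ⊢
    exact loose_upd _ (c34 hW H hl hl' h) (fun _ _ => rfl) L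
  · intro ε hε
    filter_upwards [ev_Ge hW hε] with n H k l l' hl hl' L
    rw [H.c] at hl hl' L
    exact rows_z hW hx hε H hl hl' L
  · intro ε hε
    have hc : ∀ᶠ n in (U : Filter ℕ), KK W ^ 2 * W.B'.d n ^ (x - ε) ≤ 1 ∨ x ≤ ε := by
      by_cases h : ε < x
      · filter_upwards [Gf356.ev_const_le W.B' (sub_pos.2 h) (KK W ^ 2)] with n hn
        left
        have h1 := mul_le_mul_of_nonneg_right hn (rp W n (x - ε)).le
        rw [← Real.rpow_add (W.B'.pos n), neg_add_cancel, Real.rpow_zero] at h1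
        exact h1
      · exact Eventually.of_forall fun n => Or.inr (not_lt.1 h)
    filter_upwards [ev_Ge hW hε, hc] with n H hc k l l' hl hl' L h
    rw [H.c] at hl hl' L ⊢
    exact ycl34 hW hx hε H hc hl hl' L h

end

end Crest.Agent.R136.Cr544
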