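import Crest.Agent.R136.CubN_851
import Crest.Agent.R136.CubZ_848

/-!
# R136, the specials of the thin pins (helper851): the wiring

* `Rows35`, `Rows34` : the rows of the sheets over a window
* `spec35_of`, `spec34_of` : `Spec35`, `Spec34` from them
-/

set_option autoImplicit false
set_option linter.unusedSectionVars false
set_option linter.unusedVariables false

open Filter Topology

namespace Crest.Agent.R136.Pin851

open Finset Crest.Agent.R138.Ex926 Crest.Agent.R136.Net191 Crest.Agent.R136.Gf356 Crest.Agent.R136.Qg926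
open Crest.Agent.R136.NetW191 Crest.Agent.R136.EvW938 Crest.Agent.R136.PrW464
open Crest.Agent.R136.LadW697 Crest.Agent.R136.LfW619 Crest.Agent.R136.RowW619
open Crest.Agent.R136.NatW697 Crest.Agent.R136.Qd329
open Crest.Agent.R136.Cub191 (SProf SRow SEvo SSlope slope35 slope34 spec_fin)
open Crest.Agent.R136.K2S774 (cn ind1)

/-- rows of the sheet of `b = 5` over the windows -/
def Rows35 : Prop :=
  ∀ (W : Wnd 18 fun _ => ℕ × ℝ) (E : ∀ n : ℕ, Finset (ℕ × ℝ)) (κ : ℕ → ℝ)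
    (u : ℕ → Fin 18 → ℝ) (f : ℕ → ℕ × ℝ → FW) (lam : (Fin 18 → ℝ) → ℝ) (x : ℝ),
    PWin W E κ u f {4} lam x → 0 < x →
    ∃ (M C μ : ℝ) (a F Q c β Y K Φ : ℕ → ℕ → ℕ → ℝ), 0 ≤ μ ∧ μ ≤ 2 ∧
      SRow W.B' (W.cfg E) x M C (ind {0, 4} x) (ind {0, 2, 4, 7, 14} x)
        (ind {0, 1, 3, 4, 5, 9, 14} x) (ind {0, 1, 4, 5} x)
        (fun y => Function.update (ind {0, 4} x) 2 y)
        (fun y => Function.update (ind {0, 1, 2, 4, 5, 7, 14} x) 3 y)
        (fun y => Function.update (ind {0, 2, 4, 7, 14} x) 1 y) a F Q c β Y K Φ κ ∧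
      SEvo W.B' (W.cfg E) x M C μ (ind {0, 4} x) a F c Y ∧
      (∀ n k l, Q n k l = 2 * a n k l * F n k l) ∧
      ∀ ε : ℝ, 0 < ε → ∀ᶠ n in (U : Filter ℕ), ∀ k l l', (l, k) ∈ (W.cfg E n).I →
        (l', k) ∈ (W.cfg E n).I → (W.cfg E n).loose (ind {0, 4} x) ε k l l' →
        |Y n k l' - Y n k l| ≤ W.B'.d n ^ (x - ε) →
        (W.cfg E n).loose (ind {0, 4, 5} x) (2 * ε) k l l'

/-- rows of the sheet of `b = 4` over the windows -/
def Rows34 : Prop :=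
  ∀ (W : Wnd 18 fun _ => ℕ × ℝ) (E : ∀ n : ℕ, Finset (ℕ × ℝ)) (κ : ℕ → ℝ)
    (u : ℕ → Fin 18 → ℝ) (f : ℕ → ℕ × ℝ → FW) (lam : (Fin 18 → ℝ) → ℝ) (x : ℝ),
    PWin W E κ u f {4} lam x → 0 < x →
    ∃ (M C : ℝ) (a F Q c β Y K Φ : ℕ → ℕ → ℕ → ℝ),
      SRow W.B' (W.cfg E) x M C (ind {0, 4, 5, 7} x) (ind {0, 2, 4, 5, 7, 9, 14, 15} x)
        (ind {0, 1, 3, 4, 5, 6, 7, 10, 15} x) (ind {0, 1, 4, 5, 6, 7} x)
        (fun y => Function.update (ind {0, 4, 5, 7} x) 2 y)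
        (fun y => Function.update (ind {0, 1, 2, 4, 5, 6, 7, 9, 14, 15} x) 3 y)
        (fun y => Function.update (ind {0, 2, 4, 5, 7, 9, 14, 15} x) 1 y) a F Q c β Y K Φ κ ∧
      SEvo W.B' (W.cfg E) x M C (1 / 3) (ind {0, 4, 5, 7} x) a F c Y ∧
      (∀ y : ℝ, 0 ≤ y → y ≤ x → ∀ ε : ℝ, 0 < ε → ∀ᶠ n in (U : Filter ℕ), ∀ k l l',
        (l, k) ∈ (W.cfg E n).I → (l', k) ∈ (W.cfg E n).I →
        (W.cfg E n).loose (ind {0, 2, 3, 4, 5, 7, 9, 10} x) ε k l l' →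
        |c n k l' - c n k l| ≤ W.B'.d n ^ y →
        (W.cfg E n).loose (Function.update (ind {0, 2, 3, 4, 5, 7, 9, 10} x) 1 y) ε k l l') ∧
      (∀ ε : ℝ, 0 < ε → ∀ᶠ n in (U : Filter ℕ), ∀ k l l', (l, k) ∈ (W.cfg E n).I →
        (l', k) ∈ (W.cfg E n).I →
        (W.cfg E n).loose (ind {0, 2, 3, 4, 5, 7, 9, 10} x) ε k l l' →
        |a n k l - a n k l'| ≤ W.B'.d n ^ (x - C * ε) ∧
        |F n k l - F n k l'| ≤ W.B'.d n ^ (x - C * ε) ∧
        |(β n k l - β n k l') - 2 * κ n * a n k l * (c n k l - c n k l')| ≤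
          W.B'.d n ^ (x - C * ε) ∧
        |(K n k l + 4 * κ n * c n k l * F n k l + 2 * κ n * a n k l * Y n k l) -
          (K n k l' + 4 * κ n * c n k l' * F n k l' + 2 * κ n * a n k l' * Y n k l')| ≤
          W.B'.d n ^ (x - C * ε)) ∧
      ∀ ε : ℝ, 0 < ε → ∀ᶠ n in (U : Filter ℕ), ∀ k l l', (l, k) ∈ (W.cfg E n).I →
        (l', k) ∈ (W.cfg E n).I → (W.cfg E n).loose (ind {0, 4, 5, 7} x) ε k l l' →
        |Y n k l' - Y n k l| ≤ W.B'.d n ^ (x - ε) →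
        (W.cfg E n).loose (ind {0, 4, 5, 6, 7} x) (2 * ε) k l l'

section

variable {W : Wnd 18 fun _ => ℕ × ℝ} {E : ∀ n : ℕ, Finset (ℕ × ℝ)} {κ : ℕ → ℝ}
  {u : ℕ → Fin 18 → ℝ} {f : ℕ → ℕ × ℝ → FW} {lam : (Fin 18 → ℝ) → ℝ} {x m : ℝ}
  {c p0 pp pv pc ppv : Fin 18 → ℝ} {pa pb pq : ℝ → Fin 18 → ℝ}

theorem upd0 (hc : c ∈ LegP x) : Function.update c 0 x = c := by
  conv_rhs => rw [← Function.update_eq_self 0 c]
  rw [hc.2.2.2]

theorem PWin.leg_of (h : PWin W E κ u f {4} lam x) (hc : c ∈ LegP x) : c ∈ W.legW :=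
  h.leg c (by rw [upd0 hc]; exact hc.1) hc.2.1 hc.2.2.1

theorem PWin.nu_of (h : PWin W E κ u f {4} lam x) (hc : c ∈ LegP x) :
    W.nu c = lam c - lam (fun _ => x) := by rw [h.nu, upd0 hc]

/-- the numbers over a window -/
theorem PWin.sprof (h : PWin W E κ u f {4} lam x)
    (P : SProf (LegP x) lam x m p0 pp pv pc ppv pa pb pq) :
    SProf W.legW W.nu x m p0 pp pv pc ppv pa pb pq where
  m0 := P.m0
  l0 := h.leg_of P.l0
  lp := h.leg_of P.lp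
  lv := h.leg_of P.lv
  lc := h.leg_of P.lc
  lpv := h.leg_of P.lpv
  la := fun y hy hyx => h.leg_of (P.la y hy hyx)
  lb := fun y hy hyx => h.leg_of (P.lb y hy hyx)
  lq := fun y hy hyx => h.leg_of (P.lq y hy hyx)
  por := P.por
  pge := P.pge
  vge := P.vge
  cge := P.cge
  H1 := by
    rw [h.nu_of P.l0, h.nu_of P.lp, h.nu_of P.lv, h.nu_of P.lpv]
    have := P.H1
    linarith
  H2 := fun y hy hyx => by
    rw [h.nu_of P.l0, h.nu_of P.lp, h.nu_of P.lc, h.nu_of (P.lb y hy hyx)]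
    have := P.H2 y hy hyx
    linarith
  H3 := fun y hy hyx => by
    rw [h.nu_of P.l0, h.nu_of (P.la y hy hyx)]
    have := P.H3 y hy hyx
    linarith
  H4 := fun y hy hyx => by
    rw [h.nu_of P.lp, h.nu_of (P.lq y hy hyx)]
    have := P.H4 y hy hyx
    linarith

end

/-- **the special `b = 5`** -/
theorem spec35_of (R : Rows35) : Spec35 := by
  intro T G m lam κ u f H hG hA hB hi hwin hv
  by_contra hn
  obtain ⟨x, hx, hlt⟩ := end35 H hi hv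
  obtain ⟨W, E, hW⟩ := hwin x hx
  obtain ⟨M, C, μ, a, F, Q, c, β, Y, K, Φ, hμ, hμ1, S, V, hQ, ycl⟩ := R W E κ u f lam x hW hx
  have P0 := num35 H hG hA hB hi hn hx
  have P := hW.sprof P0
  have h1 := spec_fin hW.mod one_pos hx S P V hμ hμ1 (s := 2) (by norm_num)
    (slope35 S hW.mod.toRUnif hQ) (hW.leg_of (leg35 hx.le)) ycl
  rw [hW.nu_of P0.l0, hW.nu_of (leg35 hx.le)] at h1
  linarith

/-- **the special `b = 4`** -/
theorem spec34_of (R : Rows34) : Spec34 := by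
  intro T G m lam κ u f H hG hA hB hi hwin hF hv
  by_contra hn
  obtain ⟨x, hx, hlt⟩ := end34 H hG hi hv
  obtain ⟨W, E, hW⟩ := hwin x hx
  obtain ⟨M, C, a, F, Q, c, β, Y, K, Φ, S, V, zcl, zrow, ycl⟩ := R W E κ u f lam x hW hx
  have P0 := num34 H hG hA hB hF hi hn hx
  have P := hW.sprof P0
  obtain ⟨z1, z2, z3⟩ := num34_Z H hG hF hi hx
  have hsl := slope34 (x := x) (pqz := fun y => Function.update (ind {0, 2, 3, 4, 5, 7, 9, 10} x) 1 y)
    hW.mod.toRUnif S P (hW.leg_of z1) (ind_mono_set (by decide) hx.le)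
    (fun y hy hyx => hW.leg_of (z3 y hy hyx).1) (fun y hy hyx => by
      rw [hW.nu_of z1, hW.nu_of (z3 y hy hyx).1]
      have := (z3 y hy hyx).2
      linarith) zcl zrow
  have h1 := spec_fin hW.mod one_pos hx S P V (by norm_num) (by norm_num) (s := 3) (by norm_num)
    hsl (hW.leg_of z2) ycl
  rw [hW.nu_of P0.l0, hW.nu_of z2] at h1
  linarith

end Crest.Agent.R136.Pin851
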