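import Crest.Agent.R136.Crh_544
import Crest.Agent.R136.CubW_851

/-!
# R136, specials of the thin pins (helper544), part 9: the leaf `Rows34`
-/

set_option autoImplicit false

namespace Crest.Agent.R136.Cr544

/-- **the leaf `Rows34`** -/
theorem rows34_leaf : Pin851.Rows34 := fun _ _ _ _ _ _ _ hW hx => rows34 hW hx

end Crest.Agent.R136.Cr544
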