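import Crest.Agent.R136.CubT_851

/-!
# R136, the specials of the thin pins (helper851): the rows `pcl`, `vcl`, `ccl`, `zrow`, `bd`
-/

set_option autoImplicit false
set_option linter.unusedSectionVars false
set_option linter.unusedVariables false

open Filter Topology

namespace Crest.Agent.R136.Pin851

open Finset Crest.Agent.R138.Ex926 Crest.Agent.R136.Net191 Crest.Agent.R136.Gf356
open Crest.Agent.R136.Qg926
open Crest.Agent.R136.NetW191 Crest.Agent.R136.EvW938 Crest.Agent.R136.PrW464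
open Crest.Agent.R136.LadW697 Crest.Agent.R136.LfW619 Crest.Agent.R136.RowW619
open Crest.Agent.R136.NatW697 Crest.Agent.R136.Qd329
open Crest.Agent.R136.PqG464 (wtW wtW_list)
open Crest.Agent.R136.Cub191 (SProf SRow SEvo SSlope)
open Crest.Agent.R136.K2S774 (cn ind1)

section

variable (W : Wnd 18 fun _ => ℕ × ℝ) (κ : ℕ → ℝ) (u : ℕ → Fin 18 → ℝ) (f : ℕ → ℕ × ℝ → FW)

/-- `A` -/
noncomputable def aT (n k l : ℕ) : ℝ := hT W κ u f n k l 2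

/-- `c` -/
noncomputable def cT (n k l : ℕ) : ℝ := hT W κ u f n k l 1

/-- `β` -/
noncomputable def bT (n k l : ℕ) : ℝ := Bt (κ n) (hT W κ u f n k l)

/-- `b = 5` -/
noncomputable def F5 (n k l : ℕ) : ℝ := 2 * vT W κ u f n k l 7

noncomputable def Y5 (n k l : ℕ) : ℝ := vT W κ u f n k l 5

noncomputable def Q5 (n k l : ℕ) : ℝ := 2 * hT W κ u f n k l 2 * (2 * vT W κ u f n k l 7)

noncomputable def K5 (n k l : ℕ) : ℝ :=
  vT W κ u f n k l 9 - 4 * κ n * (hT W κ u f n k l 1 * vT W κ u f n k l 7)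

noncomputable def P5 (n k l : ℕ) : ℝ := vT W κ u f n k l 14

/-- `b = 4` -/
noncomputable def F4 (n k l : ℕ) : ℝ := vT W κ u f n k l 9

noncomputable def Y4 (n k l : ℕ) : ℝ := 3 * vT W κ u f n k l 6

noncomputable def Q4 (n k l : ℕ) : ℝ :=
  2 * vT W κ u f n k l 14 + 4 * (hT W κ u f n k l 2 * vT W κ u f n k l 9)

noncomputable def K4 (n k l : ℕ) : ℝ :=
  2 * (vT W κ u f n k l 10 - 2 * κ n * (hT W κ u f n k l 1 * vT W κ u f n k l 9))

noncomputable def P4 (n k l : ℕ) : ℝ :=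
  vT W κ u f n k l 15 - 2 * κ n * (hT W κ u f n k l 1 * vT W κ u f n k l 14)

end

section

variable {W : Wnd 18 fun _ => ℕ × ℝ} {E : ∀ n : ℕ, Finset (ℕ × ℝ)} {κ : ℕ → ℝ}
  {u : ℕ → Fin 18 → ℝ} {f : ℕ → ℕ × ℝ → FW} {lam : (Fin 18 → ℝ) → ℝ} {x : ℝ}

theorem flip {N η t p q : ℝ} (h : |q - p| ≤ N * η) (h' : N * η ≤ t) : |p - q| ≤ t := by
  rw [abs_sub_comm]; exact h.trans h'

/-- bounds of frames and flags -/
theorem PWin.hv_le (h : PWin W E κ u f {4} lam x) {n k l : ℕ} (g : W.Good n)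
    {F : Finset (ℕ × ℝ)} (hF : F ⊆ W.Cl n) (hl : (l, k) ∈ (W.cfg0 n F).I) (s : Fin 18) :
    |hT W κ u f n k l s| ≤ KM W ∧ |vT W κ u f n k l s| ≤ KM W := by
  obtain ⟨a1, -, -⟩ := Wnd.rep_of_mem hF hl
  obtain ⟨c1, -⟩ := zrep_mem hF hl
  have h1 := h.bnd g c1 a1 s
  have h2 := h.bnd g a1 c1 s
  have h3 := h.sg0 n s
  constructor
  · show |_ / _| ≤ _
    rw [abs_div, abs_of_pos h3, div_le_iff₀ h3]; exact h1
  · show |-(_ / _)| ≤ _
    rw [abs_neg, abs_div, abs_of_pos h3, div_le_iff₀ h3]; exact h2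

/-- bound -/
noncomputable def MM (W : Wnd 18 fun _ => ℕ × ℝ) : ℝ := 10 * KM W ^ 2

theorem PWin.KM2 (h : PWin W E κ u f {4} lam x) : 1 ≤ KM W ^ 2 ∧ KM W ≤ KM W ^ 2 := by
  have h1 := h.KM1
  constructor
  · exact one_le_pow₀ h1
  · nlinarith

theorem PWin.MM1 (h : PWin W E κ u f {4} lam x) : 1 ≤ MM W := by
  have := h.KM2.1
  unfold MM; linarith

/-! ### `b = 5` -/

theorem PWin.bd5 (h : PWin W E κ u f {4} lam x) : ∀ᶠ n in (U : Filter ℕ), ∀ k l,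
    (l, k) ∈ (W.cfg E n).I → |aT W κ u f n k l| ≤ MM W ∧ |F5 W κ u f n k l| ≤ MM W ∧
    |Q5 W κ u f n k l| ≤ MM W ∧ |cT W κ u f n k l| ≤ MM W ∧ |bT W κ u f n k l| ≤ MM W ∧
    |Y5 W κ u f n k l| ≤ MM W ∧ |K5 W κ u f n k l| ≤ MM W := by
  have hK1 := h.KM1
  obtain ⟨k1, k2⟩ := h.KM2
  filter_upwards [h.ev] with n ⟨g, hF, he⟩ k l hl
  rw [he] at hl
  have hH := fun s => (h.hv_le g hF hl s).1
  have hV := fun s => (h.hv_le g hF hl s).2
  have hκ := h.ww.hκ n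
  have m2 : |(2 : ℝ)| ≤ 2 := by norm_num
  have m4 : |(4 : ℝ)| ≤ 4 := by norm_num
  refine ⟨(hH 2).trans ?_, (c_mul m2 (hV 7)).trans ?_,
    (c_mul (c_mul m2 (hH 2)) (c_mul m2 (hV 7))).trans ?_, (hH 1).trans ?_,
    (c_add (hH 3) (c_mul (c_mul m2 hκ) (c_mul (hH 1) (hH 2)))).trans ?_, (hV 5).trans ?_, ?_⟩
  · unfold MM; linarith
  · unfold MM; linarith
  · unfold MM; nlinarith
  · unfold MM; linarith
  · unfold MM; nlinarith
  · unfold MM; linarith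
  · refine (abs_sub _ _).trans ((add_le_add (hV 9)
      (c_mul (c_mul m4 hκ) (c_mul (hH 1) (hV 7)))).trans ?_)
    unfold MM; nlinarith

theorem PWin.pcl5 (h : PWin W E κ u f {4} lam x) : ∀ ε : ℝ, 0 < ε → ∀ᶠ n in (U : Filter ℕ),
    ∀ k l l', (l, k) ∈ (W.cfg E n).I → (l', k) ∈ (W.cfg E n).I →
    (W.cfg E n).loose (ind {0, 2, 4, 7, 14} x) ε k l l' →
      |aT W κ u f n k l - aT W κ u f n k l'| ≤ W.B'.d n ^ (x - 2 * ε) ∧
      |F5 W κ u f n k l - F5 W κ u f n k l'| ≤ W.B'.d n ^ (x - 2 * ε) ∧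
      |Q5 W κ u f n k l - Q5 W κ u f n k l'| ≤ W.B'.d n ^ (x - 2 * ε) ∧
      |(P5 W κ u f n k l + κ n * aT W κ u f n k l ^ 2 * Y5 W κ u f n k l +
          aT W κ u f n k l * K5 W κ u f n k l +
          κ n * (cT W κ u f n k l * Q5 W κ u f n k l)) -
        (P5 W κ u f n k l' + κ n * aT W κ u f n k l' ^ 2 * Y5 W κ u f n k l' +
          aT W κ u f n k l' * K5 W κ u f n k l' +
          κ n * (cT W κ u f n k l' * Q5 W κ u f n k l'))| ≤ W.B'.d n ^ (x - 2 * ε) := by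
  intro ε hε
  filter_upwards [h.near (V := {0, 2, 4, 7, 14}) (by decide) ε hε] with n hn k l l' hl hl' hlo
  obtain ⟨η, h1, ⟨E', hE, A⟩, hr⟩ := hn k l l' hl hl' hlo
  obtain ⟨q1, q2, q3, q4⟩ := A.p35 hE (hr 2 (by decide) (by decide)) (hr 7 (by decide) (by decide))
    (hr 14 (by decide) (by decide))
  exact ⟨flip q1 h1, flip q2 h1, flip q3 h1, flip q4 h1⟩

theorem PWin.vcl5 (h : PWin W E κ u f {4} lam x) : ∀ ε : ℝ, 0 < ε → ∀ᶠ n in (U : Filter ℕ),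
    ∀ k l l', (l, k) ∈ (W.cfg E n).I → (l', k) ∈ (W.cfg E n).I →
    (W.cfg E n).loose (ind {0, 1, 3, 4, 5, 9, 14} x) ε k l l' →
      |cT W κ u f n k l - cT W κ u f n k l'| ≤ W.B'.d n ^ (x - 2 * ε) ∧
      |bT W κ u f n k l - bT W κ u f n k l'| ≤ W.B'.d n ^ (x - 2 * ε) ∧
      |Y5 W κ u f n k l - Y5 W κ u f n k l'| ≤ W.B'.d n ^ (x - 2 * ε) ∧
      |K5 W κ u f n k l - K5 W κ u f n k l'| ≤ W.B'.d n ^ (x - 2 * ε) ∧
      |(P5 W κ u f n k l + bT W κ u f n k l * F5 W κ u f n k l) -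
        (P5 W κ u f n k l' + bT W κ u f n k l' * F5 W κ u f n k l')| ≤
        W.B'.d n ^ (x - 2 * ε) := by
  intro ε hε
  filter_upwards [h.near (V := {0, 1, 3, 4, 5, 9, 14}) (by decide) ε hε] with
    n hn k l l' hl hl' hlo
  obtain ⟨η, h1, ⟨E', hE, A⟩, hr⟩ := hn k l l' hl hl' hlo
  obtain ⟨q1, q2, q3, q4, q5⟩ := A.v35 hE (hr 1 (by decide) (by decide))
    (hr 3 (by decide) (by decide)) (hr 5 (by decide) (by decide)) (hr 9 (by decide) (by decide))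
    (hr 14 (by decide) (by decide))
  exact ⟨flip q1 h1, flip q2 h1, flip q3 h1, flip q4 h1, flip q5 h1⟩

theorem PWin.ccl5 (h : PWin W E κ u f {4} lam x) : ∀ ε : ℝ, 0 < ε → ∀ᶠ n in (U : Filter ℕ),
    ∀ k l l', (l, k) ∈ (W.cfg E n).I → (l', k) ∈ (W.cfg E n).I →
    (W.cfg E n).loose (ind {0, 1, 4, 5} x) ε k l l' →
      |cT W κ u f n k l - cT W κ u f n k l'| ≤ W.B'.d n ^ (x - 2 * ε) ∧
      |Y5 W κ u f n k l - Y5 W κ u f n k l'| ≤ W.B'.d n ^ (x - 2 * ε) := by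
  intro ε hε
  filter_upwards [h.near (V := {0, 1, 4, 5}) (by decide) ε hε] with n hn k l l' hl hl' hlo
  obtain ⟨η, h1, ⟨E', hE, A⟩, hr⟩ := hn k l l' hl hl' hlo
  obtain ⟨k0, -⟩ := Kpow A.K1
  have q1 := A.fin hE (A.d1 hE (hr 1 (by decide) (by decide))) (by unfold NK; linarith)
  have q2 := A.fin hE (A.d5 hE (hr 5 (by decide) (by decide))) (by unfold NK; linarith)
  exact ⟨flip q1 h1, flip q2 h1⟩

/-! ### `b = 4` -/

theorem PWin.bd4 (h : PWin W E κ u f {4} lam x) : ∀ᶠ n in (U : Filter ℕ), ∀ k l,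
    (l, k) ∈ (W.cfg E n).I → |aT W κ u f n k l| ≤ MM W ∧ |F4 W κ u f n k l| ≤ MM W ∧
    |Q4 W κ u f n k l| ≤ MM W ∧ |cT W κ u f n k l| ≤ MM W ∧ |bT W κ u f n k l| ≤ MM W ∧
    |Y4 W κ u f n k l| ≤ MM W ∧ |K4 W κ u f n k l| ≤ MM W := by
  have hK1 := h.KM1
  obtain ⟨k1, k2⟩ := h.KM2
  filter_upwards [h.ev] with n ⟨g, hF, he⟩ k l hl
  rw [he] at hl
  have hH := fun s => (h.hv_le g hF hl s).1
  have hV := fun s => (h.hv_le g hF hl s).2
  have hκ := h.ww.hκ n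
  have m2 : |(2 : ℝ)| ≤ 2 := by norm_num
  have m3 : |(3 : ℝ)| ≤ 3 := by norm_num
  have m4 : |(4 : ℝ)| ≤ 4 := by norm_num
  refine ⟨(hH 2).trans ?_, (hV 9).trans ?_,
    (c_add (c_mul m2 (hV 14)) (c_mul m4 (c_mul (hH 2) (hV 9)))).trans ?_, (hH 1).trans ?_,
    (c_add (hH 3) (c_mul (c_mul m2 hκ) (c_mul (hH 1) (hH 2)))).trans ?_,
    (c_mul m3 (hV 6)).trans ?_, ?_⟩
  · unfold MM; linarith
  · unfold MM; linarith
  · unfold MM; nlinarith
  · unfold MM; linarith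
  · unfold MM; nlinarith
  · unfold MM; linarith
  · refine (c_mul m2 ((abs_sub _ _).trans (add_le_add (hV 10)
      (c_mul (c_mul m2 hκ) (c_mul (hH 1) (hV 9)))))).trans ?_
    unfold MM; nlinarith

theorem PWin.pcl4 (h : PWin W E κ u f {4} lam x) : ∀ ε : ℝ, 0 < ε → ∀ᶠ n in (U : Filter ℕ),
    ∀ k l l', (l, k) ∈ (W.cfg E n).I → (l', k) ∈ (W.cfg E n).I →
    (W.cfg E n).loose (ind {0, 2, 4, 5, 7, 9, 14, 15} x) ε k l l' →
      |aT W κ u f n k l - aT W κ u f n k l'| ≤ W.B'.d n ^ (x - 2 * ε) ∧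
      |F4 W κ u f n k l - F4 W κ u f n k l'| ≤ W.B'.d n ^ (x - 2 * ε) ∧
      |Q4 W κ u f n k l - Q4 W κ u f n k l'| ≤ W.B'.d n ^ (x - 2 * ε) ∧
      |(P4 W κ u f n k l + κ n * aT W κ u f n k l ^ 2 * Y4 W κ u f n k l +
          aT W κ u f n k l * K4 W κ u f n k l +
          κ n * (cT W κ u f n k l * Q4 W κ u f n k l)) -
        (P4 W κ u f n k l' + κ n * aT W κ u f n k l' ^ 2 * Y4 W κ u f n k l' +
          aT W κ u f n k l' * K4 W κ u f n k l' +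
          κ n * (cT W κ u f n k l' * Q4 W κ u f n k l'))| ≤ W.B'.d n ^ (x - 2 * ε) := by
  intro ε hε
  filter_upwards [h.near (V := {0, 2, 4, 5, 7, 9, 14, 15}) (by decide) ε hε] with
    n hn k l l' hl hl' hlo
  obtain ⟨η, h1, ⟨E', hE, A⟩, hr⟩ := hn k l l' hl hl' hlo
  obtain ⟨q1, q2, q3, q4⟩ := A.p34 hE (hr 2 (by decide) (by decide)) (hr 5 (by decide) (by decide))
    (hr 7 (by decide) (by decide)) (hr 9 (by decide) (by decide))
    (hr 14 (by decide) (by decide)) (hr 15 (by decide) (by decide))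
  exact ⟨flip q1 h1, flip q2 h1, flip q3 h1, flip q4 h1⟩

theorem PWin.vcl4 (h : PWin W E κ u f {4} lam x) : ∀ ε : ℝ, 0 < ε → ∀ᶠ n in (U : Filter ℕ),
    ∀ k l l', (l, k) ∈ (W.cfg E n).I → (l', k) ∈ (W.cfg E n).I →
    (W.cfg E n).loose (ind {0, 1, 3, 4, 5, 6, 7, 10, 15} x) ε k l l' →
      |cT W κ u f n k l - cT W κ u f n k l'| ≤ W.B'.d n ^ (x - 2 * ε) ∧
      |bT W κ u f n k l - bT W κ u f n k l'| ≤ W.B'.d n ^ (x - 2 * ε) ∧
      |Y4 W κ u f n k l - Y4 W κ u f n k l'| ≤ W.B'.d n ^ (x - 2 * ε) ∧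
      |K4 W κ u f n k l - K4 W κ u f n k l'| ≤ W.B'.d n ^ (x - 2 * ε) ∧
      |(P4 W κ u f n k l + bT W κ u f n k l * F4 W κ u f n k l) -
        (P4 W κ u f n k l' + bT W κ u f n k l' * F4 W κ u f n k l')| ≤
        W.B'.d n ^ (x - 2 * ε) := by
  intro ε hε
  filter_upwards [h.near (V := {0, 1, 3, 4, 5, 6, 7, 10, 15}) (by decide) ε hε] with
    n hn k l l' hl hl' hlo
  obtain ⟨η, h1, ⟨E', hE, A⟩, hr⟩ := hn k l l' hl hl' hlo
  obtain ⟨q1, q2, q3, q4, q5⟩ := A.v34 hE (hr 1 (by decide) (by decide))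
    (hr 3 (by decide) (by decide)) (hr 5 (by decide) (by decide)) (hr 6 (by decide) (by decide))
    (hr 7 (by decide) (by decide)) (hr 10 (by decide) (by decide))
    (hr 15 (by decide) (by decide))
  exact ⟨flip q1 h1, flip q2 h1, flip q3 h1, flip q4 h1, flip q5 h1⟩

theorem PWin.ccl4 (h : PWin W E κ u f {4} lam x) : ∀ ε : ℝ, 0 < ε → ∀ᶠ n in (U : Filter ℕ),
    ∀ k l l', (l, k) ∈ (W.cfg E n).I → (l', k) ∈ (W.cfg E n).I →
    (W.cfg E n).loose (ind {0, 1, 4, 5, 6, 7} x) ε k l l' →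
      |cT W κ u f n k l - cT W κ u f n k l'| ≤ W.B'.d n ^ (x - 2 * ε) ∧
      |Y4 W κ u f n k l - Y4 W κ u f n k l'| ≤ W.B'.d n ^ (x - 2 * ε) := by
  intro ε hε
  filter_upwards [h.near (V := {0, 1, 4, 5, 6, 7}) (by decide) ε hε] with n hn k l l' hl hl' hlo
  obtain ⟨η, h1, ⟨E', hE, A⟩, hr⟩ := hn k l l' hl hl' hlo
  obtain ⟨k0, kk, -⟩ := Kpow A.K1
  have q1 := A.fin hE (A.d1 hE (hr 1 (by decide) (by decide))) (by unfold NK; linarith)
  have q2 : |3 * vT W κ u f n k l' 6 - 3 * vT W κ u f n k l 6| ≤ NK (KM W) * η := by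
    have e : 3 * vT W κ u f n k l' 6 - 3 * vT W κ u f n k l 6 =
      3 * (vT W κ u f n k l' 6 - vT W κ u f n k l 6) := by ring
    rw [e]
    exact A.fin hE (s_mul (by norm_num : |(3:ℝ)| ≤ 3) (A.d6 hE (hr 5 (by decide) (by decide))
      (hr 6 (by decide) (by decide)))) (by unfold NK; linarith)
  exact ⟨flip q1 h1, flip q2 h1⟩

theorem PWin.zrow4 (h : PWin W E κ u f {4} lam x) : ∀ ε : ℝ, 0 < ε → ∀ᶠ n in (U : Filter ℕ),
    ∀ k l l', (l, k) ∈ (W.cfg E n).I → (l', k) ∈ (W.cfg E n).I →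
    (W.cfg E n).loose (ind {0, 2, 3, 4, 5, 7, 9, 10} x) ε k l l' →
      |aT W κ u f n k l - aT W κ u f n k l'| ≤ W.B'.d n ^ (x - 2 * ε) ∧
      |F4 W κ u f n k l - F4 W κ u f n k l'| ≤ W.B'.d n ^ (x - 2 * ε) ∧
      |(bT W κ u f n k l - bT W κ u f n k l') -
        2 * κ n * aT W κ u f n k l * (cT W κ u f n k l - cT W κ u f n k l')| ≤
        W.B'.d n ^ (x - 2 * ε) ∧
      |(K4 W κ u f n k l + 4 * κ n * cT W κ u f n k l * F4 W κ u f n k l +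
          2 * κ n * aT W κ u f n k l * Y4 W κ u f n k l) -
        (K4 W κ u f n k l' + 4 * κ n * cT W κ u f n k l' * F4 W κ u f n k l' +
          2 * κ n * aT W κ u f n k l' * Y4 W κ u f n k l')| ≤ W.B'.d n ^ (x - 2 * ε) := by
  intro ε hε
  filter_upwards [h.near (V := {0, 2, 3, 4, 5, 7, 9, 10}) (by decide) ε hε] with
    n hn k l l' hl hl' hlo
  obtain ⟨η, h1, ⟨E', hE, A⟩, hr⟩ := hn k l l' hl hl' hlo
  obtain ⟨q1, q2, q3, q4⟩ := A.z34 hE (hr 2 (by decide) (by decide)) (hr 3 (by decide) (by decide))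
    (hr 5 (by decide) (by decide)) (hr 7 (by decide) (by decide)) (hr 9 (by decide) (by decide))
    (hr 10 (by decide) (by decide))
  exact ⟨flip q1 h1, flip q2 h1, q3.trans h1, q4.trans h1⟩

end

end Crest.Agent.R136.Pin851
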