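import Crest.Agent.R136.CubG_938
import Crest.Agent.R136.CubS_851

/-!
# R136, the specials of the thin pins (helper938): the rows of the evolution

* `sevo35`, `sevo34` : `SEvo` of the two specials over a window
-/

set_option autoImplicit false
set_option linter.unusedSectionVars false
set_option linter.unusedVariables false

open Filter Topology

namespace Crest.Agent.R136.Cub938

open Finset Crest.Agent.R138.Ex926 Crest.Agent.R136.Net191 Crest.Agent.R136.Gf356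
open Crest.Agent.R136.Qg926 Crest.Agent.R136.NetW191 Crest.Agent.R136.EvW938
open Crest.Agent.R136.PqG464 (wtW wtW_list)
open Crest.Agent.R136.LadW697 Crest.Agent.R136.Pin851
open Crest.Agent.R136.Cub191 (SEvo)

section

variable {W : Wnd 18 fun _ => ℕ × ℝ} {κ : ℕ → ℝ} {u : ℕ → Fin 18 → ℝ}
  {f : ℕ → ℕ × ℝ → FW} {E : ∀ n : ℕ, Finset (ℕ × ℝ)} {lam : (Fin 18 → ℝ) → ℝ} {x : ℝ}
  {n : ℕ}

variable (h : PWin W E κ u f {4} lam x)
include h

/-- all slots are bounded -/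
theorem rel_ub {A : ℝ} (hA0 : 0 ≤ A) (hA : ∀ s : Fin 18, W.K0 ≤ A * W.kap s)
    (g : W.Good n) (hE : E n ⊆ W.Cl n) {k l l' : ℕ} (h1 : (l, k) ∈ (W.cfg0 n (E n)).I)
    (h2 : (l', k) ∈ (W.cfg0 n (E n)).I) (s : Fin 18) :
    |(W.cfg0 n (E n)).rel k l l' s| ≤ A := by
  obtain ⟨a1, a2, a3⟩ := Wnd.rep_of_mem hE h1
  obtain ⟨b1, b2, b3⟩ := Wnd.rep_of_mem hE h2
  by_cases hs : s ∈ W.S
  · have e1 : (W.cfg0 n (E n)).rel k l l' s = 0 := if_pos hs
    rw [e1, abs_zero]; exact hA0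
  · have e1 : (W.cfg0 n (E n)).rel k l l' s = W.crd n (W.rep n l k) (W.rep n l' k) s := if_neg hs
    rw [e1]
    refine (h.ww.crd_le g a1 b1 s).trans ?_
    rw [div_le_iff₀ (h.ww.ok.kap s)]
    exact hA s

/-- slot `0` -/
theorem rel_0 (k l l' : ℕ) : (W.cfg0 n (E n)).rel k l l' 0 = 0 :=
  if_pos (by rw [h.S]; simp)

/-- heights -/
theorem zbd_h {M : ℝ} (hM : 2 * (W.K0 / W.kap 0) ≤ M) : ∀ᶠ n in (U : Filter ℕ),
    ∀ k ∈ (W.cfg E n).Z, ∀ k' ∈ (W.cfg E n).Z, |(W.cfg E n).z k' - (W.cfg E n).z k| ≤ M := by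
  filter_upwards [h.ev] with n ⟨g, hE, he⟩ k hk k' hk'
  rw [he] at hk hk' ⊢
  refine (abs_sub _ _).trans ((add_le_add (zn h g hE hk') (zn h g hE hk)).trans ?_)
  linarith

omit h in
theorem absorb0 (B : Base) {A ε C : ℝ} {n : ℕ} (hε : 0 < ε) (hC : 2 ≤ C)
    (hA : A ≤ B.d n ^ (-ε)) : A ≤ B.d n ^ (0 - C * ε) :=
  hA.trans (Real.rpow_le_rpow_of_exponent_ge (B.pos n) (B.lt n).le (by nlinarith))

/-- **evolution, `b = 5`** -/
theorem sevo35 {M C : ℝ} (hM : 2 * (W.K0 / W.kap 0) ≤ M) (hC : 2 ≤ C) :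
    SEvo W.B' (W.cfg E) x M C 2 (ind {0, 4} x) (aT W κ u f) (F5 W κ u f) (cT W κ u f)
      (Y5 W κ u f) := by
  obtain ⟨P, hP1, hP⟩ := pair_n h
  obtain ⟨A, hA1, hA⟩ := exC h
  refine ⟨fun ε hε => ?_, zbd_h h hM, fun ε hε => ?_⟩
  · filter_upwards [h.ev, ev_const_le W.B' hε P, ev_const_le W.B' hε A] with n ⟨g, hE, he⟩ hc hc'
      k k' l l' h1 h2 h3 h4 hlo
    rw [he] at h1 h2 h3 h4 hlo ⊢
    have r4 : |(W.cfg0 n (E n)).rel k l l' 4| ≤ W.B'.d n ^ (x - ε) := by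
      have := hlo 4
      rwa [ind_mem (by decide)] at this
    have hη : W.B'.d n ^ x ≤ W.B'.d n ^ (x - ε) :=
      Real.rpow_le_rpow_of_exponent_ge (W.B'.pos n) (W.B'.lt n).le (by linarith)
    obtain ⟨⟨q1, q2, q3, q4⟩, -, -⟩ := hP n g hE k k' l l' h1 h2 h3 h4 _ hη r4 _ rfl
    intro s
    by_cases hs : s ∈ ({0, 4} : Finset (Fin 18))
    · rw [ind_mem hs]
      simp only [mem_insert, mem_singleton] at hs
      rcases hs with rfl | rfl
      · rw [rel_0 h, abs_zero]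
        exact (Real.rpow_pos_of_pos (W.B'.pos n) _).le
      · exact q4.trans (absorb2 W.B' hε hC hc)
    · rw [ind_notMem hs]
      exact (rel_ub h (by linarith) (fun s => (hA s).2.2.2) g hE h2 h4 s).trans
        (absorb0 W.B' hε hC hc')
  · filter_upwards [h.ev, ev_const_le W.B' hε P] with n ⟨g, hE, he⟩ hc k k' l l' h1 h2 h3 h4 hlo
    rw [he] at h1 h2 h3 h4 hlo ⊢
    have r4 : |(W.cfg0 n (E n)).rel k l l' 4| ≤ W.B'.d n ^ (x - ε) := by
      have := hlo 4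
      rwa [ind_mem (by decide)] at this
    have hη : W.B'.d n ^ x ≤ W.B'.d n ^ (x - ε) :=
      Real.rpow_le_rpow_of_exponent_ge (W.B'.pos n) (W.B'.lt n).le (by linarith)
    obtain ⟨⟨q1, q2, q3, q4⟩, -, -⟩ := hP n g hE k k' l l' h1 h2 h3 h4 _ hη r4 _ rfl
    exact ⟨q1.trans (absorb2 W.B' hε hC hc), q3.trans (absorb2 W.B' hε hC hc),
      q2.trans (absorb2 W.B' hε hC hc)⟩

/-- **evolution, `b = 4`** -/
theorem sevo34 {M C : ℝ} (hM : 2 * (W.K0 / W.kap 0) ≤ M) (hC : 2 ≤ C) :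
    SEvo W.B' (W.cfg E) x M C (1 / 3) (ind {0, 4, 5, 7} x) (aT W κ u f) (F4 W κ u f)
      (cT W κ u f) (Y4 W κ u f) := by
  obtain ⟨P, hP1, hP⟩ := pair_n h
  obtain ⟨A, hA1, hA⟩ := exC h
  refine ⟨fun ε hε => ?_, zbd_h h hM, fun ε hε => ?_⟩
  · filter_upwards [h.ev, ev_const_le W.B' hε P, ev_const_le W.B' hε A] with n ⟨g, hE, he⟩ hc hc'
      k k' l l' h1 h2 h3 h4 hlo
    rw [he] at h1 h2 h3 h4 hlo ⊢
    have r4 : |(W.cfg0 n (E n)).rel k l l' 4| ≤ W.B'.d n ^ (x - ε) := by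
      have := hlo 4
      rwa [ind_mem (by decide)] at this
    have r5 : |(W.cfg0 n (E n)).rel k l l' 5| ≤ W.B'.d n ^ (x - ε) := by
      have := hlo 5
      rwa [ind_mem (by decide)] at this
    have r7 : |(W.cfg0 n (E n)).rel k l l' 7| ≤ W.B'.d n ^ (x - ε) := by
      have := hlo 7
      rwa [ind_mem (by decide)] at this
    have hη : W.B'.d n ^ x ≤ W.B'.d n ^ (x - ε) :=
      Real.rpow_le_rpow_of_exponent_ge (W.B'.pos n) (W.B'.lt n).le (by linarith)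
    obtain ⟨⟨q1, q2, q3, q4⟩, q5, -⟩ := hP n g hE k k' l l' h1 h2 h3 h4 _ hη r4 _ rfl
    obtain ⟨-, q6, q7⟩ := q5 r5 r7
    intro s
    by_cases hs : s ∈ ({0, 4, 5, 7} : Finset (Fin 18))
    · rw [ind_mem hs]
      simp only [mem_insert, mem_singleton] at hs
      rcases hs with rfl | rfl | rfl | rfl
      · rw [rel_0 h, abs_zero]
        exact (Real.rpow_pos_of_pos (W.B'.pos n) _).le
      · exact q4.trans (absorb2 W.B' hε hC hc)
      · exact q6.trans (absorb2 W.B' hε hC hc)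
      · exact q7.trans (absorb2 W.B' hε hC hc)
    · rw [ind_notMem hs]
      exact (rel_ub h (by linarith) (fun s => (hA s).2.2.2) g hE h2 h4 s).trans
        (absorb0 W.B' hε hC hc')
  · filter_upwards [h.ev, ev_const_le W.B' hε P] with n ⟨g, hE, he⟩ hc k k' l l' h1 h2 h3 h4 hlo
    rw [he] at h1 h2 h3 h4 hlo ⊢
    have r4 : |(W.cfg0 n (E n)).rel k l l' 4| ≤ W.B'.d n ^ (x - ε) := by
      have := hlo 4
      rwa [ind_mem (by decide)] at this
    have r5 : |(W.cfg0 n (E n)).rel k l l' 5| ≤ W.B'.d n ^ (x - ε) := by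
      have := hlo 5
      rwa [ind_mem (by decide)] at this
    have r7 : |(W.cfg0 n (E n)).rel k l l' 7| ≤ W.B'.d n ^ (x - ε) := by
      have := hlo 7
      rwa [ind_mem (by decide)] at this
    have hη : W.B'.d n ^ x ≤ W.B'.d n ^ (x - ε) :=
      Real.rpow_le_rpow_of_exponent_ge (W.B'.pos n) (W.B'.lt n).le (by linarith)
    obtain ⟨⟨q1, q2, q3, q4⟩, q5, -⟩ := hP n g hE k k' l l' h1 h2 h3 h4 _ hη r4 _ rfl
    obtain ⟨q9, -, -⟩ := q5 r5 r7
    exact ⟨q1.trans (absorb2 W.B' hε hC hc), q9.trans (absorb2 W.B' hε hC hc),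
      q2.trans (absorb2 W.B' hε hC hc)⟩

end

end Crest.Agent.R136.Cub938
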