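import Crest.Agent.R136.CubR_851

/-!
# R136, the specials of the thin pins (helper851): the rows from the composition rules
-/

set_option autoImplicit false
set_option linter.unusedSectionVars false
set_option linter.unusedVariables false

open Filter Topology

namespace Crest.Agent.R136.Pin851

open Finset Crest.Agent.R136.Net191
open Crest.Agent.R136.NetW191 Crest.Agent.R136.EvW938

/-- constant of the rows -/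
def NK (K : ℝ) : ℝ := 400 * K ^ 5

section

variable {B B' N N' η c c' x y : ℝ}

theorem s_add (h : |x| ≤ N * η) (h' : |y| ≤ N' * η) : |x + y| ≤ (N + N') * η := by
  rw [add_mul]; exact (abs_add_le _ _).trans (add_le_add h h')

theorem s_sub (h : |x| ≤ N * η) (h' : |y| ≤ N' * η) : |x - y| ≤ (N + N') * η := by
  rw [add_mul]; exact (abs_sub _ _).trans (add_le_add h h')

theorem s_mul (hc : |c| ≤ B) (h : |x| ≤ N * η) : |c * x| ≤ (B * N) * η := by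
  rw [abs_mul, mul_assoc]
  exact mul_le_mul hc h (abs_nonneg _) ((abs_nonneg _).trans hc)

theorem c_mul (hc : |c| ≤ B) (h : |c'| ≤ B') : |c * c'| ≤ B * B' := by
  rw [abs_mul]
  exact mul_le_mul hc h (abs_nonneg _) ((abs_nonneg _).trans hc)

theorem c_add (hc : |c| ≤ B) (h : |c'| ≤ B') : |c + c'| ≤ B + B' :=
  (abs_add_le _ _).trans (add_le_add hc h)

theorem s_near (h : |x - y| ≤ N * η) (h' : |x| ≤ N' * η) : |y| ≤ (N' + N) * η := by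
  have := s_sub h' h
  rwa [sub_sub_cancel] at this

end

/-- powers of `K` -/
theorem Kpow {K : ℝ} (h : 1 ≤ K) : 1 ≤ K ^ 5 ∧ K ≤ K ^ 5 ∧ K ^ 2 ≤ K ^ 5 ∧ K ^ 3 ≤ K ^ 5 ∧
    K ^ 4 ≤ K ^ 5 := by
  refine ⟨one_le_pow₀ h, ?_, pow_le_pow_right₀ h (by norm_num), pow_le_pow_right₀ h (by norm_num),
    pow_le_pow_right₀ h (by norm_num)⟩
  calc K = K ^ 1 := (pow_one K).symm
    _ ≤ K ^ 5 := pow_le_pow_right₀ h (by norm_num)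

/-- slope `β` -/
def Bt (κ : ℝ) (H : Fin 18 → ℝ) : ℝ := H 3 + 2 * κ * (H 1 * H 2)

namespace Apx

variable {κ K E η t : ℝ} {H H' V V' R : Fin 18 → ℝ}

section base

variable (A : Apx κ K E H H' V V' R) (hE : E ≤ 1 * η)

include A

theorem n0 : 0 ≤ K := zero_le_one.trans A.K1

theorem k2 : |2 * κ| ≤ 2 := by
  rw [abs_mul, abs_of_pos (by norm_num : (0:ℝ) < 2)]; linarith [A.κ1]

include hE

theorem η0 : 0 ≤ η := by linarith [A.E0]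

theorem fin {N x : ℝ} (h : |x| ≤ N * η) (hN : N ≤ NK K) : |x| ≤ NK K * η :=
  h.trans (mul_le_mul_of_nonneg_right hN (A.η0 hE))

theorem d1 (h1 : |R 1| ≤ 1 * η) : |H' 1 - H 1| ≤ 2 * η := by
  have := s_near (A.r1.trans hE) h1
  linarith

theorem d2 (h2 : |R 2| ≤ 1 * η) : |H' 2 - H 2| ≤ 2 * η := by
  have := s_near (A.r2.trans hE) h2
  linarith

theorem x3 (h3 : |R 3| ≤ 1 * η) :
    |H' 3 - H 3 + 2 * κ * H 1 * (H' 2 - H 2)| ≤ 2 * η := by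
  have := s_near (A.r3.trans hE) h3
  linarith

theorem d5 (h5 : |R 5| ≤ 1 * η) : |V' 5 - V 5| ≤ 2 * η := by
  have := s_near (A.r5.trans hE) h5
  linarith

theorem x6 (h6 : |R 6| ≤ 1 * η) :
    |(V' 6 - V 6) - 2 * κ * H' 1 * (V' 5 - V 5)| ≤ 2 * η := by
  have := s_near (A.r6.trans hE) h6
  linarith

theorem d7 (h7 : |R 7| ≤ 1 * η) : |V' 7 - V 7| ≤ 2 * η := by
  have := s_near (A.r7.trans hE) h7
  linarith

theorem x9 (h9 : |R 9| ≤ 1 * η) : |(V' 9 - V 9) + 2 * κ * H' 2 * (V' 5 - V 5) -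
    4 * κ * H' 1 * (V' 7 - V 7)| ≤ 2 * η := by
  have := s_near (A.r9.trans hE) h9
  linarith

theorem x10 (h : |R 10| ≤ 1 * η) : |(V' 10 - V 10) - 4 * κ ^ 2 * H' 1 * H' 2 * (V' 5 - V 5) +
    κ * H' 3 * (V' 5 - V 5) + 3 * κ * H' 2 * (V' 6 - V 6) +
    4 * κ ^ 2 * H' 1 ^ 2 * (V' 7 - V 7) - 2 * κ * H' 1 * (V' 9 - V 9)| ≤ 2 * η := by
  have := s_near (A.r10.trans hE) h
  linarith

theorem x14 (h : |R 14| ≤ 1 * η) : |(V' 14 - V 14) + κ * H' 2 ^ 2 * (V' 5 - V 5) +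
    2 * H' 3 * (V' 7 - V 7) + H' 2 * (V' 9 - V 9)| ≤ 2 * η := by
  have := s_near (A.r14.trans hE) h
  linarith

theorem x15 (h : |R 15| ≤ 1 * η) : |(V' 15 - V 15) - 2 * κ ^ 2 * H' 1 * H' 2 ^ 2 * (V' 5 - V 5) +
    2 * κ * H' 2 * H' 3 * (V' 5 - V 5) + 3 * κ * H' 2 ^ 2 * (V' 6 - V 6) -
    4 * κ * H' 1 * H' 3 * (V' 7 - V 7) - 2 * κ * H' 1 * H' 2 * (V' 9 - V 9) +
    H' 3 * (V' 9 - V 9) + 2 * H' 2 * (V' 10 - V 10) - 2 * κ * H' 1 * (V' 14 - V 14)| ≤ 2 * η := by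
  have := s_near (A.r15.trans hE) h
  linarith

/-- `β` -/
theorem bt (h1 : |R 1| ≤ 1 * η) (h3 : |R 3| ≤ 1 * η) : |Bt κ H' - Bt κ H| ≤ (2 + 2 * K * 2) * η := by
  have e : Bt κ H' - Bt κ H = (H' 3 - H 3 + 2 * κ * H 1 * (H' 2 - H 2)) +
      (2 * κ) * H' 2 * (H' 1 - H 1) := by unfold Bt; ring
  rw [e]
  exact s_add (A.x3 hE h3) (s_mul (c_mul A.k2 (A.bH' 2)) (A.d1 hE h1))

/-- slot `3` from `β` -/
theorem r3_of (h1 : |R 1| ≤ 1 * η) (hb : |Bt κ H' - Bt κ H| ≤ t) :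
    |R 3| ≤ t + NK K * η := by
  have e : R 3 = (R 3 - (H' 3 - H 3 + 2 * κ * H 1 * (H' 2 - H 2))) + (Bt κ H' - Bt κ H) -
      (2 * κ) * H' 2 * (H' 1 - H 1) := by unfold Bt; ring
  have h4 := s_mul (c_mul A.k2 (A.bH' 2)) (A.d1 hE h1)
  have h5 := A.r3
  obtain ⟨k0, k1, -⟩ := Kpow A.K1
  have hη := A.η0 hE
  have h6 : (1 + 2 * K * 2) * η ≤ NK K * η :=
    mul_le_mul_of_nonneg_right (by unfold NK; linarith) hη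
  rw [e]
  have a1 := abs_sub ((R 3 - (H' 3 - H 3 + 2 * κ * H 1 * (H' 2 - H 2))) + (Bt κ H' - Bt κ H))
    ((2 * κ) * H' 2 * (H' 1 - H 1))
  have a2 := abs_add_le (R 3 - (H' 3 - H 3 + 2 * κ * H 1 * (H' 2 - H 2))) (Bt κ H' - Bt κ H)
  linarith

/-! ### `b = 5` -/

theorem p35 (h2 : |R 2| ≤ 1 * η) (h7 : |R 7| ≤ 1 * η) (h14 : |R 14| ≤ 1 * η) :
    |H' 2 - H 2| ≤ NK K * η ∧ |2 * V' 7 - 2 * V 7| ≤ NK K * η ∧
    |2 * H' 2 * (2 * V' 7) - 2 * H 2 * (2 * V 7)| ≤ NK K * η ∧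
    |(V' 14 + κ * H' 2 ^ 2 * V' 5 + H' 2 * (V' 9 - 4 * κ * (H' 1 * V' 7)) +
        κ * (H' 1 * (2 * H' 2 * (2 * V' 7)))) -
      (V 14 + κ * H 2 ^ 2 * V 5 + H 2 * (V 9 - 4 * κ * (H 1 * V 7)) +
        κ * (H 1 * (2 * H 2 * (2 * V 7))))| ≤ NK K * η := by
  obtain ⟨k0, k1, k2, k3, k4⟩ := Kpow A.K1
  have m2 : |(2 : ℝ)| ≤ 2 := by norm_num
  have m4 : |(4 : ℝ)| ≤ 4 := by norm_num
  have D2 := A.d2 hE h2
  have D7 := A.d7 hE h7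
  have X := A.x14 hE h14
  refine ⟨A.fin hE D2 (by unfold NK; linarith), ?_, ?_, ?_⟩
  · have e : 2 * V' 7 - 2 * V 7 = 2 * (V' 7 - V 7) := by ring
    rw [e]
    exact A.fin hE (s_mul m2 D7) (by unfold NK; linarith)
  · have e : 2 * H' 2 * (2 * V' 7) - 2 * H 2 * (2 * V 7) =
        4 * H' 2 * (V' 7 - V 7) + 4 * V 7 * (H' 2 - H 2) := by ring
    rw [e]
    exact A.fin hE (s_add (s_mul (c_mul m4 (A.bH' 2)) D7) (s_mul (c_mul m4 (A.bV 7)) D2))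
      (by unfold NK; linarith)
  · have e : (V' 14 + κ * H' 2 ^ 2 * V' 5 + H' 2 * (V' 9 - 4 * κ * (H' 1 * V' 7)) +
        κ * (H' 1 * (2 * H' 2 * (2 * V' 7)))) -
      (V 14 + κ * H 2 ^ 2 * V 5 + H 2 * (V 9 - 4 * κ * (H 1 * V 7)) +
        κ * (H 1 * (2 * H 2 * (2 * V 7)))) =
        ((V' 14 - V 14) + κ * H' 2 ^ 2 * (V' 5 - V 5) + 2 * H' 3 * (V' 7 - V 7) +
          H' 2 * (V' 9 - V 9)) - 2 * H' 3 * (V' 7 - V 7) +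
        κ * (H' 2 + H 2) * V 5 * (H' 2 - H 2) + V 9 * (H' 2 - H 2) := by ring
    rw [e]
    exact A.fin hE (s_add (s_add (s_sub X (s_mul (c_mul m2 (A.bH' 3)) D7))
      (s_mul (c_mul (c_mul A.κ1 (c_add (A.bH' 2) (A.bH 2))) (A.bV 5)) D2))
      (s_mul (A.bV 9) D2)) (by unfold NK; linarith)

theorem v35 (h1 : |R 1| ≤ 1 * η) (h3 : |R 3| ≤ 1 * η) (h5 : |R 5| ≤ 1 * η) (h9 : |R 9| ≤ 1 * η)
    (h14 : |R 14| ≤ 1 * η) :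
    |H' 1 - H 1| ≤ NK K * η ∧ |Bt κ H' - Bt κ H| ≤ NK K * η ∧ |V' 5 - V 5| ≤ NK K * η ∧
    |(V' 9 - 4 * κ * (H' 1 * V' 7)) - (V 9 - 4 * κ * (H 1 * V 7))| ≤ NK K * η ∧
    |(V' 14 + Bt κ H' * (2 * V' 7)) - (V 14 + Bt κ H * (2 * V 7))| ≤ NK K * η := by
  obtain ⟨k0, k1, k2, k3, k4⟩ := Kpow A.K1
  have m2 : |(2 : ℝ)| ≤ 2 := by norm_num
  have m4 : |(4 : ℝ)| ≤ 4 := by norm_num
  have D1 := A.d1 hE h1
  have D5 := A.d5 hE h5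
  have X9 := A.x9 hE h9
  have X := A.x14 hE h14
  have B := A.bt hE h1 h3
  refine ⟨A.fin hE D1 (by unfold NK; linarith), A.fin hE B (by unfold NK; linarith),
    A.fin hE D5 (by unfold NK; linarith), ?_, ?_⟩
  · have e : (V' 9 - 4 * κ * (H' 1 * V' 7)) - (V 9 - 4 * κ * (H 1 * V 7)) =
        ((V' 9 - V 9) + 2 * κ * H' 2 * (V' 5 - V 5) - 4 * κ * H' 1 * (V' 7 - V 7)) -
        2 * κ * H' 2 * (V' 5 - V 5) - 4 * κ * V 7 * (H' 1 - H 1) := by ring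
    rw [e]
    exact A.fin hE (s_sub (s_sub X9 (s_mul (c_mul (c_mul m2 A.κ1) (A.bH' 2)) D5))
      (s_mul (c_mul (c_mul m4 A.κ1) (A.bV 7)) D1)) (by unfold NK; linarith)
  · have e : (V' 14 + Bt κ H' * (2 * V' 7)) - (V 14 + Bt κ H * (2 * V 7)) =
        ((V' 14 - V 14) + κ * H' 2 ^ 2 * (V' 5 - V 5) + 2 * H' 3 * (V' 7 - V 7) +
          H' 2 * (V' 9 - V 9)) -
        H' 2 * ((V' 9 - V 9) + 2 * κ * H' 2 * (V' 5 - V 5) - 4 * κ * H' 1 * (V' 7 - V 7)) +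
        κ * H' 2 * H' 2 * (V' 5 - V 5) + 2 * V 7 * (Bt κ H' - Bt κ H) := by
      unfold Bt; ring
    rw [e]
    exact A.fin hE (s_add (s_add (s_sub X (s_mul (A.bH' 2) X9))
      (s_mul (c_mul (c_mul A.κ1 (A.bH' 2)) (A.bH' 2)) D5))
      (s_mul (c_mul m2 (A.bV 7)) B)) (by unfold NK; nlinarith)

/-! ### `b = 4` -/

theorem d9 (h5 : |R 5| ≤ 1 * η) (h7 : |R 7| ≤ 1 * η) (h9 : |R 9| ≤ 1 * η) :
    |V' 9 - V 9| ≤ (2 + 2 * 1 * K * 2 + 4 * 1 * K * 2) * η := by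
  have m2 : |(2 : ℝ)| ≤ 2 := by norm_num
  have m4 : |(4 : ℝ)| ≤ 4 := by norm_num
  have e : V' 9 - V 9 = ((V' 9 - V 9) + 2 * κ * H' 2 * (V' 5 - V 5) -
      4 * κ * H' 1 * (V' 7 - V 7)) - 2 * κ * H' 2 * (V' 5 - V 5) +
      4 * κ * H' 1 * (V' 7 - V 7) := by ring
  rw [e]
  exact s_add (s_sub (A.x9 hE h9) (s_mul (c_mul (c_mul m2 A.κ1) (A.bH' 2)) (A.d5 hE h5)))
    (s_mul (c_mul (c_mul m4 A.κ1) (A.bH' 1)) (A.d7 hE h7))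

theorem d6 (h5 : |R 5| ≤ 1 * η) (h6 : |R 6| ≤ 1 * η) :
    |V' 6 - V 6| ≤ (2 + 2 * 1 * K * 2) * η := by
  have m2 : |(2 : ℝ)| ≤ 2 := by norm_num
  have e : V' 6 - V 6 = ((V' 6 - V 6) - 2 * κ * H' 1 * (V' 5 - V 5)) +
      2 * κ * H' 1 * (V' 5 - V 5) := by ring
  rw [e]
  exact s_add (A.x6 hE h6) (s_mul (c_mul (c_mul m2 A.κ1) (A.bH' 1)) (A.d5 hE h5))

theorem p34 (h2 : |R 2| ≤ 1 * η) (h5 : |R 5| ≤ 1 * η) (h7 : |R 7| ≤ 1 * η) (h9 : |R 9| ≤ 1 * η)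
    (h14 : |R 14| ≤ 1 * η) (h15 : |R 15| ≤ 1 * η) :
    |H' 2 - H 2| ≤ NK K * η ∧ |V' 9 - V 9| ≤ NK K * η ∧
    |(2 * V' 14 + 4 * (H' 2 * V' 9)) - (2 * V 14 + 4 * (H 2 * V 9))| ≤ NK K * η ∧
    |((V' 15 - 2 * κ * (H' 1 * V' 14)) + κ * H' 2 ^ 2 * (3 * V' 6) +
        H' 2 * (2 * (V' 10 - 2 * κ * (H' 1 * V' 9))) +
        κ * (H' 1 * (2 * V' 14 + 4 * (H' 2 * V' 9)))) -
      ((V 15 - 2 * κ * (H 1 * V 14)) + κ * H 2 ^ 2 * (3 * V 6) +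
        H 2 * (2 * (V 10 - 2 * κ * (H 1 * V 9))) +
        κ * (H 1 * (2 * V 14 + 4 * (H 2 * V 9))))| ≤ NK K * η := by
  obtain ⟨k0, k1, k2, k3, k4⟩ := Kpow A.K1
  have m2 : |(2 : ℝ)| ≤ 2 := by norm_num
  have m3 : |(3 : ℝ)| ≤ 3 := by norm_num
  have m4 : |(4 : ℝ)| ≤ 4 := by norm_num
  have D2 := A.d2 hE h2
  have D5 := A.d5 hE h5
  have D7 := A.d7 hE h7
  have D9 := A.d9 hE h5 h7 h9
  have X14 := A.x14 hE h14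
  have X15 := A.x15 hE h15
  have D14 : |V' 14 - V 14| ≤ (2 + 1 * K * K * 2 + 2 * K * 2 +
      K * (2 + 2 * 1 * K * 2 + 4 * 1 * K * 2)) * η := by
    have e : V' 14 - V 14 = ((V' 14 - V 14) + κ * H' 2 ^ 2 * (V' 5 - V 5) +
      2 * H' 3 * (V' 7 - V 7) + H' 2 * (V' 9 - V 9)) - κ * H' 2 * H' 2 * (V' 5 - V 5) -
      2 * H' 3 * (V' 7 - V 7) - H' 2 * (V' 9 - V 9) := by ring
    rw [e]
    exact s_sub (s_sub (s_sub X14 (s_mul (c_mul (c_mul A.κ1 (A.bH' 2)) (A.bH' 2)) D5))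
      (s_mul (c_mul m2 (A.bH' 3)) D7)) (s_mul (A.bH' 2) D9)
  refine ⟨A.fin hE D2 (by unfold NK; linarith), A.fin hE D9 (by unfold NK; linarith), ?_, ?_⟩
  · have e : (2 * V' 14 + 4 * (H' 2 * V' 9)) - (2 * V 14 + 4 * (H 2 * V 9)) =
        2 * (V' 14 - V 14) + 4 * H' 2 * (V' 9 - V 9) + 4 * V 9 * (H' 2 - H 2) := by ring
    rw [e]
    exact A.fin hE (s_add (s_add (s_mul m2 D14) (s_mul (c_mul m4 (A.bH' 2)) D9))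
      (s_mul (c_mul m4 (A.bV 9)) D2)) (by unfold NK; nlinarith)
  · have e : ((V' 15 - 2 * κ * (H' 1 * V' 14)) + κ * H' 2 ^ 2 * (3 * V' 6) +
        H' 2 * (2 * (V' 10 - 2 * κ * (H' 1 * V' 9))) +
        κ * (H' 1 * (2 * V' 14 + 4 * (H' 2 * V' 9)))) -
      ((V 15 - 2 * κ * (H 1 * V 14)) + κ * H 2 ^ 2 * (3 * V 6) +
        H 2 * (2 * (V 10 - 2 * κ * (H 1 * V 9))) +
        κ * (H 1 * (2 * V 14 + 4 * (H 2 * V 9)))) =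
      ((V' 15 - V 15) - 2 * κ ^ 2 * H' 1 * H' 2 ^ 2 * (V' 5 - V 5) +
        2 * κ * H' 2 * H' 3 * (V' 5 - V 5) + 3 * κ * H' 2 ^ 2 * (V' 6 - V 6) -
        4 * κ * H' 1 * H' 3 * (V' 7 - V 7) - 2 * κ * H' 1 * H' 2 * (V' 9 - V 9) +
        H' 3 * (V' 9 - V 9) + 2 * H' 2 * (V' 10 - V 10) - 2 * κ * H' 1 * (V' 14 - V 14)) +
      2 * κ * κ * H' 1 * H' 2 * H' 2 * (V' 5 - V 5) - 2 * κ * H' 2 * H' 3 * (V' 5 - V 5) +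
      4 * κ * H' 1 * H' 3 * (V' 7 - V 7) + 2 * κ * H' 1 * H' 2 * (V' 9 - V 9) -
      H' 3 * (V' 9 - V 9) + 2 * κ * H' 1 * (V' 14 - V 14) +
      3 * κ * (H' 2 + H 2) * V 6 * (H' 2 - H 2) + 2 * V 10 * (H' 2 - H 2) := by ring
    rw [e]
    exact A.fin hE (s_add (s_add (s_add (s_sub (s_add (s_add (s_sub (s_add X15
      (s_mul (c_mul (c_mul (c_mul (c_mul (c_mul m2 A.κ1) A.κ1) (A.bH' 1)) (A.bH' 2)) (A.bH' 2)) D5))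
      (s_mul (c_mul (c_mul (c_mul m2 A.κ1) (A.bH' 2)) (A.bH' 3)) D5))
      (s_mul (c_mul (c_mul (c_mul m4 A.κ1) (A.bH' 1)) (A.bH' 3)) D7))
      (s_mul (c_mul (c_mul (c_mul m2 A.κ1) (A.bH' 1)) (A.bH' 2)) D9))
      (s_mul (A.bH' 3) D9))
      (s_mul (c_mul (c_mul m2 A.κ1) (A.bH' 1)) D14))
      (s_mul (c_mul (c_mul (c_mul m3 A.κ1) (c_add (A.bH' 2) (A.bH 2))) (A.bV 6)) D2))
      (s_mul (c_mul m2 (A.bV 10)) D2)) (by unfold NK; nlinarith)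

theorem v34 (h1 : |R 1| ≤ 1 * η) (h3 : |R 3| ≤ 1 * η) (h5 : |R 5| ≤ 1 * η) (h6 : |R 6| ≤ 1 * η)
    (h7 : |R 7| ≤ 1 * η) (h10 : |R 10| ≤ 1 * η) (h15 : |R 15| ≤ 1 * η) :
    |H' 1 - H 1| ≤ NK K * η ∧ |Bt κ H' - Bt κ H| ≤ NK K * η ∧
    |3 * V' 6 - 3 * V 6| ≤ NK K * η ∧
    |2 * (V' 10 - 2 * κ * (H' 1 * V' 9)) - 2 * (V 10 - 2 * κ * (H 1 * V 9))| ≤ NK K * η ∧
    |((V' 15 - 2 * κ * (H' 1 * V' 14)) + Bt κ H' * V' 9) -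
      ((V 15 - 2 * κ * (H 1 * V 14)) + Bt κ H * V 9)| ≤ NK K * η := by
  obtain ⟨k0, k1, k2, k3, k4⟩ := Kpow A.K1
  have m2 : |(2 : ℝ)| ≤ 2 := by norm_num
  have m3 : |(3 : ℝ)| ≤ 3 := by norm_num
  have m4 : |(4 : ℝ)| ≤ 4 := by norm_num
  have m6 : |(6 : ℝ)| ≤ 6 := by norm_num
  have m8 : |(8 : ℝ)| ≤ 8 := by norm_num
  have D1 := A.d1 hE h1
  have D5 := A.d5 hE h5
  have D7 := A.d7 hE h7
  have D6 := A.d6 hE h5 h6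
  have X10 := A.x10 hE h10
  have X15 := A.x15 hE h15
  have B := A.bt hE h1 h3
  have Z10 : |2 * (V' 10 - V 10) - 4 * κ * H' 1 * (V' 9 - V 9)| ≤ (2 * 2 + 8 * 1 * 1 * K * K * 2 +
      2 * 1 * K * 2 + 6 * 1 * K * (2 + 2 * 1 * K * 2) + 8 * 1 * 1 * K * K * 2) * η := by
    have e : 2 * (V' 10 - V 10) - 4 * κ * H' 1 * (V' 9 - V 9) =
        2 * ((V' 10 - V 10) - 4 * κ ^ 2 * H' 1 * H' 2 * (V' 5 - V 5) +
          κ * H' 3 * (V' 5 - V 5) + 3 * κ * H' 2 * (V' 6 - V 6) +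
          4 * κ ^ 2 * H' 1 ^ 2 * (V' 7 - V 7) - 2 * κ * H' 1 * (V' 9 - V 9)) +
        8 * κ * κ * H' 1 * H' 2 * (V' 5 - V 5) - 2 * κ * H' 3 * (V' 5 - V 5) -
        6 * κ * H' 2 * (V' 6 - V 6) - 8 * κ * κ * H' 1 * H' 1 * (V' 7 - V 7) := by ring
    rw [e]
    exact s_sub (s_sub (s_sub (s_add (s_mul m2 X10)
      (s_mul (c_mul (c_mul (c_mul (c_mul m8 A.κ1) A.κ1) (A.bH' 1)) (A.bH' 2)) D5))
      (s_mul (c_mul (c_mul m2 A.κ1) (A.bH' 3)) D5))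
      (s_mul (c_mul (c_mul m6 A.κ1) (A.bH' 2)) D6))
      (s_mul (c_mul (c_mul (c_mul (c_mul m8 A.κ1) A.κ1) (A.bH' 1)) (A.bH' 1)) D7)
  refine ⟨A.fin hE D1 (by unfold NK; linarith), A.fin hE B (by unfold NK; linarith), ?_, ?_, ?_⟩
  · have e : 3 * V' 6 - 3 * V 6 = 3 * (V' 6 - V 6) := by ring
    rw [e]
    exact A.fin hE (s_mul m3 D6) (by unfold NK; linarith)
  · have e : 2 * (V' 10 - 2 * κ * (H' 1 * V' 9)) - 2 * (V 10 - 2 * κ * (H 1 * V 9)) =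
        (2 * (V' 10 - V 10) - 4 * κ * H' 1 * (V' 9 - V 9)) - 4 * κ * V 9 * (H' 1 - H 1) := by ring
    rw [e]
    exact A.fin hE (s_sub Z10 (s_mul (c_mul (c_mul m4 A.κ1) (A.bV 9)) D1))
      (by unfold NK; nlinarith)
  · have e : ((V' 15 - 2 * κ * (H' 1 * V' 14)) + Bt κ H' * V' 9) -
        ((V 15 - 2 * κ * (H 1 * V 14)) + Bt κ H * V 9) =
        ((V' 15 - V 15) - 2 * κ ^ 2 * H' 1 * H' 2 ^ 2 * (V' 5 - V 5) +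
        2 * κ * H' 2 * H' 3 * (V' 5 - V 5) + 3 * κ * H' 2 ^ 2 * (V' 6 - V 6) -
        4 * κ * H' 1 * H' 3 * (V' 7 - V 7) - 2 * κ * H' 1 * H' 2 * (V' 9 - V 9) +
        H' 3 * (V' 9 - V 9) + 2 * H' 2 * (V' 10 - V 10) - 2 * κ * H' 1 * (V' 14 - V 14)) +
        2 * κ * κ * H' 1 * H' 2 * H' 2 * (V' 5 - V 5) - 2 * κ * H' 2 * H' 3 * (V' 5 - V 5) -
        3 * κ * H' 2 * H' 2 * (V' 6 - V 6) + 4 * κ * H' 1 * H' 3 * (V' 7 - V 7) -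
        H' 2 * (2 * (V' 10 - V 10) - 4 * κ * H' 1 * (V' 9 - V 9)) -
        2 * κ * V 14 * (H' 1 - H 1) + V 9 * (Bt κ H' - Bt κ H) := by
      unfold Bt; ring
    rw [e]
    exact A.fin hE (s_add (s_sub (s_sub (s_add (s_sub (s_sub (s_add X15
      (s_mul (c_mul (c_mul (c_mul (c_mul (c_mul m2 A.κ1) A.κ1) (A.bH' 1)) (A.bH' 2)) (A.bH' 2)) D5))
      (s_mul (c_mul (c_mul (c_mul m2 A.κ1) (A.bH' 2)) (A.bH' 3)) D5))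
      (s_mul (c_mul (c_mul (c_mul m3 A.κ1) (A.bH' 2)) (A.bH' 2)) D6))
      (s_mul (c_mul (c_mul (c_mul m4 A.κ1) (A.bH' 1)) (A.bH' 3)) D7))
      (s_mul (A.bH' 2) Z10))
      (s_mul (c_mul (c_mul m2 A.κ1) (A.bV 14)) D1))
      (s_mul (A.bV 9) B)) (by unfold NK; nlinarith)

theorem z34 (h2 : |R 2| ≤ 1 * η) (h3 : |R 3| ≤ 1 * η) (h5 : |R 5| ≤ 1 * η) (h7 : |R 7| ≤ 1 * η)
    (h9 : |R 9| ≤ 1 * η) (h10 : |R 10| ≤ 1 * η) :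
    |H' 2 - H 2| ≤ NK K * η ∧ |V' 9 - V 9| ≤ NK K * η ∧
    |(Bt κ H - Bt κ H') - 2 * κ * H 2 * (H 1 - H' 1)| ≤ NK K * η ∧
    |(2 * (V 10 - 2 * κ * (H 1 * V 9)) + 4 * κ * H 1 * V 9 + 2 * κ * H 2 * (3 * V 6)) -
      (2 * (V' 10 - 2 * κ * (H' 1 * V' 9)) + 4 * κ * H' 1 * V' 9 + 2 * κ * H' 2 * (3 * V' 6))| ≤
      NK K * η := by
  obtain ⟨k0, k1, k2, k3, k4⟩ := Kpow A.K1
  have m2 : |(2 : ℝ)| ≤ 2 := by norm_num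
  have m4 : |(4 : ℝ)| ≤ 4 := by norm_num
  have m6 : |(6 : ℝ)| ≤ 6 := by norm_num
  have m8 : |(8 : ℝ)| ≤ 8 := by norm_num
  have D2 := A.d2 hE h2
  have D5 := A.d5 hE h5
  have D7 := A.d7 hE h7
  have D9 := A.d9 hE h5 h7 h9
  have X10 := A.x10 hE h10
  have X3 := A.x3 hE h3
  refine ⟨A.fin hE D2 (by unfold NK; linarith), A.fin hE D9 (by unfold NK; linarith), ?_, ?_⟩
  · have e : (Bt κ H - Bt κ H') - 2 * κ * H 2 * (H 1 - H' 1) =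
        2 * κ * (H 1 + -H' 1) * (H' 2 - H 2) -
        (H' 3 - H 3 + 2 * κ * H 1 * (H' 2 - H 2)) := by unfold Bt; ring
    rw [e]
    have b1 : |-H' 1| ≤ K := by rw [abs_neg]; exact A.bH' 1
    exact A.fin hE (s_sub (s_mul (c_mul (c_mul m2 A.κ1) (c_add (A.bH 1) b1)) D2) X3)
      (by unfold NK; linarith)
  · have e : (2 * (V 10 - 2 * κ * (H 1 * V 9)) + 4 * κ * H 1 * V 9 + 2 * κ * H 2 * (3 * V 6)) -
      (2 * (V' 10 - 2 * κ * (H' 1 * V' 9)) + 4 * κ * H' 1 * V' 9 + 2 * κ * H' 2 * (3 * V' 6)) =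
      -2 * ((V' 10 - V 10) - 4 * κ ^ 2 * H' 1 * H' 2 * (V' 5 - V 5) +
          κ * H' 3 * (V' 5 - V 5) + 3 * κ * H' 2 * (V' 6 - V 6) +
          4 * κ ^ 2 * H' 1 ^ 2 * (V' 7 - V 7) - 2 * κ * H' 1 * (V' 9 - V 9)) -
        8 * κ * κ * H' 1 * H' 2 * (V' 5 - V 5) + 2 * κ * H' 3 * (V' 5 - V 5) +
        8 * κ * κ * H' 1 * H' 1 * (V' 7 - V 7) - 4 * κ * H' 1 * (V' 9 - V 9) -
        6 * κ * V 6 * (H' 2 - H 2) := by ring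
    rw [e]
    have n2 : |(-2 : ℝ)| ≤ 2 := by norm_num
    exact A.fin hE (s_sub (s_sub (s_add (s_add (s_sub (s_mul n2 X10)
      (s_mul (c_mul (c_mul (c_mul (c_mul m8 A.κ1) A.κ1) (A.bH' 1)) (A.bH' 2)) D5))
      (s_mul (c_mul (c_mul m2 A.κ1) (A.bH' 3)) D5))
      (s_mul (c_mul (c_mul (c_mul (c_mul m8 A.κ1) A.κ1) (A.bH' 1)) (A.bH' 1)) D7))
      (s_mul (c_mul (c_mul m4 A.κ1) (A.bH' 1)) D9))
      (s_mul (c_mul (c_mul m6 A.κ1) (A.bV 6)) D2)) (by unfold NK; nlinarith)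

end base

end Apx

end Crest.Agent.R136.Pin851
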