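import Crest.Agent.R136.CubC_848
import Crest.Agent.R136.CubQ_851

/-!
# R136, the specials of the thin pins (helper848): the closures in the letters of `CubR_851`

`H = Hc (κ n) (sg W u n) base line`, `V = Vc ..`: `a = H 2`, `c = H 1`, `β = Bt κ H`,
`Y = V 5` (35), `Y = 3 * V 6` (34).
-/

set_option autoImplicit false
set_option linter.unusedVariables false
set_option linter.unusedSectionVars false

open Filter Topology

namespace Crest.Agent.R136.CubC848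

open Finset Crest.Agent.R138.Ex926 Crest.Agent.R136.Net191 Crest.Agent.R136.Gf356
open Crest.Agent.R136.Qg926 Crest.Agent.R136.NetW191 Crest.Agent.R136.EvW938
open Crest.Agent.R136.Ht887 Crest.Agent.R136.Pin851
open Crest.Agent.R136.PqG464 (wtW)

variable {ι : ℕ → Type*} [∀ n, DecidableEq (ι n)] {W : Wnd 18 ι} {E : ∀ n, Finset (ι n)}
  {κ : ℕ → ℝ} {u : ℕ → Fin 18 → ℝ} {f : ∀ n, ι n → FW} {lam : (Fin 18 → ℝ) → ℝ} {x : ℝ}

/-- frames -/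
noncomputable def HH (W : Wnd 18 ι) (κ : ℕ → ℝ) (u : ℕ → Fin 18 → ℝ) (f : ∀ n, ι n → FW)
    (n k l : ℕ) : Fin 18 → ℝ := Hc (κ n) (sg W u n) (f n (W.zrep n k)) (f n (W.rep n l k))

/-- flags -/
noncomputable def VV (W : Wnd 18 ι) (κ : ℕ → ℝ) (u : ℕ → Fin 18 → ℝ) (f : ∀ n, ι n → FW)
    (n k l : ℕ) : Fin 18 → ℝ := Vc (κ n) (sg W u n) (f n (W.zrep n k)) (f n (W.rep n l k))

theorem HH_eq (n k l : ℕ) (s : Fin 18) : HH W κ u f n k l s = cf W κ u f n k l s := rfl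

theorem VV_eq (n k l : ℕ) (s : Fin 18) : VV W κ u f n k l s = cw W κ u f n k l s := by
  unfold VV Vc cw rw'
  rw [neg_div]

theorem hacl (hW : PWin W E κ u f {4} lam x) (hx : 0 < x) (p : Fin 18 → ℝ) :
    ∀ y : ℝ, 0 ≤ y → y ≤ x → ∀ ε : ℝ, 0 < ε → ∀ᶠ n in (U : Filter ℕ), ∀ k l l',
      (l, k) ∈ (W.cfg E n).I → (l', k) ∈ (W.cfg E n).I → (W.cfg E n).loose p ε k l l' →
      |HH W κ u f n k l' 2 - HH W κ u f n k l 2| ≤ W.B'.d n ^ y →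
      (W.cfg E n).loose (Function.update p 2 y) ε k l l' := acl_of hW hx p

theorem hqcl (hW : PWin W E κ u f {4} lam x) (hx : 0 < x) (p : Fin 18 → ℝ) :
    ∀ y : ℝ, 0 ≤ y → y ≤ x → ∀ ε : ℝ, 0 < ε → ∀ᶠ n in (U : Filter ℕ), ∀ k l l',
      (l, k) ∈ (W.cfg E n).I → (l', k) ∈ (W.cfg E n).I → (W.cfg E n).loose p ε k l l' →
      |HH W κ u f n k l' 1 - HH W κ u f n k l 1| ≤ W.B'.d n ^ y →
      (W.cfg E n).loose (Function.update p 1 y) ε k l l' := qcl_of hW hx p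

theorem hbcl35 (hW : PWin W E κ u f {4} lam x) (hx : 0 < x) {C : ℝ} (hC : 1 ≤ C) :
    ∀ y : ℝ, 0 ≤ y → ∀ ε : ℝ, 0 < ε → y + C * ε ≤ x → ∀ᶠ n in (U : Filter ℕ), ∀ k l l',
      (l, k) ∈ (W.cfg E n).I → (l', k) ∈ (W.cfg E n).I →
      (W.cfg E n).loose (ind {0, 2, 4, 7, 14} x) ε k l l' →
      (W.cfg E n).loose (ind {0, 1, 4, 5} x) ε k l l' →
      |Bt (κ n) (HH W κ u f n k l') - Bt (κ n) (HH W κ u f n k l)| ≤ W.B'.d n ^ y →
      (W.cfg E n).loose (Function.update (ind {0, 1, 2, 4, 5, 7, 14} x) 3 y) ε k l l' := by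
  intro y hy ε hε hyx
  filter_upwards [bcl35 hW hx hC y hy ε hε hyx] with n hn k l l' h1 h2 h3 h4 hd
  refine hn k l l' h1 h2 h3 h4 ?_
  unfold Bt at hd
  simp only [HH_eq] at hd
  simp only [mul_assoc] at hd ⊢
  exact hd

theorem hbcl34 (hW : PWin W E κ u f {4} lam x) (hx : 0 < x) {C : ℝ} (hC : 1 ≤ C) :
    ∀ y : ℝ, 0 ≤ y → ∀ ε : ℝ, 0 < ε → y + C * ε ≤ x → ∀ᶠ n in (U : Filter ℕ), ∀ k l l',
      (l, k) ∈ (W.cfg E n).I → (l', k) ∈ (W.cfg E n).I →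
      (W.cfg E n).loose (ind {0, 2, 4, 5, 7, 9, 14, 15} x) ε k l l' →
      (W.cfg E n).loose (ind {0, 1, 4, 5, 6, 7} x) ε k l l' →
      |Bt (κ n) (HH W κ u f n k l') - Bt (κ n) (HH W κ u f n k l)| ≤ W.B'.d n ^ y →
      (W.cfg E n).loose (Function.update (ind {0, 1, 2, 4, 5, 6, 7, 9, 14, 15} x) 3 y)
        ε k l l' := by
  intro y hy ε hε hyx
  filter_upwards [bcl34 hW hx hC y hy ε hε hyx] with n hn k l l' h1 h2 h3 h4 hd
  refine hn k l l' h1 h2 h3 h4 ?_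
  unfold Bt at hd
  simp only [HH_eq] at hd
  simp only [mul_assoc] at hd ⊢
  exact hd

theorem hycl35 (hW : PWin W E κ u f {4} lam x) (hx : 0 < x) :
    ∀ ε : ℝ, 0 < ε → ∀ᶠ n in (U : Filter ℕ), ∀ k l l', (l, k) ∈ (W.cfg E n).I →
      (l', k) ∈ (W.cfg E n).I → (W.cfg E n).loose (ind {0, 4} x) ε k l l' →
      |VV W κ u f n k l' 5 - VV W κ u f n k l 5| ≤ W.B'.d n ^ (x - ε) →
      (W.cfg E n).loose (ind {0, 4, 5} x) (2 * ε) k l l' := by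
  simp only [VV_eq]
  exact ycl35 hW hx

theorem hycl34 (hW : PWin W E κ u f {4} lam x) (hx : 0 < x) :
    ∀ ε : ℝ, 0 < ε → ∀ᶠ n in (U : Filter ℕ), ∀ k l l', (l, k) ∈ (W.cfg E n).I →
      (l', k) ∈ (W.cfg E n).I → (W.cfg E n).loose (ind {0, 4, 5, 7} x) ε k l l' →
      |3 * VV W κ u f n k l' 6 - 3 * VV W κ u f n k l 6| ≤ W.B'.d n ^ (x - ε) →
      (W.cfg E n).loose (ind {0, 4, 5, 6, 7} x) (2 * ε) k l l' := by
  simp only [VV_eq]
  exact ycl34 hW hx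

end Crest.Agent.R136.CubC848
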