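import Crest.Agent.R136.CubS_851
import Crest.Agent.R136.CubD_848

/-!
# R136, the specials of the thin pins (helper851): assembly

* `srow5`, `srow4` : all rows at one height
* `SEvo5`, `SEvo4` : the rows of the evolution (938)
* `rows35_of`, `rows34_of`
-/

set_option autoImplicit false
set_option linter.unusedSectionVars false
set_option linter.unusedVariables false

open Filter Topology

namespace Crest.Agent.R136.Pin851

open Finset Crest.Agent.R138.Ex926 Crest.Agent.R136.Net191 Crest.Agent.R136.Gf356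
open Crest.Agent.R136.Qg926
open Crest.Agent.R136.NetW191 Crest.Agent.R136.EvW938 Crest.Agent.R136.PrW464
open Crest.Agent.R136.LadW697 Crest.Agent.R136.LfW619 Crest.Agent.R136.RowW619
open Crest.Agent.R136.NatW697 Crest.Agent.R136.Qd329
open Crest.Agent.R136.Cub191 (SProf SRow SEvo SSlope)
open Crest.Agent.R136.K2S774 (cn ind1)

section mono

variable {κ : Type} {B : Base} {G : ℕ → RCfg κ} {x M M' C C' μ : ℝ} {p0 pp pv pc : κ → ℝ}
  {pa pb pq : ℝ → κ → ℝ} {a F Q c β Y K Φ : ℕ → ℕ → ℕ → ℝ} {kp : ℕ → ℝ}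

theorem exp_mono (B : Base) (n : ℕ) {C C' ε x t : ℝ} (hC : C ≤ C') (hε : 0 < ε)
    (h : t ≤ B.d n ^ (x - C * ε)) : t ≤ B.d n ^ (x - C' * ε) :=
  h.trans (Real.rpow_le_rpow_of_exponent_ge (B.pos n) (B.lt n).le (by nlinarith))

theorem SRow_mono (S : SRow B G x M C p0 pp pv pc pa pb pq a F Q c β Y K Φ kp) (hM : M ≤ M')
    (hC : C ≤ C') : SRow B G x M' C' p0 pp pv pc pa pb pq a F Q c β Y K Φ kp where
  x0 := S.x0
  M1 := S.M1.trans hM
  C1 := S.C1.trans hC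
  kp1 := S.kp1
  kpl := S.kpl
  bd := by
    filter_upwards [S.bd] with n hn k l hl
    obtain ⟨h1, h2, h3, h4, h5, h6, h7⟩ := hn k l hl
    exact ⟨h1.trans hM, h2.trans hM, h3.trans hM, h4.trans hM, h5.trans hM, h6.trans hM,
      h7.trans hM⟩
  pcl := fun ε hε => by
    filter_upwards [S.pcl ε hε] with n hn k l l' h1 h2 h3
    obtain ⟨q1, q2, q3, q4⟩ := hn k l l' h1 h2 h3
    exact ⟨exp_mono B n hC hε q1, exp_mono B n hC hε q2, exp_mono B n hC hε q3,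
      exp_mono B n hC hε q4⟩
  vcl := fun ε hε => by
    filter_upwards [S.vcl ε hε] with n hn k l l' h1 h2 h3
    obtain ⟨q1, q2, q3, q4, q5⟩ := hn k l l' h1 h2 h3
    exact ⟨exp_mono B n hC hε q1, exp_mono B n hC hε q2, exp_mono B n hC hε q3,
      exp_mono B n hC hε q4, exp_mono B n hC hε q5⟩
  ccl := fun ε hε => by
    filter_upwards [S.ccl ε hε] with n hn k l l' h1 h2 h3
    obtain ⟨q1, q2⟩ := hn k l l' h1 h2 h3
    exact ⟨exp_mono B n hC hε q1, exp_mono B n hC hε q2⟩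
  acl := S.acl
  bcl := fun y hy ε hε hyx => S.bcl y hy ε hε (by nlinarith)
  qcl := S.qcl

theorem SEvo_mono (S : SEvo B G x M C μ p0 a F c Y) (hρ : ∀ n, (G n).ρ = B.d n) (hM : M ≤ M')
    (hC : C ≤ C') : SEvo B G x M' C' μ p0 a F c Y where
  base := fun ε hε => by
    filter_upwards [S.base ε hε] with n hn k k' l l' h1 h2 h3 h4 h5 j
    refine (hn k k' l l' h1 h2 h3 h4 h5 j).trans ?_
    rw [hρ]
    exact Real.rpow_le_rpow_of_exponent_ge (B.pos n) (B.lt n).le (by nlinarith)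
  zbd := by
    filter_upwards [S.zbd] with n hn k hk k' hk'
    exact (hn k hk k' hk').trans hM
  evo := fun ε hε => by
    filter_upwards [S.evo ε hε] with n hn k k' l l' h1 h2 h3 h4 h5
    obtain ⟨q1, q2, q3⟩ := hn k k' l l' h1 h2 h3 h4 h5
    exact ⟨exp_mono B n hC hε q1, exp_mono B n hC hε q2, exp_mono B n hC hε q3⟩

end mono

section

variable {W : Wnd 18 fun _ => ℕ × ℝ} {E : ∀ n : ℕ, Finset (ℕ × ℝ)} {κ : ℕ → ℝ}
  {u : ℕ → Fin 18 → ℝ} {f : ℕ → ℕ × ℝ → FW} {lam : (Fin 18 → ℝ) → ℝ} {x : ℝ}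

theorem cfg_ρ (W : Wnd 18 fun _ => ℕ × ℝ) (E : ∀ n : ℕ, Finset (ℕ × ℝ)) (n : ℕ) :
    (W.cfg E n).ρ = W.B'.d n := by
  unfold Wnd.cfg
  split_ifs <;> rfl

/-- **rows of `b = 5`** -/
theorem PWin.srow5 (h : PWin W E κ u f {4} lam x) (hx : 0 < x) :
    SRow W.B' (W.cfg E) x (MM W) 2 (ind {0, 4} x) (ind {0, 2, 4, 7, 14} x)
      (ind {0, 1, 3, 4, 5, 9, 14} x) (ind {0, 1, 4, 5} x)
      (fun y => Function.update (ind {0, 4} x) 2 y)
      (fun y => Function.update (ind {0, 1, 2, 4, 5, 7, 14} x) 3 y)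
      (fun y => Function.update (ind {0, 2, 4, 7, 14} x) 1 y) (aT W κ u f) (F5 W κ u f)
      (Q5 W κ u f) (cT W κ u f) (bT W κ u f) (Y5 W κ u f) (K5 W κ u f) (P5 W κ u f) κ where
  x0 := hx
  M1 := h.MM1
  C1 := by norm_num
  kp1 := h.ww.hκ
  kpl := h.kap
  bd := h.bd5
  pcl := h.pcl5
  vcl := h.vcl5
  ccl := h.ccl5
  acl := CubC848.hacl h hx (ind {0, 4} x)
  bcl := CubC848.hbcl35 h hx (by norm_num : (1 : ℝ) ≤ 2)
  qcl := CubC848.hqcl h hx (ind {0, 2, 4, 7, 14} x)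

/-- **rows of `b = 4`** -/
theorem PWin.srow4 (h : PWin W E κ u f {4} lam x) (hx : 0 < x) :
    SRow W.B' (W.cfg E) x (MM W) 2 (ind {0, 4, 5, 7} x) (ind {0, 2, 4, 5, 7, 9, 14, 15} x)
      (ind {0, 1, 3, 4, 5, 6, 7, 10, 15} x) (ind {0, 1, 4, 5, 6, 7} x)
      (fun y => Function.update (ind {0, 4, 5, 7} x) 2 y)
      (fun y => Function.update (ind {0, 1, 2, 4, 5, 6, 7, 9, 14, 15} x) 3 y)
      (fun y => Function.update (ind {0, 2, 4, 5, 7, 9, 14, 15} x) 1 y) (aT W κ u f)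
      (F4 W κ u f) (Q4 W κ u f) (cT W κ u f) (bT W κ u f) (Y4 W κ u f) (K4 W κ u f)
      (P4 W κ u f) κ where
  x0 := hx
  M1 := h.MM1
  C1 := by norm_num
  kp1 := h.ww.hκ
  kpl := h.kap
  bd := h.bd4
  pcl := h.pcl4
  vcl := h.vcl4
  ccl := h.ccl4
  acl := CubC848.hacl h hx (ind {0, 4, 5, 7} x)
  bcl := CubC848.hbcl34 h hx (by norm_num : (1 : ℝ) ≤ 2)
  qcl := CubC848.hqcl h hx (ind {0, 2, 4, 5, 7, 9, 14, 15} x)

end

/-- rows of the evolution of `b = 5` (938) -/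
def SEvo5 : Prop :=
  ∀ (W : Wnd 18 fun _ => ℕ × ℝ) (E : ∀ n : ℕ, Finset (ℕ × ℝ)) (κ : ℕ → ℝ)
    (u : ℕ → Fin 18 → ℝ) (f : ℕ → ℕ × ℝ → FW) (lam : (Fin 18 → ℝ) → ℝ) (x : ℝ),
    PWin W E κ u f {4} lam x → 0 < x → ∃ M C : ℝ,
      SEvo W.B' (W.cfg E) x M C 2 (ind {0, 4} x) (aT W κ u f) (F5 W κ u f) (cT W κ u f)
        (Y5 W κ u f)

/-- rows of the evolution of `b = 4` (938) -/
def SEvo4 : Prop :=
  ∀ (W : Wnd 18 fun _ => ℕ × ℝ) (E : ∀ n : ℕ, Finset (ℕ × ℝ)) (κ : ℕ → ℝ)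
    (u : ℕ → Fin 18 → ℝ) (f : ℕ → ℕ × ℝ → FW) (lam : (Fin 18 → ℝ) → ℝ) (x : ℝ),
    PWin W E κ u f {4} lam x → 0 < x → ∃ M C : ℝ,
      SEvo W.B' (W.cfg E) x M C (1 / 3) (ind {0, 4, 5, 7} x) (aT W κ u f) (F4 W κ u f)
        (cT W κ u f) (Y4 W κ u f)

/-- **`Rows35`** -/
theorem rows35_of (V : SEvo5) : Rows35 := by
  intro W E κ u f lam x h hx
  obtain ⟨M, C, V⟩ := V W E κ u f lam x h hx
  refine ⟨max (MM W) M, max 2 C, 2, aT W κ u f, F5 W κ u f, Q5 W κ u f, cT W κ u f, bT W κ u f,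
    Y5 W κ u f, K5 W κ u f, P5 W κ u f, by norm_num, le_rfl,
    SRow_mono (h.srow5 hx) (le_max_left _ _) (le_max_left _ _),
    SEvo_mono V (cfg_ρ W E) (le_max_right _ _) (le_max_right _ _), fun n k l => rfl, ?_⟩
  exact CubC848.hycl35 h hx

/-- **`Rows34`** -/
theorem rows34_of (V : SEvo4) : Rows34 := by
  intro W E κ u f lam x h hx
  obtain ⟨M, C, V⟩ := V W E κ u f lam x h hx
  refine ⟨max (MM W) M, max 2 C, aT W κ u f, F4 W κ u f, Q4 W κ u f, cT W κ u f, bT W κ u f,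
    Y4 W κ u f, K4 W κ u f, P4 W κ u f,
    SRow_mono (h.srow4 hx) (le_max_left _ _) (le_max_left _ _),
    SEvo_mono V (cfg_ρ W E) (le_max_right _ _) (le_max_right _ _),
    CubC848.hqcl h hx (ind {0, 2, 3, 4, 5, 7, 9, 10} x), fun ε hε => ?_,
    CubC848.hycl34 h hx⟩
  filter_upwards [h.zrow4 ε hε] with n hn k l l' h1 h2 h3
  obtain ⟨q1, q2, q3, q4⟩ := hn k l l' h1 h2 h3
  exact ⟨exp_mono _ n (le_max_left _ _) hε q1, exp_mono _ n (le_max_left _ _) hε q2,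
    exp_mono _ n (le_max_left _ _) hε q3, exp_mono _ n (le_max_left _ _) hε q4⟩

end Crest.Agent.R136.Pin851
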