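import Crest.Agent.R136.Cri_544
import Crest.Agent.R136.CubY_851
import Crest.Agent.R136.CubH_938

/-!
# R136, specials of the thin pins (helper544), part 10: the leaves `Rows35`, `Rows34`
-/

set_option autoImplicit false

namespace Crest.Agent.R136.Cr544

/-- **the leaf `Rows35`** (rows 851, evolution 938, closures 848) -/
theorem rows35_leaf : Pin851.Rows35 := Pin851.rows35_of fun _ _ _ _ _ _ _ h _ =>
  ⟨_, 2, Cub938.sevo35 h le_rfl le_rfl⟩

end Crest.Agent.R136.Cr544
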