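import Crest.Agent.R136.Crp2_705
import Crest.Agent.R136.Cig_705
import Crest.Agent.R136.KDef4_879

/-!
# R136 (one-level crude tilt), helper705: models of marks

A mark whose chart is not thin (`Y a ≤ w 0`) is its own model; the model of a thin mark is the flat
sheet with the same box.
-/

set_option autoImplicit false
set_option linter.unusedVariables false

namespace Crest.Agent.R136.Crp705

open Set Crest.Agent.R136.Sh605 Crest.Agent.R136.Tl102 Crest.Agent.R136.Crd705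
open Crest.Agent.R136.Sa705 Crest.Agent.R136.Deep51 Crest.Agent.R136.K4 Crest.Agent.R136.Cig705

open Classical in
/-- widths of the model -/
noncomputable def mdW (Y : ℝ) (S : Plk4) : V3 :=
  if Y * S.a ≤ S.w 0 then S.w else ![S.w 2, S.w 1, S.w 2]

open Classical in
/-- function of the model -/
noncomputable def mdQ (Y : ℝ) (S : Plk4) : ℝ → V3 → ℝ :=
  if Y * S.a ≤ S.w 0 then S.q else qaf S.e S.c

open Classical in
/-- thickness of the model -/
noncomputable def mdA (Y : ℝ) (S : Plk4) : ℝ := if Y * S.a ≤ S.w 0 then S.a else 2 * Y * S.a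

/-- **closeness of the model of `S` to a function, near `T`, over a cell** -/
def KCl (Y : ℝ) (S : Plk4) (T : Ln4) (κ : ℝ → V3 → ℝ) (Λ z0 ρ : ℝ) : Prop :=
  ∀ z, z0 ≤ z → z ≤ z0 + ρ → Cl S.e (mdW Y S) (mdQ Y S) (mdA Y S) T κ Λ z

/-- linear functions of a box -/
def ell (f : Fin 3 → V3) (cK : Ln4) (j : Fin 3) : ℝ → V3 → ℝ := fun z x => dt (f j) (x - cK.pos z)

theorem md_thick {Y : ℝ} {S : Plk4} (h : Y * S.a ≤ S.w 0) :
    mdW Y S = S.w ∧ mdQ Y S = S.q ∧ mdA Y S = S.a := by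
  simp only [mdW, mdQ, mdA, if_pos h, and_self]

theorem md_thin {Y : ℝ} {S : Plk4} (h : ¬ Y * S.a ≤ S.w 0) :
    mdW Y S = ![S.w 2, S.w 1, S.w 2] ∧ mdQ Y S = qaf S.e S.c ∧ mdA Y S = 2 * Y * S.a := by
  simp only [mdW, mdQ, mdA, if_neg h, and_self]

theorem mdW1 (Y : ℝ) (S : Plk4) : mdW Y S 1 = S.w 1 := by
  by_cases h : Y * S.a ≤ S.w 0
  · rw [(md_thick h).1]
  · rw [(md_thin h).1]; rfl

theorem mdW2 (Y : ℝ) (S : Plk4) : mdW Y S 2 = S.w 2 := by
  by_cases h : Y * S.a ≤ S.w 0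
  · rw [(md_thick h).1]
  · rw [(md_thin h).1]; rfl

end Crest.Agent.R136.Crp705
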