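import Crest.Agent.R136.Sa5_705
import Crest.Agent.R136.Deep3_51

/-!
# R136 (one-level crude tilt), helper705: a sheet and a container at one height

`Hs` : a sheet `q` (frame `e`, widths `w`, thickness `a`) around its line `T`; `Cl` : a function is small
on the sheet near `T`.  `Hs.graph` : level sets as graphs; `Hs.shrink` : Lipschitz bound;
`NL` : nearly linear functions; `Hs.normal` : the gradient of a nearly linear function which is small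
on the sheet is not orthogonal to `e 0`; `Hs.transfer` : points near the sheet.
-/

set_option autoImplicit false
set_option linter.unusedVariables false

namespace Crest.Agent.R136.Crp705

open Set Crest.Agent.R136.Sh605 Crest.Agent.R136.Tl102 Crest.Agent.R136.Crd705
open Crest.Agent.R136.Sa705 Crest.Agent.R136.Deep51

/-- a sheet around one of its lines, not thin -/
structure Hs (e : Fin 3 → V3) (c : Ln4) (w : V3) (q : ℝ → V3 → ℝ) (a z0 ρ : ℝ) (T : Ln4) : Prop where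
  S : StP e c w q z0 ρ
  hρ : 0 < ρ
  hT : InSheet T e c w q a z0 ρ
  ha : 1000 * a ≤ w 0

/-- `κ` is at most `Λ` on the sheet near `T`, at height `z` -/
def Cl (e : Fin 3 → V3) (w : V3) (q : ℝ → V3 → ℝ) (a : ℝ) (T : Ln4) (κ : ℝ → V3 → ℝ) (Λ z : ℝ) :
    Prop :=
  ∀ X, |q z X| ≤ a → |pc e w T z X 0| ≤ 1 / 2 → |pc e w T z X 1| ≤ 1 / 32 →
    |pc e w T z X 2| ≤ 1 / 32 → |κ z X| ≤ Λ

variable {e : Fin 3 → V3} {c : Ln4} {w : V3} {q : ℝ → V3 → ℝ} {a z0 ρ : ℝ} {T : Ln4}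

theorem zero_Ib : (0 : ℝ) ∈ Ib := ⟨by norm_num, by norm_num⟩

/-- Lipschitz bound on the square -/
theorem lip2 {V : Type} {ev : V → ℝ → ℝ → ℝ} {D1 D2 : V → V} (A : Alg ev D1 D2 Ib) {p : V} {M : ℝ}
    (hM : ∀ x1 ∈ Ib, ∀ x2 ∈ Ib, |ev p x1 x2| ≤ M) {x1 x2 : ℝ} (h1 : x1 ∈ Ib) (h2 : x2 ∈ Ib) :
    |ev p x1 x2 - ev p 0 0| ≤ 2 * (CN * M) * (|x1| + |x2|) := by
  have a1 := (A.row p x2 h2).lip (k := 0) (by norm_num)
    (fun t ht => A.d1 hM t ht x2 h2) zero_Ib h1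
  have a2 := (A.col p 0 zero_Ib).lip (k := 0) (by norm_num)
    (fun t ht => A.d2 hM 0 zero_Ib t ht) zero_Ib h2
  simp only [Function.iterate_zero, id_eq, sub_zero] at a1 a2
  have e1 : ev p x1 x2 - ev p 0 0 = (ev p x1 x2 - ev p 0 x2) + (ev p 0 x2 - ev p 0 0) := by ring
  rw [e1]
  refine (abs_add_le _ _).trans ?_
  linarith

theorem pc_cmb {e : Fin 3 → V3} (he : Ortho e) {w : V3} (hw : ∀ k, w k ≠ 0) (T : Ln4) (z : ℝ)
    (x : V3) (k : Fin 3) : pc e w T z (T.pos z + cmb (fr e w) x) k = x k := by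
  have h1 : T.pos z + cmb (fr e w) x - T.pos z = cmb (fr e w) x := by
    ext i; simp only [Pi.add_apply, Pi.sub_apply]; ring
  simp only [pc]
  rw [h1, dt_cmb_fr he, mul_comm, mul_div_assoc, div_self (hw k), mul_one]

theorem exists_height {z0 ρ z : ℝ} (hρ : 0 < ρ) (hz : z0 ≤ z) (hz' : z ≤ z0 + ρ) :
    ∃ ζ : ℝ, ζ ∈ Icc (0 : ℝ) 1 ∧ z0 + ρ * ζ = z := by
  refine ⟨(z - z0) / ρ, ⟨div_nonneg (by linarith) hρ.le, ?_⟩, ?_⟩
  · rw [div_le_one hρ]; linarith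
  · rw [mul_div_cancel₀ _ hρ.ne']; ring

/-- **level sets are graphs** -/
theorem Hs.graph (H : Hs e c w q a z0 ρ T) {z : ℝ} (hz : z0 ≤ z) (hz' : z ≤ z0 + ρ) {s : ℝ}
    (hs : 100 * |s| ≤ w 0) : ∃ ψ : ℝ → ℝ → ℝ, (∀ x1 ∈ Ib, ∀ x2 ∈ Ib, |ψ x1 x2| ≤ 1 / 4 ∧
      q z (T.pos z + cmb (fr e w) ![ψ x1 x2, x1, x2]) = q z (T.pos z) + s ∧
      w 0 * |ψ x1 x2| ≤ 2 * |s| + 4 * w 0 * (|x1| + |x2|) ∧
      (∀ X, pc e w T z X 1 = x1 → pc e w T z X 2 = x2 → |pc e w T z X 0| ≤ 1 / 2 →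
        q z X = q z (T.pos z) + s → X = T.pos z + cmb (fr e w) ![ψ x1 x2, x1, x2]) ∧
      ∀ x0 : ℝ, |q z (T.pos z + cmb (fr e w) ![x0, x1, x2]) -
        q z (T.pos z + cmb (fr e w) ![ψ x1 x2, x1, x2])| ≤
          w 0 * |x0 - ψ x1 x2| * (2 + |x0 - ψ x1 x2|)) ∧
    ∀ κ, IsQ κ → ∃ (V : Type) (ev : V → ℝ → ℝ → ℝ) (D1 D2 : V → V) (p0 : V), Alg ev D1 D2 Ib ∧
      ∀ x1 x2, ev p0 x1 x2 = κ z (T.pos z + cmb (fr e w) ![ψ x1 x2, x1, x2]) := by
  obtain ⟨S, hρ, hT, ha⟩ := H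
  have hw0 := S.pos 0
  have hwne : ∀ k, w k ≠ 0 := fun k => (S.pos k).ne'
  have hT' : ∀ z, z0 ≤ z → z ≤ z0 + ρ → InK e c w z (T.pos z) := fun z h1 h2 => (hT z h1 h2).1
  obtain ⟨b0, b1, G, hE⟩ := exists_isExp S.isQ e hw0.ne' T z0 ρ
  have N := hE.nrmC S hρ.le hT'
  obtain ⟨ζ, hζ, hzz⟩ := exists_height hρ hz hz'
  have hs' : |s / w 0| ≤ 1 / 100 := by
    rw [abs_div, abs_of_pos hw0, div_le_iff₀ hw0]; linarith
  obtain ⟨ψ, hψ, hrow⟩ := Row214.core_rows N hs'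
  have hval : ∀ x : V3, q z (T.pos z + cmb (fr e w) x) = q z (T.pos z) + w 0 * Fq b0 b1 G ζ x := by
    intro x
    have := hE ζ x
    rwa [hzz] at this
  refine ⟨ψ ζ, fun x1 h1 x2 h2 => ?_, fun κ hκ => ?_⟩
  · obtain ⟨k1, k2, k3⟩ := hψ ζ hζ x1 h1 x2 h2
    refine ⟨k1, ?_, ?_, ?_, ?_⟩
    · rw [hval, k2, mul_div_cancel₀ _ hw0.ne']
    · -- size of `ψ`
      set y := ψ ζ x1 x2 with hy
      have hm : |y / 2| ≤ 1 / 2 := by
        rw [abs_div, abs_two]; linarith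
      have hst := (Row214.st_of N hζ h1 h2 hm).1
      obtain ⟨m1, m2, m3, m4, m5, m6⟩ := N.G_le
      have a1 := Row214.Iq_abs h1
      have a2 := Row214.Iq_abs h2
      have hk : ∀ c d : ℝ, |c| ≤ 1 → |c + d| ≤ 1 → |c + ζ * d| ≤ 1 := by
        intro c d hc hd
        have e1 : c + ζ * d = (1 - ζ) * c + ζ * (c + d) := by ring
        rw [abs_le] at hc hd
        rw [e1, abs_le]
        have g1 := hζ.1
        have g2 := hζ.2
        constructor <;> nlinarith [hc.1, hc.2, hd.1, hd.2]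
      have c1 := hk _ _ N.b01 N.b11
      have c2 := hk _ _ N.b02 N.b12
      have e1 : s / w 0 = ((b0 1 + ζ * b1 1) * x1 + (b0 2 + ζ * b1 2) * x2 + G.uu * (x1 * x1) +
          G.uv * (x2 * x1) + G.vv * (x2 * x2)) +
          y * (2 * G.yy * (y / 2) + G.yu * x1 + G.yv * x2 + (b0 0 + ζ * b1 0)) := by
        rw [← k2]
        simp only [Fq, Sh605.dt, bz, QF.ev, Matrix.cons_val]; ring
      set D := 2 * G.yy * (y / 2) + G.yu * x1 + G.yv * x2 + (b0 0 + ζ * b1 0) with hD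
      have t1 : |(b0 1 + ζ * b1 1) * x1| ≤ 1 * |x1| := mul_abs_le c1 le_rfl
      have t2 : |(b0 2 + ζ * b1 2) * x2| ≤ 1 * |x2| := mul_abs_le c2 le_rfl
      have t3 : |G.uu * (x1 * x1)| ≤ 1 * (1 / 32 * |x1|) := mul_abs_le m4 (mul_abs_le a1 le_rfl)
      have t4 : |G.uv * (x2 * x1)| ≤ 1 * (1 / 32 * |x1|) := mul_abs_le m5 (mul_abs_le a2 le_rfl)
      have t5 : |G.vv * (x2 * x2)| ≤ 1 * (1 / 32 * |x2|) := mul_abs_le m6 (mul_abs_le a2 le_rfl)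
      have t6 : |y * D| ≤ |s / w 0| + 2 * (|x1| + |x2|) := by
        have e2 : y * D = s / w 0 - ((b0 1 + ζ * b1 1) * x1 + (b0 2 + ζ * b1 2) * x2 +
          G.uu * (x1 * x1) + G.uv * (x2 * x1) + G.vv * (x2 * x2)) := by rw [e1]; ring
        rw [e2]
        refine (abs_sub _ _).trans (add_le_add le_rfl ?_)
        have n1 := abs_nonneg x1
        have n2 := abs_nonneg x2
        rw [abs_le] at t1 t2 t3 t4 t5 ⊢
        constructor <;> linarith [t1.1, t1.2, t2.1, t2.2, t3.1, t3.2, t4.1, t4.2, t5.1, t5.2]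
      rw [abs_mul, abs_of_pos (by linarith : 0 < D)] at t6
      have t7 : |y| * (1 / 2) ≤ |y| * D := mul_le_mul_of_nonneg_left hst (abs_nonneg _)
      have t8 : w 0 * |s / w 0| = |s| := by
        rw [abs_div, abs_of_pos hw0, mul_div_cancel₀ _ hw0.ne']
      have t9 : w 0 * (|y| * (1 / 2)) ≤ w 0 * (|s / w 0| + 2 * (|x1| + |x2|)) :=
        mul_le_mul_of_nonneg_left (t7.trans t6) hw0.le
      have t10 : w 0 * (|s / w 0| + 2 * (|x1| + |x2|)) = |s| + 2 * w 0 * (|x1| + |x2|) := by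
        rw [mul_add, t8]; ring
      rw [t10] at t9
      linarith
    · intro X e1 e2 e3 e4
      have hX := cmb_pc S.ortho hwne T z X
      have e5 : pc e w T z X = ![pc e w T z X 0, x1, x2] := by
        rw [← e1, ← e2, vec_eta]
      have e6 : Fq b0 b1 G ζ ![pc e w T z X 0, x1, x2] = s / w 0 := by
        have h3 := hval (pc e w T z X)
        rw [hX, e4, e5] at h3
        rw [eq_div_iff hw0.ne']
        linarith
      have e7 := k3 _ e3 e6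
      rw [← hX, e5, e7]
    · intro x0
      set y := ψ ζ x1 x2 with hy
      have hm : |y| ≤ 1 / 2 := k1.trans (by norm_num)
      have hst := Row214.st_of N hζ h1 h2 hm
      have m1 := N.G_le.1
      rw [hval, hval]
      have e1 : q z (T.pos z) + w 0 * Fq b0 b1 G ζ ![x0, x1, x2] -
          (q z (T.pos z) + w 0 * Fq b0 b1 G ζ ![y, x1, x2]) = w 0 * ((x0 - y) *
            ((2 * G.yy * y + G.yu * x1 + G.yv * x2 + (b0 0 + ζ * b1 0)) + G.yy * (x0 - y))) := by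
        simp only [Fq, Sh605.dt, bz, QF.ev, Matrix.cons_val]; ring
      have e3 : w 0 * |x0 - y| * (2 + |x0 - y|) = w 0 * (|x0 - y| * (2 + |x0 - y|)) := by ring
      rw [e1, abs_mul, abs_mul, abs_of_pos hw0, e3]
      refine mul_le_mul_of_nonneg_left (mul_le_mul_of_nonneg_left ?_ (abs_nonneg _)) hw0.le
      refine (abs_add_le _ _).trans (add_le_add ?_ ?_)
      · rw [abs_le]; constructor <;> linarith [hst.1, hst.2]
      · rw [abs_mul]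
        exact mul_le_of_le_one_left (abs_nonneg _) m1
  · obtain ⟨V, ev, D1, D2, p0, h1, h2⟩ := (hrow _ (Row214.P4.of_isQ hκ T (fr e w) z0 ρ)).2 ζ hζ
    refine ⟨V, ev, D1, D2, p0, h1, fun x1 x2 => ?_⟩
    rw [h2 x1 x2, hzz]

/-- **Lipschitz bound** -/
theorem Hs.shrink (H : Hs e c w q a z0 ρ T) {z : ℝ} (hz : z0 ≤ z) (hz' : z ≤ z0 + ρ)
    {κ : ℝ → V3 → ℝ} (hκ : IsQ κ) {Λ : ℝ} (hC : Cl e w q a T κ Λ z) {X : V3} (hqX : |q z X| ≤ a)
    (hX0 : |pc e w T z X 0| ≤ 1 / 2) {σ : ℝ} (hX1 : |pc e w T z X 1| ≤ σ)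
    (hX2 : |pc e w T z X 2| ≤ σ) (hσ : σ ≤ 1 / 32) :
    ∃ τ : ℝ, |τ| ≤ 2 * |q z X - q z (T.pos z)| ∧
      |κ z X - κ z (T.pos z + τ • e 0)| ≤ 4 * (CN * Λ) * σ := by
  have S := H.S
  have hw0 := S.pos 0
  have hwne : ∀ k, w k ≠ 0 := fun k => (S.pos k).ne'
  obtain ⟨-, hTa⟩ := H.hT z hz hz'
  set s := q z X - q z (T.pos z) with hs
  have hsa : |s| ≤ 2 * a := (abs_sub _ _).trans (by linarith)
  have ha0 : 0 ≤ a := (abs_nonneg _).trans hqX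
  obtain ⟨ψ, hψ, hal⟩ := H.graph hz hz' (s := s) (by linarith [H.ha])
  obtain ⟨V, ev, D1, D2, p0, hA, hev⟩ := hal κ hκ
  have hI1 : pc e w T z X 1 ∈ Ib := abs_le.1 (hX1.trans hσ)
  have hI2 : pc e w T z X 2 ∈ Ib := abs_le.1 (hX2.trans hσ)
  have hM : ∀ x1 ∈ Ib, ∀ x2 ∈ Ib, |ev p0 x1 x2| ≤ Λ := by
    intro x1 h1 x2 h2
    obtain ⟨k1, k2, -, -, -⟩ := hψ x1 h1 x2 h2
    rw [hev]
    refine hC _ ?_ ?_ ?_ ?_
    · rw [k2, hs]
      have : q z (T.pos z) + (q z X - q z (T.pos z)) = q z X := by ring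
      rw [this]; exact hqX
    · rw [pc_cmb S.ortho hwne]; exact k1.trans (by norm_num)
    · rw [pc_cmb S.ortho hwne]; exact abs_le.2 h1
    · rw [pc_cmb S.ortho hwne]; exact abs_le.2 h2
  have hl := lip2 hA hM hI1 hI2
  obtain ⟨-, -, -, k4, -⟩ := hψ _ hI1 _ hI2
  obtain ⟨-, -, j3, -, -⟩ := hψ 0 zero_Ib 0 zero_Ib
  have eX := k4 X rfl rfl hX0 (by rw [hs]; ring)
  refine ⟨w 0 * ψ 0 0, ?_, ?_⟩
  · rw [abs_mul, abs_of_pos hw0]
    simpa using j3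
  · have e0 : T.pos z + (w 0 * ψ 0 0) • e 0 = T.pos z + cmb (fr e w) ![ψ 0 0, 0, 0] := by
      ext i
      simp only [Pi.add_apply, cmb, fr, Pi.smul_apply, smul_eq_mul, Matrix.cons_val]
      ring
    rw [hev, hev, ← e0, ← eX] at hl
    refine hl.trans ?_
    have hΛ : 0 ≤ Λ := (abs_nonneg _).trans (hM 0 zero_Ib 0 zero_Ib)
    have hC0 : 0 ≤ CN * Λ := mul_nonneg (by linarith [one_le_CN]) hΛ
    have := mul_le_mul_of_nonneg_left (add_le_add hX1 hX2) (by linarith : 0 ≤ 2 * (CN * Λ))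
    linarith

end Crest.Agent.R136.Crp705
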