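import Crest.Agent.R136.Row2_214
import Crest.Agent.R136.Cap2_102

/-!
# R136 (S0187), crude tilt (705, message 20600), piece (P): path inside a level set of a sheet,
`ext` : a chain which is small on a short interval is small everywhere (helper880)
-/

set_option autoImplicit false

namespace Crest.Agent.R136.Crp880

open Set Filter Topology
open Crest.Agent.R136.Sa705 (Sys Alg gron pts)
open Crest.Agent.R136.Sh605 (V3 Ln4 IsQ Ortho InK InSheet)
open Crest.Agent.R136.Tl102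
open Crest.Agent.R136.Row214 (Q2 Q3 P4 FQ)

/-- the graph data of a slice -/
structure GrH (F : Q2) (s : ℝ) (φ : ℝ → ℝ) (J : Set ℝ) : Prop where
  small : ∀ t ∈ J, |φ t| ≤ 1 / 2
  eq : ∀ t ∈ J, F.ev (φ t) t = s
  st : ∀ t ∈ J, ∀ y, |y| ≤ 1 / 2 → 1 / 2 ≤ F.dy y t ∧ F.dy y t ≤ 2

variable {F : Q2} {s : ℝ} {φ : ℝ → ℝ} {J : Set ℝ}

theorem GrH.mid (H : GrH F s φ J) {t t' : ℝ} (ht : t ∈ J) (ht' : t' ∈ J) :
    |(φ t' + φ t) / 2| ≤ 1 / 2 := by
  have a := abs_le.1 (H.small t ht)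
  have b := abs_le.1 (H.small t' ht')
  rw [abs_le]; constructor <;> linarith [a.1, a.2, b.1, b.2]

/-- difference quotient of the graph -/
theorem GrH.quot (H : GrH F s φ J) {t t' : ℝ} (ht : t ∈ J) (ht' : t' ∈ J) :
    φ t' = φ t + (t' - t) *
      (-(F.h * φ t + F.g * (t' + t) + F.f) / F.dy ((φ t' + φ t) / 2) t') := by
  have h1 := H.eq t ht
  have h2 := H.eq t' ht'
  have h3 := H.mid ht ht'
  have h4 : 0 < F.dy ((φ t' + φ t) / 2) t' := by linarith [(H.st t' ht' _ h3).1]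
  have h5 : (φ t' - φ t) * F.dy ((φ t' + φ t) / 2) t' +
      (t' - t) * (F.h * φ t + F.g * (t' + t) + F.f) = 0 := by
    have : (φ t' - φ t) * F.dy ((φ t' + φ t) / 2) t' +
      (t' - t) * (F.h * φ t + F.g * (t' + t) + F.f) = F.ev (φ t') t' - F.ev (φ t) t := by
      simp only [Q2.ev, Q2.dy]; ring
    rw [this, h1, h2, sub_self]
  have h6 : (φ t' - φ t) = -((t' - t) * (F.h * φ t + F.g * (t' + t) + F.f)) /
      F.dy ((φ t' + φ t) / 2) t' := by
    rw [eq_div_iff h4.ne']; linarith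
  have h7 : -((t' - t) * (F.h * φ t + F.g * (t' + t) + F.f)) / F.dy ((φ t' + φ t) / 2) t' =
      (t' - t) * (-(F.h * φ t + F.g * (t' + t) + F.f) / F.dy ((φ t' + φ t) / 2) t') := by ring
  rw [h7] at h6
  linarith

/-- the graph is continuous -/
theorem GrH.cont (H : GrH F s φ J) {t : ℝ} (ht : t ∈ J) : ContinuousWithinAt φ J t := by
  rw [ContinuousWithinAt, tendsto_iff_norm_sub_tendsto_zero]
  have hlim : Tendsto (fun t' : ℝ => 2 * |t' - t| * |F.h * φ t + F.g * (t' + t) + F.f|) (𝓝[J] t)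
      (𝓝 0) := by
    have hc : Continuous (fun t' : ℝ => 2 * |t' - t| * |F.h * φ t + F.g * (t' + t) + F.f|) := by
      fun_prop
    have h0 := hc.tendsto t
    simp only [sub_self, abs_zero, mul_zero, zero_mul] at h0
    exact h0.mono_left nhdsWithin_le_nhds
  refine squeeze_zero' (Eventually.of_forall fun t' => norm_nonneg _) ?_ hlim
  filter_upwards [self_mem_nhdsWithin] with t' ht'
  have h1 := H.quot ht ht'
  have h3 := H.mid ht ht'
  have h4 := (H.st t' ht' _ h3).1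
  have h5 : φ t' - φ t = (t' - t) *
      (-(F.h * φ t + F.g * (t' + t) + F.f) / F.dy ((φ t' + φ t) / 2) t') := by linarith
  rw [Real.norm_eq_abs, h5, abs_mul, abs_div, abs_neg,
    abs_of_pos (by linarith : 0 < F.dy ((φ t' + φ t) / 2) t')]
  have h6 : |F.h * φ t + F.g * (t' + t) + F.f| / F.dy ((φ t' + φ t) / 2) t' ≤
      2 * |F.h * φ t + F.g * (t' + t) + F.f| := by
    rw [div_le_iff₀ (by linarith)]
    nlinarith [abs_nonneg (F.h * φ t + F.g * (t' + t) + F.f)]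
  calc |t' - t| * (|F.h * φ t + F.g * (t' + t) + F.f| / F.dy ((φ t' + φ t) / 2) t') ≤
      |t' - t| * (2 * |F.h * φ t + F.g * (t' + t) + F.f|) :=
        mul_le_mul_of_nonneg_left h6 (abs_nonneg _)
    _ = _ := by ring

/-- derivative of the graph -/
theorem GrH.deriv (H : GrH F s φ J) {t : ℝ} (ht : t ∈ J) :
    HasDerivWithinAt φ (-F.dt (φ t) t / F.dy (φ t) t) J t := by
  rw [hasDerivWithinAt_iff_tendsto_slope]
  have hφ := H.cont ht
  have hdy : 0 < F.dy (φ t) t := by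
    have := (H.st t ht (φ t) (H.small t ht)).1
    linarith
  have hw : ContinuousWithinAt (fun t' => -(F.h * φ t + F.g * (t' + t) + F.f) /
      F.dy ((φ t' + φ t) / 2) t') J t := by
    apply ContinuousWithinAt.div
    · exact (by fun_prop : Continuous fun t' : ℝ => -(F.h * φ t + F.g * (t' + t) + F.f))
        |>.continuousWithinAt
    · unfold Q2.dy
      have h1 : ContinuousWithinAt (fun t' => (φ t' + φ t) / 2) J t := by
        exact (hφ.add continuousWithinAt_const).div_const 2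
      exact (((continuousWithinAt_const).mul h1).add
        ((continuousWithinAt_const).mul continuousWithinAt_id)).add continuousWithinAt_const
    · have : (φ t + φ t) / 2 = φ t := by ring
      rw [this]; exact hdy.ne'
  have hlim : Tendsto (fun t' => -(F.h * φ t + F.g * (t' + t) + F.f) /
      F.dy ((φ t' + φ t) / 2) t') (𝓝[J \ {t}] t) (𝓝 (-F.dt (φ t) t / F.dy (φ t) t)) := by
    have h1 := hw.tendsto
    have e1 : (φ t + φ t) / 2 = φ t := by ring
    have e2 : F.h * φ t + F.g * (t + t) + F.f = F.dt (φ t) t := by simp only [Q2.dt]; ring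
    rw [e1, e2] at h1
    exact h1.mono_left (nhdsWithin_mono _ sdiff_subset)
  refine hlim.congr' ?_
  filter_upwards [self_mem_nhdsWithin] with t' ht'
  have hne : t' - t ≠ 0 := sub_ne_zero.2 ht'.2
  have h5 := H.quot ht ht'.1
  rw [slope_def_field, eq_div_iff hne]
  linarith

/-- derivative of a quadratic function along the graph -/
theorem GrH.deriv_ev (H : GrH F s φ J) (p : Q2) {t : ℝ} (ht : t ∈ J) :
    HasDerivWithinAt (fun t => p.ev (φ t) t) ((Q2.D F p).ev (φ t) t / F.dy (φ t) t) J t := by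
  have hφ := H.deriv ht
  have hdy : 0 < F.dy (φ t) t := by
    have := (H.st t ht (φ t) (H.small t ht)).1
    linarith
  have hid : HasDerivWithinAt (fun t : ℝ => t) 1 J t := hasDerivWithinAt_id t J
  have h1 := (((((hφ.pow 2).const_mul p.k).add ((hφ.mul hid).const_mul p.h)).add
    ((hid.pow 2).const_mul p.g)).add (hφ.const_mul p.e)).add (hid.const_mul p.f)
  have h2 := h1.add_const p.c
  have h3 : HasDerivWithinAt (fun t => p.ev (φ t) t)
      (p.dy (φ t) t * (-F.dt (φ t) t / F.dy (φ t) t) + p.dt (φ t) t) J t := by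
    refine (h2.congr_deriv ?_).congr (fun x _ => ?_) ?_
    · simp only [Q2.dy, Q2.dt]; push_cast; ring
    · simp only [Q2.ev, Pi.add_apply, Pi.mul_apply, Pi.pow_apply]
    · simp only [Q2.ev, Pi.add_apply, Pi.mul_apply, Pi.pow_apply]
  refine h3.congr_deriv ?_
  rw [Q2.D_ev]
  field_simp
  ring

/-- **the chain of a slice** -/
theorem GrH.sys (H : GrH F s φ J) (hν : |F.nu| ≤ 5) (p : Q2) :
    Sys (fun k t => ((Q2.D F)^[k] p).ev (φ t) t) J where
  der := by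
    intro k _ t ht
    obtain ⟨h1, h2⟩ := H.st t ht (φ t) (H.small t ht)
    refine ⟨F.dy (φ t) t, h1, h2, ?_⟩
    have := H.deriv_ev ((Q2.D F)^[k] p) ht
    rw [Function.iterate_succ_apply']
    exact this
  top := by
    intro t _
    have := Q2.top F p (y := φ t) (t := t) hν
    simp only [Function.iterate_succ, Function.comp_apply, Function.iterate_zero, id_eq]
    refine this.trans (le_of_eq ?_)
    norm_num

/-! ### the slice along a segment of the base -/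

/-- slice of a quadratic function along `t ↦ (t x1, t x2)` -/
def slq (A : Q3) (x1 x2 : ℝ) : Q2 :=
  ⟨A.yy, A.yu * x1 + A.yv * x2, A.uu * x1 ^ 2 + A.uv * (x1 * x2) + A.vv * x2 ^ 2, A.ly,
    A.lu * x1 + A.lv * x2, A.c⟩

theorem slq_ev (A : Q3) (x1 x2 y t : ℝ) : (slq A x1 x2).ev y t = A.ev y (t * x1) (t * x2) := by
  simp only [slq, Q2.ev, Q3.ev]; ring

set_option maxHeartbeats 1000000 in
/-- **graph over a segment** -/
theorem exists_graph {b0 b1 : V3} {G : QF} (N : NrmC b0 b1 G) {ζ : ℝ} (hζ : ζ ∈ Icc (0 : ℝ) 1)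
    {x : V3} (hx : ∀ k, |x k| ≤ 1 / 8) (hs : |Fq b0 b1 G ζ x| ≤ 1 / 100) :
    ∃ φ : ℝ → ℝ, φ 1 = x 0 ∧
      GrH (slq (FQ b0 b1 G ζ) (x 1) (x 2)) (Fq b0 b1 G ζ x) φ (Icc 0 1) ∧
      |(slq (FQ b0 b1 G ζ) (x 1) (x 2)).nu| ≤ 5 := by
  obtain ⟨m1, m2, m3, m4, m5, m6⟩ := N.G_le
  have a0 := abs_le.1 (hx 0)
  have a1 := hx 1
  have a2 := hx 2
  set s := Fq b0 b1 G ζ x with hs'
  set b := b0 0 + ζ * b1 0 with hb
  set m := G.yu * x 1 + G.yv * x 2 with hm
  set L := (b0 1 + ζ * b1 1) * x 1 + (b0 2 + ζ * b1 2) * x 2 with hL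
  set Q := G.uu * x 1 ^ 2 + G.uv * (x 1 * x 2) + G.vv * x 2 ^ 2 with hQ
  set F := slq (FQ b0 b1 G ζ) (x 1) (x 2) with hF
  have hev : ∀ y t, F.ev y t = y * (b + G.yy * y + t * m) + t * L + t ^ 2 * Q := by
    intro y t
    rw [hF, slq_ev]
    simp only [Q3.ev, FQ, hb, hm, hL, hQ]; ring
  have hdy : ∀ y t, F.dy y t = b + G.yy * (2 * y) + G.yu * (t * x 1) + G.yv * (t * x 2) := by
    intro y t
    simp only [hF, slq, FQ, Q2.dy, hb]; ring
  have hsv : s = x 0 * (b + G.yy * x 0 + m) + L + Q := by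
    have h1 : F.ev (x 0) 1 = s := by
      have hx' : (![x 0, x 1, x 2] : V3) = x := by
        ext i; fin_cases i <;> rfl
      rw [hF, slq_ev, Row214.FQ_ev, one_mul, one_mul, hx', hs']
    rw [← h1, hev]; ring
  have hst : ∀ σ t, |σ| ≤ 1 → t ∈ Icc (0 : ℝ) 1 →
      1 / 2 ≤ b + G.yy * σ + t * m ∧ b + G.yy * σ + t * m ≤ 2 := by
    intro σ t hσ ht
    have hta : |t| ≤ 1 := by rw [abs_of_nonneg ht.1]; exact ht.2
    have u1 : |t * x 1| ≤ 1 := (Tl102.mul_abs_le hta a1).trans (by norm_num)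
    have u2 : |t * x 2| ≤ 1 := (Tl102.mul_abs_le hta a2).trans (by norm_num)
    have := N.st ζ hζ.1 hζ.2 σ (t * x 1) (t * x 2) hσ u1 u2
    have e : b + G.yy * σ + t * m =
        b0 0 + ζ * b1 0 + G.yy * σ + G.yu * (t * x 1) + G.yv * (t * x 2) := by
      rw [hb, hm]; ring
    rw [e]; exact this
  have hQb : |Q| ≤ 3 / 64 := by
    have t4 : |G.uu * x 1 ^ 2| ≤ 1 * (1 / 8) ^ 2 := Tl102.mul_abs_le m4 (by
      rw [abs_pow]; exact pow_le_pow_left₀ (abs_nonneg _) a1 2)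
    have t5 : |G.uv * (x 1 * x 2)| ≤ 1 * (1 / 8 * (1 / 8)) :=
      Tl102.mul_abs_le m5 (Tl102.mul_abs_le a1 a2)
    have t6 : |G.vv * x 2 ^ 2| ≤ 1 * (1 / 8) ^ 2 := Tl102.mul_abs_le m6 (by
      rw [abs_pow]; exact pow_le_pow_left₀ (abs_nonneg _) a2 2)
    rw [hQ]
    rw [abs_le] at t4 t5 t6 ⊢
    constructor <;> linarith [t4.1, t4.2, t5.1, t5.2, t6.1, t6.2]
  have one_mem : (1 : ℝ) ∈ Icc (0 : ℝ) 1 := ⟨zero_le_one, le_rfl⟩
  -- the bracket
  have hbr : ∀ t ∈ Icc (0 : ℝ) 1, F.ev (-(1 / 2)) t ≤ s ∧ s ≤ F.ev (1 / 2) t := by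
    intro t ht
    have hX0 := (hst (x 0) 1 ((hx 0).trans (by norm_num)) one_mem).1
    set E := b + G.yy * x 0 + m with hE
    have hE1 : 1 / 2 ≤ E := by
      have : E = b + G.yy * x 0 + 1 * m := by rw [hE]; ring
      rw [this]; exact hX0
    have z0 : (0 : ℝ) ∈ Icc (0 : ℝ) 1 := ⟨le_rfl, zero_le_one⟩
    have p0 := (hst (1 / 2) 0 (by rw [abs_of_pos] <;> norm_num) z0).1
    have p1 := (hst ((2 - x 0) / 3) 1 (by rw [abs_le]; constructor <;> linarith [a0.1, a0.2])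
      one_mem).1
    have n0 := (hst (-(1 / 2)) 0 (by rw [abs_neg, abs_of_pos] <;> norm_num) z0).1
    have n1 := (hst (-(2 + x 0) / 3) 1 (by rw [abs_le]; constructor <;> linarith [a0.1, a0.2])
      one_mem).1
    obtain ⟨t0, t1⟩ := ht
    rw [abs_le] at hs hQb
    have ht1 : 0 ≤ 1 - t := by linarith
    -- the two lower bounds
    have P : 3 / 8 ≤ (b + G.yy * (1 / 2) + t * m) - t / 4 * E := by
      have e : (b + G.yy * (1 / 2) + t * m) - t / 4 * E =
          (1 - t) * (b + G.yy * (1 / 2) + 0 * m) +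
            t * (3 / 4 * (b + G.yy * ((2 - x 0) / 3) + 1 * m)) := by rw [hE]; ring
      rw [e]
      have := mul_le_mul_of_nonneg_left p0 ht1
      have := mul_le_mul_of_nonneg_left p1 t0
      linarith
    have P' : 3 / 8 ≤ (b + G.yy * (-(1 / 2)) + t * m) - t / 4 * E := by
      have e : (b + G.yy * (-(1 / 2)) + t * m) - t / 4 * E =
          (1 - t) * (b + G.yy * (-(1 / 2)) + 0 * m) +
            t * (3 / 4 * (b + G.yy * (-(2 + x 0) / 3) + 1 * m)) := by rw [hE]; ring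
      rw [e]
      have := mul_le_mul_of_nonneg_left n0 ht1
      have := mul_le_mul_of_nonneg_left n1 t0
      linarith
    have k1 : t * (x 0 * E) ≤ t * (1 / 8 * E) :=
      mul_le_mul_of_nonneg_left (mul_le_mul_of_nonneg_right a0.2 (by linarith)) t0
    have k2 : t * (-(1 / 8) * E) ≤ t * (x 0 * E) :=
      mul_le_mul_of_nonneg_left (mul_le_mul_of_nonneg_right a0.1 (by linarith)) t0
    have k3 : (1 - t) * s ≤ (1 - t) * (1 / 100) := mul_le_mul_of_nonneg_left hs.2 ht1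
    have k4 : (1 - t) * (-(1 / 100)) ≤ (1 - t) * s := mul_le_mul_of_nonneg_left hs.1 ht1
    have k5 : t * (1 - t) * Q ≤ t * (1 - t) * (3 / 64) :=
      mul_le_mul_of_nonneg_left hQb.2 (mul_nonneg t0 ht1)
    have k6 : t * (1 - t) * (-(3 / 64)) ≤ t * (1 - t) * Q :=
      mul_le_mul_of_nonneg_left hQb.1 (mul_nonneg t0 ht1)
    have k7 : t * (1 - t) ≤ 1 / 4 := by nlinarith [sq_nonneg (t - 1 / 2)]
    constructor
    · rw [hev]
      have e : -(1 / 2) * (b + G.yy * -(1 / 2) + t * m) + t * L + t ^ 2 * Q =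
          s - 1 / 2 * (b + G.yy * -(1 / 2) + t * m) - (1 - t) * s - t * (x 0 * E) -
            t * (1 - t) * Q := by rw [hsv]; ring
      rw [e]
      linarith
    · rw [hev]
      have e : (1 / 2) * (b + G.yy * (1 / 2) + t * m) + t * L + t ^ 2 * Q =
          s + 1 / 2 * (b + G.yy * (1 / 2) + t * m) - (1 - t) * s - t * (x 0 * E) -
            t * (1 - t) * Q := by rw [hsv]; ring
      rw [e]
      linarith
  have hex : ∀ t : ℝ, ∃ y, t ∈ Icc (0 : ℝ) 1 → |y| ≤ 1 / 2 ∧ F.ev y t = s := by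
    intro t
    by_cases ht : t ∈ Icc (0 : ℝ) 1
    · have hc : ContinuousOn (fun y => F.ev y t) (Icc (-(1 / 2)) (1 / 2)) := by
        unfold Q2.ev
        fun_prop
      obtain ⟨y, hy, hys⟩ := intermediate_value_Icc (by norm_num) hc (hbr t ht)
      exact ⟨y, fun _ => ⟨abs_le.2 hy, hys⟩⟩
    · exact ⟨0, fun h => absurd h ht⟩
  choose φ hφ using hex
  have hdy' : ∀ t ∈ Icc (0 : ℝ) 1, ∀ y, |y| ≤ 1 / 2 → 1 / 2 ≤ F.dy y t ∧ F.dy y t ≤ 2 := by
    intro t ht y hy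
    have := hst (2 * y) t (by
      rw [abs_mul, abs_of_pos (by norm_num : (0 : ℝ) < 2)]; linarith) ht
    have e : F.dy y t = b + G.yy * (2 * y) + t * m := by rw [hdy, hm]; ring
    rw [e]; exact this
  refine ⟨φ, ?_, ⟨fun t ht => (hφ t ht).1, fun t ht => (hφ t ht).2, hdy'⟩, ?_⟩
  · obtain ⟨p1, p2⟩ := hφ 1 one_mem
    have h1 : F.ev (x 0) 1 = s := by rw [hev, hsv]; ring
    have hmid : |(φ 1 + x 0) / 2| ≤ 1 / 2 := by
      rw [abs_le] at p1 ⊢
      constructor <;> linarith [p1.1, p1.2, a0.1, a0.2]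
    have h2 := (hdy' 1 one_mem _ hmid).1
    have e : (φ 1 - x 0) * F.dy ((φ 1 + x 0) / 2) 1 = F.ev (φ 1) 1 - F.ev (x 0) 1 := by
      simp only [Q2.ev, Q2.dy]; ring
    rw [p2, h1, sub_self] at e
    rcases mul_eq_zero.1 e with h3 | h3
    · linarith
    · linarith
  · have hmb : |m| ≤ 1 / 4 := by
      have t1 : |G.yu * x 1| ≤ 1 * (1 / 8) := Tl102.mul_abs_le m2 a1
      have t2 : |G.yv * x 2| ≤ 1 * (1 / 8) := Tl102.mul_abs_le m3 a2
      rw [hm]
      rw [abs_le] at t1 t2 ⊢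
      constructor <;> linarith [t1.1, t1.2, t2.1, t2.2]
    have e : F.nu = m ^ 2 - 4 * G.yy * Q := by
      simp only [hF, slq, FQ, Q2.nu, hm, hQ]
    rw [e]
    have h1 : |m ^ 2| ≤ 1 := by
      rw [abs_pow]; exact pow_le_one₀ (abs_nonneg _) (hmb.trans (by norm_num))
    have h2 : |4 * G.yy * Q| ≤ 4 * 1 * (3 / 64) :=
      Tl102.mul_abs_le (Tl102.mul_abs_le (by rw [abs_of_pos]; norm_num) m1) hQb
    refine (abs_sub _ _).trans ?_
    linarith

/-- plank coordinates of a point given by its coordinates -/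
theorem pc_cmb {e : Fin 3 → V3} (he : Ortho e) {w : V3} (hw : ∀ k, w k ≠ 0) (T : Ln4) (z : ℝ)
    (v : V3) : pc e w T z (T.pos z + cmb (fr e w) v) = v := by
  ext k
  have e1 : T.pos z + cmb (fr e w) v - T.pos z = cmb (fr e w) v := by
    ext i; simp only [Pi.sub_apply, Pi.add_apply]; ring
  simp only [pc, e1, dt_cmb_fr he]
  rw [mul_comm, mul_div_assoc, div_self (hw k), mul_one]

/-- **(P): path inside a level set** (literal of 705, message 20600) -/
theorem path {e : Fin 3 → V3} {c : Ln4} {w : V3} {q : ℝ → V3 → ℝ} {z0 ρ a : ℝ}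
    (S : StP e c w q z0 ρ) (hρ : 0 ≤ ρ) {T : Ln4} (hT : InSheet T e c w q a z0 ρ)
    (ha : a ≤ w 0 / 1000) {ζ : ℝ} (hζ : ζ ∈ Icc (0 : ℝ) 1) {X : V3}
    (hX : |q (z0 + ρ * ζ) X| ≤ a) (hpc : ∀ k, |pc e w T (z0 + ρ * ζ) X k| ≤ 1 / 8) :
    ∃ γ : ℝ → V3, γ 1 = X ∧
      (∀ t ∈ Icc (0 : ℝ) 1, q (z0 + ρ * ζ) (γ t) = q (z0 + ρ * ζ) X ∧
        |pc e w T (z0 + ρ * ζ) (γ t) 0| ≤ 1 / 2 ∧
        pc e w T (z0 + ρ * ζ) (γ t) 1 = t * pc e w T (z0 + ρ * ζ) X 1 ∧
        pc e w T (z0 + ρ * ζ) (γ t) 2 = t * pc e w T (z0 + ρ * ζ) X 2) ∧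
      ∀ q₂ : ℝ → V3 → ℝ, IsQ q₂ → ∃ f : ℕ → ℝ → ℝ,
        (∀ t, f 0 t = q₂ (z0 + ρ * ζ) (γ t)) ∧ Sys f (Icc 0 1) := by
  have hw0 := S.pos 0
  have hwne : ∀ i, w i ≠ 0 := fun i => (S.pos i).ne'
  obtain ⟨b0, b1, G, hE⟩ := exists_isExp S.isQ e hw0.ne' T z0 ρ
  have N := hE.nrmC S hρ (fun z h1 h2 => (hT z h1 h2).1)
  have z1 : z0 ≤ z0 + ρ * ζ := by nlinarith [hζ.1]
  have z2 : z0 + ρ * ζ ≤ z0 + ρ := by nlinarith [hζ.2]
  set z := z0 + ρ * ζ with hz
  set x := pc e w T z X with hx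
  have hxX : T.pos z + cmb (fr e w) x = X := cmb_pc S.ortho hwne T z X
  have hqX : q z X = q z (T.pos z) + w 0 * Fq b0 b1 G ζ x := by
    have := hE ζ x
    rw [← hz, hxX] at this
    exact this
  have hs : |Fq b0 b1 G ζ x| ≤ 1 / 100 := by
    have h1 := (hT z z1 z2).2
    have e1 : w 0 * Fq b0 b1 G ζ x = q z X - q z (T.pos z) := by rw [hqX]; ring
    have h2 : w 0 * |Fq b0 b1 G ζ x| ≤ 2 * a := by
      have : w 0 * |Fq b0 b1 G ζ x| = |w 0 * Fq b0 b1 G ζ x| := by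
        rw [abs_mul, abs_of_pos hw0]
      rw [this, e1]
      exact (abs_sub _ _).trans (by linarith)
    have h3 : w 0 * |Fq b0 b1 G ζ x| ≤ w 0 * (1 / 100) := by linarith
    exact le_of_mul_le_mul_left h3 hw0
  obtain ⟨φ, h1, HG, hν⟩ := exists_graph N hζ hpc hs
  set γ : ℝ → V3 := fun t => T.pos z + cmb (fr e w) ![φ t, t * x 1, t * x 2] with hγ
  have hpcγ : ∀ t, pc e w T z (γ t) = ![φ t, t * x 1, t * x 2] := fun t =>
    pc_cmb S.ortho hwne T z _
  refine ⟨γ, ?_, fun t ht => ⟨?_, ?_, ?_, ?_⟩, fun q₂ hq₂ => ?_⟩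
  · have : (![φ 1, 1 * x 1, 1 * x 2] : V3) = x := by
      ext i; fin_cases i
      · exact h1
      · exact one_mul _
      · exact one_mul _
    rw [hγ]
    simp only [this]
    exact hxX
  · rw [hqX]
    have := hE ζ ![φ t, t * x 1, t * x 2]
    rw [← hz] at this
    rw [hγ]
    simp only [this]
    congr 2
    have h2 := HG.eq t ht
    rw [slq_ev, Row214.FQ_ev] at h2
    exact h2
  · rw [hpcγ]; exact HG.small t ht
  · rw [hpcγ]; rfl
  · rw [hpcγ]; rfl
  · obtain ⟨A, cc, c3, c4, hA⟩ := P4.of_isQ hq₂ T (fr e w) z0 ρ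
    have := HG.sys hν (slq ⟨A.yy, A.yu, A.yv, A.uu, A.uv, A.vv, A.ly + ζ * cc 0,
      A.lu + ζ * cc 1, A.lv + ζ * cc 2, A.c + c3 * ζ + c4 * ζ ^ 2⟩ (x 1) (x 2))
    refine ⟨_, fun t => ?_, this⟩
    have e1 := hA ζ (φ t) (t * x 1) (t * x 2)
    simp only [Function.iterate_zero, id_eq]
    rw [slq_ev]
    change _ = q₂ (z0 + ρ * ζ) (T.pos (z0 + ρ * ζ) + cmb (fr e w) ![φ t, t * x 1, t * x 2])
    refine Eq.trans ?_ e1.symm
    simp only [Q3.ev]
    ring

/-- the constant of `ext` -/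
theorem exp250 : Real.exp 250 * (512 * 16 ^ 4) ≤ 10 ^ 120 := by
  have h1 : Real.exp 250 = Real.exp 1 ^ 250 := by
    rw [← Real.exp_nat_mul]; norm_num
  have h2 : Real.exp 1 ≤ 3 := by
    have := Real.exp_one_lt_d9
    linarith
  have h3 : Real.exp 250 ≤ (2.72 : ℝ) ^ 250 := by
    rw [h1]
    have := Real.exp_one_lt_d9
    exact pow_le_pow_left₀ (Real.exp_pos 1).le (by linarith) 250
  calc Real.exp 250 * (512 * 16 ^ 4) ≤ (2.72 : ℝ) ^ 250 * (512 * 16 ^ 4) := by gcongr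
    _ ≤ 10 ^ 120 := by norm_num

/-- **a chain which is small on a short interval is small everywhere** -/
theorem ext {f : ℕ → ℝ → ℝ} (h : Sys f (Icc 0 1)) {r Λ : ℝ} (hr : 0 < r) (hr1 : r ≤ 1 / 2000)
    (hf : ∀ t ∈ Icc (0 : ℝ) r, |f 0 t| ≤ Λ) :
    ∀ k, k ≤ 4 → ∀ t ∈ Icc (0 : ℝ) 1, |f k t| ≤ 10 ^ 120 * Λ / r ^ 4 := by
  have hΛ : 0 ≤ Λ := (abs_nonneg _).trans (hf 0 ⟨le_rfl, hr.le⟩)
  have hsub : Icc (0 : ℝ) r ⊆ Icc 0 1 := Icc_subset_Icc_right (by linarith)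
  have hr' : Sys f (Icc 0 r) := h.mono hsub
  have hpts := pts hr' (by linarith) (δ := r / 16) (lam := Λ) (by positivity) (by linarith)
    (t := fun i => r / 16 * i)
    (fun i hi => by
      have hi' : (i : ℝ) ≤ 16 := by exact_mod_cast hi.le
      constructor
      · positivity
      · have := mul_le_mul_of_nonneg_left hi' (by positivity : (0 : ℝ) ≤ r / 16)
        linarith)
    (fun i hi => by
      push_cast
      linarith)
    (fun i hi => by
      have hi' : (i : ℝ) ≤ 16 := by exact_mod_cast hi.le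
      refine hf _ ⟨by positivity, ?_⟩
      have := mul_le_mul_of_nonneg_left hi' (by positivity : (0 : ℝ) ≤ r / 16)
      linarith)
    (x := 0) ⟨le_rfl, hr.le⟩
  intro k hk t ht
  have h1 := gron h (s := 0) ⟨le_rfl, zero_le_one⟩ ht hpts k hk
  refine h1.trans ?_
  have h2 : Real.exp (250 * |t - 0|) ≤ Real.exp 250 := by
    apply Real.exp_le_exp.2
    rw [sub_zero, abs_of_nonneg ht.1]
    linarith [ht.2]
  have e : 512 * Λ / (r / 16) ^ 4 = (512 * 16 ^ 4) * (Λ / r ^ 4) := by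
    field_simp
  rw [e]
  have h3 : 0 ≤ Λ / r ^ 4 := by positivity
  calc Real.exp (250 * |t - 0|) * (512 * 16 ^ 4 * (Λ / r ^ 4))
      ≤ Real.exp 250 * (512 * 16 ^ 4 * (Λ / r ^ 4)) := by gcongr
    _ = (Real.exp 250 * (512 * 16 ^ 4)) * (Λ / r ^ 4) := by ring
    _ ≤ 10 ^ 120 * (Λ / r ^ 4) := by
        have := exp250
        gcongr
    _ = 10 ^ 120 * Λ / r ^ 4 := by ring

end Crest.Agent.R136.Crp880
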