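import Crest.Agent.R136.Crp1_705

/-!
# R136 (one-level crude tilt), helper705: nearly linear functions

`NL` : nearly linear functions; `Hs.normal` : the gradient of a nearly linear function which is small
on the sheet is not orthogonal to `e 0`; `Hs.transfer` : points near the sheet; `NL.of_chart` : the
function of a container.
-/

set_option autoImplicit false
set_option linter.unusedVariables false

namespace Crest.Agent.R136.Crp705

open Set Crest.Agent.R136.Sh605 Crest.Agent.R136.Tl102 Crest.Agent.R136.Crd705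
open Crest.Agent.R136.Sa705 Crest.Agent.R136.Deep51

variable {e : Fin 3 → V3} {c : Ln4} {w : V3} {q : ℝ → V3 → ℝ} {a z0 ρ : ℝ} {T : Ln4}

/-- sum of the coordinates -/
def N1 (e : Fin 3 → V3) (V : V3) : ℝ := |dt (e 0) V| + |dt (e 1) V| + |dt (e 2) V|

theorem N1_nonneg (e : Fin 3 → V3) (V : V3) : 0 ≤ N1 e V := by unfold N1; positivity

theorem le_N1 {e e' : Fin 3 → V3} (h : Ortho e) (h' : Ortho e') (i : Fin 3) (V : V3) :
    |dt (e i) V| ≤ N1 e' V := by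
  refine (abs_dt_exp h h' i V).trans ?_
  unfold N1
  have h0 := mul_le_of_le_one_left (abs_nonneg (dt (e' 0) V)) (abs_dt_unit h h' i 0)
  have h1 := mul_le_of_le_one_left (abs_nonneg (dt (e' 1) V)) (abs_dt_unit h h' i 1)
  have h2 := mul_le_of_le_one_left (abs_nonneg (dt (e' 2) V)) (abs_dt_unit h h' i 2)
  linarith

theorem N1_le {e e' : Fin 3 → V3} (h : Ortho e) (h' : Ortho e') (V : V3) : N1 e V ≤ 3 * N1 e' V := by
  have h0 := le_N1 h h' 0 V
  have h1 := le_N1 h h' 1 V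
  have h2 := le_N1 h h' 2 V
  unfold N1 at *
  linarith

/-- `κ` is nearly linear on `R`, gradient `G` -/
structure NL (κ : ℝ → V3 → ℝ) (f : Fin 3 → V3) (R : V3 → Prop) (G : V3) (z : ℝ) : Prop where
  lin : ∀ Y Y', R Y → R Y' → |κ z Y' - κ z Y - dt G (Y' - Y)| ≤ 1 / 400 * N1 f (Y' - Y)
  norm : 1 / 2 ≤ |dt (f 0) G|

/-- a graph point minus the line -/
theorem cmb_sub (P : V3) (e : Fin 3 → V3) (w x : V3) (V : V3) :
    dt V (P + cmb (fr e w) x - P) = x 0 * w 0 * dt V (e 0) + x 1 * w 1 * dt V (e 1) +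
      x 2 * w 2 * dt V (e 2) := by
  simp only [dt, Pi.sub_apply, Pi.add_apply, cmb, fr, Pi.smul_apply, smul_eq_mul]
  ring

/-- **the gradient is not orthogonal to `e 0`** -/
theorem Hs.normal (H : Hs e c w q a z0 ρ T) (hw02 : w 0 ≤ w 2) (hw21 : w 2 ≤ w 1) {z : ℝ}
    (hz : z0 ≤ z) (hz' : z ≤ z0 + ρ)
    {κ : ℝ → V3 → ℝ} (hκ : IsQ κ) {Λ : ℝ} (hC : Cl e w q a T κ Λ z) {f : Fin 3 → V3} (hf : Ortho f)
    {R : V3 → Prop} {G : V3} (hN : NL κ f R G z) {σ : ℝ} (hσ : 0 < σ) (hσ' : σ ≤ 1 / 32)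
    (hR : ∀ X, |q z X| ≤ a → |pc e w T z X 0| ≤ 1 / 2 → |pc e w T z X 1| ≤ σ →
      |pc e w T z X 2| ≤ σ → R X) (hΛ : 40 * (CN * Λ) ≤ w 2) : 1 / 28 ≤ |dt G (e 0)| := by
  have S := H.S
  have hw0 := S.pos 0
  have hw1 := S.pos 1
  have hw2 := S.pos 2
  have hwne : ∀ k, w k ≠ 0 := fun k => (S.pos k).ne'
  obtain ⟨hTK, hTa⟩ := H.hT z hz hz'
  obtain ⟨ψ, hψ, hal⟩ := H.graph hz hz' (s := 0) (by rw [abs_zero]; linarith)
  obtain ⟨V, ev, D1, D2, p0, hA, hev⟩ := hal κ hκ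
  have ha0 : 0 ≤ a := (abs_nonneg _).trans hTa
  have hM : ∀ x1 ∈ Ib, ∀ x2 ∈ Ib, |ev p0 x1 x2| ≤ Λ := by
    intro x1 h1 x2 h2
    obtain ⟨k1, k2, -, -, -⟩ := hψ x1 h1 x2 h2
    rw [hev]
    refine hC _ ?_ ?_ ?_ ?_
    · rw [k2, add_zero]; exact hTa
    · rw [pc_cmb S.ortho hwne]; exact k1.trans (by norm_num)
    · rw [pc_cmb S.ortho hwne]; exact abs_le.2 h1
    · rw [pc_cmb S.ortho hwne]; exact abs_le.2 h2
  have hΛ0 : 0 ≤ Λ := (abs_nonneg _).trans (hM 0 zero_Ib 0 zero_Ib)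
  have hCΛ : 0 ≤ CN * Λ := mul_nonneg (by linarith [one_le_CN]) hΛ0
  have hσI : σ ∈ Ib := ⟨by linarith, hσ'⟩
  -- the base point
  have h00 : ψ 0 0 = 0 := by
    obtain ⟨-, -, j3, -, -⟩ := hψ 0 zero_Ib 0 zero_Ib
    simp only [abs_zero, mul_zero, add_zero] at j3
    have : |ψ 0 0| ≤ 0 := by
      by_contra h; push Not at h
      have := mul_pos hw0 h
      linarith
    exact abs_nonpos_iff.1 this
  have hP0 : T.pos z + cmb (fr e w) ![ψ 0 0, 0, 0] = T.pos z := by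
    ext i
    simp only [h00, Pi.add_apply, cmb, fr, Pi.smul_apply, smul_eq_mul, Matrix.cons_val]
    ring
  have hRT : R (T.pos z) := by
    refine hR _ hTa ?_ ?_ ?_ <;>
    · simp only [pc, sub_self]
      have : ∀ x : V3, dt x 0 = 0 := by intro x; simp [dt]
      rw [this, zero_div, abs_zero]
      linarith
  set g0 := |dt G (e 0)| with hg0
  have hg00 : 0 ≤ g0 := abs_nonneg _
  -- one direction
  have dir : ∀ (x1 x2 : ℝ), x1 ∈ Ib → x2 ∈ Ib → |x1| ≤ σ → |x2| ≤ σ → |x1| + |x2| = σ →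
      |x1 * w 1 * dt G (e 1) + x2 * w 2 * dt G (e 2)| ≤
        2 * (CN * Λ) * σ + 4 * w 0 * σ * g0 + 1 / 400 * (3 * (4 * w 0 * σ + |x1| * w 1 + |x2| * w 2)) := by
    intro x1 x2 h1 h2 s1 s2 hsum
    obtain ⟨k1, k2, k3, -, -⟩ := hψ x1 h1 x2 h2
    have hl := lip2 hA hM h1 h2
    rw [hev, hev, hP0, hsum] at hl
    set X := T.pos z + cmb (fr e w) ![ψ x1 x2, x1, x2] with hX
    have hRX : R X := by
      refine hR _ ?_ ?_ ?_ ?_
      · rw [k2, add_zero]; exact hTa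
      · rw [hX, pc_cmb S.ortho hwne]; exact k1.trans (by norm_num)
      · rw [hX, pc_cmb S.ortho hwne]; exact s1
      · rw [hX, pc_cmb S.ortho hwne]; exact s2
    have hn := hN.lin _ _ hRT hRX
    have e1 := cmb_sub (T.pos z) e w ![ψ x1 x2, x1, x2] G
    rw [← hX] at e1
    simp only [Matrix.cons_val] at e1
    rw [hsum, abs_zero, mul_zero, zero_add] at k3
    have hψw : |ψ x1 x2 * w 0| ≤ 4 * w 0 * σ := by
      rw [abs_mul, abs_of_pos hw0, mul_comm]; exact k3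
    have n0 : |ψ x1 x2 * w 0 * dt G (e 0)| ≤ 4 * w 0 * σ * g0 := by
      rw [abs_mul]; exact mul_le_mul_of_nonneg_right hψw hg00
    have n1 : N1 f (X - T.pos z) ≤ 3 * (4 * w 0 * σ + |x1| * w 1 + |x2| * w 2) := by
      refine (N1_le hf S.ortho _).trans (mul_le_mul_of_nonneg_left ?_ (by norm_num))
      have e2 : ∀ k, dt (e k) (X - T.pos z) = w k * ![ψ x1 x2, x1, x2] k := by
        intro k
        have := cmb_sub (T.pos z) e w ![ψ x1 x2, x1, x2] (e k)
        have h3 : X - T.pos z = cmb (fr e w) ![ψ x1 x2, x1, x2] := by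
          rw [hX]; ext i; simp only [Pi.add_apply, Pi.sub_apply]; ring
        rw [h3, dt_cmb_fr S.ortho]
      unfold N1
      rw [e2, e2, e2, abs_mul, abs_mul, abs_mul, abs_of_pos hw0, abs_of_pos hw1, abs_of_pos hw2]
      simp only [Matrix.cons_val]
      have := k3
      linarith [mul_comm (w 1) |x1|, mul_comm (w 2) |x2|]
    have e3 : x1 * w 1 * dt G (e 1) + x2 * w 2 * dt G (e 2) =
        (κ z X - κ z (T.pos z)) - (κ z X - κ z (T.pos z) - dt G (X - T.pos z)) -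
          ψ x1 x2 * w 0 * dt G (e 0) := by rw [e1]; ring
    rw [e3]
    refine (abs_sub _ _).trans ?_
    have m1 := abs_sub (κ z X - κ z (T.pos z)) (κ z X - κ z (T.pos z) - dt G (X - T.pos z))
    have m2 := mul_le_mul_of_nonneg_left n1 (by norm_num : (0 : ℝ) ≤ 1 / 400)
    linarith
  have aσ : |σ| = σ := abs_of_pos hσ
  have d1 := dir σ 0 hσI zero_Ib aσ.le (by rw [abs_zero]; exact hσ.le) (by rw [aσ, abs_zero, add_zero])
  have d2 := dir 0 σ zero_Ib hσI (by rw [abs_zero]; exact hσ.le) aσ.le (by rw [aσ, abs_zero, zero_add])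
  simp only [zero_mul, add_zero, zero_add, aσ, abs_zero] at d1 d2
  rw [abs_mul, abs_of_pos (mul_pos hσ hw1)] at d1
  rw [abs_mul, abs_of_pos (mul_pos hσ hw2)] at d2
  have f1 : |dt G (e 1)| ≤ 2 * (1 / 40) + 4 * g0 + 1 / 400 * 15 := by
    have hw21' : CN * Λ ≤ w 1 / 40 := by linarith
    have t1 : w 0 * g0 ≤ w 1 * g0 := mul_le_mul_of_nonneg_right (hw02.trans hw21) hg00
    have t2 : σ * w 1 * |dt G (e 1)| ≤ σ * w 1 * (2 * (1 / 40) + 4 * g0 + 1 / 400 * 15) := by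
      have u1 := mul_le_mul_of_nonneg_left hw21' hσ.le
      have u2 := mul_le_mul_of_nonneg_left t1 hσ.le
      have u3 := mul_le_mul_of_nonneg_left (hw02.trans hw21) hσ.le
      nlinarith
    exact le_of_mul_le_mul_left t2 (mul_pos hσ hw1)
  have f2 : |dt G (e 2)| ≤ 2 * (1 / 40) + 4 * g0 + 1 / 400 * 15 := by
    have hw22' : CN * Λ ≤ w 2 / 40 := by linarith
    have t1 : w 0 * g0 ≤ w 2 * g0 := mul_le_mul_of_nonneg_right hw02 hg00
    have t2 : σ * w 2 * |dt G (e 2)| ≤ σ * w 2 * (2 * (1 / 40) + 4 * g0 + 1 / 400 * 15) := by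
      have u1 := mul_le_mul_of_nonneg_left hw22' hσ.le
      have u2 := mul_le_mul_of_nonneg_left t1 hσ.le
      have u3 := mul_le_mul_of_nonneg_left hw02 hσ.le
      nlinarith
    exact le_of_mul_le_mul_left t2 (mul_pos hσ hw2)
  have f3 := le_N1 hf S.ortho 0 G
  unfold N1 at f3
  rw [dt_comm (e 0) G, dt_comm (e 1) G, dt_comm (e 2) G] at f3
  have f4 := hN.norm
  linarith

/-- **points near the sheet** -/
theorem Hs.transfer (H : Hs e c w q a z0 ρ T) {z : ℝ} (hz : z0 ≤ z) (hz' : z ≤ z0 + ρ)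
    {κ : ℝ → V3 → ℝ} {Λ : ℝ} (hC : Cl e w q a T κ Λ z) {f : Fin 3 → V3} (hf : Ortho f)
    {R : V3 → Prop} {G : V3} (hN : NL κ f R G z) {σ : ℝ} (hσ' : σ ≤ 1 / 32)
    (hR : ∀ X, |q z X| ≤ a → |pc e w T z X 0| ≤ 1 / 2 → |pc e w T z X 1| ≤ σ →
      |pc e w T z X 2| ≤ σ → R X) (hG : 1 / 28 ≤ |dt G (e 0)|) {X : V3} (hX : R X)
    (hX1 : |pc e w T z X 1| ≤ σ) (hX2 : |pc e w T z X 2| ≤ σ) (hκX : |κ z X| ≤ Λ) :
    |dt (e 0) (X - T.pos z)| ≤ 8 * w 0 * σ + 80 * Λ ∧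
      |q z X| ≤ a + 80 * Λ * (2 + 80 * Λ / w 0) := by
  have S := H.S
  have hw0 := S.pos 0
  have hwne : ∀ k, w k ≠ 0 := fun k => (S.pos k).ne'
  obtain ⟨hTK, hTa⟩ := H.hT z hz hz'
  obtain ⟨ψ, hψ, -⟩ := H.graph hz hz' (s := 0) (by rw [abs_zero]; linarith)
  have hI1 : pc e w T z X 1 ∈ Ib := abs_le.1 (hX1.trans hσ')
  have hI2 : pc e w T z X 2 ∈ Ib := abs_le.1 (hX2.trans hσ')
  obtain ⟨k1, k2, k3, -, k5⟩ := hψ _ hI1 _ hI2
  set x := pc e w T z X with hx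
  set y := ψ (x 1) (x 2) with hy
  have hXc : T.pos z + cmb (fr e w) x = X := cmb_pc S.ortho hwne T z X
  set Y := T.pos z + cmb (fr e w) ![y, x 1, x 2] with hY
  have hYq : |q z Y| ≤ a := by rw [k2, add_zero]; exact hTa
  have hY0 : |pc e w T z Y 0| ≤ 1 / 2 := by
    rw [hY, pc_cmb S.ortho hwne]; exact k1.trans (by norm_num)
  have hY1 : |pc e w T z Y 1| ≤ σ := by rw [hY, pc_cmb S.ortho hwne]; exact hX1
  have hY2 : |pc e w T z Y 2| ≤ σ := by rw [hY, pc_cmb S.ortho hwne]; exact hX2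
  have hRY := hR Y hYq hY0 hY1 hY2
  have hκY := hC Y hYq hY0 (hY1.trans hσ') (hY2.trans hσ')
  set t := (x 0 - y) * w 0 with ht
  have hXY : X - Y = t • e 0 := by
    have h1 : X = Y + t • e 0 := by
      have := cmb_add_zero e w (T.pos z) y (x 1) (x 2) (x 0 - y)
      have h2 : y + (x 0 - y) = x 0 := by ring
      rw [h2, vec_eta, hXc] at this
      exact this
    rw [h1]; ext i; simp only [Pi.add_apply, Pi.sub_apply]; ring
  have hn := hN.lin Y X hRY hX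
  rw [hXY, dt_smul] at hn
  have hn1 : N1 f (t • e 0) ≤ 3 * |t| := by
    refine (N1_le hf S.ortho _).trans (le_of_eq ?_)
    have hor : ∀ i j, dt (e i) (e j) = if i = j then 1 else 0 := S.ortho
    unfold N1
    rw [dt_smul, dt_smul, dt_smul, hor, hor, hor]
    simp
  have hΛ : 0 ≤ Λ := (abs_nonneg _).trans hκX
  have hτ : |t| ≤ 80 * Λ := by
    have h1 : |t * dt G (e 0)| ≤ 2 * Λ + 1 / 400 * (3 * |t|) := by
      have e1 : t * dt G (e 0) = (κ z X - κ z Y) - (κ z X - κ z Y - t * dt G (e 0)) := by ring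
      rw [e1]
      refine (abs_sub _ _).trans ?_
      have h3 := abs_sub (κ z X) (κ z Y)
      linarith
    rw [abs_mul] at h1
    have h2 := mul_le_mul_of_nonneg_left hG (abs_nonneg t)
    linarith
  have e4 : w 0 * |x 0 - y| = |t| := by rw [ht, abs_mul, abs_of_pos hw0, mul_comm]
  constructor
  · have e5 : dt (e 0) (X - T.pos z) = w 0 * x 0 := by
      have : x 0 = dt (e 0) (X - T.pos z) / w 0 := rfl
      rw [this, mul_div_cancel₀ _ hw0.ne']
    rw [e5]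
    have e6 : w 0 * x 0 = w 0 * y + w 0 * (x 0 - y) := by ring
    rw [e6]
    refine (abs_add_le _ _).trans ?_
    rw [abs_mul, abs_mul, abs_of_pos hw0, e4]
    rw [abs_zero, mul_zero, zero_add] at k3
    have := mul_le_mul_of_nonneg_left (add_le_add hX1 hX2) (by linarith : 0 ≤ 4 * w 0)
    linarith
  · have h1 := k5 (x 0)
    rw [vec_eta, hXc, e4] at h1
    have h2 : |x 0 - y| ≤ 80 * Λ / w 0 := by
      rw [le_div_iff₀ hw0]; linarith [mul_comm (w 0) |x 0 - y|]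
    have h3 : |t| * (2 + |x 0 - y|) ≤ 80 * Λ * (2 + 80 * Λ / w 0) :=
      mul_le_mul hτ (by linarith) (by positivity) (by positivity)
    have h4 : |q z X| ≤ |q z Y| + |q z X - q z Y| := by
      have := abs_add_le (q z Y) (q z X - q z Y)
      have e7 : q z Y + (q z X - q z Y) = q z X := by ring
      rwa [e7] at this
    linarith

/-! ### the container -/

/-- the function of a chart is nearly linear -/
theorem NL.of_chart {f : Fin 3 → V3} {cK : Ln4} {wK : V3} {qK : ℝ → V3 → ℝ} {z1 ρ1 aK : ℝ}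
    (S : StP f cK wK qK z1 ρ1) (hρ : 0 < ρ1) (hT : InSheet T f cK wK qK aK z1 ρ1)
    (h02 : wK 0 ≤ wK 2) (h21 : wK 2 ≤ wK 1) {z : ℝ} (hz : z1 ≤ z) (hz' : z ≤ z1 + ρ1) :
    ∃ G : V3, NL qK f (fun Y => ∀ j, |dt (f j) (Y - T.pos z)| ≤ 1 / 1600 * wK j) G z := by
  have hw0 := S.pos 0
  have hwne : ∀ k, wK k ≠ 0 := fun k => (S.pos k).ne'
  have hT' : ∀ z, z1 ≤ z → z ≤ z1 + ρ1 → InK f cK wK z (T.pos z) := fun z h1 h2 => (hT z h1 h2).1
  obtain ⟨b0, b1, M, hE⟩ := exists_isExp S.isQ f hw0.ne' T z1 ρ1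
  have N := hE.nrmC S hρ.le hT'
  obtain ⟨ζ, hζ, hzz⟩ := exists_height hρ hz hz'
  have hval := fun Y => exp_at S.ortho hwne hE ζ Y
  rw [hzz] at hval
  obtain ⟨m1, m2, m3, m4, m5, m6⟩ := N.G_le
  set b := bz b0 b1 ζ with hb
  refine ⟨fun i => b 0 * f 0 i + wK 0 / wK 1 * b 1 * f 1 i + wK 0 / wK 2 * b 2 * f 2 i, ?_, ?_⟩
  · intro Y Y' hY hY'
    have hr1 : wK 0 / wK 1 ≤ 1 := by rw [div_le_one (S.pos 1)]; linarith
    have hr2 : wK 0 / wK 2 ≤ 1 := by rw [div_le_one (S.pos 2)]; linarith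
    rw [hval Y', hval Y]
    set x := pc f wK T z Y with hx
    set x' := pc f wK T z Y' with hx'
    have hxk : ∀ k, |x k| ≤ 1 / 1600 := by
      intro k
      simp only [hx, pc]
      rw [abs_div, abs_of_pos (S.pos k), div_le_iff₀ (S.pos k)]; exact hY k
    have hxk' : ∀ k, |x' k| ≤ 1 / 1600 := by
      intro k
      simp only [hx', pc]
      rw [abs_div, abs_of_pos (S.pos k), div_le_iff₀ (S.pos k)]; exact hY' k
    have hd : ∀ k, dt (f k) (Y' - Y) = wK k * (x' k - x k) := by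
      intro k
      simp only [hx, hx', pc]
      rw [mul_sub, mul_div_cancel₀ _ (hwne k), mul_div_cancel₀ _ (hwne k), dt_sub, dt_sub, dt_sub]
      ring
    have hG : dt (fun i => b 0 * f 0 i + wK 0 / wK 1 * b 1 * f 1 i + wK 0 / wK 2 * b 2 * f 2 i)
        (Y' - Y) = wK 0 * (b 0 * (x' 0 - x 0) + b 1 * (x' 1 - x 1) + b 2 * (x' 2 - x 2)) := by
      have e1 : dt (fun i => b 0 * f 0 i + wK 0 / wK 1 * b 1 * f 1 i + wK 0 / wK 2 * b 2 * f 2 i)
          (Y' - Y) = b 0 * dt (f 0) (Y' - Y) + wK 0 / wK 1 * b 1 * dt (f 1) (Y' - Y) +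
            wK 0 / wK 2 * b 2 * dt (f 2) (Y' - Y) := by simp only [dt]; ring
      rw [e1, hd, hd, hd]
      have := S.pos 1
      have := S.pos 2
      field_simp
    rw [hG]
    have e2 : qK z (T.pos z) + wK 0 * Fq b0 b1 M ζ x' - (qK z (T.pos z) + wK 0 * Fq b0 b1 M ζ x) -
        wK 0 * (b 0 * (x' 0 - x 0) + b 1 * (x' 1 - x 1) + b 2 * (x' 2 - x 2)) =
        wK 0 * (M.ev x' - M.ev x) := by
      simp only [Fq, dt, ← hb]; ring
    rw [e2, abs_mul, abs_of_pos hw0]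
    set d0 := |x' 0 - x 0| with hd0
    set d1 := |x' 1 - x 1| with hd1
    set d2 := |x' 2 - x 2| with hd2
    have pr : ∀ i j, |x' i * x' j - x i * x j| ≤ 1 / 1600 * |x' i - x i| + 1 / 1600 * |x' j - x j| := by
      intro i j
      have e3 : x' i * x' j - x i * x j = x' j * (x' i - x i) + x i * (x' j - x j) := by ring
      rw [e3]
      exact (abs_add_le _ _).trans (add_le_add (mul_abs_le (hxk' j) le_rfl)
        (mul_abs_le (hxk i) le_rfl))
    have hq : |M.ev x' - M.ev x| ≤ 1 / 400 * (d0 + d1 + d2) := by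
      have e4 : M.ev x' - M.ev x = M.yy * (x' 0 * x' 0 - x 0 * x 0) +
          M.yu * (x' 0 * x' 1 - x 0 * x 1) + M.yv * (x' 0 * x' 2 - x 0 * x 2) +
          M.uu * (x' 1 * x' 1 - x 1 * x 1) + M.uv * (x' 1 * x' 2 - x 1 * x 2) +
          M.vv * (x' 2 * x' 2 - x 2 * x 2) := by simp only [QF.ev]; ring
      have t1 := mul_abs_le m1 (pr 0 0)
      have t2 := mul_abs_le m2 (pr 0 1)
      have t3 := mul_abs_le m3 (pr 0 2)
      have t4 := mul_abs_le m4 (pr 1 1)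
      have t5 := mul_abs_le m5 (pr 1 2)
      have t6 := mul_abs_le m6 (pr 2 2)
      rw [← hd0, ← hd1] at t2
      rw [← hd0, ← hd2] at t3
      rw [← hd0] at t1
      rw [← hd1] at t4
      rw [← hd1, ← hd2] at t5
      rw [← hd2] at t6
      rw [e4, abs_le]
      rw [abs_le] at t1 t2 t3 t4 t5 t6
      constructor <;> linarith [t1.1, t1.2, t2.1, t2.2, t3.1, t3.2, t4.1, t4.2, t5.1, t5.2, t6.1, t6.2]
    have h5 : wK 0 * (d0 + d1 + d2) ≤ N1 f (Y' - Y) := by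
      unfold N1
      rw [hd, hd, hd, abs_mul, abs_mul, abs_mul, abs_of_pos (S.pos 0), abs_of_pos (S.pos 1),
        abs_of_pos (S.pos 2), ← hd0, ← hd1, ← hd2]
      have g1 := mul_le_mul_of_nonneg_right (h02.trans h21) (abs_nonneg (x' 1 - x 1))
      have g2 := mul_le_mul_of_nonneg_right h02 (abs_nonneg (x' 2 - x 2))
      rw [← hd1] at g1
      rw [← hd2] at g2
      linarith
    have h6 := mul_le_mul_of_nonneg_left hq hw0.le
    linarith
  · have hor : ∀ i j, dt (f i) (f j) = if i = j then 1 else 0 := S.ortho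
    have e1 : dt (f 0) (fun i => b 0 * f 0 i + wK 0 / wK 1 * b 1 * f 1 i + wK 0 / wK 2 * b 2 * f 2 i) =
        b 0 * dt (f 0) (f 0) + wK 0 / wK 1 * b 1 * dt (f 0) (f 1) +
          wK 0 / wK 2 * b 2 * dt (f 0) (f 2) := by simp only [dt]; ring
    have h1 := (N.st ζ hζ.1 hζ.2 0 0 0 (by norm_num) (by norm_num) (by norm_num)).1
    have e2 : b 0 = b0 0 + ζ * b1 0 := rfl
    have e3 : dt (f 0) (f 0) = 1 := by simpa using hor 0 0
    have e4 : dt (f 0) (f 1) = 0 := by simpa using hor 0 1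
    have e5 : dt (f 0) (f 2) = 0 := by simpa using hor 0 2
    rw [e1, e3, e4, e5, mul_zero, mul_zero, add_zero, add_zero, mul_one, e2]
    rw [abs_of_pos (by linarith)]
    linarith

/-- a linear function is nearly linear -/
theorem NL.of_lin {f : Fin 3 → V3} (hf : Ortho f) (cK : Ln4) (z : ℝ) :
    NL (fun z x => dt (f 0) (x - cK.pos z)) f (fun _ => True) (f 0) z := by
  refine ⟨fun Y Y' _ _ => ?_, ?_⟩
  · have e1 : dt (f 0) (Y' - cK.pos z) - dt (f 0) (Y - cK.pos z) - dt (f 0) (Y' - Y) = 0 := by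
      rw [dt_sub, dt_sub, dt_sub]; ring
    rw [e1, abs_zero]
    have := N1_nonneg f (Y' - Y)
    positivity
  · have hor : ∀ i j, dt (f i) (f j) = if i = j then 1 else 0 := hf
    rw [hor, if_pos rfl]; norm_num

end Crest.Agent.R136.Crp705
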