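import Crest.Agent.R136.Crm_705

/-!
# R136 (one-level crude tilt), helper705: two sheets close to a container, at one height

`Mdl` : a mark and its model; `Mdl.near` : points of the second model near `T` are close to the first
sheet; `Hs.ext32` : from a small box to the box `1/32`.
-/

set_option autoImplicit false
set_option linter.unusedVariables false

namespace Crest.Agent.R136.Crp705

open Set Crest.Agent.R136.Sh605 Crest.Agent.R136.Tl102 Crest.Agent.R136.Crd705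
open Crest.Agent.R136.Sa705 Crest.Agent.R136.Deep51

/-- a mark (`w`, `q`, `a`) and its model (`W`, `Q`, `A`) -/
structure Mdl (Y : ℝ) (e : Fin 3 → V3) (c : Ln4) (w : V3) (q : ℝ → V3 → ℝ) (a : ℝ) (W : V3)
    (Q : ℝ → V3 → ℝ) (A z0 ρ : ℝ) (T : Ln4) : Prop where
  tr : StP e c w q z0 ρ
  w02 : w 0 ≤ w 2
  w21 : w 2 ≤ w 1
  a0 : 0 < a
  aw : a ≤ w 0
  tT : InSheet T e c w q a z0 ρ
  hs : Hs e c W Q A z0 ρ T
  W1 : W 1 = w 1
  W2 : W 2 = w 2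
  W0 : W 0 ≤ w 2
  w0W : w 0 ≤ W 0
  aA : a ≤ A
  A_le : A ≤ 2 * Y * a
  mem : ∀ z X, z0 ≤ z → z ≤ z0 + ρ → |q z X| ≤ a → |dt (e 0) (X - T.pos z)| ≤ w 0 → |Q z X| ≤ A
  memK : ∀ z X, z0 ≤ z → z ≤ z0 + ρ → |q z X| ≤ a → InK e c w z X → |Q z X| ≤ A
  back : ∀ z X D, z0 ≤ z → z ≤ z0 + ρ → |pc e w T z X 1| ≤ 1 → |pc e w T z X 2| ≤ 1 → A ≤ D →
    |Q z X| ≤ D → |q z X| ≤ 25 * D ^ 2 / a
  lin : W 0 = w 0 ∨ ∀ z X, z0 ≤ z → z ≤ z0 + ρ → |dt (e 0) (X - T.pos z)| ≤ |Q z X| + A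
  sharp : ∀ z X s, z0 ≤ z → z ≤ z0 + ρ → InK e c w z X → |q z X| ≤ a → |pc e w T z X 1| ≤ s →
    |pc e w T z X 2| ≤ s → Y * s ≤ 1 → |Q z X - Q z (T.pos z)| ≤ 8 * a

/-- growth of the function of a chart -/
theorem val_grow {e : Fin 3 → V3} {c : Ln4} {w : V3} {q : ℝ → V3 → ℝ} {z0 ρ a : ℝ} {T : Ln4}
    (S : StP e c w q z0 ρ) (hρ : 0 < ρ) (hT : InSheet T e c w q a z0 ρ) {z : ℝ} (hz : z0 ≤ z)
    (hz' : z ≤ z0 + ρ) (X : V3) : |q z X - q z (T.pos z)| ≤ w 0 *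
      (2 * (|pc e w T z X 0| + |pc e w T z X 1| + |pc e w T z X 2|) +
        (|pc e w T z X 0| + |pc e w T z X 1| + |pc e w T z X 2|) ^ 2) := by
  have hw0 := S.pos 0
  have hwne : ∀ k, w k ≠ 0 := fun k => (S.pos k).ne'
  have hT' : ∀ z, z0 ≤ z → z ≤ z0 + ρ → InK e c w z (T.pos z) := fun z h1 h2 => (hT z h1 h2).1
  obtain ⟨b0, b1, G, hE⟩ := exists_isExp S.isQ e hw0.ne' T z0 ρ
  have N := hE.nrmC S hρ.le hT'
  obtain ⟨ζ, hζ, hzz⟩ := exists_height hρ hz hz'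
  have h1 := exp_at S.ortho hwne hE ζ X
  rw [hzz] at h1
  rw [h1]
  set x := pc e w T z X with hx
  have e1 : q z (T.pos z) + w 0 * Fq b0 b1 G ζ x - q z (T.pos z) = w 0 * Fq b0 b1 G ζ x := by ring
  rw [e1, abs_mul, abs_of_pos hw0]
  refine mul_le_mul_of_nonneg_left ?_ hw0.le
  obtain ⟨m1, m2, m3, m4, m5, m6⟩ := N.G_le
  have hk : ∀ c d : ℝ, |c| ≤ 1 → |c + d| ≤ 1 → |c + ζ * d| ≤ 1 := by
    intro c d hc hd
    have e1 : c + ζ * d = (1 - ζ) * c + ζ * (c + d) := by ring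
    rw [abs_le] at hc hd
    rw [e1, abs_le]
    have g1 := hζ.1
    have g2 := hζ.2
    constructor <;> nlinarith [hc.1, hc.2, hd.1, hd.2]
  have c1 := hk _ _ N.b01 N.b11
  have c2 := hk _ _ N.b02 N.b12
  have c0 : |b0 0 + ζ * b1 0| ≤ 2 := by
    have := N.st ζ hζ.1 hζ.2 0 0 0 (by norm_num) (by norm_num) (by norm_num)
    rw [abs_le]; constructor <;> linarith [this.1, this.2]
  have t0 : |(b0 0 + ζ * b1 0) * x 0| ≤ 2 * |x 0| := mul_abs_le c0 le_rfl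
  have t1 : |(b0 1 + ζ * b1 1) * x 1| ≤ 1 * |x 1| := mul_abs_le c1 le_rfl
  have t2 : |(b0 2 + ζ * b1 2) * x 2| ≤ 1 * |x 2| := mul_abs_le c2 le_rfl
  have s1 : |G.yy * (x 0 * x 0)| ≤ 1 * (|x 0| * |x 0|) := mul_abs_le m1 (mul_abs_le le_rfl le_rfl)
  have s2 : |G.yu * (x 0 * x 1)| ≤ 1 * (|x 0| * |x 1|) := mul_abs_le m2 (mul_abs_le le_rfl le_rfl)
  have s3 : |G.yv * (x 0 * x 2)| ≤ 1 * (|x 0| * |x 2|) := mul_abs_le m3 (mul_abs_le le_rfl le_rfl)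
  have s4 : |G.uu * (x 1 * x 1)| ≤ 1 * (|x 1| * |x 1|) := mul_abs_le m4 (mul_abs_le le_rfl le_rfl)
  have s5 : |G.uv * (x 1 * x 2)| ≤ 1 * (|x 1| * |x 2|) := mul_abs_le m5 (mul_abs_le le_rfl le_rfl)
  have s6 : |G.vv * (x 2 * x 2)| ≤ 1 * (|x 2| * |x 2|) := mul_abs_le m6 (mul_abs_le le_rfl le_rfl)
  have e2 : Fq b0 b1 G ζ x = (b0 0 + ζ * b1 0) * x 0 + (b0 1 + ζ * b1 1) * x 1 +
      (b0 2 + ζ * b1 2) * x 2 + G.yy * (x 0 * x 0) + G.yu * (x 0 * x 1) + G.yv * (x 0 * x 2) +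
      G.uu * (x 1 * x 1) + G.uv * (x 1 * x 2) + G.vv * (x 2 * x 2) := by
    simp only [Fq, Sh605.dt, bz, QF.ev]; ring
  have n0 := abs_nonneg (x 0)
  have n1 := abs_nonneg (x 1)
  have n2 := abs_nonneg (x 2)
  have p1 := mul_nonneg n0 n1
  have p2 := mul_nonneg n0 n2
  have p3 := mul_nonneg n1 n2
  have e3 : (|x 0| + |x 1| + |x 2|) ^ 2 = |x 0| * |x 0| + |x 1| * |x 1| + |x 2| * |x 2| +
      2 * (|x 0| * |x 1| + |x 0| * |x 2| + |x 1| * |x 2|) := by ring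
  rw [e2, e3, abs_le]
  rw [abs_le] at t0 t1 t2 s1 s2 s3 s4 s5 s6
  constructor <;> linarith [t0.1, t0.2, t1.1, t1.2, t2.1, t2.2, s1.1, s1.2, s2.1, s2.2, s3.1, s3.2,
    s4.1, s4.2, s5.1, s5.2, s6.1, s6.2]

variable {e : Fin 3 → V3} {c : Ln4} {w : V3} {q : ℝ → V3 → ℝ} {a z0 ρ : ℝ} {T : Ln4}

/-- normal offset of a point of the sheet -/
theorem Hs.off0 (H : Hs e c w q a z0 ρ T) {z : ℝ} (hz : z0 ≤ z) (hz' : z ≤ z0 + ρ) {X : V3}
    (hqX : |q z X| ≤ a) (hX0 : |pc e w T z X 0| ≤ 1 / 2) {r : ℝ} (hX1 : |pc e w T z X 1| ≤ r)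
    (hX2 : |pc e w T z X 2| ≤ r) (hr : r ≤ 1 / 32) :
    |dt (e 0) (X - T.pos z)| ≤ 4 * a + 8 * w 0 * r := by
  have S := H.S
  have hw0 := S.pos 0
  have hwne : ∀ k, w k ≠ 0 := fun k => (S.pos k).ne'
  obtain ⟨-, hTa⟩ := H.hT z hz hz'
  set s := q z X - q z (T.pos z) with hs
  have hsa : |s| ≤ 2 * a := (abs_sub _ _).trans (by linarith)
  have ha0 : 0 ≤ a := (abs_nonneg _).trans hqX
  obtain ⟨ψ, hψ, -⟩ := H.graph hz hz' (s := s) (by linarith [H.ha])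
  obtain ⟨-, -, k3, k4, -⟩ := hψ _ (abs_le.1 (hX1.trans hr)) _ (abs_le.1 (hX2.trans hr))
  have eX := k4 X rfl rfl hX0 (by rw [hs]; ring)
  have e1 : pc e w T z X 0 = ψ (pc e w T z X 1) (pc e w T z X 2) := by
    conv_lhs => rw [eX]
    rw [pc_cmb S.ortho hwne]; rfl
  have e2 : dt (e 0) (X - T.pos z) = w 0 * pc e w T z X 0 := by
    simp only [pc]; rw [mul_div_cancel₀ _ hw0.ne']
  rw [e2, abs_mul, abs_of_pos hw0, e1]
  refine k3.trans ?_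
  have := mul_le_mul_of_nonneg_left (add_le_add hX1 hX2) (by linarith : 0 ≤ 4 * w 0)
  linarith

/-- constant of `Sys.grow` -/
noncomputable def C4 : ℝ := Real.exp 250 * (512 * 16 ^ 4)

theorem one_le_C4 : 1 ≤ C4 := by
  have h : 1 ≤ Real.exp 250 := Real.one_le_exp (by norm_num)
  unfold C4
  nlinarith

/-- **from a short interval to the whole interval** -/
theorem sys_grow {f : ℕ → ℝ → ℝ} {α β : ℝ} (h : Sys f (Icc α β)) (hL : β - α ≤ 1) {r Λ : ℝ}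
    (hr : 0 < r) (hr1 : r ≤ 1 / 2000) (hα : α ≤ 0) (hβ : r ≤ β)
    (hf : ∀ t ∈ Icc (0 : ℝ) r, |f 0 t| ≤ Λ) : ∀ t ∈ Icc α β, ∀ k, k ≤ 4 → |f k t| ≤ C4 * Λ / r ^ 4 := by
  have hsub : Icc (0 : ℝ) r ⊆ Icc α β := Icc_subset_Icc hα hβ
  have h' := h.mono hsub
  have h0 : (0 : ℝ) ∈ Icc (0 : ℝ) r := ⟨le_rfl, hr.le⟩
  have hΛ : 0 ≤ Λ := (abs_nonneg _).trans (hf 0 h0)
  set t : ℕ → ℝ := fun i => r / 16 * i with ht
  have hti : ∀ i < 16, t i ∈ Icc (0 : ℝ) r := by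
    intro i hi
    have h1 : (0 : ℝ) ≤ i := Nat.cast_nonneg i
    have h2 : (i : ℝ) ≤ 16 := by exact_mod_cast hi.le
    simp only [ht]
    constructor
    · positivity
    · have := mul_le_mul_of_nonneg_left h2 (by positivity : 0 ≤ r / 16)
      linarith
  have key := pts (δ := r / 16) (lam := Λ) h' (by linarith) (by positivity) (by linarith) hti
    (fun i hi => by simp only [ht]; push_cast; linarith) (fun i hi => hf _ (hti i hi)) h0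
  intro s hs k hk
  have h1 := gron h (hsub h0) hs key k hk
  refine h1.trans ?_
  have h2 : Real.exp (250 * |s - 0|) ≤ Real.exp 250 := by
    apply Real.exp_le_exp.2
    rw [sub_zero]
    have : |s| ≤ 1 := by
      rw [abs_le]; constructor <;> linarith [hs.1, hs.2, hsub h0 |>.1, hsub h0 |>.2]
    linarith
  have e : C4 * Λ / r ^ 4 = Real.exp 250 * (512 * Λ / (r / 16) ^ 4) := by
    unfold C4
    field_simp
  rw [e]
  exact mul_le_mul_of_nonneg_right h2 (by positivity)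

/-- **from a small box to the box `1/32`** -/
theorem Hs.ext32 (H : Hs e c w q a z0 ρ T) {z : ℝ} (hz : z0 ≤ z) (hz' : z ≤ z0 + ρ)
    {κ : ℝ → V3 → ℝ} (hκ : IsQ κ) {r Λ : ℝ} (hr : 0 < r) (hr1 : r ≤ 1 / 2000)
    (hC : ∀ X, |q z X| ≤ a → |pc e w T z X 0| ≤ 1 / 2 → |pc e w T z X 1| ≤ r →
      |pc e w T z X 2| ≤ r → |κ z X| ≤ Λ) : Cl e w q a T κ (C4 * (C4 * Λ / r ^ 4) / r ^ 4) z := by
  intro X hqX hX0 hX1 hX2
  have S := H.S
  have hw0 := S.pos 0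
  have hwne : ∀ k, w k ≠ 0 := fun k => (S.pos k).ne'
  obtain ⟨-, hTa⟩ := H.hT z hz hz'
  set s := q z X - q z (T.pos z) with hs
  have hsa : |s| ≤ 2 * a := (abs_sub _ _).trans (by linarith)
  have ha0 : 0 ≤ a := (abs_nonneg _).trans hqX
  obtain ⟨ψ, hψ, hal⟩ := H.graph hz hz' (s := s) (by linarith [H.ha])
  obtain ⟨V, ev, D1, D2, p0, hA, hev⟩ := hal κ hκ
  have hI1 : pc e w T z X 1 ∈ Ib := abs_le.1 hX1
  have hI2 : pc e w T z X 2 ∈ Ib := abs_le.1 hX2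
  have hrI : ∀ t ∈ Icc (0 : ℝ) r, t ∈ Ib ∧ |t| ≤ r := by
    intro t ht
    exact ⟨⟨by linarith [ht.1], by linarith [ht.2]⟩, by rw [abs_of_nonneg ht.1]; exact ht.2⟩
  have hM : ∀ x1, |x1| ≤ r → ∀ x2, |x2| ≤ r → |ev p0 x1 x2| ≤ Λ := by
    intro x1 h1 x2 h2
    have i1 : x1 ∈ Ib := abs_le.1 (h1.trans (by linarith))
    have i2 : x2 ∈ Ib := abs_le.1 (h2.trans (by linarith))
    obtain ⟨k1, k2, -, -, -⟩ := hψ x1 i1 x2 i2
    rw [hev]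
    refine hC _ ?_ ?_ ?_ ?_
    · rw [k2, hs]
      have : q z (T.pos z) + (q z X - q z (T.pos z)) = q z X := by ring
      rw [this]; exact hqX
    · rw [pc_cmb S.ortho hwne]; exact k1.trans (by norm_num)
    · rw [pc_cmb S.ortho hwne]; exact h1
    · rw [pc_cmb S.ortho hwne]; exact h2
  have hrow : ∀ x2 ∈ Icc (0 : ℝ) r, ∀ x1 ∈ Ib, |ev p0 x1 x2| ≤ C4 * Λ / r ^ 4 := by
    intro x2 h2 x1 h1
    obtain ⟨i2, a2⟩ := hrI x2 h2
    have := sys_grow (hA.row p0 x2 i2) (by norm_num) hr hr1 (by norm_num) (by linarith)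
      (fun t ht => hM t (hrI t ht).2 x2 a2) x1 h1 0 (by norm_num)
    exact this
  have hcol := sys_grow (hA.col p0 _ hI1) (by norm_num) hr hr1 (by norm_num) (by linarith)
    (fun t ht => hrow t ht _ hI1) _ hI2 0 (by norm_num)
  obtain ⟨-, -, -, k4, -⟩ := hψ _ hI1 _ hI2
  have eX := k4 X rfl rfl hX0 (by rw [hs]; ring)
  have e1 : ev p0 (pc e w T z X 1) (pc e w T z X 2) = κ z X := by
    rw [hev, ← eX]
  simp only [Function.iterate_zero, id_eq] at hcol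
  rw [e1] at hcol
  exact hcol

end Crest.Agent.R136.Crp705
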