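import Crest.Agent.R136.Crp3_705

/-!
# R136 (one-level crude tilt), helper705: the second sheet near the first one, at one height
-/

set_option autoImplicit false
set_option linter.unusedVariables false

namespace Crest.Agent.R136.Crp705

open Set Crest.Agent.R136.Sh605 Crest.Agent.R136.Tl102 Crest.Agent.R136.Crd705
open Crest.Agent.R136.Sa705 Crest.Agent.R136.Deep51

set_option maxHeartbeats 1600000 in
/-- **points of the second model near `T`** -/
theorem Mdl.near {Y : ℝ} (hY : 32 ≤ Y) {e : Fin 3 → V3} {c : Ln4} {w : V3} {q : ℝ → V3 → ℝ} {a : ℝ}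
    {W : V3} {Q : ℝ → V3 → ℝ} {A z1 ρ1 : ℝ} {T : Ln4} (M : Mdl Y e c w q a W Q A z1 ρ1 T)
    {e' : Fin 3 → V3} {c' : Ln4} {w' : V3} {q' : ℝ → V3 → ℝ} {a' : ℝ}
    {W' : V3} {Q' : ℝ → V3 → ℝ} {A' z2 ρ2 : ℝ} (M' : Mdl Y e' c' w' q' a' W' Q' A' z2 ρ2 T)
    {z : ℝ} (h1 : z1 ≤ z) (h1' : z ≤ z1 + ρ1) (h2 : z2 ≤ z) (h2' : z ≤ z2 + ρ2)
    {κ : ℝ → V3 → ℝ} (hκ : IsQ κ) {Λ : ℝ} (hC : Cl e W Q A T κ Λ z) (hC' : Cl e' W' Q' A' T κ Λ z)
    {f : Fin 3 → V3} (hf : Ortho f) {R : V3 → Prop} {G : V3} (hN : NL κ f R G z)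
    (hR : ∀ X, |Q z X| ≤ A → |pc e W T z X 0| ≤ 1 / 2 → |pc e W T z X 1| ≤ 1 / Y →
      |pc e W T z X 2| ≤ 1 / Y → R X)
    (hR' : ∀ X, |Q' z X| ≤ A' → |pc e' W' T z X 0| ≤ 1 / 2 → |pc e' W' T z X 1| ≤ 1 / Y →
      |pc e' W' T z X 2| ≤ 1 / Y → R X) (hΛ : Λ ≤ Y * a) (haa : a' ≤ Y * a)
    (hw1 : w' 1 ≤ Y * w 1) (hw2 : w' 2 ≤ Y * w 2) (hang : |dt (e 2) (e' 1)| * w' 1 ≤ Y * w 2)
    (hnt : 400 * CN * Y ^ 3 * a ≤ w 2) :
    ∀ X, |Q' z X| ≤ A' → |pc e' W' T z X 0| ≤ 1 / 2 → |pc e' W' T z X 1| ≤ 1 / (40 * Y ^ 2) →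
      |pc e' W' T z X 2| ≤ 1 / (40 * Y ^ 2) →
        |q z X| ≤ 10 ^ 10 * Y ^ 4 * a ∧ |dt (e 0) (X - T.pos z)| ≤ 8 * w 0 / Y + 8000 * Y ^ 2 * a := by
  intro X hX hX0 hX1 hX2
  have hY0 : 0 < Y := by linarith
  have a0 := M.a0
  have a0' := M'.a0
  have hw0 := M.tr.pos 0
  have hwp1 := M.tr.pos 1
  have hwp2 := M.tr.pos 2
  have hw0' := M'.tr.pos 0
  have hwp1' := M'.tr.pos 1
  have hwp2' := M'.tr.pos 2
  have hCN := one_le_CN
  have hY2 : 1024 ≤ Y ^ 2 := by nlinarith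
  have hnt' : 16 * Y ^ 3 * a ≤ w 2 := by
    have h3 : 16 * (Y ^ 3 * a) ≤ 400 * CN * (Y ^ 3 * a) :=
      mul_le_mul_of_nonneg_right (by linarith) (by positivity)
    linarith
  have hYa : Y * a ≤ Y ^ 3 * a := by
    have : Y * 1 ≤ Y * Y ^ 2 := mul_le_mul_of_nonneg_left (by linarith) hY0.le
    have h3 := mul_le_mul_of_nonneg_right this a0.le
    calc Y * a = Y * 1 * a := by ring
      _ ≤ Y * Y ^ 2 * a := h3
      _ = Y ^ 3 * a := by ring
  set r : ℝ := 1 / (40 * Y ^ 2) with hr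
  have hrp : 0 < r := by rw [hr]; positivity
  have hrY2 : Y ^ 2 * r = 1 / 40 := by rw [hr]; field_simp
  have hrY : Y * r = 1 / (40 * Y) := by rw [hr]; field_simp
  have hr32 : r ≤ 1 / 32 := by
    rw [hr, div_le_div_iff₀ (by positivity) (by norm_num)]; nlinarith
  have hrY' : r ≤ 1 / Y := by
    rw [hr, div_le_div_iff₀ (by positivity) hY0]; nlinarith
  set V := X - T.pos z with hV
  have hw0ne : ∀ k, W' k ≠ 0 := fun k => (M'.hs.S.pos k).ne'
  -- coordinates in the second frame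
  have d1 : |dt (e' 1) V| ≤ w' 1 * r := by
    have : |dt (e' 1) V / W' 1| ≤ r := hX1
    rw [M'.W1, abs_div, abs_of_pos hwp1', div_le_iff₀ hwp1'] at this
    linarith
  have d2 : |dt (e' 2) V| ≤ w' 2 * r := by
    have : |dt (e' 2) V / W' 2| ≤ r := hX2
    rw [M'.W2, abs_div, abs_of_pos hwp2', div_le_iff₀ hwp2'] at this
    linarith
  have d0 : |dt (e' 0) V| ≤ 8 * (Y ^ 2 * a) + 8 * (Y * r * w 2) := by
    have := M'.hs.off0 h2 h2' hX hX0 hX1 hX2 hr32
    have u1 : 4 * A' ≤ 8 * (Y ^ 2 * a) := by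
      have h3 := M'.A_le
      have h4 : Y * a' ≤ Y * (Y * a) := mul_le_mul_of_nonneg_left haa hY0.le
      have h5 : Y * (Y * a) = Y ^ 2 * a := by ring
      have h6 : 2 * Y * a' = 2 * (Y * a') := by ring
      linarith
    have u2 : 8 * W' 0 * r ≤ 8 * (Y * r * w 2) := by
      have h3 := mul_le_mul_of_nonneg_right (M'.W0.trans hw2) hrp.le
      have h4 : Y * w 2 * r = Y * r * w 2 := by ring
      have h5 : 8 * W' 0 * r = 8 * (W' 0 * r) := by ring
      linarith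
    linarith
  have d1' : |dt (e' 1) V| ≤ Y * r * w 1 := by
    have := mul_le_mul_of_nonneg_right hw1 hrp.le
    have h4 : Y * w 1 * r = Y * r * w 1 := by ring
    linarith
  have d2' : |dt (e' 2) V| ≤ Y * r * w 2 := by
    have := mul_le_mul_of_nonneg_right hw2 hrp.le
    have h4 : Y * w 2 * r = Y * r * w 2 := by ring
    linarith
  -- coordinates in the first frame
  have hYrw : Y * r * w 2 ≤ Y * r * w 1 := mul_le_mul_of_nonneg_left M.w21 (by positivity)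
  have key1 : 8 * (Y ^ 2 * a) ≤ w 2 / (2 * Y) := by
    rw [le_div_iff₀ (by positivity)]
    have : 8 * (Y ^ 2 * a) * (2 * Y) = 16 * Y ^ 3 * a := by ring
    linarith
  have key2 : ∀ x : ℝ, 0 ≤ x → 10 * (Y * r * x) ≤ x / (2 * Y) := by
    intro x hx
    rw [hrY, le_div_iff₀ (by positivity)]
    have : 10 * (1 / (40 * Y) * x) * (2 * Y) = x / 2 := by field_simp; ring
    rw [this]; linarith
  have f1 : |dt (e 1) V| ≤ w 1 / Y := by
    have h3 := le_N1 M.tr.ortho M'.tr.ortho 1 V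
    unfold N1 at h3
    have h4 := key2 (w 1) hwp1.le
    have h5 : w 2 / (2 * Y) ≤ w 1 / (2 * Y) := div_le_div_of_nonneg_right M.w21 (by positivity)
    have h6 : w 1 / (2 * Y) + w 1 / (2 * Y) = w 1 / Y := by field_simp; ring
    linarith
  have f2 : |dt (e 2) V| ≤ w 2 / Y := by
    have h3 := abs_dt_exp M.tr.ortho M'.tr.ortho 2 V
    have h4 := key2 (w 2) hwp2.le
    have h6 : w 2 / (2 * Y) + w 2 / (2 * Y) = w 2 / Y := by field_simp; ring
    have g0 := mul_le_of_le_one_left (abs_nonneg (dt (e' 0) V)) (abs_dt_unit M.tr.ortho M'.tr.ortho 2 0)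
    have g2 := mul_le_of_le_one_left (abs_nonneg (dt (e' 2) V)) (abs_dt_unit M.tr.ortho M'.tr.ortho 2 2)
    have g1 : |dt (e 2) (e' 1)| * |dt (e' 1) V| ≤ Y * r * w 2 := by
      have h7 := mul_le_mul_of_nonneg_left d1 (abs_nonneg (dt (e 2) (e' 1)))
      have h8 := mul_le_mul_of_nonneg_right hang hrp.le
      have h9 : |dt (e 2) (e' 1)| * (w' 1 * r) = |dt (e 2) (e' 1)| * w' 1 * r := by ring
      have h10 : Y * w 2 * r = Y * r * w 2 := by ring
      linarith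
    linarith
  have p1 : |pc e W T z X 1| ≤ 1 / Y := by
    have e1 : pc e W T z X 1 = dt (e 1) V / w 1 := by rw [← M.W1]; rfl
    rw [e1, abs_div, abs_of_pos hwp1, div_le_iff₀ hwp1]
    refine f1.trans (le_of_eq ?_); ring
  have p2 : |pc e W T z X 2| ≤ 1 / Y := by
    have e1 : pc e W T z X 2 = dt (e 2) V / w 2 := by rw [← M.W2]; rfl
    rw [e1, abs_div, abs_of_pos hwp2, div_le_iff₀ hwp2]
    refine f2.trans (le_of_eq ?_); ring
  have hYi : 1 / Y ≤ 1 / 32 := by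
    rw [div_le_div_iff₀ hY0 (by norm_num)]; linarith
  have hYi0 : 0 < 1 / Y := by positivity
  have hRX : R X := hR' X hX hX0 (hX1.trans hrY') (hX2.trans hrY')
  have hκX : |κ z X| ≤ Λ := hC' X hX hX0 (hX1.trans hr32) (hX2.trans hr32)
  have hΛ0 : 0 ≤ Λ := (abs_nonneg _).trans hκX
  have hG := M.hs.normal (by rw [M.W2]; exact M.W0) (by rw [M.W1, M.W2]; exact M.w21) h1 h1' hκ hC
    hf hN hYi0 hYi hR (by
      rw [M.W2]
      have h3 : CN * Λ ≤ CN * (Y * a) := mul_le_mul_of_nonneg_left hΛ (by linarith)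
      have h4 : CN * (Y * a) ≤ CN * (Y ^ 3 * a) := mul_le_mul_of_nonneg_left hYa (by linarith)
      have h5 : 0 ≤ CN * (Y ^ 3 * a) := by positivity
      linarith)
  obtain ⟨t1, t2⟩ := M.hs.transfer h1 h1' hC hf hN hYi hR hG hRX p1 p2 hκX
  have hW0 : a ≤ W 0 := M.aw.trans M.w0W
  have hW0p : 0 < W 0 := a0.trans_le hW0
  have hQ : |Q z X| ≤ 7000 * Y ^ 2 * a := by
    have u1 : 80 * Λ / W 0 ≤ 80 * Y := by
      rw [div_le_iff₀ hW0p]
      have := mul_le_mul_of_nonneg_left hW0 hY0.le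
      linarith
    have u2 : 80 * Λ * (2 + 80 * Λ / W 0) ≤ 80 * (Y * a) * (2 + 80 * Y) :=
      mul_le_mul (by linarith) (by linarith) (by positivity) (by positivity)
    have u3 : 2 * Y * a ≤ 2 * (Y ^ 2 * a) := by
      have : Y * a ≤ Y * (Y * a) := le_mul_of_one_le_left (by positivity) (by linarith)
      have h5 : Y * (Y * a) = Y ^ 2 * a := by ring
      have h6 : 2 * Y * a = 2 * (Y * a) := by ring
      linarith
    have u4 : 80 * (Y * a) * (2 + 80 * Y) = 160 * (Y * a) + 6400 * (Y ^ 2 * a) := by ring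
    have u5 : Y * a ≤ Y ^ 2 * a / 32 := by
      have : 32 * (Y * a) ≤ Y * (Y * a) := mul_le_mul_of_nonneg_right hY (by positivity)
      have h5 : Y * (Y * a) = Y ^ 2 * a := by ring
      linarith
    have u6 : 0 ≤ Y ^ 2 * a := by positivity
    have := M.A_le
    linarith
  have hAD : A ≤ 7000 * Y ^ 2 * a := by
    have := M.A_le
    have u5 : 32 * (Y * a) ≤ Y * (Y * a) := mul_le_mul_of_nonneg_right hY (by positivity)
    have h5 : Y * (Y * a) = Y ^ 2 * a := by ring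
    have h6 : 2 * Y * a = 2 * (Y * a) := by ring
    have h7 : 7000 * Y ^ 2 * a = 7000 * (Y ^ 2 * a) := by ring
    have h8 : 0 ≤ Y ^ 2 * a := by positivity
    linarith
  have q1 : |pc e w T z X 1| ≤ 1 := by
    have e1 : pc e w T z X 1 = pc e W T z X 1 := by simp only [pc, M.W1]
    rw [e1]; linarith
  have q2 : |pc e w T z X 2| ≤ 1 := by
    have e1 : pc e w T z X 2 = pc e W T z X 2 := by simp only [pc, M.W2]
    rw [e1]; linarith
  constructor
  · refine (M.back z X _ h1 h1' q1 q2 hAD hQ).trans ?_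
    rw [div_le_iff₀ a0]
    have e1 : 25 * (7000 * Y ^ 2 * a) ^ 2 = 1225000000 * (Y ^ 4 * a * a) := by ring
    have e2 : 10 ^ 10 * Y ^ 4 * a * a = 10000000000 * (Y ^ 4 * a * a) := by ring
    have e3 : 0 ≤ Y ^ 4 * a * a := by positivity
    rw [e1, e2]; linarith
  · have v1 : 0 ≤ 8 * w 0 / Y := by positivity
    have v2 : Y * a ≤ Y ^ 2 * a := by
      have := mul_le_mul_of_nonneg_right (by linarith : (1:ℝ) ≤ Y) (by positivity : 0 ≤ Y * a)
      have h5 : Y * (Y * a) = Y ^ 2 * a := by ring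
      linarith
    have v3 : 0 ≤ Y ^ 2 * a := by positivity
    rcases M.lin with h | h
    · rw [h] at t1
      have e1 : 8 * w 0 * (1 / Y) = 8 * w 0 / Y := by ring
      rw [e1] at t1
      linarith
    · have h3 := h z X h1 h1'
      have h4 := M.A_le
      linarith

end Crest.Agent.R136.Crp705
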