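import Crest.Agent.R136.Crp4_705
import Crest.Agent.R136.Crp1_880

/-!
# R136 (one-level crude tilt), helper705: closeness and coincidence at one height
-/

set_option autoImplicit false
set_option linter.unusedVariables false

namespace Crest.Agent.R136.Crp705

open Set Crest.Agent.R136.Sh605 Crest.Agent.R136.Tl102 Crest.Agent.R136.Crd705
open Crest.Agent.R136.Sa705 Crest.Agent.R136.Deep51

/-- linear functions around a line -/
theorem isQ_lin (f : V3) (T : Ln4) : IsQ fun z x => dt f (x - T.pos z) := by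
  refine ⟨-(f 0 * T.p 0 + f 1 * T.p 1 + f 2 * T.p 2), -(f 0 * T.v 0 + f 1 * T.v 1 + f 2 * T.v 2),
    0, f, 0, 0, fun z x => ?_⟩
  simp only [dt, Pi.sub_apply, Ln4.pos, Fin.sum_univ_three, Pi.zero_apply]
  ring

variable {Y : ℝ} {e' : Fin 3 → V3} {c' : Ln4} {w' : V3} {q' : ℝ → V3 → ℝ} {a' : ℝ}
    {W' : V3} {Q' : ℝ → V3 → ℝ} {A' z2 ρ2 : ℝ} {T : Ln4}

/-- **closeness on the box `1/8`** -/
theorem Mdl.close8 (M' : Mdl Y e' c' w' q' a' W' Q' A' z2 ρ2 T)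
    {z : ℝ} (h2 : z2 ≤ z) (h2' : z ≤ z2 + ρ2) {q : ℝ → V3 → ℝ} (hq : IsQ q) {r E : ℝ} (hr : 0 < r)
    (hr1 : r ≤ 1 / 2000)
    (hE : ∀ X, |Q' z X| ≤ A' → |pc e' W' T z X 0| ≤ 1 / 2 → |pc e' W' T z X 1| ≤ r →
      |pc e' W' T z X 2| ≤ r → |q z X| ≤ E) {X : V3} (hX : InK e' T (fun i => w' i / 8) z X)
    (hqX : |q' z X| ≤ a') : |q z X| ≤ 10 ^ 120 * E / r ^ 4 := by
  have hk : ∀ k, |dt (e' k) (X - T.pos z)| ≤ w' k / 8 := hX
  have hw0' := M'.tr.pos 0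
  have hwp1' := M'.tr.pos 1
  have hwp2' := M'.tr.pos 2
  have hW0 := M'.hs.S.pos 0
  have hQX : |Q' z X| ≤ A' := M'.mem z X h2 h2' hqX ((hk 0).trans (by linarith))
  have hpc : ∀ k, |pc e' W' T z X k| ≤ 1 / 8 := by
    intro k
    have e1 : pc e' W' T z X k = dt (e' k) (X - T.pos z) / W' k := rfl
    have hWk := M'.hs.S.pos k
    have hwW : w' k ≤ W' k := by
      fin_cases k
      · exact M'.w0W
      · exact M'.W1.ge
      · exact M'.W2.ge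
    rw [e1, abs_div, abs_of_pos hWk, div_le_iff₀ hWk]
    have := hk k
    linarith
  obtain ⟨ζ, hζ, hzz⟩ := exists_height M'.hs.hρ h2 h2'
  obtain ⟨γ, g1, g2, g3⟩ := Crp880.path M'.hs.S M'.hs.hρ.le M'.hs.hT
    (by have := M'.hs.ha; linarith) hζ (X := X) (by rw [hzz]; exact hQX) (by rw [hzz]; exact hpc)
  obtain ⟨f, hf0, hf⟩ := g3 q hq
  rw [hzz] at g2 hf0
  have h0 : ∀ t ∈ Icc (0 : ℝ) r, |f 0 t| ≤ E := by
    intro t ht
    have ht1 : t ∈ Icc (0 : ℝ) 1 := ⟨ht.1, ht.2.trans (by linarith)⟩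
    obtain ⟨k1, k2, k3, k4⟩ := g2 t ht1
    have hta : |t| ≤ r := by rw [abs_of_nonneg ht.1]; exact ht.2
    rw [hf0]
    refine hE _ ?_ k2 ?_ ?_
    · rw [k1]; exact hQX
    · rw [k3]
      have := mul_abs_le hta (hpc 1)
      linarith
    · rw [k4]
      have := mul_abs_le hta (hpc 2)
      linarith
  have h1 := Crp880.ext hf hr hr1 h0 0 (by norm_num) 1 ⟨zero_le_one, le_rfl⟩
  rw [hf0, g1] at h1
  exact h1

/-- constant of the coincidence -/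
noncomputable def CS : ℝ := 10 ^ 12 * CN * C4 ^ 2 * 40 ^ 8

theorem one_le_CS : 1 ≤ CS := by
  have h1 := one_le_CN
  have h2 := one_le_C4
  have h3 : 1 ≤ C4 ^ 2 := one_le_pow₀ h2
  unfold CS
  have h4 : 1 * 1 ≤ CN * C4 ^ 2 := mul_le_mul h1 h3 zero_le_one (by linarith)
  nlinarith

set_option maxHeartbeats 800000 in
/-- **coincidence** -/
theorem Mdl.coin (hY : 32 ≤ Y) {e : Fin 3 → V3} {c : Ln4} {w : V3} {q : ℝ → V3 → ℝ} {a z1 ρ1 : ℝ}
    (S : StP e c w q z1 ρ1) (hρ1 : 0 < ρ1) (hw02 : w 0 ≤ w 2) (hw21 : w 2 ≤ w 1) (ha : 0 < a)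
    (hT : InSheet T e c w q a z1 ρ1) (M' : Mdl Y e' c' w' q' a' W' Q' A' z2 ρ2 T)
    {z : ℝ} (h1 : z1 ≤ z) (h1' : z ≤ z1 + ρ1) (h2 : z2 ≤ z) (h2' : z ≤ z2 + ρ2)
    (hE : ∀ X, |Q' z X| ≤ A' → |pc e' W' T z X 0| ≤ 1 / 2 → |pc e' W' T z X 1| ≤ 1 / (40 * Y ^ 2) →
      |pc e' W' T z X 2| ≤ 1 / (40 * Y ^ 2) →
        |q z X| ≤ 10 ^ 10 * Y ^ 4 * a ∧ |dt (e 0) (X - T.pos z)| ≤ 8 * w 0 / Y + 8000 * Y ^ 2 * a)
    (hthin : 10 ^ 6 * (a + a') ≤ w 0) {s : ℝ} (hs0 : 0 ≤ s) (hs : CS * Y ^ 20 * s ≤ 1) {X : V3}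
    (hXK : InK e' c' w' z X) (hqX : |q' z X| ≤ a') (hX1 : |pc e' w' T z X 1| ≤ s)
    (hX2 : |pc e' w' T z X 2| ≤ s) :
    |dt (e 0) (X - T.pos z)| ≤ w 0 / 2 ∧ |q z X| ≤ 10 ^ 6 * (a + a') := by
  have hY0 : 0 < Y := by linarith
  have hY1 : 1 ≤ Y := by linarith
  have a0' := M'.a0
  have hw0 := S.pos 0
  have hw0' := M'.tr.pos 0
  have hwp1' := M'.tr.pos 1
  have hwp2' := M'.tr.pos 2
  have hW0 := M'.hs.S.pos 0
  have hC4 := one_le_C4
  have hCN := one_le_CN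
  have hCS := one_le_CS
  have hCNC : 1 ≤ CN * C4 ^ 2 := by
    have h3 : 1 ≤ C4 ^ 2 := one_le_pow₀ hC4
    have h4 : 1 * 1 ≤ CN * C4 ^ 2 := mul_le_mul hCN h3 zero_le_one (by linarith)
    linarith
  -- `s` is tiny
  have hY20 : 1 ≤ Y ^ 20 := one_le_pow₀ hY1
  have hsY : Y * s ≤ 1 / 1000 := by
    have t1 : Y ≤ Y ^ 20 := by
      calc Y = Y ^ 1 := (pow_one Y).symm
        _ ≤ Y ^ 20 := pow_le_pow_right₀ hY1 (by norm_num)
    have t2 : 1000 * (Y * s) ≤ CS * (Y ^ 20 * s) := by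
      have t3 : Y * s ≤ Y ^ 20 * s := mul_le_mul_of_nonneg_right t1 hs0
      have t4 : (1000 : ℝ) ≤ CS := by unfold CS; nlinarith
      exact mul_le_mul t4 t3 (by positivity) (by linarith)
    linarith
  have hs32 : s ≤ 1 / 32 := by
    have : 32 * s ≤ Y * s := mul_le_mul_of_nonneg_right hY hs0
    linarith
  -- membership in the model
  have hQX := M'.memK z X h2 h2' hqX hXK
  have hsh := M'.sharp z X s h2 h2' hXK hqX hX1 hX2 (by linarith)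
  obtain ⟨hTK', hTq'⟩ := M'.tT z h2 h2'
  have p1 : |pc e' W' T z X 1| ≤ s := by
    have e1 : pc e' W' T z X 1 = pc e' w' T z X 1 := by simp only [pc, M'.W1]
    rw [e1]; exact hX1
  have p2 : |pc e' W' T z X 2| ≤ s := by
    have e1 : pc e' W' T z X 2 = pc e' w' T z X 2 := by simp only [pc, M'.W2]
    rw [e1]; exact hX2
  have hA' : A' ≤ W' 0 / 1000 := by have := M'.hs.ha; linarith
  have p0 : |pc e' W' T z X 0| ≤ 1 / 2 := by
    have h3 := off M'.tr h2 h2' hXK hTK' hqX hTq'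
    have h4 : w' 0 / w' 1 * |dt (e' 1) (X - T.pos z)| ≤ w' 0 * s := by
      have e1 : |dt (e' 1) (X - T.pos z)| = w' 1 * |pc e' w' T z X 1| := by
        simp only [pc]; rw [abs_div, abs_of_pos hwp1', mul_div_cancel₀ _ hwp1'.ne']
      rw [e1, ← mul_assoc, div_mul_cancel₀ _ hwp1'.ne']
      exact mul_le_mul_of_nonneg_left hX1 hw0'.le
    have h5 : w' 0 / w' 2 * |dt (e' 2) (X - T.pos z)| ≤ w' 0 * s := by
      have e1 : |dt (e' 2) (X - T.pos z)| = w' 2 * |pc e' w' T z X 2| := by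
        simp only [pc]; rw [abs_div, abs_of_pos hwp2', mul_div_cancel₀ _ hwp2'.ne']
      rw [e1, ← mul_assoc, div_mul_cancel₀ _ hwp2'.ne']
      exact mul_le_mul_of_nonneg_left hX2 hw0'.le
    have e1 : pc e' W' T z X 0 = dt (e' 0) (X - T.pos z) / W' 0 := rfl
    rw [e1, abs_div, abs_of_pos hW0, div_le_iff₀ hW0]
    have h6 := M'.w0W
    have h7 := M'.aA
    have h8 : w' 0 * s ≤ W' 0 * (1 / 32) := mul_le_mul h6 hs32 hs0 hW0.le
    linarith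
  -- closeness on the box `1/32`
  set r : ℝ := 1 / (40 * Y ^ 2) with hr
  have hrp : 0 < r := by rw [hr]; positivity
  have hr1 : r ≤ 1 / 2000 := by
    rw [hr, div_le_div_iff₀ (by positivity) (by norm_num)]; nlinarith
  have hri : 1 / r = 40 * Y ^ 2 := by rw [hr, one_div_one_div]
  have hbig : ∀ Λ : ℝ, C4 * (C4 * Λ / r ^ 4) / r ^ 4 = C4 ^ 2 * 40 ^ 8 * Y ^ 16 * Λ := by
    intro Λ
    have e1 : C4 * (C4 * Λ / r ^ 4) / r ^ 4 = C4 ^ 2 * Λ * (1 / r) ^ 8 := by field_simp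
    rw [e1, hri]; ring
  have c1 := M'.hs.ext32 h2 h2' S.isQ hrp hr1 (fun X a1 a2 a3 a4 => (hE X a1 a2 a3 a4).1)
  have c2 := M'.hs.ext32 h2 h2' (isQ_lin (e 0) T) hrp hr1
    (fun X a1 a2 a3 a4 => (hE X a1 a2 a3 a4).2)
  rw [hbig] at c1 c2
  obtain ⟨τ, t1, t2⟩ := M'.hs.shrink h2 h2' S.isQ c1 hQX p0 p1 p2 hs32
  obtain ⟨τ', t1', t2'⟩ := M'.hs.shrink h2 h2' (isQ_lin (e 0) T) c2 hQX p0 p1 p2 hs32
  have hτ : |τ| ≤ 16 * a' := by linarith
  have hτ' : |τ'| ≤ 16 * a' := by linarith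
  have hKey : ∀ B : ℝ, 0 ≤ B → ∀ m : ℕ, m ≤ 20 → 10 ^ 12 * CN * C4 ^ 2 * 40 ^ 8 * (Y ^ m * B) * s ≤ B := by
    intro B hB m hm
    have u1 : Y ^ m ≤ Y ^ 20 := pow_le_pow_right₀ hY1 hm
    have u2 : CS * (Y ^ m * B) * s ≤ CS * (Y ^ 20 * B) * s := by gcongr
    have u3 : CS * (Y ^ 20 * B) * s = CS * Y ^ 20 * s * B := by ring
    have u4 : CS * Y ^ 20 * s * B ≤ 1 * B := mul_le_mul_of_nonneg_right hs hB
    have u5 : 10 ^ 12 * CN * C4 ^ 2 * 40 ^ 8 * (Y ^ m * B) * s = CS * (Y ^ m * B) * s := by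
      unfold CS; ring
    linarith
  constructor
  · -- the normal offset
    have e1 : dt (e 0) (T.pos z + τ' • e' 0 - T.pos z) = τ' * dt (e 0) (e' 0) := by
      rw [← dt_smul]; congr 1; ext i; simp only [Pi.add_apply, Pi.sub_apply]; ring
    have t3 : |dt (e 0) (X - T.pos z) - τ' * dt (e 0) (e' 0)| ≤
        4 * (CN * (C4 ^ 2 * 40 ^ 8 * Y ^ 16 * (8 * w 0 / Y + 8000 * Y ^ 2 * a))) * s := by
      have := t2'
      simp only [e1] at this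
      exact this
    have u1 : 8 * w 0 / Y + 8000 * Y ^ 2 * a ≤ Y ^ 2 * (8008 * w 0) := by
      have v1 : 8 * w 0 / Y ≤ 8 * w 0 := div_le_self (by linarith) hY1
      have v2 : a ≤ w 0 := by linarith
      have v3 : 1 ≤ Y ^ 2 := one_le_pow₀ hY1
      have v4 : 8 * w 0 ≤ Y ^ 2 * (8 * w 0) := le_mul_of_one_le_left (by linarith) v3
      have v5 : Y ^ 2 * a ≤ Y ^ 2 * w 0 := mul_le_mul_of_nonneg_left v2 (by positivity)
      linarith
    have u2 : 4 * (CN * (C4 ^ 2 * 40 ^ 8 * Y ^ 16 * (8 * w 0 / Y + 8000 * Y ^ 2 * a))) * s ≤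
        4 * (CN * (C4 ^ 2 * 40 ^ 8 * Y ^ 16 * (Y ^ 2 * (8008 * w 0)))) * s := by gcongr
    have u3 : 4 * (CN * (C4 ^ 2 * 40 ^ 8 * Y ^ 16 * (Y ^ 2 * (8008 * w 0)))) * s =
        32032 / 10 ^ 12 * (10 ^ 12 * CN * C4 ^ 2 * 40 ^ 8 * (Y ^ 18 * w 0) * s) := by ring
    have u4 := hKey (w 0) hw0.le 18 (by norm_num)
    have u5 : |τ' * dt (e 0) (e' 0)| ≤ 16 * a' := by
      rw [abs_mul]
      exact (mul_le_of_le_one_right (abs_nonneg _)
        (abs_dt_unit S.ortho M'.tr.ortho 0 0)).trans hτ'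
    have e2 : dt (e 0) (X - T.pos z) = (dt (e 0) (X - T.pos z) - τ' * dt (e 0) (e' 0)) +
      τ' * dt (e 0) (e' 0) := by ring
    rw [e2]
    refine (abs_add_le _ _).trans ?_
    rw [u3] at u2
    linarith
  · have u2 : 4 * (CN * (C4 ^ 2 * 40 ^ 8 * Y ^ 16 * (10 ^ 10 * Y ^ 4 * a))) * s =
        4 / 100 * (10 ^ 12 * CN * C4 ^ 2 * 40 ^ 8 * (Y ^ 20 * a) * s) := by ring
    have u4 := hKey a ha.le 20 le_rfl
    rw [u2] at t2
    have v1 := val_grow S hρ1 hT h1 h1' (T.pos z + τ • e' 0)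
    have hpk : ∀ k, w 0 ≤ w k → w 0 * |pc e w T z (T.pos z + τ • e' 0) k| ≤ 16 * a' ∧
        |pc e w T z (T.pos z + τ • e' 0) k| ≤ 1 / 1000 := by
      intro k hk
      have hwk := S.pos k
      have e1 : pc e w T z (T.pos z + τ • e' 0) k = τ * dt (e k) (e' 0) / w k := by
        simp only [pc]
        congr 1
        rw [← dt_smul]; congr 1; ext i; simp only [Pi.add_apply, Pi.sub_apply]; ring
      have h3 : |τ * dt (e k) (e' 0)| ≤ 16 * a' := by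
        rw [abs_mul]
        exact (mul_le_of_le_one_right (abs_nonneg _)
          (abs_dt_unit S.ortho M'.tr.ortho k 0)).trans hτ
      have h4 : |pc e w T z (T.pos z + τ • e' 0) k| ≤ 16 * a' / w 0 := by
        rw [e1, abs_div, abs_of_pos hwk]
        exact div_le_div₀ (by linarith) h3 hw0 hk
      refine ⟨?_, h4.trans ?_⟩
      · rw [le_div_iff₀ hw0] at h4; linarith
      · rw [div_le_iff₀ hw0]; linarith
    obtain ⟨k0, l0⟩ := hpk 0 le_rfl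
    obtain ⟨k1, l1⟩ := hpk 1 (hw02.trans hw21)
    obtain ⟨k2, l2⟩ := hpk 2 hw02
    set x0 := |pc e w T z (T.pos z + τ • e' 0) 0| with hx0
    set x1 := |pc e w T z (T.pos z + τ • e' 0) 1| with hx1
    set x2 := |pc e w T z (T.pos z + τ • e' 0) 2| with hx2
    have n0 : 0 ≤ x0 := abs_nonneg _
    have n1 : 0 ≤ x1 := abs_nonneg _
    have n2 : 0 ≤ x2 := abs_nonneg _
    have v2 : w 0 * (2 * (x0 + x1 + x2) + (x0 + x1 + x2) ^ 2) ≤ 3 * (48 * a') := by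
      have w1 : (x0 + x1 + x2) ^ 2 ≤ x0 + x1 + x2 := by
        have : (x0 + x1 + x2) ^ 2 = (x0 + x1 + x2) * (x0 + x1 + x2) := by ring
        rw [this]
        exact mul_le_of_le_one_left (by linarith) (by linarith)
      have w2 := mul_le_mul_of_nonneg_left w1 hw0.le
      have w3 : w 0 * (2 * (x0 + x1 + x2) + (x0 + x1 + x2) ^ 2) =
        2 * (w 0 * x0 + w 0 * x1 + w 0 * x2) + w 0 * (x0 + x1 + x2) ^ 2 := by ring
      have w4 : w 0 * (x0 + x1 + x2) = w 0 * x0 + w 0 * x1 + w 0 * x2 := by ring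
      linarith
    have hTq := (hT z h1 h1').2
    have e2 : q z X = (q z X - q z (T.pos z + τ • e' 0)) +
      (q z (T.pos z + τ • e' 0) - q z (T.pos z)) + q z (T.pos z) := by ring
    rw [e2]
    refine (abs_add_le _ _).trans ?_
    have h3 := abs_add_le (q z X - q z (T.pos z + τ • e' 0))
      (q z (T.pos z + τ • e' 0) - q z (T.pos z))
    linarith

end Crest.Agent.R136.Crp705
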