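import Crest.Agent.R136.Crp3_705

/-!
# R136 (one-level crude tilt), helper214: the constructor of `Mdl` (705's leaf (M1))
-/

set_option autoImplicit false
set_option linter.unusedVariables false

namespace Crest.Agent.R136.Crp705

open Set Crest.Agent.R136.Sh605 Crest.Agent.R136.Tl102 Crest.Agent.R136.Crd705
open Crest.Agent.R136.Sa705 Crest.Agent.R136.Deep51 Crest.Agent.R136.K4 Crest.Agent.R136.Cig705

/-- plank coordinate bound, multiplied out -/
theorem pc_mul {e : Fin 3 → V3} {w : V3} {T : Ln4} {z s : ℝ} {X : V3} {k : Fin 3} (hw : 0 < w k)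
    (h : |pc e w T z X k| ≤ s) : |dt (e k) (X - T.pos z)| ≤ w k * s := by
  have : |dt (e k) (X - T.pos z) / w k| ≤ s := h
  rw [abs_div, abs_of_pos hw, div_le_iff₀ hw] at this
  linarith

/-- **a mark and its model** -/
theorem Mdl.of_shN {Y : ℝ} (hY : 1000 ≤ Y) {S : Plk4} {T : Ln4} {z0 ρ r : ℝ}
    (hS : ShN S.e S.c S.w S.q S.a z0 ρ r) (ha : 0 < S.a) (hρ : 0 < ρ)
    (hT : InSheet T S.e S.c S.w S.q S.a z0 ρ) (hnt : 2000 * Y * S.a ≤ S.w 2) :
    Mdl Y S.e S.c S.w S.q S.a (mdW Y S) (mdQ Y S) (mdA Y S) z0 ρ T := by
  have hw0 : 0 < S.w 0 := ha.trans_le hS.a_le0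
  have SP := StP.of_shN hS hw0
  have hw2 := SP.pos 2
  have hw1 := SP.pos 1
  have hYa : S.a ≤ Y * S.a := le_mul_of_one_le_left ha.le (by linarith)
  have hYa0 : 0 < Y * S.a := by positivity
  have hsub : ∀ (z : ℝ) (X : V3), dt (S.e 0) (X - T.pos z) =
      dt (S.e 0) (X - S.c.pos z) - dt (S.e 0) (T.pos z - S.c.pos z) := by
    intro z X
    simp only [dt, Pi.sub_apply]; ring
  by_cases h : Y * S.a ≤ S.w 0
  · obtain ⟨e1, e2, e3⟩ := md_thick h
    rw [e1, e2, e3]
    exact
      { tr := SP
        w02 := hS.w0_le
        w21 := hS.w_le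
        a0 := ha
        aw := hS.a_le0
        tT := hT
        hs := ⟨SP, hρ, hT, by nlinarith⟩
        W1 := rfl
        W2 := rfl
        W0 := hS.w0_le
        w0W := le_rfl
        aA := le_rfl
        A_le := by nlinarith
        mem := fun z X _ _ h1 _ => h1
        memK := fun z X _ _ h1 _ => h1
        back := by
          intro z X D _ _ _ _ hD h1
          refine h1.trans ?_
          rw [le_div_iff₀ ha]
          nlinarith
        lin := Or.inl rfl
        sharp := by
          intro z X s hz hz' _ h1 _ _ _
          have h3 := (hT z hz hz').2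
          have h5 := abs_sub (S.q z X) (S.q z (T.pos z))
          linarith }
  · obtain ⟨e1, e2, e3⟩ := md_thin h
    rw [e1, e2, e3]
    push Not at h
    have hA : 0 < 2 * Y * S.a := by linarith
    have hAw : 2 * Y * S.a ≤ S.w 2 := by nlinarith
    have hwc : wcig S.w (2 * Y * S.a) = ![S.w 2, S.w 1, S.w 2] := by
      unfold wcig
      rw [max_eq_left hAw, max_eq_left (hAw.trans hS.w_le)]
    have hC := (cig_ShN0 hS.ortho S.c (w := S.w) (z0 := z0) (ρ := ρ) (r0 := r) hA
      (hS.r0_le.trans (by linarith)) hS.w_le).toN
    rw [hwc] at hC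
    have hIn := in_cig (A := 2 * Y * S.a) (by linarith) hS.w0_le hT
    rw [hwc] at hIn
    have hT0 : ∀ z, z0 ≤ z → z ≤ z0 + ρ → |dt (S.e 0) (T.pos z - S.c.pos z)| ≤ S.w 0 :=
      fun z h1 h2 => (hT z h1 h2).1 0
    exact
      { tr := SP
        w02 := hS.w0_le
        w21 := hS.w_le
        a0 := ha
        aw := hS.a_le0
        tT := hT
        hs := ⟨StP.of_shN hC (by show 0 < S.w 2; exact hw2), hρ, hIn, by
          show 1000 * (2 * Y * S.a) ≤ S.w 2
          linarith⟩
        W1 := rfl
        W2 := rfl
        W0 := by show S.w 2 ≤ S.w 2; exact le_rfl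
        w0W := by show S.w 0 ≤ S.w 2; exact hS.w0_le
        aA := by linarith
        A_le := le_rfl
        mem := by
          intro z X hz hz' _ h1
          have h2 := hT0 z hz hz'
          show |dt (S.e 0) (X - S.c.pos z)| ≤ 2 * Y * S.a
          have h3 : dt (S.e 0) (X - S.c.pos z) =
              dt (S.e 0) (X - T.pos z) + dt (S.e 0) (T.pos z - S.c.pos z) := by
            rw [hsub]; ring
          rw [h3]
          have h4 := abs_add_le (dt (S.e 0) (X - T.pos z)) (dt (S.e 0) (T.pos z - S.c.pos z))
          linarith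
        memK := by
          intro z X hz hz' _ h1
          show |dt (S.e 0) (X - S.c.pos z)| ≤ 2 * Y * S.a
          have := h1 0
          linarith
        back := by
          intro z X D hz hz' g1 g2 hD h1
          change |dt (S.e 0) (X - S.c.pos z)| ≤ D at h1
          have h2 := hT0 z hz hz'
          have h3 : |dt (S.e 0) (X - T.pos z)| ≤ 3 / 2 * D := by
            rw [hsub]
            have h4 := abs_sub (dt (S.e 0) (X - S.c.pos z)) (dt (S.e 0) (T.pos z - S.c.pos z))
            linarith
          have hD0 : 0 < D := by linarith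
          have hp : |pc S.e S.w T z X 0| ≤ 3 / 2 * D / S.w 0 := by
            show |dt (S.e 0) (X - T.pos z) / S.w 0| ≤ _
            rw [abs_div, abs_of_pos hw0]
            exact div_le_div_of_nonneg_right h3 hw0.le
          have h5 := val_grow SP hρ hT hz hz' X
          have h6 := (hT z hz hz').2
          set p := |pc S.e S.w T z X 0| + |pc S.e S.w T z X 1| + |pc S.e S.w T z X 2| with hpdef
          have hp0 : 0 ≤ p := by positivity
          have hDw : 2 ≤ D / S.w 0 := by
            rw [le_div_iff₀ hw0]; linarith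
          have hps : p ≤ 5 / 2 * (D / S.w 0) := by
            have : 3 / 2 * D / S.w 0 = 3 / 2 * (D / S.w 0) := by ring
            rw [this] at hp
            linarith
          set u := D / S.w 0 with hu
          have hu0 : 0 < u := by linarith
          have h7 : 2 * p + p ^ 2 ≤ 9 * u ^ 2 := by nlinarith
          have h8 : S.w 0 * (2 * p + p ^ 2) ≤ 9 * D ^ 2 / S.a := by
            have h9 := mul_le_mul_of_nonneg_left h7 hw0.le
            refine h9.trans ?_
            have h10 : S.w 0 * (9 * u ^ 2) = 9 * D ^ 2 / S.w 0 := by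
              rw [hu]; field_simp
            rw [h10]
            exact div_le_div_of_nonneg_left (by positivity) ha hS.a_le0
          have h11 : S.a ≤ D ^ 2 / S.a := by
            rw [le_div_iff₀ ha]; nlinarith
          have h12 : |S.q z X| ≤ |S.q z X - S.q z (T.pos z)| + |S.q z (T.pos z)| := by
            have := abs_add_le (S.q z X - S.q z (T.pos z)) (S.q z (T.pos z))
            rw [sub_add_cancel] at this
            exact this
          have h13 : 25 * D ^ 2 / S.a = 9 * D ^ 2 / S.a + D ^ 2 / S.a + 15 * D ^ 2 / S.a := by ring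
          have h14 : 0 ≤ 15 * D ^ 2 / S.a := by positivity
          rw [h13]
          linarith
        lin := by
          right
          intro z X hz hz'
          have h2 := hT0 z hz hz'
          show |dt (S.e 0) (X - T.pos z)| ≤ |dt (S.e 0) (X - S.c.pos z)| + 2 * Y * S.a
          rw [hsub]
          have h4 := abs_sub (dt (S.e 0) (X - S.c.pos z)) (dt (S.e 0) (T.pos z - S.c.pos z))
          linarith
        sharp := by
          intro z X s hz hz' hK h1 h2 h3 hYs
          have hs0 : 0 ≤ s := (abs_nonneg _).trans h2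
          have hws : S.w 0 * s ≤ S.a := by
            have g1 := mul_le_mul_of_nonneg_right h.le hs0
            have g2 := mul_le_mul_of_nonneg_left hYs ha.le
            linarith
          have h4 := off SP hz hz' hK (hT z hz hz').1 h1 (hT z hz hz').2
          have h5 := pc_mul hw1 h2
          have h6 := pc_mul hw2 h3
          show |dt (S.e 0) (X - S.c.pos z) - dt (S.e 0) (T.pos z - S.c.pos z)| ≤ _
          rw [← hsub]
          refine h4.trans ?_
          have h7 : S.w 0 / S.w 1 * |dt (S.e 1) (X - T.pos z)| ≤ S.w 0 * s := by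
            have := mul_le_mul_of_nonneg_left h5 (by positivity : 0 ≤ S.w 0 / S.w 1)
            refine this.trans (le_of_eq ?_)
            field_simp
          have h8 : S.w 0 / S.w 2 * |dt (S.e 2) (X - T.pos z)| ≤ S.w 0 * s := by
            have := mul_le_mul_of_nonneg_left h6 (by positivity : 0 ≤ S.w 0 / S.w 2)
            refine this.trans (le_of_eq ?_)
            field_simp
          linarith }

end Crest.Agent.R136.Crp705
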