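import Crest.Agent.R136.Crp5_705
import Crest.Agent.R136.Crq1_214
import Crest.Agent.R136.Asm1_102
import Crest.Agent.R136.Tlt1_51

/-!
# R136 (one-level crude tilt), helper705: the pair theorem

`crude_pair` : two marks through `T` whose models are close to a container near `T` agree at a
polynomial scale.
-/

set_option autoImplicit false
set_option linter.unusedVariables false

namespace Crest.Agent.R136.Crp705

open Set Crest.Agent.R136.Sh605 Crest.Agent.R136.Tl102 Crest.Agent.R136.Crd705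
open Crest.Agent.R136.Sa705 Crest.Agent.R136.Deep51 Crest.Agent.R136.K4
open Crest.Agent.R136.Tlt51 (Agree)

/-- coordinates of a box -/
theorem isQ_ell (f : Fin 3 → V3) (cK : Ln4) (j : Fin 3) : IsQ (ell f cK j) := isQ_lin (f j) cK

/-- **region of a thick container** -/
theorem region {e : Fin 3 → V3} {c : Ln4} {w : V3} {q : ℝ → V3 → ℝ} {a z0 ρ : ℝ} {T : Ln4}
    (H : Hs e c w q a z0 ρ T) {z : ℝ} (hz : z0 ≤ z) (hz' : z ≤ z0 + ρ) {f : Fin 3 → V3}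
    (hf : Ortho f) {cK : Ln4} {wK : V3} {Y : ℝ}
    (hC : ∀ j, Cl e w q a T (ell f cK j) (Y * wK j) z) (hwK : ∀ j, wK 0 ≤ wK j)
    (h0 : 0 < wK 0) (ha : 10 ^ 5 * a ≤ wK 0) {σ : ℝ} (hσ0 : 0 ≤ σ) (hσ1 : σ ≤ 1 / 32)
    (hσ : 10 ^ 5 * CN * Y * σ ≤ 1) : ∀ X, |q z X| ≤ a → |pc e w T z X 0| ≤ 1 / 2 →
      |pc e w T z X 1| ≤ σ → |pc e w T z X 2| ≤ σ → ∀ j, |dt (f j) (X - T.pos z)| ≤ 1 / 1600 * wK j := by
  intro X hqX hX0 hX1 hX2 j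
  obtain ⟨τ, t1, t2⟩ := H.shrink hz hz' (isQ_ell f cK j) (hC j) hqX hX0 hX1 hX2 hσ1
  have hTq := (H.hT z hz hz').2
  have h1 : |τ| ≤ 4 * a := by
    have := abs_sub (q z X) (q z (T.pos z))
    linarith
  have hwj : 0 < wK j := h0.trans_le (hwK j)
  have h2 : 4 * (CN * (Y * wK j)) * σ ≤ 4 / 10 ^ 5 * wK j := by
    have e1 : 4 * (CN * (Y * wK j)) * σ = 4 / 10 ^ 5 * (10 ^ 5 * CN * Y * σ * wK j) := by ring
    have := mul_le_mul_of_nonneg_right hσ hwj.le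
    rw [e1]; linarith
  have e2 : dt (f j) (X - T.pos z) = (ell f cK j z X - ell f cK j z (T.pos z + τ • e 0)) +
      τ * dt (f j) (e 0) := by
    simp only [ell]
    rw [← dt_smul]
    simp only [dt, Pi.sub_apply, Pi.add_apply]
    ring
  have h3 : |τ * dt (f j) (e 0)| ≤ 4 * a := by
    rw [abs_mul]
    exact (mul_le_of_le_one_right (abs_nonneg _) (abs_dt_unit hf H.S.ortho j 0)).trans h1
  rw [e2]
  refine (abs_add_le _ _).trans ?_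
  have := hwK j
  linarith

theorem Mdl.mono {Y Y' : ℝ} (hY : Y ≤ Y') (hY1 : 0 ≤ Y) {e : Fin 3 → V3} {c : Ln4} {w : V3} {q : ℝ → V3 → ℝ} {a : ℝ}
    {W : V3} {Q : ℝ → V3 → ℝ} {A z0 ρ : ℝ} {T : Ln4} (M : Mdl Y e c w q a W Q A z0 ρ T) :
    Mdl Y' e c w q a W Q A z0 ρ T where
  tr := M.tr
  w02 := M.w02
  w21 := M.w21
  a0 := M.a0
  aw := M.aw
  tT := M.tT
  hs := M.hs
  W1 := M.W1
  W2 := M.W2
  W0 := M.W0
  w0W := M.w0W
  aA := M.aA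
  A_le := M.A_le.trans (by have := mul_le_mul_of_nonneg_right hY M.a0.le; linarith)
  mem := M.mem
  memK := M.memK
  back := M.back
  lin := M.lin
  sharp := by
    intro z X s h1 h2 h3 h4 h5 h6 h7
    have hs : 0 ≤ s := (abs_nonneg _).trans h5
    exact M.sharp z X s h1 h2 h3 h4 h5 h6 ((mul_le_mul_of_nonneg_right hY hs).trans h7)

/-- the large parameter of the pair theorem -/
noncomputable def Yb (Y : ℝ) : ℝ := 10 ^ 5 * CN * Y ^ 2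

/-- closeness of both marks to the container -/
def KPair (Y : ℝ) (S S' K : Plk4) (T : Ln4) (z1 ρ1 z2 ρ2 : ℝ) : Prop :=
  (10 ^ 6 * Y ^ 2 * S.a ≤ K.w 0 ∧ KCl Y S T K.q (Y * S.a) z1 ρ1 ∧ KCl Y S' T K.q (Y * S.a) z2 ρ2 ∧
    ∀ j, KCl Y S T (ell K.e K.c j) (Y * K.w j) z1 ρ1 ∧
      KCl Y S' T (ell K.e K.c j) (Y * K.w j) z2 ρ2) ∨
  (KCl Y S T (ell K.e K.c 0) (Y * S.a) z1 ρ1 ∧ KCl Y S' T (ell K.e K.c 0) (Y * S.a) z2 ρ2)

/-- the hypotheses of the pair theorem -/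
structure PairH (Y : ℝ) (S S' K : Plk4) (T : Ln4) (z0 ρ z1 ρ1 z2 ρ2 z3 ρ3 r r' r'' : ℝ) : Prop where
  hY : 1000 ≤ Y
  sh : ShN S.e S.c S.w S.q S.a z1 ρ1 r
  sh' : ShN S'.e S'.c S'.w S'.q S'.a z2 ρ2 r'
  shK : ShN K.e K.c K.w K.q K.a z3 ρ3 r''
  kp : 0 < K.w 0
  ap : 0 < S.a
  ap' : 0 < S'.a
  rp1 : 0 < ρ1
  rp2 : 0 < ρ2
  rp3 : 0 < ρ3
  c1 : z1 ≤ z0 ∧ z0 + ρ ≤ z1 + ρ1
  c2 : z2 ≤ z0 ∧ z0 + ρ ≤ z2 + ρ2
  c3 : z3 ≤ z0 ∧ z0 + ρ ≤ z3 + ρ3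
  T1 : InSheet T S.e S.c S.w S.q S.a z1 ρ1
  T2 : InSheet T S'.e S'.c S'.w S'.q S'.a z2 ρ2
  T3 : InSheet T K.e K.c K.w K.q K.a z3 ρ3
  aa : S.a ≤ Y * S'.a
  aa' : S'.a ≤ Y * S.a
  ww : ∀ k, k ≠ 0 → S.w k ≤ Y * S'.w k
  ww' : ∀ k, k ≠ 0 → S'.w k ≤ Y * S.w k
  ang : angC S S' * S.w 1 ≤ Y * S.w 2
  ang' : angC S S' * S'.w 1 ≤ Y * S'.w 2
  close : KPair Y S S' K T z1 ρ1 z2 ρ2
  nt : 400 * CN * Yb Y ^ 4 * S.a ≤ S.w 2

theorem Yb_ge {Y : ℝ} (hY : 1000 ≤ Y) : Y ^ 2 ≤ Yb Y ∧ 10 ^ 5 * CN * Y ≤ Yb Y ∧ Y ≤ Yb Y ∧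
    32 ≤ Yb Y := by
  have hC := one_le_CN
  have hY2 : 0 ≤ Y ^ 2 := by positivity
  have h0 : Y ≤ Y ^ 2 := by nlinarith
  have h1 : Y ^ 2 ≤ Yb Y := by
    unfold Yb
    have : 1 * Y ^ 2 ≤ 10 ^ 5 * CN * Y ^ 2 := mul_le_mul_of_nonneg_right (by linarith) hY2
    linarith
  have h2 : 10 ^ 5 * CN * Y ≤ Yb Y := by
    unfold Yb
    exact mul_le_mul_of_nonneg_left h0 (by positivity)
  exact ⟨h1, h2, h0.trans h1, by linarith⟩

/-- the core, with `S` as target -/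
theorem PairH.near {Y : ℝ} {S S' K : Plk4} {T : Ln4} {z0 ρ z1 ρ1 z2 ρ2 z3 ρ3 r r' r'' : ℝ}
    (H : PairH Y S S' K T z0 ρ z1 ρ1 z2 ρ2 z3 ρ3 r r' r'') :
    Mdl (Yb Y) S.e S.c S.w S.q S.a (mdW Y S) (mdQ Y S) (mdA Y S) z1 ρ1 T ∧
    Mdl (Yb Y) S'.e S'.c S'.w S'.q S'.a (mdW Y S') (mdQ Y S') (mdA Y S') z2 ρ2 T ∧
    (∀ z, z0 ≤ z → z ≤ z0 + ρ → ∀ X, |mdQ Y S' z X| ≤ mdA Y S' →
      |pc S'.e (mdW Y S') T z X 0| ≤ 1 / 2 → |pc S'.e (mdW Y S') T z X 1| ≤ 1 / (40 * Yb Y ^ 2) →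
      |pc S'.e (mdW Y S') T z X 2| ≤ 1 / (40 * Yb Y ^ 2) → |S.q z X| ≤ 10 ^ 10 * Yb Y ^ 4 * S.a ∧
        |dt (S.e 0) (X - T.pos z)| ≤ 8 * S.w 0 / Yb Y + 8000 * Yb Y ^ 2 * S.a) ∧
    (∀ z, z0 ≤ z → z ≤ z0 + ρ → ∀ X, |mdQ Y S z X| ≤ mdA Y S →
      |pc S.e (mdW Y S) T z X 0| ≤ 1 / 2 → |pc S.e (mdW Y S) T z X 1| ≤ 1 / (40 * Yb Y ^ 2) →
      |pc S.e (mdW Y S) T z X 2| ≤ 1 / (40 * Yb Y ^ 2) → |S'.q z X| ≤ 10 ^ 10 * Yb Y ^ 4 * S'.a ∧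
        |dt (S'.e 0) (X - T.pos z)| ≤ 8 * S'.w 0 / Yb Y + 8000 * Yb Y ^ 2 * S'.a) := by
  have hY := H.hY
  have hYp : 0 < Y := by linarith
  obtain ⟨y1, y2, y3, y4⟩ := Yb_ge hY
  have hCN := one_le_CN
  have ha := H.ap
  have ha' := H.ap'
  have hYb : 0 < Yb Y := by linarith
  have hYb1 : 1 ≤ Yb Y := by linarith
  have p0 : 0 ≤ Yb Y ^ 3 := by positivity
  -- numbers
  have n1 : 400 * CN * Yb Y ^ 3 * S.a ≤ S.w 2 := by
    have h1 : Yb Y ^ 3 ≤ Yb Y ^ 4 := pow_le_pow_right₀ hYb1 (by norm_num)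
    have h2 : 400 * CN * Yb Y ^ 3 * S.a ≤ 400 * CN * Yb Y ^ 4 * S.a := by gcongr
    exact h2.trans H.nt
  have n2 : 400 * CN * Yb Y ^ 3 * S'.a ≤ S'.w 2 := by
    have h1 := H.ww 2 (by decide)
    have h2 : Y * (400 * CN * Yb Y ^ 3 * S'.a) ≤ Y * S'.w 2 := by
      refine le_trans ?_ (H.nt.trans h1)
      have h3 : Y * (400 * CN * Yb Y ^ 3 * S'.a) ≤ Y * (400 * CN * Yb Y ^ 3 * (Y * S.a)) := by
        have := H.aa'
        gcongr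
      have h4 : Y * (400 * CN * Yb Y ^ 3 * (Y * S.a)) = 400 * CN * (Y ^ 2 * Yb Y ^ 3) * S.a := by ring
      have h5 : Y ^ 2 * Yb Y ^ 3 ≤ Yb Y * Yb Y ^ 3 := mul_le_mul_of_nonneg_right y1 p0
      have h6 : Yb Y * Yb Y ^ 3 = Yb Y ^ 4 := by ring
      rw [h6] at h5
      have h7 : 400 * CN * (Y ^ 2 * Yb Y ^ 3) * S.a ≤ 400 * CN * Yb Y ^ 4 * S.a := by gcongr
      linarith
    exact le_of_mul_le_mul_left h2 hYp
  have n3 : 2000 * Y ≤ 400 * CN * Yb Y ^ 3 := by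
    have h1 : Yb Y ≤ Yb Y ^ 3 := by
      calc Yb Y = Yb Y ^ 1 := (pow_one _).symm
        _ ≤ Yb Y ^ 3 := pow_le_pow_right₀ hYb1 (by norm_num)
    have h2 : 1 * Yb Y ^ 3 ≤ CN * Yb Y ^ 3 := mul_le_mul_of_nonneg_right hCN p0
    have h3 : 10 ^ 5 * 1 * Y ≤ 10 ^ 5 * CN * Y := by gcongr
    linarith
  have M1 := (Mdl.of_shN hY H.sh ha H.rp1 H.T1 (by
    have := mul_le_mul_of_nonneg_right n3 ha.le
    linarith)).mono y3 hYp.le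
  have M2 := (Mdl.of_shN hY H.sh' ha' H.rp2 H.T2 (by
    have := mul_le_mul_of_nonneg_right n3 ha'.le
    linarith)).mono y3 hYp.le
  have hA1 : mdA Y S ≤ 2 * Y * S.a := by
    by_cases h : Y * S.a ≤ S.w 0
    · rw [(md_thick h).2.2]
      have := mul_le_mul_of_nonneg_right (by linarith : (1:ℝ) ≤ 2 * Y) ha.le
      linarith
    · rw [(md_thin h).2.2]
  have hA2 : mdA Y S' ≤ 2 * Y ^ 2 * S.a := by
    have h2 : 2 * Y * S'.a ≤ 2 * Y ^ 2 * S.a := by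
      have := mul_le_mul_of_nonneg_left H.aa' (by linarith : 0 ≤ 2 * Y)
      have e1 : 2 * Y ^ 2 * S.a = 2 * Y * (Y * S.a) := by ring
      rw [e1]; exact this
    by_cases h : Y * S'.a ≤ S'.w 0
    · rw [(md_thick h).2.2]
      have := mul_le_mul_of_nonneg_right (by linarith : (1:ℝ) ≤ 2 * Y) ha'.le
      linarith
    · rw [(md_thin h).2.2]; exact h2
  have hYi : 0 < 1 / Yb Y := by positivity
  have hYi' : 1 / Yb Y ≤ 1 / 32 := by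
    rw [div_le_div_iff₀ hYb (by norm_num)]; linarith
  have hσ : 10 ^ 5 * CN * Y * (1 / Yb Y) ≤ 1 := by
    rw [mul_one_div, div_le_one hYb]; exact y2
  have hw02 : K.w 0 ≤ K.w 2 := H.shK.w0_le
  have hw21 : K.w 2 ≤ K.w 1 := H.shK.w_le
  have hwK : ∀ j, K.w 0 ≤ K.w j := by
    intro j; fin_cases j
    · exact le_rfl
    · exact hw02.trans hw21
    · exact hw02
  -- the data of the container at one height
  have main : ∀ z, z0 ≤ z → z ≤ z0 + ρ → ∃ (κ : ℝ → V3 → ℝ) (R : V3 → Prop) (G : V3), IsQ κ ∧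
      NL κ K.e R G z ∧ Cl S.e (mdW Y S) (mdQ Y S) (mdA Y S) T κ (Y * S.a) z ∧
      Cl S'.e (mdW Y S') (mdQ Y S') (mdA Y S') T κ (Y * S.a) z ∧
      (∀ X, |mdQ Y S z X| ≤ mdA Y S → |pc S.e (mdW Y S) T z X 0| ≤ 1 / 2 →
        |pc S.e (mdW Y S) T z X 1| ≤ 1 / Yb Y → |pc S.e (mdW Y S) T z X 2| ≤ 1 / Yb Y → R X) ∧
      (∀ X, |mdQ Y S' z X| ≤ mdA Y S' → |pc S'.e (mdW Y S') T z X 0| ≤ 1 / 2 →
        |pc S'.e (mdW Y S') T z X 1| ≤ 1 / Yb Y → |pc S'.e (mdW Y S') T z X 2| ≤ 1 / Yb Y → R X) := by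
    intro z hz hz'
    have g1 := H.c1.1.trans hz
    have g1' := hz'.trans H.c1.2
    have g2 := H.c2.1.trans hz
    have g2' := hz'.trans H.c2.2
    have g3 := H.c3.1.trans hz
    have g3' := hz'.trans H.c3.2
    rcases H.close with ⟨hth, k1, k2, k3⟩ | ⟨k1, k2⟩
    · obtain ⟨G, hN⟩ := NL.of_chart (StP.of_shN H.shK H.kp) H.rp3 H.T3 hw02 hw21 g3 g3'
      refine ⟨K.q, _, G, H.shK.isQ, hN, k1 z g1 g1', k2 z g2 g2', ?_, ?_⟩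
      · exact region M1.hs g1 g1' H.shK.ortho (fun j => (k3 j).1 z g1 g1') hwK H.kp (by
          have h1 : 2 * Y * S.a ≤ 2 * Y ^ 2 * S.a := by
            have h0 : Y ≤ Y ^ 2 := by nlinarith
            have := mul_le_mul_of_nonneg_right h0 ha.le
            linarith
          have e1 : 10 ^ 6 * Y ^ 2 * S.a = 5 * 10 ^ 5 * (2 * Y ^ 2 * S.a) := by ring
          have h3 : 0 ≤ 2 * Y ^ 2 * S.a := by positivity
          linarith) hYi.le hYi' hσ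
      · exact region M2.hs g2 g2' H.shK.ortho (fun j => (k3 j).2 z g2 g2') hwK H.kp (by
          have e1 : 10 ^ 6 * Y ^ 2 * S.a = 5 * 10 ^ 5 * (2 * Y ^ 2 * S.a) := by ring
          have h3 : 0 ≤ 2 * Y ^ 2 * S.a := by positivity
          linarith) hYi.le hYi' hσ
    · exact ⟨ell K.e K.c 0, fun _ => True, K.e 0, isQ_ell _ _ _, NL.of_lin H.shK.ortho K.c z,
        k1 z g1 g1', k2 z g2 g2', fun _ _ _ _ _ => trivial, fun _ _ _ _ _ => trivial⟩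
  have e21 : |dt (S.e 2) (S'.e 1)| ≤ angC S S' := (le_max_right _ _).trans (le_max_right _ _)
  have e12 : |dt (S'.e 2) (S.e 1)| ≤ angC S S' := by
    rw [dt_comm]; exact (le_max_right _ _).trans (le_max_left _ _)
  have wp1 : 0 < S.w 1 := M1.tr.pos 1
  have wp1' : 0 < S'.w 1 := M2.tr.pos 1
  have wp2 : 0 < S.w 2 := M1.tr.pos 2
  have wp2' : 0 < S'.w 2 := M2.tr.pos 2
  have hYY : ∀ x : ℝ, 0 ≤ x → Y * (Y * x) ≤ Yb Y * x := by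
    intro x hx
    have := mul_le_mul_of_nonneg_right y1 hx
    calc Y * (Y * x) = Y ^ 2 * x := by ring
      _ ≤ _ := this
  have hY1 : ∀ x : ℝ, 0 ≤ x → Y * x ≤ Yb Y * x := fun x hx => mul_le_mul_of_nonneg_right y3 hx
  refine ⟨M1, M2, fun z hz hz' => ?_, fun z hz hz' => ?_⟩
  · obtain ⟨κ, R, G, q1, q2, q3, q4, q5, q6⟩ := main z hz hz'
    refine Mdl.near y4 M1 M2 (H.c1.1.trans hz) (hz'.trans H.c1.2) (H.c2.1.trans hz)
      (hz'.trans H.c2.2) q1 q3 q4 H.shK.ortho q2 q5 q6 (hY1 _ ha.le) (H.aa'.trans (hY1 _ ha.le))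
      ((H.ww' 1 (by decide)).trans (hY1 _ wp1.le)) ((H.ww' 2 (by decide)).trans (hY1 _ wp2.le)) ?_ n1
    have h1 := mul_le_mul_of_nonneg_right e21 wp1'.le
    have h2 := mul_le_mul_of_nonneg_left (H.ww' 2 (by decide)) hYp.le
    have h3 := hYY _ wp2.le
    linarith [H.ang']
  · obtain ⟨κ, R, G, q1, q2, q3, q4, q5, q6⟩ := main z hz hz'
    refine Mdl.near y4 M2 M1 (H.c2.1.trans hz) (hz'.trans H.c2.2) (H.c1.1.trans hz)
      (hz'.trans H.c1.2) q1 q4 q3 H.shK.ortho q2 q6 q5 ?_ (H.aa.trans (hY1 _ ha'.le))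
      ((H.ww 1 (by decide)).trans (hY1 _ wp1'.le)) ((H.ww 2 (by decide)).trans (hY1 _ wp2'.le)) ?_ n2
    · have h2 := mul_le_mul_of_nonneg_left H.aa hYp.le
      exact h2.trans (hYY _ ha'.le)
    · have h1 := mul_le_mul_of_nonneg_right e12 wp1.le
      have h2 := mul_le_mul_of_nonneg_left (H.ww 2 (by decide)) hYp.le
      have h3 := hYY _ wp2'.le
      linarith [H.ang]

/-- **the pair theorem** -/
theorem crude_pair {Y : ℝ} {S S' K : Plk4} {T : Ln4} {z0 ρ z1 ρ1 z2 ρ2 z3 ρ3 r r' r'' : ℝ}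
    (H : PairH Y S S' K T z0 ρ z1 ρ1 z2 ρ2 z3 ρ3 r r' r'') (hthin : 10 ^ 6 * (S.a + S'.a) ≤ S.w 0)
    {E s lam : ℝ} (hE : 10 ^ 137 * Yb Y ^ 12 * (S.a + S'.a) ≤ E) (hs0 : 0 ≤ s)
    (hs : CS * Yb Y ^ 21 * s ≤ 1) (hlam : 1 ≤ lam) :
    Agree (10 ^ 6 * (S.a + S'.a)) E s lam S S' T z0 ρ := by
  obtain ⟨M1, M2, N1, N2⟩ := H.near
  obtain ⟨y1, y2, y3, y4⟩ := Yb_ge H.hY
  have hYp : 0 < Y := by linarith [H.hY]
  have hYb : 0 < Yb Y := by linarith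
  have ha := H.ap
  have ha' := H.ap'
  set r0 : ℝ := 1 / (40 * Yb Y ^ 2) with hr0
  have hrp : 0 < r0 := by positivity
  have hr1 : r0 ≤ 1 / 2000 := by
    rw [hr0, div_le_div_iff₀ (by positivity) (by norm_num)]; nlinarith
  have hri : 1 / r0 = 40 * Yb Y ^ 2 := by rw [hr0, one_div_one_div]
  have hnum : ∀ x : ℝ, 0 ≤ x → 10 ^ 120 * (10 ^ 10 * Yb Y ^ 4 * x) / r0 ^ 4 ≤
      10 ^ 137 * Yb Y ^ 12 * x := by
    intro x hx
    have e1 : 10 ^ 120 * (10 ^ 10 * Yb Y ^ 4 * x) / r0 ^ 4 =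
        10 ^ 130 * Yb Y ^ 4 * x * (1 / r0) ^ 4 := by field_simp
    rw [e1, hri]
    have e2 : 10 ^ 130 * Yb Y ^ 4 * x * (40 * Yb Y ^ 2) ^ 4 =
        (10 ^ 130 * 2560000) * (Yb Y ^ 12 * x) := by ring
    rw [e2, mul_assoc (10 ^ 137)]
    exact mul_le_mul_of_nonneg_right (by norm_num) (by positivity)
  have wp1 : 0 < S.w 1 := M1.tr.pos 1
  have wp2 : 0 < S.w 2 := M1.tr.pos 2
  have wp1' : 0 < S'.w 1 := M2.tr.pos 1
  have wp2' : 0 < S'.w 2 := M2.tr.pos 2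
  have hpa : 0 ≤ 10 ^ 137 * Yb Y ^ 12 * S.a := by positivity
  have hpa' : 0 ≤ 10 ^ 137 * Yb Y ^ 12 * S'.a := by positivity
  refine ⟨?_, ?_, ?_⟩
  · -- coincidence
    intro z hz hz' X hXK hqX h1 h2
    have hsY : 0 ≤ Y * s := mul_nonneg hYp.le hs0
    have hsY' : CS * Yb Y ^ 20 * (Y * s) ≤ 1 := by
      have h3 : Y * s ≤ Yb Y * s := mul_le_mul_of_nonneg_right y3 hs0
      have hCS := one_le_CS
      have h4 : CS * Yb Y ^ 20 * (Y * s) ≤ CS * Yb Y ^ 20 * (Yb Y * s) := by gcongr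
      have e1 : CS * Yb Y ^ 20 * (Yb Y * s) = CS * Yb Y ^ 21 * s := by ring
      linarith
    refine M2.coin y4 M1.tr H.rp1 H.sh.w0_le H.sh.w_le ha H.T1 (H.c1.1.trans hz) (hz'.trans H.c1.2)
      (H.c2.1.trans hz) (hz'.trans H.c2.2) (N1 z hz hz') hthin hsY hsY' hXK hqX ?_ ?_
    · have e1 : pc S'.e S'.w T z X 1 = dt (S'.e 1) (X - T.pos z) / S'.w 1 := rfl
      rw [e1, abs_div, abs_of_pos wp1', div_le_iff₀ wp1']
      have h3 : s / lam * S.w 1 ≤ s * S.w 1 :=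
        mul_le_mul_of_nonneg_right (div_le_self hs0 hlam) wp1.le
      have h4 := mul_le_mul_of_nonneg_left (H.ww 1 (by decide)) hs0
      calc _ ≤ s / lam * S.w 1 := h1
        _ ≤ s * (Y * S'.w 1) := h3.trans h4
        _ = Y * s * S'.w 1 := by ring
    · have e1 : pc S'.e S'.w T z X 2 = dt (S'.e 2) (X - T.pos z) / S'.w 2 := rfl
      rw [e1, abs_div, abs_of_pos wp2', div_le_iff₀ wp2']
      have h4 := mul_le_mul_of_nonneg_left (H.ww 2 (by decide)) hs0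
      calc _ ≤ s * S.w 2 := h2
        _ ≤ s * (Y * S'.w 2) := h4
        _ = Y * s * S'.w 2 := by ring
  · -- closeness `S → S'`
    intro z hz hz' X hX hqX
    have h1 := M1.close8 (H.c1.1.trans hz) (hz'.trans H.c1.2) M2.tr.isQ hrp hr1
      (fun X a1 a2 a3 a4 => (N2 z hz hz' X a1 a2 a3 a4).1) hX hqX
    have h2 := hnum S'.a ha'.le
    have h3 : 10 ^ 137 * Yb Y ^ 12 * (S.a + S'.a) =
      10 ^ 137 * Yb Y ^ 12 * S.a + 10 ^ 137 * Yb Y ^ 12 * S'.a := by ring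
    linarith
  · intro z hz hz' X hX hqX
    have h1 := M2.close8 (H.c2.1.trans hz) (hz'.trans H.c2.2) M1.tr.isQ hrp hr1
      (fun X a1 a2 a3 a4 => (N1 z hz hz' X a1 a2 a3 a4).1) hX hqX
    have h2 := hnum S.a ha.le
    have h3 : 10 ^ 137 * Yb Y ^ 12 * (S.a + S'.a) =
      10 ^ 137 * Yb Y ^ 12 * S.a + 10 ^ 137 * Yb Y ^ 12 * S'.a := by ring
    linarith

end Crest.Agent.R136.Crp705
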