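import Mathlib

/-!
# R136 / U4 PLAN 2: crossing lemma for two systems of planks (helper113)

Every class is a pair of affine functions on the `(z, x)`-plane: `Y` (narrow coordinate) and `Th`
(thickness).  `Af` : affine functions, `Adj` : a class of the first and one of the second system
contain a common line with trace `x = A + V z`; `slp` : slope of the 3-space spanned by both.

* `Adj.span` : `Th' - Th = k (Y' - Y) + O(e)`.
* `cross` : if `T = S ∩ v`, `T' = S ∩ v'` cross at `O` and `S₂` is adjacent to `v` and `v'`, then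
  `|k_T - k_T'| ≤ C e / τ` or the line `S₂ ∩ v` passes within `τ` of `O`.
-/

set_option autoImplicit false
set_option linter.unusedVariables false

namespace Crest.Agent.R136.Crx113

noncomputable section

/-- affine function `(z, x) ↦ a x + b + c z` -/
structure Af where
  a : ℝ
  b : ℝ
  c : ℝ

namespace Af

/-- value -/
def ev (f : Af) (z x : ℝ) : ℝ := f.a * x + f.b + f.c * z

/-- difference -/
def sub (f g : Af) : Af := ⟨f.a - g.a, f.b - g.b, f.c - g.c⟩

theorem ev_sub (f g : Af) (z x : ℝ) : (f.sub g).ev z x = f.ev z x - g.ev z x := by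
  unfold Af.sub Af.ev; ring

end Af

/-- a class: narrow coordinate and thickness as affine functions of `(z, x)` -/
structure Cl where
  Y : Af
  Th : Af

/-- the classes `S`, `v` contain a common line with trace `x = A + V z`: on the trace the narrow
coordinates differ by at most `δ`, the thickness coordinates by at most `e`; long axes transversal. -/
structure Adj (μ δ e : ℝ) (S v : Cl) (A V : ℝ) : Prop where
  m : μ ≤ |v.Y.a - S.Y.a|
  y0 : |v.Y.ev 0 A - S.Y.ev 0 A| ≤ δ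
  y1 : |v.Y.ev 1 (A + V) - S.Y.ev 1 (A + V)| ≤ δ
  t0 : |v.Th.ev 0 A - S.Th.ev 0 A| ≤ e
  t1 : |v.Th.ev 1 (A + V) - S.Th.ev 1 (A + V)| ≤ e
  k : |v.Th.a - S.Th.a| * δ ≤ e * |v.Y.a - S.Y.a|

/-- slope of the span -/
def slp (S v : Cl) : ℝ := (v.Th.a - S.Th.a) / (v.Y.a - S.Y.a)

variable {μ δ e : ℝ} {S v : Cl} {A V : ℝ}

theorem Adj.ne (h : Adj μ δ e S v A V) (hμ : 0 < μ) : v.Y.a - S.Y.a ≠ 0 := by
  intro h0
  have := h.m
  rw [h0, abs_zero] at this
  linarith

theorem Adj.slp_le (h : Adj μ δ e S v A V) (hμ : 0 < μ) : |slp S v| * δ ≤ e := by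
  have h0 : 0 < |v.Y.a - S.Y.a| := lt_of_lt_of_le hμ h.m
  unfold slp
  rw [abs_div, div_mul_eq_mul_div, div_le_iff₀ h0]
  exact h.k

/-- interpolation: an affine function of `z` bounded at `0` and `1` -/
theorem interp {p q z c : ℝ} (hz0 : 0 ≤ z) (hz1 : z ≤ 1) (h0 : |p| ≤ c) (h1 : |p + q| ≤ c) :
    |p + q * z| ≤ c := by
  have e : p + q * z = (1 - z) * p + z * (p + q) := by ring
  rw [e]
  calc |(1 - z) * p + z * (p + q)| ≤ |(1 - z) * p| + |z * (p + q)| := abs_add_le _ _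
    _ = (1 - z) * |p| + z * |p + q| := by
        rw [abs_mul, abs_mul, abs_of_nonneg (by linarith : (0:ℝ) ≤ 1 - z), abs_of_nonneg hz0]
    _ ≤ (1 - z) * c + z * c := by
        have := mul_le_mul_of_nonneg_left h0 (by linarith : (0:ℝ) ≤ 1 - z)
        have := mul_le_mul_of_nonneg_left h1 hz0
        linarith
    _ = c := by ring

/-- narrow coordinates on the trace -/
theorem Adj.y (h : Adj μ δ e S v A V) {z : ℝ} (hz0 : 0 ≤ z) (hz1 : z ≤ 1) :
    |v.Y.ev z (A + V * z) - S.Y.ev z (A + V * z)| ≤ δ := by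
  have e1 : v.Y.ev z (A + V * z) - S.Y.ev z (A + V * z) =
      (v.Y.ev 0 A - S.Y.ev 0 A) + ((v.Y.a - S.Y.a) * V + (v.Y.c - S.Y.c)) * z := by
    unfold Af.ev; ring
  rw [e1]
  refine interp hz0 hz1 h.y0 ?_
  have e2 : v.Y.ev 0 A - S.Y.ev 0 A + ((v.Y.a - S.Y.a) * V + (v.Y.c - S.Y.c)) =
      v.Y.ev 1 (A + V) - S.Y.ev 1 (A + V) := by
    unfold Af.ev; ring
  rw [e2]; exact h.y1

/-- **span**: `Th' - Th = k (Y' - Y) + O(2 e)` on the whole strip `0 ≤ z ≤ 1` -/
theorem Adj.span (h : Adj μ δ e S v A V) (hμ : 0 < μ) {z x : ℝ} (hz0 : 0 ≤ z) (hz1 : z ≤ 1) :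
    |(v.Th.ev z x - S.Th.ev z x) - slp S v * (v.Y.ev z x - S.Y.ev z x)| ≤ 2 * e := by
  have hne := h.ne hμ
  have hk : slp S v * (v.Y.a - S.Y.a) = v.Th.a - S.Th.a := by
    unfold slp; field_simp
  set k := slp S v with hkdef
  have hkd : |k| * δ ≤ e := h.slp_le hμ
  -- the function does not depend on x
  have e1 : (v.Th.ev z x - S.Th.ev z x) - k * (v.Y.ev z x - S.Y.ev z x) =
      ((v.Th.b - S.Th.b) - k * (v.Y.b - S.Y.b)) +
        ((v.Th.c - S.Th.c) - k * (v.Y.c - S.Y.c)) * z +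
        ((v.Th.a - S.Th.a) - k * (v.Y.a - S.Y.a)) * x := by
    unfold Af.ev; ring
  rw [e1, hk, sub_self, zero_mul, add_zero]
  refine interp hz0 hz1 ?_ ?_
  · have e2 : (v.Th.b - S.Th.b) - k * (v.Y.b - S.Y.b) =
        (v.Th.ev 0 A - S.Th.ev 0 A) - k * (v.Y.ev 0 A - S.Y.ev 0 A) := by
      have : (v.Th.ev 0 A - S.Th.ev 0 A) - k * (v.Y.ev 0 A - S.Y.ev 0 A) =
          ((v.Th.b - S.Th.b) - k * (v.Y.b - S.Y.b)) +
            ((v.Th.a - S.Th.a) - k * (v.Y.a - S.Y.a)) * A := by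
        unfold Af.ev; ring
      rw [this, hk]; ring
    rw [e2]
    calc _ ≤ |v.Th.ev 0 A - S.Th.ev 0 A| + |k * (v.Y.ev 0 A - S.Y.ev 0 A)| := abs_sub _ _
      _ ≤ e + |k| * δ := by
          rw [abs_mul]
          have := mul_le_mul_of_nonneg_left h.y0 (abs_nonneg k)
          linarith [h.t0]
      _ ≤ 2 * e := by linarith
  · have e2 : (v.Th.b - S.Th.b) - k * (v.Y.b - S.Y.b) +
        ((v.Th.c - S.Th.c) - k * (v.Y.c - S.Y.c)) =
        (v.Th.ev 1 (A + V) - S.Th.ev 1 (A + V)) -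
          k * (v.Y.ev 1 (A + V) - S.Y.ev 1 (A + V)) := by
      have : (v.Th.ev 1 (A + V) - S.Th.ev 1 (A + V)) -
          k * (v.Y.ev 1 (A + V) - S.Y.ev 1 (A + V)) =
          ((v.Th.b - S.Th.b) - k * (v.Y.b - S.Y.b) +
            ((v.Th.c - S.Th.c) - k * (v.Y.c - S.Y.c))) +
            ((v.Th.a - S.Th.a) - k * (v.Y.a - S.Y.a)) * (A + V) := by
        unfold Af.ev; ring
      rw [this, hk]; ring
    rw [e2]
    calc _ ≤ |v.Th.ev 1 (A + V) - S.Th.ev 1 (A + V)| +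
          |k * (v.Y.ev 1 (A + V) - S.Y.ev 1 (A + V))| := abs_sub _ _
      _ ≤ e + |k| * δ := by
          rw [abs_mul]
          have := mul_le_mul_of_nonneg_left h.y1 (abs_nonneg k)
          linarith [h.t1]
      _ ≤ 2 * e := by linarith

/-- distance of two lines at one end of the cell -/
theorem far_end {A V A' V' zs W : ℝ} (hW : 0 < W) (hz0 : 0 ≤ zs) (hz1 : zs ≤ 1)
    (hO : A + V * zs = A' + V' * zs) (hV : 1 / W ≤ |V - V'|) :
    ∃ z : ℝ, 0 ≤ z ∧ z ≤ 1 ∧ 1 / (2 * W) ≤ |(A + V * z) - (A' + V' * z)| := by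
  have key : ∀ z : ℝ, (A + V * z) - (A' + V' * z) = (V - V') * (z - zs) := by
    intro z
    have : A - A' = V' * zs - V * zs := by linarith
    have : (A + V * z) - (A' + V' * z) = (A - A') + (V - V') * z := by ring
    rw [this, ‹A - A' = V' * zs - V * zs›]; ring
  have h2 : (1 / (2 * W) : ℝ) = 1 / W * (1 / 2) := by field_simp
  have hW' : (0:ℝ) ≤ 1 / W := by positivity
  rcases le_total zs (1 / 2) with h | h
  · refine ⟨1, zero_le_one, le_refl _, ?_⟩
    rw [key, abs_mul, h2]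
    have : (1:ℝ) / 2 ≤ |1 - zs| := by rw [abs_of_nonneg (by linarith)]; linarith
    exact mul_le_mul hV this (by norm_num) (abs_nonneg _)
  · refine ⟨0, le_refl _, zero_le_one, ?_⟩
    rw [key, abs_mul, h2]
    have : (1:ℝ) / 2 ≤ |0 - zs| := by rw [zero_sub, abs_neg, abs_of_nonneg hz0]; exact h
    exact mul_le_mul hV this (by norm_num) (abs_nonneg _)

/-- value of `Y' - Y` at a point of the cell, from the trace -/
theorem Adj.y_off (h : Adj μ δ e S v A V) {z x : ℝ} (hz0 : 0 ≤ z) (hz1 : z ≤ 1) :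
    |(v.Y.ev z x - S.Y.ev z x) - (v.Y.a - S.Y.a) * (x - (A + V * z))| ≤ δ := by
  have e1 : (v.Y.ev z x - S.Y.ev z x) - (v.Y.a - S.Y.a) * (x - (A + V * z)) =
      v.Y.ev z (A + V * z) - S.Y.ev z (A + V * z) := by
    unfold Af.ev; ring
  rw [e1]; exact h.y hz0 hz1

/-- triangle inequality -/
theorem le_add {p q d : ℝ} (h : |p - q| ≤ d) : |q| ≤ |p| + d := by
  have e : q = p - (p - q) := by ring
  calc |q| = |p - (p - q)| := by rw [← e]
    _ ≤ |p| + |p - q| := abs_sub _ _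
    _ ≤ |p| + d := by linarith

/-- the two relations seen from `S` and from `S₂` combine -/
theorem comb4 {a1 a2 D1 D2 D3 E1 k1 k2 k3 k4 ε : ℝ}
    (ha : |a1 - k1 * D1| ≤ ε) (hb : |a2 - k2 * D2| ≤ ε)
    (hc : |(a1 + E1) - k3 * D3| ≤ ε) (hd : |(a2 + E1) - k4 * (D3 - D1 + D2)| ≤ ε) :
    |(k3 - k4) * D3 + (k4 - k1) * D1 + (k2 - k4) * D2| ≤ 4 * ε := by
  have e : (k3 - k4) * D3 + (k4 - k1) * D1 + (k2 - k4) * D2 =
      (a1 - k1 * D1) - (a2 - k2 * D2) - ((a1 + E1) - k3 * D3) +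
        ((a2 + E1) - k4 * (D3 - D1 + D2)) := by ring
  rw [e]
  calc _ ≤ |(a1 - k1 * D1) - (a2 - k2 * D2) - ((a1 + E1) - k3 * D3)| +
        |(a2 + E1) - k4 * (D3 - D1 + D2)| := abs_add_le _ _
    _ ≤ (|(a1 - k1 * D1) - (a2 - k2 * D2)| + |(a1 + E1) - k3 * D3|) +
        |(a2 + E1) - k4 * (D3 - D1 + D2)| := by gcongr; exact abs_sub _ _
    _ ≤ ((|a1 - k1 * D1| + |a2 - k2 * D2|) + |(a1 + E1) - k3 * D3|) +
        |(a2 + E1) - k4 * (D3 - D1 + D2)| := by gcongr; exact abs_sub _ _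
    _ ≤ 4 * ε := by linarith

/-- **crossing lemma**: `T = S ∩ v`, `T' = S ∩ v'` cross at `(z*, x*)` inside the cell with relative
velocity at least `1/W`; `S₂` is adjacent to `v` and `v'`. If `|k_T - k_T'| > 48 B W² e / (μ τ)`
then the line `S₂ ∩ v` passes within `(τ + δ)/μ` of the crossing point. -/
theorem cross {μ δ e : ℝ} {S v v' S2 : Cl} {A V A' V' A2 V2 A2' V2' zs W B τ : ℝ}
    (hμ : 0 < μ) (hδ : 0 ≤ δ) (he : 0 ≤ e) (hW : 1 ≤ W) (hB : 1 ≤ B) (hτ : 0 < τ) (hτ1 : τ ≤ 1)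
    (h1 : Adj μ δ e S v A V) (h2 : Adj μ δ e S v' A' V')
    (h3 : Adj μ δ e S2 v A2 V2) (h4 : Adj μ δ e S2 v' A2' V2')
    (hz0 : 0 ≤ zs) (hz1 : zs ≤ 1) (hO : A + V * zs = A' + V' * zs) (hV : 1 / W ≤ |V - V'|)
    (hB3 : ∀ z, 0 ≤ z → z ≤ 1 → |v.Y.ev z (A + V * z) - S2.Y.ev z (A + V * z)| ≤ B)
    (hB3' : ∀ z, 0 ≤ z → z ≤ 1 → |v.Y.ev z (A' + V' * z) - S2.Y.ev z (A' + V' * z)| ≤ B)
    (hfar : 96 * B * W * e / (μ * τ) < |slp S v - slp S v'|) :
    |(A + V * zs) - (A2 + V2 * zs)| ≤ (τ + δ) / μ := by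
  by_contra hcon
  rw [not_le] at hcon
  set xs := A + V * zs with hxs
  -- `D3` at the crossing point is at least `τ`
  have hD3 : τ < |v.Y.ev zs xs - S2.Y.ev zs xs| := by
    have ho := h3.y_off (z := zs) (x := xs) hz0 hz1
    have h5 : μ * |xs - (A2 + V2 * zs)| ≤ |(v.Y.a - S2.Y.a) * (xs - (A2 + V2 * zs))| := by
      rw [abs_mul]; exact mul_le_mul_of_nonneg_right h3.m (abs_nonneg _)
    have h6 : τ + δ < μ * |xs - (A2 + V2 * zs)| := by
      rw [div_lt_iff₀ hμ] at hcon; linarith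
    have h7 : |(v.Y.a - S2.Y.a) * (xs - (A2 + V2 * zs))| ≤
        |v.Y.ev zs xs - S2.Y.ev zs xs| + δ := by
      exact le_add ho
    linarith
  -- the combined relation
  set k1 := slp S v
  set k2 := slp S v'
  set k3 := slp S2 v
  set k4 := slp S2 v'
  have rel : ∀ z x : ℝ, 0 ≤ z → z ≤ 1 →
      |(k3 - k4) * (v.Y.ev z x - S2.Y.ev z x) + (k4 - k1) * (v.Y.ev z x - S.Y.ev z x) +
        (k2 - k4) * (v'.Y.ev z x - S.Y.ev z x)| ≤ 8 * e := by
    intro z x hz hz'
    have a := h1.span hμ (x := x) hz hz'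
    have b := h2.span hμ (x := x) hz hz'
    have c := h3.span hμ (x := x) hz hz'
    have d := h4.span hμ (x := x) hz hz'
    have c' : |((v.Th.ev z x - S.Th.ev z x) + (S.Th.ev z x - S2.Th.ev z x)) -
        k3 * (v.Y.ev z x - S2.Y.ev z x)| ≤ 2 * e := by
      have e1 : (v.Th.ev z x - S.Th.ev z x) + (S.Th.ev z x - S2.Th.ev z x) =
        v.Th.ev z x - S2.Th.ev z x := by ring
      rw [e1]; exact c
    have d' : |((v'.Th.ev z x - S.Th.ev z x) + (S.Th.ev z x - S2.Th.ev z x)) -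
        k4 * ((v.Y.ev z x - S2.Y.ev z x) - (v.Y.ev z x - S.Y.ev z x) +
          (v'.Y.ev z x - S.Y.ev z x))| ≤ 2 * e := by
      have e1 : (v'.Th.ev z x - S.Th.ev z x) + (S.Th.ev z x - S2.Th.ev z x) =
        v'.Th.ev z x - S2.Th.ev z x := by ring
      have e2 : (v.Y.ev z x - S2.Y.ev z x) - (v.Y.ev z x - S.Y.ev z x) +
          (v'.Y.ev z x - S.Y.ev z x) = v'.Y.ev z x - S2.Y.ev z x := by ring
      rw [e1, e2]; exact d
    have := comb4 a b c' d'
    linarith
  have hk1 : |k1| * δ ≤ e := h1.slp_le hμ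
  have hk2 : |k2| * δ ≤ e := h2.slp_le hμ
  have hk3 : |k3| * δ ≤ e := h3.slp_le hμ
  have hk4 : |k4| * δ ≤ e := h4.slp_le hμ
  have small : ∀ (k k' D : ℝ), |k| * δ ≤ e → |k'| * δ ≤ e → |D| ≤ δ → |(k - k') * D| ≤ 2 * e := by
    intro k k' D hk hk' hD
    rw [abs_mul]
    calc |k - k'| * |D| ≤ (|k| + |k'|) * δ := by
          gcongr; exact abs_sub _ _
      _ ≤ 2 * e := by linarith
  -- difference of the slopes seen from `S₂`
  have hk34 : |k3 - k4| ≤ 12 * e / τ := by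
    have r := rel zs xs hz0 hz1
    have s1 := small k4 k1 _ hk4 hk1 (h1.y (z := zs) hz0 hz1)
    have hO' : xs = A' + V' * zs := hO
    have s2 := small k2 k4 _ hk2 hk4 (h2.y (z := zs) hz0 hz1)
    rw [← hO'] at s2
    rw [← hxs] at s1
    have h8 : |(k3 - k4) * (v.Y.ev zs xs - S2.Y.ev zs xs)| ≤ 12 * e := by
      have e1 : (k3 - k4) * (v.Y.ev zs xs - S2.Y.ev zs xs) =
          ((k3 - k4) * (v.Y.ev zs xs - S2.Y.ev zs xs) + (k4 - k1) * (v.Y.ev zs xs - S.Y.ev zs xs) +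
            (k2 - k4) * (v'.Y.ev zs xs - S.Y.ev zs xs)) -
          (k4 - k1) * (v.Y.ev zs xs - S.Y.ev zs xs) -
          (k2 - k4) * (v'.Y.ev zs xs - S.Y.ev zs xs) := by ring
      rw [e1]
      refine (abs_sub _ _).trans ?_
      have := abs_sub ((k3 - k4) * (v.Y.ev zs xs - S2.Y.ev zs xs) +
        (k4 - k1) * (v.Y.ev zs xs - S.Y.ev zs xs) +
            (k2 - k4) * (v'.Y.ev zs xs - S.Y.ev zs xs)) ((k4 - k1) * (v.Y.ev zs xs - S.Y.ev zs xs))
      linarith
    rw [abs_mul] at h8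
    rw [le_div_iff₀ hτ]
    calc |k3 - k4| * τ ≤ |k3 - k4| * |v.Y.ev zs xs - S2.Y.ev zs xs| := by gcongr
      _ ≤ 12 * e := h8
  -- the reduced relation on the two traces
  have hBτ : 12 * e ≤ 12 * e * B / τ := by
    rw [le_div_iff₀ hτ]
    have : 0 ≤ 12 * e := by linarith
    calc 12 * e * τ ≤ 12 * e * 1 := by gcongr
      _ ≤ 12 * e * B := by gcongr
  obtain ⟨z, hz, hz', hfz⟩ := far_end (W := W) (by linarith) hz0 hz1 hO hV
  have big : ∀ (x : ℝ) (D : ℝ), |v.Y.ev z x - S2.Y.ev z x| ≤ B →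
      |(k3 - k4) * (v.Y.ev z x - S2.Y.ev z x)| ≤ 12 * e * B / τ := by
    intro x D hx
    rw [abs_mul]
    calc |k3 - k4| * |v.Y.ev z x - S2.Y.ev z x| ≤ (12 * e / τ) * B := by
          gcongr
      _ = 12 * e * B / τ := by ring
  have b41 : |k4 - k1| * (μ * (1 / (2 * W))) ≤ 24 * e * B / τ := by
    -- evaluate on the trace of `T'`
    have r := rel z (A' + V' * z) hz hz'
    have s2 := small k2 k4 _ hk2 hk4 (h2.y (z := z) hz hz')
    have s3 := big (A' + V' * z) 0 (hB3' z hz hz')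
    have h9 : |(k4 - k1) * (v.Y.ev z (A' + V' * z) - S.Y.ev z (A' + V' * z))| ≤
        10 * e + 12 * e * B / τ := by
      have e1 : (k4 - k1) * (v.Y.ev z (A' + V' * z) - S.Y.ev z (A' + V' * z)) =
          ((k3 - k4) * (v.Y.ev z (A' + V' * z) - S2.Y.ev z (A' + V' * z)) +
            (k4 - k1) * (v.Y.ev z (A' + V' * z) - S.Y.ev z (A' + V' * z)) +
            (k2 - k4) * (v'.Y.ev z (A' + V' * z) - S.Y.ev z (A' + V' * z))) -
          (k3 - k4) * (v.Y.ev z (A' + V' * z) - S2.Y.ev z (A' + V' * z)) -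
          (k2 - k4) * (v'.Y.ev z (A' + V' * z) - S.Y.ev z (A' + V' * z)) := by ring
      rw [e1]
      refine (abs_sub _ _).trans ?_
      have := abs_sub ((k3 - k4) * (v.Y.ev z (A' + V' * z) - S2.Y.ev z (A' + V' * z)) +
            (k4 - k1) * (v.Y.ev z (A' + V' * z) - S.Y.ev z (A' + V' * z)) +
            (k2 - k4) * (v'.Y.ev z (A' + V' * z) - S.Y.ev z (A' + V' * z)))
          ((k3 - k4) * (v.Y.ev z (A' + V' * z) - S2.Y.ev z (A' + V' * z)))
      linarith
    have ho := h1.y_off (z := z) (x := A' + V' * z) hz hz'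
    have h10 : μ * (1 / (2 * W)) ≤
        |(v.Y.a - S.Y.a) * ((A' + V' * z) - (A + V * z))| := by
      rw [abs_mul]
      refine mul_le_mul h1.m ?_ (by positivity) (abs_nonneg _)
      rw [abs_sub_comm]; exact hfz
    have h11 : |(v.Y.a - S.Y.a) * ((A' + V' * z) - (A + V * z))| ≤
        |v.Y.ev z (A' + V' * z) - S.Y.ev z (A' + V' * z)| + δ := by
      exact le_add ho
    calc |k4 - k1| * (μ * (1 / (2 * W)))
        ≤ |k4 - k1| * (|v.Y.ev z (A' + V' * z) - S.Y.ev z (A' + V' * z)| + δ) := by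
          gcongr; linarith
      _ = |(k4 - k1) * (v.Y.ev z (A' + V' * z) - S.Y.ev z (A' + V' * z))| + |k4 - k1| * δ := by
          rw [abs_mul]; ring
      _ ≤ (10 * e + 12 * e * B / τ) + 2 * e := by
          have : |k4 - k1| * δ ≤ (|k4| + |k1|) * δ := by gcongr; exact abs_sub _ _
          have h12 : (|k4| + |k1|) * δ = |k4| * δ + |k1| * δ := by ring
          linarith
      _ ≤ 24 * e * B / τ := by
          have : 24 * e * B / τ = 12 * e * B / τ + 12 * e * B / τ := by ring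
          linarith
  have b24 : |k2 - k4| * (μ * (1 / (2 * W))) ≤ 24 * e * B / τ := by
    -- evaluate on the trace of `T`
    have r := rel z (A + V * z) hz hz'
    have s2 := small k4 k1 _ hk4 hk1 (h1.y (z := z) hz hz')
    have s3 := big (A + V * z) 0 (hB3 z hz hz')
    have h9 : |(k2 - k4) * (v'.Y.ev z (A + V * z) - S.Y.ev z (A + V * z))| ≤
        10 * e + 12 * e * B / τ := by
      have e1 : (k2 - k4) * (v'.Y.ev z (A + V * z) - S.Y.ev z (A + V * z)) =
          ((k3 - k4) * (v.Y.ev z (A + V * z) - S2.Y.ev z (A + V * z)) +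
            (k4 - k1) * (v.Y.ev z (A + V * z) - S.Y.ev z (A + V * z)) +
            (k2 - k4) * (v'.Y.ev z (A + V * z) - S.Y.ev z (A + V * z))) -
          (k3 - k4) * (v.Y.ev z (A + V * z) - S2.Y.ev z (A + V * z)) -
          (k4 - k1) * (v.Y.ev z (A + V * z) - S.Y.ev z (A + V * z)) := by ring
      rw [e1]
      refine (abs_sub _ _).trans ?_
      have := abs_sub ((k3 - k4) * (v.Y.ev z (A + V * z) - S2.Y.ev z (A + V * z)) +
            (k4 - k1) * (v.Y.ev z (A + V * z) - S.Y.ev z (A + V * z)) +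
            (k2 - k4) * (v'.Y.ev z (A + V * z) - S.Y.ev z (A + V * z)))
          ((k3 - k4) * (v.Y.ev z (A + V * z) - S2.Y.ev z (A + V * z)))
      linarith
    have h10 : μ * (1 / (2 * W)) ≤
        |(v'.Y.a - S.Y.a) * ((A + V * z) - (A' + V' * z))| := by
      rw [abs_mul]
      exact mul_le_mul h2.m hfz (by positivity) (abs_nonneg _)
    have h11 : |(v'.Y.a - S.Y.a) * ((A + V * z) - (A' + V' * z))| ≤
        |v'.Y.ev z (A + V * z) - S.Y.ev z (A + V * z)| + δ := by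
      have ho := h2.y_off (z := z) (x := A + V * z) hz hz'
      exact le_add ho
    calc |k2 - k4| * (μ * (1 / (2 * W)))
        ≤ |k2 - k4| * (|v'.Y.ev z (A + V * z) - S.Y.ev z (A + V * z)| + δ) := by
          gcongr; linarith
      _ = |(k2 - k4) * (v'.Y.ev z (A + V * z) - S.Y.ev z (A + V * z))| + |k2 - k4| * δ := by
          rw [abs_mul]; ring
      _ ≤ (10 * e + 12 * e * B / τ) + 2 * e := by
          have : |k2 - k4| * δ ≤ (|k2| + |k4|) * δ := by gcongr; exact abs_sub _ _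
          have h12 : (|k2| + |k4|) * δ = |k2| * δ + |k4| * δ := by ring
          linarith
      _ ≤ 24 * e * B / τ := by
          have : 24 * e * B / τ = 12 * e * B / τ + 12 * e * B / τ := by ring
          linarith
  have hfin : |k1 - k2| * (μ * (1 / (2 * W))) ≤ 48 * e * B / τ := by
    have e1 : k1 - k2 = -((k4 - k1) + (k2 - k4)) := by ring
    calc |k1 - k2| * (μ * (1 / (2 * W))) ≤ (|k4 - k1| + |k2 - k4|) * (μ * (1 / (2 * W))) := by
          gcongr
          rw [e1, abs_neg]; exact abs_add_le _ _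
      _ = |k4 - k1| * (μ * (1 / (2 * W))) + |k2 - k4| * (μ * (1 / (2 * W))) := by ring
      _ ≤ 24 * e * B / τ + 24 * e * B / τ := by linarith
      _ = 48 * e * B / τ := by ring
  have hW0 : 0 < W := by linarith
  have h13 : |k1 - k2| ≤ 96 * B * W * e / (μ * τ) := by
    rw [le_div_iff₀ (by positivity)]
    have h14 : |k1 - k2| * (μ * τ) = |k1 - k2| * (μ * (1 / (2 * W))) * (2 * W * τ) := by
      field_simp
    rw [h14]
    calc |k1 - k2| * (μ * (1 / (2 * W))) * (2 * W * τ) ≤ (48 * e * B / τ) * (2 * W * τ) := by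
          gcongr
      _ = 96 * B * W * e := by field_simp; ring
  linarith

end

end Crest.Agent.R136.Crx113
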