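import Crest.Agent.R136.Pl2Def_860

/-!
# R136 (S0187), PLAN 2, leaf (C5): the one-step count of the base tilt theorem (helper123)

`one_core` : in `TCore`, all pairs of tilts `Λ = 2^j`, `E = 2^k'`, the classes of the second system
which meet one class of the first system lie in one flat box: no crossing, no rotation.  This is the
case in which `Λ` is at most a power of `W` and `E` is large.
-/

set_option autoImplicit false
set_option linter.unusedVariables false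

namespace Crest.Agent.R136.Cs5123

open Finset
open Crest.Agent.R136.Sh605 Crest.Agent.R136.Fl808
open Crest.Agent.R136.Pl2

/-- components in the frame `e` of a vector which is small in the frame `e'` -/
theorem comp_le {e e' : Fin 3 → V3} (he' : Ortho e') (i : Fin 3) (x : V3)
    {s0 s1 s2 : ℝ} (h0 : |dt (e' 0) x| ≤ s0) (h1 : |dt (e' 1) x| ≤ s1) (h2 : |dt (e' 2) x| ≤ s2) :
    |dt (e i) x| ≤ |dt (e' 0) (e i)| * s0 + |dt (e' 1) (e i)| * s1 + |dt (e' 2) (e i)| * s2 := by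
  have h := dt_expand he' (e i) x
  rw [h]
  calc |dt (e i) (e' 0) * dt (e' 0) x + dt (e i) (e' 1) * dt (e' 1) x +
        dt (e i) (e' 2) * dt (e' 2) x|
      ≤ |dt (e i) (e' 0) * dt (e' 0) x + dt (e i) (e' 1) * dt (e' 1) x| +
        |dt (e i) (e' 2) * dt (e' 2) x| := abs_add_le _ _
    _ ≤ |dt (e i) (e' 0) * dt (e' 0) x| + |dt (e i) (e' 1) * dt (e' 1) x| +
        |dt (e i) (e' 2) * dt (e' 2) x| := by gcongr; exact abs_add_le _ _
    _ = |dt (e' 0) (e i)| * |dt (e' 0) x| + |dt (e' 1) (e i)| * |dt (e' 1) x| +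
        |dt (e' 2) (e i)| * |dt (e' 2) x| := by
        rw [abs_mul, abs_mul, abs_mul, dt_comm (e i) (e' 0), dt_comm (e i) (e' 1),
          dt_comm (e i) (e' 2)]
    _ ≤ _ := by gcongr

/-- one-step hull in the frame of the first box -/
theorem hull_one {e e' : Fin 3 → V3} (he : Ortho e) (he' : Ortho e') {Y w1 w2 z0 ρ : ℝ}
    {j k' : ℕ} (hY : 0 < Y) (hYw : Y ≤ w2) (hw : w2 ≤ w1) (H : Dy e e' Y w1 w2 j k')
    {b b' t t2 : Ln4} (ht : InB t b e ![Y, w1, w2] z0 ρ) (ht' : InB t b' e' ![Y, w1, w2] z0 ρ)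
    (h2 : InB t2 b' e' ![Y, w1, w2] z0 ρ) :
    InB t2 b e ![7 * (2 ^ j * 2 ^ k' * Y), 7 * w1, 9 * (2 ^ j * w2)] z0 ρ := by
  intro z hz0 hz1 i
  have hw2 : 0 < w2 := hY.trans_le hYw
  have hw1 : 0 < w1 := hw2.trans_le hw
  have p := ht z hz0 hz1
  have p' := ht' z hz0 hz1
  have p2 := h2 z hz0 hz1
  have hj : (1:ℝ) ≤ 2 ^ j := one_le_pow₀ (by norm_num)
  have hk : (1:ℝ) ≤ 2 ^ k' := one_le_pow₀ (by norm_num)
  have hjk : (1:ℝ) ≤ 2 ^ j * 2 ^ k' := by nlinarith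
  have hx : t2.pos z - b.pos z = (t2.pos z - b'.pos z) - (t.pos z - b'.pos z) +
      (t.pos z - b.pos z) := by abel
  -- bound of `dt (e i) x` for `x` in the box of `e'`
  have key : ∀ x : V3, (∀ l, |dt (e' l) x| ≤ ![Y, w1, w2] l) → |dt (e i) x| ≤
      ![3 * (2 ^ j * 2 ^ k' * Y), 3 * w1, 4 * (2 ^ j * w2)] i := by
    intro x hx
    have c := comp_le (e := e) he' i x (s0 := Y) (s1 := w1) (s2 := w2)
      (by simpa using hx 0) (by simpa using hx 1) (by simpa using hx 2)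
    refine c.trans ?_
    have a0 := abs_dt_le_one he he' 0 i
    have a1 := abs_dt_le_one he he' 1 i
    have a2 := abs_dt_le_one he he' 2 i
    fin_cases i
    · simp only [Fin.zero_eta, Matrix.cons_val_zero] at *
      have e10 := H.t10
      have e20 := H.t20
      have e20' : |dt (e' 2) (e 0)| * w2 ≤ 2 ^ j * 2 ^ k' * Y := by
        have : |dt (e' 2) (e 0)| * w2 ≤ 2 ^ j * (|dt (e' 2) (e 0)| * w2) := by
          have h0 : 0 ≤ |dt (e' 2) (e 0)| * w2 := by positivity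
          nlinarith
        nlinarith
      have e00 : |dt (e' 0) (e 0)| * Y ≤ 2 ^ j * 2 ^ k' * Y := by nlinarith
      nlinarith
    · simp only [Fin.mk_one, Matrix.cons_val_one, Matrix.cons_val_zero] at *
      have e0 : |dt (e' 0) (e 1)| * Y ≤ w1 := by nlinarith
      have e1 : |dt (e' 1) (e 1)| * w1 ≤ w1 := by nlinarith
      have e2 : |dt (e' 2) (e 1)| * w2 ≤ w1 := by nlinarith
      linarith
    · simp only [Fin.reduceFinMk, Matrix.cons_val] at *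
      have e12 := H.b12 he he' hY hYw hw
      have hjw : w2 ≤ 2 ^ j * w2 := by nlinarith
      have e0 : |dt (e' 0) (e 2)| * Y ≤ 2 ^ j * w2 := by nlinarith
      have e2 : |dt (e' 2) (e 2)| * w2 ≤ 2 ^ j * w2 := by nlinarith
      linarith
  have k1 := key _ p2
  have k2 := key _ p'
  have k3 := p i
  have hd : dt (e i) (t2.pos z - b.pos z) = dt (e i) (t2.pos z - b'.pos z) -
      dt (e i) (t.pos z - b'.pos z) + dt (e i) (t.pos z - b.pos z) := by
    rw [hx]; simp only [dt, Pi.add_apply, Pi.sub_apply]; ring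
  rw [hd]
  have h3 : |dt (e i) (t2.pos z - b'.pos z) - dt (e i) (t.pos z - b'.pos z) +
      dt (e i) (t.pos z - b.pos z)| ≤ |dt (e i) (t2.pos z - b'.pos z)| +
      |dt (e i) (t.pos z - b'.pos z)| + |dt (e i) (t.pos z - b.pos z)| :=
    (abs_add_le _ _).trans (add_le_add (abs_sub _ _) le_rfl)
  refine h3.trans ?_
  fin_cases i
  · simp only [Fin.zero_eta, Matrix.cons_val_zero] at *
    nlinarith
  · simp only [Fin.mk_one, Matrix.cons_val_one, Matrix.cons_val_zero] at *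
    linarith
  · simp only [Fin.reduceFinMk, Matrix.cons_val] at *
    nlinarith

/-- number of elements of a set all of whose fibres are small -/
theorem card_ge_fib {ι κ : Type*} [DecidableEq κ] (A : Finset ι) (f : ι → κ) {m : ℝ}
    (hm : ∀ c ∈ A.image f, ((A.filter fun s => f s = c).card : ℝ) ≤ m) :
    (A.card : ℝ) ≤ (A.image f).card * m := by
  have h1 : A.card = ∑ c ∈ A.image f, (A.filter fun s => f s = c).card :=
    card_eq_sum_card_image f A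
  rw [h1]; push_cast
  calc ∑ c ∈ A.image f, ((A.filter fun s => f s = c).card : ℝ) ≤ ∑ _c ∈ A.image f, m :=
        sum_le_sum hm
    _ = _ := by rw [sum_const, nsmul_eq_mul]

/-- number of classes whose lines lie in a set `B` -/
theorem card_le_fib {ι κ : Type*} [DecidableEq ι] [DecidableEq κ] (B : Finset ι) (f : ι → κ) (I : Finset κ) {m : ℝ}
    (hm : ∀ c ∈ I, m ≤ ((B.filter fun s => f s = c).card : ℝ)) :
    (I.card : ℝ) * m ≤ B.card := by
  have h1 : ∑ c ∈ I, ((B.filter fun s => f s = c).card) ≤ B.card := by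
    rw [← card_biUnion]
    · refine card_le_card fun x hx => ?_
      rw [mem_biUnion] at hx
      obtain ⟨c, _, h⟩ := hx
      exact (mem_filter.1 h).1
    · intro c _ c' _ hcc
      rw [Function.onFun, disjoint_left]
      intro x h h'
      exact hcc ((mem_filter.1 h).2.symm.trans (mem_filter.1 h').2)
  calc (I.card : ℝ) * m = ∑ _c ∈ I, m := by rw [sum_const, nsmul_eq_mul]
    _ ≤ ∑ c ∈ I, ((B.filter fun s => f s = c).card : ℝ) := sum_le_sum hm
    _ ≤ _ := by exact_mod_cast h1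

open Classical in
/-- **the one-step count** -/
theorem one_core {qm qp : Fin 3 → ℝ} {L : ℕ → Ln4} {P : Finset ℕ} {u v : ℕ → ℕ} {bu bv : ℕ → Ln4}
    {eu ev : ℕ → Fin 3 → V3} {W M a Y w1 w2 z0 ρ : ℝ}
    (H : TCore qm qp L P u v bu bv eu ev W M a Y w1 w2 z0 ρ) {t0 : ℕ} (ht0 : t0 ∈ P) {j k' : ℕ}
    (hD : ∀ t ∈ P, Dy (eu (u t)) (ev (v t)) Y w1 w2 j k') (hW : W ≤ (2:ℝ) ^ j * 2 ^ k') :
    ((2:ℝ) ^ j) ^ (1 + qm 1) * ((2:ℝ) ^ k' * (Y / a)) ^ (1 + qm 2) ≤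
      W ^ 4 * ((7 * (2 ^ j * 2 ^ k' * Y) / a) ^ (1 + qp 0) *
        ((56 * (2 ^ j * w2)) / w2) ^ (1 + qp 2)) := by
  have ha := H.a0
  have hY : 0 < Y := ha.trans_le H.aY
  have hw2 : 0 < w2 := hY.trans_le H.Yw
  have hw1 : 0 < w1 := hw2.trans_le H.ww
  have hW0 : 0 < W := lt_of_lt_of_le one_pos H.W1
  have hM := H.M0
  have hj : (1:ℝ) ≤ 2 ^ j := one_le_pow₀ (by norm_num)
  have hk : (1:ℝ) ≤ 2 ^ k' := one_le_pow₀ (by norm_num)
  have hjk : (1:ℝ) ≤ 2 ^ j * 2 ^ k' := by nlinarith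
  set F : ℝ := ((2:ℝ) ^ j) ^ (1 + qm 1) * ((2:ℝ) ^ k' * (Y / a)) ^ (1 + qm 2) with hF
  have hF0 : 0 < F := by positivity
  set G : ℝ := (7 * (2 ^ j * 2 ^ k' * Y) / a) ^ (1 + qp 0) *
        ((56 * (2 ^ j * w2)) / w2) ^ (1 + qp 2) with hG
  -- the class of `t0`
  set A := P.filter fun s => u s = u t0 with hA
  set I := A.image v with hI
  have hfu : M ≤ W * (A.card : ℝ) := H.fu t0 ht0
  have hsh : (A.card : ℝ) ≤ I.card * (W * M / F) := by
    refine card_ge_fib A v fun c hc => ?_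
    obtain ⟨t, ht, rfl⟩ := mem_image.1 hc
    rw [hA, mem_filter] at ht
    have h1 := H.share t ht.1 j k' (hD t ht.1) hW
    refine le_trans (Nat.cast_le.2 (card_le_card ?_)) h1
    intro s hs
    rw [hA, mem_filter, mem_filter] at hs
    rw [mem_filter]
    exact ⟨hs.1.1, hs.1.2.trans ht.2.symm, hs.2⟩
  -- the hull
  set B := P.filter fun t => InB (L t) (bu (u t0)) (eu (u t0))
    ![7 * (2 ^ j * 2 ^ k' * Y), 10 ^ 6 * w1, 56 * (2 ^ j * w2)] z0 ρ with hB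
  have hleg := (hD t0 ht0).hleg (H.ou t0 ht0) (H.ov t0 ht0) hY H.Yw H.ww
  have hlw := (hD t0 ht0).hlw (H.ou t0 ht0) (H.ov t0 ht0) hY H.Yw H.ww
  have hbox : (B.card : ℝ) ≤ W * M * G := by
    refine H.hull (bu (u t0)) (eu (u t0)) _ _ (H.ou t0 ht0) ?_ ?_ ?_ ?_
    · have := H.aY
      nlinarith
    · nlinarith
    · have : (2:ℝ) ^ j * (Y * 2 ^ k') ≤ 2 ^ j * (8 * w2) := by gcongr
      nlinarith
    · linarith
  have hcl : (I.card : ℝ) * (M / W) ≤ B.card := by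
    refine card_le_fib B v I fun c hc => ?_
    obtain ⟨t, ht, rfl⟩ := mem_image.1 hc
    rw [hA, mem_filter] at ht
    have h1 := H.fv t ht.1
    rw [div_le_iff₀ hW0]
    refine h1.trans ?_
    rw [mul_comm]
    have hsub : (P.filter fun s => v s = v t) ⊆ B.filter fun s => v s = v t := by
      intro s hs
      rw [mem_filter] at hs
      rw [mem_filter, hB, mem_filter]
      refine ⟨⟨hs.1, ?_⟩, hs.2⟩
      have m1 := H.mu t ht.1
      have m2 := H.mv t ht.1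
      have m3 := H.mv s hs.1
      rw [hs.2] at m3
      rw [ht.2] at m1
      have hDt := hD t ht.1
      rw [ht.2] at hDt
      have h5 := hull_one (H.ou t0 ht0) (H.ov t ht.1) hY H.Yw H.ww hDt m1 m2 m3
      intro z hz0 hz1 i
      refine (h5 z hz0 hz1 i).trans ?_
      fin_cases i
      · simp
      · simp only [Fin.mk_one, Matrix.cons_val_one, Matrix.cons_val_zero]
        linarith
      · simp only [Fin.reduceFinMk, Matrix.cons_val]
        nlinarith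
    have h6 : ((P.filter fun s => v s = v t).card : ℝ) ≤
        ((B.filter fun s => v s = v t).card : ℝ) := Nat.cast_le.2 (card_le_card hsub)
    exact mul_le_mul_of_nonneg_right h6 hW0.le
  -- conclusion
  have hG0 : 0 < G := by positivity
  have c1 : (I.card : ℝ) ≤ W ^ 2 * G := by
    have h7 : (I.card : ℝ) * (M / W) ≤ W * M * G := hcl.trans hbox
    have h8 : (I.card : ℝ) * M ≤ (W ^ 2 * G) * M := by
      have : (I.card : ℝ) * M = (I.card : ℝ) * (M / W) * W := by field_simp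
      rw [this]
      nlinarith
    exact le_of_mul_le_mul_right h8 hM
  have c2 : M ≤ W * (W ^ 2 * G * (W * M / F)) := by
    refine hfu.trans ?_
    have : (A.card : ℝ) ≤ W ^ 2 * G * (W * M / F) :=
      hsh.trans (mul_le_mul_of_nonneg_right c1 (by positivity))
    exact mul_le_mul_of_nonneg_left this hW0.le
  have c3 : W * (W ^ 2 * G * (W * M / F)) = M * (W ^ 4 * G) / F := by
    field_simp
  rw [c3, le_div_iff₀ hF0] at c2
  exact le_of_mul_le_mul_left c2 hM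

/-- exponent of the case `Λ ≤ (2 W)^c` -/
noncomputable def cS (qm qp : Fin 3 → ℝ) (c : ℝ) : ℝ :=
  c + (4 + 3 * (1 + qp 0) + 6 * (1 + qp 2) + c * (1 + qp 0 + qp 2)) / (qm 2 - qp 0)

theorem cS_nonneg {qm qp : Fin 3 → ℝ} {c : ℝ} (h0 : 0 ≤ qp 0) (h2 : 0 ≤ qp 2)
    (hs : 0 < qm 2 - qp 0) (hc : 0 ≤ c) : 0 ≤ cS qm qp c := by
  unfold cS
  positivity

/-- pure exponents: the inequality of `one_core` with `Λ ≤ (2 W)^c` bounds `Λ E`, and `E X` -/
theorem small_num {qm qp : Fin 3 → ℝ} {W Λ E X c : ℝ} (hW : 1 ≤ W) (hΛ : 1 ≤ Λ) (hE : 1 ≤ E)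
    (hX : 1 ≤ X) (h0 : 0 ≤ qp 0) (h2 : 0 ≤ qp 2) (h1 : 0 ≤ qm 1) (hs : 0 < qm 2 - qp 0)
    (hc : Λ ≤ (2 * W) ^ c)
    (h : Λ ^ (1 + qm 1) * (E * X) ^ (1 + qm 2) ≤
      W ^ 4 * ((7 * (Λ * E * X)) ^ (1 + qp 0) * (56 * Λ) ^ (1 + qp 2))) :
    Λ * E ≤ (2 * W) ^ cS qm qp c := by
  have hW0 : 0 < W := lt_of_lt_of_le one_pos hW
  have h7 : (7 * (Λ * E * X)) ^ (1 + qp 0) ≤ (2 ^ (3:ℝ) * (Λ * E * X)) ^ (1 + qp 0) := by
    apply Real.rpow_le_rpow (by positivity) _ (by linarith)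
    have : (0:ℝ) < Λ * E * X := by positivity
    norm_num
    linarith
  have h56 : (56 * Λ) ^ (1 + qp 2) ≤ (2 ^ (6:ℝ) * Λ) ^ (1 + qp 2) := by
    apply Real.rpow_le_rpow (by positivity) _ (by linarith)
    have : (0:ℝ) < Λ := by positivity
    norm_num
    linarith
  have h3 : Λ ^ (1 + qm 1) * (E * X) ^ (1 + qm 2) ≤ W ^ (4:ℝ) *
      ((2 ^ (3:ℝ) * (Λ * E * X)) ^ (1 + qp 0) * (2 ^ (6:ℝ) * Λ) ^ (1 + qp 2)) := by
    refine h.trans ?_
    rw [show (W:ℝ) ^ (4:ℕ) = W ^ (4:ℝ) from by rw [← Real.rpow_natCast]; norm_num]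
    gcongr
  obtain ⟨w, hw, hwe⟩ : ∃ t : ℝ, 0 ≤ t ∧ W = Real.exp t :=
    ⟨Real.log W, Real.log_nonneg hW, (Real.exp_log hW0).symm⟩
  obtain ⟨l, hl, hle⟩ : ∃ t : ℝ, 0 ≤ t ∧ Λ = Real.exp t :=
    ⟨Real.log Λ, Real.log_nonneg hΛ, (Real.exp_log (by linarith)).symm⟩
  obtain ⟨e, he, hee⟩ : ∃ t : ℝ, 0 ≤ t ∧ E = Real.exp t :=
    ⟨Real.log E, Real.log_nonneg hE, (Real.exp_log (by linarith)).symm⟩
  obtain ⟨x, hx, hxe⟩ : ∃ t : ℝ, 0 ≤ t ∧ X = Real.exp t :=
    ⟨Real.log X, Real.log_nonneg hX, (Real.exp_log (by linarith)).symm⟩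
  obtain ⟨b, hb, hbe⟩ : ∃ t : ℝ, 0 ≤ t ∧ (2:ℝ) = Real.exp t :=
    ⟨Real.log 2, Real.log_nonneg (by norm_num), (Real.exp_log (by norm_num)).symm⟩
  rw [hbe, hwe, hle] at hc
  rw [hbe, hwe, hle, hee, hxe] at h3
  rw [hbe, hwe, hle, hee]
  simp only [← Real.exp_add, ← Real.exp_mul] at hc h3 ⊢
  rw [Real.exp_le_exp] at hc h3 ⊢
  -- l (1 + qm1) + (e + x)(1 + qm2) ≤ 4 w + (3b + l + e + x)(1 + qp0) + (6b + l)(1 + qp2)
  have k1 : (e + x) * (qm 2 - qp 0) ≤ 4 * w + b * (3 * (1 + qp 0) + 6 * (1 + qp 2)) +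
      l * (1 + qp 0 + qp 2) := by
    nlinarith [mul_nonneg hl h1]
  have k2 : e * (qm 2 - qp 0) ≤ (b + w) * (4 + 3 * (1 + qp 0) + 6 * (1 + qp 2) +
      c * (1 + qp 0 + qp 2)) := by
    have a1 : 0 ≤ x * (qm 2 - qp 0) := mul_nonneg hx hs.le
    have a2 : l * (1 + qp 0 + qp 2) ≤ ((b + w) * c) * (1 + qp 0 + qp 2) :=
      mul_le_mul_of_nonneg_right hc (by linarith)
    have a3 : 0 ≤ w * (3 * (1 + qp 0) + 6 * (1 + qp 2)) := by positivity
    nlinarith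
  unfold cS
  have k3 : e ≤ (b + w) * ((4 + 3 * (1 + qp 0) + 6 * (1 + qp 2) +
      c * (1 + qp 0 + qp 2)) / (qm 2 - qp 0)) := by
    rw [← mul_div_assoc, le_div_iff₀ hs]
    exact k2
  linarith

/-- **the case `Λ ≤ (2 W)^c`** -/
theorem small_lam {η : ℝ} {qm qp : Fin 3 → ℝ} (hq : Pl2W102.Ex2 η qm qp) {L : ℕ → Ln4}
    {P : Finset ℕ} {u v : ℕ → ℕ} {bu bv : ℕ → Ln4} {eu ev : ℕ → Fin 3 → V3}
    {W M a Y w1 w2 z0 ρ : ℝ} (H : TCore qm qp L P u v bu bv eu ev W M a Y w1 w2 z0 ρ)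
    (hP : P.Nonempty) {j k' : ℕ} (hD : ∀ t ∈ P, Dy (eu (u t)) (ev (v t)) Y w1 w2 j k')
    (hW : W ≤ (2:ℝ) ^ j * 2 ^ k') {c : ℝ} (hc : (2:ℝ) ^ j ≤ (2 * W) ^ c) :
    (2:ℝ) ^ j * 2 ^ k' ≤ (2 * W) ^ cS qm qp c := by
  obtain ⟨t0, ht0⟩ := hP
  have h := one_core H ht0 hD hW
  have ha := H.a0
  have hY : 0 < Y := ha.trans_le H.aY
  have hw2 : 0 < w2 := hY.trans_le H.Yw
  have q0 := hq.le 0
  have q1 := hq.le 1
  have q2 := hq.le 2
  refine small_num (X := Y / a) H.W1 (one_le_pow₀ (by norm_num)) (one_le_pow₀ (by norm_num))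
    ((one_le_div ha).2 H.aY) (q0.1.trans q0.2) (q2.1.trans q2.2) q1.1 ?_ hc ?_
  · have := hq.e02
    have := hq.pos
    have := q0.1.trans q0.2
    linarith
  · have e1 : 7 * (2 ^ j * 2 ^ k' * Y) / a = 7 * (2 ^ j * 2 ^ k' * (Y / a)) := by ring
    have e2 : 56 * (2 ^ j * w2) / w2 = 56 * 2 ^ j := by field_simp
    rw [e1, e2] at h
    exact h

end Crest.Agent.R136.Cs5123
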