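import Crest.Agent.R136.Deep0_770
import Crest.Agent.R136.MkA_627
import Crest.Agent.R138.NatTw_76
import Crest.Agent.R138.ArgM1_163

/-!
# R136 (S0187), U5 TILT: class systems and deep parts of a marked sequence, counting (helper535)

Objects = pairs (line, cell of level `i`), `(J n).image (lc i)`.

* `num_clamp` : number of classes of level `u`, clamped to the cells of level `v`.
* `card_deep` : number of extended objects of level `m` of a dense part.
-/

set_option autoImplicit false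
set_option linter.unusedVariables false
set_option linter.unusedSectionVars false

open Finset Filter Topology

namespace Crest.Agent.R136.Csj535

open Crest.Agent.R138.Ex926 Crest.Agent.R138.Dp76
open Crest.Agent.R138.Mk163 (zc zl rho alive own Negl)
open Crest.Agent.R138.MkRef627 (lc kc mem_alive)
open Crest.Agent.R136.MkA627 Crest.Agent.R136.Dia770

/-! ### finite counting -/

theorem card_ge_of_fib {X Y : Type*} [DecidableEq Y] (S : Finset X) (g : X → Y) {N : ℝ}
    (h : ∀ x ∈ S, N ≤ ((S.filter fun y => g y = g x).card : ℝ)) :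
    ((S.image g).card : ℝ) * N ≤ (S.card : ℝ) := by
  have e1 : (S.card : ℝ) = ∑ c ∈ S.image g, ((S.filter fun y => g y = c).card : ℝ) := by
    rw [card_eq_sum_card_image g S]
    push_cast; rfl
  rw [e1, ← nsmul_eq_mul]
  refine card_nsmul_le_sum _ _ _ fun c hc => ?_
  obtain ⟨x, hx, rfl⟩ := mem_image.1 hc
  exact h x hx

theorem card_le_of_fib' {X Y : Type*} [DecidableEq Y] (S : Finset X) (g : X → Y) {N : ℝ}
    (h : ∀ x ∈ S, ((S.filter fun y => g y = g x).card : ℝ) ≤ N) :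
    (S.card : ℝ) ≤ ((S.image g).card : ℝ) * N := by
  have e1 : (S.card : ℝ) = ∑ c ∈ S.image g, ((S.filter fun y => g y = c).card : ℝ) := by
    rw [card_eq_sum_card_image g S]
    push_cast; rfl
  rw [e1, ← nsmul_eq_mul]
  refine sum_le_card_nsmul _ _ _ fun c hc => ?_
  obtain ⟨x, hx, rfl⟩ := mem_image.1 hc
  exact h x hx

/-- number of classes of level `i` -/
theorem card_classes {I : Finset (ℕ × ℝ)} {i : ℕ} (φ : ℕ → ℤ → ℕ) {N : ℝ}
    (h : ∀ J, ∀ t ∈ alive I i J, N ≤ (((alive I i J).filter fun s => φ s J = φ t J).card : ℝ)) :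
    (((I.image (lc i)).image fun o => (o.2, φ o.1 o.2)).card : ℝ) * N ≤
      ((I.image (lc i)).card : ℝ) := by
  classical
  refine card_ge_of_fib _ _ fun o ho => ?_
  obtain ⟨x, hx, rfl⟩ := mem_image.1 ho
  have h1 := h (zc i x.2) x.1 (mem_alive.2 ⟨x, hx, rfl, rfl⟩)
  refine h1.trans ?_
  norm_cast
  refine card_le_card_of_injOn (fun s => (s, zc i x.2)) ?_ ?_
  · intro s hs
    rw [mem_coe, mem_filter] at hs ⊢
    obtain ⟨y, hy, h2, h3⟩ := mem_alive.1 hs.1
    refine ⟨mem_image.2 ⟨y, hy, ?_⟩, ?_⟩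
    · simp only [lc, h2, h3]
    · simp only [lc, Prod.mk.injEq, true_and]
      exact hs.2
  · intro s _ s' _ hss
    exact congrArg Prod.fst hss

/-- clamping the classes of level `i` to the cells of a finer level -/
theorem card_clamp {I J : Finset (ℕ × ℝ)} {i m : ℕ} (him : i ≤ m) (hJ : J ⊆ I) (φ : ℕ → ℤ → ℕ) :
    (((J.image (lc m)).image fun o => (o.2, φ o.1 (o.2 / 2 ^ (m - i)))).card : ℝ) ≤
      2 ^ (m - i) * (((I.image (lc i)).image fun o => (o.2, φ o.1 o.2)).card : ℝ) := by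
  classical
  set k := m - i with hk
  set S := (J.image (lc m)).image fun o => (o.2, φ o.1 (o.2 / 2 ^ k)) with hS
  set R := (I.image (lc i)).image fun o => (o.2, φ o.1 o.2) with hR
  have h1 : S.card ≤ (R ×ˢ (range (2 ^ k))).card := by
    refine card_le_card_of_injOn (fun y => ((y.1 / 2 ^ k, y.2), (y.1 % 2 ^ k).toNat)) ?_ ?_
    · intro y hy
      rw [mem_coe, hS, mem_image] at hy
      obtain ⟨o, ho, rfl⟩ := hy
      obtain ⟨x, hx, rfl⟩ := mem_image.1 ho
      have h2 : 0 ≤ (lc m x).2 % 2 ^ k := Int.emod_nonneg _ (by positivity)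
      have h3 : (lc m x).2 % 2 ^ k < 2 ^ k := Int.emod_lt_of_pos _ (by positivity)
      rw [mem_coe, mem_product]
      refine ⟨?_, ?_⟩
      · rw [hR, mem_image]
        refine ⟨lc i x, mem_image_of_mem _ (hJ hx), ?_⟩
        simp only [lc]
        rw [zc_div him x.2]
      · rw [mem_range]
        zify
        rw [Int.toNat_of_nonneg h2]
        exact h3
    · intro y hy y' hy' hyy
      simp only [Prod.mk.injEq] at hyy
      obtain ⟨⟨e1, e2⟩, e3⟩ := hyy
      have h2 : 0 ≤ y.1 % 2 ^ k := Int.emod_nonneg _ (by positivity)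
      have h2' : 0 ≤ y'.1 % 2 ^ k := Int.emod_nonneg _ (by positivity)
      have e4 : y.1 % 2 ^ k = y'.1 % 2 ^ k := by
        rw [← Int.toNat_of_nonneg h2, ← Int.toNat_of_nonneg h2', e3]
      have e5 : y.1 = y'.1 := by
        rw [← Int.ediv_mul_add_emod y.1 (2 ^ k), ← Int.ediv_mul_add_emod y'.1 (2 ^ k), e1, e4]
      exact Prod.ext e5 e2
  rw [card_product, card_range] at h1
  have h2 : (S.card : ℝ) ≤ ((R.card * 2 ^ k : ℕ) : ℝ) := by exact_mod_cast h1
  push_cast at h2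
  linarith [mul_comm ((2:ℝ) ^ k) (R.card : ℝ)]

/-- objects of a coarser level -/
theorem card_lc_le {J : Finset (ℕ × ℝ)} {i m : ℕ} (him : i ≤ m) :
    ((J.image (lc m)).card : ℝ) ≤ 2 ^ (m - i) * ((J.image (lc i)).card : ℝ) := by
  classical
  set k := m - i with hk
  have h1 : (J.image (lc m)).card ≤ ((J.image (lc i)) ×ˢ (range (2 ^ k))).card := by
    refine card_le_card_of_injOn (fun y => ((y.1, y.2 / 2 ^ k), (y.2 % 2 ^ k).toNat)) ?_ ?_
    · intro y hy
      obtain ⟨x, hx, rfl⟩ := mem_image.1 (mem_coe.1 hy)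
      have h2 : 0 ≤ (lc m x).2 % 2 ^ k := Int.emod_nonneg _ (by positivity)
      have h3 : (lc m x).2 % 2 ^ k < 2 ^ k := Int.emod_lt_of_pos _ (by positivity)
      rw [mem_coe, mem_product]
      refine ⟨mem_image.2 ⟨x, hx, ?_⟩, ?_⟩
      · simp only [lc]
        rw [zc_div him x.2]
      · rw [mem_range]
        zify
        rw [Int.toNat_of_nonneg h2]
        exact h3
    · intro y hy y' hy' hyy
      simp only [Prod.mk.injEq] at hyy
      obtain ⟨⟨e1, e2⟩, e3⟩ := hyy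
      have h2 : 0 ≤ y.2 % 2 ^ k := Int.emod_nonneg _ (by positivity)
      have h2' : 0 ≤ y'.2 % 2 ^ k := Int.emod_nonneg _ (by positivity)
      have e4 : y.2 % 2 ^ k = y'.2 % 2 ^ k := by
        rw [← Int.toNat_of_nonneg h2, ← Int.toNat_of_nonneg h2', e3]
      have e5 : y.2 = y'.2 := by
        rw [← Int.ediv_mul_add_emod y.2 (2 ^ k), ← Int.ediv_mul_add_emod y'.2 (2 ^ k), e2, e4]
      exact Prod.ext e1 e5
  rw [card_product, card_range] at h1
  have h2 : ((J.image (lc m)).card : ℝ) ≤ (((J.image (lc i)).card * 2 ^ k : ℕ) : ℝ) := by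
    exact_mod_cast h1
  push_cast at h2
  linarith [mul_comm ((2:ℝ) ^ k) ((J.image (lc i)).card : ℝ)]

/-! ### the sequence -/

section

variable {σ κ : Type*} {B : Base} {I : ℕ → Finset (ℕ × ℝ)} {G : Geo σ κ} {lev : ℕ → ℚ → ℕ}
    {A : ℕ → ℝ} {c : ℝ → ℝ} {τ : κ → ℝ → ℝ} {f : ℕ → ℚ → ℕ → ℤ → ℕ} {b : ℕ → ℚ → ℕ → σ}
    {vm : ℕ → ℚ → ℝ} {w : κ → ℕ → ℚ → ℝ} {J : ℕ → Finset (ℕ × ℝ)}

theorem rpow_key (B : Base) (n : ℕ) (y : ℝ) : B.d n ^ (-y) = Real.exp (y * B.L n) := by
  rw [Real.rpow_def_of_pos (B.pos n)]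
  congr 1
  unfold Base.L
  ring

/-- length of the window in powers of `d` -/
theorem pow_lev2 {Λ : ℝ → ℝ} (h : MkA B I G lev A c Λ τ f b vm w) (u v : ℚ) (hu : 0 ≤ u)
    (huv : u ≤ v) (hv : v ≤ 1) {δ : ℝ} (hδ : 0 < δ) : ∀ᶠ n in (U : Filter ℕ),
      lev n u ≤ lev n v ∧ (2 : ℝ) ^ (lev n v - lev n u) ≤ B.d n ^ (-((v : ℝ) - u) - δ) ∧
        B.d n ^ (-((v : ℝ) - u) + δ) ≤ (2 : ℝ) ^ (lev n v - lev n u) := by
  have h1 := h.lev_lim u v hu huv hv
  have h2 := (Metric.tendsto_nhds.1 h1) δ hδ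
  filter_upwards [h2, h.lev_mono u v hu huv hv] with n hn hle
  rw [Real.dist_eq, abs_lt] at hn
  have hL := B.L_pos n
  have e1 : (2 : ℝ) ^ (lev n v - lev n u) = Real.exp (((lev n v : ℝ) - lev n u) * Real.log 2) := by
    rw [← Real.rpow_natCast, Real.rpow_def_of_pos (by norm_num : (0 : ℝ) < 2), mul_comm]
    congr 1
    rw [Nat.cast_sub hle]
  have e2 : B.d n ^ (-((v : ℝ) - u) - δ) = Real.exp ((((v : ℝ) - u) + δ) * B.L n) := by
    rw [← rpow_key]; congr 1; ring
  have e3 : B.d n ^ (-((v : ℝ) - u) + δ) = Real.exp ((((v : ℝ) - u) - δ) * B.L n) := by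
    rw [← rpow_key]; congr 1; ring
  rw [e1, e2, e3]
  refine ⟨hle, Real.exp_le_exp.2 ?_, Real.exp_le_exp.2 ?_⟩
  · have : ((lev n v : ℝ) - lev n u) * Real.log 2 / B.L n ≤ ((v : ℝ) - u) + δ := by linarith
    rwa [div_le_iff₀ hL] at this
  · have : ((v : ℝ) - u) - δ ≤ ((lev n v : ℝ) - lev n u) * Real.log 2 / B.L n := by linarith
    rwa [le_div_iff₀ hL] at this

/-- number of objects of level `u` of the whole sequence against number of incidences of a dense
part -/
theorem objs_le (h : MkA B I G lev A c (fun v => 0 * v) τ f b vm w) (hJ : Dense B J I) (u : ℚ)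
    (hu : 0 ≤ u) (hu1 : u ≤ 1) {ε : ℝ} (hε : 0 < ε) : ∀ᶠ n in (U : Filter ℕ),
      (((I n).image (lc (lev n u))).card : ℝ) * B.d n ^ (-(1 - (u : ℝ)) + ε) ≤
        ((J n).card : ℝ) := by
  classical
  have hε2 : 0 < ε / 2 := by linarith
  filter_upwards [fib_bounds h u hu hu1 hε2, hJ.2 (ε / 2) hε2] with n h1 h2
  have h3 : (((I n).image (lc (lev n u))).card : ℝ) * B.d n ^ (-(1 - (u : ℝ)) + ε / 2) ≤
      ((I n).card : ℝ) := by
    refine card_ge_of_fib _ _ fun x hx => ?_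
    have := (h1 x hx).1
    simp only [zero_mul, sub_zero, add_zero] at this
    exact this
  calc (((I n).image (lc (lev n u))).card : ℝ) * B.d n ^ (-(1 - (u : ℝ)) + ε) =
      B.d n ^ (ε / 2) * ((((I n).image (lc (lev n u))).card : ℝ) *
        B.d n ^ (-(1 - (u : ℝ)) + ε / 2)) := by
        have : B.d n ^ (-(1 - (u : ℝ)) + ε) = B.d n ^ (-(1 - (u : ℝ)) + ε / 2) * B.d n ^ (ε / 2) := by
          rw [← dpow_add]; congr 1; ring
        rw [this]; ring
    _ ≤ B.d n ^ (ε / 2) * ((I n).card : ℝ) := by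
        have := dpow_pos B n (ε / 2)
        gcongr
    _ ≤ _ := h2

/-- number of incidences against number of objects of level `v` -/
theorem inc_le (h : MkA B I G lev A c (fun v => 0 * v) τ f b vm w) (hJ : ∀ n, J n ⊆ I n) (v : ℚ)
    (hv : 0 ≤ v) (hv1 : v ≤ 1) {ε : ℝ} (hε : 0 < ε) : ∀ᶠ n in (U : Filter ℕ),
      ((J n).card : ℝ) ≤ (((J n).image (lc (lev n v))).card : ℝ) *
        B.d n ^ (-(1 - (v : ℝ)) - ε) := by
  classical
  filter_upwards [fib_bounds h v hv hv1 hε] with n h1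
  refine card_le_of_fib' _ _ fun x hx => ?_
  have h2 := (h1 x (hJ n hx)).2
  simp only [zero_mul, sub_zero, add_zero] at h2
  refine le_trans ?_ h2
  norm_cast
  exact card_le_card (filter_subset_filter _ (hJ n))

/-- **objects of two levels** -/
theorem objs_uv (h : MkA B I G lev A c (fun v => 0 * v) τ f b vm w) (hJ : Dense B J I)
    (hJ' : ∀ n, J n ⊆ I n) (u v : ℚ) (hu : 0 ≤ u) (huv : u ≤ v) (hv : v ≤ 1) {ε : ℝ} (hε : 0 < ε) :
    ∀ᶠ n in (U : Filter ℕ), (((I n).image (lc (lev n u))).card : ℝ) *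
      2 ^ (lev n v - lev n u) * B.d n ^ ε ≤ (((J n).image (lc (lev n v))).card : ℝ) := by
  have hε3 : 0 < ε / 3 := by linarith
  filter_upwards [objs_le h hJ u hu (huv.trans hv) hε3, inc_le h hJ' v (hu.trans huv) hv hε3,
    pow_lev2 h u v hu huv hv hε3] with n h1 h2 h3
  have h4 := h1.trans h2
  set a := (((I n).image (lc (lev n u))).card : ℝ) with ha
  set b' := (((J n).image (lc (lev n v))).card : ℝ) with hb'
  have ha0 : 0 ≤ a := by rw [ha]; positivity
  have p1 := dpow_pos B n (-(1 - (v : ℝ)) - ε / 3)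
  have p2 := dpow_pos B n ε
  have h5 : a * B.d n ^ (-((v : ℝ) - u) + 2 * (ε / 3)) ≤ b' := by
    have e1 : B.d n ^ (-(1 - (u : ℝ)) + ε / 3) =
        B.d n ^ (-((v : ℝ) - u) + 2 * (ε / 3)) * B.d n ^ (-(1 - (v : ℝ)) - ε / 3) := by
      rw [← dpow_add]; congr 1; ring
    rw [e1, ← mul_assoc] at h4
    exact le_of_mul_le_mul_right h4 p1
  refine le_trans ?_ h5
  rw [mul_assoc]
  refine mul_le_mul_of_nonneg_left ?_ ha0
  calc (2:ℝ) ^ (lev n v - lev n u) * B.d n ^ ε ≤ B.d n ^ (-((v : ℝ) - u) - ε / 3) * B.d n ^ ε := by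
        have := h3.2.1
        gcongr
    _ = _ := by rw [← dpow_add]; congr 1; ring

/-- **number of classes of level `u`, clamped to the cells of level `v`** -/
theorem num_clamp (h : MkA B I G lev A c (fun v => 0 * v) τ f b vm w) (hJ : Dense B J I)
    (hJ' : ∀ n, J n ⊆ I n) (u v : ℚ) (hu : 0 ≤ u) (huv : u ≤ v) (hv : v ≤ 1) {ε : ℝ} (hε : 0 < ε) :
    ∀ᶠ n in (U : Filter ℕ), ((((J n).image (lc (lev n v))).image fun o =>
      (o.2, f n u o.1 (o.2 / 2 ^ (lev n v - lev n u)))).card : ℝ) *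
        (B.d n ^ ε * (ampA B A c n u * vm n u)) ≤ (((J n).image (lc (lev n v))).card : ℝ) := by
  have hε2 : 0 < ε / 2 := by linarith
  filter_upwards [objs_uv h hJ hJ' u v hu huv hv hε2, h.near u hu (huv.trans hv) (ε / 2) hε2,
    h.lev_mono u v hu huv hv, h.vpos u hu (huv.trans hv)] with n h1 h2 h3 h4
  have hA := h.Apos n
  have hamp : 0 < ampA B A c n u := mul_pos hA (dpow_pos B n _)
  have hp := dpow_pos B n (ε / 2)
  have h5 := card_classes (I := I n) (i := lev n u) (f n u)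
    (N := B.d n ^ (ε / 2) * (ampA B A c n u * vm n u)) (fun J' t ht => by
      have h6 := h2 J' t ht
      have h7 := mul_le_mul_of_nonneg_left h6 hp.le
      rw [← mul_assoc (B.d n ^ (ε / 2)) (B.d n ^ (-(ε / 2))), ← dpow_add] at h7
      have e1 : ε / 2 + -(ε / 2) = 0 := by ring
      rw [e1, Real.rpow_zero, one_mul] at h7
      exact h7)
  have h6 := card_clamp h3 (hJ' n) (f n u)
  set C1 := ((((J n).image (lc (lev n v))).image fun o =>
      (o.2, f n u o.1 (o.2 / 2 ^ (lev n v - lev n u)))).card : ℝ) with hC1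
  set C2 := ((((I n).image (lc (lev n u))).image fun o => (o.2, f n u o.1 o.2)).card : ℝ) with hC2
  set N := B.d n ^ (ε / 2) * (ampA B A c n u * vm n u) with hN
  have hN0 : 0 < N := mul_pos hp (mul_pos hamp h4)
  have e2 : B.d n ^ ε * (ampA B A c n u * vm n u) = B.d n ^ (ε / 2) * N := by
    have : B.d n ^ ε = B.d n ^ (ε / 2) * B.d n ^ (ε / 2) := by rw [← dpow_add]; congr 1; ring
    rw [this, hN]; ring
  rw [e2]
  calc C1 * (B.d n ^ (ε / 2) * N) ≤ 2 ^ (lev n v - lev n u) * C2 * (B.d n ^ (ε / 2) * N) := by gcongr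
    _ = 2 ^ (lev n v - lev n u) * B.d n ^ (ε / 2) * (C2 * N) := by ring
    _ ≤ 2 ^ (lev n v - lev n u) * B.d n ^ (ε / 2) * (((I n).image (lc (lev n u))).card : ℝ) := by
        gcongr
    _ = _ := by ring
    _ ≤ _ := h1

end

end Crest.Agent.R136.Csj535
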