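import Crest.Agent.R136.Prn1_770

/-!
# R136 (S0187), U5 TILT: deep parts over a prescribed set of objects (helper535)

* `children` : with full shading every object of level `i` has at least `a 2^(m-i)` descendants.
* `part_over_fin` : parts of two deep levels over a set `O'` of objects of level `i`.
* `part_over` : sequence form.
-/

set_option autoImplicit false
set_option linter.unusedVariables false
set_option linter.unusedSectionVars false

open Finset Filter Topology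

namespace Crest.Agent.R136.Csj535

open Crest.Agent.R138.Ex926 Crest.Agent.R138.Dp76
open Crest.Agent.R138.Mk163 (zc zl rho alive own Negl)
open Crest.Agent.R138.MkRef627 (lc kc mem_alive)
open Crest.Agent.R136.Dia770

open Classical in
/-- **number of descendants of an object** -/
theorem children {J : Finset (ℕ × ℝ)} {l0 l1 : ℕ}
    (one : ∀ x ∈ J, ∀ y ∈ J, x.1 = y.1 → zc l1 x.2 = zc l1 y.2 → x = y) {a : ℝ} (ha : 0 < a)
    (ha1 : a ≤ 1) (hown : ∀ i, l0 ≤ i → i ≤ l1 → ∀ x ∈ J,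
      a * 2 ^ (l1 - i) ≤ ((own J i l1 x).card : ℝ)) {i m : ℕ} (h0 : l0 ≤ i) (him : i ≤ m)
    {o : ℕ × ℤ} (ho : o ∈ extO J l1 i) :
    a * 2 ^ (m - i) ≤ (((extO J l1 m).filter fun x => par (m - i) x = o).card : ℝ) := by
  rcases le_total i l1 with h1 | h1
  · -- restrict to the incidences of the object
    obtain ⟨x, hx, hxo⟩ := (mem_extO_le h1).1 ho
    set J' := J.filter fun y => lc i y = o with hJ'
    have hsub : J' ⊆ J := filter_subset _ _
    have hownE : ∀ i', i ≤ i' → i' ≤ l1 → ∀ y ∈ J', own J' i' l1 y = own J i' l1 y := by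
      intro i' hi' hi1 y hy
      unfold own
      congr 1
      ext z
      simp only [mem_filter, hJ']
      constructor
      · rintro ⟨⟨hz, -⟩, hz2⟩; exact ⟨hz, hz2⟩
      · rintro ⟨hz, hz2, hz3⟩
        refine ⟨⟨hz, ?_⟩, hz2, hz3⟩
        have hyo := (mem_filter.1 hy).2
        rw [← hyo]
        simp only [lc, Prod.mk.injEq]
        refine ⟨hz2, ?_⟩
        rw [zc_div hi', zc_div hi', hz3]
    have h2 := ext_full (J := J') (l0 := i) (l1 := l1)
      (fun x hx y hy => one x (hsub hx) y (hsub hy)) ha ha1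
      (fun i' hi' hi1 y hy => by
        rw [hownE i' hi' hi1 y hy]
        exact hown i' (h0.trans hi') hi1 y (hsub hy)) le_rfl him
    have h3 : (extO J' l1 i).card = 1 := by
      rw [card_eq_one]
      refine ⟨o, ?_⟩
      ext p
      rw [mem_extO_le h1, mem_singleton]
      constructor
      · rintro ⟨y, hy, rfl⟩; exact (mem_filter.1 hy).2
      · rintro rfl; exact ⟨x, mem_filter.2 ⟨hx, hxo⟩, hxo⟩
    rw [h3, Nat.cast_one, mul_one] at h2
    refine h2.trans ?_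
    norm_cast
    refine card_le_card fun p hp => ?_
    rw [mem_filter]
    refine ⟨extO_mono hsub l1 m hp, ?_⟩
    have h4 := par_mem him hp
    have h5 : extO J' l1 i = {o} := by
      obtain ⟨b, hb⟩ := card_eq_one.1 h3
      have : o ∈ extO J' l1 i := (mem_extO_le h1).2 ⟨x, mem_filter.2 ⟨hx, hxo⟩, hxo⟩
      rw [hb, mem_singleton] at this
      rw [hb, this]
    rw [h5, mem_singleton] at h4
    exact h4
  · -- below the top: all sub-cells
    have hm : l1 ≤ m := h1.trans him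
    obtain ⟨x, hx, hxo⟩ := (mem_extO_ge h1).1 ho
    have h2 : (Finset.Ico (o.2 * 2 ^ (m - i)) (o.2 * 2 ^ (m - i) + 2 ^ (m - i))).image
        (fun j => (o.1, j)) ⊆ (extO J l1 m).filter fun x => par (m - i) x = o := by
      intro p hp
      obtain ⟨j, hj, rfl⟩ := mem_image.1 hp
      rw [ico_div] at hj
      rw [mem_filter, mem_extO_ge hm]
      refine ⟨⟨x, hx, ?_⟩, ?_⟩
      · rw [hxo]
        simp only [Prod.mk.injEq, true_and]
        rw [← hj, Int.ediv_ediv_of_nonneg (by positivity), ← pow_add]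
        congr 2; omega
      · simp only [par, hj]
    have h3 := card_le_card h2
    rw [card_image_of_injective _ (fun a b h => (Prod.mk.inj h).2), Int.card_Ico] at h3
    have e2 : o.2 * 2 ^ (m - i) + 2 ^ (m - i) - o.2 * 2 ^ (m - i) = ((2 ^ (m - i) : ℕ) : ℤ) := by
      push_cast; ring
    rw [e2, Int.toNat_natCast] at h3
    have h4 : ((2 ^ (m - i) : ℕ) : ℝ) ≤
        (((extO J l1 m).filter fun x => par (m - i) x = o).card : ℝ) := by exact_mod_cast h3
    push_cast at h4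
    refine le_trans ?_ h4
    have : (0:ℝ) < 2 ^ (m - i) := by positivity
    nlinarith

open Classical in
/-- descendants of a set of objects -/
theorem over_ge {J : Finset (ℕ × ℝ)} {l0 l1 : ℕ}
    (one : ∀ x ∈ J, ∀ y ∈ J, x.1 = y.1 → zc l1 x.2 = zc l1 y.2 → x = y) {a : ℝ} (ha : 0 < a)
    (ha1 : a ≤ 1) (hown : ∀ i, l0 ≤ i → i ≤ l1 → ∀ x ∈ J,
      a * 2 ^ (l1 - i) ≤ ((own J i l1 x).card : ℝ)) {i m : ℕ} (h0 : l0 ≤ i) (him : i ≤ m)
    {O' : Finset (ℕ × ℤ)} (hO : O' ⊆ extO J l1 i) :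
    a * 2 ^ (m - i) * (O'.card : ℝ) ≤
      (((extO J l1 m).filter fun x => par (m - i) x ∈ O').card : ℝ) := by
  have h1 : ∀ x ∈ (extO J l1 m).filter (fun x => par (m - i) x ∈ O'), par (m - i) x ∈ O' :=
    fun x hx => (mem_filter.1 hx).2
  rw [card_eq_sum_card_fiberwise h1]
  push_cast
  rw [mul_comm, ← nsmul_eq_mul]
  refine card_nsmul_le_sum _ _ _ fun o ho => ?_
  refine (children one ha ha1 hown h0 him (hO ho)).trans ?_
  norm_cast
  refine card_le_card fun x hx => ?_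
  obtain ⟨h2, h3⟩ := mem_filter.1 hx
  rw [mem_filter, mem_filter]
  exact ⟨⟨h2, by rw [h3]; exact ho⟩, h3⟩

open Classical in
/-- **parts of deep levels over a set of objects**, finite form -/
theorem part_over_fin {J : Finset (ℕ × ℝ)} {l0 l1 : ℕ}
    (one : ∀ x ∈ J, ∀ y ∈ J, x.1 = y.1 → zc l1 x.2 = zc l1 y.2 → x = y) {a X γ : ℝ} (ha : 0 < a)
    (ha1 : a ≤ 1) (hown : ∀ i, l0 ≤ i → i ≤ l1 → ∀ x ∈ J,
      a * 2 ^ (l1 - i) ≤ ((own J i l1 x).card : ℝ)) {i m2 m : ℕ} (h0 : l0 ≤ i) (h2 : i ≤ m2)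
    (hm : m2 ≤ m) {O' P1 P2 : Finset (ℕ × ℤ)} (hO : O' ⊆ extO J l1 i) (hγ : 0 ≤ γ)
    (hX : ((extO J l1 i).card : ℝ) ≤ X * (O'.card : ℝ)) (hγX : 4 * (γ * X) ≤ a)
    (hP1 : P1 ⊆ extO J l1 m)
    (hP1c : ((extO J l1 m).card : ℝ) ≤ P1.card + γ * (extO J l1 m).card)
    (hP2 : P2 ⊆ extO J l1 m2)
    (hP2c : ((extO J l1 m2).card : ℝ) ≤ P2.card + γ * (extO J l1 m2).card) :
    a / 2 * ((O'.card : ℝ) * 2 ^ (m - i)) ≤
      ((P1.filter fun x => par (m - i) x ∈ O' ∧ par (m - m2) x ∈ P2).card : ℝ) := by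
  set E := extO J l1 m with hE
  set E2 := extO J l1 m2 with hE2
  set Ei := extO J l1 i with hEi
  set Z := E.filter fun x => par (m - i) x ∈ O' with hZ
  set P := P1.filter fun x => par (m - i) x ∈ O' ∧ par (m - m2) x ∈ P2 with hP
  have h1 := over_ge one ha ha1 hown h0 (h2.trans hm) hO
  rw [← hE] at h1
  -- what is lost
  have h3 : Z ⊆ P ∪ ((E \ P1) ∪ E.filter fun x => par (m - m2) x ∈ E2 \ P2) := by
    intro x hx
    obtain ⟨hxE, hxO⟩ := mem_filter.1 hx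
    rw [mem_union, mem_union]
    by_cases c1 : x ∈ P1
    · by_cases c2 : par (m - m2) x ∈ P2
      · left
        rw [hP, mem_filter]
        exact ⟨c1, hxO, c2⟩
      · right; right
        rw [mem_filter]
        exact ⟨hxE, mem_sdiff.2 ⟨par_mem hm hxE, c2⟩⟩
    · right; left
      exact mem_sdiff.2 ⟨hxE, c1⟩
  have h4 := (card_le_card h3).trans ((card_union_le _ _).trans
    (Nat.add_le_add_left (card_union_le _ _) _))
  have h5 : (Z.card : ℝ) ≤ P.card + ((E \ P1).card +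
      (E.filter fun x => par (m - m2) x ∈ E2 \ P2).card) := by exact_mod_cast h4
  have h6 : ((E \ P1).card : ℝ) ≤ γ * E.card := by
    rw [card_sdiff_of_subset hP1, Nat.cast_sub (card_le_card hP1)]
    linarith
  have h7 : ((E2 \ P2).card : ℝ) ≤ γ * E2.card := by
    rw [card_sdiff_of_subset hP2, Nat.cast_sub (card_le_card hP2)]
    linarith
  have h8 : ((E.filter fun x => par (m - m2) x ∈ E2 \ P2).card : ℝ) ≤
      2 ^ (m - m2) * ((E2 \ P2).card : ℝ) := by exact_mod_cast card_over E (E2 \ P2) (m - m2)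
  have up : ∀ m', i ≤ m' → ((extO J l1 m').card : ℝ) ≤ 2 ^ (m' - i) * (Ei.card : ℝ) := by
    intro m' hm'
    have e1 : (extO J l1 m').filter (fun x => par (m' - i) x ∈ Ei) = extO J l1 m' :=
      filter_true_of_mem fun x hx => par_mem hm' hx
    have := card_over (extO J l1 m') Ei (m' - i)
    rw [e1] at this
    exact_mod_cast this
  have hE1 := up m (h2.trans hm)
  have hE21 := up m2 h2
  rw [← hE] at hE1
  rw [← hE2] at hE21
  have hpw : (2:ℝ) ^ (m - m2) * 2 ^ (m2 - i) = 2 ^ (m - i) := by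
    rw [← pow_add]; congr 1; omega
  set W := (2:ℝ) ^ (m - i) with hW
  have hWp : 0 < W := by positivity
  have h9 : γ * (E.card : ℝ) ≤ W * (γ * (X * O'.card)) := by
    calc γ * (E.card : ℝ) ≤ γ * (W * (Ei.card : ℝ)) := by gcongr
      _ ≤ γ * (W * (X * O'.card)) := by gcongr
      _ = _ := by ring
  have h10 : 2 ^ (m - m2) * ((E2 \ P2).card : ℝ) ≤ W * (γ * (X * O'.card)) := by
    calc 2 ^ (m - m2) * ((E2 \ P2).card : ℝ) ≤ 2 ^ (m - m2) * (γ * E2.card) := by gcongr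
      _ ≤ 2 ^ (m - m2) * (γ * (2 ^ (m2 - i) * (Ei.card : ℝ))) := by gcongr
      _ = (2 ^ (m - m2) * 2 ^ (m2 - i)) * (γ * (Ei.card : ℝ)) := by ring
      _ = W * (γ * (Ei.card : ℝ)) := by rw [hpw]
      _ ≤ _ := by gcongr
  have h11 : W * (γ * (X * O'.card)) ≤ W * (a / 4 * O'.card) := by
    have : γ * (X * O'.card) ≤ a / 4 * O'.card := by
      calc γ * (X * (O'.card : ℝ)) = (γ * X) * O'.card := by ring
        _ ≤ a / 4 * O'.card := mul_le_mul_of_nonneg_right (by linarith) (by positivity)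
    gcongr
  have h12 : a * W * (O'.card : ℝ) ≤ P.card + 2 * (W * (a / 4 * O'.card)) := by
    refine h1.trans (h5.trans ?_)
    linarith
  calc a / 2 * ((O'.card : ℝ) * W) = a * W * (O'.card : ℝ) - 2 * (W * (a / 4 * O'.card)) := by ring
    _ ≤ _ := by linarith

/-- **parts of two deep levels over a set of objects of level `i n`**, sequence form: `P2 n`, `P1 n` =
output of `DeepP` at the levels `m2 n ≤ m n`. -/
theorem part_over (B : Base) {J : ℕ → Finset (ℕ × ℝ)} {l0 l1 i m2 m : ℕ → ℕ}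
    (one : ∀ᶠ n in (U : Filter ℕ), ∀ x ∈ J n, ∀ y ∈ J n, x.1 = y.1 →
      zc (l1 n) x.2 = zc (l1 n) y.2 → x = y) (hfull : FullO B J l0 l1)
    (hi : ∀ᶠ n in (U : Filter ℕ), l0 n ≤ i n) (h2 : ∀ᶠ n in (U : Filter ℕ), i n ≤ m2 n)
    (hm : ∀ᶠ n in (U : Filter ℕ), m2 n ≤ m n) {O' P1 P2 : ℕ → Finset (ℕ × ℤ)}
    (hO : ∀ n, O' n ⊆ extO (J n) (l1 n) (i n))
    (hX : ∀ ε : ℝ, 0 < ε → ∀ᶠ n in (U : Filter ℕ),
      B.d n ^ ε * ((extO (J n) (l1 n) (i n)).card : ℝ) ≤ ((O' n).card : ℝ))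
    (hP1 : ∀ n, P1 n ⊆ extO (J n) (l1 n) (m n))
    (hP1c : ∃ γ : ℝ, 0 < γ ∧ ∀ᶠ n in (U : Filter ℕ), ((extO (J n) (l1 n) (m n)).card : ℝ) ≤
      (P1 n).card + B.d n ^ γ * (extO (J n) (l1 n) (m n)).card)
    (hP2 : ∀ n, P2 n ⊆ extO (J n) (l1 n) (m2 n))
    (hP2c : ∃ γ : ℝ, 0 < γ ∧ ∀ᶠ n in (U : Filter ℕ), ((extO (J n) (l1 n) (m2 n)).card : ℝ) ≤
      (P2 n).card + B.d n ^ γ * (extO (J n) (l1 n) (m2 n)).card)
    {ε : ℝ} (hε : 0 < ε) : ∀ᶠ n in (U : Filter ℕ),
      B.d n ^ ε * (((O' n).card : ℝ) * 2 ^ (m n - i n)) ≤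
        (((P1 n).filter fun x => par (m n - i n) x ∈ O' n ∧ par (m n - m2 n) x ∈ P2 n).card : ℝ) := by
  classical
  obtain ⟨γ1, hγ1, hc1⟩ := hP1c
  obtain ⟨γ2, hγ2, hc2⟩ := hP2c
  set δ : ℝ := min (ε / 2) (min γ1 γ2 / 4) with hδ
  have hδ0 : 0 < δ := lt_min (by linarith) (by have := lt_min hγ1 hγ2; linarith)
  have hδε : δ ≤ ε / 2 := min_le_left _ _
  have hδγ : 4 * δ ≤ min γ1 γ2 := by
    have : δ ≤ min γ1 γ2 / 4 := min_le_right _ _
    linarith
  have hsmall : ∀ᶠ n in (U : Filter ℕ), (4:ℝ) * B.d n ^ δ ≤ 1 := by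
    filter_upwards [B.ev_L_ge (Real.log 4 / δ)] with n hn
    have h1 : B.d n ^ δ = Real.exp (-(δ * B.L n)) := by
      rw [Real.rpow_def_of_pos (B.pos n)]
      congr 1
      unfold Base.L
      ring
    rw [div_le_iff₀ hδ0] at hn
    rw [h1]
    nth_rewrite 1 [← Real.exp_log (show (0:ℝ) < 4 by norm_num)]
    rw [← Real.exp_add]
    exact Real.exp_le_one_iff.2 (by nlinarith)
  filter_upwards [one, hfull δ hδ0, hi, h2, hm, hX δ hδ0, hc1, hc2, hsmall] with n one hfull hi h2 hm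
    hX hc1 hc2 hs
  have hd0 := B.pos n
  have hd1 := (B.lt n).le
  have pδ := dpow_pos B n δ
  have hg1 : B.d n ^ γ1 ≤ B.d n ^ (4 * δ) :=
    Real.rpow_le_rpow_of_exponent_ge hd0 hd1 (hδγ.trans (min_le_left _ _))
  have hg2 : B.d n ^ γ2 ≤ B.d n ^ (4 * δ) :=
    Real.rpow_le_rpow_of_exponent_ge hd0 hd1 (hδγ.trans (min_le_right _ _))
  have key := part_over_fin (J := J n) (l0 := l0 n) (l1 := l1 n) one (a := B.d n ^ δ)
    (X := B.d n ^ (-δ)) (γ := B.d n ^ (4 * δ)) pδ (Real.rpow_le_one hd0.le hd1 hδ0.le)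
    (fun i' a b x hx => hfull i' a b x hx) hi h2 hm (O' := O' n) (P1 := P1 n) (P2 := P2 n) (hO n)
    (dpow_pos B n _).le (by
      have e1 : B.d n ^ (-δ) * B.d n ^ δ = 1 := by rw [← dpow_add]; simp
      calc ((extO (J n) (l1 n) (i n)).card : ℝ) =
            B.d n ^ (-δ) * (B.d n ^ δ * ((extO (J n) (l1 n) (i n)).card : ℝ)) := by
              rw [← mul_assoc, e1, one_mul]
        _ ≤ _ := mul_le_mul_of_nonneg_left hX (dpow_pos B n _).le) (by
      have e1 : B.d n ^ (4 * δ) * B.d n ^ (-δ) = B.d n ^ δ * B.d n ^ δ * B.d n ^ δ := by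
        rw [← dpow_add, ← dpow_add, ← dpow_add]; congr 1; ring
      rw [e1]
      have h1 : B.d n ^ δ ≤ 1 := Real.rpow_le_one hd0.le hd1 hδ0.le
      have h3 : (4 * B.d n ^ δ) * (B.d n ^ δ * B.d n ^ δ) ≤ 1 * (B.d n ^ δ * B.d n ^ δ) := by gcongr
      have h4 : B.d n ^ δ * B.d n ^ δ ≤ B.d n ^ δ * 1 := by gcongr
      linarith) (hP1 n)
    (hc1.trans (by gcongr)) (hP2 n) (hc2.trans (by gcongr))
  refine le_trans (mul_le_mul_of_nonneg_right ?_ (by positivity)) key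
  have e1 : B.d n ^ ε ≤ B.d n ^ (2 * δ) :=
    Real.rpow_le_rpow_of_exponent_ge hd0 hd1 (by linarith)
  have e2 : B.d n ^ (2 * δ) = B.d n ^ δ * B.d n ^ δ := by rw [← dpow_add]; congr 1; ring
  rw [e2] at e1
  have h3 : (4 * B.d n ^ δ) * B.d n ^ δ ≤ 1 * B.d n ^ δ := by gcongr
  linarith

end Crest.Agent.R136.Csj535
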