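import Crest.Agent.R136.Fm3_808
import Crest.Agent.R136.MkA_627

/-!
# R136 (S0187): flat tilt, facts of the marked sequence (helper808)
-/

set_option autoImplicit false
set_option linter.unusedVariables false
set_option linter.unusedSectionVars false

namespace Crest.Agent.R136.Fl808

open Finset Filter Topology Crest.Agent.R136.Sh605
open Crest.Agent.R138.Ex926 (Base U)
open Crest.Agent.R138.Dp76 (Dense dpow_pos dpow_add dpow_le dpow_le_one)
open Crest.Agent.R138.Mk163 (zc zl rho alive own Negl)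
open Crest.Agent.R138.MkRef627 (lc mem_alive card_class)
open Crest.Agent.R136.K4 (Plk4)
open Crest.Agent.R136.MkA627
open Crest.Agent.R136.Dia770 (extO)

/-- what is used of the geometry -/
structure GeoOk (G : Geo Plk4 (Fin 3)) (L : ℕ → ℕ → Ln4) (r0 : ℕ → ℝ) (q : Fin 3 → ℝ) : Prop where
  mem : ∀ n i J s t, G.mem n i J s t → InSheet (L n t) s.e s.c s.w s.q s.a (zl i J) (rho i)
  adm : ∀ n i J s, G.adm n i J s →
    ShN s.e s.c s.w s.q s.a (zl i J) (rho i) (r0 n) ∧ s.w 1 ≤ rho i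
  val : ∀ n i J s, G.val n i J s = s.a * s.w 2 * s.w 1 *
    ((s.a / rho i) ^ q 0 * (s.w 1 / rho i) ^ q 1 * (s.w 2 / rho i) ^ q 2)
  wid : ∀ k s, G.wid k s = ![s.a, s.w 1, s.w 2] k

theorem val_eq {a w1 w2 ρ q0 q1 q2 : ℝ} (ha : 0 < a) (h1 : 0 < w1) (h2 : 0 < w2) (hρ : 0 < ρ) :
    a * w2 * w1 * ((a / ρ) ^ q0 * (w1 / ρ) ^ q1 * (w2 / ρ) ^ q2) =
      capB q0 q1 q2 a w1 w2 * ρ ^ (-(q0 + q1 + q2)) := by
  unfold capB
  rw [Real.div_rpow ha.le hρ.le, Real.div_rpow h1.le hρ.le, Real.div_rpow h2.le hρ.le,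
    Real.rpow_add ha, Real.rpow_add h1, Real.rpow_add h2, Real.rpow_one, Real.rpow_one,
    Real.rpow_one, Real.rpow_neg hρ.le, Real.rpow_add hρ, Real.rpow_add hρ]
  field_simp

/-! ### exponents -/

theorem dpow_exp (B : Base) (n : ℕ) (x : ℝ) : B.d n ^ x = Real.exp (-(x * B.L n)) := by
  rw [Real.rpow_def_of_pos (B.pos n)]
  congr 1
  unfold Base.L
  ring

theorem le_dpow {B : Base} {n : ℕ} {x y : ℝ} (hy : 0 < y) (h : Real.log y ≤ -(x * B.L n)) :
    y ≤ B.d n ^ x := by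
  rw [dpow_exp, ← Real.log_le_iff_le_exp hy]; exact h

theorem dpow_le' {B : Base} {n : ℕ} {x y : ℝ} (hy : 0 < y) (h : -(x * B.L n) ≤ Real.log y) :
    B.d n ^ x ≤ y := by
  rw [dpow_exp, ← Real.le_log_iff_exp_le hy]; exact h

/-- constants are small powers -/
theorem const_le (B : Base) (C : ℝ) {ε : ℝ} (hε : 0 < ε) :
    ∀ᶠ n in (U : Filter ℕ), C ≤ B.d n ^ (-ε) := by
  filter_upwards [B.ev_L_ge (Real.log (max C 1) / ε)] with n hn
  refine (le_max_left C 1).trans (le_dpow (lt_of_lt_of_le one_pos (le_max_right _ _)) ?_)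
  rw [div_le_iff₀ hε] at hn
  linarith

section

variable {B : Base} {I : ℕ → Finset (ℕ × ℝ)} {G : Geo Plk4 (Fin 3)} {lev : ℕ → ℚ → ℕ}
    {A : ℕ → ℝ} {g : ℝ} {θ : Fin 3 → ℝ} {f : ℕ → ℚ → ℕ → ℤ → ℕ} {b : ℕ → ℚ → ℕ → Plk4}
    {vm : ℕ → ℚ → ℝ} {w : Fin 3 → ℕ → ℚ → ℝ} {L : ℕ → ℕ → Ln4} {r0 : ℕ → ℝ} {q : Fin 3 → ℝ}

/-- the class of sequences considered -/
abbrev MkF (B : Base) (I : ℕ → Finset (ℕ × ℝ)) (G : Geo Plk4 (Fin 3)) (lev : ℕ → ℚ → ℕ)
    (A : ℕ → ℝ) (g : ℝ) (θ : Fin 3 → ℝ) (f : ℕ → ℚ → ℕ → ℤ → ℕ) (b : ℕ → ℚ → ℕ → Plk4)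
    (vm : ℕ → ℚ → ℝ) (w : Fin 3 → ℕ → ℚ → ℝ) : Prop :=
  MkA B I G lev A (fun v => g * v) (fun v => 0 * v) (fun j v => θ j * (1 - v)) f b vm w

/-- (S1) number of cells between two levels -/
theorem lev_pow (h : MkF B I G lev A g θ f b vm w) {u v : ℚ} (hu : 0 ≤ u) (huv : u ≤ v)
    (hv : v ≤ 1) {ε : ℝ} (hε : 0 < ε) : ∀ᶠ n in (U : Filter ℕ), lev n u ≤ lev n v ∧
      (2:ℝ) ^ (lev n v - lev n u) ≤ B.d n ^ (-((v:ℝ) - u) - ε) ∧
      B.d n ^ (-((v:ℝ) - u) + ε) ≤ (2:ℝ) ^ (lev n v - lev n u) := by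
  have h1 := (Metric.tendsto_nhds.1 (h.lev_lim u v hu huv hv)) ε hε
  filter_upwards [h.lev_mono u v hu huv hv, h1] with n hn h2
  have hL := B.L_pos n
  rw [Real.dist_eq, abs_lt] at h2
  have e1 : ((lev n v - lev n u : ℕ) : ℝ) = (lev n v : ℝ) - lev n u := by
    rw [Nat.cast_sub hn]
  have e2 : Real.log ((2:ℝ) ^ (lev n v - lev n u)) = ((lev n v : ℝ) - lev n u) * Real.log 2 := by
    rw [Real.log_pow, e1]
  have e3 : ((lev n v : ℝ) - lev n u) * Real.log 2 / B.L n * B.L n =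
      ((lev n v : ℝ) - lev n u) * Real.log 2 := by field_simp
  refine ⟨hn, le_dpow (by positivity) ?_, dpow_le' (by positivity) ?_⟩
  · rw [e2, ← e3]
    nlinarith
  · rw [e2, ← e3]
    nlinarith

/-- `2^(level difference)` and lengths of cells -/
theorem rho_two {i j : ℕ} (h : i ≤ j) : rho i = rho j * 2 ^ (j - i) := by
  have := rho_add i (j - i)
  rw [← this]
  congr 2
  omega

/-- (S2) comparable widths -/
theorem wid_comp (h : MkF B I G lev A g θ f b vm w) (j : Fin 3) {u v : ℚ} (hu : 0 ≤ u)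
    (huv : u ≤ v) (hv : v ≤ 1) {ε : ℝ} (hε : 0 < ε) : ∀ᶠ n in (U : Filter ℕ),
      w j n u ≤ B.d n ^ (-((|θ j| + 1) * ((v:ℝ) - u)) - ε) * w j n v ∧
      w j n v ≤ B.d n ^ (-((|θ j| + 1) * ((v:ℝ) - u)) - ε) * w j n u := by
  have hε4 : 0 < ε / 4 := by linarith
  have t1 := (Metric.tendsto_nhds.1 (h.tau j u hu (huv.trans hv))) _ hε4
  have t2 := (Metric.tendsto_nhds.1 (h.tau j v (hu.trans huv) hv)) _ hε4
  filter_upwards [lev_pow h hu huv hv hε4, t1, t2, h.wpos j u hu (huv.trans hv),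
    h.wpos j v (hu.trans huv) hv, h.wpos j 1 zero_le_one le_rfl] with n hl h1 h2 pu pv p1
  obtain ⟨hmono, hl1, hl2⟩ := hl
  have hL := B.L_pos n
  have hvu : (0:ℝ) ≤ (v:ℝ) - u := by
    have : (u:ℝ) ≤ v := by exact_mod_cast huv
    linarith
  rw [Real.dist_eq, abs_lt] at h1 h2
  have ru := rho_pos (lev n u)
  have rv := rho_pos (lev n v)
  have r1 := rho_pos (lev n 1)
  -- logarithms
  have lU : Real.log ((rho (lev n u) / w j n u) / (rho (lev n 1) / w j n 1)) =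
      Real.log (rho (lev n u)) - Real.log (w j n u) - (Real.log (rho (lev n 1)) -
        Real.log (w j n 1)) := by
    rw [Real.log_div (by positivity) (by positivity), Real.log_div (by positivity) (by positivity),
      Real.log_div (by positivity) (by positivity)]
  have lV : Real.log ((rho (lev n v) / w j n v) / (rho (lev n 1) / w j n 1)) =
      Real.log (rho (lev n v)) - Real.log (w j n v) - (Real.log (rho (lev n 1)) -
        Real.log (w j n 1)) := by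
    rw [Real.log_div (by positivity) (by positivity), Real.log_div (by positivity) (by positivity),
      Real.log_div (by positivity) (by positivity)]
  rw [lU] at h1
  rw [lV] at h2
  have lρ : Real.log (rho (lev n u)) = Real.log (rho (lev n v)) +
      Real.log ((2:ℝ) ^ (lev n v - lev n u)) := by
    rw [rho_two hmono, Real.log_mul (by positivity) (by positivity)]
  have k1 : Real.log ((2:ℝ) ^ (lev n v - lev n u)) ≤ ((v:ℝ) - u + ε / 4) * B.L n := by
    have := Real.log_le_log (by positivity) hl1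
    rw [dpow_exp, Real.log_exp] at this
    linarith
  have k2 : 0 ≤ Real.log ((2:ℝ) ^ (lev n v - lev n u)) :=
    Real.log_nonneg (one_le_pow₀ (by norm_num))
  set x := Real.log (rho (lev n u)) - Real.log (w j n u) - (Real.log (rho (lev n 1)) -
        Real.log (w j n 1)) with hx
  set y := Real.log (rho (lev n v)) - Real.log (w j n v) - (Real.log (rho (lev n 1)) -
        Real.log (w j n 1)) with hy
  have ex : x / B.L n * B.L n = x := by field_simp
  have ey : y / B.L n * B.L n = y := by field_simp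
  have hxy : Real.log (w j n v) - Real.log (w j n u) =
      x - y - Real.log ((2:ℝ) ^ (lev n v - lev n u)) := by
    rw [hx, hy, lρ]; ring
  have hab := abs_nonneg (θ j)
  have hθ : -(|θ j| * ((v:ℝ) - u)) ≤ θ j * ((v:ℝ) - u) ∧
      θ j * ((v:ℝ) - u) ≤ |θ j| * ((v:ℝ) - u) := by
    constructor
    · have := neg_abs_le (θ j); nlinarith
    · have := le_abs_self (θ j); nlinarith
  have hxy1 : |x - y| ≤ (|θ j| * ((v:ℝ) - u) + ε / 2) * B.L n := by
    rw [← ex, ← ey, ← sub_mul, abs_mul, abs_of_pos hL]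
    refine mul_le_mul_of_nonneg_right ?_ hL.le
    rw [abs_le]
    constructor <;> linarith [hθ.1, hθ.2, h1.1, h1.2, h2.1, h2.2]
  rw [abs_le] at hxy1
  have hmain : |Real.log (w j n v) - Real.log (w j n u)| ≤
      ((|θ j| + 1) * ((v:ℝ) - u) + ε) * B.L n := by
    have hεL : 0 ≤ ε * B.L n := by positivity
    have hvL : 0 ≤ ((v:ℝ) - u) * B.L n := by positivity
    obtain ⟨c1, c2⟩ := hxy1
    rw [hxy, abs_le]
    generalize Real.log ((2:ℝ) ^ (lev n v - lev n u)) = P at *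
    generalize B.L n = Ln at *
    generalize (v:ℝ) - u = vu at *
    generalize |θ j| = T at *
    constructor
    · linarith
    · linarith
  rw [abs_le] at hmain
  have hd : 0 < B.d n ^ (-((|θ j| + 1) * ((v:ℝ) - u)) - ε) := dpow_pos B n _
  have ld : Real.log (B.d n ^ (-((|θ j| + 1) * ((v:ℝ) - u)) - ε)) =
      ((|θ j| + 1) * ((v:ℝ) - u) + ε) * B.L n := by
    rw [dpow_exp, Real.log_exp]; ring
  constructor
  · rw [← Real.log_le_log_iff pu (by positivity), Real.log_mul hd.ne' pv.ne', ld]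
    linarith [hmain.1]
  · rw [← Real.log_le_log_iff pv (by positivity), Real.log_mul hd.ne' pu.ne', ld]
    linarith [hmain.2]

/-- (S3) dimensions of the marks -/
theorem dims (h : MkF B I G lev A g θ f b vm w) (hG : GeoOk G L r0 q) (hr0 : ∀ n, 0 < r0 n) {v : ℚ}
    (hv0 : 0 ≤ v) (hv1 : v ≤ 1) : ∀ᶠ n in (U : Filter ℕ),
      r0 n ≤ w 0 n v ∧ w 0 n v ≤ w 2 n v ∧ w 2 n v ≤ w 1 n v ∧ w 1 n v ≤ rho (lev n v) ∧
      vm n v = capB (q 0) (q 1) (q 2) (w 0 n v) (w 1 n v) (w 2 n v) *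
        rho (lev n v) ^ (-(q 0 + q 1 + q 2)) := by
  filter_upwards [h.ne, h.mark v hv0 hv1] with n hne hm
  obtain ⟨x, hx⟩ := hne
  have hal : x.1 ∈ alive (I n) (lev n v) (zc (lev n v) x.2) := mem_alive.2 ⟨x, hx, rfl, rfl⟩
  obtain ⟨m1, m2, m3, m4⟩ := hm _ _ hal
  obtain ⟨a1, a2⟩ := hG.adm _ _ _ _ m2
  have w0 := m4 0
  have w1 := m4 1
  have w2 := m4 2
  rw [hG.wid] at w0 w1 w2
  simp only [Matrix.cons_val_zero, Matrix.cons_val_one, Matrix.cons_val] at w0 w1 w2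
  have p0 : 0 < w 0 n v := by rw [← w0]; exact (hr0 n).trans_le a1.r0_le
  have e0 : w 0 n v ≤ w 2 n v := by rw [← w0, ← w2]; exact a1.a_le
  have e1 : w 2 n v ≤ w 1 n v := by rw [← w1, ← w2]; exact a1.w_le
  refine ⟨by rw [← w0]; exact a1.r0_le, e0, e1, by rw [← w1]; exact a2, ?_⟩
  rw [← m3, hG.val, w0, w1, w2]
  exact val_eq p0 ((p0.trans_le e0).trans_le e1) (p0.trans_le e0) (rho_pos _)

/-- flat marks -/
def FlatE (I : ℕ → Finset (ℕ × ℝ)) (lev : ℕ → ℚ → ℕ) (f : ℕ → ℚ → ℕ → ℤ → ℕ)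
    (b : ℕ → ℚ → ℕ → Plk4) : Prop :=
  ∀ v : ℚ, 0 ≤ v → v ≤ 1 → ∀ᶠ n in (U : Filter ℕ), ∀ J : ℤ, ∀ t ∈ alive (I n) (lev n v) J,
    ∀ z x, (b n v (f n v t J)).q z x =
      dt ((b n v (f n v t J)).e 0) (x - (b n v (f n v t J)).c.pos z)

/-- (S4) the marks of a level are a system of flat boxes -/
theorem sys_ev (h : MkF B I G lev A g θ f b vm w) (hG : GeoOk G L r0 q)
    (hF : FlatE I lev f b) {v : ℚ} (hv0 : 0 ≤ v) (hv1 : v ≤ 1) {ε : ℝ} (hε : 0 < ε) :
    ∀ᶠ n in (U : Filter ℕ),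
      FSys ((I n).image (lc (lev n v))) (L n) (lev n v) (fun o => (o.2, f n v o.1 o.2))
        (fun κ : ℤ × ℕ => (b n v κ.2).c) (fun κ => (b n v κ.2).e) (w 0 n v) (w 1 n v) (w 2 n v)
        (B.d n ^ ε * (ampA B A (fun v => g * v) n v * vm n v)) := by
  filter_upwards [h.mark v hv0 hv1, hF v hv0 hv1, h.near v hv0 hv1 ε hε] with n hm hf hn
  refine fsys_of_mark (r0 := r0 n) ?_ hf ?_
  · intro c t ht
    obtain ⟨m1, m2, m3, m4⟩ := hm c t ht
    obtain ⟨a1, a2⟩ := hG.adm _ _ _ _ m2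
    have w0 := m4 0
    have w1 := m4 1
    have w2 := m4 2
    rw [hG.wid] at w0 w1 w2
    simp only [Matrix.cons_val_zero, Matrix.cons_val_one, Matrix.cons_val] at w0 w1 w2
    exact ⟨hG.mem _ _ _ _ _ m1, a1, w0, w1, w2⟩
  · intro c t ht
    have h1 := hn c t ht
    have h2 := mul_le_mul_of_nonneg_left h1 (dpow_pos B n ε).le
    refine h2.trans (le_of_eq ?_)
    rw [← mul_assoc, ← dpow_add, add_neg_cancel, Real.rpow_zero, one_mul]

end

end Crest.Agent.R136.Fl808
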