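import Crest.Agent.R136.Csj3_535
import Crest.Agent.R136.Fm4_808

/-!
# R136 (S0187), U5 TILT: D-max for flat boxes at any deep level (helper535)

* `FlatG` : the geometry contains the flat boxes in a range of widths.
* `DW`, `DP` : D-max for flat boxes with lower and upper bounds of both lateral widths.
* `DP.of_geo`, `DP.wide`, `DP.deeper` : from the geometry; boxes wider than the cell; deeper levels.
* `deep_any` : D-max on a part of the objects of a level slightly beyond the resolution.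
-/

set_option autoImplicit false
set_option linter.unusedVariables false
set_option linter.unusedSectionVars false

open Finset Filter Topology

namespace Crest.Agent.R136.Csj535

open Crest.Agent.R136.Sh605
open Crest.Agent.R138.Ex926 Crest.Agent.R138.Dp76
open Crest.Agent.R138.Mk163 (zc zl rho alive own Negl)
open Crest.Agent.R138.MkRef627 (lc kc mem_alive)
open Crest.Agent.R136.Dia770
open Crest.Agent.R136.MkA627 (Geo)
open Crest.Agent.R136.Fl808 (InB capB capB_pos capB_mono capB_scale cel cel_lt cel_eq inB_of_ends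
  pos_aff val_eq)

open Classical in
/-- D-max for flat boxes with `r0 ≤ a ≤ Ra`, `ω1 ≤ w1 ≤ R0`, `ω2 ≤ w2 ≤ R2` -/
def DW {ι : Type*} (T : Finset ι) (L : ι → Ln4) (z0 ρ D q0 q1 q2 r0 ω1 ω2 R0 R2 Ra : ℝ) : Prop :=
  ∀ (n : Fin 3 → V3) (l : Ln4) (a w1 w2 : ℝ), Ortho n → r0 ≤ a → a ≤ w2 → w2 ≤ w1 → ω1 ≤ w1 →
    ω2 ≤ w2 → w1 ≤ R0 → w2 ≤ R2 → a ≤ Ra →
    ((T.filter fun t => InB (L t) l n ![a, w1, w2] z0 ρ).card : ℝ) ≤ D * capB q0 q1 q2 a w1 w2

/-- D-max of the lines of `P` over the cells of level `m` -/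
def DP (P : Finset (ℕ × ℤ)) (L : ℕ → Ln4) (m : ℕ) (D q0 q1 q2 r0 ω1 ω2 R0 R2 Ra : ℝ) : Prop :=
  ∀ c : ℤ, DW ((P.filter fun x => x.2 = c).image Prod.fst) L (zl m c) (rho m) D q0 q1 q2 r0
    ω1 ω2 R0 R2 Ra

/-- the geometry contains the flat boxes -/
structure FlatG {σ κ : Type*} (G : Geo σ κ) (L : ℕ → ℕ → Ln4) (r0 ω1 ω2 R1 R2 Ra : ℕ → ℝ)
    (q : Fin 3 → ℝ) : Prop where
  flat : ∀ (n i : ℕ) (J : ℤ) (e : Fin 3 → V3) (l : Ln4) (a w1 w2 : ℝ), Ortho e → 0 < a →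
    r0 n ≤ a → a ≤ w2 → w2 ≤ w1 → w1 ≤ rho i → ω1 n ≤ w1 → ω2 n ≤ w2 → w1 ≤ R1 n → w2 ≤ R2 n →
    a ≤ Ra n →
    ∃ s : σ, G.adm n i J s ∧
      G.val n i J s ≤ capB (q 0) (q 1) (q 2) a w1 w2 * rho i ^ (-(q 0 + q 1 + q 2)) ∧
      ∀ t, InB (L n t) l e ![a, w1, w2] (zl i J) (rho i) → G.mem n i J s t

theorem rho_pos' (i : ℕ) : 0 < rho i := by
  unfold Crest.Agent.R138.Mk163.rho
  positivity

theorem DW.mono {ι : Type*} {T T' : Finset ι} {L : ι → Ln4}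
    {z0 ρ D D' q0 q1 q2 r0 ω1 ω2 R0 R2 Ra R0' R2' Ra' : ℝ}
    (H : DW T L z0 ρ D q0 q1 q2 r0 ω1 ω2 R0 R2 Ra)
    (hT : T' ⊆ T) (hD : D ≤ D') (hR : R0' ≤ R0) (hR2 : R2' ≤ R2) (hRa : Ra' ≤ Ra) (hr0 : 0 < r0) :
    DW T' L z0 ρ D' q0 q1 q2 r0 ω1 ω2 R0' R2' Ra' := by
  classical
  intro n l a w1 w2 h1 h2 h3 h4 h5 h6 h7 h8 h9
  refine le_trans ?_ (mul_le_mul_of_nonneg_right hD (capB_pos (q0 := q0) (q1 := q1) (q2 := q2)
    (hr0.trans_le h2) (((hr0.trans_le h2).trans_le h3).trans_le h4) ((hr0.trans_le h2).trans_le h3)).le)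
  refine le_trans ?_ (H n l a w1 w2 h1 h2 h3 h4 h5 h6 (h7.trans hR) (h8.trans hR2) (h9.trans hRa))
  norm_cast
  refine card_le_card fun t ht => ?_
  rw [mem_filter] at ht ⊢
  exact ⟨hT ht.1, ht.2⟩

theorem DP.mono {P P' : Finset (ℕ × ℤ)} {L : ℕ → Ln4} {m : ℕ}
    {D D' q0 q1 q2 r0 ω1 ω2 R0 R2 Ra R0' R2' Ra' : ℝ}
    (H : DP P L m D q0 q1 q2 r0 ω1 ω2 R0 R2 Ra)
    (hT : P' ⊆ P) (hD : D ≤ D') (hR : R0' ≤ R0) (hR2 : R2' ≤ R2) (hRa : Ra' ≤ Ra) (hr0 : 0 < r0) :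
    DP P' L m D' q0 q1 q2 r0 ω1 ω2 R0' R2' Ra' := by
  classical
  intro c
  refine (H c).mono ?_ hD hR hR2 hRa hr0
  intro x hx
  rw [mem_image] at hx ⊢
  obtain ⟨y, hy, rfl⟩ := hx
  rw [mem_filter] at hy
  exact ⟨y, mem_filter.2 ⟨hT hy.1, hy.2⟩, rfl⟩

open Classical in
/-- **from the geometry to flat boxes** -/
theorem DP.of_geo {σ κ : Type*} {G : Geo σ κ} {L : ℕ → ℕ → Ln4} {r0 ω1 ω2 R1 R2 Ra : ℕ → ℝ}
    {q : Fin 3 → ℝ} (hG : FlatG G L r0 ω1 ω2 R1 R2 Ra q) {n m : ℕ} {P : Finset (ℕ × ℤ)} {C : ℝ}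
    (hC : 0 ≤ C) (hr0 : 0 < r0 n)
    (H : ∀ (j : ℤ) (s : σ), G.adm n m j s →
      ((P.filter fun o => o.2 = j ∧ G.mem n m j s o.1).card : ℝ) ≤ C * G.val n m j s) :
    DP P (L n) m (C * rho m ^ (-(q 0 + q 1 + q 2))) (q 0) (q 1) (q 2) (r0 n) (ω1 n) (ω2 n)
      (min (rho m) (R1 n)) (R2 n) (Ra n) := by
  intro c e l a w1 w2 he ha h2 h1 ho1 ho2 hw1 hw2 haR
  obtain ⟨s, h3, h4, h5⟩ := hG.flat n m c e l a w1 w2 he (hr0.trans_le ha) ha h2 h1
    (hw1.trans (min_le_left _ _)) ho1 ho2 (hw1.trans (min_le_right _ _)) hw2 haR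
  have h6 : ((((P.filter fun x => x.2 = c).image Prod.fst).filter
      fun t => InB (L n t) l e ![a, w1, w2] (zl m c) (rho m)).card : ℝ) ≤
      ((P.filter fun o => o.2 = c ∧ G.mem n m c s o.1).card : ℝ) := by
    norm_cast
    refine (card_le_card (t := (P.filter fun o => o.2 = c ∧ G.mem n m c s o.1).image Prod.fst)
      ?_).trans card_image_le
    intro t ht
    rw [mem_filter, mem_image] at ht
    obtain ⟨⟨x, hx, rfl⟩, hb⟩ := ht
    rw [mem_filter] at hx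
    exact mem_image.2 ⟨x, mem_filter.2 ⟨hx.1, hx.2, h5 _ hb⟩, rfl⟩
  calc _ ≤ _ := h6
    _ ≤ C * G.val n m c s := H c s h3
    _ ≤ C * (capB (q 0) (q 1) (q 2) a w1 w2 * rho m ^ (-(q 0 + q 1 + q 2))) := by gcongr
    _ = _ := by ring

open Classical in
/-- **boxes wider than the cell** (808's argument) -/
theorem DW.wide {ι : Type*} {T : Finset ι} {L : ι → Ln4} {z0 ρ D q0 q1 q2 r0 ω1 ω2 K R1 R2 Ra : ℝ}
    (H : DW T L z0 ρ D q0 q1 q2 r0 ω1 ω2 (min ρ R1) R2 Ra) (h0 : 0 ≤ q0) (h1 : 0 ≤ q1) (h2 : 0 ≤ q2)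
    (hr0 : 0 < r0) (hr : r0 ≤ ρ) (hω1 : ω1 ≤ ρ) (hω2 : ω2 ≤ ρ) (hD : 0 ≤ D) (hK : 1 ≤ K) :
    DW T L z0 ρ ((2 * K + 1) ^ 6 * D) q0 q1 q2 r0 ω1 ω2 (min (K * ρ) R1) R2 Ra := by
  have hρ : 0 < ρ := hr0.trans_le hr
  intro n l a w1 w2 hn ha haw hw ho1 ho2 hwK1 hwR2 hRa
  have hwK : w1 ≤ K * ρ := hwK1.trans (min_le_left _ _)
  have hwR1 : w1 ≤ R1 := hwK1.trans (min_le_right _ _)
  have pa : 0 < a := hr0.trans_le ha
  have pw2 : 0 < w2 := pa.trans_le haw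
  have pw1 : 0 < w1 := pw2.trans_le hw
  set S := T.filter fun t => InB (L t) l n ![a, w1, w2] z0 ρ with hS
  set s : V3 := ![a, w1, w2] with hs
  set s' : V3 := ![min a ρ, min w1 ρ, min w2 ρ] with hs'
  have hsp : ∀ i, 0 < s' i := by
    intro i
    fin_cases i
    · exact lt_min pa hρ
    · exact lt_min pw1 hρ
    · exact lt_min pw2 hρ
  have hmin : ∀ w : ℝ, 0 < w → w ≤ K * ρ → w ≤ K * min w ρ := by
    intro w hw0 hwk
    rcases le_total w ρ with h | h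
    · rw [min_eq_left h]; nlinarith
    · rw [min_eq_right h]; exact hwk
  have hsK : ∀ i, s i ≤ K * s' i := by
    intro i
    fin_cases i
    · exact hmin a pa (by linarith)
    · exact hmin w1 pw1 hwK
    · exact hmin w2 pw2 (by linarith)
  set cd : ι → Fin 3 → ℕ × ℕ := fun t i =>
    (cel (s i) (s' i) (dt (n i) ((L t).pos z0 - l.pos z0)),
      cel (s i) (s' i) (dt (n i) ((L t).pos (z0 + ρ) - l.pos (z0 + ρ)))) with hcd
  set N := ⌊2 * K⌋₊ + 1 with hN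
  set C : Finset (Fin 3 → ℕ × ℕ) := Fintype.piFinset fun _ => range N ×ˢ range N with hC
  have hcard : (C.card : ℝ) ≤ (2 * K + 1) ^ 6 := by
    have e1 : C.card = (N * N) ^ 3 := by
      rw [hC, Fintype.card_piFinset]
      simp
    have e2 : (N : ℝ) ≤ 2 * K + 1 := by
      rw [hN]; push_cast
      linarith [Nat.floor_le (show (0:ℝ) ≤ 2 * K by linarith)]
    rw [e1]
    push_cast
    calc ((N : ℝ) * N) ^ 3 = (N : ℝ) ^ 6 := by ring
      _ ≤ (2 * K + 1) ^ 6 := pow_le_pow_left₀ (Nat.cast_nonneg _) e2 6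
  have hmap : ∀ t ∈ S, cd t ∈ C := by
    intro t ht
    rw [hS, mem_filter] at ht
    rw [hC, Fintype.mem_piFinset]
    intro i
    rw [mem_product, mem_range, mem_range]
    exact ⟨cel_lt (hsp i) (hsK i) (ht.2 z0 le_rfl (by linarith) i),
      cel_lt (hsp i) (hsK i) (ht.2 (z0 + ρ) (by linarith) le_rfl i)⟩
  have hfib : ∀ c ∈ C, ((S.filter fun t => cd t = c).card : ℝ) ≤ D * capB q0 q1 q2 a w1 w2 := by
    intro c hc
    rcases (S.filter fun t => cd t = c).eq_empty_or_nonempty with hE | ⟨t0, ht0⟩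
    · rw [hE]
      simp only [card_empty, Nat.cast_zero]
      exact mul_nonneg hD (capB_pos pa pw1 pw2).le
    · have ht0' := ht0
      rw [mem_filter] at ht0'
      obtain ⟨hS0, hc0⟩ := ht0'
      have hb0 := (mem_filter.1 hS0).2
      have key : ∀ t ∈ S.filter fun t => cd t = c, InB (L t) (L t0) n s' z0 ρ := by
        intro t ht
        rw [mem_filter] at ht
        obtain ⟨hSt, hct⟩ := ht
        have hbt := (mem_filter.1 hSt).2
        have hcc : cd t = cd t0 := by rw [hct, hc0]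
        have hdiff : ∀ (i : Fin 3) (z : ℝ), dt (n i) ((L t).pos z - (L t0).pos z) =
            dt (n i) ((L t).pos z - l.pos z) - dt (n i) ((L t0).pos z - l.pos z) := by
          intro i z
          simp only [dt, Pi.sub_apply]; ring
        apply inB_of_ends hρ
        · intro i
          rw [hdiff]
          have := congrArg Prod.fst (congrFun hcc i)
          exact cel_eq (hsp i) (hbt z0 le_rfl (by linarith) i) (hb0 z0 le_rfl (by linarith) i) this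
        · intro i
          rw [hdiff]
          have := congrArg Prod.snd (congrFun hcc i)
          exact cel_eq (hsp i) (hbt (z0 + ρ) (by linarith) le_rfl i)
            (hb0 (z0 + ρ) (by linarith) le_rfl i) this
      have h3 : ((S.filter fun t => cd t = c).card : ℝ) ≤
          ((T.filter fun t => InB (L t) (L t0) n s' z0 ρ).card : ℝ) := by
        refine Nat.cast_le.2 (card_le_card fun t ht => ?_)
        have hk := key t ht
        rw [mem_filter] at ht ⊢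
        exact ⟨(mem_filter.1 ht.1).1, hk⟩
      have h4 := H n (L t0) (min a ρ) (min w1 ρ) (min w2 ρ) hn (le_min ha hr)
        (min_le_min_right _ haw) (min_le_min_right _ hw) (le_min ho1 hω1) (le_min ho2 hω2)
        (le_min (min_le_right _ _) ((min_le_left _ _).trans hwR1)) ((min_le_left _ _).trans hwR2)
        ((min_le_left _ _).trans hRa)
      refine h3.trans (h4.trans (mul_le_mul_of_nonneg_left ?_ hD))
      exact capB_mono h0 h1 h2 (lt_min pa hρ).le (lt_min pw1 hρ).le (lt_min pw2 hρ).le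
        (min_le_left _ _) (min_le_left _ _) (min_le_left _ _)
  have e1 : (S.card : ℝ) = ∑ c ∈ C, ((S.filter fun t => cd t = c).card : ℝ) := by
    rw [card_eq_sum_card_fiberwise (f := cd) (t := C) hmap]
    push_cast
    rfl
  rw [e1]
  calc ∑ c ∈ C, ((S.filter fun t => cd t = c).card : ℝ)
      ≤ ∑ c ∈ C, D * capB q0 q1 q2 a w1 w2 := sum_le_sum hfib
    _ = C.card * (D * capB q0 q1 q2 a w1 w2) := by rw [sum_const, nsmul_eq_mul]
    _ ≤ (2 * K + 1) ^ 6 * (D * capB q0 q1 q2 a w1 w2) :=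
        mul_le_mul_of_nonneg_right hcard (mul_nonneg hD (capB_pos pa pw1 pw2).le)
    _ = (2 * K + 1) ^ 6 * D * capB q0 q1 q2 a w1 w2 := by ring

theorem DP.wide {P : Finset (ℕ × ℤ)} {L : ℕ → Ln4} {m : ℕ} {D q0 q1 q2 r0 ω1 ω2 K R1 R2 Ra : ℝ}
    (H : DP P L m D q0 q1 q2 r0 ω1 ω2 (min (rho m) R1) R2 Ra) (h0 : 0 ≤ q0) (h1 : 0 ≤ q1)
    (h2 : 0 ≤ q2) (hr0 : 0 < r0) (hr : r0 ≤ rho m) (hω1 : ω1 ≤ rho m) (hω2 : ω2 ≤ rho m)
    (hD : 0 ≤ D) (hK : 1 ≤ K) :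
    DP P L m ((2 * K + 1) ^ 6 * D) q0 q1 q2 r0 ω1 ω2 (min (K * rho m) R1) R2 Ra :=
  fun c => (H c).wide h0 h1 h2 hr0 hr hω1 hω2 hD hK

/-- an affine function bounded on a short interval -/
theorem aff_ext {A B z0 ρ s X z : ℝ} (hρ : 0 < ρ) (h0 : |A + z0 * B| ≤ s)
    (h1 : |A + (z0 + ρ) * B| ≤ s) (hX : 1 ≤ X) (hz0 : z0 - X * ρ ≤ z) (hz1 : z ≤ z0 + X * ρ) :
    |A + z * B| ≤ 3 * X * s := by
  have hs : 0 ≤ s := (abs_nonneg _).trans h0
  have e1 : |ρ * B| ≤ 2 * s := by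
    have : ρ * B = (A + (z0 + ρ) * B) - (A + z0 * B) := by ring
    rw [this]
    refine (abs_sub _ _).trans ?_
    linarith
  have e2 : |(z - z0) / ρ| ≤ X := by
    rw [abs_div, abs_of_pos hρ, div_le_iff₀ hρ, abs_le]
    constructor <;> linarith
  have e3 : A + z * B = (A + z0 * B) + (z - z0) / ρ * (ρ * B) := by field_simp; ring
  rw [e3]
  refine (abs_add_le _ _).trans ?_
  rw [abs_mul]
  have : |(z - z0) / ρ| * |ρ * B| ≤ X * (2 * s) := mul_le_mul e2 e1 (abs_nonneg _) (by linarith)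
  nlinarith

open Classical in
/-- **deeper levels**: boxes over shorter cells, objects with ancestors in the part -/
theorem DP.deeper {P P' : Finset (ℕ × ℤ)} {L : ℕ → Ln4} {m t : ℕ}
    {D q0 q1 q2 r0 ω1 ω2 R0 R2 Ra R0' R2' Ra' Λ : ℝ}
    (H : DP P L m D q0 q1 q2 r0 ω1 ω2 R0 R2 Ra)
    (h0 : 0 ≤ q0) (h1 : 0 ≤ q1) (h2 : 0 ≤ q2) (hr0 : 0 < r0) (hD : 0 ≤ D)
    (hP : ∀ x ∈ P', par t x ∈ P) (hΛ : 4 * 2 ^ t ≤ Λ) (hR : Λ * R0' ≤ R0) (hR2 : Λ * R2' ≤ R2)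
    (hRa : Λ * Ra' ≤ Ra) :
    DP P' L (m + t) (D * Λ ^ (3 + (q0 + q1 + q2))) q0 q1 q2 r0 ω1 ω2 R0' R2' Ra' := by
  intro c n l a w1 w2 hn ha haw hw ho1 ho2 hw1 hw2 haR
  have pa : 0 < a := hr0.trans_le ha
  have pw2 : 0 < w2 := pa.trans_le haw
  have pw1 : 0 < w1 := pw2.trans_le hw
  have p1 : (1:ℝ) ≤ 2 ^ t := one_le_pow₀ (by norm_num)
  have hΛ1 : 1 ≤ Λ := by linarith
  have hΛ0 : 0 < Λ := by linarith
  have key := H (c / 2 ^ t) n l (Λ * a) (Λ * w1) (Λ * w2) hn (by nlinarith) (by gcongr) (by gcongr)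
    (by nlinarith) (by nlinarith) ((mul_le_mul_of_nonneg_left hw1 hΛ0.le).trans hR)
    ((mul_le_mul_of_nonneg_left hw2 hΛ0.le).trans hR2)
    ((mul_le_mul_of_nonneg_left haR hΛ0.le).trans hRa)
  have e1 : capB q0 q1 q2 (Λ * a) (Λ * w1) (Λ * w2) =
      Λ ^ (3 + (q0 + q1 + q2)) * capB q0 q1 q2 a w1 w2 := by
    rw [capB_scale pa.le pw1.le pw2.le hΛ0.le hΛ0.le hΛ0.le, ← Real.rpow_add hΛ0,
      ← Real.rpow_add hΛ0]
    congr 2
    ring
  rw [e1, ← mul_assoc] at key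
  refine le_trans ?_ key
  refine Nat.cast_le.2 (card_le_card ?_)
  intro s hs
  rw [mem_filter, mem_image] at hs ⊢
  obtain ⟨⟨x, hx, rfl⟩, hb⟩ := hs
  rw [mem_filter] at hx
  obtain ⟨hx1, hx2⟩ := hx
  refine ⟨⟨par t x, mem_filter.2 ⟨hP x hx1, ?_⟩, rfl⟩, ?_⟩
  · simp only [par, hx2]
  · have hρ := rho_pos' (m + t)
    have g1 := Crest.Agent.R136.Fl808.zl_par_le m t c
    have g2 := Crest.Agent.R136.Fl808.zl_par_ge m t c
    have g3 := Crest.Agent.R136.Fl808.rho_add m t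
    intro z hz0 hz1 i
    have k0 := hb (zl (m + t) c) le_rfl (by linarith) i
    have k1 := hb (zl (m + t) c + rho (m + t)) (by linarith) le_rfl i
    rw [pos_aff] at k0 k1 ⊢
    have k2 := aff_ext (X := 2 ^ t) (z := z) hρ k0 k1 p1 (by linarith) (by linarith)
    refine k2.trans ?_
    have hsi : ∀ i : Fin 3, (![Λ * a, Λ * w1, Λ * w2] : V3) i = Λ * (![a, w1, w2] : V3) i := by
      intro i; fin_cases i <;> simp
    have hpi : ∀ i : Fin 3, 0 < (![a, w1, w2] : V3) i := by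
      intro i; fin_cases i
      · exact pa
      · exact pw1
      · exact pw2
    rw [hsi]
    exact mul_le_mul_of_nonneg_right (by linarith) (hpi i).le

open Classical in
/-- **D-max at any deep level** (up to a factor `d^κ` beyond the resolution `r0`) on a part of the
objects.  `hD` = output of the deep D-max at the levels `M ≤ m` above the resolution. -/
theorem deep_any {σ κ : Type*} {B : Base} {J : ℕ → Finset (ℕ × ℝ)} {G : Geo σ κ}
    {lev : ℕ → ℚ → ℕ} {A : ℕ → ℝ} {g : ℝ} {r0 ϱ ω1 ω2 R1 R2 Ra : ℕ → ℝ} {L : ℕ → ℕ → Ln4}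
    {q : Fin 3 → ℝ} {l0 : ℕ → ℕ} (hG : FlatG G L ϱ ω1 ω2 R1 R2 Ra q)
    (hq : ∀ k, 0 ≤ q k) (hg : 0 ≤ g) (hA : ∀ᶠ n in (U : Filter ℕ), 0 ≤ A n)
    (hϱ : ∀ n, 0 < ϱ n) {v : ℚ}
    (one : ∀ᶠ n in (U : Filter ℕ), ∀ x ∈ J n, ∀ y ∈ J n, x.1 = y.1 →
      zc (lev n 1) x.2 = zc (lev n 1) y.2 → x = y)
    (hfull : FullO B J l0 (fun n => lev n 1)) (hl0 : ∀ᶠ n in (U : Filter ℕ), l0 n ≤ lev n v)
    (hrv : ∀ᶠ n in (U : Filter ℕ), r0 n ≤ rho (lev n v)) {m : ℕ → ℕ}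
    (hm : ∀ᶠ n in (U : Filter ℕ), lev n v ≤ m n) {κ' : ℝ} (hκ : 0 ≤ κ')
    (hr : ∀ᶠ n in (U : Filter ℕ), B.d n ^ κ' * r0 n ≤ rho (m n))
    (hω : ∀ᶠ n in (U : Filter ℕ), ϱ n ≤ max (r0 n) (rho (m n)) ∧ ω1 n ≤ rho (m n) ∧
      ω2 n ≤ rho (m n))
    {K : ℕ → ℝ} (hK : ∀ᶠ n in (U : Filter ℕ), 1 ≤ K n) {ε : ℝ}
    (hD : ∀ M : ℕ → ℕ, (∀ᶠ n in (U : Filter ℕ), lev n v ≤ M n) → (∀ n, M n ≤ m n) →
      (∀ᶠ n in (U : Filter ℕ), r0 n ≤ rho (M n)) →
      ∃ P : ℕ → Finset (ℕ × ℤ), (∀ n, P n ⊆ extO (J n) (lev n 1) (M n)) ∧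
        (∃ γ : ℝ, 0 < γ ∧ ∀ᶠ n in (U : Filter ℕ), ((extO (J n) (lev n 1) (M n)).card : ℝ) ≤
          (P n).card + B.d n ^ γ * (extO (J n) (lev n 1) (M n)).card) ∧
        ∀ᶠ n in (U : Filter ℕ), ∀ (j : ℤ) (s : σ), G.adm n (M n) j s →
          (((P n).filter fun o => o.2 = j ∧ G.mem n (M n) j s o.1).card : ℝ) ≤
            B.d n ^ (-ε) * (A n * B.d n ^ (-(g * v))) *
              2 ^ ((g + ε) * ((M n : ℝ) - lev n v)) * G.val n (M n) j s)
    (hε : 0 < ε) :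
    ∃ P : ℕ → Finset (ℕ × ℤ), (∀ n, P n ⊆ extO (J n) (lev n 1) (m n)) ∧
      (∃ γ : ℝ, 0 < γ ∧ ∀ᶠ n in (U : Filter ℕ), ((extO (J n) (lev n 1) (m n)).card : ℝ) ≤
        (P n).card + B.d n ^ γ * (extO (J n) (lev n 1) (m n)).card) ∧
      ∀ᶠ n in (U : Filter ℕ), DP (P n) (L n) (m n)
        ((16 * B.d n ^ (-κ') * K n + 1) ^ 6 * (8 * B.d n ^ (-κ')) ^ (3 + (q 0 + q 1 + q 2)) *
          (B.d n ^ (-ε) * (A n * B.d n ^ (-(g * v))) * rho (lev n v) ^ (-(q 0 + q 1 + q 2))) *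
          2 ^ ((g + ε + (q 0 + q 1 + q 2)) * ((m n : ℝ) - lev n v)))
        (q 0) (q 1) (q 2) (ϱ n) (ω1 n) (ω2 n)
        (min (K n * rho (m n)) (R1 n / (8 * B.d n ^ (-κ')))) (R2 n / (8 * B.d n ^ (-κ')))
        (Ra n / (8 * B.d n ^ (-κ'))) := by
  set M : ℕ → ℕ := fun n => Nat.findGreatest (fun i => r0 n ≤ rho i) (m n) with hM
  have hMm : ∀ n, M n ≤ m n := fun n => Nat.findGreatest_le _
  have hvM : ∀ᶠ n in (U : Filter ℕ), lev n v ≤ M n := by
    filter_upwards [hrv, hm] with n h1 h2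
    exact Nat.le_findGreatest h2 h1
  have hrM : ∀ᶠ n in (U : Filter ℕ), r0 n ≤ rho (M n) := by
    filter_upwards [hrv, hm] with n h1 h2
    exact Nat.findGreatest_spec (P := fun i => r0 n ≤ rho i) h2 h1
  obtain ⟨P0, hP0, ⟨γ, hγ, hγ0⟩, hmax⟩ := hD M hvM hMm hrM
  have ht : ∀ᶠ n in (U : Filter ℕ), (2:ℝ) ^ (m n - M n) ≤ 2 * B.d n ^ (-κ') := by
    filter_upwards [hr] with n h1
    have hk1 : (1:ℝ) ≤ B.d n ^ (-κ') := by
      have := dpow_le B n (show -κ' ≤ 0 by linarith)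
      rwa [Real.rpow_zero] at this
    rcases (hMm n).eq_or_lt with h | h
    · rw [h]; simp; linarith
    · have h2 : ¬ (r0 n ≤ rho (M n + 1)) :=
        Nat.findGreatest_is_greatest (P := fun i => r0 n ≤ rho i) (Nat.lt_succ_self _) h
      rw [not_le] at h2
      have h3 := Crest.Agent.R136.Fl808.rho_add (M n + 1) (m n - (M n + 1))
      have e1 : M n + 1 + (m n - (M n + 1)) = m n := by omega
      rw [e1] at h3
      have e2 : m n - M n = (m n - (M n + 1)) + 1 := by omega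
      rw [e2, pow_succ]
      have hρ := rho_pos' (m n)
      have e3 : B.d n ^ (-κ') * B.d n ^ κ' = 1 := by rw [← dpow_add]; simp
      have h4 : rho (m n) * 2 ^ (m n - (M n + 1)) ≤ rho (m n) * B.d n ^ (-κ') := by
        rw [h3]
        calc rho (M n + 1) ≤ r0 n := h2.le
          _ = B.d n ^ (-κ') * (B.d n ^ κ' * r0 n) := by rw [← mul_assoc, e3, one_mul]
          _ ≤ B.d n ^ (-κ') * rho (m n) :=
            mul_le_mul_of_nonneg_left h1 (dpow_pos B n _).le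
          _ = _ := by ring
      have h5 := le_of_mul_le_mul_left h4 hρ
      linarith
  refine ⟨fun n => (extO (J n) (lev n 1) (m n)).filter fun o => par (m n - M n) o ∈ P0 n,
    fun n => filter_subset _ _, ⟨γ / 2, by linarith, ?_⟩, ?_⟩
  · have h2 : 0 < γ / 2 := by linarith
    filter_upwards [one, hfull (γ / 2) h2, hl0, hvM, hγ0] with n one hfull hl0 hvM hγ0
    have hd0 := B.pos n
    have pδ := dpow_pos B n (γ / 2)
    have h3 := ext_full (J := J n) (l0 := l0 n) (l1 := lev n 1) one pδ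
      (Real.rpow_le_one hd0.le (B.lt n).le h2.le) (fun i' a b x hx => hfull i' a b x hx)
      (hl0.trans hvM) (hMm n)
    set E := extO (J n) (lev n 1) (m n) with hE
    set E0 := extO (J n) (lev n 1) (M n) with hE0
    have h4 : E ⊆ (E.filter fun o => par (m n - M n) o ∈ P0 n) ∪
        (E.filter fun o => par (m n - M n) o ∈ E0 \ P0 n) := by
      intro o ho
      rw [mem_union, mem_filter, mem_filter]
      by_cases h : par (m n - M n) o ∈ P0 n
      · exact Or.inl ⟨ho, h⟩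
      · exact Or.inr ⟨ho, mem_sdiff.2 ⟨par_mem (hMm n) ho, h⟩⟩
    have h5 : (E.card : ℝ) ≤ (E.filter fun o => par (m n - M n) o ∈ P0 n).card +
        (E.filter fun o => par (m n - M n) o ∈ E0 \ P0 n).card := by
      exact_mod_cast (card_le_card h4).trans (card_union_le _ _)
    have h6 : ((E.filter fun o => par (m n - M n) o ∈ E0 \ P0 n).card : ℝ) ≤
        2 ^ (m n - M n) * ((E0 \ P0 n).card : ℝ) := by
      exact_mod_cast card_over E (E0 \ P0 n) (m n - M n)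
    have h7 : ((E0 \ P0 n).card : ℝ) ≤ B.d n ^ γ * E0.card := by
      rw [card_sdiff_of_subset (hP0 n), Nat.cast_sub (card_le_card (hP0 n))]
      linarith
    have h8 : 2 ^ (m n - M n) * ((E0 \ P0 n).card : ℝ) ≤ B.d n ^ (γ / 2) * E.card := by
      have e1 : B.d n ^ γ = B.d n ^ (γ / 2) * B.d n ^ (γ / 2) := by
        rw [← dpow_add]; congr 1; ring
      calc 2 ^ (m n - M n) * ((E0 \ P0 n).card : ℝ) ≤ 2 ^ (m n - M n) * (B.d n ^ γ * E0.card) := by
            gcongr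
        _ = B.d n ^ (γ / 2) * (B.d n ^ (γ / 2) * (2 ^ (m n - M n) * E0.card)) := by rw [e1]; ring
        _ ≤ B.d n ^ (γ / 2) * E.card := by gcongr
    linarith
  · filter_upwards [hmax, hvM, hrM, ht, hω, hK, hA, hm] with n hmax hvM hrM ht hω hK hA hm
    have hρv := rho_pos' (lev n v)
    have hρM := rho_pos' (M n)
    have hρm := rho_pos' (m n)
    have hk0 := dpow_pos B n (-κ')
    have hk1 : (1:ℝ) ≤ B.d n ^ (-κ') := by
      have := dpow_le B n (show -κ' ≤ 0 by linarith)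
      rwa [Real.rpow_zero] at this
    have hQ : 0 ≤ q 0 + q 1 + q 2 := by have := hq 0; have := hq 1; have := hq 2; linarith
    have eM : rho (m n) * 2 ^ (m n - M n) = rho (M n) := by
      have := Crest.Agent.R136.Fl808.rho_add (M n) (m n - M n)
      rwa [Nat.add_sub_cancel' (hMm n)] at this
    have p2 : (1:ℝ) ≤ 2 ^ (m n - M n) := one_le_pow₀ (by norm_num)
    have hmM : rho (m n) ≤ rho (M n) := by rw [← eM]; nlinarith
    set Λ : ℝ := 8 * B.d n ^ (-κ') with hΛ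
    have hΛ1 : 1 ≤ Λ := by rw [hΛ]; linarith
    have hC0 : 0 ≤ B.d n ^ (-ε) * (A n * B.d n ^ (-(g * v))) *
        2 ^ ((g + ε) * ((M n : ℝ) - lev n v)) := by
      have h1 := dpow_pos B n (-ε)
      have h2 := dpow_pos B n (-(g * v))
      positivity
    have h1 := DP.of_geo hG (n := n) hC0 (hϱ n) hmax
    have hρQ : 0 < rho (M n) ^ (-(q 0 + q 1 + q 2)) := Real.rpow_pos_of_pos hρM _
    have h2 := h1.wide (K := Λ * K n) (hq 0) (hq 1) (hq 2) (hϱ n) (hω.1.trans (max_le hrM hmM))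
      (hω.2.1.trans hmM) (hω.2.2.trans hmM) (mul_nonneg hC0 hρQ.le) (by nlinarith)
    have hΛ0 : 0 < Λ := by linarith
    have hR0' : Λ * min (K n * rho (m n)) (R1 n / Λ) ≤ min (Λ * K n * rho (M n)) (R1 n) := by
      refine le_min ?_ ?_
      · calc Λ * min (K n * rho (m n)) (R1 n / Λ) ≤ Λ * (K n * rho (m n)) := by
              gcongr; exact min_le_left _ _
          _ ≤ Λ * (K n * rho (M n)) := by gcongr
          _ = _ := by ring
      · calc Λ * min (K n * rho (m n)) (R1 n / Λ) ≤ Λ * (R1 n / Λ) := by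
              gcongr; exact min_le_right _ _
          _ = R1 n := by field_simp
    have h3 := h2.deeper (t := m n - M n) (Λ := Λ)
      (P' := (extO (J n) (lev n 1) (m n)).filter fun o => par (m n - M n) o ∈ P0 n)
      (R0' := min (K n * rho (m n)) (R1 n / Λ)) (R2' := R2 n / Λ) (Ra' := Ra n / Λ)
      (hq 0) (hq 1) (hq 2) (hϱ n)
      (by have := mul_nonneg hC0 hρQ.le; positivity) (fun x hx => (mem_filter.1 hx).2)
      (by rw [hΛ]; linarith) hR0' (le_of_eq (by field_simp)) (le_of_eq (by field_simp))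
    rw [Nat.add_sub_cancel' (hMm n)] at h3
    refine h3.mono (Subset.refl _) ?_ le_rfl le_rfl le_rfl (hϱ n)
    have e1 : rho (M n) ^ (-(q 0 + q 1 + q 2)) = rho (lev n v) ^ (-(q 0 + q 1 + q 2)) *
        2 ^ ((q 0 + q 1 + q 2) * ((M n : ℝ) - lev n v)) := by
      have h4 : rho (M n) * 2 ^ (M n - lev n v) = rho (lev n v) := by
        have := Crest.Agent.R136.Fl808.rho_add (lev n v) (M n - lev n v)
        rwa [Nat.add_sub_cancel' hvM] at this
      have h5 : (2:ℝ) ^ (M n - lev n v) = 2 ^ ((M n : ℝ) - lev n v) := by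
        rw [← Real.rpow_natCast, Nat.cast_sub hvM]
      rw [← h4, Real.mul_rpow hρM.le (by positivity), h5, ← Real.rpow_mul (by norm_num), mul_assoc,
        ← Real.rpow_add (by norm_num)]
      have : ((M n : ℝ) - lev n v) * (-(q 0 + q 1 + q 2)) + (q 0 + q 1 + q 2) *
        ((M n : ℝ) - lev n v) = 0 := by ring
      rw [this, Real.rpow_zero, mul_one]
    rw [e1]
    have e2 : (2:ℝ) ^ ((g + ε) * ((M n : ℝ) - lev n v)) *
        2 ^ ((q 0 + q 1 + q 2) * ((M n : ℝ) - lev n v)) ≤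
        2 ^ ((g + ε + (q 0 + q 1 + q 2)) * ((m n : ℝ) - lev n v)) := by
      rw [← Real.rpow_add (by norm_num)]
      refine Real.rpow_le_rpow_of_exponent_le (by norm_num) ?_
      have h4 : ((M n : ℝ) - lev n v) ≤ ((m n : ℝ) - lev n v) := by
        have : (M n : ℝ) ≤ m n := by exact_mod_cast hMm n
        linarith
      have h5 : 0 ≤ g + ε + (q 0 + q 1 + q 2) := by linarith
      have := mul_le_mul_of_nonneg_left h4 h5
      linarith
    have hρQv : 0 < rho (lev n v) ^ (-(q 0 + q 1 + q 2)) := Real.rpow_pos_of_pos hρv _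
    have hd1 := dpow_pos B n (-ε)
    have hd2 := dpow_pos B n (-(g * v))
    have e3 : (2 * (Λ * K n) + 1) ^ 6 = (16 * B.d n ^ (-κ') * K n + 1) ^ 6 := by
      rw [hΛ]; ring
    rw [e3]
    have hX : 0 ≤ (16 * B.d n ^ (-κ') * K n + 1) ^ 6 * Λ ^ (3 + (q 0 + q 1 + q 2)) *
        (B.d n ^ (-ε) * (A n * B.d n ^ (-(g * v))) * rho (lev n v) ^ (-(q 0 + q 1 + q 2))) := by
      have : 0 ≤ 16 * B.d n ^ (-κ') * K n + 1 := by positivity
      positivity
    calc _ = (16 * B.d n ^ (-κ') * K n + 1) ^ 6 * Λ ^ (3 + (q 0 + q 1 + q 2)) *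
          (B.d n ^ (-ε) * (A n * B.d n ^ (-(g * v))) * rho (lev n v) ^ (-(q 0 + q 1 + q 2))) *
          (2 ^ ((g + ε) * ((M n : ℝ) - lev n v)) *
            2 ^ ((q 0 + q 1 + q 2) * ((M n : ℝ) - lev n v))) := by ring
      _ ≤ _ := mul_le_mul_of_nonneg_left e2 hX

end Crest.Agent.R136.Csj535
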