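import Crest.Agent.R136.Fl8_808

/-!
# R136 (S0187): the finite pair theorem for flat boxes (helper808)

`flat_pair` : two systems of near-maximal flat boxes (defect `W`) over one set `O` of objects of
level `i`, dyadic tilts `2^j`, `2^k'`, D-max at the levels `i + j`, `i + k'`, `i + k' + j` on parts of
relative size `δ0` ⊢ `j, k' ≤ C (1 + log (W / δ0))`.
-/

set_option autoImplicit false
set_option linter.unusedVariables false
set_option linter.unusedSectionVars false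

namespace Crest.Agent.R136.Fl808

open Finset Crest.Agent.R136.Sh605
open Crest.Agent.R138.Mk163 (zl rho)

/-- scaling of the penalised volume -/
theorem capB_scale {q0 q1 q2 a w1 w2 x0 x1 x2 : ℝ} (ha : 0 ≤ a) (h1 : 0 ≤ w1) (h2 : 0 ≤ w2)
    (hx0 : 0 ≤ x0) (hx1 : 0 ≤ x1) (hx2 : 0 ≤ x2) :
    capB q0 q1 q2 (x0 * a) (x1 * w1) (x2 * w2) =
      x0 ^ (1 + q0) * x2 ^ (1 + q2) * x1 ^ (1 + q1) * capB q0 q1 q2 a w1 w2 := by
  unfold capB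
  rw [Real.mul_rpow hx0 ha, Real.mul_rpow hx1 h1, Real.mul_rpow hx2 h2]
  ring

theorem capB_mono {q0 q1 q2 a w1 w2 a' w1' w2' : ℝ} (h0 : 0 ≤ q0) (h1 : 0 ≤ q1) (h2 : 0 ≤ q2)
    (ha : 0 ≤ a) (hw1 : 0 ≤ w1) (hw2 : 0 ≤ w2) (ha' : a ≤ a') (hw1' : w1 ≤ w1') (hw2' : w2 ≤ w2') :
    capB q0 q1 q2 a w1 w2 ≤ capB q0 q1 q2 a' w1' w2' := by
  unfold capB
  have : 0 ≤ 1 + q0 := by linarith
  have : 0 ≤ 1 + q1 := by linarith
  have : 0 ≤ 1 + q2 := by linarith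
  have := ha.trans ha'
  have := hw1.trans hw1'
  have := hw2.trans hw2'
  have : 0 ≤ a' ^ (1 + q0) := by positivity
  have : 0 ≤ a' ^ (1 + q0) * w2' ^ (1 + q2) := by positivity
  gcongr

/-- powers of two with a natural exponent as real powers -/
theorem two_pow_rpow (k : ℕ) (x : ℝ) : ((2:ℝ) ^ k) ^ x = 2 ^ ((k:ℝ) * x) := by
  rw [← Real.rpow_natCast, ← Real.rpow_mul (by norm_num)]

theorem log_two_pow (x : ℝ) : Real.log ((2:ℝ) ^ x) = x * Real.log 2 := Real.log_rpow (by norm_num) x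

/-- constant of the base part -/
noncomputable def c1F (q0 q1 q2 : ℝ) : ℝ :=
  1296 * (124 ^ (1 + q0) * 992 ^ (1 + q2) * 1984 ^ (1 + q1)) ^ 2

/-- constant of the thickness part -/
noncomputable def c2F (q0 q1 q2 : ℝ) : ℝ :=
  8192 * (cF q0 q1 q2 / (1 - 2 ^ (-(q2 - q0)))) * (2 ^ (1 + q0) * 10 ^ (1 + q2) * 20 ^ (1 + q1)) ^ 2

theorem c1F_pos (q0 q1 q2 : ℝ) : 0 < c1F q0 q1 q2 := by unfold c1F; positivity

theorem c2F_pos {q0 q1 q2 : ℝ} (h : q0 < q2) : 0 < c2F q0 q1 q2 := by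
  have hr : (2 : ℝ) ^ (-(q2 - q0)) < 1 :=
    Real.rpow_lt_one_of_one_lt_of_neg (by norm_num) (by linarith)
  have := cF_pos q0 q1 q2
  have : 0 < 1 - (2 : ℝ) ^ (-(q2 - q0)) := by linarith
  unfold c2F
  positivity

/-- from an inequality of counts to an inequality of exponents -/
theorem log_form {δ0 W A1 A2 M V K E : ℝ} (hδ : 0 < δ0) (hW : 0 < W) (hM : 0 < M) (hV : 0 < V)
    (hK : 0 < K) (h1 : M * V ≤ W * A1) (h2 : M * V ≤ W * A2)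
    (h : δ0 ^ 2 * (A1 * A2) ≤ K * (M * V) ^ 2 * 2 ^ E) :
    -(E * Real.log 2) ≤ Real.log K + 2 * Real.log (W / δ0) := by
  have hMV : 0 < M * V := by positivity
  have h3 : δ0 ^ 2 * (M * V) ^ 2 ≤ W ^ 2 * (K * (M * V) ^ 2 * 2 ^ E) := by
    have h4 : (M * V) ^ 2 ≤ W ^ 2 * (A1 * A2) := by
      calc (M * V) ^ 2 = (M * V) * (M * V) := by ring
        _ ≤ (W * A1) * (W * A2) := mul_le_mul h1 h2 hMV.le (hMV.le.trans h1)
        _ = _ := by ring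
    calc δ0 ^ 2 * (M * V) ^ 2 ≤ δ0 ^ 2 * (W ^ 2 * (A1 * A2)) := by gcongr
      _ = W ^ 2 * (δ0 ^ 2 * (A1 * A2)) := by ring
      _ ≤ _ := by gcongr
  have h5 : δ0 ^ 2 ≤ W ^ 2 * (K * 2 ^ E) := by
    have h6 : (M * V) ^ 2 * δ0 ^ 2 ≤ (M * V) ^ 2 * (W ^ 2 * (K * 2 ^ E)) := by linarith
    exact le_of_mul_le_mul_left h6 (by positivity)
  have h2E : (0:ℝ) < 2 ^ E := by positivity
  have h7 := Real.log_le_log (by positivity) h5
  rw [Real.log_pow, Real.log_mul (by positivity) (by positivity), Real.log_pow,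
    Real.log_mul hK.ne' h2E.ne', log_two_pow] at h7
  rw [Real.log_div hW.ne' hδ.ne']
  push_cast at h7
  linarith

section

variable {α β : Type*} {O Pj P P' : Finset (ℕ × ℤ)} {L : ℕ → Ln4} {i : ℕ} {f : ℕ × ℤ → α}
  {g : ℕ × ℤ → β} {bf : α → Ln4} {ef : α → Fin 3 → V3} {bg : β → Ln4} {eg : β → Fin 3 → V3}
  {a w1 w2 A1 A2 q0 q1 q2 r0 M W δ0 ω1 ω2 g' : ℝ} {j k' : ℕ}

/-- **base tilt** -/
theorem pair_base (h1 : FSys O L i f bf ef a w1 w2 A1)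
    (h2 : FSys O L i g bg eg a w1 w2 A2) (hP : P.Nonempty) (hPO : ∀ x ∈ P, par (k' + j) x ∈ O)
    (hPP : ∀ x ∈ P, par j x ∈ P')
    (hd : DMaxP P L (i + (k' + j)) (M * 2 ^ ((g' + q1 + q2) * ((k' + j : ℕ) : ℝ))) q0 q1 q2 r0 ω1 ω2
      (2000 * (w1 / 2 ^ (k' + j))) (2000 * w2) (2000 * (2 ^ k' * a)))
    (hd' : DMaxP P' L (i + k') (M * 2 ^ ((g' + q1 + q2) * (k' : ℝ))) q0 q1 q2 r0 ω1 ω2
      (2000 * (w1 / 2 ^ k')) (2000 * w2) (2000 * (2 ^ k' * a)))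
    (hr0 : r0 ≤ a) (ha : 0 < a) (haw : a ≤ w2) (hw : w2 ≤ w1) (hM : 0 < M)
    (hA1 : 0 < A1) (hA2 : 0 < A2) (hδ0 : 0 < δ0) (hW : 0 < W)
    (hD : ∀ x ∈ O, Dy (ef (f x)) (eg (g x)) a w1 w2 j k')
    (hω1 : 2 * 2 ^ (k' + j) * ω1 ≤ w1) (hω2 : 2 * 2 ^ (k' + j) * ω2 ≤ w2)
    (hcard : δ0 * (O.card : ℝ) * 2 ^ (k' + j) ≤ (P.card : ℝ))
    (hV1 : M * capB q0 q1 q2 a w1 w2 ≤ W * A1) (hV2 : M * capB q0 q1 q2 a w1 w2 ≤ W * A2) :
    (q1 - q2 - g') * (j * Real.log 2) ≤ Real.log (c1F q0 q1 q2) + 2 * Real.log (W / δ0) +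
      2 * g' * (k' * Real.log 2) := by
  have hw2 : 0 < w2 := ha.trans_le haw
  have hw1 : 0 < w1 := hw2.trans_le hw
  obtain ⟨x0, hx0⟩ := hP
  have hx0O := hPO x0 hx0
  have D0 := hD _ hx0O
  have o1 := h1.ortho _ hx0O
  have o2 := h2.ortho _ hx0O
  have HD : DPar a w1 w2 (16 * (w1 / 2 ^ (k' + j))) (8 * (w2 / 2 ^ k')) j k' (k' + j) :=
    ⟨ha, haw, hw, rfl, rfl, rfl, D0.hlw o1 o2 ha haw hw, D0.hleg o1 o2 ha haw hw⟩
  have p2 : (0:ℝ) < 2 ^ (k' + j) := by positivity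
  have p1 : (0:ℝ) < 2 ^ k' := by positivity
  have p3 : (1:ℝ) ≤ 2 ^ j := one_le_pow₀ (by norm_num)
  have hk1 : w1 / 2 ^ (k' + j) ≤ w1 / 2 ^ k' := by
    rw [pow_add]
    refine div_le_div_of_nonneg_left hw1.le p1 ?_
    nlinarith
  have hk2 : w2 / 2 ^ (k' + j) ≤ w2 / 2 ^ k' := by
    rw [pow_add]
    refine div_le_div_of_nonneg_left hw2.le p1 ?_
    nlinarith
  have hk3 : w2 / 2 ^ k' ≤ w2 := div_le_self hw2.le (one_le_pow₀ (by norm_num))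
  have hka : a ≤ 2 ^ k' * a := le_mul_of_one_le_left ha.le (one_le_pow₀ (by norm_num))
  have hq1 : 0 < w1 / 2 ^ (k' + j) := by positivity
  have hq2 : 0 < w2 / 2 ^ (k' + j) := by positivity
  have b1 : ω1 ≤ w1 / 2 ^ (k' + j) / 2 := by
    rw [div_div, le_div_iff₀ (by positivity)]; linarith
  have b2 : ω2 ≤ w2 / 2 ^ (k' + j) / 2 := by
    rw [div_div, le_div_iff₀ (by positivity)]; linarith
  have key := flat_deep HD h1 h2 hPO hPP ⟨x0, hx0⟩ hd hd' hr0 (by positivity) (by positivity) hA1 hA2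
    hδ0 (fun x hx => (hD _ (hPO x hx)).tl (h1.ortho _ (hPO x hx)) (h2.ortho _ (hPO x hx)) ha haw hw)
    (by linarith) (by linarith) (by linarith) (by linarith) (by linarith) (by linarith)
    (by linarith) (by linarith) (by linarith) (by linarith) hcard
  -- the volumes
  have e1 : capB q0 q1 q2 (124 * a) (124 * (16 * (w1 / 2 ^ (k' + j)))) (124 * (8 * (w2 / 2 ^ k'))) =
      (124 ^ (1 + q0) * 992 ^ (1 + q2) * 1984 ^ (1 + q1)) *
        2 ^ (-((k':ℝ) * (1 + q2)) - ((k' + j : ℕ) : ℝ) * (1 + q1)) * capB q0 q1 q2 a w1 w2 := by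
    have e2 : 124 * (16 * (w1 / 2 ^ (k' + j))) = (1984 * (2 ^ (k' + j))⁻¹) * w1 := by
      field_simp; norm_num
    have e3 : 124 * (8 * (w2 / 2 ^ k')) = (992 * (2 ^ k')⁻¹) * w2 := by field_simp; norm_num
    rw [e2, e3, capB_scale ha.le hw1.le hw2.le (by norm_num) (by positivity) (by positivity),
      Real.mul_rpow (by norm_num) (by positivity), Real.mul_rpow (by norm_num) (by positivity),
      Real.inv_rpow (by positivity), Real.inv_rpow (by positivity), two_pow_rpow, two_pow_rpow,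
      Real.rpow_sub (by norm_num), Real.rpow_neg (by norm_num)]
    field_simp
  have hV : 0 < capB q0 q1 q2 a w1 w2 := capB_pos ha hw1 hw2
  generalize hVV : capB q0 q1 q2 a w1 w2 = V at *
  have h3 : δ0 ^ 2 * (A1 * A2) ≤ c1F q0 q1 q2 * (M * V) ^ 2 *
      2 ^ (2 * g' * (k':ℝ) - (q1 - q2 - g') * (j:ℝ)) := by
    refine key.trans (le_of_eq ?_)
    rw [e1, c1F]
    have e4 : (2:ℝ) ^ (2 * g' * (k':ℝ) - (q1 - q2 - g') * (j:ℝ)) =
        (2 ^ (k' + j) * 2 ^ k') ^ 2 * (2 ^ ((g' + q1 + q2) * (k' : ℝ)) *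
          2 ^ ((g' + q1 + q2) * ((k' + j : ℕ) : ℝ))) *
          (2 ^ (-((k':ℝ) * (1 + q2)) - ((k' + j : ℕ) : ℝ) * (1 + q1))) ^ 2 := by
      have t1 : ∀ m : ℕ, ((2:ℝ) ^ m) = 2 ^ (m : ℝ) := fun m => (Real.rpow_natCast 2 m).symm
      rw [t1 (k' + j), t1 k', ← Real.rpow_add (by norm_num), ← Real.rpow_add (by norm_num),
        ← Real.rpow_natCast (2 ^ _), ← Real.rpow_natCast (2 ^ _), ← Real.rpow_mul (by norm_num),
        ← Real.rpow_mul (by norm_num), ← Real.rpow_add (by norm_num),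
        ← Real.rpow_add (by norm_num)]
      congr 1
      push_cast
      ring
    rw [e4]
    ring
  have h4 := log_form hδ0 hW hM hV (c1F_pos q0 q1 q2) hV1 hV2 h3
  linarith

/-- **thickness tilt** -/
theorem pair_thick (h1 : FSys O L i f bf ef a w1 w2 A1)
    (h2 : FSys O L i g bg eg a w1 w2 A2) (hP : Pj.Nonempty) (hPO : ∀ x ∈ Pj, par j x ∈ O)
    (hd : DMaxP Pj L (i + j) (M * 2 ^ ((g' + q1 + q2) * (j : ℝ))) q0 q1 q2 r0 ω1 ω2
      (2000 * (w1 / 2 ^ j)) (2000 * w2) (2000 * (2 ^ k' * a)))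
    (hr0 : r0 ≤ a) (ha : 0 < a) (haw : a ≤ w2) (hw : w2 ≤ w1) (hM : 0 < M)
    (hA1 : 0 < A1) (hA2 : 0 < A2) (hδ0 : 0 < δ0) (hW : 0 < W)
    (hD : ∀ x ∈ O, Dy (ef (f x)) (eg (g x)) a w1 w2 j k')
    (hω : ω2 ≤ ω1) (hω20 : 0 ≤ ω2)
    (hω1 : 2 * 2 ^ (k' + j) * ω1 ≤ w1) (hω2 : 2 * 2 ^ (k' + j) * ω2 ≤ w2)
    (hcard : δ0 * (O.card : ℝ) * 2 ^ j ≤ (Pj.card : ℝ)) (hq0 : 0 ≤ q0) (hq02 : q0 < q2)
    (hq : q2 ≤ q1)
    (hV1 : M * capB q0 q1 q2 a w1 w2 ≤ W * A1) (hV2 : M * capB q0 q1 q2 a w1 w2 ≤ W * A2)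
    {l : ℕ} (hl : k' = l + 2) :
    (q2 - q0) * (l * Real.log 2) ≤ Real.log (c2F q0 q1 q2) + 2 * Real.log (W / δ0) +
      2 * (g' + q2) * (j * Real.log 2) := by
  have hw2 : 0 < w2 := ha.trans_le haw
  have hw1 : 0 < w1 := hw2.trans_le hw
  obtain ⟨x0, hx0⟩ := hP
  have hx0O := hPO x0 hx0
  have D0 := hD _ hx0O
  have o1 := h1.ortho _ hx0O
  have o2 := h2.ortho _ hx0O
  have hlw := D0.hlw o1 o2 ha haw hw
  have pj : (0:ℝ) < 2 ^ j := by positivity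
  generalize hW1 : max (10 * w2) (5 * (w1 / 2 ^ j)) = W1
  have hWa : 10 * w2 ≤ W1 := by rw [← hW1]; exact le_max_left _ _
  have hWb : 5 * (w1 / 2 ^ j) ≤ W1 := by rw [← hW1]; exact le_max_right _ _
  have hWc : W1 ≤ 20 * (w1 / 2 ^ j) := by
    rw [← hW1]
    refine max_le ?_ (by have : 0 < w1 / 2 ^ j := by positivity
                         linarith)
    rw [← mul_div_assoc, le_div_iff₀ pj]
    linarith
  have p2 : (0:ℝ) < 2 ^ (k' + j) := by positivity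
  have b1 : ω1 * (10 * 2 ^ k') ≤ W1 := by
    refine le_trans ?_ hWb
    rw [← mul_div_assoc, le_div_iff₀ pj]
    calc ω1 * (10 * 2 ^ k') * 2 ^ j = 5 * (2 * 2 ^ (k' + j) * ω1) := by rw [pow_add]; ring
      _ ≤ 5 * w1 := by gcongr
  have b2 : ω2 * (10 * 2 ^ k') ≤ 10 * w2 := by
    have h5 : (1:ℝ) ≤ 2 ^ j := one_le_pow₀ (by norm_num)
    calc ω2 * (10 * 2 ^ k') ≤ ω2 * (10 * 2 ^ k') * 2 ^ j := le_mul_of_one_le_right (by positivity) h5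
      _ ≤ 2 * (ω2 * (10 * 2 ^ k') * 2 ^ j) := by
        have : 0 ≤ ω2 * (10 * 2 ^ k') * 2 ^ j := by positivity
        linarith
      _ = 10 * (2 * 2 ^ (k' + j) * ω2) := by rw [pow_add]; ring
      _ ≤ 10 * w2 := by gcongr
  have hX : (1:ℝ) ≤ 2 ^ l := one_le_pow₀ (by norm_num)
  have key := flat_step (X := 2 ^ l) (Y := 10 * 2 ^ k') h1 h2 hPO ⟨x0, hx0⟩ hd ha haw hw hr0
    (by positivity) hA1 hA2 hδ0 hWa hWb
    (fun x hx => (hD _ (hPO x hx)).aligned (h1.ortho _ (hPO x hx)) (h2.ortho _ (hPO x hx)) ha haw hw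
      hW1.symm) hX
    (fun x hx => (hD _ (hPO x hx)).tlt_lo (h1.ortho _ (hPO x hx)) (h2.ortho _ (hPO x hx)) ha haw hw
      hW1.symm hl)
    (fun x hx => (hD _ (hPO x hx)).tlt_up (h1.ortho _ (hPO x hx)) (h2.ortho _ (hPO x hx)) ha haw hw
      hW1.symm) hω hω20 b1 b2 (by linarith [(by positivity : 0 < w1 / 2 ^ j)]) (by linarith)
    (by
      have : 0 < 2 ^ k' * a := by positivity
      linarith) hq0 hq02 hq hcard
  have e1 : capB q0 q1 q2 (2 * a) W1 (10 * w2) ≤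
      (2 ^ (1 + q0) * 10 ^ (1 + q2) * 20 ^ (1 + q1)) * 2 ^ (-((j:ℝ) * (1 + q1))) *
        capB q0 q1 q2 a w1 w2 := by
    have e2 : 20 * (w1 / 2 ^ j) = (20 * (2 ^ j)⁻¹) * w1 := by field_simp
    refine (capB_mono hq0 (by linarith) (by linarith) (by positivity)
      ((by positivity : 0 ≤ 10 * w2).trans hWa) (by positivity) le_rfl hWc le_rfl).trans ?_
    rw [e2, capB_scale ha.le hw1.le hw2.le (by norm_num) (by positivity) (by norm_num),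
      Real.mul_rpow (by norm_num) (by positivity), Real.inv_rpow (by positivity), two_pow_rpow,
      Real.rpow_neg (by norm_num)]
    refine le_of_eq (by ring)
  have hV : 0 < capB q0 q1 q2 a w1 w2 := capB_pos ha hw1 hw2
  have hcc : 0 ≤ capB q0 q1 q2 (2 * a) W1 (10 * w2) :=
    (capB_pos (by positivity) (by linarith) (by positivity)).le
  have hK : 0 < cF q0 q1 q2 / (1 - 2 ^ (-(q2 - q0))) := by
    have hr : (2 : ℝ) ^ (-(q2 - q0)) < 1 :=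
      Real.rpow_lt_one_of_one_lt_of_neg (by norm_num) (by linarith)
    have := cF_pos q0 q1 q2
    have : 0 < 1 - (2 : ℝ) ^ (-(q2 - q0)) := by linarith
    positivity
  generalize hVV : capB q0 q1 q2 a w1 w2 = V at *
  have h3 : δ0 ^ 2 * (A1 * A2) ≤ c2F q0 q1 q2 * (M * V) ^ 2 *
      2 ^ (2 * (g' + q2) * (j:ℝ) - (q2 - q0) * (l:ℝ)) := by
    refine key.trans ?_
    have h5 : (M * 2 ^ ((g' + q1 + q2) * (j : ℝ)) * capB q0 q1 q2 (2 * a) W1 (10 * w2)) ^ 2 ≤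
        (M * 2 ^ ((g' + q1 + q2) * (j : ℝ)) * ((2 ^ (1 + q0) * 10 ^ (1 + q2) * 20 ^ (1 + q1)) *
          2 ^ (-((j:ℝ) * (1 + q1))) * V)) ^ 2 := by gcongr
    have h6 : 8192 * (cF q0 q1 q2 / (1 - 2 ^ (-(q2 - q0)))) * (2 ^ j) ^ 2 *
        (M * 2 ^ ((g' + q1 + q2) * (j : ℝ)) * capB q0 q1 q2 (2 * a) W1 (10 * w2)) ^ 2 *
        (2 ^ l) ^ (-(q2 - q0)) ≤
        8192 * (cF q0 q1 q2 / (1 - 2 ^ (-(q2 - q0)))) * (2 ^ j) ^ 2 *
        (M * 2 ^ ((g' + q1 + q2) * (j : ℝ)) * ((2 ^ (1 + q0) * 10 ^ (1 + q2) * 20 ^ (1 + q1)) *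
          2 ^ (-((j:ℝ) * (1 + q1))) * V)) ^ 2 * (2 ^ l) ^ (-(q2 - q0)) := by gcongr
    refine h6.trans (le_of_eq ?_)
    rw [c2F, two_pow_rpow]
    have e4 : (2:ℝ) ^ (2 * (g' + q2) * (j:ℝ) - (q2 - q0) * (l:ℝ)) =
        (2 ^ j) ^ 2 * (2 ^ ((g' + q1 + q2) * (j : ℝ))) ^ 2 * (2 ^ (-((j:ℝ) * (1 + q1)))) ^ 2 *
          2 ^ ((l:ℝ) * (-(q2 - q0))) := by
      have t1 : ∀ m : ℕ, ((2:ℝ) ^ m) = 2 ^ (m : ℝ) := fun m => (Real.rpow_natCast 2 m).symm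
      rw [t1 j, ← Real.rpow_natCast (2 ^ _), ← Real.rpow_natCast (2 ^ _),
        ← Real.rpow_natCast (2 ^ _), ← Real.rpow_mul (by norm_num),
        ← Real.rpow_mul (by norm_num), ← Real.rpow_mul (by norm_num), ← Real.rpow_add (by norm_num),
        ← Real.rpow_add (by norm_num), ← Real.rpow_add (by norm_num)]
      congr 1
      push_cast
      ring
    rw [e4]
    ring
  have h4 := log_form hδ0 hW hM hV (c2F_pos hq02) hV1 hV2 h3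
  linarith

/-- elementary elimination -/
theorem elim {x y c1 c2 ω g' q0 q1 q2 : ℝ} (hx : 0 ≤ x) (hω : 0 ≤ ω) (hc1 : 0 ≤ c1) (hc2 : 0 ≤ c2)
    (hg : 0 ≤ g') (hq2 : 0 < q2) (hq0 : 2 * q0 ≤ q2) (hq21 : 8 * q2 ≤ q1) (hg1 : 64 * g' ≤ q1)
    (hgq : 64 * g' ^ 2 ≤ q1 * q2)
    (h1 : (q1 - q2 - g') * x ≤ c1 + 2 * ω + 2 * g' * y)
    (h2 : 0 ≤ y → (q2 - q0) * y ≤ c2 + 2 * ω + 2 * (g' + q2) * x) :
    x ≤ 4 / q1 * (c1 + 4 * g' / q2 * c2 + (2 + 8 * g' / q2) * ω) := by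
  have hq1 : 0 < q1 := by linarith
  have hx1 : q1 / 2 * x ≤ (q1 - q2 - g') * x := by
    refine mul_le_mul_of_nonneg_right ?_ hx
    linarith
  rcases le_total 0 y with hy | hy
  · have h3 := h2 hy
    have h4 : q2 / 2 * y ≤ (q2 - q0) * y := mul_le_mul_of_nonneg_right (by linarith) hy
    have h5 : y ≤ 2 / q2 * (c2 + 2 * ω + 2 * (g' + q2) * x) := by
      rw [div_mul_eq_mul_div, le_div_iff₀ hq2]; linarith
    have h6 : 2 * g' * y ≤ 2 * g' * (2 / q2 * (c2 + 2 * ω + 2 * (g' + q2) * x)) := by gcongr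
    have h7 : 2 * g' * (2 / q2 * (c2 + 2 * ω + 2 * (g' + q2) * x)) =
        4 * g' / q2 * c2 + 8 * g' / q2 * ω + (8 * g' ^ 2 / q2 + 8 * g') * x := by
      field_simp; ring
    have h8 : 8 * g' ^ 2 / q2 ≤ q1 / 8 := by
      rw [div_le_iff₀ hq2]; linarith
    have h9 : (8 * g' ^ 2 / q2 + 8 * g') * x ≤ q1 / 4 * x :=
      mul_le_mul_of_nonneg_right (by linarith) hx
    have h10 : q1 / 4 * x ≤ c1 + 4 * g' / q2 * c2 + (2 + 8 * g' / q2) * ω := by linarith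
    rw [div_mul_eq_mul_div, le_div_iff₀ hq1]
    linarith
  · have h3 : 2 * g' * y ≤ 0 := mul_nonpos_of_nonneg_of_nonpos (by positivity) hy
    have h4 : 0 ≤ 4 * g' / q2 * c2 := by positivity
    have h5 : 0 ≤ 8 * g' / q2 * ω := by positivity
    have h6 : 0 ≤ q1 * x := by positivity
    rw [div_mul_eq_mul_div, le_div_iff₀ hq1]
    linarith

/-- constants of the pair theorem -/
noncomputable def X1 (q0 q1 q2 g' : ℝ) : ℝ :=
  4 / q1 * ((|Real.log (c1F q0 q1 q2)| + 4 * g' * Real.log 2) +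
    4 * g' / q2 * |Real.log (c2F q0 q1 q2)| + (2 + 8 * g' / q2))

noncomputable def Y1 (q0 q1 q2 g' : ℝ) : ℝ :=
  2 / q2 * (|Real.log (c2F q0 q1 q2)| + 2 + 2 * (g' + q2) * X1 q0 q1 q2 g')

noncomputable def CP (q0 q1 q2 g' : ℝ) : ℝ := 2 * (X1 q0 q1 q2 g' + Y1 q0 q1 q2 g') + 2

theorem X1_nonneg (hg : 0 ≤ g') (hq2 : 0 < q2) (hq1 : 0 < q1) : 0 ≤ X1 q0 q1 q2 g' := by
  have : 0 < Real.log 2 := Real.log_pos (by norm_num)
  unfold X1; positivity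

theorem Y1_nonneg (hg : 0 ≤ g') (hq2 : 0 < q2) (hq1 : 0 < q1) : 0 ≤ Y1 q0 q1 q2 g' := by
  have := X1_nonneg (q0 := q0) hg hq2 hq1
  unfold Y1; positivity

theorem CP_pos (hg : 0 ≤ g') (hq2 : 0 < q2) (hq1 : 0 < q1) : 0 < CP q0 q1 q2 g' := by
  have := X1_nonneg (q0 := q0) hg hq2 hq1
  have := Y1_nonneg (q0 := q0) hg hq2 hq1
  unfold CP; positivity

/-- the arithmetic end of the pair theorem -/
theorem pair_end {j l k' : ℕ} {w c1 c2 : ℝ} (hc1 : c1 = |Real.log (c1F q0 q1 q2)|)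
    (hc2 : c2 = |Real.log (c2F q0 q1 q2)|) (hw : 0 ≤ w) (hkl : (k' : ℝ) ≤ l + 2)
    (hg : 0 ≤ g') (hq0 : 0 ≤ q0) (hq2 : 0 < q2) (hq02 : 2 * q0 ≤ q2) (hq21 : 8 * q2 ≤ q1)
    (hg1 : 64 * g' ≤ q1) (hgq : 64 * g' ^ 2 ≤ q1 * q2)
    (g1 : (q1 - q2 - g') * (j * Real.log 2) ≤
      (c1 + 4 * g' * Real.log 2) + 2 * w + 2 * g' * (l * Real.log 2))
    (g2 : 0 ≤ (l:ℝ) * Real.log 2 → (q2 - q0) * (l * Real.log 2) ≤
      c2 + 2 * w + 2 * (g' + q2) * (j * Real.log 2)) :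
    (j : ℝ) ≤ CP q0 q1 q2 g' * (1 + w) ∧ (k' : ℝ) ≤ CP q0 q1 q2 g' * (1 + w) := by
  have hq1 : 0 < q1 := by linarith
  have l2 : 1 / 2 ≤ Real.log 2 := by have := Real.log_two_gt_d9; linarith
  have l2p : 0 < Real.log 2 := by linarith
  have hx0 : 0 ≤ (j:ℝ) * Real.log 2 := by positivity
  have c10 : 0 ≤ c1 := by rw [hc1]; exact abs_nonneg _
  have c20 : 0 ≤ c2 := by rw [hc2]; exact abs_nonneg _
  have nX := X1_nonneg (q0 := q0) hg hq2 hq1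
  have nY := Y1_nonneg (q0 := q0) hg hq2 hq1
  have eX : X1 q0 q1 q2 g' = 4 / q1 * ((c1 + 4 * g' * Real.log 2) + 4 * g' / q2 * c2 +
    (2 + 8 * g' / q2)) := by rw [hc1, hc2, X1]
  have eY : Y1 q0 q1 q2 g' = 2 / q2 * (c2 + 2 + 2 * (g' + q2) * X1 q0 q1 q2 g') := by
    rw [hc2, Y1]
  have eC : CP q0 q1 q2 g' = 2 * (X1 q0 q1 q2 g' + Y1 q0 q1 q2 g') + 2 := rfl
  rw [eC]
  generalize X1 q0 q1 q2 g' = X at *
  generalize Y1 q0 q1 q2 g' = Y at *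
  generalize hL : Real.log 2 = L at *
  generalize hjj : (j:ℝ) = jj at *
  generalize hll : (l:ℝ) = ll at *
  have jj0 : 0 ≤ jj := by rw [← hjj]; exact Nat.cast_nonneg _
  have ll0 : 0 ≤ ll := by rw [← hll]; exact Nat.cast_nonneg _
  have c1g : 0 ≤ c1 + 4 * g' * L := by positivity
  have hX := elim hx0 hw c1g c20 hg hq2 hq02 hq21 hg1 hgq g1 g2
  have hXX : jj * L ≤ X * (1 + w) := by
    refine hX.trans ?_
    rw [eX]
    have e2 : 0 ≤ (c1 + 4 * g' * L) + 4 * g' / q2 * c2 := by positivity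
    have e3 : 0 ≤ 2 + 8 * g' / q2 := by positivity
    have e4 : 0 ≤ 4 / q1 := by positivity
    generalize (c1 + 4 * g' * L) + 4 * g' / q2 * c2 = A at *
    generalize 2 + 8 * g' / q2 = B at *
    have e5 : 4 / q1 * (A + B) * (1 + w) = 4 / q1 * ((A + B) * (1 + w)) := by ring
    rw [e5]
    refine mul_le_mul_of_nonneg_left ?_ e4
    have := mul_nonneg e2 hw
    linarith
  have hY := g2 (by positivity)
  have hYY : ll * L ≤ Y * (1 + w) := by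
    have h3 : q2 / 2 * (ll * L) ≤ (q2 - q0) * (ll * L) :=
      mul_le_mul_of_nonneg_right (by linarith) (by positivity)
    have h4 : 2 * (g' + q2) * (jj * L) ≤ 2 * (g' + q2) * (X * (1 + w)) := by
      gcongr
    have h5 : c2 + 2 * w ≤ (c2 + 2) * (1 + w) := by
      have := mul_nonneg c20 hw
      linarith
    have h6 : ll * L ≤ 2 / q2 * ((c2 + 2) * (1 + w) + 2 * (g' + q2) * (X * (1 + w))) := by
      rw [div_mul_eq_mul_div, le_div_iff₀ hq2]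
      linarith
    refine h6.trans (le_of_eq ?_)
    rw [eY]; ring
  have pX : 0 ≤ X * (1 + w) := by positivity
  have pY : 0 ≤ Y * (1 + w) := by positivity
  have h5 : (2 * (X + Y) + 2) * (1 + w) = 2 * (X * (1 + w)) + 2 * (Y * (1 + w)) + 2 * (1 + w) := by
    ring
  rw [h5]
  have two : ∀ z : ℝ, 0 ≤ z → z ≤ 2 * (z * L) := by
    intro z hz
    have := mul_le_mul_of_nonneg_left (by linarith : 1 ≤ 2 * L) hz
    linarith
  constructor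
  · have h3 := two jj jj0
    linarith
  · have h3 := two ll ll0
    linarith

/-- **THE FINITE PAIR THEOREM FOR FLAT BOXES.** -/
theorem flat_pair (h1 : FSys O L i f bf ef a w1 w2 A1)
    (h2 : FSys O L i g bg eg a w1 w2 A2)
    -- the three deeper levels
    (hPj : Pj.Nonempty) (hPjO : ∀ x ∈ Pj, par j x ∈ O)
    (hP : P.Nonempty) (hPO : ∀ x ∈ P, par (k' + j) x ∈ O) (hPP : ∀ x ∈ P, par j x ∈ P')
    (hdj : DMaxP Pj L (i + j) (M * 2 ^ ((g' + q1 + q2) * (j : ℝ))) q0 q1 q2 r0 ω1 ω2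
      (2000 * (w1 / 2 ^ j)) (2000 * w2) (2000 * (2 ^ k' * a)))
    (hd' : DMaxP P' L (i + k') (M * 2 ^ ((g' + q1 + q2) * (k' : ℝ))) q0 q1 q2 r0 ω1 ω2
      (2000 * (w1 / 2 ^ k')) (2000 * w2) (2000 * (2 ^ k' * a)))
    (hd : DMaxP P L (i + (k' + j)) (M * 2 ^ ((g' + q1 + q2) * ((k' + j : ℕ) : ℝ))) q0 q1 q2 r0 ω1 ω2
      (2000 * (w1 / 2 ^ (k' + j))) (2000 * w2) (2000 * (2 ^ k' * a)))
    (hcardj : δ0 * (O.card : ℝ) * 2 ^ j ≤ (Pj.card : ℝ))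
    (hcard : δ0 * (O.card : ℝ) * 2 ^ (k' + j) ≤ (P.card : ℝ))
    -- numbers
    (hr0 : r0 ≤ a) (ha : 0 < a) (haw : a ≤ w2) (hw : w2 ≤ w1) (hM : 0 < M)
    (hA1 : 0 < A1) (hA2 : 0 < A2) (hδ0 : 0 < δ0) (hδ1 : δ0 ≤ 1) (hW : 1 ≤ W)
    (hω : ω2 ≤ ω1) (hω20 : 0 ≤ ω2)
    (hω1 : 2 * 2 ^ (k' + j) * ω1 ≤ w1) (hω2 : 2 * 2 ^ (k' + j) * ω2 ≤ w2)
    (hV1 : M * capB q0 q1 q2 a w1 w2 ≤ W * A1) (hV2 : M * capB q0 q1 q2 a w1 w2 ≤ W * A2)
    -- rewards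
    (hg : 0 ≤ g') (hq0 : 0 ≤ q0) (hq2 : 0 < q2) (hq02 : 2 * q0 ≤ q2) (hq21 : 8 * q2 ≤ q1)
    (hg1 : 64 * g' ≤ q1) (hgq : 64 * g' ^ 2 ≤ q1 * q2)
    -- dyadic tilts
    (hD : ∀ x ∈ O, Dy (ef (f x)) (eg (g x)) a w1 w2 j k') :
    (j : ℝ) ≤ CP q0 q1 q2 g' * (1 + Real.log (W / δ0)) ∧
      (k' : ℝ) ≤ CP q0 q1 q2 g' * (1 + Real.log (W / δ0)) := by
  have hq1 : 0 < q1 := by linarith
  have hlog : 0 ≤ Real.log (W / δ0) := by
    refine Real.log_nonneg ?_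
    rw [le_div_iff₀ hδ0]; linarith
  have l2p : 0 < Real.log 2 := Real.log_pos (by norm_num)
  have k1 := pair_base h1 h2 hP hPO hPP hd hd' hr0 ha haw hw hM hA1 hA2 hδ0 (by linarith) hD hω1 hω2
    hcard hV1 hV2
  obtain ⟨l, hl⟩ : ∃ l, l = k' - 2 := ⟨_, rfl⟩
  have hkl : (k' : ℝ) ≤ l + 2 := by
    have : k' ≤ l + 2 := by omega
    exact_mod_cast this
  have g1 : (q1 - q2 - g') * (j * Real.log 2) ≤
      (|Real.log (c1F q0 q1 q2)| + 4 * g' * Real.log 2) + 2 * Real.log (W / δ0) + 2 * g' * (l * Real.log 2) := by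
    have h3 := le_abs_self (Real.log (c1F q0 q1 q2))
    have h4 : 2 * g' * (k' * Real.log 2) ≤ 2 * g' * ((l + 2) * Real.log 2) := by gcongr
    linarith
  have g2 : 0 ≤ (l:ℝ) * Real.log 2 → (q2 - q0) * (l * Real.log 2) ≤
      |Real.log (c2F q0 q1 q2)| + 2 * Real.log (W / δ0) + 2 * (g' + q2) * (j * Real.log 2) := by
    intro _
    rcases Nat.eq_zero_or_pos l with h | h
    · rw [h]
      have : 0 ≤ (j:ℝ) * Real.log 2 := by positivity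
      have := abs_nonneg (Real.log (c2F q0 q1 q2))
      simp only [Nat.cast_zero, zero_mul, mul_zero]
      positivity
    · have k2 := pair_thick h1 h2 hPj hPjO hdj hr0 ha haw hw hM hA1 hA2 hδ0 (by linarith) hD hω hω20
        hω1 hω2 hcardj hq0 (by linarith) (by linarith) hV1 hV2 (l := l) (by omega)
      have h3 := le_abs_self (Real.log (c2F q0 q1 q2))
      linarith
  exact pair_end rfl rfl hlog hkl hg hq0 hq2 hq02 hq21 hg1 hgq g1 g2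

end

end Crest.Agent.R136.Fl808
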