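import Crest.Agent.R136.Mdr2_535

/-!
# R136 (S0187), U5 TILT, `Mid`: planks which agree (helper535)

* `Nr Θ f f' a w1 w2` : two planks of dimensions `(a, w1, w2)` with frames `f`, `f'` agree up to `Θ`.
* `pf_near` : frames with close gradients.
* `frame_near` : frames of two lines of the sheet which are close at the beginning of the cell.
* `frame_height` : frames of one line at two heights.
-/

set_option autoImplicit false
set_option linter.unusedVariables false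

namespace Crest.Agent.R136.Mdr535

open Crest.Agent.R136.Sh605 Crest.Agent.R136.Tl102
open Crest.Agent.R136.Fl808 (InB dt_expand abs_dt_le_one)

/-- the planks of dimensions `(a, w1, w2)` with the frames `f`, `f'` agree up to `Θ` -/
structure Nr (Θ : ℝ) (f f' : Fin 3 → V3) (a w1 w2 : ℝ) : Prop where
  n01 : |dt (f' 0) (f 1)| * w1 ≤ Θ * a
  n02 : |dt (f' 0) (f 2)| * w2 ≤ Θ * a
  n10 : |dt (f' 1) (f 0)| * w1 ≤ Θ * a
  n20 : |dt (f' 2) (f 0)| * w2 ≤ Θ * a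
  n12 : |dt (f' 1) (f 2)| * w1 ≤ Θ * w2
  n21 : |dt (f' 2) (f 1)| * w1 ≤ Θ * w2

theorem Nr.symm {Θ a w1 w2 : ℝ} {f f' : Fin 3 → V3} (h : Nr Θ f f' a w1 w2) :
    Nr Θ f' f a w1 w2 where
  n01 := by rw [dt_comm]; exact h.n10
  n02 := by rw [dt_comm]; exact h.n20
  n10 := by rw [dt_comm]; exact h.n01
  n20 := by rw [dt_comm]; exact h.n02
  n12 := by rw [dt_comm]; exact h.n21
  n21 := by rw [dt_comm]; exact h.n12

theorem Nr.mono {Θ Θ' a w1 w2 : ℝ} {f f' : Fin 3 → V3} (h : Nr Θ f f' a w1 w2) (hΘ : Θ ≤ Θ')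
    (ha : 0 ≤ a) (hw2 : 0 ≤ w2) : Nr Θ' f f' a w1 w2 where
  n01 := h.n01.trans (by gcongr)
  n02 := h.n02.trans (by gcongr)
  n10 := h.n10.trans (by gcongr)
  n20 := h.n20.trans (by gcongr)
  n12 := h.n12.trans (by gcongr)
  n21 := h.n21.trans (by gcongr)

theorem Nr.trans {Θ Θ' a w1 w2 : ℝ} {f f' f'' : Fin 3 → V3} (h : Nr Θ f f' a w1 w2)
    (h' : Nr Θ' f' f'' a w1 w2) (hf : Ortho f) (hf' : Ortho f') (hf'' : Ortho f'') (ha : 0 < a)
    (haw : a ≤ w2) (hw : w2 ≤ w1) (hΘ : 1 ≤ Θ) (hΘ' : 1 ≤ Θ') :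
    Nr (3 * (Θ * Θ')) f f'' a w1 w2 := by
  have hw2 : 0 < w2 := ha.trans_le haw
  have hw1 : 0 < w1 := hw2.trans_le hw
  have o1 := fun i j => abs_dt_le_one hf hf' j i
  have o2 := fun i j => abs_dt_le_one hf' hf'' j i
  -- sum over the middle frame
  have key : ∀ i j : Fin 3, ∀ W A0 A1 A2 : ℝ, 0 ≤ W →
      |dt (f'' i) (f' 0)| * |dt (f' 0) (f j)| * W ≤ A0 →
      |dt (f'' i) (f' 1)| * |dt (f' 1) (f j)| * W ≤ A1 →
      |dt (f'' i) (f' 2)| * |dt (f' 2) (f j)| * W ≤ A2 →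
      |dt (f'' i) (f j)| * W ≤ A0 + A1 + A2 := by
    intro i j W A0 A1 A2 hW h0 h1 h2
    rw [dt_expand hf' (f'' i) (f j)]
    have : |dt (f'' i) (f' 0) * dt (f' 0) (f j) + dt (f'' i) (f' 1) * dt (f' 1) (f j) +
        dt (f'' i) (f' 2) * dt (f' 2) (f j)| ≤ |dt (f'' i) (f' 0)| * |dt (f' 0) (f j)| +
        |dt (f'' i) (f' 1)| * |dt (f' 1) (f j)| + |dt (f'' i) (f' 2)| * |dt (f' 2) (f j)| := by
      refine (abs_add_le _ _).trans (add_le_add ((abs_add_le _ _).trans (add_le_add ?_ ?_)) ?_) <;>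
        rw [abs_mul]
    calc _ ≤ (|dt (f'' i) (f' 0)| * |dt (f' 0) (f j)| +
        |dt (f'' i) (f' 1)| * |dt (f' 1) (f j)| + |dt (f'' i) (f' 2)| * |dt (f' 2) (f j)|) * W := by
          gcongr
      _ ≤ _ := by linarith
  have hA : Θ * a ≤ Θ * Θ' * a := by
    have : Θ * a * 1 ≤ Θ * a * Θ' := by gcongr
    linarith
  have hA' : Θ' * a ≤ Θ * Θ' * a := by
    have : Θ' * a * 1 ≤ Θ' * a * Θ := by gcongr
    linarith
  have hB : Θ * w2 ≤ Θ * Θ' * w2 := by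
    have : Θ * w2 * 1 ≤ Θ * w2 * Θ' := by gcongr
    linarith
  have hB' : Θ' * w2 ≤ Θ * Θ' * w2 := by
    have : Θ' * w2 * 1 ≤ Θ' * w2 * Θ := by gcongr
    linarith
  -- elementary products
  have left : ∀ x y W R : ℝ, 0 ≤ y → x ≤ 1 → 0 ≤ W → y * W ≤ R → x * y * W ≤ R := by
    intro x y W R hy hx hW hR
    have : x * y * W ≤ 1 * y * W := by gcongr
    linarith
  have right : ∀ x y W R : ℝ, 0 ≤ x → y ≤ 1 → 0 ≤ W → x * W ≤ R → x * y * W ≤ R := by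
    intro x y W R hx hy hW hR
    have : x * y * W ≤ x * 1 * W := by gcongr
    linarith
  have down : ∀ x R : ℝ, 0 ≤ x → x * w1 ≤ R → x * w2 ≤ R := by
    intro x R hx hR
    have : x * w2 ≤ x * w1 := by gcongr
    linarith
  have A := fun x y => abs_nonneg (dt x y)
  have e3 : ∀ x : ℝ, 3 * (Θ * Θ') * x = Θ * Θ' * x + Θ * Θ' * x + Θ * Θ' * x := by intro x; ring
  refine ⟨?_, ?_, ?_, ?_, ?_, ?_⟩
  · rw [e3]
    refine key 0 1 w1 _ _ _ hw1.le ?_ ?_ ?_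
    · exact (left _ _ _ _ (A _ _) (o2 0 0) hw1.le h.n01).trans hA
    · exact (right _ _ _ _ (A _ _) (o1 1 1) hw1.le h'.n01).trans hA'
    · calc |dt (f'' 0) (f' 2)| * |dt (f' 2) (f 1)| * w1 =
          |dt (f'' 0) (f' 2)| * (|dt (f' 2) (f 1)| * w1) := by ring
        _ ≤ |dt (f'' 0) (f' 2)| * (Θ * w2) := mul_le_mul_of_nonneg_left h.n21 (A _ _)
        _ = Θ * (|dt (f'' 0) (f' 2)| * w2) := by ring
        _ ≤ Θ * (Θ' * a) := mul_le_mul_of_nonneg_left h'.n02 (by linarith)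
        _ = _ := by ring
  · rw [e3]
    refine key 0 2 w2 _ _ _ hw2.le ?_ ?_ ?_
    · exact (left _ _ _ _ (A _ _) (o2 0 0) hw2.le h.n02).trans hA
    · exact (right _ _ _ _ (A _ _) (o1 2 1) hw2.le (down _ _ (A _ _) h'.n01)).trans hA'
    · exact (right _ _ _ _ (A _ _) (o1 2 2) hw2.le h'.n02).trans hA'
  · rw [e3]
    refine key 1 0 w1 _ _ _ hw1.le ?_ ?_ ?_
    · exact (right _ _ _ _ (A _ _) (o1 0 0) hw1.le h'.n10).trans hA'
    · exact (left _ _ _ _ (A _ _) (o2 1 1) hw1.le h.n10).trans hA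
    · calc |dt (f'' 1) (f' 2)| * |dt (f' 2) (f 0)| * w1 =
          (|dt (f'' 1) (f' 2)| * w1) * |dt (f' 2) (f 0)| := by ring
        _ ≤ (Θ' * w2) * |dt (f' 2) (f 0)| := mul_le_mul_of_nonneg_right h'.n12 (A _ _)
        _ = Θ' * (|dt (f' 2) (f 0)| * w2) := by ring
        _ ≤ Θ' * (Θ * a) := mul_le_mul_of_nonneg_left h.n20 (by linarith)
        _ = _ := by ring
  · rw [e3]
    refine key 2 0 w2 _ _ _ hw2.le ?_ ?_ ?_
    · exact (right _ _ _ _ (A _ _) (o1 0 0) hw2.le h'.n20).trans hA'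
    · exact (left _ _ _ _ (A _ _) (o2 1 2) hw2.le (down _ _ (A _ _) h.n10)).trans hA
    · exact (left _ _ _ _ (A _ _) (o2 2 2) hw2.le h.n20).trans hA
  · rw [e3]
    refine key 1 2 w1 _ _ _ hw1.le ?_ ?_ ?_
    · exact (right _ _ _ _ (A _ _) (o1 2 0) hw1.le h'.n10).trans
        (by have : Θ' * a ≤ Θ' * w2 := by gcongr
            linarith)
    · exact (left _ _ _ _ (A _ _) (o2 1 1) hw1.le h.n12).trans hB
    · exact (right _ _ _ _ (A _ _) (o1 2 2) hw1.le h'.n12).trans hB'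
  · rw [e3]
    refine key 2 1 w1 _ _ _ hw1.le ?_ ?_ ?_
    · exact (left _ _ _ _ (A _ _) (o2 0 2) hw1.le h.n01).trans
        (by have : Θ * a ≤ Θ * w2 := by gcongr
            linarith)
    · exact (right _ _ _ _ (A _ _) (o1 1 1) hw1.le h'.n21).trans hB'
    · exact (left _ _ _ _ (A _ _) (o2 2 2) hw1.le h.n21).trans hB

/-! ### frames with close gradients -/

theorem shrink {m X : ℝ} (hm : 1 ≤ m) : |1 / m * X| ≤ |X| := by
  have hm0 : 0 < m := by linarith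
  rw [abs_mul, abs_of_pos (by positivity)]
  exact mul_le_of_le_one_left (abs_nonneg _) ((div_le_one hm0).2 hm)

theorem pf01 {e : Fin 3 → V3} (he : Ortho e) (g1 g2 g1' g2' : ℝ) :
    |dt (pf e g1' g2' 0) (pf e g1 g2 1)| ≤ |g1' - g1| := by
  have k := fun i => (dt_adF (G0 := 1) (G1 := g1) (G2 := g2)
    (m := Real.sqrt (1 + g1 ^ 2 + g2 ^ 2)) (m1 := Real.sqrt (1 + g1 ^ 2)) he i).2.1
  unfold pf
  rw [adF_zero, k 0, k 1, k 2]
  simp only [Matrix.cons_val]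
  have : 1 * (1 / Real.sqrt (1 + g1 ^ 2) * -g1) + g1' * (1 / Real.sqrt (1 + g1 ^ 2) * 1) +
      g2' * (1 / Real.sqrt (1 + g1 ^ 2) * 0) = 1 / Real.sqrt (1 + g1 ^ 2) * (g1' - g1) := by ring
  rw [this]
  exact (shrink (one_le_m _ _)).trans (shrink (one_le_m1 _))

theorem pf02 {e : Fin 3 → V3} (he : Ortho e) (g1 g2 g1' g2' : ℝ) :
    |dt (pf e g1' g2' 0) (pf e g1 g2 2)| ≤
      |(g2' - g2) + g1 * ((g1 - g1') * g2' + g1' * (g2' - g2))| := by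
  have k := fun i => (dt_adF (G0 := 1) (G1 := g1) (G2 := g2)
    (m := Real.sqrt (1 + g1 ^ 2 + g2 ^ 2)) (m1 := Real.sqrt (1 + g1 ^ 2)) he i).2.2
  have hmm : 1 ≤ Real.sqrt (1 + g1 ^ 2 + g2 ^ 2) * Real.sqrt (1 + g1 ^ 2) := by
    have h1 := one_le_m g1 g2
    have h2 := one_le_m1 g1
    nlinarith
  unfold pf
  rw [adF_zero, k 0, k 1, k 2, pf_sq1]
  simp only [Matrix.cons_val]
  generalize Real.sqrt (1 + g1 ^ 2 + g2 ^ 2) * Real.sqrt (1 + g1 ^ 2) = M at *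
  have : 1 * (1 / M * -(1 * g2)) + g1' * (1 / M * -(g1 * g2)) + g2' * (1 / M * (1 ^ 2 + g1 ^ 2)) =
      1 / M * ((g2' - g2) + g1 * ((g1 - g1') * g2' + g1' * (g2' - g2))) := by ring
  rw [this]
  exact (shrink (one_le_m _ _)).trans (shrink hmm)

theorem pf12 {e : Fin 3 → V3} (he : Ortho e) (g1 g2 g1' g2' : ℝ) :
    |dt (pf e g1' g2' 1) (pf e g1 g2 2)| ≤ |g2 * (g1' - g1)| := by
  have k := fun i => (dt_adF (G0 := 1) (G1 := g1) (G2 := g2)
    (m := Real.sqrt (1 + g1 ^ 2 + g2 ^ 2)) (m1 := Real.sqrt (1 + g1 ^ 2)) he i).2.2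
  have hmm : 1 ≤ Real.sqrt (1 + g1 ^ 2 + g2 ^ 2) * Real.sqrt (1 + g1 ^ 2) := by
    have h1 := one_le_m g1 g2
    have h2 := one_le_m1 g1
    nlinarith
  unfold pf
  rw [adF_one, k 0, k 1]
  simp only [Matrix.cons_val]
  generalize Real.sqrt (1 + g1 ^ 2 + g2 ^ 2) * Real.sqrt (1 + g1 ^ 2) = M at *
  have : -g1' * (1 / M * -(1 * g2)) + 1 * (1 / M * -(g1 * g2)) = 1 / M * (g2 * (g1' - g1)) := by
    ring
  rw [this]
  exact (shrink (one_le_m1 _)).trans (shrink hmm)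

/-- **frames with close gradients agree** -/
theorem pf_near {e : Fin 3 → V3} (he : Ortho e) {g1 g2 g1' g2' a w1 w2 δ : ℝ} (ha : 0 < a)
    (haw : a ≤ w2) (hw : w2 ≤ w1) (h1 : |g1| ≤ 2) (h2 : |g2| ≤ 2) (h1' : |g1'| ≤ 2)
    (h2' : |g2'| ≤ 2) (d1 : |g1' - g1| * w1 ≤ δ * a) (d2 : |g2' - g2| * w2 ≤ δ * a) :
    Nr (9 * δ) (pf e g1 g2) (pf e g1' g2') a w1 w2 := by
  have hw2 : 0 < w2 := ha.trans_le haw
  have hw1 : 0 < w1 := hw2.trans_le hw
  have hδ : 0 ≤ δ * a := le_trans (by positivity) d1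
  have hδ0 : 0 ≤ δ := by
    by_contra hc
    push Not at hc
    nlinarith
  have hδw : δ * a ≤ δ * w2 := by gcongr
  have d1' : |g1' - g1| * w2 ≤ δ * a := by
    have : |g1' - g1| * w2 ≤ |g1' - g1| * w1 := by gcongr
    linarith
  have e1 : |g1 - g1'| = |g1' - g1| := abs_sub_comm _ _
  have e2 : |g2 - g2'| = |g2' - g2| := abs_sub_comm _ _
  -- the mixed term
  have mix : ∀ x x' y y' : ℝ, |x| ≤ 2 → |x'| ≤ 2 → |y'| ≤ 2 → |x - x'| * w2 ≤ δ * a →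
      |y' - y| * w2 ≤ δ * a →
      |(y' - y) + x * ((x - x') * y' + x' * (y' - y))| * w2 ≤ 9 * δ * a := by
    intro x x' y y' hx hx' hy' hd hd'
    have m : |(y' - y) + x * ((x - x') * y' + x' * (y' - y))| ≤
        |y' - y| + 2 * (|x - x'| * 2 + 2 * |y' - y|) := by
      refine (abs_add_le _ _).trans (add_le_add le_rfl ?_)
      rw [abs_mul]
      refine mul_le_mul hx ((abs_add_le _ _).trans (add_le_add ?_ ?_)) (abs_nonneg _) (by norm_num)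
      · rw [abs_mul]; gcongr
      · rw [abs_mul]; gcongr
    calc _ ≤ (|y' - y| + 2 * (|x - x'| * 2 + 2 * |y' - y|)) * w2 := by gcongr
      _ = 5 * (|y' - y| * w2) + 4 * (|x - x'| * w2) := by ring
      _ ≤ _ := by linarith
  refine ⟨?_, ?_, ?_, ?_, ?_, ?_⟩
  · have := pf01 he g1 g2 g1' g2'
    calc |dt (pf e g1' g2' 0) (pf e g1 g2 1)| * w1 ≤ |g1' - g1| * w1 := by gcongr
      _ ≤ _ := by linarith
  · have := pf02 he g1 g2 g1' g2'
    calc |dt (pf e g1' g2' 0) (pf e g1 g2 2)| * w2 ≤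
          |(g2' - g2) + g1 * ((g1 - g1') * g2' + g1' * (g2' - g2))| * w2 := by gcongr
      _ ≤ _ := mix g1 g1' g2 g2' h1 h1' h2' (by rw [e1]; exact d1') d2
  · rw [dt_comm]
    have := pf01 he g1' g2' g1 g2
    calc |dt (pf e g1 g2 0) (pf e g1' g2' 1)| * w1 ≤ |g1 - g1'| * w1 := by gcongr
      _ ≤ _ := by rw [e1]; linarith
  · rw [dt_comm]
    have := pf02 he g1' g2' g1 g2
    calc |dt (pf e g1 g2 0) (pf e g1' g2' 2)| * w2 ≤
          |(g2 - g2') + g1' * ((g1' - g1) * g2 + g1 * (g2 - g2'))| * w2 := by gcongr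
      _ ≤ _ := mix g1' g1 g2' g2 h1' h1 h2 d1' (by rw [e2]; exact d2)
  · have := pf12 he g1 g2 g1' g2'
    calc |dt (pf e g1' g2' 1) (pf e g1 g2 2)| * w1 ≤ |g2 * (g1' - g1)| * w1 := by gcongr
      _ = |g2| * (|g1' - g1| * w1) := by rw [abs_mul]; ring
      _ ≤ 2 * (δ * a) := by gcongr
      _ ≤ _ := by linarith
  · rw [dt_comm]
    have := pf12 he g1' g2' g1 g2
    calc |dt (pf e g1 g2 1) (pf e g1' g2' 2)| * w1 ≤ |g2' * (g1 - g1')| * w1 := by gcongr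
      _ = |g2'| * (|g1' - g1| * w1) := by rw [abs_mul, e1]; ring
      _ ≤ 2 * (δ * a) := by gcongr
      _ ≤ _ := by linarith

variable {e : Fin 3 → V3} {c T t : Ln4} {w : V3} {q : ℝ → V3 → ℝ} {a z0 ρ : ℝ} {b0 b1 : V3}
  {G : QF}

theorem gr_le2 (N : NrmC b0 b1 G) (hw : ∀ i, 0 < w i) (h02 : w 0 ≤ w 2) (h21 : w 2 ≤ w 1) :
    |gr b0 w 1| ≤ 2 ∧ |gr b0 w 2| ≤ 2 := by
  obtain ⟨r1, r2⟩ := gr_le N hw
  have h1 : w 0 / w 1 ≤ 1 := (div_le_one (hw 1)).2 (h02.trans h21)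
  have h2 : w 0 / w 2 ≤ 1 := (div_le_one (hw 2)).2 h02
  constructor <;> linarith

/-- **the gradients at two lines which are close at the beginning of the cell** -/
theorem ratio_move {T' : Ln4} {b0' b1' : V3} {G' : QF} (S : StP e c w q z0 ρ) (hρ : 0 < ρ)
    (hE : IsExp q e w T z0 ρ b0 b1 G) (hE' : IsExp q e w T' z0 ρ b0' b1' G')
    (hT : InSheet T e c w q a z0 ρ) (hT' : InSheet T' e c w q a z0 ρ) {μ : ℝ} (hμ : 4 * μ ≤ 1)
    (h1 : |dt (e 1) (T'.pos z0 - T.pos z0)| ≤ μ * w 1)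
    (h2 : |dt (e 2) (T'.pos z0 - T.pos z0)| ≤ μ * w 2) :
    ∀ k, k = 1 ∨ k = 2 → |gr b0' w k - gr b0 w k| * w k ≤
      40 * a + 66 * μ * (w 0 * kap b0 b1 G) := by
  have hw := S.pos
  have h0 := hw 0
  have N := hE.nrmC S hρ.le fun z hz hz' => (hT z hz hz').1
  have N' := hE'.nrmC S hρ.le fun z hz hz' => (hT' z hz hz').1
  obtain ⟨g1, g2, -, -, -, -, -, s1, s2⟩ := N.b1_le
  obtain ⟨g1', g2', -⟩ := N'.b1_le
  obtain ⟨-, -, j3, j4, -, -, -⟩ := N.sh_le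
  have hb0 : b0 0 ≠ 0 := by linarith
  have hb0' : b0' 0 ≠ 0 := by linarith
  have k3 : |(shG b0 G).uu| ≤ kap b0 b1 G :=
    (le_max_left _ _).trans ((le_max_left _ _).trans (le_max_right _ _))
  have k4 : |(shG b0 G).uv| ≤ kap b0 b1 G :=
    (le_max_right _ _).trans ((le_max_left _ _).trans (le_max_right _ _))
  have k5 : |(shG b0 G).vv| ≤ kap b0 b1 G := (le_max_right _ _).trans (le_max_right _ _)
  have hκ := kap_nonneg b0 b1 G
  have hzz : z0 + ρ * 0 = z0 := by ring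
  have hy := y_bound (a := a) S hE N hρ.le (ζ := 0) (μ := μ) le_rfl zero_le_one hμ
    (x := T'.pos z0)
    (by rw [hzz]; exact (hT z0 le_rfl (by linarith)).1)
    (by rw [hzz]; exact (hT' z0 le_rfl (by linarith)).1)
    (by rw [hzz]; exact (hT z0 le_rfl (by linarith)).2)
    (by rw [hzz]; exact (hT' z0 le_rfl (by linarith)).2)
    (by rw [hzz]; exact h1) (by rw [hzz]; exact h2)
  rw [hzz] at hy
  obtain ⟨d, hd⟩ : ∃ d : V3, ∀ k, d k = dt (e k) (T'.pos z0 - T.pos z0) / w k :=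
    ⟨fun k => dt (e k) (T'.pos z0 - T.pos z0) / w k, fun k => rfl⟩
  obtain ⟨m0, m1, m2⟩ := b0_move S.ortho hw hE hE' hd
  have hd1 : |d 1| ≤ μ := by
    rw [hd, abs_div, abs_of_pos (hw 1), div_le_iff₀ (hw 1)]; exact h1
  have hd2 : |d 2| ≤ μ := by
    rw [hd, abs_div, abs_of_pos (hw 2), div_le_iff₀ (hw 2)]; exact h2
  have hμ0 : 0 ≤ μ := (abs_nonneg _).trans hd1
  -- tangent coordinate
  set Y := d 0 + b0 1 / b0 0 * d 1 + b0 2 / b0 0 * d 2 with hY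
  have hYt : w 0 * Y = ty e w b0 (T'.pos z0 - T.pos z0) := by
    have q1 := (hw 1).ne'
    have q2 := (hw 2).ne'
    simp only [hY, hd, ty, gr]
    field_simp
  have hYb : w 0 * |Y| ≤ 4 * a + 6 * μ * (w 0 * kap b0 b1 G) := by
    have : w 0 * |Y| = |w 0 * Y| := by rw [abs_mul, abs_of_pos h0]
    rw [this, hYt]; exact hy
  have e1 : b0' 1 / b0' 0 - b0 1 / b0 0 = 1 / b0' 0 *
      ((shG b0 G).yu * Y + 2 * (shG b0 G).uu * d 1 + (shG b0 G).uv * d 2) := by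
    rw [eq_comm, one_div, inv_mul_eq_div, div_eq_iff hb0', sub_mul, div_mul_cancel₀ _ hb0', m0, m1]
    simp only [shG, hY]
    field_simp
    ring
  have e2 : b0' 2 / b0' 0 - b0 2 / b0 0 = 1 / b0' 0 *
      ((shG b0 G).yv * Y + (shG b0 G).uv * d 1 + 2 * (shG b0 G).vv * d 2) := by
    rw [eq_comm, one_div, inv_mul_eq_div, div_eq_iff hb0', sub_mul, div_mul_cancel₀ _ hb0', m0, m2]
    simp only [shG, hY]
    field_simp
    ring
  have hi : |1 / b0' 0| ≤ 2 := by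
    rw [abs_of_pos (by positivity), div_le_iff₀ (by linarith)]; linarith
  have t2 : |(2 : ℝ)| ≤ 2 := by norm_num
  have hYn : |Y| ≤ |Y| := le_rfl
  have r1 : |b0' 1 / b0' 0 - b0 1 / b0 0| ≤ 10 * |Y| + 6 * μ * kap b0 b1 G := by
    rw [e1]
    have a1 := mul_abs_le j3 hYn
    have a2 := mul_abs_le (mul_abs_le t2 k3) hd1
    have a3 := mul_abs_le k4 hd2
    have := mul_abs_le hi ((abs_add_le _ _).trans (add_le_add ((abs_add_le _ _).trans
      (add_le_add a1 a2)) a3))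
    refine this.trans (le_of_eq ?_)
    ring
  have r2 : |b0' 2 / b0' 0 - b0 2 / b0 0| ≤ 10 * |Y| + 6 * μ * kap b0 b1 G := by
    rw [e2]
    have a1 := mul_abs_le j4 hYn
    have a2 := mul_abs_le k4 hd1
    have a3 := mul_abs_le (mul_abs_le t2 k5) hd2
    have := mul_abs_le hi ((abs_add_le _ _).trans (add_le_add ((abs_add_le _ _).trans
      (add_le_add a1 a2)) a3))
    refine this.trans (le_of_eq ?_)
    ring
  have fin : ∀ k, |b0' k / b0' 0 - b0 k / b0 0| ≤ 10 * |Y| + 6 * μ * kap b0 b1 G →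
      |gr b0' w k - gr b0 w k| * w k ≤ 40 * a + 66 * μ * (w 0 * kap b0 b1 G) := by
    intro k hk
    have hk0 := hw k
    have : gr b0' w k - gr b0 w k = (b0' k / b0' 0 - b0 k / b0 0) * (w 0 / w k) := by
      unfold gr; ring
    rw [this, abs_mul, abs_of_pos (div_pos h0 hk0), mul_assoc, div_mul_cancel₀ _ hk0.ne']
    calc |b0' k / b0' 0 - b0 k / b0 0| * w 0 ≤ (10 * |Y| + 6 * μ * kap b0 b1 G) * w 0 := by gcongr
      _ = 10 * (w 0 * |Y|) + 6 * μ * (w 0 * kap b0 b1 G) := by ring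
      _ ≤ 10 * (4 * a + 6 * μ * (w 0 * kap b0 b1 G)) + 6 * μ * (w 0 * kap b0 b1 G) := by gcongr
      _ = _ := by ring
  rintro k (rfl | rfl)
  · exact fin 1 r1
  · exact fin 2 r2

/-- **the frames of two lines which are close at the beginning of the cell agree** -/
theorem frame_near {T' : Ln4} {b0' b1' : V3} {G' : QF} (S : StP e c w q z0 ρ) (hρ : 0 < ρ)
    (hE : IsExp q e w T z0 ρ b0 b1 G) (hE' : IsExp q e w T' z0 ρ b0' b1' G')
    (hT : InSheet T e c w q a z0 ρ) (hT' : InSheet T' e c w q a z0 ρ) {B Λ W1 W2 : ℝ}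
    (ha : 0 < a) (hΛ : 0 < Λ)
    (h1 : |dt (e 1) (T'.pos z0 - T.pos z0)| ≤ 5 * (W1 / Λ))
    (h2 : |dt (e 2) (T'.pos z0 - T.pos z0)| ≤ 5 * (W2 / Λ))
    (hW1 : W1 ≤ B * w 1) (hW2 : W2 ≤ B * w 2) (hB1 : 1 ≤ B) (hB : 20 * B ≤ Λ)
    (hext : B * (w 0 * kap b0 b1 G) ≤ 26 * Λ * a) (haΛ : a * Λ ≤ W2) (h02 : w 0 ≤ w 2)
    (h21 : w 2 ≤ w 1) (hW21 : W2 ≤ W1) :
    Nr 4000 (pfr q e w T z0) (pfr q e w T' z0) a (W1 / Λ) (W2 / Λ) := by
  have hw := S.pos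
  have h0 := hw 0
  have p1 := hw 1
  have p2 := hw 2
  have N := hE.nrmC S hρ.le fun z hz hz' => (hT z hz hz').1
  have N' := hE'.nrmC S hρ.le fun z hz hz' => (hT' z hz hz').1
  obtain ⟨q1, q2⟩ := gr_le2 N hw h02 h21
  obtain ⟨q1', q2'⟩ := gr_le2 N' hw h02 h21
  set μ : ℝ := 5 * B / Λ with hμ
  have hμ4 : 4 * μ ≤ 1 := by
    rw [hμ, ← mul_div_assoc, div_le_one hΛ]; linarith
  have m1 : |dt (e 1) (T'.pos z0 - T.pos z0)| ≤ μ * w 1 := by
    refine h1.trans ?_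
    rw [hμ]
    calc 5 * (W1 / Λ) ≤ 5 * (B * w 1 / Λ) := by gcongr
      _ = 5 * B / Λ * w 1 := by ring
  have m2 : |dt (e 2) (T'.pos z0 - T.pos z0)| ≤ μ * w 2 := by
    refine h2.trans ?_
    rw [hμ]
    calc 5 * (W2 / Λ) ≤ 5 * (B * w 2 / Λ) := by gcongr
      _ = 5 * B / Λ * w 2 := by ring
  have hr := ratio_move S hρ hE hE' hT hT' hμ4 m1 m2
  have hBΛ : B / Λ ≤ 1 / 20 := by rw [div_le_iff₀ hΛ]; linarith
  have hBΛ0 : 0 ≤ B / Λ := by positivity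
  have hkap := kap_nonneg b0 b1 G
  have hBk : 0 ≤ B * (w 0 * kap b0 b1 G) := by positivity
  have fin : ∀ (k : Fin 3) (Wk : ℝ), k = 1 ∨ k = 2 → Wk ≤ B * w k →
      |gr b0' w k - gr b0 w k| * (Wk / Λ) ≤ 431 * a := by
    intro k Wk hk hWk
    have hrk := hr k hk
    calc |gr b0' w k - gr b0 w k| * (Wk / Λ) ≤ |gr b0' w k - gr b0 w k| * (B * w k / Λ) := by
          gcongr
      _ = B / Λ * (|gr b0' w k - gr b0 w k| * w k) := by ring
      _ ≤ B / Λ * (40 * a + 66 * μ * (w 0 * kap b0 b1 G)) := by gcongr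
      _ = 40 * a * (B / Λ) + 330 / Λ * (B / Λ) * (B * (w 0 * kap b0 b1 G)) := by rw [hμ]; ring
      _ ≤ 40 * a * (1 / 20) + 330 / Λ * (1 / 20) * (26 * Λ * a) := by gcongr
      _ = 431 * a := by field_simp; ring
  unfold pfr
  rw [cb0_eq hE h0.ne', cb0_eq hE' h0.ne']
  have haW : a ≤ W2 / Λ := by rw [le_div_iff₀ hΛ]; exact haΛ
  have hWW : W2 / Λ ≤ W1 / Λ := by gcongr
  exact (pf_near S.ortho ha haW hWW q1 q2 q1' q2' (fin 1 W1 (Or.inl rfl) hW1)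
    (fin 2 W2 (Or.inr rfl) hW2)).mono (by norm_num) ha.le (ha.le.trans haW)

/-- **the frames of one line at two heights agree** -/
theorem frame_height (S : StP e c w q z0 ρ) (hρ : 0 < ρ) (hE : IsExp q e w T z0 ρ b0 b1 G)
    (hT : InSheet T e c w q a z0 ρ) {B Λ W1 W2 z1 : ℝ} (ha : 0 < a) (hΛ : 0 < Λ) (hz : z0 ≤ z1)
    (hz' : z1 ≤ z0 + ρ) (hW1 : W1 ≤ B * w 1) (hW2 : W2 ≤ B * w 2)
    (hext : B * (w 0 * kap b0 b1 G) ≤ 26 * Λ * a) (haΛ : a * Λ ≤ W2) (h02 : w 0 ≤ w 2)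
    (h21 : w 2 ≤ w 1) (hW21 : W2 ≤ W1) :
    Nr 500 (pfr q e w T z0) (pfr q e w T z1) a (W1 / Λ) (W2 / Λ) := by
  have hw := S.pos
  have h0 := hw 0
  have N := hE.nrmC S hρ.le fun z hz hz' => (hT z hz hz').1
  obtain ⟨ζ, hζ, hζ0, hζ1⟩ : ∃ ζ, z0 + ρ * ζ = z1 ∧ 0 ≤ ζ ∧ ζ ≤ 1 := by
    refine ⟨(z1 - z0) / ρ, by field_simp; ring, div_nonneg (by linarith) hρ.le, ?_⟩
    rw [div_le_one hρ]; linarith
  subst hζ
  have hE' := isExp_sub hE ζ (1 - ζ)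
  have hsub1 : z0 + ρ * ζ + ρ * (1 - ζ) ≤ z0 + ρ := by linarith
  have N' := hE'.nrmC (stP_sub S hz hsub1) (by nlinarith) fun z h h' =>
    (inSheet_sub hT hz hsub1 z h h').1
  obtain ⟨q1, q2⟩ := gr_le2 N hw h02 h21
  obtain ⟨q1', q2'⟩ := gr_le2 N' hw h02 h21
  obtain ⟨-, hk⟩ := kap_sub N hζ0 hζ1 (r := 1 - ζ) (by linarith) (by linarith)
  have hBnn : 0 ≤ w 0 * kap b0 b1 G := mul_nonneg h0.le (kap_nonneg _ _ _)
  have fin : ∀ (k : Fin 3) (Wk : ℝ), k = 1 ∨ k = 2 → Wk ≤ B * w k →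
      |gr (fun k => b0 k + ζ * b1 k) w k - gr b0 w k| * (Wk / Λ) ≤ 52 * a := by
    intro k Wk hk1 hWk
    have hkk := hk k hk1
    have hk0 := hw k
    have e1 : gr (fun k => b0 k + ζ * b1 k) w k - gr b0 w k =
        ((b0 k + ζ * b1 k) / (b0 0 + ζ * b1 0) - b0 k / b0 0) * (w 0 / w k) := by
      unfold gr; ring
    have e2 : |gr (fun k => b0 k + ζ * b1 k) w k - gr b0 w k| * w k ≤
        2 * (w 0 * kap b0 b1 G) := by
      rw [e1, abs_mul, abs_of_pos (div_pos h0 hk0), mul_assoc, div_mul_cancel₀ _ hk0.ne']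
      calc _ ≤ 2 * kap b0 b1 G * w 0 := by gcongr
        _ = _ := by ring
    calc |gr (fun k => b0 k + ζ * b1 k) w k - gr b0 w k| * (Wk / Λ) ≤
          |gr (fun k => b0 k + ζ * b1 k) w k - gr b0 w k| * (B * w k / Λ) := by gcongr
      _ = |gr (fun k => b0 k + ζ * b1 k) w k - gr b0 w k| * w k * (B / Λ) := by ring
      _ ≤ 2 * (w 0 * kap b0 b1 G) * (B / Λ) := by
          have hB0 : 0 ≤ B := by
            by_contra hc
            push Not at hc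
            have : W2 ≤ 0 := hW2.trans (mul_nonpos_of_nonpos_of_nonneg hc.le (hw 2).le)
            have : 0 < a * Λ := mul_pos ha hΛ
            linarith
          gcongr
      _ = 2 / Λ * (B * (w 0 * kap b0 b1 G)) := by ring
      _ ≤ 2 / Λ * (26 * Λ * a) := by gcongr
      _ = 52 * a := by field_simp; ring
  unfold pfr
  rw [cb0_eq hE h0.ne', cb0_eq hE' h0.ne']
  have haW : a ≤ W2 / Λ := by rw [le_div_iff₀ hΛ]; exact haΛ
  have hWW : W2 / Λ ≤ W1 / Λ := by gcongr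
  exact (pf_near S.ortho ha haW hWW q1 q2 q1' q2' (fin 1 W1 (Or.inl rfl) hW1)
    (fin 2 W2 (Or.inr rfl) hW2)).mono (by norm_num) ha.le (ha.le.trans haW)

end Crest.Agent.R136.Mdr535
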