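import Mathlib
import Crest.Agent.R136.Coi1_102
import Crest.Agent.R136.Mdr3_535
import Crest.Agent.R136.Deep4_51

/-!
# R136 (S0187), U5 TILT, `Mid`: two nearly flat sheets with close tangent planes (helper880)

* `MidH` : the geometric data.
* `MidH.close` : the first sheet lies in the second one, fattened.
* `MidH.coin` : near the common line the second sheet lies in the first one.
-/

set_option autoImplicit false
set_option linter.unusedVariables false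

namespace Crest.Agent.R136.Mdf880

open Crest.Agent.R136.Sh605
open Crest.Agent.R136.Arc880 (abs_mul_le)
open Crest.Agent.R136.Tl102 Crest.Agent.R136.Mdr535
open Crest.Agent.R136.Fl808 (dt_expand abs_dt_le_one)
open Crest.Agent.R136.Deep51 (CoinC CloseC)

/-- value in tangent coordinates -/
theorem val_le {b0 b1 : V3} {G : QF} (N : NrmC b0 b1 G) {ω D Y U V ζ y u v : ℝ} (hω : 0 ≤ ω)
    (hζ : |ζ| ≤ 1) (hD : ω * |y| ≤ D) (hY : |y| ≤ Y) (hu : |u| ≤ U) (hv : |v| ≤ V) :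
    ω * |Fq b0 b1 G ζ (unsh b0 y u v)| ≤ D * (4 + Y + 5 * (U + V)) +
      ω * kap b0 b1 G * (U + V + U ^ 2 + U * V + V ^ 2) := by
  obtain ⟨g1, g2, -, -, g3, -, -, -, -⟩ := N.b1_le
  obtain ⟨-, -, h3, h4, -, -, -⟩ := N.sh_le
  obtain ⟨m1, -⟩ := N.G_le
  have k1 : |shB1 b0 b1 1| ≤ kap b0 b1 G := (le_max_left _ _).trans (le_max_left _ _)
  have k2 : |shB1 b0 b1 2| ≤ kap b0 b1 G := (le_max_right _ _).trans (le_max_left _ _)
  have k3 : |(shG b0 G).uu| ≤ kap b0 b1 G :=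
    (le_max_left _ _).trans ((le_max_left _ _).trans (le_max_right _ _))
  have k4 : |(shG b0 G).uv| ≤ kap b0 b1 G :=
    (le_max_right _ _).trans ((le_max_left _ _).trans (le_max_right _ _))
  have k5 : |(shG b0 G).vv| ≤ kap b0 b1 G := (le_max_right _ _).trans (le_max_right _ _)
  have hκ := kap_nonneg b0 b1 G
  generalize kap b0 b1 G = κ at *
  have hb0 : b0 0 ≠ 0 := ne_of_gt (by linarith)
  rw [Fq_unsh hb0]
  have e1 : Fq (shB0 b0) (shB1 b0 b1) (shG b0 G) ζ ![y, u, v] =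
      y * (b0 0 + ζ * b1 0 + G.yy * y + ((shG b0 G).yu * u + (shG b0 G).yv * v)) +
      (ζ * (shB1 b0 b1 1 * u) + ζ * (shB1 b0 b1 2 * v) + (shG b0 G).uu * (u * u) +
        (shG b0 G).uv * (u * v) + (shG b0 G).vv * (v * v)) := by
    simp only [Fq, dt, bz, QF.ev, shB0, shB1, shG, Matrix.cons_val]
    ring
  have b2 : |b0 0| ≤ 2 := by rw [abs_of_pos (by linarith)]; exact g2
  have f1 : |b0 0 + ζ * b1 0 + G.yy * y + ((shG b0 G).yu * u + (shG b0 G).yv * v)| ≤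
      2 + 1 * (3 / 2) + 1 * Y + (5 * U + 5 * V) :=
    Arc880.abs_add2 (Arc880.abs_add2 (Arc880.abs_add2 b2 (mul_abs_le hζ g3)) (mul_abs_le m1 hY))
      (Arc880.abs_add2 (mul_abs_le h3 hu) (mul_abs_le h4 hv))
  have f2 : |ζ * (shB1 b0 b1 1 * u) + ζ * (shB1 b0 b1 2 * v) + (shG b0 G).uu * (u * u) +
        (shG b0 G).uv * (u * v) + (shG b0 G).vv * (v * v)| ≤
      1 * (κ * U) + 1 * (κ * V) + κ * (U * U) + κ * (U * V) + κ * (V * V) :=
    Arc880.abs_add2 (Arc880.abs_add2 (Arc880.abs_add2 (Arc880.abs_add2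
      (mul_abs_le hζ (mul_abs_le k1 hu)) (mul_abs_le hζ (mul_abs_le k2 hv)))
      (mul_abs_le k3 (mul_abs_le hu hu))) (mul_abs_le k4 (mul_abs_le hu hv)))
      (mul_abs_le k5 (mul_abs_le hv hv))
  have hY0 : 0 ≤ Y := (abs_nonneg _).trans hY
  have hU0 : 0 ≤ U := (abs_nonneg _).trans hu
  have hV0 : 0 ≤ V := (abs_nonneg _).trans hv
  have hD0 : 0 ≤ D := (mul_nonneg hω (abs_nonneg _)).trans hD
  rw [e1]
  calc ω * |y * (b0 0 + ζ * b1 0 + G.yy * y + ((shG b0 G).yu * u + (shG b0 G).yv * v)) +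
      (ζ * (shB1 b0 b1 1 * u) + ζ * (shB1 b0 b1 2 * v) + (shG b0 G).uu * (u * u) +
        (shG b0 G).uv * (u * v) + (shG b0 G).vv * (v * v))| ≤
      ω * (|y| * (2 + 1 * (3 / 2) + 1 * Y + (5 * U + 5 * V)) +
        (1 * (κ * U) + 1 * (κ * V) + κ * (U * U) + κ * (U * V) + κ * (V * V))) := by
        refine mul_le_mul_of_nonneg_left ?_ hω
        refine Arc880.abs_add2 ?_ f2
        rw [abs_mul]
        exact mul_le_mul_of_nonneg_left f1 (abs_nonneg _)
    _ = ω * |y| * (2 + 1 * (3 / 2) + 1 * Y + (5 * U + 5 * V)) +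
        ω * κ * (U + V + U ^ 2 + U * V + V ^ 2) := by ring
    _ ≤ D * (2 + 1 * (3 / 2) + 1 * Y + (5 * U + 5 * V)) +
        ω * κ * (U + V + U ^ 2 + U * V + V ^ 2) := by gcongr
    _ ≤ _ := by nlinarith

theorem ty_eq {e : Fin 3 → V3} {w : V3} (hw : ∀ k, 0 < w k) (b0 V : V3) :
    ty e w b0 V = w 0 * yc b0 (pv e w V) := by
  have h0 := (hw 0).ne'
  have h1 := (hw 1).ne'
  have h2 := (hw 2).ne'
  simp only [ty, yc, pv, gr]
  field_simp

/-- bound of the sheet function by the distance to the tangent plane -/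
theorem q_le {e : Fin 3 → V3} {w : V3} {q : ℝ → V3 → ℝ} {T : Ln4} {z0 ρ a : ℝ} {b0 b1 : V3} {G : QF}
    (he : Ortho e) (hw : ∀ k, 0 < w k) (hE : IsExp q e w T z0 ρ b0 b1 G) (N : NrmC b0 b1 G)
    {ζ D Y U V : ℝ} {X : V3} (hζ : |ζ| ≤ 1)
    (hTa : |q (z0 + ρ * ζ) (T.pos (z0 + ρ * ζ))| ≤ a)
    (hD : |ty e w b0 (X - T.pos (z0 + ρ * ζ))| ≤ D) (hY : D ≤ Y * w 0)
    (hu : |dt (e 1) (X - T.pos (z0 + ρ * ζ))| ≤ U * w 1)
    (hv : |dt (e 2) (X - T.pos (z0 + ρ * ζ))| ≤ V * w 2) :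
    |q (z0 + ρ * ζ) X| ≤ a + (D * (4 + Y + 5 * (U + V)) +
      w 0 * kap b0 b1 G * (U + V + U ^ 2 + U * V + V ^ 2)) := by
  have hw0 := hw 0
  have h := hE ζ (pv e w (X - T.pos (z0 + ρ * ζ)))
  rw [cmb_pv he (fun k => (hw k).ne')] at h
  have hX : T.pos (z0 + ρ * ζ) + (X - T.pos (z0 + ρ * ζ)) = X := by abel
  rw [hX] at h
  set V' := X - T.pos (z0 + ρ * ζ) with hV'
  have hty := ty_eq (e := e) hw b0 V'
  rw [hty, abs_mul, abs_of_pos hw0] at hD
  have hY' : |yc b0 (pv e w V')| ≤ Y := by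
    have : w 0 * |yc b0 (pv e w V')| ≤ w 0 * Y := by linarith
    exact le_of_mul_le_mul_left this hw0
  have hu' : |pv e w V' 1| ≤ U := by
    change |dt (e 1) V' / w 1| ≤ U
    rw [abs_div, abs_of_pos (hw 1), div_le_iff₀ (hw 1)]; exact hu
  have hv' : |pv e w V' 2| ≤ V := by
    change |dt (e 2) V' / w 2| ≤ V
    rw [abs_div, abs_of_pos (hw 2), div_le_iff₀ (hw 2)]; exact hv
  have k := val_le N hw0.le hζ hD hY' hu' hv'
  rw [unsh_yc] at k
  rw [h]
  refine (abs_add_le _ _).trans (add_le_add hTa ?_)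
  rw [abs_mul, abs_of_pos hw0]
  exact k

/-- vertical distance and normal distance -/
theorem ty_frame {e : Fin 3 → V3} {w : V3} {b0 b1 : V3} {G : QF} (N : NrmC b0 b1 G)
    (hw : ∀ k, 0 < w k) (h02 : w 0 ≤ w 2) (h21 : w 2 ≤ w 1) (V : V3) :
    |dt (pf e (gr b0 w 1) (gr b0 w 2) 0) V| ≤ |ty e w b0 V| ∧
      |ty e w b0 V| ≤ 3 * |dt (pf e (gr b0 w 1) (gr b0 w 2) 0) V| := by
  obtain ⟨r1, r2⟩ := gr_le N hw
  have w01 : w 0 / w 1 ≤ 1 := (div_le_one (hw 1)).2 (h02.trans h21)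
  have w02 : w 0 / w 2 ≤ 1 := (div_le_one (hw 2)).2 h02
  have r1a : |gr b0 w 1| ≤ 2 := r1.trans (by linarith only [w01])
  have r2a : |gr b0 w 2| ≤ 2 := r2.trans (by linarith only [w02])
  refine ⟨pf_zero _ _ _, ?_⟩
  set m := Real.sqrt (1 + gr b0 w 1 ^ 2 + gr b0 w 2 ^ 2) with hm
  have hm1 : 1 ≤ m := one_le_m _ _
  have hm3 : m ≤ 3 := by
    rw [hm]
    refine (Real.sqrt_le_sqrt (?_ : _ ≤ (3 : ℝ) ^ 2)).trans (by rw [Real.sqrt_sq (by norm_num)])
    have e1 := pow_le_pow_left₀ (abs_nonneg _) r1a 2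
    have e2 := pow_le_pow_left₀ (abs_nonneg _) r2a 2
    rw [sq_abs] at e1 e2
    linarith only [e1, e2]
  have e1 : ty e w b0 V = m * dt (pf e (gr b0 w 1) (gr b0 w 2) 0) V := by
    unfold pf
    rw [adF_zero, ← hm, ← mul_assoc, mul_one_div_cancel (by linarith only [hm1]), one_mul,
      one_mul]
    rfl
  rw [e1, abs_mul, abs_of_pos (by linarith only [hm1])]
  exact mul_le_mul_of_nonneg_right hm3 (abs_nonneg _)

/-- **the geometric data of `Mid`** -/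
structure MidH (e : Fin 3 → V3) (c : Ln4) (w : V3) (q : ℝ → V3 → ℝ) (e' : Fin 3 → V3) (c' : Ln4)
    (w' : V3) (q' : ℝ → V3 → ℝ) (T : Ln4) (z0 ρ a a' : ℝ) (b0 b1 : V3) (G : QF)
    (d0 d1 : V3) (H : QF) (A E Θ B lam : ℝ) : Prop where
  S : StP e c w q z0 ρ
  S' : StP e' c' w' q' z0 ρ
  hρ : 0 < ρ
  hT : InSheet T e c w q a z0 ρ
  hT' : InSheet T e' c' w' q' a' z0 ρ
  hE : IsExp q e w T z0 ρ b0 b1 G
  hH : IsExp q' e' w' T z0 ρ d0 d1 H
  w02 : w 0 ≤ w 2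
  w21 : w 2 ≤ w 1
  w02' : w' 0 ≤ w' 2
  w21' : w' 2 ≤ w' 1
  E1 : 1 ≤ E
  Θ1 : 1 ≤ Θ
  B1 : 1 ≤ B
  lam1 : 1 ≤ lam
  wB1 : w' 1 ≤ B * w 1
  wB2 : w' 2 ≤ B * w 2
  wB1' : w 1 ≤ B * w' 1
  wB2' : w 2 ≤ B * w' 2
  A0 : 0 < A
  aA : a ≤ A
  aA' : a' ≤ A
  Aw' : A ≤ B * w' 0
  ext : w 0 * kap b0 b1 G ≤ E * A
  ext' : w' 0 * kap d0 d1 H ≤ E * A
  nr : Nr Θ (pfr q e w T z0) (pfr q' e' w' T z0) A (w 1) (w 2)
  t21 : |dt (e 2) (e' 1)| * w 1 ≤ lam * w 2
  t12 : |dt (e 1) (e' 2)| * w 1 ≤ lam * w 2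

section
variable {e : Fin 3 → V3} {c : Ln4} {w : V3} {q : ℝ → V3 → ℝ} {e' : Fin 3 → V3} {c' : Ln4}
  {w' : V3} {q' : ℝ → V3 → ℝ} {T : Ln4} {z0 ρ a a' : ℝ} {b0 b1 : V3} {G : QF}
  {d0 d1 : V3} {H : QF} {A E Θ B lam : ℝ}

theorem MidH.nrm (D : MidH e c w q e' c' w' q' T z0 ρ a a' b0 b1 G d0 d1 H A E Θ B lam) :
    NrmC b0 b1 G := D.hE.nrmC D.S D.hρ.le fun z h1 h2 => (D.hT z h1 h2).1

theorem MidH.nrm' (D : MidH e c w q e' c' w' q' T z0 ρ a a' b0 b1 G d0 d1 H A E Θ B lam) :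
    NrmC d0 d1 H := D.hH.nrmC D.S' D.hρ.le fun z h1 h2 => (D.hT' z h1 h2).1

/-- the frame of the tangent plane -/
theorem MidH.frame (D : MidH e c w q e' c' w' q' T z0 ρ a a' b0 b1 G d0 d1 H A E Θ B lam) :
    pfr q e w T z0 = pf e (gr b0 w 1) (gr b0 w 2) ∧
      pfr q' e' w' T z0 = pf e' (gr d0 w' 1) (gr d0 w' 2) := by
  constructor
  · unfold pfr; rw [cb0_eq D.hE (D.S.pos 0).ne']
  · unfold pfr; rw [cb0_eq D.hH (D.S'.pos 0).ne']

/-- `<f' 0, V>` from the coordinates in the frame `f` -/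
theorem expand_le {f : Fin 3 → V3} (hf : Ortho f) (U V : V3) {x0 x1 x2 : ℝ}
    (h0 : |dt U (f 0)| * |dt (f 0) V| ≤ x0) (h1 : |dt U (f 1)| * |dt (f 1) V| ≤ x1)
    (h2 : |dt U (f 2)| * |dt (f 2) V| ≤ x2) : |dt U V| ≤ x0 + x1 + x2 := by
  rw [dt_expand hf U V]
  refine (abs_add_le _ _).trans (add_le_add ((abs_add_le _ _).trans (add_le_add ?_ ?_)) ?_) <;>
    rw [abs_mul] <;> assumption

/-- arithmetic of `MidH.close` -/
theorem close_arith {E Θ B lam A k : ℝ} (hE1 : 1 ≤ E) (hΘ1 : 1 ≤ Θ) (hB1 : 1 ≤ B) (hl1 : 1 ≤ lam)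
    (A0 : 0 < A) (hk : k ≤ E * A) (hk0 : 0 ≤ k) :
    A + (21 * (E * Θ * A) * (4 + 21 * (E * Θ * B) + 5 * (B + B * lam)) +
      k * (B + B * lam + B ^ 2 + B * (B * lam) + (B * lam) ^ 2)) ≤
      5000 * (E * Θ * B * lam) ^ 2 * A := by
  have P1 : 1 ≤ E * Θ := one_le_mul_of_one_le_of_one_le hE1 hΘ1
  have P2 : 1 ≤ B * lam := one_le_mul_of_one_le_of_one_le hB1 hl1
  have P3 : B ≤ B * lam := le_mul_of_one_le_right (by linarith only [hB1]) hl1
  have hp : E * Θ * B * lam = (E * Θ) * (B * lam) := by ring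
  have E0 : 0 < E := by linarith only [hE1]
  have B0 : 0 < B := by linarith only [hB1]
  rw [hp]
  have hbb : B * lam = B * lam := rfl
  generalize hb : B * lam = b at *
  have b0 : 0 < b := by linarith only [P2]
  have s0 : E ≤ E * Θ := le_mul_of_one_le_right E0.le hΘ1
  have s1 : E ≤ (E * Θ) ^ 2 := by
    calc E ≤ E * Θ := s0
      _ = E * Θ * 1 := (mul_one _).symm
      _ ≤ E * Θ * (E * Θ) := by gcongr
      _ = _ := by ring
  generalize hpp : E * Θ = p at *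
  have p0 : 0 < p := by linarith only [P1]
  have hpb : 1 ≤ p * b := one_le_mul_of_one_le_of_one_le P1 P2
  have hpb2 : p * b ≤ (p * b) ^ 2 := by
    calc p * b = p * b * 1 := (mul_one _).symm
      _ ≤ p * b * (p * b) := by gcongr
      _ = _ := by ring
  have t1 : p ≤ (p * b) ^ 2 := (le_mul_of_one_le_right p0.le P2).trans hpb2
  have t2 : p * (p * B) ≤ (p * b) ^ 2 := by
    calc p * (p * B) ≤ p * (p * b) := by gcongr
      _ = p * (p * b) * 1 := (mul_one _).symm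
      _ ≤ p * (p * b) * b := by gcongr
      _ = _ := by ring
  have t3 : p * B ≤ (p * b) ^ 2 := (mul_le_mul_of_nonneg_left P3 p0.le).trans hpb2
  have t4 : B + b + B ^ 2 + B * b + b ^ 2 ≤ 5 * b ^ 2 := by
    have u1 : b ≤ b ^ 2 := by
      calc b = b * 1 := (mul_one _).symm
        _ ≤ b * b := by gcongr
        _ = _ := by ring
    have u2 : B * b ≤ b * b := by gcongr
    have u3 : B ^ 2 ≤ b ^ 2 := by gcongr
    linarith only [u1, u2, u3, P3]
  have t5 : k * (B + b + B ^ 2 + B * b + b ^ 2) ≤ 5 * ((p * b) ^ 2 * A) := by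
    calc k * (B + b + B ^ 2 + B * b + b ^ 2) ≤ E * A * (5 * b ^ 2) :=
          mul_le_mul hk t4 (by positivity) (by positivity)
      _ ≤ p ^ 2 * A * (5 * b ^ 2) := by gcongr
      _ = _ := by ring
  have t6 : A ≤ (p * b) ^ 2 * A := le_mul_of_one_le_left A0.le (hpb.trans hpb2)
  have t7 := mul_le_mul_of_nonneg_right t1 A0.le
  have t8 := mul_le_mul_of_nonneg_right t2 A0.le
  have t9 := mul_le_mul_of_nonneg_right t3 A0.le
  have t10 := mul_le_mul_of_nonneg_right hpb2 A0.le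
  have e1 : 21 * (p * A) * (4 + 21 * (p * B) + 5 * (B + b)) =
      84 * (p * A) + 441 * (p * (p * B) * A) + 105 * (p * B * A) + 105 * (p * b * A) := by ring
  have e2 : 5000 * (p * b) ^ 2 * A = 5000 * ((p * b) ^ 2 * A) := by ring
  rw [e1, e2]
  have t11 : 0 ≤ (p * b) ^ 2 * A := by positivity
  linarith only [t5, t6, t7, t8, t9, t10, t11]

/-- **closeness** -/
theorem MidH.close (D : MidH e c w q e' c' w' q' T z0 ρ a a' b0 b1 G d0 d1 H A E Θ B lam) :
    CloseC e w q a q' (5000 * (E * Θ * B * lam) ^ 2 * A) T z0 ρ := by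
  intro z hz hz' x hx hxa
  obtain ⟨ζ, rfl, hζ0, hζ1⟩ : ∃ ζ, z0 + ρ * ζ = z ∧ 0 ≤ ζ ∧ ζ ≤ 1 := by
    have hρ := D.hρ
    refine ⟨(z - z0) / ρ, by field_simp; ring, div_nonneg (by linarith) hρ.le, ?_⟩
    rw [div_le_one hρ]; linarith
  have hζ : |ζ| ≤ 1 := by rw [abs_of_nonneg hζ0]; exact hζ1
  obtain ⟨hTK, hTa⟩ := D.hT _ hz hz'
  obtain ⟨-, hTa'⟩ := D.hT' _ hz hz'
  have N := D.nrm
  have N' := D.nrm'
  have hw := D.S.pos
  have hw' := D.S'.pos
  have h0 := hw 0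
  have h1 := hw 1
  have h2 := hw 2
  have h0' := hw' 0
  have h1' := hw' 1
  have h2' := hw' 2
  have w02 := D.w02
  have w21 := D.w21
  have A0 := D.A0
  have aA := D.aA
  have aA' := D.aA'
  have hE1 := D.E1
  have hΘ1 := D.Θ1
  have hB1 := D.B1
  have hl1 := D.lam1
  have ext := D.ext
  set V := x - T.pos (z0 + ρ * ζ) with hV
  have v0 : |dt (e 0) V| ≤ w 0 / 8 := hx 0
  have v1 : |dt (e 1) V| ≤ w 1 / 8 := hx 1
  have v2 : |dt (e 2) V| ≤ w 2 / 8 := hx 2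
  -- distance to the tangent plane
  have hXK : InK e c (dbl3 w) (z0 + ρ * ζ) x := by
    intro i
    have e1 : dt (e i) (x - c.pos (z0 + ρ * ζ)) = dt (e i) V +
        dt (e i) (T.pos (z0 + ρ * ζ) - c.pos (z0 + ρ * ζ)) := by
      rw [← dt_add, hV]; congr 1; abel
    rw [e1]
    refine (abs_add_le _ _).trans ?_
    have h3 := hTK i
    have h4 : |dt (e i) V| ≤ w i / 8 := hx i
    have h5 := hw i
    change _ ≤ 2 * w i
    linarith only [h3, h4, h5]
  have hty : |ty e w b0 V| ≤ 5 * (E * A) := by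
    have hp1 : |pc e w T (z0 + ρ * ζ) x 1| ≤ 1 / 8 := by
      change |dt (e 1) V / w 1| ≤ 1 / 8
      rw [abs_div, abs_of_pos h1, div_le_iff₀ h1]; linarith only [v1]
    have hp2 : |pc e w T (z0 + ρ * ζ) x 2| ≤ 1 / 8 := by
      change |dt (e 2) V / w 2| ≤ 1 / 8
      rw [abs_div, abs_of_pos h2, div_le_iff₀ h2]; linarith only [v2]
    have k := yc_le2 D.S D.hρ.le (fun z h h' => (D.hT z h h').1) D.hE hζ0 hζ1 hXK le_rfl hp1 hp2
    rw [ty_eq hw, abs_mul, abs_of_pos h0]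
    rw [pc_pv, ← hV] at k
    have hEA : A ≤ E * A := le_mul_of_one_le_left A0.le hE1
    linarith only [k, hxa, hTa, aA, ext, hEA, A0]
  -- coordinates in the frame `f`
  obtain ⟨r1, r2⟩ := gr_le N hw
  have w01q : w 0 / w 1 ≤ 1 := (div_le_one h1).2 (w02.trans w21)
  have w02q : w 0 / w 2 ≤ 1 := (div_le_one h2).2 w02
  have r1a : |gr b0 w 1| ≤ 2 := r1.trans (by linarith only [w01q])
  have r2a : |gr b0 w 2| ≤ 2 := r2.trans (by linarith only [w02q])
  obtain ⟨hf, hf'⟩ := D.frame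
  have nr := D.nr
  rw [hf, hf'] at nr
  have f0V := (ty_frame (e := e) N hw w02 w21 V).1.trans hty
  have p1 : |gr b0 w 1 * dt (e 1) V| ≤ w 0 / 4 := by
    rw [abs_mul]
    calc |gr b0 w 1| * |dt (e 1) V| ≤ 2 * (w 0 / w 1) * (w 1 / 8) := by gcongr
      _ = _ := by field_simp; norm_num
  have f1V : |dt (pf e (gr b0 w 1) (gr b0 w 2) 1) V| ≤ w 1 := by
    refine (pf_one _ _ _).trans ?_
    have : |gr b0 w 1| * |dt (e 0) V| ≤ 2 * (w 0 / 8) := by gcongr
    linarith only [this, v1, w02, w21, h0, h1, h2]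
  have f2V : |dt (pf e (gr b0 w 1) (gr b0 w 2) 2) V| ≤ w 2 := by
    refine (pf_two _ _ _).trans ?_
    have t1 : |gr b0 w 2| * |dt (e 0) V| ≤ 2 * (w 0 / 8) := by gcongr
    have t2 : |gr b0 w 2| * |gr b0 w 1 * dt (e 1) V| ≤ 2 * (w 0 / 4) := by gcongr
    linarith only [t1, t2, v2, w02, h0, h2]
  set f := pf e (gr b0 w 1) (gr b0 w 2) with hff
  set f' := pf e' (gr d0 w' 1) (gr d0 w' 2) with hff'
  have hfo : Ortho f := pf_ortho D.S.ortho _ _
  have hfo' : Ortho f' := pf_ortho D.S'.ortho _ _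
  have g0 : |dt (f' 0) (f 0)| * |dt (f 0) V| ≤ 5 * (E * A) := by
    have o := abs_dt_le_one hfo hfo' 0 0
    calc |dt (f' 0) (f 0)| * |dt (f 0) V| ≤ 1 * (5 * (E * A)) := by gcongr
      _ = _ := one_mul _
  have g1 : |dt (f' 0) (f 1)| * |dt (f 1) V| ≤ Θ * A :=
    (mul_le_mul_of_nonneg_left f1V (abs_nonneg _)).trans nr.n01
  have g2 : |dt (f' 0) (f 2)| * |dt (f 2) V| ≤ Θ * A :=
    (mul_le_mul_of_nonneg_left f2V (abs_nonneg _)).trans nr.n02
  have f0V' := expand_le hfo (f' 0) V g0 g1 g2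
  have hEΘ : E * A ≤ E * Θ * A := by
    have := mul_le_mul_of_nonneg_left hΘ1 (mul_nonneg (by linarith only [hE1] : 0 ≤ E) A0.le)
    linarith only [this]
  have hΘE : Θ * A ≤ E * Θ * A := by
    have := mul_le_mul_of_nonneg_left hE1 (mul_nonneg (by linarith only [hΘ1] : 0 ≤ Θ) A0.le)
    linarith only [this]
  have hty' : |ty e' w' d0 V| ≤ 21 * (E * Θ * A) := by
    refine (ty_frame (e := e') N' hw' D.w02' D.w21' V).2.trans ?_
    linarith only [f0V', hEΘ, hΘE]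
  -- lateral coordinates in the second frame
  have o := fun i j => dt_le_one D.S'.ortho D.S.ortho i j
  have hBw1 : |dt (e' 1) V| ≤ B * w' 1 := by
    have k0 : |dt (e' 1) (e 0)| * |dt (e 0) V| ≤ 1 * (w 0 / 8) := by
      have := o 1 0; gcongr
    have k1 : |dt (e' 1) (e 1)| * |dt (e 1) V| ≤ 1 * (w 1 / 8) := by
      have := o 1 1; gcongr
    have k2 : |dt (e' 1) (e 2)| * |dt (e 2) V| ≤ 1 * (w 2 / 8) := by
      have := o 1 2; gcongr
    have := expand_le D.S.ortho (e' 1) V k0 k1 k2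
    have := D.wB1'
    linarith
  have hBw2 : |dt (e' 2) V| ≤ B * lam * w' 2 := by
    have k0 : |dt (e' 2) (e 0)| * |dt (e 0) V| ≤ 1 * (w 0 / 8) := by
      have := o 2 0; gcongr
    have k1 : |dt (e' 2) (e 1)| * |dt (e 1) V| ≤ lam * w 2 / 8 := by
      have h3 := D.t12
      rw [dt_comm] at h3
      calc |dt (e' 2) (e 1)| * |dt (e 1) V| ≤ |dt (e' 2) (e 1)| * (w 1 / 8) := by gcongr
        _ = (|dt (e' 2) (e 1)| * w 1) / 8 := by ring
        _ ≤ _ := by gcongr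
    have k2 : |dt (e' 2) (e 2)| * |dt (e 2) V| ≤ 1 * (w 2 / 8) := by
      have := o 2 2; gcongr
    have h5 := expand_le D.S.ortho (e' 2) V k0 k1 k2
    have h6 : w 2 ≤ lam * w 2 := le_mul_of_one_le_left h2.le hl1
    have h7 : lam * w 2 ≤ lam * (B * w' 2) := mul_le_mul_of_nonneg_left D.wB2' (by linarith)
    linarith
  have hYB : 21 * (E * Θ * A) ≤ 21 * (E * Θ * B) * w' 0 := by
    have := mul_le_mul_of_nonneg_left D.Aw' (by positivity : 0 ≤ 21 * (E * Θ))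
    linarith
  have fin := q_le D.S'.ortho hw' D.hH N' hζ (hTa'.trans aA') hty' hYB hBw1 hBw2
  have k0 := kap_nonneg d0 d1 H
  exact fin.trans (close_arith hE1 hΘ1 hB1 hl1 A0 D.ext' (mul_nonneg h0'.le k0))

/-- smallness of the scale -/
theorem small_arith {E Θ B lam s : ℝ} (hE1 : 1 ≤ E) (hΘ1 : 1 ≤ Θ) (hB1 : 1 ≤ B) (hl1 : 1 ≤ lam)
    (hs : 0 < s) (h : 1000 * (E * Θ * B * lam) ^ 2 * s ≤ 1) :
    s ≤ 1 / 1000 ∧ s * B ≤ 1 / 1000 ∧ s * B ^ 2 ≤ 1 / 1000 ∧ s * (B * E) ≤ 1 / 1000 ∧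
      s * (B ^ 2 * E) ≤ 1 / 1000 ∧ s * (B ^ 2 * Θ) ≤ 1 / 1000 := by
  have E0 : 0 < E := by linarith only [hE1]
  have B0 : 0 < B := by linarith only [hB1]
  have Θ0 : 0 < Θ := by linarith only [hΘ1]
  have l0 : 0 < lam := by linarith only [hl1]
  have key : ∀ x : ℝ, x ≤ (E * Θ * B * lam) ^ 2 → s * x ≤ 1 / 1000 := by
    intro x hx
    have := mul_le_mul_of_nonneg_left hx hs.le
    linarith only [this, h]
  have c1 : 1 ≤ lam ^ 2 := one_le_pow₀ hl1
  have c2 : 1 ≤ Θ ^ 2 := one_le_pow₀ hΘ1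
  have c3 : 1 ≤ E ^ 2 := one_le_pow₀ hE1
  have c4 : 1 ≤ B ^ 2 := one_le_pow₀ hB1
  have d2 : Θ ≤ Θ ^ 2 := by nlinarith only [hΘ1]
  have d3 : E ≤ E ^ 2 := by nlinarith only [hE1]
  have d4 : B ≤ B ^ 2 := by nlinarith only [hB1]
  have e1 : (E * Θ * B * lam) ^ 2 = B ^ 2 * (E ^ 2 * (Θ ^ 2 * lam ^ 2)) := by ring
  have e2 : 1 ≤ Θ ^ 2 * lam ^ 2 := one_le_mul_of_one_le_of_one_le c2 c1
  have e3 : 1 ≤ E ^ 2 * (Θ ^ 2 * lam ^ 2) := one_le_mul_of_one_le_of_one_le c3 e2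
  have e4 : E ≤ E ^ 2 * (Θ ^ 2 * lam ^ 2) :=
    d3.trans (le_mul_of_one_le_right (by positivity) e2)
  have e5 : Θ ≤ E ^ 2 * (Θ ^ 2 * lam ^ 2) :=
    d2.trans ((le_mul_of_one_le_right (by positivity) c1).trans
      (le_mul_of_one_le_left (by positivity) c3))
  rw [e1] at key
  have f1 : B ^ 2 ≤ B ^ 2 * (E ^ 2 * (Θ ^ 2 * lam ^ 2)) :=
    le_mul_of_one_le_right (by positivity) e3
  refine ⟨?_, key _ (d4.trans f1), key _ f1, key _ ?_, key _ ?_, key _ ?_⟩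
  · have := key 1 (c4.trans f1)
    linarith only [this]
  · exact mul_le_mul d4 e4 E0.le (by positivity)
  · gcongr
  · gcongr

/-- **coincidence** near the common line -/
theorem MidH.coin (D : MidH e c w q e' c' w' q' T z0 ρ a a' b0 b1 G d0 d1 H A E Θ B lam) {s : ℝ}
    (hs : 0 < s) (hsm : 1000 * (E * Θ * B * lam) ^ 2 * s ≤ 1) (hK : 500 * A ≤ w 0) :
    CoinC e w q e' c' w' q' a' (700 * A) (s / lam * w 1) (s * w 2) T z0 ρ := by
  intro z hz hz' x hxK hxa v1' v2'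
  obtain ⟨ζ, rfl, hζ0, hζ1⟩ : ∃ ζ, z0 + ρ * ζ = z ∧ 0 ≤ ζ ∧ ζ ≤ 1 := by
    have hρ := D.hρ
    refine ⟨(z - z0) / ρ, by field_simp; ring, div_nonneg (by linarith) hρ.le, ?_⟩
    rw [div_le_one hρ]; linarith
  have hζ : |ζ| ≤ 1 := by rw [abs_of_nonneg hζ0]; exact hζ1
  obtain ⟨-, hTa⟩ := D.hT _ hz hz'
  obtain ⟨hTK', hTa'⟩ := D.hT' _ hz hz'
  have N := D.nrm
  have N' := D.nrm'
  have hw := D.S.pos
  have hw' := D.S'.pos
  have h0 := hw 0
  have h1 := hw 1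
  have h2 := hw 2
  have h0' := hw' 0
  have h1' := hw' 1
  have h2' := hw' 2
  have w02 := D.w02
  have w21 := D.w21
  have w02' := D.w02'
  have w21' := D.w21'
  have A0 := D.A0
  have aA := D.aA
  have aA' := D.aA'
  have hE1 := D.E1
  have hΘ1 := D.Θ1
  have hB1 := D.B1
  have hl1 := D.lam1
  have B0 : 0 < B := by linarith only [hB1]
  have l0 : 0 < lam := by linarith only [hl1]
  obtain ⟨s1, s2, s3, s4, s5, s6⟩ := small_arith hE1 hΘ1 hB1 hl1 hs hsm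
  set V := x - T.pos (z0 + ρ * ζ) with hV
  have hsl : s / lam ≤ s := div_le_self hs.le hl1
  have hsw1 : s / lam * w 1 ≤ s * w 1 := mul_le_mul_of_nonneg_right hsl h1.le
  have u1 : s * w 1 ≤ s * B * w' 1 := by
    have := mul_le_mul_of_nonneg_left D.wB1' hs.le
    linarith only [this]
  have u2 : s * w 2 ≤ s * B * w' 2 := by
    have := mul_le_mul_of_nonneg_left D.wB2' hs.le
    linarith only [this]
  -- distance to the tangent plane of the second sheet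
  have hXK : InK e' c' (dbl3 w') (z0 + ρ * ζ) x := by
    intro i
    refine (hxK i).trans ?_
    change _ ≤ 2 * w' i
    linarith only [hw' i]
  have ext' := D.ext'
  have hty' : |ty e' w' d0 V| ≤ 5 * A := by
    have hp1 : |pc e' w' T (z0 + ρ * ζ) x 1| ≤ s * B := by
      change |dt (e' 1) V / w' 1| ≤ s * B
      rw [abs_div, abs_of_pos h1', div_le_iff₀ h1']; exact v1'.trans (hsw1.trans u1)
    have hp2 : |pc e' w' T (z0 + ρ * ζ) x 2| ≤ s * B := by
      change |dt (e' 2) V / w' 2| ≤ s * B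
      rw [abs_div, abs_of_pos h2', div_le_iff₀ h2']; exact v2'.trans u2
    have k := yc_le2 D.S' D.hρ.le (fun z h h' => (D.hT' z h h').1) D.hH hζ0 hζ1 hXK
      (s2.trans (by norm_num)) hp1 hp2
    rw [ty_eq hw', abs_mul, abs_of_pos h0']
    rw [pc_pv, ← hV] at k
    have k2 : 5 * (s * B) * (w' 0 * kap d0 d1 H) ≤ A := by
      calc 5 * (s * B) * (w' 0 * kap d0 d1 H) ≤ 5 * (s * B) * (E * A) := by gcongr
        _ = 5 * (s * (B * E)) * A := by ring
        _ ≤ 5 * (1 / 1000) * A := by gcongr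
        _ ≤ A := by linarith only [A0]
    linarith only [k, hxa, hTa', aA', k2]
  -- frames
  obtain ⟨r1, r2⟩ := gr_le N hw
  obtain ⟨r1', r2'⟩ := gr_le N' hw'
  have w01q : w' 0 / w' 1 ≤ 1 := (div_le_one h1').2 (w02'.trans w21')
  have w02q : w' 0 / w' 2 ≤ 1 := (div_le_one h2').2 w02'
  have r1a : |gr d0 w' 1| ≤ 2 := r1'.trans (by linarith only [w01q])
  have r2a : |gr d0 w' 2| ≤ 2 := r2'.trans (by linarith only [w02q])
  obtain ⟨hf, hf'⟩ := D.frame
  have nr := D.nr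
  rw [hf, hf'] at nr
  have p1 : |gr d0 w' 1 * dt (e' 1) V| ≤ 2 * (s * B * w' 0) := by
    rw [abs_mul]
    calc |gr d0 w' 1| * |dt (e' 1) V| ≤ 2 * (w' 0 / w' 1) * (s * B * w' 1) :=
          mul_le_mul r1' (v1'.trans (hsw1.trans u1)) (abs_nonneg _) (by positivity)
      _ = _ := by field_simp
  have p2 : |gr d0 w' 2 * dt (e' 2) V| ≤ 2 * (s * B * w' 0) := by
    rw [abs_mul]
    calc |gr d0 w' 2| * |dt (e' 2) V| ≤ 2 * (w' 0 / w' 2) * (s * B * w' 2) :=
          mul_le_mul r2' (v2'.trans u2) (abs_nonneg _) (by positivity)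
      _ = _ := by field_simp
  have q0 : s * B * w' 0 ≤ s * B ^ 2 * w 2 := by
    have := mul_le_mul_of_nonneg_left (w02'.trans D.wB2) (mul_nonneg hs.le B0.le)
    linarith only [this]
  have q1 : s * B ^ 2 * w 2 ≤ s * B ^ 2 * w 1 := by gcongr
  have hB2 : 1 ≤ B ^ 2 := one_le_pow₀ hB1
  have q2 : s * w 1 ≤ s * B ^ 2 * w 1 := by
    have := mul_le_mul_of_nonneg_left hB2 (mul_nonneg hs.le h1.le)
    linarith only [this]
  have q3 : s * w 2 ≤ s * B ^ 2 * w 2 := by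
    have := mul_le_mul_of_nonneg_left hB2 (mul_nonneg hs.le h2.le)
    linarith only [this]
  have e0V : |dt (e' 0) V| ≤ 5 * A + 4 * (s * B * w' 0) := by
    have e1 : dt (e' 0) V = ty e' w' d0 V - gr d0 w' 1 * dt (e' 1) V - gr d0 w' 2 * dt (e' 2) V := by
      unfold ty; ring
    rw [e1]
    refine (abs_sub _ _).trans ?_
    have := abs_sub (ty e' w' d0 V) (gr d0 w' 1 * dt (e' 1) V)
    linarith only [this, hty', p1, p2]
  have f0V := (ty_frame (e := e') N' hw' w02' w21' V).1.trans hty'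
  have f1V : |dt (pf e' (gr d0 w' 1) (gr d0 w' 2) 1) V| ≤ 10 * A + 9 * (s * B ^ 2 * w 1) := by
    refine (pf_one _ _ _).trans ?_
    have : |gr d0 w' 1| * |dt (e' 0) V| ≤ 2 * (5 * A + 4 * (s * B * w' 0)) := by gcongr
    linarith only [this, v1', hsw1, q0, q1, q2]
  have f2V : |dt (pf e' (gr d0 w' 1) (gr d0 w' 2) 2) V| ≤ 10 * A + 13 * (s * B ^ 2 * w 2) := by
    refine (pf_two _ _ _).trans ?_
    have t1 : |gr d0 w' 2| * |dt (e' 0) V| ≤ 2 * (5 * A + 4 * (s * B * w' 0)) := by gcongr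
    have t2 : |gr d0 w' 2| * |gr d0 w' 1 * dt (e' 1) V| ≤ 2 * (2 * (s * B * w' 0)) := by gcongr
    linarith only [t1, t2, v2', q0, q3]
  set f := pf e (gr b0 w 1) (gr b0 w 2) with hff
  set f' := pf e' (gr d0 w' 1) (gr d0 w' 2) with hff'
  have hfo : Ortho f := pf_ortho D.S.ortho _ _
  have hfo' : Ortho f' := pf_ortho D.S'.ortho _ _
  have g0 : |dt (f 0) (f' 0)| * |dt (f' 0) V| ≤ 5 * A := by
    have o := abs_dt_le_one hfo' hfo 0 0
    calc |dt (f 0) (f' 0)| * |dt (f' 0) V| ≤ 1 * (5 * A) := by gcongr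
      _ = _ := one_mul _
  have g1 : |dt (f 0) (f' 1)| * |dt (f' 1) V| ≤ 11 * A := by
    have o := abs_dt_le_one hfo' hfo 0 1
    have h3 := nr.n10
    rw [dt_comm] at h3
    calc |dt (f 0) (f' 1)| * |dt (f' 1) V| ≤
        |dt (f 0) (f' 1)| * (10 * A + 9 * (s * B ^ 2 * w 1)) := by gcongr
      _ = |dt (f 0) (f' 1)| * (10 * A) + 9 * (s * B ^ 2) * (|dt (f 0) (f' 1)| * w 1) := by ring
      _ ≤ 1 * (10 * A) + 9 * (s * B ^ 2) * (Θ * A) := by gcongr
      _ = 10 * A + 9 * (s * (B ^ 2 * Θ)) * A := by ring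
      _ ≤ 10 * A + 9 * (1 / 1000) * A := by gcongr
      _ ≤ _ := by linarith only [A0]
  have g2 : |dt (f 0) (f' 2)| * |dt (f' 2) V| ≤ 11 * A := by
    have o := abs_dt_le_one hfo' hfo 0 2
    have h3 := nr.n20
    rw [dt_comm] at h3
    calc |dt (f 0) (f' 2)| * |dt (f' 2) V| ≤
        |dt (f 0) (f' 2)| * (10 * A + 13 * (s * B ^ 2 * w 2)) := by gcongr
      _ = |dt (f 0) (f' 2)| * (10 * A) + 13 * (s * B ^ 2) * (|dt (f 0) (f' 2)| * w 2) := by ring
      _ ≤ 1 * (10 * A) + 13 * (s * B ^ 2) * (Θ * A) := by gcongr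
      _ = 10 * A + 13 * (s * (B ^ 2 * Θ)) * A := by ring
      _ ≤ 10 * A + 13 * (1 / 1000) * A := by gcongr
      _ ≤ _ := by linarith only [A0]
  have f0V' := expand_le hfo' (f 0) V g0 g1 g2
  have hty : |ty e w b0 V| ≤ 81 * A := by
    refine (ty_frame (e := e) N hw w02 w21 V).2.trans ?_
    linarith only [f0V']
  -- lateral coordinates in the first frame
  have o := fun i j => dt_le_one D.S.ortho D.S'.ortho i j
  have hAw2 : 5 * A = 5 * A / w 2 * w 2 := by field_simp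
  have hAw1 : 5 * A ≤ 5 * A / w 2 * w 1 := by
    calc 5 * A = 5 * A / w 2 * w 2 := hAw2
      _ ≤ _ := by gcongr
  have hA5 : 5 * A / w 2 ≤ 1 / 100 := by
    rw [div_le_iff₀ h2]; linarith only [hK, w02]
  set U := 5 * A / w 2 + 6 * (s * B ^ 2) with hU
  have hU1 : U ≤ 1 / 50 := by linarith only [hU, hA5, s3]
  have hU0 : 0 ≤ U := by positivity
  have he1 : |dt (e 1) V| ≤ U * w 1 := by
    have k0 : |dt (e 1) (e' 0)| * |dt (e' 0) V| ≤ 1 * (5 * A + 4 * (s * B * w' 0)) := by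
      have := o 1 0; gcongr
    have k1 : |dt (e 1) (e' 1)| * |dt (e' 1) V| ≤ 1 * (s * w 1) := by
      have := o 1 1; have := v1'.trans hsw1; gcongr
    have k2 : |dt (e 1) (e' 2)| * |dt (e' 2) V| ≤ 1 * (s * w 2) := by
      have := o 1 2; gcongr
    have k3 := expand_le D.S'.ortho (e 1) V k0 k1 k2
    have e1 : U * w 1 = 5 * A / w 2 * w 1 + 6 * (s * B ^ 2 * w 1) := by rw [hU]; ring
    rw [e1]
    linarith only [k3, q0, q1, q2, q3, hAw1]
  have he2 : |dt (e 2) V| ≤ U * w 2 := by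
    have k0 : |dt (e 2) (e' 0)| * |dt (e' 0) V| ≤ 1 * (5 * A + 4 * (s * B * w' 0)) := by
      have := o 2 0; gcongr
    have k1 : |dt (e 2) (e' 1)| * |dt (e' 1) V| ≤ s * w 2 := by
      have h3 := D.t21
      calc |dt (e 2) (e' 1)| * |dt (e' 1) V| ≤ |dt (e 2) (e' 1)| * (s / lam * w 1) := by gcongr
        _ = s / lam * (|dt (e 2) (e' 1)| * w 1) := by ring
        _ ≤ s / lam * (lam * w 2) := by gcongr
        _ = _ := by field_simp
    have k2 : |dt (e 2) (e' 2)| * |dt (e' 2) V| ≤ 1 * (s * w 2) := by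
      have := o 2 2; gcongr
    have k3 := expand_le D.S'.ortho (e 2) V k0 k1 k2
    have e1 : U * w 2 = 5 * A / w 2 * w 2 + 6 * (s * B ^ 2 * w 2) := by rw [hU]; ring
    rw [e1]
    linarith only [k3, q0, q3, hAw2]
  refine ⟨?_, ?_⟩
  · have e1 : dt (e 0) V = ty e w b0 V - gr b0 w 1 * dt (e 1) V - gr b0 w 2 * dt (e 2) V := by
      unfold ty; ring
    have p1 : |gr b0 w 1 * dt (e 1) V| ≤ 2 * (U * w 0) := by
      rw [abs_mul]
      calc |gr b0 w 1| * |dt (e 1) V| ≤ 2 * (w 0 / w 1) * (U * w 1) := by gcongr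
        _ = _ := by field_simp
    have p2 : |gr b0 w 2 * dt (e 2) V| ≤ 2 * (U * w 0) := by
      rw [abs_mul]
      calc |gr b0 w 2| * |dt (e 2) V| ≤ 2 * (w 0 / w 2) * (U * w 2) := by gcongr
        _ = _ := by field_simp
    have p3 : U * w 0 ≤ 1 / 50 * w 0 := mul_le_mul_of_nonneg_right hU1 h0.le
    rw [e1]
    refine (abs_sub _ _).trans ?_
    have := abs_sub (ty e w b0 V) (gr b0 w 1 * dt (e 1) V)
    linarith only [this, hty, p1, p2, p3, hK, h0]
  · have hY : 81 * A ≤ 1 * w 0 := by linarith only [hK, A0]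
    have fin := q_le D.S.ortho hw D.hE N hζ (hTa.trans aA) hty hY he1 he2
    refine fin.trans ?_
    have ext := D.ext
    have k0 := kap_nonneg b0 b1 G
    have k13 := kap_le N
    have hwk : 0 ≤ w 0 * kap b0 b1 G := mul_nonneg h0.le k0
    have j1 : w 0 * kap b0 b1 G * U ≤ 66 * A := by
      have i1 : w 0 * kap b0 b1 G * (5 * A / w 2) ≤ 65 * A := by
        calc w 0 * kap b0 b1 G * (5 * A / w 2) ≤ w 2 * 13 * (5 * A / w 2) := by gcongr
          _ = _ := by field_simp; norm_num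
      have i2 : w 0 * kap b0 b1 G * (6 * (s * B ^ 2)) ≤ A := by
        calc w 0 * kap b0 b1 G * (6 * (s * B ^ 2)) ≤ E * A * (6 * (s * B ^ 2)) := by gcongr
          _ = 6 * (s * (B ^ 2 * E)) * A := by ring
          _ ≤ 6 * (1 / 1000) * A := by gcongr
          _ ≤ A := by linarith only [A0]
      have e1 : w 0 * kap b0 b1 G * U = w 0 * kap b0 b1 G * (5 * A / w 2) +
          w 0 * kap b0 b1 G * (6 * (s * B ^ 2)) := by rw [hU]; ring
      rw [e1]; linarith only [i1, i2]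
    have j2 : U + U + U ^ 2 + U * U + U ^ 2 ≤ 3 * U := by
      have : U ^ 2 ≤ 1 / 50 * U := by
        calc U ^ 2 = U * U := by ring
          _ ≤ 1 / 50 * U := by gcongr
      have e1 : U * U = U ^ 2 := by ring
      rw [e1]
      linarith only [this, hU0]
    have j3 : w 0 * kap b0 b1 G * (U + U + U ^ 2 + U * U + U ^ 2) ≤ 198 * A := by
      calc w 0 * kap b0 b1 G * (U + U + U ^ 2 + U * U + U ^ 2) ≤ w 0 * kap b0 b1 G * (3 * U) := by
            gcongr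
        _ = 3 * (w 0 * kap b0 b1 G * U) := by ring
        _ ≤ _ := by linarith only [j1]
    have j4 : 81 * A * (4 + 1 + 5 * (U + U)) ≤ 81 * A * (4 + 1 + 5 * (1 / 50 + 1 / 50)) := by gcongr
    linarith only [j3, j4, A0]

/-- the data with the two sheets exchanged -/
theorem MidH.symm (D : MidH e c w q e' c' w' q' T z0 ρ a a' b0 b1 G d0 d1 H A E Θ B lam)
    (hA : A ≤ B * w 0) :
    MidH e' c' w' q' e c w q T z0 ρ a' a d0 d1 H b0 b1 G A E (B ^ 2 * Θ) B (B ^ 2 * lam) := by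
  have hB := D.B1
  have B0 : 0 < B := by linarith only [hB]
  have hB2 : 1 ≤ B ^ 2 := one_le_pow₀ hB
  have hBB : B ≤ B ^ 2 := by
    calc B = B * 1 := (mul_one _).symm
      _ ≤ B * B := by gcongr
      _ = _ := by ring
  have Θ0 : 0 < Θ := by linarith only [D.Θ1]
  have l0 : 0 < lam := by linarith only [D.lam1]
  have A0 := D.A0
  have w2' := D.S'.pos 2
  have N := D.nr.symm
  have one : ∀ x y y' R : ℝ, 0 ≤ x → 0 ≤ R → y' ≤ B * y → x * y ≤ R → x * y' ≤ B ^ 2 * R := by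
    intro x y y' R hx hR hy h
    calc x * y' ≤ x * (B * y) := by gcongr
      _ = B * (x * y) := by ring
      _ ≤ B * R := by gcongr
      _ ≤ B ^ 2 * R := by gcongr
  have two : ∀ x Y : ℝ, 0 ≤ x → 0 ≤ Y → x * w 1 ≤ Y * w 2 → x * w' 1 ≤ B ^ 2 * Y * w' 2 := by
    intro x Y hx hY h
    calc x * w' 1 ≤ x * (B * w 1) := mul_le_mul_of_nonneg_left D.wB1 hx
      _ = B * (x * w 1) := by ring
      _ ≤ B * (Y * w 2) := by gcongr
      _ ≤ B * (Y * (B * w' 2)) := by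
          have := D.wB2'
          gcongr
      _ = _ := by ring
  exact
    { S := D.S', S' := D.S, hρ := D.hρ, hT := D.hT', hT' := D.hT, hE := D.hH, hH := D.hE
      w02 := D.w02', w21 := D.w21', w02' := D.w02, w21' := D.w21, E1 := D.E1
      Θ1 := one_le_mul_of_one_le_of_one_le hB2 D.Θ1
      B1 := D.B1
      lam1 := one_le_mul_of_one_le_of_one_le hB2 D.lam1
      wB1 := D.wB1', wB2 := D.wB2', wB1' := D.wB1, wB2' := D.wB2, A0 := D.A0, aA := D.aA'
      aA' := D.aA, Aw' := hA, ext := D.ext', ext' := D.ext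
      nr :=
        { n01 := by
            have := one _ _ _ _ (abs_nonneg _) (by positivity) D.wB1 N.n01
            linarith only [this]
          n02 := by
            have := one _ _ _ _ (abs_nonneg _) (by positivity) D.wB2 N.n02
            linarith only [this]
          n10 := by
            have := one _ _ _ _ (abs_nonneg _) (by positivity) D.wB1 N.n10
            linarith only [this]
          n20 := by
            have := one _ _ _ _ (abs_nonneg _) (by positivity) D.wB2 N.n20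
            linarith only [this]
          n12 := two _ _ (abs_nonneg _) Θ0.le N.n12
          n21 := two _ _ (abs_nonneg _) Θ0.le N.n21 }
      t21 := by
        have h := D.t12
        rw [dt_comm] at h
        exact two _ _ (abs_nonneg _) l0.le h
      t12 := by
        have h := D.t21
        rw [dt_comm] at h
        exact two _ _ (abs_nonneg _) l0.le h }

end

end Crest.Agent.R136.Mdf880
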