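import Mathlib
import Crest.Agent.R136.Mdf1_880
import Crest.Agent.R136.Mdr4_535
import Crest.Agent.R136.Tlt1_51
import Crest.Agent.R136.Fl9_808

/-!
# R136 (S0187), U5 TILT, `Mid`: agreement of the two sheets of an object (helper880)

* `agree_nr` : two nearly flat sheets with close tangent planes at the common line agree.
* `nr_thin` : thin sheets: the tangent planes are close if the long axes are.
* `nr_of_dy` : from the dyadic tilts of the planks of a deep object to the tangent planes.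
* `mid_agree`, `mid_thin` : agreement for two systems `CSys`.
-/

set_option autoImplicit false
set_option linter.unusedVariables false

namespace Crest.Agent.R136.Mdf880

open Crest.Agent.R136.Sh605
open Crest.Agent.R136.Tl102 Crest.Agent.R136.Mdr535
open Crest.Agent.R136.Fl808 (dt_expand abs_dt_le_one Dy par exists_dy)
open Crest.Agent.R136.Deep51 (CoinC CloseC)
open Crest.Agent.R136.Tlt51 (Agree)
open Crest.Agent.R136.K4 (Plk4)
open Crest.Agent.R138.Mk163 (zl rho)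

theorem CoinC.mono_a {e e' : Fin 3 → V3} {c' : Ln4} {w w' : V3} {q q' : ℝ → V3 → ℝ}
    {a' a2 A B m1 m2 : ℝ} {T : Ln4} {z0 ρ : ℝ} (h : CoinC e w q e' c' w' q' a' A m1 m2 T z0 ρ)
    (ha : a2 ≤ a') (hA : A ≤ B) : CoinC e w q e' c' w' q' a2 B m1 m2 T z0 ρ := by
  intro z h1 h2 x h3 h4 h5 h6
  obtain ⟨k1, k2⟩ := h z h1 h2 x h3 (h4.trans ha) h5 h6
  exact ⟨k1, k2.trans hA⟩

theorem CloseC.mono_a {e : Fin 3 → V3} {w : V3} {q q' : ℝ → V3 → ℝ} {a a1 E E' : ℝ} {T : Ln4}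
    {z0 ρ : ℝ} (h : CloseC e w q a q' E T z0 ρ) (ha : a1 ≤ a) (hE : E ≤ E') :
    CloseC e w q a1 q' E' T z0 ρ :=
  fun z h1 h2 x h3 h4 => (h z h1 h2 x h3 (h4.trans ha)).trans hE

section
variable {e : Fin 3 → V3} {c : Ln4} {w : V3} {q : ℝ → V3 → ℝ} {e' : Fin 3 → V3} {c' : Ln4}
  {w' : V3} {q' : ℝ → V3 → ℝ} {T : Ln4} {z0 ρ a a' : ℝ} {b0 b1 : V3} {G : QF}
  {d0 d1 : V3} {H : QF} {A E Θ B lam : ℝ}

/-- **agreement of two nearly flat sheets with close tangent planes** -/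
theorem MidH.agree {S S' : Plk4}
    (D : MidH S.e S.c S.w S.q S'.e S'.c S'.w S'.q T z0 ρ A A b0 b1 G d0 d1 H A E Θ B lam)
    (hA : A ≤ B * S.w 0) (h1 : S.a ≤ A) (h2 : S'.a ≤ A) {s : ℝ} (hs : 0 < s)
    (hsm : 5000 * (E * Θ * lam * B ^ 5) ^ 2 * s ≤ 1) (hK : 500 * A ≤ S.w 0) {A' E' : ℝ}
    (hA' : 700 * A ≤ A') (hE' : s⁻¹ * A ≤ E') : Agree A' E' s lam S S' T z0 ρ := by
  have hB := D.B1
  have hE1 := D.E1
  have hΘ := D.Θ1
  have hl := D.lam1
  have A0 := D.A0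
  have B0 : 0 < B := by linarith only [hB]
  have E0 : 0 < E := by linarith only [hE1]
  have Θ0 : 0 < Θ := by linarith only [hΘ]
  have l0 : 0 < lam := by linarith only [hl]
  have hB4 : 1 ≤ B ^ 4 := one_le_pow₀ hB
  have e1 : E * Θ * B * lam ≤ E * Θ * lam * B ^ 5 := by
    calc E * Θ * B * lam = E * Θ * lam * B * 1 := by ring
      _ ≤ E * Θ * lam * B * B ^ 4 := by gcongr
      _ = _ := by ring
  have e2 : (E * Θ * B * lam) ^ 2 ≤ (E * Θ * lam * B ^ 5) ^ 2 := by gcongr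
  have e3 : 1000 * (E * Θ * B * lam) ^ 2 * s ≤ 1 := by
    have h3 : (E * Θ * B * lam) ^ 2 * s ≤ (E * Θ * lam * B ^ 5) ^ 2 * s := by gcongr
    have h4 : 0 ≤ (E * Θ * lam * B ^ 5) ^ 2 * s := by positivity
    linarith only [h3, h4, hsm]
  have e4 : 5000 * (E * Θ * lam * B ^ 5) ^ 2 ≤ s⁻¹ := by
    rw [← one_div, le_div_iff₀ hs]; exact hsm
  have e5 : 5000 * (E * Θ * lam * B ^ 5) ^ 2 * A ≤ E' :=
    (mul_le_mul_of_nonneg_right e4 A0.le).trans hE'
  have e6 : 5000 * (E * Θ * B * lam) ^ 2 * A ≤ E' := by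
    refine le_trans ?_ e5
    gcongr
  have e7 : E * (B ^ 2 * Θ) * B * (B ^ 2 * lam) = E * Θ * lam * B ^ 5 := by ring
  have c2 := (D.symm hA).close
  rw [e7] at c2
  exact
    { coin := CoinC.mono_a (D.coin hs e3 hK) h2 hA'
      close := CloseC.mono_a D.close h1 e6
      close' := CloseC.mono_a c2 h2 e5 }

/-- **thin sheets**: the tangent planes are close if the long axes are -/
theorem nr_thin {g1 g2 g1' g2' X a : ℝ} (he : Ortho e) (he' : Ortho e')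
    (h1 : 0 < w 1) (h2 : 0 < w 2) (hg1 : |g1| * w 1 ≤ 2 * w 2) (hg1a : |g1| ≤ 2) (hg2 : |g2| ≤ 2)
    (hg1' : |g1'| * w 1 ≤ 2 * (B ^ 2 * w 2)) (hg1a' : |g1'| ≤ 2) (hg2' : |g2'| ≤ 2)
    (hB : 1 ≤ B) (hl : 1 ≤ lam)
    (t10 : |dt (e 1) (e' 0)| * w 1 ≤ lam * w 2) (t12 : |dt (e 1) (e' 2)| * w 1 ≤ lam * w 2)
    (t01 : |dt (e 0) (e' 1)| * w 1 ≤ lam * w 2) (t21 : |dt (e 2) (e' 1)| * w 1 ≤ lam * w 2)
    (hX : 1 ≤ X) (ha : w 2 ≤ X * a) (hla : 0 ≤ a) :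
    Nr (20 * (lam * B ^ 2) * X) (pf e g1 g2) (pf e' g1' g2') a (w 1) (w 2) := by
  have o := fun i j => abs_dt_le_one he' he i j
  have B2 : 1 ≤ B ^ 2 := one_le_pow₀ hB
  have L1 : w 2 ≤ lam * B ^ 2 * w 2 :=
    le_mul_of_one_le_left h2.le (one_le_mul_of_one_le_of_one_le hl B2)
  have L2 : lam * w 2 ≤ lam * B ^ 2 * w 2 := by
    have : lam * 1 * w 2 ≤ lam * B ^ 2 * w 2 := by gcongr
    linarith only [this]
  have L3 : B ^ 2 * w 2 ≤ lam * B ^ 2 * w 2 := by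
    have : 1 * B ^ 2 * w 2 ≤ lam * B ^ 2 * w 2 := by gcongr
    linarith only [this]
  have Lp : 0 ≤ lam * B ^ 2 * w 2 := h2.le.trans L1
  set L := lam * B ^ 2 * w 2 with hL
  have LX : 20 * L ≤ 20 * (lam * B ^ 2) * X * a := by
    calc 20 * L = 20 * (lam * B ^ 2) * w 2 := by rw [hL]; ring
      _ ≤ 20 * (lam * B ^ 2) * (X * a) := by gcongr
      _ = _ := by ring
  have LW : 20 * L ≤ 20 * (lam * B ^ 2) * X * w 2 := by
    calc 20 * L = 20 * (lam * B ^ 2) * 1 * w 2 := by rw [hL]; ring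
      _ ≤ 20 * (lam * B ^ 2) * X * w 2 := by gcongr
  have hf := pf_ortho he g1 g2
  have hf' := pf_ortho he' g1' g2'
  have of := fun i j => abs_dt_le_one hf he' i j
  have off := fun i j => abs_dt_le_one hf hf' i j
  -- entries of `e'` against `f`, times `w 1`
  have k01 : |dt (e' 1) (pf e g1 g2 0)| * w 1 ≤ 5 * L := by
    rw [dt_comm]
    have p := pf_zero (e := e) g1 g2 (e' 1)
    have a1 : |dt (e 0) (e' 1) + g1 * dt (e 1) (e' 1) + g2 * dt (e 2) (e' 1)| ≤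
        |dt (e 0) (e' 1)| + |g1| * 1 + 2 * |dt (e 2) (e' 1)| := by
      refine (abs_add_le _ _).trans (add_le_add ((abs_add_le _ _).trans (add_le_add le_rfl ?_)) ?_)
      · rw [abs_mul]
        have : |dt (e 1) (e' 1)| ≤ 1 := o 1 1
        gcongr
      · rw [abs_mul]; gcongr
    calc |dt (pf e g1 g2 0) (e' 1)| * w 1 ≤
        (|dt (e 0) (e' 1)| + |g1| * 1 + 2 * |dt (e 2) (e' 1)|) * w 1 :=
          mul_le_mul_of_nonneg_right (p.trans a1) h1.le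
      _ = |dt (e 0) (e' 1)| * w 1 + |g1| * w 1 + 2 * (|dt (e 2) (e' 1)| * w 1) := by ring
      _ ≤ _ := by linarith only [t01, hg1, t21, L1, L2]
  have k10 : |dt (e' 0) (pf e g1 g2 1)| * w 1 ≤ 3 * L := by
    rw [dt_comm]
    have p := pf_one (e := e) g1 g2 (e' 0)
    have : |dt (e 0) (e' 0)| ≤ 1 := o 0 0
    have p' : |dt (pf e g1 g2 1) (e' 0)| ≤ |g1| * 1 + |dt (e 1) (e' 0)| := p.trans (by gcongr)
    calc |dt (pf e g1 g2 1) (e' 0)| * w 1 ≤ (|g1| * 1 + |dt (e 1) (e' 0)|) * w 1 :=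
          mul_le_mul_of_nonneg_right p' h1.le
      _ = |g1| * w 1 + |dt (e 1) (e' 0)| * w 1 := by ring
      _ ≤ _ := by linarith only [t10, hg1, L1, L2]
  have k12 : |dt (e' 2) (pf e g1 g2 1)| * w 1 ≤ 3 * L := by
    rw [dt_comm]
    have p := pf_one (e := e) g1 g2 (e' 2)
    have : |dt (e 0) (e' 2)| ≤ 1 := o 0 2
    have p' : |dt (pf e g1 g2 1) (e' 2)| ≤ |g1| * 1 + |dt (e 1) (e' 2)| := p.trans (by gcongr)
    calc |dt (pf e g1 g2 1) (e' 2)| * w 1 ≤ (|g1| * 1 + |dt (e 1) (e' 2)|) * w 1 :=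
          mul_le_mul_of_nonneg_right p' h1.le
      _ = |g1| * w 1 + |dt (e 1) (e' 2)| * w 1 := by ring
      _ ≤ _ := by linarith only [t12, hg1, L1, L2]
  have k21 : |dt (e' 1) (pf e g1 g2 2)| * w 1 ≤ 7 * L := by
    rw [dt_comm]
    have p := pf_two (e := e) g1 g2 (e' 1)
    have o11 : |dt (e 1) (e' 1)| ≤ 1 := o 1 1
    have p' : |dt (pf e g1 g2 2) (e' 1)| ≤
        2 * |dt (e 0) (e' 1)| + 2 * (|g1| * 1) + |dt (e 2) (e' 1)| := by
      refine p.trans ?_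
      rw [abs_mul g1]
      gcongr
    calc |dt (pf e g1 g2 2) (e' 1)| * w 1 ≤
        (2 * |dt (e 0) (e' 1)| + 2 * (|g1| * 1) + |dt (e 2) (e' 1)|) * w 1 :=
          mul_le_mul_of_nonneg_right p' h1.le
      _ = 2 * (|dt (e 0) (e' 1)| * w 1) + 2 * (|g1| * w 1) + |dt (e 2) (e' 1)| * w 1 := by ring
      _ ≤ _ := by linarith only [t01, hg1, t21, L1, L2]
  have hg1L : |g1'| * w 1 ≤ 2 * L := by linarith only [hg1', L3]
  refine ⟨?_, ?_, ?_, ?_, ?_, ?_⟩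
  · -- n01
    refine le_trans ?_ LX
    have p := pf_zero (e := e') g1' g2' (pf e g1 g2 1)
    have a1 : |dt (e' 0) (pf e g1 g2 1) + g1' * dt (e' 1) (pf e g1 g2 1) +
        g2' * dt (e' 2) (pf e g1 g2 1)| ≤
        |dt (e' 0) (pf e g1 g2 1)| + |g1'| * 1 + 2 * |dt (e' 2) (pf e g1 g2 1)| := by
      refine (abs_add_le _ _).trans (add_le_add ((abs_add_le _ _).trans (add_le_add le_rfl ?_)) ?_)
      · rw [abs_mul]
        have := of 1 1
        gcongr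
      · rw [abs_mul]; gcongr
    calc |dt (pf e' g1' g2' 0) (pf e g1 g2 1)| * w 1 ≤
        (|dt (e' 0) (pf e g1 g2 1)| + |g1'| * 1 + 2 * |dt (e' 2) (pf e g1 g2 1)|) * w 1 :=
          mul_le_mul_of_nonneg_right (p.trans a1) h1.le
      _ = |dt (e' 0) (pf e g1 g2 1)| * w 1 + |g1'| * w 1 +
          2 * (|dt (e' 2) (pf e g1 g2 1)| * w 1) := by ring
      _ ≤ _ := by linarith only [k10, k12, hg1L, Lp]
  · -- n02
    refine le_trans ?_ LX
    calc |dt (pf e' g1' g2' 0) (pf e g1 g2 2)| * w 2 ≤ 1 * w 2 :=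
          mul_le_mul_of_nonneg_right (off 0 2) h2.le
      _ ≤ _ := by linarith only [L1, Lp]
  · -- n10
    refine le_trans ?_ LX
    have p := pf_one (e := e') g1' g2' (pf e g1 g2 0)
    have p' : |dt (pf e' g1' g2' 1) (pf e g1 g2 0)| ≤ |g1'| * 1 + |dt (e' 1) (pf e g1 g2 0)| := by
      have := of 0 0
      exact p.trans (by gcongr)
    calc |dt (pf e' g1' g2' 1) (pf e g1 g2 0)| * w 1 ≤
        (|g1'| * 1 + |dt (e' 1) (pf e g1 g2 0)|) * w 1 := mul_le_mul_of_nonneg_right p' h1.le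
      _ = |g1'| * w 1 + |dt (e' 1) (pf e g1 g2 0)| * w 1 := by ring
      _ ≤ _ := by linarith only [k01, hg1L, Lp]
  · -- n20
    refine le_trans ?_ LX
    calc |dt (pf e' g1' g2' 2) (pf e g1 g2 0)| * w 2 ≤ 1 * w 2 :=
          mul_le_mul_of_nonneg_right (off 2 0) h2.le
      _ ≤ _ := by linarith only [L1, Lp]
  · -- n12
    refine le_trans ?_ LW
    have p := pf_one (e := e') g1' g2' (pf e g1 g2 2)
    have p' : |dt (pf e' g1' g2' 1) (pf e g1 g2 2)| ≤ |g1'| * 1 + |dt (e' 1) (pf e g1 g2 2)| := by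
      have := of 0 2
      exact p.trans (by gcongr)
    calc |dt (pf e' g1' g2' 1) (pf e g1 g2 2)| * w 1 ≤
        (|g1'| * 1 + |dt (e' 1) (pf e g1 g2 2)|) * w 1 := mul_le_mul_of_nonneg_right p' h1.le
      _ = |g1'| * w 1 + |dt (e' 1) (pf e g1 g2 2)| * w 1 := by ring
      _ ≤ _ := by linarith only [k21, hg1L, Lp]
  · -- n21
    refine le_trans ?_ LW
    have p := pf_two (e := e') g1' g2' (pf e g1 g2 1)
    have p' : |dt (pf e' g1' g2' 2) (pf e g1 g2 1)| ≤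
        2 * |dt (e' 0) (pf e g1 g2 1)| + 2 * (|g1'| * 1) + |dt (e' 2) (pf e g1 g2 1)| := by
      refine p.trans ?_
      rw [abs_mul g1']
      have := of 1 1
      gcongr
    calc |dt (pf e' g1' g2' 2) (pf e g1 g2 1)| * w 1 ≤
        (2 * |dt (e' 0) (pf e g1 g2 1)| + 2 * (|g1'| * 1) + |dt (e' 2) (pf e g1 g2 1)|) * w 1 :=
          mul_le_mul_of_nonneg_right p' h1.le
      _ = 2 * (|dt (e' 0) (pf e g1 g2 1)| * w 1) + 2 * (|g1'| * w 1) +
          |dt (e' 2) (pf e g1 g2 1)| * w 1 := by ring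
      _ ≤ _ := by linarith only [k10, k12, hg1L, Lp]

end

/-- planks of the dimensions of a zoomed system -/
theorem nr_of_dy {e e' : Fin 3 → V3} {a w1 w2 B : ℝ} {j k' : ℕ} (he : Ortho e) (he' : Ortho e')
    (ha : 0 < a) (haw : a ≤ w2) (hw : w2 ≤ w1) (hB : 1 ≤ B)
    (H : Dy e e' (800 * a) (2000 * B * w1) (2000 * B * w2) j k') :
    Nr (2 * 2 ^ (j + k')) e e' a w1 w2 := by
  have hw2 : 0 < w2 := ha.trans_le haw
  have hw1 : 0 < w1 := hw2.trans_le hw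
  have B0 : 0 < B := by linarith only [hB]
  have pj : (0:ℝ) < 2 ^ j := by positivity
  have pk : (0:ℝ) < 2 ^ k' := by positivity
  have pj1 : (1:ℝ) ≤ 2 ^ j := one_le_pow₀ (by norm_num)
  have pk1 : (1:ℝ) ≤ 2 ^ k' := one_le_pow₀ (by norm_num)
  have haD : (0:ℝ) < 800 * a := by positivity
  have hBw : B * w2 ≤ B * w1 := by gcongr
  have hawD : 800 * a ≤ 2000 * B * w2 := by
    have : w2 ≤ B * w2 := le_mul_of_one_le_left hw2.le hB
    linarith only [this, haw, hw2]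
  have hwD : 2000 * B * w2 ≤ 2000 * B * w1 := by linarith only [hBw]
  have hb12 := H.b12 he he' haD hawD hwD
  -- a bound for products with the large dimensions passes to the small ones
  have one : ∀ x w Y : ℝ, 0 ≤ x → 0 < w → 0 ≤ Y → x * (2000 * B * w) ≤ Y * (800 * a) →
      x * w ≤ Y * a := by
    intro x w Y hx hw hY h
    have h1 : x * w ≤ x * w * B := le_mul_of_one_le_right (by positivity) hB
    have h2 : 0 ≤ Y * a := by positivity
    linarith only [h, h1, h2]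
  have two : ∀ x Y : ℝ, x * (2000 * B * w1) ≤ Y * (2000 * B * w2) → x * w1 ≤ Y * w2 := by
    intro x Y h
    have h1 : (2000 * B) * (x * w1) ≤ (2000 * B) * (Y * w2) := by linarith only [h]
    exact le_of_mul_le_mul_left h1 (by positivity)
  have P : (2:ℝ) ^ (j + k') = 2 ^ j * 2 ^ k' := pow_add _ _ _
  rw [P]
  have kj : (2:ℝ) ^ k' ≤ 2 ^ j * 2 ^ k' := le_mul_of_one_le_left pk.le pj1
  have jk : (2:ℝ) ^ j ≤ 2 ^ j * 2 ^ k' := le_mul_of_one_le_right pj.le pk1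
  have A0 := fun x y => abs_nonneg (dt x y)
  have fin : ∀ x Y : ℝ, Y ≤ 2 ^ j * 2 ^ k' → x ≤ Y * a → x ≤ 2 * (2 ^ j * 2 ^ k') * a := by
    intro x Y hY h
    have h1 : Y * a ≤ 2 ^ j * 2 ^ k' * a := by gcongr
    have h2 : 0 ≤ (2:ℝ) ^ j * 2 ^ k' * a := by positivity
    linarith only [h, h1, h2]
  have cj : ∀ x : ℝ, 2 ^ j * x ≤ 2 ^ k' * (2 ^ j * (800 * a)) → x ≤ 2 ^ k' * (800 * a) := by
    intro x h
    have h1 : 2 ^ j * x ≤ 2 ^ j * (2 ^ k' * (800 * a)) := by linarith only [h]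
    exact le_of_mul_le_mul_left h1 pj
  refine ⟨?_, ?_, ?_, ?_, ?_, ?_⟩
  · refine fin _ (2 ^ j * 2 ^ k') le_rfl (one _ _ _ (A0 _ _) hw1 (by positivity) ?_)
    linarith only [H.t01]
  · exact fin _ (2 ^ k') kj (one _ _ _ (A0 _ _) hw2 (by positivity) (cj _ H.t02))
  · refine fin _ (2 ^ j * 2 ^ k') le_rfl (one _ _ _ (A0 _ _) hw1 (by positivity) ?_)
    linarith only [H.t10]
  · exact fin _ (2 ^ k') kj (one _ _ _ (A0 _ _) hw2 (by positivity) (cj _ H.t20))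
  · have h := two (|dt (e' 1) (e 2)|) (2 * 2 ^ j) (by linarith only [hb12])
    refine h.trans ?_
    have : 2 * 2 ^ j * w2 ≤ 2 * (2 ^ j * 2 ^ k') * w2 := by gcongr
    exact this
  · have h := two _ (2 ^ j) H.b21
    refine h.trans ?_
    have h1 : (2:ℝ) ^ j * w2 ≤ 2 ^ j * 2 ^ k' * w2 := by gcongr
    have h2 : 0 ≤ (2:ℝ) ^ j * 2 ^ k' * w2 := by positivity
    linarith only [h1, h2]

section

variable {α β : Type*} {O P : Finset (ℕ × ℤ)} {L : ℕ → Ln4} {i k : ℕ} {f : ℕ × ℤ → α}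
  {g : ℕ × ℤ → β} {b : α → Plk4} {b' : β → Plk4} {a W1 W2 B X A1 A2 E Θ lam s A' E' : ℝ}
  {j k' : ℕ}

/-- agreement of the two sheets of an object from the tangent planes -/
theorem agree_obj
    (h1 : CSys O L i f (fun l => (b l).c) (fun l => (b l).e) (fun l => (b l).w)
      (fun l => (b l).q) a W1 W2 B X A1)
    (h2 : CSys O L i g (fun l => (b' l).c) (fun l => (b' l).e) (fun l => (b' l).w)
      (fun l => (b' l).q) a W1 W2 B X A2)
    {o : ℕ × ℤ} (ho : o ∈ O) (ha : 0 < a) (hE : 1 ≤ E) (hX : X ≤ E * a) (hΘ : 1 ≤ Θ)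
    (hB : 1 ≤ B) (hl : 1 ≤ lam) (haw : a ≤ B * (b (f o)).w 0) (haw' : a ≤ B * (b' (g o)).w 0)
    (nr : Nr Θ (pfr (b (f o)).q (b (f o)).e (b (f o)).w (L o.1) (zl i o.2))
      (pfr (b' (g o)).q (b' (g o)).e (b' (g o)).w (L o.1) (zl i o.2)) a
      ((b (f o)).w 1) ((b (f o)).w 2))
    (t21 : |dt ((b (f o)).e 2) ((b' (g o)).e 1)| * (b (f o)).w 1 ≤ lam * (b (f o)).w 2)
    (t12 : |dt ((b (f o)).e 1) ((b' (g o)).e 2)| * (b (f o)).w 1 ≤ lam * (b (f o)).w 2)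
    (h1a : (b (f o)).a ≤ a) (h2a : (b' (g o)).a ≤ a) (hs : 0 < s)
    (hsm : 5000 * (E * Θ * lam * B ^ 5) ^ 2 * s ≤ 1) (hK : 500 * a ≤ (b (f o)).w 0)
    (hA' : 700 * a ≤ A') (hE' : s⁻¹ * a ≤ E') :
    Agree A' E' s lam (b (f o)) (b' (g o)) (L o.1) (zl i o.2) (rho i) := by
  obtain ⟨b0, b1, G, hx1, hx2⟩ := h1.ext o ho
  obtain ⟨d0, d1, H, hy1, hy2⟩ := h2.ext o ho
  have key : MidH (b (f o)).e (b (f o)).c (b (f o)).w (b (f o)).q (b' (g o)).e (b' (g o)).c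
      (b' (g o)).w (b' (g o)).q (L o.1) (zl i o.2) (rho i) a a b0 b1 G d0 d1 H a E Θ B lam :=
    { S := h1.st o ho, S' := h2.st o ho, hρ := Fl808.rho_pos i, hT := h1.mem o ho
      hT' := h2.mem o ho, hE := hx1, hH := hy1, w02 := h1.w02 o ho, w21 := h1.w21 o ho
      w02' := h2.w02 o ho, w21' := h2.w21 o ho, E1 := hE, Θ1 := hΘ, B1 := hB, lam1 := hl
      wB1 := (h2.wW1 o ho).trans (h1.Ww1 o ho), wB2 := (h2.wW2 o ho).trans (h1.Ww2 o ho)
      wB1' := (h1.wW1 o ho).trans (h2.Ww1 o ho), wB2' := (h1.wW2 o ho).trans (h2.Ww2 o ho)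
      A0 := ha, aA := le_rfl, aA' := le_rfl, Aw' := haw', ext := hx2.trans hX
      ext' := hy2.trans hX, nr := nr, t21 := t21, t12 := t12 }
  exact key.agree haw h1a h2a hs hsm hK hA' hE'

/-- **agreement from the dyadic tilts of the planks of a deep object** -/
theorem mid_agree
    (h1 : CSys O L i f (fun l => (b l).c) (fun l => (b l).e) (fun l => (b l).w)
      (fun l => (b l).q) a W1 W2 B X A1)
    (h2 : CSys O L i g (fun l => (b' l).c) (fun l => (b' l).e) (fun l => (b' l).w)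
      (fun l => (b' l).q) a W1 W2 B X A2)
    (hP : ∀ x ∈ P, par k x ∈ O) (Z : ZPar a W1 W2 B X k) {x : ℕ × ℤ} (hx : x ∈ P)
    (hD : Dy (ze P L i k f (fun l => (b l).c) (fun l => (b l).e) (fun l => (b l).w)
        (fun l => (b l).q) W1 W2 (zlab L i k f (fun l => (b l).c) (fun l => (b l).e) W1 W2 x))
      (ze P L i k g (fun l => (b' l).c) (fun l => (b' l).e) (fun l => (b' l).w)
        (fun l => (b' l).q) W1 W2 (zlab L i k g (fun l => (b' l).c) (fun l => (b' l).e) W1 W2 x))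
      (800 * a) (2000 * B * (W1 / 2 ^ k)) (2000 * B * (W2 / 2 ^ k)) j k')
    {o : ℕ × ℤ} (ho : o = par k x) (hE : 1 ≤ E) (hX : X ≤ E * a) (hl : 1 ≤ lam)
    (haw : a ≤ B * (b (f o)).w 0) (haw' : a ≤ B * (b' (g o)).w 0)
    (t21 : |dt ((b (f o)).e 2) ((b' (g o)).e 1)| * (b (f o)).w 1 ≤ lam * (b (f o)).w 2)
    (t12 : |dt ((b (f o)).e 1) ((b' (g o)).e 2)| * (b (f o)).w 1 ≤ lam * (b (f o)).w 2)
    (h1a : (b (f o)).a ≤ a) (h2a : (b' (g o)).a ≤ a) (hs : 0 < s)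
    (hsm : 5000 * (E * (10 ^ 15 * 2 ^ (j + k') * 2 ^ k * B) * lam * B ^ 5) ^ 2 * s ≤ 1)
    (hK : 500 * a ≤ (b (f o)).w 0) (hA' : 700 * a ≤ A') (hE' : s⁻¹ * a ≤ E') :
    Agree A' E' s lam (b (f o)) (b' (g o)) (L o.1) (zl i o.2) (rho i) := by
  subst ho
  have hxO := hP x hx
  have pk : (0:ℝ) < 2 ^ k := by positivity
  have ha := Z.ha
  have hB := Z.hB1
  have B0 : 0 < B := by linarith only [hB]
  have haW : a ≤ W2 / 2 ^ k := by rw [le_div_iff₀ pk]; exact Z.haW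
  have hWW : W2 / 2 ^ k ≤ W1 / 2 ^ k := by
    have := Z.hW
    gcongr
  have o1 : Ortho (ze P L i k f (fun l => (b l).c) (fun l => (b l).e) (fun l => (b l).w)
      (fun l => (b l).q) W1 W2
      (zlab L i k f (fun l => (b l).c) (fun l => (b l).e) W1 W2 x)) :=
    pf_ortho (h1.st _ hxO).ortho _ _
  have o2 : Ortho (ze P L i k g (fun l => (b' l).c) (fun l => (b' l).e) (fun l => (b' l).w)
      (fun l => (b' l).q) W1 W2
      (zlab L i k g (fun l => (b' l).c) (fun l => (b' l).e) W1 W2 x)) :=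
    pf_ortho (h2.st _ hxO).ortho _ _
  have o3 : Ortho (pfr (b (f (par k x))).q (b (f (par k x))).e (b (f (par k x))).w (L x.1)
      (zl i (par k x).2)) := pf_ortho (h1.st _ hxO).ortho _ _
  have o4 : Ortho (pfr (b' (g (par k x))).q (b' (g (par k x))).e (b' (g (par k x))).w (L x.1)
      (zl i (par k x).2)) := pf_ortho (h2.st _ hxO).ortho _ _
  have n1 := (h1.near0 hP Z hx).symm
  have n2 := h2.near0 hP Z hx
  have n3 := nr_of_dy o1 o2 ha haW hWW hB hD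
  have pp : (1:ℝ) ≤ 2 ^ (j + k') := one_le_pow₀ (by norm_num)
  have n4 := (n1.trans n3 o3 o1 o2 ha haW hWW (by norm_num) (by linarith only [pp])).trans n2
    o3 o2 o4 ha haW hWW (by linarith only [pp]) (by norm_num)
  have n5 : Nr (10 ^ 15 * 2 ^ (j + k')) (pfr (b (f (par k x))).q (b (f (par k x))).e
      (b (f (par k x))).w (L x.1) (zl i (par k x).2))
      (pfr (b' (g (par k x))).q (b' (g (par k x))).e (b' (g (par k x))).w (L x.1)
      (zl i (par k x).2)) a (W1 / 2 ^ k) (W2 / 2 ^ k) :=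
    n4.mono (by linarith only [pp]) ha.le (ha.le.trans haW)
  have hw1 := (h1.st _ hxO).pos 1
  have hw2 := (h1.st _ hxO).pos 2
  have wW1 := h1.wW1 _ hxO
  have wW2 := h1.wW2 _ hxO
  have Ww2 := h1.Ww2 _ hxO
  -- full size
  have big : ∀ y W w Y : ℝ, 0 ≤ y → 0 ≤ Y → w ≤ W → y * (W / 2 ^ k) ≤ Y * a →
      y * w ≤ Y * 2 ^ k * B * a := by
    intro y W w Y hy hY hw h
    have h1 : y * w ≤ y * W := by gcongr
    have h2 : y * W = y * (W / 2 ^ k) * 2 ^ k := by field_simp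
    have h3 : y * (W / 2 ^ k) * 2 ^ k ≤ Y * a * 2 ^ k := by gcongr
    have h4 : Y * a * 2 ^ k ≤ Y * a * 2 ^ k * B := le_mul_of_one_le_right (by positivity) hB
    linarith only [h1, h2, h3, h4]
  have pk1 : (1:ℝ) ≤ 2 ^ k := one_le_pow₀ (by norm_num)
  have big2 : ∀ y Y : ℝ, 0 ≤ y → 0 ≤ Y → y * (W1 / 2 ^ k) ≤ Y * (W2 / 2 ^ k) →
      y * (b (f (par k x))).w 1 ≤ Y * 2 ^ k * B * (b (f (par k x))).w 2 := by
    intro y Y hy hY h
    have h1 : y * (b (f (par k x))).w 1 ≤ y * W1 := by gcongr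
    have h2 : y * W1 = y * (W1 / 2 ^ k) * 2 ^ k := by field_simp
    have h3 : y * (W1 / 2 ^ k) * 2 ^ k ≤ Y * (W2 / 2 ^ k) * 2 ^ k := by gcongr
    have h4 : Y * (W2 / 2 ^ k) * 2 ^ k = Y * W2 := by field_simp
    have h5 : Y * W2 ≤ Y * (B * (b (f (par k x))).w 2) := by gcongr
    have h6 : Y * (B * (b (f (par k x))).w 2) ≤ 2 ^ k * (Y * (B * (b (f (par k x))).w 2)) :=
      le_mul_of_one_le_left (by positivity) pk1
    linarith only [h1, h2, h3, h4, h5, h6]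
  have Θ1 : (1:ℝ) ≤ 10 ^ 15 * 2 ^ (j + k') * 2 ^ k * B := by
    have := one_le_mul_of_one_le_of_one_le (one_le_mul_of_one_le_of_one_le
      (one_le_mul_of_one_le_of_one_le (by norm_num : (1:ℝ) ≤ 10 ^ 15) pp) pk1) hB
    exact this
  exact agree_obj h1 h2 hxO ha hE hX Θ1 hB hl haw haw'
    ⟨big _ _ _ _ (abs_nonneg _) (by positivity) wW1 n5.n01,
      big _ _ _ _ (abs_nonneg _) (by positivity) wW2 n5.n02,
      big _ _ _ _ (abs_nonneg _) (by positivity) wW1 n5.n10,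
      big _ _ _ _ (abs_nonneg _) (by positivity) wW2 n5.n20,
      big2 _ _ (abs_nonneg _) (by positivity) n5.n12,
      big2 _ _ (abs_nonneg _) (by positivity) n5.n21⟩ t21 t12 h1a h2a hs hsm hK hA' hE'

/-- **agreement of thin sheets**, from the angle of the long axes -/
theorem mid_thin
    (h1 : CSys O L i f (fun l => (b l).c) (fun l => (b l).e) (fun l => (b l).w)
      (fun l => (b l).q) a W1 W2 B X A1)
    (h2 : CSys O L i g (fun l => (b' l).c) (fun l => (b' l).e) (fun l => (b' l).w)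
      (fun l => (b' l).q) a W1 W2 B X A2)
    {o : ℕ × ℤ} (ho : o ∈ O) (ha : 0 < a) (hth : W2 ≤ a * 2 ^ k) (hE : 1 ≤ E) (hX : X ≤ E * a)
    (hB : 1 ≤ B) (hl : 1 ≤ lam) (haw : a ≤ B * (b (f o)).w 0) (haw' : a ≤ B * (b' (g o)).w 0)
    (hg : ∀ i, i ≠ 1 → |dt ((b (f o)).e 1) ((b' (g o)).e i)| * (b (f o)).w 1 ≤
      lam * (b (f o)).w 2)
    (hg' : ∀ i, i ≠ 1 → |dt ((b (f o)).e i) ((b' (g o)).e 1)| * (b (f o)).w 1 ≤
      lam * (b (f o)).w 2)
    (h1a : (b (f o)).a ≤ a) (h2a : (b' (g o)).a ≤ a) (hs : 0 < s)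
    (hsm : 5000 * (E * (20 * (lam * B ^ 2) * 2 ^ k) * lam * B ^ 5) ^ 2 * s ≤ 1)
    (hK : 500 * a ≤ (b (f o)).w 0) (hA' : 700 * a ≤ A') (hE' : s⁻¹ * a ≤ E') :
    Agree A' E' s lam (b (f o)) (b' (g o)) (L o.1) (zl i o.2) (rho i) := by
  obtain ⟨b0, b1, G, hx1, hx2⟩ := h1.ext o ho
  obtain ⟨d0, d1, H, hy1, hy2⟩ := h2.ext o ho
  have S := h1.st o ho
  have S' := h2.st o ho
  have N := hx1.nrmC S (Fl808.rho_pos i).le fun z h1' h2' => (h1.mem o ho z h1' h2').1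
  have N' := hy1.nrmC S' (Fl808.rho_pos i).le fun z h1' h2' => (h2.mem o ho z h1' h2').1
  have w0 := S.pos 0
  have w1 := S.pos 1
  have w2 := S.pos 2
  have w0' := S'.pos 0
  have w1' := S'.pos 1
  have w2' := S'.pos 2
  have w02 := h1.w02 o ho
  have w21 := h1.w21 o ho
  have w02' := h2.w02 o ho
  have w21' := h2.w21 o ho
  have B0 : 0 < B := by linarith only [hB]
  have pk1 : (1:ℝ) ≤ 2 ^ k := one_le_pow₀ (by norm_num)
  obtain ⟨r1, r2⟩ := gr_le N S.pos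
  obtain ⟨r1', r2'⟩ := gr_le N' S'.pos
  have q01 : (b (f o)).w 0 / (b (f o)).w 1 ≤ 1 := (div_le_one w1).2 (w02.trans w21)
  have q02 : (b (f o)).w 0 / (b (f o)).w 2 ≤ 1 := (div_le_one w2).2 w02
  have q01' : (b' (g o)).w 0 / (b' (g o)).w 1 ≤ 1 := (div_le_one w1').2 (w02'.trans w21')
  have q02' : (b' (g o)).w 0 / (b' (g o)).w 2 ≤ 1 := (div_le_one w2').2 w02'
  have p1 : |gr b0 (b (f o)).w 1| * (b (f o)).w 1 ≤ 2 * (b (f o)).w 2 := by
    have h3 : |gr b0 (b (f o)).w 1| * (b (f o)).w 1 ≤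
        2 * ((b (f o)).w 0 / (b (f o)).w 1) * (b (f o)).w 1 := by gcongr
    have h4 : 2 * ((b (f o)).w 0 / (b (f o)).w 1) * (b (f o)).w 1 = 2 * (b (f o)).w 0 := by
      field_simp
    linarith only [h3, h4, w02]
  have p1' : |gr d0 (b' (g o)).w 1| * (b (f o)).w 1 ≤ 2 * (B ^ 2 * (b (f o)).w 2) := by
    have hw : (b (f o)).w 1 ≤ B * (b' (g o)).w 1 := (h1.wW1 o ho).trans (h2.Ww1 o ho)
    have hw2 : (b' (g o)).w 2 ≤ B * (b (f o)).w 2 := (h2.wW2 o ho).trans (h1.Ww2 o ho)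
    calc |gr d0 (b' (g o)).w 1| * (b (f o)).w 1 ≤
        2 * ((b' (g o)).w 0 / (b' (g o)).w 1) * (B * (b' (g o)).w 1) := by gcongr
      _ = 2 * (B * (b' (g o)).w 0) := by field_simp
      _ ≤ 2 * (B * (B * (b (f o)).w 2)) := by
          have := w02'.trans hw2
          gcongr
      _ = _ := by ring
  have nr := nr_thin (B := B) (lam := lam) (X := 2 ^ k) (a := a) S.ortho S'.ortho w1 w2 p1
    (r1.trans (by linarith only [q01])) (r2.trans (by linarith only [q02])) p1'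
    (r1'.trans (by linarith only [q01'])) (r2'.trans (by linarith only [q02'])) hB hl
    (hg 0 (by decide)) (hg 2 (by decide)) (hg' 0 (by decide)) (hg' 2 (by decide)) pk1
    (by have := (h1.wW2 o ho).trans hth; linarith only [this]) ha.le
  have e1 : pfr (b (f o)).q (b (f o)).e (b (f o)).w (L o.1) (zl i o.2) =
      pf (b (f o)).e (gr b0 (b (f o)).w 1) (gr b0 (b (f o)).w 2) := by
    unfold pfr; rw [cb0_eq hx1 w0.ne']
  have e2 : pfr (b' (g o)).q (b' (g o)).e (b' (g o)).w (L o.1) (zl i o.2) =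
      pf (b' (g o)).e (gr d0 (b' (g o)).w 1) (gr d0 (b' (g o)).w 2) := by
    unfold pfr; rw [cb0_eq hy1 w0'.ne']
  rw [← e1, ← e2] at nr
  have Θ1 : (1:ℝ) ≤ 20 * (lam * B ^ 2) * 2 ^ k :=
    one_le_mul_of_one_le_of_one_le (one_le_mul_of_one_le_of_one_le (by norm_num)
      (one_le_mul_of_one_le_of_one_le hl (one_le_pow₀ hB))) pk1
  exact agree_obj h1 h2 ho ha hE hX Θ1 hB hl haw haw' nr (hg' 2 (by decide)) (hg 2 (by decide))
    h1a h2a hs hsm hK hA' hE'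

end

end Crest.Agent.R136.Mdf880
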