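import Mathlib
import Crest.Agent.R136.Mdf2_880

/-!
# R136 (S0187), U5 TILT, `Mid`: the dyadic tilts of the zoomed systems (helper880)

* `flat_pair'` : 808's `flat_pair` with the constant part separated from the logarithmic part.
* `mid_tilts` : the tilts of the planks of two zoomed systems.
-/

set_option autoImplicit false
set_option linter.unusedVariables false

namespace Crest.Agent.R136.Mdf880

open Finset Crest.Agent.R136.Sh605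
open Crest.Agent.R136.Tl102 Crest.Agent.R136.Mdr535
open Crest.Agent.R136.Fl808
open Crest.Agent.R136.K4 (Plk4)
open Crest.Agent.R138.Mk163 (zl rho)

/-- constants: constant part and slope -/
noncomputable def XC (q0 q1 q2 g' : ℝ) : ℝ :=
  4 / q1 * ((|Real.log (c1F q0 q1 q2)| + 4 * g' * Real.log 2) +
    4 * g' / q2 * |Real.log (c2F q0 q1 q2)|)

noncomputable def XL (q1 q2 g' : ℝ) : ℝ := 4 / q1 * (2 + 8 * g' / q2)

noncomputable def YC (q0 q1 q2 g' : ℝ) : ℝ :=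
  2 / q2 * (|Real.log (c2F q0 q1 q2)| + 2 * (g' + q2) * XC q0 q1 q2 g') + 2 * Real.log 2

noncomputable def YL (q1 q2 g' : ℝ) : ℝ := 2 / q2 * (2 + 2 * (g' + q2) * XL q1 q2 g')

section

variable {α β : Type*} {O Pj P P' : Finset (ℕ × ℤ)} {L : ℕ → Ln4} {i : ℕ} {f : ℕ × ℤ → α}
  {g : ℕ × ℤ → β} {bf : α → Ln4} {ef : α → Fin 3 → V3} {bg : β → Ln4} {eg : β → Fin 3 → V3}
  {a w1 w2 A1 A2 q0 q1 q2 r0 M W δ0 ω1 ω2 g' : ℝ} {j k' : ℕ}

/-- **the finite pair theorem for flat boxes**, sharp form -/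
theorem flat_pair' (h1 : FSys O L i f bf ef a w1 w2 A1)
    (h2 : FSys O L i g bg eg a w1 w2 A2)
    -- the three deeper levels
    (hPj : Pj.Nonempty) (hPjO : ∀ x ∈ Pj, par j x ∈ O)
    (hP : P.Nonempty) (hPO : ∀ x ∈ P, par (k' + j) x ∈ O) (hPP : ∀ x ∈ P, par j x ∈ P')
    (hdj : DMaxP Pj L (i + j) (M * 2 ^ ((g' + q1 + q2) * (j : ℝ))) q0 q1 q2 r0 ω1 ω2
      (2000 * (w1 / 2 ^ j)) (2000 * w2) (2000 * (2 ^ k' * a)))
    (hd' : DMaxP P' L (i + k') (M * 2 ^ ((g' + q1 + q2) * (k' : ℝ))) q0 q1 q2 r0 ω1 ω2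
      (2000 * (w1 / 2 ^ k')) (2000 * w2) (2000 * (2 ^ k' * a)))
    (hd : DMaxP P L (i + (k' + j)) (M * 2 ^ ((g' + q1 + q2) * ((k' + j : ℕ) : ℝ))) q0 q1 q2 r0 ω1 ω2
      (2000 * (w1 / 2 ^ (k' + j))) (2000 * w2) (2000 * (2 ^ k' * a)))
    (hcardj : δ0 * (O.card : ℝ) * 2 ^ j ≤ (Pj.card : ℝ))
    (hcard : δ0 * (O.card : ℝ) * 2 ^ (k' + j) ≤ (P.card : ℝ))
    -- numbers
    (hr0 : r0 ≤ a) (ha : 0 < a) (haw : a ≤ w2) (hw : w2 ≤ w1) (hM : 0 < M)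
    (hA1 : 0 < A1) (hA2 : 0 < A2) (hδ0 : 0 < δ0) (hδ1 : δ0 ≤ 1) (hW : 1 ≤ W)
    (hω : ω2 ≤ ω1) (hω20 : 0 ≤ ω2)
    (hω1 : 2 * 2 ^ (k' + j) * ω1 ≤ w1) (hω2 : 2 * 2 ^ (k' + j) * ω2 ≤ w2)
    (hV1 : M * capB q0 q1 q2 a w1 w2 ≤ W * A1) (hV2 : M * capB q0 q1 q2 a w1 w2 ≤ W * A2)
    -- rewards
    (hg : 0 ≤ g') (hq0 : 0 ≤ q0) (hq2 : 0 < q2) (hq02 : 2 * q0 ≤ q2) (hq21 : 8 * q2 ≤ q1)
    (hg1 : 64 * g' ≤ q1) (hgq : 64 * g' ^ 2 ≤ q1 * q2)
    -- dyadic tilts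
    (hD : ∀ x ∈ O, Dy (ef (f x)) (eg (g x)) a w1 w2 j k') :
    (j : ℝ) * Real.log 2 ≤ XC q0 q1 q2 g' + XL q1 q2 g' * Real.log (W / δ0) ∧
      (k' : ℝ) * Real.log 2 ≤ YC q0 q1 q2 g' + YL q1 q2 g' * Real.log (W / δ0) := by
  have hq1 : 0 < q1 := by linarith
  have hlog : 0 ≤ Real.log (W / δ0) := by
    refine Real.log_nonneg ?_
    rw [le_div_iff₀ hδ0]; linarith
  have l2p : 0 < Real.log 2 := Real.log_pos (by norm_num)
  have k1 := pair_base h1 h2 hP hPO hPP hd hd' hr0 ha haw hw hM hA1 hA2 hδ0 (by linarith) hD hω1 hω2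
    hcard hV1 hV2
  obtain ⟨l, hl⟩ : ∃ l, l = k' - 2 := ⟨_, rfl⟩
  have hkl : (k' : ℝ) ≤ l + 2 := by
    have : k' ≤ l + 2 := by omega
    exact_mod_cast this
  have g1 : (q1 - q2 - g') * (j * Real.log 2) ≤
      (|Real.log (c1F q0 q1 q2)| + 4 * g' * Real.log 2) + 2 * Real.log (W / δ0) + 2 * g' * (l * Real.log 2) := by
    have h3 := le_abs_self (Real.log (c1F q0 q1 q2))
    have h4 : 2 * g' * (k' * Real.log 2) ≤ 2 * g' * ((l + 2) * Real.log 2) := by gcongr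
    linarith
  have g2 : 0 ≤ (l:ℝ) * Real.log 2 → (q2 - q0) * (l * Real.log 2) ≤
      |Real.log (c2F q0 q1 q2)| + 2 * Real.log (W / δ0) + 2 * (g' + q2) * (j * Real.log 2) := by
    intro _
    rcases Nat.eq_zero_or_pos l with h | h
    · rw [h]
      have : 0 ≤ (j:ℝ) * Real.log 2 := by positivity
      have := abs_nonneg (Real.log (c2F q0 q1 q2))
      simp only [Nat.cast_zero, zero_mul, mul_zero]
      positivity
    · have k2 := pair_thick h1 h2 hPj hPjO hdj hr0 ha haw hw hM hA1 hA2 hδ0 (by linarith) hD hω hω20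
        hω1 hω2 hcardj hq0 (by linarith) (by linarith) hV1 hV2 (l := l) (by omega)
      have h3 := le_abs_self (Real.log (c2F q0 q1 q2))
      linarith
  have c10 := abs_nonneg (Real.log (c1F q0 q1 q2))
  have c20 := abs_nonneg (Real.log (c2F q0 q1 q2))
  have hx0 : 0 ≤ (j:ℝ) * Real.log 2 := by positivity
  have hX := elim hx0 hlog (by positivity) c20 hg hq2 hq02 hq21 hg1 hgq g1 g2
  have hl0 : 0 ≤ (l:ℝ) * Real.log 2 := by positivity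
  have hY := g2 hl0
  have eX : (j:ℝ) * Real.log 2 ≤ XC q0 q1 q2 g' + XL q1 q2 g' * Real.log (W / δ0) := by
    refine hX.trans (le_of_eq ?_)
    unfold XC XL; ring
  refine ⟨eX, ?_⟩
  have h3 : q2 / 2 * (l * Real.log 2) ≤ (q2 - q0) * (l * Real.log 2) :=
    mul_le_mul_of_nonneg_right (by linarith) hl0
  have h4 : 2 * (g' + q2) * (j * Real.log 2) ≤
      2 * (g' + q2) * (XC q0 q1 q2 g' + XL q1 q2 g' * Real.log (W / δ0)) := by gcongr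
  have h5 : l * Real.log 2 ≤ 2 / q2 * (|Real.log (c2F q0 q1 q2)| + 2 * Real.log (W / δ0) +
      2 * (g' + q2) * (XC q0 q1 q2 g' + XL q1 q2 g' * Real.log (W / δ0))) := by
    rw [div_mul_eq_mul_div, le_div_iff₀ hq2]
    linarith
  have h6 : (k' : ℝ) * Real.log 2 ≤ (l + 2) * Real.log 2 := by gcongr
  refine h6.trans ?_
  have e1 : YC q0 q1 q2 g' + YL q1 q2 g' * Real.log (W / δ0) =
      2 / q2 * (|Real.log (c2F q0 q1 q2)| + 2 * Real.log (W / δ0) +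
      2 * (g' + q2) * (XC q0 q1 q2 g' + XL q1 q2 g' * Real.log (W / δ0))) + 2 * Real.log 2 := by
    unfold YC YL; ring
  rw [e1]
  linarith

/-- restriction of a system to a part -/
theorem FSys.restrict {O' : Finset (ℕ × ℤ)} {A : ℝ} (h : FSys O L i f bf ef a w1 w2 A)
    (hO : O' ⊆ O) (hA : 0 ≤ A) :
    FSys O' L i f bf ef a w1 w2 (A * (O'.card : ℝ) / (O.card : ℝ)) where
  ortho := fun o ho => h.ortho o (hO ho)
  mem := fun o ho => h.mem o (hO ho)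
  cell := fun o ho o' ho' => h.cell o (hO ho) o' (hO ho')
  num := by
    classical
    rcases Nat.eq_zero_or_pos O.card with h0 | h0
    · rw [h0]
      simp
    · have h0' : (0:ℝ) < O.card := by exact_mod_cast h0
      have h1 := h.num
      have h2 : ((O'.image f).card : ℝ) ≤ ((O.image f).card : ℝ) := by
        exact_mod_cast card_le_card (image_subset_image hO)
      rw [← mul_div_assoc, div_le_iff₀ h0']
      have h3 : (0:ℝ) ≤ O'.card := Nat.cast_nonneg _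
      calc ((O'.image f).card : ℝ) * (A * (O'.card : ℝ)) ≤
          ((O.image f).card : ℝ) * (A * (O'.card : ℝ)) := by gcongr
        _ = ((O.image f).card : ℝ) * A * (O'.card : ℝ) := by ring
        _ ≤ (O.card : ℝ) * (O'.card : ℝ) := by gcongr
        _ = _ := by ring

end

/-- defect of the zoomed systems -/
noncomputable def Wz (q0 q1 q2 g' B W δ0 : ℝ) (k : ℕ) : ℝ :=
  16 * (800 ^ (1 + q0) * (2000 * B) ^ (2 + q1 + q2)) * 2 ^ (g' * (k : ℝ)) * W / δ0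

section

variable {α β : Type*} {O P O' Pj P3 P' : Finset (ℕ × ℤ)} {L : ℕ → Ln4} {i k : ℕ}
  {f : ℕ × ℤ → α} {g : ℕ × ℤ → β} {cf : α → Ln4} {ef : α → Fin 3 → V3} {wf : α → V3}
  {qf : α → ℝ → V3 → ℝ} {cg : β → Ln4} {eg : β → Fin 3 → V3} {wg : β → V3}
  {qg : β → ℝ → V3 → ℝ}
  {a W1 W2 B X A1 A2 q0 q1 q2 r0 M W δ0 ω1 ω2 g' : ℝ} {j k' : ℕ}

/-- the numbers of the zoomed system -/
theorem zoom_num {A o o' : ℝ} (hq0 : 0 ≤ q0) (hq1 : 0 ≤ q1) (hq2 : 0 ≤ q2) (ha : 0 < a) (hW2 : 0 < W2)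
    (hW1 : 0 < W1) (hB : 0 < B) (hM : 0 < M) (hA : 0 < A) (hδ0 : 0 < δ0) (hW : 0 < W) (ho : 0 < o)
    (ho' : δ0 * o * 2 ^ k ≤ o') (hV : M * capB q0 q1 q2 a W1 W2 ≤ W * A) :
    M * 2 ^ ((g' + q1 + q2) * (k : ℝ)) *
      capB q0 q1 q2 (800 * a) (2000 * B * (W1 / 2 ^ k)) (2000 * B * (W2 / 2 ^ k)) ≤
      Wz q0 q1 q2 g' B W δ0 k * (A * o' / (o * (2 ^ k * (16 * 4 ^ k)))) := by
  have e2 : 2000 * B * (W1 / 2 ^ k) = (2000 * B * (2 ^ k)⁻¹) * W1 := by field_simp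
  have e3 : 2000 * B * (W2 / 2 ^ k) = (2000 * B * (2 ^ k)⁻¹) * W2 := by field_simp
  have sc : ∀ x : ℝ, (2000 * B * (2 ^ k)⁻¹) ^ x = (2000 * B) ^ x * 2 ^ (-((k : ℝ) * x)) := by
    intro x
    rw [Real.mul_rpow (by positivity) (by positivity), Real.inv_rpow (by positivity),
      two_pow_rpow, Real.rpow_neg (by norm_num)]
  have hcap : 0 < capB q0 q1 q2 a W1 W2 := capB_pos ha hW1 hW2
  rw [e2, e3, capB_scale ha.le hW1.le hW2.le (by norm_num) (by positivity) (by positivity), sc, sc]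
  have c1 : (2000 * B) ^ (2 + q1 + q2) = (2000 * B) ^ (1 + q2) * (2000 * B) ^ (1 + q1) := by
    rw [← Real.rpow_add (by positivity)]; congr 1; ring
  -- the powers of two
  have c2 : (2:ℝ) ^ ((g' + q1 + q2) * (k : ℝ)) * (2 ^ (-((k : ℝ) * (1 + q2))) *
      2 ^ (-((k : ℝ) * (1 + q1)))) * 4 ^ k = 2 ^ (g' * (k : ℝ)) := by
    have c3 : (4:ℝ) ^ k = 2 ^ (2 * (k : ℝ)) := by
      rw [Real.rpow_mul (by norm_num)]; norm_num
    rw [c3, ← Real.rpow_add (by norm_num), ← Real.rpow_add (by norm_num),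
      ← Real.rpow_add (by norm_num)]
    congr 1; ring
  generalize capB q0 q1 q2 a W1 W2 = V at *
  unfold Wz
  rw [c1, ← c2]
  have hc8 : (0:ℝ) < 800 ^ (1 + q0) := by positivity
  generalize (800:ℝ) ^ (1 + q0) = c8 at *
  have hb1 : 0 < (2000 * B) ^ (1 + q2) := by positivity
  have hb2 : 0 < (2000 * B) ^ (1 + q1) := by positivity
  generalize (2000 * B) ^ (1 + q2) = b1 at *
  generalize (2000 * B) ^ (1 + q1) = b2 at *
  have ht0 : (0:ℝ) < 2 ^ ((g' + q1 + q2) * (k : ℝ)) := by positivity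
  have ht1 : (0:ℝ) < 2 ^ (-((k : ℝ) * (1 + q2))) := by positivity
  have ht2 : (0:ℝ) < 2 ^ (-((k : ℝ) * (1 + q1))) := by positivity
  generalize (2:ℝ) ^ ((g' + q1 + q2) * (k : ℝ)) = t0 at *
  generalize (2:ℝ) ^ (-((k : ℝ) * (1 + q2))) = t1 at *
  generalize (2:ℝ) ^ (-((k : ℝ) * (1 + q1))) = t2 at *
  have p2 : (0:ℝ) < 2 ^ k := by positivity
  have p4 : (0:ℝ) < 4 ^ k := by positivity
  generalize (2:ℝ) ^ k = p at *
  generalize (4:ℝ) ^ k = p' at *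
  have h1 : A * δ0 / (16 * p') ≤ A * o' / (o * (p * (16 * p'))) := by
    rw [div_le_div_iff₀ (by positivity) (by positivity)]
    have : A * (16 * p') * (δ0 * o * p) ≤ A * (16 * p') * o' := by gcongr
    linarith only [this]
  calc M * t0 * (c8 * (b1 * t1) * (b2 * t2) * V) = (c8 * b1 * b2 * (t0 * (t1 * t2))) * (M * V) := by
        ring
    _ ≤ (c8 * b1 * b2 * (t0 * (t1 * t2))) * (W * A) := by gcongr
    _ = 16 * (c8 * (b1 * b2)) * (t0 * (t1 * t2) * p') * W / δ0 * (A * δ0 / (16 * p')) := by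
        field_simp
    _ ≤ _ := by gcongr

/-- **the dyadic tilts of two zoomed systems** -/
theorem mid_tilts (h1 : CSys O L i f cf ef wf qf a W1 W2 B X A1)
    (h2 : CSys O L i g cg eg wg qg a W1 W2 B X A2) (Z : ZPar a W1 W2 B X k)
    (hPO : ∀ x ∈ P, par k x ∈ O) (hO' : O' ⊆ P)
    -- dyadic tilts
    (hD : ∀ x ∈ O', Dy (ze P L i k f cf ef wf qf W1 W2 (zlab L i k f cf ef W1 W2 x))
      (ze P L i k g cg eg wg qg W1 W2 (zlab L i k g cg eg W1 W2 x)) (800 * a)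
      (2000 * B * (W1 / 2 ^ k)) (2000 * B * (W2 / 2 ^ k)) j k')
    -- the three deeper levels
    (hPj : Pj.Nonempty) (hPjO : ∀ x ∈ Pj, par j x ∈ O')
    (hP3 : P3.Nonempty) (hP3O : ∀ x ∈ P3, par (k' + j) x ∈ O') (hPP : ∀ x ∈ P3, par j x ∈ P')
    (hdj : DMaxP Pj L (i + k + j) (M * 2 ^ ((g' + q1 + q2) * ((k + j : ℕ) : ℝ))) q0 q1 q2 r0 ω1 ω2
      (2000 * (2000 * B * (W1 / 2 ^ k) / 2 ^ j)) (2000 * (2000 * B * (W2 / 2 ^ k)))
      (2000 * (2 ^ k' * (800 * a))))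
    (hd' : DMaxP P' L (i + k + k') (M * 2 ^ ((g' + q1 + q2) * ((k + k' : ℕ) : ℝ))) q0 q1 q2 r0 ω1 ω2
      (2000 * (2000 * B * (W1 / 2 ^ k) / 2 ^ k')) (2000 * (2000 * B * (W2 / 2 ^ k)))
      (2000 * (2 ^ k' * (800 * a))))
    (hd : DMaxP P3 L (i + k + (k' + j)) (M * 2 ^ ((g' + q1 + q2) * ((k + (k' + j) : ℕ) : ℝ)))
      q0 q1 q2 r0 ω1 ω2 (2000 * (2000 * B * (W1 / 2 ^ k) / 2 ^ (k' + j))) (2000 * (2000 * B * (W2 / 2 ^ k)))
      (2000 * (2 ^ k' * (800 * a))))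
    (hcard0 : δ0 * (O.card : ℝ) * 2 ^ k ≤ (O'.card : ℝ))
    (hcardj : δ0 * (O'.card : ℝ) * 2 ^ j ≤ (Pj.card : ℝ))
    (hcard : δ0 * (O'.card : ℝ) * 2 ^ (k' + j) ≤ (P3.card : ℝ))
    -- numbers
    (hr0 : r0 ≤ a) (hM : 0 < M) (hA1 : 0 < A1) (hA2 : 0 < A2) (hδ0 : 0 < δ0) (hδ1 : δ0 ≤ 1)
    (hW : 1 ≤ W) (hω : ω2 ≤ ω1) (hω20 : 0 ≤ ω2)
    (hω1 : 2 * 2 ^ (k' + j) * ω1 ≤ 2000 * B * (W1 / 2 ^ k))
    (hω2 : 2 * 2 ^ (k' + j) * ω2 ≤ 2000 * B * (W2 / 2 ^ k))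
    (hV1 : M * capB q0 q1 q2 a W1 W2 ≤ W * A1) (hV2 : M * capB q0 q1 q2 a W1 W2 ≤ W * A2)
    -- rewards
    (hg : 0 ≤ g') (hq0 : 0 ≤ q0) (hq2 : 0 < q2) (hq02 : 2 * q0 ≤ q2) (hq21 : 8 * q2 ≤ q1)
    (hg1 : 64 * g' ≤ q1) (hgq : 64 * g' ^ 2 ≤ q1 * q2) :
    (j : ℝ) * Real.log 2 ≤ XC q0 q1 q2 g' +
        XL q1 q2 g' * Real.log (Wz q0 q1 q2 g' B W δ0 k / δ0) ∧
      (k' : ℝ) * Real.log 2 ≤ YC q0 q1 q2 g' +
        YL q1 q2 g' * Real.log (Wz q0 q1 q2 g' B W δ0 k / δ0) := by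
  have ha := Z.ha
  have hB := Z.hB1
  have B0 : 0 < B := by linarith only [hB]
  have pk : (0:ℝ) < 2 ^ k := by positivity
  have hW2 : 0 < W2 := lt_of_lt_of_le (mul_pos ha pk) Z.haW
  have hW1 : 0 < W1 := hW2.trans_le Z.hW
  obtain ⟨x0, hx0⟩ := hPj
  have hO'n : O'.Nonempty := ⟨_, hPjO x0 hx0⟩
  have hPn : P.Nonempty := hO'n.mono hO'
  have ho' : (0:ℝ) < O'.card := by exact_mod_cast card_pos.2 hO'n
  have hp : (0:ℝ) < P.card := by exact_mod_cast card_pos.2 hPn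
  have hOn : O.Nonempty := by
    obtain ⟨y, hy⟩ := hPn
    exact ⟨_, hPO y hy⟩
  have ho : (0:ℝ) < O.card := by exact_mod_cast card_pos.2 hOn
  have s1 := FSys.restrict (h1.plank hPO Z hA1.le) hO' (by positivity)
  have s2 := FSys.restrict (h2.plank hPO Z hA2.le) hO' (by positivity)
  have eA : ∀ A : ℝ, A * (P.card : ℝ) / ((O.card : ℝ) * (2 ^ k * (16 * 4 ^ k))) *
      (O'.card : ℝ) / (P.card : ℝ) = A * (O'.card : ℝ) / ((O.card : ℝ) * (2 ^ k * (16 * 4 ^ k))) := by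
    intro A
    field_simp
  rw [eA] at s1 s2
  have M1 : ∀ l : ℕ, M * 2 ^ ((g' + q1 + q2) * (k : ℝ)) * 2 ^ ((g' + q1 + q2) * (l : ℝ)) =
      M * 2 ^ ((g' + q1 + q2) * ((k + l : ℕ) : ℝ)) := by
    intro l
    rw [mul_assoc, ← Real.rpow_add (by norm_num)]
    congr 2; push_cast; ring
  rw [← M1] at hdj hd' hd
  have haw : 800 * a ≤ 2000 * B * (W2 / 2 ^ k) := by
    have h3 : a ≤ W2 / 2 ^ k := by rw [le_div_iff₀ pk]; exact Z.haW
    have h4 : W2 / 2 ^ k ≤ B * (W2 / 2 ^ k) := le_mul_of_one_le_left (by positivity) hB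
    linarith only [h3, h4, ha]
  have hww : 2000 * B * (W2 / 2 ^ k) ≤ 2000 * B * (W1 / 2 ^ k) := by
    have := Z.hW
    gcongr
  have hWz : 1 ≤ Wz q0 q1 q2 g' B W δ0 k := by
    unfold Wz
    rw [le_div_iff₀ hδ0]
    have t1 : (1:ℝ) ≤ 800 ^ (1 + q0) := Real.one_le_rpow (by norm_num) (by linarith)
    have t2 : (1:ℝ) ≤ (2000 * B) ^ (2 + q1 + q2) := Real.one_le_rpow (by linarith) (by linarith)
    have t3 : (1:ℝ) ≤ 2 ^ (g' * (k : ℝ)) := Real.one_le_rpow (by norm_num) (by positivity)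
    have t4 := one_le_mul_of_one_le_of_one_le (one_le_mul_of_one_le_of_one_le
      (one_le_mul_of_one_le_of_one_le (by norm_num : (1:ℝ) ≤ 16)
        (one_le_mul_of_one_le_of_one_le t1 t2)) t3) hW
    linarith only [t4, hδ1]
  have V1 := zoom_num (g' := g') hq0 (by linarith : 0 ≤ q1) hq2.le ha hW2 hW1 B0 hM hA1 hδ0
    (by linarith) ho hcard0 hV1
  have V2 := zoom_num (g' := g') hq0 (by linarith : 0 ≤ q1) hq2.le ha hW2 hW1 B0 hM hA2 hδ0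
    (by linarith) ho hcard0 hV2
  exact flat_pair' s1 s2 ⟨x0, hx0⟩ hPjO hP3 hP3O hPP hdj hd' hd hcardj hcard (by linarith) (by positivity)
    haw hww (by positivity) (by positivity) (by positivity) hδ0 hδ1 hWz hω hω20 hω1 hω2 V1 V2 hg hq0
    hq2 hq02 hq21 hg1 hgq hD

end

end Crest.Agent.R136.Mdf880
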