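import Mathlib
import Crest.Agent.R136.Mdf3_880

/-!
# R136 (S0187), U5 TILT, `Mid`: the arithmetic end (helper880)

* `mid_num` : the side conditions of `mid_agree`, `mid_thin`.
* `eta_small` : the conditions on the rewards for small `η`.
-/

set_option autoImplicit false
set_option linter.unusedVariables false

namespace Crest.Agent.R136.Mdf880

open Crest.Agent.R136.Fl808

/-! ### the arithmetic end -/

theorem XL_nonneg {q1 q2 g' : ℝ} (hq1 : 0 < q1) (hq2 : 0 < q2) (hg : 0 ≤ g') : 0 ≤ XL q1 q2 g' := by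
  unfold XL; positivity

theorem YL_nonneg {q1 q2 g' : ℝ} (hq1 : 0 < q1) (hq2 : 0 < q2) (hg : 0 ≤ g') : 0 ≤ YL q1 q2 g' := by
  have := XL_nonneg hq1 hq2 hg
  unfold YL; positivity

theorem XC_nonneg {q0 q1 q2 g' : ℝ} (hq1 : 0 < q1) (hq2 : 0 < q2) (hg : 0 ≤ g') :
    0 ≤ XC q0 q1 q2 g' := by
  have : 0 < Real.log 2 := Real.log_pos (by norm_num)
  unfold XC; positivity

theorem YC_nonneg {q0 q1 q2 g' : ℝ} (hq1 : 0 < q1) (hq2 : 0 < q2) (hg : 0 ≤ g') :
    0 ≤ YC q0 q1 q2 g' := by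
  have : 0 < Real.log 2 := Real.log_pos (by norm_num)
  have := XC_nonneg (q0 := q0) hq1 hq2 hg
  unfold YC; positivity

/-- exponent of the side condition -/
noncomputable def C4 (q0 q1 q2 g' : ℝ) : ℝ :=
  4 * (240 + 2 * (XC q0 q1 q2 g' + YC q0 q1 q2 g') +
    2 * (XL q1 q2 g' + YL q1 q2 g') * (40 + 10 * q0 + 12 * q1 + 12 * q2 + 21 * g') + 16 +
      6 * (XL q1 q2 g' + YL q1 q2 g'))

theorem C4_pos {q0 q1 q2 g' : ℝ} (hq0 : 0 ≤ q0) (hq1 : 0 < q1) (hq2 : 0 < q2) (hg : 0 ≤ g') :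
    0 < C4 q0 q1 q2 g' := by
  have := XL_nonneg hq1 hq2 hg
  have := YL_nonneg hq1 hq2 hg
  have := XC_nonneg (q0 := q0) hq1 hq2 hg
  have := YC_nonneg (q0 := q0) hq1 hq2 hg
  unfold C4; positivity

theorem log_le_mul2 {x : ℝ} {n : ℕ} (hx : 0 < x) (h : x ≤ 2 ^ n) :
    Real.log x ≤ n * Real.log 2 := by
  rw [← Real.log_pow]
  exact Real.log_le_log hx h

/-- a bound `x ≤ 2^20 y s^(-c)` in logarithms -/
theorem log_bd {x y s c : ℝ} (hx : 0 < x) (hy : 0 < y) (hs : 0 < s)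
    (h : x ≤ 2 ^ 20 * y * s ^ (-c)) :
    Real.log x ≤ 20 * Real.log 2 + Real.log y + c * (-Real.log s) := by
  have hs' : 0 < s ^ (-c) := Real.rpow_pos_of_pos hs _
  have h1 := Real.log_le_log hx h
  rw [Real.log_mul (by positivity) hs'.ne', Real.log_mul (by norm_num) hy.ne', Real.log_pow,
    Real.log_rpow hs] at h1
  push_cast at h1
  linarith

section
variable {q0 q1 q2 g' c B W δ0 s E lam : ℝ} {k j k' : ℕ}

/-- logarithm of the defect -/
theorem log_Wz (hB : 0 < B) (hW : 0 < W) (hδ0 : 0 < δ0) :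
    Real.log (Wz q0 q1 q2 g' B W δ0 k / δ0) = Real.log 16 + (1 + q0) * Real.log 800 +
      (2 + q1 + q2) * (Real.log 2000 + Real.log B) + g' * (k * Real.log 2) + Real.log W +
        2 * (-Real.log δ0) := by
  unfold Wz
  have h1 : (0:ℝ) < 800 ^ (1 + q0) := by positivity
  have h2 : (0:ℝ) < (2000 * B) ^ (2 + q1 + q2) := by positivity
  have h3 : (0:ℝ) < 2 ^ (g' * (k : ℝ)) := by positivity
  rw [Real.log_div (by positivity) hδ0.ne', Real.log_div (by positivity) hδ0.ne',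
    Real.log_mul (by positivity) hW.ne', Real.log_mul (by positivity) h3.ne',
    Real.log_mul (by norm_num) (by positivity), Real.log_mul h1.ne' h2.ne',
    Real.log_rpow (by norm_num), Real.log_rpow (by positivity), Real.log_rpow (by norm_num),
    Real.log_mul (by norm_num) hB.ne']
  ring

/-- **the side conditions of `mid_agree`, `mid_thin`** -/
theorem mid_num (hq0 : 0 ≤ q0) (hq1 : 0 < q1) (hq2 : 0 < q2) (hg : 0 ≤ g') (hc0 : 0 ≤ c)
    (hc : 8 * (c * (3 + g' * (XL q1 q2 g' + YL q1 q2 g'))) ≤ 1)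
    (hB : 1 ≤ B) (hW : 1 ≤ W) (hδ0 : 0 < δ0) (hδ1 : δ0 ≤ 1) (hs : 0 < s) (hE : 1 ≤ E)
    (hE' : E ≤ 2 ^ 20 * s ^ (-c)) (hl : 1 ≤ lam) (hl' : lam ≤ 2 ^ 20 * s ^ (-c))
    (hk : 2 ^ k ≤ 2 ^ 20 * B * s ^ (-c))
    (hsm : s * (2 * B * W / δ0) ^ (C4 q0 q1 q2 g') ≤ 1) :
    5000 * (E * (20 * (lam * B ^ 2) * 2 ^ k) * lam * B ^ 5) ^ 2 * s ≤ 1 ∧
    ((j : ℝ) * Real.log 2 ≤ XC q0 q1 q2 g' +
        XL q1 q2 g' * Real.log (Wz q0 q1 q2 g' B W δ0 k / δ0) →
      (k' : ℝ) * Real.log 2 ≤ YC q0 q1 q2 g' +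
        YL q1 q2 g' * Real.log (Wz q0 q1 q2 g' B W δ0 k / δ0) →
      5000 * (E * (10 ^ 15 * 2 ^ (j + k') * 2 ^ k * B) * lam * B ^ 5) ^ 2 * s ≤ 1) := by
  have B0 : 0 < B := by linarith
  have W0 : 0 < W := by linarith
  have E0 : 0 < E := by linarith
  have l0 : 0 < lam := by linarith
  have pk : (0:ℝ) < 2 ^ k := by positivity
  have h1 := log_bd E0 one_pos hs (by linarith : E ≤ 2 ^ 20 * 1 * s ^ (-c))
  have h2 := log_bd l0 one_pos hs (by linarith : lam ≤ 2 ^ 20 * 1 * s ^ (-c))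
  have h3 := log_bd pk B0 hs hk
  rw [Real.log_one] at h1 h2
  rw [Real.log_pow] at h3
  have b0 : 0 ≤ Real.log B := Real.log_nonneg hB
  have w0 : 0 ≤ Real.log W := Real.log_nonneg hW
  have d0 : 0 ≤ -Real.log δ0 := by
    have := Real.log_nonpos hδ0.le hδ1
    linarith
  have l2 : 1 / 2 ≤ Real.log 2 := by have := Real.log_two_gt_d9; linarith
  have l2' : Real.log 2 ≤ 1 := by have := Real.log_two_lt_d9; linarith
  have k5000 := log_le_mul2 (x := 5000) (n := 13) (by norm_num) (by norm_num)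
  have k15 := log_le_mul2 (x := 10 ^ 15) (n := 50) (by norm_num) (by norm_num)
  have k20 := log_le_mul2 (x := 20) (n := 5) (by norm_num) (by norm_num)
  have k16 := log_le_mul2 (x := 16) (n := 4) (by norm_num) (by norm_num)
  have k800 := log_le_mul2 (x := 800) (n := 10) (by norm_num) (by norm_num)
  have k2000 := log_le_mul2 (x := 2000) (n := 11) (by norm_num) (by norm_num)
  have XL0 := XL_nonneg hq1 hq2 hg
  have YL0 := YL_nonneg hq1 hq2 hg
  have XC0 := XC_nonneg (q0 := q0) hq1 hq2 hg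
  have YC0 := YC_nonneg (q0 := q0) hq1 hq2 hg
  have C40 := C4_pos hq0 hq1 hq2 hg
  -- the hypothesis in logarithms
  have hsm' : C4 q0 q1 q2 g' * (Real.log 2 + Real.log B + Real.log W + (-Real.log δ0)) ≤
      -Real.log s := by
    have hx : 0 < 2 * B * W / δ0 := by positivity
    have hp : 0 < (2 * B * W / δ0) ^ (C4 q0 q1 q2 g') := Real.rpow_pos_of_pos hx _
    have h4 := Real.log_le_log (by positivity) hsm
    rw [Real.log_one, Real.log_mul hs.ne' hp.ne', Real.log_rpow hx,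
      Real.log_div (by positivity) hδ0.ne', Real.log_mul (by positivity) W0.ne',
      Real.log_mul (by norm_num) B0.ne'] at h4
    linarith
  have hWz := log_Wz (q0 := q0) (q1 := q1) (q2 := q2) (g' := g') (k := k) B0 W0 hδ0
  push_cast at k5000 k15 k20 k16 k800 k2000
  -- abbreviations
  have eC4 : C4 q0 q1 q2 g' = 4 * (240 + 2 * (XC q0 q1 q2 g' + YC q0 q1 q2 g') +
    2 * (XL q1 q2 g' + YL q1 q2 g') * (40 + 10 * q0 + 12 * q1 + 12 * q2 + 21 * g') + 16 +
      6 * (XL q1 q2 g' + YL q1 q2 g')) := rfl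
  have hσ : 0 ≤ -Real.log s := by
    refine le_trans ?_ hsm'
    have : 0 ≤ Real.log 2 := by linarith
    positivity
  have eT : Real.log (E * (10 ^ 15 * 2 ^ (j + k') * 2 ^ k * B) * lam * B ^ 5) =
      Real.log E + (Real.log (10 ^ 15) + ((j + k' : ℕ) : ℝ) * Real.log 2 + k * Real.log 2 +
        Real.log B) + Real.log lam + 5 * Real.log B := by
    have p1 : (0:ℝ) < 2 ^ (j + k') := by positivity
    rw [Real.log_mul (by positivity) (by positivity), Real.log_mul (by positivity) l0.ne',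
      Real.log_mul E0.ne' (by positivity), Real.log_mul (by positivity) B0.ne',
      Real.log_mul (by positivity) pk.ne', Real.log_mul (by norm_num) p1.ne', Real.log_pow 2 (j + k'),
      Real.log_pow 2 k, Real.log_pow B 5]
    push_cast; ring
  have eU : Real.log (E * (20 * (lam * B ^ 2) * 2 ^ k) * lam * B ^ 5) =
      Real.log E + (Real.log 20 + (Real.log lam + 2 * Real.log B) + k * Real.log 2) +
        Real.log lam + 5 * Real.log B := by
    rw [Real.log_mul (by positivity) (by positivity), Real.log_mul (by positivity) l0.ne',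
      Real.log_mul E0.ne' (by positivity), Real.log_mul (by positivity) pk.ne',
      Real.log_mul (by norm_num) (by positivity), Real.log_mul l0.ne' (by positivity),
      Real.log_pow 2 k, Real.log_pow B 5, Real.log_pow B 2]
    push_cast; ring
  have fin : ∀ Q : ℝ, 0 < Q → Real.log 5000 + 2 * Real.log Q ≤ -Real.log s →
      5000 * Q ^ 2 * s ≤ 1 := by
    intro Q hQ h
    rw [← Real.log_le_log_iff (by positivity) one_pos, Real.log_one,
      Real.log_mul (by positivity) hs.ne', Real.log_mul (by norm_num) (by positivity),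
      Real.log_pow Q 2]
    push_cast
    linarith
  generalize hG : Real.log (Wz q0 q1 q2 g' B W δ0 k / δ0) = G at *
  generalize Real.log 2 = t at *
  generalize hσ' : -Real.log s = σ at *
  generalize Real.log B = β at *
  generalize Real.log W = ϖ at *
  generalize -Real.log δ0 = δ at *
  generalize XC q0 q1 q2 g' = xc at *
  generalize YC q0 q1 q2 g' = yc at *
  generalize XL q1 q2 g' = xl at *
  generalize YL q1 q2 g' = yl at *
  generalize C4 q0 q1 q2 g' = c4 at *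
  generalize hZ : xl + yl = Z at *
  have Z0 : 0 ≤ Z := by rw [← hZ]; linarith only [XL0, YL0]
  generalize hS : β + ϖ + δ = S at *
  have S0 : 0 ≤ S := by rw [← hS]; linarith only [b0, w0, d0]
  have hβS : β ≤ S := by rw [← hS]; linarith only [w0, d0]
  obtain ⟨qq, hqq⟩ : ∃ qq, qq = 40 + 10 * q0 + 12 * q1 + 12 * q2 + 21 * g' := ⟨_, rfl⟩
  have qq0 : 0 ≤ qq := by rw [hqq]; linarith only [hq0, hq1, hq2, hg]
  rw [← hqq] at eC4
  have hD4 : 256 + 512 * S + 2 * (xc + yc) + 4 * ((xc + yc) * S) + 2 * (Z * qq) +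
      4 * (Z * qq * S) + 6 * Z + 12 * (Z * S) ≤ σ / 2 := by
    have e1 : t + β + ϖ + δ = t + S := by rw [← hS]; ring
    rw [e1, eC4] at hsm'
    have hp : 0 ≤ 240 + 2 * (xc + yc) + 2 * Z * qq + 16 + 6 * Z := by positivity
    have h5 := mul_le_mul_of_nonneg_left (by linarith only [l2] : 1 + 2 * S ≤ 2 * (t + S)) hp
    have e2 : (240 + 2 * (xc + yc) + 2 * Z * qq + 16 + 6 * Z) * (1 + 2 * S) =
      256 + 512 * S + 2 * (xc + yc) + 4 * ((xc + yc) * S) + 2 * (Z * qq) +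
      4 * (Z * qq * S) + 6 * Z + 12 * (Z * S) := by ring
    rw [← e2]
    linarith only [h5, hsm']
  have cσ : 24 * (c * σ) + 8 * (Z * (g' * (c * σ))) ≤ σ := by
    have h5 := mul_le_mul_of_nonneg_right hc hσ
    have e1 : 8 * (c * (3 + g' * Z)) * σ = 24 * (c * σ) + 8 * (Z * (g' * (c * σ))) := by ring
    linarith only [h5, e1]
  have c0σ : 0 ≤ c * σ := by positivity
  have cg0 : 0 ≤ Z * (g' * (c * σ)) := by positivity
  have hZq : 0 ≤ Z * qq := by positivity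
  have hZS : 0 ≤ Z * qq * S := by positivity
  have hxS : 0 ≤ (xc + yc) * S := by positivity
  have hZS' : 0 ≤ Z * S := by positivity
  constructor
  · apply fin _ (by positivity)
    rw [eU]
    linarith only [h1, h2, h3, k5000, k20, l2', hD4, cσ, c0σ, cg0, hZq, hZS, hxS, hZS', hβS, S0, Z0,
      XC0, YC0, hσ]
  · intro hj hk'
    apply fin _ (by positivity)
    rw [eT]
    have hGb : G ≤ qq + (3 + q1 + q2 + g') * S + g' * (c * σ) := by
      have a1 : (1 + q0) * Real.log 800 ≤ (1 + q0) * 10 :=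
        mul_le_mul_of_nonneg_left (by linarith only [k800, l2']) (by linarith only [hq0])
      have a2 : (2 + q1 + q2) * (Real.log 2000 + β) ≤ (2 + q1 + q2) * (11 + β) :=
        mul_le_mul_of_nonneg_left (by linarith only [k2000, l2']) (by linarith only [hq1, hq2])
      have a3 : g' * (k * t) ≤ g' * (20 + β + c * σ) :=
        mul_le_mul_of_nonneg_left (by linarith only [h3, l2']) hg
      have a4 : 2 * (ϖ + δ) ≤ (3 + q1 + q2 + g') * (ϖ + δ) :=
        mul_le_mul_of_nonneg_right (by linarith only [hq1, hq2, hg]) (by linarith only [w0, d0])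
      have a5 : (3 + q1 + q2 + g') * S = (2 + q1 + q2) * (11 + β) - (2 + q1 + q2) * 11 + g' * β + β +
          (3 + q1 + q2 + g') * (ϖ + δ) := by
        rw [← hS]; ring
      have a6 : g' * (20 + β + c * σ) = g' * 20 + g' * β + g' * (c * σ) := by ring
      rw [hWz, a5, hqq]
      linarith only [a1, a2, a3, a4, a6, k16, l2', b0, w0, d0, hq0, hq1, hq2, hg]
    have hZG := mul_le_mul_of_nonneg_left hGb Z0
    have e3 : ((j + k' : ℕ) : ℝ) * t ≤ xc + yc + Z * G := by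
      push_cast
      rw [← hZ]
      linarith only [hj, hk']
    have e4 : Z * ((3 + q1 + q2 + g') * S) ≤ Z * (qq * S) := by
      have h7 : 3 + q1 + q2 + g' ≤ qq := by rw [hqq]; linarith only [hq0, hq1, hq2, hg]
      gcongr
    have e5 : Z * (qq + (3 + q1 + q2 + g') * S + g' * (c * σ)) =
        Z * qq + Z * ((3 + q1 + q2 + g') * S) + Z * (g' * (c * σ)) := by ring
    rw [e5] at hZG
    have e6 : Z * (qq * S) = Z * qq * S := by ring
    linarith only [h1, h2, h3, k5000, k15, l2', hD4, cσ, c0σ, cg0, hZq, hZS, hxS, hZS', hβS, S0, Z0,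
      XC0, YC0, hσ, hZG, e3, e4, e6]

end

/-- smallness of the exponent -/
theorem cx_small {K q1 q2 g' : ℝ} (hK : 1 ≤ K) (hq1 : 0 < q1) (hq2 : 0 < q2) (hg : 0 ≤ g')
    (h1 : 10 ^ 6 * K ^ 2 * q2 ≤ q1) (h2 : 10 ^ 6 * K ^ 2 * g' ^ 2 ≤ q1 * q2) (h3 : 64 * g' ≤ q1) :
    8 * (K * Real.sqrt (q2 / q1) * (3 + g' * (XL q1 q2 g' + YL q1 q2 g'))) ≤ 1 := by
  have K0 : 0 < K := by linarith only [hK]
  have hr : 0 ≤ Real.sqrt (q2 / q1) := Real.sqrt_nonneg _
  have hr2 : Real.sqrt (q2 / q1) ^ 2 = q2 / q1 := Real.sq_sqrt (by positivity)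
  obtain ⟨c, hc⟩ : ∃ c, c = K * Real.sqrt (q2 / q1) := ⟨_, rfl⟩
  have hc0 : 0 ≤ c := by rw [hc]; positivity
  have hc2 : c ^ 2 = K ^ 2 * (q2 / q1) := by rw [hc, mul_pow, hr2]
  rw [← hc]
  have c1 : c ≤ 1 / 1000 := by
    have : c ^ 2 ≤ (1 / 1000) ^ 2 := by
      rw [hc2, ← mul_div_assoc, div_le_iff₀ hq1]; linarith only [h1]
    exact (pow_le_pow_iff_left₀ hc0 (by norm_num) (by norm_num)).1 this
  have hgq0 : 0 ≤ g' / q2 := by positivity
  have c2 : c * (g' / q2) ≤ 1 / 1000 := by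
    have : (c * (g' / q2)) ^ 2 ≤ (1 / 1000) ^ 2 := by
      rw [mul_pow, hc2]
      have e1 : K ^ 2 * (q2 / q1) * (g' / q2) ^ 2 = K ^ 2 * g' ^ 2 / (q1 * q2) := by
        field_simp
      rw [e1, div_le_iff₀ (by positivity)]
      linarith only [h2]
    exact (pow_le_pow_iff_left₀ (by positivity) (by norm_num) (by norm_num)).1 this
  have K2 : 1 ≤ K ^ 2 := one_le_pow₀ hK
  have x1 : g' * XL q1 q2 g' ≤ 1 := by
    have e1 : g' * XL q1 q2 g' = 8 * (g' / q1) + 32 * (g' ^ 2 / (q1 * q2)) := by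
      unfold XL; field_simp; ring
    have e2 : g' / q1 ≤ 1 / 64 := by rw [div_le_iff₀ hq1]; linarith only [h3]
    have e3 : g' ^ 2 / (q1 * q2) ≤ 1 / 10 ^ 6 := by
      rw [div_le_iff₀ (by positivity)]
      have : 10 ^ 6 * 1 * g' ^ 2 ≤ 10 ^ 6 * K ^ 2 * g' ^ 2 := by gcongr
      linarith only [h2, this]
    rw [e1]
    linarith only [e2, e3]
  have x0 : 0 ≤ g' * XL q1 q2 g' := mul_nonneg hg (XL_nonneg hq1 hq2 hg)
  have y1 : g' * YL q1 q2 g' ≤ 8 * (g' / q2) + 4 := by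
    have e1 : g' * YL q1 q2 g' = 4 * (g' / q2) + 4 * (g' / q2) * (g' * XL q1 q2 g') +
        4 * (g' * XL q1 q2 g') := by
      unfold YL; field_simp; ring
    rw [e1]
    have e2 : 4 * (g' / q2) * (g' * XL q1 q2 g') ≤ 4 * (g' / q2) * 1 := by gcongr
    linarith only [e2, x1]
  have z : c * (3 + g' * (XL q1 q2 g' + YL q1 q2 g')) ≤ c * (8 + 8 * (g' / q2)) := by
    refine mul_le_mul_of_nonneg_left ?_ hc0
    linarith only [x1, y1]
  linarith only [z, c1, c2]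

/-- the conditions on the rewards, for small `η` -/
theorem eta_small {K η q0 q1 q2 g ε' : ℝ} (hK : 1 ≤ K) (hη : 0 < η) (hη1 : 10 ^ 8 * K ^ 2 * η ≤ 1)
    (hq0 : 0 ≤ q0) (hq0' : q0 ≤ η * q2) (hq2 : 0 < q2) (hq2' : q2 ≤ η * g) (hg : 0 < g)
    (hg' : g ≤ η * q1) (hgq : g ^ 2 ≤ η * (q1 * q2)) (hε : 0 ≤ ε') (hε' : ε' ≤ g) :
    0 < q1 ∧ 2 * q0 ≤ q2 ∧ 8 * q2 ≤ q1 ∧ 0 ≤ g + ε' + q0 ∧ 64 * (g + ε' + q0) ≤ q1 ∧
      64 * (g + ε' + q0) ^ 2 ≤ q1 * q2 ∧
      8 * (K * Real.sqrt (q2 / q1) * (3 + (g + ε' + q0) *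
        (XL q1 q2 (g + ε' + q0) + YL q1 q2 (g + ε' + q0)))) ≤ 1 ∧
      0 ≤ K * Real.sqrt (q2 / q1) := by
  have K2 : 1 ≤ K ^ 2 := one_le_pow₀ hK
  have K0 : 0 < K := by linarith only [hK]
  have q1p : 0 < q1 := by
    by_contra h
    have : η * q1 ≤ 0 := mul_nonpos_of_nonneg_of_nonpos hη.le (by linarith only [h])
    linarith only [this, hg, hg']
  have η8 : 10 ^ 8 * η ≤ 1 := by
    have : 10 ^ 8 * 1 * η ≤ 10 ^ 8 * K ^ 2 * η := by gcongr
    linarith only [this, hη1]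
  have a1 : q0 ≤ 1 / 10 ^ 8 * q2 := by
    have : η * q2 ≤ 1 / 10 ^ 8 * q2 := by gcongr; linarith only [η8]
    linarith only [this, hq0']
  have a2 : q2 ≤ 1 / 10 ^ 8 * g := by
    have : η * g ≤ 1 / 10 ^ 8 * g := by gcongr; linarith only [η8]
    linarith only [this, hq2']
  have a3 : g ≤ 1 / 10 ^ 8 * q1 := by
    have : η * q1 ≤ 1 / 10 ^ 8 * q1 := by gcongr; linarith only [η8]
    linarith only [this, hg']
  have g3 : g + ε' + q0 ≤ 3 * g := by linarith only [a1, a2, hε', hg]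
  have g0 : 0 ≤ g + ε' + q0 := by linarith only [hg, hε, hq0]
  have gg : (g + ε' + q0) ^ 2 ≤ 9 * g ^ 2 := by
    calc (g + ε' + q0) ^ 2 ≤ (3 * g) ^ 2 := by gcongr
      _ = _ := by ring
  have qq : 0 < q1 * q2 := by positivity
  have gk : 10 ^ 6 * K ^ 2 * (g + ε' + q0) ^ 2 ≤ q1 * q2 := by
    calc 10 ^ 6 * K ^ 2 * (g + ε' + q0) ^ 2 ≤ 10 ^ 6 * K ^ 2 * (9 * (η * (q1 * q2))) := by
          have : 9 * g ^ 2 ≤ 9 * (η * (q1 * q2)) := by linarith only [hgq]
          have := gg.trans this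
          gcongr
      _ = 9 / 100 * (10 ^ 8 * K ^ 2 * η) * (q1 * q2) := by ring
      _ ≤ 9 / 100 * 1 * (q1 * q2) := by gcongr
      _ ≤ _ := by linarith only [qq]
  have g64 : 64 * (g + ε' + q0) ≤ q1 := by linarith only [g3, a3, q1p]
  have g642 : 64 * (g + ε' + q0) ^ 2 ≤ q1 * q2 := by
    have : 10 ^ 6 * 1 * (g + ε' + q0) ^ 2 ≤ 10 ^ 6 * K ^ 2 * (g + ε' + q0) ^ 2 := by gcongr
    have h0 : 0 ≤ (g + ε' + q0) ^ 2 := by positivity
    linarith only [this, gk, h0]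
  have kq : 10 ^ 6 * K ^ 2 * q2 ≤ q1 := by
    calc 10 ^ 6 * K ^ 2 * q2 ≤ 10 ^ 6 * K ^ 2 * (η * g) := by gcongr
      _ = 1 / 100 * (10 ^ 8 * K ^ 2 * η) * g := by ring
      _ ≤ 1 / 100 * 1 * g := by gcongr
      _ ≤ q1 := by linarith only [a3, q1p, hg]
  refine ⟨q1p, by linarith only [a1, hq2], by linarith only [a2, a3, hg, q1p], g0, g64, g642,
    cx_small hK q1p hq2 g0 kq gk g64, by positivity⟩

end Crest.Agent.R136.Mdf880
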