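import Mathlib
import Crest.Agent.R136.Mdf4_880

/-!
# R136 (S0187), U5 TILT, `Mid`: composition at one stage (helper880)

* `mid_stage` : zoom possible (`a 2^k ≤ W2`).
* `mid_stage_thin` : thin sheets (`W2 ≤ a 2^k`).
* `exists_zoom` : the zoom exponent `k`.
* `exists_tilts` : popular dyadic tilts.
-/

set_option autoImplicit false
set_option linter.unusedVariables false

namespace Crest.Agent.R136.Mdf880

open Finset Crest.Agent.R136.Sh605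
open Crest.Agent.R136.Tl102 Crest.Agent.R136.Mdr535
open Crest.Agent.R136.Fl808
open Crest.Agent.R136.K4 (Plk4)
open Crest.Agent.R136.Tlt51 (Agree CompC)
open Crest.Agent.R138.Mk163 (zl rho)

/-- conditions on the rewards (`J1`), `c = K √(q2 / q1)` -/
structure RwC (K η q0 q1 q2 g ε' : ℝ) : Prop where
  K1 : 6500 ≤ K
  η0 : 0 < η
  η1 : 10 ^ 8 * K ^ 2 * η ≤ 1
  q0n : 0 ≤ q0
  q0' : q0 ≤ η * q2
  q2p : 0 < q2
  q2' : q2 ≤ η * g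
  gp : 0 < g
  g' : g ≤ η * q1
  gq : g ^ 2 ≤ η * (q1 * q2)
  ε0 : 0 ≤ ε'
  ε1 : ε' ≤ g

/-- the conditions on one object -/
structure ObjC (S S' : Plk4) (K a B W δ0 X c C s lam : ℝ) (k : ℕ) : Prop where
  s0 : 0 < s
  lam1 : 1 ≤ lam
  lamc : lam ≤ s ^ (-c)
  comp : CompC (s ^ (-c)) lam S S'
  a1 : S.a ≤ a
  a2 : S'.a ≤ a
  K0 : K * a ≤ 13 * S.w 0
  aw : a ≤ B * S.w 0
  aw' : a ≤ B * S'.w 0
  X1 : X ≤ 2 ^ 20 * s ^ (-c) * a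
  k1 : 2 ^ k ≤ 2 ^ 20 * B * s ^ (-c)
  small : s * (2 * B * W / δ0) ^ C ≤ 1

/-- elementary consequences -/
theorem ObjC.facts {S S' : Plk4} {K a B W δ0 X c C s lam : ℝ} {k : ℕ}
    (H : ObjC S S' K a B W δ0 X c C s lam k) (hK : 6500 ≤ K) (ha : 0 < a) (hc : 0 ≤ c)
    (hB : 1 ≤ B) (hW : 1 ≤ W) (hδ0 : 0 < δ0) (hδ1 : δ0 ≤ 1) (hC : 0 < C) :
    s ≤ 1 ∧ 1 ≤ s ^ (-c) ∧ s⁻¹ * a ≤ s ^ (-K) * a ∧ 700 * a ≤ K * a ∧ 500 * a ≤ S.w 0 := by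
  have hs := H.s0
  have h1 : 1 ≤ 2 * B * W / δ0 := by
    rw [le_div_iff₀ hδ0]
    have := one_le_mul_of_one_le_of_one_le hB hW
    linarith
  have h2 : 1 ≤ (2 * B * W / δ0) ^ C := Real.one_le_rpow h1 hC.le
  have hs1 : s ≤ 1 := by
    have := mul_le_mul_of_nonneg_left h2 hs.le
    linarith [H.small]
  have h3 : 1 ≤ s ^ (-c) := Real.one_le_rpow_of_pos_of_le_one_of_nonpos hs hs1 (by linarith)
  refine ⟨hs1, h3, ?_, ?_, ?_⟩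
  · have e1 : s⁻¹ = s ^ (-1 : ℝ) := by rw [Real.rpow_neg_one]
    rw [e1]
    have : s ^ (-1 : ℝ) ≤ s ^ (-K) :=
      Real.rpow_le_rpow_of_exponent_ge hs hs1 (by linarith)
    gcongr
  · have := mul_le_mul_of_nonneg_right hK ha.le
    linarith
  · have := mul_le_mul_of_nonneg_right hK ha.le
    linarith [H.K0]

section

variable {α β : Type*} {O P O' Pj P3 P' : Finset (ℕ × ℤ)} {L : ℕ → Ln4} {i k : ℕ}
  {f : ℕ × ℤ → α} {g : ℕ × ℤ → β} {b : α → Plk4} {b' : β → Plk4}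
  {a W1 W2 B X A1 A2 q0 q1 q2 r0 M W δ0 ω1 ω2 gr ε' K η s lam : ℝ} {j k' : ℕ}

/-- **one stage of `Mid`**, thin sheets -/
theorem mid_stage_thin
    (h1 : CSys O L i f (fun l => (b l).c) (fun l => (b l).e) (fun l => (b l).w)
      (fun l => (b l).q) a W1 W2 B X A1)
    (h2 : CSys O L i g (fun l => (b' l).c) (fun l => (b' l).e) (fun l => (b' l).w)
      (fun l => (b' l).q) a W1 W2 B X A2)
    (R : RwC K η q0 q1 q2 gr ε') (ha : 0 < a) (hB : 1 ≤ B) (hW : 1 ≤ W) (hδ0 : 0 < δ0)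
    (hδ1 : δ0 ≤ 1) (hth : W2 ≤ a * 2 ^ k) {o : ℕ × ℤ} (ho : o ∈ O)
    (H : ObjC (b (f o)) (b' (g o)) K a B W δ0 X (K * Real.sqrt (q2 / q1))
      (C4 q0 q1 q2 (gr + ε' + q0)) s lam k) :
    Agree (K * a) (s ^ (-K) * a) s lam (b (f o)) (b' (g o)) (L o.1) (zl i o.2) (rho i) := by
  have hK1 : 1 ≤ K := by linarith [R.K1]
  obtain ⟨q1p, r1, r2, r3, r4, r5, r6, r7⟩ := eta_small hK1 R.η0 R.η1 R.q0n R.q0' R.q2p R.q2' R.gp
    R.g' R.gq R.ε0 R.ε1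
  obtain ⟨f1, f2, f3, f4, f5⟩ := H.facts R.K1 ha r7 hB hW hδ0 hδ1 (C4_pos R.q0n q1p R.q2p r3)
  have hE : (1:ℝ) ≤ 2 ^ 20 * s ^ (-(K * Real.sqrt (q2 / q1))) := by linarith
  have num := (mid_num (j := 0) (k' := 0) R.q0n q1p R.q2p r3 r7 r6 hB hW hδ0 hδ1 H.s0 hE le_rfl H.lam1
    (H.lamc.trans (by linarith)) H.k1 H.small).1
  exact mid_thin h1 h2 ho ha hth hE H.X1 hB H.lam1 H.aw H.aw' H.comp.g H.comp.g' H.a1 H.a2 H.s0 num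
    f5 f4 f3

/-- **one stage of `Mid`** -/
theorem mid_stage
    (h1 : CSys O L i f (fun l => (b l).c) (fun l => (b l).e) (fun l => (b l).w)
      (fun l => (b l).q) a W1 W2 B X A1)
    (h2 : CSys O L i g (fun l => (b' l).c) (fun l => (b' l).e) (fun l => (b' l).w)
      (fun l => (b' l).q) a W1 W2 B X A2) (Z : ZPar a W1 W2 B X k)
    (R : RwC K η q0 q1 q2 gr ε')
    (hPO : ∀ x ∈ P, par k x ∈ O) (hO' : O' ⊆ P)
    -- dyadic tilts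
    (hD : ∀ x ∈ O', Dy (ze P L i k f (fun l => (b l).c) (fun l => (b l).e) (fun l => (b l).w)
        (fun l => (b l).q) W1 W2 (zlab L i k f (fun l => (b l).c) (fun l => (b l).e) W1 W2 x))
      (ze P L i k g (fun l => (b' l).c) (fun l => (b' l).e) (fun l => (b' l).w)
        (fun l => (b' l).q) W1 W2 (zlab L i k g (fun l => (b' l).c) (fun l => (b' l).e) W1 W2 x))
      (800 * a) (2000 * B * (W1 / 2 ^ k)) (2000 * B * (W2 / 2 ^ k)) j k')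
    -- the three deeper levels
    (hPj : Pj.Nonempty) (hPjO : ∀ x ∈ Pj, par j x ∈ O')
    (hP3 : P3.Nonempty) (hP3O : ∀ x ∈ P3, par (k' + j) x ∈ O') (hPP : ∀ x ∈ P3, par j x ∈ P')
    (hdj : DMaxP Pj L (i + k + j) (M * 2 ^ ((gr + ε' + q0 + q1 + q2) * ((k + j : ℕ) : ℝ)))
      q0 q1 q2 r0 ω1 ω2 (2000 * (2000 * B * (W1 / 2 ^ k) / 2 ^ j)) (2000 * (2000 * B * (W2 / 2 ^ k)))
      (2000 * (2 ^ k' * (800 * a))))
    (hd' : DMaxP P' L (i + k + k') (M * 2 ^ ((gr + ε' + q0 + q1 + q2) * ((k + k' : ℕ) : ℝ)))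
      q0 q1 q2 r0 ω1 ω2 (2000 * (2000 * B * (W1 / 2 ^ k) / 2 ^ k')) (2000 * (2000 * B * (W2 / 2 ^ k)))
      (2000 * (2 ^ k' * (800 * a))))
    (hd : DMaxP P3 L (i + k + (k' + j))
      (M * 2 ^ ((gr + ε' + q0 + q1 + q2) * ((k + (k' + j) : ℕ) : ℝ)))
      q0 q1 q2 r0 ω1 ω2 (2000 * (2000 * B * (W1 / 2 ^ k) / 2 ^ (k' + j))) (2000 * (2000 * B * (W2 / 2 ^ k)))
      (2000 * (2 ^ k' * (800 * a))))
    (hcard0 : δ0 * (O.card : ℝ) * 2 ^ k ≤ (O'.card : ℝ))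
    (hcardj : δ0 * (O'.card : ℝ) * 2 ^ j ≤ (Pj.card : ℝ))
    (hcard : δ0 * (O'.card : ℝ) * 2 ^ (k' + j) ≤ (P3.card : ℝ))
    -- numbers
    (hr0 : r0 ≤ a) (hM : 0 < M) (hA1 : 0 < A1) (hA2 : 0 < A2) (hδ0 : 0 < δ0) (hδ1 : δ0 ≤ 1)
    (hW : 1 ≤ W) (hω : ω2 ≤ ω1) (hω20 : 0 ≤ ω2)
    (hω1 : 2 * 2 ^ (k' + j) * ω1 ≤ 2000 * B * (W1 / 2 ^ k))
    (hω2 : 2 * 2 ^ (k' + j) * ω2 ≤ 2000 * B * (W2 / 2 ^ k))
    (hV1 : M * capB q0 q1 q2 a W1 W2 ≤ W * A1) (hV2 : M * capB q0 q1 q2 a W1 W2 ≤ W * A2)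
    {x o : ℕ × ℤ} (hx : x ∈ O') (ho : o = par k x)
    (H : ObjC (b (f o)) (b' (g o)) K a B W δ0 X (K * Real.sqrt (q2 / q1))
      (C4 q0 q1 q2 (gr + ε' + q0)) s lam k) :
    Agree (K * a) (s ^ (-K) * a) s lam (b (f o)) (b' (g o)) (L o.1) (zl i o.2) (rho i) := by
  have hK1 : 1 ≤ K := by linarith [R.K1]
  have ha := Z.ha
  have hB := Z.hB1
  obtain ⟨q1p, r1, r2, r3, r4, r5, r6, r7⟩ := eta_small hK1 R.η0 R.η1 R.q0n R.q0' R.q2p R.q2' R.gp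
    R.g' R.gq R.ε0 R.ε1
  obtain ⟨f1, f2, f3, f4, f5⟩ := H.facts R.K1 ha r7 hB hW hδ0 hδ1 (C4_pos R.q0n q1p R.q2p r3)
  have hE : (1:ℝ) ≤ 2 ^ 20 * s ^ (-(K * Real.sqrt (q2 / q1))) := by linarith
  obtain ⟨tj, tk⟩ := mid_tilts (g' := gr + ε' + q0) h1 h2 Z hPO hO' hD hPj hPjO hP3 hP3O hPP hdj hd' hd hcard0
    hcardj hcard hr0 hM hA1 hA2 hδ0 hδ1 hW hω hω20 hω1 hω2 hV1 hV2 r3 R.q0n R.q2p r1 r2 r4 r5
  have num := (mid_num R.q0n q1p R.q2p r3 r7 r6 hB hW hδ0 hδ1 H.s0 hE le_rfl H.lam1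
    (H.lamc.trans (by linarith)) H.k1 H.small).2 tj tk
  exact mid_agree h1 h2 hPO Z (hO' hx) (hD x hx) ho hE H.X1 H.lam1 H.aw H.aw'
    (H.comp.g' 2 (by decide)) (H.comp.g 2 (by decide)) H.a1 H.a2 H.s0 num f5 f4 f3

end

/-- **the zoom exponent** -/
theorem exists_zoom {a B X s c : ℝ} (ha : 0 < a) (hB : 1 ≤ B) (hs : 0 < s) (hsc : 1 ≤ s ^ (-c))
    (hX : X ≤ 2 ^ 10 * s ^ (-c) * a) :
    ∃ k : ℕ, 20 * B ≤ 2 ^ k ∧ 5 * (B * X) ≤ 2 ^ k * a ∧ 2 ^ k ≤ 2 ^ 20 * B * s ^ (-c) := by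
  obtain ⟨k, h1, h2⟩ := exists_pow (x := 2 ^ 13 * B * s ^ (-c))
  have hBs : 1 ≤ B * s ^ (-c) := one_le_mul_of_one_le_of_one_le hB hsc
  have B0 : 0 < B := by linarith
  have hBB : B ≤ B * s ^ (-c) := le_mul_of_one_le_right B0.le hsc
  refine ⟨k, by linarith, ?_, ?_⟩
  · have h3 : 5 * (B * X) ≤ 5 * (B * (2 ^ 10 * s ^ (-c) * a)) := by gcongr
    have h4 : 2 ^ 13 * B * s ^ (-c) * a ≤ 2 ^ k * a := by gcongr
    have h5 : 0 ≤ B * s ^ (-c) * a := by positivity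
    linarith
  · rcases h2 with h2 | h2
    · rw [h2, pow_zero]; linarith
    · linarith

/-- **a popular pair of labels** -/
theorem exists_tilts {ι : Type*} {P : Finset ι} (T : ι → ℕ → ℕ → Prop) {N : ℕ} (hP : P.Nonempty)
    (h : ∀ x ∈ P, ∃ j k' : ℕ, j < N ∧ k' < N ∧ T x j k') :
    ∃ j k' : ℕ, j < N ∧ k' < N ∧ ∃ O' : Finset ι, O' ⊆ P ∧ O'.Nonempty ∧
      (P.card : ℝ) ≤ (N : ℝ) ^ 2 * (O'.card : ℝ) ∧ ∀ x ∈ O', T x j k' := by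
  classical
  have h' : ∀ x : ι, ∃ p : ℕ × ℕ, x ∈ P → p.1 < N ∧ p.2 < N ∧ T x p.1 p.2 := by
    intro x
    by_cases hx : x ∈ P
    · obtain ⟨j, k', h1, h2, h3⟩ := h x hx
      exact ⟨(j, k'), fun _ => ⟨h1, h2, h3⟩⟩
    · exact ⟨(0, 0), fun h => absurd h hx⟩
  choose φ hφ using h'
  obtain ⟨t, ht⟩ : ∃ t, t = (range N) ×ˢ (range N) := ⟨_, rfl⟩
  have hmap : ∀ x ∈ P, φ x ∈ t := by
    intro x hx
    rw [ht, mem_product, mem_range, mem_range]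
    exact ⟨(hφ x hx).1, (hφ x hx).2.1⟩
  obtain ⟨x0, hx0⟩ := hP
  have htn : t.Nonempty := ⟨_, hmap x0 hx0⟩
  obtain ⟨y, hy, hmax⟩ := exists_max_image t (fun y => (P.filter fun x => φ x = y).card) htn
  have hsum : P.card ≤ t.card * (P.filter fun x => φ x = y).card := by
    rw [card_eq_sum_card_fiberwise hmap]
    exact sum_le_card_nsmul _ _ _ hmax
  have htc : t.card = N ^ 2 := by rw [ht, card_product, card_range]; ring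
  have hO : (P.card : ℝ) ≤ (N : ℝ) ^ 2 * ((P.filter fun x => φ x = y).card : ℝ) := by
    rw [htc] at hsum
    exact_mod_cast hsum
  rw [ht, mem_product, mem_range, mem_range] at hy
  refine ⟨y.1, y.2, hy.1, hy.2, P.filter fun x => φ x = y, filter_subset _ _, ?_, hO, ?_⟩
  · rw [nonempty_iff_ne_empty]
    intro he
    rw [he, card_empty, Nat.cast_zero, mul_zero] at hO
    have : (0:ℝ) < P.card := by exact_mod_cast card_pos.2 ⟨x0, hx0⟩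
    linarith
  · intro x hx
    rw [mem_filter] at hx
    have := (hφ x hx.1).2.2
    rw [hx.2] at this
    exact this

end Crest.Agent.R136.Mdf880
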