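import Crest.Agent.R136.Csj4_535
import Crest.Agent.R136.Csj2_535
import Crest.Agent.R136.Mdf5_880
import Crest.Agent.R136.Dia4_770

/-!
# R136 (S0187), U5 TILT, `MidC`: preparations of the sequence form (helper535)

* `dy_le_of_nr`, `nr_ze` : the dyadic tilts of the planks of a deep object are bounded if the tangent
  planes of the two sheets agree up to a given factor.
* `kapP_le`, `clm_mk4` : marks.
* `wid2`, `full_of_dense`, `zoom_exp` : sequences.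
-/

set_option autoImplicit false
set_option linter.unusedVariables false
set_option linter.unusedSectionVars false

open Finset Filter Topology

namespace Crest.Agent.R136.Csj535

open Crest.Agent.R138.Ex926 Crest.Agent.R138.Dp76
open Crest.Agent.R138.Mk163 (zc zl rho alive own Negl)
open Crest.Agent.R138.MkRef627 (lc kc mem_alive)
open Crest.Agent.R136.MkA627
open Crest.Agent.R136.Sh605 Crest.Agent.R136.K4 Crest.Agent.R136.Top484 Crest.Agent.R136.Tlt51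
open Crest.Agent.R136.KapP335
open Crest.Agent.R136.Dia770 (extO FullO zc_div)
open Crest.Agent.R136.Mdr535
open Crest.Agent.R136.Tl102 (StP kap kap_nonneg)
open Crest.Agent.R136.Fl808 (Dy exists_dy exists_pow const_le le_dpow dpow_le' dpow_exp capB capB_pos
  capB_mono capB_cube lev_pow wid_comp)

/-! ### tilts of planks -/

/-- **dyadic tilts of planks whose frames agree up to `Θ`** -/
theorem dy_le_of_nr {e e' : Fin 3 → V3} {a w1 w2 B Θ : ℝ} {j k' : ℕ} (ha : 0 < a) (haw : a ≤ w2)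
    (hw : w2 ≤ w1) (hB : 1 ≤ B) (hΘ : 1 ≤ Θ) (N : Nr Θ e e' a w1 w2)
    (D : Dy e e' (800 * a) (2000 * B * w1) (2000 * B * w2) j k') :
    (2:ℝ) ^ j ≤ 2 * Θ ∧ (2:ℝ) ^ k' ≤ 5 * (B * Θ) := by
  have hw2 : 0 < w2 := ha.trans_le haw
  have hB0 : 0 < B := by linarith
  have hΘ0 : 0 < Θ := by linarith
  have pj : (0:ℝ) < 2 ^ j := by positivity
  have pj1 : (1:ℝ) ≤ 2 ^ j := one_le_pow₀ (by norm_num)
  have hBΘ : 1 ≤ B * Θ := one_le_mul_of_one_le_of_one_le hB hΘ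
  have aux : ∀ x : ℝ, x * w1 ≤ Θ * w2 → 2 ^ j * (2000 * B * w2) ≤ 2 * (x * (2000 * B * w1)) →
      (2:ℝ) ^ j ≤ 2 * Θ := by
    intro x h1 h2
    have h3 : 2 ^ j * (2000 * B * w2) ≤ (2 * Θ) * (2000 * B * w2) := by
      calc 2 ^ j * (2000 * B * w2) ≤ 2 * (x * (2000 * B * w1)) := h2
        _ = 4000 * B * (x * w1) := by ring
        _ ≤ 4000 * B * (Θ * w2) := by gcongr
        _ = _ := by ring
    exact le_of_mul_le_mul_right h3 (by positivity)
  have aux2 : ∀ x w : ℝ, x * w ≤ Θ * a → 2 ^ k' * (800 * a) ≤ 2 * (x * (2000 * B * w)) →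
      (2:ℝ) ^ k' ≤ 5 * (B * Θ) := by
    intro x w h1 h2
    have h3 : 2 ^ k' * (800 * a) ≤ (5 * (B * Θ)) * (800 * a) := by
      calc 2 ^ k' * (800 * a) ≤ 2 * (x * (2000 * B * w)) := h2
        _ = 4000 * B * (x * w) := by ring
        _ ≤ 4000 * B * (Θ * a) := by gcongr
        _ = _ := by ring
    exact le_of_mul_le_mul_right h3 (by positivity)
  have aux3 : 2 ^ k' * (800 * a) ≤ 2 ^ k' * (2 ^ j * (800 * a)) := by
    have : 0 ≤ (2:ℝ) ^ k' * (800 * a) := by positivity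
    nlinarith
  have aux4 : ∀ y : ℝ, 2 ^ k' * (2 ^ j * (800 * a)) ≤ 2 * (2 ^ j * y) → 2 ^ k' * (800 * a) ≤ 2 * y := by
    intro y h
    have h1 : 2 ^ j * (2 ^ k' * (800 * a)) ≤ 2 ^ j * (2 * y) := by linarith
    exact le_of_mul_le_mul_left h1 pj
  constructor
  · rcases D.blo with h | h | h
    · rw [h, pow_zero]; linarith
    · exact aux _ N.n21 h
    · exact aux _ (N.n01.trans (by gcongr)) h
  · rcases D.tlo with h | h | h | h | h
    · rw [h, pow_zero]; linarith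
    · exact aux2 _ _ N.n10 (aux3.trans h)
    · exact aux2 _ _ N.n20 (aux4 _ h)
    · exact aux2 _ _ N.n01 (aux3.trans h)
    · exact aux2 _ _ N.n02 (aux4 _ h)

section

variable {α β : Type*} {O P : Finset (ℕ × ℤ)} {L : ℕ → Ln4} {i k : ℕ} {f : ℕ × ℤ → α}
  {g : ℕ × ℤ → β} {cf : α → Ln4} {ef : α → Fin 3 → V3} {wf : α → V3} {qf : α → ℝ → V3 → ℝ}
  {cg : β → Ln4} {eg : β → Fin 3 → V3} {wg : β → V3} {qg : β → ℝ → V3 → ℝ}
  {a W1 W2 B X A1 A2 Θ : ℝ}

/-- frames of the planks of a deep object, from the tangent planes along the common line -/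
theorem nr_ze (h1 : CSys O L i f cf ef wf qf a W1 W2 B X A1)
    (h2 : CSys O L i g cg eg wg qg a W1 W2 B X A2) (hP : ∀ x ∈ P, Fl808.par k x ∈ O)
    (Z : ZPar a W1 W2 B X k) (hΘ : 1 ≤ Θ) {x : ℕ × ℤ} (hx : x ∈ P)
    (nr : Nr Θ (pfr (qf (f (Fl808.par k x))) (ef (f (Fl808.par k x))) (wf (f (Fl808.par k x)))
        (L x.1) (zl i (Fl808.par k x).2))
      (pfr (qg (g (Fl808.par k x))) (eg (g (Fl808.par k x))) (wg (g (Fl808.par k x)))
        (L x.1) (zl i (Fl808.par k x).2)) a (wf (f (Fl808.par k x)) 1)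
        (wf (f (Fl808.par k x)) 2)) :
    Nr (10 ^ 15 * (B * Θ)) (ze P L i k f cf ef wf qf W1 W2 (zlab L i k f cf ef W1 W2 x))
      (ze P L i k g cg eg wg qg W1 W2 (zlab L i k g cg eg W1 W2 x)) a (W1 / 2 ^ k)
      (W2 / 2 ^ k) := by
  have hxO := hP x hx
  have pk : (0:ℝ) < 2 ^ k := by positivity
  have pk1 : (1:ℝ) ≤ 2 ^ k := one_le_pow₀ (by norm_num)
  have ha := Z.ha
  have hB := Z.hB1
  have B0 : 0 < B := by linarith
  have Θ0 : 0 < Θ := by linarith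
  have haW : a ≤ W2 / 2 ^ k := by rw [le_div_iff₀ pk]; exact Z.haW
  have hWW : W2 / 2 ^ k ≤ W1 / 2 ^ k := by
    have := Z.hW
    gcongr
  have hW2 : 0 < W2 := lt_of_lt_of_le (mul_pos ha pk) Z.haW
  have o1 : Ortho (ze P L i k f cf ef wf qf W1 W2 (zlab L i k f cf ef W1 W2 x)) :=
    pf_ortho (h1.st _ hxO).ortho _ _
  have o2 : Ortho (ze P L i k g cg eg wg qg W1 W2 (zlab L i k g cg eg W1 W2 x)) :=
    pf_ortho (h2.st _ hxO).ortho _ _
  have o3 := pf_ortho (h1.st _ hxO).ortho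
    (gr (cb0 (qf (f (Fl808.par k x))) (ef (f (Fl808.par k x))) (wf (f (Fl808.par k x)))
        (L x.1) (zl i (Fl808.par k x).2)) (wf (f (Fl808.par k x))) 1)
    (gr (cb0 (qf (f (Fl808.par k x))) (ef (f (Fl808.par k x))) (wf (f (Fl808.par k x)))
        (L x.1) (zl i (Fl808.par k x).2)) (wf (f (Fl808.par k x))) 2)
  have o4 := pf_ortho (h2.st _ hxO).ortho
    (gr (cb0 (qg (g (Fl808.par k x))) (eg (g (Fl808.par k x))) (wg (g (Fl808.par k x)))
        (L x.1) (zl i (Fl808.par k x).2)) (wg (g (Fl808.par k x))) 1)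
    (gr (cb0 (qg (g (Fl808.par k x))) (eg (g (Fl808.par k x))) (wg (g (Fl808.par k x)))
        (L x.1) (zl i (Fl808.par k x).2)) (wg (g (Fl808.par k x))) 2)
  have n1 := h1.near0 hP Z hx
  have n2 := (h2.near0 hP Z hx).symm
  have big : ∀ y W w : ℝ, 0 ≤ y → W ≤ B * w → y * w ≤ Θ * a → y * (W / 2 ^ k) ≤ B * Θ * a := by
    intro y W w hy hW h
    calc y * (W / 2 ^ k) ≤ y * (B * w / 2 ^ k) := by gcongr
      _ = B * (y * w) / 2 ^ k := by ring
      _ ≤ B * (Θ * a) / 2 ^ k := by gcongr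
      _ ≤ B * (Θ * a) := div_le_self (by positivity) pk1
      _ = _ := by ring
  have big2 : ∀ y : ℝ, 0 ≤ y → y * wf (f (Fl808.par k x)) 1 ≤ Θ * wf (f (Fl808.par k x)) 2 →
      y * (W1 / 2 ^ k) ≤ B * Θ * (W2 / 2 ^ k) := by
    intro y hy h
    have e1 := h1.Ww1 _ hxO
    have e2 := h1.wW2 _ hxO
    calc y * (W1 / 2 ^ k) ≤ y * (B * wf (f (Fl808.par k x)) 1 / 2 ^ k) := by gcongr
      _ = B * (y * wf (f (Fl808.par k x)) 1) / 2 ^ k := by ring
      _ ≤ B * (Θ * wf (f (Fl808.par k x)) 2) / 2 ^ k := by gcongr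
      _ ≤ B * (Θ * W2) / 2 ^ k := by gcongr
      _ = _ := by ring
  have n3 : Nr (B * Θ) (pfr (qf (f (Fl808.par k x))) (ef (f (Fl808.par k x)))
        (wf (f (Fl808.par k x))) (L x.1) (zl i (Fl808.par k x).2))
      (pfr (qg (g (Fl808.par k x))) (eg (g (Fl808.par k x))) (wg (g (Fl808.par k x)))
        (L x.1) (zl i (Fl808.par k x).2)) a (W1 / 2 ^ k) (W2 / 2 ^ k) :=
    ⟨big _ _ _ (abs_nonneg _) (h1.Ww1 _ hxO) nr.n01, big _ _ _ (abs_nonneg _) (h1.Ww2 _ hxO) nr.n02,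
      big _ _ _ (abs_nonneg _) (h1.Ww1 _ hxO) nr.n10, big _ _ _ (abs_nonneg _) (h1.Ww2 _ hxO) nr.n20,
      big2 _ (abs_nonneg _) nr.n12, big2 _ (abs_nonneg _) nr.n21⟩
  have hBΘ : 1 ≤ B * Θ := one_le_mul_of_one_le_of_one_le hB hΘ
  have n4 := (n1.trans n3 o1 o3 o4 ha haW hWW (by norm_num) hBΘ).trans n2
    o1 o4 o2 ha haW hWW (by linarith) (by norm_num)
  exact n4.mono (by linarith) ha.le (ha.le.trans haW)

end

/-! ### marks -/

/-- curvature extent and vertical width -/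
theorem kapP_le {S : Plk4} {z0 ρ r0 : ℝ} {T : Ln4} (hS : ShN S.e S.c S.w S.q S.a z0 ρ r0)
    (h0 : 0 < S.w 0) (hρ : 0 < ρ) (hT : InSheet T S.e S.c S.w S.q S.a z0 ρ) :
    kapP S z0 ρ T ≤ 13 * S.w 0 := by
  have hE := expP_spec (S := S) hS.isQ h0.ne' z0 ρ T
  have N := hE.nrmC (StP.of_shN hS h0) hρ.le fun z hz hz' => (hT z hz hz').1
  have := Tl102.kap_le N
  unfold kapP
  nlinarith

/-- the clamped label of an object is its mark -/
theorem clm_mk4 (D : Dat4) (n : ℕ) {u v : ℚ} (h : D.lev n u ≤ D.lev n v) (x : ℕ × ℝ) :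
    D.b n u (clm (D.f n u) (D.lev n u) (D.lev n v) (lc (D.lev n v) x)).2 = mk4 D n u x := by
  unfold mk4 clm lc
  simp only
  rw [← zc_div h]

/-! ### sequences -/

/-- **crude tilt of the tangent planes** : at the common line, over the common cell, the tangent planes
of the marks of two levels agree up to a power of `d` (input of `MidC`) -/
def CrudeN (D : Dat4) : Prop :=
  ∀ b c : ℚ, 0 ≤ b → b ≤ 1 → 0 ≤ c → c ≤ 1 → b ≠ c → ∃ C : ℝ, 0 ≤ C ∧ Negl D.B D.I fun n x =>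
    ¬ Nr (D.B.d n ^ (-C))
      (pfr (mk4 D n b x).q (mk4 D n b x).e (mk4 D n b x).w (D.L n x.1) (zx D n (max b c) x))
      (pfr (mk4 D n c x).q (mk4 D n c x).e (mk4 D n c x).w (D.L n x.1) (zx D n (max b c) x))
      ((mk4 D n b x).a + (mk4 D n c x).a) ((mk4 D n b x).w 1) ((mk4 D n b x).w 2)

/-- comparable widths of two levels in any order -/
theorem wid2 {B : Base} {I : ℕ → Finset (ℕ × ℝ)} {G : Geo Plk4 (Fin 3)} {lev : ℕ → ℚ → ℕ}
    {A : ℕ → ℝ} {g : ℝ} {θ : Fin 3 → ℝ} {f : ℕ → ℚ → ℕ → ℤ → ℕ} {b : ℕ → ℚ → ℕ → Plk4}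
    {vm : ℕ → ℚ → ℝ} {w : Fin 3 → ℕ → ℚ → ℝ} (h : Fl808.MkF B I G lev A g θ f b vm w)
    (j : Fin 3) {Cw : ℝ} (hC : |θ j| + 1 ≤ Cw) {u v : ℚ} (hu : 0 ≤ u) (hu1 : u ≤ 1) (hv : 0 ≤ v)
    (hv1 : v ≤ 1) {ε : ℝ} (hε : 0 < ε) : ∀ᶠ n in (U : Filter ℕ),
      w j n u ≤ B.d n ^ (-(Cw * |(u:ℝ) - v|) - ε) * w j n v := by
  have key : ∀ u v : ℚ, 0 ≤ u → u ≤ v → v ≤ 1 → ∀ᶠ n in (U : Filter ℕ),
      w j n u ≤ B.d n ^ (-(Cw * |(u:ℝ) - v|) - ε) * w j n v ∧
      w j n v ≤ B.d n ^ (-(Cw * |(u:ℝ) - v|) - ε) * w j n u := by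
    intro u v hu huv hv
    have huv' : (u:ℝ) ≤ v := by exact_mod_cast huv
    have e1 : |(u:ℝ) - v| = (v:ℝ) - u := by rw [abs_of_nonpos (by linarith)]; ring
    filter_upwards [wid_comp h j hu huv hv hε, h.wpos j u hu (huv.trans hv),
      h.wpos j v (hu.trans huv) hv] with n h1 p1 p2
    have h2 : B.d n ^ (-((|θ j| + 1) * ((v:ℝ) - u)) - ε) ≤
        B.d n ^ (-(Cw * |(u:ℝ) - v|) - ε) := by
      apply dpow_le
      rw [e1]
      have := mul_le_mul_of_nonneg_right hC (sub_nonneg.2 huv')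
      linarith
    exact ⟨h1.1.trans (mul_le_mul_of_nonneg_right h2 p2.le),
      h1.2.trans (mul_le_mul_of_nonneg_right h2 p1.le)⟩
  rcases le_total u v with huv | huv
  · filter_upwards [key u v hu huv hv1] with n h1
    exact h1.1
  · filter_upwards [key v u hv huv hu1] with n h1
    rw [abs_sub_comm]
    exact h1.2

/-- full shading of a dense part of `J1` -/
theorem full_of_dense {η : ℝ} {p : Par4} {D : Dat4} (h : J1 η p D) {J : ℕ → Finset (ℕ × ℝ)}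
    (hJ : Dense D.B J D.I) :
    ∃ J' : ℕ → Finset (ℕ × ℝ), (∀ n, J' n ⊆ J n) ∧ Dense D.B J' J ∧
      FullO D.B J' (fun n => D.lev n 0) (fun n => D.lev n 1) := by
  refine Dia770.full_own D.B (I := D.I) (t := ((1 : ℚ) : ℝ) - ((0 : ℚ) : ℝ))
    (h.mka.lev_mono 0 1 le_rfl zero_le_one le_rfl) (h.mka.lev_lim 0 1 le_rfl zero_le_one le_rfl)
    h.mka.one ?_ hJ
  intro ε hε
  filter_upwards [h.mka.own 0 1 le_rfl zero_le_one le_rfl (ε / 2) (by linarith),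
    lev_pow h.mka (u := 0) (v := 1) le_rfl zero_le_one le_rfl (by linarith : 0 < ε / 2)]
    with n h1 h2 x hx
  have h3 := (h1 x hx).1
  refine le_trans ?_ h3
  have hd := dpow_pos D.B n ε
  calc D.B.d n ^ ε * 2 ^ (D.lev n 1 - D.lev n 0) ≤
      D.B.d n ^ ε * D.B.d n ^ (-(((1:ℚ):ℝ) - ((0:ℚ):ℝ)) - ε / 2) := by
        gcongr
        exact h2.2.1
    _ = D.B.d n ^ (-(((1:ℚ):ℝ) - ((0:ℚ):ℝ)) + ε / 2) := by
        rw [← dpow_add]; congr 1; ring
    _ ≤ _ := by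
        apply dpow_le
        simp

/-- the zoom exponent, with a sharper constant -/
theorem zoom_exp {a B X s c : ℝ} (ha : 0 < a) (hB : 1 ≤ B) (hsc : 1 ≤ s ^ (-c))
    (hX : X ≤ 2 ^ 10 * s ^ (-c) * a) :
    ∃ k : ℕ, 20 * B ≤ 2 ^ k ∧ 5 * (B * X) ≤ 2 ^ k * a ∧ 2 ^ k ≤ 2 ^ 14 * B * s ^ (-c) := by
  obtain ⟨k, h1, h2⟩ := exists_pow (x := 2 ^ 13 * B * s ^ (-c))
  have hBs : 1 ≤ B * s ^ (-c) := one_le_mul_of_one_le_of_one_le hB hsc
  have B0 : 0 < B := by linarith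
  have hBB : B ≤ B * s ^ (-c) := le_mul_of_one_le_right B0.le hsc
  refine ⟨k, by linarith, ?_, ?_⟩
  · have h3 : 5 * (B * X) ≤ 5 * (B * (2 ^ 10 * s ^ (-c) * a)) := by gcongr
    have h4 : 2 ^ 13 * B * s ^ (-c) * a ≤ 2 ^ k * a := by gcongr
    have h5 : 0 ≤ B * s ^ (-c) * a := by positivity
    linarith
  · rcases h2 with h2 | h2
    · rw [h2, pow_zero]; linarith
    · linarith

end Crest.Agent.R136.Csj535
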