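import Crest.Agent.R136.Fm9_808

/-!
# R136 (S0187): flat tilt from a crude tilt (helper808)

* `qfl`, `shN_flat`, `inSheet_flat` : flat boxes are sheets; `GeoT`, `deepW_of` : deep D-max of sheets
  gives deep D-max of flat boxes;
* `dy_of_crude` : a crude tilt (six entries with the loss `d^(-C)`) bounds the dyadic tilts;
* `tilt_crude` : crude tilt ⊢ flat tilt, tests only at bounded exponents.
-/

set_option autoImplicit false
set_option linter.unusedVariables false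
set_option linter.unusedSectionVars false

namespace Crest.Agent.R136.Fl808

open Finset Filter Topology Crest.Agent.R136.Sh605
open Crest.Agent.R138.Ex926 (Base U)
open Crest.Agent.R138.Dp76 (Dense dpow_pos dpow_add dpow_le dpow_le_one)
open Crest.Agent.R138.Mk163 (zc zl rho alive own Negl)
open Crest.Agent.R138.MkRef627 (lc mem_alive card_class alive_mono)
open Crest.Agent.R136.K4 (Plk4)
open Crest.Agent.R136.MkA627
open Crest.Agent.R136.Dia770 (extO DeepP extO_anc)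

/-! ### flat boxes as test sheets -/

/-- the affine function of a flat box -/
def qfl (n : Fin 3 → V3) (l : Ln4) : ℝ → V3 → ℝ := fun z x => dt (n 0) (x - l.pos z)

theorem isQ_qfl (n : Fin 3 → V3) (l : Ln4) : IsQ (qfl n l) := by
  refine ⟨-dt (n 0) l.p, -dt (n 0) l.v, 0, n 0, 0, fun _ _ => 0, fun z x => ?_⟩
  simp only [qfl, dt, Ln4.pos, Pi.sub_apply, Fin.sum_univ_three, Pi.zero_apply]
  ring

theorem qfl_step (n : Fin 3 → V3) (l : Ln4) (z : ℝ) (x y : V3) (τ : ℝ) :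
    qfl n l z (x + τ • y) - qfl n l z x = τ * dt (n 0) y := by
  simp only [qfl, dt, Ln4.pos, Pi.sub_apply, Pi.add_apply, Pi.smul_apply, smul_eq_mul]
  ring

theorem shN_flat {n : Fin 3 → V3} (hn : Ortho n) (l : Ln4) {a w1 w2 z0 ρ r0 : ℝ} (hr : r0 ≤ a)
    (ha : 0 < a) (haw : a ≤ w2) (hw : w2 ≤ w1) :
    ShN n l ![w2, w1, w2] (qfl n l) a z0 ρ r0 := by
  have p2 : 0 < w2 := ha.trans_le haw
  have p1 : 0 < w1 := p2.trans_le hw
  refine ShN0.toN ⟨hn, isQ_qfl n l, by simp, by simpa using haw, by simpa using hw, hr, ?_, ?_, ?_⟩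
  · intro z _ _ x τ hτ _ _
    rw [qfl_step, hn 0 0, if_pos rfl]
    constructor <;> linarith
  · intro z _ _ x τ hτ _ _
    have : dt (n 0) (n 1) = 0 := by rw [hn 0 1]; simp
    rw [qfl_step, this, mul_zero, abs_zero]
    simp only [Matrix.cons_val_zero, Matrix.cons_val_one, Matrix.cons_val]
    positivity
  · intro z _ _ x τ hτ _ _
    have : dt (n 0) (n 2) = 0 := by rw [hn 0 2]; simp
    rw [qfl_step, this, mul_zero, abs_zero]
    exact hτ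

theorem inSheet_flat {t l : Ln4} {n : Fin 3 → V3} {a w1 w2 z0 ρ : ℝ} (haw : a ≤ w2)
    (h : InB t l n ![a, w1, w2] z0 ρ) : InSheet t n l ![w2, w1, w2] (qfl n l) a z0 ρ := by
  intro z h0 h1
  have h2 := h z h0 h1
  refine ⟨fun i => ?_, ?_⟩
  · have h3 := h2 i
    fin_cases i
    · simp only [Fin.zero_eta, Matrix.cons_val_zero] at h3 ⊢; linarith
    · simpa using h3
    · simpa using h3
  · have h3 := h2 0
    simpa [qfl] using h3

/-- flat boxes in the given range of widths are test sheets -/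
def GeoT (G : Geo Plk4 (Fin 3)) (L : ℕ → ℕ → Ln4) (r0 : ℕ → ℝ) (q : Fin 3 → ℝ)
    (ω1 ω2 κ0 κ1 κ2 : ℕ → ℝ) : Prop :=
  ∀ (n i : ℕ) (J : ℤ) (e : Fin 3 → V3) (l : Ln4) (a w1 w2 : ℝ), Ortho e → r0 n ≤ a → a ≤ w2 →
    w2 ≤ w1 → ω1 n ≤ w1 → ω2 n ≤ w2 → w1 ≤ rho i → w1 ≤ κ1 n → w2 ≤ κ2 n → a ≤ κ0 n →
      ∃ s : Plk4, G.adm n i J s ∧
      (∀ t, InB (L n t) l e ![a, w1, w2] (zl i J) (rho i) → G.mem n i J s t) ∧
      G.val n i J s = capB (q 0) (q 1) (q 2) a w1 w2 * rho i ^ (-(q 0 + q 1 + q 2))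

open Classical in
/-- D-max at the levels `m n` of the class `Ad`, all but a `d^γ`-part of the deep objects
(`DeepP`: all `m`; `DeepPB`: bounded relative depth) -/
def DeepG {σ κ : Type*} (B : Base) (I : ℕ → Finset (ℕ × ℝ)) (G : Geo σ κ) (lev : ℕ → ℚ → ℕ)
    (A : ℕ → ℝ) (g : ℝ) (r0 : ℕ → ℝ) (Ad : (ℕ → ℕ) → Prop) (v : ℚ) : Prop :=
  ∀ m : ℕ → ℕ, (∀ᶠ n in (U : Filter ℕ), lev n v ≤ m n) →
    (∀ᶠ n in (U : Filter ℕ), r0 n ≤ rho (m n)) → Ad m →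
    ∀ J : ℕ → Finset (ℕ × ℝ), Dense B J I → ∀ ε : ℝ, 0 < ε →
      ∃ P : ℕ → Finset (ℕ × ℤ), (∀ n, P n ⊆ extO (J n) (lev n 1) (m n)) ∧
        (∃ γ : ℝ, 0 < γ ∧ ∀ᶠ n in (U : Filter ℕ), ((extO (J n) (lev n 1) (m n)).card : ℝ) ≤
          (P n).card + B.d n ^ γ * (extO (J n) (lev n 1) (m n)).card) ∧
        ∀ᶠ n in (U : Filter ℕ), ∀ (j : ℤ) (s : σ), G.adm n (m n) j s →
          (((P n).filter fun o => o.2 = j ∧ G.mem n (m n) j s o.1).card : ℝ) ≤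
            B.d n ^ (-ε) * (A n * B.d n ^ (-(g * v))) *
              2 ^ ((g + ε) * ((m n : ℝ) - lev n v)) * G.val n (m n) j s

theorem deepG_of {σ κ : Type*} {B : Base} {I : ℕ → Finset (ℕ × ℝ)} {G : Geo σ κ}
    {lev : ℕ → ℚ → ℕ} {A : ℕ → ℝ} {g : ℝ} {r0 : ℕ → ℝ} (h : DeepP B I G lev A g r0)
    (Ad : (ℕ → ℕ) → Prop) {v : ℚ} (h0 : 0 ≤ v) (h1 : v ≤ 1) :
    DeepG B I G lev A g r0 Ad v :=
  fun m hm hr _ J hJ ε hε => h v h0 h1 m hm hr J hJ ε hε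

section

variable {B : Base} {I : ℕ → Finset (ℕ × ℝ)} {G : Geo Plk4 (Fin 3)} {lev : ℕ → ℚ → ℕ}
    {A : ℕ → ℝ} {g : ℝ} {L : ℕ → ℕ → Ln4} {r0 r1 : ℕ → ℝ} {q : Fin 3 → ℝ}
    {ω1 ω2 κ0 κ1 κ2 : ℕ → ℝ} {Ad : (ℕ → ℕ) → Prop}

open Classical in
/-- **D-max at arbitrary depth, box form, from sheets** (`r1` = resolution of the boxes) -/
theorem deepW_of {v : ℚ} (hD : DeepG B I G lev A g r0 Ad v) (hr01 : ∀ n, r0 n ≤ r1 n)
    (hT : GeoT G L r1 q ω1 ω2 κ0 κ1 κ2) : DeepW B I L lev A g r1 q ω1 ω2 κ0 κ1 κ2 Ad v := by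
  intro m hm hr hA J hJ ε hε
  obtain ⟨P, hP, hc, hd⟩ := hD m hm (hr.mono fun n hn => (hr01 n).trans hn) hA J hJ ε hε
  refine ⟨P, hP, hc, ?_⟩
  filter_upwards [hd] with n hn c e l a w1 w2 he ha haw hw ho1 ho2 hR hR2 hRa
  obtain ⟨s, hs1, hs2, hs3⟩ := hT n (m n) c e l a w1 w2 he ha haw hw ho1 ho2
    (hR.trans (min_le_left _ _)) (hR.trans (min_le_right _ _)) hR2 hRa
  have h2 := hn c s hs1
  rw [hs3] at h2
  refine le_trans ?_ (h2.trans (le_of_eq (by ring)))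
  refine Nat.cast_le.2 (card_le_card_of_injOn (fun t => (t, c)) ?_ ?_)
  · intro t ht
    rw [mem_coe, Finset.mem_filter, Finset.mem_image] at ht
    obtain ⟨⟨x, hx, rfl⟩, hb⟩ := ht
    rw [mem_filter] at hx
    rw [mem_coe, mem_filter]
    have hxe : (x.1, c) = x := Prod.ext rfl hx.2.symm
    refine ⟨?_, rfl, hs2 _ hb⟩
    show (x.1, c) ∈ P n
    rw [hxe]; exact hx.1
  · intro a _ b _ hab
    exact congrArg Prod.fst hab

end

theorem rw_of {η g : ℝ} {q : Fin 3 → ℝ} (hη : η ≤ 1 / 1000) (h0 : 0 ≤ q 0) (h0' : q 0 ≤ η * q 2)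
    (h2 : 0 < q 2) (h2' : q 2 ≤ η * g) (hg : 0 < g) (hg' : g ≤ η * q 1)
    (hgq : g ^ 2 ≤ η * (q 1 * q 2)) : Rw q g := by
  have hη0 : 0 < η := by
    by_contra hc
    have h3 : η * g ≤ 0 := mul_nonpos_of_nonpos_of_nonneg (not_lt.1 hc) hg.le
    linarith
  have e1 : q 0 ≤ 1 / 1000 * q 2 := h0'.trans (by gcongr)
  have e2 : q 2 ≤ 1 / 1000 * g := h2'.trans (by gcongr)
  have hq1 : 0 < q 1 := by
    by_contra hc
    have h3 : η * q 1 ≤ 0 := mul_nonpos_of_nonneg_of_nonpos hη0.le (not_lt.1 hc)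
    linarith
  have e3 : g ≤ 1 / 1000 * q 1 := hg'.trans (by gcongr)
  refine ⟨hg, h0, h2, by linarith, by linarith, by linarith, ?_⟩
  have e4 : 2 * g + q 0 ≤ 3 * g := by linarith
  have e5 : (2 * g + q 0) ^ 2 ≤ (3 * g) ^ 2 := pow_le_pow_left₀ (by linarith) e4 2
  have e6 : g ^ 2 ≤ 1 / 1000 * (q 1 * q 2) := hgq.trans (by gcongr)
  have e7 : (3 * g) ^ 2 = 9 * g ^ 2 := by ring
  have : 0 < q 1 * q 2 := by positivity
  linarith

/-! ### crude tilt -/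

/-- the six entries at the loss `X` -/
def SixM (lev : ℕ → ℚ → ℕ) (f : ℕ → ℚ → ℕ → ℤ → ℕ) (b : ℕ → ℚ → ℕ → Plk4)
    (w : Fin 3 → ℕ → ℚ → ℝ) (X : ℝ) (n : ℕ) (u v : ℚ) (x : ℕ × ℝ) : Prop :=
  Six (frm lev f b n u x) (frm lev f b n v x)
    (max (w 2 n u / w 1 n u) (w 2 n v / w 1 n v) * X)
    (max (w 0 n u / w 2 n u) (w 0 n v / w 2 n v) * X)
    (max (w 0 n u / w 1 n u) (w 0 n v / w 1 n v) * X)

/-- numbers: the dyadic tilts from the six entries -/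
theorem dy_le {e e' : Fin 3 → V3} {a W1 W2 au w1u w2u av w1v w2v E X : ℝ} {j k : ℕ}
    (H : Dy e e' a W1 W2 j k)
    (hS : Six e e' (max (w2u / w1u) (w2v / w1v) * X) (max (au / w2u) (av / w2v) * X)
      (max (au / w1u) (av / w1v) * X))
    (hau : 0 < au) (hw2u : 0 < w2u) (hw1u : 0 < w1u) (hav : 0 < av) (hav2 : av ≤ w2v)
    (hw : w2v ≤ w1v) (hE : 1 ≤ E) (hX : 1 ≤ X)
    (ea : au ≤ E * av) (e1' : w1v ≤ E * w1u) (e2 : w2u ≤ E * w2v) (e2' : w2v ≤ E * w2u)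
    (h1 : W1 ≤ 200 * E * w1v) (h2 : W2 ≤ 200 * E * w2v) (h2' : w2v ≤ W2) (ha' : av ≤ a)
    (hW1 : 0 ≤ W1) : (2:ℝ) ^ j ≤ 400 * E ^ 3 * X ∧ (2:ℝ) ^ k ≤ 400 * E ^ 3 * X := by
  have hw2v : 0 < w2v := hav.trans_le hav2
  have hw1v : 0 < w1v := hw2v.trans_le hw
  have hE0 : 0 < E := by linarith
  have hX0 : 0 < X := by linarith
  have ha : 0 < a := hav.trans_le ha'
  have hE2 : (1:ℝ) ≤ E ^ 2 := one_le_pow₀ hE
  have hE3 : (1:ℝ) ≤ E ^ 3 := one_le_pow₀ hE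
  -- ratios
  have rat : ∀ {y z y' z' : ℝ}, 0 < z → 0 < z' → 0 ≤ y' → y ≤ E * y' → z' ≤ E * z →
      max (y / z) (y' / z') ≤ E ^ 2 * (y' / z') := by
    intro y z y' z' hz hz' hy' hy hzz
    refine max_le ?_ ?_
    · rw [← mul_div_assoc, div_le_div_iff₀ hz hz']
      calc y * z' ≤ (E * y') * (E * z) := by
            by_cases hy0 : 0 ≤ y
            · exact mul_le_mul hy hzz hz'.le (by positivity)
            · have : y * z' ≤ 0 := mul_nonpos_of_nonpos_of_nonneg (not_le.1 hy0).le hz'.le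
              have : 0 ≤ (E * y') * (E * z) := by positivity
              linarith
        _ = E ^ 2 * y' * z := by ring
    · exact le_mul_of_one_le_left (by positivity) hE2
  have r21 := rat hw1u hw1v hw2v.le e2 e1'
  have r02 := rat hw2u hw2v hav.le ea e2'
  have r01 := rat hw1u hw1v hav.le ea e1'
  have hone : (1:ℝ) ≤ 400 * E ^ 3 * X := by
    calc (1:ℝ) = 1 * 1 * 1 := by ring
      _ ≤ 400 * E ^ 3 * X := by gcongr; norm_num
  have pj : (0:ℝ) < 2 ^ j := by positivity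
  have pk : (0:ℝ) < 2 ^ k := by positivity
  have pj1 : (1:ℝ) ≤ 2 ^ j := one_le_pow₀ (by norm_num)
  -- entries times widths
  have t21 : ∀ x : ℝ, |x| ≤ max (w2u / w1u) (w2v / w1v) * X → |x| * W1 ≤ 200 * E ^ 3 * X * w2v := by
    intro x hx
    calc |x| * W1 ≤ (E ^ 2 * (w2v / w1v) * X) * (200 * E * w1v) := by
          refine mul_le_mul (hx.trans ?_) h1 hW1 (by positivity)
          gcongr
      _ = _ := by field_simp
  have t01 : ∀ x : ℝ, |x| ≤ max (au / w1u) (av / w1v) * X → |x| * W1 ≤ 200 * E ^ 3 * X * av := by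
    intro x hx
    calc |x| * W1 ≤ (E ^ 2 * (av / w1v) * X) * (200 * E * w1v) := by
          refine mul_le_mul (hx.trans ?_) h1 hW1 (by positivity)
          gcongr
      _ = _ := by field_simp
  have t02 : ∀ x : ℝ, |x| ≤ max (au / w2u) (av / w2v) * X → |x| * W2 ≤ 200 * E ^ 3 * X * av := by
    intro x hx
    calc |x| * W2 ≤ (E ^ 2 * (av / w2v) * X) * (200 * E * w2v) := by
          refine mul_le_mul (hx.trans ?_) h2 (hw2v.le.trans h2') (by positivity)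
          gcongr
      _ = _ := by field_simp
  have hY : 0 < E ^ 3 * X := by positivity
  constructor
  · -- base tilt
    rcases H.blo with h | h | h
    · rw [h, pow_zero]; exact hone
    · have h3 := t21 _ hS.1.1
      rw [dt_comm] at h3
      have h4 : 2 ^ j * w2v ≤ (400 * E ^ 3 * X) * w2v := by
        calc 2 ^ j * w2v ≤ 2 ^ j * W2 := by gcongr
          _ ≤ 2 * (|dt (e' 2) (e 1)| * W1) := h
          _ ≤ 2 * (200 * E ^ 3 * X * w2v) := by gcongr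
          _ = _ := by ring
      exact le_of_mul_le_mul_right h4 hw2v
    · have h3 := t01 _ hS.2.2.2
      rw [dt_comm] at h3
      have h4 : 2 ^ j * w2v ≤ (400 * E ^ 3 * X) * w2v := by
        calc 2 ^ j * w2v ≤ 2 ^ j * W2 := by gcongr
          _ ≤ 2 * (|dt (e' 0) (e 1)| * W1) := h
          _ ≤ 2 * (200 * E ^ 3 * X * av) := by gcongr
          _ ≤ 2 * (200 * E ^ 3 * X * w2v) := by gcongr
          _ = _ := by ring
      exact le_of_mul_le_mul_right h4 hw2v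
  · -- thickness tilt
    have fin : ∀ y : ℝ, y ≤ 200 * E ^ 3 * X * av → 2 ^ k * a ≤ 2 * y →
        (2:ℝ) ^ k ≤ 400 * E ^ 3 * X := by
      intro y h3 h4
      have h5 : 2 ^ k * av ≤ (400 * E ^ 3 * X) * av := by
        calc 2 ^ k * av ≤ 2 ^ k * a := by gcongr
          _ ≤ 2 * y := h4
          _ ≤ 2 * (200 * E ^ 3 * X * av) := by gcongr
          _ = _ := by ring
      exact le_of_mul_le_mul_right h5 hav
    have ka : 2 ^ k * a ≤ 2 ^ k * (2 ^ j * a) :=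
      mul_le_mul_of_nonneg_left (le_mul_of_one_le_left ha.le pj1) pk.le
    have cancel : ∀ y : ℝ, 2 ^ k * (2 ^ j * a) ≤ 2 * (2 ^ j * y) → 2 ^ k * a ≤ 2 * y := by
      intro y h3
      have h4 : 2 ^ j * (2 ^ k * a) ≤ 2 ^ j * (2 * y) := by
        calc 2 ^ j * (2 ^ k * a) = 2 ^ k * (2 ^ j * a) := by ring
          _ ≤ 2 * (2 ^ j * y) := h3
          _ = _ := by ring
      exact le_of_mul_le_mul_left h4 pj
    rcases H.tlo with h | h | h | h | h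
    · rw [h, pow_zero]; exact hone
    · have h3 := t01 _ hS.2.2.1
      rw [dt_comm] at h3
      exact fin _ h3 (ka.trans h)
    · have h3 := t02 _ hS.2.1.1
      rw [dt_comm] at h3
      exact fin _ h3 (cancel _ h)
    · have h3 := t01 _ hS.2.2.2
      rw [dt_comm] at h3
      exact fin _ h3 (ka.trans h)
    · have h3 := t02 _ hS.2.1.2
      rw [dt_comm] at h3
      exact fin _ h3 (cancel _ h)

open Classical in
theorem exists_good' {B : Base} {I J : ℕ → Finset (ℕ × ℝ)} {P : ℕ → ℕ × ℝ → Prop}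
    (h : Negl B I P) (hJ : Dense B J I) (hne : ∀ᶠ n in (U : Filter ℕ), (I n).Nonempty) :
    ∀ᶠ n in (U : Filter ℕ), ∃ x ∈ J n, ¬ P n x := by
  obtain ⟨η, hη, h1⟩ := h
  filter_upwards [h1, hJ.1, hJ.2 (η / 2) (by linarith), hne, const_le B 2 (by linarith : 0 < η / 2)]
    with n h1 h2 h3 h4 h5
  by_contra hc
  have hc' : ∀ x ∈ J n, P n x := fun x hx => by
    by_contra h
    exact hc ⟨x, hx, h⟩
  have h6 : J n ⊆ (I n).filter (P n) := fun x hx => mem_filter.2 ⟨h2 hx, hc' x hx⟩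
  have h7 : ((J n).card : ℝ) ≤ B.d n ^ η * ((I n).card : ℝ) :=
    le_trans (Nat.cast_le.2 (card_le_card h6)) h1
  have hI : 0 < ((I n).card : ℝ) := by exact_mod_cast card_pos.2 h4
  have h8 := h3.trans h7
  have h9 : B.d n ^ (η / 2) ≤ B.d n ^ η := le_of_mul_le_mul_right h8 hI
  have d1 := dpow_pos B n (η / 2)
  have e1 : B.d n ^ η = B.d n ^ (η / 2) * B.d n ^ (η / 2) := by rw [← dpow_add]; congr 1; ring
  have e2 : B.d n ^ (-(η / 2)) * B.d n ^ (η / 2) = 1 := by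
    rw [← dpow_add, neg_add_cancel, Real.rpow_zero]
  have h10 : 2 * B.d n ^ (η / 2) ≤ 1 := by
    calc 2 * B.d n ^ (η / 2) ≤ B.d n ^ (-(η / 2)) * B.d n ^ (η / 2) := by gcongr
      _ = 1 := e2
  rw [e1] at h9
  nlinarith

/-- a dense part meets the complement of a negligible part -/
theorem exists_good {B : Base} {I J : ℕ → Finset (ℕ × ℝ)} {P : ℕ → ℕ × ℝ → Prop}
    (h : Negl B I fun n x => ¬ P n x) (hJ : Dense B J I)
    (hne : ∀ᶠ n in (U : Filter ℕ), (I n).Nonempty) :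
    ∀ᶠ n in (U : Filter ℕ), ∃ x ∈ J n, P n x := by
  filter_upwards [exists_good' h hJ hne] with n hn
  obtain ⟨x, hx, h1⟩ := hn
  exact ⟨x, hx, not_not.1 h1⟩

section

variable {B : Base} {I I0 : ℕ → Finset (ℕ × ℝ)} {G : Geo Plk4 (Fin 3)} {lev : ℕ → ℚ → ℕ}
    {A : ℕ → ℝ} {g : ℝ} {θ : Fin 3 → ℝ} {f : ℕ → ℚ → ℕ → ℤ → ℕ} {b : ℕ → ℚ → ℕ → Plk4}
    {vm : ℕ → ℚ → ℝ} {w : Fin 3 → ℕ → ℚ → ℝ} {L : ℕ → ℕ → Ln4} {r0 : ℕ → ℝ} {q : Fin 3 → ℝ}
    {ω1 ω2 κ0 κ1 κ2 : ℕ → ℝ}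

/-- **crude tilt bounds the dyadic tilts** -/
theorem dy_of_crude (h : MkF B I G lev A g θ f b vm w) (hG : GeoOk G L r0 q)
    (hr0 : ∀ n, 0 < r0 n) {u v : ℚ} (hu : 0 ≤ u) (huv : u ≤ v) (hv : v ≤ 1) {C : ℝ}
    (hC : Negl B I fun n x => ¬ SixM lev f b w (B.d n ^ (-C)) n u v x) {J : ℕ → Finset (ℕ × ℝ)}
    {j k : ℕ → ℕ} (hJ : Dense B J I)
    (hD : ∀ᶠ n in (U : Filter ℕ), ∀ x ∈ J n, DyA lev f b w n u v x (j n) (k n)) :
    ∃ C' : ℝ, 0 ≤ C' ∧ ∀ᶠ n in (U : Filter ℕ), (2:ℝ) ^ (k n + j n) ≤ B.d n ^ (-C') := by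
  have hvu : (0:ℝ) ≤ (v:ℝ) - u := by
    have : (u:ℝ) ≤ v := by exact_mod_cast huv
    linarith
  have hT := mul_nonneg (cTh_nonneg θ) hvu
  refine ⟨1 + 6 * (cTh θ * ((v:ℝ) - u) + 1) + 2 * |C|, by positivity, ?_⟩
  filter_upwards [exists_good hC hJ h.ne, hD, comp_ev h hu huv hv one_pos,
    dAW h hG hr0 hu huv hv one_pos, dims h hG hr0 hu (huv.trans hv), dims h hG hr0 (hu.trans huv) hv,
    const_le B 160000 one_pos] with n hx hD hc a1 a4 a5 hk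
  obtain ⟨x, hx, hS⟩ := hx
  obtain ⟨b1, b2, b3, b4, b5, b6, b7, b8, b9⟩ := a1
  obtain ⟨du0, du1, du2, du3, -⟩ := a4
  obtain ⟨dv0, dv1, dv2, dv3, -⟩ := a5
  have hr := hr0 n
  have pu0 : 0 < w 0 n u := hr.trans_le du0
  have pu2 : 0 < w 2 n u := pu0.trans_le du1
  have pu1 : 0 < w 1 n u := pu2.trans_le du2
  have pv0 : 0 < w 0 n v := hr.trans_le dv0
  have hE : 1 ≤ B.d n ^ (-(cTh θ * ((v:ℝ) - u)) - 1) := one_le_dpow B n (by linarith)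
  have hX : 1 ≤ B.d n ^ (-|C|) := one_le_dpow B n (by have := abs_nonneg C; linarith)
  have hCX : B.d n ^ (-C) ≤ B.d n ^ (-|C|) := dpow_le B n (by have := le_abs_self C; linarith)
  have hS' : Six (frm lev f b n u x) (frm lev f b n v x)
      (max (w 2 n u / w 1 n u) (w 2 n v / w 1 n v) * B.d n ^ (-|C|))
      (max (w 0 n u / w 2 n u) (w 0 n v / w 2 n v) * B.d n ^ (-|C|))
      (max (w 0 n u / w 1 n u) (w 0 n v / w 1 n v) * B.d n ^ (-|C|)) := by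
    refine Six.mono hS ?_ ?_ ?_ <;> refine mul_le_mul_of_nonneg_left hCX ?_
    · exact (by positivity : 0 ≤ w 2 n u / w 1 n u).trans (le_max_left _ _)
    · exact (by positivity : 0 ≤ w 0 n u / w 2 n u).trans (le_max_left _ _)
    · exact (by positivity : 0 ≤ w 0 n u / w 1 n u).trans (le_max_left _ _)
  have hav : w 0 n v ≤ dA w n u v := aC_v pv0
  obtain ⟨k1, k2⟩ := dy_le (hD x hx) hS' pu0 pu2 pu1 pv0 dv1 dv2 hE hX (hc 0).1 (hc 1).2 (hc 2).1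
    (hc 2).2 b5 b6 b8 hav (by linarith [pv0])
  have hEp : 0 < B.d n ^ (-(cTh θ * ((v:ℝ) - u)) - 1) := by linarith
  have hXp : 0 < B.d n ^ (-|C|) := by linarith
  have e3 : (B.d n ^ (-(cTh θ * ((v:ℝ) - u)) - 1)) ^ 6 =
      B.d n ^ (-(6 * (cTh θ * ((v:ℝ) - u) + 1))) := by
    rw [← Real.rpow_natCast, ← Real.rpow_mul (B.pos n).le]
    congr 1; push_cast; ring
  have e4 : (B.d n ^ (-|C|)) ^ 2 = B.d n ^ (-(2 * |C|)) := by
    rw [← Real.rpow_natCast, ← Real.rpow_mul (B.pos n).le]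
    congr 1; push_cast; ring
  calc (2:ℝ) ^ (k n + j n) = 2 ^ k n * 2 ^ j n := pow_add _ _ _
    _ ≤ (400 * (B.d n ^ (-(cTh θ * ((v:ℝ) - u)) - 1)) ^ 3 * B.d n ^ (-|C|)) *
        (400 * (B.d n ^ (-(cTh θ * ((v:ℝ) - u)) - 1)) ^ 3 * B.d n ^ (-|C|)) := by gcongr
    _ = 160000 * ((B.d n ^ (-(cTh θ * ((v:ℝ) - u)) - 1)) ^ 6 * (B.d n ^ (-|C|)) ^ 2) := by ring
    _ ≤ B.d n ^ (-(1:ℝ)) * ((B.d n ^ (-(cTh θ * ((v:ℝ) - u)) - 1)) ^ 6 * (B.d n ^ (-|C|)) ^ 2) := by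
        gcongr
    _ = B.d n ^ (-(1 + 6 * (cTh θ * ((v:ℝ) - u) + 1) + 2 * |C|)) := by
        rw [e3, e4, ← dpow_add, ← dpow_add]; congr 1; ring

/-- bounded relative depth -/
def AdB (B : Base) (lev : ℕ → ℚ → ℕ) (m : ℕ → ℕ) : Prop :=
  ∃ C : ℝ, ∀ᶠ n in (U : Filter ℕ), (m n : ℝ) ≤ lev n 1 + C * B.L n

/-- **crude tilt ⊢ flat tilt** -/
theorem tilt_crude (h : MkF B I G lev A g θ f b vm w) (hG : GeoOk G L r0 q) (hr0 : ∀ n, 0 < r0 n)
    (hlog : ∀ ε : ℝ, 0 < ε → ∀ᶠ n in (U : Filter ℕ), Real.log (1 / r0 n) ≤ B.d n ^ (-ε))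
    (hF : FlatE I lev f b)
    (hW : ∀ v : ℚ, 0 ≤ v → v ≤ 1 → DeepW B I L lev A g r0 q ω1 ω2 κ0 κ1 κ2 (AdB B lev) v)
    (hω : ∀ᶠ n in (U : Filter ℕ), ω2 n ≤ ω1 n) (hω0 : ∀ᶠ n in (U : Filter ℕ), 0 ≤ ω2 n)
    (hlo : ∀ (C : ℝ) (v : ℚ), 0 ≤ v → v ≤ 1 → ∀ᶠ n in (U : Filter ℕ),
      ω1 n ≤ B.d n ^ C * w 1 n v ∧ ω2 n ≤ B.d n ^ C * w 2 n v)
    (hup : ∀ (C : ℝ) (v : ℚ), 0 ≤ v → v ≤ 1 → ∀ᶠ n in (U : Filter ℕ),
      w 0 n v ≤ B.d n ^ C * κ0 n ∧ w 1 n v ≤ B.d n ^ C * κ1 n ∧ w 2 n v ≤ B.d n ^ C * κ2 n)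
    (hcr : ∀ u v : ℚ, 0 ≤ u → u < v → v ≤ 1 → ∃ C : ℝ,
      Negl B I fun n x => ¬ SixM lev f b w (B.d n ^ (-C)) n u v x) (hR : Rw q g) :
    ∃ C : ℝ, 0 ≤ C ∧ ∀ u v : ℚ, 0 ≤ u → u < v → v ≤ 1 → ∀ ε : ℝ, 0 < ε →
      Negl B I fun n x => ¬ SixM lev f b w (B.d n ^ (-(C * ((v:ℝ)-u)) - ε)) n u v x := by
  refine tilt_core h hG hr0 hlog hF hW (fun C v h0 h1 => (hup C v h0 h1).mono fun n hn => hn.2) hω
    hω0 ?_ hR
  intro u v hu huv hv J j k hJ hD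
  obtain ⟨C, hC⟩ := hcr u v hu huv hv
  obtain ⟨C', hC'0, hC'⟩ := dy_of_crude h hG hr0 hu huv.le hv hC hJ hD
  have hv0 : 0 ≤ v := hu.trans huv.le
  have hvu : (0:ℝ) ≤ (v:ℝ) - u := by
    have : (u:ℝ) ≤ v := by exact_mod_cast huv.le
    linarith
  -- depth
  have had : ∀ t : ℕ → ℕ, (∀ n, t n ≤ k n + j n) → AdB B lev fun n => lev n v + t n := by
    intro t ht
    refine ⟨2 * C', ?_⟩
    filter_upwards [hC', h.lev_mono v 1 hv0 hv le_rfl] with n hn hl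
    have h1 : (2:ℝ) ^ t n ≤ B.d n ^ (-C') :=
      (pow_le_pow_right₀ (by norm_num) (ht n)).trans hn
    have h2 := Real.log_le_log (by positivity) h1
    rw [Real.log_pow, dpow_exp, Real.log_exp] at h2
    have h3 : (1:ℝ) / 2 ≤ Real.log 2 := by
      have := Real.log_two_gt_d9
      linarith
    have h4 : (t n : ℝ) * (1 / 2) ≤ (t n : ℝ) * Real.log 2 := by gcongr
    have h5 : (lev n v : ℝ) ≤ lev n 1 := by exact_mod_cast hl
    push_cast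
    linarith
  refine ⟨⟨had _ fun n => by omega, had _ fun n => by omega, had _ fun n => le_rfl⟩, ?_, ?_⟩
  · filter_upwards [hC', hlo (C' + 1) v hv0 hv, h.wpos 1 v hv0 hv, h.wpos 2 v hv0 hv,
      const_le B 2 one_pos] with n h1 h2 p1 p2 h3
    have key : ∀ ω x : ℝ, 0 < x → ω ≤ B.d n ^ (C' + 1) * x → 2 * 2 ^ (k n + j n) * ω ≤ x := by
      intro ω x hx hωx
      have d0 := dpow_pos B n (C' + 1)
      have e1 : B.d n ^ (-C') * B.d n ^ (C' + 1) = B.d n ^ (1:ℝ) := by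
        rw [← dpow_add]; congr 1; ring
      have e2 : B.d n ^ (-(1:ℝ)) * B.d n ^ (1:ℝ) = 1 := by
        rw [← dpow_add, neg_add_cancel, Real.rpow_zero]
      have d1 := dpow_pos B n (1:ℝ)
      calc 2 * 2 ^ (k n + j n) * ω ≤ 2 * 2 ^ (k n + j n) * (B.d n ^ (C' + 1) * x) := by gcongr
        _ ≤ 2 * B.d n ^ (-C') * (B.d n ^ (C' + 1) * x) := by gcongr
        _ = 2 * (B.d n ^ (-C') * B.d n ^ (C' + 1)) * x := by ring
        _ = 2 * B.d n ^ (1:ℝ) * x := by rw [e1]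
        _ ≤ B.d n ^ (-(1:ℝ)) * B.d n ^ (1:ℝ) * x := by gcongr
        _ = x := by rw [e2, one_mul]
    exact ⟨key _ _ p1 h2.1, key _ _ p2 h2.2⟩
  · filter_upwards [hC', dAW h hG hr0 hu huv.le hv one_pos,
      hup (C' + cTh θ * ((v:ℝ) - u) + 2) v hv0 hv, h.wpos 0 v hv0 hv, const_le B 80000 one_pos]
      with n h1 a1 h2 p0 h3
    obtain ⟨b1, b2, b3, b4, -⟩ := a1
    have hr := hr0 n
    have hk : (2:ℝ) ^ k n ≤ B.d n ^ (-C') :=
      (pow_le_pow_right₀ (by norm_num) (by omega)).trans h1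
    have d0 := dpow_pos B n (C' + cTh θ * ((v:ℝ) - u) + 2)
    have d1 := dpow_pos B n (-C')
    have d2 := dpow_pos B n (-(cTh θ * ((v:ℝ) - u)) - 1)
    have d3 := dpow_pos B n (1:ℝ)
    have hκp : 0 < κ0 n := by
      by_contra hc
      have := mul_nonpos_of_nonneg_of_nonpos d0.le (not_lt.1 hc)
      linarith [h2.1]
    have e1 : B.d n ^ (-C') * B.d n ^ (-(cTh θ * ((v:ℝ) - u)) - 1) *
        B.d n ^ (C' + cTh θ * ((v:ℝ) - u) + 2) = B.d n ^ (1:ℝ) := by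
      rw [← dpow_add, ← dpow_add]; congr 1; ring
    have e2 : B.d n ^ (-(1:ℝ)) * B.d n ^ (1:ℝ) = 1 := by
      rw [← dpow_add, neg_add_cancel, Real.rpow_zero]
    have hdA : 0 ≤ dA w n u v := by linarith
    calc 2000 * (2 ^ k n * dA w n u v) ≤ 2000 * (B.d n ^ (-C') *
          (40 * B.d n ^ (-(cTh θ * ((v:ℝ) - u)) - 1) * w 0 n v)) := by gcongr
      _ ≤ 2000 * (B.d n ^ (-C') * (40 * B.d n ^ (-(cTh θ * ((v:ℝ) - u)) - 1) *
          (B.d n ^ (C' + cTh θ * ((v:ℝ) - u) + 2) * κ0 n))) := by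
          gcongr
          exact h2.1
      _ = 80000 * (B.d n ^ (-C') * B.d n ^ (-(cTh θ * ((v:ℝ) - u)) - 1) *
          B.d n ^ (C' + cTh θ * ((v:ℝ) - u) + 2)) * κ0 n := by ring
      _ = 80000 * B.d n ^ (1:ℝ) * κ0 n := by rw [e1]
      _ ≤ B.d n ^ (-(1:ℝ)) * B.d n ^ (1:ℝ) * κ0 n := by gcongr
      _ = κ0 n := by rw [e2, one_mul]

end

end Crest.Agent.R136.Fl808
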