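import Crest.Agent.R136.Csj6_535
import Crest.Agent.R136.Fn1_808

/-!
# R136 (S0187), U5 TILT, `MidC`: widths of a pair of levels and the deep D-max (helper535)
-/

set_option autoImplicit false
set_option linter.unusedVariables false
set_option linter.unusedSectionVars false

open Finset Filter Topology

namespace Crest.Agent.R136.Csj535

open Crest.Agent.R138.Ex926 Crest.Agent.R138.Dp76
open Crest.Agent.R138.Mk163 (zc zl rho alive own Negl)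
open Crest.Agent.R138.MkRef627 (lc kc mem_alive)
open Crest.Agent.R136.MkA627
open Crest.Agent.R136.Sh605 Crest.Agent.R136.K4 Crest.Agent.R136.Top484 Crest.Agent.R136.Tlt51
open Crest.Agent.R136.KapP335
open Crest.Agent.R136.Dia770 (extO FullO zc_div)
open Crest.Agent.R136.Mdr535
open Crest.Agent.R136.Mdf880
open Crest.Agent.R136.Fl808 (Dy exists_dy exists_pow const_le le_dpow dpow_le' dpow_exp capB capB_pos
  capB_mono capB_cube lev_pow wid_comp capB_scale GeoOk dims val_eq shN_flat inSheet_flat qfl rho_add)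

/-- flat boxes are sheets of `geo4` -/
theorem flatG4 (L : ℕ → ℕ → Ln4) {r0 : ℕ → ℝ} (hr0 : ∀ n, 0 < r0 n) (wr cr : Fin 3 → ℕ → ℝ)
    (q : Fin 3 → ℝ) : FlatG (geo4 L r0 wr cr q) L (fun n => max (r0 n) (wr 0 n))
      (fun n => max (wr 1 n) (max (wr 2 n) 0)) (fun n => max (wr 2 n) 0) (cr 1) (cr 2) (cr 0) q := by
  refine ⟨fun n i J e l a w1 w2 he pa ha haw hw hR ho1 ho2 hR1 hR2 hRa => ?_⟩
  have hr : r0 n ≤ a := (le_max_left _ _).trans ha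
  have hr' : wr 0 n ≤ a := (le_max_right _ _).trans ha
  have p2 : 0 < w2 := pa.trans_le haw
  have p1 : 0 < w1 := p2.trans_le hw
  refine ⟨⟨J, e, l, ![w2, w1, w2], qfl e l, a⟩, ⟨shN_flat he l hr pa haw hw, by simpa using hR, ?_⟩,
    ?_, fun t ht => inSheet_flat haw ht⟩
  · intro k
    fin_cases k
    · simpa using ⟨hr', hRa⟩
    · simpa using ⟨(le_max_left _ _).trans ho1, hR1⟩
    · simpa using ⟨(le_max_left _ _).trans ho2, hR2⟩
  · have := val_eq (q0 := q 0) (q1 := q 1) (q2 := q 2) pa p1 p2 (rho_pos' i)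
    refine le_of_eq ?_
    simpa [geo4] using this

theorem geoOk4 (L : ℕ → ℕ → Ln4) (r0 : ℕ → ℝ) (wr cr : Fin 3 → ℕ → ℝ) (q : Fin 3 → ℝ) :
    GeoOk (geo4 L r0 wr cr q) L r0 q :=
  ⟨fun _ _ _ _ _ h => h, fun n i J s h => ⟨h.1, h.2.1⟩, fun _ _ _ _ => rfl, fun _ _ => rfl⟩

/-! ### the numbers of a pair of levels -/

/-- thickness of the pair -/
def aP (D : Dat4) (b c : ℚ) (n : ℕ) : ℝ := D.w 0 n b + D.w 0 n c

/-- wide width of the pair -/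
noncomputable def wP1 (D : Dat4) (b c : ℚ) (n : ℕ) : ℝ := max (D.w 1 n b) (D.w 1 n c)

/-- narrow width of the pair -/
noncomputable def wP2 (D : Dat4) (b c : ℚ) (n : ℕ) : ℝ := max (D.w 2 n b) (D.w 2 n c)

/-- resolution -/
noncomputable def ϱP (D : Dat4) (n : ℕ) : ℝ := max (D.r0 n) (D.wr 0 n)

noncomputable def ωP1 (D : Dat4) (n : ℕ) : ℝ := max (D.wr 1 n) (max (D.wr 2 n) 0)

noncomputable def ωP2 (D : Dat4) (n : ℕ) : ℝ := max (D.wr 2 n) 0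

/-- constant of the deep D-max -/
noncomputable def MP (p : Par4) (D : Dat4) (v : ℚ) (φ : ℝ) (n : ℕ) : ℝ :=
  D.B.d n ^ (-φ) * (D.A n * D.B.d n ^ (-(p.g * v)) * rho (D.lev n v) ^ (-(p.q 0 + p.q 1 + p.q 2)))

/-- facts on the widths of the pair of levels -/
structure WidP (p : Par4) (D : Dat4) (b c : ℚ) (β : ℝ) (n : ℕ) : Prop where
  pb : 0 < D.w 0 n b
  pc : 0 < D.w 0 n c
  rb : D.r0 n ≤ D.w 0 n b
  rc : D.r0 n ≤ D.w 0 n c
  ab : aP D b c n ≤ D.B.d n ^ (-β) * D.w 0 n b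
  ac : aP D b c n ≤ D.B.d n ^ (-β) * D.w 0 n c
  b1 : D.w 1 n b ≤ wP1 D b c n
  b1' : wP1 D b c n ≤ D.B.d n ^ (-β) * D.w 1 n b
  c1 : D.w 1 n c ≤ wP1 D b c n
  c1' : wP1 D b c n ≤ D.B.d n ^ (-β) * D.w 1 n c
  b2 : D.w 2 n b ≤ wP2 D b c n
  b2' : wP2 D b c n ≤ D.B.d n ^ (-β) * D.w 2 n b
  c2 : D.w 2 n c ≤ wP2 D b c n
  c2' : wP2 D b c n ≤ D.B.d n ^ (-β) * D.w 2 n c
  b21 : D.w 2 n b ≤ D.w 1 n b
  c21 : D.w 2 n c ≤ D.w 1 n c
  b02 : D.w 0 n b ≤ D.w 2 n b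
  c02 : D.w 0 n c ≤ D.w 2 n c
  W21 : wP2 D b c n ≤ wP1 D b c n
  W1ρ : wP1 D b c n ≤ D.B.d n ^ (-β) * rho (D.lev n (max b c))
  vb : D.vm n b = capB (p.q 0) (p.q 1) (p.q 2) (D.w 0 n b) (D.w 1 n b) (D.w 2 n b) *
    rho (D.lev n b) ^ (-(p.q 0 + p.q 1 + p.q 2))
  vc : D.vm n c = capB (p.q 0) (p.q 1) (p.q 2) (D.w 0 n c) (D.w 1 n c) (D.w 2 n c) *
    rho (D.lev n c) ^ (-(p.q 0 + p.q 1 + p.q 2))
  B1 : 1 ≤ D.B.d n ^ (-β)

theorem WidP.a0 {p : Par4} {D : Dat4} {b c : ℚ} {β : ℝ} {n : ℕ} (h : WidP p D b c β n) :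
    0 < aP D b c n := add_pos h.pb h.pc

theorem widP {η : ℝ} {p : Par4} {D : Dat4} (h : J1 η p D) {b c : ℚ} (hb0 : 0 ≤ b)
    (hb1 : b ≤ 1) (hc0 : 0 ≤ c) (hc1 : c ≤ 1) {Cw ε β : ℝ} (hε : 0 < ε) (hCw : 0 ≤ Cw)
    (hCj : ∀ j, |p.θ j| + 1 ≤ Cw) (hβ : β = Cw * |(b:ℝ) - c| + 2 * ε) :
    ∀ᶠ n in (U : Filter ℕ), WidP p D b c β n := by
  filter_upwards [comp2 h hb0 hb1 hc0 hc1 hε hCj,
    dims h.mka (geoOk4 D.L D.r0 D.wr D.cr p.q) h.r0pos hb0 hb1,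
    dims h.mka (geoOk4 D.L D.r0 D.wr D.cr p.q) h.r0pos hc0 hc1,
    const_le D.B 2 hε] with n kk db dc h2
  obtain ⟨rb, b02, b21, b1ρ, vb⟩ := db
  obtain ⟨rc, c02, c21, c1ρ, vc⟩ := dc
  have pb := (h.r0pos n).trans_le rb
  have pc := (h.r0pos n).trans_le rc
  obtain ⟨Bn, hBn⟩ : ∃ Bn, Bn = D.B.d n ^ (-β) := ⟨_, rfl⟩
  obtain ⟨y, hy⟩ : ∃ y, y = D.B.d n ^ (-(Cw * |(b:ℝ) - c|) - ε) := ⟨_, rfl⟩
  have hδ := mul_nonneg hCw (abs_nonneg ((b:ℝ) - c))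
  have hx1 : 1 ≤ y := by
    rw [hy]
    have := dpow_le D.B n (show -(Cw * |(b:ℝ) - c|) - ε ≤ 0 by linarith)
    rwa [Real.rpow_zero] at this
  have hx2 : y * 2 ≤ Bn := by
    have e1 : Bn = y * D.B.d n ^ (-ε) := by
      rw [hBn, hy, ← dpow_add]; congr 1; rw [hβ]; ring
    rw [e1]
    gcongr
  rw [← hy] at kk
  obtain ⟨aw, aw', ⟨r1, r1', r3, r3'⟩, r2, r2', r4, r4'⟩ :=
    pair_num hx1 hx2 pb pc (pb.trans_le (b02.trans b21)) (pc.trans_le (c02.trans c21))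
      (pb.trans_le b02) (pc.trans_le c02) (kk 0) (kk 1) (kk 2)
  have hB1 : 1 ≤ Bn := by linarith
  have hW1ρ : max (D.w 1 n b) (D.w 1 n c) ≤ Bn * rho (D.lev n (max b c)) := by
    have hB0 : 0 ≤ Bn := by linarith
    rcases le_total b c with hbc | hbc
    · rw [max_eq_right hbc]
      exact r3'.trans (mul_le_mul_of_nonneg_left c1ρ hB0)
    · rw [max_eq_left hbc]
      exact r1'.trans (mul_le_mul_of_nonneg_left b1ρ hB0)
  rw [hBn] at *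
  exact ⟨pb, pc, rb, rc, aw, aw', r1, r1', r3, r3', r2, r2', r4, r4', b21, c21, b02, c02,
    max_le_max b21 c21, hW1ρ, vb, vc, hB1⟩

/-- value of the constant of a deep level -/
theorem deep_const {d κ ε1 Q : ℝ} (hd : 0 < d) (hd1 : d ≤ 1) (hκ : 0 ≤ κ) (hQ : 0 ≤ Q)
    (h17 : 17 ≤ d ^ (-ε1)) :
    (16 * d ^ (-κ) * d ^ (-κ) + 1) ^ 6 * (8 * d ^ (-κ)) ^ (3 + Q) * d ^ (-ε1) ≤
      d ^ (-(12 * κ + 7 * ε1 + (κ + ε1) * (3 + Q))) := by
  have k1 : 1 ≤ d ^ (-κ) := Real.one_le_rpow_of_pos_of_le_one_of_nonpos hd hd1 (by linarith)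
  have k0 : 0 < d ^ (-κ) := by linarith
  have e0 : 0 < d ^ (-ε1) := by linarith
  have h1 : (16 * d ^ (-κ) * d ^ (-κ) + 1) ^ 6 ≤ d ^ (-(12 * κ + 6 * ε1)) := by
    have e1 : 16 * d ^ (-κ) * d ^ (-κ) + 1 ≤ d ^ (-ε1) * (d ^ (-κ) * d ^ (-κ)) := by
      have h2 : 1 ≤ d ^ (-κ) * d ^ (-κ) := one_le_mul_of_one_le_of_one_le k1 k1
      have h3 : 17 * (d ^ (-κ) * d ^ (-κ)) ≤ d ^ (-ε1) * (d ^ (-κ) * d ^ (-κ)) := by gcongr
      linarith
    have e2 : d ^ (-(12 * κ + 6 * ε1)) = (d ^ (-ε1) * (d ^ (-κ) * d ^ (-κ))) ^ 6 := by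
      rw [← Real.rpow_add hd, ← Real.rpow_add hd, ← Real.rpow_natCast, ← Real.rpow_mul hd.le]
      congr 1; push_cast; ring
    rw [e2]
    gcongr
  have h2 : (8 * d ^ (-κ)) ^ (3 + Q) ≤ d ^ (-((κ + ε1) * (3 + Q))) := by
    have e1 : 8 * d ^ (-κ) ≤ d ^ (-(κ + ε1)) := by
      have : d ^ (-(κ + ε1)) = d ^ (-ε1) * d ^ (-κ) := by
        rw [← Real.rpow_add hd]; congr 1; ring
      rw [this]
      exact mul_le_mul_of_nonneg_right (by linarith) k0.le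
    have e2 : d ^ (-((κ + ε1) * (3 + Q))) = (d ^ (-(κ + ε1))) ^ (3 + Q) := by
      rw [← Real.rpow_mul hd.le]; congr 1; ring
    rw [e2]
    exact Real.rpow_le_rpow (by positivity) e1 (by linarith)
  have e3 : d ^ (-(12 * κ + 7 * ε1 + (κ + ε1) * (3 + Q))) =
      d ^ (-(12 * κ + 6 * ε1)) * d ^ (-((κ + ε1) * (3 + Q))) * d ^ (-ε1) := by
    rw [← Real.rpow_add hd, ← Real.rpow_add hd]; congr 1; ring
  rw [e3]
  have := Real.rpow_pos_of_pos hd (-(12 * κ + 6 * ε1))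
  gcongr

/-- **the deep D-max at the level `lev n (max b c) + t n`** -/
theorem deep_lev {η : ℝ} {p : Par4} {D : Dat4} (h : J1 η p D)
    (hdeep : Dia770.DeepP D.B D.I (D.G p) D.lev D.A p.g D.r0) {J : ℕ → Finset (ℕ × ℝ)}
    (hJ : Dense D.B J D.I) (hJI : ∀ n, J n ⊆ D.I n)
    (hfull : FullO D.B J (fun n => D.lev n 0) (fun n => D.lev n 1)) {b c : ℚ} (hb0 : 0 ≤ b)
    (hb1 : b ≤ 1) (hc0 : 0 ≤ c) (hc1 : c ≤ 1) {ε1 β κ' C3 : ℝ} (hε1 : 0 < ε1) (hε1g : ε1 ≤ p.g)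
    (hβ : 0 ≤ β) (hκ : κ' = 2 * β + ε1) (hC3 : 0 ≤ C3)
    (hw : ∀ᶠ n in (U : Filter ℕ), WidP p D b c β n) {t : ℕ → ℕ}
    (ht : ∀ᶠ n in (U : Filter ℕ), 2 ^ t n * aP D b c n ≤ 20 * (D.B.d n ^ (-β) * wP1 D b c n))
    (ht' : ∀ᶠ n in (U : Filter ℕ), (2:ℝ) ^ t n ≤ D.B.d n ^ (-C3)) :
    ∃ P : ℕ → Finset (ℕ × ℤ), (∀ n, P n ⊆ extO (J n) (D.lev n 1) (D.lev n (max b c) + t n)) ∧
      (∃ γ : ℝ, 0 < γ ∧ ∀ᶠ n in (U : Filter ℕ),
        ((extO (J n) (D.lev n 1) (D.lev n (max b c) + t n)).card : ℝ) ≤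
          (P n).card + D.B.d n ^ γ * (extO (J n) (D.lev n 1) (D.lev n (max b c) + t n)).card) ∧
      ∀ᶠ n in (U : Filter ℕ), ∀ R0 R2 Ra : ℝ, 0 ≤ R0 →
        R0 * 2 ^ t n ≤ 4 * 10 ^ 6 * (D.B.d n ^ (-β) * wP1 D b c n) →
        R2 ≤ 4 * 10 ^ 6 * (D.B.d n ^ (-β) * wP2 D b c n) →
        Ra ≤ 16 * 10 ^ 5 * (D.B.d n ^ (-C3) * aP D b c n) →
        DP (P n) (D.L n) (D.lev n (max b c) + t n)
          (MP p D (max b c) (12 * κ' + 7 * ε1 + (κ' + ε1) * (3 + (p.q 0 + p.q 1 + p.q 2))) n *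
            2 ^ ((p.g + p.g + p.q 0 + p.q 1 + p.q 2) * (t n : ℝ)))
          (p.q 0) (p.q 1) (p.q 2) (ϱP D n) (ωP1 D n) (ωP2 D n) R0 R2 Ra := by
  have hv0 : 0 ≤ max b c := hb0.trans (le_max_left _ _)
  have hv1 : max b c ≤ 1 := max_le hb1 hc1
  have hq : ∀ k, 0 ≤ p.q k := by
    intro k
    fin_cases k
    · exact h.q0.1
    · exact h.g0.2.le
    · exact h.q2.1.le
  have hκ0 : 0 ≤ κ' := by rw [hκ]; linarith
  have hdv := dims h.mka (geoOk4 D.L D.r0 D.wr D.cr p.q) h.r0pos hv0 hv1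
  have hone : ∀ᶠ n in (U : Filter ℕ), ∀ x ∈ J n, ∀ y ∈ J n, x.1 = y.1 →
      zc (D.lev n 1) x.2 = zc (D.lev n 1) y.2 → x = y := by
    filter_upwards [h.mka.one] with n hn x hx y hy
    exact hn x (hJI n hx) y (hJI n hy)
  have hrho : ∀ n, rho (D.lev n (max b c) + t n) * 2 ^ t n = rho (D.lev n (max b c)) := fun n =>
    rho_add _ _
  have hr : ∀ᶠ n in (U : Filter ℕ), D.B.d n ^ κ' * D.r0 n ≤ rho (D.lev n (max b c) + t n) := by
    filter_upwards [hw, ht, const_le D.B 20 hε1] with n hw ht h20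
    have p2 : (0:ℝ) < 2 ^ t n := by positivity
    refine le_of_mul_le_mul_right ?_ p2
    rw [hrho]
    have d1 := dpow_pos D.B n κ'
    have d2 := dpow_pos D.B n ε1
    have d3 := dpow_pos D.B n (-β)
    have hra : D.r0 n ≤ aP D b c n := hw.rb.trans (le_add_of_nonneg_right hw.pc.le)
    have hρ := rho_pos' (D.lev n (max b c))
    have e1 : D.B.d n ^ κ' * D.B.d n ^ (-β) * D.B.d n ^ (-β) = D.B.d n ^ ε1 := by
      rw [← dpow_add, ← dpow_add]; congr 1; rw [hκ]; ring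
    have e2 : D.B.d n ^ ε1 * D.B.d n ^ (-ε1) = 1 := by rw [← dpow_add]; simp
    calc D.B.d n ^ κ' * D.r0 n * 2 ^ t n ≤ D.B.d n ^ κ' * (2 ^ t n * aP D b c n) := by
          have : D.B.d n ^ κ' * D.r0 n * 2 ^ t n ≤ D.B.d n ^ κ' * aP D b c n * 2 ^ t n := by gcongr
          linarith
      _ ≤ D.B.d n ^ κ' * (20 * (D.B.d n ^ (-β) * wP1 D b c n)) := by gcongr
      _ ≤ D.B.d n ^ κ' * (20 * (D.B.d n ^ (-β) * (D.B.d n ^ (-β) *
          rho (D.lev n (max b c))))) := by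
          have := hw.W1ρ
          gcongr
      _ = (D.B.d n ^ κ' * D.B.d n ^ (-β) * D.B.d n ^ (-β)) * 20 * rho (D.lev n (max b c)) := by ring
      _ = D.B.d n ^ ε1 * 20 * rho (D.lev n (max b c)) := by rw [e1]
      _ ≤ D.B.d n ^ ε1 * D.B.d n ^ (-ε1) * rho (D.lev n (max b c)) := by gcongr
      _ = _ := by rw [e2, one_mul]
  have hwr : ∀ᶠ n in (U : Filter ℕ), ∀ k, D.wr k n ≤ rho (D.lev n (max b c) + t n) := by
    filter_upwards [hdv, ht', h.wrs C3 0 _ hv0 hv1, h.wrs C3 1 _ hv0 hv1, h.wrs C3 2 _ hv0 hv1]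
      with n hdv ht' r0 r1 r2 k
    obtain ⟨-, d1, d2, d3, -⟩ := hdv
    have p2 : (0:ℝ) < 2 ^ t n := by positivity
    refine le_of_mul_le_mul_right ?_ p2
    rw [hrho]
    have hρ := rho_pos' (D.lev n (max b c))
    have dC := dpow_pos D.B n C3
    have e2 : D.B.d n ^ C3 * D.B.d n ^ (-C3) = 1 := by rw [← dpow_add]; simp
    have hk : D.wr k n ≤ D.B.d n ^ C3 * rho (D.lev n (max b c)) := by
      fin_cases k
      · exact r0.1.trans (mul_le_mul_of_nonneg_left (d1.trans (d2.trans d3)) dC.le)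
      · exact r1.1.trans (mul_le_mul_of_nonneg_left d3 dC.le)
      · exact r2.1.trans (mul_le_mul_of_nonneg_left (d2.trans d3) dC.le)
    calc D.wr k n * 2 ^ t n ≤ D.B.d n ^ C3 * rho (D.lev n (max b c)) * 2 ^ t n := by gcongr
      _ ≤ D.B.d n ^ C3 * rho (D.lev n (max b c)) * D.B.d n ^ (-C3) := by gcongr
      _ = (D.B.d n ^ C3 * D.B.d n ^ (-C3)) * rho (D.lev n (max b c)) := by ring
      _ = _ := by rw [e2, one_mul]
  obtain ⟨P, hP, hγ, hdp⟩ := deep_any (B := D.B) (J := J) (G := D.G p) (lev := D.lev) (A := D.A)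
    (g := p.g) (r0 := D.r0) (ϱ := ϱP D) (ω1 := ωP1 D) (ω2 := ωP2 D) (R1 := D.cr 1) (R2 := D.cr 2)
    (Ra := D.cr 0) (L := D.L) (q := p.q) (l0 := fun n => D.lev n 0)
    (flatG4 D.L h.r0pos D.wr D.cr p.q) hq h.g0.1.le (Eventually.of_forall fun n => (h.mka.Apos n).le)
    (fun n => (h.r0pos n).trans_le (le_max_left _ _)) (v := max b c) hone hfull
    (h.mka.lev_mono 0 _ le_rfl hv0 hv1)
    (by filter_upwards [hdv] with n hn using hn.1.trans (hn.2.1.trans (hn.2.2.1.trans hn.2.2.2.1)))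
    (m := fun n => D.lev n (max b c) + t n) (Eventually.of_forall fun n => Nat.le_add_right _ _)
    hκ0 hr
    (by
      filter_upwards [hwr] with n hn
      have hρ := rho_pos' (D.lev n (max b c) + t n)
      exact ⟨max_le_max le_rfl (hn 0), max_le (hn 1) (max_le (hn 2) hρ.le), max_le (hn 2) hρ.le⟩)
    (K := fun n => D.B.d n ^ (-κ'))
    (Eventually.of_forall fun n => by
      have := dpow_le D.B n (show -κ' ≤ 0 by linarith)
      rwa [Real.rpow_zero] at this)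
    (ε := ε1)
    (fun M h1 h2 h3 => hdeep _ hv0 hv1 M h1 h3 J hJ ε1 hε1) hε1
  refine ⟨P, hP, hγ, ?_⟩
  filter_upwards [hdp, hw, const_le D.B 17 hε1, const_le D.B (10 ^ 8) hε1,
    h.wrs (κ' + β + C3 + 2 * ε1) 0 b hb0 hb1, h.wrs (κ' + 2 * β + 2 * ε1) 1 b hb0 hb1,
    h.wrs (κ' + 2 * β + 2 * ε1) 2 b hb0 hb1] with n hdp hw h17 h108 g0 g1 g2 R0 R2 Ra pR0 hR0 hR2 hRa
  have hd := D.B.pos n
  have hd1 := (D.B.lt n).le
  have p2 : (0:ℝ) < 2 ^ t n := by positivity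
  have p21 : (1:ℝ) ≤ 2 ^ t n := one_le_pow₀ (by norm_num)
  have dβ := dpow_pos D.B n (-β)
  have dκ := dpow_pos D.B n (-κ')
  have dC := dpow_pos D.B n (-C3)
  have hρ := rho_pos' (D.lev n (max b c))
  refine hdp.mono (Subset.refl _) ?_ ?_ ?_ ?_ ((h.r0pos n).trans_le (le_max_left _ _))
  · -- constants
    have hQ : 0 ≤ p.q 0 + p.q 1 + p.q 2 := by have := hq 0; have := hq 1; have := hq 2; linarith
    have e1 := deep_const hd hd1 hκ0 hQ h17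
    have hA := h.mka.Apos n
    have e2 : ((D.lev n (max b c) + t n : ℕ) : ℝ) - D.lev n (max b c) = t n := by push_cast; ring
    have dg := dpow_pos D.B n (-(p.g * ((max b c : ℚ) : ℝ)))
    have hρQ : 0 < rho (D.lev n (max b c)) ^ (-(p.q 0 + p.q 1 + p.q 2)) :=
      Real.rpow_pos_of_pos hρ _
    have e3 : (2:ℝ) ^ ((p.g + ε1 + (p.q 0 + p.q 1 + p.q 2)) *
        (((D.lev n (max b c) + t n : ℕ) : ℝ) - D.lev n (max b c))) ≤
        2 ^ ((p.g + p.g + p.q 0 + p.q 1 + p.q 2) * (t n : ℝ)) := by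
      rw [e2]
      refine Real.rpow_le_rpow_of_exponent_le (by norm_num) ?_
      exact mul_le_mul_of_nonneg_right (by linarith) (Nat.cast_nonneg _)
    refine mul_le_mul ?_ e3 (by positivity) ?_
    · unfold MP
      calc _ = ((16 * D.B.d n ^ (-κ') * D.B.d n ^ (-κ') + 1) ^ 6 *
            (8 * D.B.d n ^ (-κ')) ^ (3 + (p.q 0 + p.q 1 + p.q 2)) * D.B.d n ^ (-ε1)) *
            (D.A n * D.B.d n ^ (-(p.g * ((max b c : ℚ) : ℝ))) *
              rho (D.lev n (max b c)) ^ (-(p.q 0 + p.q 1 + p.q 2))) := by ring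
        _ ≤ _ := by gcongr
    · unfold MP
      have := dpow_pos D.B n (-(12 * κ' + 7 * ε1 + (κ' + ε1) * (3 + (p.q 0 + p.q 1 + p.q 2))))
      positivity
  · -- the wide width
    refine le_min ?_ ?_
    · refine le_of_mul_le_mul_right ?_ p2
      have e1 : D.B.d n ^ (-κ') = D.B.d n ^ (-ε1) * (D.B.d n ^ (-β) * D.B.d n ^ (-β)) := by
        rw [← dpow_add, ← dpow_add]; congr 1; rw [hκ]; ring
      calc R0 * 2 ^ t n ≤ 4 * 10 ^ 6 * (D.B.d n ^ (-β) * wP1 D b c n) := hR0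
        _ ≤ 4 * 10 ^ 6 * (D.B.d n ^ (-β) * (D.B.d n ^ (-β) * rho (D.lev n (max b c)))) := by
            have := hw.W1ρ
            gcongr
        _ ≤ D.B.d n ^ (-ε1) * (D.B.d n ^ (-β) * (D.B.d n ^ (-β) * rho (D.lev n (max b c)))) := by
            gcongr
            linarith
        _ = D.B.d n ^ (-κ') * rho (D.lev n (max b c)) := by rw [e1]; ring
        _ = _ := by rw [← hrho n]; ring
    · rw [le_div_iff₀ (by positivity)]
      have hR0' : R0 ≤ R0 * 2 ^ t n := le_mul_of_one_le_right pR0 p21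
      have e1 : D.B.d n ^ (-κ') * (D.B.d n ^ (-β) * D.B.d n ^ (-β)) *
          D.B.d n ^ (κ' + 2 * β + 2 * ε1) = D.B.d n ^ (2 * ε1) := by
        rw [← dpow_add, ← dpow_add, ← dpow_add]; congr 1; ring
      have hcr : 0 ≤ D.cr 1 n := by
        by_contra hc
        rw [not_le] at hc
        have := mul_neg_of_pos_of_neg (dpow_pos D.B n (κ' + 2 * β + 2 * ε1)) hc
        linarith [g1.2, hw.b02, hw.b21, hw.pb]
      have e4 := dpow_pos D.B n (2 * ε1)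
      have e5 : D.B.d n ^ (2 * ε1) * D.B.d n ^ (-ε1) = D.B.d n ^ ε1 := by
        rw [← dpow_add]; congr 1; ring
      have e6 : D.B.d n ^ ε1 ≤ 1 := Real.rpow_le_one hd.le hd1 hε1.le
      calc R0 * (8 * D.B.d n ^ (-κ')) ≤
            (4 * 10 ^ 6 * (D.B.d n ^ (-β) * (D.B.d n ^ (-β) * (D.B.d n ^ (κ' + 2 * β + 2 * ε1) *
              D.cr 1 n)))) * (8 * D.B.d n ^ (-κ')) := by
            refine mul_le_mul_of_nonneg_right ?_ (by positivity)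
            have := hw.b1'.trans (mul_le_mul_of_nonneg_left g1.2 dβ.le)
            calc R0 ≤ 4 * 10 ^ 6 * (D.B.d n ^ (-β) * wP1 D b c n) := hR0'.trans hR0
              _ ≤ _ := by gcongr
        _ = 32 * 10 ^ 6 * (D.B.d n ^ (-κ') * (D.B.d n ^ (-β) * D.B.d n ^ (-β)) *
          D.B.d n ^ (κ' + 2 * β + 2 * ε1)) * D.cr 1 n := by ring
        _ = D.B.d n ^ (2 * ε1) * (32 * 10 ^ 6) * D.cr 1 n := by rw [e1]; ring
        _ ≤ D.B.d n ^ (2 * ε1) * D.B.d n ^ (-ε1) * D.cr 1 n := by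
            gcongr
            linarith
        _ ≤ 1 * D.cr 1 n := by rw [e5]; gcongr
        _ = _ := one_mul _
  · -- the narrow width
    rw [le_div_iff₀ (by positivity)]
    have e1 : D.B.d n ^ (-κ') * (D.B.d n ^ (-β) * D.B.d n ^ (-β)) *
        D.B.d n ^ (κ' + 2 * β + 2 * ε1) = D.B.d n ^ (2 * ε1) := by
      rw [← dpow_add, ← dpow_add, ← dpow_add]; congr 1; ring
    have hcr : 0 ≤ D.cr 2 n := by
      by_contra hc
      rw [not_le] at hc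
      have := mul_neg_of_pos_of_neg (dpow_pos D.B n (κ' + 2 * β + 2 * ε1)) hc
      linarith [g2.2, hw.b02, hw.pb]
    have e4 := dpow_pos D.B n (2 * ε1)
    have e5 : D.B.d n ^ (2 * ε1) * D.B.d n ^ (-ε1) = D.B.d n ^ ε1 := by
      rw [← dpow_add]; congr 1; ring
    have e6 : D.B.d n ^ ε1 ≤ 1 := Real.rpow_le_one hd.le hd1 hε1.le
    calc R2 * (8 * D.B.d n ^ (-κ')) ≤
          (4 * 10 ^ 6 * (D.B.d n ^ (-β) * (D.B.d n ^ (-β) * (D.B.d n ^ (κ' + 2 * β + 2 * ε1) *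
            D.cr 2 n)))) * (8 * D.B.d n ^ (-κ')) := by
          refine mul_le_mul_of_nonneg_right ?_ (by positivity)
          have := hw.b2'.trans (mul_le_mul_of_nonneg_left g2.2 dβ.le)
          calc R2 ≤ 4 * 10 ^ 6 * (D.B.d n ^ (-β) * wP2 D b c n) := hR2
            _ ≤ _ := by gcongr
      _ = 32 * 10 ^ 6 * (D.B.d n ^ (-κ') * (D.B.d n ^ (-β) * D.B.d n ^ (-β)) *
        D.B.d n ^ (κ' + 2 * β + 2 * ε1)) * D.cr 2 n := by ring
      _ = D.B.d n ^ (2 * ε1) * (32 * 10 ^ 6) * D.cr 2 n := by rw [e1]; ring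
      _ ≤ D.B.d n ^ (2 * ε1) * D.B.d n ^ (-ε1) * D.cr 2 n := by
          gcongr
          linarith
      _ ≤ 1 * D.cr 2 n := by rw [e5]; gcongr
      _ = _ := one_mul _
  · -- the thickness
    rw [le_div_iff₀ (by positivity)]
    have e1 : D.B.d n ^ (-κ') * (D.B.d n ^ (-C3) * D.B.d n ^ (-β)) *
        D.B.d n ^ (κ' + β + C3 + 2 * ε1) = D.B.d n ^ (2 * ε1) := by
      rw [← dpow_add, ← dpow_add, ← dpow_add]; congr 1; ring
    have hcr : 0 ≤ D.cr 0 n := by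
      by_contra hc
      rw [not_le] at hc
      have := mul_neg_of_pos_of_neg (dpow_pos D.B n (κ' + β + C3 + 2 * ε1)) hc
      linarith [g0.2, hw.pb]
    have e4 := dpow_pos D.B n (2 * ε1)
    have e5 : D.B.d n ^ (2 * ε1) * D.B.d n ^ (-ε1) = D.B.d n ^ ε1 := by
      rw [← dpow_add]; congr 1; ring
    have e6 : D.B.d n ^ ε1 ≤ 1 := Real.rpow_le_one hd.le hd1 hε1.le
    calc Ra * (8 * D.B.d n ^ (-κ')) ≤
          (16 * 10 ^ 5 * (D.B.d n ^ (-C3) * (D.B.d n ^ (-β) * (D.B.d n ^ (κ' + β + C3 + 2 * ε1) *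
            D.cr 0 n)))) * (8 * D.B.d n ^ (-κ')) := by
          refine mul_le_mul_of_nonneg_right ?_ (by positivity)
          have := hw.ab.trans (mul_le_mul_of_nonneg_left g0.2 dβ.le)
          calc Ra ≤ 16 * 10 ^ 5 * (D.B.d n ^ (-C3) * aP D b c n) := hRa
            _ ≤ _ := by gcongr
      _ = 128 * 10 ^ 5 * (D.B.d n ^ (-κ') * (D.B.d n ^ (-C3) * D.B.d n ^ (-β)) *
        D.B.d n ^ (κ' + β + C3 + 2 * ε1)) * D.cr 0 n := by ring
      _ = D.B.d n ^ (2 * ε1) * (128 * 10 ^ 5) * D.cr 0 n := by rw [e1]; ring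
      _ ≤ D.B.d n ^ (2 * ε1) * D.B.d n ^ (-ε1) * D.cr 0 n := by
          gcongr
          linarith
      _ ≤ 1 * D.cr 0 n := by rw [e5]; gcongr
      _ = _ := one_mul _

end Crest.Agent.R136.Csj535
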