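import Crest.Agent.R136.Csj7_535

/-!
# R136 (S0187), U5 TILT, `MidC`: preparation of the stage (helper535)

* `prep` : dyadic scale of the discrepancy, dense part with full shading.
* `tilt_pop` : popular dyadic tilts of the zoomed systems.
* `vol_num` : deficit of a level.
-/

set_option autoImplicit false
set_option linter.unusedVariables false
set_option linter.unusedSectionVars false

open Finset Filter Topology

namespace Crest.Agent.R136.Csj535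

open Crest.Agent.R138.Ex926 Crest.Agent.R138.Dp76
open Crest.Agent.R138.Mk163 (zc zl rho alive own Negl)
open Crest.Agent.R138.MkRef627 (lc kc mem_alive)
open Crest.Agent.R136.MkA627
open Crest.Agent.R136.Sh605 Crest.Agent.R136.K4 Crest.Agent.R136.Top484 Crest.Agent.R136.Tlt51
open Crest.Agent.R136.KapP335
open Crest.Agent.R136.Dia770 (extO FullO zc_div mem_extO_le ext_full)
open Crest.Agent.R136.Mdr535
open Crest.Agent.R136.Mdf880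
open Crest.Agent.R136.Fl808 (Dy exists_dy exists_pow const_le le_dpow dpow_le' dpow_exp capB capB_pos
  capB_mono capB_cube lev_pow wid_comp capB_scale rho_add L_le dense_of_not_negl exists_const par)

/-- dyadic exponent of a scale -/
theorem dy_exp {s : ℝ} (hs : 0 < s) (hs1 : s ≤ 1) {k : ℕ} (hk : ⌊Real.logb 2 (1 / s)⌋₊ = k) :
    1 / 2 ^ (k + 1) < s ∧ s ≤ 2 * (1 / 2 ^ (k + 1)) := by
  have h1 : 1 ≤ 1 / s := by rw [le_div_iff₀ hs]; linarith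
  have h0 : 0 ≤ Real.logb 2 (1 / s) := Real.logb_nonneg (by norm_num) h1
  have h2 := Nat.floor_le h0
  have h3 := Nat.lt_floor_add_one (Real.logb 2 (1 / s))
  rw [hk] at h2 h3
  have p2 : (0:ℝ) < 2 ^ k := by positivity
  have p3 : (0:ℝ) < 2 ^ (k + 1) := by positivity
  have h4 : (2:ℝ) ^ k ≤ 1 / s := by
    rw [← Real.rpow_natCast]
    exact (Real.le_logb_iff_rpow_le (by norm_num) (by positivity)).1 h2
  have h5 : 1 / s < (2:ℝ) ^ (k + 1) := by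
    have := (Real.logb_lt_iff_lt_rpow (by norm_num) (by positivity)).1 h3
    rw [← Real.rpow_natCast]
    push_cast
    exact this
  rw [le_div_iff₀ hs] at h4
  rw [div_lt_iff₀ hs] at h5
  constructor
  · rw [div_lt_iff₀ p3]; linarith
  · have : 2 * (1 / (2:ℝ) ^ (k + 1)) = 1 / 2 ^ k := by
      rw [pow_succ]; field_simp
    rw [this, le_div_iff₀ p2]
    linarith

theorem prep {η : ℝ} {p : Par4} {D : Dat4} (h : J1 η p D) {Bad : ℕ → ℕ × ℝ → ℝ → ℝ → Prop}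
    {Good : ℕ → ℕ × ℝ → Prop}
    (hN : ¬ Negl D.B D.I fun n x => ∃ s lam : ℝ, Bad n x s lam)
    (hG : Negl D.B D.I fun n x => ¬ Good n x) {C2 : ℝ} (hC2 : 0 ≤ C2)
    (hs : ∀ᶠ n in (U : Filter ℕ), ∀ x ∈ D.I n, Good n x → ∀ s lam, Bad n x s lam →
      D.B.d n ^ C2 < s ∧ s ≤ 1) :
    ∃ J : ℕ → Finset (ℕ × ℝ), (∀ n, J n ⊆ D.I n) ∧ Dense D.B J D.I ∧
      FullO D.B J (fun n => D.lev n 0) (fun n => D.lev n 1) ∧
      ∃ σ : ℕ → ℝ, (∀ n, 0 < σ n ∧ σ n ≤ 1) ∧ ∀ᶠ n in (U : Filter ℕ), (J n).Nonempty ∧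
        ∀ x ∈ J n, Good n x ∧ ∃ s lam, Bad n x s lam ∧ D.B.d n ^ C2 < s ∧ σ n < s ∧
          s ≤ 2 * σ n := by
  classical
  have hN' : ¬ Negl D.B D.I fun n x => Good n x ∧ ∃ s lam : ℝ, Bad n x s lam := by
    intro hc
    refine hN ((hc.or hG).mono (Eventually.of_forall fun n x _ hx => ?_))
    by_cases hg : Good n x
    · exact Or.inl ⟨hg, hx⟩
    · exact Or.inr hg
  obtain ⟨J1', hmem, hD1⟩ : ∃ J1' : ℕ → Finset (ℕ × ℝ), (∀ n, ∀ x ∈ J1' n, x ∈ D.I n ∧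
      Good n x ∧ ∃ s lam : ℝ, Bad n x s lam) ∧ Dense D.B J1' D.I := by
    refine ⟨_, ?_, dense_of_not_negl hN'⟩
    intro n x hx
    exact (@mem_filter _ _ (Classical.decPred _) _ _).1 hx
  -- the scale of an incidence
  have hch : ∀ n : ℕ, ∀ x : ℕ × ℝ, ∃ s : ℝ, (∃ s lam : ℝ, Bad n x s lam) → ∃ lam, Bad n x s lam := by
    intro n x
    by_cases hx : ∃ s lam : ℝ, Bad n x s lam
    · obtain ⟨s, hs⟩ := hx
      exact ⟨s, fun _ => hs⟩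
    · exact ⟨0, fun h => absurd h hx⟩
  choose S hS using hch
  have hsc : ∀ᶠ n in (U : Filter ℕ), ∀ x ∈ J1' n, D.B.d n ^ C2 < S n x ∧ S n x ≤ 1 := by
    filter_upwards [hs] with n hs x hx
    obtain ⟨h1, h2, h3⟩ := hmem n x hx
    obtain ⟨lam, h4⟩ := hS n x h3
    exact hs x h1 h2 _ _ h4
  obtain ⟨k, hk⟩ := exists_const (B := D.B) (J := J1') (fun n x => ⌊Real.logb 2 (1 / S n x)⌋₊) (by
    intro ε hε
    filter_upwards [hsc, const_le D.B (2 * C2 * (1 / (ε / 2))) (by linarith : 0 < ε / 2)] with n hsc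
      hc x hx
    obtain ⟨h1, h2⟩ := hsc x hx
    have hSp : 0 < S n x := (dpow_pos D.B n C2).trans h1
    have h0 : 0 ≤ Real.logb 2 (1 / S n x) :=
      Real.logb_nonneg (by norm_num) (by rw [le_div_iff₀ hSp]; linarith)
    refine (Nat.floor_le h0).trans ?_
    have hL := L_le D.B n (by linarith : 0 < ε / 2)
    have l2 : (1:ℝ) / 2 ≤ Real.log 2 := by have := Real.log_two_gt_d9; linarith
    have h3 : Real.log (1 / S n x) ≤ C2 * D.B.L n := by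
      rw [one_div, Real.log_inv]
      have := Real.log_le_log (dpow_pos D.B n C2) h1.le
      rw [dpow_exp, Real.log_exp] at this
      linarith
    have hLp := D.B.L_pos n
    unfold Real.logb
    rw [div_le_iff₀ (by linarith)]
    have e1 : D.B.d n ^ (-ε) = D.B.d n ^ (-(ε / 2)) * D.B.d n ^ (-(ε / 2)) := by
      rw [← dpow_add]; congr 1; ring
    have dp := dpow_pos D.B n (-(ε / 2))
    have dp' := dpow_pos D.B n (-ε)
    calc Real.log (1 / S n x) ≤ C2 * D.B.L n := h3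
      _ ≤ C2 * (1 / (ε / 2) * D.B.d n ^ (-(ε / 2))) := by gcongr
      _ = (2 * C2 * (1 / (ε / 2))) * D.B.d n ^ (-(ε / 2)) * (1 / 2) := by ring
      _ ≤ D.B.d n ^ (-(ε / 2)) * D.B.d n ^ (-(ε / 2)) * (1 / 2) := by gcongr
      _ = D.B.d n ^ (-ε) * (1 / 2) := by rw [e1]
      _ ≤ _ := by gcongr)
  have hkI := hk.trans hD1
  obtain ⟨J, hJ, hJd, hfull⟩ := full_of_dense h hkI
  have hJI : Dense D.B J D.I := hJd.trans hkI
  have hsub : ∀ n, ∀ x ∈ J n, x ∈ J1' n ∧ ⌊Real.logb 2 (1 / S n x)⌋₊ = k n := by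
    intro n x hx
    have := hJ n hx
    rw [mem_filter] at this
    exact this
  refine ⟨J, fun n x hx => (hmem n x (hsub n x hx).1).1, hJI, hfull, fun n => 1 / 2 ^ (k n + 1),
    fun n => ⟨by positivity, ?_⟩, ?_⟩
  · rw [div_le_one (by positivity)]
    exact one_le_pow₀ (by norm_num)
  · filter_upwards [hsc, hJI.nonempty h.mka.ne] with n hsc hne
    refine ⟨hne, fun x hx => ?_⟩
    obtain ⟨h1, h2⟩ := hsub n x hx
    obtain ⟨h3, h4, h5⟩ := hmem n x h1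
    obtain ⟨h6, h7⟩ := hsc x h1
    obtain ⟨lam, h8⟩ := hS n x h5
    have h9 := dy_exp ((dpow_pos D.B n C2).trans h6) h7 h2
    exact ⟨h4, _, lam, h8, h6, h9.1, h9.2⟩

section

variable {α β : Type*} {O P : Finset (ℕ × ℤ)} {L : ℕ → Ln4} {i k : ℕ} {f : ℕ × ℤ → α}
  {g : ℕ × ℤ → β} {cf : α → Ln4} {ef : α → Fin 3 → V3} {wf : α → V3} {qf : α → ℝ → V3 → ℝ}
  {cg : β → Ln4} {eg : β → Fin 3 → V3} {wg : β → V3} {qg : β → ℝ → V3 → ℝ}
  {a W1 W2 B X A1 A2 Θ : ℝ}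

/-- **popular dyadic tilts of the zoomed systems** -/
theorem tilt_pop (h1 : CSys O L i f cf ef wf qf a W1 W2 B X A1)
    (h2 : CSys O L i g cg eg wg qg a W1 W2 B X A2) (hP : ∀ x ∈ P, par k x ∈ O)
    (hPn : P.Nonempty) (Z : ZPar a W1 W2 B X k) (hΘ : 1 ≤ Θ)
    (nr : ∀ o ∈ O, Nr Θ (pfr (qf (f o)) (ef (f o)) (wf (f o)) (L o.1) (zl i o.2))
      (pfr (qg (g o)) (eg (g o)) (wg (g o)) (L o.1) (zl i o.2)) a (wf (f o) 1) (wf (f o) 2))
    {N : ℕ} (hN : ∀ j : ℕ, (2:ℝ) ^ j ≤ 5 * (B * (10 ^ 15 * (B * Θ))) → j < N) :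
    ∃ j k' : ℕ, (2:ℝ) ^ j ≤ 5 * (B * (10 ^ 15 * (B * Θ))) ∧
      (2:ℝ) ^ k' ≤ 5 * (B * (10 ^ 15 * (B * Θ))) ∧
      2 ^ (k + (k' + j)) * a ≤ 20 * (B * W1) ∧
      ∃ O' : Finset (ℕ × ℤ), O' ⊆ P ∧ O'.Nonempty ∧ (P.card : ℝ) ≤ (N : ℝ) ^ 2 * (O'.card : ℝ) ∧
      ∀ x ∈ O', Dy (ze P L i k f cf ef wf qf W1 W2 (zlab L i k f cf ef W1 W2 x))
        (ze P L i k g cg eg wg qg W1 W2 (zlab L i k g cg eg W1 W2 x)) (800 * a)
        (2000 * B * (W1 / 2 ^ k)) (2000 * B * (W2 / 2 ^ k)) j k' := by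
  have ha := Z.ha
  have hB := Z.hB1
  have B0 : 0 < B := by linarith
  have pk : (0:ℝ) < 2 ^ k := by positivity
  have haW : a ≤ W2 / 2 ^ k := by rw [le_div_iff₀ pk]; exact Z.haW
  have hWW : W2 / 2 ^ k ≤ W1 / 2 ^ k := by
    have := Z.hW
    gcongr
  have hW2 : 0 < W2 / 2 ^ k := ha.trans_le haW
  have hBΘ : 1 ≤ B * Θ := one_le_mul_of_one_le_of_one_le hB hΘ
  have hΘ' : 1 ≤ 10 ^ 15 * (B * Θ) := by linarith
  have big : 2 * (10 ^ 15 * (B * Θ)) ≤ 5 * (B * (10 ^ 15 * (B * Θ))) := by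
    have : 10 ^ 15 * (B * Θ) ≤ B * (10 ^ 15 * (B * Θ)) := le_mul_of_one_le_left (by positivity) hB
    linarith
  have key : ∀ x ∈ P, ∃ j k' : ℕ, j < N ∧ k' < N ∧
      ((2:ℝ) ^ j ≤ 5 * (B * (10 ^ 15 * (B * Θ))) ∧ (2:ℝ) ^ k' ≤ 5 * (B * (10 ^ 15 * (B * Θ))) ∧
      Dy (ze P L i k f cf ef wf qf W1 W2 (zlab L i k f cf ef W1 W2 x))
        (ze P L i k g cg eg wg qg W1 W2 (zlab L i k g cg eg W1 W2 x)) (800 * a)
        (2000 * B * (W1 / 2 ^ k)) (2000 * B * (W2 / 2 ^ k)) j k') := by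
    intro x hx
    obtain ⟨j, k', hD⟩ := exists_dy (ze P L i k f cf ef wf qf W1 W2 (zlab L i k f cf ef W1 W2 x))
      (ze P L i k g cg eg wg qg W1 W2 (zlab L i k g cg eg W1 W2 x)) (a := 800 * a)
      (w1 := 2000 * B * (W1 / 2 ^ k)) (w2 := 2000 * B * (W2 / 2 ^ k)) (by positivity)
      (by positivity)
    have n1 := nr_ze h1 h2 hP Z hΘ hx (nr _ (hP x hx))
    obtain ⟨e1, e2⟩ := dy_le_of_nr ha haW hWW hB hΘ' n1 hD
    exact ⟨j, k', hN _ (e1.trans big), hN _ e2, e1.trans big, e2, hD⟩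
  obtain ⟨j, k', hj, hk', O', hO', hOn, hcard, hall⟩ := exists_tilts _ hPn key
  obtain ⟨x, hx⟩ := hOn
  obtain ⟨e1, e2, e3⟩ := hall x hx
  refine ⟨j, k', e1, e2, ?_, O', hO', ⟨x, hx⟩, hcard, fun x hx => (hall x hx).2.2⟩
  have o1 : Ortho (ze P L i k f cf ef wf qf W1 W2 (zlab L i k f cf ef W1 W2 x)) :=
    pf_ortho (h1.st _ (hP x (hO' hx))).ortho _ _
  have o2 : Ortho (ze P L i k g cg eg wg qg W1 W2 (zlab L i k g cg eg W1 W2 x)) :=
    pf_ortho (h2.st _ (hP x (hO' hx))).ortho _ _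
  have h3 := e3.total o1 o2 (by positivity) (by
    have h4 : W2 / 2 ^ k ≤ B * (W2 / 2 ^ k) := le_mul_of_one_le_left hW2.le hB
    linarith) (by gcongr)
  have h4 : 2 ^ (k' + j) * a * 2 ^ k ≤ 20 * (B * W1) := by
    have h5 : 2 ^ (k' + j) * a ≤ 20 * (B * W1) / 2 ^ k := by
      have : 8 * (2000 * B * (W1 / 2 ^ k)) = 800 * (20 * (B * W1) / 2 ^ k) := by ring
      rw [this] at h3
      linarith
    rwa [le_div_iff₀ pk] at h5
  calc 2 ^ (k + (k' + j)) * a = 2 ^ (k' + j) * a * 2 ^ k := by rw [pow_add]; ring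
    _ ≤ _ := h4

end

/-- **deficit of a level** -/
theorem vol_num {p : Par4} {D : Dat4} {u v : ℚ} {n : ℕ} {β ε1 φ δ ϖ a W1 W2 : ℝ}
    (hq0 : 0 ≤ p.q 0) (hq1 : 0 ≤ p.q 1) (hq2 : 0 ≤ p.q 2) (hg : 0 ≤ p.g)
    (hA : 0 < D.A n) (ha : 0 < a) (hW1 : 0 < W1) (hW2 : 0 < W2) (p0 : 0 < D.w 0 n u)
    (p1 : 0 < D.w 1 n u) (p2 : 0 < D.w 2 n u) (k0 : a ≤ D.B.d n ^ (-β) * D.w 0 n u)
    (k1 : W1 ≤ D.B.d n ^ (-β) * D.w 1 n u) (k2 : W2 ≤ D.B.d n ^ (-β) * D.w 2 n u)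
    (hvm : D.vm n u = capB (p.q 0) (p.q 1) (p.q 2) (D.w 0 n u) (D.w 1 n u) (D.w 2 n u) *
      rho (D.lev n u) ^ (-(p.q 0 + p.q 1 + p.q 2)))
    (hlev : D.lev n u ≤ D.lev n v)
    (h2 : (2:ℝ) ^ (D.lev n v - D.lev n u) ≤ D.B.d n ^ (-((v:ℝ) - u) - ε1))
    (hδ : (v:ℝ) - u ≤ δ)
    (hϖ : ϖ = φ + p.g * δ + (p.q 0 + p.q 1 + p.q 2) * δ + (p.q 0 + p.q 1 + p.q 2) * ε1 +
      (3 + (p.q 0 + p.q 1 + p.q 2)) * β + ε1) :
    MP p D v φ n * capB (p.q 0) (p.q 1) (p.q 2) a W1 W2 ≤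
      D.B.d n ^ (-ϖ) * (D.B.d n ^ ε1 * (ampA D.B D.A (fun v => p.g * v) n u * D.vm n u)) := by
  obtain ⟨Q, hQ⟩ : ∃ Q, Q = p.q 0 + p.q 1 + p.q 2 := ⟨_, rfl⟩
  rw [← hQ] at hvm hϖ
  have hQ0 : 0 ≤ Q := by rw [hQ]; linarith
  have hd := D.B.pos n
  have dβ := dpow_pos D.B n (-β)
  have hρu := rho_pos' (D.lev n u)
  have hρv := rho_pos' (D.lev n v)
  obtain ⟨V, hV⟩ : ∃ V, V = capB (p.q 0) (p.q 1) (p.q 2) (D.w 0 n u) (D.w 1 n u) (D.w 2 n u) :=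
    ⟨_, rfl⟩
  have hV0 : 0 < V := by rw [hV]; exact capB_pos p0 p1 p2
  -- the volume
  have c1 : capB (p.q 0) (p.q 1) (p.q 2) a W1 W2 ≤ D.B.d n ^ (-((3 + Q) * β)) * V := by
    refine (capB_mono hq0 hq1 hq2 ha.le hW1.le hW2.le k0 k1 k2).trans (le_of_eq ?_)
    rw [capB_scale p0.le p1.le p2.le dβ.le dβ.le dβ.le, ← Real.rpow_add dβ, ← Real.rpow_add dβ,
      ← Real.rpow_mul hd.le, ← hV]
    congr 2
    rw [hQ]; ring
  -- the length of the cells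
  have c2 : rho (D.lev n v) ^ (-Q) ≤ D.B.d n ^ (-(Q * (((v:ℝ) - u) + ε1))) *
      rho (D.lev n u) ^ (-Q) := by
    have e1 : rho (D.lev n v) * 2 ^ (D.lev n v - D.lev n u) = rho (D.lev n u) := by
      have := rho_add (D.lev n u) (D.lev n v - D.lev n u)
      rwa [Nat.add_sub_cancel' hlev] at this
    have pp : (0:ℝ) < 2 ^ (D.lev n v - D.lev n u) := by positivity
    have e2 : rho (D.lev n v) ^ (-Q) = ((2:ℝ) ^ (D.lev n v - D.lev n u)) ^ Q *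
        rho (D.lev n u) ^ (-Q) := by
      rw [← e1, Real.mul_rpow hρv.le pp.le, Real.rpow_neg pp.le Q]
      have := (Real.rpow_pos_of_pos pp Q).ne'
      field_simp
    rw [e2]
    have e3 : ((2:ℝ) ^ (D.lev n v - D.lev n u)) ^ Q ≤ D.B.d n ^ (-(Q * (((v:ℝ) - u) + ε1))) := by
      calc ((2:ℝ) ^ (D.lev n v - D.lev n u)) ^ Q ≤ (D.B.d n ^ (-((v:ℝ) - u) - ε1)) ^ Q :=
            Real.rpow_le_rpow pp.le h2 hQ0
        _ = _ := by rw [← Real.rpow_mul hd.le]; congr 1; ring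
    have := Real.rpow_pos_of_pos hρu (-Q)
    gcongr
  have pρu := Real.rpow_pos_of_pos hρu (-Q)
  have pρv := Real.rpow_pos_of_pos hρv (-Q)
  have dφ := dpow_pos D.B n (-φ)
  have dg := dpow_pos D.B n (-(p.g * v))
  have dg' := dpow_pos D.B n (-(p.g * u))
  unfold MP ampA
  rw [hvm, ← hQ, ← hV]
  calc D.B.d n ^ (-φ) * (D.A n * D.B.d n ^ (-(p.g * (v:ℝ))) * rho (D.lev n v) ^ (-Q)) *
        capB (p.q 0) (p.q 1) (p.q 2) a W1 W2 ≤
      D.B.d n ^ (-φ) * (D.A n * D.B.d n ^ (-(p.g * (v:ℝ))) *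
        (D.B.d n ^ (-(Q * (((v:ℝ) - u) + ε1))) * rho (D.lev n u) ^ (-Q))) *
        (D.B.d n ^ (-((3 + Q) * β)) * V) := by
        have := dpow_pos D.B n (-((3 + Q) * β))
        have := dpow_pos D.B n (-(Q * (((v:ℝ) - u) + ε1)))
        have := capB_pos (q0 := p.q 0) (q1 := p.q 1) (q2 := p.q 2) ha hW1 hW2
        gcongr
    _ = (D.B.d n ^ (-φ) * D.B.d n ^ (-(p.g * (v:ℝ))) * D.B.d n ^ (-(Q * (((v:ℝ) - u) + ε1))) *
        D.B.d n ^ (-((3 + Q) * β))) * (D.A n * (V * rho (D.lev n u) ^ (-Q))) := by ring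
    _ ≤ (D.B.d n ^ (-ϖ) * D.B.d n ^ ε1 * D.B.d n ^ (-(p.g * (u:ℝ)))) *
        (D.A n * (V * rho (D.lev n u) ^ (-Q))) := by
        refine mul_le_mul_of_nonneg_right ?_ (by positivity)
        rw [← dpow_add, ← dpow_add, ← dpow_add, ← dpow_add, ← dpow_add]
        apply dpow_le
        rw [hϖ]
        have e1 := mul_le_mul_of_nonneg_left hδ hg
        have e2 := mul_le_mul_of_nonneg_left hδ hQ0
        linarith
    _ = _ := by ring

end Crest.Agent.R136.Csj535
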