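import Crest.Agent.R136.Csj8_535

/-!
# R136 (S0187), U5 TILT, `MidC` : objects, constants, zoom exponent (helper535)
-/

set_option autoImplicit false
set_option linter.unusedVariables false
set_option linter.unusedSectionVars false

open Finset Filter Topology

namespace Crest.Agent.R136.Csj535

open Crest.Agent.R138.Ex926 Crest.Agent.R138.Dp76
open Crest.Agent.R138.Mk163 (zc zl rho alive own Negl)
open Crest.Agent.R138.MkRef627 (lc kc mem_alive)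
open Crest.Agent.R136.MkA627
open Crest.Agent.R136.Sh605 Crest.Agent.R136.K4 Crest.Agent.R136.Top484 Crest.Agent.R136.Tlt51
open Crest.Agent.R136.KapP335
open Crest.Agent.R136.Dia770 (extO FullO zc_div mem_extO_le ext_full)
open Crest.Agent.R136.Mdr535
open Crest.Agent.R136.Mdf880
open Crest.Agent.R136.Fl808 (Dy exists_dy exists_pow const_le le_dpow dpow_le' dpow_exp capB capB_pos
  capB_mono capB_cube lev_pow wid_comp capB_scale rho_add L_le dense_of_not_negl exists_const par)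

/-- an incidence with a discrepancy at the scale `s` -/
structure BadM (K : ℝ) (p : Par4) (D : Dat4) (b c : ℚ) (e : ℝ) (n : ℕ) (x : ℕ × ℝ) (s lam : ℝ) :
    Prop where
  s0 : 0 < s
  se : s ≤ D.B.d n ^ e
  l1 : 1 ≤ lam
  lc : lam ≤ s ^ (-(cx K p))
  comp : CompC (s ^ (-(cx K p))) lam (mk4 D n b x) (mk4 D n c x)
  nag : ¬ Agree (K * ((mk4 D n b x).a + (mk4 D n c x).a))
    (s ^ (-K) * ((mk4 D n b x).a + (mk4 D n c x).a)) s lam (mk4 D n b x) (mk4 D n c x)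
    (D.L n x.1) (zx D n (max b c) x) (rh D n (max b c))
  k0 : K * ((mk4 D n b x).a + (mk4 D n c x).a) ≤
    kapP (mk4 D n b x) (zx D n b x) (rh D n b) (D.L n x.1)
  kb : kapP (mk4 D n b x) (zx D n b x) (rh D n b) (D.L n x.1) ≤
    s ^ (-(cx K p)) * ((mk4 D n b x).a + (mk4 D n c x).a)
  kc : kapP (mk4 D n c x) (zx D n c x) (rh D n c) (D.L n x.1) ≤
    s ^ (-(cx K p)) * ((mk4 D n b x).a + (mk4 D n c x).a)

theorem sig_pow {s σ c : ℝ} (hσ : 0 < σ) (h : s ≤ 2 * σ) (hs : 0 < s) (hc0 : 0 ≤ c) (hc1 : c ≤ 1) :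
    σ ^ (-c) ≤ 2 * s ^ (-c) := by
  have h1 : s / 2 ≤ σ := by linarith
  have h2 : σ ^ (-c) ≤ (s / 2) ^ (-c) := by
    rw [Real.rpow_neg hσ.le, Real.rpow_neg (by positivity)]
    have := Real.rpow_le_rpow (by positivity) h1 hc0
    have h3 : 0 < (s / 2) ^ c := Real.rpow_pos_of_pos (by positivity) _
    gcongr
  refine h2.trans (le_of_eq_of_le ?_ (mul_le_mul_of_nonneg_right
    (?_ : (2:ℝ) ^ c ≤ 2) (Real.rpow_pos_of_pos hs _).le))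
  · rw [Real.div_rpow hs.le (by norm_num), Real.rpow_neg (by norm_num : (0:ℝ) ≤ 2)]
    have := (Real.rpow_pos_of_pos (by norm_num : (0:ℝ) < 2) c).ne'
    field_simp
  · calc (2:ℝ) ^ c ≤ 2 ^ (1:ℝ) := Real.rpow_le_rpow_of_exponent_le (by norm_num) hc1
      _ = 2 := Real.rpow_one _

/-- **the conditions on one object** -/
theorem objC_of {K : ℝ} {p : Par4} {D : Dat4} {b c : ℚ} {e : ℝ} {n : ℕ} {x : ℕ × ℝ} {s lam : ℝ}
    {ε1 β ϖ σ C0 : ℝ} {k : ℕ} (hB : BadM K p D b c e n x s lam) (hcx0 : 0 ≤ cx K p)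
    (hcx1 : cx K p ≤ 1) (hw : WidP p D b c β n) (hr : 0 < D.r0 n)
    (sb : ShN (mk4 D n b x).e (mk4 D n b x).c (mk4 D n b x).w (mk4 D n b x).q (mk4 D n b x).a
      (zx D n b x) (rh D n b) (D.r0 n))
    (ib : InSheet (D.L n x.1) (mk4 D n b x).e (mk4 D n b x).c (mk4 D n b x).w (mk4 D n b x).q
      (mk4 D n b x).a (zx D n b x) (rh D n b)) (ea : (mk4 D n b x).a = D.w 0 n b)
    (sc : ShN (mk4 D n c x).e (mk4 D n c x).c (mk4 D n c x).w (mk4 D n c x).q (mk4 D n c x).a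
      (zx D n c x) (rh D n c) (D.r0 n)) (ea' : (mk4 D n c x).a = D.w 0 n c)
    (hσ0 : 0 < σ) (hσ : s ≤ 2 * σ)
    (hk : 2 ^ k ≤ 2 ^ 14 * D.B.d n ^ (-β) * σ ^ (-(cx K p))) (hC0 : 0 ≤ C0)
    (h2 : 2 ≤ D.B.d n ^ (-ε1)) (he : C0 * (β + ϖ + 2 * ε1) ≤ e) :
    ObjC (mk4 D n b x) (mk4 D n c x) K (aP D b c n) (D.B.d n ^ (-β)) (D.B.d n ^ (-ϖ))
      (D.B.d n ^ ε1) (128 * (σ ^ (-(cx K p)) * aP D b c n)) (cx K p) C0 s lam k := by
  have esum : (mk4 D n b x).a + (mk4 D n c x).a = aP D b c n := by rw [ea, ea']; rfl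
  have hd := D.B.pos n
  have dβ := dpow_pos D.B n (-β)
  have a0 := hw.a0
  have s0 := hB.s0
  have hsc : 0 < s ^ (-(cx K p)) := Real.rpow_pos_of_pos s0 _
  have hsig := sig_pow hσ0 hσ s0 hcx0 hcx1
  have hw0 : 0 < (mk4 D n b x).w 0 := hr.trans_le (sb.r0_le.trans sb.a_le0)
  have hρ : 0 < rh D n b := rho_pos' _
  have k13 := kapP_le sb hw0 hρ ib
  refine ⟨s0, hB.l1, hB.lc, hB.comp, ?_, ?_, ?_, ?_, ?_, ?_, ?_, ?_⟩
  · rw [ea]; unfold aP; linarith [hw.pc]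
  · rw [ea']; unfold aP; linarith [hw.pb]
  · have := hB.k0
    rw [esum] at this
    linarith
  · refine hw.ab.trans ?_
    rw [← ea]
    exact mul_le_mul_of_nonneg_left sb.a_le0 dβ.le
  · refine hw.ac.trans ?_
    rw [← ea']
    exact mul_le_mul_of_nonneg_left sc.a_le0 dβ.le
  · have h1 : σ ^ (-(cx K p)) * aP D b c n ≤ 2 * s ^ (-(cx K p)) * aP D b c n := by gcongr
    have h3 : 0 < s ^ (-(cx K p)) * aP D b c n := by positivity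
    linarith
  · have h1 : 2 ^ 14 * D.B.d n ^ (-β) * σ ^ (-(cx K p)) ≤
        2 ^ 14 * D.B.d n ^ (-β) * (2 * s ^ (-(cx K p))) := by gcongr
    have h3 : 0 < D.B.d n ^ (-β) * s ^ (-(cx K p)) := by positivity
    linarith
  · have h1 : 2 * D.B.d n ^ (-β) * D.B.d n ^ (-ϖ) / D.B.d n ^ ε1 ≤
        D.B.d n ^ (-(β + ϖ + 2 * ε1)) := by
      have d1 := dpow_pos D.B n ε1
      have d2 := dpow_pos D.B n (-ϖ)
      rw [div_le_iff₀ d1, ← dpow_add]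
      calc 2 * D.B.d n ^ (-β) * D.B.d n ^ (-ϖ) ≤ D.B.d n ^ (-ε1) * D.B.d n ^ (-β) *
            D.B.d n ^ (-ϖ) := by gcongr
        _ = _ := by rw [← dpow_add, ← dpow_add]; congr 1; ring
    have d1 := dpow_pos D.B n ε1
    have d2 := dpow_pos D.B n (-ϖ)
    have h3 : (2 * D.B.d n ^ (-β) * D.B.d n ^ (-ϖ) / D.B.d n ^ ε1) ^ C0 ≤
        D.B.d n ^ (-(C0 * (β + ϖ + 2 * ε1))) := by
      calc (2 * D.B.d n ^ (-β) * D.B.d n ^ (-ϖ) / D.B.d n ^ ε1) ^ C0 ≤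
            (D.B.d n ^ (-(β + ϖ + 2 * ε1))) ^ C0 := Real.rpow_le_rpow (by positivity) h1 hC0
        _ = _ := by rw [← Real.rpow_mul hd.le]; congr 1; ring
    calc s * (2 * D.B.d n ^ (-β) * D.B.d n ^ (-ϖ) / D.B.d n ^ ε1) ^ C0 ≤
        D.B.d n ^ e * D.B.d n ^ (-(C0 * (β + ϖ + 2 * ε1))) := by
          have := hB.se
          have := dpow_pos D.B n e
          gcongr
      _ ≤ 1 := by
          rw [← dpow_add]
          have := dpow_le D.B n (show 0 ≤ e + -(C0 * (β + ϖ + 2 * ε1)) by linarith)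
          rwa [Real.rpow_zero] at this

theorem agree_cast {A E s lam : ℝ} {S S' T T' : Plk4} {t : Ln4} {z ρ : ℝ} (e : S = T) (e' : S' = T')
    (h : Agree A E s lam S S' t z ρ) : Agree A E s lam T T' t z ρ := by subst e e'; exact h

theorem objC_cast {S S' T T' : Plk4} {K a B W δ0 X c C s lam : ℝ} {k : ℕ} (e : S = T) (e' : S' = T')
    (h : ObjC T T' K a B W δ0 X c C s lam k) : ObjC S S' K a B W δ0 X c C s lam k := by
  subst e e'; exact h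

/-! ### constants -/

/-- total reward -/
noncomputable def QP (p : Par4) : ℝ := p.q 0 + p.q 1 + p.q 2

noncomputable def CwP (p : Par4) : ℝ := |p.θ 0| + |p.θ 1| + |p.θ 2| + 1

noncomputable def c4P (p : Par4) : ℝ := C4 (p.q 0) (p.q 1) (p.q 2) (p.g + p.g + p.q 0)

noncomputable def c1P (p : Par4) : ℝ :=
  CwP p + 2 * (15 + QP p) * CwP p + p.g + QP p + (3 + QP p) * CwP p

/-- the constant of `MidC` -/
noncomputable def CM (p : Par4) : ℝ := c4P p * c1P p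

theorem cwP_nonneg (p : Par4) : 0 ≤ CwP p := by unfold CwP; positivity

theorem cwP_le (p : Par4) (j : Fin 3) : |p.θ j| + 1 ≤ CwP p := by
  have t0 := abs_nonneg (p.θ 0)
  have t1 := abs_nonneg (p.θ 1)
  have t2 := abs_nonneg (p.θ 2)
  fin_cases j <;> simp only [CwP] <;> simp <;> linarith

/-- exponents of the stage -/
structure ExpS (p : Par4) (δ ε ε1 β κ φ ϖ : ℝ) : Prop where
  ε1p : 0 < ε1
  ε1g : ε1 ≤ p.g
  hβ : β = CwP p * δ + 2 * ε1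
  hκ : κ = 2 * β + ε1
  hφ : φ = 12 * κ + 7 * ε1 + (κ + ε1) * (3 + (p.q 0 + p.q 1 + p.q 2))
  hϖ : ϖ = φ + p.g * δ + (p.q 0 + p.q 1 + p.q 2) * δ + (p.q 0 + p.q 1 + p.q 2) * ε1 +
      (3 + (p.q 0 + p.q 1 + p.q 2)) * β + ε1
  β0 : 0 ≤ β
  ϖ0 : 0 ≤ ϖ
  small : c4P p * (β + ϖ + 2 * ε1) ≤ CM p * δ + ε

theorem exists_exp {p : Par4} (hq : ∀ k, 0 ≤ p.q k) (hg : 0 < p.g) (h4 : 0 < c4P p) {δ ε : ℝ}
    (hδ : 0 ≤ δ) (hε : 0 < ε) : ∃ ε1 β κ φ ϖ : ℝ, ExpS p δ ε ε1 β κ φ ϖ := by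
  have hQ : 0 ≤ p.q 0 + p.q 1 + p.q 2 := by have := hq 0; have := hq 1; have := hq 2; linarith
  have hC := cwP_nonneg p
  obtain ⟨Q, eQ⟩ : ∃ Q, Q = p.q 0 + p.q 1 + p.q 2 := ⟨_, rfl⟩
  rw [← eQ] at hQ
  obtain ⟨C, eC⟩ : ∃ C, C = CwP p := ⟨_, rfl⟩
  rw [← eC] at hC
  obtain ⟨d4, e4⟩ : ∃ d4, d4 = c4P p := ⟨_, rfl⟩
  rw [← e4] at h4
  have hden : 0 < d4 * (96 + 9 * Q) + 1 := by positivity
  obtain ⟨ε1, hε1⟩ : ∃ ε1, ε1 = min (ε / (d4 * (96 + 9 * Q) + 1)) p.g := ⟨_, rfl⟩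
  have p1 : 0 < ε1 := by rw [hε1]; exact lt_min (by positivity) hg
  have p2 : ε1 ≤ p.g := by rw [hε1]; exact min_le_right _ _
  have p3 : ε1 * (d4 * (96 + 9 * Q) + 1) ≤ ε := by
    have : ε1 ≤ ε / (d4 * (96 + 9 * Q) + 1) := by rw [hε1]; exact min_le_left _ _
    rwa [le_div_iff₀ hden] at this
  obtain ⟨β, hβ⟩ : ∃ β, β = C * δ + 2 * ε1 := ⟨_, rfl⟩
  obtain ⟨κ, hκ⟩ : ∃ κ, κ = 2 * β + ε1 := ⟨_, rfl⟩
  obtain ⟨φ, hφ⟩ : ∃ φ, φ = 12 * κ + 7 * ε1 + (κ + ε1) * (3 + Q) := ⟨_, rfl⟩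
  obtain ⟨ϖ, hϖ⟩ : ∃ ϖ, ϖ = φ + p.g * δ + Q * δ + Q * ε1 + (3 + Q) * β + ε1 := ⟨_, rfl⟩
  have β0 : 0 ≤ β := by rw [hβ]; positivity
  have κ0 : 0 ≤ κ := by rw [hκ]; positivity
  have φ0 : 0 ≤ φ := by rw [hφ]; positivity
  have ϖ0 : 0 ≤ ϖ := by rw [hϖ]; positivity
  refine ⟨ε1, β, κ, φ, ϖ, p1, p2, by rw [← eC]; exact hβ, hκ, by rw [← eQ]; exact hφ,
    by rw [← eQ]; exact hϖ, β0, ϖ0, ?_⟩
  have e5 : CM p * δ = d4 * (C + 2 * (15 + Q) * C + p.g + Q + (3 + Q) * C) * δ := by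
    unfold CM c1P QP; rw [← e4, ← eC, ← eQ]
  rw [e5, ← e4]
  have e6 : d4 * (β + ϖ + 2 * ε1) = d4 * (C + 2 * (15 + Q) * C + p.g + Q + (3 + Q) * C) * δ +
      ε1 * (d4 * (96 + 9 * Q)) := by
    rw [hϖ, hφ, hκ, hβ]; ring
  rw [e6]
  linarith

/-- logarithmically many dyadic tilts -/
theorem log_card (B : Base) {C3 : ℝ} (hC3 : 0 ≤ C3) : ∃ N : ℕ → ℕ,
    (∀ n, 1 ≤ N n) ∧ (∀ n, ∀ j : ℕ, (2:ℝ) ^ j ≤ B.d n ^ (-C3) → j < N n) ∧
    ∀ ε : ℝ, 0 < ε → ∀ᶠ n in (U : Filter ℕ), (N n : ℝ) ^ 2 * B.d n ^ ε ≤ 1 := by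
  refine ⟨fun n => ⌊2 * C3 * B.L n⌋₊ + 1, fun n => Nat.le_add_left _ _, fun n j hj => ?_,
    fun ε hε => ?_⟩
  · have l2 : (1:ℝ) / 2 ≤ Real.log 2 := by have := Real.log_two_gt_d9; linarith
    have h1 := Real.log_le_log (by positivity) hj
    rw [Real.log_pow, dpow_exp, Real.log_exp] at h1
    have hj0 : (0:ℝ) ≤ j := Nat.cast_nonneg j
    have h2 : (j:ℝ) * (1 / 2) ≤ j * Real.log 2 := by gcongr
    have h3 : (j:ℝ) ≤ 2 * C3 * B.L n := by linarith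
    have h4 := Nat.lt_floor_add_one (2 * C3 * B.L n)
    have h5 : (j:ℝ) < ((⌊2 * C3 * B.L n⌋₊ + 1 : ℕ) : ℝ) := by push_cast; linarith
    exact_mod_cast h5
  · filter_upwards [const_le B (2 * C3 * (1 / (ε / 4)) + 1) (by linarith : 0 < ε / 4)] with n hn
    have hL := L_le B n (by linarith : 0 < ε / 4)
    have hLp := B.L_pos n
    have h0 : 0 ≤ 2 * C3 * B.L n := by positivity
    have h1 := Nat.floor_le h0
    have d1 : 1 ≤ B.d n ^ (-(ε / 4)) := by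
      have := dpow_le B n (show -(ε / 4) ≤ 0 by linarith)
      rwa [Real.rpow_zero] at this
    have h2 : ((⌊2 * C3 * B.L n⌋₊ + 1 : ℕ) : ℝ) ≤ B.d n ^ (-(ε / 4)) * B.d n ^ (-(ε / 4)) := by
      push_cast
      calc (⌊2 * C3 * B.L n⌋₊ : ℝ) + 1 ≤ 2 * C3 * (1 / (ε / 4) * B.d n ^ (-(ε / 4))) + 1 := by
            have : 2 * C3 * B.L n ≤ 2 * C3 * (1 / (ε / 4) * B.d n ^ (-(ε / 4))) := by gcongr
            linarith
        _ ≤ (2 * C3 * (1 / (ε / 4)) + 1) * B.d n ^ (-(ε / 4)) := by linarith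
        _ ≤ _ := by gcongr
    have hN0 : (0:ℝ) ≤ ((⌊2 * C3 * B.L n⌋₊ + 1 : ℕ) : ℝ) := Nat.cast_nonneg _
    have dε := dpow_pos B n ε
    calc ((⌊2 * C3 * B.L n⌋₊ + 1 : ℕ) : ℝ) ^ 2 * B.d n ^ ε ≤
          (B.d n ^ (-(ε / 4)) * B.d n ^ (-(ε / 4))) ^ 2 * B.d n ^ ε := by gcongr
      _ = 1 := by
          rw [← dpow_add, ← Real.rpow_natCast, ← Real.rpow_mul (B.pos n).le, ← dpow_add]
          have : (-(ε / 4) + -(ε / 4)) * ((2:ℕ):ℝ) + ε = 0 := by push_cast; ring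
          rw [this, Real.rpow_zero]

end Crest.Agent.R136.Csj535
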