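import Crest.Agent.R136.Csj9_535

/-!
# R136 (S0187), U5 TILT, `MidC` (helper535)

`midN : MidN kapP`.
-/

set_option autoImplicit false
set_option linter.unusedVariables false
set_option linter.unusedSectionVars false

open Finset Filter Topology

namespace Crest.Agent.R136.Csj535

open Crest.Agent.R138.Ex926 Crest.Agent.R138.Dp76
open Crest.Agent.R138.Mk163 (zc zl rho alive own Negl)
open Crest.Agent.R138.MkRef627 (lc kc mem_alive)
open Crest.Agent.R136.MkA627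
open Crest.Agent.R136.Sh605 Crest.Agent.R136.K4 Crest.Agent.R136.Top484 Crest.Agent.R136.Tlt51
open Crest.Agent.R136.KapP335
open Crest.Agent.R136.Dia770 (extO FullO zc_div mem_extO_le ext_full par_mem)
open Crest.Agent.R136.Mdr535
open Crest.Agent.R136.Mdf880
open Crest.Agent.R136.Fl808 (Dy exists_dy exists_pow const_le le_dpow dpow_le' dpow_exp capB capB_pos
  capB_mono capB_cube lev_pow wid_comp capB_scale rho_add L_le dense_of_not_negl exists_const par)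

/-- the tangent planes of the two marks agree -/
def GoodM (D : Dat4) (b c : ℚ) (Cc : ℝ) (n : ℕ) (x : ℕ × ℝ) : Prop :=
  Nr (D.B.d n ^ (-Cc))
    (pfr (mk4 D n b x).q (mk4 D n b x).e (mk4 D n b x).w (D.L n x.1) (zx D n (max b c) x))
    (pfr (mk4 D n c x).q (mk4 D n c x).e (mk4 D n c x).w (D.L n x.1) (zx D n (max b c) x))
    ((mk4 D n b x).a + (mk4 D n c x).a) ((mk4 D n b x).w 1) ((mk4 D n b x).w 2)

/-- the two class systems -/
structure SysM (p : Par4) (D : Dat4) (b c : ℚ) (β ε1 X : ℝ) (J : Finset (ℕ × ℝ)) (n : ℕ) :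
    Prop where
  s1 : CSys (J.image (lc (D.lev n (max b c)))) (D.L n) (D.lev n (max b c))
    (clm (D.f n b) (D.lev n b) (D.lev n (max b c))) (fun l => (D.b n b l.2).c)
    (fun l => (D.b n b l.2).e) (fun l => (D.b n b l.2).w) (fun l => (D.b n b l.2).q)
    (aP D b c n) (wP1 D b c n) (wP2 D b c n) (D.B.d n ^ (-β)) X
    (D.B.d n ^ ε1 * (ampA D.B D.A (fun v => p.g * v) n b * D.vm n b))
  s2 : CSys (J.image (lc (D.lev n (max b c)))) (D.L n) (D.lev n (max b c))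
    (clm (D.f n c) (D.lev n c) (D.lev n (max b c))) (fun l => (D.b n c l.2).c)
    (fun l => (D.b n c l.2).e) (fun l => (D.b n c l.2).w) (fun l => (D.b n c l.2).q)
    (aP D b c n) (wP1 D b c n) (wP2 D b c n) (D.B.d n ^ (-β)) X
    (D.B.d n ^ ε1 * (ampA D.B D.A (fun v => p.g * v) n c * D.vm n c))

theorem sysM {η : ℝ} {p : Par4} {D : Dat4} (h : J1 η p D) {J : ℕ → Finset (ℕ × ℝ)}
    (hJ : Dense D.B J D.I) (hJI : ∀ n, J n ⊆ D.I n) {b c : ℚ} (hb0 : 0 ≤ b)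
    (hb1 : b ≤ 1) (hc0 : 0 ≤ c) (hc1 : c ≤ 1) {ε1 β : ℝ} (hε1 : 0 < ε1)
    (hw : ∀ᶠ n in (U : Filter ℕ), WidP p D b c β n) :
    ∀ᶠ n in (U : Filter ℕ), ∀ X : ℝ,
      (∀ x ∈ J n, kapP (mk4 D n b x) (zx D n b x) (rh D n b) (D.L n x.1) ≤ X) →
      (∀ x ∈ J n, kapP (mk4 D n c x) (zx D n c x) (rh D n c) (D.L n x.1) ≤ X) →
      SysM p D b c β ε1 (128 * X) (J n) n := by
  filter_upwards [csys_j1 h hJ hJI b (max b c) hb0 (le_max_left _ _) (max_le hb1 hc1) hε1,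
    csys_j1 h hJ hJI c (max b c) hc0 (le_max_right _ _) (max_le hb1 hc1) hε1, hw]
    with n h1 h2 hw X hX hX'
  exact ⟨h1 _ _ _ _ X (by unfold aP; linarith [hw.pc]) hw.b1 hw.b1' hw.b2 hw.b2' hX,
    h2 _ _ _ _ X (by unfold aP; linarith [hw.pb]) hw.c1 hw.c1' hw.c2 hw.c2' hX'⟩

/-- tangent planes of the objects -/
theorem good_obj {D : Dat4} {n : ℕ} {b c : ℚ} {Cc : ℝ} {J : Finset (ℕ × ℝ)}
    (lb : D.lev n b ≤ D.lev n (max b c)) (lc' : D.lev n c ≤ D.lev n (max b c))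
    (hG : ∀ x ∈ J, GoodM D b c Cc n x)
    (ha : ∀ x ∈ J, (mk4 D n b x).a + (mk4 D n c x).a = aP D b c n) :
    ∀ o ∈ J.image (lc (D.lev n (max b c))), Nr (D.B.d n ^ (-Cc))
      (pfr ((fun l : ℤ × ℕ => (D.b n b l.2).q) (clm (D.f n b) (D.lev n b) (D.lev n (max b c)) o))
        ((fun l : ℤ × ℕ => (D.b n b l.2).e) (clm (D.f n b) (D.lev n b) (D.lev n (max b c)) o))
        ((fun l : ℤ × ℕ => (D.b n b l.2).w) (clm (D.f n b) (D.lev n b) (D.lev n (max b c)) o))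
        (D.L n o.1) (zl (D.lev n (max b c)) o.2))
      (pfr ((fun l : ℤ × ℕ => (D.b n c l.2).q) (clm (D.f n c) (D.lev n c) (D.lev n (max b c)) o))
        ((fun l : ℤ × ℕ => (D.b n c l.2).e) (clm (D.f n c) (D.lev n c) (D.lev n (max b c)) o))
        ((fun l : ℤ × ℕ => (D.b n c l.2).w) (clm (D.f n c) (D.lev n c) (D.lev n (max b c)) o))
        (D.L n o.1) (zl (D.lev n (max b c)) o.2))
      (aP D b c n)
      (((fun l : ℤ × ℕ => (D.b n b l.2).w) (clm (D.f n b) (D.lev n b) (D.lev n (max b c)) o)) 1)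
      (((fun l : ℤ × ℕ => (D.b n b l.2).w) (clm (D.f n b) (D.lev n b) (D.lev n (max b c)) o)) 2) := by
  intro o ho
  obtain ⟨x, hx, rfl⟩ := mem_image.1 ho
  have h1 := hG x hx
  unfold GoodM at h1
  rw [ha x hx] at h1
  simp only [clm_mk4 D n lb x, clm_mk4 D n lc' x]
  exact h1

/-- dyadic tilts of the zoomed systems -/
def DyM (D : Dat4) (b c : ℚ) (β : ℝ) (n k : ℕ) (P : Finset (ℕ × ℤ)) (x : ℕ × ℤ) (j k' : ℕ) : Prop :=
  Dy (ze P (D.L n) (D.lev n (max b c)) k (clm (D.f n b) (D.lev n b) (D.lev n (max b c)))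
      (fun l => (D.b n b l.2).c) (fun l => (D.b n b l.2).e) (fun l => (D.b n b l.2).w)
      (fun l => (D.b n b l.2).q) (wP1 D b c n) (wP2 D b c n)
      (zlab (D.L n) (D.lev n (max b c)) k (clm (D.f n b) (D.lev n b) (D.lev n (max b c)))
        (fun l => (D.b n b l.2).c) (fun l => (D.b n b l.2).e) (wP1 D b c n) (wP2 D b c n) x))
    (ze P (D.L n) (D.lev n (max b c)) k (clm (D.f n c) (D.lev n c) (D.lev n (max b c)))
      (fun l => (D.b n c l.2).c) (fun l => (D.b n c l.2).e) (fun l => (D.b n c l.2).w)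
      (fun l => (D.b n c l.2).q) (wP1 D b c n) (wP2 D b c n)
      (zlab (D.L n) (D.lev n (max b c)) k (clm (D.f n c) (D.lev n c) (D.lev n (max b c)))
        (fun l => (D.b n c l.2).c) (fun l => (D.b n c l.2).e) (wP1 D b c n) (wP2 D b c n) x))
    (800 * aP D b c n) (2000 * D.B.d n ^ (-β) * (wP1 D b c n / 2 ^ k))
    (2000 * D.B.d n ^ (-β) * (wP2 D b c n / 2 ^ k)) j k'

/-- objects of the zoomed level lie over the objects of the stage -/
theorem par_obj {D : Dat4} {n k : ℕ} {v : ℚ} {J : Finset (ℕ × ℝ)} (hv : D.lev n v ≤ D.lev n 1) :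
    ∀ x ∈ extO J (D.lev n 1) (D.lev n v + k), par k x ∈ J.image (lc (D.lev n v)) := by
  intro x hx
  have h1 := par_mem (Nat.le_add_right (D.lev n v) k) hx
  rw [Nat.add_sub_cancel_left] at h1
  unfold Crest.Agent.R136.Dia770.extO at h1
  rw [if_pos hv] at h1
  exact h1

/-- **popular dyadic tilts**, sequence form -/
theorem stage_tilts {η : ℝ} {p : Par4} {D : Dat4} (h : J1 η p D) {J : ℕ → Finset (ℕ × ℝ)}
    (hJI : ∀ n, J n ⊆ D.I n) {b c : ℚ} (hb0 : 0 ≤ b) (hb1 : b ≤ 1) (hc0 : 0 ≤ c) (hc1 : c ≤ 1)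
    {ε1 β Cc C5 : ℝ} (hε1 : 0 < ε1) (hCc : 0 ≤ Cc) (hw : ∀ᶠ n in (U : Filter ℕ), WidP p D b c β n)
    {X : ℕ → ℝ} (hS : ∀ᶠ n in (U : Filter ℕ), SysM p D b c β ε1 (X n) (J n) n) {k : ℕ → ℕ}
    (hZ : ∀ᶠ n in (U : Filter ℕ), ZPar (aP D b c n) (wP1 D b c n) (wP2 D b c n)
      (D.B.d n ^ (-β)) (X n) (k n))
    (hG : ∀ᶠ n in (U : Filter ℕ), ∀ x ∈ J n, GoodM D b c Cc n x)
    (hP : ∀ᶠ n in (U : Filter ℕ), (extO (J n) (D.lev n 1) (D.lev n (max b c) + k n)).Nonempty)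
    (hC5 : 2 * β + Cc + ε1 ≤ C5) {N : ℕ → ℕ}
    (hN : ∀ n, ∀ j : ℕ, (2:ℝ) ^ j ≤ D.B.d n ^ (-C5) → j < N n) :
    ∃ (j k' : ℕ → ℕ) (O' : ℕ → Finset (ℕ × ℤ)),
      (∀ n, O' n ⊆ extO (J n) (D.lev n 1) (D.lev n (max b c) + k n)) ∧
      ∀ᶠ n in (U : Filter ℕ), (2:ℝ) ^ j n ≤ D.B.d n ^ (-C5) ∧ (2:ℝ) ^ k' n ≤ D.B.d n ^ (-C5) ∧
        2 ^ (k n + (k' n + j n)) * aP D b c n ≤ 20 * (D.B.d n ^ (-β) * wP1 D b c n) ∧
        (O' n).Nonempty ∧
        ((extO (J n) (D.lev n 1) (D.lev n (max b c) + k n)).card : ℝ) ≤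
          (N n : ℝ) ^ 2 * ((O' n).card : ℝ) ∧
        ∀ x ∈ O' n, DyM D b c β n (k n) (extO (J n) (D.lev n 1) (D.lev n (max b c) + k n)) x (j n)
          (k' n) := by
  classical
  have key : ∀ᶠ n in (U : Filter ℕ), ∃ y : ℕ × ℕ × Finset (ℕ × ℤ),
      y.2.2 ⊆ extO (J n) (D.lev n 1) (D.lev n (max b c) + k n) ∧
      (2:ℝ) ^ y.1 ≤ D.B.d n ^ (-C5) ∧ (2:ℝ) ^ y.2.1 ≤ D.B.d n ^ (-C5) ∧
        2 ^ (k n + (y.2.1 + y.1)) * aP D b c n ≤ 20 * (D.B.d n ^ (-β) * wP1 D b c n) ∧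
        (y.2.2).Nonempty ∧
        ((extO (J n) (D.lev n 1) (D.lev n (max b c) + k n)).card : ℝ) ≤
          (N n : ℝ) ^ 2 * ((y.2.2).card : ℝ) ∧
        ∀ x ∈ y.2.2, DyM D b c β n (k n) (extO (J n) (D.lev n 1) (D.lev n (max b c) + k n)) x y.1
          y.2.1 := by
    filter_upwards [hw, hS, hZ, hG, hP,
      h.mka.lev_mono b (max b c) hb0 (le_max_left _ _) (max_le hb1 hc1),
      h.mka.lev_mono c (max b c) hc0 (le_max_right _ _) (max_le hb1 hc1),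
      h.mka.lev_mono (max b c) 1 (hb0.trans (le_max_left _ _)) (max_le hb1 hc1) le_rfl,
      mark_facts h hb0 hb1, mark_facts h hc0 hc1, const_le D.B (5 * 10 ^ 15) hε1]
      with n hw hS hZ hG hP lb lc' l1 mb mc h5
    have hY : 5 * (D.B.d n ^ (-β) * (10 ^ 15 * (D.B.d n ^ (-β) * D.B.d n ^ (-Cc)))) ≤
        D.B.d n ^ (-C5) := by
      have e1 : D.B.d n ^ (-(2 * β + Cc + ε1)) = D.B.d n ^ (-ε1) * (D.B.d n ^ (-β) *
          (D.B.d n ^ (-β) * D.B.d n ^ (-Cc))) := by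
        rw [← dpow_add, ← dpow_add, ← dpow_add]; congr 1; ring
      have p1 := dpow_pos D.B n (-β)
      have p2 := dpow_pos D.B n (-Cc)
      calc 5 * (D.B.d n ^ (-β) * (10 ^ 15 * (D.B.d n ^ (-β) * D.B.d n ^ (-Cc)))) =
            5 * 10 ^ 15 * (D.B.d n ^ (-β) * (D.B.d n ^ (-β) * D.B.d n ^ (-Cc))) := by ring
        _ ≤ D.B.d n ^ (-ε1) * (D.B.d n ^ (-β) * (D.B.d n ^ (-β) * D.B.d n ^ (-Cc))) := by gcongr
        _ = D.B.d n ^ (-(2 * β + Cc + ε1)) := e1.symm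
        _ ≤ _ := dpow_le D.B n (by linarith)
    have hΘ : 1 ≤ D.B.d n ^ (-Cc) := by
      have := dpow_le D.B n (show -Cc ≤ 0 by linarith)
      rwa [Real.rpow_zero] at this
    obtain ⟨j, k', e1, e2, e3, O', hO', hOn, hcard, hD⟩ := tilt_pop hS.s1 hS.s2 (par_obj l1) hP hZ hΘ
      (good_obj lb lc' hG (fun x hx => by
        rw [(mb x (hJI n hx)).2.2.1, (mc x (hJI n hx)).2.2.1]; rfl))
      (N := N n) (fun j hj => hN n j (hj.trans hY))
    exact ⟨(j, k', O'), hO', e1.trans hY, e2.trans hY, e3, hOn, hcard, hD⟩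
  obtain ⟨y, hy⟩ := key.choice
  refine ⟨fun n => (y n).1, fun n => (y n).2.1, fun n => (y n).2.2 ∩
    extO (J n) (D.lev n 1) (D.lev n (max b c) + k n), fun n => inter_subset_right, ?_⟩
  filter_upwards [hy] with n hy
  obtain ⟨h1, h2, h3, h4, h5, h6, h7⟩ := hy
  have e1 : (y n).2.2 ∩ extO (J n) (D.lev n 1) (D.lev n (max b c) + k n) = (y n).2.2 :=
    inter_eq_left.2 h1
  simp only [e1]
  exact ⟨h2, h3, h4, h5, h6, h7⟩

end Crest.Agent.R136.Csj535
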