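import Crest.Agent.R136.Csk1_535

/-!
# R136 (S0187), U5 TILT, `MidC` (helper535)

* `stage_count` : the three deeper levels over the popular part, with their cardinalities.
* `stage_end` : agreement at a popular object.
* `mid_fix`, `midN : MidN kapP`.
-/

set_option autoImplicit false
set_option linter.unusedVariables false
set_option linter.unusedSectionVars false

open Finset Filter Topology

namespace Crest.Agent.R136.Csj535

open Crest.Agent.R138.Ex926 Crest.Agent.R138.Dp76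
open Crest.Agent.R138.Mk163 (zc zl rho alive own Negl)
open Crest.Agent.R138.MkRef627 (lc kc mem_alive)
open Crest.Agent.R136.MkA627
open Crest.Agent.R136.Sh605 Crest.Agent.R136.K4 Crest.Agent.R136.Top484 Crest.Agent.R136.Tlt51
open Crest.Agent.R136.KapP335
open Crest.Agent.R136.Dia770 (extO FullO zc_div mem_extO_le ext_full par_mem)
open Crest.Agent.R136.Mdr535
open Crest.Agent.R136.Mdf880
open Crest.Agent.R136.Fl808 (Dy exists_dy exists_pow const_le le_dpow dpow_le' dpow_exp capB capB_pos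
  capB_mono capB_cube lev_pow wid_comp capB_scale rho_add L_le dense_of_not_negl exists_const par)

/-- cardinality of the popular part -/
theorem card_pop {η : ℝ} {p : Par4} {D : Dat4} (h : J1 η p D) {J : ℕ → Finset (ℕ × ℝ)}
    (hJI : ∀ n, J n ⊆ D.I n) (hfull : FullO D.B J (fun n => D.lev n 0) (fun n => D.lev n 1))
    {v : ℚ} (hv0 : 0 ≤ v) (hv1 : v ≤ 1) {k N : ℕ → ℕ}
    (hN : ∀ ε : ℝ, 0 < ε → ∀ᶠ n in (U : Filter ℕ), (N n : ℝ) ^ 2 * D.B.d n ^ ε ≤ 1)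
    {O' : ℕ → Finset (ℕ × ℤ)}
    (hO' : ∀ᶠ n in (U : Filter ℕ), ((extO (J n) (D.lev n 1) (D.lev n v + k n)).card : ℝ) ≤
      (N n : ℝ) ^ 2 * ((O' n).card : ℝ)) :
    (∀ ε : ℝ, 0 < ε → ∀ᶠ n in (U : Filter ℕ),
      D.B.d n ^ ε * ((extO (J n) (D.lev n 1) (D.lev n v + k n)).card : ℝ) ≤ ((O' n).card : ℝ)) ∧
    ∀ ε : ℝ, 0 < ε → ∀ᶠ n in (U : Filter ℕ),
      D.B.d n ^ ε * (((J n).image (lc (D.lev n v))).card : ℝ) * 2 ^ k n ≤ ((O' n).card : ℝ) := by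
  have h1 : ∀ ε : ℝ, 0 < ε → ∀ᶠ n in (U : Filter ℕ),
      D.B.d n ^ ε * ((extO (J n) (D.lev n 1) (D.lev n v + k n)).card : ℝ) ≤ ((O' n).card : ℝ) := by
    intro ε hε
    filter_upwards [hN ε hε, hO'] with n h1 h2
    have d1 := dpow_pos D.B n ε
    have h3 : (0:ℝ) ≤ ((O' n).card : ℝ) := Nat.cast_nonneg _
    calc D.B.d n ^ ε * ((extO (J n) (D.lev n 1) (D.lev n v + k n)).card : ℝ) ≤
          D.B.d n ^ ε * ((N n : ℝ) ^ 2 * ((O' n).card : ℝ)) := by gcongr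
      _ = ((N n : ℝ) ^ 2 * D.B.d n ^ ε) * ((O' n).card : ℝ) := by ring
      _ ≤ 1 * ((O' n).card : ℝ) := by gcongr
      _ = _ := one_mul _
  refine ⟨h1, fun ε hε => ?_⟩
  have hε2 : 0 < ε / 2 := by linarith
  filter_upwards [h1 (ε / 2) hε2, hfull (ε / 2) hε2, h.mka.one,
    h.mka.lev_mono 0 v le_rfl hv0 hv1, h.mka.lev_mono v 1 hv0 hv1 le_rfl] with n h1 hfull hone l0 l1
  have h3 := ext_full (J := J n) (l0 := D.lev n 0) (l1 := D.lev n 1)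
    (fun x hx y hy => hone x (hJI n hx) y (hJI n hy)) (dpow_pos D.B n (ε / 2))
    (Real.rpow_le_one (D.B.pos n).le (D.B.lt n).le hε2.le) (fun i' a b x hx => hfull i' a b x hx)
    l0 (Nat.le_add_right (D.lev n v) (k n))
  rw [Nat.add_sub_cancel_left] at h3
  have e1 : extO (J n) (D.lev n 1) (D.lev n v) = (J n).image (lc (D.lev n v)) := by
    unfold Crest.Agent.R136.Dia770.extO
    rw [if_pos l1]
  rw [e1] at h3
  have e2 : D.B.d n ^ ε = D.B.d n ^ (ε / 2) * D.B.d n ^ (ε / 2) := by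
    rw [← dpow_add]; congr 1; ring
  have d1 := dpow_pos D.B n (ε / 2)
  calc D.B.d n ^ ε * (((J n).image (lc (D.lev n v))).card : ℝ) * 2 ^ k n =
        D.B.d n ^ (ε / 2) * (D.B.d n ^ (ε / 2) *
          (2 ^ k n * (((J n).image (lc (D.lev n v))).card : ℝ))) := by rw [e2]; ring
    _ ≤ D.B.d n ^ (ε / 2) * ((extO (J n) (D.lev n 1) (D.lev n v + k n)).card : ℝ) := by gcongr
    _ ≤ _ := h1

/-- **the three deeper levels** -/
structure DeepM (p : Par4) (D : Dat4) (v : ℚ) (φ ε1 : ℝ) (n k j k' : ℕ)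
    (O' Pj P3 P' : Finset (ℕ × ℤ)) (R0 R2 Ra : ℝ) : Prop where
  pj : ∀ x ∈ Pj, par j x ∈ O'
  p3 : ∀ x ∈ P3, par (k' + j) x ∈ O'
  pp : ∀ x ∈ P3, par j x ∈ P'
  cj : D.B.d n ^ ε1 * ((O'.card : ℝ) * 2 ^ j) ≤ (Pj.card : ℝ)
  c3 : D.B.d n ^ ε1 * ((O'.card : ℝ) * 2 ^ (k' + j)) ≤ (P3.card : ℝ)
  dj : DP Pj (D.L n) (D.lev n v + (k + j)) (MP p D v φ n *
    2 ^ ((p.g + p.g + p.q 0 + p.q 1 + p.q 2) * ((k + j : ℕ) : ℝ)))
    (p.q 0) (p.q 1) (p.q 2) (ϱP D n) (ωP1 D n) (ωP2 D n) (R0 / 2 ^ j) R2 Ra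
  d' : DP P' (D.L n) (D.lev n v + (k + k')) (MP p D v φ n *
    2 ^ ((p.g + p.g + p.q 0 + p.q 1 + p.q 2) * ((k + k' : ℕ) : ℝ)))
    (p.q 0) (p.q 1) (p.q 2) (ϱP D n) (ωP1 D n) (ωP2 D n) (R0 / 2 ^ k') R2 Ra
  d3 : DP P3 (D.L n) (D.lev n v + (k + (k' + j))) (MP p D v φ n *
    2 ^ ((p.g + p.g + p.q 0 + p.q 1 + p.q 2) * ((k + (k' + j) : ℕ) : ℝ)))
    (p.q 0) (p.q 1) (p.q 2) (ϱP D n) (ωP1 D n) (ωP2 D n) (R0 / 2 ^ (k' + j)) R2 Ra

theorem stage_deep {η : ℝ} {p : Par4} {D : Dat4} (h : J1 η p D)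
    (hdeep : Dia770.DeepP D.B D.I (D.G p) D.lev D.A p.g D.r0) {J : ℕ → Finset (ℕ × ℝ)}
    (hJ : Dense D.B J D.I) (hJI : ∀ n, J n ⊆ D.I n)
    (hfull : FullO D.B J (fun n => D.lev n 0) (fun n => D.lev n 1)) {b c : ℚ} (hb0 : 0 ≤ b)
    (hb1 : b ≤ 1) (hc0 : 0 ≤ c) (hc1 : c ≤ 1) {ε1 β κ' φ C3 : ℝ} (hε1 : 0 < ε1) (hε1g : ε1 ≤ p.g)
    (hβ : 0 ≤ β) (hκ : κ' = 2 * β + ε1)
    (hφ : φ = 12 * κ' + 7 * ε1 + (κ' + ε1) * (3 + (p.q 0 + p.q 1 + p.q 2))) (hC3 : 0 ≤ C3)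
    (hw : ∀ᶠ n in (U : Filter ℕ), WidP p D b c β n) {k j k' : ℕ → ℕ} {O' : ℕ → Finset (ℕ × ℤ)}
    (hO' : ∀ n, O' n ⊆ extO (J n) (D.lev n 1) (D.lev n (max b c) + k n))
    (ht : ∀ᶠ n in (U : Filter ℕ),
      2 ^ (k n + (k' n + j n)) * aP D b c n ≤ 20 * (D.B.d n ^ (-β) * wP1 D b c n))
    (ht' : ∀ᶠ n in (U : Filter ℕ), (2:ℝ) ^ (k n + (k' n + j n)) ≤ D.B.d n ^ (-C3))
    (hX : ∀ ε : ℝ, 0 < ε → ∀ᶠ n in (U : Filter ℕ),
      D.B.d n ^ ε * ((extO (J n) (D.lev n 1) (D.lev n (max b c) + k n)).card : ℝ) ≤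
        ((O' n).card : ℝ)) :
    ∃ Pj P3 P' : ℕ → Finset (ℕ × ℤ), ∀ᶠ n in (U : Filter ℕ),
      DeepM p D (max b c) φ ε1 n (k n) (j n) (k' n) (O' n) (Pj n) (P3 n) (P' n)
        (4 * 10 ^ 6 * (D.B.d n ^ (-β) * (wP1 D b c n / 2 ^ k n)))
        (4 * 10 ^ 6 * (D.B.d n ^ (-β) * (wP2 D b c n / 2 ^ k n)))
        (16 * 10 ^ 5 * (2 ^ k' n * aP D b c n)) := by
  classical
  have hv0 : 0 ≤ max b c := hb0.trans (le_max_left _ _)
  have hv1 : max b c ≤ 1 := max_le hb1 hc1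
  have mon : ∀ n (t : ℕ), t ≤ k n + (k' n + j n) → (2:ℝ) ^ t ≤ 2 ^ (k n + (k' n + j n)) :=
    fun n t ht => pow_le_pow_right₀ (by norm_num) ht
  have ht1 : ∀ s : ℕ → ℕ, (∀ n, s n ≤ k n + (k' n + j n)) → (∀ᶠ n in (U : Filter ℕ),
      2 ^ s n * aP D b c n ≤ 20 * (D.B.d n ^ (-β) * wP1 D b c n)) ∧
      ∀ᶠ n in (U : Filter ℕ), (2:ℝ) ^ s n ≤ D.B.d n ^ (-C3) := by
    intro s hs
    constructor
    · filter_upwards [ht, hw] with n ht hw
      exact (mul_le_mul_of_nonneg_right (mon n _ (hs n)) hw.a0.le).trans ht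
    · filter_upwards [ht'] with n ht'
      exact (mon n _ (hs n)).trans ht'
  have hone : ∀ᶠ n in (U : Filter ℕ), ∀ x ∈ J n, ∀ y ∈ J n, x.1 = y.1 →
      zc (D.lev n 1) x.2 = zc (D.lev n 1) y.2 → x = y := by
    filter_upwards [h.mka.one] with n hn x hx y hy
    exact hn x (hJI n hx) y (hJI n hy)
  obtain ⟨t1, hh1⟩ := ht1 (fun n => k n + j n) (fun n => by omega)
  obtain ⟨t2, hh2⟩ := ht1 (fun n => k n + k' n) (fun n => by omega)
  obtain ⟨P1, s1, g1, dd1⟩ := deep_lev h hdeep hJ hJI hfull hb0 hb1 hc0 hc1 hε1 hε1g hβ hκ hC3 hw t1 hh1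
  obtain ⟨P2, s2, g2, dd2⟩ := deep_lev h hdeep hJ hJI hfull hb0 hb1 hc0 hc1 hε1 hε1g hβ hκ hC3 hw t2 hh2
  obtain ⟨P3, s3, g3, dd3⟩ := deep_lev h hdeep hJ hJI hfull hb0 hb1 hc0 hc1 hε1 hε1g hβ hκ hC3 hw ht ht'
  have lv0 := h.mka.lev_mono 0 _ le_rfl hv0 hv1
  have over1 := part_over D.B (J := J) (l0 := fun n => D.lev n 0) (l1 := fun n => D.lev n 1)
    (i := fun n => D.lev n (max b c) + k n) (m2 := fun n => D.lev n (max b c) + (k n + j n))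
    (m := fun n => D.lev n (max b c) + (k n + j n)) hone hfull
    (by filter_upwards [lv0] with n hn; omega) (Eventually.of_forall fun n => by omega)
    (Eventually.of_forall fun n => le_rfl) (O' := O') (P1 := P1) (P2 := P1) hO' hX s1 g1 s1 g1 hε1
  have over3 := part_over D.B (J := J) (l0 := fun n => D.lev n 0) (l1 := fun n => D.lev n 1)
    (i := fun n => D.lev n (max b c) + k n) (m2 := fun n => D.lev n (max b c) + (k n + k' n))
    (m := fun n => D.lev n (max b c) + (k n + (k' n + j n))) hone hfull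
    (by filter_upwards [lv0] with n hn; omega) (Eventually.of_forall fun n => by omega)
    (Eventually.of_forall fun n => by omega) (O' := O') (P1 := P3) (P2 := P2) hO' hX s3 g3 s2 g2 hε1
  refine ⟨fun n => (P1 n).filter fun x => par (j n) x ∈ O' n,
    fun n => (P3 n).filter fun x => par (k' n + j n) x ∈ O' n ∧ par (j n) x ∈ P2 n, P2, ?_⟩
  filter_upwards [over1, over3, dd1, dd2, dd3, hw, ht'] with n over1 over3 dd1 dd2 dd3 hw ht'
  have a1 : D.lev n (max b c) + (k n + j n) - (D.lev n (max b c) + k n) = j n := by omega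
  have a3 : D.lev n (max b c) + (k n + (k' n + j n)) - (D.lev n (max b c) + k n) = k' n + j n := by
    omega
  have a4 : D.lev n (max b c) + (k n + (k' n + j n)) - (D.lev n (max b c) + (k n + k' n)) = j n := by
    omega
  rw [a1] at over1
  rw [a3, a4] at over3
  have dβ := dpow_pos D.B n (-β)
  have hW1 : 0 < wP1 D b c n := (hw.pb.trans_le (hw.b02.trans hw.b21)).trans_le hw.b1
  have hW2 : 0 < wP2 D b c n := (hw.pb.trans_le hw.b02).trans_le hw.b2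
  have pk : (1:ℝ) ≤ 2 ^ k n := one_le_pow₀ (by norm_num)
  have hr := (h.r0pos n).trans_le (le_max_left (D.r0 n) (D.wr 0 n))
  -- ranges
  have rg : ∀ t : ℕ, 0 ≤ 4 * 10 ^ 6 * (D.B.d n ^ (-β) * (wP1 D b c n / 2 ^ k n)) / 2 ^ t ∧
      4 * 10 ^ 6 * (D.B.d n ^ (-β) * (wP1 D b c n / 2 ^ k n)) / 2 ^ t * 2 ^ (k n + t) ≤
        4 * 10 ^ 6 * (D.B.d n ^ (-β) * wP1 D b c n) := by
    intro t
    refine ⟨by positivity, le_of_eq ?_⟩
    rw [pow_add]; field_simp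
  have r2 : 4 * 10 ^ 6 * (D.B.d n ^ (-β) * (wP2 D b c n / 2 ^ k n)) ≤
      4 * 10 ^ 6 * (D.B.d n ^ (-β) * wP2 D b c n) := by
    have : wP2 D b c n / 2 ^ k n ≤ wP2 D b c n := div_le_self hW2.le pk
    gcongr
  have ra : 16 * 10 ^ 5 * (2 ^ k' n * aP D b c n) ≤
      16 * 10 ^ 5 * (D.B.d n ^ (-C3) * aP D b c n) := by
    have h1 : (2:ℝ) ^ k' n ≤ D.B.d n ^ (-C3) := (mon n _ (by omega)).trans ht'
    have := hw.a0
    gcongr
  have e1 := dd1 _ _ _ (rg (j n)).1 (rg (j n)).2 r2 ra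
  have e2 := dd2 _ _ _ (rg (k' n)).1 (rg (k' n)).2 r2 ra
  have e3 := dd3 _ _ _ (rg (k' n + j n)).1 (rg (k' n + j n)).2 r2 ra
  rw [← hφ] at e1 e2 e3
  refine ⟨fun x hx => (mem_filter.1 hx).2, fun x hx => (mem_filter.1 hx).2.1,
    fun x hx => (mem_filter.1 hx).2.2, ?_, over3, ?_, e2, ?_⟩
  · refine over1.trans ?_
    norm_cast
    refine card_le_card fun x hx => ?_
    rw [mem_filter] at hx ⊢
    exact ⟨hx.1, hx.2.1⟩
  · exact e1.mono (filter_subset _ _) le_rfl le_rfl le_rfl le_rfl hr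
  · exact e3.mono (filter_subset _ _) le_rfl le_rfl le_rfl le_rfl hr

end Crest.Agent.R136.Csj535
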