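import Crest.Agent.R136.Csk2_535

/-!
# R136 (S0187), U5 TILT, `MidC` (helper535)

* `stage_end` : agreement at a popular object.
* `mid_fix`, **`midN : MidN kapP`**.
-/

set_option autoImplicit false
set_option linter.unusedVariables false
set_option linter.unusedSectionVars false

open Finset Filter Topology

namespace Crest.Agent.R136.Csj535

open Crest.Agent.R138.Ex926 Crest.Agent.R138.Dp76
open Crest.Agent.R138.Mk163 (zc zl rho alive own Negl)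
open Crest.Agent.R138.MkRef627 (lc kc mem_alive)
open Crest.Agent.R136.MkA627
open Crest.Agent.R136.Sh605 Crest.Agent.R136.K4 Crest.Agent.R136.Top484 Crest.Agent.R136.Tlt51
open Crest.Agent.R136.KapP335
open Crest.Agent.R136.Dia770 (extO FullO zc_div mem_extO_le ext_full par_mem)
open Crest.Agent.R136.Mdr535
open Crest.Agent.R136.Mdf880
open Crest.Agent.R136.Fl808 (Dy exists_dy exists_pow const_le le_dpow dpow_le' dpow_exp capB capB_pos
  capB_mono capB_cube lev_pow wid_comp capB_scale rho_add L_le dense_of_not_negl exists_const par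
  DMaxP)

theorem DP.toM {P : Finset (ℕ × ℤ)} {L : ℕ → Ln4} {m m' : ℕ}
    {C q0 q1 q2 r0 ω1 ω2 R0 R2 Ra R0' R2' Ra' : ℝ}
    (H : DP P L m C q0 q1 q2 r0 ω1 ω2 R0 R2 Ra) (hm : m = m') (h0 : R0' = R0) (h2 : R2' = R2)
    (ha : Ra' = Ra) : DMaxP P L m' C q0 q1 q2 r0 ω1 ω2 R0' R2' Ra' := by
  subst hm h0 h2 ha
  exact H

/-- **agreement at a popular object** -/
theorem stage_end {η K : ℝ} {p : Par4} {D : Dat4} {n : ℕ} (hA : 0 < D.A n) (hr : 0 < D.r0 n)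
    (R : RwC K η (p.q 0) (p.q 1) (p.q 2) p.g p.g) {b c : ℚ} {J : Finset (ℕ × ℝ)}
    {ε1 β φ ϖ X s lam : ℝ} {k j k' : ℕ} {O' Pj P3 P' : Finset (ℕ × ℤ)}
    (hε1 : 0 < ε1) (hϖ : 0 ≤ ϖ)
    (hw : WidP p D b c β n) (hwr : D.wr 0 n ≤ aP D b c n) (hS : SysM p D b c β ε1 X J n)
    (Z : ZPar (aP D b c n) (wP1 D b c n) (wP2 D b c n) (D.B.d n ^ (-β)) X k)
    (l1 : D.lev n (max b c) ≤ D.lev n 1)
    (hO' : O' ⊆ extO J (D.lev n 1) (D.lev n (max b c) + k)) (hOn : O'.Nonempty)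
    (hD : ∀ x ∈ O', DyM D b c β n k (extO J (D.lev n 1) (D.lev n (max b c) + k)) x j k')
    (hc0 : D.B.d n ^ ε1 * ((J.image (lc (D.lev n (max b c)))).card : ℝ) * 2 ^ k ≤ (O'.card : ℝ))
    (hDp : DeepM p D (max b c) φ ε1 n k j k' O' Pj P3 P'
      (4 * 10 ^ 6 * (D.B.d n ^ (-β) * (wP1 D b c n / 2 ^ k)))
      (4 * 10 ^ 6 * (D.B.d n ^ (-β) * (wP2 D b c n / 2 ^ k)))
      (16 * 10 ^ 5 * (2 ^ k' * aP D b c n)))
    (hω1 : 2 * 2 ^ (k' + j) * ωP1 D n ≤ 2000 * D.B.d n ^ (-β) * (wP1 D b c n / 2 ^ k))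
    (hω2 : 2 * 2 ^ (k' + j) * ωP2 D n ≤ 2000 * D.B.d n ^ (-β) * (wP2 D b c n / 2 ^ k))
    (hV1 : MP p D (max b c) φ n * capB (p.q 0) (p.q 1) (p.q 2) (aP D b c n) (wP1 D b c n)
      (wP2 D b c n) ≤ D.B.d n ^ (-ϖ) * (D.B.d n ^ ε1 *
        (ampA D.B D.A (fun v => p.g * v) n b * D.vm n b)))
    (hV2 : MP p D (max b c) φ n * capB (p.q 0) (p.q 1) (p.q 2) (aP D b c n) (wP1 D b c n)
      (wP2 D b c n) ≤ D.B.d n ^ (-ϖ) * (D.B.d n ^ ε1 *
        (ampA D.B D.A (fun v => p.g * v) n c * D.vm n c)))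
    (lb : D.lev n b ≤ D.lev n (max b c)) (lc' : D.lev n c ≤ D.lev n (max b c))
    {y : ℕ × ℝ} {x : ℕ × ℤ} (hx : x ∈ O') (hxy : lc (D.lev n (max b c)) y = par k x)
    (H : ObjC (mk4 D n b y) (mk4 D n c y) K (aP D b c n) (D.B.d n ^ (-β)) (D.B.d n ^ (-ϖ))
      (D.B.d n ^ ε1) X (cx K p) (c4P p) s lam k) :
    Agree (K * aP D b c n) (s ^ (-K) * aP D b c n) s lam (mk4 D n b y) (mk4 D n c y)
      (D.L n y.1) (zx D n (max b c) y) (rh D n (max b c)) := by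
  have d1 := dpow_pos D.B n ε1
  have dβ := dpow_pos D.B n (-β)
  have hd := D.B.pos n
  have hd1 := (D.B.lt n).le
  have hδ1 : D.B.d n ^ ε1 ≤ 1 := Real.rpow_le_one hd.le hd1 hε1.le
  have hW : 1 ≤ D.B.d n ^ (-ϖ) := by
    have := dpow_le D.B n (show -ϖ ≤ 0 by linarith)
    rwa [Real.rpow_zero] at this
  have ho' : (0:ℝ) < O'.card := by exact_mod_cast card_pos.2 hOn
  have vb0 : 0 < D.vm n b := by
    rw [hw.vb]
    exact mul_pos (capB_pos hw.pb (hw.pb.trans_le (hw.b02.trans hw.b21)) (hw.pb.trans_le hw.b02))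
      (Real.rpow_pos_of_pos (rho_pos' _) _)
  have vc0 : 0 < D.vm n c := by
    rw [hw.vc]
    exact mul_pos (capB_pos hw.pc (hw.pc.trans_le (hw.c02.trans hw.c21)) (hw.pc.trans_le hw.c02))
      (Real.rpow_pos_of_pos (rho_pos' _) _)
  have hA1 : 0 < D.B.d n ^ ε1 * (ampA D.B D.A (fun v => p.g * v) n b * D.vm n b) :=
    mul_pos d1 (mul_pos (mul_pos hA (dpow_pos D.B n _)) vb0)
  have hA2 : 0 < D.B.d n ^ ε1 * (ampA D.B D.A (fun v => p.g * v) n c * D.vm n c) :=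
    mul_pos d1 (mul_pos (mul_pos hA (dpow_pos D.B n _)) vc0)
  have hM : 0 < MP p D (max b c) φ n := by
    unfold MP
    exact mul_pos (dpow_pos D.B n _) (mul_pos (mul_pos hA (dpow_pos D.B n _))
      (Real.rpow_pos_of_pos (rho_pos' _) _))
  have hPjn : Pj.Nonempty := by
    rw [← card_pos]
    have : (0:ℝ) < Pj.card := lt_of_lt_of_le (by positivity) hDp.cj
    exact_mod_cast this
  have hP3n : P3.Nonempty := by
    rw [← card_pos]
    have : (0:ℝ) < P3.card := lt_of_lt_of_le (by positivity) hDp.c3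
    exact_mod_cast this
  have hra : ϱP D n ≤ aP D b c n := max_le (hw.rb.trans (by unfold aP; linarith [hw.pc])) hwr
  have hωω : ωP2 D n ≤ ωP1 D n := le_max_right _ _
  have hω20 : 0 ≤ ωP2 D n := le_max_right _ _
  have eS : D.b n b (clm (D.f n b) (D.lev n b) (D.lev n (max b c)) (lc (D.lev n (max b c)) y)).2 =
      mk4 D n b y := clm_mk4 D n lb y
  have eS' : D.b n c (clm (D.f n c) (D.lev n c) (D.lev n (max b c)) (lc (D.lev n (max b c)) y)).2 =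
      mk4 D n c y := clm_mk4 D n lc' y
  have key := mid_stage (b := fun l : ℤ × ℕ => D.b n b l.2) (b' := fun l : ℤ × ℕ => D.b n c l.2)
    (P := extO J (D.lev n 1) (D.lev n (max b c) + k)) (O' := O') (Pj := Pj) (P3 := P3) (P' := P')
    (M := MP p D (max b c) φ n) (W := D.B.d n ^ (-ϖ)) (δ0 := D.B.d n ^ ε1) (ω1 := ωP1 D n)
    (ω2 := ωP2 D n) (r0 := ϱP D n) (s := s) (lam := lam) (j := j) (k' := k')
    hS.s1 hS.s2 Z R (par_obj l1) hO' hD hPjn hDp.pj hP3n hDp.p3 hDp.pp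
    (hDp.dj.toM (by omega) (by ring) (by ring) (by ring))
    (hDp.d'.toM (by omega) (by ring) (by ring) (by ring))
    (hDp.d3.toM (by omega) (by ring) (by ring) (by ring))
    hc0 (by have := hDp.cj; linarith) (by have := hDp.c3; linarith) hra hM hA1 hA2 d1 hδ1 hW hωω
    hω20 hω1 hω2 hV1 hV2 hx hxy (objC_cast eS eS' H)
  exact agree_cast eS eS' key

theorem ext_ne {J : Finset (ℕ × ℝ)} (hJ : J.Nonempty) (l1 m : ℕ) : (extO J l1 m).Nonempty := by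
  obtain ⟨x, hx⟩ := hJ
  rcases le_total m l1 with h1 | h1
  · exact ⟨lc m x, (mem_extO_le h1).2 ⟨x, hx, rfl⟩⟩
  · refine ⟨(x.1, zc l1 x.2 * 2 ^ (m - l1)), (Crest.Agent.R136.Dia770.mem_extO_ge h1).2
      ⟨x, hx, ?_⟩⟩
    have : (2:ℤ) ^ (m - l1) ≠ 0 := by positivity
    simp only [lc, Prod.mk.injEq, true_and]
    rw [Int.mul_ediv_cancel _ this]

theorem c1P_nonneg {p : Par4} (hq : ∀ k, 0 ≤ p.q k) (hg : 0 ≤ p.g) : 0 ≤ c1P p := by
  have h0 := hq 0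
  have h1 := hq 1
  have h2 := hq 2
  have hC := cwP_nonneg p
  have hQ : 0 ≤ QP p := by unfold QP; linarith
  unfold c1P
  positivity

/-- **`MidC` for one pair of levels** -/
theorem mid_fix {K η : ℝ} (hK : 6500 ≤ K) (hη : 0 < η) (hη1 : 10 ^ 8 * K ^ 2 * η ≤ 1) {p : Par4}
    {D : Dat4} (h : J1 η p D) (hdeep : Dia770.DeepP D.B D.I (D.G p) D.lev D.A p.g D.r0)
    (hcr : CrudeN D) {b c : ℚ} (hb0 : 0 ≤ b) (hb1 : b ≤ 1) (hc0 : 0 ≤ c)
    (hc1 : c ≤ 1) (hbc : b ≠ c) {ε : ℝ} (hε : 0 < ε) :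
    Negl D.B D.I fun n x => ∃ s lam : ℝ, BadM K p D b c (CM p * |(b:ℝ) - c| + ε) n x s lam := by
  by_contra hN
  have R : RwC K η (p.q 0) (p.q 1) (p.q 2) p.g p.g :=
    ⟨hK, hη, hη1, h.q0.1, h.q0.2, h.q2.1, h.q2.2, h.g0.1, h.g1, h.gq, h.g0.1.le, le_rfl⟩
  obtain ⟨q1p, r1, r2, r3, r4, r5, r6, r7⟩ := eta_small (by linarith : 1 ≤ K) R.η0 R.η1 R.q0n R.q0'
    R.q2p R.q2' R.gp R.g' R.gq R.ε0 R.ε1
  have hX1 := XL_nonneg q1p R.q2p r3
  have hX2 := YL_nonneg q1p R.q2p r3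
  have hcx0 : 0 ≤ cx K p := r7
  have hcx24 : 24 * cx K p ≤ 1 := by
    have e1 : cx K p = K * Real.sqrt (p.q 2 / p.q 1) := rfl
    rw [e1]
    have := mul_nonneg r7 (mul_nonneg r3 (add_nonneg hX1 hX2))
    linarith
  have h4 : 0 < c4P p := C4_pos R.q0n q1p R.q2p r3
  have hq : ∀ k, 0 ≤ p.q k := by
    intro k
    fin_cases k
    · exact h.q0.1
    · exact h.g0.2.le
    · exact h.q2.1.le
  obtain ⟨ε1, β, κ, φ, ϖ, E⟩ := exists_exp hq h.g0.1 h4 (abs_nonneg ((b:ℝ) - c)) hε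
  obtain ⟨Cc, hCc, hGood⟩ := hcr b c hb0 hb1 hc0 hc1 hbc
  obtain ⟨C2, hC2, hsmall⟩ := agree_small h hb0 hb1 hc0 hc1 (K := K) (ξ := cx K p) hK hcx0
    (by linarith) hCc
  have hw := widP h hb0 hb1 hc0 hc1 E.ε1p (cwP_nonneg p) (cwP_le p) E.hβ
  have he0 : 0 ≤ CM p * |(b:ℝ) - c| + ε := by
    have h1 : 0 ≤ CM p := mul_nonneg h4.le (c1P_nonneg hq h.g0.1.le)
    have h2 := mul_nonneg h1 (abs_nonneg ((b:ℝ) - c))
    linarith
  have hv0 : 0 ≤ max b c := hb0.trans (le_max_left _ _)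
  have hv1 : max b c ≤ 1 := max_le hb1 hc1
  obtain ⟨J, hJI, hJ, hfull, σ, hσ, hst⟩ := prep h (Bad := BadM K p D b c
    (CM p * |(b:ℝ) - c| + ε)) (Good := GoodM D b c Cc) hN hGood hC2 (by
    filter_upwards [hsmall] with n hsm x hx hg s lam hB
    refine ⟨?_, hB.se.trans ?_⟩
    · by_contra hle
      exact hB.nag (hsm x hx s lam hB.s0 (not_lt.1 hle) hB.l1 hB.lc hB.comp hg hB.k0 hB.kb hB.kc)
    · have := dpow_le D.B n he0
      rwa [Real.rpow_zero] at this)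
  have mb := mark_facts h hb0 hb1
  have mc := mark_facts h hc0 hc1
  have lb := h.mka.lev_mono b (max b c) hb0 (le_max_left _ _) hv1
  have lcc := h.mka.lev_mono c (max b c) hc0 (le_max_right _ _) hv1
  have lv1 := h.mka.lev_mono (max b c) 1 hv0 hv1 le_rfl
  have hε1 := E.ε1p
  have hβ0 := E.β0
  -- the class systems
  obtain ⟨X, hXd⟩ : ∃ X : ℕ → ℝ, X = fun n => 128 * (σ n ^ (-(cx K p)) * aP D b c n) := ⟨_, rfl⟩
  have hsys : ∀ᶠ n in (U : Filter ℕ), SysM p D b c β ε1 (X n) (J n) n := by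
    filter_upwards [sysM h hJ hJI hb0 hb1 hc0 hc1 hε1 hw, hst, mb, mc, hw] with n hs hst mb mc hw
    have hsum : ∀ x ∈ J n, (mk4 D n b x).a + (mk4 D n c x).a = aP D b c n := fun x hx => by
      rw [(mb x (hJI n hx)).2.2.1, (mc x (hJI n hx)).2.2.1]; rfl
    have hle : ∀ s : ℝ, σ n < s → s ^ (-(cx K p)) ≤ σ n ^ (-(cx K p)) := fun s hs =>
      Real.rpow_le_rpow_of_nonpos (hσ n).1 hs.le (by linarith)
    rw [hXd]
    refine hs _ (fun x hx => ?_) (fun x hx => ?_)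
    · obtain ⟨-, s, lam, hB, -, h1, -⟩ := hst.2 x hx
      have := hB.kb
      rw [hsum x hx] at this
      exact this.trans (mul_le_mul_of_nonneg_right (hle s h1) hw.a0.le)
    · obtain ⟨-, s, lam, hB, -, h1, -⟩ := hst.2 x hx
      have := hB.kc
      rw [hsum x hx] at this
      exact this.trans (mul_le_mul_of_nonneg_right (hle s h1) hw.a0.le)
  -- the zoom exponent
  have hzoom : ∀ᶠ n in (U : Filter ℕ), ∃ k : ℕ, 20 * D.B.d n ^ (-β) ≤ 2 ^ k ∧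
      5 * (D.B.d n ^ (-β) * X n) ≤ 2 ^ k * aP D b c n ∧
      2 ^ k ≤ 2 ^ 14 * D.B.d n ^ (-β) * σ n ^ (-(cx K p)) := by
    filter_upwards [hw] with n hw
    have h1 : 1 ≤ σ n ^ (-(cx K p)) :=
      Real.one_le_rpow_of_pos_of_le_one_of_nonpos (hσ n).1 (hσ n).2 (by linarith)
    have h2 : 0 < σ n ^ (-(cx K p)) * aP D b c n := mul_pos (by linarith) hw.a0
    refine zoom_exp hw.a0 hw.B1 h1 ?_
    rw [hXd]
    linarith
  obtain ⟨k, hk⟩ := hzoom.choice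
  -- the objects
  have hobj : ∀ᶠ n in (U : Filter ℕ), ∀ x ∈ J n, ∃ s lam : ℝ,
      BadM K p D b c (CM p * |(b:ℝ) - c| + ε) n x s lam ∧
      ObjC (mk4 D n b x) (mk4 D n c x) K (aP D b c n) (D.B.d n ^ (-β)) (D.B.d n ^ (-ϖ))
        (D.B.d n ^ ε1) (X n) (cx K p) (c4P p) s lam (k n) := by
    filter_upwards [hst, hw, hk, mb, mc, const_le D.B 2 hε1] with n hst hw hk mb mc h2 x hx
    obtain ⟨-, s, lam, hB, -, h1, h3⟩ := hst.2 x hx
    obtain ⟨sb, ib, ea, -, -⟩ := mb x (hJI n hx)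
    obtain ⟨sc, -, ea', -, -⟩ := mc x (hJI n hx)
    refine ⟨s, lam, hB, ?_⟩
    rw [hXd]
    exact objC_of hB hcx0 (by linarith) hw (h.r0pos n) sb ib ea sc ea' (hσ n).1 h3 hk.2.2 h4.le h2
      E.small
  -- not thin
  have hthick : ∀ᶠ n in (U : Filter ℕ), aP D b c n * 2 ^ k n ≤ wP2 D b c n := by
    filter_upwards [hobj, hsys, hw, hst, mb, mc, lb, lcc] with n hobj hS hw hst mb mc lb lcc
    by_contra hc
    rw [not_le] at hc
    obtain ⟨x, hx⟩ := hst.1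
    obtain ⟨s, lam, hB, hO⟩ := hobj x hx
    have hW : 1 ≤ D.B.d n ^ (-ϖ) := by
      have := dpow_le D.B n (show -ϖ ≤ 0 by linarith [E.ϖ0])
      rwa [Real.rpow_zero] at this
    have key := stage_thin2 (b := fun l : ℤ × ℕ => D.b n b l.2) (b' := fun l : ℤ × ℕ => D.b n c l.2)
      hS.s1 hS.s2 R hw.a0 hw.B1 hW (dpow_pos D.B n ε1)
      (Real.rpow_le_one (D.B.pos n).le (D.B.lt n).le hε1.le) hc.le (mem_image_of_mem _ hx)
      (clm_mk4 D n lb x) (clm_mk4 D n lcc x) hO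
    apply hB.nag
    rw [show (mk4 D n b x).a + (mk4 D n c x).a = aP D b c n by
      rw [(mb x (hJI n hx)).2.2.1, (mc x (hJI n hx)).2.2.1]; rfl]
    exact key
  have hZ : ∀ᶠ n in (U : Filter ℕ), ZPar (aP D b c n) (wP1 D b c n) (wP2 D b c n)
      (D.B.d n ^ (-β)) (X n) (k n) := by
    filter_upwards [hw, hk, hthick] with n hw hk ht
    exact ⟨hw.a0, hw.B1, hk.1, hk.2.1, ht, hw.W21⟩
  have hG : ∀ᶠ n in (U : Filter ℕ), ∀ x ∈ J n, GoodM D b c Cc n x := by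
    filter_upwards [hst] with n hst x hx
    exact (hst.2 x hx).1
  have hPn : ∀ᶠ n in (U : Filter ℕ),
      (extO (J n) (D.lev n 1) (D.lev n (max b c) + k n)).Nonempty := by
    filter_upwards [hst] with n hst
    exact ext_ne hst.1 _ _
  -- the tilts
  obtain ⟨C5, hC5⟩ : ∃ C5, C5 = 2 * β + Cc + ε1 := ⟨_, rfl⟩
  have C50 : 0 ≤ C5 := by rw [hC5]; linarith
  obtain ⟨N, hN1, hN2, hN3⟩ := log_card D.B C50
  obtain ⟨j, k', O', hO', hT⟩ := stage_tilts h hJI hb0 hb1 hc0 hc1 hε1 hCc hw hsys hZ hG hPn hC5.ge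
    hN2
  obtain ⟨C3, hC3⟩ : ∃ C3, C3 = (β + C2 + ε1) + 2 * C5 := ⟨_, rfl⟩
  have C30 : 0 ≤ C3 := by rw [hC3]; linarith
  have ht : ∀ᶠ n in (U : Filter ℕ),
      2 ^ (k n + (k' n + j n)) * aP D b c n ≤ 20 * (D.B.d n ^ (-β) * wP1 D b c n) := by
    filter_upwards [hT] with n hT using hT.2.2.1
  have ht' : ∀ᶠ n in (U : Filter ℕ), (2:ℝ) ^ (k n + (k' n + j n)) ≤ D.B.d n ^ (-C3) := by
    filter_upwards [hT, hk, hst, const_le D.B (2 ^ 15) hε1] with n hT hk hst h15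
    obtain ⟨x, hx⟩ := hst.1
    obtain ⟨-, s, lam, hB, h1, h2, h3⟩ := hst.2 x hx
    have d1 := dpow_pos D.B n (-β)
    have d2 := dpow_pos D.B n (-C2)
    have e1 : σ n ^ (-(cx K p)) ≤ 2 * D.B.d n ^ (-C2) := by
      refine (sig_pow (hσ n).1 h3 hB.s0 hcx0 (by linarith)).trans ?_
      have e2 : s ^ (-(cx K p)) ≤ (D.B.d n ^ C2) ^ (-(cx K p)) :=
        Real.rpow_le_rpow_of_nonpos (dpow_pos D.B n C2) h1.le (by linarith)
      have e3 : (D.B.d n ^ C2) ^ (-(cx K p)) ≤ D.B.d n ^ (-C2) := by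
        rw [← Real.rpow_mul (D.B.pos n).le]
        apply dpow_le
        have : C2 * cx K p ≤ C2 * 1 := mul_le_mul_of_nonneg_left (by linarith) hC2
        linarith
      linarith
    have e4 : (2:ℝ) ^ k n ≤ D.B.d n ^ (-(β + C2 + ε1)) := by
      have e5 : D.B.d n ^ (-(β + C2 + ε1)) = D.B.d n ^ (-ε1) * (D.B.d n ^ (-β) * D.B.d n ^ (-C2)) := by
        rw [← dpow_add, ← dpow_add]; congr 1; ring
      rw [e5]
      calc (2:ℝ) ^ k n ≤ 2 ^ 14 * D.B.d n ^ (-β) * σ n ^ (-(cx K p)) := hk.2.2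
        _ ≤ 2 ^ 14 * D.B.d n ^ (-β) * (2 * D.B.d n ^ (-C2)) := by gcongr
        _ = 2 ^ 15 * (D.B.d n ^ (-β) * D.B.d n ^ (-C2)) := by ring
        _ ≤ _ := by gcongr
    have e6 : D.B.d n ^ (-C3) = D.B.d n ^ (-(β + C2 + ε1)) * (D.B.d n ^ (-C5) * D.B.d n ^ (-C5)) := by
      rw [← dpow_add, ← dpow_add]; congr 1; rw [hC3]; ring
    rw [e6, pow_add, pow_add]
    have d3 := dpow_pos D.B n (-(β + C2 + ε1))
    have d5 := dpow_pos D.B n (-C5)
    have := hT.1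
    have := hT.2.1
    gcongr
  obtain ⟨hcard, hcard0⟩ := card_pop h hJI hfull hv0 hv1 hN3 (k := k) (O' := O')
    (by filter_upwards [hT] with n hT using hT.2.2.2.2.1)
  obtain ⟨Pj, P3, P', hDp⟩ := stage_deep h hdeep hJ hJI hfull hb0 hb1 hc0 hc1 hε1 E.ε1g hβ0 E.hκ E.hφ C30 hw
    hO' ht ht' hcard
  -- the end
  have fin : ∀ᶠ n in (U : Filter ℕ), False := by
    filter_upwards [hobj, hsys, hw, hZ, lb, lcc, lv1, hT, ht', hDp, hcard0 ε1 hε1,
      h.wrs 0 0 b hb0 hb1, h.wrs C3 1 b hb0 hb1, h.wrs C3 2 b hb0 hb1,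
      lev_pow h.mka hb0 (le_max_left b c) hv1 hε1, lev_pow h.mka hc0 (le_max_right b c) hv1 hε1,
      mb, mc] with n hobj hS hw hZ lb lcc lv1 hT ht' hDp hcard0 w0 w1 w2 pb pc mb mc
    obtain ⟨t1, t2, t3, hOn, -, hDy⟩ := hT
    obtain ⟨x, hx⟩ := hOn
    obtain ⟨y, hy, hxy⟩ := mem_image.1 (par_obj lv1 x (hO' n hx))
    obtain ⟨s, lam, hB, hO⟩ := hobj y hy
    have dβ := dpow_pos D.B n (-β)
    have dC := dpow_pos D.B n C3
    have pk : (0:ℝ) < 2 ^ k n := by positivity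
    have hW1 : 0 < wP1 D b c n := (hw.pb.trans_le (hw.b02.trans hw.b21)).trans_le hw.b1
    have hW2 : 0 < wP2 D b c n := (hw.pb.trans_le hw.b02).trans_le hw.b2
    have hδb : ((max b c : ℚ) : ℝ) - b ≤ |(b:ℝ) - c| := by
      rw [Rat.cast_max]
      rcases le_total (b:ℝ) c with h1 | h1
      · rw [max_eq_right h1, abs_sub_comm]; exact le_abs_self _
      · rw [max_eq_left h1, sub_self]; exact abs_nonneg _
    have hδc : ((max b c : ℚ) : ℝ) - c ≤ |(b:ℝ) - c| := by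
      rw [Rat.cast_max]
      rcases le_total (b:ℝ) c with h1 | h1
      · rw [max_eq_right h1, sub_self]; exact abs_nonneg _
      · rw [max_eq_left h1]; exact le_abs_self _
    have V1 := vol_num (u := b) (v := max b c) (hq 0) (hq 1) (hq 2) h.g0.1.le (h.mka.Apos n) hw.a0 hW1
      hW2 hw.pb (hw.pb.trans_le (hw.b02.trans hw.b21)) (hw.pb.trans_le hw.b02) hw.ab hw.b1' hw.b2'
      hw.vb lb pb.2.1 hδb E.hϖ
    have V2 := vol_num (u := c) (v := max b c) (hq 0) (hq 1) (hq 2) h.g0.1.le (h.mka.Apos n) hw.a0 hW1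
      hW2 hw.pc (hw.pc.trans_le (hw.c02.trans hw.c21)) (hw.pc.trans_le hw.c02) hw.ac hw.c1' hw.c2'
      hw.vc lcc pc.2.1 hδc E.hϖ
    have hwr : D.wr 0 n ≤ aP D b c n := by
      have := w0.1
      rw [Real.rpow_zero, one_mul] at this
      refine this.trans ?_
      unfold aP
      linarith [hw.pc]
    have om2 : ωP2 D n ≤ D.B.d n ^ C3 * wP2 D b c n :=
      max_le (w2.1.trans (mul_le_mul_of_nonneg_left hw.b2 dC.le)) (by positivity)
    have om1 : ωP1 D n ≤ D.B.d n ^ C3 * wP1 D b c n :=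
      max_le (w1.1.trans (mul_le_mul_of_nonneg_left hw.b1 dC.le))
        (om2.trans (mul_le_mul_of_nonneg_left hw.W21 dC.le))
    have e2 : D.B.d n ^ (-C3) * D.B.d n ^ C3 = 1 := by rw [← dpow_add]; simp
    have hωg : ∀ ω W : ℝ, 0 < W → ω ≤ D.B.d n ^ C3 * W →
        2 * 2 ^ (k' n + j n) * ω ≤ 2000 * D.B.d n ^ (-β) * (W / 2 ^ k n) := by
      intro ω W hW hω
      rw [← mul_div_assoc, le_div_iff₀ pk]
      have d3 := dpow_pos D.B n (-C3)
      calc 2 * 2 ^ (k' n + j n) * ω * 2 ^ k n ≤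
            2 * 2 ^ (k' n + j n) * (D.B.d n ^ C3 * W) * 2 ^ k n := by gcongr
        _ = 2 * (2 ^ (k n + (k' n + j n)) * D.B.d n ^ C3) * W := by
            rw [pow_add 2 (k n)]; ring
        _ ≤ 2 * (D.B.d n ^ (-C3) * D.B.d n ^ C3) * W := by gcongr
        _ = 2 * W := by rw [e2, mul_one]
        _ ≤ 2000 * 1 * W := by linarith
        _ ≤ _ := by
            have := hw.B1
            gcongr
    have key := stage_end (h.mka.Apos n) (h.r0pos n) R hε1 E.ϖ0 hw hwr hS hZ lv1 (hO' n) ⟨x, hx⟩ hDy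
      hcard0 hDp (hωg _ _ hW1 om1) (hωg _ _ hW2 om2) V1 V2 lb lcc hx hxy hO
    apply hB.nag
    rw [show (mk4 D n b y).a + (mk4 D n c y).a = aP D b c n by
      rw [(mb y (hJI n hy)).2.2.1, (mc y (hJI n hy)).2.2.1]; rfl]
    exact key
  obtain ⟨n, hn⟩ := fin.exists
  exact hn

/-- **[MID]**, from the deep D-max -/
theorem midN (hdeep : ∀ (η : ℝ) (p : Par4) (D : Dat4), J1 η p D →
    Dia770.DeepP D.B D.I (D.G p) D.lev D.A p.g D.r0) : MidN kapP := by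
  refine ⟨6500, by norm_num, fun K hK => ⟨1 / (10 ^ 8 * K ^ 2), by positivity, fun p D h hcr =>
    ⟨CM p, ?_, fun b c hb0 hb1 hc0 hc1 hbc ε hε => ?_⟩⟩⟩
  · have hK0 : (0:ℝ) < K := by linarith
    have R1 : 10 ^ 8 * K ^ 2 * (1 / (10 ^ 8 * K ^ 2)) ≤ 1 := by
      rw [mul_one_div_cancel (by positivity)]
    obtain ⟨q1p, r1, r2, r3, r4, r5, r6, r7⟩ := eta_small (by linarith : 1 ≤ K)
      (by positivity : 0 < 1 / (10 ^ 8 * K ^ 2)) R1 h.q0.1 h.q0.2 h.q2.1 h.q2.2 h.g0.1 h.g1 h.gq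
      h.g0.1.le le_rfl
    refine mul_nonneg (C4_pos h.q0.1 q1p h.q2.1 r3).le (c1P_nonneg ?_ h.g0.1.le)
    intro k
    fin_cases k
    · exact h.q0.1
    · exact h.g0.2.le
    · exact h.q2.1.le
  · have hK0 : (0:ℝ) < K := by linarith
    have R1 : 10 ^ 8 * K ^ 2 * (1 / (10 ^ 8 * K ^ 2)) ≤ 1 := by
      rw [mul_one_div_cancel (by positivity)]
    refine (mid_fix hK (by positivity) R1 h (hdeep _ p D h) hcr hb0 hb1 hc0 hc1 hbc hε).mono
      (Eventually.of_forall fun n x _ hx => ?_)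
    obtain ⟨s, lam, h1, h2, h3, h4, h5, h6, h7, h8, h9⟩ := hx
    exact ⟨s, lam, h1, h2, h3, h4, h5, h6, h7, h8, h9⟩

end Crest.Agent.R136.Csj535
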