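import Crest.Agent.R136.GD9_186

/-!
# R136: D-max for chart boxes, final forms (helper186)

* `near_shear` : `Near` is a sheared box without shear;
* `gD_near` : D-max of a chart box, three walls and `Ord` only;
* `gD_perm` : the sizes in any (given) order;
* `gD_ab` : **no order between the two in-plane sizes**, exponent
  `DQ + (q 1 - q 2) * max 0 (p 8 + w0 - cab - p 9)`; `gD_ab_shear` : the same with shears.
-/

set_option autoImplicit false
set_option linter.unusedVariables false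

open Finset Filter Topology

namespace Crest.Agent.R136.GeoQ186

open Crest.Agent.R138.Ex926 (Base U)
open Crest.Agent.R138.Mk163 (zc zl rho alive)
open Crest.Agent.R138.MkRef627 (lc kc)
open Crest.Agent.R138
open Crest.Agent.R136.MkA627
open Crest.Agent.R136.Net191
open Crest.Agent.R136.NetQ186
open Crest.Agent.R136.Sh605
open Crest.Agent.R136.Top484 (geo4 Rng)
open Crest.Agent.R136.PqG464 (pow_lev zc_near ev_const)
open Crest.Agent.R136.Wq638

theorem near_shear {co : ℕ × ℝ → ℕ × ℝ → Fin 11 → ℝ} {d : ℝ} {p : Fin 11 → ℝ} {K : ℝ}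
    {x y : ℕ × ℝ} (h : Near co d p K x y) : NearS (co x y) d p K 0 0 0 := by
  refine ⟨h 0, h 5, ?_, ?_, h 8, ?_, ?_⟩
  · simpa using h 6
  · simpa using h 7
  · simpa using h 9
  · simpa using h 10

section

variable {B : Base} {I : ℕ → Finset (ℕ × ℝ)} {lev : ℕ → ℚ → ℕ}
    {A : ℕ → ℝ} {g s : ℝ} {τ : Fin 3 → ℝ → ℝ} {f : ℕ → ℚ → ℕ → ℤ → ℕ} {b : ℕ → ℚ → ℕ → K4.Plk4}
    {vm : ℕ → ℚ → ℝ} {w : Fin 3 → ℕ → ℚ → ℝ} {L : ℕ → ℕ → Ln4} {r0 : ℕ → ℝ}
    {wr cR : Fin 3 → ℕ → ℝ} {q : Fin 3 → ℝ} {π : Equiv.Perm (Fin 3)} {E Fa Fb : ℕ → ℕ × ℝ → ℝ} {w0 R : ℝ} {p : Fin 11 → ℝ}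

open Classical in
/-- **D-max of a sheared chart box, sizes in a given order.** -/
theorem gD_perm_shear
    (hM : MkA B I (geo4 L r0 wr cR q) lev A (fun v => g * v) (fun v => s * v) τ f b vm w)
    (hq : ∀ j, 0 ≤ q j)
    (hE : ∀ n, ∀ x ∈ I n, |E n x| ≤ 1) (hFa : ∀ n, ∀ x ∈ I n, |Fa n x| ≤ 1)
    (hFb : ∀ n, ∀ x ∈ I n, |Fb n x| ≤ 1) (σ : Equiv.Perm (Fin 3))
    (w8 : p 8 ≤ p 0 + p 5) (w9 : p 9 ≤ p 0 + p 6) (w10 : p 10 ≤ p 0 + p 7)
    (hp0 : w0 ≤ p 0) (hp1 : p 0 ≤ w0 + 1)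
    (hX : TubeOk B r0 wr cR lev (p 0 - w0) (fun k => SQ B lev w w0 p (σ k)))
    {K ε : ℝ} (hK : 0 < K) (hε : 0 < ε) :
    ∃ δ : ℝ, 0 < δ ∧ ∀ᶠ n in (U : Filter ℕ), ∀ x ∈ I n, ∀ μ lam nu : ℝ,
      |μ| * uB B lev w w0 n ≤ B.d n ^ (-δ) * uA B lev w w0 n →
      |lam| * uY B lev w w0 n ≤ B.d n ^ (-δ) * uA B lev w w0 n →
      |nu| * uY B lev w w0 n ≤ B.d n ^ (-δ) * uB B lev w w0 n →
      (((I n).filter fun y => NearS (couQ B lev w w0 (incQ π L E Fa Fb) n x y) (B.d n) p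
        (K * B.d n ^ (-δ)) μ lam nu).card : ℝ) ≤
      N0Q A vm n * B.d n ^ (-(DQ g s q w0 p + ε)) *
        rnk q (fun k => SQ B lev w w0 p k n) σ := by
  have hpos : ∀ j, ∀ᶠ n in (U : Filter ℕ), 0 < w j n 0 := fun j => hM.wpos j 0 le_rfl zero_le_one
  obtain ⟨δ, hδ, h⟩ := gD_any (π := π) (E := E) (Fa := Fa) (Fb := Fb) hM hq hE hFa hFb σ w8 w9
    w10 hp0 hp1 hX hε
  have hδ2 : 0 < δ / 2 := by linarith
  refine ⟨δ / 2, hδ2, ?_⟩
  filter_upwards [h, hpos 0, hpos 1, hpos 2, ev_const B hK hδ2] with n hn h0 h1 h2 hKn x hx μ lam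
    nu hμ hlam hnu
  have a := uA_pos (B := B) (lev := lev) (w0 := w0) h1
  have b := uB_pos (B := B) (lev := lev) (w0 := w0) h2
  have dd : B.d n ^ (-(δ / 2)) ≤ B.d n ^ (-δ) := Dp76.dpow_le B n (by linarith)
  refine le_trans ?_ (hn x hx μ lam nu (hμ.trans (mul_le_mul_of_nonneg_right dd a.le))
    (hlam.trans (mul_le_mul_of_nonneg_right dd a.le))
    (hnu.trans (mul_le_mul_of_nonneg_right dd b.le)))
  norm_cast
  refine Finset.card_le_card fun y hy => ?_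
  rw [mem_filter] at hy ⊢
  refine ⟨hy.1, hy.2.mono (B.pos n) ?_⟩
  have h3 := const_le hKn
  calc K * B.d n ^ (-(δ / 2)) ≤ B.d n ^ (-(δ / 2)) * B.d n ^ (-(δ / 2)) :=
        mul_le_mul_of_nonneg_right h3 (Dp76.dpow_pos B n _).le
    _ = B.d n ^ (-δ) := by rw [← Dp76.dpow_add]; congr 1; ring

open Classical in
/-- from the sheared form to `Near` -/
theorem near_of_shear {N : ℕ → ℝ} {K : ℝ}
    (h : ∃ δ : ℝ, 0 < δ ∧ ∀ᶠ n in (U : Filter ℕ), ∀ x ∈ I n, ∀ μ lam nu : ℝ,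
      |μ| * uB B lev w w0 n ≤ B.d n ^ (-δ) * uA B lev w w0 n →
      |lam| * uY B lev w w0 n ≤ B.d n ^ (-δ) * uA B lev w w0 n →
      |nu| * uY B lev w w0 n ≤ B.d n ^ (-δ) * uB B lev w w0 n →
      (((I n).filter fun y => NearS (couQ B lev w w0 (incQ π L E Fa Fb) n x y) (B.d n) p
        (K * B.d n ^ (-δ)) μ lam nu).card : ℝ) ≤ N n) (hK : 0 ≤ K)
    (hpos : ∀ j, ∀ᶠ n in (U : Filter ℕ), 0 < w j n 0) :
    ∀ᶠ n in (U : Filter ℕ), ∀ x ∈ I n,
      (((I n).filter fun y => Near (couQ B lev w w0 (incQ π L E Fa Fb) n) (B.d n) p K x y).card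
        : ℝ) ≤ N n := by
  obtain ⟨δ, hδ, h⟩ := h
  filter_upwards [h, hpos 1, hpos 2] with n hn h1 h2 x hx
  have a := uA_pos (B := B) (lev := lev) (w0 := w0) h1
  have b := uB_pos (B := B) (lev := lev) (w0 := w0) h2
  have dp := Dp76.dpow_pos B n (-δ)
  have ha : |(0 : ℝ)| * uB B lev w w0 n ≤ B.d n ^ (-δ) * uA B lev w w0 n := by
    rw [abs_zero, zero_mul]; positivity
  have hb : |(0 : ℝ)| * uY B lev w w0 n ≤ B.d n ^ (-δ) * uA B lev w w0 n := by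
    rw [abs_zero, zero_mul]; positivity
  have hc : |(0 : ℝ)| * uY B lev w w0 n ≤ B.d n ^ (-δ) * uB B lev w w0 n := by
    rw [abs_zero, zero_mul]; positivity
  refine le_trans ?_ (hn x hx 0 0 0 ha hb hc)
  norm_cast
  refine Finset.card_le_card fun y hy => ?_
  rw [mem_filter] at hy ⊢
  refine ⟨hy.1, (near_shear hy.2).mono (B.pos n) ?_⟩
  have h3 : (1 : ℝ) ≤ B.d n ^ (-δ) := by
    have := Dp76.dpow_le B n (show -δ ≤ 0 by linarith)
    rwa [Real.rpow_zero] at this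
  exact le_mul_of_one_le_right hK h3

open Classical in
/-- **D-max of a chart box**: the walls `X_a ≤ z + C_a`, `X_b ≤ z + C_b`, `N ≤ z + P` and the usual
order of the sizes -/
theorem gD_near (hM : MkA B I (geo4 L r0 wr cR q) lev A (fun v => g * v) (fun v => s * v) τ f b vm w)
    (hwr : Rng B wr cR w) (hq : ∀ j, 0 ≤ q j)
    (hE : ∀ n, ∀ x ∈ I n, |E n x| ≤ 1) (hFa : ∀ n, ∀ x ∈ I n, |Fa n x| ≤ 1)
    (hFb : ∀ n, ∀ x ∈ I n, |Fb n x| ≤ 1)
    (w8 : p 8 ≤ p 0 + p 5) (w9 : p 9 ≤ p 0 + p 6) (w10 : p 10 ≤ p 0 + p 7)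
    (hp0 : w0 ≤ p 0) (hp1 : p 0 ≤ w0 + 1)
    (hO : Ord B r0 (uH B lev w0) (uA B lev w w0) (uB B lev w w0) (uY B lev w w0) p) :
    ∀ K : ℝ, 1 ≤ K → ∀ ε : ℝ, 0 < ε → ∀ᶠ n in (U : Filter ℕ), ∀ x ∈ I n,
      (((I n).filter fun y => Near (couQ B lev w w0 (incQ π L E Fa Fb) n) (B.d n) p K x y).card
        : ℝ) ≤ N0Q A vm n * B.d n ^ (-(DQ g s q w0 p + ε)) := fun K hK ε hε =>
  near_of_shear (gD_shear hM hwr hq hE hFa hFb w8 w9 w10 hp0 hp1 hO (by linarith) hε) (by linarith)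
    fun j => hM.wpos j 0 le_rfl zero_le_one

/-- sizes of the box in terms of the level-`0` mark -/
theorem SQ_le {cab cby cr cc : ℝ} (h : W0 B r0 lev w cab cby cr cc) {ε : ℝ} (hε : 0 < ε) :
    ∀ᶠ n in (U : Filter ℕ),
      SQ B lev w w0 p 2 n ≤ B.d n ^ (cab + p 9 - w0 - p 8 - ε) * SQ B lev w w0 p 1 n ∧
      SQ B lev w w0 p 0 n ≤ B.d n ^ (cby + p 10 - w0 - p 9 - ε) * SQ B lev w w0 p 2 n ∧
      r0 n ≤ B.d n ^ (cr + 4 * w0 - p 10 - ε) * SQ B lev w w0 p 0 n ∧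
      SQ B lev w w0 p 1 n ≤ B.d n ^ (cc + p 8 - 2 * w0 - ε) * rho (lev n 0) := by
  have dpp := fun n a => Dp76.dpow_pos B n a
  filter_upwards [h.ab ε hε, h.by' ε hε, h.res ε hε, h.cap ε hε, h.pos 0, h.pos 1, h.pos 2]
    with n ab by' res cap h0 h1 h2
  have hρ : 0 < rho (lev n 0) := rho_pos _
  have H := uH_pos (B := B) (lev := lev) (w0 := w0) n
  have hd := B.pos n
  have add : ∀ a b : ℝ, B.d n ^ (a + b) = B.d n ^ a * B.d n ^ b := fun a b => Dp76.dpow_add B n a b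
  -- explicit sizes
  have ew : ∀ (k : Fin 3) (c x : ℝ), w k n 0 / rho (lev n 0) * B.d n ^ c * B.d n ^ x /
      uH B lev w0 n = w k n 0 * B.d n ^ (c + x - w0) := by
    intro k c x
    have hn : B.d n ^ (-w0) = (B.d n ^ w0)⁻¹ := Real.rpow_neg hd.le _
    have h5 := (dpp n w0).ne'
    have h6 : ((2 : ℝ) ^ (lev n 0)) ≠ 0 := by positivity
    rw [sub_eq_add_neg, add, add, hn]
    unfold uH rho
    field_simp
  have s0 : SQ B lev w w0 p 0 n = w 0 n 0 * B.d n ^ (-(3 * w0) + p 10 - w0) := by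
    rw [← ew]; rfl
  have s1 : SQ B lev w w0 p 1 n = w 1 n 0 * B.d n ^ (-w0 + p 8 - w0) := by
    rw [← ew]; rfl
  have s2 : SQ B lev w w0 p 2 n = w 2 n 0 * B.d n ^ (-(2 * w0) + p 9 - w0) := by
    rw [← ew]; rfl
  rw [s0, s1, s2]
  refine ⟨?_, ?_, ?_, ?_⟩
  · calc _ ≤ (B.d n ^ (cab - ε) * w 1 n 0) * B.d n ^ (-(2 * w0) + p 9 - w0) :=
          mul_le_mul_of_nonneg_right ab (dpp n _).le
      _ = w 1 n 0 * (B.d n ^ (cab - ε) * B.d n ^ (-(2 * w0) + p 9 - w0)) := by ring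
      _ = w 1 n 0 * (B.d n ^ (cab + p 9 - w0 - p 8 - ε) * B.d n ^ (-w0 + p 8 - w0)) := by
          rw [← add, ← add]; congr 2; ring
      _ = _ := by ring
  · calc _ ≤ (B.d n ^ (cby - ε) * w 2 n 0) * B.d n ^ (-(3 * w0) + p 10 - w0) :=
          mul_le_mul_of_nonneg_right by' (dpp n _).le
      _ = w 2 n 0 * (B.d n ^ (cby - ε) * B.d n ^ (-(3 * w0) + p 10 - w0)) := by ring
      _ = w 2 n 0 * (B.d n ^ (cby + p 10 - w0 - p 9 - ε) *
            B.d n ^ (-(2 * w0) + p 9 - w0)) := by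
          rw [← add, ← add]; congr 2; ring
      _ = _ := by ring
  · refine res.trans (le_of_eq ?_)
    calc B.d n ^ (cr - ε) * w 0 n 0 =
        w 0 n 0 * B.d n ^ ((cr + 4 * w0 - p 10 - ε) + (-(3 * w0) + p 10 - w0)) := by
          rw [mul_comm]; congr 2; ring
      _ = _ := by rw [add]; ring
  · calc _ ≤ (B.d n ^ (cc - ε) * rho (lev n 0)) * B.d n ^ (-w0 + p 8 - w0) :=
          mul_le_mul_of_nonneg_right cap (dpp n _).le
      _ = rho (lev n 0) * (B.d n ^ (cc - ε) * B.d n ^ (-w0 + p 8 - w0)) := by ring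
      _ = rho (lev n 0) * B.d n ^ (cc + p 8 - 2 * w0 - ε) := by
          rw [← add]; congr 2; ring
      _ = _ := by ring

theorem rnk_swap {S : Fin 3 → ℝ} (hS : ∀ k, 0 < S k) :
    rnk q S (Equiv.swap 1 2) = (S 2 / S 1) ^ (q 1 - q 2) := by
  unfold rnk
  rw [Fin.prod_univ_three]
  have e0 : (Equiv.swap (1 : Fin 3) 2) 0 = 0 := by decide
  have e1 : (Equiv.swap (1 : Fin 3) 2) 1 = 2 := by decide
  have e2 : (Equiv.swap (1 : Fin 3) 2) 2 = 1 := by decide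
  rw [e0, e1, e2, div_self (hS 0).ne', Real.one_rpow, one_mul,
    Real.rpow_sub (div_pos (hS 2) (hS 1)), div_eq_mul_inv ((S 2 / S 1) ^ q 1),
    ← Real.inv_rpow (div_pos (hS 2) (hS 1)).le, inv_div]

open Classical in
/-- **D-max of a sheared chart box, no order between the two in-plane sizes.** -/
theorem gD_ab_shear
    (hM : MkA B I (geo4 L r0 wr cR q) lev A (fun v => g * v) (fun v => s * v) τ f b vm w)
    (hwr : Rng B wr cR w) (hq : ∀ j, 0 ≤ q j) (h12 : q 2 ≤ q 1)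
    (hE : ∀ n, ∀ x ∈ I n, |E n x| ≤ 1) (hFa : ∀ n, ∀ x ∈ I n, |Fa n x| ≤ 1)
    (hFb : ∀ n, ∀ x ∈ I n, |Fb n x| ≤ 1) {cab cby cr cc : ℝ}
    (h : W0 B r0 lev w cab cby cr cc)
    (w8 : p 8 ≤ p 0 + p 5) (w9 : p 9 ≤ p 0 + p 6) (w10 : p 10 ≤ p 0 + p 7)
    (hp0 : w0 ≤ p 0) (hp1 : p 0 ≤ w0 + 1)
    (h2 : p 9 + w0 ≤ p 10 + cby) (h1 : p 8 + 2 * w0 ≤ p 10 + cby + cab)
    (h3 : p 10 ≤ cr + 4 * w0) (h4 : p 0 + w0 < p 8 + cc) (h5 : p 0 + 2 * w0 < p 9 + cab + cc)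
    {K ε : ℝ} (hK : 0 < K) (hε : 0 < ε) :
    ∃ δ : ℝ, 0 < δ ∧ ∀ᶠ n in (U : Filter ℕ), ∀ x ∈ I n, ∀ μ lam nu : ℝ,
      |μ| * uB B lev w w0 n ≤ B.d n ^ (-δ) * uA B lev w w0 n →
      |lam| * uY B lev w w0 n ≤ B.d n ^ (-δ) * uA B lev w w0 n →
      |nu| * uY B lev w w0 n ≤ B.d n ^ (-δ) * uB B lev w w0 n →
      (((I n).filter fun y => NearS (couQ B lev w w0 (incQ π L E Fa Fb) n x y) (B.d n) p
        (K * B.d n ^ (-δ)) μ lam nu).card : ℝ) ≤
      N0Q A vm n * B.d n ^ (-(DQ g s q w0 p +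
        (q 1 - q 2) * max 0 (p 8 + w0 - cab - p 9) + ε)) := by
  have dpp := fun n a => Dp76.dpow_pos B n a
  have hm : 0 ≤ (q 1 - q 2) * max 0 (p 8 + w0 - cab - p 9) :=
    mul_nonneg (by linarith) (le_max_left _ _)
  have hpos : ∀ k, ∀ᶠ n in (U : Filter ℕ), 0 < SQ B lev w w0 p k n := fun k => by
    filter_upwards [h.pos 0, h.pos 1, h.pos 2] with n a b c
    exact SQ_pos a b c k
  -- the two cases
  rcases Ultrafilter.eventually_or.1 (Filter.Eventually.of_forall fun n =>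
    le_total (SQ B lev w w0 p 2 n) (SQ B lev w w0 p 1 n)) with hc | hc
  · -- usual order
    have hT : TubeOk B r0 wr cR lev (p 0 - w0)
        (fun k => SQ B lev w w0 p ((1 : Equiv.Perm (Fin 3)) k)) := by
      refine ⟨fun k => hpos _, fun ε' hε' => ?_, fun ε' hε' => ?_, fun ε' hε' => ?_, ?_,
        fun k C => rng_SQ hwr k C⟩
      · filter_upwards [SQ_le (w0 := w0) (p := p) h hε', hpos 2] with n a b
        exact a.2.1.trans (mul_le_mul_of_nonneg_right (Dp76.dpow_le B n (by linarith)) b.le)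
      · filter_upwards [hc, hpos 1] with n a b
        refine le_trans a (le_mul_of_one_le_left b.le ?_)
        have := Dp76.dpow_le B n (show -ε' ≤ 0 by linarith)
        rwa [Real.rpow_zero] at this
      · filter_upwards [SQ_le (w0 := w0) (p := p) h hε', hpos 0] with n a b
        exact a.2.2.1.trans (mul_le_mul_of_nonneg_right (Dp76.dpow_le B n (by linarith)) b.le)
      · refine ⟨(p 8 + cc - (p 0 + w0)) / 2, by linarith, ?_⟩
        filter_upwards [SQ_le (w0 := w0) (p := p) (ε := (p 8 + cc - (p 0 + w0)) / 2) h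
          (by linarith)] with n a
        exact a.2.2.2.trans (mul_le_mul_of_nonneg_right (Dp76.dpow_le B n (by linarith))
          (rho_pos _).le)
    obtain ⟨δ, hδ, hn⟩ := gD_perm_shear (π := π) (E := E) (Fa := Fa) (Fb := Fb) hM hq hE hFa hFb
      1 w8 w9 w10 hp0 hp1 hT hK hε
    refine ⟨δ, hδ, ?_⟩
    filter_upwards [hn, hpos 0, hpos 1, hpos 2, hM.vpos 0 le_rfl zero_le_one] with n hn a0 a1 a2 av
      x hx μ lam nu hμ hl hnu
    refine (hn x hx μ lam nu hμ hl hnu).trans ?_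
    rw [rnk_one (fun k => by fin_cases k <;> assumption), mul_one]
    refine mul_le_mul_of_nonneg_left (Dp76.dpow_le B n (by linarith)) ?_
    unfold N0Q
    exact mul_nonneg (hM.Apos n).le av.le
  · -- reversed order
    have e0 : (Equiv.swap (1 : Fin 3) 2) 0 = 0 := by decide
    have e1 : (Equiv.swap (1 : Fin 3) 2) 1 = 2 := by decide
    have e2 : (Equiv.swap (1 : Fin 3) 2) 2 = 1 := by decide
    have hT : TubeOk B r0 wr cR lev (p 0 - w0)
        (fun k => SQ B lev w w0 p ((Equiv.swap (1 : Fin 3) 2) k)) := by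
      have hrn : ∀ (k : Fin 3) (C : ℝ), ∀ᶠ n in (U : Filter ℕ),
          wr k n ≤ B.d n ^ C * SQ B lev w w0 p (Equiv.swap (1 : Fin 3) 2 k) n ∧
          SQ B lev w w0 p (Equiv.swap (1 : Fin 3) 2 k) n ≤ B.d n ^ C * cR k n := by
        intro k C
        fin_cases k
        · show ∀ᶠ n in (U : Filter ℕ),
            wr 0 n ≤ B.d n ^ C * SQ B lev w w0 p (Equiv.swap (1 : Fin 3) 2 0) n ∧
            SQ B lev w w0 p (Equiv.swap (1 : Fin 3) 2 0) n ≤ B.d n ^ C * cR 0 n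
          rw [e0]
          exact rng_SQ hwr 0 C
        · show ∀ᶠ n in (U : Filter ℕ),
            wr 1 n ≤ B.d n ^ C * SQ B lev w w0 p (Equiv.swap (1 : Fin 3) 2 1) n ∧
            SQ B lev w w0 p (Equiv.swap (1 : Fin 3) 2 1) n ≤ B.d n ^ C * cR 1 n
          rw [e1]
          filter_upwards [rng_SQ (lev := lev) (w0 := w0) (p := p) hwr 1 C,
            rng_SQ21 (w0 := w0) (p := p) h hwr C, hc] with n h1 h2 h3
          exact ⟨h1.1.trans (mul_le_mul_of_nonneg_left h3 (dpp n C).le), h2.2⟩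
        · show ∀ᶠ n in (U : Filter ℕ),
            wr 2 n ≤ B.d n ^ C * SQ B lev w w0 p (Equiv.swap (1 : Fin 3) 2 2) n ∧
            SQ B lev w w0 p (Equiv.swap (1 : Fin 3) 2 2) n ≤ B.d n ^ C * cR 2 n
          rw [e2]
          filter_upwards [rng_SQ (lev := lev) (w0 := w0) (p := p) hwr 2 C,
            rng_SQ21 (w0 := w0) (p := p) h hwr C, hc] with n h1 h2 h3
          exact ⟨h2.1, h3.trans h1.2⟩
      refine ⟨fun k => hpos _, fun ε' hε' => ?_, fun ε' hε' => ?_, fun ε' hε' => ?_, ?_, hrn⟩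
      · filter_upwards [SQ_le (w0 := w0) (p := p) h (show 0 < ε' / 2 by linarith), hpos 1,
          hpos 2] with n a b c
        show SQ B lev w w0 p (Equiv.swap (1 : Fin 3) 2 0) n ≤
          B.d n ^ (-ε') * SQ B lev w w0 p (Equiv.swap (1 : Fin 3) 2 2) n
        rw [e0, e2]
        refine a.2.1.trans ?_
        calc _ ≤ B.d n ^ (cby + p 10 - w0 - p 9 - ε' / 2) *
              (B.d n ^ (cab + p 9 - w0 - p 8 - ε' / 2) * SQ B lev w w0 p 1 n) :=
              mul_le_mul_of_nonneg_left a.1 (dpp n _).le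
          _ = B.d n ^ ((cby + p 10 - w0 - p 9 - ε' / 2) + (cab + p 9 - w0 - p 8 - ε' / 2)) *
              SQ B lev w w0 p 1 n := by
              rw [Dp76.dpow_add B n (cby + p 10 - w0 - p 9 - ε' / 2)]; ring
          _ ≤ _ := mul_le_mul_of_nonneg_right (Dp76.dpow_le B n (by linarith)) b.le
      · filter_upwards [hc, hpos 2] with n a b
        show SQ B lev w w0 p (Equiv.swap (1 : Fin 3) 2 2) n ≤
          B.d n ^ (-ε') * SQ B lev w w0 p (Equiv.swap (1 : Fin 3) 2 1) n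
        rw [e1, e2]
        refine le_trans a (le_mul_of_one_le_left b.le ?_)
        have := Dp76.dpow_le B n (show -ε' ≤ 0 by linarith)
        rwa [Real.rpow_zero] at this
      · filter_upwards [SQ_le (w0 := w0) (p := p) h hε', hpos 0] with n a b
        show r0 n ≤ B.d n ^ (-ε') * SQ B lev w w0 p (Equiv.swap (1 : Fin 3) 2 0) n
        rw [e0]
        exact a.2.2.1.trans (mul_le_mul_of_nonneg_right (Dp76.dpow_le B n (by linarith)) b.le)
      · obtain ⟨η, hη⟩ : ∃ η : ℝ, η = (p 9 + cab + cc - (p 0 + 2 * w0)) / 3 := ⟨_, rfl⟩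
        have hη0 : 0 < η := by rw [hη]; linarith
        refine ⟨η, hη0, ?_⟩
        filter_upwards [SQ_le (w0 := w0) (p := p) h hη0] with n a
        show SQ B lev w w0 p (Equiv.swap (1 : Fin 3) 2 1) n ≤
          B.d n ^ (p 0 - w0 + η) * rho (lev n 0)
        rw [e1]
        refine a.1.trans ?_
        calc _ ≤ B.d n ^ (cab + p 9 - w0 - p 8 - η) *
              (B.d n ^ (cc + p 8 - 2 * w0 - η) * rho (lev n 0)) :=
              mul_le_mul_of_nonneg_left a.2.2.2 (dpp n _).le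
          _ = B.d n ^ ((cab + p 9 - w0 - p 8 - η) + (cc + p 8 - 2 * w0 - η)) *
              rho (lev n 0) := by
              rw [Dp76.dpow_add B n (cab + p 9 - w0 - p 8 - η)]; ring
          _ ≤ _ := mul_le_mul_of_nonneg_right (Dp76.dpow_le B n (by rw [hη]; linarith))
              (rho_pos _).le
    have hε2 : 0 < ε / 2 := by linarith
    obtain ⟨δ, hδ, hn⟩ := gD_perm_shear (π := π) (E := E) (Fa := Fa) (Fb := Fb) hM hq hE hFa hFb
      (Equiv.swap 1 2) w8 w9 w10 hp0 hp1 hT hK hε2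
    refine ⟨δ, hδ, ?_⟩
    obtain ⟨η, hη⟩ : ∃ η : ℝ, η = ε / (2 * (q 1 - q 2 + 1)) := ⟨_, rfl⟩
    have hq1 : 0 < q 1 - q 2 + 1 := by linarith
    have hη0 : 0 < η := by rw [hη]; positivity
    have hηq : (q 1 - q 2) * η ≤ ε / 2 := by
      have : (q 1 - q 2 + 1) * η = ε / 2 := by rw [hη]; field_simp
      nlinarith
    filter_upwards [hn, hpos 0, hpos 1, hpos 2, hM.vpos 0 le_rfl zero_le_one,
      SQ_le (w0 := w0) (p := p) h hη0] with n hn a0 a1 a2 av ha x hx μ lam nu hμ hl hnu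
    refine (hn x hx μ lam nu hμ hl hnu).trans ?_
    rw [rnk_swap (fun k => by fin_cases k <;> assumption)]
    have hN : 0 ≤ N0Q A vm n := mul_nonneg (hM.Apos n).le av.le
    have h6 : SQ B lev w w0 p 2 n / SQ B lev w w0 p 1 n ≤
        B.d n ^ (-(max 0 (p 8 + w0 - cab - p 9)) - η) := by
      rw [div_le_iff₀ a1]
      refine ha.1.trans (mul_le_mul_of_nonneg_right (Dp76.dpow_le B n ?_) a1.le)
      have := le_max_right 0 (p 8 + w0 - cab - p 9)
      linarith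
    have h7 : (SQ B lev w w0 p 2 n / SQ B lev w w0 p 1 n) ^ (q 1 - q 2) ≤
        B.d n ^ (-((q 1 - q 2) * max 0 (p 8 + w0 - cab - p 9) + ε / 2)) := by
      refine (Real.rpow_le_rpow (div_pos a2 a1).le h6 (by linarith)).trans ?_
      rw [← Real.rpow_mul (B.pos n).le]
      refine Dp76.dpow_le B n ?_
      have e : (-(max 0 (p 8 + w0 - cab - p 9)) - η) * (q 1 - q 2) =
        -((q 1 - q 2) * max 0 (p 8 + w0 - cab - p 9)) - (q 1 - q 2) * η := by ring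
      rw [e]
      linarith
    calc N0Q A vm n * B.d n ^ (-(DQ g s q w0 p + ε / 2)) *
          (SQ B lev w w0 p 2 n / SQ B lev w w0 p 1 n) ^ (q 1 - q 2) ≤
        N0Q A vm n * B.d n ^ (-(DQ g s q w0 p + ε / 2)) *
          B.d n ^ (-((q 1 - q 2) * max 0 (p 8 + w0 - cab - p 9) + ε / 2)) :=
          mul_le_mul_of_nonneg_left h7 (mul_nonneg hN (dpp n _).le)
      _ = _ := by
          rw [mul_assoc, ← Dp76.dpow_add]
          congr 2; ring

open Classical in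
/-- **D-max of a chart box, no order between the two in-plane sizes** (628's `DS`). -/
theorem gD_ab
    (hM : MkA B I (geo4 L r0 wr cR q) lev A (fun v => g * v) (fun v => s * v) τ f b vm w)
    (hwr : Rng B wr cR w) (hq : ∀ j, 0 ≤ q j) (h12 : q 2 ≤ q 1)
    (hE : ∀ n, ∀ x ∈ I n, |E n x| ≤ 1) (hFa : ∀ n, ∀ x ∈ I n, |Fa n x| ≤ 1)
    (hFb : ∀ n, ∀ x ∈ I n, |Fb n x| ≤ 1) {cab cby cr cc : ℝ}
    (h : W0 B r0 lev w cab cby cr cc)
    (w8 : p 8 ≤ p 0 + p 5) (w9 : p 9 ≤ p 0 + p 6) (w10 : p 10 ≤ p 0 + p 7)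
    (hp0 : w0 ≤ p 0) (hp1 : p 0 ≤ w0 + 1)
    (h2 : p 9 + w0 ≤ p 10 + cby) (h1 : p 8 + 2 * w0 ≤ p 10 + cby + cab)
    (h3 : p 10 ≤ cr + 4 * w0) (h4 : p 0 + w0 < p 8 + cc) (h5 : p 0 + 2 * w0 < p 9 + cab + cc) :
    ∀ K : ℝ, 1 ≤ K → ∀ ε : ℝ, 0 < ε → ∀ᶠ n in (U : Filter ℕ), ∀ x ∈ I n,
      (((I n).filter fun y => Near (couQ B lev w w0 (incQ π L E Fa Fb) n) (B.d n) p K x y).card
        : ℝ) ≤ N0Q A vm n * B.d n ^ (-(DQ g s q w0 p +
          (q 1 - q 2) * max 0 (p 8 + w0 - cab - p 9) + ε)) := fun K hK ε hε =>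
  near_of_shear (gD_ab_shear hM hwr hq h12 hE hFa hFb h w8 w9 w10 hp0 hp1 h2 h1 h3 h4 h5 (by linarith)
    hε) (by linarith) h.pos

end

end Crest.Agent.R136.GeoQ186
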