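import Crest.Agent.R136.NatR_550
import Crest.Agent.R136.GD10_186

/-!
# R136 (helper550): D-max of arbitrary boxes of the thick branch, from `186`'s counts

* `w0_base`, `w0_gap` : sizes of the level-`0` mark;
* `dmax_w0` : box in the usual order, any known sizes; `dmax_ab` : no order between `X_a` and `X_b`
  (exponent `DQ + (q 1 - q 2) * max 0 (x 8 + w0 - cab - x 9)`);
* `nat_dmax_w0`, `nat_dmax_ab` : natural boxes;
* `comb_count` : every count on the marked family is a count on the sample.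
-/

set_option autoImplicit false
set_option linter.unusedVariables false

open Finset Filter Topology

namespace Crest.Agent.R136.NatD550

open Crest.Agent.R138.Ex926
open Crest.Agent.R138.Mk163 (zc zl rho)
open Crest.Agent.R138
open Crest.Agent.R136.Net191
open Crest.Agent.R136.NetQ186
open Crest.Agent.R136.Wq638
open Crest.Agent.R136.Lq196
open Crest.Agent.R136.Top484
open Crest.Agent.R136.NatT550
open Crest.Agent.R136.NatR550
open Crest.Agent.R136.GeoQ186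

section

variable {η : ℝ} {p : Par4} {D : Dat4} {I1 : ℕ → Finset (ℕ × ℝ)} {π : Equiv.Perm (Fin 3)}
  {eE fA fB : ℕ → ℕ × ℝ → ℝ} {V T : Fin 11 → Prop} {w0 R T0 : ℝ} {PD : Set (Fin 11 → ℝ)}
  {ν own : (Fin 11 → ℝ) → ℝ} {c₀ : ℝ}

/-- sizes of the level-`0` mark -/
theorem w0_base (h : Thick η p D I1 π eE fA fB V T w0 R T0 PD ν own c₀) :
    W0 D.B D.r0 D.lev D.w (max (p.θ 2 - p.θ 1) 0) (max (p.θ 0 - p.θ 2) 0) (max (1 - p.θ 0) 0)
      (p.θ 1) := by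
  have := (w0_one h.tp.pre.mka).mix (w0_zero h.tp.pre.mka)
  rwa [max_eq_left h.tp.ok.θ1.le] at this

/-- sizes of the level-`0` mark with a gap between thickness and narrow width -/
theorem w0_gap (h : Thick η p D I1 π eE fA fB V T w0 R T0 PD ν own c₀) (hg : Gap23 D) :
    ∃ γ : ℝ, 0 < γ ∧ W0 D.B D.r0 D.lev D.w (max (p.θ 2 - p.θ 1) 0) (max (p.θ 0 - p.θ 2) γ)
      (max (1 - p.θ 0) 0) (p.θ 1) := by
  obtain ⟨γ, hγ, h1⟩ := hg
  have h0 := w0_base h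
  refine ⟨γ, hγ, ⟨h0.pos, h0.ab, fun ε hε => ?_, h0.res, h0.cap⟩⟩
  rcases le_total (p.θ 0 - p.θ 2) γ with hc | hc
  · rw [max_eq_right hc]
    filter_upwards [h1, h0.pos 2] with n hn hp
    exact hn.trans (mul_le_mul_of_nonneg_right (Dp76.dpow_le D.B n (by linarith)) hp.le)
  · rw [max_eq_left hc]
    exact (w0_one h.tp.pre.mka).by' ε hε

/-- **D-max of a box in the usual order** -/
theorem dmax_w0 (h : Thick η p D I1 π eE fA fB V T w0 R T0 PD ν own c₀) (hq : ∀ j, 0 ≤ p.q j)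
    {cab cby cr cc : ℝ} (hW : W0 D.B D.r0 D.lev D.w cab cby cr cc) {x : Fin 11 → ℝ}
    (hx : x ∈ Leg monQ R) (hp0 : w0 ≤ x 0) (hp1 : x 0 ≤ w0 + 1) (h1 : x 8 + w0 ≤ x 9 + cab)
    (h2 : x 9 + w0 ≤ x 10 + cby) (h3 : x 10 ≤ cr + 4 * w0) (h4 : x 0 + w0 < x 8 + cc) :
    ν x ≤ c₀ + DQ p.g 0 p.q w0 x :=
  dmax_PDQ h hq (mem_PDQ hW hx hp0 hp1 h1 h2 h3 h4)

/-- **D-max of a box, no order between the in-plane sizes** -/
theorem dmax_ab (h : Thick η p D I1 π eE fA fB V T w0 R T0 PD ν own c₀) (hq : ∀ j, 0 ≤ p.q j)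
    (h12 : p.q 2 ≤ p.q 1) {cab cby cr cc : ℝ} (hW : W0 D.B D.r0 D.lev D.w cab cby cr cc)
    {x : Fin 11 → ℝ} (hx : x ∈ Leg monQ R) (hp0 : w0 ≤ x 0) (hp1 : x 0 ≤ w0 + 1)
    (h2 : x 9 + w0 ≤ x 10 + cby) (h1 : x 8 + 2 * w0 ≤ x 10 + cby + cab)
    (h3 : x 10 ≤ cr + 4 * w0) (h4 : x 0 + w0 < x 8 + cc) (h5 : x 0 + 2 * w0 < x 9 + cab + cc) :
    ν x ≤ c₀ + (DQ p.g 0 p.q w0 x + (p.q 1 - p.q 2) * max 0 (x 8 + w0 - cab - x 9)) := by
  obtain ⟨-, a1, a2, a3, a4, a5, a6, a7, a8, a9, a10, a11⟩ := legalQ_iff.1 hx.1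
  exact dmax_any h hx (gD_ab h.tp.pre.mka h.tp.wrs hq h12 (fun n y hy => (h.tp.flag n y hy).1)
    (fun n y hy => (h.tp.flag n y hy).2.1) (fun n y hy => (h.tp.flag n y hy).2.2) hW
    (by assumption) (by assumption) (by assumption) hp0 hp1 h2 h1 h3 h4 h5)

/-- **D-max of a natural box in the usual order**, any known sizes of the level-`0` mark -/
theorem nat_dmax_w0 (h : Thick η p D I1 π eE fA fB V T w0 R T0 PD ν own c₀) (hq : ∀ j, 0 ≤ p.q j)
    {cab cby cr cc : ℝ} (hW : W0 D.B D.r0 D.lev D.w cab cby cr cc) {R1 v t1 t2 t3 : ℝ}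
    (hp : nat4 w0 R1 v t1 t2 t3 ∈ Leg monQ R) (h0 : 0 ≤ v) (h1 : v ≤ 1) (ht : -cc < t1)
    (hab : t1 ≤ t2 + cab) (hby : t2 ≤ t3 + cby) (hr : v + t3 ≤ cr) :
    ν (nat4 w0 R1 v t1 t2 t3) ≤ c₀ + DN p v t1 t2 t3 := by
  rw [← DQ_DN p w0 R1]
  refine dmax_w0 h hq hW hp ?_ ?_ ?_ ?_ ?_ ?_
  · show w0 ≤ w0 + v
    linarith
  · show w0 + v ≤ w0 + 1
    linarith
  · show 2 * w0 + (v + t1) + w0 ≤ 3 * w0 + (v + t2) + cab
    linarith
  · show 3 * w0 + (v + t2) + w0 ≤ 4 * w0 + (v + t3) + cby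
    linarith
  · show 4 * w0 + (v + t3) ≤ cr + 4 * w0
    linarith
  · show w0 + v + w0 < 2 * w0 + (v + t1) + cc
    linarith

/-- **D-max of a natural box, no order between the in-plane sizes** -/
theorem nat_dmax_ab (h : Thick η p D I1 π eE fA fB V T w0 R T0 PD ν own c₀) (hq : ∀ j, 0 ≤ p.q j)
    (h12 : p.q 2 ≤ p.q 1) {cab cby cr cc : ℝ} (hW : W0 D.B D.r0 D.lev D.w cab cby cr cc)
    {R1 v t1 t2 t3 : ℝ} (hp : nat4 w0 R1 v t1 t2 t3 ∈ Leg monQ R) (h0 : 0 ≤ v) (h1 : v ≤ 1)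
    (ht : -cc < t1) (ht2 : -(cab + cc) < t2) (hay : t1 ≤ t3 + cby + cab) (hby : t2 ≤ t3 + cby)
    (hr : v + t3 ≤ cr) :
    ν (nat4 w0 R1 v t1 t2 t3) ≤
      c₀ + (DN p v t1 t2 t3 + (p.q 1 - p.q 2) * max 0 (t1 - t2 - cab)) := by
  rw [← DQ_DN p w0 R1]
  have e : t1 - t2 - cab = nat4 w0 R1 v t1 t2 t3 8 + w0 - cab - nat4 w0 R1 v t1 t2 t3 9 := by
    show t1 - t2 - cab = 2 * w0 + (v + t1) + w0 - cab - (3 * w0 + (v + t2))
    ring
  rw [e]
  refine dmax_ab h hq h12 hW hp ?_ ?_ ?_ ?_ ?_ ?_ ?_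
  · show w0 ≤ w0 + v
    linarith
  · show w0 + v ≤ w0 + 1
    linarith
  · show 3 * w0 + (v + t2) + w0 ≤ 4 * w0 + (v + t3) + cby
    linarith
  · show 2 * w0 + (v + t1) + 2 * w0 ≤ 4 * w0 + (v + t3) + cby + cab
    linarith
  · show 4 * w0 + (v + t3) ≤ cr + 4 * w0
    linarith
  · show w0 + v + w0 < 2 * w0 + (v + t1) + cc
    linarith
  · show w0 + v + 2 * w0 < 3 * w0 + (v + t2) + cab + cc
    linarith

open Classical in
/-- **every count on the marked family is a count on the sample** : `S ⊆` sample, `F ⊆` family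
contains all elements of the family in the finest cell and the finest label class of an element of
`S` (then `Near .. (fun _ => R)` in the same finest cell, up to a constant) -/
theorem comb_count (h : Thick η p D I1 π eE fA fB V T w0 R T0 PD ν own c₀) {ε : ℝ} (hε : 0 < ε) :
    ∀ᶠ n in (U : Filter ℕ), ∀ S ⊆ I1 n, ∀ F ⊆ D.I n,
      (∀ i ∈ S, ∀ j ∈ D.I n,
        Near (couQ D.B D.lev D.w w0 (incQ π D.L eE fA fB) n) (D.B.d n) (fun _ => R)
          (triC monQ 2 (cK0 monQ 2)) i j → zc (D.lev n 1) j.2 = zc (D.lev n 1) i.2 → j ∈ F) →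
      ∀ D' : ℝ, (F.card : ℝ) ≤ N0Q D.A D.vm n * D.B.d n ^ (-D') →
        (S.card : ℝ) ≤ D.B.d n ^ (-(c₀ + D' + ε)) := by
  obtain ⟨K, hK1, hK2, -⟩ := h.comb
  have hC : (0 : ℝ) ≤ 2 := by norm_num
  have hK0 : 1 ≤ cK0 monQ 2 := cK0_one hC
  have hR := R_nonneg h
  have hch := h.ext.chart
  filter_upwards [hK1 _ (half_pos hε), hK2, D.B.ev_const_log (Real.log 16) (half_pos hε)]
    with n a1 a2 a4 S hS F hF hSF D' hD
  have hKn : (0 : ℝ) < K n := by exact_mod_cast a1.1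
  have b4 := a2 S hS F hF (fun i hi j hj hc hz => hSF i hi j hj (by
    have e := near_of_nlab hch (top_Leg monQ hR).1 (h.ext.sub n (hS hi)) hj hc.symm
    exact e.mono (D.B.pos n) (triC_ge hC hK0)) hz)
  have b5 : (K n : ℝ) * (S.card : ℝ) ≤ 16 * (N0Q D.A D.vm n * D.B.d n ^ (-D')) := by
    have h1 : (K n : ℝ) * (S.card : ℝ) ≤ 16 * (F.card : ℝ) := by exact_mod_cast b4
    exact h1.trans (mul_le_mul_of_nonneg_left hD (by norm_num))
  have h16 : (16 : ℝ) ≤ D.B.d n ^ (-(ε / 2)) := by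
    rw [← D.B.exp_eq, ← Real.log_le_iff_le_exp (by norm_num)]
    exact a4
  have hN := a1.2.1
  have b6 : (K n : ℝ) * (S.card : ℝ) ≤ K n * D.B.d n ^ (-(c₀ + D' + ε)) := by
    refine b5.trans ?_
    have p1 := Dp76.dpow_pos D.B n (-D')
    have p2 := Dp76.dpow_pos D.B n (-(c₀ + ε / 2))
    calc 16 * (N0Q D.A D.vm n * D.B.d n ^ (-D')) ≤
          D.B.d n ^ (-(ε / 2)) * ((K n * D.B.d n ^ (-(c₀ + ε / 2))) * D.B.d n ^ (-D')) :=
          mul_le_mul h16 (mul_le_mul_of_nonneg_right hN p1.le)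
            (by
              have : 0 ≤ N0Q D.A D.vm n * D.B.d n ^ (-D') := le_trans (Nat.cast_nonneg _) hD
              exact this) (Dp76.dpow_pos _ _ _).le
      _ = K n * (D.B.d n ^ (-(ε / 2)) * D.B.d n ^ (-(c₀ + ε / 2)) * D.B.d n ^ (-D')) := by ring
      _ = K n * D.B.d n ^ (-(c₀ + D' + ε)) := by
          rw [← Dp76.dpow_add, ← Dp76.dpow_add]
          congr 2; ring
  exact le_of_mul_le_mul_left b6 hKn

end

end Crest.Agent.R136.NatD550
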