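import Crest.Agent.R136.Tb3_628
import Crest.Agent.R136.Aw3_413
import Crest.Agent.R136.NatD_550

/-!
# R136 (helper628), part 4: one theorem for a row of the thick table

* `ae_pt` : almost every point of a set `Ω` of the open part of a plane at which the own position is
  known: every tangent is an `AeW`; it has a homogeneous zoom.
* `oS θ` : slopes of the own path; `nprof`, `ownF`, `ownPath` : the facts of `Thick`.
* `RowPt` : everything which is known at the point `pt θ ξ x` of a plane (`PlOk`): homogeneous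
  tangent, splitting, windows (`AeW` with the touching slots `V k ∧ b k = 0`), sweeps.
* `thick_row` : `RowPt ⊢ A.1 ≤ -(4 + κ + κ3)` implies `False`.
* `row_nat`, `row_F` : the natural plane, the plane with slack `F_b`.
* `Cx.recA_ab` : sweep of `C_a` with constant `q 2` without any room.
-/

set_option autoImplicit false
set_option linter.unusedVariables false
set_option linter.unusedSectionVars false

open Finset Filter Topology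

namespace Crest.Agent.R136.Tb628

open Crest.Agent.R136.Net191
open Crest.Agent.R136.NetQ186
open Crest.Agent.R136.NatT550
open Crest.Agent.R136.NatR550
open Crest.Agent.R136.Lq196
open Crest.Agent.R136.Wq638
open Crest.Agent.R136.Gf356
open Crest.Agent.R136.Qg926
open Crest.Agent.R136.Dg219
open Crest.Agent.R136.Dg262 (X)
open Crest.Agent.R136.Aw413
open Crest.Agent.R136.Rc146 (OutA leg_outA)
open Crest.Agent.R138.Ex926 (Base U QProf IsTan)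
open Crest.Agent.R136.Top484 (Par4 Dat4)

/-! ### almost every point of a set of the plane -/

section ae

variable {m : ℕ} {ι : ℕ → Type} [∀ n, DecidableEq (ι n)] [∀ n, Nonempty (ι n)]
  {B : Base} {I J : ∀ n, Finset (ι n)} {co : ∀ n, ι n → ι n → Fin m → ℝ} {M : Mons m}
  {C R : ℝ} {ν own : (Fin m → ℝ) → ℝ} {x0 a b : Fin m → ℝ} {kz : Fin m} {w0 s : ℝ}
  {o : ℝ → Fin m → ℝ} {T V0 V Tw : Fin m → Prop} {κ : Fin m → ℝ}

/-- own position of a point of a plane: `V` = touching slots, `Tw` = tied slots used -/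
structure OwnP (kz : Fin m) (w0 : ℝ) (o : ℝ → Fin m → ℝ) (T V0 V Tw : Fin m → Prop)
    (x : Fin m → ℝ) : Prop where
  l0 : 0 < x kz - w0
  l1 : x kz - w0 < 1
  le : ∀ k, x k ≤ o (x kz - w0) k
  loc : ∀ k, V k ↔ V0 k ∧ x k = o (x kz - w0) k
  sub : ∀ k, Tw k → T k ∧ V k
  nz : ¬ Tw kz

/-- one tangent at one point with splitting -/
theorem aew_pt (hN : NProf B I J co M C R ν) (hO : OwnF M R kz w0 s o T ν own)
    (hP : OwnPath o kz w0 R V0 κ) {z : ℝ × ℝ}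
    (hz : z ∈ (mw M).O (fun _ => 0) (fun _ => R) x0 a b)
    (hQ : OwnP kz w0 o T V0 V Tw (X x0 a b z)) {h : ℕ → ℝ} (hpos : ∀ l, 0 < h l)
    (h0 : Tendsto h atTop (𝓝 0)) {lam : (Fin m → ℝ) → ℝ}
    (ht : IsTan (Leg M R) (coneM (actM M x0 a b)) ν (fun _ => X x0 a b z) h lam) {A : ℝ × ℝ}
    {φ : ℕ → (Fin m → ℝ) → ℝ} {r : ℕ → ℝ}
    (out : OutS (gC a b) (coneM (actM M x0 a b)) (dhC a b) (nC a b) lam A φ r) :
    AeW B B I J co M (actM M x0 a b) C lam a b A φ r kz (1 - s) κ V Tw := by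
  have hV : locV kz w0 o V0 (X x0 a b z) = V := by
    funext k; exact propext (hQ.loc k).symm
  have hB := bas_plane hz hpos h0
  have hOB := ownB_plane h0 (fun k hk => ⟨(hQ.sub k hk).1, ((hQ.loc k).1 (hQ.sub k hk).2).1⟩)
    hQ.l0 hQ.l1 hQ.le (fun k hk => ((hQ.loc k).1 (hQ.sub k hk).2).2)
  rw [hV] at hOB
  exact aew_core hN hB ht out (own_tan hO hP hOB h0 hpos ht) hQ.nz
    fun c hc c' hc' hcc hV hkz hk => drop_tan hO hP hOB h0 hpos ht hc hc' hcc hV hkz hk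

/-- **a.e. point of a set of a plane**: every tangent of `ν` is an `AeW`, with additive splitting;
it has a homogeneous zoom with the same rates which is an `AeW` -/
theorem ae_pt (hN : NProf B I J co M C R ν) (hO : OwnF M R kz w0 s o T ν own)
    (hP : OwnPath o kz w0 R V0 κ) (ha0 : ∀ i, 0 ≤ a i) {Ω : Set (ℝ × ℝ)}
    (hΩ : ∀ z ∈ Ω, z ∈ (mw M).O (fun _ => 0) (fun _ => R) x0 a b)
    (hQ : ∀ z ∈ Ω, OwnP kz w0 o T V0 V Tw (X x0 a b z)) :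
    ∀ᵐ z : ℝ × ℝ, z ∈ Ω → ∃ D : ℝ × ℝ →L[ℝ] ℝ,
      HasFDerivAt (fun z => ν (X x0 a b z)) D z ∧
      (∀ h : ℕ → ℝ, (∀ l, 0 < h l) → Tendsto h atTop (𝓝 0) → ∃ ψ : ℕ → ℕ, StrictMono ψ ∧
        ∃ lam : (Fin m → ℝ) → ℝ, IsTan (Leg M R) (coneM (actM M x0 a b)) ν
          (fun _ => X x0 a b z) (fun l => h (ψ l)) lam) ∧
      ∀ h : ℕ → ℝ, (∀ l, 0 < h l) → Tendsto h atTop (𝓝 0) → ∀ lam : (Fin m → ℝ) → ℝ,
        IsTan (Leg M R) (coneM (actM M x0 a b)) ν (fun _ => X x0 a b z) h lam →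
        ∃ (φ : ℕ → (Fin m → ℝ) → ℝ) (r : ℕ → ℝ),
          OutA (gC a b) (coneM (actM M x0 a b)) a b (dhC a b) (nC a b) lam
            (D (1, 0), D (0, 1)) φ r ∧
          AeW B B I J co M (actM M x0 a b) C lam a b (D (1, 0), D (0, 1)) φ r kz (1 - s) κ
            V Tw ∧
          ∃ (ψ : ℕ → ℕ) (t : ℕ → ℝ) (lam2 : (Fin m → ℝ) → ℝ) (φ2 : ℕ → (Fin m → ℝ) → ℝ),
            (∀ l, l ≤ ψ l) ∧ (∀ l, 0 < t l) ∧ (∀ l, t l ≤ 1) ∧ Tendsto t atTop (𝓝 0) ∧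
            IsTan (Leg M R) (coneM (actM M x0 a b)) ν (fun _ => X x0 a b z)
              (fun l => h (ψ l) * t l) lam2 ∧
            OutA (gC a b) (coneM (actM M x0 a b)) a b (dhC a b) (nC a b) lam2
              (D (1, 0), D (0, 1)) φ2 r ∧
            (∀ k, (∀ i, gC a b i = k → 0 < dhC a b i) → ∀ c ∈ coneM (actM M x0 a b), ∀ s : ℝ,
              0 ≤ s → φ2 k (s • c) = s * φ2 k c) ∧
            (∀ k ∈ Dg219.gset (gC a b), ∀ c ∈ coneM (actM M x0 a b),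
              Tendsto (fun l => φ k (t l • c) / t l) atTop (𝓝 (φ2 k c))) ∧
            AeW B B I J co M (actM M x0 a b) C lam2 a b (D (1, 0), D (0, 1)) φ2 r kz (1 - s) κ
              V Tw := by
  obtain ⟨wv, hG⟩ := exists_grpC (b := b) ha0
  have hm : (0 : ℝ) ≤ m := Nat.cast_nonneg m
  filter_upwards [leg_outA M hm hN.lip (fun p hp q hq hpq => ⟨hN.anti p hp q hq hpq,
    hN.sharp p hp q hq hpq⟩) hN.submod hG (fun _ _ => Iff.rfl) (dirC (a := a) (b := b))]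
    with z hz hzΩ
  have hzO := hΩ z hzΩ
  obtain ⟨D, hD, H⟩ := hz hzO
  refine ⟨D, hD, fun h hpos h0 => ?_, fun h hpos h0 lam ht => ?_⟩
  · rw [coneM_actM]
    exact leg_tan M hm hN.lip hzO hpos h0
  · have ht' := ht
    rw [coneM_actM] at ht'
    obtain ⟨φ, r, g1, ψ, t, lam2, φ2, g2, g3, g4, g5, g6, g7, g8, g9⟩ := H h hpos h0 lam ht'
    rw [← coneM_actM] at g1 g6 g7 g8 g9
    have hpos2 : ∀ l, 0 < h (ψ l) * t l := fun l => mul_pos (hpos _) (g3 l)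
    have hψ : Tendsto ψ atTop atTop := tendsto_atTop_mono g2 tendsto_id
    have h02 : Tendsto (fun l => h (ψ l) * t l) atTop (𝓝 0) := by
      simpa using (h0.comp hψ).mul g5
    exact ⟨φ, r, g1, aew_pt hN hO hP hzO (hQ z hzΩ) hpos h0 ht g1.toOutS,
      ψ, t, lam2, φ2, g2, g3, g4, g5, g6, g7, g8, g9,
      aew_pt hN hO hP hzO (hQ z hzΩ) hpos2 h02 g6 g7.toOutS⟩

end ae

/-! ### own facts of `Thick` -/

/-- slopes of the own path -/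
noncomputable def oS (θ : Fin 3 → ℝ) : Fin 11 → ℝ := pathQ θ 0 0 1

theorem oS_eq (θ : Fin 3 → ℝ) : oS θ = ![1, 0, θ 1 - θ 2, θ 2 - θ 0, θ 1 - θ 0, -θ 1, -θ 2, -θ 0,
    1 - θ 1, 1 - θ 2, 1 - θ 0] := by
  funext k
  fin_cases k <;> simp [oS, pathQ]

theorem pathQ_oS (θ : Fin 3 → ℝ) (w0 R v v' : ℝ) (k : Fin 11) :
    pathQ θ w0 R v' k = pathQ θ w0 R v k + oS θ k * (v' - v) := by
  fin_cases k <;>
    simp only [oS, pathQ, Matrix.cons_val, Fin.zero_eta, Fin.mk_one, Fin.reduceFinMk,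
      Fin.isValue] <;> ring

theorem ownPath (θ : Fin 3 → ℝ) (w0 R : ℝ) (V : Fin 11 → Prop) :
    OwnPath (ownQ θ w0 R V) 0 w0 R V (oS θ) where
  z := fun v _ _ => by simp [ownQ]
  vis := fun k hk v v' _ _ _ _ => by
    by_cases h0 : k = 0
    · subst h0
      simp only [ownQ, if_true]
      have : oS θ 0 = 1 := by simp [oS, pathQ]
      rw [this]; ring
    · simp only [ownQ, if_neg h0, if_pos hk]
      exact pathQ_oS θ w0 R v v' k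
  far := fun k h0 hk v _ _ => by simp [ownQ, h0, hk]

section thick

variable {η : ℝ} {p : Par4} {D : Dat4} {I1 : ℕ → Finset (ℕ × ℝ)} {π : Equiv.Perm (Fin 3)}
  {eE fA fB : ℕ → ℕ × ℝ → ℝ} {V T : Fin 11 → Prop} {PD : Set (Fin 11 → ℝ)}
  {w0 R T0 cab cby cr c₀ κ κ3 : ℝ} {ν own : (Fin 11 → ℝ) → ℝ} {x0 a b : Fin 11 → ℝ}

theorem R_nonneg {θ : Fin 3 → ℝ} (h : BigQ θ w0 R T0) : 0 ≤ R := by
  have h1 := h.T0
  have h2 := h.w0T
  have h3 := h.R0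
  linarith

theorem nprof (h : Thick η p D I1 π eE fA fB V T w0 R T0 PD ν own c₀) :
    NProf D.B D.I I1 (couQ D.B D.lev D.w w0 (incQ π D.L eE fA fB)) monQ 2 R ν :=
  nprof_of_ext h.ext (R_nonneg h.tp.big)

theorem ownF (h : Thick η p D I1 π eE fA fB V T w0 R T0 PD ν own c₀) :
    OwnF monQ R 0 w0 0 (ownQ p.θ w0 R V) T ν own := ownF_of_ext h.ext

/-- record box minus a box of the plane, at the same level -/
theorem PlOk.path_own {θ : Fin 3 → ℝ} (H : PlOk θ w0 R x0 a b) {k : Fin 11} (hk : k ≠ 1)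
    (ξ x : ℝ) : pathQ θ w0 R (ξ - x) k - X x0 a b (pt θ ξ x) k = θ 1 * b k * x := by
  rw [pathQ_lin, ← H.slope k hk, ← H.base k hk]
  simp only [X, pt]
  ring

/-- own position of a point of a plane to the left of the record line -/
theorem ownP (sl : SlotOk p.θ V T) (H : PlOk p.θ w0 R x0 a b) (h1 : 0 < p.θ 1) (ha0 : a 0 = 1)
    (hb0 : b 0 = 0) (hVb : ∀ k, V k → 0 ≤ b k) {ξ x : ℝ} (hx : 0 < x) (hl : x < ξ)
    (hr : ξ < 1) (hO : pt p.θ ξ x ∈ (mw monQ).O (fun _ => 0) (fun _ => R) x0 a b) :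
    OwnP 0 w0 (ownQ p.θ w0 R V) T V (fun k => V k ∧ b k = 0) (fun k => T k ∧ b k = 0)
      (X x0 a b (pt p.θ ξ x)) := by
  have e0 : X x0 a b (pt p.θ ξ x) 0 = w0 + (ξ - x) := by
    have := H.base 0 (by decide)
    simp only [X, pt, ha0, hb0, this]
    simp only [pathQ, Matrix.cons_val]
    ring
  have e1 : X x0 a b (pt p.θ ξ x) 0 - w0 = ξ - x := by rw [e0]; ring
  have ne : ∀ k, V k → k ≠ 0 ∧ k ≠ 1 := fun k hk => by
    rcases (sl.vis k hk).1 with rfl | rfl | rfl <;> exact ⟨by decide, by decide⟩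
  have key : ∀ k, V k → ownQ p.θ w0 R V (ξ - x) k =
      X x0 a b (pt p.θ ξ x) k + p.θ 1 * b k * x := fun k hk => by
    have h2 := H.path_own (ne k hk).2 ξ x
    simp only [ownQ, if_neg (ne k hk).1, if_pos hk]
    linarith
  refine ⟨by rw [e1]; linarith, by rw [e1]; linarith, fun k => ?_, fun k => ?_, fun k hk => ?_,
    fun hk => ?_⟩
  · rw [e1]
    by_cases hk0 : k = 0
    · subst hk0
      simp only [ownQ, if_true]
      exact e0.le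
    · by_cases hk : V k
      · rw [key k hk]
        have := mul_nonneg (mul_nonneg h1.le (hVb k hk)) hx.le
        linarith
      · simp only [ownQ, if_neg hk0, if_neg hk]
        exact ((mem_mwO.1 hO).1 k).2.le
  · rw [e1]
    constructor
    · rintro ⟨hk, hb⟩
      refine ⟨hk, ?_⟩
      rw [key k hk, hb]; ring
    · rintro ⟨hk, hb⟩
      refine ⟨hk, ?_⟩
      rw [key k hk] at hb
      have h2 : p.θ 1 * b k * x = 0 := by linarith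
      rcases mul_eq_zero.1 h2 with h3 | h3
      · rcases mul_eq_zero.1 h3 with h4 | h4
        · exact absurd h4 h1.ne'
        · exact h4
      · exact absurd h3 hx.ne'
  · exact ⟨hk.1, sl.tied k hk.1, hk.2⟩
  · exact (ne 0 (sl.tied 0 hk.1)).1 rfl

/-! ### the facts at one point -/

/-- **everything known at the point `pt θ ξ x`** of the plane `x0 + v a + t b`, for one tangent of
`ν`; the touching slots are `V k ∧ b k = 0`, the tied ones `T k ∧ b k = 0`. -/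
structure RowPt (B : Base) (I I1 : ℕ → Finset (ℕ × ℝ))
    (co : ∀ n : ℕ, ℕ × ℝ → ℕ × ℝ → Fin 11 → ℝ) (θ : Fin 3 → ℝ) (w0 R : ℝ)
    (ν : (Fin 11 → ℝ) → ℝ) (V T : Fin 11 → Prop) (x0 a b : Fin 11 → ℝ) (ξ x : ℝ) (h : ℕ → ℝ)
    (lam : (Fin 11 → ℝ) → ℝ) (A : ℝ × ℝ) (φ : ℕ → (Fin 11 → ℝ) → ℝ) (r : ℕ → ℝ) : Prop where
  ξ0 : 1 / 3 < ξ
  ξ1 : ξ < 2 / 3
  x0' : 0 < x
  x1 : x < 1 / 4
  hpos : ∀ l, 0 < h l
  h0 : Tendsto h atTop (𝓝 0)
  O : pt θ ξ x ∈ (mw monQ).O (fun _ => 0) (fun _ => R) x0 a b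
  tan : IsTan (Leg monQ R) (coneM (actM monQ x0 a b)) ν (fun _ => X x0 a b (pt θ ξ x)) h lam
  out : OutA (gC a b) (coneM (actM monQ x0 a b)) a b (dhC a b) (nC a b) lam A φ r
  aew : AeW B B I I1 co monQ (actM monQ x0 a b) 2 lam a b A φ r 0 1 (oS θ)
    (fun k => V k ∧ b k = 0) (fun k => T k ∧ b k = 0)
  /-- sweeps of the record boxes -/
  sw : ∀ (e : Fin 11 → ℝ) (c1 : ℝ), RecS θ w0 R ν e c1 → (∀ k, 0 ≤ e k) →
    ∀ c ∈ coneM (actM monQ x0 a b), ∀ τ y : ℝ, 0 ≤ y → c + y • e ∈ coneM (actM monQ x0 a b) →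
    (∀ k, k ≠ 1 → a k = 0 → c k ≤ b k * τ) →
    (∀ k, e k ≠ 0 → k ≠ 1 ∧ a k = 0 ∧ c k = b k * τ) → c1 * y ≤ lam c - lam (c + y • e)

/-- homogeneity of the groups -/
def Hom (x0 a b : Fin 11 → ℝ) (φ : ℕ → (Fin 11 → ℝ) → ℝ) : Prop :=
  ∀ k, (∀ i, gC a b i = k → 0 < dhC a b i) → ∀ c ∈ coneM (actM monQ x0 a b), ∀ s : ℝ,
    0 ≤ s → φ k (s • c) = s * φ k c

/-- **S1** -/
theorem RowPt.S1 {B : Base} {I I1 : ℕ → Finset (ℕ × ℝ)}
    {co : ∀ n : ℕ, ℕ × ℝ → ℕ × ℝ → Fin 11 → ℝ} {θ : Fin 3 → ℝ} {ξ x : ℝ} {h : ℕ → ℝ}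
    {lam : (Fin 11 → ℝ) → ℝ} {A : ℝ × ℝ} {φ : ℕ → (Fin 11 → ℝ) → ℝ} {r : ℕ → ℝ}
    (P : RowPt B I I1 co θ w0 R ν V T x0 a b ξ x h lam A φ r) (ha5 : a 5 = 0) (hb5 : b 5 = 1)
    {c1 : ℝ} (hS : RecS θ w0 R ν (eCa 1) c1) {c : Fin 11 → ℝ}
    (hc : c ∈ coneM (actM monQ x0 a b)) {y : ℝ} (hy : 0 ≤ y)
    (hcy : c + eCa y ∈ coneM (actM monQ x0 a b))
    (hb : ∀ k, k ≠ 1 → a k = 0 → c k ≤ b k * c 5) : c1 * y ≤ lam c - lam (c + eCa y) := by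
  rw [← smul_eCa] at hcy ⊢
  refine P.sw _ _ hS (by intro k; fin_cases k <;> simp [eCa]) c hc (c 5) y hy hcy hb ?_
  intro k hke
  fin_cases k <;> simp [eCa] at hke ⊢
  exact ⟨ha5, by rw [hb5, one_mul]⟩

/-- **S2** -/
theorem RowPt.S2 {B : Base} {I I1 : ℕ → Finset (ℕ × ℝ)}
    {co : ∀ n : ℕ, ℕ × ℝ → ℕ × ℝ → Fin 11 → ℝ} {θ : Fin 3 → ℝ} {ξ x : ℝ} {h : ℕ → ℝ}
    {lam : (Fin 11 → ℝ) → ℝ} {A : ℝ × ℝ} {φ : ℕ → (Fin 11 → ℝ) → ℝ} {r : ℕ → ℝ}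
    (P : RowPt B I I1 co θ w0 R ν V T x0 a b ξ x h lam A φ r) (ha2 : a 2 = 0) (ha6 : a 6 = 0)
    {c1 : ℝ} (hS : RecS θ w0 R ν (eECb 1) c1) {c : Fin 11 → ℝ}
    (hc : c ∈ coneM (actM monQ x0 a b)) {τ y : ℝ} (hy : 0 ≤ y)
    (hcy : c + eECb y ∈ coneM (actM monQ x0 a b))
    (hb : ∀ k, k ≠ 1 → a k = 0 → c k ≤ b k * τ) (h2 : c 2 = b 2 * τ) (h6 : c 6 = b 6 * τ) :
    c1 * y ≤ lam c - lam (c + eECb y) := by
  rw [← smul_eECb] at hcy ⊢
  refine P.sw _ _ hS (by intro k; fin_cases k <;> simp [eECb]) c hc τ y hy hcy hb ?_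
  intro k hke
  fin_cases k <;> simp [eECb] at hke ⊢
  · exact ⟨ha2, h2⟩
  · exact ⟨ha6, h6⟩

/-- **almost every point of a plane through the record line** (to the left of it): every tangent
of `ν` has all the facts, and a homogeneous zoom with the same rates which has them too -/
theorem row_ae (h : Thick η p D I1 π eE fA fB V T w0 R T0 PD ν own c₀)
    (C : Cx p.θ p.q p.g w0 R T0 cab cby cr ν c₀) (H : PlOk p.θ w0 R x0 a b) (ha0 : a 0 = 1)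
    (hb0 : b 0 = 0) {S : ℝ} (hS : S ≤ 1 / 4)
    (hO : ∀ z ∈ Om p.θ S, z ∈ (mw monQ).O (fun _ => 0) (fun _ => R) x0 a b)
    (hVb : ∀ k, V k → 0 ≤ b k) :
    ∀ᵐ z : ℝ × ℝ, z ∈ Om p.θ S → ∃ D' : ℝ × ℝ →L[ℝ] ℝ,
      HasFDerivAt (fun z => ν (X x0 a b z)) D' z ∧
      (∀ h : ℕ → ℝ, (∀ l, 0 < h l) → Tendsto h atTop (𝓝 0) → ∃ ψ : ℕ → ℕ, StrictMono ψ ∧
        ∃ lam : (Fin 11 → ℝ) → ℝ, IsTan (Leg monQ R) (coneM (actM monQ x0 a b)) ν
          (fun _ => X x0 a b z) (fun l => h (ψ l)) lam) ∧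
      ∃ ξ x : ℝ, z = pt p.θ ξ x ∧ x < S ∧
      ∀ h : ℕ → ℝ, (∀ l, 0 < h l) → Tendsto h atTop (𝓝 0) → ∀ lam : (Fin 11 → ℝ) → ℝ,
        IsTan (Leg monQ R) (coneM (actM monQ x0 a b)) ν (fun _ => X x0 a b z) h lam →
        ∃ (φ : ℕ → (Fin 11 → ℝ) → ℝ) (r : ℕ → ℝ),
          RowPt D.B D.I I1 (couQ D.B D.lev D.w w0 (incQ π D.L eE fA fB)) p.θ w0 R ν V T x0 a b
            ξ x h lam (D' (1, 0), D' (0, 1)) φ r ∧
          ∃ (ψ : ℕ → ℕ) (t : ℕ → ℝ) (lam2 : (Fin 11 → ℝ) → ℝ) (φ2 : ℕ → (Fin 11 → ℝ) → ℝ),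
            (∀ l, l ≤ ψ l) ∧ (∀ l, 0 < t l) ∧ (∀ l, t l ≤ 1) ∧ Tendsto t atTop (𝓝 0) ∧
            RowPt D.B D.I I1 (couQ D.B D.lev D.w w0 (incQ π D.L eE fA fB)) p.θ w0 R ν V T x0 a b
              ξ x (fun l => h (ψ l) * t l) lam2 (D' (1, 0), D' (0, 1)) φ2 r ∧
            Hom x0 a b φ2 ∧
            ∀ k ∈ Dg219.gset (gC a b), ∀ c ∈ coneM (actM monQ x0 a b),
              Tendsto (fun l => φ k (t l • c) / t l) atTop (𝓝 (φ2 k c)) := by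
  have h1 := C.th1
  filter_upwards [ae_pt (V := fun k => V k ∧ b k = 0) (Tw := fun k => T k ∧ b k = 0)
    (nprof h) (ownF h) (ownPath p.θ w0 R V) H.a0 (Ω := Om p.θ S) hO (by
      intro z hz
      have hzO := hO z hz
      obtain ⟨ξ, x, g1, g2, g3, g4, rfl⟩ := hz
      exact ownP h.tp.slots H h1 ha0 hb0 hVb g3 (by linarith) (by linarith) hzO)] with z hz hzΩ
  obtain ⟨D', hD, H1, H2⟩ := hz hzΩ
  have hzO := hO z hzΩ
  obtain ⟨ξ, x, g1, g2, g3, g4, rfl⟩ := hzΩ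
  refine ⟨D', hD, H1, ξ, x, rfl, g4, fun h' hpos h0 lam ht => ?_⟩
  obtain ⟨φ, r, k1, k2, ψ, t, lam2, φ2, k3, k4, k5, k6, k7, k8, k9, k10, k11⟩ := H2 h' hpos h0 lam ht
  have key : ∀ (h' : ℕ → ℝ) (lam : (Fin 11 → ℝ) → ℝ) (φ : ℕ → (Fin 11 → ℝ) → ℝ),
      (∀ l, 0 < h' l) → Tendsto h' atTop (𝓝 0) →
      IsTan (Leg monQ R) (coneM (actM monQ x0 a b)) ν (fun _ => X x0 a b (pt p.θ ξ x)) h' lam →
      OutA (gC a b) (coneM (actM monQ x0 a b)) a b (dhC a b) (nC a b) lam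
        (D' (1, 0), D' (0, 1)) φ r →
      AeW D.B D.B D.I I1 (couQ D.B D.lev D.w w0 (incQ π D.L eE fA fB)) monQ (actM monQ x0 a b) 2
        lam a b (D' (1, 0), D' (0, 1)) φ r 0 (1 - 0) (oS p.θ) (fun k => V k ∧ b k = 0)
        (fun k => T k ∧ b k = 0) →
      RowPt D.B D.I I1 (couQ D.B D.lev D.w w0 (incQ π D.L eE fA fB)) p.θ w0 R ν V T x0 a b
            ξ x h' lam (D' (1, 0), D' (0, 1)) φ r := by
    intro h' lam φ e1 e2 e3 e4 e5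
    rw [sub_zero] at e5
    exact ⟨g1, g2, g3, by linarith, e1, e2, hzO, e3, e4, e5, fun e c1 f1 f2 c hc τ y f3 f4 f5 f6 =>
      C.sweepP H f1 f2 g1 g2 g3 (zl := fun _ => pt p.θ ξ x) tendsto_const_nhds e1 e2 e3 hc f3 f4
        f5 f6⟩
  have hpos2 : ∀ l, 0 < h' (ψ l) * t l := fun l => mul_pos (hpos _) (k4 l)
  have hψ : Tendsto ψ atTop atTop := tendsto_atTop_mono k3 tendsto_id
  have h02 : Tendsto (fun l => h' (ψ l) * t l) atTop (𝓝 0) := by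
    simpa using (h0.comp hψ).mul k6
  exact ⟨φ, r, key _ _ _ hpos h0 ht k1 k2, ψ, t, lam2, φ2, k3, k4, k5, k6,
    key _ _ _ hpos2 h02 k7 k8 k11, k9, k10⟩

/-- **one row of the thick table**, any plane through the record line -/
theorem thick_row (h : Thick η p D I1 π eE fA fB V T w0 R T0 PD ν own c₀)
    (C : Cx p.θ p.q p.g w0 R T0 cab cby cr ν c₀) (H : PlOk p.θ w0 R x0 a b) (ha0 : a 0 = 1)
    (hb0 : b 0 = 0) (hk : 0 ≤ κ) (hk3 : κ ≤ κ3) {S : ℝ} (hS : Small p.θ cab cby κ κ3 S)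
    (hO : ∀ z ∈ Om p.θ S, z ∈ (mw monQ).O (fun _ => 0) (fun _ => R) x0 a b)
    (hleg : ∀ ξ ∈ Set.Ioo (1 / 3 : ℝ) (2 / 3), ∀ x, 0 ≤ x → x ≤ S →
      X x0 a b (pt p.θ ξ x) ∈ Leg monQ R)
    (hge : ∀ ξ ∈ Set.Ioo (1 / 3 : ℝ) (2 / 3),
      Tb628.srf p.θ w0 (R - 1) κ κ3 (pt p.θ ξ S) ≤ X x0 a b (pt p.θ ξ S))
    (hsl : p.q 2 * κ + p.q 0 * κ3 < p.g) (hVb : ∀ k, V k → 0 ≤ b k)
    (F : ∀ (ξ x : ℝ) (h : ℕ → ℝ) (lam : (Fin 11 → ℝ) → ℝ) (A : ℝ × ℝ)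
      (φ : ℕ → (Fin 11 → ℝ) → ℝ) (r : ℕ → ℝ), x < S →
      RowPt D.B D.I I1 (couQ D.B D.lev D.w w0 (incQ π D.L eE fA fB)) p.θ w0 R ν V T x0 a b
        ξ x h lam A φ r → Hom x0 a b φ → A.1 ≤ -(4 + κ + κ3)) : False := by
  refine C.deadP H hk hk3 hS hleg hge hsl ?_
  filter_upwards [row_ae h C H ha0 hb0 hS.le hO hVb] with z hz hzΩ
  obtain ⟨D', hD, H1, ξ, x, -, g4, H2⟩ := hz hzΩ
  obtain ⟨h', hpos, h0⟩ := exists_seq
  obtain ⟨ψ, hψ, lam, ht⟩ := H1 h' hpos h0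
  obtain ⟨φ, r, -, ψ2, t, lam2, φ2, k3, k4, k5, k6, k7, k8, -⟩ :=
    H2 _ (fun l => hpos _) (h0.comp hψ.tendsto_atTop) lam ht
  exact ⟨D', hD, F ξ x _ lam2 _ φ2 r g4 k7 k8⟩

end thick

end Crest.Agent.R136.Tb628
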