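import Crest.Agent.R136.LadW2_697
import Crest.Agent.R136.ExtZ_779

/-!
# R136, thin branch (helper830): THE FIRST STAGE of the ladder of the W-chart

* `prf_leg` : profile facts `Prf (Leg M R) ν own m` (any triangular chart)
* `leg_loc` : local legality at an interior natural box
* `FactW θ g q w0 R V PD ν own c₀` : facts about a profile of the W-chart (marked record path
  `pathW θ w0`, own path `ownW θ w0 R V`), `FactW.ofQ` (from `ExtQ`), `FactW.ofZ` (from `ExtZ`)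
* `FactW.init` : `∃ lam lo, StW (Leg monW R) ν own 18 (pathW θ w0 v1) θ g q {k | V k} 4 lam lo`
* `thin_init` : the same for `Thin`
-/

set_option autoImplicit false
set_option linter.unusedVariables false

open Finset Filter Topology

namespace Crest.Agent.R136.ThS830

open Crest.Agent.R138.Ex926 (Base U QProf cls mem_cls)
open Crest.Agent.R136.Net191
open Crest.Agent.R136.NetW191
open Crest.Agent.R136.Lq196
open Crest.Agent.R136.PrW464
open Crest.Agent.R136.NatW697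
open Crest.Agent.R136.K2S774
open Crest.Agent.R136.LadW697
open Crest.Agent.R136.Top484
open Crest.Agent.R136.Wq638 (EQ)
open Crest.Agent.R136.Dg219 (Walls mw)

/-! ### profile facts -/

section prf

variable {m : ℕ} {M : Mons m} {R : ℝ}

/-- Lipschitz from the lattice structure -/
theorem abs_of_mono {f : (Fin m → ℝ) → ℝ}
    (H : ∀ p ∈ Leg M R, ∀ q ∈ Leg M R, p ≤ q → 0 ≤ f p - f q ∧ f p - f q ≤ ∑ k, (q k - p k)) :
    ∀ p ∈ Leg M R, ∀ q ∈ Leg M R, |f p - f q| ≤ m * ‖p - q‖ := by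
  intro p hp q hq
  have hs := Leg.sup hp hq
  have h1 := H p hp _ hs le_sup_left
  have h2 := H q hq _ hs le_sup_right
  have key : ∀ a b : Fin m → ℝ, ∑ k, ((a ⊔ b) k - a k) ≤ m * ‖a - b‖ := by
    intro a b
    have h3 : ∀ k ∈ (Finset.univ : Finset (Fin m)), (a ⊔ b) k - a k ≤ ‖a - b‖ := by
      intro k _
      have h4 : |a k - b k| ≤ ‖a - b‖ := by
        have := norm_le_pi_norm (a - b) k
        rwa [Real.norm_eq_abs] at this
      have h5 := abs_le.1 h4
      rw [Pi.sup_apply]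
      rcases le_total (a k) (b k) with h | h
      · rw [sup_eq_right.2 h]; linarith [h5.1]
      · rw [sup_eq_left.2 h, sub_self]; exact norm_nonneg _
    refine (Finset.sum_le_sum h3).trans ?_
    rw [Finset.sum_const, Finset.card_univ, Fintype.card_fin, nsmul_eq_mul]
  have k1 := key p q
  have k2 := key q p
  rw [sup_comm, norm_sub_rev] at k2
  rw [abs_le]
  constructor <;> linarith [h1.1, h1.2, h2.1, h2.2]

/-- **profile facts for 774's ladder**, any triangular chart -/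
theorem prf_leg {ν own : (Fin m → ℝ) → ℝ}
    (lip : ∀ p ∈ Leg M R, ∀ q ∈ Leg M R, p ≤ q → 0 ≤ ν p - ν q ∧ ν p - ν q ≤ ∑ k, (q k - p k))
    (sub : ∀ p ∈ Leg M R, ∀ q ∈ Leg M R, p ⊓ q ∈ Leg M R → ν p + ν q ≤ ν (p ⊔ q) + ν (p ⊓ q))
    (oanti : ∀ p ∈ Leg M R, ∀ q ∈ Leg M R, p ≤ q → own q ≤ own p)
    (own_le : ∀ p ∈ Leg M R, ∀ q ∈ Leg M R, p ≤ q → own p - own q ≤ ν p - ν q) :
    Prf (Leg M R) ν own m where
  K0 := Nat.cast_nonneg m
  lip := abs_of_mono lip
  olip := abs_of_mono fun p hp q hq hpq => ⟨sub_nonneg.2 (oanti p hp q hq hpq),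
    (own_le p hp q hq hpq).trans (lip p hp q hq hpq).2⟩
  mono := fun p hp q hq hpq => sub_nonneg.1 (lip p hp q hq hpq).1
  sharp := fun p hp q hq hpq => (lip p hp q hq hpq).2
  sup := fun p hp q hq h1 _ => sub p hp q hq h1
  own_le := own_le

/-- profiles are antitone -/
theorem qprof_anti {B : Base} {ι κ : ℕ → Type*} [∀ n, DecidableEq (ι n)] [∀ n, DecidableEq (κ n)]
    {V : Type*} [LE V] {I : ∀ n, Finset (ι n)} {f : ∀ n, V → ι n → κ n} {P : Set V} {ν : V → ℝ}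
    (h : QProf B I f P ν) (hne : ∀ᶠ n in (U : Filter ℕ), (I n).Nonempty) {p q : V} (hp : p ∈ P)
    (hq : q ∈ P) (hqp : q ≤ p) : ν p ≤ ν q := by
  by_contra hcon
  rw [not_le] at hcon
  have hε : 0 < (ν p - ν q) / 2 := by linarith
  obtain ⟨n, h1, h2⟩ := ((h.num _ hε).and hne).exists
  obtain ⟨i, hi⟩ := h2
  have h3 := h1 q hq p hp hqp i hi
  have h4 : (1 : ℝ) ≤ (((cls (I n) (f n q) i).image (f n p)).card : ℝ) := by
    have : ((cls (I n) (f n q) i).image (f n p)).Nonempty :=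
      ⟨_, mem_image_of_mem _ (mem_cls.2 ⟨hi, rfl⟩)⟩
    exact_mod_cast this.card_pos
  have h5 : B.d n ^ (-(ν q - ν p + (ν p - ν q) / 2)) < 1 :=
    Real.rpow_lt_one (B.pos n).le (B.lt n) (by linarith)
  linarith

end prf

/-! ### local legality -/

/-- **local legality** at an interior natural box -/
theorem leg_loc {m : ℕ} {M : Mons m} {R δ : ℝ} {x : Fin m → ℝ} {A : (Σ k : Fin m, {e // e ∈ M.mon k}) → Prop}
    (hA : ∀ w, A w) (hn : Nat (mw M) A x) (hδ : 0 < δ) (h0 : ∀ k, δ ≤ x k) (h1 : ∀ k, x k + δ ≤ R)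
    (C : ℝ) : ∃ h0 : ℝ, 0 < h0 ∧ ∀ h : ℝ, 0 < h → h < h0 → ∀ c ∈ cn (mw M) A, ‖c‖ ≤ C →
      x + h • c ∈ Leg M R := by
  refine ⟨δ / (|C| + 1), by positivity, fun h hh hh1 c hc hcC => ?_⟩
  have hm := cn_nat_add hn hc hh.le
  have hb : h * (|C| + 1) < δ := (lt_div_iff₀ (by positivity)).1 hh1
  have hk : ∀ k, |h * c k| ≤ δ := by
    intro k
    rw [abs_mul, abs_of_pos hh]
    have h2 : |c k| ≤ |C| + 1 := by
      have := norm_le_pi_norm c k
      rw [Real.norm_eq_abs] at this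
      have := le_abs_self C
      linarith
    exact (mul_le_mul_of_nonneg_left h2 hh.le).trans hb.le
  refine ⟨⟨fun k => ?_, fun k e he => ?_⟩, fun k => ?_⟩
  · have h2 := (abs_le.1 (hk k)).1
    have h3 := h0 k
    simp only [Pi.add_apply, Pi.smul_apply, smul_eq_mul]
    linarith
  · exact hm ⟨k, e, he⟩ (hA _)
  · have h2 := (abs_le.1 (hk k)).2
    have h3 := h1 k
    simp only [Pi.add_apply, Pi.smul_apply, smul_eq_mul]
    linarith

/-- the record box is `1` inside -/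
theorem path_le {θ : Fin 3 → ℝ} {w0 R T : ℝ} (h : BigW θ w0 R T) {v : ℝ} (h0 : 0 ≤ v)
    (h1 : v ≤ 1) (k : Fin 18) : pathW θ w0 v k + 1 ≤ R := by
  have a0 := h.bd h0 h1 0
  have a1 := h.bd h0 h1 1
  have b0 := h.T0
  have b1 := h.w0T
  have b2 := h.R0
  have : pathW θ w0 v k ≤ R - 1 :=
    grW_le (by linarith) (by linarith) (by linarith) (by linarith) k
  linarith

theorem path_nat (A : WW → Prop) (θ : Fin 3 → ℝ) (w0 v : ℝ) : Nat QW A (pathW θ w0 v) :=
  nat_grW A _ _ _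

/-- **local legality at the record points** -/
theorem path_loc {θ : Fin 3 → ℝ} {w0 R T : ℝ} (h : BigW θ w0 R T) {v : ℝ} (h0 : 0 ≤ v)
    (h1 : v ≤ 1) (C : ℝ) : ∃ h0 : ℝ, 0 < h0 ∧ ∀ h : ℝ, 0 < h → h < h0 →
      ∀ c ∈ cn QW (fun _ => True), ‖c‖ ≤ C → pathW θ w0 v + h • c ∈ Leg monW R :=
  leg_loc (fun _ => trivial) (path_nat _ θ w0 v) one_pos (h.path_ge h0 h1) (path_le h h0 h1) C

/-! ### facts about a profile of the W-chart -/

/-- **facts about a profile of the W-chart** -/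
structure FactW (θ : Fin 3 → ℝ) (g : ℝ) (q : Fin 3 → ℝ) (w0 R T : ℝ) (V : Set (Fin 18))
    (ν own : (Fin 18 → ℝ) → ℝ) (c₀ : ℝ) : Prop where
  big : BigW θ w0 R T
  prf : Prf (Leg monW R) ν own 18
  /-- D-max near the interior record points -/
  dmax : ∀ v1 : ℝ, 0 < v1 → v1 < 1 → ∃ δ : ℝ, 0 < δ ∧ ∀ x ∈ Leg monW R,
    (∀ k, |x k - pathW θ w0 v1 k| ≤ δ) → x 17 ≤ 9 * w0 + max 0 (1 - θ 0) →
    ν x ≤ c₀ + DW g 0 q w0 x
  record : ∀ v : ℝ, 0 < v → v < 1 → c₀ + DW g 0 q w0 (pathW θ w0 v) ≤ ν (pathW θ w0 v)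
  own_rot : ∀ p ∈ Leg monW R, ∀ v : ℝ, 0 ≤ v → v ≤ 1 → p 0 = w0 + v →
    (∀ k ∈ V, p k ≤ pathW θ w0 v k) → own p = 1 - v
  own_up : ∀ p ∈ Leg monW R, ∀ v : ℝ, 0 ≤ v → v ≤ 1 → p 0 = w0 + v → own p ≤ 1 - v

section

variable {θ : Fin 3 → ℝ} {g : ℝ} {q : Fin 3 → ℝ} {w0 R T : ℝ} {V : Set (Fin 18)}
  {ν own : (Fin 18 → ℝ) → ℝ} {c₀ : ℝ}

/-- thickness of the record boxes -/
theorem path17_le (θ : Fin 3 → ℝ) (w0 : ℝ) {v : ℝ} (h0 : 0 ≤ v) (h1 : v ≤ 1) :
    pathW θ w0 v 17 ≤ 9 * w0 + max 0 (1 - θ 0) := by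
  have e : pathW θ w0 v 17 = 9 * w0 + (1 - θ 0) * v := by
    rw [pathW_nat, natW_N]
  rw [e]
  have h2 : (1 - θ 0) * v ≤ max 0 (1 - θ 0) := by
    rcases le_total 0 (1 - θ 0) with h3 | h3
    · exact (mul_le_of_le_one_right h3 h1).trans (le_max_right _ _)
    · exact (mul_nonpos_of_nonpos_of_nonneg h3 h0).trans (le_max_left _ _)
  linarith

theorem FactW.record_eq (H : FactW θ g q w0 R T V ν own c₀) {v : ℝ} (h0 : 0 < v) (h1 : v < 1) :
    ν (pathW θ w0 v) = c₀ + DW g 0 q w0 (pathW θ w0 v) := by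
  obtain ⟨δ, hδ, hD⟩ := H.dmax v h0 h1
  refine le_antisymm (hD _ (H.big.path_leg h0.le h1.le) (fun k => ?_)
    (path17_le θ w0 h0.le h1.le)) (H.record v h0 h1)
  rw [sub_self, abs_zero]; exact hδ.le

theorem path_add (θ : Fin 3 → ℝ) (w0 v t : ℝ) :
    pathW θ w0 v + t • btW θ = pathW θ w0 (v + t) := by
  funext k
  simp only [Pi.add_apply, Pi.smul_apply, smul_eq_mul, pathW_eq]
  ring

theorem ev_small {a C : ℝ} (ha : 0 < a) : ∀ᶠ h in 𝓝[>] (0:ℝ), 0 < h ∧ h * C < a := by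
  have h1 : Tendsto (fun h : ℝ => h * C) (𝓝[>] 0) (𝓝 0) := by
    have : Tendsto (fun h : ℝ => h * C) (𝓝 0) (𝓝 (0 * C)) :=
      (continuous_id.mul continuous_const).tendsto 0
    rw [zero_mul] at this
    exact this.mono_left nhdsWithin_le_nhds
  exact (eventually_mem_nhdsWithin.mono fun h hh => hh).and (h1.eventually_lt_const ha)

theorem btW_zero (θ : Fin 3 → ℝ) : btW θ 0 = 1 := by simp [btW, grW, wz, wc, wn]

theorem path_zero (θ : Fin 3 → ℝ) (w0 v : ℝ) : pathW θ w0 v 0 = w0 + v := by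
  simp [pathW, grW, wz, wc, wn]

/-- **THE FIRST STAGE**, from the facts -/
theorem FactW.init (H : FactW θ g q w0 R T V ν own c₀) {v1 : ℝ} (h0 : 0 < v1) (h1 : v1 < 1) :
    ∃ lam lo, StW (Leg monW R) ν own 18 (pathW θ w0 v1) θ g q V 4 lam lo := by
  set r0 := pathW θ w0 v1 with hr0
  have hrl := H.big.path_leg h0.le h1.le
  have hown0 : own r0 = 1 - v1 :=
    H.own_rot r0 hrl v1 h0.le h1.le (path_zero θ w0 v1) fun k _ => le_rfl
  have hrec := H.record_eq h0 h1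
  -- small steps
  have hlegd : ∀ d ∈ cn QW (fun _ => True), ∀ᶠ h in 𝓝[>] (0:ℝ), r0 + h • d ∈ Leg monW R := by
    intro d hd
    obtain ⟨e, he, H1⟩ := path_loc H.big h0.le h1.le ‖d‖
    filter_upwards [ev_small (C := 1) he] with h hh
    exact H1 h hh.1 (by linarith [hh.2]) d hd le_rfl
  have hv : ∀ t : ℝ, ∀ᶠ h in 𝓝[>] (0:ℝ), 0 < v1 + h * t ∧ v1 + h * t < 1 := by
    intro t
    filter_upwards [ev_small (C := t) (sub_pos.2 h1), ev_small (C := -t) h0] with h a1 a2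
    constructor <;> linarith [a1.2, a2.2]
  have key := stage_init (Q := QW) (A := actW (DrW 4)) (P := Leg monW R) (ν := ν) (own := own)
    (K := 18) (r0 := r0) (ρ := btW θ) (Dl := DlW g q) (Qd := QdW θ)
    (Z := {1}) (Tie := V) (kz := 0) (o := btW θ) (τ := 1) H.prf (recW θ (DrW 4) V)
    (fun w _ => by
      rw [cst_QW, add_zero]; exact path_nat (fun _ => True) θ w0 v1 w trivial)
    (fun w hw => absurd (by rw [DrW_four le_rfl, actW_empty]; trivial) hw)
    (fun C => by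
      rw [DrW_four le_rfl, actW_empty]
      exact path_loc H.big h0.le h1.le C)
    (fun σ => by
      filter_upwards [hv σ] with h hh
      have e : r0 + h • σ • btW θ = pathW θ w0 (v1 + h * σ) := by
        rw [smul_smul, hr0, path_add]
      rw [e, H.record_eq hh.1 hh.2, hrec, ← path_add, DW_add, map_smul, smul_eq_mul]
      ring)
    (fun d hd => by
      obtain ⟨δ, hδ, hD⟩ := H.dmax v1 h0 h1
      have h17 : ∀ᶠ h in 𝓝[>] (0:ℝ), (r0 + h • d) 17 ≤ 9 * w0 + max 0 (1 - θ 0) := by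
        have e : ∀ h : ℝ, (r0 + h • d) 17 = 9 * w0 + (1 - θ 0) * v1 + h * d 17 := fun h => by
          have : r0 17 = 9 * w0 + (1 - θ 0) * v1 := by rw [hr0, pathW_nat, natW_N]
          simp only [Pi.add_apply, Pi.smul_apply, smul_eq_mul, this]
        rcases lt_trichotomy (θ 0) 1 with h3 | h3 | h3
        · have h4 : 0 < (1 - θ 0) * (1 - v1) := mul_pos (by linarith) (by linarith)
          filter_upwards [ev_small (C := d 17) h4] with h a2
          rw [e]
          have h5 : 1 - θ 0 ≤ max 0 (1 - θ 0) := le_max_right _ _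
          nlinarith [a2.2]
        · filter_upwards [ev_small (C := 1) one_pos] with h a2
          rw [e, h3]
          have h5 := hd.2 h3
          have h6 : (0:ℝ) ≤ max 0 (1 - 1) := le_max_left _ _
          nlinarith [a2.1]
        · have h4 : 0 < (θ 0 - 1) * v1 := mul_pos (by linarith) h0
          filter_upwards [ev_small (C := d 17) h4] with h a2
          rw [e]
          have h5 : (0:ℝ) ≤ max 0 (1 - θ 0) := le_max_left _ _
          nlinarith [a2.2]
      filter_upwards [hlegd d hd.1, ev_small (C := ‖d‖) hδ, h17] with h a1 a2 a3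
      refine ⟨a1, ?_⟩
      have h2 := hD _ a1 (fun k => by
        have e : (r0 + h • d) k - pathW θ w0 v1 k = h * d k := by
          rw [hr0]; simp
        rw [e, abs_mul, abs_of_pos a2.1]
        have h3 := norm_le_pi_norm d k
        rw [Real.norm_eq_abs] at h3
        exact (mul_le_mul_of_nonneg_left h3 a2.1.le).trans a2.2.le) a3
      rw [DW_add, map_smul, smul_eq_mul] at h2
      rw [hrec]; linarith)
    (fun c hc hcT => by
      rw [DrW_four le_rfl, actW_empty] at hc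
      filter_upwards [hlegd c hc, hv (c 0), ev_small (C := 1) one_pos] with h a1 a2 a3
      have e0 : (r0 + h • c) 0 = w0 + (v1 + h * c 0) := by
        rw [hr0]; simp only [Pi.add_apply, Pi.smul_apply, smul_eq_mul, path_zero]; ring
      rw [H.own_rot _ a1 _ a2.1.le a2.2.le e0, hown0]
      · ring
      · intro k hk
        have h3 := mul_le_mul_of_nonneg_left (hcT k hk) a3.1.le
        rw [hr0]
        simp only [Pi.add_apply, Pi.smul_apply, smul_eq_mul, pathW_eq]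
        nlinarith)
    (fun c hc => by
      rw [DrW_four le_rfl, actW_empty] at hc
      filter_upwards [hlegd c hc, hv (c 0), ev_small (C := 1) one_pos] with h a1 a2 a3
      have e0 : (r0 + h • c) 0 = w0 + (v1 + h * c 0) := by
        rw [hr0]; simp only [Pi.add_apply, Pi.smul_apply, smul_eq_mul, path_zero]; ring
      have := H.own_up _ a1 _ a2.1.le a2.2.le e0
      rw [hown0]
      linarith)
  obtain ⟨lam, lo, h⟩ := key
  refine ⟨lam, lo, ?_⟩
  unfold StW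
  convert h using 1
  exact DrW_four le_rfl

/-! ### sources of the facts -/

/-- own facts -/
theorem own_le_path {θ : Fin 3 → ℝ} {w0 R : ℝ} {V : Fin 18 → Prop} {p : Fin 18 → ℝ} {v : ℝ}
    (hp : p ∈ Leg monW R) (h0 : p 0 = w0 + v) (h : ∀ k, V k → p k ≤ pathW θ w0 v k) (k : Fin 18) :
    p k ≤ ownW θ w0 R V v k := by
  unfold ownW
  split_ifs with h1 h2
  · rw [h1, h0]
  · exact h k h2
  · exact hp.2 k

/-- near an interior record point all legal boxes are in the D-max set -/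
def Pdn (θ : Fin 3 → ℝ) (w0 R : ℝ) (PD : Set (Fin 18 → ℝ)) : Prop :=
  ∀ v1 : ℝ, 0 < v1 → v1 < 1 → ∃ δ : ℝ, 0 < δ ∧ ∀ x ∈ Leg monW R,
    |x 0 - pathW θ w0 v1 0| ≤ δ → |x 2 - pathW θ w0 v1 2| ≤ δ →
    |x 3 - pathW θ w0 v1 3| ≤ δ → |x 17 - pathW θ w0 v1 17| ≤ δ →
    x 17 ≤ 9 * w0 + max 0 (1 - θ 0) → x ∈ PD

/-- **from `ExtQ`** -/
theorem FactW.ofQ {B : Base} {I0 I : ℕ → Finset (ℕ × ℝ)}
    {co : ∀ n : ℕ, ℕ × ℝ → ℕ × ℝ → Fin 18 → ℝ} {C : ℝ} {PD : Set (Fin 18 → ℝ)} {V : Fin 18 → Prop}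
    {E : ℝ → ℝ} {T' : Fin 18 → Prop} (big : BigW θ w0 R T) (hPD : Pdn θ w0 R PD)
    (hE : ∀ v, E v = DW g 0 q w0 (pathW θ w0 v))
    (h : ExtQ B I0 I co monW C R 0 w0 0 PD (DW g 0 q w0) (pathW θ w0) (ownW θ w0 R V) E T' ν own
      c₀) : FactW θ g q w0 R T {k | V k} ν own c₀ where
  big := big
  prf := by
    have := prf_leg h.lip h.submod
      (fun p hp q hq hpq => qprof_anti h.oprof h.ne hq hp hpq) h.own_le
    exact_mod_cast this
  dmax := fun v1 h0 h1 => by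
    obtain ⟨δ, hδ, H⟩ := hPD v1 h0 h1
    exact ⟨δ, hδ, fun x hx hk h17 => h.dmax x (H x hx (hk 0) (hk 2) (hk 3) (hk 17) h17)⟩
  record := fun v h0 h1 => by
    rw [← hE]; exact h.record v h0.le h1.le
  own_rot := fun p hp v h0 h1 hpv hk => by
    have := h.own_rot p hp v h0 h1 hpv (own_le_path hp hpv fun k hkV => hk k hkV)
    rw [this]; ring
  own_up := fun p hp v h0 h1 hpv => by
    have := h.own_up p hp v h0 h1 hpv
    linarith

/-- **from `ExtZ`** (second profile of a window) -/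
theorem FactW.ofZ {B B' : Base} {I0 I : ℕ → Finset (ℕ × ℝ)}
    {co : ∀ n : ℕ, ℕ × ℝ → ℕ × ℝ → Fin 18 → ℝ} {M : Mons 18} {C : ℝ} {X : ℕ → Fin 18 → ℝ}
    {w Tn To : ℕ → ℝ} {PD : Set (Fin 18 → ℝ)} {V : Fin 18 → Prop}
    {E : ℝ → ℝ} {T' : Fin 18 → Prop} (big : BigW θ w0 R T) (hPD : Pdn θ w0 R PD)
    (hE : ∀ v, E v = DW g 0 q w0 (pathW θ w0 v))
    (h : Zpr779.ExtZ B B' I0 I co M C X w monW R Tn To 0 w0 0 PD (DW g 0 q w0) (pathW θ w0)
      (ownW θ w0 R V) E T' ν own c₀) : FactW θ g q w0 R T {k | V k} ν own c₀ where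
  big := big
  prf :=
    { K0 := by norm_num
      lip := fun p hp q hq => by exact_mod_cast h.win.lip p hp q hq
      olip := fun p hp q hq => by exact_mod_cast h.olip p hp q hq
      mono := h.win.anti
      sharp := h.win.sharp
      sup := h.win.submod
      own_le := h.own_le }
  dmax := fun v1 h0 h1 => by
    obtain ⟨δ, hδ, H⟩ := hPD v1 h0 h1
    exact ⟨δ, hδ, fun x hx hk h17 => h.dmax x (H x hx (hk 0) (hk 2) (hk 3) (hk 17) h17) hx⟩
  record := fun v h0 h1 => by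
    rw [← hE]; exact (h.record v h0.le h1.le).2
  own_rot := fun p hp v h0 h1 hpv hk => by
    have := h.own_rot p hp v h0 h1 hpv (own_le_path hp hpv fun k hkV => hk k hkV)
    rw [this]; ring
  own_up := fun p hp v h0 h1 hpv => by
    have := h.own_up p hp v h0 h1 hpv
    linarith

end

section thin

variable {η : ℝ} {p : Par4} {D : Dat4} {I1 : ℕ → Finset (ℕ × ℝ)} {π : Equiv.Perm (Fin 3)}
  {kp uz uc un : ℕ → ℝ} {F : ℕ → ℕ × ℝ → FW} {V T : Fin 18 → Prop} {w0 R T0 : ℝ}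
  {PD : Set (Fin 18 → ℝ)} {ν own : (Fin 18 → ℝ) → ℝ} {c₀ : ℝ}

/-- **the facts for `Thin`** -/
theorem fact_thin (h : Thin η p D I1 π kp uz uc un F V T w0 R T0 PD ν own c₀) :
    FactW (thW p π) p.g (qW p π) w0 R T0 {k | V k} ν own c₀ :=
  FactW.ofQ h.tp.big h.tp.pdn (fun v => EQ_path h.tp.th2 _ _ _ _) h.ext

/-- **THE FIRST STAGE of the ladder for `Thin`** -/
theorem thin_init (h : Thin η p D I1 π kp uz uc un F V T w0 R T0 PD ν own c₀) {v1 : ℝ}
    (h0 : 0 < v1) (h1 : v1 < 1) :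
    ∃ lam lo, StW (Leg monW R) ν own 18 (pathW (thW p π) w0 v1) (thW p π) p.g (qW p π)
      {k | V k} 4 lam lo :=
  (fact_thin h).init h0 h1

end thin

end Crest.Agent.R136.ThS830
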