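import Crest.Agent.R136.LadW4_697
import Crest.Agent.R136.AwJ_774
import Crest.Agent.R136.ThS_830
import Crest.Agent.R136.EvW4_938
import Crest.Agent.R136.Tb4_628

/-!
# R136, thin branch (helper697): CONTEXT OF THE ROWS

`CtxW P ν own K r0 θ g q V T` : everything a row of the ladder of the W-chart may use about the
profile at the record point `r0`.  It holds for `Thin` (`ctx_thin`) and, after a gauge step, for the
second profile.
-/

set_option autoImplicit false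
set_option linter.unusedVariables false

open Finset Filter Topology

namespace Crest.Agent.R136.LadW697

open Crest.Agent.R136.Net191
open Crest.Agent.R136.NetW191
open Crest.Agent.R136.PrW464
open Crest.Agent.R136.NatW697
open Crest.Agent.R136.K2S774
open Crest.Agent.R136.AwJ774
open Crest.Agent.R136.Aw413
open Crest.Agent.R136.EvW938
open Crest.Agent.R136.ThS830
open Crest.Agent.R136.Dg219 (Walls mw OutS gC dhC nC)
open Crest.Agent.R136.NatT550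
open Crest.Agent.R136.Top484
open Crest.Agent.R136.Lq196
open Crest.Agent.R138.Ex926

/-- two-sided bounds by every power -/
theorem sub_of_bd {B : Base} {X : ℕ → ℝ}
    (h1 : ∀ ε : ℝ, 0 < ε → ∀ᶠ n in (U : Filter ℕ), B.d n ^ ε ≤ X n)
    (h2 : ∀ ε : ℝ, 0 < ε → ∀ᶠ n in (U : Filter ℕ), X n ≤ B.d n ^ (-ε)) : B.Sub X := by
  rw [Base.Sub.iff]
  refine ⟨?_, ?_⟩
  · filter_upwards [h1 1 one_pos] with n hn
    exact lt_of_lt_of_le (Real.rpow_pos_of_pos (B.pos n) _) hn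
  · rw [Metric.tendsto_nhds]
    intro ε hε
    filter_upwards [h1 (ε / 2) (by positivity), h2 (ε / 2) (by positivity)] with n a1 a2
    have hL := B.L_pos n
    have hp := Real.rpow_pos_of_pos (B.pos n) (ε / 2)
    have hX : 0 < X n := lt_of_lt_of_le hp a1
    have b1 := Real.log_le_log hp a1
    have b2 := Real.log_le_log hX a2
    rw [Real.log_rpow (B.pos n)] at b1 b2
    have e : Real.log (B.d n) = -B.L n := by unfold Base.L; ring
    rw [e] at b1 b2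
    rw [Real.dist_eq, sub_zero, Base.lg, abs_div, abs_of_pos hL, div_lt_iff₀ hL, abs_lt]
    constructor <;> nlinarith

/-- **one chart of the W-form such that every joint tangent with a splitting is an `AeW`** -/
def AeC (P : Set (Fin 18 → ℝ)) (ν own : (Fin 18 → ℝ) → ℝ) (r0 : Fin 18 → ℝ) (θ : Fin 3 → ℝ)
    (V T : Set (Fin 18)) : Prop :=
  ∃ (B Bo : Base) (I J : ℕ → Finset (ℕ × ℝ)) (co : ∀ n : ℕ, ℕ × ℝ → ℕ × ℝ → Fin 18 → ℝ) (C : ℝ)
    (κ : ℕ → ℝ) (u : ℕ → Fin 18 → ℝ) (f : ℕ → ℕ × ℝ → FW),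
    (∀ n i j k, co n i j k = u n k * coW (κ n) (f n i) (f n j) k) ∧ (∀ n, GrU (u n)) ∧
    (∀ n, |κ n| ≤ 1) ∧ Bo.Sub (fun n => |κ n|⁻¹) ∧
    (∀ᶠ n in (U : Filter ℕ), (J n).Nonempty) ∧
    ∀ (A : WW → Prop) (x' : ℕ → Fin 18 → ℝ) (h' : ℕ → ℝ) (lam' lo' : (Fin 18 → ℝ) → ℝ)
      (Tr a b : Fin 18 → ℝ) (AA : ℝ × ℝ) (φ : ℕ → (Fin 18 → ℝ) → ℝ) (rt : ℕ → ℝ)
      (Tw : Fin 18 → Prop),
      JT QW A P ν own r0 x' h' lam' lo' → BaseOk V 0 (btW θ) Tr r0 x' h' →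
      (∀ i ∈ V, btW θ i * Tr 0 ≤ Tr i) →
      (∀ k, Tw k → k ∈ T ∧ locT V 0 (btW θ) Tr k) → ¬ Tw 0 →
      OutS (gC a b) (cn QW A) (dhC a b) (nC a b) lam' AA φ rt →
      AeW B Bo I J co monW (mA monW A) C lam' a b AA φ rt 0 1 (btW θ) (locT V 0 (btW θ) Tr) Tw

/-- **the context of a row** -/
structure CtxW (P : Set (Fin 18 → ℝ)) (ν own : (Fin 18 → ℝ) → ℝ) (K : ℝ) (r0 : Fin 18 → ℝ)
    (θ : Fin 3 → ℝ) (g : ℝ) (q : Fin 3 → ℝ) (V T : Set (Fin 18)) : Prop where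
  θ1 : 0 < θ 1
  q1 : 0 < q 1
  q2 : 0 < q 2
  q0 : 0 ≤ q 0
  qg : 4 * q 0 < g
  /-- `q 0` is small with respect to the slopes -/
  qθ : 8 * (q 0 * (max (-(θ 0)) 0 + |θ 1| + |θ 2|)) ≤ g
  slots : SlotOkW θ (fun k => k ∈ V) (fun k => k ∈ T)
  ae : AeC P ν own r0 θ V T

theorem CtxW.g0 {P : Set (Fin 18 → ℝ)} {ν own : (Fin 18 → ℝ) → ℝ} {K : ℝ} {r0 : Fin 18 → ℝ}
    {θ : Fin 3 → ℝ} {g : ℝ} {q : Fin 3 → ℝ} {V T : Set (Fin 18)}
    (h : CtxW P ν own K r0 θ g q V T) : 0 < g := by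
  have := h.q0; have := h.qg; linarith

theorem CtxW.qt {P : Set (Fin 18 → ℝ)} {ν own : (Fin 18 → ℝ) → ℝ} {K : ℝ} {r0 : Fin 18 → ℝ}
    {θ : Fin 3 → ℝ} {g : ℝ} {q : Fin 3 → ℝ} {V T : Set (Fin 18)}
    (h : CtxW P ν own K r0 θ g q V T) : 2 * (q 0 * (max (-(θ 0)) 0 + 4 * |θ 1|)) ≤ g := by
  have h0 := h.qθ
  have h1 := h.q0
  have h2 : max (-(θ 0)) 0 + 4 * |θ 1| ≤ 4 * (max (-(θ 0)) 0 + |θ 1| + |θ 2|) := by
    have a0 := le_max_right (-(θ 0)) 0
    have a1 := abs_nonneg (θ 2)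
    linarith
  have h3 := mul_le_mul_of_nonneg_left h2 h1
  linarith

/-- the own path of the W-chart -/
theorem ownPathW (θ : Fin 3 → ℝ) (w0 R : ℝ) (V : Fin 18 → Prop) (hV : ∀ k, V k → k ≠ 0) :
    OwnPath (ownW θ w0 R V) 0 w0 R V (btW θ) where
  z := fun v _ _ => by simp [ownW]
  vis := fun k hk v v' _ _ _ _ => by
    have h0 := hV k hk
    simp only [ownW, if_neg h0, if_pos hk, pathW_eq]
    ring
  far := fun k h0 hk v _ _ => by simp [ownW, h0, hk]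

section thin

variable {η : ℝ} {p : Par4} {D : Dat4} {I1 : ℕ → Finset (ℕ × ℝ)} {π : Equiv.Perm (Fin 3)}
  {kp uz uc un : ℕ → ℝ} {F : ℕ → ℕ × ℝ → FW} {V T : Fin 18 → Prop} {w0 R T0 : ℝ}
  {PD : Set (Fin 18 → ℝ)} {ν own : (Fin 18 → ℝ) → ℝ} {c₀ : ℝ}

/-- **the context for `Thin`** -/
theorem ctx_thin (h : Thin η p D I1 π kp uz uc un F V T w0 R T0 PD ν own c₀) (hη : 0 < η)
    (hη4 : η ≤ 1 / 8) {v1 : ℝ} (h0 : 0 < v1) (h1 : v1 < 1) :
    CtxW (Leg monW R) ν own 18 (pathW (thW p π) w0 v1) (thW p π) p.g (qW p π) {k | V k}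
      {k | T k} := by
  have q0e : qW p π 0 = p.q 0 := by unfold qW; rw [h.tp.pi0]
  have hne : ∀ k, V k → k ≠ 0 := fun k hk hk0 => by
    have := (h.tp.slots.vis k hk).1.1
    rw [hk0] at this; exact absurd this (by decide)
  refine ⟨h.tp.th1, h.tp.q1, h.tp.q2, ?_, ?_, ?_, h.tp.slots, ?_⟩
  · rw [q0e]; exact h.tp.ok.q0.1
  · rw [q0e]
    have a1 := h.tp.ok.q0.2
    have a2 := h.tp.ok.q2.2
    have a3 := h.tp.ok.g0.1
    have a4 := h.tp.ok.q2.1
    have a5 : η * p.q 2 ≤ 1 / 8 * (1 / 8 * p.g) := by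
      have a6 : p.q 2 ≤ 1 / 8 * p.g := a2.trans (mul_le_mul_of_nonneg_right hη4 a3.le)
      calc η * p.q 2 ≤ 1 / 8 * p.q 2 := mul_le_mul_of_nonneg_right hη4 a4.le
        _ ≤ _ := mul_le_mul_of_nonneg_left a6 (by norm_num)
    linarith
  · rw [q0e]
    have a3 := h.tp.ok.g0.1
    have a5 := h.tp.ok.θb
    have a6 : 0 ≤ p.q 2 * max (p.θ 1 - p.θ 2) 0 :=
      mul_nonneg h.tp.ok.q2.1.le (le_max_right _ _)
    have a7 : η * p.g ≤ 1 / 8 * p.g := mul_le_mul_of_nonneg_right hη4 a3.le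
    have e0 : thW p π 0 = p.θ 0 := by unfold thW; rw [h.tp.pi0]
    have e12 : |thW p π 1| + |thW p π 2| = |p.θ 1| + |p.θ 2| := by
      have hs : ∑ j, |p.θ (π j)| = ∑ j, |p.θ j| := Equiv.sum_comp π fun j => |p.θ j|
      rw [Fin.sum_univ_three, Fin.sum_univ_three, h.tp.pi0] at hs
      unfold thW
      linarith
    rw [e0, add_assoc, e12, ← add_assoc]
    linarith
  · refine ⟨D.B, D.B, D.I, I1, couW kp uz uc un F, 67, kp,
      fun n => unW (uz n) (uc n) (un n), F, fun n i j k => rfl,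
      fun n => GrU.unW (h.tp.uz0 n) (h.tp.uc0 n) (h.tp.un0 n), h.tp.kp1, ?_,
      (nprof_of_ext h.ext (by linarith [h.tp.big.wR, h.tp.big.w0pos])).ne, ?_⟩
    · have hsub : D.B.Sub (fun n => |kp n|) := sub_of_bd h.tp.kp0 fun ε hε =>
        Eventually.of_forall fun n => (h.tp.kp1 n).trans
          (Real.one_le_rpow_of_pos_of_le_one_of_nonpos (D.B.pos n) (D.B.lt n).le (by linarith))
      exact hsub.inv
    · intro A x' h' lam' lo' Tr a b AA φ rt Tw hJ hB hT hTw hTk out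
      have hrp : ∀ k, 0 < pathW (thW p π) w0 v1 k :=
        fun k => lt_of_lt_of_le one_pos (h.tp.big.path_ge h0.le h1.le k)
      have S : Src D.B D.I I1 (couW kp uz uc un F) monW 67 R 0 w0 0 (ownW (thW p π) w0 R V)
          T ν own {k | V k} (btW (thW p π)) (pathW (thW p π) w0 v1) :=
        { prof := nprof_of_ext h.ext (by linarith [h.tp.big.wR, h.tp.big.w0pos])
          ownF := ownF_of_ext h.ext
          path := ownPathW _ _ _ _ hne
          rpos := hrp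
          ownR := by
            have e : pathW (thW p π) w0 v1 0 - w0 = v1 := by rw [path_zero]; ring
            refine ⟨by rw [e]; exact h0, by rw [e]; exact h1, fun k hk => ?_⟩
            rw [e]
            simp only [ownW, if_neg (hne k hk), if_pos (show V k from hk)] }
      have := aew_of_jt S hJ hB hT hTw hTk out
      rwa [sub_zero] at this

end thin

/-! ### forms of the rows -/

/-- a pin row -/
def PinC (j : ℕ) (pat : (Fin 3 → ℝ) → Set (Fin 18) → Prop) : Prop :=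
  ∀ (P : Set (Fin 18 → ℝ)) (ν own : (Fin 18 → ℝ) → ℝ) (K : ℝ) (r0 : Fin 18 → ℝ) (θ : Fin 3 → ℝ)
    (g : ℝ) (q : Fin 3 → ℝ) (V T : Set (Fin 18)), CtxW P ν own K r0 θ g q V T → pat θ V →
    PinW P ν own K r0 θ g q V j

/-- a last rung -/
def DeadC (pat : ℝ → (Fin 3 → ℝ) → Set (Fin 18) → ℝ → Prop) : Prop :=
  ∀ (P : Set (Fin 18 → ℝ)) (ν own : (Fin 18 → ℝ) → ℝ) (K : ℝ) (r0 : Fin 18 → ℝ) (θ : Fin 3 → ℝ)
    (g : ℝ) (q : Fin 3 → ℝ) (V T : Set (Fin 18)) (s : ℝ), CtxW P ν own K r0 θ g q V T →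
    pat g θ V s → DeadW P ν own K r0 θ g q V s

end Crest.Agent.R136.LadW697
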