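import Crest.Agent.R136.LadG1_697
import Crest.Agent.R136.AwK_146

/-!
# R136, thin branch (helper830): the context of a `ZW`

* `srcZ_of_zw` : 146's source over an outer window
* **`seamCtx`** : `SeamCtx` of 697
-/

set_option autoImplicit false
set_option linter.unusedVariables false

open Finset Filter Topology

namespace Crest.Agent.R136.CtxZ830

open Crest.Agent.R138.Ex926
open Crest.Agent.R136.Net191
open Crest.Agent.R136.NetW191
open Crest.Agent.R136.PrW464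
open Crest.Agent.R136.NatW697
open Crest.Agent.R136.LadW697
open Crest.Agent.R136.Lq196
open Crest.Agent.R136.Top484
open Crest.Agent.R136.NatT550
open Crest.Agent.R136.ThS830
open Crest.Agent.R136.Zpr779
open Crest.Agent.R136.EvW938
open Crest.Agent.R136.Qg926
open Crest.Agent.R136.Aw413
open Crest.Agent.R136.AwJ774
open Crest.Agent.R136.AwK146
open Crest.Agent.R136.LadG697

variable {θ : Fin 3 → ℝ} {g : ℝ} {q : Fin 3 → ℝ} {V T : Set (Fin 18)} {w0 R T0 : ℝ}
  {B B' : Base} {I0 I : ℕ → Finset (ℕ × ℝ)} {κ : ℕ → ℝ} {u : ℕ → Fin 18 → ℝ}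
  {F : ℕ → ℕ × ℝ → FW} {X : ℕ → Fin 18 → ℝ} {w : ℕ → ℝ} {Tn To : ℕ → ℝ}
  {PD : Set (Fin 18 → ℝ)} {ν own : (Fin 18 → ℝ) → ℝ} {c₀ : ℝ}

/-- **the source of the ladder over a `ZW`** -/
theorem srcZ_of_zw (H : ZW θ g q V T w0 R T0 B B' I0 I κ u F X w Tn To PD ν own c₀) {v1 : ℝ}
    (h0 : 0 < v1) (h1 : v1 < 1) :
    SrcZ B B' I0 I (coU u κ F) monW monW 67 R X w Tn 0 w0 0 (ownW θ w0 R fun k => k ∈ V)
      (fun k => k ∈ T) ν own V (btW θ) (pathW θ w0 v1) := by
  have hne : ∀ k, k ∈ V → k ≠ 0 := fun k hk hk0 => by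
    have := (H.vis k hk).1.1
    rw [hk0] at this; exact absurd this (by decide)
  have hrp : ∀ k, 0 < pathW θ w0 v1 k :=
    fun k => lt_of_lt_of_le one_pos (H.big.path_ge h0.le h1.le k)
  refine SrcZ.of_ext H.ext H.bas (ownPathW θ w0 R (fun k => k ∈ V) hne) hrp ?_
  have e : pathW θ w0 v1 0 - w0 = v1 := by rw [path_zero]; ring
  refine ⟨by rw [e]; exact h0, by rw [e]; exact h1, fun k hk => ?_⟩
  rw [e]
  simp only [ownW, if_neg (hne k hk), if_pos hk]

/-- **context of a `ZW`** -/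
theorem seamCtx : SeamCtx := by
  intro θ g q V T w0 R T0 B B' I0 I κ u F X w Tn To PD ν own c₀ H hS v1 h0 h1
  have S := srcZ_of_zw H h0 h1
  refine ⟨H.th1, H.q1, H.q2, H.q0, H.qg, H.qθ, hS, B, B', I0, I, coU u κ F, 67, κ, u, F,
    fun n i j k => rfl, H.u0, H.κ1, H.κ0, H.ext.win.ne, ?_⟩
  intro A x' h' lam' lo' Tr a b AA φ rt Tw hJ hB hT hTw hTk out
  have := aewZ_of_jt S hJ hB hT hTw hTk out
  rwa [sub_zero] at this

end Crest.Agent.R136.CtxZ830
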