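import Crest.Agent.R136.Qd3_329

/-!
# R136, the specials of the thin pins (helper191), part 1: finite form

`CGrid` : lines at one height with position cells `pc` (data `a, F, Q`), velocity cells `vc` (data
`c, β, Y, K`) and a function `Φ` such that `Φ + κ a² Y + a K + κ c Q` is constant on position cells
and `Φ + β F` is constant on velocity cells.

* `lonely_card` : few lines have no partner
* `CGrid.rel3`, `CGrid.slopes` : the relation of two velocity cells which meet the same position cells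
* `cgrid` : on a dense part `F` is affine in `a`, `Y` is affine in `c`, and `K` is known
-/

set_option autoImplicit false

namespace Crest.Agent.R136.Cub191

open Finset Crest.Agent.R136.Qd329

open Classical in
/-- **few lines have no partner** -/
theorem lonely_card {α γ : Type*} (L : Finset α) (key : α → γ) (S : Finset γ)
    (hS : ∀ l ∈ L, key l ∈ S) (R : α → α → Prop) {W2 : ℝ} (hW : 0 ≤ W2)
    (h : ∀ l0 ∈ L, ((L.filter fun l => key l = key l0 ∧ R l0 l).card : ℝ) ≤ W2)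
    {L1 : Finset α} (hL1 : L1 ⊆ L) :
    ((L1.filter fun l => ∀ l' ∈ L1, key l' = key l → R l l').card : ℝ) ≤ W2 * S.card := by
  set B := L1.filter fun l => ∀ l' ∈ L1, key l' = key l → R l l' with hB
  have h1 : B.card = ∑ s ∈ S, (B.filter fun l => key l = s).card := by
    refine card_eq_sum_card_fiberwise fun l hl => ?_
    exact mem_coe.2 (hS l (hL1 (mem_filter.1 (mem_coe.1 hl)).1))
  rw [h1]
  push_cast
  have h2 : ∀ s ∈ S, (((B.filter fun l => key l = s).card : ℕ) : ℝ) ≤ W2 := by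
    intro s _
    rcases (B.filter fun l => key l = s).eq_empty_or_nonempty with h0 | ⟨l0, hl0⟩
    · rw [h0, card_empty, Nat.cast_zero]; exact hW
    · obtain ⟨a1, a2⟩ := mem_filter.1 hl0
      obtain ⟨a3, a4⟩ := mem_filter.1 a1
      refine le_trans ?_ (h l0 (hL1 a3))
      refine Nat.cast_le.2 (card_le_card fun l hl => ?_)
      obtain ⟨b1, b2⟩ := mem_filter.1 hl
      obtain ⟨b3, b4⟩ := mem_filter.1 b1
      exact mem_filter.2 ⟨hL1 b3, b2.trans a2.symm, a4 l b3 (b2.trans a2.symm)⟩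
  calc _ ≤ ∑ s ∈ S, W2 := sum_le_sum h2
    _ = W2 * S.card := by rw [sum_const, nsmul_eq_mul]; ring

open Classical in
/-- **most lines have a partner** -/
theorem partner_card {α γ : Type*} (L : Finset α) (key : α → γ) (S : Finset γ)
    (hS : ∀ l ∈ L, key l ∈ S) (R : α → α → Prop) {W2 : ℝ} (hW : 0 ≤ W2)
    (h : ∀ l0 ∈ L, ((L.filter fun l => key l = key l0 ∧ R l0 l).card : ℝ) ≤ W2)
    {L1 : Finset α} (hL1 : L1 ⊆ L) (hd : W2 * S.card ≤ (L1.card : ℝ) / 2) :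
    ∃ L2 ⊆ L1, (L1.card : ℝ) / 2 ≤ L2.card ∧
      ∀ l ∈ L2, ∃ l' ∈ L1, key l' = key l ∧ ¬ R l l' := by
  refine ⟨L1.filter fun l => ¬ ∀ l' ∈ L1, key l' = key l → R l l', filter_subset _ _, ?_, ?_⟩
  · have h1 := card_filter_add_card_filter_not (s := L1)
      (fun l => ∀ l' ∈ L1, key l' = key l → R l l')
    have h2 := lonely_card L key S hS R hW h hL1
    have h3 : ((L1.filter fun l => ∀ l' ∈ L1, key l' = key l → R l l').card : ℝ) +
        ((L1.filter fun l => ¬ ∀ l' ∈ L1, key l' = key l → R l l').card : ℝ) = L1.card := by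
      exact_mod_cast h1
    linarith
  · intro l hl
    have h1 := (mem_filter.1 hl).2
    push Not at h1
    exact h1

/-- lines at one height with position cells and velocity cells -/
structure CGrid {α : Type*} (L : Finset α) (pc vc : α → ℕ) (a F Q c β Y K Φ : α → ℝ)
    (κ M δ : ℝ) : Prop where
  M1 : 1 ≤ M
  δ0 : 0 ≤ δ
  κ1 : |κ| ≤ 1
  bd : ∀ l ∈ L, |a l| ≤ M ∧ |F l| ≤ M ∧ |Q l| ≤ M ∧ |c l| ≤ M ∧ |β l| ≤ M ∧ |Y l| ≤ M ∧ |K l| ≤ M
  pcl : ∀ l ∈ L, ∀ l' ∈ L, pc l = pc l' →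
    |a l - a l'| ≤ δ ∧ |F l - F l'| ≤ δ ∧ |Q l - Q l'| ≤ δ
  vcl : ∀ l ∈ L, ∀ l' ∈ L, vc l = vc l' →
    |c l - c l'| ≤ δ ∧ |β l - β l'| ≤ δ ∧ |Y l - Y l'| ≤ δ ∧ |K l - K l'| ≤ δ
  pP : ∀ l ∈ L, ∀ l' ∈ L, pc l = pc l' →
    |(Φ l + κ * a l ^ 2 * Y l + a l * K l + κ * (c l * Q l)) -
      (Φ l' + κ * a l' ^ 2 * Y l' + a l' * K l' + κ * (c l' * Q l'))| ≤ δ
  vP : ∀ l ∈ L, ∀ l' ∈ L, vc l = vc l' → |(Φ l + β l * F l) - (Φ l' + β l' * F l')| ≤ δ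

variable {α : Type*} {L : Finset α} {pc vc : α → ℕ} {a F Q c β Y K Φ : α → ℝ} {κ M δ : ℝ}

theorem CGrid.rel3 (G : CGrid L pc vc a F Q c β Y K Φ κ M δ) {l k t r t1 r1 : α} (hl : l ∈ L)
    (hk : k ∈ L) (ht : t ∈ L) (hr : r ∈ L) (ht1 : t1 ∈ L) (hr1 : r1 ∈ L) (v1 : vc t = vc l)
    (v2 : vc t1 = vc l) (v3 : vc r = vc k) (v4 : vc r1 = vc k) (p1 : pc t = pc r)
    (p2 : pc t1 = pc r1) :
    |κ * (a r ^ 2 - a r1 ^ 2) * (Y l - Y k) + (a r - a r1) * (K l - K k) +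
      κ * ((c l - c k) * (Q r - Q r1)) - (β l - β k) * (F r - F r1)| ≤ 50 * M ^ 2 * δ := by
  have hM := G.M1
  have hδ := G.δ0
  have hMM : M * δ ≤ M ^ 2 * δ := mul_le_mul_of_nonneg_right (by nlinarith) hδ
  have hM1 : δ ≤ M * δ := by nlinarith
  -- position cells
  have P : ∀ t r : α, t ∈ L → r ∈ L → vc t = vc l → vc r = vc k → pc t = pc r →
      |(Φ t - Φ r) + κ * a r ^ 2 * (Y l - Y k) + a r * (K l - K k) +
        κ * ((c l - c k) * Q r)| ≤ 15 * M ^ 2 * δ := by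
    intro t r ht hr w1 w2 w3
    obtain ⟨t1, t2, t3, t4, t5, t6, t7⟩ := G.bd t ht
    obtain ⟨r1, r2, r3, r4, r5, r6, r7⟩ := G.bd r hr
    obtain ⟨l1, l2, l3, l4, l5, l6, l7⟩ := G.bd l hl
    obtain ⟨k1, k2, k3, k4, k5, k6, k7⟩ := G.bd k hk
    obtain ⟨x1, x2, x3, x4⟩ := G.vcl t ht l hl w1
    obtain ⟨y1, y2, y3, y4⟩ := G.vcl r hr k hk w2
    obtain ⟨z1, z2, z3⟩ := G.pcl t ht r hr w3
    have h0 := G.pP t ht r hr w3
    have z0 : |a r - a r| ≤ δ := by rw [sub_self, abs_zero]; exact hδ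
    have q0 : |Q r - Q r| ≤ δ := by rw [sub_self, abs_zero]; exact hδ
    have a1 := sq_close G.κ1 hM z1 x3 t1 r1 l6
    have a2 := mul_close z1 x4 t1 l7
    have a3 := mul_close x1 z3 t4 r3
    have b1 := sq_close G.κ1 hM z0 y3 r1 r1 k6
    have b2 := mul_close z0 y4 r1 k7
    have b3 := mul_close y1 q0 r4 r3
    have a3' : |κ * (c t * Q t - c l * Q r)| ≤ 2 * M * δ := by
      rw [abs_mul]
      calc _ ≤ 1 * (2 * M * δ) := mul_le_mul G.κ1 a3 (abs_nonneg _) zero_le_one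
        _ = _ := one_mul _
    have b3' : |κ * (c r * Q r - c k * Q r)| ≤ 2 * M * δ := by
      rw [abs_mul]
      calc _ ≤ 1 * (2 * M * δ) := mul_le_mul G.κ1 b3 (abs_nonneg _) zero_le_one
        _ = _ := one_mul _
    have e : (Φ t - Φ r) + κ * a r ^ 2 * (Y l - Y k) + a r * (K l - K k) +
        κ * ((c l - c k) * Q r) =
        ((Φ t + κ * a t ^ 2 * Y t + a t * K t + κ * (c t * Q t)) -
          (Φ r + κ * a r ^ 2 * Y r + a r * K r + κ * (c r * Q r))) -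
        (κ * a t ^ 2 * Y t - κ * a r ^ 2 * Y l) - (a t * K t - a r * K l) -
        κ * (c t * Q t - c l * Q r) + (κ * a r ^ 2 * Y r - κ * a r ^ 2 * Y k) +
        (a r * K r - a r * K k) + κ * (c r * Q r - c k * Q r) := by ring
    rw [e]
    rw [abs_le] at h0 a1 a2 a3' b1 b2 b3' ⊢
    constructor <;> linarith [h0.1, h0.2, a1.1, a1.2, a2.1, a2.2, a3'.1, a3'.2, b1.1, b1.2, b2.1,
      b2.2, b3'.1, b3'.2]
  -- velocity cells
  have Vv : ∀ m : α, m ∈ L → ∀ t t1 r r1 : α, t ∈ L → t1 ∈ L → r ∈ L → r1 ∈ L → vc t = vc m →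
      vc t1 = vc m → pc t = pc r → pc t1 = pc r1 →
      |(Φ t - Φ t1) + β m * (F r - F r1)| ≤ 5 * M * δ := by
    intro m hm t t1 r r1 ht ht1 hr hr1 w1 w2 w3 w4
    obtain ⟨_, s2, _, _, s5, _, _⟩ := G.bd t ht
    obtain ⟨_, s2', _, _, s5', _, _⟩ := G.bd t1 ht1
    obtain ⟨_, u2, _, _, u5, _, _⟩ := G.bd r hr
    obtain ⟨_, u2', _, _, u5', _, _⟩ := G.bd r1 hr1
    obtain ⟨_, x2, _, _⟩ := G.vcl t ht m hm w1
    obtain ⟨_, y2, _, _⟩ := G.vcl t1 ht1 m hm w2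
    obtain ⟨_, z2, _⟩ := G.pcl t ht r hr w3
    obtain ⟨_, z2', _⟩ := G.pcl t1 ht1 r1 hr1 w4
    have h0 := G.vP t ht t1 ht1 (w1.trans w2.symm)
    have a1 := mul_close x2 z2 s5 u2
    have a2 := mul_close y2 z2' s5' u2'
    have e : (Φ t - Φ t1) + β m * (F r - F r1) = ((Φ t + β t * F t) - (Φ t1 + β t1 * F t1)) -
        (β t * F t - β m * F r) + (β t1 * F t1 - β m * F r1) := by ring
    rw [e]
    rw [abs_le] at h0 a1 a2 ⊢
    constructor <;> linarith [h0.1, h0.2, a1.1, a1.2, a2.1, a2.2]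
  have g1 := P t r ht hr v1 v3 p1
  have g2 := P t1 r1 ht1 hr1 v2 v4 p2
  have g3 := Vv l hl t t1 r r1 ht ht1 hr hr1 v1 v2 p1 p2
  have g4 := Vv k hk r r1 r r1 hr hr1 hr hr1 v3 v4 rfl rfl
  have e : κ * (a r ^ 2 - a r1 ^ 2) * (Y l - Y k) + (a r - a r1) * (K l - K k) +
      κ * ((c l - c k) * (Q r - Q r1)) - (β l - β k) * (F r - F r1) =
      ((Φ t - Φ r) + κ * a r ^ 2 * (Y l - Y k) + a r * (K l - K k) + κ * ((c l - c k) * Q r)) -
      ((Φ t1 - Φ r1) + κ * a r1 ^ 2 * (Y l - Y k) + a r1 * (K l - K k) +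
        κ * ((c l - c k) * Q r1)) -
      ((Φ t - Φ t1) + β l * (F r - F r1)) + ((Φ r - Φ r1) + β k * (F r - F r1)) := by ring
  rw [e]
  rw [abs_le] at g1 g2 g3 g4 ⊢
  constructor <;> linarith [g1.1, g1.2, g2.1, g2.2, g3.1, g3.2, g4.1, g4.2]

/-- division of an estimate by a number which is not small -/
theorem div_le_of {x y e r : ℝ} (hr : 0 < r) (he : 0 ≤ e) (hy : r ≤ |y|) (h : |x| ≤ e) :
    |x / y| ≤ e / r := by
  rw [abs_div]
  exact div_le_div₀ he h hr hy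

/-- slope between two points -/
noncomputable def dd (x1 x2 y1 y2 : ℝ) : ℝ := (y2 - y1) / (x2 - x1)

theorem slopes {a1 a2 a3 F1 F2 F3 Q1 Q2 Q3 ΔY ΔK Δc Δβ κ κ0 r e : ℝ} (hr : 0 < r) (hκ0 : 0 < κ0)
    (hκ : κ0 ≤ |κ|) (he : 0 ≤ e) (h2 : r ≤ |a2 - a1|) (h3 : r ≤ |a3 - a1|) (h32 : r ≤ |a3 - a2|)
    (R2 : |κ * (a2 ^ 2 - a1 ^ 2) * ΔY + (a2 - a1) * ΔK + κ * (Δc * (Q2 - Q1)) - Δβ * (F2 - F1)| ≤ e)
    (R3 : |κ * (a3 ^ 2 - a1 ^ 2) * ΔY + (a3 - a1) * ΔK + κ * (Δc * (Q3 - Q1)) - Δβ * (F3 - F1)| ≤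
      e) :
    |ΔK + κ * (a1 + a2) * ΔY + κ * dd a1 a2 Q1 Q2 * Δc - dd a1 a2 F1 F2 * Δβ| ≤ e / r ∧
    |ΔY + dd a2 a3 (dd a1 a2 Q1 Q2) (dd a1 a3 Q1 Q3) * Δc -
      dd a2 a3 (dd a1 a2 F1 F2) (dd a1 a3 F1 F3) / κ * Δβ| ≤ 2 * e / (κ0 * r ^ 2) := by
  have n2 : a2 - a1 ≠ 0 := fun h => by rw [h, abs_zero] at h2; linarith
  have n3 : a3 - a1 ≠ 0 := fun h => by rw [h, abs_zero] at h3; linarith
  have n32 : a3 - a2 ≠ 0 := fun h => by rw [h, abs_zero] at h32; linarith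
  have nκ : κ ≠ 0 := fun h => by rw [h, abs_zero] at hκ; linarith
  have d2 := div_le_of hr he h2 R2
  have d3 := div_le_of hr he h3 R3
  have e2 : (κ * (a2 ^ 2 - a1 ^ 2) * ΔY + (a2 - a1) * ΔK + κ * (Δc * (Q2 - Q1)) -
      Δβ * (F2 - F1)) / (a2 - a1) =
      ΔK + κ * (a1 + a2) * ΔY + κ * dd a1 a2 Q1 Q2 * Δc - dd a1 a2 F1 F2 * Δβ := by
    unfold dd; field_simp; ring
  have e3 : (κ * (a3 ^ 2 - a1 ^ 2) * ΔY + (a3 - a1) * ΔK + κ * (Δc * (Q3 - Q1)) -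
      Δβ * (F3 - F1)) / (a3 - a1) =
      ΔK + κ * (a1 + a3) * ΔY + κ * dd a1 a3 Q1 Q3 * Δc - dd a1 a3 F1 F3 * Δβ := by
    unfold dd; field_simp; ring
  rw [e2] at d2
  rw [e3] at d3
  refine ⟨d2, ?_⟩
  set q2 := dd a1 a2 Q1 Q2 with hq2
  set q3 := dd a1 a3 Q1 Q3 with hq3
  set f2 := dd a1 a2 F1 F2 with hf2
  set f3 := dd a1 a3 F1 F3 with hf3
  have h4 : |κ * (a3 - a2) * ΔY + κ * (q3 - q2) * Δc - (f3 - f2) * Δβ| ≤ 2 * (e / r) := by
    have e4 : κ * (a3 - a2) * ΔY + κ * (q3 - q2) * Δc - (f3 - f2) * Δβ =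
      (ΔK + κ * (a1 + a3) * ΔY + κ * q3 * Δc - f3 * Δβ) -
      (ΔK + κ * (a1 + a2) * ΔY + κ * q2 * Δc - f2 * Δβ) := by ring
    rw [e4]
    have := abs_sub (ΔK + κ * (a1 + a3) * ΔY + κ * q3 * Δc - f3 * Δβ)
      (ΔK + κ * (a1 + a2) * ΔY + κ * q2 * Δc - f2 * Δβ)
    linarith
  have h5 : κ0 * r ≤ |κ * (a3 - a2)| := by
    rw [abs_mul]; exact mul_le_mul hκ h32 hr.le (abs_nonneg _)
  have h6 := div_le_of (by positivity : 0 < κ0 * r) (by positivity : 0 ≤ 2 * (e / r)) h5 h4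
  have e5 : (κ * (a3 - a2) * ΔY + κ * (q3 - q2) * Δc - (f3 - f2) * Δβ) / (κ * (a3 - a2)) =
      ΔY + dd a2 a3 q2 q3 * Δc - dd a2 a3 f2 f3 / κ * Δβ := by
    unfold dd; field_simp
  rw [e5] at h6
  refine h6.trans (le_of_eq ?_)
  field_simp

theorem dd_le {x1 x2 y1 y2 r M : ℝ} (hr : 0 < r) (h : r ≤ |x2 - x1|) (h1 : |y1| ≤ M)
    (h2 : |y2| ≤ M) : |dd x1 x2 y1 y2| ≤ 2 * M / r := by
  have hM : 0 ≤ M := (abs_nonneg _).trans h1
  refine div_le_of hr (by linarith) h ?_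
  have := abs_sub y2 y1
  linarith

/-- counting hypotheses -/
structure CCnt {α : Type*} (L : Finset α) (pc vc cc : α → ℕ) (a c β Y : α → ℝ)
    (P V Cc : Finset ℕ) (W W2 δ r q η : ℝ) : Prop where
  hp : ∀ l ∈ L, pc l ∈ P
  hv : ∀ l ∈ L, vc l ∈ V
  hcc : ∀ l ∈ L, cc l ∈ Cc
  W0 : 0 < W
  W20 : 0 ≤ W2
  fib : ∀ p v, ((L.filter fun l => pc l = p ∧ vc l = v).card : ℝ) ≤ W
  η0 : 0 ≤ η
  hs : ∀ t : ℝ, ∀ A ⊆ P, (∀ p ∈ A, ∃ l ∈ L, pc l = p ∧ |a l - t| ≤ 2 * r) →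
    (A.card : ℝ) ≤ η * P.card
  ccl : ∀ l ∈ L, ∀ l' ∈ L, cc l = cc l' → |c l - c l'| ≤ δ ∧ |Y l - Y l'| ≤ δ
  fib2 : ∀ l0 ∈ L, ((L.filter fun l => (pc l, cc l) = (pc l0, cc l0) ∧ |β l0 - β l| < q).card : ℝ) ≤
    W2

open Classical in
theorem badA_card (G : CGrid L pc vc a F Q c β Y K Φ κ M δ) {cc : α → ℕ} {P V Cc : Finset ℕ}
    {W W2 D r q η : ℝ} (C : CCnt L pc vc cc a c β Y P V Cc W W2 δ r q η) (hδr : δ ≤ r)
    (hη : 3 * η ≤ D ^ 3 / 16) :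
    (((P ×ˢ P ×ˢ P).filter fun t => BadV L pc a r t.1 t.2.1 t.2.2).card : ℝ) ≤
      D ^ 3 / 16 * (P.card : ℝ) ^ 3 := by
  have hclc : ∀ v1, ∀ A ⊆ P, (∀ v ∈ A, ClP L pc a r v1 v) → (A.card : ℝ) ≤ η * P.card := by
    intro v1 A hA hcA
    rcases A.eq_empty_or_nonempty with h | ⟨v0, hv0⟩
    · rw [h, card_empty, Nat.cast_zero]
      have := C.η0
      positivity
    · obtain ⟨k, hk, -, -, hkv, -, -⟩ := hcA v0 hv0
      refine C.hs (a k) A hA fun v hv => ?_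
      obtain ⟨l, hl, l', hl', e1, e2, e3⟩ := hcA v hv
      refine ⟨l', hl', e2, ?_⟩
      have h1 := (G.pcl l hl k hk (e1.trans hkv.symm)).1
      have e4 : a l' - a k = (a l - a k) - (a l - a l') := by ring
      rw [e4]
      have := abs_sub (a l - a k) (a l - a l')
      linarith
  have h1 := bad_card P (ClP L pc a r) (BadV L pc a r) (η := η) (η' := 2 * η)
    (by linarith [C.η0])
    (fun v1 _ => hclc v1 _ (filter_subset _ _) fun v hv => (mem_filter.1 hv).2)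
    (fun v1 _ v2 _ hn => by
      have h2 : (P.filter fun v3 => BadV L pc a r v1 v2 v3) ⊆
          (P.filter fun v3 => ClP L pc a r v1 v3) ∪ (P.filter fun v3 => ClP L pc a r v2 v3) := by
        intro v3 hv3
        obtain ⟨a1, a2⟩ := mem_filter.1 hv3
        rcases a2 with a2 | a2 | a2
        · exact absurd a2 hn
        · exact mem_union_left _ (mem_filter.2 ⟨a1, a2⟩)
        · exact mem_union_right _ (mem_filter.2 ⟨a1, a2⟩)
      have h3 := (card_le_card h2).trans (card_union_le _ _)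
      have h4 : (((P.filter fun v3 => BadV L pc a r v1 v2 v3).card : ℕ) : ℝ) ≤
          ((P.filter fun v3 => ClP L pc a r v1 v3).card : ℝ) +
          ((P.filter fun v3 => ClP L pc a r v2 v3).card : ℝ) := by
        exact_mod_cast h3
      have h5 := hclc v1 (P.filter fun v3 => ClP L pc a r v1 v3) (filter_subset _ _)
        fun v hv => (mem_filter.1 hv).2
      have h6 := hclc v2 (P.filter fun v3 => ClP L pc a r v2 v3) (filter_subset _ _)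
        fun v hv => (mem_filter.1 hv).2
      linarith)
  refine h1.trans ?_
  have : 0 ≤ (P.card : ℝ) ^ 3 := by positivity
  nlinarith

end Crest.Agent.R136.Cub191
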