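import Crest.Agent.R136.Cub1_191

/-!
# R136, the specials of the thin pins (helper191), part 2: `cgrid`
-/

set_option autoImplicit false

namespace Crest.Agent.R136.Cub191

open Finset Crest.Agent.R136.Qd329

variable {α : Type*} {L : Finset α} {pc vc : α → ℕ} {a F Q c β Y K Φ : α → ℝ} {κ M δ : ℝ}

/-- output of `cgrid` -/
structure COut (L2 : Finset α) (a F c β Y K : α → ℝ) (κ a1 a2 a3 F1 F2 F3 Q1 Q2 Q3 E : ℝ) :
    Prop where
  oY : ∀ l ∈ L2, ∀ l' ∈ L2,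
    |(Y l - Y l') + dd a2 a3 (dd a1 a2 Q1 Q2) (dd a1 a3 Q1 Q3) * (c l - c l')| ≤ E
  oF : ∀ l ∈ L2, ∀ l' ∈ L2, |(F l - F l') - dd a1 a2 F1 F2 * (a l - a l')| ≤ E
  oK : ∀ l ∈ L2, ∀ l' ∈ L2, |(K l - K l') + κ * (a1 + a2) * (Y l - Y l') +
    κ * dd a1 a2 Q1 Q2 * (c l - c l') - dd a1 a2 F1 F2 * (β l - β l')| ≤ E
  og : |dd a2 a3 (dd a1 a2 F1 F2) (dd a1 a3 F1 F3)| ≤ E

set_option maxHeartbeats 1600000 in
open Classical in
/-- **the bilinear rigidity of the specials** -/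
theorem cgrid (G : CGrid L pc vc a F Q c β Y K Φ κ M δ) {cc : α → ℕ} {P V Cc : Finset ℕ}
    {W W2 D r q η κ0 : ℝ} (C : CCnt L pc vc cc a c β Y P V Cc W W2 δ r q η) (hL : L.Nonempty)
    (hD : 0 < D) (dens : D * W * P.card * V.card ≤ L.card) (hη : 3 * η ≤ D ^ 3 / 16)
    (dens2 : W2 * (P.card * Cc.card) ≤ D ^ 3 / 64 * (L.card : ℝ)) (hδr : δ ≤ r) (hr : 0 < r)
    (hr1 : r ≤ 1) (hq : 0 < q) (hq1 : q ≤ 1) (hκ0 : 0 < κ0) (hκ01 : κ0 ≤ 1) (hκ : κ0 ≤ |κ|) :
    ∃ r1 ∈ L, ∃ r2 ∈ L, ∃ r3 ∈ L, r ≤ |a r2 - a r1| ∧ r ≤ |a r3 - a r1| ∧ r ≤ |a r3 - a r2| ∧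
      ∃ L2 ⊆ L, D ^ 3 / 64 * (L.card : ℝ) ≤ L2.card ∧
        COut L2 a F c β Y K κ (a r1) (a r2) (a r3) (F r1) (F r2) (F r3) (Q r1) (Q r2) (Q r3)
          (1000 * M ^ 3 * δ / (κ0 * r ^ 2 * q)) := by
  have hM := G.M1
  have hδ := G.δ0
  have hL0 : (0 : ℝ) < L.card := by exact_mod_cast hL.card_pos
  have dens' : D * W * V.card * P.card ≤ L.card := by
    have e : D * W * V.card * P.card = D * W * P.card * V.card := by ring
    rw [e]; exact dens
  obtain ⟨p1, -, p2, -, p3, -, hgood, L1, hL1, hcard, hcomp⟩ :=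
    triple_pigeon L vc pc V P C.hv C.hp C.W0 hD (fun v p => by
      refine le_trans ?_ (C.fib p v)
      refine Nat.cast_le.2 (card_le_card fun l hl => ?_)
      obtain ⟨x1, x2, x3⟩ := mem_filter.1 hl
      exact mem_filter.2 ⟨x1, x3, x2⟩) hL dens' _ (badA_card G C hδr hη)
  have hL1ne : L1.Nonempty := by
    rw [← card_pos]
    have : (0 : ℝ) < L1.card := lt_of_lt_of_le (by positivity) hcard
    exact_mod_cast this
  obtain ⟨k, hk⟩ := hL1ne
  obtain ⟨⟨r1, hr1L, er1, fr1⟩, ⟨r2, hr2L, er2, fr2⟩, ⟨r3, hr3L, er3, fr3⟩⟩ := hcomp k hk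
  have s12 : r ≤ |a r2 - a r1| := by
    rw [abs_sub_comm]
    by_contra h
    exact hgood (Or.inl ⟨r1, hr1L, r2, hr2L, fr1, fr2, not_le.1 h⟩)
  have s13 : r ≤ |a r3 - a r1| := by
    rw [abs_sub_comm]
    by_contra h
    exact hgood (Or.inr (Or.inl ⟨r1, hr1L, r3, hr3L, fr1, fr3, not_le.1 h⟩))
  have s23 : r ≤ |a r3 - a r2| := by
    rw [abs_sub_comm]
    by_contra h
    exact hgood (Or.inr (Or.inr ⟨r2, hr2L, r3, hr3L, fr2, fr3, not_le.1 h⟩))
  have he0 : 0 ≤ 50 * M ^ 2 * δ := by positivity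
  set q2 := dd (a r1) (a r2) (Q r1) (Q r2) with hq2
  set f2 := dd (a r1) (a r2) (F r1) (F r2) with hf2
  set q' := dd (a r2) (a r3) q2 (dd (a r1) (a r3) (Q r1) (Q r3)) with hq'
  set g := dd (a r2) (a r3) f2 (dd (a r1) (a r3) (F r1) (F r3)) with hg
  -- against the line k
  have base : ∀ l ∈ L1,
      |(K l - K k) + κ * (a r1 + a r2) * (Y l - Y k) + κ * q2 * (c l - c k) - f2 * (β l - β k)| ≤
        50 * M ^ 2 * δ / r ∧
      |(Y l - Y k) + q' * (c l - c k) - g / κ * (β l - β k)| ≤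
        2 * (50 * M ^ 2 * δ) / (κ0 * r ^ 2) := by
    intro l hl
    obtain ⟨⟨t1, ht1, e1, f1⟩, ⟨t2, ht2, e2, f2'⟩, ⟨t3, ht3, e3, f3⟩⟩ := hcomp l hl
    have R2 := G.rel3 (hL1 hl) (hL1 hk) ht2 hr2L ht1 hr1L e2 e1 er2 er1 (f2'.trans fr2.symm)
      (f1.trans fr1.symm)
    have R3 := G.rel3 (hL1 hl) (hL1 hk) ht3 hr3L ht1 hr1L e3 e1 er3 er1 (f3.trans fr3.symm)
      (f1.trans fr1.symm)
    exact slopes hr hκ0 hκ he0 s12 s13 s23 R2 R3
  obtain ⟨eK, heK⟩ : ∃ x, x = 50 * M ^ 2 * δ / r := ⟨_, rfl⟩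
  obtain ⟨eY, heY⟩ : ∃ x, x = 2 * (50 * M ^ 2 * δ) / (κ0 * r ^ 2) := ⟨_, rfl⟩
  have pairK : ∀ l ∈ L1, ∀ l' ∈ L1,
      |(K l - K l') + κ * (a r1 + a r2) * (Y l - Y l') + κ * q2 * (c l - c l') -
        f2 * (β l - β l')| ≤ 2 * eK := by
    intro l hl l' hl'
    have k1 := (base l hl).1
    have k2 := (base l' hl').1
    rw [← heK] at k1 k2
    rw [abs_le] at k1 k2 ⊢
    constructor <;> linarith only [k1.1, k1.2, k2.1, k2.2]
  have pairY : ∀ l ∈ L1, ∀ l' ∈ L1,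
      |(Y l - Y l') + q' * (c l - c l') - g / κ * (β l - β l')| ≤ 2 * eY := by
    intro l hl l' hl'
    have k1 := (base l hl).2
    have k2 := (base l' hl').2
    rw [← heY] at k1 k2
    rw [abs_le] at k1 k2 ⊢
    constructor <;> linarith only [k1.1, k1.2, k2.1, k2.2]
  -- sizes
  obtain ⟨ba1, bF1, bQ1, -, -, -, -⟩ := G.bd r1 hr1L
  obtain ⟨ba2, bF2, bQ2, -, -, -, -⟩ := G.bd r2 hr2L
  obtain ⟨ba3, bF3, bQ3, -, -, -, -⟩ := G.bd r3 hr3L
  have bq2 : |q2| ≤ 2 * M / r := dd_le hr s12 bQ1 bQ2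
  have bf2 : |f2| ≤ 2 * M / r := dd_le hr s12 bF1 bF2
  have bq' : |q'| ≤ 2 * (2 * M / r) / r := dd_le hr s23 bq2 (dd_le hr s13 bQ1 bQ3)
  -- partners
  obtain ⟨L2, hL2, hc2, hpart⟩ := partner_card L (fun l => (pc l, cc l)) (P ×ˢ Cc)
    (fun l hl => mem_product.2 ⟨C.hp l hl, C.hcc l hl⟩) (fun l l' => |β l - β l'| < q) C.W20
    (fun l0 hl0 => by convert C.fib2 l0 hl0) hL1 (by
      rw [card_product]
      push_cast
      refine dens2.trans ?_
      linarith)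
  have hL2c : D ^ 3 / 64 * (L.card : ℝ) ≤ L2.card := by linarith
  have hL2ne : L2.Nonempty := by
    rw [← card_pos]
    have : (0 : ℝ) < L2.card := lt_of_lt_of_le (by positivity) hL2c
    exact_mod_cast this
  have hpart' : ∀ l ∈ L2, ∃ l' ∈ L1, pc l' = pc l ∧ |c l' - c l| ≤ δ ∧ |Y l' - Y l| ≤ δ ∧
      q ≤ |β l' - β l| := by
    intro l hl
    obtain ⟨l', hl', e1, e2⟩ := hpart l hl
    have e3 : pc l' = pc l := (Prod.mk.inj e1).1
    have e4 : cc l' = cc l := (Prod.mk.inj e1).2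
    obtain ⟨x1, x2⟩ := C.ccl l' (hL1 hl') l (hL1 (hL2 hl)) e4
    exact ⟨l', hl', e3, x1, x2, by rw [abs_sub_comm]; exact not_lt.1 e2⟩
  -- the coefficient of β
  have hκpos : 0 < κ0 * r ^ 2 := by positivity
  have hE1 : eY = 100 * M ^ 2 * δ / (κ0 * r ^ 2) := by rw [heY]; ring
  have dE : ∀ x : ℝ, 0 ≤ x → x ≤ x / (κ0 * r ^ 2) := by
    intro x hx
    rw [le_div_iff₀ hκpos]
    have : κ0 * r ^ 2 ≤ 1 := by
      have h1 : r ^ 2 ≤ 1 := by nlinarith
      nlinarith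
    nlinarith
  have dR : ∀ x : ℝ, 0 ≤ x → x / r ≤ x / (κ0 * r ^ 2) := by
    intro x hx
    refine div_le_div_of_nonneg_left hx hκpos ?_
    nlinarith
  have dR2 : ∀ x : ℝ, 0 ≤ x → x / r / r ≤ x / (κ0 * r ^ 2) := by
    intro x hx
    rw [div_div]
    refine div_le_div_of_nonneg_left hx hκpos ?_
    nlinarith [sq_nonneg r]
  obtain ⟨U, hU⟩ : ∃ U, U = δ / (κ0 * r ^ 2) := ⟨_, rfl⟩
  have hU0 : 0 ≤ U := by rw [hU]; positivity
  have hM2 : 1 ≤ M ^ 2 := by nlinarith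
  have hMM2 : M ≤ M ^ 2 := by nlinarith
  have hM23 : M ^ 2 ≤ M ^ 3 := by nlinarith [sq_nonneg M]
  have xδ : δ ≤ U := by rw [hU]; exact dE δ hδ
  have xMr : 2 * (2 * M / r) / r * δ ≤ 4 * M * U := by
    have h1 := dR2 (4 * M * δ) (by positivity)
    have e1 : 2 * (2 * M / r) / r * δ = 4 * M * δ / r / r := by ring
    have e2 : 4 * M * δ / (κ0 * r ^ 2) = 4 * M * U := by rw [hU]; ring
    rw [e1, ← e2]; exact h1
  have xY : eY = 100 * M ^ 2 * U := by rw [hE1, hU]; ring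
  have xK : eK ≤ 50 * M ^ 2 * U := by
    have h1 := dR (50 * M ^ 2 * δ) he0
    have e2 : 50 * M ^ 2 * δ / (κ0 * r ^ 2) = 50 * M ^ 2 * U := by rw [hU]; ring
    rw [heK, ← e2]; exact h1
  have hgκ : |g / κ| ≤ 205 * M ^ 2 * U / q := by
    obtain ⟨l, hl⟩ := hL2ne
    obtain ⟨l', hl', -, x1, x2, x3⟩ := hpart' l hl
    have k1 := pairY l' hl' l (hL2 hl)
    have k2 : |g / κ * (β l' - β l)| ≤ 2 * eY + δ + 2 * (2 * M / r) / r * δ := by
      have e : g / κ * (β l' - β l) = ((Y l' - Y l) + q' * (c l' - c l)) -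
        ((Y l' - Y l) + q' * (c l' - c l) - g / κ * (β l' - β l)) := by ring
      rw [e]
      have h1 : |q' * (c l' - c l)| ≤ 2 * (2 * M / r) / r * δ := by
        rw [abs_mul]; exact mul_le_mul bq' x1 (abs_nonneg _) (by positivity)
      have h2 := abs_sub ((Y l' - Y l) + q' * (c l' - c l))
        ((Y l' - Y l) + q' * (c l' - c l) - g / κ * (β l' - β l))
      have h3 := abs_add_le (Y l' - Y l) (q' * (c l' - c l))
      linarith only [h1, h2, h3, k1, x2]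
    have k3 : |g / κ| * q ≤ 205 * M ^ 2 * U := by
      rw [abs_mul] at k2
      have h1 : |g / κ| * q ≤ |g / κ| * |β l' - β l| :=
        mul_le_mul_of_nonneg_left x3 (abs_nonneg _)
      have h2 : M * U ≤ M ^ 2 * U := mul_le_mul_of_nonneg_right hMM2 hU0
      have h3 : U ≤ M ^ 2 * U := le_mul_of_one_le_left hU0 hM2
      rw [xY] at k2
      linarith only [h1, h2, h3, k2, xδ, xMr]
    rw [le_div_iff₀ hq]; exact k3
  obtain ⟨T, hT⟩ : ∃ T, T = U / q := ⟨_, rfl⟩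
  have hT0 : 0 ≤ T := by rw [hT]; positivity
  have hUT : U ≤ T := by
    rw [hT, le_div_iff₀ hq]
    nlinarith
  have hE : 1000 * M ^ 3 * δ / (κ0 * r ^ 2 * q) = 1000 * M ^ 3 * T := by
    rw [hT, hU]; field_simp
  have hgκ' : |g / κ| ≤ 205 * M ^ 2 * T := by
    refine hgκ.trans (le_of_eq ?_)
    rw [hT]; ring
  have m23T : M ^ 2 * T ≤ M ^ 3 * T := mul_le_mul_of_nonneg_right hM23 hT0
  have m2UT : M ^ 2 * U ≤ M ^ 2 * T := mul_le_mul_of_nonneg_left hUT (by positivity)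
  refine ⟨r1, hr1L, r2, hr2L, r3, hr3L, s12, s13, s23, L2, hL2.trans hL1, hL2c, ?_⟩
  rw [hE]
  refine ⟨?_, ?_, ?_, ?_⟩
  · intro l hl l' hl'
    have k1 := pairY l (hL2 hl) l' (hL2 hl')
    obtain ⟨-, -, -, -, b1, -, -⟩ := G.bd l (hL1 (hL2 hl))
    obtain ⟨-, -, -, -, b2, -, -⟩ := G.bd l' (hL1 (hL2 hl'))
    have h1 : |g / κ * (β l - β l')| ≤ 205 * M ^ 2 * T * (2 * M) := by
      rw [abs_mul]
      refine mul_le_mul hgκ' ?_ (abs_nonneg _) (by positivity)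
      have := abs_sub (β l) (β l')
      linarith
    have e : (Y l - Y l') + q' * (c l - c l') = ((Y l - Y l') + q' * (c l - c l') -
      g / κ * (β l - β l')) + g / κ * (β l - β l') := by ring
    rw [e]
    refine (abs_add_le _ _).trans ?_
    rw [xY] at k1
    have e2 : 205 * M ^ 2 * T * (2 * M) = 410 * M ^ 3 * T := by ring
    rw [e2] at h1
    have y7 : 0 ≤ M ^ 3 * T := by positivity
    linarith only [k1, h1, y7, m23T, m2UT]
  · -- F
    have fk1 : ∀ l ∈ L2, |(F l - F r1) - f2 * (a l - a r1)| ≤ 300 * M ^ 3 * T := by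
      intro l hl
      obtain ⟨l', hl', ep, x1, x2, x3⟩ := hpart' l hl
      have hlL1 := hL2 hl
      have hlL := hL1 hlL1
      have hlL' := hL1 hl'
      obtain ⟨⟨c1, hc1, ev1, fv1⟩, -, -⟩ := hcomp l hlL1
      obtain ⟨⟨c1', hc1', ev1', fv1'⟩, -, -⟩ := hcomp l' hl'
      have k1 := G.rel3 hlL' hlL hlL' hlL hc1' hc1 rfl ev1' rfl ev1 ep (fv1'.trans fv1.symm)
      have k2 := pairK l' hl' l hlL1
      obtain ⟨z1, z2, -⟩ := G.pcl c1 hc1 r1 hr1L (fv1.trans fr1.symm)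
      obtain ⟨al, Fl, Ql, -, -, -, -⟩ := G.bd l hlL
      obtain ⟨ac, Fc, Qc, -, -, -, -⟩ := G.bd c1 hc1
      have t1 : |κ * (a l ^ 2 - a c1 ^ 2) * (Y l' - Y l)| ≤ 2 * M ^ 2 * δ := by
        rw [abs_mul, abs_mul]
        have h1 : |a l ^ 2 - a c1 ^ 2| ≤ 2 * M ^ 2 := by
          have y1 : |a l ^ 2| ≤ M ^ 2 := by
            rw [abs_pow]; exact pow_le_pow_left₀ (abs_nonneg _) al 2
          have y2 : |a c1 ^ 2| ≤ M ^ 2 := by
            rw [abs_pow]; exact pow_le_pow_left₀ (abs_nonneg _) ac 2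
          have := abs_sub (a l ^ 2) (a c1 ^ 2)
          linarith
        have h2 : |κ| * |a l ^ 2 - a c1 ^ 2| ≤ 1 * (2 * M ^ 2) :=
          mul_le_mul G.κ1 h1 (abs_nonneg _) zero_le_one
        rw [one_mul] at h2
        exact mul_le_mul h2 x2 (abs_nonneg _) (by positivity)
      have t2 : |κ * ((c l' - c l) * (Q l - Q c1))| ≤ 2 * M * δ := by
        rw [abs_mul, abs_mul]
        have h1 : |Q l - Q c1| ≤ 2 * M := by have := abs_sub (Q l) (Q c1); linarith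
        have h2 : |c l' - c l| * |Q l - Q c1| ≤ δ * (2 * M) :=
          mul_le_mul x1 h1 (abs_nonneg _) hδ
        calc _ ≤ 1 * (δ * (2 * M)) := mul_le_mul G.κ1 h2 (by positivity) zero_le_one
          _ = _ := by ring
      have t3 : |κ * (a r1 + a r2) * (Y l' - Y l)| ≤ 2 * M * δ := by
        rw [abs_mul, abs_mul]
        have h1 : |a r1 + a r2| ≤ 2 * M := (abs_add_le _ _).trans (by linarith)
        have h2 : |κ| * |a r1 + a r2| ≤ 1 * (2 * M) :=
          mul_le_mul G.κ1 h1 (abs_nonneg _) zero_le_one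
        rw [one_mul] at h2
        exact mul_le_mul h2 x2 (abs_nonneg _) (by linarith)
      have t4 : |κ * q2 * (c l' - c l)| ≤ 2 * M / r * δ := by
        rw [abs_mul, abs_mul]
        have h2 : |κ| * |q2| ≤ 1 * (2 * M / r) := mul_le_mul G.κ1 bq2 (abs_nonneg _) zero_le_one
        rw [one_mul] at h2
        exact mul_le_mul h2 x1 (abs_nonneg _) (by positivity)
      have xr : 2 * M / r * δ ≤ 2 * M * U := by
        have h1 := dR (2 * M * δ) (by positivity)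
        have e1 : 2 * M / r * δ = 2 * M * δ / r := by ring
        have e2 : 2 * M * δ / (κ0 * r ^ 2) = 2 * M * U := by rw [hU]; ring
        rw [e1, ← e2]; exact h1
      -- K
      have k3 : |(K l' - K l) - f2 * (β l' - β l)| ≤ 2 * eK + 2 * M * δ + 2 * M * U := by
        have e : (K l' - K l) - f2 * (β l' - β l) = ((K l' - K l) +
          κ * (a r1 + a r2) * (Y l' - Y l) + κ * q2 * (c l' - c l) - f2 * (β l' - β l)) -
          κ * (a r1 + a r2) * (Y l' - Y l) - κ * q2 * (c l' - c l) := by ring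
        rw [e]
        rw [abs_le] at k2 t3 t4 ⊢
        constructor <;> linarith only [k2.1, k2.2, t3.1, t3.2, t4.1, t4.2, xr]
      have k4 : |(a l - a c1) * ((K l' - K l) - f2 * (β l' - β l))| ≤
          2 * M * (2 * eK + 2 * M * δ + 2 * M * U) := by
        rw [abs_mul]
        refine mul_le_mul ?_ k3 (abs_nonneg _) (by linarith)
        have := abs_sub (a l) (a c1)
        linarith
      have k5 : |(β l' - β l) * ((F l - F c1) - f2 * (a l - a c1))| ≤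
          50 * M ^ 2 * δ + 2 * M ^ 2 * δ + 2 * M * δ + 2 * M * (2 * eK + 2 * M * δ + 2 * M * U) := by
        have e : (β l' - β l) * ((F l - F c1) - f2 * (a l - a c1)) =
          -(κ * (a l ^ 2 - a c1 ^ 2) * (Y l' - Y l) + (a l - a c1) * (K l' - K l) +
            κ * ((c l' - c l) * (Q l - Q c1)) - (β l' - β l) * (F l - F c1)) +
          κ * (a l ^ 2 - a c1 ^ 2) * (Y l' - Y l) + κ * ((c l' - c l) * (Q l - Q c1)) +
          (a l - a c1) * ((K l' - K l) - f2 * (β l' - β l)) := by ring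
        rw [e]
        rw [abs_le] at k1 t1 t2 k4 ⊢
        constructor <;> linarith only [k1.1, k1.2, t1.1, t1.2, t2.1, t2.2, k4.1, k4.2]
      have k6 : |(F l - F c1) - f2 * (a l - a c1)| * q ≤ 262 * M ^ 3 * U := by
        rw [abs_mul] at k5
        have h1 : |(F l - F c1) - f2 * (a l - a c1)| * q ≤
            |β l' - β l| * |(F l - F c1) - f2 * (a l - a c1)| := by
          rw [mul_comm]
          exact mul_le_mul_of_nonneg_right x3 (abs_nonneg _)
        have y1 : M ^ 2 * δ ≤ M ^ 2 * U := mul_le_mul_of_nonneg_left xδ (by positivity)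
        have y2 : M ^ 2 * U ≤ M ^ 3 * U := mul_le_mul_of_nonneg_right hM23 hU0
        have y3 : M * δ ≤ M ^ 2 * U := mul_le_mul hMM2 xδ hδ (by positivity)
        have y4 : M * eK ≤ 50 * M ^ 3 * U := by
          calc M * eK ≤ M * (50 * M ^ 2 * U) := mul_le_mul_of_nonneg_left xK (by linarith)
            _ = _ := by ring
        have e9 : 2 * M * (2 * eK + 2 * M * δ + 2 * M * U) =
          4 * (M * eK) + 4 * (M ^ 2 * δ) + 4 * (M ^ 2 * U) := by ring
        rw [e9] at k5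
        linarith only [h1, k5, y1, y2, y3, y4]
      have k7 : |(F l - F c1) - f2 * (a l - a c1)| ≤ 262 * M ^ 3 * T := by
        have e : 262 * M ^ 3 * T = 262 * M ^ 3 * U / q := by rw [hT]; ring
        rw [e, le_div_iff₀ hq]; exact k6
      have k8 : |f2 * (a c1 - a r1)| ≤ 2 * M * U := by
        rw [abs_mul]
        exact (mul_le_mul bf2 z1 (abs_nonneg _) (by positivity)).trans xr
      have e : (F l - F r1) - f2 * (a l - a r1) = ((F l - F c1) - f2 * (a l - a c1)) +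
        (F c1 - F r1) - f2 * (a c1 - a r1) := by ring
      rw [e]
      have y5 : M * U ≤ M ^ 3 * T := by
        have : M * U ≤ M ^ 3 * U := mul_le_mul_of_nonneg_right (by linarith) hU0
        exact this.trans (mul_le_mul_of_nonneg_left hUT (by positivity))
      have y7 : 0 ≤ M ^ 3 * T := by positivity
      have y6 : δ ≤ M ^ 3 * T := by
        refine (xδ.trans hUT).trans (le_mul_of_one_le_left hT0 ?_)
        exact one_le_pow₀ hM
      rw [abs_le] at k7 z2 k8 ⊢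
      constructor <;> linarith only [k7.1, k7.2, z2.1, z2.2, k8.1, k8.2, y5, y6, y7]
    intro l hl l' hl'
    have k1 := fk1 l hl
    have k2 := fk1 l' hl'
    have y7 : 0 ≤ M ^ 3 * T := by positivity
    rw [abs_le] at k1 k2 ⊢
    constructor <;> linarith only [k1.1, k1.2, k2.1, k2.2, y7]
  · intro l hl l' hl'
    refine (pairK l (hL2 hl) l' (hL2 hl')).trans ?_
    have y7 : 0 ≤ M ^ 3 * T := by positivity
    linarith only [y7, xK, m23T, m2UT]
  · have h1 : |g| ≤ |g / κ| := by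
      have nκ : κ ≠ 0 := fun h => by rw [h, abs_zero] at hκ; linarith
      have e : g = g / κ * κ := by field_simp
      conv_lhs => rw [e]
      rw [abs_mul]
      calc |g / κ| * |κ| ≤ |g / κ| * 1 := mul_le_mul_of_nonneg_left G.κ1 (abs_nonneg _)
        _ = _ := mul_one _
    have y7 : 0 ≤ M ^ 3 * T := by positivity
    linarith only [h1, hgκ', m23T, y7]

end Crest.Agent.R136.Cub191
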