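import Crest.Agent.R136.Qd7_329

/-!
# R136: the bilinear rigidity (helper329), part 8: the second height, `quad_model`
-/

set_option autoImplicit false

open Filter Topology

namespace Crest.Agent.R136.Qd329

open Finset
open Crest.Agent.R138.Ex926 (Base U)
open Crest.Agent.R136.Gf356

variable {κ : Type} {B : Base} {G : ℕ → RCfg κ} {Leg : Set (κ → ℝ)} {ν : (κ → ℝ) → ℝ}
  {D σ R x M C m : ℝ} {p0 pA pp pv ppv pP vP : κ → ℝ} {pc : ℝ → κ → ℝ}
  {a b c s β ζ Z Φ : ℕ → ℕ → ℕ → ℝ} {kp : ℕ → ℝ}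

/-- rows of the evolution -/
structure QEvo (B : Base) (G : ℕ → RCfg κ) (x M : ℝ) (a b c β ζ : ℕ → ℕ → ℕ → ℝ) (kp : ℕ → ℝ) :
    Prop where
  zbd : ∀ᶠ n in (U : Filter ℕ), ∀ k ∈ (G n).Z, ∀ k' ∈ (G n).Z, |(G n).z k' - (G n).z k| ≤ M
  evo : ∀ ε : ℝ, 0 < ε → ∀ᶠ n in (U : Filter ℕ), ∀ k k' l, (l, k) ∈ (G n).I → (l, k') ∈ (G n).I →
    |a n k' l - (a n k l + ((G n).z k' - (G n).z k) * c n k l)| ≤ B.d n ^ (x - ε) ∧
    |b n k' l - (b n k l - kp n * ((G n).z k' - (G n).z k) * c n k l ^ 2)| ≤ B.d n ^ (x - ε) ∧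
    |c n k' l - c n k l| ≤ B.d n ^ (x - ε) ∧
    |β n k' l - (β n k l + ((G n).z k' - (G n).z k) * ζ n k l)| ≤ B.d n ^ (x - ε)

/-- a second height with many lines -/
theorem second_height (H : RModel B G σ R Leg ν D) (hσ : 0 < σ) {e : ℝ} (he : 0 < e)
    (heR : 4 * e / σ ≤ R) :
    ∀ᶠ n in (U : Filter ℕ), ∀ k0, ∀ L2 ⊆ (G n).slice k0, k0 ∈ (G n).Z → L2.Nonempty →
      ∃ k1 ∈ (G n).Z, B.d n ^ (4 * e / σ) < |(G n).z k1 - (G n).z k0| ∧
        B.d n ^ (2 * e) * (L2.card : ℝ) ≤ ((L2.filter fun l => (l, k1) ∈ (G n).I).card : ℝ) := by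
  classical
  filter_upwards [H.line e he, H.frost (4 * e / σ) (by positivity) heR e he,
    ev_const_le B he 2] with n hline hfr h2 k0 L2 hL2 hk0 hne
  have hpos : ∀ t : ℝ, 0 < B.d n ^ t := fun t => rpos B n t
  by_contra hcon
  push Not at hcon
  have hL0 : (0 : ℝ) < L2.card := by exact_mod_cast hne.card_pos
  have hZ0 : (0 : ℝ) < (G n).Z.card := by exact_mod_cast card_pos.2 ⟨k0, hk0⟩
  -- double count
  have h3 : ∑ l ∈ L2, (((G n).hts l).card : ℝ) =
      ∑ k ∈ (G n).Z, ((L2.filter fun l => (l, k) ∈ (G n).I).card : ℝ) := by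
    have : ∑ l ∈ L2, ((G n).hts l).card =
        ∑ k ∈ (G n).Z, (L2.filter fun l => (l, k) ∈ (G n).I).card := by
      simp only [RCfg.hts, card_filter]
      exact sum_comm
    exact_mod_cast this
  have h4 : B.d n ^ e * (G n).Z.card * L2.card ≤ ∑ l ∈ L2, (((G n).hts l).card : ℝ) := by
    calc B.d n ^ e * (G n).Z.card * L2.card = ∑ _l ∈ L2, B.d n ^ e * ((G n).Z.card : ℝ) := by
          rw [sum_const, nsmul_eq_mul]; ring
      _ ≤ _ := sum_le_sum fun l hl => hline l (RCfg.mem_slice.1 (hL2 hl)).1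
  have h5 := hfr k0 hk0
  have e1 : σ * (4 * e / σ) - e = 3 * e := by field_simp; ring
  rw [e1] at h5
  have h6 : ∑ k ∈ (G n).Z, ((L2.filter fun l => (l, k) ∈ (G n).I).card : ℝ) ≤
      B.d n ^ (3 * e) * (G n).Z.card * L2.card + (G n).Z.card * (B.d n ^ (2 * e) * L2.card) := by
    have h7 : (G n).Z = (G n).hbox (4 * e / σ) k0 ∪
        ((G n).Z.filter fun k => k ∉ (G n).hbox (4 * e / σ) k0) := by
      ext k
      simp only [mem_union, mem_filter, RCfg.hbox]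
      tauto
    have h8 : ∑ k ∈ (G n).Z, ((L2.filter fun l => (l, k) ∈ (G n).I).card : ℝ) ≤
        ∑ k ∈ (G n).hbox (4 * e / σ) k0, ((L2.filter fun l => (l, k) ∈ (G n).I).card : ℝ) +
        ∑ k ∈ (G n).Z.filter fun k => k ∉ (G n).hbox (4 * e / σ) k0,
          ((L2.filter fun l => (l, k) ∈ (G n).I).card : ℝ) := by
      conv_lhs => rw [h7]
      rw [← sum_union_inter]
      have : 0 ≤ ∑ k ∈ (G n).hbox (4 * e / σ) k0 ∩
          ((G n).Z.filter fun k => k ∉ (G n).hbox (4 * e / σ) k0),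
          ((L2.filter fun l => (l, k) ∈ (G n).I).card : ℝ) :=
        sum_nonneg fun _ _ => Nat.cast_nonneg _
      linarith
    have h9 : ∑ k ∈ (G n).hbox (4 * e / σ) k0, ((L2.filter fun l => (l, k) ∈ (G n).I).card : ℝ) ≤
        B.d n ^ (3 * e) * (G n).Z.card * L2.card := by
      calc _ ≤ ∑ _k ∈ (G n).hbox (4 * e / σ) k0, (L2.card : ℝ) :=
            sum_le_sum fun k _ => Nat.cast_le.2 (card_le_card (filter_subset _ _))
        _ = ((G n).hbox (4 * e / σ) k0).card * L2.card := by rw [sum_const, nsmul_eq_mul]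
        _ ≤ _ := mul_le_mul_of_nonneg_right h5 hL0.le
    have h10 : ∑ k ∈ (G n).Z.filter fun k => k ∉ (G n).hbox (4 * e / σ) k0,
          ((L2.filter fun l => (l, k) ∈ (G n).I).card : ℝ) ≤
        (G n).Z.card * (B.d n ^ (2 * e) * L2.card) := by
      calc _ ≤ ∑ _k ∈ (G n).Z.filter fun k => k ∉ (G n).hbox (4 * e / σ) k0,
            (B.d n ^ (2 * e) * (L2.card : ℝ)) := by
            refine sum_le_sum fun k hk => ?_
            obtain ⟨i1, i2⟩ := mem_filter.1 hk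
            refine (hcon k i1 ?_).le
            by_contra hle
            exact i2 (mem_filter.2 ⟨i1, by rw [H.base n]; exact not_lt.1 hle⟩)
        _ = ((G n).Z.filter fun k => k ∉ (G n).hbox (4 * e / σ) k0).card *
            (B.d n ^ (2 * e) * L2.card) := by rw [sum_const, nsmul_eq_mul]
        _ ≤ _ := mul_le_mul_of_nonneg_right (Nat.cast_le.2 (card_le_card (filter_subset _ _)))
          (mul_nonneg (hpos _).le hL0.le)
    linarith
  -- contradiction
  have h11 : B.d n ^ e * ((G n).Z.card * L2.card) ≤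
      (B.d n ^ (3 * e) + B.d n ^ (2 * e)) * ((G n).Z.card * L2.card) := by
    have := h4.trans (h3.le.trans h6)
    nlinarith
  have hZL : (0 : ℝ) < (G n).Z.card * L2.card := mul_pos hZ0 hL0
  have h12 := le_of_mul_le_mul_right h11 hZL
  have h13 : B.d n ^ (3 * e) < B.d n ^ (2 * e) :=
    Real.rpow_lt_rpow_of_exponent_gt (B.pos n) (B.lt n) (by linarith)
  have h14 : 2 * B.d n ^ (2 * e) ≤ B.d n ^ e := by
    have := mul_le_mul_of_nonneg_right h2 (hpos (2 * e)).le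
    refine this.trans (le_of_eq ?_)
    rw [← rpow_add']
    congr 1
    ring
  linarith

set_option maxHeartbeats 600000 in
/-- **two lines of a position cell with separated `c`** -/
theorem sep_pair (H : RUnif B G Leg ν D)
    (Q : QRow B G x M C p0 pA pp pv pP vP pc a b c s β ζ Z Φ kp)
    (P : QProf Leg ν x m p0 pA pp pv ppv pP vP pc) {e : ℝ} (he : 0 < e)
    (hx1 : 101 * D ^ 7 * e / m ≤ x / 4) (hx2 : C * D ^ 10 * e + e ≤ x / 4) :
    ∀ᶠ n in (U : Filter ℕ), ∀ k, ∀ T ⊆ (G n).slice k, T.Nonempty →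
      B.d n ^ (4 * e) * (((G n).slice k).card : ℝ) ≤ T.card →
      ∃ l ∈ T, ∃ l' ∈ T, (G n).loose pp (D ^ 5 * e) k l l' ∧
        B.d n ^ (101 * D ^ 7 * e / m) / 3 < |c n k l' - c n k l| := by
  classical
  have hD := H.D1
  have hD0 : 0 < D := by linarith
  filter_upwards [net_facts H p0 pp P.l0 P.lp Q.all he, net_facts H p0 pv P.l0 P.lv Q.all he,
    few_c H Q P he hx1 hx2, H.up ppv P.lpv (D ^ 5 * e) (by positivity), H.up p0 P.l0 e he,
    Q.all e he] with n np nv hfc hup hup0 hall k T hT hTne hTc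
  have hpos : ∀ t : ℝ, 0 < B.d n ^ t := fun t => rpos B n t
  have hSne : ((G n).slice k).Nonempty := hTne.mono hT
  have hS0 : (0 : ℝ) < (((G n).slice k).card : ℝ) := by exact_mod_cast hSne.card_pos
  obtain ⟨lp, a1, a2, a3, a4, a5⟩ := np k hSne
  obtain ⟨lv, b1, b2, b3, b4, b5⟩ := nv k hSne
  set S : ℝ := (((G n).slice k).card : ℝ) with hS
  have hSle : S ≤ B.d n ^ (-ν p0 - D * e) := by
    obtain ⟨l0, hl0⟩ := hSne
    have hl0I := H.memSlice.1 hl0
    refine le_trans (Nat.cast_le.2 (card_le_card ?_)) (hup0 l0 k hl0I)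
    intro l hl
    exact RCfg.mem_box.2 ⟨hl, hall k l0 l hl0I (H.memSlice.1 hl)⟩
  have h66 : (D ^ 6 + 1) * e ≤ 2 * D ^ 6 * e := by
    have : 1 ≤ D ^ 6 := one_le_pow₀ hD
    nlinarith
  have hV := (rpow_anti B n (s := -ν p0 + ν pv + (D ^ 6 + 1) * e)
    (t := -ν p0 + ν pv + 2 * D ^ 6 * e) (by linarith)).trans b5
  -- popular position cell
  obtain ⟨v, hv⟩ := pop1 T lp (N := B.d n ^ (ν pp - e) * S)
    (le_trans (Nat.cast_le.2 (card_le_card (image_subset_image hT))) a4)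
  set F := T.filter fun t => lp t = v with hF
  have hFlow : B.d n ^ (5 * e - ν pp) ≤ F.card := by
    have h1 : B.d n ^ (4 * e) * S ≤ (B.d n ^ (ν pp - e) * S) * F.card := hTc.trans hv
    have h2 : B.d n ^ (4 * e) ≤ B.d n ^ (ν pp - e) * F.card := by
      refine le_of_mul_le_mul_right (le_trans h1 (le_of_eq ?_)) hS0
      ring
    have h3 := mul_le_mul_of_nonneg_left h2 (hpos (-(ν pp - e))).le
    calc B.d n ^ (5 * e - ν pp) = B.d n ^ (-(ν pp - e)) * B.d n ^ (4 * e) := by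
          rw [← rpow_add']; congr 1; ring
      _ ≤ B.d n ^ (-(ν pp - e)) * (B.d n ^ (ν pp - e) * F.card) := h3
      _ = F.card := by
          rw [← mul_assoc, ← rpow_add']
          have : -(ν pp - e) + (ν pp - e) = 0 := by ring
          rw [this, Real.rpow_zero, one_mul]
  have hFne : F.Nonempty := by
    rw [← card_pos]
    have : (0 : ℝ) < F.card := lt_of_lt_of_le (hpos _) hFlow
    exact_mod_cast this
  obtain ⟨l, hl⟩ := hFne
  obtain ⟨hlT, hlv⟩ := mem_filter.1 hl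
  by_contra hcon
  push Not at hcon
  have hFc : ∀ l' ∈ F, |c n k l' - c n k l| ≤ B.d n ^ (101 * D ^ 7 * e / m) / 3 := by
    intro l' hl'
    obtain ⟨i1, i2⟩ := mem_filter.1 hl'
    exact hcon l hlT l' i1 (a2 l (hT hlT) l' (hT i1) (hlv.trans i2.symm))
  have hAc := hfc k lv ((G n).slice k) (Subset.refl _) b1 b3 hV (c n k l) (F.image lv)
    (image_subset_image ((filter_subset _ _).trans hT)) (by
      intro w hw
      obtain ⟨l', hl', rfl⟩ := mem_image.1 hw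
      refine ⟨l', hT (mem_filter.1 hl').1, rfl, (hFc l' hl').trans (le_of_eq (by ring))⟩)
  have hFup : (F.card : ℝ) ≤ (B.d n ^ (97 * D ^ 7 * e) * (((G n).slice k).image lv).card) *
      B.d n ^ (-ν ppv - D * (D ^ 5 * e)) := by
    refine card_le_img F lv hAc (hpos _).le fun w hw => ?_
    obtain ⟨l0, hl0, hw0⟩ := mem_image.1 hw
    obtain ⟨i1, i2⟩ := mem_filter.1 hl0
    refine le_trans (Nat.cast_le.2 (card_le_card ?_)) (hup l0 k (H.memSlice.1 (hT i1)))
    intro l' hl'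
    obtain ⟨j1, j2⟩ := mem_filter.1 hl'
    obtain ⟨j3, j4⟩ := mem_filter.1 j1
    refine RCfg.mem_box.2 ⟨hT j3, fun j => ?_⟩
    rcases P.por j with hj | hj
    · rw [hj]; exact a2 l0 (hT i1) l' (hT j3) (i2.trans j4.symm) j
    · rw [hj]; exact b2 l0 (hT i1) l' (hT j3) (hw0.trans j2.symm) j
  have hfin : (F.card : ℝ) ≤ B.d n ^ (90 * D ^ 7 * e - ν pp) := by
    refine hFup.trans ?_
    calc (B.d n ^ (97 * D ^ 7 * e) * (((G n).slice k).image lv).card) *
          B.d n ^ (-ν ppv - D * (D ^ 5 * e))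
        ≤ (B.d n ^ (97 * D ^ 7 * e) * (B.d n ^ (ν pv - e) * B.d n ^ (-ν p0 - D * e))) *
          B.d n ^ (-ν ppv - D * (D ^ 5 * e)) := by
          have g1 := b4.trans (mul_le_mul_of_nonneg_left hSle (hpos _).le)
          have := hpos (97 * D ^ 7 * e)
          have := hpos (-ν ppv - D * (D ^ 5 * e))
          gcongr
      _ = B.d n ^ (97 * D ^ 7 * e + ((ν pv - e) + (-ν p0 - D * e)) +
          (-ν ppv - D * (D ^ 5 * e))) := by
          simp only [rpow_add']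
      _ ≤ _ := by
          refine rpow_anti B n ?_
          have i1 : D * (D ^ 5 * e) ≤ D ^ 7 * e := by
            have : D * (D ^ 5 * e) = D ^ 6 * e := by ring
            rw [this]
            exact mul_le_mul_of_nonneg_right (pow_le_pow_right₀ hD (by norm_num)) he.le
          have i2 : D * e ≤ D ^ 7 * e := by
            refine mul_le_mul_of_nonneg_right ?_ he.le
            calc D = D ^ 1 := (pow_one D).symm
              _ ≤ D ^ 7 := pow_le_pow_right₀ hD (by norm_num)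
          have i3 : e ≤ D ^ 7 * e := by
            have : 1 ≤ D ^ 7 := one_le_pow₀ hD
            nlinarith
          have i4 := P.H3
          linarith
  have hlt : B.d n ^ (90 * D ^ 7 * e - ν pp) < B.d n ^ (5 * e - ν pp) := by
    refine Real.rpow_lt_rpow_of_exponent_gt (B.pos n) (B.lt n) ?_
    have : 1 ≤ D ^ 7 := one_le_pow₀ hD
    nlinarith
  linarith

/-- the second height, real numbers -/
theorem second_key {u l1 m1 m2 k M Λ δ : ℝ} {a b c β ζ a' b' c' β' ζ' A A' Bb Bb' E E' : ℝ}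
    (hM : 1 ≤ M) (hΛ : 1 ≤ Λ) (hδ : 0 ≤ δ) (hu : |u| ≤ M) (hm1 : |m1| ≤ Λ) (hm2 : |m2| ≤ Λ)
    (pa : |A - A'| ≤ δ) (pb : |Bb - Bb'| ≤ δ) (pE : |E - E'| ≤ δ)
    (ea : |A - (a + u * c)| ≤ δ) (ea' : |A' - (a' + u * c')| ≤ δ)
    (eb : |Bb - (b - k * u * c ^ 2)| ≤ δ) (eb' : |Bb' - (b' - k * u * c' ^ 2)| ≤ δ)
    (ee : |E - (β + u * ζ)| ≤ δ) (ee' : |E' - (β' + u * ζ')| ≤ δ)
    (rb : |(β - β') - m1 * (b - b') - m2 * (a - a')| ≤ δ)
    (rz : |(ζ - ζ') - l1 * (c - c') + k * m1 * (c ^ 2 - c' ^ 2)| ≤ δ) :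
    |u * (l1 - m2) * (c - c')| ≤ 20 * M * Λ * δ := by
  have id1 : u * (l1 - m2) * (c - c') =
      (E - E') - m1 * (Bb - Bb') - m2 * (A - A') - ((E - (β + u * ζ)) - (E' - (β' + u * ζ'))) +
      m1 * ((Bb - (b - k * u * c ^ 2)) - (Bb' - (b' - k * u * c' ^ 2))) +
      m2 * ((A - (a + u * c)) - (A' - (a' + u * c'))) -
      ((β - β') - m1 * (b - b') - m2 * (a - a')) -
      u * ((ζ - ζ') - l1 * (c - c') + k * m1 * (c ^ 2 - c' ^ 2)) := by ring
  have hδΛ : δ ≤ Λ * δ := by nlinarith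
  have hΛδ : 0 ≤ Λ * δ := by positivity
  have t1 : ∀ p q : ℝ, |p| ≤ δ → |q| ≤ δ → |p - q| ≤ 2 * δ := by
    intro p q hp hq
    have := abs_sub p q
    linarith
  have t2 : ∀ p q : ℝ, |p| ≤ Λ → |q| ≤ 2 * δ → |p * q| ≤ 2 * (Λ * δ) := by
    intro p q hp hq
    rw [abs_mul]
    calc |p| * |q| ≤ Λ * (2 * δ) := mul_le_mul hp hq (abs_nonneg _) (by linarith)
      _ = _ := by ring
  have s1 : |E - E'| ≤ 2 * (Λ * δ) := by linarith
  have s2 : |m1 * (Bb - Bb')| ≤ 2 * (Λ * δ) := t2 _ _ hm1 (by linarith)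
  have s3 : |m2 * (A - A')| ≤ 2 * (Λ * δ) := t2 _ _ hm2 (by linarith)
  have s4 := t1 _ _ ee ee'
  have s5 := t2 _ _ hm1 (t1 _ _ eb eb')
  have s6 := t2 _ _ hm2 (t1 _ _ ea ea')
  have s8 : |u * ((ζ - ζ') - l1 * (c - c') + k * m1 * (c ^ 2 - c' ^ 2))| ≤ M * δ := by
    rw [abs_mul]
    exact mul_le_mul hu rz (abs_nonneg _) (by linarith)
  have hMΛ : Λ * δ ≤ M * (Λ * δ) := by nlinarith
  have hMδ : M * δ ≤ M * (Λ * δ) := by nlinarith
  rw [id1]
  have tri : ∀ p1 p2 p3 p4 p5 p6 p7 p8 : ℝ, |p1 - p2 - p3 - p4 + p5 + p6 - p7 - p8| ≤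
      |p1| + |p2| + |p3| + |p4| + |p5| + |p6| + |p7| + |p8| := by
    intro p1 p2 p3 p4 p5 p6 p7 p8
    have := abs_sub (p1 - p2 - p3 - p4 + p5 + p6 - p7) p8
    have := abs_sub (p1 - p2 - p3 - p4 + p5 + p6) p7
    have := abs_add_le (p1 - p2 - p3 - p4 + p5) p6
    have := abs_add_le (p1 - p2 - p3 - p4) p5
    have := abs_sub (p1 - p2 - p3) p4
    have := abs_sub (p1 - p2) p3
    have := abs_sub p1 p2
    linarith
  refine (tri _ _ _ _ _ _ _ _).trans ?_
  linarith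

/-- from the second height to the difference of the slopes -/
theorem second_div (B : Base) (n : ℕ) {M e E w y x ε d : ℝ} (hM : 1 ≤ M)
    (hK : 1000 * M ^ 2 ≤ B.d n ^ (-e)) {uu cc : ℝ} (hd : 0 ≤ d) (hu : B.d n ^ w ≤ uu)
    (hc : B.d n ^ y / 6 ≤ cc)
    (key : uu * d * cc ≤ 20 * M * B.d n ^ (-e) * B.d n ^ (x - (E + e)))
    (hε : w + y + E + 3 * e ≤ ε) : d ≤ B.d n ^ (x - ε) := by
  have hpos : ∀ t : ℝ, 0 < B.d n ^ t := fun t => rpos B n t
  have hMM : M ≤ M ^ 2 := by nlinarith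
  have hy0 := hpos y
  have hw0 := hpos w
  have h1 : B.d n ^ w * d * (B.d n ^ y / 6) ≤
      20 * M * B.d n ^ (-e) * B.d n ^ (x - (E + e)) := by
    refine le_trans ?_ key
    exact mul_le_mul (mul_le_mul_of_nonneg_right hu hd) hc (by positivity)
      (mul_nonneg (hw0.le.trans hu) hd)
  have h2 : B.d n ^ (w + y) * d ≤ 120 * M * B.d n ^ (-e + (x - (E + e))) := by
    rw [rpow_add', rpow_add']
    have h5 : B.d n ^ w * B.d n ^ y * d = 6 * (B.d n ^ w * d * (B.d n ^ y / 6)) := by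
      ring
    rw [h5]
    calc _ ≤ 6 * (20 * M * B.d n ^ (-e) * B.d n ^ (x - (E + e))) :=
          mul_le_mul_of_nonneg_left h1 (by norm_num)
      _ = _ := by ring
  have h3 := mul_le_mul_of_nonneg_left h2 (hpos (-(w + y))).le
  rw [← mul_assoc, ← rpow_add', neg_add_cancel, Real.rpow_zero, one_mul] at h3
  refine h3.trans ?_
  have h4 : B.d n ^ (-(w + y)) * (120 * M * B.d n ^ (-e + (x - (E + e)))) =
      120 * M * B.d n ^ (-(w + y) + (-e + (x - (E + e)))) := by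
    rw [rpow_add' B n (-(w + y))]
    ring
  rw [h4]
  calc 120 * M * B.d n ^ (-(w + y) + (-e + (x - (E + e))))
      ≤ B.d n ^ (-e) * B.d n ^ (-(w + y) + (-e + (x - (E + e)))) :=
        mul_le_mul_of_nonneg_right ((by linarith : 120 * M ≤ 1000 * M ^ 2).trans hK) (hpos _).le
    _ = B.d n ^ (-e + (-(w + y) + (-e + (x - (E + e))))) := (rpow_add' B n _ _).symm
    _ ≤ _ := rpow_anti B n (by linarith)

set_option maxHeartbeats 1000000 in
/-- **one relation for positions and velocities on a dense part of all lines** -/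
theorem quad_model (H : RModel B G σ R Leg ν D) (hσ : 0 < σ) (hR : 0 < R)
    (Q : QRow B G x M C p0 pA pp pv pP vP pc a b c s β ζ Z Φ kp)
    (V : QEvo B G x M a b c β ζ kp)
    (P : QProf Leg ν x m p0 pA pp pv ppv pP vP pc) {ε : ℝ} (hε : 0 < ε) :
    ∀ᶠ n in (U : Filter ℕ), ∃ k ∈ (G n).Z, ∃ l1 l2 m1 m2 : ℝ,
      |l1| ≤ B.d n ^ (-ε) ∧ |l2| ≤ B.d n ^ (-ε) ∧ |m1| ≤ B.d n ^ (-ε) ∧ |m2| ≤ B.d n ^ (-ε) ∧
      |l1 - m2| ≤ B.d n ^ (x - ε) ∧
      ∃ L2 ⊆ (G n).slice k, B.d n ^ ε * ((G n).L.card : ℝ) ≤ L2.card ∧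
        ∀ l ∈ L2, ∀ l' ∈ L2, QRel (kp n) l1 l2 m1 m2 (B.d n ^ (x - ε)) (a n k) (b n k) (c n k)
          (s n k) (β n k) (ζ n k) (Z n k) l l' := by
  classical
  have hD := H.D1
  have hC := Q.C1
  have hx := Q.x0
  have hm := P.m0
  have hM := Q.M1
  set t := min (min x ε) R with ht
  have ht0 : 0 < t := lt_min (lt_min hx hε) hR
  set K := 10000 * (C * D ^ 10 + D ^ 7 + D ^ 7 / m + 1 + 1 / σ) with hK
  have hD7 : 1 ≤ D ^ 7 := one_le_pow₀ hD
  have hD10 : 1 ≤ D ^ 10 := one_le_pow₀ hD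
  have hCD : 1 ≤ C * D ^ 10 := by nlinarith
  have hDm : 0 < D ^ 7 / m := by positivity
  have hσ1 : 0 < 1 / σ := by positivity
  have hK0 : 0 < K := by positivity
  set e := t / K with he
  have he0 : 0 < e := by positivity
  have heK : K * e = t := by rw [he]; field_simp
  have htx : t ≤ x := (min_le_left _ _).trans (min_le_left _ _)
  have htε : t ≤ ε := (min_le_left _ _).trans (min_le_right _ _)
  have htR : t ≤ R := min_le_right _ _
  have q1 : 0 ≤ C * D ^ 10 * e := by positivity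
  have q2 : 0 ≤ D ^ 7 * e := by positivity
  have q3 : 0 ≤ D ^ 7 / m * e := by positivity
  have q4 : 0 ≤ 1 / σ * e := by positivity
  have hexp : K * e = 10000 * (C * D ^ 10 * e) + 10000 * (D ^ 7 * e) +
      10000 * (D ^ 7 / m * e) + 10000 * e + 10000 * (1 / σ * e) := by rw [hK]; ring
  have e1 : 101 * D ^ 7 * e / m = 101 * (D ^ 7 / m * e) := by ring
  have e3 : 4 * e / σ = 4 * (1 / σ * e) := by ring
  set y := 101 * D ^ 7 * e / m with hy
  set w := 4 * e / σ with hw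
  have h510 : C * (D ^ 5 * e) ≤ C * D ^ 10 * e := by
    have h5 : D ^ 5 ≤ D ^ 10 := pow_le_pow_right₀ hD (by norm_num)
    have h6 := mul_le_mul_of_nonneg_right h5 he0.le
    have h7 := mul_le_mul_of_nonneg_left h6 (by linarith : (0 : ℝ) ≤ C)
    linarith
  filter_upwards [quad_one H.toRUnif Q P he0,
    second_height H hσ he0 (by rw [← hw, e3]; linarith),
    sep_pair H.toRUnif Q P he0 (by rw [← hy, e1]; linarith) (by linarith),
    H.slice e he0, V.zbd, V.evo e he0, Q.bd, Q.pcl _ (show 0 < D ^ 5 * e by positivity),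
    ev_const_le B he0 (1000 * M ^ 2)] with n hone hsec hsep hsl hzb hevo hbd hpc hK2
  have hpos : ∀ t : ℝ, 0 < B.d n ^ t := fun t => rpos B n t
  have hcst : ∀ w t : ℝ, w ≤ 1000 * M ^ 2 → ∀ t', t + e ≤ t' → w * B.d n ^ t' ≤ B.d n ^ t := by
    intro w t hw t' ht
    calc w * B.d n ^ t' ≤ B.d n ^ (-e) * B.d n ^ t' :=
          mul_le_mul_of_nonneg_right (hw.trans hK2) (hpos _).le
      _ = B.d n ^ (-e + t') := by rw [rpow_add']
      _ ≤ _ := rpow_anti B n (by linarith)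
  have hM2 : 1 ≤ M ^ 2 := one_le_pow₀ hM
  have hMM : M ≤ M ^ 2 := by nlinarith
  obtain ⟨⟨i0, k0⟩, hik⟩ := H.nonempty n
  have hk0 : k0 ∈ (G n).Z := H.memZ hik
  have hSne : ((G n).slice k0).Nonempty := ⟨i0, H.memSlice.2 hik⟩
  obtain ⟨l1, l2, m1, m2, hl1, hl2, hm1, hm2, L2, hL2, hc2, hrel⟩ := hone k0 hSne
  have hLL : (0 : ℝ) < (G n).L.card := by exact_mod_cast card_pos.2 ⟨i0, H.memL hik⟩
  have hS0 : (0 : ℝ) < (((G n).slice k0).card : ℝ) := by exact_mod_cast hSne.card_pos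
  have hL2ne : L2.Nonempty := by
    rw [← card_pos]
    have : (0 : ℝ) < L2.card := lt_of_lt_of_le (mul_pos (hpos _) hS0) hc2
    exact_mod_cast this
  have hL2c : B.d n ^ (2 * e) * ((G n).L.card : ℝ) ≤ L2.card := by
    have h1 := mul_le_mul_of_nonneg_left (hsl k0 hk0) (hpos e).le
    refine le_trans (le_of_eq ?_) (h1.trans hc2)
    rw [← mul_assoc, ← rpow_add']
    congr 2
    ring
  obtain ⟨k1, hk1, hu, hT⟩ := hsec k0 L2 hL2 hk0 hL2ne
  set T := L2.filter fun l => (l, k1) ∈ (G n).I with hTd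
  have hTS : T ⊆ (G n).slice k1 := fun l hl => H.memSlice.2 (mem_filter.1 hl).2
  have hTne : T.Nonempty := by
    rw [← card_pos]
    have hL0 : (0 : ℝ) < L2.card := by exact_mod_cast hL2ne.card_pos
    have : (0 : ℝ) < T.card := lt_of_lt_of_le (mul_pos (hpos _) hL0) hT
    exact_mod_cast this
  have hTc : B.d n ^ (4 * e) * (((G n).slice k1).card : ℝ) ≤ T.card := by
    have h1 := mul_le_mul_of_nonneg_left hL2c (hpos (2 * e)).le
    have h2 : (((G n).slice k1).card : ℝ) ≤ (G n).L.card :=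
      Nat.cast_le.2 (card_le_card (filter_subset _ _))
    refine le_trans (mul_le_mul_of_nonneg_left h2 (hpos _).le) (le_trans (le_of_eq ?_)
      (h1.trans hT))
    rw [← mul_assoc, ← rpow_add']
    congr 2
    ring
  obtain ⟨l, hl, l', hl', hloose, hsepc⟩ := hsep k1 T hTS hTne hTc
  obtain ⟨hlL, hlI1⟩ := mem_filter.1 hl
  obtain ⟨hlL', hlI1'⟩ := mem_filter.1 hl'
  have hlI0 := H.memSlice.1 (hL2 hlL)
  have hlI0' := H.memSlice.1 (hL2 hlL')
  obtain ⟨pa, pb, -, pβ⟩ := hpc k1 l l' hlI1 hlI1' hloose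
  obtain ⟨ea, eb, ec, eβ⟩ := hevo k0 k1 l hlI0 hlI1
  obtain ⟨ea', eb', ec', eβ'⟩ := hevo k0 k1 l' hlI0' hlI1'
  obtain ⟨-, rβ, rζ, -⟩ := hrel l hlL l' hlL'
  set u := (G n).z k1 - (G n).z k0 with hud
  have huM : |u| ≤ M := hzb k0 hk0 k1 hk1
  -- all errors
  set δ := B.d n ^ (x - (C * D ^ 10 * e + e)) with hδ
  have hδ0 : 0 < δ := hpos _
  have m1' : B.d n ^ (x - C * (D ^ 5 * e)) ≤ δ := rpow_anti B n (by linarith)
  have m2' : B.d n ^ (x - e) ≤ δ := rpow_anti B n (by linarith)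
  set Λ := B.d n ^ (-e) with hΛ
  have hΛ1 : 1 ≤ Λ := by
    have := hcst 1 (-e) (by linarith) 0 (by linarith)
    rwa [Real.rpow_zero, mul_one] at this
  have key : |u * (l1 - m2) * (c n k0 l - c n k0 l')| ≤ 20 * M * Λ * δ :=
    second_key hM hΛ1 hδ0.le huM hm1 hm2 (pa.trans m1') (pb.trans m1') (pβ.trans m1')
      (ea.trans m2') (ea'.trans m2') (eb.trans m2') (eb'.trans m2') (eβ.trans m2')
      (eβ'.trans m2') (rβ.trans m2') (rζ.trans m2')
  have hcsep : B.d n ^ y / 6 ≤ |c n k0 l - c n k0 l'| := by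
    have h1 : c n k1 l' - c n k1 l = -(c n k0 l - c n k0 l') + (c n k1 l' - c n k0 l') -
        (c n k1 l - c n k0 l) := by ring
    have h2 := abs_sub (-(c n k0 l - c n k0 l') + (c n k1 l' - c n k0 l')) (c n k1 l - c n k0 l)
    have h3 := abs_add_le (-(c n k0 l - c n k0 l')) (c n k1 l' - c n k0 l')
    rw [abs_neg] at h3
    rw [h1] at hsepc
    have h4 := hcst 12 y (by linarith) (x - e) (by rw [e1]; linarith)
    linarith
  refine ⟨k0, hk0, l1, l2, m1, m2, hl1.trans (rpow_anti B n (by linarith)),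
    hl2.trans (rpow_anti B n (by linarith)), hm1.trans (rpow_anti B n (by linarith)),
    hm2.trans (rpow_anti B n (by linarith)), ?_, L2, hL2,
    le_trans (mul_le_mul_of_nonneg_right (rpow_anti B n (by linarith)) hLL.le) hL2c, ?_⟩
  · rw [abs_mul, abs_mul] at key
    refine second_div B n hM hK2 (abs_nonneg _) hu.le hcsep key ?_
    have e4 : 4 * e / σ = w := hw.symm
    linarith
  · intro l hl l' hl'
    obtain ⟨k1, k2, k3, k4⟩ := hrel l hl l' hl'
    have h1 : B.d n ^ (x - e) ≤ B.d n ^ (x - ε) := rpow_anti B n (by linarith)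
    exact ⟨k1.trans h1, k2.trans h1, k3.trans h1, k4.trans h1⟩

end Crest.Agent.R136.Qd329
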