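import Crest.Agent.R136.Cub2_191
import Crest.Agent.R136.Qd8_329

/-!
# R136, the specials of the thin pins (helper191), part 4: one height of an `RUnif`

`SRow` : rows of the sheet at one height, `SProf` : the facts of the profile.
`cub_one` : the relations `COut` on a `ρ^ε`-part of the lines alive at one height.
-/

set_option autoImplicit false
set_option linter.unusedVariables false

open Filter Topology

namespace Crest.Agent.R136.Cub191

open Finset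
open Crest.Agent.R136.Qd329
open Crest.Agent.R138.Ex926 (Base U)
open Crest.Agent.R136.Gf356

variable {κ : Type}

/-- rows of the special pair positions / velocities at one height -/
structure SRow (B : Base) (G : ℕ → RCfg κ) (x M C : ℝ) (p0 pp pv pc : κ → ℝ)
    (pa pb pq : ℝ → κ → ℝ) (a F Q c β Y K Φ : ℕ → ℕ → ℕ → ℝ) (kp : ℕ → ℝ) : Prop where
  x0 : 0 < x
  M1 : 1 ≤ M
  C1 : 1 ≤ C
  kp1 : ∀ n, |kp n| ≤ 1
  kpl : ∀ ε : ℝ, 0 < ε → ∀ᶠ n in (U : Filter ℕ), B.d n ^ ε ≤ |kp n|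
  bd : ∀ᶠ n in (U : Filter ℕ), ∀ k l, (l, k) ∈ (G n).I → |a n k l| ≤ M ∧ |F n k l| ≤ M ∧
    |Q n k l| ≤ M ∧ |c n k l| ≤ M ∧ |β n k l| ≤ M ∧ |Y n k l| ≤ M ∧ |K n k l| ≤ M
  pcl : ∀ ε : ℝ, 0 < ε → ∀ᶠ n in (U : Filter ℕ), ∀ k l l', (l, k) ∈ (G n).I →
    (l', k) ∈ (G n).I → (G n).loose pp ε k l l' →
      |a n k l - a n k l'| ≤ B.d n ^ (x - C * ε) ∧ |F n k l - F n k l'| ≤ B.d n ^ (x - C * ε) ∧
      |Q n k l - Q n k l'| ≤ B.d n ^ (x - C * ε) ∧
      |(Φ n k l + kp n * a n k l ^ 2 * Y n k l + a n k l * K n k l +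
          kp n * (c n k l * Q n k l)) -
        (Φ n k l' + kp n * a n k l' ^ 2 * Y n k l' + a n k l' * K n k l' +
          kp n * (c n k l' * Q n k l'))| ≤ B.d n ^ (x - C * ε)
  vcl : ∀ ε : ℝ, 0 < ε → ∀ᶠ n in (U : Filter ℕ), ∀ k l l', (l, k) ∈ (G n).I →
    (l', k) ∈ (G n).I → (G n).loose pv ε k l l' →
      |c n k l - c n k l'| ≤ B.d n ^ (x - C * ε) ∧ |β n k l - β n k l'| ≤ B.d n ^ (x - C * ε) ∧
      |Y n k l - Y n k l'| ≤ B.d n ^ (x - C * ε) ∧ |K n k l - K n k l'| ≤ B.d n ^ (x - C * ε) ∧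
      |(Φ n k l + β n k l * F n k l) - (Φ n k l' + β n k l' * F n k l')| ≤ B.d n ^ (x - C * ε)
  ccl : ∀ ε : ℝ, 0 < ε → ∀ᶠ n in (U : Filter ℕ), ∀ k l l', (l, k) ∈ (G n).I →
    (l', k) ∈ (G n).I → (G n).loose pc ε k l l' →
      |c n k l - c n k l'| ≤ B.d n ^ (x - C * ε) ∧ |Y n k l - Y n k l'| ≤ B.d n ^ (x - C * ε)
  acl : ∀ y : ℝ, 0 ≤ y → y ≤ x → ∀ ε : ℝ, 0 < ε → ∀ᶠ n in (U : Filter ℕ), ∀ k l l',
    (l, k) ∈ (G n).I → (l', k) ∈ (G n).I → (G n).loose p0 ε k l l' →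
      |a n k l' - a n k l| ≤ B.d n ^ y → (G n).loose (pa y) ε k l l'
  bcl : ∀ y : ℝ, 0 ≤ y → ∀ ε : ℝ, 0 < ε → y + C * ε ≤ x → ∀ᶠ n in (U : Filter ℕ), ∀ k l l',
    (l, k) ∈ (G n).I → (l', k) ∈ (G n).I → (G n).loose pp ε k l l' → (G n).loose pc ε k l l' →
      |β n k l' - β n k l| ≤ B.d n ^ y → (G n).loose (pb y) ε k l l'
  qcl : ∀ y : ℝ, 0 ≤ y → y ≤ x → ∀ ε : ℝ, 0 < ε → ∀ᶠ n in (U : Filter ℕ), ∀ k l l',
    (l, k) ∈ (G n).I → (l', k) ∈ (G n).I → (G n).loose pp ε k l l' →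
      |c n k l' - c n k l| ≤ B.d n ^ y → (G n).loose (pq y) ε k l l'

/-- the facts about the profile -/
structure SProf (Leg : Set (κ → ℝ)) (ν : (κ → ℝ) → ℝ) (x m : ℝ)
    (p0 pp pv pc ppv : κ → ℝ) (pa pb pq : ℝ → κ → ℝ) : Prop where
  m0 : 0 < m
  l0 : p0 ∈ Leg
  lp : pp ∈ Leg
  lv : pv ∈ Leg
  lc : pc ∈ Leg
  lpv : ppv ∈ Leg
  la : ∀ y, 0 ≤ y → y ≤ x → pa y ∈ Leg
  lb : ∀ y, 0 ≤ y → y ≤ x → pb y ∈ Leg
  lq : ∀ y, 0 ≤ y → y ≤ x → pq y ∈ Leg
  por : ∀ j, ppv j = pp j ∨ ppv j = pv j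
  pge : ∀ j, p0 j ≤ pp j
  vge : ∀ j, p0 j ≤ pv j
  cge : ∀ j, p0 j ≤ pc j
  H1 : ν p0 + ν ppv ≤ ν pp + ν pv
  H2 : ∀ y, 0 ≤ y → y ≤ x → ν p0 + ν (pb y) + m * y ≤ ν pp + ν pc
  H3 : ∀ y, 0 ≤ y → y ≤ x → m * y ≤ ν p0 - ν (pa y)
  H4 : ∀ y, 0 ≤ y → y ≤ x → m * y ≤ ν pp - ν (pq y)

section

variable {B : Base} {G : ℕ → RCfg κ} {Leg : Set (κ → ℝ)} {ν : (κ → ℝ) → ℝ} {D x M C m : ℝ}
  {p0 pp pv pc ppv : κ → ℝ} {pa pb pq : ℝ → κ → ℝ} {a F Q c β Y K Φ : ℕ → ℕ → ℕ → ℝ} {kp : ℕ → ℝ}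

theorem D_pows (hD : 1 ≤ D) {e : ℝ} (he : 0 < e) (i j : ℕ) (hij : i ≤ j) :
    D ^ i * e ≤ D ^ j * e :=
  mul_le_mul_of_nonneg_right (pow_le_pow_right₀ hD hij) he.le

/-- **cells of a local set** -/
theorem loc_net (H : RUnif B G Leg ν D) (h0 : p0 ∈ Leg) {r : κ → ℝ} (hr : r ∈ Leg)
    (hge : ∀ j, p0 j ≤ r j) {e : ℝ} (he : 0 < e) :
    ∀ᶠ n in (U : Filter ℕ), ∀ k, ∃ lab : ℕ → ℕ,
      (∀ t ∈ (G n).slice k, ∀ t' ∈ (G n).slice k, lab t = lab t' →
        (G n).loose r (D ^ 5 * e) k t t') ∧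
      ∀ S ⊆ (G n).slice k, (∀ l ∈ S, ∀ l' ∈ S, (G n).loose p0 e k l l') →
        (∀ A ⊆ S.image lab, ∃ T ⊆ (G n).slice k, (A.card : ℝ) * B.d n ^ (-ν r + e) ≤ T.card ∧
          (∀ m' ∈ T, ∃ v ∈ A, ∀ t ∈ S, lab t = v → (G n).loose r (D ^ 5 * e) k t m') ∧
          ∀ m' ∈ T, ∀ l0 ∈ S, (G n).loose p0 (D ^ 6 * e) k l0 m') ∧
        ((S.image lab).card : ℝ) ≤ B.d n ^ (ν r - ν p0 - 2 * D ^ 7 * e) := by
  classical
  have hD := H.D1
  have hD0 : 0 < D := by linarith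
  filter_upwards [voronoi H r hr he, H.symm r hr (D ^ 3 * e) (by positivity),
    H.tri r hr (D ^ 4 * e) (by positivity), H.tri p0 h0 (D ^ 5 * e) (by positivity),
    H.up p0 h0 (D ^ 6 * e) (by positivity)] with n hv s3 t4 t5 hup k
  have hpos : ∀ t : ℝ, 0 < B.d n ^ t := fun t => rpos B n t
  obtain ⟨lab, a1, a2, a3⟩ := hv k
  refine ⟨lab, a2, fun S hS hSl => ?_⟩
  have hI : ∀ t ∈ (G n).slice k, (t, k) ∈ (G n).I := fun t ht => H.memSlice.1 ht
  have key : ∀ A ⊆ S.image lab, ∃ T ⊆ (G n).slice k, (A.card : ℝ) * B.d n ^ (-ν r + e) ≤ T.card ∧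
          (∀ m' ∈ T, ∃ v ∈ A, ∀ t ∈ S, lab t = v → (G n).loose r (D ^ 5 * e) k t m') ∧
          ∀ m' ∈ T, ∀ l0 ∈ S, (G n).loose p0 (D ^ 6 * e) k l0 m' := by
    intro A hA
    have hstep : ∀ v ∈ A, ∀ m' ∈ (G n).box r e v k, ∀ t ∈ S, lab t = v →
        (G n).loose r (D ^ 5 * e) k t m' := by
      intro v hv m' hm' t ht hlt
      obtain ⟨q1, q2⟩ := RCfg.mem_box.1 hm'
      obtain ⟨q3, q4⟩ := a1 t (hS ht)
      rw [hlt] at q3 q4
      have q5 := s3 k _ t (hI _ q3) (hI t (hS ht)) q4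
      have e1 : D * (D ^ 3 * e) = D ^ 4 * e := by ring
      rw [e1] at q5
      have q6 : (G n).loose r (D ^ 4 * e) k v m' := by
        refine H.loose_mono (fun _ => le_rfl) ?_ q2
        have := D_pows hD he 0 4 (by norm_num)
        rwa [pow_zero, one_mul] at this
      have q7 := t4 k t v m' (hI t (hS ht)) (hI v q3) (hI m' q1) q5 q6
      have e2 : D * (D ^ 4 * e) = D ^ 5 * e := by ring
      rwa [e2] at q7
    refine ⟨A.biUnion fun e' => (G n).box r e e' k, ?_, a3 A (hA.trans (image_subset_image hS)),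
      ?_, ?_⟩
    · intro m' hm'
      obtain ⟨v, hv, hm⟩ := mem_biUnion.1 hm'
      exact (RCfg.mem_box.1 hm).1
    · intro m' hm'
      obtain ⟨v, hv, hm⟩ := mem_biUnion.1 hm'
      exact ⟨v, hv, hstep v hv m' hm⟩
    · intro m' hm' l0 hl0
      obtain ⟨v, hv, hm⟩ := mem_biUnion.1 hm'
      obtain ⟨t, ht, rfl⟩ := mem_image.1 (hA hv)
      have q1 := hstep _ hv m' hm t ht rfl
      have q2 : (G n).loose p0 (D ^ 5 * e) k t m' := H.loose_mono hge le_rfl q1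
      have q3 : (G n).loose p0 (D ^ 5 * e) k l0 t := by
        refine H.loose_mono (fun _ => le_rfl) ?_ (hSl l0 hl0 t ht)
        have := D_pows hD he 0 5 (by norm_num)
        rwa [pow_zero, one_mul] at this
      have q4 := t5 k l0 t m' (hI l0 (hS hl0)) (hI t (hS ht)) (hI m' (RCfg.mem_box.1 hm).1) q3 q2
      have e2 : D * (D ^ 5 * e) = D ^ 6 * e := by ring
      rwa [e2] at q4
  refine ⟨key, ?_⟩
  rcases S.eq_empty_or_nonempty with rfl | ⟨l0, hl0⟩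
  · rw [image_empty, card_empty, Nat.cast_zero]; exact (hpos _).le
  obtain ⟨T, hT, hc, -, hT2⟩ := key (S.image lab) (Subset.refl _)
  have hTc : (T.card : ℝ) ≤ B.d n ^ (-ν p0 - D * (D ^ 6 * e)) := by
    refine le_trans (Nat.cast_le.2 (card_le_card ?_)) (hup l0 k (hI l0 (hS hl0)))
    intro m' hm'
    exact RCfg.mem_box.2 ⟨hT hm', hT2 m' hm' l0 hl0⟩
  have h1 := mul_le_mul_of_nonneg_right (hc.trans hTc) (hpos (ν r - e)).le
  have e1 : ((S.image lab).card : ℝ) * B.d n ^ (-ν r + e) * B.d n ^ (ν r - e) =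
      (S.image lab).card := by
    rw [mul_assoc, ← rpow_add']
    have : -ν r + e + (ν r - e) = 0 := by ring
    rw [this, Real.rpow_zero, mul_one]
  rw [e1, ← rpow_add'] at h1
  refine h1.trans (rpow_anti B n ?_)
  have e2 : D * (D ^ 6 * e) = D ^ 7 * e := by ring
  have := D_pows hD he 0 7 (by norm_num)
  rw [pow_zero, one_mul] at this
  rw [e2]
  linarith

/-- a local set has a lower bound of its cells -/
theorem loc_low (H : RUnif B G Leg ν D) {r : κ → ℝ} (hr : r ∈ Leg) {e : ℝ} (he : 0 < e) :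
    ∀ᶠ n in (U : Filter ℕ), ∀ k, ∀ lab : ℕ → ℕ,
      (∀ t ∈ (G n).slice k, ∀ t' ∈ (G n).slice k, lab t = lab t' →
        (G n).loose r (D ^ 5 * e) k t t') →
      ∀ S ⊆ (G n).slice k, (S.card : ℝ) * B.d n ^ (ν r + D ^ 6 * e) ≤ ((S.image lab).card : ℝ) := by
  classical
  have hD := H.D1
  have hD0 : 0 < D := by linarith
  filter_upwards [H.up r hr (D ^ 5 * e) (by positivity)] with n hup k lab hlab S hS
  have hpos : ∀ t : ℝ, 0 < B.d n ^ t := fun t => rpos B n t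
  have e6 : D * (D ^ 5 * e) = D ^ 6 * e := by ring
  have h1 : (S.card : ℝ) ≤ ((S.image lab).card : ℝ) * B.d n ^ (-ν r - D ^ 6 * e) := by
    refine card_le_img S lab le_rfl (hpos _).le fun v hv => ?_
    obtain ⟨t, ht, rfl⟩ := mem_image.1 hv
    rw [← e6]
    refine le_trans (Nat.cast_le.2 (card_le_card ?_)) (hup t k (H.memSlice.1 (hS ht)))
    intro l hl
    obtain ⟨q1, q2⟩ := mem_filter.1 hl
    exact RCfg.mem_box.2 ⟨hS q1, hlab t (hS ht) l (hS q1) q2.symm⟩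
  have h2 := mul_le_mul_of_nonneg_right h1 (hpos (ν r + D ^ 6 * e)).le
  refine h2.trans (le_of_eq ?_)
  rw [mul_assoc, ← rpow_add']
  have : -ν r - D ^ 6 * e + (ν r + D ^ 6 * e) = 0 := by ring
  rw [this, Real.rpow_zero, mul_one]

/-- **the cells and the counts of a local set** -/
theorem scells (H : RUnif B G Leg ν D) (S : SRow B G x M C p0 pp pv pc pa pb pq a F Q c β Y K Φ kp)
    (P : SProf Leg ν x m p0 pp pv pc ppv pa pb pq) {e : ℝ} (he : 0 < e)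
    (hx1 : 105 * D ^ 9 * e / m ≤ x / 4) (hx2 : C * D ^ 10 * e + e ≤ x / 4) :
    ∀ᶠ n in (U : Filter ℕ), ∀ k, ∀ L ⊆ (G n).slice k, L.Nonempty →
      (∀ l ∈ L, ∀ l' ∈ L, (G n).loose p0 e k l l') → B.d n ^ (-ν p0 + e) ≤ (L.card : ℝ) →
      ∃ lp lv lc : ℕ → ℕ,
      (∀ l ∈ L, ∀ l' ∈ L, lp l = lp l' → (G n).loose pp (D ^ 10 * e) k l l') ∧
      (∀ l ∈ L, ∀ l' ∈ L, lv l = lv l' → (G n).loose pv (D ^ 10 * e) k l l') ∧
      (∀ l ∈ L, ∀ l' ∈ L, lc l = lc l' → (G n).loose pc (D ^ 10 * e) k l l') ∧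
      (∀ e1 f1, ((L.filter fun l => lp l = e1 ∧ lv l = f1).card : ℝ) ≤
        B.d n ^ (-ν ppv - D ^ 6 * e)) ∧
      (∀ t : ℝ, ∀ A ⊆ L.image lp,
        (∀ v ∈ A, ∃ l ∈ L, lp l = v ∧
          |a n k l - t| ≤ 2 * (B.d n ^ (105 * D ^ 9 * e / m) / 6)) →
        (A.card : ℝ) ≤ B.d n ^ (97 * D ^ 9 * e) * (L.image lp).card) ∧
      B.d n ^ (8 * D ^ 9 * e) * B.d n ^ (-ν ppv - D ^ 6 * e) * (L.image lp).card *
        (L.image lv).card ≤ L.card ∧
      (∀ l0 ∈ L, ((L.filter fun l => (lp l, lc l) = (lp l0, lc l0) ∧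
        |β n k l0 - β n k l| < B.d n ^ (105 * D ^ 9 * e / m)).card : ℝ) ≤
        B.d n ^ (-ν (pb (105 * D ^ 9 * e / m)) - D ^ 6 * e)) ∧
      B.d n ^ (-ν (pb (105 * D ^ 9 * e / m)) - D ^ 6 * e) *
        ((L.image lp).card * (L.image lc).card) ≤ B.d n ^ (97 * D ^ 9 * e) * L.card := by
  classical
  have hD := H.D1
  have hD0 : 0 < D := by linarith
  have hm := P.m0
  have hC := S.C1
  set y := 105 * D ^ 9 * e / m with hy
  have hy0 : 0 ≤ y := by positivity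
  have hyx : y ≤ x := by have := S.x0; linarith
  have i0 := D_pows hD he 0 9 (by norm_num)
  have i6 := D_pows hD he 6 9 (by norm_num)
  have i7 := D_pows hD he 7 9 (by norm_num)
  have i5 := D_pows hD he 5 10 (by norm_num)
  have i8 := D_pows hD he 8 10 (by norm_num)
  rw [pow_zero, one_mul] at i0
  have hmy : m * y = 105 * D ^ 9 * e := by rw [hy]; field_simp
  have h510 : C * (D ^ 5 * e) ≤ C * D ^ 10 * e := by
    have := mul_le_mul_of_nonneg_left i5 (by linarith : (0:ℝ) ≤ C)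
    linarith
  filter_upwards [loc_net H P.l0 P.lp P.pge he, loc_net H P.l0 P.lv P.vge he,
    loc_net H P.l0 P.lc P.cge he, loc_low H P.lp he,
    H.up ppv P.lpv _ (show 0 < D ^ 5 * e by positivity),
    S.pcl _ (show 0 < D ^ 5 * e by positivity),
    S.acl y hy0 hyx _ (show 0 < D ^ 8 * e by positivity),
    H.symm p0 P.l0 (D ^ 6 * e) (by positivity), H.tri p0 P.l0 (D ^ 7 * e) (by positivity),
    H.up _ (P.la y hy0 hyx) _ (show 0 < D ^ 8 * e by positivity),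
    S.bcl y hy0 _ (show 0 < D ^ 5 * e by positivity) (by linarith),
    H.up _ (P.lb y hy0 hyx) _ (show 0 < D ^ 5 * e by positivity), ev_const_le B he 12] with
    n np nv nc nlow hup hpc hac hsy htr hupa hbc hupb h12 k L hL hne hLl hLc
  have hpos : ∀ t : ℝ, 0 < B.d n ^ t := fun t => rpos B n t
  obtain ⟨lp, a2, a3⟩ := np k
  obtain ⟨lv, b2, b3⟩ := nv k
  obtain ⟨lc, c2, c3⟩ := nc k
  obtain ⟨aT, aU⟩ := a3 L hL hLl
  obtain ⟨-, bU⟩ := b3 L hL hLl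
  obtain ⟨-, cU⟩ := c3 L hL hLl
  have aL := nlow k lp a2 L hL
  have hI : ∀ t ∈ (G n).slice k, (t, k) ∈ (G n).I := fun t ht => H.memSlice.1 ht
  have e6 : D * (D ^ 5 * e) = D ^ 6 * e := by ring
  have mono : ∀ {r : κ → ℝ} {l l' : ℕ}, (G n).loose r (D ^ 5 * e) k l l' →
      (G n).loose r (D ^ 10 * e) k l l' := fun h => H.loose_mono (fun _ => le_rfl) i5 h
  refine ⟨lp, lv, lc, fun l hl l' hl' h => mono (a2 l (hL hl) l' (hL hl') h),
    fun l hl l' hl' h => mono (b2 l (hL hl) l' (hL hl') h),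
    fun l hl l' hl' h => mono (c2 l (hL hl) l' (hL hl') h), ?_, ?_, ?_, ?_, ?_⟩
  · intro e1 f1
    rcases (L.filter fun l => lp l = e1 ∧ lv l = f1).eq_empty_or_nonempty with h | ⟨l0, hl0⟩
    · rw [h, card_empty, Nat.cast_zero]; exact (hpos _).le
    · obtain ⟨g1, g2, g3⟩ := mem_filter.1 hl0
      have g4 := hup l0 k (hI _ (hL g1))
      refine le_trans (Nat.cast_le.2 (card_le_card ?_)) (g4.trans (rpow_anti B n ?_))
      · intro l hl
        obtain ⟨q1, q2, q3⟩ := mem_filter.1 hl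
        refine RCfg.mem_box.2 ⟨hL q1, fun j => ?_⟩
        rcases P.por j with hj | hj
        · rw [hj]; exact a2 l0 (hL g1) l (hL q1) (g2.trans q2.symm) j
        · rw [hj]; exact b2 l0 (hL g1) l (hL q1) (g3.trans q3.symm) j
      · linarith
  · -- few cells with close `a`
    intro t A hA hcl
    obtain ⟨T, hT, hTc, hT1, hT2⟩ := aT A hA
    have hδ : 12 * B.d n ^ (x - C * D ^ 10 * e) ≤ B.d n ^ y := by
      have h1 := mul_le_mul_of_nonneg_right h12 (hpos (x - C * D ^ 10 * e)).le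
      refine h1.trans ?_
      rw [← rpow_add']
      exact rpow_anti B n (by linarith)
    have hall : ∀ m' ∈ T, |a n k m' - t| ≤ 3 * (B.d n ^ y / 6) := by
      intro m' hm'
      obtain ⟨v, hv, hv2⟩ := hT1 m' hm'
      obtain ⟨l, hl, hlv, hlt⟩ := hcl v hv
      have k1 := (hpc k l m' (hI _ (hL hl)) (hI _ (hT hm')) (hv2 l hl hlv)).1
      have k3 : B.d n ^ (x - C * (D ^ 5 * e)) ≤ B.d n ^ (x - C * D ^ 10 * e) :=
        rpow_anti B n (by linarith)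
      have e1 : a n k m' - t = (a n k l - t) - (a n k l - a n k m') := by ring
      rw [e1]
      have q1 := abs_sub (a n k l - t) (a n k l - a n k m')
      have q2 := hpos y
      linarith
    obtain ⟨l0, hl0⟩ := hne
    have hcard : (T.card : ℝ) ≤ B.d n ^ (-ν (pa y) - D ^ 9 * e) := by
      rcases T.eq_empty_or_nonempty with h | ⟨m0, hm0⟩
      · rw [h, card_empty, Nat.cast_zero]; exact (hpos _).le
      · refine le_trans (Nat.cast_le.2 (card_le_card (t := (G n).box (pa y) (D ^ 8 * e) m0 k) ?_))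
          ((hupa m0 k (hI _ (hT hm0))).trans (rpow_anti B n (le_of_eq ?_)))
        · intro m' hm'
          have q1 := hsy k l0 m0 (hI _ (hL hl0)) (hI _ (hT hm0)) (hT2 m0 hm0 l0 hl0)
          have e1 : D * (D ^ 6 * e) = D ^ 7 * e := by ring
          rw [e1] at q1
          have q2 : (G n).loose p0 (D ^ 7 * e) k l0 m' :=
            H.loose_mono (fun _ => le_rfl) (D_pows hD he 6 7 (by norm_num)) (hT2 m' hm' l0 hl0)
          have q3 := htr k m0 l0 m' (hI _ (hT hm0)) (hI _ (hL hl0)) (hI _ (hT hm')) q1 q2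
          have e2 : D * (D ^ 7 * e) = D ^ 8 * e := by ring
          rw [e2] at q3
          refine RCfg.mem_box.2 ⟨hT hm', hac k m0 m' (hI _ (hT hm0)) (hI _ (hT hm')) q3 ?_⟩
          have i1 := hall m' hm'
          have i2 := hall m0 hm0
          have e1 : a n k m' - a n k m0 = (a n k m' - t) - (a n k m0 - t) := by ring
          rw [e1]
          have := abs_sub (a n k m' - t) (a n k m0 - t)
          linarith
        · ring
    have h1 := mul_le_mul_of_nonneg_right (hTc.trans hcard) (hpos (ν pp - e)).le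
    have e1 : (A.card : ℝ) * B.d n ^ (-ν pp + e) * B.d n ^ (ν pp - e) = A.card := by
      rw [mul_assoc, ← rpow_add']
      have : -ν pp + e + (ν pp - e) = 0 := by ring
      rw [this, Real.rpow_zero, mul_one]
    rw [e1, ← rpow_add'] at h1
    refine h1.trans ?_
    have h2 := mul_le_mul_of_nonneg_right hLc (hpos (ν pp + D ^ 6 * e)).le
    refine le_trans ?_ (mul_le_mul_of_nonneg_left (h2.trans aL) (hpos _).le)
    rw [← rpow_add', ← rpow_add']
    refine rpow_anti B n ?_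
    have h3 := P.H3 y hy0 hyx
    rw [hmy] at h3
    linarith
  · calc B.d n ^ (8 * D ^ 9 * e) * B.d n ^ (-ν ppv - D ^ 6 * e) *
          (L.image lp).card * (L.image lv).card
        ≤ B.d n ^ (8 * D ^ 9 * e) * B.d n ^ (-ν ppv - D ^ 6 * e) *
          B.d n ^ (ν pp - ν p0 - 2 * D ^ 7 * e) * B.d n ^ (ν pv - ν p0 - 2 * D ^ 7 * e) := by
          have := hpos (8 * D ^ 9 * e)
          have := hpos (-ν ppv - D ^ 6 * e)
          have := hpos (ν pp - ν p0 - 2 * D ^ 7 * e)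
          gcongr
      _ = B.d n ^ (8 * D ^ 9 * e + (-ν ppv - D ^ 6 * e) + (ν pp - ν p0 - 2 * D ^ 7 * e) +
          (ν pv - ν p0 - 2 * D ^ 7 * e)) := by
          simp only [rpow_add']
      _ ≤ B.d n ^ (-ν p0 + e) := by
          refine rpow_anti B n ?_
          have := P.H1
          linarith
      _ ≤ _ := hLc
  · intro l0 hl0
    refine le_trans (Nat.cast_le.2 (card_le_card (t := (G n).box (pb y) (D ^ 5 * e) l0 k) ?_))
      ((hupb l0 k (hI _ (hL hl0))).trans (rpow_anti B n (by linarith)))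
    intro l hl
    obtain ⟨q1, q2, q3⟩ := mem_filter.1 hl
    have q4 : lp l = lp l0 := congrArg Prod.fst q2
    have q5 : lc l = lc l0 := congrArg Prod.snd q2
    refine RCfg.mem_box.2 ⟨hL q1, hbc k l0 l (hI _ (hL hl0)) (hI _ (hL q1))
      (a2 l0 (hL hl0) l (hL q1) q4.symm) (c2 l0 (hL hl0) l (hL q1) q5.symm) ?_⟩
    rw [abs_sub_comm]; exact q3.le
  · calc B.d n ^ (-ν (pb y) - D ^ 6 * e) * ((L.image lp).card * (L.image lc).card)
        ≤ B.d n ^ (-ν (pb y) - D ^ 6 * e) *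
          (B.d n ^ (ν pp - ν p0 - 2 * D ^ 7 * e) * B.d n ^ (ν pc - ν p0 - 2 * D ^ 7 * e)) := by
          have := hpos (-ν (pb y) - D ^ 6 * e)
          have := hpos (ν pp - ν p0 - 2 * D ^ 7 * e)
          gcongr
      _ = B.d n ^ ((-ν (pb y) - D ^ 6 * e) + ((ν pp - ν p0 - 2 * D ^ 7 * e) +
          (ν pc - ν p0 - 2 * D ^ 7 * e))) := by
          simp only [rpow_add']
      _ ≤ B.d n ^ (97 * D ^ 9 * e + (-ν p0 + e)) := by
          refine rpow_anti B n ?_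
          have i7 := P.H2 y hy0 hyx
          rw [hmy] at i7
          linarith
      _ = B.d n ^ (97 * D ^ 9 * e) * B.d n ^ (-ν p0 + e) := rpow_add' B n _ _
      _ ≤ _ := mul_le_mul_of_nonneg_left hLc (hpos _).le

end

end Crest.Agent.R136.Cub191
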