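import Crest.Agent.R136.Cub4_191

/-!
# R136, the specials of the thin pins (helper191), part 5: relations at one height, two heights
-/

set_option autoImplicit false
set_option linter.unusedVariables false

open Filter Topology

namespace Crest.Agent.R136.Cub191

open Finset
open Crest.Agent.R136.Qd329
open Crest.Agent.R138.Ex926 (Base U)
open Crest.Agent.R136.Gf356

variable {κ : Type}

section

variable {B : Base} {G : ℕ → RCfg κ} {Leg : Set (κ → ℝ)} {ν : (κ → ℝ) → ℝ} {D x M C m : ℝ}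
  {p0 pp pv pc ppv : κ → ℝ} {pa pb pq : ℝ → κ → ℝ} {a F Q c β Y K Φ : ℕ → ℕ → ℕ → ℝ} {kp : ℕ → ℝ}

set_option maxHeartbeats 1000000 in
/-- one height, fixed `e` -/
theorem cub_fix (H : RUnif B G Leg ν D)
    (S : SRow B G x M C p0 pp pv pc pa pb pq a F Q c β Y K Φ kp)
    (P : SProf Leg ν x m p0 pp pv pc ppv pa pb pq) {e ε : ℝ} (he : 0 < e)
    (hx1 : 105 * D ^ 9 * e / m ≤ x / 4) (hx2 : C * D ^ 10 * e + 2 * e ≤ x / 4)
    (hε : C * D ^ 10 * e + 210 * D ^ 9 * e + 3 * (105 * D ^ 9 * e / m) + 3 * e ≤ ε) :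
    ∀ᶠ n in (U : Filter ℕ), ∀ k, ∀ L ⊆ (G n).slice k, L.Nonempty →
      (∀ l ∈ L, ∀ l' ∈ L, (G n).loose p0 e k l l') → B.d n ^ (-ν p0 + e) ≤ (L.card : ℝ) →
      ∃ r1 ∈ L, ∃ r2 ∈ L, ∃ r3 ∈ L,
        B.d n ^ ε ≤ |a n k r2 - a n k r1| ∧ B.d n ^ ε ≤ |a n k r3 - a n k r1| ∧
        B.d n ^ ε ≤ |a n k r3 - a n k r2| ∧
        ∃ L2 ⊆ L, B.d n ^ (-ν p0 + ε) ≤ L2.card ∧
        COut L2 (a n k) (F n k) (c n k) (β n k) (Y n k) (K n k) (kp n) (a n k r1) (a n k r2)
          (a n k r3) (F n k r1) (F n k r2) (F n k r3) (Q n k r1) (Q n k r2) (Q n k r3)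
          (B.d n ^ (x - ε)) := by
  have hD := H.D1
  have hD0 : 0 < D := by linarith
  have hC := S.C1
  have hM := S.M1
  have hx := S.x0
  have hm := P.m0
  have p7 := D_pows hD he 0 9 (by norm_num)
  have j1 := D_pows hD he 0 10 (by norm_num)
  rw [pow_zero, one_mul] at p7 j1
  have p10 : e ≤ C * D ^ 10 * e := by nlinarith
  filter_upwards [scells H S P he hx1 (by linarith), S.kpl e he, S.bd,
    S.pcl _ (show 0 < D ^ 10 * e by positivity), S.vcl _ (show 0 < D ^ 10 * e by positivity),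
    S.ccl _ (show 0 < D ^ 10 * e by positivity),
    ev_const_le B he (10 ^ 6 * M ^ 3)] with n hcell hkp hbd hpc hvc hcc hK k L hL hne hLl hLc
  have hpos : ∀ t : ℝ, 0 < B.d n ^ t := fun t => rpos B n t
  have hanti : ∀ s t : ℝ, s ≤ t → B.d n ^ t ≤ B.d n ^ s := fun s t h => rpow_anti B n h
  have hcst : ∀ w t : ℝ, w ≤ 10 ^ 6 * M ^ 3 → ∀ t', t + e ≤ t' → w * B.d n ^ t' ≤ B.d n ^ t := by
    intro w t hw t' ht
    calc w * B.d n ^ t' ≤ B.d n ^ (-e) * B.d n ^ t' :=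
          mul_le_mul_of_nonneg_right (hw.trans hK) (hpos _).le
      _ = B.d n ^ (-e + t') := by rw [rpow_add']
      _ ≤ _ := hanti _ _ (by linarith)
  have hM1 : 1 ≤ M ^ 3 := one_le_pow₀ hM
  obtain ⟨lp, lv, lc, f1, f2, f3, hfib, hfa, hdens, hfb, hdens2⟩ := hcell k L hL hne hLl hLc
  have hS0 : (0 : ℝ) < (L.card : ℝ) := by exact_mod_cast hne.card_pos
  set δ := B.d n ^ (x - C * D ^ 10 * e) with hδ
  have ecd : C * (D ^ 10 * e) = C * D ^ 10 * e := by ring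
  rw [ecd] at hpc hvc hcc
  have hI : ∀ l ∈ L, (l, k) ∈ (G n).I := fun l hl => H.memSlice.1 (hL hl)
  have hG : CGrid L lp lv (a n k) (F n k) (Q n k) (c n k) (β n k) (Y n k) (K n k)
      (Φ n k) (kp n) M δ := by
    refine ⟨hM, (hpos _).le, S.kp1 n, fun l hl => hbd k l (hI l hl), ?_, ?_, ?_, ?_⟩
    · intro l hl l' hl' hll
      obtain ⟨g1, g2, g3, -⟩ := hpc k l l' (hI l hl) (hI l' hl') (f1 l hl l' hl' hll)
      exact ⟨g1, g2, g3⟩
    · intro l hl l' hl' hll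
      obtain ⟨g1, g2, g3, g4, -⟩ := hvc k l l' (hI l hl) (hI l' hl') (f2 l hl l' hl' hll)
      exact ⟨g1, g2, g3, g4⟩
    · intro l hl l' hl' hll
      exact (hpc k l l' (hI l hl) (hI l' hl') (f1 l hl l' hl' hll)).2.2.2
    · intro l hl l' hl' hll
      exact (hvc k l l' (hI l hl) (hI l' hl') (f2 l hl l' hl' hll)).2.2.2.2
  set y := 105 * D ^ 9 * e / m with hy
  have hy0 : 0 ≤ y := by positivity
  set r := B.d n ^ y / 6 with hr
  have hcnt : CCnt L lp lv lc (a n k) (c n k) (β n k) (Y n k)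
      (L.image lp) (L.image lv) (L.image lc)
      (B.d n ^ (-ν ppv - D ^ 6 * e)) (B.d n ^ (-ν (pb y) - D ^ 6 * e)) δ r
      (B.d n ^ y) (B.d n ^ (97 * D ^ 9 * e)) :=
    { hp := fun l hl => mem_image_of_mem _ hl
      hv := fun l hl => mem_image_of_mem _ hl
      hcc := fun l hl => mem_image_of_mem _ hl
      W0 := hpos _
      W20 := (hpos _).le
      fib := hfib
      η0 := (hpos _).le
      hs := hfa
      ccl := fun l hl l' hl' hll => hcc k l l' (hI l hl) (hI l' hl') (f3 l hl l' hl' hll)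
      fib2 := hfb }
  have hr0 : 0 < r := by have := hpos y; positivity
  have hy1 : B.d n ^ y ≤ 1 := Real.rpow_le_one (B.pos n).le (B.lt n).le hy0
  have hr1 : r ≤ 1 := by rw [hr]; linarith
  have hδr : δ ≤ r := by
    have := hcst 6 y (by linarith) (x - C * D ^ 10 * e) (by linarith)
    rw [hr]; linarith
  have hk01 : B.d n ^ e ≤ 1 := Real.rpow_le_one (B.pos n).le (B.lt n).le he.le
  have hD3 : (B.d n ^ (8 * D ^ 9 * e)) ^ 3 = B.d n ^ (24 * D ^ 9 * e) := by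
    rw [← Real.rpow_natCast, ← Real.rpow_mul (B.pos n).le]
    congr 1
    push_cast
    ring
  have hη : 3 * B.d n ^ (97 * D ^ 9 * e) ≤ (B.d n ^ (8 * D ^ 9 * e)) ^ 3 / 16 := by
    rw [hD3]
    have := hcst 48 (24 * D ^ 9 * e) (by linarith) (97 * D ^ 9 * e) (by linarith)
    linarith only [this]
  have hd2 : B.d n ^ (-ν (pb y) - D ^ 6 * e) *
      ((L.image lp).card * (L.image lc).card) ≤
      (B.d n ^ (8 * D ^ 9 * e)) ^ 3 / 64 * (L.card : ℝ) := by
    refine hdens2.trans (mul_le_mul_of_nonneg_right ?_ hS0.le)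
    rw [hD3]
    have := hcst 64 (24 * D ^ 9 * e) (by linarith) (97 * D ^ 9 * e) (by linarith)
    linarith only [this]
  obtain ⟨r1, h1, r2, h2, r3, h3, s12, s13, s23, L2, hL2, hc2, hout⟩ :=
    cgrid hG hcnt hne (hpos _) hdens hη hd2 hδr hr0 hr1 (hpos y) hy1 (hpos e) hk01 hkp
  have hrε : B.d n ^ ε ≤ r := by
    have := hcst 6 y (by linarith) ε (by linarith)
    rw [hr]; linarith
  refine ⟨r1, h1, r2, h2, r3, h3, hrε.trans s12, hrε.trans s13, hrε.trans s23, L2, hL2, ?_, ?_⟩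
  · refine le_trans ?_ (le_trans (mul_le_mul_of_nonneg_left hLc (by
      have := hpos (8 * D ^ 9 * e)
      positivity)) hc2)
    rw [hD3]
    have h1 := hcst 64 (24 * D ^ 9 * e + (-ν p0 + e)) (by linarith) (-ν p0 + ε) (by linarith)
    rw [rpow_add' B n (24 * D ^ 9 * e)] at h1
    linarith only [h1]
  · have herr : 1000 * M ^ 3 * δ / (B.d n ^ e * r ^ 2 * B.d n ^ y) ≤ B.d n ^ (x - ε) := by
      have hden : 0 < B.d n ^ e * r ^ 2 * B.d n ^ y :=
        mul_pos (mul_pos (hpos _) (by positivity)) (hpos _)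
      rw [div_le_iff₀ hden]
      have e1 : B.d n ^ e * r ^ 2 * B.d n ^ y = B.d n ^ (e + 3 * y) / 36 := by
        have : B.d n ^ (e + 3 * y) = B.d n ^ e * (B.d n ^ y * B.d n ^ y) * B.d n ^ y := by
          rw [← rpow_add', ← rpow_add', ← rpow_add']
          congr 1
          ring
        rw [this, hr]; ring
      rw [e1]
      have e2 : B.d n ^ (x - ε) * (B.d n ^ (e + 3 * y) / 36) =
          B.d n ^ (x - ε + (e + 3 * y)) / 36 := by
        rw [rpow_add' B n (x - ε)]; ring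
      rw [e2, le_div_iff₀ (by norm_num : (0:ℝ) < 36)]
      have := hcst (36000 * M ^ 3) (x - ε + (e + 3 * y)) (by nlinarith) (x - C * D ^ 10 * e)
        (by linarith)
      calc 1000 * M ^ 3 * δ * 36 = 36000 * M ^ 3 * δ := by ring
        _ ≤ _ := this
    exact ⟨fun l hl l' hl' => (hout.oY l hl l' hl').trans herr,
      fun l hl l' hl' => (hout.oF l hl l' hl').trans herr,
      fun l hl l' hl' => (hout.oK l hl l' hl').trans herr, hout.og.trans herr⟩

/-- two loose lines of a dense set with separated `c` -/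
theorem sep_pair' (H : RUnif B G Leg ν D) {pz : κ → ℝ} {pq : ℝ → κ → ℝ} (hz : pz ∈ Leg)
    (h0 : p0 ∈ Leg) (hge : ∀ j, p0 j ≤ pz j) (hq : ∀ y, 0 ≤ y → y ≤ x → pq y ∈ Leg)
    (hm : 0 < m) (H4 : ∀ y, 0 ≤ y → y ≤ x → m * y ≤ ν pz - ν (pq y)) (hcl : ∀ y : ℝ, 0 ≤ y →
      y ≤ x → ∀ ε : ℝ, 0 < ε → ∀ᶠ n in (U : Filter ℕ), ∀ k l l',
      (l, k) ∈ (G n).I → (l', k) ∈ (G n).I → (G n).loose pz ε k l l' →
        |c n k l' - c n k l| ≤ B.d n ^ y → (G n).loose (pq y) ε k l l') {e g : ℝ} (he : 0 < e)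
    (hg : 0 ≤ g) (hy : (g + 4 * D ^ 7 * e) / m ≤ x) :
    ∀ᶠ n in (U : Filter ℕ), ∀ k, ∀ T ⊆ (G n).slice k, T.Nonempty →
      (∀ l ∈ T, ∀ l' ∈ T, (G n).loose p0 e k l l') → B.d n ^ (-ν p0 + g) ≤ (T.card : ℝ) →
      ∃ l ∈ T, ∃ l' ∈ T, (G n).loose pz (D ^ 5 * e) k l l' ∧
        B.d n ^ ((g + 4 * D ^ 7 * e) / m) < |c n k l' - c n k l| := by
  classical
  have hD := H.D1
  have hD0 : 0 < D := by linarith
  have p6 := D_pows hD he 6 7 (by norm_num)
  set y := (g + 4 * D ^ 7 * e) / m with hyd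
  have hy0 : 0 ≤ y := by positivity
  have hmy : m * y = g + 4 * D ^ 7 * e := by rw [hyd]; field_simp
  filter_upwards [loc_net H h0 hz hge he,
    hcl y hy0 hy _ (show 0 < D ^ 5 * e by positivity),
    H.up _ (hq y hy0 hy) _ (show 0 < D ^ 5 * e by positivity)] with n np hcc hup k T hT hTne hTl hTc
  have hpos : ∀ t : ℝ, 0 < B.d n ^ t := fun t => rpos B n t
  obtain ⟨lp, a2, a3⟩ := np k
  obtain ⟨-, aU⟩ := a3 T hT hTl
  obtain ⟨v, hv⟩ := pop1 T lp aU
  set F' := T.filter fun t => lp t = v with hF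
  have hFlow : B.d n ^ (g + 2 * D ^ 7 * e - ν pz) ≤ F'.card := by
    have h1 := hTc.trans hv
    have h3 := mul_le_mul_of_nonneg_left h1 (hpos (-(ν pz - ν p0 - 2 * D ^ 7 * e))).le
    rw [← rpow_add', ← mul_assoc, ← rpow_add', neg_add_cancel, Real.rpow_zero, one_mul] at h3
    refine le_trans (le_of_eq ?_) h3
    congr 1
    ring
  have hFne : F'.Nonempty := by
    rw [← card_pos]
    have : (0 : ℝ) < F'.card := lt_of_lt_of_le (hpos _) hFlow
    exact_mod_cast this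
  obtain ⟨l, hl⟩ := hFne
  obtain ⟨hlT, hlv⟩ := mem_filter.1 hl
  by_contra hcon
  push Not at hcon
  have hFup : (F'.card : ℝ) ≤ B.d n ^ (-ν (pq y) - D * (D ^ 5 * e)) := by
    refine le_trans (Nat.cast_le.2 (card_le_card (t := (G n).box (pq y) (D ^ 5 * e) l k) ?_))
      (hup l k (H.memSlice.1 (hT hlT)))
    intro l' hl'
    obtain ⟨q1, q2⟩ := mem_filter.1 hl'
    have q3 := a2 l (hT hlT) l' (hT q1) (hlv.trans q2.symm)
    exact RCfg.mem_box.2 ⟨hT q1, hcc k l l' (H.memSlice.1 (hT hlT)) (H.memSlice.1 (hT q1)) q3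
      (hcon l hlT l' q1 q3)⟩
  have hlt : B.d n ^ (-ν (pq y) - D * (D ^ 5 * e)) < B.d n ^ (g + 2 * D ^ 7 * e - ν pz) := by
    refine Real.rpow_lt_rpow_of_exponent_gt (B.pos n) (B.lt n) ?_
    have h4 := H4 y hy0 hy
    rw [hmy] at h4
    have e6 : D * (D ^ 5 * e) = D ^ 6 * e := by ring
    rw [e6]
    have : 0 < D ^ 7 * e := by positivity
    linarith
  linarith

/-- few lines have `a` close to a given value -/
theorem close_card (H : RUnif B G Leg ν D)
    (S : SRow B G x M C p0 pp pv pc pa pb pq a F Q c β Y K Φ kp)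
    (P : SProf Leg ν x m p0 pp pv pc ppv pa pb pq) {e g : ℝ} (he : 0 < e) (hg : 0 ≤ g)
    (hy : (g + 2 * D * e) / m ≤ x) :
    ∀ᶠ n in (U : Filter ℕ), ∀ k, ∀ T ⊆ (G n).slice k,
      (∀ l ∈ T, ∀ l' ∈ T, (G n).loose p0 e k l l') → ∀ t : ℝ,
      ((T.filter fun l => |a n k l - t| ≤ B.d n ^ ((g + 2 * D * e) / m) / 2).card : ℝ) ≤
        B.d n ^ (-ν p0 + g) := by
  classical
  have hD := H.D1
  have hD0 : 0 < D := by linarith
  have hm := P.m0
  set y := (g + 2 * D * e) / m with hyd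
  have hy0 : 0 ≤ y := by positivity
  have hmy : m * y = g + 2 * D * e := by rw [hyd]; field_simp
  filter_upwards [S.acl y hy0 hy e he, H.up _ (P.la y hy0 hy) e he] with n hcc hup k T hT hTl t
  have hpos : ∀ t : ℝ, 0 < B.d n ^ t := fun t => rpos B n t
  rcases (T.filter fun l => |a n k l - t| ≤ B.d n ^ y / 2).eq_empty_or_nonempty with
    h | ⟨l0, hl0⟩
  · rw [h, card_empty, Nat.cast_zero]
    exact (hpos _).le
  obtain ⟨q1, q2⟩ := mem_filter.1 hl0
  refine le_trans (Nat.cast_le.2 (card_le_card (t := (G n).box (pa y) e l0 k) ?_))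
    ((hup l0 k (H.memSlice.1 (hT q1))).trans (rpow_anti B n ?_))
  · intro l hl
    obtain ⟨q3, q4⟩ := mem_filter.1 hl
    refine RCfg.mem_box.2 ⟨hT q3, hcc k l0 l (H.memSlice.1 (hT q1)) (H.memSlice.1 (hT q3))
      (hTl l0 q1 l q3) ?_⟩
    have e1 : a n k l - a n k l0 = (a n k l - t) - (a n k l0 - t) := by ring
    rw [e1]
    have := abs_sub (a n k l - t) (a n k l0 - t)
    linarith
  · have h3 := P.H3 y hy0 hy
    rw [hmy] at h3
    have : 0 < D * e := by positivity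
    linarith

end

end Crest.Agent.R136.Cub191
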