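import Crest.Agent.R136.PinX_851

/-!
# R136, the specials of the thin pins (helper848): closures of the rows

Over `PWin W E κ u f {4} lam x`, base of the height `k` = `W.zrep n k`:
`cf` = normalised frame coordinates, `cw` = normalised flags.
`raw` : the exact relations at one height;
`acl_of`, `bcl_of`, `qcl_of`, `ycl35_of`, `ycl34_of` : the closures (`SRow`, `spec_fin`).
-/

set_option autoImplicit false
set_option linter.unusedVariables false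
set_option linter.unusedSectionVars false

open Filter Topology

namespace Crest.Agent.R136.CubC848

open Finset Crest.Agent.R138.Ex926 Crest.Agent.R136.Net191 Crest.Agent.R136.Gf356
open Crest.Agent.R136.Qg926 Crest.Agent.R136.NetW191 Crest.Agent.R136.EvW938
open Crest.Agent.R136.Ht887 Crest.Agent.R136.Pin851
open Crest.Agent.R136.PqG464 (wtW)

/-! ### exact relations -/

/-- frames with a base -/
theorem fr_eq (κ : ℝ) (o a b : FW) :
    coW κ a b 0 = coW κ o b 0 - coW κ o a 0 ∧ coW κ a b 1 = coW κ o b 1 - coW κ o a 1 ∧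
    coW κ a b 2 = coW κ o b 2 - coW κ o a 2 - coW κ o a 1 * (coW κ o b 0 - coW κ o a 0) ∧
    coW κ a b 3 = (coW κ o b 3 + 2 * κ * coW κ o b 1 * coW κ o b 2) -
      (coW κ o a 3 + 2 * κ * coW κ o a 1 * coW κ o a 2) -
      2 * κ * coW κ o b 2 * coW κ a b 1 - κ * coW κ o a 1 ^ 2 * (coW κ o b 0 - coW κ o a 0) := by
  have hid := rel_rel κ o.g a.g b.g
  have i0 := congrFun hid 0
  have i1 := congrFun hid 1
  have i2 := congrFun hid 2
  have i3 := congrFun hid 3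
  simp only [mul0, mul1, mul2, mul3] at i0 i1 i2 i3
  change coW κ o a 0 + coW κ a b 0 = coW κ o b 0 at i0
  change coW κ o a 1 + coW κ a b 1 = coW κ o b 1 at i1
  change coW κ o a 2 + coW κ a b 2 + coW κ o a 1 * coW κ a b 0 = coW κ o b 2 at i2
  change coW κ o a 3 + coW κ a b 3 - 2 * κ * coW κ o a 1 * coW κ a b 2 -
    κ * coW κ o a 1 ^ 2 * coW κ a b 0 = coW κ o b 3 at i3
  have e0 : coW κ a b 0 = coW κ o b 0 - coW κ o a 0 := by linarith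
  have e1 : coW κ a b 1 = coW κ o b 1 - coW κ o a 1 := by linarith
  have e2 : coW κ a b 2 = coW κ o b 2 - coW κ o a 2 -
      coW κ o a 1 * (coW κ o b 0 - coW κ o a 0) := by rw [← e0]; linarith
  refine ⟨e0, e1, e2, ?_⟩
  have e3 : coW κ a b 3 = coW κ o b 3 - coW κ o a 3 + 2 * κ * coW κ o a 1 * coW κ a b 2 +
    κ * coW κ o a 1 ^ 2 * coW κ a b 0 := by linarith
  rw [e3, e2, e1, e0]
  ring

/-- flags with a base -/
theorem fl_eq (κ : ℝ) (o a b : FW) (q : Fin 14) :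
    coW κ a b (Fin.natAdd 4 q) = tr κ (frm (coW κ o b))
      (fun j => -coW κ b o (Fin.natAdd 4 j) - -coW κ a o (Fin.natAdd 4 j)) q := by
  have e : (fun j => -coW κ b o (Fin.natAdd 4 j) - -coW κ a o (Fin.natAdd 4 j)) =
      tr κ o.g (b.G - a.G) := by
    funext j
    rw [coW_right, coW_right]
    have h1 := congrFun (tr_sub κ o.g (o.G - a.G) (o.G - b.G)) j
    have h2 : o.G - a.G - (o.G - b.G) = b.G - a.G := by abel
    rw [h2, Pi.sub_apply] at h1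
    rw [h1]
    ring
  rw [e, coW_right, frm_coW, ← tr_mul, mul_rel]

variable {ι : ℕ → Type*} [∀ n, DecidableEq (ι n)] {W : Wnd 18 ι} {E : ∀ n, Finset (ι n)}
  {κ : ℕ → ℝ} {u : ℕ → Fin 18 → ℝ} {f : ∀ n, ι n → FW} {lam : (Fin 18 → ℝ) → ℝ} {x : ℝ}

/-- raw coordinates of the incidence `(l, k)` seen from the base of the height -/
noncomputable def rf (W : Wnd 18 ι) (κ : ℕ → ℝ) (f : ∀ n, ι n → FW) (n k l : ℕ) (s : Fin 18) : ℝ :=
  coW (κ n) (f n (W.zrep n k)) (f n (W.rep n l k)) s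

/-- raw flags of the incidence `(l, k)` in the base frame -/
noncomputable def rw' (W : Wnd 18 ι) (κ : ℕ → ℝ) (f : ∀ n, ι n → FW) (n k l : ℕ) (s : Fin 18) : ℝ :=
  -coW (κ n) (f n (W.rep n l k)) (f n (W.zrep n k)) s

/-- **raw data of a pair at one height** -/
structure RawP (κ : ℝ) (σ : Fin 18 → ℝ) (K τ : ℝ) (p p' r w w' : Fin 18 → ℝ) : Prop where
  hκ : |κ| ≤ 1
  sd : SidesW σ
  K1 : 1 ≤ K
  τ0 : 0 ≤ τ
  τ1 : τ ≤ 1
  hp : ∀ s, |p s| ≤ K * σ s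
  hp' : ∀ s, |p' s| ≤ K * σ s
  p0 : |p 0| ≤ K * τ * σ 0
  p0' : |p' 0| ≤ K * τ * σ 0
  hw : ∀ s, |w s| ≤ K * σ s
  hw' : ∀ s, |w' s| ≤ K * σ s
  r1 : r 1 = p' 1 - p 1
  r2 : r 2 = p' 2 - p 2 - p 1 * (p' 0 - p 0)
  r3 : r 3 = (p' 3 + 2 * κ * p' 1 * p' 2) - (p 3 + 2 * κ * p 1 * p 2) -
      2 * κ * p' 2 * r 1 - κ * p 1 ^ 2 * (p' 0 - p 0)
  rq : ∀ q : Fin 14, r (Fin.natAdd 4 q) = tr κ (frm p')
      (fun j => w' (Fin.natAdd 4 j) - w (Fin.natAdd 4 j)) q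

theorem raw (hW : PWin W E κ u f {4} lam x) (hx : 0 < x) : ∀ᶠ n in (U : Filter ℕ), ∀ k l l',
    (l, k) ∈ (W.cfg E n).I → (l', k) ∈ (W.cfg E n).I →
    RawP (κ n) (sd W u n) W.K0 (W.B'.d n ^ x) (rf W κ f n k l) (rf W κ f n k l')
      (fun s => coW (κ n) (f n (W.rep n l k)) (f n (W.rep n l' k)) s)
      (rw' W κ f n k l) (rw' W κ f n k l') ∧
    ∀ s, s ≠ 0 → coW (κ n) (f n (W.rep n l k)) (f n (W.rep n l' k)) s =
      un W u n s * (W.cfg E n).rel k l l' s := by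
  have h := hW.ww
  filter_upwards [hW.ev] with n hn k l l' hl hl'
  obtain ⟨g, hsub, heq⟩ := hn
  rw [heq] at hl hl' ⊢
  obtain ⟨a1, a2, a3⟩ := Wnd.rep_of_mem hsub hl
  obtain ⟨b1, b2, b3⟩ := Wnd.rep_of_mem hsub hl'
  have hkZ : k ∈ (W.cfg0 n (E n)).Z := by
    obtain ⟨y, hy, hy1, hy2⟩ := Wnd.mem_I.1 hl
    exact mem_image.2 ⟨y, hy, hy2⟩
  obtain ⟨z1, z2⟩ := zrep_mem hsub hkZ
  have hfr := fr_eq (κ n) (f n (W.zrep n k)) (f n (W.rep n l k)) (f n (W.rep n l' k))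
  have h0S : (0 : Fin 18) ∈ W.S := h.h0
  have ht0 : x ≤ W.top 0 := (hW.top 0).ge
  refine ⟨⟨h.hκ n, h.sides g, h.ok.K0_one, (Real.rpow_pos_of_pos (W.B'.pos n) _).le,
    Real.rpow_le_one (W.B'.pos n).le (W.B'.lt n).le hx.le, fun s => h.bnd g z1 a1 s,
    fun s => h.bnd g z1 b1 s, h.lev_small g z1 a1 (z2.trans a3.symm) h0S ht0,
    h.lev_small g z1 b1 (z2.trans b3.symm) h0S ht0, fun s => ?_, fun s => ?_, hfr.2.1,
    hfr.2.2.1, hfr.2.2.2, fun q => fl_eq (κ n) _ _ _ q⟩, fun s hs => ?_⟩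
  · unfold rw'; rw [abs_neg]; exact h.bnd g a1 z1 s
  · unfold rw'; rw [abs_neg]; exact h.bnd g b1 z1 s
  · have hsS : s ∉ W.S := by rw [hW.S]; simpa using hs
    rw [h.rel_eq l l' k hsS]
    exact h.crd_eq g a1 b1 s

/-! ### numeric lemmas -/

section num

variable {kp K τ : ℝ} {σ p p' r w w' : Fin 18 → ℝ}

namespace RawP

variable (h : RawP kp σ K τ p p' r w w')

include h

theorem wl : σ 1 * σ 0 ≤ σ 2 ∧ σ 1 * σ 2 ≤ σ 3 ∧ σ 0 * σ 4 ≤ σ 5 ∧ σ 2 * σ 4 ≤ σ 6 ∧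
    σ 1 * σ 5 ≤ σ 6 := by
  have w2 := h.sd.wall 2 [1, 0] (by decide)
  have w3 := h.sd.wall 3 [1, 2] (by decide)
  have w5 := h.sd.wall 5 [0, 4] (by decide)
  have w6 := h.sd.wall 6 [2, 4] (by decide)
  have w6' := h.sd.wall 6 [1, 5] (by decide)
  simp only [List.map_cons, List.map_nil, List.prod_cons, List.prod_nil, mul_one] at w2 w3 w5 w6 w6'
  exact ⟨w2, w3, w5, w6, w6'⟩

theorem km {y D : ℝ} (hy : |y| ≤ D) : |kp * y| ≤ D := by
  rw [abs_mul]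
  calc |kp| * |y| ≤ 1 * |y| := mul_le_mul_of_nonneg_right h.hκ (abs_nonneg _)
    _ ≤ D := by linarith

theorem d0 : |p' 0 - p 0| ≤ (2 * K * τ) * σ 0 := by
  refine (abs_sub _ _).trans ?_
  have := h.p0
  have := h.p0'
  linarith

theorem m2 {δ : ℝ} (hd : |p' 2 - p 2| ≤ δ * σ 2) : |r 2| ≤ (δ + 2 * K ^ 2 * τ) * σ 2 := by
  have K1 := h.K1
  have K0 : 0 ≤ K := by linarith
  have τ0 := h.τ0
  have g := bm (h.hp 1) h.d0 K0 (by positivity) (h.sd.pos 1) h.wl.1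
  rw [h.r2]
  have g1 := abs_sub (p' 2 - p 2) (p 1 * (p' 0 - p 0))
  have e : (δ + 2 * K ^ 2 * τ) * σ 2 = δ * σ 2 + K * (2 * K * τ) * σ 2 := by ring
  rw [e]
  linarith

theorem m3 {δ η : ℝ} (hη : 0 ≤ η) (h1 : |r 1| ≤ η * σ 1)
    (hd : |(p' 3 + 2 * kp * p' 1 * p' 2) - (p 3 + 2 * kp * p 1 * p 2)| ≤ δ * σ 3) :
    |r 3| ≤ (δ + 2 * K * η + 2 * K ^ 3 * τ) * σ 3 := by
  have K1 := h.K1
  have K0 : 0 ≤ K := by linarith
  have τ0 := h.τ0
  have s1 := h.sd.pos 1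
  have g1 : |p' 2 * r 1| ≤ (K * η) * σ 3 := by
    refine bm (h.hp' 2) h1 K0 hη (h.sd.pos 2) ?_
    rw [mul_comm]; exact h.wl.2.1
  have g2 : |p 1 * (p' 0 - p 0)| ≤ (K * (2 * K * τ)) * σ 2 :=
    bm (h.hp 1) h.d0 K0 (by positivity) s1 h.wl.1
  have g3 : |p 1 * (p 1 * (p' 0 - p 0))| ≤ (K * (K * (2 * K * τ))) * σ 3 :=
    bm (h.hp 1) g2 K0 (by positivity) s1 h.wl.2.1
  have k1 := h.km g1
  have k3 := h.km g3
  have e : r 3 = ((p' 3 + 2 * kp * p' 1 * p' 2) - (p 3 + 2 * kp * p 1 * p 2)) -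
      2 * (kp * (p' 2 * r 1)) - kp * (p 1 * (p 1 * (p' 0 - p 0))) := by
    rw [h.r3]; ring
  rw [e]
  have a1 := abs_sub ((p' 3 + 2 * kp * p' 1 * p' 2) - (p 3 + 2 * kp * p 1 * p 2) -
      2 * (kp * (p' 2 * r 1))) (kp * (p 1 * (p 1 * (p' 0 - p 0))))
  have a2 := abs_sub ((p' 3 + 2 * kp * p' 1 * p' 2) - (p 3 + 2 * kp * p 1 * p 2))
    (2 * (kp * (p' 2 * r 1)))
  have a3 : |2 * (kp * (p' 2 * r 1))| = 2 * |kp * (p' 2 * r 1)| := by
    rw [abs_mul, abs_of_pos (by norm_num : (0:ℝ) < 2)]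
  have e2 : (δ + 2 * K * η + 2 * K ^ 3 * τ) * σ 3 = δ * σ 3 + 2 * (K * η * σ 3) +
      K * (K * (2 * K * τ)) * σ 3 := by ring
  rw [e2]
  linarith

theorem q4 : r 4 = w' 4 - w 4 := h.rq 0

theorem q5 : r 5 = (w' 5 - w 5) + 2 * p' 0 * (w' 4 - w 4) := h.rq 1

theorem q6 : r 6 = (w' 6 - w 6) + 4 * kp * p' 2 * (w' 4 - w 4) -
    4 * kp * p' 0 * p' 1 * (w' 4 - w 4) - 2 * kp * p' 1 * (w' 5 - w 5) := h.rq 2

theorem dw (s : Fin 18) : |w' s - w s| ≤ (2 * K) * σ s := by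
  refine (abs_sub _ _).trans ?_
  have := h.hw s
  have := h.hw' s
  linarith

theorem m5' {a : ℝ} (ha : 0 ≤ a) (h4 : |w' 4 - w 4| ≤ a * σ 4) :
    |p' 0 * (w' 4 - w 4)| ≤ (K * τ * a) * σ 5 :=
  bm h.p0' h4 (mul_nonneg (by linarith [h.K1]) h.τ0) ha (h.sd.pos 0) h.wl.2.2.1

theorem m5 {δ : ℝ} (hd : |w' 5 - w 5| ≤ δ * σ 5) : |r 5| ≤ (δ + 4 * K ^ 2 * τ) * σ 5 := by
  have K1 := h.K1
  have g := h.m5' (by linarith) (h.dw 4)
  rw [h.q5]
  have e : 2 * p' 0 * (w' 4 - w 4) = 2 * (p' 0 * (w' 4 - w 4)) := by ring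
  rw [e]
  have a1 := abs_add_le (w' 5 - w 5) (2 * (p' 0 * (w' 4 - w 4)))
  have a3 : |2 * (p' 0 * (w' 4 - w 4))| = 2 * |p' 0 * (w' 4 - w 4)| := by
    rw [abs_mul, abs_of_pos (by norm_num : (0:ℝ) < 2)]
  have e2 : (δ + 4 * K ^ 2 * τ) * σ 5 = δ * σ 5 + 2 * (K * τ * (2 * K) * σ 5) := by ring
  rw [e2]
  linarith

set_option maxHeartbeats 1000000 in
theorem m6 {δ a b : ℝ} (ha : 0 ≤ a) (hb : 0 ≤ b) (h4 : |r 4| ≤ a * σ 4) (h5 : |r 5| ≤ b * σ 5)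
    (hd : |w' 6 - w 6| ≤ δ * σ 6) : |r 6| ≤ (δ + 12 * K ^ 2 * (a + b)) * σ 6 := by
  have K1 := h.K1
  have K0 : 0 ≤ K := by linarith
  have τ0 := h.τ0
  have τ1 := h.τ1
  obtain ⟨w2, w3, w5, w6, w6'⟩ := h.wl
  have s0 := h.sd.pos 0
  have s1 := h.sd.pos 1
  have s2 := h.sd.pos 2
  have s4 := h.sd.pos 4
  have s5 := h.sd.pos 5
  have s6 := h.sd.pos 6
  have f4 : |w' 4 - w 4| ≤ a * σ 4 := by rw [← h.q4]; exact h4
  have g5 := h.m5' ha f4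
  have f5 : |w' 5 - w 5| ≤ (b + 2 * (K * τ * a)) * σ 5 := by
    have e : w' 5 - w 5 = r 5 - 2 * (p' 0 * (w' 4 - w 4)) := by rw [h.q5]; ring
    rw [e]
    have a1 := abs_sub (r 5) (2 * (p' 0 * (w' 4 - w 4)))
    have a3 : |2 * (p' 0 * (w' 4 - w 4))| = 2 * |p' 0 * (w' 4 - w 4)| := by
      rw [abs_mul, abs_of_pos (by norm_num : (0:ℝ) < 2)]
    have e2 : (b + 2 * (K * τ * a)) * σ 5 = b * σ 5 + 2 * (K * τ * a * σ 5) := by ring
    rw [e2]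
    linarith
  have hKτa : 0 ≤ K * τ * a := by positivity
  have g1 : |p' 2 * (w' 4 - w 4)| ≤ (K * a) * σ 6 := bm (h.hp' 2) f4 K0 ha s2 w6
  have g2 : |p' 1 * (p' 0 * (w' 4 - w 4))| ≤ (K * (K * τ * a)) * σ 6 :=
    bm (h.hp' 1) g5 K0 hKτa s1 w6'
  have g3 : |p' 1 * (w' 5 - w 5)| ≤ (K * (b + 2 * (K * τ * a))) * σ 6 :=
    bm (h.hp' 1) f5 K0 (by positivity) s1 w6'
  have k1 := h.km g1
  have k2 := h.km g2
  have k3 := h.km g3
  have e : r 6 = (w' 6 - w 6) + 4 * (kp * (p' 2 * (w' 4 - w 4))) -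
      4 * (kp * (p' 1 * (p' 0 * (w' 4 - w 4)))) - 2 * (kp * (p' 1 * (w' 5 - w 5))) := by
    rw [h.q6]; ring
  rw [e]
  have a1 := abs_sub ((w' 6 - w 6) + 4 * (kp * (p' 2 * (w' 4 - w 4))) -
      4 * (kp * (p' 1 * (p' 0 * (w' 4 - w 4))))) (2 * (kp * (p' 1 * (w' 5 - w 5))))
  have a2 := abs_sub ((w' 6 - w 6) + 4 * (kp * (p' 2 * (w' 4 - w 4))))
      (4 * (kp * (p' 1 * (p' 0 * (w' 4 - w 4)))))
  have a3 := abs_add_le (w' 6 - w 6) (4 * (kp * (p' 2 * (w' 4 - w 4))))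
  have b1 : |4 * (kp * (p' 2 * (w' 4 - w 4)))| = 4 * |kp * (p' 2 * (w' 4 - w 4))| := by
    rw [abs_mul, abs_of_pos (by norm_num : (0:ℝ) < 4)]
  have b2 : |4 * (kp * (p' 1 * (p' 0 * (w' 4 - w 4))))| =
      4 * |kp * (p' 1 * (p' 0 * (w' 4 - w 4)))| := by
    rw [abs_mul, abs_of_pos (by norm_num : (0:ℝ) < 4)]
  have b3 : |2 * (kp * (p' 1 * (w' 5 - w 5)))| = 2 * |kp * (p' 1 * (w' 5 - w 5))| := by
    rw [abs_mul, abs_of_pos (by norm_num : (0:ℝ) < 2)]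
  rw [b1] at a3
  rw [b2] at a2
  rw [b3] at a1
  have t1 : K * τ * a ≤ K * a := by
    have : K * τ * a ≤ K * 1 * a :=
      mul_le_mul_of_nonneg_right (mul_le_mul_of_nonneg_left τ1 K0) ha
    linarith
  have t2 : K * (K * τ * a) ≤ K * (K * a) := mul_le_mul_of_nonneg_left t1 K0
  have t3 : K * a ≤ K ^ 2 * a := mul_le_mul_of_nonneg_right (by nlinarith) ha
  have t4 : K * b ≤ K ^ 2 * b := mul_le_mul_of_nonneg_right (by nlinarith) hb
  have key : δ + 4 * (K * a) + 4 * (K * (K * τ * a)) + 2 * (K * (b + 2 * (K * τ * a))) ≤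
      δ + 12 * K ^ 2 * (a + b) := by
    have n1 : 0 ≤ K ^ 2 * b := by positivity
    have t5 : K * (K * a) = K ^ 2 * a := by ring
    have e1 : 2 * (K * (b + 2 * (K * τ * a))) = 2 * (K * b) + 4 * (K * (K * τ * a)) := by ring
    have e2 : 12 * K ^ 2 * (a + b) = 12 * (K ^ 2 * a) + 12 * (K ^ 2 * b) := by ring
    rw [e1, e2]
    linarith
  have key2 := mul_le_mul_of_nonneg_right key s6
  have e3 : (δ + 4 * (K * a) + 4 * (K * (K * τ * a)) + 2 * (K * (b + 2 * (K * τ * a)))) * σ 6 =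
    δ * σ 6 + 4 * (K * a * σ 6) + 4 * (K * (K * τ * a) * σ 6) +
      2 * (K * (b + 2 * (K * τ * a)) * σ 6) := by ring
  rw [e3] at key2
  linarith

end RawP

end num

/-! ### the closures -/

/-- unit of the normalised coordinates -/
noncomputable def sg (W : Wnd 18 ι) (u : ℕ → Fin 18 → ℝ) (n : ℕ) (s : Fin 18) : ℝ :=
  W.kap 0 ^ wtW s * sd W u n s

/-- normalised frame coordinates -/
noncomputable def cf (W : Wnd 18 ι) (κ : ℕ → ℝ) (u : ℕ → Fin 18 → ℝ) (f : ∀ n, ι n → FW)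
    (n k l : ℕ) (s : Fin 18) : ℝ := rf W κ f n k l s / sg W u n s

/-- normalised flags -/
noncomputable def cw (W : Wnd 18 ι) (κ : ℕ → ℝ) (u : ℕ → Fin 18 → ℝ) (f : ∀ n, ι n → FW)
    (n k l : ℕ) (s : Fin 18) : ℝ := rw' W κ f n k l s / sg W u n s

theorem kp0 (hW : PWin W E κ u f {4} lam x) (s : Fin 18) : 0 < W.kap 0 ^ wtW s :=
  pow_pos (hW.ww.ok.kap 0) _

theorem sg_pos (hW : PWin W E κ u f {4} lam x) (n : ℕ) (s : Fin 18) : 0 < sg W u n s :=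
  mul_pos (kp0 hW s) (hW.ww.sd_pos n s)

/-- differences: from normalised to raw -/
theorem dif_le (hW : PWin W E κ u f {4} lam x) {n : ℕ} {s : Fin 18} {a b t : ℝ}
    (h : |a / sg W u n s - b / sg W u n s| ≤ t) :
    |a - b| ≤ (W.kap 0 ^ wtW s * t) * sd W u n s := by
  have h1 := sg_pos hW n s
  have e : a - b = (a / sg W u n s - b / sg W u n s) * sg W u n s := by
    field_simp
  rw [e, abs_mul, abs_of_pos h1]
  refine (mul_le_mul_of_nonneg_right h h1.le).trans (le_of_eq ?_)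
  unfold sg
  ring

theorem fin_le (hW : PWin W E κ u f {4} lam x) {n : ℕ} {s : Fin 18} {r D y e : ℝ}
    (hr : |un W u n s * r| ≤ D * sd W u n s) (hD : D / W.kap s ≤ W.B'.d n ^ (-e) * W.B'.d n ^ y) :
    |r| ≤ W.B'.d n ^ (y - e) := by
  have h := hW.ww
  have h1 := h.un_pos n s
  have hk := h.ok.kap s
  have hs := h.sd_pos n s
  have h2 := h.norm_le hr
  rw [mul_div_cancel_left₀ _ h1.ne'] at h2
  refine h2.trans (hD.trans (le_of_eq ?_))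
  rw [← Real.rpow_add (W.B'.pos n)]
  congr 1
  ring

theorem sd3 (hW : PWin W E κ u f {4} lam x) (n : ℕ) : sd W u n 3 = sd W u n 1 * sd W u n 2 := by
  have h := hW.ww
  have ht := hW.tight 3 (by decide) [1, 2] (by decide) (by decide) n
  have hl := (h.hl n).mul 3 [1, 2] (by decide)
  simp only [List.map_cons, List.map_nil, List.prod_cons, List.prod_nil, mul_one, List.sum_cons,
    List.sum_nil, add_zero] at ht hl
  unfold sd
  rw [ht, ← hl, Real.rpow_add (W.B.pos n)]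
  have h1 := ((h.hl n).pos 1).ne'
  have h2 := ((h.hl n).pos 2).ne'
  field_simp

theorem sg3 (hW : PWin W E κ u f {4} lam x) (n : ℕ) : sg W u n 3 = sg W u n 1 * sg W u n 2 := by
  unfold sg
  rw [sd3 hW n, show wtW 3 = wtW 1 + wtW 2 by decide, pow_add]
  ring

/-- `loose` after an update of one slot -/
theorem loose_upd {n : ℕ} {p : Fin 18 → ℝ} {e ε y : ℝ} {j : Fin 18} {k l l' : ℕ}
    (hle : e ≤ ε) (h : (W.cfg E n).loose p e k l l') (hρ : (W.cfg E n).ρ = W.B'.d n)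
    (h1 : |(W.cfg E n).rel k l l' j| ≤ W.B'.d n ^ (y - ε)) :
    (W.cfg E n).loose (Function.update p j y) ε k l l' := by
  intro s
  by_cases hs : s = j
  · subst hs; rw [Function.update_self, hρ]; exact h1
  · rw [Function.update_of_ne hs, hρ]
    refine (h s).trans ?_
    rw [hρ]
    exact Real.rpow_le_rpow_of_exponent_ge (W.B'.pos n) (W.B'.lt n).le (by linarith)

/-- the base of the configuration -/
theorem rho (hW : PWin W E κ u f {4} lam x) : ∀ᶠ n in (U : Filter ℕ),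
    (W.cfg E n).ρ = W.B'.d n := by
  filter_upwards [hW.ev] with n hn
  rw [hn.2.2]; rfl

/-- constants are absorbed -/
theorem cst (B : Base) {ε : ℝ} (hε : 0 < ε) (C : ℝ) (kap : Fin 18 → ℝ) (s : Fin 18)
    (hk : 0 < kap s) : ∀ᶠ n in (U : Filter ℕ), C / kap s ≤ B.d n ^ (-ε) :=
  ev_const_le B hε (C / kap s)

/-- **acl** -/
theorem acl_of (hW : PWin W E κ u f {4} lam x) (hx : 0 < x) (p : Fin 18 → ℝ) :
    ∀ y : ℝ, 0 ≤ y → y ≤ x → ∀ ε : ℝ, 0 < ε → ∀ᶠ n in (U : Filter ℕ), ∀ k l l',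
      (l, k) ∈ (W.cfg E n).I → (l', k) ∈ (W.cfg E n).I → (W.cfg E n).loose p ε k l l' →
      |cf W κ u f n k l' 2 - cf W κ u f n k l 2| ≤ W.B'.d n ^ y →
      (W.cfg E n).loose (Function.update p 2 y) ε k l l' := by
  intro y hy0 hyx ε hε
  have hK1 := hW.ww.ok.K0_one
  set c := W.kap 0 ^ wtW 2 with hcd
  have hc0 : 0 < c := kp0 hW 2
  filter_upwards [raw hW hx, rho hW, ev_const_le W.B' hε ((c + 2 * W.K0 ^ 2) / W.kap 2)]
    with n hn hρ hc k l l' hl hl' hlo hd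
  obtain ⟨R, hr⟩ := hn k l l' hl hl'
  have hτ : W.B'.d n ^ x ≤ W.B'.d n ^ y :=
    Real.rpow_le_rpow_of_exponent_ge (W.B'.pos n) (W.B'.lt n).le hyx
  have hy := Real.rpow_pos_of_pos (W.B'.pos n) y
  have h1 := dif_le hW hd
  have h2 := R.m2 h1
  rw [hr 2 (by decide)] at h2
  refine loose_upd le_rfl hlo hρ (fin_le hW h2 ?_)
  have hk := hW.ww.ok.kap 2
  calc (c * W.B'.d n ^ y + 2 * W.K0 ^ 2 * W.B'.d n ^ x) / W.kap 2
      ≤ ((c + 2 * W.K0 ^ 2) * W.B'.d n ^ y) / W.kap 2 := by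
        refine div_le_div_of_nonneg_right ?_ hk.le
        nlinarith [mul_le_mul_of_nonneg_left hτ (by positivity : 0 ≤ 2 * W.K0 ^ 2)]
    _ = (c + 2 * W.K0 ^ 2) / W.kap 2 * W.B'.d n ^ y := by ring
    _ ≤ _ := mul_le_mul_of_nonneg_right hc hy.le

/-- **qcl / zcl** -/
theorem qcl_of (hW : PWin W E κ u f {4} lam x) (hx : 0 < x) (p : Fin 18 → ℝ) :
    ∀ y : ℝ, 0 ≤ y → y ≤ x → ∀ ε : ℝ, 0 < ε → ∀ᶠ n in (U : Filter ℕ), ∀ k l l',
      (l, k) ∈ (W.cfg E n).I → (l', k) ∈ (W.cfg E n).I → (W.cfg E n).loose p ε k l l' →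
      |cf W κ u f n k l' 1 - cf W κ u f n k l 1| ≤ W.B'.d n ^ y →
      (W.cfg E n).loose (Function.update p 1 y) ε k l l' := by
  intro y hy0 hyx ε hε
  set c := W.kap 0 ^ wtW 1 with hcd
  have hc0 : 0 < c := kp0 hW 1
  filter_upwards [raw hW hx, rho hW, ev_const_le W.B' hε (c / W.kap 1)]
    with n hn hρ hc k l l' hl hl' hlo hd
  obtain ⟨R, hr⟩ := hn k l l' hl hl'
  have hy := Real.rpow_pos_of_pos (W.B'.pos n) y
  have h1 := dif_le hW hd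
  rw [← R.r1, hr 1 (by decide)] at h1
  refine loose_upd le_rfl hlo hρ (fin_le hW h1 ?_)
  calc c * W.B'.d n ^ y / W.kap 1 = c / W.kap 1 * W.B'.d n ^ y := by ring
    _ ≤ _ := mul_le_mul_of_nonneg_right hc hy.le

/-- **bcl** -/
theorem bcl_of (hW : PWin W E κ u f {4} lam x) (hx : 0 < x) {C : ℝ} (hC : 1 ≤ C)
    {pp pc pb : Fin 18 → ℝ} (h1 : pc 1 = x) (hpb : ∀ j, j ≠ 3 → pb j ≤ pp j ∨ pb j ≤ pc j) :
    ∀ y : ℝ, 0 ≤ y → ∀ ε : ℝ, 0 < ε → y + C * ε ≤ x → ∀ᶠ n in (U : Filter ℕ), ∀ k l l',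
      (l, k) ∈ (W.cfg E n).I → (l', k) ∈ (W.cfg E n).I → (W.cfg E n).loose pp ε k l l' →
      (W.cfg E n).loose pc ε k l l' →
      |(cf W κ u f n k l' 3 + 2 * κ n * cf W κ u f n k l' 1 * cf W κ u f n k l' 2) -
        (cf W κ u f n k l 3 + 2 * κ n * cf W κ u f n k l 1 * cf W κ u f n k l 2)| ≤
        W.B'.d n ^ y → (W.cfg E n).loose (Function.update pb 3 y) ε k l l' := by
  intro y hy0 ε hε hyx
  have hK1 := hW.ww.ok.K0_one
  have hk1 := hW.ww.ok.kap 1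
  set c := W.kap 0 ^ wtW 3 with hcd
  have hc0 : 0 < c := kp0 hW 3
  filter_upwards [raw hW hx, rho hW, ev_const_le W.B' hε
    ((c + 2 * W.K0 * W.kap 1 + 2 * W.K0 ^ 3) / W.kap 3)]
    with n hn hρ hc k l l' hl hl' hlp hlc hd
  obtain ⟨R, hr⟩ := hn k l l' hl hl'
  have hsg3 := sg3 hW n
  have anti : ∀ {s t : ℝ}, s ≤ t → W.B'.d n ^ t ≤ W.B'.d n ^ s := fun hst =>
    Real.rpow_le_rpow_of_exponent_ge (W.B'.pos n) (W.B'.lt n).le hst
  have hy := Real.rpow_pos_of_pos (W.B'.pos n) y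
  have hεC : ε ≤ C * ε := by nlinarith
  have g1 : |coW (κ n) (f n (W.rep n l k)) (f n (W.rep n l' k)) 1| ≤
      (W.kap 1 * W.B'.d n ^ y) * sd W u n 1 := by
    rw [hr 1 (by decide)]
    have a := hlc 1
    rw [h1, hρ] at a
    have a2 : |(W.cfg E n).rel k l l' 1| ≤ W.B'.d n ^ y := a.trans (anti (by linarith))
    exact hW.ww.raw_le a2
  have g3 : |(rf W κ f n k l' 3 + 2 * κ n * rf W κ f n k l' 1 * rf W κ f n k l' 2) -
      (rf W κ f n k l 3 + 2 * κ n * rf W κ f n k l 1 * rf W κ f n k l 2)| ≤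
      (c * W.B'.d n ^ y) * sd W u n 3 := by
    refine dif_le hW ?_
    have c1 : ∀ l, cf W κ u f n k l 3 + 2 * κ n * cf W κ u f n k l 1 * cf W κ u f n k l 2 =
        (rf W κ f n k l 3 + 2 * κ n * rf W κ f n k l 1 * rf W κ f n k l 2) / sg W u n 3 := by
      intro l
      have n1 := (sg_pos hW n 1).ne'
      have n2 := (sg_pos hW n 2).ne'
      unfold cf
      rw [hsg3]
      field_simp
    rw [← c1, ← c1]
    exact hd
  have h3 := R.m3 (by positivity) g1 g3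
  rw [hr 3 (by decide)] at h3
  have hpbl : (W.cfg E n).loose (Function.update pb 3 y) ε k l l' := by
    intro s
    by_cases hs : s = 3
    · subst hs
      rw [Function.update_self, hρ]
      refine fin_le hW h3 ?_
      have hτ : W.B'.d n ^ x ≤ W.B'.d n ^ y := anti (by linarith)
      have hk := hW.ww.ok.kap 3
      calc (c * W.B'.d n ^ y + 2 * W.K0 * (W.kap 1 * W.B'.d n ^ y) +
            2 * W.K0 ^ 3 * W.B'.d n ^ x) / W.kap 3
          ≤ ((c + 2 * W.K0 * W.kap 1 + 2 * W.K0 ^ 3) * W.B'.d n ^ y) / W.kap 3 := by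
            refine div_le_div_of_nonneg_right ?_ hk.le
            nlinarith [mul_le_mul_of_nonneg_left hτ (by positivity : 0 ≤ 2 * W.K0 ^ 3)]
        _ = (c + 2 * W.K0 * W.kap 1 + 2 * W.K0 ^ 3) / W.kap 3 * W.B'.d n ^ y := by ring
        _ ≤ _ := mul_le_mul_of_nonneg_right hc hy.le
    · rw [Function.update_of_ne hs, hρ]
      rcases hpb s hs with h | h
      · refine (hlp s).trans ?_
        rw [hρ]; exact anti (by linarith)
      · refine (hlc s).trans ?_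
        rw [hρ]; exact anti (by linarith)
  exact hpbl

/-- **ycl, 35** : `Y = w 1 / σ 5` -/
theorem ycl35_of (hW : PWin W E κ u f {4} lam x) (hx : 0 < x) (p : Fin 18 → ℝ) :
    ∀ ε : ℝ, 0 < ε → ∀ᶠ n in (U : Filter ℕ), ∀ k l l', (l, k) ∈ (W.cfg E n).I →
      (l', k) ∈ (W.cfg E n).I → (W.cfg E n).loose p ε k l l' →
      |cw W κ u f n k l' 5 - cw W κ u f n k l 5| ≤ W.B'.d n ^ (x - ε) →
      (W.cfg E n).loose (Function.update p 5 x) (2 * ε) k l l' := by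
  intro ε hε
  have hK1 := hW.ww.ok.K0_one
  set c := W.kap 0 ^ wtW 5 with hcd
  have hc0 : 0 < c := kp0 hW 5
  filter_upwards [raw hW hx, rho hW, ev_const_le W.B' hε ((c + 4 * W.K0 ^ 2) / W.kap 5)]
    with n hn hρ hc k l l' hl hl' hlo hd
  obtain ⟨R, hr⟩ := hn k l l' hl hl'
  have hτ : W.B'.d n ^ x ≤ W.B'.d n ^ (x - ε) :=
    Real.rpow_le_rpow_of_exponent_ge (W.B'.pos n) (W.B'.lt n).le (by linarith)
  have hy := Real.rpow_pos_of_pos (W.B'.pos n) (x - ε)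
  have h1 := dif_le hW hd
  have h2 := R.m5 h1
  rw [hr 5 (by decide)] at h2
  refine loose_upd (by linarith) hlo hρ ?_
  have h3 := fin_le (y := x - ε) (e := ε) hW h2 ?_
  · refine h3.trans (le_of_eq ?_)
    congr 1; ring
  have hk := hW.ww.ok.kap 5
  calc (c * W.B'.d n ^ (x - ε) + 4 * W.K0 ^ 2 * W.B'.d n ^ x) / W.kap 5
      ≤ ((c + 4 * W.K0 ^ 2) * W.B'.d n ^ (x - ε)) / W.kap 5 := by
        refine div_le_div_of_nonneg_right ?_ hk.le
        nlinarith [mul_le_mul_of_nonneg_left hτ (by positivity : 0 ≤ 4 * W.K0 ^ 2)]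
    _ = (c + 4 * W.K0 ^ 2) / W.kap 5 * W.B'.d n ^ (x - ε) := by ring
    _ ≤ _ := mul_le_mul_of_nonneg_right hc hy.le

/-- **ycl, 34** : `Y = 3 * w 2 / σ 6` -/
theorem ycl34_of (hW : PWin W E κ u f {4} lam x) (hx : 0 < x) {p : Fin 18 → ℝ} (h4 : p 4 = x)
    (h5 : p 5 = x) :
    ∀ ε : ℝ, 0 < ε → ∀ᶠ n in (U : Filter ℕ), ∀ k l l', (l, k) ∈ (W.cfg E n).I →
      (l', k) ∈ (W.cfg E n).I → (W.cfg E n).loose p ε k l l' →
      |3 * cw W κ u f n k l' 6 - 3 * cw W κ u f n k l 6| ≤ W.B'.d n ^ (x - ε) →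
      (W.cfg E n).loose (Function.update p 6 x) (2 * ε) k l l' := by
  intro ε hε
  have hK1 := hW.ww.ok.K0_one
  have k4 := hW.ww.ok.kap 4
  have k5 := hW.ww.ok.kap 5
  have k6 := hW.ww.ok.kap 6
  set c := W.kap 0 ^ wtW 6 with hcd
  have hc0 : 0 < c := kp0 hW 6
  filter_upwards [raw hW hx, rho hW,
    ev_const_le W.B' hε ((c + 12 * W.K0 ^ 2 * (W.kap 4 + W.kap 5)) / W.kap 6)]
    with n hn hρ hc k l l' hl hl' hlo hd
  obtain ⟨R, hr⟩ := hn k l l' hl hl'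
  set t := W.B'.d n ^ (x - ε) with ht
  have ht0 : 0 < t := Real.rpow_pos_of_pos (W.B'.pos n) (x - ε)
  have h1 : |rw' W κ f n k l' 6 - rw' W κ f n k l 6| ≤ (c * t) * sd W u n 6 := by
    refine dif_le hW ?_
    have e3 : 3 * cw W κ u f n k l' 6 - 3 * cw W κ u f n k l 6 =
      3 * (cw W κ u f n k l' 6 - cw W κ u f n k l 6) := by ring
    rw [e3, abs_mul, abs_of_pos (by norm_num : (0:ℝ) < 3)] at hd
    have h0 := abs_nonneg (cw W κ u f n k l' 6 - cw W κ u f n k l 6)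
    have h2 : |cw W κ u f n k l' 6 - cw W κ u f n k l 6| ≤ t := by linarith
    exact h2
  have g4 : |coW (κ n) (f n (W.rep n l k)) (f n (W.rep n l' k)) 4| ≤
      (W.kap 4 * t) * sd W u n 4 := by
    rw [hr 4 (by decide)]
    have a := hlo 4
    rw [h4, hρ] at a
    exact hW.ww.raw_le a
  have g5 : |coW (κ n) (f n (W.rep n l k)) (f n (W.rep n l' k)) 5| ≤
      (W.kap 5 * t) * sd W u n 5 := by
    rw [hr 5 (by decide)]
    have a := hlo 5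
    rw [h5, hρ] at a
    exact hW.ww.raw_le a
  have h2 := R.m6 (mul_nonneg k4.le ht0.le) (mul_nonneg k5.le ht0.le) g4 g5 h1
  rw [hr 6 (by decide)] at h2
  refine loose_upd (by linarith) hlo hρ ?_
  have h3 := fin_le (y := x - ε) (e := ε) hW h2 ?_
  · refine h3.trans (le_of_eq ?_)
    congr 1; ring
  calc (c * t + 12 * W.K0 ^ 2 * (W.kap 4 * t + W.kap 5 * t)) / W.kap 6
      = (c + 12 * W.K0 ^ 2 * (W.kap 4 + W.kap 5)) / W.kap 6 * t := by ring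
    _ ≤ _ := mul_le_mul_of_nonneg_right hc ht0.le

/-! ### the literals of `Rows35`, `Rows34` -/

theorem ind_upd (S : Finset (Fin 18)) (k : Fin 18) (x : ℝ) :
    Function.update (ind S x) k x = ind (insert k S) x := by
  funext s
  by_cases hs : s = k
  · subst hs
    rw [Function.update_self]
    unfold ind
    rw [if_pos (mem_insert_self _ _)]
  · rw [Function.update_of_ne hs]
    unfold ind
    simp only [mem_insert, hs, false_or]

theorem ind_or {A B S : Finset (Fin 18)} (h : ∀ j ∈ S, j ≠ 3 → j ∈ A ∨ j ∈ B) (hx : 0 ≤ x)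
    (j : Fin 18) (hj : j ≠ 3) : ind S x j ≤ ind A x j ∨ ind S x j ≤ ind B x j := by
  by_cases hS : j ∈ S
  · rcases h j hS hj with h1 | h1
    · left; unfold ind; rw [if_pos hS, if_pos h1]
    · right; unfold ind; rw [if_pos hS, if_pos h1]
  · left; unfold ind; rw [if_neg hS]; split_ifs; exacts [hx, le_rfl]

theorem acl35 (hW : PWin W E κ u f {4} lam x) (hx : 0 < x) :
    ∀ y : ℝ, 0 ≤ y → y ≤ x → ∀ ε : ℝ, 0 < ε → ∀ᶠ n in (U : Filter ℕ), ∀ k l l',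
      (l, k) ∈ (W.cfg E n).I → (l', k) ∈ (W.cfg E n).I → (W.cfg E n).loose (ind {0, 4} x) ε k l l' →
      |cf W κ u f n k l' 2 - cf W κ u f n k l 2| ≤ W.B'.d n ^ y →
      (W.cfg E n).loose (Function.update (ind {0, 4} x) 2 y) ε k l l' := acl_of hW hx _

theorem acl34 (hW : PWin W E κ u f {4} lam x) (hx : 0 < x) :
    ∀ y : ℝ, 0 ≤ y → y ≤ x → ∀ ε : ℝ, 0 < ε → ∀ᶠ n in (U : Filter ℕ), ∀ k l l',
      (l, k) ∈ (W.cfg E n).I → (l', k) ∈ (W.cfg E n).I →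
      (W.cfg E n).loose (ind {0, 4, 5, 7} x) ε k l l' →
      |cf W κ u f n k l' 2 - cf W κ u f n k l 2| ≤ W.B'.d n ^ y →
      (W.cfg E n).loose (Function.update (ind {0, 4, 5, 7} x) 2 y) ε k l l' := acl_of hW hx _

theorem qcl35 (hW : PWin W E κ u f {4} lam x) (hx : 0 < x) :
    ∀ y : ℝ, 0 ≤ y → y ≤ x → ∀ ε : ℝ, 0 < ε → ∀ᶠ n in (U : Filter ℕ), ∀ k l l',
      (l, k) ∈ (W.cfg E n).I → (l', k) ∈ (W.cfg E n).I →
      (W.cfg E n).loose (ind {0, 2, 4, 7, 14} x) ε k l l' →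
      |cf W κ u f n k l' 1 - cf W κ u f n k l 1| ≤ W.B'.d n ^ y →
      (W.cfg E n).loose (Function.update (ind {0, 2, 4, 7, 14} x) 1 y) ε k l l' := qcl_of hW hx _

theorem qcl34 (hW : PWin W E κ u f {4} lam x) (hx : 0 < x) :
    ∀ y : ℝ, 0 ≤ y → y ≤ x → ∀ ε : ℝ, 0 < ε → ∀ᶠ n in (U : Filter ℕ), ∀ k l l',
      (l, k) ∈ (W.cfg E n).I → (l', k) ∈ (W.cfg E n).I →
      (W.cfg E n).loose (ind {0, 2, 4, 5, 7, 9, 14, 15} x) ε k l l' →
      |cf W κ u f n k l' 1 - cf W κ u f n k l 1| ≤ W.B'.d n ^ y →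
      (W.cfg E n).loose (Function.update (ind {0, 2, 4, 5, 7, 9, 14, 15} x) 1 y) ε k l l' :=
  qcl_of hW hx _

theorem zcl34 (hW : PWin W E κ u f {4} lam x) (hx : 0 < x) :
    ∀ y : ℝ, 0 ≤ y → y ≤ x → ∀ ε : ℝ, 0 < ε → ∀ᶠ n in (U : Filter ℕ), ∀ k l l',
      (l, k) ∈ (W.cfg E n).I → (l', k) ∈ (W.cfg E n).I →
      (W.cfg E n).loose (ind {0, 2, 3, 4, 5, 7, 9, 10} x) ε k l l' →
      |cf W κ u f n k l' 1 - cf W κ u f n k l 1| ≤ W.B'.d n ^ y →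
      (W.cfg E n).loose (Function.update (ind {0, 2, 3, 4, 5, 7, 9, 10} x) 1 y) ε k l l' :=
  qcl_of hW hx _

theorem bcl35 (hW : PWin W E κ u f {4} lam x) (hx : 0 < x) {C : ℝ} (hC : 1 ≤ C) :
    ∀ y : ℝ, 0 ≤ y → ∀ ε : ℝ, 0 < ε → y + C * ε ≤ x → ∀ᶠ n in (U : Filter ℕ), ∀ k l l',
      (l, k) ∈ (W.cfg E n).I → (l', k) ∈ (W.cfg E n).I →
      (W.cfg E n).loose (ind {0, 2, 4, 7, 14} x) ε k l l' →
      (W.cfg E n).loose (ind {0, 1, 4, 5} x) ε k l l' →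
      |(cf W κ u f n k l' 3 + 2 * κ n * cf W κ u f n k l' 1 * cf W κ u f n k l' 2) -
        (cf W κ u f n k l 3 + 2 * κ n * cf W κ u f n k l 1 * cf W κ u f n k l 2)| ≤
        W.B'.d n ^ y →
      (W.cfg E n).loose (Function.update (ind {0, 1, 2, 4, 5, 7, 14} x) 3 y) ε k l l' :=
  bcl_of hW hx hC (by unfold ind; rw [if_pos (by decide)]) (ind_or (by decide) hx.le)

theorem bcl34 (hW : PWin W E κ u f {4} lam x) (hx : 0 < x) {C : ℝ} (hC : 1 ≤ C) :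
    ∀ y : ℝ, 0 ≤ y → ∀ ε : ℝ, 0 < ε → y + C * ε ≤ x → ∀ᶠ n in (U : Filter ℕ), ∀ k l l',
      (l, k) ∈ (W.cfg E n).I → (l', k) ∈ (W.cfg E n).I →
      (W.cfg E n).loose (ind {0, 2, 4, 5, 7, 9, 14, 15} x) ε k l l' →
      (W.cfg E n).loose (ind {0, 1, 4, 5, 6, 7} x) ε k l l' →
      |(cf W κ u f n k l' 3 + 2 * κ n * cf W κ u f n k l' 1 * cf W κ u f n k l' 2) -
        (cf W κ u f n k l 3 + 2 * κ n * cf W κ u f n k l 1 * cf W κ u f n k l 2)| ≤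
        W.B'.d n ^ y →
      (W.cfg E n).loose (Function.update (ind {0, 1, 2, 4, 5, 6, 7, 9, 14, 15} x) 3 y) ε k l l' :=
  bcl_of hW hx hC (by unfold ind; rw [if_pos (by decide)]) (ind_or (by decide) hx.le)

theorem ycl35 (hW : PWin W E κ u f {4} lam x) (hx : 0 < x) :
    ∀ ε : ℝ, 0 < ε → ∀ᶠ n in (U : Filter ℕ), ∀ k l l', (l, k) ∈ (W.cfg E n).I →
      (l', k) ∈ (W.cfg E n).I → (W.cfg E n).loose (ind {0, 4} x) ε k l l' →
      |cw W κ u f n k l' 5 - cw W κ u f n k l 5| ≤ W.B'.d n ^ (x - ε) →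
      (W.cfg E n).loose (ind {0, 4, 5} x) (2 * ε) k l l' := by
  have h := ycl35_of hW hx (ind {0, 4} x)
  rw [ind_upd] at h
  have e : insert (5 : Fin 18) ({0, 4} : Finset (Fin 18)) = {0, 4, 5} := by decide
  rwa [e] at h

theorem ycl34 (hW : PWin W E κ u f {4} lam x) (hx : 0 < x) :
    ∀ ε : ℝ, 0 < ε → ∀ᶠ n in (U : Filter ℕ), ∀ k l l', (l, k) ∈ (W.cfg E n).I →
      (l', k) ∈ (W.cfg E n).I → (W.cfg E n).loose (ind {0, 4, 5, 7} x) ε k l l' →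
      |3 * cw W κ u f n k l' 6 - 3 * cw W κ u f n k l 6| ≤ W.B'.d n ^ (x - ε) →
      (W.cfg E n).loose (ind {0, 4, 5, 6, 7} x) (2 * ε) k l l' := by
  have h := ycl34_of hW hx (p := ind {0, 4, 5, 7} x) (by unfold ind; rw [if_pos (by decide)])
    (by unfold ind; rw [if_pos (by decide)])
  rw [ind_upd] at h
  have e : insert (6 : Fin 18) ({0, 4, 5, 7} : Finset (Fin 18)) = {0, 4, 5, 6, 7} := by decide
  rwa [e] at h

end Crest.Agent.R136.CubC848
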