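import Crest.Agent.R136.PinX_851

/-!
# R136, the specials of the thin pins (helper938): evolution of the pairs

* `sg` : multiplicative units; `Rn` : relative coordinates of a pair of lines at one height
* `evR` : evolution of `Rn` between two heights, slots `1, 2, 3, 4, 5, 6, 7, 9`
-/

set_option autoImplicit false
set_option linter.unusedSectionVars false
set_option linter.unusedVariables false

open Filter Topology

namespace Crest.Agent.R136.Cub938

open Finset Crest.Agent.R138.Ex926 Crest.Agent.R136.Net191 Crest.Agent.R136.Gf356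
open Crest.Agent.R136.Qg926 Crest.Agent.R136.NetW191 Crest.Agent.R136.EvW938
open Crest.Agent.R136.PqG464 (wtW wtW_list)
open Crest.Agent.R136.LadW697 Crest.Agent.R136.Pin851

/-- right-hand side of the evolution, level slot `z` only -/
theorem evo_q (κ : ℝ) (a b : Fin 18 → ℝ) (q : Fin 14) :
    evoW κ {0} a b (Fin.natAdd 4 q) = tr κ (sh (a 0)) (flg b) q := by
  have e1 : offS {0} (flg b) = flg b := by
    funext q
    unfold offS
    rw [if_neg]
    have : ∀ q : Fin 14, (Fin.natAdd 4 q : Fin 18) ∉ ({0} : Finset (Fin 18)) := by decide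
    exact this q
  have e2 : onS {0} (flg a) = 0 := by
    funext q
    unfold onS
    rw [if_neg]
    · rfl
    have : ∀ q : Fin 14, (Fin.natAdd 4 q : Fin 18) ∉ ({0} : Finset (Fin 18)) := by decide
    exact this q
  unfold evoW
  rw [Fin.append_right, e1, e2, tr_zero, sub_zero]

theorem evo4 (κ : ℝ) (a b : Fin 18 → ℝ) : evoW κ {0} a b 4 = b 4 := by
  have h := evo_q κ a b 0
  rw [tr0] at h
  exact h

theorem evo5 (κ : ℝ) (a b : Fin 18 → ℝ) : evoW κ {0} a b 5 = b 5 + 2 * a 0 * b 4 := by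
  have h := evo_q κ a b 1
  rw [tr1] at h
  exact h

theorem evo6 (κ : ℝ) (a b : Fin 18 → ℝ) : evoW κ {0} a b 6 = b 6 := by
  have h := evo_q κ a b 2
  rw [tr2] at h
  refine h.trans ?_
  show b 6 + 4 * κ * 0 * b 4 - 4 * κ * a 0 * 0 * b 4 - 2 * κ * 0 * b 5 = b 6
  ring

theorem evo7 (κ : ℝ) (a b : Fin 18 → ℝ) :
    evoW κ {0} a b 7 = b 7 + a 0 ^ 2 * b 4 + a 0 * b 5 := by
  have h := evo_q κ a b 3
  rw [tr3] at h
  exact h

theorem evo9 (κ : ℝ) (a b : Fin 18 → ℝ) : evoW κ {0} a b 9 = b 9 + a 0 * b 6 := by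
  have h := evo_q κ a b 5
  rw [tr5] at h
  refine h.trans ?_
  show b 9 + 4 * κ * a 0 * 0 * b 4 - 4 * κ * a 0 ^ 2 * 0 * b 4 + 2 * κ * 0 * b 5 -
    4 * κ * a 0 * 0 * b 5 + a 0 * b 6 - 4 * κ * 0 * b 7 = b 9 + a 0 * b 6
  ring

section

variable {W : Wnd 18 fun _ => ℕ × ℝ} {κ : ℕ → ℝ} {u : ℕ → Fin 18 → ℝ}
  {f : ∀ n : ℕ, ℕ × ℝ → FW} {E : ∀ n : ℕ, Finset (ℕ × ℝ)} {lam : (Fin 18 → ℝ) → ℝ} {x : ℝ}
  {n : ℕ}

/-- multiplicative units -/
noncomputable def sg (W : Wnd 18 fun _ => ℕ × ℝ) (u : ℕ → Fin 18 → ℝ) (n : ℕ) (s : Fin 18) : ℝ :=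
  W.kap 0 ^ wtW s * sd W u n s

/-- the pair `l, l'` at the height `k` -/
noncomputable def Rn (W : Wnd 18 fun _ => ℕ × ℝ) (κ : ℕ → ℝ) (u : ℕ → Fin 18 → ℝ)
    (f : ∀ n : ℕ, ℕ × ℝ → FW) (n k l l' : ℕ) (s : Fin 18) : ℝ :=
  coW (κ n) (f n (W.rep n l k)) (f n (W.rep n l' k)) s / sg W u n s

variable (h : PWin W E κ u f {4} lam x)
include h

theorem sg_pos (n : ℕ) (s : Fin 18) : 0 < sg W u n s :=
  mul_pos (pow_pos (h.ww.ok.kap 0) _) (h.ww.sd_pos n s)

/-- the units are multiplicative along the kept walls -/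
theorem sg_mul (n : ℕ) {k : Fin 18} {l : List (Fin 18)} (hk : k ∉ ({4} : Finset (Fin 18)))
    (hl : l ∈ mlW k) (hs : ∀ s ∈ l, s ∉ ({4} : Finset (Fin 18))) :
    (l.map (sg W u n)).prod = sg W u n k := by
  have e1 : (l.map (sg W u n)).prod = W.kap 0 ^ (l.map wtW).sum *
      (W.B.d n ^ (l.map (W.X n)).sum / (l.map (u n)).prod) := by
    clear hl hs
    induction l with
    | nil => simp
    | cons a l ih =>
      simp only [List.map_cons, List.prod_cons, List.sum_cons, ih]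
      unfold sg sd
      rw [Real.rpow_add (W.B.pos n), pow_add]
      field_simp
  rw [e1, (h.ww.hl n).mul k l hl, ← h.tight k hk l hl hs n, wtW_list k l hl]
  rfl

/-- raw evolution of a pair -/
theorem ev_raw (g : W.Good n) (hE : E n ⊆ W.Cl n) {k k' l l' : ℕ}
    (h1 : (l, k) ∈ (W.cfg0 n (E n)).I) (h2 : (l, k') ∈ (W.cfg0 n (E n)).I)
    (h3 : (l', k) ∈ (W.cfg0 n (E n)).I) (h4 : (l', k') ∈ (W.cfg0 n (E n)).I) {s : Fin 18}
    (hs : s ≠ 0) :
    |coW (κ n) (f n (W.rep n l k')) (f n (W.rep n l' k')) s -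
      evoW (κ n) {0} (coW (κ n) (f n (W.rep n l k)) (f n (W.rep n l k')))
        (coW (κ n) (f n (W.rep n l k)) (f n (W.rep n l' k))) s| ≤
      CW W.K0 * W.B'.d n ^ x * sd W u n s := by
  obtain ⟨a1, a2, a3⟩ := Wnd.rep_of_mem hE h1
  obtain ⟨b1, b2, b3⟩ := Wnd.rep_of_mem hE h2
  obtain ⟨c1, c2, c3⟩ := Wnd.rep_of_mem hE h3
  obtain ⟨d1, d2, d3⟩ := Wnd.rep_of_mem hE h4
  have := h.ww.evoR g a1 b1 c1 d1 (a2.trans b2.symm) (c2.trans d2.symm) (a3.trans c3.symm)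
    (b3.trans d3.symm) (t := x) (fun s => (h.top s).ge) s (by rw [h.S]; simpa using hs)
  rw [h.S] at this
  exact this

omit h in
theorem div1 {X X' v e : ℝ} (hv : 0 < v) (h1 : |X' - X| ≤ e * v) : |X' / v - X / v| ≤ e := by
  rw [← sub_div, abs_div, abs_of_pos hv, div_le_iff₀ hv]; exact h1

omit h in
theorem div2 {X X' Y a v v0 v1 e : ℝ} (h0 : 0 < v0) (h1 : 0 < v1) (hv : v0 * v1 = v)
    (hX : |X' - (X + a * Y)| ≤ e * v) : |X' / v - (X / v + a / v0 * (Y / v1))| ≤ e := by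
  have hvp : 0 < v := by rw [← hv]; positivity
  have e1 : X' / v - (X / v + a / v0 * (Y / v1)) = (X' - (X + a * Y)) / v := by
    rw [← hv]; field_simp
  rw [e1, abs_div, abs_of_pos hvp, div_le_iff₀ hvp]; exact hX

/-- the constant -/
theorem exA : ∃ A : ℝ, 1 ≤ A ∧ ∀ s : Fin 18, (W.K0 + CW W.K0 + 2 * W.kap 4 * W.K0 ^ 2 +
    2 * W.kap 4 * W.K0 + W.kap 4) / W.kap 0 ^ wtW s + 2 * W.K0 / W.kap 0 ≤ A := by
  classical
  refine ⟨1 + ∑ s : Fin 18, |(W.K0 + CW W.K0 + 2 * W.kap 4 * W.K0 ^ 2 +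
    2 * W.kap 4 * W.K0 + W.kap 4) / W.kap 0 ^ wtW s + 2 * W.K0 / W.kap 0|, ?_, fun s => ?_⟩
  · have : 0 ≤ ∑ s : Fin 18, |(W.K0 + CW W.K0 + 2 * W.kap 4 * W.K0 ^ 2 +
      2 * W.kap 4 * W.K0 + W.kap 4) / W.kap 0 ^ wtW s + 2 * W.K0 / W.kap 0| :=
      Finset.sum_nonneg fun s _ => abs_nonneg _
    linarith
  · have := Finset.single_le_sum (f := fun s : Fin 18 => |(W.K0 + CW W.K0 +
      2 * W.kap 4 * W.K0 ^ 2 + 2 * W.kap 4 * W.K0 + W.kap 4) / W.kap 0 ^ wtW s +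
      2 * W.K0 / W.kap 0|) (fun s _ => abs_nonneg _) (Finset.mem_univ s)
    have h2 := le_abs_self ((W.K0 + CW W.K0 + 2 * W.kap 4 * W.K0 ^ 2 +
      2 * W.kap 4 * W.K0 + W.kap 4) / W.kap 0 ^ wtW s + 2 * W.K0 / W.kap 0)
    linarith

/-- heights -/
theorem zn (g : W.Good n) (hE : E n ⊆ W.Cl n) {k : ℕ} (hk : k ∈ (W.cfg0 n (E n)).Z) :
    |(W.cfg0 n (E n)).z k| ≤ W.K0 / W.kap 0 := by
  obtain ⟨i, hi, rfl⟩ := Finset.mem_image.1 hk
  have e : (W.cfg0 n (E n)).z (W.zc n i) = W.crd n (W.s₀ n) (W.zrep n (W.zc n i)) 0 := by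
    show W.crd n (W.s₀ n) (W.zrep n (W.zc n i)) W.kz = _
    rw [h.ww.kz]
  rw [e]
  exact h.ww.crd_le g g.s0 (W.zrep_spec (hE hi)).1 0

set_option maxHeartbeats 1000000 in
/-- **evolution of a pair between two heights** -/
theorem evR : ∃ A : ℝ, 1 ≤ A ∧ ∀ n, W.Good n → E n ⊆ W.Cl n → ∀ k k' l l',
    (l, k) ∈ (W.cfg0 n (E n)).I → (l, k') ∈ (W.cfg0 n (E n)).I →
    (l', k) ∈ (W.cfg0 n (E n)).I → (l', k') ∈ (W.cfg0 n (E n)).I → ∀ η : ℝ,
    W.B'.d n ^ x ≤ η →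
    |coW (κ n) (f n (W.rep n l k)) (f n (W.rep n l' k)) 4| ≤ W.kap 4 * η * sd W u n 4 →
    ∀ z, z = (W.cfg0 n (E n)).z k' - (W.cfg0 n (E n)).z k →
    (|Rn W κ u f n k' l l' 1 - Rn W κ u f n k l l' 1| ≤ A * η ∧
    |Rn W κ u f n k' l l' 2 - (Rn W κ u f n k l l' 2 + z * Rn W κ u f n k l l' 1)| ≤ A * η ∧
    |Rn W κ u f n k' l l' 4| ≤ A * η ∧
    |Rn W κ u f n k' l l' 5 - Rn W κ u f n k l l' 5| ≤ A * η ∧
    |Rn W κ u f n k' l l' 6 - Rn W κ u f n k l l' 6| ≤ A * η ∧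
    |Rn W κ u f n k' l l' 7 - (Rn W κ u f n k l l' 7 + z * Rn W κ u f n k l l' 5)| ≤ A * η ∧
    |Rn W κ u f n k' l l' 9 - (Rn W κ u f n k l l' 9 + z * Rn W κ u f n k l l' 6)| ≤ A * η) ∧
    |z| ≤ A ∧ ∀ s, |Rn W κ u f n k l l' s| ≤ A := by
  obtain ⟨A, hA1, hA⟩ := exA h
  have hK := h.ww.ok.K0_one
  have hK0 : 0 < W.K0 := by linarith
  have hk0 := h.ww.ok.kap 0
  have hk4 := h.ww.ok.kap 4
  have hCW := CW_pos hK
  -- parts of the constant
  have hp : ∀ s : Fin 18, 0 < W.kap 0 ^ wtW s := fun s => pow_pos hk0 _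
  have part : ∀ s : Fin 18, W.K0 / W.kap 0 ^ wtW s ≤ A ∧
      (CW W.K0 + 2 * W.kap 4 * W.K0 ^ 2) / W.kap 0 ^ wtW s ≤ A ∧
      (CW W.K0 + 2 * W.kap 4 * W.K0) / W.kap 0 ^ wtW s ≤ A ∧
      (CW W.K0 + W.kap 4) / W.kap 0 ^ wtW s ≤ A ∧ CW W.K0 / W.kap 0 ^ wtW s ≤ A ∧
      2 * W.K0 / W.kap 0 ≤ A := by
    intro s
    have h1 := hA s
    have hps := hp s
    have d : ∀ a b : ℝ, 0 ≤ b → a / W.kap 0 ^ wtW s ≤ (a + b) / W.kap 0 ^ wtW s := fun a b hb =>
      div_le_div_of_nonneg_right (by linarith) hps.le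
    have n1 : 0 ≤ 2 * W.K0 / W.kap 0 := by positivity
    have n2 : 0 ≤ (W.K0 + CW W.K0 + 2 * W.kap 4 * W.K0 ^ 2 + 2 * W.kap 4 * W.K0 + W.kap 4) /
      W.kap 0 ^ wtW s := by positivity
    have m : ∀ a : ℝ, a ≤ W.K0 + CW W.K0 + 2 * W.kap 4 * W.K0 ^ 2 + 2 * W.kap 4 * W.K0 +
        W.kap 4 → a / W.kap 0 ^ wtW s ≤ A := fun a ha => by
      have := div_le_div_of_nonneg_right ha hps.le
      linarith
    have p1 : 0 < W.kap 4 * W.K0 ^ 2 := by positivity
    have p2 : 0 < W.kap 4 * W.K0 := by positivity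
    refine ⟨m _ ?_, m _ ?_, m _ ?_, m _ ?_, m _ ?_, by linarith⟩ <;> linarith
  refine ⟨5 * A ^ 2, by nlinarith, fun n g hE k k' l l' h1 h2 h3 h4 η hη h4s z hz => ?_⟩
  obtain ⟨a1, a2, a3⟩ := Wnd.rep_of_mem hE h1
  obtain ⟨b1, b2, b3⟩ := Wnd.rep_of_mem hE h2
  obtain ⟨c1, c2, c3⟩ := Wnd.rep_of_mem hE h3
  have hδ : 0 < W.B'.d n ^ x := Real.rpow_pos_of_pos (W.B'.pos n) _
  have hη0 : 0 < η := hδ.trans_le hη
  set a0 := coW (κ n) (f n (W.rep n l k)) (f n (W.rep n l k')) 0 with ha0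
  have hsd : ∀ s, 0 < sd W u n s := fun s => h.ww.sd_pos n s
  have hsg : ∀ s, 0 < sg W u n s := fun s => sg_pos h n s
  have hb : ∀ s, |coW (κ n) (f n (W.rep n l k)) (f n (W.rep n l' k)) s| ≤ W.K0 * sd W u n s :=
    fun s => h.ww.bnd g a1 c1 s
  have ha0b : |a0| ≤ W.K0 * sd W u n 0 := h.ww.bnd g a1 b1 0
  have eR : ∀ s, Rn W κ u f n k l l' s =
    coW (κ n) (f n (W.rep n l k)) (f n (W.rep n l' k)) s / sg W u n s := fun s => rfl
  have eR' : ∀ s, Rn W κ u f n k' l l' s =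
    coW (κ n) (f n (W.rep n l k')) (f n (W.rep n l' k')) s / sg W u n s := fun s => rfl
  have hRb : ∀ s, |Rn W κ u f n k l l' s| ≤ A := fun s => by
    rw [eR, abs_div, abs_of_pos (hsg s), div_le_iff₀ (hsg s)]
    refine (hb s).trans ?_
    have := (part s).1
    rw [div_le_iff₀ (hp s)] at this
    have h5 := mul_le_mul_of_nonneg_right this (hsd s).le
    refine h5.trans (le_of_eq ?_)
    unfold sg; ring
  -- height
  have e0 : sg W u n 0 = W.kap 0 * sd W u n 0 := by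
    unfold sg
    have : wtW 0 = 1 := by decide
    rw [this, pow_one]
  have hζ : |a0 / sg W u n 0 - z| ≤ A * η := by
    have h5 := h.ww.own_zero g hE h1 h2 (t := x) (h.top 0).ge
    have e1 : ownC W n l k k' 0 = a0 / sg W u n 0 := by
      have := h.ww.crd_eq g a1 b1 0
      have h6 := (h.ww.un_pos n 0).ne'
      unfold ownC
      rw [ha0, this, e0]
      have e2 : un W u n 0 = W.kap 0 * sd W u n 0 := rfl
      rw [← e2]
      field_simp
    rw [e1, ← hz] at h5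
    refine h5.trans ?_
    have h6 := (part 0).2.2.2.2.2
    have h7 : 2 * W.K0 * W.B'.d n ^ x / W.kap 0 = 2 * W.K0 / W.kap 0 * W.B'.d n ^ x := by ring
    rw [h7]
    exact mul_le_mul h6 hη hδ.le (by linarith)
  have hzb : |z| ≤ 5 * A ^ 2 := by
    have m1 := zn h g hE (k := k) (by obtain ⟨i, hi, _, rfl⟩ := Wnd.mem_I.1 h1; exact Finset.mem_image_of_mem _ hi)
    have m2 := zn h g hE (k := k') (by obtain ⟨i, hi, _, rfl⟩ := Wnd.mem_I.1 h2; exact Finset.mem_image_of_mem _ hi)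
    have h6 := (part 0).2.2.2.2.2
    have h7 : W.K0 / W.kap 0 + W.K0 / W.kap 0 = 2 * W.K0 / W.kap 0 := by ring
    have h8 := abs_sub ((W.cfg0 n (E n)).z k') ((W.cfg0 n (E n)).z k)
    rw [hz]
    have : A ≤ 5 * A ^ 2 := by nlinarith
    linarith
  -- replacing the height
  have rep : ∀ s : Fin 18, |a0 / sg W u n 0 * Rn W κ u f n k l l' s - z * Rn W κ u f n k l l' s| ≤
      A ^ 2 * η := fun s => by
    rw [← sub_mul, abs_mul]
    calc _ ≤ A * η * A := mul_le_mul hζ (hRb s) (abs_nonneg _) (by positivity)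
      _ = _ := by ring
  have AA : A * η ≤ A ^ 2 * η := mul_le_mul_of_nonneg_right (by nlinarith) hη0.le
  have A2 : 0 ≤ A ^ 2 * η := by positivity
  have B1 : A * η ≤ 5 * A ^ 2 * η := by
    have e : 5 * A ^ 2 * η = 5 * (A ^ 2 * η) := by ring
    rw [e]; linarith
  have B2 : A * η + A ^ 2 * η ≤ 5 * A ^ 2 * η := by
    have e : 5 * A ^ 2 * η = 5 * (A ^ 2 * η) := by ring
    rw [e]; linarith
  have sp0 := hsd 0
  have sp4 := hsd 4
  have walls := h.ww.sides g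
  have w5 := walls.wall 5 [0, 4] (by decide)
  have w7 := walls.wall 7 [0, 0, 4] (by decide)
  simp only [List.map_cons, List.map_nil, List.prod_cons, List.prod_nil, mul_one] at w5 w7
  have raw := fun {s : Fin 18} (hs : s ≠ 0) => ev_raw h g hE h1 h2 h3 h4 hs
  -- error in the unit of a slot
  have unit : ∀ (s : Fin 18) (c : ℝ), 0 ≤ c → c / W.kap 0 ^ wtW s ≤ A → ∀ X : ℝ,
      |X| ≤ c * η * sd W u n s → |X| ≤ A * η * sg W u n s := by
    intro s c hc hcA X hX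
    refine hX.trans ?_
    rw [div_le_iff₀ (hp s)] at hcA
    have h5 := mul_le_mul_of_nonneg_right hcA (mul_nonneg hη0.le (hsd s).le)
    calc c * η * sd W u n s = c * (η * sd W u n s) := by ring
      _ ≤ _ := h5
      _ = _ := by unfold sg; ring
  have cw : ∀ s : Fin 18, CW W.K0 * W.B'.d n ^ x * sd W u n s ≤ CW W.K0 * η * sd W u n s :=
    fun s => mul_le_mul_of_nonneg_right (mul_le_mul_of_nonneg_left hη hCW.le) (hsd s).le
  have g2 := sg_mul h n (k := 2) (l := [1, 0]) (by decide) (by decide) (by decide)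
  have g7 := sg_mul h n (k := 7) (l := [0, 5]) (by decide) (by decide) (by decide)
  have g9 := sg_mul h n (k := 9) (l := [0, 6]) (by decide) (by decide) (by decide)
  simp only [List.map_cons, List.map_nil, List.prod_cons, List.prod_nil, mul_one] at g2 g7 g9
  refine ⟨⟨?_, ?_, ?_, ?_, ?_, ?_, ?_⟩, hzb, fun s => (hRb s).trans (by nlinarith)⟩
  · -- 1
    have r := raw (s := 1) (by decide)
    rw [evoW1] at r
    have := div1 (hsg 1) (unit 1 _ hCW.le (part 1).2.2.2.2.1 _ (r.trans (cw 1)))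
    rw [eR, eR']
    exact this.trans B1
  · have r := raw (s := 2) (by decide)
    rw [evoW2] at r
    have := div2 (hsg 0) (hsg 1) (by rw [← g2]; ring) (unit 2 _ hCW.le (part 2).2.2.2.2.1 _ (r.trans (cw 2)))
    have h5 := rep 1
    rw [← eR, ← eR, ← eR'] at this
    have e1 : Rn W κ u f n k' l l' 2 - (Rn W κ u f n k l l' 2 + z * Rn W κ u f n k l l' 1) =
        (Rn W κ u f n k' l l' 2 - (Rn W κ u f n k l l' 2 + a0 / sg W u n 0 *
          Rn W κ u f n k l l' 1)) + (a0 / sg W u n 0 * Rn W κ u f n k l l' 1 -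
            z * Rn W κ u f n k l l' 1) := by ring
    rw [e1]
    exact (abs_add_le _ _).trans ((add_le_add this h5).trans B2)
  · -- 4
    have r := raw (s := 4) (by decide)
    rw [evo4] at r
    have h5 : |coW (κ n) (f n (W.rep n l k')) (f n (W.rep n l' k')) 4| ≤
        (CW W.K0 + W.kap 4) * η * sd W u n 4 := by
      have h6 := abs_add_le (coW (κ n) (f n (W.rep n l k')) (f n (W.rep n l' k')) 4 -
        coW (κ n) (f n (W.rep n l k)) (f n (W.rep n l' k)) 4)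
        (coW (κ n) (f n (W.rep n l k)) (f n (W.rep n l' k)) 4)
      rw [sub_add_cancel] at h6
      have h7 := r.trans (cw 4)
      have e1 : (CW W.K0 + W.kap 4) * η * sd W u n 4 = CW W.K0 * η * sd W u n 4 +
        W.kap 4 * η * sd W u n 4 := by ring
      linarith
    have h6 := unit 4 _ (by positivity) (part 4).2.2.2.1 _ h5
    rw [eR', abs_div, abs_of_pos (hsg 4), div_le_iff₀ (hsg 4)]
    exact h6.trans (mul_le_mul_of_nonneg_right B1 (hsg 4).le)
  · -- 5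
    have r := raw (s := 5) (by decide)
    rw [evo5] at r
    have h5 : |2 * a0 * coW (κ n) (f n (W.rep n l k)) (f n (W.rep n l' k)) 4| ≤
        2 * W.kap 4 * W.K0 * η * sd W u n 5 := by
      rw [abs_mul, abs_mul, abs_two]
      calc 2 * |a0| * |coW (κ n) (f n (W.rep n l k)) (f n (W.rep n l' k)) 4|
          ≤ 2 * (W.K0 * sd W u n 0) * (W.kap 4 * η * sd W u n 4) := by gcongr
        _ = 2 * W.kap 4 * W.K0 * η * (sd W u n 0 * sd W u n 4) := by ring
        _ ≤ _ := mul_le_mul_of_nonneg_left w5 (by positivity)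
    have h6 : |coW (κ n) (f n (W.rep n l k')) (f n (W.rep n l' k')) 5 -
        coW (κ n) (f n (W.rep n l k)) (f n (W.rep n l' k)) 5| ≤
        (CW W.K0 + 2 * W.kap 4 * W.K0) * η * sd W u n 5 := by
      have e1 : coW (κ n) (f n (W.rep n l k')) (f n (W.rep n l' k')) 5 -
        coW (κ n) (f n (W.rep n l k)) (f n (W.rep n l' k)) 5 =
        (coW (κ n) (f n (W.rep n l k')) (f n (W.rep n l' k')) 5 -
        (coW (κ n) (f n (W.rep n l k)) (f n (W.rep n l' k)) 5 +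
          2 * a0 * coW (κ n) (f n (W.rep n l k)) (f n (W.rep n l' k)) 4)) +
          2 * a0 * coW (κ n) (f n (W.rep n l k)) (f n (W.rep n l' k)) 4 := by ring
      rw [e1]
      have h7 := r.trans (cw 5)
      refine (abs_add_le _ _).trans ((add_le_add h7 h5).trans (le_of_eq ?_))
      ring
    have := div1 (hsg 5) (unit 5 _ (by positivity) (part 5).2.2.1 _ h6)
    rw [eR, eR']
    exact this.trans B1
  · -- 6
    have r := raw (s := 6) (by decide)
    rw [evo6] at r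
    have := div1 (hsg 6) (unit 6 _ hCW.le (part 6).2.2.2.2.1 _ (r.trans (cw 6)))
    rw [eR, eR']
    exact this.trans B1
  · -- 7
    have r := raw (s := 7) (by decide)
    rw [evo7] at r
    have h5 : |a0 ^ 2 * coW (κ n) (f n (W.rep n l k)) (f n (W.rep n l' k)) 4| ≤
        2 * W.kap 4 * W.K0 ^ 2 * η * sd W u n 7 := by
      rw [abs_mul, abs_pow]
      calc |a0| ^ 2 * |coW (κ n) (f n (W.rep n l k)) (f n (W.rep n l' k)) 4|
          ≤ (W.K0 * sd W u n 0) ^ 2 * (W.kap 4 * η * sd W u n 4) := by gcongr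
        _ = W.kap 4 * W.K0 ^ 2 * η * (sd W u n 0 * (sd W u n 0 * sd W u n 4)) := by ring
        _ ≤ W.kap 4 * W.K0 ^ 2 * η * sd W u n 7 := mul_le_mul_of_nonneg_left w7 (by positivity)
        _ ≤ _ := by
          have : 0 ≤ W.kap 4 * W.K0 ^ 2 * η * sd W u n 7 := by
            have := hsd 7
            positivity
          linarith
    have h6 : |coW (κ n) (f n (W.rep n l k')) (f n (W.rep n l' k')) 7 -
        (coW (κ n) (f n (W.rep n l k)) (f n (W.rep n l' k)) 7 + a0 *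
          coW (κ n) (f n (W.rep n l k)) (f n (W.rep n l' k)) 5)| ≤
        (CW W.K0 + 2 * W.kap 4 * W.K0 ^ 2) * η * sd W u n 7 := by
      have e1 : coW (κ n) (f n (W.rep n l k')) (f n (W.rep n l' k')) 7 -
        (coW (κ n) (f n (W.rep n l k)) (f n (W.rep n l' k)) 7 + a0 *
          coW (κ n) (f n (W.rep n l k)) (f n (W.rep n l' k)) 5) =
        (coW (κ n) (f n (W.rep n l k')) (f n (W.rep n l' k')) 7 -
        (coW (κ n) (f n (W.rep n l k)) (f n (W.rep n l' k)) 7 +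
          a0 ^ 2 * coW (κ n) (f n (W.rep n l k)) (f n (W.rep n l' k)) 4 +
          a0 * coW (κ n) (f n (W.rep n l k)) (f n (W.rep n l' k)) 5)) +
          a0 ^ 2 * coW (κ n) (f n (W.rep n l k)) (f n (W.rep n l' k)) 4 := by ring
      rw [e1]
      have h7 := r.trans (cw 7)
      refine (abs_add_le _ _).trans ((add_le_add h7 h5).trans (le_of_eq ?_))
      ring
    have := div2 (hsg 0) (hsg 5) g7 (unit 7 _ (by positivity) (part 7).2.1 _ h6)
    have h8 := rep 5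
    rw [← eR, ← eR, ← eR'] at this
    have e1 : Rn W κ u f n k' l l' 7 - (Rn W κ u f n k l l' 7 + z * Rn W κ u f n k l l' 5) =
        (Rn W κ u f n k' l l' 7 - (Rn W κ u f n k l l' 7 + a0 / sg W u n 0 *
          Rn W κ u f n k l l' 5)) + (a0 / sg W u n 0 * Rn W κ u f n k l l' 5 -
            z * Rn W κ u f n k l l' 5) := by ring
    rw [e1]
    exact (abs_add_le _ _).trans ((add_le_add this h8).trans B2)
  · -- 9
    have r := raw (s := 9) (by decide)
    rw [evo9] at r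
    have := div2 (hsg 0) (hsg 6) g9 (unit 9 _ hCW.le (part 9).2.2.2.2.1 _ (r.trans (cw 9)))
    have h5 := rep 6
    rw [← eR, ← eR, ← eR'] at this
    have e1 : Rn W κ u f n k' l l' 9 - (Rn W κ u f n k l l' 9 + z * Rn W κ u f n k l l' 6) =
        (Rn W κ u f n k' l l' 9 - (Rn W κ u f n k l l' 9 + a0 / sg W u n 0 *
          Rn W κ u f n k l l' 6)) + (a0 / sg W u n 0 * Rn W κ u f n k l l' 6 -
            z * Rn W κ u f n k l l' 6) := by ring
    rw [e1]
    exact (abs_add_le _ _).trans ((add_le_add this h5).trans B2)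

end

end Crest.Agent.R136.Cub938
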