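import Crest.Agent.R136.NetW1_191

/-!
# R136, the specials of the thin pins (helper480): the finite algebra of the rows

`Apx` : pair of lines `H, V`, `H', V'` (frames and flags seen from the base) and their relative
coordinates `R`, up to `E`.

* `Apx.pcl35`, `vcl35`, `ccl35`; `Apx.pcl34`, `vcl34`, `ccl34`, `zrow34`
* `Apx.R1`, `R2`, `R3`, `R5`, `R6` : closures
-/

set_option autoImplicit false
set_option linter.unusedVariables false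

namespace Crest.Agent.R136.Cub480

/-- size `L ^ m` -/
def Bd (L : ℝ) (m : ℕ) (x : ℝ) : Prop := |x| ≤ L ^ m

/-- size `L ^ m * E` -/
def Sm (L E : ℝ) (m : ℕ) (x : ℝ) : Prop := |x| ≤ L ^ m * E

section

variable {L E x y : ℝ} {m n : ℕ}

theorem two_pow (hL : 4 ≤ L) : L ^ m + L ^ n ≤ L ^ (max m n + 1) := by
  have h1 : (1 : ℝ) ≤ L := by linarith
  have h2 : L ^ m ≤ L ^ max m n := pow_le_pow_right₀ h1 (le_max_left _ _)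
  have h3 : L ^ n ≤ L ^ max m n := pow_le_pow_right₀ h1 (le_max_right _ _)
  have h4 : 0 < L ^ max m n := by positivity
  rw [pow_succ]
  nlinarith

theorem Bd.mul (hL : 4 ≤ L) (h : Bd L m x) (h' : Bd L n y) : Bd L (m + n) (x * y) := by
  unfold Bd at *
  rw [abs_mul, pow_add]
  exact mul_le_mul h h' (abs_nonneg _) (by positivity)

theorem Bd.add (hL : 4 ≤ L) (h : Bd L m x) (h' : Bd L n y) : Bd L (max m n + 1) (x + y) := by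
  unfold Bd at *
  exact (abs_add_le _ _).trans ((add_le_add h h').trans (two_pow hL))

theorem Bd.sub (hL : 4 ≤ L) (h : Bd L m x) (h' : Bd L n y) : Bd L (max m n + 1) (x - y) := by
  unfold Bd at *
  exact (abs_sub _ _).trans ((add_le_add h h').trans (two_pow hL))

theorem Sm.mul (hL : 4 ≤ L) (h : Bd L m x) (h' : Sm L E n y) : Sm L E (m + n) (x * y) := by
  unfold Bd at h
  unfold Sm at *
  rw [abs_mul, pow_add, mul_assoc]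
  exact mul_le_mul h h' (abs_nonneg _) (by positivity)

theorem Sm.add (hL : 4 ≤ L) (hE : 0 ≤ E) (h : Sm L E m x) (h' : Sm L E n y) :
    Sm L E (max m n + 1) (x + y) := by
  unfold Sm at *
  refine (abs_add_le _ _).trans ((add_le_add h h').trans ?_)
  rw [← add_mul]
  exact mul_le_mul_of_nonneg_right (two_pow hL) hE

theorem Sm.sub (hL : 4 ≤ L) (hE : 0 ≤ E) (h : Sm L E m x) (h' : Sm L E n y) :
    Sm L E (max m n + 1) (x - y) := by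
  unfold Sm at *
  refine (abs_sub _ _).trans ((add_le_add h h').trans ?_)
  rw [← add_mul]
  exact mul_le_mul_of_nonneg_right (two_pow hL) hE

theorem Sm.neg (h : Sm L E m x) : Sm L E m (-x) := by
  unfold Sm at *
  rwa [abs_neg]

theorem Sm.up (hL : 4 ≤ L) (hE : 0 ≤ E) (h : Sm L E m x) (hm : m ≤ n) : |x| ≤ L ^ n * E := by
  unfold Sm at h
  exact h.trans (mul_le_mul_of_nonneg_right (pow_le_pow_right₀ (by linarith) hm) hE)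

end

/-- **two lines seen from the base** -/
structure Apx (κ K E : ℝ) (H H' : Fin 4 → ℝ) (V V' : Fin 14 → ℝ) (R : Fin 18 → ℝ) : Prop where
  hκ : |κ| ≤ 1
  hK : 1 ≤ K
  hE : 0 ≤ E
  bH : ∀ i, |H i| ≤ K
  bH' : ∀ i, |H' i| ≤ K
  bV : ∀ q, |V q| ≤ K
  bV' : ∀ q, |V' q| ≤ K
  r1 : |R 1 - (H' 1 - H 1)| ≤ E
  r2 : |R 2 - (H' 2 - H 2)| ≤ E
  r3 : |R 3 - (H' 3 - H 3 + 2 * κ * H 1 * (H' 2 - H 2))| ≤ E
  r5 : |R 5 - (V' 1 - V 1)| ≤ E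
  r6 : |R 6 - (V' 2 - V 2 - 2 * κ * H' 1 * (V' 1 - V 1))| ≤ E
  r7 : |R 7 - (V' 3 - V 3)| ≤ E
  r9 : |R 9 - (V' 5 - V 5 + 2 * κ * H' 2 * (V' 1 - V 1) - 4 * κ * H' 1 * (V' 3 - V 3))| ≤ E
  r10 : |R 10 - (V' 6 - V 6 - 4 * κ ^ 2 * H' 1 * H' 2 * (V' 1 - V 1) +
    κ * H' 3 * (V' 1 - V 1) + 3 * κ * H' 2 * (V' 2 - V 2) + 4 * κ ^ 2 * H' 1 ^ 2 * (V' 3 - V 3) -
    2 * κ * H' 1 * (V' 5 - V 5))| ≤ E
  r14 : |R 14 - (V' 10 - V 10 + κ * H' 2 ^ 2 * (V' 1 - V 1) + 2 * H' 3 * (V' 3 - V 3) +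
    H' 2 * (V' 5 - V 5))| ≤ E
  r15 : |R 15 - (V' 11 - V 11 - 2 * κ ^ 2 * H' 1 * H' 2 ^ 2 * (V' 1 - V 1) +
    2 * κ * H' 2 * H' 3 * (V' 1 - V 1) + 3 * κ * H' 2 ^ 2 * (V' 2 - V 2) -
    4 * κ * H' 1 * H' 3 * (V' 3 - V 3) - 2 * κ * H' 1 * H' 2 * (V' 5 - V 5) +
    H' 3 * (V' 5 - V 5) + 2 * H' 2 * (V' 6 - V 6) - 2 * κ * H' 1 * (V' 10 - V 10))| ≤ E

namespace Apx

variable {κ K E : ℝ} {H H' : Fin 4 → ℝ} {V V' : Fin 14 → ℝ} {R : Fin 18 → ℝ}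

section

variable (g : Apx κ K E H H' V V' R)

include g

theorem L4 : 4 ≤ 4 * K := by have := g.hK; linarith

theorem bκ : Bd (4 * K) 1 κ := by
  have := g.hκ; have := g.hK
  unfold Bd; rw [pow_one]; linarith

theorem n2 : Bd (4 * K) 1 2 := by
  have := g.hK
  unfold Bd; rw [pow_one, abs_of_pos (by norm_num)]; linarith

theorem n3 : Bd (4 * K) 1 3 := by
  have := g.hK
  unfold Bd; rw [pow_one, abs_of_pos (by norm_num)]; linarith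

theorem n4 : Bd (4 * K) 1 4 := by
  have := g.hK
  unfold Bd; rw [pow_one, abs_of_pos (by norm_num)]; linarith

theorem h (i : Fin 4) : Bd (4 * K) 1 (H i) := by
  have := g.hK; have := g.bH i
  unfold Bd; rw [pow_one]; linarith

theorem h' (i : Fin 4) : Bd (4 * K) 1 (H' i) := by
  have := g.hK; have := g.bH' i
  unfold Bd; rw [pow_one]; linarith

theorem v (i : Fin 14) : Bd (4 * K) 1 (V i) := by
  have := g.hK; have := g.bV i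
  unfold Bd; rw [pow_one]; linarith

theorem v' (i : Fin 14) : Bd (4 * K) 1 (V' i) := by
  have := g.hK; have := g.bV' i
  unfold Bd; rw [pow_one]; linarith

theorem sm {r X : ℝ} (h1 : |r - X| ≤ E) (h2 : |r| ≤ E) : Sm (4 * K) E 1 X := by
  have h3 := g.hK; have h4 := g.hE
  unfold Sm
  rw [pow_one]
  have h5 := abs_sub r (r - X)
  rw [sub_sub_cancel] at h5
  nlinarith

/-! ### the small quantities -/

theorem s5 (a5 : |R 5| ≤ E) : Sm (4 * K) E 1 (V' 1 - V 1) := g.sm g.r5 a5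

theorem s7 (a7 : |R 7| ≤ E) : Sm (4 * K) E 1 (V' 3 - V 3) := g.sm g.r7 a7

theorem s1 (a1 : |R 1| ≤ E) : Sm (4 * K) E 1 (H' 1 - H 1) := g.sm g.r1 a1

theorem s2 (a2 : |R 2| ≤ E) : Sm (4 * K) E 1 (H' 2 - H 2) := g.sm g.r2 a2

/-- `V 2` -/
theorem s6 (a5 : |R 5| ≤ E) (a6 : |R 6| ≤ E) : Sm (4 * K) E 5 (V' 2 - V 2) := by
  have e : V' 2 - V 2 = (V' 2 - V 2 - 2 * κ * H' 1 * (V' 1 - V 1)) +
      2 * κ * H' 1 * (V' 1 - V 1) := by ring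
  rw [e]
  exact Sm.add g.L4 g.hE (g.sm g.r6 a6) (Sm.mul g.L4 ((g.n2.mul g.L4 g.bκ).mul g.L4 (g.h' 1))
    (g.s5 a5))

/-- `V 5` -/
theorem s9 (a5 : |R 5| ≤ E) (a7 : |R 7| ≤ E) (a9 : |R 9| ≤ E) :
    Sm (4 * K) E 6 (V' 5 - V 5) := by
  have e : V' 5 - V 5 = (V' 5 - V 5 + 2 * κ * H' 2 * (V' 1 - V 1) -
      4 * κ * H' 1 * (V' 3 - V 3)) - 2 * κ * H' 2 * (V' 1 - V 1) +
      4 * κ * H' 1 * (V' 3 - V 3) := by ring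
  rw [e]
  exact Sm.add g.L4 g.hE (Sm.sub g.L4 g.hE (g.sm g.r9 a9)
    (Sm.mul g.L4 ((g.n2.mul g.L4 g.bκ).mul g.L4 (g.h' 2)) (g.s5 a5)))
    (Sm.mul g.L4 ((g.n4.mul g.L4 g.bκ).mul g.L4 (g.h' 1)) (g.s7 a7))

/-- `β` -/
theorem sβ (a1 : |R 1| ≤ E) (a3 : |R 3| ≤ E) :
    Sm (4 * K) E 5 ((H' 3 + 2 * κ * H' 1 * H' 2) - (H 3 + 2 * κ * H 1 * H 2)) := by
  have e : (H' 3 + 2 * κ * H' 1 * H' 2) - (H 3 + 2 * κ * H 1 * H 2) =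
      (H' 3 - H 3 + 2 * κ * H 1 * (H' 2 - H 2)) + 2 * κ * H' 2 * (H' 1 - H 1) := by ring
  rw [e]
  exact Sm.add g.L4 g.hE (g.sm g.r3 a3) (Sm.mul g.L4 ((g.n2.mul g.L4 g.bκ).mul g.L4 (g.h' 2))
    (g.s1 a1))

end

section rows

variable (g : Apx κ K E H H' V V' R)

include g

/-- **35, positions** : `a = H 2`, `F = 2 V 3`, `Q = 2 a F`, `c = H 1`, `Y = V 1`,
`K = V 5 - 4κ c V 3`, `Φ = V 10` -/
theorem pcl35 (a2 : |R 2| ≤ E) (a7 : |R 7| ≤ E) (a14 : |R 14| ≤ E) :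
    |H 2 - H' 2| ≤ (4 * K) ^ 30 * E ∧ |2 * V 3 - 2 * V' 3| ≤ (4 * K) ^ 30 * E ∧
    |2 * H 2 * (2 * V 3) - 2 * H' 2 * (2 * V' 3)| ≤ (4 * K) ^ 30 * E ∧
    |(V 10 + κ * H 2 ^ 2 * V 1 + H 2 * (V 5 - 4 * κ * H 1 * V 3) +
        κ * (H 1 * (2 * H 2 * (2 * V 3)))) -
      (V' 10 + κ * H' 2 ^ 2 * V' 1 + H' 2 * (V' 5 - 4 * κ * H' 1 * V' 3) +
        κ * (H' 1 * (2 * H' 2 * (2 * V' 3))))| ≤ (4 * K) ^ 30 * E := by
  have L := g.L4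
  have hE := g.hE
  refine ⟨?_, ?_, ?_, ?_⟩
  · rw [abs_sub_comm]; exact (g.s2 a2).up L hE (by decide)
  · have e : 2 * V 3 - 2 * V' 3 = -(2 * (V' 3 - V 3)) := by ring
    rw [e]
    exact (Sm.neg (Sm.mul L g.n2 (g.s7 a7))).up L hE (by decide)
  · have e : 2 * H 2 * (2 * V 3) - 2 * H' 2 * (2 * V' 3) =
        -(2 * (2 * V 3) * (H' 2 - H 2) + 2 * H' 2 * 2 * (V' 3 - V 3)) := by ring
    rw [e]
    exact (Sm.neg (Sm.add L hE (Sm.mul L (g.n2.mul L (g.n2.mul L (g.v 3))) (g.s2 a2))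
      (Sm.mul L ((g.n2.mul L (g.h' 2)).mul L g.n2) (g.s7 a7)))).up L hE (by decide)
  · have e : (V 10 + κ * H 2 ^ 2 * V 1 + H 2 * (V 5 - 4 * κ * H 1 * V 3) +
          κ * (H 1 * (2 * H 2 * (2 * V 3)))) -
        (V' 10 + κ * H' 2 ^ 2 * V' 1 + H' 2 * (V' 5 - 4 * κ * H' 1 * V' 3) +
          κ * (H' 1 * (2 * H' 2 * (2 * V' 3)))) =
        -(V' 10 - V 10 + κ * H' 2 ^ 2 * (V' 1 - V 1) + 2 * H' 3 * (V' 3 - V 3) +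
          H' 2 * (V' 5 - V 5)) + 2 * H' 3 * (V' 3 - V 3) -
        κ * (H' 2 + H 2) * V 1 * (H' 2 - H 2) - V 5 * (H' 2 - H 2) := by ring
    rw [e]
    exact (Sm.sub L hE (Sm.sub L hE (Sm.add L hE (Sm.neg (g.sm g.r14 a14))
      (Sm.mul L (g.n2.mul L (g.h' 3)) (g.s7 a7)))
      (Sm.mul L ((g.bκ.mul L (Bd.add L (g.h' 2) (g.h 2))).mul L (g.v 1)) (g.s2 a2)))
      (Sm.mul L (g.v 5) (g.s2 a2))).up L hE (by decide)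

/-- **35, velocities** -/
theorem vcl35 (a1 : |R 1| ≤ E) (a3 : |R 3| ≤ E) (a5 : |R 5| ≤ E) (a9 : |R 9| ≤ E)
    (a14 : |R 14| ≤ E) :
    |H 1 - H' 1| ≤ (4 * K) ^ 30 * E ∧
    |(H 3 + 2 * κ * H 1 * H 2) - (H' 3 + 2 * κ * H' 1 * H' 2)| ≤ (4 * K) ^ 30 * E ∧
    |V 1 - V' 1| ≤ (4 * K) ^ 30 * E ∧
    |(V 5 - 4 * κ * H 1 * V 3) - (V' 5 - 4 * κ * H' 1 * V' 3)| ≤ (4 * K) ^ 30 * E ∧
    |(V 10 + (H 3 + 2 * κ * H 1 * H 2) * (2 * V 3)) -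
      (V' 10 + (H' 3 + 2 * κ * H' 1 * H' 2) * (2 * V' 3))| ≤ (4 * K) ^ 30 * E := by
  have L := g.L4
  have hE := g.hE
  have t9 : Sm (4 * K) E 5 (V' 5 - V 5 - 4 * κ * H' 1 * (V' 3 - V 3)) := by
    have e : V' 5 - V 5 - 4 * κ * H' 1 * (V' 3 - V 3) = (V' 5 - V 5 +
        2 * κ * H' 2 * (V' 1 - V 1) - 4 * κ * H' 1 * (V' 3 - V 3)) -
        2 * κ * H' 2 * (V' 1 - V 1) := by ring
    rw [e]
    exact Sm.sub L hE (g.sm g.r9 a9)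
      (Sm.mul L ((g.n2.mul L g.bκ).mul L (g.h' 2)) (g.s5 a5))
  refine ⟨?_, ?_, ?_, ?_, ?_⟩
  · rw [abs_sub_comm]; exact (g.s1 a1).up L hE (by decide)
  · rw [abs_sub_comm]; exact (g.sβ a1 a3).up L hE (by decide)
  · rw [abs_sub_comm]; exact (g.s5 a5).up L hE (by decide)
  · have e : (V 5 - 4 * κ * H 1 * V 3) - (V' 5 - 4 * κ * H' 1 * V' 3) =
        4 * κ * V 3 * (H' 1 - H 1) - (V' 5 - V 5 - 4 * κ * H' 1 * (V' 3 - V 3)) := by ring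
    rw [e]
    exact (Sm.sub L hE (Sm.mul L ((g.n4.mul L g.bκ).mul L (g.v 3)) (g.s1 a1)) t9).up L hE
      (by decide)
  · have e : (V 10 + (H 3 + 2 * κ * H 1 * H 2) * (2 * V 3)) -
        (V' 10 + (H' 3 + 2 * κ * H' 1 * H' 2) * (2 * V' 3)) =
        κ * (H' 2 * H' 2) * (V' 1 - V 1) + H' 2 * (V' 5 - V 5 - 4 * κ * H' 1 * (V' 3 - V 3)) -
        2 * V 3 * ((H' 3 + 2 * κ * H' 1 * H' 2) - (H 3 + 2 * κ * H 1 * H 2)) -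
        (V' 10 - V 10 + κ * H' 2 ^ 2 * (V' 1 - V 1) + 2 * H' 3 * (V' 3 - V 3) +
          H' 2 * (V' 5 - V 5)) := by ring
    rw [e]
    exact (Sm.sub L hE (Sm.sub L hE (Sm.add L hE
      (Sm.mul L (g.bκ.mul L ((g.h' 2).mul L (g.h' 2))) (g.s5 a5)) (Sm.mul L (g.h' 2) t9))
      (Sm.mul L (g.n2.mul L (g.v 3)) (g.sβ a1 a3))) (g.sm g.r14 a14)).up L hE (by decide)

/-- **35, `c` and `Y`** -/
theorem ccl35 (a1 : |R 1| ≤ E) (a5 : |R 5| ≤ E) :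
    |H 1 - H' 1| ≤ (4 * K) ^ 30 * E ∧ |V 1 - V' 1| ≤ (4 * K) ^ 30 * E := by
  have L := g.L4
  have hE := g.hE
  refine ⟨?_, ?_⟩
  · rw [abs_sub_comm]; exact (g.s1 a1).up L hE (by decide)
  · rw [abs_sub_comm]; exact (g.s5 a5).up L hE (by decide)

/-- **34, positions** : `a = H 2`, `F = V 5`, `Q = 2 V 10 + 4 a F`, `c = H 1`, `Y = 3 V 2`,
`K = 2 (V 6 - 2κ c V 5)`, `Φ = V 11 - 2κ c V 10` -/
theorem pcl34 (a2 : |R 2| ≤ E) (a5 : |R 5| ≤ E) (a7 : |R 7| ≤ E) (a9 : |R 9| ≤ E)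
    (a14 : |R 14| ≤ E) (a15 : |R 15| ≤ E) :
    |H 2 - H' 2| ≤ (4 * K) ^ 30 * E ∧ |V 5 - V' 5| ≤ (4 * K) ^ 30 * E ∧
    |(2 * V 10 + 4 * H 2 * V 5) - (2 * V' 10 + 4 * H' 2 * V' 5)| ≤ (4 * K) ^ 30 * E ∧
    |((V 11 - 2 * κ * H 1 * V 10) + κ * H 2 ^ 2 * (3 * V 2) +
        H 2 * (2 * (V 6 - 2 * κ * H 1 * V 5)) + κ * (H 1 * (2 * V 10 + 4 * H 2 * V 5))) -
      ((V' 11 - 2 * κ * H' 1 * V' 10) + κ * H' 2 ^ 2 * (3 * V' 2) +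
        H' 2 * (2 * (V' 6 - 2 * κ * H' 1 * V' 5)) +
        κ * (H' 1 * (2 * V' 10 + 4 * H' 2 * V' 5)))| ≤ (4 * K) ^ 30 * E := by
  have L := g.L4
  have hE := g.hE
  have t9 := g.s9 a5 a7 a9
  have t14 : Sm (4 * K) E 10 (V' 10 - V 10) := by
    have e : V' 10 - V 10 = (V' 10 - V 10 + κ * H' 2 ^ 2 * (V' 1 - V 1) +
        2 * H' 3 * (V' 3 - V 3) + H' 2 * (V' 5 - V 5)) - κ * (H' 2 * H' 2) * (V' 1 - V 1) -
        2 * H' 3 * (V' 3 - V 3) - H' 2 * (V' 5 - V 5) := by ring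
    rw [e]
    have := Sm.sub L hE (Sm.sub L hE (Sm.sub L hE (g.sm g.r14 a14)
      (Sm.mul L (g.bκ.mul L ((g.h' 2).mul L (g.h' 2))) (g.s5 a5)))
      (Sm.mul L (g.n2.mul L (g.h' 3)) (g.s7 a7))) (Sm.mul L (g.h' 2) t9)
    exact this.up L hE (by decide)
  refine ⟨?_, ?_, ?_, ?_⟩
  · rw [abs_sub_comm]; exact (g.s2 a2).up L hE (by decide)
  · rw [abs_sub_comm]; exact t9.up L hE (by decide)
  · have e : (2 * V 10 + 4 * H 2 * V 5) - (2 * V' 10 + 4 * H' 2 * V' 5) =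
        -(2 * (V' 10 - V 10) + 4 * H' 2 * (V' 5 - V 5) + 4 * V 5 * (H' 2 - H 2)) := by ring
    rw [e]
    exact (Sm.neg (Sm.add L hE (Sm.add L hE (Sm.mul L g.n2 t14)
      (Sm.mul L (g.n4.mul L (g.h' 2)) t9)) (Sm.mul L (g.n4.mul L (g.v 5)) (g.s2 a2)))).up L hE
      (by decide)
  · have e : ((V 11 - 2 * κ * H 1 * V 10) + κ * H 2 ^ 2 * (3 * V 2) +
          H 2 * (2 * (V 6 - 2 * κ * H 1 * V 5)) + κ * (H 1 * (2 * V 10 + 4 * H 2 * V 5))) -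
        ((V' 11 - 2 * κ * H' 1 * V' 10) + κ * H' 2 ^ 2 * (3 * V' 2) +
          H' 2 * (2 * (V' 6 - 2 * κ * H' 1 * V' 5)) +
          κ * (H' 1 * (2 * V' 10 + 4 * H' 2 * V' 5))) =
        -(V' 11 - V 11 - 2 * κ ^ 2 * H' 1 * H' 2 ^ 2 * (V' 1 - V 1) +
          2 * κ * H' 2 * H' 3 * (V' 1 - V 1) + 3 * κ * H' 2 ^ 2 * (V' 2 - V 2) -
          4 * κ * H' 1 * H' 3 * (V' 3 - V 3) - 2 * κ * H' 1 * H' 2 * (V' 5 - V 5) +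
          H' 3 * (V' 5 - V 5) + 2 * H' 2 * (V' 6 - V 6) - 2 * κ * H' 1 * (V' 10 - V 10)) -
        (2 * κ * κ * H' 1 * (H' 2 * H' 2) * (V' 1 - V 1)) +
        2 * κ * H' 2 * H' 3 * (V' 1 - V 1) - 4 * κ * H' 1 * H' 3 * (V' 3 - V 3) -
        2 * κ * H' 1 * H' 2 * (V' 5 - V 5) + H' 3 * (V' 5 - V 5) -
        2 * κ * H' 1 * (V' 10 - V 10) - 3 * κ * (H' 2 + H 2) * V 2 * (H' 2 - H 2) -
        2 * V 6 * (H' 2 - H 2) := by ring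
    rw [e]
    have b2κ := g.n2.mul L g.bκ
    have b4κ := g.n4.mul L g.bκ
    exact (Sm.sub L hE (Sm.sub L hE (Sm.sub L hE (Sm.add L hE (Sm.sub L hE (Sm.sub L hE
      (Sm.add L hE (Sm.sub L hE (Sm.neg (g.sm g.r15 a15))
        (Sm.mul L (((b2κ.mul L g.bκ).mul L (g.h' 1)).mul L ((g.h' 2).mul L (g.h' 2))) (g.s5 a5)))
        (Sm.mul L ((b2κ.mul L (g.h' 2)).mul L (g.h' 3)) (g.s5 a5)))
        (Sm.mul L ((b4κ.mul L (g.h' 1)).mul L (g.h' 3)) (g.s7 a7)))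
        (Sm.mul L ((b2κ.mul L (g.h' 1)).mul L (g.h' 2)) t9))
        (Sm.mul L (g.h' 3) t9))
        (Sm.mul L (b2κ.mul L (g.h' 1)) t14))
        (Sm.mul L (((g.n3.mul L g.bκ).mul L (Bd.add L (g.h' 2) (g.h 2))).mul L (g.v 2))
          (g.s2 a2)))
        (Sm.mul L (g.n2.mul L (g.v 6)) (g.s2 a2))).up L hE (by decide)

/-- **34, velocities** -/
theorem vcl34 (a1 : |R 1| ≤ E) (a3 : |R 3| ≤ E) (a5 : |R 5| ≤ E) (a6 : |R 6| ≤ E)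
    (a7 : |R 7| ≤ E) (a10 : |R 10| ≤ E) (a15 : |R 15| ≤ E) :
    |H 1 - H' 1| ≤ (4 * K) ^ 30 * E ∧
    |(H 3 + 2 * κ * H 1 * H 2) - (H' 3 + 2 * κ * H' 1 * H' 2)| ≤ (4 * K) ^ 30 * E ∧
    |3 * V 2 - 3 * V' 2| ≤ (4 * K) ^ 30 * E ∧
    |2 * (V 6 - 2 * κ * H 1 * V 5) - 2 * (V' 6 - 2 * κ * H' 1 * V' 5)| ≤ (4 * K) ^ 30 * E ∧
    |((V 11 - 2 * κ * H 1 * V 10) + (H 3 + 2 * κ * H 1 * H 2) * V 5) -
      ((V' 11 - 2 * κ * H' 1 * V' 10) + (H' 3 + 2 * κ * H' 1 * H' 2) * V' 5)| ≤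
      (4 * K) ^ 30 * E := by
  have L := g.L4
  have hE := g.hE
  have b2κ := g.n2.mul L g.bκ
  have b4κ := g.n4.mul L g.bκ
  have t6 := g.s6 a5 a6
  have t10 : Sm (4 * K) E 13 (V' 6 - V 6 - 2 * κ * H' 1 * (V' 5 - V 5)) := by
    have e : V' 6 - V 6 - 2 * κ * H' 1 * (V' 5 - V 5) =
        (V' 6 - V 6 - 4 * κ ^ 2 * H' 1 * H' 2 * (V' 1 - V 1) +
          κ * H' 3 * (V' 1 - V 1) + 3 * κ * H' 2 * (V' 2 - V 2) +
          4 * κ ^ 2 * H' 1 ^ 2 * (V' 3 - V 3) - 2 * κ * H' 1 * (V' 5 - V 5)) +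
        4 * κ * κ * H' 1 * H' 2 * (V' 1 - V 1) - κ * H' 3 * (V' 1 - V 1) -
        3 * κ * H' 2 * (V' 2 - V 2) - 4 * κ * κ * (H' 1 * H' 1) * (V' 3 - V 3) := by ring
    rw [e]
    have := Sm.sub L hE (Sm.sub L hE (Sm.sub L hE (Sm.add L hE (g.sm g.r10 a10)
      (Sm.mul L (((b4κ.mul L g.bκ).mul L (g.h' 1)).mul L (g.h' 2)) (g.s5 a5)))
      (Sm.mul L (g.bκ.mul L (g.h' 3)) (g.s5 a5)))
      (Sm.mul L ((g.n3.mul L g.bκ).mul L (g.h' 2)) t6))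
      (Sm.mul L ((b4κ.mul L g.bκ).mul L ((g.h' 1).mul L (g.h' 1))) (g.s7 a7))
    exact this.up L hE (by decide)
  refine ⟨?_, ?_, ?_, ?_, ?_⟩
  · rw [abs_sub_comm]; exact (g.s1 a1).up L hE (by decide)
  · rw [abs_sub_comm]; exact (g.sβ a1 a3).up L hE (by decide)
  · have e : 3 * V 2 - 3 * V' 2 = -(3 * (V' 2 - V 2)) := by ring
    rw [e]
    exact (Sm.neg (Sm.mul L g.n3 t6)).up L hE (by decide)
  · have e : 2 * (V 6 - 2 * κ * H 1 * V 5) - 2 * (V' 6 - 2 * κ * H' 1 * V' 5) =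
        4 * κ * V 5 * (H' 1 - H 1) - 2 * (V' 6 - V 6 - 2 * κ * H' 1 * (V' 5 - V 5)) := by ring
    rw [e]
    exact (Sm.sub L hE (Sm.mul L (b4κ.mul L (g.v 5)) (g.s1 a1)) (Sm.mul L g.n2 t10)).up L hE
      (by decide)
  · have e : ((V 11 - 2 * κ * H 1 * V 10) + (H 3 + 2 * κ * H 1 * H 2) * V 5) -
        ((V' 11 - 2 * κ * H' 1 * V' 10) + (H' 3 + 2 * κ * H' 1 * H' 2) * V' 5) =
        -(V' 11 - V 11 - 2 * κ ^ 2 * H' 1 * H' 2 ^ 2 * (V' 1 - V 1) +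
          2 * κ * H' 2 * H' 3 * (V' 1 - V 1) + 3 * κ * H' 2 ^ 2 * (V' 2 - V 2) -
          4 * κ * H' 1 * H' 3 * (V' 3 - V 3) - 2 * κ * H' 1 * H' 2 * (V' 5 - V 5) +
          H' 3 * (V' 5 - V 5) + 2 * H' 2 * (V' 6 - V 6) - 2 * κ * H' 1 * (V' 10 - V 10)) -
        (2 * κ * κ * H' 1 * (H' 2 * H' 2) * (V' 1 - V 1)) +
        2 * κ * H' 2 * H' 3 * (V' 1 - V 1) + 3 * κ * (H' 2 * H' 2) * (V' 2 - V 2) -
        4 * κ * H' 1 * H' 3 * (V' 3 - V 3) +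
        2 * H' 2 * (V' 6 - V 6 - 2 * κ * H' 1 * (V' 5 - V 5)) +
        2 * κ * V 10 * (H' 1 - H 1) -
        V 5 * ((H' 3 + 2 * κ * H' 1 * H' 2) - (H 3 + 2 * κ * H 1 * H 2)) := by ring
    rw [e]
    exact (Sm.sub L hE (Sm.add L hE (Sm.add L hE (Sm.sub L hE (Sm.add L hE (Sm.add L hE
      (Sm.sub L hE (Sm.neg (g.sm g.r15 a15))
        (Sm.mul L (((b2κ.mul L g.bκ).mul L (g.h' 1)).mul L ((g.h' 2).mul L (g.h' 2))) (g.s5 a5)))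
        (Sm.mul L ((b2κ.mul L (g.h' 2)).mul L (g.h' 3)) (g.s5 a5)))
        (Sm.mul L ((g.n3.mul L g.bκ).mul L ((g.h' 2).mul L (g.h' 2))) t6))
        (Sm.mul L ((b4κ.mul L (g.h' 1)).mul L (g.h' 3)) (g.s7 a7)))
        (Sm.mul L (g.n2.mul L (g.h' 2)) t10))
        (Sm.mul L (b2κ.mul L (g.v 10)) (g.s1 a1)))
        (Sm.mul L (g.v 5) (g.sβ a1 a3))).up L hE (by decide)

/-- **34, `c` and `Y`** -/
theorem ccl34 (a1 : |R 1| ≤ E) (a5 : |R 5| ≤ E) (a6 : |R 6| ≤ E) :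
    |H 1 - H' 1| ≤ (4 * K) ^ 30 * E ∧ |3 * V 2 - 3 * V' 2| ≤ (4 * K) ^ 30 * E := by
  have L := g.L4
  have hE := g.hE
  refine ⟨?_, ?_⟩
  · rw [abs_sub_comm]; exact (g.s1 a1).up L hE (by decide)
  · have e : 3 * V 2 - 3 * V' 2 = -(3 * (V' 2 - V 2)) := by ring
    rw [e]
    exact (Sm.neg (Sm.mul L g.n3 (g.s6 a5 a6))).up L hE (by decide)

/-- **34, cells of the second slope** -/
theorem zrow34 (a2 : |R 2| ≤ E) (a3 : |R 3| ≤ E) (a5 : |R 5| ≤ E) (a7 : |R 7| ≤ E)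
    (a9 : |R 9| ≤ E) (a10 : |R 10| ≤ E) :
    |H 2 - H' 2| ≤ (4 * K) ^ 30 * E ∧ |V 5 - V' 5| ≤ (4 * K) ^ 30 * E ∧
    |((H 3 + 2 * κ * H 1 * H 2) - (H' 3 + 2 * κ * H' 1 * H' 2)) -
      2 * κ * H 2 * (H 1 - H' 1)| ≤ (4 * K) ^ 30 * E ∧
    |(2 * (V 6 - 2 * κ * H 1 * V 5) + 4 * κ * H 1 * V 5 + 2 * κ * H 2 * (3 * V 2)) -
      (2 * (V' 6 - 2 * κ * H' 1 * V' 5) + 4 * κ * H' 1 * V' 5 + 2 * κ * H' 2 * (3 * V' 2))| ≤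
      (4 * K) ^ 30 * E := by
  have L := g.L4
  have hE := g.hE
  have b2κ := g.n2.mul L g.bκ
  have b4κ := g.n4.mul L g.bκ
  have t9 := g.s9 a5 a7 a9
  refine ⟨?_, ?_, ?_, ?_⟩
  · rw [abs_sub_comm]; exact (g.s2 a2).up L hE (by decide)
  · rw [abs_sub_comm]; exact t9.up L hE (by decide)
  · have e : ((H 3 + 2 * κ * H 1 * H 2) - (H' 3 + 2 * κ * H' 1 * H' 2)) -
        2 * κ * H 2 * (H 1 - H' 1) = -(H' 3 - H 3 + 2 * κ * H 1 * (H' 2 - H 2)) -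
        2 * κ * (H' 1 - H 1) * (H' 2 - H 2) := by ring
    rw [e]
    exact (Sm.sub L hE (Sm.neg (g.sm g.r3 a3))
      (Sm.mul L (b2κ.mul L (Bd.sub L (g.h' 1) (g.h 1))) (g.s2 a2))).up L hE (by decide)
  · have e : (2 * (V 6 - 2 * κ * H 1 * V 5) + 4 * κ * H 1 * V 5 + 2 * κ * H 2 * (3 * V 2)) -
        (2 * (V' 6 - 2 * κ * H' 1 * V' 5) + 4 * κ * H' 1 * V' 5 + 2 * κ * H' 2 * (3 * V' 2)) =
        -(2 * (V' 6 - V 6 - 4 * κ ^ 2 * H' 1 * H' 2 * (V' 1 - V 1) +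
          κ * H' 3 * (V' 1 - V 1) + 3 * κ * H' 2 * (V' 2 - V 2) +
          4 * κ ^ 2 * H' 1 ^ 2 * (V' 3 - V 3) - 2 * κ * H' 1 * (V' 5 - V 5))) -
        2 * (4 * κ * κ * H' 1 * H' 2) * (V' 1 - V 1) + 2 * (κ * H' 3) * (V' 1 - V 1) +
        2 * (4 * κ * κ * (H' 1 * H' 1)) * (V' 3 - V 3) - 2 * (2 * κ * H' 1) * (V' 5 - V 5) -
        2 * κ * (3 * V 2) * (H' 2 - H 2) := by ring
    rw [e]
    exact (Sm.sub L hE (Sm.sub L hE (Sm.add L hE (Sm.add L hE (Sm.sub L hE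
      (Sm.neg (Sm.mul L g.n2 (g.sm g.r10 a10)))
        (Sm.mul L (g.n2.mul L (((b4κ.mul L g.bκ).mul L (g.h' 1)).mul L (g.h' 2))) (g.s5 a5)))
        (Sm.mul L (g.n2.mul L (g.bκ.mul L (g.h' 3))) (g.s5 a5)))
        (Sm.mul L (g.n2.mul L ((b4κ.mul L g.bκ).mul L ((g.h' 1).mul L (g.h' 1)))) (g.s7 a7)))
        (Sm.mul L (g.n2.mul L (b2κ.mul L (g.h' 1))) t9))
        (Sm.mul L (b2κ.mul L (g.n3.mul L (g.v 2))) (g.s2 a2))).up L hE (by decide)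

/-! ### closures -/

theorem R1 {d : ℝ} (h : |H' 1 - H 1| ≤ d) : |R 1| ≤ d + E := by
  have h1 := g.r1
  have h2 := abs_add_le (R 1 - (H' 1 - H 1)) (H' 1 - H 1)
  rw [sub_add_cancel] at h2
  linarith

theorem R2 {d : ℝ} (h : |H' 2 - H 2| ≤ d) : |R 2| ≤ d + E := by
  have h1 := g.r2
  have h2 := abs_add_le (R 2 - (H' 2 - H 2)) (H' 2 - H 2)
  rw [sub_add_cancel] at h2
  linarith

theorem R5 {d : ℝ} (h : |V' 1 - V 1| ≤ d) : |R 5| ≤ d + E := by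
  have h1 := g.r5
  have h2 := abs_add_le (R 5 - (V' 1 - V 1)) (V' 1 - V 1)
  rw [sub_add_cancel] at h2
  linarith

/-- `Y = 3 V 2` -/
theorem R6 {d : ℝ} (a5 : |R 5| ≤ E) (h : |3 * V' 2 - 3 * V 2| ≤ d) :
    |R 6| ≤ d + (4 * K) ^ 30 * E := by
  have L := g.L4
  have hE := g.hE
  have h1 := g.r6
  have h4 : |2 * κ * H' 1 * (V' 1 - V 1)| ≤ (4 * K) ^ 29 * E :=
    (Sm.mul L ((g.n2.mul L g.bκ).mul L (g.h' 1)) (g.s5 a5)).up L hE (by decide)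
  have h5 : |V' 2 - V 2| ≤ d := by
    have e : 3 * V' 2 - 3 * V 2 = 3 * (V' 2 - V 2) := by ring
    rw [e, abs_mul, abs_of_pos (by norm_num)] at h
    have := abs_nonneg (V' 2 - V 2)
    linarith
  have h6 : E + (4 * K) ^ 29 * E ≤ (4 * K) ^ 30 * E := by
    have h7 : (1 : ℝ) ≤ (4 * K) ^ 29 := one_le_pow₀ (by linarith)
    have h8 : (4 * K) ^ 30 = (4 * K) ^ 29 * (4 * K) := pow_succ _ _
    rw [h8]
    nlinarith [mul_nonneg (le_trans zero_le_one h7) hE, mul_le_mul_of_nonneg_right h7 hE]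
  have e : R 6 = (R 6 - (V' 2 - V 2 - 2 * κ * H' 1 * (V' 1 - V 1))) + (V' 2 - V 2) -
      2 * κ * H' 1 * (V' 1 - V 1) := by ring
  rw [e]
  have h9 := abs_sub ((R 6 - (V' 2 - V 2 - 2 * κ * H' 1 * (V' 1 - V 1))) + (V' 2 - V 2))
    (2 * κ * H' 1 * (V' 1 - V 1))
  have h10 := abs_add_le (R 6 - (V' 2 - V 2 - 2 * κ * H' 1 * (V' 1 - V 1))) (V' 2 - V 2)
  linarith

/-- `β = H 3 + 2κ H 1 H 2` -/
theorem R3 {d : ℝ} (a1 : |R 1| ≤ E)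
    (h : |(H' 3 + 2 * κ * H' 1 * H' 2) - (H 3 + 2 * κ * H 1 * H 2)| ≤ d) :
    |R 3| ≤ d + (4 * K) ^ 30 * E := by
  have L := g.L4
  have hE := g.hE
  have h1 := g.r3
  have h4 : |2 * κ * H' 2 * (H' 1 - H 1)| ≤ (4 * K) ^ 29 * E :=
    (Sm.mul L ((g.n2.mul L g.bκ).mul L (g.h' 2)) (g.s1 a1)).up L hE (by decide)
  have h6 : E + (4 * K) ^ 29 * E ≤ (4 * K) ^ 30 * E := by
    have h7 : (1 : ℝ) ≤ (4 * K) ^ 29 := one_le_pow₀ (by linarith)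
    have h8 : (4 * K) ^ 30 = (4 * K) ^ 29 * (4 * K) := pow_succ _ _
    rw [h8]
    nlinarith [mul_nonneg (le_trans zero_le_one h7) hE, mul_le_mul_of_nonneg_right h7 hE]
  have e : R 3 = (R 3 - (H' 3 - H 3 + 2 * κ * H 1 * (H' 2 - H 2))) +
      ((H' 3 + 2 * κ * H' 1 * H' 2) - (H 3 + 2 * κ * H 1 * H 2)) -
      2 * κ * H' 2 * (H' 1 - H 1) := by ring
  rw [e]
  have h9 := abs_sub ((R 3 - (H' 3 - H 3 + 2 * κ * H 1 * (H' 2 - H 2))) +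
      ((H' 3 + 2 * κ * H' 1 * H' 2) - (H 3 + 2 * κ * H 1 * H 2)))
    (2 * κ * H' 2 * (H' 1 - H 1))
  have h10 := abs_add_le (R 3 - (H' 3 - H 3 + 2 * κ * H 1 * (H' 2 - H 2)))
    ((H' 3 + 2 * κ * H' 1 * H' 2) - (H 3 + 2 * κ * H 1 * H 2))
  linarith

end rows

end Apx

end Crest.Agent.R136.Cub480
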