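import Crest.Agent.R136.PinX_851

/-!
# R136, the specials of the thin pins (helper851): three lines at one height

* `Tri` : base line, two lines, raw bounds
* `Apx` : normalised composition rules
* `Tri.apx` : the rules
-/

set_option autoImplicit false
set_option linter.unusedSectionVars false
set_option linter.unusedVariables false

open Filter Topology

namespace Crest.Agent.R136.Pin851

open Finset Crest.Agent.R136.Net191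
open Crest.Agent.R136.NetW191 Crest.Agent.R136.EvW938

variable {κ K τ : ℝ} {σ : Fin 18 → ℝ} {f0 fx fy : FW}

/-- units: the walls, tight away from the slot `4` -/
structure Uni (σ : Fin 18 → ℝ) : Prop where
  side : SidesW σ
  pos : ∀ s, 0 < σ s
  tight : ∀ k, k ≠ 4 → ∀ l ∈ mlW k, (4 : Fin 18) ∉ l → (l.map σ).prod = σ k

/-- base line, two lines at one height -/
structure Tri (κ : ℝ) (σ : Fin 18 → ℝ) (K τ : ℝ) (f0 fx fy : FW) : Prop where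
  κ1 : |κ| ≤ 1
  K1 : 1 ≤ K
  τ0 : 0 ≤ τ
  uni : Uni σ
  b0x : ∀ s, |coW κ f0 fx s| ≤ K * σ s
  b0y : ∀ s, |coW κ f0 fy s| ≤ K * σ s
  bx0 : ∀ s, |coW κ fx f0 s| ≤ K * σ s
  by0 : ∀ s, |coW κ fy f0 s| ≤ K * σ s
  z0x : |coW κ f0 fx 0| ≤ K * τ * σ 0
  z0y : |coW κ f0 fy 0| ≤ K * τ * σ 0
  h4 : |coW κ fx fy 4| ≤ K * τ * σ 4

/-- normalised composition rules -/
structure Apx (κ K E : ℝ) (H H' V V' R : Fin 18 → ℝ) : Prop where
  κ1 : |κ| ≤ 1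
  K1 : 1 ≤ K
  E0 : 0 ≤ E
  bH : ∀ s, |H s| ≤ K
  bH' : ∀ s, |H' s| ≤ K
  bV : ∀ s, |V s| ≤ K
  bV' : ∀ s, |V' s| ≤ K
  r1 : |R 1 - (H' 1 - H 1)| ≤ E
  r2 : |R 2 - (H' 2 - H 2)| ≤ E
  r3 : |R 3 - (H' 3 - H 3 + 2 * κ * H 1 * (H' 2 - H 2))| ≤ E
  r5 : |R 5 - (V' 5 - V 5)| ≤ E
  r6 : |R 6 - ((V' 6 - V 6) - 2 * κ * H' 1 * (V' 5 - V 5))| ≤ E
  r7 : |R 7 - (V' 7 - V 7)| ≤ E
  r9 : |R 9 - ((V' 9 - V 9) + 2 * κ * H' 2 * (V' 5 - V 5) - 4 * κ * H' 1 * (V' 7 - V 7))| ≤ E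
  r10 : |R 10 - ((V' 10 - V 10) - 4 * κ ^ 2 * H' 1 * H' 2 * (V' 5 - V 5) +
    κ * H' 3 * (V' 5 - V 5) + 3 * κ * H' 2 * (V' 6 - V 6) +
    4 * κ ^ 2 * H' 1 ^ 2 * (V' 7 - V 7) - 2 * κ * H' 1 * (V' 9 - V 9))| ≤ E
  r14 : |R 14 - ((V' 14 - V 14) + κ * H' 2 ^ 2 * (V' 5 - V 5) + 2 * H' 3 * (V' 7 - V 7) +
    H' 2 * (V' 9 - V 9))| ≤ E
  r15 : |R 15 - ((V' 15 - V 15) - 2 * κ ^ 2 * H' 1 * H' 2 ^ 2 * (V' 5 - V 5) +
    2 * κ * H' 2 * H' 3 * (V' 5 - V 5) + 3 * κ * H' 2 ^ 2 * (V' 6 - V 6) -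
    4 * κ * H' 1 * H' 3 * (V' 7 - V 7) - 2 * κ * H' 1 * H' 2 * (V' 9 - V 9) +
    H' 3 * (V' 9 - V 9) + 2 * H' 2 * (V' 10 - V 10) - 2 * κ * H' 1 * (V' 14 - V 14))| ≤ E

/-- frames seen from the base -/
noncomputable def Hc (κ : ℝ) (σ : Fin 18 → ℝ) (f0 fx : FW) (s : Fin 18) : ℝ := coW κ f0 fx s / σ s

/-- flags seen from the base -/
noncomputable def Vc (κ : ℝ) (σ : Fin 18 → ℝ) (f0 fx : FW) (s : Fin 18) : ℝ :=
  -(coW κ fx f0 s / σ s)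

/-- the error -/
def Er (K τ : ℝ) : ℝ := 470 * (2 * K) ^ 7 * τ

theorem flag_raw (κ : ℝ) (f0 fx fy : FW) (q : Fin 14) :
    coW κ fx fy (Fin.natAdd 4 q) =
      tr κ (frm (coW κ f0 fy)) (flg (coW κ fx f0) - flg (coW κ fy f0)) q := by
  have h1 := congrFun (cocycle κ fx f0 fy) q
  have h2 := congrFun (cocycle κ fy f0 fy) q
  rw [sub_self, tr_zero] at h2
  rw [coW_right, h1, frm_coW, flg_coW, flg_coW]
  have e : tr κ f0.g (f0.G - fx.G) - tr κ f0.g (f0.G - fy.G) =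
      tr κ f0.g (f0.G - fx.G) + -tr κ f0.g (f0.G - fy.G) := sub_eq_add_neg _ _
  have h3 : tr κ (rel κ f0.g fy.g) (tr κ f0.g (f0.G - fx.G)) =
      tr κ (rel κ f0.g fy.g) (tr κ f0.g (f0.G - fx.G) - tr κ f0.g (f0.G - fy.G)) +
        tr κ (rel κ f0.g fy.g) (tr κ f0.g (f0.G - fy.G)) := by
    rw [← tr_add, sub_add_cancel]
  have h4 := congrFun h3 q
  simp only [Pi.add_apply, Pi.zero_apply] at h2 h4 ⊢
  linarith

theorem div_main {X Y y s C : ℝ} (hs : 0 < s) (h : |X - Y| ≤ C * s) (hY : Y = s * y) :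
    |X / s - y| ≤ C := by
  have e : X / s - y = (X - Y) / s := by rw [hY]; field_simp
  rw [e, abs_div, abs_of_pos hs, div_le_iff₀ hs]
  exact h

namespace Tri

variable (T : Tri κ σ K τ f0 fx fy)

include T

theorem K0 : 0 ≤ K := zero_le_one.trans T.K1

theorem lip (q : Fin 14) :
    |coW κ fx fy (Fin.natAdd 4 q) -
      tr κ ![0, coW κ f0 fy 1, coW κ f0 fy 2, coW κ f0 fy 3]
        (Function.update (flg (coW κ fx f0) - flg (coW κ fy f0)) 0 0) q| ≤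
      Er K τ * σ (Fin.natAdd 4 q) := by
  rw [flag_raw κ f0 fx fy q]
  have hK := T.K0
  have hp : ∀ s, 0 ≤ σ s := fun s => (T.uni.pos s).le
  refine tr_lip T.κ1 T.uni.side (by linarith [T.K1]) T.τ0 (fun i => ?_) (fun i => ?_)
    (fun i => ?_) (fun q => ?_) (fun q => ?_) q
  · refine (T.b0y _).trans ?_
    have := mul_nonneg hK (hp (Fin.castAdd 14 i))
    linarith
  · have hi : ∀ j : Fin 4, 0 ≤ 2 * K * σ (Fin.castAdd 14 j) := fun j =>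
      mul_nonneg (by linarith) (hp _)
    have hb : ∀ j : Fin 4, |coW κ f0 fy (Fin.castAdd 14 j)| ≤ 2 * K * σ (Fin.castAdd 14 j) :=
      fun j => (T.b0y _).trans (by have := mul_nonneg hK (hp (Fin.castAdd 14 j)); linarith)
    fin_cases i
    · show |(0 : ℝ)| ≤ _
      rw [abs_zero]; exact hi 0
    · exact hb 1
    · exact hb 2
    · exact hb 3
  · have hi : ∀ j : Fin 4, 0 ≤ 2 * K * τ * σ (Fin.castAdd 14 j) := fun j =>
      mul_nonneg (mul_nonneg (by linarith) T.τ0) (hp _)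
    fin_cases i
    · show |coW κ f0 fy 0 - 0| ≤ _
      rw [sub_zero]
      refine T.z0y.trans ?_
      have : 0 ≤ K * τ * σ 0 := mul_nonneg (mul_nonneg hK T.τ0) (hp 0)
      show K * τ * σ 0 ≤ 2 * K * τ * σ 0
      linarith
    · show |coW κ f0 fy 1 - coW κ f0 fy 1| ≤ _
      rw [sub_self, abs_zero]; exact hi 1
    · show |coW κ f0 fy 2 - coW κ f0 fy 2| ≤ _
      rw [sub_self, abs_zero]; exact hi 2
    · show |coW κ f0 fy 3 - coW κ f0 fy 3| ≤ _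
      rw [sub_self, abs_zero]; exact hi 3
  · show |coW κ fx f0 (Fin.natAdd 4 q) - coW κ fy f0 (Fin.natAdd 4 q)| ≤ _
    refine (abs_sub _ _).trans ?_
    have h1 := T.bx0 (Fin.natAdd 4 q)
    have h2 := T.by0 (Fin.natAdd 4 q)
    linarith
  · by_cases hq : q = 0
    · subst hq
      rw [Function.update_self, sub_zero]
      have e : (flg (coW κ fx f0) - flg (coW κ fy f0)) 0 = coW κ fx fy 4 := by
        have := flag_raw κ f0 fx fy 0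
        rw [tr0] at this
        exact this.symm
      rw [e]
      refine T.h4.trans ?_
      have : 0 ≤ K * τ * σ 4 := mul_nonneg (mul_nonneg hK T.τ0) (hp 4)
      show K * τ * σ 4 ≤ 2 * K * τ * σ 4
      linarith
    · rw [Function.update_of_ne hq, sub_self, abs_zero]
      exact mul_nonneg (mul_nonneg (by linarith) T.τ0) (hp _)

theorem er0 : 0 ≤ Er K τ := by
  have := T.K0
  have := T.τ0
  unfold Er
  positivity

theorem er_ge : 470 * K ^ 3 * τ ≤ Er K τ := by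
  have h1 := T.K1
  have h2 := T.τ0
  unfold Er
  have h3 : K ^ 3 ≤ (2 * K) ^ 7 := by
    calc K ^ 3 ≤ K ^ 7 := pow_le_pow_right₀ h1 (by norm_num)
      _ ≤ (2 * K) ^ 7 := by
        refine pow_le_pow_left₀ (by linarith) (by linarith) 7
  nlinarith [mul_le_mul_of_nonneg_right h3 h2]

/-- raw value of a slot from the normalised one -/
theorem hs (s : Fin 18) : coW κ f0 fy s = σ s * Hc κ σ f0 fy s := by
  have := (T.uni.pos s).ne'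
  unfold Hc; field_simp

theorem hs' (s : Fin 18) : coW κ f0 fx s = σ s * Hc κ σ f0 fx s := by
  have := (T.uni.pos s).ne'
  unfold Hc; field_simp

theorem vs (s : Fin 18) : coW κ fx f0 s - coW κ fy f0 s =
    σ s * (Vc κ σ f0 fy s - Vc κ σ f0 fx s) := by
  have := (T.uni.pos s).ne'
  unfold Vc; field_simp; ring

theorem apx : Apx κ K (Er K τ) (Hc κ σ f0 fx) (Hc κ σ f0 fy) (Vc κ σ f0 fx) (Vc κ σ f0 fy)
    (fun s => coW κ fx fy s / σ s) := by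
  have hp := T.uni.pos
  have hK := T.K0
  have hK1 := T.K1
  have hτ := T.τ0
  have hE := T.er_ge
  have hE0 := T.er0
  have hn : ∀ {u s : ℝ}, 0 < s → |u| ≤ K * s → |u / s| ≤ K := by
    intro u s hs h
    rw [abs_div, abs_of_pos hs, div_le_iff₀ hs]; exact h
  have tg := fun k hk l hl h4 => T.uni.tight k hk l hl h4
  have t2 : σ 1 * σ 0 = σ 2 := by
    simpa using tg 2 (by decide) [1, 0] (by decide) (by decide)
  have t3 : σ 1 * σ 2 = σ 3 := by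
    simpa using tg 3 (by decide) [1, 2] (by decide) (by decide)
  have t6 : σ 1 * σ 5 = σ 6 := by
    simpa using tg 6 (by decide) [1, 5] (by decide) (by decide)
  have t9a : σ 2 * σ 5 = σ 9 := by
    simpa using tg 9 (by decide) [2, 5] (by decide) (by decide)
  have t9b : σ 1 * σ 7 = σ 9 := by
    simpa using tg 9 (by decide) [1, 7] (by decide) (by decide)
  have t10a : σ 1 * σ 9 = σ 10 := by
    simpa using tg 10 (by decide) [1, 9] (by decide) (by decide)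
  have t14a : σ 3 * σ 7 = σ 14 := by
    simpa using tg 14 (by decide) [3, 7] (by decide) (by decide)
  have t14b : σ 2 * σ 9 = σ 14 := by
    simpa using tg 14 (by decide) [2, 9] (by decide) (by decide)
  have t15a : σ 2 * σ 10 = σ 15 := by
    simpa using tg 15 (by decide) [2, 10] (by decide) (by decide)
  have t15b : σ 1 * σ 14 = σ 15 := by
    simpa using tg 15 (by decide) [1, 14] (by decide) (by decide)
  have t15c : σ 3 * σ 9 = σ 15 := by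
    simpa using tg 15 (by decide) [3, 9] (by decide) (by decide)
  have z1 : |coW κ f0 fy 0 - coW κ f0 fx 0| ≤ 2 * K * τ * σ 0 := by
    refine (abs_sub _ _).trans ?_
    linarith [T.z0x, T.z0y]
  have f1 : coW κ fx fy 1 = coW κ f0 fy 1 - coW κ f0 fx 1 := by
    show fy.g 1 - fx.g 1 = (fy.g 1 - f0.g 1) - (fx.g 1 - f0.g 1)
    ring
  have f2 : coW κ fx fy 2 = coW κ f0 fy 2 - coW κ f0 fx 2 -
      coW κ f0 fx 1 * (coW κ f0 fy 0 - coW κ f0 fx 0) := by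
    show fy.g 2 - fx.g 2 - fx.g 1 * (fy.g 0 - fx.g 0) =
      (fy.g 2 - f0.g 2 - f0.g 1 * (fy.g 0 - f0.g 0)) -
      (fx.g 2 - f0.g 2 - f0.g 1 * (fx.g 0 - f0.g 0)) -
      (fx.g 1 - f0.g 1) * ((fy.g 0 - f0.g 0) - (fx.g 0 - f0.g 0))
    ring
  have f3 : coW κ fx fy 3 = coW κ f0 fy 3 - coW κ f0 fx 3 +
      2 * κ * coW κ f0 fx 1 * (coW κ f0 fy 2 - coW κ f0 fx 2) -
      κ * coW κ f0 fx 1 ^ 2 * (coW κ f0 fy 0 - coW κ f0 fx 0) := by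
    show fy.g 3 - fx.g 3 + 2 * κ * fx.g 1 * (fy.g 2 - fx.g 2 - fx.g 1 * (fy.g 0 - fx.g 0)) +
        κ * fx.g 1 ^ 2 * (fy.g 0 - fx.g 0) =
      (fy.g 3 - f0.g 3 + 2 * κ * f0.g 1 * (fy.g 2 - f0.g 2 - f0.g 1 * (fy.g 0 - f0.g 0)) +
        κ * f0.g 1 ^ 2 * (fy.g 0 - f0.g 0)) -
      (fx.g 3 - f0.g 3 + 2 * κ * f0.g 1 * (fx.g 2 - f0.g 2 - f0.g 1 * (fx.g 0 - f0.g 0)) +
        κ * f0.g 1 ^ 2 * (fx.g 0 - f0.g 0)) +
      2 * κ * (fx.g 1 - f0.g 1) * ((fy.g 2 - f0.g 2 - f0.g 1 * (fy.g 0 - f0.g 0)) -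
        (fx.g 2 - f0.g 2 - f0.g 1 * (fx.g 0 - f0.g 0))) -
      κ * (fx.g 1 - f0.g 1) ^ 2 * ((fy.g 0 - f0.g 0) - (fx.g 0 - f0.g 0))
    ring
  have hK3 : K ^ 2 ≤ K ^ 3 := pow_le_pow_right₀ hK1 (by norm_num)
  have g2 : |coW κ fx fy 2 - (coW κ f0 fy 2 - coW κ f0 fx 2)| ≤ Er K τ * σ 2 := by
    rw [f2]
    have e : coW κ f0 fy 2 - coW κ f0 fx 2 - coW κ f0 fx 1 * (coW κ f0 fy 0 - coW κ f0 fx 0) -
        (coW κ f0 fy 2 - coW κ f0 fx 2) =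
        -(coW κ f0 fx 1 * (coW κ f0 fy 0 - coW κ f0 fx 0)) := by ring
    rw [e, abs_neg, abs_mul]
    calc |coW κ f0 fx 1| * |coW κ f0 fy 0 - coW κ f0 fx 0|
        ≤ (K * σ 1) * (2 * K * τ * σ 0) :=
          mul_le_mul (T.b0x 1) z1 (abs_nonneg _) (mul_nonneg hK (hp 1).le)
      _ = 2 * K ^ 2 * τ * σ 2 := by rw [← t2]; ring
      _ ≤ Er K τ * σ 2 := by
        refine mul_le_mul_of_nonneg_right ?_ (hp 2).le
        nlinarith [mul_le_mul_of_nonneg_right hK3 hτ, mul_nonneg (pow_nonneg hK 3) hτ]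
  have g3 : |coW κ fx fy 3 - (coW κ f0 fy 3 - coW κ f0 fx 3 +
      2 * κ * coW κ f0 fx 1 * (coW κ f0 fy 2 - coW κ f0 fx 2))| ≤ Er K τ * σ 3 := by
    rw [f3]
    have e : coW κ f0 fy 3 - coW κ f0 fx 3 +
        2 * κ * coW κ f0 fx 1 * (coW κ f0 fy 2 - coW κ f0 fx 2) -
        κ * coW κ f0 fx 1 ^ 2 * (coW κ f0 fy 0 - coW κ f0 fx 0) -
        (coW κ f0 fy 3 - coW κ f0 fx 3 +
          2 * κ * coW κ f0 fx 1 * (coW κ f0 fy 2 - coW κ f0 fx 2)) =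
        -(κ * (coW κ f0 fx 1 * (coW κ f0 fx 1 * (coW κ f0 fy 0 - coW κ f0 fx 0)))) := by ring
    rw [e, abs_neg, abs_mul, abs_mul, abs_mul]
    calc |κ| * (|coW κ f0 fx 1| * (|coW κ f0 fx 1| * |coW κ f0 fy 0 - coW κ f0 fx 0|))
        ≤ 1 * ((K * σ 1) * ((K * σ 1) * (2 * K * τ * σ 0))) := by
          have a1 := T.κ1
          have a2 := T.b0x 1
          have a3 := abs_nonneg (coW κ f0 fx 1)
          have a4 := abs_nonneg (coW κ f0 fy 0 - coW κ f0 fx 0)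
          have a5 : 0 ≤ K * σ 1 := mul_nonneg hK (hp 1).le
          gcongr
      _ = 2 * K ^ 3 * τ * σ 3 := by rw [← t3, ← t2]; ring
      _ ≤ Er K τ * σ 3 := by
        refine mul_le_mul_of_nonneg_right ?_ (hp 3).le
        nlinarith [mul_nonneg (pow_nonneg hK 3) hτ]
  have H1 := T.hs 1
  have H2 := T.hs 2
  have H3 := T.hs 3
  have G1 := T.hs' 1
  have G2 := T.hs' 2
  have G3 := T.hs' 3
  set hv : Fin 4 → ℝ := ![0, coW κ f0 fy 1, coW κ f0 fy 2, coW κ f0 fy 3] with hhv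
  set wv : Fin 14 → ℝ := Function.update (flg (coW κ fx f0) - flg (coW κ fy f0)) 0 0 with hwv
  have L : ∀ q : Fin 14, |coW κ fx fy (Fin.natAdd 4 q) - tr κ hv wv q| ≤
      Er K τ * σ (Fin.natAdd 4 q) := T.lip
  have a0 : hv 0 = 0 := rfl
  have a1 : hv 1 = σ 1 * Hc κ σ f0 fy 1 := H1
  have a2 : hv 2 = σ 2 * Hc κ σ f0 fy 2 := H2
  have a3 : hv 3 = σ 3 * Hc κ σ f0 fy 3 := H3
  have w0 : wv 0 = 0 := rfl
  have w1 : wv 1 = σ 5 * (Vc κ σ f0 fy 5 - Vc κ σ f0 fx 5) := T.vs 5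
  have w2 : wv 2 = σ 6 * (Vc κ σ f0 fy 6 - Vc κ σ f0 fx 6) := T.vs 6
  have w3 : wv 3 = σ 7 * (Vc κ σ f0 fy 7 - Vc κ σ f0 fx 7) := T.vs 7
  have w4 : wv 4 = σ 8 * (Vc κ σ f0 fy 8 - Vc κ σ f0 fx 8) := T.vs 8
  have w5 : wv 5 = σ 9 * (Vc κ σ f0 fy 9 - Vc κ σ f0 fx 9) := T.vs 9
  have w6 : wv 6 = σ 10 * (Vc κ σ f0 fy 10 - Vc κ σ f0 fx 10) := T.vs 10
  have w7 : wv 7 = σ 11 * (Vc κ σ f0 fy 11 - Vc κ σ f0 fx 11) := T.vs 11
  have w8 : wv 8 = σ 12 * (Vc κ σ f0 fy 12 - Vc κ σ f0 fx 12) := T.vs 12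
  have w10 : wv 10 = σ 14 * (Vc κ σ f0 fy 14 - Vc κ σ f0 fx 14) := T.vs 14
  have w11 : wv 11 = σ 15 * (Vc κ σ f0 fy 15 - Vc κ σ f0 fx 15) := T.vs 15
  refine
    { κ1 := T.κ1
      K1 := T.K1
      E0 := hE0
      bH := fun s => hn (hp s) (T.b0x s)
      bH' := fun s => hn (hp s) (T.b0y s)
      bV := fun s => by unfold Vc; rw [abs_neg]; exact hn (hp s) (T.bx0 s)
      bV' := fun s => by unfold Vc; rw [abs_neg]; exact hn (hp s) (T.by0 s)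
      r1 := ?_
      r2 := div_main (hp 2) g2 (by rw [H2, G2]; ring)
      r3 := div_main (hp 3) g3 (by rw [H3, G3, G1, H2, G2, ← t3]; ring)
      r5 := div_main (hp 5) (L 1) ?_
      r6 := div_main (hp 6) (L 2) ?_
      r7 := div_main (hp 7) (L 3) ?_
      r9 := div_main (hp 9) (L 5) ?_
      r10 := div_main (hp 10) (L 6) ?_
      r14 := div_main (hp 14) (L 10) ?_
      r15 := div_main (hp 15) (L 11) ?_ }
  · have e : (fun s => coW κ fx fy s / σ s) 1 - (Hc κ σ f0 fy 1 - Hc κ σ f0 fx 1) = 0 := by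
      show coW κ fx fy 1 / σ 1 - (coW κ f0 fy 1 / σ 1 - coW κ f0 fx 1 / σ 1) = 0
      rw [f1]; ring
    rw [e, abs_zero]; exact hE0
  · rw [tr1, a0, w0, w1]; ring
  · rw [tr2, a0, a1, a2, w0, w1, w2]
    linear_combination (-(2 * κ * Hc κ σ f0 fy 1 * (Vc κ σ f0 fy 5 - Vc κ σ f0 fx 5))) * t6
  · rw [tr3, a0, w0, w1, w3]; ring
  · rw [tr5, a0, a1, a2, w0, w1, w2, w3, w5]
    linear_combination (2 * κ * Hc κ σ f0 fy 2 * (Vc κ σ f0 fy 5 - Vc κ σ f0 fx 5)) * t9a -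
      (4 * κ * Hc κ σ f0 fy 1 * (Vc κ σ f0 fy 7 - Vc κ σ f0 fx 7)) * t9b
  · rw [tr6, a0, a1, a2, a3, w0, w1, w2, w3, w5, w6]
    linear_combination (-(4 * κ ^ 2 * Hc κ σ f0 fy 1 * Hc κ σ f0 fy 2 *
        (Vc κ σ f0 fy 5 - Vc κ σ f0 fx 5))) * (σ 1 * t9a + t10a) +
      (κ * Hc κ σ f0 fy 3 * (Vc κ σ f0 fy 5 - Vc κ σ f0 fx 5)) *
        (-σ 5 * t3 + σ 1 * t9a + t10a) +
      (3 * κ * Hc κ σ f0 fy 2 * (Vc κ σ f0 fy 6 - Vc κ σ f0 fx 6)) *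
        (-σ 2 * t6 + σ 1 * t9a + t10a) +
      (4 * κ ^ 2 * Hc κ σ f0 fy 1 ^ 2 * (Vc κ σ f0 fy 7 - Vc κ σ f0 fx 7)) *
        (σ 1 * t9b + t10a) -
      (2 * κ * Hc κ σ f0 fy 1 * (Vc κ σ f0 fy 9 - Vc κ σ f0 fx 9)) * t10a
  · rw [tr10, a0, a2, a3, w0, w1, w2, w3, w4, w5, w7, w10]
    linear_combination (κ * Hc κ σ f0 fy 2 ^ 2 * (Vc κ σ f0 fy 5 - Vc κ σ f0 fx 5)) *
        (σ 2 * t9a + t14b) +
      (2 * Hc κ σ f0 fy 3 * (Vc κ σ f0 fy 7 - Vc κ σ f0 fx 7)) * t14a +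
      (Hc κ σ f0 fy 2 * (Vc κ σ f0 fy 9 - Vc κ σ f0 fx 9)) * t14b
  · rw [tr11, a0, a1, a2, a3, w0, w1, w2, w3, w4, w5, w6, w7, w8, w10, w11]
    linear_combination (-(2 * κ ^ 2 * Hc κ σ f0 fy 1 * Hc κ σ f0 fy 2 ^ 2 *
        (Vc κ σ f0 fy 5 - Vc κ σ f0 fx 5))) * (σ 1 * (σ 2 * t9a + t14b) + t15b) +
      (2 * κ * Hc κ σ f0 fy 2 * Hc κ σ f0 fy 3 * (Vc κ σ f0 fy 5 - Vc κ σ f0 fx 5)) *
        (σ 3 * t9a + t15c) +
      (3 * κ * Hc κ σ f0 fy 2 ^ 2 * (Vc κ σ f0 fy 6 - Vc κ σ f0 fx 6)) *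
        (-σ 2 ^ 2 * t6 + σ 1 * (σ 2 * t9a + t14b) + t15b) -
      (4 * κ * Hc κ σ f0 fy 1 * Hc κ σ f0 fy 3 * (Vc κ σ f0 fy 7 - Vc κ σ f0 fx 7)) *
        (σ 1 * t14a + t15b) -
      (2 * κ * Hc κ σ f0 fy 1 * Hc κ σ f0 fy 2 * (Vc κ σ f0 fy 9 - Vc κ σ f0 fx 9)) *
        (σ 1 * t14b + t15b) +
      (Hc κ σ f0 fy 3 * (Vc κ σ f0 fy 9 - Vc κ σ f0 fx 9)) * t15c +
      (2 * Hc κ σ f0 fy 2 * (Vc κ σ f0 fy 10 - Vc κ σ f0 fx 10)) * t15a -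
      (2 * κ * Hc κ σ f0 fy 1 * (Vc κ σ f0 fy 14 - Vc κ σ f0 fx 14)) * t15b

end Tri

end Crest.Agent.R136.Pin851
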