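import Crest.Agent.R136.CubE_938
import Crest.Agent.R136.CubR_851
import Crest.Agent.R136.Cub6_191

/-!
# R136, the specials of the thin pins (helper938): the rows of the evolution

* `uni_sg`, `tri_at` : units, `Tri` at the representatives
* `sevo35`, `sevo34` : `SEvo` of the two specials
-/

set_option autoImplicit false
set_option linter.unusedSectionVars false
set_option linter.unusedVariables false

open Filter Topology

namespace Crest.Agent.R136.Cub938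

open Finset Crest.Agent.R138.Ex926 Crest.Agent.R136.Net191 Crest.Agent.R136.Gf356
open Crest.Agent.R136.Qg926 Crest.Agent.R136.NetW191 Crest.Agent.R136.EvW938
open Crest.Agent.R136.PqG464 (wtW wtW_list)
open Crest.Agent.R136.LadW697 Crest.Agent.R136.Pin851
open Crest.Agent.R136.Cub191 (SEvo)

/-! ### numbers -/

theorem am2 {x y X Y : ℝ} (hx : |x| ≤ X) (hy : |y| ≤ Y) : |x * y| ≤ X * Y :=
  (abs_mul x y).le.trans (mul_le_mul hx hy (abs_nonneg _) ((abs_nonneg _).trans hx))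

section num

variable {κ K E Z z : ℝ} {H H' V V' R G G' U' V2 V2' S : Fin 18 → ℝ}

/-- slope `a` and `c` -/
theorem num_ac (P : Apx κ K E H H' V V' R) (Q : Apx κ K E G G' V2 V2' S) (hz : |z| ≤ Z)
    (e1 : |S 1 - R 1| ≤ E) (e2 : |S 2 - (R 2 + z * R 1)| ≤ E) :
    |(G 2 - G' 2) - ((H 2 - H' 2) + z * (H 1 - H' 1))| ≤ (3 + Z) * E ∧
    |(G 1 - G' 1) - (H 1 - H' 1)| ≤ 3 * E := by
  have h1 := am2 hz P.r1
  constructor
  · have e : (G 2 - G' 2) - ((H 2 - H' 2) + z * (H 1 - H' 1)) =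
        (S 2 - (G' 2 - G 2)) - (S 2 - (R 2 + z * R 1)) - (R 2 - (H' 2 - H 2)) -
          z * (R 1 - (H' 1 - H 1)) := by ring
    have h2 := Q.r2
    have h3 := P.r2
    rw [e, show (3 + Z) * E = 3 * E + Z * E by ring]
    rw [abs_le] at *
    constructor <;> linarith
  · have e : (G 1 - G' 1) - (H 1 - H' 1) =
        (S 1 - (G' 1 - G 1)) - (S 1 - R 1) - (R 1 - (H' 1 - H 1)) := by ring
    have h2 := Q.r1
    have h3 := P.r1
    rw [e]
    rw [abs_le] at *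
    constructor <;> linarith

/-- `F` of the special `35` -/
theorem num_F35 (P : Apx κ K E H H' V V' R) (Q : Apx κ K E G G' V2 V2' S) (hz : |z| ≤ Z)
    (e7 : |S 7 - (R 7 + z * R 5)| ≤ E) :
    |(2 * V2 7 - 2 * V2' 7) - ((2 * V 7 - 2 * V' 7) + 2 * z * (V 5 - V' 5))| ≤
      2 * (3 + Z) * E := by
  have h1 := am2 hz P.r5
  have e : (2 * V2 7 - 2 * V2' 7) - ((2 * V 7 - 2 * V' 7) + 2 * z * (V 5 - V' 5)) =
      2 * ((S 7 - (V2' 7 - V2 7)) - (S 7 - (R 7 + z * R 5)) - (R 7 - (V' 7 - V 7)) -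
        z * (R 5 - (V' 5 - V 5))) := by ring
  have h2 := Q.r7
  have h3 := P.r7
  rw [e, show 2 * (3 + Z) * E = 2 * (3 * E + Z * E) by ring, abs_mul, abs_two]
  refine mul_le_mul_of_nonneg_left ?_ (by norm_num)
  rw [abs_le] at *
  constructor <;> linarith

/-- `F` of the special `34` -/
theorem num_F34 (P : Apx κ K E H H' V V' R) (Q : Apx κ K E G G' V2 V2' S) (hz : |z| ≤ Z)
    (e9 : |S 9 - (R 9 + z * R 6)| ≤ E) {N : ℝ} (hN : 0 ≤ N) (n5 : |R 5| ≤ N) (n7 : |R 7| ≤ N)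
    (m5 : |S 5| ≤ N) (m7 : |S 7| ≤ N) :
    |(V2 9 - V2' 9) - ((V 9 - V' 9) + 1 / 3 * z * (3 * V 6 - 3 * V' 6))| ≤
      (3 + Z) * E + (12 + 2 * Z) * K * (N + E) := by
  have hK := P.K1
  have hE := P.E0
  have hκ := P.κ1
  have hK0 : 0 ≤ K := by linarith
  have hZ : 0 ≤ Z := (abs_nonneg _).trans hz
  -- small flag slots
  have s5 : |V' 5 - V 5| ≤ N + E := by
    have h := P.r5
    have e : V' 5 - V 5 = R 5 - (R 5 - (V' 5 - V 5)) := by ring
    rw [e]; exact (abs_sub _ _).trans (by linarith)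
  have s7 : |V' 7 - V 7| ≤ N + E := by
    have h := P.r7
    have e : V' 7 - V 7 = R 7 - (R 7 - (V' 7 - V 7)) := by ring
    rw [e]; exact (abs_sub _ _).trans (by linarith)
  have t5 : |V2' 5 - V2 5| ≤ N + E := by
    have h := Q.r5
    have e : V2' 5 - V2 5 = S 5 - (S 5 - (V2' 5 - V2 5)) := by ring
    rw [e]; exact (abs_sub _ _).trans (by linarith)
  have t7 : |V2' 7 - V2 7| ≤ N + E := by
    have h := Q.r7
    have e : V2' 7 - V2 7 = S 7 - (S 7 - (V2' 7 - V2 7)) := by ring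
    rw [e]; exact (abs_sub _ _).trans (by linarith)
  have b2 : ∀ {X D : ℝ}, |X| ≤ K → |D| ≤ N + E → |κ * (X * D)| ≤ K * (N + E) := by
    intro X D hX hD
    refine (am2 hκ (am2 hX hD)).trans (le_of_eq ?_)
    ring
  have p1 := b2 (P.bH' 2) s5
  have p2 := b2 (P.bH' 1) s7
  have q1 := b2 (Q.bH' 2) t5
  have q2 := b2 (Q.bH' 1) t7
  have p3 := am2 hz (b2 (P.bH' 1) s5)
  have h6 := am2 hz P.r6
  have e : (V2 9 - V2' 9) - ((V 9 - V' 9) + 1 / 3 * z * (3 * V 6 - 3 * V' 6)) =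
      (S 9 - ((V2' 9 - V2 9) + 2 * κ * G' 2 * (V2' 5 - V2 5) - 4 * κ * G' 1 * (V2' 7 - V2 7))) -
      (S 9 - (R 9 + z * R 6)) -
      (R 9 - ((V' 9 - V 9) + 2 * κ * H' 2 * (V' 5 - V 5) - 4 * κ * H' 1 * (V' 7 - V 7))) -
      z * (R 6 - ((V' 6 - V 6) - 2 * κ * H' 1 * (V' 5 - V 5))) +
      2 * (κ * (G' 2 * (V2' 5 - V2 5))) - 4 * (κ * (G' 1 * (V2' 7 - V2 7))) -
      2 * (κ * (H' 2 * (V' 5 - V 5))) + 4 * (κ * (H' 1 * (V' 7 - V 7))) +
      2 * (z * (κ * (H' 1 * (V' 5 - V 5)))) := by ring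
  have h2 := Q.r9
  have h3 := P.r9
  rw [e, show (3 + Z) * E + (12 + 2 * Z) * K * (N + E) = 3 * E + Z * E + 12 * (K * (N + E)) +
    2 * (Z * (K * (N + E))) by ring]
  rw [abs_le] at *
  constructor <;> linarith

end num

/-! ### the window -/

section

variable {W : Wnd 18 fun _ => ℕ × ℝ} {κ : ℕ → ℝ} {u : ℕ → Fin 18 → ℝ}
  {f : ∀ n : ℕ, ℕ × ℝ → FW} {E : ∀ n : ℕ, Finset (ℕ × ℝ)} {lam : (Fin 18 → ℝ) → ℝ} {x : ℝ}
  {n : ℕ}

variable (h : PWin W E κ u f {4} lam x)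
include h

/-- the units -/
theorem uni_sg (g : W.Good n) : Uni (sg W u n) where
  side := by
    have hs := h.ww.sides g
    have e1 : ∀ l : List (Fin 18), (l.map (sg W u n)).prod =
        W.kap 0 ^ (l.map wtW).sum * (l.map (sd W u n)).prod := by
      intro l
      induction l with
      | nil => simp
      | cons a l ih =>
        simp only [List.map_cons, List.prod_cons, List.sum_cons, ih]
        unfold sg
        rw [pow_add]
        ring
    refine ⟨fun s => (sg_pos h n s).le, fun k l hl => ?_⟩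
    rw [e1, wtW_list k l hl]
    exact mul_le_mul_of_nonneg_left (hs.wall k l hl) (pow_pos (h.ww.ok.kap 0) _).le
  pos := fun s => sg_pos h n s
  tight := fun k hk l hl h4 => sg_mul h n (by simpa using hk) hl fun s hs => by
    simp only [mem_singleton]
    rintro rfl
    exact h4 hs

/-- a common constant -/
theorem exC : ∃ A : ℝ, 1 ≤ A ∧ ∀ s : Fin 18, W.K0 ≤ A * W.kap 0 ^ wtW s ∧
    W.kap s ≤ A * W.kap 0 ^ wtW s ∧ W.kap 0 ^ wtW s ≤ A * W.kap s ∧ W.K0 ≤ A * W.kap s := by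
  classical
  have hk0 := h.ww.ok.kap 0
  set F : Fin 18 → ℝ := fun s => |(W.K0 + W.kap s) / W.kap 0 ^ wtW s| +
    |(W.kap 0 ^ wtW s + W.K0) / W.kap s| with hF
  have hF0 : ∀ s, 0 ≤ F s := fun s => add_nonneg (abs_nonneg _) (abs_nonneg _)
  refine ⟨1 + ∑ s : Fin 18, F s, ?_, fun s => ?_⟩
  · have : 0 ≤ ∑ s : Fin 18, F s := Finset.sum_nonneg fun s _ => hF0 s
    linarith
  · have hs := Finset.single_le_sum (f := F) (fun s _ => hF0 s) (Finset.mem_univ s)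
    have hp : 0 < W.kap 0 ^ wtW s := pow_pos hk0 _
    have hks := h.ww.ok.kap s
    have hK := h.ww.ok.K0_one
    have a1 : (W.K0 + W.kap s) / W.kap 0 ^ wtW s ≤ 1 + ∑ s : Fin 18, F s := by
      have := le_abs_self ((W.K0 + W.kap s) / W.kap 0 ^ wtW s)
      have h2 := abs_nonneg ((W.kap 0 ^ wtW s + W.K0) / W.kap s)
      have h3 : F s = |(W.K0 + W.kap s) / W.kap 0 ^ wtW s| +
        |(W.kap 0 ^ wtW s + W.K0) / W.kap s| := rfl
      linarith
    have a2 : (W.kap 0 ^ wtW s + W.K0) / W.kap s ≤ 1 + ∑ s : Fin 18, F s := by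
      have := le_abs_self ((W.kap 0 ^ wtW s + W.K0) / W.kap s)
      have h2 := abs_nonneg ((W.K0 + W.kap s) / W.kap 0 ^ wtW s)
      have h3 : F s = |(W.K0 + W.kap s) / W.kap 0 ^ wtW s| +
        |(W.kap 0 ^ wtW s + W.K0) / W.kap s| := rfl
      linarith
    rw [div_le_iff₀ hp] at a1
    rw [div_le_iff₀ hks] at a2
    exact ⟨by linarith, by linarith, by linarith, by linarith⟩

/-- `Tri` at the representatives -/
theorem tri_at {A : ℝ} (hA1 : 1 ≤ A) (hA : ∀ s : Fin 18, W.K0 ≤ A * W.kap 0 ^ wtW s ∧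
    W.kap s ≤ A * W.kap 0 ^ wtW s ∧ W.kap 0 ^ wtW s ≤ A * W.kap s ∧ W.K0 ≤ A * W.kap s)
    (g : W.Good n) (hE : E n ⊆ W.Cl n) {k l l' : ℕ} (h1 : (l, k) ∈ (W.cfg0 n (E n)).I)
    (h2 : (l', k) ∈ (W.cfg0 n (E n)).I) {η : ℝ} (hη : W.B'.d n ^ x ≤ η)
    (h4 : |(W.cfg0 n (E n)).rel k l l' 4| ≤ η) :
    Tri (κ n) (sg W u n) A η (f n (W.zrep n k)) (f n (W.rep n l k)) (f n (W.rep n l' k)) := by
  obtain ⟨a1, a2, a3⟩ := Wnd.rep_of_mem hE h1
  obtain ⟨b1, b2, b3⟩ := Wnd.rep_of_mem hE h2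
  have hz : W.zrep n k ∈ W.Cl n ∧ W.zc n (W.zrep n k) = k := by
    obtain ⟨i, hi, _, rfl⟩ := Wnd.mem_I.1 h1
    exact W.zrep_spec (hE hi)
  have hδ : 0 < W.B'.d n ^ x := Real.rpow_pos_of_pos (W.B'.pos n) _
  have hη0 : 0 < η := hδ.trans_le hη
  have hsd : ∀ s, 0 < sd W u n s := fun s => h.ww.sd_pos n s
  have up : ∀ s, W.K0 * sd W u n s ≤ A * sg W u n s := fun s => by
    refine (mul_le_mul_of_nonneg_right (hA s).1 (hsd s).le).trans (le_of_eq ?_)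
    unfold sg; ring
  have lev : ∀ {y : ℕ × ℝ}, y ∈ W.Cl n → W.zc n y = k →
      |coW (κ n) (f n (W.zrep n k)) (f n y) 0| ≤ A * η * sg W u n 0 := by
    intro y hy hyk
    have h5 := h.ww.lev_small g hz.1 hy (hz.2.trans hyk.symm) (t := x) (s := 0) h.ww.h0
      (h.top 0).ge
    refine h5.trans ?_
    have h6 := up 0
    calc W.K0 * W.B'.d n ^ x * sd W u n 0 = W.B'.d n ^ x * (W.K0 * sd W u n 0) := by ring
      _ ≤ η * (A * sg W u n 0) := mul_le_mul hη h6 (by have := hsd 0; have := h.ww.ok.K0_one; positivity) hη0.le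
      _ = _ := by ring
  refine
    { κ1 := h.ww.hκ n
      K1 := hA1
      τ0 := hη0.le
      uni := uni_sg h g
      b0x := fun s => (h.ww.bnd g hz.1 a1 s).trans (up s)
      b0y := fun s => (h.ww.bnd g hz.1 b1 s).trans (up s)
      bx0 := fun s => (h.ww.bnd g a1 hz.1 s).trans (up s)
      by0 := fun s => (h.ww.bnd g b1 hz.1 s).trans (up s)
      z0x := lev a1 a3
      z0y := lev b1 b3
      h4 := ?_ }
  have hs4 : (4 : Fin 18) ∉ W.S := by rw [h.S]; decide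
  have e1 : (W.cfg0 n (E n)).rel k l l' 4 = W.crd n (W.rep n l k) (W.rep n l' k) 4 := if_neg hs4
  rw [e1] at h4
  rw [h.ww.crd_eq g a1 b1, abs_mul, abs_of_pos (h.ww.un_pos n 4)]
  calc un W u n 4 * |W.crd n (W.rep n l k) (W.rep n l' k) 4| ≤ un W u n 4 * η :=
        mul_le_mul_of_nonneg_left h4 (h.ww.un_pos n 4).le
    _ = W.kap 4 * (sd W u n 4 * η) := by unfold un; ring
    _ ≤ A * W.kap 0 ^ wtW 4 * (sd W u n 4 * η) :=
        mul_le_mul_of_nonneg_right (hA 4).2.1 (mul_nonneg (hsd 4).le hη0.le)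
    _ = _ := by unfold sg; ring

/-- `rel` and `Rn` -/
theorem rel_Rn {A : ℝ} (hA1 : 1 ≤ A) (hA : ∀ s : Fin 18, W.K0 ≤ A * W.kap 0 ^ wtW s ∧
    W.kap s ≤ A * W.kap 0 ^ wtW s ∧ W.kap 0 ^ wtW s ≤ A * W.kap s ∧ W.K0 ≤ A * W.kap s)
    (g : W.Good n) (hE : E n ⊆ W.Cl n) {k l l' : ℕ} (h1 : (l, k) ∈ (W.cfg0 n (E n)).I)
    (h2 : (l', k) ∈ (W.cfg0 n (E n)).I) {s : Fin 18} (hs : s ≠ 0) :
    |Rn W κ u f n k l l' s| ≤ A * |(W.cfg0 n (E n)).rel k l l' s| ∧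
    |(W.cfg0 n (E n)).rel k l l' s| ≤ A * |Rn W κ u f n k l l' s| := by
  obtain ⟨a1, a2, a3⟩ := Wnd.rep_of_mem hE h1
  obtain ⟨b1, b2, b3⟩ := Wnd.rep_of_mem hE h2
  have hs4 : s ∉ W.S := by rw [h.S]; simpa using hs
  have e1 : (W.cfg0 n (E n)).rel k l l' s = W.crd n (W.rep n l k) (W.rep n l' k) s := if_neg hs4
  have hsd := h.ww.sd_pos n s
  have hp : 0 < W.kap 0 ^ wtW s := pow_pos (h.ww.ok.kap 0) _
  have hks := h.ww.ok.kap s
  have e2 : Rn W κ u f n k l l' s * W.kap 0 ^ wtW s = W.kap s * (W.cfg0 n (E n)).rel k l l' s := by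
    unfold Rn
    rw [e1, h.ww.crd_eq g a1 b1]
    unfold sg un
    field_simp
  have e3 : |Rn W κ u f n k l l' s| * W.kap 0 ^ wtW s =
      W.kap s * |(W.cfg0 n (E n)).rel k l l' s| := by
    have := congrArg abs e2
    rwa [abs_mul, abs_mul, abs_of_pos hp, abs_of_pos hks] at this
  obtain ⟨c1, c2, c3, c4⟩ := hA s
  have n1 := abs_nonneg (Rn W κ u f n k l l' s)
  have n2 := abs_nonneg ((W.cfg0 n (E n)).rel k l l' s)
  constructor
  · refine le_of_mul_le_mul_right ?_ hp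
    calc |Rn W κ u f n k l l' s| * W.kap 0 ^ wtW s = W.kap s * |(W.cfg0 n (E n)).rel k l l' s| := e3
      _ ≤ A * W.kap 0 ^ wtW s * |(W.cfg0 n (E n)).rel k l l' s| :=
          mul_le_mul_of_nonneg_right c2 n2
      _ = _ := by ring
  · refine le_of_mul_le_mul_right ?_ hks
    calc |(W.cfg0 n (E n)).rel k l l' s| * W.kap s =
        |Rn W κ u f n k l l' s| * W.kap 0 ^ wtW s := by rw [e3]; ring
      _ ≤ |Rn W κ u f n k l l' s| * (A * W.kap s) := mul_le_mul_of_nonneg_left c3 n1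
      _ = _ := by ring

/-- a close slot at one height, raw -/
theorem raw4 (g : W.Good n) (hE : E n ⊆ W.Cl n) {k l l' : ℕ} (h1 : (l, k) ∈ (W.cfg0 n (E n)).I)
    (h2 : (l', k) ∈ (W.cfg0 n (E n)).I) {η : ℝ} (h4 : |(W.cfg0 n (E n)).rel k l l' 4| ≤ η) :
    |coW (κ n) (f n (W.rep n l k)) (f n (W.rep n l' k)) 4| ≤ W.kap 4 * η * sd W u n 4 := by
  obtain ⟨a1, a2, a3⟩ := Wnd.rep_of_mem hE h1
  obtain ⟨b1, b2, b3⟩ := Wnd.rep_of_mem hE h2
  have hs4 : (4 : Fin 18) ∉ W.S := by rw [h.S]; decide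
  have e1 : (W.cfg0 n (E n)).rel k l l' 4 = W.crd n (W.rep n l k) (W.rep n l' k) 4 := if_neg hs4
  rw [e1] at h4
  rw [h.ww.crd_eq g a1 b1, abs_mul, abs_of_pos (h.ww.un_pos n 4)]
  calc un W u n 4 * |W.crd n (W.rep n l k) (W.rep n l' k) 4| ≤ un W u n 4 * η :=
        mul_le_mul_of_nonneg_left h4 (h.ww.un_pos n 4).le
    _ = _ := by unfold un; ring

omit h in
theorem absorb2 (B : Base) {P x ε C : ℝ} {n : ℕ} (hε : 0 < ε) (hC : 2 ≤ C)
    (hP : P ≤ B.d n ^ (-ε)) : P * B.d n ^ (x - ε) ≤ B.d n ^ (x - C * ε) := by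
  refine (mul_le_mul_of_nonneg_right hP (Real.rpow_pos_of_pos (B.pos n) _).le).trans ?_
  rw [← Real.rpow_add (B.pos n)]
  exact Real.rpow_le_rpow_of_exponent_ge (B.pos n) (B.lt n).le (by nlinarith)

/-- frames of the line `l` seen from the base of the height `k` -/
noncomputable def Hn (W : Wnd 18 fun _ => ℕ × ℝ) (κ : ℕ → ℝ) (u : ℕ → Fin 18 → ℝ)
    (f : ∀ n : ℕ, ℕ × ℝ → FW) (n k l : ℕ) : Fin 18 → ℝ :=
  Hc (κ n) (sg W u n) (f n (W.zrep n k)) (f n (W.rep n l k))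

/-- flags of the line `l` seen from the base of the height `k` -/
noncomputable def Vn (W : Wnd 18 fun _ => ℕ × ℝ) (κ : ℕ → ℝ) (u : ℕ → Fin 18 → ℝ)
    (f : ∀ n : ℕ, ℕ × ℝ → FW) (n k l : ℕ) : Fin 18 → ℝ :=
  Vc (κ n) (sg W u n) (f n (W.zrep n k)) (f n (W.rep n l k))

set_option maxHeartbeats 2000000 in
/-- **all the facts of a pair at two heights**, one `n` -/
theorem pair_n : ∃ P : ℝ, 1 ≤ P ∧ ∀ n, W.Good n → E n ⊆ W.Cl n → ∀ k k' l l',
    (l, k) ∈ (W.cfg0 n (E n)).I → (l, k') ∈ (W.cfg0 n (E n)).I →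
    (l', k) ∈ (W.cfg0 n (E n)).I → (l', k') ∈ (W.cfg0 n (E n)).I → ∀ η : ℝ,
    W.B'.d n ^ x ≤ η → |(W.cfg0 n (E n)).rel k l l' 4| ≤ η →
    ∀ z, z = (W.cfg0 n (E n)).z k' - (W.cfg0 n (E n)).z k →
    (|(Hn W κ u f n k' l 2 - Hn W κ u f n k' l' 2) - ((Hn W κ u f n k l 2 - Hn W κ u f n k l' 2) +
      z * (Hn W κ u f n k l 1 - Hn W κ u f n k l' 1))| ≤ P * η ∧
    |(Hn W κ u f n k' l 1 - Hn W κ u f n k' l' 1) -
      (Hn W κ u f n k l 1 - Hn W κ u f n k l' 1)| ≤ P * η ∧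
    |(2 * Vn W κ u f n k' l 7 - 2 * Vn W κ u f n k' l' 7) -
      ((2 * Vn W κ u f n k l 7 - 2 * Vn W κ u f n k l' 7) +
        2 * z * (Vn W κ u f n k l 5 - Vn W κ u f n k l' 5))| ≤ P * η ∧
    |(W.cfg0 n (E n)).rel k' l l' 4| ≤ P * η) ∧
    (|(W.cfg0 n (E n)).rel k l l' 5| ≤ η → |(W.cfg0 n (E n)).rel k l l' 7| ≤ η →
      |(Vn W κ u f n k' l 9 - Vn W κ u f n k' l' 9) -
        ((Vn W κ u f n k l 9 - Vn W κ u f n k l' 9) +
          1 / 3 * z * (3 * Vn W κ u f n k l 6 - 3 * Vn W κ u f n k l' 6))| ≤ P * η ∧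
      |(W.cfg0 n (E n)).rel k' l l' 5| ≤ P * η ∧ |(W.cfg0 n (E n)).rel k' l l' 7| ≤ P * η) ∧
    |z| ≤ P := by
  obtain ⟨A1, hA1, hev⟩ := evR h
  obtain ⟨A2, hA2, hC⟩ := exC h
  obtain ⟨E0, hE0⟩ : ∃ E0, E0 = 470 * (2 * A2) ^ 7 * (A1 * A2) := ⟨_, rfl⟩
  have hA12 : 1 ≤ A1 * A2 := by nlinarith
  have h27 : 1 ≤ (2 * A2) ^ 7 := one_le_pow₀ (by linarith)
  have hE1 : A1 * A2 ≤ E0 := by rw [hE0]; nlinarith
  have hE10 : 0 < E0 := by linarith
  obtain ⟨P, hP⟩ : ∃ P, P = 2 * (3 + A1) * E0 + (12 + 2 * A1) * A2 * (3 * (A1 * A2) + E0) +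
    3 * (A1 * A2) * A2 + A1 := ⟨_, rfl⟩
  have hA10 : 0 < A1 := by linarith
  have hA20 : 0 < A2 := by linarith
  have p1 : 0 < (3 + A1) * E0 := by positivity
  have p2 : 0 < (12 + 2 * A1) * A2 * (3 * (A1 * A2) + E0) := by positivity
  have p3 : 0 < 3 * (A1 * A2) * A2 := by positivity
  refine ⟨P, by rw [hP]; linarith, ?_⟩
  intro n g hE k k' l l' h1 h2 h3 h4 η hη hr4 z hz
  have hδ : 0 < W.B'.d n ^ x := Real.rpow_pos_of_pos (W.B'.pos n) _
  have hη0 : 0 < η := hδ.trans_le hη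
  obtain ⟨⟨r1, r2, r4, r5, r6, r7, r9⟩, hzA, hRb⟩ := hev n g hE k k' l l' h1 h2 h3 h4 η hη
    (raw4 h g hE h1 h3 hr4) z hz
  set τ := A1 * A2 * η with hτ
  have hητ : η ≤ τ := by rw [hτ]; nlinarith
  have hτδ : W.B'.d n ^ x ≤ τ := hη.trans hητ
  have hr4' : |(W.cfg0 n (E n)).rel k' l l' 4| ≤ τ := by
    have := (rel_Rn h hA2 hC g hE h2 h4 (s := 4) (by decide)).2
    refine this.trans ?_
    calc A2 * |Rn W κ u f n k' l l' 4| ≤ A2 * (A1 * η) := mul_le_mul_of_nonneg_left r4 hA20.le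
      _ = _ := by rw [hτ]; ring
  have T := (tri_at h hA2 hC g hE h1 h3 hτδ (hr4.trans hητ)).apx
  have T' := (tri_at h hA2 hC g hE h2 h4 hτδ hr4').apx
  have eE : Er A2 τ = E0 * η := by unfold Er; rw [hτ, hE0]; ring
  rw [eE] at T T'
  have hAE : A1 * η ≤ E0 * η := mul_le_mul_of_nonneg_right (by nlinarith) hη0.le
  have ac := num_ac T T' hzA (r1.trans hAE) (r2.trans hAE)
  have F35 := num_F35 T T' hzA (r7.trans hAE)
  have hPη : ∀ {c : ℝ}, c ≤ P → c * η ≤ P * η := fun hc => mul_le_mul_of_nonneg_right hc hη0.le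
  have hEη : 0 < E0 * η := by positivity
  have c1 : (3 + A1) * (E0 * η) ≤ P * η := by
    have := hPη (c := (3 + A1) * E0) (by rw [hP]; linarith)
    linarith
  have c2 : 2 * (3 + A1) * (E0 * η) ≤ P * η := by
    have := hPη (c := 2 * (3 + A1) * E0) (by rw [hP]; linarith)
    linarith
  have c3 : 3 * (E0 * η) ≤ P * η := by
    have : 0 < A1 * (E0 * η) := by positivity
    have e : (3 + A1) * (E0 * η) = 3 * (E0 * η) + A1 * (E0 * η) := by ring
    linarith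
  refine ⟨⟨ac.1.trans c1, ac.2.trans c3, F35.trans c2, ?_⟩, fun n5 n7 => ?_, ?_⟩
  · refine hr4'.trans ?_
    refine hPη ?_
    rw [hP]
    nlinarith
  · have q5 : |Rn W κ u f n k l l' 5| ≤ A2 * η :=
      (rel_Rn h hA2 hC g hE h1 h3 (s := 5) (by decide)).1.trans
        (mul_le_mul_of_nonneg_left n5 hA20.le)
    have q7 : |Rn W κ u f n k l l' 7| ≤ A2 * η :=
      (rel_Rn h hA2 hC g hE h1 h3 (s := 7) (by decide)).1.trans
        (mul_le_mul_of_nonneg_left n7 hA20.le)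
    have hA1η : A1 * η ≤ A1 * A2 * η := mul_le_mul_of_nonneg_right (by nlinarith) hη0.le
    have hA2η : A2 * η ≤ A1 * A2 * η := mul_le_mul_of_nonneg_right (by nlinarith) hη0.le
    have t5 : |Rn W κ u f n k' l l' 5| ≤ 3 * (A1 * A2) * η := by
      have e : Rn W κ u f n k' l l' 5 = (Rn W κ u f n k' l l' 5 - Rn W κ u f n k l l' 5) +
        Rn W κ u f n k l l' 5 := by ring
      rw [e]
      refine (abs_add_le _ _).trans ?_
      have : 0 < A1 * A2 * η := by positivity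
      linarith
    have t7 : |Rn W κ u f n k' l l' 7| ≤ 3 * (A1 * A2) * η := by
      have e : Rn W κ u f n k' l l' 7 = (Rn W κ u f n k' l l' 7 - (Rn W κ u f n k l l' 7 +
        z * Rn W κ u f n k l l' 5)) + Rn W κ u f n k l l' 7 + z * Rn W κ u f n k l l' 5 := by ring
      rw [e]
      have h5 := am2 hzA q5
      have h6 := abs_add_le ((Rn W κ u f n k' l l' 7 - (Rn W κ u f n k l l' 7 +
        z * Rn W κ u f n k l l' 5)) + Rn W κ u f n k l l' 7) (z * Rn W κ u f n k l l' 5)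
      have h7 := abs_add_le (Rn W κ u f n k' l l' 7 - (Rn W κ u f n k l l' 7 +
        z * Rn W κ u f n k l l' 5)) (Rn W κ u f n k l l' 7)
      linarith
    have hN : 0 ≤ 3 * (A1 * A2) * η := by positivity
    have F34 := num_F34 T T' hzA (r9.trans hAE) hN (by
        show |Rn W κ u f n k l l' 5| ≤ _
        have : 0 < A1 * A2 * η := by positivity
        linarith) (by
        show |Rn W κ u f n k l l' 7| ≤ _
        have : 0 < A1 * A2 * η := by positivity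
        linarith) t5 t7
    refine ⟨F34.trans ?_, ?_, ?_⟩
    · have e : (3 + A1) * (E0 * η) + (12 + 2 * A1) * A2 * (3 * (A1 * A2) * η + E0 * η) =
        ((3 + A1) * E0 + (12 + 2 * A1) * A2 * (3 * (A1 * A2) + E0)) * η := by ring
      rw [e]
      refine hPη ?_
      rw [hP]
      linarith
    · refine (rel_Rn h hA2 hC g hE h2 h4 (s := 5) (by decide)).2.trans ?_
      refine (mul_le_mul_of_nonneg_left t5 hA20.le).trans ?_
      have e : A2 * (3 * (A1 * A2) * η) = 3 * (A1 * A2) * A2 * η := by ring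
      rw [e]
      refine hPη ?_
      rw [hP]
      linarith
    · refine (rel_Rn h hA2 hC g hE h2 h4 (s := 7) (by decide)).2.trans ?_
      refine (mul_le_mul_of_nonneg_left t7 hA20.le).trans ?_
      have e : A2 * (3 * (A1 * A2) * η) = 3 * (A1 * A2) * A2 * η := by ring
      rw [e]
      refine hPη ?_
      rw [hP]
      linarith
  · refine hzA.trans ?_
    rw [hP]
    linarith

end

end Crest.Agent.R136.Cub938
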