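import Crest.Agent.R136.Cub6_191

/-!
# R136, the specials of the thin pins (helper191): the constants of rows and evolution grow
-/

set_option autoImplicit false
set_option linter.unusedVariables false
set_option linter.unusedSectionVars false

open Filter Topology

namespace Crest.Agent.R136.Cub191

open Finset
open Crest.Agent.R136.Qd329
open Crest.Agent.R138.Ex926 (Base U)
open Crest.Agent.R136.Gf356

variable {κ : Type}
variable {B : Base} {G : ℕ → RCfg κ} {x M M' C C' μ : ℝ} {p0 pp pv pc : κ → ℝ}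
    {pa pb pq : ℝ → κ → ℝ} {a F Q c β Y K Φ : ℕ → ℕ → ℕ → ℝ} {kp : ℕ → ℝ}

theorem pw_le (B : Base) (n : ℕ) {x ε : ℝ} (hε : 0 < ε) (hC : C ≤ C') {t : ℝ}
    (h : t ≤ B.d n ^ (x - C * ε)) : t ≤ B.d n ^ (x - C' * ε) :=
  h.trans (Real.rpow_le_rpow_of_exponent_ge (B.pos n) (B.lt n).le (by nlinarith))

theorem SRow.mono
    (S : SRow B G x M C p0 pp pv pc pa pb pq a F Q c β Y K Φ kp) (hM : M ≤ M') (hC : C ≤ C') :
    SRow B G x M' C' p0 pp pv pc pa pb pq a F Q c β Y K Φ kp where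
  x0 := S.x0
  M1 := S.M1.trans hM
  C1 := S.C1.trans hC
  kp1 := S.kp1
  kpl := S.kpl
  bd := by
    filter_upwards [S.bd] with n hn k l hl
    obtain ⟨h1, h2, h3, h4, h5, h6, h7⟩ := hn k l hl
    exact ⟨h1.trans hM, h2.trans hM, h3.trans hM, h4.trans hM, h5.trans hM, h6.trans hM,
      h7.trans hM⟩
  pcl := fun ε hε => by
    filter_upwards [S.pcl ε hε] with n hn k l l' hl hl' h
    obtain ⟨h1, h2, h3, h4⟩ := hn k l l' hl hl' h
    exact ⟨pw_le B n hε hC h1, pw_le B n hε hC h2, pw_le B n hε hC h3, pw_le B n hε hC h4⟩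
  vcl := fun ε hε => by
    filter_upwards [S.vcl ε hε] with n hn k l l' hl hl' h
    obtain ⟨h1, h2, h3, h4, h5⟩ := hn k l l' hl hl' h
    exact ⟨pw_le B n hε hC h1, pw_le B n hε hC h2, pw_le B n hε hC h3, pw_le B n hε hC h4,
      pw_le B n hε hC h5⟩
  ccl := fun ε hε => by
    filter_upwards [S.ccl ε hε] with n hn k l l' hl hl' h
    obtain ⟨h1, h2⟩ := hn k l l' hl hl' h
    exact ⟨pw_le B n hε hC h1, pw_le B n hε hC h2⟩
  acl := S.acl
  bcl := fun y hy ε hε h => S.bcl y hy ε hε (by nlinarith)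
  qcl := S.qcl

theorem SEvo.mono (V : SEvo B G x M C μ p0 a F c Y)
    (hM : M ≤ M') (hC : C ≤ C') (hρ : ∀ᶠ n in (U : Filter ℕ), (G n).ρ = B.d n) :
    SEvo B G x M' C' μ p0 a F c Y where
  base := fun ε hε => by
    filter_upwards [V.base ε hε, hρ] with n hn hr k k' l l' h1 h2 h3 h4 h
    intro s
    refine (hn k k' l l' h1 h2 h3 h4 h s).trans ?_
    rw [hr]
    exact Real.rpow_le_rpow_of_exponent_ge (B.pos n) (B.lt n).le (by nlinarith)
  zbd := by
    filter_upwards [V.zbd] with n hn k hk k' hk'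
    exact (hn k hk k' hk').trans hM
  evo := fun ε hε => by
    filter_upwards [V.evo ε hε] with n hn k k' l l' h1 h2 h3 h4 h
    obtain ⟨g1, g2, g3⟩ := hn k k' l l' h1 h2 h3 h4 h
    exact ⟨pw_le B n hε hC g1, pw_le B n hε hC g2, pw_le B n hε hC g3⟩

end Crest.Agent.R136.Cub191
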