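import Crest.Agent.R136.Pin3_851
import Crest.Agent.R136.Cub4_191

/-!
# R136, the specials of the thin pins (helper851): the numbers

* `num34`, `num34_Z`, `end34` : `s = 3`, `b = 4`, slot `AY`
* `num35`, `end35` : `s = 3`, `b = 5`, slot `BY`
-/

set_option autoImplicit false
set_option linter.unusedSectionVars false
set_option linter.unusedVariables false

open Filter Topology

namespace Crest.Agent.R136.Pin851

open Finset Crest.Agent.R138.Ex926 Crest.Agent.R136.Net191 Crest.Agent.R136.Gf356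
open Crest.Agent.R136.NetW191 Crest.Agent.R136.EvW938 Crest.Agent.R136.PrW464
open Crest.Agent.R136.LadW697 Crest.Agent.R136.LfW619 Crest.Agent.R136.RowW619
open Crest.Agent.R136.NatW697
open Crest.Agent.R136.Cub191 (SProf)
open Crest.Agent.R136.K2S774 (cn ind1)

variable {Dr V W W' : Finset (Fin 18)} {T : Fin 18 → ℝ} {G : Fin 18 → ℕ} {m : ℝ}
  {HT : Finset (Fin 18) → Fin 18 → Fin 18 → Prop} {lam : (Fin 18 → ℝ) → ℝ} {b x y : ℝ}
  {f : Fin 18}

/-- legal boxes of the windows -/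
def LegP (x : ℝ) : Set (Fin 18 → ℝ) :=
  {c | c ∈ CL {4} ∧ (∀ k, 0 ≤ c k) ∧ (∀ k, c k ≤ x) ∧ c 0 = x}

theorem legP_ind (hV : UpW {4} V) (h0 : 0 ∈ V) (hx : 0 ≤ x) : ind V x ∈ LegP x :=
  ⟨mem_ind hV hx, ind_nonneg hx, fun k => ind_le hx k, ind_mem h0⟩

theorem legP_upd (h2 : Up2 {4} V f) (h0 : 0 ∈ V) (hf : f ≠ 0) (hx : 0 ≤ x) (hy : 0 ≤ y)
    (hyx : y ≤ x) : Function.update (ind V x) f y ∈ LegP x := by
  refine ⟨mem_upd h2.1 h2.2.1 h2.2.2 hy hyx, fun k => ?_, fun k => ?_, ?_⟩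
  · by_cases hk : k = f
    · subst hk; rw [Function.update_self]; exact hy
    · rw [Function.update_of_ne hk]; exact ind_nonneg hx k
  · by_cases hk : k = f
    · subst hk; rw [Function.update_self]; exact hyx
    · rw [Function.update_of_ne hk]; exact ind_le hx k
  · rw [Function.update_of_ne hf.symm, ind_mem h0]

/-- with the dropped slot `4` narrow -/
theorem mem4 {c : Fin 18 → ℝ} (hc : c ∈ CL {4}) (h0 : ∀ k, 0 ≤ c k) (hx : 0 ≤ x) :
    Function.update c 4 x ∈ CL {4} := by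
  rw [CL, mem_cnW] at hc ⊢
  intro k hk l hl hD
  have hk4 : k ≠ 4 := fun h => hk (by rw [h]; simp)
  have h4 : (4 : Fin 18) ∉ l := fun h => hD 4 h (by simp)
  rw [Function.update_of_ne hk4]
  refine (hc k hk l hl hD).trans (le_of_eq ?_)
  congr 1
  refine List.map_congr_left fun a ha => ?_
  have : a ≠ 4 := fun h => h4 (h ▸ ha)
  rw [Function.update_of_ne this]

theorem legP4 {c : Fin 18 → ℝ} (hc : c ∈ LegP x) (hx : 0 ≤ x) :
    Function.update c 4 x ∈ LegP x := by
  obtain ⟨h1, h2, h3, h4⟩ := hc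
  refine ⟨mem4 h1 h2 hx, fun k => ?_, fun k => ?_, ?_⟩
  · by_cases hk : k = 4
    · subst hk; rw [Function.update_self]; exact hx
    · rw [Function.update_of_ne hk]; exact h2 k
  · by_cases hk : k = 4
    · subst hk; rw [Function.update_self]
    · rw [Function.update_of_ne hk]; exact h3 k
  · rw [Function.update_of_ne (by decide : (0 : Fin 18) ≠ 4)]; exact h4

theorem Ind.eq4 (hi : Ind {4} lam) {c : Fin 18 → ℝ} (hc : c ∈ LegP x) (hx : 0 ≤ x) :
    lam (Function.update c 4 x) = lam c :=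
  hi _ (legP4 hc hx).1 _ hc.1 fun i h => by
    rw [Function.update_of_ne (by simpa using h)]

theorem ind4 (h : (4 : Fin 18) ∉ V) : Function.update (ind V x) 4 x = ind (insert 4 V) x :=
  (ind_insert h x).symm

theorem upd4 (h : (4 : Fin 18) ∉ V) (hf : f ≠ 4) : Function.update (Function.update (ind V x) f y)
    4 x = Function.update (ind (insert 4 V) x) f y := by
  rw [Function.update_comm hf, ind4 h]

/-- **the slot `4` narrow in all boxes** -/
theorem sprof4 {p0 pp pv pc ppv : Fin 18 → ℝ} {pa pb pq : ℝ → Fin 18 → ℝ} (hi : Ind {4} lam)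
    (hx : 0 ≤ x) {m' : ℝ} (hm : 0 < m') (l0 : p0 ∈ LegP x) (lp : pp ∈ LegP x) (lv : pv ∈ LegP x)
    (lc : pc ∈ LegP x) (lpv : ppv ∈ LegP x) (la : ∀ y, 0 ≤ y → y ≤ x → pa y ∈ LegP x)
    (lb : ∀ y, 0 ≤ y → y ≤ x → pb y ∈ LegP x) (lq : ∀ y, 0 ≤ y → y ≤ x → pq y ∈ LegP x)
    (por : ∀ j, ppv j = pp j ∨ ppv j = pv j) (pge : ∀ j, p0 j ≤ pp j) (vge : ∀ j, p0 j ≤ pv j)
    (cge : ∀ j, p0 j ≤ pc j) (H1 : lam p0 + lam ppv ≤ lam pp + lam pv)
    (H2 : ∀ y, 0 ≤ y → y ≤ x → lam p0 + lam (pb y) + m' * y ≤ lam pp + lam pc)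
    (H3 : ∀ y, 0 ≤ y → y ≤ x → m' * y ≤ lam p0 - lam (pa y))
    (H4 : ∀ y, 0 ≤ y → y ≤ x → m' * y ≤ lam pp - lam (pq y)) :
    SProf (LegP x) lam x m' (Function.update p0 4 x) (Function.update pp 4 x)
      (Function.update pv 4 x) (Function.update pc 4 x) (Function.update ppv 4 x)
      (fun y => Function.update (pa y) 4 x) (fun y => Function.update (pb y) 4 x)
      (fun y => Function.update (pq y) 4 x) := by
  have up : ∀ {c c' : Fin 18 → ℝ}, (∀ j, c j ≤ c' j) →
      ∀ j, Function.update c 4 x j ≤ Function.update c' 4 x j := by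
    intro c c' h j
    by_cases hj : j = 4
    · subst hj; rw [Function.update_self, Function.update_self]
    · rw [Function.update_of_ne hj, Function.update_of_ne hj]; exact h j
  exact
    { m0 := hm
      l0 := legP4 l0 hx
      lp := legP4 lp hx
      lv := legP4 lv hx
      lc := legP4 lc hx
      lpv := legP4 lpv hx
      la := fun y hy hyx => legP4 (la y hy hyx) hx
      lb := fun y hy hyx => legP4 (lb y hy hyx) hx
      lq := fun y hy hyx => legP4 (lq y hy hyx) hx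
      por := fun j => by
        by_cases hj : j = 4
        · subst hj; left; rw [Function.update_self, Function.update_self]
        · rw [Function.update_of_ne hj, Function.update_of_ne hj, Function.update_of_ne hj]
          exact por j
      pge := up pge
      vge := up vge
      cge := up cge
      H1 := by rw [hi.eq4 l0 hx, hi.eq4 lp hx, hi.eq4 lv hx, hi.eq4 lpv hx]; exact H1
      H2 := fun y hy hyx => by
        rw [hi.eq4 l0 hx, hi.eq4 lp hx, hi.eq4 lc hx, hi.eq4 (lb y hy hyx) hx]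
        exact H2 y hy hyx
      H3 := fun y hy hyx => by rw [hi.eq4 l0 hx, hi.eq4 (la y hy hyx) hx]; exact H3 y hy hyx
      H4 := fun y hy hyx => by rw [hi.eq4 lp hx, hi.eq4 (lq y hy hyx) hx]; exact H4 y hy hyx }

theorem ind_mono_set {V W : Finset (Fin 18)} (h : V ⊆ W) (hx : 0 ≤ x) :
    ∀ j, ind V x j ≤ ind W x j := by
  intro j
  by_cases hj : j ∈ V
  · rw [ind_mem hj, ind_mem (h hj)]
  · rw [ind_notMem hj]; exact ind_nonneg hx j

/-- all fractions except `v` -/
def badL (v : ℤ) : List (ℤ × ℤ) :=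
  (((List.range 30).map fun p : ℕ => ((p : ℤ) - 12, (1 : ℤ))) ++
    ((List.range 45).map fun p : ℕ => ((p : ℤ) - 20, (2 : ℤ))) ++
    ((List.range 45).map fun p : ℕ => ((p : ℤ) - 20, (3 : ℤ)))).filter fun w =>
      decide (v * w.2 ≠ w.1)

theorem badL_ne (v : ℤ) : ∀ w ∈ badL v, (v : ℝ) * w.2 ≠ w.1 := by
  intro w hw
  unfold badL at hw
  rw [List.mem_filter] at hw
  have h := of_decide_eq_true hw.2
  intro h2
  exact h (by exact_mod_cast h2)

section

variable (H : Pin Dr T G m HT lam)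
include H

/-- the loss of a slot in a box without mates does not depend on the depth -/
theorem Pin.vis_of_loss (h2 : Up2 Dr W f) (hW : ∀ i ∈ W, G i ≠ G f) (hx : 0 ≤ x)
    (hl : lam (ind (insert f W) x) < lam (ind W x)) : Vis lam W f := by
  refine ⟨x, lam (ind W x) - lam (ind (insert f W) x), sub_pos.2 hl, hx, fun x' hx' => ?_⟩
  have e := H.dec f x (ind W x) (ind W x') (mem_ind h2.1 hx)
    (mem_upd h2.1 h2.2.1 h2.2.2 hx le_rfl) (mem_ind h2.1 (hx.trans hx'))
    (mem_upd h2.1 h2.2.1 h2.2.2 hx hx') (fun i hi => by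
      have : i ∉ W := fun h => hW i h hi
      rw [ind_notMem this, ind_notMem this])
  rw [ind_insert h2.2.2, e]

/-- the loss of a slot in two boxes with the same mates -/
theorem Pin.same_loss (h2 : Up2 Dr W f) (h2' : Up2 Dr W' f) (hG : Same G f W W') (hy : 0 ≤ y)
    (hyx : y ≤ x) : lam (ind W x) - lam (Function.update (ind W x) f y) =
      lam (ind W' x) - lam (Function.update (ind W' x) f y) := by
  have hx := hy.trans hyx
  exact H.dec f y _ _ (mem_ind h2.1 hx) (mem_upd h2.1 h2.2.1 h2.2.2 hy hyx)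
    (mem_ind h2'.1 hx) (mem_upd h2'.1 h2'.2.1 h2'.2.2 hy hyx) (hG.eq h2.2.2 h2'.2.2 x)

theorem Pin.same_ins (h2 : Up2 Dr W f) (h2' : Up2 Dr W' f) (hG : Same G f W W') (hx : 0 ≤ x) :
    lam (ind W x) - lam (ind (insert f W) x) = lam (ind W' x) - lam (ind (insert f W') x) := by
  rw [ind_insert h2.2.2, ind_insert h2'.2.2]
  exact H.same_loss h2 h2' hG hx le_rfl

/-- a full slot costs `y` between `0` and `y` -/
theorem Pin.full_le (h2 : Up2 Dr W f) (hX : XF lam W f) (hy : 0 ≤ y) (hyx : y ≤ x) :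
    y ≤ lam (ind W x) - lam (Function.update (ind W x) f y) := by
  have h1 := hX x (hy.trans hyx)
  have h3 := H.one_le h2 (x := x) (y := y) (y' := x) hy hyx le_rfl
  rw [ind_insert h2.2.2] at h1
  linarith

end

/-- the slot `15` alone at `b = 4` -/
theorem free15 (H : Pin {4} T G m (HTp {4}) lam) (hG : Grp {4} T G 3 4)
    (hA : XF lam {0} 2) (hB : XF lam {0, 2} 3)
    (hn : ¬ ∃ C : ℝ, ∀ v : ℝ, 0 ≤ v → lam (v • T) ≤ -((3 + ((3 : ℤ) : ℝ)) * v) + C)
    (hx : 0 ≤ x) : lam (ind {0, 2, 5, 7, 9, 14} x) ≤ lam (ind (insert 15 {0, 2, 5, 7, 9, 14}) x) := by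
  by_contra hcon
  push Not at hcon
  have hb : ∀ v ∈ badL 4, (4 : ℝ) * v.2 ≠ v.1 := badL_ne 4
  have hv : Vis lam {0, 2, 5, 7, 9, 14} 15 := H.vis_of_loss (by decide) (fun i hi => by
    refine hG.ne hb ?_ (by decide) ?_
    · revert hi; revert i; decide
    · revert hi; revert i; decide +kernel) hx hcon
  exact hn (H.chain hG hA hB hb [.leaf 2 11 13 1 0 {0, 1, 3, 5, 6, 10}] hv (by decide)
    (by decide +kernel))

/-- **numbers of `b = 4`** -/
theorem num34 (H : Pin {4} T G m (HTp {4}) lam) (hG : Grp {4} T G 3 4)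
    (hA : XF lam {0} 2) (hB : XF lam {0, 2} 3) (hF : Free lam T {4} {5})
    (hi : Ind {4} lam)
    (hn : ¬ ∃ C : ℝ, ∀ v : ℝ, 0 ≤ v → lam (v • T) ≤ -((3 + ((3 : ℤ) : ℝ)) * v) + C)
    (hx : 0 < x) :
    SProf (LegP x) lam x (min m 1) (ind {0, 4, 5, 7} x) (ind {0, 2, 4, 5, 7, 9, 14, 15} x)
      (ind {0, 1, 3, 4, 5, 6, 7, 10, 15} x) (ind {0, 1, 4, 5, 6, 7} x)
      (ind {0, 1, 2, 3, 4, 5, 6, 7, 9, 10, 14, 15} x)
      (fun y => Function.update (ind {0, 4, 5, 7} x) 2 y)
      (fun y => Function.update (ind {0, 1, 2, 4, 5, 6, 7, 9, 14, 15} x) 3 y)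
      (fun y => Function.update (ind {0, 2, 4, 5, 7, 9, 14, 15} x) 1 y) := by
  have e0 : (insert 4 {0, 5, 7} : Finset (Fin 18)) = {0, 4, 5, 7} := by decide
  have e1 : (insert 4 {0, 2, 5, 7, 9, 14, 15} : Finset (Fin 18)) = {0, 2, 4, 5, 7, 9, 14, 15} := by
    decide
  have e2 : (insert 4 {0, 1, 3, 5, 6, 7, 10, 15} : Finset (Fin 18)) =
    {0, 1, 3, 4, 5, 6, 7, 10, 15} := by decide
  have e3 : (insert 4 {0, 1, 5, 6, 7} : Finset (Fin 18)) = {0, 1, 4, 5, 6, 7} := by decide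
  have e4 : (insert 4 {0, 1, 2, 3, 5, 6, 7, 9, 10, 14, 15} : Finset (Fin 18)) =
    {0, 1, 2, 3, 4, 5, 6, 7, 9, 10, 14, 15} := by decide
  have e5 : (insert 4 {0, 1, 2, 5, 6, 7, 9, 14, 15} : Finset (Fin 18)) =
    {0, 1, 2, 4, 5, 6, 7, 9, 14, 15} := by decide
  rw [← e0, ← e1, ← e2, ← e3, ← e4, ← e5]
  simp only [← ind4 (V := {0, 5, 7}) (x := x) (by decide),
    ← ind4 (V := {0, 2, 5, 7, 9, 14, 15}) (x := x) (by decide),
    ← ind4 (V := {0, 1, 3, 5, 6, 7, 10, 15}) (x := x) (by decide),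
    ← ind4 (V := {0, 1, 5, 6, 7}) (x := x) (by decide),
    ← ind4 (V := {0, 1, 2, 3, 5, 6, 7, 9, 10, 14, 15}) (x := x) (by decide),
    ← ind4 (V := {0, 1, 2, 5, 6, 7, 9, 14, 15}) (x := x) (by decide)]
  have c2 : ∀ (c : Fin 18 → ℝ) (y : ℝ), Function.update (Function.update c 4 x) 2 y =
    Function.update (Function.update c 2 y) 4 x := fun c y => Function.update_comm (by decide) _ _ _
  have c3 : ∀ (c : Fin 18 → ℝ) (y : ℝ), Function.update (Function.update c 4 x) 3 y =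
    Function.update (Function.update c 3 y) 4 x := fun c y => Function.update_comm (by decide) _ _ _
  have c1 : ∀ (c : Fin 18 → ℝ) (y : ℝ), Function.update (Function.update c 4 x) 1 y =
    Function.update (Function.update c 1 y) 4 x := fun c y => Function.update_comm (by decide) _ _ _
  simp only [c1, c2, c3]
  have hx0 := hx.le
  have hm := H.m0
  have hb : ∀ v ∈ badL 4, (4 : ℝ) * v.2 ≠ v.1 := badL_ne 4
  have hm1 : min m 1 ≤ m := min_le_left _ _
  have hm2 : min m 1 ≤ 1 := min_le_right _ _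
  have sm : ∀ {f : Fin 18} {W W' : Finset (Fin 18)}, SameB 3 (badL 4) {4} f W W' →
      SameB 3 (badL 4) {4} f W' W → Same G f W W' := fun h h' => h.same hG hb h'
  have hG0 : ∀ W : Finset (Fin 18), (∀ i : Fin 18, i ≠ 4 → sI 3 i = 0 → i ≠ 1 →
      (i ∈ W ↔ i ∈ ({5} : Finset (Fin 18)))) → (4 : Fin 18) ∉ W →
      ∀ i, T i = 0 → i ≠ 1 → (i ∈ W ↔ i ∈ ({5} : Finset (Fin 18))) := by
    intro W hW h4 i hi hi1
    by_cases hi4 : i = 4
    · subst hi4; simp [h4]
    have h1 : sI 3 i = 0 := by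
      have := hG.hT i (by simpa using hi4)
      rw [hi] at this
      exact_mod_cast this.symm
    exact hW i hi4 h1 hi1
  refine sprof4 hi hx0 (lt_min hm one_pos) (legP_ind (by decide) (by decide) hx0)
    (legP_ind (by decide) (by decide) hx0) (legP_ind (by decide) (by decide) hx0)
    (legP_ind (by decide) (by decide) hx0) (legP_ind (by decide) (by decide) hx0)
    (fun y hy hyx => legP_upd (by decide) (by decide) (by decide) hx0 hy hyx)
    (fun y hy hyx => legP_upd (by decide) (by decide) (by decide) hx0 hy hyx)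
    (fun y hy hyx => legP_upd (by decide) (by decide) (by decide) hx0 hy hyx)
    (fun j => ?_) (ind_mono_set (by decide) hx0) (ind_mono_set (by decide) hx0)
    (ind_mono_set (by decide) hx0) ?_ (fun y hy hyx => ?_) (fun y hy hyx => ?_)
    (fun y hy hyx => ?_)
  · have key : ∀ j : Fin 18, (j ∈ ({0, 1, 2, 3, 5, 6, 7, 9, 10, 14, 15} : Finset (Fin 18)) ↔
        j ∈ ({0, 2, 5, 7, 9, 14, 15} : Finset (Fin 18))) ∨
        (j ∈ ({0, 1, 2, 3, 5, 6, 7, 9, 10, 14, 15} : Finset (Fin 18)) ↔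
        j ∈ ({0, 1, 3, 5, 6, 7, 10, 15} : Finset (Fin 18))) := by decide
    rcases key j with h | h
    · left
      by_cases hj : j ∈ ({0, 1, 2, 3, 5, 6, 7, 9, 10, 14, 15} : Finset (Fin 18))
      · rw [ind_mem hj, ind_mem (h.1 hj)]
      · rw [ind_notMem hj, ind_notMem (fun h' => hj (h.2 h'))]
    · right
      by_cases hj : j ∈ ({0, 1, 2, 3, 5, 6, 7, 9, 10, 14, 15} : Finset (Fin 18))
      · rw [ind_mem hj, ind_mem (h.1 hj)]
      · rw [ind_notMem hj, ind_notMem (fun h' => hj (h.2 h'))]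
  · -- H1
    have a2 := H.same_ins (f := 2) (W := {0, 5, 7}) (W' := {0, 1, 3, 5, 6, 7, 10, 15}) (x := x)
      (by decide) (by decide) (sm (by decide +kernel) (by decide +kernel)) hx0
    have a9 := H.same_ins (f := 9) (W := {0, 2, 5, 7}) (W' := {0, 1, 2, 3, 5, 6, 7, 10, 15})
      (x := x) (by decide) (by decide) (sm (by decide +kernel) (by decide +kernel)) hx0
    have a14 := H.same_ins (f := 14) (W := {0, 2, 5, 7, 9})
      (W' := {0, 1, 2, 3, 5, 6, 7, 9, 10, 15})
      (x := x) (by decide) (by decide) (sm (by decide +kernel) (by decide +kernel)) hx0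
    have f15 := free15 H hG hA hB hn (x := x) hx0
    have e1 : (insert 2 {0, 5, 7} : Finset (Fin 18)) = {0, 2, 5, 7} := by decide
    have e2 : (insert 2 {0, 1, 3, 5, 6, 7, 10, 15} : Finset (Fin 18)) =
      {0, 1, 2, 3, 5, 6, 7, 10, 15} := by decide
    have e3 : (insert 9 {0, 2, 5, 7} : Finset (Fin 18)) = {0, 2, 5, 7, 9} := by decide
    have e4 : (insert 9 {0, 1, 2, 3, 5, 6, 7, 10, 15} : Finset (Fin 18)) =
      {0, 1, 2, 3, 5, 6, 7, 9, 10, 15} := by decide
    have e5 : (insert 14 {0, 2, 5, 7, 9} : Finset (Fin 18)) = {0, 2, 5, 7, 9, 14} := by decide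
    have e6 : (insert 14 {0, 1, 2, 3, 5, 6, 7, 9, 10, 15} : Finset (Fin 18)) =
      {0, 1, 2, 3, 5, 6, 7, 9, 10, 14, 15} := by decide
    have e7 : (insert 15 {0, 2, 5, 7, 9, 14} : Finset (Fin 18)) = {0, 2, 5, 7, 9, 14, 15} := by
      decide
    rw [e1, e2] at a2
    rw [e3, e4] at a9
    rw [e5, e6] at a14
    rw [e7] at f15
    linarith
  · -- H2
    have a2 := H.same_ins (f := 2) (W := {0, 5, 7}) (W' := {0, 1, 5, 6, 7}) (x := x)
      (by decide) (by decide) (sm (by decide +kernel) (by decide +kernel)) hx0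
    have a9 := H.same_ins (f := 9) (W := {0, 2, 5, 7}) (W' := {0, 1, 2, 5, 6, 7})
      (x := x) (by decide) (by decide) (sm (by decide +kernel) (by decide +kernel)) hx0
    have a14 := H.same_ins (f := 14) (W := {0, 2, 5, 7, 9}) (W' := {0, 1, 2, 5, 6, 7, 9})
      (x := x) (by decide) (by decide) (sm (by decide +kernel) (by decide +kernel)) hx0
    have a15 := H.same_ins (f := 15) (W := {0, 2, 5, 7, 9, 14})
      (W' := {0, 1, 2, 5, 6, 7, 9, 14})
      (x := x) (by decide) (by decide) (sm (by decide +kernel) (by decide +kernel)) hx0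
    have e1 : (insert 2 {0, 5, 7} : Finset (Fin 18)) = {0, 2, 5, 7} := by decide
    have e2 : (insert 2 {0, 1, 5, 6, 7} : Finset (Fin 18)) = {0, 1, 2, 5, 6, 7} := by decide
    have e3 : (insert 9 {0, 2, 5, 7} : Finset (Fin 18)) = {0, 2, 5, 7, 9} := by decide
    have e4 : (insert 9 {0, 1, 2, 5, 6, 7} : Finset (Fin 18)) = {0, 1, 2, 5, 6, 7, 9} := by decide
    have e5 : (insert 14 {0, 2, 5, 7, 9} : Finset (Fin 18)) = {0, 2, 5, 7, 9, 14} := by decide
    have e6 : (insert 14 {0, 1, 2, 5, 6, 7, 9} : Finset (Fin 18)) =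
      {0, 1, 2, 5, 6, 7, 9, 14} := by decide
    have e7 : (insert 15 {0, 2, 5, 7, 9, 14} : Finset (Fin 18)) = {0, 2, 5, 7, 9, 14, 15} := by
      decide
    have e8 : (insert 15 {0, 1, 2, 5, 6, 7, 9, 14} : Finset (Fin 18)) =
      {0, 1, 2, 5, 6, 7, 9, 14, 15} := by decide
    rw [e1, e2] at a2
    rw [e3, e4] at a9
    rw [e5, e6] at a14
    rw [e7, e8] at a15
    have hX : XF lam {0, 1, 2, 5, 6, 7, 9, 14, 15} 3 := H.tr_XF hB (by decide) (by decide)
      (sm (by decide +kernel) (by decide +kernel))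
    have h3 := H.full_le (f := 3) (W := {0, 1, 2, 5, 6, 7, 9, 14, 15}) (by decide) hX hy hyx
    have h4 : min m 1 * y ≤ y := by nlinarith
    linarith
  · -- H3
    have hX : XF lam {0, 5, 7} 2 := H.tr_XF hA (by decide) (by decide)
      (sm (by decide +kernel) (by decide +kernel))
    have h3 := H.full_le (f := 2) (W := {0, 5, 7}) (by decide) hX hy hyx
    have h4 : min m 1 * y ≤ y := by nlinarith
    linarith
  · -- H4
    have h3 := H.closs hF (W := {0, 2, 5, 7, 9, 14, 15}) (by decide) (by decide)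
      (hG0 _ (by decide) (by decide)) hy hyx
    have h4 : min m 1 * y ≤ m * y := mul_le_mul_of_nonneg_right hm1 hy
    linarith

/-- the `Z`-boxes of `b = 4` -/
theorem num34_Z (H : Pin {4} T G m (HTp {4}) lam) (hG : Grp {4} T G 3 4)
    (hF : Free lam T {4} {5}) (hi : Ind {4} lam) (hx : 0 < x) :
    ind {0, 2, 3, 4, 5, 7, 9, 10} x ∈ LegP x ∧ ind {0, 4, 5, 6, 7} x ∈ LegP x ∧
    ∀ y : ℝ, 0 ≤ y → y ≤ x → Function.update (ind {0, 2, 3, 4, 5, 7, 9, 10} x) 1 y ∈ LegP x ∧
      min m 1 * y ≤ lam (ind {0, 2, 3, 4, 5, 7, 9, 10} x) -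
        lam (Function.update (ind {0, 2, 3, 4, 5, 7, 9, 10} x) 1 y) := by
  have hx0 := hx.le
  have e0 : (insert 4 {0, 2, 3, 5, 7, 9, 10} : Finset (Fin 18)) = {0, 2, 3, 4, 5, 7, 9, 10} := by
    decide
  have e1 : (insert 4 {0, 5, 6, 7} : Finset (Fin 18)) = {0, 4, 5, 6, 7} := by decide
  rw [← e0, ← e1, ← ind4 (V := {0, 2, 3, 5, 7, 9, 10}) (by decide),
    ← ind4 (V := {0, 5, 6, 7}) (by decide)]
  have l0 : ind {0, 2, 3, 5, 7, 9, 10} x ∈ LegP x := legP_ind (by decide) (by decide) hx0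
  refine ⟨legP4 l0 hx0, legP4 (legP_ind (by decide) (by decide) hx0) hx0, fun y hy hyx => ?_⟩
  have l1 : Function.update (ind {0, 2, 3, 5, 7, 9, 10} x) 1 y ∈ LegP x :=
    legP_upd (by decide) (by decide) (by decide) hx0 hy hyx
  rw [Function.update_comm (by decide : (4 : Fin 18) ≠ 1), hi.eq4 l0 hx0, hi.eq4 l1 hx0]
  refine ⟨legP4 l1 hx0, ?_⟩
  have key : ∀ i : Fin 18, i ≠ 4 → sI 3 i = 0 → i ≠ 1 →
      (i ∈ ({0, 2, 3, 5, 7, 9, 10} : Finset (Fin 18)) ↔ i ∈ ({5} : Finset (Fin 18))) := by decide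
  have h3 := H.closs hF (W := {0, 2, 3, 5, 7, 9, 10}) (by decide) (by decide)
    (fun i hi hi1 => by
      by_cases hi4 : i = 4
      · subst hi4; decide
      have h1 : sI 3 i = 0 := by
        have := hG.hT i (by simpa using hi4)
        rw [hi] at this
        exact_mod_cast this.symm
      exact key i hi4 h1 hi1) hy hyx
  have h4 : min m 1 * y ≤ m * y := mul_le_mul_of_nonneg_right (min_le_left _ _) hy
  linarith

/-- **end of `b = 4`** -/
theorem end34 (H : Pin {4} T G m (HTp {4}) lam) (hG : Grp {4} T G 3 4) (hi : Ind {4} lam)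
    (hv : Vis lam {0, 5} 6) :
    ∃ x : ℝ, 0 < x ∧ lam (ind {0, 4, 5, 6, 7} x) < lam (ind {0, 4, 5, 7} x) := by
  have hb : ∀ v ∈ badL 4, (4 : ℝ) * v.2 ≠ v.1 := badL_ne 4
  have s1 : SameB 3 (badL 4) {4} 6 {0, 5} {0, 5, 7} := by decide +kernel
  have s2 : SameB 3 (badL 4) {4} 6 {0, 5, 7} {0, 5} := by decide +kernel
  obtain ⟨j, e, he, hj, h3⟩ := H.tr_vis hv (W' := {0, 5, 7}) (by decide) (by decide)
    (s1.same hG hb s2)
  have q0 : (0 : ℝ) ≤ max j 1 := le_trans zero_le_one (le_max_right _ _)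
  have g0 : (insert 4 {0, 5, 7} : Finset (Fin 18)) = {0, 4, 5, 7} := by decide
  have g1 : (insert 4 {0, 5, 6, 7} : Finset (Fin 18)) = {0, 4, 5, 6, 7} := by decide
  refine ⟨max j 1, lt_of_lt_of_le one_pos (le_max_right _ _), ?_⟩
  rw [← g0, ← g1, ← ind4 (V := {0, 5, 6, 7}) (by decide), ← ind4 (V := {0, 5, 7}) (by decide),
    hi.eq4 (legP_ind (by decide) (by decide) q0) q0,
    hi.eq4 (legP_ind (by decide) (by decide) q0) q0]
  have hx : j ≤ max j 1 := le_max_left _ _
  have h4 := h3 _ hx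
  have u1 : Up2 {4} ({0, 5, 7} : Finset (Fin 18)) 6 := by decide
  have h5 := H.anti _ (mem_upd u1.1 u1.2.1 u1.2.2 hj hx) _
    (mem_upd u1.1 u1.2.1 u1.2.2 (hj.trans hx) le_rfl) (fun i => by
      by_cases hi : i = 6
      · subst hi; rw [Function.update_self, Function.update_self]; exact hx
      · rw [Function.update_of_ne hi, Function.update_of_ne hi])
  rw [← ind_insert u1.2.2] at h5
  have e1 : (insert 6 {0, 5, 7} : Finset (Fin 18)) = {0, 5, 6, 7} := by decide
  rw [e1] at h5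
  linarith

/-- the slot `14` alone at `b = 5` -/
theorem free14 (H : Pin {4} T G m (HTp {4}) lam) (hG : Grp {4} T G 3 5)
    (hA : XF lam {0} 2) (hB : XF lam {0, 2} 3)
    (hn : ¬ ∃ C : ℝ, ∀ v : ℝ, 0 ≤ v → lam (v • T) ≤ -((3 + ((3 : ℤ) : ℝ)) * v) + C)
    (hx : 0 ≤ x) : lam (ind {0, 2, 7} x) ≤ lam (ind (insert 14 {0, 2, 7}) x) := by
  by_contra hcon
  push Not at hcon
  have hb : ∀ v ∈ badL 5, (5 : ℝ) * v.2 ≠ v.1 := badL_ne 5
  have hv : Vis lam {0, 2, 7} 14 := H.vis_of_loss (by decide) (fun i hi => by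
    refine hG.ne hb ?_ (by decide) ?_
    · revert hi; revert i; decide
    · revert hi; revert i; decide +kernel) hx hcon
  exact hn (H.chain hG hA hB hb [.leaf 3 10 13 1 0 {0, 2, 7}] hv (by decide)
    (by decide +kernel))

/-- **numbers of `b = 5`** -/
theorem num35 (H : Pin {4} T G m (HTp {4}) lam) (hG : Grp {4} T G 3 5)
    (hA : XF lam {0} 2) (hB : XF lam {0, 2} 3)
    (hi : Ind {4} lam)
    (hn : ¬ ∃ C : ℝ, ∀ v : ℝ, 0 ≤ v → lam (v • T) ≤ -((3 + ((3 : ℤ) : ℝ)) * v) + C)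
    (hx : 0 < x) :
    SProf (LegP x) lam x (min m 1) (ind {0, 4} x) (ind {0, 2, 4, 7, 14} x)
      (ind {0, 1, 3, 4, 5, 9, 14} x) (ind {0, 1, 4, 5} x)
      (ind {0, 1, 2, 3, 4, 5, 7, 9, 14} x)
      (fun y => Function.update (ind {0, 4} x) 2 y)
      (fun y => Function.update (ind {0, 1, 2, 4, 5, 7, 14} x) 3 y)
      (fun y => Function.update (ind {0, 2, 4, 7, 14} x) 1 y) := by
  have e0 : (insert 4 {0} : Finset (Fin 18)) = {0, 4} := by decide
  have e1 : (insert 4 {0, 2, 7, 14} : Finset (Fin 18)) = {0, 2, 4, 7, 14} := by decide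
  have e2 : (insert 4 {0, 1, 3, 5, 9, 14} : Finset (Fin 18)) = {0, 1, 3, 4, 5, 9, 14} := by decide
  have e3 : (insert 4 {0, 1, 5} : Finset (Fin 18)) = {0, 1, 4, 5} := by decide
  have e4 : (insert 4 {0, 1, 2, 3, 5, 7, 9, 14} : Finset (Fin 18)) =
    {0, 1, 2, 3, 4, 5, 7, 9, 14} := by decide
  have e5 : (insert 4 {0, 1, 2, 5, 7, 14} : Finset (Fin 18)) = {0, 1, 2, 4, 5, 7, 14} := by decide
  rw [← e0, ← e1, ← e2, ← e3, ← e4, ← e5]
  simp only [← ind4 (V := {0}) (x := x) (by decide),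
    ← ind4 (V := {0, 2, 7, 14}) (x := x) (by decide),
    ← ind4 (V := {0, 1, 3, 5, 9, 14}) (x := x) (by decide),
    ← ind4 (V := {0, 1, 5}) (x := x) (by decide),
    ← ind4 (V := {0, 1, 2, 3, 5, 7, 9, 14}) (x := x) (by decide),
    ← ind4 (V := {0, 1, 2, 5, 7, 14}) (x := x) (by decide)]
  have c2 : ∀ (c : Fin 18 → ℝ) (y : ℝ), Function.update (Function.update c 4 x) 2 y =
    Function.update (Function.update c 2 y) 4 x := fun c y => Function.update_comm (by decide) _ _ _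
  have c3 : ∀ (c : Fin 18 → ℝ) (y : ℝ), Function.update (Function.update c 4 x) 3 y =
    Function.update (Function.update c 3 y) 4 x := fun c y => Function.update_comm (by decide) _ _ _
  have c1 : ∀ (c : Fin 18 → ℝ) (y : ℝ), Function.update (Function.update c 4 x) 1 y =
    Function.update (Function.update c 1 y) 4 x := fun c y => Function.update_comm (by decide) _ _ _
  simp only [c1, c2, c3]
  have hx0 := hx.le
  have hm := H.m0
  have hb : ∀ v ∈ badL 5, (5 : ℝ) * v.2 ≠ v.1 := badL_ne 5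
  have hm1 : min m 1 ≤ m := min_le_left _ _
  have hm2 : min m 1 ≤ 1 := min_le_right _ _
  have sm : ∀ {f : Fin 18} {W W' : Finset (Fin 18)}, SameB 3 (badL 5) {4} f W W' →
      SameB 3 (badL 5) {4} f W' W → Same G f W W' := fun h h' => h.same hG hb h'
  have hG0 : ∀ W : Finset (Fin 18), (∀ i : Fin 18, i ≠ 4 → sI 3 i = 0 → i ≠ 1 →
      (i ∈ W ↔ i ∈ (∅ : Finset (Fin 18)))) → (4 : Fin 18) ∉ W →
      ∀ i, T i = 0 → i ≠ 1 → (i ∈ W ↔ i ∈ (∅ : Finset (Fin 18))) := by
    intro W hW h4 i hi hi1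
    by_cases hi4 : i = 4
    · subst hi4; simp [h4]
    have h1 : sI 3 i = 0 := by
      have := hG.hT i (by simpa using hi4)
      rw [hi] at this
      exact_mod_cast this.symm
    exact hW i hi4 h1 hi1
  refine sprof4 hi hx0 (lt_min hm one_pos) (legP_ind (by decide) (by decide) hx0)
    (legP_ind (by decide) (by decide) hx0) (legP_ind (by decide) (by decide) hx0)
    (legP_ind (by decide) (by decide) hx0) (legP_ind (by decide) (by decide) hx0)
    (fun y hy hyx => legP_upd (by decide) (by decide) (by decide) hx0 hy hyx)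
    (fun y hy hyx => legP_upd (by decide) (by decide) (by decide) hx0 hy hyx)
    (fun y hy hyx => legP_upd (by decide) (by decide) (by decide) hx0 hy hyx)
    (fun j => ?_) (ind_mono_set (by decide) hx0) (ind_mono_set (by decide) hx0)
    (ind_mono_set (by decide) hx0) ?_ (fun y hy hyx => ?_) (fun y hy hyx => ?_)
    (fun y hy hyx => ?_)
  · have key : ∀ j : Fin 18, (j ∈ ({0, 1, 2, 3, 5, 7, 9, 14} : Finset (Fin 18)) ↔
        j ∈ ({0, 2, 7, 14} : Finset (Fin 18))) ∨
        (j ∈ ({0, 1, 2, 3, 5, 7, 9, 14} : Finset (Fin 18)) ↔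
        j ∈ ({0, 1, 3, 5, 9, 14} : Finset (Fin 18))) := by decide
    rcases key j with h | h
    · left
      by_cases hj : j ∈ ({0, 1, 2, 3, 5, 7, 9, 14} : Finset (Fin 18))
      · rw [ind_mem hj, ind_mem (h.1 hj)]
      · rw [ind_notMem hj, ind_notMem (fun h' => hj (h.2 h'))]
    · right
      by_cases hj : j ∈ ({0, 1, 2, 3, 5, 7, 9, 14} : Finset (Fin 18))
      · rw [ind_mem hj, ind_mem (h.1 hj)]
      · rw [ind_notMem hj, ind_notMem (fun h' => hj (h.2 h'))]
  · -- H1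
    have a2 := H.same_ins (f := 2) (W := {0}) (W' := {0, 1, 3, 5, 9, 14}) (x := x)
      (by decide) (by decide) (sm (by decide +kernel) (by decide +kernel)) hx0
    have a7 := H.same_ins (f := 7) (W := {0, 2}) (W' := {0, 1, 2, 3, 5, 9, 14})
      (x := x) (by decide) (by decide) (sm (by decide +kernel) (by decide +kernel)) hx0
    have f14 := free14 H hG hA hB hn (x := x) hx0
    have e1 : (insert 2 {0} : Finset (Fin 18)) = {0, 2} := by decide
    have e2 : (insert 2 {0, 1, 3, 5, 9, 14} : Finset (Fin 18)) = {0, 1, 2, 3, 5, 9, 14} := by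
      decide
    have e3 : (insert 7 {0, 2} : Finset (Fin 18)) = {0, 2, 7} := by decide
    have e4 : (insert 7 {0, 1, 2, 3, 5, 9, 14} : Finset (Fin 18)) =
      {0, 1, 2, 3, 5, 7, 9, 14} := by decide
    have e5 : (insert 14 {0, 2, 7} : Finset (Fin 18)) = {0, 2, 7, 14} := by decide
    rw [e1, e2] at a2
    rw [e3, e4] at a7
    rw [e5] at f14
    linarith
  · -- H2
    have a2 := H.same_ins (f := 2) (W := {0}) (W' := {0, 1, 5}) (x := x)
      (by decide) (by decide) (sm (by decide +kernel) (by decide +kernel)) hx0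
    have a7 := H.same_ins (f := 7) (W := {0, 2}) (W' := {0, 1, 2, 5})
      (x := x) (by decide) (by decide) (sm (by decide +kernel) (by decide +kernel)) hx0
    have a14 := H.same_ins (f := 14) (W := {0, 2, 7}) (W' := {0, 1, 2, 5, 7})
      (x := x) (by decide) (by decide) (sm (by decide +kernel) (by decide +kernel)) hx0
    have e1 : (insert 2 {0} : Finset (Fin 18)) = {0, 2} := by decide
    have e2 : (insert 2 {0, 1, 5} : Finset (Fin 18)) = {0, 1, 2, 5} := by decide
    have e3 : (insert 7 {0, 2} : Finset (Fin 18)) = {0, 2, 7} := by decide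
    have e4 : (insert 7 {0, 1, 2, 5} : Finset (Fin 18)) = {0, 1, 2, 5, 7} := by decide
    have e5 : (insert 14 {0, 2, 7} : Finset (Fin 18)) = {0, 2, 7, 14} := by decide
    have e6 : (insert 14 {0, 1, 2, 5, 7} : Finset (Fin 18)) = {0, 1, 2, 5, 7, 14} := by decide
    rw [e1, e2] at a2
    rw [e3, e4] at a7
    rw [e5, e6] at a14
    have hX : XF lam {0, 1, 2, 5, 7, 14} 3 := H.tr_XF hB (by decide) (by decide)
      (sm (by decide +kernel) (by decide +kernel))
    have h3 := H.full_le (f := 3) (W := {0, 1, 2, 5, 7, 14}) (by decide) hX hy hyx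
    have h4 : min m 1 * y ≤ y := by nlinarith
    linarith
  · -- H3
    have h3 := H.full_le (f := 2) (W := {0}) (by decide) hA hy hyx
    have h4 : min m 1 * y ≤ y := by nlinarith
    linarith
  · -- H4
    have h3 := H.closs H.free_empty (W := {0, 2, 7, 14}) (by decide) (by decide)
      (hG0 _ (by decide) (by decide)) hy hyx
    have h4 : min m 1 * y ≤ m * y := mul_le_mul_of_nonneg_right hm1 hy
    linarith

/-- the box of `BY` -/
theorem leg35 (hx : 0 ≤ x) : ind {0, 4, 5} x ∈ LegP x := by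
  have e0 : (insert 4 {0, 5} : Finset (Fin 18)) = {0, 4, 5} := by decide
  rw [← e0, ← ind4 (V := {0, 5}) (by decide)]
  exact legP4 (legP_ind (by decide) (by decide) hx) hx

/-- **end of `b = 5`** -/
theorem end35 (H : Pin {4} T G m (HTp {4}) lam) (hi : Ind {4} lam) (hv : Vis lam {0} 5) :
    ∃ x : ℝ, 0 < x ∧ lam (ind {0, 4, 5} x) < lam (ind {0, 4} x) := by
  obtain ⟨j, e, he, hj, h3⟩ := hv
  have q0 : (0 : ℝ) ≤ max j 1 := le_trans zero_le_one (le_max_right _ _)
  have g0 : (insert 4 {0} : Finset (Fin 18)) = {0, 4} := by decide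
  have g1 : (insert 4 {0, 5} : Finset (Fin 18)) = {0, 4, 5} := by decide
  refine ⟨max j 1, lt_of_lt_of_le one_pos (le_max_right _ _), ?_⟩
  rw [← g0, ← g1, ← ind4 (V := {0, 5}) (by decide), ← ind4 (V := {0}) (by decide),
    hi.eq4 (legP_ind (by decide) (by decide) q0) q0,
    hi.eq4 (legP_ind (by decide) (by decide) q0) q0]
  have hx : j ≤ max j 1 := le_max_left _ _
  have h4 := h3 _ hx
  have u1 : Up2 {4} ({0} : Finset (Fin 18)) 5 := by decide
  have h5 := H.anti _ (mem_upd u1.1 u1.2.1 u1.2.2 hj hx) _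
    (mem_upd u1.1 u1.2.1 u1.2.2 (hj.trans hx) le_rfl) (fun i => by
      by_cases hi : i = 5
      · subst hi; rw [Function.update_self, Function.update_self]; exact hx
      · rw [Function.update_of_ne hi, Function.update_of_ne hi])
  rw [← ind_insert u1.2.2] at h5
  have e1 : (insert 5 {0} : Finset (Fin 18)) = {0, 5} := by decide
  rw [e1] at h5
  linarith

end Crest.Agent.R136.Pin851
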