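import Crest.Agent.R136.CubW_851

/-!
# R136, rows of the specials (helper893): the sequence wrapper

* `wrap` : a finite estimate with error `e` gives the eventual row with error `ρ^(x - 2ε)`
-/

set_option autoImplicit false
set_option linter.unusedVariables false

open Filter Topology

namespace Crest.Agent.R136.Cub893

open Finset Crest.Agent.R138.Ex926 Crest.Agent.R136.Gf356 Crest.Agent.R136.Qg926
open Crest.Agent.R136.Pin851 Crest.Agent.R136.LadW697 Crest.Agent.R136.RowW619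
open Crest.Agent.R136.Net191 Crest.Agent.R136.NetW191 Crest.Agent.R136.EvW938
open Crest.Agent.R136.PrW464 Crest.Agent.R136.LfW619 Crest.Agent.R136.NatW697

variable {B : Base} {G : ℕ → RCfg (Fin 18)} {x K : ℝ}

/-- constants are absorbed -/
theorem absorb (B : Base) {c : ℝ} (hc : 0 < c) (x : ℝ) {ε : ℝ} (hε : 0 < ε) :
    ∀ᶠ n in (U : Filter ℕ), c * B.d n ^ (x - ε) ≤ B.d n ^ (x - 2 * ε) := by
  filter_upwards [ev_const_le B hc hε] with n hn
  have h1 : B.d n ^ (x - 2 * ε) = B.d n ^ (-ε) * B.d n ^ (x - ε) := by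
    rw [← Real.rpow_add (B.pos n)]; congr 1; ring
  rw [h1]
  exact mul_le_mul_of_nonneg_right hn (Real.rpow_pos_of_pos (B.pos n) _).le

/-- boxes `ind S x`: the slots of `S` -/
theorem loose_ind {g : RCfg (Fin 18)} {S : Finset (Fin 18)} {x ε : ℝ} {k l l' : ℕ}
    (h : g.loose (ind S x) ε k l l') {s : Fin 18} (hs : s ∈ S) :
    |g.rel k l l' s| ≤ g.ρ ^ (x - ε) := by
  have := h s
  rwa [ind_mem hs] at this

/-- boxes `ind S x`: a subset of the slots -/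
theorem loose_sub {g : RCfg (Fin 18)} (hp : 0 < g.ρ) (h1 : g.ρ ≤ 1) {S T : Finset (Fin 18)}
    (hT : T ⊆ S) {x ε : ℝ} (hx : 0 ≤ x) {k l l' : ℕ} (h : g.loose (ind S x) ε k l l') :
    g.loose (ind T x) ε k l l' := fun s =>
  (h s).trans (Real.rpow_le_rpow_of_exponent_ge hp h1 (by linarith [ind_mono_set hT hx s]))

/-- **the sequence wrapper** -/
theorem wrap {A : ℕ → ℕ → ℕ → ℕ → ℝ → Prop} {R : ℕ → ℕ → ℕ → ℕ → Fin 18 → ℝ}
    {X : ℕ → ℕ → ℕ → ℕ → ℝ} {S : Finset (Fin 18)} {KK : ℝ} (hx : 0 < x) (hK : 1 ≤ K)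
    (hKK : 1 ≤ KK) (hρ : ∀ n, (G n).ρ = B.d n) (h04 : ({0, 4} : Finset (Fin 18)) ⊆ S)
    (hap : ∀ ε : ℝ, 0 < ε → ∀ᶠ n in (U : Filter ℕ), ∀ k l l', (l, k) ∈ (G n).I →
      (l', k) ∈ (G n).I → (G n).loose (ind {0, 4} x) ε k l l' → A n k l l' (K * B.d n ^ (x - ε)))
    (hrl : ∀ᶠ n in (U : Filter ℕ), ∀ k l l', (l, k) ∈ (G n).I → (l', k) ∈ (G n).I →
      ∀ s, s ≠ 0 → |R n k l l' s| ≤ K * |(G n).rel k l l' s|)
    (hf : ∀ n k l l' e, 0 ≤ e → A n k l l' e → (∀ s ∈ S, s ≠ 0 → |R n k l l' s| ≤ e) →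
      |X n k l l'| ≤ KK * e) :
    ∀ ε : ℝ, 0 < ε → ∀ᶠ n in (U : Filter ℕ), ∀ k l l', (l, k) ∈ (G n).I →
      (l', k) ∈ (G n).I → (G n).loose (ind S x) ε k l l' →
      |X n k l l'| ≤ B.d n ^ (x - 2 * ε) := by
  intro ε hε
  have hK0 : 0 < K := by linarith
  filter_upwards [hap ε hε, hrl, absorb B (c := KK * K) (by positivity) x hε] with n h1 h2 h3
    k l l' hl hl' hb
  have hp : 0 < (G n).ρ := by rw [hρ]; exact B.pos n
  have hp1 : (G n).ρ ≤ 1 := by rw [hρ]; exact (B.lt n).le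
  have hb0 := loose_sub hp hp1 h04 hx.le hb
  have a := h1 k l l' hl hl' hb0
  have hpos : 0 < B.d n ^ (x - ε) := Real.rpow_pos_of_pos (B.pos n) _
  refine (hf n k l l' _ (mul_nonneg hK0.le hpos.le) a fun s hs h0 => ?_).trans ?_
  · refine (h2 k l l' hl hl' s h0).trans (mul_le_mul_of_nonneg_left ?_ hK0.le)
    have := loose_ind hb hs
    rwa [hρ] at this
  · rw [← mul_assoc]; exact h3

end Crest.Agent.R136.Cub893
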