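import Crest.Agent.R136.CubQ_851
import Crest.Agent.R136.CubW_851

/-!
# R136, the specials of the thin pins (helper851): the rows over a window

* `sg` : units; `uni_sg`; `hT`, `vT`, `rT` : normalised frames, flags, relative coordinates
* `PWin.tri`, `PWin.near` : the composition rules for two lines of one height
* `pcl35`, `vcl35`, `ccl35`, `pcl34`, `vcl34`, `ccl34`, `zrow34`
-/

set_option autoImplicit false
set_option linter.unusedSectionVars false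
set_option linter.unusedVariables false

open Filter Topology

namespace Crest.Agent.R136.Pin851

open Finset Crest.Agent.R138.Ex926 Crest.Agent.R136.Net191 Crest.Agent.R136.Gf356
open Crest.Agent.R136.Qg926
open Crest.Agent.R136.NetW191 Crest.Agent.R136.EvW938 Crest.Agent.R136.PrW464
open Crest.Agent.R136.LadW697 Crest.Agent.R136.LfW619 Crest.Agent.R136.RowW619
open Crest.Agent.R136.NatW697 Crest.Agent.R136.Qd329
open Crest.Agent.R136.PqG464 (wtW wtW_list)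
open Crest.Agent.R136.Cub191 (SProf SRow SEvo SSlope)
open Crest.Agent.R136.K2S774 (cn ind1)

/-- units, multiplicative along the walls, `sg 0 = kap 0 * sd 0` -/
noncomputable def sg (W : Wnd 18 fun _ => ℕ × ℝ) (u : ℕ → Fin 18 → ℝ) (n : ℕ) (s : Fin 18) : ℝ :=
  W.kap 0 ^ wtW s * sd W u n s

/-- normalised frames seen from the base of the height -/
noncomputable def hT (W : Wnd 18 fun _ => ℕ × ℝ) (κ : ℕ → ℝ) (u : ℕ → Fin 18 → ℝ)
    (f : ℕ → ℕ × ℝ → FW) (n k l : ℕ) : Fin 18 → ℝ :=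
  Hc (κ n) (sg W u n) (f n (W.zrep n k)) (f n (W.rep n l k))

/-- normalised flags seen from the base of the height -/
noncomputable def vT (W : Wnd 18 fun _ => ℕ × ℝ) (κ : ℕ → ℝ) (u : ℕ → Fin 18 → ℝ)
    (f : ℕ → ℕ × ℝ → FW) (n k l : ℕ) : Fin 18 → ℝ :=
  Vc (κ n) (sg W u n) (f n (W.zrep n k)) (f n (W.rep n l k))

/-- normalised relative coordinates -/
noncomputable def rT (W : Wnd 18 fun _ => ℕ × ℝ) (κ : ℕ → ℝ) (u : ℕ → Fin 18 → ℝ)
    (f : ℕ → ℕ × ℝ → FW) (n k l l' : ℕ) : Fin 18 → ℝ :=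
  fun s => coW (κ n) (f n (W.rep n l k)) (f n (W.rep n l' k)) s / sg W u n s

/-- ratio of the units -/
noncomputable def chi (W : Wnd 18 fun _ => ℕ × ℝ) (s : Fin 18) : ℝ := W.kap s / W.kap 0 ^ wtW s

/-- one constant -/
noncomputable def KM (W : Wnd 18 fun _ => ℕ × ℝ) : ℝ :=
  W.K0 + ∑ s, (W.K0 / W.kap 0 ^ wtW s + chi W s + (chi W s)⁻¹)

section

variable {W : Wnd 18 fun _ => ℕ × ℝ} {E : ∀ n : ℕ, Finset (ℕ × ℝ)} {κ : ℕ → ℝ}
  {u : ℕ → Fin 18 → ℝ} {f : ℕ → ℕ × ℝ → FW} {lam : (Fin 18 → ℝ) → ℝ} {x τ : ℝ}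
  {V : Finset (Fin 18)} {n k l l' : ℕ}

theorem PWin.kap0 (h : PWin W E κ u f {4} lam x) (s : Fin 18) : 0 < W.kap s := h.ww.ok.kap s

theorem PWin.chi0 (h : PWin W E κ u f {4} lam x) (s : Fin 18) : 0 < chi W s :=
  div_pos (h.kap0 s) (pow_pos (h.kap0 0) _)

theorem PWin.KM_le (h : PWin W E κ u f {4} lam x) (s : Fin 18) :
    W.K0 / W.kap 0 ^ wtW s ≤ KM W ∧ chi W s ≤ KM W ∧ (chi W s)⁻¹ ≤ KM W := by
  have h1 := h.ww.ok.K0_one
  have hp : ∀ s, 0 ≤ W.K0 / W.kap 0 ^ wtW s := fun s =>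
    div_nonneg (by linarith) (pow_pos (h.kap0 0) _).le
  have hc : ∀ s, 0 ≤ chi W s := fun s => (h.chi0 s).le
  have hc' : ∀ s, 0 ≤ (chi W s)⁻¹ := fun s => inv_nonneg.2 (hc s)
  have h2 : W.K0 / W.kap 0 ^ wtW s + chi W s + (chi W s)⁻¹ ≤
      ∑ s, (W.K0 / W.kap 0 ^ wtW s + chi W s + (chi W s)⁻¹) :=
    Finset.single_le_sum (f := fun s => W.K0 / W.kap 0 ^ wtW s + chi W s + (chi W s)⁻¹)
      (fun i _ => by have := hp i; have := hc i; have := hc' i; positivity) (mem_univ s)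
  unfold KM
  have := hp s
  have := hc s
  have := hc' s
  refine ⟨?_, ?_, ?_⟩ <;> linarith

theorem PWin.KM1 (h : PWin W E κ u f {4} lam x) : 1 ≤ KM W := by
  have h1 := h.ww.ok.K0_one
  have h2 : 0 ≤ ∑ s, (W.K0 / W.kap 0 ^ wtW s + chi W s + (chi W s)⁻¹) :=
    Finset.sum_nonneg fun s _ => by
      have := h.chi0 s
      have := pow_pos (h.kap0 0) (wtW s)
      positivity
  unfold KM; linarith

theorem PWin.sg0 (h : PWin W E κ u f {4} lam x) (n : ℕ) (s : Fin 18) : 0 < sg W u n s :=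
  mul_pos (pow_pos (h.kap0 0) _) (h.ww.sd_pos n s)

theorem prod_sg (h : PWin W E κ u f {4} lam x) (n : ℕ) (L : List (Fin 18)) :
    (L.map (sg W u n)).prod = W.kap 0 ^ (L.map wtW).sum * (L.map (sd W u n)).prod := by
  induction L with
  | nil => simp
  | cons a L ih =>
    simp only [List.map_cons, List.prod_cons, List.sum_cons, ih, pow_add]
    unfold sg
    ring

theorem prod_sd (h : PWin W E κ u f {4} lam x) (n : ℕ) (L : List (Fin 18)) :
    (L.map (sd W u n)).prod = W.B.d n ^ (L.map (W.X n)).sum / (L.map (u n)).prod := by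
  induction L with
  | nil => simp
  | cons a L ih =>
    simp only [List.map_cons, List.prod_cons, List.sum_cons, ih]
    rw [Real.rpow_add (W.B.pos n)]
    unfold sd
    have := ((h.ww.hl n).pos a).ne'
    field_simp

/-- the units of the window -/
theorem PWin.uni (h : PWin W E κ u f {4} lam x) (g : W.Good n) : Uni (sg W u n) where
  pos := h.sg0 n
  side :=
    { pos := fun s => (h.sg0 n s).le
      wall := fun k L hL => by
        rw [prod_sg h, wtW_list k L hL]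
        exact mul_le_mul_of_nonneg_left ((h.ww.sides g).wall k L hL) (pow_pos (h.kap0 0) _).le }
  tight := fun k hk L hL h4 => by
    rw [prod_sg h, wtW_list k L hL, prod_sd h,
      ← h.tight k (by simpa using hk) L hL (fun s hs h4' => h4 (by
        rw [mem_singleton] at h4'; exact h4' ▸ hs)) n, (h.ww.hl n).mul k L hL]
    rfl

/-- bounds of all coordinates -/
theorem PWin.bnd (h : PWin W E κ u f {4} lam x) (g : W.Good n) {a b : ℕ × ℝ} (ha : a ∈ W.Cl n)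
    (hb : b ∈ W.Cl n) (s : Fin 18) :
    |coW (κ n) (f n a) (f n b) s| ≤ KM W * sg W u n s := by
  refine (h.ww.bnd g ha hb s).trans ?_
  have h1 := (h.KM_le s).1
  have h2 := h.sg0 n s
  have h3 : 0 < W.kap 0 ^ wtW s := pow_pos (h.kap0 0) _
  have e : W.K0 * sd W u n s = W.K0 / W.kap 0 ^ wtW s * sg W u n s := by
    unfold sg; field_simp
  rw [e]
  exact mul_le_mul_of_nonneg_right h1 h2.le

/-- heights of one cell -/
theorem PWin.lev (h : PWin W E κ u f {4} lam x) (g : W.Good n) {a b : ℕ × ℝ} (ha : a ∈ W.Cl n)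
    (hb : b ∈ W.Cl n) (hz : W.zc n a = W.zc n b) (hτ : W.B'.d n ^ x ≤ τ) :
    |coW (κ n) (f n a) (f n b) 0| ≤ KM W * τ * sg W u n 0 := by
  refine (h.ww.lev_small g ha hb hz h.ww.h0 (by rw [h.top])).trans ?_
  have h1 := (h.KM_le 0).1
  have h2 := h.sg0 n 0
  have h3 : 0 < W.kap 0 ^ wtW 0 := pow_pos (h.kap0 0) _
  have h4 : 0 < W.B'.d n ^ x := Real.rpow_pos_of_pos (W.B'.pos n) _
  have e : W.K0 * W.B'.d n ^ x * sd W u n 0 =
      W.K0 / W.kap 0 ^ wtW 0 * W.B'.d n ^ x * sg W u n 0 := by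
    unfold sg; field_simp
  rw [e]
  refine mul_le_mul_of_nonneg_right (mul_le_mul h1 hτ h4.le ?_) h2.le
  exact (zero_le_one.trans h.KM1)

/-- the two normalisations -/
theorem PWin.rT_eq (h : PWin W E κ u f {4} lam x) (g : W.Good n) {F : Finset (ℕ × ℝ)}
    (hF : F ⊆ W.Cl n) (hl : (l, k) ∈ (W.cfg0 n F).I) (hl' : (l', k) ∈ (W.cfg0 n F).I) {s : Fin 18}
    (hs : s ≠ 0) : rT W κ u f n k l l' s = chi W s * (W.cfg0 n F).rel k l l' s := by
  have a1 := (Wnd.rep_of_mem hF hl).1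
  have a2 := (Wnd.rep_of_mem hF hl').1
  have hS : s ∉ W.S := by rw [h.S]; simpa using hs
  rw [h.ww.rel_eq l l' k hS]
  unfold rT chi
  rw [h.ww.crd_eq g a1 a2]
  unfold sg un
  have h1 := (h.ww.sd_pos n s).ne'
  have h2 := (pow_pos (h.kap0 0) (wtW s)).ne'
  field_simp

theorem PWin.rT_le (h : PWin W E κ u f {4} lam x) (g : W.Good n) {F : Finset (ℕ × ℝ)}
    (hF : F ⊆ W.Cl n) (hl : (l, k) ∈ (W.cfg0 n F).I) (hl' : (l', k) ∈ (W.cfg0 n F).I) {s : Fin 18}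
    (hs : s ≠ 0) (ht : |(W.cfg0 n F).rel k l l' s| ≤ τ) :
    |rT W κ u f n k l l' s| ≤ KM W * τ := by
  rw [h.rT_eq g hF hl hl' hs, abs_mul, abs_of_pos (h.chi0 s)]
  exact mul_le_mul (h.KM_le s).2.1 ht (abs_nonneg _) (zero_le_one.trans h.KM1)

theorem PWin.rel_le (h : PWin W E κ u f {4} lam x) (g : W.Good n) {F : Finset (ℕ × ℝ)}
    (hF : F ⊆ W.Cl n) (hl : (l, k) ∈ (W.cfg0 n F).I) (hl' : (l', k) ∈ (W.cfg0 n F).I) {s : Fin 18}
    (hs : s ≠ 0) (ht : |rT W κ u f n k l l' s| ≤ τ) :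
    |(W.cfg0 n F).rel k l l' s| ≤ KM W * τ := by
  rw [h.rT_eq g hF hl hl' hs, abs_mul, abs_of_pos (h.chi0 s)] at ht
  have h1 := h.chi0 s
  have h2 : |(W.cfg0 n F).rel k l l' s| ≤ (chi W s)⁻¹ * τ := by
    rw [inv_mul_eq_div, le_div_iff₀ h1]; linarith
  have h3 : 0 ≤ τ := (mul_nonneg h1.le (abs_nonneg _)).trans ht
  exact h2.trans (mul_le_mul_of_nonneg_right (h.KM_le s).2.2 h3)

/-- base of a height -/
theorem zrep_mem {F : Finset (ℕ × ℝ)} (hF : F ⊆ W.Cl n) (hl : (l, k) ∈ (W.cfg0 n F).I) :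
    W.zrep n k ∈ W.Cl n ∧ W.zc n (W.zrep n k) = k := by
  obtain ⟨y, hy, -, h2⟩ := Wnd.mem_I.1 hl
  have := W.zrep_spec (hF hy)
  rwa [h2] at this

/-- **three lines** -/
theorem PWin.tri (h : PWin W E κ u f {4} lam x) (g : W.Good n) {F : Finset (ℕ × ℝ)}
    (hF : F ⊆ W.Cl n) (hl : (l, k) ∈ (W.cfg0 n F).I) (hl' : (l', k) ∈ (W.cfg0 n F).I)
    (hτ : W.B'.d n ^ x ≤ τ) (h4 : |(W.cfg0 n F).rel k l l' 4| ≤ τ) :
    Tri (κ n) (sg W u n) (KM W) τ (f n (W.zrep n k)) (f n (W.rep n l k))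
      (f n (W.rep n l' k)) := by
  obtain ⟨a1, -, a3⟩ := Wnd.rep_of_mem hF hl
  obtain ⟨b1, -, b3⟩ := Wnd.rep_of_mem hF hl'
  obtain ⟨c1, c3⟩ := zrep_mem hF hl
  have h5 := h.rT_le g hF hl hl' (by decide : (4 : Fin 18) ≠ 0) h4
  exact
    { κ1 := h.ww.hκ n
      K1 := h.KM1
      τ0 := (Real.rpow_nonneg (W.B'.pos n).le x).trans hτ
      uni := h.uni g
      b0x := h.bnd g c1 a1
      b0y := h.bnd g c1 b1
      bx0 := h.bnd g a1 c1
      by0 := h.bnd g b1 c1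
      z0x := h.lev g c1 a1 (c3.trans a3.symm) hτ
      z0y := h.lev g c1 b1 (c3.trans b3.symm) hτ
      h4 := by
        unfold rT at h5
        have h6 := h.sg0 n 4
        rwa [abs_div, abs_of_pos h6, div_le_iff₀ h6] at h5 }

/-- data of two lines of one height, near in the slots of `V` -/
structure NearD (W : Wnd 18 fun _ => ℕ × ℝ) (κ : ℕ → ℝ) (u : ℕ → Fin 18 → ℝ)
    (f : ℕ → ℕ × ℝ → FW) (V : Finset (Fin 18)) (n k l l' : ℕ) (η : ℝ) : Prop where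
  apx : ∃ E', E' ≤ 1 * η ∧ Apx (κ n) (KM W) E' (hT W κ u f n k l) (hT W κ u f n k l')
    (vT W κ u f n k l) (vT W κ u f n k l') (rT W κ u f n k l l')
  r : ∀ s ∈ V, s ≠ 0 → |rT W κ u f n k l l' s| ≤ 1 * η

/-- **two lines of one height** -/
theorem PWin.near (h : PWin W E κ u f {4} lam x) (hV : 4 ∈ V) : ∀ ε : ℝ, 0 < ε →
    ∀ᶠ n in (U : Filter ℕ), ∀ k l l', (l, k) ∈ (W.cfg E n).I → (l', k) ∈ (W.cfg E n).I →
      (W.cfg E n).loose (ind V x) ε k l l' →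
      ∃ η, NK (KM W) * η ≤ W.B'.d n ^ (x - 2 * ε) ∧ NearD W κ u f V n k l l' η := by
  intro ε hε
  have hK1 := h.KM1
  have hK0 : 0 ≤ KM W := zero_le_one.trans hK1
  filter_upwards [h.ev, ev_const_le W.B' hε (NK (KM W) * (470 * (2 * KM W) ^ 7))] with
    n ⟨g, hF, he⟩ hc k l l' hl hl' hlo
  rw [he] at hl hl' hlo
  have hpos : 0 < W.B'.d n ^ (x - ε) := Real.rpow_pos_of_pos (W.B'.pos n) _
  have hr : ∀ s ∈ V, |(W.cfg0 n (E n)).rel k l l' s| ≤ W.B'.d n ^ (x - ε) := fun s hs => by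
    have := hlo s
    rwa [ind_mem hs] at this
  have T := h.tri g hF hl hl' (τ := W.B'.d n ^ (x - ε))
    (Real.rpow_le_rpow_of_exponent_ge (W.B'.pos n) (W.B'.lt n).le (by linarith)) (hr 4 hV)
  have hK7 : KM W ≤ 470 * (2 * KM W) ^ 7 := by
    have h1 : KM W ≤ (2 * KM W) ^ 7 := by
      calc KM W ≤ 2 * KM W := by linarith
        _ = (2 * KM W) ^ 1 := (pow_one _).symm
        _ ≤ (2 * KM W) ^ 7 := pow_le_pow_right₀ (by linarith) (by norm_num)
    linarith [h1, hK0.trans h1]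
  refine ⟨470 * (2 * KM W) ^ 7 * W.B'.d n ^ (x - ε), ?_, ⟨_, ?_, T.apx⟩, fun s hs hs0 => ?_⟩
  · calc NK (KM W) * (470 * (2 * KM W) ^ 7 * W.B'.d n ^ (x - ε)) =
        (NK (KM W) * (470 * (2 * KM W) ^ 7)) * W.B'.d n ^ (x - ε) := by ring
      _ ≤ W.B'.d n ^ (-ε) * W.B'.d n ^ (x - ε) := mul_le_mul_of_nonneg_right hc hpos.le
      _ = W.B'.d n ^ (x - 2 * ε) := by
        rw [← Real.rpow_add (W.B'.pos n)]; congr 1; ring
  · rw [one_mul]; exact le_refl _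
  · rw [one_mul]
    exact (h.rT_le g hF hl hl' hs0 (hr s hs)).trans
      (mul_le_mul_of_nonneg_right hK7 hpos.le)

end

end Crest.Agent.R136.Pin851
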