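import Crest.Agent.R136.Qe2_861
import Crest.Agent.R136.CubW_851

/-!
# R136, the specials of the thin pins (helper861), part 1: natural units of a `PWin`, `Dr = {4}`

* `vu` : units `kap 0 ^ wtW s * B.d ^ natX / u`, multiplicative along ALL walls, `sd ≤` natural
* `tv` : coordinates in these units; exact transitions, bounds
-/

set_option autoImplicit false
set_option linter.unusedSectionVars false
set_option linter.unusedVariables false

open Filter Topology

namespace Crest.Agent.R136.Qr861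

open Finset
open Crest.Agent.R138.Ex926 (Base U)
open Crest.Agent.R136.Gf356 Crest.Agent.R136.Qg926 Crest.Agent.R136.NetW191
open Crest.Agent.R136.EvW938 Crest.Agent.R136.Net191
open Crest.Agent.R136.PrW464 (grW grW_list)
open Crest.Agent.R136.PqG464 (wtW wtW_list)
open Crest.Agent.R136.Pin851 (PWin)
open Crest.Agent.R136.Qe861

/-- natural units times the powers of `kap 0` -/
noncomputable def vu (W : Wnd 18 fun _ => ℕ × ℝ) (u : ℕ → Fin 18 → ℝ) (n : ℕ) (s : Fin 18) : ℝ :=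
  W.kap 0 ^ wtW s * ntu W u n s

/-- coordinates -/
noncomputable def tv (W : Wnd 18 fun _ => ℕ × ℝ) (κ : ℕ → ℝ) (u : ℕ → Fin 18 → ℝ)
    (f : ∀ n : ℕ, ℕ × ℝ → FW) (n : ℕ) (x y : ℕ × ℝ) (s : Fin 18) : ℝ :=
  coW (κ n) (f n x) (f n y) s / vu W u n s

/-- ratio of the constants -/
noncomputable def cs (W : Wnd 18 fun _ => ℕ × ℝ) (s : Fin 18) : ℝ := W.kap s / W.kap 0 ^ wtW s

/-- the constant -/
noncomputable def KK (W : Wnd 18 fun _ => ℕ × ℝ) : ℝ :=
  W.K0 * (1 + ∑ s, (W.kap 0 ^ wtW s)⁻¹ + ∑ s, cs W s + ∑ s, (cs W s)⁻¹)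

section

variable {W : Wnd 18 fun _ => ℕ × ℝ} {E : ∀ n : ℕ, Finset (ℕ × ℝ)} {κ : ℕ → ℝ}
  {u : ℕ → Fin 18 → ℝ} {f : ℕ → ℕ × ℝ → FW} {lam : (Fin 18 → ℝ) → ℝ} {x : ℝ}

section

variable (g : PWin W E κ u f {4} lam x)

include g

theorem kp0 (s : Fin 18) : 0 < W.kap s := g.ww.ok.kap s

theorem cs_pos (s : Fin 18) : 0 < cs W s := div_pos (kp0 g s) (pow_pos (kp0 g 0) _)

theorem K01 : 1 ≤ W.K0 := g.ww.ok.K0_one

theorem KK_ge : W.K0 ≤ KK W ∧ (∀ s, W.K0 * (W.kap 0 ^ wtW s)⁻¹ ≤ KK W) ∧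
    (∀ s, cs W s ≤ KK W) ∧ ∀ s, (cs W s)⁻¹ ≤ KK W := by
  have h0 := K01 g
  have h1 : ∀ s, 0 ≤ (W.kap 0 ^ wtW s)⁻¹ := fun s => (inv_pos.2 (pow_pos (kp0 g 0) _)).le
  have h2 : ∀ s, 0 ≤ cs W s := fun s => (cs_pos g s).le
  have h3 : ∀ s, 0 ≤ (cs W s)⁻¹ := fun s => (inv_pos.2 (cs_pos g s)).le
  have s1 := Finset.sum_nonneg fun s (_ : s ∈ (univ : Finset (Fin 18))) => h1 s
  have s2 := Finset.sum_nonneg fun s (_ : s ∈ (univ : Finset (Fin 18))) => h2 s
  have s3 := Finset.sum_nonneg fun s (_ : s ∈ (univ : Finset (Fin 18))) => h3 s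
  have a1 : ∀ s, (W.kap 0 ^ wtW s)⁻¹ ≤ ∑ s, (W.kap 0 ^ wtW s)⁻¹ := fun s =>
    Finset.single_le_sum (fun s _ => h1 s) (mem_univ s)
  have a2 : ∀ s, cs W s ≤ ∑ s, cs W s := fun s => Finset.single_le_sum (fun s _ => h2 s) (mem_univ s)
  have a3 : ∀ s, (cs W s)⁻¹ ≤ ∑ s, (cs W s)⁻¹ := fun s =>
    Finset.single_le_sum (fun s _ => h3 s) (mem_univ s)
  unfold KK
  refine ⟨by nlinarith, fun s => ?_, fun s => ?_, fun s => ?_⟩
  · refine mul_le_mul_of_nonneg_left ?_ (by linarith)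
    linarith [a1 s]
  · have := a2 s
    have := h2 s
    nlinarith
  · have := a3 s
    have := h3 s
    nlinarith

theorem KK1 : 1 ≤ KK W := (K01 g).trans (KK_ge g).1

theorem n4 {s : Fin 18} (hs : s ≠ 4) : s ∉ ({4} : Finset (Fin 18)) := by simpa using hs

theorem X_low {n : ℕ} {s : Fin 18} (hs : s < 4) : W.X n s = nX W n s := by
  have t2 := g.tight 2 (by decide) [1, 0] (by decide) (by decide) n
  have t3 := g.tight 3 (by decide) [1, 2] (by decide) (by decide) n
  simp only [List.map_cons, List.map_nil, List.sum_cons, List.sum_nil, add_zero] at t2 t3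
  have hs' : s = 0 ∨ s = 1 ∨ s = 2 ∨ s = 3 := by revert hs; revert s; decide
  rcases hs' with h | h | h | h <;> subst h <;>
    simp [nX, grW, PrW464.wz, PrW464.wc, PrW464.wn] <;> linarith

theorem X17 (n : ℕ) : W.X n 17 = nX W n 17 := by
  simp [nX, grW, PrW464.wz, PrW464.wc, PrW464.wn]

theorem X_sum (n : ℕ) {k : Fin 18} (h4 : 4 ≤ k) (h17 : k ≠ 17) :
    ((frl k ++ [k]).map (W.X n)).sum - W.X n 17 = W.X n k - nX W n k := by
  have h1 := grW_list (W.X n 0) (W.X n 1) (W.X n 17) 17 (frl k ++ [k]) (frl_mem k h4 h17)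
  have h2 : ((frl k).map (W.X n)).sum = ((frl k).map (nX W n)).sum := by
    congr 1
    exact List.map_congr_left fun s hs => X_low g (frl_lt k s hs)
  have h3 := X17 g n
  simp only [List.map_append, List.sum_append, List.map_cons, List.map_nil, List.sum_cons,
    List.sum_nil, add_zero] at h1 ⊢
  change ((frl k).map (nX W n)).sum + nX W n k = nX W n 17 at h1
  rw [h2, h3]
  linarith

theorem X_eq {n : ℕ} {k : Fin 18} (hk : k ≠ 4) : W.X n k = nX W n k := by
  rcases lt_or_ge k 4 with h4 | h4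
  · exact X_low g h4
  · by_cases h17 : k = 17
    · subst h17; exact X17 g n
    · have h1 := X_sum g n h4 h17
      have h2 := g.tight 17 (by decide) (frl k ++ [k]) (frl_mem k h4 h17)
        (fun s hs => by
          rcases List.mem_append.1 hs with h | h
          · have := frl_lt k s h
            simp only [mem_singleton]
            rintro rfl
            exact absurd this (by decide)
          · rw [List.mem_singleton.1 h]; simpa using hk) n
      linarith

theorem X_le {n : ℕ} (gd : W.Good n) (k : Fin 18) : nX W n k ≤ W.X n k := by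
  by_cases hk : k = 4
  · subst hk
    have h1 := gd.leg 0 g.ww.ok.zero_leg
    rw [smul_zero, add_zero, g.ww.hM] at h1
    obtain ⟨-, hw⟩ := legal_ofLists.1 h1
    have h2 := hw 17 (frl 4 ++ [4]) (frl_mem 4 (by decide) (by decide))
    have h3 := X_sum g n (k := 4) le_rfl (by decide)
    linarith
  · exact (X_eq g hk).symm.le

theorem ntu_pos' (n : ℕ) (s : Fin 18) : 0 < ntu W u n s :=
  div_pos (Real.rpow_pos_of_pos (W.B.pos n) _) ((g.ww.hl n).pos s)

theorem vu_pos (n : ℕ) (s : Fin 18) : 0 < vu W u n s :=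
  mul_pos (pow_pos (kp0 g 0) _) (ntu_pos' g n s)

theorem sd_le {n : ℕ} (gd : W.Good n) (s : Fin 18) : sd W u n s ≤ ntu W u n s := by
  unfold sd ntu
  refine div_le_div_of_nonneg_right ?_ ((g.ww.hl n).pos s).le
  exact Real.rpow_le_rpow_of_exponent_ge (W.B.pos n) (W.B.lt n).le (X_le g gd s)

theorem sd_eq {n : ℕ} {s : Fin 18} (hs : s ≠ 4) : sd W u n s = ntu W u n s := by
  unfold sd ntu
  rw [X_eq g hs]

theorem vu_mul (n : ℕ) : MulU (vu W u n) := by
  intro k l hl
  have h1 := grW_list (W.X n 0) (W.X n 1) (W.X n 17) k l hl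
  have h2 := (g.ww.hl n).mul k l hl
  have h4 := wtW_list k l hl
  have h3 : (l.map (vu W u n)).prod =
      W.kap 0 ^ (l.map wtW).sum * (W.B.d n ^ (l.map (nX W n)).sum / (l.map (u n)).prod) := by
    clear hl h1 h2 h4
    induction l with
    | nil => simp
    | cons s l ih =>
      simp only [List.map_cons, List.prod_cons, List.sum_cons, ih]
      rw [Real.rpow_add (W.B.pos n), pow_add]
      unfold vu ntu
      have := ((g.ww.hl n).pos s).ne'
      field_simp
  rw [h3, h2, h4]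
  unfold vu ntu
  congr 3

theorem tv_co (n : ℕ) (a b : ℕ × ℝ) (s : Fin 18) :
    coW (κ n) (f n a) (f n b) s = vu W u n s * tv W κ u f n a b s := by
  unfold tv
  have := (vu_pos g n s).ne'
  field_simp

theorem frm_tv (n : ℕ) (a b : ℕ × ℝ) :
    rel (κ n) (f n a).g (f n b).g = fun i => vu W u n (Fin.castAdd 14 i) *
      frm (tv W κ u f n a b) i := by
  funext i
  have := tv_co g n a b (Fin.castAdd 14 i)
  rw [coW_left] at this
  exact this

theorem flg_tv (n : ℕ) (a b : ℕ × ℝ) :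
    tr (κ n) (f n b).g ((f n b).G - (f n a).G) = fun q => vu W u n (Fin.natAdd 4 q) *
      flg (tv W κ u f n a b) q := by
  funext i
  have := tv_co g n a b (Fin.natAdd 4 i)
  rw [coW_right] at this
  exact this

/-- **transition of the frames** -/
theorem tv_mul (n : ℕ) (a b c : ℕ × ℝ) :
    frm (tv W κ u f n a c) = NetW191.mul (κ n) (frm (tv W κ u f n a b))
      (frm (tv W κ u f n b c)) := by
  have h := rel_rel (κ n) (f n a).g (f n b).g (f n c).g
  rw [frm_tv g n a b, frm_tv g n b c, frm_tv g n a c] at h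
  have m2 := vu_mul g n 2 [1, 0] (by decide)
  have m3 := vu_mul g n 3 [1, 2] (by decide)
  simp only [List.map_cons, List.map_nil, List.prod_cons, List.prod_nil, mul_one] at m2 m3
  have p0 := (vu_pos g n 0).ne'
  have p1 := (vu_pos g n 1).ne'
  have p2 := (vu_pos g n 2).ne'
  have p3 := (vu_pos g n 3).ne'
  have i0 := congrFun h 0
  have i1 := congrFun h 1
  have i2 := congrFun h 2
  have i3 := congrFun h 3
  simp only [mul0, mul1, mul2, mul3] at i0 i1 i2 i3
  change vu W u n 0 * _ + vu W u n 0 * _ = vu W u n 0 * _ at i0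
  change vu W u n 1 * _ + vu W u n 1 * _ = vu W u n 1 * _ at i1
  change vu W u n 2 * _ + vu W u n 2 * _ + vu W u n 1 * _ * (vu W u n 0 * _) =
    vu W u n 2 * _ at i2
  change vu W u n 3 * _ + vu W u n 3 * _ - 2 * κ n * (vu W u n 1 * _) * (vu W u n 2 * _) -
    κ n * (vu W u n 1 * _) ^ 2 * (vu W u n 0 * _) = vu W u n 3 * _ at i3
  generalize frm (tv W κ u f n a b) = A at *
  generalize frm (tv W κ u f n b c) = B at *
  generalize frm (tv W κ u f n a c) = C at *
  have c0 : C 0 = NetW191.mul (κ n) A B 0 := by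
    refine mul_left_cancel₀ p0 ?_
    rw [← i0, mul0]
    ring
  have c1 : C 1 = NetW191.mul (κ n) A B 1 := by
    refine mul_left_cancel₀ p1 ?_
    rw [← i1, mul1]
    ring
  have c2 : C 2 = NetW191.mul (κ n) A B 2 := by
    refine mul_left_cancel₀ p2 ?_
    rw [← i2, mul2, ← m2]
    ring
  have c3 : C 3 = NetW191.mul (κ n) A B 3 := by
    refine mul_left_cancel₀ p3 ?_
    rw [← i3, mul3, ← m3, ← m2]
    ring
  funext i
  fin_cases i
  · exact c0
  · exact c1
  · exact c2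
  · exact c3

/-- **transition of the flags** -/
theorem tv_tr (n : ℕ) (a b c : ℕ × ℝ) (q : Fin 14) :
    tv W κ u f n a c (Fin.natAdd 4 q) = tr (κ n) (frm (tv W κ u f n b c))
      (flg (tv W κ u f n a b)) q + tv W κ u f n b c (Fin.natAdd 4 q) := by
  have h := congrFun (cocycle (κ n) (f n a) (f n b) (f n c)) q
  rw [Pi.add_apply, flg_tv g n a c, flg_tv g n b c, flg_tv g n a b, frm_tv g n b c,
    tr_hom (vu_mul g n)] at h
  have p := (vu_pos g n (Fin.natAdd 4 q)).ne'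
  refine mul_left_cancel₀ p ?_
  change _ * _ = _ * _ + _ * _ at h
  rw [mul_add, add_comm]
  exact h

/-- an incidence seen from itself -/
theorem tv_self (n : ℕ) (a : ℕ × ℝ) (i : Fin 4) : frm (tv W κ u f n a a) i = 0 := by
  have h : rel (κ n) (f n a).g (f n a).g i = 0 := by
    fin_cases i <;> simp [rel]
  have h1 := congrFun (frm_tv g n a a) i
  rw [h] at h1
  have p := (vu_pos g n (Fin.castAdd 14 i)).ne'
  exact (mul_eq_zero.1 h1.symm).resolve_left p

/-! #### bounds -/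

theorem tv_of {n : ℕ} (gd : W.Good n) {a b : ℕ × ℝ} {s : Fin 18} {D : ℝ} (hD : 0 ≤ D)
    (h : |coW (κ n) (f n a) (f n b) s| ≤ W.K0 * D * sd W u n s) :
    |tv W κ u f n a b s| ≤ KK W * D := by
  have p := vu_pos g n s
  unfold tv
  rw [abs_div, abs_of_pos p, div_le_iff₀ p]
  have h1 := sd_le g gd s
  have h2 := (KK_ge g).2.1 s
  have h3 := ntu_pos' g n s
  have h4 := pow_pos (kp0 g 0) (wtW s)
  refine h.trans ((mul_le_mul_of_nonneg_left h1 (mul_nonneg (by linarith [K01 g]) hD)).trans ?_)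
  unfold vu
  have e : KK W * D * (W.kap 0 ^ wtW s * ntu W u n s) =
      KK W * W.kap 0 ^ wtW s * (D * ntu W u n s) := by ring
  have e2 : W.K0 * D * ntu W u n s = W.K0 * (D * ntu W u n s) := by ring
  rw [e, e2]
  refine mul_le_mul_of_nonneg_right ?_ (mul_nonneg hD h3.le)
  have := mul_le_mul_of_nonneg_right h2 h4.le
  rwa [mul_assoc, inv_mul_cancel₀ h4.ne', mul_one] at this

theorem tv_bd {n : ℕ} (gd : W.Good n) {a b : ℕ × ℝ} (ha : a ∈ W.Cl n) (hb : b ∈ W.Cl n)
    (s : Fin 18) : |tv W κ u f n a b s| ≤ KK W := by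
  have h := tv_of g gd (a := a) (b := b) (s := s) zero_le_one
    (by rw [mul_one]; exact g.ww.bnd gd ha hb s)
  rwa [mul_one] at h

/-- same height -/
theorem tv_lev {n : ℕ} (gd : W.Good n) {a b : ℕ × ℝ} (ha : a ∈ W.Cl n) (hb : b ∈ W.Cl n)
    (hz : W.zc n a = W.zc n b) : |tv W κ u f n a b 0| ≤ KK W * W.B'.d n ^ x :=
  tv_of g gd (Real.rpow_pos_of_pos (W.B'.pos n) _).le
    (g.ww.lev_small gd ha hb hz (s := 0) (t := x) (by rw [g.S]; simp) (g.top 0).ge)

/-- same fat line -/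
theorem tv_own {n : ℕ} (gd : W.Good n) {a b : ℕ × ℝ} (ha : a ∈ W.Cl n) (hb : b ∈ W.Cl n)
    (hl : W.lc n a = W.lc n b) {s : Fin 18} (h0 : s ≠ 0) :
    |tv W κ u f n a b s| ≤ KK W * W.B'.d n ^ x :=
  tv_of g gd (Real.rpow_pos_of_pos (W.B'.pos n) _).le
    (g.ww.own_small gd ha hb hl (s := s) (t := x) (by rw [g.S]; simpa using h0) (g.top s).ge)

/-- against the coordinates of the window -/
theorem tv_crd {n : ℕ} (gd : W.Good n) {a b : ℕ × ℝ} (ha : a ∈ W.Cl n) (hb : b ∈ W.Cl n)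
    (s : Fin 18) : tv W κ u f n a b s * ntu W u n s = cs W s * sd W u n s * W.crd n a b s := by
  unfold tv
  rw [g.ww.crd_eq gd ha hb]
  unfold vu cs un
  have h1 := (ntu_pos' g n s).ne'
  have h2 := (pow_pos (kp0 g 0) (wtW s)).ne'
  field_simp

theorem tv_crd' {n : ℕ} (gd : W.Good n) {a b : ℕ × ℝ} (ha : a ∈ W.Cl n) (hb : b ∈ W.Cl n)
    {s : Fin 18} (hs : s ≠ 4) : tv W κ u f n a b s = cs W s * W.crd n a b s := by
  have h := tv_crd g gd ha hb s
  rw [sd_eq g hs] at h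
  have h1 := (ntu_pos' g n s).ne'
  refine mul_right_cancel₀ h1 ?_
  rw [h]; ring

theorem tv_crd0 {n : ℕ} (gd : W.Good n) {a b : ℕ × ℝ} (ha : a ∈ W.Cl n) (hb : b ∈ W.Cl n) :
    tv W κ u f n a b 0 = W.crd n a b 0 := by
  rw [tv_crd' g gd ha hb (by decide)]
  have h1 : wtW 0 = 1 := rfl
  unfold cs
  rw [h1, pow_one, div_self (kp0 g 0).ne', one_mul]

/-- from the window to `tv` -/
theorem tv_le {n : ℕ} (gd : W.Good n) {a b : ℕ × ℝ} (ha : a ∈ W.Cl n) (hb : b ∈ W.Cl n)
    {s : Fin 18} {D : ℝ} (h : |W.crd n a b s| ≤ D) : |tv W κ u f n a b s| ≤ KK W * D := by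
  have h1 := tv_crd g gd ha hb s
  have h2 := ntu_pos' g n s
  have h3 := sd_le g gd s
  have h4 := g.ww.sd_pos n s
  have h5 := cs_pos g s
  have hD : 0 ≤ D := (abs_nonneg _).trans h
  have h6 : |tv W κ u f n a b s| * ntu W u n s ≤ cs W s * D * ntu W u n s := by
    have : |tv W κ u f n a b s * ntu W u n s| = |tv W κ u f n a b s| * ntu W u n s := by
      rw [abs_mul, abs_of_pos h2]
    rw [← this, h1, abs_mul, abs_mul, abs_of_pos h5, abs_of_pos h4]
    calc cs W s * sd W u n s * |W.crd n a b s| ≤ cs W s * ntu W u n s * D := by gcongr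
      _ = _ := by ring
  have h7 := le_of_mul_le_mul_right h6 h2
  exact h7.trans (mul_le_mul_of_nonneg_right ((KK_ge g).2.2.1 s) hD)

/-- from `tv` to the window -/
theorem crd_le {n : ℕ} (gd : W.Good n) {a b : ℕ × ℝ} (ha : a ∈ W.Cl n) (hb : b ∈ W.Cl n)
    {s : Fin 18} (hs : s ≠ 4) {D : ℝ} (h : |tv W κ u f n a b s| ≤ D) :
    |W.crd n a b s| ≤ KK W * D := by
  have h1 := tv_crd' g gd ha hb hs
  have h5 := cs_pos g s
  have hD : 0 ≤ D := (abs_nonneg _).trans h
  have h2 : W.crd n a b s = (cs W s)⁻¹ * tv W κ u f n a b s := by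
    rw [h1]; field_simp
  rw [h2, abs_mul, abs_of_pos (inv_pos.2 h5)]
  exact mul_le_mul ((KK_ge g).2.2.2 s) h (abs_nonneg _) ((by linarith [KK1 g]))

end

end

end Crest.Agent.R136.Qr861
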