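import Crest.Agent.R136.CubR_851
import Crest.Agent.R136.Qr1_861
import Crest.Agent.R136.CubS_893

/-!
# R136, rows of the specials (helper893): the units over a window

* `sg` : units, `uni_sg : Uni (sg W u n)`
* `rep_of` : the representatives of an incidence of `W.cfg E n`
* `tri_ev` : `Tri` at the representatives of one height
* `R_le`, `rel_le` : `R` against `rel`
-/

set_option autoImplicit false
set_option linter.unusedVariables false

open Filter Topology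

namespace Crest.Agent.R136.Cub893

open Finset Crest.Agent.R138.Ex926 Crest.Agent.R136.Gf356 Crest.Agent.R136.Qg926
open Crest.Agent.R136.Pin851 Crest.Agent.R136.LadW697 Crest.Agent.R136.RowW619
open Crest.Agent.R136.Net191 Crest.Agent.R136.NetW191 Crest.Agent.R136.EvW938
open Crest.Agent.R136.PrW464 Crest.Agent.R136.LfW619 Crest.Agent.R136.NatW697
open Crest.Agent.R136.PqG464 (wtW wtW_list)
open Crest.Agent.R136.Qr861 (cs KK cs_pos K01 KK_ge KK1)

variable {W : Wnd 18 fun _ => ℕ × ℝ} {E : ∀ n : ℕ, Finset (ℕ × ℝ)} {κ : ℕ → ℝ}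
  {u : ℕ → Fin 18 → ℝ} {f : ℕ → ℕ × ℝ → FW} {lam : (Fin 18 → ℝ) → ℝ} {x : ℝ}

/-- units of the specials -/
noncomputable def sg (W : Wnd 18 fun _ => ℕ × ℝ) (u : ℕ → Fin 18 → ℝ) (n : ℕ) (s : Fin 18) : ℝ :=
  W.kap 0 ^ wtW s * sd W u n s

section

variable (g : PWin W E κ u f {4} lam x)

include g

theorem kap_pos (s : Fin 18) : 0 < W.kap s := g.ww.ok.kap s

theorem sg_pos (n : ℕ) (s : Fin 18) : 0 < sg W u n s :=
  mul_pos (pow_pos (kap_pos g 0) _) (g.ww.sd_pos n s)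

omit g in
theorem rpow_list (d : ℝ) (hd : 0 < d) (X : Fin 18 → ℝ) (l : List (Fin 18)) :
    (l.map fun s => d ^ X s).prod = d ^ (l.map X).sum := by
  induction l with
  | nil => simp
  | cons a l ih =>
    simp only [List.map_cons, List.prod_cons, List.sum_cons, ih]
    rw [Real.rpow_add hd]

omit g in
theorem prod_sg (n : ℕ) (l : List (Fin 18)) :
    (l.map (sg W u n)).prod = (l.map fun s => W.kap 0 ^ wtW s).prod * (l.map (sd W u n)).prod := by
  rw [← List.prod_map_mul]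
  rfl

theorem prod_sd (n : ℕ) (l : List (Fin 18)) :
    (l.map (sd W u n)).prod * (l.map (u n)).prod = (l.map fun s => W.B.d n ^ W.X n s).prod := by
  rw [← List.prod_map_mul]
  congr 1
  refine List.map_congr_left fun s _ => ?_
  have := ((g.ww.hl n).pos s).ne'
  unfold sd
  field_simp

theorem uni_sg {n : ℕ} (gd : W.Good n) : Uni (sg W u n) := by
  have hG := GrU.pow (kap_pos g 0)
  have hs := g.ww.sides gd
  refine ⟨⟨fun s => (sg_pos g n s).le, fun k l hl => ?_⟩, sg_pos g n, fun k hk l hl h4 => ?_⟩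
  · rw [prod_sg, hG.mul k l hl]
    exact mul_le_mul_of_nonneg_left (hs.wall k l hl) (hG.pos k).le
  · rw [prod_sg, hG.mul k l hl]
    have h1 := prod_sd g n l
    rw [(g.ww.hl n).mul k l hl, rpow_list _ (W.B.pos n), ← g.tight k (by simpa using hk) l hl
      (fun s hs hc => h4 (by rwa [mem_singleton.1 hc] at hs)) n] at h1
    have h2 := ((g.ww.hl n).pos k).ne'
    rw [eq_div_of_mul_eq h2 h1]
    rfl

/-- normalised bounds -/
theorem nrm {n : ℕ} {a b : ℕ × ℝ} {s : Fin 18} {D : ℝ} (hD : 0 ≤ D)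
    (h : |coW (κ n) (f n a) (f n b) s| ≤ W.K0 * D * sd W u n s) :
    |coW (κ n) (f n a) (f n b) s| ≤ KK W * D * sg W u n s := by
  have h2 := (KK_ge g).2.1 s
  have h4 := pow_pos (kap_pos g 0) (wtW s)
  have h3 := g.ww.sd_pos n s
  refine h.trans ?_
  unfold sg
  have e : KK W * D * (W.kap 0 ^ wtW s * sd W u n s) =
      KK W * W.kap 0 ^ wtW s * (D * sd W u n s) := by ring
  have e2 : W.K0 * D * sd W u n s = W.K0 * (D * sd W u n s) := by ring
  rw [e, e2]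
  refine mul_le_mul_of_nonneg_right ?_ (mul_nonneg hD h3.le)
  have := mul_le_mul_of_nonneg_right h2 h4.le
  rwa [mul_assoc, inv_mul_cancel₀ h4.ne', mul_one] at this

theorem co_bd {n : ℕ} (gd : W.Good n) {a b : ℕ × ℝ} (ha : a ∈ W.Cl n) (hb : b ∈ W.Cl n)
    (s : Fin 18) : |coW (κ n) (f n a) (f n b) s| ≤ KK W * sg W u n s := by
  have h := nrm g (a := a) (b := b) (s := s) (n := n) zero_le_one
    (by rw [mul_one]; exact g.ww.bnd gd ha hb s)
  rwa [mul_one] at h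

theorem co_lev {n : ℕ} (gd : W.Good n) {a b : ℕ × ℝ} (ha : a ∈ W.Cl n) (hb : b ∈ W.Cl n)
    (hz : W.zc n a = W.zc n b) :
    |coW (κ n) (f n a) (f n b) 0| ≤ KK W * W.B'.d n ^ x * sg W u n 0 :=
  nrm g (Real.rpow_pos_of_pos (W.B'.pos n) _).le
    (g.ww.lev_small gd ha hb hz (s := 0) (t := x) (by rw [g.S]; simp) (g.top 0).ge)

/-- same fat line -/
theorem co_own {n : ℕ} (gd : W.Good n) {a b : ℕ × ℝ} (ha : a ∈ W.Cl n) (hb : b ∈ W.Cl n)
    (hl : W.lc n a = W.lc n b) {s : Fin 18} (h0 : s ≠ 0) :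
    |coW (κ n) (f n a) (f n b) s| ≤ KK W * W.B'.d n ^ x * sg W u n s :=
  nrm g (Real.rpow_pos_of_pos (W.B'.pos n) _).le
    (g.ww.own_small gd ha hb hl (s := s) (t := x) (by rw [g.S]; simpa using h0) (g.top s).ge)

/-- against the coordinates of the window -/
theorem R_crd {n : ℕ} (gd : W.Good n) {a b : ℕ × ℝ} (ha : a ∈ W.Cl n) (hb : b ∈ W.Cl n)
    (s : Fin 18) : coW (κ n) (f n a) (f n b) s / sg W u n s = cs W s * W.crd n a b s := by
  rw [g.ww.crd_eq gd ha hb]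
  unfold sg cs un
  have h1 := (g.ww.sd_pos n s).ne'
  have h2 := (pow_pos (kap_pos g 0) (wtW s)).ne'
  field_simp

end

/-- what is needed of one `n` -/
structure Gn (W : Wnd 18 fun _ => ℕ × ℝ) (E : ∀ n : ℕ, Finset (ℕ × ℝ)) (n : ℕ) : Prop where
  gd : W.Good n
  sub : E n ⊆ W.Cl n
  cfg : W.cfg E n = W.cfg0 n (E n)

theorem gn_ev (g : PWin W E κ u f {4} lam x) : ∀ᶠ n in (U : Filter ℕ), Gn W E n := by
  filter_upwards [g.ev] with n hn
  exact ⟨hn.1, hn.2.1, hn.2.2⟩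

/-- the representatives of an incidence -/
theorem rep_of {n : ℕ} (hn : Gn W E n) {l k : ℕ} (h : (l, k) ∈ (W.cfg E n).I) :
    W.rep n l k ∈ W.Cl n ∧ W.zrep n k ∈ W.Cl n ∧ W.lc n (W.rep n l k) = l ∧
      W.zc n (W.rep n l k) = k ∧ W.zc n (W.zrep n k) = k := by
  rw [hn.cfg] at h
  obtain ⟨y, hy, rfl, rfl⟩ := Wnd.mem_I.1 h
  have hc := hn.sub hy
  obtain ⟨a1, a2, a3⟩ := W.rep_spec hc
  obtain ⟨b1, b2⟩ := W.zrep_spec hc
  exact ⟨a1, b1, a2, a3, b2⟩

section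

variable (g : PWin W E κ u f {4} lam x)

include g

/-- `rel` in terms of `R` -/
theorem R_rel {n : ℕ} (hn : Gn W E n) {l l' k : ℕ} (h : (l, k) ∈ (W.cfg E n).I)
    (h' : (l', k) ∈ (W.cfg E n).I) {s : Fin 18} (hs : s ≠ 0) :
    coW (κ n) (f n (W.rep n l k)) (f n (W.rep n l' k)) s / sg W u n s =
      cs W s * (W.cfg E n).rel k l l' s := by
  rw [R_crd g hn.gd (rep_of hn h).1 (rep_of hn h').1, hn.cfg]
  congr 1
  show _ = if s ∈ W.S then (0 : ℝ) else _
  rw [if_neg (by rw [g.S]; simpa using hs)]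

theorem R_le {n : ℕ} (hn : Gn W E n) {l l' k : ℕ} (h : (l, k) ∈ (W.cfg E n).I)
    (h' : (l', k) ∈ (W.cfg E n).I) {s : Fin 18} (hs : s ≠ 0) :
    |coW (κ n) (f n (W.rep n l k)) (f n (W.rep n l' k)) s / sg W u n s| ≤
      KK W * |(W.cfg E n).rel k l l' s| := by
  rw [R_rel g hn h h' hs, abs_mul, abs_of_pos (cs_pos g s)]
  exact mul_le_mul_of_nonneg_right ((KK_ge g).2.2.1 s) (abs_nonneg _)

theorem rel_le {n : ℕ} (hn : Gn W E n) {l l' k : ℕ} (h : (l, k) ∈ (W.cfg E n).I)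
    (h' : (l', k) ∈ (W.cfg E n).I) {s : Fin 18} (hs : s ≠ 0) :
    |(W.cfg E n).rel k l l' s| ≤
      KK W * |coW (κ n) (f n (W.rep n l k)) (f n (W.rep n l' k)) s / sg W u n s| := by
  have h5 := cs_pos g s
  have e : (W.cfg E n).rel k l l' s =
      (cs W s)⁻¹ * (coW (κ n) (f n (W.rep n l k)) (f n (W.rep n l' k)) s / sg W u n s) := by
    rw [R_rel g hn h h' hs]; field_simp
  calc |(W.cfg E n).rel k l l' s| = (cs W s)⁻¹ *
        |coW (κ n) (f n (W.rep n l k)) (f n (W.rep n l' k)) s / sg W u n s| := by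
        rw [e, abs_mul, abs_of_pos (inv_pos.2 h5)]
    _ ≤ _ := mul_le_mul_of_nonneg_right ((KK_ge g).2.2.2 s) (abs_nonneg _)

/-- **`Tri` at one height** -/
theorem tri_of {n : ℕ} (hn : Gn W E n) {l l' k : ℕ} (h : (l, k) ∈ (W.cfg E n).I)
    (h' : (l', k) ∈ (W.cfg E n).I) {τ : ℝ} (hx : W.B'.d n ^ x ≤ τ)
    (h4 : |(W.cfg E n).rel k l l' 4| ≤ τ) :
    Tri (κ n) (sg W u n) (KK W) τ (f n (W.zrep n k)) (f n (W.rep n l k)) (f n (W.rep n l' k)) := by
  obtain ⟨a1, a2, a3, a4, a5⟩ := rep_of hn h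
  obtain ⟨b1, b2, b3, b4, b5⟩ := rep_of hn h'
  have hK := KK1 g
  have hp := sg_pos g n
  have hd := Real.rpow_pos_of_pos (W.B'.pos n) x
  have hz : ∀ {a b : ℕ × ℝ}, a ∈ W.Cl n → b ∈ W.Cl n → W.zc n a = W.zc n b →
      |coW (κ n) (f n a) (f n b) 0| ≤ KK W * τ * sg W u n 0 := fun ha hb hz =>
    (co_lev g hn.gd ha hb hz).trans (mul_le_mul_of_nonneg_right
      (mul_le_mul_of_nonneg_left hx (by linarith)) (hp 0).le)
  refine
    { κ1 := g.ww.hκ n
      K1 := hK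
      τ0 := hd.le.trans hx
      uni := uni_sg g hn.gd
      b0x := co_bd g hn.gd a2 a1
      b0y := co_bd g hn.gd a2 b1
      bx0 := co_bd g hn.gd a1 a2
      by0 := co_bd g hn.gd b1 a2
      z0x := hz a2 a1 (a5.trans a4.symm)
      z0y := hz a2 b1 (b5.trans b4.symm)
      h4 := ?_ }
  have h5 := R_le g hn h h' (s := 4) (by decide)
  rw [abs_div, abs_of_pos (hp 4), div_le_iff₀ (hp 4)] at h5
  refine h5.trans (mul_le_mul_of_nonneg_right ?_ (hp 4).le)
  exact mul_le_mul_of_nonneg_left h4 (by linarith)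

end

end Crest.Agent.R136.Cub893
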