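import Crest.Agent.R136.Grp_639

/-!
# R136 (S0187), PLAN 2, B4: cutting a class by finitely many real labels (helper639)
-/

set_option autoImplicit false
set_option linter.unusedVariables false

open Finset

namespace Crest.Agent.R136.Cut639

open Crest.Agent.R136.Grp639

/-- **cutting by `n` real labels** -/
theorem precut {ι : Type*} (n : ℕ) : ∀ {Z : Finset ι} (u : ℕ → ι → ℝ) {A d B : ℝ}, 0 ≤ A → 0 < d →
    0 ≤ B → (∀ k, k < n → ∀ T ∈ Z, |u k T| ≤ A) →
    (∀ F ⊆ Z, (∀ k, k < n → ∀ T ∈ F, ∀ T' ∈ F, |u k T - u k T'| ≤ d) → (F.card : ℝ) ≤ B) →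
    (Z.card : ℝ) ≤ (2 * A / d + 1) ^ n * B := by
  induction n with
  | zero =>
    intro Z u A d B hA hd hB hu h
    have := h Z (Finset.Subset.refl Z) (fun k hk => absurd hk (Nat.not_lt_zero k))
    rw [pow_zero, one_mul]
    exact this
  | succ n ih =>
    intro Z u A d B hA hd hB hu h
    have hc : 0 ≤ 2 * A / d + 1 := by positivity
    have h1 : (Z.card : ℝ) ≤ (2 * A / d + 1) * ((2 * A / d + 1) ^ n * B) := by
      refine cells (u n) (u0 := 0) hA hd (by positivity)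
        (fun T hT => by rw [sub_zero]; exact hu n (Nat.lt_succ_self n) T hT) ?_
      intro F hF hFn
      refine ih u hA hd hB (fun k hk T hT => hu k (Nat.lt_succ_of_lt hk) T (hF hT)) ?_
      intro F' hF' hk'
      refine h F' (hF'.trans hF) ?_
      intro k hk T hT T' hT'
      rcases Nat.lt_succ_iff_lt_or_eq.1 hk with h2 | h2
      · exact hk' k h2 T hT T' hT'
      · rw [h2]; exact hFn T (hF' hT) T' (hF' hT')
    calc (Z.card : ℝ) ≤ (2 * A / d + 1) * ((2 * A / d + 1) ^ n * B) := h1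
      _ = (2 * A / d + 1) ^ (n + 1) * B := by ring

/-- the same with `Fin n` labels -/
theorem precutF {ι : Type*} {n : ℕ} {Z : Finset ι} (u : Fin n → ι → ℝ) {A d B : ℝ} (hA : 0 ≤ A)
    (hd : 0 < d) (hB : 0 ≤ B) (hu : ∀ k, ∀ T ∈ Z, |u k T| ≤ A)
    (h : ∀ F ⊆ Z, (∀ k, ∀ T ∈ F, ∀ T' ∈ F, |u k T - u k T'| ≤ d) → (F.card : ℝ) ≤ B) :
    (Z.card : ℝ) ≤ (2 * A / d + 1) ^ n * B := by
  refine precut n (fun k T => if hk : k < n then u ⟨k, hk⟩ T else 0) hA hd hB ?_ ?_
  · intro k hk T hT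
    simp only [hk, dite_true]
    exact hu ⟨k, hk⟩ T hT
  · intro F hF hk
    refine h F hF ?_
    intro k T hT T' hT'
    have := hk k.1 k.2 T hT T' hT'
    simpa [k.2] using this

end Crest.Agent.R136.Cut639
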