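import Crest.Agent.R136.Pl2W_102
import Crest.Agent.R136.KapP_335
import Crest.Agent.R136.Asm1_102

/-!
# R136, PLAN 2 (AL): sub-sheets around a line (helper57)

`sb S T δ` : the sheet `S` restricted to the plank of half-widths `δ w` around its line `T`.
* `sb_shp`, `sb_in`, `sb_exp`, `sb_kap` : it is a legal sheet, `T` lies in it, its curvature extent is
  at least `δ² kapP S`.
-/

set_option autoImplicit false

namespace Crest.Agent.R136.Cuu57

open Crest.Agent.R136.Sh605 Crest.Agent.R136.Tl102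
open Crest.Agent.R136.K4 (Plk4)
open Crest.Agent.R136.Tlt51 (Shp InP)
open Crest.Agent.R136.KapP335 (kapP expP kapP_eq expP_spec expP_eq)

/-- the sheet restricted to the plank `δ w` around its line `T` -/
def sb (S : Plk4) (T : Ln4) (δ : ℝ) : Plk4 where
  j := S.j
  e := S.e
  c := T
  w := fun i => δ * S.w i
  q := S.q
  a := S.a

section

variable {S : Plk4} {T : Ln4} {z0 ρ r δ : ℝ}

theorem inK_sb {S : Plk4} {T : Ln4} {δ z : ℝ} (hw : ∀ i, 0 ≤ S.w i) (hδ : 0 < δ) (hδ1 : δ ≤ 1 / 2)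
    (hT : InK S.e S.c S.w z (T.pos z)) {x : V3} (hx : InK S.e T (dbl3 (fun i => δ * S.w i)) z x) :
    InK S.e S.c (dbl3 S.w) z x := by
  intro i
  have h1 := hT i
  have h2 := hx i
  have e1 : dt (S.e i) (x - S.c.pos z) = dt (S.e i) (x - T.pos z) +
      dt (S.e i) (T.pos z - S.c.pos z) := by
    simp only [dt, Pi.sub_apply]; ring
  rw [e1]
  refine (abs_add_le _ _).trans ?_
  change _ ≤ 2 * S.w i
  change _ ≤ 2 * (δ * S.w i) at h2
  have := mul_le_mul_of_nonneg_right hδ1 (hw i)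
  linarith

/-- the restricted sheet is legal -/
theorem sb_shp (hS : Shp S z0 ρ r) (hw0 : 0 < S.w 0) (hT : InP T S z0 ρ) (hδ : 0 < δ)
    (hδ1 : δ ≤ 1 / 2) (ha : S.a ≤ δ * S.w 0) : Shp (sb S T δ) z0 ρ r := by
  have w2 : 0 < S.w 2 := hw0.trans_le hS.w0_le
  have w1 : 0 < S.w 1 := w2.trans_le hS.w_le
  have hw : ∀ i, 0 ≤ S.w i := by
    intro i; fin_cases i
    · exact hw0.le
    · exact w1.le
    · exact w2.le
  refine
    { ortho := hS.ortho
      isQ := hS.isQ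
      a_le0 := ha
      w0_le := mul_le_mul_of_nonneg_left hS.w0_le hδ.le
      w_le := mul_le_mul_of_nonneg_left hS.w_le hδ.le
      r0_le := hS.r0_le
      st0 := fun z hz hz' x τ hτ h1 h2 => ?_
      sl1 := fun z hz hz' x τ hτ h1 h2 => ?_
      sl2 := fun z hz hz' x τ hτ h1 h2 => ?_ }
  · exact hS.st0 z hz hz' x τ hτ (inK_sb hw hδ hδ1 (hT z hz hz').1 h1)
      (inK_sb hw hδ hδ1 (hT z hz hz').1 h2)
  · have := hS.sl1 z hz hz' x τ hτ (inK_sb hw hδ hδ1 (hT z hz hz').1 h1)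
      (inK_sb hw hδ hδ1 (hT z hz hz').1 h2)
    have e : δ * S.w 0 / (δ * S.w 1) = S.w 0 / S.w 1 := mul_div_mul_left _ _ hδ.ne'
    show |S.q z (x + τ • S.e 1) - S.q z x| ≤ δ * S.w 0 / (δ * S.w 1) * τ
    rw [e]; exact this
  · have := hS.sl2 z hz hz' x τ hτ (inK_sb hw hδ hδ1 (hT z hz hz').1 h1)
      (inK_sb hw hδ hδ1 (hT z hz hz').1 h2)
    have e : δ * S.w 0 / (δ * S.w 2) = S.w 0 / S.w 2 := mul_div_mul_left _ _ hδ.ne'
    show |S.q z (x + τ • S.e 2) - S.q z x| ≤ δ * S.w 0 / (δ * S.w 2) * τ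
    rw [e]; exact this

/-- the line lies in the restricted sheet -/
theorem sb_in (hw : ∀ i, 0 ≤ S.w i) (hT : InP T S z0 ρ) (hδ : 0 < δ) :
    InP T (sb S T δ) z0 ρ := by
  intro z hz hz'
  refine ⟨fun i => ?_, (hT z hz hz').2⟩
  have e : dt (S.e i) (T.pos z - T.pos z) = 0 := by
    simp only [dt, Pi.sub_apply]; ring
  show |dt (S.e i) (T.pos z - T.pos z)| ≤ δ * S.w i
  rw [e, abs_zero]
  exact mul_nonneg hδ.le (hw i)

theorem cmb_fr_smul (e : Fin 3 → V3) (w x : V3) (δ : ℝ) :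
    cmb (fr e (fun i => δ * w i)) x = cmb (fr e w) (fun i => δ * x i) := by
  ext i
  simp only [cmb, fr, Pi.smul_apply, smul_eq_mul]
  ring

/-- the expansion of the restricted sheet -/
theorem sb_exp {b0 b1 : V3} {G : QF} (h : IsExp S.q S.e S.w T z0 ρ b0 b1 G) :
    IsExp (sb S T δ).q (sb S T δ).e (sb S T δ).w T z0 ρ b0 b1 (G.smul δ) := by
  intro ζ x
  show S.q (z0 + ρ * ζ) (T.pos (z0 + ρ * ζ) + cmb (fr S.e (fun i => δ * S.w i)) x) =
    S.q (z0 + ρ * ζ) (T.pos (z0 + ρ * ζ)) + δ * S.w 0 * Fq b0 b1 (G.smul δ) ζ x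
  rw [cmb_fr_smul, h ζ fun i => δ * x i]
  simp only [Fq, dt, bz, QF.ev, QF.smul]
  ring

theorem kap_smul_ge {b0 b1 : V3} {G : QF} (hδ : 0 ≤ δ) (hδ1 : δ ≤ 1) :
    δ * kap b0 b1 G ≤ kap b0 b1 (G.smul δ) := by
  have e1 : (shG b0 (G.smul δ)).uu = δ * (shG b0 G).uu := by
    simp only [shG, QF.smul]; ring
  have e2 : (shG b0 (G.smul δ)).uv = δ * (shG b0 G).uv := by
    simp only [shG, QF.smul]; ring
  have e3 : (shG b0 (G.smul δ)).vv = δ * (shG b0 G).vv := by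
    simp only [shG, QF.smul]; ring
  unfold kap
  rw [e1, e2, e3, abs_mul, abs_mul, abs_mul, abs_of_nonneg hδ,
    mul_max_of_nonneg _ _ hδ, mul_max_of_nonneg _ _ hδ, mul_max_of_nonneg _ _ hδ,
    mul_max_of_nonneg _ _ hδ]
  refine max_le_max (max_le_max ?_ ?_) le_rfl
  · calc δ * |shB1 b0 b1 1| ≤ 1 * |shB1 b0 b1 1| :=
        mul_le_mul_of_nonneg_right hδ1 (abs_nonneg _)
      _ = _ := one_mul _
  · calc δ * |shB1 b0 b1 2| ≤ 1 * |shB1 b0 b1 2| :=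
        mul_le_mul_of_nonneg_right hδ1 (abs_nonneg _)
      _ = _ := one_mul _

theorem kap_smul_le {b0 b1 : V3} {G : QF} (hδ : 0 ≤ δ) (hδ1 : δ ≤ 1) :
    kap b0 b1 (G.smul δ) ≤ kap b0 b1 G := by
  have e1 : (shG b0 (G.smul δ)).uu = δ * (shG b0 G).uu := by
    simp only [shG, QF.smul]; ring
  have e2 : (shG b0 (G.smul δ)).uv = δ * (shG b0 G).uv := by
    simp only [shG, QF.smul]; ring
  have e3 : (shG b0 (G.smul δ)).vv = δ * (shG b0 G).vv := by
    simp only [shG, QF.smul]; ring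
  have key : ∀ x : ℝ, δ * |x| ≤ |x| := fun x => by
    calc δ * |x| ≤ 1 * |x| := mul_le_mul_of_nonneg_right hδ1 (abs_nonneg _)
      _ = _ := one_mul _
  unfold kap
  rw [e1, e2, e3, abs_mul, abs_mul, abs_mul, abs_of_nonneg hδ]
  exact max_le_max le_rfl (max_le_max (max_le_max (key _) (key _)) (key _))

/-- curvature extent of the restricted sheet -/
theorem sb_kap (hw : 0 < S.w 0) (hq : IsQ S.q) (hδ : 0 < δ) (hδ1 : δ ≤ 1) :
    δ ^ 2 * kapP S z0 ρ T ≤ kapP (sb S T δ) z0 ρ T := by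
  have h := expP_spec hq hw.ne' z0 ρ T
  have hs := sb_exp (δ := δ) h
  have hw' : (sb S T δ).w 0 ≠ 0 := (mul_pos hδ hw).ne'
  rw [kapP_eq hw.ne' h, kapP_eq hw' hs]
  show δ ^ 2 * (S.w 0 * kap _ _ _) ≤ δ * S.w 0 * kap _ _ _
  have := kap_smul_ge (b0 := (expP S z0 ρ T).1) (b1 := (expP S z0 ρ T).2.1)
    (G := (expP S z0 ρ T).2.2) hδ.le hδ1
  calc δ ^ 2 * (S.w 0 * kap (expP S z0 ρ T).1 (expP S z0 ρ T).2.1 (expP S z0 ρ T).2.2) =
      δ * S.w 0 * (δ * kap (expP S z0 ρ T).1 (expP S z0 ρ T).2.1 (expP S z0 ρ T).2.2) := by ring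
    _ ≤ _ := mul_le_mul_of_nonneg_left this (by positivity)

end

end Crest.Agent.R136.Cuu57
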