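import Crest.Agent.R136.Cuu1_57
import Crest.Agent.R136.Adj_214

/-!
# R136, PLAN 2 (AL): division by a sheet, consequences at a point (helper57)

* `yc_le'`, `pt_chart` : a point of the doubled box with small `q` is a chart point with small
  coordinates;
* `val_of_div` : the value of `q'` there;
* `lin`, `mu_le`, `e0_le` : linear part of the division at the base point: bound of the multiplier,
  the point lies in the box of the second sheet.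
-/

set_option autoImplicit false

namespace Crest.Agent.R136.Cuu57

open Crest.Agent.R136.Sh605 Crest.Agent.R136.Tl102
open Crest.Agent.R136.K4 (Plk4)
open Crest.Agent.R136.Tlt51 (Shp InP)
open Crest.Agent.R136.Deep51 (CloseC)
open Crest.Agent.R136.Rk601 (Jt dp qf)
open Crest.Agent.R136.Adj214 (cx ev JB KD)

/-- height over the tangent plane (102's `yc_le`, point of the doubled box) -/
theorem yc_le' {e : Fin 3 → V3} {c : Ln4} {w : V3} {q : ℝ → V3 → ℝ} {z0 ρ : ℝ}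
    (S : StP e c w q z0 ρ) (hρ : 0 ≤ ρ) {T : Ln4}
    (hT : ∀ z, z0 ≤ z → z ≤ z0 + ρ → InK e c w z (T.pos z)) {b0 b1 : V3} {G : QF}
    (hE : IsExp q e w T z0 ρ b0 b1 G) {ζ : ℝ} (hζ : 0 ≤ ζ) (hζ' : ζ ≤ 1) {X : V3}
    (hXK : InK e c (dbl3 w) (z0 + ρ * ζ) X) {r : ℝ} (hr : r ≤ 1 / 8)
    (h1 : |pc e w T (z0 + ρ * ζ) X 1| ≤ r) (h2 : |pc e w T (z0 + ρ * ζ) X 2| ≤ r) :
    w 0 * |yc b0 (pc e w T (z0 + ρ * ζ) X)| ≤
      2 * (|q (z0 + ρ * ζ) X| + |q (z0 + ρ * ζ) (T.pos (z0 + ρ * ζ))|) +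
        5 * r * (w 0 * kap b0 b1 G) := by
  have N := hE.nrmC S hρ hT
  obtain ⟨g1, g2, -, -, -, -, -, s1, s2⟩ := N.b1_le
  have hr0 : 0 ≤ r := (abs_nonneg _).trans h1
  have hw0 := S.pos 0
  have hwn : ∀ i, 0 ≤ w i := fun i => (S.pos i).le
  have hwne : ∀ i, w i ≠ 0 := fun i => (S.pos i).ne'
  set z := z0 + ρ * ζ with hz
  have z1 : z0 ≤ z := by rw [hz]; nlinarith
  have z2 : z ≤ z0 + ρ := by rw [hz]; nlinarith
  set x := pc e w T z X with hx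
  set y := yc b0 x with hy
  -- the base point over the tangent plane
  set P := T.pos z + cmb (fr e w) (unsh b0 0 (x 1) (x 2)) with hP
  have hxX : T.pos z + cmb (fr e w) x = X := cmb_pc S.ortho hwne T z X
  have hu0 : ∀ i, |(unsh b0 0 (x 1) (x 2)) i| ≤ 1 := by
    intro i
    fin_cases i
    · change |0 - b0 1 / b0 0 * x 1 - b0 2 / b0 0 * x 2| ≤ 1
      have a1 := mul_abs_le s1 h1
      have a2 := mul_abs_le s2 h2
      rw [abs_le] at a1 a2 ⊢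
      constructor <;> linarith [a1.1, a1.2, a2.1, a2.2]
    · exact h1.trans (by linarith)
    · exact h2.trans (by linarith)
  have hPK : InK e c (dbl3 w) z P := inK_cmb S.ortho hwn (hT z z1 z2) hu0
  -- X = P + (y w0) e0
  have hXP : X = P + (y * w 0) • e 0 := by
    rw [← hxX, hP]
    ext i
    have e0 : x 0 = y - b0 1 / b0 0 * x 1 - b0 2 / b0 0 * x 2 := by rw [hy]; unfold yc; ring
    simp only [Pi.add_apply, cmb, fr, Pi.smul_apply, smul_eq_mul, unsh, Matrix.cons_val, e0]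
    ring
  -- steepness
  have hst : w 0 * |y| ≤ 2 * |q z X - q z P| := by
    rcases le_total 0 y with h0 | h0
    · have hy0 : 0 ≤ y * w 0 := mul_nonneg h0 hw0.le
      have := (S.st0 z z1 z2 P (y * w 0) hy0 hPK (by rw [← hXP]; exact hXK)).1
      rw [← hXP] at this
      rw [abs_of_nonneg h0]
      have h3 := le_abs_self (q z X - q z P)
      have h4 : w 0 * y = y * w 0 := by ring
      rw [h4]; linarith
    · have hy0 : 0 ≤ -y * w 0 := mul_nonneg (by linarith) hw0.le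
      have hPX : P = X + (-y * w 0) • e 0 := by
        rw [hXP]
        ext i
        simp only [Pi.add_apply, Pi.smul_apply, smul_eq_mul]
        ring
      have := (S.st0 z z1 z2 X (-y * w 0) hy0 hXK (by rw [← hPX]; exact hPK)).1
      rw [← hPX] at this
      rw [abs_of_nonpos h0, abs_sub_comm]
      have h3 := le_abs_self (q z P - q z X)
      have h4 : w 0 * -y = -y * w 0 := by ring
      rw [h4]; linarith
  -- the value at P
  have hPv : q z P = q z (T.pos z) + w 0 * Fq (shB0 b0) (shB1 b0 b1) (shG b0 G) ζ ![0, x 1, x 2] := by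
    rw [← Fq_unsh (by linarith : b0 0 ≠ 0), hP, hz]
    exact hE ζ _
  have hF : |Fq (shB0 b0) (shB1 b0 b1) (shG b0 G) ζ ![0, x 1, x 2]| ≤ 5 / 2 * r * kap b0 b1 G := by
    have k1 : |shB1 b0 b1 1| ≤ kap b0 b1 G := (le_max_left _ _).trans (le_max_left _ _)
    have k2 : |shB1 b0 b1 2| ≤ kap b0 b1 G := (le_max_right _ _).trans (le_max_left _ _)
    have k3 : |(shG b0 G).uu| ≤ kap b0 b1 G :=
      (le_max_left _ _).trans ((le_max_left _ _).trans (le_max_right _ _))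
    have k4 : |(shG b0 G).uv| ≤ kap b0 b1 G :=
      (le_max_right _ _).trans ((le_max_left _ _).trans (le_max_right _ _))
    have k5 : |(shG b0 G).vv| ≤ kap b0 b1 G := (le_max_right _ _).trans (le_max_right _ _)
    have k0 := kap_nonneg b0 b1 G
    have hζa : |ζ| ≤ 1 := by rw [abs_of_nonneg hζ]; exact hζ'
    have e1 : Fq (shB0 b0) (shB1 b0 b1) (shG b0 G) ζ ![0, x 1, x 2] =
        ζ * shB1 b0 b1 1 * x 1 + ζ * shB1 b0 b1 2 * x 2 + ((shG b0 G).uu * (x 1 * x 1) +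
          (shG b0 G).uv * (x 1 * x 2) + (shG b0 G).vv * (x 2 * x 2)) := by
      simp only [Fq, dt, bz, QF.ev, shB0, Matrix.cons_val]
      ring
    rw [e1]
    have a1 := mul_abs_le (mul_abs_le hζa k1) h1
    have a2 := mul_abs_le (mul_abs_le hζa k2) h2
    have a3 := mul_abs_le k3 (mul_abs_le h1 h1)
    have a4 := mul_abs_le k4 (mul_abs_le h1 h2)
    have a5 := mul_abs_le k5 (mul_abs_le h2 h2)
    refine (Arc880.abs_add2 (Arc880.abs_add2 a1 a2)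
      (Arc880.abs_add2 (Arc880.abs_add2 a3 a4) a5)).trans ?_
    have a6 : kap b0 b1 G * (r * r) ≤ kap b0 b1 G * (r * (1 / 8)) := by gcongr
    nlinarith
  have h3 : |q z X - q z P| ≤ (|q z X| + |q z (T.pos z)|) + w 0 * (5 / 2 * r * kap b0 b1 G) := by
    rw [hPv]
    have e1 : q z X - (q z (T.pos z) + w 0 * Fq (shB0 b0) (shB1 b0 b1) (shG b0 G) ζ ![0, x 1, x 2]) =
        (q z X - q z (T.pos z)) -
          w 0 * Fq (shB0 b0) (shB1 b0 b1) (shG b0 G) ζ ![0, x 1, x 2] := by ring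
    rw [e1]
    refine (abs_sub _ _).trans (add_le_add (abs_sub _ _) ?_)
    rw [abs_mul, abs_of_pos hw0]
    exact mul_le_mul_of_nonneg_left hF hw0.le
  calc w 0 * |y| ≤ 2 * |q z X - q z P| := hst
    _ ≤ 2 * ((|q z X| + |q z (T.pos z)|) + w 0 * (5 / 2 * r * kap b0 b1 G)) := by linarith
    _ = _ := by ring


section

variable {e : Fin 3 → V3} {c T : Ln4} {w : V3} {q : ℝ → V3 → ℝ} {z0 ρ : ℝ} {b0 b1 : V3} {G : QF}

/-- **a point near the sheet is a chart point** -/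
theorem pt_chart (S : StP e c w q z0 ρ) (hρ : 0 ≤ ρ)
    (hT : ∀ z, z0 ≤ z → z ≤ z0 + ρ → InK e c w z (T.pos z))
    (hE : IsExp q e w T z0 ρ b0 b1 G) (hκ : 0 < kap b0 b1 G) {ζ : ℝ} (hζ : 0 ≤ ζ) (hζ' : ζ ≤ 1)
    {X : V3} (hXK : InK e c (dbl3 w) (z0 + ρ * ζ) X) {s A : ℝ} (hs : s ≤ 1 / 8)
    (h1 : |dt (e 1) (X - T.pos (z0 + ρ * ζ))| ≤ s * w 1)
    (h2 : |dt (e 2) (X - T.pos (z0 + ρ * ζ))| ≤ s * w 2)
    (hA : |q (z0 + ρ * ζ) X| + |q (z0 + ρ * ζ) (T.pos (z0 + ρ * ζ))| ≤ A) :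
    ∃ y u v, X = cx e w b0 (kap b0 b1 G) z0 ρ T ζ y u v ∧ |u| ≤ 256 * s ∧ |v| ≤ 256 * s ∧
      |y| ≤ 512 * (A / (w 0 * kap b0 b1 G)) + 1280 * s := by
  have hw0 := S.pos 0
  have hwne : ∀ i, w i ≠ 0 := fun i => (S.pos i).ne'
  have p : ∀ k, pc e w T (z0 + ρ * ζ) X k = dt (e k) (X - T.pos (z0 + ρ * ζ)) / w k := fun k => rfl
  have g : ∀ k, |dt (e k) (X - T.pos (z0 + ρ * ζ))| ≤ s * w k →
      |pc e w T (z0 + ρ * ζ) X k| ≤ s := by
    intro k hk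
    rw [p, abs_div, abs_of_pos (S.pos k), div_le_iff₀ (S.pos k)]
    exact hk
  have g1 := g 1 h1
  have g2 := g 2 h2
  have hy := yc_le' S hρ hT hE hζ hζ' hXK hs g1 g2
  set x := pc e w T (z0 + ρ * ζ) X with hx
  set κ := kap b0 b1 G with hκd
  refine ⟨256 * yc b0 x / κ, 256 * x 1, 256 * x 2, ?_, ?_, ?_, ?_⟩
  · unfold cx
    have e0 : κ * (1 / 256 * (256 * yc b0 x / κ)) = yc b0 x := by field_simp
    have e1 : 1 / 256 * (256 * x 1) = x 1 := by ring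
    have e2 : 1 / 256 * (256 * x 2) = x 2 := by ring
    rw [e0, e1, e2, unsh_yc]
    exact (cmb_pc S.ortho hwne T (z0 + ρ * ζ) X).symm
  · rw [abs_mul, abs_of_pos (by norm_num : (0 : ℝ) < 256)]; linarith
  · rw [abs_mul, abs_of_pos (by norm_num : (0 : ℝ) < 256)]; linarith
  · have hwk : 0 < w 0 * κ := mul_pos hw0 hκ
    rw [abs_div, abs_mul, abs_of_pos (by norm_num : (0 : ℝ) < 256), abs_of_pos hκ]
    have h3 : w 0 * |yc b0 x| ≤ 2 * A + 5 * s * (w 0 * κ) := by linarith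
    have h4 : 256 * |yc b0 x| / κ = 256 * (w 0 * |yc b0 x|) / (w 0 * κ) := by
      field_simp
    rw [h4, div_le_iff₀ hwk]
    have h5 : (512 * (A / (w 0 * κ)) + 1280 * s) * (w 0 * κ) = 512 * A + 1280 * s * (w 0 * κ) := by
      field_simp
    rw [h5]
    linarith

/-- increment of a jet with bounded coefficients -/
theorem ev_le {K c' : ℝ} {D : Jt} (h : JB K c' D) {ζ y u v M : ℝ} (hζ : |ζ| ≤ 1) (hM1 : 0 ≤ M)
    (hM : M ≤ 1) (hy : |y| ≤ M) (hu : |u| ≤ M) (hv : |v| ≤ M) :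
    |ev D y ![ζ, u, v] - ev D 0 ![ζ, 0, 0]| ≤ 12 * K * M := by
  have hK : 0 ≤ K := (abs_nonneg _).trans h.c
  have m1 : ∀ {x t : ℝ}, |x| ≤ K → |t| ≤ M → |x * t| ≤ K * M := fun hx ht => mul_abs_le hx ht
  have m2 : ∀ {x t t' : ℝ}, |x| ≤ K → |t| ≤ 1 → |t'| ≤ M → |x * (t * t')| ≤ K * M := by
    intro x t t' hx ht ht'
    have := mul_abs_le hx (mul_abs_le ht ht')
    rwa [one_mul] at this
  have hy1 : |y| ≤ 1 := hy.trans hM
  have hu1 : |u| ≤ 1 := hu.trans hM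
  have hv1 : |v| ≤ 1 := hv.trans hM
  have e : ev D y ![ζ, u, v] - ev D 0 ![ζ, 0, 0] = D.a0 * y + D.a 1 * u + D.a 2 * v +
      (1 / 2 * (D.h00 * (y * y)) + D.h0 0 * (ζ * y) + D.h0 1 * (u * y) + D.h0 2 * (v * y)) +
      (D.h 0 1 * (ζ * u) + D.h 0 2 * (ζ * v) + 1 / 2 * (D.h 1 1 * (u * u)) + D.h 1 2 * (u * v) +
        1 / 2 * (D.h 2 2 * (v * v))) := by
    simp only [ev, dp, qf, Fin.sum_univ_three, Matrix.cons_val]
    rw [h.sym 1 0, h.sym 2 0, h.sym 2 1]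
    ring
  rw [e]
  have t0 := m1 h.a0 hy
  have t1 := m1 (h.a 1) hu
  have t2 := m1 (h.a 2) hv
  have t3 := m2 h.h00 hy1 hy
  have t4 := m2 (h.h0 0) hζ hy
  have t5 := m2 (h.h0 1) hu1 hy
  have t6 := m2 (h.h0 2) hv1 hy
  have t7 := m2 (h.h 0 1) hζ hu
  have t8 := m2 (h.h 0 2) hζ hv
  have t9 := m2 (h.h 1 1) hu1 hu
  have t10 := m2 (h.h 1 2) hu1 hv
  have t11 := m2 (h.h 2 2) hv1 hv
  have hKM : 0 ≤ K * M := mul_nonneg hK hM1
  rw [abs_le] at *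
  constructor <;> linarith [t0.1, t0.2, t1.1, t1.2, t2.1, t2.2, t3.1, t3.2, t4.1, t4.2, t5.1, t5.2,
    t6.1, t6.2, t7.1, t7.2, t8.1, t8.2, t9.1, t9.2, t10.1, t10.2, t11.1, t11.2]

/-- the division identity -/
def Dvd (e : Fin 3 → V3) (w b0 : V3) (κ z0 ρ : ℝ) (T : Ln4) (q q' : ℝ → V3 → ℝ) (μ c' : ℝ)
    (D : Jt) : Prop :=
  ∀ ζ y u v, q' (z0 + ρ * ζ) (cx e w b0 κ z0 ρ T ζ y u v) -
    μ * q (z0 + ρ * ζ) (cx e w b0 κ z0 ρ T ζ y u v) = c' + ev D y ![ζ, u, v]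

/-- value of the second function at a chart point -/
theorem val_of_div {κ : ℝ} {q' : ℝ → V3 → ℝ} {μ c' K : ℝ} {D : Jt}
    (hid : Dvd e w b0 κ z0 ρ T q q' μ c' D) (hD : JB K c' D) {ζ y u v M : ℝ} (hζ : |ζ| ≤ 1)
    (hM1 : 0 ≤ M) (hM : M ≤ 1) (hy : |y| ≤ M) (hu : |u| ≤ M) (hv : |v| ≤ M) :
    |q' (z0 + ρ * ζ) (cx e w b0 κ z0 ρ T ζ y u v)| ≤
      |μ| * (|q (z0 + ρ * ζ) (cx e w b0 κ z0 ρ T ζ y u v)| +
        |q (z0 + ρ * ζ) (T.pos (z0 + ρ * ζ))|) +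
      |q' (z0 + ρ * ζ) (T.pos (z0 + ρ * ζ))| + 12 * K * M := by
  have h1 := hid ζ y u v
  have h2 := hid ζ 0 0 0
  have e0 : cx e w b0 κ z0 ρ T ζ 0 0 0 = T.pos (z0 + ρ * ζ) := by
    funext i
    simp only [cx, cmb, fr, unsh, Pi.add_apply, Pi.smul_apply, smul_eq_mul, Matrix.cons_val]
    ring
  rw [e0] at h2
  have h3 := ev_le hD hζ hM1 hM hy hu hv
  set X := cx e w b0 κ z0 ρ T ζ y u v
  set P := T.pos (z0 + ρ * ζ)
  have e1 : q' (z0 + ρ * ζ) X = μ * (q (z0 + ρ * ζ) X - q (z0 + ρ * ζ) P) + q' (z0 + ρ * ζ) P +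
      (ev D y ![ζ, u, v] - ev D 0 ![ζ, 0, 0]) := by linarith
  rw [e1]
  refine (abs_add_le _ _).trans (add_le_add ((abs_add_le _ _).trans (add_le_add ?_ le_rfl)) h3)
  rw [abs_mul]
  exact mul_le_mul_of_nonneg_left (abs_sub _ _) (abs_nonneg _)

/-- **linear part of the division at the base point** -/
theorem lin {κ : ℝ} {q' : ℝ → V3 → ℝ} {μ c' : ℝ} {D : Jt} {b0' b1' : V3} {G' : QF}
    (hE : IsExp q e w T z0 ρ b0 b1 G) (hE' : IsExp q' e w T z0 ρ b0' b1' G')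
    (hid : Dvd e w b0 κ z0 ρ T q q' μ c' D) (y u v : ℝ) :
    w 0 * dt b0' (unsh b0 (κ * (1 / 256 * y)) (1 / 256 * u) (1 / 256 * v)) =
      μ * (w 0 * dt b0 (unsh b0 (κ * (1 / 256 * y)) (1 / 256 * u) (1 / 256 * v))) +
        (D.a0 * y + D.a 1 * u + D.a 2 * v) := by
  have h1 := hid 0 y u v
  have h2 := hid 0 (-y) (-u) (-v)
  unfold cx at h1 h2
  rw [hE, hE'] at h1 h2
  simp only [Fq, bz, dt, QF.ev, unsh, ev, dp, qf, Fin.sum_univ_three, Matrix.cons_val] at h1 h2 ⊢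
  linarith

theorem dt_unsh (h : b0 0 ≠ 0) (y u v : ℝ) : dt b0 (unsh b0 y u v) = b0 0 * y := by
  simp only [dt, unsh, Matrix.cons_val]
  field_simp
  ring

/-- **bound of the multiplier** -/
theorem mu_le {e' : Fin 3 → V3} {w' : V3} {q' : ℝ → V3 → ℝ} {μ c' K : ℝ} {D : Jt}
    {d0 d1 : V3} {H : QF} (he : Ortho e) (he' : Ortho e') (hw : ∀ k, 0 < w k) (hw' : ∀ k, 0 < w' k)
    (hw1 : w' 0 ≤ w' 1) (hw2 : w' 0 ≤ w' 2) (hq' : IsQ q')
    (N : NrmC b0 b1 G) (N' : NrmC d0 d1 H) (hκ : 0 < kap b0 b1 G)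
    (hE : IsExp q e w T z0 ρ b0 b1 G) (hH : IsExp q' e' w' T z0 ρ d0 d1 H)
    (hid : Dvd e w b0 (kap b0 b1 G) z0 ρ T q q' μ c' D) (hD : JB K c' D) :
    |μ| ≤ 8 + 512 * (K / (w 0 * kap b0 b1 G)) := by
  obtain ⟨b0', b1', G', hE'⟩ := exists_isExp hq' e (hw 0).ne' T z0 ρ
  have hwne : ∀ k, w k ≠ 0 := fun k => (hw k).ne'
  have hwne' : ∀ k, w' k ≠ 0 := fun k => (hw' k).ne'
  obtain ⟨g1, g2, -⟩ := N.b1_le
  obtain ⟨k1, k2, -⟩ := N'.b1_le
  -- the normal derivative of `q'`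
  have hb : |b0' 0| ≤ 4 := by
    have hc := (cross he he' hwne hwne' hE' hH (w 0 • e 0)).1
    have e1 : pv e w (w 0 • e 0) = ![1, 0, 0] := by
      funext k
      fin_cases k
      · show dt (e 0) (w 0 • e 0) / w 0 = 1
        have := he 0 0
        rw [dt_smul, this]; simp [hwne 0]
      · show dt (e 1) (w 0 • e 0) / w 1 = 0
        have := he 1 0
        rw [dt_smul, this]; simp
      · show dt (e 2) (w 0 • e 0) / w 2 = 0
        have := he 2 0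
        rw [dt_smul, this]; simp
    have e2 : dt b0' (pv e w (w 0 • e 0)) = b0' 0 := by
      rw [e1]; simp only [dt, Matrix.cons_val]; ring
    have e3 : ∀ k, pv e' w' (w 0 • e 0) k = w 0 * dt (e' k) (e 0) / w' k := by
      intro k
      show dt (e' k) (w 0 • e 0) / w' k = _
      rw [dt_smul]
    rw [e2] at hc
    have e4 : dt d0 (pv e' w' (w 0 • e 0)) = w 0 * (d0 0 * (dt (e' 0) (e 0) / w' 0) +
        d0 1 * (dt (e' 1) (e 0) / w' 1) + d0 2 * (dt (e' 2) (e 0) / w' 2)) := by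
      show d0 0 * pv e' w' (w 0 • e 0) 0 + d0 1 * pv e' w' (w 0 • e 0) 1 +
        d0 2 * pv e' w' (w 0 • e 0) 2 = _
      rw [e3, e3, e3]; ring
    rw [e4] at hc
    have e5 : b0' 0 = d0 0 * dt (e' 0) (e 0) + d0 1 * (dt (e' 1) (e 0) * (w' 0 / w' 1)) +
        d0 2 * (dt (e' 2) (e 0) * (w' 0 / w' 2)) := by
      have h0 := hwne 0
      have h3 : w 0 * b0' 0 = w 0 * (d0 0 * dt (e' 0) (e 0) +
          d0 1 * (dt (e' 1) (e 0) * (w' 0 / w' 1)) + d0 2 * (dt (e' 2) (e 0) * (w' 0 / w' 2))) := by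
        rw [hc]
        have := hwne' 0
        have := hwne' 1
        have := hwne' 2
        field_simp
      exact mul_left_cancel₀ h0 h3
    have l1 : |w' 0 / w' 1| ≤ 1 := by
      rw [abs_of_pos (div_pos (hw' 0) (hw' 1)), div_le_one (hw' 1)]; exact hw1
    have l2 : |w' 0 / w' 2| ≤ 1 := by
      rw [abs_of_pos (div_pos (hw' 0) (hw' 2)), div_le_one (hw' 2)]; exact hw2
    have d00 : |d0 0| ≤ 2 := by rw [abs_of_pos (by linarith)]; exact k2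
    rw [e5]
    have t0 := mul_abs_le d00 (dt_le_one he' he 0 0)
    have t1 := mul_abs_le N'.b01 (mul_abs_le (dt_le_one he' he 1 0) l1)
    have t2 := mul_abs_le N'.b02 (mul_abs_le (dt_le_one he' he 2 0) l2)
    rw [abs_le] at t0 t1 t2 ⊢
    constructor <;> linarith [t0.1, t0.2, t1.1, t1.2, t2.1, t2.2]
  -- linear part along `y`
  have hl := lin hE hE' hid 1 0 0
  have hwk : 0 < w 0 * kap b0 b1 G := mul_pos (hw 0) hκ
  have e1 : dt b0' (unsh b0 (kap b0 b1 G * (1 / 256 * 1)) (1 / 256 * 0) (1 / 256 * 0)) =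
      b0' 0 * (kap b0 b1 G * (1 / 256)) := by
    simp only [dt, unsh, Matrix.cons_val]; ring
  have e2 : dt b0 (unsh b0 (kap b0 b1 G * (1 / 256 * 1)) (1 / 256 * 0) (1 / 256 * 0)) =
      b0 0 * (kap b0 b1 G * (1 / 256)) := by
    simp only [dt, unsh, Matrix.cons_val]; ring
  rw [e1, e2, mul_zero, mul_zero, add_zero, add_zero, mul_one] at hl
  have h3 : μ * b0 0 = b0' 0 - D.a0 * (256 / (w 0 * kap b0 b1 G)) := by
    have h6 : D.a0 = (w 0 * kap b0 b1 G) * ((b0' 0 - μ * b0 0) * (1 / 256)) := by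
      linear_combination (-1 : ℝ) * hl
    have h7 : (w 0 * kap b0 b1 G) * ((b0' 0 - μ * b0 0) * (1 / 256)) *
        (256 / (w 0 * kap b0 b1 G)) = b0' 0 - μ * b0 0 := by
      have h8 := hwk.ne'
      rw [mul_comm (w 0 * kap b0 b1 G), mul_assoc, mul_div_cancel₀ _ h8]
      ring
    rw [h6, h7]; ring
  have h4 : |μ * b0 0| ≤ 4 + K * (256 / (w 0 * kap b0 b1 G)) := by
    rw [h3]
    refine (abs_sub _ _).trans (add_le_add hb ?_)
    rw [abs_mul, abs_of_pos (div_pos (by norm_num : (0 : ℝ) < 256) hwk)]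
    exact mul_le_mul_of_nonneg_right hD.a0 (by positivity)
  rw [abs_mul, abs_of_pos (by linarith : 0 < b0 0)] at h4
  have h5 : |μ| * (1 / 2) ≤ |μ| * b0 0 := mul_le_mul_of_nonneg_left g1 (abs_nonneg _)
  have e3 : K * (256 / (w 0 * kap b0 b1 G)) = 256 * (K / (w 0 * kap b0 b1 G)) := by ring
  rw [e3] at h4
  linarith

/-- **the chart point in the frame of the second sheet** -/
theorem e0_le {e' : Fin 3 → V3} {w' : V3} {q' : ℝ → V3 → ℝ} {μ c' K : ℝ} {D : Jt}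
    {d0 d1 : V3} {H : QF} (he : Ortho e) (he' : Ortho e') (hw : ∀ k, 0 < w k) (hw' : ∀ k, 0 < w' k)
    (hq' : IsQ q') (N : NrmC b0 b1 G) (N' : NrmC d0 d1 H)
    (hE : IsExp q e w T z0 ρ b0 b1 G) (hH : IsExp q' e' w' T z0 ρ d0 d1 H)
    (hid : Dvd e w b0 (kap b0 b1 G) z0 ρ T q q' μ c' D) (hD : JB K c' D) {ζ y u v M s' : ℝ}
    (hy : |y| ≤ M) (hu : |u| ≤ M) (hv : |v| ≤ M) {X : V3}
    (hX : X = cx e w b0 (kap b0 b1 G) z0 ρ T ζ y u v)
    (h1 : |dt (e' 1) (X - T.pos (z0 + ρ * ζ))| ≤ s' * w' 1)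
    (h2 : |dt (e' 2) (X - T.pos (z0 + ρ * ζ))| ≤ s' * w' 2) :
    |dt (e' 0) (X - T.pos (z0 + ρ * ζ))| ≤
      2 * (|μ| * (w 0 * kap b0 b1 G) * M + 3 * K * M + 2 * s' * w' 0) := by
  obtain ⟨b0', b1', G', hE'⟩ := exists_isExp hq' e (hw 0).ne' T z0 ρ
  have hwne : ∀ k, w k ≠ 0 := fun k => (hw k).ne'
  have hwne' : ∀ k, w' k ≠ 0 := fun k => (hw' k).ne'
  obtain ⟨g1, g2, -⟩ := N.b1_le
  obtain ⟨k1, k2, -⟩ := N'.b1_le
  have hκ0 := kap_nonneg b0 b1 G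
  have hM0 : 0 ≤ M := (abs_nonneg _).trans hy
  have hK : 0 ≤ K := (abs_nonneg _).trans hD.c
  set V := X - T.pos (z0 + ρ * ζ) with hV
  have hVc : V = cmb (fr e w) (unsh b0 (kap b0 b1 G * (1 / 256 * y)) (1 / 256 * u) (1 / 256 * v)) := by
    rw [hV, hX]; unfold cx; exact add_sub_cancel_left _ _
  have hpv : pv e w V = unsh b0 (kap b0 b1 G * (1 / 256 * y)) (1 / 256 * u) (1 / 256 * v) := by
    funext k
    show dt (e k) V / w k = _
    rw [hVc, dt_cmb_fr he, mul_div_cancel_left₀ _ (hwne k)]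
  have hc := (cross he he' hwne hwne' hE' hH V).1
  rw [hpv, lin hE hE' hid, dt_unsh (by linarith : b0 0 ≠ 0)] at hc
  have e1 : dt d0 (pv e' w' V) = d0 0 * (dt (e' 0) V / w' 0) + d0 1 * (dt (e' 1) V / w' 1) +
      d0 2 * (dt (e' 2) V / w' 2) := rfl
  rw [e1] at hc
  have hk : ∀ k, |dt (e' k) V| ≤ s' * w' k → |dt (e' k) V / w' k| ≤ s' := by
    intro k h
    rw [abs_div, abs_of_pos (hw' k), div_le_iff₀ (hw' k)]; exact h
  have p1 := hk 1 h1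
  have p2 := hk 2 h2
  have hs' : 0 ≤ s' := (abs_nonneg _).trans p1
  have e2 : d0 0 * dt (e' 0) V = μ * (w 0 * (b0 0 * (kap b0 b1 G * (1 / 256 * y)))) +
      (D.a0 * y + D.a 1 * u + D.a 2 * v) - w' 0 * (d0 1 * (dt (e' 1) V / w' 1)) -
      w' 0 * (d0 2 * (dt (e' 2) V / w' 2)) := by
    rw [hc]
    have := hwne' 0
    field_simp
    ring
  have t0 : |w 0 * (b0 0 * (kap b0 b1 G * (1 / 256 * y)))| ≤ w 0 * kap b0 b1 G * M := by
    have e3 : w 0 * (b0 0 * (kap b0 b1 G * (1 / 256 * y))) =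
        (w 0 * kap b0 b1 G) * (b0 0 * (1 / 256) * y) := by ring
    rw [e3, abs_mul, abs_of_nonneg (mul_nonneg (hw 0).le hκ0)]
    refine mul_le_mul_of_nonneg_left ?_ (mul_nonneg (hw 0).le hκ0)
    rw [abs_mul]
    have : |b0 0 * (1 / 256)| ≤ 1 := by rw [abs_of_pos (by linarith)]; linarith
    calc |b0 0 * (1 / 256)| * |y| ≤ 1 * M := mul_le_mul this hy (abs_nonneg _) (by norm_num)
      _ = M := one_mul _
  have t1 := mul_abs_le (le_refl |μ|) t0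
  have t2 := mul_abs_le hD.a0 hy
  have t3 := mul_abs_le (hD.a 1) hu
  have t4 := mul_abs_le (hD.a 2) hv
  have w0a : |w' 0| ≤ w' 0 := by rw [abs_of_pos (hw' 0)]
  have t5 := mul_abs_le w0a (mul_abs_le N'.b01 p1)
  have t6 := mul_abs_le w0a (mul_abs_le N'.b02 p2)
  have h7 : |d0 0 * dt (e' 0) V| ≤
      |μ| * (w 0 * kap b0 b1 G) * M + 3 * K * M + 2 * s' * w' 0 := by
    rw [e2]
    rw [abs_le] at t1 t2 t3 t4 t5 t6 ⊢
    constructor <;> linarith [t1.1, t1.2, t2.1, t2.2, t3.1, t3.2, t4.1, t4.2, t5.1, t5.2,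
      t6.1, t6.2]
  rw [abs_mul, abs_of_pos (by linarith : 0 < d0 0)] at h7
  have h8 : 1 / 2 * |dt (e' 0) V| ≤ d0 0 * |dt (e' 0) V| :=
    mul_le_mul_of_nonneg_right k1 (abs_nonneg _)
  linarith

end

end Crest.Agent.R136.Cuu57
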