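import Crest.Agent.R136.Cuu3_57
import Crest.Agent.R136.AlD_601

/-!
# R136, PLAN 2 (AL): closeness of `U t` and `U t'` (helper57)

* `close_uu` : closeness of `U` and `R = U t'` around `t` (eighth of the base box);
* `val_uu`   : the value of `R.q` at a point of `t` where `t`, `t'` are near;
* `a0_uu`    : the normal derivative there.
-/

set_option autoImplicit false

namespace Crest.Agent.R136.Cuu57

open Crest.Agent.R136.Sh605 Crest.Agent.R136.Tl102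
open Crest.Agent.R136.K4 (Plk4)
open Crest.Agent.R136.Tlt51 (Shp InP)
open Crest.Agent.R136.Deep51 (CloseC)
open Crest.Agent.R136.Rk601 (Jt dp qf)
open Crest.Agent.R136.Adj214 (cx ev JB KD KD_pos KD_one divide)
open Crest.Agent.R136.KapP335 (kapP expP kapP_eq expP_spec expP_eq)

/-- increment of a jet, large point -/
theorem ev_le2 {K c' : ℝ} {D : Jt} (h : JB K c' D) {ζ y u v M : ℝ} (hζ : |ζ| ≤ 1)
    (hM : 1 ≤ M) (hy : |y| ≤ M) (hu : |u| ≤ M) (hv : |v| ≤ M) :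
    |ev D y ![ζ, u, v] - ev D 0 ![ζ, 0, 0]| ≤ 12 * K * M ^ 2 := by
  have hK : 0 ≤ K := (abs_nonneg _).trans h.c
  have hM0 : 0 ≤ M := by linarith
  have hMM : M ≤ M * M := by nlinarith
  have m1 : ∀ {x t : ℝ}, |x| ≤ K → |t| ≤ M → |x * t| ≤ K * (M * M) := fun hx ht =>
    (mul_abs_le hx ht).trans (mul_le_mul_of_nonneg_left hMM hK)
  have m2 : ∀ {x t t' : ℝ}, |x| ≤ K → |t| ≤ M → |t'| ≤ M → |x * (t * t')| ≤ K * (M * M) :=
    fun hx ht ht' => mul_abs_le hx (mul_abs_le ht ht')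
  have hζM : |ζ| ≤ M := hζ.trans hM
  have e : ev D y ![ζ, u, v] - ev D 0 ![ζ, 0, 0] = D.a0 * y + D.a 1 * u + D.a 2 * v +
      (1 / 2 * (D.h00 * (y * y)) + D.h0 0 * (ζ * y) + D.h0 1 * (u * y) + D.h0 2 * (v * y)) +
      (D.h 0 1 * (ζ * u) + D.h 0 2 * (ζ * v) + 1 / 2 * (D.h 1 1 * (u * u)) + D.h 1 2 * (u * v) +
        1 / 2 * (D.h 2 2 * (v * v))) := by
    simp only [ev, dp, qf, Fin.sum_univ_three, Matrix.cons_val]
    rw [h.sym 1 0, h.sym 2 0, h.sym 2 1]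
    ring
  rw [e]
  have t0 := m1 h.a0 hy
  have t1 := m1 (h.a 1) hu
  have t2 := m1 (h.a 2) hv
  have t3 := m2 h.h00 hy hy
  have t4 := m2 (h.h0 0) hζM hy
  have t5 := m2 (h.h0 1) hu hy
  have t6 := m2 (h.h0 2) hv hy
  have t7 := m2 (h.h 0 1) hζM hu
  have t8 := m2 (h.h 0 2) hζM hv
  have t9 := m2 (h.h 1 1) hu hu
  have t10 := m2 (h.h 1 2) hu hv
  have t11 := m2 (h.h 2 2) hv hv
  have hKM : 0 ≤ K * (M * M) := by positivity
  have e3 : 12 * K * M ^ 2 = 12 * (K * (M * M)) := by ring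
  rw [e3]
  clear e
  rw [abs_le] at *
  constructor <;> linarith [t0.1, t0.2, t1.1, t1.2, t2.1, t2.2, t3.1, t3.2, t4.1, t4.2, t5.1, t5.2,
    t6.1, t6.2, t7.1, t7.2, t8.1, t8.2, t9.1, t9.2, t10.1, t10.2, t11.1, t11.2]

theorem cx_zero {e : Fin 3 → V3} {w b0 : V3} {κ z0 ρ : ℝ} {T : Ln4} (ζ : ℝ) :
    cx e w b0 κ z0 ρ T ζ 0 0 0 = T.pos (z0 + ρ * ζ) := by
  funext i
  simp only [cx, cmb, fr, unsh, Pi.add_apply, Pi.smul_apply, smul_eq_mul, Matrix.cons_val]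
  ring

theorem cx_y {e : Fin 3 → V3} {w b0 : V3} {κ z0 ρ : ℝ} {T : Ln4} (ζ y : ℝ) :
    cx e w b0 κ z0 ρ T ζ y 0 0 = T.pos (z0 + ρ * ζ) + (w 0 * (κ * (1 / 256 * y))) • e 0 := by
  funext i
  simp only [cx, cmb, fr, unsh, Pi.add_apply, Pi.smul_apply, smul_eq_mul, Matrix.cons_val]
  ring

theorem cx_sb {e : Fin 3 → V3} {w b0 : V3} {κ κ' z0 ρ δ : ℝ} {T : Ln4} (hδ : δ ≠ 0)
    (hκ' : κ' ≠ 0) (ζ y u v : ℝ) : cx e w b0 κ z0 ρ T ζ y u v =
      cx e (fun i => δ * w i) b0 κ' z0 ρ T ζ (κ * y / (δ * κ')) (u / δ) (v / δ) := by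
  unfold cx
  rw [cmb_fr_smul]
  congr 2
  funext i
  fin_cases i
  · show κ * (1 / 256 * y) - b0 1 / b0 0 * (1 / 256 * u) - b0 2 / b0 0 * (1 / 256 * v) =
      δ * (κ' * (1 / 256 * (κ * y / (δ * κ'))) - b0 1 / b0 0 * (1 / 256 * (u / δ)) -
        b0 2 / b0 0 * (1 / 256 * (v / δ)))
    have e1 : δ * (κ' * (1 / 256 * (κ * y / (δ * κ')))) = κ * (1 / 256 * y) := by
      field_simp
    have e2 : ∀ x : ℝ, δ * (1 / 256 * (x / δ)) = 1 / 256 * x := fun x => by field_simp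
    linear_combination (-1 : ℝ) * e1 + b0 1 / b0 0 * e2 u + b0 2 / b0 0 * e2 v
  · show 1 / 256 * u = δ * (1 / 256 * (u / δ))
    field_simp
  · show 1 / 256 * v = δ * (1 / 256 * (v / δ))
    field_simp

section

variable {U V R : Plk4} {t t' : Ln4} {z0 ρ r W a Λ κ : ℝ}

/-- **division at the sub-sheet**: raw step of `close_uu` -/
theorem uu_raw {S : Plk4} {q' : ℝ → V3 → ℝ} {T : Ln4} {δ Λ1 : ℝ} (hr : 0 < r) (hρ : 0 < ρ)
    (hS : Shp S z0 ρ r) (hq' : IsQ q') (hT : InP T S z0 ρ) (hδ : 0 < δ) (hδ1 : δ ≤ 1 / 2)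
    (hΛ1 : 0 < Λ1) (hk : 10 ^ 6 * S.a ≤ δ ^ 2 * kapP S z0 ρ T)
    (cs : ∀ z, z0 ≤ z → z ≤ z0 + ρ → ∀ x : V3, (∀ i, |dt (S.e i) (x - T.pos z)| ≤ δ / 8 * S.w i) →
      |S.q z x| ≤ 3 * S.a → |q' z x| ≤ Λ1) :
    CloseC S.e S.w S.q S.a q' (320000 * KD * Λ1 / δ ^ 4) T z0 ρ := by
  obtain ⟨a0, w0, w1, w2, wp, w01⟩ := wpos hr hS
  have KDp := KD_pos
  have KD1 := KD_one
  have wn : ∀ i, 0 ≤ S.w i := fun i => (wp i).le
  obtain ⟨b0, b1, G, hE⟩ := exists_isExp hS.isQ S.e w0.ne' T z0 ρ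
  have ek : kapP S z0 ρ T = S.w 0 * kap b0 b1 G := kapP_eq w0.ne' hE
  have SP := StP.of_shN hS w0
  have N1 := hE.nrmC SP hρ.le (fun z h1 h2 => (hT z h1 h2).1)
  have hk13 := kap_le N1
  rw [ek] at hk
  have hκ : 0 < kap b0 b1 G := by
    have h1 : 0 < δ ^ 2 * (S.w 0 * kap b0 b1 G) := by
      have : 0 < 10 ^ 6 * S.a := by positivity
      linarith
    exact (pos_iff_pos_of_mul_pos ((pos_iff_pos_of_mul_pos h1).1 (by positivity))).1 w0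
  obtain ⟨κ', hκ'⟩ : ∃ κ', κ' = kap b0 b1 (G.smul δ) := ⟨_, rfl⟩
  have g1 : δ * kap b0 b1 G ≤ κ' := by rw [hκ']; exact kap_smul_ge hδ.le (by linarith)
  have g2 : κ' ≤ kap b0 b1 G := by rw [hκ']; exact kap_smul_le hδ.le (by linarith)
  have hκ'0 : 0 < κ' := lt_of_lt_of_le (by positivity) g1
  have hk' : 10 ^ 6 * S.a ≤ δ * S.w 0 * κ' := by
    refine hk.trans ?_
    calc δ ^ 2 * (S.w 0 * kap b0 b1 G) = δ * S.w 0 * (δ * kap b0 b1 G) := by ring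
      _ ≤ δ * S.w 0 * κ' := mul_le_mul_of_nonneg_left g1 (by positivity)
  have ha13 : 10 ^ 6 * S.a ≤ 13 * (δ * S.w 0) := by
    refine hk'.trans ?_
    calc δ * S.w 0 * κ' ≤ δ * S.w 0 * 13 := mul_le_mul_of_nonneg_left (g2.trans hk13) (by positivity)
      _ = _ := by ring
  have hδw : 0 < δ * S.w 0 := by positivity
  have ha' : S.a ≤ δ * S.w 0 := by linarith
  have hS' : ShN S.e T (fun i => δ * S.w i) S.q S.a z0 ρ r := sb_shp hS w0 hT hδ hδ1 ha'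
  have hT' : InSheet T S.e T (fun i => δ * S.w i) S.q S.a z0 ρ := sb_in wn hT hδ
  have hE' : IsExp S.q S.e (fun i => δ * S.w i) T z0 ρ b0 b1 (G.smul δ) := sb_exp (T := T) hE
  have hC' : CloseC S.e (fun i => δ * S.w i) S.q S.a q' Λ1 T z0 ρ := by
    intro z hz hz' x hx hq
    refine cs z hz hz' x (fun i => ?_) (hq.trans (by linarith))
    have h1 : |dt (S.e i) (x - T.pos z)| ≤ δ * S.w i / 8 := hx i
    linarith
  obtain ⟨μ, c', D, hD, hid0⟩ := divide hS' a0 hρ.le hT' hE' (by rw [← hκ']; exact hk') hq' hC'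
  rw [← hκ'] at hid0
  have hid : Dvd S.e (fun i => δ * S.w i) b0 κ' z0 ρ T S.q q' μ c' D := hid0
  have hz : z0 ≤ z0 + ρ * 0 := by linarith
  have hz' : z0 + ρ * 0 ≤ z0 + ρ := by linarith
  have K0 : 0 < KD * Λ1 := by positivity
  have Λle : Λ1 ≤ KD * Λ1 := by nlinarith
  -- the multiplier
  have hμ : |μ| * S.a ≤ 28 * (KD * Λ1) := by
    obtain ⟨y0, hy0⟩ : ∃ y0, y0 = 256 * S.a / (δ * S.w 0 * κ') := ⟨_, rfl⟩
    have hwk : 0 < δ * S.w 0 * κ' := by positivity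
    have hy0p : 0 ≤ y0 := by rw [hy0]; positivity
    have hy1 : |y0| ≤ 1 := by
      rw [abs_of_nonneg hy0p, hy0, div_le_one hwk]; linarith
    have ey : δ * S.w 0 * (κ' * (1 / 256 * y0)) = S.a := by
      rw [hy0]; field_simp
    have h1 := hid 0 y0 0 0
    have h2 := hid 0 0 0 0
    rw [cx_y] at h1
    rw [cx_zero] at h2
    have ey' : (fun i => δ * S.w i) 0 * (κ' * (1 / 256 * y0)) = S.a := ey
    rw [ey'] at h1
    have h3 := ev_le hD (ζ := 0) (y := y0) (u := 0) (v := 0) (M := 1) (by simp) (by norm_num)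
      le_rfl hy1 (by simp) (by simp)
    have dte : ∀ i, dt (S.e i) (T.pos (z0 + ρ * 0) + S.a • S.e 0 - T.pos (z0 + ρ * 0)) =
        S.a * (if i = 0 then 1 else 0) := by
      intro i
      rw [add_sub_cancel_left, dt_smul, hS.ortho i 0]
    have hb : ∀ i, |dt (S.e i) (T.pos (z0 + ρ * 0) + S.a • S.e 0 - T.pos (z0 + ρ * 0))| ≤
        δ / 8 * S.w i := by
      intro i
      rw [dte]
      fin_cases i
      · show |S.a * (if (0 : Fin 3) = 0 then 1 else 0)| ≤ δ / 8 * S.w 0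
        rw [if_pos rfl, mul_one, abs_of_pos a0]; linarith
      · show |S.a * (if (1 : Fin 3) = 0 then 1 else 0)| ≤ δ / 8 * S.w 1
        rw [if_neg (by decide), mul_zero, abs_zero]; positivity
      · show |S.a * (if (2 : Fin 3) = 0 then 1 else 0)| ≤ δ / 8 * S.w 2
        rw [if_neg (by decide), mul_zero, abs_zero]; positivity
    have i0 : InK S.e S.c (dbl3 S.w) (z0 + ρ * 0) (T.pos (z0 + ρ * 0)) := by
      intro i
      have := (hT _ hz hz').1 i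
      change _ ≤ 2 * S.w i
      linarith [wn i]
    have i1 : InK S.e S.c (dbl3 S.w) (z0 + ρ * 0) (T.pos (z0 + ρ * 0) + S.a • S.e 0) := by
      intro i
      have h5 := (hT _ hz hz').1 i
      have e5 : dt (S.e i) (T.pos (z0 + ρ * 0) + S.a • S.e 0 - S.c.pos (z0 + ρ * 0)) =
          dt (S.e i) (T.pos (z0 + ρ * 0) + S.a • S.e 0 - T.pos (z0 + ρ * 0)) +
          dt (S.e i) (T.pos (z0 + ρ * 0) - S.c.pos (z0 + ρ * 0)) := by
        simp only [dt, Pi.sub_apply, Pi.add_apply]; ring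
      rw [e5]
      refine (abs_add_le _ _).trans ?_
      have h6 := hb i
      change _ ≤ 2 * S.w i
      have h7 : δ / 8 * S.w i ≤ 1 * S.w i := mul_le_mul_of_nonneg_right (by linarith) (wn i)
      linarith
    obtain ⟨s1, s2⟩ := hS.st0 _ hz hz' (T.pos (z0 + ρ * 0)) S.a a0.le i0 i1
    have q0 := (hT _ hz hz').2
    have q1 : |S.q (z0 + ρ * 0) (T.pos (z0 + ρ * 0) + S.a • S.e 0)| ≤ 3 * S.a := by
      rw [abs_le] at q0 ⊢
      constructor <;> linarith [q0.1, q0.2]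
    have r1 := cs _ hz hz' _ hb q1
    have r0 := cs _ hz hz' (T.pos (z0 + ρ * 0)) (fun i => by
      have e5 : dt (S.e i) (T.pos (z0 + ρ * 0) - T.pos (z0 + ρ * 0)) = 0 := by
        simp only [dt, Pi.sub_apply]; ring
      rw [e5, abs_zero]; have := wn i; positivity) (q0.trans (by linarith))
    set Q1 := S.q (z0 + ρ * 0) (T.pos (z0 + ρ * 0) + S.a • S.e 0)
    set Q0 := S.q (z0 + ρ * 0) (T.pos (z0 + ρ * 0))
    set R1 := q' (z0 + ρ * 0) (T.pos (z0 + ρ * 0) + S.a • S.e 0)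
    set R0 := q' (z0 + ρ * 0) (T.pos (z0 + ρ * 0))
    have h4 : μ * (Q1 - Q0) = (R1 - R0) - (ev D y0 ![0, 0, 0] - ev D 0 ![0, 0, 0]) := by linarith
    have h5 : |μ * (Q1 - Q0)| ≤ 14 * (KD * Λ1) := by
      rw [h4]
      refine (abs_sub _ _).trans ?_
      have := abs_sub R1 R0
      linarith
    rw [abs_mul, abs_of_nonneg (by linarith : 0 ≤ Q1 - Q0)] at h5
    have h6 := mul_le_mul_of_nonneg_left s1 (abs_nonneg μ)
    linarith
  -- the far points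
  intro z hz1 hz2 x hx hq
  obtain ⟨ζ, hζ, hζ', rfl⟩ := height_exists hρ hz1 hz2
  have hζa : |ζ| ≤ 1 := by rw [abs_of_nonneg hζ]; exact hζ'
  have hx' : ∀ i, |dt (S.e i) (x - T.pos (z0 + ρ * ζ))| ≤ S.w i / 8 := hx
  have hxU : InK S.e S.c (dbl3 S.w) (z0 + ρ * ζ) x := by
    intro i
    have h1 := hx' i
    have h2 := (hT _ hz1 hz2).1 i
    have e1 : dt (S.e i) (x - S.c.pos (z0 + ρ * ζ)) = dt (S.e i) (x - T.pos (z0 + ρ * ζ)) +
        dt (S.e i) (T.pos (z0 + ρ * ζ) - S.c.pos (z0 + ρ * ζ)) := by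
      simp only [dt, Pi.sub_apply]; ring
    rw [e1]
    refine (abs_add_le _ _).trans ?_
    change _ ≤ 2 * S.w i
    linarith [wn i]
  have hTq := (hT _ hz1 hz2).2
  have h81 : |dt (S.e 1) (x - T.pos (z0 + ρ * ζ))| ≤ 1 / 8 * S.w 1 := (hx' 1).trans (by linarith)
  have h82 : |dt (S.e 2) (x - T.pos (z0 + ρ * ζ))| ≤ 1 / 8 * S.w 2 := (hx' 2).trans (by linarith)
  obtain ⟨y, u, v, hXc, hu, hv, hy⟩ := pt_chart SP hρ.le (fun z h1 h2 => (hT z h1 h2).1) hE hκ hζ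
    hζ' hxU (le_refl (1 / 8 : ℝ)) h81 h82 (A := 2 * S.a) (by linarith)
  have hwκ : 0 < S.w 0 * kap b0 b1 G := by positivity
  have δ2 : δ ^ 2 ≤ 1 := by nlinarith
  have hk6 : 10 ^ 6 * S.a ≤ S.w 0 * kap b0 b1 G := by
    refine hk.trans ?_
    calc δ ^ 2 * (S.w 0 * kap b0 b1 G) ≤ 1 * (S.w 0 * kap b0 b1 G) :=
          mul_le_mul_of_nonneg_right δ2 hwκ.le
      _ = _ := one_mul _
  have hy' : |y| ≤ 161 := by
    refine hy.trans ?_
    have h1 : 2 * S.a / (S.w 0 * kap b0 b1 G) ≤ 1 / 512 := by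
      rw [div_le_iff₀ hwκ]; linarith
    linarith
  have hu' : |u| ≤ 32 := hu.trans (by norm_num)
  have hv' : |v| ≤ 32 := hv.trans (by norm_num)
  rw [cx_sb hδ.ne' hκ'0.ne'] at hXc
  obtain ⟨M, hM⟩ : ∃ M, M = 161 / δ ^ 2 := ⟨_, rfl⟩
  have hδ2 : 0 < δ ^ 2 := by positivity
  have hMδ : M * δ ^ 2 = 161 := by rw [hM]; field_simp
  have hM1 : 1 ≤ M := by rw [hM, le_div_iff₀ hδ2]; linarith
  have y1 : |kap b0 b1 G * y / (δ * κ')| ≤ M := by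
    have hp : 0 < δ * κ' := by positivity
    rw [abs_div, abs_mul, abs_of_pos hκ, abs_of_pos hp, div_le_iff₀ hp]
    calc kap b0 b1 G * |y| ≤ kap b0 b1 G * 161 := mul_le_mul_of_nonneg_left hy' hκ.le
      _ = M * (δ * (δ * kap b0 b1 G)) := by rw [← hMδ]; ring
      _ ≤ M * (δ * κ') := by gcongr
  have uv : ∀ x : ℝ, |x| ≤ 32 → |x / δ| ≤ M := by
    intro x hx
    rw [abs_div, abs_of_pos hδ, div_le_iff₀ hδ]
    have h1 : 161 ≤ M * δ := by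
      rw [← hMδ]
      have : δ ^ 2 ≤ δ := by nlinarith
      exact mul_le_mul_of_nonneg_left this (by linarith)
    linarith
  have h1 := hid ζ (kap b0 b1 G * y / (δ * κ')) (u / δ) (v / δ)
  have h2 := hid ζ 0 0 0
  rw [← hXc] at h1
  rw [cx_zero] at h2
  have h3 := ev_le2 hD hζa hM1 y1 (uv u hu') (uv v hv')
  have r0 := cs _ hz1 hz2 (T.pos (z0 + ρ * ζ)) (fun i => by
    have e5 : dt (S.e i) (T.pos (z0 + ρ * ζ) - T.pos (z0 + ρ * ζ)) = 0 := by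
      simp only [dt, Pi.sub_apply]; ring
    rw [e5, abs_zero]; have := wn i; positivity) (hTq.trans (by linarith))
  set Q1 := S.q (z0 + ρ * ζ) x
  set Q0 := S.q (z0 + ρ * ζ) (T.pos (z0 + ρ * ζ))
  set R1 := q' (z0 + ρ * ζ) x
  set R0 := q' (z0 + ρ * ζ) (T.pos (z0 + ρ * ζ))
  set E1 := ev D (kap b0 b1 G * y / (δ * κ')) ![ζ, u / δ, v / δ]
  set E0 := ev D 0 ![ζ, 0, 0]
  have h4 : R1 = μ * (Q1 - Q0) + R0 + (E1 - E0) := by linarith
  have h5 : |μ * (Q1 - Q0)| ≤ 56 * (KD * Λ1) := by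
    rw [abs_mul]
    have h6 : |Q1 - Q0| ≤ 2 * S.a := (abs_sub _ _).trans (by linarith)
    have h7 := mul_le_mul_of_nonneg_left h6 (abs_nonneg μ)
    linarith
  rw [h4]
  refine (abs_add_three _ _ _).trans ?_
  have e6 : 320000 * KD * Λ1 / δ ^ 4 = 320000 * (KD * Λ1) * (1 / δ ^ 2) ^ 2 := by
    field_simp
  have e7 : 12 * (KD * Λ1) * M ^ 2 = 311052 * (KD * Λ1) * (1 / δ ^ 2) ^ 2 := by
    rw [hM]; ring
  have h8 : 1 ≤ (1 / δ ^ 2) ^ 2 := one_le_pow₀ (by rw [le_div_iff₀ hδ2]; linarith)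
  rw [e7] at h3
  rw [e6]
  have h9 : KD * Λ1 * 1 ≤ KD * Λ1 * (1 / δ ^ 2) ^ 2 := mul_le_mul_of_nonneg_left h8 K0.le
  linarith

/-- **closeness of `U t` and `U t'`** -/
theorem close_uu (h : Uu U V R t t' z0 ρ r W a Λ κ) :
    CloseC U.e U.w U.q U.a R.q (10 ^ 60 * KD ^ 7 * W ^ 15 * Λ) t z0 ρ := by
  obtain ⟨a0, w0, w1, w2, wp, w01⟩ := wpos h.r0 h.hU
  have KDp := KD_pos
  have KD1 := KD_one
  have hW := h.W1
  have hW0 : 0 < W := by linarith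
  have hΛ : 0 < Λ := h.a0.trans_le h.aΛ
  obtain ⟨N, hN⟩ : ∃ N, N = 10 ^ 10 * KD * W ^ 3 := ⟨_, rfl⟩
  have W3 : (1 : ℝ) ≤ W ^ 3 := one_le_pow₀ hW
  have hN1 : 10 ^ 10 ≤ N := by
    rw [hN]
    have : 1 ≤ KD * W ^ 3 := by nlinarith
    linarith
  have hN0 : 0 < N := by linarith
  obtain ⟨δ, hδd⟩ : ∃ δ, δ = 1 / N := ⟨_, rfl⟩
  have hNδ : N * δ = 1 := by rw [hδd]; field_simp
  have hδ : 0 < δ := by rw [hδd]; positivity
  have δs : δ ≤ 1 / 10 ^ 10 := by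
    rw [hδd]; exact one_div_le_one_div_of_le (by norm_num) hN1
  have bU := h.bU
  have bV := h.bV
  have bU' : 10 ^ 6 * U.a ≤ δ ^ 2 * kapP U z0 ρ t := by
    have e : 10 ^ 26 * KD ^ 2 * W ^ 6 * U.a = 10 ^ 6 * N ^ 2 * U.a := by rw [hN]; ring
    rw [e] at bU
    have h1 := mul_le_mul_of_nonneg_left bU (by positivity : 0 ≤ δ ^ 2)
    have e2 : δ ^ 2 * (10 ^ 6 * N ^ 2 * U.a) = 10 ^ 6 * U.a * (N * δ) ^ 2 := by ring
    rw [e2, hNδ] at h1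
    linarith
  have kp0 : 0 ≤ kapP U z0 ρ t := by
    have : 0 < 10 ^ 26 * KD ^ 2 * W ^ 6 * U.a := by positivity
    linarith
  have hδU : U.a ≤ δ * kapP U z0 ρ t := by
    have h1 : δ ^ 2 ≤ δ := by nlinarith
    have h2 := mul_le_mul_of_nonneg_right h1 kp0
    linarith
  have hδV : V.a ≤ δ * kapP V z0 ρ t' := by
    have e : 10 ^ 10 * KD * W ^ 3 * V.a = N * V.a := by rw [hN]
    rw [e] at bV
    have h1 := mul_le_mul_of_nonneg_left bV hδ.le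
    have e2 : δ * (N * V.a) = (N * δ) * V.a := by ring
    rw [e2, hNδ, one_mul] at h1
    exact h1
  have hδ1 : 10 ^ 10 * KD * W ^ 3 * δ ≤ 1 := by rw [← hN, hNδ]
  have hc := uu_raw (Λ1 := 2 * 10 ^ 7 * KD ^ 2 * W ^ 3 * Λ) h.r0 h.ρ0 h.hU h.hR.isQ h.tU hδ
    (by linarith) (by positivity) bU' (fun z hz hz' x hx hq =>
      close_small h hδ hδ1 hδU hδV hz hz' hx hq)
  intro z hz hz' x hx hq
  refine (hc z hz hz' x hx hq).trans ?_
  have e1 : 320000 * KD * (2 * 10 ^ 7 * KD ^ 2 * W ^ 3 * Λ) / δ ^ 4 =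
      64 * 10 ^ 11 * (KD ^ 3 * W ^ 3 * Λ) * N ^ 4 := by
    rw [hδd]; field_simp; norm_num
  rw [e1, hN]
  have e2 : 64 * 10 ^ 11 * (KD ^ 3 * W ^ 3 * Λ) * (10 ^ 10 * KD * W ^ 3) ^ 4 =
      64 * 10 ^ 51 * (KD ^ 7 * W ^ 15 * Λ) := by ring
  have e3 : 10 ^ 60 * KD ^ 7 * W ^ 15 * Λ = 10 ^ 60 * (KD ^ 7 * W ^ 15 * Λ) := by ring
  rw [e2, e3]
  have : 0 ≤ KD ^ 7 * W ^ 15 * Λ := by positivity
  linarith

end

end Crest.Agent.R136.Cuu57
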