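import Crest.Agent.R136.Cuu4_57

/-!
# R136, PLAN 2 (AL): value and normal derivative of `q_(U t')` at a point of `t` (helper57)
-/

set_option autoImplicit false

namespace Crest.Agent.R136.Cuu57

open Crest.Agent.R136.Sh605 Crest.Agent.R136.Tl102
open Crest.Agent.R136.K4 (Plk4)
open Crest.Agent.R136.Tlt51 (Shp InP)
open Crest.Agent.R136.Deep51 (CloseC)
open Crest.Agent.R136.Rk601 (Jt dp qf)
open Crest.Agent.R136.Gbx862 (zj)
open Crest.Agent.R136.Adj214 (cx ev JB KD KD_pos KD_one divide)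
open Crest.Agent.R136.KapP335 (kapP expP kapP_eq expP_spec expP_eq)

section

variable {U V R : Plk4} {t t' : Ln4} {z0 ρ r W a Λ κ : ℝ}

theorem val_uu (h : Uu U V R t t' z0 ρ r W a Λ κ) {z s : ℝ} (hz : z0 ≤ z) (hz' : z ≤ z0 + ρ)
    (hs : 0 ≤ s) (hs1 : 10 ^ 8 * KD * W ^ 2 * s ≤ 1)
    (h1 : |dt (V.e 1) (t.pos z - t'.pos z)| ≤ s * V.w 1)
    (h2 : |dt (V.e 2) (t.pos z - t'.pos z)| ≤ s * V.w 2) :
    |R.q z (t.pos z)| ≤ 10 ^ 5 * KD * W ^ 2 * (a + s * Λ) := by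
  obtain ⟨a0', w0', w1', w2', wp', w01'⟩ := wpos h.r0 h.hV
  have KDp := KD_pos
  have KD1 := KD_one
  have hW := h.W1
  have hW0 : 0 < W := by linarith
  have ha := h.a0
  have hΛ : 0 < Λ := ha.trans_le h.aΛ
  obtain ⟨k', hkd'⟩ : ∃ k', k' = kapP V z0 ρ t' := ⟨_, rfl⟩
  have ΛV := h.ΛV
  have bV := h.bV
  rw [← hkd'] at ΛV bV
  have W3 : (1 : ℝ) ≤ W ^ 3 := one_le_pow₀ hW
  have W2 : (1 : ℝ) ≤ W ^ 2 := one_le_pow₀ hW
  have KW3 : 1 ≤ KD * W ^ 3 := by nlinarith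
  have KW2 : 1 ≤ KD * W ^ 2 := by nlinarith
  have KW1 : 1 ≤ KD * W := by nlinarith
  have hk6' : 10 ^ 10 * V.a ≤ k' := by
    refine le_trans ?_ bV
    refine mul_le_mul_of_nonneg_right ?_ a0'.le
    linarith
  have kp' : 0 < k' := by linarith
  have ss : 10 ^ 8 * s ≤ 1 := by
    have : s * 1 ≤ s * (KD * W ^ 2) := mul_le_mul_of_nonneg_left KW2 hs
    linarith
  have hX : InK V.e V.c (dbl3 V.w) z (t.pos z) := by
    intro i
    have := (h.tV z hz hz').1 i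
    change _ ≤ 2 * V.w i
    linarith [(wp' i).le]
  obtain ⟨M, hM⟩ : ∃ M, M = 512 * ((V.a + V.a) / k') + 1280 * s := ⟨_, rfl⟩
  have hM1 : M ≤ 1 := by
    have : (V.a + V.a) / k' ≤ 1 / 10 ^ 9 := by rw [div_le_iff₀ kp']; linarith
    rw [hM]; linarith
  obtain ⟨v2, -⟩ := one_step h.r0 h.ρ0 hW h.hV h.hR h.tV' h.tR (by rw [← hkd']; linarith) h.c2
    hΛ.le (by rw [← hkd']; exact ΛV) hz hz' hX (s := s) (A0 := V.a) (M := M)
    (by linarith) h1 h2 (h.tV z hz hz').2 (by rw [← hkd', hM]) hM1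
  refine v2.trans ?_
  have e1 : 12 * (KD * Λ) * M = 12288 * (KD * (Λ * (V.a / k'))) + 15360 * (KD * (s * Λ)) := by
    rw [hM]; ring
  have h3 : Λ * (V.a / k') ≤ 2 * W * V.a := by
    calc Λ * (V.a / k') ≤ (2 * W * k') * (V.a / k') :=
          mul_le_mul_of_nonneg_right ΛV (by positivity)
      _ = 2 * W * V.a := by field_simp
  obtain ⟨X, hXd⟩ : ∃ X, X = KD * W ^ 2 * a := ⟨_, rfl⟩
  have x1 : KD * W * V.a ≤ X := by
    rw [hXd]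
    calc KD * W * V.a ≤ KD * W * (W * a) := mul_le_mul_of_nonneg_left h.aV (by positivity)
      _ = _ := by ring
  have x2 : KD * (Λ * (V.a / k')) ≤ 2 * X := by
    calc KD * (Λ * (V.a / k')) ≤ KD * (2 * W * V.a) := mul_le_mul_of_nonneg_left h3 KDp.le
      _ = 2 * (KD * W * V.a) := by ring
      _ ≤ 2 * X := by linarith
  have x3 : R.a ≤ X := by
    refine h.aR.trans ?_
    rw [hXd]
    calc W * a = 1 * (W * a) := (one_mul _).symm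
      _ ≤ (KD * W) * (W * a) := mul_le_mul_of_nonneg_right KW1 (by positivity)
      _ = _ := by ring
  have x4 : KD * (s * Λ) ≤ KD * W ^ 2 * (s * Λ) := by
    calc KD * (s * Λ) = KD * 1 * (s * Λ) := by ring
      _ ≤ KD * W ^ 2 * (s * Λ) := by gcongr
  have e2 : 10 ^ 5 * KD * W ^ 2 * (a + s * Λ) = 10 ^ 5 * X + 10 ^ 5 * (KD * W ^ 2 * (s * Λ)) := by
    rw [hXd]; ring
  have x5 : 0 ≤ KD * W ^ 2 * (s * Λ) := by positivity
  have x6 : 0 ≤ X := by rw [hXd]; positivity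
  rw [e1, e2]
  have e3 : 2000 * KD * W * (V.a + V.a) = 4000 * (KD * W * V.a) := by ring
  rw [e3]
  linarith

/-- the odd part of a quadratic increment -/
theorem ev_odd {K c' : ℝ} {D : Jt} (h : JB K c' D) {ζ y u v dy du dv Δ : ℝ} (hζ : |ζ| ≤ 1)
    (hy : |y| ≤ 1) (hu : |u| ≤ 1) (hv : |v| ≤ 1) (dy1 : |dy| ≤ Δ) (du1 : |du| ≤ Δ)
    (dv1 : |dv| ≤ Δ) :
    |ev D (y + dy) ![ζ, u + du, v + dv] - ev D (y - dy) ![ζ, u - du, v - dv]| ≤ 30 * K * Δ := by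
  have hK : 0 ≤ K := (abs_nonneg _).trans h.c
  have hΔ : 0 ≤ Δ := (abs_nonneg _).trans dy1
  have m1 : ∀ {x t : ℝ}, |x| ≤ K → |t| ≤ Δ → |x * t| ≤ K * Δ := fun hx ht => mul_abs_le hx ht
  have m2 : ∀ {x t t' : ℝ}, |x| ≤ K → |t| ≤ 1 → |t'| ≤ Δ → |x * (t * t')| ≤ K * Δ := by
    intro x t t' hx ht ht'
    have := mul_abs_le hx (mul_abs_le ht ht')
    rwa [one_mul] at this
  have e : ev D (y + dy) ![ζ, u + du, v + dv] - ev D (y - dy) ![ζ, u - du, v - dv] =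
      2 * (D.a0 * dy + D.a 1 * du + D.a 2 * dv) +
      2 * (D.h00 * (y * dy) + D.h0 0 * (ζ * dy) + D.h0 1 * (u * dy) + D.h0 1 * (y * du) +
        D.h0 2 * (v * dy) + D.h0 2 * (y * dv)) +
      2 * (D.h 0 1 * (ζ * du) + D.h 0 2 * (ζ * dv) + D.h 1 1 * (u * du) + D.h 1 2 * (u * dv) +
        D.h 1 2 * (v * du) + D.h 2 2 * (v * dv)) := by
    simp only [ev, dp, qf, Fin.sum_univ_three, Matrix.cons_val]
    rw [h.sym 1 0, h.sym 2 0, h.sym 2 1]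
    ring
  rw [e]
  have t0 := m1 h.a0 dy1
  have t1 := m1 (h.a 1) du1
  have t2 := m1 (h.a 2) dv1
  have t3 := m2 h.h00 hy dy1
  have t4 := m2 (h.h0 0) hζ dy1
  have t5 := m2 (h.h0 1) hu dy1
  have t6 := m2 (h.h0 1) hy du1
  have t7 := m2 (h.h0 2) hv dy1
  have t8 := m2 (h.h0 2) hy dv1
  have t9 := m2 (h.h 0 1) hζ du1
  have t10 := m2 (h.h 0 2) hζ dv1
  have t11 := m2 (h.h 1 1) hu du1
  have t12 := m2 (h.h 1 2) hu dv1
  have t13 := m2 (h.h 1 2) hv du1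
  have t14 := m2 (h.h 2 2) hv dv1
  clear e
  have hKM : 0 ≤ K * Δ := mul_nonneg hK hΔ
  rw [abs_le] at *
  constructor <;> linarith [t0.1, t0.2, t1.1, t1.2, t2.1, t2.2, t3.1, t3.2, t4.1, t4.2, t5.1, t5.2,
    t6.1, t6.2, t7.1, t7.2, t8.1, t8.2, t9.1, t9.2, t10.1, t10.2, t11.1, t11.2, t12.1, t12.2,
    t13.1, t13.2, t14.1, t14.2]

/-- shift of a chart point -/
theorem cx_add {e : Fin 3 → V3} {w b0 : V3} {κ z0 ρ : ℝ} {T : Ln4} (hκ : κ ≠ 0)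
    (ζ y u v : ℝ) (p : V3) :
    cx e w b0 κ z0 ρ T ζ y u v + cmb (fr e w) p =
      cx e w b0 κ z0 ρ T ζ (y + 256 * yc b0 p / κ) (u + 256 * p 1) (v + 256 * p 2) := by
  have e1 : κ * (1 / 256 * (256 * yc b0 p / κ)) = yc b0 p := by field_simp
  funext i
  simp only [cx, cmb, fr, unsh, Pi.add_apply, Pi.smul_apply, smul_eq_mul, Matrix.cons_val]
  have e2 : yc b0 p = p 0 + b0 1 / b0 0 * p 1 + b0 2 / b0 0 * p 2 := rfl
  have e3 : κ * (1 / 256 * (y + 256 * yc b0 p / κ)) = κ * (1 / 256 * y) +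
      (p 0 + b0 1 / b0 0 * p 1 + b0 2 / b0 0 * p 2) := by
    rw [← e2]
    have e4 : κ * (1 / 256 * (y + 256 * yc b0 p / κ)) =
        κ * (1 / 256 * y) + κ * (1 / 256 * (256 * yc b0 p / κ)) := by ring
    rw [e4, e1]
  rw [e3]
  ring

/-- **the derivative of `R.q` at a point of `t` in the direction `Z`** -/
theorem odd_uu (h : Uu U V R t t' z0 ρ r W a Λ κ) {z s ω : ℝ} (hz : z0 ≤ z) (hz' : z ≤ z0 + ρ)
    (hs : 0 ≤ s) (hs1 : 10 ^ 8 * KD * W ^ 2 * s ≤ 1)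
    (h1 : |dt (V.e 1) (t.pos z - t'.pos z)| ≤ s * V.w 1)
    (h2 : |dt (V.e 2) (t.pos z - t'.pos z)| ≤ s * V.w 2) {Z : V3}
    (hZ : ∀ k, |dt (V.e k) Z| ≤ ω) :
    |R.q z (t.pos z + Z) - R.q z (t.pos z - Z)| ≤ 10 ^ 6 * KD * W * ω := by
  obtain ⟨ζ, hζ, hζ', rfl⟩ := height_exists h.ρ0 hz hz'
  obtain ⟨a0', w0', w1', w2', wp', w01'⟩ := wpos h.r0 h.hV
  obtain ⟨a0R, w0R, w1R, w2R, wpR, w01R⟩ := wpos h.r0 h.hR
  have KDp := KD_pos
  have KD1 := KD_one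
  have hW := h.W1
  have hW0 : 0 < W := by linarith
  have ha := h.a0
  have hΛ : 0 < Λ := ha.trans_le h.aΛ
  have hω : 0 ≤ ω := (abs_nonneg _).trans (hZ 0)
  have SP := StP.of_shN h.hV w0'
  have SPR := StP.of_shN h.hR w0R
  obtain ⟨b0, b1, G, hE⟩ := exists_isExp h.hV.isQ V.e w0'.ne' t' z0 ρ
  obtain ⟨c0, c1, G', hEt⟩ := exists_isExp h.hV.isQ V.e w0'.ne' t z0 ρ
  obtain ⟨d0, d1, Hq, hH⟩ := exists_isExp h.hR.isQ R.e w0R.ne' t' z0 ρ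
  have N := hE.nrmC SP h.ρ0.le (fun z h1 h2 => (h.tV' z h1 h2).1)
  have Nt := hEt.nrmC SP h.ρ0.le (fun z h1 h2 => (h.tV z h1 h2).1)
  have NR := hH.nrmC SPR h.ρ0.le (fun z h1 h2 => (h.tR z h1 h2).1)
  have ek : kapP V z0 ρ t' = V.w 0 * kap b0 b1 G := kapP_eq w0'.ne' hE
  have ΛV := h.ΛV
  have bV := h.bV
  rw [ek] at ΛV bV
  obtain ⟨κv, hκv⟩ : ∃ κv, κv = kap b0 b1 G := ⟨_, rfl⟩
  have hk13 := kap_le N
  have W3 : (1 : ℝ) ≤ W ^ 3 := one_le_pow₀ hW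
  have W2 : (1 : ℝ) ≤ W ^ 2 := one_le_pow₀ hW
  have KW3 : 1 ≤ KD * W ^ 3 := by nlinarith
  have KW2 : 1 ≤ KD * W ^ 2 := by nlinarith
  have KW1 : 1 ≤ KD * W := by nlinarith
  have hk6' : 10 ^ 10 * V.a ≤ V.w 0 * kap b0 b1 G := by
    refine le_trans ?_ bV
    refine mul_le_mul_of_nonneg_right ?_ a0'.le
    linarith
  have kp' : 0 < V.w 0 * kap b0 b1 G := by linarith
  have hκ : 0 < kap b0 b1 G := (pos_iff_pos_of_mul_pos kp').1 w0'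
  have ss : 10 ^ 8 * s ≤ 1 := by
    have : s * 1 ≤ s * (KD * W ^ 2) := mul_le_mul_of_nonneg_left KW2 hs
    linarith
  have hX : InK V.e V.c (dbl3 V.w) (z0 + ρ * ζ) (t.pos (z0 + ρ * ζ)) := by
    intro i
    have := (h.tV _ hz hz').1 i
    change _ ≤ 2 * V.w i
    linarith [(wp' i).le]
  obtain ⟨μ, c', D, hD, hid⟩ := divide h.hV a0' h.ρ0.le h.tV' hE (by linarith) h.hR.isQ h.c2
  have qt := (h.tV _ hz hz').2
  have qt' := (h.tV' _ hz hz').2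
  obtain ⟨y, u, v, hXc, hu, hv, hy⟩ := pt_chart SP h.ρ0.le (fun z h1 h2 => (h.tV' z h1 h2).1) hE hκ
    hζ hζ' hX (s := s) (by linarith) h1 h2 (A := V.a + V.a) (add_le_add qt qt')
  have hζa : |ζ| ≤ 1 := by rw [abs_of_nonneg hζ]; exact hζ'
  have yM : |y| ≤ 1 := by
    refine hy.trans ?_
    have : (V.a + V.a) / (V.w 0 * kap b0 b1 G) ≤ 1 / 10 ^ 9 := by
      rw [div_le_iff₀ kp']; linarith
    linarith
  have uM : |u| ≤ 1 := by linarith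
  have vM : |v| ≤ 1 := by linarith
  -- the multiplier
  have hμ : |μ| ≤ 1032 * (KD * W) := by
    have h3 := mu_le h.hV.ortho h.hR.ortho wp' wpR w01R h.hR.w0_le h.hR.isQ N NR hκ hE hH hid hD
    have h4 : KD * Λ / (V.w 0 * kap b0 b1 G) ≤ 2 * (KD * W) := by
      rw [div_le_iff₀ kp']
      calc KD * Λ ≤ KD * (2 * W * (V.w 0 * kap b0 b1 G)) := mul_le_mul_of_nonneg_left ΛV KDp.le
        _ = _ := by ring
    linarith
  -- the coordinates of `Z`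
  obtain ⟨p, hp⟩ : ∃ p, p = pv V.e V.w Z := ⟨_, rfl⟩
  have hwne : ∀ k, V.w k ≠ 0 := fun k => (wp' k).ne'
  have hZc : cmb (fr V.e V.w) p = Z := by rw [hp]; exact cmb_pv h.hV.ortho hwne Z
  have w0k : ∀ k, V.w 0 ≤ V.w k := by
    intro k
    fin_cases k
    · exact le_rfl
    · exact w01'
    · exact h.hV.w0_le
  have pk : ∀ k, |p k| ≤ ω / V.w 0 := by
    intro k
    have e1 : p k = dt (V.e k) Z / V.w k := by rw [hp]; rfl
    rw [e1, abs_div, abs_of_pos (wp' k)]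
    exact div_le_div₀ hω (hZ k) w0' (w0k k)
  obtain ⟨g1, g2, g3, g4, -, -, -, s1, s2⟩ := N.b1_le
  have q0 : 0 ≤ ω / V.w 0 := by positivity
  have pc5 : |yc b0 p| ≤ 5 * (ω / V.w 0) := by
    have t0 := pk 0
    have t1 := mul_abs_le s1 (pk 1)
    have t2 := mul_abs_le s2 (pk 2)
    show |p 0 + b0 1 / b0 0 * p 1 + b0 2 / b0 0 * p 2| ≤ _
    exact (abs_add_three _ _ _).trans (by linarith)
  obtain ⟨Δ, hΔ⟩ : ∃ Δ, Δ = 3328 * (ω / (V.w 0 * kap b0 b1 G)) := ⟨_, rfl⟩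
  have eκ : ω / V.w 0 = kap b0 b1 G * (ω / (V.w 0 * kap b0 b1 G)) := by field_simp
  have q1 : 0 ≤ ω / (V.w 0 * kap b0 b1 G) := by positivity
  have d1' : |256 * yc b0 p / kap b0 b1 G| ≤ Δ := by
    rw [abs_div, abs_mul, abs_of_pos hκ, abs_of_pos (by norm_num : (0 : ℝ) < 256),
      div_le_iff₀ hκ, hΔ]
    rw [eκ] at pc5
    have : 0 ≤ kap b0 b1 G * (ω / (V.w 0 * kap b0 b1 G)) := by positivity
    linarith
  have d2' : ∀ k, |256 * p k| ≤ Δ := by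
    intro k
    rw [abs_mul, abs_of_pos (by norm_num : (0 : ℝ) < 256), hΔ]
    have h3 := pk k
    rw [eκ] at h3
    have h4 : kap b0 b1 G * (ω / (V.w 0 * kap b0 b1 G)) ≤ 13 * (ω / (V.w 0 * kap b0 b1 G)) :=
      mul_le_mul_of_nonneg_right hk13 q1
    linarith
  -- the two identities
  have i1 := hid ζ (y + 256 * yc b0 p / kap b0 b1 G) (u + 256 * p 1) (v + 256 * p 2)
  have i2 := hid ζ (y - 256 * yc b0 p / kap b0 b1 G) (u - 256 * p 1) (v - 256 * p 2)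
  rw [← cx_add hκ.ne', ← hXc, hZc] at i1
  have em : cx V.e V.w b0 (kap b0 b1 G) z0 ρ t' ζ (y - 256 * yc b0 p / kap b0 b1 G)
      (u - 256 * p 1) (v - 256 * p 2) = t.pos (z0 + ρ * ζ) - Z := by
    have e1 := cx_add (e := V.e) (w := V.w) (b0 := b0) (z0 := z0) (ρ := ρ) (T := t') hκ.ne' ζ y u v
      (-p)
    have e2 : cmb (fr V.e V.w) (-p) = -Z := by
      rw [← hZc]; funext i; simp only [cmb, Pi.neg_apply]; ring
    have e3 : yc b0 (-p) = -yc b0 p := by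
      show -p 0 + b0 1 / b0 0 * -p 1 + b0 2 / b0 0 * -p 2 =
        -(p 0 + b0 1 / b0 0 * p 1 + b0 2 / b0 0 * p 2)
      ring
    have e4 : (-p) 1 = -p 1 := rfl
    have e5 : (-p) 2 = -p 2 := rfl
    rw [e2, e3, e4, e5, ← hXc] at e1
    have e6 : y + 256 * -yc b0 p / kap b0 b1 G = y - 256 * yc b0 p / kap b0 b1 G := by ring
    have e7 : ∀ x x' : ℝ, x + 256 * -x' = x - 256 * x' := fun x x' => by ring
    rw [e6, e7, e7] at e1
    rw [← e1]; abel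
  rw [em] at i2
  have h3 := ev_odd hD hζa yM uM vM d1' (d2' 1) (d2' 2)
  -- the function `V.q`
  have h4 : |V.q (z0 + ρ * ζ) (t.pos (z0 + ρ * ζ) + Z) - V.q (z0 + ρ * ζ) (t.pos (z0 + ρ * ζ) - Z)| ≤
      30 * ω := by
    obtain ⟨k1, k2, k3, k4, k5, k6, k7, -, -⟩ := Nt.b1_le
    have v1 := hEt ζ p
    have v2 := hEt ζ (-p)
    have e2 : cmb (fr V.e V.w) (-p) = -Z := by
      rw [← hZc]; funext i; simp only [cmb, Pi.neg_apply]; ring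
    rw [hZc] at v1
    rw [e2, ← sub_eq_add_neg] at v2
    rw [v1, v2]
    have e3 : V.q (z0 + ρ * ζ) (t.pos (z0 + ρ * ζ)) + V.w 0 * Fq c0 c1 G' ζ p -
        (V.q (z0 + ρ * ζ) (t.pos (z0 + ρ * ζ)) + V.w 0 * Fq c0 c1 G' ζ (-p)) =
        V.w 0 * (2 * ((c0 0 + ζ * c1 0) * p 0 + (c0 1 + ζ * c1 1) * p 1 +
          (c0 2 + ζ * c1 2) * p 2)) := by
      simp only [Fq, dt, bz, QF.ev, Pi.neg_apply]; ring
    rw [e3, abs_mul, abs_of_pos w0']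
    have bk : ∀ {x x' m m' : ℝ}, |x| ≤ m → |x'| ≤ m' → |x + ζ * x'| ≤ m + m' := by
      intro x x' m m' hx hx'
      have := mul_abs_le hζa hx'
      rw [one_mul] at this
      exact (abs_add_le _ _).trans (by linarith)
    have c00 : |c0 0| ≤ 2 := by rw [abs_of_pos (by linarith)]; exact k2
    have t0 := mul_abs_le (bk c00 k5) (pk 0)
    have t1 := mul_abs_le (bk Nt.b01 k6) (pk 1)
    have t2 := mul_abs_le (bk Nt.b02 k7) (pk 2)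
    have h5 : |2 * ((c0 0 + ζ * c1 0) * p 0 + (c0 1 + ζ * c1 1) * p 1 + (c0 2 + ζ * c1 2) * p 2)| ≤
        30 * (ω / V.w 0) := by
      rw [abs_mul, abs_of_pos (by norm_num : (0 : ℝ) < 2)]
      have := abs_add_three ((c0 0 + ζ * c1 0) * p 0) ((c0 1 + ζ * c1 1) * p 1)
        ((c0 2 + ζ * c1 2) * p 2)
      linarith
    calc V.w 0 * |2 * ((c0 0 + ζ * c1 0) * p 0 + (c0 1 + ζ * c1 1) * p 1 + (c0 2 + ζ * c1 2) * p 2)|
        ≤ V.w 0 * (30 * (ω / V.w 0)) := mul_le_mul_of_nonneg_left h5 w0'.le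
      _ = 30 * ω := by field_simp
  set Rp := R.q (z0 + ρ * ζ) (t.pos (z0 + ρ * ζ) + Z)
  set Rm := R.q (z0 + ρ * ζ) (t.pos (z0 + ρ * ζ) - Z)
  set Vp := V.q (z0 + ρ * ζ) (t.pos (z0 + ρ * ζ) + Z)
  set Vm := V.q (z0 + ρ * ζ) (t.pos (z0 + ρ * ζ) - Z)
  have h5 : Rp - Rm = μ * (Vp - Vm) +
      (ev D (y + 256 * yc b0 p / kap b0 b1 G) ![ζ, u + 256 * p 1, v + 256 * p 2] -
        ev D (y - 256 * yc b0 p / kap b0 b1 G) ![ζ, u - 256 * p 1, v - 256 * p 2]) := by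
    linarith
  rw [h5]
  refine (abs_add_le _ _).trans ?_
  have h6 : |μ * (Vp - Vm)| ≤ 1032 * (KD * W) * (30 * ω) := mul_abs_le hμ h4
  have h7 : 30 * (KD * Λ) * Δ ≤ 199680 * (KD * W * ω) := by
    rw [hΔ]
    calc 30 * (KD * Λ) * (3328 * (ω / (V.w 0 * kap b0 b1 G))) ≤
        30 * (KD * (2 * W * (V.w 0 * kap b0 b1 G))) * (3328 * (ω / (V.w 0 * kap b0 b1 G))) := by
          gcongr
      _ = 199680 * (KD * W * ω) := by field_simp; ring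
  have h8 : 0 ≤ KD * W * ω := by positivity
  linarith

/-- **normal derivative of `R.q` in the chart of `U` at a point of `t`** -/
theorem a0_uu (h : Uu U V R t t' z0 ρ r W a Λ κ) {H j : ℕ} {s : ℝ} (hj : j ≤ H)
    (hs : 0 ≤ s) (hs1 : 10 ^ 8 * KD * W ^ 2 * s ≤ 1)
    (h1 : |dt (V.e 1) (t.pos (zj z0 ρ H j) - t'.pos (zj z0 ρ H j))| ≤ s * V.w 1)
    (h2 : |dt (V.e 2) (t.pos (zj z0 ρ H j) - t'.pos (zj z0 ρ H j))| ≤ s * V.w 2) :
    |(AlD601.jS U R.q z0 ρ H j t).a0| ≤ 10 ^ 6 * KD * W * U.w 0 := by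
  obtain ⟨a0, w0, w1, w2, wp, w01⟩ := wpos h.r0 h.hU
  obtain ⟨hz, hz'⟩ := Gbx862.zj_mem h.ρ0.le hj
  have KDp := KD_pos
  have hW := h.W1
  have hZ : ∀ k, |dt (V.e k) (U.w 0 • U.e 0)| ≤ U.w 0 := by
    intro k
    rw [dt_smul, abs_mul, abs_of_pos w0]
    calc U.w 0 * |dt (V.e k) (U.e 0)| ≤ U.w 0 * 1 :=
          mul_le_mul_of_nonneg_left (dt_le_one h.hV.ortho h.hU.ortho k 0) w0.le
      _ = U.w 0 := mul_one _
  have key := odd_uu h hz hz' hs hs1 h1 h2 hZ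
  have e1 : (AlD601.jS U R.q z0 ρ H j t).a0 =
      (R.q (zj z0 ρ H j) (t.pos (zj z0 ρ H j) + U.w 0 • U.e 0) -
        R.q (zj z0 ρ H j) (t.pos (zj z0 ρ H j) - U.w 0 • U.e 0)) / 2 := by
    have c1 : ∀ σ : ℝ, AlD601.ch R.q (fr U.e U.w) U.c.v (zj z0 ρ H j) (t.pos (zj z0 ρ H j)) ρ σ 0 =
        R.q (zj z0 ρ H j) (t.pos (zj z0 ρ H j) + σ • (U.w 0 • U.e 0)) := by
      intro σ
      unfold AlD601.ch
      have e2 : zj z0 ρ H j + ρ * (0 : Fin 3 → ℝ) 0 = zj z0 ρ H j := by simp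
      have e3 : t.pos (zj z0 ρ H j) + (ρ * (0 : Fin 3 → ℝ) 0) • U.c.v +
          cmb (fr U.e U.w) ![σ, (0 : Fin 3 → ℝ) 1, (0 : Fin 3 → ℝ) 2] =
          t.pos (zj z0 ρ H j) + σ • (U.w 0 • U.e 0) := by
        funext i
        simp [cmb, fr]
      rw [e2, e3]
    show (AlD601.ch R.q (fr U.e U.w) U.c.v (zj z0 ρ H j) (t.pos (zj z0 ρ H j)) ρ 1 0 -
      AlD601.ch R.q (fr U.e U.w) U.c.v (zj z0 ρ H j) (t.pos (zj z0 ρ H j)) ρ (-1) 0) / 2 = _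
    rw [c1, c1, one_smul, neg_one_smul, ← sub_eq_add_neg]
  rw [e1, abs_div, abs_of_pos (by norm_num : (0 : ℝ) < 2)]
  have h9 : 0 ≤ 10 ^ 6 * KD * W * U.w 0 := by positivity
  linarith

end

end Crest.Agent.R136.Cuu57
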