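import Crest.Agent.R136.StcS_321

/-!
# R136, U6 thin side, stage C (helper321): the level `u` function is a second function of the level
`v` mark
-/

set_option autoImplicit false
set_option linter.unusedVariables false

open Finset Filter Topology

namespace Crest.Agent.R136.Stc321

open Crest.Agent.R138
open Crest.Agent.R138.Ex926 (Base U)
open Crest.Agent.R138.Dp76 (dpow_pos dpow_add dpow_le dpow_le_one)
open Crest.Agent.R138.Mk163 (zc zl rho)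
open Crest.Agent.R136.MkA627
open Crest.Agent.R136.Sh605
open Crest.Agent.R136.K4
open Crest.Agent.R136.Top484
open Crest.Agent.R136.ArgA163 (tau_zero le_of_log)
open Crest.Agent.R136.Tlt51 (Close mk4 zx rh Shp InP)
open Crest.Agent.R136.KapP335 (kapP DetP kapP_eq)
open Crest.Agent.R136.Tl102 (QF kap IsExp OmB)
open Crest.Agent.R136.Thn768 (ThinW Own Snd Tay exists_tay)
open Crest.Agent.R136.TL650 (own_of snd_of_close)
open Crest.Agent.R136.Stk464 (mk_facts rho_pos')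

/-- **the level `u` function is a second function of the level `v` mark** -/
theorem snd_uv {p : Par4} {D : Dat4} (h : ThinW p D) : ∃ Ct : ℝ, 0 ≤ Ct ∧
    ∀ u v : ℚ, 0 ≤ u → u < v → v ≤ 1 → ∀ ε : ℝ, 0 < ε → ∀ᶠ n in (U : Filter ℕ), ∀ x ∈ D.I n,
    ∀ (b0 b1 : V3) (G : QF),
      Own (mk4 D n v x) (D.L n x.1) (zx D n v x) (rh D n v) (D.B.d n ^ (ε / 16)) b0 b1 G →
      ∃ (X : ℝ) (b0p b1p : V3) (Gp : QF),
        IsExp (mk4 D n u x).q (mk4 D n v x).e (mk4 D n v x).w (D.L n x.1) (zx D n v x)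
          (rh D n v) b0p b1p Gp ∧
        1 / 16 ≤ |b0p 0 / b0 0| ∧ |b0p 0 / b0 0| ≤ 16 ∧ 0 ≤ X ∧
        OmB (kap b0 b1 G) X X X b0 b1 G b0p b1p Gp ∧
        X * ((mk4 D n v x).w 0 * kap b0 b1 G) ≤
          D.B.d n ^ (-(Ct * ((v : ℝ) - u)) - ε) * max (D.w 0 n u) (D.w 0 n v) := by
  obtain ⟨Ct, hCt, ht⟩ := h.tilt
  set W : ℝ := |1 - p.θ 0| + 1 with hW
  have W0 : 0 ≤ W := by have := abs_nonneg (1 - p.θ 0); linarith
  refine ⟨Ct, hCt, fun u v u0 uv v1 ε hε => ?_⟩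
  have v0 : 0 ≤ v := u0.trans uv.le
  have u1 : u ≤ 1 := uv.le.trans v1
  filter_upwards [mk_facts h.mka u0 u1, mk_facts h.mka v0 v1,
    ht u v u0 uv v1 (ε / 4) (by positivity), h.thin v v0 v1 (Ct + 2 * W + 2 * ε),
    wid_two h.mka 0 v0 v1, wid_two h.mka 0 u0 u1, h.mka.lev_mono u v u0 uv.le v1,
    Wcn464.ev_le D.B (10 ^ 20) (show (0 : ℝ) < ε / 4 by positivity)]
    with n a1 a2 a3 a4 a5 a5' a6 a7 x hx b0 b1 G O
  obtain ⟨f1, f2, f3, f4, f5⟩ := a2.2 x hx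
  obtain ⟨g1, g2, g3, g4, g5⟩ := a1.2 x hx
  have dp := dpow_pos D.B n
  rw [Real.rpow_zero] at a7
  obtain ⟨w0, wv, wl, wl'⟩ := a5
  obtain ⟨-, wu, wk, wk'⟩ := a5'
  have hYe := O.Ye0
  have hw0' : 0 < (mk4 D n u x).w 0 := by
    have := g2.a_le0
    rw [g3] at this
    exact wu.trans_le this
  have hkp := a4 x hx
  rw [kapP_eq (O.pos 0).ne' O.exp, f3] at hkp
  set Ye := (mk4 D n v x).w 0 * kap b0 b1 G with hYed
  have uv' : (u : ℝ) < v := by exact_mod_cast uv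
  have u0' : (0 : ℝ) ≤ u := by exact_mod_cast u0
  have v1' : (v : ℝ) ≤ 1 := by exact_mod_cast v1
  set E : ℝ := D.B.d n ^ (-(Ct * ((v : ℝ) - u)) - ε / 4) * max (D.w 0 n u) (D.w 0 n v) with hE
  have p8 : (D.B.d n ^ (ε / 16)) ^ 8 = D.B.d n ^ (ε / 2) := by
    rw [← Real.rpow_natCast, ← Real.rpow_mul (D.B.pos n).le]
    congr 1; push_cast; ring
  have hdW : 1 ≤ D.B.d n ^ (-(2 * W)) :=
    Real.one_le_rpow_of_pos_of_le_one_of_nonpos (D.B.pos n) (D.B.lt n).le (by linarith)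
  have hcv : Ct * ((v : ℝ) - u) ≤ Ct := mul_le_of_le_one_right hCt (by linarith)
  have huv : D.w 0 n u ≤ D.w 0 n v * D.B.d n ^ (-(2 * W)) := by
    calc D.w 0 n u ≤ D.w 0 n 0 * D.B.d n ^ (-W) := wk
      _ ≤ D.w 0 n v * D.B.d n ^ (-W) * D.B.d n ^ (-W) :=
          mul_le_mul_of_nonneg_right wl' (dp _).le
      _ = _ := by rw [mul_assoc, ← dpow_add]; congr 2; ring
  have m1 : max (D.w 0 n u) (D.w 0 n v) ≤ D.w 0 n v * D.B.d n ^ (-(2 * W)) :=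
    max_le huv (le_mul_of_one_le_right wv.le hdW)
  have m0 : 0 ≤ max (D.w 0 n u) (D.w 0 n v) := wu.le.trans (le_max_left _ _)
  have e0 : D.B.d n ^ (-(Ct * ((v : ℝ) - u)) - ε / 4) ≤ D.B.d n ^ (-Ct - ε / 4) :=
    dpow_le D.B n (by linarith)
  have E1 : E ≤ D.B.d n ^ (-Ct - ε / 4 - 2 * W) * D.w 0 n v := by
    calc E ≤ D.B.d n ^ (-Ct - ε / 4) * (D.w 0 n v * D.B.d n ^ (-(2 * W))) :=
          mul_le_mul e0 m1 m0 (dp _).le
      _ = D.B.d n ^ (-Ct - ε / 4) * D.B.d n ^ (-(2 * W)) * D.w 0 n v := by ring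
      _ = _ := by rw [← dpow_add]; congr 2
  have E3 : E ≤ D.B.d n ^ (ε / 4 + 3 * ε / 2) * Ye := by
    calc E ≤ D.B.d n ^ (-Ct - ε / 4 - 2 * W) * (D.B.d n ^ (Ct + 2 * W + 2 * ε) * Ye) :=
          E1.trans (mul_le_mul_of_nonneg_left hkp (dp _).le)
      _ = D.B.d n ^ (-Ct - ε / 4 - 2 * W) * D.B.d n ^ (Ct + 2 * W + 2 * ε) * Ye := by ring
      _ = _ := by rw [← dpow_add]; congr 2; ring
  have hE0 : 0 ≤ E := mul_nonneg (dp _).le m0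
  have hsm : 10 ^ 20 * E ≤ (D.B.d n ^ (ε / 16)) ^ 8 * Ye := by
    rw [p8]
    calc 10 ^ 20 * E ≤ 10 ^ 20 * (D.B.d n ^ (ε / 4 + 3 * ε / 2) * Ye) :=
          mul_le_mul_of_nonneg_left E3 (by norm_num)
      _ = 10 ^ 20 * D.B.d n ^ (ε / 4) * (D.B.d n ^ (3 * ε / 2) * Ye) := by
          rw [dpow_add]; ring
      _ ≤ 1 * (D.B.d n ^ (3 * ε / 2) * Ye) :=
          mul_le_mul_of_nonneg_right a7 (mul_nonneg (dp _).le hYe.le)
      _ ≤ D.B.d n ^ (ε / 2) * Ye := by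
          rw [one_mul]
          exact mul_le_mul_of_nonneg_right (dpow_le D.B n (by linarith)) hYe.le
  obtain ⟨c1, c2⟩ := cell_in a6 x.2
  obtain ⟨N, R, H, hS⟩ := snd_of_close O f2 f1 g2 hw0' c1 c2 g1 (a3 x hx) hsm
  obtain ⟨hT, b0p, b1p, Gp, hx2, r1, r2, hO⟩ := hS
  have hX0 : 0 ≤ 10 ^ 19 * E / (D.B.d n ^ (ε / 16)) ^ 8 / Ye := by
    have := dp (ε / 16)
    positivity
  refine ⟨_, b0p, b1p, Gp, hx2, r1, r2, hX0, hO, ?_⟩
  have e : 10 ^ 19 * E / (D.B.d n ^ (ε / 16)) ^ 8 / Ye * Ye =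
      10 ^ 19 * E / (D.B.d n ^ (ε / 16)) ^ 8 := by field_simp
  rw [e, p8, div_le_iff₀ (dp _)]
  have e1 : D.B.d n ^ (-(Ct * ((v : ℝ) - u)) - ε / 4) =
      D.B.d n ^ (-(Ct * ((v : ℝ) - u)) - ε) * (D.B.d n ^ (ε / 4) * D.B.d n ^ (ε / 2)) := by
    rw [← dpow_add, ← dpow_add]; congr 1; ring
  rw [hE, e1]
  have k0 : 0 ≤ D.B.d n ^ (-(Ct * ((v : ℝ) - u)) - ε) * max (D.w 0 n u) (D.w 0 n v) *
      D.B.d n ^ (ε / 2) := mul_nonneg (mul_nonneg (dp _).le m0) (dp _).le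
  have k1 : 10 ^ 19 * D.B.d n ^ (ε / 4) ≤ 1 := by
    have := dp (ε / 4)
    linarith
  calc 10 ^ 19 * (D.B.d n ^ (-(Ct * ((v : ℝ) - u)) - ε) * (D.B.d n ^ (ε / 4) *
        D.B.d n ^ (ε / 2)) * max (D.w 0 n u) (D.w 0 n v)) =
        10 ^ 19 * D.B.d n ^ (ε / 4) * (D.B.d n ^ (-(Ct * ((v : ℝ) - u)) - ε) *
          max (D.w 0 n u) (D.w 0 n v) * D.B.d n ^ (ε / 2)) := by ring
    _ ≤ 1 * (D.B.d n ^ (-(Ct * ((v : ℝ) - u)) - ε) *
          max (D.w 0 n u) (D.w 0 n v) * D.B.d n ^ (ε / 2)) := mul_le_mul_of_nonneg_right k1 k0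
    _ = _ := one_mul _

end Crest.Agent.R136.Stc321
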