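import Crest.Agent.R136.Vw2_848

/-!
# R136: row (ii) of 5b (weights 2, 3, 4), part b: configuration form (helper848)

* `phiC W κ lam w n i k k' q` : multiplier of `c` in the slot `q` (weight `w - 1`).
* `rowC_cfg` : the geometry, all slots of weight `≥ w - 1`.
* `shift2_R` : visible shift of a slot `sX` in one of two slots `s1, s2`.
* `rowC_shift` : `loss of c ≤ loss of {q1, q2}`.
-/

set_option autoImplicit false
set_option linter.unusedSectionVars false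
set_option linter.unusedVariables false

open Filter Topology

namespace Crest.Agent.R136.Vw848

open Finset Crest.Agent.R136.NetW191 Crest.Agent.R136.Net191 Crest.Agent.R136.Qg926
open Crest.Agent.R136.EvW938
open Crest.Agent.R138.Ex926 (Base U)
open Crest.Agent.R136.Gf356
open Crest.Agent.R136.TrI938

variable {ι : ℕ → Type*} [∀ n, DecidableEq (ι n)] {W : Wnd 18 ι} {κ : ℕ → ℝ}
  {lam : ℕ → Fin 18 → ℝ} {f : ∀ n, ι n → FW}

/-- raw own motion of the flags -/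
noncomputable def ownR (W : Wnd 18 ι) (lam : ℕ → Fin 18 → ℝ) (n i k k' : ℕ) : Fin 14 → ℝ :=
  fun q => un W lam n (Fin.natAdd 4 q) * ownC W n i k k' (Fin.natAdd 4 q)

/-- **multiplier of `c` in the slot `q`**, own rotation of weight `w` -/
noncomputable def phiC (W : Wnd 18 ι) (κ : ℕ → ℝ) (lam : ℕ → Fin 18 → ℝ) (w n i k k' : ℕ)
    (q : Fin 14) : ℝ :=
  -(un W lam n 1 * tr (κ n) (frC (κ n) (un W lam n 0 * ownC W n i k k' 0) 1)
    (prj w (ownR W lam n i k k')) q) / un W lam n (Fin.natAdd 4 q)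

/-- constant of `rowC_cfg` -/
noncomputable def CC (W : Wnd 18 ι) (s : Fin 18) : ℝ :=
  (CW W.K0 + 941 * (2 * W.K2 ^ 3) ^ 7) / W.kap s

/-- **all slots of weight `≥ w - 1` after a motion, everything but `c` narrow** -/
theorem rowC_cfg (h : WWnd W κ lam f) {n : ℕ} (g : W.Good n) {E : Finset (ι n)} (hE : E ⊆ W.Cl n)
    {i l k k' : ℕ}
    (hi : (i, k) ∈ (W.cfg0 n E).I) (hi' : (i, k') ∈ (W.cfg0 n E).I)
    (hl : (l, k) ∈ (W.cfg0 n E).I) (hl' : (l, k') ∈ (W.cfg0 n E).I) {t η : ℝ}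
    (ht : ∀ s, t ≤ W.top s) (hη : W.B'.d n ^ t ≤ η) {w : ℕ} (hw : 1 ≤ w)
    (hinv : ∀ q : Fin 14, Fin.natAdd 4 q ∈ W.S → wq q ≠ w →
      |ownC W n i k k' (Fin.natAdd 4 q)| ≤ η)
    (hb : ∀ s, s ∉ W.S → s ≠ 1 → |(W.cfg0 n E).rel k i l s| ≤ η)
    {q : Fin 14} (hq : Fin.natAdd 4 q ∉ W.S) :
    (w ≤ wq q → |(W.cfg0 n E).rel k' i l (Fin.natAdd 4 q)| ≤ CC W (Fin.natAdd 4 q) * η) ∧
    (wq q + 1 = w → |(W.cfg0 n E).rel k' i l (Fin.natAdd 4 q) -
      phiC W κ lam w n i k k' q * (W.cfg0 n E).rel k i l 1| ≤ CC W (Fin.natAdd 4 q) * η) := by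
  have hρ0 : 0 ≤ W.B'.d n ^ t := Real.rpow_nonneg (W.B'.pos n).le _
  have hη0 : 0 ≤ η := hρ0.trans hη
  have hK2 := Wnd.K2_one h.ok
  have hK20 : 0 ≤ W.K2 := by linarith
  set a := ownC W n i k k' with ha
  set b := (W.cfg0 n E).rel k i l with hb0
  have ha1 : ∀ s, |a s| ≤ W.K0 / W.kap s := h.own_le g hE hi hi'
  have hb1 : ∀ s, |b s| ≤ W.K0 / W.kap s := h.rel_le g hE hi hl
  set A : Fin 18 → ℝ := fun s => un W lam n s * a s with hA
  set Bv : Fin 18 → ℝ := fun s => un W lam n s * b s with hBv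
  obtain ⟨a1, a2, a3⟩ := Wnd.rep_of_mem hE hi
  obtain ⟨b1, b2, b3⟩ := Wnd.rep_of_mem hE hi'
  have hoff : ∀ s, s ∉ W.S → |A s| ≤ W.K2 * η * sd W lam n s := by
    intro s hs
    have h7 := h.own_small g a1 b1 (a2.trans b2.symm) hs (ht _)
    rw [h.crd_eq g a1 b1] at h7
    refine h7.trans (mul_le_mul_of_nonneg_right ?_ (h.sd_pos n _).le)
    exact mul_le_mul (Wnd.K0_le_K2 W) hη hρ0 hK20
  have r := rowC_raw (S := W.S) w (h.hκ n) (h.sides g) hK2 hη0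
    (a := A) (b := Bv) (fun s => h.raw_K0 (ha1 s))
    (fun q hq hqw => h.raw_K2 (hinv q hq hqw) hη0) (fun q hq => hoff _ hq)
    (fun s => h.raw_K0 (hb1 s)) h.n2 h.n3 (fun s hs h1 => h.raw_K2 (hb s hs h1) hη0) q
  have hCW : 0 ≤ CW W.K0 := (CW_pos h.ok.K0_one).le
  have hev := h.evo_cfg g hE hi hi' hl hl' ht _ hq
  have hL : 1 ≤ 2 * W.K2 ^ 3 := by
    have := one_le_pow₀ hK2 (n := 3)
    linarith
  have hL7 : 2 * W.K2 ^ 3 ≤ (2 * W.K2 ^ 3) ^ 7 := by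
    calc 2 * W.K2 ^ 3 = (2 * W.K2 ^ 3) ^ 1 := (pow_one _).symm
      _ ≤ _ := pow_le_pow_right₀ hL (by norm_num)
  have hK23 : W.K2 ≤ 2 * W.K2 ^ 3 := by nlinarith [mul_nonneg hK20 hK20]
  have hstep : ∀ x : ℝ, |evoW (κ n) W.S A Bv (Fin.natAdd 4 q) - x * un W lam n (Fin.natAdd 4 q)| ≤
      941 * (2 * W.K2 ^ 3) ^ 7 * η * sd W lam n (Fin.natAdd 4 q) →
      |(W.cfg0 n E).rel k' i l (Fin.natAdd 4 q) - x| ≤ CC W (Fin.natAdd 4 q) * η := by
    intro x hx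
    have h2 := h.norm_le hx
    have hu := (h.un_pos n (Fin.natAdd 4 q)).ne'
    rw [sub_div, mul_div_cancel_right₀ _ hu] at h2
    have h3 : evoC W κ lam n a b (Fin.natAdd 4 q) = evoW (κ n) W.S A Bv (Fin.natAdd 4 q) /
      un W lam n (Fin.natAdd 4 q) := rfl
    rw [← h3] at h2
    have h4 := abs_sub_le ((W.cfg0 n E).rel k' i l (Fin.natAdd 4 q))
      (evoC W κ lam n a b (Fin.natAdd 4 q)) x
    have hk := h.ok.kap (Fin.natAdd 4 q)
    have h5 : CW W.K0 * W.B'.d n ^ t / W.kap (Fin.natAdd 4 q) ≤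
        CW W.K0 * η / W.kap (Fin.natAdd 4 q) :=
      div_le_div_of_nonneg_right (mul_le_mul_of_nonneg_left hη hCW) hk.le
    have e : CC W (Fin.natAdd 4 q) * η = CW W.K0 * η / W.kap (Fin.natAdd 4 q) +
        941 * (2 * W.K2 ^ 3) ^ 7 * η / W.kap (Fin.natAdd 4 q) := by
      unfold CC; ring
    linarith
  have hsd := (h.sd_pos n (Fin.natAdd 4 q)).le
  constructor
  · intro hwq
    have h6 := hstep 0 (by
      rw [zero_mul, sub_zero]
      rw [tr_line w hw hwq] at r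
      have hp : |prj w (flg A) q| ≤ W.K2 * η * sd W lam n (Fin.natAdd 4 q) := by
        unfold prj
        split_ifs
        · exact hoff _ hq
        · rw [abs_zero]
          exact mul_nonneg (mul_nonneg hK20 hη0) hsd
      have e : evoW (κ n) W.S A Bv (Fin.natAdd 4 q) =
          (evoW (κ n) W.S A Bv (Fin.natAdd 4 q) + prj w (flg A) q) - prj w (flg A) q := by ring
      rw [e]
      refine (abs_sub _ _).trans ((add_le_add r hp).trans ?_)
      have h8 : W.K2 * η * sd W lam n (Fin.natAdd 4 q) ≤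
          (2 * W.K2 ^ 3) ^ 7 * η * sd W lam n (Fin.natAdd 4 q) :=
        mul_le_mul_of_nonneg_right (mul_le_mul_of_nonneg_right (hK23.trans hL7) hη0) hsd
      linarith)
    rwa [sub_zero] at h6
  · intro hwq
    refine hstep _ ?_
    rw [tr_lin w hwq] at r
    have hu1 := (h.un_pos n 1).ne'
    have huq := (h.un_pos n (Fin.natAdd 4 q)).ne'
    have e1 : phiC W κ lam w n i k k' q * b 1 * un W lam n (Fin.natAdd 4 q) =
        -(Bv 1 * tr (κ n) (frC (κ n) (A 0) 1) (prj w (flg A)) q) := by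
      have e2 : (flg A : Fin 14 → ℝ) = ownR W lam n i k k' := rfl
      rw [e2]
      unfold phiC
      simp only [hA, hBv, ← ha]
      field_simp
    rw [e1, sub_neg_eq_add]
    refine r.trans ?_
    have h8 : 0 ≤ (2 * W.K2 ^ 3) ^ 7 * η * sd W lam n (Fin.natAdd 4 q) :=
      mul_nonneg (mul_nonneg (by positivity) hη0) hsd
    linarith

/-- **visible shift in one of two slots**, multipliers depending on the line. -/
theorem shift2_R {κ : Type} {B : Base} {G : ℕ → RCfg κ} {Leg : Set (κ → ℝ)} {ν : (κ → ℝ) → ℝ}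
    {σ R D : ℝ} (H : RModel B G σ R Leg ν D) (p p' pT r : κ → ℝ)
    (hp : p ∈ Leg) (hp' : p' ∈ Leg) (hpT : pT ∈ Leg) (hr : r ∈ Leg) (hTr : ∀ j, pT j ≤ r j)
    (sX s1 s2 : κ) {y : ℝ} (hX : p' sX ≤ y) (ho : ∀ j, j ≠ sX → p' j ≤ p j) (hN1 : y ≤ r s1)
    (hN2 : y ≤ r s2)
    (φ1 φ2 : ℕ → ℕ → ℕ → ℕ → ℝ)
    (htw : RawTwI B G fun n i k k' => max |φ1 n i k k'| |φ2 n i k k'|)
    (hgeo : ∀ C0 : ℝ, 0 < C0 → ∃ C1 : ℝ, 0 < C1 ∧ ∀ ε : ℝ, 0 < ε → ∀ᶠ n in (U : Filter ℕ),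
      ∀ k ∈ (G n).Z, ∀ k' ∈ (G n).Z, ∀ i i', (i, k) ∈ (G n).I → (i, k') ∈ (G n).I →
      (i', k) ∈ (G n).I → (i', k') ∈ (G n).I → (G n).loose p (C0 * ε) k i i' →
      (G n).loose pT (C1 * ε) k' i i' ∧
      |(G n).rel k' i i' s1 - φ1 n i k k' * (G n).rel k i i' sX| ≤ B.d n ^ (y - C1 * ε) ∧
      |(G n).rel k' i i' s2 - φ2 n i k k' * (G n).rel k i i' sX| ≤ B.d n ^ (y - C1 * ε)) :
    ν p - ν p' ≤ ν pT - ν r := by
  refine transferI_R H p p' pT r hp hp' hpT hr hTr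
    (fun n ε i k k' => B.d n ^ ε < abs (max (abs (φ1 n i k k')) (abs (φ2 n i k k')))) (fun ε hε => htw ε hε) ?_
  intro C0 hC0
  obtain ⟨C1, hC1, h1⟩ := hgeo C0 hC0
  refine ⟨C1, hC1, fun C2 hC2 => ⟨C0 + C1 + C2 + 2, by positivity, fun ε hε => ?_⟩⟩
  filter_upwards [h1 ε hε, ev_const_le B hε 2] with n hn h2 k hk k' hk' i i' hi hi' hl hl' hnb _
    hlo
  obtain ⟨a1, a2, a2'⟩ := hn k hk k' hk' i i' hi hi' hl hl' hlo
  refine ⟨a1, fun hr' j => ?_⟩
  have hpow : ∀ t : ℝ, 0 < B.d n ^ t := fun t => rpos B n t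
  rw [H.base n]
  by_cases hj : j = sX
  · subst hj
    have key : ∀ (s : κ) (φ : ℕ → ℕ → ℕ → ℕ → ℝ), y ≤ r s →
        |(G n).rel k' i i' s - φ n i k k' * (G n).rel k i i' j| ≤ B.d n ^ (y - C1 * ε) →
        |φ n i k k'| * |(G n).rel k i i' j| ≤ 2 * B.d n ^ (y - (C1 + C2) * ε) := by
      intro s φ hN a2
      have b1 : |(G n).rel k' i i' s| ≤ B.d n ^ (y - (C1 + C2) * ε) := by
        have := hr' s
        rw [H.base n] at this
        refine this.trans (rpow_anti B n ?_)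
        have : 0 ≤ C1 * ε := by positivity
        nlinarith
      rw [← abs_mul]
      have e1 : φ n i k k' * (G n).rel k i i' j = (G n).rel k' i i' s -
          ((G n).rel k' i i' s - φ n i k k' * (G n).rel k i i' j) := by ring
      rw [e1]
      have b3 := abs_sub ((G n).rel k' i i' s)
        ((G n).rel k' i i' s - φ n i k k' * (G n).rel k i i' j)
      have b4 : B.d n ^ (y - C1 * ε) ≤ B.d n ^ (y - (C1 + C2) * ε) := rpow_anti B n (by
        have : 0 ≤ C2 * ε := by positivity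
        nlinarith)
      linarith
    have k1 := key s1 φ1 hN1 a2
    have k2 := key s2 φ2 hN2 a2'
    have b5 : B.d n ^ ε * |(G n).rel k i i' j| ≤ 2 * B.d n ^ (y - (C1 + C2) * ε) := by
      rw [abs_of_nonneg ((abs_nonneg _).trans (le_max_left _ _))] at hnb
      rcases le_total |φ1 n i k k'| |φ2 n i k k'| with hle | hle
      · rw [max_eq_right hle] at hnb
        exact (mul_le_mul_of_nonneg_right hnb.le (abs_nonneg _)).trans k2
      · rw [max_eq_left hle] at hnb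
        exact (mul_le_mul_of_nonneg_right hnb.le (abs_nonneg _)).trans k1
    have b6 : |(G n).rel k i i' j| ≤ B.d n ^ (-ε) * (2 * B.d n ^ (y - (C1 + C2) * ε)) := by
      have e2 : B.d n ^ (-ε) * B.d n ^ ε = 1 := by
        rw [← rpow_add', neg_add_cancel, Real.rpow_zero]
      calc |(G n).rel k i i' j| = B.d n ^ (-ε) * (B.d n ^ ε * |(G n).rel k i i' j|) := by
            rw [← mul_assoc, e2, one_mul]
        _ ≤ _ := mul_le_mul_of_nonneg_left b5 (hpow _).le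
    calc |(G n).rel k i i' j| ≤ B.d n ^ (-ε) * (2 * B.d n ^ (y - (C1 + C2) * ε)) := b6
      _ ≤ B.d n ^ (-ε) * (B.d n ^ (-ε) * B.d n ^ (y - (C1 + C2) * ε)) := by
          refine mul_le_mul_of_nonneg_left ?_ (hpow _).le
          exact mul_le_mul_of_nonneg_right h2 (hpow _).le
      _ = B.d n ^ (y - (C1 + C2 + 2) * ε) := by
          rw [← rpow_add', ← rpow_add']; congr 1; ring
      _ ≤ _ := rpow_anti B n (by
          have : 0 ≤ C0 * ε := by positivity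
          nlinarith)
  · have := hlo j
    rw [H.base n] at this
    refine this.trans (rpow_anti B n ?_)
    have h3 := ho j hj
    have : 0 ≤ (C1 + C2 + 2) * ε := by positivity
    nlinarith

/-- **loss of `c` (all line slots narrow) `≤` loss of the seen slots `q1, q2` of weight `w - 1`** -/
theorem rowC_shift (h : WWnd W κ lam f) {E : ∀ n, Finset (ι n)} (hE : EvG W E)
    {Leg : Set (Fin 18 → ℝ)} {ν : (Fin 18 → ℝ) → ℝ} {σ R D : ℝ}
    (H : RModel W.B' (W.cfg E) σ R Leg ν D) {y : ℝ} (hyt : ∀ s, y ≤ W.top s) {w : ℕ}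
    (hw : 1 ≤ w) {q1 q2 : Fin 14} (hq1 : wq q1 + 1 = w) (hq2 : wq q2 + 1 = w)
    (hS1 : Fin.natAdd 4 q1 ∉ W.S) (hS2 : Fin.natAdd 4 q2 ∉ W.S)
    (hinv : ∀ ε : ℝ, 0 < ε → ∀ᶠ n in (U : Filter ℕ), ∀ i k k', (i, k) ∈ (W.cfg E n).I →
      (i, k') ∈ (W.cfg E n).I → ∀ q : Fin 14, Fin.natAdd 4 q ∈ W.S → wq q ≠ w →
      |ownC W n i k k' (Fin.natAdd 4 q)| ≤ W.B'.d n ^ (y - ε))
    (htw : RawTwI W.B' (W.cfg E) fun n i k k' =>
      max |phiC W κ lam w n i k k' q1| |phiC W κ lam w n i k k' q2|)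
    (p p' pT r : Fin 18 → ℝ) (hp : p ∈ Leg) (hp' : p' ∈ Leg) (hpT : pT ∈ Leg) (hr : r ∈ Leg)
    (hTr : ∀ j, pT j ≤ r j) (h1 : p' 1 ≤ y) (ho : ∀ j, j ≠ 1 → p' j ≤ p j)
    (hpy : ∀ s, s ∉ W.S → s ≠ 1 → y ≤ p s)
    (hT0 : ∀ i : Fin 4, pT (Fin.castAdd 14 i) ≤ 0)
    (hT1 : ∀ q : Fin 14, Fin.natAdd 4 q ∉ W.S → wq q < w → pT (Fin.natAdd 4 q) ≤ 0)
    (hTy : ∀ s, s ∉ W.S → pT s ≤ y) (hr1 : y ≤ r (Fin.natAdd 4 q1))
    (hr2 : y ≤ r (Fin.natAdd 4 q2)) : ν p - ν p' ≤ ν pT - ν r := by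
  refine shift2_R H p p' pT r hp hp' hpT hr hTr 1 (Fin.natAdd 4 q1) (Fin.natAdd 4 q2) h1 ho hr1
    hr2 (fun n i k k' => phiC W κ lam w n i k k' q1) (fun n i k k' => phiC W κ lam w n i k k' q2)
    htw ?_
  intro C0 hC0
  refine ⟨C0 + 1, by linarith, fun ε hε => ?_⟩
  have hCε : 0 < C0 * ε := mul_pos hC0 hε
  have hbd : ∀ᶠ n in (U : Filter ℕ), ∀ s, CC W s ≤ W.B'.d n ^ (-ε) ∧
      W.K0 / W.kap s ≤ W.B'.d n ^ (-ε) := by
    rw [Filter.eventually_all]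
    intro s
    exact (ev_const_le W.B' hε (CC W s)).and (ev_const_le W.B' hε (W.K0 / W.kap s))
  filter_upwards [hE, hinv (C0 * ε) hCε, hbd] with n hn hinvn hbn
  obtain ⟨g, hsub, heq⟩ := hn
  rw [heq] at hinvn ⊢
  intro k hk k' hk' i i' hi hi' hl hl' hlo
  have hρ : (W.cfg0 n (E n)).ρ = W.B'.d n := rfl
  have hpos : ∀ t : ℝ, 0 < W.B'.d n ^ t := fun t => Real.rpow_pos_of_pos (W.B'.pos n) _
  have anti : ∀ {s t : ℝ}, s ≤ t → W.B'.d n ^ t ≤ W.B'.d n ^ s := fun hst =>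
    Real.rpow_le_rpow_of_exponent_ge (W.B'.pos n) (W.B'.lt n).le hst
  have hmul : ∀ s : Fin 18, CC W s * W.B'.d n ^ (y - C0 * ε) ≤
      W.B'.d n ^ (y - (C0 + 1) * ε) := by
    intro s
    refine (mul_le_mul_of_nonneg_right (hbn s).1 (hpos _).le).trans (le_of_eq ?_)
    rw [← Real.rpow_add (W.B'.pos n)]
    congr 1; ring
  have row := fun {q : Fin 14} (hq : Fin.natAdd 4 q ∉ W.S) =>
    rowC_cfg h g hsub hi hi' hl hl' (t := y) (η := W.B'.d n ^ (y - C0 * ε)) hyt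
      (anti (by linarith)) hw (fun q hs hqw => hinvn i k k' hi hi' q hs hqw) (fun s hs h1s => by
        refine (hlo s).trans ?_
        rw [hρ]
        exact anti (by have := hpy s hs h1s; linarith)) hq
  refine ⟨fun s => ?_, ?_, ?_⟩
  · rw [hρ]
    by_cases hs : s ∈ W.S
    · have : (W.cfg0 n (E n)).rel k' i i' s = 0 := if_pos hs
      rw [this, abs_zero]
      exact (hpos _).le
    have hco : pT s ≤ 0 → |(W.cfg0 n (E n)).rel k' i i' s| ≤
        W.B'.d n ^ (pT s - (C0 + 1) * ε) := by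
      intro h6
      refine (h.rel_le g hsub hi' hl' s).trans ((hbn s).2.trans (anti ?_))
      nlinarith
    revert hs hco
    refine Fin.addCases (m := 4) (n := 14) (fun j hs hco => hco (hT0 j)) (fun q hs hco => ?_) s
    by_cases hqw : wq q < w
    · exact hco (hT1 q hs hqw)
    · refine ((row hs).1 (not_lt.1 hqw)).trans ((hmul _).trans (anti ?_))
      have := hTy _ hs
      linarith
  · exact ((row hS1).2 hq1).trans ((hmul _).trans (anti le_rfl))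
  · exact ((row hS2).2 hq2).trans ((hmul _).trans (anti le_rfl))

end Crest.Agent.R136.Vw848
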