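import Crest.Agent.R136.BaseW_619
import Crest.Agent.R136.Vw3_848

/-!
# R136: `deadlow`, part 1 (helper619): window facts, level slots `{z, v}`, `v = 15` or `14`

Everything is narrow in the base boxes except `B` (slot 3) and the slots of the link.

* `htP` : height link `P → N` (`v = 15`), `freeP` : `N` not full ⊢ `P` costs nothing.
* `leafA15` : leaf `A → N` with the flag `15` (`v = 14`).
-/

set_option autoImplicit false
set_option linter.unusedSectionVars false
set_option linter.unusedVariables false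

open Filter Topology

namespace Crest.Agent.R136.DLow619

open Finset Crest.Agent.R136.NetW191 Crest.Agent.R136.Net191 Crest.Agent.R136.Qg926
open Crest.Agent.R136.EvW938 Crest.Agent.R136.RowW619 Crest.Agent.R136.Lf400
open Crest.Agent.R136.LfW619 Crest.Agent.R136.Ht887 Crest.Agent.R136.BaseW619
open Crest.Agent.R138.Ex926 (Base U)
open Crest.Agent.R136.Gf356

variable {ι : ℕ → Type*} [∀ n, DecidableEq (ι n)] {W : Wnd 18 ι} {κ : ℕ → ℝ}
  {lam : ℕ → Fin 18 → ℝ} {f : ∀ n, ι n → FW}

/-- base box: `B` coarse, everything else narrow -/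
def bB (x : ℝ) : Fin 18 → ℝ := fun s => if s = 3 then 0 else x

/-- narrow slots (composition at one height) -/
def NP : Finset (Fin 18) := univ.filter fun s => s ≠ 3 ∧ s ≠ 16 ∧ s ≠ 17

/-- narrow flags and lateral frames (shift) -/
def NP1 : Finset (Fin 18) := univ.filter fun s => s ≠ 0 ∧ s ≠ 16 ∧ s ≠ 17

/-- narrow slots (own part) -/
def NP2 : Finset (Fin 18) := univ.filter fun s => s ≠ 3 ∧ s ≠ 15

theorem live_NP : ∀ q : Fin 14, live NP q = [] := by decide
theorem live_NP1 : ∀ q : Fin 14, q ≠ 13 → live NP1 q = [] := by decide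
theorem live_NP1N : live NP1 13 = [⟨1, 0, [0], 12⟩] := by decide
theorem live_NP2 : ∀ q : Fin 14, live NP2 q = [] := by decide


section win

variable (h : WWnd W κ lam f)

include h

/-- the own part of a flag row: everything narrow but `B` and the own flag `15` -/
theorem row_dead {n : ℕ} (g : W.Good n) {E : Finset (ι n)} (hE : E ⊆ W.Cl n) {i l k k' : ℕ}
    (hi : (i, k) ∈ (W.cfg0 n E).I) (hi' : (i, k') ∈ (W.cfg0 n E).I)
    (hl : (l, k) ∈ (W.cfg0 n E).I) (hl' : (l, k') ∈ (W.cfg0 n E).I)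
    (hS : W.S = {0, 15}) {x : ℝ} (htop : ∀ s, x ≤ W.top s) {δ : ℝ} (hδ : 0 ≤ δ)
    (hb : ∀ s, s ∈ NP → |(W.cfg0 n E).rel k i l s| ≤ δ) {q : Fin 14}
    (hq : Fin.natAdd 4 q ∉ W.S) :
    |(W.cfg0 n E).rel k' i l (Fin.natAdd 4 q) -
      ((W.cfg0 n E).rel k i l (Fin.natAdd 4 q) + ((live NP1 q).map
        (tmN W κ lam n q (offV W.S ((W.cfg0 n E).rel k i l)) (shF (ownC W n i k k')))).sum)| ≤
      CX W * (W.B'.d n ^ x + (1 + CfW W * MW W) * δ) := by
  have hM := (MW_le h).1
  have hC := (CfW_le h).1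
  have hη : 0 ≤ (1 + CfW W * MW W) * δ := by
    have : 0 ≤ CfW W * MW W := mul_nonneg (by linarith) (by linarith)
    positivity
  have hδη : δ ≤ (1 + CfW W * MW W) * δ := by
    have : 0 ≤ CfW W * MW W * δ := mul_nonneg (mul_nonneg (by linarith) (by linarith)) hδ
    linarith
  have key := evo_row h g hE hi hi' hl hl' htop hq (N1 := NP1) (N2 := NP2) hη (by decide)
    (fun q' h1 h2 => ?_) (fun q' h1 h2 => ?_) (fun i' h0 h1 => ?_)
  · rw [live_NP2 q, List.map_nil, List.sum_nil, sub_zero] at key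
    exact key
  · refine (hb _ ?_).trans hδη
    clear h2
    revert h1; revert q'; decide
  · exfalso
    rw [hS] at h2
    revert h2; revert h1; revert q'; decide
  · have h12 : i' = 1 ∨ i' = 2 := by revert h1; revert h0; revert i'; decide
    rcases h12 with rfl | rfl
    · show |evF W κ lam n (ownC W n i k k') ((W.cfg0 n E).rel k i l) 1| ≤ _
      have e1 : evF W κ lam n (ownC W n i k k') ((W.cfg0 n E).rel k i l) 1 =
          (W.cfg0 n E).rel k i l 1 := by
        unfold evF
        rw [if_neg (by decide), h.evoC1]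
      rw [e1]
      exact (hb 1 (by decide)).trans hδη
    · show |evF W κ lam n (ownC W n i k k') ((W.cfg0 n E).rel k i l) 2| ≤ _
      have e1 : evF W κ lam n (ownC W n i k k') ((W.cfg0 n E).rel k i l) 2 =
          (W.cfg0 n E).rel k i l 2 + cfl W lam n [1, 0] 2 *
            (ownC W n i k k' 0 * (W.cfg0 n E).rel k i l 1) := by
        unfold evF
        rw [if_neg (by decide), h.evoC2]
      rw [e1]
      have b1 := hb 1 (by decide)
      have b2 := hb 2 (by decide)
      have o0 := own_MW' h g hE hi hi' 0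
      have c0 := (h.cfl_pos n [1, 0] 2).le
      have h3 : |cfl W lam n [1, 0] 2 * (ownC W n i k k' 0 * (W.cfg0 n E).rel k i l 1)| ≤
          CfW W * (MW W * δ) := by
        rw [abs_mul, abs_mul, abs_of_nonneg c0]
        exact mul_le_mul (cfl2_CfW h g) (mul_le_mul o0 b1 (abs_nonneg _) (by linarith))
          (mul_nonneg (abs_nonneg _) (abs_nonneg _)) (by linarith)
      refine (abs_add_le _ _).trans ((add_le_add b2 h3).trans (le_of_eq ?_))
      ring

set_option maxHeartbeats 1000000 in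
/-- **the height link `P → N`** in a window with the level slots `z, 15` -/
theorem htP {E : ∀ n, Finset (ι n)} (hE : EvG W E) {Leg : Set (Fin 18 → ℝ)}
    {ν : (Fin 18 → ℝ) → ℝ} {D : ℝ} (H : RUnif W.B' (W.cfg E) Leg ν D) (hS : W.S = {0, 15})
    {x : ℝ} (hx : 0 ≤ x) (htop : ∀ s, x ≤ W.top s)
    (ht : ∀ᶠ n in (U : Filter ℕ), W.X n 17 = W.X n 0 + W.X n 16)
    (hp : b2 (bB x) 16 17 0 0 ∈ Leg) :
    HtLink W.B' (W.cfg E) (b2 (bB x) 16 17 0 0) 16 17 x (fun n => cfl W lam n [0, 16] 17)
      (D ^ 2 + 2) := by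
  have hD := H.D1
  have hM := (MW_le h).1
  have hC := (CfW_le h).1
  have hCX := (CX_pos h).1
  have hC1 : 1 ≤ D ^ 2 + 2 := by nlinarith
  have hpN : ∀ s ∈ NP, b2 (bB x) 16 17 0 0 s = x := by
    intro s hs
    have h1 : s ≠ 3 ∧ s ≠ 16 ∧ s ≠ 17 := by
      revert hs; revert s; decide
    unfold b2 bB
    rw [if_neg h1.2.1, if_neg h1.2.2, if_neg h1.1]
  have hpC : ∀ s, s ∉ NP → b2 (bB x) 16 17 0 0 s = 0 := by
    intro s hs
    have h1 : s = 3 ∨ s = 16 ∨ s = 17 := by
      revert hs; revert s; decide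
    rcases h1 with rfl | rfl | rfl
    · rfl
    · rfl
    · rfl
  have n16 : (16 : Fin 18) ∉ W.S := h.n16
  have n17 : (17 : Fin 18) ∉ W.S := h.n17
  have hSN : W.S ⊆ NP := by rw [hS]; decide
  refine ⟨hC1, ?_, ?_, ?_, ?_⟩
  · refine cf_ok h (by decide) ?_
    filter_upwards [ht] with n hn
    rw [hn]; simp
  · intro ε hε
    filter_upwards [hE, ev_const_le W.B' hε (2 * MW W)] with n hn h1 k hk k' hk'
    obtain ⟨g, hsub, heq⟩ := hn
    rw [heq] at hk hk' ⊢
    refine (abs_sub _ _).trans (le_trans ?_ h1)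
    have := z_le h g hsub hk
    have := z_le h g hsub hk'
    linarith
  · intro ε hε
    filter_upwards [hE, narrow_two h H hp hε,
      ev_const_le W.B' hε (67 * (CfW W * (MW W ^ 6 * MW W)))] with n hn hnar hk k i l l' hi hl1 hl2
      h1 h2
    obtain ⟨g, hsub, heq⟩ := hn
    obtain ⟨n1, n2⟩ := hnar k i l l' hi hl1 hl2 h1 h2
    rw [heq] at hi hl1 hl2 n1 n2 ⊢
    have hpos : ∀ t : ℝ, 0 < W.B'.d n ^ t := fun t => Real.rpow_pos_of_pos (W.B'.pos n) _
    have anti : ∀ {s t : ℝ}, s ≤ t → W.B'.d n ^ t ≤ W.B'.d n ^ s := fun hst =>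
      Real.rpow_le_rpow_of_exponent_ge (W.B'.pos n) (W.B'.lt n).le hst
    have hDε : 0 ≤ D ^ 2 * ε := by positivity
    have a2 := (hpos (x - D ^ 2 * ε)).le
    have a3 : W.B'.d n ^ (x - D ^ 2 * ε) ≤ MW W * W.B'.d n ^ (x - D ^ 2 * ε) := by nlinarith
    have hfin : 67 * (CfW W * (MW W ^ 6 * (MW W * W.B'.d n ^ (x - D ^ 2 * ε)))) ≤
        W.B'.d n ^ (x - (D ^ 2 + 2) * ε) := by
      have := mul_le_mul_of_nonneg_right hk (hpos (x - D ^ 2 * ε)).le
      rw [← Real.rpow_add (W.B'.pos n)] at this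
      have e1 : W.B'.d n ^ (-ε + (x - D ^ 2 * ε)) ≤ W.B'.d n ^ (x - (D ^ 2 + 2) * ε) :=
        anti (by linarith)
      refine le_trans (le_of_eq ?_) (this.trans e1)
      ring
    have key := fun (q : Fin 14) (hq : Fin.natAdd 4 q ∉ W.S) =>
      comp_live h g hsub hi hl1 hl2 (q := q) hq hSN (t := x)
      (η := MW W * W.B'.d n ^ (x - D ^ 2 * ε)) (fun s _ => htop s)
      (mul_le_mul_of_nonneg_left (anti (by linarith)) (by linarith))
      (fun s hs hsS => (n1 s).trans ((le_of_eq (by rw [hpN s hs])).trans a3))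
      (fun s hs hsS => (n2 s).trans ((le_of_eq (by rw [hpN s hs])).trans a3))
    have k13 := key 13 n17
    have k12 := key 12 n16
    rw [live_NP, List.map_nil, List.sum_nil, sub_zero] at k13 k12
    exact ⟨k13.trans hfin, k12.trans hfin⟩
  · intro ε hε
    set C0 : ℝ := 1 + CfW W * MW W with hC0
    have hC01 : 1 ≤ C0 := by
      have : 0 ≤ CfW W * MW W := mul_nonneg (by linarith) (by linarith)
      linarith
    filter_upwards [hE, ev_const_le W.B' hε (MW W),
      const_pow h (1 + CX W * (1 + C0)) hε (x - ε),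
      const_pow h (1 + C0 + CW W.K0 / W.kap 1) hε (x - ε),
      const_pow h (1 + C0 + CW W.K0 / W.kap 2) hε (x - ε),
      const_pow h (CX W * (1 + C0) + CfW W * (2 * W.K0 / W.kap 0 * MW W)) hε (x - ε)]
      with n hn h1 h2 h3 h4 h5 k k' i l hi hi' hl hl' hlo
    obtain ⟨g, hsub, heq⟩ := hn
    rw [heq] at hi hi' hl hl' hlo ⊢
    have hρ : (W.cfg0 n (E n)).ρ = W.B'.d n := rfl
    have hpos : ∀ t : ℝ, 0 < W.B'.d n ^ t := fun t => Real.rpow_pos_of_pos (W.B'.pos n) _
    have anti : ∀ {s t : ℝ}, s ≤ t → W.B'.d n ^ t ≤ W.B'.d n ^ s := fun hst =>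
      Real.rpow_le_rpow_of_exponent_ge (W.B'.pos n) (W.B'.lt n).le hst
    have hx1 : W.B'.d n ^ x ≤ W.B'.d n ^ (x - ε) := anti (by linarith)
    have hδ0 := (hpos (x - ε)).le
    have hb : ∀ s, s ∈ NP → |(W.cfg0 n (E n)).rel k i l s| ≤ W.B'.d n ^ (x - ε) := by
      intro s hs
      have := hlo s
      rwa [hpN s hs] at this
    have hfin : W.B'.d n ^ (x - ε - ε) ≤ W.B'.d n ^ (x - (D ^ 2 + 2) * ε) :=
      anti (by nlinarith [mul_nonneg (sq_nonneg D) hε.le])
    have hrow := fun (q : Fin 14) (hq : Fin.natAdd 4 q ∉ W.S) =>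
      row_dead h g hsub hi hi' hl hl' hS htop hδ0 hb (q := q) hq
    have hCXb : CX W * (W.B'.d n ^ x + C0 * W.B'.d n ^ (x - ε)) ≤
        CX W * (1 + C0) * W.B'.d n ^ (x - ε) := by
      have := mul_le_mul_of_nonneg_left (add_le_add_left hx1 (C0 * W.B'.d n ^ (x - ε))) hCX
      linarith
    constructor
    · intro s
      rw [hρ]
      by_cases hsN : s ∈ NP
      · rw [hpN s hsN]
        refine le_trans ?_ hfin
        by_cases hsS : s ∈ W.S
        · have : (W.cfg0 n (E n)).rel k' i l s = 0 := if_pos hsS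
          rw [this, abs_zero]
          exact (hpos _).le
        have hK := (CW_pos h.ok.K0_one).le
        have hcase : s = 1 ∨ s = 2 ∨ ∃ q : Fin 14, q ≠ 13 ∧ s = Fin.natAdd 4 q := by
          have hs0 : s ≠ 0 := by rintro rfl; exact hsS h.h0
          clear hsS
          revert hs0; revert hsN; revert s; decide
        rcases hcase with rfl | rfl | ⟨q, hq13, rfl⟩
        · have e1 := h.evo_cfg g hsub hi hi' hl hl' htop 1 h.n1
          rw [h.evoC1] at e1
          have b1 := hb 1 hsN
          have e2 : (W.cfg0 n (E n)).rel k' i l 1 = ((W.cfg0 n (E n)).rel k' i l 1 -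
              (W.cfg0 n (E n)).rel k i l 1) + (W.cfg0 n (E n)).rel k i l 1 := by ring
          rw [e2]
          refine (abs_add_le _ _).trans ((add_le_add e1 b1).trans (le_trans ?_ h3))
          have k1 := h.ok.kap 1
          have e3 : CW W.K0 * W.B'.d n ^ x / W.kap 1 ≤ CW W.K0 / W.kap 1 * W.B'.d n ^ (x - ε) := by
            rw [mul_div_right_comm]
            exact mul_le_mul_of_nonneg_left hx1 (by positivity)
          have e4 : 0 ≤ C0 * W.B'.d n ^ (x - ε) := by positivity
          nlinarith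
        · have e1 := h.evo_cfg g hsub hi hi' hl hl' htop 2 h.n2
          rw [h.evoC2] at e1
          have b1 := hb 1 (by decide)
          have b2 := hb 2 hsN
          have o0 := own_MW' h g hsub hi hi' 0
          have c0 := (h.cfl_pos n [1, 0] 2).le
          have h3' : |cfl W lam n [1, 0] 2 * (ownC W n i k k' 0 *
              (W.cfg0 n (E n)).rel k i l 1)| ≤ CfW W * (MW W * W.B'.d n ^ (x - ε)) := by
            rw [abs_mul, abs_mul, abs_of_nonneg c0]
            exact mul_le_mul (cfl2_CfW h g) (mul_le_mul o0 b1 (abs_nonneg _) (by linarith))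
              (mul_nonneg (abs_nonneg _) (abs_nonneg _)) (by linarith)
          have e2 : (W.cfg0 n (E n)).rel k' i l 2 = ((W.cfg0 n (E n)).rel k' i l 2 -
              ((W.cfg0 n (E n)).rel k i l 2 + cfl W lam n [1, 0] 2 * (ownC W n i k k' 0 *
              (W.cfg0 n (E n)).rel k i l 1))) + ((W.cfg0 n (E n)).rel k i l 2 +
              cfl W lam n [1, 0] 2 * (ownC W n i k k' 0 *
              (W.cfg0 n (E n)).rel k i l 1)) := by ring
          rw [e2]
          refine (abs_add_le _ _).trans ((add_le_add e1 ((abs_add_le _ _).trans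
            (add_le_add b2 h3'))).trans (le_trans ?_ h4))
          have k1 := h.ok.kap 2
          have e3 : CW W.K0 * W.B'.d n ^ x / W.kap 2 ≤ CW W.K0 / W.kap 2 * W.B'.d n ^ (x - ε) := by
            rw [mul_div_right_comm]
            exact mul_le_mul_of_nonneg_left hx1 (by positivity)
          have e4 : (1 + C0 + CW W.K0 / W.kap 2) * W.B'.d n ^ (x - ε) =
            W.B'.d n ^ (x - ε) + C0 * W.B'.d n ^ (x - ε) +
              CW W.K0 / W.kap 2 * W.B'.d n ^ (x - ε) := by ring
          have e5 : C0 * W.B'.d n ^ (x - ε) = W.B'.d n ^ (x - ε) +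
              CfW W * (MW W * W.B'.d n ^ (x - ε)) := by rw [hC0]; ring
          linarith
        · have e1 := hrow q hsS
          rw [live_NP1 q hq13, List.map_nil, List.sum_nil, add_zero] at e1
          have b1 := hb _ hsN
          have e2 : (W.cfg0 n (E n)).rel k' i l (Fin.natAdd 4 q) =
              ((W.cfg0 n (E n)).rel k' i l (Fin.natAdd 4 q) -
              (W.cfg0 n (E n)).rel k i l (Fin.natAdd 4 q)) +
              (W.cfg0 n (E n)).rel k i l (Fin.natAdd 4 q) := by ring
          rw [e2]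
          refine (abs_add_le _ _).trans ((add_le_add (e1.trans hCXb) b1).trans (le_trans
            (le_of_eq ?_) h2))
          ring
      · rw [hpC s hsN]
        refine (rel_MW' h g hsub hi' hl' s).trans (h1.trans (anti ?_))
        nlinarith [mul_nonneg (sq_nonneg D) hε.le]
    · have e1 := hrow 13 n17
      rw [live_NP1N] at e1
      have e2 : ((([⟨1, 0, [0], 12⟩] : List Tm).map (tmN W κ lam n 13 (offV W.S
          ((W.cfg0 n (E n)).rel k i l)) (shF (ownC W n i k k')))).sum) =
          cfl W lam n [0, 16] 17 * (ownC W n i k k' 0 * (W.cfg0 n (E n)).rel k i l 16) := by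
        have e3 : offV W.S ((W.cfg0 n (E n)).rel k i l) 16 = (W.cfg0 n (E n)).rel k i l 16 :=
          if_neg n16
        simp only [List.map_cons, List.map_nil, List.sum_cons, List.sum_nil, add_zero, tmN]
        have e4 : offV W.S ((W.cfg0 n (E n)).rel k i l) (Fin.natAdd 4 (12 : Fin 14)) =
          (W.cfg0 n (E n)).rel k i l 16 := e3
        have e5 : shF (ownC W n i k k') (Fin.castAdd 14 (0 : Fin 4)) = ownC W n i k k' 0 := rfl
        rw [e4, List.prod_cons, List.prod_nil, e5]
        have e6 : cfl W lam n (Tm.idx ⟨1, 0, [0], 12⟩) (Fin.natAdd 4 (13 : Fin 14)) =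
          cfl W lam n [0, 16] 17 := rfl
        rw [e6]
        norm_num
      rw [e2] at e1
      have e3 := h.own_zero g hsub hi hi' (htop 0)
      have e4 := rel_MW' h g hsub hi hl 16
      have e5 : cfl W lam n [0, 16] 17 ≤ CfW W :=
        cfl_CfW h g (q := 13) (t := ⟨1, 0, [0], 12⟩) (by decide)
      have e6 := (h.cfl_pos n [0, 16] 17).le
      have hK := h.ok.K0_one
      have hk0 := h.ok.kap 0
      have e7 : |cfl W lam n [0, 16] 17 * ((ownC W n i k k' 0 -
          ((W.cfg0 n (E n)).z k' - (W.cfg0 n (E n)).z k)) * (W.cfg0 n (E n)).rel k i l 16)| ≤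
          CfW W * (2 * W.K0 * W.B'.d n ^ x / W.kap 0 * MW W) := by
        rw [abs_mul, abs_mul, abs_of_nonneg e6]
        exact mul_le_mul e5 (mul_le_mul e3 e4 (abs_nonneg _) (div_nonneg (mul_nonneg
          (mul_nonneg zero_le_two (by linarith)) (hpos x).le) hk0.le))
          (mul_nonneg (abs_nonneg _) (abs_nonneg _)) (by linarith)
      have e8 : (W.cfg0 n (E n)).rel k' i l 17 - (W.cfg0 n (E n)).rel k i l 17 -
          cfl W lam n [0, 16] 17 * ((W.cfg0 n (E n)).z k' - (W.cfg0 n (E n)).z k) *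
            (W.cfg0 n (E n)).rel k i l 16 =
          ((W.cfg0 n (E n)).rel k' i l 17 - ((W.cfg0 n (E n)).rel k i l 17 +
            cfl W lam n [0, 16] 17 * (ownC W n i k k' 0 * (W.cfg0 n (E n)).rel k i l 16))) +
          cfl W lam n [0, 16] 17 * ((ownC W n i k k' 0 -
          ((W.cfg0 n (E n)).z k' - (W.cfg0 n (E n)).z k)) * (W.cfg0 n (E n)).rel k i l 16) := by
        ring
      rw [e8]
      refine (abs_add_le _ _).trans ((add_le_add (e1.trans hCXb) e7).trans (le_trans ?_
        (h5.trans hfin)))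
      have e9 : CfW W * (2 * W.K0 * W.B'.d n ^ x / W.kap 0 * MW W) ≤
          CfW W * (2 * W.K0 / W.kap 0 * MW W) * W.B'.d n ^ (x - ε) := by
        have e10 : CfW W * (2 * W.K0 * W.B'.d n ^ x / W.kap 0 * MW W) =
          CfW W * (2 * W.K0 / W.kap 0 * MW W) * W.B'.d n ^ x := by ring
        rw [e10]
        refine mul_le_mul_of_nonneg_left hx1 ?_
        exact mul_nonneg (by linarith) (mul_nonneg (div_nonneg (mul_nonneg zero_le_two
          (by linarith)) hk0.le) (by linarith))
      rw [add_mul]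
      linarith

end win

end Crest.Agent.R136.DLow619
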