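import Crest.Agent.R136.DLw1_619
import Crest.Agent.R136.Aw0_413

/-!
# R136: `deadlow`, part 2 (helper619): consequences in the window

* `freeP`  : `N` not full ⊢ `P` costs nothing (`B` coarse), level slots `z, 15`.
* `free15` : `N` not full ⊢ `15` costs nothing (`B` coarse), level slots `z, 14`.
* `raw_pairs` : raw twist of one slot, pairs of heights; `twPI`, `twCI` : multipliers of the rows.
* `rowI`, `rowII` : `c` costs at most `P`, `15`.
-/

set_option autoImplicit false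
set_option linter.unusedSectionVars false
set_option linter.unusedVariables false

open Filter Topology

namespace Crest.Agent.R136.DLow619

open Finset Crest.Agent.R136.NetW191 Crest.Agent.R136.Net191 Crest.Agent.R136.Qg926
open Crest.Agent.R136.EvW938 Crest.Agent.R136.RowW619 Crest.Agent.R136.Lf400
open Crest.Agent.R136.LfW619 Crest.Agent.R136.Ht887 Crest.Agent.R136.BaseW619
open Crest.Agent.R136.TrI938 Crest.Agent.R136.Vw848
open Crest.Agent.R136.Aw413 (RawL)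
open Crest.Agent.R138.Ex926 (Base U)
open Crest.Agent.R136.Gf356

variable {ι : ℕ → Type*} [∀ n, DecidableEq (ι n)] {W : Wnd 18 ι} {κ : ℕ → ℝ}
  {lam : ℕ → Fin 18 → ℝ} {f : ∀ n, ι n → FW}

/-- **raw twist of one slot, pairs of heights** -/
theorem raw_pairs {E : ∀ n, Finset (ι n)} {v : Fin 18} (hR : RawL W E v) :
    ∀ ε : ℝ, 0 < ε → ∀ᶠ n in (U : Filter ℕ), ∀ i ∈ (W.cfg E n).L,
      ∃ T ⊆ ((W.cfg E n).hts i) ×ˢ ((W.cfg E n).hts i),
        (∀ q ∈ T, W.B'.d n ^ ε < |ownC W n i q.1 q.2 v|) ∧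
        1 / 2 * (((W.cfg E n).hts i).card : ℝ) ^ 2 ≤ (T.card : ℝ) := by
  classical
  intro ε hε
  filter_upwards [hR ε hε (1 / 2) (by norm_num)] with n hn i hi
  set Hs := (W.cfg E n).hts i with hHs
  refine ⟨(Hs ×ˢ Hs).filter fun q => W.B'.d n ^ ε < |ownC W n i q.1 q.2 v|,
    Finset.filter_subset _ _, fun q hq => (Finset.mem_filter.1 hq).2, ?_⟩
  have h1 : (((Hs ×ˢ Hs).filter fun q => ¬ W.B'.d n ^ ε < |ownC W n i q.1 q.2 v|).card : ℝ) ≤
      1 / 2 * (Hs.card : ℝ) ^ 2 := by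
    have e1 : ((Hs ×ˢ Hs).filter fun q => ¬ W.B'.d n ^ ε < |ownC W n i q.1 q.2 v|).card =
        ∑ k ∈ Hs, (Hs.filter fun k' => ¬ W.B'.d n ^ ε < |ownC W n i k k' v|).card := by
      rw [Finset.card_eq_sum_card_fiberwise (f := Prod.fst) (t := Hs) (fun q hq => by
        have := (Finset.mem_filter.1 hq).1
        exact (Finset.mem_product.1 this).1)]
      refine Finset.sum_congr rfl fun k hk => ?_
      refine Finset.card_bij (fun q _ => q.2) ?_ ?_ ?_
      · intro q hq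
        obtain ⟨a1, a2⟩ := Finset.mem_filter.1 hq
        obtain ⟨a3, a4⟩ := Finset.mem_filter.1 a1
        rw [← a2]
        exact Finset.mem_filter.2 ⟨(Finset.mem_product.1 a3).2, a4⟩
      · intro q hq q' hq' heq
        have a2 := (Finset.mem_filter.1 hq).2
        have a2' := (Finset.mem_filter.1 hq').2
        exact Prod.ext (a2.trans a2'.symm) heq
      · intro k' hk'
        obtain ⟨a1, a2⟩ := Finset.mem_filter.1 hk'
        exact ⟨(k, k'), Finset.mem_filter.2 ⟨Finset.mem_filter.2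
          ⟨Finset.mem_product.2 ⟨hk, a1⟩, a2⟩, rfl⟩, rfl⟩
    rw [e1]
    push_cast
    calc ∑ k ∈ Hs, ((Hs.filter fun k' => ¬ W.B'.d n ^ ε < |ownC W n i k k' v|).card : ℝ)
        ≤ ∑ _k ∈ Hs, 1 / 2 * (Hs.card : ℝ) := by
          refine Finset.sum_le_sum fun k hk => ?_
          have := hn i hi k hk
          refine le_trans (le_of_eq ?_) this
          congr 2
          ext k'
          simp only [Finset.mem_filter, not_lt]
          rfl
      _ = 1 / 2 * (Hs.card : ℝ) ^ 2 := by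
          rw [Finset.sum_const, nsmul_eq_mul]; ring
  have h2 := Finset.card_filter_add_card_filter_not (s := Hs ×ˢ Hs)
    fun q => W.B'.d n ^ ε < |ownC W n i q.1 q.2 v|
  rw [Finset.card_product] at h2
  have h3 : ((((Hs ×ˢ Hs).filter fun q => W.B'.d n ^ ε < |ownC W n i q.1 q.2 v|).card : ℝ) +
      (((Hs ×ˢ Hs).filter fun q => ¬ W.B'.d n ^ ε < |ownC W n i q.1 q.2 v|).card : ℝ)) =
      (Hs.card : ℝ) * Hs.card := by exact_mod_cast h2
  nlinarith

section win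

variable (h : WWnd W κ lam f)

include h

/-- **`P` costs nothing** if `N` is not full -/
theorem freeP {E : ∀ n, Finset (ι n)} (hE : EvG W E) {Leg : Set (Fin 18 → ℝ)}
    {ν : (Fin 18 → ℝ) → ℝ} {R D : ℝ} (H : RModel W.B' (W.cfg E) 1 R Leg ν D)
    (hS : W.S = {0, 15}) {x j : ℝ} (hx : 0 < x) (hxR : x ≤ R) (hj : 0 ≤ j) (hjx : j ≤ x)
    (htop : ∀ s, x ≤ W.top s)
    (ht : ∀ᶠ n in (U : Filter ℕ), W.X n 17 = W.X n 0 + W.X n 16)
    (hdx : ∀ t : ℝ, 0 ≤ t → t ≤ x → b2 (bB x) 16 17 t x ∈ Leg)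
    (hdiag : ∀ t : ℝ, 0 ≤ t → t ≤ x → b2 (bB x) 16 17 t t ∈ Leg)
    (hN : ν (b2 (bB x) 16 17 0 0) - ν (b2 (bB x) 16 17 0 x) < x - j) :
    ν (b2 (bB x) 16 17 0 x) ≤ ν (b2 (bB x) 16 17 j x) := by
  by_contra hcon
  push Not at hcon
  have := height_pos_R H (bB x) (by decide) hx hxR hj hjx hdx hdiag
    (htP h hE H.toRUnif hS hx.le htop ht (hdiag 0 le_rfl hx.le)) hcon
  linarith

/-- narrow slots of the leaf `A → N` with the flag `15` -/
def N15 : Finset (Fin 18) := univ.filter fun s => s ≠ 2 ∧ s ≠ 3 ∧ s ≠ 15 ∧ s ≠ 17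

omit h in
theorem live_N15 : live N15 13 = [⟨1, 0, [2], 11⟩] := by decide

/-- **`15` costs nothing** if `N` is not full, `A` full -/
theorem free15 {E : ∀ n, Finset (ι n)} (hE : EvG W E) {Leg : Set (Fin 18 → ℝ)}
    {ν : (Fin 18 → ℝ) → ℝ} {D : ℝ} (H : RUnif W.B' (W.cfg E) Leg ν D)
    (hS : W.S = {0, 14}) {x j : ℝ} (hj : 0 ≤ j) (hjx : j ≤ x) (htop : ∀ s, x ≤ W.top s)
    (ht : ∀ᶠ n in (U : Filter ℕ), W.X n 17 = W.X n 2 + W.X n 15)
    (hl : LeafLeg Leg (bB x) 2 15 17 x j)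
    (hXf : x ≤ ν (bx (bB x) 2 15 17 0 x x) - ν (bx (bB x) 2 15 17 x x x))
    (hN : ν (bx (bB x) 2 15 17 0 0 0) - ν (bx (bB x) 2 15 17 x 0 x) < 2 * x - j) :
    ν (bx (bB x) 2 15 17 x 0 x) ≤ ν (bx (bB x) 2 15 17 x j x) := by
  by_contra hcon
  push Not at hcon
  have hd : LeafDat W.S N15 2 11 13 1 0 := by rw [hS]; decide
  have hcf := cLf_ok h hd (by norm_num) (fun h0 => absurd rfl h0) (by
    filter_upwards [ht] with n hn
    exact hn)
  have := leafW_loss2 h hE H hd (b := bB x) hj hjx (fun s _ => htop s) (fun s hs _ => by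
    have h3 : s ≠ 3 := by rintro rfl; revert hs; decide
    unfold bB; rw [if_neg h3]) hcf hl hXf hcon
  have h2 : 2 * x - j ≤ ν (bx (bB x) 2 15 17 0 0 0) - ν (bx (bB x) 2 15 17 x 0 x) := this
  linarith

/-- raw twist of the multiplier `phiP` -/
theorem twPI {E : ∀ n, Finset (ι n)} (hE : EvG W E) (hR : RawL W E 15) {t : ℝ} (ht0 : 0 < t)
    (ht : ∀ s, t ≤ W.top s)
    (htg : ∀ᶠ n in (U : Filter ℕ), W.X n 16 = W.X n 1 + W.X n 15) :
    RawTwI W.B' (W.cfg E) (phiP W lam) := by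
  refine twP h hE ht0 ht fun ε hε => ?_
  have hcf := cf_ok h (l := [1, 15]) (s := 16) (by decide) (by
    filter_upwards [htg] with n hn
    rw [hn]; simp)
  filter_upwards [raw_pairs hR (ε / 2) (by positivity), hcf (ε / 2) (by positivity),
    ev_const_le W.B' hε 2] with n h1 h2 h3 i hi
  obtain ⟨T, hT1, hT2, hT3⟩ := h1 i hi
  have hpos : ∀ t : ℝ, 0 < W.B'.d n ^ t := fun t => Real.rpow_pos_of_pos (W.B'.pos n) _
  refine ⟨T, hT1, fun q hq => Or.inl ?_, ?_⟩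
  · have a1 := hT2 q hq
    have a2 := h2.1
    rw [abs_of_pos (h.cfl_pos n _ _)] at a2
    have e : W.B'.d n ^ ε = W.B'.d n ^ (ε / 2) * W.B'.d n ^ (ε / 2) := by
      rw [← Real.rpow_add (W.B'.pos n)]; congr 1; ring
    rw [e]
    calc W.B'.d n ^ (ε / 2) * W.B'.d n ^ (ε / 2) < W.B'.d n ^ (ε / 2) * |ownC W n i q.1 q.2 15| :=
          mul_lt_mul_of_pos_left a1 (hpos _)
      _ ≤ _ := mul_le_mul_of_nonneg_right a2 (abs_nonneg _)
  · refine le_trans (mul_le_mul_of_nonneg_right ?_ (sq_nonneg _)) hT3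
    have a3 : W.B'.d n ^ ε * W.B'.d n ^ (-ε) = 1 := by
      rw [← Real.rpow_add (W.B'.pos n), add_neg_cancel, Real.rpow_zero]
    have a4 := hpos ε
    nlinarith

/-- raw twist of the multiplier of the slot `15`, own rotation of weight `2` -/
theorem twCI {E : ∀ n, Finset (ι n)} (hE : EvG W E) (hS : W.S = {0, 14}) (hR : RawL W E 14)
    {t : ℝ} (ht0 : 0 < t) (ht : ∀ s, t ≤ W.top s)
    (hk : ∀ ε : ℝ, 0 < ε → ∀ᶠ n in (U : Filter ℕ), W.B'.d n ^ ε ≤ |κ n|)
    (htg : ∀ᶠ n in (U : Filter ℕ), W.X n 15 = W.X n 1 + W.X n 14) :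
    RawTwI W.B' (W.cfg E) fun n i k k' =>
      max |Vw848.phiC W κ lam 2 n i k k' 11| |Vw848.phiC W κ lam 2 n i k k' 11| := by
  intro ε0 hε0
  set ε := min ε0 (t / 2) with hεdef
  have hε : 0 < ε := lt_min hε0 (by linarith)
  have hεt : 2 * ε ≤ t := by
    have := min_le_right ε0 (t / 2); linarith
  have hcf := cf_ok h (l := [1, 14]) (s := 15) (by decide) (by
    filter_upwards [htg] with n hn
    rw [hn]; simp)
  have hM := (MW_le h).1
  have hC := (CfW_le h).1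
  have hK := h.ok.K0_one
  filter_upwards [hE, raw_pairs hR (ε / 4) (by positivity), hcf (ε / 4) (by positivity),
    hk (ε / 4) (by positivity), ev_const_le W.B' (show 0 < ε / 4 by positivity)
      (2 + 2 * (CfW W * CfW W * MW W * (W.K0 / W.kap 10)))] with n hn h1 h2 hkn h3 i hi
  obtain ⟨T, hT1, hT2, hT3⟩ := h1 i hi
  obtain ⟨g, hsub, heq⟩ := hn
  have hpos : ∀ t : ℝ, 0 < W.B'.d n ^ t := fun t => Real.rpow_pos_of_pos (W.B'.pos n) _
  have anti : ∀ {s t : ℝ}, s ≤ t → W.B'.d n ^ t ≤ W.B'.d n ^ s := fun hst =>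
    Real.rpow_le_rpow_of_exponent_ge (W.B'.pos n) (W.B'.lt n).le hst
  have hadd : ∀ s t : ℝ, W.B'.d n ^ s * W.B'.d n ^ t = W.B'.d n ^ (s + t) := fun s t =>
    (Real.rpow_add (W.B'.pos n) s t).symm
  have hCc : 0 ≤ 2 * (CfW W * CfW W * MW W * (W.K0 / W.kap 10)) := by
    have := h.ok.kap 10
    have : 0 ≤ W.K0 / W.kap 10 := div_nonneg (by linarith) this.le
    have : 0 ≤ CfW W := by linarith
    have : 0 ≤ MW W := by linarith
    positivity
  have ha3 : W.B'.d n ^ (ε / 4) * W.B'.d n ^ (-(ε / 4)) = 1 := by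
    rw [hadd, add_neg_cancel, Real.rpow_zero]
  have hsm : W.B'.d n ^ (ε / 4) ≤ 1 / 2 := by
    have a4 := hpos (ε / 4)
    nlinarith
  refine ⟨T, hT1, fun q hq => ?_, ?_⟩
  · have a1 := hT2 q hq
    have a2 := h2.1
    rw [abs_of_pos (h.cfl_pos n _ _)] at a2
    have hqm := Finset.mem_product.1 (hT1 hq)
    rw [heq] at hqm
    have hI1 : (i, q.1) ∈ (W.cfg0 n (E n)).I := (RCfg.mem_hts.1 hqm.1).2
    have hI2 : (i, q.2) ∈ (W.cfg0 n (E n)).I := (RCfg.mem_hts.1 hqm.2).2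
    obtain ⟨c1, c2, c3⟩ := Wnd.rep_of_mem hsub hI1
    obtain ⟨d1, d2, d3⟩ := Wnd.rep_of_mem hsub hI2
    have h10 : (10 : Fin 18) ∉ W.S := by rw [hS]; decide
    have o10 : |ownC W n i q.1 q.2 10| ≤ W.K0 / W.kap 10 * W.B'.d n ^ t := by
      refine (h.crd_own g c1 d1 (c2.trans d2.symm) h10 (ht 10)).trans (le_of_eq ?_)
      ring
    have o0 := own_MW' h g hsub hI1 hI2 0
    -- the multiplier
    have e1 : Vw848.phiC W κ lam 2 n i q.1 q.2 11 =
        2 * κ n * cfl W lam n [1, 14] 15 * ownC W n i q.1 q.2 14 -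
        2 * (cfl W lam n [1, 0] 2 * cfl W lam n [2, 10] 15) *
          (ownC W n i q.1 q.2 0 * ownC W n i q.1 q.2 10) := by
      have u0 := (h.un_pos n 0).ne'
      have u1 := (h.un_pos n 1).ne'
      have u2 := (h.un_pos n 2).ne'
      have u15 : un W lam n 15 ≠ 0 := (h.un_pos n 15).ne'
      unfold Vw848.phiC
      rw [row2a]
      have g1 : ownR W lam n i q.1 q.2 6 = un W lam n 10 * ownC W n i q.1 q.2 10 := rfl
      have g2 : ownR W lam n i q.1 q.2 10 = un W lam n 14 * ownC W n i q.1 q.2 14 := rfl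
      have g3 : un W lam n (Fin.natAdd 4 (11 : Fin 14)) = un W lam n 15 := rfl
      rw [g1, g2, g3]
      unfold cfl
      simp only [List.map_cons, List.map_nil, List.prod_cons, List.prod_nil, mul_one]
      field_simp
      ring
    have hcfa : cfl W lam n [1, 0] 2 ≤ CfW W := cfl2_CfW h g
    have hcfb : cfl W lam n [2, 10] 15 ≤ CfW W :=
      cfl_CfW h g (q := 11) (t := ⟨2, 0, [2], 6⟩) (by decide)
    have p1 := (h.cfl_pos n [1, 0] 2).le
    have p2 := (h.cfl_pos n [2, 10] 15).le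
    have hk0 : 0 ≤ W.K0 / W.kap 10 := div_nonneg (by linarith) (h.ok.kap 10).le
    have s2 : |2 * (cfl W lam n [1, 0] 2 * cfl W lam n [2, 10] 15) *
          (ownC W n i q.1 q.2 0 * ownC W n i q.1 q.2 10)| ≤
        2 * (CfW W * CfW W * MW W * (W.K0 / W.kap 10)) * W.B'.d n ^ t := by
      rw [abs_mul, abs_mul, abs_mul (ownC W n i q.1 q.2 0), abs_two, abs_of_nonneg
        (mul_nonneg p1 p2)]
      calc 2 * (cfl W lam n [1, 0] 2 * cfl W lam n [2, 10] 15) *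
          (|ownC W n i q.1 q.2 0| * |ownC W n i q.1 q.2 10|)
          ≤ 2 * (CfW W * CfW W) * (MW W * (W.K0 / W.kap 10 * W.B'.d n ^ t)) := by
            refine mul_le_mul (mul_le_mul_of_nonneg_left (mul_le_mul hcfa hcfb p2
              (by linarith)) zero_le_two) (mul_le_mul o0 o10 (abs_nonneg _) (by linarith))
              (mul_nonneg (abs_nonneg _) (abs_nonneg _)) ?_
            have : 0 ≤ CfW W := by linarith
            positivity
        _ = _ := by ring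
    have s1 : 2 * W.B'.d n ^ (ε / 4 + ε / 4 + ε / 4) ≤
        |2 * κ n * cfl W lam n [1, 14] 15 * ownC W n i q.1 q.2 14| := by
      rw [abs_mul, abs_mul, abs_mul, abs_two, abs_of_pos (h.cfl_pos n [1, 14] 15), ← hadd, ← hadd]
      calc 2 * (W.B'.d n ^ (ε / 4) * W.B'.d n ^ (ε / 4) * W.B'.d n ^ (ε / 4)) =
          2 * W.B'.d n ^ (ε / 4) * W.B'.d n ^ (ε / 4) * W.B'.d n ^ (ε / 4) := by ring
        _ ≤ 2 * |κ n| * cfl W lam n [1, 14] 15 * |ownC W n i q.1 q.2 14| := by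
            refine mul_le_mul (mul_le_mul (mul_le_mul_of_nonneg_left hkn zero_le_two) a2
              (hpos _).le (by positivity)) a1.le (hpos _).le ?_
            have := (h.cfl_pos n [1, 14] 15).le
            positivity
    have s3 : 2 * (CfW W * CfW W * MW W * (W.K0 / W.kap 10)) * W.B'.d n ^ t ≤
        W.B'.d n ^ (ε / 4 + ε / 4 + ε / 4) * (W.B'.d n ^ (ε / 4)) := by
      have b1 : W.B'.d n ^ t ≤ W.B'.d n ^ (ε / 4 + ε / 4 + ε / 4) * (W.B'.d n ^ (ε / 4) *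
          W.B'.d n ^ (ε / 4)) := by
        rw [hadd, hadd]
        exact anti (by linarith)
      have b2 : 2 * (CfW W * CfW W * MW W * (W.K0 / W.kap 10)) * W.B'.d n ^ (ε / 4) ≤ 1 := by
        have := hpos (ε / 4)
        nlinarith
      calc 2 * (CfW W * CfW W * MW W * (W.K0 / W.kap 10)) * W.B'.d n ^ t
          ≤ 2 * (CfW W * CfW W * MW W * (W.K0 / W.kap 10)) *
            (W.B'.d n ^ (ε / 4 + ε / 4 + ε / 4) * (W.B'.d n ^ (ε / 4) * W.B'.d n ^ (ε / 4))) :=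
            mul_le_mul_of_nonneg_left b1 hCc
        _ = (2 * (CfW W * CfW W * MW W * (W.K0 / W.kap 10)) * W.B'.d n ^ (ε / 4)) *
            (W.B'.d n ^ (ε / 4 + ε / 4 + ε / 4) * W.B'.d n ^ (ε / 4)) := by ring
        _ ≤ 1 * (W.B'.d n ^ (ε / 4 + ε / 4 + ε / 4) * W.B'.d n ^ (ε / 4)) :=
            mul_le_mul_of_nonneg_right b2 (mul_nonneg (hpos _).le (hpos _).le)
        _ = _ := one_mul _
    have hbig : W.B'.d n ^ ε0 < |Vw848.phiC W κ lam 2 n i q.1 q.2 11| := by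
      have e2 : W.B'.d n ^ ε0 ≤ W.B'.d n ^ ε := anti (min_le_left _ _)
      have e3 : W.B'.d n ^ ε = W.B'.d n ^ (ε / 4 + ε / 4 + ε / 4) * W.B'.d n ^ (ε / 4) := by
        rw [hadd]; congr 1; ring
      have e4 := abs_sub_abs_le_abs_sub (2 * κ n * cfl W lam n [1, 14] 15 * ownC W n i q.1 q.2 14)
        (2 * (cfl W lam n [1, 0] 2 * cfl W lam n [2, 10] 15) *
          (ownC W n i q.1 q.2 0 * ownC W n i q.1 q.2 10))
      rw [← e1] at e4
      have e5 := hpos (ε / 4 + ε / 4 + ε / 4)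
      have e6 : W.B'.d n ^ (ε / 4 + ε / 4 + ε / 4) * W.B'.d n ^ (ε / 4) ≤
          1 / 2 * W.B'.d n ^ (ε / 4 + ε / 4 + ε / 4) := by nlinarith
      rw [e3] at e2
      linarith
    rw [max_self, abs_abs]
    exact hbig
  · refine le_trans (mul_le_mul_of_nonneg_right ?_ (sq_nonneg _)) hT3
    have e2 : W.B'.d n ^ ε0 ≤ W.B'.d n ^ (ε / 4) := anti (by
      have := min_le_left ε0 (t / 2)
      linarith)
    linarith

/-- lateral slots of the rows -/
def pC (y : ℝ) : Fin 18 → ℝ := fun s => if s = 1 then 0 else y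

/-- all flags narrow -/
def pTP (y : ℝ) : Fin 18 → ℝ := fun s =>
  if s = 1 ∨ s = 2 ∨ s = 3 ∨ s = 13 ∨ s = 16 ∨ s = 17 then 0 else y

/-- all flags narrow, `P` narrow -/
def rTP (y : ℝ) : Fin 18 → ℝ := fun s =>
  if s = 1 ∨ s = 2 ∨ s = 3 ∨ s = 13 ∨ s = 17 then 0 else y

/-- **row (i)**: `c` costs at most `P` -/
theorem rowI {E : ∀ n, Finset (ι n)} (hE : EvG W E) {Leg : Set (Fin 18 → ℝ)}
    {ν : (Fin 18 → ℝ) → ℝ} {σ R D : ℝ} (H : RModel W.B' (W.cfg E) σ R Leg ν D) {y : ℝ}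
    (hy : 0 < y) (hyt : ∀ s, y ≤ W.top s) (hS : W.S = {0, 15}) (hR : RawL W E 15)
    (htg : ∀ᶠ n in (U : Filter ℕ), W.X n 16 = W.X n 1 + W.X n 15)
    (hp : pC y ∈ Leg) (hp' : (fun _ => y) ∈ Leg) (hpT : pTP y ∈ Leg) (hr : rTP y ∈ Leg) :
    ν (pC y) - ν (fun _ => y) ≤ ν (pTP y) - ν (rTP y) := by
  refine rowP_shift h hE H hyt (fun ε hε => Eventually.of_forall fun n i k k' _ _ s hs h0 h12 h15
    => ?_) (twPI h hE hR hy hyt htg) (pC y) (fun _ => y) (pTP y) (rTP y) hp hp' hpT hr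
    (fun j => ?_) le_rfl (fun j hj => ?_) (fun s hs h1 => ?_) (fun s hs => ?_) (fun s hs => ?_) ?_
  · exfalso
    rw [hS] at hs
    simp only [Finset.mem_insert, Finset.mem_singleton] at hs
    rcases hs with rfl | rfl
    · exact h0 rfl
    · exact h15 rfl
  · unfold pTP rTP
    split_ifs with h1 h2 h2
    · exact le_rfl
    · exact hy.le
    · exfalso; apply h1; tauto
    · exact le_rfl
  · unfold pC; rw [if_neg hj]
  · unfold pC; rw [if_neg h1]
  · unfold pTP; rw [if_pos hs]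
  · unfold pTP; split_ifs
    · exact hy.le
    · exact le_rfl
  · unfold rTP; rw [if_neg (by decide)]

/-- flags of weight `≥ 2` narrow -/
def pTA (y : ℝ) : Fin 18 → ℝ := fun s =>
  if s = 0 ∨ s = 1 ∨ s = 2 ∨ s = 3 ∨ s = 12 ∨ s = 13 ∨ s = 15 ∨ s = 16 ∨ s = 17 then 0 else y

/-- flags of weight `≥ 2` and `15` narrow -/
def rTA (y : ℝ) : Fin 18 → ℝ := fun s =>
  if s = 0 ∨ s = 1 ∨ s = 2 ∨ s = 3 ∨ s = 12 ∨ s = 13 ∨ s = 16 ∨ s = 17 then 0 else y

theorem rowII {E : ∀ n, Finset (ι n)} (hE : EvG W E) {Leg : Set (Fin 18 → ℝ)}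
    {ν : (Fin 18 → ℝ) → ℝ} {σ R D : ℝ} (H : RModel W.B' (W.cfg E) σ R Leg ν D) {y : ℝ}
    (hy : 0 < y) (hyt : ∀ s, y ≤ W.top s) (hS : W.S = {0, 14}) (hR : RawL W E 14)
    (hk : ∀ ε : ℝ, 0 < ε → ∀ᶠ n in (U : Filter ℕ), W.B'.d n ^ ε ≤ |κ n|)
    (htg : ∀ᶠ n in (U : Filter ℕ), W.X n 15 = W.X n 1 + W.X n 14)
    (hp : pC y ∈ Leg) (hp' : (fun _ => y) ∈ Leg) (hpT : pTA y ∈ Leg) (hr : rTA y ∈ Leg) :
    ν (pC y) - ν (fun _ => y) ≤ ν (pTA y) - ν (rTA y) := by
  have h15 : Fin.natAdd 4 (11 : Fin 14) ∉ W.S := by rw [hS]; decide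
  refine rowC_shift h hE H hyt (w := 2) (by norm_num) (q1 := 11) (q2 := 11) rfl rfl h15 h15
    (fun ε hε => Eventually.of_forall fun n i k k' _ _ q hq hqw => ?_)
    (twCI h hE hS hR hy hyt hk htg) (pC y) (fun _ => y) (pTA y) (rTA y) hp hp' hpT hr
    (fun j => ?_) le_rfl (fun j hj => ?_) (fun s hs h1 => ?_) (fun i => ?_) (fun q hq hqw => ?_)
    (fun s hs => ?_) ?_ ?_
  · exfalso
    rw [hS] at hq
    revert hqw; revert hq; revert q; decide
  · unfold pTA rTA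
    split_ifs with h1 h2 h2
    · exact le_rfl
    · exact hy.le
    · exfalso; apply h1; tauto
    · exact le_rfl
  · unfold pC; rw [if_neg hj]
  · unfold pC; rw [if_neg h1]
  · unfold pTA
    have : ∀ i : Fin 4, (Fin.castAdd 14 i : Fin 18) = 0 ∨ (Fin.castAdd 14 i : Fin 18) = 1 ∨
      (Fin.castAdd 14 i : Fin 18) = 2 ∨ (Fin.castAdd 14 i : Fin 18) = 3 ∨ False := by decide
    rw [if_pos]
    have := this i
    tauto
  · have h1 : (Fin.natAdd 4 q : Fin 18) = 12 ∨ (Fin.natAdd 4 q : Fin 18) = 13 ∨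
        (Fin.natAdd 4 q : Fin 18) = 15 ∨ (Fin.natAdd 4 q : Fin 18) = 16 ∨
        (Fin.natAdd 4 q : Fin 18) = 17 := by
      clear hq
      revert hqw; revert q; decide
    unfold pTA
    rw [if_pos]
    tauto
  · unfold pTA; split_ifs
    · exact hy.le
    · exact le_rfl
  · unfold rTA; rw [if_neg (by decide)]
  · unfold rTA; rw [if_neg (by decide)]

end win

end Crest.Agent.R136.DLow619
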