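import Crest.Agent.R136.Bas2_938

/-!
# R136 (helper619): windows of the W-chart inside an `AeW`, general units

938's `exists_win` for the charts `co n i j k = u n k * coW (κ n) (f n i) (f n j) k`, `GrU (u n)`.
-/

set_option autoImplicit false
set_option linter.unusedSectionVars false
set_option linter.unusedVariables false

open Filter Topology

namespace Crest.Agent.R136.DLow619

open Finset Crest.Agent.R138.Ex926 Crest.Agent.R136.Net191 Crest.Agent.R136.Gf356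
open Crest.Agent.R136.Qg926 Crest.Agent.R136.Dg219 Crest.Agent.R136.Aw413
open Crest.Agent.R136.NetW191 Crest.Agent.R136.EvW938 Crest.Agent.R136.PrW464
open Crest.Agent.R136.LadW697 Crest.Agent.R136.AwJ774 Crest.Agent.R136.Bas938

section win

variable {B Bo : Base} {I J : ∀ n : ℕ, Finset (ℕ × ℝ)}
  {co : ∀ n : ℕ, ℕ × ℝ → ℕ × ℝ → Fin 18 → ℝ} {kp : ℕ → ℝ} {u : ℕ → Fin 18 → ℝ}
  {F : ∀ n : ℕ, ℕ × ℝ → FW} {Ma : Mons 18} {Dr : Set (Fin 18)} {C : ℝ} {lam : (Fin 18 → ℝ) → ℝ}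
  {a b : Fin 18 → ℝ} {A : ℝ × ℝ} {φ : ℕ → (Fin 18 → ℝ) → ℝ} {r : ℕ → ℝ} {κ : Fin 18 → ℝ}
  {V Tw : Fin 18 → Prop}

/-- **output of one call** -/
structure WinG (B Bo : Base) (kp : ℕ → ℝ) (u : ℕ → Fin 18 → ℝ) (F : ∀ n : ℕ, ℕ × ℝ → FW)
    (Ma : Mons 18) (Dr : Set (Fin 18)) (lam : (Fin 18 → ℝ) → ℝ) (Tw : Fin 18 → Prop)
    (n0 nt : Fin 18 → ℕ) (rr : ℕ) (S : Finset (Fin 18)) (y : ℝ) (W : Wnd 18 fun _ => ℕ × ℝ)
    (E : ∀ n : ℕ, Finset (ℕ × ℝ)) : Prop where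
  ww : WWnd W kp u F
  ev : EvG W E
  mod : RModel W.B' (W.cfg E) 1 y W.legW W.nu W.Dc
  eS : W.S = S
  etop : W.top = scV y nt
  ekap : W.kap = fun _ => 1
  elam : W.lam = fun p => lam (scV y n0 + p) - lam (scV y n0)
  eMw : W.Mw = offM Ma (scV y n0) (y * rr)
  eR : W.R' = y * rr
  /-- tight walls -/
  tight : ∀ k, k ∉ Dr → ∀ l ∈ mlW k, (∀ s ∈ l, s ∉ Dr) → n0 k = (l.map n0).sum → ∀ n,
    W.X n k = (l.map (W.X n)).sum
  /-- raw twist -/
  tw : ∀ s ∈ S, Tw s → nt s ≠ 0 → n0 s = 0 →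
    (∃ e : ℝ, 0 < e ∧ scV y n0 + cut S (scV y nt) (Pi.single s e) ∈ coneM Ma) → RawL W E s

/-- **window, pruned set, model, raw twist in one call**, general units -/
theorem exists_winG (h : AeW B Bo I J co monW Ma C lam a b A φ r 0 1 κ V Tw)
    (hA : ActM Ma Dr) (hco : ∀ n i j k, co n i j k = u n k * coW (kp n) (F n i) (F n j) k)
    (hu : ∀ n, GrU (u n)) (hκ : ∀ n, |kp n| ≤ 1)
    (hJ : ∀ᶠ n in (U : Filter ℕ), (J n).Nonempty) {n0 nt : Fin 18 → ℕ}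
    {rr : ℕ} {S : Finset (Fin 18)} (hd : WDat n0 nt rr S) {y : ℝ} (hy : 0 < y)
    (hden : ∀ i j, gC a b i = gC a b j → i ∈ S → j ∈ S ∨ nt j = 0)
    (hV0 : ∀ k, V k → n0 k = 0) (hVS : ∀ k, V k → k ∈ S ∨ nt k = 0) (s : ℕ → ℕ → ℝ)
    (hs : ∀ i, Bo.Sub (s i)) :
    ∃ (W : Wnd 18 fun _ => ℕ × ℝ) (E : ∀ n : ℕ, Finset (ℕ × ℝ)),
      WinG B Bo kp u F Ma Dr lam Tw n0 nt rr S y W E ∧ ∀ i, W.B'.Sub (s i) := by
  have hst := wst_ok hA hd hy.le
  have hz0 : scV y n0 0 = 0 := by simp [scV, hd.z0]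
  have h0 : scV y n0 ∈ coneM Ma := by
    rw [hA.cone]
    intro k _ l hl _
    rw [sum_scV]
    exact mul_le_mul_of_nonneg_left (by exact_mod_cast hd.off k l hl) hy.le
  have hc0 : ∀ k, V k → scV y n0 k ≤ κ k * scV y n0 0 := fun k hk => by
    rw [hz0, mul_zero]; simp [scV, hV0 k hk]
  obtain ⟨W, g1, g2, g3⟩ := h.wndO (scV y n0) h0 (wst Ma n0 nt rr S y) rfl hst s hs J (fun _ => 1)
    (Eventually.of_forall fun n => Subset.refl _) hJ (Base.Sub.const one_pos)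
    (Eventually.of_forall fun n => by rw [one_mul])
  have hzt : y ≤ scV y nt 0 := by
    have : (1 : ℝ) ≤ nt 0 := by exact_mod_cast hd.zt
    simp only [scV]; nlinarith
  have hone : ∀ t, 0 ≤ t → t ≤ y → scV y n0 + Pi.single (0 : Fin 18) t ∈ coneM Ma := by
    intro t ht _
    rw [hA.cone]
    intro k _ l hl _
    rw [sum_add', sum_scV]
    have h1 : (0:ℝ) ≤ (l.map (Pi.single (0 : Fin 18) t : Fin 18 → ℝ)).sum := by
      refine List.sum_nonneg fun x hx => ?_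
      obtain ⟨i, _, rfl⟩ := List.mem_map.1 hx
      by_cases hi : i = 0
      · subst hi; simpa using ht
      · rw [Pi.single_eq_of_ne hi]
    have h2 : y * (n0 k : ℝ) ≤ y * ((l.map n0).sum : ℕ) :=
      mul_le_mul_of_nonneg_left (by exact_mod_cast hd.off k l hl) hy.le
    have h3 : k ≠ 0 := by
      rintro rfl
      have : mlW 0 = [] := by decide
      rw [this] at hl
      exact absurd hl (List.not_mem_nil)
    rw [Pi.add_apply, Pi.single_eq_of_ne h3, add_zero]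
    unfold scV
    linarith
  have hden' : (wst Ma n0 nt rr S y).Dens (fun p => lam (scV y n0 + p) - lam (scV y n0)) 1 y :=
    dens_of h h0 hc0 rfl hst (fun i j hij hi => (hden i j hij hi).imp id fun h2 => by
      show scV y nt j = 0
      simp [scV, h2]) zero_le_one le_rfl hzt hone
  obtain ⟨E, g, q1, q2, q3, q4⟩ := g1.model hden' (fun _ _ _ => 0) (g₀ := fun n => 1 + W.B'.L n)
    (tendsto_atTop.2 fun b => (W.B'.ev_L_ge b).mono fun n hn => by linarith) hc0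
    (fun k hk => (hVS k hk).imp id fun h2 => by
      show scV y nt k = 0
      simp [scV, h2])
  refine ⟨W, E, ⟨?_, ?_, q3, g1.eS, g1.etop, g1.ekap, g1.elam, g1.eMw, g1.eR, ?_, ?_⟩, g2⟩
  · exact
      { ok := g1.ok
        hκ := hκ
        hl := hu
        hM := g1.eM
        hco := fun n i _ j _ s => by rw [g1.eco]; exact hco n i j s
        kz := g1.ekz
        h0 := by rw [g1.eS]; exact hd.zS
        hS := by rw [g1.eS]; exact hd.hS }
  · filter_upwards [Wnd.ev_cfg g1.ok g1.ok.eok_section q1] with n hn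
    exact ⟨hn.1, (q1.sub n).trans hn.2.1, hn.2.2.2⟩
  · intro k hk l hl hls hn0 n
    have h1 := g1.off k _ ((hA.iff k _).2 ⟨hk, l, hl, hls, rfl⟩) n
    rw [← sum_count, ← sum_count, sum_scV] at h1
    have h2 : y * (((l.map n0).sum : ℕ) : ℝ) - scV y n0 k = 0 := by
      rw [← hn0]; simp [scV]
    rw [h2, zero_mul, add_zero] at h1
    exact h1
  · intro s hs hT hnt hn0 he
    refine q4 s hs hT ?_ ?_ he
    · show 0 < scV y nt s
      have : (0:ℝ) < nt s := by exact_mod_cast Nat.pos_of_ne_zero hnt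
      simp only [scV]; positivity
    · show scV y n0 s = κ s * scV y n0 0
      rw [hz0, mul_zero]; simp [scV, hn0]

end win

section leg

variable {Ma : Mons 18} {Dr : Set (Fin 18)} {lam : (Fin 18 → ℝ) → ℝ} {Tw : Fin 18 → Prop}
  {B Bo : Base} {kp : ℕ → ℝ} {u : ℕ → Fin 18 → ℝ} {F : ∀ n : ℕ, ℕ × ℝ → FW}
  {n0 nt : Fin 18 → ℕ} {rr : ℕ} {S : Finset (Fin 18)} {y : ℝ} {W : Wnd 18 fun _ => ℕ × ℝ}
  {E : ∀ n : ℕ, Finset (ℕ × ℝ)}

/-- legal boxes of the window: combinations of two integer boxes -/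
theorem WinG.leg (h : WinG B Bo kp u F Ma Dr lam Tw n0 nt rr S y W E) (hA : ActM Ma Dr)
    {n n' : Fin 18 → ℕ} (hn : OkV n0 rr n) (hn' : OkV n0 rr n') {α β : ℝ} (hα : 0 ≤ α) (hβ : 0 ≤ β)
    (hy : α + β = y) {p : Fin 18 → ℝ} (hp : cut S p (scV y nt) = scV α n + scV β n')
    (hle : ∀ s, s ∉ S → n s ≤ nt s ∧ n' s ≤ nt s) : p ∈ W.legW := by
  show cut W.S p W.top ∈ Leg W.Mw W.R' ∧ ∀ s, s ∉ W.S → p s ≤ W.top s
  rw [h.eS, h.etop, h.eMw, h.eR, hp]
  refine ⟨leg_scV hA hn hn' hα hβ hy, fun s hs => ?_⟩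
  have h1 : p s = (scV α n + scV β n') s := by rw [← hp, cut_of_notMem hs]
  obtain ⟨h2, h3⟩ := hle s hs
  have h4 : (n s : ℝ) ≤ nt s := by exact_mod_cast h2
  have h5 : (n' s : ℝ) ≤ nt s := by exact_mod_cast h3
  rw [h1]
  simp only [Pi.add_apply, scV]
  have h6 := mul_le_mul_of_nonneg_left h4 hα
  have h7 := mul_le_mul_of_nonneg_left h5 hβ
  calc α * n s + β * n' s ≤ α * nt s + β * nt s := add_le_add h6 h7
    _ = y * nt s := by rw [← hy]; ring

/-- differences of the profile of the window -/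
theorem WinG.nu_sub (h : WinG B Bo kp u F Ma Dr lam Tw n0 nt rr S y W E) (p p' : Fin 18 → ℝ) :
    W.nu p - W.nu p' = lam (scV y n0 + cut S p (scV y nt)) -
      lam (scV y n0 + cut S p' (scV y nt)) := by
  unfold Wnd.nu
  rw [h.elam, h.eS, h.etop]
  ring

end leg

end Crest.Agent.R136.DLow619
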