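import Crest.Agent.R136.Bas5_938
import Crest.Agent.R136.DLw2_619

/-!
# R136: `deadlow`, part 4 (helper619): windows at one point of the last rung, `1 < s < 2`

* `Cn` : the nine active walls, `mem_cone`, `vc` : vector of the undropped slots
* `WinB.legX`, `WinB.nu_sub` : boxes and profile of the windows of `PtB.win`
* `caseI` : `v = 15`, `caseII` : `v = 14` : the slot `N` is full
-/

set_option autoImplicit false
set_option linter.unusedSectionVars false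
set_option linter.unusedVariables false
set_option linter.unusedSimpArgs false

open Filter Topology

namespace Crest.Agent.R136.DLow619

open Finset Crest.Agent.R138.Ex926 Crest.Agent.R136.Net191 Crest.Agent.R136.Gf356
open Crest.Agent.R136.Qg926 Crest.Agent.R136.Dg219 Crest.Agent.R136.Aw413
open Crest.Agent.R136.NetW191 Crest.Agent.R136.EvW938 Crest.Agent.R136.PrW464
open Crest.Agent.R136.LadW697 Crest.Agent.R136.AwJ774 Crest.Agent.R136.Bas938
open Crest.Agent.R136.K2S774 (cn)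
open Crest.Agent.R136.Lf400 Crest.Agent.R136.LfW619 Crest.Agent.R136.Ht887
open Crest.Agent.R136.BaseW619 Crest.Agent.R136.RowW619

/-- the dropped slots -/
def D13 : Finset (Fin 18) := {4, 5, 6, 7, 8, 9, 10, 11, 12, 13}

theorem DrW_mid {s : ℝ} (h1 : 1 < s) (h2 : s < 2) {k : Fin 18} : k ∈ DrW s ↔ k ∈ D13 := by
  have key : ∀ k : Fin 18, k ∈ D13 ↔ 4 ≤ k ∧ 2 ≤ alW k := by decide
  rw [key]
  constructor
  · rintro ⟨h4, h5⟩
    refine ⟨h4, ?_⟩
    have : (1 : ℝ) < (alW k : ℤ) := by linarith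
    have : (1 : ℤ) < alW k := by exact_mod_cast this
    omega
  · rintro ⟨h4, h5⟩
    refine ⟨h4, ?_⟩
    have : (2 : ℝ) ≤ (alW k : ℤ) := by exact_mod_cast h5
    linarith

/-- the nine active walls -/
def Cn (z c A B a b P N : ℝ) : Prop :=
  A ≤ c + z ∧ B ≤ c + A ∧ B ≤ c + (c + z) ∧ b ≤ c + a ∧ P ≤ c + (c + a) ∧ P ≤ c + b ∧
    N ≤ B + a ∧ N ≤ A + b ∧ N ≤ z + P

/-- vector of the undropped slots -/
def vc (z c A B a b P N : ℝ) : Fin 18 → ℝ := ![z, c, A, B, 0, 0, 0, 0, 0, 0, 0, 0, 0, 0, a, b, P, N]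

/-- the active walls as a list -/
theorem act_list : ∀ k : Fin 18, k ∉ D13 → ∀ l ∈ mlW k, (∀ s ∈ l, s ∉ D13) →
    (k, l) ∈ ([(2, [1, 0]), (3, [1, 2]), (3, [1, 1, 0]), (15, [1, 14]), (16, [1, 1, 14]),
      (16, [1, 15]), (17, [3, 14]), (17, [2, 15]), (17, [0, 16])] : List (Fin 18 × List (Fin 18))) := by
  decide

theorem act_list' : ∀ x ∈ ([(2, [1, 0]), (3, [1, 2]), (3, [1, 1, 0]), (15, [1, 14]), (16, [1, 1, 14]),
      (16, [1, 15]), (17, [3, 14]), (17, [2, 15]), (17, [0, 16])] : List (Fin 18 × List (Fin 18))),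
    x.1 ∉ D13 ∧ x.2 ∈ mlW x.1 ∧ ∀ s ∈ x.2, s ∉ D13 := by
  decide

theorem mem_cone {s : ℝ} (h1 : 1 < s) (h2 : s < 2) {p : Fin 18 → ℝ} :
    p ∈ coneM (mA monW (actW (DrW s))) ↔
      Cn (p 0) (p 1) (p 2) (p 3) (p 14) (p 15) (p 16) (p 17) := by
  rw [coneM_mA, mem_cnW]
  constructor
  · intro h
    have key : ∀ x ∈ ([(2, [1, 0]), (3, [1, 2]), (3, [1, 1, 0]), (15, [1, 14]), (16, [1, 1, 14]),
        (16, [1, 15]), (17, [3, 14]), (17, [2, 15]), (17, [0, 16])] :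
        List (Fin 18 × List (Fin 18))), p x.1 ≤ (x.2.map p).sum := by
      intro x hx
      obtain ⟨a1, a2, a3⟩ := act_list' x hx
      exact h x.1 (fun hk => a1 ((DrW_mid h1 h2).1 hk)) x.2 a2
        fun i hi hk => a3 i hi ((DrW_mid h1 h2).1 hk)
    simp only [List.mem_cons, List.not_mem_nil, or_false, forall_eq_or_imp, forall_eq,
      List.map_cons, List.map_nil, List.sum_cons, List.sum_nil, add_zero] at key
    exact key
  · intro h k hk l hl hs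
    have hx := act_list k (fun hk' => hk ((DrW_mid h1 h2).2 hk')) l hl
      fun i hi hk' => hs i hi ((DrW_mid h1 h2).2 hk')
    obtain ⟨c1, c2, c3, c4, c5, c6, c7, c8, c9⟩ := h
    simp only [List.mem_cons, List.not_mem_nil, or_false, Prod.mk.injEq] at hx
    rcases hx with ⟨rfl, rfl⟩ | ⟨rfl, rfl⟩ | ⟨rfl, rfl⟩ | ⟨rfl, rfl⟩ | ⟨rfl, rfl⟩ | ⟨rfl, rfl⟩ |
      ⟨rfl, rfl⟩ | ⟨rfl, rfl⟩ | ⟨rfl, rfl⟩ <;>
    simp only [List.map_cons, List.map_nil, List.sum_cons, List.sum_nil, add_zero] <;> assumption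

theorem vc_mem {s : ℝ} (h1 : 1 < s) (h2 : s < 2) {z c A B a b P N : ℝ}
    (h : Cn z c A B a b P N) : vc z c A B a b P N ∈ coneM (mA monW (actW (DrW s))) :=
  (mem_cone h1 h2).2 h

section winb

variable {Ma : Mons 18} {Dr : Set (Fin 18)} {lam : (Fin 18 → ℝ) → ℝ} {Tw : Fin 18 → Prop}
  {kp : ℕ → ℝ} {u : ℕ → Fin 18 → ℝ} {F : ∀ n : ℕ, ℕ × ℝ → FW}
  {n0 nt : Fin 18 → ℕ} {rr : ℕ} {S : Finset (Fin 18)} {y : ℝ} {W : Wnd 18 fun _ => ℕ × ℝ}
  {E : ∀ n : ℕ, Finset (ℕ × ℝ)}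

/-- legal boxes of the window: combinations of two integer boxes -/
theorem legX (h : WinB Ma Dr kp u F lam Tw n0 nt rr S y W E) (hA : ActM Ma Dr)
    {n n' : Fin 18 → ℕ} (hn : OkV n0 rr n) (hn' : OkV n0 rr n') {α β : ℝ} (hα : 0 ≤ α) (hβ : 0 ≤ β)
    (hy : α + β = y) {p : Fin 18 → ℝ} (hp : ∀ s, s ∉ S → p s = α * n s + β * n' s)
    (hS : ∀ s ∈ S, n s = nt s ∧ n' s = nt s)
    (hle : ∀ s, s ∉ S → n s ≤ nt s ∧ n' s ≤ nt s) : p ∈ W.legW := by
  show cut W.S p W.top ∈ Leg W.Mw W.R' ∧ ∀ s, s ∉ W.S → p s ≤ W.top s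
  rw [h.eS, h.etop, h.eMw, h.eR]
  have e : cut S p (scV y nt) = scV α n + scV β n' := by
    funext s
    by_cases hs : s ∈ S
    · obtain ⟨h1, h2⟩ := hS s hs
      rw [cut_of_mem hs]
      simp only [Pi.add_apply, scV, h1, h2, ← hy]
      ring
    · rw [cut_of_notMem hs, hp s hs]; rfl
  rw [e]
  refine ⟨leg_scV hA hn hn' hα hβ hy, fun s hs => ?_⟩
  obtain ⟨h2, h3⟩ := hle s hs
  have h4 : (n s : ℝ) ≤ nt s := by exact_mod_cast h2
  have h5 : (n' s : ℝ) ≤ nt s := by exact_mod_cast h3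
  rw [hp s hs]
  simp only [scV]
  have h6 := mul_le_mul_of_nonneg_left h4 hα
  have h7 := mul_le_mul_of_nonneg_left h5 hβ
  calc α * n s + β * n' s ≤ α * nt s + β * nt s := add_le_add h6 h7
    _ = y * nt s := by rw [← hy]; ring

/-- differences of the profile of the window -/
theorem nu_sub (h : WinB Ma Dr kp u F lam Tw n0 nt rr S y W E) (p p' : Fin 18 → ℝ) :
    W.nu p - W.nu p' = lam (scV y n0 + cut S p (scV y nt)) -
      lam (scV y n0 + cut S p' (scV y nt)) := by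
  unfold Wnd.nu
  rw [h.elam, h.eS, h.etop]
  ring

end winb

section pt

variable {s m : ℝ} {B Bo : Base} {I J : ℕ → Finset (ℕ × ℝ)}
    {co : ∀ n : ℕ, ℕ × ℝ → ℕ × ℝ → Fin 18 → ℝ} {C : ℝ} {κ : ℕ → ℝ} {u : ℕ → Fin 18 → ℝ}
    {f : ∀ n : ℕ, ℕ × ℝ → FW} {lam : (Fin 18 → ℝ) → ℝ} {a b : Fin 18 → ℝ} {AA : ℝ × ℝ}
    {φ : ℕ → (Fin 18 → ℝ) → ℝ} {r : ℕ → ℝ} {κv : Fin 18 → ℝ} {Vv Tw : Fin 18 → Prop}

/-- `lam` in the undropped slots -/
theorem val (H : PtB B Bo I J co κ u f (mA monW (actW (DrW s))) (DrW s) C lam a b AA φ r κv Vv Tw)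
    (s1 : 1 < s) (s2 : s < 2) {p : Fin 18 → ℝ} {z c A B' a' b' P N : ℝ}
    (h : Cn z c A B' a' b' P N) (h0 : p 0 = z)
    (h1 : p 1 = c) (h2 : p 2 = A) (h3 : p 3 = B') (h14 : p 14 = a') (h15 : p 15 = b')
    (h16 : p 16 = P) (h17 : p 17 = N) : lam p = lam (vc z c A B' a' b' P N) := by
  subst h0 h1 h2 h3 h14 h15 h16 h17
  have hp := (mem_cone s1 s2).2 h
  refine H.ind p hp _ (vc_mem s1 s2 h) fun i hi => ?_
  rw [DrW_mid s1 s2] at hi
  revert hi
  fin_cases i <;> intro hi <;> first | rfl | exact absurd (by decide) hi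

/-- membership in the cone -/
theorem mem_of (s1 : 1 < s) (s2 : s < 2) {p : Fin 18 → ℝ} {z c A B' a' b' P N : ℝ}
    (h : Cn z c A B' a' b' P N) (h0 : p 0 = z)
    (h1 : p 1 = c) (h2 : p 2 = A) (h3 : p 3 = B') (h14 : p 14 = a') (h15 : p 15 = b')
    (h16 : p 16 = P) (h17 : p 17 = N) : p ∈ coneM (mA monW (actW (DrW s))) := by
  subst h0 h1 h2 h3 h14 h15 h16 h17
  exact (mem_cone s1 s2).2 h

/-- the sweep in the undropped slots -/
theorem sw_vc (s1 : 1 < s) (s2 : s < 2)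
    (sw : ∀ c ∈ coneM (mA monW (actW (DrW s))), c 1 = 0 → ∀ t : ℝ, 0 ≤ t →
      lam (c + t • e1W) ≤ lam c - m * t) {z A B' a' b' P N t : ℝ} (h : Cn z 0 A B' a' b' P N)
    (ht : 0 ≤ t) : lam (vc z t A B' a' b' P N) ≤ lam (vc z 0 A B' a' b' P N) - m * t := by
  have h1 := sw _ (vc_mem s1 s2 h) rfl t ht
  have e : vc z 0 A B' a' b' P N + t • e1W = vc z t A B' a' b' P N := by
    funext k
    have e1 : ∀ k, e1W k = if k = 1 then 1 else 0 := fun k => by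
      unfold e1W; rw [Pi.single_apply]
    rw [Pi.add_apply, Pi.smul_apply, e1]
    fin_cases k <;> simp [vc]
  rwa [e] at h1

end pt

/-- zero on `Z`, one elsewhere -/
def ni (Z : Finset (Fin 18)) : Fin 18 → ℕ := fun k => if k ∈ Z then 0 else 1

/-- offset, `v = 15` -/
def nI : Fin 18 → ℕ := fun k => if k ∈ D13 ∨ k = 14 then 1 else 0
/-- offset, `v = 14` -/
def nJ : Fin 18 → ℕ := fun k => if k ∈ D13 then 1 else 0

theorem datI : WDat nI (fun _ => 1) 1 {0, 15} := by decide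
theorem datJ : WDat nJ (fun _ => 1) 1 {0, 14} := by decide

/-- tight walls, decidable form -/
theorem tightD {s : ℝ} (s1 : 1 < s) (s2 : s < 2) {lam : (Fin 18 → ℝ) → ℝ} {Tw : Fin 18 → Prop}
    {kp : ℕ → ℝ} {u : ℕ → Fin 18 → ℝ} {F : ∀ n : ℕ, ℕ × ℝ → FW} {Ma : Mons 18}
    {n0 nt : Fin 18 → ℕ} {rr : ℕ} {S : Finset (Fin 18)} {y : ℝ} {W : Wnd 18 fun _ => ℕ × ℝ}
    {E : ∀ n : ℕ, Finset (ℕ × ℝ)} (g : WinB Ma (DrW s) kp u F lam Tw n0 nt rr S y W E)
    {k : Fin 18} {l : List (Fin 18)}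
    (h : k ∉ D13 ∧ l ∈ mlW k ∧ (∀ i ∈ l, i ∉ D13) ∧ n0 k = (l.map n0).sum) (n : ℕ) :
    W.X n k = (l.map (W.X n)).sum :=
  g.tight k (fun hk => h.1 ((DrW_mid s1 s2).1 hk)) l h.2.1
    (fun i hi hk => h.2.2.1 i hi ((DrW_mid s1 s2).1 hk)) h.2.2.2 n

section cases

variable {s m : ℝ} {B Bo : Base} {I J : ℕ → Finset (ℕ × ℝ)}
    {co : ∀ n : ℕ, ℕ × ℝ → ℕ × ℝ → Fin 18 → ℝ} {C : ℝ} {κ : ℕ → ℝ} {u : ℕ → Fin 18 → ℝ}
    {f : ∀ n : ℕ, ℕ × ℝ → FW} {lam : (Fin 18 → ℝ) → ℝ} {a b : Fin 18 → ℝ} {AA : ℝ × ℝ}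
    {φ : ℕ → (Fin 18 → ℝ) → ℝ} {r : ℕ → ℝ} {κv : Fin 18 → ℝ} {Vv Tw : Fin 18 → Prop}

/-- profile of the window, `v = 15` -/
theorem nuI (H : PtB B Bo I J co κ u f (mA monW (actW (DrW s))) (DrW s) C lam a b AA φ r κv Vv Tw)
    (s1 : 1 < s) (s2 : s < 2) {y : ℝ} {W : Wnd 18 fun _ => ℕ × ℝ}
    {E : ∀ n : ℕ, Finset (ℕ × ℝ)} (g : WinB (mA monW (actW (DrW s))) (DrW s) κ u f lam Tw
      nI (fun _ => 1) 1 {0, 15} y W E) {p p' : Fin 18 → ℝ}
    {c A B' a' P N c' A' B'' a'' P' N' : ℝ} (h : Cn y c A B' a' y P N)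
    (h' : Cn y c' A' B'' a'' y P' N') (p1 : p 1 = c) (p2 : p 2 = A) (p3 : p 3 = B')
    (p14 : y + p 14 = a') (p16 : p 16 = P) (p17 : p 17 = N) (q1 : p' 1 = c') (q2 : p' 2 = A')
    (q3 : p' 3 = B'') (q14 : y + p' 14 = a'') (q16 : p' 16 = P') (q17 : p' 17 = N') :
    W.nu p - W.nu p' = lam (vc y c A B' a' y P N) - lam (vc y c' A' B'' a'' y P' N') := by
  rw [nu_sub g]
  rw [val H s1 s2 (p := scV y nI + cut {0, 15} p (scV y fun _ => 1)) h
      (by simp [scV, cut, nI, D13])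
      (by simp [scV, cut, nI, D13, p1]) (by simp [scV, cut, nI, D13, p2])
      (by simp [scV, cut, nI, D13, p3]) (by simp [scV, cut, nI, D13, ← p14])
      (by simp [scV, cut, nI, D13]) (by simp [scV, cut, nI, D13, p16])
      (by simp [scV, cut, nI, D13, p17]),
    val H s1 s2 (p := scV y nI + cut {0, 15} p' (scV y fun _ => 1)) h'
      (by simp [scV, cut, nI, D13])
      (by simp [scV, cut, nI, D13, q1]) (by simp [scV, cut, nI, D13, q2])
      (by simp [scV, cut, nI, D13, q3]) (by simp [scV, cut, nI, D13, ← q14])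
      (by simp [scV, cut, nI, D13]) (by simp [scV, cut, nI, D13, q16])
      (by simp [scV, cut, nI, D13, q17])]

/-- profile of the window, `v = 14` -/
theorem nuJ (H : PtB B Bo I J co κ u f (mA monW (actW (DrW s))) (DrW s) C lam a b AA φ r κv Vv Tw)
    (s1 : 1 < s) (s2 : s < 2) {y : ℝ} {W : Wnd 18 fun _ => ℕ × ℝ}
    {E : ∀ n : ℕ, Finset (ℕ × ℝ)} (g : WinB (mA monW (actW (DrW s))) (DrW s) κ u f lam Tw
      nJ (fun _ => 1) 1 {0, 14} y W E) {p p' : Fin 18 → ℝ}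
    {c A B' b' P N c' A' B'' b'' P' N' : ℝ} (h : Cn y c A B' y b' P N)
    (h' : Cn y c' A' B'' y b'' P' N') (p1 : p 1 = c) (p2 : p 2 = A) (p3 : p 3 = B')
    (p15 : p 15 = b') (p16 : p 16 = P) (p17 : p 17 = N) (q1 : p' 1 = c') (q2 : p' 2 = A')
    (q3 : p' 3 = B'') (q15 : p' 15 = b'') (q16 : p' 16 = P') (q17 : p' 17 = N') :
    W.nu p - W.nu p' = lam (vc y c A B' y b' P N) - lam (vc y c' A' B'' y b'' P' N') := by
  rw [nu_sub g]
  rw [val H s1 s2 (p := scV y nJ + cut {0, 14} p (scV y fun _ => 1)) h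
      (by simp [scV, cut, nJ, D13])
      (by simp [scV, cut, nJ, D13, p1]) (by simp [scV, cut, nJ, D13, p2])
      (by simp [scV, cut, nJ, D13, p3]) (by simp [scV, cut, nJ, D13])
      (by simp [scV, cut, nJ, D13, p15]) (by simp [scV, cut, nJ, D13, p16])
      (by simp [scV, cut, nJ, D13, p17]),
    val H s1 s2 (p := scV y nJ + cut {0, 14} p' (scV y fun _ => 1)) h'
      (by simp [scV, cut, nJ, D13])
      (by simp [scV, cut, nJ, D13, q1]) (by simp [scV, cut, nJ, D13, q2])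
      (by simp [scV, cut, nJ, D13, q3]) (by simp [scV, cut, nJ, D13])
      (by simp [scV, cut, nJ, D13, q15]) (by simp [scV, cut, nJ, D13, q16])
      (by simp [scV, cut, nJ, D13, q17])]

/-- first window, `v = 15` : `P` costs nothing -/
theorem winI1
    (H : PtB B Bo I J co κ u f (mA monW (actW (DrW s))) (DrW s) C lam a b AA φ r κv Vv Tw)
    (s1 : 1 < s) (s2 : s < 2)
    (hV : ∀ k, Vv k → k = 15)
    (G0 : ∀ i j, gC a b i = gC a b j → i ∈ ({0, 15} : Finset (Fin 18)) →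
      j ∈ ({0, 15} : Finset (Fin 18)) ∨ j ∈ DrW s) {y : ℝ} (y0 : 0 < y) (y1 : y ≤ 1)
    (hN : lam (vc 1 1 1 0 2 1 0 0) - lam (vc 1 1 1 0 2 1 0 1) < 1 - y) :
    lam (vc 1 1 1 0 2 1 0 1) ≤ lam (vc 1 1 1 0 2 1 y 1) := by
  obtain ⟨W, E, g⟩ := H.win datI one_pos (fun i j hij hi => (G0 i j hij hi).imp id Or.inr)
    (fun k hk => by rw [hV k hk]; decide) (fun k hk => by rw [hV k hk]; exact Or.inl (by decide))
  have hA := H.act
  have htop : ∀ k, 1 ≤ W.top k := fun k => by rw [g.etop]; simp [scV]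
  have tg : ∀ᶠ n in (U : Filter ℕ), W.X n 17 = W.X n 0 + W.X n 16 :=
    Eventually.of_forall fun n => by
      have := tightD s1 s2 g (k := 17) (l := [0, 16]) (by decide) n
      simpa using this
  have leg : ∀ t N : ℝ, ∀ n n' : Fin 18 → ℕ, ∀ α β : ℝ, OkV nI 1 n → OkV nI 1 n' → 0 ≤ α → 0 ≤ β →
      α + β = 1 → (∀ k, k ∉ ({0, 15} : Finset (Fin 18)) → b2 (bB 1) 16 17 t N k = α * n k + β * n' k) →
      (∀ k ∈ ({0, 15} : Finset (Fin 18)), n k = 1 ∧ n' k = 1) → (∀ k, n k ≤ 1 ∧ n' k ≤ 1) →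
      b2 (bB 1) 16 17 t N ∈ W.legW := fun t N n n' α β h1 h2 h3 h4 h5 h6 h7 h8 =>
    legX g hA h1 h2 h3 h4 h5 h6 h7 fun k _ => h8 k
  have := freeP g.ww g.ev g.mod g.eS (x := 1) (j := y) one_pos le_rfl y0.le y1 htop tg
    (fun t ht0 ht1 => leg t 1 (ni {3, 16}) (ni {3}) (1 - t) t (by decide) (by decide)
      (by linarith) ht0 (by ring) (fun k _ => by
        unfold b2 bB ni
        fin_cases k <;> simp) (by decide) (by decide))
    (fun t ht0 ht1 => leg t t (ni {3, 16, 17}) (ni {3}) (1 - t) t (by decide) (by decide)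
      (by linarith) ht0 (by ring) (fun k _ => by
        unfold b2 bB ni
        fin_cases k <;> simp) (by decide) (by decide)) ?_
  · have h2 := nuI H s1 s2 g (p := b2 (bB 1) 16 17 0 1) (p' := b2 (bB 1) 16 17 y 1)
      (c := 1) (A := 1) (B' := 0) (a' := 2) (P := 0) (N := 1)
      (c' := 1) (A' := 1) (B'' := 0) (a'' := 2) (P' := y) (N' := 1)
      (by unfold Cn; norm_num) (by unfold Cn; refine ⟨?_, ?_, ?_, ?_, ?_, ?_, ?_, ?_, ?_⟩ <;> linarith)
      (by simp [b2, bB]) (by simp [b2, bB]) (by simp [b2, bB]) (by simp [b2, bB]; norm_num)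
      (by simp [b2, bB]) (by simp [b2, bB])
      (by simp [b2, bB]) (by simp [b2, bB]) (by simp [b2, bB]) (by simp [b2, bB]; norm_num)
      (by simp [b2, bB]) (by simp [b2, bB])
    linarith
  · rw [nuI H s1 s2 g (p := b2 (bB 1) 16 17 0 0) (p' := b2 (bB 1) 16 17 0 1)
      (c := 1) (A := 1) (B' := 0) (a' := 2) (P := 0) (N := 0)
      (c' := 1) (A' := 1) (B'' := 0) (a'' := 2) (P' := 0) (N' := 1)
      (by unfold Cn; norm_num) (by unfold Cn; norm_num)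
      (by simp [b2, bB]) (by simp [b2, bB]) (by simp [b2, bB]) (by simp [b2, bB]; norm_num)
      (by simp [b2, bB]) (by simp [b2, bB])
      (by simp [b2, bB]) (by simp [b2, bB]) (by simp [b2, bB]) (by simp [b2, bB]; norm_num)
      (by simp [b2, bB]) (by simp [b2, bB])]
    exact hN

/-- legality of the box `y` off `Z` -/
theorem legZ {n0 : Fin 18 → ℕ} {S : Finset (Fin 18)} {y : ℝ} (y0 : 0 ≤ y)
    {W : Wnd 18 fun _ => ℕ × ℝ} {E : ∀ n : ℕ, Finset (ℕ × ℝ)}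
    (g : WinB (mA monW (actW (DrW s))) (DrW s) κ u f lam Tw n0 (fun _ => 1) 1 S y W E)
    (Z : Finset (Fin 18)) (h1 : OkV n0 1 (ni Z)) (h2 : Disjoint S Z) {p : Fin 18 → ℝ}
    (hp : ∀ k, k ∉ S → p k = if k ∈ Z then 0 else y) : p ∈ W.legW := by
  refine legX g (actM_mA _) h1 h1 y0 le_rfl (add_zero y) (fun k hk => ?_) (fun k hk => ?_)
    (fun k _ => ?_)
  · rw [hp k hk]
    simp only [ni]
    split_ifs <;> simp
  · simp only [ni]
    have : k ∉ Z := Finset.disjoint_left.1 h2 hk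
    simp [this]
  · simp only [ni]
    split_ifs <;> simp

/-- second window, `v = 15` : the row `c ≤ P` -/
theorem winI2
    (H : PtB B Bo I J co κ u f (mA monW (actW (DrW s))) (DrW s) C lam a b AA φ r κv Vv Tw)
    (s1 : 1 < s) (s2 : s < 2)
    (hV : ∀ k, Vv k → k = 15) (hT : Tw 15)
    (G0 : ∀ i j, gC a b i = gC a b j → i ∈ ({0, 15} : Finset (Fin 18)) →
      j ∈ ({0, 15} : Finset (Fin 18)) ∨ j ∈ DrW s) {y : ℝ} (y0 : 0 < y) :
    lam (vc y 0 y y (2 * y) y y y) - lam (vc y y y y (2 * y) y y y) ≤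
      lam (vc y 0 0 0 (2 * y) y 0 0) - lam (vc y 0 0 0 (2 * y) y y 0) := by
  obtain ⟨W, E, g⟩ := H.win datI y0 (fun i j hij hi => (G0 i j hij hi).imp id Or.inr)
    (fun k hk => by rw [hV k hk]; decide) (fun k hk => by rw [hV k hk]; exact Or.inl (by decide))
  have htop : ∀ k, y ≤ W.top k := fun k => by rw [g.etop]; simp [scV]
  have tg : ∀ᶠ n in (U : Filter ℕ), W.X n 16 = W.X n 1 + W.X n 15 :=
    Eventually.of_forall fun n => by
      have := tightD s1 s2 g (k := 16) (l := [1, 15]) (by decide) n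
      simpa using this
  have hR : RawL W E 15 := g.tw 15 (by decide) hT (by decide) (by decide)
    ⟨y, y0, mem_of s1 s2 (z := 0) (c := y) (A := y) (B' := y) (a' := 2 * y) (b' := y) (P := y)
      (N := y) (by unfold Cn; refine ⟨?_, ?_, ?_, ?_, ?_, ?_, ?_, ?_, ?_⟩ <;> linarith)
      (by simp [scV, cut, nI, D13]) (by simp [scV, cut, nI, D13]) (by simp [scV, cut, nI, D13])
      (by simp [scV, cut, nI, D13]) (by simp [scV, cut, nI, D13]; ring)
      (by simp [scV, cut, nI, D13]) (by simp [scV, cut, nI, D13]) (by simp [scV, cut, nI, D13])⟩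
  have key := rowI g.ww g.ev g.mod y0 htop g.eS hR tg
    (legZ y0.le g {1} (by decide) (by decide) fun k _ => by simp [pC])
    (legZ y0.le g ∅ (by decide) (by decide) fun k _ => by simp)
    (legZ y0.le g {1, 2, 3, 13, 16, 17} (by decide) (by decide) fun k _ => by simp [pTP])
    (legZ y0.le g {1, 2, 3, 13, 17} (by decide) (by decide) fun k _ => by simp [rTP])
  rw [nuI H s1 s2 g (p := pC y) (p' := fun _ => y)
        (c := 0) (A := y) (B' := y) (a' := 2 * y) (P := y) (N := y)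
        (c' := y) (A' := y) (B'' := y) (a'' := 2 * y) (P' := y) (N' := y)
        (by unfold Cn; refine ⟨?_, ?_, ?_, ?_, ?_, ?_, ?_, ?_, ?_⟩ <;> linarith)
        (by unfold Cn; refine ⟨?_, ?_, ?_, ?_, ?_, ?_, ?_, ?_, ?_⟩ <;> linarith)
        (by simp [pC]) (by simp [pC]) (by simp [pC]) (by simp [pC]; ring)
        (by simp [pC]) (by simp [pC])
        rfl rfl rfl (by ring) rfl rfl,
      nuI H s1 s2 g (p := pTP y) (p' := rTP y)
        (c := 0) (A := 0) (B' := 0) (a' := 2 * y) (P := 0) (N := 0)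
        (c' := 0) (A' := 0) (B'' := 0) (a'' := 2 * y) (P' := y) (N' := 0)
        (by unfold Cn; refine ⟨?_, ?_, ?_, ?_, ?_, ?_, ?_, ?_, ?_⟩ <;> linarith)
        (by unfold Cn; refine ⟨?_, ?_, ?_, ?_, ?_, ?_, ?_, ?_, ?_⟩ <;> linarith)
        (by simp [pTP]) (by simp [pTP]) (by simp [pTP]) (by simp [pTP]; ring)
        (by simp [pTP]) (by simp [pTP])
        (by simp [rTP]) (by simp [rTP]) (by simp [rTP]) (by simp [rTP]; ring)
        (by simp [rTP]) (by simp [rTP])] at key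
  exact key

/-- the two windows are contradictory if `N` is not full, `v = 15` -/
theorem caseI
    (H : PtB B Bo I J co κ u f (mA monW (actW (DrW s))) (DrW s) C lam a b AA φ r κv Vv Tw)
    (s1 : 1 < s) (s2 : s < 2) (hm : 0 < m)
    (sw : ∀ c ∈ coneM (mA monW (actW (DrW s))), c 1 = 0 → ∀ t : ℝ, 0 ≤ t →
      lam (c + t • e1W) ≤ lam c - m * t)
    (hV : ∀ k, Vv k → k = 15) (hT : Tw 15)
    (G0 : ∀ i j, gC a b i = gC a b j → i ∈ ({0, 15} : Finset (Fin 18)) →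
      j ∈ ({0, 15} : Finset (Fin 18)) ∨ j ∈ DrW s)
    (Gw : ∀ j, gC a b j = gC a b 16 → j ≠ 16 → j ∉ DrW s → j = 3)
    (a17 : a 17 ≠ 0) (GN : ∀ j, gC a b j = gC a b 17 → j = 17 ∨ j ∈ DrW s) :
    1 ≤ r (gC a b 17) / a 17 := by
  by_contra hcon
  push Not at hcon
  have D17 : (17 : Fin 18) ∉ DrW s := fun h => absurd ((DrW_mid s1 s2).1 h) (by decide)
  have hN : lam (vc 1 1 1 0 2 1 0 0) - lam (vc 1 1 1 0 2 1 0 1) = r (gC a b 17) / a 17 := by
    rw [H.single a17 D17 GN (vc_mem s1 s2 (by unfold Cn; norm_num))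
      (vc_mem s1 s2 (by unfold Cn; norm_num)) (fun j hj hjD => by
        revert hj
        fin_cases j <;> simp [vc])]
    have e1 : vc 1 1 1 0 2 1 0 1 17 = 1 := rfl
    have e2 : vc 1 1 1 0 2 1 0 0 17 = 0 := rfl
    rw [e1, e2]; ring
  obtain ⟨y, y0, y1, y2⟩ : ∃ y : ℝ, 0 < y ∧ y ≤ 1 ∧ r (gC a b 17) / a 17 < 1 - y := by
    refine ⟨min 1 ((1 - r (gC a b 17) / a 17) / 2), lt_min one_pos (by linarith), min_le_left _ _, ?_⟩
    have := min_le_right (1:ℝ) ((1 - r (gC a b 17) / a 17) / 2)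
    linarith
  have h1 := winI1 H s1 s2 hV G0 y0 y1 (by rw [hN]; exact y2)
  have h2 := winI2 H s1 s2 hV hT G0 y0
  have h3 := H.slot (i := 16) (c := vc y 0 0 0 (2 * y) y 0 0) (c' := vc y 0 0 0 (2 * y) y y 0)
    (d := vc 1 1 1 0 2 1 0 1) (d' := vc 1 1 1 0 2 1 y 1)
    (vc_mem s1 s2 (by unfold Cn; refine ⟨?_, ?_, ?_, ?_, ?_, ?_, ?_, ?_, ?_⟩ <;> linarith))
    (vc_mem s1 s2 (by unfold Cn; refine ⟨?_, ?_, ?_, ?_, ?_, ?_, ?_, ?_, ?_⟩ <;> linarith))
    (vc_mem s1 s2 (by unfold Cn; refine ⟨?_, ?_, ?_, ?_, ?_, ?_, ?_, ?_, ?_⟩ <;> linarith))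
    (vc_mem s1 s2 (by unfold Cn; refine ⟨?_, ?_, ?_, ?_, ?_, ?_, ?_, ?_, ?_⟩ <;> linarith))
    (fun j hj _ => by revert hj; fin_cases j <;> simp [vc])
    (fun j hj _ => by revert hj; fin_cases j <;> simp [vc]) (by simp [vc]) (by simp [vc])
    (fun j h1 h2 h4 => by rw [Gw j h1 h2 h4]; simp [vc])
  have h4 := sw_vc (z := y) (A := y) (B' := y) (a' := 2 * y) (b' := y) (P := y) (N := y) (t := y)
    s1 s2 sw (by unfold Cn; refine ⟨?_, ?_, ?_, ?_, ?_, ?_, ?_, ?_, ?_⟩ <;> linarith) y0.le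
  have h5 : 0 < m * y := mul_pos hm y0
  linarith

/-- legality of the box `β` on `Z \ Z'`, `y` off `Z` -/
theorem legZ2 {n0 : Fin 18 → ℕ} {S : Finset (Fin 18)} {y : ℝ}
    {W : Wnd 18 fun _ => ℕ × ℝ} {E : ∀ n : ℕ, Finset (ℕ × ℝ)}
    (g : WinB (mA monW (actW (DrW s))) (DrW s) κ u f lam Tw n0 (fun _ => 1) 1 S y W E)
    (Z Z' : Finset (Fin 18)) (h1 : OkV n0 1 (ni Z)) (h1' : OkV n0 1 (ni Z')) (h2 : Disjoint S Z)
    (h2' : Disjoint S Z') (hZ : Z' ⊆ Z) {β : ℝ} (hβ : 0 ≤ β) (hβy : β ≤ y) {p : Fin 18 → ℝ}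
    (hp : ∀ k, k ∉ S → p k = if k ∈ Z' then 0 else if k ∈ Z then β else y) : p ∈ W.legW := by
  refine legX g (actM_mA _) h1 h1' (sub_nonneg.2 hβy) hβ (by ring) (fun k hk => ?_)
    (fun k hk => ?_) (fun k _ => ?_)
  · rw [hp k hk]
    simp only [ni]
    by_cases a1 : k ∈ Z'
    · have a2 : k ∈ Z := hZ a1
      simp [a1, a2]
    · by_cases a2 : k ∈ Z
      · simp [a1, a2]
      · simp [a1, a2]
  · simp only [ni]
    have a1 : k ∉ Z := Finset.disjoint_left.1 h2 hk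
    have a2 : k ∉ Z' := Finset.disjoint_left.1 h2' hk
    simp [a1, a2]
  · simp only [ni]
    constructor <;> split_ifs <;> simp

/-- first window, `v = 14` : the slot `15` costs nothing -/
theorem winJ1
    (H : PtB B Bo I J co κ u f (mA monW (actW (DrW s))) (DrW s) C lam a b AA φ r κv Vv Tw)
    (s1 : 1 < s) (s2 : s < 2)
    (hV : ∀ k, Vv k → k = 14)
    (G0 : ∀ i j, gC a b i = gC a b j → i ∈ ({0, 14} : Finset (Fin 18)) →
      j ∈ ({0, 14} : Finset (Fin 18)) ∨ j ∈ DrW s) {y : ℝ} (y0 : 0 < y) (y1 : y ≤ 1)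
    (hX : 1 ≤ lam (vc 1 1 0 0 1 1 1 1) - lam (vc 1 1 1 0 1 1 1 1))
    (hN : lam (vc 1 1 0 0 1 0 1 0) - lam (vc 1 1 1 0 1 0 1 1) < 2 - y) :
    lam (vc 1 1 1 0 1 0 1 1) ≤ lam (vc 1 1 1 0 1 y 1 1) := by
  obtain ⟨W, E, g⟩ := H.win datJ one_pos (fun i j hij hi => (G0 i j hij hi).imp id Or.inr)
    (fun k hk => by rw [hV k hk]; decide) (fun k hk => by rw [hV k hk]; exact Or.inl (by decide))
  have htop : ∀ k, 1 ≤ W.top k := fun k => by rw [g.etop]; simp [scV]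
  have tg : ∀ᶠ n in (U : Filter ℕ), W.X n 17 = W.X n 2 + W.X n 15 :=
    Eventually.of_forall fun n => by
      have := tightD s1 s2 g (k := 17) (l := [2, 15]) (by decide) n
      simpa using this
  have nu : ∀ X F N X' F' N' : ℝ, Cn 1 1 X 0 1 F 1 N → Cn 1 1 X' 0 1 F' 1 N' →
      W.nu (bx (bB 1) 2 15 17 X F N) - W.nu (bx (bB 1) 2 15 17 X' F' N') =
      lam (vc 1 1 X 0 1 F 1 N) - lam (vc 1 1 X' 0 1 F' 1 N') := fun X F N X' F' N' h1 h2 =>
    nuJ H s1 s2 g h1 h2 (by simp [bx, bB]) (by simp [bx, bB]) (by simp [bx, bB])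
      (by simp [bx, bB]) (by simp [bx, bB]) (by simp [bx, bB])
      (by simp [bx, bB]) (by simp [bx, bB]) (by simp [bx, bB])
      (by simp [bx, bB]) (by simp [bx, bB]) (by simp [bx, bB])
  have := free15 g.ww g.ev g.mod.toRUnif g.eS (x := 1) (j := y) y0.le y1 htop tg
    { h0 := legZ one_pos.le g {2, 3, 15, 17} (by decide) (by decide) fun k _ => by
        unfold bx bB; fin_cases k <;> simp
      hL := legZ one_pos.le g {2, 3} (by decide) (by decide) fun k _ => by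
        unfold bx bB; fin_cases k <;> simp
      hQ' := legZ one_pos.le g {3} (by decide) (by decide) fun k _ => by
        unfold bx bB; fin_cases k <;> simp
      hQ := legZ one_pos.le g {3, 15} (by decide) (by decide) fun k _ => by
        unfold bx bB; fin_cases k <;> simp
      hjj := legZ2 g {2, 3, 15, 17} {2, 3} (by decide) (by decide) (by decide) (by decide)
        (by decide) y0.le y1 fun k _ => by unfold bx bB; fin_cases k <;> simp
      hQj := legZ2 g {3, 15} {3} (by decide) (by decide) (by decide) (by decide)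
        (by decide) y0.le y1 fun k _ => by unfold bx bB; fin_cases k <;> simp
      hR := legZ2 g {2, 3} {3} (by decide) (by decide) (by decide) (by decide)
        (by decide) (sub_nonneg.2 y1) (by linarith) fun k _ => by
          unfold bx bB; fin_cases k <;> simp }
    (by
      rw [nu _ _ _ _ _ _ (by unfold Cn; norm_num) (by unfold Cn; norm_num)]
      exact hX)
    (by
      rw [nu _ _ _ _ _ _ (by unfold Cn; norm_num) (by unfold Cn; norm_num)]
      linarith)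
  have h2 := nu 1 0 1 1 y 1 (by unfold Cn; norm_num)
    (by unfold Cn; refine ⟨?_, ?_, ?_, ?_, ?_, ?_, ?_, ?_, ?_⟩ <;> linarith)
  linarith

/-- second window, `v = 14` : the row `c ≤ 15` -/
theorem winJ2
    (H : PtB B Bo I J co κ u f (mA monW (actW (DrW s))) (DrW s) C lam a b AA φ r κv Vv Tw)
    (s1 : 1 < s) (s2 : s < 2)
    (hV : ∀ k, Vv k → k = 14) (hT : Tw 14)
    (G0 : ∀ i j, gC a b i = gC a b j → i ∈ ({0, 14} : Finset (Fin 18)) →
      j ∈ ({0, 14} : Finset (Fin 18)) ∨ j ∈ DrW s) {y : ℝ} (y0 : 0 < y) :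
    lam (vc y 0 y y y y y y) - lam (vc y y y y y y y y) ≤
      lam (vc y 0 0 0 y 0 0 0) - lam (vc y 0 0 0 y y 0 0) := by
  obtain ⟨W, E, g⟩ := H.win datJ y0 (fun i j hij hi => (G0 i j hij hi).imp id Or.inr)
    (fun k hk => by rw [hV k hk]; decide) (fun k hk => by rw [hV k hk]; exact Or.inl (by decide))
  have htop : ∀ k, y ≤ W.top k := fun k => by rw [g.etop]; simp [scV]
  have tg : ∀ᶠ n in (U : Filter ℕ), W.X n 15 = W.X n 1 + W.X n 14 :=
    Eventually.of_forall fun n => by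
      have := tightD s1 s2 g (k := 15) (l := [1, 14]) (by decide) n
      simpa using this
  have hR : RawL W E 14 := g.tw 14 (by decide) hT (by decide) (by decide)
    ⟨y, y0, mem_of s1 s2 (z := 0) (c := y) (A := y) (B' := y) (a' := y) (b' := y) (P := y)
      (N := y) (by unfold Cn; refine ⟨?_, ?_, ?_, ?_, ?_, ?_, ?_, ?_, ?_⟩ <;> linarith)
      (by simp [scV, cut, nJ, D13]) (by simp [scV, cut, nJ, D13]) (by simp [scV, cut, nJ, D13])
      (by simp [scV, cut, nJ, D13]) (by simp [scV, cut, nJ, D13])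
      (by simp [scV, cut, nJ, D13]) (by simp [scV, cut, nJ, D13]) (by simp [scV, cut, nJ, D13])⟩
  have key := rowII g.ww g.ev g.mod y0 htop g.eS hR g.hk tg
    (legZ y0.le g {1} (by decide) (by decide) fun k _ => by simp [pC])
    (legZ y0.le g ∅ (by decide) (by decide) fun k _ => by simp)
    (legZ y0.le g {1, 2, 3, 12, 13, 15, 16, 17} (by decide) (by decide) fun k hk => by
      unfold pTA
      revert hk
      fin_cases k <;> simp)
    (legZ y0.le g {1, 2, 3, 12, 13, 16, 17} (by decide) (by decide) fun k hk => by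
      unfold rTA
      revert hk
      fin_cases k <;> simp)
  rw [nuJ H s1 s2 g (p := pC y) (p' := fun _ => y)
        (c := 0) (A := y) (B' := y) (b' := y) (P := y) (N := y)
        (c' := y) (A' := y) (B'' := y) (b'' := y) (P' := y) (N' := y)
        (by unfold Cn; refine ⟨?_, ?_, ?_, ?_, ?_, ?_, ?_, ?_, ?_⟩ <;> linarith)
        (by unfold Cn; refine ⟨?_, ?_, ?_, ?_, ?_, ?_, ?_, ?_, ?_⟩ <;> linarith)
        (by simp [pC]) (by simp [pC]) (by simp [pC]) (by simp [pC])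
        (by simp [pC]) (by simp [pC])
        rfl rfl rfl rfl rfl rfl,
      nuJ H s1 s2 g (p := pTA y) (p' := rTA y)
        (c := 0) (A := 0) (B' := 0) (b' := 0) (P := 0) (N := 0)
        (c' := 0) (A' := 0) (B'' := 0) (b'' := y) (P' := 0) (N' := 0)
        (by unfold Cn; refine ⟨?_, ?_, ?_, ?_, ?_, ?_, ?_, ?_, ?_⟩ <;> linarith)
        (by unfold Cn; refine ⟨?_, ?_, ?_, ?_, ?_, ?_, ?_, ?_, ?_⟩ <;> linarith)
        (by simp [pTA]) (by simp [pTA]) (by simp [pTA]) (by simp [pTA])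
        (by simp [pTA]) (by simp [pTA])
        (by simp [rTA]) (by simp [rTA]) (by simp [rTA]) (by simp [rTA])
        (by simp [rTA]) (by simp [rTA])] at key
  exact key

/-- the two windows are contradictory if `N` is not full, `v = 14` -/
theorem caseII
    (H : PtB B Bo I J co κ u f (mA monW (actW (DrW s))) (DrW s) C lam a b AA φ r κv Vv Tw)
    (s1 : 1 < s) (s2 : s < 2) (hm : 0 < m)
    (sw : ∀ c ∈ coneM (mA monW (actW (DrW s))), c 1 = 0 → ∀ t : ℝ, 0 ≤ t →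
      lam (c + t • e1W) ≤ lam c - m * t)
    (hV : ∀ k, Vv k → k = 14) (hT : Tw 14)
    (G0 : ∀ i j, gC a b i = gC a b j → i ∈ ({0, 14} : Finset (Fin 18)) →
      j ∈ ({0, 14} : Finset (Fin 18)) ∨ j ∈ DrW s)
    (Gw : ∀ j, gC a b j = gC a b 15 → j ≠ 15 → j ∉ DrW s → j = 3)
    (GA : ∀ j, gC a b j = gC a b 2 → j ≠ 2 → j ∉ DrW s → False)
    (hA : 1 ≤ lam (vc 1 0 0 0 0 0 0 0) - lam (vc 1 0 1 0 0 0 0 0))
    (a17 : a 17 ≠ 0) (GN : ∀ j, gC a b j = gC a b 17 → j = 17 ∨ j ∈ DrW s) :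
    1 ≤ r (gC a b 17) / a 17 := by
  by_contra hcon
  push Not at hcon
  have D17 : (17 : Fin 18) ∉ DrW s := fun h => absurd ((DrW_mid s1 s2).1 h) (by decide)
  have hN : lam (vc 1 1 1 0 1 0 1 0) - lam (vc 1 1 1 0 1 0 1 1) = r (gC a b 17) / a 17 := by
    rw [H.single a17 D17 GN (vc_mem s1 s2 (by unfold Cn; norm_num))
      (vc_mem s1 s2 (by unfold Cn; norm_num)) (fun j hj hjD => by
        revert hj
        fin_cases j <;> simp [vc])]
    have e1 : vc 1 1 1 0 1 0 1 1 17 = 1 := rfl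
    have e2 : vc 1 1 1 0 1 0 1 0 17 = 0 := rfl
    rw [e1, e2]; ring
  have hA' : lam (vc 1 1 0 0 1 0 1 0) - lam (vc 1 1 1 0 1 0 1 0) ≤ 1 := by
    have h1 := H.aew.sharp (vc 1 1 0 0 1 0 1 0) (vc_mem s1 s2 (by unfold Cn; norm_num))
      (vc 1 1 1 0 1 0 1 0) (vc_mem s1 s2 (by unfold Cn; norm_num)) (fun j => by
        fin_cases j <;> simp [vc])
    refine h1.trans (le_of_eq ?_)
    simp [Fin.sum_univ_succ, vc]
  have hX : 1 ≤ lam (vc 1 1 0 0 1 1 1 1) - lam (vc 1 1 1 0 1 1 1 1) := by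
    refine hA.trans (le_of_eq ?_)
    exact H.slot (i := 2) (vc_mem s1 s2 (by unfold Cn; norm_num))
      (vc_mem s1 s2 (by unfold Cn; norm_num)) (vc_mem s1 s2 (by unfold Cn; norm_num))
      (vc_mem s1 s2 (by unfold Cn; norm_num))
      (fun j hj _ => by revert hj; fin_cases j <;> simp [vc])
      (fun j hj _ => by revert hj; fin_cases j <;> simp [vc]) (by simp [vc]) (by simp [vc])
      (fun j h1 h2 h4 => (GA j h1 h2 h4).elim)
  obtain ⟨y, y0, y1, y2⟩ : ∃ y : ℝ, 0 < y ∧ y ≤ 1 ∧ r (gC a b 17) / a 17 < 1 - y := by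
    refine ⟨min 1 ((1 - r (gC a b 17) / a 17) / 2), lt_min one_pos (by linarith), min_le_left _ _, ?_⟩
    have := min_le_right (1:ℝ) ((1 - r (gC a b 17) / a 17) / 2)
    linarith
  have h1 := winJ1 H s1 s2 hV G0 y0 y1 hX (by linarith)
  have h2 := winJ2 H s1 s2 hV hT G0 y0
  have h3 := H.slot (i := 15) (c := vc y 0 0 0 y 0 0 0) (c' := vc y 0 0 0 y y 0 0)
    (d := vc 1 1 1 0 1 0 1 1) (d' := vc 1 1 1 0 1 y 1 1)
    (vc_mem s1 s2 (by unfold Cn; refine ⟨?_, ?_, ?_, ?_, ?_, ?_, ?_, ?_, ?_⟩ <;> linarith))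
    (vc_mem s1 s2 (by unfold Cn; refine ⟨?_, ?_, ?_, ?_, ?_, ?_, ?_, ?_, ?_⟩ <;> linarith))
    (vc_mem s1 s2 (by unfold Cn; refine ⟨?_, ?_, ?_, ?_, ?_, ?_, ?_, ?_, ?_⟩ <;> linarith))
    (vc_mem s1 s2 (by unfold Cn; refine ⟨?_, ?_, ?_, ?_, ?_, ?_, ?_, ?_, ?_⟩ <;> linarith))
    (fun j hj _ => by revert hj; fin_cases j <;> simp [vc])
    (fun j hj _ => by revert hj; fin_cases j <;> simp [vc]) (by simp [vc]) (by simp [vc])
    (fun j h1 h2 h4 => by rw [Gw j h1 h2 h4]; simp [vc])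
  have h4 := sw_vc (z := y) (A := y) (B' := y) (a' := y) (b' := y) (P := y) (N := y) (t := y)
    s1 s2 sw (by unfold Cn; refine ⟨?_, ?_, ?_, ?_, ?_, ?_, ?_, ?_, ?_⟩ <;> linarith) y0.le
  have h5 : 0 < m * y := mul_pos hm y0
  linarith

end cases

end Crest.Agent.R136.DLow619
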