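import Crest.Agent.R136.DLw4_619

/-!
# R136: `deadlow` (helper619): the last rung of slope `1 < s < 2`

`V ⊆ {14, 15}`, the dominant slot is `15` or `14`; `N` is full by `caseI` / `caseII`; 938's
`conc_ptC`.
-/

set_option autoImplicit false
set_option linter.unusedSectionVars false
set_option linter.unusedVariables false

open Filter Topology

namespace Crest.Agent.R136.DLow619

open Finset Crest.Agent.R138.Ex926 Crest.Agent.R136.Net191 Crest.Agent.R136.Gf356
open Crest.Agent.R136.Qg926 Crest.Agent.R136.Dg219 Crest.Agent.R136.Aw413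
open Crest.Agent.R136.NetW191 Crest.Agent.R136.EvW938 Crest.Agent.R136.PrW464
open Crest.Agent.R136.LadW697 Crest.Agent.R136.AwJ774 Crest.Agent.R136.Bas938
open Crest.Agent.R136.K2S774 (cn)
open Crest.Agent.R136.NatW697 (KW saW KW_eq SlotOkW)
open Crest.Agent.R136.LadT830 (Top vis_al btW_KW)
open Crest.Agent.R136.ThB830 (PtC deadC_of)

/-- the undropped slots -/
theorem undr : ∀ j : Fin 18, j ∉ D13 →
    j = 0 ∨ j = 1 ∨ j = 2 ∨ j = 3 ∨ j = 14 ∨ j = 15 ∨ j = 16 ∨ j = 17 := by decide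

section vals

variable {s : ℝ} (s1 : 1 < s) (s2 : s < 2) (θ : Fin 3 → ℝ)

include s1 s2

theorem TWv : TW s 14 = s - 1 ∧ TW s 15 = s - 1 ∧ TW s 16 = s - 1 ∧ TW s 17 = s := by
  have h : ∀ k : Fin 18, k ∉ D13 → k ∉ DrW s := fun k hk h => hk ((DrW_mid s1 s2).1 h)
  refine ⟨?_, ?_, ?_, ?_⟩
  · rw [TW_flag (by decide) (h 14 (by decide)), show alW 14 = 1 from by decide]; norm_num
  · rw [TW_flag (by decide) (h 15 (by decide)), show alW 15 = 1 from by decide]; norm_num
  · rw [TW_flag (by decide) (h 16 (by decide)), show alW 16 = 1 from by decide]; norm_num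
  · rw [TW_flag (by decide) (h 17 (by decide)), show alW 17 = 0 from by decide]; norm_num

omit s1 s2 in
theorem bWv : btW θ 14 = (1 - θ 0) + 2 * θ 1 - 1 ∧ btW θ 15 = (1 - θ 0) + θ 1 - 1 ∧
    btW θ 16 = (1 - θ 0) - 1 ∧ btW θ 17 = 1 - θ 0 := by
  refine ⟨?_, ?_, ?_, ?_⟩
  · rw [btW_val, show wz 14 = -1 from by decide, show wc 14 = -2 from by decide,
      show wn 14 = 1 from by decide]
    push_cast; ring
  · rw [btW_val, show wz 15 = -1 from by decide, show wc 15 = -1 from by decide,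
      show wn 15 = 1 from by decide]
    push_cast; ring
  · rw [btW_val, show wz 16 = -1 from by decide, show wc 16 = 0 from by decide,
      show wn 16 = 1 from by decide]
    push_cast; ring
  · rw [btW_val, show wz 17 = 0 from by decide, show wc 17 = 0 from by decide,
      show wn 17 = 1 from by decide]
    push_cast; ring

/-- two undropped slots in one group -/
theorem grp_tool {i j : Fin 18} (h1 : TW s i ≠ 0)
    (e : gC (TW s) (btW θ) i = gC (TW s) (btW θ) j) :
    TW s j ≠ 0 ∧ btW θ i * TW s j = btW θ j * TW s i := by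
  have h2 : TW s j ≠ 0 := fun h => by
    rw [gC_zero.2 h] at e
    exact h1 (gC_zero.1 e)
  refine ⟨h2, ?_⟩
  rw [gC_eq h1 h2, div_eq_div_iff h1 h2] at e
  exact e

end vals

section slots

variable {s : ℝ} {θ : Fin 3 → ℝ} (s1 : 1 < s) (s2 : s < 2) (hθ : 0 < θ 1)

include s1 s2 hθ

set_option maxHeartbeats 1000000 in
/-- the groups, `v = 15` -/
theorem grpI (hn : 1 - θ 0 = s - θ 1) :
    (∀ i j, gC (TW s) (btW θ) i = gC (TW s) (btW θ) j → i ∈ ({0, 15} : Finset (Fin 18)) →
      j ∈ ({0, 15} : Finset (Fin 18)) ∨ j ∈ DrW s) ∧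
    (∀ j, gC (TW s) (btW θ) j = gC (TW s) (btW θ) 16 → j ≠ 16 → j ∉ DrW s → j = 3) ∧
    (∀ j, gC (TW s) (btW θ) j = gC (TW s) (btW θ) 17 → j = 17 ∨ j ∈ DrW s) := by
  obtain ⟨t14, t15, t16, t17⟩ := TWv s1 s2
  obtain ⟨b14, b15, b16, b17⟩ := bWv θ
  have t0 := TW_z s
  have t1 := TW_c s
  have t2 := TW_A s
  have t3 := TW_B s
  have b0 := btW0 θ
  have b2' := btW2 θ
  have b3 := btW3 θ
  rw [hn] at b14 b15 b16 b17
  have p1 : 0 < θ 1 * (s - 1) := mul_pos hθ (by linarith)
  have p2 : 0 < θ 1 * (2 - s) := mul_pos hθ (by linarith)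
  have nD : ∀ j, j ∉ DrW s → j ∉ D13 := fun j h1 h2 => h1 ((DrW_mid s1 s2).2 h2)
  refine ⟨fun i j e hi => ?_, fun j e h1 h2 => ?_, fun j e => ?_⟩
  · by_cases hD : j ∈ DrW s
    · exact Or.inr hD
    left
    have hi0 : TW s i ≠ 0 ∧ btW θ i = TW s i := by
      rcases Finset.mem_insert.1 hi with rfl | hi
      · rw [t0, b0]; exact ⟨one_ne_zero, rfl⟩
      · rw [Finset.mem_singleton.1 hi, t15, b15]; exact ⟨by linarith, by ring⟩
    obtain ⟨a1, a2⟩ := grp_tool s1 s2 θ hi0.1 e
    rw [hi0.2] at a2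
    have a3 : TW s j = btW θ j := by
      have h3 : TW s i * (TW s j - btW θ j) = 0 := by linarith
      rcases mul_eq_zero.1 h3 with h3 | h3
      · exact absurd h3 hi0.1
      · linarith
    rcases undr j (nD j hD) with rfl | rfl | rfl | rfl | rfl | rfl | rfl | rfl
    · decide
    · exact absurd t1 a1
    · rw [t2, b2'] at a3; linarith
    · rw [t3, b3] at a3; linarith
    · rw [t14, b14] at a3; linarith
    · decide
    · rw [t16, b16] at a3; linarith
    · rw [t17, b17] at a3; linarith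
  · obtain ⟨a1, a2⟩ := grp_tool s1 s2 θ (by rw [t16]; linarith) e.symm
    rw [t16, b16] at a2
    rcases undr j (nD j h2) with rfl | rfl | rfl | rfl | rfl | rfl | rfl | rfl
    · rw [t0, b0] at a2; linarith
    · exact absurd t1 a1
    · rw [t2, b2'] at a2; exfalso; ring_nf at a2 p1 p2; linarith
    · rfl
    · rw [t14, b14] at a2; exfalso; ring_nf at a2 p1 p2; linarith
    · rw [t15, b15] at a2; exfalso; ring_nf at a2 p1 p2; linarith
    · exact absurd rfl h1
    · rw [t17, b17] at a2; exfalso; ring_nf at a2 p1 p2; linarith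
  · by_cases hD : j ∈ DrW s
    · exact Or.inr hD
    left
    obtain ⟨a1, a2⟩ := grp_tool s1 s2 θ (by rw [t17]; linarith) e.symm
    rw [t17, b17] at a2
    rcases undr j (nD j hD) with rfl | rfl | rfl | rfl | rfl | rfl | rfl | rfl
    · rw [t0, b0] at a2; linarith
    · exact absurd t1 a1
    · rw [t2, b2'] at a2; exfalso; ring_nf at a2 p1 p2; linarith
    · rw [t3, b3] at a2; exfalso; ring_nf at a2 p1 p2; linarith
    · rw [t14, b14] at a2; exfalso; ring_nf at a2 p1 p2; linarith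
    · rw [t15, b15] at a2; exfalso; ring_nf at a2 p1 p2; linarith
    · rw [t16, b16] at a2; exfalso; ring_nf at a2 p1 p2; linarith
    · rfl

set_option maxHeartbeats 1000000 in
/-- the groups, `v = 14` -/
theorem grpII (hn : 1 - θ 0 = s - 2 * θ 1) :
    (∀ i j, gC (TW s) (btW θ) i = gC (TW s) (btW θ) j → i ∈ ({0, 14} : Finset (Fin 18)) →
      j ∈ ({0, 14} : Finset (Fin 18)) ∨ j ∈ DrW s) ∧
    (∀ j, gC (TW s) (btW θ) j = gC (TW s) (btW θ) 15 → j ≠ 15 → j ∉ DrW s → j = 3) ∧
    (∀ j, gC (TW s) (btW θ) j = gC (TW s) (btW θ) 2 → j ≠ 2 → j ∉ DrW s → False) ∧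
    (∀ j, gC (TW s) (btW θ) j = gC (TW s) (btW θ) 17 → j = 17 ∨ j ∈ DrW s) := by
  obtain ⟨t14, t15, t16, t17⟩ := TWv s1 s2
  obtain ⟨b14, b15, b16, b17⟩ := bWv θ
  have t0 := TW_z s
  have t1 := TW_c s
  have t2 := TW_A s
  have t3 := TW_B s
  have b0 := btW0 θ
  have b2' := btW2 θ
  have b3 := btW3 θ
  rw [hn] at b14 b15 b16 b17
  have p1 : 0 < θ 1 * (s - 1) := mul_pos hθ (by linarith)
  have p2 : 0 < θ 1 * (2 - s) := mul_pos hθ (by linarith)
  have nD : ∀ j, j ∉ DrW s → j ∉ D13 := fun j h1 h2 => h1 ((DrW_mid s1 s2).2 h2)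
  refine ⟨fun i j e hi => ?_, fun j e h1 h2 => ?_, fun j e h1 h2 => ?_, fun j e => ?_⟩
  · by_cases hD : j ∈ DrW s
    · exact Or.inr hD
    left
    have hi0 : TW s i ≠ 0 ∧ btW θ i = TW s i := by
      rcases Finset.mem_insert.1 hi with rfl | hi
      · rw [t0, b0]; exact ⟨one_ne_zero, rfl⟩
      · rw [Finset.mem_singleton.1 hi, t14, b14]; exact ⟨by linarith, by ring⟩
    obtain ⟨a1, a2⟩ := grp_tool s1 s2 θ hi0.1 e
    rw [hi0.2] at a2
    have a3 : TW s j = btW θ j := by
      have h3 : TW s i * (TW s j - btW θ j) = 0 := by linarith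
      rcases mul_eq_zero.1 h3 with h3 | h3
      · exact absurd h3 hi0.1
      · linarith
    rcases undr j (nD j hD) with rfl | rfl | rfl | rfl | rfl | rfl | rfl | rfl
    · decide
    · exact absurd t1 a1
    · rw [t2, b2'] at a3; linarith
    · rw [t3, b3] at a3; linarith
    · decide
    · rw [t15, b15] at a3; linarith
    · rw [t16, b16] at a3; linarith
    · rw [t17, b17] at a3; linarith
  · obtain ⟨a1, a2⟩ := grp_tool s1 s2 θ (by rw [t15]; linarith) e.symm
    rw [t15, b15] at a2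
    rcases undr j (nD j h2) with rfl | rfl | rfl | rfl | rfl | rfl | rfl | rfl
    · rw [t0, b0] at a2; linarith
    · exact absurd t1 a1
    · rw [t2, b2'] at a2; exfalso; ring_nf at a2 p1 p2; linarith
    · rfl
    · rw [t14, b14] at a2; exfalso; ring_nf at a2 p1 p2; linarith
    · exact absurd rfl h1
    · rw [t16, b16] at a2; exfalso; ring_nf at a2 p1 p2; linarith
    · rw [t17, b17] at a2; exfalso; ring_nf at a2 p1 p2; linarith
  · obtain ⟨a1, a2⟩ := grp_tool s1 s2 θ (by rw [t2]; exact one_ne_zero) e.symm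
    rw [t2, b2'] at a2
    rcases undr j (nD j h2) with rfl | rfl | rfl | rfl | rfl | rfl | rfl | rfl
    · rw [t0, b0] at a2; linarith
    · exact absurd t1 a1
    · exact absurd rfl h1
    · rw [t3, b3] at a2; linarith
    · rw [t14, b14] at a2; exfalso; ring_nf at a2 p1 p2; linarith
    · rw [t15, b15] at a2; exfalso; ring_nf at a2 p1 p2; linarith
    · rw [t16, b16] at a2; exfalso; ring_nf at a2 p1 p2; linarith
    · rw [t17, b17] at a2; exfalso; ring_nf at a2 p1 p2; linarith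
  · by_cases hD : j ∈ DrW s
    · exact Or.inr hD
    left
    obtain ⟨a1, a2⟩ := grp_tool s1 s2 θ (by rw [t17]; linarith) e.symm
    rw [t17, b17] at a2
    rcases undr j (nD j hD) with rfl | rfl | rfl | rfl | rfl | rfl | rfl | rfl
    · rw [t0, b0] at a2; linarith
    · exact absurd t1 a1
    · rw [t2, b2'] at a2; exfalso; ring_nf at a2 p1 p2; linarith
    · rw [t3, b3] at a2; exfalso; ring_nf at a2 p1 p2; linarith
    · rw [t14, b14] at a2; exfalso; ring_nf at a2 p1 p2; linarith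
    · rw [t15, b15] at a2; exfalso; ring_nf at a2 p1 p2; linarith
    · rw [t16, b16] at a2; exfalso; ring_nf at a2 p1 p2; linarith
    · rfl

end slots

theorem cap_no : ∀ k : Fin 18, k = 14 ∨ k = 15 → ∀ l ∈ mlW k,
    ¬ ∀ i ∈ l, i = 0 ∨ (i = 14 ∨ i = 15) := by decide

theorem flags1 : ∀ k : Fin 18, 4 ≤ k → k ≠ 16 → alW k = 1 → k = 14 ∨ k = 15 := by decide

theorem v4_vc (z c A B : ℝ) : v4 z c A B = vc z c A B 0 0 0 0 := by
  funext k
  fin_cases k <;> simp [v4, vc]

set_option maxHeartbeats 1000000 in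
/-- **`deadlow`** : the last rung, largest wall slope in `(1, 2)` -/
theorem deadlow : DeadC (fun g θ V s => Top θ (fun k => k ∈ V) s ∧ 1 < s ∧ s < 2) := by
  refine deadC_of (fun g θ V s h => ⟨by linarith [h.2.1], fun k hk => h.1.2 k hk⟩) ?_
  rintro P ν own K r0 θ g q V T s hc ⟨htop, s1, s2⟩
  refine ⟨g / 4, by have := hc.g0; linarith, fun B Bo I J co C κ u f lam lo A φ r h =>
    ThB830.CtxW.full hc (by linarith) ?_⟩
  have H := PtB.of_ptC h h.ne
  have hθ := h.th1
  -- the visible slots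
  have hVs : ∀ k, k ∈ V → k = 14 ∨ k = 15 := fun k hk => by
    obtain ⟨h4, h1, h2⟩ := vis_al hc.slots hk
    have h3 := htop.2 k hk
    have h5 : (alW k : ℝ) < 2 := by linarith
    have h6 : (1 : ℤ) ≤ alW k := by exact_mod_cast h1
    have h7 : alW k < 2 := by exact_mod_cast h5
    exact flags1 k h4 (hc.slots.vis k hk).1.2.2.1 (by omega)
  have hTk : ∀ k, k ∈ V → k ∈ T := fun k hk => by
    by_contra hn
    obtain ⟨l, hl, h1⟩ := hc.slots.cap k hk hn
    exact cap_no k (hVs k hk) l hl fun i hi => (h1 i hi).imp id fun h2 => hVs i h2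
  obtain ⟨b14, b15, b16, b17⟩ := bWv θ
  have K14 : KW θ 14 = (1 - θ 0) + 2 * θ 1 := by
    rw [KW_eq, show wc 14 = -2 from by decide, show wn 14 = 1 from by decide]
    push_cast; ring
  have K15 : KW θ 15 = (1 - θ 0) + θ 1 := by
    rw [KW_eq, show wc 15 = -1 from by decide, show wn 15 = 1 from by decide]
    push_cast; ring
  have a17 : TW s 17 ≠ 0 := by rw [(TWv s1 s2).2.2.2]; linarith
  have D17 : (17 : Fin 18) ∉ DrW s := fun h => absurd ((DrW_mid s1 s2).1 h) (by decide)
  have hm : 0 < q 1 + 2 * q 2 := by linarith [h.q1, h.q2]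
  have sw : ∀ c ∈ coneM (mA monW (actW (DrW s))), c 1 = 0 → ∀ t : ℝ, 0 ≤ t →
      lam (c + t • e1W) ≤ lam c - (q 1 + 2 * q 2) * t := by
    intro c hcm h1 t ht
    rw [coneM_mA] at hcm
    refine h.sweep c hcm h1 (fun i hi hT => ?_) t ht
    exfalso
    by_cases hD : i ∈ DrW s
    · rw [TW, if_pos hD] at hT; exact one_ne_zero hT
    · obtain ⟨t14, t15, t16, t17⟩ := TWv s1 s2
      rcases undr i (fun h2 => hD ((DrW_mid s1 s2).2 h2)) with rfl | rfl | rfl | rfl | rfl | rfl |
        rfl | rfl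
      · rw [TW_z] at hT; exact one_ne_zero hT
      · exact hi rfl
      · rw [TW_A] at hT; exact one_ne_zero hT
      · rw [TW_B] at hT; exact one_ne_zero hT
      · linarith
      · linarith
      · linarith
      · linarith
  -- `N` is full
  have key : 1 ≤ r (gC (TW s) (btW θ) 17) / TW s 17 ∧
      ∀ j, gC (TW s) (btW θ) j = gC (TW s) (btW θ) 17 → j = 17 ∨ j ∈ DrW s := by
    obtain ⟨k, hk, hK⟩ := htop.1
    rcases hVs k hk with rfl | rfl
    · have hn : 1 - θ 0 = s - 2 * θ 1 := by linarith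
      obtain ⟨G0, Gw, GA, GN⟩ := grpII s1 s2 hθ hn
      refine ⟨caseII H s1 s2 hm sw (fun j hj => ?_) ⟨hTk 14 hk, hk, hK⟩ G0 Gw GA ?_ a17 GN, GN⟩
      · rcases hVs j hj.1 with rfl | rfl
        · rfl
        · exfalso
          have := hj.2
          linarith
      · have := (base_ptC h h.ne h.q1 h.q2 one_pos).2
        rw [v4_vc, v4_vc] at this
        exact this
    · have hn : 1 - θ 0 = s - θ 1 := by linarith
      obtain ⟨G0, Gw, GN⟩ := grpI s1 s2 hθ hn
      refine ⟨caseI H s1 s2 hm sw (fun j hj => ?_) ⟨hTk 15 hk, hk, hK⟩ G0 Gw a17 GN, GN⟩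
      rcases hVs j hj.1 with rfl | rfl
      · exfalso
        have := hj.2
        linarith
      · rfl
  obtain ⟨hρ, GN⟩ := key
  refine conc_ptC h h.ne h.q1 h.q2 (x := s) (Cc := 0) (Eventually.frequently ?_)
  filter_upwards [eventually_ge_atTop (0:ℝ)] with t ht
  have m0 := ray_mem s t
  have m1 : Function.update (t • TW s) 17 0 ∈ coneM (mA monW (actW (DrW s))) :=
    upd17_mem H.act m0 fun k => by
      simp only [Pi.smul_apply, smul_eq_mul]
      exact mul_nonneg ht (Bas938.TW_nonneg (by linarith) k)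
  rw [H.single a17 D17 GN m1 m0 fun j hj _ => by rw [Function.update_of_ne hj]]
  rw [Function.update_self]
  simp only [Pi.smul_apply, smul_eq_mul]
  have h17 := (TWv s1 s2).2.2.2
  rw [show t * TW s 17 - 0 = t * s by rw [h17]; ring]
  have : 0 ≤ t * s := by positivity
  nlinarith

end Crest.Agent.R136.DLow619
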