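import Crest.Agent.R136.GD7_186
import Crest.Agent.R136.Deep0_770

/-!
# R136: D-max at every natural level (helper779)

`count_m` : number of incidences in one sheet per cell of a NATURAL level `m`,
`lev n 0 ≤ m ≤ lev n 1`, uniformly in `m` and in the sheets (finite net of rational levels).
-/

set_option autoImplicit false
set_option linter.unusedVariables false
set_option linter.unusedSectionVars false

open Finset Filter Topology

namespace Crest.Agent.R136.Dmx779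

open Crest.Agent.R138.Ex926 (Base U)
open Crest.Agent.R138.Mk163 (zc zl rho alive)
open Crest.Agent.R138
open Crest.Agent.R136.MkA627
open Crest.Agent.R136.Sh605
open Crest.Agent.R136.K4
open Crest.Agent.R136.Top484 (geo4)
open Crest.Agent.R136.PqG464 (pow_lev ev_const)
open Crest.Agent.R136.GeoQ186

theorem ShN.window {e : Fin 3 → V3} {c : Ln4} {w : V3} {q : ℝ → V3 → ℝ} {a z0 ρ r0 z0' ρ' : ℝ}
    (h : ShN e c w q a z0 ρ r0) (h0 : z0 ≤ z0') (h1 : z0' + ρ' ≤ z0 + ρ) :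
    ShN e c w q a z0' ρ' r0 :=
  { ortho := h.ortho, isQ := h.isQ, a_le0 := h.a_le0, w0_le := h.w0_le, w_le := h.w_le
    r0_le := h.r0_le
    st0 := fun z hz hz' => h.st0 z (h0.trans hz) (hz'.trans h1)
    sl1 := fun z hz hz' => h.sl1 z (h0.trans hz) (hz'.trans h1)
    sl2 := fun z hz hz' => h.sl2 z (h0.trans hz) (hz'.trans h1) }

theorem InSheet.window {t : Ln4} {e : Fin 3 → V3} {c : Ln4} {w : V3} {q : ℝ → V3 → ℝ}
    {a z0 ρ z0' ρ' : ℝ} (h : InSheet t e c w q a z0 ρ) (h0 : z0 ≤ z0')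
    (h1 : z0' + ρ' ≤ z0 + ρ) : InSheet t e c w q a z0' ρ' :=
  fun z hz hz' => h z (h0.trans hz) (hz'.trans h1)

/-- sub-cells -/
theorem sub_cell {m i : ℕ} (h : m ≤ i) (J : ℤ) :
    zl m (J / 2 ^ (i - m)) ≤ zl i J ∧ zl i J + rho i ≤ zl m (J / 2 ^ (i - m)) + rho m := by
  obtain ⟨k, rfl⟩ := Nat.exists_eq_add_of_le h
  rw [Nat.add_sub_cancel_left]
  have h1 := (Dia770.ico_div (k := k) (j := J) (c := J / 2 ^ k)).2 rfl
  rw [Finset.mem_Ico] at h1
  obtain ⟨a, b⟩ := h1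
  have a' : ((J / 2 ^ k : ℤ) : ℝ) * 2 ^ k ≤ J := by exact_mod_cast a
  have b' : (J : ℝ) + 1 ≤ ((J / 2 ^ k : ℤ) : ℝ) * 2 ^ k + 2 ^ k := by
    have : J + 1 ≤ (J / 2 ^ k) * 2 ^ k + 2 ^ k := by linarith
    exact_mod_cast this
  have hm : (0 : ℝ) < 2 ^ m := by positivity
  have hk : (0 : ℝ) < 2 ^ k := by positivity
  unfold zl rho
  rw [pow_add]
  constructor
  · rw [div_le_div_iff₀ hm (by positivity)]
    calc ((J / 2 ^ k : ℤ) : ℝ) * (2 ^ m * 2 ^ k) = (((J / 2 ^ k : ℤ) : ℝ) * 2 ^ k) * 2 ^ m := by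
          ring
      _ ≤ (J : ℝ) * 2 ^ m := mul_le_mul_of_nonneg_right a' hm.le
  · rw [← add_div, ← add_div, div_le_div_iff₀ (by positivity) hm]
    calc ((J : ℝ) + 1) * 2 ^ m ≤ (((J / 2 ^ k : ℤ) : ℝ) * 2 ^ k + 2 ^ k) * 2 ^ m :=
          mul_le_mul_of_nonneg_right b' hm.le
      _ = _ := by ring

theorem subcell_mem {m i : ℕ} (h : m ≤ i) {z : ℝ} {J0 : ℤ}
    (hz : zc m z ∈ Finset.Icc (J0 - 1) (J0 + 1)) :
    zc i z ∈ Finset.Ico ((J0 - 1) * 2 ^ (i - m)) ((J0 + 2) * 2 ^ (i - m)) := by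
  have h1 := (Dia770.ico_div (k := i - m) (j := zc i z) (c := zc m z)).2
    (Dia770.zc_div h z).symm
  rw [Finset.mem_Ico] at h1 ⊢
  rw [Finset.mem_Icc] at hz
  have hp : (0 : ℤ) ≤ 2 ^ (i - m) := by positivity
  constructor
  · exact (mul_le_mul_of_nonneg_right hz.1 hp).trans h1.1
  · have h2 : (zc m z + 1) * 2 ^ (i - m) ≤ (J0 + 2) * 2 ^ (i - m) :=
      mul_le_mul_of_nonneg_right (by linarith [hz.2]) hp
    have h3 : (zc m z + 1) * 2 ^ (i - m) = zc m z * 2 ^ (i - m) + 2 ^ (i - m) := by ring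
    linarith [h1.2]

/-- the smallest net level above `m` -/
theorem exists_net {l : ℕ → ℕ} {N m : ℕ} (h0 : l 0 ≤ m) (h1 : m ≤ l N) :
    ∃ j ≤ N, m ≤ l j ∧ ((j = 0 ∧ l j = m) ∨ ∃ k, j = k + 1 ∧ l k < m) := by
  classical
  have hex : ∃ j, m ≤ l j := ⟨N, h1⟩
  refine ⟨Nat.find hex, Nat.find_min' hex h1, Nat.find_spec hex, ?_⟩
  rcases hj : Nat.find hex with _ | k
  · left
    have := Nat.find_spec hex
    rw [hj] at this
    exact ⟨rfl, le_antisymm h0 this⟩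
  · right
    refine ⟨k, rfl, ?_⟩
    have := Nat.find_min hex (m := k) (by omega)
    omega

theorem rho_pos (i : ℕ) : 0 < rho i := by unfold rho; positivity

theorem rho_div {m i : ℕ} (h : m ≤ i) : rho m / rho i = 2 ^ (i - m) := by
  obtain ⟨k, rfl⟩ := Nat.exists_eq_add_of_le h
  rw [Nat.add_sub_cancel_left]
  unfold rho
  rw [pow_add]
  field_simp

section count

variable {B : Base} {I : ℕ → Finset (ℕ × ℝ)} {L : ℕ → ℕ → Ln4} {r0 : ℕ → ℝ}
  {wr cr : Fin 3 → ℕ → ℝ} {q : Fin 3 → ℝ}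
  {lev : ℕ → ℚ → ℕ} {A : ℕ → ℝ} {g s : ℝ} {τ : Fin 3 → ℝ → ℝ} {f : ℕ → ℚ → ℕ → ℤ → ℕ}
  {b : ℕ → ℚ → ℕ → Plk4} {vm : ℕ → ℚ → ℝ} {w : Fin 3 → ℕ → ℚ → ℝ}

/-- value of a sheet, finer level -/
theorem val_finer (hq : ∀ j, 0 ≤ q j) {m i : ℕ} (h : m ≤ i) {t : Plk4} (ha : 0 ≤ t.a)
    (h2 : 0 ≤ t.w 2) (h1 : 0 ≤ t.w 1) (n : ℕ) (J J' : ℤ) :
    (geo4 L r0 wr cr q).val n i J' t =
      (geo4 L r0 wr cr q).val n m J t * (rho m / rho i) ^ (q 0 + q 1 + q 2) := by
  have hm : 0 < rho m := rho_pos _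
  have hi : 0 < rho i := rho_pos _
  have hmi : 0 < rho m / rho i := div_pos hm hi
  have e1 : ∀ x : ℝ, x / rho i = (x / rho m) * (rho m / rho i) := by
    intro x; field_simp
  show t.a * t.w 2 * t.w 1 * ((t.a / rho i) ^ q 0 * (t.w 1 / rho i) ^ q 1 *
      (t.w 2 / rho i) ^ q 2) = t.a * t.w 2 * t.w 1 * ((t.a / rho m) ^ q 0 *
      (t.w 1 / rho m) ^ q 1 * (t.w 2 / rho m) ^ q 2) * _
  rw [e1 t.a, e1 (t.w 1), e1 (t.w 2), Real.mul_rpow (div_nonneg ha hm.le) hmi.le,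
    Real.mul_rpow (div_nonneg h1 hm.le) hmi.le, Real.mul_rpow (div_nonneg h2 hm.le) hmi.le,
    Real.rpow_add hmi, Real.rpow_add hmi]
  ring

open Classical in
/-- **count of a set of incidences lying in one sheet per cell of the natural level `m`** -/
theorem count_m (hM : MkA B I (geo4 L r0 wr cr q) lev A (fun v => g * v) (fun v => s * v) τ f b vm w)
    (hq : ∀ j, 0 ≤ q j) {δ0 : ℝ} (hδ0 : 0 < δ0) {ε : ℝ} (hε : 0 < ε) :
    ∀ᶠ n in (U : Filter ℕ), ∀ m : ℕ, lev n 0 ≤ m → m ≤ lev n 1 →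
      ∀ (Q : Finset (ℕ × ℝ)) (J0 : ℤ) (V : ℝ), Q ⊆ I n → 0 ≤ V →
      (∀ y ∈ Q, zc m y.2 ∈ Finset.Icc (J0 - 1) (J0 + 1)) →
      (∀ J : ℤ, ∃ t : Plk4, ShN t.e t.c t.w t.q t.a (zl m J) (rho m) (r0 n) ∧ 0 ≤ t.a ∧
        t.w 1 ≤ B.d n ^ δ0 * rho m ∧ (∀ k : Fin 3, wr k n ≤ ![t.a, t.w 1, t.w 2] k ∧ ![t.a, t.w 1, t.w 2] k ≤ cr k n) ∧
        (geo4 L r0 wr cr q).val n m J t ≤ V ∧
        ∀ y ∈ Q, zc m y.2 = J →
          InSheet (L n y.1) t.e t.c t.w t.q t.a (zl m J) (rho m)) →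
      (Q.card : ℝ) ≤ A n * V * (rho m / rho (lev n 0)) ^ ((1 - s) - g) *
        B.d n ^ (-((1 - s) + ε)) := by
  set Qs : ℝ := q 0 + q 1 + q 2 with hQs
  have hQs0 : 0 ≤ Qs := by have := hq 0; have := hq 1; have := hq 2; rw [hQs]; linarith
  set c : ℝ := (1 - s) - g with hc
  set t : ℝ := min (ε / (16 * (1 + Qs + |c|))) (δ0 / 8) with ht
  have hden : 0 < 16 * (1 + Qs + |c|) := by positivity
  have ht0 : 0 < t := lt_min (div_pos hε hden) (by positivity)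
  have htε : 16 * (1 + Qs + |c|) * t ≤ ε := by
    have h1 : t ≤ ε / (16 * (1 + Qs + |c|)) := min_le_left _ _
    rw [le_div_iff₀ hden] at h1
    linarith
  have htδ : 8 * t ≤ δ0 := by
    have : t ≤ δ0 / 8 := min_le_right _ _
    linarith
  obtain ⟨N, hN⟩ := exists_nat_gt (1 / t)
  have hN0 : 0 < N := by
    rcases Nat.eq_zero_or_pos N with h | h
    · rw [h, Nat.cast_zero] at hN
      have : 0 < 1 / t := by positivity
      linarith
    · exact h
  have hNr : (0 : ℝ) < N := by exact_mod_cast hN0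
  have h1N : 1 / (N : ℝ) ≤ t := by
    rw [div_lt_iff₀ ht0] at hN
    rw [div_le_iff₀ hNr]; linarith
  set u : ℕ → ℚ := fun k => (k : ℚ) / N with hu
  have hu0 : ∀ k, 0 ≤ u k := fun k => by positivity
  have hu1 : ∀ k ≤ N, u k ≤ 1 := fun k hk => by
    simp only [hu]
    rw [div_le_one (by exact_mod_cast hN0)]
    exact_mod_cast hk
  have hu00 : u 0 = 0 := by simp [hu]
  have huN : u N = 1 := by
    simp only [hu]
    rw [div_self]
    exact_mod_cast hN0.ne'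
  have hucast : ∀ k, ((u k : ℚ) : ℝ) = (k : ℝ) / N := fun k => by simp [hu]
  have hall : ∀ᶠ n in (U : Filter ℕ), ∀ k ∈ Finset.range (N + 1),
      (∀ (Q : Finset (ℕ × ℝ)) (J0 : ℤ) (V : ℝ), Q ⊆ I n → 0 ≤ V →
        (∀ y ∈ Q, zc (lev n (u k)) y.2 ∈ Finset.Icc (J0 - 1) (J0 + 1)) →
        (∀ J : ℤ, ∃ t : Plk4, (geo4 L r0 wr cr q).adm n (lev n (u k)) J t ∧
          (geo4 L r0 wr cr q).val n (lev n (u k)) J t ≤ V ∧
          ∀ y ∈ Q, zc (lev n (u k)) y.2 = J → (geo4 L r0 wr cr q).mem n (lev n (u k)) J t y.1) →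
        (Q.card : ℝ) ≤ A n * V * B.d n ^ (-(g * u k + (1 - s) * (1 - u k) + ε / 4))) ∧
      ((2 : ℝ) ^ lev n (u k) ≤ (2 : ℝ) ^ lev n 0 * B.d n ^ (-((u k : ℝ) + t)) ∧
        (2 : ℝ) ^ lev n 0 * B.d n ^ (-((u k : ℝ) - t)) ≤ (2 : ℝ) ^ lev n (u k)) := by
    rw [Filter.eventually_all_finset]
    intro k hk
    have hk' : k ≤ N := by rw [Finset.mem_range] at hk; omega
    exact (count_core hM (hu0 k) (hu1 k hk') (by positivity)).and
      (pow_lev hM (u k) (hu0 k) (hu1 k hk') ht0)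
  filter_upwards [hall, ev_const B (by norm_num : (0 : ℝ) < 3) ht0] with n hn h3 m hm0 hm1 Q J0 V
    hQ hV hcell hsh
  have hdp := fun a => Dp76.dpow_pos B n a
  have h3' : (3 : ℝ) ≤ B.d n ^ (-t) := const_le h3
  obtain ⟨j, hjN, hmj, hj⟩ := exists_net (l := fun k => lev n (u k)) (N := N) (m := m)
    (by rw [hu00]; exact hm0) (by rw [huN]; exact hm1)
  beta_reduce at hmj hj
  obtain ⟨hcore, hlo, hhi⟩ := hn j (Finset.mem_range.2 (by omega))
  set i : ℕ := lev n (u j) with hi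
  have hρm : 0 < rho m := rho_pos _
  have hρi : 0 < rho i := rho_pos _
  have hρ0 : 0 < rho (lev n 0) := rho_pos _
  set H : ℝ := rho m / rho i with hH
  have hHp : H = 2 ^ (i - m) := rho_div hmj
  have hH1 : 1 ≤ H := by rw [hHp]; exact one_le_pow₀ (by norm_num)
  have hH0 : 0 < H := by linarith
  set η : ℝ := 3 * t with hη
  -- `H ≤ d^(-η)`
  have hHη : H ≤ B.d n ^ (-η) := by
    rcases hj with ⟨_, h2⟩ | ⟨k, hk, hlk⟩
    · have him : i - m = 0 := by omega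
      have : H = 1 := by rw [hHp, him, pow_zero]
      rw [this]
      exact Real.one_le_rpow_of_pos_of_le_one_of_nonpos (B.pos n) (B.lt n).le (by linarith)
    · obtain ⟨_, _, hhik⟩ := hn k (Finset.mem_range.2 (by omega))
      have e1 : H = (2 : ℝ) ^ i / 2 ^ m := by rw [hH]; unfold rho; field_simp
      have h5 : (2 : ℝ) ^ lev n (u k) ≤ 2 ^ m := pow_le_pow_right₀ (by norm_num) hlk.le
      rw [e1, div_le_iff₀ (by positivity)]
      have h6 : (2 : ℝ) ^ lev n 0 * B.d n ^ (-((u k : ℝ) - t)) ≤ 2 ^ m := hhik.trans h5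
      refine hlo.trans ?_
      calc (2 : ℝ) ^ lev n 0 * B.d n ^ (-((u j : ℝ) + t)) =
            B.d n ^ (-((u j : ℝ) - u k + 2 * t)) *
              ((2 : ℝ) ^ lev n 0 * B.d n ^ (-((u k : ℝ) - t))) := by
            rw [mul_left_comm, ← Dp76.dpow_add]; congr 2; ring
        _ ≤ B.d n ^ (-η) * ((2 : ℝ) ^ lev n 0 * B.d n ^ (-((u k : ℝ) - t))) := by
            refine mul_le_mul_of_nonneg_right (Dp76.dpow_le B n ?_)
              (mul_nonneg (by positivity) (hdp _).le)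
            have e2 : ((u j : ℚ) : ℝ) - u k = 1 / N := by
              rw [hucast, hucast, hk]; push_cast; ring
            rw [e2]; linarith
        _ ≤ B.d n ^ (-η) * 2 ^ m := mul_le_mul_of_nonneg_left h6 (hdp _).le
  -- each sub-cell
  have hwi : B.d n ^ δ0 * rho m ≤ rho i := by
    have e1 : rho m = H * rho i := by rw [hH]; field_simp
    calc B.d n ^ δ0 * rho m = (B.d n ^ δ0 * H) * rho i := by rw [e1]; ring
      _ ≤ 1 * rho i := by
          refine mul_le_mul_of_nonneg_right ?_ hρi.le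
          calc B.d n ^ δ0 * H ≤ B.d n ^ δ0 * B.d n ^ (-η) :=
                mul_le_mul_of_nonneg_left hHη (hdp _).le
            _ = B.d n ^ (δ0 + -η) := by rw [Dp76.dpow_add]
            _ ≤ B.d n ^ (0 : ℝ) := Dp76.dpow_le B n (by rw [hη]; linarith)
            _ = 1 := Real.rpow_zero _
      _ = rho i := one_mul _
  set V' : ℝ := V * H ^ Qs with hV'
  have hV'0 : 0 ≤ V' := mul_nonneg hV (Real.rpow_nonneg hH0.le _)
  set T : ℝ := A n * V' * B.d n ^ (-(g * u j + (1 - s) * (1 - u j) + ε / 4)) with hT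
  have hone : ∀ J' : ℤ, ((Q.filter fun y => zc i y.2 = J').card : ℝ) ≤ T := by
    intro J'
    refine hcore (Q.filter fun y => zc i y.2 = J') J' V' ((Finset.filter_subset _ _).trans hQ)
      hV'0 (fun y hy => ?_) fun J => ?_
    · rw [(Finset.mem_filter.1 hy).2, Finset.mem_Icc]
      constructor <;> linarith
    · obtain ⟨tt, t1, t2, t3, tr, t4, t5⟩ := hsh (J / 2 ^ (i - m))
      obtain ⟨c1, c2⟩ := sub_cell hmj J
      have w0 : 0 ≤ tt.w 0 := t2.trans t1.a_le0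
      have w2 : 0 ≤ tt.w 2 := w0.trans t1.w0_le
      have w1 : 0 ≤ tt.w 1 := w2.trans t1.w_le
      refine ⟨tt, ⟨ShN.window t1 c1 c2, t3.trans hwi, tr⟩, ?_, fun y hy hyJ => ?_⟩
      · rw [val_finer (L := L) (r0 := r0) (wr := wr) (cr := cr) hq hmj t2 w2 w1 n (J / 2 ^ (i - m)) J]
        exact mul_le_mul_of_nonneg_right t4 (Real.rpow_nonneg hH0.le _)
      · have hyQ := (Finset.mem_filter.1 hy).1
        have hzm : zc m y.2 = J / 2 ^ (i - m) := by rw [Dia770.zc_div hmj, hyJ]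
        exact InSheet.window (t5 y hyQ hzm) c1 c2
  have hAn := (hM.Apos n).le
  have hT0 : 0 ≤ T := mul_nonneg (mul_nonneg hAn hV'0) (hdp _).le
  -- the sum
  have hsum : (Q.card : ℝ) ≤ 3 * H * T := by
    have h5 : Q.card = ∑ J ∈ Finset.Ico ((J0 - 1) * 2 ^ (i - m)) ((J0 + 2) * 2 ^ (i - m)),
        (Q.filter fun y => zc i y.2 = J).card :=
      Finset.card_eq_sum_card_fiberwise fun y hy => by
        exact_mod_cast subcell_mem hmj (hcell y hy)
    rw [h5]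
    push_cast
    refine (Finset.sum_le_sum fun J _ => hone J).trans ?_
    rw [Finset.sum_const, Int.card_Ico, nsmul_eq_mul]
    have e1 : ((((J0 + 2) * 2 ^ (i - m) - (J0 - 1) * 2 ^ (i - m)).toNat : ℕ) : ℝ) = 3 * H := by
      have e2 : (J0 + 2) * 2 ^ (i - m) - (J0 - 1) * 2 ^ (i - m) = ((3 * 2 ^ (i - m) : ℕ) : ℤ) := by
        push_cast; ring
      rw [e2, Int.toNat_natCast, hHp]
      push_cast; ring
    rw [e1]
  -- the exponents
  set r : ℝ := rho m / rho (lev n 0) with hr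
  have hr0 : 0 < r := div_pos hρm hρ0
  have hrH : r = H * (rho i / rho (lev n 0)) := by rw [hr, hH]; field_simp
  have hxlo : B.d n ^ ((u j : ℝ) + t) ≤ rho i / rho (lev n 0) := by
    rw [le_div_iff₀ hρ0]; exact rho_lo hlo
  have hxhi : rho i / rho (lev n 0) ≤ B.d n ^ ((u j : ℝ) - t) := by
    rw [div_le_iff₀ hρ0]; exact rho_hi hhi
  have hrlo : B.d n ^ ((u j : ℝ) + t) ≤ r := by
    rw [hrH]
    exact hxlo.trans (le_mul_of_one_le_left (by positivity) hH1)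
  have hrhi : r ≤ B.d n ^ ((u j : ℝ) - t - η) := by
    rw [hrH]
    calc H * (rho i / rho (lev n 0)) ≤ B.d n ^ (-η) * B.d n ^ ((u j : ℝ) - t) :=
          mul_le_mul hHη hxhi (by positivity) (hdp _).le
      _ = _ := by rw [← Dp76.dpow_add]; congr 1; ring
  have hrc : B.d n ^ ((u j : ℝ) * c) ≤ r ^ c * B.d n ^ (-(|c| * (t + η))) := by
    have ht' : 0 ≤ t + η := by rw [hη]; linarith
    rcases le_or_gt 0 c with hc0 | hc0
    · have h1 : B.d n ^ (((u j : ℝ) + t) * c) ≤ r ^ c := by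
        rw [Real.rpow_mul (B.pos n).le]
        exact Real.rpow_le_rpow (hdp _).le hrlo hc0
      calc B.d n ^ ((u j : ℝ) * c) = B.d n ^ (((u j : ℝ) + t) * c) * B.d n ^ (-(t * c)) := by
            rw [← Dp76.dpow_add]; congr 1; ring
        _ ≤ r ^ c * B.d n ^ (-(|c| * (t + η))) := by
            refine mul_le_mul h1 (Dp76.dpow_le B n ?_) (hdp _).le (Real.rpow_nonneg hr0.le _)
            rw [abs_of_nonneg hc0]
            have : 0 ≤ c * η := mul_nonneg hc0 (by rw [hη]; linarith)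
            linarith
    · have h1 : B.d n ^ (((u j : ℝ) - t - η) * c) ≤ r ^ c := by
        rw [Real.rpow_mul (B.pos n).le]
        exact Real.rpow_le_rpow_of_nonpos hr0 hrhi hc0.le
      calc B.d n ^ ((u j : ℝ) * c) = B.d n ^ (((u j : ℝ) - t - η) * c) * B.d n ^ ((t + η) * c) := by
            rw [← Dp76.dpow_add]; congr 1; ring
        _ ≤ r ^ c * B.d n ^ (-(|c| * (t + η))) := by
            refine mul_le_mul h1 (Dp76.dpow_le B n ?_) (hdp _).le (Real.rpow_nonneg hr0.le _)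
            rw [abs_of_neg hc0]
            linarith
  refine hsum.trans ?_
  have hHQ : H ^ Qs ≤ B.d n ^ (-(η * Qs)) := by
    calc H ^ Qs ≤ (B.d n ^ (-η)) ^ Qs := Real.rpow_le_rpow hH0.le hHη hQs0
      _ = _ := by rw [← Real.rpow_mul (B.pos n).le]; congr 1; ring
  have hAV : 0 ≤ A n * V := mul_nonneg hAn hV
  have e0 : 3 * H * T = (A n * V) * (3 * H * H ^ Qs * (B.d n ^ ((u j : ℝ) * c) *
      B.d n ^ (-((1 - s) + ε / 4)))) := by
    rw [hT, hV', ← Dp76.dpow_add, show (u j : ℝ) * c + -((1 - s) + ε / 4) =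
      -(g * u j + (1 - s) * (1 - u j) + ε / 4) by rw [hc]; ring]
    ring
  rw [e0, mul_assoc (A n * V)]
  refine mul_le_mul_of_nonneg_left ?_ hAV
  calc 3 * H * H ^ Qs * (B.d n ^ ((u j : ℝ) * c) * B.d n ^ (-((1 - s) + ε / 4)))
      ≤ B.d n ^ (-t) * B.d n ^ (-η) * B.d n ^ (-(η * Qs)) *
        ((r ^ c * B.d n ^ (-(|c| * (t + η)))) * B.d n ^ (-((1 - s) + ε / 4))) := by
        refine mul_le_mul (mul_le_mul (mul_le_mul h3' hHη hH0.le (hdp _).le) hHQ
          (Real.rpow_nonneg hH0.le _) (mul_nonneg (hdp _).le (hdp _).le))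
          (mul_le_mul_of_nonneg_right hrc (hdp _).le) (mul_nonneg (hdp _).le (hdp _).le) ?_
        exact mul_nonneg (mul_nonneg (hdp _).le (hdp _).le) (hdp _).le
    _ = r ^ c * B.d n ^ (-t + (-η + (-(η * Qs) + (-(|c| * (t + η)) + -((1 - s) + ε / 4))))) := by
        rw [Dp76.dpow_add, Dp76.dpow_add, Dp76.dpow_add, Dp76.dpow_add]; ring
    _ ≤ r ^ c * B.d n ^ (-((1 - s) + ε)) := by
        refine mul_le_mul_of_nonneg_left (Dp76.dpow_le B n ?_) (Real.rpow_nonneg hr0.le _)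
        rw [hη]
        have h7 : 0 ≤ Qs * t := mul_nonneg hQs0 ht0.le
        have h8 : 0 ≤ |c| * t := mul_nonneg (abs_nonneg _) ht0.le
        nlinarith

end count

end Crest.Agent.R136.Dmx779
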