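import Crest.Agent.R136.End4a_403
import Crest.Agent.R136.Lq1_196

/-!
# R136 (S0187): END, own closeness uniform in the level (helper403)

* `exists_err` : errors `ε` for every `ε > 0` = one error `e n → 0`.
* `own_near_unif`, `own_near_sub` : own closeness of `PreQ`, uniform in the real level `v ∈ [0,1]`.
* `cellOk_own` : `CellOk` for the dyadic cells of level `lv n` in a zoom window.
* `exists_zcls_cells` : honest class with the own counts for countably many cell levels.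
-/

set_option autoImplicit false
set_option linter.unusedSectionVars false
set_option linter.unusedVariables false

open Filter Topology

namespace Crest.Agent.R136.End403

open Finset Crest.Agent.R138.Ex926 Crest.Agent.R136.Net191 Crest.Agent.R136.Qg926
open Crest.Agent.R136.Lq196
open Crest.Agent.R136.MkA627 (Geo MkA)
open Crest.Agent.R138.Mk163 (zc)
open Crest.Agent.R138.MkRef627 (lc kc)

/-! ### one error -/

theorem sub_of_err (B : Base) {e : ℕ → ℝ} (he : Tendsto e U (𝓝 0)) :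
    B.Sub (fun n => B.d n ^ (-(e n))) := by
  rw [Base.Sub.iff]
  refine ⟨Eventually.of_forall fun n => Real.rpow_pos_of_pos (B.pos n) _, ?_⟩
  refine he.congr fun n => ?_
  have hL := B.L_pos n
  unfold Base.lg
  rw [Real.log_rpow (B.pos n), B.log_d]
  field_simp

/-- errors `ε` for every `ε > 0` = one error `e n → 0` -/
theorem exists_err (B : Base) (P : ℝ → ℕ → Prop)
    (h : ∀ ε : ℝ, 0 < ε → ∀ᶠ n in (U : Filter ℕ), P ε n) :
    ∃ e : ℕ → ℝ, (∀ n, 0 < e n) ∧ B.Sub (fun n => B.d n ^ (-(e n))) ∧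
      ∀ᶠ n in (U : Filter ℕ), P (e n) n := by
  obtain ⟨k, hk, hk2⟩ := exists_diag (fun k n => P (1 / ((k : ℝ) + 1)) n)
    fun k => h _ (by positivity)
  refine ⟨fun n => 1 / ((k n : ℝ) + 1), fun n => by positivity, ?_, ?_⟩
  · exact sub_of_err B (tendsto_one_div_add_atTop_nhds_zero_nat.comp hk)
  · filter_upwards [hk2] with n hn using hn _ le_rfl

theorem sub_le_rpow {B : Base} {S : ℕ → ℝ} (h : B.Sub S) {ε : ℝ} (hε : 0 < ε) :
    ∀ᶠ n in (U : Filter ℕ), 0 < S n ∧ S n ≤ B.d n ^ (-ε) := by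
  filter_upwards [h.ev_le hε] with n hn
  refine ⟨hn.1, ?_⟩
  rw [← B.exp_eq, ← Real.log_le_iff_le_exp hn.1]
  exact hn.2

/-! ### cells -/

theorem zc_eq' {i j : ℕ} (h : i ≤ j) (z : ℝ) : zc i z = zc j z / ((2 ^ (j - i) : ℕ) : ℤ) := by
  unfold zc
  rw [← Int.floor_div_natCast]
  congr 1
  push_cast
  have e : (2 : ℝ) ^ j = 2 ^ i * 2 ^ (j - i) := by rw [← pow_add, Nat.add_sub_cancel' h]
  rw [e]
  field_simp

theorem zc_nest' {i j : ℕ} (h : i ≤ j) {z z' : ℝ} (hz : zc j z = zc j z') :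
    zc i z = zc i z' := by
  rw [zc_eq' h, zc_eq' h, hz]

/-! ### own closeness -/

section

variable {m : ℕ} {σ κ : Type*} {B : Base} {I : ℕ → Finset (ℕ × ℝ)} {G : Geo σ κ}
  {lev : ℕ → ℚ → ℕ} {A : ℕ → ℝ} {g s : ℝ} {τ : κ → ℝ → ℝ} {f : ℕ → ℚ → ℕ → ℤ → ℕ}
  {b : ℕ → ℚ → ℕ → σ} {vm : ℕ → ℚ → ℝ} {w : κ → ℕ → ℚ → ℝ}
  {co : ∀ n : ℕ, ℕ × ℝ → ℕ × ℝ → Fin m → ℝ} {M : Mons m} {C R : ℝ} {kz : Fin m} {w0 : ℝ}
  {N0 : ℕ → ℝ} {PD : Set (Fin m → ℝ)} {D : (Fin m → ℝ) → ℝ} {r o : ℝ → Fin m → ℝ} {E : ℝ → ℝ}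
  {T : Fin m → Prop}

/-- the size of the cells of level `u` -/
theorem lev_size (h : PreQ B I G lev A g s τ f b vm w co M C R kz w0 N0 PD D r o E T) {u : ℚ}
    (h0 : 0 ≤ u) (h1 : u ≤ 1) {ε : ℝ} (hε : 0 < ε) : ∀ᶠ n in (U : Filter ℕ),
      (2 : ℝ) ^ lev n u ≤ 2 ^ lev n 0 * B.d n ^ (-((u : ℝ) + ε)) := by
  have h2 := h.mka.lev_lim 0 u le_rfl h0 h1
  have h3 : ((u : ℝ) - ((0 : ℚ) : ℝ)) < u + ε := by push_cast; linarith
  filter_upwards [h2.eventually_lt_const h3] with n hn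
  rw [div_lt_iff₀ (B.L_pos n)] at hn
  have h4 : (2 : ℝ) ^ lev n u = Real.exp ((lev n u : ℝ) * Real.log 2) := by
    rw [mul_comm, Real.exp_mul, Real.exp_log (by norm_num), Real.rpow_natCast]
  have h5 : (2 : ℝ) ^ lev n 0 = Real.exp ((lev n 0 : ℝ) * Real.log 2) := by
    rw [mul_comm, Real.exp_mul, Real.exp_log (by norm_num), Real.rpow_natCast]
  rw [h4, h5, ← B.exp_eq, ← Real.exp_add]
  refine Real.exp_le_exp.2 ?_
  nlinarith

/-- **own closeness, uniform in the real level** -/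
theorem own_near_unif
    (h : PreQ B I G lev A g s τ f b vm w co M C R kz w0 N0 PD D r o E T) {ε : ℝ} (hε : 0 < ε) :
    ∃ δ : ℝ, 0 < δ ∧ ∀ᶠ n in (U : Filter ℕ), ∀ v : ℝ, 0 ≤ v → v ≤ 1 → ∀ l : ℕ,
      (2 : ℝ) ^ lev n 0 * B.d n ^ (-v) ≤ B.d n ^ (-δ) * 2 ^ l →
      ∀ x ∈ I n, ∀ y ∈ I n, lc l y = lc l x → ∀ k, |co n x y k| ≤ B.d n ^ (o v k - ε) := by
  obtain ⟨Cr, hCr⟩ := h.rlip
  obtain ⟨N, hN⟩ := exists_nat_gt (max 1 (4 * |Cr| / ε))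
  have hN1 : (1 : ℝ) < N := (le_max_left _ _).trans_lt hN
  have hN2 : 4 * |Cr| / ε < N := (le_max_right _ _).trans_lt hN
  have hNp : (0 : ℝ) < N := by linarith
  have hNn : N ≠ 0 := by
    rintro rfl
    simp at hNp
  refine ⟨1 / (2 * N), by positivity, ?_⟩
  have hgrid : ∀ᶠ n in (U : Filter ℕ), ∀ j ∈ range (N + 1),
      (2 : ℝ) ^ lev n ((j : ℚ) / N) ≤ 2 ^ lev n 0 * B.d n ^ (-((((j : ℚ) / N : ℚ) : ℝ) +
        1 / (2 * N))) ∧
      ∀ x ∈ I n, ∀ y ∈ I n, lc (lev n ((j : ℚ) / N)) y = lc (lev n ((j : ℚ) / N)) x →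
        ∀ k, |co n x y k| ≤ B.d n ^ (o (((j : ℚ) / N : ℚ) : ℝ) k - ε / 2) := by
    rw [Filter.eventually_all_finset]
    intro j hj
    have hj1 : (j : ℚ) / N ≤ 1 := by
      rw [div_le_one (by exact_mod_cast Nat.pos_of_ne_zero hNn)]
      exact_mod_cast Nat.lt_succ_iff.1 (mem_range.1 hj)
    have hj0 : (0 : ℚ) ≤ (j : ℚ) / N := by positivity
    exact (lev_size h hj0 hj1 (by positivity)).and (h.own_near _ hj0 hj1 (ε / 2) (by positivity))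
  filter_upwards [hgrid, h.mka.cell0] with n h1 h2 v hv0 hv1 l hl x hx y hy hxy k
  have hp : ∀ t : ℝ, 0 < B.d n ^ t := fun t => Real.rpow_pos_of_pos (B.pos n) t
  have hxy' : (y.1, zc l y.2) = (x.1, zc l x.2) := hxy
  have hline : y.1 = x.1 := (Prod.mk.inj hxy').1
  have hcell : zc l y.2 = zc l x.2 := (Prod.mk.inj hxy').2
  -- the grid point
  obtain ⟨j, hj, hjv, hjv2, hcl⟩ : ∃ j : ℕ, j ≤ N ∧ (j : ℝ) / N ≤ v ∧ v - (j : ℝ) / N ≤ 2 / N ∧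
      lc (lev n ((j : ℚ) / N)) y = lc (lev n ((j : ℚ) / N)) x := by
    rcases lt_or_ge v (1 / N) with hv | hv
    · refine ⟨0, Nat.zero_le _, by simpa using hv0, ?_, ?_⟩
      · have : (1 : ℝ) / N ≤ 2 / N := by gcongr; norm_num
        simp only [Nat.cast_zero, zero_div, sub_zero]
        linarith
      · have e0 : ((0 : ℕ) : ℚ) / N = 0 := by simp
        rw [e0]
        exact Prod.ext hline (h2 y hy x hx)
    · have hfl : 1 ≤ ⌊v * N⌋₊ := by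
        rw [Nat.one_le_floor_iff]
        rw [div_le_iff₀ hNp] at hv
        exact hv
      have hf1 : (⌊v * N⌋₊ : ℝ) ≤ v * N := Nat.floor_le (by positivity)
      have hf2 : v * N < ⌊v * N⌋₊ + 1 := Nat.lt_floor_add_one _
      have hcast : ((⌊v * N⌋₊ - 1 : ℕ) : ℝ) = (⌊v * N⌋₊ : ℝ) - 1 := by
        rw [Nat.cast_sub hfl, Nat.cast_one]
      have hle : ((⌊v * N⌋₊ - 1 : ℕ) : ℝ) / N ≤ v - 1 / N := by
        rw [hcast, div_le_iff₀ hNp, sub_mul, one_div_mul_cancel hNp.ne']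
        linarith
      have hge : v - 2 / N ≤ ((⌊v * N⌋₊ - 1 : ℕ) : ℝ) / N := by
        rw [hcast, le_div_iff₀ hNp, sub_mul, div_mul_cancel₀ _ hNp.ne']
        linarith
      have hjN : ⌊v * N⌋₊ - 1 ≤ N := by
        have : (⌊v * N⌋₊ : ℝ) ≤ N := hf1.trans (by nlinarith)
        have : ⌊v * N⌋₊ ≤ N := by exact_mod_cast this
        omega
      have hinv : (0 : ℝ) < 1 / N := by positivity
      refine ⟨⌊v * N⌋₊ - 1, hjN, by linarith, by linarith, ?_⟩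
      have h3 := (h1 _ (mem_range.2 (Nat.lt_succ_of_le hjN))).1
      have h4 : (2 : ℝ) ^ lev n (((⌊v * N⌋₊ - 1 : ℕ) : ℚ) / N) ≤ 2 ^ l := by
        refine h3.trans ?_
        have e1 : ((((⌊v * N⌋₊ - 1 : ℕ) : ℚ) / N : ℚ) : ℝ) = ((⌊v * N⌋₊ - 1 : ℕ) : ℝ) / N := by
          push_cast; rfl
        rw [e1]
        have e2 : B.d n ^ (-(((⌊v * N⌋₊ - 1 : ℕ) : ℝ) / N + 1 / (2 * N))) ≤
            B.d n ^ (-v) * B.d n ^ (1 / (2 * (N : ℝ))) := by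
          rw [← Real.rpow_add (B.pos n)]
          refine Real.rpow_le_rpow_of_exponent_ge (B.pos n) (B.lt n).le ?_
          have e3 : (1 : ℝ) / N = 1 / (2 * N) + 1 / (2 * N) := by field_simp; norm_num
          linarith
        calc (2 : ℝ) ^ lev n 0 * B.d n ^ (-(((⌊v * N⌋₊ - 1 : ℕ) : ℝ) / N + 1 / (2 * N)))
            ≤ 2 ^ lev n 0 * (B.d n ^ (-v) * B.d n ^ (1 / (2 * (N : ℝ)))) := by gcongr
          _ = (2 ^ lev n 0 * B.d n ^ (-v)) * B.d n ^ (1 / (2 * (N : ℝ))) := by ring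
          _ ≤ (B.d n ^ (-(1 / (2 * (N : ℝ)))) * 2 ^ l) * B.d n ^ (1 / (2 * (N : ℝ))) :=
              mul_le_mul_of_nonneg_right hl (hp _).le
          _ = (B.d n ^ (-(1 / (2 * (N : ℝ)))) * B.d n ^ (1 / (2 * (N : ℝ)))) * 2 ^ l := by ring
          _ = 2 ^ l := by
              rw [← Real.rpow_add (B.pos n), neg_add_cancel, Real.rpow_zero, one_mul]
      have h5 : lev n (((⌊v * N⌋₊ - 1 : ℕ) : ℚ) / N) ≤ l :=
        (pow_le_pow_iff_right₀ (by norm_num : (1 : ℝ) < 2)).1 h4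
      exact Prod.ext hline (zc_nest' h5 hcell)
  have h3 := (h1 j (mem_range.2 (Nat.lt_succ_of_le hj))).2 x hx y hy hcl k
  have e1 : ((((j : ℚ) / N : ℚ)) : ℝ) = (j : ℝ) / N := by push_cast; rfl
  rw [e1] at h3
  refine h3.trans (Real.rpow_le_rpow_of_exponent_ge (B.pos n) (B.lt n).le ?_)
  have h4 := ((hCr ((j : ℝ) / N) v (by positivity) hjv hv1).1 k).2
  have h5 : Cr * (v - (j : ℝ) / N) ≤ ε / 2 := by
    have h6 : Cr * (v - (j : ℝ) / N) ≤ |Cr| * (2 / N) :=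
      mul_le_mul (le_abs_self _) hjv2 (by linarith) (abs_nonneg _)
    rw [div_lt_iff₀ hε] at hN2
    have h7 : |Cr| * (2 / N) ≤ ε / 2 := by
      rw [mul_div_assoc', div_le_div_iff₀ hNp (by norm_num)]
      linarith
    linarith
  have h6 := (abs_le.1 h4).2
  linarith

/-- own closeness, cell sizes up to `S n`, distances up to `S' n` -/
def OwnNearS (B : Base) (I : ℕ → Finset (ℕ × ℝ)) (lev : ℕ → ℚ → ℕ)
    (co : ∀ n : ℕ, ℕ × ℝ → ℕ × ℝ → Fin m → ℝ) (o : ℝ → Fin m → ℝ) (S S' : ℕ → ℝ) : Prop :=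
  ∀ᶠ n in (U : Filter ℕ), ∀ v : ℝ, 0 ≤ v → v ≤ 1 → ∀ l : ℕ,
    (2 : ℝ) ^ lev n 0 * B.d n ^ (-v) ≤ S n * 2 ^ l →
    ∀ x ∈ I n, ∀ y ∈ I n, lc l y = lc l x → ∀ k, |co n x y k| ≤ S' n * B.d n ^ (o v k)

/-- **own closeness with one sub-polynomial constant** -/
theorem own_near_sub
    (h : PreQ B I G lev A g s τ f b vm w co M C R kz w0 N0 PD D r o E T) {S : ℕ → ℝ}
    (hS : B.Sub S) : ∃ S' : ℕ → ℝ, B.Sub S' ∧ OwnNearS B I lev co o S S' := by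
  obtain ⟨e, he, h1, h2⟩ := exists_err B (fun ε n => ∀ v : ℝ, 0 ≤ v → v ≤ 1 → ∀ l : ℕ,
      (2 : ℝ) ^ lev n 0 * B.d n ^ (-v) ≤ S n * 2 ^ l →
      ∀ x ∈ I n, ∀ y ∈ I n, lc l y = lc l x → ∀ k, |co n x y k| ≤ B.d n ^ (o v k - ε)) (by
    intro ε hε
    obtain ⟨δ, hδ, h3⟩ := own_near_unif h hε
    filter_upwards [h3, sub_le_rpow hS hδ] with n h4 h5 v hv0 hv1 l hl
    exact h4 v hv0 hv1 l (hl.trans (mul_le_mul_of_nonneg_right h5.2 (by positivity))))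
  refine ⟨_, h1, ?_⟩
  filter_upwards [h2] with n h3 v hv0 hv1 l hl x hx y hy hxy k
  refine (h3 v hv0 hv1 l hl x hx y hy hxy k).trans (le_of_eq ?_)
  rw [← Real.rpow_add (B.pos n)]; congr 1; ring

end

/-! ### windows -/

section

variable {m : ℕ} {σ κ : Type*} {B : Base} {I : ℕ → Finset (ℕ × ℝ)} {G : Geo σ κ}
  {lev : ℕ → ℚ → ℕ} {A : ℕ → ℝ} {g s : ℝ} {τ : κ → ℝ → ℝ} {f : ℕ → ℚ → ℕ → ℤ → ℕ}
  {b : ℕ → ℚ → ℕ → σ} {vm : ℕ → ℚ → ℝ} {wd : κ → ℕ → ℚ → ℝ}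
  {co : ∀ n : ℕ, ℕ × ℝ → ℕ × ℝ → Fin m → ℝ} {M : Mons m} {C R : ℝ} {kz : Fin m} {w0 : ℝ}
  {N0 : ℕ → ℝ} {PD : Set (Fin m → ℝ)} {DD : (Fin m → ℝ) → ℝ} {r o : ℝ → Fin m → ℝ} {EE : ℝ → ℝ}
  {T : Fin m → Prop}
  {B' : Base} {J : ℕ → Finset (ℕ × ℝ)} {X : ℕ → Fin m → ℝ} {w : ℕ → ℝ}
  {D : Set (Fin m → ℝ)} {T1 : ℕ → ℝ} {lam : (Fin m → ℝ) → ℝ}

/-- the cells of level `lv n` are the cells of window exponent `c kz`, and `c` is coarser than the
own closeness of these cells -/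
structure CellLev (B B' : Base) (lev : ℕ → ℚ → ℕ) (kz : Fin m) (w0 : ℝ) (o : ℝ → Fin m → ℝ)
    (X : ℕ → Fin m → ℝ) (w : ℕ → ℝ) (S : ℕ → ℝ) (c : Fin m → ℝ) (lv : ℕ → ℕ) : Prop where
  /-- the level is in `[0,1]` -/
  rng : ∀ᶠ n in (U : Filter ℕ), 0 ≤ (X n + w n • c) kz - w0 ∧ (X n + w n • c) kz - w0 ≤ 1
  /-- cells not too small -/
  le : ∀ ε : ℝ, 0 < ε → ∀ᶠ n in (U : Filter ℕ), (2 : ℝ) ^ lv n ≤
    B'.d n ^ (-ε) * (2 ^ lev n 0 * B.d n ^ (-((X n + w n • c) kz - w0)))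
  /-- cells not too big -/
  ge : ∀ᶠ n in (U : Filter ℕ),
    2 ^ lev n 0 * B.d n ^ (-((X n + w n • c) kz - w0)) ≤ S n * (2 : ℝ) ^ lv n
  own : ∀ᶠ n in (U : Filter ℕ), ∀ k, (X n + w n • c) k ≤ o ((X n + w n • c) kz - w0) k

/-- **dyadic levels exist**: `2 ^ lv ≤ 2 ^ lev 0 * d ^ (-v) ≤ 2 * 2 ^ lv` -/
theorem exists_lev {o : ℝ → Fin m → ℝ} {c : Fin m → ℝ}
    (hrng : ∀ᶠ n in (U : Filter ℕ), 0 ≤ (X n + w n • c) kz - w0 ∧ (X n + w n • c) kz - w0 ≤ 1)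
    (hown : ∀ᶠ n in (U : Filter ℕ), ∀ k, (X n + w n • c) k ≤ o ((X n + w n • c) kz - w0) k) :
    ∃ lv : ℕ → ℕ, CellLev B B' lev kz w0 o X w (fun _ => 2) c lv ∧
      (∀ n, lv n = lev n 0 + ⌊((X n + w n • c) kz - w0) * B.L n / Real.log 2⌋₊) ∧
      ∀ᶠ n in (U : Filter ℕ),
        (2 : ℝ) ^ lv n ≤ 2 ^ lev n 0 * B.d n ^ (-((X n + w n • c) kz - w0)) := by
  have hl2 : 0 < Real.log 2 := Real.log_pos (by norm_num)
  have key : ∀ n, 0 ≤ (X n + w n • c) kz - w0 →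
      (2 : ℝ) ^ (lev n 0 + ⌊((X n + w n • c) kz - w0) * B.L n / Real.log 2⌋₊) ≤
        2 ^ lev n 0 * B.d n ^ (-((X n + w n • c) kz - w0)) ∧
      2 ^ lev n 0 * B.d n ^ (-((X n + w n • c) kz - w0)) ≤
        2 * (2 : ℝ) ^ (lev n 0 + ⌊((X n + w n • c) kz - w0) * B.L n / Real.log 2⌋₊) := by
    intro n hv
    have hL := B.L_pos n
    set t : ℝ := ((X n + w n • c) kz - w0) * B.L n with ht
    have ht0 : 0 ≤ t := by positivity
    have hf1 : (⌊t / Real.log 2⌋₊ : ℝ) ≤ t / Real.log 2 := Nat.floor_le (by positivity)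
    have hf2 : t / Real.log 2 < ⌊t / Real.log 2⌋₊ + 1 := Nat.lt_floor_add_one _
    rw [le_div_iff₀ hl2] at hf1
    rw [div_lt_iff₀ hl2] at hf2
    have e1 : (2 : ℝ) ^ ⌊t / Real.log 2⌋₊ = Real.exp ((⌊t / Real.log 2⌋₊ : ℝ) * Real.log 2) := by
      rw [mul_comm, Real.exp_mul, Real.exp_log (by norm_num), Real.rpow_natCast]
    have e2 : B.d n ^ (-((X n + w n • c) kz - w0)) = Real.exp t := by rw [← B.exp_eq]
    rw [pow_add, e1, e2]
    constructor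
    · exact mul_le_mul_of_nonneg_left (Real.exp_le_exp.2 hf1) (by positivity)
    · have e3 : Real.exp t ≤ 2 * Real.exp ((⌊t / Real.log 2⌋₊ : ℝ) * Real.log 2) := by
        have e4 : (2 : ℝ) * Real.exp ((⌊t / Real.log 2⌋₊ : ℝ) * Real.log 2) =
            Real.exp ((⌊t / Real.log 2⌋₊ : ℝ) * Real.log 2 + Real.log 2) := by
          rw [Real.exp_add, Real.exp_log (by norm_num)]; ring
        rw [e4]
        exact Real.exp_le_exp.2 (by linarith)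
      calc (2 : ℝ) ^ lev n 0 * Real.exp t ≤
            2 ^ lev n 0 * (2 * Real.exp ((⌊t / Real.log 2⌋₊ : ℝ) * Real.log 2)) :=
            mul_le_mul_of_nonneg_left e3 (by positivity)
        _ = _ := by ring
  refine ⟨fun n => lev n 0 + ⌊((X n + w n • c) kz - w0) * B.L n / Real.log 2⌋₊,
    { rng := hrng, le := ?_, ge := ?_, own := hown }, fun n => rfl, ?_⟩
  · intro ε hε
    filter_upwards [hrng] with n h1
    refine (key n h1.1).1.trans ?_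
    have h2 : (1 : ℝ) ≤ B'.d n ^ (-ε) :=
      Real.one_le_rpow_of_pos_of_le_one_of_nonpos (B'.pos n) (B'.lt n).le (by linarith)
    exact le_mul_of_one_le_left (mul_nonneg (by positivity)
      (Real.rpow_nonneg (B.pos n).le _)) h2
  · filter_upwards [hrng] with n h1 using (key n h1.1).2
  · filter_upwards [hrng] with n h1 using (key n h1.1).1

/-- **`CellOk` for the dyadic cells.** -/
theorem cellOk_own (hzco : ∀ n, ∀ x ∈ I n, ∀ y ∈ I n,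
      co n x y kz = B.d n ^ w0 * ((y.2 - x.2) * 2 ^ (lev n 0)))
    (hz : ZWin B B' I J co M C X w D T1 lam) {c : Fin m → ℝ} (hc : c ∈ D) {lv : ℕ → ℕ}
    {S S' : ℕ → ℝ} (hnear : OwnNearS B I lev co o S S') (hS' : B'.Sub S')
    (hl : CellLev B B' lev kz w0 o X w S c lv) :
    CellOk B' J (fun _ x => x.1) (fun n => zlab B I co M C X w n c)
      (fun n x => zc (lv n) x.2) := by
  refine cellOk_zc hz (kz := kz) (Gz := fun n => B.d n ^ w0 * 2 ^ lev n 0)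
    (fun n => mul_pos (Real.rpow_pos_of_pos (B.pos n) _) (by positivity))
    (fun n x hx y hy => by rw [hzco n x hx y hy]; ring) hc ?_ ?_
  · intro ε hε
    filter_upwards [hl.le ε hε] with n h1
    have hp : ∀ t : ℝ, 0 < B.d n ^ t := fun t => Real.rpow_pos_of_pos (B.pos n) t
    rw [← hz.d_eq n c kz]
    have e1 : B.d n ^ (X n + w n • c) kz * (B'.d n ^ (-ε) * (2 ^ lev n 0 *
        B.d n ^ (-((X n + w n • c) kz - w0)))) =
        B.d n ^ w0 * 2 ^ lev n 0 * B'.d n ^ (-ε) := by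
      have : B.d n ^ (X n + w n • c) kz * B.d n ^ (-((X n + w n • c) kz - w0)) = B.d n ^ w0 := by
        rw [← Real.rpow_add (B.pos n)]; congr 1; ring
      calc B.d n ^ (X n + w n • c) kz * (B'.d n ^ (-ε) * (2 ^ lev n 0 *
            B.d n ^ (-((X n + w n • c) kz - w0)))) =
          (B.d n ^ (X n + w n • c) kz * B.d n ^ (-((X n + w n • c) kz - w0))) * 2 ^ lev n 0 *
            B'.d n ^ (-ε) := by ring
        _ = _ := by rw [this]
    rw [← e1]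
    exact mul_le_mul_of_nonneg_left h1 (hp _).le
  · intro ε hε
    filter_upwards [hnear, hl.ge, hl.rng, hl.own, hz.sub, sub_le_rpow hS' hε] with
      n h1 h2 h3 h4 h5 h6 x hx y hy hxy hcell k
    have hp : ∀ t : ℝ, 0 < B.d n ^ t := fun t => Real.rpow_pos_of_pos (B.pos n) t
    have h7 := h1 _ h3.1 h3.2 (lv n) h2 x (h5 hx) y (h5 hy) (Prod.ext hxy hcell) k
    refine h7.trans ?_
    rw [← hz.d_eq n c k]
    refine mul_le_mul h6.2 ?_ (hp _).le (Real.rpow_nonneg (B'.pos n).le _)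
    exact Real.rpow_le_rpow_of_exponent_ge (B.pos n) (B.lt n).le (h4 k)

/-- **honest class with the own counts**, countably many cell levels -/
theorem exists_zcls_cells (hzco : ∀ n, ∀ x ∈ I n, ∀ y ∈ I n,
      co n x y kz = B.d n ^ w0 * ((y.2 - x.2) * 2 ^ (lev n 0)))
    (hz : ZWin B B' I J co M C X w D T1 lam) (i₀ : ℕ → ℕ × ℝ)
    {Gd E : ℕ → Finset (ℕ × ℝ)}
    (hGd : ∀ᶠ n in (U : Filter ℕ), Gd n ⊆ J n) (hE : ∀ᶠ n in (U : Filter ℕ), E n ⊆ Gd n)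
    {S : ℕ → ℝ} (hS : B'.Sub S)
    (hd : ∀ᶠ n in (U : Filter ℕ), ((J n).card : ℝ) ≤ S n * (E n).card)
    {S1 S' : ℕ → ℝ} (hnear : OwnNearS B I lev co o S1 S') (hS' : B'.Sub S')
    {Do : Set (Fin m → ℝ)} {To : ℕ → ℝ} {lo : (Fin m → ℝ) → ℝ}
    (ho : ZProf B' J (fun n c => olb B I co M C n (X n + w n • c)) Do To lo)
    (hTo : ∀ n, 0 < To n) {c : ℕ → Fin m → ℝ} (hc0 : ∀ j, 0 ≤ c j) (hcD : ∀ j, c j ∈ D)
    (hcDo : ∀ j, c j ∈ Do) {lv : ℕ → ℕ → ℕ}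
    (hl : ∀ j, CellLev B B' lev kz w0 o X w S1 (c j) (lv j)) :
    (∀ j, ∀ ε : ℝ, 0 < ε → ∀ᶠ n in (U : Filter ℕ), ∀ x ∈ J n,
      (((J n).filter fun y => y.1 = x.1 ∧ zc (lv j n) y.2 = zc (lv j n) x.2).card : ℝ) ≤
        To n * B'.d n ^ (-(lo (c j) + ε))) ∧
    ∃ s₀ : ℕ → ℕ × ℝ, (∀ᶠ n in (U : Filter ℕ), s₀ n ∈ E n) ∧
      ZCls B B' I J co M C X w D T1 lam
        (fun n => cls (Gd n) (zlab B I co M C X w n 0) (s₀ n)) s₀ ∧
      ∀ j, ∀ ε : ℝ, 0 < ε → ∀ᶠ n in (U : Filter ℕ),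
        (((cls (Gd n) (zlab B I co M C X w n 0) (s₀ n)).image
          fun x => (x.1, zc (lv j n) x.2)).card : ℝ) * (To n * B'.d n ^ (-lo (c j))) ≤
          T1 n * B'.d n ^ (-ε) := by
  have hcell := fun j => cellOk_own hzco hz (hcD j) hnear hS' (hl j)
  refine ⟨fun j ε hε => ?_, exists_zcls_own hz i₀ hGd hE hS hd
    (lin := fun _ (x : ℕ × ℝ) => x.1) ho hTo hc0 hcD hcDo hcell⟩
  filter_upwards [own_up (lin := fun _ (x : ℕ × ℝ) => x.1) ho hTo (hcDo j) (hcell j) hε] with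
    n h1 x hx
  refine le_trans (le_of_eq ?_) (h1 x hx)
  congr 2
  ext y
  simp only [mem_filter, mem_cls, Prod.mk.injEq]

end

end Crest.Agent.R136.End403
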