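import Crest.Agent.R136.Lq3_196
import Crest.Agent.R138.L15B_196

/-!
# R136, leaf L15 of `ℝ⁴` (helper196), part 4: sampling

* `RawQ`, `raw_of` : the sample of polynomial cardinality.
-/

set_option autoImplicit false
set_option linter.unusedVariables false
set_option linter.unusedSectionVars false

open Finset Filter Topology

namespace Crest.Agent.R136.Lq196

open Crest.Agent.R138.Ex926
open Crest.Agent.R138.Mk163 (zc zl rho alive)
open Crest.Agent.R138.MkRef627 (lc kc own_one)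
open Crest.Agent.R138.Dp76 (dpow_pos dpow_add dpow_le)
open Crest.Agent.R136.MkA627
open Crest.Agent.R136.Net191

variable {m : ℕ}

open Classical in
/-- the sample -/
structure RawQ (B : Base) (I0 I : ℕ → Finset (ℕ × ℝ)) (lev : ℕ → ℚ → ℕ)
    (f : ℕ → ℚ → ℕ → ℤ → ℕ)
    (co : ∀ n : ℕ, ℕ × ℝ → ℕ × ℝ → Fin m → ℝ) (M : Mons m) (C R s : ℝ)
    (PD : Set (Fin m → ℝ)) (D : (Fin m → ℝ) → ℝ) (E : ℝ → ℝ) (c₀ : ℝ) : Prop where
  ne : ∀ᶠ n in (U : Filter ℕ), (I n).Nonempty
  sub : ∀ n, I n ⊆ I0 n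
  card : ∃ c : ℝ, 0 ≤ c ∧ ∀ᶠ n in (U : Filter ℕ), ((I n).card : ℝ) ≤ B.d n ^ (-c)
  own : ∀ u : ℚ, 0 ≤ u → u ≤ 1 → ∀ ε : ℝ, 0 < ε → ∀ᶠ n in (U : Filter ℕ),
    (((I n).image (lc (lev n u))).card : ℝ) ≤ (I n).card * B.d n ^ ((1 - s) * (1 - u) - ε)
  dmax : ∀ p ∈ PD, ∀ ε : ℝ, 0 < ε → ∀ᶠ n in (U : Filter ℕ), ∀ x ∈ I n,
    (((I n).filter fun y => nlab B I0 co M C n p y = nlab B I0 co M C n p x).card : ℝ) ≤
      B.d n ^ (-(c₀ + D p + ε))
  recd : ∀ u : ℚ, 0 ≤ u → u ≤ 1 → ∀ ε : ℝ, 0 < ε → ∀ᶠ n in (U : Filter ℕ),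
    (((I n).image (kc (lev n u) (f n u))).card : ℝ) ≤ (I n).card * B.d n ^ (c₀ + E u - ε)
  sat : ∃ K : ℕ → ℕ,
    (∀ᶠ n in (U : Filter ℕ), ∀ F : Finset (ℕ × ℝ), F ⊆ I n → ∀ F' : Finset (ℕ × ℝ), F' ⊆ I0 n →
      (∀ i ∈ F, ∀ j ∈ I0 n, nlab B I0 co M C n (fun _ => R) j = nlab B I0 co M C n (fun _ => R) i →
        j ∈ F') → K n * F.card ≤ 16 * F'.card) ∧
    (∀ ε : ℝ, 0 < ε → ∀ᶠ n in (U : Filter ℕ),
      B.d n ^ ε * ((I0 n).card : ℝ) ≤ K n * (I n).card)

/-- **the sample is uniform**: every part `F` of the sample is at most the `1/K`-part of the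
saturated set of `F` in the family (saturated for the finest labels and the finest cells); `K` in
terms of `N0` and `c₀` -/
def CombQ (B : Base) (I0 I : ℕ → Finset (ℕ × ℝ)) (lev : ℕ → ℚ → ℕ)
    (co : ∀ n : ℕ, ℕ × ℝ → ℕ × ℝ → Fin m → ℝ) (M : Mons m) (C R : ℝ) (N0 : ℕ → ℝ) (c₀ : ℝ) :
    Prop :=
  ∃ K : ℕ → ℕ,
    (∀ ε : ℝ, 0 < ε → ∀ᶠ n in (U : Filter ℕ), 0 < K n ∧
      N0 n ≤ K n * B.d n ^ (-(c₀ + ε)) ∧ K n * B.d n ^ (-(c₀ - ε)) ≤ N0 n) ∧
    (∀ᶠ n in (U : Filter ℕ), ∀ F : Finset (ℕ × ℝ), F ⊆ I n → ∀ F' : Finset (ℕ × ℝ), F' ⊆ I0 n →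
      (∀ i ∈ F, ∀ j ∈ I0 n, nlab B I0 co M C n (fun _ => R) j = nlab B I0 co M C n (fun _ => R) i →
        zc (lev n 1) j.2 = zc (lev n 1) i.2 → j ∈ F') → K n * F.card ≤ 16 * F'.card) ∧
    (∀ ε : ℝ, 0 < ε → ∀ᶠ n in (U : Filter ℕ),
      B.d n ^ ε * ((I0 n).card : ℝ) ≤ K n * (I n).card)

/-- a dense part of the sample is uniform -/
theorem CombQ.mono {B : Base} {I0 I I' : ℕ → Finset (ℕ × ℝ)} {lev : ℕ → ℚ → ℕ}
    {co : ∀ n : ℕ, ℕ × ℝ → ℕ × ℝ → Fin m → ℝ} {M : Mons m} {C R : ℝ} {N0 : ℕ → ℝ} {c₀ : ℝ}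
    (h : CombQ B I0 I lev co M C R N0 c₀) (hsub : ∀ n, I' n ⊆ I n)
    (hd : ∀ ε : ℝ, 0 < ε → ∀ᶠ n in (U : Filter ℕ),
      B.d n ^ ε * ((I n).card : ℝ) ≤ (I' n).card) : CombQ B I0 I' lev co M C R N0 c₀ := by
  obtain ⟨K, h1, h2, h3⟩ := h
  refine ⟨K, h1, ?_, fun ε hε => ?_⟩
  · filter_upwards [h2] with n hn F hF F' hF' hFF
    exact hn F (hF.trans (hsub n)) F' hF' hFF
  · have hε2 : 0 < ε / 2 := by positivity
    filter_upwards [h3 _ hε2, hd _ hε2] with n a1 a2
    have e1 : B.d n ^ ε = B.d n ^ (ε / 2) * B.d n ^ (ε / 2) := by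
      rw [← dpow_add]; congr 1; ring
    have hK : (0 : ℝ) ≤ K n := Nat.cast_nonneg _
    calc B.d n ^ ε * ((I0 n).card : ℝ) = B.d n ^ (ε / 2) * (B.d n ^ (ε / 2) * (I0 n).card) := by
          rw [e1, mul_assoc]
      _ ≤ B.d n ^ (ε / 2) * (K n * (I n).card) :=
          mul_le_mul_of_nonneg_left a1 (dpow_pos B n _).le
      _ = K n * (B.d n ^ (ε / 2) * (I n).card) := by ring
      _ ≤ K n * (I' n).card := mul_le_mul_of_nonneg_left a2 hK

section mk

variable {σ κ : Type*} {B : Base} {I : ℕ → Finset (ℕ × ℝ)} {G : Geo σ κ} {lev : ℕ → ℚ → ℕ}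
    {A : ℕ → ℝ} {g s : ℝ} {τ : κ → ℝ → ℝ} {f : ℕ → ℚ → ℕ → ℤ → ℕ} {b : ℕ → ℚ → ℕ → σ}
    {vm : ℕ → ℚ → ℝ} {w : κ → ℕ → ℚ → ℝ}
    {co : ∀ n : ℕ, ℕ × ℝ → ℕ × ℝ → Fin m → ℝ} {M : Mons m} {C R : ℝ} {kz : Fin m} {w0 : ℝ}
    {N0 : ℕ → ℝ} {PD : Set (Fin m → ℝ)} {D : (Fin m → ℝ) → ℝ} {r o : ℝ → Fin m → ℝ} {E : ℝ → ℝ}
    {T : Fin m → Prop}

/-- size of the marked classes of level `u` -/
noncomputable def Hq (B : Base) (A : ℕ → ℝ) (g s : ℝ) (vm : ℕ → ℚ → ℝ) (u : ℚ) (n : ℕ) : ℝ :=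
  ampA B A (fun v => g * v) n u * vm n u * B.d n ^ (-((1 - s) * (1 - u)))

theorem Hq_pos (h : MkA B I G lev A (fun v => g * v) (fun v => s * v) τ f b vm w) {u : ℚ}
    (hu0 : 0 ≤ u) (hu1 : u ≤ 1) : ∀ᶠ n in (U : Filter ℕ), 0 < Hq B A g s vm u n := by
  filter_upwards [h.vpos u hu0 hu1] with n hn
  unfold Hq ampA
  have h1 := h.Apos n
  have h2 := dpow_pos B n (-(g * u))
  have h3 := dpow_pos B n (-((1 - s) * (1 - (u : ℝ))))
  positivity

set_option maxHeartbeats 800000 in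
open Classical in
theorem raw_of (h : PreQ B I G lev A g s τ f b vm w co M C R kz w0 N0 PD D r o E T)
    (hQ : ∀ n, ∀ x ∈ I n, ∀ y ∈ I n, Near (co n) (B.d n) 0 (cK0 M C) x y) :
    ∃ (I3 : ℕ → Finset (ℕ × ℝ)) (c₀ : ℝ), RawQ B I I3 lev f co M C R s PD D E c₀ ∧
      CombQ B I I3 lev co M C R N0 c₀ := by
  have hR := h.R0
  have hC := h.C0
  have hK0 : 1 ≤ cK0 M C := cK0_one hC
  have H := h.mka
  have hdp : ∀ n, ∀ t : ℝ, 0 < B.d n ^ t := fun n t => Real.rpow_pos_of_pos (B.pos n) t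
  have hinj : ∀ᶠ n in (U : Filter ℕ), ∀ i ∈ I n, ∀ j ∈ I n,
      (nlab B I co M C n (fun _ => R) i, zc (lev n 1) i.2) =
        (nlab B I co M C n (fun _ => R) j, zc (lev n 1) j.2) → i.1 = j.1 → i = j := by
    filter_upwards [H.one] with n h1 i hi j hj h3 h4
    exact h1 i hi j hj h4 (Prod.mk.inj h3).2
  have hc : ∃ C' : ℝ, ∀ᶠ n in (U : Filter ℕ),
      (((I n).image (fun x => (nlab B I co M C n (fun _ => R) x, zc (lev n 1) x.2))).card : ℝ) ≤
        B.d n ^ (-C') := by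
    refine ⟨m * R + 1 + 2, ?_⟩
    have hcN := cN_pos M hC hK0
    filter_upwards [H.ne, cells_le H zero_le_one le_rfl one_pos,
      B.ev_const_log (Real.log (cN M C (cK0 M C))) one_pos] with n ⟨i0, hi0⟩ h2 h3
    have h4 := card_nlab_le (B := B) h.chart (n := n) (zero_Leg M hR).1 (top_Leg M hR).1
      (fun _ => hR) hK0 hi0
    have h5 : ((I n).image (fun x => (nlab B I co M C n (fun _ => R) x, zc (lev n 1) x.2))) ⊆
        (((I n).filter fun j => Near (co n) (B.d n) 0 (cK0 M C) i0 j).image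
          (nlab B I co M C n (fun _ => R))) ×ˢ ((I n).image fun y => zc (lev n 1) y.2) := by
      intro c hc
      obtain ⟨x, hx, rfl⟩ := mem_image.1 hc
      rw [mem_product]
      exact ⟨mem_image_of_mem _ (mem_filter.2 ⟨hx, hQ n i0 hi0 x hx⟩),
        mem_image_of_mem (fun y : ℕ × ℝ => zc (lev n 1) y.2) hx⟩
    have h6 := card_le_card h5
    rw [card_product] at h6
    have h7 : (((I n).image (fun x => (nlab B I co M C n (fun _ => R) x, zc (lev n 1) x.2))).card : ℝ)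
        ≤ ((((I n).filter fun j => Near (co n) (B.d n) 0 (cK0 M C) i0 j).image
          (nlab B I co M C n (fun _ => R))).card : ℝ) *
          (((I n).image fun y => zc (lev n 1) y.2).card : ℝ) := by exact_mod_cast h6
    refine h7.trans ((mul_le_mul h4 h2 (Nat.cast_nonneg _) ?_).trans ?_)
    · exact mul_nonneg hcN.le (hdp n _).le
    · have e1 : cN M C (cK0 M C) ≤ B.d n ^ (-(1 : ℝ)) := by
        rw [← B.exp_eq, ← Real.log_le_iff_le_exp hcN]
        exact h3
      have e2 : ∑ k : Fin m, ((fun _ => R : Fin m → ℝ) k - (0 : Fin m → ℝ) k) = m * R := by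
        simp
      rw [e2, Rat.cast_one]
      calc cN M C (cK0 M C) * B.d n ^ (-(m * R)) * B.d n ^ (-((1 : ℝ) + 1))
          ≤ B.d n ^ (-(1 : ℝ)) * B.d n ^ (-(m * R)) * B.d n ^ (-((1 : ℝ) + 1)) := by
            refine mul_le_mul_of_nonneg_right ?_ (hdp n _).le
            exact mul_le_mul_of_nonneg_right e1 (hdp n _).le
        _ = B.d n ^ (-(m * R + 1 + 2)) := by
            rw [← dpow_add, ← dpow_add]; congr 1; ring
  obtain ⟨K, I3, hK, hsub, hev, ⟨C3, hC3, hcard⟩, hi, hii, hiii, hiv⟩ :=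
    Crest.Agent.R138.Comb628.comb B (ι := fun _ => ℕ × ℝ) (κ := fun _ => (ℕ × ℝ) × ℤ) I I
      (fun n => Subset.rfl) H.ne H.card (fun _ y => y.1)
      (fun n x => (nlab B I co M C n (fun _ => R) x, zc (lev n 1) x.2)) hinj
      (by obtain ⟨C', hC'⟩ := hc
          refine ⟨C', ?_⟩
          filter_upwards [hC'] with n hn
          convert hn)
      (J := {u : ℚ // 0 ≤ u ∧ u ≤ 1}) (J' := {u : ℚ // 0 ≤ u ∧ u ≤ 1})
      (β := fun _ _ => ℕ × ℤ) (γ := fun _ _ => ℕ × ℤ)
      (fun u n x => lc (lev n u) x) (fun u => (1 - s) * (1 - (u : ℚ)))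
      (fun u n i _ j _ h => (Prod.mk.inj h).1)
      (fun u ε hε => by
        filter_upwards [fibq H u.2.1 u.2.2 hε] with n hn x hx
        have := (hn x hx).1
        convert this)
      (fun u n x => kc (lev n u) (f n u) x)
      (fun u n => if 0 < Hq B A g s vm u n then Hq B A g s vm u n else 1)
      (fun u n => by split_ifs with h; exacts [h, one_pos])
      (fun u ε hε => by
        filter_upwards [kc_lower H u.2.1 u.2.2 hε, Hq_pos H u.2.1 u.2.2]
          with n hn h2 x hx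
        rw [if_pos h2]
        have := hn x hx
        unfold Hq
        convert this)
  have hKp : ∀ n, (0 : ℝ) < K n := fun n => by exact_mod_cast hK n
  have hhR : 1 ≤ triC M C (cK0 M C) := hK0.trans (triC_ge hC hK0)
  -- the count of one box
  have hbox : ∀ p ∈ PD, ∀ ε : ℝ, 0 < ε → ∀ᶠ n in (U : Filter ℕ), ∀ x ∈ I3 n,
      (((I3 n).filter fun y => nlab B I co M C n p y = nlab B I co M C n p x).card : ℝ) ≤
        16 * (N0 n / K n) * B.d n ^ (-(D p + ε)) := by
    intro p hp ε hε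
    have hpl := h.PDleg hp
    filter_upwards [hiii, h.gD p hp _ hhR ε hε] with n a1 a2 x hx
    have a3 := a2 x (hsub n hx)
    have a4 := a1 ((I3 n).filter fun y => nlab B I co M C n p y = nlab B I co M C n p x)
      (filter_subset _ _)
      ((I n).filter fun y => Near (co n) (B.d n) p (triC M C (cK0 M C)) x y) (filter_subset _ _)
      (fun i hi j hj hc => by
        obtain ⟨hi1, hi2⟩ := mem_filter.1 hi
        rw [mem_filter]
        refine ⟨hj, ?_⟩
        have e1 := near_of_nlab h.chart hpl.1 (hsub n hx) (hsub n hi1) hi2.symm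
        have e2 := near_of_nlab h.chart (top_Leg M hR).1 (hsub n hi1) hj (Prod.mk.inj hc).1.symm
        have e3 := e2.anti (B.pos n) (B.lt n).le (by linarith) (p := p) hpl.2
        exact (h.chart n).tri hpl.1 (B.pos n) (B.lt n).le hK0 (hsub n hx) (hsub n hi1) hj e1 e3)
    have a5 : (K n : ℝ) * (((I3 n).filter fun y => nlab B I co M C n p y =
        nlab B I co M C n p x).card : ℝ) ≤ 16 * (N0 n * B.d n ^ (-(D p + ε))) := by
      have a4' : (K n : ℝ) * (((I3 n).filter fun y => nlab B I co M C n p y =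
        nlab B I co M C n p x).card : ℝ) ≤ 16 * (((I n).filter fun y =>
          Near (co n) (B.d n) p (triC M C (cK0 M C)) x y).card : ℝ) := by exact_mod_cast a4
      exact a4'.trans (mul_le_mul_of_nonneg_left a3 (by norm_num))
    have hKn := hKp n
    rw [← mul_le_mul_iff_right₀ hKn]
    refine a5.trans (le_of_eq ?_)
    field_simp
  -- N0 / K is polynomially bounded
  have hZpos : ∀ᶠ n in (U : Filter ℕ), 0 < N0 n / K n := by
    filter_upwards [h.N0pos] with n hn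
    exact div_pos hn (hKp n)
  obtain ⟨p0, hp0⟩ := h.PDne
  have hZ : B.PB (fun n => N0 n / K n) := by
    have hlow : ∀ᶠ n in (U : Filter ℕ), B.d n ^ (D p0 + 2) ≤ N0 n / K n := by
      filter_upwards [hbox p0 hp0 1 one_pos, hev, B.ev_const_log (Real.log 16) one_pos, hZpos]
        with n a1 ⟨⟨i, hi⟩, _⟩ a3 a0
      have a4 := a1 i hi
      have a5 : (1 : ℝ) ≤ (((I3 n).filter fun y => nlab B I co M C n p0 y =
          nlab B I co M C n p0 i).card : ℝ) := by
        have : 0 < ((I3 n).filter fun y => nlab B I co M C n p0 y =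
          nlab B I co M C n p0 i).card := card_pos.2 ⟨i, mem_filter.2 ⟨hi, rfl⟩⟩
        exact_mod_cast this
      have a6 : (16 : ℝ) ≤ B.d n ^ (-(1 : ℝ)) := by
        rw [← B.exp_eq, ← Real.log_le_iff_le_exp (by norm_num)]
        exact a3
      have a8 : 16 * (N0 n / K n) * B.d n ^ (-(D p0 + 1)) ≤
          B.d n ^ (-(1 : ℝ)) * (N0 n / K n) * B.d n ^ (-(D p0 + 1)) :=
        mul_le_mul_of_nonneg_right (mul_le_mul_of_nonneg_right a6 a0.le) (hdp n _).le
      have a9 : B.d n ^ (-(1 : ℝ)) * (N0 n / K n) * B.d n ^ (-(D p0 + 1)) =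
          (N0 n / K n) * B.d n ^ (-(D p0 + 2)) := by
        rw [mul_comm (B.d n ^ (-(1 : ℝ))), mul_assoc, ← dpow_add]
        congr 2; ring
      have a10 : 1 ≤ (N0 n / K n) * B.d n ^ (-(D p0 + 2)) := by
        linarith
      have hp1 := hdp n (D p0 + 2)
      rw [Real.rpow_neg (B.pos n).le, ← div_eq_mul_inv, le_div_iff₀ hp1, one_mul] at a10
      exact a10
    have hupp : ∀ᶠ n in (U : Filter ℕ), N0 n / K n ≤ B.d n ^ (-(C3 + 2 - E ((0 : ℚ) : ℝ))) := by
      have e0 := Crest.Agent.R138.L15.ev_bounds (B := B) (X := fun n => Hq B A g s vm 0 n / N0 n)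
        (h.gH 0 le_rfl zero_le_one) (by
        filter_upwards [Hq_pos H le_rfl zero_le_one, h.N0pos] with n a1 a2
        exact div_pos a1 a2) one_pos
      filter_upwards [e0, hii ⟨0, le_rfl, zero_le_one⟩ 1 one_pos, hev, hcard,
        Hq_pos H le_rfl zero_le_one, h.N0pos] with n a1 a2 ⟨⟨i, hi⟩, _⟩ a4 a5 a6
      have a7 : (1 : ℝ) ≤ (((I3 n).image fun x => kc (lev n 0) (f n 0) x).card : ℝ) := by
        have : 0 < ((I3 n).image fun x => kc (lev n 0) (f n 0) x).card :=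
          card_pos.2 ⟨_, mem_image_of_mem _ hi⟩
        exact_mod_cast this
      have hKn := hKp n
      have a2' : (((I3 n).image fun x => kc (lev n 0) (f n 0) x).card : ℝ) ≤
          (I3 n).card * (K n / Hq B A g s vm 0 n) * B.d n ^ (-(1 : ℝ)) := by
        have := a2
        rw [if_pos a5] at this
        convert this
      have a8 := a7.trans a2'
      have a9 : Hq B A g s vm 0 n ≤ B.d n ^ (-C3) * K n * B.d n ^ (-(1 : ℝ)) := by
        have h9 : (I3 n).card * (K n / Hq B A g s vm 0 n) * B.d n ^ (-(1 : ℝ)) =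
            ((I3 n).card * K n * B.d n ^ (-(1 : ℝ))) / Hq B A g s vm 0 n := by
          field_simp
        rw [h9, le_div_iff₀ a5, one_mul] at a8
        refine a8.trans ?_
        refine mul_le_mul_of_nonneg_right ?_ (hdp n _).le
        exact mul_le_mul_of_nonneg_right a4 hKn.le
      have a10 : N0 n ≤ Hq B A g s vm 0 n * B.d n ^ (E ((0 : ℚ) : ℝ) - 1) := by
        have h10 := a1.1
        rw [le_div_iff₀ a6, Real.rpow_neg (B.pos n).le, inv_mul_le_iff₀ (hdp n _)] at h10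
        linarith
      rw [div_le_iff₀ hKn]
      refine a10.trans ((mul_le_mul_of_nonneg_right a9 (hdp n _).le).trans (le_of_eq ?_))
      have : B.d n ^ (-(C3 + 2 - E ((0 : ℚ) : ℝ))) =
          B.d n ^ (-C3) * B.d n ^ (-(1 : ℝ)) * B.d n ^ (E ((0 : ℚ) : ℝ) - 1) := by
        rw [← dpow_add, ← dpow_add]
        congr 1; ring
      rw [this]; ring
    refine Base.PB.of_bounds (C := max (D p0 + 2) (C3 + 2 - E ((0 : ℚ) : ℝ))) ?_ ?_
    · filter_upwards [hlow] with n hn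
      exact le_trans (dpow_le B n (le_max_left _ _)) hn
    · filter_upwards [hupp] with n hn
      exact hn.trans (dpow_le B n (neg_le_neg (le_max_right _ _)))
  set c₀ : ℝ := B.ex (fun n => N0 n / K n) with hc₀
  have hZb : ∀ ε : ℝ, 0 < ε → ∀ᶠ n in (U : Filter ℕ),
      B.d n ^ (-(c₀ - ε)) ≤ N0 n / K n ∧ N0 n / K n ≤ B.d n ^ (-(c₀ + ε)) := fun ε hε =>
    Crest.Agent.R138.L15.ev_bounds hZ.tendsto hZpos hε
  refine ⟨I3, c₀, ?_, ⟨K, fun ε hε => ?_, ?_, hiv⟩⟩
  rotate_left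
  · filter_upwards [hZb ε hε] with n hn
    refine ⟨hK n, ?_, ?_⟩
    · have := hn.2
      rw [div_le_iff₀ (hKp n)] at this
      linarith
    · have := hn.1
      rw [le_div_iff₀ (hKp n)] at this
      linarith
  · filter_upwards [hiii] with n hn F hF F' hF' hFF
    exact hn F hF F' hF' fun i hi j hj hij =>
      hFF i hi j hj (Prod.mk.inj hij).1 (Prod.mk.inj hij).2
  exact
    { ne := hev.mono fun n hn => hn.1
      sub := hsub
      card := ⟨C3, hC3, hcard⟩
      own := by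
        intro u hu0 hu1 ε hε
        filter_upwards [hi ⟨u, hu0, hu1⟩ ε hε] with n hn
        convert hn
      dmax := by
        intro p hp ε hε
        have hε3 : 0 < ε / 3 := by positivity
        filter_upwards [hbox p hp _ hε3, hZb _ hε3, B.ev_const_log (Real.log 16) hε3]
          with n a1 a2 a3 i hi
        have a6 : (16 : ℝ) ≤ B.d n ^ (-(ε / 3)) := by
          rw [← B.exp_eq, ← Real.log_le_iff_le_exp (by norm_num)]
          exact a3
        refine (a1 i hi).trans ?_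
        have hZ0 : 0 ≤ N0 n / K n := (hdp n _).le.trans a2.1
        calc 16 * (N0 n / K n) * B.d n ^ (-(D p + ε / 3))
            ≤ B.d n ^ (-(ε / 3)) * B.d n ^ (-(c₀ + ε / 3)) * B.d n ^ (-(D p + ε / 3)) := by
              refine mul_le_mul_of_nonneg_right ?_ (hdp n _).le
              exact mul_le_mul a6 a2.2 hZ0 (hdp n _).le
          _ = B.d n ^ (-(c₀ + D p + ε)) := by
              rw [← dpow_add, ← dpow_add]
              congr 1; ring
      recd := by
        intro u hu0 hu1 ε hε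
        have hε3 : 0 < ε / 3 := by positivity
        have e0 := Crest.Agent.R138.L15.ev_bounds (B := B) (X := fun n => Hq B A g s vm u n / N0 n)
          (h.gH u hu0 hu1) (by
          filter_upwards [Hq_pos H hu0 hu1, h.N0pos] with n a1 a2
          exact div_pos a1 a2) hε3
        filter_upwards [e0, hii ⟨u, hu0, hu1⟩ _ hε3, Hq_pos H hu0 hu1, h.N0pos, hZb _ hε3]
          with n a1 a2 a5 a6 a7
        have hKn := hKp n
        have a2' : (((I3 n).image (kc (lev n u) (f n u))).card : ℝ) ≤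
            (I3 n).card * (K n / Hq B A g s vm u n) * B.d n ^ (-(ε / 3)) := by
          have := a2
          rw [if_pos a5] at this
          convert this
        refine a2'.trans ?_
        -- `K / H = (K / N0) (N0 / H)`
        have b1 : (K n : ℝ) / N0 n ≤ B.d n ^ (c₀ - ε / 3) := by
          have h1 := a7.1
          rw [Real.rpow_neg (B.pos n).le] at h1
          have h2 := inv_anti₀ (inv_pos.2 (hdp n _)) h1
          rw [inv_inv, inv_div] at h2
          exact h2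
        have b2 : N0 n / Hq B A g s vm u n ≤ B.d n ^ (E u - ε / 3) := by
          have h1 := a1.1
          rw [Real.rpow_neg (B.pos n).le] at h1
          have h2 := inv_anti₀ (inv_pos.2 (hdp n _)) h1
          rw [inv_inv, inv_div] at h2
          exact h2
        have b3 : (K n : ℝ) / Hq B A g s vm u n =
            (K n : ℝ) / N0 n * (N0 n / Hq B A g s vm u n) := by
          field_simp
        have b4 : (K n : ℝ) / Hq B A g s vm u n ≤ B.d n ^ (c₀ - ε / 3) * B.d n ^ (E u - ε / 3) := by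
          rw [b3]
          exact mul_le_mul b1 b2 (div_nonneg a6.le a5.le) (hdp n _).le
        calc ((I3 n).card : ℝ) * (K n / Hq B A g s vm u n) * B.d n ^ (-(ε / 3))
            ≤ (I3 n).card * (B.d n ^ (c₀ - ε / 3) * B.d n ^ (E u - ε / 3)) *
              B.d n ^ (-(ε / 3)) := by
              refine mul_le_mul_of_nonneg_right ?_ (hdp n _).le
              exact mul_le_mul_of_nonneg_left b4 (Nat.cast_nonneg _)
          _ = (I3 n).card * B.d n ^ (c₀ + E u - ε) := by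
              rw [mul_assoc, ← dpow_add, ← dpow_add]
              congr 2; ring
      sat := by
        refine ⟨K, ?_, hiv⟩
        filter_upwards [hiii] with n hn F hF F' hF' hFF
        exact hn F hF F' hF' fun i hi j hj hij => hFF i hi j hj (Prod.mk.inj hij).1 }

end mk

end Crest.Agent.R136.Lq196
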