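import Crest.Agent.R136.DMX1_779
import Crest.Agent.R136.Lq4_196
import Crest.Agent.R136.End4b_403

/-!
# R136: D-max of sheets on the sample (helper779)

`count_s` : a set of incidences of the SAMPLE, in three cells of a natural level `m`, whose
neighbours in the family lie in one sheet per cell: one loss `d^(-e n)`, `e n → 0`, for all levels,
sets and sheets (`w 1 ≤ d^(e n) ρ`).
-/

set_option autoImplicit false
set_option linter.unusedVariables false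
set_option linter.unusedSectionVars false

open Finset Filter Topology

namespace Crest.Agent.R136.Dmx779

open Crest.Agent.R138.Ex926 (Base U)
open Crest.Agent.R138.Mk163 (zc zl rho alive)
open Crest.Agent.R138
open Crest.Agent.R136.MkA627
open Crest.Agent.R136.Sh605
open Crest.Agent.R136.K4
open Crest.Agent.R136.Top484 (geo4)
open Crest.Agent.R136.PqG464 (pow_lev ev_const)
open Crest.Agent.R136.GeoQ186
open Crest.Agent.R136.Net191
open Crest.Agent.R136.Wq638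
open Crest.Agent.R136.Lq196

/-- `y` is a neighbour of a point of `Q` (finest labels, finest cells) -/
def Nbr {m : ℕ} (B : Base) (I : ℕ → Finset (ℕ × ℝ)) (lev : ℕ → ℚ → ℕ)
    (co : ∀ n : ℕ, ℕ × ℝ → ℕ × ℝ → Fin m → ℝ) (M : Mons m) (C R : ℝ) (n : ℕ)
    (Q : Finset (ℕ × ℝ)) (y : ℕ × ℝ) : Prop :=
  ∃ x ∈ Q, nlab B I co M C n (fun _ => R) y = nlab B I co M C n (fun _ => R) x ∧
    zc (lev n 1) y.2 = zc (lev n 1) x.2

section

variable {B : Base} {I I1 : ℕ → Finset (ℕ × ℝ)} {L : ℕ → ℕ → Ln4} {r0 : ℕ → ℝ}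
  {wr cr : Fin 3 → ℕ → ℝ} {q : Fin 3 → ℝ}
  {lev : ℕ → ℚ → ℕ} {A : ℕ → ℝ} {g s : ℝ} {τ : Fin 3 → ℝ → ℝ} {f : ℕ → ℚ → ℕ → ℤ → ℕ}
  {b : ℕ → ℚ → ℕ → Plk4} {vm : ℕ → ℚ → ℝ} {w : Fin 3 → ℕ → ℚ → ℝ}
  {m : ℕ} {co : ∀ n : ℕ, ℕ × ℝ → ℕ × ℝ → Fin m → ℝ} {M : Mons m} {C R c₀ : ℝ}

open Classical in
/-- **count on the sample**, one loss sequence -/
theorem count_s (hM : MkA B I (geo4 L r0 wr cr q) lev A (fun v => g * v) (fun v => s * v) τ f b vm w)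
    (hq : ∀ j, 0 ≤ q j) (hc : CombQ B I I1 lev co M C R (N0Q A vm) c₀)
    (hsub : ∀ n, I1 n ⊆ I n) :
    ∃ e : ℕ → ℝ, (∀ n, 0 < e n) ∧ B.Sub (fun n => B.d n ^ (-(e n))) ∧
    ∀ᶠ n in (U : Filter ℕ), ∀ l : ℕ, lev n 0 ≤ l → l ≤ lev n 1 →
      ∀ (Q : Finset (ℕ × ℝ)) (J0 : ℤ) (V : ℝ), Q ⊆ I1 n → 0 ≤ V →
      (∀ y ∈ Q, zc l y.2 ∈ Finset.Icc (J0 - 1) (J0 + 1)) →
      (∀ J : ℤ, ∃ t : Plk4, ShN t.e t.c t.w t.q t.a (zl l J) (rho l) (r0 n) ∧ 0 ≤ t.a ∧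
        t.w 1 ≤ B.d n ^ (e n) * rho l ∧ (∀ k : Fin 3, wr k n ≤ ![t.a, t.w 1, t.w 2] k ∧
          ![t.a, t.w 1, t.w 2] k ≤ cr k n) ∧ (geo4 L r0 wr cr q).val n l J t ≤ V ∧
        ∀ y ∈ I n, Nbr B I lev co M C R n Q y → zc l y.2 = J →
          InSheet (L n y.1) t.e t.c t.w t.q t.a (zl l J) (rho l)) →
      (Q.card : ℝ) ≤ (V / vm n 0) * (rho l / rho (lev n 0)) ^ ((1 - s) - g) *
        B.d n ^ (-((1 - s) + c₀ + e n)) := by
  obtain ⟨K, hK1, hK2, -⟩ := hc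
  refine End403.exists_err B (fun ε n => ∀ l : ℕ, lev n 0 ≤ l → l ≤ lev n 1 →
      ∀ (Q : Finset (ℕ × ℝ)) (J0 : ℤ) (V : ℝ), Q ⊆ I1 n → 0 ≤ V →
      (∀ y ∈ Q, zc l y.2 ∈ Finset.Icc (J0 - 1) (J0 + 1)) →
      (∀ J : ℤ, ∃ t : Plk4, ShN t.e t.c t.w t.q t.a (zl l J) (rho l) (r0 n) ∧ 0 ≤ t.a ∧
        t.w 1 ≤ B.d n ^ ε * rho l ∧ (∀ k : Fin 3, wr k n ≤ ![t.a, t.w 1, t.w 2] k ∧
          ![t.a, t.w 1, t.w 2] k ≤ cr k n) ∧ (geo4 L r0 wr cr q).val n l J t ≤ V ∧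
        ∀ y ∈ I n, Nbr B I lev co M C R n Q y → zc l y.2 = J →
          InSheet (L n y.1) t.e t.c t.w t.q t.a (zl l J) (rho l)) →
      (Q.card : ℝ) ≤ (V / vm n 0) * (rho l / rho (lev n 0)) ^ ((1 - s) - g) *
        B.d n ^ (-((1 - s) + c₀ + ε))) ?_
  intro ε hε
  have hε3 : 0 < ε / 3 := by positivity
  filter_upwards [count_m hM hq hε hε3, hK1 _ hε3, hK2,
    ev_const B (by norm_num : (0 : ℝ) < 16) hε3, hM.vpos 0 le_rfl zero_le_one] with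
    n h1 hK hcomb h16 hv l hl0 hl1 Q J0 V hQ hV hcell hsh
  have hdp := fun a => Dp76.dpow_pos B n a
  have h16' : (16 : ℝ) ≤ B.d n ^ (-(ε / 3)) := const_le h16
  have hKn : (0 : ℝ) < K n := by exact_mod_cast hK.1
  have hN := hK.2.1
  set F : Finset (ℕ × ℝ) := (I n).filter fun y => Nbr B I lev co M C R n Q y with hF
  have hc1 : (K n : ℝ) * (Q.card : ℝ) ≤ 16 * F.card := by
    have := hcomb Q hQ F (Finset.filter_subset _ _) fun i hi j hj e1 e2 =>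
      Finset.mem_filter.2 ⟨hj, i, hi, e1, e2⟩
    exact_mod_cast this
  have hc2 := h1 l hl0 hl1 F J0 V (Finset.filter_subset _ _) hV (fun y hy => by
      obtain ⟨x, hx, -, e2⟩ := (Finset.mem_filter.1 hy).2
      rw [End403.zc_nest' hl1 e2]
      exact hcell x hx) fun J => by
    obtain ⟨t, t1, t2, t3, tr, t4, t5⟩ := hsh J
    exact ⟨t, t1, t2, t3, tr, t4, fun y hy hyJ => t5 y (Finset.mem_filter.1 hy).1
      (Finset.mem_filter.1 hy).2 hyJ⟩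
  set r : ℝ := (rho l / rho (lev n 0)) ^ ((1 - s) - g) with hr
  have hr0 : 0 ≤ r := Real.rpow_nonneg (div_pos (rho_pos _) (rho_pos _)).le _
  have hfin : (K n : ℝ) * (Q.card : ℝ) ≤ K n * ((V / vm n 0) * r *
      B.d n ^ (-((1 - s) + c₀ + ε))) := by
    calc (K n : ℝ) * (Q.card : ℝ) ≤ 16 * (A n * V * r * B.d n ^ (-((1 - s) + ε / 3))) :=
          hc1.trans (mul_le_mul_of_nonneg_left hc2 (by norm_num))
      _ = 16 * (N0Q A vm n * ((V / vm n 0) * r * B.d n ^ (-((1 - s) + ε / 3)))) := by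
          unfold N0Q
          field_simp
      _ ≤ B.d n ^ (-(ε / 3)) * ((K n * B.d n ^ (-(c₀ + ε / 3))) *
            ((V / vm n 0) * r * B.d n ^ (-((1 - s) + ε / 3)))) := by
          have h0 : 0 ≤ (V / vm n 0) * r * B.d n ^ (-((1 - s) + ε / 3)) :=
            mul_nonneg (mul_nonneg (div_nonneg hV hv.le) hr0) (hdp _).le
          have hN0 : 0 ≤ N0Q A vm n := mul_nonneg (hM.Apos n).le hv.le
          exact mul_le_mul h16' (mul_le_mul_of_nonneg_right hN h0) (mul_nonneg hN0 h0)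
            (hdp _).le
      _ = K n * ((V / vm n 0) * r * (B.d n ^ (-(ε / 3)) * B.d n ^ (-(c₀ + ε / 3)) *
            B.d n ^ (-((1 - s) + ε / 3)))) := by ring
      _ = _ := by
          rw [← Dp76.dpow_add, ← Dp76.dpow_add]
          congr 3; ring
  exact le_of_mul_le_mul_left hfin hKn

end

end Crest.Agent.R136.Dmx779
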