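import Crest.Agent.R136.Geo1_186

/-!
# R136: change of gauge (helper186)

`rg h i` : the incidence `i` of the gauge chart after subtracting the quadratic function
`gau h (z, A, B)` from the heights (and its gradient at the point of `i` from the flags).
`trueLn_rg` : the gauge `g` becomes `g + h`; `mkQ g t z e Fa Fb` : the incidence made of a true line,
a height and a true flag; `coQ_rg` : the relative coordinates after the change of gauge.
-/

set_option autoImplicit false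
set_option linter.unusedVariables false

namespace Crest.Agent.R136.GeoQ186

open Crest.Agent.R136.NetQ186
open Crest.Agent.R136.Sh605

/-- derivative of the gauge in the direction `A` -/
def gA (g : Fin 6 → ℝ) (z a b : ℝ) : ℝ := g 1 * z + 2 * g 3 * a + g 4 * b

/-- derivative of the gauge in the direction `B` -/
def gB (g : Fin 6 → ℝ) (z a b : ℝ) : ℝ := g 2 * z + g 4 * a + 2 * g 5 * b

/-- change of gauge -/
def rg (h : Fin 6 → ℝ) (i : Fq4) : Fq4 where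
  A := i.A
  B := i.B
  ca := i.ca
  cb := i.cb
  y0 := i.y0 - (h 3 * i.A ^ 2 + h 4 * (i.A * i.B) + h 5 * i.B ^ 2)
  y1 := i.y1 - (h 1 * i.A + h 2 * i.B + 2 * h 3 * (i.A * i.ca) +
    h 4 * (i.A * i.cb + i.B * i.ca) + 2 * h 5 * (i.B * i.cb))
  y2 := i.y2 - (h 0 + h 1 * i.ca + h 2 * i.cb + h 3 * i.ca ^ 2 + h 4 * (i.ca * i.cb) +
    h 5 * i.cb ^ 2)
  z := i.z
  e := i.e
  fa := i.fa - gA h i.z (i.pa i.z) (i.pb i.z)
  fb := i.fb - gB h i.z (i.pa i.z) (i.pb i.z)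

theorem rg_pa (h : Fin 6 → ℝ) (i : Fq4) (z : ℝ) : (rg h i).pa z = i.pa z := rfl
theorem rg_pb (h : Fin 6 → ℝ) (i : Fq4) (z : ℝ) : (rg h i).pb z = i.pb z := rfl

theorem rg_py (h : Fin 6 → ℝ) (i : Fq4) (z : ℝ) :
    (rg h i).py z = i.py z - gau h z (i.pa z) (i.pb z) := by
  simp only [rg, Fq4.py, Fq4.pa, Fq4.pb, gau]; ring

theorem rg_vy (h : Fin 6 → ℝ) (i : Fq4) (z : ℝ) :
    (rg h i).vy z = i.vy z - (2 * h 0 * z + h 1 * (i.pa z + z * i.ca) + h 2 * (i.pb z + z * i.cb) +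
      2 * h 3 * (i.pa z * i.ca) + h 4 * (i.pa z * i.cb + i.pb z * i.ca) +
      2 * h 5 * (i.pb z * i.cb)) := by
  simp only [rg, Fq4.vy, Fq4.pa, Fq4.pb]; ring

theorem rg_zero (i : Fq4) : rg 0 i = i := by
  cases i
  simp [rg, gA, gB]

theorem rg_rg (h h' : Fin 6 → ℝ) (i : Fq4) : rg h' (rg h i) = rg (h + h') i := by
  cases i
  simp only [rg, gA, gB, Fq4.pa, Fq4.pb, Pi.add_apply, Fq4.mk.injEq, true_and]
  refine ⟨by ring, by ring, by ring, by ring, by ring⟩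

/-- the same true line -/
theorem trueLn_rg {g h : Fin 6 → ℝ} {i : Fq4} {t : Ln4} (H : TrueLn g i t) :
    TrueLn (g + h) (rg h i) t := by
  intro z
  obtain ⟨h0, h1, h2⟩ := H z
  refine ⟨?_, ?_, ?_⟩
  · rw [h0, rg_py, rg_pa, rg_pb]
    simp only [gau, Pi.add_apply]
    ring
  · rw [h1, rg_pa]
  · rw [h2, rg_pb]

/-- the incidence of the straight chart of a true line (coordinates `(Y, A, B)`), a height and a
true flag -/
def mkT (t : Ln4) (z e Fa Fb : ℝ) : Fq4 where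
  A := t.p 1
  B := t.p 2
  ca := t.v 1
  cb := t.v 2
  y0 := t.p 0
  y1 := t.v 0
  y2 := 0
  z := z
  e := e
  fa := Fa
  fb := Fb

/-- the incidence of the gauge chart of a true line, a height and a true flag -/
def mkQ (g : Fin 6 → ℝ) (t : Ln4) (z e Fa Fb : ℝ) : Fq4 := rg g (mkT t z e Fa Fb)

theorem trueLn_mkT (t : Ln4) (z e Fa Fb : ℝ) : TrueLn 0 (mkT t z e Fa Fb) t := by
  intro s
  simp [mkT, Fq4.py, Fq4.pa, Fq4.pb, Ln4.pos, gau_zero]
  ring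

theorem trueLn_mkQ (g : Fin 6 → ℝ) (t : Ln4) (z e Fa Fb : ℝ) :
    TrueLn g (mkQ g t z e Fa Fb) t := by
  have := trueLn_rg (h := g) (trueLn_mkT t z e Fa Fb)
  rwa [zero_add] at this

theorem mkQ_zero (t : Ln4) (z e Fa Fb : ℝ) : mkQ 0 t z e Fa Fb = mkT t z e Fa Fb := rg_zero _

/-- **relative coordinates after a change of gauge.**  With `x = coQ i j`, `ΔA = x 8`,
`ΔB = x 9 + e x 8`, `ΔCa = x 5`, `ΔCb = x 6 + e x 5`. -/
theorem coQ_rg (h : Fin 6 → ℝ) (i j : Fq4) :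
    coQ (rg h i) (rg h j) 0 = coQ i j 0 ∧
    coQ (rg h i) (rg h j) 1 = coQ i j 1 -
      (h 1 * coQ i j 5 + h 2 * (coQ i j 6 + i.e * coQ i j 5) + h 3 * (coQ i j 5 * (i.ca + j.ca)) +
       h 4 * (j.ca * (coQ i j 6 + i.e * coQ i j 5) + i.cb * coQ i j 5) +
       h 5 * ((coQ i j 6 + i.e * coQ i j 5) * (i.cb + j.cb))) ∧
    coQ (rg h i) (rg h j) 2 = coQ i j 2 ∧
    coQ (rg h i) (rg h j) 3 = coQ i j 3 -
      (gB h j.z (j.pa j.z) (j.pb j.z) - gB h i.z (i.pa i.z) (i.pb i.z)) ∧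
    coQ (rg h i) (rg h j) 4 = coQ i j 4 -
      ((gA h j.z (j.pa j.z) (j.pb j.z) - gA h i.z (i.pa i.z) (i.pb i.z)) +
        i.e * (gB h j.z (j.pa j.z) (j.pb j.z) - gB h i.z (i.pa i.z) (i.pb i.z))) ∧
    coQ (rg h i) (rg h j) 5 = coQ i j 5 ∧
    coQ (rg h i) (rg h j) 6 = coQ i j 6 ∧
    coQ (rg h i) (rg h j) 7 = coQ i j 7 -
      (h 1 * coQ i j 8 + h 2 * (coQ i j 9 + i.e * coQ i j 8) + 2 * h 3 * (coQ i j 8 * j.ca) +
       h 4 * (coQ i j 8 * j.cb + (coQ i j 9 + i.e * coQ i j 8) * j.ca) +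
       2 * h 5 * ((coQ i j 9 + i.e * coQ i j 8) * j.cb)) ∧
    coQ (rg h i) (rg h j) 8 = coQ i j 8 ∧
    coQ (rg h i) (rg h j) 9 = coQ i j 9 ∧
    coQ (rg h i) (rg h j) 10 = coQ i j 10 -
      (h 3 * coQ i j 8 ^ 2 + h 4 * (coQ i j 8 * (coQ i j 9 + i.e * coQ i j 8)) +
       h 5 * (coQ i j 9 + i.e * coQ i j 8) ^ 2) := by
  have hz : ∀ k : Fq4, (rg h k).z = k.z := fun _ => rfl
  have he : ∀ k : Fq4, (rg h k).e = k.e := fun _ => rfl
  have hca : ∀ k : Fq4, (rg h k).ca = k.ca := fun _ => rfl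
  have hcb : ∀ k : Fq4, (rg h k).cb = k.cb := fun _ => rfl
  have hy2 : ∀ k : Fq4, (rg h k).y2 = k.y2 - (h 0 + h 1 * k.ca + h 2 * k.cb + h 3 * k.ca ^ 2 +
    h 4 * (k.ca * k.cb) + h 5 * k.cb ^ 2) := fun _ => rfl
  have hfa : ∀ k : Fq4, (rg h k).fa = k.fa - gA h k.z (k.pa k.z) (k.pb k.z) := fun _ => rfl
  have hfb : ∀ k : Fq4, (rg h k).fb = k.fb - gB h k.z (k.pa k.z) (k.pb k.z) := fun _ => rfl
  simp only [coQ, Matrix.cons_val, rg_pa, rg_pb, rg_py, rg_vy, hz, he, hca, hcb, hy2, hfa, hfb]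
  refine ⟨trivial, ?_, trivial, ?_, ?_, trivial, trivial, ?_, trivial, trivial, ?_⟩
  · ring
  · ring
  · ring
  · simp only [gA, gB]; ring
  · simp only [gau, gA, gB]; ring

/-- the flags of `j` at the point of `j`, from `i` : displacement of the point -/
theorem pt_move (i j : Fq4) :
    j.pa j.z - i.pa i.z = coQ i j 8 + coQ i j 0 * j.ca ∧
    j.pb j.z - i.pb i.z = coQ i j 9 + i.e * coQ i j 8 + coQ i j 0 * j.cb := by
  simp only [coQ, Fq4.pa, Fq4.pb, Matrix.cons_val]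
  constructor <;> ring

theorem gA_move (h : Fin 6 → ℝ) (i j : Fq4) :
    gA h j.z (j.pa j.z) (j.pb j.z) - gA h i.z (i.pa i.z) (i.pb i.z) =
      h 1 * coQ i j 0 + 2 * h 3 * (coQ i j 8 + coQ i j 0 * j.ca) +
        h 4 * (coQ i j 9 + i.e * coQ i j 8 + coQ i j 0 * j.cb) := by
  obtain ⟨h1, h2⟩ := pt_move i j
  rw [← h1, ← h2]
  simp only [gA, coQ, Matrix.cons_val]
  ring

theorem gB_move (h : Fin 6 → ℝ) (i j : Fq4) :
    gB h j.z (j.pa j.z) (j.pb j.z) - gB h i.z (i.pa i.z) (i.pb i.z) =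
      h 2 * coQ i j 0 + h 4 * (coQ i j 8 + coQ i j 0 * j.ca) +
        2 * h 5 * (coQ i j 9 + i.e * coQ i j 8 + coQ i j 0 * j.cb) := by
  obtain ⟨h1, h2⟩ := pt_move i j
  rw [← h1, ← h2]
  simp only [gB, coQ, Matrix.cons_val]
  ring

end Crest.Agent.R136.GeoQ186
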