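import Crest.Agent.R136.ExtZ_779
import Crest.Agent.R136.Geo2_186

/-!
# R136: the gauge chart of a class: dictionary of boxes (helper779)

`rg_slots` : relative coordinates after a gauge with `h 4 = h 5 = 0`;
`GauIn` : the gauge relations on `E n` at the base sides `B.d n ^ X n k`;
`gau_new` : old box ⊢ new box; `gau_old` : new box ⊢ old box.
-/

set_option autoImplicit false
set_option linter.unusedSectionVars false
set_option linter.unusedVariables false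

open Filter Topology

namespace Crest.Agent.R136.Gz779

open Finset Crest.Agent.R138.Ex926 Crest.Agent.R136.Net191 Crest.Agent.R136.Qg926
open Crest.Agent.R136.NetQ186 Crest.Agent.R136.GeoQ186 Crest.Agent.R136.Zpr779

/-- the linear relation of the gauge -/
def tau (h : Fin 6 → ℝ) (i : Fq4) : ℝ := h 1 + h 2 * i.e + 2 * h 3 * i.ca

/-- **relative coordinates after the gauge** `h 4 = h 5 = 0` -/
theorem rg_slots {h : Fin 6 → ℝ} (h4 : h 4 = 0) (h5 : h 5 = 0) (i j : Fq4) :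
    coQ (rg h i) (rg h j) 0 = coQ i j 0 ∧
    coQ (rg h i) (rg h j) 1 = coQ i j 1 - (h 2 * coQ i j 6 + h 3 * (coQ i j 5 * coQ i j 5) +
      tau h i * coQ i j 5) ∧
    coQ (rg h i) (rg h j) 2 = coQ i j 2 ∧
    coQ (rg h i) (rg h j) 3 = coQ i j 3 - h 2 * coQ i j 0 ∧
    coQ (rg h i) (rg h j) 4 = coQ i j 4 - (2 * h 3 * coQ i j 8 + 2 * h 3 * (coQ i j 0 * coQ i j 5) +
      tau h i * coQ i j 0) ∧
    coQ (rg h i) (rg h j) 5 = coQ i j 5 ∧
    coQ (rg h i) (rg h j) 6 = coQ i j 6 ∧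
    coQ (rg h i) (rg h j) 7 = coQ i j 7 - (h 2 * coQ i j 9 + 2 * h 3 * (coQ i j 8 * coQ i j 5) +
      tau h i * coQ i j 8) ∧
    coQ (rg h i) (rg h j) 8 = coQ i j 8 ∧
    coQ (rg h i) (rg h j) 9 = coQ i j 9 ∧
    coQ (rg h i) (rg h j) 10 = coQ i j 10 - h 3 * (coQ i j 8 * coQ i j 8) := by
  obtain ⟨a0, a1, a2, a3, a4, a5, a6, a7, a8, a9, a10⟩ := coQ_rg h i j
  have gA := gA_move h i j
  have gB := gB_move h i j
  have hca : coQ i j 5 = j.ca - i.ca := rfl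
  have hja : j.ca = i.ca + coQ i j 5 := by rw [hca]; ring
  rw [h4, h5] at a1 a7 a10 gB
  rw [h4] at gA
  rw [gB] at a3
  rw [gA, gB] at a4
  refine ⟨a0, ?_, a2, ?_, ?_, a5, a6, ?_, a8, a9, ?_⟩
  · rw [a1, hja]; unfold tau; ring
  · rw [a3]; ring
  · rw [a4, hja]; unfold tau; ring
  · rw [a7, hja]; unfold tau; ring
  · rw [a10]; ring

/-- the chart of a gauge -/
noncomputable def coG (F : ℕ → ℕ × ℝ → Fq4) (h : ℕ → Fin 6 → ℝ) (n : ℕ) (x y : ℕ × ℝ) :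
    Fin 11 → ℝ := coQ (rg (h n) (F n x)) (rg (h n) (F n y))

/-- **every gauge chart is exact** -/
theorem chart_coG (F : ℕ → ℕ × ℝ → Fq4) (h : ℕ → Fin 6 → ℝ) (n : ℕ) (I : Finset (ℕ × ℝ)) :
    Chart I (coG F h n) monQ 2 := chartQ I fun x => rg (h n) (F n x)

/-- the old chart -/
noncomputable def coF (F : ℕ → ℕ × ℝ → Fq4) (n : ℕ) (x y : ℕ × ℝ) : Fin 11 → ℝ :=
  coQ (F n x) (F n y)

theorem chart_coF (F : ℕ → ℕ × ℝ → Fq4) (n : ℕ) (I : Finset (ℕ × ℝ)) :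
    Chart I (coF F n) monQ 2 := chartQ I fun x => F n x

/-- **gauge relations** on `E n` at the natural base sides `B.d n ^ X n k`, precision `x` of the
relations `E`, `C_b` (hence of the slot `R`) and `xF` of the relation `F_b` -/
structure GauIn (B B' : Base) (E : ℕ → Finset (ℕ × ℝ)) (F : ℕ → ℕ × ℝ → Fq4)
    (h : ℕ → Fin 6 → ℝ) (X : ℕ → Fin 11 → ℝ) (η : ℕ → ℝ) (x xF : ℝ) : Prop where
  h4 : ∀ n, h n 4 = 0
  h5 : ∀ n, h n 5 = 0
  η0 : ∀ n, 0 ≤ η n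
  tau : ∀ᶠ n in (U : Filter ℕ), ∀ i ∈ E n, |tau (h n) (F n i)| ≤ η n
  b2 : ∀ ε : ℝ, 0 < ε → ∀ᶠ n in (U : Filter ℕ),
    |h n 2| * B.d n ^ X n 0 ≤ B'.d n ^ (-ε) * B.d n ^ X n 3
  b3 : ∀ ε : ℝ, 0 < ε → ∀ᶠ n in (U : Filter ℕ),
    |h n 3| * B.d n ^ X n 8 ≤ B'.d n ^ (-ε) * B.d n ^ X n 4
  bη : ∀ ε : ℝ, 0 < ε → ∀ᶠ n in (U : Filter ℕ),
    η n * B.d n ^ X n 0 ≤ B'.d n ^ (x - ε) * B.d n ^ X n 4
  s1 : ∀ ε : ℝ, 0 < ε → ∀ᶠ n in (U : Filter ℕ), ∀ i ∈ E n, ∀ j ∈ E n,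
    |coG F h n i j 1| * B.d n ^ X n 0 ≤ B'.d n ^ (x - ε) * B.d n ^ X n 7
  s3 : ∀ ε : ℝ, 0 < ε → ∀ᶠ n in (U : Filter ℕ), ∀ i ∈ E n, ∀ j ∈ E n,
    |coG F h n i j 3| ≤ B'.d n ^ (xF - ε) * B.d n ^ X n 3
  /-- natural base, up to `d'^(-ε)` -/
  n6 : ∀ ε : ℝ, 0 < ε → ∀ᶠ n in (U : Filter ℕ),
    B.d n ^ X n 3 * B.d n ^ X n 6 ≤ B'.d n ^ (-ε) * B.d n ^ X n 7
  n7 : ∀ ε : ℝ, 0 < ε → ∀ᶠ n in (U : Filter ℕ),
    B.d n ^ X n 4 * B.d n ^ X n 5 ≤ B'.d n ^ (-ε) * B.d n ^ X n 7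
  n8 : ∀ ε : ℝ, 0 < ε → ∀ᶠ n in (U : Filter ℕ),
    B.d n ^ X n 0 * B.d n ^ X n 5 ≤ B'.d n ^ (-ε) * B.d n ^ X n 8
  n8' : ∀ ε : ℝ, 0 < ε → ∀ᶠ n in (U : Filter ℕ),
    B.d n ^ X n 8 ≤ B'.d n ^ (-ε) * (B.d n ^ X n 0 * B.d n ^ X n 5)
  n9 : ∀ ε : ℝ, 0 < ε → ∀ᶠ n in (U : Filter ℕ),
    B.d n ^ X n 9 ≤ B'.d n ^ (-ε) * (B.d n ^ X n 0 * B.d n ^ X n 6)
  n10 : ∀ ε : ℝ, 0 < ε → ∀ᶠ n in (U : Filter ℕ),
    B.d n ^ X n 4 * B.d n ^ X n 8 ≤ B'.d n ^ (-ε) * B.d n ^ X n 10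

/-- base exponents of the gauge chart: the slot `R` is natural -/
noncomputable def XG (X : ℕ → Fin 11 → ℝ) (n : ℕ) (k : Fin 11) : ℝ :=
  if k = 1 then X n 7 - X n 0 else X n k

theorem XG_of_ne {X : ℕ → Fin 11 → ℝ} {n : ℕ} {k : Fin 11} (h : k ≠ 1) : XG X n k = X n k :=
  if_neg h

variable {B B' : Base} {E : ℕ → Finset (ℕ × ℝ)} {F : ℕ → ℕ × ℝ → Fq4} {h : ℕ → Fin 6 → ℝ}
  {X : ℕ → Fin 11 → ℝ} {η : ℕ → ℝ} {x xF : ℝ}

/-- a triangle with three error terms -/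
theorem tri3 {a b c d e : ℝ} (h : a = b - (c + d + e)) {A K1 K2 K3 : ℝ} (hb : |b| ≤ A)
    (hc : |c| ≤ K1) (hd : |d| ≤ K2) (he : |e| ≤ K3) : |a| ≤ A + K1 + K2 + K3 := by
  rw [h]
  have h1 := abs_sub b (c + d + e)
  have h2 := abs_add_le (c + d) e
  have h3 := abs_add_le c d
  linarith

/-- conditions on the exponents of a box -/
structure PBox (x : ℝ) (p : Fin 11 → ℝ) : Prop where
  c10 : p 10 ≤ 2 * p 8
  c7a : p 7 ≤ p 9
  c7b : p 7 ≤ p 5 + p 8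
  c7c : p 7 ≤ x + p 8
  c4a : p 4 ≤ p 8
  c4b : p 4 ≤ p 0 + p 5
  c4c : p 4 ≤ x + p 0

/-- close in the slots other than `R`, `F_b` -/
def wclose (B B' : Base) (F : ℕ → ℕ × ℝ → Fq4) (X : ℕ → Fin 11 → ℝ) (n : ℕ) (p : Fin 11 → ℝ)
    (K : ℝ) (i j : ℕ × ℝ) : Prop :=
  ∀ k : Fin 11, k ≠ 1 → k ≠ 3 → |coF F n i j k| ≤ K * (B.d n ^ X n k * B'.d n ^ p k)

/-- the error terms of the slots 4, 7, 10, as numbers: bounds from the natural base -/
theorem gau_err (H : GauIn B B' E F h X η x xF) {p : Fin 11 → ℝ} (hp : PBox x p) {ε : ℝ}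
    (hε : 0 < ε) : ∃ δ : ℝ, 0 < δ ∧ δ ≤ ε ∧ ∀ᶠ n in (U : Filter ℕ),
      ∀ a b : ℕ × ℝ, a ∈ E n →
      (∀ k : Fin 11, k = 0 ∨ k = 5 ∨ k = 8 ∨ k = 9 →
        |coF F n a b k| ≤ B'.d n ^ (-δ) * (B.d n ^ X n k * B'.d n ^ p k)) →
      |h n 3 * (coF F n a b 8 * coF F n a b 8)| ≤
          B'.d n ^ (-ε) * (B.d n ^ X n 10 * B'.d n ^ p 10) ∧
      |h n 2 * coF F n a b 9| ≤ B'.d n ^ (-ε) * (B.d n ^ X n 7 * B'.d n ^ p 7) ∧
      |2 * h n 3 * (coF F n a b 8 * coF F n a b 5)| ≤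
          B'.d n ^ (-ε) * (B.d n ^ X n 7 * B'.d n ^ p 7) ∧
      |tau (h n) (F n a) * coF F n a b 8| ≤ B'.d n ^ (-ε) * (B.d n ^ X n 7 * B'.d n ^ p 7) ∧
      |2 * h n 3 * coF F n a b 8| ≤ B'.d n ^ (-ε) * (B.d n ^ X n 4 * B'.d n ^ p 4) ∧
      |2 * h n 3 * (coF F n a b 0 * coF F n a b 5)| ≤
          B'.d n ^ (-ε) * (B.d n ^ X n 4 * B'.d n ^ p 4) ∧
      |tau (h n) (F n a) * coF F n a b 0| ≤
          B'.d n ^ (-ε) * (B.d n ^ X n 4 * B'.d n ^ p 4) := by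
  set e : ℝ := ε / 8 with he
  have he0 : 0 < e := by positivity
  refine ⟨e, he0, by rw [he]; linarith, ?_⟩
  filter_upwards [H.tau, H.b2 e he0, H.b3 e he0, H.bη e he0, H.n6 e he0, H.n7 e he0, H.n8 e he0,
    H.n8' e he0, H.n9 e he0, H.n10 e he0, ev_const_le B' (c := 2) (by norm_num) he0] with
    n tn b2 b3 bη n6 n7 n8 n8' n9 n10 two a b ha hk
  have hd : ∀ t : ℝ, 0 < B'.d n ^ t := fun t => Real.rpow_pos_of_pos (B'.pos n) t
  have hB : ∀ t : ℝ, 0 < B.d n ^ t := fun t => Real.rpow_pos_of_pos (B.pos n) t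
  have hdm : ∀ {s t : ℝ}, t ≤ s → B'.d n ^ s ≤ B'.d n ^ t := fun hst =>
    Real.rpow_le_rpow_of_exponent_ge (B'.pos n) (B'.lt n).le hst
  have hda : ∀ s t : ℝ, B'.d n ^ s * B'.d n ^ t = B'.d n ^ (s + t) := fun s t =>
    (Real.rpow_add (B'.pos n) s t).symm
  have k0 := hk 0 (Or.inl rfl)
  have k5 := hk 5 (Or.inr (Or.inl rfl))
  have k8 := hk 8 (Or.inr (Or.inr (Or.inl rfl)))
  have k9 := hk 9 (Or.inr (Or.inr (Or.inr rfl)))
  have tn' := tn a ha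
  set σ : Fin 11 → ℝ := fun k => B.d n ^ X n k with hσ
  have hσ0 : ∀ k, 0 < σ k := fun k => hB _
  change |coF F n a b 0| ≤ B'.d n ^ (-e) * (σ 0 * B'.d n ^ p 0) at k0
  change |coF F n a b 5| ≤ B'.d n ^ (-e) * (σ 5 * B'.d n ^ p 5) at k5
  change |coF F n a b 8| ≤ B'.d n ^ (-e) * (σ 8 * B'.d n ^ p 8) at k8
  change |coF F n a b 9| ≤ B'.d n ^ (-e) * (σ 9 * B'.d n ^ p 9) at k9
  change |h n 2| * σ 0 ≤ B'.d n ^ (-e) * σ 3 at b2
  change |h n 3| * σ 8 ≤ B'.d n ^ (-e) * σ 4 at b3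
  change η n * σ 0 ≤ B'.d n ^ (x - e) * σ 4 at bη
  change σ 3 * σ 6 ≤ B'.d n ^ (-e) * σ 7 at n6
  change σ 4 * σ 5 ≤ B'.d n ^ (-e) * σ 7 at n7
  change σ 0 * σ 5 ≤ B'.d n ^ (-e) * σ 8 at n8
  change σ 8 ≤ B'.d n ^ (-e) * (σ 0 * σ 5) at n8'
  change σ 9 ≤ B'.d n ^ (-e) * (σ 0 * σ 6) at n9
  change σ 4 * σ 8 ≤ B'.d n ^ (-e) * σ 10 at n10
  have hη := H.η0 n
  -- generic: a product of factors `≤ d'^(s_i) * σ..` 
  have two' : (2 : ℝ) ≤ B'.d n ^ (-e) := two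
  refine ⟨?_, ?_, ?_, ?_, ?_, ?_, ?_⟩
  · -- h3 c8 c8
    rw [abs_mul, abs_mul]
    calc |h n 3| * (|coF F n a b 8| * |coF F n a b 8|)
        ≤ |h n 3| * ((B'.d n ^ (-e) * (σ 8 * B'.d n ^ p 8)) *
          (B'.d n ^ (-e) * (σ 8 * B'.d n ^ p 8))) :=
          mul_le_mul_of_nonneg_left (mul_le_mul k8 k8 (abs_nonneg _)
            (mul_nonneg (hd _).le (mul_nonneg (hσ0 8).le (hd _).le))) (abs_nonneg _)
      _ = (|h n 3| * σ 8) * (σ 8 * (B'.d n ^ (-e) * B'.d n ^ p 8 *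
          (B'.d n ^ (-e) * B'.d n ^ p 8))) := by ring
      _ ≤ (B'.d n ^ (-e) * σ 4) * (σ 8 * (B'.d n ^ (-e) * B'.d n ^ p 8 *
          (B'.d n ^ (-e) * B'.d n ^ p 8))) :=
          mul_le_mul_of_nonneg_right b3 (mul_nonneg (hσ0 8).le
            (mul_nonneg (mul_nonneg (hd _).le (hd _).le) (mul_nonneg (hd _).le (hd _).le)))
      _ = (σ 4 * σ 8) * (B'.d n ^ (-e) * (B'.d n ^ (-e) * B'.d n ^ p 8 *
          (B'.d n ^ (-e) * B'.d n ^ p 8))) := by ring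
      _ ≤ (B'.d n ^ (-e) * σ 10) * (B'.d n ^ (-e) * (B'.d n ^ (-e) * B'.d n ^ p 8 *
          (B'.d n ^ (-e) * B'.d n ^ p 8))) :=
          mul_le_mul_of_nonneg_right n10 (mul_nonneg (hd _).le
            (mul_nonneg (mul_nonneg (hd _).le (hd _).le) (mul_nonneg (hd _).le (hd _).le)))
      _ = σ 10 * B'.d n ^ (-e + (-e + ((-e + p 8) + (-e + p 8)))) := by
          rw [← hda, ← hda, ← hda, ← hda]; ring
      _ ≤ σ 10 * B'.d n ^ (-ε + p 10) := by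
          refine mul_le_mul_of_nonneg_left (hdm ?_) (hσ0 10).le
          have := hp.c10
          linarith
      _ = _ := by rw [← hda]; ring
  · -- h2 c9
    rw [abs_mul]
    calc |h n 2| * |coF F n a b 9| ≤ |h n 2| * (B'.d n ^ (-e) * (σ 9 * B'.d n ^ p 9)) :=
          mul_le_mul_of_nonneg_left k9 (abs_nonneg _)
      _ ≤ |h n 2| * (B'.d n ^ (-e) * ((B'.d n ^ (-e) * (σ 0 * σ 6)) * B'.d n ^ p 9)) := by
          refine mul_le_mul_of_nonneg_left ?_ (abs_nonneg _)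
          exact mul_le_mul_of_nonneg_left (mul_le_mul_of_nonneg_right n9 (hd _).le) (hd _).le
      _ = (|h n 2| * σ 0) * (σ 6 * (B'.d n ^ (-e) * (B'.d n ^ (-e) * B'.d n ^ p 9))) := by ring
      _ ≤ (B'.d n ^ (-e) * σ 3) * (σ 6 * (B'.d n ^ (-e) * (B'.d n ^ (-e) * B'.d n ^ p 9))) :=
          mul_le_mul_of_nonneg_right b2 (mul_nonneg (hσ0 6).le
            (mul_nonneg (hd _).le (mul_nonneg (hd _).le (hd _).le)))
      _ = (σ 3 * σ 6) * (B'.d n ^ (-e) * (B'.d n ^ (-e) * (B'.d n ^ (-e) * B'.d n ^ p 9))) := by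
          ring
      _ ≤ (B'.d n ^ (-e) * σ 7) * (B'.d n ^ (-e) * (B'.d n ^ (-e) *
          (B'.d n ^ (-e) * B'.d n ^ p 9))) :=
          mul_le_mul_of_nonneg_right n6 (mul_nonneg (hd _).le
            (mul_nonneg (hd _).le (mul_nonneg (hd _).le (hd _).le)))
      _ = σ 7 * B'.d n ^ (-e + (-e + (-e + (-e + p 9)))) := by
          rw [← hda, ← hda, ← hda, ← hda]; ring
      _ ≤ σ 7 * B'.d n ^ (-ε + p 7) := by
          refine mul_le_mul_of_nonneg_left (hdm ?_) (hσ0 7).le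
          have := hp.c7a
          linarith
      _ = _ := by rw [← hda]; ring
  · -- 2 h3 c8 c5
    rw [abs_mul, abs_mul, abs_mul, abs_of_pos (by norm_num : (0 : ℝ) < 2)]
    calc 2 * |h n 3| * (|coF F n a b 8| * |coF F n a b 5|)
        ≤ B'.d n ^ (-e) * |h n 3| * ((B'.d n ^ (-e) * (σ 8 * B'.d n ^ p 8)) *
          (B'.d n ^ (-e) * (σ 5 * B'.d n ^ p 5))) :=
          mul_le_mul (mul_le_mul_of_nonneg_right two' (abs_nonneg _))
            (mul_le_mul k8 k5 (abs_nonneg _)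
            (mul_nonneg (hd _).le (mul_nonneg (hσ0 8).le (hd _).le)))
            (mul_nonneg (abs_nonneg _) (abs_nonneg _)) (mul_nonneg (hd _).le (abs_nonneg _))
      _ = (|h n 3| * σ 8) * (σ 5 * (B'.d n ^ (-e) * (B'.d n ^ (-e) * B'.d n ^ p 8 *
          (B'.d n ^ (-e) * B'.d n ^ p 5)))) := by ring
      _ ≤ (B'.d n ^ (-e) * σ 4) * (σ 5 * (B'.d n ^ (-e) * (B'.d n ^ (-e) * B'.d n ^ p 8 *
          (B'.d n ^ (-e) * B'.d n ^ p 5)))) :=
          mul_le_mul_of_nonneg_right b3 (mul_nonneg (hσ0 5).le (mul_nonneg (hd _).le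
            (mul_nonneg (mul_nonneg (hd _).le (hd _).le) (mul_nonneg (hd _).le (hd _).le))))
      _ = (σ 4 * σ 5) * (B'.d n ^ (-e) * (B'.d n ^ (-e) * (B'.d n ^ (-e) * B'.d n ^ p 8 *
          (B'.d n ^ (-e) * B'.d n ^ p 5)))) := by ring
      _ ≤ (B'.d n ^ (-e) * σ 7) * (B'.d n ^ (-e) * (B'.d n ^ (-e) * (B'.d n ^ (-e) *
          B'.d n ^ p 8 * (B'.d n ^ (-e) * B'.d n ^ p 5)))) :=
          mul_le_mul_of_nonneg_right n7 (mul_nonneg (hd _).le (mul_nonneg (hd _).le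
            (mul_nonneg (mul_nonneg (hd _).le (hd _).le) (mul_nonneg (hd _).le (hd _).le))))
      _ = σ 7 * B'.d n ^ (-e + (-e + (-e + ((-e + p 8) + (-e + p 5))))) := by
          rw [← hda, ← hda, ← hda, ← hda, ← hda, ← hda]; ring
      _ ≤ σ 7 * B'.d n ^ (-ε + p 7) := by
          refine mul_le_mul_of_nonneg_left (hdm ?_) (hσ0 7).le
          have := hp.c7b
          linarith
      _ = _ := by rw [← hda]; ring
  · -- tau c8
    rw [abs_mul]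
    calc |tau (h n) (F n a)| * |coF F n a b 8| ≤ η n * (B'.d n ^ (-e) * (σ 8 * B'.d n ^ p 8)) :=
          mul_le_mul tn' k8 (abs_nonneg _) hη
      _ ≤ η n * (B'.d n ^ (-e) * ((B'.d n ^ (-e) * (σ 0 * σ 5)) * B'.d n ^ p 8)) := by
          refine mul_le_mul_of_nonneg_left ?_ hη
          exact mul_le_mul_of_nonneg_left (mul_le_mul_of_nonneg_right n8' (hd _).le) (hd _).le
      _ = (η n * σ 0) * (σ 5 * (B'.d n ^ (-e) * (B'.d n ^ (-e) * B'.d n ^ p 8))) := by ring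
      _ ≤ (B'.d n ^ (x - e) * σ 4) * (σ 5 * (B'.d n ^ (-e) * (B'.d n ^ (-e) * B'.d n ^ p 8))) :=
          mul_le_mul_of_nonneg_right bη (mul_nonneg (hσ0 5).le
            (mul_nonneg (hd _).le (mul_nonneg (hd _).le (hd _).le)))
      _ = (σ 4 * σ 5) * (B'.d n ^ (x - e) * (B'.d n ^ (-e) * (B'.d n ^ (-e) * B'.d n ^ p 8))) := by
          ring
      _ ≤ (B'.d n ^ (-e) * σ 7) * (B'.d n ^ (x - e) * (B'.d n ^ (-e) *
          (B'.d n ^ (-e) * B'.d n ^ p 8))) :=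
          mul_le_mul_of_nonneg_right n7 (mul_nonneg (hd _).le
            (mul_nonneg (hd _).le (mul_nonneg (hd _).le (hd _).le)))
      _ = σ 7 * B'.d n ^ (-e + ((x - e) + (-e + (-e + p 8)))) := by
          rw [← hda, ← hda, ← hda, ← hda]; ring
      _ ≤ σ 7 * B'.d n ^ (-ε + p 7) := by
          refine mul_le_mul_of_nonneg_left (hdm ?_) (hσ0 7).le
          have := hp.c7c
          linarith
      _ = _ := by rw [← hda]; ring
  · -- 2 h3 c8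
    rw [abs_mul, abs_mul, abs_of_pos (by norm_num : (0 : ℝ) < 2)]
    calc 2 * |h n 3| * |coF F n a b 8| ≤
          B'.d n ^ (-e) * |h n 3| * (B'.d n ^ (-e) * (σ 8 * B'.d n ^ p 8)) :=
          mul_le_mul (mul_le_mul_of_nonneg_right two' (abs_nonneg _)) k8 (abs_nonneg _)
            (mul_nonneg (hd _).le (abs_nonneg _))
      _ = (|h n 3| * σ 8) * (B'.d n ^ (-e) * (B'.d n ^ (-e) * B'.d n ^ p 8)) := by ring
      _ ≤ (B'.d n ^ (-e) * σ 4) * (B'.d n ^ (-e) * (B'.d n ^ (-e) * B'.d n ^ p 8)) :=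
          mul_le_mul_of_nonneg_right b3
            (mul_nonneg (hd _).le (mul_nonneg (hd _).le (hd _).le))
      _ = σ 4 * B'.d n ^ (-e + (-e + (-e + p 8))) := by
          rw [← hda, ← hda, ← hda]; ring
      _ ≤ σ 4 * B'.d n ^ (-ε + p 4) := by
          refine mul_le_mul_of_nonneg_left (hdm ?_) (hσ0 4).le
          have := hp.c4a
          linarith
      _ = _ := by rw [← hda]; ring
  · -- 2 h3 c0 c5
    rw [abs_mul, abs_mul, abs_mul, abs_of_pos (by norm_num : (0 : ℝ) < 2)]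
    calc 2 * |h n 3| * (|coF F n a b 0| * |coF F n a b 5|)
        ≤ B'.d n ^ (-e) * |h n 3| * ((B'.d n ^ (-e) * (σ 0 * B'.d n ^ p 0)) *
          (B'.d n ^ (-e) * (σ 5 * B'.d n ^ p 5))) :=
          mul_le_mul (mul_le_mul_of_nonneg_right two' (abs_nonneg _))
            (mul_le_mul k0 k5 (abs_nonneg _)
            (mul_nonneg (hd _).le (mul_nonneg (hσ0 0).le (hd _).le)))
            (mul_nonneg (abs_nonneg _) (abs_nonneg _)) (mul_nonneg (hd _).le (abs_nonneg _))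
      _ = (σ 0 * σ 5) * (|h n 3| * (B'.d n ^ (-e) * (B'.d n ^ (-e) * B'.d n ^ p 0 *
          (B'.d n ^ (-e) * B'.d n ^ p 5)))) := by ring
      _ ≤ (B'.d n ^ (-e) * σ 8) * (|h n 3| * (B'.d n ^ (-e) * (B'.d n ^ (-e) * B'.d n ^ p 0 *
          (B'.d n ^ (-e) * B'.d n ^ p 5)))) :=
          mul_le_mul_of_nonneg_right n8 (mul_nonneg (abs_nonneg _) (mul_nonneg (hd _).le
            (mul_nonneg (mul_nonneg (hd _).le (hd _).le) (mul_nonneg (hd _).le (hd _).le))))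
      _ = (|h n 3| * σ 8) * (B'.d n ^ (-e) * (B'.d n ^ (-e) * (B'.d n ^ (-e) * B'.d n ^ p 0 *
          (B'.d n ^ (-e) * B'.d n ^ p 5)))) := by ring
      _ ≤ (B'.d n ^ (-e) * σ 4) * (B'.d n ^ (-e) * (B'.d n ^ (-e) * (B'.d n ^ (-e) *
          B'.d n ^ p 0 * (B'.d n ^ (-e) * B'.d n ^ p 5)))) :=
          mul_le_mul_of_nonneg_right b3 (mul_nonneg (hd _).le (mul_nonneg (hd _).le
            (mul_nonneg (mul_nonneg (hd _).le (hd _).le) (mul_nonneg (hd _).le (hd _).le))))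
      _ = σ 4 * B'.d n ^ (-e + (-e + (-e + ((-e + p 0) + (-e + p 5))))) := by
          rw [← hda, ← hda, ← hda, ← hda, ← hda, ← hda]; ring
      _ ≤ σ 4 * B'.d n ^ (-ε + p 4) := by
          refine mul_le_mul_of_nonneg_left (hdm ?_) (hσ0 4).le
          have := hp.c4b
          linarith
      _ = _ := by rw [← hda]; ring
  · -- tau c0
    rw [abs_mul]
    calc |tau (h n) (F n a)| * |coF F n a b 0| ≤ η n * (B'.d n ^ (-e) * (σ 0 * B'.d n ^ p 0)) :=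
          mul_le_mul tn' k0 (abs_nonneg _) hη
      _ = (η n * σ 0) * (B'.d n ^ (-e) * B'.d n ^ p 0) := by ring
      _ ≤ (B'.d n ^ (x - e) * σ 4) * (B'.d n ^ (-e) * B'.d n ^ p 0) :=
          mul_le_mul_of_nonneg_right bη (mul_nonneg (hd _).le (hd _).le)
      _ = σ 4 * B'.d n ^ ((x - e) + (-e + p 0)) := by
          rw [← hda, ← hda]; ring
      _ ≤ σ 4 * B'.d n ^ (-ε + p 4) := by
          refine mul_le_mul_of_nonneg_left (hdm ?_) (hσ0 4).le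
          have := hp.c4c
          linarith
      _ = _ := by rw [← hda]; ring

/-- error terms of the slot `R`, relative to the natural unit `σ 7 / σ 0` -/
theorem gau_err1 (H : GauIn B B' E F h X η x xF) {p : Fin 11 → ℝ} {ε : ℝ} (hε : 0 < ε) :
    ∃ δ : ℝ, 0 < δ ∧ δ ≤ ε ∧ ∀ᶠ n in (U : Filter ℕ),
      ∀ a b : ℕ × ℝ, a ∈ E n →
      (∀ k : Fin 11, k = 5 ∨ k = 6 →
        |coF F n a b k| ≤ B'.d n ^ (-δ) * (B.d n ^ X n k * B'.d n ^ p k)) →
      |h n 2 * coF F n a b 6| * B.d n ^ X n 0 ≤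
          B'.d n ^ (-ε) * (B.d n ^ X n 7 * B'.d n ^ p 6) ∧
      |h n 3 * (coF F n a b 5 * coF F n a b 5)| * B.d n ^ X n 0 ≤
          B'.d n ^ (-ε) * (B.d n ^ X n 7 * B'.d n ^ (2 * p 5)) ∧
      |tau (h n) (F n a) * coF F n a b 5| * B.d n ^ X n 0 ≤
          B'.d n ^ (-ε) * (B.d n ^ X n 7 * B'.d n ^ (x + p 5)) := by
  set e : ℝ := ε / 8 with he
  have he0 : 0 < e := by positivity
  refine ⟨e, he0, by rw [he]; linarith, ?_⟩
  filter_upwards [H.tau, H.b2 e he0, H.b3 e he0, H.bη e he0, H.n6 e he0, H.n7 e he0,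
    H.n8 e he0] with n tn b2 b3 bη n6 n7 n8 a b ha hk
  have hd : ∀ t : ℝ, 0 < B'.d n ^ t := fun t => Real.rpow_pos_of_pos (B'.pos n) t
  have hB : ∀ t : ℝ, 0 < B.d n ^ t := fun t => Real.rpow_pos_of_pos (B.pos n) t
  have hdm : ∀ {s t : ℝ}, t ≤ s → B'.d n ^ s ≤ B'.d n ^ t := fun hst =>
    Real.rpow_le_rpow_of_exponent_ge (B'.pos n) (B'.lt n).le hst
  have hda : ∀ s t : ℝ, B'.d n ^ s * B'.d n ^ t = B'.d n ^ (s + t) := fun s t =>
    (Real.rpow_add (B'.pos n) s t).symm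
  have k5 := hk 5 (Or.inl rfl)
  have k6 := hk 6 (Or.inr rfl)
  have tn' := tn a ha
  set σ : Fin 11 → ℝ := fun k => B.d n ^ X n k with hσ
  have hσ0 : ∀ k, 0 < σ k := fun k => hB _
  change |coF F n a b 5| ≤ B'.d n ^ (-e) * (σ 5 * B'.d n ^ p 5) at k5
  change |coF F n a b 6| ≤ B'.d n ^ (-e) * (σ 6 * B'.d n ^ p 6) at k6
  change |h n 2| * σ 0 ≤ B'.d n ^ (-e) * σ 3 at b2
  change |h n 3| * σ 8 ≤ B'.d n ^ (-e) * σ 4 at b3
  change η n * σ 0 ≤ B'.d n ^ (x - e) * σ 4 at bη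
  change σ 3 * σ 6 ≤ B'.d n ^ (-e) * σ 7 at n6
  change σ 4 * σ 5 ≤ B'.d n ^ (-e) * σ 7 at n7
  change σ 0 * σ 5 ≤ B'.d n ^ (-e) * σ 8 at n8
  have hη := H.η0 n
  refine ⟨?_, ?_, ?_⟩
  · -- h2 c6
    rw [abs_mul]
    calc |h n 2| * |coF F n a b 6| * σ 0
        ≤ |h n 2| * (B'.d n ^ (-e) * (σ 6 * B'.d n ^ p 6)) * σ 0 :=
          mul_le_mul_of_nonneg_right (mul_le_mul_of_nonneg_left k6 (abs_nonneg _)) (hσ0 0).le
      _ = (|h n 2| * σ 0) * (σ 6 * (B'.d n ^ (-e) * B'.d n ^ p 6)) := by ring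
      _ ≤ (B'.d n ^ (-e) * σ 3) * (σ 6 * (B'.d n ^ (-e) * B'.d n ^ p 6)) :=
          mul_le_mul_of_nonneg_right b2 (mul_nonneg (hσ0 6).le
            (mul_nonneg (hd _).le (hd _).le))
      _ = (σ 3 * σ 6) * (B'.d n ^ (-e) * (B'.d n ^ (-e) * B'.d n ^ p 6)) := by ring
      _ ≤ (B'.d n ^ (-e) * σ 7) * (B'.d n ^ (-e) * (B'.d n ^ (-e) * B'.d n ^ p 6)) :=
          mul_le_mul_of_nonneg_right n6 (mul_nonneg (hd _).le
            (mul_nonneg (hd _).le (hd _).le))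
      _ = σ 7 * B'.d n ^ (-e + (-e + (-e + p 6))) := by
          rw [← hda, ← hda, ← hda]; ring
      _ ≤ σ 7 * B'.d n ^ (-ε + p 6) := by
          refine mul_le_mul_of_nonneg_left (hdm ?_) (hσ0 7).le
          linarith
      _ = _ := by rw [← hda]; ring
  · -- h3 c5 c5
    rw [abs_mul, abs_mul]
    calc |h n 3| * (|coF F n a b 5| * |coF F n a b 5|) * σ 0
        ≤ |h n 3| * ((B'.d n ^ (-e) * (σ 5 * B'.d n ^ p 5)) *
          (B'.d n ^ (-e) * (σ 5 * B'.d n ^ p 5))) * σ 0 :=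
          mul_le_mul_of_nonneg_right (mul_le_mul_of_nonneg_left (mul_le_mul k5 k5 (abs_nonneg _)
            (mul_nonneg (hd _).le (mul_nonneg (hσ0 5).le (hd _).le))) (abs_nonneg _)) (hσ0 0).le
      _ = (σ 0 * σ 5) * (|h n 3| * (σ 5 * (B'.d n ^ (-e) * B'.d n ^ p 5 *
          (B'.d n ^ (-e) * B'.d n ^ p 5)))) := by ring
      _ ≤ (B'.d n ^ (-e) * σ 8) * (|h n 3| * (σ 5 * (B'.d n ^ (-e) * B'.d n ^ p 5 *
          (B'.d n ^ (-e) * B'.d n ^ p 5)))) :=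
          mul_le_mul_of_nonneg_right n8 (mul_nonneg (abs_nonneg _) (mul_nonneg (hσ0 5).le
            (mul_nonneg (mul_nonneg (hd _).le (hd _).le) (mul_nonneg (hd _).le (hd _).le))))
      _ = (|h n 3| * σ 8) * (σ 5 * (B'.d n ^ (-e) * (B'.d n ^ (-e) * B'.d n ^ p 5 *
          (B'.d n ^ (-e) * B'.d n ^ p 5)))) := by ring
      _ ≤ (B'.d n ^ (-e) * σ 4) * (σ 5 * (B'.d n ^ (-e) * (B'.d n ^ (-e) * B'.d n ^ p 5 *
          (B'.d n ^ (-e) * B'.d n ^ p 5)))) :=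
          mul_le_mul_of_nonneg_right b3 (mul_nonneg (hσ0 5).le (mul_nonneg (hd _).le
            (mul_nonneg (mul_nonneg (hd _).le (hd _).le) (mul_nonneg (hd _).le (hd _).le))))
      _ = (σ 4 * σ 5) * (B'.d n ^ (-e) * (B'.d n ^ (-e) * (B'.d n ^ (-e) * B'.d n ^ p 5 *
          (B'.d n ^ (-e) * B'.d n ^ p 5)))) := by ring
      _ ≤ (B'.d n ^ (-e) * σ 7) * (B'.d n ^ (-e) * (B'.d n ^ (-e) * (B'.d n ^ (-e) *
          B'.d n ^ p 5 * (B'.d n ^ (-e) * B'.d n ^ p 5)))) :=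
          mul_le_mul_of_nonneg_right n7 (mul_nonneg (hd _).le (mul_nonneg (hd _).le
            (mul_nonneg (mul_nonneg (hd _).le (hd _).le) (mul_nonneg (hd _).le (hd _).le))))
      _ = σ 7 * B'.d n ^ (-e + (-e + (-e + ((-e + p 5) + (-e + p 5))))) := by
          rw [← hda, ← hda, ← hda, ← hda, ← hda]; ring
      _ ≤ σ 7 * B'.d n ^ (-ε + 2 * p 5) := by
          refine mul_le_mul_of_nonneg_left (hdm ?_) (hσ0 7).le
          linarith
      _ = _ := by rw [← hda]; ring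
  · -- tau c5
    rw [abs_mul]
    calc |tau (h n) (F n a)| * |coF F n a b 5| * σ 0
        ≤ η n * (B'.d n ^ (-e) * (σ 5 * B'.d n ^ p 5)) * σ 0 :=
          mul_le_mul_of_nonneg_right (mul_le_mul tn' k5 (abs_nonneg _) hη) (hσ0 0).le
      _ = (η n * σ 0) * (σ 5 * (B'.d n ^ (-e) * B'.d n ^ p 5)) := by ring
      _ ≤ (B'.d n ^ (x - e) * σ 4) * (σ 5 * (B'.d n ^ (-e) * B'.d n ^ p 5)) :=
          mul_le_mul_of_nonneg_right bη (mul_nonneg (hσ0 5).le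
            (mul_nonneg (hd _).le (hd _).le))
      _ = (σ 4 * σ 5) * (B'.d n ^ (x - e) * (B'.d n ^ (-e) * B'.d n ^ p 5)) := by ring
      _ ≤ (B'.d n ^ (-e) * σ 7) * (B'.d n ^ (x - e) * (B'.d n ^ (-e) * B'.d n ^ p 5)) :=
          mul_le_mul_of_nonneg_right n7 (mul_nonneg (hd _).le
            (mul_nonneg (hd _).le (hd _).le))
      _ = σ 7 * B'.d n ^ (-e + ((x - e) + (-e + p 5))) := by
          rw [← hda, ← hda, ← hda]; ring
      _ ≤ σ 7 * B'.d n ^ (-ε + (x + p 5)) := by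
          refine mul_le_mul_of_nonneg_left (hdm ?_) (hσ0 7).le
          linarith
      _ = _ := by rw [← hda]; ring

/-- absorb a sum of at most four terms -/
theorem four_abs {a s : ℝ} {n : ℕ} {e ε p p' : ℝ} (h4 : (4 : ℝ) ≤ B'.d n ^ (-e))
    (hs : 0 < s) (he : 0 < e) (hee : 2 * e ≤ ε) (hpp : p' ≤ p)
    (h : |a| ≤ B'.d n ^ (-e) * (s * B'.d n ^ p) + B'.d n ^ (-e) * (s * B'.d n ^ p) +
      B'.d n ^ (-e) * (s * B'.d n ^ p) + B'.d n ^ (-e) * (s * B'.d n ^ p)) :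
    |a| ≤ B'.d n ^ (-ε) * (s * B'.d n ^ p') := by
  have hd : ∀ t : ℝ, 0 < B'.d n ^ t := fun t => Real.rpow_pos_of_pos (B'.pos n) t
  calc |a| ≤ 4 * (B'.d n ^ (-e) * (s * B'.d n ^ p)) := by linarith
    _ ≤ B'.d n ^ (-e) * (B'.d n ^ (-e) * (s * B'.d n ^ p)) :=
        mul_le_mul_of_nonneg_right h4 (mul_nonneg (hd _).le (mul_nonneg hs.le (hd _).le))
    _ = s * B'.d n ^ (-e + (-e + p)) := by
        rw [Real.rpow_add (B'.pos n), Real.rpow_add (B'.pos n)]; ring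
    _ ≤ s * B'.d n ^ (-ε + p') := by
        refine mul_le_mul_of_nonneg_left
          (Real.rpow_le_rpow_of_exponent_ge (B'.pos n) (B'.lt n).le ?_) hs.le
        linarith
    _ = _ := by rw [Real.rpow_add (B'.pos n)]; ring

/-- **old box ⊢ new box** -/
theorem gau_new (H : GauIn B B' E F h X η x xF) {p p' : Fin 11 → ℝ} (hp : PBox x p)
    (hpp : ∀ k, k ≠ 1 → k ≠ 3 → p' k ≤ p k) (h1 : p' 1 ≤ x) (h3 : p' 3 ≤ xF) {ε : ℝ}
    (hε : 0 < ε) : ∃ δ : ℝ, 0 < δ ∧ ∀ᶠ n in (U : Filter ℕ), ∀ i ∈ E n, ∀ j ∈ E n,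
      wclose B B' F X n p (B'.d n ^ (-δ)) i j →
      wbox B B' (coG F h) (XG X) n p' (B'.d n ^ (-ε)) i j := by
  set e : ℝ := ε / 2 with he
  have he0 : 0 < e := by positivity
  obtain ⟨δ, hδ, hδe, hev⟩ := gau_err H hp he0
  refine ⟨δ, hδ, ?_⟩
  filter_upwards [hev, H.s1 ε hε, H.s3 ε hε,
    ev_const_le B' (c := 4) (by norm_num) he0] with n hev s1 s3 four i hi j hj hc
  have hd : ∀ t : ℝ, 0 < B'.d n ^ t := fun t => Real.rpow_pos_of_pos (B'.pos n) t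
  have hB : ∀ t : ℝ, 0 < B.d n ^ t := fun t => Real.rpow_pos_of_pos (B.pos n) t
  have hdm : ∀ {s t : ℝ}, t ≤ s → B'.d n ^ s ≤ B'.d n ^ t := fun hst =>
    Real.rpow_le_rpow_of_exponent_ge (B'.pos n) (B'.lt n).le hst
  have hda : ∀ s t : ℝ, B'.d n ^ s * B'.d n ^ t = B'.d n ^ (s + t) := fun s t =>
    (Real.rpow_add (B'.pos n) s t).symm
  have four' : (4 : ℝ) ≤ B'.d n ^ (-e) := four
  obtain ⟨e1, e2, e3, e4, e5, e6, e7⟩ := hev i j hi (fun k hk => hc k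
    (by rcases hk with rfl | rfl | rfl | rfl <;> decide)
    (by rcases hk with rfl | rfl | rfl | rfl <;> decide))
  obtain ⟨a0, a1, a2, a3, a4, a5, a6, a7, a8, a9, a10⟩ := rg_slots (H.h4 n) (H.h5 n) (F n i)
    (F n j)
  -- old closeness with the bigger loss
  have hce : ∀ k : Fin 11, k ≠ 1 → k ≠ 3 →
      |coF F n i j k| ≤ B'.d n ^ (-e) * (B.d n ^ X n k * B'.d n ^ p k) := fun k k1 k3 =>
    (hc k k1 k3).trans (mul_le_mul_of_nonneg_right (hdm (by linarith))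
      (mul_nonneg (hB _).le (hd _).le))
  -- unchanged slots
  have hun : ∀ k : Fin 11, k ≠ 1 → k ≠ 3 → coG F h n i j k = coF F n i j k →
      |coG F h n i j k| ≤ B'.d n ^ (-ε) * (B.d n ^ XG X n k * B'.d n ^ p' k) := by
    intro k k1 k3 hk
    rw [hk, XG_of_ne k1]
    refine (hce k k1 k3).trans ?_
    refine mul_le_mul (hdm (by rw [he]; linarith)) ?_ (mul_nonneg (hB _).le (hd _).le) (hd _).le
    exact mul_le_mul_of_nonneg_left (hdm (hpp k k1 k3)) (hB _).le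
  have hc4 : |coG F h n i j 4| ≤ B'.d n ^ (-ε) * (B.d n ^ XG X n 4 * B'.d n ^ p' 4) := by
    rw [XG_of_ne (by decide)]
    refine four_abs four' (hB _) he0 (by rw [he]; linarith)
      (hpp 4 (by decide) (by decide)) (tri3 a4 (hce 4 (by decide) (by decide)) e5 e6 e7)
  have hc7 : |coG F h n i j 7| ≤ B'.d n ^ (-ε) * (B.d n ^ XG X n 7 * B'.d n ^ p' 7) := by
    rw [XG_of_ne (by decide)]
    refine four_abs four' (hB _) he0 (by rw [he]; linarith)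
      (hpp 7 (by decide) (by decide)) (tri3 a7 (hce 7 (by decide) (by decide)) e2 e3 e4)
  have hc10 : |coG F h n i j 10| ≤ B'.d n ^ (-ε) * (B.d n ^ XG X n 10 * B'.d n ^ p' 10) := by
    rw [XG_of_ne (by decide)]
    have h0 : (0 : ℝ) ≤ B'.d n ^ (-e) * (B.d n ^ X n 10 * B'.d n ^ p 10) :=
      mul_nonneg (hd _).le (mul_nonneg (hB _).le (hd _).le)
    refine four_abs four' (hB _) he0 (by rw [he]; linarith)
      (hpp 10 (by decide) (by decide)) (tri3 (c := h n 3 * (coF F n i j 8 * coF F n i j 8))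
        (d := 0) (e := 0) ?_ (hce 10 (by decide) (by decide)) e1 (by simpa using h0)
        (by simpa using h0))
    rw [add_zero, add_zero]
    exact a10
  intro k
  fin_cases k
  · exact hun 0 (by decide) (by decide) a0
  · -- slot 1
    change |coG F h n i j 1| ≤ B'.d n ^ (-ε) * (B.d n ^ XG X n 1 * B'.d n ^ p' 1)
    have hX : XG X n 1 = X n 7 - X n 0 := if_pos rfl
    rw [hX, Real.rpow_sub (B.pos n)]
    have := s1 i hi j hj
    have h0 := hB (X n 0)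
    have : |coG F h n i j 1| ≤ B'.d n ^ (x - ε) * B.d n ^ X n 7 / B.d n ^ X n 0 := by
      rw [le_div_iff₀ h0]; exact this
    refine this.trans ?_
    calc B'.d n ^ (x - ε) * B.d n ^ X n 7 / B.d n ^ X n 0
        = (B.d n ^ X n 7 / B.d n ^ X n 0) * B'.d n ^ (x - ε) := by ring
      _ ≤ (B.d n ^ X n 7 / B.d n ^ X n 0) * B'.d n ^ (-ε + p' 1) :=
          mul_le_mul_of_nonneg_left (hdm (by linarith)) (div_pos (hB _) h0).le
      _ = _ := by rw [← hda]; ring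
  · exact hun 2 (by decide) (by decide) a2
  · -- slot 3
    change |coG F h n i j 3| ≤ B'.d n ^ (-ε) * (B.d n ^ XG X n 3 * B'.d n ^ p' 3)
    rw [XG_of_ne (by decide)]
    refine (s3 i hi j hj).trans ?_
    calc B'.d n ^ (xF - ε) * B.d n ^ X n 3 ≤ B'.d n ^ (-ε + p' 3) * B.d n ^ X n 3 :=
          mul_le_mul_of_nonneg_right (hdm (by linarith)) (hB _).le
      _ = _ := by rw [← hda]; ring
  · exact hc4
  · exact hun 5 (by decide) (by decide) a5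
  · exact hun 6 (by decide) (by decide) a6
  · exact hc7
  · exact hun 8 (by decide) (by decide) a8
  · exact hun 9 (by decide) (by decide) a9
  · exact hc10

/-- **new box ⊢ old box**: all the slots except `R`; the slot `F_b` (3) is also bounded by the
height `p' 0` of the box -/
theorem gau_old (H : GauIn B B' E F h X η x xF) {p p' : Fin 11 → ℝ} (hp : PBox x p)
    (hpp : ∀ k, k ≠ 1 → p k ≤ p' k) (h30 : p 3 ≤ p 0) {ε : ℝ}
    (hε : 0 < ε) : ∃ δ : ℝ, 0 < δ ∧ ∀ᶠ n in (U : Filter ℕ), ∀ i ∈ E n, ∀ j : ℕ × ℝ,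
      wbox B B' (coG F h) (XG X) n p' (B'.d n ^ (-δ)) i j →
      ∀ k, k ≠ 1 → |coF F n i j k| ≤ B'.d n ^ (-ε) * (B.d n ^ X n k * B'.d n ^ p k) := by
  set e : ℝ := ε / 2 with he
  have he0 : 0 < e := by positivity
  obtain ⟨δ, hδ, hδe, hev⟩ := gau_err H hp he0
  refine ⟨min δ (e / 2), lt_min hδ (by positivity), ?_⟩
  filter_upwards [hev, H.b2 (e / 2) (by positivity),
    ev_const_le B' (c := 4) (by norm_num) he0] with n hev b2 four i hi j hc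
  have hd : ∀ t : ℝ, 0 < B'.d n ^ t := fun t => Real.rpow_pos_of_pos (B'.pos n) t
  have hB : ∀ t : ℝ, 0 < B.d n ^ t := fun t => Real.rpow_pos_of_pos (B.pos n) t
  have hdm : ∀ {s t : ℝ}, t ≤ s → B'.d n ^ s ≤ B'.d n ^ t := fun hst =>
    Real.rpow_le_rpow_of_exponent_ge (B'.pos n) (B'.lt n).le hst
  have hda : ∀ s t : ℝ, B'.d n ^ s * B'.d n ^ t = B'.d n ^ (s + t) := fun s t =>
    (Real.rpow_add (B'.pos n) s t).symm
  have four' : (4 : ℝ) ≤ B'.d n ^ (-e) := four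
  obtain ⟨a0, a1, a2, a3, a4, a5, a6, a7, a8, a9, a10⟩ := rg_slots (H.h4 n) (H.h5 n) (F n i)
    (F n j)
  -- new closeness at `p`
  have hcp : ∀ (t : ℝ), min δ (e / 2) ≤ t → ∀ k : Fin 11, k ≠ 1 →
      |coG F h n i j k| ≤ B'.d n ^ (-t) * (B.d n ^ X n k * B'.d n ^ p k) := by
    intro t ht k k1
    have := hc k
    rw [XG_of_ne k1] at this
    refine this.trans ?_
    refine mul_le_mul (hdm (by linarith)) ?_ (mul_nonneg (hB _).le (hd _).le) (hd _).le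
    exact mul_le_mul_of_nonneg_left (hdm (hpp k k1)) (hB _).le
  have hce : ∀ k : Fin 11, k ≠ 1 →
      |coG F h n i j k| ≤ B'.d n ^ (-e) * (B.d n ^ X n k * B'.d n ^ p k) :=
    hcp e ((min_le_right _ _).trans (by linarith))
  have hcu : ∀ k : Fin 11, k ≠ 1 → coG F h n i j k = coF F n i j k →
      |coF F n i j k| ≤ B'.d n ^ (-δ) * (B.d n ^ X n k * B'.d n ^ p k) := fun k k1 hk =>
    hk ▸ hcp δ (min_le_left _ _) k k1
  obtain ⟨e1, e2, e3, e4, e5, e6, e7⟩ := hev i j hi (fun k hk => by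
    rcases hk with rfl | rfl | rfl | rfl
    · exact hcu 0 (by decide) a0
    · exact hcu 5 (by decide) a5
    · exact hcu 8 (by decide) a8
    · exact hcu 9 (by decide) a9)
  -- unchanged slots
  have hun : ∀ k : Fin 11, k ≠ 1 → coG F h n i j k = coF F n i j k →
      |coF F n i j k| ≤ B'.d n ^ (-ε) * (B.d n ^ X n k * B'.d n ^ p k) := by
    intro k k1 hk
    refine (hk ▸ hce k k1).trans ?_
    exact mul_le_mul_of_nonneg_right (hdm (by rw [he]; linarith))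
      (mul_nonneg (hB _).le (hd _).le)
  have hneg : ∀ {a b c f g : ℝ}, a = b - (c + f + g) → b = a - (-c + -f + -g) := by
    intro a b c f g h; rw [h]; ring
  have hab : ∀ {c K : ℝ}, |c| ≤ K → |(-c)| ≤ K := by
    intro c K h; rwa [abs_neg]
  have hc4 : |coF F n i j 4| ≤ B'.d n ^ (-ε) * (B.d n ^ X n 4 * B'.d n ^ p 4) :=
    four_abs four' (hB _) he0 (by rw [he]; linarith)
      le_rfl (tri3 (hneg a4) (hce 4 (by decide)) (hab e5) (hab e6) (hab e7))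
  have hc7 : |coF F n i j 7| ≤ B'.d n ^ (-ε) * (B.d n ^ X n 7 * B'.d n ^ p 7) :=
    four_abs four' (hB _) he0 (by rw [he]; linarith)
      le_rfl (tri3 (hneg a7) (hce 7 (by decide)) (hab e2) (hab e3) (hab e4))
  have hc10 : |coF F n i j 10| ≤ B'.d n ^ (-ε) * (B.d n ^ X n 10 * B'.d n ^ p 10) := by
    have h0 : (0 : ℝ) ≤ B'.d n ^ (-e) * (B.d n ^ X n 10 * B'.d n ^ p 10) :=
      mul_nonneg (hd _).le (mul_nonneg (hB _).le (hd _).le)
    refine four_abs four' (hB _) he0 (by rw [he]; linarith)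
      le_rfl (tri3 (c := -(h n 3 * (coF F n i j 8 * coF F n i j 8)))
        (d := 0) (e := 0) ?_ (hce 10 (by decide)) (hab e1) (by simpa using h0)
        (by simpa using h0))
    rw [add_zero, add_zero]
    change coQ (F n i) (F n j) 10 = coQ (rg (h n) (F n i)) (rg (h n) (F n j)) 10 - _
    rw [a10]
    unfold coF
    ring
  have hc3 : |coF F n i j 3| ≤ B'.d n ^ (-ε) * (B.d n ^ X n 3 * B'.d n ^ p 3) := by
    have h0 : (0 : ℝ) ≤ B'.d n ^ (-e) * (B.d n ^ X n 3 * B'.d n ^ p 3) :=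
      mul_nonneg (hd _).le (mul_nonneg (hB _).le (hd _).le)
    refine four_abs four' (hB _) he0 (by rw [he]; linarith)
      le_rfl (tri3 (b := coG F h n i j 3) (c := -(h n 2 * coF F n i j 0))
        (d := 0) (e := 0) ?_ (hce 3 (by decide)) (hab ?_) (by simpa using h0)
        (by simpa using h0))
    · rw [add_zero, add_zero]
      change coQ (F n i) (F n j) 3 = coQ (rg (h n) (F n i)) (rg (h n) (F n j)) 3 - _
      rw [a3]
      unfold coF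
      ring
    · rw [abs_mul]
      have k0 : |coF F n i j 0| ≤ B'.d n ^ (-(e / 2)) * (B.d n ^ X n 0 * B'.d n ^ p 0) := by
        have := hcp (e / 2) (min_le_right _ _) 0 (by decide)
        rwa [show coG F h n i j 0 = coF F n i j 0 from a0] at this
      calc |h n 2| * |coF F n i j 0|
          ≤ |h n 2| * (B'.d n ^ (-(e / 2)) * (B.d n ^ X n 0 * B'.d n ^ p 0)) :=
            mul_le_mul_of_nonneg_left k0 (abs_nonneg _)
        _ = (|h n 2| * B.d n ^ X n 0) * (B'.d n ^ (-(e / 2)) * B'.d n ^ p 0) := by ring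
        _ ≤ (B'.d n ^ (-(e / 2)) * B.d n ^ X n 3) * (B'.d n ^ (-(e / 2)) * B'.d n ^ p 0) :=
            mul_le_mul_of_nonneg_right b2 (mul_nonneg (hd _).le (hd _).le)
        _ = B.d n ^ X n 3 * B'.d n ^ (-(e / 2) + (-(e / 2) + p 0)) := by
            rw [← hda, ← hda]; ring
        _ ≤ B.d n ^ X n 3 * B'.d n ^ (-e + p 3) :=
            mul_le_mul_of_nonneg_left (hdm (by linarith)) (hB _).le
        _ = _ := by rw [← hda]; ring
  intro k k1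
  fin_cases k
  · exact hun 0 k1 a0
  · exact absurd rfl k1
  · exact hun 2 k1 a2
  · exact hc3
  · exact hc4
  · exact hun 5 k1 a5
  · exact hun 6 k1 a6
  · exact hc7
  · exact hun 8 k1 a8
  · exact hun 9 k1 a9
  · exact hc10

end Crest.Agent.R136.Gz779
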