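import Crest.Agent.R136.Geo3_186

/-!
# R136, [GEO-D] for the straight chart, finite part (helper186)

`gd_sheet` : the lines of a chart box around an incidence are contained in one sheet of 605's class
(in the original coordinates of `ℝ³`), with Lipschitz constant `1`.
-/

set_option autoImplicit false
set_option linter.unusedVariables false

namespace Crest.Agent.R136.GeoQ186

open Crest.Agent.R136.NetQ186
open Crest.Agent.R136.Sh605

/-- permuted coordinates -/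
def pv (π : Equiv.Perm (Fin 3)) (x : V3) : V3 := fun k => x (π k)

theorem dt_pv (π : Equiv.Perm (Fin 3)) (x y : V3) : dt (pv π x) (pv π y) = dt x y := by
  rw [dt_perm π x y]; rfl

theorem pv_symm (π : Equiv.Perm (Fin 3)) (x : V3) : pv π (pv π.symm x) = x := by
  funext k; simp [pv]

theorem dt_pvs (π : Equiv.Perm (Fin 3)) (e x : V3) : dt (pv π.symm e) x = dt e (pv π x) := by
  rw [← dt_pv π (pv π.symm e) x, pv_symm]

theorem pv_sub (π : Equiv.Perm (Fin 3)) (x y : V3) : pv π (x - y) = pv π x - pv π y := rfl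

theorem pv_pos (π : Equiv.Perm (Fin 3)) (t : Ln4) (z : ℝ) : pv π (t.pos z) = (cLn π t).pos z := rfl

/-- the frame in the original coordinates -/
def fpv (π : Equiv.Perm (Fin 3)) (e : Fin 3 → V3) : Fin 3 → V3 := fun k => pv π.symm (e k)

/-- the function in the original coordinates -/
def qpv (π : Equiv.Perm (Fin 3)) (q : ℝ → V3 → ℝ) : ℝ → V3 → ℝ := fun z x => q z (pv π x)

theorem inK_perm {π : Equiv.Perm (Fin 3)} {e : Fin 3 → V3} {c : Ln4} {w : V3} {z : ℝ} {x : V3} :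
    InK (fpv π e) c w z x ↔ InK e (cLn π c) w z (pv π x) := by
  unfold InK fpv
  simp only [dt_pvs, pv_sub, pv_pos]

theorem lipK_perm {π : Equiv.Perm (Fin 3)} {e : Fin 3 → V3} {c : Ln4} {w : V3} {q : ℝ → V3 → ℝ}
    {z0 ρ Λ : ℝ} (h : LipK q e (cLn π c) w z0 ρ Λ) : LipK (qpv π q) (fpv π e) c w z0 ρ Λ := by
  intro z hz hz' x x' hx hx'
  refine (h z hz hz' _ _ (inK_perm.1 hx) (inK_perm.1 hx')).trans (le_of_eq ?_)
  have := Equiv.sum_comp π fun k => |x k - x' k|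
  simp only [Fin.sum_univ_three] at this
  simp only [pv]
  rw [this]

theorem sheet_perm {π : Equiv.Perm (Fin 3)} {e : Fin 3 → V3} {c : Ln4} {w : V3}
    {q : ℝ → V3 → ℝ} {a z0 ρ r0 : ℝ} (h : Sheet e (cLn π c) w q a z0 ρ r0) :
    Sheet (fpv π e) c w (qpv π q) a z0 ρ r0 where
  ortho := by
    intro i j
    have := h.ortho i j
    rw [← this]
    show dt (pv π.symm (e i)) (pv π.symm (e j)) = _
    rw [dt_pv]
  isQ := by
    obtain ⟨c0, c1, c2, b, d, g, hq⟩ := h.isQ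
    refine ⟨c0, c1, c2, fun i => b (π.symm i), fun i => d (π.symm i),
      fun i j => g (π.symm i) (π.symm j), fun z x => ?_⟩
    have e1 : qpv π q z x = q z (pv π x) := rfl
    rw [e1, hq]
    congr 1
    · congr 1
      rw [← Equiv.sum_comp π fun i => (b (π.symm i) + d (π.symm i) * z) * x i]
      simp [pv]
    · rw [← Equiv.sum_comp π fun i => ∑ j, g (π.symm i) (π.symm j) * (x i * x j)]
      refine Finset.sum_congr rfl fun i _ => ?_
      rw [← Equiv.sum_comp π fun j => g (π.symm (π i)) (π.symm j) * (x (π i) * x j)]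
      simp [pv]
  steep := by
    intro z hz hz' x τ hτ hx hx'
    have e1 : pv π (x + τ • fpv π e 0) = pv π x + τ • e 0 := by
      funext k; simp [pv, fpv]
    have := h.steep z hz hz' (pv π x) τ hτ (inK_perm.1 hx) (by rw [← e1]; exact inK_perm.1 hx')
    show τ / 2 ≤ q z (pv π (x + τ • fpv π e 0)) - q z (pv π x) ∧
      q z (pv π (x + τ • fpv π e 0)) - q z (pv π x) ≤ 2 * τ
    rw [e1]
    exact this
  a_le := h.a_le
  w_le := h.w_le
  r0_le := h.r0_le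
  res := by
    obtain ⟨Λ, h0, h1, h2⟩ := h.res
    exact ⟨Λ, h0, lipK_perm h1, h2⟩

theorem inSheet_perm {π : Equiv.Perm (Fin 3)} {e : Fin 3 → V3} {t c : Ln4} {w : V3}
    {q : ℝ → V3 → ℝ} {a z0 ρ : ℝ} :
    InSheet t (fpv π e) c w (qpv π q) a z0 ρ ↔ InSheet (cLn π t) e (cLn π c) w q a z0 ρ := by
  unfold InSheet
  refine forall_congr' fun z => forall_congr' fun _ => forall_congr' fun _ => ?_
  rw [inK_perm]
  rfl

/-- a bound of an affine function on a window -/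
theorem aff_bd (p v z0 ρ : ℝ) : ∃ X : ℝ, 0 ≤ X ∧ ∀ z, z0 ≤ z → z ≤ z0 + ρ → |p + z * v| ≤ X := by
  refine ⟨|p| + (|z0| + |z0 + ρ|) * |v|, by positivity, fun z h1 h2 => ?_⟩
  have hz : |z| ≤ |z0| + |z0 + ρ| := by
    rw [abs_le]
    constructor
    · have := neg_abs_le z0
      have := abs_nonneg (z0 + ρ)
      linarith
    · have := le_abs_self (z0 + ρ)
      have := abs_nonneg z0
      linarith
  exact aux_a2 le_rfl (aux_m2 hz le_rfl)

section

variable {π : Equiv.Perm (Fin 3)} {c : Ln4} {zi ei Fa Fb H Wa Wb Wy z0 ρ ρ' r0 w1 w2 a : ℝ}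
  {b : Fin 11 → ℝ}

/-- **[GEO-D], finite form.** -/
theorem gd_sheet (he : |ei| ≤ 1) (hFa : |Fa| ≤ 1) (hFb : |Fb| ≤ 1) (hH : 0 < H) (ha : 0 < Wa)
    (hb : 0 < Wb) (hy : 0 < Wy) (hρ : ∀ z, z0 ≤ z → z ≤ z0 + ρ → |z - zi| ≤ ρ')
    (h1 : 2 * (Wa / H * (b 8 + H * ρ' * b 5)) + Wb / H * (b 9 + H * ρ' * b 6) ≤ w1)
    (h2 : Wb / H * (b 9 + H * ρ' * b 6) ≤ w2)
    (h0 : Wy / H * (b 10 + H * ρ' * b 7 + (H * ρ') ^ 2 * b 1) ≤ a)
    (haw : a ≤ w2) (hww : w2 ≤ w1) (hr : r0 ≤ a) :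
    ∃ (e : Fin 3 → V3) (w : V3) (q : ℝ → V3 → ℝ), w 1 = w1 ∧ w 2 = w2 ∧ Sheet e c w q a z0 ρ r0 ∧
      LipK q e c (dbl w) z0 ρ 1 ∧
      ∀ (t : Ln4) (zj ej Ga Gb : ℝ),
        (∀ k, |coQ (scl H Wa Wb Wy (mkT (cLn π c) zi ei Fa Fb))
          (scl H Wa Wb Wy (mkT (cLn π t) zj ej Ga Gb)) k| ≤ b k) →
        InSheet t e c w q a z0 ρ := by
  set i : Fq4 := mkT (cLn π c) zi ei Fa Fb with hi
  set w0 : ℝ := a + (2 * (Wa / H * (b 8 + H * ρ' * b 5)) + Wb / H * (b 9 + H * ρ' * b 6)) with hw0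
  set w : V3 := ![w0, w1, w2] with hw
  have e1 : w 1 = w1 := rfl
  have e2 : w 2 = w2 := rfl
  have ht : TrueLn 0 i (cLn π c) := trueLn_mkT _ _ _ _ _
  have hG : ∀ k : Fin 6, |(0 : Fin 6 → ℝ) k| ≤ 0 := fun k => by simp
  -- bounds on the window
  obtain ⟨R, hR0, hR⟩ := aff_bd 0 1 z0 ρ
  have hR' : ∀ z, z0 ≤ z → z ≤ z0 + ρ → |z| ≤ R := fun z h1 h2 => by
    have := hR z h1 h2; simpa using this
  obtain ⟨X1, hX10, hX1⟩ := aff_bd i.A i.ca z0 ρ
  obtain ⟨X2, hX20, hX2⟩ := aff_bd i.B i.cb z0 ρ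
  have hS : Sheet (frm i.e) (cLn π c) w (qf 0 i) a z0 ρ r0 := by
    refine sheetQ (G := 0) (R := R) (X := X1 + X2 + |2 * w 1 + 2 * w 2|) ht he hFa hFb hG hR'
      (fun z h1 h2 => ?_) (by simp) (by rw [e2]; exact haw) (by rw [e1, e2]; exact hww) hr
      (by simpa using hr)
    have k1 := hX1 z h1 h2
    have k2 := hX2 z h1 h2
    have k3 := le_abs_self (2 * w 1 + 2 * w 2)
    constructor
    · show |i.A + z * i.ca| + _ ≤ _
      linarith
    · show |i.B + z * i.cb| + _ ≤ _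
      linarith
  have hL : LipK (qf 0 i) (frm i.e) (cLn π c) (dbl w) z0 ρ 1 := by
    intro z h1 h2 x x' hx hx'
    have hX : ∀ y : V3, |y 1| ≤ |x 1| + |x 2| + |x' 1| + |x' 2| ∨ True := fun _ => Or.inr trivial
    have n1 := abs_nonneg (x 1)
    have n2 := abs_nonneg (x 2)
    have n3 := abs_nonneg (x' 1)
    have n4 := abs_nonneg (x' 2)
    have := qf_lip (i := i) (G := 0) (R := R) (X := |x 1| + |x 2| + |x' 1| + |x' 2|) hG hFa hFb
      (hR' z h1 h2) (x := x) (x' := x') (by linarith) (by linarith) (by linarith) (by linarith)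
    simpa using this
  refine ⟨fpv π (frm i.e), w, qpv π (qf 0 i), e1, e2, sheet_perm hS, lipK_perm hL, ?_⟩
  intro t zj ej Ga Gb hb'
  set j : Fq4 := mkT (cLn π t) zj ej Ga Gb with hj
  have ht' : TrueLn 0 j (cLn π t) := trueLn_mkT _ _ _ _ _
  rw [inSheet_perm]
  -- bounds in the true units
  have hf : ∀ k, 0 < sfac H Wa Wb Wy k := by
    intro k
    fin_cases k <;> simp [sfac] <;> positivity
  have hs : ∀ k, |coQ i j k| ≤ b k / sfac H Wa Wb Wy k := by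
    intro k
    have := hb' k
    rw [coQ_scl hH.ne' ha.ne' hb.ne' hy.ne', abs_mul, abs_of_pos (hf k)] at this
    rw [le_div_iff₀ (hf k)]
    linarith
  have s1 : b 1 / sfac H Wa Wb Wy 1 = H * Wy * b 1 := by simp [sfac]; field_simp
  have s5 : b 5 / sfac H Wa Wb Wy 5 = Wa * b 5 := by simp [sfac]; field_simp
  have s6 : b 6 / sfac H Wa Wb Wy 6 = Wb * b 6 := by simp [sfac]; field_simp
  have s7 : b 7 / sfac H Wa Wb Wy 7 = Wy * b 7 := by simp [sfac]; field_simp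
  have s8 : b 8 / sfac H Wa Wb Wy 8 = Wa / H * b 8 := by simp [sfac]; field_simp
  have s9 : b 9 / sfac H Wa Wb Wy 9 = Wb / H * b 9 := by simp [sfac]; field_simp
  have s10 : b 10 / sfac H Wa Wb Wy 10 = Wy / H * b 10 := by simp [sfac]; field_simp
  have c8 : b 8 / sfac H Wa Wb Wy 8 + ρ' * (b 5 / sfac H Wa Wb Wy 5) =
      Wa / H * (b 8 + H * ρ' * b 5) := by rw [s8, s5]; field_simp
  have c9 : b 9 / sfac H Wa Wb Wy 9 + ρ' * (b 6 / sfac H Wa Wb Wy 6) =
      Wb / H * (b 9 + H * ρ' * b 6) := by rw [s9, s6]; field_simp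
  have c10 : b 10 / sfac H Wa Wb Wy 10 + ρ' * (b 7 / sfac H Wa Wb Wy 7) +
      ρ' ^ 2 * (b 1 / sfac H Wa Wb Wy 1) =
      Wy / H * (b 10 + H * ρ' * b 7 + (H * ρ') ^ 2 * b 1) := by rw [s10, s7, s1]; field_simp
  obtain ⟨Y1, hY10, hY1⟩ := aff_bd j.A j.ca z0 ρ
  obtain ⟨Y2, hY20, hY2⟩ := aff_bd j.B j.cb z0 ρ
  refine box_inSheet (G := 0) (R := R) (X := X1 + X2 + Y1 + Y2) (ρ' := ρ') ht ht' he hFa hFb hG hs
    hR' (fun z h1 h2 => ?_) hρ ?_ ?_ ?_ ?_
  · have k1 := hX1 z h1 h2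
    have k2 := hX2 z h1 h2
    have k3 := hY1 z h1 h2
    have k4 := hY2 z h1 h2
    refine ⟨?_, ?_, ?_, ?_⟩
    · show |i.A + z * i.ca| ≤ _
      linarith
    · show |i.B + z * i.cb| ≤ _
      linarith
    · show |j.A + z * j.ca| ≤ _
      linarith
    · show |j.B + z * j.cb| ≤ _
      linarith
  · rw [c8, c9, e1]; exact h1
  · rw [c9, e2]; exact h2
  · rw [c10]; exact h0
  · rw [c8, c9, zero_mul, add_zero, one_mul]
    exact le_rfl

end

end Crest.Agent.R136.GeoQ186
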