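import Mathlib
import Crest.Agent.R136.Lq1_196
import Crest.Agent.R136.TD1_627
import Crest.Agent.R136.GD1_186
import Crest.Agent.R136.ArgA1_163

/-!
# R136, wrapper `J2 → PreQ` for the straight chart `coQ` (helper638), part 1: definitions

Widths of the marks: `w 0` = thickness, `w 1` = wide, `w 2` = narrow; linear exponents
`θ 0, θ 1, θ 2`; rewards `q 0, q 1, q 2` relative to `rho`.

* `incQ` : incidence of `coQ` (line number, height, slopes `eE, fA, fB` of the flag);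
* units `uH, uA, uB, uY` = `(height, wide angle, narrow angle, normal angle)` of the level-`0` mark,
  enlarged by the graded powers `w0, -w0, -2 w0, -3 w0` of `d`;
* `couQ` : the chart in these units;
* `pathQ` record path, `ownQ` own path, `DQ` density exponent of a box, `EQ` record exponent.
-/

set_option autoImplicit false
set_option linter.unusedVariables false

open Finset Filter Topology

namespace Crest.Agent.R136.Wq638

open Crest.Agent.R138.Ex926 (Base U)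
open Crest.Agent.R138.Dp76 (dpow_pos dpow_add dpow_le dpow_le_one)
open Crest.Agent.R138.Mk163 (zc zl rho alive)
open Crest.Agent.R138.MkRef627 (lc kc)
open Crest.Agent.R136.MkA627
open Crest.Agent.R136.Net191
open Crest.Agent.R136.NetQ186
open Crest.Agent.R136.GeoQ186
open Crest.Agent.R136.Sh605 (Ln4 V3)
open Crest.Agent.R136.TD627 (TDist)

/-- the incidence `x` = (line number, height) with the slopes of its flag -/
noncomputable def incQ (π : Equiv.Perm (Fin 3)) (L : ℕ → ℕ → Ln4) (eE fA fB : ℕ → ℕ × ℝ → ℝ)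
    (n : ℕ) (x : ℕ × ℝ) : Fq4 := mkT (cLn π (L n x.1)) x.2 (eE n x) (fA n x) (fB n x)

/-- unit of the height -/
noncomputable def uH (B : Base) (lev : ℕ → ℚ → ℕ) (w0 : ℝ) (n : ℕ) : ℝ :=
  B.d n ^ w0 * 2 ^ (lev n 0)
/-- unit of the wide angle -/
noncomputable def uA (B : Base) (lev : ℕ → ℚ → ℕ) (w : Fin 3 → ℕ → ℚ → ℝ) (w0 : ℝ) (n : ℕ) : ℝ :=
  w 1 n 0 / rho (lev n 0) * B.d n ^ (-w0)
/-- unit of the narrow angle -/
noncomputable def uB (B : Base) (lev : ℕ → ℚ → ℕ) (w : Fin 3 → ℕ → ℚ → ℝ) (w0 : ℝ) (n : ℕ) : ℝ :=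
  w 2 n 0 / rho (lev n 0) * B.d n ^ (-(2 * w0))
/-- unit of the normal angle -/
noncomputable def uY (B : Base) (lev : ℕ → ℚ → ℕ) (w : Fin 3 → ℕ → ℚ → ℝ) (w0 : ℝ) (n : ℕ) : ℝ :=
  w 0 n 0 / rho (lev n 0) * B.d n ^ (-(3 * w0))

/-- the chart in the enlarged units -/
noncomputable def couQ (B : Base) (lev : ℕ → ℚ → ℕ) (w : Fin 3 → ℕ → ℚ → ℝ) (w0 : ℝ)
    (F : ℕ → ℕ × ℝ → Fq4) (n : ℕ) (x y : ℕ × ℝ) : Fin 11 → ℝ :=
  coQ (scl (uH B lev w0 n) (uA B lev w w0 n) (uB B lev w w0 n) (uY B lev w w0 n) (F n x))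
    (scl (uH B lev w0 n) (uA B lev w w0 n) (uB B lev w w0 n) (uY B lev w w0 n) (F n y))

/-- record path: exponents of the box of the marks of level `v` -/
noncomputable def pathQ (θ : Fin 3 → ℝ) (w0 R v : ℝ) : Fin 11 → ℝ :=
  ![w0 + v, R, w0 + (θ 1 - θ 2) * v, w0 + (θ 2 - θ 0) * v, 2 * w0 + (θ 1 - θ 0) * v,
    w0 - θ 1 * v, 2 * w0 - θ 2 * v, 3 * w0 - θ 0 * v,
    2 * w0 + (1 - θ 1) * v, 3 * w0 + (1 - θ 2) * v, 4 * w0 + (1 - θ 0) * v]

open Classical in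
/-- own path: `V k` = slot `k ∈ {2,3,4}` is visible (tied or capped) -/
noncomputable def ownQ (θ : Fin 3 → ℝ) (w0 R : ℝ) (V : Fin 11 → Prop) (v : ℝ) : Fin 11 → ℝ :=
  fun k => if k = 0 then w0 + v else if V k then pathQ θ w0 R v k else R

/-- exponent of the number of incidences in a box -/
noncomputable def DQ (g s : ℝ) (q : Fin 3 → ℝ) (w0 : ℝ) (p : Fin 11 → ℝ) : ℝ :=
  g * (p 0 - w0) + (1 - s) * (1 - (p 0 - w0)) -
    ((p 10 - 4 * w0) + (p 9 - 3 * w0) + (p 8 - 2 * w0)) -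
    q 0 * (p 10 - p 0 - 3 * w0) - q 1 * (p 8 - p 0 - w0) - q 2 * (p 9 - p 0 - 2 * w0)

/-- exponent of the number of incidences in the marked classes -/
noncomputable def EQ (θ : Fin 3 → ℝ) (g s : ℝ) (q : Fin 3 → ℝ) (w0 R v : ℝ) : ℝ :=
  DQ g s q w0 (pathQ θ w0 R v)

/-- normalisation of the counts -/
noncomputable def N0Q (A : ℕ → ℝ) (vm : ℕ → ℚ → ℝ) (n : ℕ) : ℝ := A n * vm n 0

/-- penalised volume, `a = x 0` thickness, `x 1` wide, `x 2` narrow -/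
noncomputable def capQ (q : Fin 3 → ℝ) (ρ : ℝ) (x : Fin 3 → ℝ) : ℝ :=
  x 0 * x 2 * x 1 * ((x 0 / ρ) ^ q 0 * (x 1 / ρ) ^ q 1 * (x 2 / ρ) ^ q 2)

theorem EQ_eq (θ : Fin 3 → ℝ) (g s : ℝ) (q : Fin 3 → ℝ) (w0 R v : ℝ) :
    EQ θ g s q w0 R v = g * v + (1 - s) * (1 - v) - (3 - θ 0 - θ 1 - θ 2) * v +
      (q 0 * θ 0 + q 1 * θ 1 + q 2 * θ 2) * v := by
  simp only [EQ, DQ, pathQ, Matrix.cons_val]
  ring

section

variable {B : Base} {lev : ℕ → ℚ → ℕ} {w : Fin 3 → ℕ → ℚ → ℝ} {w0 : ℝ} {F : ℕ → ℕ × ℝ → Fq4}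

theorem rho_pos (i : ℕ) : 0 < rho i := by unfold rho; positivity

theorem uH_pos (n : ℕ) : 0 < uH B lev w0 n := mul_pos (dpow_pos B n _) (by positivity)

theorem uA_pos {n : ℕ} (h : 0 < w 1 n 0) : 0 < uA B lev w w0 n :=
  mul_pos (div_pos h (rho_pos _)) (dpow_pos B n _)

theorem uB_pos {n : ℕ} (h : 0 < w 2 n 0) : 0 < uB B lev w w0 n :=
  mul_pos (div_pos h (rho_pos _)) (dpow_pos B n _)

theorem uY_pos {n : ℕ} (h : 0 < w 0 n 0) : 0 < uY B lev w w0 n :=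
  mul_pos (div_pos h (rho_pos _)) (dpow_pos B n _)

/-- **chart** -/
theorem chart_couQ (n : ℕ) (I : Finset (ℕ × ℝ)) : Chart I (couQ B lev w w0 F n) monQ 2 :=
  chartQ I fun x => scl (uH B lev w0 n) (uA B lev w w0 n) (uB B lev w w0 n) (uY B lev w w0 n) (F n x)

end

end Crest.Agent.R136.Wq638
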