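import Crest.Agent.R136.GBx_779
import Crest.Agent.R136.Gz1_779
import Crest.Agent.R136.Wq1_638

/-!
# R136: a box of the gauge chart in 638's units is one sheet per cell (helper779)

`hR` : the gauge in real units, `scl_rg`; `stage_sheet` : one stage, all hypotheses are inequalities
between numbers.
-/

set_option autoImplicit false
set_option linter.unusedVariables false
set_option linter.unusedSectionVars false

namespace Crest.Agent.R136.Dmx779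

open Crest.Agent.R136.NetQ186
open Crest.Agent.R136.GeoQ186
open Crest.Agent.R136.End882
open Crest.Agent.R136.K4
open Crest.Agent.R136.Gz779 (tau)
open Crest.Agent.R136.Sh605 hiding frm

/-- the gauge in real units -/
noncomputable def hR (H Wa Wb Wy : ℝ) (h : Fin 6 → ℝ) : Fin 6 → ℝ :=
  ![H * Wy * h 0, H * Wy / Wa * h 1, H * Wy / Wb * h 2, H * Wy / Wa ^ 2 * h 3,
    H * Wy / (Wa * Wb) * h 4, H * Wy / Wb ^ 2 * h 5]

section

variable {H Wa Wb Wy : ℝ}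

/-- the gauge commutes with the units -/
theorem scl_rg (hH : H ≠ 0) (ha : Wa ≠ 0) (hb : Wb ≠ 0) (hy : Wy ≠ 0) (h : Fin 6 → ℝ) (i : Fq4) :
    scl H Wa Wb Wy (rg (hR H Wa Wb Wy h) i) = rg h (scl H Wa Wb Wy i) := by
  cases i
  simp only [scl, rg, hR, gA, gB, Fq4.pa, Fq4.pb, Matrix.cons_val, Fq4.mk.injEq, true_and]
  refine ⟨?_, ?_, ?_, ?_, ?_⟩ <;> field_simp

theorem tau_hR (hH : H ≠ 0) (ha : Wa ≠ 0) (hb : Wb ≠ 0) (hy : Wy ≠ 0) (h : Fin 6 → ℝ) (i : Fq4) :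
    tau (hR H Wa Wb Wy h) i = H * Wy / Wa * tau h (scl H Wa Wb Wy i) := by
  simp only [tau, hR, scl, Matrix.cons_val]
  field_simp

/-- the box of the gauge chart in real units -/
theorem coQ_real (hH : 0 < H) (ha : 0 < Wa) (hb : 0 < Wb) (hy : 0 < Wy) (h : Fin 6 → ℝ)
    {i j : Fq4} {b : ℝ} {k : Fin 11}
    (hb' : |coQ (rg h (scl H Wa Wb Wy i)) (rg h (scl H Wa Wb Wy j)) k| ≤ b) :
    |coQ (rg (hR H Wa Wb Wy h) i) (rg (hR H Wa Wb Wy h) j) k| ≤ b / sfac H Wa Wb Wy k := by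
  have hf : 0 < sfac H Wa Wb Wy k := by
    fin_cases k <;> simp [sfac] <;> positivity
  rw [← scl_rg hH.ne' ha.ne' hb.ne' hy.ne', ← scl_rg hH.ne' ha.ne' hb.ne' hy.ne',
    coQ_scl hH.ne' ha.ne' hb.ne' hy.ne', abs_mul, abs_of_pos hf] at hb'
  rw [le_div_iff₀ hf]
  linarith

end

theorem wid_lin {K X s8 s5 ρ : ℝ} (hK : 1 ≤ K) (hX : 0 ≤ X) (e8 : s8 = K * X)
    (b5 : ρ * s5 ≤ 2 * K ^ 2 * X) : s8 + 2 * ρ * s5 ≤ 5 * K ^ 2 * X := by
  have hK2 : K ≤ K ^ 2 := by nlinarith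
  have h2 : K * X ≤ K ^ 2 * X := mul_le_mul_of_nonneg_right hK2 hX
  rw [e8]
  linarith

theorem wid_cub {K X t : ℝ} (hK : 1 ≤ K) (hX : 0 ≤ X) (ht : t ≤ 25 / 2 * K ^ 2 * X) :
    t ≤ 21 * K ^ 3 * X := by
  have hK3 : K ^ 2 ≤ K ^ 3 := by nlinarith [sq_nonneg K]
  have h1 : K ^ 2 * X ≤ K ^ 3 * X := mul_le_mul_of_nonneg_right hK3 hX
  have h2 : 0 ≤ K ^ 3 * X := by positivity
  linarith

section stage

variable {π : Equiv.Perm (Fin 3)} {H Wa Wb Wy K C1 x ρ z0 r0 zi ei Fa Fb : ℝ} {c : Ln4}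
  {h : Fin 6 → ℝ} {S : Fin 11 → ℝ}

/-- **one stage: the box with unit sizes `S` around `i` is one sheet over a cell near `i`** -/
theorem stage_sheet (hH : 0 < H) (ha : 0 < Wa) (hb : 0 < Wb) (hy : 0 < Wy)
    (he : |ei| ≤ 1) (hFa : |Fa| ≤ 1) (hFb : |Fb| ≤ 1) (h4 : h 4 = 0) (h5 : h 5 = 0)
    (hS : ∀ k, 0 < S k) (hK : 1 ≤ K) (hC1 : C1 = 21 * K ^ 3)
    (w8 : S 0 * S 5 ≤ S 8) (w9 : S 0 * S 6 ≤ S 9) (w10 : S 0 * S 7 ≤ S 10) (w7 : S 0 * S 1 ≤ S 7)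
    (hρ0 : 0 ≤ ρ) (hρ : ρ ≤ 2 * K * S 0 / H)
    (hz : ∀ z, z0 ≤ z → z ≤ z0 + ρ → |z - zi| ≤ 2 * ρ)
    (gE : Wb * S 9 ≤ Wa * S 8) (gF : Wy * S 10 ≤ Wb * S 9)
    (hr : 6 * r0 ≤ C1 * (Wy / H * S 10))
    (t1 : 2 * K * (Wy * |tau h (scl H Wa Wb Wy (mkT (cLn π c) zi ei Fa Fb))| * S 0 * S 8) ≤
      1 / 4096 * (Wb * S 9))
    (t2 : 2 * K * (Wy * |h 2| * S 0) ≤ 1 / 4096 * Wb)
    (t3 : C1 * (Wy * |h 3| * S 8 * S 8) ≤ 1 / 4096 * (Wb * S 9))
    (t4 : C1 * (Wy * |h 3| * S 8) ≤ 1 / 4096 * Wa) :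
    ∃ t : Plk4, ShN t.e t.c t.w t.q t.a z0 ρ r0 ∧ 0 ≤ t.a ∧ t.a ≤ C1 * (Wy / H * S 10) ∧
      C1 * (Wy / H * S 10) / 6 ≤ t.a ∧ t.w 1 = 12 * (C1 * (Wa / H * S 8)) ∧ t.w 2 = 10 * (C1 * (Wb / H * S 9)) ∧
      ∀ (l : Ln4) (zj ej Ga Gb : ℝ),
        (∀ k, |coQ (rg h (scl H Wa Wb Wy (mkT (cLn π c) zi ei Fa Fb)))
          (rg h (scl H Wa Wb Wy (mkT (cLn π l) zj ej Ga Gb))) k| ≤ K * S k) →
        InSheet l t.e t.c t.w t.q t.a z0 ρ := by
  set f : Fq4 := mkT (cLn π c) zi ei Fa Fb with hf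
  set g : Fin 6 → ℝ := hR H Wa Wb Wy h with hg
  have hK0 : 0 < K := by linarith
  have hK2 : K ≤ K ^ 2 := by nlinarith
  have hK3 : K ^ 2 ≤ K ^ 3 := by nlinarith [sq_nonneg K]
  have hC : 0 < C1 := by rw [hC1]; positivity
  have p8 : 0 < Wa / H * S 8 := mul_pos (div_pos ha hH) (hS 8)
  have p9 : 0 < Wb / H * S 9 := mul_pos (div_pos hb hH) (hS 9)
  have p10 : 0 < Wy / H * S 10 := mul_pos (div_pos hy hH) (hS 10)
  have hsf : ∀ k, 0 < sfac H Wa Wb Wy k := by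
    intro k
    fin_cases k <;> simp [sfac] <;> positivity
  set s : Fin 11 → ℝ := fun k => K * S k / sfac H Wa Wb Wy k with hs
  have s0 : ∀ k, 0 ≤ s k := fun k => (div_pos (mul_pos hK0 (hS k)) (hsf k)).le
  have e1 : s 1 = K * (H * Wy * S 1) := by simp [hs, sfac]; field_simp
  have e5 : s 5 = K * (Wa * S 5) := by simp [hs, sfac]; ring
  have e6 : s 6 = K * (Wb * S 6) := by simp [hs, sfac]; ring
  have e7 : s 7 = K * (Wy * S 7) := by simp [hs, sfac]; ring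
  have e8 : s 8 = K * (Wa / H * S 8) := by simp [hs, sfac]; field_simp
  have e9 : s 9 = K * (Wb / H * S 9) := by simp [hs, sfac]; field_simp
  have e10 : s 10 = K * (Wy / H * S 10) := by simp [hs, sfac]; field_simp
  -- slopes of the box
  have b5 : ρ * s 5 ≤ 2 * K ^ 2 * (Wa / H * S 8) := by
    rw [e5]
    calc ρ * (K * (Wa * S 5)) ≤ 2 * K * S 0 / H * (K * (Wa * S 5)) :=
          mul_le_mul_of_nonneg_right hρ (by have := hS 5; positivity)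
      _ = 2 * K ^ 2 * (Wa / H) * (S 0 * S 5) := by ring
      _ ≤ 2 * K ^ 2 * (Wa / H) * S 8 := mul_le_mul_of_nonneg_left w8 (by positivity)
      _ = _ := by ring
  have b6 : ρ * s 6 ≤ 2 * K ^ 2 * (Wb / H * S 9) := by
    rw [e6]
    calc ρ * (K * (Wb * S 6)) ≤ 2 * K * S 0 / H * (K * (Wb * S 6)) :=
          mul_le_mul_of_nonneg_right hρ (by have := hS 6; positivity)
      _ = 2 * K ^ 2 * (Wb / H) * (S 0 * S 6) := by ring
      _ ≤ 2 * K ^ 2 * (Wb / H) * S 9 := mul_le_mul_of_nonneg_left w9 (by positivity)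
      _ = _ := by ring
  have b7 : ρ * s 7 ≤ 2 * K ^ 2 * (Wy / H * S 10) := by
    rw [e7]
    calc ρ * (K * (Wy * S 7)) ≤ 2 * K * S 0 / H * (K * (Wy * S 7)) :=
          mul_le_mul_of_nonneg_right hρ (by have := hS 7; positivity)
      _ = 2 * K ^ 2 * (Wy / H) * (S 0 * S 7) := by ring
      _ ≤ 2 * K ^ 2 * (Wy / H) * S 10 := mul_le_mul_of_nonneg_left w10 (by positivity)
      _ = _ := by ring
  have b1 : ρ ^ 2 * s 1 ≤ 4 * K ^ 3 * (Wy / H * S 10) := by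
    rw [e1]
    have h01 : S 0 * (S 0 * S 1) ≤ S 10 :=
      (mul_le_mul_of_nonneg_left w7 (hS 0).le).trans w10
    calc ρ ^ 2 * (K * (H * Wy * S 1)) ≤ (2 * K * S 0 / H) ^ 2 * (K * (H * Wy * S 1)) :=
          mul_le_mul_of_nonneg_right (pow_le_pow_left₀ hρ0 hρ 2) (by have := hS 1; positivity)
      _ = 4 * K ^ 3 * (Wy / H) * (S 0 * (S 0 * S 1)) := by field_simp; ring
      _ ≤ 4 * K ^ 3 * (Wy / H) * S 10 := mul_le_mul_of_nonneg_left h01 (by positivity)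
      _ = _ := by ring
  -- the three widths
  set A : ℝ := C1 * (Wa / H * S 8) with hAd
  set B : ℝ := C1 * (Wb / H * S 9) with hBd
  set a : ℝ := C1 * (Wy / H * S 10) with had
  have gE' : Wb / H * S 9 ≤ Wa / H * S 8 := by
    calc Wb / H * S 9 = Wb * S 9 / H := by ring
      _ ≤ Wa * S 8 / H := div_le_div_of_nonneg_right gE hH.le
      _ = _ := by ring
  have gF' : Wy / H * S 10 ≤ Wb / H * S 9 := by
    calc Wy / H * S 10 = Wy * S 10 / H := by ring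
      _ ≤ Wb * S 9 / H := div_le_div_of_nonneg_right gF hH.le
      _ = _ := by ring
  have l8 := wid_lin hK p8.le e8 b5
  have l9 := wid_lin hK p9.le e9 b6
  have l10 := wid_lin hK p10.le e10 b7
  have kA : 3 / 2 * (s 8 + 2 * ρ * s 5) + (s 9 + 2 * ρ * s 6) ≤ A := by
    have h3 : 5 * K ^ 2 * (Wb / H * S 9) ≤ 5 * K ^ 2 * (Wa / H * S 8) :=
      mul_le_mul_of_nonneg_left gE' (by positivity)
    rw [hAd, hC1]
    exact wid_cub hK p8.le (by linarith)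
  have kB : s 9 + 2 * ρ * s 6 ≤ B := by
    have h3 : 0 ≤ K ^ 2 * (Wb / H * S 9) := by positivity
    rw [hBd, hC1]
    exact wid_cub hK p9.le (by linarith)
  have ka : s 10 + 2 * ρ * s 7 + (2 * ρ) ^ 2 * s 1 ≤ a := by
    have h1 : K ^ 2 * (Wy / H * S 10) ≤ K ^ 3 * (Wy / H * S 10) :=
      mul_le_mul_of_nonneg_right hK3 p10.le
    have e2 : (2 * ρ) ^ 2 * s 1 = 4 * (ρ ^ 2 * s 1) := by ring
    rw [had, hC1, e2]
    linarith
  have hh4 : g 4 = 0 := by simp [hg, hR, h4]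
  have hh5 : g 5 = 0 := by simp [hg, hR, h5]
  have hi : TrueLn g (rg g f) (cLn π c) := trueLn_mkQ g (cLn π c) zi ei Fa Fb
  -- flags
  have hfa : gA g (rg g f).z ((rg g f).pa (rg g f).z) ((rg g f).pb (rg g f).z) + (rg g f).fa = Fa := by
    simp only [rg, hf, mkT, Fq4.pa, Fq4.pb]; ring
  have hfb : gB g (rg g f).z ((rg g f).pa (rg g f).z) ((rg g f).pb (rg g f).z) + (rg g f).fb = Fb := by
    simp only [rg, hf, mkT, Fq4.pa, Fq4.pb]; ring
  -- second order part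
  have f1 : |g 1 + g 2 * (rg g f).e + 2 * g 3 * (rg g f).ca| * ρ * A ≤ 1 / 4096 * B := by
    have et : g 1 + g 2 * (rg g f).e + 2 * g 3 * (rg g f).ca =
        H * Wy / Wa * tau h (scl H Wa Wb Wy f) := by
      rw [← tau_hR hH.ne' ha.ne' hb.ne' hy.ne']
      rfl
    have e0 : 0 ≤ H * Wy / Wa := by positivity
    rw [et, abs_mul, abs_of_nonneg e0]
    set τ' := |tau h (scl H Wa Wb Wy f)| with hτ'
    have hτ0 : 0 ≤ τ' := abs_nonneg _
    calc H * Wy / Wa * τ' * ρ * A ≤ H * Wy / Wa * τ' * (2 * K * S 0 / H) * A := by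
          have : 0 ≤ A := by rw [hAd]; positivity
          gcongr
      _ = C1 / H * (2 * K * (Wy * τ' * S 0 * S 8)) := by
          rw [hAd]; field_simp
      _ ≤ C1 / H * (1 / 4096 * (Wb * S 9)) := mul_le_mul_of_nonneg_left t1 (by positivity)
      _ = _ := by rw [hBd]; ring
  have f2 : |g 2| * ρ ≤ 1 / 4096 := by
    have eg : g 2 = H * Wy / Wb * h 2 := rfl
    have e0 : 0 ≤ H * Wy / Wb := by positivity
    rw [eg, abs_mul, abs_of_nonneg e0]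
    calc H * Wy / Wb * |h 2| * ρ ≤ H * Wy / Wb * |h 2| * (2 * K * S 0 / H) := by gcongr
      _ = 2 * K * (Wy * |h 2| * S 0) / Wb := by field_simp
      _ ≤ 1 / 4096 * Wb / Wb := div_le_div_of_nonneg_right t2 hb.le
      _ = _ := by field_simp
  have eg3 : g 3 = H * Wy / Wa ^ 2 * h 3 := rfl
  have e03 : 0 ≤ H * Wy / Wa ^ 2 := by positivity
  have f3 : |g 3| * A ^ 2 ≤ 1 / 4096 * B := by
    rw [eg3, abs_mul, abs_of_nonneg e03]
    calc H * Wy / Wa ^ 2 * |h 3| * A ^ 2 = C1 / H * (C1 * (Wy * |h 3| * S 8 * S 8)) := by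
          rw [hAd]; field_simp
      _ ≤ C1 / H * (1 / 4096 * (Wb * S 9)) := mul_le_mul_of_nonneg_left t3 (by positivity)
      _ = _ := by rw [hBd]; ring
  have f4 : |g 3| * A ≤ 1 / 4096 := by
    rw [eg3, abs_mul, abs_of_nonneg e03]
    calc H * Wy / Wa ^ 2 * |h 3| * A = C1 * (Wy * |h 3| * S 8) / Wa := by
          rw [hAd]; field_simp
      _ ≤ 1 / 4096 * Wa / Wa := div_le_div_of_nonneg_right t4 ha.le
      _ = _ := by field_simp
  obtain ⟨t, k1, k2, k3, k3', k4, k5, k6⟩ := box_sheet (z0 := z0) (ρ := ρ) (r0 := r0) (A := A) (B := B)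
    (a := a) (κ := 1 / 4096) hi he (by rw [hfa]; exact hFa) (by rw [hfb]; exact hFb) hh4 hh5 s0 hρ0
    hz kA kB ka (mul_pos hC p10) (mul_le_mul_of_nonneg_left gF' hC.le)
    (mul_le_mul_of_nonneg_left gE' hC.le) hr rfl f1 f2 f3 f4
  refine ⟨t, k1, k2, k3, k3', k4, k5, fun l zj ej Ga Gb hbx => ?_⟩
  exact k6 (rg g (mkT (cLn π l) zj ej Ga Gb)) l (trueLn_mkQ g (cLn π l) zj ej Ga Gb)
    fun k => coQ_real hH ha hb hy h (hbx k)

end stage

end Crest.Agent.R136.Dmx779
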