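import Crest.Agent.R136.DMX2_779
import Crest.Agent.R136.GBy_779

/-!
# R136: D-max of sheets on the sample, form for chart boxes (helper779)

`count_s3` : sheets only for the three cells; `exists_cell` : natural level of a real height;
`val_num` : value of a sheet against the level-`0` mark; `num_count` : the count with explicit
exponents.
-/

set_option autoImplicit false
set_option linter.unusedVariables false
set_option linter.unusedSectionVars false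

open Finset Filter Topology

namespace Crest.Agent.R136.Dmx779

open Crest.Agent.R138.Ex926 (Base U)
open Crest.Agent.R138.Mk163 (zc zl rho alive)
open Crest.Agent.R138
open Crest.Agent.R136.MkA627
open Crest.Agent.R136.Sh605
open Crest.Agent.R136.K4
open Crest.Agent.R136.Top484 (geo4)
open Crest.Agent.R136.GeoQ186
open Crest.Agent.R136.Net191
open Crest.Agent.R136.Wq638
open Crest.Agent.R136.Lq196

theorem zl_add (l : ℕ) (J J' : ℤ) : zl l J' = zl l J + (((J' : ℝ) - J) * rho l) := by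
  unfold zl rho
  ring

section

variable {B : Base} {I I1 : ℕ → Finset (ℕ × ℝ)} {L : ℕ → ℕ → Ln4} {r0 : ℕ → ℝ}
  {wr cr : Fin 3 → ℕ → ℝ} {q : Fin 3 → ℝ}
  {lev : ℕ → ℚ → ℕ} {A : ℕ → ℝ} {g s : ℝ} {τ : Fin 3 → ℝ → ℝ} {f : ℕ → ℚ → ℕ → ℤ → ℕ}
  {b : ℕ → ℚ → ℕ → Plk4} {vm : ℕ → ℚ → ℝ} {w : Fin 3 → ℕ → ℚ → ℝ}
  {m : ℕ} {co : ∀ n : ℕ, ℕ × ℝ → ℕ × ℝ → Fin m → ℝ} {M : Mons m} {C R c₀ : ℝ}

open Classical in
/-- **count on the sample**, sheets over three cells -/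
theorem count_s3 (hM : MkA B I (geo4 L r0 wr cr q) lev A (fun v => g * v) (fun v => s * v) τ f b vm w)
    (hq : ∀ j, 0 ≤ q j) (hc : CombQ B I I1 lev co M C R (N0Q A vm) c₀)
    (hsub : ∀ n, I1 n ⊆ I n) :
    ∃ e : ℕ → ℝ, (∀ n, 0 < e n) ∧ B.Sub (fun n => B.d n ^ (-(e n))) ∧
    ∀ᶠ n in (U : Filter ℕ), ∀ l : ℕ, lev n 0 ≤ l → l ≤ lev n 1 →
      ∀ (Q : Finset (ℕ × ℝ)) (J0 : ℤ) (V : ℝ), Q ⊆ I1 n → 0 ≤ V →
      (∀ y ∈ Q, zc l y.2 ∈ Finset.Icc (J0 - 1) (J0 + 1)) →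
      (∀ J ∈ Finset.Icc (J0 - 1) (J0 + 1), ∃ t : Plk4,
        ShN t.e t.c t.w t.q t.a (zl l J) (rho l) (r0 n) ∧ 0 ≤ t.a ∧
        t.w 1 ≤ B.d n ^ (e n) * rho l ∧ (∀ k : Fin 3, wr k n ≤ ![t.a, t.w 1, t.w 2] k ∧
          ![t.a, t.w 1, t.w 2] k ≤ cr k n) ∧ (geo4 L r0 wr cr q).val n l J t ≤ V ∧
        ∀ y ∈ I n, Nbr B I lev co M C R n Q y → zc l y.2 = J →
          InSheet (L n y.1) t.e t.c t.w t.q t.a (zl l J) (rho l)) →
      (Q.card : ℝ) ≤ (V / vm n 0) * (rho l / rho (lev n 0)) ^ ((1 - s) - g) *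
        B.d n ^ (-((1 - s) + c₀ + e n)) := by
  obtain ⟨e, e1, e2, e3⟩ := count_s hM hq hc hsub
  refine ⟨e, e1, e2, ?_⟩
  filter_upwards [e3] with n hn l hl0 hl1 Q J0 V hQ hV hcell hsh
  refine hn l hl0 hl1 Q J0 V hQ hV hcell fun J => ?_
  by_cases hJ : J ∈ Finset.Icc (J0 - 1) (J0 + 1)
  · exact hsh J hJ
  · obtain ⟨t, t1, t2, t3, tr, t4, -⟩ := hsh J0 (by rw [Finset.mem_Icc]; constructor <;> linarith)
    refine ⟨⟨0, t.e, lsh t.c (((J : ℝ) - J0) * rho l), t.w,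
      fun z x => t.q (z - ((J : ℝ) - J0) * rho l) x, t.a⟩, ?_, t2, t3, tr, t4, fun y _ hy hyJ => ?_⟩
    · have := shN_shift t1 (((J : ℝ) - J0) * rho l)
      rwa [← zl_add] at this
    · exfalso
      obtain ⟨x, hx, -, h2⟩ := hy
      apply hJ
      rw [← hyJ, End403.zc_nest' hl1 h2]
      exact hcell x hx

end

/-- the natural level of a real height `x` -/
theorem exists_cell {i0 i1 : ℕ} (hi : i0 ≤ i1) {x : ℝ} (hx0 : x ≤ rho i0) (hx1 : rho i1 ≤ x) :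
    ∃ l, i0 ≤ l ∧ l ≤ i1 ∧ x ≤ rho l ∧ rho l ≤ 2 * x := by
  classical
  have hex : ∃ j, rho (i0 + j) ≤ x := ⟨i1 - i0, by rwa [Nat.add_sub_cancel' hi]⟩
  rcases hj : Nat.find hex with _ | k
  · have h1 := Nat.find_spec hex
    rw [hj, Nat.add_zero] at h1
    have h2 : rho i0 = x := le_antisymm h1 hx0
    have h3 : 0 < rho i0 := rho_pos _
    exact ⟨i0, le_rfl, hi, hx0, by linarith⟩
  · have h1 := Nat.find_spec hex
    rw [hj] at h1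
    have h2 := Nat.find_min hex (m := k) (by omega)
    push Not at h2
    have h3 : k + 1 ≤ i1 - i0 := by
      rw [← hj]
      exact Nat.find_min' hex (by rwa [Nat.add_sub_cancel' hi])
    refine ⟨i0 + k, by omega, by omega, h2.le, ?_⟩
    have h4 : rho (i0 + (k + 1)) = rho (i0 + k) / 2 := by
      unfold rho
      rw [← add_assoc, pow_succ]
      field_simp
    rw [h4] at h1
    linarith

section num

variable {d w0 w1 w2 ρ0 ρ y0 y8 y9 y10 C K : ℝ} {q : Fin 3 → ℝ}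

/-- one reward factor -/
theorem rew_num (hd : 0 < d) (hw : 0 < w0) (hρ0 : 0 < ρ0) (hρ : ρ0 * d ^ y0 ≤ ρ) (hC : 0 ≤ C)
    {t y Q : ℝ} (ht : t ≤ C * (w0 * d ^ y)) (ht0 : 0 ≤ t) (hQ : 0 ≤ Q) :
    (t / ρ) ^ Q ≤ C ^ Q * ((w0 / ρ0) ^ Q * d ^ (Q * (y - y0))) := by
  have h0 : 0 < ρ0 * d ^ y0 := mul_pos hρ0 (Real.rpow_pos_of_pos hd _)
  have h1 : t / ρ ≤ C * (w0 / ρ0 * d ^ (y - y0)) := by
    rw [div_le_iff₀ (h0.trans_le hρ)]
    calc t ≤ C * (w0 * d ^ y) := ht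
      _ = C * (w0 / ρ0 * d ^ (y - y0)) * (ρ0 * d ^ y0) := by
          rw [Real.rpow_sub hd]
          have := (Real.rpow_pos_of_pos hd y0).ne'
          field_simp
      _ ≤ C * (w0 / ρ0 * d ^ (y - y0)) * ρ :=
          mul_le_mul_of_nonneg_left hρ (mul_nonneg hC (mul_nonneg (div_pos hw hρ0).le
            (Real.rpow_pos_of_pos hd _).le))
  calc (t / ρ) ^ Q ≤ (C * (w0 / ρ0 * d ^ (y - y0))) ^ Q :=
        Real.rpow_le_rpow (div_nonneg ht0 (h0.trans_le hρ).le) h1 hQ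
    _ = _ := by
        rw [Real.mul_rpow hC (mul_nonneg (div_pos hw hρ0).le (Real.rpow_pos_of_pos hd _).le),
          Real.mul_rpow (div_pos hw hρ0).le (Real.rpow_pos_of_pos hd _).le, ← Real.rpow_mul hd.le,
          mul_comm (y - y0) Q]

/-- **value of a sheet against the mark of level `0`** -/
theorem val_num (hd : 0 < d) (hw0 : 0 < w0) (hw1 : 0 < w1) (hw2 : 0 < w2) (hρ0 : 0 < ρ0)
    (hρ : ρ0 * d ^ y0 ≤ ρ) (hC : 0 ≤ C) (hq : ∀ j, 0 ≤ q j) {t : V3} (t0 : ∀ k, 0 ≤ t k)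
    (h0 : t 0 ≤ C * (w0 * d ^ y10)) (h1 : t 1 ≤ C * (w1 * d ^ y8))
    (h2 : t 2 ≤ C * (w2 * d ^ y9)) :
    t 0 * t 2 * t 1 * ((t 0 / ρ) ^ q 0 * (t 1 / ρ) ^ q 1 * (t 2 / ρ) ^ q 2) ≤
      C ^ 3 * C ^ (q 0 + q 1 + q 2) * (w0 * w2 * w1 * ((w0 / ρ0) ^ q 0 * (w1 / ρ0) ^ q 1 *
        (w2 / ρ0) ^ q 2)) *
        d ^ (y10 + y9 + y8 + (q 0 * (y10 - y0) + q 1 * (y8 - y0) + q 2 * (y9 - y0))) := by
  rcases hC.eq_or_lt with hC' | hC'
  · have h3 : t 0 = 0 := le_antisymm (by rw [← hC', zero_mul] at h0; exact h0) (t0 0)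
    rw [h3]
    simp only [zero_mul]
    have := Real.rpow_nonneg (div_pos hw0 hρ0).le (q 0)
    have := Real.rpow_nonneg (div_pos hw1 hρ0).le (q 1)
    have := Real.rpow_nonneg (div_pos hw2 hρ0).le (q 2)
    have := Real.rpow_nonneg hC (q 0 + q 1 + q 2)
    positivity
  have r0 := rew_num hd hw0 hρ0 hρ hC h0 (t0 0) (hq 0)
  have r1 := rew_num hd hw1 hρ0 hρ hC h1 (t0 1) (hq 1)
  have r2 := rew_num hd hw2 hρ0 hρ hC h2 (t0 2) (hq 2)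
  have hρp : 0 < ρ := (mul_pos hρ0 (Real.rpow_pos_of_pos hd y0)).trans_le hρ
  have n0 : ∀ (k : Fin 3) (Q : ℝ), 0 ≤ (t k / ρ) ^ Q := fun k Q =>
    Real.rpow_nonneg (div_nonneg (t0 k) hρp.le) _
  have m0 : ∀ (x Q : ℝ), 0 < x → 0 ≤ (x / ρ0) ^ Q := fun x Q hx =>
    Real.rpow_nonneg (div_pos hx hρ0).le _
  have hdp : ∀ y : ℝ, 0 ≤ d ^ y := fun y => (Real.rpow_pos_of_pos hd y).le
  have hCp : ∀ y : ℝ, 0 ≤ C ^ y := fun y => Real.rpow_nonneg hC y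
  have e1 : t 0 * t 2 * t 1 ≤ (C * (w0 * d ^ y10)) * (C * (w2 * d ^ y9)) * (C * (w1 * d ^ y8)) := by
    refine mul_le_mul (mul_le_mul h0 h2 (t0 2) ?_) h1 (t0 1) ?_
    · have := hdp y10; positivity
    · have := hdp y10; have := hdp y9; positivity
  have e2 : (t 0 / ρ) ^ q 0 * (t 1 / ρ) ^ q 1 * (t 2 / ρ) ^ q 2 ≤
      (C ^ q 0 * ((w0 / ρ0) ^ q 0 * d ^ (q 0 * (y10 - y0)))) *
      (C ^ q 1 * ((w1 / ρ0) ^ q 1 * d ^ (q 1 * (y8 - y0)))) *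
      (C ^ q 2 * ((w2 / ρ0) ^ q 2 * d ^ (q 2 * (y9 - y0)))) := by
    refine mul_le_mul (mul_le_mul r0 r1 (n0 _ _) ?_) r2 (n0 _ _) ?_
    · exact mul_nonneg (hCp _) (mul_nonneg (m0 _ _ hw0) (hdp _))
    · exact mul_nonneg (mul_nonneg (hCp _) (mul_nonneg (m0 _ _ hw0) (hdp _)))
        (mul_nonneg (hCp _) (mul_nonneg (m0 _ _ hw1) (hdp _)))
  have e3 : 0 ≤ (C * (w0 * d ^ y10)) * (C * (w2 * d ^ y9)) * (C * (w1 * d ^ y8)) := by
    have := hdp y10; have := hdp y9; have := hdp y8; positivity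
  refine (mul_le_mul e1 e2 (mul_nonneg (mul_nonneg (n0 _ _) (n0 _ _)) (n0 _ _)) e3).trans
    (le_of_eq ?_)
  rw [Real.rpow_add hC', Real.rpow_add hC', Real.rpow_add hd, Real.rpow_add hd, Real.rpow_add hd,
    Real.rpow_add hd, Real.rpow_add hd]
  ring

/-- the factor of the level -/
theorem lev_num (hd : 0 < d) (hρ0 : 0 < ρ0) (hK : 1 ≤ K) (h1 : ρ0 * d ^ y0 ≤ ρ)
    (h2 : ρ ≤ K * (ρ0 * d ^ y0)) (c : ℝ) :
    (ρ / ρ0) ^ c ≤ K ^ |c| * d ^ (c * y0) := by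
  have hp : 0 < d ^ y0 := Real.rpow_pos_of_pos hd _
  have h1' : d ^ y0 ≤ ρ / ρ0 := by rw [le_div_iff₀ hρ0]; linarith
  have h2' : ρ / ρ0 ≤ K * d ^ y0 := by rw [div_le_iff₀ hρ0]; linarith
  have hK0 : 0 < K := by linarith
  rcases le_or_gt 0 c with hc | hc
  · calc (ρ / ρ0) ^ c ≤ (K * d ^ y0) ^ c := Real.rpow_le_rpow (hp.le.trans h1') h2' hc
      _ = K ^ |c| * d ^ (c * y0) := by
          rw [Real.mul_rpow hK0.le hp.le, abs_of_nonneg hc, ← Real.rpow_mul hd.le, mul_comm y0 c]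
  · calc (ρ / ρ0) ^ c ≤ (d ^ y0) ^ c := Real.rpow_le_rpow_of_nonpos hp h1' hc.le
      _ = d ^ (c * y0) := by rw [← Real.rpow_mul hd.le, mul_comm y0 c]
      _ ≤ K ^ |c| * d ^ (c * y0) :=
          le_mul_of_one_le_left (Real.rpow_pos_of_pos hd _).le
            (Real.one_le_rpow hK (abs_nonneg _))

end num

end Crest.Agent.R136.Dmx779
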