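import Crest.Agent.R136.Geo2_186

/-!
# R136: gauge algebra of the lightlike case (helper66)

`GRel s0 e0 q0 be mu dE dC dF i` : the incidence `i` (straight chart, `y2 = 0`) satisfies
`e = e0 - s0 ca`, `cb = q0 + e0 ca - s0 ca²/2`, `fb = be + mu z` up to `dE, dC, dF`.
`gg s0 e0 mu` : the gauge `-mu e0 zA + mu zB + mu s0/2 A²`.

* `slot_R`, `slot_Fb` : the slots `1` (`R`) and `3` (`F_b`) of the gauged pair are small;
* `slot_Fa`, `slot_P`, `slot_N` : exact formulas of the slots `4, 7, 10`;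
* `slot_E`, `slot_Cb` : the slots `2, 6` are functions of the slot `5`;
* `gau_box` : a box of the straight chart (exponent walls between the sides) is contained in the
  same box of the gauge chart, up to a constant;
* `box_gau` : conversely.
-/

set_option autoImplicit false
set_option linter.unusedVariables false

namespace Crest.Agent.R136.Gau66

open Crest.Agent.R136.NetQ186
open Crest.Agent.R136.Sh605
open Crest.Agent.R136.GeoQ186

/-- relations of a rigid lightlike class -/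
structure GRel (s0 e0 q0 be mu dE dC dF : ℝ) (i : Fq4) : Prop where
  str : i.y2 = 0
  hE : |i.e - (e0 - s0 * i.ca)| ≤ dE
  hC : |i.cb - (q0 + e0 * i.ca - s0 * i.ca ^ 2 / 2)| ≤ dC
  hF : |i.fb - (be + mu * i.z)| ≤ dF

/-- the gauge of a rigid lightlike class -/
noncomputable def gg (s0 e0 mu : ℝ) : Fin 6 → ℝ := ![0, -(mu * e0), mu, mu * s0 / 2, 0, 0]

section

variable {s0 e0 q0 be mu dE dC dF : ℝ} {i j : Fq4}

theorem GRel.mono {dE' dC' dF' : ℝ} (h : GRel s0 e0 q0 be mu dE dC dF i) (h1 : dE ≤ dE')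
    (h2 : dC ≤ dC') (h3 : dF ≤ dF') : GRel s0 e0 q0 be mu dE' dC' dF' i :=
  ⟨h.str, h.hE.trans h1, h.hC.trans h2, h.hF.trans h3⟩

/-- unchanged slots -/
theorem slot_same (k : Fin 11) (hk : k = 0 ∨ k = 2 ∨ k = 5 ∨ k = 6 ∨ k = 8 ∨ k = 9)
    (h : Fin 6 → ℝ) (i j : Fq4) : coQ (rg h i) (rg h j) k = coQ i j k := by
  obtain ⟨h0, h1, h2, h3, h4, h5, h6, h7, h8, h9, h10⟩ := coQ_rg h i j
  rcases hk with rfl | rfl | rfl | rfl | rfl | rfl
  · exact h0
  · exact h2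
  · exact h5
  · exact h6
  · exact h8
  · exact h9

/-- slot `R` : exact -/
theorem slot_R_eq (hi : i.y2 = 0) (hj : j.y2 = 0) :
    coQ (rg (gg s0 e0 mu) i) (rg (gg s0 e0 mu) j) 1 =
      -mu * ((j.cb - (q0 + e0 * j.ca - s0 * j.ca ^ 2 / 2)) -
        (i.cb - (q0 + e0 * i.ca - s0 * i.ca ^ 2 / 2))) := by
  obtain ⟨-, h1, -⟩ := coQ_rg (gg s0 e0 mu) i j
  rw [h1]
  simp only [gg, coQ, Matrix.cons_val, hi, hj]
  ring

theorem slot_R (hi : GRel s0 e0 q0 be mu dE dC dF i) (hj : GRel s0 e0 q0 be mu dE dC dF j) :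
    |coQ (rg (gg s0 e0 mu) i) (rg (gg s0 e0 mu) j) 1| ≤ 2 * |mu| * dC := by
  rw [slot_R_eq (q0 := q0) hi.str hj.str, abs_mul, abs_neg]
  have h := abs_sub (j.cb - (q0 + e0 * j.ca - s0 * j.ca ^ 2 / 2))
    (i.cb - (q0 + e0 * i.ca - s0 * i.ca ^ 2 / 2))
  have h1 := hi.hC
  have h2 := hj.hC
  calc |mu| * |(j.cb - (q0 + e0 * j.ca - s0 * j.ca ^ 2 / 2)) -
        (i.cb - (q0 + e0 * i.ca - s0 * i.ca ^ 2 / 2))| ≤ |mu| * (dC + dC) :=
        mul_le_mul_of_nonneg_left (by linarith) (abs_nonneg _)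
    _ = 2 * |mu| * dC := by ring

/-- slot `F_b` : exact -/
theorem slot_Fb_eq : coQ (rg (gg s0 e0 mu) i) (rg (gg s0 e0 mu) j) 3 =
    (j.fb - (be + mu * j.z)) - (i.fb - (be + mu * i.z)) := by
  obtain ⟨-, -, -, h3, -⟩ := coQ_rg (gg s0 e0 mu) i j
  rw [h3, gB_move]
  simp only [gg, coQ, Matrix.cons_val]
  ring

theorem slot_Fb (hi : GRel s0 e0 q0 be mu dE dC dF i) (hj : GRel s0 e0 q0 be mu dE dC dF j) :
    |coQ (rg (gg s0 e0 mu) i) (rg (gg s0 e0 mu) j) 3| ≤ 2 * dF := by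
  rw [slot_Fb_eq (be := be)]
  have h := abs_sub (j.fb - (be + mu * j.z)) (i.fb - (be + mu * i.z))
  have h1 := hi.hF
  have h2 := hj.hF
  linarith

/-- slot `F_a` -/
theorem slot_Fa : coQ (rg (gg s0 e0 mu) i) (rg (gg s0 e0 mu) j) 4 =
    coQ i j 4 - mu * s0 * (coQ i j 8 + coQ i j 0 * coQ i j 5) -
      mu * coQ i j 0 * (i.e - (e0 - s0 * i.ca)) := by
  obtain ⟨-, -, -, -, h4, -⟩ := coQ_rg (gg s0 e0 mu) i j
  rw [h4, gA_move, gB_move]
  simp only [gg, coQ, Matrix.cons_val]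
  ring

/-- slot `P` -/
theorem slot_P : coQ (rg (gg s0 e0 mu) i) (rg (gg s0 e0 mu) j) 7 =
    coQ i j 7 - mu * coQ i j 9 - mu * s0 * (coQ i j 5 * coQ i j 8) -
      mu * coQ i j 8 * (i.e - (e0 - s0 * i.ca)) := by
  obtain ⟨-, -, -, -, -, -, -, h7, -⟩ := coQ_rg (gg s0 e0 mu) i j
  rw [h7]
  simp only [gg, coQ, Matrix.cons_val]
  ring

/-- slot `N` -/
theorem slot_N : coQ (rg (gg s0 e0 mu) i) (rg (gg s0 e0 mu) j) 10 =
    coQ i j 10 - mu * s0 / 2 * coQ i j 8 ^ 2 := by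
  obtain ⟨-, -, -, -, -, -, -, -, -, -, h10⟩ := coQ_rg (gg s0 e0 mu) i j
  rw [h10]
  simp only [gg, Matrix.cons_val]
  ring

/-- slot `E` is `- s0` times slot `C_a` -/
theorem slot_E (hi : GRel s0 e0 q0 be mu dE dC dF i) (hj : GRel s0 e0 q0 be mu dE dC dF j) :
    |coQ i j 2 + s0 * coQ i j 5| ≤ 2 * dE := by
  have e1 : coQ i j 2 + s0 * coQ i j 5 =
      (j.e - (e0 - s0 * j.ca)) - (i.e - (e0 - s0 * i.ca)) := by
    simp only [coQ, Matrix.cons_val]; ring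
  rw [e1]
  have h := abs_sub (j.e - (e0 - s0 * j.ca)) (i.e - (e0 - s0 * i.ca))
  have h1 := hi.hE
  have h2 := hj.hE
  linarith

/-- slot `C_b` is `- (s0/2) C_a²` -/
theorem slot_Cb (hi : GRel s0 e0 q0 be mu dE dC dF i) (hj : GRel s0 e0 q0 be mu dE dC dF j) :
    |coQ i j 6 + s0 / 2 * coQ i j 5 ^ 2| ≤ 2 * dC + dE * |coQ i j 5| := by
  have e1 : coQ i j 6 + s0 / 2 * coQ i j 5 ^ 2 =
      (j.cb - (q0 + e0 * j.ca - s0 * j.ca ^ 2 / 2)) -
        (i.cb - (q0 + e0 * i.ca - s0 * i.ca ^ 2 / 2)) -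
        (i.e - (e0 - s0 * i.ca)) * coQ i j 5 := by
    simp only [coQ, Matrix.cons_val]; ring
  rw [e1]
  have h := abs_sub ((j.cb - (q0 + e0 * j.ca - s0 * j.ca ^ 2 / 2)) -
        (i.cb - (q0 + e0 * i.ca - s0 * i.ca ^ 2 / 2))) ((i.e - (e0 - s0 * i.ca)) * coQ i j 5)
  have h' := abs_sub (j.cb - (q0 + e0 * j.ca - s0 * j.ca ^ 2 / 2))
        (i.cb - (q0 + e0 * i.ca - s0 * i.ca ^ 2 / 2))
  have h1 := hi.hC
  have h2 := hj.hC
  have h3 : |(i.e - (e0 - s0 * i.ca)) * coQ i j 5| ≤ dE * |coQ i j 5| := by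
    rw [abs_mul]
    exact mul_le_mul_of_nonneg_right hi.hE (abs_nonneg _)
  linarith

/-- sides of a box of the straight chart, with the walls used by the gauge; `mu`, `s0` are at most
`D` times natural -/
structure GWall (s : Fin 11 → ℝ) (D mu s0 dE : ℝ) : Prop where
  D1 : 1 ≤ D
  pos : ∀ k, 0 ≤ s k
  hmu : |mu| * s 0 ≤ D * s 3
  hs0 : |s0| * s 5 ≤ D * s 2
  hdE : dE ≤ D * s 2
  w4 : s 2 * s 3 ≤ D * s 4
  w8 : s 8 = s 0 * s 5
  w9 : s 9 = s 0 * s 6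
  w7b : s 3 * s 6 ≤ D * s 7
  w7a : s 2 * s 3 * s 5 ≤ D * s 7
  w10 : s 2 * s 3 * s 8 ≤ D * s 10

theorem abs3 {a b c A B C : ℝ} (ha : |a| ≤ A) (hb : |b| ≤ B) (hc : |c| ≤ C) :
    |a - b - c| ≤ A + B + C := by
  have h1 := abs_sub (a - b) c
  have h2 := abs_sub a b
  linarith

theorem abs4 {a b c d A B C E : ℝ} (ha : |a| ≤ A) (hb : |b| ≤ B) (hc : |c| ≤ C) (hd : |d| ≤ E) :
    |a - b - c - d| ≤ A + B + C + E := by
  have h1 := abs_sub (a - b - c) d
  have h2 := abs3 ha hb hc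
  linarith

/-- products used below -/
theorem GWall.prods {s : Fin 11 → ℝ} {D : ℝ} (h : GWall s D mu s0 dE) :
    |mu| * |s0| * s 8 ≤ D ^ 3 * s 4 ∧ |mu| * s 0 * dE ≤ D ^ 3 * s 4 ∧
      |mu| * s 9 ≤ D ^ 2 * s 7 ∧ |mu| * |s0| * (s 5 * s 8) ≤ D ^ 3 * s 7 ∧
      |mu| * s 8 * dE ≤ D ^ 3 * s 7 ∧ |mu| * |s0| * s 8 ^ 2 ≤ D ^ 3 * s 10 := by
  have hD0 : 0 ≤ D := by linarith [h.D1]
  have hm := abs_nonneg mu
  have hs := abs_nonneg s0
  have p0 := h.pos 0
  have p2 := h.pos 2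
  have p3 := h.pos 3
  have p4 := h.pos 4
  have p5 := h.pos 5
  have p6 := h.pos 6
  have p7 := h.pos 7
  have p8 := h.pos 8
  have k1 : (|mu| * s 0) * (|s0| * s 5) ≤ (D * s 3) * (D * s 2) :=
    mul_le_mul h.hmu h.hs0 (by positivity) (by positivity)
  have k2 : D ^ 2 * (s 2 * s 3) ≤ D ^ 2 * (D * s 4) :=
    mul_le_mul_of_nonneg_left h.w4 (by positivity)
  have k3 : D ^ 2 * (s 2 * s 3 * s 5) ≤ D ^ 2 * (D * s 7) :=
    mul_le_mul_of_nonneg_left h.w7a (by positivity)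
  refine ⟨?_, ?_, ?_, ?_, ?_, ?_⟩
  · rw [h.w8]; nlinarith
  · have := mul_le_mul h.hmu h.hdE
    by_cases hd : 0 ≤ dE
    · have h3 : (|mu| * s 0) * dE ≤ (D * s 3) * (D * s 2) := mul_le_mul h.hmu h.hdE hd (by positivity)
      nlinarith
    · have h3 : |mu| * s 0 * dE ≤ 0 := mul_nonpos_of_nonneg_of_nonpos (by positivity) (by linarith)
      have h4 : 0 ≤ D ^ 3 * s 4 := by positivity
      linarith
  · rw [h.w9]
    have h3 : (|mu| * s 0) * s 6 ≤ (D * s 3) * s 6 := mul_le_mul_of_nonneg_right h.hmu p6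
    have h4 : D * (s 3 * s 6) ≤ D * (D * s 7) := mul_le_mul_of_nonneg_left h.w7b hD0
    nlinarith
  · rw [h.w8]
    have h3 : (|mu| * s 0) * (|s0| * s 5) * s 5 ≤ (D * s 3) * (D * s 2) * s 5 :=
      mul_le_mul_of_nonneg_right k1 p5
    nlinarith
  · rw [h.w8]
    by_cases hd : 0 ≤ dE
    · have h3 : (|mu| * s 0) * dE ≤ (D * s 3) * (D * s 2) := mul_le_mul h.hmu h.hdE hd (by positivity)
      have h4 : (|mu| * s 0) * dE * s 5 ≤ (D * s 3) * (D * s 2) * s 5 :=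
        mul_le_mul_of_nonneg_right h3 p5
      nlinarith
    · have h3 : |mu| * (s 0 * s 5) * dE ≤ 0 :=
        mul_nonpos_of_nonneg_of_nonpos (by positivity) (by linarith)
      have h4 : 0 ≤ D ^ 3 * s 7 := by positivity
      linarith
  · have h3 : (|mu| * s 0) * (|s0| * s 5) * s 8 ≤ (D * s 3) * (D * s 2) * s 8 :=
      mul_le_mul_of_nonneg_right k1 p8
    have h4 : D ^ 2 * (s 2 * s 3 * s 8) ≤ D ^ 2 * (D * s 10) :=
      mul_le_mul_of_nonneg_left h.w10 (by positivity)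
    have e1 : |mu| * |s0| * s 8 ^ 2 = (|mu| * s 0) * (|s0| * s 5) * s 8 := by rw [h.w8]; ring
    rw [e1]
    nlinarith

/-- **a box of the straight chart is in the same box of the gauge chart**, slots `≠ 1, 3` -/
theorem gau_box {s : Fin 11 → ℝ} {D K : ℝ} (h : GWall s D mu s0 dE) (hK : 1 ≤ K)
    (hi : GRel s0 e0 q0 be mu dE dC dF i) (hs : ∀ k, |coQ i j k| ≤ K * s k) (k : Fin 11)
    (hk1 : k ≠ 1) (hk3 : k ≠ 3) :
    |coQ (rg (gg s0 e0 mu) i) (rg (gg s0 e0 mu) j) k| ≤ 5 * K ^ 2 * D ^ 3 * s k := by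
  have hD := h.D1
  have hD3 : 1 ≤ D ^ 3 := one_le_pow₀ hD
  have hK2 : K ≤ K ^ 2 := by nlinarith
  have hK0 : 0 ≤ K := by linarith
  obtain ⟨a1, a2, a3, a4, a5, a6⟩ := h.prods
  have base : ∀ k, K * s k ≤ 1 * (K ^ 2 * D ^ 3 * s k) := fun k => by
    have := h.pos k
    have h1 : K * s k ≤ K ^ 2 * s k := mul_le_mul_of_nonneg_right hK2 this
    have h2 : 1 * (K ^ 2 * s k) ≤ D ^ 3 * (K ^ 2 * s k) :=
      mul_le_mul_of_nonneg_right hD3 (by positivity)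
    linarith
  have same : ∀ k, k = 0 ∨ k = 2 ∨ k = 5 ∨ k = 6 ∨ k = 8 ∨ k = 9 →
      |coQ (rg (gg s0 e0 mu) i) (rg (gg s0 e0 mu) j) k| ≤ 5 * K ^ 2 * D ^ 3 * s k := fun k hk => by
    rw [slot_same k hk]
    have h1 := hs k
    have h2 := base k
    have h3 : 0 ≤ K ^ 2 * D ^ 3 * s k := by have := h.pos k; positivity
    linarith
  have hm := abs_nonneg mu
  have hs' := abs_nonneg s0
  have x0 := hs 0
  have x5 := hs 5
  have x8 := hs 8
  have x9 := hs 9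
  have p0 := h.pos 0
  have p4 := h.pos 4
  have p5 := h.pos 5
  have p7 := h.pos 7
  have p8 := h.pos 8
  have p9 := h.pos 9
  have p10 := h.pos 10
  have hη := hi.hE
  have hd0 : 0 ≤ dE := (abs_nonneg _).trans hη
  have f4 : 0 ≤ D ^ 3 * s 4 := by positivity
  have f7 : 0 ≤ D ^ 3 * s 7 := by positivity
  have f10 : 0 ≤ D ^ 3 * s 10 := by positivity
  fin_cases k
  · exact same 0 (by simp)
  · exact absurd rfl hk1
  · exact same 2 (by simp)
  · exact absurd rfl hk3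
  · -- F_a
    change |coQ (rg (gg s0 e0 mu) i) (rg (gg s0 e0 mu) j) 4| ≤ _
    rw [slot_Fa]
    have b1 : |mu * s0 * (coQ i j 8 + coQ i j 0 * coQ i j 5)| ≤ 2 * (K ^ 2 * (D ^ 3 * s 4)) := by
      rw [abs_mul, abs_mul]
      have h1 : |coQ i j 8 + coQ i j 0 * coQ i j 5| ≤ 2 * K ^ 2 * s 8 := by
        refine (abs_add_le _ _).trans ?_
        rw [abs_mul]
        have h2 : |coQ i j 0| * |coQ i j 5| ≤ (K * s 0) * (K * s 5) :=
          mul_le_mul x0 x5 (abs_nonneg _) (by positivity)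
        have h3 : K * s 8 ≤ K ^ 2 * s 8 := mul_le_mul_of_nonneg_right hK2 p8
        rw [h.w8] at h3 ⊢
        rw [h.w8] at x8
        nlinarith
      calc |mu| * |s0| * |coQ i j 8 + coQ i j 0 * coQ i j 5|
          ≤ |mu| * |s0| * (2 * K ^ 2 * s 8) := mul_le_mul_of_nonneg_left h1 (by positivity)
        _ = 2 * K ^ 2 * (|mu| * |s0| * s 8) := by ring
        _ ≤ 2 * K ^ 2 * (D ^ 3 * s 4) := mul_le_mul_of_nonneg_left a1 (by positivity)
        _ = _ := by ring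
    have b2 : |mu * coQ i j 0 * (i.e - (e0 - s0 * i.ca))| ≤ K ^ 2 * (D ^ 3 * s 4) := by
      rw [abs_mul, abs_mul]
      calc |mu| * |coQ i j 0| * |i.e - (e0 - s0 * i.ca)| ≤ |mu| * (K * s 0) * dE := by
            refine mul_le_mul ?_ hη (abs_nonneg _) (by positivity)
            exact mul_le_mul_of_nonneg_left x0 hm
        _ = K * (|mu| * s 0 * dE) := by ring
        _ ≤ K * (D ^ 3 * s 4) := mul_le_mul_of_nonneg_left a2 hK0
        _ ≤ K ^ 2 * (D ^ 3 * s 4) := mul_le_mul_of_nonneg_right hK2 f4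
    have b0 := (hs 4).trans (base 4)
    refine (abs3 b0 b1 b2).trans ?_
    have : 0 ≤ K ^ 2 * (D ^ 3 * s 4) := by positivity
    change _ ≤ 5 * K ^ 2 * D ^ 3 * s 4
    nlinarith
  · exact same 5 (by simp)
  · exact same 6 (by simp)
  · -- P
    change |coQ (rg (gg s0 e0 mu) i) (rg (gg s0 e0 mu) j) 7| ≤ _
    rw [slot_P]
    have b1 : |mu * coQ i j 9| ≤ K ^ 2 * (D ^ 3 * s 7) := by
      rw [abs_mul]
      have hD23 : D ^ 2 ≤ D ^ 3 := pow_le_pow_right₀ hD (by norm_num)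
      calc |mu| * |coQ i j 9| ≤ |mu| * (K * s 9) := mul_le_mul_of_nonneg_left x9 hm
        _ = K * (|mu| * s 9) := by ring
        _ ≤ K * (D ^ 2 * s 7) := mul_le_mul_of_nonneg_left a3 hK0
        _ ≤ K * (D ^ 3 * s 7) :=
            mul_le_mul_of_nonneg_left (mul_le_mul_of_nonneg_right hD23 p7) hK0
        _ ≤ K ^ 2 * (D ^ 3 * s 7) := mul_le_mul_of_nonneg_right hK2 f7
    have b2 : |mu * s0 * (coQ i j 5 * coQ i j 8)| ≤ K ^ 2 * (D ^ 3 * s 7) := by
      rw [abs_mul, abs_mul, abs_mul]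
      calc |mu| * |s0| * (|coQ i j 5| * |coQ i j 8|) ≤ |mu| * |s0| * ((K * s 5) * (K * s 8)) := by
            refine mul_le_mul_of_nonneg_left ?_ (by positivity)
            exact mul_le_mul x5 x8 (abs_nonneg _) (by positivity)
        _ = K ^ 2 * (|mu| * |s0| * (s 5 * s 8)) := by ring
        _ ≤ K ^ 2 * (D ^ 3 * s 7) := mul_le_mul_of_nonneg_left a4 (by positivity)
    have b3 : |mu * coQ i j 8 * (i.e - (e0 - s0 * i.ca))| ≤ K ^ 2 * (D ^ 3 * s 7) := by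
      rw [abs_mul, abs_mul]
      calc |mu| * |coQ i j 8| * |i.e - (e0 - s0 * i.ca)| ≤ |mu| * (K * s 8) * dE := by
            refine mul_le_mul ?_ hη (abs_nonneg _) (by positivity)
            exact mul_le_mul_of_nonneg_left x8 hm
        _ = K * (|mu| * s 8 * dE) := by ring
        _ ≤ K * (D ^ 3 * s 7) := mul_le_mul_of_nonneg_left a5 hK0
        _ ≤ K ^ 2 * (D ^ 3 * s 7) := mul_le_mul_of_nonneg_right hK2 f7
    have b0 := (hs 7).trans (base 7)
    refine (abs4 b0 b1 b2 b3).trans ?_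
    have : 0 ≤ K ^ 2 * (D ^ 3 * s 7) := by positivity
    change _ ≤ 5 * K ^ 2 * D ^ 3 * s 7
    nlinarith
  · exact same 8 (by simp)
  · exact same 9 (by simp)
  · -- N
    change |coQ (rg (gg s0 e0 mu) i) (rg (gg s0 e0 mu) j) 10| ≤ _
    rw [slot_N]
    have b1 : |mu * s0 / 2 * coQ i j 8 ^ 2| ≤ K ^ 2 * (D ^ 3 * s 10) := by
      have e1 : |mu * s0 / 2 * coQ i j 8 ^ 2| = |mu| * |s0| * |coQ i j 8| ^ 2 / 2 := by
        rw [abs_mul, abs_div, abs_mul, abs_pow, abs_of_pos (by norm_num : (0 : ℝ) < 2)]; ring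
      have h1 : |coQ i j 8| ^ 2 ≤ (K * s 8) ^ 2 := pow_le_pow_left₀ (abs_nonneg _) x8 2
      have h2 : |mu| * |s0| * |coQ i j 8| ^ 2 ≤ K ^ 2 * (D ^ 3 * s 10) := by
        calc |mu| * |s0| * |coQ i j 8| ^ 2 ≤ |mu| * |s0| * (K * s 8) ^ 2 :=
              mul_le_mul_of_nonneg_left h1 (by positivity)
          _ = K ^ 2 * (|mu| * |s0| * s 8 ^ 2) := by ring
          _ ≤ K ^ 2 * (D ^ 3 * s 10) := mul_le_mul_of_nonneg_left a6 (by positivity)
      rw [e1]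
      have h3 : 0 ≤ |mu| * |s0| * |coQ i j 8| ^ 2 := by positivity
      linarith
    have b0 := (hs 10).trans (base 10)
    refine (abs_sub _ _).trans ?_
    have : 0 ≤ K ^ 2 * (D ^ 3 * s 10) := by positivity
    change _ ≤ 5 * K ^ 2 * D ^ 3 * s 10
    nlinarith

set_option maxHeartbeats 1000000 in
/-- **a box of the gauge chart is in the same box of the straight chart** (slot `1` of the straight
chart vanishes, slot `3` is bounded by `mu z` and the gauged slot) -/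
theorem box_gau {s : Fin 11 → ℝ} {D K : ℝ} (h : GWall s D mu s0 dE) (hK : 1 ≤ K)
    (hi : GRel s0 e0 q0 be mu dE dC dF i) (hj : j.y2 = 0)
    (hs : ∀ k, k ≠ 1 → |coQ (rg (gg s0 e0 mu) i) (rg (gg s0 e0 mu) j) k| ≤ K * s k)
    (k : Fin 11) : |coQ i j k| ≤ 5 * K ^ 2 * D ^ 3 * s k := by
  have hD := h.D1
  have hD3 : 1 ≤ D ^ 3 := one_le_pow₀ hD
  have hK2 : K ≤ K ^ 2 := by nlinarith
  have hK0 : 0 ≤ K := by linarith
  obtain ⟨a1, a2, a3, a4, a5, a6⟩ := h.prods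
  have base : ∀ k, K * s k ≤ 1 * (K ^ 2 * D ^ 3 * s k) := fun k => by
    have := h.pos k
    have h1 : K * s k ≤ K ^ 2 * s k := mul_le_mul_of_nonneg_right hK2 this
    have h2 : 1 * (K ^ 2 * s k) ≤ D ^ 3 * (K ^ 2 * s k) :=
      mul_le_mul_of_nonneg_right hD3 (by positivity)
    linarith
  have same : ∀ k, k = 0 ∨ k = 2 ∨ k = 5 ∨ k = 6 ∨ k = 8 ∨ k = 9 →
      |coQ i j k| ≤ K * s k := fun k hk => by
    have h1 := hs k (by rcases hk with rfl | rfl | rfl | rfl | rfl | rfl <;> decide)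
    rwa [slot_same k hk] at h1
  have same' : ∀ k, k = 0 ∨ k = 2 ∨ k = 5 ∨ k = 6 ∨ k = 8 ∨ k = 9 →
      |coQ i j k| ≤ 5 * K ^ 2 * D ^ 3 * s k := fun k hk => by
    have h1 := same k hk
    have h2 := base k
    have h3 : 0 ≤ K ^ 2 * D ^ 3 * s k := by have := h.pos k; positivity
    linarith
  have hm := abs_nonneg mu
  have hs' := abs_nonneg s0
  have x0 := same 0 (by simp)
  have x5 := same 5 (by simp)
  have x8 := same 8 (by simp)
  have x9 := same 9 (by simp)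
  have p0 := h.pos 0
  have p3 := h.pos 3
  have p4 := h.pos 4
  have p5 := h.pos 5
  have p7 := h.pos 7
  have p8 := h.pos 8
  have p9 := h.pos 9
  have p10 := h.pos 10
  have hη := hi.hE
  have hd0 : 0 ≤ dE := (abs_nonneg _).trans hη
  have f4 : 0 ≤ D ^ 3 * s 4 := by positivity
  have f7 : 0 ≤ D ^ 3 * s 7 := by positivity
  have f10 : 0 ≤ D ^ 3 * s 10 := by positivity
  fin_cases k
  · exact same' 0 (by simp)
  · change |coQ i j 1| ≤ 5 * K ^ 2 * D ^ 3 * s 1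
    have e1 : coQ i j 1 = 0 := by
      simp only [coQ, Matrix.cons_val, hi.str, hj, sub_self]
    rw [e1, abs_zero]
    have := h.pos 1
    positivity
  · exact same' 2 (by simp)
  · change |coQ i j 3| ≤ 5 * K ^ 2 * D ^ 3 * s 3
    have e1 : coQ i j 3 = coQ (rg (gg s0 e0 mu) i) (rg (gg s0 e0 mu) j) 3 + mu * coQ i j 0 := by
      rw [slot_Fb_eq (be := be)]
      simp only [coQ, Matrix.cons_val]; ring
    rw [e1]
    refine (abs_add_le _ _).trans ?_
    rw [abs_mul]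
    have h1 := hs 3 (by decide)
    have h2 : |mu| * |coQ i j 0| ≤ K * (D * s 3) := by
      calc |mu| * |coQ i j 0| ≤ |mu| * (K * s 0) := mul_le_mul_of_nonneg_left x0 hm
        _ = K * (|mu| * s 0) := by ring
        _ ≤ K * (D * s 3) := mul_le_mul_of_nonneg_left h.hmu hK0
    have h3 : K * (D * s 3) ≤ K ^ 2 * (D ^ 3 * s 3) := by
      have hDD : D ≤ D ^ 3 := by
        calc D = D ^ 1 := (pow_one D).symm
          _ ≤ D ^ 3 := pow_le_pow_right₀ hD (by norm_num)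
      exact mul_le_mul hK2 (mul_le_mul_of_nonneg_right hDD p3) (by positivity) (by positivity)
    have h4 := base 3
    have : 0 ≤ K ^ 2 * (D ^ 3 * s 3) := by positivity
    nlinarith
  · -- F_a
    change |coQ i j 4| ≤ 5 * K ^ 2 * D ^ 3 * s 4
    have e1 : coQ i j 4 = coQ (rg (gg s0 e0 mu) i) (rg (gg s0 e0 mu) j) 4 -
        (-(mu * s0 * (coQ i j 8 + coQ i j 0 * coQ i j 5))) -
        (-(mu * coQ i j 0 * (i.e - (e0 - s0 * i.ca)))) := by rw [slot_Fa]; ring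
    rw [e1]
    have b1 : |-(mu * s0 * (coQ i j 8 + coQ i j 0 * coQ i j 5))| ≤
        2 * (K ^ 2 * (D ^ 3 * s 4)) := by
      rw [abs_neg, abs_mul, abs_mul]
      have h1 : |coQ i j 8 + coQ i j 0 * coQ i j 5| ≤ 2 * K ^ 2 * s 8 := by
        refine (abs_add_le _ _).trans ?_
        rw [abs_mul]
        have h2 : |coQ i j 0| * |coQ i j 5| ≤ (K * s 0) * (K * s 5) :=
          mul_le_mul x0 x5 (abs_nonneg _) (by positivity)
        have h3 : K * s 8 ≤ K ^ 2 * s 8 := mul_le_mul_of_nonneg_right hK2 p8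
        rw [h.w8] at h3 ⊢
        rw [h.w8] at x8
        nlinarith
      calc |mu| * |s0| * |coQ i j 8 + coQ i j 0 * coQ i j 5|
          ≤ |mu| * |s0| * (2 * K ^ 2 * s 8) := mul_le_mul_of_nonneg_left h1 (by positivity)
        _ = 2 * K ^ 2 * (|mu| * |s0| * s 8) := by ring
        _ ≤ 2 * K ^ 2 * (D ^ 3 * s 4) := mul_le_mul_of_nonneg_left a1 (by positivity)
        _ = _ := by ring
    have b2 : |-(mu * coQ i j 0 * (i.e - (e0 - s0 * i.ca)))| ≤ K ^ 2 * (D ^ 3 * s 4) := by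
      rw [abs_neg, abs_mul, abs_mul]
      calc |mu| * |coQ i j 0| * |i.e - (e0 - s0 * i.ca)| ≤ |mu| * (K * s 0) * dE := by
            refine mul_le_mul ?_ hη (abs_nonneg _) (by positivity)
            exact mul_le_mul_of_nonneg_left x0 hm
        _ = K * (|mu| * s 0 * dE) := by ring
        _ ≤ K * (D ^ 3 * s 4) := mul_le_mul_of_nonneg_left a2 hK0
        _ ≤ K ^ 2 * (D ^ 3 * s 4) := mul_le_mul_of_nonneg_right hK2 f4
    have b0 := (hs 4 (by decide)).trans (base 4)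
    refine (abs3 b0 b1 b2).trans ?_
    have : 0 ≤ K ^ 2 * (D ^ 3 * s 4) := by positivity
    nlinarith
  · exact same' 5 (by simp)
  · exact same' 6 (by simp)
  · -- P
    change |coQ i j 7| ≤ 5 * K ^ 2 * D ^ 3 * s 7
    have e1 : coQ i j 7 = coQ (rg (gg s0 e0 mu) i) (rg (gg s0 e0 mu) j) 7 -
        (-(mu * coQ i j 9)) - (-(mu * s0 * (coQ i j 5 * coQ i j 8))) -
        (-(mu * coQ i j 8 * (i.e - (e0 - s0 * i.ca)))) := by rw [slot_P]; ring
    rw [e1]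
    have b1 : |-(mu * coQ i j 9)| ≤ K ^ 2 * (D ^ 3 * s 7) := by
      rw [abs_neg, abs_mul]
      have hD23 : D ^ 2 ≤ D ^ 3 := pow_le_pow_right₀ hD (by norm_num)
      calc |mu| * |coQ i j 9| ≤ |mu| * (K * s 9) := mul_le_mul_of_nonneg_left x9 hm
        _ = K * (|mu| * s 9) := by ring
        _ ≤ K * (D ^ 2 * s 7) := mul_le_mul_of_nonneg_left a3 hK0
        _ ≤ K * (D ^ 3 * s 7) :=
            mul_le_mul_of_nonneg_left (mul_le_mul_of_nonneg_right hD23 p7) hK0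
        _ ≤ K ^ 2 * (D ^ 3 * s 7) := mul_le_mul_of_nonneg_right hK2 f7
    have b2 : |-(mu * s0 * (coQ i j 5 * coQ i j 8))| ≤ K ^ 2 * (D ^ 3 * s 7) := by
      rw [abs_neg, abs_mul, abs_mul, abs_mul]
      calc |mu| * |s0| * (|coQ i j 5| * |coQ i j 8|) ≤ |mu| * |s0| * ((K * s 5) * (K * s 8)) := by
            refine mul_le_mul_of_nonneg_left ?_ (by positivity)
            exact mul_le_mul x5 x8 (abs_nonneg _) (by positivity)
        _ = K ^ 2 * (|mu| * |s0| * (s 5 * s 8)) := by ring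
        _ ≤ K ^ 2 * (D ^ 3 * s 7) := mul_le_mul_of_nonneg_left a4 (by positivity)
    have b3 : |-(mu * coQ i j 8 * (i.e - (e0 - s0 * i.ca)))| ≤ K ^ 2 * (D ^ 3 * s 7) := by
      rw [abs_neg, abs_mul, abs_mul]
      calc |mu| * |coQ i j 8| * |i.e - (e0 - s0 * i.ca)| ≤ |mu| * (K * s 8) * dE := by
            refine mul_le_mul ?_ hη (abs_nonneg _) (by positivity)
            exact mul_le_mul_of_nonneg_left x8 hm
        _ = K * (|mu| * s 8 * dE) := by ring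
        _ ≤ K * (D ^ 3 * s 7) := mul_le_mul_of_nonneg_left a5 hK0
        _ ≤ K ^ 2 * (D ^ 3 * s 7) := mul_le_mul_of_nonneg_right hK2 f7
    have b0 := (hs 7 (by decide)).trans (base 7)
    refine (abs4 b0 b1 b2 b3).trans ?_
    have : 0 ≤ K ^ 2 * (D ^ 3 * s 7) := by positivity
    nlinarith
  · exact same' 8 (by simp)
  · exact same' 9 (by simp)
  · -- N
    change |coQ i j 10| ≤ 5 * K ^ 2 * D ^ 3 * s 10
    have e1 : coQ i j 10 = coQ (rg (gg s0 e0 mu) i) (rg (gg s0 e0 mu) j) 10 -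
        (-(mu * s0 / 2 * coQ i j 8 ^ 2)) := by rw [slot_N]; ring
    rw [e1]
    have b1 : |-(mu * s0 / 2 * coQ i j 8 ^ 2)| ≤ K ^ 2 * (D ^ 3 * s 10) := by
      have e1 : |-(mu * s0 / 2 * coQ i j 8 ^ 2)| = |mu| * |s0| * |coQ i j 8| ^ 2 / 2 := by
        rw [abs_neg, abs_mul, abs_div, abs_mul, abs_pow, abs_of_pos (by norm_num : (0 : ℝ) < 2)]
        ring
      have h1 : |coQ i j 8| ^ 2 ≤ (K * s 8) ^ 2 := pow_le_pow_left₀ (abs_nonneg _) x8 2
      have h2 : |mu| * |s0| * |coQ i j 8| ^ 2 ≤ K ^ 2 * (D ^ 3 * s 10) := by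
        calc |mu| * |s0| * |coQ i j 8| ^ 2 ≤ |mu| * |s0| * (K * s 8) ^ 2 :=
              mul_le_mul_of_nonneg_left h1 (by positivity)
          _ = K ^ 2 * (|mu| * |s0| * s 8 ^ 2) := by ring
          _ ≤ K ^ 2 * (D ^ 3 * s 10) := mul_le_mul_of_nonneg_left a6 (by positivity)
      rw [e1]
      have h3 : 0 ≤ |mu| * |s0| * |coQ i j 8| ^ 2 := by positivity
      linarith
    have b0 := (hs 10 (by decide)).trans (base 10)
    refine (abs_sub _ _).trans ?_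
    have : 0 ≤ K ^ 2 * (D ^ 3 * s 10) := by positivity
    nlinarith

end

end Crest.Agent.R136.Gau66
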