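import Crest.Agent.R136.Gz1_779
import Crest.Agent.R136.Gau2_66

/-!
# R136: the gauge stage (helper779)

`gauIn_of_rel` : 66's relations `GRel` with natural sizes give `GauIn`; `gauIn_flat` : `h = 0`.
`dmax_of_old` : D-max of gauge boxes from the old profile.
`exists_extG` : **RIG class + gauge ⊢ `ExtZ` in the gauge chart**, all hypotheses in profile form.
`extG_zero` : the slots `R`, `F_b` are zero slots of both profiles.
-/

set_option autoImplicit false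
set_option linter.unusedSectionVars false
set_option linter.unusedVariables false

open Filter Topology

namespace Crest.Agent.R136.Gz779

open Finset Crest.Agent.R138.Ex926 Crest.Agent.R136.Net191 Crest.Agent.R136.Qg926
open Crest.Agent.R136.NetQ186 Crest.Agent.R136.GeoQ186 Crest.Agent.R136.Zpr779
open Crest.Agent.R136.Gau66

/-- exact walls of the base exponents -/
structure TightQ (X : Fin 11 → ℝ) : Prop where
  nn : ∀ k, 0 ≤ X k
  h07 : X 0 ≤ X 7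
  w4 : X 4 = X 2 + X 3
  w6 : X 6 = X 2 + X 5
  w7 : X 7 = X 4 + X 5
  w8 : X 8 = X 0 + X 5
  w9 : X 9 = X 0 + X 6
  w10 : X 10 = X 4 + X 8

theorem legal_XG {X : ℕ → Fin 11 → ℝ} {n : ℕ} (h : TightQ (X n)) : Legal monQ (XG X n) := by
  obtain ⟨nn, h07, w4, w6, w7, w8, w9, w10⟩ := h
  have e1 : XG X n 1 = X n 7 - X n 0 := if_pos rfl
  have e0 : XG X n 0 = X n 0 := XG_of_ne (by decide)
  have e2 : XG X n 2 = X n 2 := XG_of_ne (by decide)
  have e3 : XG X n 3 = X n 3 := XG_of_ne (by decide)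
  have e4 : XG X n 4 = X n 4 := XG_of_ne (by decide)
  have e5 : XG X n 5 = X n 5 := XG_of_ne (by decide)
  have e6 : XG X n 6 = X n 6 := XG_of_ne (by decide)
  have e7 : XG X n 7 = X n 7 := XG_of_ne (by decide)
  have e8 : XG X n 8 = X n 8 := XG_of_ne (by decide)
  have e9 : XG X n 9 = X n 9 := XG_of_ne (by decide)
  have e10 : XG X n 10 = X n 10 := XG_of_ne (by decide)
  rw [legalQ_iff]
  refine ⟨fun k => ?_, ?_, ?_, ?_, ?_, ?_, ?_, ?_, ?_, ?_, ?_, ?_⟩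
  · by_cases hk : k = 1
    · subst hk; rw [e1]; linarith
    · rw [XG_of_ne hk]; exact nn k
  all_goals simp only [e0, e1, e2, e3, e4, e5, e6, e7, e8, e9, e10]; linarith

theorem legal_add_smul {m : ℕ} {M : Mons m} {p c : Fin m → ℝ} (hp : Legal M p) (hc : Legal M c)
    {t : ℝ} (ht : 0 ≤ t) : Legal M (p + t • c) where
  nonneg := fun k => add_nonneg (hp.nonneg k) (mul_nonneg ht (hc.nonneg k))
  wall := fun k e he => by
    have h1 := hp.wall k e he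
    have h2 := mul_le_mul_of_nonneg_left (hc.wall k e he) ht
    have e1 : ∑ s, (e s : ℝ) * (p + t • c) s =
        ∑ s, (e s : ℝ) * p s + t * ∑ s, (e s : ℝ) * c s := by
      rw [mul_sum, ← sum_add_distrib]
      refine sum_congr rfl fun s _ => ?_
      simp only [Pi.add_apply, Pi.smul_apply, smul_eq_mul]; ring
    rw [e1]
    simp only [Pi.add_apply, Pi.smul_apply, smul_eq_mul]
    linarith

variable {B B' : Base} {E : ℕ → Finset (ℕ × ℝ)} {F : ℕ → ℕ × ℝ → Fq4} {h : ℕ → Fin 6 → ℝ}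
  {X : ℕ → Fin 11 → ℝ} {η : ℕ → ℝ} {x xF : ℝ}

/-- **66's relations with natural sizes give `GauIn`** -/
theorem gauIn_of_rel {s0 e0 q0 be mu dE dC dF : ℕ → ℝ} (ht : ∀ n, TightQ (X n))
    (hrel : ∀ᶠ n in (U : Filter ℕ), ∀ i ∈ E n,
      GRel (s0 n) (e0 n) (q0 n) (be n) (mu n) (dE n) (dC n) (dF n) (F n i))
    (hdE0 : ∀ n, 0 ≤ dE n)
    (hmu : ∀ ε : ℝ, 0 < ε → ∀ᶠ n in (U : Filter ℕ),
      |mu n| * B.d n ^ X n 0 ≤ B'.d n ^ (-ε) * B.d n ^ X n 3)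
    (hs0 : ∀ ε : ℝ, 0 < ε → ∀ᶠ n in (U : Filter ℕ),
      |s0 n| * B.d n ^ X n 5 ≤ B'.d n ^ (-ε) * B.d n ^ X n 2)
    (hdE : ∀ ε : ℝ, 0 < ε → ∀ᶠ n in (U : Filter ℕ), dE n ≤ B'.d n ^ (x - ε) * B.d n ^ X n 2)
    (hdC : ∀ ε : ℝ, 0 < ε → ∀ᶠ n in (U : Filter ℕ), dC n ≤ B'.d n ^ (x - ε) * B.d n ^ X n 6)
    (hdF : ∀ ε : ℝ, 0 < ε → ∀ᶠ n in (U : Filter ℕ), dF n ≤ B'.d n ^ (xF - ε) * B.d n ^ X n 3) :
    GauIn B B' E F (fun n => gg (s0 n) (e0 n) (mu n)) X (fun n => |mu n| * dE n) x xF := by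
  have hd : ∀ n, ∀ t : ℝ, 0 < B'.d n ^ t := fun n t => Real.rpow_pos_of_pos (B'.pos n) t
  have hB : ∀ n, ∀ t : ℝ, 0 < B.d n ^ t := fun n t => Real.rpow_pos_of_pos (B.pos n) t
  have hBa : ∀ n, ∀ s t : ℝ, B.d n ^ s * B.d n ^ t = B.d n ^ (s + t) := fun n s t =>
    (Real.rpow_add (B.pos n) s t).symm
  have hda : ∀ n, ∀ s t : ℝ, B'.d n ^ s * B'.d n ^ t = B'.d n ^ (s + t) := fun n s t =>
    (Real.rpow_add (B'.pos n) s t).symm
  have h1ε : ∀ ε : ℝ, 0 < ε → ∀ n, 1 ≤ B'.d n ^ (-ε) := fun ε hε n =>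
    Real.one_le_rpow_of_pos_of_le_one_of_nonpos (B'.pos n) (B'.lt n).le (by linarith)
  have hwall : ∀ (n : ℕ) (a b c : Fin 11), X n c = X n a + X n b → ∀ ε : ℝ, 0 < ε →
      B.d n ^ X n a * B.d n ^ X n b ≤ B'.d n ^ (-ε) * B.d n ^ X n c := by
    intro n a b c habc ε hε
    rw [hBa, ← habc]
    exact le_mul_of_one_le_left (hB n _).le (h1ε ε hε n)
  have hwall' : ∀ (n : ℕ) (a b c : Fin 11), X n c = X n a + X n b → ∀ ε : ℝ, 0 < ε →
      B.d n ^ X n c ≤ B'.d n ^ (-ε) * (B.d n ^ X n a * B.d n ^ X n b) := by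
    intro n a b c habc ε hε
    rw [hBa, ← habc]
    exact le_mul_of_one_le_left (hB n _).le (h1ε ε hε n)
  have hg2 : ∀ n, gg (s0 n) (e0 n) (mu n) 2 = mu n := fun n => rfl
  have hg3 : ∀ n, gg (s0 n) (e0 n) (mu n) 3 = mu n * s0 n / 2 := fun n => rfl
  refine
    { h4 := fun n => rfl, h5 := fun n => rfl
      η0 := fun n => mul_nonneg (abs_nonneg _) (hdE0 n)
      tau := ?_, b2 := fun ε hε => ?_, b3 := fun ε hε => ?_, bη := fun ε hε => ?_
      s1 := fun ε hε => ?_, s3 := fun ε hε => ?_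
      n6 := fun ε hε => Eventually.of_forall fun n => hwall n 3 6 7 (by
        have := ht n; linarith [this.w7, this.w4, this.w6]) ε hε
      n7 := fun ε hε => Eventually.of_forall fun n => hwall n 4 5 7 (ht n).w7 ε hε
      n8 := fun ε hε => Eventually.of_forall fun n => hwall n 0 5 8 (ht n).w8 ε hε
      n8' := fun ε hε => Eventually.of_forall fun n => hwall' n 0 5 8 (ht n).w8 ε hε
      n9 := fun ε hε => Eventually.of_forall fun n => hwall' n 0 6 9 (ht n).w9 ε hε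
      n10 := fun ε hε => Eventually.of_forall fun n => hwall n 4 8 10 (ht n).w10 ε hε }
  · filter_upwards [hrel] with n hn i hi
    have h1 := (hn i hi).hE
    have e1 : tau (gg (s0 n) (e0 n) (mu n)) (F n i) =
        mu n * ((F n i).e - (e0 n - s0 n * (F n i).ca)) := by
      simp only [tau, gg, Matrix.cons_val]; ring
    rw [e1, abs_mul]
    exact mul_le_mul_of_nonneg_left h1 (abs_nonneg _)
  · filter_upwards [hmu ε hε] with n h1
    rw [hg2]; exact h1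
  · filter_upwards [hmu (ε / 2) (by positivity), hs0 (ε / 2) (by positivity)] with n h1 h2
    have htn := ht n
    have e8 : B.d n ^ X n 8 = B.d n ^ X n 0 * B.d n ^ X n 5 := by rw [hBa, htn.w8]
    have e4 : B.d n ^ X n 4 = B.d n ^ X n 2 * B.d n ^ X n 3 := by rw [hBa, htn.w4]
    have hm := abs_nonneg (mu n)
    have hs := abs_nonneg (s0 n)
    rw [hg3, abs_div, abs_mul, abs_of_pos (by norm_num : (0 : ℝ) < 2), e8, e4]
    calc |mu n| * |s0 n| / 2 * (B.d n ^ X n 0 * B.d n ^ X n 5)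
        = ((|mu n| * B.d n ^ X n 0) * (|s0 n| * B.d n ^ X n 5)) / 2 := by ring
      _ ≤ (|mu n| * B.d n ^ X n 0) * (|s0 n| * B.d n ^ X n 5) := by
          have : 0 ≤ (|mu n| * B.d n ^ X n 0) * (|s0 n| * B.d n ^ X n 5) :=
            mul_nonneg (mul_nonneg hm (hB n _).le) (mul_nonneg hs (hB n _).le)
          linarith
      _ ≤ (B'.d n ^ (-(ε / 2)) * B.d n ^ X n 3) * (B'.d n ^ (-(ε / 2)) * B.d n ^ X n 2) :=
          mul_le_mul h1 h2 (mul_nonneg hs (hB n _).le) (mul_nonneg (hd n _).le (hB n _).le)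
      _ = (B'.d n ^ (-(ε / 2)) * B'.d n ^ (-(ε / 2))) * (B.d n ^ X n 2 * B.d n ^ X n 3) := by ring
      _ = _ := by rw [hda]; congr 2; ring
  · filter_upwards [hmu (ε / 2) (by positivity), hdE (ε / 2) (by positivity)] with n h1 h2
    have e4 : B.d n ^ X n 4 = B.d n ^ X n 2 * B.d n ^ X n 3 := by rw [hBa, (ht n).w4]
    rw [e4]
    calc |mu n| * dE n * B.d n ^ X n 0 = (|mu n| * B.d n ^ X n 0) * dE n := by ring
      _ ≤ (B'.d n ^ (-(ε / 2)) * B.d n ^ X n 3) * (B'.d n ^ (x - ε / 2) * B.d n ^ X n 2) :=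
          mul_le_mul h1 h2 (hdE0 n) (mul_nonneg (hd n _).le (hB n _).le)
      _ = (B'.d n ^ (-(ε / 2)) * B'.d n ^ (x - ε / 2)) * (B.d n ^ X n 2 * B.d n ^ X n 3) := by
          ring
      _ = _ := by rw [hda]; congr 2; ring
  · filter_upwards [hrel, hmu (ε / 3) (by positivity), hdC (ε / 3) (by positivity),
      ev_const_le B' (c := 2) (by norm_num) (ε := ε / 3) (by positivity)] with n h0 h1 h2 h3 i hi j hj
    have e7 : B.d n ^ X n 7 = B.d n ^ X n 3 * B.d n ^ X n 6 := by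
      rw [hBa]; congr 1; have := ht n; linarith [this.w7, this.w4, this.w6]
    have h4 := slot_R (h0 i hi) (h0 j hj)
    have h5 : |coG F (fun n => gg (s0 n) (e0 n) (mu n)) n i j 1| ≤ 2 * |mu n| * dC n := h4
    have hdC0 : 0 ≤ dC n := (abs_nonneg _).trans (h0 i hi).hC
    have hm := abs_nonneg (mu n)
    rw [e7]
    calc |coG F (fun n => gg (s0 n) (e0 n) (mu n)) n i j 1| * B.d n ^ X n 0
        ≤ (2 * |mu n| * dC n) * B.d n ^ X n 0 := mul_le_mul_of_nonneg_right h5 (hB n _).le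
      _ = 2 * ((|mu n| * B.d n ^ X n 0) * dC n) := by ring
      _ ≤ B'.d n ^ (-(ε / 3)) * ((B'.d n ^ (-(ε / 3)) * B.d n ^ X n 3) *
          (B'.d n ^ (x - ε / 3) * B.d n ^ X n 6)) := by
          refine mul_le_mul h3 (mul_le_mul h1 h2 hdC0 (mul_nonneg (hd n _).le (hB n _).le))
            (mul_nonneg (mul_nonneg hm (hB n _).le) hdC0) (hd n _).le
      _ = (B'.d n ^ (-(ε / 3)) * (B'.d n ^ (-(ε / 3)) * B'.d n ^ (x - ε / 3))) *
          (B.d n ^ X n 3 * B.d n ^ X n 6) := by ring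
      _ = _ := by rw [hda, hda]; congr 2; ring
  · filter_upwards [hrel, hdF (ε / 2) (by positivity),
      ev_const_le B' (c := 2) (by norm_num) (ε := ε / 2) (by positivity)] with n h0 h2 h3 i hi j hj
    have h4 := slot_Fb (h0 i hi) (h0 j hj)
    have h5 : |coG F (fun n => gg (s0 n) (e0 n) (mu n)) n i j 3| ≤ 2 * dF n := h4
    have hdF0 : 0 ≤ dF n := (abs_nonneg _).trans (h0 i hi).hF
    calc |coG F (fun n => gg (s0 n) (e0 n) (mu n)) n i j 3| ≤ 2 * dF n := h5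
      _ ≤ B'.d n ^ (-(ε / 2)) * (B'.d n ^ (xF - ε / 2) * B.d n ^ X n 3) :=
          mul_le_mul h3 h2 hdF0 (hd n _).le
      _ = (B'.d n ^ (-(ε / 2)) * B'.d n ^ (xF - ε / 2)) * B.d n ^ X n 3 := by ring
      _ = _ := by rw [hda]; congr 2; ring

/-- **no gauge** (branch `F_b` constant): `h = 0` -/
theorem gauIn_flat (ht : ∀ n, TightQ (X n))
    (hstr : ∀ᶠ n in (U : Filter ℕ), ∀ i ∈ E n, ∀ j ∈ E n, coF F n i j 1 = 0)
    (hfb : ∀ ε : ℝ, 0 < ε → ∀ᶠ n in (U : Filter ℕ), ∀ i ∈ E n, ∀ j ∈ E n,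
      |coF F n i j 3| ≤ B'.d n ^ (xF - ε) * B.d n ^ X n 3) :
    GauIn B B' E F (fun _ => 0) X (fun _ => 0) x xF := by
  have hd : ∀ n, ∀ t : ℝ, 0 < B'.d n ^ t := fun n t => Real.rpow_pos_of_pos (B'.pos n) t
  have hB : ∀ n, ∀ t : ℝ, 0 < B.d n ^ t := fun n t => Real.rpow_pos_of_pos (B.pos n) t
  have hBa : ∀ n, ∀ s t : ℝ, B.d n ^ s * B.d n ^ t = B.d n ^ (s + t) := fun n s t =>
    (Real.rpow_add (B.pos n) s t).symm
  have h1ε : ∀ ε : ℝ, 0 < ε → ∀ n, 1 ≤ B'.d n ^ (-ε) := fun ε hε n =>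
    Real.one_le_rpow_of_pos_of_le_one_of_nonpos (B'.pos n) (B'.lt n).le (by linarith)
  have hwall : ∀ (n : ℕ) (a b c : Fin 11), X n c = X n a + X n b → ∀ ε : ℝ, 0 < ε →
      B.d n ^ X n a * B.d n ^ X n b ≤ B'.d n ^ (-ε) * B.d n ^ X n c := by
    intro n a b c habc ε hε
    rw [hBa, ← habc]
    exact le_mul_of_one_le_left (hB n _).le (h1ε ε hε n)
  have hwall' : ∀ (n : ℕ) (a b c : Fin 11), X n c = X n a + X n b → ∀ ε : ℝ, 0 < ε →
      B.d n ^ X n c ≤ B'.d n ^ (-ε) * (B.d n ^ X n a * B.d n ^ X n b) := by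
    intro n a b c habc ε hε
    rw [hBa, ← habc]
    exact le_mul_of_one_le_left (hB n _).le (h1ε ε hε n)
  have hsl := fun n i j => rg_slots (h := (0 : Fin 6 → ℝ)) rfl rfl (F n i) (F n j)
  refine
    { h4 := fun n => rfl, h5 := fun n => rfl
      η0 := fun n => le_rfl
      tau := Eventually.of_forall fun n i hi => by simp [tau]
      b2 := fun ε hε => Eventually.of_forall fun n => by
        simp only [Pi.zero_apply, abs_zero, zero_mul]
        exact mul_nonneg (hd n _).le (hB n _).le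
      b3 := fun ε hε => Eventually.of_forall fun n => by
        simp only [Pi.zero_apply, abs_zero, zero_mul]
        exact mul_nonneg (hd n _).le (hB n _).le
      bη := fun ε hε => Eventually.of_forall fun n => by
        rw [zero_mul]
        exact mul_nonneg (hd n _).le (hB n _).le
      s1 := fun ε hε => ?_, s3 := fun ε hε => ?_
      n6 := fun ε hε => Eventually.of_forall fun n => hwall n 3 6 7 (by
        have := ht n; linarith [this.w7, this.w4, this.w6]) ε hε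
      n7 := fun ε hε => Eventually.of_forall fun n => hwall n 4 5 7 (ht n).w7 ε hε
      n8 := fun ε hε => Eventually.of_forall fun n => hwall n 0 5 8 (ht n).w8 ε hε
      n8' := fun ε hε => Eventually.of_forall fun n => hwall' n 0 5 8 (ht n).w8 ε hε
      n9 := fun ε hε => Eventually.of_forall fun n => hwall' n 0 6 9 (ht n).w9 ε hε
      n10 := fun ε hε => Eventually.of_forall fun n => hwall n 4 8 10 (ht n).w10 ε hε }
  · filter_upwards [hstr] with n h1 i hi j hj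
    have e1 : coG F (fun _ => (0 : Fin 6 → ℝ)) n i j 1 = coF F n i j 1 := by
      have := (hsl n i j).2.1
      simp only [tau, Pi.zero_apply, zero_mul, mul_zero, add_zero, sub_zero] at this
      exact this
    rw [e1, h1 i hi j hj, abs_zero, zero_mul]
    exact mul_nonneg (hd n _).le (hB n _).le
  · filter_upwards [hfb ε hε] with n h1 i hi j hj
    have e1 : coG F (fun _ => (0 : Fin 6 → ℝ)) n i j 3 = coF F n i j 3 := by
      have := (hsl n i j).2.2.2.1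
      simp only [Pi.zero_apply, zero_mul, sub_zero] at this
      exact this
    rw [e1]
    exact h1 i hi j hj

theorem PBox.zero (hx : 0 ≤ x) : PBox x (0 : Fin 11 → ℝ) := by
  constructor <;> simp [hx]

/-- a constant factor is absorbed -/
theorem wbox_absorb {m : ℕ} {ι : ℕ → Type*} {co : ∀ n, ι n → ι n → Fin m → ℝ}
    {X : ℕ → Fin m → ℝ} {n : ℕ} {p : Fin m → ℝ} {K K' : ℝ} (hK : K ≤ K') {i j : ι n}
    (h : wbox B B' co X n p K i j) : wbox B B' co X n p K' i j := fun s =>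
  (h s).trans (mul_le_mul_of_nonneg_right hK (wside_pos B B' X n p s).le)

section Ext

variable {I₁ J₁ Cl : ℕ → Finset (ℕ × ℝ)} {co₁ : ∀ n : ℕ, ℕ × ℝ → ℕ × ℝ → Fin 11 → ℝ}
  {w : ℕ → ℝ} {D₁ P₁ : Set (Fin 11 → ℝ)} {T₁ To : ℕ → ℝ} {lam₁ own₁ : (Fin 11 → ℝ) → ℝ}
  {s₀ : ℕ → ℕ × ℝ}

/-- a set with small fibres -/
theorem card_le_fib {α β : Type*} [DecidableEq α] [DecidableEq β] (A : Finset α) (f : α → β)
    {K : ℝ} (h : ∀ x ∈ A, ((A.filter fun y => f y = f x).card : ℝ) ≤ K) :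
    (A.card : ℝ) ≤ K * (A.image f).card := by
  have h1 : (A.card : ℝ) = ∑ b ∈ A.image f, ((A.filter fun i => f i = b).card : ℝ) := by
    rw [card_eq_sum_card_image f A]; push_cast; rfl
  rw [h1]
  refine (sum_le_card_nsmul _ _ K fun b hb => ?_).trans (le_of_eq (by rw [nsmul_eq_mul, mul_comm]))
  obtain ⟨x, hx, rfl⟩ := mem_image.1 hb
  exact h x hx

/-- number of incidences in an old box -/
theorem card_old (hcls : ZCls B B' I₁ J₁ co₁ monQ 2 X w D₁ T₁ lam₁ Cl s₀)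
    (hE : ∀ᶠ n in (U : Filter ℕ), E n ⊆ Cl n) {p : Fin 11 → ℝ} (hp : p ∈ D₁) {ε : ℝ}
    (hε : 0 < ε) : ∃ δ : ℝ, 0 < δ ∧ ∀ᶠ n in (U : Filter ℕ), ∀ A ⊆ E n, ∀ i ∈ E n,
      (∀ j ∈ A, wbox B B' co₁ X n p (B'.d n ^ (-δ)) i j) →
      (A.card : ℝ) ≤ T₁ n * B'.d n ^ (-(lam₁ p + ε)) := by
  classical
  have hl : ∀ᶠ n in (U : Filter ℕ), Legal monQ (X n + w n • p) := by
    filter_upwards [hcls.legal ‖p‖] with n hn using hn p hp le_rfl
  obtain ⟨δ, hδ, _, hev⟩ := card_zlab_close (B' := B') (ε := ε / 2) hcls.chart hcls.base hl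
    (by positivity)
  refine ⟨δ, hδ, ?_⟩
  filter_upwards [hev, hcls.prof.up ‖p‖ (ε / 2) (by positivity), hE, hcls.csub, hcls.sub] with
    n h1 h2 h3 h4 h5 A hA i hi hb
  have hAJ : A ⊆ J₁ n := hA.trans (h3.trans h4)
  have c1 := h1 i (h5 (h4 (h3 hi))) A (hAJ.trans h5) hb
  have c2 : (A.card : ℝ) ≤ (T₁ n * B'.d n ^ (-(lam₁ p + ε / 2))) *
      (A.image (zlab B I₁ co₁ monQ 2 X w n p)).card := by
    refine card_le_fib A (zlab B I₁ co₁ monQ 2 X w n p) fun j hj => ?_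
    refine le_trans ?_ (h2 p hp le_rfl j (hAJ hj))
    exact_mod_cast card_le_card fun y hy => mem_cls.2
      ⟨hAJ (mem_filter.1 hy).1, (mem_filter.1 hy).2⟩
  have hT := hcls.T0 n
  have hd : ∀ t : ℝ, 0 < B'.d n ^ t := fun t => Real.rpow_pos_of_pos (B'.pos n) t
  calc (A.card : ℝ) ≤ (T₁ n * B'.d n ^ (-(lam₁ p + ε / 2))) * B'.d n ^ (-(ε / 2)) :=
        c2.trans (mul_le_mul_of_nonneg_left c1 (mul_nonneg hT.le (hd _).le))
    _ = _ := by rw [mul_assoc, ← Real.rpow_add (B'.pos n)]; congr 2; ring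

/-- **D-max in the gauge chart from the old profile** (boxes with `PBox`) -/
theorem dmax_of_old (hcls : ZCls B B' I₁ J₁ co₁ monQ 2 X w D₁ T₁ lam₁ Cl s₀)
    (hco : ∀ n, ∀ i ∈ I₁ n, ∀ j ∈ I₁ n, co₁ n i j = coF F n i j)
    (hE : ∀ᶠ n in (U : Filter ℕ), E n ⊆ Cl n) (G : GauIn B B' E F h X η x xF)
    {p p₁ : Fin 11 → ℝ} {a : ℝ} (hp₁ : p₁ ∈ D₁) (hbx : PBox x p₁) (hle : ∀ k, k ≠ 1 → p₁ k ≤ p k)
    (h30 : p₁ 3 ≤ p₁ 0) (h1 : p₁ 1 ≤ 0 ∨ ∀ᶠ n in (U : Filter ℕ), ∀ i ∈ E n, ∀ j ∈ E n,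
      coF F n i j 1 = 0) (hlam : lam₁ p₁ ≤ a) {ε : ℝ} (hε : 0 < ε) :
    ∀ᶠ n in (U : Filter ℕ), ∀ A ⊆ E n, ∀ i ∈ E n,
      (∀ j ∈ A, wbox B B' (coG F h) (XG X) n p (cK0 monQ 2) i j) →
        (A.card : ℝ) ≤ T₁ n * B'.d n ^ (-(a + ε)) := by
  classical
  have hpos : ∀ n, ∀ t : ℝ, 0 < B'.d n ^ t := fun n t => Real.rpow_pos_of_pos (B'.pos n) t
  have hb := hcls.base
  have hEI : ∀ᶠ n in (U : Filter ℕ), E n ⊆ I₁ n := by
    filter_upwards [hE, hcls.csub, hcls.sub] with n h1 h2 h3 using h1.trans (h2.trans h3)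
  have hleg₁ : ∀ᶠ n in (U : Filter ℕ), Legal monQ (X n + w n • (0 : Fin 11 → ℝ)) := by
    filter_upwards [hcls.legal ‖(0 : Fin 11 → ℝ)‖] with n hn using hn 0 hcls.zero le_rfl
  have hcl : ∀ᶠ n in (U : Filter ℕ), ∀ i ∈ E n, ∀ j ∈ E n,
      zlab B I₁ co₁ monQ 2 X w n 0 i = zlab B I₁ co₁ monQ 2 X w n 0 j := by
    filter_upwards [hcls.clab, hE] with n h1 h2 i hi j hj using h1 i (h2 hi) j (h2 hj)
  obtain ⟨δ, hδ, hcardA⟩ := card_old (T₁ := T₁) hcls hE hp₁ (ε := ε) hε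
  obtain ⟨δ', hδ', hold⟩ := gau_old G hbx hle h30 hδ
  have hC0 : 0 < cK0 monQ 2 := lt_of_lt_of_le one_pos (cK0_one (hcls.chart 0).C0)
  have hslot1 : ∀ᶠ n in (U : Filter ℕ), ∀ i ∈ E n, ∀ j ∈ E n,
      |coF F n i j 1| ≤ B'.d n ^ (-δ) * (B.d n ^ X n 1 * B'.d n ^ p₁ 1) := by
    rcases h1 with h1 | h1
    · filter_upwards [hcl, hEI, hleg₁, ev_const_le B' hC0 hδ] with n a2 a3 a4 a5 i hi j hj
      have h4 := wbox_of_zlab (B' := B') hcls.chart hb a4 (a3 hi) (a3 hj) (a2 i hi j hj) 1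
      rw [hco n i (a3 hi) j (a3 hj)] at h4
      refine h4.trans ?_
      refine mul_le_mul a5 ?_ (wside_pos B B' X n 0 1).le (hpos _ _).le
      refine mul_le_mul_of_nonneg_left ?_ (Real.rpow_nonneg (B.pos n).le _)
      exact Real.rpow_le_rpow_of_exponent_ge (B'.pos n) (B'.lt n).le h1
    · filter_upwards [h1] with n a1 i hi j hj
      rw [a1 i hi j hj, abs_zero]
      exact mul_nonneg (hpos _ _).le (wside_pos B B' X n p₁ 1).le
  filter_upwards [hcardA, hold, hslot1, hEI, ev_const_le B' hC0 hδ'] with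
    n a1 a2 a3 a4 a5 A hA i hi hbox
  have h2 : (A.card : ℝ) ≤ T₁ n * B'.d n ^ (-(lam₁ p₁ + ε)) := by
    refine a1 A hA i hi fun j hj k => ?_
    rw [hco n i (a4 hi) j (a4 (hA hj))]
    by_cases hk : k = 1
    · subst hk; exact a3 i hi j (hA hj)
    · exact a2 i hi j (wbox_absorb (X := XG X) a5 (hbox j hj)) k hk
  refine h2.trans (mul_le_mul_of_nonneg_left ?_ (hcls.T0 n).le)
  exact Real.rpow_le_rpow_of_exponent_ge (B'.pos n) (B'.lt n).le (by linarith)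

/-- **the gauge stage**: honest class with the gauge relations ⊢ `ExtZ` in the gauge chart -/
theorem exists_extG
    -- old window, honest class, dense part
    (hcls : ZCls B B' I₁ J₁ co₁ monQ 2 X w D₁ T₁ lam₁ Cl s₀)
    (hco : ∀ n, ∀ i ∈ I₁ n, ∀ j ∈ I₁ n, co₁ n i j = coF F n i j)
    (hE : ∀ᶠ n in (U : Filter ℕ), E n ⊆ Cl n)
    (hd : ∀ ε : ℝ, 0 < ε → ∀ᶠ n in (U : Filter ℕ),
      ((Cl n).card : ℝ) ≤ B'.d n ^ (-ε) * (E n).card)
    (hP₁ : P₁ ⊆ D₁) {R₁ : ℝ} (hR₁ : ∀ p ∈ P₁, ‖p‖ ≤ R₁) (h0₁ : ∀ p ∈ P₁, 0 ≤ p)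
    (h0P : (0 : Fin 11 → ℝ) ∈ P₁)
    (hown : TProf B' E (zolb B I₁ co₁ monQ 2 X w) P₁ To own₁)
    -- gauge
    (G : GauIn B B' E F h X η x xF) (hx : 0 ≤ x) (hxF : 0 ≤ xF) (ht : ∀ n, TightQ (X n))
    {R : ℝ} (hR : 0 ≤ R) {H : ℕ → ℝ} (hH : B'.Sub H)
    (hcard : ∀ᶠ n in (U : Filter ℕ), (Nat.log 2 (E n).card : ℝ) + 1 ≤ H n)
    -- fields
    {w0 s : ℝ} (hs0 : 0 ≤ s) (hs1 : s ≤ 1) {PD : Set (Fin 11 → ℝ)} {D : (Fin 11 → ℝ) → ℝ}
    {r o : ℝ → Fin 11 → ℝ} {Er : ℝ → ℝ} {c₀ : ℝ}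
    -- D-max, counts of new boxes (see `dmax_of_old`)
    (hPD : ∀ p ∈ PD, p ∈ Leg monQ R → ∀ ε : ℝ, 0 < ε → ∀ᶠ n in (U : Filter ℕ), ∀ A ⊆ E n,
      ∀ i ∈ E n, (∀ j ∈ A, wbox B B' (coG F h) (XG X) n p (cK0 monQ 2) i j) →
        (A.card : ℝ) ≤ T₁ n * B'.d n ^ (-(c₀ + D p + ε)))
    -- record
    (r₁ : ℝ → Fin 11 → ℝ)
    (hrec : ∀ v : ℝ, 0 ≤ v → v ≤ 1 → r v ∈ Leg monQ R ∧ r₁ v ∈ P₁ ∧
      c₀ + Er v ≤ lam₁ (r₁ v) ∧ PBox x (r₁ v) ∧ (∀ k, k ≠ 1 → k ≠ 3 → r v k ≤ r₁ v k) ∧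
      r v 1 ≤ x ∧ r v 3 ≤ xF)
    -- own
    (q : ℝ → Fin 11 → ℝ)
    (hq : ∀ v : ℝ, 0 ≤ v → v ≤ 1 → q v ∈ P₁ ∧ (1 - s) * (1 - v) ≤ own₁ (q v) ∧
      PBox x (q v) ∧ (∀ k, k ≠ 1 → k ≠ 3 → o v k ≤ q v k) ∧ o v 1 ≤ x ∧ o v 3 ≤ xF)
    (hup : ∀ v : ℝ, 0 ≤ v → v ≤ 1 → ∃ p₁ ∈ P₁, p₁ 0 ≤ w0 + v ∧ (∀ k, k ≠ 0 → p₁ k ≤ 0) ∧
      own₁ p₁ ≤ (1 - s) * (1 - v)) :
    ∃ (J : ℕ → Finset (ℕ × ℝ)) (ν own : (Fin 11 → ℝ) → ℝ),
      (∀ᶠ n in (U : Filter ℕ), J n ⊆ E n ∧ (J n).Nonempty) ∧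
      (∀ ε : ℝ, 0 < ε → ∀ᶠ n in (U : Filter ℕ),
        ((E n).card : ℝ) ≤ B'.d n ^ (-ε) * (J n).card) ∧
      ExtZ B B' E J (coG F h) monQ 2 (XG X) w monQ R T₁ To 0 w0 s PD D r o Er
        (fun _ => False) ν own c₀ := by
  classical
  have hpos : ∀ n, ∀ t : ℝ, 0 < B'.d n ^ t := fun n t => Real.rpow_pos_of_pos (B'.pos n) t
  have hw := hcls.w0
  have hb := hcls.base
  have hEI : ∀ᶠ n in (U : Filter ℕ), E n ⊆ I₁ n := by
    filter_upwards [hE, hcls.csub, hcls.sub] with n h1 h2 h3 using h1.trans (h2.trans h3)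
  have hleg₁ : ∀ p ∈ D₁, ∀ᶠ n in (U : Filter ℕ), Legal monQ (X n + w n • p) := fun p hp => by
    filter_upwards [hcls.legal ‖p‖] with n hn using hn p hp le_rfl
  -- equal old labels are old-close
  have hclose : ∀ p ∈ D₁, ∀ δ : ℝ, 0 < δ → ∀ᶠ n in (U : Filter ℕ), ∀ i ∈ E n, ∀ j ∈ E n,
      zlab B I₁ co₁ monQ 2 X w n p i = zlab B I₁ co₁ monQ 2 X w n p j →
        wclose B B' F X n p (B'.d n ^ (-δ)) i j := by
    intro p hp δ hδ
    have hC0 : 0 < cK0 monQ 2 := lt_of_lt_of_le one_pos (cK0_one (hcls.chart 0).C0)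
    filter_upwards [hEI, hleg₁ p hp, ev_const_le B' hC0 hδ] with n h1 h2 h3 i hi j hj he k _ _
    have h4 := wbox_of_zlab (B' := B') hcls.chart hb h2 (h1 hi) (h1 hj) he k
    rw [hco n i (h1 hi) j (h1 hj)] at h4
    exact h4.trans (mul_le_mul_of_nonneg_right h3 (wside_pos B B' X n p k).le)
  have hcl : ∀ᶠ n in (U : Filter ℕ), ∀ i ∈ E n, ∀ j ∈ E n,
      zlab B I₁ co₁ monQ 2 X w n 0 i = zlab B I₁ co₁ monQ 2 X w n 0 j := by
    filter_upwards [hcls.clab, hE] with n h1 h2 i hi j hj using h1 i (h2 hi) j (h2 hj)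
  -- generic: equal labels at `p₁` are new-close at `p`
  have hnew : ∀ p₁ ∈ D₁, PBox x p₁ → ∀ p : Fin 11 → ℝ, (∀ k, k ≠ 1 → k ≠ 3 → p k ≤ p₁ k) →
      p 1 ≤ x → p 3 ≤ xF → ∀ ε : ℝ, 0 < ε → ∀ᶠ n in (U : Filter ℕ), ∀ i ∈ E n, ∀ j ∈ E n,
        zlab B I₁ co₁ monQ 2 X w n p₁ i = zlab B I₁ co₁ monQ 2 X w n p₁ j →
          wbox B B' (coG F h) (XG X) n p (B'.d n ^ (-ε)) i j := by
    intro p₁ hp₁ hb₁ p hpp h1 h3 ε hε
    obtain ⟨δ, hδ, hev⟩ := gau_new G hb₁ hpp h1 h3 hε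
    filter_upwards [hev, hclose p₁ hp₁ δ hδ] with n a1 a2 i hi j hj he
    exact a1 i hi j hj (a2 i hi j hj he)
  -- slot `0`
  have hz0 : ∀ n, ∀ i j : ℕ × ℝ, coG F h n i j 0 = coF F n i j 0 := fun n i j =>
    (rg_slots (G.h4 n) (G.h5 n) (F n i) (F n j)).1
  refine exists_extZ (E := E) (co := coG F h) (X := XG X) (M := monQ) (C := 2) hcls hE hd hP₁ hR₁
    h0₁ h0P hown (fun n => chart_coG F h n (E n)) monQ hR
    (Eventually.of_forall fun n c hc => legal_add_smul (legal_XG (ht n)) hc.1 (hw n).le)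
    hH hcard ?_ (kz := 0) (w0 := w0) hs0 hs1 (PD := PD) (D := D) (r := r) (o := o) (Er := Er)
    (Tw := fun _ => False) (c₀ := c₀) ?_ r₁ ?_ q ?_ ?_ ?_
  · -- base
    intro ε hε
    filter_upwards [hnew 0 (hP₁ h0P) (PBox.zero hx) 0 (fun k _ _ => le_rfl) hx hxF ε hε, hcl] with
      n a1 a2 i hi j hj
    exact a1 i hi j hj (a2 i hi j hj)
  · -- D-max
    exact hPD
  · -- record
    intro v hv0 hv1
    obtain ⟨a1, a2, a3, a4, a5, a6, a7⟩ := hrec v hv0 hv1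
    exact ⟨a1, a2, a3, fun ε hε => hnew _ (hP₁ a2) a4 _ a5 a6 a7 ε hε⟩
  · -- own
    intro v hv0 hv1
    obtain ⟨a2, a3, a4, a5, a6, a7⟩ := hq v hv0 hv1
    refine ⟨a2, a3, fun ε hε => ?_⟩
    filter_upwards [hnew _ (hP₁ a2) a4 _ a5 a6 a7 ε hε] with n b1 i hi j hj _ he
    exact b1 i hi j hj he
  · -- own counts
    intro v hv0 hv1 ε hε
    obtain ⟨p₁, hp₁, hp0, hpk, hle⟩ := hup v hv0 hv1
    have hC0 : 0 < cK0 monQ 2 := lt_of_lt_of_le one_pos (cK0_one (hcls.chart 0).C0)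
    obtain ⟨δ, hδ, _, hev⟩ := card_zlab_close (B' := B') (ε := ε / 2) hcls.chart hb
      (hleg₁ p₁ (hP₁ hp₁)) (by positivity)
    filter_upwards [hev, hown.up (ε / 2) (by positivity), hcl, hEI, hleg₁ 0 hcls.zero,
      ev_const_le B' hC0 hδ] with n b1 b2 b3 b4 b5 b6 A hA i hi hbox
    have hTo := hown.pos n
    have hnear : ∀ j ∈ A, wbox B B' co₁ X n p₁ (B'.d n ^ (-δ)) i j := by
      intro j hj k
      have h4 := wbox_of_zlab (B' := B') hcls.chart hb b5 (b4 hi) (b4 (hA hj))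
        (b3 i hi j (hA hj)) k
      by_cases hk : k = 0
      · subst hk
        have h5 := (hbox j hj).2
        rw [hz0, XG_of_ne (by decide)] at h5
        rw [hco n i (b4 hi) j (b4 (hA hj))]
        refine h5.trans ?_
        refine mul_le_mul b6 ?_ (mul_nonneg (Real.rpow_nonneg (B.pos n).le _) (hpos _ _).le)
          (hpos _ _).le
        refine mul_le_mul_of_nonneg_left ?_ (Real.rpow_nonneg (B.pos n).le _)
        exact Real.rpow_le_rpow_of_exponent_ge (B'.pos n) (B'.lt n).le hp0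
      · refine h4.trans ?_
        refine mul_le_mul b6 ?_ (wside_pos B B' X n 0 k).le (hpos _ _).le
        refine mul_le_mul_of_nonneg_left ?_ (Real.rpow_nonneg (B.pos n).le _)
        exact Real.rpow_le_rpow_of_exponent_ge (B'.pos n) (B'.lt n).le (hpk k hk)
    have c1 := b1 i (b4 hi) A (hA.trans b4) hnear
    have c2 : (A.card : ℝ) ≤ (To n * B'.d n ^ (-(own₁ p₁ + ε / 2))) *
        (A.image (zlab B I₁ co₁ monQ 2 X w n p₁)).card := by
      refine card_le_fib A (zlab B I₁ co₁ monQ 2 X w n p₁) fun j hj => ?_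
      refine le_trans ?_ (b2 p₁ hp₁ j (hA hj))
      refine Nat.cast_le.2 (card_le_card fun y hy => ?_)
      obtain ⟨y1, y2⟩ := mem_filter.1 hy
      refine mem_cls.2 ⟨hA y1, ?_⟩
      simp only [zolb, Prod.mk.injEq]
      exact ⟨((hbox y y1).1).trans (hbox j hj).1.symm, y2⟩
    calc (A.card : ℝ) ≤ (To n * B'.d n ^ (-(own₁ p₁ + ε / 2))) * B'.d n ^ (-(ε / 2)) :=
          c2.trans (mul_le_mul_of_nonneg_left c1 (mul_nonneg hTo.le (hpos _ _).le))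
      _ = To n * B'.d n ^ (-(own₁ p₁ + ε)) := by
          rw [mul_assoc, ← Real.rpow_add (B'.pos n)]; congr 2; ring
      _ ≤ _ := by
          refine mul_le_mul_of_nonneg_left ?_ hTo.le
          exact Real.rpow_le_rpow_of_exponent_ge (B'.pos n) (B'.lt n).le (by linarith)
  · intro k hk; exact absurd hk id

end Ext

/-- own profiles: raising small slots -/
theorem zero_slot_own {m : ℕ} {ι : ℕ → Type*} [∀ n, DecidableEq (ι n)]
    {I J : ∀ n, Finset (ι n)} {co : ∀ n, ι n → ι n → Fin m → ℝ} {M : Mons m} {C : ℝ}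
    {X : ℕ → Fin m → ℝ} {w : ℕ → ℝ} {P : Set (Fin m → ℝ)} {T : ℕ → ℝ} {lam : (Fin m → ℝ) → ℝ}
    (h : ∀ n, Chart (I n) (co n) M C) (hb : ∀ n, B'.d n = B.d n ^ w n)
    (hsub : ∀ᶠ n in (U : Filter ℕ), J n ⊆ I n) (hne : ∀ᶠ n in (U : Filter ℕ), (J n).Nonempty)
    {line : ∀ n, ι n → ℕ}
    (hν : TProf B' J (fun n p x => (line n x, zlab B I co M C X w n p x)) P T lam)
    {p q : Fin m → ℝ} (hp : p ∈ P) (hq : q ∈ P)
    (hlp : ∀ᶠ n in (U : Filter ℕ), Legal M (X n + w n • p))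
    (hlq : ∀ᶠ n in (U : Filter ℕ), Legal M (X n + w n • q)) (hpq : p ≤ q)
    (hz : ∀ ε : ℝ, 0 < ε → ∀ᶠ n in (U : Filter ℕ), ∀ i ∈ J n, ∀ j ∈ J n,
      wbox B B' co X n p (cK0 M C) i j → ∀ k, p k < q k →
        |co n i j k| ≤ B'.d n ^ (-ε) * (B.d n ^ X n k * B'.d n ^ q k)) :
    lam p = lam q := by
  have hC0 := (h 0).C0
  have hK0 : 0 < cK0 M C := lt_of_lt_of_le one_pos (cK0_one hC0)
  have hTT : ∀ ε : ℝ, 0 < ε → ∀ᶠ n in (U : Filter ℕ), T n ≤ T n * B'.d n ^ (-((0 : ℝ) + ε)) := by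
    intro ε hε
    filter_upwards with n
    refine le_mul_of_one_le_right (hν.pos n).le ?_
    exact Real.one_le_rpow_of_pos_of_le_one_of_nonpos (B'.pos n) (B'.lt n).le (by linarith)
  have hd : ∀ n, ∀ t : ℝ, 0 < B'.d n ^ t := fun n t => Real.rpow_pos_of_pos (B'.pos n) t
  refine le_antisymm ?_ ?_
  · have h1 := le_net_own (B := B) (B' := B') (c := 0) hν h hb hsub hne hν hp hq hlq hTT
      (Eventually.of_forall fun n i hi j hj he => congrArg Prod.fst he) (by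
        intro ε hε
        filter_upwards [hz ε hε, hsub, hlp, ev_const_le B' hK0 hε] with n a1 a2 a3 a4 i hi j hj he k
        have h2 := wbox_of_zlab (B' := B') h hb a3 (a2 hi) (a2 hj) (congrArg Prod.snd he)
        rcases (hpq k).lt_or_eq with hk | hk
        · exact a1 i hi j hj h2 k hk
        · rw [← hk]
          exact (h2 k).trans (mul_le_mul_of_nonneg_right a4 (wside_pos B B' X n p k).le))
    linarith
  · have h1 := le_net_own (B := B) (B' := B') (c := 0) hν h hb hsub hne hν hq hp hlp hTT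
      (Eventually.of_forall fun n i hi j hj he => congrArg Prod.fst he) (by
        intro ε hε
        filter_upwards [hsub, hlq, ev_const_le B' hK0 hε] with n a2 a3 a4 i hi j hj he k
        have h2 := wbox_of_zlab (B' := B') h hb a3 (a2 hi) (a2 hj) (congrArg Prod.snd he)
        refine (h2 k).trans ?_
        refine mul_le_mul a4 ?_ (wside_pos B B' X n q k).le (hd n _).le
        refine mul_le_mul_of_nonneg_left ?_ (Real.rpow_nonneg (B.pos n).le _)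
        exact Real.rpow_le_rpow_of_exponent_ge (B'.pos n) (B'.lt n).le (hpq k))
    linarith

/-- **the slots `R`, `F_b` are zero slots of the gauge profiles** -/
theorem extG_zero (G : GauIn B B' E F h X η x xF) (ht : ∀ n, TightQ (X n)) {J : ℕ → Finset (ℕ × ℝ)}
    {w : ℕ → ℝ} {R : ℝ} {T₁ To : ℕ → ℝ} {w0 s : ℝ} {PD : Set (Fin 11 → ℝ)}
    {D : (Fin 11 → ℝ) → ℝ} {r o : ℝ → Fin 11 → ℝ} {Er : ℝ → ℝ} {Tw : Fin 11 → Prop}
    {ν own : (Fin 11 → ℝ) → ℝ} {c₀ : ℝ}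
    (hx : ExtZ B B' E J (coG F h) monQ 2 (XG X) w monQ R T₁ To 0 w0 s PD D r o Er Tw ν own c₀)
    {p q : Fin 11 → ℝ} (hp : p ∈ Leg monQ R) (hq : q ∈ Leg monQ R) (hpq : p ≤ q)
    (hk : ∀ k, k ≠ 1 → k ≠ 3 → q k = p k) (h1 : q 1 ≤ x) (h3 : q 3 ≤ xF) :
    ν p = ν q ∧ own p = own q := by
  have hw := hx.win.w0
  have hl : ∀ c ∈ Leg monQ R, ∀ᶠ n in (U : Filter ℕ), Legal monQ (XG X n + w n • c) :=
    fun c hc => Eventually.of_forall fun n => legal_add_smul (legal_XG (ht n)) hc.1 (hw n).le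
  have hd : ∀ n, ∀ t : ℝ, 0 < B'.d n ^ t := fun n t => Real.rpow_pos_of_pos (B'.pos n) t
  have hz : ∀ ε : ℝ, 0 < ε → ∀ᶠ n in (U : Filter ℕ), ∀ i ∈ J n, ∀ j ∈ J n,
      wbox B B' (coG F h) (XG X) n p (cK0 monQ 2) i j → ∀ k, p k < q k →
        |coG F h n i j k| ≤ B'.d n ^ (-ε) * (B.d n ^ XG X n k * B'.d n ^ q k) := by
    intro ε hε
    filter_upwards [G.s1 ε hε, G.s3 ε hε, hx.win.sub] with n a1 a3 a4 i hi j hj _ k hpk
    have hda : ∀ s t : ℝ, B'.d n ^ s * B'.d n ^ t = B'.d n ^ (s + t) := fun s t =>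
      (Real.rpow_add (B'.pos n) s t).symm
    have hdm : ∀ {s t : ℝ}, t ≤ s → B'.d n ^ s ≤ B'.d n ^ t := fun hst =>
      Real.rpow_le_rpow_of_exponent_ge (B'.pos n) (B'.lt n).le hst
    by_cases k1 : k = 1
    · subst k1
      have hX : XG X n 1 = X n 7 - X n 0 := if_pos rfl
      rw [hX, Real.rpow_sub (B.pos n)]
      have h0 := Real.rpow_pos_of_pos (B.pos n) (X n 0)
      have h7 := Real.rpow_pos_of_pos (B.pos n) (X n 7)
      have : |coG F h n i j 1| ≤ B'.d n ^ (x - ε) * B.d n ^ X n 7 / B.d n ^ X n 0 := by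
        rw [le_div_iff₀ h0]; exact a1 i (a4 hi) j (a4 hj)
      refine this.trans ?_
      calc B'.d n ^ (x - ε) * B.d n ^ X n 7 / B.d n ^ X n 0
          = (B.d n ^ X n 7 / B.d n ^ X n 0) * B'.d n ^ (x - ε) := by ring
        _ ≤ (B.d n ^ X n 7 / B.d n ^ X n 0) * B'.d n ^ (-ε + q 1) :=
            mul_le_mul_of_nonneg_left (hdm (by linarith)) (div_pos h7 h0).le
        _ = _ := by rw [← hda]; ring
    · by_cases k3 : k = 3
      · subst k3
        rw [XG_of_ne (by decide)]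
        refine (a3 i (a4 hi) j (a4 hj)).trans ?_
        calc B'.d n ^ (xF - ε) * B.d n ^ X n 3 ≤ B'.d n ^ (-ε + q 3) * B.d n ^ X n 3 :=
              mul_le_mul_of_nonneg_right (hdm (by linarith))
                (Real.rpow_nonneg (B.pos n).le _)
          _ = _ := by rw [← hda]; ring
      · exact absurd (hk k k1 k3) hpk.ne'
  have hch := hx.win.chart
  have hb := hx.win.base
  refine ⟨?_, ?_⟩
  · have hbd : ∀ c ∈ Leg monQ R, ‖c‖ ≤ R := fun c hc => Leg_norm hx.R0 hc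
    exact zero_slot_z hch hb hx.win.sub hx.win.ne (TProf.ofZ hx.win.prof hx.win.T0
      (Set.Subset.refl _) hbd) hp hq (hl p hp) (hl q hq) hpq hz
  · exact zero_slot_own (line := fun _ x => x.1) hch hb hx.win.sub hx.win.ne hx.oprof hp hq
      (hl p hp) (hl q hq) hpq hz

end Crest.Agent.R136.Gz779
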