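import Crest.Agent.R136.Qg3b_926

/-!
# R136: several profiles in one window, change of the base point, typical classes (helper926)

* `zprof_comp`, `qprof_comp` : injective relabelling.
* `exists_zwin_ex` : the zoom window together with a second profile (own profile).
* `ZWin.shift`, `zprof_shift` : base point `X + w c₀`.
* `ZWin.exists_zcls_ex` : honest class in which all extra partitions have the average number of
  labels; `Pruned.ex_ge` : sizes of the extra classes in a pruned set.
-/

set_option autoImplicit false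
set_option linter.unusedSectionVars false
set_option linter.unusedVariables false

open Filter Topology

namespace Crest.Agent.R136.Qg926

open Finset Crest.Agent.R138.Ex926 Crest.Agent.R136.Net191 Crest.Agent.R136.Gf356

variable {m : ℕ} {ι : ℕ → Type*} [∀ n, DecidableEq (ι n)]

/-! ### relabelling -/

theorem cls_comp {α β γ : Type*} [DecidableEq α] [DecidableEq β] [DecidableEq γ] {e : β → γ}
    (he : Function.Injective e) (I : Finset α) (f : α → β) (i : α) :
    cls I (fun x => e (f x)) i = cls I f i := by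
  unfold cls
  refine filter_congr fun x _ => ?_
  exact he.eq_iff

theorem card_image_comp {α β γ : Type*} [DecidableEq α] [DecidableEq β] [DecidableEq γ]
    {e : β → γ} (he : Function.Injective e) (I : Finset α) (f : α → β) :
    (I.image fun x => e (f x)).card = (I.image f).card := by
  have : (I.image fun x => e (f x)) = (I.image f).image e := by rw [image_image]; rfl
  rw [this, card_image_of_injective _ he]

theorem qprof_comp {B : Base} {κ κ' : ℕ → Type*} [∀ n, DecidableEq (κ n)]
    [∀ n, DecidableEq (κ' n)] {V : Type*} [LE V] {J : ∀ n, Finset (ι n)} {f : ∀ n, V → ι n → κ n}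
    {P : Set V} {ν : V → ℝ} (e : ∀ n, κ n → κ' n) (he : ∀ n, Function.Injective (e n)) :
    QProf B J (fun n p i => e n (f n p i)) P ν ↔ QProf B J f P ν := by
  constructor
  · intro h
    exact
      { up := fun ε hε => by
          filter_upwards [h.up ε hε] with n hn p hp i hi
          have := hn p hp i hi
          rwa [cls_comp (he n)] at this
        num := fun ε hε => by
          filter_upwards [h.num ε hε] with n hn q hq p hp hqp i hi
          have := hn q hq p hp hqp i hi
          rwa [cls_comp (he n), card_image_comp (he n)] at this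
        root := fun ε hε => by
          filter_upwards [h.root ε hε] with n hn p hp
          have := hn p hp
          rwa [card_image_comp (he n)] at this }
  · intro h
    exact
      { up := fun ε hε => by
          filter_upwards [h.up ε hε] with n hn p hp i hi
          rw [cls_comp (he n)]
          exact hn p hp i hi
        num := fun ε hε => by
          filter_upwards [h.num ε hε] with n hn q hq p hp hqp i hi
          rw [cls_comp (he n), card_image_comp (he n)]
          exact hn q hq p hp hqp i hi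
        root := fun ε hε => by
          filter_upwards [h.root ε hε] with n hn p hp
          rw [card_image_comp (he n)]
          exact hn p hp }

theorem zprof_comp {B : Base} {κ κ' : ℕ → Type*} [∀ n, DecidableEq (κ n)]
    [∀ n, DecidableEq (κ' n)] {V : Type*} [LE V] [Norm V] {J : ∀ n, Finset (ι n)}
    {f : ∀ n, V → ι n → κ n} {P : Set V} {T : ℕ → ℝ} {ν : V → ℝ} (e : ∀ n, κ n → κ' n)
    (he : ∀ n, Function.Injective (e n))
    (h : ZProf B J (fun n p i => e n (f n p i)) P T ν) : ZProf B J f P T ν where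
  up := fun C ε hε => by
    filter_upwards [h.up C ε hε] with n hn p hp hpC i hi
    have := hn p hp hpC i hi
    rwa [cls_comp (he n)] at this
  num := fun C ε hε => by
    filter_upwards [h.num C ε hε] with n hn q hq hqC p hp hpC hqp i hi
    have := hn q hq hqC p hp hpC hqp i hi
    rwa [cls_comp (he n), card_image_comp (he n)] at this
  root := fun C ε hε => by
    filter_upwards [h.root C ε hε] with n hn p hp hpC
    have := hn p hp hpC
    rwa [card_image_comp (he n)] at this

/-! ### two profiles along one blow-up -/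

/-- **zoom window with a second profile** `own` (labels `ol`), both along the same blow-up -/
theorem exists_zwin_ex {B : Base} {I J : ∀ n, Finset (ι n)} {co : ∀ n, ι n → ι n → Fin m → ℝ}
    {M : Mons m} {C R : ℝ} {ν : (Fin m → ℝ) → ℝ} (hN : NProf B I J co M C R ν)
    {x : ℕ → Fin m → ℝ} {h : ℕ → ℝ} (hpos : ∀ l, 0 < h l) {D : Set (Fin m → ℝ)}
    (h0 : (0 : Fin m → ℝ) ∈ D) {lam : (Fin m → ℝ) → ℝ} (htan : IsTan (Leg M R) D ν x h lam)
    {κ : ℕ → Type*} [∀ n, DecidableEq (κ n)] {ol : ∀ n, (Fin m → ℝ) → ι n → κ n}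
    {Po Do : Set (Fin m → ℝ)} {own lo : (Fin m → ℝ) → ℝ} (hO : QProf B J ol Po own)
    (h0o : (0 : Fin m → ℝ) ∈ Do) (htano : IsTan Po Do own x h lo)
    (s : ℕ → ℕ → ℝ) (hs : ∀ i, B.Sub (s i)) :
    ∃ k : ℕ → ℕ, Tendsto k U atTop ∧ ∀ k' : ℕ → ℕ, Tendsto k' U atTop →
      (∀ᶠ n in (U : Filter ℕ), k' n ≤ k n) → ∃ B' : Base,
        (∀ n, B'.d n = B.d n ^ h (k' n)) ∧ (∀ n, B'.L n = h (k' n) * B.L n) ∧
        (∀ i, B'.Sub (s i)) ∧
        ZWin B B' I J co M C (fun n => x (k' n)) (fun n => h (k' n)) D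
          (fun n => B.d n ^ (-(ν (x (k' n))))) lam ∧
        ZProf B' J (fun n c => ol n (x (k' n) + h (k' n) • c)) Do
          (fun n => B.d n ^ (-(own (x (k' n))))) lo := by
  classical
  set f : ∀ (b : Bool) (n : ℕ), (Fin m → ℝ) → ι n → ι n ⊕ κ n := fun b n p i =>
    match b with
    | true => Sum.inl (nlab B I co M C n p i)
    | false => Sum.inr (ol n p i) with hf
  set Pb : Bool → Set (Fin m → ℝ) := fun b => match b with
    | true => Leg M R
    | false => Po with hPb
  set Db : Bool → Set (Fin m → ℝ) := fun b => match b with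
    | true => D
    | false => Do with hDb
  set νb : Bool → (Fin m → ℝ) → ℝ := fun b => match b with
    | true => ν
    | false => own with hνb
  set lb : Bool → (Fin m → ℝ) → ℝ := fun b => match b with
    | true => lam
    | false => lo with hlb
  obtain ⟨k, hk, hk2⟩ := exists_qzoom B (J := Bool) (I := J) (κ := fun _ n => ι n ⊕ κ n)
    (f := f) (P := Pb) (D := Db) (ν := νb) (lam := lb) (fun b => by
      cases b with
      | true => exact (qprof_comp (fun n => Sum.inl) (fun n => Sum.inl_injective)).2 hN.prof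
      | false => exact (qprof_comp (fun n => Sum.inr) (fun n => Sum.inr_injective)).2 hO)
    (x := x) (h := h) hpos (fun b => by cases b <;> assumption)
    (fun b => by cases b <;> assumption) s hs
  refine ⟨k, hk, fun k' hk' hle => ?_⟩
  obtain ⟨B', b1, b2, b3, b4⟩ := hk2 k' hk' hle
  refine ⟨B', b1, b2, b3,
    { chart := hN.chart, sub := hN.sub, ne := hN.ne, w0 := fun n => hpos _, base := b1, zero := h0
      legal := fun K => by
        filter_upwards [hk'.eventually (htan K 1 one_pos)] with n hn c hc hcK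
        exact (hn c hc hcK).1.1
      prof := zprof_comp (fun n => Sum.inl) (fun n => Sum.inl_injective) (b4 true)
      lam0 := htan.zero hpos h0
      T0 := fun n => Real.rpow_pos_of_pos (B.pos n) _
      lip := htan.lip hpos hN.lip
      anti := htan.anti hpos (fun l c c' hcc => add_smul_mono (hpos l).le hcc) hN.anti
      sharp := tan_sharp htan hpos hN.sharp
      submod := fun c hc c' hc' hi hsup => htan.submod hpos
        (fun p hp q hq hpq _ => hN.submod p hp q hq hpq) hc hc' hi hsup }, ?_⟩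
  exact zprof_comp (fun n => Sum.inr) (fun n => Sum.inr_injective) (b4 false)

/-! ### change of the base point -/

theorem add_smul_shift (X c₀ c : Fin m → ℝ) (w : ℝ) :
    X + w • c₀ + w • c = X + w • (c₀ + c) := by
  rw [smul_add, add_assoc]

theorem zprof_shift {B : Base} {κ : ℕ → Type*} [∀ n, DecidableEq (κ n)]
    {J : ∀ n, Finset (ι n)} {g : ∀ n, (Fin m → ℝ) → ι n → κ n} {D : Set (Fin m → ℝ)} {T : ℕ → ℝ}
    {lam : (Fin m → ℝ) → ℝ} (h : ZProf B J g D T lam) (c₀ : Fin m → ℝ) :
    ZProf B J (fun n c => g n (c₀ + c)) {c | c₀ + c ∈ D} (fun n => T n * B.d n ^ (-lam c₀))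
      (fun c => lam (c₀ + c) - lam c₀) := by
  have hn : ∀ {c : Fin m → ℝ} {K : ℝ}, ‖c‖ ≤ K → ‖c₀ + c‖ ≤ ‖c₀‖ + K := fun {c K} hc =>
    (norm_add_le _ _).trans (by linarith)
  exact
    { up := fun K ε hε => by
        filter_upwards [h.up (‖c₀‖ + K) ε hε] with n h1 c hc hcK i hi
        refine (h1 _ hc (hn hcK) i hi).trans (le_of_eq ?_)
        rw [mul_assoc, ← Real.rpow_add (B.pos n)]; congr 2; ring
      num := fun K ε hε => by
        filter_upwards [h.num (‖c₀‖ + K) ε hε] with n h1 c hc hcK c' hc' hcK' hcc i hi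
        refine (h1 _ hc (hn hcK) _ hc' (hn hcK') (by
          intro s; have := hcc s; simp only [Pi.add_apply]; linarith) i hi).trans (le_of_eq ?_)
        congr 2; ring
      root := fun K ε hε => by
        filter_upwards [h.root (‖c₀‖ + K) ε hε] with n h1 c hc hcK
        have h2 := h1 _ hc (hn hcK)
        have h3 := mul_le_mul_of_nonneg_right h2 (Real.rpow_nonneg (B.pos n).le (-lam c₀))
        rw [mul_assoc (((J n).card : ℝ)), ← Real.rpow_add (B.pos n)] at h3
        rw [← mul_assoc]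
        refine h3.trans (le_of_eq ?_)
        congr 2; ring }

theorem ZWin.shift {B B' : Base} {I J : ∀ n, Finset (ι n)} {co : ∀ n, ι n → ι n → Fin m → ℝ}
    {M : Mons m} {C : ℝ} {X : ℕ → Fin m → ℝ} {w : ℕ → ℝ} {D : Set (Fin m → ℝ)} {T : ℕ → ℝ}
    {lam : (Fin m → ℝ) → ℝ} (h : ZWin B B' I J co M C X w D T lam) {c₀ : Fin m → ℝ}
    (hc₀ : c₀ ∈ D) :
    ZWin B B' I J co M C (fun n => X n + w n • c₀) w {c | c₀ + c ∈ D}
      (fun n => T n * B'.d n ^ (-lam c₀)) (fun c => lam (c₀ + c) - lam c₀) where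
  chart := h.chart
  sub := h.sub
  ne := h.ne
  w0 := h.w0
  base := h.base
  zero := by show c₀ + 0 ∈ D; rwa [add_zero]
  legal := fun K => by
    filter_upwards [h.legal (‖c₀‖ + K)] with n h1 c hc hcK
    rw [add_smul_shift]
    exact h1 _ hc ((norm_add_le _ _).trans (by linarith))
  prof := by
    have h1 := zprof_shift h.prof c₀
    have e1 : (fun n c => zlab B I co M C X w n (c₀ + c)) =
        zlab B I co M C (fun n => X n + w n • c₀) w := by
      funext n c
      unfold zlab
      rw [add_smul_shift]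
    rw [e1] at h1
    exact h1
  lam0 := by rw [add_zero, sub_self]
  T0 := fun n => mul_pos (h.T0 n) (Real.rpow_pos_of_pos (B'.pos n) _)
  lip := fun c hc c' hc' => by
    have h1 := h.lip _ hc _ hc'
    have e1 : c₀ + c - (c₀ + c') = c - c' := by abel
    rw [e1] at h1
    have e2 : lam (c₀ + c) - lam c₀ - (lam (c₀ + c') - lam c₀) = lam (c₀ + c) - lam (c₀ + c') := by
      ring
    rw [e2]; exact h1
  anti := fun c hc c' hc' hcc => by
    have := h.anti _ hc _ hc' (by intro s; have := hcc s; simp only [Pi.add_apply]; linarith)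
    linarith
  sharp := fun c hc c' hc' hcc => by
    have h1 := h.sharp _ hc _ hc' (by intro s; have := hcc s; simp only [Pi.add_apply]; linarith)
    have e1 : ∑ s, ((c₀ + c') s - (c₀ + c) s) = ∑ s, (c' s - c s) :=
      sum_congr rfl fun s _ => by simp only [Pi.add_apply]; ring
    rw [e1] at h1
    linarith
  submod := fun c hc c' hc' hi hsup => by
    have e1 : (c₀ + c) ⊓ (c₀ + c') = c₀ + (c ⊓ c') := (add_inf _ _ _).symm
    have e2 : (c₀ + c) ⊔ (c₀ + c') = c₀ + (c ⊔ c') := (add_sup _ _ _).symm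
    have h1 := h.submod _ hc _ hc' (by rw [e1]; exact hi) (by rw [e2]; exact hsup)
    rw [e1, e2] at h1
    linarith

/-! ### typical classes for extra partitions -/

/-- mass of the classes of `f` with many `g`-labels -/
theorem card_rich {α β γ : Type*} [DecidableEq α] [DecidableEq β] [DecidableEq γ] (J : Finset α)
    (f : α → β) (g : α → γ) {t N : ℝ} (ht : 0 < t)
    (hN : ∀ i ∈ J, (((cls J g i).image f).card : ℝ) ≤ N) :
    (((J.filter fun i => ((cls J f i).card : ℝ) < t * ((cls J f i).image g).card)).card : ℝ) ≤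
      t * (N * (J.image g).card) := by
  classical
  set A := J.filter fun i => ((cls J f i).card : ℝ) < t * ((cls J f i).image g).card with hA
  -- `A` is a union of classes of `f`
  have h1 : (A.card : ℝ) = ∑ b ∈ A.image f, ((A.filter fun i => f i = b).card : ℝ) := by
    rw [card_eq_sum_card_image f A]; push_cast; rfl
  have h2 : ∀ b ∈ A.image f, ((A.filter fun i => f i = b).card : ℝ) ≤
      t * (((J.filter fun i => f i = b).image g).card : ℝ) := by
    intro b hb
    obtain ⟨i, hi, rfl⟩ := mem_image.1 hb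
    have h3 := (mem_filter.1 hi).2
    have h4 : (A.filter fun x => f x = f i).card ≤ (cls J f i).card :=
      card_le_card fun x hx => mem_cls.2 ⟨(mem_filter.1 (mem_filter.1 hx).1).1, (mem_filter.1 hx).2⟩
    have h5 : ((A.filter fun x => f x = f i).card : ℝ) ≤ (cls J f i).card := by exact_mod_cast h4
    exact h5.trans h3.le
  have h3 : ∑ b ∈ A.image f, (((J.filter fun i => f i = b).image g).card : ℝ) ≤
      ((J.image fun i => (f i, g i)).card : ℝ) := by
    have e1 : (J.image fun i => (f i, g i)).card =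
        ∑ b ∈ J.image f, (((J.image fun i => (f i, g i)).filter fun q => q.1 = b)).card := by
      refine card_eq_sum_card_fiberwise fun q hq => ?_
      obtain ⟨i, hi, rfl⟩ := mem_image.1 (Finset.mem_coe.1 hq)
      exact Finset.mem_coe.2 (mem_image_of_mem _ hi)
    rw [e1]
    push_cast
    refine (sum_le_sum_of_subset_of_nonneg (image_subset_image (filter_subset _ _))
      fun _ _ _ => Nat.cast_nonneg _).trans ?_
    refine sum_le_sum fun b _ => ?_
    refine Nat.cast_le.2 (card_le_card_of_injOn (fun c => (b, c)) (fun c hc => ?_)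
      fun c _ c' _ he => (Prod.mk.inj he).2)
    obtain ⟨i, hi, rfl⟩ := mem_image.1 (Finset.mem_coe.1 hc)
    obtain ⟨hi1, hi2⟩ := mem_filter.1 hi
    exact Finset.mem_coe.2 (mem_filter.2 ⟨mem_image.2 ⟨i, hi1, by rw [hi2]⟩, rfl⟩)
  have h4 : ((J.image fun i => (f i, g i)).card : ℝ) ≤ N * (J.image g).card := by
    refine card_image_le_mul J _ _ fun x hx => ?_
    refine le_trans ?_ (hN x hx)
    refine Nat.cast_le.2 (card_le_card_of_injOn Prod.fst (fun q hq => ?_) fun q hq q' hq' he => ?_)
    · obtain ⟨i, hi, rfl⟩ := mem_image.1 (Finset.mem_coe.1 hq)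
      exact Finset.mem_coe.2 (mem_image_of_mem _ hi)
    · obtain ⟨i, hi, rfl⟩ := mem_image.1 (Finset.mem_coe.1 hq)
      obtain ⟨i', hi', rfl⟩ := mem_image.1 (Finset.mem_coe.1 hq')
      have a1 := (mem_cls.1 hi).2
      have a2 := (mem_cls.1 hi').2
      exact Prod.ext he (a1.trans a2.symm)
  rw [h1]
  calc _ ≤ ∑ b ∈ A.image f, t * (((J.filter fun i => f i = b).image g).card : ℝ) :=
        sum_le_sum h2
    _ = t * ∑ b ∈ A.image f, (((J.filter fun i => f i = b).image g).card : ℝ) := by rw [mul_sum]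
    _ ≤ t * (N * (J.image g).card) := mul_le_mul_of_nonneg_left (h3.trans h4) ht.le

section

variable {B B' : Base} {I J J' : ∀ n, Finset (ι n)} {co : ∀ n, ι n → ι n → Fin m → ℝ}
  {M : Mons m} {C : ℝ} {X : ℕ → Fin m → ℝ} {w : ℕ → ℝ} {D : Set (Fin m → ℝ)} {T : ℕ → ℝ}
  {lam : (Fin m → ℝ) → ℝ}

/-- **honest class, typical for countably many extra partitions**: `hx j` = extra partition,
`a j n` = (number of its labels) / (number of incidences); it cuts into few pieces only -/
theorem ZWin.exists_zcls_ex (h : ZWin B B' I J co M C X w D T lam) (i₀ : ∀ n, ι n)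
    {Gd E : ∀ n, Finset (ι n)}
    (hGd : ∀ᶠ n in (U : Filter ℕ), Gd n ⊆ J n) (hE : ∀ᶠ n in (U : Filter ℕ), E n ⊆ Gd n)
    {S : ℕ → ℝ} (hS : B'.Sub S)
    (hd : ∀ᶠ n in (U : Filter ℕ), ((J n).card : ℝ) ≤ S n * (E n).card)
    (hx : ℕ → ∀ n, ι n → ℕ) (a : ℕ → ℕ → ℝ) (ha : ∀ j n, 0 < a j n)
    (hfew : ∀ j, ∀ ε : ℝ, 0 < ε → ∀ᶠ n in (U : Filter ℕ), ∀ i ∈ J n,
      (((cls (J n) (hx j n) i).image (zlab B I co M C X w n 0)).card : ℝ) ≤ B'.d n ^ (-ε))
    (hnum : ∀ j, ∀ ε : ℝ, 0 < ε → ∀ᶠ n in (U : Filter ℕ),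
      (((J n).image (hx j n)).card : ℝ) ≤ (J n).card * a j n * B'.d n ^ (-ε)) :
    ∃ s₀ : ∀ n, ι n, (∀ᶠ n in (U : Filter ℕ), s₀ n ∈ E n) ∧
      ZCls B B' I J co M C X w D T lam
        (fun n => cls (Gd n) (zlab B I co M C X w n 0) (s₀ n)) s₀ ∧
      ∀ j, ∀ ε : ℝ, 0 < ε → ∀ᶠ n in (U : Filter ℕ),
        (((cls (Gd n) (zlab B I co M C X w n 0) (s₀ n)).image (hx j n)).card : ℝ) ≤
          T n * a j n * B'.d n ^ (-ε) := by
  classical
  -- the set of bad points at stage `l`
  set bad : ℕ → ∀ n, Finset (ι n) := fun l n => (range (l + 1)).biUnion fun j =>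
    (J n).filter fun i => ((cls (J n) (zlab B I co M C X w n 0) i).card : ℝ) <
      (B'.d n ^ (1 / ((l : ℝ) + 1)) / a j n) *
        ((cls (J n) (zlab B I co M C X w n 0) i).image (hx j n)).card with hbad
  obtain ⟨k, hk, hk2⟩ := exists_diag (fun l n =>
    ((bad l n).card : ℝ) ≤ (E n).card / 2) (by
    intro l
    set δ : ℝ := 1 / ((l : ℝ) + 1) with hδ
    have hδ0 : 0 < δ := by positivity
    have h1 : ∀ᶠ n in (U : Filter ℕ), ∀ j ∈ range (l + 1), (∀ i ∈ J n,
      (((cls (J n) (hx j n) i).image (zlab B I co M C X w n 0)).card : ℝ) ≤ B'.d n ^ (-(δ / 8))) ∧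
      (((J n).image (hx j n)).card : ℝ) ≤ (J n).card * a j n * B'.d n ^ (-(δ / 8)) := by
      rw [Filter.eventually_all_finset]
      intro j _
      exact (hfew j _ (by positivity)).and (hnum j _ (by positivity))
    filter_upwards [h1, hd, hS.ev_le (ε := δ / 8) (by positivity),
      B'.ev_rpow_small (η := δ / 8) (c := 1 / (2 * ((l : ℝ) + 1))) (by positivity) (by positivity)]
      with n g1 g2 g3 g4
    have hp : ∀ s : ℝ, 0 < B'.d n ^ s := fun s => Real.rpow_pos_of_pos (B'.pos n) s
    have hSn : S n ≤ B'.d n ^ (-(δ / 8)) := by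
      rw [← B'.exp_eq, ← Real.log_le_iff_le_exp g3.1]
      exact g3.2
    have hJE : ((J n).card : ℝ) ≤ B'.d n ^ (-(δ / 8)) * (E n).card :=
      g2.trans (mul_le_mul_of_nonneg_right hSn (Nat.cast_nonneg _))
    have h2 : ∀ j ∈ range (l + 1), (((J n).filter fun i =>
        ((cls (J n) (zlab B I co M C X w n 0) i).card : ℝ) < (B'.d n ^ δ / a j n) *
          ((cls (J n) (zlab B I co M C X w n 0) i).image (hx j n)).card).card : ℝ) ≤
        1 / (2 * ((l : ℝ) + 1)) * (E n).card := by
      intro j hj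
      have haj := ha j n
      have h3 := card_rich (J n) (zlab B I co M C X w n 0) (hx j n)
        (t := B'.d n ^ δ / a j n) (N := B'.d n ^ (-(δ / 8))) (div_pos (hp _) haj) (g1 j hj).1
      refine h3.trans ?_
      calc B'.d n ^ δ / a j n * (B'.d n ^ (-(δ / 8)) * ((J n).image (hx j n)).card)
          ≤ B'.d n ^ δ / a j n * (B'.d n ^ (-(δ / 8)) *
            ((B'.d n ^ (-(δ / 8)) * (E n).card) * a j n * B'.d n ^ (-(δ / 8)))) := by
            have a1 := (g1 j hj).2
            have a2 : ((J n).card : ℝ) * a j n * B'.d n ^ (-(δ / 8)) ≤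
                (B'.d n ^ (-(δ / 8)) * (E n).card) * a j n * B'.d n ^ (-(δ / 8)) := by
              have := hp (-(δ / 8))
              gcongr
            have := hp δ
            have := hp (-(δ / 8))
            gcongr
            exact a1.trans a2
        _ = (B'.d n ^ δ * B'.d n ^ (-(δ / 8)) * B'.d n ^ (-(δ / 8)) * B'.d n ^ (-(δ / 8))) *
            (E n).card := by field_simp
        _ = B'.d n ^ (δ / 2) * B'.d n ^ (δ / 8) * (E n).card := by
            rw [← Real.rpow_add (B'.pos n), ← Real.rpow_add (B'.pos n),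
              ← Real.rpow_add (B'.pos n), ← Real.rpow_add (B'.pos n)]
            congr 2; ring
        _ ≤ 1 * (1 / (2 * ((l : ℝ) + 1))) * (E n).card := by
            have a3 : B'.d n ^ (δ / 2) ≤ 1 :=
              Real.rpow_le_one (B'.pos n).le (B'.lt n).le (by positivity)
            have := hp (δ / 8)
            gcongr
        _ = _ := by ring
    calc ((bad l n).card : ℝ) ≤ ∑ j ∈ range (l + 1), (((J n).filter fun i =>
        ((cls (J n) (zlab B I co M C X w n 0) i).card : ℝ) < (B'.d n ^ δ / a j n) *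
          ((cls (J n) (zlab B I co M C X w n 0) i).image (hx j n)).card).card : ℝ) := by
          have := card_biUnion_le (s := range (l + 1)) (t := fun j =>
            (J n).filter fun i => ((cls (J n) (zlab B I co M C X w n 0) i).card : ℝ) <
              (B'.d n ^ δ / a j n) *
                ((cls (J n) (zlab B I co M C X w n 0) i).image (hx j n)).card)
          exact_mod_cast this
      _ ≤ ∑ _j ∈ range (l + 1), 1 / (2 * ((l : ℝ) + 1)) * (E n).card := sum_le_sum h2
      _ = (E n).card / 2 := by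
          rw [sum_const, card_range, nsmul_eq_mul]
          push_cast
          field_simp)
  set E₁ : ∀ n, Finset (ι n) := fun n => E n \ bad (k n) n with hE₁
  have hE₁c : ∀ᶠ n in (U : Filter ℕ), ((J n).card : ℝ) ≤ (2 * S n) * (E₁ n).card := by
    filter_upwards [hk2, hd, hS.1.pos] with n g1 g2 g3
    have h3 := g1 _ le_rfl
    have h4 : ((E n).card : ℝ) ≤ 2 * (E₁ n).card := by
      have h5 := card_le_card_sdiff_add_card (s := E n) (t := bad (k n) n)
      have h6 : ((E n).card : ℝ) ≤ (E₁ n).card + (bad (k n) n).card := by exact_mod_cast h5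
      linarith
    calc ((J n).card : ℝ) ≤ S n * (E n).card := g2
      _ ≤ S n * (2 * (E₁ n).card) := mul_le_mul_of_nonneg_left h4 g3.le
      _ = _ := by ring
  have hS2 : B'.Sub (fun n => 2 * S n) := (Base.Sub.const (by norm_num : (0:ℝ) < 2)).mul hS
  obtain ⟨s₀, hs₀, hcls⟩ := h.exists_zcls i₀ hGd (E := E₁)
    (by filter_upwards [hE] with n hn using sdiff_subset.trans hn) hS2 hE₁c
  refine ⟨s₀, hs₀.mono fun n hn => (mem_sdiff.1 hn).1, hcls, fun j ε hε => ?_⟩
  obtain ⟨N, hN⟩ := exists_nat_gt (1 / (ε / 2))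
  filter_upwards [hs₀, hk.eventually_ge_atTop N, hk.eventually_ge_atTop j, hGd, hE,
    h.prof.up 0 (ε / 2) (by positivity)] with n g1 g2 g3 g4 g5 g6
  have hp : ∀ s : ℝ, 0 < B'.d n ^ s := fun s => Real.rpow_pos_of_pos (B'.pos n) s
  obtain ⟨m1, m2⟩ := mem_sdiff.1 g1
  have hsJ : s₀ n ∈ J n := g4 (g5 m1)
  have m3 : ¬ ((cls (J n) (zlab B I co M C X w n 0) (s₀ n)).card : ℝ) <
      (B'.d n ^ (1 / (((k n : ℕ) : ℝ) + 1)) / a j n) *
        ((cls (J n) (zlab B I co M C X w n 0) (s₀ n)).image (hx j n)).card := by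
    intro hcon
    refine m2 ?_
    simp only [hbad, mem_biUnion, mem_range, mem_filter]
    exact ⟨j, by omega, hsJ, hcon⟩
  push Not at m3
  have haj := ha j n
  have h7 := g6 0 h.zero (by rw [norm_zero]) (s₀ n) hsJ
  rw [h.lam0, zero_add] at h7
  have hsmall : 1 / (((k n : ℕ) : ℝ) + 1) ≤ ε / 2 := by
    have h3 : (N : ℝ) ≤ k n := by exact_mod_cast g2
    rw [div_le_iff₀ (by positivity)]
    rw [div_lt_iff₀ (by positivity)] at hN
    nlinarith
  have h8 : B'.d n ^ (ε / 2) ≤ B'.d n ^ (1 / (((k n : ℕ) : ℝ) + 1)) :=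
    Real.rpow_le_rpow_of_exponent_ge (B'.pos n) (B'.lt n).le hsmall
  set Nn : ℝ := (((cls (J n) (zlab B I co M C X w n 0) (s₀ n)).image (hx j n)).card : ℝ) with hNn
  have hNn0 : 0 ≤ Nn := Nat.cast_nonneg _
  have h9 : B'.d n ^ (ε / 2) / a j n * Nn ≤ T n * B'.d n ^ (-(ε / 2)) := by
    refine le_trans ?_ (m3.trans h7)
    gcongr
  have h10 : Nn ≤ T n * a j n * B'.d n ^ (-ε) := by
    have e1 : T n * a j n * B'.d n ^ (-ε) =
        (a j n / B'.d n ^ (ε / 2)) * (T n * B'.d n ^ (-(ε / 2))) := by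
      have : B'.d n ^ (-ε) = B'.d n ^ (-(ε / 2)) / B'.d n ^ (ε / 2) := by
        rw [← Real.rpow_sub (B'.pos n)]; congr 1; ring
      rw [this]; ring
    have e2 : Nn = (a j n / B'.d n ^ (ε / 2)) * (B'.d n ^ (ε / 2) / a j n * Nn) := by
      have := (hp (ε / 2)).ne'
      field_simp
    rw [e1, e2]
    exact mul_le_mul_of_nonneg_left h9 (div_pos haj (hp _)).le
  refine le_trans ?_ h10
  exact Nat.cast_le.2 (card_le_card (image_subset_image (cls_mono g4 _ _)))

end

namespace Wnd

variable {W : Wnd m ι}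

/-- **sizes of the extra classes in a pruned set** -/
theorem Pruned.ex_ge {E E' : ∀ n, Finset (ι n)} {Mu g : ℕ → ℝ} {ex : ℕ → ∀ n, ι n → ℕ}
    (hP : Pruned W E E' g ex) {j : ℕ} {s A : ℕ → ℝ} (hA : ∀ n, 0 < A n)
    (hbig : ∀ ε : ℝ, 0 < ε → ∀ᶠ n in (U : Filter ℕ), s n * W.B'.d n ^ ε ≤ ((E n).card : ℝ))
    (hnum : ∀ ε : ℝ, 0 < ε → ∀ᶠ n in (U : Filter ℕ),
      (((E n).image (ex j n)).card : ℝ) ≤ A n * W.B'.d n ^ (-ε)) {ε : ℝ} (hε : 0 < ε) :
    ∀ᶠ n in (U : Filter ℕ), ∀ i ∈ E' n,
      s n / A n * W.B'.d n ^ ε ≤ ((R138.Ex926.cls (E' n) (ex j n) i).card : ℝ) := by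
  have hε3 : 0 < ε / 3 := by positivity
  filter_upwards [hbig _ hε3, hnum _ hε3, hP.gsub _ hε3, hP.extra j] with n h1 h2 h3 h4 i hi
  have hp : ∀ s : ℝ, 0 < W.B'.d n ^ s := fun s => Real.rpow_pos_of_pos (W.B'.pos n) s
  have h5 := h4 i hi
  set c : ℝ := ((R138.Ex926.cls (E' n) (ex j n) i).card : ℝ) with hc
  have hc0 : 0 ≤ c := Nat.cast_nonneg _
  have hAn := hA n
  have h6 : s n * W.B'.d n ^ (ε / 3) ≤
      W.B'.d n ^ (-(ε / 3)) * (A n * W.B'.d n ^ (-(ε / 3))) * c := by
    refine (h1.trans h5).trans ?_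
    have := hp (-(ε / 3))
    have := hP.g1 n
    gcongr
  have e1 : s n / A n * W.B'.d n ^ ε =
      (W.B'.d n ^ (2 * (ε / 3)) / A n) * (s n * W.B'.d n ^ (ε / 3)) := by
    have : W.B'.d n ^ ε = W.B'.d n ^ (2 * (ε / 3)) * W.B'.d n ^ (ε / 3) := by
      rw [← Real.rpow_add (W.B'.pos n)]; congr 1; ring
    rw [this]; ring
  have e2 : c = (W.B'.d n ^ (2 * (ε / 3)) / A n) *
      (W.B'.d n ^ (-(ε / 3)) * (A n * W.B'.d n ^ (-(ε / 3))) * c) := by
    have : W.B'.d n ^ (2 * (ε / 3)) * (W.B'.d n ^ (-(ε / 3)) * W.B'.d n ^ (-(ε / 3))) = 1 := by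
      rw [← Real.rpow_add (W.B'.pos n), ← Real.rpow_add (W.B'.pos n)]
      have : 2 * (ε / 3) + (-(ε / 3) + -(ε / 3)) = 0 := by ring
      rw [this, Real.rpow_zero]
    have h7 : (W.B'.d n ^ (2 * (ε / 3)) / A n) *
      (W.B'.d n ^ (-(ε / 3)) * (A n * W.B'.d n ^ (-(ε / 3))) * c) =
      (W.B'.d n ^ (2 * (ε / 3)) * (W.B'.d n ^ (-(ε / 3)) * W.B'.d n ^ (-(ε / 3)))) * c := by
      field_simp
    rw [h7, this, one_mul]
  rw [e1, e2]
  exact mul_le_mul_of_nonneg_left h6 (div_pos (hp _) hAn).le

end Wnd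

end Crest.Agent.R136.Qg926
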