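import Crest.Agent.R136.Zpr4_779
import Crest.Agent.R136.Qg5_926

/-!
# R136: own profile of a typical honest class (helper779)

`ZWin.exists_cls_own` : from a `ZWin` and the `ZProf` of the own labels (line, label) along the same
window: an honest class `Cl` (base incidence in a prescribed dense part) such that EVERY dense part
of it has the own profile `TProf` on every bounded set of nonnegative exponents.
-/

set_option autoImplicit false
set_option linter.unusedSectionVars false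
set_option linter.unusedVariables false

open Filter Topology

namespace Crest.Agent.R136.Zpr779

open Finset Crest.Agent.R138.Ex926 Crest.Agent.R136.Net191 Crest.Agent.R136.Qg926
open Crest.Agent.R136.Sec779

/-- labels of a finite set coded by natural numbers -/
theorem exists_code {α κ : Type*} [DecidableEq κ] (J : Finset α) (f : α → κ) :
    ∃ g : α → ℕ, ∀ x ∈ J, ∀ y ∈ J, g x = g y ↔ f x = f y := by
  classical
  refine ⟨fun x => if h : f x ∈ J.image f then ((J.image f).equivFin ⟨f x, h⟩ : ℕ) else 0,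
    fun x hx y hy => ?_⟩
  have h1 : f x ∈ J.image f := mem_image_of_mem _ hx
  have h2 : f y ∈ J.image f := mem_image_of_mem _ hy
  simp only [dif_pos h1, dif_pos h2]
  constructor
  · intro h
    have := (J.image f).equivFin.injective (Fin.ext h)
    exact congrArg Subtype.val this
  · intro h
    congr 2
    exact Subtype.ext h

theorem card_image_of_imp {α β γ : Type*} [DecidableEq α] [DecidableEq β] [DecidableEq γ]
    (A : Finset α) (f : α → β) (g : α → γ) (h : ∀ x ∈ A, ∀ y ∈ A, g x = g y → f x = f y) :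
    ((A.image f).card : ℝ) ≤ (A.image g).card := by
  have h1 := card_image_le_mul A f g (N := 1) (fun x hx => by
    have hs : (cls A g x).image f ⊆ {f x} := by
      intro c hc
      obtain ⟨y, hy, rfl⟩ := mem_image.1 hc
      obtain ⟨y1, y2⟩ := mem_cls.1 hy
      exact mem_singleton.2 (h y y1 x hx y2)
    exact_mod_cast (card_le_card hs).trans (card_singleton _).le)
  rwa [one_mul] at h1

variable {m : ℕ} {ι : ℕ → Type*} [∀ n, DecidableEq (ι n)] {B B' : Base}
  {I J : ∀ n, Finset (ι n)} {co : ∀ n, ι n → ι n → Fin m → ℝ} {M : Mons m} {C : ℝ}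
  {X : ℕ → Fin m → ℝ} {w : ℕ → ℝ} {D : Set (Fin m → ℝ)} {T : ℕ → ℝ} {lam : (Fin m → ℝ) → ℝ}

/-- finitely many upper neighbours -/
theorem exists_upper {s P : Set (Fin m → ℝ)} (hP : P ⊆ s) {R : ℝ} (hR : ∀ p ∈ P, ‖p‖ ≤ R)
    {u : ℕ → (Fin m → ℝ)} (hu : ∀ p ∈ s, ∀ δ : ℝ, 0 < δ → ∃ k, ‖u k - p‖ < δ) {δ : ℝ}
    (hδ : 0 < δ) : ∃ F : Finset ℕ, ∀ p ∈ P, ∃ k ∈ F, ‖u k - p‖ ≤ δ := by
  classical
  have hb : TotallyBounded P := by
    refine (isCompact_closedBall (0 : Fin m → ℝ) R).totallyBounded.subset fun p hp => ?_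
    rw [Metric.mem_closedBall, dist_zero_right]
    exact hR p hp
  obtain ⟨t, ht, htf, hcov⟩ := Metric.finite_approx_of_totallyBounded hb (δ / 2)
    (by positivity)
  have hk : ∀ y ∈ t, ∃ k, ‖u k - y‖ < δ / 2 := fun y hy => hu y (hP (ht hy)) _ (by positivity)
  choose! κ hκ using hk
  refine ⟨htf.toFinset.image κ, fun p hp => ?_⟩
  obtain ⟨y, hy⟩ := Set.mem_iUnion.1 (hcov hp)
  obtain ⟨hyt, hyb⟩ := Set.mem_iUnion.1 hy
  refine ⟨κ y, mem_image_of_mem _ (htf.mem_toFinset.2 hyt), ?_⟩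
  rw [Metric.mem_ball, dist_eq_norm] at hyb
  have h1 := hκ y hyt
  calc ‖u (κ y) - p‖ = ‖(u (κ y) - y) + (y - p)‖ := by congr 1; abel
    _ ≤ ‖u (κ y) - y‖ + ‖y - p‖ := norm_add_le _ _
    _ ≤ δ := by rw [norm_sub_rev y p]; linarith

/-- **own profile of a typical honest class** -/
theorem ZWin.exists_cls_own (h : ZWin B B' I J co M C X w D T lam) (i₀ : ∀ n, ι n)
    {Gd E : ∀ n, Finset (ι n)} (hGd : ∀ᶠ n in (U : Filter ℕ), Gd n ⊆ J n)
    (hE : ∀ᶠ n in (U : Filter ℕ), E n ⊆ Gd n) {S : ℕ → ℝ} (hS : B'.Sub S)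
    (hd : ∀ᶠ n in (U : Filter ℕ), ((J n).card : ℝ) ≤ S n * (E n).card)
    {line : ∀ n, ι n → ℕ} {Do : Set (Fin m → ℝ)} {To : ℕ → ℝ} {lo : (Fin m → ℝ) → ℝ}
    (hO : ZProf B' J (fun n c x => (line n x, zlab B I co M C X w n c x)) Do To lo)
    (hTo : ∀ n, 0 < To n) (hDo : Do ⊆ D) (h0o : (0 : Fin m → ℝ) ∈ Do)
    (hlip : ∀ p ∈ Do, ∀ q ∈ Do, |lo p - lo q| ≤ m * ‖p - q‖)
    {a : Fin m → ℝ} (ha : ∀ s, 1 ≤ a s) (hadd : ∀ p ∈ Do, ∀ t : ℝ, 0 ≤ t → p + t • a ∈ Do) :
    ∃ s₀ : ∀ n, ι n, (∀ᶠ n in (U : Filter ℕ), s₀ n ∈ E n) ∧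
      ZCls B B' I J co M C X w D T lam
        (fun n => cls (Gd n) (zlab B I co M C X w n 0) (s₀ n)) s₀ ∧
      ∀ E' : ∀ n, Finset (ι n),
        (∀ᶠ n in (U : Filter ℕ), E' n ⊆ cls (Gd n) (zlab B I co M C X w n 0) (s₀ n)) →
        (∀ ε : ℝ, 0 < ε → ∀ᶠ n in (U : Filter ℕ),
          ((cls (Gd n) (zlab B I co M C X w n 0) (s₀ n)).card : ℝ) ≤
            B'.d n ^ (-ε) * (E' n).card) →
        ∀ P ⊆ Do, ∀ R : ℝ, (∀ p ∈ P, ‖p‖ ≤ R) → (∀ p ∈ P, 0 ≤ p) →
          TProf B' E' (fun n c x => (line n x, zlab B I co M C X w n c x)) P To lo := by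
  classical
  have hpos : ∀ n, ∀ t : ℝ, 0 < B'.d n ^ t := fun n t => Real.rpow_pos_of_pos (B'.pos n) t
  set ol : ∀ n, (Fin m → ℝ) → ι n → ℕ × ι n :=
    fun n c x => (line n x, zlab B I co M C X w n c x) with hol
  -- countable dense set of nonnegative exponents
  set s : Set (Fin m → ℝ) := {p | p ∈ Do ∧ 0 ≤ p} with hs
  have : Nonempty s := ⟨⟨0, h0o, le_rfl⟩⟩
  set u : ℕ → (Fin m → ℝ) := fun k => (TopologicalSpace.denseSeq s k : Fin m → ℝ) with hu
  have hus : ∀ k, u k ∈ s := fun k => (TopologicalSpace.denseSeq s k).2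
  have hud : ∀ p ∈ s, ∀ δ : ℝ, 0 < δ → ∃ k, ‖u k - p‖ < δ := by
    intro p hp δ hδ
    obtain ⟨k, hk⟩ := (TopologicalSpace.denseRange_denseSeq s).exists_dist_lt ⟨p, hp⟩ hδ
    refine ⟨k, ?_⟩
    rw [Subtype.dist_eq, dist_eq_norm, norm_sub_rev] at hk
    exact hk
  -- the upper points
  set pj : ℕ → (Fin m → ℝ) := fun j => u j.unpair.1 + (1 / ((j.unpair.2 : ℝ) + 1)) • a with hpj
  have hpjD : ∀ j, pj j ∈ Do := fun j => hadd _ (hus _).1 _ (by positivity)
  have hpj0 : ∀ j, 0 ≤ pj j := fun j k => by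
    have h1 := (hus j.unpair.1).2 k
    have h2 : 0 ≤ (1 / ((j.unpair.2 : ℝ) + 1)) * a k :=
      mul_nonneg (by positivity) (by linarith [ha k])
    simp only [hpj, Pi.add_apply, Pi.smul_apply, smul_eq_mul]
    simp only [Pi.zero_apply] at h1 ⊢
    linarith
  -- codes
  have hcode : ∀ j n, ∃ g : ι n → ℕ, ∀ x ∈ J n, ∀ y ∈ J n, g x = g y ↔
      ol n (pj j) x = ol n (pj j) y := fun j n => exists_code (J n) (ol n (pj j))
  choose hx hxs using hcode
  set aj : ℕ → ℕ → ℝ := fun j n => B'.d n ^ lo (pj j) / To n with haj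
  have haj0 : ∀ j n, 0 < aj j n := fun j n => div_pos (hpos _ _) (hTo n)
  -- nestedness on bounded sets
  have hnest : ∀ K : ℝ, ∃ N : ℕ → ℝ, B'.Sub N ∧ ∀ᶠ n in (U : Filter ℕ),
      ∀ p ∈ D, ‖p‖ ≤ K → ∀ p' ∈ D, ‖p'‖ ≤ K → p ≤ p' → ∀ i ∈ I n,
        (((two (I n) (zlab B I co M C X w n p) (zlab B I co M C X w n p') i).image
          (zlab B I co M C X w n p)).card : ℝ) ≤ N n := by
    intro K
    have hq := znet_QFam (P := {c | c ∈ D ∧ ‖c‖ ≤ K}) h.chart h.w0 h.base (by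
      filter_upwards [h.legal K] with n hn c hc using hn c hc.1 hc.2)
    obtain ⟨N, hN, h1⟩ := hq.nest
    exact ⟨N, hN, h1.mono fun n hn p hp hpK p' hp' hpK' hpp i hi =>
      hn p ⟨hp, hpK⟩ p' ⟨hp', hpK'⟩ hpp i hi⟩
  have hfew : ∀ j, ∀ ε : ℝ, 0 < ε → ∀ᶠ n in (U : Filter ℕ), ∀ i ∈ J n,
      (((cls (J n) (hx j n) i).image (zlab B I co M C X w n 0)).card : ℝ) ≤ B'.d n ^ (-ε) := by
    intro j ε hε
    obtain ⟨N, hN, h1⟩ := hnest ‖pj j‖
    filter_upwards [h1, h.sub, hN.ev_le hε] with n h1 h2 h3 i hi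
    have hNn : N n ≤ B'.d n ^ (-ε) := by
      rw [← B'.exp_eq, ← Real.log_le_iff_le_exp h3.1]
      exact h3.2
    refine le_trans ?_ ((h1 0 h.zero (by rw [norm_zero]; exact norm_nonneg _) (pj j)
      (hDo (hpjD j)) le_rfl (hpj0 j) i (h2 hi)).trans hNn)
    refine Nat.cast_le.2 (card_le_card (image_subset_image fun x hxx => ?_))
    obtain ⟨x1, x2⟩ := mem_cls.1 hxx
    have x3 := (hxs j n x x1 i hi).1 x2
    simp only [hol, Prod.mk.injEq] at x3
    exact mem_two.2 ⟨h2 x1, i, h2 hi, rfl, x3.2⟩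
  have hnum : ∀ j, ∀ ε : ℝ, 0 < ε → ∀ᶠ n in (U : Filter ℕ),
      (((J n).image (hx j n)).card : ℝ) ≤ (J n).card * aj j n * B'.d n ^ (-ε) := by
    intro j ε hε
    filter_upwards [hO.root ‖pj j‖ ε hε] with n h1
    have h2 := h1 (pj j) (hpjD j) le_rfl
    have h3 := card_image_of_imp (J n) (hx j n) (ol n (pj j)) fun x hx1 y hy1 hxy =>
      (hxs j n x hx1 y hy1).2 hxy
    have hT := hTo n
    have h4 : (((J n).image (ol n (pj j))).card : ℝ) ≤
        (J n).card * B'.d n ^ (lo (pj j) - ε) / To n := by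
      rw [le_div_iff₀ hT]; exact h2
    refine (h3.trans h4).trans (le_of_eq ?_)
    simp only [haj]
    rw [sub_eq_add_neg, Real.rpow_add (B'.pos n)]
    ring
  obtain ⟨s₀, hs₀, hcls, htyp⟩ := h.exists_zcls_ex i₀ hGd hE hS hd hx aj haj0 hfew hnum
  refine ⟨s₀, hs₀, hcls, fun E' hE' hd' P hP R hR h0 => ?_⟩
  set Cl : ∀ n, Finset (ι n) := fun n => cls (Gd n) (zlab B I co M C X w n 0) (s₀ n) with hCl
  refine ⟨hTo, fun ε hε => ?_, fun ε hε => ?_, fun ε hε => ?_⟩
  · filter_upwards [hO.up R ε hε, hE', hcls.csub] with n h1 h2 h3 p hp i hi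
    refine le_trans ?_ (h1 p (hP hp) (hR p hp) i (h3 (h2 hi)))
    exact_mod_cast card_le_card (cls_mono (h2.trans h3) _ _)
  · filter_upwards [hO.num R ε hε, hE', hcls.csub] with n h1 h2 h3 q hq p hp hqp i hi
    refine le_trans ?_ (h1 q (hP hq) (hR q hq) p (hP hp) (hR p hp) hqp i (h3 (h2 hi)))
    exact_mod_cast card_le_card (image_subset_image (cls_mono (h2.trans h3) _ _))
  · -- number of labels
    set e : ℝ := ε / 8 with he
    have he0 : 0 < e := by positivity
    have hm : (0 : ℝ) ≤ m := Nat.cast_nonneg m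
    obtain ⟨l, hl⟩ := exists_nat_gt ((m * (1 + ‖a‖) + 1) / e)
    have hl1 : (0 : ℝ) < (l : ℝ) + 1 := by positivity
    set δ : ℝ := 1 / ((l : ℝ) + 1) with hδ
    have hδ0 : 0 < δ := by positivity
    have hδm : m * (δ * (1 + ‖a‖)) ≤ e := by
      rw [div_lt_iff₀ he0] at hl
      have e1 : m * (δ * (1 + ‖a‖)) = m * (1 + ‖a‖) / ((l : ℝ) + 1) := by
        rw [hδ]; ring
      rw [e1, div_le_iff₀ hl1]
      nlinarith
    have hPs : P ⊆ s := fun p hp => ⟨hP hp, h0 p hp⟩
    obtain ⟨F, hF⟩ := exists_upper hPs hR hud hδ0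
    set K : ℝ := |R| + (1 + ‖a‖) with hK
    obtain ⟨N, hN, hnst⟩ := hnest K
    have htF : ∀ᶠ n in (U : Filter ℕ), ∀ k ∈ F,
        (((cls (Gd n) (zlab B I co M C X w n 0) (s₀ n)).image
          (hx (Nat.pair k l) n)).card : ℝ) ≤
          T n * aj (Nat.pair k l) n * B'.d n ^ (-e) := by
      rw [Filter.eventually_all_finset]
      exact fun k _ => htyp _ _ he0
    filter_upwards [hnst, htF, hE', hcls.csub, hd' e he0, hcls.big e he0, hN.ev_le he0, h.sub]
      with n g1 g2 g3 g4 g5 g6 g7 g8 p hp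
    have hNn : N n ≤ B'.d n ^ (-e) := by
      rw [← B'.exp_eq, ← Real.log_le_iff_le_exp g7.1]
      exact g7.2
    obtain ⟨k, hk, hkp⟩ := hF p hp
    have hun : (Nat.pair k l).unpair = (k, l) := Nat.unpair_pair k l
    have hpe : pj (Nat.pair k l) = u k + δ • a := by
      simp only [hpj, hun, hδ]
    set p' : Fin m → ℝ := pj (Nat.pair k l) with hp'
    have hpp' : p ≤ p' := by
      intro t
      have h1 := norm_le_pi_norm (u k - p) t
      rw [Pi.sub_apply, Real.norm_eq_abs] at h1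
      have h2 := (abs_le.1 (h1.trans hkp)).1
      rw [hpe]
      simp only [Pi.add_apply, Pi.smul_apply, smul_eq_mul]
      nlinarith [ha t]
    have hnp : ‖p' - p‖ ≤ δ * (1 + ‖a‖) := by
      rw [hpe]
      calc ‖u k + δ • a - p‖ = ‖(u k - p) + δ • a‖ := by congr 1; abel
        _ ≤ ‖u k - p‖ + ‖δ • a‖ := norm_add_le _ _
        _ ≤ δ + δ * ‖a‖ := by
            rw [norm_smul, Real.norm_eq_abs, abs_of_pos hδ0]
            linarith
        _ = _ := by ring
    have hδ1 : δ ≤ 1 := by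
      rw [hδ, div_le_one hl1]; linarith [(Nat.cast_nonneg l : (0 : ℝ) ≤ l)]
    have hRp := hR p hp
    have hpK : ‖p‖ ≤ K := by
      have := le_abs_self R
      have := norm_nonneg a
      rw [hK]; linarith
    have hpK' : ‖p'‖ ≤ K := by
      have h1 : ‖p'‖ ≤ ‖p‖ + ‖p' - p‖ := by
        have := norm_add_le p (p' - p)
        rwa [add_sub_cancel] at this
      have h2 : δ * (1 + ‖a‖) ≤ 1 * (1 + ‖a‖) :=
        mul_le_mul_of_nonneg_right hδ1 (by positivity)
      have := le_abs_self R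
      rw [hK]; linarith
    have hp'D : p' ∈ Do := hpjD _
    have hlo : lo p - e ≤ lo p' := by
      have h1 := hlip p (hP hp) p' hp'D
      have h2 := (abs_le.1 h1).2
      have h3 : m * ‖p - p'‖ ≤ m * (δ * (1 + ‖a‖)) := by
        rw [norm_sub_rev]
        exact mul_le_mul_of_nonneg_left hnp hm
      linarith
    have hE'J : E' n ⊆ J n := g3.trans g4
    -- labels at `p` inside a class at `p'`
    have c1 : (((E' n).image (ol n p)).card : ℝ) ≤ N n * ((E' n).image (ol n p')).card := by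
      refine card_image_le_mul (E' n) _ _ fun x hxE => ?_
      have hxI := g8 (hE'J hxE)
      refine le_trans ?_ (g1 p (hDo (hP hp)) hpK p' (hDo hp'D) hpK' hpp' x hxI)
      have hsub : (cls (E' n) (ol n p') x).image (ol n p) ⊆
          ((two (I n) (zlab B I co M C X w n p) (zlab B I co M C X w n p') x).image
            (zlab B I co M C X w n p)).image fun c => (line n x, c) := by
        intro c hc
        obtain ⟨y, hy, rfl⟩ := mem_image.1 hc
        obtain ⟨y1, y2⟩ := mem_cls.1 hy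
        simp only [hol, Prod.mk.injEq] at y2
        refine mem_image.2 ⟨zlab B I co M C X w n p y, mem_image_of_mem _
          (mem_two.2 ⟨g8 (hE'J y1), x, hxI, rfl, y2.2⟩), ?_⟩
        simp only [hol, y2.1]
      exact_mod_cast (card_le_card hsub).trans card_image_le
    have c2 : (((E' n).image (ol n p')).card : ℝ) ≤
        ((cls (Gd n) (zlab B I co M C X w n 0) (s₀ n)).image (hx (Nat.pair k l) n)).card := by
      have h1 := card_image_of_imp (E' n) (ol n p') (hx (Nat.pair k l) n) fun x hx1 y hy1 hxy =>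
        (hxs (Nat.pair k l) n x (hE'J hx1) y (hE'J hy1)).1 hxy
      refine h1.trans ?_
      exact_mod_cast card_le_card (image_subset_image g3)
    have c3 := g2 k hk
    have hT := h.T0 n
    have hTon := hTo n
    -- assemble
    have c4 : (((E' n).image (ol n p)).card : ℝ) ≤
        B'.d n ^ (-e) * (T n * aj (Nat.pair k l) n * B'.d n ^ (-e)) :=
      c1.trans (mul_le_mul hNn (c2.trans c3) (Nat.cast_nonneg _) (hpos _ _).le)
    have c5 : T n ≤ B'.d n ^ (-e) * (B'.d n ^ (-e) * (E' n).card) := by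
      have h1 : T n * B'.d n ^ e ≤ B'.d n ^ (-e) * (E' n).card := g6.trans g5
      calc T n = B'.d n ^ (-e) * (T n * B'.d n ^ e) := by
            rw [mul_comm (T n), ← mul_assoc, ← Real.rpow_add (B'.pos n)]
            simp
        _ ≤ _ := mul_le_mul_of_nonneg_left h1 (hpos _ _).le
    calc (((E' n).image (ol n p)).card : ℝ) * To n
        ≤ B'.d n ^ (-e) * (T n * aj (Nat.pair k l) n * B'.d n ^ (-e)) * To n :=
          mul_le_mul_of_nonneg_right c4 hTon.le
      _ = T n * (B'.d n ^ (-e) * B'.d n ^ (-e) * B'.d n ^ lo p') := by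
          simp only [haj]
          rw [← hp']
          field_simp
      _ ≤ (B'.d n ^ (-e) * (B'.d n ^ (-e) * (E' n).card)) *
          (B'.d n ^ (-e) * B'.d n ^ (-e) * B'.d n ^ lo p') :=
          mul_le_mul_of_nonneg_right c5
            (mul_nonneg (mul_nonneg (hpos _ _).le (hpos _ _).le) (hpos _ _).le)
      _ = (E' n).card * B'.d n ^ (-e + (-e + (-e + (-e + lo p')))) := by
          rw [Real.rpow_add (B'.pos n), Real.rpow_add (B'.pos n), Real.rpow_add (B'.pos n),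
            Real.rpow_add (B'.pos n)]
          ring
      _ ≤ (E' n).card * B'.d n ^ (lo p - ε) := by
          refine mul_le_mul_of_nonneg_left ?_ (Nat.cast_nonneg _)
          refine Real.rpow_le_rpow_of_exponent_ge (B'.pos n) (B'.lt n).le ?_
          rw [he] at hlo ⊢
          linarith

end Crest.Agent.R136.Zpr779
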