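import Crest.Agent.R136.Own3_831

/-!
# R136: the own dichotomy for `ExtZ`, two precisions of the zero slots (helper831)

`LPath` : only the lower path; the larger boxes are arbitrary.

`ext_own_casesL` : general form.  `ext_own_casesG` : chart `Fin 11`, `Mw = monQ`, `j = 4` = `F_a`,
zero slot `F_b` of size `z3`; nothing is asked of the slot `R`.

`vis_drop` : drop of `ν` from (Vis).
-/

set_option autoImplicit false
set_option linter.unusedSectionVars false
set_option linter.unusedVariables false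

open Filter Topology MeasureTheory Set

namespace Crest.Agent.R136.Own831

open Crest.Agent.R136.Dec146 Crest.Agent.R138.Ex926 Crest.Agent.R136.Net191
  Crest.Agent.R136.Qg926
open Crest.Agent.R136.Zpr779 (ExtZ)

variable {m : ℕ} {B B' : Base} {I0 I : ℕ → Finset (ℕ × ℝ)}
  {co : ∀ n : ℕ, ℕ × ℝ → ℕ × ℝ → Fin m → ℝ} {M : Mons m} {C : ℝ} {X : ℕ → Fin m → ℝ}
  {w : ℕ → ℝ} {Mw : Mons m} {R : ℝ} {Tn To : ℕ → ℝ} {kz j : Fin m} {w0 s : ℝ}
  {PD : Set (Fin m → ℝ)} {D : (Fin m → ℝ) → ℝ} {r o : ℝ → Fin m → ℝ} {E : ℝ → ℝ}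
  {T : Fin m → Prop} {ν own : (Fin m → ℝ) → ℝ} {c₀ : ℝ} {b e : Fin m → ℝ} {α β y₁ : ℝ}

/-- lower path of the slot `j` -/
structure LPath (L : Set (Fin m → ℝ)) (w0 : ℝ) (kz j : Fin m) (o : ℝ → Fin m → ℝ)
    (b e : Fin m → ℝ) (α β y₁ : ℝ) : Prop where
  α0 : 0 ≤ α
  β1 : β ≤ 1
  y0 : 0 < y₁
  e0 : ∀ i, 0 ≤ e i
  ej : 0 < e j
  kzj : kz ≠ j
  bz : b kz = w0
  ez : e kz = 1
  low : RaiseLeg L b e j α β y₁
  le : ∀ v : ℝ, α < v → v < β → ∀ k, (b + v • e) k ≤ o v k

theorem LPath.mem (hp : LPath (Leg Mw R) w0 kz j o b e α β y₁) {v : ℝ} (h1 : α < v)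
    (h2 : v < β) : b + v • e ∈ Leg Mw R := by
  have := hp.low v h1 h2 0 le_rfl hp.y0.le
  rwa [zero_smul, add_zero] at this

theorem LPath.ownp (h : ExtZ B B' I0 I co M C X w Mw R Tn To kz w0 s PD D r o E T ν own c₀)
    (hp : LPath (Leg Mw R) w0 kz j o b e α β y₁) {v : ℝ} (h1 : α < v) (h2 : v < β) :
    own (b + v • e) = (1 - s) * (1 - v) := by
  have hα := hp.α0
  have hβ := hp.β1
  exact h.own_rot _ (hp.mem h1 h2) v (by linarith) (by linarith) (by simp [hp.bz, hp.ez])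
    (hp.le v h1 h2)

/-- the own loss of a natural box above the path is at most that of the path -/
theorem LPath.loss (h : ExtZ B B' I0 I co M C X w Mw R Tn To kz w0 s PD D r o E T ν own c₀)
    (hp : LPath (Leg Mw R) w0 kz j o b e α β y₁) {v y : ℝ} (h1 : α < v) (h2 : v < β)
    (hy : 0 ≤ y) (hyy : y ≤ y₁) {q : Fin m → ℝ} (hq : q ∈ Leg Mw R) (hqz : q kz = w0 + v)
    (hqo : ∀ k, q k ≤ o v k) (hqb : b + v • e ≤ q) (hqj : q j = b j + v * e j) :
    (1 - s) * (1 - v) - oloss own b e j v y ≤ own (q + y • (Pi.single j 1 : Fin m → ℝ)) := by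
  have hα := hp.α0
  have hβ := hp.β1
  have e1 : q ⊓ (b + v • e + y • (Pi.single j 1 : Fin m → ℝ)) = b + v • e := by
    funext k
    by_cases hk : k = j
    · subst hk
      simp only [Pi.inf_apply, Pi.add_apply, Pi.smul_apply, smul_eq_mul, Pi.single_eq_same,
        mul_one, hqj]
      exact min_eq_left (by linarith)
    · have := hqb k
      simp only [Pi.add_apply, Pi.smul_apply, smul_eq_mul] at this
      simp only [Pi.inf_apply, Pi.add_apply, Pi.smul_apply, smul_eq_mul, Pi.single_eq_of_ne hk,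
        mul_zero, add_zero]
      exact min_eq_right this
  have e2 : q ⊔ (b + v • e + y • (Pi.single j 1 : Fin m → ℝ)) =
      q + y • (Pi.single j 1 : Fin m → ℝ) := by
    funext k
    by_cases hk : k = j
    · subst hk
      simp only [Pi.sup_apply, Pi.add_apply, Pi.smul_apply, smul_eq_mul, Pi.single_eq_same,
        mul_one, hqj]
      exact max_eq_right (by linarith)
    · have := hqb k
      simp only [Pi.add_apply, Pi.smul_apply, smul_eq_mul] at this
      simp only [Pi.sup_apply, Pi.add_apply, Pi.smul_apply, smul_eq_mul, Pi.single_eq_of_ne hk,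
        mul_zero, add_zero]
      exact max_eq_left this
  have h3 := h.osub q hq _ (hp.low v h1 h2 y hy hyy) (by rw [e1]; exact hp.mem h1 h2)
  rw [e1, e2, hp.ownp h h1 h2, h.own_rot q hq v (by linarith) (by linarith) hqz hqo] at h3
  have h4 : oloss own b e j v y =
    (1 - s) * (1 - v) - own (b + v • e + y • (Pi.single j 1 : Fin m → ℝ)) := by
    unfold oloss
    rw [hp.ownp h h1 h2]
  linarith

/-- **OWN DICHOTOMY for `ExtZ`**, general form -/
theorem ext_own_casesL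
    (h : ExtZ B B' I0 I co M C X w Mw R Tn To kz w0 s PD D r o E T ν own c₀)
    (hp : LPath (Leg Mw R) w0 kz j o b e α β y₁) :
    (∀ᵐ v : ℝ, v ∈ Ioo α β → ∃ c : ℝ, 0 < c ∧ ∃ y₀ : ℝ, 0 < y₀ ∧ ∀ y : ℝ, 0 < y → y ≤ y₀ →
      ∀ p ∈ Leg Mw R, b + v • e + y • (Pi.single j 1 : Fin m → ℝ) ≤ p →
        own p ≤ (1 - s) * (1 - v) - c * y) ∨
    ∀ Q : ℝ → Prop, (∀ᵐ v : ℝ, v ∈ Ioo α β → Q v) →
      ∃ v ∈ Ioo α β, Q v ∧ ∃ hh : ℕ → ℝ, (∀ l, 0 < hh l) ∧ Tendsto hh atTop (𝓝 0) ∧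
        ∀ a u : ℝ, 0 ≤ u → ∀ ε : ℝ, 0 < ε → ∀ᶠ l in (atTop : Filter ℕ), ∀ q ∈ Leg Mw R,
          q kz = w0 + (v + a * hh l) → (∀ k, q k ≤ o (v + a * hh l) k) →
          b + (v + a * hh l) • e ≤ q → q j = b j + (v + a * hh l) * e j →
          q + (u * hh l) • (Pi.single j 1 : Fin m → ℝ) ∈ Leg Mw R → ∀ p ∈ Leg Mw R,
          p ≤ q + (u * hh l) • (Pi.single j 1 : Fin m → ℝ) →
            (1 - s) * (1 - (v + a * hh l)) - ε * hh l ≤ own p := by
  have hm : (0 : ℝ) ≤ m := Nat.cast_nonneg _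
  rcases own_cases_Leg (P := Leg Mw R) (own := own) (K := m) hm h.olip (ext_sup4 h) h.oanti
    hp.y0 hp.low hp.e0 hp.ej hp.kzj (by rw [hp.ez]; exact one_pos) with hv | hz
  · left
    filter_upwards [hv] with v hv hvI
    obtain ⟨c, hc, y₀, hy₀, H⟩ := hv hvI
    refine ⟨c, hc, min y₀ y₁, lt_min hy₀ hp.y0, fun y hy hyy p hpL hpp => ?_⟩
    have h1 := H y hy (hyy.trans (min_le_left _ _))
    have h2 := h.oanti _ (hp.low v hvI.1 hvI.2 y hy.le (hyy.trans (min_le_right _ _))) p hpL hpp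
    have h3 : oloss own b e j v y =
        (1 - s) * (1 - v) - own (b + v • e + y • (Pi.single j 1 : Fin m → ℝ)) := by
      unfold oloss
      rw [hp.ownp h hvI.1 hvI.2]
    linarith
  · right
    intro Q hQ
    obtain ⟨v, hvI, hQv, hh, hh0, hht, hz⟩ := hz Q hQ
    refine ⟨v, hvI, hQv, hh, hh0, hht, fun a u hu ε hε => ?_⟩
    have t1 : Tendsto (fun l => v + a * hh l) atTop (𝓝 v) := by
      have := (hht.const_mul a).const_add v
      rwa [mul_zero, add_zero] at this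
    have t2 : Tendsto (fun l => u * hh l) atTop (𝓝 0) := by
      have := hht.const_mul u
      rwa [mul_zero] at this
    filter_upwards [t1.eventually (lt_mem_nhds hvI.1), t1.eventually (gt_mem_nhds hvI.2),
      t2.eventually (gt_mem_nhds hp.y0), (hz a u hu).eventually (gt_mem_nhds hε)] with
      l h1 h2 h3 h4 q hq hqz hqo hqb hqj hqy p hpL hpp
    have h5 := hp.loss h h1 h2 (mul_nonneg hu (hh0 l).le) h3.le hq hqz hqo hqb hqj
    have h6 := h.oanti p hpL _ hqy hpp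
    rw [div_lt_iff₀ (hh0 l)] at h4
    linarith

/-- drop of `ν` from (Vis) -/
theorem vis_drop (h : ExtZ B B' I0 I co M C X w Mw R Tn To kz w0 s PD D r o E T ν own c₀)
    {v c y : ℝ} (hv0 : 0 ≤ v) (hv1 : v ≤ 1) {p q : Fin m → ℝ} (hp : p ∈ Leg Mw R)
    (hq : q ∈ Leg Mw R) (hpq : p ≤ q) (hpz : p kz = w0 + v) (hpo : ∀ k, p k ≤ o v k)
    (hown : own q ≤ (1 - s) * (1 - v) - c * y) : ν q ≤ ν p - c * y := by
  have h1 := h.own_le p hp q hq hpq
  rw [h.own_rot p hp v hv0 hv1 hpz hpo] at h1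
  linarith

section chart11

open Crest.Agent.R136.NetQ186 (monQ legalQ_iff)

/-- lower path in the chart `Fin 11`: `z`, the zero slot `F_b`, `F_a` -/
def ol11 (w0 z3 f0 : ℝ) : Fin 11 → ℝ := ![w0, 0, 0, z3, f0, 0, 0, 0, 0, 0, 0]

theorem lPath11 {Mw : Mons 11} (hMw : ∀ p, Legal monQ p → Legal Mw p) {w0 z3 f0 κ R y₂ : ℝ}
    {o : ℝ → Fin 11 → ℝ} (hw : 0 ≤ w0) (hf : 0 ≤ f0) (hκ : 0 < κ) (hy : 0 < y₂)
    (hz : f0 + κ + y₂ ≤ z3) (hR : w0 + 1 ≤ R) (hzR : z3 ≤ R)
    (ho : ∀ v : ℝ, 0 ≤ v → v ≤ 1 → w0 + v ≤ o v 0 ∧ z3 ≤ o v 3 ∧ f0 + κ * v ≤ o v 4 ∧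
      ∀ k, k ≠ 0 → k ≠ 3 → k ≠ 4 → 0 ≤ o v k) :
    LPath (Leg Mw R) w0 0 4 o (ol11 w0 z3 f0) (oe11 κ) 0 1 y₂ where
  α0 := le_rfl
  β1 := le_rfl
  y0 := hy
  e0 := fun k => by
    fin_cases k <;> simp [oe11, hκ.le]
  ej := by simp [oe11, hκ]
  kzj := by decide
  bz := by simp [ol11]
  ez := by simp [oe11]
  low := fun v hv1 hv2 y hy0 hy1 => by
    have hv0 : 0 ≤ v := hv1.le
    have hκv : 0 ≤ κ * v := mul_nonneg hκ.le hv0
    have hκv1 : κ * v ≤ κ := by nlinarith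
    have e1 : ol11 w0 z3 f0 + v • oe11 κ + y • (Pi.single 4 1 : Fin 11 → ℝ) =
        ![w0 + v, 0, 0, z3, f0 + κ * v + y, 0, 0, 0, 0, 0, 0] := by
      funext k
      fin_cases k <;> simp [ol11, oe11, mul_comm]
    rw [e1]
    refine Leg_mono_mons hMw R ⟨?_, fun k => ?_⟩
    · rw [legalQ_iff]
      refine ⟨fun k => ?_, ?_, ?_, ?_, ?_, ?_, ?_, ?_, ?_, ?_, ?_, ?_⟩
      · fin_cases k <;>
          simp only [Matrix.cons_val, Fin.zero_eta, Fin.mk_one, Fin.reduceFinMk,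
            Fin.isValue] <;>
          linarith
      all_goals
        simp only [Matrix.cons_val, Fin.isValue]
        linarith
    · fin_cases k <;>
        simp only [Matrix.cons_val, Fin.zero_eta, Fin.mk_one, Fin.reduceFinMk, Fin.isValue] <;>
        linarith
  le := fun v h1 h2 k => by
    obtain ⟨g1, g2, g3, g4⟩ := ho v h1.le h2.le
    by_cases k0 : k = 0
    · subst k0; simpa [ol11, oe11] using g1
    by_cases k2 : k = 3
    · subst k2; simpa [ol11, oe11] using g2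
    by_cases k4 : k = 4
    · subst k4; simpa [ol11, oe11, mul_comm] using g3
    refine le_trans (le_of_eq ?_) (g4 k k0 k2 k4)
    revert k0 k2 k4
    fin_cases k <;> simp [ol11, oe11]

/-- **OWN DICHOTOMY for `ExtZ` in the chart `Fin 11`, `Mw = monQ`**: `F_a` = slot `4`, zero slot
`F_b` = slot `3` of size `z3`.  Nothing is asked of the sizes of the other slots: the own boxes may
be anything below `o`.

Either (Vis) at a.e. level `v` every box with `z ≥ w0 + v`, `F_b ≥ z3`, `F_a ≥ f0 + κ v + y` has own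
count `≤ (1-s)(1-v) - c y` for all small `y`;

or (Zer) at a point `v` of any set of full measure and along scales `hh l → 0`, for `v' = v + a h l`,
every box with `z ≤ w0 + v'`, `F_a ≤ f0 + κ v' + u h l` and all other slots `≤ o v'` (room `u h l`
in the slots `5, 8`) has own count `≥ (1-s)(1-v') - ε h l`. -/
theorem ext_own_casesG {B B' : Base} {I0 I : ℕ → Finset (ℕ × ℝ)}
    {co : ∀ n : ℕ, ℕ × ℝ → ℕ × ℝ → Fin 11 → ℝ} {M : Mons 11} {C : ℝ} {X : ℕ → Fin 11 → ℝ}
    {w : ℕ → ℝ} {R : ℝ} {Tn To : ℕ → ℝ} {w0 s : ℝ}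
    {PD : Set (Fin 11 → ℝ)} {D : (Fin 11 → ℝ) → ℝ} {r o : ℝ → Fin 11 → ℝ} {E : ℝ → ℝ}
    {T : Fin 11 → Prop} {ν own : (Fin 11 → ℝ) → ℝ} {c₀ : ℝ} {z3 f0 κ y₂ : ℝ}
    (h : ExtZ B B' I0 I co M C X w monQ R Tn To 0 w0 s PD D r o E T ν own c₀)
    (hw : 0 ≤ w0) (hf : 0 ≤ f0) (hκ : 0 < κ) (hy : 0 < y₂)
    (hz : f0 + κ + y₂ ≤ z3) (hR : w0 + 1 ≤ R) (hzR : z3 ≤ R)
    (ho : ∀ v : ℝ, 0 ≤ v → v ≤ 1 → w0 + v ≤ o v 0 ∧ z3 ≤ o v 3 ∧ f0 + κ * v ≤ o v 4 ∧
      ∀ k, k ≠ 0 → k ≠ 3 → k ≠ 4 → 0 ≤ o v k) :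
    (∀ᵐ v : ℝ, v ∈ Ioo (0 : ℝ) 1 → ∃ c : ℝ, 0 < c ∧ ∃ y₀ : ℝ, 0 < y₀ ∧ ∀ y : ℝ, 0 < y →
      y ≤ y₀ → ∀ p ∈ Leg monQ R, w0 + v ≤ p 0 → z3 ≤ p 3 → f0 + κ * v + y ≤ p 4 →
        own p ≤ (1 - s) * (1 - v) - c * y) ∨
    ∀ Q : ℝ → Prop, (∀ᵐ v : ℝ, v ∈ Ioo (0 : ℝ) 1 → Q v) →
      ∃ v ∈ Ioo (0 : ℝ) 1, Q v ∧ ∃ hh : ℕ → ℝ, (∀ l, 0 < hh l) ∧ Tendsto hh atTop (𝓝 0) ∧
        ∀ a u : ℝ, 0 ≤ u → ∀ ε : ℝ, 0 < ε → ∀ᶠ l in (atTop : Filter ℕ), ∀ p ∈ Leg monQ R,
          p 0 ≤ w0 + (v + a * hh l) → p 4 ≤ f0 + κ * (v + a * hh l) + u * hh l →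
          (∀ k, k ≠ 0 → k ≠ 4 → k ≠ 5 → k ≠ 8 → p k ≤ o (v + a * hh l) k) →
          p 5 + u * hh l ≤ o (v + a * hh l) 5 → p 8 + u * hh l ≤ o (v + a * hh l) 8 →
          p 5 + u * hh l ≤ R → p 8 + u * hh l ≤ R →
            (1 - s) * (1 - (v + a * hh l)) - ε * hh l ≤ own p := by
  rcases ext_own_casesL h (lPath11 (fun _ hp => hp) hw hf hκ hy hz hR hzR ho) with hv | hz'
  · left
    filter_upwards [hv] with v hv hvI
    obtain ⟨c, hc, y₀, hy₀, H⟩ := hv hvI
    refine ⟨c, hc, y₀, hy₀, fun y hy0 hy1 p hpL g0 g3 g4 => H y hy0 hy1 p hpL fun k => ?_⟩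
    have hn := hpL.1.nonneg
    fin_cases k
    · simpa [ol11, oe11] using g0
    · simpa [ol11, oe11] using hn 1
    · simpa [ol11, oe11] using hn 2
    · simpa [ol11, oe11] using g3
    · simpa [ol11, oe11, mul_comm] using g4
    · simpa [ol11, oe11] using hn 5
    · simpa [ol11, oe11] using hn 6
    · simpa [ol11, oe11] using hn 7
    · simpa [ol11, oe11] using hn 8
    · simpa [ol11, oe11] using hn 9
    · simpa [ol11, oe11] using hn 10
  · right
    intro Q hQ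
    obtain ⟨v, hvI, hQv, hh, hh0, hht, H⟩ := hz' Q hQ
    refine ⟨v, hvI, hQv, hh, hh0, hht, fun a u hu ε hε => ?_⟩
    have t1 : Tendsto (fun l => v + a * hh l) atTop (𝓝 v) := by
      have := (hht.const_mul a).const_add v
      rwa [mul_zero, add_zero] at this
    have t2 : Tendsto (fun l => u * hh l) atTop (𝓝 0) := by
      have := hht.const_mul u
      rwa [mul_zero] at this
    filter_upwards [H a u hu ε hε, t1.eventually (lt_mem_nhds hvI.1),
      t1.eventually (gt_mem_nhds hvI.2), t2.eventually (gt_mem_nhds hy)] with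
      l hl l1 l2 l3 p hpL g0 g4 gk g5 g8 g5R g8R
    set v' := v + a * hh l with hv'
    set y := u * hh l with hyd
    have hy0 : 0 ≤ y := mul_nonneg hu (hh0 l).le
    obtain ⟨o1, o2, o3, o4⟩ := ho v' l1.le l2.le
    obtain ⟨pn, p1, p2, p3, p4, p5, p6, p7, p8, p9, p10, p11⟩ := legalQ_iff.1 hpL.1
    have hκv : 0 ≤ κ * v' := mul_nonneg hκ.le l1.le
    have hκv1 : κ * v' ≤ κ := by nlinarith
    have n0 := pn 0; have n1 := pn 1; have n2 := pn 2; have n3 := pn 3; have n4 := pn 4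
    have n5 := pn 5; have n6 := pn 6; have n7 := pn 7; have n8 := pn 8; have n9 := pn 9
    have n10 := pn 10
    have hpR := hpL.2
    have hz3 : 0 ≤ z3 := by linarith
    -- the natural box
    set q : Fin 11 → ℝ := ![w0 + v', p 1, p 2, max (p 3) z3, f0 + κ * v', p 5 + y, p 6, p 7,
      p 8 + y, p 9, p 10] with hq
    have q0 : q 0 = w0 + v' := by simp [hq]
    have q4 : q 4 = f0 + κ * v' := by simp [hq]
    have m1 : p 3 ≤ max (p 3) z3 := le_max_left _ _
    have m2 : z3 ≤ max (p 3) z3 := le_max_right _ _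
    have m3 : max (p 3) z3 ≤ R := max_le (hpR 3) hzR
    have m4 : max (p 3) z3 ≤ o v' 3 :=
      max_le (gk 3 (by decide) (by decide) (by decide) (by decide)) o2
    have hqL : q ∈ Leg monQ R := by
      refine ⟨?_, fun k => ?_⟩
      · rw [legalQ_iff]
        refine ⟨fun k => ?_, ?_, ?_, ?_, ?_, ?_, ?_, ?_, ?_, ?_, ?_, ?_⟩
        · fin_cases k <;>
            simp only [hq, Matrix.cons_val, Fin.zero_eta, Fin.mk_one, Fin.reduceFinMk,
              Fin.isValue] <;>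
            linarith
        all_goals
          simp only [hq, Matrix.cons_val, Fin.isValue]
          linarith
      · have r0 := hpR 0; have r1 := hpR 1; have r2 := hpR 2; have r6 := hpR 6
        have r7 := hpR 7; have r9 := hpR 9; have r10 := hpR 10
        fin_cases k <;>
          simp only [hq, Matrix.cons_val, Fin.zero_eta, Fin.mk_one, Fin.reduceFinMk,
            Fin.isValue] <;>
          linarith
    have hqy : q + y • (Pi.single 4 1 : Fin 11 → ℝ) ∈ Leg monQ R := by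
      have e1 : q + y • (Pi.single 4 1 : Fin 11 → ℝ) = ![w0 + v', p 1, p 2, max (p 3) z3,
          f0 + κ * v' + y, p 5 + y, p 6, p 7, p 8 + y, p 9, p 10] := by
        funext k
        fin_cases k <;> simp [hq]
      rw [e1]
      refine ⟨?_, fun k => ?_⟩
      · rw [legalQ_iff]
        refine ⟨fun k => ?_, ?_, ?_, ?_, ?_, ?_, ?_, ?_, ?_, ?_, ?_, ?_⟩
        · fin_cases k <;>
            simp only [Matrix.cons_val, Fin.zero_eta, Fin.mk_one, Fin.reduceFinMk,
              Fin.isValue] <;>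
            linarith
        all_goals
          simp only [Matrix.cons_val, Fin.isValue]
          linarith
      · have r0 := hpR 0; have r1 := hpR 1; have r2 := hpR 2; have r6 := hpR 6
        have r7 := hpR 7; have r9 := hpR 9; have r10 := hpR 10
        fin_cases k <;>
          simp only [Matrix.cons_val, Fin.zero_eta, Fin.mk_one, Fin.reduceFinMk,
            Fin.isValue] <;>
          linarith
    refine hl q hqL q0 (fun k => ?_) (fun k => ?_) (by rw [q4]; simp [ol11, oe11, mul_comm])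
      hqy p hpL (fun k => ?_)
    · have b1 := gk 1 (by decide) (by decide) (by decide) (by decide)
      have b2 := gk 2 (by decide) (by decide) (by decide) (by decide)
      have b6 := gk 6 (by decide) (by decide) (by decide) (by decide)
      have b7 := gk 7 (by decide) (by decide) (by decide) (by decide)
      have b9 := gk 9 (by decide) (by decide) (by decide) (by decide)
      have b10 := gk 10 (by decide) (by decide) (by decide) (by decide)
      fin_cases k <;>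
        simp only [hq, Matrix.cons_val, Fin.zero_eta, Fin.mk_one, Fin.reduceFinMk,
          Fin.isValue] <;>
        assumption
    · fin_cases k <;>
        simp only [hq, ol11, oe11, Pi.add_apply, Pi.smul_apply, smul_eq_mul, Matrix.cons_val,
          Fin.zero_eta, Fin.mk_one, Fin.reduceFinMk, Fin.isValue] <;>
        linarith
    · fin_cases k <;>
        simp [hq] <;> linarith

end chart11

end Crest.Agent.R136.Own831
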