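import Crest.Agent.R136.TopB_550
import Crest.Agent.R136.NatR_550
import Crest.Agent.R136.Gz2_779
import Crest.Agent.R136.OwC_779
import Crest.Agent.R136.Own4_831

/-!
# R136, lightlike case of the thick table (helper196): wiring

Chain (66's v3, message 17650):

`Thick ∧ pL`  --[774, 501, 626, 323, 66]-->  `GWin` : record window (`RecW`), honest class of the base
`(0, -T1)`, dense part with one gauge  --[779]-->  `GZ` : `ExtZ` of the gauge chart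
--[831, own dichotomy]-->  `Vis` or `Zer`  -->  `False`.

* `LCtx` : the data of `NatT550.Thick`; `LCtx.Ok` : `Thick` and the pattern `pL`.
* `RecW` : window at the record point `ξ n`, unit `w n`, profiles `lam` (all incidences), `lo` (lines).
* `GWin`, `GZ`, `Vis`, `Zer`.
* **`dead_L`** : `Dead η pL` from the named seams `SeamWin`, `SeamExt`, `SeamVis`, `SeamEnd`.

Slots: `0 z, 1 R, 2 E, 3 F_b, 4 F_a, 5 C_a, 6 C_b, 7 P, 8 X_a, 9 X_b, 10 N`.  Surface of L: `t2 = 2 t`,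
`t3 = v + 2 t`; record `t = - θ1 v`.
-/

set_option autoImplicit false
set_option linter.unusedVariables false

open Finset Filter Topology MeasureTheory

namespace Crest.Agent.R136.TL196

open Crest.Agent.R138.Ex926
open Crest.Agent.R136.Net191
open Crest.Agent.R136.NetQ186
open Crest.Agent.R136.GeoQ186
open Crest.Agent.R136.Wq638
open Crest.Agent.R136.Lq196
open Crest.Agent.R136.Top484
open Crest.Agent.R136.NatT550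
open Crest.Agent.R136.NatR550
open Crest.Agent.R136.TopB550
open Crest.Agent.R136.Qg926
open Crest.Agent.R136.Zpr779
open Crest.Agent.R136.Gz779
open Crest.Agent.R136.Own831

/-- the data of the thick branch after L15 -/
structure LCtx where
  p : Par4
  D : Dat4
  I1 : ℕ → Finset (ℕ × ℝ)
  π : Equiv.Perm (Fin 3)
  eE : ℕ → ℕ × ℝ → ℝ
  fA : ℕ → ℕ × ℝ → ℝ
  fB : ℕ → ℕ × ℝ → ℝ
  V : Fin 11 → Prop
  T : Fin 11 → Prop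
  w0 : ℝ
  R : ℝ
  T0 : ℝ
  PD : Set (Fin 11 → ℝ)
  ν : (Fin 11 → ℝ) → ℝ
  own : (Fin 11 → ℝ) → ℝ
  c₀ : ℝ

/-- the lightlike case -/
structure LCtx.Ok (c : LCtx) (η : ℝ) : Prop where
  th : Thick η c.p c.D c.I1 c.π c.eE c.fA c.fB c.V c.T c.w0 c.R c.T0 c.PD c.ν c.own c.c₀
  pat : pL c.p c.V

namespace LCtx

/-- the incidences in the units of the chart (straight: `y2 = 0`) -/
noncomputable def F (c : LCtx) (n : ℕ) (x : ℕ × ℝ) : Fq4 :=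
  scl (uH c.D.B c.D.lev c.w0 n) (uA c.D.B c.D.lev c.D.w c.w0 n) (uB c.D.B c.D.lev c.D.w c.w0 n)
    (uY c.D.B c.D.lev c.D.w c.w0 n) (incQ c.π c.D.L c.eE c.fA c.fB n x)

theorem co_eq (c : LCtx) :
    couQ c.D.B c.D.lev c.D.w c.w0 (incQ c.π c.D.L c.eE c.fA c.fB) = coF c.F := rfl

/-- the record point of level `ξ`, slot `1` at `R - 1` -/
noncomputable def X (c : LCtx) (ξ : ℝ) : Fin 11 → ℝ :=
  nat4 c.w0 (c.R - 1) ξ (-(c.p.θ 1 * ξ)) (-(c.p.θ 2 * ξ)) (-(c.p.θ 0 * ξ))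

/-- record direction -/
noncomputable def ρ (c : LCtx) : Fin 11 → ℝ := nL 1 (-c.p.θ 1) (-c.p.θ 2) (-c.p.θ 0)

end LCtx

/-- linear part of D-max (`s = 0`) -/
def DL (p : Par4) (c : Fin 11 → ℝ) : ℝ :=
  p.g * c 0 - c 0 - (c 10 + c 9 + c 8) - p.q 0 * (c 10 - c 0) - p.q 1 * (c 8 - c 0) -
    p.q 2 * (c 9 - c 0)

/-- **record window** : base points on the record line -/
structure RecW (c : LCtx) (B' : Base) (J : ℕ → Finset (ℕ × ℝ)) (ξ w : ℕ → ℝ)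
    (lam lo : (Fin 11 → ℝ) → ℝ) : Prop where
  Jsub : ∀ᶠ n in (U : Filter ℕ), J n ⊆ c.I1 n
  ξlim : ∃ ξ₀ : ℝ, 0 < ξ₀ ∧ ξ₀ < 1 ∧ Tendsto ξ U (𝓝 ξ₀)
  wlim : Tendsto w U (𝓝 0)
  win : ZWin c.D.B B' c.D.I J (coF c.F) monQ 2 (fun n => c.X (ξ n)) w coneN
    (fun n => c.D.B.d n ^ (-(c.ν (c.X (ξ n))))) lam
  oprof : ZProf B' J (zolb c.D.B c.D.I (coF c.F) monQ 2 (fun n => c.X (ξ n)) w) coneN
    (fun n => c.D.B.d n ^ (-(c.own (c.X (ξ n))))) lo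
  olip : ∀ a ∈ coneN, ∀ b ∈ coneN, |lo a - lo b| ≤ (11 : ℕ) * ‖a - b‖
  oanti : ∀ a ∈ coneN, ∀ b ∈ coneN, a ≤ b → lo b ≤ lo a
  own_le : ∀ a ∈ coneN, ∀ b ∈ coneN, a ≤ b → lo a - lo b ≤ lam a - lam b
  /-- record equality -/
  recd : ∀ s : ℝ, lam (s • c.ρ) = s * DL c.p c.ρ
  /-- D-max (for `θ1 = 1` the record has the thickness of the resolution) -/
  dmax : ∀ a ∈ coneN, (c.p.θ 1 = 1 → a 10 ≤ 0) → lam a ≤ DL c.p a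
  /-- own counts: full on every box whose slots `F_b`, `F_a` are at most natural -/
  lo_up : ∀ a ∈ coneN, lo a ≤ -(a 0)
  lo_full : ∀ a ∈ coneN, a 3 ≤ a 0 → a 4 ≤ (1 - c.p.θ 1) * a 0 → lo a = -(a 0)

/-- class base: level `0`, wide angular exponent `-T1` -/
def bT (T1 : ℝ) : Fin 11 → ℝ := nL 0 (-T1) (-2 * T1) (-2 * T1)

/-- base exponents of the class -/
noncomputable def LCtx.XB (c : LCtx) (T1 : ℝ) (ξ w : ℕ → ℝ) (n : ℕ) : Fin 11 → ℝ :=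
  c.X (ξ n) + w n • bT T1

/-- normalisation of the class -/
noncomputable def LCtx.TB (c : LCtx) (T1 : ℝ) (B' : Base) (ξ : ℕ → ℝ)
    (lam : (Fin 11 → ℝ) → ℝ) (n : ℕ) : ℝ :=
  c.D.B.d n ^ (-(c.ν (c.X (ξ n)))) * B'.d n ^ (-lam (bT T1))

/-- normalisation of the own counts of the class -/
noncomputable def LCtx.ToB (c : LCtx) (T1 : ℝ) (B' : Base) (ξ : ℕ → ℝ)
    (lo : (Fin 11 → ℝ) → ℝ) (n : ℕ) : ℝ :=
  c.D.B.d n ^ (-(c.own (c.X (ξ n)))) * B'.d n ^ (-lo (bT T1))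

/-- **output of the gauge stage**: honest class `Cl` of the base `(0, -T1)` of a record window, dense
part `E`, one gauge `h n` (zero allowed) with precision `x` -/
structure GWin (c : LCtx) (T1 x : ℝ) (B' : Base) (J : ℕ → Finset (ℕ × ℝ)) (ξ w : ℕ → ℝ)
    (lam lo : (Fin 11 → ℝ) → ℝ) (Cl E : ℕ → Finset (ℕ × ℝ)) (s₀ : ℕ → ℕ × ℝ)
    (h : ℕ → Fin 6 → ℝ) (ηg : ℕ → ℝ) : Prop where
  rw : RecW c B' J ξ w lam lo
  cls : ZCls c.D.B B' c.D.I J (coF c.F) monQ 2 (c.XB T1 ξ w) w {a | bT T1 + a ∈ coneN}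
    (c.TB T1 B' ξ lam) (fun a => lam (bT T1 + a) - lam (bT T1)) Cl s₀
  esub : ∀ᶠ n in (U : Filter ℕ), E n ⊆ Cl n
  edens : ∀ ε : ℝ, 0 < ε → ∀ᶠ n in (U : Filter ℕ),
    ((Cl n).card : ℝ) ≤ B'.d n ^ (-ε) * (E n).card
  /-- output of `ZWin.exists_cls_own` -/
  own : ∀ P ⊆ {a | bT T1 + a ∈ coneN}, ∀ R : ℝ, (∀ p ∈ P, ‖p‖ ≤ R) → (∀ p ∈ P, 0 ≤ p) →
    TProf B' E (zolb c.D.B c.D.I (coF c.F) monQ 2 (c.XB T1 ξ w) w) P (c.ToB T1 B' ξ lo)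
      (fun a => lo (bT T1 + a) - lo (bT T1))
  gau : GauIn c.D.B B' E c.F h (c.XB T1 ξ w) ηg x x

/-- record box of level `v` in the class frame, slots `R`, `F_b` of size `x` -/
def rz (θ T1 x v : ℝ) : Fin 11 → ℝ :=
  ![v, x, T1 - θ * v, x, T1 + (1 - θ) * v, T1 - θ * v, 2 * (T1 - θ * v), 2 * T1 + (1 - 2 * θ) * v,
    T1 + (1 - θ) * v, 2 * T1 + (1 - 2 * θ) * v, 2 * T1 + 2 * (1 - θ) * v]

/-- own box of level `v` in the class frame: only `z` and `F_a` move -/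
def oz (θ T1 x R' v : ℝ) : Fin 11 → ℝ :=
  ![v, x, R', x, T1 + (1 - θ) * v, R', R', R', R', R', R']

/-- boxes on which D-max is known in the class frame -/
def PDz (θ T1 R' : ℝ) : Set (Fin 11 → ℝ) := {a | a ∈ Leg monQ R' ∧ (θ = 1 → a 10 ≤ 2 * T1)}

/-- **the gauge object** -/
structure GZ (c : LCtx) (T1 x R' : ℝ) (B' : Base) (J : ℕ → Finset (ℕ × ℝ)) (ξ w : ℕ → ℝ)
    (lam lo : (Fin 11 → ℝ) → ℝ) (Cl E : ℕ → Finset (ℕ × ℝ)) (s₀ : ℕ → ℕ × ℝ)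
    (h : ℕ → Fin 6 → ℝ) (ηg : ℕ → ℝ) (J' : ℕ → Finset (ℕ × ℝ)) (To : ℕ → ℝ)
    (ν' own' : (Fin 11 → ℝ) → ℝ) : Prop where
  gw : GWin c T1 x B' J ξ w lam lo Cl E s₀ h ηg
  sub : ∀ᶠ n in (U : Filter ℕ), J' n ⊆ E n ∧ (J' n).Nonempty
  dens : ∀ ε : ℝ, 0 < ε → ∀ᶠ n in (U : Filter ℕ),
    ((E n).card : ℝ) ≤ B'.d n ^ (-ε) * (J' n).card
  ext : ExtZ c.D.B B' E J' (coG c.F h) monQ 2 (XG (c.XB T1 ξ w)) w monQ R' (c.TB T1 B' ξ lam) To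
    0 0 0 (PDz (c.p.θ 1) T1 R') (DL c.p) (rz (c.p.θ 1) T1 x) (oz (c.p.θ 1) T1 x R')
    (fun v => DL c.p (rz (c.p.θ 1) T1 x v)) (fun _ => False) ν' own'
    (DL c.p (bT T1) - lam (bT T1))
  /-- the slots `R`, `F_b` are zero slots -/
  zero : ∀ a ∈ Leg monQ R', ∀ b ∈ Leg monQ R', a ≤ b → (∀ k, k ≠ 1 → k ≠ 3 → a k = b k) →
    b 1 ≤ x → b 3 ≤ x → ν' a = ν' b ∧ own' a = own' b

/-- the fixed sizes -/
noncomputable def T1z (θ : ℝ) : ℝ := max 1 θ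
/-- precision of the gauge -/
noncomputable def xz (θ : ℝ) : ℝ := 2 * T1z θ + 3
/-- box size of the class frame -/
noncomputable def Rz (θ : ℝ) : ℝ := 4 * xz θ

/-- **(Vis)** : `F_a` costs, at almost every level (output of 831) -/
def Vis (θ T1 x R' : ℝ) (own' : (Fin 11 → ℝ) → ℝ) : Prop :=
  ∀ᵐ v : ℝ, v ∈ Set.Ioo (0 : ℝ) 1 → ∃ k : ℝ, 0 < k ∧ ∃ y₀ : ℝ, 0 < y₀ ∧ ∀ y : ℝ, 0 < y →
    y ≤ y₀ → ∀ a ∈ Leg monQ R', v ≤ a 0 → x ≤ a 3 → T1 + (1 - θ) * v + y ≤ a 4 →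
      own' a ≤ (1 - v) - k * y

/-- **(Zer)** : `F_a` is invisible along a sequence of scales at a level `v` of full measure -/
def Zer (θ T1 x R' : ℝ) (own' : (Fin 11 → ℝ) → ℝ) : Prop :=
  ∀ Q : ℝ → Prop, (∀ᵐ v : ℝ, v ∈ Set.Ioo (0 : ℝ) 1 → Q v) →
    ∃ v ∈ Set.Ioo (0 : ℝ) 1, Q v ∧ ∃ hh : ℕ → ℝ, (∀ l, 0 < hh l) ∧ Tendsto hh atTop (𝓝 0) ∧
      ∀ a u : ℝ, 0 ≤ u → ∀ ε : ℝ, 0 < ε → ∀ᶠ l in (atTop : Filter ℕ), ∀ p ∈ Leg monQ R',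
        p 0 ≤ v + a * hh l → p 4 ≤ T1 + (1 - θ) * (v + a * hh l) + u * hh l →
        (∀ k, k ≠ 0 → k ≠ 4 → k ≠ 5 → k ≠ 8 → p k ≤ oz θ T1 x R' (v + a * hh l) k) →
        p 5 + u * hh l ≤ R' → p 8 + u * hh l ≤ R' →
          (1 - (v + a * hh l)) - ε * hh l ≤ own' p

/-- seam: Thick + pL ⊢ class of a record window with a gauge (66, 560, 480, 626, 501); `H` = any
list of sub-polynomial losses, they are also sub-polynomial for the base of the window -/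
def SeamWin (η : ℝ) : Prop := ∀ c : LCtx, c.Ok η → ∀ H : ℕ → ℕ → ℝ, (∀ i, c.D.B.Sub (H i)) →
  ∃ (B' : Base) (J : ℕ → Finset (ℕ × ℝ)) (ξ w : ℕ → ℝ) (lam lo : (Fin 11 → ℝ) → ℝ)
    (Cl E : ℕ → Finset (ℕ × ℝ)) (s₀ : ℕ → ℕ × ℝ) (h : ℕ → Fin 6 → ℝ) (ηg : ℕ → ℝ),
    GWin c (T1z (c.p.θ 1)) (xz (c.p.θ 1)) B' J ξ w lam lo Cl E s₀ h ηg ∧ ∀ i, B'.Sub (H i)

/-- seam: the gauge object (779), `H` = loss of D-max -/
def SeamExtZ (η : ℝ) : Prop := ∀ c : LCtx, c.Ok η → ∃ H : ℕ → ℝ, c.D.B.Sub H ∧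
  ∀ (B' : Base) (J : ℕ → Finset (ℕ × ℝ)) (ξ w : ℕ → ℝ) (lam lo : (Fin 11 → ℝ) → ℝ)
    (Cl E : ℕ → Finset (ℕ × ℝ)) (s₀ : ℕ → ℕ × ℝ) (h : ℕ → Fin 6 → ℝ) (ηg : ℕ → ℝ),
    GWin c (T1z (c.p.θ 1)) (xz (c.p.θ 1)) B' J ξ w lam lo Cl E s₀ h ηg → B'.Sub H →
    ∃ (J' : ℕ → Finset (ℕ × ℝ)) (To : ℕ → ℝ) (ν' own' : (Fin 11 → ℝ) → ℝ),
      GZ c (T1z (c.p.θ 1)) (xz (c.p.θ 1)) (Rz (c.p.θ 1)) B' J ξ w lam lo Cl E s₀ h ηg J' To ν' own'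

/-- seam: the ending (Vis), `κ_F = 1 - θ1 > 0` (831, 413, 865) -/
def SeamVis (η : ℝ) : Prop := ∀ c : LCtx, c.Ok η →
  ∃ H : ℕ → ℕ → ℝ, (∀ i, c.D.B.Sub (H i)) ∧
  ∀ (B' : Base) (J : ℕ → Finset (ℕ × ℝ)) (ξ w : ℕ → ℝ) (lam lo : (Fin 11 → ℝ) → ℝ)
    (Cl E : ℕ → Finset (ℕ × ℝ)) (s₀ : ℕ → ℕ × ℝ) (h : ℕ → Fin 6 → ℝ) (ηg : ℕ → ℝ)
    (J' : ℕ → Finset (ℕ × ℝ)) (To : ℕ → ℝ) (ν' own' : (Fin 11 → ℝ) → ℝ),
    GZ c (T1z (c.p.θ 1)) (xz (c.p.θ 1)) (Rz (c.p.θ 1)) B' J ξ w lam lo Cl E s₀ h ηg J' To ν'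
      own' → (∀ i, B'.Sub (H i)) → c.p.θ 1 < 1 →
      Vis (c.p.θ 1) (T1z (c.p.θ 1)) (xz (c.p.θ 1)) (Rz (c.p.θ 1)) own' → False

/-- seam: END, `F_a` constant along the lines (882, 829) -/
def SeamEnd (η : ℝ) : Prop := ∀ c : LCtx, c.Ok η →
  ∃ H : ℕ → ℕ → ℝ, (∀ i, c.D.B.Sub (H i)) ∧
  ∀ (B' : Base) (J : ℕ → Finset (ℕ × ℝ)) (ξ w : ℕ → ℝ) (lam lo : (Fin 11 → ℝ) → ℝ)
    (Cl E : ℕ → Finset (ℕ × ℝ)) (s₀ : ℕ → ℕ × ℝ) (h : ℕ → Fin 6 → ℝ) (ηg : ℕ → ℝ)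
    (J' : ℕ → Finset (ℕ × ℝ)) (To : ℕ → ℝ) (ν' own' : (Fin 11 → ℝ) → ℝ),
    GZ c (T1z (c.p.θ 1)) (xz (c.p.θ 1)) (Rz (c.p.θ 1)) B' J ξ w lam lo Cl E s₀ h ηg J' To ν'
      own' → (∀ i, B'.Sub (H i)) → (1 ≤ c.p.θ 1 ∨
        Zer (c.p.θ 1) (T1z (c.p.θ 1)) (xz (c.p.θ 1)) (Rz (c.p.θ 1)) own') → False

theorem one_le_T1z (θ : ℝ) : 1 ≤ T1z θ := le_max_left _ _
theorem le_T1z (θ : ℝ) : θ ≤ T1z θ := le_max_right _ _

/-- own dichotomy on the gauge object (831's `ext_own_casesG`) -/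
theorem GZ.cases {c : LCtx} {B' : Base} {J : ℕ → Finset (ℕ × ℝ)} {ξ w : ℕ → ℝ}
    {lam lo : (Fin 11 → ℝ) → ℝ} {Cl E : ℕ → Finset (ℕ × ℝ)} {s₀ : ℕ → ℕ × ℝ}
    {h : ℕ → Fin 6 → ℝ} {ηg : ℕ → ℝ} {J' : ℕ → Finset (ℕ × ℝ)} {To : ℕ → ℝ}
    {ν' own' : (Fin 11 → ℝ) → ℝ}
    (H : GZ c (T1z (c.p.θ 1)) (xz (c.p.θ 1)) (Rz (c.p.θ 1)) B' J ξ w lam lo Cl E s₀ h ηg J' To ν'
      own') (hθ0 : 0 < c.p.θ 1) (hθ : c.p.θ 1 < 1) :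
    Vis (c.p.θ 1) (T1z (c.p.θ 1)) (xz (c.p.θ 1)) (Rz (c.p.θ 1)) own' ∨
      Zer (c.p.θ 1) (T1z (c.p.θ 1)) (xz (c.p.θ 1)) (Rz (c.p.θ 1)) own' := by
  have h1 := one_le_T1z (c.p.θ 1)
  have hx : xz (c.p.θ 1) = 2 * T1z (c.p.θ 1) + 3 := rfl
  have hR : Rz (c.p.θ 1) = 4 * xz (c.p.θ 1) := rfl
  set θ := c.p.θ 1 with hθd
  set T1 := T1z θ with hT1
  set x := xz θ with hxd
  set R' := Rz θ with hRd
  have h3 := ext_own_casesG (z3 := x) (f0 := T1) (κ := 1 - θ) (y₂ := 1) H.ext le_rfl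
    (by linarith) (by linarith) one_pos (by linarith) (by linarith) (by linarith) (by
      intro v hv0 hv1
      refine ⟨?_, ?_, ?_, ?_⟩
      · simp [oz]
      · simp [oz]
      · simp [oz, ← hθd]
      · intro k hk0 hk3 hk4
        fin_cases k <;> first | exact absurd rfl hk0 | exact absurd rfl hk3 |
          exact absurd rfl hk4 | (simp [oz]; linarith))
  rcases h3 with h3 | h3
  · left
    unfold Vis
    filter_upwards [h3] with v hv hvI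
    obtain ⟨k, hk, y₀, hy₀, H1⟩ := hv hvI
    refine ⟨k, hk, y₀, hy₀, fun y hy hyy a ha a0 a3 a4 => ?_⟩
    have := H1 y hy hyy a ha (by linarith) a3 a4
    simpa using this
  · right
    intro Q hQ
    obtain ⟨v, hvI, hQv, hh, hh0, hht, H1⟩ := h3 Q hQ
    refine ⟨v, hvI, hQv, hh, hh0, hht, fun a u hu ε hε => ?_⟩
    filter_upwards [H1 a u hu ε hε] with l hl p hp p0 p4 pk p5 p8
    have := hl p hp (by linarith) p4 pk (by simpa [oz] using p5) (by simpa [oz] using p8) p5 p8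
    simpa using this

/-- the three lists of losses in one list -/
def lst (H2 : ℕ → ℝ) (H3 H4 : ℕ → ℕ → ℝ) : ℕ → ℕ → ℝ
  | 0 => H2
  | (i + 1) => if i % 2 = 0 then H3 (i / 2) else H4 (i / 2)

/-- **T.L** from the seams -/
theorem dead_L {η : ℝ} (h1 : SeamWin η) (h2 : SeamExtZ η) (h3 : SeamVis η) (h4 : SeamEnd η) :
    Dead η pL := by
  intro p D I1 π eE fA fB V T w0 R T0 PD ν own c₀ hT hp
  set c : LCtx := ⟨p, D, I1, π, eE, fA, fB, V, T, w0, R, T0, PD, ν, own, c₀⟩ with hc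
  have ok : c.Ok η := ⟨hT, hp⟩
  obtain ⟨H2, k2, g2'⟩ := h2 c ok
  obtain ⟨H3, k3, g3'⟩ := h3 c ok
  obtain ⟨H4, k4, g4'⟩ := h4 c ok
  obtain ⟨B', J, ξ, w, lam, lo, Cl, E, s₀, h, ηg, g1, hB⟩ := h1 c ok (lst H2 H3 H4) (by
    intro i
    cases i with
    | zero => exact k2
    | succ i =>
      unfold lst
      simp only
      split_ifs
      · exact k3 _
      · exact k4 _)
  have b3 : ∀ i, B'.Sub (H3 i) := fun i => by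
    have := hB (2 * i + 1)
    simpa [lst, Nat.mul_mod_right, Nat.mul_div_cancel_left] using this
  have b4 : ∀ i, B'.Sub (H4 i) := fun i => by
    have := hB (2 * i + 1 + 1)
    have e1 : (2 * i + 1) % 2 = 1 := by omega
    have e2 : (2 * i + 1) / 2 = i := by omega
    simpa [lst, e1, e2] using this
  obtain ⟨J', To, ν', own', g2⟩ := g2' B' J ξ w lam lo Cl E s₀ h ηg g1 (hB 0)
  by_cases hθ : c.p.θ 1 < 1
  · rcases g2.cases ok.th.tp.ok.θ1 hθ with g3 | g3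
    · exact g3' B' J ξ w lam lo Cl E s₀ h ηg J' To ν' own' g2 b3 hθ g3
    · exact g4' B' J ξ w lam lo Cl E s₀ h ηg J' To ν' own' g2 b4 (Or.inr g3)
  · exact g4' B' J ξ w lam lo Cl E s₀ h ηg J' To ν' own' g2 b4 (Or.inl (not_lt.1 hθ))

end Crest.Agent.R136.TL196
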