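import Crest.Agent.R136.DMX3_779
import Crest.Agent.R136.TL0_196
import Crest.Agent.R136.GD5_186

/-!
# R136: D-max for the boxes of the gauge chart at window precision (helper779), part 1

Gaps of the sizes at a record window; units.
-/

set_option autoImplicit false
set_option linter.unusedVariables false
set_option linter.unusedSectionVars false

open Finset Filter Topology

namespace Crest.Agent.R136.Dmx779

open Crest.Agent.R138.Ex926 (Base U)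
open Crest.Agent.R138.Mk163 (zc zl rho alive)
open Crest.Agent.R138
open Crest.Agent.R136.MkA627
open Crest.Agent.R136.Sh605
open Crest.Agent.R136.K4
open Crest.Agent.R136.Top484
open Crest.Agent.R136.GeoQ186
open Crest.Agent.R136.Net191
open Crest.Agent.R136.NetQ186
open Crest.Agent.R136.Wq638
open Crest.Agent.R136.Lq196
open Crest.Agent.R136.NatT550
open Crest.Agent.R136.NatR550
open Crest.Agent.R136.TopB550
open Crest.Agent.R136.TL196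
open Crest.Agent.R136.Gz779

/-- exponents with a positive limit -/
theorem ev_gap (B : Base) {f : ℕ → ℝ} {f₀ : ℝ} (hf : Tendsto f U (𝓝 f₀)) (h0 : 0 < f₀) (C : ℝ) :
    ∀ᶠ n in (U : Filter ℕ), C * B.d n ^ f n ≤ 1 := by
  have hC : 0 < max C 1 := lt_max_of_lt_right one_pos
  filter_upwards [hf.eventually (lt_mem_nhds (half_lt_self h0)),
    PqG464.ev_const B hC (half_pos h0)] with n h1 h2
  calc C * B.d n ^ f n ≤ max C 1 * B.d n ^ f n :=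
        mul_le_mul_of_nonneg_right (le_max_left _ _) (Dp76.dpow_pos B n _).le
    _ ≤ max C 1 * B.d n ^ (f₀ / 2) :=
        mul_le_mul_of_nonneg_left (Dp76.dpow_le B n h1.le) hC.le
    _ ≤ 1 := h2

/-! ### units -/

section units

variable {B : Base} {lev : ℕ → ℚ → ℕ} {w : Fin 3 → ℕ → ℚ → ℝ} {w0 : ℝ} {n : ℕ}

theorem two_rho (i : ℕ) : (2 : ℝ) ^ i * rho i = 1 := by
  unfold rho; field_simp

theorem uH_pos : 0 < uH B lev w0 n := mul_pos (Dp76.dpow_pos B n _) (by positivity)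

theorem unit_z (e : ℝ) : B.d n ^ e / uH B lev w0 n = rho (lev n 0) * B.d n ^ (e - w0) := by
  have h1 := two_rho (lev n 0)
  have h2 := Dp76.dpow_pos B n w0
  rw [div_eq_iff uH_pos.ne']
  unfold uH
  calc B.d n ^ e = (2 ^ lev n 0 * rho (lev n 0)) * B.d n ^ (e - w0 + w0) := by
        rw [h1, one_mul, sub_add_cancel]
    _ = _ := by rw [Dp76.dpow_add]; ring

theorem unit_a (e : ℝ) : uA B lev w w0 n / uH B lev w0 n * B.d n ^ e =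
    w 1 n 0 * B.d n ^ (e - 2 * w0) := by
  have h1 := two_rho (lev n 0)
  have hρ : 0 < rho (lev n 0) := rho_pos _
  have h2 := unit_z (B := B) (lev := lev) (w0 := w0) (n := n) e
  calc uA B lev w w0 n / uH B lev w0 n * B.d n ^ e =
        uA B lev w w0 n * (B.d n ^ e / uH B lev w0 n) := by ring
    _ = w 1 n 0 * (B.d n ^ (-w0) * B.d n ^ (e - w0)) := by
        rw [h2]; unfold uA; field_simp
    _ = _ := by rw [← Dp76.dpow_add]; congr 2; ring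

theorem unit_b (e : ℝ) : uB B lev w w0 n / uH B lev w0 n * B.d n ^ e =
    w 2 n 0 * B.d n ^ (e - 3 * w0) := by
  have hρ : 0 < rho (lev n 0) := rho_pos _
  have h2 := unit_z (B := B) (lev := lev) (w0 := w0) (n := n) e
  calc uB B lev w w0 n / uH B lev w0 n * B.d n ^ e =
        uB B lev w w0 n * (B.d n ^ e / uH B lev w0 n) := by ring
    _ = w 2 n 0 * (B.d n ^ (-(2 * w0)) * B.d n ^ (e - w0)) := by
        rw [h2]; unfold uB; field_simp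
    _ = _ := by rw [← Dp76.dpow_add]; congr 2; ring

theorem unit_y (e : ℝ) : uY B lev w w0 n / uH B lev w0 n * B.d n ^ e =
    w 0 n 0 * B.d n ^ (e - 4 * w0) := by
  have hρ : 0 < rho (lev n 0) := rho_pos _
  have h2 := unit_z (B := B) (lev := lev) (w0 := w0) (n := n) e
  calc uY B lev w w0 n / uH B lev w0 n * B.d n ^ e =
        uY B lev w w0 n * (B.d n ^ e / uH B lev w0 n) := by ring
    _ = w 0 n 0 * (B.d n ^ (-(3 * w0)) * B.d n ^ (e - w0)) := by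
        rw [h2]; unfold uY; field_simp
    _ = _ := by rw [← Dp76.dpow_add]; congr 2; ring

end units

/-! ### exponents of the base -/

section base

variable {c : LCtx} {T1 : ℝ} {ξ w : ℕ → ℝ} {n : ℕ}

theorem XB_0 : c.XB T1 ξ w n 0 = c.w0 + ξ n := by
  simp [LCtx.XB, LCtx.X, nat4, bT, nL]
theorem XB_1 : c.XB T1 ξ w n 1 = c.R - 1 := by
  simp [LCtx.XB, LCtx.X, nat4, bT, nL]
theorem XB_2 : c.XB T1 ξ w n 2 = c.w0 + (c.p.θ 1 - c.p.θ 2) * ξ n - w n * T1 := by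
  simp [LCtx.XB, LCtx.X, nat4, bT, nL]; ring
theorem XB_3 : c.XB T1 ξ w n 3 = c.w0 + (c.p.θ 2 - c.p.θ 0) * ξ n := by
  simp [LCtx.XB, LCtx.X, nat4, bT, nL]; ring
theorem XB_4 : c.XB T1 ξ w n 4 = 2 * c.w0 + (c.p.θ 1 - c.p.θ 0) * ξ n - w n * T1 := by
  simp [LCtx.XB, LCtx.X, nat4, bT, nL]; ring
theorem XB_5 : c.XB T1 ξ w n 5 = c.w0 - c.p.θ 1 * ξ n - w n * T1 := by
  simp [LCtx.XB, LCtx.X, nat4, bT, nL]; ring
theorem XB_6 : c.XB T1 ξ w n 6 = 2 * c.w0 - c.p.θ 2 * ξ n - 2 * (w n * T1) := by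
  simp [LCtx.XB, LCtx.X, nat4, bT, nL]; ring
theorem XB_7 : c.XB T1 ξ w n 7 = 3 * c.w0 - c.p.θ 0 * ξ n - 2 * (w n * T1) := by
  simp [LCtx.XB, LCtx.X, nat4, bT, nL]; ring
theorem XB_8 : c.XB T1 ξ w n 8 = 2 * c.w0 + (1 - c.p.θ 1) * ξ n - w n * T1 := by
  simp [LCtx.XB, LCtx.X, nat4, bT, nL]; ring
theorem XB_9 : c.XB T1 ξ w n 9 = 3 * c.w0 + (1 - c.p.θ 2) * ξ n - 2 * (w n * T1) := by
  simp [LCtx.XB, LCtx.X, nat4, bT, nL]; ring
theorem XB_10 : c.XB T1 ξ w n 10 = 4 * c.w0 + (1 - c.p.θ 0) * ξ n - 2 * (w n * T1) := by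
  simp [LCtx.XB, LCtx.X, nat4, bT, nL]; ring

end base

/-! ### tightness -/

section tight

variable {η : ℝ} {c : LCtx}

theorem tight_XB (ok : c.Ok η) {T1 : ℝ} {ξ w : ℕ → ℝ} {ξ₀ : ℝ} (h0 : 0 < ξ₀) (h1 : ξ₀ < 1)
    (hξ : Tendsto ξ U (𝓝 ξ₀)) (hw : Tendsto w U (𝓝 0)) :
    ∀ᶠ n in (U : Filter ℕ), TightQ (c.XB T1 ξ w n) := by
  have hb := ok.th.tp.big
  have hT := hb.T0
  have hwT := hb.w0T
  have hR0 := hb.R0
  have hθ := hb.th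
  have hwT1 : Tendsto (fun n => w n * T1) U (𝓝 0) := by simpa using hw.mul_const T1
  filter_upwards [hξ.eventually (lt_mem_nhds h0), hξ.eventually (gt_mem_nhds h1),
    hwT1.eventually (Metric.ball_mem_nhds 0 (show (0 : ℝ) < 1 / 2 by norm_num))] with n a1 a2 a3
  rw [Real.dist_eq, sub_zero, abs_lt] at a3
  obtain ⟨a3, a4⟩ := a3
  have t0 := abs_le.1 (hθ 0)
  have t1 := abs_le.1 (hθ 1)
  have t2 := abs_le.1 (hθ 2)
  set θ0 := c.p.θ 0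
  set θ1 := c.p.θ 1
  set θ2 := c.p.θ 2
  -- products
  have key : ∀ a : ℝ, -(2 * c.T0) - 1 ≤ a → -(2 * c.T0) - 1 ≤ a * ξ n := by
    intro a ha
    have h2 : 0 ≤ 2 * c.T0 + 1 := by linarith
    nlinarith
  have key1 : ∀ a : ℝ, -(c.T0) ≤ a → a ≤ c.T0 → -(c.T0) ≤ a * ξ n ∧ a * ξ n ≤ c.T0 := by
    intro a ha ha'
    constructor <;> nlinarith
  have key2 : ∀ a : ℝ, -(2 * c.T0) ≤ a → -(2 * c.T0) ≤ a * ξ n := by
    intro a ha
    nlinarith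
  have k0 := key1 θ0 t0.1 t0.2
  have k1 := key1 θ1 t1.1 t1.2
  have k2 := key1 θ2 t2.1 t2.2
  constructor
  · intro k
    fin_cases k
    · show 0 ≤ c.XB T1 ξ w n 0
      rw [XB_0]; linarith
    · show 0 ≤ c.XB T1 ξ w n 1
      rw [XB_1]; linarith
    · show 0 ≤ c.XB T1 ξ w n 2
      rw [XB_2]; linarith
    · show 0 ≤ c.XB T1 ξ w n 3
      rw [XB_3]; linarith
    · show 0 ≤ c.XB T1 ξ w n 4
      rw [XB_4]; linarith
    · show 0 ≤ c.XB T1 ξ w n 5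
      rw [XB_5]; linarith
    · show 0 ≤ c.XB T1 ξ w n 6
      rw [XB_6]; linarith
    · show 0 ≤ c.XB T1 ξ w n 7
      rw [XB_7]; linarith
    · show 0 ≤ c.XB T1 ξ w n 8
      rw [XB_8]; linarith
    · show 0 ≤ c.XB T1 ξ w n 9
      rw [XB_9]; linarith
    · show 0 ≤ c.XB T1 ξ w n 10
      rw [XB_10]; linarith
  · rw [XB_0, XB_7]; linarith
  · rw [XB_4, XB_2, XB_3]; ring
  · rw [XB_6, XB_2, XB_5]; ring
  · rw [XB_7, XB_4, XB_5]; ring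
  · rw [XB_8, XB_0, XB_5]; ring
  · rw [XB_9, XB_0, XB_6]; ring
  · rw [XB_10, XB_4, XB_8]; ring

end tight

/-! ### gaps -/

section gap

variable {η : ℝ} {c : LCtx} {ξ w : ℕ → ℝ} {ξ₀ : ℝ}

theorem mk_w0 (ok : c.Ok η) : W0 c.D.B c.D.r0 c.D.lev c.D.w (c.p.θ 2 - c.p.θ 1)
    (c.p.θ 0 - c.p.θ 2) (1 - c.p.θ 0) (c.p.θ 1) ∧ W0 c.D.B c.D.r0 c.D.lev c.D.w 0 0 0 0 :=
  ⟨w0_one ok.th.tp.pre.mka, w0_zero ok.th.tp.pre.mka⟩

theorem lim_exp (hξ : Tendsto ξ U (𝓝 ξ₀)) (hw : Tendsto w U (𝓝 0)) (a b t : ℝ) :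
    Tendsto (fun n => a + b * ξ n + t * w n) U (𝓝 (a + b * ξ₀)) := by
  have h1 := (hξ.const_mul b).const_add a
  have h2 := h1.add (hw.const_mul t)
  simpa using h2

theorem gap_aux {B : Base} {n : ℕ} {C x y e e' : ℝ} (hx : 0 ≤ x) (hy : 0 ≤ y)
    (h1 : x ≤ B.d n ^ e * y) (h2 : |C| * B.d n ^ (e + e') ≤ 1) : C * (x * B.d n ^ e') ≤ y := by
  have hd := Dp76.dpow_pos B n e'
  calc C * (x * B.d n ^ e') ≤ |C| * (x * B.d n ^ e') :=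
        mul_le_mul_of_nonneg_right (le_abs_self C) (mul_nonneg hx hd.le)
    _ ≤ |C| * ((B.d n ^ e * y) * B.d n ^ e') :=
        mul_le_mul_of_nonneg_left (mul_le_mul_of_nonneg_right h1 hd.le) (abs_nonneg _)
    _ = (|C| * B.d n ^ (e + e')) * y := by rw [Dp76.dpow_add]; ring
    _ ≤ 1 * y := mul_le_mul_of_nonneg_right h2 hy
    _ = y := one_mul y

/-- thickness against narrow width -/
theorem gapF (ok : c.Ok η) (h0 : 0 < ξ₀) (hξ : Tendsto ξ U (𝓝 ξ₀)) (hw : Tendsto w U (𝓝 0))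
    (C t : ℝ) : ∀ᶠ n in (U : Filter ℕ),
      C * (c.D.w 0 n 0 * c.D.B.d n ^ (ξ n + t * w n)) ≤ c.D.w 2 n 0 := by
  have hδ : 0 < ξ₀ / 2 := by positivity
  have h2 := lim_exp hξ hw (0 - ξ₀ / 2) 1 t
  filter_upwards [(mk_w0 ok).2.by' _ hδ, (mk_w0 ok).2.pos 0, (mk_w0 ok).2.pos 2,
    ev_gap c.D.B h2 (by linarith) |C|] with n a1 a2 a3 a4
  refine gap_aux a2.le a3.le a1 ?_
  rwa [show (0 : ℝ) - ξ₀ / 2 + (ξ n + t * w n) = 0 - ξ₀ / 2 + 1 * ξ n + t * w n by ring]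

/-- narrow width against wide width -/
theorem gapE (ok : c.Ok η) (h1 : ξ₀ < 1) (hξ : Tendsto ξ U (𝓝 ξ₀)) (hw : Tendsto w U (𝓝 0))
    (C t : ℝ) : ∀ᶠ n in (U : Filter ℕ),
      C * (c.D.w 2 n 0 * c.D.B.d n ^ (-(c.p.θ 1 * ξ n) + t * w n)) ≤ c.D.w 1 n 0 := by
  have hθ := ok.th.tp.ok.θ1
  have hLL := ok.pat.2.2.2
  have hδ : 0 < c.p.θ 1 * (1 - ξ₀) / 2 := by
    have : 0 < 1 - ξ₀ := by linarith
    positivity
  have h2 := lim_exp hξ hw (c.p.θ 2 - c.p.θ 1 - c.p.θ 1 * (1 - ξ₀) / 2) (-c.p.θ 1) t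
  filter_upwards [(mk_w0 ok).1.ab _ hδ, (mk_w0 ok).2.pos 2, (mk_w0 ok).2.pos 1,
    ev_gap c.D.B h2 (by rw [hLL]; linarith) |C|] with n a1 a2 a3 a4
  refine gap_aux a2.le a3.le a1 ?_
  rwa [show c.p.θ 2 - c.p.θ 1 - c.p.θ 1 * (1 - ξ₀) / 2 + (-(c.p.θ 1 * ξ n) + t * w n) =
    c.p.θ 2 - c.p.θ 1 - c.p.θ 1 * (1 - ξ₀) / 2 + -c.p.θ 1 * ξ n + t * w n by ring]

/-- wide width against the height -/
theorem gapW (ok : c.Ok η) (h1 : ξ₀ < 1) (hξ : Tendsto ξ U (𝓝 ξ₀)) (hw : Tendsto w U (𝓝 0))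
    {e : ℕ → ℝ} (he : Tendsto e U (𝓝 0)) (C t : ℝ) : ∀ᶠ n in (U : Filter ℕ),
      C * (c.D.w 1 n 0 * c.D.B.d n ^ (-(c.p.θ 1 * ξ n) + t * w n)) ≤
        c.D.B.d n ^ (e n) * rho (c.D.lev n 0) := by
  have hθ := ok.th.tp.ok.θ1
  have hδ : 0 < c.p.θ 1 * (1 - ξ₀) / 2 := by
    have : 0 < 1 - ξ₀ := by linarith
    positivity
  have h2 := (lim_exp hξ hw (c.p.θ 1 - c.p.θ 1 * (1 - ξ₀) / 2) (-c.p.θ 1) t).sub he
  rw [sub_zero] at h2
  filter_upwards [(mk_w0 ok).1.cap _ hδ, (mk_w0 ok).2.pos 1,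
    ev_gap c.D.B h2 (by linarith) |C|] with n a1 a2 a4
  have hρ : 0 < rho (c.D.lev n 0) := rho_pos _
  have hd := fun e => Dp76.dpow_pos c.D.B n e
  refine gap_aux (e := c.p.θ 1 - c.p.θ 1 * (1 - ξ₀) / 2 - e n) a2.le (mul_pos (hd _) hρ).le ?_ ?_
  · rw [← mul_assoc, ← Dp76.dpow_add, sub_add_cancel]
    exact a1
  · rwa [show c.p.θ 1 - c.p.θ 1 * (1 - ξ₀) / 2 - e n + (-(c.p.θ 1 * ξ n) + t * w n) =
      c.p.θ 1 - c.p.θ 1 * (1 - ξ₀) / 2 + -c.p.θ 1 * ξ n + t * w n - e n by ring]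

/-- thickness against wide width -/
theorem gapFE (ok : c.Ok η) (h0 : 0 < ξ₀) (h1 : ξ₀ < 1) (hξ : Tendsto ξ U (𝓝 ξ₀))
    (hw : Tendsto w U (𝓝 0)) {C : ℝ} (hC : 0 ≤ C) (t : ℝ) : ∀ᶠ n in (U : Filter ℕ),
      C * (c.D.w 0 n 0 * c.D.B.d n ^ ((1 - c.p.θ 1) * ξ n + t * w n)) ≤ c.D.w 1 n 0 := by
  filter_upwards [gapF ok h0 hξ hw C t, gapE ok h1 hξ hw 1 0] with n a1 a2
  have hd := fun e => Dp76.dpow_pos c.D.B n e
  calc C * (c.D.w 0 n 0 * c.D.B.d n ^ ((1 - c.p.θ 1) * ξ n + t * w n)) =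
        (C * (c.D.w 0 n 0 * c.D.B.d n ^ (ξ n + t * w n))) *
          c.D.B.d n ^ (-(c.p.θ 1 * ξ n) + 0 * w n) := by
        rw [show (1 - c.p.θ 1) * ξ n + t * w n = (ξ n + t * w n) +
          (-(c.p.θ 1 * ξ n) + 0 * w n) by ring, Dp76.dpow_add]
        ring
    _ ≤ c.D.w 2 n 0 * c.D.B.d n ^ (-(c.p.θ 1 * ξ n) + 0 * w n) :=
        mul_le_mul_of_nonneg_right a1 (hd _).le
    _ ≤ c.D.w 1 n 0 := by linarith

/-- resolution against thickness -/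
theorem gapR (ok : c.Ok η) (h0 : 0 < ξ₀) (h1 : ξ₀ < 1) (hξ : Tendsto ξ U (𝓝 ξ₀))
    (hw : Tendsto w U (𝓝 0)) (hw0 : ∀ n, 0 < w n) {C t : ℝ} (hC : 6 ≤ C)
    (ht : c.p.θ 1 = 1 → t ≤ 0) : ∀ᶠ n in (U : Filter ℕ),
      6 * c.D.r0 n ≤ C * (c.D.w 0 n 0 * c.D.B.d n ^ ((1 - c.p.θ 0) * ξ n + t * w n)) := by
  have hθ := ok.th.tp.ok.θ1
  have hL1 := ok.pat.2.2.1
  have hL2 := ok.pat.2.2.2
  have hθ0 : 1 - c.p.θ 0 = 2 * (1 - c.p.θ 1) := by linarith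
  -- exponents at most `0`
  have key0 : (∀ᶠ n in (U : Filter ℕ), (1 - c.p.θ 0) * ξ n + t * w n ≤ 0) →
      ∀ᶠ n in (U : Filter ℕ),
      6 * c.D.r0 n ≤ C * (c.D.w 0 n 0 * c.D.B.d n ^ ((1 - c.p.θ 0) * ξ n + t * w n)) := by
    intro h
    filter_upwards [h, mark_ord ok.th.tp.pre.mka le_rfl zero_le_one, (mk_w0 ok).2.pos 0] with
      n a1 a2 a3
    have h3 : (1 : ℝ) ≤ c.D.B.d n ^ ((1 - c.p.θ 0) * ξ n + t * w n) := by
      have := Dp76.dpow_le c.D.B n a1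
      rwa [Real.rpow_zero] at this
    calc 6 * c.D.r0 n ≤ 6 * c.D.w 0 n 0 := by linarith [a2.1]
      _ ≤ C * c.D.w 0 n 0 := mul_le_mul_of_nonneg_right hC a3.le
      _ ≤ _ := mul_le_mul_of_nonneg_left (le_mul_of_one_le_right a3.le h3) (by linarith)
  rcases lt_trichotomy (c.p.θ 1) 1 with hlt | heq | hgt
  · have hδ : 0 < (1 - c.p.θ 1) * (1 - ξ₀) := by
      have h3 : 0 < 1 - ξ₀ := by linarith
      have h4 : 0 < 1 - c.p.θ 1 := by linarith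
      positivity
    have h2 := lim_exp hξ hw (1 - c.p.θ 0 - (1 - c.p.θ 1) * (1 - ξ₀)) (-(1 - c.p.θ 0)) (-t)
    filter_upwards [(mk_w0 ok).1.res _ hδ, (mk_w0 ok).2.pos 0,
      ev_gap c.D.B h2 (by rw [hθ0]; linarith) 6] with n a1 a2 a3
    have hd := fun e => Dp76.dpow_pos c.D.B n e
    have e1 : c.D.B.d n ^ (1 - c.p.θ 0 - (1 - c.p.θ 1) * (1 - ξ₀)) =
        c.D.B.d n ^ (1 - c.p.θ 0 - (1 - c.p.θ 1) * (1 - ξ₀) + -(1 - c.p.θ 0) * ξ n + -t * w n) *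
          c.D.B.d n ^ ((1 - c.p.θ 0) * ξ n + t * w n) := by
      rw [← Dp76.dpow_add]; congr 1; ring
    calc 6 * c.D.r0 n ≤ 6 * (c.D.B.d n ^ (1 - c.p.θ 0 - (1 - c.p.θ 1) * (1 - ξ₀)) * c.D.w 0 n 0) :=
          by linarith
      _ = (6 * c.D.B.d n ^ (1 - c.p.θ 0 - (1 - c.p.θ 1) * (1 - ξ₀) + -(1 - c.p.θ 0) * ξ n +
            -t * w n)) * (c.D.w 0 n 0 * c.D.B.d n ^ ((1 - c.p.θ 0) * ξ n + t * w n)) := by
          rw [e1]; ring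
      _ ≤ 1 * (c.D.w 0 n 0 * c.D.B.d n ^ ((1 - c.p.θ 0) * ξ n + t * w n)) :=
          mul_le_mul_of_nonneg_right a3 (mul_pos a2 (hd _)).le
      _ ≤ _ := mul_le_mul_of_nonneg_right (by linarith) (mul_pos a2 (hd _)).le
  · refine key0 (Eventually.of_forall fun n => ?_)
    have h3 : 1 - c.p.θ 0 = 0 := by rw [hθ0, heq]; ring
    rw [h3, zero_mul, zero_add]
    exact mul_nonpos_of_nonpos_of_nonneg (ht heq) (hw0 n).le
  · refine key0 ?_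
    have h2 := lim_exp hξ hw 0 (1 - c.p.θ 0) t
    have h3 : 0 + (1 - c.p.θ 0) * ξ₀ < 0 := by
      rw [hθ0, zero_add]
      have : 0 < (c.p.θ 1 - 1) * ξ₀ := mul_pos (by linarith) h0
      linarith
    filter_upwards [h2.eventually (gt_mem_nhds h3)] with n a1
    linarith

/-- the level of the box is inside `[0, 1]` -/
theorem gapZ (ok : c.Ok η) (h0 : 0 < ξ₀) (h1 : ξ₀ < 1) (hξ : Tendsto ξ U (𝓝 ξ₀))
    (hw : Tendsto w U (𝓝 0)) {K : ℝ} (hK : 1 ≤ K) (t : ℝ) : ∀ᶠ n in (U : Filter ℕ),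
      K * (rho (c.D.lev n 0) * c.D.B.d n ^ (ξ n + t * w n)) ≤ rho (c.D.lev n 0) ∧
      rho (c.D.lev n 1) ≤ K * (rho (c.D.lev n 0) * c.D.B.d n ^ (ξ n + t * w n)) ∧
      c.D.lev n 0 ≤ c.D.lev n 1 := by
  have hδ : 0 < (1 - ξ₀) / 2 := by linarith
  have hM := ok.th.tp.pre.mka
  have g1 := lim_exp hξ hw 0 1 t
  have g2 := lim_exp hξ hw (((1 : ℚ) : ℝ) - (1 - ξ₀) / 2) (-1) (-t)
  filter_upwards [ev_gap c.D.B g1 (by linarith) K, ev_gap c.D.B g2 (by push_cast; linarith) 1,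
    PqG464.pow_lev hM 1 zero_le_one le_rfl hδ, hM.lev_mono 0 1 le_rfl zero_le_one le_rfl] with
    n a1 a2 a3 a4
  have hd := fun e => Dp76.dpow_pos c.D.B n e
  have hρ : 0 < rho (c.D.lev n 0) := rho_pos _
  refine ⟨?_, ?_, a4⟩
  · calc K * (rho (c.D.lev n 0) * c.D.B.d n ^ (ξ n + t * w n)) =
          (K * c.D.B.d n ^ (0 + 1 * ξ n + t * w n)) * rho (c.D.lev n 0) := by
          rw [show 0 + 1 * ξ n + t * w n = ξ n + t * w n by ring]; ring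
      _ ≤ 1 * rho (c.D.lev n 0) := mul_le_mul_of_nonneg_right a1 hρ.le
      _ = _ := one_mul _
  · calc rho (c.D.lev n 1) ≤ c.D.B.d n ^ (((1 : ℚ) : ℝ) - (1 - ξ₀) / 2) * rho (c.D.lev n 0) :=
          rho_hi a3.2
      _ = (1 * c.D.B.d n ^ (((1 : ℚ) : ℝ) - (1 - ξ₀) / 2 + -1 * ξ n + -t * w n)) *
            (c.D.B.d n ^ (ξ n + t * w n) * rho (c.D.lev n 0)) := by
          rw [one_mul, ← mul_assoc, ← Dp76.dpow_add]
          congr 2; ring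
      _ ≤ 1 * (c.D.B.d n ^ (ξ n + t * w n) * rho (c.D.lev n 0)) :=
          mul_le_mul_of_nonneg_right a2 (mul_pos (hd _) hρ).le
      _ = 1 * (rho (c.D.lev n 0) * c.D.B.d n ^ (ξ n + t * w n)) := by ring
      _ ≤ _ := mul_le_mul_of_nonneg_right hK (mul_pos hρ (hd _)).le

end gap

end Crest.Agent.R136.Dmx779
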