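import Crest.Agent.R136.TL3_196

/-!
# R136: finest labels against window boxes, gauge chart (helper196; 882's leaf (N))

`nb_close` : two incidences with the same finest label (all slots at `R`) are in every window box of
the gauge chart.  `xb_room`, `nb_closeL` : the case of the class base `c.XB T1 ξ w`.
-/

set_option autoImplicit false
set_option linter.unusedVariables false

open Finset Filter Topology

namespace Crest.Agent.R136.NbC196

open Crest.Agent.R138.Ex926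
open Crest.Agent.R136.Net191
open Crest.Agent.R136.NetQ186
open Crest.Agent.R136.GeoQ186
open Crest.Agent.R136.Wq638
open Crest.Agent.R136.Lq196
open Crest.Agent.R136.NatT550
open Crest.Agent.R136.NatR550
open Crest.Agent.R136.Qg926
open Crest.Agent.R136.Zpr779
open Crest.Agent.R136.Gz779
open Crest.Agent.R136.LdF3511
open Crest.Agent.R136.TL196

/-- a power of the big base kills every power of the window base -/
theorem kill {B B' : Base} {w : ℕ → ℝ} (hw : Tendsto w U (𝓝 0))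
    (hbase : ∀ n, B'.d n = B.d n ^ w n) {γ : ℝ} (hγ : 0 < γ) {K : ℝ} (hK : 0 < K) (C : ℝ) :
    ∀ᶠ n in (U : Filter ℕ), K * B.d n ^ γ ≤ B'.d n ^ C := by
  have h1 : Tendsto (fun n => w n * C) U (𝓝 0) := by
    have := hw.mul_const C
    rwa [zero_mul] at this
  have hγ2 : 0 < γ / 2 := by positivity
  filter_upwards [h1.eventually_lt_const hγ2, ev_const_le B hK hγ2] with n h2 h3
  have hB : ∀ t : ℝ, 0 < B.d n ^ t := fun t => Real.rpow_pos_of_pos (B.pos n) t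
  rw [hbase n, ← Real.rpow_mul (B.pos n).le]
  calc K * B.d n ^ γ ≤ B.d n ^ (-(γ / 2)) * B.d n ^ γ :=
        mul_le_mul_of_nonneg_right h3 (hB _).le
    _ = B.d n ^ (γ / 2) := by rw [← Real.rpow_add (B.pos n)]; congr 1; ring
    _ ≤ B.d n ^ (w n * C) :=
        Real.rpow_le_rpow_of_exponent_ge (B.pos n) (B.lt n).le h2.le

/-- **finest labels are finer than every window box, also in the gauge chart** -/
theorem nb_close {B B' : Base} {I0 E : ℕ → Finset (ℕ × ℝ)} {F : ℕ → ℕ × ℝ → Fq4}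
    {h : ℕ → Fin 6 → ℝ} {X : ℕ → Fin 11 → ℝ} {η w : ℕ → ℝ} {x xF R γ : ℝ}
    (G : GauIn B B' E F h X η x xF) (hE : ∀ᶠ n in (U : Filter ℕ), E n ⊆ I0 n)
    (hw : Tendsto w U (𝓝 0)) (hw0 : ∀ n, 0 < w n) (hbase : ∀ n, B'.d n = B.d n ^ w n)
    (hR : 0 ≤ R) (hγ : 0 < γ) (hX0 : ∀ᶠ n in (U : Filter ℕ), ∀ k, 0 ≤ X n k)
    (hX : ∀ᶠ n in (U : Filter ℕ), ∀ k, X n k ≤ R - γ) (p : Fin 11 → ℝ) :
    ∀ᶠ n in (U : Filter ℕ), ∀ i ∈ E n, ∀ j ∈ I0 n,
      nlab B I0 (coF F) monQ 2 n (fun _ => R) j = nlab B I0 (coF F) monQ 2 n (fun _ => R) i →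
        ∀ k, |coG F h n i j k| ≤ B.d n ^ XG X n k * B'.d n ^ p k := by
  obtain ⟨P, hP⟩ : ∃ P : ℝ, P = ‖p‖ := ⟨_, rfl⟩
  have hP0 : 0 ≤ P := by rw [hP]; exact norm_nonneg _
  obtain ⟨C, hC⟩ : ∃ C : ℝ, C = P + 2 := ⟨_, rfl⟩
  obtain ⟨C1, hC1⟩ : ∃ C1 : ℝ, C1 = C + |x| := ⟨_, rfl⟩
  have hx1 : -|x| ≤ x := neg_abs_le x
  have hx2 := abs_nonneg x
  set q : Fin 11 → ℝ := ![C1, C, C, C, C, C1, C1, C, C1, C1, C] with hq
  have hq0 : q 0 = C1 := rfl
  have hq4 : q 4 = C := rfl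
  have hq5 : q 5 = C1 := rfl
  have hq6 : q 6 = C1 := rfl
  have hq7 : q 7 = C := rfl
  have hq8 : q 8 = C1 := rfl
  have hq9 : q 9 = C1 := rfl
  have hq10 : q 10 = C := rfl
  have hCq : ∀ k, q k ≤ C1 := by
    intro k
    fin_cases k <;> simp [hq] <;> linarith
  have hbx : PBox x q := by
    constructor
    · rw [hq10, hq8]; linarith
    · rw [hq7, hq9]; linarith
    · rw [hq7, hq5, hq8]; linarith
    · rw [hq7, hq8]; linarith
    · rw [hq4, hq8]; linarith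
    · rw [hq4, hq0, hq5]; linarith
    · rw [hq4, hq0]; linarith
  obtain ⟨δ, hδ, hδ1, herr⟩ := gau_err G hbx (ε := 1) one_pos
  obtain ⟨δ', hδ', hδ1', herr1⟩ := gau_err1 G (p := q) (ε := 1) one_pos
  have hK0 : 0 < cK0 monQ 2 := lt_of_lt_of_le one_pos (cK0_one (by norm_num))
  have hleg : Legal monQ (fun _ : Fin 11 => R) :=
    (top_Leg monQ hR).1
  filter_upwards [herr, herr1, hE, hX0, hX, kill hw hbase hγ hK0 C1,
    ev_const_le B' (c := 4) (by norm_num) one_pos, G.b2 1 one_pos] with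
    n e1 e2 hEn x0 xR kl four b2 i hi j hj hl
  have hd : ∀ t : ℝ, 0 < B'.d n ^ t := fun t => Real.rpow_pos_of_pos (B'.pos n) t
  have hB : ∀ t : ℝ, 0 < B.d n ^ t := fun t => Real.rpow_pos_of_pos (B.pos n) t
  have hBa : ∀ s t : ℝ, B.d n ^ s * B.d n ^ t = B.d n ^ (s + t) := fun s t =>
    (Real.rpow_add (B.pos n) s t).symm
  have hda : ∀ s t : ℝ, B'.d n ^ s * B'.d n ^ t = B'.d n ^ (s + t) := fun s t =>
    (Real.rpow_add (B'.pos n) s t).symm
  have hdm : ∀ {s t : ℝ}, t ≤ s → B'.d n ^ s ≤ B'.d n ^ t := fun hst =>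
    Real.rpow_le_rpow_of_exponent_ge (B'.pos n) (B'.lt n).le hst
  have hBm : ∀ {s t : ℝ}, t ≤ s → B.d n ^ s ≤ B.d n ^ t := fun hst =>
    Real.rpow_le_rpow_of_exponent_ge (B.pos n) (B.lt n).le hst
  -- the finest box
  have hfin : ∀ k, |coF F n i j k| ≤ cK0 monQ 2 * B.d n ^ R := fun k =>
    near_of_nlab (fun n => chart_coF F n (I0 n)) hleg (hEn hi) hj hl.symm k
  have hbig : ∀ {a : ℝ}, a ≤ R - γ → ∀ {t : ℝ}, t ≤ C1 → ∀ k,
      |coF F n i j k| ≤ B.d n ^ a * B'.d n ^ t := by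
    intro a ha t ht k
    calc |coF F n i j k| ≤ cK0 monQ 2 * B.d n ^ R := hfin k
      _ ≤ cK0 monQ 2 * B.d n ^ (a + γ) :=
          mul_le_mul_of_nonneg_left (hBm (by linarith)) hK0.le
      _ = B.d n ^ a * (cK0 monQ 2 * B.d n ^ γ) := by rw [← hBa]; ring
      _ ≤ B.d n ^ a * B'.d n ^ t :=
          mul_le_mul_of_nonneg_left (kl.trans (hdm ht)) (hB _).le
  have hone : ∀ t : ℝ, 0 < t → 1 ≤ B'.d n ^ (-t) := fun t ht =>
    Real.one_le_rpow_of_pos_of_le_one_of_nonpos (B'.pos n) (B'.lt n).le (by linarith)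
  have hk : ∀ (t : ℝ), 0 < t → ∀ k : Fin 11,
      |coF F n i j k| ≤ B'.d n ^ (-t) * (B.d n ^ X n k * B'.d n ^ q k) := fun t ht k =>
    (hbig (xR k) (hCq k) k).trans (le_mul_of_one_le_left (mul_nonneg (hB _).le (hd _).le)
      (hone t ht))
  obtain ⟨r10, r7a, r7b, r7c, r4a, r4b, r4c⟩ := e1 i j hi fun k _ => hk δ hδ k
  obtain ⟨s1, s2, s3⟩ := e2 i j hi fun k _ => hk δ' hδ' k
  obtain ⟨a0, a1, a2, a3, a4, a5, a6, a7, a8, a9, a10⟩ :=
    rg_slots (G.h4 n) (G.h5 n) (F n i) (F n j)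
  -- final bound: four terms `≤ d'^(C-1) σ`
  have hpC : ∀ k, p k ≤ C - 2 := fun k => by
    have := norm_le_pi_norm p k
    rw [Real.norm_eq_abs, ← hP] at this
    have := le_abs_self (p k)
    rw [hC]; linarith
  have hfinish : ∀ (k : Fin 11) (s v : ℝ), 0 ≤ s → v ≤ 4 * (s * B'.d n ^ (C - 1)) →
      v ≤ s * B'.d n ^ p k := by
    intro k s v hs hv
    calc v ≤ 4 * (s * B'.d n ^ (C - 1)) := hv
      _ ≤ B'.d n ^ (-1 : ℝ) * (s * B'.d n ^ (C - 1)) :=
          mul_le_mul_of_nonneg_right four (mul_nonneg hs (hd _).le)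
      _ = s * B'.d n ^ (C - 2) := by
          rw [show C - 2 = -1 + (C - 1) by ring, ← hda]; ring
      _ ≤ s * B'.d n ^ p k := mul_le_mul_of_nonneg_left (hdm (hpC k)) hs
  have hsame : ∀ k : Fin 11, k ≠ 1 → coG F h n i j k = coF F n i j k →
      |coG F h n i j k| ≤ B.d n ^ XG X n k * B'.d n ^ p k := by
    intro k hk1 he
    rw [he, XG_of_ne hk1]
    exact hbig (xR k) (by have := hpC k; linarith) k
  have hsub1 : ∀ k : Fin 11, |coF F n i j k| ≤ B.d n ^ X n k * B'.d n ^ (C - 1) := fun k =>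
    hbig (xR k) (by linarith) k
  have hm1 : ∀ (s : ℝ), B'.d n ^ (-1 : ℝ) * (s * B'.d n ^ C) = s * B'.d n ^ (C - 1) := fun s => by
    rw [show C - 1 = -1 + C by ring, ← hda]; ring
  intro k
  by_cases k1 : k = 1
  · subst k1
    have e1' : XG X n 1 = X n 7 - X n 0 := if_pos rfl
    rw [e1']
    have hσ : 0 < B.d n ^ X n 0 := hB _
    have h7 : B.d n ^ (X n 7 - X n 0) * B.d n ^ X n 0 = B.d n ^ X n 7 := by
      rw [hBa]; congr 1; ring
    have conv : ∀ v t : ℝ, C ≤ t → |v| * B.d n ^ X n 0 ≤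
        B'.d n ^ (-1 : ℝ) * (B.d n ^ X n 7 * B'.d n ^ t) →
        |v| ≤ B.d n ^ (X n 7 - X n 0) * B'.d n ^ (C - 1) := by
      intro v t ht hv
      refine le_of_mul_le_mul_right (hv.trans ?_) hσ
      calc B'.d n ^ (-1 : ℝ) * (B.d n ^ X n 7 * B'.d n ^ t)
          ≤ B'.d n ^ (-1 : ℝ) * (B.d n ^ X n 7 * B'.d n ^ C) :=
            mul_le_mul_of_nonneg_left (mul_le_mul_of_nonneg_left (hdm ht) (hB _).le) (hd _).le
        _ = B.d n ^ X n 7 * B'.d n ^ (C - 1) := hm1 _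
        _ = B.d n ^ (X n 7 - X n 0) * B'.d n ^ (C - 1) * B.d n ^ X n 0 := by
            rw [← h7]; ring
    refine hfinish 1 _ _ (hB _).le ?_
    have h0 : coG F h n i j 1 = coF F n i j 1 - (h n 2 * coF F n i j 6 +
        h n 3 * (coF F n i j 5 * coF F n i j 5) + tau (h n) (F n i) * coF F n i j 5) := a1
    have t0 : |coF F n i j 1| ≤ B.d n ^ (X n 7 - X n 0) * B'.d n ^ (C - 1) :=
      hbig (by have := xR 7; have := x0 0; linarith) (by linarith) 1
    have t1 := conv _ (q 6) (by rw [hq6]; linarith) s1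
    have t2 := conv _ (2 * q 5) (by rw [hq5]; linarith) s2
    have t3 := conv _ (x + q 5) (by rw [hq5]; linarith) s3
    refine (tri3 h0 t0 t1 t2 t3).trans (le_of_eq (by ring))
  · have h10 : ∀ m : Fin 11, ∀ v : ℝ, |v| ≤ B'.d n ^ (-1 : ℝ) * (B.d n ^ X n m * B'.d n ^ C) →
        |v| ≤ B.d n ^ X n m * B'.d n ^ (C - 1) := fun m v hv => hv.trans (le_of_eq (hm1 _))
    rw [hq4] at r4a r4b r4c
    rw [hq7] at r7a r7b r7c
    rw [hq10] at r10
    fin_cases k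
    · exact hsame 0 k1 a0
    · exact absurd rfl k1
    · exact hsame 2 k1 a2
    · -- slot 3
      have h0 : coG F h n i j 3 = coF F n i j 3 - (h n 2 * coF F n i j 0 + 0 + 0) := by
        rw [add_zero, add_zero]; exact a3
      have hXG : XG X n 3 = X n 3 := XG_of_ne (by decide)
      change |coG F h n i j 3| ≤ B.d n ^ XG X n 3 * B'.d n ^ p 3
      rw [hXG]
      refine hfinish 3 _ _ (hB _).le ?_
      have t1 : |h n 2 * coF F n i j 0| ≤ B.d n ^ X n 3 * B'.d n ^ (C - 1) := by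
        rw [abs_mul]
        calc |h n 2| * |coF F n i j 0| ≤ |h n 2| * (B.d n ^ X n 0 * B'.d n ^ C) :=
              mul_le_mul_of_nonneg_left (hbig (xR 0) (by linarith) 0) (abs_nonneg _)
          _ = (|h n 2| * B.d n ^ X n 0) * B'.d n ^ C := by ring
          _ ≤ (B'.d n ^ (-1 : ℝ) * B.d n ^ X n 3) * B'.d n ^ C :=
              mul_le_mul_of_nonneg_right b2 (hd _).le
          _ = B'.d n ^ (-1 : ℝ) * (B.d n ^ X n 3 * B'.d n ^ C) := by ring
          _ = _ := hm1 _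
      have hs0 : |(0 : ℝ)| ≤ B.d n ^ X n 3 * B'.d n ^ (C - 1) := by
        rw [abs_zero]; exact mul_nonneg (hB _).le (hd _).le
      refine (tri3 h0 (hsub1 3) t1 hs0 hs0).trans (le_of_eq (by ring))
    · have hXG : XG X n 4 = X n 4 := XG_of_ne (by decide)
      change |coG F h n i j 4| ≤ B.d n ^ XG X n 4 * B'.d n ^ p 4
      rw [hXG]
      refine hfinish 4 _ _ (hB _).le ?_
      refine (tri3 a4 (hsub1 4) (h10 4 _ r4a) (h10 4 _ r4b) (h10 4 _ r4c)).trans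
        (le_of_eq (by ring))
    · exact hsame 5 k1 a5
    · exact hsame 6 k1 a6
    · have hXG : XG X n 7 = X n 7 := XG_of_ne (by decide)
      change |coG F h n i j 7| ≤ B.d n ^ XG X n 7 * B'.d n ^ p 7
      rw [hXG]
      refine hfinish 7 _ _ (hB _).le ?_
      have h0 : coG F h n i j 7 = coF F n i j 7 - (h n 2 * coF F n i j 9 +
          2 * h n 3 * (coF F n i j 8 * coF F n i j 5) + tau (h n) (F n i) * coF F n i j 8) := a7
      refine (tri3 h0 (hsub1 7) (h10 7 _ r7a) (h10 7 _ r7b) (h10 7 _ r7c)).trans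
        (le_of_eq (by ring))
    · exact hsame 8 k1 a8
    · exact hsame 9 k1 a9
    · have hXG : XG X n 10 = X n 10 := XG_of_ne (by decide)
      change |coG F h n i j 10| ≤ B.d n ^ XG X n 10 * B'.d n ^ p 10
      rw [hXG]
      refine hfinish 10 _ _ (hB _).le ?_
      have h0 : coG F h n i j 10 = coF F n i j 10 -
          (h n 3 * (coF F n i j 8 * coF F n i j 8) + 0 + 0) := by
        rw [add_zero, add_zero]; exact a10
      have hs0 : |(0 : ℝ)| ≤ B.d n ^ X n 10 * B'.d n ^ (C - 1) := by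
        rw [abs_zero]; exact mul_nonneg (hB _).le (hd _).le
      refine (tri3 h0 (hsub1 10) (h10 10 _ r10) hs0 hs0).trans (le_of_eq (by ring))

/-- room around the class base -/
theorem xb_room {c : LCtx} {η : ℝ} (ok : c.Ok η) {ξ w : ℕ → ℝ} {ξ₀ : ℝ} (h0 : 0 < ξ₀)
    (h1 : ξ₀ < 1) (hξ : Tendsto ξ U (𝓝 ξ₀)) (hw : Tendsto w U (𝓝 0)) (T1 : ℝ) :
    ∃ γ : ℝ, 0 < γ ∧ (∀ᶠ n in (U : Filter ℕ), ∀ k, 0 ≤ c.XB T1 ξ w n k) ∧
      ∀ᶠ n in (U : Filter ℕ), ∀ k, c.XB T1 ξ w n k ≤ c.R - γ := by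
  have hbox := recF_box (θ := c.p.θ) ok.th.tp.big (R_room ok).2.1 (R_room ok).1 h0 h1
  obtain ⟨δ, hδ, hb⟩ : ∃ δ : ℝ, 0 < δ ∧ ∀ k, δ ≤ c.X ξ₀ k ∧ δ ≤ c.R - c.X ξ₀ k := by
    have hne : (Finset.univ : Finset (Fin 11)).Nonempty := Finset.univ_nonempty
    refine ⟨Finset.univ.inf' hne fun k => min (c.X ξ₀ k) (c.R - c.X ξ₀ k), ?_, fun k => ?_⟩
    · refine (Finset.lt_inf'_iff hne).2 ?_
      intro k _
      exact lt_min (hbox k).1 (sub_pos.2 (hbox k).2)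
    · have := Finset.inf'_le (fun k => min (c.X ξ₀ k) (c.R - c.X ξ₀ k)) (Finset.mem_univ k)
      exact ⟨this.trans (min_le_left _ _), this.trans (min_le_right _ _)⟩
  have key : ∀ᶠ n in (U : Filter ℕ), ∀ k, |c.XB T1 ξ w n k - c.X ξ₀ k| ≤ δ / 2 := by
    rw [Filter.eventually_all]
    intro k
    have h2 : Tendsto (fun n => (ξ n - ξ₀) * c.ρ k + w n * bT T1 k) U (𝓝 0) := by
      have h3 := ((hξ.sub_const ξ₀).mul_const (c.ρ k)).add (hw.mul_const (bT T1 k))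
      rwa [sub_self, zero_mul, zero_mul, add_zero] at h3
    have h4 := h2.abs
    rw [abs_zero] at h4
    filter_upwards [h4.eventually_lt_const (half_pos hδ)] with n hn
    have e1 : c.XB T1 ξ w n = c.X ξ₀ + (ξ n - ξ₀) • c.ρ + w n • bT T1 := by
      unfold LCtx.XB
      rw [X_add]
      congr 2; ring
    rw [e1]
    simp only [Pi.add_apply, Pi.smul_apply, smul_eq_mul]
    have e2 : c.X ξ₀ k + (ξ n - ξ₀) * c.ρ k + w n * bT T1 k - c.X ξ₀ k =
        (ξ n - ξ₀) * c.ρ k + w n * bT T1 k := by ring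
    rw [e2]
    exact hn.le
  refine ⟨δ / 2, half_pos hδ, ?_, ?_⟩
  · filter_upwards [key] with n hn k
    have := abs_le.1 (hn k)
    have := (hb k).1
    linarith
  · filter_upwards [key] with n hn k
    have := abs_le.1 (hn k)
    have := (hb k).2
    linarith

/-- **the case of the class base** -/
theorem nb_closeL {c : LCtx} {η : ℝ} (ok : c.Ok η) {T1 x : ℝ} {B' : Base}
    {J : ℕ → Finset (ℕ × ℝ)} {ξ w : ℕ → ℝ} {lam lo : (Fin 11 → ℝ) → ℝ}
    {Cl E : ℕ → Finset (ℕ × ℝ)} {s₀ : ℕ → ℕ × ℝ} {h : ℕ → Fin 6 → ℝ} {ηg : ℕ → ℝ}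
    (W : GWin c T1 x B' J ξ w lam lo Cl E s₀ h ηg) (p : Fin 11 → ℝ) :
    ∀ᶠ n in (U : Filter ℕ), ∀ i ∈ E n, ∀ j ∈ c.D.I n,
      nlab c.D.B c.D.I (coF c.F) monQ 2 n (fun _ => c.R) j =
          nlab c.D.B c.D.I (coF c.F) monQ 2 n (fun _ => c.R) i →
        ∀ k, |coG c.F h n i j k| ≤
          c.D.B.d n ^ XG (c.XB T1 ξ w) n k * B'.d n ^ p k := by
  obtain ⟨ξ₀, h0, h1, hξ⟩ := W.rw.ξlim
  obtain ⟨γ, hγ, hX0, hX⟩ := xb_room ok h0 h1 hξ W.rw.wlim T1
  refine nb_close W.gau ?_ W.rw.wlim W.cls.w0 W.cls.base (by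
    have := (R_room ok).2.2; linarith) hγ hX0 hX p
  filter_upwards [W.esub, W.cls.csub, W.cls.sub] with n a b d using a.trans (b.trans d)

end Crest.Agent.R136.NbC196
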