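import Crest.Agent.R136.DMX4_779
import Crest.Agent.R136.NbC_196

/-!
# R136: D-max for the boxes of the gauge chart at window precision (helper779), part 2

`hPD_L` : **number of incidences in a box of the gauge chart**, in the form of the hypothesis `hPD`
of `exists_extG`.
-/

set_option autoImplicit false
set_option linter.unusedVariables false
set_option linter.unusedSectionVars false

open Finset Filter Topology

namespace Crest.Agent.R136.Dmx779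

open Crest.Agent.R138.Ex926 (Base U)
open Crest.Agent.R138.Mk163 (zc zl rho alive)
open Crest.Agent.R138
open Crest.Agent.R136.MkA627
open Crest.Agent.R136.Sh605
open Crest.Agent.R136.K4
open Crest.Agent.R136.Top484
open Crest.Agent.R136.GeoQ186
open Crest.Agent.R136.Net191
open Crest.Agent.R136.NetQ186
open Crest.Agent.R136.Wq638
open Crest.Agent.R136.Lq196
open Crest.Agent.R136.NatT550
open Crest.Agent.R136.NatR550
open Crest.Agent.R136.TopB550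
open Crest.Agent.R136.TL196
open Crest.Agent.R136.Gz779
open Crest.Agent.R136.Qg926
open Crest.Agent.R136.Zpr779
open Crest.Agent.R136.NbC196 (nb_closeL)

/-- **geometry at one stage**: the box with exponents `E` around `i`, over one cell -/
theorem box_stage {η : ℝ} {c : LCtx} (ok : c.Ok η) {n : ℕ} {h : Fin 6 → ℝ} (h4 : h 4 = 0)
    (h5 : h 5 = 0) {E : Fin 11 → ℝ} (hl : Legal monQ E) {K C1 ρ z0 G1 G2 G3 : ℝ}
    (hK : 1 ≤ K) (hC1 : C1 = 21 * K ^ 3)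
    (hw0 : 0 < c.D.w 0 n 0) (hw1 : 0 < c.D.w 1 n 0) (hw2 : 0 < c.D.w 2 n 0)
    {i : ℕ × ℝ} (hi : i ∈ c.D.I n)
    (hρ0 : 0 ≤ ρ) (hρ : ρ ≤ 2 * (K * (rho (c.D.lev n 0) * c.D.B.d n ^ (E 0 - c.w0))))
    (hz : ∀ z, z0 ≤ z → z ≤ z0 + ρ → |z - i.2| ≤ 2 * ρ)
    (gE : c.D.w 2 n 0 * c.D.B.d n ^ (E 9 - 3 * c.w0) ≤ c.D.w 1 n 0 * c.D.B.d n ^ (E 8 - 2 * c.w0))
    (gF : c.D.w 0 n 0 * c.D.B.d n ^ (E 10 - 4 * c.w0) ≤ c.D.w 2 n 0 * c.D.B.d n ^ (E 9 - 3 * c.w0))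
    (hr : 6 * c.D.r0 n ≤ C1 * (c.D.w 0 n 0 * c.D.B.d n ^ (E 10 - 4 * c.w0)))
    (hτ : |tau h (c.F n i)| * c.D.B.d n ^ E 0 ≤ c.D.B.d n ^ G1)
    (h2 : |h 2| * c.D.B.d n ^ E 0 ≤ c.D.B.d n ^ G2)
    (h3 : |h 3| * c.D.B.d n ^ E 8 ≤ c.D.B.d n ^ G3)
    (t1 : 2 * K * 4096 * (c.D.w 0 n 0 * c.D.B.d n ^ (G1 + E 8 - 4 * c.w0)) ≤
      c.D.w 2 n 0 * c.D.B.d n ^ (E 9 - 3 * c.w0))
    (t2 : 2 * K * 4096 * (c.D.w 0 n 0 * c.D.B.d n ^ (G2 - 4 * c.w0)) ≤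
      c.D.w 2 n 0 * c.D.B.d n ^ (-(3 * c.w0)))
    (t3 : C1 * 4096 * (c.D.w 0 n 0 * c.D.B.d n ^ (G3 + E 8 - 4 * c.w0)) ≤
      c.D.w 2 n 0 * c.D.B.d n ^ (E 9 - 3 * c.w0))
    (t4 : C1 * 4096 * (c.D.w 0 n 0 * c.D.B.d n ^ (G3 - 4 * c.w0)) ≤
      c.D.w 1 n 0 * c.D.B.d n ^ (-(2 * c.w0))) :
    ∃ t : Plk4, ShN t.e t.c t.w t.q t.a z0 ρ (c.D.r0 n) ∧ 0 ≤ t.a ∧
      t.a ≤ C1 * (c.D.w 0 n 0 * c.D.B.d n ^ (E 10 - 4 * c.w0)) ∧
      C1 * (c.D.w 0 n 0 * c.D.B.d n ^ (E 10 - 4 * c.w0)) / 6 ≤ t.a ∧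
      t.w 1 = 12 * (C1 * (c.D.w 1 n 0 * c.D.B.d n ^ (E 8 - 2 * c.w0))) ∧
      t.w 2 = 10 * (C1 * (c.D.w 2 n 0 * c.D.B.d n ^ (E 9 - 3 * c.w0))) ∧
      ∀ y : ℕ × ℝ, (∀ k, |coG c.F (fun _ => h) n i y k| ≤ K * c.D.B.d n ^ E k) →
        InSheet (c.D.L n y.1) t.e t.c t.w t.q t.a z0 ρ := by
  set d := c.D.B.d n with hd
  have hdp : ∀ e : ℝ, 0 < d ^ e := fun e => Dp76.dpow_pos c.D.B n e
  have hda : ∀ e e' : ℝ, d ^ e * d ^ e' = d ^ (e + e') := fun e e' =>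
    (Dp76.dpow_add c.D.B n e e').symm
  have hle : ∀ {e e' : ℝ}, e ≤ e' → d ^ e' ≤ d ^ e := fun h => Dp76.dpow_le c.D.B n h
  set H := uH c.D.B c.D.lev c.w0 n with hH
  set Wa := uA c.D.B c.D.lev c.D.w c.w0 n with hWa
  set Wb := uB c.D.B c.D.lev c.D.w c.w0 n with hWb
  set Wy := uY c.D.B c.D.lev c.D.w c.w0 n with hWy
  have pH : 0 < H := uH_pos
  have pa : 0 < Wa := uA_pos hw1
  have pb : 0 < Wb := uB_pos hw2
  have py : 0 < Wy := uY_pos hw0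
  have ua : ∀ e, Wa / H * d ^ e = c.D.w 1 n 0 * d ^ (e - 2 * c.w0) := fun e => unit_a e
  have ub : ∀ e, Wb / H * d ^ e = c.D.w 2 n 0 * d ^ (e - 3 * c.w0) := fun e => unit_b e
  have uy : ∀ e, Wy / H * d ^ e = c.D.w 0 n 0 * d ^ (e - 4 * c.w0) := fun e => unit_y e
  have uz : ∀ e, d ^ e / H = rho (c.D.lev n 0) * d ^ (e - c.w0) := fun e => unit_z e
  obtain ⟨-, -, -, w7, -, -, w8, w9, -, w10, -, -⟩ := legalQ_iff.1 hl
  have hflag := ok.th.tp.flag n i hi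
  have hK0 : 0 < K := by linarith
  have hC0 : 0 < C1 := by rw [hC1]; positivity
  -- from the true sizes to the units
  have cvt : ∀ {A B : ℝ}, A / H ≤ B / H → A ≤ B := fun hAB => (div_le_div_iff_of_pos_right pH).1 hAB
  have kE : Wb * d ^ E 9 ≤ Wa * d ^ E 8 := by
    refine cvt ?_
    calc Wb * d ^ E 9 / H = Wb / H * d ^ E 9 := by ring
      _ = c.D.w 2 n 0 * d ^ (E 9 - 3 * c.w0) := ub _
      _ ≤ c.D.w 1 n 0 * d ^ (E 8 - 2 * c.w0) := gE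
      _ = Wa / H * d ^ E 8 := (ua _).symm
      _ = _ := by ring
  have kF : Wy * d ^ E 10 ≤ Wb * d ^ E 9 := by
    refine cvt ?_
    calc Wy * d ^ E 10 / H = Wy / H * d ^ E 10 := by ring
      _ = c.D.w 0 n 0 * d ^ (E 10 - 4 * c.w0) := uy _
      _ ≤ c.D.w 2 n 0 * d ^ (E 9 - 3 * c.w0) := gF
      _ = Wb / H * d ^ E 9 := (ub _).symm
      _ = _ := by ring
  have k1 : 2 * K * (Wy * |tau h (c.F n i)| * d ^ E 0 * d ^ E 8) ≤ 1 / 4096 * (Wb * d ^ E 9) := by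
    refine cvt ?_
    calc 2 * K * (Wy * |tau h (c.F n i)| * d ^ E 0 * d ^ E 8) / H =
          2 * K * (Wy / H * ((|tau h (c.F n i)| * d ^ E 0) * d ^ E 8)) := by ring
      _ ≤ 2 * K * (Wy / H * (d ^ G1 * d ^ E 8)) := by
          have := (hdp (E 8)).le
          gcongr
      _ = 2 * K * (c.D.w 0 n 0 * d ^ (G1 + E 8 - 4 * c.w0)) := by rw [hda, uy]
      _ = 1 / 4096 * (2 * K * 4096 * (c.D.w 0 n 0 * d ^ (G1 + E 8 - 4 * c.w0))) := by ring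
      _ ≤ 1 / 4096 * (c.D.w 2 n 0 * d ^ (E 9 - 3 * c.w0)) := by gcongr
      _ = 1 / 4096 * (Wb / H * d ^ E 9) := by rw [ub]
      _ = _ := by ring
  have k2 : 2 * K * (Wy * |h 2| * d ^ E 0) ≤ 1 / 4096 * Wb := by
    refine cvt ?_
    calc 2 * K * (Wy * |h 2| * d ^ E 0) / H = 2 * K * (Wy / H * (|h 2| * d ^ E 0)) := by ring
      _ ≤ 2 * K * (Wy / H * d ^ G2) := by gcongr
      _ = 2 * K * (c.D.w 0 n 0 * d ^ (G2 - 4 * c.w0)) := by rw [uy]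
      _ = 1 / 4096 * (2 * K * 4096 * (c.D.w 0 n 0 * d ^ (G2 - 4 * c.w0))) := by ring
      _ ≤ 1 / 4096 * (c.D.w 2 n 0 * d ^ (-(3 * c.w0))) := by gcongr
      _ = 1 / 4096 * (Wb / H * d ^ (0 : ℝ)) := by rw [ub, zero_sub]
      _ = _ := by rw [Real.rpow_zero]; ring
  have k3 : C1 * (Wy * |h 3| * d ^ E 8 * d ^ E 8) ≤ 1 / 4096 * (Wb * d ^ E 9) := by
    refine cvt ?_
    calc C1 * (Wy * |h 3| * d ^ E 8 * d ^ E 8) / H =
          C1 * (Wy / H * ((|h 3| * d ^ E 8) * d ^ E 8)) := by ring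
      _ ≤ C1 * (Wy / H * (d ^ G3 * d ^ E 8)) := by
          have := (hdp (E 8)).le
          gcongr
      _ = C1 * (c.D.w 0 n 0 * d ^ (G3 + E 8 - 4 * c.w0)) := by rw [hda, uy]
      _ = 1 / 4096 * (C1 * 4096 * (c.D.w 0 n 0 * d ^ (G3 + E 8 - 4 * c.w0))) := by ring
      _ ≤ 1 / 4096 * (c.D.w 2 n 0 * d ^ (E 9 - 3 * c.w0)) := by gcongr
      _ = 1 / 4096 * (Wb / H * d ^ E 9) := by rw [ub]
      _ = _ := by ring
  have k4 : C1 * (Wy * |h 3| * d ^ E 8) ≤ 1 / 4096 * Wa := by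
    refine cvt ?_
    calc C1 * (Wy * |h 3| * d ^ E 8) / H = C1 * (Wy / H * (|h 3| * d ^ E 8)) := by ring
      _ ≤ C1 * (Wy / H * d ^ G3) := by gcongr
      _ = C1 * (c.D.w 0 n 0 * d ^ (G3 - 4 * c.w0)) := by rw [uy]
      _ = 1 / 4096 * (C1 * 4096 * (c.D.w 0 n 0 * d ^ (G3 - 4 * c.w0))) := by ring
      _ ≤ 1 / 4096 * (c.D.w 1 n 0 * d ^ (-(2 * c.w0))) := by gcongr
      _ = 1 / 4096 * (Wa / H * d ^ (0 : ℝ)) := by rw [ua, zero_sub]
      _ = _ := by rw [Real.rpow_zero]; ring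
  have kr : 6 * c.D.r0 n ≤ C1 * (Wy / H * d ^ E 10) := by rw [uy]; exact hr
  have kρ : ρ ≤ 2 * K * d ^ E 0 / H := by
    calc ρ ≤ 2 * (K * (rho (c.D.lev n 0) * d ^ (E 0 - c.w0))) := hρ
      _ = 2 * K * (d ^ E 0 / H) := by rw [uz]; ring
      _ = _ := by ring
  have hS := stage_sheet (π := c.π) (H := H) (Wa := Wa) (Wb := Wb) (Wy := Wy) (K := K) (C1 := C1)
    (ρ := ρ) (z0 := z0) (r0 := c.D.r0 n) (zi := i.2) (ei := c.eE n i) (Fa := c.fA n i)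
    (Fb := c.fB n i) (c := c.D.L n i.1) (h := h) (S := fun k => d ^ E k) pH pa pb py
    hflag.1 hflag.2.1 hflag.2.2 h4 h5 (fun k => hdp _) hK hC1
    (by rw [hda]; exact hle w8) (by rw [hda]; exact hle w9)
    (by rw [hda]; exact hle w10) (by rw [hda]; exact hle w7)
    hρ0 kρ hz kE kF kr k1 k2 k3 k4
  obtain ⟨t, s1, s2, s3, s3', s4, s5, s6⟩ := hS
  refine ⟨t, s1, s2, ?_, ?_, ?_, ?_, fun y hy => ?_⟩
  · rw [← uy]; exact s3
  · rw [← uy]; exact s3'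
  · rw [← ua]; exact s4
  · rw [← ub]; exact s5
  · exact s6 (c.D.L n y.1) y.2 (c.eE n y) (c.fA n y) (c.fB n y) fun k => hy k

/-- the three cells around a point -/
theorem cell_dist {l : ℕ} {J : ℤ} {z zi : ℝ} (hJ : J ∈ Finset.Icc (zc l zi - 1) (zc l zi + 1))
    (h1 : zl l J ≤ z) (h2 : z ≤ zl l J + rho l) : |z - zi| ≤ 2 * rho l := by
  rw [Finset.mem_Icc] at hJ
  obtain ⟨a1, a2⟩ := mem_cell (rfl : zc l zi = zc l zi)
  have hρ : 0 < rho l := rho_pos _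
  have b1 : ((zc l zi : ℤ) : ℝ) - 1 ≤ J := by exact_mod_cast hJ.1
  have b2 : (J : ℝ) ≤ (zc l zi : ℤ) + 1 := by exact_mod_cast hJ.2
  have e1 := zl_add l (zc l zi) J
  have c1 : -(1 * rho l) ≤ ((J : ℝ) - (zc l zi : ℤ)) * rho l := by
    have : (-1 : ℝ) ≤ (J : ℝ) - (zc l zi : ℤ) := by linarith
    have := mul_le_mul_of_nonneg_right this hρ.le
    linarith
  have c2 : ((J : ℝ) - (zc l zi : ℤ)) * rho l ≤ 1 * rho l :=
    mul_le_mul_of_nonneg_right (by linarith) hρ.le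
  rw [abs_le]
  constructor <;> linarith

/-- points at distance at most one cell -/
theorem cell_near {l : ℕ} {z z' : ℝ} (h : |z' - z| ≤ rho l) :
    zc l z' ∈ Finset.Icc (zc l z - 1) (zc l z + 1) := by
  refine PqG464.zc_near ?_
  have h1 := two_rho l
  calc |z' - z| * 2 ^ l ≤ rho l * 2 ^ l := mul_le_mul_of_nonneg_right h (by positivity)
    _ = 1 := by rw [mul_comm]; exact h1

/-- the side of a window box -/
theorem side_pow {B B' : Base} {w : ℕ → ℝ} (hb : ∀ n, B'.d n = B.d n ^ w n) (n : ℕ) (a t : ℝ) :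
    B.d n ^ a * B'.d n ^ t = B.d n ^ (a + w n * t) := by
  rw [hb, ← Real.rpow_mul (B.pos n).le, ← Real.rpow_add (B.pos n)]

/-- record value -/
theorem rec_DQ {η : ℝ} {c : LCtx} (ok : c.Ok η) {ξ : ℝ} (h0 : 0 ≤ ξ) (h1 : ξ < 1) :
    c.c₀ + DQ c.p.g 0 c.p.q c.w0 (c.X ξ) = c.ν (c.X ξ) := by
  rw [rec_val ok h0 h1, LCtx.X, DQ_DN]

/-- widths comparable to the marks are in the range of the tests -/
theorem ev_rng {B : Base} {wr cr : Fin 3 → ℕ → ℝ} {w : Fin 3 → ℕ → ℚ → ℝ} (hR : Rng B wr cr w)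
    (hw : ∀ k, ∀ᶠ n in (U : Filter ℕ), 0 < w k n 0) (M : ℝ) {K1 K2 : ℝ} (h1 : 0 < K1)
    (h2 : 0 < K2) : ∀ᶠ n in (U : Filter ℕ), ∀ (k : Fin 3) (y a : ℝ), |y| ≤ M →
      K1 * (w k n 0 * B.d n ^ y) ≤ a → a ≤ K2 * (w k n 0 * B.d n ^ y) →
        wr k n ≤ a ∧ a ≤ cr k n := by
  have hk : ∀ᶠ n in (U : Filter ℕ), ∀ k : Fin 3, 0 < w k n 0 ∧
      wr k n ≤ B.d n ^ (M + 1) * w k n 0 ∧ w k n 0 ≤ B.d n ^ (M + 1) * cr k n := by
    rw [eventually_all]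
    intro k
    filter_upwards [hw k, hR (M + 1) k 0 le_rfl zero_le_one] with n a b using ⟨a, b⟩
  filter_upwards [hk, B.lim0.eventually (gt_mem_nhds h1),
    B.lim0.eventually (gt_mem_nhds (inv_pos.2 h2))] with n hk d1 d2 k y a hy ha1 ha2
  obtain ⟨w0, r1, r2⟩ := hk k
  have hdp : ∀ t : ℝ, 0 < B.d n ^ t := fun t => Real.rpow_pos_of_pos (B.pos n) t
  have hle : ∀ {s t : ℝ}, s ≤ t → B.d n ^ t ≤ B.d n ^ s := fun h =>
    Real.rpow_le_rpow_of_exponent_ge (B.pos n) (B.lt n).le h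
  obtain ⟨y1, y2⟩ := abs_le.1 hy
  have e1 : B.d n ^ (M + 1) = B.d n ^ M * B.d n := by
    rw [Real.rpow_add (B.pos n), Real.rpow_one]
  constructor
  · refine r1.trans (le_trans ?_ ha1)
    calc B.d n ^ (M + 1) * w k n 0 = B.d n * (w k n 0 * B.d n ^ M) := by rw [e1]; ring
      _ ≤ K1 * (w k n 0 * B.d n ^ M) :=
          mul_le_mul_of_nonneg_right d1.le (mul_pos w0 (hdp _)).le
      _ ≤ K1 * (w k n 0 * B.d n ^ y) :=
          mul_le_mul_of_nonneg_left (mul_le_mul_of_nonneg_left (hle y2) w0.le) h1.le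
  · refine ha2.trans ?_
    have hc : 0 < cr k n := by
      by_contra hcon
      push Not at hcon
      have := mul_nonpos_of_nonneg_of_nonpos (hdp (M + 1)).le hcon
      linarith
    have d2' : K2 * B.d n ≤ 1 := by
      have := mul_le_mul_of_nonneg_left d2.le h2.le
      rwa [mul_inv_cancel₀ h2.ne'] at this
    calc K2 * (w k n 0 * B.d n ^ y) ≤ K2 * (w k n 0 * B.d n ^ (-M)) :=
          mul_le_mul_of_nonneg_left (mul_le_mul_of_nonneg_left (hle y1) w0.le) h2.le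
      _ ≤ K2 * (B.d n ^ (M + 1) * cr k n * B.d n ^ (-M)) :=
          mul_le_mul_of_nonneg_left (mul_le_mul_of_nonneg_right r2 (hdp _).le) h2.le
      _ = K2 * B.d n * cr k n * (B.d n ^ M * B.d n ^ (-M)) := by rw [e1]; ring
      _ = K2 * B.d n * cr k n := by
          rw [← Real.rpow_add (B.pos n), add_neg_cancel, Real.rpow_zero, mul_one]
      _ ≤ 1 * cr k n := mul_le_mul_of_nonneg_right d2' hc.le
      _ = _ := one_mul _

theorem bd_exp {a b c v u : ℝ} (hv0 : 0 ≤ v) (hv1 : v ≤ 1) (hu0 : 0 ≤ u) (hu1 : u ≤ 1) :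
    |a * v - u * b + u * c| ≤ |a| + |b| + |c| := by
  have h1 : |a * v| ≤ |a| := by
    rw [abs_mul, abs_of_nonneg hv0]; exact mul_le_of_le_one_right (abs_nonneg _) hv1
  have h2 : |u * b| ≤ |b| := by
    rw [abs_mul, abs_of_nonneg hu0]; exact mul_le_of_le_one_left (abs_nonneg _) hu1
  have h3 : |u * c| ≤ |c| := by
    rw [abs_mul, abs_of_nonneg hu0]; exact mul_le_of_le_one_left (abs_nonneg _) hu1
  have h4 := abs_add_le (a * v - u * b) (u * c)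
  have h5 := abs_sub (a * v) (u * b)
  linarith

/-- exponents of the count -/
theorem fin_exp {η : ℝ} {c : LCtx} (ok : c.Ok η) {v u T1 e : ℝ} (h0 : 0 ≤ v) (h1 : v < 1)
    (p : Fin 11 → ℝ) {y0 y8 y9 y10 : ℝ} (e0 : y0 = v + p 0 * u)
    (e8 : y8 = (1 - c.p.θ 1) * v - u * T1 + u * p 8)
    (e9 : y9 = (1 - c.p.θ 2) * v - 2 * (u * T1) + u * p 9)
    (e10 : y10 = (1 - c.p.θ 0) * v - 2 * (u * T1) + u * p 10) :
    y10 + y9 + y8 + (c.p.q 0 * (y10 - y0) + c.p.q 1 * (y8 - y0) + c.p.q 2 * (y9 - y0)) +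
        ((1 - 0) - c.p.g) * y0 + -((1 - 0) + c.c₀ + e) =
      -(c.ν (c.X v)) + u * (-(DL c.p (bT T1)) - DL c.p p) - e := by
  have hr := rec_DQ ok h0 h1
  rw [LCtx.X, DQ_DN] at hr
  rw [LCtx.X, ← hr, e8, e9, e10, e0]
  simp only [DN, DL, bT, nL, Matrix.cons_val]
  ring

/-- numbers of the count -/
theorem fin_num {B B' : Base} {n : ℕ} {u : ℝ} (hBp : ∀ t : ℝ, B'.d n ^ t = B.d n ^ (u * t))
    {N vm C3 CK rt Y yc s e ε νX M : ℝ} (hvm : 0 < vm) (hC3 : 0 ≤ C3) (hCK : 0 ≤ CK)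
    (hN : N ≤ (C3 * vm * B.d n ^ Y / vm) * rt * B.d n ^ s) (hrt : rt ≤ CK * B.d n ^ yc)
    (hexp : Y + yc + s = -νX + u * M - e)
    (h1 : C3 * CK ≤ B'.d n ^ (-(ε / 2))) (h2 : B.d n ^ (-e) ≤ B'.d n ^ (-(ε / 2))) :
    N ≤ B.d n ^ (-νX) * B'.d n ^ (M - ε) := by
  have hdp : ∀ t : ℝ, 0 < B.d n ^ t := fun t => Dp76.dpow_pos B n t
  have hbp : ∀ t : ℝ, 0 < B'.d n ^ t := fun t => Dp76.dpow_pos B' n t
  have hda : ∀ s t : ℝ, B.d n ^ s * B.d n ^ t = B.d n ^ (s + t) := fun s t =>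
    (Dp76.dpow_add B n s t).symm
  have hba : ∀ s t : ℝ, B'.d n ^ s * B'.d n ^ t = B'.d n ^ (s + t) := fun s t =>
    (Dp76.dpow_add B' n s t).symm
  have e1 : C3 * vm * B.d n ^ Y / vm = C3 * B.d n ^ Y := by
    rw [mul_assoc, mul_comm vm, ← mul_assoc, mul_div_assoc, div_self hvm.ne', mul_one]
  rw [e1] at hN
  have p1 : 0 ≤ C3 * B.d n ^ Y := mul_nonneg hC3 (hdp _).le
  calc N ≤ C3 * B.d n ^ Y * rt * B.d n ^ s := hN
    _ ≤ C3 * B.d n ^ Y * (CK * B.d n ^ yc) * B.d n ^ s :=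
        mul_le_mul_of_nonneg_right (mul_le_mul_of_nonneg_left hrt p1) (hdp _).le
    _ = C3 * CK * (B.d n ^ Y * B.d n ^ yc * B.d n ^ s) := by ring
    _ = C3 * CK * (B.d n ^ (-νX) * B.d n ^ (u * M) * B.d n ^ (-e)) := by
        rw [hda, hda, hexp, hda, hda]; ring_nf
    _ = C3 * CK * B.d n ^ (-e) * (B.d n ^ (-νX) * B'.d n ^ M) := by rw [← hBp]; ring
    _ ≤ B'.d n ^ (-(ε / 2)) * B'.d n ^ (-(ε / 2)) * (B.d n ^ (-νX) * B'.d n ^ M) :=
        mul_le_mul_of_nonneg_right (mul_le_mul h1 h2 (hdp _).le (hbp _).le)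
          (mul_pos (hdp _) (hbp _)).le
    _ = B.d n ^ (-νX) * (B'.d n ^ (-(ε / 2) + -(ε / 2)) * B'.d n ^ M) := by rw [hba]; ring
    _ = _ := by rw [hba]; congr 2; ring

open Classical in
set_option maxHeartbeats 8000000 in
/-- **number of incidences in a box of the gauge chart** (hypothesis `hPD` of `exists_extG`) -/
theorem hPD_L {η : ℝ} {c : LCtx} (ok : c.Ok η) : ∃ Hs : ℕ → ℝ, c.D.B.Sub Hs ∧
    ∀ {B' : Base} {J : ℕ → Finset (ℕ × ℝ)} {ξ w : ℕ → ℝ} {lam lo : (Fin 11 → ℝ) → ℝ}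
      {Cl E : ℕ → Finset (ℕ × ℝ)} {s₀ : ℕ → ℕ × ℝ} {h : ℕ → Fin 6 → ℝ} {ηg : ℕ → ℝ} {T1 x R' : ℝ},
      GWin c T1 x B' J ξ w lam lo Cl E s₀ h ηg → B'.Sub Hs →
      ∀ p ∈ PDz (c.p.θ 1) T1 R', ∀ ε : ℝ, 0 < ε → ∀ᶠ n in (U : Filter ℕ), ∀ A ⊆ E n, ∀ i ∈ E n,
        (∀ j ∈ A, wbox c.D.B B' (coG c.F h) (XG (c.XB T1 ξ w)) n p (cK0 monQ 2) i j) →
        (A.card : ℝ) ≤ c.TB T1 B' ξ lam n *
          B'.d n ^ (-((DL c.p (bT T1) - lam (bT T1)) + DL c.p p + ε)) := by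
  have hM := ok.th.tp.pre.mka
  have hq : ∀ j, 0 ≤ c.p.q j := by
    intro j
    fin_cases j
    · exact ok.th.tp.ok.q0.1
    · exact ok.th.tp.ok.g0.2.le
    · exact ok.th.tp.ok.q2.1.le
  obtain ⟨e, he0, heS, hcount⟩ := count_s3 (L := c.D.L) (r0 := c.D.r0) (q := c.p.q) hM hq
    ok.th.comb ok.th.ext.sub
  refine ⟨fun n => c.D.B.d n ^ (-(e n)), heS, ?_⟩
  intro B' J ξ w lam lo Cl E s₀ h ηg T1 x R' W hSub p hp ε hε
  obtain ⟨ξ₀, h0, h1, hξ⟩ := W.rw.ξlim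
  have hw := W.rw.wlim
  have hwp : ∀ n, 0 < w n := W.cls.w0
  have hbase : ∀ n, B'.d n = c.D.B.d n ^ w n := W.cls.base
  have hpL : p ∈ Leg monQ R' := hp.1
  have G := W.gau
  -- `e → 0`
  have het : Tendsto e U (𝓝 0) := by
    rw [Metric.tendsto_nhds]
    intro δ hδ
    filter_upwards [End403.sub_le_rpow heS (half_pos hδ)] with n hn
    rw [Real.dist_eq, sub_zero, abs_of_pos (he0 n)]
    by_contra hcon
    push Not at hcon
    have h2 : c.D.B.d n ^ (-(δ / 2)) < c.D.B.d n ^ (-(e n)) :=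
      Real.rpow_lt_rpow_of_exponent_gt (c.D.B.pos n) (c.D.B.lt n) (by linarith)
    exact absurd hn.2 (not_le.2 h2)
  set K0 : ℝ := cK0 monQ 2 with hK0d
  have hK01 : 1 ≤ K0 := cK0_one (by norm_num)
  set K : ℝ := triC monQ 2 K0 with hKd
  have hK0K : K0 ≤ K := triC_ge (by norm_num) hK01
  have hK : 1 ≤ K := hK01.trans hK0K
  set C1 : ℝ := 21 * K ^ 3 with hC1
  have hC1p : 21 ≤ C1 := by
    have : 1 ≤ K ^ 3 := one_le_pow₀ hK
    rw [hC1]; linarith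
  set Q : ℝ := c.p.q 0 + c.p.q 1 + c.p.q 2 with hQd
  set C4 : ℝ := (12 * C1) ^ 3 * (12 * C1) ^ Q * (2 * K) ^ |(1 - 0) - c.p.g| with hC4
  have hC4p : 0 < C4 := by
    have h1 : 0 < 12 * C1 := by linarith
    have h2 : 0 < 2 * K := by linarith
    rw [hC4]
    exact mul_pos (mul_pos (pow_pos h1 3) (Real.rpow_pos_of_pos h1 _)) (Real.rpow_pos_of_pos h2 _)
  have hLL1 := ok.pat.2.2.1
  have hLL2 := ok.pat.2.2.2
  have hEI : ∀ᶠ n in (U : Filter ℕ), E n ⊆ c.I1 n := by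
    filter_upwards [W.esub, W.cls.csub, W.rw.Jsub] with n a b d using a.trans (b.trans d)
  have hp10 : c.p.θ 1 = 1 → p 10 - 2 * T1 ≤ 0 := fun h => by have := hp.2 h; linarith
  have hwk : ∀ k, ∀ᶠ n in (U : Filter ℕ), 0 < c.D.w k n 0 := fun k => (mk_w0 ok).2.pos k
  obtain ⟨M, hM0, hM1, hM2⟩ : ∃ M : ℝ, |1 - c.p.θ 0| + |2 * T1| + |p 10| ≤ M ∧
      |1 - c.p.θ 1| + |T1| + |p 8| ≤ M ∧ |1 - c.p.θ 2| + |2 * T1| + |p 9| ≤ M :=
    ⟨max (|1 - c.p.θ 0| + |2 * T1| + |p 10|) (max (|1 - c.p.θ 1| + |T1| + |p 8|)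
      (|1 - c.p.θ 2| + |2 * T1| + |p 9|)), le_max_left _ _,
      (le_max_left _ _).trans (le_max_right _ _), (le_max_right _ _).trans (le_max_right _ _)⟩
  have a1 : ∀ᶠ n in (U : Filter ℕ), (∀ j : Fin 3, 0 < c.D.w j n 0) ∧ 0 < ξ n ∧ ξ n < 1 := by
    filter_upwards [(mk_w0 ok).2.pos 0, (mk_w0 ok).2.pos 1, (mk_w0 ok).2.pos 2,
      hξ.eventually (lt_mem_nhds h0), hξ.eventually (gt_mem_nhds h1)] with n b0 b1 b2 b3 b4
    refine ⟨fun j => ?_, b3, b4⟩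
    fin_cases j
    · exact b0
    · exact b1
    · exact b2
  filter_upwards [a1, hEI, tight_XB (T1 := T1) ok h0 h1 hξ hw, hcount,
    vm_eq hM le_rfl zero_le_one,
    gapZ ok h0 h1 hξ hw hK (p 0),
    gapE ok h1 hξ hw 1 (p 9 - p 8 - T1),
    gapF ok h0 hξ hw 1 (p 10 - p 9),
    gapF ok h0 hξ hw (2 * K * 4096) (x - 1 + p 0 + p 8 - p 9),
    gapF ok h0 hξ hw (2 * K * 4096) (p 0 - 1),
    gapF ok h0 hξ hw (C1 * 4096) (-1 + 2 * p 8 - p 9),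
    gapFE ok h0 h1 hξ hw (C := C1 * 4096) (by positivity) (p 8 - 1 - T1),
    gapR ok h0 h1 hξ hw hwp (C := C1) (t := p 10 - 2 * T1) (by linarith) hp10,
    gapW ok h1 hξ hw het (12 * C1) (p 8 - T1 - p 0),
    G.tau, G.b2 1 one_pos, G.b3 1 one_pos, G.bη 1 one_pos,
    nb_closeL ok W p, End403.sub_le_rpow hSub (half_pos hε),
    ev_const_le B' hC4p (half_pos hε),
    ev_rng ok.th.tp.wrs hwk M (K1 := C1 / 6) (K2 := 12 * C1) (by linarith) (by linarith),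
    hw.eventually (gt_mem_nhds (zero_lt_one' ℝ))] with
    n hpos hEI ht hcnt hvm gz gE gF g1 g2 g3 g4 gR gW htau hb2 hb3 hbη hnb hHs hC4e hrng hu1
    A hA i hi hbox
  obtain ⟨hwpos, hξ0, hξ1⟩ := hpos
  obtain ⟨gz1, gz2, gz3⟩ := gz
  have hiI : i ∈ c.D.I n := ok.th.ext.sub n (hEI hi)
  have hAI : A ⊆ c.I1 n := hA.trans hEI
  set d := c.D.B.d n with hd
  have hdp : ∀ t : ℝ, 0 < d ^ t := fun t => Dp76.dpow_pos c.D.B n t
  have hda : ∀ s t : ℝ, d ^ s * d ^ t = d ^ (s + t) := fun s t => (Dp76.dpow_add c.D.B n s t).symm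
  have hle : ∀ {s t : ℝ}, s ≤ t → d ^ t ≤ d ^ s := fun h => Dp76.dpow_le c.D.B n h
  set u := w n with hu
  set v := ξ n with hv
  have hup : 0 < u := hwp n
  have hside : ∀ a t : ℝ, d ^ a * B'.d n ^ t = d ^ (a + u * t) := fun a t =>
    side_pow hbase n a t
  have hBp : ∀ t : ℝ, B'.d n ^ t = d ^ (u * t) := fun t => by
    have := hside 0 t
    rwa [Real.rpow_zero, one_mul, zero_add] at this
  set X := c.XB T1 ξ w n with hX
  set Ee : Fin 11 → ℝ := XG (c.XB T1 ξ w) n + u • p with hEe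
  have hEk : ∀ k, Ee k = XG (c.XB T1 ξ w) n k + u * p k := fun k => by
    simp [hEe]
  have hl : Legal monQ Ee := legal_add_smul (legal_XG ht) hpL.1 hup.le
  have E0 : Ee 0 = c.w0 + v + u * p 0 := by
    rw [hEk, XG_of_ne (by decide), XB_0]
  have E8 : Ee 8 = 2 * c.w0 + (1 - c.p.θ 1) * v - u * T1 + u * p 8 := by
    rw [hEk, XG_of_ne (by decide), XB_8]
  have E9 : Ee 9 = 3 * c.w0 + (1 - c.p.θ 2) * v - 2 * (u * T1) + u * p 9 := by
    rw [hEk, XG_of_ne (by decide), XB_9]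
  have E10 : Ee 10 = 4 * c.w0 + (1 - c.p.θ 0) * v - 2 * (u * T1) + u * p 10 := by
    rw [hEk, XG_of_ne (by decide), XB_10]
  have hθ2 : c.p.θ 2 = 2 * c.p.θ 1 := hLL2
  have hθ0 : c.p.θ 0 = 2 * c.p.θ 1 - 1 := by linarith
  have X4 : X 4 = 2 * c.w0 + (c.p.θ 1 - c.p.θ 0) * v - u * T1 := XB_4
  have X3 : X 3 = c.w0 + (c.p.θ 2 - c.p.θ 0) * v := XB_3
  have EX0 : Ee 0 = X 0 + u * p 0 := by rw [hEk, XG_of_ne (by decide)]
  have EX8 : Ee 8 = X 8 + u * p 8 := by rw [hEk, XG_of_ne (by decide)]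
  -- shifting an inequality
  have shift : ∀ {C a b s : ℝ} (t : ℝ), C * (a * d ^ s) ≤ b → C * (a * d ^ (s + t)) ≤ b * d ^ t := by
    intro C a b s t hab
    calc C * (a * d ^ (s + t)) = (C * (a * d ^ s)) * d ^ t := by rw [← hda]; ring
      _ ≤ b * d ^ t := mul_le_mul_of_nonneg_right hab (hdp _).le
  -- the level
  obtain ⟨l, hl0, hl1, hxl, hlx⟩ := exists_cell gz3 gz1 gz2
  have hρl : 0 < rho l := rho_pos _
  have hρ0 : 0 < rho (c.D.lev n 0) := rho_pos _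
  have e0 : Ee 0 - c.w0 = v + p 0 * u := by rw [E0]; ring
  -- the gauge
  have hτ : |tau (h n) (c.F n i)| * d ^ Ee 0 ≤ d ^ (X 4 + u * (x - 1) + u * p 0) := by
    calc |tau (h n) (c.F n i)| * d ^ Ee 0 = |tau (h n) (c.F n i)| * d ^ X 0 * d ^ (u * p 0) := by
          rw [EX0, ← hda]; ring
      _ ≤ ηg n * d ^ X 0 * d ^ (u * p 0) :=
          mul_le_mul_of_nonneg_right (mul_le_mul_of_nonneg_right (htau i hi) (hdp _).le) (hdp _).le
      _ ≤ B'.d n ^ (x - 1) * d ^ X 4 * d ^ (u * p 0) :=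
          mul_le_mul_of_nonneg_right hbη (hdp _).le
      _ = _ := by rw [hBp, hda, hda]; congr 1; ring
  have hh2 : |h n 2| * d ^ Ee 0 ≤ d ^ (X 3 + u * (-1) + u * p 0) := by
    calc |h n 2| * d ^ Ee 0 = |h n 2| * d ^ X 0 * d ^ (u * p 0) := by
          rw [EX0, ← hda]; ring
      _ ≤ B'.d n ^ (-1 : ℝ) * d ^ X 3 * d ^ (u * p 0) :=
          mul_le_mul_of_nonneg_right hb2 (hdp _).le
      _ = _ := by rw [hBp, hda, hda]; congr 1; ring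
  have hh3 : |h n 3| * d ^ Ee 8 ≤ d ^ (X 4 + u * (-1) + u * p 8) := by
    calc |h n 3| * d ^ Ee 8 = |h n 3| * d ^ X 8 * d ^ (u * p 8) := by
          rw [EX8, ← hda]; ring
      _ ≤ B'.d n ^ (-1 : ℝ) * d ^ X 4 * d ^ (u * p 8) :=
          mul_le_mul_of_nonneg_right hb3 (hdp _).le
      _ = _ := by rw [hBp, hda, hda]; congr 1; ring
  have kE : c.D.w 2 n 0 * d ^ (Ee 9 - 3 * c.w0) ≤ c.D.w 1 n 0 * d ^ (Ee 8 - 2 * c.w0) := by
    have := shift (Ee 8 - 2 * c.w0) gE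
    rw [one_mul] at this
    refine le_trans (le_of_eq ?_) this
    congr 2
    rw [E9, E8, hθ2]; ring
  have kF : c.D.w 0 n 0 * d ^ (Ee 10 - 4 * c.w0) ≤ c.D.w 2 n 0 * d ^ (Ee 9 - 3 * c.w0) := by
    have := shift (Ee 9 - 3 * c.w0) gF
    rw [one_mul] at this
    refine le_trans (le_of_eq ?_) this
    congr 2
    rw [E9, E10, hθ2, hθ0]; ring
  have k1 : 2 * K * 4096 * (c.D.w 0 n 0 * d ^ (X 4 + u * (x - 1) + u * p 0 + Ee 8 - 4 * c.w0)) ≤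
      c.D.w 2 n 0 * d ^ (Ee 9 - 3 * c.w0) := by
    refine le_trans (le_of_eq ?_) (shift (Ee 9 - 3 * c.w0) g1)
    congr 3
    rw [E9, E8, X4, hθ2, hθ0]; ring
  have k2 : 2 * K * 4096 * (c.D.w 0 n 0 * d ^ (X 3 + u * (-1) + u * p 0 - 4 * c.w0)) ≤
      c.D.w 2 n 0 * d ^ (-(3 * c.w0)) := by
    refine le_trans (le_of_eq ?_) (shift (-(3 * c.w0)) g2)
    congr 3
    rw [X3, hθ2, hθ0]; ring
  have k3 : C1 * 4096 * (c.D.w 0 n 0 * d ^ (X 4 + u * (-1) + u * p 8 + Ee 8 - 4 * c.w0)) ≤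
      c.D.w 2 n 0 * d ^ (Ee 9 - 3 * c.w0) := by
    refine le_trans (le_of_eq ?_) (shift (Ee 9 - 3 * c.w0) g3)
    congr 3
    rw [E9, E8, X4, hθ2, hθ0]; ring
  have k4 : C1 * 4096 * (c.D.w 0 n 0 * d ^ (X 4 + u * (-1) + u * p 8 - 4 * c.w0)) ≤
      c.D.w 1 n 0 * d ^ (-(2 * c.w0)) := by
    refine le_trans (le_of_eq ?_) (shift (-(2 * c.w0)) g4)
    congr 3
    rw [X4, hθ0]; ring
  have kR : 6 * c.D.r0 n ≤ C1 * (c.D.w 0 n 0 * d ^ (Ee 10 - 4 * c.w0)) := by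
    refine gR.trans (le_of_eq ?_)
    congr 3
    rw [E10]; ring
  have kW : 12 * (C1 * (c.D.w 1 n 0 * d ^ (Ee 8 - 2 * c.w0))) ≤ d ^ (e n) * rho l := by
    have h5 := shift (v + p 0 * u) gW
    calc 12 * (C1 * (c.D.w 1 n 0 * d ^ (Ee 8 - 2 * c.w0))) =
          12 * C1 * (c.D.w 1 n 0 * d ^ (-(c.p.θ 1 * v) + (p 8 - T1 - p 0) * u + (v + p 0 * u))) := by
          rw [E8]; ring_nf
      _ ≤ d ^ (e n) * rho (c.D.lev n 0) * d ^ (v + p 0 * u) := h5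
      _ = d ^ (e n) * (1 * (rho (c.D.lev n 0) * d ^ (v + p 0 * u))) := by ring
      _ ≤ d ^ (e n) * (K * (rho (c.D.lev n 0) * d ^ (v + p 0 * u))) :=
          mul_le_mul_of_nonneg_left (mul_le_mul_of_nonneg_right hK
            (mul_pos hρ0 (hdp _)).le) (hdp _).le
      _ ≤ d ^ (e n) * rho l := mul_le_mul_of_nonneg_left hxl (hdp _).le
  have hC12 : 0 ≤ 12 * C1 := by linarith
  have hρlow : rho (c.D.lev n 0) * d ^ (v + p 0 * u) ≤ rho l := by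
    refine le_trans ?_ hxl
    exact le_mul_of_one_le_left (mul_pos hρ0 (hdp _)).le hK
  set Y : ℝ := (Ee 10 - 4 * c.w0) + (Ee 9 - 3 * c.w0) + (Ee 8 - 2 * c.w0) +
    (c.p.q 0 * (Ee 10 - 4 * c.w0 - (v + p 0 * u)) + c.p.q 1 * (Ee 8 - 2 * c.w0 - (v + p 0 * u)) +
      c.p.q 2 * (Ee 9 - 3 * c.w0 - (v + p 0 * u))) with hY
  set V : ℝ := (12 * C1) ^ 3 * (12 * C1) ^ Q * c.D.vm n 0 * d ^ Y with hV
  have hvmp : 0 < c.D.vm n 0 := by
    rw [hvm]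
    unfold capQ
    have b0 := hwpos 0
    have b1 := hwpos 1
    have b2 := hwpos 2
    have c0 := Real.rpow_pos_of_pos (div_pos b0 hρ0) (c.p.q 0)
    have c1 := Real.rpow_pos_of_pos (div_pos b1 hρ0) (c.p.q 1)
    have c2 := Real.rpow_pos_of_pos (div_pos b2 hρ0) (c.p.q 2)
    positivity
  have hV0 : 0 ≤ V := by
    have := Real.rpow_nonneg hC12 Q
    have := (hdp Y).le
    have := hvmp.le
    rw [hV]
    positivity
  -- the cells
  have hcell : ∀ y ∈ A, zc l y.2 ∈ Finset.Icc (zc l i.2 - 1) (zc l i.2 + 1) := by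
    intro y hy
    refine cell_near ?_
    have h5 := hbox y hy 0
    rw [hside, ← hEk] at h5
    have h6 : coG c.F h n i y 0 = uH c.D.B c.D.lev c.w0 n * y.2 - uH c.D.B c.D.lev c.w0 n * i.2 :=
      rfl
    have hup' : 0 < uH c.D.B c.D.lev c.w0 n := uH_pos
    rw [h6, ← mul_sub, abs_mul, abs_of_pos hup'] at h5
    calc |y.2 - i.2| ≤ K0 * d ^ Ee 0 / uH c.D.B c.D.lev c.w0 n := by
          rw [le_div_iff₀ hup']; linarith
      _ = K0 * (d ^ Ee 0 / uH c.D.B c.D.lev c.w0 n) := by ring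
      _ = K0 * (rho (c.D.lev n 0) * d ^ (v + p 0 * u)) := by rw [unit_z, e0]
      _ ≤ K * (rho (c.D.lev n 0) * d ^ (v + p 0 * u)) :=
          mul_le_mul_of_nonneg_right hK0K (mul_pos hρ0 (hdp _)).le
      _ ≤ rho l := hxl
  have hN := hcnt l hl0 hl1 A (zc l i.2) V hAI hV0 hcell (fun J hJ => by
    obtain ⟨t, s1, s2, s3, s3', s4, s5, s6⟩ := box_stage (z0 := zl l J) (ρ := rho l) ok (G.h4 n)
      (G.h5 n) hl hK hC1 (hwpos 0) (hwpos 1) (hwpos 2) hiI hρl.le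
      (by rw [e0]; exact hlx) (fun z z1 z2 => cell_dist hJ z1 z2) kE kF kR hτ hh2 hh3 k1 k2 k3 k4
    have y10 : |Ee 10 - 4 * c.w0| ≤ M := by
      refine le_trans (le_of_eq (congrArg abs ?_))
        ((bd_exp (a := 1 - c.p.θ 0) (b := 2 * T1) (c := p 10) hξ0.le hξ1.le hup.le hu1.le).trans hM0)
      rw [E10]; ring
    have y8 : |Ee 8 - 2 * c.w0| ≤ M := by
      refine le_trans (le_of_eq (congrArg abs ?_))
        ((bd_exp (a := 1 - c.p.θ 1) (b := T1) (c := p 8) hξ0.le hξ1.le hup.le hu1.le).trans hM1)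
      rw [E8]; ring
    have y9 : |Ee 9 - 3 * c.w0| ≤ M := by
      refine le_trans (le_of_eq (congrArg abs ?_))
        ((bd_exp (a := 1 - c.p.θ 2) (b := 2 * T1) (c := p 9) hξ0.le hξ1.le hup.le hu1.le).trans hM2)
      rw [E9]; ring
    have q0 : 0 < c.D.w 0 n 0 * d ^ (Ee 10 - 4 * c.w0) := mul_pos (hwpos 0) (hdp _)
    have q8 : 0 < c.D.w 1 n 0 * d ^ (Ee 8 - 2 * c.w0) := mul_pos (hwpos 1) (hdp _)
    have q9 : 0 < c.D.w 2 n 0 * d ^ (Ee 9 - 3 * c.w0) := mul_pos (hwpos 2) (hdp _)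
    have hC10 : 0 ≤ C1 := by linarith
    refine ⟨t, s1, s2, ?_, ?_, ?_, fun y hyI hyN hyJ => s6 y fun k => ?_⟩
    · rw [s4]; exact kW
    · have m0 := mul_nonneg hC10 q0.le
      have m8 := mul_nonneg hC10 q8.le
      have m9 := mul_nonneg hC10 q9.le
      intro k
      fin_cases k
      · exact hrng 0 _ _ y10 (by show _ ≤ t.a; linarith) (by show t.a ≤ _; linarith)
      · exact hrng 1 _ _ y8 (by show _ ≤ t.w 1; linarith) (by show t.w 1 ≤ _; linarith)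
      · exact hrng 2 _ _ y9 (by show _ ≤ t.w 2; linarith) (by show t.w 2 ≤ _; linarith)
    · have hn0 : 0 ≤ t.w 1 := by
        rw [s4]
        have := (hdp (Ee 8 - 2 * c.w0)).le
        have := (hwpos 1).le
        positivity
      have hn1 : 0 ≤ t.w 2 := by
        rw [s5]
        have := (hdp (Ee 9 - 3 * c.w0)).le
        have := (hwpos 2).le
        positivity
      have h5 := val_num (d := d) (w0 := c.D.w 0 n 0) (w1 := c.D.w 1 n 0) (w2 := c.D.w 2 n 0)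
        (ρ0 := rho (c.D.lev n 0)) (ρ := rho l) (y0 := v + p 0 * u) (y8 := Ee 8 - 2 * c.w0)
        (y9 := Ee 9 - 3 * c.w0) (y10 := Ee 10 - 4 * c.w0) (C := 12 * C1) (q := c.p.q)
        (c.D.B.pos n) (hwpos 0) (hwpos 1) (hwpos 2) hρ0 hρlow hC12 hq (t := ![t.a, t.w 1, t.w 2])
        (fun k => by fin_cases k <;> assumption)
        (s3.trans (mul_le_mul_of_nonneg_right (by linarith)
          (mul_pos (hwpos 0) (hdp _)).le))
        (le_of_eq (s4.trans (by ring)))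
        (by
          show t.w 2 ≤ _
          rw [s5]
          have h6 := mul_nonneg hC10 q9.le
          linarith)
      refine h5.trans (le_of_eq ?_)
      rw [hV, hvm]
      rfl
    · obtain ⟨x', hx', hlab, hzz⟩ := hyN
      have n1 : Near (coG c.F h n) d Ee K0 i x' := fun k => by
        have := hbox x' hx' k
        rwa [hside, ← hEk] at this
      have n2 : Near (coG c.F h n) d Ee K0 x' y := fun k => by
        have h7 := hnb x' (hA hx') y hyI hlab k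
        rw [hside, ← hEk] at h7
        exact h7.trans (le_mul_of_one_le_left (hdp _).le hK01)
      exact (chart_coG c.F h n (c.D.I n)).tri hl (c.D.B.pos n) (c.D.B.lt n).le hK01 hiI
        (ok.th.ext.sub n (hAI hx')) hyI n1 n2 k)
  have hlev := lev_num (d := d) (ρ0 := rho (c.D.lev n 0)) (ρ := rho l) (y0 := v + p 0 * u)
    (K := 2 * K) (c.D.B.pos n) hρ0 (by linarith) hρlow (by linarith) ((1 - 0) - c.p.g)
  have hexp := fin_exp ok (v := v) (u := u) (T1 := T1) (e := e n) hξ0.le hξ1 p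
    (y0 := v + p 0 * u) (y8 := Ee 8 - 2 * c.w0) (y9 := Ee 9 - 3 * c.w0) (y10 := Ee 10 - 4 * c.w0)
    rfl (by rw [E8]; ring) (by rw [E9]; ring) (by rw [E10]; ring)
  have hQ0 : 0 ≤ (12 * C1) ^ 3 * (12 * C1) ^ Q :=
    mul_nonneg (pow_nonneg hC12 3) (Real.rpow_nonneg hC12 _)
  have hK20 : 0 ≤ (2 * K) ^ |(1 - 0) - c.p.g| := Real.rpow_nonneg (by linarith) _
  have hfin := fin_num (B := c.D.B) (B' := B') (n := n) (u := u) hBp (N := (A.card : ℝ))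
    (vm := c.D.vm n 0) (C3 := (12 * C1) ^ 3 * (12 * C1) ^ Q) (CK := (2 * K) ^ |(1 - 0) - c.p.g|)
    (rt := (rho l / rho (c.D.lev n 0)) ^ ((1 - 0) - c.p.g)) (Y := Y)
    (yc := ((1 - 0) - c.p.g) * (v + p 0 * u)) (s := -((1 - 0) + c.c₀ + e n)) (e := e n) (ε := ε)
    (νX := c.ν (c.X v)) (M := -(DL c.p (bT T1)) - DL c.p p) hvmp hQ0 hK20 hN hlev hexp hC4e hHs.2
  refine hfin.trans (le_of_eq ?_)
  rw [LCtx.TB, mul_assoc, ← Dp76.dpow_add]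
  congr 2
  ring

end Crest.Agent.R136.Dmx779
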