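import Mathlib
import Crest.Agent.R136.Pen3_325
import Crest.Agent.R136.Tq1_879

/-!
# R136 (U4, route G): two-sided capacity bound of the concave reward (helper325; 248's (DD))

For the reward `psiG s a b` (slopes of the exponent `j` between `a_j - b_j` and `a_j + b_j`) the
capacity of ANY shape `s'` is bounded by that of any other shape `s` of the same level:
`capP s' ≤ capP s * ∏ φ (a_j - b_j) (a_j + b_j) (w'_j / w_j)`, `φ m p r = r^(1+m)` for `r ≤ 1`,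
`r^(1+p)` for `r ≥ 1`.  Constant `1`, no range.
-/

set_option autoImplicit false

open Finset

namespace Crest.Agent.R136.Pen325

open Crest.Agent.R116.Psi635
open Crest.Agent.R116.Xa794 (TS)
open Crest.Agent.R116.Xc794 (rel capP)
open Crest.Agent.R136.Tq879 (TS36)

/-- two-sided power: exponent `1 + m` for ratios `≤ 1`, `1 + p` for ratios `≥ 1` -/
noncomputable def phR (m p r : ℝ) : ℝ := if r ≤ 1 then r ^ (1 + m) else r ^ (1 + p)

theorem phR_pos {m p r : ℝ} (hr : 0 < r) : 0 < phR m p r := by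
  unfold phR; split_ifs <;> positivity

theorem phR_one (m p : ℝ) : phR m p 1 = 1 := by
  unfold phR; rw [if_pos le_rfl, Real.one_rpow]

theorem phR_of_le {m p r : ℝ} (h : r ≤ 1) : phR m p r = r ^ (1 + m) := if_pos h

theorem phR_of_ge {m p r : ℝ} (h : 1 ≤ r) : phR m p r = r ^ (1 + p) := by
  unfold phR
  split_ifs with h1
  · have : r = 1 := le_antisymm h1 h
    rw [this, Real.one_rpow, Real.one_rpow]
  · rfl

/-- monotone in the ratio -/
theorem phR_mono {m p r r' : ℝ} (hm : 0 ≤ 1 + m) (hp : 0 ≤ 1 + p) (hr : 0 < r) (h : r ≤ r') :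
    phR m p r ≤ phR m p r' := by
  rcases le_total r' 1 with h1 | h1
  · rw [phR_of_le h1, phR_of_le (h.trans h1)]
    exact Real.rpow_le_rpow hr.le h hm
  · rcases le_total r 1 with h2 | h2
    · rw [phR_of_le h2, phR_of_ge h1]
      exact (Real.rpow_le_one hr.le h2 hm).trans (Real.one_le_rpow h1 hp)
    · rw [phR_of_ge h2, phR_of_ge h1]
      exact Real.rpow_le_rpow hr.le h hp

/-- the two one-sided bounds, `m ≤ p` -/
theorem le_phR {m p r : ℝ} (hmp : m ≤ p) (hr : 0 < r) :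
    r ^ (1 + m) ≤ phR m p r ∧ r ^ (1 + p) ≤ phR m p r := by
  rcases le_total r 1 with h | h
  · rw [phR_of_le h]
    exact ⟨le_rfl, Real.rpow_le_rpow_of_exponent_ge hr h (by linarith)⟩
  · rw [phR_of_ge h]
    exact ⟨Real.rpow_le_rpow_of_exponent_le h (by linarith), le_rfl⟩

/-- change of the exponents of the reward, one-sided -/
theorem psiG_low {ι : Type} [Fintype ι] {s : ℝ} {a b : ι → ℝ} (hb : ∀ j, 0 ≤ b j) (l : ℝ)
    (x x' : ι → ℝ) : ∑ j, (a j * (x' j - x j) - b j * |x' j - x j|) ≤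
      psiG s a b l x' - psiG s a b l x := by
  have h := (abs_le.1 (psiG_slope (s := s) (a := a) hb l x x')).1
  rw [Finset.sum_sub_distrib]
  linarith

theorem pow_ratio (u v : ℕ) : (1 / 2 : ℝ) ^ v / (1 / 2 : ℝ) ^ u = (2 : ℝ) ^ (-((v : ℝ) - u)) := by
  rw [Real.rpow_neg (by norm_num), Real.rpow_sub (by norm_num), Real.rpow_natCast,
    Real.rpow_natCast, one_div, inv_pow, inv_pow]
  field_simp

/-- one factor -/
theorem factor_eq (a b : ℝ) (u v : ℕ) :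
    (1 / 2 : ℝ) ^ v / (1 / 2 : ℝ) ^ u *
      (2 : ℝ) ^ (-(a * ((v : ℝ) - u) - b * |(v : ℝ) - u|)) =
      phR (a - b) (a + b) ((1 / 2 : ℝ) ^ v / (1 / 2 : ℝ) ^ u) := by
  rw [pow_ratio, ← Real.rpow_add (by norm_num)]
  set D : ℝ := (v : ℝ) - u with hD
  rcases le_total 0 D with h | h
  · have h1 : (2 : ℝ) ^ (-D) ≤ 1 := Real.rpow_le_one_of_one_le_of_nonpos (by norm_num) (by linarith)
    rw [phR_of_le h1, ← Real.rpow_mul (by norm_num), abs_of_nonneg h]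
    congr 1; ring
  · have h1 : 1 ≤ (2 : ℝ) ^ (-D) := Real.one_le_rpow (by norm_num) (by linarith)
    rw [phR_of_ge h1, ← Real.rpow_mul (by norm_num), abs_of_nonpos h]
    congr 1; ring

/-- **two-sided capacity bound** (248's (DD)): constant `1`, no range. -/
theorem capP_ratio {r s : ℝ} {a b : Fin 3 → ℝ} (hb : ∀ j, 0 ≤ b j) (mt : ℕ) (atop : Fin 3 → ℕ)
    (i : ℕ) (u v : Fin 3 → ℕ) :
    capP (TS36 r) (psiG s a b) mt atop i v ≤ capP (TS36 r) (psiG s a b) mt atop i u *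
      ∏ j, phR (a j - b j) (a j + b j) ((1 / 2 : ℝ) ^ (v j) / (1 / 2 : ℝ) ^ (u j)) := by
  have h1 := psiG_low (s := s) (a := a) hb ((mt : ℝ) - i) (rel i u mt atop) (rel i v mt atop)
  have e1 : ∀ j, rel i v mt atop j - rel i u mt atop j = (v j : ℝ) - u j := fun j => by
    unfold rel; ring
  simp only [e1] at h1
  have h2 : (2 : ℝ) ^ (-(psiG s a b ((mt : ℝ) - i) (rel i v mt atop))) ≤
      (2 : ℝ) ^ (-(psiG s a b ((mt : ℝ) - i) (rel i u mt atop))) *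
        ∏ j, (2 : ℝ) ^ (-(a j * ((v j : ℝ) - u j) - b j * |(v j : ℝ) - u j|)) := by
    rw [← Real.rpow_sum_of_pos (by norm_num), ← Real.rpow_add (by norm_num)]
    refine Real.rpow_le_rpow_of_exponent_le (by norm_num) ?_
    rw [Finset.sum_neg_distrib]
    linarith
  have e2 : ∏ j, phR (a j - b j) (a j + b j) ((1 / 2 : ℝ) ^ (v j) / (1 / 2 : ℝ) ^ (u j)) =
      (∏ j, (1 / 2 : ℝ) ^ (v j) / (1 / 2 : ℝ) ^ (u j)) *
        ∏ j, (2 : ℝ) ^ (-(a j * ((v j : ℝ) - u j) - b j * |(v j : ℝ) - u j|)) := by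
    rw [← Finset.prod_mul_distrib]
    exact Finset.prod_congr rfl fun j _ => (factor_eq _ _ _ _).symm
  have e3 : (TS36 r).vol i v = (TS36 r).vol i u * ∏ j, (1 / 2 : ℝ) ^ (v j) / (1 / 2 : ℝ) ^ (u j) := by
    show (1 / 2 : ℝ) ^ (v 0) * (1 / 2 : ℝ) ^ (v 1) * (1 / 2 : ℝ) ^ (v 2) =
      (1 / 2 : ℝ) ^ (u 0) * (1 / 2 : ℝ) ^ (u 1) * (1 / 2 : ℝ) ^ (u 2) * _
    rw [Fin.prod_univ_three]
    field_simp
  unfold capP
  rw [e2, e3]
  have hv : 0 ≤ (TS36 r).vol i u * ∏ j, (1 / 2 : ℝ) ^ (v j) / (1 / 2 : ℝ) ^ (u j) := by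
    rw [← e3]; exact ((TS36 r).volpos i v).le
  calc (TS36 r).vol i u * (∏ j, (1 / 2 : ℝ) ^ (v j) / (1 / 2 : ℝ) ^ (u j)) *
        (2 : ℝ) ^ (-(psiG s a b ((mt : ℝ) - i) (rel i v mt atop))) ≤
      (TS36 r).vol i u * (∏ j, (1 / 2 : ℝ) ^ (v j) / (1 / 2 : ℝ) ^ (u j)) *
        ((2 : ℝ) ^ (-(psiG s a b ((mt : ℝ) - i) (rel i u mt atop))) *
        ∏ j, (2 : ℝ) ^ (-(a j * ((v j : ℝ) - u j) - b j * |(v j : ℝ) - u j|))) :=
        mul_le_mul_of_nonneg_left h2 hv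
    _ = _ := by ring

/-- **two-sided slopes** of a reward (879's literal) -/
def TwoS (Ψ : ℝ → (Fin 3 → ℝ) → ℝ) (qm qp : Fin 3 → ℝ) : Prop :=
  ∀ (l : ℝ) (x x' : Fin 3 → ℝ),
    ∑ j, (qm j * max (x' j - x j) 0 - qp j * max (x j - x' j) 0) ≤ Ψ l x' - Ψ l x

theorem TwoS.mono {Ψ : ℝ → (Fin 3 → ℝ) → ℝ} {qm qp qm' qp' : Fin 3 → ℝ} (h : TwoS Ψ qm qp)
    (h1 : ∀ j, qm' j ≤ qm j) (h2 : ∀ j, qp j ≤ qp' j) : TwoS Ψ qm' qp' := by
  intro l x x'
  refine (Finset.sum_le_sum fun j _ => ?_).trans (h l x x')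
  have a1 := mul_le_mul_of_nonneg_right (h1 j) (le_max_right (x' j - x j) 0)
  have a2 := mul_le_mul_of_nonneg_right (h2 j) (le_max_right (x j - x' j) 0)
  linarith

theorem twoS_psiG {s : ℝ} {a b : Fin 3 → ℝ} (hb : ∀ j, 0 ≤ b j) :
    TwoS (psiG s a b) (fun j => a j - b j) (fun j => a j + b j) := by
  intro l x x'
  refine le_trans (le_of_eq ?_) (psiG_low hb l x x')
  refine Finset.sum_congr rfl fun j _ => ?_
  rcases le_total (x j) (x' j) with h | h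
  · rw [max_eq_left (by linarith : (0 : ℝ) ≤ x' j - x j), max_eq_right (by linarith : x j - x' j ≤ 0),
      abs_of_nonneg (by linarith)]
    ring
  · rw [max_eq_right (by linarith : x' j - x j ≤ 0), max_eq_left (by linarith : (0 : ℝ) ≤ x j - x' j),
      abs_of_nonpos (by linarith)]
    ring

theorem twoS_RG {s0 s : ℝ} {p n a b : Fin 3 → ℝ} {q : ℝ} (hn : ∀ j, 0 ≤ n j + q * b j) :
    TwoS (RG s0 s p n a b q) (fun j => (p j + q * a j) - (n j + q * b j))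
      (fun j => (p j + q * a j) + (n j + q * b j)) := by
  have e : RG s0 s p n a b q =
      psiG (s0 + q * s) (fun j => p j + q * a j) (fun j => n j + q * b j) := by
    funext l x; exact RG_eq s0 s p n a b q l x
  rw [e]
  exact twoS_psiG hn

/-- one factor, `max` form -/
theorem factor_le (m p : ℝ) (u v : ℕ) :
    (1 / 2 : ℝ) ^ v / (1 / 2 : ℝ) ^ u *
      (2 : ℝ) ^ (-(m * max ((v : ℝ) - u) 0 - p * max ((u : ℝ) - v) 0)) ≤
      max (((1 / 2 : ℝ) ^ v / (1 / 2 : ℝ) ^ u) ^ (1 + m))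
        (((1 / 2 : ℝ) ^ v / (1 / 2 : ℝ) ^ u) ^ (1 + p)) := by
  rw [pow_ratio, ← Real.rpow_add (by norm_num), ← Real.rpow_mul (by norm_num),
    ← Real.rpow_mul (by norm_num)]
  rcases le_total (u : ℝ) v with h | h
  · rw [max_eq_left (by linarith : (0 : ℝ) ≤ (v : ℝ) - u), max_eq_right (by linarith : (u : ℝ) - v ≤ 0)]
    refine le_max_of_le_left (le_of_eq ?_)
    congr 1; ring
  · rw [max_eq_right (by linarith : (v : ℝ) - u ≤ 0), max_eq_left (by linarith : (0 : ℝ) ≤ (u : ℝ) - v)]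
    refine le_max_of_le_right (le_of_eq ?_)
    congr 1; ring

/-- **two-sided capacity bound for any reward with two-sided slopes** (`ph` of Phc_248 unfolded) -/
theorem capP_twoS {r : ℝ} {Ψ : ℝ → (Fin 3 → ℝ) → ℝ} {qm qp : Fin 3 → ℝ} (hΨ : TwoS Ψ qm qp)
    (mt : ℕ) (atop : Fin 3 → ℕ) (i : ℕ) (u v : Fin 3 → ℕ) :
    capP (TS36 r) Ψ mt atop i v ≤ capP (TS36 r) Ψ mt atop i u *
      ∏ j, max (((1 / 2 : ℝ) ^ (v j) / (1 / 2 : ℝ) ^ (u j)) ^ (1 + qm j))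
        (((1 / 2 : ℝ) ^ (v j) / (1 / 2 : ℝ) ^ (u j)) ^ (1 + qp j)) := by
  have h1 := hΨ ((mt : ℝ) - i) (rel i u mt atop) (rel i v mt atop)
  have e1 : ∀ j, rel i v mt atop j - rel i u mt atop j = (v j : ℝ) - u j := fun j => by
    unfold rel; ring
  have e1' : ∀ j, rel i u mt atop j - rel i v mt atop j = (u j : ℝ) - v j := fun j => by
    unfold rel; ring
  simp only [e1, e1'] at h1
  have h2 : (2 : ℝ) ^ (-(Ψ ((mt : ℝ) - i) (rel i v mt atop))) ≤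
      (2 : ℝ) ^ (-(Ψ ((mt : ℝ) - i) (rel i u mt atop))) *
        ∏ j, (2 : ℝ) ^ (-(qm j * max ((v j : ℝ) - u j) 0 - qp j * max ((u j : ℝ) - v j) 0)) := by
    rw [← Real.rpow_sum_of_pos (by norm_num), ← Real.rpow_add (by norm_num)]
    refine Real.rpow_le_rpow_of_exponent_le (by norm_num) ?_
    rw [Finset.sum_neg_distrib]
    linarith
  have e3 : (TS36 r).vol i v = (TS36 r).vol i u * ∏ j, (1 / 2 : ℝ) ^ (v j) / (1 / 2 : ℝ) ^ (u j) := by
    show (1 / 2 : ℝ) ^ (v 0) * (1 / 2 : ℝ) ^ (v 1) * (1 / 2 : ℝ) ^ (v 2) =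
      (1 / 2 : ℝ) ^ (u 0) * (1 / 2 : ℝ) ^ (u 1) * (1 / 2 : ℝ) ^ (u 2) * _
    rw [Fin.prod_univ_three]
    field_simp
  have h4 : (∏ j, (1 / 2 : ℝ) ^ (v j) / (1 / 2 : ℝ) ^ (u j)) *
      ∏ j, (2 : ℝ) ^ (-(qm j * max ((v j : ℝ) - u j) 0 - qp j * max ((u j : ℝ) - v j) 0)) ≤
      ∏ j, max (((1 / 2 : ℝ) ^ (v j) / (1 / 2 : ℝ) ^ (u j)) ^ (1 + qm j))
        (((1 / 2 : ℝ) ^ (v j) / (1 / 2 : ℝ) ^ (u j)) ^ (1 + qp j)) := by
    rw [← Finset.prod_mul_distrib]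
    exact Finset.prod_le_prod (fun j _ => by positivity) fun j _ => factor_le _ _ _ _
  have hv : 0 ≤ (TS36 r).vol i u * ∏ j, (1 / 2 : ℝ) ^ (v j) / (1 / 2 : ℝ) ^ (u j) := by
    rw [← e3]; exact ((TS36 r).volpos i v).le
  unfold capP
  rw [e3]
  calc (TS36 r).vol i u * (∏ j, (1 / 2 : ℝ) ^ (v j) / (1 / 2 : ℝ) ^ (u j)) *
        (2 : ℝ) ^ (-(Ψ ((mt : ℝ) - i) (rel i v mt atop))) ≤
      (TS36 r).vol i u * (∏ j, (1 / 2 : ℝ) ^ (v j) / (1 / 2 : ℝ) ^ (u j)) *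
        ((2 : ℝ) ^ (-(Ψ ((mt : ℝ) - i) (rel i u mt atop))) *
        ∏ j, (2 : ℝ) ^ (-(qm j * max ((v j : ℝ) - u j) 0 - qp j * max ((u j : ℝ) - v j) 0))) :=
        mul_le_mul_of_nonneg_left h2 hv
    _ = (TS36 r).vol i u * (2 : ℝ) ^ (-(Ψ ((mt : ℝ) - i) (rel i u mt atop))) *
        ((∏ j, (1 / 2 : ℝ) ^ (v j) / (1 / 2 : ℝ) ^ (u j)) *
        ∏ j, (2 : ℝ) ^ (-(qm j * max ((v j : ℝ) - u j) 0 - qp j * max ((u j : ℝ) - v j) 0))) := by
        ring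
    _ ≤ _ := mul_le_mul_of_nonneg_left h4
        (mul_nonneg ((TS36 r).volpos i u).le (Real.rpow_nonneg (by norm_num) _))

/-- the same for the family `RG` at the parameter `q` -/
theorem capP_ratioRG {r s0 s : ℝ} {p n a b : Fin 3 → ℝ} {q : ℝ} (hn : ∀ j, 0 ≤ n j + q * b j)
    (mt : ℕ) (atop : Fin 3 → ℕ) (i : ℕ) (u v : Fin 3 → ℕ) :
    capP (TS36 r) (RG s0 s p n a b q) mt atop i v ≤ capP (TS36 r) (RG s0 s p n a b q) mt atop i u *
      ∏ j, phR ((p j + q * a j) - (n j + q * b j)) ((p j + q * a j) + (n j + q * b j))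
        ((1 / 2 : ℝ) ^ (v j) / (1 / 2 : ℝ) ^ (u j)) := by
  have e : RG s0 s p n a b q =
      psiG (s0 + q * s) (fun j => p j + q * a j) (fun j => n j + q * b j) := by
    funext l x; exact RG_eq s0 s p n a b q l x
  rw [e]
  exact capP_ratio hn mt atop i u v

end Crest.Agent.R136.Pen325
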