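import Mathlib

/-!
# R136: stationarity of superadditive increments, analytic part (helper146)

`φ k : E → ℝ` bounded, `½ (φ (k+1) x + φ (k+1) (x + c k)) ≤ φ k x` with `∑ ‖c k‖ < ∞`: then
`∑ ∫ (φ k - φ (k+1))² < ∞` locally (one telescoping sum), hence `φ k (x + c' k) - φ (k+1) (x + c' k) → 0`
for a.e. `x`, and if `φ k` is Lipschitz at scale `2^-k` then `φ k (x + 2^-k u) - φ k x → 0` for a.e. `x`.
-/

set_option autoImplicit false
set_option linter.unusedSectionVars false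
set_option linter.unusedVariables false

open Filter Topology MeasureTheory Set

namespace Crest.Agent.R136.Dec146

section tent

variable {E : Type*} [NormedAddCommGroup E]

/-- tent function -/
noncomputable def tent (x₀ : E) (R : ℝ) (x : E) : ℝ := max 0 (R - ‖x - x₀‖)

theorem tent_nonneg (x₀ : E) (R : ℝ) (x : E) : 0 ≤ tent x₀ R x := le_max_left _ _

theorem tent_le {x₀ : E} {R : ℝ} (hR : 0 ≤ R) (x : E) : tent x₀ R x ≤ R :=
  max_le hR (by have := norm_nonneg (x - x₀); linarith)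

theorem tent_pos {x₀ : E} {R : ℝ} {x : E} (h : ‖x - x₀‖ < R) : 0 < tent x₀ R x :=
  lt_max_of_lt_right (by linarith)

theorem tent_eq_zero {x₀ : E} {R : ℝ} {x : E} (h : R ≤ ‖x - x₀‖) : tent x₀ R x = 0 :=
  max_eq_left (by linarith)

theorem tent_lip (x₀ : E) (R : ℝ) (x y : E) : |tent x₀ R x - tent x₀ R y| ≤ ‖x - y‖ := by
  unfold tent
  have h1 := abs_max_sub_max_le_abs (R - ‖x - x₀‖) (R - ‖y - x₀‖) 0
  rw [max_comm, max_comm 0 (R - ‖y - x₀‖)]
  refine h1.trans ?_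
  rw [show R - ‖x - x₀‖ - (R - ‖y - x₀‖) = ‖y - x₀‖ - ‖x - x₀‖ by ring]
  refine (abs_norm_sub_norm_le _ _).trans ?_
  rw [show y - x₀ - (x - x₀) = -(x - y) by abel, norm_neg]

theorem tent_shift {x₀ : E} {R σ : ℝ} {c : E} (hc : ‖c‖ ≤ σ) (x : E) :
    tent x₀ R (x - c) ≤ tent x₀ (R + σ) x := by
  unfold tent
  refine max_le_max le_rfl ?_
  have : ‖x - x₀‖ ≤ ‖x - c - x₀‖ + ‖c‖ := by
    calc ‖x - x₀‖ = ‖(x - c - x₀) + c‖ := by congr 1; abel
      _ ≤ _ := norm_add_le _ _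
  linarith

theorem tent_continuous (x₀ : E) (R : ℝ) : Continuous (tent x₀ R) := by
  unfold tent; fun_prop

end tent

section meas

variable {E : Type*} [NormedAddCommGroup E] [NormedSpace ℝ E] [FiniteDimensional ℝ E]
  [MeasurableSpace E] [BorelSpace E] (μ : Measure E) [μ.IsAddHaarMeasure]

theorem tent_supp (x₀ : E) (R : ℝ) : HasCompactSupport (tent x₀ R) := by
  refine HasCompactSupport.intro (isCompact_closedBall x₀ R) fun x hx => ?_
  rw [mem_closedBall_iff_norm, not_le] at hx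
  exact tent_eq_zero hx.le

theorem tent_integrable (x₀ : E) (R : ℝ) : Integrable (tent x₀ R) μ :=
  (tent_continuous x₀ R).integrable_of_hasCompactSupport (tent_supp x₀ R)

theorem tent_mul_integrable (x₀ : E) (R : ℝ) {F : E → ℝ} (hF : Measurable F) {K : ℝ}
    (hK : ∀ x, |F x| ≤ K) : Integrable (fun x => tent x₀ R x * F x) μ := by
  refine Integrable.mono' ((tent_integrable μ x₀ R).mul_const K)
    (((tent_continuous x₀ R).measurable.mul hF).aestronglyMeasurable) (Eventually.of_forall fun x => ?_)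
  rw [Real.norm_eq_abs, abs_mul, abs_of_nonneg (tent_nonneg _ _ _)]
  exact mul_le_mul_of_nonneg_left (hK x) (tent_nonneg _ _ _)

/-- constant of the shift estimate -/
noncomputable def cst (x₀ : E) (R : ℝ) : ℝ := (μ (Metric.closedBall x₀ (R + 1))).toReal

theorem cst_nonneg (x₀ : E) (R : ℝ) : 0 ≤ cst μ x₀ R := ENNReal.toReal_nonneg

theorem shift_est (x₀ : E) (R : ℝ) {F : E → ℝ} (hF : Measurable F) {K : ℝ} (hK0 : 0 ≤ K)
    (hK : ∀ x, |F x| ≤ K) {c : E} (hc : ‖c‖ ≤ 1) :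
    |(∫ x, tent x₀ R x * F (x + c) ∂μ) - ∫ x, tent x₀ R x * F x ∂μ| ≤ K * cst μ x₀ R * ‖c‖ := by
  have h1 : (∫ x, tent x₀ R x * F (x + c) ∂μ) = ∫ x, tent x₀ R (x - c) * F x ∂μ := by
    have := integral_add_right_eq_self (μ := μ) (fun x => tent x₀ R (x - c) * F x) c
    rw [← this]
    congr 1; ext x
    rw [add_sub_cancel_right]
  have hi1 : Integrable (fun x => tent x₀ R (x - c) * F x) μ := by
    have := (tent_mul_integrable μ x₀ R (F := fun x => F (x + c)) (hF.comp (measurable_add_const c))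
      (K := K) (fun x => hK _)).comp_sub_right c
    refine this.congr (Eventually.of_forall fun x => ?_)
    simp
  have hi2 := tent_mul_integrable μ x₀ R hF hK
  rw [h1, ← integral_sub hi1 hi2]
  have h2 : ∀ x, (tent x₀ R (x - c) * F x - tent x₀ R x * F x) =
      (Metric.closedBall x₀ (R + 1)).indicator
        (fun x => tent x₀ R (x - c) * F x - tent x₀ R x * F x) x := by
    intro x
    by_cases hx : x ∈ Metric.closedBall x₀ (R + 1)
    · rw [indicator_of_mem hx]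
    · rw [indicator_of_notMem hx]
      rw [mem_closedBall_iff_norm, not_le] at hx
      have h3 : R ≤ ‖x - c - x₀‖ := by
        have : ‖x - x₀‖ ≤ ‖x - c - x₀‖ + ‖c‖ := by
          calc ‖x - x₀‖ = ‖(x - c - x₀) + c‖ := by congr 1; abel
            _ ≤ _ := norm_add_le _ _
        linarith
      rw [tent_eq_zero h3, tent_eq_zero (by linarith : R ≤ ‖x - x₀‖)]
      simp
  have hm : MeasurableSet (Metric.closedBall x₀ (R + 1)) := measurableSet_closedBall
  have hfin : μ (Metric.closedBall x₀ (R + 1)) < ⊤ :=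
    (isCompact_closedBall x₀ (R + 1)).measure_lt_top
  calc |∫ x, (tent x₀ R (x - c) * F x - tent x₀ R x * F x) ∂μ|
      = |∫ x in Metric.closedBall x₀ (R + 1), (tent x₀ R (x - c) * F x - tent x₀ R x * F x) ∂μ| := by
        rw [← integral_indicator hm]
        congr 1
        exact integral_congr_ae (Eventually.of_forall fun x => h2 x)
    _ ≤ (‖c‖ * K) * μ.real (Metric.closedBall x₀ (R + 1)) := by
        rw [← Real.norm_eq_abs]
        refine norm_setIntegral_le_of_norm_le_const hfin fun x _ => ?_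
        rw [← sub_mul, Real.norm_eq_abs, abs_mul]
        refine mul_le_mul ?_ (hK x) (abs_nonneg _) (norm_nonneg _)
        have := tent_lip x₀ R (x - c) x
        rwa [show x - c - x = -c by abel, norm_neg] at this
    _ = K * cst μ x₀ R * ‖c‖ := by unfold cst Measure.real; ring

/-- the potential -/
noncomputable def Gp (x₀ : E) (R K : ℝ) (φ : E → ℝ) : ℝ :=
  12 * K * (∫ x, tent x₀ R x * φ x ∂μ) - 2 * ∫ x, tent x₀ R x * (φ x) ^ 2 ∂μ

theorem pointwise {K a b c : ℝ} (hb : |b| ≤ K) (hc : |c| ≤ K) (ha : |a| ≤ K)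
    (h : (b + c) / 2 ≤ a) :
    (a - b) ^ 2 ≤ 12 * K * a - 6 * K * b - 6 * K * c + b ^ 2 + c ^ 2 - 2 * a ^ 2 := by
  rw [abs_le] at hb hc ha
  nlinarith [mul_nonneg (sub_nonneg.2 h) (by linarith : 0 ≤ K - a),
    mul_nonneg (sub_nonneg.2 h) (by linarith : 0 ≤ K + (b + c) / 2),
    mul_nonneg (sub_nonneg.2 h) (by linarith : 0 ≤ K - (b + c) / 2), sq_nonneg (b - c),
    mul_nonneg (sub_nonneg.2 h) (by linarith : 0 ≤ K + a)]

theorem step_est (x₀ : E) (R : ℝ) {φ ψ : E → ℝ} (hφ : Measurable φ) (hψ : Measurable ψ) {K : ℝ}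
    (hK0 : 0 ≤ K) (hφK : ∀ x, |φ x| ≤ K) (hψK : ∀ x, |ψ x| ≤ K) {c : E} (hc : ‖c‖ ≤ 1)
    (h : ∀ x, ‖x - x₀‖ ≤ R → (ψ x + ψ (x + c)) / 2 ≤ φ x) :
    ∫ x, tent x₀ R x * (φ x - ψ x) ^ 2 ∂μ ≤
      Gp μ x₀ R K φ - Gp μ x₀ R K ψ + 7 * K ^ 2 * cst μ x₀ R * ‖c‖ := by
  have hψc : Measurable fun x => ψ (x + c) := hψ.comp (measurable_add_const c)
  have sq : ∀ {F : E → ℝ}, (∀ x, |F x| ≤ K) → ∀ x, |(F x) ^ 2| ≤ K ^ 2 := by
    intro F hF x
    rw [abs_pow]
    exact pow_le_pow_left₀ (abs_nonneg _) (hF x) 2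
  have i1 := tent_mul_integrable μ x₀ R hφ hφK
  have i2 := tent_mul_integrable μ x₀ R hψ hψK
  have i3 := tent_mul_integrable μ x₀ R hψc (K := K) (fun x => hψK _)
  have i4 := tent_mul_integrable μ x₀ R (hφ.pow_const 2) (sq hφK)
  have i5 := tent_mul_integrable μ x₀ R (hψ.pow_const 2) (sq hψK)
  have i6 := tent_mul_integrable μ x₀ R (hψc.pow_const 2) (K := K ^ 2)
    (sq (F := fun x => ψ (x + c)) (fun x => hψK _))
  have i7 : Integrable (fun x => tent x₀ R x * (φ x - ψ x) ^ 2) μ := by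
    refine tent_mul_integrable μ x₀ R ((hφ.sub hψ).pow_const 2) (K := (2 * K) ^ 2) fun x => ?_
    rw [abs_pow]
    refine pow_le_pow_left₀ (abs_nonneg _) ?_ 2
    refine (abs_sub _ _).trans ?_
    linarith [hφK x, hψK x]
  have e1 : ∫ x, tent x₀ R x * (φ x - ψ x) ^ 2 ∂μ ≤
      ∫ x, (12 * K * (tent x₀ R x * φ x) - 6 * K * (tent x₀ R x * ψ x)
        - 6 * K * (tent x₀ R x * ψ (x + c)) + tent x₀ R x * (ψ x) ^ 2
        + tent x₀ R x * (ψ (x + c)) ^ 2 - 2 * (tent x₀ R x * (φ x) ^ 2)) ∂μ := by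
    refine integral_mono i7 ?_ fun x => ?_
    · exact (((((i1.const_mul _).sub (i2.const_mul _)).sub (i3.const_mul _)).add i5).add i6).sub
        (i4.const_mul _)
    · by_cases hx : ‖x - x₀‖ ≤ R
      · have := mul_le_mul_of_nonneg_left (pointwise (hψK x) (hψK (x + c)) (hφK x) (h x hx))
          (tent_nonneg x₀ R x)
        refine this.trans (le_of_eq ?_)
        ring
      · simp only [tent_eq_zero (not_le.1 hx).le]
        simp
  have e2 : ∫ x, (12 * K * (tent x₀ R x * φ x) - 6 * K * (tent x₀ R x * ψ x)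
        - 6 * K * (tent x₀ R x * ψ (x + c)) + tent x₀ R x * (ψ x) ^ 2
        + tent x₀ R x * (ψ (x + c)) ^ 2 - 2 * (tent x₀ R x * (φ x) ^ 2)) ∂μ =
      12 * K * (∫ x, tent x₀ R x * φ x ∂μ) - 6 * K * (∫ x, tent x₀ R x * ψ x ∂μ)
        - 6 * K * (∫ x, tent x₀ R x * ψ (x + c) ∂μ) + (∫ x, tent x₀ R x * (ψ x) ^ 2 ∂μ)
        + (∫ x, tent x₀ R x * (ψ (x + c)) ^ 2 ∂μ) - 2 * ∫ x, tent x₀ R x * (φ x) ^ 2 ∂μ := by
    rw [integral_sub, integral_add, integral_add, integral_sub, integral_sub, integral_const_mul,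
      integral_const_mul, integral_const_mul, integral_const_mul]
    · exact i1.const_mul _
    · exact i2.const_mul _
    · exact (i1.const_mul _).sub (i2.const_mul _)
    · exact i3.const_mul _
    · exact ((i1.const_mul _).sub (i2.const_mul _)).sub (i3.const_mul _)
    · exact i5
    · exact (((i1.const_mul _).sub (i2.const_mul _)).sub (i3.const_mul _)).add i5
    · exact i6
    · exact ((((i1.const_mul _).sub (i2.const_mul _)).sub (i3.const_mul _)).add i5).add i6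
    · exact i4.const_mul _
  have s1 := abs_le.1 (shift_est μ x₀ R hψ hK0 hψK hc)
  have s2 := abs_le.1 (shift_est μ x₀ R (hψ.pow_const 2) (K := K ^ 2) (by positivity) (sq hψK) hc)
  have s3 : 6 * K * ((∫ x, tent x₀ R x * ψ x ∂μ) - ∫ x, tent x₀ R x * ψ (x + c) ∂μ) ≤
      6 * K * (K * cst μ x₀ R * ‖c‖) :=
    mul_le_mul_of_nonneg_left (by linarith [s1.1]) (by positivity)
  unfold Gp
  rw [e2] at e1
  nlinarith [s2.2]

theorem sum_est (x₀ : E) (R : ℝ) {φ : ℕ → E → ℝ} (hφ : ∀ k, Measurable (φ k)) {K : ℝ}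
    (hK0 : 0 ≤ K) (hφK : ∀ k x, |φ k x| ≤ K) {c : ℕ → E} (hc : ∀ k, ‖c k‖ ≤ (1 / 2) ^ k)
    (h : ∀ k x, ‖x - x₀‖ ≤ R → (φ (k + 1) x + φ (k + 1) (x + c k)) / 2 ≤ φ k x) :
    ∃ C : ℝ, ∀ N : ℕ, ∑ k ∈ Finset.range N, ∫ x, tent x₀ R x * (φ k x - φ (k + 1) x) ^ 2 ∂μ ≤ C := by
  have hint : ∀ k, |∫ x, tent x₀ R x * φ k x ∂μ| ≤ K * ∫ x, tent x₀ R x ∂μ := by
    intro k
    rw [← Real.norm_eq_abs]
    refine (norm_integral_le_integral_norm _).trans ?_
    rw [← integral_const_mul]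
    refine integral_mono (tent_mul_integrable μ x₀ R (hφ k) (hφK k)).norm
      ((tent_integrable μ x₀ R).const_mul K) fun x => ?_
    simp only [Real.norm_eq_abs, abs_mul, abs_of_nonneg (tent_nonneg x₀ R x)]
    rw [mul_comm]
    exact mul_le_mul_of_nonneg_right (hφK k x) (tent_nonneg _ _ _)
  have hint2 : ∀ k, |∫ x, tent x₀ R x * (φ k x) ^ 2 ∂μ| ≤ K ^ 2 * ∫ x, tent x₀ R x ∂μ := by
    intro k
    have hb : ∀ x, |(φ k x) ^ 2| ≤ K ^ 2 := fun x => by
      rw [abs_pow]; exact pow_le_pow_left₀ (abs_nonneg _) (hφK k x) 2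
    rw [← Real.norm_eq_abs]
    refine (norm_integral_le_integral_norm _).trans ?_
    rw [← integral_const_mul]
    refine integral_mono (tent_mul_integrable μ x₀ R ((hφ k).pow_const 2) hb).norm
      ((tent_integrable μ x₀ R).const_mul _) fun x => ?_
    simp only [Real.norm_eq_abs, abs_mul, abs_of_nonneg (tent_nonneg x₀ R x)]
    rw [mul_comm]
    exact mul_le_mul_of_nonneg_right (hb x) (tent_nonneg _ _ _)
  set I : ℝ := ∫ x, tent x₀ R x ∂μ with hI
  have hG : ∀ k, |Gp μ x₀ R K (φ k)| ≤ 14 * K ^ 2 * I := by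
    intro k
    unfold Gp
    have h1 := abs_le.1 (hint k)
    have h2 := abs_le.1 (hint2 k)
    rw [abs_le]
    constructor
    · nlinarith [mul_le_mul_of_nonneg_left h1.1 (by positivity : 0 ≤ 12 * K), h2.2]
    · nlinarith [mul_le_mul_of_nonneg_left h1.2 (by positivity : 0 ≤ 12 * K), h2.1]
  refine ⟨28 * K ^ 2 * I + 14 * K ^ 2 * cst μ x₀ R, fun N => ?_⟩
  have hsum : ∀ N : ℕ, ∑ k ∈ Finset.range N, ∫ x, tent x₀ R x * (φ k x - φ (k + 1) x) ^ 2 ∂μ ≤
      Gp μ x₀ R K (φ 0) - Gp μ x₀ R K (φ N) +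
        7 * K ^ 2 * cst μ x₀ R * (2 - 2 * (1 / 2) ^ N) := by
    intro N
    induction N with
    | zero => simp
    | succ N ih =>
      rw [Finset.sum_range_succ]
      have hcN : ‖c N‖ ≤ 1 := (hc N).trans (pow_le_one₀ (by norm_num) (by norm_num))
      have := step_est μ x₀ R (hφ N) (hφ (N + 1)) hK0 (hφK N) (hφK (N + 1)) hcN (h N)
      have h3 : 7 * K ^ 2 * cst μ x₀ R * ‖c N‖ ≤ 7 * K ^ 2 * cst μ x₀ R * (1 / 2) ^ N :=
        mul_le_mul_of_nonneg_left (hc N) (by have := cst_nonneg μ x₀ R; positivity)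
      have h4 : 7 * K ^ 2 * cst μ x₀ R * (2 - 2 * (1 / 2) ^ (N + 1)) =
        7 * K ^ 2 * cst μ x₀ R * (2 - 2 * (1 / 2) ^ N) + 7 * K ^ 2 * cst μ x₀ R * (1 / 2) ^ N := by
        rw [pow_succ]; ring
      rw [h4]
      linarith
  have hN := hsum N
  have g0 := abs_le.1 (hG 0)
  have gN := abs_le.1 (hG N)
  have h5 : 7 * K ^ 2 * cst μ x₀ R * (2 - 2 * (1 / 2) ^ N) ≤ 14 * K ^ 2 * cst μ x₀ R := by
    have : 0 ≤ 14 * K ^ 2 * cst μ x₀ R * (1 / 2) ^ N := by
      have := cst_nonneg μ x₀ R; positivity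
    nlinarith
  linarith [g0.2, gN.1]

end meas

end Crest.Agent.R136.Dec146
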