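import Crest.Agent.R136.Dec1_146

/-!
# R136: stationarity of superadditive increments, a.e. statements (helper146)
-/

set_option autoImplicit false
set_option linter.unusedSectionVars false

open Filter Topology MeasureTheory Set

namespace Crest.Agent.R136.Dec146

variable {E : Type*} [NormedAddCommGroup E] [NormedSpace ℝ E] [FiniteDimensional ℝ E]
  [MeasurableSpace E] [BorelSpace E] (μ : Measure E) [μ.IsAddHaarMeasure]

theorem ae_diff (x₀ : E) (R σ : ℝ) {φ : ℕ → E → ℝ} (hφ : ∀ k, Measurable (φ k)) {K : ℝ}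
    (hK0 : 0 ≤ K) (hφK : ∀ k x, |φ k x| ≤ K) {c : ℕ → E} (hc : ∀ k, ‖c k‖ ≤ (1 / 2) ^ k)
    (h : ∀ k x, ‖x - x₀‖ ≤ R + σ → (φ (k + 1) x + φ (k + 1) (x + c k)) / 2 ≤ φ k x)
    {c' : ℕ → E} (hc' : ∀ k, ‖c' k‖ ≤ σ) :
    ∀ᵐ x ∂μ, ‖x - x₀‖ < R →
      Tendsto (fun k => φ k (x + c' k) - φ (k + 1) (x + c' k)) atTop (𝓝 0) := by
  obtain ⟨C, hC⟩ := sum_est μ x₀ (R + σ) hφ hK0 hφK hc h
  set F : ℕ → E → ℝ := fun k x => (φ k x - φ (k + 1) x) ^ 2 with hF
  have hFm : ∀ k, Measurable (F k) := fun k => ((hφ k).sub (hφ (k + 1))).pow_const 2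
  have hFb : ∀ k x, |F k x| ≤ (2 * K) ^ 2 := by
    intro k x
    rw [hF]
    simp only
    rw [abs_pow]
    refine pow_le_pow_left₀ (abs_nonneg _) ?_ 2
    refine (abs_sub _ _).trans ?_
    linarith [hφK k x, hφK (k + 1) x]
  have hF0 : ∀ k x, 0 ≤ F k x := fun k x => sq_nonneg _
  have hint : ∀ k, Integrable (fun x => tent x₀ R x * F k (x + c' k)) μ := fun k =>
    tent_mul_integrable μ x₀ R (F := fun x => F k (x + c' k)) ((hFm k).comp (measurable_add_const _))
      (K := (2 * K) ^ 2) (fun x => hFb k _)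
  have hle : ∀ k, ∫ x, tent x₀ R x * F k (x + c' k) ∂μ ≤ ∫ x, tent x₀ (R + σ) x * F k x ∂μ := by
    intro k
    have h1 : (∫ x, tent x₀ R x * F k (x + c' k) ∂μ) = ∫ x, tent x₀ R (x - c' k) * F k x ∂μ := by
      have := integral_add_right_eq_self (μ := μ) (fun x => tent x₀ R (x - c' k) * F k x) (c' k)
      rw [← this]
      congr 1; ext x
      rw [add_sub_cancel_right]
    rw [h1]
    refine integral_mono ?_ (tent_mul_integrable μ x₀ (R + σ) (hFm k) (hFb k)) fun x => ?_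
    · refine ((hint k).comp_sub_right (c' k)).congr (Eventually.of_forall fun x => ?_)
      simp
    · exact mul_le_mul_of_nonneg_right (tent_shift (hc' k) x) (hF0 k x)
  have hsum : ∑' k, ∫⁻ x, ENNReal.ofReal (tent x₀ R x * F k (x + c' k)) ∂μ ≤ ENNReal.ofReal C := by
    refine ENNReal.tsum_le_of_sum_range_le fun N => ?_
    have e : ∀ k, ∫⁻ x, ENNReal.ofReal (tent x₀ R x * F k (x + c' k)) ∂μ =
        ENNReal.ofReal (∫ x, tent x₀ R x * F k (x + c' k) ∂μ) := fun k =>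
      (ofReal_integral_eq_lintegral_ofReal (hint k) (Eventually.of_forall fun x =>
        mul_nonneg (tent_nonneg _ _ _) (hF0 _ _))).symm
    rw [Finset.sum_congr rfl fun k _ => e k, ← ENNReal.ofReal_sum_of_nonneg fun k _ =>
      integral_nonneg fun x => mul_nonneg (tent_nonneg _ _ _) (hF0 _ _)]
    exact ENNReal.ofReal_le_ofReal ((Finset.sum_le_sum fun k _ => hle k).trans (hC N))
  have hm : ∀ k, AEMeasurable (fun x => ENNReal.ofReal (tent x₀ R x * F k (x + c' k))) μ := fun k =>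
    (((tent_continuous x₀ R).measurable.mul ((hFm k).comp (measurable_add_const _))).ennreal_ofReal).aemeasurable
  have hfin : ∫⁻ x, ∑' k, ENNReal.ofReal (tent x₀ R x * F k (x + c' k)) ∂μ ≠ ⊤ := by
    rw [lintegral_tsum hm]
    exact ne_top_of_le_ne_top ENNReal.ofReal_ne_top hsum
  filter_upwards [ae_lt_top' (AEMeasurable.tsum hm) hfin] with x hx hxR
  have t1 := ENNReal.tendsto_atTop_zero_of_tsum_ne_top hx.ne
  have t2 : Tendsto (fun k => tent x₀ R x * F k (x + c' k)) atTop (𝓝 0) := by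
    have := (ENNReal.tendsto_toReal ENNReal.zero_ne_top).comp t1
    simp only [ENNReal.toReal_zero] at this
    refine this.congr fun k => ?_
    simp only [Function.comp]
    exact ENNReal.toReal_ofReal (mul_nonneg (tent_nonneg _ _ _) (hF0 _ _))
  have hpos := tent_pos hxR
  have t3 : Tendsto (fun k => F k (x + c' k)) atTop (𝓝 0) := by
    have := t2.const_mul (tent x₀ R x)⁻¹
    rw [mul_zero] at this
    refine this.congr fun k => ?_
    rw [← mul_assoc, inv_mul_cancel₀ hpos.ne', one_mul]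
  have t4 : Tendsto (fun k => |φ k (x + c' k) - φ (k + 1) (x + c' k)|) atTop (𝓝 0) := by
    have := (Real.continuous_sqrt.tendsto 0).comp t3
    rw [Real.sqrt_zero] at this
    refine this.congr fun k => ?_
    simp only [Function.comp, hF]
    rw [Real.sqrt_sq_eq_abs]
  exact (tendsto_zero_iff_abs_tendsto_zero _).2 t4

/-- cut-off of a vector -/
noncomputable def clip (σ : ℝ) (v : E) : E := by
  classical exact if ‖v‖ ≤ σ then v else 0

theorem norm_clip {σ : ℝ} (hσ : 0 ≤ σ) (v : E) : ‖clip σ v‖ ≤ σ := by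
  unfold clip
  split_ifs with h
  · exact h
  · simpa using hσ

theorem clip_eq {σ : ℝ} {v : E} (h : ‖v‖ ≤ σ) : clip σ v = v := by
  unfold clip
  rw [if_pos h]

theorem half_small {σ : ℝ} (hσ : 0 < σ) (u : E) : ∀ᶠ k : ℕ in atTop, ‖((1 / 2 : ℝ) ^ k) • u‖ ≤ σ := by
  have h1 : Tendsto (fun k : ℕ => ((1 / 2 : ℝ) ^ k) • u) atTop (𝓝 ((0 : ℝ) • u)) :=
    (tendsto_pow_atTop_nhds_zero_of_lt_one (by norm_num) (by norm_num)).smul_const u
  have h2 := h1.norm
  rw [zero_smul, norm_zero] at h2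
  exact h2.eventually (ge_mem_nhds hσ)

/-- **stationarity**: superadditive increments are asymptotically translation invariant, a.e. -/
theorem ae_stat (x₀ : E) (R : ℝ) {σ : ℝ} (hσ : 0 < σ) {φ : ℕ → E → ℝ} (hφ : ∀ k, Measurable (φ k)) {K K' : ℝ}
    (hK0 : 0 ≤ K) (hφK : ∀ k x, |φ k x| ≤ K)
    (hlip : ∀ k x y, |φ k x - φ k y| ≤ K' * 2 ^ k * ‖x - y‖) {c : ℕ → E}
    (hc : ∀ k, ‖c k‖ ≤ (1 / 2) ^ k)
    (h : ∀ k x, ‖x - x₀‖ ≤ R + σ → (φ (k + 1) x + φ (k + 1) (x + c k)) / 2 ≤ φ k x) :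
    ∀ᵐ x ∂μ, ‖x - x₀‖ < R → ∀ u : E,
      Tendsto (fun k => φ k (x + ((1 / 2 : ℝ) ^ k) • u) - φ k x) atTop (𝓝 0) := by
  have hall : ∀ᵐ x ∂μ, ∀ (n l i : ℕ), ‖x - x₀‖ < R →
      Tendsto (fun j => φ j (x + clip σ (((1 / 2 : ℝ) ^ (j + (l - i))) • TopologicalSpace.denseSeq E n))
        - φ (j + 1) (x + clip σ (((1 / 2 : ℝ) ^ (j + (l - i))) • TopologicalSpace.denseSeq E n)))
        atTop (𝓝 0) := by
    rw [ae_all_iff]; intro n
    rw [ae_all_iff]; intro l
    rw [ae_all_iff]; intro i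
    exact ae_diff μ x₀ R σ hφ hK0 hφK hc h fun j => norm_clip hσ.le _
  have hall0 := ae_diff μ x₀ R σ hφ hK0 hφK hc h (c' := fun _ => (0 : E)) (fun _ => by simpa using hσ.le)
  filter_upwards [hall, hall0] with x hx hx0 hxR
  -- telescoping
  have T0 : ∀ l : ℕ, Tendsto (fun k => φ k x - φ (k + l) x) atTop (𝓝 0) := by
    intro l
    induction l with
    | zero => simp
    | succ l ih =>
      have h1 := (hx0 hxR).comp (tendsto_add_atTop_nat l)
      have := ih.add h1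
      rw [show (0 : ℝ) + 0 = 0 from add_zero 0] at this
      refine this.congr fun k => ?_
      simp only [Function.comp, add_zero]
      rw [show k + (l + 1) = k + l + 1 by ring]
      ring
  have T1 : ∀ (n l : ℕ), Tendsto (fun k =>
      φ k (x + ((1 / 2 : ℝ) ^ (k + l)) • TopologicalSpace.denseSeq E n) -
        φ (k + l) (x + ((1 / 2 : ℝ) ^ (k + l)) • TopologicalSpace.denseSeq E n)) atTop (𝓝 0) := by
    intro n l
    set u := TopologicalSpace.denseSeq E n with hu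
    have h1 : ∀ i ≤ l, Tendsto (fun k =>
        φ k (x + ((1 / 2 : ℝ) ^ (k + l)) • u) - φ (k + i) (x + ((1 / 2 : ℝ) ^ (k + l)) • u))
        atTop (𝓝 0) := by
      intro i
      induction i with
      | zero => intro _; simp
      | succ i ih =>
        intro hi
        have h2 := (hx n l i hxR).comp (tendsto_add_atTop_nat i)
        have h3 := (ih (by omega)).add h2
        rw [show (0 : ℝ) + 0 = 0 from add_zero 0] at h3
        refine h3.congr' ?_
        have h4 : ∀ᶠ k : ℕ in atTop, ‖((1 / 2 : ℝ) ^ (k + l)) • u‖ ≤ σ :=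
          (tendsto_add_atTop_nat l).eventually (half_small hσ u)
        filter_upwards [h4] with k hk
        simp only [Function.comp]
        rw [show k + i + (l - i) = k + l by omega, ← hu, clip_eq hk, show k + (i + 1) = k + i + 1 by ring]
        ring
    exact h1 l le_rfl
  have hK'0 : ∀ u : E, 0 ≤ K' * ‖u‖ := by
    intro u
    have := (abs_nonneg _).trans (hlip 0 u 0)
    simpa using this
  -- dense directions
  have T2 : ∀ n : ℕ, Tendsto (fun k => φ k (x + ((1 / 2 : ℝ) ^ k) • TopologicalSpace.denseSeq E n)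
      - φ k x) atTop (𝓝 0) := by
    intro n
    set u := TopologicalSpace.denseSeq E n with hu
    rw [Metric.tendsto_atTop]
    intro ε hε
    obtain ⟨l, hl⟩ := exists_pow_lt_of_lt_one (show 0 < ε / (2 * (K' * ‖u‖ + 1)) by
      have := hK'0 u; positivity) (show (1 / 2 : ℝ) < 1 by norm_num)
    have a1 := (T1 n l).sub (T0 l)
    rw [sub_zero] at a1
    obtain ⟨N, hN⟩ := Metric.tendsto_atTop.1 a1 (ε / 2) (half_pos hε)
    refine ⟨N + l, fun k hk => ?_⟩
    obtain ⟨j, rfl⟩ : ∃ j, k = j + l := ⟨k - l, by omega⟩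
    have a2 := hN j (by omega)
    rw [Real.dist_eq, sub_zero] at a2 ⊢
    have a3 := hlip j (x + ((1 / 2 : ℝ) ^ (j + l)) • u) x
    have a4 : K' * 2 ^ j * ‖x + ((1 / 2 : ℝ) ^ (j + l)) • u - x‖ = (K' * ‖u‖) * (1 / 2) ^ l := by
      rw [add_sub_cancel_left, norm_smul, norm_pow, Real.norm_of_nonneg (by norm_num : (0:ℝ) ≤ 1 / 2),
        pow_add]
      have : (2 : ℝ) ^ j * (1 / 2) ^ j = 1 := by rw [← mul_pow]; norm_num
      calc K' * 2 ^ j * ((1 / 2) ^ j * (1 / 2) ^ l * ‖u‖)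
          = (K' * ‖u‖) * (1 / 2) ^ l * ((2 : ℝ) ^ j * (1 / 2) ^ j) := by ring
        _ = _ := by rw [this, mul_one]
    rw [a4] at a3
    have a5 : (K' * ‖u‖) * (1 / 2) ^ l ≤ ε / 2 := by
      have h6 : (1 / 2 : ℝ) ^ l * (2 * (K' * ‖u‖ + 1)) < ε := by
        rwa [lt_div_iff₀ (by have := hK'0 u; positivity)] at hl
      have h7 : (0 : ℝ) < (1 / 2) ^ l := by positivity
      nlinarith [hK'0 u]
    rw [← hu] at a2
    rw [abs_lt] at a2 ⊢
    rw [abs_le] at a3
    constructor <;> linarith [a2.1, a2.2, a3.1, a3.2]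
  intro u
  rw [Metric.tendsto_atTop]
  intro ε hε
  obtain ⟨n, hn⟩ : ∃ n, ‖u - TopologicalSpace.denseSeq E n‖ < ε / (2 * (|K'| + 1)) := by
    have hd := TopologicalSpace.denseRange_denseSeq E
    obtain ⟨n, hn⟩ := hd.exists_dist_lt u (show 0 < ε / (2 * (|K'| + 1)) by positivity)
    exact ⟨n, by rwa [dist_eq_norm] at hn⟩
  obtain ⟨N, hN⟩ := Metric.tendsto_atTop.1 (T2 n) (ε / 2) (half_pos hε)
  refine ⟨N, fun k hk => ?_⟩
  have a2 := hN k hk
  rw [Real.dist_eq, sub_zero] at a2 ⊢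
  have a3 := hlip k (x + ((1 / 2 : ℝ) ^ k) • u)
    (x + ((1 / 2 : ℝ) ^ k) • TopologicalSpace.denseSeq E n)
  have a4 : K' * 2 ^ k * ‖x + ((1 / 2 : ℝ) ^ k) • u
      - (x + ((1 / 2 : ℝ) ^ k) • TopologicalSpace.denseSeq E n)‖ =
      K' * ‖u - TopologicalSpace.denseSeq E n‖ := by
    rw [add_sub_add_left_eq_sub, ← smul_sub, norm_smul, norm_pow,
      Real.norm_of_nonneg (by norm_num : (0:ℝ) ≤ 1 / 2)]
    have : (2 : ℝ) ^ k * (1 / 2) ^ k = 1 := by rw [← mul_pow]; norm_num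
    calc K' * 2 ^ k * ((1 / 2) ^ k * ‖u - TopologicalSpace.denseSeq E n‖)
        = K' * ‖u - TopologicalSpace.denseSeq E n‖ * ((2 : ℝ) ^ k * (1 / 2) ^ k) := by ring
      _ = _ := by rw [this, mul_one]
  rw [a4] at a3
  have a5 : K' * ‖u - TopologicalSpace.denseSeq E n‖ ≤ ε / 2 := by
    have h6 : ‖u - TopologicalSpace.denseSeq E n‖ * (2 * (|K'| + 1)) < ε := by
      rwa [lt_div_iff₀ (by positivity)] at hn
    have h7 := norm_nonneg (u - TopologicalSpace.denseSeq E n)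
    nlinarith [le_abs_self K', abs_nonneg K']
  rw [abs_lt] at a2 ⊢
  rw [abs_le] at a3
  constructor <;> linarith [a2.1, a2.2, a3.1, a3.2]

end Crest.Agent.R136.Dec146
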