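import Crest.Agent.R136.Dec2_146

/-!
# R136: stationarity of the increments of a supermodular profile along a natural family (helper146)

`ν : (ι → ℝ) → ℝ` Lipschitz, supermodular on `S`, natural family `x ↦ b + L x`, `L : E → (ι → ℝ)`
linear, `LEG` = wall cone. A MOVE raises some coordinates by `L y` from the offset `w`; the other
coordinates are behind (type I) or ahead of the end (type II). `ae_move`: for a.e. `x`, the rescaled
increment of every move is asymptotically invariant under translations along the natural family.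
-/

set_option autoImplicit false
set_option linter.unusedSectionVars false

open Filter Topology MeasureTheory Set

namespace Crest.Agent.R136.Dec146

section alg

variable {ι : Type*}

/-- increment -/
def Inc (ν : (ι → ℝ) → ℝ) (d p : ι → ℝ) : ℝ := ν p - ν (p + d)

/-- supermodularity on `S` (only when all four points are in `S`) -/
def Sup4 (ν : (ι → ℝ) → ℝ) (S : Set (ι → ℝ)) : Prop :=
  ∀ p ∈ S, ∀ q ∈ S, p ⊓ q ∈ S → p ⊔ q ∈ S → ν p + ν q ≤ ν (p ⊔ q) + ν (p ⊓ q)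

/-- increments are antitone in the coordinates off the support -/
theorem inc_anti {ν : (ι → ℝ) → ℝ} {S : Set (ι → ℝ)} (hsup : Sup4 ν S) {p p' z : ι → ℝ}
    (hz : ∀ i, (p i = p' i ∧ 0 ≤ z i) ∨ (p i ≤ p' i ∧ z i = 0))
    (h1 : p ∈ S) (h2 : p' ∈ S) (h3 : p + z ∈ S) (h4 : p' + z ∈ S) :
    Inc ν z p' ≤ Inc ν z p := by
  have e1 : p' ⊓ (p + z) = p := by
    ext i
    simp only [Pi.inf_apply, Pi.add_apply]
    rcases hz i with ⟨a, b⟩ | ⟨a, b⟩
    · rw [← a]; exact min_eq_left (by linarith)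
    · rw [b, add_zero]; exact min_eq_right a
  have e2 : p' ⊔ (p + z) = p' + z := by
    ext i
    simp only [Pi.sup_apply, Pi.add_apply]
    rcases hz i with ⟨a, b⟩ | ⟨a, b⟩
    · rw [← a]; exact max_eq_right (by linarith)
    · rw [b, add_zero, add_zero]; exact max_eq_left a
  have := hsup p' h2 (p + z) h3 (by rw [e1]; exact h1) (by rw [e2]; exact h4)
  rw [e1, e2] at this
  unfold Inc
  linarith

theorem inc_split (ν : (ι → ℝ) → ℝ) (d d' p : ι → ℝ) :
    Inc ν (d + d') p = Inc ν d p + Inc ν d' (p + d) := by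
  unfold Inc; rw [add_assoc]; ring

end alg

section cone

variable {ι : Type*} {E : Type*} [NormedAddCommGroup E] [NormedSpace ℝ E]

/-- type I move: raise by `L y` from `w`; the other coordinates are behind -/
def MoveI (L : E →ₗ[ℝ] (ι → ℝ)) (w z : ι → ℝ) (y : E) : Prop :=
  ∀ i, (w i = 0 ∧ z i = L y i ∧ 0 ≤ z i) ∨ (z i = 0 ∧ w i ≤ 0 ∧ w i ≤ L y i)

/-- type II move: raise by `L y` from `w`; the other coordinates are ahead of the end -/
def MoveII (L : E →ₗ[ℝ] (ι → ℝ)) (w z : ι → ℝ) (y : E) : Prop :=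
  ∀ i, (w i = 0 ∧ z i = L y i ∧ 0 ≤ z i) ∨ (z i = 0 ∧ 0 ≤ w i ∧ L y i ≤ w i)

/-- wall cone: convex cone which contains the natural directions -/
structure Cone (L : E →ₗ[ℝ] (ι → ℝ)) (LEG : Set (ι → ℝ)) : Prop where
  smul : ∀ c ∈ LEG, ∀ t : ℝ, 0 ≤ t → t • c ∈ LEG
  add : ∀ c ∈ LEG, ∀ c' ∈ LEG, c + c' ∈ LEG
  nat : ∀ x, L x ∈ LEG

variable {L : E →ₗ[ℝ] (ι → ℝ)} {LEG S : Set (ι → ℝ)} {ν : (ι → ℝ) → ℝ} {w z b : ι → ℝ} {x y : E}

/-- the seven points of the halving inequality -/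
theorem seven (hC : Cone L LEG) (hw : w ∈ LEG) (hwz : w + z ∈ LEG) {h r : ℝ} (hh : 0 ≤ h)
    (hS : ∀ c ∈ LEG, (∀ i, |c i| ≤ r) → b + L x + c ∈ S)
    (hr : ∀ i, h * (|w i| + |z i| + |L y i|) ≤ r) :
    b + L x + h • w ∈ S ∧ b + L x + h • w + (h / 2) • z ∈ S ∧
    b + L x + h • w + (h / 2) • z + (h / 2) • z ∈ S ∧
    b + L x + (h / 2) • w ∈ S ∧ b + L x + (h / 2) • w + (h / 2) • z ∈ S ∧
    b + L (x + (h / 2) • y) + (h / 2) • w ∈ S ∧
    b + L (x + (h / 2) • y) + (h / 2) • w + (h / 2) • z ∈ S := by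
  have hh2 : 0 ≤ h / 2 := by linarith
  have key : ∀ c ∈ LEG, (∀ i, |c i| ≤ h * (|w i| + |z i| + |L y i|)) → b + L x + c ∈ S :=
    fun c hc h1 => hS c hc fun i => (h1 i).trans (hr i)
  have hb : ∀ i, 0 ≤ h * |w i| ∧ 0 ≤ h * |z i| ∧ 0 ≤ h * |L y i| := fun i =>
    ⟨by positivity, by positivity, by positivity⟩
  have aw : ∀ i, -(h * |w i|) ≤ h * w i ∧ h * w i ≤ h * |w i| := fun i =>
    ⟨by nlinarith [neg_abs_le (w i)], by nlinarith [le_abs_self (w i)]⟩
  have az : ∀ i, -(h * |z i|) ≤ h * z i ∧ h * z i ≤ h * |z i| := fun i =>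
    ⟨by nlinarith [neg_abs_le (z i)], by nlinarith [le_abs_self (z i)]⟩
  have ay : ∀ i, -(h * |L y i|) ≤ h * L y i ∧ h * L y i ≤ h * |L y i| := fun i =>
    ⟨by nlinarith [neg_abs_le (L y i)], by nlinarith [le_abs_self (L y i)]⟩
  have l1 : h • w ∈ LEG := hC.smul _ hw _ hh
  have l2 : (h / 2) • w ∈ LEG := hC.smul _ hw _ hh2
  have l3 : (h / 2) • (w + z) ∈ LEG := hC.smul _ hwz _ hh2
  have l4 : (h / 2) • L y ∈ LEG := hC.smul _ (hC.nat y) _ hh2
  refine ⟨key _ l1 ?_, ?_, ?_, key _ l2 ?_, ?_, ?_, ?_⟩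
  · intro i; simp only [Pi.smul_apply, smul_eq_mul]; rw [abs_le]
    constructor <;> nlinarith [aw i, hb i]
  · rw [show b + L x + h • w + (h / 2) • z = b + L x + ((h / 2) • w + (h / 2) • (w + z)) by
      ext i; simp only [Pi.add_apply, Pi.smul_apply, smul_eq_mul]; ring]
    refine key _ (hC.add _ l2 _ l3) ?_
    intro i; simp only [Pi.smul_apply, Pi.add_apply, smul_eq_mul]; rw [abs_le]
    constructor <;> nlinarith [aw i, az i, hb i]
  · rw [show b + L x + h • w + (h / 2) • z + (h / 2) • z =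
      b + L x + ((h / 2) • (w + z) + (h / 2) • (w + z)) by
      ext i; simp only [Pi.add_apply, Pi.smul_apply, smul_eq_mul]; ring]
    refine key _ (hC.add _ l3 _ l3) ?_
    intro i; simp only [Pi.smul_apply, Pi.add_apply, smul_eq_mul]; rw [abs_le]
    constructor <;> nlinarith [aw i, az i, hb i]
  · intro i; simp only [Pi.smul_apply, smul_eq_mul]; rw [abs_le]
    constructor <;> nlinarith [aw i, hb i]
  · rw [show b + L x + (h / 2) • w + (h / 2) • z = b + L x + (h / 2) • (w + z) by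
      ext i; simp only [Pi.add_apply, Pi.smul_apply, smul_eq_mul]; ring]
    refine key _ l3 ?_
    intro i; simp only [Pi.smul_apply, Pi.add_apply, smul_eq_mul]; rw [abs_le]
    constructor <;> nlinarith [aw i, az i, hb i]
  · rw [show b + L (x + (h / 2) • y) + (h / 2) • w = b + L x + ((h / 2) • L y + (h / 2) • w) by
      rw [map_add, map_smul]
      ext i; simp only [Pi.add_apply, Pi.smul_apply, smul_eq_mul]; ring]
    refine key _ (hC.add _ l4 _ l2) ?_
    intro i; simp only [Pi.smul_apply, Pi.add_apply, smul_eq_mul]; rw [abs_le]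
    constructor <;> nlinarith [aw i, ay i, hb i]
  · rw [show b + L (x + (h / 2) • y) + (h / 2) • w + (h / 2) • z =
      b + L x + ((h / 2) • L y + (h / 2) • (w + z)) by
      rw [map_add, map_smul]
      ext i; simp only [Pi.add_apply, Pi.smul_apply, smul_eq_mul]; ring]
    refine key _ (hC.add _ l4 _ l3) ?_
    intro i; simp only [Pi.smul_apply, Pi.add_apply, smul_eq_mul]; rw [abs_le]
    constructor <;> nlinarith [aw i, az i, ay i, hb i]

theorem half_add (h : ℝ) (z : ι → ℝ) : h • z = (h / 2) • z + (h / 2) • z := by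
  rw [← add_smul]; congr 1; ring

/-- halving, type I -/
theorem half_I (hsup : Sup4 ν S) (hC : Cone L LEG) (hw : w ∈ LEG) (hwz : w + z ∈ LEG)
    (hm : MoveI L w z y) {h r : ℝ} (hh : 0 ≤ h)
    (hS : ∀ c ∈ LEG, (∀ i, |c i| ≤ r) → b + L x + c ∈ S)
    (hr : ∀ i, h * (|w i| + |z i| + |L y i|) ≤ r) :
    Inc ν ((h / 2) • z) (b + L x + (h / 2) • w) +
      Inc ν ((h / 2) • z) (b + L (x + (h / 2) • y) + (h / 2) • w) ≤
      Inc ν (h • z) (b + L x + h • w) := by
  obtain ⟨p1, p2, p3, p4, p5, p6, p7⟩ := seven (y := y) hC hw hwz hh hS hr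
  have hh2 : 0 ≤ h / 2 := by linarith
  rw [half_add h z, inc_split]
  refine add_le_add ?_ ?_
  · refine inc_anti hsup (fun i => ?_) p1 p4 p2 p5
    simp only [Pi.add_apply, Pi.smul_apply, smul_eq_mul]
    rcases hm i with ⟨a, b', c⟩ | ⟨a, b', c⟩
    · left; rw [a]; exact ⟨by ring, mul_nonneg hh2 c⟩
    · right; rw [a]; exact ⟨by nlinarith, by ring⟩
  · refine inc_anti hsup (fun i => ?_) p2 p6 p3 p7
    rw [map_add, map_smul]
    simp only [Pi.add_apply, Pi.smul_apply, smul_eq_mul]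
    rcases hm i with ⟨a, b', c⟩ | ⟨a, b', c⟩
    · left; rw [a, b']; rw [b'] at c; exact ⟨by ring, mul_nonneg hh2 c⟩
    · right; rw [a]; exact ⟨by nlinarith, by ring⟩

/-- halving, type II -/
theorem half_II (hsup : Sup4 ν S) (hC : Cone L LEG) (hw : w ∈ LEG) (hwz : w + z ∈ LEG)
    (hm : MoveII L w z y) {h r : ℝ} (hh : 0 ≤ h)
    (hS : ∀ c ∈ LEG, (∀ i, |c i| ≤ r) → b + L x + c ∈ S)
    (hr : ∀ i, h * (|w i| + |z i| + |L y i|) ≤ r) :
    Inc ν (h • z) (b + L x + h • w) ≤ Inc ν ((h / 2) • z) (b + L x + (h / 2) • w) +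
      Inc ν ((h / 2) • z) (b + L (x + (h / 2) • y) + (h / 2) • w) := by
  obtain ⟨p1, p2, p3, p4, p5, p6, p7⟩ := seven (y := y) hC hw hwz hh hS hr
  have hh2 : 0 ≤ h / 2 := by linarith
  rw [half_add h z, inc_split]
  refine add_le_add ?_ ?_
  · refine inc_anti hsup (fun i => ?_) p4 p1 p5 p2
    simp only [Pi.add_apply, Pi.smul_apply, smul_eq_mul]
    rcases hm i with ⟨a, b', c⟩ | ⟨a, b', c⟩
    · left; rw [a]; exact ⟨by ring, mul_nonneg hh2 c⟩
    · right; rw [a]; exact ⟨by nlinarith, by ring⟩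
  · refine inc_anti hsup (fun i => ?_) p6 p2 p7 p3
    rw [map_add, map_smul]
    simp only [Pi.add_apply, Pi.smul_apply, smul_eq_mul]
    rcases hm i with ⟨a, b', c⟩ | ⟨a, b', c⟩
    · left; rw [a, b']; rw [b'] at c; exact ⟨by ring, mul_nonneg hh2 c⟩
    · right; rw [a]; exact ⟨by nlinarith, by ring⟩

end cone

section main

variable {ι : Type*} [Fintype ι] {E : Type*} [NormedAddCommGroup E] [NormedSpace ℝ E]
  [FiniteDimensional ℝ E] [MeasurableSpace E] [BorelSpace E] (μ : Measure E) [μ.IsAddHaarMeasure]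
  {L : E →ₗ[ℝ] (ι → ℝ)} {LEG S : Set (ι → ℝ)} {ν : (ι → ℝ) → ℝ} {b : ι → ℝ} {K : ℝ}

/-- difference of the rescaled increments of a move at `x + h u` and `x` -/
noncomputable def GG (ν : (ι → ℝ) → ℝ) (b : ι → ℝ) (L : E →ₗ[ℝ] (ι → ℝ)) (w z : ι → ℝ) (u x : E)
    (h : ℝ) : ℝ :=
  (Inc ν (h • z) (b + L (x + h • u) + h • w) - Inc ν (h • z) (b + L x + h • w)) / h

theorem inc_le (hlip : ∀ p q, |ν p - ν q| ≤ K * ‖p - q‖) (d p : ι → ℝ) :
    |Inc ν d p| ≤ K * ‖d‖ := by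
  have := hlip p (p + d)
  rwa [sub_add_cancel_left, norm_neg] at this

theorem inc_sub_le (hlip : ∀ p q, |ν p - ν q| ≤ K * ‖p - q‖) (d p q : ι → ℝ) :
    |Inc ν d p - Inc ν d q| ≤ 2 * K * ‖p - q‖ := by
  have h1 := abs_le.1 (hlip p q)
  have h2 := hlip (p + d) (q + d)
  rw [add_sub_add_right_eq_sub] at h2
  have h2 := abs_le.1 h2
  unfold Inc
  rw [abs_le]; constructor <;> linarith [h1.1, h1.2, h2.1, h2.2]

theorem exists_Lam (L : E →ₗ[ℝ] (ι → ℝ)) : ∃ Λ : ℝ, 0 ≤ Λ ∧ ∀ x, ‖L x‖ ≤ Λ * ‖x‖ := by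
  refine ⟨‖LinearMap.toContinuousLinearMap L‖, norm_nonneg _, fun x => ?_⟩
  exact (LinearMap.toContinuousLinearMap L).le_opNorm x

/-- one move, dyadic scales, near one point -/
theorem move_local (hK : 0 ≤ K) (hlip : ∀ p q, |ν p - ν q| ≤ K * ‖p - q‖) (hsup : Sup4 ν S)
    (hC : Cone L LEG) {w z : ι → ℝ} {y : E} (hw : w ∈ LEG) (hwz : w + z ∈ LEG)
    (hm : MoveI L w z y ∨ MoveII L w z y) {x₀ : E} {ρ r : ℝ} (hρ : 0 < ρ) (hr : 0 < r)
    (hS : ∀ x, ‖x - x₀‖ ≤ ρ → ∀ c ∈ LEG, (∀ i, |c i| ≤ r) → b + L x + c ∈ S) :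
    ∀ᵐ x ∂μ, ‖x - x₀‖ < ρ / 2 → ∀ u : E,
      Tendsto (fun k : ℕ => GG ν b L w z u x ((1 / 2) ^ k)) atTop (𝓝 0) := by
  obtain ⟨Λ, hΛ0, hΛ⟩ := exists_Lam L
  set M : ℝ := ‖w‖ + ‖z‖ + ‖L y‖ + ‖y‖ + 1 with hM
  have hM1 : 0 < M := by rw [hM]; positivity
  obtain ⟨k₀, hk₀⟩ := exists_pow_lt_of_lt_one (show 0 < min (r / M) (1 / M) by positivity)
    (show (1 / 2 : ℝ) < 1 by norm_num)
  have hk1 : (1 / 2 : ℝ) ^ k₀ * M ≤ r := by
    have := hk₀.le.trans (min_le_left _ _)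
    rwa [le_div_iff₀ hM1] at this
  have hk2 : (1 / 2 : ℝ) ^ k₀ * M ≤ 1 := by
    have := hk₀.le.trans (min_le_right _ _)
    rwa [le_div_iff₀ hM1] at this
  set φ : ℕ → E → ℝ := fun k x =>
    Inc ν (((1 / 2 : ℝ) ^ (k + k₀)) • z) (b + L x + ((1 / 2 : ℝ) ^ (k + k₀)) • w) /
      (1 / 2 : ℝ) ^ (k + k₀) with hφ
  have hpos : ∀ k : ℕ, (0 : ℝ) < (1 / 2) ^ k := fun k => by positivity
  have hνc : Continuous ν := by
    refine (LipschitzWith.of_dist_le_mul (K := K.toNNReal) fun p q => ?_).continuous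
    rw [Real.dist_eq, dist_eq_norm, Real.coe_toNNReal _ hK]
    exact hlip p q
  have hLc : Continuous L := (LinearMap.toContinuousLinearMap L).continuous
  have hφc : ∀ k, Continuous (φ k) := by
    intro k
    simp only [hφ, Inc]
    refine Continuous.div_const ?_ _
    refine (hνc.comp ?_).sub (hνc.comp ?_) <;> fun_prop
  have hφK : ∀ k x, |φ k x| ≤ K * ‖z‖ := by
    intro k x
    simp only [hφ]
    rw [abs_div, abs_of_pos (hpos _), div_le_iff₀ (hpos _)]
    refine (inc_le hlip _ _).trans (le_of_eq ?_)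
    rw [norm_smul, Real.norm_of_nonneg (hpos _).le]; ring
  have hφlip : ∀ k x x', |φ k x - φ k x'| ≤ (2 * K * Λ * 2 ^ k₀) * 2 ^ k * ‖x - x'‖ := by
    intro k x x'
    simp only [hφ]
    rw [← sub_div, abs_div, abs_of_pos (hpos _), div_le_iff₀ (hpos _)]
    refine (inc_sub_le hlip _ _ _).trans ?_
    have e : b + L x + ((1 / 2 : ℝ) ^ (k + k₀)) • w - (b + L x' + ((1 / 2 : ℝ) ^ (k + k₀)) • w)
        = L (x - x') := by rw [map_sub]; abel
    rw [e]
    have h1 : (2 : ℝ) ^ k₀ * 2 ^ k * (1 / 2) ^ (k + k₀) = 1 := by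
      rw [← pow_add, add_comm k₀ k, ← mul_pow]; norm_num
    calc 2 * K * ‖L (x - x')‖ ≤ 2 * K * (Λ * ‖x - x'‖) :=
          mul_le_mul_of_nonneg_left (hΛ _) (by positivity)
      _ = 2 * K * Λ * ((2 : ℝ) ^ k₀ * 2 ^ k * (1 / 2) ^ (k + k₀)) * ‖x - x'‖ := by rw [h1]; ring
      _ = _ := by ring
  set c : ℕ → E := fun k => ((1 / 2 : ℝ) ^ (k + k₀ + 1)) • y with hc
  have hcb : ∀ k, ‖c k‖ ≤ (1 / 2) ^ k := by
    intro k
    simp only [hc]
    rw [norm_smul, Real.norm_of_nonneg (hpos _).le]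
    have h1 : ‖y‖ ≤ M := by
      rw [hM]; linarith [norm_nonneg w, norm_nonneg z, norm_nonneg (L y)]
    have h2 : (1 / 2 : ℝ) ^ (k + k₀ + 1) * ‖y‖ ≤ (1 / 2) ^ (k + k₀) * M := by
      refine mul_le_mul ?_ h1 (norm_nonneg _) (hpos _).le
      exact pow_le_pow_of_le_one (by norm_num) (by norm_num) (by omega)
    refine h2.trans ?_
    rw [pow_add, mul_assoc]
    have := mul_le_mul_of_nonneg_left hk2 (hpos k).le
    rwa [mul_one] at this
  have hsm : ∀ k i, (1 / 2 : ℝ) ^ (k + k₀) * (|w i| + |z i| + |L y i|) ≤ r := by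
    intro k i
    have h1 : |w i| + |z i| + |L y i| ≤ M := by
      have a1 := norm_le_pi_norm w i
      have a2 := norm_le_pi_norm z i
      have a3 := norm_le_pi_norm (L y) i
      rw [Real.norm_eq_abs] at a1 a2 a3
      rw [hM]; linarith [norm_nonneg y]
    have h2 : (1 / 2 : ℝ) ^ (k + k₀) ≤ (1 / 2) ^ k₀ :=
      pow_le_pow_of_le_one (by norm_num) (by norm_num) (by omega)
    calc (1 / 2 : ℝ) ^ (k + k₀) * (|w i| + |z i| + |L y i|) ≤ (1 / 2) ^ k₀ * M :=
          mul_le_mul h2 h1 (by positivity) (hpos _).le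
      _ ≤ r := hk1
  have hhalf : ∀ k : ℕ, ((1 / 2 : ℝ) ^ (k + k₀)) / 2 = (1 / 2) ^ (k + 1 + k₀) := by
    intro k
    rw [show k + 1 + k₀ = k + k₀ + 1 by ring, pow_succ]; ring
  have main : ∀ᵐ x ∂μ, ‖x - x₀‖ < ρ / 2 → ∀ u : E,
      Tendsto (fun k => φ k (x + ((1 / 2 : ℝ) ^ k) • u) - φ k x) atTop (𝓝 0) := by
    rcases hm with hm | hm
    · refine ae_stat μ x₀ (ρ / 2) (σ := ρ / 2) (by positivity) (fun k => (hφc k).measurable)
        (K := K * ‖z‖) (by positivity) hφK hφlip hcb fun k x hx => ?_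
      rw [add_halves] at hx
      have := half_I hsup hC hw hwz hm (hpos (k + k₀)).le (hS x hx) (hsm k)
      simp only [hφ, hc]
      rw [hhalf] at this
      rw [show ((1 / 2 : ℝ) ^ (k + k₀ + 1)) • y = ((1 / 2 : ℝ) ^ (k + 1 + k₀)) • y by
        rw [show k + k₀ + 1 = k + 1 + k₀ by ring]]
      rw [← add_div, div_div, div_le_div_iff₀ (by positivity) (by positivity)]
      rw [show (1 / 2 : ℝ) ^ (k + 1 + k₀) * 2 = (1 / 2) ^ (k + k₀) by rw [← hhalf]; ring]
      exact mul_le_mul_of_nonneg_right this (hpos _).le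
    · have hneg := ae_stat μ x₀ (ρ / 2) (σ := ρ / 2) (by positivity) (φ := fun k x => -φ k x)
        (fun k => (hφc k).measurable.neg)
        (K := K * ‖z‖) (K' := 2 * K * Λ * 2 ^ k₀) (by positivity)
        (fun k x => by rw [abs_neg]; exact hφK k x)
        (fun k x x' => by
          rw [show -φ k x - -φ k x' = -(φ k x - φ k x') by ring, abs_neg]; exact hφlip k x x')
        hcb (fun k x hx => by
          rw [add_halves] at hx
          have := half_II hsup hC hw hwz hm (hpos (k + k₀)).le (hS x hx) (hsm k)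
          simp only [hφ, hc]
          rw [hhalf] at this
          rw [show ((1 / 2 : ℝ) ^ (k + k₀ + 1)) • y = ((1 / 2 : ℝ) ^ (k + 1 + k₀)) • y by
            rw [show k + k₀ + 1 = k + 1 + k₀ by ring]]
          rw [← neg_add, neg_div, neg_le_neg_iff, ← add_div, div_div,
            div_le_div_iff₀ (by positivity) (by positivity)]
          rw [show (1 / 2 : ℝ) ^ (k + 1 + k₀) * 2 = (1 / 2) ^ (k + k₀) by rw [← hhalf]; ring]
          exact mul_le_mul_of_nonneg_right this (hpos _).le)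
      filter_upwards [hneg] with x hx hxr u
      have := (hx hxr u).neg
      rw [neg_zero] at this
      refine this.congr fun k => ?_
      ring
  filter_upwards [main] with x hx hxr u
  have h1 := hx hxr (((1 / 2 : ℝ) ^ k₀) • u)
  rw [← tendsto_add_atTop_iff_nat k₀]
  refine h1.congr fun k => ?_
  simp only [hφ, GG]
  rw [smul_smul, ← pow_add, ← sub_div]

end main

end Crest.Agent.R136.Dec146
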