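import Crest.Agent.R136.Dec4_146

/-!
# R136: blow-ups of a profile at a stationary point (helper146)

* `BU ν p F g` : `g` is the blow-up of `ν` at `p` along the filter `F` of scales.
* `exists_BU` : along an ultrafilter it exists.
* `BU.inv` : the increments of moves are invariant under the natural plane.
* `BU.sup4`, `BU.lip`, `BU.anti` : inherited properties on the wall cone.
* `ae_diffAt`, `BU.lin` : `g` is linear on the natural plane at a.e. point.
* `squeeze` : an increment with equal values at the ends of an order interval is constant on it.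
-/

set_option autoImplicit false
set_option linter.unusedSectionVars false
set_option linter.unusedVariables false

open Filter Topology MeasureTheory Set

namespace Crest.Agent.R136.Dec146

variable {ι : Type*} [Fintype ι] {E : Type*} [NormedAddCommGroup E] [NormedSpace ℝ E]
  [FiniteDimensional ℝ E]
  {L : E →ₗ[ℝ] (ι → ℝ)} {LEG S : Set (ι → ℝ)} {ν g : (ι → ℝ) → ℝ} {b p : ι → ℝ} {K : ℝ} {x : E}
  {F : Filter ℝ}

/-- `g` is the blow-up of `ν` at `p` along the filter `F` of scales -/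
def BU (ν : (ι → ℝ) → ℝ) (p : ι → ℝ) (F : Filter ℝ) (g : (ι → ℝ) → ℝ) : Prop :=
  ∀ c, Tendsto (fun h : ℝ => (ν (p + h • c) - ν p) / h) F (𝓝 (g c))

theorem exists_BU (hlip : ∀ p q, |ν p - ν q| ≤ K * ‖p - q‖) (W : Ultrafilter ℝ)
    (hW : (W : Filter ℝ) ≤ 𝓝[>] 0) : ∃ g, BU ν p W g := by
  have hpos : ∀ᶠ h : ℝ in (W : Filter ℝ), 0 < h := hW self_mem_nhdsWithin
  have H : ∀ c : ι → ℝ, ∃ y : ℝ, Tendsto (fun h : ℝ => (ν (p + h • c) - ν p) / h) W (𝓝 y) := by
    intro c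
    have hc : IsCompact (Icc (-(K * ‖c‖)) (K * ‖c‖)) := isCompact_Icc
    have hmem : ∀ᶠ h : ℝ in (W : Filter ℝ),
        (ν (p + h • c) - ν p) / h ∈ Icc (-(K * ‖c‖)) (K * ‖c‖) := by
      filter_upwards [hpos] with h hh
      rw [mem_Icc, ← abs_le, abs_div, abs_of_pos hh, div_le_iff₀ hh]
      refine (hlip _ _).trans (le_of_eq ?_)
      rw [add_sub_cancel_left, norm_smul, Real.norm_of_nonneg hh.le]; ring
    obtain ⟨y, _, hy⟩ := hc.ultrafilter_le_nhds (W.map fun h : ℝ => (ν (p + h • c) - ν p) / h)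
      (by rw [le_principal_iff]; exact hmem)
    exact ⟨y, hy⟩
  choose g hg using H
  exact ⟨g, hg⟩

theorem BU.zero [NeBot F] (hF : F ≤ 𝓝[>] 0) (hg : BU ν p F g) : g 0 = 0 := by
  have h1 := hg 0
  refine tendsto_nhds_unique h1 (tendsto_const_nhds.congr fun h => ?_)
  simp

theorem BU.inc (hg : BU ν p F g) (z w : ι → ℝ) :
    Tendsto (fun h : ℝ => Inc ν (h • z) (p + h • w) / h) F (𝓝 (Inc g z w)) := by
  refine ((hg w).sub (hg (w + z))).congr fun h => ?_
  unfold Inc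
  rw [← sub_div, smul_add, add_assoc]
  congr 1
  ring

/-- **invariance** of the increments of moves under the natural plane -/
theorem BU.inv [NeBot F] (hF : F ≤ 𝓝[>] 0) (hg : BU ν (b + L x) F g) (hst : StatAt ν b L LEG x)
    {m : (ι → ℝ) × (ι → ℝ) × E} (hm : m ∈ Mv L LEG) (u : E) :
    Inc g m.2.1 (L u + m.1) = Inc g m.2.1 m.1 := by
  have h1 := hg.inc m.2.1 (L u + m.1)
  have h2 := hg.inc m.2.1 m.1
  have h3 := (hst m hm u).mono_left hF
  have h4 := h1.sub h2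
  have h5 : Tendsto (fun h => GG ν b L m.1 m.2.1 u x h) F
      (𝓝 (Inc g m.2.1 (L u + m.1) - Inc g m.2.1 m.1)) := by
    refine h4.congr fun h => ?_
    unfold GG
    rw [← sub_div, map_add, map_smul, smul_add]
    congr 3
    abel
  have := tendsto_nhds_unique h5 h3
  linarith

theorem BU.lip [NeBot F] (hF : F ≤ 𝓝[>] 0) (hg : BU ν p F g)
    (hlip : ∀ p q, |ν p - ν q| ≤ K * ‖p - q‖) (c c' : ι → ℝ) : |g c - g c'| ≤ K * ‖c - c'‖ := by
  have h1 := ((hg c).sub (hg c')).abs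
  refine le_of_tendsto h1 ?_
  have hpos : ∀ᶠ h : ℝ in F, 0 < h := hF self_mem_nhdsWithin
  filter_upwards [hpos] with h hh
  rw [← sub_div, abs_div, abs_of_pos hh, div_le_iff₀ hh]
  rw [show ν (p + h • c) - ν p - (ν (p + h • c') - ν p) = ν (p + h • c) - ν (p + h • c') by ring]
  refine (hlip _ _).trans (le_of_eq ?_)
  rw [add_sub_add_left_eq_sub, ← smul_sub, norm_smul, Real.norm_of_nonneg hh.le]; ring

theorem inf_smul {h : ℝ} (hh : 0 ≤ h) (p c c' : ι → ℝ) :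
    (p + h • c) ⊓ (p + h • c') = p + h • (c ⊓ c') := by
  ext i
  simp only [Pi.inf_apply, Pi.add_apply, Pi.smul_apply, smul_eq_mul]
  rw [mul_min_of_nonneg _ _ hh, ← min_add_add_left]

theorem sup_smul {h : ℝ} (hh : 0 ≤ h) (p c c' : ι → ℝ) :
    (p + h • c) ⊔ (p + h • c') = p + h • (c ⊔ c') := by
  ext i
  simp only [Pi.sup_apply, Pi.add_apply, Pi.smul_apply, smul_eq_mul]
  rw [mul_max_of_nonneg _ _ hh, ← max_add_add_left]

/-- the domain contains all small legal offsets -/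
theorem ev_mem (hC : Cone L LEG) {Ω : Set E} (hΩ : Dom b L LEG S Ω) (hx : x ∈ Ω)
    {c : ι → ℝ} (hc : c ∈ LEG) : ∀ᶠ h : ℝ in 𝓝[>] 0, b + L x + h • c ∈ S := by
  obtain ⟨ρ, hρ, r, hr, hS⟩ := hΩ x hx
  have h0 : 0 < r / (‖c‖ + 1) := by positivity
  have : Ioo (0 : ℝ) (r / (‖c‖ + 1)) ∈ 𝓝[>] (0 : ℝ) := Ioo_mem_nhdsGT h0
  filter_upwards [this] with h hh
  refine hS x (by simpa using hρ.le) _ (hC.smul _ hc _ hh.1.le) fun i => ?_
  have h1 := hh.2
  rw [lt_div_iff₀ (by positivity)] at h1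
  have h2 := norm_le_pi_norm c i
  rw [Real.norm_eq_abs] at h2
  rw [Pi.smul_apply, smul_eq_mul, abs_mul, abs_of_pos hh.1]
  nlinarith [hh.1, abs_nonneg (c i)]

theorem BU.sup4 [NeBot F] (hF : F ≤ 𝓝[>] 0) (hsup : Sup4 ν S) (hC : Cone L LEG) {Ω : Set E}
    (hΩ : Dom b L LEG S Ω) (hx : x ∈ Ω) (hg : BU ν (b + L x) F g) : Sup4 g LEG := by
  intro c hc c' hc' hi hs
  have h1 := (hg c).add (hg c')
  have h2 := (hg (c ⊔ c')).add (hg (c ⊓ c'))
  refine le_of_tendsto_of_tendsto h1 h2 ?_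
  filter_upwards [hF self_mem_nhdsWithin, hF (ev_mem hC hΩ hx hc), hF (ev_mem hC hΩ hx hc'),
    hF (ev_mem hC hΩ hx hi), hF (ev_mem hC hΩ hx hs)] with h h0 m1 m2 m3 m4
  have h0 : 0 < h := h0
  rw [← add_div, ← add_div, div_le_div_iff_of_pos_right h0]
  have := hsup _ m1 _ m2 (by rw [inf_smul h0.le]; exact m3) (by rw [sup_smul h0.le]; exact m4)
  rw [inf_smul h0.le, sup_smul h0.le] at this
  linarith

theorem BU.anti [NeBot F] (hF : F ≤ 𝓝[>] 0) (hanti : ∀ p ∈ S, ∀ q ∈ S, p ≤ q → ν q ≤ ν p)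
    (hC : Cone L LEG) {Ω : Set E} (hΩ : Dom b L LEG S Ω) (hx : x ∈ Ω)
    (hg : BU ν (b + L x) F g) {c c' : ι → ℝ} (hc : c ∈ LEG) (hc' : c' ∈ LEG) (h : c ≤ c') :
    g c' ≤ g c := by
  refine le_of_tendsto_of_tendsto (hg c') (hg c) ?_
  filter_upwards [hF self_mem_nhdsWithin, hF (ev_mem hC hΩ hx hc), hF (ev_mem hC hΩ hx hc')]
    with t h0 m1 m2
  have h0 : 0 < t := h0
  rw [div_le_div_iff_of_pos_right h0]
  have := hanti _ m1 _ m2 (by gcongr)
  linarith

/-- an increment which has the same value at the ends of an order interval is constant on it -/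
theorem squeeze (hsup : Sup4 g LEG) {p q p' z : ι → ℝ}
    (h1 : ∀ i, (p i = q i ∧ 0 ≤ z i) ∨ (p i ≤ q i ∧ z i = 0))
    (h2 : ∀ i, (q i = p' i ∧ 0 ≤ z i) ∨ (q i ≤ p' i ∧ z i = 0))
    (m1 : p ∈ LEG) (m2 : q ∈ LEG) (m3 : p' ∈ LEG) (n1 : p + z ∈ LEG) (n2 : q + z ∈ LEG)
    (n3 : p' + z ∈ LEG) (he : Inc g z p = Inc g z p') : Inc g z q = Inc g z p := by
  have a1 := inc_anti hsup h1 m1 m2 n1 n2
  have a2 := inc_anti hsup h2 m2 m3 n2 n3
  linarith

variable [MeasurableSpace E] [BorelSpace E] (μ : Measure E) [μ.IsAddHaarMeasure]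

/-- the profile is differentiable along the natural family, a.e. -/
theorem ae_diffAt (hK : 0 ≤ K) (hlip : ∀ p q, |ν p - ν q| ≤ K * ‖p - q‖) :
    ∀ᵐ x ∂μ, DifferentiableAt ℝ (fun x : E => ν (b + L x)) x := by
  obtain ⟨Λ, hΛ0, hΛ⟩ := exists_Lam' L
  have : LipschitzWith (K * Λ).toNNReal (fun x : E => ν (b + L x)) := by
    refine LipschitzWith.of_dist_le_mul fun x y => ?_
    rw [Real.dist_eq, dist_eq_norm, Real.coe_toNNReal _ (by positivity)]
    refine (hlip _ _).trans ?_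
    rw [add_sub_add_left_eq_sub, ← map_sub, mul_assoc]
    exact mul_le_mul_of_nonneg_left (hΛ _) hK
  exact this.ae_differentiableAt

theorem BU.lin [NeBot F] (hF : F ≤ 𝓝[>] 0) (hg : BU ν (b + L x) F g)
    (hd : DifferentiableAt ℝ (fun x : E => ν (b + L x)) x) (u : E) :
    g (L u) = fderiv ℝ (fun x : E => ν (b + L x)) x u := by
  have h1 := (hd.hasFDerivAt.hasLineDerivAt u)
  have h2 : Tendsto (fun h : ℝ => (ν (b + L (x + h • u)) - ν (b + L x)) / h) F
      (𝓝 (fderiv ℝ (fun x : E => ν (b + L x)) x u)) := by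
    have h3 := h1.tendsto_slope_zero
    have h4 : F ≤ 𝓝[≠] (0 : ℝ) := hF.trans (nhdsWithin_mono _ fun t ht => (ne_of_gt ht))
    refine (h3.mono_left h4).congr fun h => ?_
    rw [smul_eq_mul, div_eq_inv_mul]
  refine tendsto_nhds_unique (hg (L u)) (h2.congr fun h => ?_)
  rw [map_add, map_smul, add_assoc]

/-- everything at a.e. point -/
theorem ae_good (hK : 0 ≤ K) (hlip : ∀ p q, |ν p - ν q| ≤ K * ‖p - q‖) (hsup : Sup4 ν S)
    (hC : Cone L LEG) {Ω : Set E} (hΩ : Dom b L LEG S Ω) :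
    ∀ᵐ x ∂μ, x ∈ Ω → StatAt ν b L LEG x ∧ DifferentiableAt ℝ (fun x : E => ν (b + L x)) x := by
  filter_upwards [ae_statAt μ hK hlip hsup hC hΩ, ae_diffAt (b := b) (L := L) μ hK hlip]
    with x h1 h2 hx
  exact ⟨h1 hx, h2⟩

end Crest.Agent.R136.Dec146
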