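import Mathlib
import Crest.Agent.R136.Deep2_770

/-!
# R136 (helper770): `deepP_of_ubd`

Deep D-max from D-max at all levels and the deep supremum bound.
-/

set_option autoImplicit false
set_option linter.unusedVariables false
set_option linter.unusedSectionVars false

open Finset Filter Topology

namespace Crest.Agent.R136.Dia770

open Crest.Agent.R138.Ex926 Crest.Agent.R138.Dp76
open Crest.Agent.R138.Mk163 (zc zl rho alive own)
open Crest.Agent.R138.MkRef627 (lc mem_alive own_one alive_mono)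
open Crest.Agent.R136.MkA627 (Geo)
open Crest.Agent.R136.XA248 (rew wv valx Rel IsCl Low Up)

variable {σ κ : Type}

theorem d_exp (B : Base) (n : ℕ) (a : ℝ) : B.d n ^ a = Real.exp (-(a * B.L n)) := by
  rw [Real.rpow_def_of_pos (B.pos n)]
  congr 1
  unfold Base.L; ring

theorem two_exp (x : ℝ) : (2:ℝ) ^ x = Real.exp (x * Real.log 2) := by
  rw [Real.rpow_def_of_pos (by norm_num), mul_comm]

/-- first inequality -/
theorem deep_num1 {ℓ L g ε v x y A : ℝ} (hA : 0 < A) (hg : 0 ≤ g) (hε : 0 < ε) (hℓ : 0 < ℓ)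
    (hL : 0 < L) (hx : 0 ≤ x) (hy : y * ℓ ≤ (v + ε / (2 * (g + 1))) * L) :
    Real.exp (ε / 2 * L) * (A * Real.exp (g * (x + y) * ℓ)) ≤
      Real.exp (ε * L) * (A * Real.exp (g * v * L)) * Real.exp ((g + ε) * x * ℓ) := by
  have e1 : Real.exp (ε / 2 * L) * (A * Real.exp (g * (x + y) * ℓ)) =
      A * Real.exp (ε / 2 * L + g * (x + y) * ℓ) := by rw [Real.exp_add]; ring
  have e2 : Real.exp (ε * L) * (A * Real.exp (g * v * L)) * Real.exp ((g + ε) * x * ℓ) =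
      A * Real.exp (ε * L + g * v * L + (g + ε) * x * ℓ) := by
    rw [Real.exp_add, Real.exp_add]; ring
  rw [e1, e2]
  refine mul_le_mul_of_nonneg_left (Real.exp_le_exp.2 ?_) hA.le
  have h1 : g * (y * ℓ) ≤ g * ((v + ε / (2 * (g + 1))) * L) := mul_le_mul_of_nonneg_left hy hg
  have h2 : g * (ε / (2 * (g + 1))) ≤ ε / 2 := by
    rw [mul_div_assoc', div_le_div_iff₀ (by positivity) (by norm_num)]
    nlinarith
  have h3 : g * (ε / (2 * (g + 1))) * L ≤ ε / 2 * L := mul_le_mul_of_nonneg_right h2 hL.le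
  have h4 : 0 ≤ ε * x * ℓ := by positivity
  nlinarith

/-- final contradiction -/
theorem deep_num2 {ℓ L g ε v x y A h η e2 e3 : ℝ} (hA : 0 < A) (hg : 0 ≤ g) (hε : 0 < ε)
    (hℓ : 0 < ℓ) (hL : 0 < L) (hx : 0 ≤ x) (hv0 : 0 ≤ v) (hv1 : v ≤ 1) (hη : 0 < η)
    (hηε : η ≤ ε / 16) (he2 : 0 < e2) (he21 : e2 ≤ 1) (he2g : g * e2 ≤ ε / 8)
    (he3 : 5 * g * e3 ≤ ε / 8) (hy : y * ℓ ≤ (v + e2) * L) (hh : h * ℓ ≤ 5 * e3 * L)
    (hbig : 2 * Real.log 4 / ε < L)
    (H : Real.exp (ε * L) * (A * Real.exp (g * v * L)) * Real.exp ((g + ε) * x * ℓ) / 4 ≤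
      Real.exp (ε / 8 * L) * (A * Real.exp (g * h * ℓ)) * Real.exp ((g + η) * (x + y) * ℓ)) :
    False := by
  have e1 : Real.exp (ε * L) * (A * Real.exp (g * v * L)) * Real.exp ((g + ε) * x * ℓ) / 4 =
      A * Real.exp (ε * L + g * v * L + (g + ε) * x * ℓ - Real.log 4) := by
    rw [Real.exp_sub, Real.exp_log (by norm_num), Real.exp_add, Real.exp_add]; ring
  have e2' : Real.exp (ε / 8 * L) * (A * Real.exp (g * h * ℓ)) *
      Real.exp ((g + η) * (x + y) * ℓ) =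
      A * Real.exp (ε / 8 * L + g * h * ℓ + (g + η) * (x + y) * ℓ) := by
    rw [Real.exp_add, Real.exp_add]; ring
  rw [e1, e2'] at H
  have H1 := Real.exp_le_exp.1 (le_of_mul_le_mul_left H hA)
  have h1 : (g + η) * (y * ℓ) ≤ (g + η) * ((v + e2) * L) :=
    mul_le_mul_of_nonneg_left hy (by linarith)
  have h2 : g * (h * ℓ) ≤ g * (5 * e3 * L) := mul_le_mul_of_nonneg_left hh hg
  have h3 : 0 ≤ (ε - η) * (x * ℓ) := by
    have : 0 ≤ ε - η := by linarith
    positivity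
  have h4 : η * (v + e2) ≤ ε / 8 := by nlinarith
  have h5 : η * (v + e2) * L ≤ ε / 8 * L := mul_le_mul_of_nonneg_right h4 hL.le
  have h6 : g * e2 * L ≤ ε / 8 * L := mul_le_mul_of_nonneg_right he2g hL.le
  have h7 : 5 * g * e3 * L ≤ ε / 8 * L := mul_le_mul_of_nonneg_right he3 hL.le
  have h8 : 2 * Real.log 4 < L * ε := by rwa [div_lt_iff₀ hε] at hbig
  nlinarith

/-- size bound -/
theorem deep_num3 {ℓ L δ M K N : ℝ} (hℓ : 0 < ℓ) (hL : 0 < L) (hδ : 0 < δ) (hM : L / 2 ≤ M * ℓ)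
    (hK : K ≤ M) (hN : N ≤ Real.exp (δ / 4 * L) / ℓ) (h1 : 8 / (δ ^ 2 * ℓ) ≤ L)
    (h2 : 8 / (δ * ℓ) ≤ L) : K + N ≤ Real.exp (δ * M * ℓ) := by
  have hMp : 0 < M := by
    by_contra h
    push Not at h
    have : M * ℓ ≤ 0 := mul_nonpos_of_nonpos_of_nonneg h hℓ.le
    linarith
  have g1 : M ≤ Real.exp (δ * M * ℓ) / 2 := by
    have h3 := Real.quadratic_le_exp_of_nonneg (x := δ * M * ℓ) (by positivity)
    have h4 : 4 * M ≤ (δ * M * ℓ) ^ 2 := by
      rw [div_le_iff₀ (by positivity)] at h1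
      have h5 : 4 ≤ δ ^ 2 * ℓ * (M * ℓ) := by nlinarith [mul_pos (pow_pos hδ 2) hℓ]
      calc 4 * M ≤ δ ^ 2 * ℓ * (M * ℓ) * M := mul_le_mul_of_nonneg_right h5 hMp.le
        _ = (δ * M * ℓ) ^ 2 := by ring
    have h6 : 0 < δ * M * ℓ := by positivity
    linarith
  have g2 : N ≤ Real.exp (δ * M * ℓ) / 2 := by
    refine hN.trans ?_
    have h3 : Real.exp (δ / 4 * L) * Real.exp (δ / 4 * L) ≤ Real.exp (δ * M * ℓ) := by
      rw [← Real.exp_add]
      refine Real.exp_le_exp.2 ?_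
      nlinarith
    have h4 : 2 / ℓ ≤ Real.exp (δ / 4 * L) := by
      have h5 := Real.add_one_le_exp (δ / 4 * L)
      have h6 : 2 / ℓ ≤ δ / 4 * L := by
        rw [div_le_iff₀ (by positivity)] at h2 ⊢
        nlinarith
      linarith
    have hp := Real.exp_pos (δ / 4 * L)
    have h7 : Real.exp (δ / 4 * L) / ℓ * 2 ≤ Real.exp (δ / 4 * L) * Real.exp (δ / 4 * L) := by
      calc Real.exp (δ / 4 * L) / ℓ * 2 = Real.exp (δ / 4 * L) * (2 / ℓ) := by ring
        _ ≤ _ := mul_le_mul_of_nonneg_left h4 hp.le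
    linarith
  linarith

end Crest.Agent.R136.Dia770
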