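import Mathlib
import Crest.Agent.R136.Deep3_770

/-!
# R136 (helper770): `deepP_of_ubd`, sequence form
-/

set_option autoImplicit false
set_option linter.unusedVariables false
set_option linter.unusedSectionVars false

open Finset Filter Topology

namespace Crest.Agent.R136.Dia770

open Crest.Agent.R138.Ex926 Crest.Agent.R138.Dp76
open Crest.Agent.R138.Mk163 (zc zl rho alive own)
open Crest.Agent.R138.MkRef627 (lc mem_alive own_one alive_mono)
open Crest.Agent.R136.MkA627 (Geo)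
open Crest.Agent.R136.XA248 (rew wv valx Rel IsCl Low Up)

variable {σ κ : Type}

open Classical in
/-- objects of level `m ≤ l1` = alive lines -/
theorem card_ext_filter {J : Finset (ℕ × ℝ)} {l1 m : ℕ} (h : m ≤ l1) (j : ℤ) (p : ℕ → Prop) :
    ((extO J l1 m).filter fun o => o.2 = j ∧ p o.1).card = ((alive J m j).filter p).card := by
  have e : (alive J m j).filter p =
      ((extO J l1 m).filter fun o => o.2 = j ∧ p o.1).image Prod.fst := by
    ext t
    rw [mem_filter, mem_alive, mem_image]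
    constructor
    · rintro ⟨⟨x, hx, h1, h2⟩, h3⟩
      refine ⟨(t, j), mem_filter.2 ⟨(mem_extO_le h).2 ⟨x, hx, ?_⟩, rfl, h3⟩, rfl⟩
      unfold Crest.Agent.R138.MkRef627.lc
      rw [h1, h2]
    · rintro ⟨o, ho, rfl⟩
      obtain ⟨h1, h2, h3⟩ := mem_filter.1 ho
      obtain ⟨x, hx, rfl⟩ := (mem_extO_le h).1 h1
      exact ⟨⟨x, hx, rfl, h2⟩, h3⟩
  rw [e, card_image_of_injOn]
  intro a ha b hb hab
  rw [Finset.mem_coe, mem_filter] at ha hb
  exact Prod.ext hab (ha.2.1.trans hb.2.1.symm)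

/-- case 1 of `deepP_of_ubd`: the level `m n` is at most `lev n 1`. -/
theorem deepP_shallow (B : Base) {I : ℕ → Finset (ℕ × ℝ)} {G : Geo σ κ} {lev : ℕ → ℚ → ℕ}
    {A : ℕ → ℝ} {g : ℝ} (Apos : ∀ n, 0 < A n) (g0 : 0 ≤ g)
    (lev_mono : ∀ u v : ℚ, 0 ≤ u → u ≤ v → v ≤ 1 → ∀ᶠ n in (U : Filter ℕ), lev n u ≤ lev n v)
    (lev_lim : ∀ u v : ℚ, 0 ≤ u → u ≤ v → v ≤ 1 →
      Tendsto (fun n => ((lev n v : ℝ) - lev n u) * Real.log 2 / B.L n) U (𝓝 ((v : ℝ) - u)))
    (alld : AllD B I G lev A g) (hv : ∀ n i J s, G.adm n i J s → 0 ≤ G.val n i J s)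
    {v : ℚ} (hv0 : 0 ≤ v) (hv1 : v ≤ 1) {m : ℕ → ℕ}
    (hm : ∀ᶠ n in (U : Filter ℕ), lev n v ≤ m n) (hm1 : ∀ᶠ n in (U : Filter ℕ), m n ≤ lev n 1)
    {J : ℕ → Finset (ℕ × ℝ)} (hJ : Dense B J I) {ε : ℝ} (hε : 0 < ε) :
    ∀ᶠ n in (U : Filter ℕ), ∀ (j : ℤ) (s : σ), G.adm n (m n) j s →
      ((open Classical in ((extO (J n) (lev n 1) (m n)).filter
        fun o => o.2 = j ∧ G.mem n (m n) j s o.1).card : ℝ) ≤
        B.d n ^ (-ε) * (A n * B.d n ^ (-(g * v))) *
          2 ^ ((g + ε) * ((m n : ℝ) - lev n v)) * G.val n (m n) j s) := by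
  classical
  have hv' : (0:ℝ) ≤ v := by exact_mod_cast hv0
  have he : 0 < ε / (2 * (g + 1)) := by positivity
  have hlim : ∀ᶠ n in (U : Filter ℕ), ((lev n v : ℝ) - lev n 0) * Real.log 2 / B.L n <
      v + ε / (2 * (g + 1)) := by
    have h1 := lev_lim 0 v le_rfl hv0 hv1
    refine h1.eventually (Iio_mem_nhds ?_)
    have : ((0:ℚ) : ℝ) = 0 := by norm_num
    rw [this]; linarith
  filter_upwards [hm, hm1, hJ.1, alld (ε / 2) (by linarith), lev_mono 0 v le_rfl hv0 hv1, hlim] with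
    n a1 a2 a3 a4 a5 a6 j s hs
  have hL := B.L_pos n
  have hℓ : (0:ℝ) < Real.log 2 := Real.log_pos one_lt_two
  have h1 : ((extO (J n) (lev n 1) (m n)).filter
      fun o => o.2 = j ∧ G.mem n (m n) j s o.1).card =
      ((alive (J n) (m n) j).filter fun t => G.mem n (m n) j s t).card := by
    convert card_ext_filter a2 j (fun t => G.mem n (m n) j s t)
  have h2 : (((alive (J n) (m n) j).filter fun t => G.mem n (m n) j s t).card : ℝ) ≤
      ((alive (I n) (m n) j).filter fun t => G.mem n (m n) j s t).card := by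
    exact_mod_cast card_le_card (filter_subset_filter _ (alive_mono a3 _ _))
  have h3 := a4 (m n) (a5.trans a1) a2 j s hs
  rw [div_lt_iff₀ hL] at a6
  have h4 := deep_num1 (ℓ := Real.log 2) (L := B.L n) (g := g) (ε := ε) (v := v)
    (x := (m n : ℝ) - lev n v) (y := (lev n v : ℝ) - lev n 0) (A := A n) (Apos n) g0 hε hℓ hL
    (by rw [sub_nonneg]; exact_mod_cast a1) a6.le
  have e1 : (m n : ℝ) - lev n v + ((lev n v : ℝ) - lev n 0) = (m n : ℝ) - lev n 0 := by ring
  rw [e1] at h4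
  have e2 : B.d n ^ (-(ε / 2)) = Real.exp (ε / 2 * B.L n) := by rw [d_exp]; congr 1; ring
  have e3 : B.d n ^ (-ε) = Real.exp (ε * B.L n) := by rw [d_exp]; congr 1; ring
  have e4 : B.d n ^ (-(g * v)) = Real.exp (g * v * B.L n) := by rw [d_exp]; congr 1; ring
  rw [← two_exp, ← two_exp, ← e2, ← e3, ← e4] at h4
  have h5 : (((extO (J n) (lev n 1) (m n)).filter
      fun o => o.2 = j ∧ G.mem n (m n) j s o.1).card : ℝ) ≤
      ((alive (I n) (m n) j).filter fun t => G.mem n (m n) j s t).card := by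
    rw [h1]; exact h2
  refine le_trans ?_ (mul_le_mul_of_nonneg_right h4 (hv n _ _ _ hs))
  refine le_trans ?_ (h3.trans (le_of_eq ?_))
  · convert h5
  · ring

open Classical in
/-- **deep D-max.** -/
theorem deepP_of_ubd [Fintype κ] (B : Base) {I : ℕ → Finset (ℕ × ℝ)} {G : Geo σ κ}
    {Q : ℕ → ℕ → σ → Prop} {Rg : ℕ → Rel κ} {lev : ℕ → ℚ → ℕ} {A : ℕ → ℝ} {g : ℝ} {r0 : ℕ → ℝ}
    {hi : ℕ → ℕ} {Sh : ℕ → Finset (κ → ℝ)} {t : ℝ}
    (Apos : ∀ n, 0 < A n) (g0 : 0 ≤ g)
    (ne : ∀ᶠ n in (U : Filter ℕ), (I n).Nonempty)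
    (card : ∀ ε : ℝ, 0 < ε → ∀ᶠ n in (U : Filter ℕ), Real.log ((I n).card : ℝ) ≤ B.d n ^ (-ε))
    (lev_mono : ∀ u v : ℚ, 0 ≤ u → u ≤ v → v ≤ 1 → ∀ᶠ n in (U : Filter ℕ), lev n u ≤ lev n v)
    (lev_lim : ∀ u v : ℚ, 0 ≤ u → u ≤ v → v ≤ 1 →
      Tendsto (fun n => ((lev n v : ℝ) - lev n u) * Real.log 2 / B.L n) U (𝓝 ((v : ℝ) - u)))
    (cell0 : ∀ᶠ n in (U : Filter ℕ), ∀ x ∈ I n, ∀ y ∈ I n, zc (lev n 0) x.2 = zc (lev n 0) y.2)
    (one : ∀ᶠ n in (U : Filter ℕ), ∀ x ∈ I n, ∀ y ∈ I n, x.1 = y.1 →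
      zc (lev n 1) x.2 = zc (lev n 1) y.2 → x = y)
    (hown : ∀ ε : ℝ, 0 < ε → ∀ᶠ n in (U : Filter ℕ), ∀ x ∈ I n,
      B.d n ^ ε * 2 ^ (lev n 1 - lev n 0) ≤ ((own (I n) (lev n 0) (lev n 1) x).card : ℝ))
    (alld : AllD B I G lev A g)
    (hv : ∀ n i J s, G.adm n i J s → 0 ≤ G.val n i J s)
    (sh : ∀ n i J s, G.adm n i J s → wv G s ∈ Sh n)
    (shc : ∀ ε : ℝ, 0 < ε → ∀ᶠ n in (U : Filter ℕ), ((Sh n).card : ℝ) ≤ B.d n ^ (-ε))
    (ht : 0 < t) (hhi : Tendsto (fun n => ((hi n : ℝ) - lev n 0) * Real.log 2 / B.L n) U (𝓝 t))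
    (hu : UBd G Rg Q I (fun n => lev n 0) hi r0 g) :
    DeepP B I (restr G Q) lev A g r0 := by
  intro v hv0 hv1 m hm hr J hJ ε hε
  have hℓ : (0:ℝ) < Real.log 2 := Real.log_pos one_lt_two
  have hv0' : (0:ℝ) ≤ v := by exact_mod_cast hv0
  have hv1' : (v:ℝ) ≤ 1 := by exact_mod_cast hv1
  have key : ∀ P : ℕ → Finset (ℕ × ℤ), (∀ n, P n = extO (J n) (lev n 1) (m n)) →
      (∀ᶠ n in (U : Filter ℕ), m n ≤ lev n 1) →
      ∃ P : ℕ → Finset (ℕ × ℤ), (∀ n, P n ⊆ extO (J n) (lev n 1) (m n)) ∧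
        (∃ γ : ℝ, 0 < γ ∧ ∀ᶠ n in (U : Filter ℕ), ((extO (J n) (lev n 1) (m n)).card : ℝ) ≤
          (P n).card + B.d n ^ γ * (extO (J n) (lev n 1) (m n)).card) ∧
        ∀ᶠ n in (U : Filter ℕ), ∀ (j : ℤ) (s : σ), (restr G Q).adm n (m n) j s →
          (((P n).filter fun o => o.2 = j ∧ (restr G Q).mem n (m n) j s o.1).card : ℝ) ≤
            B.d n ^ (-ε) * (A n * B.d n ^ (-(g * v))) *
              2 ^ ((g + ε) * ((m n : ℝ) - lev n v)) * (restr G Q).val n (m n) j s := by
    intro P hP hm1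
    refine ⟨fun n => extO (J n) (lev n 1) (m n), fun n => Finset.Subset.refl _, ⟨1, one_pos, ?_⟩, ?_⟩
    · refine Eventually.of_forall fun n => ?_
      have := mul_nonneg (dpow_pos B n 1).le
        (Nat.cast_nonneg (α := ℝ) (extO (J n) (lev n 1) (m n)).card)
      linarith
    · filter_upwards [deepP_shallow B Apos g0 lev_mono lev_lim alld hv hv0 hv1 hm hm1 hJ hε] with
        n hn j s hs
      have := hn j s hs.1
      exact le_trans (le_of_eq (congrArg (fun S : Finset (ℕ × ℤ) => (S.card : ℝ))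
        (Finset.filter_congr (fun x _ => Iff.rfl)))) this
  -- dichotomy
  have hdich : (∀ᶠ n in (U : Filter ℕ), m n ≤ lev n 1) ∨
      ∀ᶠ n in (U : Filter ℕ), lev n 1 < m n := by
    rw [← Ultrafilter.eventually_or]
    exact Eventually.of_forall fun n => le_or_gt _ _
  rcases hdich with hm1 | hm1
  · exact key _ (fun n => rfl) hm1
  rcases isEmpty_or_nonempty σ with hσ | hσ
  · refine ⟨fun n => extO (J n) (lev n 1) (m n), fun n => Finset.Subset.refl _, ⟨1, one_pos, ?_⟩, ?_⟩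
    · refine Eventually.of_forall fun n => ?_
      have := mul_nonneg (dpow_pos B n 1).le
        (Nat.cast_nonneg (α := ℝ) (extO (J n) (lev n 1) (m n)).card)
      linarith
    · exact Eventually.of_forall fun n j s => isEmptyElim s
  -- extraction
  set X : ℕ → Finset (ℕ × ℤ) := fun n => extO (J n) (lev n 1) (m n) with hX
  set τ : ℕ → ℝ := fun n => B.d n ^ (-ε) * (A n * B.d n ^ (-(g * v))) *
    2 ^ ((g + ε) * ((m n : ℝ) - lev n v)) with hτ
  have hτ0 : ∀ n, 0 < τ n := by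
    intro n
    have h1 := dpow_pos B n (-ε)
    have h2 := dpow_pos B n (-(g * v))
    have h3 := Apos n
    have h4 : (0:ℝ) < 2 ^ ((g + ε) * ((m n : ℝ) - lev n v)) := Real.rpow_pos_of_pos (by norm_num) _
    simp only [hτ]
    positivity
  have hgr : ∀ n, ∃ (P : Finset (ℕ × ℤ)) (φ : ℕ × ℤ → ℕ) (b : ℕ → ℤ × σ), P ⊆ X n ∧
      (∀ s : ℤ × σ, (G.adm n (m n) s.1 s.2 ∧ Q n (m n) s.2) →
        ((P.filter fun o => o.2 = s.1 ∧ G.mem n (m n) s.1 s.2 o.1).card : ℝ) ≤
          τ n * G.val n (m n) s.1 s.2) ∧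
      ∀ x ∈ X n \ P, (G.adm n (m n) (b (φ x)).1 (b (φ x)).2 ∧ Q n (m n) (b (φ x)).2) ∧
        (x.2 = (b (φ x)).1 ∧ G.mem n (m n) (b (φ x)).1 (b (φ x)).2 x.1) ∧
        τ n * G.val n (m n) (b (φ x)).1 (b (φ x)).2 <
          (((X n \ P).filter fun y => φ y = φ x).card : ℝ) := by
    intro n
    obtain ⟨P, φ, b, h1, h2, h3⟩ := greedy (X := ℕ × ℤ) (σ := ℤ × σ)
      (fun s o => o.2 = s.1 ∧ G.mem n (m n) s.1 s.2 o.1)
      (fun s => G.adm n (m n) s.1 s.2 ∧ Q n (m n) s.2)
      (fun s => τ n * G.val n (m n) s.1 s.2)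
      (fun s hs => mul_nonneg (hτ0 n).le (hv _ _ _ _ hs.1)) (X n).card (X n) le_rfl
    refine ⟨P, φ, b, h1, fun s hs => ?_, fun x hx => ?_⟩
    · convert h2 s hs
    · have hx' : x ∈ X n \ P := hx
      obtain ⟨k1, k2, k3⟩ := h3 x (by convert hx')
      refine ⟨k1, k2, ?_⟩
      convert k3
  choose P φ b hPX hPd hPc using hgr
  refine ⟨P, hPX, ?_, ?_⟩
  swap
  · refine Eventually.of_forall fun n j s hs => ?_
    have := hPd n (j, s) hs
    exact le_trans (le_of_eq (congrArg (fun S : Finset (ℕ × ℤ) => (S.card : ℝ))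
      (Finset.filter_congr (fun x _ => Iff.rfl)))) this
  -- the extracted part is small
  by_contra hcon
  have hE : ∀ γ : ℝ, 0 < γ → ∀ᶠ n in (U : Filter ℕ),
      ((P n).card : ℝ) + B.d n ^ γ * ((X n).card : ℝ) < (X n).card := by
    intro γ hγ
    have h5 : ¬ ∀ᶠ n in (U : Filter ℕ), ((X n).card : ℝ) ≤
        ((P n).card : ℝ) + B.d n ^ γ * ((X n).card : ℝ) := fun h => hcon ⟨γ, hγ, h⟩
    rw [← Ultrafilter.eventually_not] at h5
    exact h5.mono fun n hn => not_le.1 hn
  -- constants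
  set η : ℝ := min (ε / 16) (1 / (2 * (t + 1))) with hη
  have hη0 : 0 < η := lt_min (by linarith) (by positivity)
  have hη1 : η ≤ ε / 16 := min_le_left _ _
  have hη2 : η * (t + 1) ≤ 1 / 2 := by
    have h1 : η ≤ 1 / (2 * (t + 1)) := min_le_right _ _
    rw [le_div_iff₀ (by positivity)] at h1
    linarith
  obtain ⟨δ, hδ, hub⟩ := hu η hη0
  set e2 : ℝ := min 1 (ε / (8 * (g + 1))) with he2
  have he20 : 0 < e2 := lt_min one_pos (by positivity)
  have he21 : e2 ≤ 1 := min_le_left _ _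
  have he2g : g * e2 ≤ ε / 8 := by
    have h1 : e2 ≤ ε / (8 * (g + 1)) := min_le_right _ _
    rw [le_div_iff₀ (by positivity)] at h1
    nlinarith
  set e3 : ℝ := min (1 / 10) (min (δ * t / 10) (ε / (40 * (g + 1)))) with he3
  have he30 : 0 < e3 := lt_min (by norm_num) (lt_min (by positivity) (by positivity))
  have he31 : e3 ≤ 1 / 10 := min_le_left _ _
  have he32 : e3 ≤ δ * t / 10 := (min_le_right _ _).trans (min_le_left _ _)
  have he33 : 5 * g * e3 ≤ ε / 8 := by
    have h1 : e3 ≤ ε / (40 * (g + 1)) := (min_le_right _ _).trans (min_le_right _ _)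
    rw [le_div_iff₀ (by positivity)] at h1
    nlinarith
  have q0 : ((0:ℚ) : ℝ) = 0 := by norm_num
  have q1 : ((1:ℚ) : ℝ) = 1 := by norm_num
  have hl1 : ∀ᶠ n in (U : Filter ℕ), 1 / 2 < ((lev n 1 : ℝ) - lev n 0) * Real.log 2 / B.L n := by
    have h1 := lev_lim 0 1 le_rfl zero_le_one le_rfl
    refine h1.eventually (Ioi_mem_nhds ?_)
    rw [q0, q1]; norm_num
  have hlv : ∀ᶠ n in (U : Filter ℕ), ((lev n v : ℝ) - lev n 0) * Real.log 2 / B.L n < v + e2 := by
    have h1 := lev_lim 0 v le_rfl hv0 hv1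
    refine h1.eventually (Iio_mem_nhds ?_)
    rw [q0]; linarith
  have hh1 : ∀ᶠ n in (U : Filter ℕ), t / 2 < ((hi n : ℝ) - lev n 0) * Real.log 2 / B.L n :=
    hhi.eventually (Ioi_mem_nhds (by linarith))
  have hh2 : ∀ᶠ n in (U : Filter ℕ), ((hi n : ℝ) - lev n 0) * Real.log 2 / B.L n < t + 1 :=
    hhi.eventually (Iio_mem_nhds (by linarith))
  have hfalse : ∀ᶠ n in (U : Filter ℕ), False := by
    filter_upwards [lev_mono 0 1 le_rfl zero_le_one le_rfl, lev_mono 0 v le_rfl hv0 hv1, hm, hm1, hr,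
      cell0, one, hown e3 he30, alld (ε / 8) (by linarith), hJ.1, hJ.2 e3 he30, hE e3 he30,
      shc e3 he30, hub, card (δ / 4) (by linarith), hl1, hlv, hh1, hh2, ne,
      B.ev_L_ge (max (23 * Real.log 2 / e3) (2 * Real.log 4 / ε + 1)),
      B.ev_L_ge (max (8 / (δ ^ 2 * Real.log 2)) (8 / (δ * Real.log 2)))] with
      n a1 a2 a3 a4 a5 a6 a7 a8 a9 a10 a11 a12 a13 a14 a15 a16 a17 a18 a19 a20 a21 a22
    have hL := B.L_pos n
    have hLa := (le_max_left _ _).trans a21
    have hLb := (le_max_right _ _).trans a21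
    have hLc := (le_max_left _ _).trans a22
    have hLd := (le_max_right _ _).trans a22
    rw [lt_div_iff₀ hL] at a16 a18
    rw [div_lt_iff₀ hL] at a17 a19
    have a4' := a4.le
    -- cardinalities
    have hIc : ((extO (I n) (lev n 1) (m n)).card : ℝ) = 2 ^ (m n - lev n 1) * (I n).card := by
      have e1 : ((I n).image (lc (lev n 1))).card = (I n).card := by
        refine card_image_of_injOn ?_
        intro x hx y hy hxy
        simp only [lc, Prod.mk.injEq] at hxy
        exact a7 x hx y hy hxy.1 hxy.2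
      have e2' := card_extO (I := I n) a4'
      rw [e1] at e2'
      rw [e2']; push_cast; rfl
    have hJc : ((X n).card : ℝ) = 2 ^ (m n - lev n 1) * (J n).card := by
      have e1 : ((J n).image (lc (lev n 1))).card = (J n).card := by
        refine card_image_of_injOn ?_
        intro x hx y hy hxy
        simp only [lc, Prod.mk.injEq] at hxy
        exact a7 x (a10 hx) y (a10 hy) hxy.1 hxy.2
      have e2' := card_extO (I := J n) a4'
      rw [e1] at e2'
      simp only [hX]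
      rw [e2']; push_cast; rfl
    have hd3 := dpow_pos B n e3
    have hEc : ((X n \ P n).card : ℝ) = (X n).card - (P n).card := by
      rw [card_sdiff_of_subset (hPX n), Nat.cast_sub (card_le_card (hPX n))]
    have hIpos : (0:ℝ) < (I n).card := by exact_mod_cast card_pos.2 a20
    have hbig : B.d n ^ (2 * e3) * ((extO (I n) (lev n 1) (m n)).card : ℝ) ≤ (X n \ P n).card := by
      have e5 : B.d n ^ (2 * e3) = B.d n ^ e3 * B.d n ^ e3 := by rw [← dpow_add]; congr 1; ring
      rw [hIc, hEc, e5]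
      have h5 : B.d n ^ e3 * (X n).card ≤ (X n).card - (P n).card := by linarith
      refine le_trans ?_ h5
      rw [hJc]
      have h6 : (0:ℝ) ≤ B.d n ^ e3 * 2 ^ (m n - lev n 1) := by positivity
      calc B.d n ^ e3 * B.d n ^ e3 * (2 ^ (m n - lev n 1) * ((I n).card : ℝ))
          = B.d n ^ e3 * 2 ^ (m n - lev n 1) * (B.d n ^ e3 * (I n).card) := by ring
        _ ≤ B.d n ^ e3 * 2 ^ (m n - lev n 1) * (J n).card := mul_le_mul_of_nonneg_left a11 h6
        _ = _ := by ring
    have hEne : (X n \ P n).Nonempty := by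
      rw [← card_pos]
      have h5 : (0:ℝ) < (X n \ P n).card := by
        refine lt_of_lt_of_le ?_ hbig
        rw [hIc]
        have := dpow_pos B n (2 * e3)
        positivity
      exact_mod_cast h5
    obtain ⟨A', c, b', w, f1, f2, f3, f4, f5, f6, f7, f8, f9, f10⟩ :=
      deep_fin G (Q := Q) (n := n) a1 a4' a6 a7 (a := B.d n ^ e3) (e0 := B.d n ^ (2 * e3))
        (τ := τ n) hd3 (dpow_pos B n _) (hτ0 n).le a8 (E := X n \ P n)
        (Finset.sdiff_subset.trans (extO_mono a10 _ _)) hEne hbig (φ := φ n) (b := b n)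
        (fun x hx => by
          obtain ⟨k1, k2, k3⟩ := hPc n x hx
          rw [k2.1]; exact k1)
        (fun x hx => by
          obtain ⟨k1, k2, k3⟩ := hPc n x hx
          refine ⟨k2.1, ?_⟩
          rw [k2.1]; exact k2.2)
        (fun x hx => (hPc n x hx).2.2) (fun J s hs => hv _ _ _ _ hs) (Sh := Sh n)
        (fun J s hs => sh _ _ _ _ hs)
    -- the number of coarse levels
    set h : ℕ := ⌈22 + 4 * e3 * B.L n / Real.log 2⌉₊ with hh
    have hlow : 22 + 4 * e3 * B.L n / Real.log 2 ≤ (h : ℝ) := Nat.le_ceil _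
    have hup : (h : ℝ) * Real.log 2 ≤ 5 * e3 * B.L n := by
      have h5 : (h : ℝ) < 22 + 4 * e3 * B.L n / Real.log 2 + 1 := Nat.ceil_lt_add_one (by positivity)
      have h6 : 23 * Real.log 2 ≤ B.L n * e3 := by rwa [div_le_iff₀ he30] at hLa
      have h7 : (22 + 4 * e3 * B.L n / Real.log 2 + 1) * Real.log 2 =
          23 * Real.log 2 + 4 * e3 * B.L n := by field_simp; ring
      have h8 := mul_le_mul_of_nonneg_right h5.le hℓ.le
      rw [h7] at h8
      linarith
    have hShp : (0:ℝ) < (Sh n).card := by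
      obtain ⟨x, hx⟩ := hEne
      have := sh n (m n) _ _ (hPc n x hx).1.1
      exact_mod_cast card_pos.2 ⟨_, this⟩
    have hyv : ((lev n v : ℝ) - lev n 0) * Real.log 2 ≤ (v + e2) * B.L n := a17.le
    have hx0 : 0 ≤ (m n : ℝ) - lev n v := by rw [sub_nonneg]; exact_mod_cast a3
    have hy0 : 0 ≤ (lev n v : ℝ) - lev n 0 := by rw [sub_nonneg]; exact_mod_cast a2
    have hxy : (m n : ℝ) - lev n v + ((lev n v : ℝ) - lev n 0) = (m n : ℝ) - lev n 0 := by ring
    have hm1' : (lev n 1 : ℝ) ≤ m n := by exact_mod_cast a4'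
    have hMl : B.L n / 2 ≤ ((m n : ℝ) - lev n 0) * Real.log 2 := by
      have : ((lev n 1 : ℝ) - lev n 0) * Real.log 2 ≤ ((m n : ℝ) - lev n 0) * Real.log 2 :=
        mul_le_mul_of_nonneg_right (by linarith) hℓ.le
      linarith
    have hH := a14 (m n) h (lt_of_le_of_lt a1 a4) a5 (by
        -- η (hi - lo) ≤ m - lo
        have h5 : η * ((hi n : ℝ) - lev n 0) * Real.log 2 ≤ ((m n : ℝ) - lev n 0) * Real.log 2 := by
          calc η * ((hi n : ℝ) - lev n 0) * Real.log 2
              = η * (((hi n : ℝ) - lev n 0) * Real.log 2) := by ring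
            _ ≤ η * ((t + 1) * B.L n) := mul_le_mul_of_nonneg_left a19.le hη0.le
            _ = η * (t + 1) * B.L n := by ring
            _ ≤ 1 / 2 * B.L n := mul_le_mul_of_nonneg_right hη2 hL.le
            _ ≤ _ := by linarith
        exact le_of_mul_le_mul_right h5 hℓ) (by
        -- h ≤ δ (hi - lo)
        have h5 : (h : ℝ) * Real.log 2 ≤ δ * ((hi n : ℝ) - lev n 0) * Real.log 2 := by
          calc (h : ℝ) * Real.log 2 ≤ 5 * e3 * B.L n := hup
            _ ≤ 5 * (δ * t / 10) * B.L n := by gcongr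
            _ = δ * (t / 2 * B.L n) := by ring
            _ ≤ δ * (((hi n : ℝ) - lev n 0) * Real.log 2) := mul_le_mul_of_nonneg_left a18.le hδ.le
            _ = _ := by ring
        exact le_of_mul_le_mul_right h5 hℓ) A' f1 f2 f3 f4 (by
        -- size
        have hA1 : (0:ℝ) < A'.card := by exact_mod_cast card_pos.2 f1
        have h5 : Real.logb 2 (A'.card : ℝ) ≤
            ((m n - lev n 1 : ℕ) : ℝ) + Real.log ((I n).card : ℝ) / Real.log 2 := by
          refine (Real.logb_le_logb_of_le one_lt_two hA1 f5).trans (le_of_eq ?_)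
          rw [Real.logb_mul (by positivity) hIpos.ne', Real.logb_pow, Real.logb_self_eq_one one_lt_two,
            mul_one]
          rfl
        refine h5.trans ?_
        have h6 : ((m n - lev n 1 : ℕ) : ℝ) ≤ (m n : ℝ) - lev n 0 := by
          rw [Nat.cast_sub a4']
          have : (lev n 0 : ℝ) ≤ lev n 1 := by exact_mod_cast a1
          linarith
        have h7 : Real.log ((I n).card : ℝ) / Real.log 2 ≤
            Real.exp (δ / 4 * B.L n) / Real.log 2 := by
          refine div_le_div_of_nonneg_right (a15.trans (le_of_eq ?_)) hℓ.le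
          rw [d_exp]; congr 1; ring
        have h8 := deep_num3 (ℓ := Real.log 2) (L := B.L n) (δ := δ) (M := (m n : ℝ) - lev n 0)
          (K := ((m n - lev n 1 : ℕ) : ℝ)) (N := Real.log ((I n).card : ℝ) / Real.log 2) hℓ hL hδ
          hMl h6 h7 hLc hLd
        refine h8.trans (le_of_eq ?_)
        rw [two_exp]) (by
        -- own
        intro x hx
        have h5 := f6 x hx
        have h6 : (2:ℝ) ^ 20 ≤ 2 ^ h * (B.d n ^ e3 * B.d n ^ (2 * e3) / (4 * (Sh n).card)) := by
          have h7 : B.d n ^ (4 * e3) / 4 ≤ B.d n ^ e3 * B.d n ^ (2 * e3) / (4 * (Sh n).card) := by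
            rw [div_le_div_iff₀ (by norm_num) (by positivity)]
            have e5 : B.d n ^ (4 * e3) = B.d n ^ e3 * B.d n ^ (2 * e3) * B.d n ^ e3 := by
              rw [← dpow_add, ← dpow_add]; congr 1; ring
            have e6 : B.d n ^ e3 * (Sh n).card ≤ 1 := by
              calc B.d n ^ e3 * (Sh n).card ≤ B.d n ^ e3 * B.d n ^ (-e3) :=
                    mul_le_mul_of_nonneg_left a13 hd3.le
                _ = 1 := by rw [← dpow_add]; simp
            have h9 : (0:ℝ) < B.d n ^ e3 * B.d n ^ (2 * e3) := by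
              have := dpow_pos B n (2 * e3)
              positivity
            calc B.d n ^ (4 * e3) * (4 * ((Sh n).card : ℝ))
                = B.d n ^ e3 * B.d n ^ (2 * e3) * 4 * (B.d n ^ e3 * (Sh n).card) := by rw [e5]; ring
              _ ≤ B.d n ^ e3 * B.d n ^ (2 * e3) * 4 * 1 :=
                  mul_le_mul_of_nonneg_left e6 (by positivity)
              _ = _ := by ring
          refine le_trans ?_ (mul_le_mul_of_nonneg_left h7 (by positivity))
          have h10 : (2:ℝ) ^ h = Real.exp (h * Real.log 2) := by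
            rw [← Real.rpow_natCast, two_exp]
          have h11 : B.d n ^ (4 * e3) = Real.exp (-(4 * e3 * B.L n)) := d_exp B n _
          rw [h10, h11, ← mul_div_assoc, ← Real.exp_add, le_div_iff₀ (by norm_num)]
          have h12 : (2:ℝ) ^ 20 * 4 = Real.exp (22 * Real.log 2) := by
            have : (2:ℝ) ^ 20 * 4 = (2:ℝ) ^ (22:ℝ) := by norm_num
            rw [this, two_exp]
          rw [h12]
          refine Real.exp_le_exp.2 ?_
          have h13 := mul_le_mul_of_nonneg_right hlow hℓ.le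
          have h14 : (22 + 4 * e3 * B.L n / Real.log 2) * Real.log 2 =
              22 * Real.log 2 + 4 * e3 * B.L n := by field_simp
          linarith
        have h15 : ((2 ^ (m n - lev n 0 + 20) : ℕ) : ℝ) ≤
            ((2 ^ h * (own A' (lev n 0) (m n) x).card : ℕ) : ℝ) := by
          push_cast
          rw [pow_add]
          calc (2:ℝ) ^ (m n - lev n 0) * 2 ^ 20
              ≤ 2 ^ (m n - lev n 0) *
                (2 ^ h * (B.d n ^ e3 * B.d n ^ (2 * e3) / (4 * (Sh n).card))) :=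
                mul_le_mul_of_nonneg_left h6 (by positivity)
            _ = 2 ^ h * (B.d n ^ e3 * B.d n ^ (2 * e3) / (4 * (Sh n).card) *
                2 ^ (m n - lev n 0)) := by ring
            _ ≤ _ := mul_le_mul_of_nonneg_left h5 (by positivity)
        exact_mod_cast h15) c b' w (B.d n ^ (-(ε / 8)) * (A n * 2 ^ (g * (h : ℝ)))) (τ n / 4) (by
        have h5 := dpow_pos B n (-(ε / 8))
        have h6 := Apos n
        have h7 : (0:ℝ) < 2 ^ (g * (h : ℝ)) := Real.rpow_pos_of_pos (by norm_num) _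
        positivity) (by have := hτ0 n; linarith) f7 f8 f9 (by
        -- up
        intro i' hi0 hi1 j s hs _
        have h5 : i' ≤ lev n 1 := by
          have h6 : (h : ℝ) * Real.log 2 ≤ ((lev n 1 : ℝ) - lev n 0) * Real.log 2 := by
            have : 5 * e3 * B.L n ≤ 1 / 2 * B.L n :=
              mul_le_mul_of_nonneg_right (by linarith) hL.le
            linarith
          have h7 : (h : ℝ) ≤ (lev n 1 : ℝ) - lev n 0 := le_of_mul_le_mul_right h6 hℓ
          have h8 : (lev n 0 : ℝ) + h ≤ lev n 1 := by linarith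
          have h9 : lev n 0 + h ≤ lev n 1 := by exact_mod_cast h8
          exact hi1.trans h9
        have h6 := a9 i' hi0 h5 j s hs
        rw [valx_zero']
        have h7 : (((alive A' i' j).filter fun t => G.mem n i' j s t).card : ℝ) ≤
            ((alive (I n) i' j).filter fun t => G.mem n i' j s t).card := by
          exact_mod_cast card_le_card (filter_subset_filter _ (f10 i' hi0 h5 j))
        refine h7.trans (h6.trans (mul_le_mul_of_nonneg_right ?_ (hv _ _ _ _ hs)))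
        refine mul_le_mul_of_nonneg_left (mul_le_mul_of_nonneg_left ?_ (Apos n).le)
          (dpow_pos B n _).le
        refine Real.rpow_le_rpow_of_exponent_le (by norm_num)
          (mul_le_mul_of_nonneg_left ?_ g0)
        have : (i' : ℝ) ≤ (lev n 0 : ℝ) + h := by exact_mod_cast hi1
        linarith)
    -- contradiction
    refine deep_num2 (ℓ := Real.log 2) (L := B.L n) (g := g) (ε := ε) (v := v)
      (x := (m n : ℝ) - lev n v) (y := (lev n v : ℝ) - lev n 0) (A := A n) (h := h) (η := η)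
      (e2 := e2) (e3 := e3) (Apos n) g0 hε hℓ hL hx0 hv0' hv1' hη0 hη1 he20 he21 he2g he33 hyv hup
      (by linarith) ?_
    rw [hxy]
    have e5 : B.d n ^ (-(ε / 8)) = Real.exp (ε / 8 * B.L n) := by rw [d_exp]; congr 1; ring
    have e6 : B.d n ^ (-ε) = Real.exp (ε * B.L n) := by rw [d_exp]; congr 1; ring
    have e7 : B.d n ^ (-(g * v)) = Real.exp (g * v * B.L n) := by rw [d_exp]; congr 1; ring
    rw [← two_exp, ← two_exp, ← two_exp, ← e5, ← e6, ← e7]
    exact hH
  obtain ⟨n, hn⟩ := hfalse.exists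
  exact hn

end Crest.Agent.R136.Dia770
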