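import Mathlib
import Crest.Agent.R136.Deep4_770
import Crest.Agent.R136.Yc1_953

/-!
# R136 (helper770): deep D-max in the class of 794 (concave homogeneous reward)

* `OkH`, `UBH` : configurations with full own (loss `h - 20` levels), bottom bound at the levels
  `m, …, m + h`; supremum bound.
* `ubd_of_UBH` : `UBH 𝒯 Ψ g ⊢ UBd (geoP …)`, all admissible test sets.
* `deepP_of_UBH` : deep D-max.
-/

set_option autoImplicit false
set_option linter.unusedVariables false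
set_option linter.unusedSectionVars false

open Finset Filter Topology

namespace Crest.Agent.R136.Dia770

open Crest.Agent.R138.Ex926 Crest.Agent.R138.Dp76
open Crest.Agent.R138.Mk163 (zc zl rho alive own)
open Crest.Agent.R138.MkRef627 (lc mem_alive own_one alive_mono)
open Crest.Agent.R136.MkA627 (Geo)
open Crest.Agent.R136.XA248 (rew wv valx Rel IsCl Low Up)
open Crest.Agent.R116.Xa794 (TS)
open Crest.Agent.R116.Xc794 (rel capP Cfg geoP)

variable {Ln ι S : Type} [Fintype ι]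

open Classical in
/-- validity of a configuration: own loss `h - 20` levels, bottom bound at the levels `m..m+h` -/
structure OkH (T : TS Ln ι S) (Ψ : ℝ → (ι → ℝ) → ℝ) (F : Cfg Ln ι S) (h : ℕ) : Prop where
  M1 : 1 ≤ F.M
  hM : h ≤ F.M
  ne : F.I.Nonempty
  cell : ∀ x ∈ F.I, ∀ y ∈ F.I, zc F.m x.2 = zc F.m y.2
  one : ∀ x ∈ F.I, ∀ y ∈ F.I, x.1 = y.1 → zc (F.m + F.M) x.2 = zc (F.m + F.M) y.2 → x = y
  D0p : 0 < F.D0
  D1p : 0 < F.D1
  fin : ∀ (i : ℕ) (J : ℤ) (s : (ι → ℕ) × S), T.adm i J s → ∀ j, s.1 j ≤ F.N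
  top : ∀ J : ℤ, ∀ t ∈ alive F.I (F.m + F.M) J,
    T.mem (F.m + F.M) J (F.b (F.f t J)) (F.L t) ∧ T.adm (F.m + F.M) J (F.b (F.f t J)) ∧
      (F.b (F.f t J)).1 = F.a
  low : ∀ J : ℤ, ∀ t ∈ alive F.I (F.m + F.M) J,
    F.D1 * T.vol (F.m + F.M) F.a ≤
      (((alive F.I (F.m + F.M) J).filter fun s => F.f s J = F.f t J).card : ℝ)
  own : ∀ x ∈ F.I, 2 ^ (F.M + 20) ≤ 2 ^ h * (own F.I F.m (F.m + F.M) x).card
  up : ∀ i, F.m ≤ i → i ≤ F.m + h → ∀ (J : ℤ) (s : (ι → ℕ) × S), T.adm i J s →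
    (((alive F.I i J).filter fun t => T.mem i J s (F.L t)).card : ℝ) ≤
      F.D0 * capP T Ψ (F.m + F.M) F.a i s.1

/-- supremum bound for all such configurations -/
def UBH (𝒯 : Set (TS Ln ι S)) (Ψ : ℝ → (ι → ℝ) → ℝ) (b : ℝ) : Prop :=
  ∀ η : ℝ, 0 < η → ∃ δ : ℝ, 0 < δ ∧ ∃ M0 : ℕ, ∀ T ∈ 𝒯, ∀ (F : Cfg Ln ι S) (h : ℕ), OkH T Ψ F h →
    M0 ≤ F.M → (h : ℝ) ≤ δ * F.M → Real.log (F.I.card : ℝ) ≤ (2 : ℝ) ^ (δ * F.M) →
    (F.N : ℝ) ≤ (2 : ℝ) ^ (δ * F.M) → F.D1 ≤ (2 : ℝ) ^ ((b + η) * F.M) * F.D0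

/-- 953's supremum bound is stronger -/
theorem UBH.of_UBF {𝒯 : Set (TS Ln ι S)} {Ψ : ℝ → (ι → ℝ) → ℝ} {b : ℝ}
    (hb : Crest.Agent.R136.Yc953.UBF 𝒯 Ψ b) : UBH 𝒯 Ψ b := by
  classical
  intro η hη
  obtain ⟨δ, hδ, M0, hub⟩ := hb η hη
  refine ⟨δ, hδ, M0, fun T hT F h hF hM0 hh hlog hN => ?_⟩
  have key := hub T hT { F with nu := (2:ℝ) ^ ((1 - δ) * F.M) }
    { M1 := hF.M1
      ne := hF.ne
      cell := hF.cell
      D1p := hF.D1p
      nup := Real.rpow_pos_of_pos (by norm_num) _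
      fin := hF.fin
      top := hF.top
      low := hF.low
      own := by
        intro x hx
        show (2:ℝ) ^ ((1 - δ) * F.M) ≤ ((own F.I F.m (F.m + F.M) x).card : ℝ)
        have h1 := hF.own x hx
        have h2 : (2:ℝ) ^ ((F.M : ℝ) + 20) ≤ (2:ℝ) ^ (h : ℝ) *
            ((own F.I F.m (F.m + F.M) x).card : ℝ) := by
          have h1' : ((2:ℝ) ^ (F.M + 20)) ≤ 2 ^ h * ((own F.I F.m (F.m + F.M) x).card : ℝ) := by
            exact_mod_cast h1
          rw [Real.rpow_natCast]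
          refine le_trans (le_of_eq ?_) h1'
          rw [← Real.rpow_natCast]; congr 1; push_cast; ring
        have h3 : (2:ℝ) ^ ((F.M : ℝ) + 20) = (2:ℝ) ^ (h : ℝ) * (2:ℝ) ^ ((F.M : ℝ) + 20 - h) := by
          rw [← Real.rpow_add (by norm_num)]; congr 1; ring
        rw [h3] at h2
        have h4 := le_of_mul_le_mul_left h2 (Real.rpow_pos_of_pos (by norm_num) _)
        refine le_trans (Real.rpow_le_rpow_of_exponent_le (by norm_num) ?_) h4
        linarith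
      up := fun J s hs => hF.up F.m le_rfl (Nat.le_add_right _ _) J s hs }
    hM0 hlog hN le_rfl
  exact key

theorem capP_val (T : TS Ln ι S) (Ψ : ℝ → (ι → ℝ) → ℝ) (m' : ℕ) (a : ι → ℕ) (i : ℕ) (s : ι → ℕ) :
    capP T Ψ m' a i s = T.vol i s * (2 : ℝ) ^ (-(Ψ ((m' : ℝ) - i) (rel i s m' a))) := rfl

open Classical in
/-- **from the supremum bound of the class to the deep supremum bound of the sequence.** -/
theorem ubd_of_UBH {𝒯 : Set (TS Ln ι S)} {T : ℕ → TS Ln ι S} {Ψ : ℝ → (ι → ℝ) → ℝ}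
    {mt : ℕ → ℕ} {atop : ℕ → ι → ℕ} {L : ℕ → ℕ → Ln} {N : ℕ → ℕ} {I : ℕ → Finset (ℕ × ℝ)}
    {lo hi : ℕ → ℕ} {r0 : ℕ → ℝ} {g : ℝ} {Q : ℕ → ℕ → Prop} (hT : ∀ n, T n ∈ 𝒯)
    (hfin : ∀ n i J s, (T n).adm i J s → ∀ j, s.1 j ≤ N n)
    (hN : ∀ ε : ℝ, 0 < ε → ∀ᶠ n in (U : Filter ℕ), (N n : ℝ) ≤ (2 : ℝ) ^ (ε * ((hi n : ℝ) - lo n)))
    (hlen : Tendsto (fun n => (hi n : ℝ) - lo n) U atTop)
    (hcap : ∀ n j, Q n j → ∀ i ≤ j, ∀ s a : ι → ℕ, capP (T n) Ψ (mt n) (atop n) i s ≤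
      (2 : ℝ) ^ (-(Ψ ((mt n : ℝ) - j) (rel j a (mt n) (atop n)))) * capP (T n) Ψ j a i s)
    (hUB : UBH 𝒯 Ψ g) :
    UBd (geoP T Ψ mt atop L) (fun _ _ _ _ _ => True) (fun n j _ => Q n j) I lo hi r0 g := by
  intro η hη
  obtain ⟨δ', hδ', M0, hub⟩ := hUB η hη
  have hm : 0 < min η 1 := lt_min hη one_pos
  have hm' : 0 < min δ' 1 := lt_min hδ' one_pos
  refine ⟨min δ' 1 * min η 1, by positivity, ?_⟩
  filter_upwards [hN (δ' * η) (by positivity), hlen.eventually_ge_atTop (max 0 (M0 / η))] with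
    n hn1 hn2
  intro j h hj hr hlong hh A hA hAI hcell hone hlog hown c b w D0 D1 hD0 hD1 hcl hQ hlow hup
  have hlen0 : 0 ≤ (hi n : ℝ) - lo n := (le_max_left _ _).trans hn2
  have hM0 : (M0 : ℝ) / η ≤ (hi n : ℝ) - lo n := (le_max_right _ _).trans hn2
  obtain ⟨M, hM⟩ : ∃ M : ℕ, lo n + M = j := ⟨j - lo n, by omega⟩
  have hMr : (j : ℝ) - lo n = M := by rw [← hM]; push_cast; ring
  rw [hMr] at hlong hlog ⊢
  have hhM : (h : ℝ) ≤ min δ' 1 * M := by
    calc (h : ℝ) ≤ min δ' 1 * min η 1 * ((hi n : ℝ) - lo n) := hh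
      _ ≤ min δ' 1 * η * ((hi n : ℝ) - lo n) := by
          gcongr
          exact min_le_left _ _
      _ = min δ' 1 * (η * ((hi n : ℝ) - lo n)) := by ring
      _ ≤ min δ' 1 * M := mul_le_mul_of_nonneg_left hlong hm'.le
  have hM0' : (0:ℝ) ≤ M := Nat.cast_nonneg _
  have hhM1 : h ≤ M := by
    have h1 : min δ' 1 * (M:ℝ) ≤ 1 * M := mul_le_mul_of_nonneg_right (min_le_right _ _) hM0'
    have h2 : (h : ℝ) ≤ M := by linarith
    exact_mod_cast h2
  obtain ⟨x0, hx0⟩ := hA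
  have hal0 : x0.1 ∈ alive A j (zc j x0.2) := mem_alive.2 ⟨x0, hx0, rfl, rfl⟩
  have hwa : ∀ J : ℤ, ∀ t ∈ alive A j J, (b (c t J)).1 = (b (c x0.1 (zc j x0.2))).1 := by
    intro J t ht
    have h1 := (hcl J t ht).2.2
    have h2 := (hcl _ _ hal0).2.2
    funext k
    have h3 : (1 / 2 : ℝ) ^ ((b (c t J)).1 k) = (1 / 2 : ℝ) ^ ((b (c x0.1 (zc j x0.2))).1 k) := by
      have h4 := congrFun (h1.trans h2.symm) k
      exact h4
    exact pow_right_injective₀ (by norm_num : (0:ℝ) < 1 / 2) (by norm_num) h3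
  set a : ι → ℕ := (b (c x0.1 (zc j x0.2))).1 with ha
  have hQj : Q n j := hQ _ _ hal0
  set P2 : ℝ := (2 : ℝ) ^ (-(Ψ ((mt n : ℝ) - j) (rel j a (mt n) (atop n)))) with hP2
  have hP2p : 0 < P2 := Real.rpow_pos_of_pos (by norm_num) _
  have hval : ∀ J : ℤ, ∀ t ∈ alive A j J,
      (geoP T Ψ mt atop L).val n j J (b (c t J)) = (T n).vol j a * P2 := by
    intro J t ht
    show capP (T n) Ψ (mt n) (atop n) j (b (c t J)).1 = _
    rw [hwa J t ht, capP_val]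
  have key := hub (T n) (hT n)
    { m := lo n, M := M, I := A, L := L n, f := c, b := b, a := a, D0 := D0 * P2, D1 := D1 * P2,
      nu := 1, N := N n } h
    { M1 := by show 1 ≤ M; omega
      hM := hhM1
      ne := ⟨x0, hx0⟩
      cell := hcell
      one := fun x hx y hy h1 h2 => hone x hx y hy h1 (by rw [← hM]; exact h2)
      D0p := mul_pos hD0 hP2p
      D1p := mul_pos hD1 hP2p
      fin := hfin n
      top := by
        show ∀ J : ℤ, ∀ t ∈ alive A (lo n + M) J, _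
        rw [hM]
        intro J t ht
        have h1 := hcl J t ht
        exact ⟨h1.1, h1.2.1, hwa J t ht⟩
      low := by
        show ∀ J : ℤ, ∀ t ∈ alive A (lo n + M) J, _
        intro J t ht
        show D1 * P2 * (T n).vol (lo n + M) a ≤ (((alive A (lo n + M) J).filter _).card : ℝ)
        rw [hM] at ht ⊢
        have h1 := hlow J t ht
        rw [valx_zero', hval J t ht] at h1
        refine le_trans (le_of_eq (by ring)) (h1.trans (le_of_eq ?_))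
        rfl
      own := by
        intro x hx
        have h1 := hown x hx
        have e1 : j - lo n = M := by omega
        rw [e1] at h1
        show 2 ^ (M + 20) ≤ 2 ^ h * (own A (lo n) (lo n + M) x).card
        rw [hM]; exact h1
      up := by
        intro i hi1 hi2 J s hs
        show (((alive A i J).filter fun t => (T n).mem i J s (L n t)).card : ℝ) ≤
          D0 * P2 * capP (T n) Ψ (lo n + M) a i s.1
        rw [hM]
        have h1 := hup i hi1 hi2 J s hs trivial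
        rw [valx_zero'] at h1
        have hi2' : i ≤ lo n + h := hi2
        have hij : i ≤ j := by omega
        refine h1.trans ?_
        have h2 := hcap n j hQj i hij s.1 a
        calc D0 * (geoP T Ψ mt atop L).val n i J s
            ≤ D0 * (P2 * capP (T n) Ψ j a i s.1) := mul_le_mul_of_nonneg_left h2 hD0.le
          _ = _ := by ring }
    ?_ ?_ ?_ ?_
  · have h1 : D1 * P2 ≤ (2 : ℝ) ^ ((g + η) * M) * (D0 * P2) := key
    have h2 : D1 * P2 ≤ (D0 * (2 : ℝ) ^ ((g + η) * M)) * P2 := by linarith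
    exact le_of_mul_le_mul_right h2 hP2p
  · show M0 ≤ M
    have h1 : (M0 : ℝ) ≤ M := by
      rw [div_le_iff₀ hη] at hM0
      linarith
    exact_mod_cast h1
  · show (h : ℝ) ≤ δ' * M
    exact hhM.trans (mul_le_mul_of_nonneg_right (min_le_left _ _) hM0')
  · show Real.log (A.card : ℝ) ≤ (2 : ℝ) ^ (δ' * M)
    have h1 : (1 : ℝ) ≤ A.card := by exact_mod_cast card_pos.2 ⟨x0, hx0⟩
    have h2 : 0 ≤ Real.log (A.card : ℝ) := Real.log_nonneg h1
    have hl2 : 0 < Real.log 2 := Real.log_pos one_lt_two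
    have hl2' : Real.log 2 ≤ 1 := by
      have := Real.log_two_lt_d9; linarith
    have h3 : Real.log (A.card : ℝ) ≤ Real.logb 2 (A.card : ℝ) := by
      rw [Real.logb, le_div_iff₀ hl2]
      nlinarith
    refine h3.trans (hlog.trans ?_)
    refine Real.rpow_le_rpow_of_exponent_le (by norm_num) ?_
    have h4 : min δ' 1 * min η 1 ≤ δ' * 1 :=
      mul_le_mul (min_le_left _ _) (min_le_right _ _) hm.le hδ'.le
    rw [mul_one] at h4
    exact mul_le_mul_of_nonneg_right h4 (Nat.cast_nonneg _)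
  · show (N n : ℝ) ≤ (2 : ℝ) ^ (δ' * M)
    refine hn1.trans (Real.rpow_le_rpow_of_exponent_le (by norm_num) ?_)
    calc δ' * η * ((hi n : ℝ) - lo n) = δ' * (η * ((hi n : ℝ) - lo n)) := by ring
      _ ≤ δ' * M := mul_le_mul_of_nonneg_left hlong hδ'.le

open Classical in
/-- **deep D-max in 794's class**, `Q` = the levels `j` where the capacity is superadditive
(`hcap`); bottom levels `lev n 0`, marked levels `lev n v`, arbitrary depth. -/
theorem deepP_of_UBH (B : Base) {𝒯 : Set (TS Ln ι S)} {T : ℕ → TS Ln ι S}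
    {Ψ : ℝ → (ι → ℝ) → ℝ} {mt : ℕ → ℕ} {atop : ℕ → ι → ℕ} {L : ℕ → ℕ → Ln} {N : ℕ → ℕ}
    {I : ℕ → Finset (ℕ × ℝ)} {lev : ℕ → ℚ → ℕ} {A : ℕ → ℝ} {r0 : ℕ → ℝ} {g : ℝ}
    {Q : ℕ → ℕ → Prop} (Apos : ∀ n, 0 < A n) (g0 : 0 ≤ g)
    (ne : ∀ᶠ n in (U : Filter ℕ), (I n).Nonempty)
    (card : ∀ ε : ℝ, 0 < ε → ∀ᶠ n in (U : Filter ℕ), Real.log ((I n).card : ℝ) ≤ B.d n ^ (-ε))
    (lev_mono : ∀ u v : ℚ, 0 ≤ u → u ≤ v → v ≤ 1 → ∀ᶠ n in (U : Filter ℕ), lev n u ≤ lev n v)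
    (lev_lim : ∀ u v : ℚ, 0 ≤ u → u ≤ v → v ≤ 1 →
      Tendsto (fun n => ((lev n v : ℝ) - lev n u) * Real.log 2 / B.L n) U (𝓝 ((v : ℝ) - u)))
    (cell0 : ∀ᶠ n in (U : Filter ℕ), ∀ x ∈ I n, ∀ y ∈ I n, zc (lev n 0) x.2 = zc (lev n 0) y.2)
    (one : ∀ᶠ n in (U : Filter ℕ), ∀ x ∈ I n, ∀ y ∈ I n, x.1 = y.1 →
      zc (lev n 1) x.2 = zc (lev n 1) y.2 → x = y)
    (hown : ∀ ε : ℝ, 0 < ε → ∀ᶠ n in (U : Filter ℕ), ∀ x ∈ I n,
      B.d n ^ ε * 2 ^ (lev n 1 - lev n 0) ≤ ((own (I n) (lev n 0) (lev n 1) x).card : ℝ))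
    (alld : AllD B I (geoP T Ψ mt atop L) lev A g)
    (hT : ∀ n, T n ∈ 𝒯) (hfin : ∀ n i J s, (T n).adm i J s → ∀ j, s.1 j ≤ N n)
    (hNd : ∀ ε : ℝ, 0 < ε → ∀ᶠ n in (U : Filter ℕ), (N n : ℝ) ≤ B.d n ^ (-ε))
    (hcap : ∀ n j, Q n j → ∀ i ≤ j, ∀ s a : ι → ℕ, capP (T n) Ψ (mt n) (atop n) i s ≤
      (2 : ℝ) ^ (-(Ψ ((mt n : ℝ) - j) (rel j a (mt n) (atop n)))) * capP (T n) Ψ j a i s)
    (hUB : UBH 𝒯 Ψ g) :
    DeepP B I (restr (geoP T Ψ mt atop L) (fun n j _ => Q n j)) lev A g r0 := by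
  classical
  have hℓ : (0:ℝ) < Real.log 2 := Real.log_pos one_lt_two
  have hlim := lev_lim 0 1 le_rfl zero_le_one le_rfl
  have q0 : ((0:ℚ) : ℝ) = 0 := by norm_num
  have q1 : ((1:ℚ) : ℝ) = 1 := by norm_num
  rw [q0, q1, sub_zero] at hlim
  have hhalf : ∀ᶠ n in (U : Filter ℕ), B.L n / 2 ≤ ((lev n 1 : ℝ) - lev n 0) * Real.log 2 := by
    filter_upwards [hlim.eventually (Ioi_mem_nhds (by norm_num : (1/2:ℝ) < 1))] with n hn
    have hL := B.L_pos n
    have h1 : (1/2:ℝ) < ((lev n 1 : ℝ) - lev n 0) * Real.log 2 / B.L n := hn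
    rw [lt_div_iff₀ hL] at h1
    linarith
  have hlen : Tendsto (fun n => (lev n 1 : ℝ) - lev n 0) U atTop := by
    refine tendsto_atTop.2 fun C => ?_
    filter_upwards [hhalf, B.ev_L_ge (2 * Real.log 2 * C)] with n h1 h2
    have h3 : Real.log 2 * C ≤ ((lev n 1 : ℝ) - lev n 0) * Real.log 2 := by linarith
    have h4 : C * Real.log 2 ≤ ((lev n 1 : ℝ) - lev n 0) * Real.log 2 := by linarith
    exact le_of_mul_le_mul_right h4 hℓ
  have hN : ∀ ε : ℝ, 0 < ε → ∀ᶠ n in (U : Filter ℕ),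
      (N n : ℝ) ≤ (2 : ℝ) ^ (ε * ((lev n 1 : ℝ) - lev n 0)) := by
    intro ε hε
    filter_upwards [hNd (ε / 2) (by linarith), hhalf] with n h1 h2
    refine h1.trans ?_
    rw [d_exp, Real.rpow_def_of_pos (by norm_num : (0:ℝ) < 2)]
    refine Real.exp_le_exp.2 ?_
    nlinarith
  -- the finite grid of widths
  set Sh : ℕ → Finset (ι → ℝ) := fun n =>
    (Fintype.piFinset fun _ : ι => Finset.range (N n + 1)).image
      fun a : ι → ℕ => fun k => (1 / 2 : ℝ) ^ (a k) with hSh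
  refine deepP_of_ubd B (Rg := fun _ _ _ _ _ => True) (hi := fun n => lev n 1) (Sh := Sh) (t := 1)
    Apos g0 ne card lev_mono lev_lim cell0 one hown alld ?_ ?_ ?_ one_pos ?_
    (ubd_of_UBH (lo := fun n => lev n 0) (hi := fun n => lev n 1) hT hfin hN hlen hcap hUB)
  · intro n i J s _
    exact mul_nonneg ((T n).volpos _ _).le (Real.rpow_pos_of_pos (by norm_num) _).le
  · intro n i J s hs
    refine mem_image.2 ⟨s.1, ?_, rfl⟩
    rw [Fintype.mem_piFinset]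
    intro k
    rw [mem_range]
    have := hfin n i J s hs k
    omega
  · intro ε hε
    filter_upwards [Crest.Agent.R116.Xc4794.boxN_small (B := B) hNd (Fintype.card ι) hε] with n hn
    refine le_trans ?_ hn
    have h1 : (Sh n).card ≤ (N n + 1) ^ Fintype.card ι := by
      refine card_image_le.trans ?_
      rw [Fintype.card_piFinset]
      simp
    exact_mod_cast h1
  · refine hlim.congr fun n => ?_
    rfl

end Crest.Agent.R136.Dia770
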