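import Mathlib
import Crest.Agent.R136.Deep6_770

/-!
# R136 (helper770): deep D-max with a coarse big cell

* `UBdH` : deep supremum bound, big cell and own counts at the level `lo n`, bottom bound at the level
  `lo n + h`;
* `deepP_of_ubdH` : deep D-max from `UBdH` and D-max at all levels;
-/

set_option autoImplicit false
set_option linter.unusedVariables false
set_option linter.unusedSectionVars false

open Finset Filter Topology

namespace Crest.Agent.R136.Dia770

open Crest.Agent.R138.Ex926 Crest.Agent.R138.Dp76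
open Crest.Agent.R138.Mk163 (zc zl rho alive own)
open Crest.Agent.R138.MkRef627 (lc mem_alive own_one alive_mono)
open Crest.Agent.R136.MkA627 (Geo)
open Crest.Agent.R136.XA248 (rew wv valx Rel IsCl Low Up)
open Crest.Agent.R116.Xa794 (TS)
open Crest.Agent.R116.Xc794 (rel capP Cfg geoP)

section

variable {σ κ : Type}

open Classical in
/-- **deep supremum bound with a coarse big cell**: big cell and own counts at the level `lo n`,
bottom bound at the level `lo n + h` only; marks at the level `j`, `j` arbitrary. -/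
def UBdH [Fintype κ] (B : Base) (G : Geo σ κ) (Q : ℕ → ℕ → σ → Prop) (lo : ℕ → ℕ) (r0 : ℕ → ℝ)
    (β' : ℝ) : Prop :=
  ∀ η : ℝ, 0 < η → ∃ δ : ℝ, 0 < δ ∧ ∀ k : ℝ, 0 < k → ∀ᶠ n in (U : Filter ℕ), ∀ j h : ℕ,
    lo n + h < j → r0 n ≤ rho j → k * B.L n ≤ h → (h : ℝ) ≤ δ * ((j : ℝ) - lo n) →
    ∀ A : Finset (ℕ × ℝ), A.Nonempty →
    (∀ x ∈ A, ∀ y ∈ A, zc (lo n) x.2 = zc (lo n) y.2) →
    (∀ x ∈ A, ∀ y ∈ A, x.1 = y.1 → zc j x.2 = zc j y.2 → x = y) →
    Real.log (A.card : ℝ) ≤ (2:ℝ) ^ (δ * h) →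
    (∀ x ∈ A, (2:ℝ) ^ (((j : ℝ) - lo n) - δ * h) ≤ ((own A (lo n) j x).card : ℝ)) →
    ∀ (c : ℕ → ℤ → ℕ) (b : ℕ → σ) (w : κ → ℝ) (D0 D1 : ℝ), 0 < D0 → 0 < D1 →
      IsCl G n j A c b w → (∀ J, ∀ t ∈ alive A j J, Q n j (b (c t J))) → Low G 0 n j A c b D1 →
      (∀ (J : ℤ) (s : σ), G.adm n (lo n + h) J s →
        (((alive A (lo n + h) J).filter fun t => G.mem n (lo n + h) J s t).card : ℝ) ≤
          D0 * G.val n (lo n + h) J s) →
      D1 ≤ D0 * (2:ℝ) ^ ((β' + η) * ((j : ℝ) - lo n))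

set_option maxHeartbeats 1600000 in
open Classical in
/-- **deep D-max.**  `fit` : the levels of admissible test sets are sub-polynomial. -/
theorem deepP_of_ubdH [Fintype κ] (B : Base) {I : ℕ → Finset (ℕ × ℝ)} {G : Geo σ κ}
    {Q : ℕ → ℕ → σ → Prop} {lev : ℕ → ℚ → ℕ} {A : ℕ → ℝ} {g : ℝ} {r0 : ℕ → ℝ}
    {Sh : ℕ → Finset (κ → ℝ)}
    (Apos : ∀ n, 0 < A n) (g0 : 0 ≤ g)
    (ne : ∀ᶠ n in (U : Filter ℕ), (I n).Nonempty)
    (card : ∀ ε : ℝ, 0 < ε → ∀ᶠ n in (U : Filter ℕ), Real.log ((I n).card : ℝ) ≤ B.d n ^ (-ε))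
    (lev_mono : ∀ u v : ℚ, 0 ≤ u → u ≤ v → v ≤ 1 → ∀ᶠ n in (U : Filter ℕ), lev n u ≤ lev n v)
    (lev_lim : ∀ u v : ℚ, 0 ≤ u → u ≤ v → v ≤ 1 →
      Tendsto (fun n => ((lev n v : ℝ) - lev n u) * Real.log 2 / B.L n) U (𝓝 ((v : ℝ) - u)))
    (cell0 : ∀ᶠ n in (U : Filter ℕ), ∀ x ∈ I n, ∀ y ∈ I n, zc (lev n 0) x.2 = zc (lev n 0) y.2)
    (one : ∀ᶠ n in (U : Filter ℕ), ∀ x ∈ I n, ∀ y ∈ I n, x.1 = y.1 →
      zc (lev n 1) x.2 = zc (lev n 1) y.2 → x = y)
    (hown : ∀ ε : ℝ, 0 < ε → ∀ᶠ n in (U : Filter ℕ), ∀ x ∈ I n,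
      B.d n ^ ε * 2 ^ (lev n 1 - lev n 0) ≤ ((own (I n) (lev n 0) (lev n 1) x).card : ℝ))
    (alld : AllD B I G lev A g)
    (hv : ∀ n i J s, G.adm n i J s → 0 ≤ G.val n i J s)
    (sh : ∀ n i J s, G.adm n i J s → wv G s ∈ Sh n)
    (shc : ∀ ε : ℝ, 0 < ε → ∀ᶠ n in (U : Filter ℕ), ((Sh n).card : ℝ) ≤ B.d n ^ (-ε))
    (fit : ∀ ε : ℝ, 0 < ε → ∀ᶠ n in (U : Filter ℕ), ∀ i J s, G.adm n i J s → (i : ℝ) ≤ B.d n ^ (-ε))
    (hu : UBdH B G Q (fun n => lev n 0) r0 g) :
    DeepP B I (restr G Q) lev A g r0 := by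
  intro v hv0 hv1 m hm hr J hJ ε hε
  have hℓ : (0:ℝ) < Real.log 2 := Real.log_pos one_lt_two
  have hv0' : (0:ℝ) ≤ v := by exact_mod_cast hv0
  have hv1' : (v:ℝ) ≤ 1 := by exact_mod_cast hv1
  have key : ∀ P : ℕ → Finset (ℕ × ℤ), (∀ n, P n = extO (J n) (lev n 1) (m n)) →
      (∀ᶠ n in (U : Filter ℕ), m n ≤ lev n 1) →
      ∃ P : ℕ → Finset (ℕ × ℤ), (∀ n, P n ⊆ extO (J n) (lev n 1) (m n)) ∧
        (∃ γ : ℝ, 0 < γ ∧ ∀ᶠ n in (U : Filter ℕ), ((extO (J n) (lev n 1) (m n)).card : ℝ) ≤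
          (P n).card + B.d n ^ γ * (extO (J n) (lev n 1) (m n)).card) ∧
        ∀ᶠ n in (U : Filter ℕ), ∀ (j : ℤ) (s : σ), (restr G Q).adm n (m n) j s →
          (((P n).filter fun o => o.2 = j ∧ (restr G Q).mem n (m n) j s o.1).card : ℝ) ≤
            B.d n ^ (-ε) * (A n * B.d n ^ (-(g * v))) *
              2 ^ ((g + ε) * ((m n : ℝ) - lev n v)) * (restr G Q).val n (m n) j s := by
    intro P hP hm1
    refine ⟨fun n => extO (J n) (lev n 1) (m n), fun n => Finset.Subset.refl _, ⟨1, one_pos, ?_⟩, ?_⟩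
    · refine Eventually.of_forall fun n => ?_
      have := mul_nonneg (dpow_pos B n 1).le
        (Nat.cast_nonneg (α := ℝ) (extO (J n) (lev n 1) (m n)).card)
      linarith
    · filter_upwards [deepP_shallow B Apos g0 lev_mono lev_lim alld hv hv0 hv1 hm hm1 hJ hε] with
        n hn j s hs
      have := hn j s hs.1
      exact le_trans (le_of_eq (congrArg (fun S : Finset (ℕ × ℤ) => (S.card : ℝ))
        (Finset.filter_congr (fun x _ => Iff.rfl)))) this
  -- dichotomy
  have hdich : (∀ᶠ n in (U : Filter ℕ), m n ≤ lev n 1) ∨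
      ∀ᶠ n in (U : Filter ℕ), lev n 1 < m n := by
    rw [← Ultrafilter.eventually_or]
    exact Eventually.of_forall fun n => le_or_gt _ _
  rcases hdich with hm1 | hm1
  · exact key _ (fun n => rfl) hm1
  rcases isEmpty_or_nonempty σ with hσ | hσ
  · refine ⟨fun n => extO (J n) (lev n 1) (m n), fun n => Finset.Subset.refl _, ⟨1, one_pos, ?_⟩, ?_⟩
    · refine Eventually.of_forall fun n => ?_
      have := mul_nonneg (dpow_pos B n 1).le
        (Nat.cast_nonneg (α := ℝ) (extO (J n) (lev n 1) (m n)).card)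
      linarith
    · exact Eventually.of_forall fun n j s => isEmptyElim s
  -- extraction
  set X : ℕ → Finset (ℕ × ℤ) := fun n => extO (J n) (lev n 1) (m n) with hX
  set τ : ℕ → ℝ := fun n => B.d n ^ (-ε) * (A n * B.d n ^ (-(g * v))) *
    2 ^ ((g + ε) * ((m n : ℝ) - lev n v)) with hτ
  have hτ0 : ∀ n, 0 < τ n := by
    intro n
    have h1 := dpow_pos B n (-ε)
    have h2 := dpow_pos B n (-(g * v))
    have h3 := Apos n
    have h4 : (0:ℝ) < 2 ^ ((g + ε) * ((m n : ℝ) - lev n v)) := Real.rpow_pos_of_pos (by norm_num) _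
    simp only [hτ]
    positivity
  have hgr : ∀ n, ∃ (P : Finset (ℕ × ℤ)) (φ : ℕ × ℤ → ℕ) (b : ℕ → ℤ × σ), P ⊆ X n ∧
      (∀ s : ℤ × σ, (G.adm n (m n) s.1 s.2 ∧ Q n (m n) s.2) →
        ((P.filter fun o => o.2 = s.1 ∧ G.mem n (m n) s.1 s.2 o.1).card : ℝ) ≤
          τ n * G.val n (m n) s.1 s.2) ∧
      ∀ x ∈ X n \ P, (G.adm n (m n) (b (φ x)).1 (b (φ x)).2 ∧ Q n (m n) (b (φ x)).2) ∧
        (x.2 = (b (φ x)).1 ∧ G.mem n (m n) (b (φ x)).1 (b (φ x)).2 x.1) ∧
        τ n * G.val n (m n) (b (φ x)).1 (b (φ x)).2 <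
          (((X n \ P).filter fun y => φ y = φ x).card : ℝ) := by
    intro n
    obtain ⟨P, φ, b, h1, h2, h3⟩ := greedy (X := ℕ × ℤ) (σ := ℤ × σ)
      (fun s o => o.2 = s.1 ∧ G.mem n (m n) s.1 s.2 o.1)
      (fun s => G.adm n (m n) s.1 s.2 ∧ Q n (m n) s.2)
      (fun s => τ n * G.val n (m n) s.1 s.2)
      (fun s hs => mul_nonneg (hτ0 n).le (hv _ _ _ _ hs.1)) (X n).card (X n) le_rfl
    refine ⟨P, φ, b, h1, fun s hs => ?_, fun x hx => ?_⟩
    · convert h2 s hs
    · have hx' : x ∈ X n \ P := hx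
      obtain ⟨k1, k2, k3⟩ := h3 x (by convert hx')
      refine ⟨k1, k2, ?_⟩
      convert k3
  choose P φ b hPX hPd hPc using hgr
  refine ⟨P, hPX, ?_, ?_⟩
  swap
  · refine Eventually.of_forall fun n j s hs => ?_
    have := hPd n (j, s) hs
    exact le_trans (le_of_eq (congrArg (fun S : Finset (ℕ × ℤ) => (S.card : ℝ))
      (Finset.filter_congr (fun x _ => Iff.rfl)))) this
  -- the extracted part is small
  by_contra hcon
  have hE : ∀ γ : ℝ, 0 < γ → ∀ᶠ n in (U : Filter ℕ),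
      ((P n).card : ℝ) + B.d n ^ γ * ((X n).card : ℝ) < (X n).card := by
    intro γ hγ
    have h5 : ¬ ∀ᶠ n in (U : Filter ℕ), ((X n).card : ℝ) ≤
        ((P n).card : ℝ) + B.d n ^ γ * ((X n).card : ℝ) := fun h => hcon ⟨γ, hγ, h⟩
    rw [← Ultrafilter.eventually_not] at h5
    exact h5.mono fun n hn => not_le.1 hn
  -- constants
  set η : ℝ := ε / 16 with hη
  have hη0 : 0 < η := by positivity
  obtain ⟨δ, hδ, hub⟩ := hu η hη0
  set e2 : ℝ := min 1 (ε / (8 * (g + 1))) with he2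
  have he20 : 0 < e2 := lt_min one_pos (by positivity)
  have he21 : e2 ≤ 1 := min_le_left _ _
  have he2g : g * e2 ≤ ε / 8 := by
    have h1 : e2 ≤ ε / (8 * (g + 1)) := min_le_right _ _
    rw [le_div_iff₀ (by positivity)] at h1
    nlinarith
  set k : ℝ := min (1 / 10) (min (δ / 8) (ε / (16 * (g + 1)))) with hk
  have hk0 : 0 < k := lt_min (by norm_num) (lt_min (by positivity) (by positivity))
  have hk1 : k ≤ 1 / 10 := min_le_left _ _
  have hk2 : k ≤ δ / 8 := (min_le_right _ _).trans (min_le_left _ _)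
  have hk3 : 5 * g * (2 * k / 5) ≤ ε / 8 := by
    have h1 : k ≤ ε / (16 * (g + 1)) := (min_le_right _ _).trans (min_le_right _ _)
    rw [le_div_iff₀ (by positivity)] at h1
    have h3 : k * g ≤ k * (g + 1) := mul_le_mul_of_nonneg_left (by linarith) hk0.le
    linarith
  set e3 : ℝ := δ * k / 8 with he3
  have he30 : 0 < e3 := by positivity
  have q0 : ((0:ℚ) : ℝ) = 0 := by norm_num
  have q1 : ((1:ℚ) : ℝ) = 1 := by norm_num
  have hl1 : ∀ᶠ n in (U : Filter ℕ), 1 / 2 < ((lev n 1 : ℝ) - lev n 0) * Real.log 2 / B.L n := by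
    have h1 := lev_lim 0 1 le_rfl zero_le_one le_rfl
    refine h1.eventually (Ioi_mem_nhds ?_)
    rw [q0, q1]; norm_num
  have hlv : ∀ᶠ n in (U : Filter ℕ), ((lev n v : ℝ) - lev n 0) * Real.log 2 / B.L n < v + e2 := by
    have h1 := lev_lim 0 v le_rfl hv0 hv1
    refine h1.eventually (Iio_mem_nhds ?_)
    rw [q0]; linarith
  have hfalse : ∀ᶠ n in (U : Filter ℕ), False := by
    filter_upwards [lev_mono 0 1 le_rfl zero_le_one le_rfl, lev_mono 0 v le_rfl hv0 hv1, hm, hm1, hr,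
      cell0, one, hown e3 he30, alld (ε / 8) (by linarith), hJ.1, hJ.2 e3 he30, hE e3 he30,
      shc e3 he30, hub (k / Real.log 2) (by positivity), card (δ * k / 2) (by positivity), hl1, hlv,
      fit (δ * k / 2) (by positivity), ne, B.ev_L_ge (max (Real.log 2 / k) (2 * Real.log 4 / ε + 1)),
      B.ev_L_ge (2 * Real.log 4 / (δ * k))] with
      n a1 a2 a3 a4 a5 a6 a7 a8 a9 a10 a11 a12 a13 a14 a15 a16 a17 a18 a20 a21 a22
    have hL := B.L_pos n
    have hLa := (le_max_left _ _).trans a21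
    have hLb := (le_max_right _ _).trans a21
    have hLc := a22
    rw [lt_div_iff₀ hL] at a16
    rw [div_lt_iff₀ hL] at a17
    have a4' := a4.le
    -- cardinalities
    have hIc : ((extO (I n) (lev n 1) (m n)).card : ℝ) = 2 ^ (m n - lev n 1) * (I n).card := by
      have e1 : ((I n).image (lc (lev n 1))).card = (I n).card := by
        refine card_image_of_injOn ?_
        intro x hx y hy hxy
        simp only [lc, Prod.mk.injEq] at hxy
        exact a7 x hx y hy hxy.1 hxy.2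
      have e2' := card_extO (I := I n) a4'
      rw [e1] at e2'
      rw [e2']; push_cast; rfl
    have hJc : ((X n).card : ℝ) = 2 ^ (m n - lev n 1) * (J n).card := by
      have e1 : ((J n).image (lc (lev n 1))).card = (J n).card := by
        refine card_image_of_injOn ?_
        intro x hx y hy hxy
        simp only [lc, Prod.mk.injEq] at hxy
        exact a7 x (a10 hx) y (a10 hy) hxy.1 hxy.2
      have e2' := card_extO (I := J n) a4'
      rw [e1] at e2'
      simp only [hX]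
      rw [e2']; push_cast; rfl
    have hd3 := dpow_pos B n e3
    have hEc : ((X n \ P n).card : ℝ) = (X n).card - (P n).card := by
      rw [card_sdiff_of_subset (hPX n), Nat.cast_sub (card_le_card (hPX n))]
    have hIpos : (0:ℝ) < (I n).card := by exact_mod_cast card_pos.2 a20
    have hbig : B.d n ^ (2 * e3) * ((extO (I n) (lev n 1) (m n)).card : ℝ) ≤ (X n \ P n).card := by
      have e5 : B.d n ^ (2 * e3) = B.d n ^ e3 * B.d n ^ e3 := by rw [← dpow_add]; congr 1; ring
      rw [hIc, hEc, e5]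
      have h5 : B.d n ^ e3 * (X n).card ≤ (X n).card - (P n).card := by linarith
      refine le_trans ?_ h5
      rw [hJc]
      have h6 : (0:ℝ) ≤ B.d n ^ e3 * 2 ^ (m n - lev n 1) := by positivity
      calc B.d n ^ e3 * B.d n ^ e3 * (2 ^ (m n - lev n 1) * ((I n).card : ℝ))
          = B.d n ^ e3 * 2 ^ (m n - lev n 1) * (B.d n ^ e3 * (I n).card) := by ring
        _ ≤ B.d n ^ e3 * 2 ^ (m n - lev n 1) * (J n).card := mul_le_mul_of_nonneg_left a11 h6
        _ = _ := by ring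
    have hEne : (X n \ P n).Nonempty := by
      rw [← card_pos]
      have h5 : (0:ℝ) < (X n \ P n).card := by
        refine lt_of_lt_of_le ?_ hbig
        rw [hIc]
        have := dpow_pos B n (2 * e3)
        positivity
      exact_mod_cast h5
    obtain ⟨A', c, b', w, f1, f2, f3, f4, f5, f6, f7, f8, f9, f10⟩ :=
      deep_fin G (Q := Q) (n := n) a1 a4' a6 a7 (a := B.d n ^ e3) (e0 := B.d n ^ (2 * e3))
        (τ := τ n) hd3 (dpow_pos B n _) (hτ0 n).le a8 (E := X n \ P n)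
        (Finset.sdiff_subset.trans (extO_mono a10 _ _)) hEne hbig (φ := φ n) (b := b n)
        (fun x hx => by
          obtain ⟨k1, k2, k3⟩ := hPc n x hx
          rw [k2.1]; exact k1)
        (fun x hx => by
          obtain ⟨k1, k2, k3⟩ := hPc n x hx
          refine ⟨k2.1, ?_⟩
          rw [k2.1]; exact k2.2)
        (fun x hx => (hPc n x hx).2.2) (fun J s hs => hv _ _ _ _ hs) (Sh := Sh n)
        (fun J s hs => sh _ _ _ _ hs)
    -- the number of coarse levels
    set h : ℕ := ⌈k / Real.log 2 * B.L n⌉₊ with hh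
    have hlow : k / Real.log 2 * B.L n ≤ (h : ℝ) := Nat.le_ceil _
    have hlow' : k * B.L n ≤ (h : ℝ) * Real.log 2 := by
      have h5 := mul_le_mul_of_nonneg_right hlow hℓ.le
      have h6 : k / Real.log 2 * B.L n * Real.log 2 = k * B.L n := by field_simp
      linarith
    have hup : (h : ℝ) * Real.log 2 ≤ 2 * k * B.L n := by
      have h5 : (h : ℝ) < k / Real.log 2 * B.L n + 1 := Nat.ceil_lt_add_one (by positivity)
      have h6 : Real.log 2 ≤ B.L n * k := by rwa [div_le_iff₀ hk0] at hLa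
      have h7 : (k / Real.log 2 * B.L n + 1) * Real.log 2 = k * B.L n + Real.log 2 := by
        field_simp
      have h8 := mul_le_mul_of_nonneg_right h5.le hℓ.le
      rw [h7] at h8
      linarith
    have hup' : (h : ℝ) * Real.log 2 ≤ 5 * (2 * k / 5) * B.L n := by
      refine hup.trans (le_of_eq ?_); ring
    have hShp : (0:ℝ) < (Sh n).card := by
      obtain ⟨x, hx⟩ := hEne
      have := sh n (m n) _ _ (hPc n x hx).1.1
      exact_mod_cast card_pos.2 ⟨_, this⟩
    have hmfit : (m n : ℝ) ≤ B.d n ^ (-(δ * k / 2)) := by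
      obtain ⟨x, hx⟩ := hEne
      exact a18 (m n) _ _ (hPc n x hx).1.1
    have hyv : ((lev n v : ℝ) - lev n 0) * Real.log 2 ≤ (v + e2) * B.L n := a17.le
    have hx0 : 0 ≤ (m n : ℝ) - lev n v := by rw [sub_nonneg]; exact_mod_cast a3
    have hy0 : 0 ≤ (lev n v : ℝ) - lev n 0 := by rw [sub_nonneg]; exact_mod_cast a2
    have hxy : (m n : ℝ) - lev n v + ((lev n v : ℝ) - lev n 0) = (m n : ℝ) - lev n 0 := by ring
    have hm1' : (lev n 1 : ℝ) ≤ m n := by exact_mod_cast a4'
    have hMl : B.L n / 2 ≤ ((m n : ℝ) - lev n 0) * Real.log 2 := by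
      have : ((lev n 1 : ℝ) - lev n 0) * Real.log 2 ≤ ((m n : ℝ) - lev n 0) * Real.log 2 :=
        mul_le_mul_of_nonneg_right (by linarith) hℓ.le
      linarith
    have hlh : lev n 0 + h ≤ lev n 1 := by
      have h6 : (h : ℝ) * Real.log 2 ≤ ((lev n 1 : ℝ) - lev n 0) * Real.log 2 := by
        have : 2 * k * B.L n ≤ 1 / 2 * B.L n :=
          mul_le_mul_of_nonneg_right (by linarith) hL.le
        linarith
      have h7 : (h : ℝ) ≤ (lev n 1 : ℝ) - lev n 0 := le_of_mul_le_mul_right h6 hℓ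
      have h8 : (lev n 0 : ℝ) + h ≤ lev n 1 := by linarith
      exact_mod_cast h8
    have hdh : B.d n ^ (-(δ * k / 2)) * B.d n ^ (-(δ * k / 2)) ≤ (2:ℝ) ^ (δ * (h : ℝ)) := by
      rw [d_exp, two_exp, ← Real.exp_add]
      refine Real.exp_le_exp.2 ?_
      have h9 := mul_le_mul_of_nonneg_left hlow' hδ.le
      have h10 : -(-(δ * k / 2) * B.L n) + -(-(δ * k / 2) * B.L n) = δ * (k * B.L n) := by ring
      rw [h10]
      refine h9.trans (le_of_eq (by ring))
    have hd4 : (4:ℝ) ≤ B.d n ^ (-(δ * k / 2)) := by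
      rw [d_exp, ← Real.exp_log (by norm_num : (0:ℝ) < 4)]
      refine Real.exp_le_exp.2 ?_
      rw [div_le_iff₀ (by positivity)] at hLc
      linarith
    have hH := a14 (m n) h (lt_of_le_of_lt hlh a4) a5 (by
        exact hlow) (by
        -- h ≤ δ (m - lo)
        have h5 : (h : ℝ) * Real.log 2 ≤ δ * ((m n : ℝ) - lev n 0) * Real.log 2 := by
          calc (h : ℝ) * Real.log 2 ≤ 2 * k * B.L n := hup
            _ ≤ 2 * (δ / 8) * B.L n := by gcongr
            _ ≤ δ * (B.L n / 2) := by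
                have := mul_pos hδ hL
                linarith
            _ ≤ δ * (((m n : ℝ) - lev n 0) * Real.log 2) := mul_le_mul_of_nonneg_left hMl hδ.le
            _ = _ := by ring
        exact le_of_mul_le_mul_right h5 hℓ) A' f1 f3 f4 (by
        -- size
        have hA1 : (0:ℝ) < A'.card := by exact_mod_cast card_pos.2 f1
        have h5 : Real.log (A'.card : ℝ) ≤
            ((m n - lev n 1 : ℕ) : ℝ) * Real.log 2 + Real.log ((I n).card : ℝ) := by
          refine (Real.log_le_log hA1 f5).trans (le_of_eq ?_)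
          rw [Real.log_mul (by positivity) hIpos.ne', Real.log_pow]
        have h6 : ((m n - lev n 1 : ℕ) : ℝ) ≤ (m n : ℝ) := by
          exact_mod_cast Nat.sub_le _ _
        have h7 : ((m n - lev n 1 : ℕ) : ℝ) * Real.log 2 ≤ m n := by
          have h9 : Real.log 2 ≤ 1 := by have := Real.log_two_lt_d9; linarith
          calc ((m n - lev n 1 : ℕ) : ℝ) * Real.log 2 ≤ ((m n - lev n 1 : ℕ) : ℝ) * 1 :=
                mul_le_mul_of_nonneg_left h9 (Nat.cast_nonneg _)
            _ ≤ _ := by linarith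
        refine h5.trans (le_trans ?_ hdh)
        have h8 : (0:ℝ) < B.d n ^ (-(δ * k / 2)) := dpow_pos B n _
        have h9 := mul_le_mul_of_nonneg_right hd4 h8.le
        linarith) (by
        -- own
        intro x hx
        have h5 := f6 x hx
        have h6 : (2:ℝ) ^ (-(δ * (h : ℝ))) ≤ B.d n ^ e3 * B.d n ^ (2 * e3) / (4 * (Sh n).card) := by
          have h7 : B.d n ^ (4 * e3) / 4 ≤ B.d n ^ e3 * B.d n ^ (2 * e3) / (4 * (Sh n).card) := by
            rw [div_le_div_iff₀ (by norm_num) (by positivity)]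
            have e5 : B.d n ^ (4 * e3) = B.d n ^ e3 * B.d n ^ (2 * e3) * B.d n ^ e3 := by
              rw [← dpow_add, ← dpow_add]; congr 1; ring
            have e6 : B.d n ^ e3 * (Sh n).card ≤ 1 := by
              calc B.d n ^ e3 * (Sh n).card ≤ B.d n ^ e3 * B.d n ^ (-e3) :=
                    mul_le_mul_of_nonneg_left a13 hd3.le
                _ = 1 := by rw [← dpow_add]; simp
            have h9 : (0:ℝ) < B.d n ^ e3 * B.d n ^ (2 * e3) := by
              have := dpow_pos B n (2 * e3)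
              positivity
            calc B.d n ^ (4 * e3) * (4 * ((Sh n).card : ℝ))
                = B.d n ^ e3 * B.d n ^ (2 * e3) * 4 * (B.d n ^ e3 * (Sh n).card) := by rw [e5]; ring
              _ ≤ B.d n ^ e3 * B.d n ^ (2 * e3) * 4 * 1 :=
                  mul_le_mul_of_nonneg_left e6 (by positivity)
              _ = _ := by ring
          refine le_trans ?_ h7
          have e7 : B.d n ^ (4 * e3) * B.d n ^ (-(δ * k / 2)) = 1 := by
            rw [← dpow_add]
            have : 4 * e3 + -(δ * k / 2) = 0 := by rw [he3]; ring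
            rw [this]; simp
          have h10 : (2:ℝ) ^ (-(δ * (h : ℝ))) * (2:ℝ) ^ (δ * (h : ℝ)) = 1 := by
            rw [← Real.rpow_add (by norm_num)]; simp
          have hp := Real.rpow_pos_of_pos (show (0:ℝ) < 2 by norm_num) (-(δ * (h : ℝ)))
          have hq := dpow_pos B n (4 * e3)
          have hr := dpow_pos B n (-(δ * k / 2))
          rw [le_div_iff₀ (by norm_num)]
          -- 2^(-δh) * 4 ≤ d^(4 e3)
          have h11 : (2:ℝ) ^ (-(δ * (h : ℝ))) * (B.d n ^ (-(δ * k / 2)) * B.d n ^ (-(δ * k / 2))) ≤ 1 := by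
            calc _ ≤ (2:ℝ) ^ (-(δ * (h : ℝ))) * (2:ℝ) ^ (δ * (h : ℝ)) :=
                  mul_le_mul_of_nonneg_left hdh hp.le
              _ = 1 := h10
          have h12 : (2:ℝ) ^ (-(δ * (h : ℝ))) * B.d n ^ (-(δ * k / 2)) ≤ B.d n ^ (4 * e3) := by
            calc (2:ℝ) ^ (-(δ * (h : ℝ))) * B.d n ^ (-(δ * k / 2))
                = (2:ℝ) ^ (-(δ * (h : ℝ))) * B.d n ^ (-(δ * k / 2)) *
                  (B.d n ^ (4 * e3) * B.d n ^ (-(δ * k / 2))) := by rw [e7, mul_one]
              _ = (2:ℝ) ^ (-(δ * (h : ℝ))) * (B.d n ^ (-(δ * k / 2)) * B.d n ^ (-(δ * k / 2))) *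
                  B.d n ^ (4 * e3) := by ring
              _ ≤ 1 * B.d n ^ (4 * e3) := mul_le_mul_of_nonneg_right h11 hq.le
              _ = _ := one_mul _
          exact (mul_le_mul_of_nonneg_left hd4 hp.le).trans h12
        have e8 : (2:ℝ) ^ (((m n : ℝ) - lev n 0) - δ * (h : ℝ)) =
            (2:ℝ) ^ (-(δ * (h : ℝ))) * 2 ^ (m n - lev n 0) := by
          rw [← Real.rpow_natCast (2:ℝ) (m n - lev n 0), Nat.cast_sub (a1.trans a4'),
            ← Real.rpow_add (by norm_num)]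
          congr 1; ring
        show (2:ℝ) ^ (((m n : ℝ) - lev n 0) - δ * (h : ℝ)) ≤ _
        rw [e8]
        exact (mul_le_mul_of_nonneg_right h6 (by positivity)).trans h5) c b' w
        (B.d n ^ (-(ε / 8)) * (A n * 2 ^ (g * (h : ℝ)))) (τ n / 4) (by
        have h5 := dpow_pos B n (-(ε / 8))
        have h6 := Apos n
        have h7 : (0:ℝ) < 2 ^ (g * (h : ℝ)) := Real.rpow_pos_of_pos (by norm_num) _
        positivity) (by have := hτ0 n; linarith) f7 f8 f9 (by
        -- up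
        intro j s hs
        have hi0 : lev n 0 ≤ lev n 0 + h := Nat.le_add_right _ _
        have h6 := a9 (lev n 0 + h) hi0 hlh j s hs
        have h7 : (((alive A' (lev n 0 + h) j).filter fun t => G.mem n (lev n 0 + h) j s t).card : ℝ) ≤
            ((alive (I n) (lev n 0 + h) j).filter fun t => G.mem n (lev n 0 + h) j s t).card := by
          exact_mod_cast card_le_card (filter_subset_filter _ (f10 (lev n 0 + h) hi0 hlh j))
        refine h7.trans (h6.trans (mul_le_mul_of_nonneg_right ?_ (hv _ _ _ _ hs)))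
        refine mul_le_mul_of_nonneg_left (mul_le_mul_of_nonneg_left ?_ (Apos n).le)
          (dpow_pos B n _).le
        refine Real.rpow_le_rpow_of_exponent_le (by norm_num)
          (mul_le_mul_of_nonneg_left ?_ g0)
        push_cast
        linarith)
    -- contradiction
    refine deep_num2 (ℓ := Real.log 2) (L := B.L n) (g := g) (ε := ε) (v := v)
      (x := (m n : ℝ) - lev n v) (y := (lev n v : ℝ) - lev n 0) (A := A n) (h := h) (η := η)
      (e2 := e2) (e3 := 2 * k / 5) (Apos n) g0 hε hℓ hL hx0 hv0' hv1' hη0 le_rfl he20 he21 he2g hk3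
      hyv hup' (by linarith) ?_
    rw [hxy]
    have e5 : B.d n ^ (-(ε / 8)) = Real.exp (ε / 8 * B.L n) := by rw [d_exp]; congr 1; ring
    have e6 : B.d n ^ (-ε) = Real.exp (ε * B.L n) := by rw [d_exp]; congr 1; ring
    have e7 : B.d n ^ (-(g * v)) = Real.exp (g * v * B.L n) := by rw [d_exp]; congr 1; ring
    rw [← two_exp, ← two_exp, ← two_exp, ← e5, ← e6, ← e7]
    exact hH
  obtain ⟨n, hn⟩ := hfalse.exists
  exact hn

end

end Crest.Agent.R136.Dia770
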