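import Mathlib
import Crest.Agent.R136.Deep7_770
import Crest.Agent.R136.KF2_879

/-!
# R136 (helper770): deep D-max over 879's supremum bound with room (`KF879.UBH K`)

* `deep_fin2` : `deep_fin`, the configuration consists of incidences of objects of `E`;
* `UBdK` : abstract supremum bound with room;
* `deep_core` : D-max on most extended objects of the level `m0` gives D-max on most extended objects
  of the level `m`, `m - m0 ≤ K (m0 - lev 0)`;
* `ubdK_of_UBH`, `deep_stepK` : in the class of 794.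
-/

set_option autoImplicit false
set_option linter.unusedVariables false
set_option linter.unusedSectionVars false

open Finset Filter Topology

namespace Crest.Agent.R136.Dia770

open Crest.Agent.R138.Ex926 Crest.Agent.R138.Dp76
open Crest.Agent.R138.Mk163 (zc zl rho alive own)
open Crest.Agent.R138.MkRef627 (lc mem_alive own_one alive_mono)
open Crest.Agent.R136.MkA627 (Geo)
open Crest.Agent.R136.XA248 (rew wv valx Rel IsCl Low Up)
open Crest.Agent.R116.Xa794 (TS)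
open Crest.Agent.R116.Xc794 (rel capP Cfg geoP)

section

variable {σ κ : Type}

open Classical in
/-- **finite core**, with the objects of the configuration. -/
theorem deep_fin2 [Fintype κ] (G : Geo σ κ) {Q : ℕ → ℕ → σ → Prop} {n lo l1 m : ℕ} (h0 : lo ≤ l1)
    (h1 : l1 ≤ m) {I : Finset (ℕ × ℝ)}
    (cell : ∀ x ∈ I, ∀ y ∈ I, zc lo x.2 = zc lo y.2)
    (one : ∀ x ∈ I, ∀ y ∈ I, x.1 = y.1 → zc l1 x.2 = zc l1 y.2 → x = y)
    {a e0 τ : ℝ} (ha : 0 < a) (he : 0 < e0) (hτ : 0 ≤ τ)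
    (hown : ∀ x ∈ I, a * 2 ^ (l1 - lo) ≤ ((own I lo l1 x).card : ℝ))
    {E : Finset (ℕ × ℤ)} (hE : E ⊆ extO I l1 m) (hne : E.Nonempty)
    (hbig : e0 * ((extO I l1 m).card : ℝ) ≤ E.card) {φ : ℕ × ℤ → ℕ} {b : ℕ → ℤ × σ}
    (hadm : ∀ x ∈ E, G.adm n m x.2 (b (φ x)).2 ∧ Q n m (b (φ x)).2)
    (hmem : ∀ x ∈ E, x.2 = (b (φ x)).1 ∧ G.mem n m x.2 (b (φ x)).2 x.1)
    (hcl : ∀ x ∈ E, τ * G.val n m (b (φ x)).1 (b (φ x)).2 <
      ((E.filter fun y => φ y = φ x).card : ℝ))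
    (hv : ∀ J s, G.adm n m J s → 0 ≤ G.val n m J s)
    {Sh : Finset (κ → ℝ)} (hSh : ∀ J s, G.adm n m J s → wv G s ∈ Sh) :
    ∃ (A : Finset (ℕ × ℝ)) (c : ℕ → ℤ → ℕ) (b' : ℕ → σ) (w : κ → ℝ),
      (∃ E1 ⊆ E, A = E1.image (inc m)) ∧ A.Nonempty ∧
      (∀ x ∈ A, ∃ y ∈ I, y.1 = x.1) ∧
      (∀ x ∈ A, ∀ y ∈ A, zc lo x.2 = zc lo y.2) ∧
      (∀ x ∈ A, ∀ y ∈ A, x.1 = y.1 → zc m x.2 = zc m y.2 → x = y) ∧
      (A.card : ℝ) ≤ 2 ^ (m - l1) * (I.card : ℝ) ∧
      (∀ x ∈ A, a * e0 / (4 * Sh.card) * 2 ^ (m - lo) ≤ ((own A lo m x).card : ℝ)) ∧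
      IsCl G n m A c b' w ∧ (∀ J, ∀ t ∈ alive A m J, Q n m (b' (c t J))) ∧
      Low G 0 n m A c b' (τ / 4) ∧
      (∀ i, lo ≤ i → i ≤ l1 → ∀ j, alive A i j ⊆ alive I i j) := by
  -- width vectors
  obtain ⟨w, hwS, hpop⟩ := popular E Sh (fun x => wv G (b (φ x)).2)
    (fun x hx => hSh _ _ (hadm x hx).1) hne
  set E1 := E.filter fun x => wv G (b (φ x)).2 = w with hE1
  replace hpop : (E.card : ℝ) ≤ Sh.card * (E1.card : ℝ) := by convert hpop
  have hEpos : (0:ℝ) < E.card := by exact_mod_cast card_pos.2 hne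
  have hSpos : (0:ℝ) < Sh.card := by
    have : Sh.Nonempty := ⟨w, hwS⟩
    exact_mod_cast card_pos.2 this
  have hext : ((extO I l1 m).card : ℝ) = 2 ^ (m - l1) * (I.card : ℝ) := by
    have e1 : (I.image (lc l1)).card = I.card := by
      refine card_image_of_injOn ?_
      intro x hx y hy hxy
      simp only [lc, Prod.mk.injEq] at hxy
      exact one x hx y hy hxy.1 hxy.2
    rw [card_extO h1, e1]
    push_cast; rfl
  -- coarse objects
  have hcoarse : (E1.image fun o : ℕ × ℤ => (o.1, o.2 / 2 ^ (m - lo))) ⊆ I.image (lc lo) := by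
    intro p hp
    obtain ⟨o, ho, rfl⟩ := mem_image.1 hp
    obtain ⟨x, hx, hxo⟩ := extO_anc h0 (h0.trans h1) (hE (mem_filter.1 ho).1)
    exact mem_image.2 ⟨x, hx, hxo⟩
  have hIlo := card_ge_own (l0 := lo) (l1 := l1) (by positivity) hown
  set c0 : ℝ := a * e0 / (4 * Sh.card) * 2 ^ (m - lo) with hc0
  have hc0' : 0 ≤ c0 := by positivity
  have hK : 4 * c0 * ((E1.image fun o : ℕ × ℤ => (o.1, o.2 / 2 ^ (m - lo))).card : ℝ) ≤
      E1.card := by
    have g1 : ((E1.image fun o : ℕ × ℤ => (o.1, o.2 / 2 ^ (m - lo))).card : ℝ) ≤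
        (I.image (lc lo)).card := by exact_mod_cast card_le_card hcoarse
    have g2 : (2:ℝ) ^ (m - lo) = 2 ^ (m - l1) * 2 ^ (l1 - lo) := by
      rw [← pow_add]; congr 1; omega
    calc 4 * c0 * ((E1.image fun o : ℕ × ℤ => (o.1, o.2 / 2 ^ (m - lo))).card : ℝ)
        ≤ 4 * c0 * (I.image (lc lo)).card := mul_le_mul_of_nonneg_left g1 (by positivity)
      _ = e0 / Sh.card * 2 ^ (m - l1) * (a * 2 ^ (l1 - lo) * (I.image (lc lo)).card) := by
          rw [hc0, g2]; field_simp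
      _ ≤ e0 / Sh.card * 2 ^ (m - l1) * I.card :=
          mul_le_mul_of_nonneg_left hIlo (by positivity)
      _ = (e0 * (extO I l1 m).card) / Sh.card := by rw [hext]; ring
      _ ≤ E.card / Sh.card := div_le_div_of_nonneg_right hbig hSpos.le
      _ ≤ E1.card := by rw [div_le_iff₀ hSpos, mul_comm]; exact hpop
  -- classes of `E1`
  have hcl1 : ∀ x ∈ E1, max 0 (τ * G.val n m (b (φ x)).1 (b (φ x)).2) ≤
      ((E1.filter fun y => φ y = φ x).card : ℝ) := by
    intro x hx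
    obtain ⟨hxE, hxw⟩ := mem_filter.1 hx
    refine max_le (Nat.cast_nonneg _) ((hcl x hxE).le.trans ?_)
    norm_cast
    refine card_le_card ?_
    intro y hy
    obtain ⟨hyE, hyx⟩ := mem_filter.1 hy
    refine mem_filter.2 ⟨mem_filter.2 ⟨hyE, ?_⟩, hyx⟩
    rw [hyx]; exact hxw
  obtain ⟨G1, hG1, k1, k2, k3⟩ := prune2 E1 φ (fun o : ℕ × ℤ => (o.1, o.2 / 2 ^ (m - lo)))
    (fun k => max 0 (τ * G.val n m (b k).1 (b k).2)) (fun k => le_max_left _ _)
    (fun x hx => by convert hcl1 x hx) hc0' (by convert hK)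
  have hG1E : G1 ⊆ E := hG1.trans (filter_subset _ _)
  have hG1x : G1 ⊆ extO I l1 m := hG1E.trans hE
  have hG1ne : G1.Nonempty := by
    rw [← card_pos]
    have h5 : (0:ℝ) < E1.card := by
      by_contra h6
      have h7 : (E1.card : ℝ) = 0 := le_antisymm (not_lt.1 h6) (Nat.cast_nonneg _)
      rw [h7, mul_zero] at hpop
      linarith
    have h6 : (0:ℝ) < G1.card := by linarith
    exact_mod_cast h6
  refine ⟨G1.image (inc m), fun t J => φ (t, J), fun k => (b k).2, w, ⟨G1, hG1E, rfl⟩,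
    hG1ne.image _, ?_, ?_, ?_, ?_, ?_, ?_, ?_, ?_, ?_⟩
  · intro x hx
    obtain ⟨o, ho, rfl⟩ := mem_image.1 hx
    obtain ⟨y, hy, hyo⟩ := extO_anc h0 (h0.trans h1) (hG1x ho)
    simp only [lc, Prod.mk.injEq] at hyo
    exact ⟨y, hy, hyo.1⟩
  · intro x hx y hy
    obtain ⟨o, ho, rfl⟩ := mem_image.1 hx
    obtain ⟨p, hp, rfl⟩ := mem_image.1 hy
    rw [zc_inc (h0.trans h1), zc_inc (h0.trans h1)]
    obtain ⟨x', hx', hxo⟩ := extO_anc h0 (h0.trans h1) (hG1x ho)
    obtain ⟨y', hy', hyo⟩ := extO_anc h0 (h0.trans h1) (hG1x hp)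
    simp only [lc, Prod.mk.injEq] at hxo hyo
    rw [← hxo.2, ← hyo.2]
    exact cell x' hx' y' hy'
  · intro x hx y hy hxy hz
    obtain ⟨o, ho, rfl⟩ := mem_image.1 hx
    obtain ⟨p, hp, rfl⟩ := mem_image.1 hy
    rw [zc_inc_top, zc_inc_top] at hz
    have : o = p := Prod.ext hxy hz
    rw [this]
  · rw [← hext]
    exact_mod_cast card_image_le.trans (card_le_card hG1x)
  · intro x hx
    obtain ⟨o, ho, rfl⟩ := mem_image.1 hx
    rw [card_own_inc G1 (h0.trans h1) o]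
    convert k2 o ho
  · intro J t ht
    rw [mem_alive_inc_top] at ht
    have h5 := hadm _ (hG1E ht)
    have h6 := hmem _ (hG1E ht)
    have h7 := (mem_filter.1 (hG1 ht)).2
    exact ⟨h6.2, h5.1, h7⟩
  · intro J t ht
    rw [mem_alive_inc_top] at ht
    exact (hadm _ (hG1E ht)).2
  · intro J t ht
    rw [mem_alive_inc_top] at ht
    have e8 : ((alive (G1.image (inc m)) m J).filter fun s => φ (s, J) = φ (t, J)).card =
        (G1.filter fun o => o.2 = J ∧ φ (o.1, J) = φ (t, J)).card := by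
      convert card_alive_inc G1 m J (fun s => φ (s, J) = φ (t, J))
    rw [valx_zero']
    show _ ≤ (((((alive (G1.image (inc m)) m J).filter fun s => φ (s, J) = φ (t, J)).card : ℕ)) : ℝ)
    rw [e8]
    have h5 := k3 _ ht
    have h6 := hmem _ (hG1E ht)
    simp only at h6
    have h7 : G.val n m J (b (φ (t, J))).2 = G.val n m (b (φ (t, J))).1 (b (φ (t, J))).2 := by
      rw [← h6.1]
    rw [h7]
    have h8 : τ / 4 * G.val n m (b (φ (t, J))).1 (b (φ (t, J))).2 ≤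
        max 0 (τ * G.val n m (b (φ (t, J))).1 (b (φ (t, J))).2) / 4 := by
      have := le_max_right 0 (τ * G.val n m (b (φ (t, J))).1 (b (φ (t, J))).2)
      linarith
    refine h8.trans (h5.trans ?_)
    norm_cast
    refine card_le_card ?_
    intro p hp
    obtain ⟨hpG, hpt⟩ := mem_filter.1 hp
    have h9 : p.2 = J := by
      have a1 := (hmem _ (hG1E hpG)).1
      rw [hpt] at a1
      rw [a1, ← h6.1]
    refine mem_filter.2 ⟨hpG, h9, ?_⟩
    rw [← h9]
    rw [← h9] at hpt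
    exact hpt
  · intro i hi0 hi1 j
    exact alive_inc_subset hi1 (hi1.trans h1) hG1x j

open Classical in
/-- **supremum bound with room**: big cell and own counts at the level `lo n`, bottom bound at the
level `j0`, marks at the level `j`, `j - j0 ≤ K (j0 - lo n)`. -/
def UBdK [Fintype κ] (B : Base) (G : Geo σ κ) (Q : ℕ → ℕ → σ → Prop) (K : ℕ) (lo : ℕ → ℕ)
    (β' : ℝ) : Prop :=
  ∀ η : ℝ, 0 < η → ∃ δ : ℝ, 0 < δ ∧ ∀ᶠ n in (U : Filter ℕ), ∀ j0 j : ℕ,
    lo n < j0 → j0 < j → j - j0 ≤ K * (j0 - lo n) → j0 - lo n ≤ j - j0 →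
    B.L n / 4 ≤ ((j : ℝ) - j0) * Real.log 2 →
    ∀ A : Finset (ℕ × ℝ), A.Nonempty →
    (∀ x ∈ A, ∀ y ∈ A, zc (lo n) x.2 = zc (lo n) y.2) →
    (∀ x ∈ A, ∀ y ∈ A, x.1 = y.1 → zc j x.2 = zc j y.2 → x = y) →
    Real.log (A.card : ℝ) ≤ (2:ℝ) ^ (δ * ((j : ℝ) - j0)) →
    (∀ x ∈ A, (2:ℝ) ^ ((1 - δ) * ((j : ℝ) - lo n)) ≤ ((own A (lo n) j x).card : ℝ)) →
    ∀ (c : ℕ → ℤ → ℕ) (b : ℕ → σ) (w : κ → ℝ) (D0 D1 : ℝ), 0 < D0 → 0 < D1 →
      IsCl G n j A c b w → (∀ J, ∀ t ∈ alive A j J, Q n j (b (c t J))) → Low G 0 n j A c b D1 →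
      (∀ (J : ℤ) (s : σ), G.adm n j0 J s →
        (((alive A j0 J).filter fun t => G.mem n j0 J s t).card : ℝ) ≤ D0 * G.val n j0 J s) →
      D1 ≤ D0 * (2:ℝ) ^ ((β' + η) * ((j : ℝ) - j0))

open Classical in
/-- the conclusion of `DeepP` for one level, part and loss (= `Lz627.DBody`, `Shf163.DeepAt`). -/
def DBd (B : Base) (G : Geo σ κ) (lev : ℕ → ℚ → ℕ) (A : ℕ → ℝ) (g : ℝ)
    (v : ℚ) (m : ℕ → ℕ) (J : ℕ → Finset (ℕ × ℝ)) (ε : ℝ) : Prop :=
  ∃ P : ℕ → Finset (ℕ × ℤ), (∀ n, P n ⊆ extO (J n) (lev n 1) (m n)) ∧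
    (∃ γ : ℝ, 0 < γ ∧ ∀ᶠ n in (U : Filter ℕ), ((extO (J n) (lev n 1) (m n)).card : ℝ) ≤
      (P n).card + B.d n ^ γ * (extO (J n) (lev n 1) (m n)).card) ∧
    ∀ᶠ n in (U : Filter ℕ), ∀ (j : ℤ) (s : σ), G.adm n (m n) j s →
      (((P n).filter fun o => o.2 = j ∧ G.mem n (m n) j s o.1).card : ℝ) ≤
        B.d n ^ (-ε) * (A n * B.d n ^ (-(g * v))) *
          2 ^ ((g + ε) * ((m n : ℝ) - lev n v)) * G.val n (m n) j s

/-- ancestors of extended objects are extended objects -/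
theorem anc_mem {J : Finset (ℕ × ℝ)} {l1 m0 m : ℕ} (h1 : l1 ≤ m) (h0 : m0 ≤ m) {o : ℕ × ℤ}
    (ho : o ∈ extO J l1 m) : (o.1, o.2 / 2 ^ (m - m0)) ∈ extO J l1 m0 := by
  rcases le_total m0 l1 with h | h
  · rw [mem_extO_le h]
    exact extO_anc h h0 ho
  · rw [mem_extO_ge h]
    rw [mem_extO_ge h1] at ho
    obtain ⟨x, hx, hxo⟩ := ho
    refine ⟨x, hx, ?_⟩
    rw [hxo]
    simp only [Prod.mk.injEq, true_and]
    rw [Int.ediv_ediv_of_nonneg (by positivity), ← pow_add]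
    congr 2; omega

open Classical in
/-- number of objects below a set of coarse objects -/
theorem card_anc_le (X : Finset (ℕ × ℤ)) (S : Finset (ℕ × ℤ)) (k : ℕ) :
    ((X.filter fun o => (o.1, o.2 / 2 ^ k) ∈ S).card) ≤ 2 ^ k * S.card := by
  have h1 : (X.filter fun o => (o.1, o.2 / 2 ^ k) ∈ S) ⊆ S.biUnion fun p =>
      (Finset.Ico (p.2 * 2 ^ k) (p.2 * 2 ^ k + 2 ^ k)).image fun j => (p.1, j) := by
    intro o ho
    obtain ⟨-, h2⟩ := mem_filter.1 ho
    refine mem_biUnion.2 ⟨_, h2, mem_image.2 ⟨o.2, ico_div.2 rfl, rfl⟩⟩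
  refine (card_le_card h1).trans (card_biUnion_le.trans ?_)
  have h2 : ∀ p ∈ S, ((Finset.Ico (p.2 * 2 ^ k) (p.2 * 2 ^ k + 2 ^ k)).image
      fun j => (p.1, j)).card ≤ 2 ^ k := by
    intro p _
    refine card_image_le.trans ?_
    rw [Int.card_Ico]
    have e2 : p.2 * 2 ^ k + 2 ^ k - p.2 * 2 ^ k = ((2 ^ k : ℕ) : ℤ) := by
      push_cast; ring
    rw [e2, Int.toNat_natCast]
  refine (sum_le_sum h2).trans ?_
  rw [sum_const, smul_eq_mul, mul_comm]


set_option maxHeartbeats 1600000 in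
open Classical in
/-- **step of deep D-max, core**: D-max at the level `m0` on the part `P0` of the objects. -/
theorem deep_core [Fintype κ] (B : Base) {K : ℕ} {I : ℕ → Finset (ℕ × ℝ)} {G : Geo σ κ}
    {Q : ℕ → ℕ → σ → Prop} {lev : ℕ → ℚ → ℕ} {A : ℕ → ℝ} {g : ℝ}
    {Sh : ℕ → Finset (κ → ℝ)}
    (Apos : ∀ n, 0 < A n) (g0 : 0 ≤ g)
    (ne : ∀ᶠ n in (U : Filter ℕ), (I n).Nonempty)
    (card : ∀ ε : ℝ, 0 < ε → ∀ᶠ n in (U : Filter ℕ), Real.log ((I n).card : ℝ) ≤ B.d n ^ (-ε))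
    (lev_mono : ∀ u v : ℚ, 0 ≤ u → u ≤ v → v ≤ 1 → ∀ᶠ n in (U : Filter ℕ), lev n u ≤ lev n v)
    (lev_lim : ∀ u v : ℚ, 0 ≤ u → u ≤ v → v ≤ 1 →
      Tendsto (fun n => ((lev n v : ℝ) - lev n u) * Real.log 2 / B.L n) U (𝓝 ((v : ℝ) - u)))
    (cell0 : ∀ᶠ n in (U : Filter ℕ), ∀ x ∈ I n, ∀ y ∈ I n, zc (lev n 0) x.2 = zc (lev n 0) y.2)
    (one : ∀ᶠ n in (U : Filter ℕ), ∀ x ∈ I n, ∀ y ∈ I n, x.1 = y.1 →
      zc (lev n 1) x.2 = zc (lev n 1) y.2 → x = y)
    (hown : ∀ ε : ℝ, 0 < ε → ∀ᶠ n in (U : Filter ℕ), ∀ x ∈ I n,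
      B.d n ^ ε * 2 ^ (lev n 1 - lev n 0) ≤ ((own (I n) (lev n 0) (lev n 1) x).card : ℝ))
    (hv : ∀ n i J s, G.adm n i J s → 0 ≤ G.val n i J s)
    (sh : ∀ n i J s, G.adm n i J s → wv G s ∈ Sh n)
    (shc : ∀ ε : ℝ, 0 < ε → ∀ᶠ n in (U : Filter ℕ), ((Sh n).card : ℝ) ≤ B.d n ^ (-ε))
    (hu : UBdK B G Q K (fun n => lev n 0) g)
    {m0 m : ℕ → ℕ} (hm1 : ∀ᶠ n in (U : Filter ℕ), lev n 1 < m n)
    (h01 : ∀ᶠ n in (U : Filter ℕ), lev n 0 < m0 n)
    (hM : ∀ᶠ n in (U : Filter ℕ), m n - m0 n ≤ K * (m0 n - lev n 0))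
    (hh : ∀ᶠ n in (U : Filter ℕ), m0 n - lev n 0 ≤ m n - m0 n) {C : ℝ}
    (hC : ∀ᶠ n in (U : Filter ℕ), (m n : ℝ) ≤ lev n 1 + C * B.L n)
    {J : ℕ → Finset (ℕ × ℝ)} (hJ : Dense B J I) {ε : ℝ} (hε : 0 < ε)
    {P0 : ℕ → Finset (ℕ × ℤ)} {γ0 : ℝ} (hγ0 : 0 < γ0)
    (hB0 : ∀ᶠ n in (U : Filter ℕ),
      ((2 ^ (m n - m0 n) * (extO (J n) (lev n 1) (m0 n) \ P0 n).card : ℕ) : ℝ) ≤
        B.d n ^ γ0 * (extO (J n) (lev n 1) (m n)).card)
    (hP0 : ∀ᶠ n in (U : Filter ℕ), ∀ (j : ℤ) (s : σ), G.adm n (m0 n) j s →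
      (((P0 n).filter fun o => o.2 = j ∧ G.mem n (m0 n) j s o.1).card : ℝ) ≤
        B.d n ^ (-(ε / 4)) * (A n * 2 ^ (g * ((m0 n : ℝ) - lev n 0))) * G.val n (m0 n) j s) :
    DBd B (restr G Q) lev A g 0 m J ε := by
  have hℓ : (0:ℝ) < Real.log 2 := Real.log_pos one_lt_two
  unfold DBd
  rcases isEmpty_or_nonempty σ with hσ | hσ
  · refine ⟨fun n => extO (J n) (lev n 1) (m n), fun n => Finset.Subset.refl _, ⟨1, one_pos, ?_⟩, ?_⟩
    · refine Eventually.of_forall fun n => ?_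
      have := mul_nonneg (dpow_pos B n 1).le
        (Nat.cast_nonneg (α := ℝ) (extO (J n) (lev n 1) (m n)).card)
      linarith
    · exact Eventually.of_forall fun n j s => isEmptyElim s
  -- extraction
  set Y : ℕ → Finset (ℕ × ℤ) := fun n => extO (J n) (lev n 1) (m n) with hY
  set X : ℕ → Finset (ℕ × ℤ) := fun n =>
    (Y n).filter fun o => (o.1, o.2 / 2 ^ (m n - m0 n)) ∈ P0 n with hX
  have hXY : ∀ n, X n ⊆ Y n := fun n => filter_subset _ _
  set τ : ℕ → ℝ := fun n => B.d n ^ (-ε) * (A n * B.d n ^ (-(g * ((0:ℚ):ℝ)))) *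
    2 ^ ((g + ε) * ((m n : ℝ) - lev n 0)) with hτ
  have hτ0 : ∀ n, 0 < τ n := by
    intro n
    have h1 := dpow_pos B n (-ε)
    have h2 := dpow_pos B n (-(g * ((0:ℚ):ℝ)))
    have h3 := Apos n
    have h4 : (0:ℝ) < 2 ^ ((g + ε) * ((m n : ℝ) - lev n 0)) := Real.rpow_pos_of_pos (by norm_num) _
    simp only [hτ]
    positivity
  have hgr : ∀ n, ∃ (P : Finset (ℕ × ℤ)) (φ : ℕ × ℤ → ℕ) (b : ℕ → ℤ × σ), P ⊆ X n ∧
      (∀ s : ℤ × σ, (G.adm n (m n) s.1 s.2 ∧ Q n (m n) s.2) →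
        ((P.filter fun o => o.2 = s.1 ∧ G.mem n (m n) s.1 s.2 o.1).card : ℝ) ≤
          τ n * G.val n (m n) s.1 s.2) ∧
      ∀ x ∈ X n \ P, (G.adm n (m n) (b (φ x)).1 (b (φ x)).2 ∧ Q n (m n) (b (φ x)).2) ∧
        (x.2 = (b (φ x)).1 ∧ G.mem n (m n) (b (φ x)).1 (b (φ x)).2 x.1) ∧
        τ n * G.val n (m n) (b (φ x)).1 (b (φ x)).2 <
          (((X n \ P).filter fun y => φ y = φ x).card : ℝ) := by
    intro n
    obtain ⟨P, φ, b, h1, h2, h3⟩ := greedy (X := ℕ × ℤ) (σ := ℤ × σ)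
      (fun s o => o.2 = s.1 ∧ G.mem n (m n) s.1 s.2 o.1)
      (fun s => G.adm n (m n) s.1 s.2 ∧ Q n (m n) s.2)
      (fun s => τ n * G.val n (m n) s.1 s.2)
      (fun s hs => mul_nonneg (hτ0 n).le (hv _ _ _ _ hs.1)) (X n).card (X n) le_rfl
    refine ⟨P, φ, b, h1, fun s hs => ?_, fun x hx => ?_⟩
    · convert h2 s hs
    · have hx' : x ∈ X n \ P := hx
      obtain ⟨k1, k2, k3⟩ := h3 x (by convert hx')
      refine ⟨k1, k2, ?_⟩
      convert k3
  choose P φ b hPX hPd hPc using hgr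
  refine ⟨P, fun n => (hPX n).trans (hXY n), ?_, ?_⟩
  swap
  · refine Eventually.of_forall fun n j s hs => ?_
    have := hPd n (j, s) hs
    exact le_trans (le_of_eq (congrArg (fun S : Finset (ℕ × ℤ) => (S.card : ℝ))
      (Finset.filter_congr (fun x _ => Iff.rfl)))) this
  -- the exceptional part is small
  by_contra hcon
  have hE : ∀ γ : ℝ, 0 < γ → ∀ᶠ n in (U : Filter ℕ),
      ((P n).card : ℝ) + B.d n ^ γ * ((Y n).card : ℝ) < (Y n).card := by
    intro γ hγ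
    have h5 : ¬ ∀ᶠ n in (U : Filter ℕ), ((Y n).card : ℝ) ≤
        ((P n).card : ℝ) + B.d n ^ γ * ((Y n).card : ℝ) := fun h => hcon ⟨γ, hγ, h⟩
    rw [← Ultrafilter.eventually_not] at h5
    exact h5.mono fun n hn => not_le.1 hn
  -- constants
  set η : ℝ := ε / 16 with hη
  have hη0 : 0 < η := by positivity
  obtain ⟨δ, hδ, hub⟩ := hu η hη0
  set e3 : ℝ := min (δ / 20) (γ0 / 2) with he3
  have he30 : 0 < e3 := lt_min (by positivity) (by positivity)
  have he31 : e3 ≤ δ / 20 := min_le_left _ _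
  have he32 : 2 * e3 ≤ γ0 := by
    have : e3 ≤ γ0 / 2 := min_le_right _ _
    linarith
  have q0 : ((0:ℚ) : ℝ) = 0 := by norm_num
  have q1 : ((1:ℚ) : ℝ) = 1 := by norm_num
  have hl1 : ∀ᶠ n in (U : Filter ℕ), 1 / 2 < ((lev n 1 : ℝ) - lev n 0) * Real.log 2 / B.L n := by
    have h1 := lev_lim 0 1 le_rfl zero_le_one le_rfl
    refine h1.eventually (Ioi_mem_nhds ?_)
    rw [q0, q1]; norm_num
  have hfalse : ∀ᶠ n in (U : Filter ℕ), False := by
    filter_upwards [lev_mono 0 1 le_rfl zero_le_one le_rfl, h01, hM, hh, hm1, hC,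
      cell0, one, hown e3 he30, hB0, hP0, hJ.1, hJ.2 e3 he30, hE e3 he30,
      shc e3 he30, hub, card (δ / 8) (by positivity), hl1, ne,
      B.ev_L_ge (max (Real.log 2 / e3) (2 * Real.log 4 / ε)),
      B.ev_L_ge (max (8 * Real.log 4 / δ) (128 * (|C| + 1) / δ ^ 2))] with
      n a1 a2 a3 a4 a5 a6 a7 a8 a9 a10 a11 a12 a13 a14 a15 a16 a17 a18 a19 a20 a21
    have hL := B.L_pos n
    have hLa := (le_max_left _ _).trans a20
    have hLb := (le_max_right _ _).trans a20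
    have hLc := (le_max_left _ _).trans a21
    have hLd := (le_max_right _ _).trans a21
    rw [lt_div_iff₀ hL] at a18
    have a5' := a5.le
    have hm0m : m0 n < m n := by omega
    have hd3 := dpow_pos B n e3
    have hd3h : B.d n ^ e3 ≤ 1 / 2 := by
      rw [d_exp, show (1:ℝ) / 2 = Real.exp (-Real.log 2) by
        rw [Real.exp_neg, Real.exp_log (by norm_num)]; norm_num]
      refine Real.exp_le_exp.2 ?_
      rw [div_le_iff₀ he30] at hLa
      linarith
    -- cardinalities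
    have hIc : ((extO (I n) (lev n 1) (m n)).card : ℝ) = 2 ^ (m n - lev n 1) * (I n).card := by
      have e1 : ((I n).image (lc (lev n 1))).card = (I n).card := by
        refine card_image_of_injOn ?_
        intro x hx y hy hxy
        simp only [lc, Prod.mk.injEq] at hxy
        exact a8 x hx y hy hxy.1 hxy.2
      have e2' := card_extO (I := I n) a5'
      rw [e1] at e2'
      rw [e2']; push_cast; rfl
    have hJc : ((Y n).card : ℝ) = 2 ^ (m n - lev n 1) * (J n).card := by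
      have e1 : ((J n).image (lc (lev n 1))).card = (J n).card := by
        refine card_image_of_injOn ?_
        intro x hx y hy hxy
        simp only [lc, Prod.mk.injEq] at hxy
        exact a8 x (a12 hx) y (a12 hy) hxy.1 hxy.2
      have e2' := card_extO (I := J n) a5'
      rw [e1] at e2'
      simp only [hY]
      rw [e2']; push_cast; rfl
    have hEc : ((X n \ P n).card : ℝ) = (X n).card - (P n).card := by
      rw [card_sdiff_of_subset (hPX n), Nat.cast_sub (card_le_card (hPX n))]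
    have hYX : ((Y n \ X n).card : ℝ) ≤ B.d n ^ γ0 * (Y n).card := by
      refine le_trans ?_ a10
      have h5 : Y n \ X n ⊆ (Y n).filter fun o => (o.1, o.2 / 2 ^ (m n - m0 n)) ∈
          extO (J n) (lev n 1) (m0 n) \ P0 n := by
        intro o ho
        rw [Finset.mem_sdiff] at ho
        refine mem_filter.2 ⟨ho.1, ?_⟩
        rw [Finset.mem_sdiff]
        refine ⟨anc_mem a5' hm0m.le ho.1, fun h6 => ho.2 (mem_filter.2 ⟨ho.1, h6⟩)⟩
      exact_mod_cast (card_le_card h5).trans (card_anc_le _ _ _)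
    have hYX' : ((Y n \ X n).card : ℝ) = (Y n).card - (X n).card := by
      rw [card_sdiff_of_subset (hXY n), Nat.cast_sub (card_le_card (hXY n))]
    have hIpos : (0:ℝ) < (I n).card := by exact_mod_cast card_pos.2 a19
    have hJpos : (0:ℝ) ≤ (Y n).card := Nat.cast_nonneg _
    have hg0 : B.d n ^ γ0 ≤ B.d n ^ e3 * B.d n ^ e3 := by
      rw [← dpow_add, d_exp, d_exp]
      refine Real.exp_le_exp.2 ?_
      have h5 := mul_le_mul_of_nonneg_right (show e3 + e3 ≤ γ0 by linarith) hL.le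
      linarith
    have hbigY : B.d n ^ e3 * B.d n ^ e3 * (Y n).card ≤ (X n \ P n).card := by
      have h5 : B.d n ^ e3 * (Y n).card < (Y n).card - (P n).card := by linarith
      have h6 : B.d n ^ γ0 * ((Y n).card : ℝ) ≤ B.d n ^ e3 * B.d n ^ e3 * (Y n).card :=
        mul_le_mul_of_nonneg_right hg0 hJpos
      have h7 : B.d n ^ e3 * B.d n ^ e3 * ((Y n).card : ℝ) ≤ 1 / 2 * (B.d n ^ e3 * (Y n).card) := by
        have h8 : (0:ℝ) ≤ B.d n ^ e3 * (Y n).card := by positivity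
        have h9 := mul_le_mul_of_nonneg_right hd3h h8
        linarith
      rw [hEc]
      linarith
    have hbig : B.d n ^ (3 * e3) * ((extO (I n) (lev n 1) (m n)).card : ℝ) ≤ (X n \ P n).card := by
      have e5 : B.d n ^ (3 * e3) = B.d n ^ e3 * B.d n ^ e3 * B.d n ^ e3 := by
        rw [← dpow_add, ← dpow_add]; congr 1; ring
      rw [hIc, e5]
      refine le_trans ?_ hbigY
      rw [hJc]
      have h6 : (0:ℝ) ≤ B.d n ^ e3 * B.d n ^ e3 * 2 ^ (m n - lev n 1) := by positivity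
      calc B.d n ^ e3 * B.d n ^ e3 * B.d n ^ e3 * (2 ^ (m n - lev n 1) * ((I n).card : ℝ))
          = B.d n ^ e3 * B.d n ^ e3 * 2 ^ (m n - lev n 1) * (B.d n ^ e3 * (I n).card) := by ring
        _ ≤ B.d n ^ e3 * B.d n ^ e3 * 2 ^ (m n - lev n 1) * (J n).card :=
            mul_le_mul_of_nonneg_left a13 h6
        _ = _ := by ring
    have hEne : (X n \ P n).Nonempty := by
      rw [← card_pos]
      have h5 : (0:ℝ) < (X n \ P n).card := by
        refine lt_of_lt_of_le ?_ hbig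
        rw [hIc]
        have := dpow_pos B n (3 * e3)
        positivity
      exact_mod_cast h5
    have hEY : X n \ P n ⊆ Y n := Finset.sdiff_subset.trans (hXY n)
    obtain ⟨A', c, b', w, ⟨E1, hE1, hA'⟩, f1, f2, f3, f4, f5, f6, f7, f8, f9, f10⟩ :=
      deep_fin2 G (Q := Q) (n := n) a1 a5' a7 a8 (a := B.d n ^ e3) (e0 := B.d n ^ (3 * e3))
        (τ := τ n) hd3 (dpow_pos B n _) (hτ0 n).le a9 (E := X n \ P n)
        (hEY.trans (extO_mono a12 _ _)) hEne hbig (φ := φ n) (b := b n)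
        (fun x hx => by
          obtain ⟨k1, k2, k3⟩ := hPc n x hx
          rw [k2.1]; exact k1)
        (fun x hx => by
          obtain ⟨k1, k2, k3⟩ := hPc n x hx
          refine ⟨k2.1, ?_⟩
          rw [k2.1]; exact k2.2)
        (fun x hx => (hPc n x hx).2.2) (fun J s hs => hv _ _ _ _ hs) (Sh := Sh n)
        (fun J s hs => sh _ _ _ _ hs)
    have hShp : (0:ℝ) < (Sh n).card := by
      obtain ⟨x, hx⟩ := hEne
      have := sh n (m n) _ _ (hPc n x hx).1.1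
      exact_mod_cast card_pos.2 ⟨_, this⟩
    have hm1' : (lev n 1 : ℝ) ≤ m n := by exact_mod_cast a5'
    have hMl : B.L n / 2 ≤ ((m n : ℝ) - lev n 0) * Real.log 2 := by
      have : ((lev n 1 : ℝ) - lev n 0) * Real.log 2 ≤ ((m n : ℝ) - lev n 0) * Real.log 2 :=
        mul_le_mul_of_nonneg_right (by linarith) hℓ.le
      linarith
    have hh' : (m0 n : ℝ) - lev n 0 ≤ (m n : ℝ) - m0 n := by
      have h5 : m0 n - lev n 0 + m0 n ≤ m n := by omega
      have h6 : m0 n + m0 n ≤ m n + lev n 0 := by omega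
      have h7 : (m0 n : ℝ) + m0 n ≤ m n + lev n 0 := by exact_mod_cast h6
      linarith
    have hMM : B.L n / 4 ≤ ((m n : ℝ) - m0 n) * Real.log 2 := by
      have h5 : ((m n : ℝ) - lev n 0) * Real.log 2 ≤ (2 * ((m n : ℝ) - m0 n)) * Real.log 2 :=
        mul_le_mul_of_nonneg_right (by linarith) hℓ.le
      linarith
    have hx8 : (4:ℝ) ≤ B.d n ^ (-(δ / 8)) := by
      rw [d_exp, ← Real.exp_log (by norm_num : (0:ℝ) < 4)]
      refine Real.exp_le_exp.2 ?_
      rw [div_le_iff₀ hδ] at hLc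
      linarith
    have hH := a16 (m0 n) (m n) a2 hm0m a3 a4 hMM A' f1 f3 f4 (by
        -- size
        have hA1 : (0:ℝ) < A'.card := by exact_mod_cast card_pos.2 f1
        have h5 : Real.log (A'.card : ℝ) ≤
            ((m n - lev n 1 : ℕ) : ℝ) * Real.log 2 + Real.log ((I n).card : ℝ) := by
          refine (Real.log_le_log hA1 f5).trans (le_of_eq ?_)
          rw [Real.log_mul (by positivity) hIpos.ne', Real.log_pow]
        have h6 : ((m n - lev n 1 : ℕ) : ℝ) ≤ (|C| + 1) * B.L n := by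
          rw [Nat.cast_sub a5']
          have h7 : C * B.L n ≤ |C| * B.L n := mul_le_mul_of_nonneg_right (le_abs_self C) hL.le
          linarith
        have h7 : ((m n - lev n 1 : ℕ) : ℝ) * Real.log 2 ≤ (|C| + 1) * B.L n := by
          have h9 : Real.log 2 ≤ 1 := by have := Real.log_two_lt_d9; linarith
          calc ((m n - lev n 1 : ℕ) : ℝ) * Real.log 2 ≤ ((m n - lev n 1 : ℕ) : ℝ) * 1 :=
                mul_le_mul_of_nonneg_left h9 (Nat.cast_nonneg _)
            _ ≤ _ := by linarith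
        have h8 : (|C| + 1) * B.L n ≤ B.d n ^ (-(δ / 8)) := by
          rw [d_exp]
          have h9 := Real.quadratic_le_exp_of_nonneg (x := δ / 8 * B.L n) (by positivity)
          have h10 : (|C| + 1) * B.L n ≤ (δ / 8 * B.L n) ^ 2 / 2 := by
            rw [div_le_iff₀ (by positivity)] at hLd
            have h11 := mul_le_mul_of_nonneg_right hLd hL.le
            have h12 : (δ / 8 * B.L n) ^ 2 / 2 = B.L n * δ ^ 2 * B.L n / 128 := by ring
            rw [h12]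
            linarith
          have h13 : 0 ≤ δ / 8 * B.L n := by positivity
          have h14 : -(-(δ / 8) * B.L n) = δ / 8 * B.L n := by ring
          rw [h14]
          linarith
        have h15 : B.d n ^ (-(δ / 8)) * B.d n ^ (-(δ / 8)) ≤ (2:ℝ) ^ (δ * ((m n : ℝ) - m0 n)) := by
          rw [d_exp, two_exp, ← Real.exp_add]
          refine Real.exp_le_exp.2 ?_
          have h16 := mul_le_mul_of_nonneg_left hMM hδ.le
          have h17 : -(-(δ / 8) * B.L n) + -(-(δ / 8) * B.L n) = δ * (B.L n / 4) := by ring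
          rw [h17]
          refine h16.trans (le_of_eq (by ring))
        refine le_trans ?_ h15
        have h18 : (0:ℝ) < B.d n ^ (-(δ / 8)) := dpow_pos B n _
        have h19 := mul_le_mul_of_nonneg_right hx8 h18.le
        linarith) (by
        -- own
        intro x hx
        have h5 := f6 x hx
        have h7 : B.d n ^ (5 * e3) / 4 ≤ B.d n ^ e3 * B.d n ^ (3 * e3) / (4 * (Sh n).card) := by
          rw [div_le_div_iff₀ (by norm_num) (by positivity)]
          have e5 : B.d n ^ (5 * e3) = B.d n ^ e3 * B.d n ^ (3 * e3) * B.d n ^ e3 := by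
            rw [← dpow_add, ← dpow_add]; congr 1; ring
          have e6 : B.d n ^ e3 * (Sh n).card ≤ 1 := by
            calc B.d n ^ e3 * (Sh n).card ≤ B.d n ^ e3 * B.d n ^ (-e3) :=
                  mul_le_mul_of_nonneg_left a15 hd3.le
              _ = 1 := by rw [← dpow_add]; simp
          have h9 : (0:ℝ) < B.d n ^ e3 * B.d n ^ (3 * e3) := by
            have := dpow_pos B n (3 * e3)
            positivity
          calc B.d n ^ (5 * e3) * (4 * ((Sh n).card : ℝ))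
              = B.d n ^ e3 * B.d n ^ (3 * e3) * 4 * (B.d n ^ e3 * (Sh n).card) := by rw [e5]; ring
            _ ≤ B.d n ^ e3 * B.d n ^ (3 * e3) * 4 * 1 :=
                mul_le_mul_of_nonneg_left e6 (by positivity)
            _ = _ := by ring
        have h6 : (2:ℝ) ^ (-(δ * ((m n : ℝ) - lev n 0))) ≤ B.d n ^ (5 * e3) / 4 := by
          rw [le_div_iff₀ (by norm_num), d_exp, two_exp]
          rw [show (4:ℝ) = Real.exp (Real.log 4) by rw [Real.exp_log (by norm_num)],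
            ← Real.exp_add]
          refine Real.exp_le_exp.2 ?_
          have h10 := mul_le_mul_of_nonneg_left hMl hδ.le
          have h11 : 5 * e3 * B.L n ≤ 5 * (δ / 20) * B.L n := by
            refine mul_le_mul_of_nonneg_right ?_ hL.le
            linarith
          rw [div_le_iff₀ hδ] at hLc
          have h12 : -(δ * ((m n : ℝ) - lev n 0)) * Real.log 2 =
              -(δ * (((m n : ℝ) - lev n 0) * Real.log 2)) := by ring
          rw [h12]
          have h13 := mul_pos hδ hL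
          linarith
        have e8 : (2:ℝ) ^ ((1 - δ) * ((m n : ℝ) - lev n 0)) =
            (2:ℝ) ^ (-(δ * ((m n : ℝ) - lev n 0))) * 2 ^ (m n - lev n 0) := by
          rw [← Real.rpow_natCast (2:ℝ) (m n - lev n 0), Nat.cast_sub (a1.trans a5'),
            ← Real.rpow_add (by norm_num)]
          congr 1; ring
        show (2:ℝ) ^ ((1 - δ) * ((m n : ℝ) - lev n 0)) ≤ _
        rw [e8]
        exact (mul_le_mul_of_nonneg_right (h6.trans h7) (by positivity)).trans h5) c b' w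
        (B.d n ^ (-(ε / 4)) * (A n * 2 ^ (g * ((m0 n : ℝ) - lev n 0)))) (τ n / 4) (by
        have h5 := dpow_pos B n (-(ε / 4))
        have h6 := Apos n
        have h7 : (0:ℝ) < 2 ^ (g * ((m0 n : ℝ) - lev n 0)) := Real.rpow_pos_of_pos (by norm_num) _
        positivity) (by have := hτ0 n; linarith) f7 f8 f9 (by
        -- up
        intro j s hs
        have h6 := a11 j s hs
        refine le_trans ?_ h6
        have h7 : (((alive A' (m0 n) j).filter fun t => G.mem n (m0 n) j s t).image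
            fun t => (t, j)) ⊆ (P0 n).filter fun o => o.2 = j ∧ G.mem n (m0 n) j s o.1 := by
          intro o ho
          obtain ⟨t, ht, rfl⟩ := mem_image.1 ho
          obtain ⟨ht1, ht2⟩ := mem_filter.1 ht
          rw [hA', mem_alive_inc hm0m.le] at ht1
          obtain ⟨o', ho', h8, h9⟩ := ht1
          have h10 := (Finset.mem_sdiff.1 (hE1 ho')).1
          have h11 := (mem_filter.1 h10).2
          rw [h8, h9] at h11
          exact mem_filter.2 ⟨h11, rfl, ht2⟩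
        have h8 : (((alive A' (m0 n) j).filter fun t => G.mem n (m0 n) j s t).image
            fun t => (t, j)).card = ((alive A' (m0 n) j).filter fun t => G.mem n (m0 n) j s t).card :=
          card_image_of_injective _ (fun x y hxy => (Prod.mk.inj hxy).1)
        have h9 := card_le_card h7
        rw [h8] at h9
        exact_mod_cast h9)
    -- contradiction
    have hA := Apos n
    have e6 : B.d n ^ (-ε) = B.d n ^ (-(ε / 4)) * B.d n ^ (-(3 * ε / 4)) := by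
      rw [← dpow_add]; congr 1; ring
    have e7 : B.d n ^ (-(g * ((0:ℚ):ℝ))) = 1 := by rw [q0, mul_zero, neg_zero, Real.rpow_zero]
    have hd1 := dpow_pos B n (-(ε / 4))
    have hd4 : 4 < B.d n ^ (-(3 * ε / 4)) := by
      rw [d_exp]
      rw [show (4:ℝ) = Real.exp (Real.log 4) by rw [Real.exp_log (by norm_num)]]
      refine Real.exp_lt_exp.2 ?_
      rw [div_le_iff₀ hε] at hLb
      have h4 : 0 < Real.log 4 := Real.log_pos (by norm_num)
      rw [Real.exp_log (by norm_num)]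
      linarith
    have h5 : (2:ℝ) ^ ((g + ε) * ((m n : ℝ) - lev n 0)) =
        2 ^ (g * ((m0 n : ℝ) - lev n 0)) * 2 ^ (g * ((m n : ℝ) - m0 n) + ε * ((m n : ℝ) - lev n 0)) := by
      rw [← Real.rpow_add (by norm_num)]; congr 1; ring
    have h6 : (2:ℝ) ^ ((g + η) * ((m n : ℝ) - m0 n)) ≤
        2 ^ (g * ((m n : ℝ) - m0 n) + ε * ((m n : ℝ) - lev n 0)) := by
      refine Real.rpow_le_rpow_of_exponent_le (by norm_num) ?_
      have h7 : (0:ℝ) ≤ (m0 n : ℝ) - lev n 0 := by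
        have : (lev n 0 : ℝ) ≤ m0 n := by exact_mod_cast a2.le
        linarith
      have h8 : (0:ℝ) ≤ (m n : ℝ) - m0 n := by
        have : (m0 n : ℝ) ≤ m n := by exact_mod_cast hm0m.le
        linarith
      have h9 : η * ((m n : ℝ) - m0 n) ≤ ε * ((m n : ℝ) - m0 n) :=
        mul_le_mul_of_nonneg_right (by rw [hη]; linarith) h8
      have h10 : 0 ≤ ε * ((m0 n : ℝ) - lev n 0) := by positivity
      linarith
    have h8 : τ n / 4 ≤ B.d n ^ (-(ε / 4)) * (A n * 2 ^ (g * ((m0 n : ℝ) - lev n 0))) *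
        2 ^ (g * ((m n : ℝ) - m0 n) + ε * ((m n : ℝ) - lev n 0)) :=
      hH.trans (mul_le_mul_of_nonneg_left h6 (by positivity))
    have h9 : τ n = B.d n ^ (-(3 * ε / 4)) * (B.d n ^ (-(ε / 4)) *
        (A n * 2 ^ (g * ((m0 n : ℝ) - lev n 0))) *
        2 ^ (g * ((m n : ℝ) - m0 n) + ε * ((m n : ℝ) - lev n 0))) := by
      simp only [hτ]
      rw [e6, e7, h5]; ring
    have h10 : (0:ℝ) < B.d n ^ (-(ε / 4)) * (A n * 2 ^ (g * ((m0 n : ℝ) - lev n 0))) *
        2 ^ (g * ((m n : ℝ) - m0 n) + ε * ((m n : ℝ) - lev n 0)) := by positivity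
    rw [h9] at h8
    have h11 := mul_lt_mul_of_pos_right hd4 h10
    linarith
  obtain ⟨n, hn⟩ := hfalse.exists
  exact hn

end

section

variable {Ln ι S : Type} [Fintype ι]

open Classical in
/-- **879's supremum bound with room gives `UBdK`.** -/
theorem ubdK_of_UBH (B : Base) {K : ℕ} {𝒯 : Set (TS Ln ι S)} {T : ℕ → TS Ln ι S}
    {Ψ : ℝ → (ι → ℝ) → ℝ} {mt : ℕ → ℕ} {atop : ℕ → ι → ℕ} {L : ℕ → ℕ → Ln} {N : ℕ → ℕ}
    {lo : ℕ → ℕ} {g : ℝ} {Q : ℕ → ℕ → Prop} (hT : ∀ n, T n ∈ 𝒯)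
    (hfin : ∀ n i J s, (T n).adm i J s → ∀ j, s.1 j ≤ N n)
    (hNd : ∀ ε : ℝ, 0 < ε → ∀ᶠ n in (U : Filter ℕ), (N n : ℝ) ≤ B.d n ^ (-ε))
    (hcap : ∀ n j, Q n j → ∀ i ≤ j, ∀ s a : ι → ℕ, capP (T n) Ψ (mt n) (atop n) i s ≤
      (2 : ℝ) ^ (-(Ψ ((mt n : ℝ) - j) (rel j a (mt n) (atop n)))) * capP (T n) Ψ j a i s)
    (hUB : Crest.Agent.R136.KF879.UBH K 𝒯 Ψ g) :
    UBdK B (geoP T Ψ mt atop L) (fun n j _ => Q n j) K lo g := by
  intro η hη
  obtain ⟨δ, hδ, M0, hub⟩ := hUB η hη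
  refine ⟨δ, hδ, ?_⟩
  have hℓ : (0:ℝ) < Real.log 2 := Real.log_pos one_lt_two
  filter_upwards [hNd (δ / 4) (by positivity), B.ev_L_ge (4 * (M0 * Real.log 2))] with n hn1 hn2
  intro j0 j hj0 hj hM hh hlen A hA hcell hone hlog hown c b w D0 D1 hD0 hD1 hcl hQ hlow hup
  obtain ⟨M, rfl⟩ : ∃ M : ℕ, j = j0 + M := ⟨j - j0, by omega⟩
  obtain ⟨h, rfl⟩ : ∃ h : ℕ, j0 = lo n + h := ⟨j0 - lo n, by omega⟩
  have hMr : ((lo n + h + M : ℕ) : ℝ) - ((lo n + h : ℕ) : ℝ) = M := by push_cast; ring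
  have hMr' : ((lo n + h + M : ℕ) : ℝ) - lo n = M + h := by push_cast; ring
  have hM1 : 1 ≤ M := by omega
  have hMK : M ≤ K * h := by
    have e1 : lo n + h + M - (lo n + h) = M := by omega
    have e2 : lo n + h - lo n = h := by omega
    rw [e1, e2] at hM
    exact hM
  have hhM : h ≤ M := by omega
  rw [hMr] at hlen hlog ⊢
  obtain ⟨x0, hx0⟩ := hA
  have hal0 : x0.1 ∈ alive A (lo n + h + M) (zc (lo n + h + M) x0.2) :=
    mem_alive.2 ⟨x0, hx0, rfl, rfl⟩
  have hwa : ∀ J : ℤ, ∀ t ∈ alive A (lo n + h + M) J,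
      (b (c t J)).1 = (b (c x0.1 (zc (lo n + h + M) x0.2))).1 := by
    intro J t ht
    have h1 := (hcl J t ht).2.2
    have h2 := (hcl _ _ hal0).2.2
    funext k
    have h3 : (1 / 2 : ℝ) ^ ((b (c t J)).1 k) =
        (1 / 2 : ℝ) ^ ((b (c x0.1 (zc (lo n + h + M) x0.2))).1 k) := by
      have h4 := congrFun (h1.trans h2.symm) k
      exact h4
    exact pow_right_injective₀ (by norm_num : (0:ℝ) < 1 / 2) (by norm_num) h3
  set a : ι → ℕ := (b (c x0.1 (zc (lo n + h + M) x0.2))).1 with ha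
  have hQj : Q n (lo n + h + M) := hQ _ _ hal0
  set P2 : ℝ := (2 : ℝ) ^ (-(Ψ ((mt n : ℝ) - (lo n + h + M : ℕ))
    (rel (lo n + h + M) a (mt n) (atop n)))) with hP2
  have hP2p : 0 < P2 := Real.rpow_pos_of_pos (by norm_num) _
  have hval : ∀ J : ℤ, ∀ t ∈ alive A (lo n + h + M) J,
      (geoP T Ψ mt atop L).val n (lo n + h + M) J (b (c t J)) = (T n).vol (lo n + h + M) a * P2 := by
    intro J t ht
    show capP (T n) Ψ (mt n) (atop n) (lo n + h + M) (b (c t J)).1 = _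
    rw [hwa J t ht, capP_val]
  have key := hub (T n) (hT n)
    { m := lo n + h, M := M, I := A, L := L n, f := c, b := b, a := a, D0 := D0 * P2,
      D1 := D1 * P2, nu := (2:ℝ) ^ ((1 - δ) * ((M : ℝ) + h)), N := N n } h
    { M1 := hM1
      h_le := Nat.le_add_left _ _
      ne := ⟨x0, hx0⟩
      cell := by
        show ∀ x ∈ A, ∀ y ∈ A, zc (lo n + h - h) x.2 = zc (lo n + h - h) y.2
        rw [Nat.add_sub_cancel]
        exact hcell
      D1p := mul_pos hD1 hP2p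
      nup := Real.rpow_pos_of_pos (by norm_num) _
      fin := hfin n
      top := by
        intro J t ht
        have h1 := hcl J t ht
        exact ⟨h1.1, h1.2.1, hwa J t ht⟩
      low := by
        intro J t ht
        show D1 * P2 * (T n).vol (lo n + h + M) a ≤
          (((alive A (lo n + h + M) J).filter _).card : ℝ)
        have h1 := hlow J t ht
        rw [valx_zero', hval J t ht] at h1
        refine le_trans (le_of_eq (by ring)) (h1.trans (le_of_eq ?_))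
        rfl
      own := by
        intro x hx
        show (2:ℝ) ^ ((1 - δ) * ((M : ℝ) + h)) ≤
          ((own A (lo n + h - h) (lo n + h + M) x).card : ℝ)
        rw [Nat.add_sub_cancel]
        have h1 := hown x hx
        rw [hMr'] at h1
        exact h1
      up := by
        intro J s hs
        show (((alive A (lo n + h) J).filter fun t => (T n).mem (lo n + h) J s (L n t)).card : ℝ) ≤
          D0 * P2 * capP (T n) Ψ (lo n + h + M) a (lo n + h) s.1
        have h1 := hup J s hs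
        refine h1.trans ?_
        have h2 := hcap n (lo n + h + M) hQj (lo n + h) hj.le s.1 a
        calc D0 * (geoP T Ψ mt atop L).val n (lo n + h) J s
            ≤ D0 * (P2 * capP (T n) Ψ (lo n + h + M) a (lo n + h) s.1) :=
              mul_le_mul_of_nonneg_left h2 hD0.le
          _ = _ := by ring }
    ?_ hMK hhM hlog ?_ le_rfl
  · have h1 : D1 * P2 ≤ (2 : ℝ) ^ ((g + η) * M) * (D0 * P2) := key
    have h2 : D1 * P2 ≤ (D0 * (2 : ℝ) ^ ((g + η) * M)) * P2 := by linarith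
    exact le_of_mul_le_mul_right h2 hP2p
  · show M0 ≤ M
    have h1 : (M0 : ℝ) * Real.log 2 ≤ M * Real.log 2 := by linarith
    exact_mod_cast le_of_mul_le_mul_right h1 hℓ
  · show (N n : ℝ) ≤ (2 : ℝ) ^ (δ * M)
    refine hn1.trans ?_
    rw [d_exp, two_exp]
    refine Real.exp_le_exp.2 ?_
    have h1 := mul_le_mul_of_nonneg_left hlen hδ.le
    have h2 : -(-(δ / 4) * B.L n) = δ * (B.L n / 4) := by ring
    rw [h2]
    refine h1.trans (le_of_eq (by ring))

open Classical in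
/-- **step of deep D-max in 794's class over `KF879.UBH K`.** -/
theorem deep_stepK (B : Base) {K : ℕ} {𝒯 : Set (TS Ln ι S)} {T : ℕ → TS Ln ι S}
    {Ψ : ℝ → (ι → ℝ) → ℝ} {mt : ℕ → ℕ} {atop : ℕ → ι → ℕ} {L : ℕ → ℕ → Ln} {N : ℕ → ℕ}
    {I : ℕ → Finset (ℕ × ℝ)} {lev : ℕ → ℚ → ℕ} {A : ℕ → ℝ} {g : ℝ}
    {Q : ℕ → ℕ → Prop} (Apos : ∀ n, 0 < A n) (g0 : 0 ≤ g)
    (ne : ∀ᶠ n in (U : Filter ℕ), (I n).Nonempty)
    (card : ∀ ε : ℝ, 0 < ε → ∀ᶠ n in (U : Filter ℕ), Real.log ((I n).card : ℝ) ≤ B.d n ^ (-ε))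
    (lev_mono : ∀ u v : ℚ, 0 ≤ u → u ≤ v → v ≤ 1 → ∀ᶠ n in (U : Filter ℕ), lev n u ≤ lev n v)
    (lev_lim : ∀ u v : ℚ, 0 ≤ u → u ≤ v → v ≤ 1 →
      Tendsto (fun n => ((lev n v : ℝ) - lev n u) * Real.log 2 / B.L n) U (𝓝 ((v : ℝ) - u)))
    (cell0 : ∀ᶠ n in (U : Filter ℕ), ∀ x ∈ I n, ∀ y ∈ I n, zc (lev n 0) x.2 = zc (lev n 0) y.2)
    (one : ∀ᶠ n in (U : Filter ℕ), ∀ x ∈ I n, ∀ y ∈ I n, x.1 = y.1 →
      zc (lev n 1) x.2 = zc (lev n 1) y.2 → x = y)
    (hown : ∀ ε : ℝ, 0 < ε → ∀ᶠ n in (U : Filter ℕ), ∀ x ∈ I n,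
      B.d n ^ ε * 2 ^ (lev n 1 - lev n 0) ≤ ((own (I n) (lev n 0) (lev n 1) x).card : ℝ))
    (alld : AllD B I (geoP T Ψ mt atop L) lev A g)
    (hT : ∀ n, T n ∈ 𝒯) (hfin : ∀ n i J s, (T n).adm i J s → ∀ j, s.1 j ≤ N n)
    (hNd : ∀ ε : ℝ, 0 < ε → ∀ᶠ n in (U : Filter ℕ), (N n : ℝ) ≤ B.d n ^ (-ε))
    (hcap : ∀ n j, Q n j → ∀ i ≤ j, ∀ s a : ι → ℕ, capP (T n) Ψ (mt n) (atop n) i s ≤
      (2 : ℝ) ^ (-(Ψ ((mt n : ℝ) - j) (rel j a (mt n) (atop n)))) * capP (T n) Ψ j a i s)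
    (hUB : Crest.Agent.R136.KF879.UBH K 𝒯 Ψ g)
    {m0 m : ℕ → ℕ} (hm1 : ∀ᶠ n in (U : Filter ℕ), lev n 1 < m n)
    (h01 : ∀ᶠ n in (U : Filter ℕ), lev n 0 < m0 n)
    (hM : ∀ᶠ n in (U : Filter ℕ), m n - m0 n ≤ K * (m0 n - lev n 0))
    (hh : ∀ᶠ n in (U : Filter ℕ), m0 n - lev n 0 ≤ m n - m0 n)
    (hC : ∃ C : ℝ, ∀ᶠ n in (U : Filter ℕ), (m n : ℝ) ≤ lev n 1 + C * B.L n)
    (hQ : ∀ᶠ n in (U : Filter ℕ), Q n (m n))
    {J : ℕ → Finset (ℕ × ℝ)} (hJ : Dense B J I)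
    (hD : ∀ ε : ℝ, 0 < ε → DBd B (geoP T Ψ mt atop L) lev A g 0 m0 J ε) :
    ∀ ε : ℝ, 0 < ε → DBd B (geoP T Ψ mt atop L) lev A g 0 m J ε := by
  classical
  intro ε hε
  obtain ⟨C, hC⟩ := hC
  have hℓ : (0:ℝ) < Real.log 2 := Real.log_pos one_lt_two
  have q0 : ((0:ℚ) : ℝ) = 0 := by norm_num
  have q1 : ((1:ℚ) : ℝ) = 1 := by norm_num
  have hv : ∀ n i J s, (geoP T Ψ mt atop L).adm n i J s → 0 ≤ (geoP T Ψ mt atop L).val n i J s := by
    intro n i J s _
    exact mul_nonneg ((T n).volpos _ _).le (Real.rpow_pos_of_pos (by norm_num) _).le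
  -- the finite grid of widths
  set Sh : ℕ → Finset (ι → ℝ) := fun n =>
    (Fintype.piFinset fun _ : ι => Finset.range (N n + 1)).image
      fun a : ι → ℕ => fun k => (1 / 2 : ℝ) ^ (a k) with hSh
  have hsh : ∀ n i J s, (geoP T Ψ mt atop L).adm n i J s → wv (geoP T Ψ mt atop L) s ∈ Sh n := by
    intro n i J s hs
    refine mem_image.2 ⟨s.1, ?_, rfl⟩
    rw [Fintype.mem_piFinset]
    intro k
    rw [mem_range]
    have := hfin n i J s hs k
    omega
  have hshc : ∀ ε : ℝ, 0 < ε → ∀ᶠ n in (U : Filter ℕ), ((Sh n).card : ℝ) ≤ B.d n ^ (-ε) := by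
    intro ε hε
    filter_upwards [Crest.Agent.R116.Xc4794.boxN_small (B := B) hNd (Fintype.card ι) hε] with n hn
    refine le_trans ?_ hn
    have h1 : (Sh n).card ≤ (N n + 1) ^ Fintype.card ι := by
      refine card_image_le.trans ?_
      rw [Fintype.card_piFinset]
      simp
    exact_mod_cast h1
  -- the loss of the hypothesis
  set e1 : ℝ := ε / (4 * (|C| + 4)) with he1
  have hCp : 0 ≤ |C| := abs_nonneg C
  have he10 : 0 < e1 := by positivity
  have he11 : e1 * (|C| + 4) ≤ ε / 4 := by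
    rw [he1]
    have : ε / (4 * (|C| + 4)) * (|C| + 4) = ε / 4 := by field_simp
    rw [this]
  have hl1 : ∀ᶠ n in (U : Filter ℕ), ((lev n 1 : ℝ) - lev n 0) * Real.log 2 / B.L n < 2 := by
    have h1 := lev_lim 0 1 le_rfl zero_le_one le_rfl
    refine h1.eventually (Iio_mem_nhds ?_)
    rw [q0, q1]; norm_num
  have hconv : ∀ᶠ n in (U : Filter ℕ),
      B.d n ^ (-e1) * (A n * B.d n ^ (-(g * ((0:ℚ):ℝ)))) * 2 ^ ((g + e1) * ((m0 n : ℝ) - lev n 0)) ≤
        B.d n ^ (-(ε / 4)) * (A n * 2 ^ (g * ((m0 n : ℝ) - lev n 0))) := by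
    filter_upwards [hC, hl1, h01, hh, lev_mono 0 1 le_rfl zero_le_one le_rfl, hm1] with
      n a1 a2 a3 a4 a5 a6
    have hL := B.L_pos n
    rw [div_lt_iff₀ hL] at a2
    have hA := Apos n
    have hm0 : (m0 n : ℝ) ≤ m n := by
      have : m0 n ≤ m n := by omega
      exact_mod_cast this
    have h1 : ((m0 n : ℝ) - lev n 0) * Real.log 2 ≤ (|C| + 2) * B.L n := by
      have h2 : C * B.L n ≤ |C| * B.L n := mul_le_mul_of_nonneg_right (le_abs_self C) hL.le
      have h3 : (m0 n : ℝ) - lev n 0 ≤ ((lev n 1 : ℝ) - lev n 0) + |C| * B.L n := by linarith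
      have h4 := mul_le_mul_of_nonneg_right h3 hℓ.le
      have h5 : |C| * B.L n * Real.log 2 ≤ |C| * B.L n * 1 := by
        refine mul_le_mul_of_nonneg_left ?_ (by positivity)
        have := Real.log_two_lt_d9; linarith
      linarith
    have e7 : B.d n ^ (-(g * ((0:ℚ):ℝ))) = 1 := by rw [q0, mul_zero, neg_zero, Real.rpow_zero]
    rw [e7, mul_one]
    have h6 : (2:ℝ) ^ ((g + e1) * ((m0 n : ℝ) - lev n 0)) =
        2 ^ (g * ((m0 n : ℝ) - lev n 0)) * Real.exp (e1 * (((m0 n : ℝ) - lev n 0) * Real.log 2)) := by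
      rw [add_mul, Real.rpow_add (by norm_num)]
      congr 1
      rw [two_exp]; congr 1; ring
    rw [h6]
    have h7 : B.d n ^ (-e1) * Real.exp (e1 * (((m0 n : ℝ) - lev n 0) * Real.log 2)) ≤
        B.d n ^ (-(ε / 4)) := by
      rw [d_exp, d_exp, ← Real.exp_add]
      refine Real.exp_le_exp.2 ?_
      have h8 := mul_le_mul_of_nonneg_left h1 he10.le
      have h9 := mul_le_mul_of_nonneg_right he11 hL.le
      have h10 : 0 ≤ e1 * B.L n := by positivity
      have h11 : -(-e1 * B.L n) = e1 * B.L n := by ring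
      have h12 : -(-(ε / 4) * B.L n) = ε / 4 * B.L n := by ring
      rw [h11, h12]
      linarith
    have h13 : (0:ℝ) < A n * 2 ^ (g * ((m0 n : ℝ) - lev n 0)) := by positivity
    calc B.d n ^ (-e1) * A n * (2 ^ (g * ((m0 n : ℝ) - lev n 0)) *
          Real.exp (e1 * (((m0 n : ℝ) - lev n 0) * Real.log 2)))
        = B.d n ^ (-e1) * Real.exp (e1 * (((m0 n : ℝ) - lev n 0) * Real.log 2)) *
          (A n * 2 ^ (g * ((m0 n : ℝ) - lev n 0))) := by ring
      _ ≤ _ := mul_le_mul_of_nonneg_right h7 h13.le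
  -- dichotomy for `m0`
  have hcore : ∃ (P0 : ℕ → Finset (ℕ × ℤ)) (γ0 : ℝ), 0 < γ0 ∧
      (∀ᶠ n in (U : Filter ℕ),
        ((2 ^ (m n - m0 n) * (extO (J n) (lev n 1) (m0 n) \ P0 n).card : ℕ) : ℝ) ≤
          B.d n ^ γ0 * (extO (J n) (lev n 1) (m n)).card) ∧
      (∀ᶠ n in (U : Filter ℕ), ∀ (j : ℤ) (s), (geoP T Ψ mt atop L).adm n (m0 n) j s →
        (((P0 n).filter fun o => o.2 = j ∧ (geoP T Ψ mt atop L).mem n (m0 n) j s o.1).card : ℝ) ≤
          B.d n ^ (-e1) * (A n * B.d n ^ (-(g * ((0:ℚ):ℝ)))) *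
            2 ^ ((g + e1) * ((m0 n : ℝ) - lev n 0)) * (geoP T Ψ mt atop L).val n (m0 n) j s) := by
    have hdich : (∀ᶠ n in (U : Filter ℕ), m0 n ≤ lev n 1) ∨
        ∀ᶠ n in (U : Filter ℕ), lev n 1 < m0 n := by
      rw [← Ultrafilter.eventually_or]
      exact Eventually.of_forall fun n => le_or_gt _ _
    rcases hdich with h1 | h1
    · refine ⟨fun n => extO (J n) (lev n 1) (m0 n), 1, one_pos, ?_, ?_⟩
      · refine Eventually.of_forall fun n => ?_
        rw [Finset.sdiff_self, card_empty, mul_zero, Nat.cast_zero]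
        have := dpow_pos B n 1
        positivity
      · exact deepP_shallow B Apos g0 lev_mono lev_lim alld hv le_rfl zero_le_one
          (h01.mono fun n hn => hn.le) h1 hJ he10
    · obtain ⟨P0, b1, ⟨γ, hγ, b2⟩, b3⟩ := hD e1 he10
      refine ⟨P0, γ, hγ, ?_, b3⟩
      filter_upwards [b2, h1, hm1, hh, h01] with n c1 c2 c3 c4 c5
      have hm0m : m0 n ≤ m n := by omega
      have e3 : ((extO (J n) (lev n 1) (m0 n) \ P0 n).card : ℝ) =
          (extO (J n) (lev n 1) (m0 n)).card - (P0 n).card := by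
        rw [card_sdiff_of_subset (b1 n), Nat.cast_sub (card_le_card (b1 n))]
      have e4 : ((extO (J n) (lev n 1) (m n)).card : ℝ) =
          2 ^ (m n - m0 n) * (extO (J n) (lev n 1) (m0 n)).card := by
        rw [card_extO c3.le, card_extO c2.le]
        push_cast
        rw [← mul_assoc, ← pow_add]
        congr 2; omega
      push_cast
      rw [e3, e4]
      have h2 : (0:ℝ) < 2 ^ (m n - m0 n) := by positivity
      calc (2:ℝ) ^ (m n - m0 n) * ((extO (J n) (lev n 1) (m0 n)).card - (P0 n).card)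
          ≤ 2 ^ (m n - m0 n) * (B.d n ^ γ * (extO (J n) (lev n 1) (m0 n)).card) :=
            mul_le_mul_of_nonneg_left (by linarith) h2.le
        _ = _ := by ring
  obtain ⟨P0, γ0, hγ0, hB0, hP0⟩ := hcore
  have hfin2 := deep_core B (K := K) (Q := fun n j _ => Q n j) (Sh := Sh) Apos g0 ne card lev_mono
    lev_lim cell0 one hown hv hsh hshc
    (ubdK_of_UBH B (lo := fun n => lev n 0) hT hfin hNd hcap hUB) hm1 h01 hM hh hC hJ hε hγ0 hB0
    (by
      filter_upwards [hP0, hconv] with n a1 a2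
      intro j s hs
      exact (a1 j s hs).trans (mul_le_mul_of_nonneg_right a2 (hv _ _ _ _ hs)))
  obtain ⟨P, k1, k2, k3⟩ := hfin2
  refine ⟨P, k1, k2, ?_⟩
  filter_upwards [k3, hQ] with n k4 k5
  intro j s hs
  exact k4 j s ⟨hs, k5⟩

end

end Crest.Agent.R136.Dia770
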