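import Crest.Agent.R136.Dg3_219

/-!
# R136: general decoupling, part (C) (helper219): ridge functions (Fréchet) and the representation
`g c = g 0 + Σ_k φ_k (c_k)` on the wall cone

* `frechet`  : if a sum of Lipschitz functions of pairwise independent linear forms on the plane is
  affine, then every summand is affine;
* `Room`, `phi`, `phi_eq`, `repr` : the group functions.
-/

set_option autoImplicit false
set_option linter.unusedSectionVars false
set_option linter.unusedVariables false

open Set Filter Topology Metric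

namespace Crest.Agent.R136.Dg219

/-! ### ridge functions -/

/-- linear form -/
def lf (n z : ℝ × ℝ) : ℝ := n.1 * z.1 + n.2 * z.2

/-- determinant of two directions -/
def det2 (n m : ℝ × ℝ) : ℝ := n.1 * m.2 - n.2 * m.1

theorem additive_lip {f : ℝ → ℝ} {K : ℝ} (hK : 0 ≤ K) (hf : ∀ a b, |f a - f b| ≤ K * |a - b|)
    (hadd : ∀ u s, f (u + s) - f u = f s - f 0) (u : ℝ) : f u = f 0 + (f 1 - f 0) * u := by
  have hcont : Continuous f := by
    have : LipschitzWith (Real.toNNReal K) f := by
      apply LipschitzWith.of_dist_le_mul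
      intro a b
      rw [Real.coe_toNNReal _ hK, Real.dist_eq, Real.dist_eq]
      exact hf a b
    exact this.continuous
  let F : ℝ →+ ℝ :=
    { toFun := fun s => f s - f 0
      map_zero' := by simp
      map_add' := fun x y => by
        have := hadd x y
        show f (x + y) - f 0 = (f x - f 0) + (f y - f 0)
        linarith }
  have hF : Continuous F := hcont.sub continuous_const
  have := map_real_smul F hF u (1:ℝ)
  have e1 : F (u • (1:ℝ)) = f u - f 0 := by
    show f (u • (1:ℝ)) - f 0 = f u - f 0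
    rw [smul_eq_mul, mul_one]
  have e2 : F (1:ℝ) = f 1 - f 0 := rfl
  rw [e1, e2, smul_eq_mul] at this
  linarith

variable {κ : Type*} [DecidableEq κ]

/-- **Fréchet**: Lipschitz ridge functions of pairwise different directions with affine sum are
affine. -/
theorem frechet (S : Finset κ) (n : κ → ℝ × ℝ) (hn : ∀ k ∈ S, n k ≠ 0)
    (hdet : ∀ k ∈ S, ∀ l ∈ S, k ≠ l → det2 (n k) (n l) ≠ 0) :
    ∀ (f : κ → ℝ → ℝ) (K : κ → ℝ) (A0 : ℝ) (A : ℝ × ℝ), (∀ k ∈ S, 0 ≤ K k) →
      (∀ k ∈ S, ∀ a b, |f k a - f k b| ≤ K k * |a - b|) →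
      (∀ z : ℝ × ℝ, ∑ k ∈ S, f k (lf (n k) z) = A0 + lf A z) →
      ∀ k ∈ S, ∀ u, f k u = f k 0 + (f k 1 - f k 0) * u := by
  induction S using Finset.induction_on with
  | empty => intro f K A0 A _ _ _ k hk; simp at hk
  | insert r S hr ih =>
    intro f K A0 A hK hf hsum
    have ih' := ih (fun k hk => hn k (Finset.mem_insert_of_mem hk))
      (fun k hk l hl => hdet k (Finset.mem_insert_of_mem hk) l (Finset.mem_insert_of_mem hl))
    -- all indices of `S`
    have hS : ∀ k ∈ S, ∀ u, f k u = f k 0 + (f k 1 - f k 0) * u := by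
      intro k hk
      have hkr : k ≠ r := fun h => hr (h ▸ hk)
      set v : ℝ × ℝ := (-(n r).2, (n r).1) with hv
      have hvr : lf (n r) v = 0 := by simp only [lf, hv]; ring
      have hvk : ∀ l, lf (n l) v = -det2 (n l) (n r) + 0 := by
        intro l; simp only [lf, hv, det2]; ring
      have hshift : ∀ t : ℝ, ∀ l ∈ S, ∀ u, f l (u + t * lf (n l) v) - f l u =
          f l (t * lf (n l) v) - f l 0 := by
        intro t
        set f' : κ → ℝ → ℝ := fun l u => f l (u + t * lf (n l) v) - f l u with hf'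
        have h1 : ∀ z : ℝ × ℝ, ∑ l ∈ S, f' l (lf (n l) z) = t * lf A v + lf 0 z := by
          intro z
          have s1 := hsum z
          have s2 := hsum (z + t • v)
          rw [Finset.sum_insert hr] at s1 s2
          have e0 : ∀ m : ℝ × ℝ, lf m (z + t • v) = lf m z + t * lf m v := by
            intro m
            simp only [lf, Prod.fst_add, Prod.snd_add, Prod.smul_fst, Prod.smul_snd, smul_eq_mul]
            ring
          simp only [e0] at s2
          rw [hvr, mul_zero, add_zero] at s2
          simp only [hf', Finset.sum_sub_distrib]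
          have e3 : lf 0 z = 0 := by simp [lf]
          rw [e3]
          linarith
        have h2 := ih' f' (fun l => 2 * K l) (t * lf A v) 0
          (fun l hl => by
            have := hK l (Finset.mem_insert_of_mem hl)
            linarith)
          (fun l hl a b => by
            have q1 := hf l (Finset.mem_insert_of_mem hl) (a + t * lf (n l) v) (b + t * lf (n l) v)
            have q2 := hf l (Finset.mem_insert_of_mem hl) a b
            rw [add_sub_add_right_eq_sub] at q1
            simp only [hf']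
            have q3 : f l (a + t * lf (n l) v) - f l a - (f l (b + t * lf (n l) v) - f l b) =
              (f l (a + t * lf (n l) v) - f l (b + t * lf (n l) v)) - (f l a - f l b) := by ring
            rw [q3]
            refine (abs_sub _ _).trans ?_
            linarith)
          h1
        intro l hl u
        have h3 := h2 l hl
        -- bounded, so the slope vanishes
        have hb : ∀ w, |f' l w| ≤ K l * |t * lf (n l) v| := by
          intro w
          have := hf l (Finset.mem_insert_of_mem hl) (w + t * lf (n l) v) w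
          rw [add_sub_cancel_left] at this
          exact this
        have hslope : f' l 1 - f' l 0 = 0 := by
          by_contra hne
          set B := K l * |t * lf (n l) v| with hB
          have hB0 : 0 ≤ B := (abs_nonneg _).trans (hb 0)
          have q1 := h3 ((2 * B + 1) / (f' l 1 - f' l 0))
          rw [mul_div_cancel₀ _ hne] at q1
          have q2 := (abs_le.1 (hb ((2 * B + 1) / (f' l 1 - f' l 0)))).2
          have q3 := (abs_le.1 (hb 0)).1
          linarith
        have h4 := h3 u
        rw [hslope, zero_mul, add_zero] at h4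
        simp only [hf', zero_add] at h4
        exact h4
      have hne : lf (n k) v ≠ 0 := by
        rw [hvk k, add_zero]
        exact neg_ne_zero.2 (hdet k (Finset.mem_insert_of_mem hk) r (Finset.mem_insert_self _ _) hkr)
      intro u
      refine additive_lip (hK k (Finset.mem_insert_of_mem hk)) (hf k (Finset.mem_insert_of_mem hk))
        ?_ u
      intro u s
      have := hshift (s / lf (n k) v) k hk u
      rwa [div_mul_cancel₀ _ hne] at this
    intro k hk
    rcases Finset.mem_insert.1 hk with rfl | hk'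
    · intro u
      -- a vector with `lf (n k) z0 = 1`
      have hn0 := hn k (Finset.mem_insert_self _ _)
      obtain ⟨z0, hz0⟩ : ∃ z0 : ℝ × ℝ, lf (n k) z0 = 1 := by
        by_cases h1 : (n k).1 = 0
        · have h2 : (n k).2 ≠ 0 := fun h2 => hn0 (Prod.ext h1 h2)
          exact ⟨(0, 1 / (n k).2), by simp only [lf]; field_simp; ring⟩
        · exact ⟨(1 / (n k).1, 0), by simp only [lf]; field_simp; ring⟩
      have key : ∀ u : ℝ, f k u = A0 + u * lf A z0 -
          ∑ l ∈ S, (f l 0 + (f l 1 - f l 0) * (u * lf (n l) z0)) := by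
        intro u
        have s1 := hsum (u • z0)
        rw [Finset.sum_insert hr] at s1
        have e0 : ∀ m : ℝ × ℝ, lf m (u • z0) = u * lf m z0 := by
          intro m
          simp only [lf, Prod.smul_fst, Prod.smul_snd, smul_eq_mul]; ring
        simp only [e0] at s1
        rw [hz0, mul_one] at s1
        have s2 : ∑ l ∈ S, f l (u * lf (n l) z0) =
            ∑ l ∈ S, (f l 0 + (f l 1 - f l 0) * (u * lf (n l) z0)) :=
          Finset.sum_congr rfl fun l hl => hS l hl _
        rw [s2] at s1
        linarith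
      have e : ∀ u : ℝ, ∑ l ∈ S, (f l 0 + (f l 1 - f l 0) * (u * lf (n l) z0)) =
          ∑ l ∈ S, f l 0 + u * ∑ l ∈ S, (f l 1 - f l 0) * lf (n l) z0 := by
        intro u
        rw [Finset.sum_add_distrib, Finset.mul_sum]
        congr 1
        exact Finset.sum_congr rfl fun l _ => by ring
      have k0 := key 0
      have k1 := key 1
      have ku := key u
      rw [e] at k0 k1 ku
      rw [ku, k0, k1]
      ring
    · exact hS k hk'

/-! ### the group functions -/

variable {ι : Type*} [Fintype ι] [DecidableEq ι]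

/-- projection to the coordinates of group `k` -/
def pr (grp : ι → κ) (k : κ) (c : ι → ℝ) : ι → ℝ := fun i => if grp i = k then c i else 0

section

variable {grp : ι → κ} {L : Set (ι → ℝ)} {g : (ι → ℝ) → ℝ} {ρ : κ → ι → ℝ}

theorem pr_add (k : κ) (c d : ι → ℝ) : pr grp k (c + d) = pr grp k c + pr grp k d := by
  funext i; by_cases h : grp i = k <;> simp [pr, h]

theorem pr_smul (k : κ) (s : ℝ) (c : ι → ℝ) : pr grp k (s • c) = s • pr grp k c := by
  funext i; by_cases h : grp i = k <;> simp [pr, h]

theorem pr_in (k : κ) (c : ι → ℝ) {i : ι} (h : grp i = k) : pr grp k c i = c i := by simp [pr, h]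

theorem pr_off (k : κ) (c : ι → ℝ) {i : ι} (h : grp i ≠ k) : pr grp k c i = 0 := by simp [pr, h]

/-- `L` is a convex cone -/
structure Cone (L : Set (ι → ℝ)) : Prop where
  zero : (0 : ι → ℝ) ∈ L
  add : ∀ c ∈ L, ∀ d ∈ L, c + d ∈ L
  smul : ∀ c ∈ L, ∀ t : ℝ, 0 ≤ t → t • c ∈ L

/-- room vectors: `ρ k` vanishes on group `k` and opens all the walls for the coordinates of
group `k` -/
structure Room (grp : ι → κ) (L : Set (ι → ℝ)) (ρ : κ → ι → ℝ) : Prop where
  off : ∀ k i, grp i = k → ρ k i = 0
  mem : ∀ k, ρ k ∈ L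
  ex : ∀ k, ∀ c ∈ L, ∃ R : ℝ, 0 ≤ R ∧ pr grp k c + R • ρ k ∈ L

theorem Room.mono (hL : Cone L) (hρ : Room grp L ρ) {k : κ} {y : ι → ℝ} {R R' : ℝ}
    (h : y + R • ρ k ∈ L) (hR : R ≤ R') : y + R' • ρ k ∈ L := by
  have : y + R' • ρ k = y + R • ρ k + (R' - R) • ρ k := by
    rw [add_assoc, ← add_smul]; congr 2; ring
  rw [this]
  exact hL.add _ h _ (hL.smul _ (hρ.mem k) _ (by linarith))

open Classical in
/-- the room needed for the group-`k`-part of `c` -/
noncomputable def rm (grp : ι → κ) (L : Set (ι → ℝ)) (ρ : κ → ι → ℝ) (k : κ) (c : ι → ℝ) : ℝ :=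
  if h : ∃ R : ℝ, 0 ≤ R ∧ pr grp k c + R • ρ k ∈ L then Classical.choose h else 0

/-- group function -/
noncomputable def phi (grp : ι → κ) (L : Set (ι → ℝ)) (g : (ι → ℝ) → ℝ) (ρ : κ → ι → ℝ) (k : κ)
    (c : ι → ℝ) : ℝ := g (pr grp k c + rm grp L ρ k c • ρ k) - g (rm grp L ρ k c • ρ k)

theorem rm_spec (hρ : Room grp L ρ) {k : κ} {c : ι → ℝ} (hc : c ∈ L) :
    0 ≤ rm grp L ρ k c ∧ pr grp k c + rm grp L ρ k c • ρ k ∈ L := by
  have h := hρ.ex k c hc
  rw [rm, dif_pos h]
  exact Classical.choose_spec h

theorem phi_eq' (hL : Cone L) (hρ : Room grp L ρ) (hg : Sep grp L g) {k : κ} {c : ι → ℝ}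
    {R R' : ℝ} (hR : 0 ≤ R) (hR' : 0 ≤ R') (h1 : pr grp k c + R • ρ k ∈ L)
    (h2 : pr grp k c + R' • ρ k ∈ L) :
    g (pr grp k c + R • ρ k) - g (R • ρ k) = g (pr grp k c + R' • ρ k) - g (R' • ρ k) := by
  have m1 : R • ρ k ∈ L := hL.smul _ (hρ.mem k) _ hR
  have m2 : R' • ρ k ∈ L := hL.smul _ (hρ.mem k) _ hR'
  have q1 : R • ρ k + (R' - R) • ρ k = R' • ρ k := by rw [← add_smul]; congr 1; ring
  have q2 : R • ρ k + pr grp k c = pr grp k c + R • ρ k := add_comm _ _
  have q3 : R • ρ k + pr grp k c + (R' - R) • ρ k = pr grp k c + R' • ρ k := by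
    rw [q2, add_assoc, q1]
  have := hg k (R • ρ k) (pr grp k c) ((R' - R) • ρ k) (fun l hl => pr_off k c hl)
    (fun l hl => by rw [Pi.smul_apply, hρ.off k l hl, smul_zero]) m1 (by rw [q2]; exact h1)
    (by rw [q1]; exact m2) (by rw [q3]; exact h2)
  rw [q3, q2, q1] at this
  linarith

/-- the group function does not depend on the room -/
theorem phi_eq (hL : Cone L) (hρ : Room grp L ρ) (hg : Sep grp L g) {k : κ} {c : ι → ℝ}
    (hc : c ∈ L) {R : ℝ} (hR : 0 ≤ R) (h1 : pr grp k c + R • ρ k ∈ L) :
    phi grp L g ρ k c = g (pr grp k c + R • ρ k) - g (R • ρ k) :=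
  phi_eq' hL hρ hg (rm_spec hρ hc).1 hR (rm_spec hρ hc).2 h1

theorem rm_congr {k : κ} {c c' : ι → ℝ} (h : pr grp k c = pr grp k c') :
    rm grp L ρ k c = rm grp L ρ k c' := by
  unfold rm; rw [h]

/-- the group function depends on the coordinates of the group only -/
theorem phi_congr {k : κ} {c c' : ι → ℝ} (h : pr grp k c = pr grp k c') :
    phi grp L g ρ k c = phi grp L g ρ k c' := by
  unfold phi; rw [rm_congr h, h]

theorem phi_zero (k : κ) {c : ι → ℝ} (h : ∀ i, grp i = k → c i = 0) : phi grp L g ρ k c = 0 := by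
  have : pr grp k c = 0 := by
    funext i
    by_cases hi : grp i = k
    · rw [pr_in k c hi, h i hi]; rfl
    · rw [pr_off k c hi]; rfl
  unfold phi
  rw [this, zero_add, sub_self]

/-- increments in a group direction are increments of the group function -/
theorem inc_eq (hL : Cone L) (hρ : Room grp L ρ) (hg : Sep grp L g) (k : κ) {c d : ι → ℝ}
    (hd : ∀ l, grp l ≠ k → d l = 0) (hc : c ∈ L) (hcd : c + d ∈ L) :
    g (c + d) - g c = phi grp L g ρ k (c + d) - phi grp L g ρ k c := by
  obtain ⟨R1, h10, h1⟩ := hρ.ex k c hc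
  obtain ⟨R2, h20, h2⟩ := hρ.ex k _ hcd
  set R := R1 + R2 with hR
  have hR0 : 0 ≤ R := by linarith
  have m1 : pr grp k c + R • ρ k ∈ L := hρ.mono hL h1 (by linarith)
  have m2 : pr grp k (c + d) + R • ρ k ∈ L := hρ.mono hL h2 (by linarith)
  rw [phi_eq hL hρ hg hcd hR0 m2, phi_eq hL hρ hg hc hR0 m1]
  have prd : pr grp k d = d := by
    funext i
    by_cases hi : grp i = k
    · exact pr_in k d hi
    · rw [pr_off k d hi, hd i hi]
  set e' : ι → ℝ := pr grp k c + R • ρ k - c with he'
  have q1 : c + e' = pr grp k c + R • ρ k := by rw [he']; abel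
  have q2 : c + d + e' = pr grp k (c + d) + R • ρ k := by
    rw [he', pr_add, prd]; abel
  have := hg k c d e' hd (fun l hl => by
    rw [he', Pi.sub_apply, Pi.add_apply, pr_in k c hl, Pi.smul_apply, hρ.off k l hl]; simp) hc hcd
    (by rw [q1]; exact m1) (by rw [q2]; exact m2)
  rw [q1, q2] at this
  linarith

/-- the groups which occur -/
noncomputable def gset (grp : ι → κ) : Finset κ := Finset.univ.image grp

theorem mem_gset (i : ι) : grp i ∈ gset grp := Finset.mem_image_of_mem _ (Finset.mem_univ _)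

/-- sum over the groups in a finite set -/
theorem sum_pr (S : Finset κ) (c : ι → ℝ) (i : ι) :
    (∑ k ∈ S, pr grp k c) i = if grp i ∈ S then c i else 0 := by
  rw [Finset.sum_apply]
  by_cases h : grp i ∈ S
  · rw [if_pos h, Finset.sum_eq_single (grp i)]
    · exact pr_in _ c rfl
    · intro k _ hk; exact pr_off k c (fun h => hk h.symm)
    · intro h'; exact absurd h h'
  · rw [if_neg h]
    apply Finset.sum_eq_zero
    intro k hk
    exact pr_off k c (fun h' => h (h' ▸ hk))

/-- small step: the increment is the sum of the increments of the groups -/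
theorem step_sum (hL : Cone L) (hρ : Room grp L ρ) (hg : Sep grp L g) {c0 : ι → ℝ} {r : ℝ}
    (hr : 0 ≤ r) (hD : closedBall c0 r ⊆ L) {d : ι → ℝ} (hd : ‖d‖ ≤ r) (S : Finset κ) :
    g (c0 + ∑ k ∈ S, pr grp k d) - g c0 =
      ∑ k ∈ S, (phi grp L g ρ k (c0 + d) - phi grp L g ρ k c0) := by
  have mem : ∀ S : Finset κ, c0 + ∑ k ∈ S, pr grp k d ∈ L := by
    intro S
    apply hD
    rw [mem_ball_pi hr]
    intro i
    rw [Pi.add_apply, sum_pr, add_sub_cancel_left]
    by_cases h : grp i ∈ S
    · rw [if_pos h]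
      exact (by rw [← Real.norm_eq_abs]; exact norm_le_pi_norm d i : |d i| ≤ ‖d‖).trans hd
    · rw [if_neg h, abs_zero]; exact hr
  have m0 : c0 ∈ L := hD (mem_closedBall_self hr)
  have m1 : c0 + d ∈ L := by
    apply hD
    rw [mem_closedBall, dist_eq_norm, add_sub_cancel_left]; exact hd
  induction S using Finset.induction_on with
  | empty => simp
  | insert a S ha ih =>
    rw [Finset.sum_insert ha, Finset.sum_insert ha]
    have h1 := inc_eq hL hρ hg a (c := c0 + ∑ k ∈ S, pr grp k d) (d := pr grp a d)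
      (fun l hl => pr_off a d hl) (mem S) (by
        have := mem (insert a S)
        rw [Finset.sum_insert ha] at this
        rw [add_assoc, add_comm (∑ k ∈ S, pr grp k d)]; exact this)
    have e1 : c0 + (pr grp a d + ∑ k ∈ S, pr grp k d) = c0 + ∑ k ∈ S, pr grp k d + pr grp a d := by
      abel
    have c1 : phi grp L g ρ a (c0 + ∑ k ∈ S, pr grp k d + pr grp a d) =
        phi grp L g ρ a (c0 + d) := by
      apply phi_congr
      funext i
      by_cases hi : grp i = a
      · rw [pr_in a _ hi, pr_in a _ hi, Pi.add_apply, Pi.add_apply, Pi.add_apply, sum_pr,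
          if_neg (by rw [hi]; exact ha), pr_in a d hi, add_zero]
      · rw [pr_off a _ hi, pr_off a _ hi]
    have c2 : phi grp L g ρ a (c0 + ∑ k ∈ S, pr grp k d) = phi grp L g ρ a c0 := by
      apply phi_congr
      funext i
      by_cases hi : grp i = a
      · rw [pr_in a _ hi, pr_in a _ hi, Pi.add_apply, sum_pr, if_neg (by rw [hi]; exact ha),
          add_zero]
      · rw [pr_off a _ hi, pr_off a _ hi]
    rw [c1, c2] at h1
    rw [e1]
    linarith

theorem sum_all (d : ι → ℝ) : ∑ k ∈ gset grp, pr grp k d = d := by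
  funext i
  rw [sum_pr, if_pos (mem_gset i)]

/-- **representation on the open part** -/
theorem repr_open (hL : Cone L) (hρ : Room grp L ρ) (hg : Sep grp L g) {D : Set (ι → ℝ)}
    (hD : IsOpen D) (hDL : D ⊆ L) {c d : ι → ℝ} (hseg : ∀ t ∈ Icc (0:ℝ) 1, c + t • d ∈ D) :
    g (c + d) - g c = ∑ k ∈ gset grp, (phi grp L g ρ k (c + d) - phi grp L g ρ k c) := by
  set P : ℝ → (ι → ℝ) := fun t => c + t • d with hP
  have cP : Continuous P := by rw [hP]; fun_prop
  have hK : IsCompact (P '' Icc (0:ℝ) 1) := isCompact_Icc.image cP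
  obtain ⟨r, hr, hrD⟩ := hK.exists_cthickening_subset_open hD (by
    rintro _ ⟨x, hx, rfl⟩; exact hseg x hx)
  obtain ⟨N, hN⟩ := exists_nat_gt (‖d‖ / r)
  have hN0 : (0:ℝ) < N := lt_of_le_of_lt (by positivity) hN
  have hsmall : ‖d‖ ≤ r * N := by
    rw [div_lt_iff₀ hr] at hN; linarith
  have hcell : ∀ a < N, g (P (((a + 1 : ℕ):ℝ) / N)) - g (P ((a:ℝ) / N)) =
      ∑ k ∈ gset grp, (phi grp L g ρ k (P (((a + 1 : ℕ):ℝ) / N)) -
        phi grp L g ρ k (P ((a:ℝ) / N))) := by
    intro a ha
    have haN : (a:ℝ) / N ∈ Icc (0:ℝ) 1 := by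
      constructor
      · positivity
      · rw [div_le_one hN0]; exact_mod_cast ha.le
    have hball : closedBall (P ((a:ℝ) / N)) r ⊆ L :=
      ((closedBall_subset_cthickening (mem_image_of_mem P haN) r).trans hrD).trans hDL
    have nd : ‖(1 / (N:ℝ)) • d‖ ≤ r := by
      rw [norm_smul, Real.norm_eq_abs, abs_of_pos (by positivity), one_div, inv_mul_le_iff₀ hN0]
      linarith
    have key := step_sum hL hρ hg hr.le hball nd (gset grp)
    rw [sum_all] at key
    have q1 : P (((a + 1 : ℕ):ℝ) / N) = P ((a:ℝ) / N) + (1 / (N:ℝ)) • d := by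
      rw [hP]; funext l
      simp only [Pi.add_apply, Pi.smul_apply, smul_eq_mul]; push_cast; ring
    rw [q1]
    exact key
  have hall : ∀ a ≤ N, g (P ((a:ℝ) / N)) - g (P 0) =
      ∑ k ∈ gset grp, (phi grp L g ρ k (P ((a:ℝ) / N)) - phi grp L g ρ k (P 0)) := by
    intro a
    induction a with
    | zero => intro _; simp
    | succ a ih =>
      intro ha
      have h1 := ih (by omega)
      have h2 := hcell a (by omega)
      have h3 : ∑ k ∈ gset grp, (phi grp L g ρ k (P (((a + 1 : ℕ):ℝ) / N)) - phi grp L g ρ k (P 0)) =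
          ∑ k ∈ gset grp, (phi grp L g ρ k (P (((a + 1 : ℕ):ℝ) / N)) -
            phi grp L g ρ k (P ((a:ℝ) / N))) +
          ∑ k ∈ gset grp, (phi grp L g ρ k (P ((a:ℝ) / N)) - phi grp L g ρ k (P 0)) := by
        rw [← Finset.sum_add_distrib]
        exact Finset.sum_congr rfl fun k _ => by ring
      rw [h3, ← h1, ← h2]
      ring
  have := hall N le_rfl
  rw [div_self hN0.ne'] at this
  simpa [hP] using this

end

end Crest.Agent.R136.Dg219
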