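import Crest.Agent.R136.Dg4_219

/-!
# R136: general decoupling, part (C) continued (helper219): representation on the closed wall cone,
properties of the group functions, linear rates

* `Geo`    : geometry of the wall cone `L` with open part `D`
* `repr`   : `g c - g 0 = Σ_k φ_k c` on `L`
* `phi_mono`, `phi_sup` : monotonicity, Lipschitz bound, supermodularity of the group functions
* `rates`  : linear rates along the natural direction of every group
-/

set_option autoImplicit false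
set_option linter.unusedSectionVars false
set_option linter.unusedVariables false

open Set Filter Topology Metric

namespace Crest.Agent.R136.Dg219

variable {ι κ : Type*} [Fintype ι] [DecidableEq ι] [DecidableEq κ]

/-- geometry of the wall cone: `L` closed wall cone, `D` its open part, `ρ k` = room for group `k`,
`ρs` points inside -/
structure Geo (grp : ι → κ) (D L : Set (ι → ℝ)) (ρ : κ → ι → ℝ) (ρs : ι → ℝ) : Prop where
  cone : Cone L
  room : Room grp L ρ
  opn : IsOpen D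
  conv : Convex ℝ D
  sub : D ⊆ L
  inn : ∀ c ∈ L, ∀ ε : ℝ, 0 < ε → c + ε • ρs ∈ D

section

variable {grp : ι → κ} {D L : Set (ι → ℝ)} {g : (ι → ℝ) → ℝ} {ρ : κ → ι → ℝ} {ρs : ι → ℝ}

theorem Geo.rs (hG : Geo grp D L ρ ρs) : ρs ∈ L := by
  apply hG.sub
  have := hG.inn 0 hG.cone.zero 1 one_pos
  simpa using this

theorem phi_lim (hG : Geo grp D L ρ ρs) (hg : Sep grp L g) (gc : Continuous g) (k : κ)
    {c : ι → ℝ} (hc : c ∈ L) :
    Tendsto (fun ε : ℝ => phi grp L g ρ k (c + ε • ρs)) (𝓝[>] 0) (𝓝 (phi grp L g ρ k c)) := by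
  obtain ⟨R1, h10, h1⟩ := hG.room.ex k c hc
  obtain ⟨R2, h20, h2⟩ := hG.room.ex k ρs hG.rs
  set R := R1 + R2 with hR
  have hR0 : 0 ≤ R := by linarith
  have m1 : pr grp k c + R • ρ k ∈ L := hG.room.mono hG.cone h1 (by linarith)
  have m2 : ∀ ε : ℝ, 0 < ε → ε ≤ 1 → pr grp k (c + ε • ρs) + R • ρ k ∈ L := by
    intro ε h0 h1'
    have h3 : pr grp k (c + ε • ρs) + (R1 + ε * R2) • ρ k ∈ L := by
      have e : pr grp k (c + ε • ρs) + (R1 + ε * R2) • ρ k =
          (pr grp k c + R1 • ρ k) + ε • (pr grp k ρs + R2 • ρ k) := by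
        rw [pr_add, pr_smul, add_smul, mul_smul, smul_add]; abel
      rw [e]; exact hG.cone.add _ h1 _ (hG.cone.smul _ h2 _ h0.le)
    exact hG.room.mono hG.cone h3 (by nlinarith)
  rw [phi_eq hG.cone hG.room hg hc hR0 m1]
  have h6 : Tendsto (fun ε : ℝ => g ((pr grp k c + ε • pr grp k ρs) + R • ρ k) - g (R • ρ k))
      (𝓝[>] 0) (𝓝 (g (pr grp k c + R • ρ k) - g (R • ρ k))) := by
    have h5 : Continuous fun ε : ℝ =>
        g ((pr grp k c + ε • pr grp k ρs) + R • ρ k) - g (R • ρ k) :=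
      (gc.comp (by fun_prop)).sub continuous_const
    have := h5.tendsto 0
    simp only [zero_smul, add_zero] at this
    exact this.mono_left nhdsWithin_le_nhds
  refine h6.congr' ?_
  filter_upwards [Ioo_mem_nhdsGT one_pos] with ε hε
  rw [phi_eq hG.cone hG.room hg (hG.cone.add _ hc _ (hG.cone.smul _ hG.rs _ hε.1.le)) hR0
    (m2 ε hε.1 hε.2.le), pr_add, pr_smul]

/-- **representation** -/
theorem repr (hG : Geo grp D L ρ ρs) (hg : Sep grp L g) (gc : Continuous g)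
    {c : ι → ℝ} (hc : c ∈ L) : g c - g 0 = ∑ k ∈ gset grp, phi grp L g ρ k c := by
  have key : ∀ ε : ℝ, 0 < ε → g (0 + ε • ρs + c) - g (0 + ε • ρs) = ∑ k ∈ gset grp,
      (phi grp L g ρ k (c + ε • ρs) - phi grp L g ρ k (0 + ε • ρs)) := by
    intro ε hε
    have h1 := repr_open hG.cone hG.room hg hG.opn hG.sub (c := 0 + ε • ρs) (d := c) (by
      intro t ht
      have := hG.inn (t • c) (hG.cone.smul _ hc _ ht.1) ε hε
      rwa [zero_add, add_comm])
    rw [h1]
    refine Finset.sum_congr rfl fun k _ => ?_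
    rw [zero_add, add_comm c]
  have l1 : Tendsto (fun ε : ℝ => g (0 + ε • ρs + c) - g (0 + ε • ρs)) (𝓝[>] 0)
      (𝓝 (g c - g 0)) := by
    have h5 : Continuous fun ε : ℝ => g (0 + ε • ρs + c) - g (0 + ε • ρs) :=
      (gc.comp (by fun_prop)).sub (gc.comp (by fun_prop))
    have := h5.tendsto 0
    simp only [zero_smul, add_zero, zero_add] at this
    simp only [zero_add]
    exact this.mono_left nhdsWithin_le_nhds
  have l2 : Tendsto (fun ε : ℝ => ∑ k ∈ gset grp, (phi grp L g ρ k (c + ε • ρs) -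
      phi grp L g ρ k (0 + ε • ρs))) (𝓝[>] 0)
      (𝓝 (∑ k ∈ gset grp, (phi grp L g ρ k c - phi grp L g ρ k 0))) :=
    tendsto_finsetSum _ fun k _ => (phi_lim hG hg gc k hc).sub (phi_lim hG hg gc k hG.cone.zero)
  have h3 := tendsto_nhds_unique (l1.congr' (by
    filter_upwards [self_mem_nhdsWithin] with ε hε
    exact key ε hε)) l2
  rw [h3]
  refine Finset.sum_congr rfl fun k _ => ?_
  rw [phi_zero k (c := 0) (fun i _ => rfl), sub_zero]

theorem sum_pr_sub (k : κ) (c c' : ι → ℝ) (R : ℝ) (r : ι → ℝ) :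
    ∑ i, ((pr grp k c' + R • r) i - (pr grp k c + R • r) i) =
      ∑ i ∈ Finset.univ.filter (fun i => grp i = k), (c' i - c i) := by
  rw [Finset.sum_filter]
  refine Finset.sum_congr rfl fun i _ => ?_
  by_cases hi : grp i = k
  · simp [pr, hi]
  · simp [pr, hi]

/-- monotonicity and Lipschitz bound of the group functions -/
theorem phi_mono (hG : Geo grp D L ρ ρs) (hg : Sep grp L g)
    (hm : ∀ c ∈ L, ∀ c' ∈ L, c ≤ c' → 0 ≤ g c - g c' ∧ g c - g c' ≤ ∑ i, (c' i - c i))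
    (k : κ) {c c' : ι → ℝ} (hc : c ∈ L) (hc' : c' ∈ L) (hcc : ∀ i, grp i = k → c i ≤ c' i) :
    0 ≤ phi grp L g ρ k c - phi grp L g ρ k c' ∧ phi grp L g ρ k c - phi grp L g ρ k c' ≤
      ∑ i ∈ Finset.univ.filter (fun i => grp i = k), (c' i - c i) := by
  obtain ⟨R1, h10, h1⟩ := hG.room.ex k c hc
  obtain ⟨R2, h20, h2⟩ := hG.room.ex k c' hc'
  set R := R1 + R2 with hR
  have hR0 : 0 ≤ R := by linarith
  have m1 : pr grp k c + R • ρ k ∈ L := hG.room.mono hG.cone h1 (by linarith)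
  have m2 : pr grp k c' + R • ρ k ∈ L := hG.room.mono hG.cone h2 (by linarith)
  rw [phi_eq hG.cone hG.room hg hc hR0 m1, phi_eq hG.cone hG.room hg hc' hR0 m2]
  have h3 := hm _ m1 _ m2 (by
    intro i
    rw [Pi.add_apply, Pi.add_apply]
    by_cases hi : grp i = k
    · rw [pr_in k c hi, pr_in k c' hi]; linarith [hcc i hi]
    · rw [pr_off k c hi, pr_off k c' hi])
  rw [sum_pr_sub] at h3
  constructor
  · linarith [h3.1]
  · linarith [h3.2]

/-- supermodularity of the group functions -/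
theorem phi_sup (hG : Geo grp D L ρ ρs) (hg : Sep grp L g)
    (hs : ∀ p ∈ L, ∀ q ∈ L, p ⊓ q ∈ L → p ⊔ q ∈ L → g p + g q ≤ g (p ⊔ q) + g (p ⊓ q))
    (k : κ) {p q : ι → ℝ} (hp : p ∈ L) (hq : q ∈ L) (h1 : p ⊓ q ∈ L) (h2 : p ⊔ q ∈ L) :
    phi grp L g ρ k p + phi grp L g ρ k q ≤
      phi grp L g ρ k (p ⊔ q) + phi grp L g ρ k (p ⊓ q) := by
  obtain ⟨R1, r1, s1⟩ := hG.room.ex k p hp
  obtain ⟨R2, r2, s2⟩ := hG.room.ex k q hq
  obtain ⟨R3, r3, s3⟩ := hG.room.ex k _ h1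
  obtain ⟨R4, r4, s4⟩ := hG.room.ex k _ h2
  set R := R1 + R2 + R3 + R4 with hR
  have hR0 : 0 ≤ R := by linarith
  have m1 : pr grp k p + R • ρ k ∈ L := hG.room.mono hG.cone s1 (by linarith)
  have m2 : pr grp k q + R • ρ k ∈ L := hG.room.mono hG.cone s2 (by linarith)
  have m3 : pr grp k (p ⊓ q) + R • ρ k ∈ L := hG.room.mono hG.cone s3 (by linarith)
  have m4 : pr grp k (p ⊔ q) + R • ρ k ∈ L := hG.room.mono hG.cone s4 (by linarith)
  rw [phi_eq hG.cone hG.room hg hp hR0 m1, phi_eq hG.cone hG.room hg hq hR0 m2,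
    phi_eq hG.cone hG.room hg h1 hR0 m3, phi_eq hG.cone hG.room hg h2 hR0 m4]
  have e1 : (pr grp k p + R • ρ k) ⊓ (pr grp k q + R • ρ k) = pr grp k (p ⊓ q) + R • ρ k := by
    funext i
    simp only [Pi.inf_apply, Pi.add_apply]
    by_cases hi : grp i = k
    · rw [pr_in k _ hi, pr_in k _ hi, pr_in k _ hi, Pi.inf_apply]
      exact (inf_add _ _ _).symm
    · rw [pr_off k _ hi, pr_off k _ hi, pr_off k _ hi, inf_idem]
  have e2 : (pr grp k p + R • ρ k) ⊔ (pr grp k q + R • ρ k) = pr grp k (p ⊔ q) + R • ρ k := by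
    funext i
    simp only [Pi.sup_apply, Pi.add_apply]
    by_cases hi : grp i = k
    · rw [pr_in k _ hi, pr_in k _ hi, pr_in k _ hi, Pi.sup_apply]
      exact (sup_add _ _ _).symm
    · rw [pr_off k _ hi, pr_off k _ hi, pr_off k _ hi, sup_idem]
  have h3 := hs _ m1 _ m2 (by rw [e1]; exact m3) (by rw [e2]; exact m4)
  rw [e1, e2] at h3
  linarith

/-! ### linear rates -/

/-- natural direction -/
def Tn (a b : ι → ℝ) (z : ℝ × ℝ) : ι → ℝ := fun i => a i * z.1 + b i * z.2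

/-- the slopes: `(a i, b i) = dh i * n (grp i)`, directions of different groups independent -/
structure Dir (grp : ι → κ) (a b : ι → ℝ) (n : κ → ℝ × ℝ) (dh : ι → ℝ) : Prop where
  pos : ∀ i, 0 < dh i
  fst : ∀ i, a i = dh i * (n (grp i)).1
  snd : ∀ i, b i = dh i * (n (grp i)).2
  ne : ∀ i, n (grp i) ≠ 0
  det : ∀ i j, grp i ≠ grp j → det2 (n (grp i)) (n (grp j)) ≠ 0

/-- output of the splitting at one point -/
structure Out (grp : ι → κ) (L : Set (ι → ℝ)) (dh : ι → ℝ) (n : κ → ℝ × ℝ) (lam : (ι → ℝ) → ℝ)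
    (A : ℝ × ℝ) (φ : κ → (ι → ℝ) → ℝ) (r : κ → ℝ) : Prop where
  sum : ∀ c ∈ L, lam c = ∑ k ∈ gset grp, φ k c
  loc : ∀ k c c', (∀ i, grp i = k → c i = c' i) → φ k c = φ k c'
  zero : ∀ k c, (∀ i, grp i = k → c i = 0) → φ k c = 0
  mono : ∀ k, ∀ c ∈ L, ∀ c' ∈ L, (∀ i, grp i = k → c i ≤ c' i) → 0 ≤ φ k c - φ k c' ∧
    φ k c - φ k c' ≤ ∑ i ∈ Finset.univ.filter (fun i => grp i = k), (c' i - c i)
  smod : ∀ k, ∀ p ∈ L, ∀ q ∈ L, p ⊓ q ∈ L → p ⊔ q ∈ L →
    φ k p + φ k q ≤ φ k (p ⊔ q) + φ k (p ⊓ q)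
  rate : ∀ k, ∀ c ∈ L, ∀ u : ℝ, (∀ i, grp i = k → c i = u * dh i) → φ k c = -(r k * u)
  r_nonneg : ∀ k, 0 ≤ r k
  r_le : ∀ k, r k ≤ ∑ i ∈ Finset.univ.filter (fun i => grp i = k), dh i
  total : ∀ z : ℝ × ℝ, lf A z = -∑ k ∈ gset grp, r k * lf (n k) z

theorem Dir.Tn_eq {a b : ι → ℝ} {n : κ → ℝ × ℝ} {dh : ι → ℝ} (h : Dir grp a b n dh) (z : ℝ × ℝ)
    (i : ι) : Tn a b z i = lf (n (grp i)) z * dh i := by
  simp only [Tn, lf]; rw [h.fst i, h.snd i]; ring

/-- a point of the plane with given value of the form of a group -/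
noncomputable def zz (n : ℝ × ℝ) (u : ℝ) : ℝ × ℝ :=
  (u * n.1 / (n.1 ^ 2 + n.2 ^ 2), u * n.2 / (n.1 ^ 2 + n.2 ^ 2))

theorem lf_zz {n : ℝ × ℝ} (hn : n ≠ 0) (u : ℝ) : lf n (zz n u) = u := by
  have h : n.1 ^ 2 + n.2 ^ 2 ≠ 0 := by
    intro h
    apply hn
    have h1 : n.1 = 0 := by nlinarith [sq_nonneg n.1, sq_nonneg n.2]
    have h2 : n.2 = 0 := by nlinarith [sq_nonneg n.1, sq_nonneg n.2]
    exact Prod.ext h1 h2
  simp only [lf, zz]
  field_simp

/-- **splitting with linear rates** -/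
theorem rates (hG : Geo grp D L ρ ρs) (hg : Sep grp L g) (gc : Continuous g) (g0 : g 0 = 0)
    (hm : ∀ c ∈ L, ∀ c' ∈ L, c ≤ c' → 0 ≤ g c - g c' ∧ g c - g c' ≤ ∑ i, (c' i - c i))
    (hs : ∀ p ∈ L, ∀ q ∈ L, p ⊓ q ∈ L → p ⊔ q ∈ L → g p + g q ≤ g (p ⊔ q) + g (p ⊓ q))
    {a b : ι → ℝ} {n : κ → ℝ × ℝ} {dh : ι → ℝ} (hd : Dir grp a b n dh)
    (hT : ∀ z, Tn a b z ∈ L) {A : ℝ × ℝ} (hA : ∀ z, g (Tn a b z) = lf A z) :
    ∃ r : κ → ℝ, Out grp L dh n g A (phi grp L g ρ) r := by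
  set S := gset grp with hS
  have hmem : ∀ k ∈ S, ∃ i, grp i = k := by
    intro k hk
    obtain ⟨i, -, hi⟩ := Finset.mem_image.1 hk
    exact ⟨i, hi⟩
  set dK : κ → ℝ := fun k => ∑ i ∈ Finset.univ.filter (fun i => grp i = k), dh i with hdK
  have hdK0 : ∀ k, 0 ≤ dK k := fun k => Finset.sum_nonneg fun i _ => (hd.pos i).le
  -- the function of one variable
  set f : κ → ℝ → ℝ := fun k u => phi grp L g ρ k (Tn a b (zz (n k) u)) with hf
  have hpar : ∀ k ∈ S, ∀ c : ι → ℝ, ∀ u : ℝ, (∀ i, grp i = k → c i = u * dh i) →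
      phi grp L g ρ k c = f k u := by
    intro k hk c u hcu
    obtain ⟨i0, hi0⟩ := hmem k hk
    apply phi_congr
    funext i
    by_cases hi : grp i = k
    · rw [pr_in k _ hi, pr_in k _ hi, hcu i hi, hd.Tn_eq, hi, lf_zz (by rw [← hi]; exact hd.ne i)]
    · rw [pr_off k _ hi, pr_off k _ hi]
  have hTf : ∀ k ∈ S, ∀ z, phi grp L g ρ k (Tn a b z) = f k (lf (n k) z) := by
    intro k hk z
    exact hpar k hk _ _ fun i hi => by rw [hd.Tn_eq, hi]
  have hmono : ∀ k ∈ S, ∀ u v : ℝ, u ≤ v → 0 ≤ f k u - f k v ∧ f k u - f k v ≤ dK k * (v - u) := by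
    intro k hk u v huv
    have hval : ∀ w : ℝ, ∀ i, grp i = k → Tn a b (zz (n k) w) i = w * dh i := by
      intro w i hi
      rw [hd.Tn_eq, hi, lf_zz (by rw [← hi]; exact hd.ne i)]
    have h1 := phi_mono hG hg hm k (hT (zz (n k) u)) (hT (zz (n k) v)) (fun i hi => by
      rw [hval u i hi, hval v i hi]
      exact mul_le_mul_of_nonneg_right huv (hd.pos i).le)
    refine ⟨h1.1, h1.2.trans (le_of_eq ?_)⟩
    rw [hdK, Finset.sum_mul]
    refine Finset.sum_congr rfl fun i hi => ?_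
    rw [Finset.mem_filter] at hi
    rw [hval u i hi.2, hval v i hi.2]; ring
  have hlip : ∀ k ∈ S, ∀ u v : ℝ, |f k u - f k v| ≤ dK k * |u - v| := by
    intro k hk u v
    rcases le_total u v with h | h
    · have := hmono k hk u v h
      rw [abs_of_nonneg this.1, abs_sub_comm, abs_of_nonneg (by linarith)]
      exact this.2
    · have := hmono k hk v u h
      rw [abs_sub_comm, abs_of_nonneg this.1, abs_of_nonneg (by linarith)]
      exact this.2
  have hf0 : ∀ k ∈ S, f k 0 = 0 := by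
    intro k hk
    rw [← hpar k hk 0 0 (fun i _ => by simp)]
    exact phi_zero k fun i _ => rfl
  have hsum : ∀ z : ℝ × ℝ, ∑ k ∈ S, f k (lf (n k) z) = 0 + lf A z := by
    intro z
    rw [zero_add, ← hA z]
    have := repr hG hg gc (hT z)
    rw [g0, sub_zero] at this
    rw [this]
    exact Finset.sum_congr rfl fun k hk => (hTf k hk z).symm
  have hlin := frechet S n
    (fun k hk => by obtain ⟨i, hi⟩ := hmem k hk; rw [← hi]; exact hd.ne i)
    (fun k hk l hl hkl => by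
      obtain ⟨i, hi⟩ := hmem k hk
      obtain ⟨j, hj⟩ := hmem l hl
      rw [← hi, ← hj]
      exact hd.det i j (by rw [hi, hj]; exact hkl))
    f dK 0 A (fun k _ => hdK0 k) hlip hsum
  have hlin' : ∀ k ∈ S, ∀ u, f k u = -((-f k 1) * u) := by
    intro k hk u
    rw [hlin k hk u, hf0 k hk]; ring
  -- rates
  refine ⟨fun k => if k ∈ S then -f k 1 else 0, ?_, ?_, ?_, ?_, ?_, ?_, ?_, ?_, ?_⟩
  · intro c hc
    have := repr hG hg gc hc
    rwa [g0, sub_zero] at this
  · intro k c c' h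
    apply phi_congr
    funext i
    by_cases hi : grp i = k
    · rw [pr_in k _ hi, pr_in k _ hi, h i hi]
    · rw [pr_off k _ hi, pr_off k _ hi]
  · intro k c h
    exact phi_zero k h
  · intro k c hc c' hc' h
    exact phi_mono hG hg hm k hc hc' h
  · intro k p hp q hq h1 h2
    exact phi_sup hG hg hs k hp hq h1 h2
  · intro k c hc u h
    by_cases hk : k ∈ S
    · rw [if_pos hk, hpar k hk c u h, hlin' k hk u]
    · rw [if_neg hk, zero_mul, neg_zero]
      apply phi_zero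
      intro i hi
      exact absurd (hi ▸ mem_gset i) hk
  · intro k
    by_cases hk : k ∈ S
    · rw [if_pos hk]
      have := (hmono k hk 0 1 zero_le_one).1
      rw [hf0 k hk] at this
      linarith
    · rw [if_neg hk]
  · intro k
    by_cases hk : k ∈ S
    · rw [if_pos hk]
      have := (hmono k hk 0 1 zero_le_one).2
      rw [hf0 k hk] at this
      simp only [hdK] at this
      linarith
    · rw [if_neg hk]; exact hdK0 k
  · intro z
    have h1 := hsum z
    rw [zero_add] at h1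
    rw [← h1, ← Finset.sum_neg_distrib]
    refine Finset.sum_congr rfl fun k hk => ?_
    rw [if_pos hk, hlin' k hk (lf (n k) z)]

end

end Crest.Agent.R136.Dg219
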