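import Crest.Agent.R136.Dg5_219
import Crest.Agent.R136.Dg1_262

/-!
# R136: general decoupling, geometry of the walls (helper219)

Walls `p (hd w) ≤ Σ_s co w s * p s + cst w` with natural coefficients, supported on earlier
coordinates; `Act w` = the wall is an equality along the natural plane `X x0 a b z`.
* `Walls.L`, `Walls.D` : closed / open cone of the active walls
* `Walls.geo`   : `Geo` for every grouping with a `Dir`
* `Walls.legal` : local uniform legality at the points of `Walls.O`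
* `exists_grp`  : the ordering of the groups by angle (`Dg262.Grp`)
-/

set_option autoImplicit false
set_option linter.unusedSectionVars false
set_option linter.unusedVariables false

open Set Filter Topology Metric

namespace Crest.Agent.R136.Dg219

open Dg262 (X X_cont)

variable {ι κ : Type*} [Fintype ι] [DecidableEq ι] [DecidableEq κ]

/-! ### ordering of the groups -/

theorem exists_grp {a b : ι → ℝ} {p q : ℝ} (hpq : ∀ i, 0 < p * a i + q * b i) :
    ∃ (g : ι → ℕ) (w : ℕ → ℝ × ℝ), Dg262.Grp a b g w ∧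
      ∀ i j, g i = g j → a i * b j = b i * a j := by
  classical
  set u : ι → ℝ := fun i => p * a i + q * b i with hu
  set s : ι → ℝ := fun i => (p * b i - q * a i) / u i with hs
  set T : Finset ℝ := Finset.univ.image s with hT
  set g : ι → ℕ := fun i => (T.filter (fun x => x < s i)).card with hg
  have hlt : ∀ i j, s i < s j → g i < g j := by
    intro i j hij
    apply Finset.card_lt_card
    rw [Finset.ssubset_iff_of_subset]
    · refine ⟨s i, ?_, ?_⟩
      · simp only [Finset.mem_filter]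
        exact ⟨Finset.mem_image_of_mem _ (Finset.mem_univ _), hij⟩
      · simp
    · intro x hx
      simp only [Finset.mem_filter] at hx ⊢
      exact ⟨hx.1, hx.2.trans hij⟩
  have heq : ∀ i j, g i = g j → s i = s j := by
    intro i j h
    rcases lt_trichotomy (s i) (s j) with h1 | h1 | h1
    · have := hlt i j h1; omega
    · exact h1
    · have := hlt j i h1; omega
  have hgt : ∀ i j, g i < g j → s i < s j := by
    intro i j h
    rcases lt_trichotomy (s i) (s j) with h1 | h1 | h1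
    · exact h1
    · have : g i = g j := by simp only [hg]; rw [h1]
      omega
    · have := hlt j i h1; omega
  have hpq2 : ∀ i : ι, 0 < p ^ 2 + q ^ 2 := by
    intro i
    by_contra hcon
    have h1 : p = 0 := by nlinarith [sq_nonneg p, sq_nonneg q]
    have h2 : q = 0 := by nlinarith [sq_nonneg p, sq_nonneg q]
    have := hpq i
    rw [h1, h2] at this
    simp at this
  have hdet : ∀ i j, (p ^ 2 + q ^ 2) * (a i * b j - b i * a j) =
      u i * (p * b j - q * a j) - (p * b i - q * a i) * u j := by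
    intro i j; simp only [hu]; ring
  have e1 : ∀ i j, s i = s j → a i * b j = b i * a j := by
    intro i j h
    have h1 : (p * b i - q * a i) * u j = (p * b j - q * a j) * u i := by
      simp only [hs] at h
      rwa [div_eq_div_iff (hpq i).ne' (hpq j).ne'] at h
    have h2 := hdet i j
    have h3 : (p ^ 2 + q ^ 2) * (a i * b j - b i * a j) = 0 := by rw [h2]; linarith
    rcases mul_eq_zero.1 h3 with h4 | h4
    · exact absurd h4 (hpq2 i).ne'
    · linarith
  have e2 : ∀ i j, s i < s j → 0 < a i * b j - b i * a j := by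
    intro i j h
    have h1 : (p * b i - q * a i) * u j < (p * b j - q * a j) * u i := by
      simp only [hs] at h
      rwa [div_lt_div_iff₀ (hpq i) (hpq j)] at h
    have h2 := hdet i j
    have h3 : 0 < (p ^ 2 + q ^ 2) * (a i * b j - b i * a j) := by rw [h2]; linarith
    exact (mul_pos_iff_of_pos_left (hpq2 i)).1 h3
  refine ⟨g, fun m => if h : ∃ i, g i = m then (-b h.choose, a h.choose) else 0, ⟨?_, ?_⟩,
    fun i j h => e1 i j (heq i j h)⟩
  · intro i
    have h : ∃ i', g i' = g i := ⟨i, rfl⟩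
    rw [dif_pos h]
    have := e1 _ _ (heq _ _ h.choose_spec)
    simp only
    linarith
  · intro i j hij
    have h : ∃ i', g i' = g i := ⟨i, rfl⟩
    rw [dif_pos h]
    have h1 : s h.choose < s j := by
      rw [heq _ _ h.choose_spec]; exact hgt i j hij
    have := e2 _ _ h1
    simp only
    linarith

/-! ### walls -/

/-- walls `p (hd w) ≤ Σ co w s * p s + cst w` -/
structure Walls (ι W : Type*) where
  hd : W → ι
  co : W → ι → ℕ
  cst : W → ℝ
  rk : ι → ℕ
  low : ∀ w s, co w s ≠ 0 → rk s < rk (hd w)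

variable {W : Type*} [Fintype W] (Q : Walls ι W)

/-- linear part of the right side -/
def Walls.rhs (w : W) (c : ι → ℝ) : ℝ := ∑ s, (Q.co w s : ℝ) * c s

theorem Walls.rhs_add (w : W) (c d : ι → ℝ) : Q.rhs w (c + d) = Q.rhs w c + Q.rhs w d := by
  unfold Walls.rhs
  rw [← Finset.sum_add_distrib]
  exact Finset.sum_congr rfl fun s _ => by rw [Pi.add_apply]; ring

theorem Walls.rhs_smul (w : W) (t : ℝ) (c : ι → ℝ) : Q.rhs w (t • c) = t * Q.rhs w c := by
  unfold Walls.rhs
  rw [Finset.mul_sum]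
  exact Finset.sum_congr rfl fun s _ => by rw [Pi.smul_apply, smul_eq_mul]; ring

theorem Walls.rhs_cont (w : W) : Continuous (Q.rhs w) := by
  unfold Walls.rhs; fun_prop

/-- active walls: equality along the natural plane -/
def Walls.Act (x0 a b : ι → ℝ) (w : W) : Prop :=
  x0 (Q.hd w) = Q.rhs w x0 + Q.cst w ∧ a (Q.hd w) = Q.rhs w a ∧ b (Q.hd w) = Q.rhs w b

/-- closed cone of the active walls -/
def Walls.L (x0 a b : ι → ℝ) : Set (ι → ℝ) := {c | ∀ w, Q.Act x0 a b w → c (Q.hd w) ≤ Q.rhs w c}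

/-- open cone of the active walls -/
def Walls.D (x0 a b : ι → ℝ) : Set (ι → ℝ) := {c | ∀ w, Q.Act x0 a b w → c (Q.hd w) < Q.rhs w c}

/-- legal set -/
def Walls.P (lo hi : ι → ℝ) : Set (ι → ℝ) :=
  {p | (∀ k, lo k ≤ p k ∧ p k ≤ hi k) ∧ ∀ w, p (Q.hd w) ≤ Q.rhs w p + Q.cst w}

/-- points of the natural plane in the interior of all the other walls -/
def Walls.O (lo hi x0 a b : ι → ℝ) : Set (ℝ × ℝ) :=
  {z | (∀ k, lo k < X x0 a b z k ∧ X x0 a b z k < hi k) ∧
    ∀ w, Q.Act x0 a b w ∨ X x0 a b z (Q.hd w) < Q.rhs w (X x0 a b z) + Q.cst w}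

/-- a vector inside all walls -/
noncomputable def Walls.rs (i : ι) : ℝ := ((Finset.univ.sup Q.rk + 1 : ℕ) : ℝ) - (Q.rk i : ℝ)

/-- room for the group `k` -/
noncomputable def Walls.rm (grp : ι → κ) (k : κ) (i : ι) : ℝ := if grp i = k then 0 else Q.rs i

variable {Q} {x0 a b lo hi : ι → ℝ}

theorem Walls.one_le_rs (i : ι) : 1 ≤ Q.rs i := by
  have h : Q.rk i ≤ Finset.univ.sup Q.rk := Finset.le_sup (Finset.mem_univ i)
  have h' : (Q.rk i : ℝ) ≤ ((Finset.univ.sup Q.rk : ℕ) : ℝ) := by exact_mod_cast h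
  unfold Walls.rs
  push_cast
  linarith

theorem Walls.rs_lt {w : W} {s : ι} (h : Q.co w s ≠ 0) : Q.rs (Q.hd w) + 1 ≤ Q.rs s := by
  have h1 : Q.rk s + 1 ≤ Q.rk (Q.hd w) := Q.low w s h
  have h2 : (Q.rk s : ℝ) + 1 ≤ (Q.rk (Q.hd w) : ℝ) := by exact_mod_cast h1
  unfold Walls.rs
  linarith

theorem Walls.rm_nonneg (grp : ι → κ) (k : κ) (i : ι) : 0 ≤ Q.rm grp k i := by
  unfold Walls.rm
  split_ifs
  · exact le_rfl
  · linarith [Q.one_le_rs i]

theorem Walls.le_rhs {w : W} {c : ι → ℝ} (hc : ∀ i, 0 ≤ c i) {s : ι} (h : Q.co w s ≠ 0) :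
    c s ≤ Q.rhs w c := by
  unfold Walls.rhs
  have h1 : (Q.co w s : ℝ) * c s ≤ ∑ s, (Q.co w s : ℝ) * c s :=
    Finset.single_le_sum (f := fun s => (Q.co w s : ℝ) * c s)
      (fun s _ => mul_nonneg (Nat.cast_nonneg _) (hc s)) (Finset.mem_univ s)
  have h2 : (1:ℝ) ≤ (Q.co w s : ℝ) := by exact_mod_cast Nat.one_le_iff_ne_zero.2 h
  nlinarith [hc s]

theorem Walls.rhs_nonneg {w : W} {c : ι → ℝ} (hc : ∀ i, 0 ≤ c i) : 0 ≤ Q.rhs w c :=
  Finset.sum_nonneg fun s _ => mul_nonneg (Nat.cast_nonneg _) (hc s)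

theorem Walls.act_ne {grp : ι → κ} {n : κ → ℝ × ℝ} {dh : ι → ℝ} (hd : Dir grp a b n dh) {w : W}
    (hw : Q.Act x0 a b w) : ∃ s, Q.co w s ≠ 0 := by
  by_contra hcon
  push Not at hcon
  have h1 : ∀ c : ι → ℝ, Q.rhs w c = 0 := by
    intro c
    unfold Walls.rhs
    exact Finset.sum_eq_zero fun s _ => by rw [hcon s]; simp
  have h2 := hw.2.1
  have h3 := hw.2.2
  rw [h1, hd.fst] at h2
  rw [h1, hd.snd] at h3
  have h4 := (hd.pos (Q.hd w)).ne'
  apply hd.ne (Q.hd w)
  exact Prod.ext ((mul_eq_zero.1 h2).resolve_left h4) ((mul_eq_zero.1 h3).resolve_left h4)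

theorem Walls.act_out {grp : ι → κ} {n : κ → ℝ × ℝ} {dh : ι → ℝ} (hd : Dir grp a b n dh) {w : W}
    (hw : Q.Act x0 a b w) {k : κ} (hk : grp (Q.hd w) ≠ k) : ∃ s, Q.co w s ≠ 0 ∧ grp s ≠ k := by
  by_contra hcon
  push Not at hcon
  obtain ⟨s0, hs0⟩ := Walls.act_ne hd hw
  have hs0k := hcon s0 hs0
  set t : ℝ := ∑ s, (Q.co w s : ℝ) * dh s with ht
  have h1 : Q.rhs w a = t * (n k).1 := by
    unfold Walls.rhs
    rw [ht, Finset.sum_mul]
    refine Finset.sum_congr rfl fun s _ => ?_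
    by_cases h : Q.co w s = 0
    · rw [h]; simp
    · rw [hd.fst s, hcon s h]; ring
  have h2 : Q.rhs w b = t * (n k).2 := by
    unfold Walls.rhs
    rw [ht, Finset.sum_mul]
    refine Finset.sum_congr rfl fun s _ => ?_
    by_cases h : Q.co w s = 0
    · rw [h]; simp
    · rw [hd.snd s, hcon s h]; ring
  have h3 := hw.2.1
  have h4 := hw.2.2
  rw [h1, hd.fst] at h3
  rw [h2, hd.snd] at h4
  apply hd.det (Q.hd w) s0 (by rw [hs0k]; exact hk)
  rw [hs0k]
  have h5 : dh (Q.hd w) * det2 (n (grp (Q.hd w))) (n k) = 0 := by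
    unfold det2
    linear_combination (n k).2 * h3 - (n k).1 * h4
  exact (mul_eq_zero.1 h5).resolve_left (hd.pos _).ne'

theorem Walls.rs_mem {grp : ι → κ} {n : κ → ℝ × ℝ} {dh : ι → ℝ} (hd : Dir grp a b n dh) {w : W}
    (hw : Q.Act x0 a b w) : Q.rs (Q.hd w) + 1 ≤ Q.rhs w Q.rs := by
  obtain ⟨s, hs⟩ := Walls.act_ne hd hw
  exact (Q.rs_lt hs).trans (Q.le_rhs (fun i => by linarith [Q.one_le_rs i]) hs)

theorem Walls.rm_mem {grp : ι → κ} {n : κ → ℝ × ℝ} {dh : ι → ℝ} (hd : Dir grp a b n dh) {w : W}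
    (hw : Q.Act x0 a b w) {k : κ} (hk : grp (Q.hd w) ≠ k) :
    Q.rs (Q.hd w) + 1 ≤ Q.rhs w (Q.rm grp k) := by
  obtain ⟨s, hs, hsk⟩ := Walls.act_out hd hw hk
  refine (Q.rs_lt hs).trans ?_
  have h1 : Q.rm grp k s = Q.rs s := by unfold Walls.rm; rw [if_neg hsk]
  rw [← h1]
  exact Q.le_rhs (Q.rm_nonneg grp k) hs

theorem Walls.cone : Cone (Q.L x0 a b) where
  zero := fun w _ => by
    have : Q.rhs w 0 = 0 := by unfold Walls.rhs; simp
    rw [this]; exact le_rfl
  add := fun c hc d hd w hw => by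
    rw [Q.rhs_add, Pi.add_apply]
    exact add_le_add (hc w hw) (hd w hw)
  smul := fun c hc t ht w hw => by
    rw [Q.rhs_smul, Pi.smul_apply, smul_eq_mul]
    exact mul_le_mul_of_nonneg_left (hc w hw) ht

theorem Walls.isClosed_L : IsClosed (Q.L x0 a b) := by
  have : Q.L x0 a b = ⋂ w, ⋂ (_ : Q.Act x0 a b w), {c | c (Q.hd w) ≤ Q.rhs w c} := by
    ext c; simp [Walls.L]
  rw [this]
  exact isClosed_iInter fun w => isClosed_iInter fun _ =>
    isClosed_le (continuous_apply _) (Q.rhs_cont w)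

theorem Walls.isOpen_D : IsOpen (Q.D x0 a b) := by
  have : Q.D x0 a b = ⋂ w, {c | Q.Act x0 a b w → c (Q.hd w) < Q.rhs w c} := by
    ext c; simp [Walls.D]
  rw [this]
  refine isOpen_iInter_of_finite fun w => ?_
  by_cases hw : Q.Act x0 a b w
  · have : {c : ι → ℝ | Q.Act x0 a b w → c (Q.hd w) < Q.rhs w c} =
        {c | c (Q.hd w) < Q.rhs w c} := by ext c; simp [hw]
    rw [this]
    exact isOpen_lt (continuous_apply _) (Q.rhs_cont w)
  · have : {c : ι → ℝ | Q.Act x0 a b w → c (Q.hd w) < Q.rhs w c} = univ := by ext c; simp [hw]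
    rw [this]; exact isOpen_univ

theorem Walls.convex_D : Convex ℝ (Q.D x0 a b) := by
  intro c hc d hd s t hs ht hst w hw
  rw [Q.rhs_add, Q.rhs_smul, Q.rhs_smul]
  simp only [Pi.add_apply, Pi.smul_apply, smul_eq_mul]
  have h1 := hc w hw
  have h2 := hd w hw
  rcases hs.eq_or_lt with h | h
  · rw [← h] at hst ⊢
    have : t = 1 := by linarith
    rw [this]; linarith
  · nlinarith

theorem Walls.room {grp : ι → κ} {n : κ → ℝ × ℝ} {dh : ι → ℝ} (hd : Dir grp a b n dh) :
    Room grp (Q.L x0 a b) (Q.rm grp) where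
  off := fun k i hi => by unfold Walls.rm; rw [if_pos hi]
  mem := fun k w hw => by
    by_cases hk : grp (Q.hd w) = k
    · have : Q.rm grp k (Q.hd w) = 0 := by unfold Walls.rm; rw [if_pos hk]
      rw [this]
      exact Q.rhs_nonneg (Q.rm_nonneg grp k)
    · have : Q.rm grp k (Q.hd w) = Q.rs (Q.hd w) := by unfold Walls.rm; rw [if_neg hk]
      rw [this]
      linarith [Walls.rm_mem hd hw hk]
  ex := fun k c hc => by
    set B : W → ℝ := fun w => |c (Q.hd w)| + ∑ s, (Q.co w s : ℝ) * |c s| with hB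
    have hB0 : ∀ w, 0 ≤ B w := fun w => add_nonneg (abs_nonneg _)
      (Finset.sum_nonneg fun s _ => mul_nonneg (Nat.cast_nonneg _) (abs_nonneg _))
    set R : ℝ := ∑ w, B w with hR
    have hR0 : 0 ≤ R := Finset.sum_nonneg fun w _ => hB0 w
    have hRB : ∀ w, B w ≤ R := fun w =>
      Finset.single_le_sum (f := B) (fun w _ => hB0 w) (Finset.mem_univ w)
    refine ⟨R, hR0, fun w hw => ?_⟩
    rw [Q.rhs_add, Q.rhs_smul]
    simp only [Pi.add_apply, Pi.smul_apply, smul_eq_mul]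
    have hpr : -(∑ s, (Q.co w s : ℝ) * |c s|) ≤ Q.rhs w (pr grp k c) := by
      unfold Walls.rhs
      rw [← Finset.sum_neg_distrib]
      refine Finset.sum_le_sum fun s _ => ?_
      rw [← mul_neg]
      refine mul_le_mul_of_nonneg_left ?_ (Nat.cast_nonneg _)
      by_cases hs : grp s = k
      · rw [pr_in k c hs]; exact neg_abs_le _
      · rw [pr_off k c hs]; simp
    have hb := hRB w
    simp only [hB] at hb
    by_cases hk : grp (Q.hd w) = k
    · have e1 : Q.rm grp k (Q.hd w) = 0 := by unfold Walls.rm; rw [if_pos hk]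
      rw [e1, pr_in k c hk, mul_zero, add_zero]
      by_cases hex : ∃ s, Q.co w s ≠ 0 ∧ grp s ≠ k
      · obtain ⟨s, hs, hsk⟩ := hex
        have h1 : Q.rm grp k s = Q.rs s := by unfold Walls.rm; rw [if_neg hsk]
        have h2 : 1 ≤ Q.rhs w (Q.rm grp k) := by
          have := Q.le_rhs (Q.rm_nonneg grp k) hs
          rw [h1] at this
          exact (Q.one_le_rs s).trans this
        have h3 : R * 1 ≤ R * Q.rhs w (Q.rm grp k) := mul_le_mul_of_nonneg_left h2 hR0
        have h4 := le_abs_self (c (Q.hd w))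
        linarith
      · push Not at hex
        have h1 : Q.rhs w (pr grp k c) = Q.rhs w c := by
          unfold Walls.rhs
          refine Finset.sum_congr rfl fun s _ => ?_
          by_cases hs : Q.co w s = 0
          · rw [hs]; simp
          · rw [pr_in k c (hex s hs)]
        rw [h1]
        have h2 := hc w hw
        have h3 : 0 ≤ R * Q.rhs w (Q.rm grp k) :=
          mul_nonneg hR0 (Q.rhs_nonneg (Q.rm_nonneg grp k))
        linarith
    · have e1 : Q.rm grp k (Q.hd w) = Q.rs (Q.hd w) := by unfold Walls.rm; rw [if_neg hk]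
      rw [e1, pr_off k c hk, zero_add]
      have h2 := Walls.rm_mem hd hw hk
      have h3 : R * (Q.rs (Q.hd w) + 1) ≤ R * Q.rhs w (Q.rm grp k) :=
        mul_le_mul_of_nonneg_left h2 hR0
      have h4 := abs_nonneg (c (Q.hd w))
      linarith

/-- **geometry of the walls** -/
theorem Walls.geo {grp : ι → κ} {n : κ → ℝ × ℝ} {dh : ι → ℝ} (hd : Dir grp a b n dh) :
    Geo grp (Q.D x0 a b) (Q.L x0 a b) (Q.rm grp) Q.rs where
  cone := Q.cone
  room := Walls.room hd
  opn := Q.isOpen_D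
  conv := Q.convex_D
  sub := fun c hc w hw => (hc w hw).le
  inn := fun c hc ε hε w hw => by
    rw [Q.rhs_add, Q.rhs_smul]
    simp only [Pi.add_apply, Pi.smul_apply, smul_eq_mul]
    have h1 := hc w hw
    have h2 := Walls.rs_mem hd hw
    nlinarith

theorem Walls.Tn_mem (z : ℝ × ℝ) : Tn a b z ∈ Q.L x0 a b := by
  intro w hw
  have h1 : Q.rhs w (Tn a b z) = Q.rhs w a * z.1 + Q.rhs w b * z.2 := by
    have : Tn a b z = z.1 • a + z.2 • b := by
      funext i; simp only [Tn, Pi.add_apply, Pi.smul_apply, smul_eq_mul]; ring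
    rw [this, Q.rhs_add, Q.rhs_smul, Q.rhs_smul]; ring
  rw [h1, ← hw.2.1, ← hw.2.2]
  exact le_rfl

theorem Walls.act_X {w : W} (hw : Q.Act x0 a b w) (z : ℝ × ℝ) :
    X x0 a b z (Q.hd w) = Q.rhs w (X x0 a b z) + Q.cst w := by
  have : X x0 a b z = x0 + (z.1 • a + z.2 • b) := by
    funext i; simp only [X, Pi.add_apply, Pi.smul_apply, smul_eq_mul]; ring
  rw [this, Q.rhs_add, Q.rhs_add, Q.rhs_smul, Q.rhs_smul]
  simp only [Pi.add_apply, Pi.smul_apply, smul_eq_mul]
  rw [← hw.2.1, ← hw.2.2, hw.1]; ring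

/-- the strict conditions for points of the space -/
def Walls.U (Q : Walls ι W) (lo hi x0 a b : ι → ℝ) : Set (ι → ℝ) :=
  {p | (∀ k, lo k < p k ∧ p k < hi k) ∧
    ∀ w, Q.Act x0 a b w ∨ p (Q.hd w) < Q.rhs w p + Q.cst w}

theorem Walls.isOpen_U : IsOpen (Q.U lo hi x0 a b) := by
  have : Q.U lo hi x0 a b = (⋂ k, {p : ι → ℝ | lo k < p k ∧ p k < hi k}) ∩
      ⋂ w, {p | Q.Act x0 a b w ∨ p (Q.hd w) < Q.rhs w p + Q.cst w} := by
    ext c; simp [Walls.U]
  rw [this]
  refine IsOpen.inter (isOpen_iInter_of_finite fun k => ?_) (isOpen_iInter_of_finite fun w => ?_)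
  · exact (isOpen_lt continuous_const (continuous_apply k)).inter
      (isOpen_lt (continuous_apply k) continuous_const)
  · by_cases hw : Q.Act x0 a b w
    · have : {p : ι → ℝ | Q.Act x0 a b w ∨ p (Q.hd w) < Q.rhs w p + Q.cst w} = univ := by
        ext c; simp [hw]
      rw [this]; exact isOpen_univ
    · have : {p : ι → ℝ | Q.Act x0 a b w ∨ p (Q.hd w) < Q.rhs w p + Q.cst w} =
          {p | p (Q.hd w) < Q.rhs w p + Q.cst w} := by ext c; simp [hw]
      rw [this]
      exact isOpen_lt (continuous_apply _) ((Q.rhs_cont w).add continuous_const)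

theorem Walls.isOpen_O : IsOpen (Q.O lo hi x0 a b) := by
  have : Q.O lo hi x0 a b = X x0 a b ⁻¹' Q.U lo hi x0 a b := rfl
  rw [this]
  exact Q.isOpen_U.preimage (X_cont x0 a b)

/-- **local uniform legality** -/
theorem Walls.legal {z0 : ℝ × ℝ} (hz0 : z0 ∈ Q.O lo hi x0 a b) (C : ℝ) :
    ∃ ε : ℝ, 0 < ε ∧ ∀ z, dist z z0 < ε → ∀ h : ℝ, 0 < h → h < ε → ∀ c ∈ Q.L x0 a b, ‖c‖ ≤ C →
      X x0 a b z + h • c ∈ Q.P lo hi := by
  have hU : X x0 a b z0 ∈ Q.U lo hi x0 a b := hz0
  obtain ⟨δ, hδ, hball⟩ := Metric.isOpen_iff.1 (Q.isOpen_U (lo := lo) (hi := hi) (x0 := x0)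
    (a := a) (b := b)) _ hU
  obtain ⟨ε1, hε1, h1⟩ := Metric.continuous_iff.1 (X_cont x0 a b) z0 (δ / 2) (by positivity)
  refine ⟨min ε1 (δ / (2 * (|C| + 1))), lt_min hε1 (by positivity), ?_⟩
  intro z hz h hh hhe c hc hcC
  have h2 := h1 z (hz.trans_le (min_le_left _ _))
  have h3 : h < δ / (2 * (|C| + 1)) := hhe.trans_le (min_le_right _ _)
  rw [lt_div_iff₀ (by positivity)] at h3
  have hn : ‖h • c‖ < δ / 2 := by
    rw [norm_smul, Real.norm_of_nonneg hh.le]
    have h4 : ‖c‖ ≤ |C| := hcC.trans (le_abs_self C)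
    have h5 : h * ‖c‖ ≤ h * |C| := mul_le_mul_of_nonneg_left h4 hh.le
    nlinarith
  have hp : X x0 a b z + h • c ∈ Q.U lo hi x0 a b := by
    apply hball
    rw [mem_ball]
    calc dist (X x0 a b z + h • c) (X x0 a b z0)
        ≤ dist (X x0 a b z + h • c) (X x0 a b z) + dist (X x0 a b z) (X x0 a b z0) :=
          dist_triangle _ _ _
      _ < δ / 2 + δ / 2 := by
          refine add_lt_add ?_ h2
          rw [dist_eq_norm, add_sub_cancel_left]; exact hn
      _ = δ := by ring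
  refine ⟨fun k => ⟨(hp.1 k).1.le, (hp.1 k).2.le⟩, fun w => ?_⟩
  rcases hp.2 w with hw | hw
  · rw [Q.rhs_add, Q.rhs_smul]
    simp only [Pi.add_apply, Pi.smul_apply, smul_eq_mul]
    rw [Walls.act_X hw z]
    have := mul_le_mul_of_nonneg_left (hc w hw) hh.le
    linarith
  · exact hw.le

end Crest.Agent.R136.Dg219
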