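import Crest.Agent.R136.Dg6_262
import Crest.Agent.R136.Dg5_219
import Crest.Agent.R136.Net2_191

/-!
# R136: general decoupling, wall instance (helper262)

The legal region `Leg M R` of the nets of helper191, a natural plane `X x0 a b`, tight walls `tg`
(equality on the plane), the other walls strict on `Ω`:
* `Roomy.legU` : `LegU (Leg M R) x0 a b Ω (DT M tg)`
* `Roomy.geo`  : `Geo grp (DT M tg) (LT M tg) (rhoK grp) rhoS`
* `Roomy.Tn_mem`, `grp_of_dir`.
-/

set_option autoImplicit false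
set_option linter.unusedSectionVars false

open Set MeasureTheory Filter Topology Metric

namespace Crest.Agent.R136.Dg262

open Net191

variable {m : ℕ}

/-- value of a monomial exponent -/
def wsum (e : Fin m → ℕ) (c : Fin m → ℝ) : ℝ := ∑ s, (e s : ℝ) * c s

theorem wsum_add (e : Fin m → ℕ) (c d : Fin m → ℝ) : wsum e (c + d) = wsum e c + wsum e d := by
  unfold wsum
  rw [← Finset.sum_add_distrib]
  exact Finset.sum_congr rfl fun s _ => by rw [Pi.add_apply, mul_add]

theorem wsum_smul (e : Fin m → ℕ) (t : ℝ) (c : Fin m → ℝ) : wsum e (t • c) = t * wsum e c := by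
  unfold wsum
  rw [Finset.mul_sum]
  exact Finset.sum_congr rfl fun s _ => by rw [Pi.smul_apply, smul_eq_mul]; ring

theorem wsum_cont (e : Fin m → ℕ) : Continuous (wsum e) := by
  unfold wsum; fun_prop

/-- closed cone of the tight walls -/
def LT (M : Mons m) (tg : Fin m → (Fin m → ℕ) → Prop) : Set (Fin m → ℝ) :=
  {c | ∀ k, ∀ e ∈ M.mon k, tg k e → c k ≤ wsum e c}

/-- open cone of the tight walls -/
def DT (M : Mons m) (tg : Fin m → (Fin m → ℕ) → Prop) : Set (Fin m → ℝ) :=
  {c | ∀ k, ∀ e ∈ M.mon k, tg k e → c k < wsum e c}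

/-- natural plane in the interior of `Leg M R` up to the tight walls -/
structure Roomy (M : Mons m) (R : ℝ) (x0 a b : Fin m → ℝ) (Ω : Set (ℝ × ℝ))
    (tg : Fin m → (Fin m → ℕ) → Prop) : Prop where
  lo : ∀ z ∈ Ω, ∀ k, 0 < X x0 a b z k
  hi : ∀ z ∈ Ω, ∀ k, X x0 a b z k < R
  eq : ∀ k, ∀ e ∈ M.mon k, tg k e → x0 k = wsum e x0 ∧ a k = wsum e a ∧ b k = wsum e b
  lt : ∀ z ∈ Ω, ∀ k, ∀ e ∈ M.mon k, ¬ tg k e → X x0 a b z k < wsum e (X x0 a b z)

variable {M : Mons m} {R : ℝ} {x0 a b : Fin m → ℝ} {Ω : Set (ℝ × ℝ)}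
  {tg : Fin m → (Fin m → ℕ) → Prop}

theorem wsum_X (e : Fin m → ℕ) (z : ℝ × ℝ) :
    wsum e (X x0 a b z) = wsum e x0 + wsum e a * z.1 + wsum e b * z.2 := by
  unfold wsum X
  rw [Finset.sum_mul, Finset.sum_mul, ← Finset.sum_add_distrib, ← Finset.sum_add_distrib]
  exact Finset.sum_congr rfl fun s _ => by ring

theorem Roomy.X_eq (H : Roomy M R x0 a b Ω tg) {k : Fin m} {e : Fin m → ℕ} (he : e ∈ M.mon k)
    (ht : tg k e) (z : ℝ × ℝ) : X x0 a b z k = wsum e (X x0 a b z) := by
  obtain ⟨h1, h2, h3⟩ := H.eq k e he ht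
  rw [wsum_X, ← h1, ← h2, ← h3]
  rfl

theorem DT_subset : DT M tg ⊆ LT M tg := fun _ hc k e he ht => (hc k e he ht).le

theorem DT_open : IsOpen (DT M tg) := by
  have : DT M tg = ⋂ k, ⋂ e ∈ (↑(M.mon k) : Set (Fin m → ℕ)), {c | tg k e → c k < wsum e c} := by
    ext c; simp [DT]
  rw [this]
  apply isOpen_iInter_of_finite
  intro k
  apply Set.Finite.isOpen_biInter (M.mon k).finite_toSet
  intro e _
  by_cases h : tg k e
  · have : {c : Fin m → ℝ | tg k e → c k < wsum e c} = {c | c k < wsum e c} := by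
      ext c; simp [h]
    rw [this]
    exact isOpen_lt (continuous_apply k) (wsum_cont e)
  · have : {c : Fin m → ℝ | tg k e → c k < wsum e c} = univ := by
      ext c; simp [h]
    rw [this]; exact isOpen_univ

theorem DT_convex : Convex ℝ (DT M tg) := by
  intro c hc d hd s t hs ht hst k e he htg
  have h1 := hc k e he htg
  have h2 := hd k e he htg
  rw [wsum_add, wsum_smul, wsum_smul]
  simp only [Pi.add_apply, Pi.smul_apply, smul_eq_mul]
  rcases eq_or_lt_of_le hs with h | h
  · have : t = 1 := by linarith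
    rw [← h, this]; linarith
  · have h3 := mul_lt_mul_of_pos_left h1 h
    have h4 := mul_le_mul_of_nonneg_left h2.le ht
    linarith

/-- **local uniform legality** for the legal region of the nets -/
theorem Roomy.legU (H : Roomy M R x0 a b Ω tg) : LegU (Leg M R) x0 a b Ω (DT M tg) := by
  intro z0 hz0 c0 hc0
  -- all the conditions are open near `(z0, c0, 0)`
  set F : (ℝ × ℝ) × (Fin m → ℝ) × ℝ → Fin m → ℝ := fun t => X x0 a b t.1 + t.2.2 • t.2.1 with hF
  have hX := X_cont x0 a b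
  have hFc : Continuous F := by
    have h1 : Continuous fun t : (ℝ × ℝ) × (Fin m → ℝ) × ℝ => X x0 a b t.1 := hX.comp continuous_fst
    have h2 : Continuous fun t : (ℝ × ℝ) × (Fin m → ℝ) × ℝ => t.2.2 • t.2.1 := by fun_prop
    exact h1.add h2
  have hF0 : F (z0, c0, 0) = X x0 a b z0 := by simp [hF]
  have e1 : ∀ k, ∀ᶠ t in 𝓝 (z0, c0, (0 : ℝ)), 0 < F t k := fun k =>
    (((continuous_apply k).comp hFc).tendsto (z0, c0, (0 : ℝ))).eventually
      (lt_mem_nhds (by rw [Function.comp_apply, hF0]; exact H.lo z0 hz0 k))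
  have e2 : ∀ k, ∀ᶠ t in 𝓝 (z0, c0, (0 : ℝ)), F t k < R := fun k =>
    (((continuous_apply k).comp hFc).tendsto (z0, c0, (0 : ℝ))).eventually
      (gt_mem_nhds (by rw [Function.comp_apply, hF0]; exact H.hi z0 hz0 k))
  have e3 : ∀ k, ∀ e ∈ M.mon k, ¬ tg k e → ∀ᶠ t in 𝓝 (z0, c0, (0 : ℝ)), F t k < wsum e (F t) := by
    intro k e he ht
    have h1 : Tendsto (fun t => wsum e (F t) - F t k) (𝓝 (z0, c0, (0 : ℝ)))
        (𝓝 (wsum e (F (z0, c0, 0)) - F (z0, c0, 0) k)) :=
      ((((wsum_cont e).comp hFc).sub ((continuous_apply k).comp hFc)).tendsto _)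
    have h2 := h1.eventually (lt_mem_nhds (a := 0) (by rw [hF0]; linarith [H.lt z0 hz0 k e he ht]))
    filter_upwards [h2] with t ht; linarith
  have e4 : ∀ᶠ t in 𝓝 (z0, c0, (0 : ℝ)), t.2.1 ∈ DT M tg := by
    have h1 : Tendsto (fun t : (ℝ × ℝ) × (Fin m → ℝ) × ℝ => t.2.1) (𝓝 (z0, c0, (0 : ℝ))) (𝓝 c0) :=
      (continuous_fst.comp continuous_snd).tendsto _
    exact h1.eventually (DT_open.mem_nhds hc0)
  have e5 : ∀ᶠ t in 𝓝 (z0, c0, (0 : ℝ)), (∀ k, 0 < F t k) ∧ (∀ k, F t k < R) ∧
      (∀ k, ∀ e ∈ M.mon k, ¬ tg k e → F t k < wsum e (F t)) ∧ t.2.1 ∈ DT M tg := by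
    have e3' : ∀ᶠ t in 𝓝 (z0, c0, (0 : ℝ)), ∀ k, ∀ e ∈ M.mon k, ¬ tg k e → F t k < wsum e (F t) := by
      rw [eventually_all]
      intro k
      have := (Filter.eventually_all_finset (M.mon k) (l := 𝓝 (z0, c0, (0 : ℝ)))
        (p := fun e t => ¬ tg k e → F t k < wsum e (F t))).2 (fun e he => by
          by_cases h : tg k e
          · exact Eventually.of_forall fun t h' => absurd h h'
          · exact (e3 k e he h).mono fun t ht _ => ht)
      exact this
    exact (eventually_all.2 e1).and ((eventually_all.2 e2).and (e3'.and e4))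
  rw [Metric.eventually_nhds_iff] at e5
  obtain ⟨ε, hε, h5⟩ := e5
  refine ⟨ε, hε, fun z c h hz hc hh hhε => ?_⟩
  have hd : dist (z, c, h) (z0, c0, (0 : ℝ)) < ε := by
    refine max_lt hz (max_lt hc ?_)
    rw [Real.dist_eq, sub_zero, abs_of_pos hh]; exact hhε
  obtain ⟨g1, g2, g3, g4⟩ := h5 hd
  refine ⟨⟨fun k => (g1 k).le, fun k e he => ?_⟩, fun k => (g2 k).le⟩
  by_cases ht : tg k e
  · have h6 := H.X_eq he ht z
    have h7 := g4 k e he ht
    change (X x0 a b z + h • c) k ≤ wsum e (X x0 a b z + h • c)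
    rw [wsum_add, wsum_smul, ← h6]
    simp only [Pi.add_apply, Pi.smul_apply, smul_eq_mul]
    have := mul_le_mul_of_nonneg_left h7.le hh.le
    simp only at this
    linarith
  · exact (g3 k e he ht).le

/-! ### geometry of the cone -/

/-- interior direction of every wall cone -/
noncomputable def rhoS : Fin m → ℝ := fun s => (1 / 2 : ℝ) ^ s.val

/-- room direction of a group -/
noncomputable def rhoK (grp : Fin m → ℕ) (k : ℕ) : Fin m → ℝ :=
  fun s => if grp s = k then 0 else (1 / 2 : ℝ) ^ s.val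

theorem rhoK_nonneg (grp : Fin m → ℕ) (k : ℕ) (s : Fin m) : 0 ≤ rhoK grp k s := by
  unfold rhoK; split_ifs <;> positivity

/-- one monomial factor outside the group dominates -/
theorem rhoK_lt (grp : Fin m → ℕ) (q : ℕ) {k : Fin m} {e : Fin m → ℕ} (he : e ∈ M.mon k)
    {s : Fin m} (hs : e s ≠ 0) (hsq : grp s ≠ q) : rhoK grp q k < wsum e (rhoK grp q) := by
  have hlt : s < k := by
    by_contra h
    exact hs (M.low k e he s (not_lt.1 h))
  have h1 : (e s : ℝ) * rhoK grp q s ≤ wsum e (rhoK grp q) :=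
    Finset.single_le_sum (f := fun s => (e s : ℝ) * rhoK grp q s)
      (fun t _ => mul_nonneg (Nat.cast_nonneg _) (rhoK_nonneg grp q t)) (Finset.mem_univ s)
  have h2 : (1 : ℝ) ≤ e s := by exact_mod_cast Nat.one_le_iff_ne_zero.2 hs
  have h3 : rhoK grp q s = (1 / 2 : ℝ) ^ s.val := by simp [rhoK, hsq]
  have h4 : (1 / 2 : ℝ) ^ k.val < (1 / 2 : ℝ) ^ s.val :=
    pow_lt_pow_right_of_lt_one₀ (by norm_num) (by norm_num) hlt
  have h5 : rhoK grp q k ≤ (1 / 2 : ℝ) ^ k.val := by
    unfold rhoK; split_ifs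
    · positivity
    · exact le_rfl
  have h6 : (0 : ℝ) < (1 / 2 : ℝ) ^ s.val := by positivity
  have h7 : (1 / 2 : ℝ) ^ s.val ≤ (e s : ℝ) * rhoK grp q s := by rw [h3]; nlinarith
  linarith

theorem rhoS_lt {k : Fin m} {e : Fin m → ℕ} (he : e ∈ M.mon k) :
    (rhoS : Fin m → ℝ) k < wsum e rhoS := by
  obtain ⟨s, hs⟩ := M.ne k e he
  have h := rhoK_lt (M := M) (fun _ => 0) 1 he hs (by norm_num)
  have h1 : (rhoK (fun _ => 0) 1 : Fin m → ℝ) = rhoS := by
    funext t; simp [rhoK, rhoS]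
  rwa [h1] at h

theorem LT_cone : Dg219.Cone (LT M tg) where
  zero := by
    intro k e _ _
    simp [wsum]
  add := by
    intro c hc d hd k e he ht
    rw [wsum_add]
    exact add_le_add (hc k e he ht) (hd k e he ht)
  smul := by
    intro c hc t ht k e he htg
    rw [wsum_smul]
    exact mul_le_mul_of_nonneg_left (hc k e he htg) ht

/-- a tight wall whose monomial lies in one group has its coordinate in this group -/
theorem Roomy.ns (H : Roomy M R x0 a b Ω tg) {grp : Fin m → ℕ} {n : ℕ → ℝ × ℝ} {dh : Fin m → ℝ}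
    (hd : Dg219.Dir grp a b n dh) {q : ℕ} {k : Fin m} {e : Fin m → ℕ} (he : e ∈ M.mon k)
    (ht : tg k e) (hs : ∀ s, e s ≠ 0 → grp s = q) : grp k = q := by
  by_contra hk
  obtain ⟨s0, hs0⟩ := M.ne k e he
  obtain ⟨-, h2, h3⟩ := H.eq k e he ht
  have ha : wsum e a = wsum e dh * (n q).1 := by
    unfold wsum
    rw [Finset.sum_mul]
    refine Finset.sum_congr rfl fun s _ => ?_
    by_cases h : e s = 0
    · rw [h]; simp
    · rw [hd.fst s, hs s h]; ring
  have hb : wsum e b = wsum e dh * (n q).2 := by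
    unfold wsum
    rw [Finset.sum_mul]
    refine Finset.sum_congr rfl fun s _ => ?_
    by_cases h : e s = 0
    · rw [h]; simp
    · rw [hd.snd s, hs s h]; ring
  have h4 := hd.fst k
  have h5 := hd.snd k
  have hdet := hd.det k s0 (by rw [hs s0 hs0]; exact hk)
  rw [hs s0 hs0] at hdet
  have h6 : dh k * Dg219.det2 (n (grp k)) (n q) = 0 := by
    unfold Dg219.det2
    have h7 : dh k * (n (grp k)).1 = wsum e dh * (n q).1 := by rw [← h4, h2, ha]
    have h8 : dh k * (n (grp k)).2 = wsum e dh * (n q).2 := by rw [← h5, h3, hb]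
    linear_combination (n q).2 * h7 - (n q).1 * h8
  rcases mul_eq_zero.1 h6 with h | h
  · exact absurd h (hd.pos k).ne'
  · exact hdet h

theorem Roomy.geo (H : Roomy M R x0 a b Ω tg) {grp : Fin m → ℕ} {n : ℕ → ℝ × ℝ} {dh : Fin m → ℝ}
    (hd : Dg219.Dir grp a b n dh) : Dg219.Geo grp (DT M tg) (LT M tg) (rhoK grp) rhoS where
  cone := LT_cone
  room := by
    have hB : ∀ q k, ∀ e ∈ M.mon k, tg k e → rhoK grp q k < wsum e (rhoK grp q) ∨
        (grp k = q ∧ ∀ s, e s ≠ 0 → grp s = q) := by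
      intro q k e he ht
      by_cases h : ∃ s, e s ≠ 0 ∧ grp s ≠ q
      · obtain ⟨s, h1, h2⟩ := h
        exact Or.inl (rhoK_lt grp q he h1 h2)
      · push Not at h
        exact Or.inr ⟨H.ns hd he ht h, h⟩
    refine ⟨?_, ?_, ?_⟩
    · intro k i hi; simp [rhoK, hi]
    · intro q k e he ht
      rcases hB q k e he ht with h | ⟨h, -⟩
      · exact h.le
      · have h1 : rhoK grp q k = 0 := by simp [rhoK, h]
        rw [h1]
        exact Finset.sum_nonneg fun s _ => mul_nonneg (Nat.cast_nonneg _) (rhoK_nonneg grp q s)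
    · intro q c hc
      -- one wall
      have hone : ∀ k, ∀ e ∈ M.mon k, tg k e → ∃ R0 : ℝ, 0 ≤ R0 ∧ ∀ R, R0 ≤ R →
          (Dg219.pr grp q c + R • rhoK grp q) k ≤ wsum e (Dg219.pr grp q c + R • rhoK grp q) := by
        intro k e he ht
        rcases hB q k e he ht with h | ⟨h, h'⟩
        · set B := wsum e (rhoK grp q) - rhoK grp q k with hBd
          have hB0 : 0 < B := by linarith
          set A := Dg219.pr grp q c k - wsum e (Dg219.pr grp q c) with hA
          refine ⟨|A| / B, div_nonneg (abs_nonneg _) hB0.le, fun R hR => ?_⟩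
          rw [wsum_add, wsum_smul]
          simp only [Pi.add_apply, Pi.smul_apply, smul_eq_mul]
          rw [div_le_iff₀ hB0] at hR
          have := le_abs_self A
          rw [hA, hBd] at *
          nlinarith
        · refine ⟨0, le_rfl, fun R hR => ?_⟩
          rw [wsum_add, wsum_smul]
          simp only [Pi.add_apply, Pi.smul_apply, smul_eq_mul]
          have h1 : rhoK grp q k = 0 := by simp [rhoK, h]
          have h2 : Dg219.pr grp q c k = c k := Dg219.pr_in q c h
          have h3 : wsum e (Dg219.pr grp q c) = wsum e c := by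
            unfold wsum
            refine Finset.sum_congr rfl fun s _ => ?_
            by_cases h4 : e s = 0
            · rw [h4]; simp
            · rw [Dg219.pr_in q c (h' s h4)]
          have h5 : 0 ≤ wsum e (rhoK grp q) :=
            Finset.sum_nonneg fun s _ => mul_nonneg (Nat.cast_nonneg _) (rhoK_nonneg grp q s)
          rw [h1, h2, h3, mul_zero, add_zero]
          have := hc k e he ht
          have := mul_nonneg hR h5
          linarith
      classical
      choose! R0 hR00 hR0 using hone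
      set RR : ℝ := ∑ k, ∑ e ∈ M.mon k, |R0 k e| with hRR
      have hle : ∀ k, ∀ e ∈ M.mon k, R0 k e ≤ RR := by
        intro k e he
        have h1 : |R0 k e| ≤ ∑ e ∈ M.mon k, |R0 k e| :=
          Finset.single_le_sum (f := fun e => |R0 k e|) (fun _ _ => abs_nonneg _) he
        have h2 : (∑ e ∈ M.mon k, |R0 k e|) ≤ RR :=
          Finset.single_le_sum (f := fun k => ∑ e ∈ M.mon k, |R0 k e|)
            (fun _ _ => Finset.sum_nonneg fun _ _ => abs_nonneg _) (Finset.mem_univ k)
        exact (le_abs_self _).trans (h1.trans h2)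
      refine ⟨RR, Finset.sum_nonneg fun _ _ => Finset.sum_nonneg fun _ _ => abs_nonneg _, ?_⟩
      intro k e he ht
      exact hR0 k e he ht RR (hle k e he)
  opn := DT_open
  conv := DT_convex
  sub := DT_subset
  inn := by
    intro c hc ε hε k e he ht
    have h1 := hc k e he ht
    have h2 := rhoS_lt (M := M) he
    rw [wsum_add, wsum_smul]
    simp only [Pi.add_apply, Pi.smul_apply, smul_eq_mul]
    have := mul_lt_mul_of_pos_left h2 hε
    linarith

theorem Roomy.Tn_mem (H : Roomy M R x0 a b Ω tg) (z : ℝ × ℝ) : Dg219.Tn a b z ∈ LT M tg := by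
  intro k e he ht
  obtain ⟨-, h2, h3⟩ := H.eq k e he ht
  have : wsum e (Dg219.Tn a b z) = wsum e a * z.1 + wsum e b * z.2 := by
    unfold wsum Dg219.Tn
    rw [Finset.sum_mul, Finset.sum_mul, ← Finset.sum_add_distrib]
    exact Finset.sum_congr rfl fun s _ => by ring
  rw [this, ← h2, ← h3]
  exact le_rfl

theorem grp_of_dir {ι : Type*} [Fintype ι] [DecidableEq ι] {a b : ι → ℝ} {grp : ι → ℕ}
    {n : ℕ → ℝ × ℝ} {dh : ι → ℝ} (hd : Dg219.Dir grp a b n dh)
    (hdet : ∀ i j, grp i < grp j → 0 < Dg219.det2 (n (grp i)) (n (grp j))) :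
    Grp a b grp (fun k => (-(n k).2, (n k).1)) where
  fix := by
    intro i
    rw [hd.fst i, hd.snd i]; ring
  up := by
    intro i j hij
    have h1 := hdet i j hij
    have h2 := mul_pos (hd.pos j) h1
    rw [hd.fst j, hd.snd j]
    unfold Dg219.det2 at h2
    simp only
    linarith

end Crest.Agent.R136.Dg262
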