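import Mathlib

/-!
Good points of a monotone function.  If `h` is monotone on `[a, b]` and its total increase is
smaller than that of `Φ` (right differentiable, continuous), then at some point `t` of `[a, b)` the
right increments of `h` are at most `φ t * s` for all small `s`, where `φ t` is the right derivative
of `Φ` at `t`.
-/

namespace Crest.Agent.R136.Dini496

open Set Filter Topology

theorem exists_good {h Φ φ : ℝ → ℝ} {a b : ℝ} (hab : a < b) (hm : MonotoneOn h (Icc a b))
    (hc : ContinuousOn Φ (Icc a b))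
    (hd : ∀ t ∈ Ico a b, HasDerivWithinAt Φ (φ t) (Ici t) t)
    (hlt : h b - h a < Φ b - Φ a) :
    ∃ t ∈ Ico a b, ∃ δ > 0, t + δ ≤ b ∧ ∀ s, 0 ≤ s → s < δ → h (t + s) ≤ h t + φ t * s := by
  by_contra hcon
  push Not at hcon
  -- for every `ε > 0` the inequality `Φ t - Φ a - ε (t - a) ≤ h t - h a` holds on `[a, b]`
  have key : ∀ ε > 0, Φ b - Φ a - ε * (b - a) ≤ h b - h a := by
    intro ε hε
    set S : Set ℝ := {t | t ∈ Icc a b ∧ Φ t - Φ a - ε * (t - a) ≤ h t - h a} with hS
    have haS : a ∈ S := ⟨⟨le_rfl, hab.le⟩, by simp⟩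
    have hbdd : BddAbove S := ⟨b, fun t ht => ht.1.2⟩
    set T := sSup S with hT
    have hTb : T ≤ b := csSup_le ⟨a, haS⟩ fun t ht => ht.1.2
    have haT : a ≤ T := le_csSup hbdd haS
    have hTS : T ∈ S := by
      refine ⟨⟨haT, hTb⟩, ?_⟩
      -- the continuous function `Φ t - ε t` at `T` is a limit along points of `S`
      obtain ⟨u, hu, hut, huS⟩ := exists_seq_tendsto_sSup ⟨a, haS⟩ hbdd
      have hcT : Tendsto (fun n => Φ (u n) - Φ a - ε * (u n - a)) atTop
          (𝓝 (Φ T - Φ a - ε * (T - a))) := by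
        have h1 : Tendsto (fun n => Φ (u n)) atTop (𝓝 (Φ T)) := by
          have h2 := hc T ⟨haT, hTb⟩
          refine h2.tendsto.comp ?_
          refine tendsto_nhdsWithin_iff.2 ⟨hut, Eventually.of_forall fun n => (huS n).1⟩
        exact (h1.sub_const _).sub ((hut.sub_const _).const_mul _)
      refine le_of_tendsto' hcT fun n => ?_
      refine (huS n).2.trans ?_
      have := hm (huS n).1 ⟨haT, hTb⟩ (le_csSup hbdd (huS n))
      linarith
    rcases eq_or_lt_of_le hTb with hE | hL
    · have := hTS.2; rw [hE] at this; exact this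
    · exfalso
      -- near `T` the increment of `Φ` is at most `(φ T + ε) s`
      have hdT := hd T ⟨haT, hL⟩
      have hO := hdT.isLittleO.def hε
      rw [eventually_nhdsWithin_iff, Metric.eventually_nhds_iff] at hO
      obtain ⟨δ0, hδ0, hO⟩ := hO
      obtain ⟨s, hs0, hsδ, hs⟩ := hcon T ⟨haT, hL⟩ (min (δ0) (b - T))
        (lt_min hδ0 (by linarith)) (by
          have := min_le_right δ0 (b - T); linarith)
      have hs0' : 0 < s := by
        rcases eq_or_lt_of_le hs0 with h0 | h0
        · rw [← h0] at hs; simp at hs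
        · exact h0
      have hs1 : s < δ0 := lt_of_lt_of_le hsδ (min_le_left _ _)
      have hs2 : s < b - T := lt_of_lt_of_le hsδ (min_le_right _ _)
      have hin : T + s ∈ Icc a b := ⟨by linarith, by linarith⟩
      have hO2 := hO (y := T + s) (by
        rw [Real.dist_eq]; simpa [abs_of_pos hs0'] using hs1) (by
        simp only [mem_Ici]; linarith)
      have hO3 : Φ (T + s) - Φ T - φ T * s ≤ ε * s := by
        have h1 : ‖Φ (T + s) - Φ T - (T + s - T) • φ T‖ ≤ ε * ‖T + s - T‖ := hO2
        have h2 : T + s - T = s := by ring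
        rw [h2, Real.norm_eq_abs, Real.norm_eq_abs, abs_of_pos hs0', smul_eq_mul] at h1
        have h3 := le_abs_self (Φ (T + s) - Φ T - s * φ T)
        linarith [h1, h3, mul_comm s (φ T)]
      have hmem : T + s ∈ S := by
        refine ⟨hin, ?_⟩
        have h4 := hTS.2
        have h5 : h T + φ T * s < h (T + s) := hs
        linarith
      have := le_csSup hbdd hmem
      linarith
  have hfin : Φ b - Φ a ≤ h b - h a := by
    refine le_of_forall_pos_le_add fun ε hε => ?_
    have h1 := key (ε / (b - a)) (div_pos hε (by linarith))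
    rw [div_mul_cancel₀ _ (by linarith : (b - a) ≠ 0)] at h1
    linarith
  linarith

/-- Logarithmic version: `h` monotone with values in an interval of length `V` on `[t₀ + τ₀, t₀ + τ₁]`
and `V < ε log (τ₁ / τ₀)`: a point `t` with right increments at most `ε / (t - t₀) * s`. -/
theorem exists_good_log {h : ℝ → ℝ} {t0 τ0 τ1 ε V : ℝ} (h0 : 0 < τ0) (h1 : τ0 < τ1)
    (hm : MonotoneOn h (Icc (t0 + τ0) (t0 + τ1)))
    (hV : h (t0 + τ1) - h (t0 + τ0) ≤ V) (hε : V < ε * Real.log (τ1 / τ0)) :
    ∃ t ∈ Ico (t0 + τ0) (t0 + τ1), ∃ δ > 0, t + δ ≤ t0 + τ1 ∧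
      ∀ s, 0 ≤ s → s < δ → h (t + s) ≤ h t + ε / (t - t0) * s := by
  have hpos : ∀ t, t0 + τ0 ≤ t → 0 < t - t0 := fun t ht => by linarith
  have hder : ∀ t, t0 + τ0 ≤ t →
      HasDerivAt (fun t => ε * Real.log (t - t0)) (ε / (t - t0)) t := by
    intro t ht
    have h2 := ((hasDerivAt_id t).sub_const t0).log (ne_of_gt (hpos t ht))
    have h3 := h2.const_mul ε
    simpa [div_eq_mul_inv] using h3
  refine exists_good (h := h) (Φ := fun t => ε * Real.log (t - t0)) (φ := fun t => ε / (t - t0))
    (by linarith) hm ?_ ?_ ?_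
  · intro t ht
    exact (hder t ht.1).continuousAt.continuousWithinAt
  · intro t ht
    exact (hder t ht.1).hasDerivWithinAt
  · have e1 : t0 + τ1 - t0 = τ1 := by ring
    have e2 : t0 + τ0 - t0 = τ0 := by ring
    simp only [e1, e2]
    rw [Real.log_div (by linarith) (by linarith)] at hε
    linarith

end Crest.Agent.R136.Dini496
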