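import Crest.Agent.R136.Lz2_627
import Crest.Agent.R136.XIn4_823

/-!
# R136 (S0187), U4, pure penalty, leaf (d) (helper627), part 3: change of the test sets

* `CovP π K0 lo L G1 G2` : the sets of allowed codes (`L n`) in an admissible test set of `G2` have a
  `1/K0`-portion in an admissible test set of `G1` of size `≤ K0 ·` (823's `GeoCov` with a map
  `π : σ1 → σ2` of the test sets, `mem`, `val`, `wid` compared on admissible sets only).
* `mkA_cov`, `allD_cov`, `dbody_cov` : D-max for `G1` gives D-max for `G2`.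
-/

set_option autoImplicit false
set_option linter.unusedVariables false
set_option linter.unusedSectionVars false

open Finset Filter Topology

namespace Crest.Agent.R136.Lz627

open Crest.Agent.R138.Ex926 Crest.Agent.R138.Dp76
open Crest.Agent.R138.Mk163 (zc zl rho alive own)
open Crest.Agent.R138.MkRef627 (lc mem_alive)
open MkA627 (Geo MkA ampA)
open Dia770 XIn823

/-- comparison of two geometries, with a map of the test sets -/
structure CovP {σ1 σ2 κ : Type} (π : σ1 → σ2) (K0 : ℝ) (lo : ℕ → ℕ) (L : ℕ → Finset ℕ)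
    (G1 : Geo σ1 κ) (G2 : Geo σ2 κ) : Prop where
  mem : ∀ n i J s, G1.adm n i J s → ∀ t, G1.mem n i J s t → G2.mem n i J (π s) t
  val : ∀ n i J s, G1.adm n i J s → G2.val n i J (π s) = G1.val n i J s
  wid : ∀ n i J s, G1.adm n i J s → ∀ k, G2.wid k (π s) = G1.wid k s
  cov : ∀ᶠ n in (U : Filter ℕ), ∀ i : ℕ, lo n ≤ i → ∀ (J : ℤ) (s : σ2), G2.adm n i J s →
    ∀ T : Finset ℕ, T ⊆ L n → (∀ t ∈ T, G2.mem n i J s t) → ∃ s' : σ1, G1.adm n i J s' ∧
      G1.val n i J s' ≤ K0 * G2.val n i J s ∧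
      ∃ T' : Finset ℕ, T' ⊆ T ∧ (∀ t ∈ T', G1.mem n i J s' t) ∧ (T.card : ℝ) ≤ K0 * (T'.card : ℝ)

section

variable {σ1 σ2 κ : Type} {π : σ1 → σ2} {B : Base} {lo : ℕ → ℕ} {L : ℕ → Finset ℕ} {K0 : ℝ}
  {G1 : Geo σ1 κ} {G2 : Geo σ2 κ} {I : ℕ → Finset (ℕ × ℝ)} {lev : ℕ → ℚ → ℕ} {A : ℕ → ℝ}

/-- one test set: the transfer of the bound, with the sign of the value. -/
theorem one_cov {e D X : ℝ} (he : 1 ≤ e) (hD : 0 < D) {n i : ℕ} {J : ℤ} {s : σ2} {T : Finset ℕ}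
    (hc : ∃ s' : σ1, G1.adm n i J s' ∧ G1.val n i J s' ≤ e * G2.val n i J s ∧
      ∃ T' : Finset ℕ, T' ⊆ T ∧ (∀ t ∈ T', G1.mem n i J s' t) ∧ (T.card : ℝ) ≤ e * (T'.card : ℝ))
    (h : ∀ s', G1.adm n i J s' → ∀ T' : Finset ℕ, T' ⊆ T → (∀ t ∈ T', G1.mem n i J s' t) →
      (T'.card : ℝ) ≤ D * G1.val n i J s') (hX : e * e ≤ X) :
    (T.card : ℝ) ≤ X * D * G2.val n i J s := by
  obtain ⟨s', h1, h2, T', h3, h4, h5⟩ := hc
  have h6 := h s' h1 T' h3 h4
  have e0 : 0 ≤ e := by linarith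
  have v1 : 0 ≤ G1.val n i J s' := by
    by_contra hneg
    have h7 : D * G1.val n i J s' < 0 := mul_neg_of_pos_of_neg hD (not_le.1 hneg)
    have h8 : (0:ℝ) ≤ T'.card := Nat.cast_nonneg _
    linarith
  have v2 : 0 ≤ G2.val n i J s := nonneg_of_mul_nonneg_right (v1.trans h2) (by linarith)
  calc (T.card : ℝ) ≤ e * (T'.card : ℝ) := h5
    _ ≤ e * (D * G1.val n i J s') := mul_le_mul_of_nonneg_left h6 e0
    _ ≤ e * (D * (e * G2.val n i J s)) := by gcongr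
    _ = (e * e) * D * G2.val n i J s := by ring
    _ ≤ _ := by gcongr

open Classical in
/-- D-max for `G1` gives D-max for `G2` -/
theorem mkA_cov (hc : CovP π K0 lo L G1 G2) (hK0 : 1 ≤ K0)
    (hL : ∀ᶠ n in (U : Filter ℕ), ∀ x ∈ I n, x.1 ∈ L n)
    (hlo : ∀ᶠ n in (U : Filter ℕ), lo n ≤ lev n 0)
    {c Λ : ℝ → ℝ} {τ : κ → ℝ → ℝ} {f : ℕ → ℚ → ℕ → ℤ → ℕ} {b : ℕ → ℚ → ℕ → σ1}
    {vm : ℕ → ℚ → ℝ} {w : κ → ℕ → ℚ → ℝ} (h : MkA B I G1 lev A c Λ τ f b vm w)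
    (hmark : ∀ v : ℚ, 0 ≤ v → v ≤ 1 → ∀ᶠ n in (U : Filter ℕ), ∀ J : ℤ,
      ∀ t ∈ alive (I n) (lev n v) J, G1.adm n (lev n v) J (b n v (f n v t J)) →
        G2.adm n (lev n v) J (π (b n v (f n v t J)))) :
    MkA B I G2 lev A c Λ τ f (fun n v i => π (b n v i)) vm w where
  ne := h.ne
  card := h.card
  Apos := h.Apos
  c0 := h.c0
  lam0 := h.lam0
  lam := h.lam
  tau1 := h.tau1
  lev_mono := h.lev_mono
  lev_lim := h.lev_lim
  cell0 := h.cell0
  one := h.one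
  own := h.own
  dmax := by
    intro v hv0 hv1 ε hε
    filter_upwards [ev_const_le B (K0 * K0) (show 0 < ε / 2 by positivity),
      h.dmax v hv0 hv1 (ε / 2) (by positivity), hlo, h.lev_mono 0 v le_rfl hv0 hv1, hL, hc.cov]
      with n h1 h2 h3 h4 h6 h7
    intro J s hs
    have hA : 0 < ampA B A c n v := mul_pos (h.Apos n) (Real.rpow_pos_of_pos (B.pos n) _)
    have hp : 0 < B.d n ^ (-(ε / 2)) := Real.rpow_pos_of_pos (B.pos n) _
    have hTL : ((alive (I n) (lev n v) J).filter fun t => G2.mem n (lev n v) J s t) ⊆ L n := by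
      intro t ht
      obtain ⟨x, hx, hx1, -⟩ := mem_alive.1 (mem_filter.1 ht).1
      rw [← hx1]; exact h6 x hx
    have h5 := one_cov (G1 := G1) (G2 := G2) (D := B.d n ^ (-(ε / 2)) * ampA B A c n v)
      hK0 (by positivity)
      (h7 (lev n v) (h3.trans h4) J s hs
        ((alive (I n) (lev n v) J).filter fun t => G2.mem n (lev n v) J s t) hTL
        (fun t ht => (mem_filter.1 ht).2))
      (fun s' hs' T' hT' hm => by
        refine le_trans (Nat.cast_le.2 (card_le_card fun t ht => ?_)) (h2 J s' hs')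
        exact mem_filter.2 ⟨(mem_filter.1 (hT' ht)).1, hm t ht⟩) h1
    refine h5.trans (le_of_eq ?_)
    rw [← rpow_half n (ε := ε)]
    ring
  mark := by
    intro v hv0 hv1
    filter_upwards [h.mark v hv0 hv1, hmark v hv0 hv1] with n h1 h2
    intro J t ht
    obtain ⟨k1, k2, k3, k4⟩ := h1 J t ht
    exact ⟨hc.mem _ _ _ _ k2 _ k1, h2 J t ht k2, by rw [hc.val _ _ _ _ k2]; exact k3,
      fun j => by rw [hc.wid _ _ _ _ k2]; exact k4 j⟩
  near := h.near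
  vpos := h.vpos
  wpos := h.wpos
  tau := h.tau

open Classical in
theorem allD_cov (hc : CovP π K0 lo L G1 G2) (hK0 : 1 ≤ K0)
    (hL : ∀ᶠ n in (U : Filter ℕ), ∀ x ∈ I n, x.1 ∈ L n)
    (hlo : ∀ᶠ n in (U : Filter ℕ), lo n ≤ lev n 0)
    (hA : ∀ n, 0 < A n) {g : ℝ} (h : AllD B I G1 lev A g) : AllD B I G2 lev A g := by
  intro ε hε
  filter_upwards [ev_const_le B (K0 * K0) (show 0 < ε / 2 by positivity),
    h (ε / 2) (by positivity), hlo, hL, hc.cov] with n h1 h2 h3 h6 h7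
  intro i hi0 hi1 J s hs
  have hAn := hA n
  have hp : 0 < B.d n ^ (-(ε / 2)) := Real.rpow_pos_of_pos (B.pos n) _
  have hTL : ((alive (I n) i J).filter fun t => G2.mem n i J s t) ⊆ L n := by
    intro t ht
    obtain ⟨x, hx, hx1, -⟩ := mem_alive.1 (mem_filter.1 ht).1
    rw [← hx1]; exact h6 x hx
  have h5 := one_cov (G1 := G1) (G2 := G2)
    (D := B.d n ^ (-(ε / 2)) * (A n * 2 ^ (g * ((i : ℝ) - lev n 0)))) hK0 (by positivity)
    (h7 i (h3.trans hi0) J s hs ((alive (I n) i J).filter fun t => G2.mem n i J s t) hTL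
      (fun t ht => (mem_filter.1 ht).2))
    (fun s' hs' T' hT' hm => by
      refine le_trans (Nat.cast_le.2 (card_le_card fun t ht => ?_)) (h2 i hi0 hi1 J s' hs')
      exact mem_filter.2 ⟨(mem_filter.1 (hT' ht)).1, hm t ht⟩) h1
  refine h5.trans (le_of_eq ?_)
  rw [← rpow_half n (ε := ε)]
  ring

/-- the conclusion of `DeepP` for one level, part and loss. -/
def DBody {σ κ : Type} (B : Base) (G : Geo σ κ) (lev : ℕ → ℚ → ℕ) (A : ℕ → ℝ) (g : ℝ)
    (v : ℚ) (m : ℕ → ℕ) (J : ℕ → Finset (ℕ × ℝ)) (ε : ℝ) : Prop :=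
  open Classical in
  ∃ P : ℕ → Finset (ℕ × ℤ), (∀ n, P n ⊆ extO (J n) (lev n 1) (m n)) ∧
    (∃ γ : ℝ, 0 < γ ∧ ∀ᶠ n in (U : Filter ℕ), ((extO (J n) (lev n 1) (m n)).card : ℝ) ≤
      (P n).card + B.d n ^ γ * (extO (J n) (lev n 1) (m n)).card) ∧
    ∀ᶠ n in (U : Filter ℕ), ∀ (j : ℤ) (s : σ), G.adm n (m n) j s →
      (((P n).filter fun o => o.2 = j ∧ G.mem n (m n) j s o.1).card : ℝ) ≤
        B.d n ^ (-ε) * (A n * B.d n ^ (-(g * v))) *
          2 ^ ((g + ε) * ((m n : ℝ) - lev n v)) * G.val n (m n) j s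

open Classical in
theorem dbody_cov (hc : CovP π K0 lo L G1 G2) (hK0 : 1 ≤ K0)
    (hL : ∀ᶠ n in (U : Filter ℕ), ∀ x ∈ I n, x.1 ∈ L n)
    (hlo : ∀ᶠ n in (U : Filter ℕ), lo n ≤ lev n 0)
    (hmono : ∀ v : ℚ, 0 ≤ v → v ≤ 1 → ∀ᶠ n in (U : Filter ℕ), lev n 0 ≤ lev n v)
    (hA : ∀ n, 0 < A n) {g : ℝ} {v : ℚ} (hv0 : 0 ≤ v) (hv1 : v ≤ 1) {m : ℕ → ℕ}
    (hm : ∀ᶠ n in (U : Filter ℕ), lev n v ≤ m n) {J : ℕ → Finset (ℕ × ℝ)} (hJ : Dense B J I)
    {ε : ℝ} (hε : 0 < ε) (h : DBody B G1 lev A g v m J (ε / 2)) : DBody B G2 lev A g v m J ε := by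
  obtain ⟨P, hP1, hP2, hP3⟩ := h
  refine ⟨P, hP1, hP2, ?_⟩
  filter_upwards [ev_const_le B (K0 * K0) (show 0 < ε / 2 by positivity), hP3, hlo,
    hmono v hv0 hv1, hm, hL, hJ.1, hc.cov] with n h1 h2 h3 h4 h6 h7 hJI h8
  intro j s hs
  have hAn := hA n
  have hp : 0 < B.d n ^ (-(ε / 2)) := Real.rpow_pos_of_pos (B.pos n) _
  have hpv : 0 < B.d n ^ (-(g * v)) := Real.rpow_pos_of_pos (B.pos n) _
  have key : ∀ Q : Finset (ℕ × ℤ), (∀ o ∈ Q, o.2 = j) → (Q.image Prod.fst).card = Q.card := by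
    intro Q hQ
    refine card_image_of_injOn fun o ho o' ho' hoo => ?_
    exact Prod.ext hoo ((hQ o ho).trans (hQ o' ho').symm)
  have hPL : ∀ o ∈ P n, o.1 ∈ L n := by
    intro o ho
    have h8 := hP1 n ho
    rcases le_total (m n) (lev n 1) with h9 | h9
    · rw [mem_extO_le h9] at h8
      obtain ⟨x, hx, rfl⟩ := h8
      exact h7 x (hJI hx)
    · rw [mem_extO_ge h9] at h8
      obtain ⟨x, hx, hxo⟩ := h8
      have : x.1 = o.1 := (Prod.ext_iff.1 hxo).1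
      rw [← this]
      exact h7 x (hJI hx)
  set Q := (P n).filter fun o => o.2 = j ∧ G2.mem n (m n) j s o.1 with hQ
  have h5 := one_cov (G1 := G1) (G2 := G2) (T := Q.image Prod.fst)
    (D := B.d n ^ (-(ε / 2)) * (A n * B.d n ^ (-(g * v))) *
      2 ^ ((g + ε / 2) * ((m n : ℝ) - lev n v))) hK0 (by positivity)
    (h8 (m n) (h3.trans (h4.trans h6)) j s hs (Q.image Prod.fst) (fun t ht => by
      obtain ⟨o, ho, rfl⟩ := mem_image.1 ht
      exact hPL o (mem_filter.1 ho).1) (fun t ht => by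
      obtain ⟨o, ho, rfl⟩ := mem_image.1 ht
      exact (mem_filter.1 ho).2.2))
    (fun s' hs' T' hT' hmm => by
      refine le_trans ?_ (h2 j s' hs')
      have e1 : T'.card = ((T'.image fun t => (t, j)).card) := by
        rw [card_image_of_injective]
        intro a b hab
        exact (Prod.ext_iff.1 hab).1
      rw [e1]
      refine Nat.cast_le.2 (card_le_card fun o ho => ?_)
      obtain ⟨t, ht, rfl⟩ := mem_image.1 ho
      obtain ⟨o', ho', hoo⟩ := mem_image.1 (hT' ht)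
      rw [hQ, mem_filter] at ho'
      have e2 : o' = (t, j) := Prod.ext hoo ho'.2.1
      rw [mem_filter, ← e2]
      refine ⟨ho'.1, ho'.2.1, ?_⟩
      rw [e2]; exact hmm t ht) h1
  rw [key Q (fun o ho => (mem_filter.1 ho).2.1)] at h5
  have hmv : (lev n v : ℝ) ≤ m n := by exact_mod_cast h6
  have e3 : (2:ℝ) ^ ((g + ε / 2) * ((m n : ℝ) - lev n v)) ≤
      2 ^ ((g + ε) * ((m n : ℝ) - lev n v)) := by
    refine Real.rpow_le_rpow_of_exponent_le (by norm_num) ?_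
    nlinarith
  have hv : 0 ≤ G2.val n (m n) j s := by
    have hX : 0 < B.d n ^ (-(ε / 2)) * (B.d n ^ (-(ε / 2)) * (A n * B.d n ^ (-(g * v))) *
      2 ^ ((g + ε / 2) * ((m n : ℝ) - lev n v))) := by positivity
    have h9 : (0:ℝ) ≤ (Q.card : ℝ) := Nat.cast_nonneg _
    by_contra hneg
    have h10 := mul_neg_of_pos_of_neg hX (not_le.1 hneg)
    linarith
  calc ((Q.card : ℕ) : ℝ) ≤ B.d n ^ (-(ε / 2)) * (B.d n ^ (-(ε / 2)) *
        (A n * B.d n ^ (-(g * v))) * 2 ^ ((g + ε / 2) * ((m n : ℝ) - lev n v))) *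
          G2.val n (m n) j s := h5
    _ ≤ B.d n ^ (-(ε / 2)) * (B.d n ^ (-(ε / 2)) * (A n * B.d n ^ (-(g * v))) *
        2 ^ ((g + ε) * ((m n : ℝ) - lev n v))) * G2.val n (m n) j s := by gcongr
    _ = (B.d n ^ (-(ε / 2)) * B.d n ^ (-(ε / 2))) * (A n * B.d n ^ (-(g * v))) *
        2 ^ ((g + ε) * ((m n : ℝ) - lev n v)) * G2.val n (m n) j s := by ring
    _ = _ := by rw [rpow_half n (ε := ε)]

end

end Crest.Agent.R136.Lz627
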