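import Mathlib
import Crest.Agent.R136.Lz3_627
import Crest.Agent.R136.Deep4_770

/-!
# R136 (helper823): deep D-max, iteration of 770's step, all marked levels

* `StepK` : one step (770's `deep_stepK`): from the bottom level `m0` to the level `m`, room
  `m0 - lev 0 ≤ m - m0 ≤ K (m0 - lev 0)`;
* `dbody_shallow` : levels at most `lev n 1`, from `AllD`;
* `dbody_v` : all `v` from `v = 0`;
* `dbody_all` : `AllD`, `StepK` (`K ≥ 2`) ⊢ `DBody` at every level `m ≤ lev 1 + C L`, every `v`.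
-/

set_option autoImplicit false
set_option linter.unusedVariables false
set_option linter.unusedSectionVars false

open Finset Filter Topology

namespace Crest.Agent.R136.Dit823

open Crest.Agent.R138.Ex926 Crest.Agent.R138.Dp76
open Crest.Agent.R138.Mk163 (zc zl rho alive own)
open Crest.Agent.R136.MkA627 (Geo)
open Crest.Agent.R136.Dia770 (AllD extO deepP_shallow d_exp two_exp)
open Crest.Agent.R136.Lz627 (DBody)

variable {σ κ : Type}

/-- one step of the deep D-max -/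
def StepK (B : Base) (I : ℕ → Finset (ℕ × ℝ)) (G : Geo σ κ) (lev : ℕ → ℚ → ℕ) (A : ℕ → ℝ) (g : ℝ)
    (Q : ℕ → ℕ → Prop) (K : ℕ) : Prop :=
  ∀ m0 m : ℕ → ℕ, (∀ᶠ n in (U : Filter ℕ), lev n 1 < m n) →
    (∀ᶠ n in (U : Filter ℕ), lev n 0 < m0 n) →
    (∀ᶠ n in (U : Filter ℕ), m n - m0 n ≤ K * (m0 n - lev n 0)) →
    (∀ᶠ n in (U : Filter ℕ), m0 n - lev n 0 ≤ m n - m0 n) →
    (∃ C : ℝ, ∀ᶠ n in (U : Filter ℕ), (m n : ℝ) ≤ lev n 1 + C * B.L n) →
    (∀ᶠ n in (U : Filter ℕ), Q n (m n)) →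
    ∀ J : ℕ → Finset (ℕ × ℝ), Dense B J I →
      (∀ ε : ℝ, 0 < ε → DBody B G lev A g 0 m0 J ε) →
        ∀ ε : ℝ, 0 < ε → DBody B G lev A g 0 m J ε

section

variable {B : Base} {I : ℕ → Finset (ℕ × ℝ)} {G : Geo σ κ} {lev : ℕ → ℚ → ℕ} {A : ℕ → ℝ} {g : ℝ}

/-- levels at most `lev n 1` -/
theorem dbody_shallow (Apos : ∀ n, 0 < A n) (g0 : 0 ≤ g)
    (lev_mono : ∀ u v : ℚ, 0 ≤ u → u ≤ v → v ≤ 1 → ∀ᶠ n in (U : Filter ℕ), lev n u ≤ lev n v)
    (lev_lim : ∀ u v : ℚ, 0 ≤ u → u ≤ v → v ≤ 1 →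
      Tendsto (fun n => ((lev n v : ℝ) - lev n u) * Real.log 2 / B.L n) U (𝓝 ((v : ℝ) - u)))
    (alld : AllD B I G lev A g) (hv : ∀ n i J s, G.adm n i J s → 0 ≤ G.val n i J s)
    {v : ℚ} (hv0 : 0 ≤ v) (hv1 : v ≤ 1) {m : ℕ → ℕ}
    (hm : ∀ᶠ n in (U : Filter ℕ), lev n v ≤ m n) (hm1 : ∀ᶠ n in (U : Filter ℕ), m n ≤ lev n 1)
    {J : ℕ → Finset (ℕ × ℝ)} (hJ : Dense B J I) {ε : ℝ} (hε : 0 < ε) :
    DBody B G lev A g v m J ε := by
  classical
  refine ⟨fun n => extO (J n) (lev n 1) (m n), fun n => Finset.Subset.refl _,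
    ⟨1, one_pos, Filter.Eventually.of_forall fun n => ?_⟩, ?_⟩
  · have h1 : 0 ≤ B.d n ^ (1:ℝ) * ((extO (J n) (lev n 1) (m n)).card : ℝ) :=
      mul_nonneg (Real.rpow_nonneg (B.pos n).le _) (Nat.cast_nonneg _)
    linarith
  · filter_upwards [deepP_shallow B Apos g0 lev_mono lev_lim alld hv hv0 hv1 hm hm1 hJ hε]
      with n h1 j s hs
    refine le_trans (le_of_eq ?_) (h1 j s hs)
    congr

/-- inequality -/
theorem num_v {ℓ L g ε v x y A : ℝ} (hA : 0 < A) (hg : 0 ≤ g) (hε : 0 < ε) (hℓ : 0 < ℓ)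
    (hL : 0 < L) (hx : 0 ≤ x) (hv0 : 0 ≤ v) (hv1 : v ≤ 1)
    (hy : y * ℓ ≤ (v + ε / (2 * (g + ε + 1))) * L) :
    Real.exp (ε / 4 * L) * A * Real.exp ((g + ε / 4) * (x + y) * ℓ) ≤
      Real.exp (ε * L) * (A * Real.exp (g * v * L)) * Real.exp ((g + ε) * x * ℓ) := by
  have e1 : Real.exp (ε / 4 * L) * A * Real.exp ((g + ε / 4) * (x + y) * ℓ) =
      A * Real.exp (ε / 4 * L + (g + ε / 4) * (x + y) * ℓ) := by rw [Real.exp_add]; ring
  have e2 : Real.exp (ε * L) * (A * Real.exp (g * v * L)) * Real.exp ((g + ε) * x * ℓ) =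
      A * Real.exp (ε * L + g * v * L + (g + ε) * x * ℓ) := by
    rw [Real.exp_add, Real.exp_add]; ring
  rw [e1, e2]
  refine mul_le_mul_of_nonneg_left (Real.exp_le_exp.2 ?_) hA.le
  have h1 : (g + ε / 4) * (y * ℓ) ≤ (g + ε / 4) * ((v + ε / (2 * (g + ε + 1))) * L) :=
    mul_le_mul_of_nonneg_left hy (by positivity)
  have h2 : (g + ε / 4) * (ε / (2 * (g + ε + 1))) ≤ ε / 2 := by
    rw [mul_div_assoc', div_le_div_iff₀ (by positivity) (by norm_num)]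
    nlinarith [mul_pos hε hε, mul_nonneg hg hε.le]
  have h3 : (g + ε / 4) * (ε / (2 * (g + ε + 1))) * L ≤ ε / 2 * L :=
    mul_le_mul_of_nonneg_right h2 hL.le
  have h4 : ε / 4 * (v * L) ≤ ε / 4 * (1 * L) :=
    mul_le_mul_of_nonneg_left (mul_le_mul_of_nonneg_right hv1 hL.le) (by positivity)
  have h5 : 0 ≤ ε * x * ℓ := by positivity
  nlinarith

/-- all `v` from `v = 0` -/
theorem dbody_v (Apos : ∀ n, 0 < A n) (g0 : 0 ≤ g)
    (lev_mono : ∀ u v : ℚ, 0 ≤ u → u ≤ v → v ≤ 1 → ∀ᶠ n in (U : Filter ℕ), lev n u ≤ lev n v)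
    (lev_lim : ∀ u v : ℚ, 0 ≤ u → u ≤ v → v ≤ 1 →
      Tendsto (fun n => ((lev n v : ℝ) - lev n u) * Real.log 2 / B.L n) U (𝓝 ((v : ℝ) - u)))
    (hv : ∀ n i J s, G.adm n i J s → 0 ≤ G.val n i J s)
    {v : ℚ} (hv0 : 0 ≤ v) (hv1 : v ≤ 1) {m : ℕ → ℕ} (hm : ∀ᶠ n in (U : Filter ℕ), lev n v ≤ m n)
    {J : ℕ → Finset (ℕ × ℝ)} {ε : ℝ} (hε : 0 < ε) (h : DBody B G lev A g 0 m J (ε / 4)) :
    DBody B G lev A g v m J ε := by
  classical
  obtain ⟨P, hP, hP1, hP2⟩ := h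
  refine ⟨P, hP, hP1, ?_⟩
  have hv' : (0:ℝ) ≤ v := by exact_mod_cast hv0
  have hv'' : (v:ℝ) ≤ 1 := by exact_mod_cast hv1
  have he : 0 < ε / (2 * (g + ε + 1)) := by positivity
  have hlim : ∀ᶠ n in (U : Filter ℕ), ((lev n v : ℝ) - lev n 0) * Real.log 2 / B.L n <
      v + ε / (2 * (g + ε + 1)) := by
    have h1 := lev_lim 0 v le_rfl hv0 hv1
    refine h1.eventually (Iio_mem_nhds ?_)
    have : ((0:ℚ) : ℝ) = 0 := by norm_num
    rw [this]; linarith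
  filter_upwards [hP2, hm, hlim] with n a1 a2 a3 j s hs
  refine (a1 j s hs).trans (mul_le_mul_of_nonneg_right ?_ (hv _ _ _ _ hs))
  have hL := B.L_pos n
  have hℓ : (0:ℝ) < Real.log 2 := Real.log_pos one_lt_two
  rw [div_lt_iff₀ hL] at a3
  have h4 := num_v (ℓ := Real.log 2) (L := B.L n) (g := g) (ε := ε) (v := v)
    (x := (m n : ℝ) - lev n v) (y := (lev n v : ℝ) - lev n 0) (A := A n) (Apos n) g0 hε hℓ hL
    (by rw [sub_nonneg]; exact_mod_cast a2) hv' hv'' a3.le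
  have e1 : (m n : ℝ) - lev n v + ((lev n v : ℝ) - lev n 0) = (m n : ℝ) - lev n 0 := by ring
  rw [e1] at h4
  have e2 : B.d n ^ (-(ε / 4)) = Real.exp (ε / 4 * B.L n) := by rw [d_exp]; congr 1; ring
  have e3 : B.d n ^ (-ε) = Real.exp (ε * B.L n) := by rw [d_exp]; congr 1; ring
  have e4 : B.d n ^ (-(g * v)) = Real.exp (g * v * B.L n) := by rw [d_exp]; congr 1; ring
  rw [← two_exp, ← two_exp, ← e2, ← e3, ← e4] at h4
  refine le_trans (le_of_eq ?_) h4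
  have e5 : (-(g * ((0:ℚ) : ℝ))) = 0 := by norm_num
  rw [e5, Real.rpow_zero, mul_one]

/-- the iteration at `v = 0` -/
theorem dbody_iter (Apos : ∀ n, 0 < A n) (g0 : 0 ≤ g)
    (lev_mono : ∀ u v : ℚ, 0 ≤ u → u ≤ v → v ≤ 1 → ∀ᶠ n in (U : Filter ℕ), lev n u ≤ lev n v)
    (lev_lim : ∀ u v : ℚ, 0 ≤ u → u ≤ v → v ≤ 1 →
      Tendsto (fun n => ((lev n v : ℝ) - lev n u) * Real.log 2 / B.L n) U (𝓝 ((v : ℝ) - u)))
    (alld : AllD B I G lev A g) (hv : ∀ n i J s, G.adm n i J s → 0 ≤ G.val n i J s)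
    {Q : ℕ → ℕ → Prop} (hQm : ∀ n i j, i ≤ j → Q n j → Q n i) {K : ℕ} (hK : 2 ≤ K)
    (hstep : StepK B I G lev A g Q K) {J : ℕ → Finset (ℕ × ℝ)} (hJ : Dense B J I) (k : ℕ) :
    ∀ m : ℕ → ℕ, (∀ᶠ n in (U : Filter ℕ), lev n 0 ≤ m n) →
      (∀ᶠ n in (U : Filter ℕ), m n - lev n 0 ≤ 2 ^ k * (lev n 1 - lev n 0)) →
      (∃ C : ℝ, ∀ᶠ n in (U : Filter ℕ), (m n : ℝ) ≤ lev n 1 + C * B.L n) →
      (∀ᶠ n in (U : Filter ℕ), Q n (m n)) →
        ∀ ε : ℝ, 0 < ε → DBody B G lev A g 0 m J ε := by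
  induction k with
  | zero =>
    intro m h1 h2 _ _ ε hε
    refine dbody_shallow Apos g0 lev_mono lev_lim alld hv le_rfl (by norm_num) h1 ?_ hJ hε
    filter_upwards [h1, h2, lev_mono 0 1 le_rfl (by norm_num) le_rfl] with n a1 a2 a3
    simp only [pow_zero, one_mul] at a2
    omega
  | succ k ih =>
    intro m h1 h2 h3 h4 ε hε
    rcases Ultrafilter.em U (fun n => m n ≤ lev n 1) with h5 | h5
    · exact dbody_shallow Apos g0 lev_mono lev_lim alld hv le_rfl (by norm_num) h1 h5 hJ hε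
    · have h5' : ∀ᶠ n in (U : Filter ℕ), lev n 1 < m n := by
        filter_upwards [h5] with n hn
        exact not_le.1 hn
      have hbig : ∀ᶠ n in (U : Filter ℕ), lev n 0 + 1 ≤ lev n 1 := by
        have h6 := lev_lim 0 1 le_rfl (by norm_num) le_rfl
        have h7 : ∀ᶠ n in (U : Filter ℕ), (1/2 : ℝ) <
            ((lev n 1 : ℝ) - lev n 0) * Real.log 2 / B.L n := by
          refine h6.eventually (Ioi_mem_nhds ?_)
          norm_num
        filter_upwards [h7] with n hn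
        have hL := B.L_pos n
        rw [lt_div_iff₀ hL] at hn
        by_contra hcon
        have h8 : lev n 1 ≤ lev n 0 := by omega
        have h9 : (lev n 1 : ℝ) ≤ lev n 0 := by exact_mod_cast h8
        have hℓ : (0:ℝ) < Real.log 2 := Real.log_pos one_lt_two
        have h10 : ((lev n 1 : ℝ) - lev n 0) * Real.log 2 ≤ 0 :=
          mul_nonpos_of_nonpos_of_nonneg (by linarith) hℓ.le
        linarith
      obtain ⟨C, hC⟩ := h3
      refine hstep (fun n => lev n 0 + (m n - lev n 0) / 2) m h5' ?_ ?_ ?_ ⟨C, hC⟩ h4 J hJ ?_ ε hε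
      · filter_upwards [h5', hbig] with n a1 a2
        omega
      · filter_upwards [h5', hbig] with n a1 a2
        have e1 : lev n 0 + (m n - lev n 0) / 2 - lev n 0 = (m n - lev n 0) / 2 := by omega
        rw [e1]
        refine le_trans ?_ (Nat.mul_le_mul_right _ hK)
        omega
      · filter_upwards [h5', hbig] with n a1 a2
        omega
      · refine ih _ ?_ ?_ ⟨C, ?_⟩ ?_
        · filter_upwards with n
          omega
        · filter_upwards [h2] with n a1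
          have e1 : lev n 0 + (m n - lev n 0) / 2 - lev n 0 = (m n - lev n 0) / 2 := by omega
          rw [e1]
          have e2 : 2 ^ (k + 1) * (lev n 1 - lev n 0) = 2 * (2 ^ k * (lev n 1 - lev n 0)) := by
            rw [pow_succ]; ring
          rw [e2] at a1
          omega
        · filter_upwards [hC, h1] with n a1 a2
          have h6 : lev n 0 + (m n - lev n 0) / 2 ≤ m n := by omega
          have h7 : ((lev n 0 + (m n - lev n 0) / 2 : ℕ) : ℝ) ≤ m n := by exact_mod_cast h6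
          exact h7.trans a1
        · filter_upwards [h4, h1] with n a1 a2
          exact hQm n _ _ (by omega) a1

/-- **deep D-max from one step** : all levels `m ≤ lev 1 + C L`, all `v`. -/
theorem dbody_all (Apos : ∀ n, 0 < A n) (g0 : 0 ≤ g)
    (lev_mono : ∀ u v : ℚ, 0 ≤ u → u ≤ v → v ≤ 1 → ∀ᶠ n in (U : Filter ℕ), lev n u ≤ lev n v)
    (lev_lim : ∀ u v : ℚ, 0 ≤ u → u ≤ v → v ≤ 1 →
      Tendsto (fun n => ((lev n v : ℝ) - lev n u) * Real.log 2 / B.L n) U (𝓝 ((v : ℝ) - u)))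
    (alld : AllD B I G lev A g) (hv : ∀ n i J s, G.adm n i J s → 0 ≤ G.val n i J s)
    {Q : ℕ → ℕ → Prop} (hQm : ∀ n i j, i ≤ j → Q n j → Q n i) {K : ℕ} (hK : 2 ≤ K)
    (hstep : StepK B I G lev A g Q K) {v : ℚ} (hv0 : 0 ≤ v) (hv1 : v ≤ 1) {m : ℕ → ℕ}
    (hm : ∀ᶠ n in (U : Filter ℕ), lev n v ≤ m n)
    (hC : ∃ C : ℝ, ∀ᶠ n in (U : Filter ℕ), (m n : ℝ) ≤ lev n 1 + C * B.L n)
    (hQ : ∀ᶠ n in (U : Filter ℕ), Q n (m n)) {J : ℕ → Finset (ℕ × ℝ)} (hJ : Dense B J I)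
    {ε : ℝ} (hε : 0 < ε) : DBody B G lev A g v m J ε := by
  have hm0 : ∀ᶠ n in (U : Filter ℕ), lev n 0 ≤ m n := by
    filter_upwards [hm, lev_mono 0 v le_rfl hv0 hv1] with n a1 a2
    exact a2.trans a1
  obtain ⟨C, hC⟩ := hC
  obtain ⟨k, hk⟩ := pow_unbounded_of_one_lt (1 + 2 * |C|) (one_lt_two)
  refine dbody_v Apos g0 lev_mono lev_lim hv hv0 hv1 hm hε
    (dbody_iter Apos g0 lev_mono lev_lim alld hv hQm hK hstep hJ k m hm0 ?_ ⟨C, hC⟩ hQ (ε / 4)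
      (by positivity))
  have h6 := lev_lim 0 1 le_rfl (by norm_num) le_rfl
  have h7 : ∀ᶠ n in (U : Filter ℕ), (1/2 : ℝ) <
      ((lev n 1 : ℝ) - lev n 0) * Real.log 2 / B.L n := by
    refine h6.eventually (Ioi_mem_nhds ?_)
    norm_num
  filter_upwards [h7, hC, hm0, lev_mono 0 1 le_rfl (by norm_num) le_rfl] with n a1 a2 a3 a4
  have hL := B.L_pos n
  rw [lt_div_iff₀ hL] at a1
  have hℓ1 : Real.log 2 ≤ 1 := by
    have := Real.log_two_lt_d9
    linarith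
  have h8 : (0:ℝ) ≤ (lev n 1 : ℝ) - lev n 0 := by
    rw [sub_nonneg]; exact_mod_cast a4
  have h9 : ((lev n 1 : ℝ) - lev n 0) * Real.log 2 ≤ (lev n 1 : ℝ) - lev n 0 := by
    nlinarith
  have h10 : B.L n ≤ 2 * ((lev n 1 : ℝ) - lev n 0) := by linarith
  have h11 : C * B.L n ≤ |C| * (2 * ((lev n 1 : ℝ) - lev n 0)) :=
    (mul_le_mul_of_nonneg_right (le_abs_self C) hL.le).trans
      (mul_le_mul_of_nonneg_left h10 (abs_nonneg C))
  have h12 : (m n : ℝ) - lev n 0 ≤ 2 ^ k * ((lev n 1 : ℝ) - lev n 0) := by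
    calc (m n : ℝ) - lev n 0 ≤ (1 + 2 * |C|) * ((lev n 1 : ℝ) - lev n 0) := by linarith
      _ ≤ _ := mul_le_mul_of_nonneg_right hk.le h8
  have h13 : ((m n - lev n 0 : ℕ) : ℝ) ≤ ((2 ^ k * (lev n 1 - lev n 0) : ℕ) : ℝ) := by
    push_cast [Nat.cast_sub a3, Nat.cast_sub a4]
    exact h12
  exact_mod_cast h13

end

end Crest.Agent.R136.Dit823
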