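import Crest.Agent.R136.Lz7_627
import Crest.Agent.R136.AllD3_823
import Crest.Agent.R136.Yc1_953
import Crest.Agent.R136.Tq1_879

/-!
# R136 (S0187), U4, pure penalty, leaf (d) (helper627), part 8: the wrapper

* `is36_TS36` : helper879's class is the dyadic class of resolution `2^-R`.
* `OutR` : everything of `J1c` except the parameter inequalities, over `geoR` (= `geo4` of v3c).
* `DeepIn Ψ g θ` : the deep D-max over `geoP`, bounded relative depth (helper770).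
* **`out_of`** : `XOutF TT36 Ψ ψ κ g θ`, `LinAt Ψ θ g0 p` ⊢ `OutR` with rewards `p`, growth `g + g0`.
-/

set_option autoImplicit false
set_option linter.unusedVariables false
set_option linter.unusedSectionVars false

open Finset Filter Topology

namespace Crest.Agent.R136.Lz627

open Sh605 K4 KS879 En879 XA248 Win823 Cod289
open Crest.Agent.R138.Ex926 (Base U exists_diag exists_tendsto ev_em)
open Crest.Agent.R138.Dp76
open Crest.Agent.R138.Mk163 (zc zl rho alive own)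
open Crest.Agent.R138.MkRef627 (mem_alive)
open Crest.Agent.R136.MkA627
open Crest.Agent.R116.Xa794 (TS geo)
open Crest.Agent.R116.Xc794
open Crest.Agent.R116.Zl139
open Dia770 (AllD extO)
open Yc953 (XOutF)
open Tq879 (TS36 TT36)
open AllD823 (LipR allD_P)
open XIn823

theorem rho_le_one (i : ℕ) : rho i ≤ 1 := by
  unfold Crest.Agent.R138.Mk163.rho
  rw [div_le_one (by positivity)]
  exact one_le_pow₀ (by norm_num)

/-- the widths of an admissible sheet are at least the resolution and at most one -/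
theorem adm36_le {r : ℝ} {i : ℕ} {J : ℤ} {s : (Fin 3 → ℕ) × Plk4} (h : (TS36 r).adm i J s) :
    ∀ k, r ≤ wd s.2 k ∧ wd s.2 k ≤ 1 := by
  obtain ⟨h1, h2, h3⟩ := h
  have e1 := h1.r0_le
  have e2 := h1.a_le0
  have e3 := h1.w0_le
  have e4 := h1.w_le
  have e5 := rho_le_one i
  intro k
  fin_cases k
  · exact ⟨e1, by show s.2.a ≤ 1; linarith⟩
  · exact ⟨by show r ≤ s.2.w 1; linarith, by show s.2.w 1 ≤ 1; linarith⟩
  · exact ⟨by show r ≤ s.2.w 2; linarith, by show s.2.w 2 ≤ 1; linarith⟩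

/-- the class `TS36 r` is the dyadic class of resolution `2^-R`. -/
theorem is36_TS36 {r : ℝ} (hr : 0 < r) (h1 : r ≤ 1) : ∃ R : ℕ, Is36 (TS36 r) R := by
  obtain ⟨R, hR1, hR2⟩ := exists_nat_pow_near_of_lt_one hr h1 (show (0:ℝ) < 1 / 2 by norm_num)
    (show (1 / 2 : ℝ) < 1 by norm_num)
  refine ⟨R, ⟨fun i J s t => Iff.rfl, fun i J s => ⟨fun h => ?_, fun h => ?_⟩, fun i a => rfl⟩⟩
  · obtain ⟨k1, k2, k3⟩ := h
    refine ⟨⟨k1.ortho, k1.isQ, k1.a_le0, k1.w0_le, k1.w_le, ?_, k1.st0, k1.sl1, k1.sl2⟩, k2, k3⟩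
    have e1 : s.2.a = (1 / 2 : ℝ) ^ (s.1 0) := k3 0
    have e2 : (1 / 2 : ℝ) ^ (R + 1) < (1 / 2 : ℝ) ^ (s.1 0) := by
      rw [← e1]; exact hR1.trans_le k1.r0_le
    have e3 : s.1 0 < R + 1 := by
      by_contra hlt
      exact absurd e2 (not_lt.2 (pow_le_pow_of_le_one (by norm_num) (by norm_num) (not_lt.1 hlt)))
    rw [e1]
    exact pow_le_pow_of_le_one (by norm_num) (by norm_num) (Nat.lt_succ_iff.1 e3)
  · obtain ⟨k1, k2, k3⟩ := h
    exact ⟨⟨k1.ortho, k1.isQ, k1.a_le0, k1.w0_le, k1.w_le, hR2.trans k1.r0_le, k1.st0, k1.sl1,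
      k1.sl2⟩, k2, k3⟩

/-- the resolution is bounded by the bound of the exponents. -/
theorem res_le {T : TS Ln4 (Fin 3) Plk4} {R N : ℕ} (hT : Is36 T R)
    (hN : ∀ i J s, T.adm i J s → ∀ j, s.1 j ≤ N) {i : ℕ} {J : ℤ} {s : (Fin 3 → ℕ) × Plk4}
    (hs : T.adm i J s) : R ≤ N := by
  obtain ⟨k1, k2, k3⟩ := (hT.adm i J s).1 hs
  set s' : (Fin 3 → ℕ) × Plk4 := (![R, s.1 1, s.1 2], { s.2 with a := (1 / 2 : ℝ) ^ R }) with hs'
  have h1 : T.adm i J s' := by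
    refine (hT.adm i J s').2 ⟨⟨k1.ortho, k1.isQ, k1.r0_le.trans k1.a_le0, k1.w0_le, k1.w_le, le_rfl,
      k1.st0, k1.sl1, k1.sl2⟩, k2, fun k => ?_⟩
    fin_cases k
    · rfl
    · exact k3 1
    · exact k3 2
  exact hN i J s' h1 0

section congr

variable {σ κ : Type} {B : Base} {I : ℕ → Finset (ℕ × ℝ)} {G G' : Geo σ κ}
    {lev : ℕ → ℚ → ℕ} {A : ℕ → ℝ} {c Λ : ℝ → ℝ} {τ : κ → ℝ → ℝ}
    {f : ℕ → ℚ → ℕ → ℤ → ℕ} {b : ℕ → ℚ → ℕ → σ} {vm : ℕ → ℚ → ℝ} {w : κ → ℕ → ℚ → ℝ}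

/-- geometries which agree at almost all stages. -/
theorem mkA_congrG (h : MkA B I G lev A c Λ τ f b vm w)
    (hG : ∀ᶠ n in (U : Filter ℕ), G.mem n = G'.mem n ∧ G.adm n = G'.adm n ∧ G.val n = G'.val n)
    (hw : G.wid = G'.wid) : MkA B I G' lev A c Λ τ f b vm w where
  ne := h.ne
  card := h.card
  Apos := h.Apos
  c0 := h.c0
  lam0 := h.lam0
  lam := h.lam
  tau1 := h.tau1
  lev_mono := h.lev_mono
  lev_lim := h.lev_lim
  cell0 := h.cell0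
  one := h.one
  own := h.own
  dmax := by
    intro v hv0 hv1 ε hε
    filter_upwards [h.dmax v hv0 hv1 ε hε, hG] with n h1 h2 J s hs
    obtain ⟨e1, e2, e3⟩ := h2
    rw [← e1, ← e3]
    rw [← e2] at hs
    exact h1 J s hs
  mark := by
    intro v hv0 hv1
    filter_upwards [h.mark v hv0 hv1, hG] with n h1 h2 J t ht
    obtain ⟨e1, e2, e3⟩ := h2
    rw [← e1, ← e2, ← e3, ← hw]
    exact h1 J t ht
  near := h.near
  vpos := h.vpos
  wpos := h.wpos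
  tau := h.tau

end congr

/-- **the output** : everything of `J1c` except the parameter inequalities. -/
structure OutR (B : Base) (I : ℕ → Finset (ℕ × ℝ)) (L : ℕ → ℕ → Ln4) (r0 : ℕ → ℝ)
    (wr cr : Fin 3 → ℕ → ℝ) (lev : ℕ → ℚ → ℕ) (A : ℕ → ℝ) (f : ℕ → ℚ → ℕ → ℤ → ℕ)
    (b : ℕ → ℚ → ℕ → Plk4) (vm : ℕ → ℚ → ℝ) (w : Fin 3 → ℕ → ℚ → ℝ) (p θ : Fin 3 → ℝ) (g : ℝ) :
    Prop where
  mka : MkA B I (geoR L r0 wr cr p) lev A (fun v => g * v) (fun v => 0 * v)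
    (fun j v => θ j * (1 - v)) f b vm w
  alld : AllD B I (geoR L r0 wr cr p) lev A g
  deep : ∀ v : ℚ, 0 ≤ v → v ≤ 1 → ∀ m : ℕ → ℕ, (∀ᶠ n in (U : Filter ℕ), lev n v ≤ m n) →
    (∀ᶠ n in (U : Filter ℕ), r0 n ≤ rho (m n)) →
    (∃ C : ℝ, ∀ᶠ n in (U : Filter ℕ), (m n : ℝ) ≤ lev n 1 + C * B.L n) →
    ∀ J : ℕ → Finset (ℕ × ℝ), Dense B J I → ∀ ε : ℝ, 0 < ε →
      DBody B (geoR L r0 wr cr p) lev A g v m J ε
  wrs : ∀ (C : ℝ) (k : Fin 3) (v : ℚ), 0 ≤ v → v ≤ 1 → ∀ᶠ n in (U : Filter ℕ),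
    wr k n ≤ B.d n ^ C * w k n v ∧ w k n v ≤ B.d n ^ C * cr k n
  r0pos : ∀ n, 0 < r0 n
  r0log : ∀ ε : ℝ, 0 < ε → ∀ᶠ n in (U : Filter ℕ), Real.log (1 / r0 n) ≤ B.d n ^ (-ε)
  vel : ∀ᶠ n in (U : Filter ℕ), ∀ x ∈ I n, ∀ i, |(L n x.1).v i| ≤ 1

/-- **deep D-max over `geoP`** (helper770), bounded relative depth, for every sequence marked over
`geoP` whose depth is inside the big window. -/
def DeepIn (Ψ : ℝ → (Fin 3 → ℝ) → ℝ) (g : ℝ) (θ : Fin 3 → ℝ) : Prop :=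
  ∀ (B : Base) (I : ℕ → Finset (ℕ × ℝ)) (T : ℕ → TS Ln4 (Fin 3) Plk4) (L : ℕ → ℕ → Ln4)
    (mt : ℕ → ℕ) (atop : ℕ → Fin 3 → ℕ) (N : ℕ → ℕ) (lev : ℕ → ℚ → ℕ) (A : ℕ → ℝ)
    (f : ℕ → ℚ → ℕ → ℤ → ℕ) (b : ℕ → ℚ → ℕ → (Fin 3 → ℕ) × Plk4) (vm : ℕ → ℚ → ℝ)
    (w : Fin 3 → ℕ → ℚ → ℝ), (∀ n, T n ∈ TT36) →
    (∀ n i J s, (T n).adm i J s → ∀ j, s.1 j ≤ N n) →
    (∀ ε : ℝ, 0 < ε → ∀ᶠ n in (U : Filter ℕ), (N n : ℝ) ≤ B.d n ^ (-ε)) →
    MkA B I (geoP T Ψ mt atop L) lev A (fun v => g * v) (fun v => 0 * v)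
      (fun j v => θ j * (1 - v)) f b vm w →
    AllD B I (geoP T Ψ mt atop L) lev A g →
    (∀ C : ℝ, ∀ᶠ n in (U : Filter ℕ), (lev n 1 : ℝ) + C * B.L n ≤ mt n) →
    ∀ v : ℚ, 0 ≤ v → v ≤ 1 → ∀ m : ℕ → ℕ, (∀ᶠ n in (U : Filter ℕ), lev n v ≤ m n) →
      (∃ C : ℝ, ∀ᶠ n in (U : Filter ℕ), (m n : ℝ) ≤ lev n 1 + C * B.L n) →
      ∀ J : ℕ → Finset (ℕ × ℝ), Dense B J I → ∀ ε : ℝ, 0 < ε →
        DBody B (geoP T Ψ mt atop L) lev A g v m J ε

/-- **the end of the chain** : from the short window to `OutR`. -/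
theorem outR_of {B : Base} {I : ℕ → Finset (ℕ × ℝ)} {T : ℕ → TS Ln4 (Fin 3) Plk4} {R : ℕ → ℕ}
    {L : ℕ → ℕ → Ln4} {mt : ℕ → ℕ} {atop : ℕ → Fin 3 → ℕ} {N : ℕ → ℕ} {lev : ℕ → ℚ → ℕ}
    {A E A2 : ℕ → ℝ} {f : ℕ → ℚ → ℕ → ℤ → ℕ} {b : ℕ → ℚ → ℕ → (Fin 3 → ℕ) × Plk4}
    {vm vm2 : ℕ → ℚ → ℝ} {w : Fin 3 → ℕ → ℚ → ℝ} {Ψ : ℝ → (Fin 3 → ℝ) → ℝ} {g g0 : ℝ}
    {p θ : Fin 3 → ℝ} {K K1 : ℕ → ℝ} (hT : ∀ n, Is36 (T n) (R n))
    (hN : ∀ n i J s, (T n).adm i J s → ∀ j, s.1 j ≤ N n)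
    (hNd : ∀ ε : ℝ, 0 < ε → ∀ᶠ n in (U : Filter ℕ), (N n : ℝ) ≤ B.d n ^ (-ε))
    (h : MkA B I (geoP T Ψ mt atop L) lev A (fun v => g * v) (fun v => 0 * v)
      (fun j v => θ j * (1 - v)) f b vm w)
    (hE : ∀ n, 0 < E n) (hA2 : ∀ n, A2 n = A n * E n)
    (hcmp : Cmp B T Ψ mt atop lev w p g0 E K1) (hK1 : Tendsto K1 U atTop)
    (hK : Tendsto K U atTop) (hKK1 : ∀ᶠ n in (U : Filter ℕ), K n ≤ K1 n)
    (h2 : MkA B I (rgK B w K (geo T p L)) lev A2 (fun v => (g + g0) * v) (fun v => 0 * v)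
      (fun j v => θ j * (1 - v)) f b vm2 w)
    (hAll : AllD B I (geoP T Ψ mt atop L) lev A g)
    (hDeep : ∀ v : ℚ, 0 ≤ v → v ≤ 1 → ∀ m : ℕ → ℕ, (∀ᶠ n in (U : Filter ℕ), lev n v ≤ m n) →
      (∃ C : ℝ, ∀ᶠ n in (U : Filter ℕ), (m n : ℝ) ≤ lev n 1 + C * B.L n) →
      ∀ J : ℕ → Finset (ℕ × ℝ), Dense B J I → ∀ ε : ℝ, 0 < ε →
        DBody B (geoP T Ψ mt atop L) lev A g v m J ε) :
    OutR B I L (fun n => (1 / 2 : ℝ) ^ (R n)) (fun k n => B.d n ^ (K n - 1) * w k n 1)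
      (fun k n => B.d n ^ (-(K n - 1)) * w k n 1) lev A2 f (fun n v i => (b n v i).2) vm2 w p θ
      (g + g0) := by
  classical
  have hA2' : A2 = fun n => A n * E n := funext hA2
  have vel : ∀ᶠ n in (U : Filter ℕ), ∀ x ∈ I n, ∀ i, |(L n x.1).v i| ≤ 1 :=
    all_of_mem (P := fun n t => ∀ i, |(L n t).v i| ≤ 1) h
      (fun n i J s t hm => (((hT n).mem i J s (L n t)).1 hm).2)
  have hwp : ∀ᶠ n in (U : Filter ℕ), ∀ k, 0 < w k n 1 := by
    rw [Filter.eventually_all]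
    exact fun k => h.wpos k 1 zero_le_one le_rfl
  set Lc : ℕ → Finset ℕ := fun n => (I n).image Prod.fst with hLc
  have hv : ∀ᶠ n in (U : Filter ℕ), ∀ t ∈ Lc n, ∀ k, |(L n t).v k| ≤ 1 := by
    filter_upwards [vel] with n hn t ht
    obtain ⟨x, hx, rfl⟩ := mem_image.1 ht
    exact hn x hx
  have hLI : ∀ᶠ n in (U : Filter ℕ), ∀ x ∈ I n, x.1 ∈ Lc n :=
    Eventually.of_forall fun n x hx => mem_image_of_mem _ hx
  have hcov := cov36 (B := B) (L := L) (p := p) (w := w) (K := K) hT (Lc := Lc) hv hwp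
  have hK0 : 1 ≤ K0N p := K0N_ge p
  have hlo : ∀ᶠ n in (U : Filter ℕ), (fun _ : ℕ => 0) n ≤ lev n 0 :=
    Eventually.of_forall fun n => Nat.zero_le _
  have hl1 : Tendsto (fun n => ((lev n 1 : ℝ) - lev n 0) * Real.log 2 / B.L n) U (𝓝 1) := by
    have h1 := h.lev_lim 0 1 le_rfl zero_le_one le_rfl
    push_cast at h1
    rw [sub_zero] at h1
    exact h1
  have hlv : ∀ v : ℚ, 0 ≤ v → v ≤ 1 →
      Tendsto (fun n => ((lev n v : ℝ) - lev n 0) * Real.log 2 / B.L n) U (𝓝 (v : ℝ)) := by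
    intro v h0 h1
    have h3 := h.lev_lim 0 v le_rfl h0 h1
    push_cast at h3
    rw [sub_zero] at h3
    exact h3
  have hKm : Tendsto (fun n => K n - 1) U atTop := tendsto_atTop_add_const_right _ _ hK
  refine
    { mka := mkA_cov hcov hK0 hLI hlo h2 (fun v h0 h1 => mark36 hT hK rfl h2 v h0 h1)
      alld := ?_
      deep := ?_
      wrs := ?_
      r0pos := fun n => by positivity
      r0log := ?_
      vel := vel }
  · have h3 := allD_lin hcmp hE h.Apos hK1 hKK1 hwp hl1 hAll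
    rw [← hA2'] at h3
    exact allD_cov hcov hK0 hLI hlo h2.Apos h3
  · intro v h0 h1 m hm _ hmC J hJ ε hε
    obtain ⟨C, hC⟩ := hmC
    have h3 := hDeep v h0 h1 m hm ⟨C, hC⟩ J hJ (ε / 2 / 3) (by positivity)
    have h4 := dbody_lin hcmp hE h.Apos hK1 hKK1 hwp hl1 (hlv v h0 h1)
      (h.lev_mono 0 v le_rfl h0 h1) hm hC (ε := ε / 2) (by positivity) h3
    rw [← hA2'] at h4
    exact dbody_cov hcov hK0 hLI hlo (fun v h0 h1 => h.lev_mono 0 v le_rfl h0 h1) h2.Apos h0 h1 hm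
      hJ hε h4
  · intro C k v h0 h1
    exact rng_of h2 hKm C k v h0 h1
  · refine log_r_of hNd ?_
    filter_upwards [exists_adm h 1 zero_le_one le_rfl] with n hn
    obtain ⟨J, s, hs⟩ := hn
    have h3 : R n ≤ N n := res_le (hT n) (hN n) hs
    have h4 : (1 / 2 : ℝ) ^ (N n) ≤ (1 / 2 : ℝ) ^ (R n) :=
      pow_le_pow_of_le_one (by norm_num) (by norm_num) h3
    have h5 : (0:ℝ) < (1 / 2 : ℝ) ^ (R n) := by positivity
    exact ⟨h5, by linarith⟩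

/-- the depth of the short window is inside the big window. -/
theorem depth_mt {B B' : Base} {H : ℕ → ℝ} (hH0 : Tendsto H U (𝓝 0))
    (hL : ∀ n, B'.L n = H n * B.L n) {l0 l1 mt : ℕ → ℕ} {t : ℝ} (ht : 0 < t)
    (hlen : Tendsto (fun n => ((mt n : ℝ) - l0 n) * Real.log 2 / B.L n) U (𝓝 t))
    (h01 : Tendsto (fun n => ((l1 n : ℝ) - l0 n) * Real.log 2 / B'.L n) U (𝓝 1)) (C : ℝ) :
    ∀ᶠ n in (U : Filter ℕ), (l1 n : ℝ) + C * B'.L n ≤ mt n := by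
  have l2 : 0 < Real.log 2 := Real.log_pos one_lt_two
  have l21 : Real.log 2 ≤ 1 := by
    have := Real.log_two_lt_d9
    linarith
  filter_upwards [hlen.eventually (eventually_ge_nhds (show t / 2 < t by linarith)),
    h01.eventually (eventually_le_nhds (show (1:ℝ) < 2 by norm_num)),
    hH0.eventually (eventually_le_nhds (show (0:ℝ) < t / (2 * (2 + |C|)) by positivity))]
    with n a1 a2 a3
  have hLp := B.L_pos n
  have hLp' := B'.L_pos n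
  rw [le_div_iff₀ hLp] at a1
  rw [div_le_iff₀ hLp'] at a2
  rw [le_div_iff₀ (by positivity)] at a3
  have h1 : (2 + |C|) * B'.L n ≤ t / 2 * B.L n := by
    rw [hL]
    nlinarith
  have h2 : C * B'.L n * Real.log 2 ≤ |C| * B'.L n := by
    have h3 : C * B'.L n * Real.log 2 ≤ |C| * B'.L n * Real.log 2 :=
      mul_le_mul_of_nonneg_right (mul_le_mul_of_nonneg_right (le_abs_self C) hLp'.le) l2.le
    have h4 : |C| * B'.L n * Real.log 2 ≤ |C| * B'.L n * 1 :=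
      mul_le_mul_of_nonneg_left l21 (by positivity)
    linarith
  have h5 : ((l1 n : ℝ) + C * B'.L n - l0 n) * Real.log 2 ≤ ((mt n : ℝ) - l0 n) * Real.log 2 := by
    have e1 : ((l1 n : ℝ) + C * B'.L n - l0 n) * Real.log 2 =
        ((l1 n : ℝ) - l0 n) * Real.log 2 + C * B'.L n * Real.log 2 := by ring
    rw [e1]
    nlinarith
  have h6 := le_of_mul_le_mul_right h5 l2
  linarith

/-- **(G2)** from the output of the pure penalty to the data of `J1c`. -/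
theorem out_of {Ψ ψ : ℝ → (Fin 3 → ℝ) → ℝ} {κ g g0 Kl : ℝ} {θ p : Fin 3 → ℝ}
    (hX : XOutF TT36 Ψ ψ κ g θ) (hl : LinAt Ψ θ g0 p) (hg : 0 ≤ g) (hKl : 0 ≤ Kl)
    (hΨ : LipR Ψ Kl) (hdeep : DeepIn Ψ g θ) :
    ∃ (B : Base) (I : ℕ → Finset (ℕ × ℝ)) (L : ℕ → ℕ → Ln4) (r0 : ℕ → ℝ)
      (wr cr : Fin 3 → ℕ → ℝ) (lev : ℕ → ℚ → ℕ) (A : ℕ → ℝ) (f : ℕ → ℚ → ℕ → ℤ → ℕ)
      (b : ℕ → ℚ → ℕ → Plk4) (vm : ℕ → ℚ → ℝ) (w : Fin 3 → ℕ → ℚ → ℝ),
      OutR B I L r0 wr cr lev A f b vm w p θ (g + g0) := by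
  classical
  obtain ⟨B, I, T0, L, lev, A, f, b, vm, w, atop, N, a, hT0, hN0, hNd, -, hM0, ha1, hwa, -,
    hadm⟩ := hX
  choose r hr0 hTr using hT0
  -- the resolutions are at most one
  set T : ℕ → TS Ln4 (Fin 3) Plk4 := fun n => TS36 (min (r n) 1) with hTdef
  have hr1 : ∀ᶠ n in (U : Filter ℕ), r n ≤ 1 := by
    filter_upwards [hadm 1 zero_le_one le_rfl] with n hn
    obtain ⟨J, s, hs, -⟩ := hn
    rw [hTr n] at hs
    exact ((adm36_le hs) 0).1.trans ((adm36_le hs) 0).2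
  have hTT : ∀ᶠ n in (U : Filter ℕ), T0 n = T n := by
    filter_upwards [hr1] with n hn
    rw [hTr n, hTdef]
    simp only [min_eq_left hn]
  have hmin : ∀ n, 0 < min (r n) 1 := fun n => lt_min (hr0 n) one_pos
  have hTT36 : ∀ n, T n ∈ TT36 := fun n => ⟨min (r n) 1, hmin n, rfl⟩
  choose R hR using fun n => is36_TS36 (hmin n) (min_le_right (r n) 1)
  have hN : ∀ n i J s, (T n).adm i J s → ∀ j, s.1 j ≤ N n := by
    intro n i J s hs j
    rcases le_or_gt (r n) 1 with h1 | h1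
    · refine hN0 n i J s ?_ j
      rw [hTr n]
      have h2 : (TS36 (min (r n) 1)).adm i J s := hs
      rw [min_eq_left h1] at h2
      exact h2
    · have h2 : (TS36 (min (r n) 1)).adm i J s := hs
      rw [min_eq_right h1.le] at h2
      have h3 := (adm36_le h2 j).1
      rw [h2.2.2 j] at h3
      have h4 : s.1 j = 0 := by
        by_contra hne
        have h5 : (1 / 2 : ℝ) ^ (s.1 j) < 1 := pow_lt_one₀ (by norm_num) (by norm_num) hne
        linarith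
      rw [h4]
      exact Nat.zero_le _
  have hM : MkA B I (geoP T Ψ (fun n => lev n 1) atop L) lev A (fun v => g * v) (fun v => 0 * v)
      (fun j v => θ j * (1 - v)) f b vm w := by
    refine mkA_congrG hM0 ?_ rfl
    filter_upwards [hTT] with n hn
    refine ⟨?_, ?_, ?_⟩
    · funext i J s t
      simp only [geoP, hn]
    · funext i J s
      simp only [geoP, hn]
    · funext i J s
      simp only [geoP, hn]
  have hTop : TopPos B lev w (fun n => lev n 1) atop θ 1 :=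
    topPos_of hM fun j => Eventually.of_forall fun n => by rw [hwa, ha1]
  obtain ⟨η, m, t, B', I', A', A2, vm2, K1, hη, hη1, hη0, htt, hpt, hW, hM1, hlen, hrel, hA2, hK1,
    hMK, hQ⟩ := lin3 hM hTop le_rfl hl
    (fun q k n => (N n : ℝ) ≤ B.d n ^ (-(q.1 k / ((k : ℝ) + 1)))) (by
      intro η m hη _ k
      exact hNd _ (div_pos (hη k) (by positivity)))
  have hH : ∀ n, 0 < η (t n) := fun n => hη _
  have hH0 : Tendsto (fun n => η (t n)) U (𝓝 0) := hη0.comp htt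
  have hL : ∀ n, B'.L n = η (t n) * B.L n := fun n => by
    unfold Base.L
    rw [hW.base, Real.log_rpow (B.pos n)]
    ring
  have hTl : (0:ℝ) < 1 - 1 / 2 := by norm_num
  obtain ⟨K2, hK2, hcmp⟩ := exists_cmp (T := T) hl hH hH0 hL hTl hM1 hlen hrel
  -- the range
  set K : ℕ → ℝ := fun n => min (K1 n) (K2 n) with hKdef
  have hK : Tendsto K U atTop := by
    rw [tendsto_atTop]
    intro c
    filter_upwards [tendsto_atTop.1 hK1 c, tendsto_atTop.1 hK2 c] with n h1 h2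
    exact le_min h1 h2
  have h2 := hMK K hK (Eventually.of_forall fun n => min_le_left _ _)
  -- the exponents
  have hNd' : ∀ ε : ℝ, 0 < ε → ∀ᶠ n in (U : Filter ℕ), (N n : ℝ) ≤ B'.d n ^ (-ε) := by
    intro ε hε
    filter_upwards [hQ, (tendsto_natCast_atTop_atTop.comp htt).eventually_ge_atTop (1 / ε)]
      with n h3 h4
    have h4' : 1 / ε ≤ (t n : ℝ) := h4
    refine h3.trans ?_
    rw [hW.base, ← Real.rpow_mul (B.pos n).le]
    refine dpow_le B n ?_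
    have h5 : (0:ℝ) < (t n : ℝ) + 1 := by positivity
    rw [mul_neg, neg_le_neg_iff, div_le_iff₀ h5]
    rw [div_le_iff₀ hε] at h4'
    have := hη (t n)
    nlinarith
  -- levels
  have hl1 : Tendsto (fun n => ((lev n (m (t n) 1) : ℝ) - lev n (m (t n) 0)) * Real.log 2 /
      B'.L n) U (𝓝 1) := by
    have h1 := hM1.lev_lim 0 1 le_rfl zero_le_one le_rfl
    push_cast at h1
    rw [sub_zero] at h1
    exact h1
  have hdep : ∀ C : ℝ, ∀ᶠ n in (U : Filter ℕ),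
      (lev n (m (t n) 1) : ℝ) + C * B'.L n ≤ lev n 1 :=
    depth_mt hH0 hL hTl hlen hl1
  have hmt : ∀ᶠ n in (U : Filter ℕ), lev n (m (t n) 1) ≤ lev n 1 := by
    filter_upwards [hdep 0] with n hn
    rw [zero_mul, add_zero] at hn
    exact_mod_cast hn
  have hAll : AllD B' I' (geoP T Ψ (fun n => lev n 1) atop L) (fun n x => lev n (m (t n) x)) A' g :=
    allD_P hM1 hg hTT36 hmt hKl hΨ
  have hD := hdeep B' I' T L (fun n => lev n 1) atop N (fun n x => lev n (m (t n) x)) A'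
    (fun n x => f n (m (t n) x)) (fun n x => b n (m (t n) x)) (fun n x => vm n (m (t n) x))
    (fun j n x => w j n (m (t n) x)) hTT36 hN hNd' hM1 hAll hdep
  exact ⟨_, _, _, _, _, _, _, _, _, _, _, _, outR_of (R := R) hR hN hNd' hM1
    (fun n => Real.rpow_pos_of_pos two_pos _) hA2 hcmp hK2 hK
    (Eventually.of_forall fun n => min_le_right _ _) h2 hAll hD⟩

end Crest.Agent.R136.Lz627
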