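import Mathlib
import Crest.Agent.R136.Dit1_823
import Crest.Agent.R136.Deep8_770
import Crest.Agent.R136.Lz8_627
import Crest.Agent.R116.Xc4_794

/-!
# R136 (helper823): deep D-max over `geoP` from `KF879.UBH`

* `own_pow` : own counts `≥ d^ε 2^(lev 1 - lev 0)` in a marked sequence with `Λ = 0`;
* `stepK_of` : `StepK` from 770's `deep_stepK`;
* **`deepIn_of_UBH`** : `UBH K TT36 Ψ g`, `SupA Ψ` ⊢ 627's `DeepIn Ψ g θ`.
-/

set_option autoImplicit false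
set_option linter.unusedVariables false
set_option linter.unusedSectionVars false

open Finset Filter Topology

namespace Crest.Agent.R136.Dit823

open Crest.Agent.R138.Ex926 Crest.Agent.R138.Dp76
open Crest.Agent.R138.Mk163 (zc zl rho alive own)
open Crest.Agent.R136.MkA627 (Geo MkA)
open Crest.Agent.R116.Xa794 (TS)
open Crest.Agent.R116.Xc794 Crest.Agent.R116.Xc4794
open Crest.Agent.R136.Dia770 (AllD extO deep_stepK DBd two_exp d_exp)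
open Crest.Agent.R136.Lz627 (DBody DeepIn)
open Tq879 (TS36 TT36)

section

variable {σ κ : Type} {B : Base} {I : ℕ → Finset (ℕ × ℝ)} {G : Geo σ κ} {lev : ℕ → ℚ → ℕ}
  {A : ℕ → ℝ} {c : ℝ → ℝ} {τ : κ → ℝ → ℝ} {f : ℕ → ℚ → ℕ → ℤ → ℕ} {b : ℕ → ℚ → ℕ → σ}
  {vm : ℕ → ℚ → ℝ} {w : κ → ℕ → ℚ → ℝ}

theorem own_pow (h : MkA B I G lev A c (fun v => 0 * v) τ f b vm w) {ε : ℝ} (hε : 0 < ε) :
    ∀ᶠ n in (U : Filter ℕ), ∀ x ∈ I n,
      B.d n ^ ε * 2 ^ (lev n 1 - lev n 0) ≤ ((own (I n) (lev n 0) (lev n 1) x).card : ℝ) := by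
  have h1 := h.own 0 1 le_rfl zero_le_one le_rfl (ε / 2) (by positivity)
  have h6 := h.lev_lim 0 1 le_rfl zero_le_one le_rfl
  have h7 : ∀ᶠ n in (U : Filter ℕ),
      ((lev n 1 : ℝ) - lev n 0) * Real.log 2 / B.L n < 1 + ε / 2 := by
    refine h6.eventually (Iio_mem_nhds ?_)
    push_cast
    linarith
  filter_upwards [h1, h7, h.lev_mono 0 1 le_rfl zero_le_one le_rfl] with n a1 a2 a3 x hx
  have hL := B.L_pos n
  rw [div_lt_iff₀ hL] at a2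
  refine le_trans ?_ (a1 x hx).1
  have e1 : ((2:ℝ) ^ (lev n 1 - lev n 0)) = (2:ℝ) ^ ((lev n 1 : ℝ) - lev n 0) := by
    rw [← Real.rpow_natCast, Nat.cast_sub a3]
  rw [e1, two_exp, d_exp, d_exp, ← Real.exp_add]
  refine Real.exp_le_exp.2 ?_
  push_cast
  nlinarith

end

section

variable {Ln ι S : Type} [Fintype ι]

theorem stepK_of (B : Base) {K : ℕ} {𝒯 : Set (TS Ln ι S)} {T : ℕ → TS Ln ι S}
    {Ψ : ℝ → (ι → ℝ) → ℝ} {mt : ℕ → ℕ} {atop : ℕ → ι → ℕ} {L : ℕ → ℕ → Ln} {N : ℕ → ℕ}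
    {I : ℕ → Finset (ℕ × ℝ)} {lev : ℕ → ℚ → ℕ} {A : ℕ → ℝ} {g : ℝ}
    {f : ℕ → ℚ → ℕ → ℤ → ℕ} {b : ℕ → ℚ → ℕ → (ι → ℕ) × S} {τ : ι → ℝ → ℝ}
    {vm : ℕ → ℚ → ℝ} {w : ι → ℕ → ℚ → ℝ} (g0 : 0 ≤ g)
    (h : MkA B I (geoP T Ψ mt atop L) lev A (fun v => g * v) (fun v => 0 * v) τ f b vm w)
    (alld : AllD B I (geoP T Ψ mt atop L) lev A g)
    (hT : ∀ n, T n ∈ 𝒯) (hfin : ∀ n i J s, (T n).adm i J s → ∀ j, s.1 j ≤ N n)
    (hNd : ∀ ε : ℝ, 0 < ε → ∀ᶠ n in (U : Filter ℕ), (N n : ℝ) ≤ B.d n ^ (-ε))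
    (hΨ : SupA Ψ) (hUB : KF879.UBH K 𝒯 Ψ g) :
    StepK B I (geoP T Ψ mt atop L) lev A g (fun n j => j ≤ mt n) K := by
  intro m0 m h1 h01 hM hh hC hQ J hJ hD ε hε
  exact deep_stepK B (Q := fun n j => j ≤ mt n) h.Apos g0 h.ne h.card h.lev_mono h.lev_lim h.cell0
    h.one (fun ε hε => own_pow h hε) alld hT hfin hNd
    (fun n j hj i hi s a => capP_sup (T n) hΨ hi hj s a (atop n)) hUB h1 h01 hM hh hC hQ hJ hD ε hε

end

/-- **770's only input** of 627's `out_of`, from the supremum bound. -/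
theorem deepIn_of_UBH {Ψ : ℝ → (Fin 3 → ℝ) → ℝ} {g : ℝ} {θ : Fin 3 → ℝ} {K : ℕ} (hK : 2 ≤ K)
    (g0 : 0 ≤ g) (hΨ : SupA Ψ) (hUB : KF879.UBH K TT36 Ψ g) : DeepIn Ψ g θ := by
  intro B I T L mt atop N lev A f b vm w hT hfin hNd h alld hmt v hv0 hv1 m hm hC J hJ ε hε
  refine dbody_all h.Apos g0 h.lev_mono h.lev_lim alld ?_ (Q := fun n j => j ≤ mt n)
    (fun n i j hij hj => hij.trans hj) hK
    (stepK_of B g0 h alld hT hfin hNd hΨ hUB) hv0 hv1 hm hC ?_ hJ hε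
  · intro n i J s _
    exact mul_nonneg ((T n).volpos _ _).le (Real.rpow_pos_of_pos (by norm_num) _).le
  · obtain ⟨C, hC⟩ := hC
    filter_upwards [hC, hmt C] with n a1 a2
    have : (m n : ℝ) ≤ mt n := a1.trans a2
    exact_mod_cast this

end Crest.Agent.R136.Dit823
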