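import Crest.Agent.R136.Rc8_146

/-!
# R136 (helper146): from the homogeneous zoom back to every scale

For one group `k` with positive `dh` of an additive splitting (`OutA`): `uS dh S` = natural amounts
on `S`, `0` elsewhere.

* `GA` : data of one group function, `OutA.ga`, `GF.ga`.
* `GA.super` : `M_S(y) = -φ (y • u_S)` is superadditive.
* `GA.ge_zoom` : `M_S(y) ≥ y * (loss of u_S in the zoom at 0)`.
* `GA.lift`, `GA.lift_inc` : `S` full in the zoom ⊢ `S` full at every scale, in every order.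
* `GA.rate_ge` : `-φ c ≤ r * y` for legal `c ≤ y • dh`.
* `GA.rate_of_asym` : one more slot with an asymptotically full loss.
-/

set_option autoImplicit false
set_option linter.unusedSectionVars false
set_option linter.unusedVariables false

open Set Filter Topology

namespace Crest.Agent.R136.Lift146

open Dg219 Rc146

variable {ι κ : Type*} [Fintype ι] [DecidableEq ι] [DecidableEq κ]

/-- data of one group function with additivity -/
structure GA (grp : ι → κ) (L : Set (ι → ℝ)) (a b dh : ι → ℝ) (n : κ → ℝ × ℝ) (k : κ)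
    (φ : (ι → ℝ) → ℝ) (r : ℝ) : Prop where
  smul : ∀ c ∈ L, ∀ t : ℝ, 0 ≤ t → t • c ∈ L
  addm : ∀ c ∈ L, ∀ d ∈ L, c + d ∈ L
  nat : ∀ z, Tn a b z ∈ L
  eq : ∀ z i, grp i = k → Tn a b z i = lf (n k) z * dh i
  nk : n k ≠ 0
  pos : ∀ i, grp i = k → 0 < dh i
  loc : ∀ c c', (∀ i, grp i = k → c i = c' i) → φ c = φ c'
  zero : φ 0 = 0
  mono : ∀ c ∈ L, ∀ c' ∈ L, (∀ i, grp i = k → c i ≤ c' i) → 0 ≤ φ c - φ c' ∧
    φ c - φ c' ≤ ∑ i ∈ Finset.univ.filter (fun i => grp i = k), (c' i - c i)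
  smod : ∀ p ∈ L, ∀ q ∈ L, ∀ s ∈ L, ∀ t ∈ L,
    (∀ i, grp i = k → s i = min (p i) (q i)) → (∀ i, grp i = k → t i = max (p i) (q i)) →
    φ p + φ q ≤ φ t + φ s
  rate : ∀ c ∈ L, ∀ u : ℝ, (∀ i, grp i = k → c i = u * dh i) → φ c = -(r * u)
  add : ∀ z, ∀ c ∈ L, φ (Tn a b z + c) = φ (Tn a b z) + φ c

variable {grp : ι → κ} {L : Set (ι → ℝ)} {a b dh : ι → ℝ} {n : κ → ℝ × ℝ} {k : κ}
  {φ : (ι → ℝ) → ℝ} {r : ℝ}

theorem ga_of_gf (H : GF grp L a b dh n k φ r) : GA grp L a b dh n k φ r where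
  smul := fun c hc t ht => H.cone.smul c hc t ht
  addm := fun c hc d hd => H.cone.add c hc d hd
  nat := H.nat
  eq := H.eq
  nk := H.nk
  pos := H.pos
  loc := H.loc
  zero := H.zero
  mono := H.mono
  smod := H.smod
  rate := H.rate
  add := fun z c hc => H.add z hc

/-- the group functions of `OutA` -/
theorem ga_of_outA {lam : (ι → ℝ) → ℝ} {A : ℝ × ℝ} {Φ : κ → (ι → ℝ) → ℝ} {ρ : κ → ℝ}
    (H : OutA grp L a b dh n lam A Φ ρ) (hd : DirS grp a b n dh)
    (hsm : ∀ c ∈ L, ∀ t : ℝ, 0 ≤ t → t • c ∈ L) (had : ∀ c ∈ L, ∀ d ∈ L, c + d ∈ L)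
    (hnat : ∀ z, Tn a b z ∈ L) {i0 : ι} (hi0 : grp i0 = k) (hpos : ∀ i, grp i = k → 0 < dh i) :
    GA grp L a b dh n k (Φ k) (ρ k) where
  smul := hsm
  addm := had
  nat := hnat
  eq := fun z i hi => by rw [hd.Tn_eq, hi]
  nk := by rw [← hi0]; exact hd.ne i0
  pos := hpos
  loc := H.loc k
  zero := H.zero k 0 fun i _ => rfl
  mono := H.mono k
  smod := H.smods k
  rate := H.rate k
  add := fun z c hc => H.add k hpos z c hc

/-- natural amounts on `S` -/
def uS (dh : ι → ℝ) (S : Finset ι) : ι → ℝ := fun i => if i ∈ S then dh i else 0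

theorem uS_in {S : Finset ι} {i : ι} (h : i ∈ S) : uS dh S i = dh i := by
  unfold uS; rw [if_pos h]

theorem uS_off {S : Finset ι} {i : ι} (h : i ∉ S) : uS dh S i = 0 := by
  unfold uS; rw [if_neg h]

/-- the natural position `u` of the group -/
theorem GA.nt_i (H : GA grp L a b dh n k φ r) (u : ℝ) {i : ι} (hi : grp i = k) :
    nt a b n k u i = u * dh i := by
  unfold nt; rw [H.eq _ i hi, lf_zz H.nk]

theorem GA.nt_mem (H : GA grp L a b dh n k φ r) (u : ℝ) : nt a b n k u ∈ L := H.nat _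

theorem GA.zero_mem (H : GA grp L a b dh n k φ r) : (0 : ι → ℝ) ∈ L := by
  have := H.nat 0
  have e : Tn a b (0 : ℝ × ℝ) = 0 := by
    funext i; simp [Tn]
  rwa [e] at this

/-- **superadditivity** -/
theorem GA.super (H : GA grp L a b dh n k φ r) {S : Finset ι} (hS : uS dh S ∈ L) {y1 y2 : ℝ}
    (h1 : 0 ≤ y1) (h2 : 0 ≤ y2) :
    -φ (y1 • uS dh S) + -φ (y2 • uS dh S) ≤ -φ ((y1 + y2) • uS dh S) := by
  have hN := H.nt_mem y1
  have hm := fun (y : ℝ) (hy : 0 ≤ y) => H.smul _ hS y hy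
  have key := H.smod _ hN _ (hm (y1 + y2) (by linarith)) _ (hm y1 h1) _
    (H.addm _ hN _ (hm y2 h2))
    (fun i hi => by
      have hp := H.pos i hi
      rw [H.nt_i y1 hi, Pi.smul_apply, Pi.smul_apply, smul_eq_mul, smul_eq_mul]
      by_cases hiS : i ∈ S
      · rw [uS_in hiS, min_eq_left]; nlinarith
      · rw [uS_off hiS, mul_zero, mul_zero, min_eq_right]; positivity)
    (fun i hi => by
      have hp := H.pos i hi
      rw [Pi.add_apply, H.nt_i y1 hi, Pi.smul_apply, Pi.smul_apply, smul_eq_mul, smul_eq_mul]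
      by_cases hiS : i ∈ S
      · rw [uS_in hiS, max_eq_right]
        · ring
        · nlinarith
      · rw [uS_off hiS, mul_zero, mul_zero, max_eq_left]
        · ring
        · positivity)
  have e := H.add (zz (n k) y1) _ (hm y2 h2)
  have e' : φ (nt a b n k y1 + y2 • uS dh S) = φ (nt a b n k y1) + φ (y2 • uS dh S) := e
  rw [e'] at key
  linarith

theorem GA.super_nat (H : GA grp L a b dh n k φ r) {S : Finset ι} (hS : uS dh S ∈ L) {t : ℝ}
    (ht : 0 ≤ t) (N : ℕ) : N * -φ (t • uS dh S) ≤ -φ ((N * t) • uS dh S) := by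
  induction N with
  | zero => simp [H.zero]
  | succ N ih =>
    have h := H.super hS (y1 := N * t) (y2 := t) (by positivity) ht
    push_cast
    have e : ((N : ℝ) + 1) * t = N * t + t := by ring
    rw [e]
    linarith

/-- monotone in the scale -/
theorem GA.mono_y (H : GA grp L a b dh n k φ r) {S : Finset ι} (hS : uS dh S ∈ L) {y1 y2 : ℝ}
    (h1 : 0 ≤ y1) (h2 : y1 ≤ y2) : -φ (y1 • uS dh S) ≤ -φ (y2 • uS dh S) := by
  have := (H.mono _ (H.smul _ hS y1 h1) _ (H.smul _ hS y2 (h1.trans h2)) fun i hi => by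
    rw [Pi.smul_apply, Pi.smul_apply, smul_eq_mul, smul_eq_mul]
    have hp := H.pos i hi
    have : 0 ≤ uS dh S i := by
      unfold uS; split_ifs
      · exact hp.le
      · exact le_rfl
    exact mul_le_mul_of_nonneg_right h2 this).1
  linarith

/-- **the zoom at `0` bounds the loss from below at every scale** -/
theorem GA.ge_zoom (H : GA grp L a b dh n k φ r) {S : Finset ι} (hS : uS dh S ∈ L) {t : ℕ → ℝ}
    (ht : ∀ l, 0 < t l) (ht0 : Tendsto t atTop (𝓝 0)) {e : ℝ}
    (hlim : Tendsto (fun l => φ (t l • uS dh S) / t l) atTop (𝓝 e)) {y : ℝ} (hy : 0 ≤ y) :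
    y * -e ≤ -φ (y • uS dh S) := by
  have h1 : ∀ l, (y - t l) * -(φ (t l • uS dh S) / t l) ≤ -φ (y • uS dh S) := by
    intro l
    have htl := ht l
    set N := ⌊y / t l⌋₊ with hN
    have n1 : (N : ℝ) * t l ≤ y := by
      have := Nat.floor_le (div_nonneg hy htl.le)
      rw [le_div_iff₀ htl] at this
      exact this
    have n2 : y - t l ≤ N * t l := by
      have := Nat.lt_floor_add_one (y / t l)
      rw [div_lt_iff₀ htl] at this
      linarith
    have a1 := H.super_nat hS htl.le N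
    have a2 := H.mono_y hS (by positivity) n1
    have a3 : 0 ≤ -φ (t l • uS dh S) := by
      have := H.mono_y hS le_rfl htl.le
      rw [zero_smul, H.zero, neg_zero] at this
      exact this
    have a4 : 0 ≤ -(φ (t l • uS dh S) / t l) := by
      rw [← neg_div]; exact div_nonneg a3 htl.le
    calc (y - t l) * -(φ (t l • uS dh S) / t l)
        ≤ (N * t l) * -(φ (t l • uS dh S) / t l) := mul_le_mul_of_nonneg_right n2 a4
      _ = N * -φ (t l • uS dh S) := by field_simp
      _ ≤ _ := a1.trans a2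
  have h2 : Tendsto (fun l => (y - t l) * -(φ (t l • uS dh S) / t l)) atTop
      (𝓝 ((y - 0) * -e)) := (tendsto_const_nhds.sub ht0).mul hlim.neg
  rw [sub_zero] at h2
  exact le_of_tendsto h2 (Eventually.of_forall h1)

/-- total of the natural amounts -/
theorem sum_uS {S : Finset ι} (hSk : ∀ i ∈ S, grp i = k) (y : ℝ) :
    ∑ i ∈ Finset.univ.filter (fun i => grp i = k), (y • uS dh S) i = y * ∑ i ∈ S, dh i := by
  have h : ∑ i ∈ S, (y • uS dh S) i =
      ∑ i ∈ Finset.univ.filter (fun i => grp i = k), (y • uS dh S) i := by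
    refine Finset.sum_subset (fun i hi => Finset.mem_filter.2 ⟨Finset.mem_univ i, hSk i hi⟩) ?_
    intro i _ hi
    rw [Pi.smul_apply, smul_eq_mul, uS_off hi, mul_zero]
  rw [← h, Finset.mul_sum]
  exact Finset.sum_congr rfl fun i hi => by
    rw [Pi.smul_apply, smul_eq_mul, uS_in hi]

/-- **lift**: a set `S` of slots which is full in the zoom is full at every scale -/
theorem GA.lift (H : GA grp L a b dh n k φ r) {S : Finset ι} (hSk : ∀ i ∈ S, grp i = k)
    (hS : uS dh S ∈ L) {t : ℕ → ℝ} (ht : ∀ l, 0 < t l) (ht0 : Tendsto t atTop (𝓝 0)) {e : ℝ}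
    (hlim : Tendsto (fun l => φ (t l • uS dh S) / t l) atTop (𝓝 e))
    (he : e ≤ -∑ i ∈ S, dh i) {y : ℝ} (hy : 0 ≤ y) :
    φ (y • uS dh S) = -(y * ∑ i ∈ S, dh i) := by
  have h1 := H.ge_zoom hS ht ht0 hlim hy
  have h2 := (H.mono 0 H.zero_mem _ (H.smul _ hS y hy) fun i hi => by
    rw [Pi.smul_apply, smul_eq_mul, Pi.zero_apply]
    have hp := H.pos i hi
    have : 0 ≤ uS dh S i := by
      unfold uS; split_ifs
      · exact hp.le
      · exact le_rfl
    positivity).2
  rw [H.zero] at h2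
  simp only [Pi.zero_apply, sub_zero] at h2
  rw [sum_uS hSk] at h2
  have h3 : y * ∑ i ∈ S, dh i ≤ y * -e := mul_le_mul_of_nonneg_left (by linarith) hy
  linarith

/-- **every partial and every conditional loss is full** below a full natural box -/
theorem GA.full_inc (H : GA grp L a b dh n k φ r) {S : Finset ι} (hSk : ∀ i ∈ S, grp i = k)
    (hS : uS dh S ∈ L) {y : ℝ} (hy : 0 ≤ y) (hfull : φ (y • uS dh S) = -(y * ∑ i ∈ S, dh i))
    {c c' : ι → ℝ} (hc : c ∈ L) (hc' : c' ∈ L) (h0 : ∀ i, grp i = k → 0 ≤ c i)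
    (hcc : ∀ i, grp i = k → c i ≤ c' i) (hcy : ∀ i, grp i = k → c' i ≤ (y • uS dh S) i) :
    φ c - φ c' = ∑ i ∈ Finset.univ.filter (fun i => grp i = k), (c' i - c i) := by
  have m0 := H.zero_mem
  have my := H.smul _ hS y hy
  have a1 := (H.mono 0 m0 c hc fun i hi => by rw [Pi.zero_apply]; exact h0 i hi).2
  have a2 := (H.mono c hc c' hc' hcc).2
  have a3 := (H.mono c' hc' _ my hcy).2
  have e := sum_uS (dh := dh) hSk y
  rw [H.zero] at a1
  have s1 : ∑ i ∈ Finset.univ.filter (fun i => grp i = k), (c i - (0 : ι → ℝ) i) +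
      ∑ i ∈ Finset.univ.filter (fun i => grp i = k), (c' i - c i) +
      ∑ i ∈ Finset.univ.filter (fun i => grp i = k), ((y • uS dh S) i - c' i) =
      y * ∑ i ∈ S, dh i := by
    rw [← e, ← Finset.sum_add_distrib, ← Finset.sum_add_distrib]
    exact Finset.sum_congr rfl fun i _ => by rw [Pi.zero_apply]; ring
  linarith

/-- **rates**: a legal box below the natural position `y` -/
theorem GA.rate_ge (H : GA grp L a b dh n k φ r) {c : ι → ℝ} (hc : c ∈ L) {y : ℝ}
    (hcy : ∀ i, grp i = k → c i ≤ y * dh i) : -φ c ≤ r * y := by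
  have h1 := (H.mono c hc _ (H.nt_mem y) fun i hi => by rw [H.nt_i y hi]; exact hcy i hi).1
  have h2 := H.rate _ (H.nt_mem y) y fun i hi => H.nt_i y hi
  rw [h2] at h1
  linarith

/-- **one more slot**, asymptotically full given `S` -/
theorem GA.rate_of_asym (H : GA grp L a b dh n k φ r) {S : Finset ι} (hSk : ∀ i ∈ S, grp i = k)
    (hS : uS dh S ∈ L) (hfull : ∀ y : ℝ, 0 ≤ y → φ (y • uS dh S) = -(y * ∑ i ∈ S, dh i))
    {i0 : ι} (hi0 : grp i0 = k) (hi0S : i0 ∉ S) (hS' : uS dh (insert i0 S) ∈ L) {e : ℝ}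
    (hasym : ∀ ε : ℝ, 0 < ε → ∃ y : ℝ, 0 < y ∧
      (e - ε) * y ≤ φ (y • uS dh S) - φ (y • uS dh (insert i0 S))) :
    ∑ i ∈ S, dh i + e ≤ r := by
  refine le_of_forall_pos_le_add fun ε hε => ?_
  obtain ⟨y, hy, h⟩ := hasym ε hε
  have h1 := H.rate_ge (H.smul _ hS' y hy.le) (y := y) fun i hi => by
    rw [Pi.smul_apply, smul_eq_mul]
    have hp := H.pos i hi
    unfold uS; split_ifs
    · exact le_rfl
    · rw [mul_zero]; positivity
  have h2 := hfull y hy.le
  have h3 : (∑ i ∈ S, dh i + (e - ε)) * y ≤ r * y := by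
    have : (∑ i ∈ S, dh i + (e - ε)) * y = y * ∑ i ∈ S, dh i + (e - ε) * y := by ring
    linarith
  have h4 := le_of_mul_le_mul_right h3 hy
  linarith

end Crest.Agent.R136.Lift146
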