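import Crest.Agent.R136.K2A_146
import Crest.Agent.R136.Lift_146

/-!
# R136 (helper146): homogeneous zoom of a joint tangent

* `exists_hom` : in the context of 774's F-lemma (`FLemA`) : the zoom at `0` of `(lam', lo')` is
  again a joint tangent of `(ν, own)`, with the same rates, and its groups with positive `dh` are
  homogeneous.
* `FLemH`, `flemA_of_hom` : for the last rung (`V = True`) it suffices to prove the F-lemma for
  homogeneous group functions.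
* `cn_ga` : the group functions of `OutA` on `cn Q A` are `GA` (`Lift_146`).
-/

set_option autoImplicit false
set_option linter.unusedSectionVars false
set_option linter.unusedVariables false

open Set Filter Topology Metric MeasureTheory

namespace Crest.Agent.R136.K2B146

open Dg262 (X X_cont SupOn LegU)
open Dg219 (Tn BUp Walls OutS gC dhC nC gset)
open Rc146 (OutA)
open K2S774 K2A146 Lift146
open Crest.Agent.R138

variable {m : ℕ} {W : Type*} [Fintype W] {Q : Walls (Fin m) W} {A : W → Prop}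

/-- the walls `A` are active everywhere on a natural plane through `0` -/
theorem wl_L {a b : Fin m → ℝ} (na : Nat Q A a) (nb : Nat Q A b) :
    (wl Q A).L 0 a b = cn Q A := by
  have hAct : ∀ w, (wl Q A).Act 0 a b w := fun w => by
    refine ⟨?_, na w.1 w.2, nb w.1 w.2⟩
    show (0 : Fin m → ℝ) (Q.hd w.1) = Q.rhs w.1 0 + 0
    rw [add_zero]; exact (K2S774.Nat.zero (Q := Q) (A := A)) w.1 w.2
  ext c
  exact ⟨fun h w hw => h ⟨w, hw⟩ (hAct _), fun h w _ => h w.1 w.2⟩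

/-- natural vectors of the plane are in the cone -/
theorem cn_nat {a b : Fin m → ℝ} (na : Nat Q A a) (nb : Nat Q A b) (z : ℝ × ℝ) :
    Tn a b z ∈ cn Q A := by
  have h : Tn a b z = z.1 • a + z.2 • b := by
    funext i; simp [Tn]; ring
  rw [h]
  exact ((na.smul _).add (nb.smul _)).mem

/-- the group functions of `OutA` on a cone `cn Q A` -/
theorem cn_ga {a b : Fin m → ℝ} (na : Nat Q A a) (nb : Nat Q A b) {lam : (Fin m → ℝ) → ℝ}
    {A0 : ℝ × ℝ} {φ : ℕ → (Fin m → ℝ) → ℝ} {r : ℕ → ℝ}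
    (H : OutA (gC a b) (cn Q A) a b (dhC a b) (nC a b) lam A0 φ r) {k : ℕ} {i0 : Fin m}
    (hi0 : gC a b i0 = k) (hpos : ∀ i, gC a b i = k → 0 < dhC a b i) :
    GA (gC a b) (cn Q A) a b (dhC a b) (nC a b) k (φ k) (r k) :=
  ga_of_outA H Dg219.dirC (fun c hc t ht => cn_smul hc ht) (fun c hc d hd => cn_add hc hd)
    (cn_nat na nb) hi0 hpos

/-- **zoom at `0`, on `cn Q A`** -/
theorem cn_zoom {lam lo : (Fin m → ℝ) → ℝ} {K : ℝ} (H : Prf (cn Q A) lam lo K)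
    (hF : ∀ w, A w → ∃ s, Q.co w s ≠ 0) {a b : Fin m → ℝ} (ha : ∀ i, 0 ≤ a i)
    (na : Nat Q A a) (nb : Nat Q A b) {A0 : ℝ × ℝ} {φ : ℕ → (Fin m → ℝ) → ℝ} {r : ℕ → ℝ}
    (HO : OutA (gC a b) (cn Q A) a b (dhC a b) (nC a b) lam A0 φ r) {t : ℕ → ℝ}
    {lam2 : (Fin m → ℝ) → ℝ} (B : BUp (cn Q A) (cn Q A) lam 0 t lam2) :
    ∃ φ2 : ℕ → (Fin m → ℝ) → ℝ,
      OutA (gC a b) (cn Q A) a b (dhC a b) (nC a b) lam2 A0 φ2 r ∧
      (∀ k, (∀ i, gC a b i = k → 0 < dhC a b i) → ∀ c ∈ cn Q A, ∀ s : ℝ, 0 ≤ s →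
        φ2 k (s • c) = s * φ2 k c) ∧
      ∀ k ∈ gset (gC a b), ∀ c ∈ cn Q A,
        Tendsto (fun l => φ k (t l • c) / t l) atTop (𝓝 (φ2 k c)) := by
  classical
  obtain ⟨wv, hGr⟩ := Dg219.exists_grpC (b := b) ha
  have hL := wl_L na nb
  have hgeo := Walls.geoG (Q := wl Q A) (x0 := 0) hGr
    (Dg219.Walls.full_of_co fun w => hF w.1 w.2) (fun _ _ => Iff.rfl)
  have h := OutA.zoom (wl Q A) (x0 := 0) (a := a) (b := b) hgeo Dg219.dirC
    (lam := lam) (lam2 := lam2) (φ := φ) (r := r) (A := A0) (K := K) (t := t)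
  rw [hL] at h
  exact h HO H.K0 (fun p hp q hq => by rw [dist_eq_norm]; exact H.lip p hp q hq)
    (fun p hp q hq hpq => ⟨sub_nonneg.2 (H.mono p hp q hq hpq), H.sharp p hp q hq hpq⟩)
    (fun p hp q hq h1 h2 => H.sup p hp q hq h1 h2) B

variable {P : Set (Fin m → ℝ)} {ν own : (Fin m → ℝ) → ℝ} {K : ℝ}
  {r0 ρ : Fin m → ℝ} {Dl : (Fin m → ℝ) →ₗ[ℝ] ℝ} {Qd : Set (Fin m → ℝ)} {Z Tie : Set (Fin m)}
  {kz : Fin m} {o : Fin m → ℝ} {τ : ℝ} {Dr : Set (Fin m)}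
  {lam lo : (Fin m → ℝ) → ℝ}

/-- **homogeneous zoom of a joint tangent** -/
theorem exists_hom (hF : ∀ w, A w → ∃ s, Q.co w s ≠ 0) {T b : Fin m → ℝ} (hT0 : ∀ i, 0 ≤ T i)
    (hT : Nat Q A T) (hb : Nat Q A b) {x' : ℕ → Fin m → ℝ} {h' : ℕ → ℝ}
    {lam' lo' : (Fin m → ℝ) → ℝ} (HJ : JT Q A P ν own r0 x' h' lam' lo')
    (HP : Prf (cn Q A) lam' lo' K) (HB : BaseOk Tie kz o T r0 x' h') {A0 : ℝ × ℝ}
    {φ : ℕ → (Fin m → ℝ) → ℝ} {rt : ℕ → ℝ}
    (HO : OutA (gC T b) (cn Q A) T b (dhC T b) (nC T b) lam' A0 φ rt) :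
    ∃ (t : ℕ → ℝ) (lam2 lo2 : (Fin m → ℝ) → ℝ) (x2 : ℕ → Fin m → ℝ) (h2 : ℕ → ℝ)
      (φ2 : ℕ → (Fin m → ℝ) → ℝ), (∀ l, 0 < t l) ∧ Tendsto t atTop (𝓝 0) ∧
      Ex926.IsTan (cn Q A) (cn Q A) lam' (fun _ => 0) t lam2 ∧
      Ex926.IsTan (cn Q A) (cn Q A) lo' (fun _ => 0) t lo2 ∧
      JT Q A P ν own r0 x2 h2 lam2 lo2 ∧ BaseOk Tie kz o T r0 x2 h2 ∧ Prf (cn Q A) lam2 lo2 K ∧
      OutA (gC T b) (cn Q A) T b (dhC T b) (nC T b) lam2 A0 φ2 rt ∧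
      (∀ k, (∀ i, gC T b i = k → 0 < dhC T b i) → ∀ c ∈ cn Q A, ∀ s : ℝ, 0 ≤ s →
        φ2 k (s • c) = s * φ2 k c) ∧
      ∀ k ∈ gset (gC T b), ∀ c ∈ cn Q A,
        Tendsto (fun l => φ k (t l • c) / t l) atTop (𝓝 (φ2 k c)) := by
  obtain ⟨ψ, hψ, lam2, lo2, H1, H2⟩ := exists_joint HP cn_closed cn_zero (y := 0)
    (fun C => ⟨1, one_pos, fun h hh _ c hc _ => by rw [zero_add]; exact cn_smul hc hh.le⟩)
    (k := fun l => 1 / ((l : ℝ) + 1)) (fun l => by positivity)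
    tendsto_one_div_add_atTop_nhds_zero_nat
  set t : ℕ → ℝ := fun l => 1 / ((ψ l : ℕ) + 1 : ℝ) with ht
  have tpos : ∀ l, 0 < t l := fun l => by positivity
  have t0 : Tendsto t atTop (𝓝 0) :=
    tendsto_one_div_add_atTop_nhds_zero_nat.comp hψ.tendsto_atTop
  obtain ⟨χ, hχ, hJ⟩ := HJ.comp (fun _ h => h) cn_zero K2S774.Nat.zero
    (fun w hw h => absurd hw h) tpos t0 H1 H2
  obtain ⟨φ2, hO, hhom, hlim⟩ := cn_zoom HP hF hT0 hT hb HO (Dg219.bup_of_tan tpos t0 H1)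
  have hP2 := HP.tan (x := fun _ => 0) tpos H1 H2
  refine ⟨t, lam2, lo2, _, _, φ2, tpos, t0, H1, H2, hJ, ⟨fun l i hi hT' => ?_, fun l i hi hT' => ?_,
    fun i hi hT' R => ?_⟩, hP2, hO, hhom, hlim⟩
  · simp only [smul_zero, add_zero]
    exact HB.eq _ i hi hT'
  · simp only [smul_zero, add_zero]
    exact HB.le _ i hi hT'
  · have hχt : Tendsto χ atTop atTop := tendsto_atTop_mono hχ tendsto_id
    filter_upwards [hχt.eventually (HB.slack i hi hT' |R|),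
      t0.eventually (eventually_le_nhds one_pos)] with l hl hl1
    simp only [smul_zero, add_zero]
    have h1 := HJ.pos (χ l)
    have h2 : R * (h' (χ l) * t l) ≤ |R| * h' (χ l) := by
      have a1 : R * (h' (χ l) * t l) ≤ |R| * (h' (χ l) * t l) :=
        mul_le_mul_of_nonneg_right (le_abs_self R) (mul_nonneg h1.le (tpos l).le)
      have a2 : |R| * (h' (χ l) * t l) ≤ |R| * (h' (χ l) * 1) :=
        mul_le_mul_of_nonneg_left (mul_le_mul_of_nonneg_left hl1 h1.le) (abs_nonneg R)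
      linarith
    linarith

/-- **the F-lemma for homogeneous tangents** (last rung: `V = True`) -/
def FLemH (Q : Walls (Fin m) W) (A : W → Prop) (P : Set (Fin m → ℝ)) (ν own : (Fin m → ℝ) → ℝ)
    (K : ℝ) (r0 : Fin m → ℝ) (Tie : Set (Fin m)) (kz : Fin m) (o : Fin m → ℝ)
    (T b : Fin m → ℝ) (g' : ℝ) : Prop :=
  ∀ (A0 : ℝ × ℝ) (lam' lo' : (Fin m → ℝ) → ℝ) (x' : ℕ → Fin m → ℝ) (h' : ℕ → ℝ),
    JT Q A P ν own r0 x' h' lam' lo' → Prf (cn Q A) lam' lo' K → BaseOk Tie kz o T r0 x' h' →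
    ∀ (φ : ℕ → (Fin m → ℝ) → ℝ) (rt : ℕ → ℝ),
      OutA (gC T b) (cn Q A) T b (dhC T b) (nC T b) lam' A0 φ rt →
      (∀ k, (∀ i, gC T b i = k → 0 < dhC T b i) → ∀ c ∈ cn Q A, ∀ s : ℝ, 0 ≤ s →
        φ k (s • c) = s * φ k c) →
    g' ≤ -A0.1

/-- the F-lemma for homogeneous tangents gives the F-lemma (last rung: `V = True`) -/
theorem flemA_of_hom (H : Prf (cn Q A) lam lo K) (hF : ∀ w, A w → ∃ s, Q.co w s ≠ 0)
    {T T' b : Fin m → ℝ} (hT0 : ∀ i, 0 ≤ T i) (hT : Nat Q A T) (hb : Nat Q A b) {g : ℝ}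
    (hH : FLemH Q A P ν own K r0 Tie kz o T b (g - Dl T'))
    (V : ((Fin m → ℝ) → ℝ) → Prop) :
    FLemA Q A P ν own r0 Dl Tie kz o T T' b lam lo V g := by
  intro z hz D hD k lam' lo' kpos k0 H1 H2 x' h' hJ hB φ rt hO _
  have hP' := H.tan (x := fun _ => X 0 T b z) kpos H1 H2
  obtain ⟨t, lam2, lo2, x2, h2, φ2, -, -, -, -, hJ2, hB2, hP2, hO2, hhom, -⟩ :=
    exists_hom hF hT0 hT hb hJ hP' hB hO
  have := hH _ lam2 lo2 x2 h2 hJ2 hP2 hB2 φ2 rt hO2 hhom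
  change g - Dl T' ≤ -D (1, 0) at this
  linarith

end Crest.Agent.R136.K2B146
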