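import Crest.Agent.R136.K2X_774

/-!
# R136 (helper774): stages of the ladder, transports

* **`Stage.sweepR`** : a loss at the record points is a loss at the points left of the record.
* **`Stage.sweep`**  : the same for the D-max loss `-Dl u`.
* `Stage.hown`       : own loss at the points left of the record (local own-wideness).
* `JT.compM`, **`Stage.at_recM`**, `Stage.exists_recM` : moving record points.
-/

set_option autoImplicit false
set_option linter.unusedSectionVars false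
set_option linter.unusedVariables false

open Set Filter Topology Metric MeasureTheory

namespace Crest.Agent.R136.K2S774

open Dg262 (X X_cont SupOn LegU)
open Dg219 (Tn BUp Walls OutS gC dhC nC)
open Crest.Agent.R138

variable {m : ℕ} {W : Type*} [Fintype W]

variable {Q : Walls (Fin m) W} {P : Set (Fin m → ℝ)} {ν own : (Fin m → ℝ) → ℝ} {K : ℝ}
  {r0 ρ : Fin m → ℝ} {Dl : (Fin m → ℝ) →ₗ[ℝ] ℝ} {Qd : Set (Fin m → ℝ)} {Z Tie : Set (Fin m)}
  {kz : Fin m} {o : Fin m → ℝ} {τ : ℝ} {A : W → Prop} {Dr : Set (Fin m)}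
  {lam lo lam' lo' : (Fin m → ℝ) → ℝ}

theorem cn_sup {c d : Fin m → ℝ} (hc : c ∈ cn Q A) (hd : d ∈ cn Q A) : c ⊔ d ∈ cn Q A := by
  intro w hw
  rw [Pi.sup_apply]
  exact sup_le ((hc w hw).trans (rhs_mono w le_sup_left)) ((hd w hw).trans (rhs_mono w le_sup_right))

/-- the walls do not see the dropped slots -/
theorem Stage.mem_congr (H : Stage Q P ν own K r0 ρ Dl Qd Z Tie kz o τ A Dr lam lo)
    {c d : Fin m → ℝ} (hc : c ∈ cn Q A) (h : ∀ i, i ∉ Dr → c i = d i) : d ∈ cn Q A := by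
  intro w hw
  rw [← h _ (H.noD w hw).1, ← rhs_congr w (c := c) (d := d) fun s hs =>
    h s fun hsD => hs ((H.noD w hw).2 s hsD)]
  exact hc w hw

theorem eventually_small {k : ℕ → ℝ} (k0 : Tendsto k atTop (𝓝 0)) {f g : Fin m → ℝ}
    {S : Fin m → Prop} (h : ∀ i, S i → g i < 0) : ∀ᶠ l in atTop, ∀ i, S i → g i + k l * f i ≤ 0 := by
  rw [Filter.eventually_all]
  intro i
  by_cases hi : S i
  · have h1 : Tendsto (fun l => k l * f i) atTop (𝓝 0) := by
      have := k0.mul_const (f i)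
      rwa [zero_mul] at this
    filter_upwards [h1.eventually_lt_const (show (0:ℝ) < -g i by linarith [h i hi])] with l hl _
    linarith
  · exact Eventually.of_forall fun l h => absurd h hi

/-- **a loss at the record points is a loss left of the record** -/
theorem Stage.sweepR (H : Stage Q P ν own K r0 ρ Dl Qd Z Tie kz o τ A Dr lam lo)
    (hρ : Nat Q A ρ) {T b : Fin m → ℝ} (T0 : ∀ i, 0 ≤ T i) (natT : Nat Q A T)
    (hb : ∀ i, i ∉ Dr → b i = ρ i) {z : ℝ × ℝ} (hz : z.1 < 0) {k : ℕ → ℝ} (kpos : ∀ l, 0 < k l)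
    (k0 : Tendsto k atTop (𝓝 0))
    (H1 : Ex926.IsTan (cn Q A) (cn Q A) lam (fun _ => X 0 T b z) k lam')
    {u c' : Fin m → ℝ} {mm σ h : ℝ} (u0 : ∀ i, 0 ≤ u i) (hh : 0 ≤ h)
    (hm : ∀ σ h : ℝ, 0 ≤ h → σ • ρ + h • u ∈ cn Q A →
      mm * h ≤ lam (σ • ρ) - lam (σ • ρ + h • u))
    (hc : c' ∈ cn Q A) (hcu : c' + h • u ∈ cn Q A)
    (hT : ∀ i, i ∉ Dr → T i = 0 → c' i ≤ σ * ρ i)
    (hs : ∀ i, i ∉ Dr → u i ≠ 0 → T i = 0 ∧ c' i = σ * ρ i) :
    mm * h ≤ lam' c' - lam' (c' + h • u) := by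
  classical
  have hnb := H.nat_b hρ hb
  set y : Fin m → ℝ := X 0 T b z with hy
  have hyn : Nat Q A y := by
    rw [hy, X_zero]; exact (natT.smul _).add (hnb.smul _)
  have hyi : ∀ i, y i = z.1 * T i + z.2 * b i := fun i => by
    rw [hy, X_zero]; simp only [Pi.add_apply, Pi.smul_apply, smul_eq_mul]
  have hBU := Dg219.bup_of_tan kpos k0 H1
  have hlim := (hBU.lim c' hc).sub (hBU.lim _ hcu)
  refine ge_of_tendsto hlim ?_
  filter_upwards [eventually_small k0 (f := fun i => c' i - σ * ρ i) (g := fun i => z.1 * T i)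
    (S := fun i => i ∉ Dr ∧ 0 < T i) fun i hi => mul_neg_of_neg_of_pos hz hi.2] with l hl
  have hk := kpos l
  have mp : y + k l • c' ∈ cn Q A := cn_nat_add hyn hc hk.le
  have mpu : y + k l • (c' + h • u) ∈ cn Q A := cn_nat_add hyn hcu hk.le
  set σ' : ℝ := z.2 + k l * σ with hσ'
  set q : Fin m → ℝ := fun i => if i ∈ Dr then (y + k l • c') i else σ' * ρ i with hq
  have qoff : ∀ i, i ∉ Dr → q i = σ' * ρ i := fun i hi => by rw [hq]; simp only [if_neg hi]
  have qon : ∀ i, i ∈ Dr → q i = (y + k l • c') i := fun i hi => by rw [hq]; simp only [if_pos hi]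
  have mq : q ∈ cn Q A := H.mem_congr (hρ.smul σ').mem fun i hi => by
    rw [qoff i hi, Pi.smul_apply, smul_eq_mul]
  -- position
  have hpq : ∀ i, (y + k l • c') i ≤ q i := by
    intro i
    by_cases hi : i ∈ Dr
    · rw [qon i hi]
    · rw [qoff i hi]
      simp only [Pi.add_apply, Pi.smul_apply, smul_eq_mul]
      rw [hyi i, hb i hi, hσ']
      rcases (T0 i).eq_or_lt with h0 | h0
      · have h1 := mul_le_mul_of_nonneg_left (hT i hi h0.symm) hk.le
        rw [← h0]; nlinarith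
      · have h1 := hl i ⟨hi, h0⟩
        nlinarith
  have heq : ∀ i, u i ≠ 0 → (y + k l • c') i = q i := by
    intro i hui
    by_cases hi : i ∈ Dr
    · rw [qon i hi]
    · obtain ⟨h0, h1⟩ := hs i hi hui
      rw [qoff i hi]
      simp only [Pi.add_apply, Pi.smul_apply, smul_eq_mul]
      rw [hyi i, hb i hi, h0, h1, hσ']; ring
  have hsup : (y + k l • (c' + h • u)) ⊔ q = q + (k l * h) • u := by
    funext i
    rw [Pi.sup_apply]
    by_cases hui : u i = 0
    · have h1 := hpq i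
      simp only [Pi.add_apply, Pi.smul_apply, smul_eq_mul] at h1 ⊢
      rw [hui, mul_zero, mul_zero, add_zero, add_zero]
      exact max_eq_right h1
    · have h1 := heq i hui
      have h2 : 0 ≤ k l * h * u i := mul_nonneg (mul_nonneg hk.le hh) (u0 i)
      simp only [Pi.add_apply, Pi.smul_apply, smul_eq_mul] at h1 ⊢
      rw [max_eq_left (by nlinarith)]
      linear_combination h1
  have hinf : (y + k l • (c' + h • u)) ⊓ q = y + k l • c' := by
    funext i
    rw [Pi.inf_apply]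
    by_cases hui : u i = 0
    · have h1 := hpq i
      simp only [Pi.add_apply, Pi.smul_apply, smul_eq_mul] at h1 ⊢
      rw [hui, mul_zero, add_zero]
      exact min_eq_left h1
    · have h1 := heq i hui
      have h2 : 0 ≤ k l * h * u i := mul_nonneg (mul_nonneg hk.le hh) (u0 i)
      simp only [Pi.add_apply, Pi.smul_apply, smul_eq_mul] at h1 ⊢
      rw [← h1, min_eq_right (by nlinarith)]
  have mqu : q + (k l * h) • u ∈ cn Q A := hsup ▸ cn_sup mpu mq
  have hsm := H.prf.sup _ mpu _ mq (by rw [hinf]; exact mp) (by rw [hsup]; exact mqu)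
  rw [hsup, hinf] at hsm
  have mr : σ' • ρ + (k l * h) • u ∈ cn Q A := H.mem_congr mqu fun i hi => by
    simp only [Pi.add_apply, Pi.smul_apply, smul_eq_mul]; rw [qoff i hi]
  have e1 : lam q = lam (σ' • ρ) := H.ind q mq _ (hρ.smul σ').mem (fun i hi => by
    rw [qoff i hi, Pi.smul_apply, smul_eq_mul]) ⟨σ', fun i hi => by rw [qoff i (H.ZD i hi)]⟩
  have e2 : lam (q + (k l * h) • u) = lam (σ' • ρ + (k l * h) • u) :=
    H.ind _ mqu _ mr (fun i hi => by
      simp only [Pi.add_apply, Pi.smul_apply, smul_eq_mul]; rw [qoff i hi]) ⟨σ', fun i hi => by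
      simp only [Pi.add_apply, Pi.smul_apply, smul_eq_mul]
      rw [qoff i (H.ZD i hi)]
      have := mul_nonneg (mul_nonneg hk.le hh) (u0 i)
      linarith⟩
  have e3 := hm σ' (k l * h) (mul_nonneg hk.le hh) mr
  rw [← sub_div, le_div_iff₀ hk]
  rw [e1, e2] at hsm
  have e4 : mm * (k l * h) = mm * h * k l := by ring
  linarith

/-- **D-max loss left of the record** -/
theorem Stage.sweep (H : Stage Q P ν own K r0 ρ Dl Qd Z Tie kz o τ A Dr lam lo)
    (R : RecD Q A ρ Qd Tie kz o) {T b : Fin m → ℝ} (T0 : ∀ i, 0 ≤ T i) (natT : Nat Q A T)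
    (hb : ∀ i, i ∉ Dr → b i = ρ i) {z : ℝ × ℝ} (hz : z.1 < 0) {k : ℕ → ℝ} (kpos : ∀ l, 0 < k l)
    (k0 : Tendsto k atTop (𝓝 0))
    (H1 : Ex926.IsTan (cn Q A) (cn Q A) lam (fun _ => X 0 T b z) k lam')
    {u c' : Fin m → ℝ} {σ h : ℝ} (u0 : ∀ i, 0 ≤ u i) (uq : u ∈ Qd) (hh : 0 ≤ h)
    (hc : c' ∈ cn Q A) (hcu : c' + h • u ∈ cn Q A)
    (hT : ∀ i, i ∉ Dr → T i = 0 → c' i ≤ σ * ρ i)
    (hs : ∀ i, i ∉ Dr → u i ≠ 0 → T i = 0 ∧ c' i = σ * ρ i) :
    -(Dl u) * h ≤ lam' c' - lam' (c' + h • u) :=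
  H.sweepR R.nat T0 natT hb hz kpos k0 H1 u0 hh (fun σ h hh hm => by
    have h1 := H.dmx _ hm _ (R.qd u uq σ h hh) fun i _ => le_rfl
    rw [map_add, map_smul, map_smul, smul_eq_mul, smul_eq_mul] at h1
    rw [H.rcd σ]
    linarith) hc hcu hT hs

/-- **own value left of the record**: `lo'` on own-wide boxes (only the slots with
`T i = o i * T kz` are visible) -/
theorem Stage.lo_tan (H : Stage Q P ν own K r0 ρ Dl Qd Z Tie kz o τ A Dr lam lo)
    (R : RecD Q A ρ Qd Tie kz o) {T b : Fin m → ℝ} (natT : Nat Q A T)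
    (hTie : ∀ i ∈ Tie, o i * T kz ≤ T i)
    (hb : ∀ i, i ∉ Dr → b i = ρ i) {z : ℝ × ℝ} (hz : z.1 < 0) {k : ℕ → ℝ} (kpos : ∀ l, 0 < k l)
    (k0 : Tendsto k atTop (𝓝 0))
    (H2 : Ex926.IsTan (cn Q A) (cn Q A) lo (fun _ => X 0 T b z) k lo') :
    (∀ c ∈ cn Q A, (∀ i ∈ Tie, T i = o i * T kz → c i ≤ o i * c kz) → lo' c = -(τ * c kz)) ∧
      ∀ c ∈ cn Q A, lo' c ≤ -(τ * c kz) := by
  have hnb := H.nat_b R.nat hb
  set y : Fin m → ℝ := X 0 T b z with hy
  have hyn : Nat Q A y := by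
    rw [hy, X_zero]; exact (natT.smul _).add (hnb.smul _)
  have hyi : ∀ i, y i = z.1 * T i + z.2 * b i := fun i => by
    rw [hy, X_zero]; simp only [Pi.add_apply, Pi.smul_apply, smul_eq_mul]
  have hbz : b kz = ρ kz := hb kz H.zD
  have hBO := Dg219.bup_of_tan kpos k0 H2
  have hy0 : lo y = -(τ * y kz) := H.ownr y hyn.mem fun i hi => by
    have h1 := mul_le_mul_of_nonneg_left (hTie i hi) (neg_nonneg.2 hz.le)
    rw [hyi, hyi, hbz, hb i (H.TD i hi), R.tie i hi]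
    nlinarith
  constructor
  · intro c hc hcT
    refine tendsto_nhds_unique (hBO.lim c hc) (tendsto_const_nhds.congr' ?_)
    filter_upwards [eventually_small k0 (f := fun i => c i - o i * c kz)
      (g := fun i => z.1 * (T i - o i * T kz)) (S := fun i => i ∈ Tie ∧ o i * T kz < T i)
      fun i hi => mul_neg_of_neg_of_pos hz (sub_pos.2 hi.2)] with l hl
    have hk := kpos l
    have h1 : lo (y + k l • c) = -(τ * (y + k l • c) kz) := by
      refine H.ownr _ (cn_nat_add hyn hc hk.le) fun i hi => ?_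
      simp only [Pi.add_apply, Pi.smul_apply, smul_eq_mul]
      rw [hyi, hyi, hbz, hb i (H.TD i hi), R.tie i hi]
      rcases (hTie i hi).eq_or_lt with h0 | h0
      · have h2 := mul_le_mul_of_nonneg_left (hcT i hi h0.symm) hk.le
        rw [← h0]; nlinarith
      · have h2 := hl i ⟨hi, h0⟩
        nlinarith
    rw [h1, hy0]
    simp only [Pi.add_apply, Pi.smul_apply, smul_eq_mul]
    field_simp
    ring
  · intro c hc
    refine le_of_tendsto (hBO.lim c hc) (Eventually.of_forall fun l => ?_)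
    have hk := kpos l
    have h1 := H.ownu _ (cn_nat_add hyn hc hk.le)
    simp only [Pi.add_apply, Pi.smul_apply, smul_eq_mul] at h1
    rw [hy0, div_le_iff₀ hk]
    linarith

/-- **own loss left of the record** -/
theorem Stage.hown (H : Stage Q P ν own K r0 ρ Dl Qd Z Tie kz o τ A Dr lam lo)
    (R : RecD Q A ρ Qd Tie kz o) {T b : Fin m → ℝ} (natT : Nat Q A T)
    (hTie : ∀ i ∈ Tie, o i * T kz ≤ T i)
    (hb : ∀ i, i ∉ Dr → b i = ρ i) {z : ℝ × ℝ} (hz : z.1 < 0) {k : ℕ → ℝ} (kpos : ∀ l, 0 < k l)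
    (k0 : Tendsto k atTop (𝓝 0))
    (H1 : Ex926.IsTan (cn Q A) (cn Q A) lam (fun _ => X 0 T b z) k lam')
    (H2 : Ex926.IsTan (cn Q A) (cn Q A) lo (fun _ => X 0 T b z) k lo') :
    ∀ c ∈ cn Q A, ∀ c' ∈ cn Q A, c ≤ c' → (∀ i ∈ Tie, T i = o i * T kz → c i ≤ o i * c kz) →
      τ * (c' kz - c kz) ≤ lam' c - lam' c' := by
  obtain ⟨h1, h2⟩ := H.lo_tan R natT hTie hb hz kpos k0 H2
  intro c hc c' hc' hcc hcT
  have h3 := (H.prf.tan kpos H1 H2).own_le c hc c' hc' hcc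
  rw [h1 c hc hcT] at h3
  have h4 := h2 c' hc'
  linarith

/-! ### moving record points -/

/-- joint tangent of a joint tangent, moving natural base points -/
theorem JT.compM {x : ℕ → Fin m → ℝ} {h k : ℕ → ℝ} {y : ℕ → Fin m → ℝ}
    (H : JT Q A P ν own r0 x h lam lo) (hyn : ∀ l, Nat Q A (y l))
    (kpos : ∀ l, 0 < k l) (k0 : Tendsto k atTop (𝓝 0))
    (H1 : Ex926.IsTan (cn Q A) (cn Q A) lam y k lam')
    (H2 : Ex926.IsTan (cn Q A) (cn Q A) lo y k lo') (Xp : ℕ → ℕ → Prop)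
    (hX : ∀ n, ∀ᶠ l in atTop, Xp n l) :
    ∃ ψ : ℕ → ℕ, (∀ m, m ≤ ψ m) ∧ JT Q A P ν own r0 (fun m => x (ψ m) + h (ψ m) • y m)
      (fun m => h (ψ m) * k m) lam' lo' ∧ ∀ m, Xp m (ψ m) := by
  have key : ∀ n : ℕ, ∃ l : ℕ, n ≤ l ∧ (∀ c ∈ cn Q A, ‖c‖ ≤ ‖y n‖ + k n * n →
      x l + h l • c ∈ P ∧ |ν (x l + h l • c) - ν (x l) - h l * lam c| ≤ k n / (n + 1) * h l) ∧
      (∀ c ∈ cn Q A, ‖c‖ ≤ ‖y n‖ + k n * n →
      x l + h l • c ∈ P ∧ |own (x l + h l • c) - own (x l) - h l * lo c| ≤ k n / (n + 1) * h l) ∧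
      h l * (‖y n‖ + 1) ≤ 1 / ((n : ℝ) + 1) ∧
      (∀ w, ¬ A w → x l (Q.hd w) + (|y n (Q.hd w)| + |Q.rhs w (y n)| + n) * h l ≤
        Q.rhs w (x l) + Q.cst w) ∧ Xp n l := by
    intro n
    have h1 := H.tan (‖y n‖ + k n * n) (k n / (n + 1)) (div_pos (kpos n) (by positivity))
    have h2 := H.tano (‖y n‖ + k n * n) (k n / (n + 1)) (div_pos (kpos n) (by positivity))
    have h3 : Tendsto (fun l => h l * (‖y n‖ + 1)) atTop (𝓝 0) := by
      have := H.zero.mul_const (‖y n‖ + 1)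
      rwa [zero_mul] at this
    have h4 := h3.eventually_lt_const (show (0:ℝ) < 1 / ((n : ℝ) + 1) by positivity)
    have h5 : ∀ᶠ l in atTop, ∀ w, ¬ A w →
        x l (Q.hd w) + (|y n (Q.hd w)| + |Q.rhs w (y n)| + n) * h l ≤
        Q.rhs w (x l) + Q.cst w := by
      rw [Filter.eventually_all]
      intro w
      by_cases hw : A w
      · exact Eventually.of_forall fun l h => absurd hw h
      · exact (H.gap w hw _).mono fun l hl _ => hl
    obtain ⟨l, ⟨⟨⟨⟨hl1, hl3⟩, hl4⟩, hl5⟩, hl6⟩, hl2⟩ :=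
      (((((h1.and h2).and h4).and h5).and (hX n)).and (eventually_ge_atTop n)).exists
    exact ⟨l, hl2, hl1, hl3, hl4.le, hl5, hl6⟩
  choose ψ hψ hψ2 hψ3 hψ4 hψ5 hψ6 using key
  have hψt : Tendsto ψ atTop atTop := tendsto_atTop_mono hψ tendsto_id
  have h0 : Tendsto (fun n => h (ψ n)) atTop (𝓝 0) := H.zero.comp hψt
  have tan : ∀ {f g g' : (Fin m → ℝ) → ℝ}, Ex926.IsTan (cn Q A) (cn Q A) g y k g' →
      (∀ n : ℕ, ∀ c ∈ cn Q A, ‖c‖ ≤ ‖y n‖ + k n * n → x (ψ n) + h (ψ n) • c ∈ P ∧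
        |f (x (ψ n) + h (ψ n) • c) - f (x (ψ n)) - h (ψ n) * g c| ≤ k n / (n + 1) * h (ψ n)) →
      Ex926.IsTan P (cn Q A) f (fun m => x (ψ m) + h (ψ m) • y m) (fun m => h (ψ m) * k m) g' := by
    intro f g g' HT hψ2 C ε hε
    obtain ⟨N1, hN1⟩ := exists_nat_gt C
    obtain ⟨N2, hN2⟩ := exists_nat_gt (4 / ε)
    filter_upwards [HT C (ε / 2) (by positivity), eventually_ge_atTop (max N1 N2)]
      with m hm hmN c hc hcC
    have m1 : (N1 : ℝ) ≤ m := by exact_mod_cast (le_max_left _ _).trans hmN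
    have m2 : (N2 : ℝ) ≤ m := by exact_mod_cast (le_max_right _ _).trans hmN
    have hk := kpos m
    have hh := H.pos (ψ m)
    have hp : y m + k m • c ∈ cn Q A := (hm c hc hcC).1
    have hpn : ‖y m + k m • c‖ ≤ ‖y m‖ + k m * m := by
      refine (norm_add_le _ _).trans ?_
      rw [norm_smul, Real.norm_of_nonneg hk.le]
      have : k m * ‖c‖ ≤ k m * m := mul_le_mul_of_nonneg_left (by linarith) hk.le
      linarith
    have hyn' : ‖y m‖ ≤ ‖y m‖ + k m * m := by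
      have : 0 ≤ k m * (m : ℝ) := by positivity
      linarith
    have a1 := hψ2 m _ hp hpn
    have a2 := hψ2 m (y m) (hyn m).mem hyn'
    have a3 := (hm c hc hcC).2
    have e1 : x (ψ m) + h (ψ m) • y m + (h (ψ m) * k m) • c =
        x (ψ m) + h (ψ m) • (y m + k m • c) := by
      rw [smul_add, smul_smul, add_assoc]
    refine ⟨by rw [e1]; exact a1.1, ?_⟩
    rw [e1]
    have b1 := a1.2
    have b2 := a2.2
    have b3 : |h (ψ m) * (g (y m + k m • c) - g (y m) - k m * g' c)| ≤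
        h (ψ m) * (ε / 2 * k m) := by
      rw [abs_mul, abs_of_pos hh]
      exact mul_le_mul_of_nonneg_left a3 hh.le
    have b4 : k m / (m + 1) ≤ ε / 4 * k m := by
      rw [div_le_iff₀ (by positivity)]
      have : 4 / ε < (m : ℝ) + 1 := by linarith
      rw [div_lt_iff₀ hε] at this
      nlinarith
    have b5 : k m / (m + 1) * h (ψ m) ≤ ε / 4 * k m * h (ψ m) :=
      mul_le_mul_of_nonneg_right b4 hh.le
    rw [abs_le] at b1 b2 b3 ⊢
    constructor <;> nlinarith [b1.1, b1.2, b2.1, b2.2, b3.1, b3.2]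
  refine ⟨ψ, hψ, ⟨fun l => mul_pos (H.pos _) (kpos l), ?_, ?_, ?_, ?_, tan H1 hψ2, tan H2 hψ3⟩,
    hψ6⟩
  · have := h0.mul k0
    rwa [zero_mul] at this
  · intro l w hw
    have h1 := H.nat (ψ l) w hw
    have h2 := hyn l w hw
    rw [Q.rhs_add, Q.rhs_smul, Pi.add_apply, Pi.smul_apply, smul_eq_mul, h1, h2]
    ring
  · intro w hw R
    have hk1 : ∀ᶠ l in atTop, |k l| ≤ 1 := by
      have h1 := k0.abs
      rw [abs_zero] at h1
      exact (h1.eventually_lt_const one_pos).mono fun l hl => hl.le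
    obtain ⟨N, hN⟩ := exists_nat_gt |R|
    filter_upwards [hk1, eventually_ge_atTop N] with l hk hl2
    have hl := hψ5 l w hw
    have hNl : (N : ℝ) ≤ l := by exact_mod_cast hl2
    rw [Q.rhs_add, Q.rhs_smul, Pi.add_apply, Pi.smul_apply, smul_eq_mul]
    have hh := (H.pos (ψ l)).le
    have b1 : h (ψ l) * y l (Q.hd w) ≤ h (ψ l) * |y l (Q.hd w)| :=
      mul_le_mul_of_nonneg_left (le_abs_self _) hh
    have b2 : h (ψ l) * -Q.rhs w (y l) ≤ h (ψ l) * |Q.rhs w (y l)| :=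
      mul_le_mul_of_nonneg_left (neg_le_abs _) hh
    have b3 : R * k l ≤ l := by
      have : R * k l ≤ |R| := by
        refine (le_abs_self _).trans ?_
        rw [abs_mul]
        exact mul_le_of_le_one_right (abs_nonneg _) hk
      linarith
    have b4 : h (ψ l) * (R * k l) ≤ h (ψ l) * l := mul_le_mul_of_nonneg_left b3 hh
    nlinarith
  · have h1 : Tendsto (fun n => x (ψ n)) atTop (𝓝 r0) := H.base.comp hψt
    have h2 : Tendsto (fun n => h (ψ n) • y n) atTop (𝓝 0) := by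
      refine squeeze_zero_norm (a := fun n : ℕ => 1 / ((n : ℝ) + 1)) (fun n => ?_)
        tendsto_one_div_add_atTop_nhds_zero_nat
      rw [norm_smul, Real.norm_of_nonneg (H.pos _).le]
      refine le_trans ?_ (hψ4 n)
      exact mul_le_mul_of_nonneg_left (by linarith) (H.pos _).le
    have := h1.add h2
    rwa [add_zero] at this

/-- difference quotients of a tangent, moving base points -/
theorem tan_lim {P L : Set (Fin m → ℝ)} {f g : (Fin m → ℝ) → ℝ} {y : ℕ → Fin m → ℝ} {k : ℕ → ℝ}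
    (H : Ex926.IsTan P L f y k g) (kpos : ∀ l, 0 < k l) {c : Fin m → ℝ} (hc : c ∈ L) :
    Tendsto (fun l => (f (y l + k l • c) - f (y l)) / k l) atTop (𝓝 (g c)) := by
  rw [Metric.tendsto_atTop]
  intro ε hε
  obtain ⟨N, hN⟩ := eventually_atTop.1 (H.ev hc (ε := ε / 2) (by positivity))
  refine ⟨N, fun l hl => ?_⟩
  have h1 := (hN l hl).2
  have hk := kpos l
  rw [Real.dist_eq]
  have e : (f (y l + k l • c) - f (y l)) / k l - g c =
      (f (y l + k l • c) - f (y l) - k l * g c) / k l := by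
    field_simp
  rw [e, abs_div, abs_of_pos hk, div_lt_iff₀ hk]
  nlinarith

theorem Stage.nat_off (H : Stage Q P ν own K r0 ρ Dl Qd Z Tie kz o τ A Dr lam lo)
    (hρ : Nat Q A ρ) {y : Fin m → ℝ} {σ : ℝ} (hy : ∀ i, i ∉ Dr → y i = σ * ρ i) : Nat Q A y := by
  intro w hw
  have e : Q.rhs w y = Q.rhs w (σ • ρ) := rhs_congr w fun s hs => by
    rw [Pi.smul_apply, smul_eq_mul]
    exact hy s fun h => hs ((H.noD w hw).2 s h)
  rw [e, hy _ (H.noD w hw).1, hρ.smul σ w hw |>.symm, Pi.smul_apply, smul_eq_mul]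

/-- **a tangent at moving record points is again a stage** -/
theorem Stage.at_recM (H : Stage Q P ν own K r0 ρ Dl Qd Z Tie kz o τ A Dr lam lo)
    (R : RecD Q A ρ Qd Tie kz o) {y : ℕ → Fin m → ℝ} {σ : ℕ → ℝ}
    (hy : ∀ l i, i ∉ Dr → y l i = σ l * ρ i) {k : ℕ → ℝ} (kpos : ∀ l, 0 < k l)
    (k0 : Tendsto k atTop (𝓝 0)) {lam1 lo1 : (Fin m → ℝ) → ℝ}
    (H1 : Ex926.IsTan (cn Q A) (cn Q A) lam y k lam1)
    (H2 : Ex926.IsTan (cn Q A) (cn Q A) lo y k lo1) :
    Stage Q P ν own K r0 ρ Dl Qd Z Tie kz o τ A Dr lam1 lo1 := by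
  have hyn : ∀ l, Nat Q A (y l) := fun l => H.nat_off R.nat (hy l)
  have mem : ∀ c ∈ cn Q A, ∀ l, y l + k l • c ∈ cn Q A := fun c hc l =>
    cn_nat_add (hyn l) hc (kpos l).le
  have hbase : ∀ l, lam (y l) = σ l * Dl ρ := fun l => H.lam_b R.nat (hyn l).mem (hy l)
  have hyz : ∀ l, y l kz = σ l * ρ kz := fun l => hy l kz H.zD
  obtain ⟨x, h, hJ, hxt, σx, hσx, hσν⟩ := H.jt
  obtain ⟨ψ, -, hJ', hψ⟩ := hJ.compM hyn kpos k0 H1 H2 _
    (xpR_ev hJ.tan hJ.pos kpos (fun l => (hyn l).mem) hσν)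
  refine ⟨⟨_, _, hJ', fun l i hi => ?_, recX_of hJ.pos kpos hσx subset_rfl hy hbase hψ⟩,
    H.prf.tan kpos H1 H2, H.noD, H.ZD, H.TD, H.zD, ?_, ?_, ?_, ?_, ?_⟩
  · have h1 := hxt (ψ l) i hi
    simp only [Pi.add_apply, Pi.smul_apply, smul_eq_mul]
    rw [hy l i (H.TD i hi), hyz, R.tie i hi]
    linear_combination h1
  · rintro c hc c' hc' hcc ⟨σ', hσ⟩
    refine tendsto_nhds_unique (tan_lim H1 kpos hc) ((tan_lim H1 kpos hc').congr fun l => ?_)
    rw [H.ind _ (mem c' hc' l) _ (mem c hc l) (fun i hi => ?_) ⟨σ l + k l * σ', fun i hi => ?_⟩]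
    · simp only [Pi.add_apply, Pi.smul_apply, smul_eq_mul, hcc i hi]
    · simp only [Pi.add_apply, Pi.smul_apply, smul_eq_mul]
      rw [hy l i (H.ZD i hi), ← hcc i (H.ZD i hi)]
      have := mul_le_mul_of_nonneg_left (hσ i hi) (kpos l).le
      nlinarith
  · intro σ'
    refine tendsto_nhds_unique (tan_lim H1 kpos (Nat.mem (Nat.smul R.nat σ'))) ?_
    refine tendsto_const_nhds.congr fun l => ?_
    rw [hbase, H.lam_b R.nat (σ := σ l + k l * σ') (mem _ (Nat.mem (Nat.smul R.nat σ')) l)]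
    · have := (kpos l).ne'
      field_simp
      ring
    · intro i hi
      simp only [Pi.add_apply, Pi.smul_apply, smul_eq_mul]
      rw [hy l i hi]; ring
  · intro c hc d hd hdc
    refine le_of_tendsto (tan_lim H1 kpos hc) (Eventually.of_forall fun l => ?_)
    have h1 := H.dmx _ (mem c hc l) _ (R.qd d hd (σ l) (k l) (kpos l).le) fun i hi => by
      simp only [Pi.add_apply, Pi.smul_apply, smul_eq_mul]
      rw [hy l i hi]
      have := mul_le_mul_of_nonneg_left (hdc i hi) (kpos l).le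
      linarith
    rw [map_add, map_smul, map_smul, smul_eq_mul, smul_eq_mul] at h1
    rw [hbase, div_le_iff₀ (kpos l)]
    linarith
  · intro c hc hcT
    have tie : ∀ (l : ℕ) (t : ℝ), 0 ≤ t → lo (y l + t • c) = -(τ * (σ l * ρ kz + t * c kz)) := by
      intro l t ht
      rw [H.ownr _ (cn_nat_add (hyn l) hc ht) fun i hi => ?_]
      · simp only [Pi.add_apply, Pi.smul_apply, smul_eq_mul, hyz]
      · simp only [Pi.add_apply, Pi.smul_apply, smul_eq_mul, hyz]
        rw [hy l i (H.TD i hi), R.tie i hi]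
        have := mul_le_mul_of_nonneg_left (hcT i hi) ht
        nlinarith
    refine tendsto_nhds_unique (tan_lim H2 kpos hc) (tendsto_const_nhds.congr fun l => ?_)
    have h0 := tie l 0 le_rfl
    rw [zero_smul, add_zero, zero_mul, add_zero] at h0
    rw [tie l (k l) (kpos l).le, h0]
    have := (kpos l).ne'
    field_simp
    ring
  · intro c hc
    refine le_of_tendsto (tan_lim H2 kpos hc) (Eventually.of_forall fun l => ?_)
    have h0 : lo (y l) = -(τ * (σ l * ρ kz)) := by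
      rw [H.ownr _ (hyn l).mem fun i hi => ?_]
      · rw [hyz]
      · rw [hyz, hy l i (H.TD i hi), R.tie i hi]
        exact le_of_eq (by ring)
    have h1 := H.ownu _ (mem c hc l)
    simp only [Pi.add_apply, Pi.smul_apply, smul_eq_mul, hyz] at h1
    rw [h0, div_le_iff₀ (kpos l)]
    linarith

/-- tangents exist, moving base points -/
theorem exists_tanM {P L : Set (Fin m → ℝ)} (hDc : IsClosed L) {f : (Fin m → ℝ) → ℝ} (hK : 0 ≤ K)
    (hf : ∀ p ∈ P, ∀ q ∈ P, |f p - f q| ≤ K * ‖p - q‖) {y : ℕ → Fin m → ℝ} {k : ℕ → ℝ}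
    (kpos : ∀ l, 0 < k l) (h0D : (0 : Fin m → ℝ) ∈ L)
    (hy : ∀ l, ∀ c ∈ L, y l + k l • c ∈ P) :
    ∃ φ : ℕ → ℕ, StrictMono φ ∧ ∃ g : (Fin m → ℝ) → ℝ,
      Ex926.IsTan P L f (fun l => y (φ l)) (fun l => k (φ l)) g := by
  classical
  set ψ0 : ℕ → (Fin m → ℝ) → ℝ := fun l c => (f (y l + k l • c) - f (y l)) / k l with hψ0
  have hlip : ∀ l, ∀ c ∈ L, ∀ c' ∈ L, |ψ0 l c - ψ0 l c'| ≤ K * ‖c - c'‖ := by
    intro l c hc c' hc'
    have h1 := hf _ (hy l c hc) _ (hy l c' hc')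
    have e1 : y l + k l • c - (y l + k l • c') = k l • (c - c') := by rw [smul_sub]; abel
    rw [e1, norm_smul, Real.norm_of_nonneg (kpos l).le] at h1
    have e2 : ψ0 l c - ψ0 l c' = (f (y l + k l • c) - f (y l + k l • c')) / k l := by
      simp only [hψ0]; rw [← sub_div]; congr 1; ring
    rw [e2, abs_div, abs_of_pos (kpos l), div_le_iff₀ (kpos l)]
    linarith
  have hψ00 : ∀ l, ψ0 l 0 = 0 := fun l => by simp [hψ0]
  have hlim : ∀ c : Fin m → ℝ, ∃ v : ℝ, c ∈ L → Tendsto (fun l => ψ0 l c) Ex926.U (𝓝 v) := by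
    intro c
    by_cases hc : c ∈ L
    · obtain ⟨v, hv, -⟩ := Ex926.exists_tendsto (f := fun l => ψ0 l c) (C := K * ‖c‖)
        (Eventually.of_forall fun l => by
          have := hlip l c hc 0 h0D
          rwa [hψ00, sub_zero, sub_zero] at this)
      exact ⟨v, fun _ => hv⟩
    · exact ⟨0, fun h => absurd h hc⟩
  choose g hg using hlim
  have hunif : ∀ C ε : ℝ, 0 < ε → ∀ᶠ l in (Ex926.U : Filter ℕ), ∀ c ∈ L ∩ Metric.closedBall 0 C,
      |ψ0 l c - g c| ≤ ε := by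
    intro C ε hε
    have hcomp : IsCompact (L ∩ Metric.closedBall (0 : Fin m → ℝ) C) :=
      (isCompact_closedBall _ _).inter_left hDc
    refine Ex926.unif_of_lip hcomp hK (φ := fun l c => ψ0 l c) (ψ := g) ?_ ?_ hε
    · intro δ hδ
      refine Eventually.of_forall fun l c hc c' hc' => ?_
      have h1 := hlip l c hc.1 c' hc'.1
      rw [dist_eq_norm]
      linarith
    · intro c hc
      exact hg c hc.1
  obtain ⟨φ, hφ, hφ2⟩ := Filter.extraction_forall_of_frequently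
    (P := fun j l => ∀ c ∈ L ∩ Metric.closedBall (0 : Fin m → ℝ) ((j : ℝ) + 1),
      |ψ0 l c - g c| ≤ 1 / ((j : ℝ) + 1)) (fun j => by
      have h1 := hunif ((j : ℝ) + 1) (1 / ((j : ℝ) + 1)) (by positivity)
      exact h1.frequently.filter_mono Ex926.U_le_atTop)
  refine ⟨φ, hφ, g, fun C ε hε => ?_⟩
  obtain ⟨N1, hN1⟩ := exists_nat_gt C
  obtain ⟨N2, hN2⟩ := exists_nat_gt (1 / ε)
  filter_upwards [eventually_ge_atTop (max N1 N2)] with j h2 c hc hcC
  refine ⟨hy _ c hc, ?_⟩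
  have hj1 : (N1 : ℝ) ≤ j := by exact_mod_cast (le_max_left _ _).trans h2
  have hj2 : (N2 : ℝ) ≤ j := by exact_mod_cast (le_max_right _ _).trans h2
  have h3 := hφ2 j c ⟨hc, by
    rw [mem_closedBall_zero_iff]; linarith⟩
  have h4 : 1 / ((j : ℝ) + 1) ≤ ε := by
    rw [div_le_iff₀ (by positivity)]
    rw [div_lt_iff₀ hε] at hN2
    nlinarith
  have hgp := kpos (φ j)
  have e1 : f (y (φ j) + k (φ j) • c) - f (y (φ j)) - k (φ j) * g c =
      k (φ j) * (ψ0 (φ j) c - g c) := by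
    simp only [hψ0]; field_simp
  show |f (y (φ j) + k (φ j) • c) - f (y (φ j)) - k (φ j) * g c| ≤ ε * k (φ j)
  rw [e1, abs_mul, abs_of_pos hgp, mul_comm]
  exact mul_le_mul_of_nonneg_right (h3.trans h4) hgp.le

/-- **moving record points**: a subsequence is a stage -/
theorem Stage.exists_recM (H : Stage Q P ν own K r0 ρ Dl Qd Z Tie kz o τ A Dr lam lo)
    (R : RecD Q A ρ Qd Tie kz o) {y : ℕ → Fin m → ℝ} {σ : ℕ → ℝ}
    (hy : ∀ l i, i ∉ Dr → y l i = σ l * ρ i) {k : ℕ → ℝ} (kpos : ∀ l, 0 < k l)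
    (k0 : Tendsto k atTop (𝓝 0)) :
    ∃ φ : ℕ → ℕ, StrictMono φ ∧ ∃ lam1 lo1 : (Fin m → ℝ) → ℝ,
      Ex926.IsTan (cn Q A) (cn Q A) lam (fun l => y (φ l)) (fun l => k (φ l)) lam1 ∧
      Ex926.IsTan (cn Q A) (cn Q A) lo (fun l => y (φ l)) (fun l => k (φ l)) lo1 ∧
      Stage Q P ν own K r0 ρ Dl Qd Z Tie kz o τ A Dr lam1 lo1 := by
  have hyn : ∀ l, Nat Q A (y l) := fun l => H.nat_off R.nat (hy l)
  obtain ⟨φ1, h1, lam1, hl1⟩ := exists_tanM cn_closed H.prf.K0 H.prf.lip kpos cn_zero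
    fun l c hc => cn_nat_add (hyn l) hc (kpos l).le
  obtain ⟨φ2, h2, lo1, hl2⟩ := exists_tanM (y := fun l => y (φ1 l)) (k := fun l => k (φ1 l))
    cn_closed H.prf.K0 H.prf.olip (fun l => kpos _) cn_zero
    fun l c hc => cn_nat_add (hyn _) hc (kpos _).le
  have hl1' := tan_sub hl1 h2.tendsto_atTop
  exact ⟨fun l => φ1 (φ2 l), h1.comp h2, lam1, lo1, hl1', hl2,
    H.at_recM R (fun l => hy _) (fun l => kpos _) (k0.comp (h1.comp h2).tendsto_atTop) hl1' hl2⟩

end Crest.Agent.R136.K2S774
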