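import Crest.Agent.R136.LdF3_511
import Crest.Agent.R136.Tb4_628
import Crest.Agent.R136.AwJ_774
import Crest.Agent.R136.K2B_146
import Crest.Agent.R136.K2Y_774

/-!
# R136, thick ladder for any visible slots (helper667)

`Tie = {k | V k}` (any `V` with `SlotOk`), `o = oS θ` = slopes of the own path; walls `AF J`, record
direction `rhoF`, D-max `DlF` on `QdF` as in `LdF3_511`.

* `stage_V` : the first stage
* `rungV_i` : `s = 1 + κ`, drop `F_b`; `rungV_s` : any `s > 1` after `F_b` is dropped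
* `src_thick` : 774's `Src` for `Thick`
* `PtV` : all facts at one point of a rung (windows `AeW` with the touching slots
  `V k ∧ a k = oS θ k * a 0`, sweeps, independence of the dropped slots)
* `ptV_of`, `ptV_ofH` : the facts at one point; homogeneous zoom with the same slopes and rates
* `QdOk`, `StVQ` : stages with a smaller D-max cone (`θ 0 = θ 2`)
* `stage_congr`, `baseOk_congr` : the ties in another form
* `flA_of_pt`, `flA_of_ptH` (homogeneous groups, last rung) : the F-lemma of a rung from one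
  statement about `PtV`
-/

set_option autoImplicit false
set_option linter.unusedVariables false

open Finset Filter Topology

namespace Crest.Agent.R136.Dl667

open Crest.Agent.R138.Ex926 (Base U IsTan)
open Crest.Agent.R136.Net191
open Crest.Agent.R136.NetQ186
open Crest.Agent.R136.Wq638
open Crest.Agent.R136.Lq196
open Crest.Agent.R136.NatT550
open Crest.Agent.R136.NatR550 (nL)
open Crest.Agent.R136.Top484
open Crest.Agent.R136.LdF511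
open Crest.Agent.R136.LdF3511
open Crest.Agent.R136.Tb628 (oS oS_eq pathQ_oS ownPath nprof ownF)
open Crest.Agent.R136.K2S774 (cn Prf JT Stage RecD RungD BaseOk ind1 A2 stage_init)
open Crest.Agent.R136.K2A146 (FLemA)
open Crest.Agent.R136.AwJ774
open Crest.Agent.R136.Aw413
open Crest.Agent.R136.Dg219 (Walls mw gC dhC nC OutS)
open Crest.Agent.R136.Rc146 (OutA)
open Crest.Agent.R136.Dg262 (X)

/-! ### slots -/

theorem vis_ne {θ : Fin 3 → ℝ} {V T : Fin 11 → Prop} (sl : SlotOk θ V T) {k : Fin 11} (hk : V k) :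
    k = 2 ∨ k = 3 ∨ k = 4 := (sl.vis k hk).1

theorem vis0 {θ : Fin 3 → ℝ} {V T : Fin 11 → Prop} (sl : SlotOk θ V T) : ¬ V 0 := fun h => by
  rcases vis_ne sl h with h | h | h <;> exact absurd h (by decide)

/-- record direction at the visible slots -/
theorem tieV {θ : Fin 3 → ℝ} {V T : Fin 11 → Prop} (sl : SlotOk θ V T) {k : Fin 11} (hk : V k) :
    rhoF θ k = oS θ k * rhoF θ 0 := by
  rcases vis_ne sl hk with rfl | rfl | rfl <;>
    simp only [rhoF, nL, oS_eq, Matrix.cons_val, Fin.isValue] <;> ring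

/-- own path at the visible slots -/
theorem recF_path {θ : Fin 3 → ℝ} {V T : Fin 11 → Prop} (sl : SlotOk θ V T) (w0 R R1 v : ℝ)
    {k : Fin 11} (hk : V k) : recF θ w0 R1 v k = pathQ θ w0 R v k := by
  rcases vis_ne sl hk with rfl | rfl | rfl <;>
    simp only [recF, nat4, pathQ, Matrix.cons_val, Fin.isValue] <;> ring

section val

variable {η : ℝ} {p : Par4} {D : Dat4} {I1 : ℕ → Finset (ℕ × ℝ)} {π : Equiv.Perm (Fin 3)}
  {eE fA fB : ℕ → ℕ × ℝ → ℝ} {V T : Fin 11 → Prop} {w0 R T0 : ℝ} {PD : Set (Fin 11 → ℝ)}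
  {ν own : (Fin 11 → ℝ) → ℝ} {c₀ : ℝ}

/-- **own rate of `z`**, any visible slots -/
theorem recV_own (h : Thick η p D I1 π eE fA fB V T w0 R T0 PD ν own c₀) {R1 v : ℝ}
    (hR : R1 < R) (hR1 : 2 * w0 + T0 < R1) (h0 : 0 < v) (h1 : v < 1)
    {c : Fin 11 → ℝ} (hc : c ∈ W10) (h2 : ∀ k, V k → c k ≤ oS p.θ k * c 0) :
    ∀ᶠ t in 𝓝[≥] (0:ℝ), own (recF p.θ w0 R1 v + t • c) = 1 - v - t * c 0 := by
  have hleg := recF_leg_ev h.tp.big hR hR1 h0 h1 hc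
  have e1 : ∀ᶠ t in 𝓝[≥] (0:ℝ), 0 ≤ v + t * c 0 := ev_le_of _ h0
  have e2 : ∀ᶠ t in 𝓝[≥] (0:ℝ), 0 ≤ (1 - v) + t * (-c 0) := ev_le_of _ (by linarith)
  filter_upwards [hleg, e1, e2, self_mem_nhdsWithin] with t k0 k1 k2 ht
  have ht' : (0:ℝ) ≤ t := ht
  have hkz : (recF p.θ w0 R1 v + t • c) 0 = w0 + (v + t * c 0) := by
    simp only [Pi.add_apply, Pi.smul_apply, smul_eq_mul, recF, nat4, Matrix.cons_val]; ring
  rw [h.ext.own_rot _ k0 (v + t * c 0) k1 (by linarith) hkz fun k => ?_]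
  · ring
  · unfold ownQ
    by_cases hk0 : k = 0
    · subst hk0
      rw [if_pos rfl, hkz]
    · rw [if_neg hk0]
      split_ifs with hk
      · have h3 := mul_le_mul_of_nonneg_left (h2 k hk) ht'
        rw [pathQ_oS p.θ w0 R v (v + t * c 0) k, Pi.add_apply, Pi.smul_apply, smul_eq_mul,
          recF_path h.tp.slots w0 R R1 v hk]
        linarith
      · exact k0.2 k

end val

/-! ### stages -/

/-- **record direction and D-max cone** -/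
theorem recD_V {θ : Fin 3 → ℝ} {V T : Fin 11 → Prop} (sl : SlotOk θ V T) (J : Finset (Fin 11)) :
    RecD (mw monQ) (AF J) (rhoF θ) (QdF θ) {k | V k} 0 (oS θ) where
  full := fun w hw => AF_full hw
  nat := fun w hw => nat_AF _ _ _ _ (AF_mono (Finset.empty_subset J) hw)
  qd := fun d hd ξ t ht => qd_rec hd ξ ht
  tie := fun i hi => tieV sl hi

/-- **rung (i)**: `s = 1 + κ`, drop `F_b` -/
theorem rungV_i {θ : Fin 3 → ℝ} {V : Fin 11 → Prop} (hV3 : ¬ V 3) (hκ : 0 < θ 1 - θ 2)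
    {b : Fin 11 → ℝ} (hb : ∀ i, i ∉ (∅ : Finset (Fin 11)) → b i = rhoF θ i) :
    RungD (mw monQ) (AF ∅) ↑(∅ : Finset (Fin 11)) {5, 1} {k | V k} 0 (QdF θ) (rhoF θ)
      (TF ∅ (θ 1 - θ 2) (1 + (θ 1 - θ 2)) 0) (TpF (θ 1 - θ 2) (1 + (θ 1 - θ 2))) b {3} where
  T0 := (TF_i hκ 0).1
  TJ := (TF_i hκ 0).2.1
  TZ := fun i h1 h2 => (TF_i hκ 0).2.2 i h1 (by simpa using h2)
  natT := fun w hw => natTF _ _ _ hw
  bρ := fun i hi => hb i (by simp)
  TT := fun i hi => TF_off (by simp)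
  qd := qd_ray θ _ (by linarith)
  head := fun w hw h => head3 hw h
  JZ := by simp
  JT := by
    intro i hi
    rw [Finset.mem_singleton] at hi
    subst hi
    exact hV3
  Jz := by simp

/-- the ray of slope `s > 1` after `F_b` is dropped -/
theorem TF_s {κ s : ℝ} (hκ : 0 < κ) (hs : 1 < s) {x : Fin 11 → ℝ} (hx : 0 < x 3) :
    (∀ i, 0 ≤ TF {3} κ s x i) ∧
    (∀ i, i ∉ ({5, 1} : Finset (Fin 11)) → 0 < TF {3} κ s x i) := by
  have h : ∀ i, i ≠ 3 → TF {3} κ s x i = TpF κ s i := fun i hi => (TF_off (by simpa using hi)).symm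
  have h3 : TF {3} κ s x 3 = x 3 := TF_on (by decide)
  refine ⟨fun i => ?_, fun i => ?_⟩
  · fin_cases i <;> first
      | (rw [h _ (by decide), TpF_val]
         simp only [Matrix.cons_val, Fin.zero_eta, Fin.mk_one, Fin.reduceFinMk, Fin.isValue]
         linarith)
      | exact h3 ▸ hx.le
  · fin_cases i <;> intro h2 <;> first
      | exact absurd (by decide) h2
      | exact h3 ▸ hx
      | (rw [h _ (by decide), TpF_val]
         simp only [Matrix.cons_val, Fin.zero_eta, Fin.reduceFinMk, Fin.isValue]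
         linarith)

/-- **last rung**: any `s > 1` after `F_b` is dropped, nothing to drop -/
theorem rungV_s {θ : Fin 3 → ℝ} {V : Fin 11 → Prop} (hκ : 0 < θ 1 - θ 2) {s : ℝ}
    (hs : 1 < s) {b x : Fin 11 → ℝ} (hx : 0 < x 3)
    (hb : ∀ i, i ∉ ({3} : Finset (Fin 11)) → b i = rhoF θ i) :
    RungD (mw monQ) (AF {3}) ↑({3} : Finset (Fin 11)) {5, 1} {k | V k} 0 (QdF θ) (rhoF θ)
      (TF {3} (θ 1 - θ 2) s x) (TpF (θ 1 - θ 2) s) b ∅ where
  T0 := (TF_s hκ hs hx).1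
  TJ := by simp
  TZ := fun i h1 h2 => (TF_s hκ hs hx).2 i (by simpa using h2)
  natT := fun w hw => natTF _ _ _ hw
  bρ := fun i hi => hb i (by simpa using hi)
  TT := fun i hi => TF_off (by simpa using hi)
  qd := qd_ray θ _ (by linarith)
  head := by simp
  JZ := by simp
  JT := by simp
  Jz := by simp

section ladder

variable {η : ℝ} {p : Par4} {D : Dat4} {I1 : ℕ → Finset (ℕ × ℝ)} {π : Equiv.Perm (Fin 3)}
  {eE fA fB : ℕ → ℕ × ℝ → ℝ} {V T : Fin 11 → Prop} {w0 R T0 : ℝ} {PD : Set (Fin 11 → ℝ)}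
  {ν own : (Fin 11 → ℝ) → ℝ} {c₀ : ℝ}

/-- a stage with the dropped slots `J`, visible slots `V` -/
abbrev StV (p : Par4) (V : Fin 11 → Prop) (ν own : (Fin 11 → ℝ) → ℝ) (w0 R v : ℝ)
    (J : Finset (Fin 11)) (lam lo : (Fin 11 → ℝ) → ℝ) : Prop :=
  Stage (mw monQ) (Leg monQ R) ν own (11 : ℕ) (recF p.θ w0 (R - 1) v) (rhoF p.θ) (DlFL p)
    (QdF p.θ) {5, 1} {k | V k} 0 (oS p.θ) 1 (AF J) ↑J lam lo

/-- a stage with another D-max cone `Qd` -/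
abbrev StVQ (Qd : Set (Fin 11 → ℝ)) (p : Par4) (V : Fin 11 → Prop) (ν own : (Fin 11 → ℝ) → ℝ)
    (w0 R v : ℝ) (J : Finset (Fin 11)) (lam lo : (Fin 11 → ℝ) → ℝ) : Prop :=
  Stage (mw monQ) (Leg monQ R) ν own (11 : ℕ) (recF p.θ w0 (R - 1) v) (rhoF p.θ) (DlFL p)
    Qd {5, 1} {k | V k} 0 (oS p.θ) 1 (AF J) ↑J lam lo

/-- what is asked from the D-max cone: `C_a` and everything with `d 6 ≤ d 7` -/
structure QdOk (θ : Fin 3 → ℝ) (V : Fin 11 → Prop) (Jd : Finset (Fin 11))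
    (Qd : Set (Fin 11 → ℝ)) : Prop where
  rd : RecD (mw monQ) (AF Jd) (rhoF θ) Qd {k | V k} 0 (oS θ)
  sub : ∀ d ∈ QdF θ, d 6 ≤ d 7 → d ∈ Qd

theorem qdOk {θ : Fin 3 → ℝ} {V T : Fin 11 → Prop} (sl : SlotOk θ V T) (J : Finset (Fin 11)) :
    QdOk θ V J (QdF θ) := ⟨recD_V sl J, fun d hd _ => hd⟩

/-- the F-lemma on the plane of slope `s`, dropped slots `J`, visible slots `V` -/
abbrev FlV (p : Par4) (V : Fin 11 → Prop) (ν own : (Fin 11 → ℝ) → ℝ) (w0 R v : ℝ)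
    (J : Finset (Fin 11)) (s : ℝ) (x b : Fin 11 → ℝ) (lam lo : (Fin 11 → ℝ) → ℝ)
    (Vis : ((Fin 11 → ℝ) → ℝ) → Prop) (g : ℝ) : Prop :=
  FLemA (mw monQ) (AF J) (Leg monQ R) ν own (recF p.θ w0 (R - 1) v) (DlFL p) {k | V k} 0
    (oS p.θ) (TF J (p.θ 1 - p.θ 2) s x) (TpF (p.θ 1 - p.θ 2) s) b lam lo Vis g

/-- **the first stage** -/
theorem stage_V (h : Thick η p D I1 π eE fA fB V T w0 R T0 PD ν own c₀) {v : ℝ} (h0 : 0 < v)
    (h1 : v < 1) (hκ : 0 < p.θ 1 - p.θ 2) (h02 : p.θ 0 ≠ p.θ 2) :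
    ∃ lam lo : (Fin 11 → ℝ) → ℝ, StV p V ν own w0 R v ∅ lam lo := by
  obtain ⟨r1, r2, r3⟩ := R1_room h.tp.big
  have hge : 𝓝[>] (0:ℝ) ≤ 𝓝[≥] (0:ℝ) := nhdsWithin_mono _ Set.Ioi_subset_Ici_self
  have hr0 : own (recF p.θ w0 (R - 1) v) = 1 - v := by
    obtain ⟨t0, ht0, ht⟩ := ev_ge (recV_own h r2 r1 h0 h1 (c := 0)
      (by refine ⟨?_, ?_, ?_, ?_, ?_, ?_, ?_, ?_, ?_, ?_⟩ <;> simp) (by simp))
    have := ht 0 le_rfl ht0.le
    simpa using this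
  have key := stage_init (Q := mw monQ) (P := Leg monQ R) (ν := ν) (own := own) (K := (11 : ℕ))
    (r0 := recF p.θ w0 (R - 1) v) (ρ := rhoF p.θ) (Dl := DlFL p) (Qd := QdF p.θ)
    (Z := {5, 1}) (Tie := {k | V k}) (kz := 0) (o := oS p.θ) (τ := 1) (A := AF ∅) (prf_ext h.ext)
    (recD_V h.tp.slots ∅) (fun w hw => by
      rw [recF_nat _ _ _ _ hw]; simp [mw]) (fun w hw => by
      have := (recF_strict h.tp.big r1 h0 h1 w).resolve_left hw
      simpa [mw] using this) ?_ ?_ ?_ ?_ ?_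
  · obtain ⟨lam, lo, hS⟩ := key
    refine ⟨lam, lo, ?_⟩
    unfold StV
    rw [Finset.coe_empty]
    exact hS
  · intro C
    obtain ⟨δ, hδ, hl⟩ := recF_leg h.tp.big r2 r1 h0 h1
    refine ⟨δ / (|C| + 1), by positivity, fun t ht ht' c hc hcC => ?_⟩
    have hc' : c ∈ W10 := by rw [← cn_W10]; exact hc
    refine hl _ ?_ fun k => ?_
    · rw [← cn_W10]
      exact K2S774.cn_smul hc ht.le
    · rw [Pi.smul_apply, smul_eq_mul, abs_mul, abs_of_pos ht]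
      have h1 := norm_le_pi_norm c k
      rw [Real.norm_eq_abs] at h1
      have h2 : |c k| ≤ |C| + 1 := by linarith [le_abs_self C]
      rw [lt_div_iff₀ (by positivity)] at ht'
      have := mul_le_mul_of_nonneg_left h2 ht.le
      linarith
  · intro σ
    have e1 : ∀ᶠ t in 𝓝[≥] (0:ℝ), 0 ≤ v + t * σ := ev_le_of _ h0
    have e2 : ∀ᶠ t in 𝓝[≥] (0:ℝ), 0 < (1 - v) + t * (-σ) :=
      nhdsWithin_le_nhds (ev_lt _ (by linarith))
    filter_upwards [hge e1, hge e2] with t k1 k2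
    rw [smul_smul, recF_rec h r2.le r1.le h0.le h1 k1 (by linarith)]
    show _ = _ + t * (σ * DlF p (rhoF p.θ))
    ring
  · intro d hd
    filter_upwards [hge (recF_leg_ev h.tp.big r2 r1 h0 h1 (qd_W10 hd)),
      hge (recF_dmax h r2 r1 h0 h1 hκ h02 hd)] with t k1 k2
    exact ⟨k1, k2⟩
  · intro c hc hcT
    have hc' : c ∈ W10 := by rw [← cn_W10]; exact hc
    filter_upwards [hge (recV_own h r2 r1 h0 h1 hc' fun k hk => hcT k hk)] with t k1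
    rw [k1, hr0]; ring
  · intro c hc
    have hc' : c ∈ W10 := by rw [← cn_W10]; exact hc
    filter_upwards [hge (recF_ownu h r2 r1 h0 h1 hc')] with t k1
    rw [hr0]; linarith

/-! ### source of the windows -/

/-- **774's `Src` for `Thick`** -/
theorem src_thick (h : Thick η p D I1 π eE fA fB V T w0 R T0 PD ν own c₀) {v : ℝ} (h0 : 0 < v)
    (h1 : v < 1) :
    Src D.B D.I I1 (couQ D.B D.lev D.w w0 (incQ π D.L eE fA fB)) monQ 2 R 0 w0 0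
      (ownQ p.θ w0 R V) T ν own {k | V k} (oS p.θ) (recF p.θ w0 (R - 1) v) where
  prof := nprof h
  ownF := ownF h
  path := ownPath p.θ w0 R V
  rpos := fun k => by
    obtain ⟨r1, r2, r3⟩ := R1_room h.tp.big
    exact (recF_box h.tp.big r2 r1 h0 h1 k).1
  ownR := by
    have e : recF p.θ w0 (R - 1) v 0 - w0 = v := by
      simp only [recF, nat4, Matrix.cons_val]; ring
    refine ⟨by rw [e]; exact h0, by rw [e]; exact h1, fun k hk => ?_⟩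
    have hk' : V k := hk
    have hk0 : k ≠ 0 := fun h' => vis0 h.tp.slots (h' ▸ hk')
    rw [e, recF_path h.tp.slots w0 R (R - 1) v hk']
    simp only [ownQ, if_neg hk0, if_pos hk']

/-! ### facts at one point -/

/-- sweeps and independence of the dropped slots -/
structure SwI (p : Par4) (Jd : Finset (Fin 11)) (a : Fin 11 → ℝ) (lam : (Fin 11 → ℝ) → ℝ) :
    Prop where
  sw : ∀ u ∈ QdF p.θ, u 6 ≤ u 7 → (∀ i, 0 ≤ u i) → ∀ c ∈ cn (mw monQ) (AF Jd), ∀ σ h : ℝ, 0 ≤ h →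
    c + h • u ∈ cn (mw monQ) (AF Jd) → (∀ i, i ∉ Jd → a i = 0 → c i ≤ σ * rhoF p.θ i) →
    (∀ i, i ∉ Jd → u i ≠ 0 → a i = 0 ∧ c i = σ * rhoF p.θ i) →
    -(DlF p u) * h ≤ lam c - lam (c + h • u)
  ind : ∀ c ∈ cn (mw monQ) (AF Jd), ∀ c' ∈ cn (mw monQ) (AF Jd), (∀ i, i ∉ Jd → c i = c' i) →
    0 ≤ c 1 → lam c = lam c'

/-- **sweep of `C_a`** -/
theorem SwI.ca {Jd : Finset (Fin 11)} {a : Fin 11 → ℝ} {lam : (Fin 11 → ℝ) → ℝ}
    (S : SwI p Jd a lam) (h1 : 0 < p.θ 1) (a5 : a 5 = 0) {c : Fin 11 → ℝ}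
    (hc : c ∈ cn (mw monQ) (AF Jd)) {t : ℝ} (ht : 0 ≤ t)
    (hT : ∀ i, i ∉ Jd → i ≠ 5 → a i = 0 → c i ≤ -(c 5) / p.θ 1 * rhoF p.θ i) :
    c + t • Pi.single 5 1 ∈ cn (mw monQ) (AF Jd) ∧
      p.q 1 * t ≤ lam c - lam (c + t • Pi.single 5 1) := by
  have e5 : (Pi.single 5 1 : Fin 11 → ℝ) ∈ cn (mw monQ) (AF Jd) := by
    have h2 := (qd_ca p.θ).1
    rw [← cn_W10] at h2
    exact fun w hw => h2 w (AF_mono (Finset.empty_subset _) hw)
  have hm := K2S774.cn_add hc (K2S774.cn_smul e5 ht)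
  have h5 : c 5 = -(c 5) / p.θ 1 * rhoF p.θ 5 := by
    have : rhoF p.θ 5 = -p.θ 1 := by simp [rhoF, nL]
    rw [this]; field_simp
  refine ⟨hm, ?_⟩
  have h2 := S.sw _ (qd_ca p.θ) (by simp) (fun i => by
    rw [Pi.single_apply]; split_ifs <;> norm_num) c hc (-(c 5) / p.θ 1) t ht hm
    (fun i hi h0 => by
      by_cases hi5 : i = 5
      · subst hi5; exact h5.le
      · exact hT i hi hi5 h0) (fun i hi h0 => by
      by_cases hi5 : i = 5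
      · subst hi5; exact ⟨a5, h5⟩
      · exact absurd (by rw [Pi.single_apply, if_neg hi5]) h0)
  rw [DlF_ca, neg_neg] at h2
  exact h2

/-- **all facts at one point of a rung** (ray `a`, second direction `b`, dropped slots `Jd`,
`A` = slopes of the profile, `φ r` = groups and rates) -/
structure PtV (B : Base) (I J : ℕ → Finset (ℕ × ℝ)) (co : ∀ n : ℕ, ℕ × ℝ → ℕ × ℝ → Fin 11 → ℝ)
    (p : Par4) (V T : Fin 11 → Prop) (Jd : Finset (Fin 11)) (a b : Fin 11 → ℝ)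
    (lam lo : (Fin 11 → ℝ) → ℝ) (A : ℝ × ℝ) (φ : ℕ → (Fin 11 → ℝ) → ℝ) (r : ℕ → ℝ) : Prop
    extends SwI p Jd a lam where
  /-- windows and own loss -/
  aew : AeW B B I J co monQ (mA monQ (AF Jd)) 2 lam a b A φ r 0 1 (oS p.θ)
    (fun k => V k ∧ a k = oS p.θ k * a 0) (fun k => T k ∧ V k ∧ a k = oS p.θ k * a 0)
  out : OutA (gC a b) (cn (mw monQ) (AF Jd)) a b (dhC a b) (nC a b) lam A φ r
  prf : Prf (cn (mw monQ) (AF Jd)) lam lo (11 : ℕ)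

/-- homogeneity of the groups -/
def HomV (Jd : Finset (Fin 11)) (a b : Fin 11 → ℝ) (φ : ℕ → (Fin 11 → ℝ) → ℝ) : Prop :=
  ∀ k, (∀ i, gC a b i = k → 0 < dhC a b i) → ∀ c ∈ cn (mw monQ) (AF Jd), ∀ s : ℝ, 0 ≤ s →
    φ k (s • c) = s * φ k c

/-- **sweeps and independence at the tangents of a stage** -/
theorem swI_of_stage (h1 : 0 < p.θ 1) {v : ℝ} {Jd : Finset (Fin 11)} {Qd : Set (Fin 11 → ℝ)}
    (hQ : QdOk p.θ V Jd Qd)
    {lam lo lam' : (Fin 11 → ℝ) → ℝ} (H : StVQ Qd p V ν own w0 R v Jd lam lo) {a b : Fin 11 → ℝ}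
    (a0 : ∀ i, 0 ≤ a i) (ha : K2S774.Nat (mw monQ) (AF Jd) a)
    (hb : ∀ i, i ∉ (↑Jd : Set (Fin 11)) → b i = rhoF p.θ i)
    (a5 : a 5 = 0) (a1 : a 1 = 0) {z : ℝ × ℝ} (hz : z.1 < 0) {k : ℕ → ℝ}
    (kpos : ∀ l, 0 < k l) (k0 : Tendsto k atTop (𝓝 0))
    (H1 : IsTan (cn (mw monQ) (AF Jd)) (cn (mw monQ) (AF Jd)) lam (fun _ => X 0 a b z) k lam') :
    SwI p Jd a lam' where
  sw := fun u hu u67 u0 c hc σ t ht hcu hT hs => by
    have h2 := H.sweep hQ.rd a0 ha hb hz kpos k0 H1 u0 (hQ.sub u hu u67) ht hc hcu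
      (fun i hi => hT i (by simpa using hi)) (fun i hi => hs i (by simpa using hi))
    exact h2
  ind := by
    intro c hc c' hc' hcc hc1
    have hB := Dg219.bup_of_tan kpos k0 H1
    refine tendsto_nhds_unique (hB.lim c hc) ((hB.lim c' hc').congr' ?_)
    filter_upwards [hB.mem c hc, hB.mem c' hc'] with l e1 e2
    have e3 : lam (X 0 a b z + k l • c) = lam (X 0 a b z + k l • c') := by
      refine H.ind _ e1 _ e2 (fun i hi => ?_) ?_
      · simp only [Pi.add_apply, Pi.smul_apply, smul_eq_mul, hcc i (by simpa using hi)]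
      · have b1 : b 1 = 0 := by
          rw [hb 1 (H.ZD 1 (by simp))]; simp [rhoF, nL]
        refine ⟨-((X 0 a b z + k l • c) 5) / p.θ 1, fun i hi => ?_⟩
        rcases hi with rfl | hi
        · have h2 : rhoF p.θ 5 = -p.θ 1 := by simp [rhoF, nL]
          rw [h2]
          have : -(X 0 a b z + k l • c) 5 / p.θ 1 * -p.θ 1 = (X 0 a b z + k l • c) 5 := by
            field_simp
          rw [this]
        · rw [Set.mem_singleton_iff] at hi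
          subst hi
          have h2 : rhoF p.θ 1 = 0 := by simp [rhoF, nL]
          rw [h2, mul_zero]
          simp only [Pi.add_apply, Pi.smul_apply, smul_eq_mul, X, Pi.zero_apply, a1, b1]
          have := mul_nonneg (kpos l).le hc1
          linarith
    rw [e3]

/-- the same facts at the zoom at `0` -/
theorem SwI.zoom {Jd : Finset (Fin 11)} {a : Fin 11 → ℝ} {lam lam2 : (Fin 11 → ℝ) → ℝ}
    (S : SwI p Jd a lam) {t : ℕ → ℝ} (tpos : ∀ l, 0 < t l) (t0 : Tendsto t atTop (𝓝 0))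
    (H1 : IsTan (cn (mw monQ) (AF Jd)) (cn (mw monQ) (AF Jd)) lam (fun _ => 0) t lam2) :
    SwI p Jd a lam2 := by
  have hB := Dg219.bup_of_tan tpos t0 H1
  refine ⟨fun u hu u67 u0 c hc σ h hh hcu hT hs => ?_, fun c hc c' hc' hcc hc1 => ?_⟩
  · refine ge_of_tendsto ((hB.lim c hc).sub (hB.lim _ hcu)) (Eventually.of_forall fun l => ?_)
    have ht := tpos l
    have h2 := S.sw u hu u67 u0 (t l • c) (K2S774.cn_smul hc ht.le) (t l * σ) (t l * h)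
      (mul_nonneg ht.le hh) (by
        have := K2S774.cn_smul (A := AF Jd) hcu ht.le
        rwa [smul_add, smul_smul] at this) (fun i hi h0 => by
        have := mul_le_mul_of_nonneg_left (hT i hi h0) ht.le
        rw [Pi.smul_apply, smul_eq_mul, mul_assoc]; exact this) (fun i hi h0 => by
        obtain ⟨g1, g2⟩ := hs i hi h0
        refine ⟨g1, ?_⟩
        rw [Pi.smul_apply, smul_eq_mul, g2, mul_assoc])
    have e1 : (0 : Fin 11 → ℝ) + t l • (c + h • u) = t l • c + (t l * h) • u := by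
      rw [zero_add, smul_add, smul_smul]
    rw [e1, zero_add, ← sub_div, le_div_iff₀ ht]
    have e2 : -(DlF p u) * (t l * h) = -(DlF p u) * h * t l := by ring
    linarith
  · refine tendsto_nhds_unique (hB.lim c hc) ((hB.lim c' hc').congr' ?_)
    refine Eventually.of_forall fun l => ?_
    have ht := tpos l
    show (lam (0 + t l • c') - lam 0) / t l = (lam (0 + t l • c) - lam 0) / t l
    rw [zero_add, zero_add, S.ind (t l • c) (K2S774.cn_smul hc ht.le) (t l • c')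
      (K2S774.cn_smul hc' ht.le) (fun i hi => by
        rw [Pi.smul_apply, Pi.smul_apply, hcc i hi]) (by
        rw [Pi.smul_apply, smul_eq_mul]; exact mul_nonneg ht.le hc1)]

/-! ### change of the presentation of the ties -/

/-- the ties of a stage in another form -/
theorem stage_congr {m : ℕ} {W : Type*} [Fintype W] {Q : Walls (Fin m) W} {P : Set (Fin m → ℝ)}
    {ν own : (Fin m → ℝ) → ℝ} {K : ℝ} {r0 ρ : Fin m → ℝ} {Dl : (Fin m → ℝ) →ₗ[ℝ] ℝ}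
    {Qd : Set (Fin m → ℝ)} {Z Tie Tie' : Set (Fin m)} {kz : Fin m} {o o' : Fin m → ℝ} {τ : ℝ}
    {A : W → Prop} {Dr : Set (Fin m)} {lam lo : (Fin m → ℝ) → ℝ}
    (hT : ∀ i, i ∈ Tie' ↔ i ∈ Tie) (ho : ∀ i ∈ Tie', o' i = o i)
    (H : Stage Q P ν own K r0 ρ Dl Qd Z Tie kz o τ A Dr lam lo) :
    Stage Q P ν own K r0 ρ Dl Qd Z Tie' kz o' τ A Dr lam lo where
  jt := by
    obtain ⟨x, h, h1, h2, h3⟩ := H.jt
    exact ⟨x, h, h1, fun l i hi => by rw [ho i hi]; exact h2 l i ((hT i).1 hi), h3⟩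
  prf := H.prf
  noD := H.noD
  ZD := H.ZD
  TD := fun i hi => H.TD i ((hT i).1 hi)
  zD := H.zD
  ind := H.ind
  rcd := H.rcd
  dmx := H.dmx
  ownr := fun c hc hcT => H.ownr c hc fun i hi => by
    rw [← ho i ((hT i).2 hi)]; exact hcT i ((hT i).2 hi)
  ownu := H.ownu

/-- the position of the base points, ties in another form -/
theorem baseOk_congr {m : ℕ} {Tie Tie' : Set (Fin m)} {kz : Fin m} {o o' T r0 : Fin m → ℝ}
    {x : ℕ → Fin m → ℝ} {h : ℕ → ℝ} (hT : ∀ i ∈ Tie', i ∈ Tie) (ho : ∀ i ∈ Tie', o' i = o i)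
    (H : BaseOk Tie kz o T r0 x h) : BaseOk Tie' kz o' T r0 x h where
  eq := fun l i hi hi' => by rw [ho i hi] at hi' ⊢; exact H.eq l i (hT i hi) hi'
  le := fun l i hi hi' => by rw [ho i hi] at hi' ⊢; exact H.le l i (hT i hi) hi'
  slack := fun i hi hi' R => by
    rw [ho i hi] at hi' ⊢; exact H.slack i (hT i hi) hi' R

/-! ### from one statement about `PtV` to the F-lemma of a rung -/

/-- **the facts at one point of a rung** -/
theorem ptV_of (h : Thick η p D I1 π eE fA fB V T w0 R T0 PD ν own c₀) {v : ℝ} (h0 : 0 < v)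
    (h1 : v < 1) {Jd : Finset (Fin 11)} {s : ℝ} {x b : Fin 11 → ℝ}
    (a0 : ∀ i, 0 ≤ TF Jd (p.θ 1 - p.θ 2) s x i)
    (hb : ∀ i, i ∉ Jd → b i = rhoF p.θ i)
    (hTie : ∀ k, V k → oS p.θ k * TF Jd (p.θ 1 - p.θ 2) s x 0 ≤ TF Jd (p.θ 1 - p.θ 2) s x k)
    {Qd : Set (Fin 11 → ℝ)} (hQ : QdOk p.θ V Jd Qd)
    {lam lo : (Fin 11 → ℝ) → ℝ} (hst : StVQ Qd p V ν own w0 R v Jd lam lo) {z : ℝ × ℝ}
    (hz : z.1 < 0) {k : ℕ → ℝ} {lam' lo' : (Fin 11 → ℝ) → ℝ} (kpos : ∀ l, 0 < k l)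
    (k0 : Tendsto k atTop (𝓝 0))
    (H1 : IsTan (cn (mw monQ) (AF Jd)) (cn (mw monQ) (AF Jd)) lam
      (fun _ => X 0 (TF Jd (p.θ 1 - p.θ 2) s x) b z) k lam')
    (H2 : IsTan (cn (mw monQ) (AF Jd)) (cn (mw monQ) (AF Jd)) lo
      (fun _ => X 0 (TF Jd (p.θ 1 - p.θ 2) s x) b z) k lo')
    {x' : ℕ → Fin 11 → ℝ} {h' : ℕ → ℝ}
    (hJ : JT (mw monQ) (AF Jd) (Leg monQ R) ν own (recF p.θ w0 (R - 1) v) x' h' lam' lo')
    (hB : BaseOk {k | V k} 0 (oS p.θ) (TF Jd (p.θ 1 - p.θ 2) s x) (recF p.θ w0 (R - 1) v) x' h')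
    {A : ℝ × ℝ} {φ : ℕ → (Fin 11 → ℝ) → ℝ} {rt : ℕ → ℝ}
    (hO : OutA (gC (TF Jd (p.θ 1 - p.θ 2) s x) b) (cn (mw monQ) (AF Jd))
      (TF Jd (p.θ 1 - p.θ 2) s x) b (dhC (TF Jd (p.θ 1 - p.θ 2) s x) b)
      (nC (TF Jd (p.θ 1 - p.θ 2) s x) b) lam' A φ rt) :
    PtV D.B D.I I1 (couQ D.B D.lev D.w w0 (incQ π D.L eE fA fB)) p V T Jd
      (TF Jd (p.θ 1 - p.θ 2) s x) b lam' lo' A φ rt := by
  have z5 : (5 : Fin 11) ∉ Jd := fun h5 => hst.ZD 5 (by simp) (by simpa using h5)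
  have z1 : (1 : Fin 11) ∉ Jd := fun h5 => hst.ZD 1 (by simp) (by simpa using h5)
  have a5 : TF Jd (p.θ 1 - p.θ 2) s x 5 = 0 := by
    rw [← TF_off z5, TpF_val]; simp
  have a1 : TF Jd (p.θ 1 - p.θ 2) s x 1 = 0 := by
    rw [← TF_off z1, TpF_val]; simp
  have hA := aew_of_jt (src_thick h h0 h1)
    (Tw := fun k => T k ∧ V k ∧ TF Jd (p.θ 1 - p.θ 2) s x k =
      oS p.θ k * TF Jd (p.θ 1 - p.θ 2) s x 0) hJ hB (fun i hi => hTie i hi)
    (fun k hk => ⟨hk.1, hk.2.1, hk.2.2⟩) (fun hk => vis0 h.tp.slots hk.2.1) hO.toOutS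
  rw [sub_zero] at hA
  exact
    { toSwI := swI_of_stage h.tp.ok.θ1 hQ hst a0 (fun w hw => natTF _ _ _ hw)
        (fun i hi => hb i (by simpa using hi)) a5 a1 hz kpos k0 H1
      aew := hA
      out := hO
      prf := hst.prf.tan kpos H1 H2 }

/-- **the facts at one point of a rung, homogeneous zoom with the same slopes and rates** -/
theorem ptV_ofH (h : Thick η p D I1 π eE fA fB V T w0 R T0 PD ν own c₀) {v : ℝ} (h0 : 0 < v)
    (h1 : v < 1) {Jd : Finset (Fin 11)} {s : ℝ} {x b : Fin 11 → ℝ}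
    (a0 : ∀ i, 0 ≤ TF Jd (p.θ 1 - p.θ 2) s x i)
    (hb : ∀ i, i ∉ Jd → b i = rhoF p.θ i)
    (hTie : ∀ k, V k → oS p.θ k * TF Jd (p.θ 1 - p.θ 2) s x 0 ≤ TF Jd (p.θ 1 - p.θ 2) s x k)
    {Qd : Set (Fin 11 → ℝ)} (hQ : QdOk p.θ V Jd Qd)
    {lam lo : (Fin 11 → ℝ) → ℝ} (hst : StVQ Qd p V ν own w0 R v Jd lam lo) {z : ℝ × ℝ}
    (hz : z.1 < 0) {k : ℕ → ℝ} {lam' lo' : (Fin 11 → ℝ) → ℝ} (kpos : ∀ l, 0 < k l)
    (k0 : Tendsto k atTop (𝓝 0))
    (H1 : IsTan (cn (mw monQ) (AF Jd)) (cn (mw monQ) (AF Jd)) lam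
      (fun _ => X 0 (TF Jd (p.θ 1 - p.θ 2) s x) b z) k lam')
    (H2 : IsTan (cn (mw monQ) (AF Jd)) (cn (mw monQ) (AF Jd)) lo
      (fun _ => X 0 (TF Jd (p.θ 1 - p.θ 2) s x) b z) k lo')
    {x' : ℕ → Fin 11 → ℝ} {h' : ℕ → ℝ}
    (hJ : JT (mw monQ) (AF Jd) (Leg monQ R) ν own (recF p.θ w0 (R - 1) v) x' h' lam' lo')
    (hB : BaseOk {k | V k} 0 (oS p.θ) (TF Jd (p.θ 1 - p.θ 2) s x) (recF p.θ w0 (R - 1) v) x' h')
    {A : ℝ × ℝ} {φ : ℕ → (Fin 11 → ℝ) → ℝ} {rt : ℕ → ℝ}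
    (hO : OutA (gC (TF Jd (p.θ 1 - p.θ 2) s x) b) (cn (mw monQ) (AF Jd))
      (TF Jd (p.θ 1 - p.θ 2) s x) b (dhC (TF Jd (p.θ 1 - p.θ 2) s x) b)
      (nC (TF Jd (p.θ 1 - p.θ 2) s x) b) lam' A φ rt) :
    ∃ (t : ℕ → ℝ) (lam2 lo2 : (Fin 11 → ℝ) → ℝ) (x2 : ℕ → Fin 11 → ℝ) (h2 : ℕ → ℝ)
      (φ2 : ℕ → (Fin 11 → ℝ) → ℝ), (∀ l, 0 < t l) ∧ Tendsto t atTop (𝓝 0) ∧
      IsTan (cn (mw monQ) (AF Jd)) (cn (mw monQ) (AF Jd)) lam' (fun _ => 0) t lam2 ∧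
      IsTan (cn (mw monQ) (AF Jd)) (cn (mw monQ) (AF Jd)) lo' (fun _ => 0) t lo2 ∧
      JT (mw monQ) (AF Jd) (Leg monQ R) ν own (recF p.θ w0 (R - 1) v) x2 h2 lam2 lo2 ∧
      BaseOk {k | V k} 0 (oS p.θ) (TF Jd (p.θ 1 - p.θ 2) s x) (recF p.θ w0 (R - 1) v) x2 h2 ∧
      PtV D.B D.I I1 (couQ D.B D.lev D.w w0 (incQ π D.L eE fA fB)) p V T Jd
        (TF Jd (p.θ 1 - p.θ 2) s x) b lam2 lo2 A φ2 rt ∧
      HomV Jd (TF Jd (p.θ 1 - p.θ 2) s x) b φ2 ∧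
      ∀ k ∈ Dg219.gset (gC (TF Jd (p.θ 1 - p.θ 2) s x) b), ∀ c ∈ cn (mw monQ) (AF Jd),
        Tendsto (fun l => φ k (t l • c) / t l) atTop (𝓝 (φ2 k c)) := by
  have z5 : (5 : Fin 11) ∉ Jd := fun h5 => hst.ZD 5 (by simp) (by simpa using h5)
  have z1 : (1 : Fin 11) ∉ Jd := fun h5 => hst.ZD 1 (by simp) (by simpa using h5)
  have a5 : TF Jd (p.θ 1 - p.θ 2) s x 5 = 0 := by
    rw [← TF_off z5, TpF_val]; simp
  have a1 : TF Jd (p.θ 1 - p.θ 2) s x 1 = 0 := by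
    rw [← TF_off z1, TpF_val]; simp
  have ha : K2S774.Nat (mw monQ) (AF Jd) (TF Jd (p.θ 1 - p.θ 2) s x) :=
    fun w hw => natTF _ _ _ hw
  have hP' := hst.prf.tan kpos H1 H2
  obtain ⟨t, lam2, lo2, x2, h2, φ2, tpos, t0, T1, T2, hJ2, hB2, hP2, hO2, hhom, hlim⟩ :=
    K2B146.exists_hom (fun w hw => AF_full hw) a0 ha
      (hst.nat_b hQ.rd.nat fun i hi => hb i (by simpa using hi)) hJ hP' hB hO
  have hA := aew_of_jt (src_thick h h0 h1)
    (Tw := fun k => T k ∧ V k ∧ TF Jd (p.θ 1 - p.θ 2) s x k =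
      oS p.θ k * TF Jd (p.θ 1 - p.θ 2) s x 0) hJ2 hB2 (fun i hi => hTie i hi)
    (fun k hk => ⟨hk.1, hk.2.1, hk.2.2⟩) (fun hk => vis0 h.tp.slots hk.2.1) hO2.toOutS
  rw [sub_zero] at hA
  exact ⟨t, lam2, lo2, x2, h2, φ2, tpos, t0, T1, T2, hJ2, hB2,
    { toSwI := (swI_of_stage h.tp.ok.θ1 hQ hst a0 ha
        (fun i hi => hb i (by simpa using hi)) a5 a1 hz kpos k0 H1).zoom tpos t0 T1
      aew := hA
      out := hO2
      prf := hP2 }, hhom, hlim⟩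

/-- **the F-lemma of a rung from one statement about `PtV`** -/
theorem flA_of_pt (h : Thick η p D I1 π eE fA fB V T w0 R T0 PD ν own c₀) {v : ℝ} (h0 : 0 < v)
    (h1 : v < 1) {Jd : Finset (Fin 11)} {s : ℝ} {x b : Fin 11 → ℝ}
    (a0 : ∀ i, 0 ≤ TF Jd (p.θ 1 - p.θ 2) s x i)
    (hb : ∀ i, i ∉ Jd → b i = rhoF p.θ i)
    (hTie : ∀ k, V k → oS p.θ k * TF Jd (p.θ 1 - p.θ 2) s x 0 ≤ TF Jd (p.θ 1 - p.θ 2) s x k)
    {Vis : ((Fin 11 → ℝ) → ℝ) → Prop} {g' : ℝ}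
    (H : ∀ (lam lo : (Fin 11 → ℝ) → ℝ) (A : ℝ × ℝ) (φ : ℕ → (Fin 11 → ℝ) → ℝ) (r : ℕ → ℝ),
      PtV D.B D.I I1 (couQ D.B D.lev D.w w0 (incQ π D.L eE fA fB)) p V T Jd
        (TF Jd (p.θ 1 - p.θ 2) s x) b lam lo A φ r → Vis lam →
      g' ≤ -A.1 + DlF p (TpF (p.θ 1 - p.θ 2) s))
    {Qd : Set (Fin 11 → ℝ)} (hQ : QdOk p.θ V Jd Qd)
    {lam lo : (Fin 11 → ℝ) → ℝ} (hst : StVQ Qd p V ν own w0 R v Jd lam lo) :
    FlV p V ν own w0 R v Jd s x b lam lo Vis g' :=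
  fun z hz D' hD' k lam' lo' kpos k0 H1 H2 x' h' hJ hB φ rt hO hVis =>
    H lam' lo' _ φ rt (ptV_of h h0 h1 a0 hb hTie hQ hst hz kpos k0 H1 H2 hJ hB hO) hVis

/-- **the same with homogeneous groups** (last rung: nothing is said about visibility) -/
theorem flA_of_ptH (h : Thick η p D I1 π eE fA fB V T w0 R T0 PD ν own c₀) {v : ℝ} (h0 : 0 < v)
    (h1 : v < 1) {Jd : Finset (Fin 11)} {s : ℝ} {x b : Fin 11 → ℝ}
    (a0 : ∀ i, 0 ≤ TF Jd (p.θ 1 - p.θ 2) s x i)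
    (hb : ∀ i, i ∉ Jd → b i = rhoF p.θ i)
    (hTie : ∀ k, V k → oS p.θ k * TF Jd (p.θ 1 - p.θ 2) s x 0 ≤ TF Jd (p.θ 1 - p.θ 2) s x k)
    {g' : ℝ}
    (H : ∀ (lam lo : (Fin 11 → ℝ) → ℝ) (A : ℝ × ℝ) (φ : ℕ → (Fin 11 → ℝ) → ℝ) (r : ℕ → ℝ),
      PtV D.B D.I I1 (couQ D.B D.lev D.w w0 (incQ π D.L eE fA fB)) p V T Jd
        (TF Jd (p.θ 1 - p.θ 2) s x) b lam lo A φ r → HomV Jd (TF Jd (p.θ 1 - p.θ 2) s x) b φ →
      g' ≤ -A.1 + DlF p (TpF (p.θ 1 - p.θ 2) s))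
    {Qd : Set (Fin 11 → ℝ)} (hQ : QdOk p.θ V Jd Qd)
    {lam lo : (Fin 11 → ℝ) → ℝ} (hst : StVQ Qd p V ν own w0 R v Jd lam lo)
    (Vis : ((Fin 11 → ℝ) → ℝ) → Prop) : FlV p V ν own w0 R v Jd s x b lam lo Vis g' := by
  intro z hz D' hD' k lam' lo' kpos k0 H1 H2 x' h' hJ hB φ rt hO _
  obtain ⟨t, lam2, lo2, x2, h2, φ2, -, -, -, -, -, -, hP, hhom, -⟩ :=
    ptV_ofH h h0 h1 a0 hb hTie hQ hst hz kpos k0 H1 H2 hJ hB hO
  exact H lam2 lo2 _ φ2 rt hP hhom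

/-- **the ladder with two rungs**: `s = 1 + κ` (drop `F_b`), then a last rung of any slope `s > 1` -/
theorem ladder_V (h : Thick η p D I1 π eE fA fB V T w0 R T0 PD ν own c₀)
    (hκ : 0 < p.θ 1 - p.θ 2) (h02 : p.θ 0 ≠ p.θ 2) (hV3 : ¬ V 3)
    (hV4 : V 4 → p.θ 1 - p.θ 0 ≤ p.θ 1 - p.θ 2) {s g1 g2 : ℝ} {x b : Fin 11 → ℝ} (hs : 1 < s)
    (hs4 : V 4 → 1 + (p.θ 1 - p.θ 0) ≤ s) (hx : 0 < x 3)
    (hb : ∀ i, i ∉ ({3} : Finset (Fin 11)) → b i = rhoF p.θ i) (hg1 : 0 < g1) (hg2 : 0 < g2)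
    (F1 : ∀ (lam lo : (Fin 11 → ℝ) → ℝ) (A : ℝ × ℝ) (φ : ℕ → (Fin 11 → ℝ) → ℝ) (r : ℕ → ℝ),
      PtV D.B D.I I1 (couQ D.B D.lev D.w w0 (incQ π D.L eE fA fB)) p V T ∅
        (TF ∅ (p.θ 1 - p.θ 2) (1 + (p.θ 1 - p.θ 2)) 0) (rhoF p.θ) lam lo A φ r →
      lam (ind1 {3}) < 0 → g1 ≤ -A.1 + DlF p (TpF (p.θ 1 - p.θ 2) (1 + (p.θ 1 - p.θ 2))))
    (F2 : ∀ (lam lo : (Fin 11 → ℝ) → ℝ) (A : ℝ × ℝ) (φ : ℕ → (Fin 11 → ℝ) → ℝ) (r : ℕ → ℝ),
      PtV D.B D.I I1 (couQ D.B D.lev D.w w0 (incQ π D.L eE fA fB)) p V T {3}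
        (TF {3} (p.θ 1 - p.θ 2) s x) b lam lo A φ r → HomV {3} (TF {3} (p.θ 1 - p.θ 2) s x) b φ →
      g2 ≤ -A.1 + DlF p (TpF (p.θ 1 - p.θ 2) s)) : False := by
  have h0 : (0:ℝ) < 1 / 2 := by norm_num
  have h1 : (1:ℝ) / 2 < 1 := by norm_num
  obtain ⟨lam, lo, H⟩ := stage_V h h0 h1 hκ h02
  obtain ⟨lam2, lo2, H2⟩ := K2A146.rungA H (recD_V h.tp.slots ∅)
    (rungV_i hV3 hκ (b := rhoF p.θ) fun _ _ => rfl) hg1 (flA_of_pt h h0 h1 (s := 1 + (p.θ 1 - p.θ 2))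
      (x := 0) (b := rhoF p.θ) (TF_i hκ 0).1 (fun _ _ => rfl) (fun k hk => by
        rw [← TF_off (by simp), ← TF_off (by simp), TpF_val]
        rcases vis_ne h.tp.slots hk with rfl | rfl | rfl
        · simp only [oS_eq, Matrix.cons_val, Fin.isValue]; linarith
        · exact absurd hk hV3
        · simp only [oS_eq, Matrix.cons_val, Fin.isValue]; linarith [hV4 hk]) F1
      (qdOk h.tp.slots ∅) H)
  have H2' : StV p V ν own w0 R (1 / 2) {3} lam2 lo2 := by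
    have e1 := A2_AF ∅ {3}
    rw [Finset.empty_union] at e1
    rw [e1, ← Finset.coe_union, Finset.empty_union] at H2
    exact H2
  exact K2A146.deadA H2' (recD_V h.tp.slots {3}) (rungV_s hκ hs hx hb) hg2
    (flA_of_ptH h h0 h1 (TF_s hκ hs hx).1 hb (fun k hk => by
        rcases vis_ne h.tp.slots hk with rfl | rfl | rfl
        · rw [← TF_off (by decide), ← TF_off (by decide), TpF_val]
          simp only [oS_eq, Matrix.cons_val, Fin.isValue]; linarith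
        · exact absurd hk hV3
        · rw [← TF_off (by decide), ← TF_off (by decide), TpF_val]
          simp only [oS_eq, Matrix.cons_val, Fin.isValue]; linarith [hs4 hk]) F2
      (qdOk h.tp.slots {3}) H2' _)

end ladder

end Crest.Agent.R136.Dl667
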