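import Crest.Agent.R136.DmN_829
import Crest.Agent.R136.TL0_196

/-!
# R136 (helper829): D-max of lines at every natural level in the context of case (L)
-/

set_option autoImplicit false
set_option linter.unusedVariables false
set_option linter.unusedSectionVars false

open Finset Filter Topology

namespace Crest.Agent.R136.DmN829

open Crest.Agent.R138.Ex926 (Base U)
open Crest.Agent.R138.Mk163 (zc zl rho alive)
open Crest.Agent.R138.MkRef627 (lc kc mem_alive)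
open Crest.Agent.R138
open Crest.Agent.R136.MkA627
open Crest.Agent.R136.Sh605
open Crest.Agent.R136.K4
open Crest.Agent.R136.Top484 (geo4)
open Crest.Agent.R136.GeoQ186
open Crest.Agent.R136.TL196
open Crest.Agent.R136.End882 (DMaxK Rq)

variable {η : ℝ} {c : LCtx}

theorem q_nonneg (ok : c.Ok η) (j : Fin 3) : 0 ≤ c.p.q j := by
  have h := ok.th.tp.ok
  fin_cases j
  · exact h.q0.1
  · exact h.g0.2.le
  · exact h.q2.1.le

theorem one_le_dpow (B : Base) (n : ℕ) {e : ℝ} (he : 0 ≤ e) : 1 ≤ B.d n ^ (-e) := by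
  have h := Dp76.dpow_le B n (a := -e) (b := 0) (by linarith)
  rwa [Real.rpow_zero] at h

/-- **D-max of lines at every natural level.** -/
theorem dmax_ctx (ok : c.Ok η) {δ0 : ℝ} (hδ0 : 0 < δ0) :
    ∃ H : ℕ → ℝ, c.D.B.Sub H ∧ (∀ n, 1 ≤ H n) ∧ ∀ᶠ n in (U : Filter ℕ), ∀ m : ℕ,
      c.D.lev n 0 ≤ m → m ≤ c.D.lev n 1 → ∀ cl : ℤ,
        DMaxK (alive (c.D.I n) m cl) (fun t => cLn c.π (c.D.L n t)) (zl m cl) (rho m)
          (H n * (c.D.A n * (rho (c.D.lev n 0) / rho m) ^ c.p.g)) (Rq c.p.q m) (c.D.r0 n)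
          (fun w' a' => 0 < a' ∧ w' 1 ≤ c.D.B.d n ^ δ0 * rho m ∧
            ∀ k : Fin 3, c.D.wr k n ≤ ![a', w' 1, w' 2] k ∧ ![a', w' 1, w' 2] k ≤ c.D.cr k n) := by
  obtain ⟨e, he0, he, h⟩ := End403.exists_err c.D.B (fun ε n => ∀ m : ℕ,
      c.D.lev n 0 ≤ m → m ≤ c.D.lev n 1 → ∀ cl : ℤ,
        DMaxK (alive (c.D.I n) m cl) (fun t => cLn c.π (c.D.L n t)) (zl m cl) (rho m)
          (c.D.B.d n ^ (-ε) * (c.D.A n * (rho (c.D.lev n 0) / rho m) ^ c.p.g)) (Rq c.p.q m)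
          (c.D.r0 n) (fun w' a' => 0 < a' ∧ w' 1 ≤ c.D.B.d n ^ δ0 * rho m ∧
            ∀ k : Fin 3, c.D.wr k n ≤ ![a', w' 1, w' 2] k ∧ ![a', w' 1, w' 2] k ≤ c.D.cr k n)) fun ε hε =>
    dmax_eps (s := 0) ok.th.tp.pre.mka (q_nonneg ok) c.π hδ0 hε
  exact ⟨_, he, fun n => one_le_dpow c.D.B n (he0 n).le, h⟩

/-- the widths of the marks of level `0` are far inside the range -/
theorem rng_ctx (ok : c.Ok η) (C : ℝ) : ∀ᶠ n in (U : Filter ℕ), ∀ k : Fin 3,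
    c.D.wr k n ≤ c.D.B.d n ^ C * c.D.w k n 0 ∧ c.D.w k n 0 ≤ c.D.B.d n ^ C * c.D.cr k n :=
  Filter.eventually_all.2 fun k => ok.th.tp.wrs C k 0 le_rfl zero_le_one

theorem one_ctx (ok : c.Ok η) : ∀ᶠ n in (U : Filter ℕ), ∀ x ∈ c.D.I n, ∀ y ∈ c.D.I n,
    x.1 = y.1 → zc (c.D.lev n 1) x.2 = zc (c.D.lev n 1) y.2 → x = y :=
  ok.th.tp.pre.mka.one

/-- the ratio of the scales of the levels `0` and `1` -/
theorem lev_ctx (ok : c.Ok η) : ∃ H : ℕ → ℝ, c.D.B.Sub H ∧ (∀ n, 1 ≤ H n) ∧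
    ∀ᶠ n in (U : Filter ℕ), (2 : ℝ) ^ c.D.lev n 1 ≤ H n / c.D.B.d n * 2 ^ c.D.lev n 0 ∧
      (2 : ℝ) ^ c.D.lev n 0 / c.D.B.d n ≤ H n * 2 ^ c.D.lev n 1 := by
  obtain ⟨e, he0, he, h⟩ := End403.exists_err c.D.B (fun ε n =>
    (2 : ℝ) ^ c.D.lev n 1 ≤ (2 : ℝ) ^ c.D.lev n 0 * c.D.B.d n ^ (-(((1 : ℚ) : ℝ) + ε)) ∧
      (2 : ℝ) ^ c.D.lev n 0 * c.D.B.d n ^ (-(((1 : ℚ) : ℝ) - ε)) ≤ (2 : ℝ) ^ c.D.lev n 1)
    fun ε hε => PqG464.pow_lev (s := 0) ok.th.tp.pre.mka 1 zero_le_one le_rfl hε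
  refine ⟨_, he, fun n => one_le_dpow c.D.B n (he0 n).le, ?_⟩
  filter_upwards [h] with n hn
  obtain ⟨h1, h2⟩ := hn
  have hd := Dp76.dpow_pos c.D.B n (-(e n))
  have hdn := c.D.B.pos n
  rw [Rat.cast_one] at h1 h2
  have e1 : c.D.B.d n ^ (-(1 + e n)) = c.D.B.d n ^ (-(e n)) / c.D.B.d n := by
    rw [show -(1 + e n) = -(e n) - 1 by ring, Real.rpow_sub hdn, Real.rpow_one]
  have e2 : c.D.B.d n ^ (-(e n)) * c.D.B.d n ^ (-(1 - e n)) = 1 / c.D.B.d n := by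
    rw [← Dp76.dpow_add, show -(e n) + -(1 - e n) = -1 by ring, Real.rpow_neg_one, one_div]
  constructor
  · rw [e1] at h1
    rw [mul_comm]; exact h1
  · calc (2 : ℝ) ^ c.D.lev n 0 / c.D.B.d n =
          c.D.B.d n ^ (-(e n)) * ((2 : ℝ) ^ c.D.lev n 0 * c.D.B.d n ^ (-(1 - e n))) := by
          rw [mul_left_comm, e2]; ring
      _ ≤ _ := mul_le_mul_of_nonneg_left h2 hd.le

/-- the uniform sample, one loss -/
theorem comb_ctx (ok : c.Ok η) :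
    ∃ (K : ℕ → ℕ) (H : ℕ → ℝ), c.D.B.Sub H ∧ ∀ᶠ n in (U : Filter ℕ), 0 < K n ∧ 0 < H n ∧
      Wq638.N0Q c.D.A c.D.vm n ≤ H n * K n * c.D.B.d n ^ (-c.c₀) ∧
      K n * c.D.B.d n ^ (-c.c₀) ≤ H n * Wq638.N0Q c.D.A c.D.vm n ∧
      (∀ F : Finset (ℕ × ℝ), F ⊆ c.I1 n → ∀ F' : Finset (ℕ × ℝ), F' ⊆ c.D.I n →
        (∀ i ∈ F, ∀ j ∈ c.D.I n,
          Net191.nlab c.D.B c.D.I (Gz779.coF c.F) NetQ186.monQ 2 n (fun _ => c.R) j =
            Net191.nlab c.D.B c.D.I (Gz779.coF c.F) NetQ186.monQ 2 n (fun _ => c.R) i →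
          zc (c.D.lev n 1) j.2 = zc (c.D.lev n 1) i.2 → j ∈ F') →
        K n * F.card ≤ 16 * F'.card) ∧
      ((c.D.I n).card : ℝ) ≤ H n * (K n * (c.I1 n).card) :=
  comb_loss ok.th.comb

end Crest.Agent.R136.DmN829
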