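import Crest.Agent.R136.End8_882

/-!
# R136 (S0187): END, part 9 (helper882): finite form for one explicit container, final

`end_fin`.
-/

set_option autoImplicit false
set_option linter.unusedVariables false

namespace Crest.Agent.R136.End882

open Finset
open Crest.Agent.R136.LmQ861 Crest.Agent.R136.Sh605 Crest.Agent.R136.HR829
open Crest.Agent.R138.Mk163 (zc zl rho alive own)

/-- reward of a sheet of level `m` (`a` thickness, `w2` narrow, `w1` wide) -/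
noncomputable def Rq (q : Fin 3 → ℝ) (m : ℕ) (a w2 w1 : ℝ) : ℝ :=
  (a / rho m) ^ q 0 * (w1 / rho m) ^ q 1 * (w2 / rho m) ^ q 2

section

variable {q : Fin 3 → ℝ} {m : ℕ}

theorem Rq_nonneg {x y z : ℝ} (hx : 0 ≤ x) (hy : 0 ≤ y) (hz : 0 ≤ z) : 0 ≤ Rq q m x y z := by
  have := HR829.rho_pos m
  unfold Rq
  positivity

theorem Rq_pos {x y z : ℝ} (hx : 0 < x) (hy : 0 < y) (hz : 0 < z) : 0 < Rq q m x y z := by
  have := HR829.rho_pos m
  unfold Rq
  positivity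

theorem Rq_mono (hq : ∀ k, 0 ≤ q k) {x y z x' y' z' : ℝ} (hx : 0 ≤ x) (hy : 0 ≤ y) (hz : 0 ≤ z)
    (h1 : x ≤ x') (h2 : y ≤ y') (h3 : z ≤ z') : Rq q m x y z ≤ Rq q m x' y' z' := by
  have hρ := HR829.rho_pos m
  have := hq 0
  have := hq 1
  have := hq 2
  unfold Rq
  have a1 : (x / rho m) ^ q 0 ≤ (x' / rho m) ^ q 0 :=
    Real.rpow_le_rpow (by positivity) (div_le_div_of_nonneg_right h1 hρ.le) (hq 0)
  have a2 : (z / rho m) ^ q 1 ≤ (z' / rho m) ^ q 1 :=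
    Real.rpow_le_rpow (by positivity) (div_le_div_of_nonneg_right h3 hρ.le) (hq 1)
  have a3 : (y / rho m) ^ q 2 ≤ (y' / rho m) ^ q 2 :=
    Real.rpow_le_rpow (by positivity) (div_le_div_of_nonneg_right h2 hρ.le) (hq 2)
  have b1 : 0 ≤ (x / rho m) ^ q 0 := by positivity
  have b2 : 0 ≤ (z / rho m) ^ q 1 := by positivity
  have b3 : 0 ≤ (y / rho m) ^ q 2 := by positivity
  exact mul_le_mul (mul_le_mul a1 a2 b2 (b1.trans a1)) a3 b3 (mul_nonneg (b1.trans a1) (b2.trans a2))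

/-- scaling of the reward -/
theorem Rq_scale {i : ℕ} {t C x y z : ℝ} (hC : 0 < C) (ht : C * rho m = t * rho i) (hti : 0 < t)
    (hx : 0 < x) (hy : 0 < y) (hz : 0 < z) :
    Rq q m (t * x) (t * y) (t * z) = C ^ (q 0 + q 1 + q 2) * Rq q i x y z := by
  have hm := HR829.rho_pos m
  have hi := HR829.rho_pos i
  have e : ∀ v : ℝ, t * v / rho m = C * (v / rho i) := by
    intro v
    rw [mul_div_assoc', div_eq_div_iff hm.ne' hi.ne']
    calc t * v * rho i = t * rho i * v := by ring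
      _ = C * rho m * v := by rw [ht]
      _ = C * v * rho m := by ring
  unfold Rq
  rw [e, e, e, Real.mul_rpow hC.le (by positivity), Real.mul_rpow hC.le (by positivity),
    Real.mul_rpow hC.le (by positivity), Real.rpow_add hC, Real.rpow_add hC]
  ring

end

theorem Flat.mono {κ κ' ρ A B m1 m2 k11 k12 k22 : ℝ} (h : Flat κ ρ A B m1 m2 k11 k12 k22)
    (hκ : κ ≤ κ') (hB : 0 ≤ B) : Flat κ' ρ A B m1 m2 k11 k12 k22 where
  m1 := h.m1.trans (by gcongr)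
  m2 := h.m2.trans hκ
  k11 := h.k11.trans (by gcongr)
  k12 := h.k12.trans hκ
  k22 := h.k22.trans hκ

theorem Flat.double {κ ρ A B m1 m2 k11 k12 k22 : ℝ} (h : Flat κ ρ A B m1 m2 k11 k12 k22)
    (hκ : 0 ≤ κ) (hB : 0 ≤ B) : Flat (2 * κ) ρ (2 * A) (2 * B) m1 m2 k11 k12 k22 where
  m1 := by
    have := h.m1
    have h2 : 0 ≤ κ * B := mul_nonneg hκ hB
    calc |m1| * ρ * (2 * A) = 2 * (|m1| * ρ * A) := by ring
      _ ≤ 2 * (κ * B) := by linarith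
      _ ≤ 2 * κ * (2 * B) := by linarith
  m2 := h.m2.trans (by linarith)
  k11 := by
    have := h.k11
    calc |k11| * (2 * A) ^ 2 = 4 * (|k11| * A ^ 2) := by ring
      _ ≤ 4 * (κ * B) := by linarith
      _ = 2 * κ * (2 * B) := by ring
  k12 := by
    have := h.k12
    calc |k12| * (2 * A) = 2 * (|k12| * A) := by ring
      _ ≤ 2 * κ := by linarith
  k22 := by
    have := h.k22
    calc |k22| * (2 * B) = 2 * (|k22| * B) := by ring
      _ ≤ 2 * κ := by linarith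

open Classical in
/-- **number of lines of the sample in the container** -/
theorem sample_lines (F I0 : Finset (ℕ × ℝ)) (L : ℕ → Ln4) (nb : ℕ × ℝ → ℕ × ℝ → Prop)
    {e : Fin 3 → V3} {c : Ln4} {w : V3} {q : ℝ → V3 → ℝ}
    {z0 s1 s2 m1 m2 k11 k12 k22 a r0 D K nF n0 Kc : ℝ} {qq : Fin 3 → ℝ}
    {Cl : V3 → ℝ → Prop} {i : ℕ} {J0 : ℤ} (hqq : ∀ k, 0 ≤ qq k)
    (he : Ortho e) (hq : IsQ q) (hF : FQ e c q z0 s1 s2 m1 m2 k11 k12 k22)
    (hs1 : |s1| ≤ 3 / 2) (hs2 : |s2| ≤ 3 / 2) (hz0 : zl i J0 ≤ z0) (hz1 : z0 ≤ zl i J0 + rho i)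
    (ha : 0 < a) (haw : a ≤ w 2) (hw : w 2 ≤ w 1)
    (hfl : Flat (1 / 2048) (rho i) (w 1) (w 2) m1 m2 k11 k12 k22)
    (hin : ∀ x ∈ F, InSheet (L x.1) e c w q a (zl i J0) (rho i))
    (hcc : ∀ z, zl i J0 ≤ z → z ≤ zl i J0 + rho i → |q z (c.pos z)| ≤ a)
    (hD : 0 ≤ D) (hmax : DMaxK (alive I0 i J0) L (zl i J0) (rho i) D (Rq qq i) r0 Cl)
    (hK : 0 ≤ K) (hKc : 0 ≤ Kc) (hn0 : 0 ≤ n0) (hJ : ∀ x ∈ F, zc i x.2 = J0)
    (hlow : ∀ x ∈ F, nF ≤ K * ((F.filter fun y => y.1 = x.1 ∧ zc i y.2 = zc i x.2).card : ℝ))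
    (hup : ∀ x ∈ I0, ((I0.filter fun y => y.1 = x.1 ∧ zc i y.2 = zc i x.2).card : ℝ) ≤ K * n0)
    (hcomb : ∀ P ⊆ F, ∀ P' ⊆ I0, (∀ x ∈ P, ∀ y ∈ I0, nb x y → y ∈ P') →
      Kc * (P.card : ℝ) ≤ K * (P'.card : ℝ))
    (hnb : ∀ x ∈ F, ∀ y ∈ I0, nb x y → zc i y.2 = zc i x.2 ∧
      ∀ z, zl i J0 ≤ z → z ≤ zl i J0 + rho i → ∀ b, |nrm e w q a (L x.1) (L y.1) z b| ≤ 1)
    (hr : 3 * r0 ≤ a)
    (hCl : ∀ a', a ≤ 3 * a' → a' ≤ 2 * a → Cl (wFQ (2 * w 1) (2 * w 2)) a') :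
    Kc * nF * ((F.image Prod.fst).card : ℝ) ≤
      K ^ 3 * n0 * (960 * 24 ^ (qq 0 + qq 1 + qq 2) * D * (a * w 2 * w 1 * Rq qq i a (w 2) (w 1))) := by
  have hw2 : 0 < w 2 := ha.trans_le haw
  have hw1 : 0 < w 1 := hw2.trans_le hw
  have hρi : 0 < rho i := HR829.rho_pos i
  have hfl2 : Flat (1 / 1024) (rho i) (2 * w 1) (2 * w 2) m1 m2 k11 k12 k22 := by
    have := hfl.double (by norm_num) hw2.le
    norm_num at this ⊢
    exact this
  have hsh := shN_of_FQ (a := 2 * a) (A := 2 * w 1) (B := 2 * w 2) (r0 := r0) he hq hF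
    (by linarith) (by linarith) hz0 hz1 (by linarith) (by linarith) (by linarith) hfl2 (by linarith)
  set ν := nuT s1 s2 with hν
  have hν1 : 1 ≤ ν := nuT_ge _ _
  have hν6 : ν ≤ 6 := nuT_le (by linarith) (by linarith)
  have hν0 : 0 < ν := by linarith
  have h1 := hmax _ _ _ _ _ hsh.toN (hCl _ (by
      rw [← mul_div_assoc, le_div_iff₀ hν0]
      nlinarith) (div_le_self (by linarith) hν1))
  set T := (alive I0 i J0).filter fun t => InSheet (L t) (tilt e s1 s2) c (wFQ (2 * w 1) (2 * w 2))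
    (fun z x => q z x / ν) (2 * a / ν) (zl i J0) (rho i) with hT
  have hcount := sample_count F I0 nb i J0 hK hKc hn0 hlow hup hcomb (F.image Prod.fst) T (by
    intro t ht
    obtain ⟨x, hx, rfl⟩ := mem_image.1 ht
    exact mem_alive.2 ⟨x, hx, rfl, hJ x hx⟩) (by
    intro x hx hc' hxP y hy hxy
    obtain ⟨g1, g2⟩ := hnb x hx y hy hxy
    have hyc : zc i y.2 = J0 := g1.trans hc'
    refine ⟨hyc, ?_⟩
    rw [hT, mem_filter]
    refine ⟨mem_alive.2 ⟨y, hy, rfl, hyc⟩, ?_⟩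
    refine mem_of_FQ hF (by linarith) (by linarith) hz0 hz1 (by linarith) (by linarith)
      (by linarith) hfl2 (fun z h1 h2 => (hcc z h1 h2).trans (by linarith)) ?_
    intro z h1 h2
    have hx1 := (hin x hx z h1 h2).1 1
    have hx2 := (hin x hx z h1 h2).1 2
    have hx3 := (hin x hx z h1 h2).2
    have n0 := g2 z h1 h2 0
    have n1 := g2 z h1 h2 1
    have n2 := g2 z h1 h2 2
    rw [nrm_zero, abs_div, abs_of_pos ha, div_le_one ha] at n0
    rw [nrm_one, abs_div, abs_of_pos hw1, div_le_one hw1] at n1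
    rw [nrm_two, abs_div, abs_of_pos hw2, div_le_one hw2] at n2
    have e1 : ∀ k, dt (e k) ((L y.1).pos z - c.pos z) =
        dt (e k) ((L y.1).pos z - (L x.1).pos z) + dt (e k) ((L x.1).pos z - c.pos z) := by
      intro k; rw [dt_sub, dt_sub, dt_sub]; ring
    refine ⟨?_, ?_, ?_⟩
    · rw [e1]; exact (abs_add_le _ _).trans (by linarith)
    · rw [e1]; exact (abs_add_le _ _).trans (by linarith)
    · have e2 : q z ((L y.1).pos z) = (q z ((L y.1).pos z) - q z ((L x.1).pos z)) +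
          q z ((L x.1).pos z) := by ring
      rw [e2]; exact (abs_add_le _ _).trans (by linarith))
  refine hcount.trans (mul_le_mul_of_nonneg_left ?_ (by positivity))
  refine h1.trans ?_
  change D * (2 * a / ν * (10 * (2 * w 2)) * (12 * (2 * w 1)) *
    Rq qq i (2 * a / ν) (10 * (2 * w 2)) (12 * (2 * w 1))) ≤ _
  have e3 : 2 * a / ν ≤ 2 * a := div_le_self (by linarith) hν1
  have e4 : Rq qq i (2 * a / ν) (10 * (2 * w 2)) (12 * (2 * w 1)) ≤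
      Rq qq i (24 * a) (24 * w 2) (24 * w 1) :=
    Rq_mono hqq (by positivity) (by positivity) (by positivity) (by linarith) (by linarith)
      (by linarith)
  have e5 : Rq qq i (24 * a) (24 * w 2) (24 * w 1) =
      24 ^ (qq 0 + qq 1 + qq 2) * Rq qq i a (w 2) (w 1) :=
    Rq_scale (by norm_num) rfl (by norm_num) ha hw2 hw1
  rw [e5] at e4
  have e6 : 0 ≤ Rq qq i (2 * a / ν) (10 * (2 * w 2)) (12 * (2 * w 1)) :=
    Rq_nonneg (by positivity) (by positivity) (by positivity)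
  calc D * (2 * a / ν * (10 * (2 * w 2)) * (12 * (2 * w 1)) *
        Rq qq i (2 * a / ν) (10 * (2 * w 2)) (12 * (2 * w 1))) ≤
      D * (2 * a * (10 * (2 * w 2)) * (12 * (2 * w 1)) *
        (24 ^ (qq 0 + qq 1 + qq 2) * Rq qq i a (w 2) (w 1))) := by gcongr
    _ = _ := by ring

theorem rho_window {i M k : ℕ} (hk : k ≤ M) :
    rho (i + M + 1 - k) = rho i * 2 ^ k / 2 ^ (M + 1) := by
  unfold rho
  have h : (2 : ℝ) ^ (i + M + 1 - k) * 2 ^ k = 2 ^ i * 2 ^ (M + 1) := by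
    rw [← pow_add, ← pow_add]; congr 1; omega
  field_simp
  linarith

open Classical in
set_option maxHeartbeats 1000000 in
/-- **END, finite form.** -/
theorem end_fin (hKM : ∀ V : ℝ, Crest.Agent.R138.Tub70.KM32 V) {g : ℝ} (hg : 0 < g)
    {qq : Fin 3 → ℝ} (hqq : ∀ k, 0 ≤ qq k) {η₁ : ℝ} (hη₁ : 0 < η₁) :
    ∃ η κ : ℝ, ∃ M₀ : ℕ, 0 < η ∧ η ≤ η₁ ∧ η ≤ 1 / 4 ∧ 0 < κ ∧
    ∀ (F I0 : Finset (ℕ × ℝ)) (L : ℕ → Ln4) (nb : ℕ × ℝ → ℕ × ℝ → Prop)
      (e : Fin 3 → V3) (c : Ln4) (w : V3) (q : ℝ → V3 → ℝ)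
      (z0 s1 s2 m1 m2 k11 k12 k22 a r0 K nn n0 Kc D : ℝ) (Cl Cl' : V3 → ℝ → Prop)
      (i j M k : ℕ) (J0 : ℤ),
      F.Nonempty → M₀ ≤ M → η / 2 * M ≤ k → (k : ℝ) ≤ η * M → i + M + 1 ≤ j →
      1 ≤ K → K ≤ (2 : ℝ) ^ (κ * M) → 0 < nn → 0 < n0 → 0 < Kc → 0 < D →
      (∀ x ∈ F, zc i x.2 = J0) →
      Ortho e → IsQ q → FQ e c q z0 s1 s2 m1 m2 k11 k12 k22 → |s1| ≤ 3 / 2 → |s2| ≤ 3 / 2 →
      zl i J0 ≤ z0 → z0 ≤ zl i J0 + rho i → 0 < a → w 2 ≤ w 1 → 6 * 2 ^ k * a ≤ w 2 →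
      Flat (1 / 2048) (rho i) (w 1) (w 2) m1 m2 k11 k12 k22 →
      (∀ x ∈ F, InSheet (L x.1) e c w q a (zl i J0) (rho i)) →
      (∀ z, zl i J0 ≤ z → z ≤ zl i J0 + rho i → |q z (c.pos z)| ≤ a) →
      -- own counts of the sample
      (∀ x ∈ F, nn ≤ K * ((F.filter fun y => y.1 = x.1 ∧ zc i y.2 = zc i x.2).card : ℝ)) →
      (∀ x ∈ F, nn / 2 ^ (M + 1 - k) ≤ K * ((F.filter fun y => y.1 = x.1 ∧
        zc (i + M + 1 - k) y.2 = zc (i + M + 1 - k) x.2).card : ℝ)) →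
      (∀ x ∈ F, ((F.filter fun y => y.1 = x.1 ∧ zc (i + M + 1) y.2 = zc (i + M + 1) x.2).card : ℝ)
        ≤ K * (nn / 2 ^ (M + 1))) →
      -- own counts of the ambient family
      (∀ x ∈ I0, ((I0.filter fun y => y.1 = x.1 ∧ zc i y.2 = zc i x.2).card : ℝ) ≤ K * n0) →
      (∀ x ∈ I0, ((I0.filter fun y => y.1 = x.1 ∧
        zc (i + M + 1 - k) y.2 = zc (i + M + 1 - k) x.2).card : ℝ) ≤
          K * (n0 / 2 ^ (M + 1 - k))) →
      -- comb
      (∀ P ⊆ F, ∀ P' ⊆ I0, (∀ x ∈ P, ∀ y ∈ I0, nb x y → y ∈ P') →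
        Kc * (P.card : ℝ) ≤ K * (P'.card : ℝ)) →
      (∀ x ∈ F, ∀ y ∈ I0, nb x y → zc (i + M + 1 - k) y.2 = zc (i + M + 1 - k) x.2 ∧
        ∀ z, zl i J0 ≤ z → z ≤ zl i J0 + rho i →
          ∀ b, |nrm e w q a (L x.1) (L y.1) z b| ≤ 1 / 2 ^ M) →
      -- D-max
      DMaxK (alive I0 i J0) L (zl i J0) (rho i) (K * D) (Rq qq i) r0 Cl →
      (∀ a', a ≤ 3 * a' → a' ≤ 2 * a → Cl (wFQ (2 * w 1) (2 * w 2)) a') →
      (∀ cl : ℤ, DMaxK (alive I0 (i + M + 1 - k) cl) L (zl (i + M + 1 - k) cl)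
        (rho (i + M + 1 - k)) (K * (D * 2 ^ (g * ((M : ℝ) + 1 - k)))) (Rq qq (i + M + 1 - k))
        r0 Cl') →
      (∀ A B a', 2718 / 2 ^ M * w 1 ≤ A → A ≤ 16308 * (2 ^ k / 2 ^ M) * w 1 →
        2718 / 2 ^ M * w 2 ≤ B → B ≤ 32616 * (2 ^ k / 2 ^ M) * w 2 →
        2718 / 2 ^ M * a ≤ a' → a' ≤ 32616 * (2 ^ k / 2 ^ M) * a → Cl' (wFQ A B) a') →
      r0 * 2 ^ M ≤ 2718 * a → 3 * r0 ≤ a →
      -- rich
      (∀ x ∈ F, ∃ z : ℝ, zc j z = zc j x.2 ∧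
        n0 / (Kc * nn) * (D * (a * w 2 * w 1 * Rq qq i a (w 2) (w 1))) *
          (2 : ℝ) ^ (-(3 - g) * M) ≤
        K * (((alive F j (zc j x.2)).filter fun t =>
          ∀ b, |nrm e w q a (L x.1) (L t) z b| ≤ 1 / 2 / 2 ^ M).card : ℝ)) → False := by
  obtain ⟨η, κe, M₀, hη, hηη, hη1, hκe, key⟩ := end_arith hKM hg hη₁ 200000000
  set Q : ℝ := qq 0 + qq 1 + qq 2 with hQ
  have hQ0 : 0 ≤ Q := by
    have := hqq 0
    have := hqq 1
    have := hqq 2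
    positivity
  set CC : ℝ := 25920 * 2 ^ g * 2718 ^ 3 * 652320 ^ Q with hCC
  have hg1 : (1 : ℝ) ≤ 2 ^ g := Real.one_le_rpow (by norm_num) hg.le
  have hQ1 : (1 : ℝ) ≤ 652320 ^ Q := Real.one_le_rpow (by norm_num) hQ0
  have hCC1 : 1 ≤ CC := by
    rw [hCC]
    have h1 : (1 : ℝ) ≤ 25920 * 2 ^ g * 2718 ^ 3 := by nlinarith
    nlinarith
  have hCC2 : 960 * 24 ^ Q ≤ CC := by
    have h1 : (24 : ℝ) ^ Q ≤ 652320 ^ Q := Real.rpow_le_rpow (by norm_num) (by norm_num) hQ0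
    rw [hCC]
    have h2 : (960 : ℝ) ≤ 25920 * 2 ^ g * 2718 ^ 3 := by nlinarith
    have h3 : (0 : ℝ) ≤ 24 ^ Q := by positivity
    exact mul_le_mul h2 h1 h3 (by positivity)
  refine ⟨η, κe / 8, max M₀ (Nat.ceil (2 * Real.logb 2 CC / κe)), hη, hηη, hη1, by positivity, ?_⟩
  intro F I0 L nb e c w q z0 s1 s2 m1 m2 k11 k12 k22 a r0 K nn n0 Kc D Cl Cl' i j M k J0 hFne hM' hk1
    hk2 hij hK1 hK hnn hn0 hKc hD hJ he hq hF hs1 hs2 hz0 hz1 ha hw hthin hfl hin hcc hown hwin hup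
    hupi hupl hcomb hnb hmaxi hCli hmaxl hCll hr0 hr3 hrich
  have hM : M₀ ≤ M := (le_max_left _ _).trans hM'
  have hMC : 2 * Real.logb 2 CC / κe ≤ M :=
    (Nat.le_ceil _).trans (by exact_mod_cast (le_max_right _ _).trans hM')
  have hCM : CC ≤ (2 : ℝ) ^ (κe / 2 * M) := by
    rw [div_le_iff₀ hκe] at hMC
    have h1 : Real.logb 2 CC ≤ κe / 2 * M := by linarith
    exact (Real.logb_le_iff_le_rpow (by norm_num) (by linarith)).1 h1
  have hK0 : 0 < K := by linarith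
  have hKe : CC * K ^ 4 ≤ (2 : ℝ) ^ (κe * M) := by
    have h4 : K ^ 4 ≤ (2 : ℝ) ^ (κe / 2 * M) := by
      calc K ^ 4 ≤ ((2 : ℝ) ^ (κe / 8 * M)) ^ 4 := by gcongr
        _ = (2 : ℝ) ^ (κe / 2 * M) := by
          rw [← Real.rpow_natCast, ← Real.rpow_mul (by norm_num)]
          congr 1; push_cast; ring
    calc CC * K ^ 4 ≤ (2 : ℝ) ^ (κe / 2 * M) * (2 : ℝ) ^ (κe / 2 * M) := by gcongr
      _ = (2 : ℝ) ^ (κe * M) := by
        rw [← Real.rpow_add (by norm_num)]; congr 1; ring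
  have hKK : K ≤ CC * K ^ 4 := by
    have h1 : K ≤ K ^ 4 := le_self_pow₀ hK1 (by norm_num)
    nlinarith [pow_pos hK0 4]
  have hKe1 : 1 ≤ CC * K ^ 4 := hK1.trans hKK
  have hkM : k ≤ M := by
    have : (k : ℝ) ≤ M := by
      have h1 : η * M ≤ 1 / 4 * M := by gcongr
      have : (0 : ℝ) ≤ M := Nat.cast_nonneg _
      linarith
    exact_mod_cast this
  have haw : a ≤ w 2 := by
    have h1 : (1 : ℝ) ≤ 2 ^ k := one_le_pow₀ (by norm_num)
    nlinarith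
  have hw2 : 0 < w 2 := ha.trans_le haw
  have hw1 : 0 < w 1 := hw2.trans_le hw
  set cost : ℝ := a * w 2 * w 1 * Rq qq i a (w 2) (w 1) with hcost
  have hcost0 : 0 < cost := by
    have := Rq_pos (q := qq) (m := i) ha hw2 hw1
    positivity
  set Dc : ℝ := n0 / (Kc * nn) * (D * cost) with hDc
  have hDc0 : 0 < Dc := by positivity
  have hM2 : (0 : ℝ) < 2 ^ M := by positivity
  have hk0 : (0 : ℝ) < 2 ^ k := by positivity
  have hnK : ∀ (t : ℝ), 0 ≤ t → K * t ≤ CC * K ^ 4 * t := fun t ht =>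
    mul_le_mul_of_nonneg_right hKK ht
  refine key F L e c w q a i j M k J0 (CC * K ^ 4) nn Dc hFne hM hk1 hk2 hij hKe1 hKe hnn hDc0 hJ hq
    ha hw1 hw2 hin ?_ ?_ ?_ ?_ ?_ ?_
  · intro x hx
    exact (hown x hx).trans (hnK _ (Nat.cast_nonneg _))
  · intro x hx
    exact (hwin x hx).trans (hnK _ (Nat.cast_nonneg _))
  · intro x hx
    exact (hup x hx).trans (hnK _ (by positivity))
  · intro x hx
    obtain ⟨z, hz, h⟩ := hrich x hx
    exact ⟨z, hz, h.trans (hnK _ (Nat.cast_nonneg _))⟩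
  · -- planks
    intro x hx y hy hbig h01 h11 hnear n hn E hE hEn wd hwd
    have hRl := rho_window (i := i) hkM
    have hρi := HR829.rho_pos i
    have hbig' : 200000000 * (((2 ^ k : ℕ) : ℝ)) ^ 2 ≤ 2 ^ M := hbig
    have hmain := sample_planks F I0 L nb (Rw := Rq qq (i + M + 1 - k)) (r0 := r0) (Cl := Cl')
      (nF := nn / 2 ^ (M + 1 - k)) (n0 := n0 / 2 ^ (M + 1 - k)) (Kc := Kc) (K := K)
      (R := 2 ^ M) (H := 2 ^ k) he hq hF hs1 hs2 hz0 hz1 ha haw hw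
      (hfl.mono (by norm_num) hw2.le) hin
      (by positivity) (fun x y z h1 h2 h3 => Rq_nonneg h1 h2 h3)
      (fun x y z x' y' z' h1 h2 h3 h4 h5 h6 => Rq_mono hqq h1 h2 h3 h4 h5 h6)
      (hmaxl (zc (i + M + 1 - k) y.2)) (by positivity) hM2 hbig'
      (by
        rw [hRl, pow_succ]
        push_cast
        have : rho i * 2 ^ k / (2 ^ M * 2) * 2 ^ M = rho i * 2 ^ k / 2 := by field_simp
        rw [this]
        have : 0 < rho i * 2 ^ k := by positivity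
        linarith)
      h01 h11 hK0.le hKc.le (by positivity) hwin hupl hcomb hnb
      (by
        push_cast
        exact hthin)
      hr0
      (by
        intro A B a' h1 h2 h3 h4 h5 h6
        push_cast at h2 h4 h6
        exact hCll A B a' h1 h2 h3 h4 h5 h6)
      hx (ix M J0 (zc (i + M + 1) x.2)) hnear hn hE hEn (wd := wd)
      (by push_cast; exact hwd)
    -- evaluate the reward
    have hscale : Rq qq (i + M + 1 - k) (326160 * (2 ^ k / 2 ^ M) * a)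
        (326160 * (2 ^ k / 2 ^ M) * w 2) (326160 * (2 ^ k / 2 ^ M) * w 1) =
        652320 ^ Q * Rq qq i a (w 2) (w 1) := by
      refine Rq_scale (by norm_num) ?_ (by positivity) ha hw2 hw1
      rw [hRl, pow_succ]
      field_simp
      norm_num
    push_cast at hmain
    rw [hscale] at hmain
    set X : ℝ := (((alive F (i + M + 1 - k) (zc (i + M + 1 - k) y.2)).filter fun t =>
          Plk (fun l => gam e c w q a (zm i J0) (rho i / 2) (L l))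
            (fun l => vel e c w q a (zm i J0) (rho i / 2) (L l)) (2 ^ M) (2 ^ k) n E wd
            (x.1, ix M J0 (zc (i + M + 1) x.2))
            (t, ix M J0 (zc (i + M + 1) x.2))).card : ℝ) with hX
    have hpow : (2 : ℝ) ^ (-(3 : ℝ) * M + g * (M - k)) = (2 : ℝ) ^ (g * ((M : ℝ) - k)) / (2 ^ M) ^ 3 := by
      rw [Real.rpow_add (by norm_num), neg_mul, Real.rpow_neg (by norm_num),
        Real.rpow_mul (by norm_num), Real.rpow_natCast]
      have : ((2 : ℝ) ^ (3 : ℝ)) ^ M = (2 ^ M) ^ 3 := by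
        rw [← pow_mul, mul_comm M 3, pow_mul]
        norm_num
      rw [this]
      ring
    have hpow2 : (2 : ℝ) ^ (g * ((M : ℝ) + 1 - k)) = 2 ^ g * 2 ^ (g * ((M : ℝ) - k)) := by
      rw [← Real.rpow_add (by norm_num)]; congr 1; ring
    rw [hpow2] at hmain
    rw [hpow]
    have hwd0 : 0 ≤ wd 0 := le_trans (by positivity) (hwd 0).1
    have hwd1 : 0 ≤ wd 1 := le_trans (by positivity) (hwd 1).1
    have hpl : (0 : ℝ) < 2 ^ (M + 1 - k) := by positivity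
    -- cancel
    have hfin : Kc * nn * X ≤ K ^ 4 * n0 * CC * (D * cost) * ((2 : ℝ) ^ (g * ((M : ℝ) - k)) /
        (2 ^ M) ^ 3) * (wd 0 * wd 1) * (2 ^ k) ^ 2 := by
      have h1 := mul_le_mul_of_nonneg_right hmain hpl.le
      have e1 : Kc * (nn / 2 ^ (M + 1 - k)) * X * 2 ^ (M + 1 - k) = Kc * nn * X := by
        field_simp
      rw [e1] at h1
      refine h1.trans (le_of_eq ?_)
      rw [hCC, hcost]
      field_simp
    have hKn : 0 < Kc * nn := by positivity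
    have e2 : CC * K ^ 4 * (Dc * ((2 : ℝ) ^ (g * ((M : ℝ) - k)) / (2 ^ M) ^ 3)) *
        (wd 0 * wd 1) * (2 ^ k) ^ 2 = (K ^ 4 * n0 * CC * (D * cost) *
        ((2 : ℝ) ^ (g * ((M : ℝ) - k)) / (2 ^ M) ^ 3) * (wd 0 * wd 1) * (2 ^ k) ^ 2) / (Kc * nn) := by
      rw [hDc]
      field_simp
    rw [e2, le_div_iff₀ hKn]
    linarith
  · -- lines
    have hM1 : (1 : ℝ) ≤ 2 ^ M := one_le_pow₀ (by norm_num)
    have h1 := sample_lines F I0 L nb (nF := nn) (n0 := n0) (Kc := Kc) (K := K) (D := K * D) hqq he hq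
      hF hs1 hs2 hz0 hz1 ha haw hw hfl hin hcc (by positivity) hmaxi hK0.le hKc.le hn0.le hJ hown
      hupi hcomb (fun x hx y hy hxy => by
        obtain ⟨g1, g2⟩ := hnb x hx y hy hxy
        refine ⟨zc_nest (by omega) g1, fun z h1 h2 b => (g2 z h1 h2 b).trans ?_⟩
        rw [div_le_one hM2]; exact hM1) hr3 hCli
    have hKn : 0 < Kc * nn := by positivity
    have e2 : CC * K ^ 4 * Dc = (K ^ 3 * n0 * (CC * (K * D) * cost)) / (Kc * nn) := by
      rw [hDc]; field_simp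
    rw [e2, le_div_iff₀ hKn]
    calc ((F.image Prod.fst).card : ℝ) * (Kc * nn) = Kc * nn * ((F.image Prod.fst).card : ℝ) := by
          ring
      _ ≤ K ^ 3 * n0 * (960 * 24 ^ Q * (K * D) * cost) := h1
      _ ≤ K ^ 3 * n0 * (CC * (K * D) * cost) := by gcongr

end Crest.Agent.R136.End882
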