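import Crest.Agent.R136.End10_882
import Crest.Agent.R136.GD1_186
import Crest.Agent.R136.KDef4_879

/-!
# R136: a box of a gauge chart is one sheet per cell (helper779)

`shN_perm`, `shN_shift` : permuted coordinates, translation of the heights;
`box_sheet` : **the lines of a box of the gauge chart `g` (`g 4 = g 5 = 0`) around `i` lie in one
sheet of the class `ShN` over a cell near `i.z`**, if the second order part is small on the box.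
-/

set_option autoImplicit false
set_option linter.unusedVariables false
set_option linter.unusedSectionVars false

namespace Crest.Agent.R136.Dmx779

open Crest.Agent.R136.NetQ186
open Crest.Agent.R136.GeoQ186
open Crest.Agent.R136.End882
open Crest.Agent.R136.K4
open Crest.Agent.R136.Sh605 hiding frm

theorem pv_add_smul (π : Equiv.Perm (Fin 3)) (x : V3) (τ : ℝ) (e : Fin 3 → V3) (k : Fin 3) :
    pv π (x + τ • fpv π e k) = pv π x + τ • e k := by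
  funext j; simp [pv, fpv]

theorem isQ_perm {π : Equiv.Perm (Fin 3)} {q : ℝ → V3 → ℝ} (h : IsQ q) : IsQ (qpv π q) := by
  obtain ⟨c0, c1, c2, b, d, g, hq⟩ := h
  refine ⟨c0, c1, c2, fun i => b (π.symm i), fun i => d (π.symm i),
    fun i j => g (π.symm i) (π.symm j), fun z x => ?_⟩
  have e1 : qpv π q z x = q z (pv π x) := rfl
  rw [e1, hq]
  congr 1
  · congr 1
    rw [← Equiv.sum_comp π fun i => (b (π.symm i) + d (π.symm i) * z) * x i]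
    simp [pv]
  · rw [← Equiv.sum_comp π fun i => ∑ j, g (π.symm i) (π.symm j) * (x i * x j)]
    refine Finset.sum_congr rfl fun i _ => ?_
    rw [← Equiv.sum_comp π fun j => g (π.symm (π i)) (π.symm j) * (x (π i) * x j)]
    simp [pv]

/-- the class of sheets in the original coordinates -/
theorem shN_perm {π : Equiv.Perm (Fin 3)} {e : Fin 3 → V3} {c : Ln4} {w : V3}
    {q : ℝ → V3 → ℝ} {a z0 ρ r0 : ℝ} (h : ShN e (cLn π c) w q a z0 ρ r0) :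
    ShN (fpv π e) c w (qpv π q) a z0 ρ r0 where
  ortho := by
    intro i j
    have := h.ortho i j
    rw [← this]
    show dt (pv π.symm (e i)) (pv π.symm (e j)) = _
    rw [dt_pv]
  isQ := isQ_perm h.isQ
  a_le0 := h.a_le0
  w0_le := h.w0_le
  w_le := h.w_le
  r0_le := h.r0_le
  st0 := by
    intro z hz hz' x τ hτ hx hx'
    have := h.st0 z hz hz' (pv π x) τ hτ (inK_perm.1 hx)
      (by rw [← pv_add_smul]; exact inK_perm.1 hx')
    show τ / 2 ≤ q z (pv π (x + τ • fpv π e 0)) - q z (pv π x) ∧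
      q z (pv π (x + τ • fpv π e 0)) - q z (pv π x) ≤ 2 * τ
    rw [pv_add_smul]
    exact this
  sl1 := by
    intro z hz hz' x τ hτ hx hx'
    have := h.sl1 z hz hz' (pv π x) τ hτ (inK_perm.1 hx)
      (by rw [← pv_add_smul]; exact inK_perm.1 hx')
    show |q z (pv π (x + τ • fpv π e 1)) - q z (pv π x)| ≤ w 0 / w 1 * τ
    rw [pv_add_smul]
    exact this
  sl2 := by
    intro z hz hz' x τ hτ hx hx'
    have := h.sl2 z hz hz' (pv π x) τ hτ (inK_perm.1 hx)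
      (by rw [← pv_add_smul]; exact inK_perm.1 hx')
    show |q z (pv π (x + τ • fpv π e 2)) - q z (pv π x)| ≤ w 0 / w 2 * τ
    rw [pv_add_smul]
    exact this

/-- the line translated by `Δ` in the height -/
def lsh (c : Ln4) (Δ : ℝ) : Ln4 := ⟨fun k => c.p k - Δ * c.v k, c.v⟩

theorem lsh_pos (c : Ln4) (Δ z : ℝ) : (lsh c Δ).pos z = c.pos (z - Δ) := by
  funext k
  simp only [lsh, Ln4.pos]
  ring

/-- translation of the heights -/
theorem shN_shift {e : Fin 3 → V3} {c : Ln4} {w : V3} {q : ℝ → V3 → ℝ} {a z0 ρ r0 : ℝ}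
    (h : ShN e c w q a z0 ρ r0) (Δ : ℝ) :
    ShN e (lsh c Δ) w (fun z x => q (z - Δ) x) a (z0 + Δ) ρ r0 := by
  have hK : ∀ (W : V3) (z : ℝ) (x : V3), InK e (lsh c Δ) W z x ↔ InK e c W (z - Δ) x := by
    intro W z x
    unfold InK
    rw [lsh_pos]
  refine
    { ortho := h.ortho, isQ := ?_, a_le0 := h.a_le0, w0_le := h.w0_le, w_le := h.w_le
      r0_le := h.r0_le
      st0 := fun z h0 h1 x τ hτ hx hx' => h.st0 (z - Δ) (by linarith) (by linarith) x τ hτ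
        ((hK _ _ _).1 hx) ((hK _ _ _).1 hx')
      sl1 := fun z h0 h1 x τ hτ hx hx' => h.sl1 (z - Δ) (by linarith) (by linarith) x τ hτ
        ((hK _ _ _).1 hx) ((hK _ _ _).1 hx')
      sl2 := fun z h0 h1 x τ hτ hx hx' => h.sl2 (z - Δ) (by linarith) (by linarith) x τ hτ
        ((hK _ _ _).1 hx) ((hK _ _ _).1 hx') }
  obtain ⟨c0, c1, c2, b, d, g, hq⟩ := h.isQ
  refine ⟨c0 - c1 * Δ + c2 * Δ ^ 2, c1 - 2 * c2 * Δ, c2, fun i => b i - d i * Δ, d, g,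
    fun z x => ?_⟩
  beta_reduce
  rw [hq]
  simp only [Fin.sum_univ_three]
  ring

section box

variable {π : Equiv.Perm (Fin 3)} {g : Fin 6 → ℝ} {i : Fq4} {c : Ln4} {s : Fin 11 → ℝ}
  {z0 ρ r0 A B a κ : ℝ}

/-- **a box of the gauge chart is one sheet** -/
theorem box_sheet (hi : TrueLn g i (cLn π c)) (he : |i.e| ≤ 1)
    (hfA : |gA g i.z (i.pa i.z) (i.pb i.z) + i.fa| ≤ 1)
    (hfB : |gB g i.z (i.pa i.z) (i.pb i.z) + i.fb| ≤ 1) (h4 : g 4 = 0) (h5 : g 5 = 0)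
    (hs : ∀ k, 0 ≤ s k) (hρ : 0 ≤ ρ) (hz : ∀ z, z0 ≤ z → z ≤ z0 + ρ → |z - i.z| ≤ 2 * ρ)
    (hA : 3 / 2 * (s 8 + 2 * ρ * s 5) + (s 9 + 2 * ρ * s 6) ≤ A)
    (hB : s 9 + 2 * ρ * s 6 ≤ B) (ha : s 10 + 2 * ρ * s 7 + (2 * ρ) ^ 2 * s 1 ≤ a)
    (ha0 : 0 < a) (haB : a ≤ B) (hBA : B ≤ A) (hr : 6 * r0 ≤ a)
    (hκ : κ = 1 / 4096)
    (f1 : |g 1 + g 2 * i.e + 2 * g 3 * i.ca| * ρ * A ≤ κ * B) (f2 : |g 2| * ρ ≤ κ)
    (f3 : |g 3| * A ^ 2 ≤ κ * B) (f4 : |g 3| * A ≤ κ) :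
    ∃ t : Plk4, ShN t.e t.c t.w t.q t.a z0 ρ r0 ∧ 0 ≤ t.a ∧ t.a ≤ a ∧ a / 6 ≤ t.a ∧
      t.w 1 = 12 * A ∧ t.w 2 = 10 * B ∧ ∀ (j : Fq4) (l : Ln4), TrueLn g j (cLn π l) →
        (∀ k, |coQ i j k| ≤ s k) → InSheet l t.e t.c t.w t.q t.a z0 ρ := by
  have hB0 : 0 < B := ha0.trans_le haB
  have hA0 : 0 < A := hB0.trans_le hBA
  have hz00 : |z0 - i.z| ≤ 2 * ρ := hz z0 le_rfl (by linarith)
  have hn := nu_ge i.e
  have hp := nu_pos i.e
  have hsq := nu_sq i.e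
  have hnl := nu_le he
  have q1 : |1 / nu i.e| ≤ 1 := by rw [abs_of_pos (by positivity), div_le_one hp]; exact hn
  have q2 : |i.e / nu i.e| ≤ 1 := by rw [abs_div, abs_of_pos hp, div_le_one hp]; linarith
  set tu : ℝ := g 1 + g 2 * i.e + 2 * g 3 * i.ca with htu
  have hκ0 : 0 < κ := by rw [hκ]; norm_num
  -- bounds without `A`
  have f1' : |tu| * ρ ≤ κ := by
    have : |tu| * ρ * A ≤ κ * A := f1.trans (mul_le_mul_of_nonneg_left hBA hκ0.le)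
    exact le_of_mul_le_mul_right this hA0
  obtain ⟨s1, hs1⟩ : ∃ x, x = 1 / nu i.e * (gA g z0 (i.pa z0) (i.pb z0) + i.fa) +
    i.e / nu i.e * (gB g z0 (i.pa z0) (i.pb z0) + i.fb) := ⟨_, rfl⟩
  obtain ⟨s2, hs2⟩ : ∃ x, x = -(i.e / nu i.e) * (gA g z0 (i.pa z0) (i.pb z0) + i.fa) +
    1 / nu i.e * (gB g z0 (i.pa z0) (i.pb z0) + i.fb) := ⟨_, rfl⟩
  obtain ⟨m1, hm1⟩ : ∃ x, x = 1 / nu i.e * (g 1 + 2 * g 3 * i.ca + g 4 * i.cb) +
    i.e / nu i.e * (g 2 + g 4 * i.ca + 2 * g 5 * i.cb) := ⟨_, rfl⟩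
  obtain ⟨m2, hm2⟩ : ∃ x, x = -(i.e / nu i.e) * (g 1 + 2 * g 3 * i.ca + g 4 * i.cb) +
    1 / nu i.e * (g 2 + g 4 * i.ca + 2 * g 5 * i.cb) := ⟨_, rfl⟩
  obtain ⟨k11, hk11⟩ : ∃ x, x = (1 / nu i.e) ^ 2 * g 3 + 1 / nu i.e * (i.e / nu i.e) * g 4 +
    (i.e / nu i.e) ^ 2 * g 5 := ⟨_, rfl⟩
  obtain ⟨k12, hk12⟩ : ∃ x, x = -2 * (1 / nu i.e * (i.e / nu i.e)) * g 3 +
    ((1 / nu i.e) ^ 2 - (i.e / nu i.e) ^ 2) * g 4 + 2 * (1 / nu i.e * (i.e / nu i.e)) * g 5 :=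
    ⟨_, rfl⟩
  obtain ⟨k22, hk22⟩ : ∃ x, x = (i.e / nu i.e) ^ 2 * g 3 - 1 / nu i.e * (i.e / nu i.e) * g 4 +
    (1 / nu i.e) ^ 2 * g 5 := ⟨_, rfl⟩
  have hQ : QCo g i i.e z0 s1 s2 m1 m2 k11 k12 k22 := ⟨hs1, hs2, hm1, hm2, hk11, hk12, hk22⟩
  have hF : FQ (frm i.e) (cLn π c) (qf g i) z0 s1 s2 m1 m2 k11 k12 k22 := FQ_qf hi hQ
  -- slopes
  have hMA : |g 1 + 2 * g 3 * i.ca| * ρ ≤ 2 * κ := by
    have e1 : g 1 + 2 * g 3 * i.ca = tu + -(g 2) * i.e := by rw [htu]; ring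
    have e2 : |g 1 + 2 * g 3 * i.ca| ≤ |tu| + |g 2| * 1 := by
      rw [e1]
      refine aux_a2 le_rfl (aux_m2 ?_ he)
      rw [abs_neg]
    calc |g 1 + 2 * g 3 * i.ca| * ρ ≤ (|tu| + |g 2| * 1) * ρ := mul_le_mul_of_nonneg_right e2 hρ
      _ = |tu| * ρ + |g 2| * ρ := by ring
      _ ≤ 2 * κ := by linarith
  have hGA : |gA g z0 (i.pa z0) (i.pb z0) + i.fa| ≤ 1 + 4 * κ := by
    have e1 : gA g z0 (i.pa z0) (i.pb z0) + i.fa = (gA g i.z (i.pa i.z) (i.pb i.z) + i.fa) +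
        (z0 - i.z) * (g 1 + 2 * g 3 * i.ca) := by
      simp only [gA, Fq4.pa, Fq4.pb, h4]; ring
    rw [e1]
    refine aux_a2 hfA ((aux_m2 hz00 le_rfl).trans ?_)
    calc 2 * ρ * |g 1 + 2 * g 3 * i.ca| = 2 * (|g 1 + 2 * g 3 * i.ca| * ρ) := by ring
      _ ≤ 4 * κ := by linarith
  have hGB : |gB g z0 (i.pa z0) (i.pb z0) + i.fb| ≤ 1 + 2 * κ := by
    have e1 : gB g z0 (i.pa z0) (i.pb z0) + i.fb = (gB g i.z (i.pa i.z) (i.pb i.z) + i.fb) +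
        (z0 - i.z) * g 2 := by
      simp only [gB, Fq4.pa, Fq4.pb, h4, h5]; ring
    rw [e1]
    refine aux_a2 hfB ((aux_m2 hz00 le_rfl).trans ?_)
    calc 2 * ρ * |g 2| = 2 * (|g 2| * ρ) := by ring
      _ ≤ 2 * κ := by linarith
  have hsb1 : |s1| ≤ 4 := by
    rw [hs1]
    refine (aux_a2 (aux_m2 q1 hGA) (aux_m2 q2 hGB)).trans ?_
    rw [hκ]; norm_num
  have hsb2 : |s2| ≤ 4 := by
    rw [hs2]
    refine (aux_a2 (aux_m2 (aux_n q2) hGA) (aux_m2 q1 hGB)).trans ?_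
    rw [hκ]; norm_num
  -- second order part
  have em1 : m1 = 1 / nu i.e * tu := by rw [hm1, htu, h4, h5]; ring
  have em2 : m2 = -(i.e / nu i.e) * tu + nu i.e * g 2 := by
    rw [hm2, htu, h4, h5]
    field_simp
    rw [hsq]; ring
  have hm1b : |m1| ≤ |tu| := by
    rw [em1]
    exact (aux_m2 q1 le_rfl).trans (by rw [one_mul])
  have hm2b : |m2| ≤ |tu| + 3 / 2 * |g 2| := by
    rw [em2]
    refine aux_a2 ((aux_m2 (aux_n q2) le_rfl).trans (by rw [one_mul])) (aux_m2 ?_ le_rfl)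
    rwa [abs_of_pos hp]
  have hk11b : |k11| ≤ |g 3| := by
    have e1 : k11 = 1 / nu i.e * (1 / nu i.e) * g 3 := by rw [hk11, h4, h5]; ring
    rw [e1]
    exact (aux_m2 (aux_m2 q1 q1) le_rfl).trans (by rw [one_mul, one_mul])
  have hk12b : |k12| ≤ 2 * |g 3| := by
    have e1 : k12 = -2 * (1 / nu i.e * (i.e / nu i.e)) * g 3 := by rw [hk12, h4, h5]; ring
    have e2 : |(-2 : ℝ)| ≤ 2 := by norm_num
    rw [e1]
    exact (aux_m2 (aux_m2 e2 (aux_m2 q1 q2)) le_rfl).trans (by rw [one_mul, mul_one])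
  have hk22b : |k22| ≤ |g 3| := by
    have e1 : k22 = i.e / nu i.e * (i.e / nu i.e) * g 3 := by rw [hk22, h4, h5]; ring
    rw [e1]
    exact (aux_m2 (aux_m2 q2 q2) le_rfl).trans (by rw [one_mul, one_mul])
  have hfl : Flat (1 / 1024) ρ A B m1 m2 k11 k12 k22 := by
    have hκ4 : κ ≤ 1 / 1024 := by rw [hκ]; norm_num
    constructor
    · calc |m1| * ρ * A ≤ |tu| * ρ * A := by gcongr
        _ ≤ κ * B := f1
        _ ≤ 1 / 1024 * B := by gcongr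
    · calc |m2| * ρ ≤ (|tu| + 3 / 2 * |g 2|) * ρ := by gcongr
        _ = |tu| * ρ + 3 / 2 * (|g 2| * ρ) := by ring
        _ ≤ κ + 3 / 2 * κ := by linarith
        _ ≤ 1 / 1024 := by rw [hκ]; norm_num
    · calc |k11| * A ^ 2 ≤ |g 3| * A ^ 2 := by gcongr
        _ ≤ κ * B := f3
        _ ≤ 1 / 1024 * B := by gcongr
    · calc |k12| * A ≤ 2 * |g 3| * A := by gcongr
        _ = 2 * (|g 3| * A) := by ring
        _ ≤ 2 * κ := by linarith
        _ ≤ 1 / 1024 := by rw [hκ]; norm_num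
    · calc |k22| * B ≤ |g 3| * A := by gcongr
        _ ≤ κ := f4
        _ ≤ 1 / 1024 := hκ4
  have hz0' : z0 ≤ z0 + ρ := by linarith
  have hSh := shN_of_FQ (frm_ortho i.e) (qf_isQ g i) hF hsb1 hsb2 (le_refl z0) hz0' ha0 haB hBA
    hfl hr
  have hν := nuT_ge s1 s2
  have hν0 := nuT_pos s1 s2
  refine ⟨⟨0, fpv π (tilt (frm i.e) s1 s2), c, wFQ A B, qpv π (fun z x => qf g i z x / nuT s1 s2),
    a / nuT s1 s2⟩, shN_perm hSh.toN, (div_pos ha0 hν0).le, ?_, ?_, rfl, rfl, ?_⟩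
  · exact div_le_self ha0.le hν
  · exact div_le_div_of_nonneg_left ha0.le hν0 (nuT_le hsb1 hsb2)
  intro j l hj hb
  rw [inSheet_perm]
  refine mem_of_FQ hF hsb1 hsb2 (le_refl z0) hz0' ha0 haB hBA hfl ?_ ?_
  · intro z _ _
    rw [qf_line (i := i) hi z]
    simp only [rn, sub_self, mul_zero, sub_zero, abs_zero]
    exact ha0.le
  · intro z h1 h2
    obtain ⟨ma, mb, mn⟩ := box_move hb (hz z h1 h2)
    have hfd := frm_diff (i := i) hi hj he (z := z) ma mb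
    refine ⟨hfd.1.trans hA, hfd.2.trans hB, ?_⟩
    rw [qf_line (i := i) hj z]
    exact mn.trans ha

end box

end Crest.Agent.R136.Dmx779
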