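import Crest.Agent.R136.DMX1_779
import Crest.Agent.R136.GBx_779
import Crest.Agent.R136.End9_882
import Crest.Agent.R136.End4b_403

/-!
# R136 (helper829): D-max of lines at every natural level

* `own_m` : own counts (incidences per line) over the cells of every natural level `m`,
  `lev n 0 ≤ m ≤ lev n 1`;
* `dmax_nat` : D-max of LINES at every natural level, one loss sequence, permuted coordinates
  (`DMaxK` of 882; class of the sheets `0 < a`, `w 1 ≤ d^δ0 rho m`).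
-/

set_option autoImplicit false
set_option linter.unusedVariables false
set_option linter.unusedSectionVars false

open Finset Filter Topology

namespace Crest.Agent.R136.DmN829

open Crest.Agent.R138.Ex926 (Base U)
open Crest.Agent.R138.Mk163 (zc zl rho alive)
open Crest.Agent.R138.MkRef627 (lc kc mem_alive)
open Crest.Agent.R138
open Crest.Agent.R136.MkA627
open Crest.Agent.R136.Sh605
open Crest.Agent.R136.K4
open Crest.Agent.R136.Top484 (geo4)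
open Crest.Agent.R136.PqG464 (pow_lev ev_const)
open Crest.Agent.R136.GeoQ186
open Crest.Agent.R136.Dmx779 (exists_net rho_div rho_pos shN_perm count_m)
open Crest.Agent.R136.End882 (DMaxK Rq)

section own

variable {σ κ : Type*} {B : Base} {I : ℕ → Finset (ℕ × ℝ)} {G : Geo σ κ} {lev : ℕ → ℚ → ℕ}
    {A : ℕ → ℝ} {g s : ℝ} {τ : κ → ℝ → ℝ} {f : ℕ → ℚ → ℕ → ℤ → ℕ} {b : ℕ → ℚ → ℕ → σ}
    {vm : ℕ → ℚ → ℝ} {w : κ → ℕ → ℚ → ℝ}

theorem s_bd (hM : MkA B I G lev A (fun v => g * v) (fun v => s * v) τ f b vm w) :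
    0 ≤ s ∧ s ≤ 1 := by
  have h := hM.lam 0 1 le_rfl zero_le_one le_rfl
  constructor <;> linarith [h.1, h.2]

open Classical in
/-- **own counts at every natural level** -/
theorem own_m (hM : MkA B I G lev A (fun v => g * v) (fun v => s * v) τ f b vm w) {ε : ℝ}
    (hε : 0 < ε) :
    ∀ᶠ n in (U : Filter ℕ), ∀ m : ℕ, lev n 0 ≤ m → m ≤ lev n 1 → ∀ x ∈ I n,
      (rho m / rho (lev n 0)) ^ (1 - s) * B.d n ^ (-(1 - s) + ε) ≤
        (((I n).filter fun y => lc m y = lc m x).card : ℝ) := by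
  obtain ⟨hs0, hs1⟩ := s_bd hM
  set t : ℝ := ε / 8 with ht
  have ht0 : 0 < t := by positivity
  obtain ⟨N, hN⟩ := exists_nat_gt (1 / t)
  have hN0 : 0 < N := by
    rcases Nat.eq_zero_or_pos N with h | h
    · rw [h, Nat.cast_zero] at hN
      have : 0 < 1 / t := by positivity
      linarith
    · exact h
  have hNr : (0 : ℝ) < N := by exact_mod_cast hN0
  have h1N : 1 / (N : ℝ) ≤ t := by
    rw [div_lt_iff₀ ht0] at hN
    rw [div_le_iff₀ hNr]; linarith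
  set u : ℕ → ℚ := fun k => (k : ℚ) / N with hu
  have hu0 : ∀ k, 0 ≤ u k := fun k => by positivity
  have hu1 : ∀ k ≤ N, u k ≤ 1 := fun k hk => by
    simp only [hu]
    rw [div_le_one (by exact_mod_cast hN0)]
    exact_mod_cast hk
  have hu00 : u 0 = 0 := by simp [hu]
  have huN : u N = 1 := by
    simp only [hu]
    rw [div_self]
    exact_mod_cast hN0.ne'
  have hucast : ∀ k, ((u k : ℚ) : ℝ) = (k : ℝ) / N := fun k => by simp [hu]
  have hall : ∀ᶠ n in (U : Filter ℕ), ∀ k ∈ Finset.range (N + 1),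
      (∀ x ∈ I n, B.d n ^ (-(1 - ((u k : ℚ) : ℝ)) + (s * 1 - s * ((u k : ℚ) : ℝ)) + ε / 4) ≤
        (((I n).filter fun y => lc (lev n (u k)) y = lc (lev n (u k)) x).card : ℝ)) ∧
      ((2 : ℝ) ^ lev n (u k) ≤ (2 : ℝ) ^ lev n 0 * B.d n ^ (-((u k : ℝ) + t)) ∧
        (2 : ℝ) ^ lev n 0 * B.d n ^ (-((u k : ℝ) - t)) ≤ (2 : ℝ) ^ lev n (u k)) := by
    rw [Filter.eventually_all_finset]
    intro k hk
    have hk' : k ≤ N := by rw [Finset.mem_range] at hk; omega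
    filter_upwards [fib_bounds hM (u k) (hu0 k) (hu1 k hk') (by positivity : 0 < ε / 4),
      pow_lev hM (u k) (hu0 k) (hu1 k hk') ht0] with n h1 h2
    exact ⟨fun x hx => (h1 x hx).1, h2⟩
  filter_upwards [hall] with n hn m hm0 hm1 x hx
  have hdp := fun a => Dp76.dpow_pos B n a
  obtain ⟨j, hjN, hmj, hj⟩ := exists_net (l := fun k => lev n (u k)) (N := N) (m := m)
    (by rw [hu00]; exact hm0) (by rw [huN]; exact hm1)
  beta_reduce at hmj hj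
  obtain ⟨hcore, hlo, hhi⟩ := hn j (Finset.mem_range.2 (by omega))
  set i : ℕ := lev n (u j) with hi
  have hρm : 0 < rho m := rho_pos _
  have hρi : 0 < rho i := rho_pos _
  have hρ0 : 0 < rho (lev n 0) := rho_pos _
  set H : ℝ := rho m / rho i with hH
  have hHp : H = 2 ^ (i - m) := rho_div hmj
  have hH1 : 1 ≤ H := by rw [hHp]; exact one_le_pow₀ (by norm_num)
  have hH0 : 0 < H := by linarith
  -- `H ≤ d^(-3t)`
  have hHη : H ≤ B.d n ^ (-(3 * t)) := by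
    rcases hj with ⟨_, h2⟩ | ⟨k, hk, hlk⟩
    · have him : i - m = 0 := by omega
      have : H = 1 := by rw [hHp, him, pow_zero]
      rw [this]
      exact Real.one_le_rpow_of_pos_of_le_one_of_nonpos (B.pos n) (B.lt n).le (by linarith)
    · obtain ⟨_, _, hhik⟩ := hn k (Finset.mem_range.2 (by omega))
      have e1 : H = (2 : ℝ) ^ i / 2 ^ m := by rw [hH]; unfold rho; field_simp
      have h5 : (2 : ℝ) ^ lev n (u k) ≤ 2 ^ m := pow_le_pow_right₀ (by norm_num) hlk.le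
      rw [e1, div_le_iff₀ (by positivity)]
      have h6 : (2 : ℝ) ^ lev n 0 * B.d n ^ (-((u k : ℝ) - t)) ≤ 2 ^ m := hhik.trans h5
      refine hlo.trans ?_
      calc (2 : ℝ) ^ lev n 0 * B.d n ^ (-((u j : ℝ) + t)) =
            B.d n ^ (-((u j : ℝ) - u k + 2 * t)) *
              ((2 : ℝ) ^ lev n 0 * B.d n ^ (-((u k : ℝ) - t))) := by
            rw [mul_left_comm, ← Dp76.dpow_add]; congr 2; ring
        _ ≤ B.d n ^ (-(3 * t)) * ((2 : ℝ) ^ lev n 0 * B.d n ^ (-((u k : ℝ) - t))) := by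
            refine mul_le_mul_of_nonneg_right (Dp76.dpow_le B n ?_)
              (mul_nonneg (by positivity) (hdp _).le)
            have e2 : ((u j : ℚ) : ℝ) - u k = 1 / N := by
              rw [hucast, hucast, hk]; push_cast; ring
            rw [e2]; linarith
        _ ≤ B.d n ^ (-(3 * t)) * 2 ^ m := mul_le_mul_of_nonneg_left h6 (hdp _).le
  -- the ratio
  set r : ℝ := rho m / rho (lev n 0) with hr
  have hr0 : 0 < r := div_pos hρm hρ0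
  have hrH : r = H * (rho i / rho (lev n 0)) := by rw [hr, hH]; field_simp
  have hxhi : rho i / rho (lev n 0) ≤ B.d n ^ ((u j : ℝ) - t) := by
    rw [div_le_iff₀ hρ0]; exact rho_hi hhi
  have hrhi : r ≤ B.d n ^ ((u j : ℝ) - 4 * t) := by
    rw [hrH]
    calc H * (rho i / rho (lev n 0)) ≤ B.d n ^ (-(3 * t)) * B.d n ^ ((u j : ℝ) - t) :=
          mul_le_mul hHη hxhi (by positivity) (hdp _).le
      _ = _ := by rw [← Dp76.dpow_add]; congr 1; ring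
  have hrs : r ^ (1 - s) ≤ B.d n ^ (((u j : ℝ) - 4 * t) * (1 - s)) := by
    rw [Real.rpow_mul (B.pos n).le]
    exact Real.rpow_le_rpow hr0.le hrhi (by linarith)
  refine ((mul_le_mul_of_nonneg_right hrs (hdp _).le).trans ?_).trans ((hcore x hx).trans ?_)
  · rw [← Dp76.dpow_add]
    refine Dp76.dpow_le B n ?_
    have h7 : 4 * t * (1 - s) ≤ 4 * t := by nlinarith
    have : 4 * t = ε / 2 := by rw [ht]; ring
    nlinarith
  · norm_cast
    refine Finset.card_le_card fun y hy => ?_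
    rw [mem_filter] at hy ⊢
    refine ⟨hy.1, ?_⟩
    have h8 := hy.2
    unfold lc at h8 ⊢
    rw [Prod.mk.injEq] at h8 ⊢
    exact ⟨h8.1, by rw [Dia770.zc_div hmj, Dia770.zc_div hmj x.2, h8.2]⟩

end own

theorem cLn_symm (π : Equiv.Perm (Fin 3)) (c : Ln4) : cLn π (cLn π.symm c) = c := by
  unfold cLn
  simp

section dmax

variable {B : Base} {I : ℕ → Finset (ℕ × ℝ)} {L : ℕ → ℕ → Ln4} {r0 : ℕ → ℝ}
  {wr cr : Fin 3 → ℕ → ℝ} {q : Fin 3 → ℝ} {lev : ℕ → ℚ → ℕ} {A : ℕ → ℝ} {g s : ℝ} {τ : Fin 3 → ℝ → ℝ} {f : ℕ → ℚ → ℕ → ℤ → ℕ}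
  {b : ℕ → ℚ → ℕ → Plk4} {vm : ℕ → ℚ → ℝ} {w : Fin 3 → ℕ → ℚ → ℝ}

open Classical in
/-- D-max of lines at every natural level, one error -/
theorem dmax_eps (hM : MkA B I (geo4 L r0 wr cr q) lev A (fun v => g * v) (fun v => s * v) τ f b vm w)
    (hq : ∀ j, 0 ≤ q j) (π : Equiv.Perm (Fin 3)) {δ0 : ℝ} (hδ0 : 0 < δ0) {ε : ℝ} (hε : 0 < ε) :
    ∀ᶠ n in (U : Filter ℕ), ∀ m : ℕ, lev n 0 ≤ m → m ≤ lev n 1 → ∀ cl : ℤ,
      DMaxK (alive (I n) m cl) (fun t => cLn π (L n t)) (zl m cl) (rho m)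
        (B.d n ^ (-ε) * (A n * (rho (lev n 0) / rho m) ^ g)) (Rq q m) (r0 n)
        (fun w' a' => 0 < a' ∧ w' 1 ≤ B.d n ^ δ0 * rho m ∧
          ∀ k : Fin 3, wr k n ≤ ![a', w' 1, w' 2] k ∧ ![a', w' 1, w' 2] k ≤ cr k n) := by
  filter_upwards [count_m hM hq hδ0 (half_pos hε), own_m hM (half_pos hε)] with n hc ho m hm0 hm1 cl
    e c w' q' a hs hcl
  obtain ⟨ha, hw1, hrg⟩ := hcl
  have hdp := fun a => Dp76.dpow_pos B n a
  have hρm : 0 < rho m := rho_pos _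
  have hρ0 : 0 < rho (lev n 0) := rho_pos _
  set r : ℝ := rho m / rho (lev n 0) with hr
  have hr0 : 0 < r := div_pos hρm hρ0
  have hw0 : a ≤ w' 2 := hs.a_le
  have hw2 : 0 < w' 2 := ha.trans_le hw0
  have hw10 : 0 < w' 1 := hw2.trans_le hs.w_le
  set V : ℝ := a * w' 2 * w' 1 * Rq q m a (w' 2) (w' 1) with hV
  have hV0 : 0 < V := mul_pos (mul_pos (mul_pos ha hw2) hw10) (End882.Rq_pos ha hw2 hw10)
  set Q : Finset (ℕ × ℝ) := (I n).filter fun y => zc m y.2 = cl ∧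
    InSheet (cLn π (L n y.1)) e c w' q' a (zl m cl) (rho m) with hQ
  set T : Finset ℕ := (alive (I n) m cl).filter fun t =>
    InSheet (cLn π (L n t)) e c w' q' a (zl m cl) (rho m) with hT
  have h1 : (Q.card : ℝ) ≤ A n * V * r ^ ((1 - s) - g) * B.d n ^ (-((1 - s) + ε / 2)) := by
    refine hc m hm0 hm1 Q cl V (filter_subset _ _) hV0.le (fun y hy => ?_) fun J => ?_
    · rw [(mem_filter.1 hy).2.1, Finset.mem_Icc]
      constructor <;> linarith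
    · by_cases hJ : J = cl
      · subst hJ
        have hs' : ShN e (cLn π (cLn π.symm c)) w' q' a (zl m J) (rho m) (r0 n) := by
          rw [cLn_symm]; exact hs
        refine ⟨⟨0, fpv π e, cLn π.symm c, w', qpv π q', a⟩, shN_perm hs', ha.le, hw1, hrg, le_rfl,
          fun y hy _ => ?_⟩
        show InSheet (L n y.1) (fpv π e) (cLn π.symm c) w' (qpv π q') a (zl m J) (rho m)
        rw [inSheet_perm, cLn_symm]
        exact (mem_filter.1 hy).2.2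
      · refine ⟨⟨0, e, c, ![w' 2, w' 1, w' 2], qflat e c, a⟩,
          flat_ShN hs.ortho c ha hs.r0_le hw0 hs.w_le, ha.le, hw1, hrg, le_rfl, fun y hy hyJ => ?_⟩
        exact absurd (hyJ.symm.trans (mem_filter.1 hy).2.1) hJ
  have h2 : (r ^ (1 - s) * B.d n ^ (-(1 - s) + ε / 2)) * (T.card : ℝ) ≤ Q.card := by
    have hmaps : ∀ y ∈ Q, y.1 ∈ T := by
      intro y hy
      rw [hQ, mem_filter] at hy
      rw [hT, mem_filter]
      exact ⟨mem_alive.2 ⟨y, hy.1, rfl, hy.2.1⟩, hy.2.2⟩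
    have h4 := Finset.card_eq_sum_card_fiberwise hmaps
    rw [h4]
    push_cast
    rw [mul_comm, ← nsmul_eq_mul, ← Finset.sum_const]
    refine Finset.sum_le_sum fun t ht => ?_
    rw [hT, mem_filter] at ht
    obtain ⟨x, hx, hx1, hx2⟩ := mem_alive.1 ht.1
    refine (ho m hm0 hm1 x hx).trans ?_
    norm_cast
    refine Finset.card_le_card fun y hy => ?_
    rw [mem_filter] at hy
    have h8 := hy.2
    unfold lc at h8
    rw [Prod.mk.injEq, hx1, hx2] at h8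
    rw [mem_filter, hQ, mem_filter, h8.1]
    exact ⟨⟨hy.1, h8.2, ht.2⟩, rfl⟩
  have h3 := h2.trans h1
  have hrs : 0 < r ^ (1 - s) := Real.rpow_pos_of_pos hr0 _
  have e1 : (rho (lev n 0) / rho m) ^ g = r ^ (-g) := by
    rw [Real.rpow_neg hr0.le, ← Real.inv_rpow hr0.le, hr, inv_div]
  have e2 : A n * V * r ^ ((1 - s) - g) * B.d n ^ (-((1 - s) + ε / 2)) =
      (r ^ (1 - s) * B.d n ^ (-(1 - s) + ε / 2)) *
        (B.d n ^ (-ε) * (A n * r ^ (-g)) * V) := by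
    have a1 : r ^ ((1 - s) - g) = r ^ (1 - s) * r ^ (-g) := by
      rw [← Real.rpow_add hr0]; congr 1
    have a2 : B.d n ^ (-((1 - s) + ε / 2)) = B.d n ^ (-(1 - s) + ε / 2) * B.d n ^ (-ε) := by
      rw [← Dp76.dpow_add]; congr 1; ring
    rw [a1, a2]; ring
  rw [e2] at h3
  rw [e1]
  exact le_of_mul_le_mul_left h3 (mul_pos hrs (hdp _))

open Classical in
/-- **D-max of lines at every natural level, one loss sequence.** -/
theorem dmax_nat (hM : MkA B I (geo4 L r0 wr cr q) lev A (fun v => g * v) (fun v => s * v) τ f b vm w)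
    (hq : ∀ j, 0 ≤ q j) (π : Equiv.Perm (Fin 3)) {δ0 : ℝ} (hδ0 : 0 < δ0) :
    ∃ H : ℕ → ℝ, B.Sub H ∧ ∀ᶠ n in (U : Filter ℕ), ∀ m : ℕ, lev n 0 ≤ m → m ≤ lev n 1 →
      ∀ cl : ℤ, DMaxK (alive (I n) m cl) (fun t => cLn π (L n t)) (zl m cl) (rho m)
        (H n * (A n * (rho (lev n 0) / rho m) ^ g)) (Rq q m) (r0 n)
        (fun w' a' => 0 < a' ∧ w' 1 ≤ B.d n ^ δ0 * rho m ∧
          ∀ k : Fin 3, wr k n ≤ ![a', w' 1, w' 2] k ∧ ![a', w' 1, w' 2] k ≤ cr k n) := by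
  obtain ⟨e, he0, he, h⟩ := End403.exists_err B (fun ε n => ∀ m : ℕ, lev n 0 ≤ m → m ≤ lev n 1 →
      ∀ cl : ℤ, DMaxK (alive (I n) m cl) (fun t => cLn π (L n t)) (zl m cl) (rho m)
        (B.d n ^ (-ε) * (A n * (rho (lev n 0) / rho m) ^ g)) (Rq q m) (r0 n)
        (fun w' a' => 0 < a' ∧ w' 1 ≤ B.d n ^ δ0 * rho m ∧
          ∀ k : Fin 3, wr k n ≤ ![a', w' 1, w' 2] k ∧ ![a', w' 1, w' 2] k ≤ cr k n)) fun ε hε => dmax_eps hM hq π hδ0 hε
  exact ⟨_, he, h⟩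

/-- the same with `0 < r0` (then the thickness of every sheet is positive) -/
theorem dmax_nat' (hM : MkA B I (geo4 L r0 wr cr q) lev A (fun v => g * v) (fun v => s * v) τ f b vm w)
    (hr0 : ∀ᶠ n in (U : Filter ℕ), 0 < r0 n)
    (hq : ∀ j, 0 ≤ q j) (π : Equiv.Perm (Fin 3)) {δ0 : ℝ} (hδ0 : 0 < δ0) :
    ∃ H : ℕ → ℝ, B.Sub H ∧ ∀ᶠ n in (U : Filter ℕ), ∀ m : ℕ, lev n 0 ≤ m → m ≤ lev n 1 →
      ∀ cl : ℤ, DMaxK (alive (I n) m cl) (fun t => cLn π (L n t)) (zl m cl) (rho m)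
        (H n * (A n * (rho (lev n 0) / rho m) ^ g)) (Rq q m) (r0 n)
        (fun w' a' => w' 1 ≤ B.d n ^ δ0 * rho m ∧
          ∀ k : Fin 3, wr k n ≤ ![a', w' 1, w' 2] k ∧ ![a', w' 1, w' 2] k ≤ cr k n) := by
  obtain ⟨H, hH, h⟩ := dmax_nat hM hq π hδ0
  refine ⟨H, hH, ?_⟩
  filter_upwards [h, hr0] with n hn hr m h0 h1 cl e c w' q' a hs hcl
  exact hn m h0 h1 cl e c w' q' a hs ⟨hr.trans_le hs.r0_le, hcl⟩

end dmax

section loss

/-- the scale of level `1`, one loss -/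
theorem lev_loss {σ κ : Type*} {B : Base} {I : ℕ → Finset (ℕ × ℝ)} {G : Geo σ κ}
    {lev : ℕ → ℚ → ℕ} {A : ℕ → ℝ} {g s : ℝ} {τ : κ → ℝ → ℝ} {f : ℕ → ℚ → ℕ → ℤ → ℕ}
    {b : ℕ → ℚ → ℕ → σ} {vm : ℕ → ℚ → ℝ} {w : κ → ℕ → ℚ → ℝ}
    (hM : MkA B I G lev A (fun v => g * v) (fun v => s * v) τ f b vm w) :
    ∃ H : ℕ → ℝ, B.Sub H ∧ ∀ᶠ n in (U : Filter ℕ), 0 < H n ∧
      (2 : ℝ) ^ lev n 1 ≤ H n * B.d n ^ (-1 : ℝ) * 2 ^ lev n 0 ∧
      (2 : ℝ) ^ lev n 0 * B.d n ^ (-1 : ℝ) ≤ H n * 2 ^ lev n 1 := by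
  obtain ⟨e, he0, he, h⟩ := End403.exists_err B (fun ε n =>
    (2 : ℝ) ^ lev n 1 ≤ (2 : ℝ) ^ lev n 0 * B.d n ^ (-(((1 : ℚ) : ℝ) + ε)) ∧
      (2 : ℝ) ^ lev n 0 * B.d n ^ (-(((1 : ℚ) : ℝ) - ε)) ≤ (2 : ℝ) ^ lev n 1) fun ε hε =>
    pow_lev hM 1 zero_le_one le_rfl hε
  refine ⟨_, he, ?_⟩
  filter_upwards [h] with n hn
  obtain ⟨h1, h2⟩ := hn
  have hd := Dp76.dpow_pos B n (-(e n))
  rw [Rat.cast_one] at h1 h2
  refine ⟨hd, h1.trans (le_of_eq ?_), ?_⟩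
  · rw [← Dp76.dpow_add, mul_comm]; congr 2; ring
  · have e1 : B.d n ^ (-1 : ℝ) = B.d n ^ (-(e n)) * B.d n ^ (-(1 - e n)) := by
      rw [← Dp76.dpow_add]; congr 1; ring
    rw [e1]
    calc (2 : ℝ) ^ lev n 0 * (B.d n ^ (-(e n)) * B.d n ^ (-(1 - e n))) =
          B.d n ^ (-(e n)) * ((2 : ℝ) ^ lev n 0 * B.d n ^ (-(1 - e n))) := by ring
      _ ≤ _ := mul_le_mul_of_nonneg_left h2 hd.le

open Crest.Agent.R136.Lq196 (CombQ)
open Crest.Agent.R136.Net191 (Mons)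
open Crest.Agent.R136.Net191 (nlab)

/-- the uniform sample, one loss -/
theorem comb_loss {m : ℕ} {B : Base} {I0 I : ℕ → Finset (ℕ × ℝ)} {lev : ℕ → ℚ → ℕ}
    {co : ∀ n : ℕ, ℕ × ℝ → ℕ × ℝ → Fin m → ℝ} {M : Mons m} {C R : ℝ} {N0 : ℕ → ℝ} {c₀ : ℝ}
    (hc : CombQ B I0 I lev co M C R N0 c₀) :
    ∃ (K : ℕ → ℕ) (H : ℕ → ℝ), B.Sub H ∧ ∀ᶠ n in (U : Filter ℕ), 0 < K n ∧ 0 < H n ∧
      N0 n ≤ H n * K n * B.d n ^ (-c₀) ∧ K n * B.d n ^ (-c₀) ≤ H n * N0 n ∧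
      (∀ F : Finset (ℕ × ℝ), F ⊆ I n → ∀ F' : Finset (ℕ × ℝ), F' ⊆ I0 n →
        (∀ i ∈ F, ∀ j ∈ I0 n, nlab B I0 co M C n (fun _ => R) j =
          nlab B I0 co M C n (fun _ => R) i → zc (lev n 1) j.2 = zc (lev n 1) i.2 → j ∈ F') →
        K n * F.card ≤ 16 * F'.card) ∧
      ((I0 n).card : ℝ) ≤ H n * (K n * (I n).card) := by
  obtain ⟨K, h1, h2, h3⟩ := hc
  obtain ⟨e, he0, he, h⟩ := End403.exists_err B (fun ε n => (0 < K n ∧
      N0 n ≤ K n * B.d n ^ (-(c₀ + ε)) ∧ K n * B.d n ^ (-(c₀ - ε)) ≤ N0 n) ∧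
      B.d n ^ ε * ((I0 n).card : ℝ) ≤ K n * (I n).card) fun ε hε => (h1 ε hε).and (h3 ε hε)
  refine ⟨K, _, he, ?_⟩
  filter_upwards [h, h2] with n hn hn2
  obtain ⟨⟨a1, a2, a3⟩, a4⟩ := hn
  have hd := Dp76.dpow_pos B n (-(e n))
  have hK : (0 : ℝ) < K n := by exact_mod_cast a1
  refine ⟨a1, hd, a2.trans (le_of_eq ?_), ?_, hn2, ?_⟩
  · rw [show -(c₀ + e n) = -(e n) + -c₀ by ring, Dp76.dpow_add]; ring
  · have e1 : B.d n ^ (-c₀) = B.d n ^ (-(e n)) * B.d n ^ (-(c₀ - e n)) := by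
      rw [← Dp76.dpow_add]; congr 1; ring
    rw [e1]
    calc (K n : ℝ) * (B.d n ^ (-(e n)) * B.d n ^ (-(c₀ - e n))) =
          B.d n ^ (-(e n)) * (K n * B.d n ^ (-(c₀ - e n))) := by ring
      _ ≤ _ := mul_le_mul_of_nonneg_left a3 hd.le
  · have e2 : B.d n ^ (-(e n)) * B.d n ^ (e n) = 1 := by
      rw [← Dp76.dpow_add]; simp
    calc ((I0 n).card : ℝ) = B.d n ^ (-(e n)) * (B.d n ^ (e n) * ((I0 n).card : ℝ)) := by
          rw [← mul_assoc, e2, one_mul]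
      _ ≤ _ := mul_le_mul_of_nonneg_left a4 hd.le

end loss

end Crest.Agent.R136.DmN829
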