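import Mathlib

/-!
# R136 / U4: choice of a point with a strict drop (helper860)

Pure real analysis for the end of branch (A): a continuous function which goes from a positive
value to a smaller one has a point where it drops at a definite rate to the right, with a value
inside the prescribed window.
-/

set_option autoImplicit false

open Set Filter Topology

namespace Crest.Agent.R136.Drop860

/-- **drop point**: `φ` continuous on `[a, b]`, `φ b < φ a - κ (b - a)`.  Then at the maximum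
point `c` of `φ x + κ x`: `c < b`, `φ (c + s) ≤ φ c - κ s` for all `s ≥ 0` inside `[a, b]`, and
`φ a - κ (b - a) ≤ φ a - κ (c - a) ≤ φ c`. -/
theorem drop_point {φ : ℝ → ℝ} {a b κ : ℝ} (hab : a < b) (hκ : 0 ≤ κ)
    (hc : ContinuousOn φ (Icc a b)) (hd : φ b < φ a - κ * (b - a)) :
    ∃ c ∈ Ico a b, (∀ s, 0 ≤ s → c + s ≤ b → φ (c + s) ≤ φ c - κ * s) ∧
      φ a - κ * (c - a) ≤ φ c ∧ φ a - κ * (b - a) ≤ φ c := by
  have hne : (Icc a b).Nonempty := ⟨a, left_mem_Icc.2 hab.le⟩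
  obtain ⟨c, hcm, hmax⟩ := isCompact_Icc.exists_isMaxOn hne
    (hc.add (continuousOn_const.mul continuousOn_id : ContinuousOn (fun x => κ * id x) (Icc a b)))
  have hm : ∀ x ∈ Icc a b, φ x + κ * x ≤ φ c + κ * c := fun x hx => hmax hx
  have h1 := hm a (left_mem_Icc.2 hab.le)
  have hcb : c ≠ b := by
    rintro rfl
    nlinarith
  have hlt : c < b := lt_of_le_of_ne hcm.2 hcb
  refine ⟨c, ⟨hcm.1, hlt⟩, fun s hs hsb => ?_, by linarith, ?_⟩
  · have := hm (c + s) ⟨by linarith [hcm.1], hsb⟩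
    linarith
  · have : κ * (c - a) ≤ κ * (b - a) := mul_le_mul_of_nonneg_left (by linarith) hκ
    linarith

/-- half-open version: `φ` continuous on `[a, m)`, small at some point (for example
`limsup φ ≤ 0` at `m`); values in the window `[g1, g0]`, `φ` antitone. -/
theorem drop_window {φ : ℝ → ℝ} {a m g0 g1 : ℝ} (hg : g1 < g0) (ham : a < m)
    (hc : ContinuousOn φ (Ico a m)) (hanti : AntitoneOn φ (Ico a m)) (ha : φ a = g0)
    (hl : ∀ ε, 0 < ε → ∃ b ∈ Ioo a m, φ b < g1 + ε) :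
    ∃ c ∈ Ico a m, ∃ κ > 0, ∃ δ > 0, c + δ < m ∧
      (∀ s, 0 ≤ s → s ≤ δ → φ (c + s) ≤ φ c - κ * s) ∧ g1 < φ c ∧ φ c ≤ g0 := by
  obtain ⟨b, hb, hb1⟩ := hl ((g0 - g1) / 2) (by linarith)
  have hba : 0 < b - a := by linarith [hb.1]
  set κ : ℝ := (g0 - g1) / (4 * (b - a)) with hκ
  have hκ0 : 0 < κ := by rw [hκ]; apply div_pos (by linarith) (by linarith)
  have hκe : κ * (b - a) = (g0 - g1) / 4 := by
    rw [hκ]; field_simp
  have hsub : Icc a b ⊆ Ico a m := fun x hx => ⟨hx.1, lt_of_le_of_lt hx.2 hb.2⟩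
  obtain ⟨c, hcm, hdrop, -, hlow⟩ := drop_point (φ := φ) hb.1 hκ0.le (hc.mono hsub)
    (by rw [ha, hκe]; linarith)
  have hcI : c ∈ Ico a m := ⟨hcm.1, lt_trans hcm.2 hb.2⟩
  refine ⟨c, hcI, κ, hκ0, (b - c) / 2, by linarith [hcm.2], by linarith [hcm.2, hb.2],
    fun s hs hs1 => hdrop s hs (by linarith [hcm.2]), ?_, ?_⟩
  · rw [ha, hκe] at hlow; linarith
  · have := hanti (left_mem_Ico.2 ham) hcI hcm.1
    rw [ha] at this; exact this

/-- two-parameter form for `u (q, t)`: on the rectangle `[a, m) × [t0, t1]` `u` is continuous in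
`q` and locally Lipschitz in `t` (one class), antitone in `q`; value `g0` at `(a, t0)` and `≤ g1`
near `m`.  Then there is a point with value in the window, a strict drop in `q` and a finite
right derivative in `t`. -/
theorem drop_good {u : ℝ → ℝ → ℝ} {a m t0 g0 g1 : ℝ} (hg : g1 < g0) (ham : a < m)
    (hc : ContinuousOn (fun q => u q t0) (Ico a m))
    (hanti : AntitoneOn (fun q => u q t0) (Ico a m)) (ha : u a t0 = g0)
    (hl : ∀ ε, 0 < ε → ∃ b ∈ Ioo a m, u b t0 < g1 + ε)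
    (hK : ∀ q ∈ Ico a m, ∃ K, ∃ δ > 0, ∀ s, 0 ≤ s → s ≤ δ → u q (t0 + s) ≤ u q t0 + K * s) :
    ∃ c ∈ Ico a m, (g1 < u c t0 ∧ u c t0 ≤ g0) ∧
      (∃ κ > 0, ∃ δ > 0, c + δ < m ∧ ∀ s, 0 ≤ s → s ≤ δ → u (c + s) t0 ≤ u c t0 - κ * s) ∧
      (∃ K, 0 ≤ K ∧ ∃ δ > 0, ∀ s, 0 ≤ s → s ≤ δ → u c (t0 + s) ≤ u c t0 + K * s) := by
  obtain ⟨c, hcI, κ, hκ, δ, hδ, hδm, hd, h1, h2⟩ := drop_window hg ham hc hanti ha hl
  obtain ⟨K, δ', hδ', hK'⟩ := hK c hcI
  refine ⟨c, hcI, ⟨h1, h2⟩, ⟨κ, hκ, δ, hδ, hδm, hd⟩, max K 0, le_max_right _ _, δ', hδ',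
    fun s hs hs1 => (hK' s hs hs1).trans ?_⟩
  have : K * s ≤ max K 0 * s := mul_le_mul_of_nonneg_right (le_max_left _ _) hs
  linarith

end Crest.Agent.R136.Drop860
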