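import Crest.Agent.R136.Coi6_102

/-!
# R136 (S0187), PLAN 2 (AL), leaf PL: non-degeneracy over a sub-cell gives it over the cell (helper121)

* `det3_const` : the determinant of the fan of a sheet along one of its lines is constant up to the
  square of the normal derivative (exact);
* `det_up` : `DetP` over `[z0, z0 + ρ]` gives `DetP` over `[zL, zL + ρL]`.
-/

set_option autoImplicit false
set_option linter.unusedVariables false

namespace Crest.Agent.R136.Dup121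

open Crest.Agent.R136.Sh605
open Crest.Agent.R136.Tl102
open Crest.Agent.R136.K4 (Plk4)
open Crest.Agent.R136.Tlt51 (Shp InP)
open Crest.Agent.R136.KapP335
open Crest.Agent.R136.Cps605
open Crest.Agent.R136.Arc880 (det3)

/-- **the determinant of the fan along the line** (exact) -/
theorem det3_const {n r : V3} {M : QF} (h1 : n 1 = 0) (h2 : n 2 = 0) {ζ : ℝ}
    (hN : n 0 + ζ * r 0 ≠ 0) : det3 (fan n r M ζ) = (n 0 / (n 0 + ζ * r 0)) ^ 2 *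
      ((r 1 * r 2 * M.uv - r 1 ^ 2 * M.vv - r 2 ^ 2 * M.uu) / 16777216) := by
  have s1 : slp n r 1 ζ = -(ζ * r 1) / (n 0 + ζ * r 0) := by unfold slp; rw [h1, zero_add]
  have s2 : slp n r 2 ζ = -(ζ * r 2) / (n 0 + ζ * r 0) := by unfold slp; rw [h2, zero_add]
  have e1 : r 1 + r 0 * slp n r 1 ζ = r 1 * (n 0 / (n 0 + ζ * r 0)) := by
    rw [s1, ← sub_eq_zero]
    have : r 1 + r 0 * (-(ζ * r 1) / (n 0 + ζ * r 0)) - r 1 * (n 0 / (n 0 + ζ * r 0)) =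
        r 1 * (1 - (n 0 + ζ * r 0) / (n 0 + ζ * r 0)) := by ring
    rw [this, div_self hN]; ring
  have e2 : r 2 + r 0 * slp n r 2 ζ = r 2 * (n 0 / (n 0 + ζ * r 0)) := by
    rw [s2, ← sub_eq_zero]
    have : r 2 + r 0 * (-(ζ * r 2) / (n 0 + ζ * r 0)) - r 2 * (n 0 / (n 0 + ζ * r 0)) =
        r 2 * (1 - (n 0 + ζ * r 0) / (n 0 + ζ * r 0)) := by ring
    rw [this, div_self hN]; ring
  have e3 : r 1 * slp n r 2 ζ = r 2 * slp n r 1 ζ := by rw [s1, s2]; ring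
  have f01 : fan n r M ζ 0 1 = r 1 * (n 0 / (n 0 + ζ * r 0)) / 512 := by rw [← e1]; rfl
  have f02 : fan n r M ζ 0 2 = r 2 * (n 0 / (n 0 + ζ * r 0)) / 512 := by rw [← e2]; rfl
  have f00 : fan n r M ζ 0 0 = 0 := rfl
  have f11 : fan n r M ζ 1 1 = (M.uu + M.yu * slp n r 1 ζ + M.yy * slp n r 1 ζ ^ 2) / 64 := rfl
  have f12 : fan n r M ζ 1 2 = (M.uv + M.yu * slp n r 2 ζ + M.yv * slp n r 1 ζ +
      2 * M.yy * (slp n r 1 ζ * slp n r 2 ζ)) / 128 := rfl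
  have f22 : fan n r M ζ 2 2 = (M.vv + M.yv * slp n r 2 ζ + M.yy * slp n r 2 ζ ^ 2) / 64 := rfl
  unfold det3
  rw [f00, f01, f02, f11, f12, f22]
  generalize slp n r 1 ζ = a at e3 ⊢
  generalize slp n r 2 ζ = b at e3 ⊢
  generalize n 0 / (n 0 + ζ * r 0) = k
  linear_combination (k ^ 2 / 16777216) * (r 1 * (-(M.yv) - M.yy * b) + r 2 * (M.yu + M.yy * a)) * e3

/-- the determinants at two heights are comparable -/
theorem det3_two {b0 b1 : V3} {G : QF} (N : NrmC b0 b1 G) (hκ : 0 < kap b0 b1 G) {ζ ζ' : ℝ}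
    (h0 : 0 ≤ ζ) (h1 : ζ ≤ 1) (h0' : 0 ≤ ζ') (h1' : ζ' ≤ 1) :
    |det3 (fan (shB0 b0) (scB1 (kap b0 b1 G) b0 b1) (scG (kap b0 b1 G) b0 G) ζ)| ≤
      16 * |det3 (fan (shB0 b0) (scB1 (kap b0 b1 G) b0 b1) (scG (kap b0 b1 G) b0 G) ζ')| := by
  have key : ∀ x : ℝ, 0 ≤ x → x ≤ 1 → 1 / 2 ≤ shB0 b0 0 + x * scB1 (kap b0 b1 G) b0 b1 0 ∧
      shB0 b0 0 + x * scB1 (kap b0 b1 G) b0 b1 0 ≤ 2 := by
    intro x hx hx'
    have a0 : |(0 : ℝ)| ≤ 1 := by norm_num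
    have hst := N.st x hx hx' 0 0 0 a0 a0 a0
    simp only [mul_zero, add_zero] at hst
    exact hst
  obtain ⟨k1, k2⟩ := key ζ h0 h1
  obtain ⟨k3, k4⟩ := key ζ' h0' h1'
  obtain ⟨k5, k6⟩ := key 0 le_rfl zero_le_one
  rw [zero_mul, add_zero] at k5 k6
  rw [det3_const rfl rfl (by linarith), det3_const rfl rfl (by linarith), abs_mul, abs_mul,
    abs_of_nonneg (sq_nonneg (shB0 b0 0 / (shB0 b0 0 + ζ * scB1 (kap b0 b1 G) b0 b1 0))),
    abs_of_nonneg (sq_nonneg (shB0 b0 0 / (shB0 b0 0 + ζ' * scB1 (kap b0 b1 G) b0 b1 0))),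
    ← mul_assoc]
  refine mul_le_mul_of_nonneg_right ?_ (abs_nonneg _)
  have p1 : 0 < shB0 b0 0 + ζ * scB1 (kap b0 b1 G) b0 b1 0 := by linarith
  have p2 : 0 < shB0 b0 0 + ζ' * scB1 (kap b0 b1 G) b0 b1 0 := by linarith
  have q0 : 0 < shB0 b0 0 := by linarith
  have q1 : shB0 b0 0 / (shB0 b0 0 + ζ * scB1 (kap b0 b1 G) b0 b1 0) ≤
      4 * (shB0 b0 0 / (shB0 b0 0 + ζ' * scB1 (kap b0 b1 G) b0 b1 0)) := by
    rw [← mul_div_assoc, div_le_div_iff₀ p1 p2]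
    nlinarith
  have q2 : 0 ≤ shB0 b0 0 / (shB0 b0 0 + ζ * scB1 (kap b0 b1 G) b0 b1 0) := by positivity
  have := pow_le_pow_left₀ q2 q1 2
  rw [mul_pow] at this
  linarith

variable {S : Plk4} {T : Ln4} {z0 ρ zL ρL r : ℝ}

/-- **non-degeneracy over a sub-cell gives non-degeneracy over the cell** -/
theorem det_up {δ t : ℝ} (hr : 0 < r) (hρ : 0 < ρ) (h1 : zL ≤ z0) (h1' : z0 + ρ ≤ zL + ρL)
    (ht0 : 0 ≤ t) (ht : t * ρL ≤ ρ) (hS : Shp S zL ρL r) (hT : InP T S zL ρL) (hδ : 0 ≤ δ)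
    (hκ : 0 < kapP S z0 ρ T) (hdet : DetP δ S z0 ρ T) :
    0 < kapP S zL ρL T ∧ DetP (t * δ / 10 ^ 8) S zL ρL T := by
  have hρ1 : 0 < ρL := by linarith
  have hw0 : 0 < S.w 0 := hr.trans_le (hS.r0_le.trans hS.a_le0)
  have P := StP.of_shN hS hw0
  obtain ⟨b0, b1, G, hE⟩ := exists_isExp P.isQ S.e hw0.ne' T zL ρL
  have N := hE.nrmC P hρ1.le (fun z a b => (hT z a b).1)
  obtain ⟨m0, m1, m2⟩ := hgt_mem (z0' := zL) (z0 := z0) hρ1 hρ.le h1 h1'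
  have hEs := isExp_mono (z0 := z0) (ρ := ρ) hE hρ1.ne'
  have hτ0 : 0 < ρ / ρL := div_pos hρ hρ1
  have htτ : t ≤ ρ / ρL := by rw [le_div_iff₀ hρ1]; exact ht
  rw [kapP_eq hw0.ne' hEs] at hκ
  have hks : 0 < kap (b0s b0 b1 ((z0 - zL) / ρL)) (b1s b1 (ρ / ρL)) G :=
    (mul_pos_iff_of_pos_left hw0).1 hκ
  have hk : 0 < kap b0 b1 G := by
    have := kap_sub_le N m0 m1 m2
    linarith
  have hL : 0 < kapP S zL ρL T := by rw [kapP_eq hw0.ne' hE]; exact mul_pos hw0 hk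
  refine ⟨hL, ?_⟩
  rw [detP_iff hw0.ne' hEs] at hdet
  rw [detP_iff hw0.ne' hE]
  have hd := hdet 0 le_rfl zero_le_one
  have g : ∀ x : ℝ, 0 ≤ x → x ≤ 1 → b0 0 + x * b1 0 ≠ 0 := by
    intro x hx hx'
    have := (D_ge N hx hx').1
    unfold b0s at this
    linarith
  have g0 : b0 0 ≠ 0 := by
    have := g 0 le_rfl zero_le_one
    rwa [zero_mul, add_zero] at this
  have hm1 : (z0 - zL) / ρL ≤ 1 := by linarith
  rw [det3_scaled_sub g0 (g _ m0 hm1) (by rw [mul_zero, add_zero]; exact g _ m0 hm1) hk.ne'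
    hks.ne', mul_zero, add_zero] at hd
  set D := det3 (fan (shB0 b0) (scB1 (kap b0 b1 G) b0 b1) (scG (kap b0 b1 G) b0 G)
    ((z0 - zL) / ρL)) with hD
  set τ := ρ / ρL with hτ
  set κ := kap b0 b1 G with hκd
  set κs := kap (b0s b0 b1 ((z0 - zL) / ρL)) (b1s b1 τ) G with hκsd
  have hle : τ * κ ≤ 160 * κs := kap_le_sub N m0 m1 m2
  have e1 : |τ ^ 2 * (κ / κs) ^ 3 * D| = τ ^ 2 * (κ / κs) ^ 3 * |D| := by
    rw [abs_mul, abs_of_nonneg (by positivity)]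
  rw [e1] at hd
  have hq : τ * (κ / κs) ≤ 160 := by
    rw [← mul_div_assoc, div_le_iff₀ hks]; exact hle
  have hq3 : (τ * (κ / κs)) ^ 3 ≤ 160 ^ 3 := pow_le_pow_left₀ (by positivity) hq 3
  have hD1 : τ * δ ≤ 160 ^ 3 * |D| := by
    calc τ * δ ≤ τ * (τ ^ 2 * (κ / κs) ^ 3 * |D|) := mul_le_mul_of_nonneg_left hd hτ0.le
      _ = (τ * (κ / κs)) ^ 3 * |D| := by ring
      _ ≤ 160 ^ 3 * |D| := mul_le_mul_of_nonneg_right hq3 (abs_nonneg _)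
  intro ζ hζ hζ'
  have h16 := det3_two N hk m0 hm1 hζ hζ'
  rw [← hD] at h16
  have h2 : t * δ ≤ τ * δ := mul_le_mul_of_nonneg_right htτ hδ
  rw [div_le_iff₀ (by norm_num)]
  have h3 : (160 : ℝ) ^ 3 * (16 * |det3 (fan (shB0 b0) (scB1 κ b0 b1) (scG κ b0 G) ζ)|) ≤
      |det3 (fan (shB0 b0) (scB1 κ b0 b1) (scG κ b0 G) ζ)| * 10 ^ 8 := by
    have := abs_nonneg (det3 (fan (shB0 b0) (scB1 κ b0 b1) (scG κ b0 G) ζ))
    linarith
  have h4 : (160 : ℝ) ^ 3 * |D| ≤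
      160 ^ 3 * (16 * |det3 (fan (shB0 b0) (scB1 κ b0 b1) (scG κ b0 G) ζ)|) :=
    mul_le_mul_of_nonneg_left h16 (by norm_num)
  linarith

end Crest.Agent.R136.Dup121
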