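import Crest.Agent.R136.Prs1_262

/-!
# R136 (S0187), U6 thin side (helper262): persistence of the curvature, finite part (2)

`Two` : a fine sheet `S` near a coarse sheet `S'` around a common line;
`Two.near` : the zero set of `S` near the line lies near the tangent plane of `S'`;
`Two.kap_down` : `kap S ≤ C Λ ^ 2 (E + a' + kap S')` (lengths).
-/

set_option autoImplicit false
set_option linter.unusedVariables false

open Finset

namespace Crest.Agent.R136.Prs262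

open Crest.Agent.R136.Sh605 Crest.Agent.R136.K4
open Crest.Agent.R136.Tl102 (QF Fq bz shB0 shB1 shG kap NrmC IsExp fr cmb unsh Fq_unsh StP
  dt_cmb_fr)
open Crest.Agent.R136.Us555 (kap_entries abs_mul_le2 abs_dt_le_one point_eq_cmb)
open Crest.Agent.R136.Tlt51 (Close)

/-- threshold argument -/
theorem ivt_lem {y M : ℝ → ℝ} {c ε : ℝ} (hy : ContinuousOn y (Set.Icc 0 1)) (h0 : y 0 = 0)
    (hM : ∀ s, 0 ≤ s → s ≤ 1 → 5 / 16 ≤ M s ∧ M s ≤ 3) (hε : 0 < ε)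
    (h : ∀ s, 0 ≤ s → s ≤ 1 → |y s * (M s + c * y s)| ≤ ε) : |y 1| ≤ 208 * ε := by
  by_contra hc
  push Not at hc
  have hiv := intermediate_value_Icc (zero_le_one' ℝ) hy.abs
  have hmem : 16 * ε ∈ Set.Icc |y 0| |y 1| :=
    ⟨by rw [h0, abs_zero]; positivity, by linarith⟩
  obtain ⟨s, ⟨s0, s1⟩, hs⟩ := hiv hmem
  have hs' : |y s| = 16 * ε := hs
  obtain ⟨m1, m2⟩ := hM s s0 s1
  obtain ⟨n1, n2⟩ := hM 1 zero_le_one le_rfl
  have e1 := h s s0 s1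
  have e2 := h 1 zero_le_one le_rfl
  rw [abs_mul] at e1 e2
  rw [hs'] at e1
  have e3 : |M s + c * y s| ≤ 1 / 16 := by
    by_contra h5
    push Not at h5
    have := mul_lt_mul_of_pos_left h5 (by positivity : 0 < 16 * ε)
    linarith
  have e4 : 1 / 4 ≤ |c| * (16 * ε) := by
    rw [← hs', ← abs_mul]
    have h6 := abs_le.1 e3
    exact le_abs.2 (Or.inr (by linarith [h6.2]))
  have hp : 0 < |y 1| := by linarith
  have e5 : |M 1 + c * y 1| ≤ 1 / 208 := by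
    by_contra h5
    push Not at h5
    have := mul_lt_mul_of_pos_left h5 hp
    linarith
  have e6 : |c| * |y 1| ≤ 3 + 1 / 208 := by
    rw [← abs_mul]
    have h6 := abs_le.1 e5
    exact abs_le.2 ⟨by linarith [h6.1], by linarith [h6.2]⟩
  have e7 := mul_le_mul_of_nonneg_left hc.le (abs_nonneg c)
  linarith

section

variable {b0 b1 : V3} {G : QF}

/-- tangent form -/
theorem Fq_tan (h : b0 0 ≠ 0) (ζ : ℝ) (x : V3) :
    Fq b0 b1 G ζ x = (x 0 + b0 1 / b0 0 * x 1 + b0 2 / b0 0 * x 2) *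
      ((b0 0 + ζ * b1 0 + (shG b0 G).yu * x 1 + (shG b0 G).yv * x 2) +
        G.yy * (x 0 + b0 1 / b0 0 * x 1 + b0 2 / b0 0 * x 2)) +
      (ζ * (shB1 b0 b1 1 * x 1 + shB1 b0 b1 2 * x 2) + ((shG b0 G).uu * (x 1 * x 1) +
        (shG b0 G).uv * (x 1 * x 2) + (shG b0 G).vv * (x 2 * x 2))) := by
  simp only [Fq, dt, bz, QF.ev, shB1, shG, Matrix.cons_val]
  field_simp
  ring

/-- the two parts of the tangent form -/
theorem tan_small (N : NrmC b0 b1 G) {ζ : ℝ} (h0 : 0 ≤ ζ) (h1 : ζ ≤ 1) {τ : ℝ} (τ0 : 0 ≤ τ)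
    (τ1 : τ ≤ 1 / 64) {x1 x2 : ℝ} (hx1 : |x1| ≤ τ) (hx2 : |x2| ≤ τ) :
    (5 / 16 ≤ b0 0 + ζ * b1 0 + (shG b0 G).yu * x1 + (shG b0 G).yv * x2 ∧
      b0 0 + ζ * b1 0 + (shG b0 G).yu * x1 + (shG b0 G).yv * x2 ≤ 3) ∧
    |ζ * (shB1 b0 b1 1 * x1 + shB1 b0 b1 2 * x2) + ((shG b0 G).uu * (x1 * x1) +
        (shG b0 G).uv * (x1 * x2) + (shG b0 G).vv * (x2 * x2))| ≤ 3 * τ * kap b0 b1 G := by
  obtain ⟨s1, s2, -, -⟩ := b_zeta N h0 h1
  obtain ⟨-, -, y1, y2, -, -, -⟩ := N.sh_le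
  obtain ⟨k1, k2, k3, k4, k5⟩ := kap_entries b0 b1 G
  have hk := Tl102.kap_nonneg b0 b1 G
  constructor
  · have e1 := abs_le.1 (abs_mul_le2 y1 hx1)
    have e2 := abs_le.1 (abs_mul_le2 y2 hx2)
    constructor <;> linarith [e1.1, e1.2, e2.1, e2.2]
  · have z1 : |ζ| ≤ 1 := by rw [abs_of_nonneg h0]; exact h1
    have j1 := abs_mul_le2 z1 (bd_add (abs_mul_le2 k1 hx1) (abs_mul_le2 k2 hx2))
    have j2 := bd_add (bd_add (abs_mul_le2 k3 (abs_mul_le2 hx1 hx1))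
      (abs_mul_le2 k4 (abs_mul_le2 hx1 hx2))) (abs_mul_le2 k5 (abs_mul_le2 hx2 hx2))
    have j3 := bd_add j1 j2
    refine j3.trans ?_
    have j4 : 3 * (τ * τ) ≤ τ := by nlinarith
    have j5 := mul_le_mul_of_nonneg_left j4 hk
    nlinarith

end

theorem dt_cmb (n : V3) (e : Fin 3 → V3) (w x : V3) : dt n (cmb (fr e w) x) =
    x 0 * (w 0 * dt n (e 0)) + x 1 * (w 1 * dt n (e 1)) + x 2 * (w 2 * dt n (e 2)) := by
  simp only [dt, cmb, fr, Pi.smul_apply, smul_eq_mul]; ring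

/-- the fine sheet `S` (cell `[z0, z0 + ρ]`) near the coarse sheet `S'` (cell `[z0', z0' + ρ']`),
around the line `T` -/
structure Two (Λ E : ℝ) (S S' : Plk4) (T : Ln4) (z0 ρ z0' ρ' : ℝ) : Prop where
  one : 1 ≤ Λ
  ρ0 : 0 < ρ
  ρ0' : 0 < ρ'
  c1 : z0' ≤ z0
  c2 : z0 + ρ ≤ z0' + ρ'
  st : StP S.e S.c S.w S.q z0 ρ
  st' : StP S'.e S'.c S'.w S'.q z0' ρ'
  o1 : S.w 0 ≤ S.w 2
  o2 : S.w 2 ≤ S.w 1
  a0 : 0 < S'.a
  inn : InSheet T S.e S.c S.w S.q S.a z0 ρ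
  inn' : InSheet T S'.e S'.c S'.w S'.q S'.a z0' ρ'
  cl : Close E S S' T z0 ρ
  w1 : S.w 1 ≤ Λ * S'.w 1
  w2 : S.w 2 ≤ Λ * S'.w 2
  g : |dt (S'.e 2) (S.e 1)| * S.w 1 ≤ Λ * S'.w 2

section

variable {Λ E : ℝ} {S S' : Plk4} {T : Ln4} {z0 ρ z0' ρ' : ℝ} {b0 b1 b0' b1' : V3} {G G' : QF}

/-- point of the zero set of the fine sheet, relative to the line -/
noncomputable def Xp (S : Plk4) (b0 b1 : V3) (G : QF) (ζ u v : ℝ) : V3 :=
  cmb (fr S.e S.w) ![gp b0 b1 G ζ u v, u, v]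

/-- coarse coordinates -/
noncomputable def xc (S' : Plk4) (X : V3) : V3 := fun i => dt (S'.e i) X / S'.w i

/-- height in the coarse cell -/
noncomputable def zt (z0 ρ z0' ρ' ζ : ℝ) : ℝ := (z0 + ρ * ζ - z0') / ρ'

theorem Two.E0 (h : Two Λ E S S' T z0 ρ z0' ρ') : 0 ≤ E := by
  have h1 := h.inn z0 le_rfl (by linarith [h.ρ0])
  refine (abs_nonneg _).trans (h.cl z0 le_rfl (by linarith [h.ρ0]) (T.pos z0) (fun i => ?_) h1.2)
  have hw := h.st.pos i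
  rw [sub_self]
  have : dt (S.e i) (0 : V3) = 0 := by simp [dt]
  rw [this, abs_zero]
  positivity

theorem Two.zt_mem (h : Two Λ E S S' T z0 ρ z0' ρ') {ζ : ℝ} (h0 : 0 ≤ ζ) (h1 : ζ ≤ 1) :
    0 ≤ zt z0 ρ z0' ρ' ζ ∧ zt z0 ρ z0' ρ' ζ ≤ 1 ∧ z0' + ρ' * zt z0 ρ z0' ρ' ζ = z0 + ρ * ζ := by
  have hρ := h.ρ0
  have hρ' := h.ρ0'
  have e1 := h.c1
  have e2 := h.c2
  have p1 : 0 ≤ ρ * ζ := by positivity
  have p2 : ρ * ζ ≤ ρ := by nlinarith
  refine ⟨div_nonneg (by linarith) hρ'.le, (div_le_one hρ').2 (by linarith), ?_⟩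
  unfold zt
  field_simp
  ring

/-- value of the coarse function -/
theorem Two.val (h : Two Λ E S S' T z0 ρ z0' ρ')
    (hE' : IsExp S'.q S'.e S'.w T z0' ρ' b0' b1' G') {ζ : ℝ} (h0 : 0 ≤ ζ) (h1 : ζ ≤ 1) (X : V3)
    {K : ℝ} (hX : |S'.q (z0 + ρ * ζ) (T.pos (z0 + ρ * ζ) + X)| ≤ K) :
    S'.w 0 * |Fq b0' b1' G' (zt z0 ρ z0' ρ' ζ) (xc S' X)| ≤ K + S'.a := by
  obtain ⟨m0, m1, m2⟩ := h.zt_mem h0 h1
  have hw := h.st'.pos
  have h3 := hE' (zt z0 ρ z0' ρ' ζ) (xc S' X)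
  rw [m2] at h3
  have h4 := point_eq_cmb h.st'.ortho hw (T.pos (z0 + ρ * ζ)) (T.pos (z0 + ρ * ζ) + X)
  rw [add_sub_cancel_left] at h4
  have h5 : xc S' X = ![dt (S'.e 0) X / S'.w 0, dt (S'.e 1) X / S'.w 1,
      dt (S'.e 2) X / S'.w 2] := by
    funext i
    fin_cases i <;> rfl
  rw [h5, ← h4, ← h5] at h3
  have h6 := (h.inn' (z0 + ρ * ζ) (by rw [← m2]; nlinarith [h.ρ0']) (by
    rw [← m2]; nlinarith [h.ρ0'])).2
  have h7 : S'.w 0 * |Fq b0' b1' G' (zt z0 ρ z0' ρ' ζ) (xc S' X)| =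
      |S'.w 0 * Fq b0' b1' G' (zt z0 ρ z0' ρ' ζ) (xc S' X)| := by
    rw [abs_mul, abs_of_pos (hw 0)]
  have h8 : S'.w 0 * Fq b0' b1' G' (zt z0 ρ z0' ρ' ζ) (xc S' X) =
      S'.q (z0 + ρ * ζ) (T.pos (z0 + ρ * ζ) + X) - S'.q (z0 + ρ * ζ) (T.pos (z0 + ρ * ζ)) := by
    linarith
  rw [h7, h8]
  exact bd_sub hX h6

/-- coarse coordinates of a point with small fine coordinates -/
theorem Two.lat (h : Two Λ E S S' T z0 ρ z0' ρ') {t K : ℝ} (t0 : 0 ≤ t) (K0 : 0 ≤ K) {p u v : ℝ}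
    (hp : |p| ≤ K * t) (hu : |u| ≤ t) (hv : |v| ≤ t) :
    |xc S' (cmb (fr S.e S.w) ![p, u, v]) 1| ≤ (K + 2) * t * Λ ∧
      |xc S' (cmb (fr S.e S.w) ![p, u, v]) 2| ≤ (K + 2) * t * Λ := by
  have hw := h.st.pos
  have hw' := h.st'.pos
  have hΛ := h.one
  have d : ∀ i k, |dt (S'.e i) (S.e k)| ≤ 1 := fun i k =>
    abs_dt_le_one (by rw [h.st'.ortho i i]; simp) (by rw [h.st.ortho k k]; simp)
  have s1 : |S.w 0| ≤ S.w 2 := by rw [abs_of_pos (hw 0)]; exact h.o1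
  have s2 : |S.w 2| ≤ S.w 2 := by rw [abs_of_pos (hw 2)]
  have s3 : |S.w 1| ≤ S.w 1 := by rw [abs_of_pos (hw 1)]
  have o2 := h.o2
  have g : |S.w 1 * dt (S'.e 2) (S.e 1)| ≤ Λ * S'.w 2 := by
    rw [abs_mul, abs_of_pos (hw 1), mul_comm]; exact h.g
  have x1 : |dt (S'.e 1) (cmb (fr S.e S.w) ![p, u, v])| ≤ (K + 2) * t * (Λ * S'.w 1) := by
    rw [dt_cmb]
    simp only [Matrix.cons_val]
    have j := bd_add (bd_add (abs_mul_le2 hp (abs_mul_le2 s1 (d 1 0)))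
      (abs_mul_le2 hu (abs_mul_le2 s3 (d 1 1)))) (abs_mul_le2 hv (abs_mul_le2 s2 (d 1 2)))
    refine j.trans ?_
    have h5 : (K + 2) * t * S.w 1 ≤ (K + 2) * t * (Λ * S'.w 1) :=
      mul_le_mul_of_nonneg_left h.w1 (by positivity)
    have h6 : K * t * S.w 2 ≤ K * t * S.w 1 := mul_le_mul_of_nonneg_left o2 (by positivity)
    have h7 : t * S.w 2 ≤ t * S.w 1 := mul_le_mul_of_nonneg_left o2 (by positivity)
    linarith
  have x2 : |dt (S'.e 2) (cmb (fr S.e S.w) ![p, u, v])| ≤ (K + 2) * t * (Λ * S'.w 2) := by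
    rw [dt_cmb]
    simp only [Matrix.cons_val]
    have j := bd_add (bd_add (abs_mul_le2 hp (abs_mul_le2 s1 (d 2 0)))
      (abs_mul_le2 hu g)) (abs_mul_le2 hv (abs_mul_le2 s2 (d 2 2)))
    refine j.trans ?_
    have h5 : (K + 1) * t * S.w 2 ≤ (K + 1) * t * (Λ * S'.w 2) :=
      mul_le_mul_of_nonneg_left h.w2 (by positivity)
    linarith
  constructor
  · unfold xc
    rw [abs_div, abs_of_pos (hw' 1), div_le_iff₀ (hw' 1)]
    linarith
  · unfold xc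
    rw [abs_div, abs_of_pos (hw' 2), div_le_iff₀ (hw' 2)]
    linarith

theorem Two.cell (h : Two Λ E S S' T z0 ρ z0' ρ') {ζ : ℝ} (h0 : 0 ≤ ζ) (h1 : ζ ≤ 1) :
    z0 ≤ z0 + ρ * ζ ∧ z0 + ρ * ζ ≤ z0 + ρ := by
  have hρ := h.ρ0
  constructor <;> nlinarith

/-- the zero set of the fine sheet lies in the fattened coarse sheet -/
theorem Two.val_gp (h : Two Λ E S S' T z0 ρ z0' ρ') (hE : IsExp S.q S.e S.w T z0 ρ b0 b1 G)
    (N : NrmC b0 b1 G) {ζ : ℝ} (h0 : 0 ≤ ζ) (h1 : ζ ≤ 1) {t : ℝ} (t0 : 0 ≤ t) (ht : t ≤ 1 / 128)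
    {u v : ℝ} (hu : |u| ≤ t) (hv : |v| ≤ t) :
    |S'.q (z0 + ρ * ζ) (T.pos (z0 + ρ * ζ) + Xp S b0 b1 G ζ u v)| ≤ E := by
  obtain ⟨z1, z2⟩ := h.cell h0 h1
  obtain ⟨-, -, -, g1, g2⟩ := gp_spec N h0 h1 t0 (by linarith) hu hv
  refine h.cl _ z1 z2 _ (fun i => ?_) ?_
  · rw [add_sub_cancel_left]
    unfold Xp
    rw [dt_cmb_fr h.st.ortho, abs_mul, abs_of_pos (h.st.pos i)]
    have h5 : |(![gp b0 b1 G ζ u v, u, v] : V3) i| ≤ 1 / 8 := by
      fin_cases i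
      · exact g2.trans (by linarith)
      · exact hu.trans (by linarith)
      · exact hv.trans (by linarith)
    have := mul_le_mul_of_nonneg_left h5 (h.st.pos i).le
    linarith
  · unfold Xp
    rw [hE, g1, mul_zero, add_zero]
    exact (h.inn _ z1 z2).2

theorem gp_zero (b0 b1 : V3) (G : QF) (ζ : ℝ) : gp b0 b1 G ζ 0 0 = 0 := by
  unfold gp rt cC
  norm_num

/-- **the zero set of the fine sheet lies near the tangent plane of the coarse sheet** -/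
theorem Two.near (h : Two Λ E S S' T z0 ρ z0' ρ') (hE : IsExp S.q S.e S.w T z0 ρ b0 b1 G)
    (N : NrmC b0 b1 G) (hE' : IsExp S'.q S'.e S'.w T z0' ρ' b0' b1' G') (N' : NrmC b0' b1' G')
    {ζ : ℝ} (h0 : 0 ≤ ζ) (h1 : ζ ≤ 1) {t τ : ℝ} (t0 : 0 ≤ t) (ht : 14 * t * Λ ≤ τ)
    (hτ : τ ≤ 1 / 64) {u v : ℝ} (hu : |u| ≤ t) (hv : |v| ≤ t) :
    S'.w 0 * |xc S' (Xp S b0 b1 G ζ u v) 0 + b0' 1 / b0' 0 * xc S' (Xp S b0 b1 G ζ u v) 1 +
      b0' 2 / b0' 0 * xc S' (Xp S b0 b1 G ζ u v) 2| ≤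
      208 * (E + S'.a + 3 * τ * (S'.w 0 * kap b0' b1' G')) := by
  have hΛ := h.one
  have hw0 := h.st'.pos 0
  have τ0 : 0 ≤ τ := le_trans (by positivity) ht
  have tt : t ≤ 1 / 128 := by nlinarith
  obtain ⟨m0, m1, m2⟩ := h.zt_mem h0 h1
  have hb : b0' 0 ≠ 0 := by
    have := N'.b1_le.1
    intro hz; rw [hz] at this; linarith
  have hk := Tl102.kap_nonneg b0' b1' G'
  have ha := h.a0
  have hEE := h.E0
  set ε := (E + S'.a + 3 * τ * (S'.w 0 * kap b0' b1' G')) / S'.w 0 with hε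
  have ε0 : 0 < ε := by
    have : 0 ≤ 3 * τ * (S'.w 0 * kap b0' b1' G') := by positivity
    exact div_pos (by linarith) hw0
  have hsu : ∀ s, 0 ≤ s → s ≤ 1 → ∀ x : ℝ, |x| ≤ t → |s * x| ≤ t := by
    intro s s0 s1 x hx
    rw [abs_mul, abs_of_nonneg s0]
    nlinarith [abs_nonneg x]
  -- continuity
  have hcont : ∀ i, ContinuousOn (fun s : ℝ => xc S' (Xp S b0 b1 G ζ (s * u) (s * v)) i)
      (Set.Icc 0 1) := by
    intro i
    have hg := gp_cont N h0 h1 t0 (by linarith) hu hv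
    have e1 : (fun s : ℝ => xc S' (Xp S b0 b1 G ζ (s * u) (s * v)) i) = fun s : ℝ =>
        (gp b0 b1 G ζ (s * u) (s * v) * (S.w 0 * dt (S'.e i) (S.e 0)) +
          s * u * (S.w 1 * dt (S'.e i) (S.e 1)) + s * v * (S.w 2 * dt (S'.e i) (S.e 2))) /
          S'.w i := by
      funext s
      unfold xc Xp
      rw [dt_cmb]
      simp only [Matrix.cons_val]
    rw [e1]
    refine ContinuousOn.div_const (((hg.mul continuousOn_const).add ?_).add ?_) _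
    · exact (Continuous.continuousOn (by fun_prop))
    · exact (Continuous.continuousOn (by fun_prop))
  have key := ivt_lem (c := G'.yy) (ε := ε)
    (y := fun s : ℝ => xc S' (Xp S b0 b1 G ζ (s * u) (s * v)) 0 +
      b0' 1 / b0' 0 * xc S' (Xp S b0 b1 G ζ (s * u) (s * v)) 1 +
      b0' 2 / b0' 0 * xc S' (Xp S b0 b1 G ζ (s * u) (s * v)) 2)
    (M := fun s : ℝ => b0' 0 + zt z0 ρ z0' ρ' ζ * b1' 0 +
      (shG b0' G').yu * xc S' (Xp S b0 b1 G ζ (s * u) (s * v)) 1 +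
      (shG b0' G').yv * xc S' (Xp S b0 b1 G ζ (s * u) (s * v)) 2)
    (((hcont 0).add (continuousOn_const.mul (hcont 1))).add (continuousOn_const.mul (hcont 2)))
    (by
      have e1 : Xp S b0 b1 G ζ (0 * u) (0 * v) = 0 := by
        unfold Xp
        rw [zero_mul, zero_mul, gp_zero]
        funext i
        simp [cmb]
      have e2 : ∀ i, xc S' (0 : V3) i = 0 := by
        intro i
        unfold xc
        simp [dt]
      simp only [e1, e2]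
      ring)
    (fun s s0 s1 => by
      obtain ⟨-, -, -, g1, g2⟩ := gp_spec N h0 h1 t0 (by linarith) (hsu s s0 s1 u hu)
        (hsu s s0 s1 v hv)
      obtain ⟨l1, l2⟩ := h.lat t0 (by norm_num : (0 : ℝ) ≤ 12) g2 (hsu s s0 s1 u hu)
        (hsu s s0 s1 v hv)
      exact (tan_small N' m0 m1 τ0 hτ (l1.trans (by linarith)) (l2.trans (by linarith))).1)
    ε0
    (fun s s0 s1 => by
      obtain ⟨-, -, -, g1, g2⟩ := gp_spec N h0 h1 t0 (by linarith) (hsu s s0 s1 u hu)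
        (hsu s s0 s1 v hv)
      obtain ⟨l1, l2⟩ := h.lat t0 (by norm_num : (0 : ℝ) ≤ 12) g2 (hsu s s0 s1 u hu)
        (hsu s s0 s1 v hv)
      have l3 := (tan_small N' m0 m1 τ0 hτ (l1.trans (by linarith)) (l2.trans (by linarith))).2
      have l4 := h.val hE' h0 h1 _ (h.val_gp hE N h0 h1 t0 tt (hsu s s0 s1 u hu)
        (hsu s s0 s1 v hv))
      have l5 := Fq_tan (b1 := b1') (G := G') hb (zt z0 ρ z0' ρ' ζ)
        (xc S' (Xp S b0 b1 G ζ (s * u) (s * v)))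
      rw [hε, le_div_iff₀ hw0]
      have l6 : ∀ A B R F w K L : ℝ, F = A * B + R → 0 < w → w * |F| ≤ K → |R| ≤ L →
          |A * B| * w ≤ K + w * L := by
        intro A B R F w K L hF hw hK hR
        have e1 : A * B = F - R := by linarith
        rw [e1]
        have := mul_le_mul_of_nonneg_right (abs_sub F R) hw.le
        have h9 := mul_le_mul_of_nonneg_left hR hw.le
        linarith
      have l7 := l6 _ _ _ _ _ _ _ l5 hw0 l4 l3
      refine l7.trans (le_of_eq ?_)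
      ring)
  simp only [one_mul] at key
  have k2 := mul_le_mul_of_nonneg_left key hw0.le
  refine k2.trans (le_of_eq ?_)
  rw [hε]
  field_simp

/-- **downwards: the curvature extent of the fine sheet is bounded by the one of the coarse sheet** -/
theorem Two.kap_down (h : Two Λ E S S' T z0 ρ z0' ρ') (hE : IsExp S.q S.e S.w T z0 ρ b0 b1 G)
    (hE' : IsExp S'.q S'.e S'.w T z0' ρ' b0' b1' G') :
    S.w 0 * kap b0 b1 G ≤ 10 ^ 14 * Λ ^ 2 * (E + S'.a + S'.w 0 * kap b0' b1' G') := by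
  have N : NrmC b0 b1 G := hE.nrmC h.st h.ρ0.le fun z z1 z2 => (h.inn z z1 z2).1
  have N' : NrmC b0' b1' G' := hE'.nrmC h.st' h.ρ0'.le fun z z1 z2 => (h.inn' z z1 z2).1
  have hΛ := h.one
  have hw := h.st.pos
  have hw' := h.st'.pos
  have hk := Tl102.kap_nonneg b0' b1' G'
  have ha := h.a0
  have hEE := h.E0
  have hΛ0 : 0 < Λ := by linarith
  set t := 1 / (1024 * Λ) with ht
  have t0 : 0 < t := by positivity
  have t1 : t * Λ = 1 / 1024 := by rw [ht]; field_simp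
  have t2 : t ≤ 1 / 1024 := by nlinarith
  -- the normal vector of the coarse sheet
  set m : V3 := S'.e 0 + (b0' 1 / b0' 0 * (S'.w 0 / S'.w 1)) • S'.e 1 +
    (b0' 2 / b0' 0 * (S'.w 0 / S'.w 2)) • S'.e 2 with hm
  have md : ∀ x, dt m x = dt (S'.e 0) x + b0' 1 / b0' 0 * (S'.w 0 / S'.w 1) * dt (S'.e 1) x +
      b0' 2 / b0' 0 * (S'.w 0 / S'.w 2) * dt (S'.e 2) x := by
    intro x; rw [hm]; simp only [add_dt, smul_dt]
  have mm : 1 ≤ dt m m := by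
    have o := h.st'.ortho
    have e1 : dt m m = 1 + (b0' 1 / b0' 0 * (S'.w 0 / S'.w 1)) ^ 2 +
        (b0' 2 / b0' 0 * (S'.w 0 / S'.w 2)) ^ 2 := by
      rw [md, hm]
      simp only [dt_add, dt_smul, o 0 0, o 0 1, o 0 2, o 1 0, o 1 1, o 1 2, o 2 0, o 2 1, o 2 2]
      simp only [if_true, Fin.isValue, Fin.reduceEq, if_false]
      ring
    rw [e1]
    nlinarith [sq_nonneg (b0' 1 / b0' 0 * (S'.w 0 / S'.w 1)),
      sq_nonneg (b0' 2 / b0' 0 * (S'.w 0 / S'.w 2))]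
  have mx : ∀ X : V3, S'.w 0 * (xc S' X 0 + b0' 1 / b0' 0 * xc S' X 1 +
      b0' 2 / b0' 0 * xc S' X 2) = dt m X := by
    intro X
    rw [md]
    unfold xc
    have h0 := (hw' 0).ne'
    have h1 := (hw' 1).ne'
    have h2 := (hw' 2).ne'
    field_simp
  -- components in the fine frame
  have mi : ∃ i, 1 / 2 ≤ |dt m (S.e i)| := by
    by_contra hc
    push Not at hc
    have o := h.st.ortho
    have e0 := o.expand m
    have e1 : dt m m = dt m (S.e 0) ^ 2 + dt m (S.e 1) ^ 2 + dt m (S.e 2) ^ 2 := by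
      have e2 : dt m m = dt (S.e 0) m * dt m (S.e 0) + dt (S.e 1) m * dt m (S.e 1) +
          dt (S.e 2) m * dt m (S.e 2) := by
        have h0 := e0 0
        have h1 := e0 1
        have h2 := e0 2
        have : dt m m = m 0 * m 0 + m 1 * m 1 + m 2 * m 2 := rfl
        have h3 : ∀ i, dt m (S.e i) = m 0 * S.e i 0 + m 1 * S.e i 1 + m 2 * S.e i 2 := fun i => rfl
        rw [this, h3, h3, h3]
        linear_combination m 0 * h0 + m 1 * h1 + m 2 * h2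
      rw [e2, dt_comm (S.e 0) m, dt_comm (S.e 1) m, dt_comm (S.e 2) m]
      ring
    have sq4 : ∀ i, dt m (S.e i) ^ 2 ≤ 1 / 4 := by
      intro i
      rw [← sq_abs]
      nlinarith [hc i, abs_nonneg (dt m (S.e i))]
    have := sq4 0
    have := sq4 1
    have := sq4 2
    linarith
  set ε := 208 * (E + S'.a + S'.w 0 * kap b0' b1' G') / S.w 0 with hε
  have hsum : 0 ≤ E + S'.a + S'.w 0 * kap b0' b1' G' := by
    have : 0 ≤ S'.w 0 * kap b0' b1' G' := mul_nonneg (hw' 0).le hk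
    linarith
  have ε0 : 0 ≤ ε := div_nonneg (mul_nonneg (by norm_num) hsum) (hw 0).le
  have hmain := kap_le_of_slab N t0 t2 ε0
    (h := ![S.w 0 * dt m (S.e 0) / S.w 0, S.w 1 * dt m (S.e 1) / S.w 0,
      S.w 2 * dt m (S.e 2) / S.w 0]) (by
      have hr : ∀ i, S.w 0 ≤ S.w i → 1 / 2 ≤ |dt m (S.e i)| →
          1 / 2 ≤ |S.w i * dt m (S.e i) / S.w 0| := by
        intro i hi h5
        rw [abs_div, abs_mul, abs_of_pos (hw i), abs_of_pos (hw 0), le_div_iff₀ (hw 0)]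
        nlinarith [hw 0, hw i, abs_nonneg (dt m (S.e i))]
      obtain ⟨i, hi⟩ := mi
      fin_cases i
      · exact Or.inl (hr 0 le_rfl hi)
      · exact Or.inr (Or.inl (hr 1 (h.o1.trans h.o2) hi))
      · exact Or.inr (Or.inr (hr 2 h.o1 hi)))
    (fun ζ h0 h1 u v hu hv => by
      have k1 := h.near hE N hE' N' h0 h1 t0.le (τ := 1 / 64) (by nlinarith) le_rfl hu hv
      have e1 : S'.w 0 * |xc S' (Xp S b0 b1 G ζ u v) 0 +
          b0' 1 / b0' 0 * xc S' (Xp S b0 b1 G ζ u v) 1 +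
          b0' 2 / b0' 0 * xc S' (Xp S b0 b1 G ζ u v) 2| = |dt m (Xp S b0 b1 G ζ u v)| := by
        rw [← mx, abs_mul, abs_of_pos (hw' 0)]
      rw [e1] at k1
      simp only [Matrix.cons_val]
      have e2 : S.w 0 * dt m (S.e 0) / S.w 0 * gp b0 b1 G ζ u v +
          S.w 1 * dt m (S.e 1) / S.w 0 * u + S.w 2 * dt m (S.e 2) / S.w 0 * v =
          dt m (Xp S b0 b1 G ζ u v) / S.w 0 := by
        unfold Xp
        rw [dt_cmb]
        simp only [Matrix.cons_val]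
        ring
      rw [e2, abs_div, abs_of_pos (hw 0), hε]
      refine div_le_div_of_nonneg_right (k1.trans ?_) (hw 0).le
      have : 0 ≤ S'.w 0 * kap b0' b1' G' := mul_nonneg (hw' 0).le hk
      linarith)
  have h5 : kap b0 b1 G * t ^ 2 * S.w 0 ≤
      10 ^ 5 * (208 * (E + S'.a + S'.w 0 * kap b0' b1' G')) := by
    have h6 := mul_le_mul_of_nonneg_right hmain (hw 0).le
    refine h6.trans (le_of_eq ?_)
    rw [hε]
    have := (hw 0).ne'
    field_simp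
  have h7 : S.w 0 * kap b0 b1 G = kap b0 b1 G * t ^ 2 * S.w 0 * (1024 * Λ) ^ 2 := by
    have : t ^ 2 * (1024 * Λ) ^ 2 = 1 := by
      rw [← mul_pow, ht]
      have h8 : 1 / (1024 * Λ) * (1024 * Λ) = 1 := by field_simp
      rw [h8, one_pow]
    calc S.w 0 * kap b0 b1 G = kap b0 b1 G * S.w 0 * (t ^ 2 * (1024 * Λ) ^ 2) := by
          rw [this]; ring
      _ = _ := by ring
  rw [h7]
  have h8 := mul_le_mul_of_nonneg_right h5 (by positivity : 0 ≤ (1024 * Λ) ^ 2)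
  refine h8.trans ?_
  have h9 : 0 ≤ Λ ^ 2 * (E + S'.a + S'.w 0 * kap b0' b1' G') := by positivity
  nlinarith

end

end Crest.Agent.R136.Prs262
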