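import Crest.Agent.R136.Plw1_102
import Crest.Agent.R136.Prs2_262

/-!
# R136 (S0187), PLAN 2 (AL): non-degeneracy from a sub-cell to the cell (helper571)

* `det3_hgt` : `(b0 0 + ζ b1 0)^2 det3 (fan ζ)` does not depend on the height `ζ`.
* `det_up` : `DetP` over the sub-cell gives `DetP` over the cell, `kp_pos_up`, `kp_up`.
-/

set_option autoImplicit false
set_option linter.unusedVariables false

open Finset

namespace Crest.Agent.R136.Dup571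

open Crest.Agent.R136.Sh605
open Crest.Agent.R136.Tl102
open Crest.Agent.R136.K4 (Plk4)
open Crest.Agent.R136.Tlt51 (Shp InP)
open Crest.Agent.R136.KapP335
open Crest.Agent.R136.Cps605
open Crest.Agent.R136.Arc880 (det3)

/-- height law of the determinant of the fan -/
theorem det3_hgt {b0 b1 : V3} {G : QF} {ζ : ℝ} (h : b0 0 + ζ * b1 0 ≠ 0) :
    (b0 0 + ζ * b1 0) ^ 2 * det3 (fan b0 b1 G ζ) =
      (G.uv * (b1 1 * b0 0 - b1 0 * b0 1) * (b1 2 * b0 0 - b1 0 * b0 2) -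
        G.vv * (b1 1 * b0 0 - b1 0 * b0 1) ^ 2 - G.uu * (b1 2 * b0 0 - b1 0 * b0 2) ^ 2 -
        (b1 1 * b0 2 - b1 2 * b0 1) * (G.yu * (b1 2 * b0 0 - b1 0 * b0 2) -
          G.yv * (b1 1 * b0 0 - b1 0 * b0 1)) -
        G.yy * (b1 1 * b0 2 - b1 2 * b0 1) ^ 2) / 16777216 := by
  simp only [det3, fan, slp, Matrix.cons_val]
  field_simp
  ring

/-- the determinant of the scaled fan at two heights -/
theorem det3_two {b0 b1 : V3} {G : QF} (N : NrmC b0 b1 G) (hκ : 0 < kap b0 b1 G) {ζ ζ' : ℝ}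
    (h0 : 0 ≤ ζ) (h1 : ζ ≤ 1) (h0' : 0 ≤ ζ') (h1' : ζ' ≤ 1) :
    |det3 (fan (shB0 b0) (scB1 (kap b0 b1 G) b0 b1) (scG (kap b0 b1 G) b0 G) ζ)| ≤
      16 * |det3 (fan (shB0 b0) (scB1 (kap b0 b1 G) b0 b1) (scG (kap b0 b1 G) b0 G) ζ')| := by
  obtain ⟨g1, -⟩ := N.b1_le
  obtain ⟨d1, d2⟩ := D_ge N h0 h1
  obtain ⟨d1', d2'⟩ := D_ge N h0' h1'
  change 1 / 2 ≤ b0 0 + ζ * b1 0 at d1
  change b0 0 + ζ * b1 0 ≤ 2 at d2
  change 1 / 2 ≤ b0 0 + ζ' * b1 0 at d1'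
  change b0 0 + ζ' * b1 0 ≤ 2 at d2'
  rw [Fn880.det3_scaled (by linarith) (by linarith) hκ.ne', Fn880.det3_scaled (by linarith) (by linarith) hκ.ne',
    abs_div, abs_div]
  have e : (b0 0 + ζ * b1 0) ^ 2 * |det3 (fan b0 b1 G ζ)| =
      (b0 0 + ζ' * b1 0) ^ 2 * |det3 (fan b0 b1 G ζ')| := by
    rw [← abs_of_nonneg (sq_nonneg (b0 0 + ζ * b1 0)), ← abs_mul, det3_hgt (by linarith),
      ← abs_of_nonneg (sq_nonneg (b0 0 + ζ' * b1 0)), ← abs_mul, det3_hgt (by linarith)]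
  have h2 : (1 / 2 : ℝ) ^ 2 * |det3 (fan b0 b1 G ζ)| ≤ 2 ^ 2 * |det3 (fan b0 b1 G ζ')| := by
    calc (1 / 2 : ℝ) ^ 2 * |det3 (fan b0 b1 G ζ)|
        ≤ (b0 0 + ζ * b1 0) ^ 2 * |det3 (fan b0 b1 G ζ)| := by gcongr
      _ = (b0 0 + ζ' * b1 0) ^ 2 * |det3 (fan b0 b1 G ζ')| := e
      _ ≤ 2 ^ 2 * |det3 (fan b0 b1 G ζ')| := by gcongr
  rw [← mul_div_assoc]
  refine div_le_div_of_nonneg_right ?_ (abs_nonneg _)
  linarith

variable {S : Plk4} {T : Ln4} {z0 ρ zL ρL r : ℝ}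

theorem kp_up (hr : 0 < r) (hρ : 0 < ρ) (h1 : zL ≤ z0) (h1' : z0 + ρ ≤ zL + ρL)
    (hS : Shp S zL ρL r) (hT : InP T S zL ρL) (hκ : 0 < kapP S z0 ρ T) : 0 < kapP S zL ρL T := by
  have := Crest.Agent.R136.Pl2W102.kapP_le hr hρ h1 h1' hS hT
  linarith

/-- **non-degeneracy of the sub-cell gives non-degeneracy of the cell** -/
theorem det_up {δ t : ℝ} (hr : 0 < r) (hρ : 0 < ρ) (h1 : zL ≤ z0) (h1' : z0 + ρ ≤ zL + ρL)
    (ht0 : 0 ≤ t) (ht : t * ρL ≤ ρ) (hS : Shp S zL ρL r) (hT : InP T S zL ρL) (hδ : 0 ≤ δ)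
    (hκ : 0 < kapP S z0 ρ T) (hdet : DetP δ S z0 ρ T) :
    DetP (t * δ / (16 * 160 ^ 3)) S zL ρL T := by
  have hw0 : 0 < S.w 0 := hr.trans_le (hS.r0_le.trans hS.a_le0)
  have hρ1 : 0 < ρL := by linarith
  have P := StP.of_shN hS hw0
  obtain ⟨b0, b1, G, hE⟩ := exists_isExp P.isQ S.e hw0.ne' T zL ρL
  have N := hE.nrmC P hρ1.le (fun z h1 h2 => (hT z h1 h2).1)
  obtain ⟨m0, m1, m2⟩ := hgt_mem (z0' := zL) (z0 := z0) hρ1 hρ.le h1 h1'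
  have hEs := isExp_mono (z0 := z0) (ρ := ρ) hE hρ1.ne'
  have hτ0 : 0 < ρ / ρL := div_pos hρ hρ1
  have hL := kp_up hr hρ h1 h1' hS hT hκ
  rw [kapP_eq hw0.ne' hE] at hL
  rw [kapP_eq hw0.ne' hEs] at hκ
  set ζ0 : ℝ := (z0 - zL) / ρL with hζ0
  set τ : ℝ := ρ / ρL with hτ
  have hk : 0 < kap b0 b1 G := (mul_pos_iff_of_pos_left hw0).1 hL
  have hks : 0 < kap (b0s b0 b1 ζ0) (b1s b1 τ) G := (mul_pos_iff_of_pos_left hw0).1 hκ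
  have k3 := kap_le_sub N m0 hτ0.le m2
  have hsub := (detP_iff hw0.ne' hEs δ).1 hdet 0 le_rfl zero_le_one
  rw [detP_iff hw0.ne' hE]
  intro ζ z1 z2
  obtain ⟨g1, -⟩ := N.b1_le
  obtain ⟨d1, -⟩ := D_ge N m0 (by linarith)
  change 1 / 2 ≤ b0 0 + ζ0 * b1 0 at d1
  rw [det3_scaled_sub (b0 := b0) (b1 := b1) (G := G) (κ := kap b0 b1 G) (by linarith)
    (by linarith) (by rw [mul_zero, add_zero]; linarith) hk.ne' hks.ne'] at hsub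
  rw [mul_zero, add_zero] at hsub
  have htwo := det3_two N hk (ζ := ζ0) (ζ' := ζ) m0 (by linarith) z1 z2
  set D0 := |det3 (fan (shB0 b0) (scB1 (kap b0 b1 G) b0 b1) (scG (kap b0 b1 G) b0 G) ζ0)| with hD0
  set D1 := |det3 (fan (shB0 b0) (scB1 (kap b0 b1 G) b0 b1) (scG (kap b0 b1 G) b0 G) ζ)| with hD1
  rw [abs_mul, ← hD0, abs_of_pos (by positivity)] at hsub
  set κ := kap b0 b1 G with hκd
  set κs := kap (b0s b0 b1 ζ0) (b1s b1 τ) G with hκsd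
  have hD00 : 0 ≤ D0 := abs_nonneg _
  have hq : τ * (κ / κs) ≤ 160 := by
    rw [← mul_div_assoc, div_le_iff₀ hks]; exact k3
  have hq0 : 0 < τ * (κ / κs) := by positivity
  have h3 : (τ * (κ / κs)) ^ 3 ≤ 160 ^ 3 := pow_le_pow_left₀ hq0.le hq 3
  -- `t δ ≤ τ δ ≤ (τ κ / κs)^3 D0`
  have htτ : t ≤ τ := by rw [hτ, le_div_iff₀ hρ1]; exact ht
  have h4 : τ * δ ≤ 160 ^ 3 * D0 := by
    calc τ * δ ≤ τ * (τ ^ 2 * (κ / κs) ^ 3 * D0) := mul_le_mul_of_nonneg_left hsub hτ0.le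
      _ = (τ * (κ / κs)) ^ 3 * D0 := by ring
      _ ≤ 160 ^ 3 * D0 := mul_le_mul_of_nonneg_right h3 hD00
  have h5 : t * δ ≤ τ * δ := mul_le_mul_of_nonneg_right htτ hδ
  rw [div_le_iff₀ (by positivity)]
  linarith

end Crest.Agent.R136.Dup571
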