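import Mathlib
import Crest.Agent.R138.Uni_926

/-!
# R136 (helper879): the discrete Kakeya statement in `ℝ⁴` and its counting form

* `KS4`: direction separated grid lines, full shading (up to `N^(-η)`), two-sided uniform
  multiplicity `μ`: then `μ ≤ C N^ε`.
* `KS4c`: the counting form, at least `N^(4-ε)/C` cells.
* `KS4c_of_KS4`.
-/

set_option autoImplicit false
set_option linter.unusedVariables false

open Finset

namespace Crest.Agent.R136.KS879

/-- grid lines of `ℝ⁴`: `(a, c)` is the line `x(z) = (a + z c) / N`, `x ∈ ℝ³`. -/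
abbrev GLine4 := (Fin 3 → ℤ) × (Fin 3 → ℤ)

/-- the cell (cube of side `1/N`) containing the point of `l` at height `j/N`. -/
noncomputable def cell4 (N : ℕ) (l : GLine4) (j : ℤ) : Fin 3 → ℤ :=
  fun i => ⌊(l.1 i : ℝ) + l.2 i * (j : ℝ) / N⌋

/-- the cell of an incidence (line, height). -/
noncomputable def key4 (N : ℕ) (x : GLine4 × ℤ) : (Fin 3 → ℤ) × ℤ := (cell4 N x.1 x.2, x.2)

/-- all coordinates are at most `N`. -/
def Bd4 (N : ℕ) (l : GLine4) : Prop := ∀ i, |l.1 i| ≤ (N : ℤ) ∧ |l.2 i| ≤ (N : ℤ)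

open Classical in
/-- **KS4**: direction separated, full shading, two-sided uniform multiplicity. -/
def KS4 : Prop :=
  ∀ ε : ℝ, 0 < ε → ∃ η : ℝ, 0 < η ∧ ∃ C : ℝ, 0 < C ∧ ∀ N : ℕ, 1 ≤ N →
    ∀ (s : Finset GLine4) (I : Finset (GLine4 × ℤ)) (μ : ℝ), s.Nonempty →
    (∀ l ∈ s, Bd4 N l) → Set.InjOn Prod.snd (s : Set GLine4) →
    (N : ℝ) ^ (3 - η) ≤ (s.card : ℝ) →
    (∀ x ∈ I, x.1 ∈ s ∧ |x.2| ≤ (N : ℤ)) →
    (∀ l ∈ s, (N : ℝ) ^ (1 - η) ≤ ((I.filter (fun x => x.1 = l)).card : ℝ)) →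
    (∀ x ∈ I, μ ≤ ((I.filter (fun y => key4 N y = key4 N x)).card : ℝ) ∧
      ((I.filter (fun y => key4 N y = key4 N x)).card : ℝ) ≤ (N : ℝ) ^ η * μ) →
    μ ≤ C * (N : ℝ) ^ ε

open Classical in
/-- **KS4c**: the counting form. -/
def KS4c : Prop :=
  ∀ ε : ℝ, 0 < ε → ∃ η : ℝ, 0 < η ∧ ∃ C : ℝ, 0 < C ∧ ∀ N : ℕ, 1 ≤ N →
    ∀ (s : Finset GLine4) (I : Finset (GLine4 × ℤ)), s.Nonempty →
    (∀ l ∈ s, Bd4 N l) → Set.InjOn Prod.snd (s : Set GLine4) →
    (N : ℝ) ^ (3 - η) ≤ (s.card : ℝ) →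
    (∀ x ∈ I, x.1 ∈ s ∧ |x.2| ≤ (N : ℤ)) →
    (∀ l ∈ s, (N : ℝ) ^ (1 - η) ≤ ((I.filter (fun x => x.1 = l)).card : ℝ)) →
    (N : ℝ) ^ (4 - ε) ≤ C * ((I.image (key4 N)).card : ℝ)

/-- a direction separated bounded family has at most `27 N³` lines. -/
theorem card_le_of_inj {N : ℕ} (hN : 1 ≤ N) {s : Finset GLine4} (hs : ∀ l ∈ s, Bd4 N l)
    (hinj : Set.InjOn Prod.snd (s : Set GLine4)) : (s.card : ℝ) ≤ 27 * (N : ℝ) ^ 3 := by
  classical
  have h1 : s.card = (s.image Prod.snd).card := (card_image_of_injOn hinj).symm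
  have h2 : s.image Prod.snd ⊆ Fintype.piFinset (fun _ : Fin 3 => Icc (-(N : ℤ)) N) := by
    intro c hc
    obtain ⟨l, hl, rfl⟩ := mem_image.1 hc
    rw [Fintype.mem_piFinset]
    intro i
    rw [mem_Icc]
    exact abs_le.1 (hs l hl i).2
  have h3 := card_le_card h2
  rw [Fintype.card_piFinset] at h3
  simp only [Int.card_Icc, prod_const, card_univ, Fintype.card_fin] at h3
  have h4 : ((N : ℤ) + 1 - -(N : ℤ)).toNat ≤ 3 * N := by omega
  have h5 : s.card ≤ (3 * N) ^ 3 := by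
    rw [h1]; exact h3.trans (Nat.pow_le_pow_left h4 3)
  have h6 : (s.card : ℝ) ≤ ((3 * N) ^ 3 : ℕ) := by exact_mod_cast h5
  push_cast at h6
  linarith [h6, show (3 * (N : ℝ)) ^ 3 = 27 * (N : ℝ) ^ 3 by ring]

/-- logarithms are small. -/
theorem log_bound {ζ : ℝ} (hζ : 0 < ζ) : ∃ Cζ : ℝ, 1 ≤ Cζ ∧ ∀ N : ℕ, 1 ≤ N → ∀ n : ℕ, n ≠ 0 →
    (n : ℝ) ≤ 81 * (N : ℝ) ^ 4 → ((Nat.log 2 n : ℕ) : ℝ) + 1 ≤ Cζ * (N : ℝ) ^ ζ := by
  have hl2 : 0 < Real.log 2 := Real.log_pos (by norm_num)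
  refine ⟨(Real.log 81 + 4 / ζ) / Real.log 2 + 1, ?_, ?_⟩
  · have h81 : 0 ≤ Real.log 81 := Real.log_nonneg (by norm_num)
    have : 0 ≤ (Real.log 81 + 4 / ζ) / Real.log 2 := by positivity
    linarith
  intro N hN n hn hle
  have hN0 : (0 : ℝ) < N := by exact_mod_cast hN
  have hN1 : (1 : ℝ) ≤ N := by exact_mod_cast hN
  have hn0 : (0 : ℝ) < n := by exact_mod_cast Nat.pos_of_ne_zero hn
  have h1 : ((Nat.log 2 n : ℕ) : ℝ) ≤ Real.log n / Real.log 2 := by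
    rw [le_div_iff₀ hl2]
    have h2 : (2 : ℝ) ^ (Nat.log 2 n) ≤ n := by exact_mod_cast Nat.pow_log_le_self 2 hn
    have h3 := Real.log_le_log (by positivity) h2
    rwa [Real.log_pow] at h3
  have h2 : Real.log n ≤ Real.log 81 + 4 * Real.log N := by
    have h3 := Real.log_le_log hn0 hle
    rw [Real.log_mul (by norm_num) (by positivity), Real.log_pow] at h3
    push_cast at h3
    exact h3
  have h3 : Real.log N ≤ (N : ℝ) ^ ζ / ζ := Real.log_le_rpow_div hN0.le hζ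
  have h4 : (1 : ℝ) ≤ (N : ℝ) ^ ζ := Real.one_le_rpow hN1 hζ.le
  have h81 : 0 ≤ Real.log 81 := Real.log_nonneg (by norm_num)
  calc ((Nat.log 2 n : ℕ) : ℝ) + 1 ≤ Real.log n / Real.log 2 + 1 := by linarith
    _ ≤ (Real.log 81 + 4 * ((N : ℝ) ^ ζ / ζ)) / Real.log 2 + 1 := by
        gcongr
        linarith
    _ ≤ ((Real.log 81 * (N : ℝ) ^ ζ) + 4 * ((N : ℝ) ^ ζ / ζ)) / Real.log 2 + (N : ℝ) ^ ζ := by
        gcongr
        nlinarith
    _ = ((Real.log 81 + 4 / ζ) / Real.log 2 + 1) * (N : ℝ) ^ ζ := by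
        field_simp

set_option maxHeartbeats 1600000 in
theorem KS4c_of_KS4 (hK : KS4) : KS4c := by
  classical
  intro ε hε
  obtain ⟨η₁, hη₁, C₁, hC₁, hK⟩ := hK (ε / 4) (by positivity)
  obtain ⟨η, hη⟩ : ∃ η : ℝ, η = min (η₁ / 4) (ε / 8) := ⟨_, rfl⟩
  have hη0 : 0 < η := by rw [hη]; positivity
  have hηa : η ≤ η₁ / 4 := by rw [hη]; exact min_le_left _ _
  have hηb : η ≤ ε / 8 := by rw [hη]; exact min_le_right _ _
  obtain ⟨ζ, hζ⟩ : ∃ ζ : ℝ, ζ = min (η₁ / 16) (ε / 16) := ⟨_, rfl⟩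
  have hζ0 : 0 < ζ := by rw [hζ]; positivity
  have hζa : ζ ≤ η₁ / 16 := by rw [hζ]; exact min_le_left _ _
  have hζb : ζ ≤ ε / 16 := by rw [hζ]; exact min_le_right _ _
  obtain ⟨Cζ, hCζ, hlog⟩ := log_bound hζ0
  -- threshold
  obtain ⟨N₀, hN₀⟩ : ∃ N₀ : ℕ, ∀ N : ℕ, N₀ ≤ N → 8 * Cζ ^ 2 ≤ (N : ℝ) ^ (η₁ / 4) := by
    have h1 : Filter.Tendsto (fun N : ℕ => (N : ℝ) ^ (η₁ / 4)) Filter.atTop Filter.atTop :=
      (tendsto_rpow_atTop (show 0 < η₁ / 4 by positivity)).comp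
        (tendsto_natCast_atTop_atTop (R := ℝ))
    obtain ⟨N₀, h2⟩ := Filter.eventually_atTop.1
      (h1.eventually (Filter.eventually_ge_atTop (8 * Cζ ^ 2)))
    exact ⟨N₀, fun N hN => h2 N hN⟩
  refine ⟨η, hη0, max (((N₀ : ℝ) + 1) ^ 4) (16 * C₁ * Cζ ^ 4), by positivity, ?_⟩
  intro N hN s I hs hBd hinj hcs hI hline
  have hN0 : (0 : ℝ) < N := by exact_mod_cast hN
  have hN1 : (1 : ℝ) ≤ N := by exact_mod_cast hN
  -- nonemptiness
  obtain ⟨l₀, hl₀⟩ := hs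
  have hIne : I.Nonempty := by
    have h1 := hline l₀ hl₀
    have h2 : (0 : ℝ) < ((I.filter (fun x => x.1 = l₀)).card : ℝ) :=
      lt_of_lt_of_le (Real.rpow_pos_of_pos hN0 _) h1
    have h3 : 0 < (I.filter (fun x => x.1 = l₀)).card := by exact_mod_cast h2
    obtain ⟨x, hx⟩ := card_pos.1 h3
    exact ⟨x, (mem_filter.1 hx).1⟩
  have hkeys : (1 : ℝ) ≤ ((I.image (key4 N)).card : ℝ) := by
    have : 0 < (I.image (key4 N)).card := card_pos.2 (hIne.image _)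
    exact_mod_cast this
  rcases lt_or_ge N N₀ with hsm | hbig
  · -- small `N`
    calc (N : ℝ) ^ (4 - ε) ≤ (N : ℝ) ^ (4 : ℝ) := Real.rpow_le_rpow_of_exponent_le hN1 (by linarith)
      _ = (N : ℝ) ^ 4 := by norm_cast
      _ ≤ ((N₀ : ℝ) + 1) ^ 4 := by
          gcongr
          have : (N : ℝ) ≤ N₀ := by exact_mod_cast hsm.le
          linarith
      _ ≤ max (((N₀ : ℝ) + 1) ^ 4) (16 * C₁ * Cζ ^ 4) * 1 := by
          rw [mul_one]; exact le_max_left _ _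
      _ ≤ _ := by gcongr
  · -- large `N`
    have hbd := hN₀ N hbig
    -- counts
    have hIc : ((I.card : ℕ) : ℝ) = ∑ l ∈ s, ((I.filter (fun x => x.1 = l)).card : ℝ) := by
      rw [card_eq_sum_card_fiberwise (f := Prod.fst) (t := s) (fun x hx => (hI x hx).1)]
      push_cast
      rfl
    have hline2 : ∀ A : Finset (GLine4 × ℤ), A ⊆ I → ∀ l,
        ((A.filter (fun x => x.1 = l)).card : ℝ) ≤ 3 * N := by
      intro A hA l
      have h1 : (A.filter (fun x => x.1 = l)).card ≤ (Icc (-(N : ℤ)) N).card := by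
        refine card_le_card_of_injOn Prod.snd ?_ ?_
        · intro x hx
          have hx' := (mem_filter.1 hx).1
          simp only [coe_Icc, Set.mem_Icc]
          exact abs_le.1 (hI x (hA hx')).2
        · intro x hx y hy hxy
          have h1 := (mem_filter.1 hx).2
          have h2 := (mem_filter.1 hy).2
          exact Prod.ext (h1.trans h2.symm) hxy
      have h2 : (Icc (-(N : ℤ)) N).card ≤ 3 * N := by rw [Int.card_Icc]; omega
      exact_mod_cast h1.trans h2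
    have hIlow : (s.card : ℝ) * (N : ℝ) ^ (1 - η) ≤ I.card := by
      rw [hIc]
      calc (s.card : ℝ) * (N : ℝ) ^ (1 - η) = ∑ l ∈ s, (N : ℝ) ^ (1 - η) := by
            rw [sum_const, nsmul_eq_mul]
        _ ≤ _ := sum_le_sum hline
    have hscard := card_le_of_inj hN hBd hinj
    have hIup : (I.card : ℝ) ≤ 81 * (N : ℝ) ^ 4 := by
      rw [hIc]
      calc ∑ l ∈ s, ((I.filter (fun x => x.1 = l)).card : ℝ) ≤ ∑ l ∈ s, (3 * (N : ℝ)) :=
            sum_le_sum fun l _ => hline2 I subset_rfl l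
        _ = s.card * (3 * N) := by rw [sum_const, nsmul_eq_mul]
        _ ≤ 27 * (N : ℝ) ^ 3 * (3 * N) := by gcongr
        _ = 81 * (N : ℝ) ^ 4 := by ring
    -- uniformisation
    set H : ℕ := Nat.log 2 I.card with hH
    have hIcard0 : I.card ≠ 0 := (card_pos.2 hIne).ne'
    obtain ⟨L, hL⟩ : ∃ L : ℝ, L = (H : ℝ) + 1 := ⟨_, rfl⟩
    have hL1 : 1 ≤ L := by rw [hL]; have : (0 : ℝ) ≤ H := Nat.cast_nonneg _; linarith
    have hLN : L ≤ Cζ * (N : ℝ) ^ ζ := by rw [hL]; exact hlog N hN _ hIcard0 hIup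
    set f : Fin 2 → GLine4 × ℤ → GLine4 ⊕ ((Fin 3 → ℤ) × ℤ) :=
      fun j x => if j = 0 then Sum.inl x.1 else Sum.inr (key4 N x) with hf
    obtain ⟨I', hI'I, hI'ne, hI'w, M, hM1, hM⟩ := Crest.Agent.R138.Ex926.uniformise I hIne
      (fun _ => (1 : ℝ)) (w₀ := 1) one_pos (fun _ _ => le_rfl) f (H := H) (by
        simp only [sum_const, nsmul_eq_mul, mul_one]
        exact_mod_cast Nat.lt_pow_succ_log_self one_lt_two I.card)
    simp only [sum_const, nsmul_eq_mul, mul_one, Fintype.card_fin, Nat.cast_ofNat] at hI'w hM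
    rw [← hL] at hI'w hM
    have hcl0 : ∀ (A : Finset (GLine4 × ℤ)) (x : GLine4 × ℤ),
        Crest.Agent.R138.Ex926.cls A (f 0) x = A.filter (fun y => y.1 = x.1) := by
      intro A x
      unfold Crest.Agent.R138.Ex926.cls
      ext y
      simp [hf]
    have hcl1 : ∀ (A : Finset (GLine4 × ℤ)) (x : GLine4 × ℤ),
        Crest.Agent.R138.Ex926.cls A (f 1) x = A.filter (fun y => key4 N y = key4 N x) := by
      intro A x
      unfold Crest.Agent.R138.Ex926.cls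
      ext y
      simp [hf]
    have hM0 := hM 0
    have hM1' := hM 1
    simp only [hcl0] at hM0
    simp only [hcl1] at hM1'
    set s' : Finset GLine4 := I'.image Prod.fst with hs'
    have hs's : s' ⊆ s := by
      intro l hl
      obtain ⟨x, hx, rfl⟩ := mem_image.1 hl
      exact (hI x (hI'I hx)).1
    have hL2 : L ^ 2 ≤ Cζ ^ 2 * (N : ℝ) ^ (η₁ / 8) := by
      calc L ^ 2 ≤ (Cζ * (N : ℝ) ^ ζ) ^ 2 := by gcongr
        _ = Cζ ^ 2 * (N : ℝ) ^ (ζ * 2) := by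
            rw [mul_pow, Real.rpow_mul hN0.le]; norm_cast
        _ ≤ Cζ ^ 2 * (N : ℝ) ^ (η₁ / 8) := by
            gcongr
            linarith
    have h8L : 8 * L ^ 2 ≤ (N : ℝ) ^ (η₁ / 2) := by
      calc 8 * L ^ 2 ≤ (8 * Cζ ^ 2) * (N : ℝ) ^ (η₁ / 8) := by linarith
        _ ≤ (N : ℝ) ^ (η₁ / 4) * (N : ℝ) ^ (η₁ / 8) := by gcongr
        _ = (N : ℝ) ^ (η₁ / 4 + η₁ / 8) := (Real.rpow_add hN0 _ _).symm
        _ ≤ (N : ℝ) ^ (η₁ / 2) := Real.rpow_le_rpow_of_exponent_le hN1 (by linarith)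
    have hL2pos : 0 < L ^ 2 := by positivity
    have hI'low : (s.card : ℝ) * (N : ℝ) ^ (1 - η) ≤ 2 * L ^ 2 * I'.card := hIlow.trans hI'w
    have hI'c : ((I'.card : ℕ) : ℝ) = ∑ l ∈ s', ((I'.filter (fun x => x.1 = l)).card : ℝ) := by
      rw [card_eq_sum_card_fiberwise (f := Prod.fst) (t := s')
        (fun x hx => mem_image_of_mem _ hx)]
      push_cast
      rfl
    have hs'card : (I'.card : ℝ) ≤ s'.card * (3 * N) := by
      rw [hI'c]
      calc ∑ l ∈ s', ((I'.filter (fun x => x.1 = l)).card : ℝ) ≤ ∑ l ∈ s', (3 * (N : ℝ)) :=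
            sum_le_sum fun l _ => hline2 I' hI'I l
        _ = s'.card * (3 * N) := by rw [sum_const, nsmul_eq_mul]
    have hN1η : (N : ℝ) ^ (1 - η) = N * (N : ℝ) ^ (-η) := by
      rw [Real.rpow_sub hN0, Real.rpow_one, Real.rpow_neg hN0.le]
      rfl
    have hmain := hK N hN s' I' (M 1 / (4 * L ^ 2)) (hI'ne.image _)
      (fun l hl => hBd l (hs's hl)) (hinj.mono (by exact_mod_cast hs's)) ?_ ?_ ?_ ?_
    · -- conclusion
      have hcells : (I'.card : ℝ) ≤ ((I.image (key4 N)).card : ℝ) * (2 * M 1) := by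
        have h1 : ((I'.card : ℕ) : ℝ) = ∑ c ∈ I'.image (key4 N),
            ((I'.filter (fun x => key4 N x = c)).card : ℝ) := by
          rw [card_eq_sum_card_fiberwise (f := key4 N) (t := I'.image (key4 N))
            (fun x hx => mem_image_of_mem _ hx)]
          push_cast
          rfl
        have hM10 : 0 ≤ M 1 := zero_le_one.trans (hM1 1)
        rw [h1]
        calc ∑ c ∈ I'.image (key4 N), ((I'.filter (fun x => key4 N x = c)).card : ℝ)
            ≤ ∑ c ∈ I'.image (key4 N), (2 * M 1) := by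
              refine sum_le_sum fun c hc => ?_
              obtain ⟨x, hx, rfl⟩ := mem_image.1 hc
              refine le_trans ?_ (hM1' x hx).2.1
              exact_mod_cast card_le_card (filter_subset_filter _ hI'I)
          _ = ((I'.image (key4 N)).card : ℝ) * (2 * M 1) := by rw [sum_const, nsmul_eq_mul]
          _ ≤ ((I.image (key4 N)).card : ℝ) * (2 * M 1) := by
              gcongr
      have hM1le : M 1 ≤ 4 * L ^ 2 * (C₁ * (N : ℝ) ^ (ε / 4)) := by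
        rw [div_le_iff₀ (by positivity)] at hmain
        linarith
      have hsN : (N : ℝ) ^ (3 - η) * (N : ℝ) ^ (1 - η) ≤
          2 * L ^ 2 * (((I.image (key4 N)).card : ℝ) *
            (2 * (4 * L ^ 2 * (C₁ * (N : ℝ) ^ (ε / 4))))) := by
        calc (N : ℝ) ^ (3 - η) * (N : ℝ) ^ (1 - η) ≤ (s.card : ℝ) * (N : ℝ) ^ (1 - η) := by gcongr
          _ ≤ 2 * L ^ 2 * I'.card := hI'low
          _ ≤ 2 * L ^ 2 * (((I.image (key4 N)).card : ℝ) * (2 * M 1)) := by gcongr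
          _ ≤ _ := by gcongr
      have hL4 : L ^ 4 ≤ Cζ ^ 4 * (N : ℝ) ^ (ε / 4) := by
        calc L ^ 4 ≤ (Cζ * (N : ℝ) ^ ζ) ^ 4 := by gcongr
          _ = Cζ ^ 4 * (N : ℝ) ^ (ζ * 4) := by
              rw [mul_pow, Real.rpow_mul hN0.le]; norm_cast
          _ ≤ Cζ ^ 4 * (N : ℝ) ^ (ε / 4) := by
              gcongr
              linarith
      have h1 : (N : ℝ) ^ (4 - ε) * (N : ℝ) ^ (ε / 4 + ε / 4) ≤
          (N : ℝ) ^ (3 - η) * (N : ℝ) ^ (1 - η) := by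
        rw [← Real.rpow_add hN0, ← Real.rpow_add hN0]
        exact Real.rpow_le_rpow_of_exponent_le hN1 (by linarith)
      have h2 : (N : ℝ) ^ (4 - ε) * (N : ℝ) ^ (ε / 4 + ε / 4) ≤
          (16 * C₁ * Cζ ^ 4 * ((I.image (key4 N)).card : ℝ)) * (N : ℝ) ^ (ε / 4 + ε / 4) := by
        calc (N : ℝ) ^ (4 - ε) * (N : ℝ) ^ (ε / 4 + ε / 4)
            ≤ 2 * L ^ 2 * (((I.image (key4 N)).card : ℝ) *
              (2 * (4 * L ^ 2 * (C₁ * (N : ℝ) ^ (ε / 4))))) := h1.trans hsN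
          _ = (16 * C₁ * ((I.image (key4 N)).card : ℝ)) * L ^ 4 * (N : ℝ) ^ (ε / 4) := by ring
          _ ≤ (16 * C₁ * ((I.image (key4 N)).card : ℝ)) * (Cζ ^ 4 * (N : ℝ) ^ (ε / 4)) *
              (N : ℝ) ^ (ε / 4) := by gcongr
          _ = (16 * C₁ * Cζ ^ 4 * ((I.image (key4 N)).card : ℝ)) *
              ((N : ℝ) ^ (ε / 4) * (N : ℝ) ^ (ε / 4)) := by ring
          _ = _ := by rw [← Real.rpow_add hN0]
      have h3 := le_of_mul_le_mul_right h2 (Real.rpow_pos_of_pos hN0 _)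
      refine h3.trans ?_
      gcongr
      exact le_max_right _ _
    · -- number of lines
      have h1 : (N : ℝ) ^ (3 - η₁) * (2 * L ^ 2 * (3 * N)) ≤ (s'.card : ℝ) * (2 * L ^ 2 * (3 * N)) := by
        calc (N : ℝ) ^ (3 - η₁) * (2 * L ^ 2 * (3 * N))
            ≤ (N : ℝ) ^ (3 - η₁) * (N : ℝ) ^ (η₁ / 2) * N := by
              have h2 : 2 * L ^ 2 * (3 * N) ≤ (N : ℝ) ^ (η₁ / 2) * N := by
                have h3 : 2 * L ^ 2 * 3 ≤ (N : ℝ) ^ (η₁ / 2) := by linarith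
                calc 2 * L ^ 2 * (3 * (N : ℝ)) = 2 * L ^ 2 * 3 * N := by ring
                  _ ≤ _ := by gcongr
              calc (N : ℝ) ^ (3 - η₁) * (2 * L ^ 2 * (3 * N))
                  ≤ (N : ℝ) ^ (3 - η₁) * ((N : ℝ) ^ (η₁ / 2) * N) := by gcongr
                _ = _ := by ring
          _ = (N : ℝ) ^ (3 - η₁ + η₁ / 2) * N := by rw [Real.rpow_add hN0]
          _ ≤ (N : ℝ) ^ (3 - η - η) * N := by
              gcongr
              linarith
          _ = (N : ℝ) ^ (3 - η) * (N * (N : ℝ) ^ (-η)) := by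
              rw [sub_eq_add_neg (3 - η) η, Real.rpow_add hN0]; ring
          _ = (N : ℝ) ^ (3 - η) * (N : ℝ) ^ (1 - η) := by rw [hN1η]
          _ ≤ (s.card : ℝ) * (N : ℝ) ^ (1 - η) := by gcongr
          _ ≤ 2 * L ^ 2 * I'.card := hI'low
          _ ≤ 2 * L ^ 2 * (s'.card * (3 * N)) := by gcongr
          _ = (s'.card : ℝ) * (2 * L ^ 2 * (3 * N)) := by ring
      exact le_of_mul_le_mul_right h1 (by positivity)
    · intro x hx
      exact ⟨mem_image_of_mem _ hx, (hI x (hI'I hx)).2⟩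
    · -- lines
      intro l hl
      obtain ⟨x, hx, rfl⟩ := mem_image.1 hl
      obtain ⟨g1, g2, g3⟩ := hM0 x hx
      have g4 := hline x.1 (hI x (hI'I hx)).1
      have h1 : (N : ℝ) ^ (1 - η₁) * (8 * L ^ 2) ≤
          ((I'.filter (fun y => y.1 = x.1)).card : ℝ) * (8 * L ^ 2) := by
        calc (N : ℝ) ^ (1 - η₁) * (8 * L ^ 2) ≤ (N : ℝ) ^ (1 - η₁) * (N : ℝ) ^ (η₁ / 2) := by
              gcongr
          _ = (N : ℝ) ^ (1 - η₁ + η₁ / 2) := (Real.rpow_add hN0 _ _).symm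
          _ ≤ (N : ℝ) ^ (1 - η) := Real.rpow_le_rpow_of_exponent_le hN1 (by linarith)
          _ ≤ 2 * M 0 := g4.trans g2
          _ ≤ 2 * (2 * 2 * L ^ 2 * ((I'.filter (fun y => y.1 = x.1)).card : ℝ)) := by gcongr
          _ = _ := by ring
      exact le_of_mul_le_mul_right h1 (by positivity)
    · -- cells
      intro x hx
      obtain ⟨g1, g2, g3⟩ := hM1' x hx
      constructor
      · rw [div_le_iff₀ (by positivity)]
        linarith
      · have h1 : ((I'.filter (fun y => key4 N y = key4 N x)).card : ℝ) ≤ 2 * M 1 := by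
          refine le_trans ?_ g2
          exact_mod_cast card_le_card (filter_subset_filter _ hI'I)
        have hM10 : 0 ≤ M 1 := zero_le_one.trans (hM1 1)
        have h2 : (N : ℝ) ^ (η₁ / 2) ≤ (N : ℝ) ^ η₁ :=
          Real.rpow_le_rpow_of_exponent_le hN1 (by linarith)
        calc ((I'.filter (fun y => key4 N y = key4 N x)).card : ℝ) ≤ 2 * M 1 := h1
          _ = (8 * L ^ 2) * (M 1 / (4 * L ^ 2)) := by field_simp; ring
          _ ≤ (N : ℝ) ^ η₁ * (M 1 / (4 * L ^ 2)) := by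
              gcongr
              exact h8L.trans h2

end Crest.Agent.R136.KS879
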