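import Crest.Agent.R136.KR3_879
import Crest.Agent.R136.KS4_879

/-!
# R136: the enemy in `ℝ⁴`, part a (helper879)

Grid lines `GLine4` as real lines `Sh605.Ln4` in the coordinates `z' = (z + 2) / 4`, `x' = x / 64`.

* `kr_grid`: velocity separated families have density `≤ C (M+6)² 8^M` in every sheet of level `0`;
* `close4`: cell mates are `2^-M`-close over the `z`-cell of level `M`;
* `cubeSheet`: the `2^-M`-neighbourhood of a line is a sheet.
-/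

set_option autoImplicit false

open Finset

namespace Crest.Agent.R136.En879

open Sh605 KS879

noncomputable section

/-- the real line of a grid line, in the coordinates `z' = (z + 2) / 4`, `x' = x / 64` -/
def rl4 (N : ℕ) (l : GLine4) : Ln4 where
  p := fun i => (1 / 64 : ℝ) * ((l.1 i : ℝ) / N - 2 * ((l.2 i : ℝ) / N))
  v := fun i => (1 / 16 : ℝ) * ((l.2 i : ℝ) / N)

/-- the new height of the grid height `j` -/
def rh4 (N : ℕ) (j : ℤ) : ℝ := ((j:ℝ) / N + 2) / 4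

theorem pos_rl4 (N : ℕ) (l : GLine4) (z : ℝ) (i : Fin 3) :
    (rl4 N l).pos ((z + 2) / 4) i = (1 / 64 : ℝ) * ((l.1 i : ℝ) / N + z * ((l.2 i : ℝ) / N)) := by
  simp only [Ln4.pos, rl4]; ring

theorem rl4_inj {N : ℕ} (hN : 1 ≤ N) {l l' : GLine4} (h : rl4 N l = rl4 N l') : l = l' := by
  have hN0 : (N : ℝ) ≠ 0 := by
    have : (0:ℝ) < N := by exact_mod_cast hN
    exact this.ne'
  have hv := congrArg Ln4.v h
  have hp := congrArg Ln4.p h
  have e2 : ∀ i, l.2 i = l'.2 i := by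
    intro i
    have h1 := congrFun hv i
    simp only [rl4] at h1
    have h2 : (l.2 i : ℝ) = l'.2 i := by
      have : (l.2 i : ℝ) / N = l'.2 i / N := by linarith
      field_simp at this; exact this
    exact_mod_cast h2
  have e1 : ∀ i, l.1 i = l'.1 i := by
    intro i
    have h1 := congrFun hp i
    simp only [rl4] at h1
    rw [e2 i] at h1
    have h2 : (l.1 i : ℝ) = l'.1 i := by
      have : (l.1 i : ℝ) / N = l'.1 i / N := by linarith
      field_simp at this; exact this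
    exact_mod_cast h2
  exact Prod.ext (funext e1) (funext e2)

theorem rh4_mem {N : ℕ} (hN : 1 ≤ N) {j : ℤ} (hj : |j| ≤ (N : ℤ)) :
    1 / 4 ≤ rh4 N j ∧ rh4 N j ≤ 3 / 4 := by
  have hN0 : (0:ℝ) < N := by exact_mod_cast hN
  have h1 : |(j:ℝ)| ≤ N := by exact_mod_cast hj
  rw [abs_le] at h1
  have h2 : -1 ≤ (j:ℝ) / N := by rw [le_div_iff₀ hN0]; linarith [h1.1]
  have h3 : (j:ℝ) / N ≤ 1 := by rw [div_le_one hN0]; exact h1.2
  unfold rh4
  constructor <;> linarith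

/-- heights in different cells of level `M` -/
theorem rh4_cell_inj {N M : ℕ} (hN : 1 ≤ N) (hM : 4 * N ≤ 2 ^ M) {j j' : ℤ}
    (h : ⌊(2:ℝ) ^ M * rh4 N j⌋ = ⌊(2:ℝ) ^ M * rh4 N j'⌋) : j = j' := by
  have hN0 : (0:ℝ) < N := by exact_mod_cast hN
  have h1 := Int.abs_sub_lt_one_of_floor_eq_floor h
  have h2 : (2:ℝ) ^ M * rh4 N j - 2 ^ M * rh4 N j' = (2 ^ M / (4 * N)) * ((j:ℝ) - j') := by
    unfold rh4; field_simp; ring
  have h3 : (1:ℝ) ≤ 2 ^ M / (4 * N) := by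
    rw [le_div_iff₀ (by positivity)]
    have : ((4 * N : ℕ) : ℝ) ≤ ((2 ^ M : ℕ) : ℝ) := by exact_mod_cast hM
    push_cast at this; linarith
  rw [h2, abs_mul, abs_of_pos (by linarith)] at h1
  have h4 : |(j:ℝ) - j'| < 1 := by
    have : |(j:ℝ) - j'| ≤ 2 ^ M / (4 * N) * |(j:ℝ) - j'| :=
      le_mul_of_one_le_left (abs_nonneg _) h3
    linarith
  have h5 : |j - j'| < 1 := by exact_mod_cast h4
  have := Int.abs_lt_one_iff.1 h5
  omega

/-- velocities of different lines are separated -/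
theorem vel_sep {N : ℕ} (hN : 1 ≤ N) {l l' : GLine4} (h : l.2 ≠ l'.2) :
    ∃ i, 1 / (16 * (N:ℝ)) ≤ |(rl4 N l).v i - (rl4 N l').v i| := by
  have hN0 : (0:ℝ) < N := by exact_mod_cast hN
  obtain ⟨i, hi⟩ := Function.ne_iff.1 h
  refine ⟨i, ?_⟩
  have h1 : (1:ℝ) ≤ |(l.2 i : ℝ) - l'.2 i| := by
    have : 1 ≤ |l.2 i - l'.2 i| := Int.one_le_abs (sub_ne_zero.2 hi)
    exact_mod_cast this
  have h2 : (rl4 N l).v i - (rl4 N l').v i = (1 / (16 * (N:ℝ))) * ((l.2 i : ℝ) - l'.2 i) := by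
    simp only [rl4]; field_simp
  rw [h2, abs_mul, abs_of_pos (by positivity)]
  exact le_mul_of_one_le_right (by positivity) h1

open Classical in
/-- **initial density**: a velocity separated grid family in a sheet of level `0`. -/
theorem kr_grid {N M : ℕ} (hN : 1 ≤ N) (hM : 16 * N ≤ 2 ^ M) (s : Finset GLine4)
    (hinj : Set.InjOn Prod.snd (s : Set GLine4)) {e : Fin 3 → V3} {c : Ln4} {w : V3}
    {q : ℝ → V3 → ℝ} {a : ℝ} (hS : Sheet e c w q a 0 1 (1 / 2 ^ M)) (hw : w 1 ≤ 1) :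
    ((s.filter fun l => InSheet (rl4 N l) e c w q a 0 1).card : ℝ) ≤
      128000000 * ((M : ℝ) + 6) ^ 2 * 8 ^ M * (a * w 2 * w 1) := by
  have hN0 : (0:ℝ) < N := by exact_mod_cast hN
  have hp : (0:ℝ) < 2 ^ M := by positivity
  have hMr : (16:ℝ) * N ≤ 2 ^ M := by
    have : ((16 * N : ℕ) : ℝ) ≤ ((2 ^ M : ℕ) : ℝ) := by exact_mod_cast hM
    push_cast at this; exact this
  have h := KR879.kr_sheet (s.filter fun l => InSheet (rl4 N l) e c w q a 0 1) (rl4 N)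
    (r0 := 1 / 2 ^ M) (by positivity) (by norm_num) hS (fun t ht => (mem_filter.1 ht).2)
    (fun t ht t' ht' hne => by
      have h1 : t.2 ≠ t'.2 := fun h2 => hne (hinj (mem_filter.1 ht).1 (mem_filter.1 ht').1 h2)
      obtain ⟨i, hi⟩ := vel_sep hN h1
      refine ⟨i, ?_⟩
      rw [one_mul]
      refine le_trans ?_ hi
      exact one_div_le_one_div_of_le (by positivity) hMr)
    (M + 4) (by
      rw [div_div_eq_mul_div, div_one, pow_add]
      nlinarith)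
  refine h.trans (le_of_eq ?_)
  have e1 : (8:ℝ) ^ M = (2 ^ M) ^ 3 := by rw [← pow_mul, mul_comm, pow_mul]; norm_num
  rw [e1]
  push_cast
  field_simp
  ring

/-- cell mates are close over the `z`-cell of level `M` -/
theorem close4 {N M : ℕ} (hN : 1 ≤ N) (hM' : 2 ^ M ≤ 32 * N)
    {x y : GLine4 × ℤ} (hx : Bd4 N x.1) (hy : Bd4 N y.1) (h : key4 N x = key4 N y) {z : ℝ}
    (hz : |z - rh4 N y.2| ≤ 1 / 2 ^ M) (i : Fin 3) :
    |(rl4 N x.1).pos z i - (rl4 N y.1).pos z i| ≤ 1 / 2 ^ M := by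
  have hN0 : (0:ℝ) < N := by exact_mod_cast hN
  have hMr' : (2:ℝ) ^ M ≤ 32 * N := by
    have : ((2 ^ M : ℕ) : ℝ) ≤ ((32 * N : ℕ) : ℝ) := by exact_mod_cast hM'
    push_cast at this; exact this
  have hp : (0:ℝ) < 2 ^ M := by positivity
  unfold key4 at h
  rw [Prod.mk.injEq] at h
  obtain ⟨h1, h2⟩ := h
  rw [← h2] at h1 hz
  set j := x.2 with hj
  have ha := (Int.abs_sub_lt_one_of_floor_eq_floor (congrFun h1 i)).le
  have bx : |(x.1.2 i : ℝ)| ≤ N := by exact_mod_cast (hx i).2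
  have bY : |(y.1.2 i : ℝ)| ≤ N := by exact_mod_cast (hy i).2
  set w : ℝ := 4 * z - 2 with hw
  have hzw : z = (w + 2) / 4 := by rw [hw]; ring
  have hwj : |w - (j:ℝ) / N| ≤ 4 / 2 ^ M := by
    have : w - (j:ℝ) / N = 4 * (z - rh4 N j) := by rw [hw]; unfold rh4; ring
    rw [this, abs_mul, abs_of_pos (by norm_num : (0:ℝ) < 4)]
    calc 4 * |z - rh4 N j| ≤ 4 * (1 / 2 ^ M) := by gcongr
      _ = _ := by ring
  rw [hzw, pos_rl4, pos_rl4]
  have e1 : (1 / 64 : ℝ) * ((x.1.1 i : ℝ) / N + w * ((x.1.2 i : ℝ) / N)) -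
      (1 / 64 : ℝ) * ((y.1.1 i : ℝ) / N + w * ((y.1.2 i : ℝ) / N)) =
      1 / 64 * ((1 / N) * (((x.1.1 i : ℝ) + x.1.2 i * (j:ℝ) / N) -
        ((y.1.1 i : ℝ) + y.1.2 i * (j:ℝ) / N)) +
      (w - (j:ℝ) / N) * (((x.1.2 i : ℝ) - y.1.2 i) / N)) := by field_simp; ring
  have e2 : |((x.1.2 i : ℝ) - y.1.2 i) / N| ≤ 2 := by
    rw [abs_div, abs_of_pos hN0, div_le_iff₀ hN0]
    calc |(x.1.2 i : ℝ) - y.1.2 i| ≤ |(x.1.2 i : ℝ)| + |(y.1.2 i : ℝ)| := abs_sub _ _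
      _ ≤ 2 * N := by linarith
  have e3 : (1:ℝ) / N ≤ 32 / 2 ^ M := by
    rw [div_le_div_iff₀ hN0 hp]; linarith
  rw [e1, abs_mul, abs_of_pos (by norm_num : (0:ℝ) < 1 / 64)]
  have e4 : |(1 / (N:ℝ)) * (((x.1.1 i : ℝ) + x.1.2 i * (j:ℝ) / N) -
      ((y.1.1 i : ℝ) + y.1.2 i * (j:ℝ) / N)) +
      (w - (j:ℝ) / N) * (((x.1.2 i : ℝ) - y.1.2 i) / N)| ≤ 40 / 2 ^ M := by
    calc _ ≤ |(1 / (N:ℝ)) * (((x.1.1 i : ℝ) + x.1.2 i * (j:ℝ) / N) -
          ((y.1.1 i : ℝ) + y.1.2 i * (j:ℝ) / N))| +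
          |(w - (j:ℝ) / N) * (((x.1.2 i : ℝ) - y.1.2 i) / N)| := abs_add_le _ _
      _ = (1 / N) * |((x.1.1 i : ℝ) + x.1.2 i * (j:ℝ) / N) -
          ((y.1.1 i : ℝ) + y.1.2 i * (j:ℝ) / N)| +
          |w - (j:ℝ) / N| * |((x.1.2 i : ℝ) - y.1.2 i) / N| := by
        rw [abs_mul, abs_mul, abs_of_pos (by positivity : (0:ℝ) < 1 / N)]
      _ ≤ (32 / 2 ^ M) * 1 + (4 / 2 ^ M) * 2 := by gcongr
      _ = 40 / 2 ^ M := by ring
  have e5 := mul_le_mul_of_nonneg_left e4 (by norm_num : (0:ℝ) ≤ 1 / 64)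
  refine e5.trans ?_
  have e6 : (1:ℝ) / 64 * (40 / 2 ^ M) = (5 / 8) * (1 / 2 ^ M) := by ring
  rw [e6]
  have h0 : (0:ℝ) ≤ 1 / 2 ^ M := by positivity
  linarith

/-- the standard frame -/
def stdE : Fin 3 → V3 := ![![1, 0, 0], ![0, 1, 0], ![0, 0, 1]]

theorem dt_std (i : Fin 3) (x : V3) : dt (stdE i) x = x i := by
  fin_cases i <;> simp [dt, stdE]

theorem ortho_std : Ortho stdE := by
  intro i j
  rw [dt_std]
  fin_cases i <;> fin_cases j <;> simp [stdE]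

/-- the height function of the small cube sheet -/
def cubeQ (c : Ln4) : ℝ → V3 → ℝ := fun z x => x 0 - c.pos z 0

/-- **the `r`-cube around a line is a sheet** (every level, resolution `r`) -/
theorem cubeSheet (c : Ln4) {r z0 ρ : ℝ} :
    Sheet stdE c ![r, r, r] (cubeQ c) r z0 ρ r where
  ortho := ortho_std
  isQ := by
    refine ⟨-c.p 0, -c.v 0, 0, ![1, 0, 0], 0, 0, fun z x => ?_⟩
    simp only [cubeQ, Ln4.pos, Fin.sum_univ_three, Pi.zero_apply, Matrix.cons_val_zero,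
      Matrix.cons_val_one, Matrix.cons_val]
    ring
  steep := by
    intro z _ _ x τ hτ _ _
    have : cubeQ c z (x + τ • stdE 0) - cubeQ c z x = τ := by
      simp only [cubeQ, stdE, Pi.add_apply, Pi.smul_apply, smul_eq_mul, Matrix.cons_val_zero]
      ring
    rw [this]; constructor <;> linarith
  a_le := le_rfl
  w_le := le_rfl
  r0_le := le_rfl
  res := by
    refine ⟨1, zero_le_one, ?_, by rw [mul_one]⟩
    intro z _ _ x x' _ _
    have : cubeQ c z x - cubeQ c z x' = x 0 - x' 0 := by simp only [cubeQ]; ring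
    rw [this, one_mul]
    have := abs_nonneg (x 1 - x' 1)
    have := abs_nonneg (x 2 - x' 2)
    linarith

theorem inCube {c t : Ln4} {r z0 ρ : ℝ}
    (h : ∀ z, z0 ≤ z → z ≤ z0 + ρ → ∀ i, |t.pos z i - c.pos z i| ≤ r) :
    InSheet t stdE c ![r, r, r] (cubeQ c) r z0 ρ := by
  intro z h0 h1
  refine ⟨fun i => ?_, ?_⟩
  · rw [dt_std]
    have := h z h0 h1 i
    fin_cases i <;> exact this
  · exact h z h0 h1 0

/-- the cell mates of `y` lie in the cube sheet of `y` over the cell of level `M` -/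
theorem mates_in {N M : ℕ} (hN : 1 ≤ N) (hM' : 2 ^ M ≤ 32 * N)
    {x y : GLine4 × ℤ} (hx : Bd4 N x.1) (hy : Bd4 N y.1) (h : key4 N x = key4 N y) :
    InSheet (rl4 N x.1) stdE (rl4 N y.1) ![1 / 2 ^ M, 1 / 2 ^ M, 1 / 2 ^ M]
      (cubeQ (rl4 N y.1)) (1 / 2 ^ M) ((⌊(2:ℝ) ^ M * rh4 N y.2⌋ : ℝ) / 2 ^ M) (1 / 2 ^ M) := by
  have hp : (0:ℝ) < 2 ^ M := by positivity
  apply inCube
  intro z h0 h1 i
  refine close4 hN hM' hx hy h ?_ i
  have f1 := Int.floor_le ((2:ℝ) ^ M * rh4 N y.2)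
  have f2 := Int.lt_floor_add_one ((2:ℝ) ^ M * rh4 N y.2)
  have g1 : (⌊(2:ℝ) ^ M * rh4 N y.2⌋ : ℝ) / 2 ^ M ≤ rh4 N y.2 := by
    rw [div_le_iff₀ hp]; linarith
  have g2 : rh4 N y.2 ≤ (⌊(2:ℝ) ^ M * rh4 N y.2⌋ : ℝ) / 2 ^ M + 1 / 2 ^ M := by
    rw [← add_div, le_div_iff₀ hp]; linarith
  rw [abs_le]; constructor <;> linarith

/-- the level of the grid -/
theorem exists_level {N : ℕ} (hN : 1 ≤ N) : ∃ M, 16 * N ≤ 2 ^ M ∧ 2 ^ M ≤ 32 * N ∧ 1 ≤ M := by
  refine ⟨Nat.clog 2 (16 * N), Nat.le_pow_clog one_lt_two _, ?_, ?_⟩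
  · have h1 : 2 ^ (Nat.clog 2 (16 * N) - 1) < 16 * N :=
      Nat.pow_pred_clog_lt_self one_lt_two (by omega)
    have hM1 : 1 ≤ Nat.clog 2 (16 * N) := by
      by_contra h
      have h0 : Nat.clog 2 (16 * N) = 0 := by omega
      have := Nat.le_pow_clog one_lt_two (16 * N)
      rw [h0] at this; omega
    have h2 : 2 ^ (Nat.clog 2 (16 * N)) = 2 * 2 ^ (Nat.clog 2 (16 * N) - 1) := by
      rw [← pow_succ']; congr 1; omega
    omega
  · by_contra h
    have h0 : Nat.clog 2 (16 * N) = 0 := by omega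
    have := Nat.le_pow_clog one_lt_two (16 * N)
    rw [h0] at this; omega

end

end Crest.Agent.R136.En879
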