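import Crest.Agent.R136.En4a_879

/-!
# R136: the enemy in `ℝ⁴`, part b (helper879): the negation of `KS4`, in powers of two

`enemy_raw`: if `KS4` fails there is `b0 > 0` such that for all `η > 0`, `M0` there is a grid
configuration with `16 N ≤ 2^M ≤ 32 N`, `M ≥ M0`, lines alive in `≥ 2^((1-η) M)` cells of level `M`,
multiplicity between `μ` and `2^(η M) μ`, `μ ≥ 2^(b0 M)`.
-/

set_option autoImplicit false

open Finset

namespace Crest.Agent.R136.En879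

open Sh605 KS879

noncomputable section

open Classical in
/-- a grid configuration, raw form -/
structure Raw (b0 η : ℝ) (N M : ℕ) (s : Finset GLine4) (I : Finset (GLine4 × ℤ)) (μ : ℝ) :
    Prop where
  N1 : 1 ≤ N
  M1 : 1 ≤ M
  hM : 16 * N ≤ 2 ^ M
  hM' : 2 ^ M ≤ 32 * N
  ne : s.Nonempty
  bd : ∀ l ∈ s, Bd4 N l
  inj : Set.InjOn Prod.snd (s : Set GLine4)
  many : (2:ℝ) ^ ((3 - η) * M) ≤ 32 ^ 3 * (s.card : ℝ)
  mem : ∀ x ∈ I, x.1 ∈ s ∧ |x.2| ≤ (N : ℤ)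
  own : ∀ l ∈ s, (2:ℝ) ^ ((1 - η) * M) ≤ 32 * ((I.filter (fun x => x.1 = l)).card : ℝ)
  mul : ∀ x ∈ I, μ ≤ ((I.filter (fun y => key4 N y = key4 N x)).card : ℝ) ∧
      ((I.filter (fun y => key4 N y = key4 N x)).card : ℝ) ≤ (2:ℝ) ^ (η * M) * μ
  big : (2:ℝ) ^ (b0 * M) ≤ μ

theorem Raw.Ine {b0 η : ℝ} {N M : ℕ} {s : Finset GLine4} {I : Finset (GLine4 × ℤ)} {μ : ℝ}
    (h : Raw b0 η N M s I μ) : I.Nonempty := by
  classical
  obtain ⟨l, hl⟩ := h.ne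
  have h1 := h.own l hl
  have h2 : (0:ℝ) < 2 ^ ((1 - η) * M) := by positivity
  have h3 : 0 < (I.filter (fun x => x.1 = l)).card := by
    by_contra h0
    have : (I.filter (fun x => x.1 = l)).card = 0 := by omega
    rw [this] at h1
    norm_num at h1
    linarith
  obtain ⟨x, hx⟩ := card_pos.1 h3
  exact ⟨x, (mem_filter.1 hx).1⟩

/-- `N ≥ 2^M / 32` in powers -/
theorem pow_N {N M : ℕ} (hN : 1 ≤ N) (hM' : 2 ^ M ≤ 32 * N) {x : ℝ} (hx : 0 ≤ x) :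
    (2:ℝ) ^ (x * M) ≤ 32 ^ x * (N:ℝ) ^ x := by
  have hN0 : (0:ℝ) < N := by exact_mod_cast hN
  have hMr' : (2:ℝ) ^ M ≤ 32 * N := by
    have : ((2 ^ M : ℕ) : ℝ) ≤ ((32 * N : ℕ) : ℝ) := by exact_mod_cast hM'
    push_cast at this; exact this
  rw [← Real.mul_rpow (by norm_num) hN0.le, mul_comm x, Real.rpow_mul (by norm_num),
    Real.rpow_natCast]
  exact Real.rpow_le_rpow (by positivity) hMr' hx

theorem pow_N' {N M : ℕ} (hN : 1 ≤ N) (hM : 16 * N ≤ 2 ^ M) {x : ℝ} (hx : 0 ≤ x) :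
    (N:ℝ) ^ x ≤ 2 ^ (x * M) := by
  have hN0 : (0:ℝ) < N := by exact_mod_cast hN
  have hMr : (16:ℝ) * N ≤ 2 ^ M := by
    have : ((16 * N : ℕ) : ℝ) ≤ ((2 ^ M : ℕ) : ℝ) := by exact_mod_cast hM
    push_cast at this; exact this
  rw [mul_comm x, Real.rpow_mul (by norm_num), Real.rpow_natCast]
  exact Real.rpow_le_rpow hN0.le (by linarith) hx

theorem enemy_raw (h : ¬ KS4) : ∃ b0 : ℝ, 0 < b0 ∧ ∀ η : ℝ, 0 < η → ∀ M0 : ℕ,
    ∃ (N M : ℕ) (s : Finset GLine4) (I : Finset (GLine4 × ℤ)) (μ : ℝ),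
      M0 ≤ M ∧ Raw b0 η N M s I μ := by
  classical
  unfold KS4 at h
  push Not at h
  obtain ⟨ε, hε, hfail⟩ := h
  refine ⟨ε, hε, fun η0 hη0 M0 => ?_⟩
  set η : ℝ := min η0 1 with hη
  have hηp : 0 < η := lt_min hη0 one_pos
  have hη1 : η ≤ 1 := min_le_right _ _
  have hηη : η ≤ η0 := min_le_left _ _
  set C : ℝ := 32 ^ ε + 27 * ((2:ℝ) ^ M0) ^ 3 with hC
  have hCp : 0 < C := by positivity
  obtain ⟨N, hN, s, I, μ, hs, hbd, hinj, hmany, hmem, hown, hmul, hbig⟩ := hfail η hηp C hCp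
  have hN0 : (0:ℝ) < N := by exact_mod_cast hN
  have hN1 : (1:ℝ) ≤ N := by exact_mod_cast hN
  obtain ⟨M, hM, hM', hM1⟩ := exists_level hN
  have hMr : (16:ℝ) * N ≤ 2 ^ M := by
    have : ((16 * N : ℕ) : ℝ) ≤ ((2 ^ M : ℕ) : ℝ) := by exact_mod_cast hM
    push_cast at this; exact this
  have hNε : (1:ℝ) ≤ (N:ℝ) ^ ε := Real.one_le_rpow hN1 hε.le
  -- `I` is non-empty
  have hIne : I.Nonempty := by
    obtain ⟨l, hl⟩ := hs
    have h1 := hown l hl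
    have h2 : (0:ℝ) < (N:ℝ) ^ (1 - η) := by positivity
    have h3 : 0 < (I.filter (fun x => x.1 = l)).card := by
      by_contra h0
      have : (I.filter (fun x => x.1 = l)).card = 0 := by omega
      rw [this] at h1
      norm_num at h1
      linarith
    obtain ⟨x, hx⟩ := card_pos.1 h3
    exact ⟨x, (mem_filter.1 hx).1⟩
  -- the multiplicity is at most the number of lines
  have hμs : μ ≤ 27 * (N:ℝ) ^ 3 := by
    obtain ⟨x, hx⟩ := hIne
    refine (hmul x hx).1.trans ?_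
    refine le_trans ?_ (card_le_of_inj hN hbd hinj)
    refine Nat.cast_le.2 (card_le_card_of_injOn (fun y => y.1) (fun y hy => ?_) ?_)
    · rw [Finset.mem_coe, mem_filter] at hy
      exact (hmem y hy.1).1
    · intro y hy y' hy' hyy
      rw [Finset.mem_coe, mem_filter] at hy hy'
      have h1 : y.2 = y'.2 := by
        have := congrArg Prod.snd (hy.2.trans hy'.2.symm); simpa [key4] using this
      exact Prod.ext hyy h1
  refine ⟨N, M, s, I, μ, ?_, ⟨hN, hM1, hM, hM', hs, hbd, hinj, ?_, hmem, ?_, ?_, ?_⟩⟩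
  · -- `M0 ≤ M`
    have h1 : C < 27 * (N:ℝ) ^ 3 := by
      calc C ≤ C * (N:ℝ) ^ ε := le_mul_of_one_le_right hCp.le hNε
        _ < μ := hbig
        _ ≤ _ := hμs
    have h2 : ((2:ℝ) ^ M0) ^ 3 < (N:ℝ) ^ 3 := by
      have : (0:ℝ) < 32 ^ ε := by positivity
      rw [hC] at h1
      linarith
    have h3 : (2:ℝ) ^ M0 < N := lt_of_pow_lt_pow_left₀ 3 hN0.le h2
    have h4 : (2:ℝ) ^ M0 ≤ 2 ^ M := by linarith
    exact (pow_le_pow_iff_right₀ one_lt_two).1 h4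
  · have h1 := pow_N hN hM' (x := 3 - η) (by linarith)
    have h2 : (2:ℝ) ^ ((3 - η0) * M) ≤ 2 ^ ((3 - η) * M) := by
      apply Real.rpow_le_rpow_of_exponent_le (by norm_num)
      have : (0:ℝ) ≤ M := Nat.cast_nonneg M
      nlinarith
    have h3 : (32:ℝ) ^ (3 - η) ≤ 32 ^ 3 := by
      rw [← Real.rpow_natCast 32 3]
      apply Real.rpow_le_rpow_of_exponent_le (by norm_num)
      push_cast; linarith
    calc (2:ℝ) ^ ((3 - η0) * M) ≤ 2 ^ ((3 - η) * M) := h2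
      _ ≤ 32 ^ (3 - η) * (N:ℝ) ^ (3 - η) := h1
      _ ≤ 32 ^ 3 * (s.card : ℝ) := by gcongr
  · intro l hl
    have h1 := pow_N hN hM' (x := 1 - η) (by linarith)
    have h2 : (2:ℝ) ^ ((1 - η0) * M) ≤ 2 ^ ((1 - η) * M) := by
      apply Real.rpow_le_rpow_of_exponent_le (by norm_num)
      have : (0:ℝ) ≤ M := Nat.cast_nonneg M
      nlinarith
    have h3 : (32:ℝ) ^ (1 - η) ≤ 32 := by
      calc (32:ℝ) ^ (1 - η) ≤ 32 ^ (1:ℝ) :=
            Real.rpow_le_rpow_of_exponent_le (by norm_num) (by linarith)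
        _ = 32 := Real.rpow_one _
    calc (2:ℝ) ^ ((1 - η0) * M) ≤ 2 ^ ((1 - η) * M) := h2
      _ ≤ 32 ^ (1 - η) * (N:ℝ) ^ (1 - η) := h1
      _ ≤ 32 * ((I.filter (fun x => x.1 = l)).card : ℝ) := by
        have := hown l hl
        gcongr
  · intro x hx
    obtain ⟨h1, h2⟩ := hmul x hx
    have hμ0 : 0 < μ := (by positivity : (0:ℝ) < C * (N:ℝ) ^ ε).trans hbig
    refine ⟨h1, h2.trans ?_⟩
    have h3 := pow_N' hN hM hηp.le
    have h4 : (2:ℝ) ^ (η * M) ≤ 2 ^ (η0 * M) := by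
      apply Real.rpow_le_rpow_of_exponent_le (by norm_num)
      have : (0:ℝ) ≤ M := Nat.cast_nonneg M
      nlinarith
    have h5 := h3.trans h4
    gcongr
  · have h1 := pow_N hN hM' (x := ε) hε.le
    calc (2:ℝ) ^ (ε * M) ≤ 32 ^ ε * (N:ℝ) ^ ε := h1
      _ ≤ C * (N:ℝ) ^ ε := by
        have : (0:ℝ) ≤ 27 * ((2:ℝ) ^ M0) ^ 3 := by positivity
        have h3 : (32:ℝ) ^ ε ≤ C := by rw [hC]; linarith
        gcongr
      _ ≤ μ := hbig.le

end

end Crest.Agent.R136.En879
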