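import Crest.Agent.R136.Geo2_186
import Crest.Agent.R136.Sh3_605

/-!
# R136 (S0187): END, part 2 (helper882): the container in the gauge chart

`sbox lam w1 w2 a` = half-sides (in the 11 coordinates of 186's chart) of the box "one sheet of widths
`w1, w2`, thickness `a` over a cell of length `lam`".  `inSheet_of_box` : everything in the box of `i`
lies in the sheet of `i`; `near_nrm` : two incidences in one scaled box `sbox (ρ lam) (ρ w1) (ρ w2)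
(ρ a)` are `O(ρ)`-close in the normalised coordinates of that sheet.
-/

set_option autoImplicit false
set_option linter.unusedVariables false

namespace Crest.Agent.R136.End882

open Crest.Agent.R136.NetQ186
open Crest.Agent.R136.GeoQ186
open Crest.Agent.R136.Sh605

/-- half-sides of the sheet box -/
noncomputable def sbox (lam w1 w2 a : ℝ) : Fin 11 → ℝ :=
  ![lam, a / lam ^ 2, w2 / w1, a / w2, a / w1, w1 / lam, w2 / lam, a / lam, w1, w2, a]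

/-- widths of the sheet of a box, `w 0` = range of the chart -/
noncomputable def shw (K Λ w1 w2 a : ℝ) : V3 := ![3 * K * a + Λ * (6 * K * w1), 6 * K * w1, 2 * K * w2]

/-- everything in the box of `i` lies in the sheet of `i` -/
theorem inSheet_of_box {g : Fin 6 → ℝ} {i j : Fq4} {t t' : Ln4} (ht : TrueLn g i t)
    (ht' : TrueLn g j t') (he : |i.e| ≤ 1) (hfa : |i.fa| ≤ 1) (hfb : |i.fb| ≤ 1) {G R X : ℝ}
    (hG : ∀ k, |g k| ≤ G) {K lam w1 w2 a : ℝ} (hK : 0 ≤ K) (hlam : 0 < lam) (hw2 : 0 ≤ w2)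
    (hw : w2 ≤ w1) (ha : 0 ≤ a) (hs : ∀ k, |coQ i j k| ≤ K * sbox lam w1 w2 a k) {z0 ρ : ℝ}
    (hR : ∀ z, z0 ≤ z → z ≤ z0 + ρ → |z| ≤ R)
    (hX : ∀ z, z0 ≤ z → z ≤ z0 + ρ → |i.pa z| ≤ X ∧ |i.pb z| ≤ X ∧ |j.pa z| ≤ X ∧ |j.pb z| ≤ X)
    (hρ : ∀ z, z0 ≤ z → z ≤ z0 + ρ → |z - i.z| ≤ lam) (hL : 0 ≤ 1 + G * (R + 3 * X)) :
    InSheet t' (frm i.e) t (shw K (1 + G * (R + 3 * X)) w1 w2 a) (qf g i) (3 * K * a) z0 ρ := by
  have hw1 : 0 ≤ w1 := hw2.trans hw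
  have e5 : lam * (K * (w1 / lam)) = K * w1 := by field_simp
  have e6 : lam * (K * (w2 / lam)) = K * w2 := by field_simp
  have e7 : lam * (K * (a / lam)) = K * a := by field_simp
  have e1 : lam ^ 2 * (K * (a / lam ^ 2)) = K * a := by field_simp
  have hKw : K * w2 ≤ K * w1 := mul_le_mul_of_nonneg_left hw hK
  have key : 2 * (K * w1 + K * w1) + (K * w2 + K * w2) ≤ 6 * K * w1 := by linarith
  refine box_inSheet (s := fun k => K * sbox lam w1 w2 a k) (ρ' := lam) ht ht' he hfa hfb hG hs hR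
    hX hρ ?_ ?_ ?_ ?_
  · show 2 * (K * w1 + lam * (K * (w1 / lam))) + (K * w2 + lam * (K * (w2 / lam))) ≤ 6 * K * w1
    rw [e5, e6]
    exact key
  · show K * w2 + lam * (K * (w2 / lam)) ≤ 2 * K * w2
    rw [e6]; linarith
  · show K * a + lam * (K * (a / lam)) + lam ^ 2 * (K * (a / lam ^ 2)) ≤ 3 * K * a
    rw [e7, e1]; linarith
  · show 3 * K * a + (1 + G * (R + 3 * X)) * (2 * (K * w1 + lam * (K * (w1 / lam))) +
      (K * w2 + lam * (K * (w2 / lam)))) ≤ 3 * K * a + (1 + G * (R + 3 * X)) * (6 * K * w1)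
    rw [e5, e6]
    have := mul_le_mul_of_nonneg_left key hL
    linarith

/-- the sheet of a box -/
theorem sheet_of_box {g : Fin 6 → ℝ} {i : Fq4} {t : Ln4} (ht : TrueLn g i t) (he : |i.e| ≤ 1)
    (hfa : |i.fa| ≤ 1) (hfb : |i.fb| ≤ 1) {G R X : ℝ} (hG : ∀ k, |g k| ≤ G)
    {K w1 w2 a z0 ρ r0 : ℝ} (hK : 0 ≤ K) (hR : ∀ z, z0 ≤ z → z ≤ z0 + ρ → |z| ≤ R)
    (hX : ∀ z, z0 ≤ z → z ≤ z0 + ρ → |i.pa z| + 16 * (K * w1) ≤ X ∧
      |i.pb z| + 16 * (K * w1) ≤ X) (hL : 0 ≤ G * (R + 3 * X)) (hw2 : 0 ≤ w2)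
    (hw : w2 ≤ w1) (haw : 3 * a ≤ 2 * w2) (hr : r0 ≤ 3 * K * a)
    (hres : r0 * (1 + G * (R + 3 * X)) ≤ 3 * K * a) :
    Sheet (frm i.e) t (shw K (1 + G * (R + 3 * X)) w1 w2 a) (qf g i) (3 * K * a) z0 ρ r0 := by
  have hKw : K * w2 ≤ K * w1 := mul_le_mul_of_nonneg_left hw hK
  refine sheetQ ht he hfa hfb hG hR ?_ hL ?_ ?_ hr hres
  · intro z h1 h2
    obtain ⟨a1, a2⟩ := hX z h1 h2
    show |i.pa z| + (2 * (6 * K * w1) + 2 * (2 * K * w2)) ≤ X ∧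
      |i.pb z| + (2 * (6 * K * w1) + 2 * (2 * K * w2)) ≤ X
    constructor <;> linarith
  · show 3 * K * a ≤ 2 * K * w2
    have := mul_le_mul_of_nonneg_left haw hK
    linarith
  · show 2 * K * w2 ≤ 6 * K * w1
    have : 0 ≤ K * w1 := mul_nonneg hK (hw2.trans hw)
    linarith

/-- relative normal position of `y` and `x` seen from `i` -/
theorem rn_sub (i x y : Fq4) (z : ℝ) :
    rn i y z - rn i x z = rn x y z +
      (coQ i x 4 + (x.e - i.e) * (x.fb - i.fb)) * ra x y z + (x.fb - i.fb) * rb x y z := by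
  simp only [rn, ra, rb, coQ, Matrix.cons_val]
  ring

section real

variable {K ρ w1 w2 a A B N c4 dE dF : ℝ}

theorem aux_N (hK : 1 ≤ K) (hρ : 0 < ρ) (hw2 : 0 < w2) (hw1 : 0 < w1) (ha : 0 < a)
    (c2 : |dE| ≤ K * (w2 / w1)) (c3 : |dF| ≤ K * (a / w2)) (h4 : |c4| ≤ K * (a / w1))
    (hA : |A| ≤ 2 * K * ρ * w1) (hB : |B| ≤ 2 * K * ρ * w2) (hN : |N| ≤ 3 * K * ρ * a) :
    |N + (c4 + dE * dF) * A + dF * B| ≤ 3 * K ^ 2 * ρ * (3 * K * a) := by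
  have hK2 : K ≤ K ^ 2 := by nlinarith
  have h2 : K ^ 2 ≤ K ^ 3 := by nlinarith [sq_nonneg K]
  have e1 : K * (w2 / w1) * (K * (a / w2)) = K ^ 2 * (a / w1) := by field_simp
  have b1 : |c4 + dE * dF| ≤ 2 * K ^ 2 * (a / w1) := by
    refine (aux_a2 h4 (aux_m2 c2 c3)).trans ?_
    rw [e1]
    have : K * (a / w1) ≤ K ^ 2 * (a / w1) := mul_le_mul_of_nonneg_right hK2 (by positivity)
    linarith
  refine (aux_a2 (aux_a2 hN (aux_m2 b1 hA)) (aux_m2 c3 hB)).trans ?_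
  have e2 : 2 * K ^ 2 * (a / w1) * (2 * K * ρ * w1) = 4 * K ^ 3 * (ρ * a) := by
    field_simp; norm_num
  have e3 : K * (a / w2) * (2 * K * ρ * w2) = 2 * K ^ 2 * (ρ * a) := by
    field_simp
  have e4 : 3 * K ^ 2 * ρ * (3 * K * a) = 9 * K ^ 3 * (ρ * a) := by ring
  have e5 : 3 * K * ρ * a = 3 * K * (ρ * a) := by ring
  rw [e2, e3, e4, e5, ← add_mul, ← add_mul]
  exact mul_le_mul_of_nonneg_right (by linarith) (by positivity)

theorem aux_A {e e' : ℝ} (hK : 1 ≤ K) (hρ : 0 < ρ) (hw2 : 0 < w2) (hw : w2 ≤ w1)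
    (he : |e| ≤ 1) (he' : |e'| ≤ 1) (hA : |A| ≤ 2 * K * ρ * w1) (hB : |B| ≤ 2 * K * ρ * w2) :
    |A + e * (B + e' * A)| ≤ 3 * K ^ 2 * ρ * (6 * K * w1) := by
  refine (aux_a2 hA (aux_m2 he (aux_a2 hB (aux_m2 he' hA)))).trans ?_
  have h0 : 0 ≤ K * ρ := by positivity
  have h1 : K * ρ * w2 ≤ K * ρ * w1 := mul_le_mul_of_nonneg_left hw h0
  have h2 : 1 ≤ 3 * K ^ 2 := by nlinarith
  have h3 : 0 ≤ K * ρ * w1 := mul_nonneg h0 (hw2.le.trans hw)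
  have h4 : K * ρ * w1 ≤ 3 * K ^ 2 * (K * ρ * w1) := le_mul_of_one_le_left h3 h2
  have e1 : 3 * K ^ 2 * ρ * (6 * K * w1) = 6 * (3 * K ^ 2 * (K * ρ * w1)) := by ring
  rw [e1]
  linarith

theorem aux_B (hK : 1 ≤ K) (hρ : 0 < ρ) (hw2 : 0 < w2) (hw1 : 0 < w1)
    (c2 : |dE| ≤ K * (w2 / w1)) (hA : |A| ≤ 2 * K * ρ * w1) (hB : |B| ≤ 2 * K * ρ * w2) :
    |B + dE * A| ≤ 3 * K ^ 2 * ρ * (2 * K * w2) := by
  refine (aux_a2 hB (aux_m2 c2 hA)).trans ?_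
  have e1 : K * (w2 / w1) * (2 * K * ρ * w1) = 2 * K ^ 2 * (ρ * w2) := by field_simp
  have e2 : 2 * K * ρ * w2 = 2 * K * (ρ * w2) := by ring
  have e3 : 3 * K ^ 2 * ρ * (2 * K * w2) = 6 * K ^ 3 * (ρ * w2) := by ring
  rw [e1, e2, e3, ← add_mul]
  have hK2 : K ≤ K ^ 2 := by nlinarith
  have h2 : K ^ 2 ≤ K ^ 3 := by nlinarith [sq_nonneg K]
  exact mul_le_mul_of_nonneg_right (by nlinarith) (by positivity)

end real

/-- moving inside a scaled box -/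
theorem move_small {x y : Fq4} {K lam w1 w2 a ρ : ℝ} (hlam : 0 < lam) (hρ : 0 < ρ)
    (hxy : ∀ k, |coQ x y k| ≤ K * sbox (ρ * lam) (ρ * w1) (ρ * w2) (ρ * a) k) {z : ℝ}
    (hz : |z - x.z| ≤ ρ * lam) :
    |ra x y z| ≤ 2 * K * ρ * w1 ∧ |rb x y z| ≤ 2 * K * ρ * w2 ∧ |rn x y z| ≤ 3 * K * ρ * a := by
  obtain ⟨ma, mb, mn⟩ := box_move (s := fun k => K * sbox (ρ * lam) (ρ * w1) (ρ * w2) (ρ * a) k)
    hxy hz
  have hl : ρ * lam ≠ 0 := by positivity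
  have f : ∀ s : ℝ, ρ * lam * (K * (s / (ρ * lam))) = K * s := fun s => by field_simp
  have f2 : (ρ * lam) ^ 2 * (K * (ρ * a / (ρ * lam) ^ 2)) = K * (ρ * a) := by field_simp
  refine ⟨ma.trans (le_of_eq ?_), mb.trans (le_of_eq ?_), mn.trans (le_of_eq ?_)⟩
  · show K * (ρ * w1) + ρ * lam * (K * (ρ * w1 / (ρ * lam))) = _
    rw [f]; ring
  · show K * (ρ * w2) + ρ * lam * (K * (ρ * w2 / (ρ * lam))) = _
    rw [f]; ring
  · show K * (ρ * a) + ρ * lam * (K * (ρ * a / (ρ * lam))) +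
      (ρ * lam) ^ 2 * (K * (ρ * a / (ρ * lam) ^ 2)) = _
    rw [f, f2]; ring

/-- two incidences in one scaled box are close in the normalised coordinates of the sheet of `i` -/
theorem near_nrm {g : Fin 6 → ℝ} {i x y : Fq4} {tx ty : Ln4} (hx : TrueLn g x tx)
    (hy : TrueLn g y ty) (he : |i.e| ≤ 1) (hex : |x.e| ≤ 1) {K lam w1 w2 a ρ Λ : ℝ} (hK : 1 ≤ K)
    (hlam : 0 < lam) (hρ : 0 < ρ) (hw2 : 0 < w2) (hw : w2 ≤ w1) (ha : 0 < a)
    (hix : ∀ k, |coQ i x k| ≤ K * sbox lam w1 w2 a k)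
    (hxy : ∀ k, |coQ x y k| ≤ K * sbox (ρ * lam) (ρ * w1) (ρ * w2) (ρ * a) k) {z : ℝ}
    (hz : |z - x.z| ≤ ρ * lam) (k : Fin 3) :
    |nrm (frm i.e) (shw K Λ w1 w2 a) (qf g i) (3 * K * a) tx ty z k| ≤ 3 * K ^ 2 * ρ := by
  have hK0 : 0 < K := by linarith
  have hw1 : 0 < w1 := hw2.trans_le hw
  obtain ⟨ma, mb, mn⟩ := move_small hlam hρ hxy hz
  have c2 : |x.e - i.e| ≤ K * (w2 / w1) := hix 2
  have c3 : |x.fb - i.fb| ≤ K * (a / w2) := hix 3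
  have c4 : |coQ i x 4| ≤ K * (a / w1) := hix 4
  obtain ⟨tx0, tx1, tx2⟩ := hx z
  obtain ⟨ty0, ty1, ty2⟩ := hy z
  have hn := nu_ge i.e
  have hp := nu_pos i.e
  -- lateral differences
  have d1 : (ty.pos z - tx.pos z) 1 = ra x y z := by
    rw [Pi.sub_apply, ty1, tx1]; rfl
  have d2 : (ty.pos z - tx.pos z) 2 = rb x y z + x.e * ra x y z := by
    rw [Pi.sub_apply, ty2, tx2, rb, ra]; ring
  have hpos : 0 ≤ 3 * K ^ 2 * ρ := by positivity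
  match k with
  | 0 =>
    rw [nrm_zero, qf_line hy, qf_line hx, rn_sub, abs_div, abs_of_pos (by positivity : 0 < 3 * K * a),
      div_le_iff₀ (by positivity)]
    exact aux_N hK hρ hw2 hw1 ha c2 c3 c4 ma mb mn
  | 1 =>
    rw [nrm_one, dt_frm1, d1, d2]
    show |_ / (6 * K * w1)| ≤ _
    rw [abs_div, abs_div, abs_of_pos hp, abs_of_pos (by positivity : 0 < 6 * K * w1),
      div_le_iff₀ (by positivity), div_le_iff₀ hp]
    exact (aux_A hK hρ hw2 hw he hex ma mb).trans (le_mul_of_one_le_right (by positivity) hn)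
  | 2 =>
    rw [nrm_two, dt_frm2, d1, d2]
    show |_ / (2 * K * w2)| ≤ _
    rw [abs_div, abs_div, abs_of_pos hp, abs_of_pos (by positivity : 0 < 2 * K * w2),
      div_le_iff₀ (by positivity), div_le_iff₀ hp]
    have e0 : rb x y z + x.e * ra x y z - i.e * ra x y z =
        rb x y z + (x.e - i.e) * ra x y z := by ring
    rw [e0]
    exact (aux_B hK hρ hw2 hw1 c2 ma mb).trans (le_mul_of_one_le_right (by positivity) hn)

end Crest.Agent.R136.End882
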