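import Crest.Agent.R136.End9_882
import Crest.Agent.R136.End2_882

/-!
# R136 (S0187): END, part 10 (helper882): finite form in the gauge chart of helper186

`FQ_qf` : the function of an incidence is explicit around every true line;
`end_chart` : END for a family of incidences which are pairwise near in one box.
-/

set_option autoImplicit false
set_option linter.unusedVariables false

namespace Crest.Agent.R136.End882

open Finset
open Crest.Agent.R136.NetQ186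
open Crest.Agent.R136.GeoQ186
open Crest.Agent.R136.LmQ861 Crest.Agent.R136.HR829
open Crest.Agent.R136.Sh605 hiding frm
open Crest.Agent.R138.Mk163 (zc zl rho alive own)

/-- the standard frame -/
def std : Fin 3 → V3 := ![![1, 0, 0], ![0, 1, 0], ![0, 0, 1]]

theorem dt_std (k : Fin 3) (x : V3) : dt (std k) x = x k := by
  fin_cases k <;> simp [std, dt]

/-- the function of an incidence around a true line, standard frame -/
theorem FQ_qf_std {g : Fin 6 → ℝ} {i j : Fq4} {t : Ln4} (h : TrueLn g j t) (z1 : ℝ) :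
    FQ std t (qf g i) z1 (gA g z1 (j.pa z1) (j.pb z1) + i.fa) (gB g z1 (j.pa z1) (j.pb z1) + i.fb)
      (g 1 + 2 * g 3 * j.ca + g 4 * j.cb) (g 2 + g 4 * j.ca + 2 * g 5 * j.cb) (g 3) (g 4) (g 5) := by
  intro z x
  obtain ⟨h0, h1, h2⟩ := h z
  simp only [dt_std, Pi.sub_apply, qf, h0, h1, h2]
  have e0 : x 1 = j.pa z + (x 1 - j.pa z) := by ring
  have e1 : x 2 = j.pb z + (x 2 - j.pb z) := by ring
  generalize hu : x 1 - j.pa z = u at e0 ⊢
  generalize hv : x 2 - j.pb z = v at e1 ⊢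
  rw [e0, e1]
  simp only [gau, gA, gB, Fq4.pa, Fq4.pb]
  ring

theorem rot_std (E : ℝ) : rot std (1 / nu E) (E / nu E) = frm E := by
  funext k j
  fin_cases k <;> fin_cases j <;> simp [rot, std, frm, neg_div]

theorem unit_nu (E : ℝ) : (1 / nu E) ^ 2 + (E / nu E) ^ 2 = 1 := by
  have h := nu_sq E
  have hp := (nu_pos E).ne'
  field_simp
  linarith

/-- coefficients of the function of an incidence in the frame `frm E` -/
structure QCo (g : Fin 6 → ℝ) (i : Fq4) (E z1 s1 s2 m1 m2 k11 k12 k22 : ℝ) : Prop where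
  s1 : s1 = 1 / nu E * (gA g z1 (i.pa z1) (i.pb z1) + i.fa) +
    E / nu E * (gB g z1 (i.pa z1) (i.pb z1) + i.fb)
  s2 : s2 = -(E / nu E) * (gA g z1 (i.pa z1) (i.pb z1) + i.fa) +
    1 / nu E * (gB g z1 (i.pa z1) (i.pb z1) + i.fb)
  m1 : m1 = 1 / nu E * (g 1 + 2 * g 3 * i.ca + g 4 * i.cb) +
    E / nu E * (g 2 + g 4 * i.ca + 2 * g 5 * i.cb)
  m2 : m2 = -(E / nu E) * (g 1 + 2 * g 3 * i.ca + g 4 * i.cb) +
    1 / nu E * (g 2 + g 4 * i.ca + 2 * g 5 * i.cb)
  k11 : k11 = (1 / nu E) ^ 2 * g 3 + 1 / nu E * (E / nu E) * g 4 + (E / nu E) ^ 2 * g 5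
  k12 : k12 = -2 * (1 / nu E * (E / nu E)) * g 3 + ((1 / nu E) ^ 2 - (E / nu E) ^ 2) * g 4 +
    2 * (1 / nu E * (E / nu E)) * g 5
  k22 : k22 = (E / nu E) ^ 2 * g 3 - 1 / nu E * (E / nu E) * g 4 + (1 / nu E) ^ 2 * g 5

theorem FQ_qf {g : Fin 6 → ℝ} {i : Fq4} {t : Ln4} (h : TrueLn g i t) {E z1 s1 s2 m1 m2 k11 k12 k22 : ℝ}
    (hc : QCo g i E z1 s1 s2 m1 m2 k11 k12 k22) :
    FQ (frm E) t (qf g i) z1 s1 s2 m1 m2 k11 k12 k22 := by
  have := (FQ_qf_std (i := i) h z1).rot (unit_nu E)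
  rw [rot_std] at this
  rw [hc.s1, hc.s2, hc.m1, hc.m2, hc.k11, hc.k12, hc.k22]
  exact this

/-- slopes at the incidence itself = true flags -/
theorem slope_qf {g : Fin 6 → ℝ} {i : Fq4} {E z1 s1 s2 m1 m2 k11 k12 k22 : ℝ}
    (hc : QCo g i E z1 s1 s2 m1 m2 k11 k12 k22)
    (hA : |gA g z1 (i.pa z1) (i.pb z1) + i.fa| ≤ 1)
    (hB : |gB g z1 (i.pa z1) (i.pb z1) + i.fb| ≤ 1) : |s1| ≤ 3 / 2 ∧ |s2| ≤ 3 / 2 := by
  set X := gA g z1 (i.pa z1) (i.pb z1) + i.fa
  set Y := gB g z1 (i.pa z1) (i.pb z1) + i.fb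
  have hu := unit_nu E
  set α := 1 / nu E
  set β := E / nu E
  have hX : X ^ 2 ≤ 1 := by rw [← sq_abs]; nlinarith [abs_nonneg X]
  have hY : Y ^ 2 ≤ 1 := by rw [← sq_abs]; nlinarith [abs_nonneg Y]
  have key : s1 ^ 2 + s2 ^ 2 ≤ 2 := by
    rw [hc.s1, hc.s2]
    have : (α * X + β * Y) ^ 2 + (-β * X + α * Y) ^ 2 = (α ^ 2 + β ^ 2) * (X ^ 2 + Y ^ 2) := by ring
    rw [this, hu]; linarith
  constructor
  · refine abs_le_of_sq_le_sq ?_ (by norm_num)
    nlinarith [sq_nonneg s2]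
  · refine abs_le_of_sq_le_sq ?_ (by norm_num)
    nlinarith [sq_nonneg s1]

/-- lateral differences of two true lines in the frame of `i` -/
theorem frm_diff {g : Fin 6 → ℝ} {i j l : Fq4} {tj tl : Ln4} (hj : TrueLn g j tj)
    (hl : TrueLn g l tl) (he : |i.e| ≤ 1) {z X Y : ℝ} (hX : |l.pa z - j.pa z| ≤ X)
    (hY : |(l.pb z - j.pb z) - i.e * (l.pa z - j.pa z)| ≤ Y) :
    |dt (frm i.e 1) (tl.pos z - tj.pos z)| ≤ 3 / 2 * X + Y ∧
    |dt (frm i.e 2) (tl.pos z - tj.pos z)| ≤ Y := by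
  obtain ⟨h0, h1, h2⟩ := hj z
  obtain ⟨g0, g1, g2⟩ := hl z
  have hn := nu_ge i.e
  have hp := nu_pos i.e
  have hs := nu_sq i.e
  have hnl := nu_le he
  set p := l.pa z - j.pa z with hpd
  set r := (l.pb z - j.pb z) - i.e * (l.pa z - j.pa z) with hrd
  rw [dt_frm1, dt_frm2]
  simp only [Pi.sub_apply, h1, h2, g1, g2]
  have hX0 : 0 ≤ X := (abs_nonneg _).trans hX
  have hY0 : 0 ≤ Y := (abs_nonneg _).trans hY
  constructor
  · have e1 : (l.pa z - j.pa z + i.e * (l.pb z - j.pb z)) / nu i.e = nu i.e * p + i.e * r / nu i.e := by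
      rw [hpd, hrd]
      field_simp
      rw [hs]; ring
    rw [e1]
    refine (abs_add_le _ _).trans (add_le_add ?_ ?_)
    · rw [abs_mul, abs_of_pos hp]
      exact mul_le_mul hnl hX (abs_nonneg _) (by norm_num)
    · rw [abs_div, abs_of_pos hp, div_le_iff₀ hp, abs_mul]
      calc |i.e| * |r| ≤ 1 * Y := mul_le_mul he hY (abs_nonneg _) (by norm_num)
        _ = Y := one_mul _
        _ ≤ Y * nu i.e := le_mul_of_one_le_right hY0 hn
  · have e1 : (l.pb z - j.pb z - i.e * (l.pa z - j.pa z)) / nu i.e = r / nu i.e := by rw [hrd]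
    rw [e1, abs_div, abs_of_pos hp, div_le_iff₀ hp]
    exact hY.trans (le_mul_of_one_le_right hY0 hn)

/-- moving inside a box, all slots scaled -/
theorem move_box {x y : Fq4} {K lam w1 w2 a : ℝ} (hlam : 0 < lam)
    (hxy : ∀ k, |coQ x y k| ≤ K * sbox lam w1 w2 a k) {z : ℝ} (hz : |z - x.z| ≤ lam) :
    |ra x y z| ≤ 2 * K * w1 ∧ |rb x y z| ≤ 2 * K * w2 ∧ |rn x y z| ≤ 3 * K * a := by
  have h := move_small (ρ := 1) hlam one_pos (by simpa using hxy) (by simpa using hz)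
  simpa using h

/-- neighbours are close over the whole cell -/
theorem nbr_nrm {g : Fin 6 → ℝ} {i x y : Fq4} {tx ty : Ln4} (hx : TrueLn g x tx)
    (hy : TrueLn g y ty) (he : |i.e| ≤ 1) {K δ lam w1 w2 a W0 : ℝ} (hK : 1 ≤ K) (hδ : 0 ≤ δ)
    (hlam : 0 < lam) (hw2 : 0 < w2) (hw : w2 ≤ w1) (ha : 0 < a)
    (hix : ∀ k, |coQ i x k| ≤ K * sbox lam w1 w2 a k)
    (hxy : ∀ k, |coQ x y k| ≤ δ * sbox lam w1 w2 a k) {z : ℝ}
    (hz : |z - x.z| ≤ lam) (k : Fin 3) :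
    |nrm (frm i.e) ![W0, 6 * K * w1, 2 * K * w2] (qf g i) (3 * K * a) tx ty z k| ≤ 3 * K * δ := by
  have hK0 : 0 < K := by linarith
  have hw1 : 0 < w1 := hw2.trans_le hw
  obtain ⟨ma, mb, mn⟩ := move_box hlam hxy hz
  have c2 : |x.e - i.e| ≤ K * (w2 / w1) := hix 2
  have c3 : |x.fb - i.fb| ≤ K * (a / w2) := hix 3
  have c4 : |coQ i x 4| ≤ K * (a / w1) := hix 4
  have hr : |(y.pb z - x.pb z) - i.e * (y.pa z - x.pa z)| ≤ 4 * K * δ * w2 := by
    have e1 : (y.pb z - x.pb z) - i.e * (y.pa z - x.pa z) = rb x y z + (x.e - i.e) * ra x y z := by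
      simp only [rb, ra]; ring
    rw [e1]
    refine (aux_a2 mb (aux_m2 c2 ma)).trans ?_
    have e2 : K * (w2 / w1) * (2 * δ * w1) = 2 * K * δ * w2 := by field_simp
    rw [e2]
    have : δ * w2 ≤ K * (δ * w2) := le_mul_of_one_le_left (by positivity) hK
    linarith
  have hfd := frm_diff (i := i) hx hy he (z := z) (X := 2 * δ * w1) ma hr
  match k with
  | 0 =>
    rw [nrm_zero, qf_line hy, qf_line hx, rn_sub, abs_div, abs_of_pos (by positivity : 0 < 3 * K * a),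
      div_le_iff₀ (by positivity)]
    have e1 : K * (w2 / w1) * (K * (a / w2)) = K ^ 2 * (a / w1) := by field_simp
    have b1 : |coQ i x 4 + (x.e - i.e) * (x.fb - i.fb)| ≤ 2 * K ^ 2 * (a / w1) := by
      refine (aux_a2 c4 (aux_m2 c2 c3)).trans ?_
      rw [e1]
      have hK2 : K ≤ K ^ 2 := by nlinarith
      have : K * (a / w1) ≤ K ^ 2 * (a / w1) := mul_le_mul_of_nonneg_right hK2 (by positivity)
      linarith
    refine (aux_a2 (aux_a2 mn (aux_m2 b1 ma)) (aux_m2 c3 mb)).trans ?_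
    have e2 : 2 * K ^ 2 * (a / w1) * (2 * δ * w1) = 4 * K ^ 2 * (δ * a) := by
      field_simp; ring
    have e3 : K * (a / w2) * (2 * δ * w2) = 2 * K * (δ * a) := by field_simp
    have e4 : 3 * K * δ * (3 * K * a) = 9 * K ^ 2 * (δ * a) := by ring
    have e5 : 3 * δ * a = 3 * (δ * a) := by ring
    rw [e2, e3, e4, e5, ← add_mul, ← add_mul]
    refine mul_le_mul_of_nonneg_right ?_ (by positivity)
    nlinarith
  | 1 =>
    rw [nrm_one]
    change |_ / (6 * K * w1)| ≤ _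
    rw [abs_div, abs_of_pos (by positivity : 0 < 6 * K * w1), div_le_iff₀ (by positivity)]
    refine hfd.1.trans ?_
    have h1 : δ * w1 ≤ K * (δ * w1) := le_mul_of_one_le_left (by positivity) hK
    have h2 : K * (δ * w2) ≤ K * (δ * w1) := by gcongr
    have h3 : K * (δ * w1) ≤ K ^ 2 * (δ * w1) := by
      have : 0 ≤ δ * w1 := by positivity
      nlinarith
    have h4 : 3 * K * δ * (6 * K * w1) = 18 * (K ^ 2 * (δ * w1)) := by ring
    rw [h4]
    have h5 : 0 ≤ K ^ 2 * (δ * w1) := by positivity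
    linarith
  | 2 =>
    rw [nrm_two]
    change |_ / (2 * K * w2)| ≤ _
    rw [abs_div, abs_of_pos (by positivity : 0 < 2 * K * w2), div_le_iff₀ (by positivity)]
    refine hfd.2.trans ?_
    have h4 : 3 * K * δ * (2 * K * w2) = 6 * K * (K * (δ * w2)) := by ring
    have h5 : 4 * K * δ * w2 = 4 * K * (δ * w2) := by ring
    rw [h4, h5]
    have h6 : δ * w2 ≤ K * (δ * w2) := le_mul_of_one_le_left (by positivity) hK
    have h7 : 0 ≤ δ * w2 := by positivity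
    nlinarith

/-- width of the chart range -/
theorem exists_W0 (F : Finset (ℕ × ℝ)) (L : ℕ → Ln4) (e : Fin 3 → V3) (c : Ln4) (z0 ρ : ℝ)
    (hρ : 0 ≤ ρ) : ∃ W : ℝ, ∀ x ∈ F, ∀ z, z0 ≤ z → z ≤ z0 + ρ →
      |dt (e 0) ((L x.1).pos z - c.pos z)| ≤ W := by
  refine ⟨∑ x ∈ F, (|dt (e 0) ((L x.1).pos z0 - c.pos z0)| + ρ * |dt (e 0) ((L x.1).v - c.v)|), ?_⟩
  intro x hx z h1 h2
  have e1 : dt (e 0) ((L x.1).pos z - c.pos z) = dt (e 0) ((L x.1).pos z0 - c.pos z0) +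
      (z - z0) * dt (e 0) ((L x.1).v - c.v) := by
    rw [dt_sub, dt_sub, dt_sub, dt_pos, dt_pos, dt_pos, dt_pos]; ring
  rw [e1]
  refine (abs_add_le _ _).trans ?_
  rw [abs_mul, abs_of_nonneg (by linarith : 0 ≤ z - z0)]
  have h3 : (z - z0) * |dt (e 0) ((L x.1).v - c.v)| ≤ ρ * |dt (e 0) ((L x.1).v - c.v)| := by
    gcongr; linarith
  have h4 := single_le_sum (f := fun x : ℕ × ℝ => |dt (e 0) ((L x.1).pos z0 - c.pos z0)| +
    ρ * |dt (e 0) ((L x.1).v - c.v)|) (fun y _ => by positivity) hx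
  linarith

end Crest.Agent.R136.End882
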