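import Crest.Agent.R136.End10_882

/-!
# R136 (S0187): END, part 11 (helper882): `end_chart`
-/

set_option autoImplicit false
set_option linter.unusedVariables false

namespace Crest.Agent.R136.End882

open Finset
open Crest.Agent.R136.NetQ186
open Crest.Agent.R136.GeoQ186
open Crest.Agent.R136.LmQ861 Crest.Agent.R136.HR829
open Crest.Agent.R136.Sh605 hiding frm
open Crest.Agent.R138.Mk163 (zc zl rho alive own)

theorem DMaxK.mono {ι : Type} {A : Finset ι} {L : ι → Ln4} {z0 ρ D D' : ℝ} {qq : Fin 3 → ℝ}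
    {m : ℕ} {r0 : ℝ} {Cl : V3 → ℝ → Prop} (h : DMaxK A L z0 ρ D (Rq qq m) r0 Cl) (hr0 : 0 < r0)
    (hD : D ≤ D') : DMaxK A L z0 ρ D' (Rq qq m) r0 Cl := by
  intro e c w q a hS hC
  refine (h e c w q a hS hC).trans ?_
  have ha : 0 < a := hr0.trans_le hS.r0_le
  have hw2 : 0 < w 2 := ha.trans_le hS.a_le
  have hw1 : 0 < w 1 := hw2.trans_le hS.w_le
  have := Rq_pos (q := qq) (m := m) ha hw2 hw1
  exact mul_le_mul_of_nonneg_right hD (by positivity)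

/-- powers of the loss -/
theorem pow_loss {C : ℝ} (hC : 1 ≤ C) {κe : ℝ} (hκe : 0 < κe) {B : ℕ} (hB : 0 < B) :
    ∃ κ : ℝ, ∃ M₁ : ℕ, 0 < κ ∧ ∀ (K : ℝ) (M : ℕ), M₁ ≤ M → 1 ≤ K → K ≤ (2 : ℝ) ^ (κ * M) →
      C * K ^ B ≤ (2 : ℝ) ^ (κe * M) := by
  have hB0 : (0 : ℝ) < B := by exact_mod_cast hB
  refine ⟨κe / (2 * B), Nat.ceil (2 * Real.logb 2 C / κe), by positivity, ?_⟩
  intro K M hM hK1 hK
  have hMC : 2 * Real.logb 2 C / κe ≤ M := (Nat.le_ceil _).trans (by exact_mod_cast hM)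
  have hCM : C ≤ (2 : ℝ) ^ (κe / 2 * M) := by
    rw [div_le_iff₀ hκe] at hMC
    have h1 : Real.logb 2 C ≤ κe / 2 * M := by linarith
    exact (Real.logb_le_iff_le_rpow (by norm_num) (by linarith)).1 h1
  have h4 : K ^ B ≤ (2 : ℝ) ^ (κe / 2 * M) := by
    calc K ^ B ≤ ((2 : ℝ) ^ (κe / (2 * B) * M)) ^ B := by gcongr
      _ = (2 : ℝ) ^ (κe / 2 * M) := by
        rw [← Real.rpow_natCast, ← Real.rpow_mul (by norm_num)]
        congr 1; field_simp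
  calc C * K ^ B ≤ (2 : ℝ) ^ (κe / 2 * M) * (2 : ℝ) ^ (κe / 2 * M) := by gcongr
    _ = (2 : ℝ) ^ (κe * M) := by
      rw [← Real.rpow_add (by norm_num)]; congr 1; ring

open Classical in
/-- lines of a class of incidences in one cell -/
theorem class_lines (G : Finset (ℕ × ℝ)) (j : ℕ) (cj : ℤ) (hG : ∀ y ∈ G, zc j y.2 = cj) {N : ℝ}
    (hN : ∀ y ∈ G, ((G.filter fun y' => y'.1 = y.1 ∧ zc j y'.2 = zc j y.2).card : ℝ) ≤ N) :
    (G.card : ℝ) ≤ N * ((G.image Prod.fst).card : ℝ) := by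
  have e1 : G.card = ∑ t ∈ G.image Prod.fst, (G.filter fun y => y.1 = t).card :=
    card_eq_sum_card_fiberwise fun y hy => mem_image_of_mem _ hy
  have e2 : ∀ t ∈ G.image Prod.fst, ((G.filter fun y => y.1 = t).card : ℝ) ≤ N := by
    intro t ht
    obtain ⟨y, hy, rfl⟩ := mem_image.1 ht
    refine le_trans (Nat.cast_le.2 (card_le_card fun y' hy' => ?_)) (hN y hy)
    rw [mem_filter] at hy' ⊢
    exact ⟨hy'.1, hy'.2, (hG y' hy'.1).trans (hG y hy).symm⟩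
  rw [e1]
  push_cast
  calc ∑ t ∈ G.image Prod.fst, ((G.filter fun y => y.1 = t).card : ℝ) ≤
      ∑ _t ∈ G.image Prod.fst, N := sum_le_sum e2
    _ = N * ((G.image Prod.fst).card : ℝ) := by rw [sum_const, nsmul_eq_mul, mul_comm]

theorem fin_cancel {x : ℝ} (hx : x ≠ 0) (A P1 P2 N : ℝ) :
    A * P1 / x * (P2 * x * N) = A * (P1 * P2) * N := by
  field_simp

open Classical in
set_option maxHeartbeats 4000000 in
/-- **END in the gauge chart.** -/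
theorem end_chart (hKM : ∀ V : ℝ, Crest.Agent.R138.Tub70.KM32 V) {g : ℝ} (hg : 0 < g)
    {qq : Fin 3 → ℝ} (hqq : ∀ k, 0 ≤ qq k) {η₁ : ℝ} (hη₁ : 0 < η₁) :
    ∃ η κ : ℝ, ∃ M₀ : ℕ, 0 < η ∧ η ≤ η₁ ∧ η ≤ 1 / 4 ∧ 0 < κ ∧
    ∀ (F I0 : Finset (ℕ × ℝ)) (L : ℕ → Ln4) (nb rc : ℕ × ℝ → ℕ × ℝ → Prop) (gg : Fin 6 → ℝ)
      (f : ℕ × ℝ → Fq4) (w1 w2 a r0 K Kp δ ρ nn n0 Kc D Tr : ℝ) (Cl Cl' : V3 → ℝ → Prop)
      (i j M k : ℕ) (J0 : ℤ) (i0 : ℕ × ℝ),
      i0 ∈ F → M₀ ≤ M → η / 2 * M ≤ k → (k : ℝ) ≤ η * M → i + M + 1 ≤ j →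
      1 ≤ Kp → Kp ≤ K → K ≤ (2 : ℝ) ^ (κ * M) → 0 ≤ δ → 3 * Kp * δ * 2 ^ M ≤ 1 → 0 < ρ →
      6 * Kp ^ 2 * ρ * 2 ^ M ≤ 1 → 0 < nn → 0 < n0 → 0 < Kc → 0 < D → 0 < r0 →
      (∀ x ∈ F, zc i x.2 = J0) →
      (∀ x ∈ F, TrueLn gg (f x) (L x.1) ∧ (f x).z = x.2 ∧ |(f x).e| ≤ 1) →
      (∀ y ∈ I0, TrueLn gg (f y) (L y.1)) →
      |gA gg i0.2 ((f i0).pa i0.2) ((f i0).pb i0.2) + (f i0).fa| ≤ 1 →
      |gB gg i0.2 ((f i0).pa i0.2) ((f i0).pb i0.2) + (f i0).fb| ≤ 1 →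
      0 < a → w2 ≤ w1 → 9 * 2 ^ k * a ≤ w2 →
      (∀ s1 s2 m1 m2 k11 k12 k22 : ℝ, QCo gg (f i0) (f i0).e i0.2 s1 s2 m1 m2 k11 k12 k22 →
        Flat (1 / 2048) (rho i) (6 * Kp * w1) (2 * Kp * w2) m1 m2 k11 k12 k22) →
      (∀ x ∈ F, ∀ y ∈ F, ∀ s, |coQ (f x) (f y) s| ≤ Kp * sbox (rho i) w1 w2 a s) →
      -- own counts of the sample
      (∀ x ∈ F, nn ≤ K * ((F.filter fun y => y.1 = x.1 ∧ zc i y.2 = zc i x.2).card : ℝ)) →
      (∀ x ∈ F, nn / 2 ^ (M + 1 - k) ≤ K * ((F.filter fun y => y.1 = x.1 ∧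
        zc (i + M + 1 - k) y.2 = zc (i + M + 1 - k) x.2).card : ℝ)) →
      (∀ x ∈ F, ((F.filter fun y => y.1 = x.1 ∧ zc (i + M + 1) y.2 = zc (i + M + 1) x.2).card : ℝ)
        ≤ K * (nn / 2 ^ (M + 1))) →
      (∀ x ∈ F, ((F.filter fun y => y.1 = x.1 ∧ zc j y.2 = zc j x.2).card : ℝ)
        ≤ K * (nn / 2 ^ (j - i))) →
      -- own counts of the ambient family
      (∀ x ∈ I0, ((I0.filter fun y => y.1 = x.1 ∧ zc i y.2 = zc i x.2).card : ℝ) ≤ K * n0) →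
      (∀ x ∈ I0, ((I0.filter fun y => y.1 = x.1 ∧
        zc (i + M + 1 - k) y.2 = zc (i + M + 1 - k) x.2).card : ℝ) ≤
          K * (n0 / 2 ^ (M + 1 - k))) →
      -- comb
      (∀ P ⊆ F, ∀ P' ⊆ I0, (∀ x ∈ P, ∀ y ∈ I0, nb x y → y ∈ P') →
        Kc * (P.card : ℝ) ≤ K * (P'.card : ℝ)) →
      (∀ x ∈ F, ∀ y ∈ I0, nb x y → zc (i + M + 1 - k) y.2 = zc (i + M + 1 - k) x.2 ∧
        ∀ s, |coQ (f x) (f y) s| ≤ δ * sbox (rho i) w1 w2 a s) →
      -- D-max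
      DMaxK (alive I0 i J0) L (zl i J0) (rho i) (K * D) (Rq qq i) r0 Cl →
      (∀ A B a', w1 ≤ A → A ≤ 12 * K * w1 → w2 ≤ B → B ≤ 4 * K * w2 → a ≤ a' → a' ≤ 6 * K * a →
        Cl (wFQ A B) a') →
      (∀ cl : ℤ, DMaxK (alive I0 (i + M + 1 - k) cl) L (zl (i + M + 1 - k) cl)
        (rho (i + M + 1 - k)) (K * (D * 2 ^ (g * ((M : ℝ) + 1 - k)))) (Rq qq (i + M + 1 - k))
        r0 Cl') →
      (∀ A B a', w1 / 2 ^ M ≤ A → A ≤ 100000 * K * (2 ^ k / 2 ^ M) * w1 →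
        w2 / 2 ^ M ≤ B → B ≤ 100000 * K * (2 ^ k / 2 ^ M) * w2 →
        a / 2 ^ M ≤ a' → a' ≤ 100000 * K * (2 ^ k / 2 ^ M) * a → Cl' (wFQ A B) a') →
      r0 * 2 ^ M ≤ a →
      -- record
      (∀ x ∈ F, Tr ≤ K * ((F.filter fun y => rc x y).card : ℝ)) →
      (∀ x ∈ F, ∀ y ∈ F, rc x y → zc j y.2 = zc j x.2 ∧
        ∀ s, |coQ (f x) (f y) s| ≤ Kp * sbox (ρ * rho i) (ρ * w1) (ρ * w2) (ρ * a) s) →
      n0 * (D * (a * w2 * w1 * Rq qq i a w2 w1)) * (2 : ℝ) ^ (-(3 - g) * M) ≤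
        K * (Kc * (Tr * 2 ^ (j - i))) → False := by
  obtain ⟨η, κe, M₀, hη, hηη, hη1, hκe, key⟩ := end_fin hKM hg hqq hη₁
  set Q : ℝ := qq 0 + qq 1 + qq 2 with hQ
  have hQ0 : 0 ≤ Q := by
    have := hqq 0
    have := hqq 1
    have := hqq 2
    positivity
  set CC : ℝ := 36 * 6 ^ Q with hCC
  have h6Q : (1 : ℝ) ≤ 6 ^ Q := Real.one_le_rpow (by norm_num) hQ0
  have hCC1 : 1 ≤ CC := by rw [hCC]; linarith
  set B : ℕ := 7 + Nat.ceil Q with hBd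
  obtain ⟨κ, M₁, hκ, hpow⟩ := pow_loss hCC1 hκe (B := B) (by omega)
  refine ⟨η, κ, max M₀ M₁, hη, hηη, hη1, hκ, ?_⟩
  intro F I0 L nb rc gg f w1 w2 a r0 K Kp δ ρ nn n0 Kc D Tr Cl Cl' i j M k J0 i0 hi0 hM' hk1 hk2 hij
    hp1 hpK hK hδ hδM hρ hρM hnn hn0 hKc hD hr0p hJ htl htl0 hFa hFb ha hw hthin hflat hnear hown hwin
    hup hupj hupi hupl hcomb hnb hmaxi hCli hmaxl hCll hr0 hTr hrc hrecd
  have hM : M₀ ≤ M := (le_max_left _ _).trans hM'
  have hM1 : M₁ ≤ M := (le_max_right _ _).trans hM'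
  have hK1 : 1 ≤ K := hp1.trans hpK
  have hKe := hpow K M hM1 hK1 hK
  have hK0 : 0 < K := by linarith
  have hp0 : 0 < Kp := by linarith
  set Kf : ℝ := CC * K ^ B with hKf
  have hKB : ∀ b : ℕ, b ≤ B → K ^ b ≤ Kf := by
    intro b hb
    calc K ^ b ≤ K ^ B := pow_le_pow_right₀ hK1 hb
      _ ≤ CC * K ^ B := le_mul_of_one_le_left (by positivity) hCC1
  have hKKf : K ≤ Kf := by simpa using hKB 1 (by omega)
  have hKf1 : 1 ≤ Kf := hK1.trans hKKf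
  have hM2 : (0 : ℝ) < 2 ^ M := by positivity
  have hk0 : (0 : ℝ) < 2 ^ k := by positivity
  have hk1' : (1 : ℝ) ≤ 2 ^ k := one_le_pow₀ (by norm_num)
  have hM1' : (1 : ℝ) ≤ 2 ^ M := one_le_pow₀ (by norm_num)
  have haw : a ≤ w2 := by nlinarith
  have hw2 : 0 < w2 := ha.trans_le haw
  have hw1 : 0 < w1 := hw2.trans_le hw
  have hρi := HR829.rho_pos i
  obtain ⟨hti0, hzi0, hei0⟩ := htl i0 hi0
  have hcell : ∀ x ∈ F, ∀ z, zl i J0 ≤ z → z ≤ zl i J0 + rho i → |z - (f x).z| ≤ rho i := by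
    intro x hx z h1 h2
    have h3 := HR829.zc_mem i x.2
    rw [hJ x hx] at h3
    rw [(htl x hx).2.1, abs_le]
    constructor <;> linarith [h3.1, h3.2]
  obtain ⟨W0, hW0⟩ := exists_W0 F L (GeoQ186.frm (f i0).e) (L i0.1) (zl i J0) (rho i) hρi.le
  -- coefficients
  set q : ℝ → V3 → ℝ := qf gg (f i0) with hqd
  have hco : QCo gg (f i0) (f i0).e i0.2 _ _ _ _ _ _ _ := ⟨rfl, rfl, rfl, rfl, rfl, rfl, rfl⟩
  have hFQ := FQ_qf hti0 hco
  obtain ⟨hs1, hs2⟩ := slope_qf hco hFa hFb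
  have hfl := hflat _ _ _ _ _ _ _ hco
  have hin : ∀ x ∈ F, InSheet (L x.1) (GeoQ186.frm (f i0).e) (L i0.1)
      ![W0, 6 * Kp * w1, 2 * Kp * w2] q (3 * Kp * a) (zl i J0) (rho i) := by
    intro x hx z h1 h2
    obtain ⟨ma, mb, mn⟩ := move_box hρi (hnear i0 hi0 x hx) (hcell i0 hi0 z h1 h2)
    have hfd := frm_diff (i := f i0) hti0 (htl x hx).1 hei0 (z := z) ma mb
    refine ⟨?_, ?_⟩
    · intro b
      fin_cases b
      · exact hW0 x hx z h1 h2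
      · refine hfd.1.trans ?_
        change 3 / 2 * (2 * Kp * w1) + 2 * Kp * w2 ≤ 6 * Kp * w1
        have : Kp * w2 ≤ Kp * w1 := mul_le_mul_of_nonneg_left hw hp0.le
        nlinarith
      · exact hfd.2
    · rw [hqd, qf_line (htl x hx).1]
      exact mn
  have hcost : 3 * Kp * a * (2 * Kp * w2) * (6 * Kp * w1) *
      Rq qq i (3 * Kp * a) (2 * Kp * w2) (6 * Kp * w1) ≤
      CC * K ^ (3 + Nat.ceil Q) * (a * w2 * w1 * Rq qq i a w2 w1) := by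
    have e0 : 3 * Kp * a * (2 * Kp * w2) * (6 * Kp * w1) *
        Rq qq i (3 * Kp * a) (2 * Kp * w2) (6 * Kp * w1) ≤
        3 * K * a * (2 * K * w2) * (6 * K * w1) * Rq qq i (3 * K * a) (2 * K * w2) (6 * K * w1) := by
      have r1 : Rq qq i (3 * Kp * a) (2 * Kp * w2) (6 * Kp * w1) ≤
          Rq qq i (3 * K * a) (2 * K * w2) (6 * K * w1) :=
        Rq_mono hqq (by positivity) (by positivity) (by positivity) (by gcongr) (by gcongr)
          (by gcongr)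
      have r2 := Rq_pos (q := qq) (m := i) (x := 3 * Kp * a) (y := 2 * Kp * w2)
        (z := 6 * Kp * w1) (by positivity) (by positivity) (by positivity)
      exact mul_le_mul (by gcongr) r1 r2.le (by positivity)
    refine e0.trans ?_
    have e1 : Rq qq i (3 * K * a) (2 * K * w2) (6 * K * w1) ≤
        Rq qq i (6 * K * a) (6 * K * w2) (6 * K * w1) :=
      Rq_mono hqq (by positivity) (by positivity) (by positivity)
        (by have : 0 < K * a := by positivity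
            linarith)
        (by have : 0 < K * w2 := by positivity
            linarith) le_rfl
    have e2 : Rq qq i (6 * K * a) (6 * K * w2) (6 * K * w1) =
        (6 * K) ^ Q * Rq qq i a w2 w1 := Rq_scale (by positivity) rfl (by positivity) ha hw2 hw1
    have e3 : (6 * K) ^ Q ≤ 6 ^ Q * K ^ (Nat.ceil Q) := by
      rw [Real.mul_rpow (by norm_num) hK0.le]
      refine mul_le_mul_of_nonneg_left ?_ (by positivity)
      rw [← Real.rpow_natCast]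
      exact Real.rpow_le_rpow_of_exponent_le hK1 (Nat.le_ceil _)
    have e4 := Rq_pos (q := qq) (m := i) ha hw2 hw1
    calc 3 * K * a * (2 * K * w2) * (6 * K * w1) * Rq qq i (3 * K * a) (2 * K * w2) (6 * K * w1) ≤
        3 * K * a * (2 * K * w2) * (6 * K * w1) * (6 ^ Q * K ^ (Nat.ceil Q) * Rq qq i a w2 w1) := by
          refine mul_le_mul_of_nonneg_left (e1.trans ?_) (by positivity)
          rw [e2]
          exact mul_le_mul_of_nonneg_right e3 e4.le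
      _ = CC * K ^ (3 + Nat.ceil Q) * (a * w2 * w1 * Rq qq i a w2 w1) := by
          rw [hCC, pow_add]; ring
  have hnK : ∀ (t : ℝ), 0 ≤ t → K * t ≤ Kf * t := fun t ht =>
    mul_le_mul_of_nonneg_right hKKf ht
  have hzi := HR829.zc_mem i i0.2
  rw [hJ i0 hi0] at hzi
  refine key F I0 L nb (GeoQ186.frm (f i0).e) (L i0.1) ![W0, 6 * Kp * w1, 2 * Kp * w2] q i0.2 _ _ _
    _ _ _ _ (3 * Kp * a) r0 Kf nn n0 Kc D Cl Cl' i j M k J0 ⟨i0, hi0⟩ hM hk1 hk2 hij hKf1 hKe hnn hn0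
    hKc hD hJ (frm_ortho _) (qf_isQ _ _) hFQ hs1 hs2 hzi.1 hzi.2.le (by positivity) ?_ ?_ hfl hin
    ?_ ?_ ?_ ?_ ?_ ?_ ?_ ?_ ?_ ?_ ?_ ?_ ?_ ?_ ?_
  · change 2 * Kp * w2 ≤ 6 * Kp * w1
    have : Kp * w2 ≤ Kp * w1 := mul_le_mul_of_nonneg_left hw hp0.le
    nlinarith
  · change 6 * 2 ^ k * (3 * Kp * a) ≤ 2 * Kp * w2
    nlinarith
  · intro z _ _
    have : q z ((L i0.1).pos z) = 0 := by
      rw [hqd, qf_line hti0]
      simp [rn]
    rw [this, abs_zero]; positivity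
  · intro x hx
    exact (hown x hx).trans (hnK _ (Nat.cast_nonneg _))
  · intro x hx
    exact (hwin x hx).trans (hnK _ (Nat.cast_nonneg _))
  · intro x hx
    exact (hup x hx).trans (hnK _ (by positivity))
  · intro x hx
    exact (hupi x hx).trans (hnK _ hn0.le)
  · intro x hx
    exact (hupl x hx).trans (hnK _ (by positivity))
  · intro P hP P' hP' h
    exact (hcomb P hP P' hP' h).trans (hnK _ (Nat.cast_nonneg _))
  · intro x hx y hy hxy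
    obtain ⟨g1, g2⟩ := hnb x hx y hy hxy
    refine ⟨g1, fun z h1 h2 b => ?_⟩
    refine (nbr_nrm (htl x hx).1 (htl0 y hy) hei0 hp1 hδ hρi hw2 hw ha (hnear i0 hi0 x hx) g2
      (hcell x hx z h1 h2) b).trans ?_
    rw [le_div_iff₀ hM2]; exact hδM
  · exact hmaxi.mono hr0p (mul_le_mul_of_nonneg_right hKKf hD.le)
  · intro a' h1 h2
    have hKw1 : 0 < Kp * w1 := by positivity
    have hKw2 : 0 < Kp * w2 := by positivity
    have hKa : 0 < Kp * a := by positivity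
    have g1 : w1 ≤ Kp * w1 := le_mul_of_one_le_left hw1.le hp1
    have g2 : w2 ≤ Kp * w2 := le_mul_of_one_le_left hw2.le hp1
    have g3 : a ≤ Kp * a := le_mul_of_one_le_left ha.le hp1
    have k1 : Kp * w1 ≤ K * w1 := mul_le_mul_of_nonneg_right hpK hw1.le
    have k2 : Kp * w2 ≤ K * w2 := mul_le_mul_of_nonneg_right hpK hw2.le
    have k3 : Kp * a ≤ K * a := mul_le_mul_of_nonneg_right hpK ha.le
    refine hCli (2 * (6 * Kp * w1)) (2 * (2 * Kp * w2)) a' ?_ ?_ ?_ ?_ ?_ ?_ <;> linarith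
  · intro cl
    exact (hmaxl cl).mono hr0p (mul_le_mul_of_nonneg_right hKKf (by positivity))
  · intro A B a' h1 h2 h3 h4 h5 h6
    change 2718 / 2 ^ M * (6 * Kp * w1) ≤ A at h1
    change A ≤ 16308 * (2 ^ k / 2 ^ M) * (6 * Kp * w1) at h2
    change 2718 / 2 ^ M * (2 * Kp * w2) ≤ B at h3
    change B ≤ 32616 * (2 ^ k / 2 ^ M) * (2 * Kp * w2) at h4
    have lo : ∀ v c : ℝ, 0 < v → 1 ≤ c → v / 2 ^ M ≤ 2718 / 2 ^ M * (c * Kp * v) := by
      intro v c hv hc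
      rw [div_mul_eq_mul_div]
      refine div_le_div_of_nonneg_right ?_ hM2.le
      have h1 : v ≤ Kp * v := le_mul_of_one_le_left hv.le hp1
      have h2 : 0 < Kp * v := by positivity
      nlinarith
    have hi' : ∀ v c C : ℝ, 0 < v → 0 < c → c * C ≤ 100000 → 0 ≤ C →
        C * (2 ^ k / 2 ^ M) * (c * Kp * v) ≤ 100000 * K * (2 ^ k / 2 ^ M) * v := by
      intro v c C hv hc hcC hC0
      have r0 : 0 ≤ c * C := mul_nonneg hc.le hC0
      calc C * (2 ^ k / 2 ^ M) * (c * Kp * v) = (c * C) * (Kp * (2 ^ k / 2 ^ M) * v) := by ring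
        _ ≤ 100000 * (K * (2 ^ k / 2 ^ M) * v) := by gcongr
        _ = _ := by ring
    exact hCll A B a' ((lo w1 6 hw1 (by norm_num)).trans h1)
      (h2.trans (hi' w1 6 16308 hw1 (by norm_num) (by norm_num) (by norm_num)))
      ((lo w2 2 hw2 (by norm_num)).trans h3)
      (h4.trans (hi' w2 2 32616 hw2 (by norm_num) (by norm_num) (by norm_num)))
      ((lo a 3 ha (by norm_num)).trans h5)
      (h6.trans (hi' a 3 32616 ha (by norm_num) (by norm_num) (by norm_num)))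
  · have : 0 < Kp * a := by positivity
    have g3 : a ≤ Kp * a := le_mul_of_one_le_left ha.le hp1
    nlinarith
  · have g3 : a ≤ Kp * a := le_mul_of_one_le_left ha.le hp1
    have : r0 ≤ r0 * 2 ^ M := le_mul_of_one_le_right hr0p.le hM1'
    nlinarith
  · -- rich
    intro x hx
    refine ⟨x.2, rfl, ?_⟩
    set G := F.filter fun y => rc x y with hG
    have hGj : ∀ y ∈ G, zc j y.2 = zc j x.2 := by
      intro y hy
      rw [hG, mem_filter] at hy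
      exact (hrc x hx y hy.1 hy.2).1
    have hGl := class_lines G j (zc j x.2) hGj (N := K * (nn / 2 ^ (j - i))) (by
      intro y hy
      refine le_trans (Nat.cast_le.2 (card_le_card ?_)) (hupj y (mem_filter.1 hy).1)
      exact filter_subset_filter _ (filter_subset _ _))
    have hsub : G.image Prod.fst ⊆ (alive F j (zc j x.2)).filter fun t =>
        ∀ b, |nrm (GeoQ186.frm (f i0).e) ![W0, 6 * Kp * w1, 2 * Kp * w2] q (3 * Kp * a) (L x.1) (L t)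
          x.2 b| ≤ 1 / 2 / 2 ^ M := by
      intro t ht
      obtain ⟨y, hy, rfl⟩ := mem_image.1 ht
      rw [hG, mem_filter] at hy
      obtain ⟨g1, g2⟩ := hrc x hx y hy.1 hy.2
      rw [mem_filter]
      refine ⟨mem_alive.2 ⟨y, hy.1, rfl, g1⟩, fun b => ?_⟩
      have h1 := near_nrm (Λ := 0) (htl x hx).1 (htl y hy.1).1 hei0 (htl x hx).2.2 hp1 hρi hρ hw2 hw
        ha (hnear i0 hi0 x hx) g2 (z := x.2) (by
          rw [(htl x hx).2.1, sub_self, abs_zero]; positivity) b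
      have h2 : |nrm (GeoQ186.frm (f i0).e) ![W0, 6 * Kp * w1, 2 * Kp * w2] q (3 * Kp * a) (L x.1)
          (L y.1) x.2 b| ≤ 3 * Kp ^ 2 * ρ := h1
      refine h2.trans ?_
      rw [div_div, le_div_iff₀ (mul_pos two_pos hM2)]
      calc 3 * Kp ^ 2 * ρ * (2 * 2 ^ M) = 6 * Kp ^ 2 * ρ * 2 ^ M := by ring
        _ ≤ 1 := hρM
    have hcard : ((G.image Prod.fst).card : ℝ) ≤ (((alive F j (zc j x.2)).filter fun t =>
        ∀ b, |nrm (GeoQ186.frm (f i0).e) ![W0, 6 * Kp * w1, 2 * Kp * w2] q (3 * Kp * a) (L x.1) (L t)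
          x.2 b| ≤ 1 / 2 / 2 ^ M).card : ℝ) := by exact_mod_cast card_le_card hsub
    refine le_trans ?_ (mul_le_mul_of_nonneg_left hcard (zero_le_one.trans hKf1))
    set N := ((G.image Prod.fst).card : ℝ) with hN
    have hN0 : 0 ≤ N := Nat.cast_nonneg _
    have hp : (0 : ℝ) < 2 ^ (j - i) := by positivity
    have h1 : n0 * (D * (a * w2 * w1 * Rq qq i a w2 w1)) * (2 : ℝ) ^ (-(3 - g) * M) ≤
        K ^ 3 * (Kc * nn) * N := by
      have e1 : Tr * 2 ^ (j - i) ≤ K * (K * nn * N) := by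
        have e2 := (hTr x hx).trans (mul_le_mul_of_nonneg_left hGl hK0.le)
        calc Tr * 2 ^ (j - i) ≤ K * (K * (nn / 2 ^ (j - i)) * N) * 2 ^ (j - i) := by gcongr
          _ = K * (K * nn * N) := by field_simp
      calc n0 * (D * (a * w2 * w1 * Rq qq i a w2 w1)) * (2 : ℝ) ^ (-(3 - g) * M) ≤
          K * (Kc * (Tr * 2 ^ (j - i))) := hrecd
        _ ≤ K * (Kc * (K * (K * nn * N))) := by gcongr
        _ = K ^ 3 * (Kc * nn) * N := by ring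
    change n0 / (Kc * nn) * (D * (3 * Kp * a * (2 * Kp * w2) * (6 * Kp * w1) *
      Rq qq i (3 * Kp * a) (2 * Kp * w2) (6 * Kp * w1))) * (2 : ℝ) ^ (-(3 - g) * M) ≤ Kf * N
    have h2 : (0 : ℝ) < 2 ^ (-(3 - g) * M) := by positivity
    calc n0 / (Kc * nn) * (D * (3 * Kp * a * (2 * Kp * w2) * (6 * Kp * w1) *
          Rq qq i (3 * Kp * a) (2 * Kp * w2) (6 * Kp * w1))) * (2 : ℝ) ^ (-(3 - g) * M) ≤
        n0 / (Kc * nn) * (D * (CC * K ^ (3 + Nat.ceil Q) * (a * w2 * w1 * Rq qq i a w2 w1))) *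
          (2 : ℝ) ^ (-(3 - g) * M) := by gcongr
      _ = CC * K ^ (3 + Nat.ceil Q) / (Kc * nn) *
          (n0 * (D * (a * w2 * w1 * Rq qq i a w2 w1)) * (2 : ℝ) ^ (-(3 - g) * M)) := by ring
      _ ≤ CC * K ^ (3 + Nat.ceil Q) / (Kc * nn) * (K ^ 3 * (Kc * nn) * N) := by gcongr
      _ = CC * (K ^ (3 + Nat.ceil Q) * K ^ 3) * N := fin_cancel (mul_pos hKc hnn).ne' _ _ _ _
      _ ≤ CC * K ^ B * N := by
          rw [← pow_add]
          have hBe : 3 + Nat.ceil Q + 3 ≤ B := by omega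
          exact mul_le_mul_of_nonneg_right (mul_le_mul_of_nonneg_left
            (pow_le_pow_right₀ hK1 hBe) (by linarith)) hN0

end Crest.Agent.R136.End882
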