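import Crest.Agent.R136.Geo2_186

/-!
# R136: orthonormal frames and the chart (helper186)

Orthonormal frame `e` (`e 0` normal of `V3`, `e 1` wide axis, `e 2` narrow axis), a choice
`π 0, π 1, π 2` of the coordinates (`π : Equiv.Perm (Fin 3)`): slopes
`sA = -e0(π1)/e0(π0)`, `sB = -e0(π2)/e0(π0)`, `sE = e1(π2)/e1(π1)`.

`Adm π e` : the slopes are at most `1`; `exists_adm`; `to_chart`, `from_chart`;
`cLn π t` : the line with permuted coordinates `(Y, A, B) = (π 0, π 1, π 2)`.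
`plank_co` : a line inside a plank has small relative coordinates.
`scl` : anisotropic scaling.
-/

set_option autoImplicit false
set_option linter.unusedVariables false

namespace Crest.Agent.R136.GeoQ186

open Crest.Agent.R136.NetQ186
open Crest.Agent.R136.Sh605

/-- slope of `V3` in the direction `A` -/
noncomputable def sA (π : Equiv.Perm (Fin 3)) (e : Fin 3 → V3) : ℝ := -e 0 (π 1) / e 0 (π 0)
/-- slope of `V3` in the direction `B` -/
noncomputable def sB (π : Equiv.Perm (Fin 3)) (e : Fin 3 → V3) : ℝ := -e 0 (π 2) / e 0 (π 0)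
/-- slope of the wide axis in the `(A, B)` plane -/
noncomputable def sE (π : Equiv.Perm (Fin 3)) (e : Fin 3 → V3) : ℝ := e 1 (π 2) / e 1 (π 1)

/-- the coordinates `π` are admissible for the frame -/
structure Adm (π : Equiv.Perm (Fin 3)) (e : Fin 3 → V3) : Prop where
  ortho : Ortho e
  le1 : |e 0 (π 1)| ≤ |e 0 (π 0)|
  le2 : |e 0 (π 2)| ≤ |e 0 (π 0)|
  le3 : |e 1 (π 2)| ≤ |e 1 (π 1)|

theorem dt_perm (π : Equiv.Perm (Fin 3)) (x y : V3) :
    dt x y = x (π 0) * y (π 0) + x (π 1) * y (π 1) + x (π 2) * y (π 2) := by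
  have h := Equiv.sum_comp π (fun i => x i * y i)
  simp only [Fin.sum_univ_three] at h
  rw [dt, ← h]

/-- a permutation with prescribed values at `0` and `1` -/
theorem exists_perm {a b : Fin 3} (h : a ≠ b) : ∃ π : Equiv.Perm (Fin 3), π 0 = a ∧ π 1 = b := by
  revert a b
  decide

/-- **admissible coordinates exist** -/
theorem exists_adm {e : Fin 3 → V3} (he : Ortho e) : ∃ π : Equiv.Perm (Fin 3), Adm π e := by
  obtain ⟨a, ha⟩ := Finite.exists_max fun k => |e 0 k|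
  obtain ⟨b0, hb0⟩ := exists_ne a
  -- the larger of the other two
  have h3 : ∃ b, a ≠ b ∧ ∀ k, k ≠ a → |e 1 k| ≤ |e 1 b| := by
    have : Nonempty {k : Fin 3 // k ≠ a} := ⟨⟨b0, hb0⟩⟩
    obtain ⟨b, hb⟩ := Finite.exists_max fun k : {k : Fin 3 // k ≠ a} => |e 1 k|
    exact ⟨b.1, b.2.symm, fun k hk => hb ⟨k, hk⟩⟩
  obtain ⟨b, hab, hb⟩ := h3
  obtain ⟨π, h0, h1⟩ := exists_perm hab
  refine ⟨π, he, ?_, ?_, ?_⟩
  · rw [h0]; exact ha _
  · rw [h0]; exact ha _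
  · rw [h1]
    refine hb _ ?_
    rw [← h0]
    exact fun h => absurd (π.injective h) (by decide)

namespace Adm

variable {π : Equiv.Perm (Fin 3)} {e : Fin 3 → V3}

theorem n0 (h : Adm π e) : 1 / 2 ≤ |e 0 (π 0)| := by
  have h1 := h.ortho 0 0
  rw [dt_perm π, if_pos rfl] at h1
  have e1 : |e 0 (π 1)| * |e 0 (π 1)| ≤ |e 0 (π 0)| * |e 0 (π 0)| :=
    mul_le_mul h.le1 h.le1 (abs_nonneg _) (abs_nonneg _)
  have e2 : |e 0 (π 2)| * |e 0 (π 2)| ≤ |e 0 (π 0)| * |e 0 (π 0)| :=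
    mul_le_mul h.le2 h.le2 (abs_nonneg _) (abs_nonneg _)
  rw [abs_mul_abs_self, abs_mul_abs_self] at e1 e2
  have e3 : 1 ≤ 3 * (|e 0 (π 0)| * |e 0 (π 0)|) := by rw [abs_mul_abs_self]; linarith
  nlinarith [abs_nonneg (e 0 (π 0))]

theorem n0_ne (h : Adm π e) : e 0 (π 0) ≠ 0 := by
  intro h0
  have := h.n0
  rw [h0, abs_zero] at this
  norm_num at this

theorem le_one (h : Adm π e) (i j : Fin 3) : |e i j| ≤ 1 := by
  have h1 := h.ortho i i
  simp only [dt, if_true] at h1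
  rw [← sq_le_one_iff_abs_le_one]
  fin_cases j
  · change e i 0 ^ 2 ≤ 1; nlinarith [sq_nonneg (e i 1), sq_nonneg (e i 2)]
  · change e i 1 ^ 2 ≤ 1; nlinarith [sq_nonneg (e i 0), sq_nonneg (e i 2)]
  · change e i 2 ^ 2 ≤ 1; nlinarith [sq_nonneg (e i 1), sq_nonneg (e i 0)]

theorem absA (h : Adm π e) : |sA π e| ≤ 1 := by
  have := h.n0
  rw [sA, abs_div, abs_neg, div_le_one (by linarith)]
  exact h.le1

theorem absB (h : Adm π e) : |sB π e| ≤ 1 := by
  have := h.n0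
  rw [sB, abs_div, abs_neg, div_le_one (by linarith)]
  exact h.le2

/-- the wide axis lies in `V3` -/
theorem e1_eq (h : Adm π e) : e 1 (π 0) = sA π e * e 1 (π 1) + sB π e * e 1 (π 2) := by
  have h1 := h.ortho 0 1
  rw [dt_perm π, if_neg (by decide)] at h1
  have := h.n0_ne
  unfold sA sB
  field_simp
  linarith

theorem e2_eq (h : Adm π e) : e 2 (π 0) = sA π e * e 2 (π 1) + sB π e * e 2 (π 2) := by
  have h1 := h.ortho 0 2
  rw [dt_perm π, if_neg (by decide)] at h1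
  have := h.n0_ne
  unfold sA sB
  field_simp
  linarith

theorem n1 (h : Adm π e) : 2 / 5 ≤ |e 1 (π 1)| := by
  have h1 := h.ortho 1 1
  rw [dt_perm π, if_pos rfl] at h1
  have a0 : |e 1 (π 0)| ≤ 2 * |e 1 (π 1)| := by
    rw [h.e1_eq]
    have := aux_a2 (aux_m2 h.absA (le_refl |e 1 (π 1)|)) (aux_m2 h.absB h.le3)
    linarith
  have e1 : |e 1 (π 0)| * |e 1 (π 0)| ≤ (2 * |e 1 (π 1)|) * (2 * |e 1 (π 1)|) :=
    mul_le_mul a0 a0 (abs_nonneg _) (by positivity)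
  have e2 : |e 1 (π 2)| * |e 1 (π 2)| ≤ |e 1 (π 1)| * |e 1 (π 1)| :=
    mul_le_mul h.le3 h.le3 (abs_nonneg _) (abs_nonneg _)
  rw [abs_mul_abs_self] at e1 e2
  have e3 : 1 ≤ 6 * (|e 1 (π 1)| * |e 1 (π 1)|) := by
    rw [abs_mul_abs_self (e 1 (π 1))] at e2 ⊢
    nlinarith [abs_mul_abs_self (e 1 (π 1))]
  nlinarith [abs_nonneg (e 1 (π 1))]

theorem n1_ne (h : Adm π e) : e 1 (π 1) ≠ 0 := by
  intro h0
  have := h.n1
  rw [h0, abs_zero] at this
  norm_num at this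

theorem absE (h : Adm π e) : |sE π e| ≤ 1 := by
  have := h.n1
  rw [sE, abs_div, div_le_one (by linarith)]
  exact h.le3

end Adm

/-- **from the frame to the chart** -/
theorem to_chart {π : Equiv.Perm (Fin 3)} {e : Fin 3 → V3} (h : Adm π e) {u : V3} {s : V3}
    (hu : ∀ k, |dt (e k) u| ≤ s k) :
    |u (π 0) - sA π e * u (π 1) - sB π e * u (π 2)| ≤ 2 * s 0 ∧
    |u (π 1)| ≤ s 0 + s 1 + s 2 ∧ |u (π 2)| ≤ s 0 + s 1 + s 2 ∧
    |u (π 2) - sE π e * u (π 1)| ≤ 2 * (s 0 + s 2) := by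
  have g0 := h.n0_ne
  have g1 := h.n1_ne
  have hn := h.n0
  have x0 := h.ortho.expand u (π 0)
  have x1 := h.ortho.expand u (π 1)
  have x2 := h.ortho.expand u (π 2)
  have s0 := (abs_nonneg _).trans (hu 0)
  have s1 := (abs_nonneg _).trans (hu 1)
  have s2 := (abs_nonneg _).trans (hu 2)
  refine ⟨?_, ?_, ?_, ?_⟩
  · have e1 : u (π 0) - sA π e * u (π 1) - sB π e * u (π 2) = dt (e 0) u / e 0 (π 0) := by
      rw [dt_perm π]
      unfold sA sB
      field_simp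
      ring
    rw [e1, abs_div, div_le_iff₀ (by linarith)]
    have := hu 0
    nlinarith
  · rw [x1]
    have := aux_a2 (aux_a2 (aux_m2 (hu 0) (h.le_one 0 (π 1))) (aux_m2 (hu 1) (h.le_one 1 (π 1))))
      (aux_m2 (hu 2) (h.le_one 2 (π 1)))
    linarith
  · rw [x2]
    have := aux_a2 (aux_a2 (aux_m2 (hu 0) (h.le_one 0 (π 2))) (aux_m2 (hu 1) (h.le_one 1 (π 2))))
      (aux_m2 (hu 2) (h.le_one 2 (π 2)))
    linarith
  · have e1 : u (π 2) - sE π e * u (π 1) =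
        dt (e 0) u * (e 0 (π 2) - sE π e * e 0 (π 1)) +
        dt (e 2) u * (e 2 (π 2) - sE π e * e 2 (π 1)) := by
      have hz : e 1 (π 2) - sE π e * e 1 (π 1) = 0 := by
        unfold sE
        field_simp
        ring
      rw [x1, x2]
      linear_combination dt (e 1) u * hz
    rw [e1]
    have b0 := aux_s2 (h.le_one 0 (π 2)) (aux_m2 h.absE (h.le_one 0 (π 1)))
    have b2 := aux_s2 (h.le_one 2 (π 2)) (aux_m2 h.absE (h.le_one 2 (π 1)))
    have := aux_a2 (aux_m2 (hu 0) b0) (aux_m2 (hu 2) b2)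
    linarith

/-- **from the chart to the frame** -/
theorem from_chart {π : Equiv.Perm (Fin 3)} {e : Fin 3 → V3} (h : Adm π e) {u : V3} {n x y : ℝ}
    (hn : |u (π 0) - sA π e * u (π 1) - sB π e * u (π 2)| ≤ n) (hx : |u (π 1)| ≤ x)
    (hy : |u (π 2) - sE π e * u (π 1)| ≤ y) :
    |dt (e 0) u| ≤ n ∧ |dt (e 1) u| ≤ n + 2 * y + 5 / 2 * x ∧ |dt (e 2) u| ≤ n + 2 * y := by
  have g0 := h.n0_ne
  have g1 := h.n1_ne
  have hn1 := h.n1
  set N := u (π 0) - sA π e * u (π 1) - sB π e * u (π 2) with hN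
  set Xb := u (π 2) - sE π e * u (π 1) with hXb
  have hn0 := (abs_nonneg _).trans hn
  have hx0 := (abs_nonneg _).trans hx
  have hy0 := (abs_nonneg _).trans hy
  have u2 : u (π 2) = Xb + sE π e * u (π 1) := by rw [hXb]; ring
  have u0 : u (π 0) = N + sA π e * u (π 1) + sB π e * u (π 2) := by rw [hN]; ring
  -- the frame vectors
  have f0 : e 0 (π 1) = -(sA π e * e 0 (π 0)) := by unfold sA; field_simp
  have f0' : e 0 (π 2) = -(sB π e * e 0 (π 0)) := by unfold sB; field_simp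
  have h10 := h.e1_eq
  have h12 : e 1 (π 2) = sE π e * e 1 (π 1) := by unfold sE; field_simp
  have k0 : dt (e 0) u = e 0 (π 0) * N := by
    rw [dt_perm π, f0, f0', u0]; ring
  have key : ∀ k : Fin 3, k ≠ 0 → dt (e k) (e 0) = 0 := by
    intro k hk
    have := h.ortho k 0
    rwa [if_neg hk] at this
  have k1 : dt (e 1) u = e 1 (π 0) * N + (e 1 (π 2) + sB π e * e 1 (π 0)) * Xb +
      u (π 1) / e 1 (π 1) := by
    have h11 := h.ortho 1 1
    rw [dt_perm π, if_pos rfl] at h11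
    have e1 : u (π 1) / e 1 (π 1) = u (π 1) / e 1 (π 1) * (e 1 (π 0) * e 1 (π 0) +
      e 1 (π 1) * e 1 (π 1) + e 1 (π 2) * e 1 (π 2)) := by rw [h11, mul_one]
    rw [e1, dt_perm π, u0, u2]
    rw [h12] at h10
    have e2 : e 1 (π 0) = (sA π e + sB π e * sE π e) * e 1 (π 1) := by rw [h10]; ring
    rw [e2, h12]
    field_simp
    ring
  have k2 : dt (e 2) u = e 2 (π 0) * N + (e 2 (π 2) + sB π e * e 2 (π 0)) * Xb := by
    have h21 := h.ortho 2 1
    rw [dt_perm π, if_neg (by decide)] at h21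
    rw [h12] at h10
    have e2 : e 1 (π 0) = (sA π e + sB π e * sE π e) * e 1 (π 1) := by rw [h10]; ring
    rw [e2, h12] at h21
    have e3 : e 2 (π 0) * (sA π e + sB π e * sE π e) + e 2 (π 1) + e 2 (π 2) * sE π e = 0 := by
      have : (e 2 (π 0) * (sA π e + sB π e * sE π e) + e 2 (π 1) + e 2 (π 2) * sE π e) *
        e 1 (π 1) = 0 := by linarith
      rcases mul_eq_zero.1 this with h' | h'
      · exact h'
      · exact absurd h' g1
    rw [dt_perm π, u0, u2]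
    linear_combination u (π 1) * e3
  refine ⟨?_, ?_, ?_⟩
  · rw [k0]
    have := aux_m2 (h.le_one 0 (π 0)) hn
    linarith
  · rw [k1]
    have b1 := aux_a2 (h.le_one 1 (π 2)) (aux_m2 h.absB (h.le_one 1 (π 0)))
    have b2 : |u (π 1) / e 1 (π 1)| ≤ 5 / 2 * x := by
      rw [abs_div, div_le_iff₀ (by linarith)]
      nlinarith
    have := aux_a2 (aux_a2 (aux_m2 (h.le_one 1 (π 0)) hn) (aux_m2 b1 hy)) b2
    linarith
  · rw [k2]
    have b1 := aux_a2 (h.le_one 2 (π 2)) (aux_m2 h.absB (h.le_one 2 (π 0)))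
    have := aux_a2 (aux_m2 (h.le_one 2 (π 0)) hn) (aux_m2 b1 hy)
    linarith

/-! ### the chart of a permutation -/

/-- the line with coordinates `(Y, A, B) = (π 0, π 1, π 2)` -/
def cLn (π : Equiv.Perm (Fin 3)) (t : Ln4) : Ln4 := ⟨fun k => t.p (π k), fun k => t.v (π k)⟩

theorem cLn_pos (π : Equiv.Perm (Fin 3)) (t : Ln4) (z : ℝ) (k : Fin 3) :
    (cLn π t).pos z k = t.pos z (π k) := rfl

/-- the incidence of a line, a height and a frame -/
noncomputable def mkF (π : Equiv.Perm (Fin 3)) (t : Ln4) (z : ℝ) (e : Fin 3 → V3) : Fq4 :=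
  mkT (cLn π t) z (sE π e) (sA π e) (sB π e)

theorem lin_win {p v ρ A z0 : ℝ} (hρ : 0 < ρ)
    (h : ∀ z, z0 ≤ z → z ≤ z0 + ρ → |p + z * v| ≤ A) : |v| ≤ 2 * A / ρ := by
  have h0 := h z0 le_rfl (by linarith)
  have h1 := h (z0 + ρ) (by linarith) le_rfl
  have e1 : v * ρ = (p + (z0 + ρ) * v) - (p + z0 * v) := by ring
  have h2 : |v * ρ| ≤ A + A := by
    rw [e1]
    exact (abs_sub _ _).trans (add_le_add h1 h0)
  rw [abs_mul, abs_of_pos hρ] at h2
  rw [le_div_iff₀ hρ]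
  linarith

/-- **a line inside a plank has small relative coordinates**, seen from the central incidence of the
plank (line `c`, height `zm` in the window, frame `e`). -/
theorem plank_co {π : Equiv.Perm (Fin 3)} {e : Fin 3 → V3} (h : Adm π e) {c t : Ln4} {w : V3}
    {z0 ρ zm : ℝ} (hρ : 0 < ρ) (hzm : z0 ≤ zm) (hzm' : zm ≤ z0 + ρ)
    (ht : ∀ z, z0 ≤ z → z ≤ z0 + ρ → InK e c w z (t.pos z)) {j : Fq4}
    (hj : ∃ z ee Fa Fb, j = mkT (cLn π t) z ee Fa Fb) :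
    coQ (mkF π c zm e) j 1 = 0 ∧
    |coQ (mkF π c zm e) j 5| ≤ 2 * (w 0 + w 1 + w 2) / ρ ∧
    |coQ (mkF π c zm e) j 6| ≤ 2 * (2 * (w 0 + w 2)) / ρ ∧
    |coQ (mkF π c zm e) j 7| ≤ 2 * (2 * w 0) / ρ ∧
    |coQ (mkF π c zm e) j 8| ≤ w 0 + w 1 + w 2 ∧
    |coQ (mkF π c zm e) j 9| ≤ 2 * (w 0 + w 2) ∧
    |coQ (mkF π c zm e) j 10| ≤ 2 * w 0 := by
  obtain ⟨z, ee, Fa, Fb, rfl⟩ := hj
  -- the difference at height `s`
  have hd : ∀ s, z0 ≤ s → s ≤ z0 + ρ → ∀ k, |dt (e k) (t.pos s - c.pos s)| ≤ w k :=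
    fun s h1 h2 => ht s h1 h2
  have hc : ∀ s, z0 ≤ s → s ≤ z0 + ρ → _ := fun s h1 h2 => to_chart h (hd s h1 h2)
  -- the three affine functions
  have fa : ∀ s, (t.pos s - c.pos s) (π 1) =
      (t.p (π 1) - c.p (π 1)) + s * (t.v (π 1) - c.v (π 1)) := by
    intro s; simp only [Pi.sub_apply, Ln4.pos]; ring
  have fb : ∀ s, (t.pos s - c.pos s) (π 2) - sE π e * (t.pos s - c.pos s) (π 1) =
      ((t.p (π 2) - c.p (π 2)) - sE π e * (t.p (π 1) - c.p (π 1))) +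
        s * ((t.v (π 2) - c.v (π 2)) - sE π e * (t.v (π 1) - c.v (π 1))) := by
    intro s; simp only [Pi.sub_apply, Ln4.pos]; ring
  have fn : ∀ s, (t.pos s - c.pos s) (π 0) - sA π e * (t.pos s - c.pos s) (π 1) -
      sB π e * (t.pos s - c.pos s) (π 2) =
      ((t.p (π 0) - c.p (π 0)) - sA π e * (t.p (π 1) - c.p (π 1)) -
        sB π e * (t.p (π 2) - c.p (π 2))) +
        s * ((t.v (π 0) - c.v (π 0)) - sA π e * (t.v (π 1) - c.v (π 1)) -
        sB π e * (t.v (π 2) - c.v (π 2))) := by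
    intro s; simp only [Pi.sub_apply, Ln4.pos]; ring
  have va := lin_win (A := w 0 + w 1 + w 2) hρ (fun s h1 h2 => by
    rw [← fa s]; exact (hc s h1 h2).2.1)
  have vb := lin_win (A := 2 * (w 0 + w 2)) hρ (fun s h1 h2 => by
    rw [← fb s]; exact (hc s h1 h2).2.2.2)
  have vn := lin_win (A := 2 * w 0) hρ (fun s h1 h2 => by
    rw [← fn s]; exact (hc s h1 h2).1)
  have pa := (hc zm hzm hzm').2.1
  have pb := (hc zm hzm hzm').2.2.2
  have pn := (hc zm hzm hzm').1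
  rw [fa] at pa
  rw [fb] at pb
  rw [fn] at pn
  refine ⟨?_, ?_, ?_, ?_, ?_, ?_, ?_⟩
  · simp [coQ, mkF, mkT]
  · refine le_trans (le_of_eq ?_) va
    simp only [coQ, mkF, mkT, cLn, Matrix.cons_val]
  · refine le_trans (le_of_eq ?_) vb
    simp only [coQ, mkF, mkT, cLn, Matrix.cons_val]
  · refine le_trans (le_of_eq ?_) vn
    simp only [coQ, mkF, mkT, cLn, Matrix.cons_val, Fq4.vy, mul_zero, zero_mul, add_zero]
  · refine le_trans (le_of_eq ?_) pa
    simp only [coQ, mkF, mkT, cLn, Matrix.cons_val, Fq4.pa]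
    congr 1; ring
  · refine le_trans (le_of_eq ?_) pb
    simp only [coQ, mkF, mkT, cLn, Matrix.cons_val, Fq4.pa, Fq4.pb]
    congr 1; ring
  · refine le_trans (le_of_eq ?_) pn
    simp only [coQ, mkF, mkT, cLn, Matrix.cons_val, Fq4.pa, Fq4.pb, Fq4.py]
    congr 1; ring

/-! ### anisotropic scaling -/

/-- scaling of the chart: height unit `1/H`, angular units `Wa, Wb, Wy` -/
noncomputable def scl (H Wa Wb Wy : ℝ) (i : Fq4) : Fq4 where
  A := H * i.A / Wa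
  B := H * i.B / Wb
  ca := i.ca / Wa
  cb := i.cb / Wb
  y0 := H * i.y0 / Wy
  y1 := i.y1 / Wy
  y2 := i.y2 / (H * Wy)
  z := H * i.z
  e := i.e * (Wa / Wb)
  fa := i.fa * (Wa / Wy)
  fb := i.fb * (Wb / Wy)

/-- the factors of the coordinates -/
noncomputable def sfac (H Wa Wb Wy : ℝ) : Fin 11 → ℝ :=
  ![H, 1 / (H * Wy), Wa / Wb, Wb / Wy, Wa / Wy, 1 / Wa, 1 / Wb, 1 / Wy, H / Wa, H / Wb, H / Wy]

theorem coQ_scl {H Wa Wb Wy : ℝ} (hH : H ≠ 0) (ha : Wa ≠ 0) (hb : Wb ≠ 0) (hy : Wy ≠ 0)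
    (i j : Fq4) (k : Fin 11) :
    coQ (scl H Wa Wb Wy i) (scl H Wa Wb Wy j) k = sfac H Wa Wb Wy k * coQ i j k := by
  fin_cases k <;>
    simp only [coQ, scl, sfac, Fq4.pa, Fq4.pb, Fq4.py, Fq4.vy, Matrix.cons_val, Fin.zero_eta,
      Fin.mk_one, Fin.reduceFinMk, Fin.isValue] <;>
    field_simp

end Crest.Agent.R136.GeoQ186
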