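import Crest.Agent.R136.End11_882
import Crest.Agent.R136.Gz2_779
import Crest.Agent.R136.Geo3_186

/-!
# R136 (S0187): END, part 12 (helper882): units

`gR` : the gauge in real units, `rg_scl`; `kbm u v t` : exponents of the container box; `sbox_win` :
its real sides; `flat_gau` : flatness of the container.
-/

set_option autoImplicit false
set_option linter.unusedVariables false

namespace Crest.Agent.R136.End882

open Finset
open Crest.Agent.R136.NetQ186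
open Crest.Agent.R136.GeoQ186
open Crest.Agent.R136.Net191
open Crest.Agent.R136.Gz779
open Crest.Agent.R136.LmQ861 Crest.Agent.R136.HR829
open Crest.Agent.R136.Sh605 hiding frm

/-- the gauge in real units -/
noncomputable def gR (H Wa Wb Wy : ℝ) (h : Fin 6 → ℝ) : Fin 6 → ℝ :=
  ![h 0 * (H * Wy), h 1 * (H * Wy / Wa), h 2 * (H * Wy / Wb), h 3 * (H * Wy / Wa ^ 2),
    h 4 * (H * Wy / (Wa * Wb)), h 5 * (H * Wy / Wb ^ 2)]

theorem rg_scl {H Wa Wb Wy : ℝ} (hH : H ≠ 0) (ha : Wa ≠ 0) (hb : Wb ≠ 0) (hy : Wy ≠ 0)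
    (h : Fin 6 → ℝ) (i : Fq4) :
    rg h (scl H Wa Wb Wy i) = scl H Wa Wb Wy (rg (gR H Wa Wb Wy h) i) := by
  cases i
  simp only [rg, scl, gR, gA, gB, Fq4.pa, Fq4.pb, Fq4.mk.injEq, true_and, Matrix.cons_val]
  refine ⟨?_, ?_, ?_, ?_, ?_⟩ <;> field_simp

theorem tau_scl {H Wa Wb Wy : ℝ} (hH : H ≠ 0) (ha : Wa ≠ 0) (hb : Wb ≠ 0) (hy : Wy ≠ 0)
    (h : Fin 6 → ℝ) (i : Fq4) :
    tau h (scl H Wa Wb Wy i) * (H * Wy / Wa) = tau (gR H Wa Wb Wy h) i := by
  simp only [tau, scl, gR, Matrix.cons_val]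
  field_simp

/-- exponents of the container box (`z : u`, slots of the record `v`, wide angle `t`) -/
def kbm (u v t : ℝ) : Fin 11 → ℝ :=
  ![u, 2 * t + v - u, t, v, t + v, t, 2 * t, 2 * t + v, t + u, 2 * t + u, 2 * t + u + v]

/-- exponents of a box with the slot `R` natural -/
def xg (X : Fin 11 → ℝ) (k : Fin 11) : ℝ := if k = 1 then X 7 - X 0 else X k

/-- real side of the slot `k` -/
noncomputable def sd (d : ℝ) (X : Fin 11 → ℝ) (H Wa Wb Wy : ℝ) (k : Fin 11) : ℝ :=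
  d ^ xg X k / sfac H Wa Wb Wy k

/-- **real sides of the container box** -/
theorem sbox_win {d e : ℝ} (hd : 0 < d) (he : 0 < e) {X : Fin 11 → ℝ} (hX : TightQ X)
    {H Wa Wb Wy : ℝ} (hH : 0 < H) (ha : 0 < Wa) (hb : 0 < Wb) (hy : 0 < Wy) (u v t : ℝ)
    (k : Fin 11) :
    sbox (sd d X H Wa Wb Wy 0 * e ^ u) (sd d X H Wa Wb Wy 8 * e ^ (t + u))
      (sd d X H Wa Wb Wy 9 * e ^ (2 * t + u)) (sd d X H Wa Wb Wy 10 * e ^ (2 * t + u + v)) k =
      sd d X H Wa Wb Wy k * e ^ kbm u v t k := by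
  obtain ⟨nn, h07, w4, w6, w7, w8, w9, w10⟩ := hX
  have hdp : ∀ s : ℝ, 0 < d ^ s := fun s => Real.rpow_pos_of_pos hd s
  have hep : ∀ s : ℝ, 0 < e ^ s := fun s => Real.rpow_pos_of_pos he s
  have d0 := hdp (X 0)
  have d2 := hdp (X 2)
  have d3 := hdp (X 3)
  have d5 := hdp (X 5)
  have x0 : xg X 0 = X 0 := rfl
  have x1 : xg X 1 = X 2 + X 3 + X 5 - X 0 := by
    have : xg X 1 = X 7 - X 0 := rfl
    rw [this]; linarith
  have x2 : xg X 2 = X 2 := rfl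
  have x3 : xg X 3 = X 3 := rfl
  have x4 : xg X 4 = X 2 + X 3 := by
    have : xg X 4 = X 4 := rfl
    rw [this]; linarith
  have x5 : xg X 5 = X 5 := rfl
  have x6 : xg X 6 = X 2 + X 5 := by
    have : xg X 6 = X 6 := rfl
    rw [this]; linarith
  have x7 : xg X 7 = X 2 + X 3 + X 5 := by
    have : xg X 7 = X 7 := rfl
    rw [this]; linarith
  have x8 : xg X 8 = X 0 + X 5 := by
    have : xg X 8 = X 8 := rfl
    rw [this]; linarith
  have x9 : xg X 9 = X 0 + X 2 + X 5 := by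
    have : xg X 9 = X 9 := rfl
    rw [this]; linarith
  have x10 : xg X 10 = X 0 + X 2 + X 3 + X 5 := by
    have : xg X 10 = X 10 := rfl
    rw [this]; linarith
  have eu := hep u
  have ev := hep v
  have et := hep t
  have q1 : e ^ (t + u) = e ^ t * e ^ u := Real.rpow_add he _ _
  have q2 : e ^ (2 * t + u) = e ^ t * e ^ t * e ^ u := by
    rw [← Real.rpow_add he, ← Real.rpow_add he]; congr 1; ring
  have q3 : e ^ (2 * t + u + v) = e ^ t * e ^ t * e ^ u * e ^ v := by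
    rw [← Real.rpow_add he, ← Real.rpow_add he, ← Real.rpow_add he]; congr 1; ring
  have q4 : e ^ (2 * t + v - u) = e ^ t * e ^ t * e ^ v / e ^ u := by
    rw [← Real.rpow_add he, ← Real.rpow_add he, ← Real.rpow_sub he]; congr 1; ring
  have q5 : e ^ (t + v) = e ^ t * e ^ v := Real.rpow_add he _ _
  have q6 : e ^ (2 * t) = e ^ t * e ^ t := by
    rw [← Real.rpow_add he]; congr 1; ring
  have q7 : e ^ (2 * t + v) = e ^ t * e ^ t * e ^ v := by
    rw [← Real.rpow_add he, ← Real.rpow_add he]; congr 1; ring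
  have p1 : d ^ (X 2 + X 3 + X 5 - X 0) = d ^ X 2 * d ^ X 3 * d ^ X 5 / d ^ X 0 := by
    rw [Real.rpow_sub hd, Real.rpow_add hd, Real.rpow_add hd]
  have p4 : d ^ (X 2 + X 3) = d ^ X 2 * d ^ X 3 := Real.rpow_add hd _ _
  have p6 : d ^ (X 2 + X 5) = d ^ X 2 * d ^ X 5 := Real.rpow_add hd _ _
  have p7 : d ^ (X 2 + X 3 + X 5) = d ^ X 2 * d ^ X 3 * d ^ X 5 := by
    rw [Real.rpow_add hd, Real.rpow_add hd]
  have p8 : d ^ (X 0 + X 5) = d ^ X 0 * d ^ X 5 := Real.rpow_add hd _ _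
  have p9 : d ^ (X 0 + X 2 + X 5) = d ^ X 0 * d ^ X 2 * d ^ X 5 := by
    rw [Real.rpow_add hd, Real.rpow_add hd]
  have p10 : d ^ (X 0 + X 2 + X 3 + X 5) = d ^ X 0 * d ^ X 2 * d ^ X 3 * d ^ X 5 := by
    rw [Real.rpow_add hd, Real.rpow_add hd, Real.rpow_add hd]
  fin_cases k
  · simp only [sbox, kbm, Matrix.cons_val, Fin.zero_eta]
  · simp only [sbox, kbm, sd, sfac, Matrix.cons_val, Fin.mk_one, x0, x1, x10, q3, q4, p1, p10]
    field_simp
  · simp only [sbox, kbm, sd, sfac, Matrix.cons_val, Fin.reduceFinMk, x2, x8, x9, q1, q2, p8, p9]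
    field_simp
  · simp only [sbox, kbm, sd, sfac, Matrix.cons_val, Fin.reduceFinMk, x3, x10, x9, q3, q2, p10, p9]
    field_simp
  · simp only [sbox, kbm, sd, sfac, Matrix.cons_val, Fin.reduceFinMk, x4, x10, x8, q3, q1, q5, p10,
      p8, p4]
    field_simp
  · simp only [sbox, kbm, sd, sfac, Matrix.cons_val, Fin.reduceFinMk, x5, x0, x8, q1, p8]
    field_simp
  · simp only [sbox, kbm, sd, sfac, Matrix.cons_val, Fin.reduceFinMk, x6, x0, x9, q2, q6, p9, p6]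
    field_simp
  · simp only [sbox, kbm, sd, sfac, Matrix.cons_val, Fin.reduceFinMk, x7, x0, x10, q3, q7, p10, p7]
    field_simp
  · simp only [sbox, kbm, Matrix.cons_val, Fin.reduceFinMk]
  · simp only [sbox, kbm, Matrix.cons_val, Fin.reduceFinMk]
  · simp only [sbox, kbm, Matrix.cons_val, Fin.reduceFinMk]

set_option maxHeartbeats 1000000 in
/-- **flatness** of the quadratic function of a gauge with `g 4 = g 5 = 0` -/
theorem flat_gau {g : Fin 6 → ℝ} {i : Fq4} {κ ρ A B z1 s1 s2 m1 m2 k11 k12 k22 : ℝ}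
    (h4 : g 4 = 0) (h5 : g 5 = 0) (he : |i.e| ≤ 1) (hρ : 0 ≤ ρ) (hκ : 0 ≤ κ) (hB : 0 < B)
    (hBA : B ≤ A) (hc : QCo g i i.e z1 s1 s2 m1 m2 k11 k12 k22)
    (e1 : |tau g i| * ρ * A ≤ κ / 2 * B) (e2 : |g 2| * ρ ≤ κ / 4)
    (e3 : |g 3| * A ^ 2 ≤ κ * B) (e4 : 2 * |g 3| * A ≤ κ) :
    Flat κ ρ A B m1 m2 k11 k12 k22 := by
  have hA : 0 < A := hB.trans_le hBA
  have hn := nu_pos i.e
  have hu := unit_nu i.e
  have hsq := nu_sq i.e
  set α := 1 / nu i.e with hα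
  set β := i.e / nu i.e with hβ
  have hβα : β = α * i.e := by rw [hα, hβ]; ring
  have hα1 : |α| ≤ 1 := (abs_unit hu).1
  have hβ1 : |β| ≤ 1 := (abs_unit hu).2
  have hnu2 : nu i.e ≤ 2 := by
    have h1 : i.e ^ 2 ≤ 1 := by rw [← sq_abs]; nlinarith [abs_nonneg i.e]
    nlinarith
  have hnn : α + β * i.e = nu i.e := by
    rw [hα, hβ]
    field_simp
    nlinarith
  have t1 : m1 = α * tau g i := by
    rw [hc.m1, h4, h5, ← hα, ← hβ, hβα]
    unfold tau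
    ring
  have t2 : m2 = -β * tau g i + nu i.e * g 2 := by
    rw [hc.m2, h4, h5, ← hα, ← hβ, ← hnn]
    unfold tau
    ring
  have t3 : k11 = α ^ 2 * g 3 := by
    rw [hc.k11, h4, h5, ← hα, ← hβ]; ring
  have t4 : k12 = -2 * (α * β) * g 3 := by
    rw [hc.k12, h4, h5, ← hα, ← hβ]; ring
  have t5 : k22 = β ^ 2 * g 3 := by
    rw [hc.k22, h4, h5, ← hα, ← hβ]; ring
  have hα2 : α ^ 2 ≤ 1 := by rw [← sq_abs]; nlinarith [abs_nonneg α]
  have hβ2 : β ^ 2 ≤ 1 := by rw [← sq_abs]; nlinarith [abs_nonneg β]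
  have hτ0 : |tau g i| * ρ ≤ κ / 2 := by
    have h1 : |tau g i| * ρ * A ≤ κ / 2 * A := e1.trans (by gcongr)
    exact le_of_mul_le_mul_right h1 hA
  constructor
  · have h1 : |m1| ≤ |tau g i| := by
      rw [t1, abs_mul]
      exact mul_le_of_le_one_left (abs_nonneg _) hα1
    calc |m1| * ρ * A ≤ |tau g i| * ρ * A := by gcongr
      _ ≤ κ / 2 * B := e1
      _ ≤ κ * B := by
          have : 0 ≤ κ * B := by positivity
          linarith
  · have h1 : |m2| ≤ |tau g i| + 2 * |g 2| := by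
      rw [t2]
      refine (abs_add_le _ _).trans (add_le_add ?_ ?_)
      · rw [abs_mul, abs_neg]
        exact mul_le_of_le_one_left (abs_nonneg _) hβ1
      · rw [abs_mul, abs_of_pos hn]
        gcongr
    calc |m2| * ρ ≤ (|tau g i| + 2 * |g 2|) * ρ := by gcongr
      _ = |tau g i| * ρ + 2 * (|g 2| * ρ) := by ring
      _ ≤ κ := by linarith
  · calc |k11| * A ^ 2 ≤ |g 3| * A ^ 2 := by
          rw [t3, abs_mul, abs_of_nonneg (sq_nonneg α)]
          have : α ^ 2 * |g 3| ≤ 1 * |g 3| := by gcongr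
          nlinarith [sq_nonneg A]
      _ ≤ κ * B := e3
  · have h1 : |k12| ≤ 2 * |g 3| := by
      rw [t4, abs_mul, abs_mul, abs_mul, abs_neg, abs_two]
      have : |α| * |β| ≤ 1 * 1 := by gcongr
      nlinarith [abs_nonneg (g 3)]
    calc |k12| * A ≤ 2 * |g 3| * A := by gcongr
      _ ≤ κ := e4
  · have h1 : |k22| ≤ |g 3| := by
      rw [t5, abs_mul, abs_of_nonneg (sq_nonneg β)]
      exact mul_le_of_le_one_left (abs_nonneg _) hβ2
    have h2 : 0 ≤ |g 3| * A := by positivity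
    calc |k22| * B ≤ |g 3| * A := by gcongr
      _ ≤ κ := by linarith

/-- **record arithmetic**: the D-max number of the container times `2^(-(3-g)M)` is at most the number
of incidences of a record class -/
theorem rec_arith {d e H K C A P Pq c₀ ξ u v g S1 S2 δ ε n0 D cost Rv M2 Kc Tr T2 : ℝ} (hd : 0 < d)
    (he : 0 < e) (hH : 0 < H) (hA : 0 < A) (hP : 0 < P) (hPq : 0 < Pq) (hC : 0 < C) (hK : 0 ≤ K)
    (hn00 : 0 ≤ n0) (hD0 : 0 ≤ D) (hR0 : 0 ≤ Rv) (hM0 : 0 ≤ M2) (hKc0 : 0 ≤ Kc) (hTr0 : 0 ≤ Tr)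
    (hn0 : n0 ≤ 2 * H * (d ^ (ξ - 1) * e ^ u)) (hD : D ≤ A * (d ^ (-(ξ * g)) * e ^ (-(u * g))))
    (hcost : cost = P * (d ^ ((3 - S1) * ξ) * e ^ (3 * u - S1 * v)))
    (hRq : Rv ≤ Pq * (d ^ (-(S2 * ξ)) * e ^ (-(S2 * v))))
    (hM : M2 ≤ C * e ^ ((3 - g) * (v - u - δ)))
    (hKc : A * (P * Pq) * d ^ c₀ ≤ H * Kc)
    (hTr : d ^ (-(c₀ + (g * ξ + (1 - ξ) - (3 - S1) * ξ + S2 * ξ))) *
      e ^ (-((g - 1) * v - (3 - S1) * v + S2 * v) + ε) ≤ Tr)
    (hj : e ^ (u - v) ≤ 2 * T2) (hKK : 4 * C * H ^ 2 * e ^ (-((3 - g) * δ) - ε) ≤ K) :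
    n0 * (D * (cost * Rv)) * M2 ≤ K * (Kc * (Tr * T2)) := by
  have hdp : ∀ s : ℝ, 0 < d ^ s := fun s => Real.rpow_pos_of_pos hd s
  have hep : ∀ s : ℝ, 0 < e ^ s := fun s => Real.rpow_pos_of_pos he s
  have hcost0 : 0 < cost := by
    rw [hcost]; exact mul_pos hP (mul_pos (hdp _) (hep _))
  have hT20 : 0 ≤ T2 := by
    have := hep (u - v)
    linarith
  have hLHS : n0 * (D * (cost * Rv)) * M2 ≤
      2 * H * (d ^ (ξ - 1) * e ^ u) * (A * (d ^ (-(ξ * g)) * e ^ (-(u * g))) *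
        (P * (d ^ ((3 - S1) * ξ) * e ^ (3 * u - S1 * v)) *
          (Pq * (d ^ (-(S2 * ξ)) * e ^ (-(S2 * v)))))) * (C * e ^ ((3 - g) * (v - u - δ))) := by
    rw [← hcost]
    have a1 : 0 ≤ d ^ (ξ - 1) * e ^ u := (mul_pos (hdp _) (hep _)).le
    have a2 : 0 ≤ A * (d ^ (-(ξ * g)) * e ^ (-(u * g))) :=
      mul_nonneg hA.le (mul_pos (hdp _) (hep _)).le
    have a3 : 0 ≤ Pq * (d ^ (-(S2 * ξ)) * e ^ (-(S2 * v))) :=
      mul_nonneg hPq.le (mul_pos (hdp _) (hep _)).le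
    refine mul_le_mul (mul_le_mul hn0 (mul_le_mul hD (mul_le_mul_of_nonneg_left hRq hcost0.le)
      (mul_nonneg hcost0.le hR0) a2) (mul_nonneg hD0 (mul_nonneg hcost0.le hR0))
      (mul_nonneg (by positivity) a1)) hM hM0 ?_
    exact mul_nonneg (mul_nonneg (by positivity) a1) (mul_nonneg a2 (mul_nonneg hcost0.le a3))
  have hdE : d ^ (ξ - 1) * d ^ (-(ξ * g)) * d ^ ((3 - S1) * ξ) * d ^ (-(S2 * ξ)) =
      d ^ c₀ * d ^ (-(c₀ + (g * ξ + (1 - ξ) - (3 - S1) * ξ + S2 * ξ))) := by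
    rw [← Real.rpow_add hd, ← Real.rpow_add hd, ← Real.rpow_add hd, ← Real.rpow_add hd]
    congr 1; ring
  have heE : e ^ u * e ^ (-(u * g)) * e ^ (3 * u - S1 * v) * e ^ (-(S2 * v)) *
      e ^ ((3 - g) * (v - u - δ)) = e ^ (-((g - 1) * v - (3 - S1) * v + S2 * v) + ε) *
        e ^ (u - v) * e ^ (-((3 - g) * δ) - ε) := by
    rw [← Real.rpow_add he, ← Real.rpow_add he, ← Real.rpow_add he, ← Real.rpow_add he,
      ← Real.rpow_add he, ← Real.rpow_add he]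
    congr 1; ring
  set Ed : ℝ := d ^ (-(c₀ + (g * ξ + (1 - ξ) - (3 - S1) * ξ + S2 * ξ))) with hEd
  set Ee : ℝ := e ^ (-((g - 1) * v - (3 - S1) * v + S2 * v) + ε) with hEe
  set Ej : ℝ := e ^ (u - v) with hEj
  set El : ℝ := e ^ (-((3 - g) * δ) - ε) with hEl
  have p1 : 0 < Ed := hdp _
  have p2 : 0 < Ee := hep _
  have p3 : 0 < Ej := hep _
  have p4 : 0 < El := hep _
  have p5 := hdp c₀
  calc n0 * (D * (cost * Rv)) * M2 ≤ _ := hLHS
    _ = 2 * H * C * (A * (P * Pq)) *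
        (d ^ (ξ - 1) * d ^ (-(ξ * g)) * d ^ ((3 - S1) * ξ) * d ^ (-(S2 * ξ))) *
        (e ^ u * e ^ (-(u * g)) * e ^ (3 * u - S1 * v) * e ^ (-(S2 * v)) *
          e ^ ((3 - g) * (v - u - δ))) := by ring
    _ = 2 * H * C * El * (A * (P * Pq) * d ^ c₀) * (Ed * Ee) * Ej := by rw [hdE, heE]; ring
    _ ≤ 2 * H * C * El * (H * Kc) * Tr * (2 * T2) := by
        refine mul_le_mul (mul_le_mul (mul_le_mul_of_nonneg_left hKc (by positivity)) hTr
          (by positivity) (by positivity)) hj p3.le (by positivity)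
    _ = 4 * C * H ^ 2 * El * (Kc * (Tr * T2)) := by ring
    _ ≤ K * (Kc * (Tr * T2)) := by gcongr

/-- powers of comparable numbers -/
theorem rpow_comp {x y : ℝ} (hy : 0 < y) (h1 : y / 2 ≤ x) (h2 : x ≤ y) (c : ℝ) :
    x ^ c ≤ 2 ^ |c| * y ^ c := by
  have hx : 0 < x := lt_of_lt_of_le (by positivity) h1
  have h2c : (1 : ℝ) ≤ 2 ^ |c| := Real.one_le_rpow (by norm_num) (abs_nonneg _)
  have hyc := Real.rpow_pos_of_pos hy c
  rcases le_or_gt 0 c with hc | hc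
  · calc x ^ c ≤ y ^ c := Real.rpow_le_rpow hx.le h2 hc
      _ ≤ 2 ^ |c| * y ^ c := le_mul_of_one_le_left hyc.le h2c
  · have h3 : x ^ c ≤ (y / 2) ^ c := Real.rpow_le_rpow_of_nonpos (by positivity) h1 hc.le
    refine h3.trans (le_of_eq ?_)
    rw [Real.div_rpow hy.le (by norm_num), abs_of_neg hc, Real.rpow_neg (by norm_num)]
    field_simp

end Crest.Agent.R136.End882
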