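import Crest.Agent.R136.End12_882
import Crest.Agent.R136.TL0_196

/-!
# R136 (S0187): END, part 13 (helper882): levels, own counts of the gauge object
-/

set_option autoImplicit false
set_option linter.unusedVariables false

open Finset Filter Topology

namespace Crest.Agent.R136.End882

open Crest.Agent.R138.Ex926
open Crest.Agent.R136.Net191
open Crest.Agent.R136.NetQ186
open Crest.Agent.R136.GeoQ186
open Crest.Agent.R136.Gz779
open Crest.Agent.R136.Zpr779
open Crest.Agent.R136.TL196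
open Crest.Agent.R138.Mk163 (zc zl rho alive own)

/-! ### levels -/

/-- natural level of a length -/
noncomputable def lvl (y : ℝ) : ℕ := Nat.floor (Real.logb 2 (1 / y))

theorem lvl_spec {y : ℝ} (hy : 0 < y) (hy1 : y ≤ 1) : y ≤ rho (lvl y) ∧ rho (lvl y) < 2 * y := by
  have h1 : 1 ≤ 1 / y := by rw [le_div_iff₀ hy]; linarith
  have h0 : 0 ≤ Real.logb 2 (1 / y) := Real.logb_nonneg (by norm_num) h1
  have hpos : (0 : ℝ) < 2 ^ lvl y := by positivity
  have a1 : (2 : ℝ) ^ lvl y ≤ 1 / y := by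
    have h2 : ((lvl y : ℕ) : ℝ) ≤ Real.logb 2 (1 / y) := Nat.floor_le h0
    rw [← Real.rpow_natCast]
    exact (Real.le_logb_iff_rpow_le (by norm_num) (by positivity)).1 h2
  have a2 : 1 / y < (2 : ℝ) ^ (lvl y + 1) := by
    have h2 : Real.logb 2 (1 / y) < (lvl y : ℝ) + 1 := Nat.lt_floor_add_one _
    have h3 : Real.logb 2 (1 / y) < ((lvl y + 1 : ℕ) : ℝ) := by push_cast; exact h2
    rw [← Real.rpow_natCast]
    exact (Real.logb_lt_iff_lt_rpow (by norm_num) (by positivity)).1 h3
  unfold rho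
  constructor
  · rw [le_div_iff₀ hpos]
    rw [le_div_iff₀ hy] at a1
    linarith
  · rw [div_lt_iff₀ hpos]
    rw [div_lt_iff₀ hy, pow_succ] at a2
    linarith

/-- powers of two below a number -/
theorem exists_pow2 {Y : ℝ} (hY : 1 ≤ Y) : ∃ M : ℕ, (2 : ℝ) ^ M ≤ Y ∧ Y < 2 ^ (M + 1) := by
  have hY0 : 0 < Y := by linarith
  obtain ⟨h1, h2⟩ := lvl_spec (y := 1 / Y) (by positivity) (by rw [div_le_one hY0]; exact hY)
  refine ⟨lvl (1 / Y), ?_, ?_⟩
  · unfold rho at h1
    rw [div_le_div_iff₀ hY0 (by positivity)] at h1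
    linarith
  · unfold rho at h2
    rw [mul_one_div, div_lt_div_iff₀ (by positivity) hY0] at h2
    rw [pow_succ]; linarith

/-- the window level -/
theorem exists_k {η : ℝ} (hη : 0 < η) (hη1 : η ≤ 1 / 4) {M : ℕ} (hM : 4 ≤ η * M) :
    ∃ k : ℕ, η / 2 * M ≤ k ∧ (k : ℝ) ≤ η * M ∧ 3 / 4 * η * M ≤ k ∧ (k : ℝ) ≤ 3 / 4 * η * M + 1 := by
  have hM0 : (0 : ℝ) ≤ M := Nat.cast_nonneg _
  have h0 : 0 ≤ 3 / 4 * η * M := by positivity
  have h1 := Nat.le_ceil (3 / 4 * η * M)
  have h2 := Nat.ceil_lt_add_one h0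
  exact ⟨Nat.ceil (3 / 4 * η * M), by nlinarith, by linarith, h1, h2.le⟩

/-! ### own counts -/

/-- **own counts at two levels** -/
theorem own_lo {c : LCtx} {B' : Base} {J : ℕ → Finset (ℕ × ℝ)} {ξ w : ℕ → ℝ}
    {lam lo : (Fin 11 → ℝ) → ℝ} {Cl E : ℕ → Finset (ℕ × ℝ)} {s₀ : ℕ → ℕ × ℝ}
    {h : ℕ → Fin 6 → ℝ} {ηg : ℕ → ℝ} {J' : ℕ → Finset (ℕ × ℝ)} {To : ℕ → ℝ}
    {ν' own' : (Fin 11 → ℝ) → ℝ} {θ T1 x R' : ℝ}
    (H : ExtZ c.D.B B' E J' (coG c.F h) monQ 2 (XG (c.XB T1 ξ w)) w monQ R' (c.TB T1 B' ξ lam) To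
      0 0 0 (PDz θ T1 R') (DL c.p) (rz θ T1 x) (oz θ T1 x R')
      (fun v => DL c.p (rz θ T1 x v)) (fun _ => False) ν' own' (DL c.p (bT T1) - lam (bT T1)))
    (hZ : 1 ≤ θ ∨ Zer θ T1 x R' own') (hθ : 0 < θ) {a : ℝ} (ha0 : 0 ≤ a) (ha1 : a ≤ 1) {ε : ℝ}
    (hε : 0 < ε) :
    ∃ u v : ℝ, 0 < u ∧ u < v ∧ v < 1 ∧ v - u ≤ 1 / 2 ∧ ∀ b : ℝ, b = 0 ∨ b = a → ∀ p ∈ Leg monQ R',
      p 0 = u + b * (v - u) → p 4 ≤ T1 + (1 - θ) * v → p 1 ≤ x → p 3 ≤ x → (∀ k, p k ≤ R' - 1) →
      (∀ k, p k ≤ R' - |1 - θ|) →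
        (1 - p 0) - ε * (v - u) ≤ own' p := by
  rcases hZ with hθ1 | hZ
  · refine ⟨1 / 4, 1 / 2, by norm_num, by norm_num, by norm_num, by norm_num, ?_⟩
    intro b hb p hp p0 p4 p1 p3 hk hk'
    have hb0 : 0 ≤ b ∧ b ≤ 1 := by
      rcases hb with rfl | rfl
      · exact ⟨le_rfl, zero_le_one⟩
      · exact ⟨ha0, ha1⟩
    have hp0 : 0 ≤ p 0 := by rw [p0]; nlinarith
    have hp1 : p 0 ≤ 1 / 2 := by rw [p0]; nlinarith
    have h1 := H.own_rot p hp (p 0) hp0 (by linarith) (by ring) (by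
      intro k
      fin_cases k
      · exact le_rfl
      · exact p1
      · exact (hk 2).trans (by simp [oz])
      · exact p3
      · refine p4.trans ?_
        simp only [oz, Matrix.cons_val, Fin.reduceFinMk]
        nlinarith
      all_goals
        simp only [oz, Matrix.cons_val, Fin.reduceFinMk]
        linarith [hk 5, hk 6, hk 7, hk 8, hk 9, hk 10])
    rw [h1]
    have : 0 ≤ ε * (1 / 2 - 1 / 4) := by positivity
    linarith
  · obtain ⟨v, hv, -, hh, hh0, hht, H1⟩ := hZ (fun _ => True) (by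
      filter_upwards with v hv using trivial)
    by_cases hθ1 : 1 ≤ θ
    · -- the ray is free
      refine ⟨1 / 4, 1 / 2, by norm_num, by norm_num, by norm_num, by norm_num, ?_⟩
      intro b hb p hp p0 p4 p1 p3 hk hk'
      have hb0 : 0 ≤ b ∧ b ≤ 1 := by
        rcases hb with rfl | rfl
        · exact ⟨le_rfl, zero_le_one⟩
        · exact ⟨ha0, ha1⟩
      have hp0 : 0 ≤ p 0 := by rw [p0]; nlinarith
      have hp1 : p 0 ≤ 1 / 2 := by rw [p0]; nlinarith
      have h1 := H.own_rot p hp (p 0) hp0 (by linarith) (by ring) (by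
        intro k
        fin_cases k
        · exact le_rfl
        · exact p1
        · exact (hk 2).trans (by simp [oz])
        · exact p3
        · refine p4.trans ?_
          simp only [oz, Matrix.cons_val, Fin.reduceFinMk]
          nlinarith
        all_goals
          simp only [oz, Matrix.cons_val, Fin.reduceFinMk]
          linarith [hk 5, hk 6, hk 7, hk 8, hk 9, hk 10])
      rw [h1]
      have : 0 ≤ ε * (1 / 2 - 1 / 4) := by positivity
      linarith
    push Not at hθ1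
    have hκ : 0 ≤ 1 - θ := by linarith
    have e1 : ∀ᶠ l in (atTop : Filter ℕ), hh l < min (1 - v) (1 / 2) :=
      hht.eventually_lt_const (lt_min (by linarith [hv.2]) (by norm_num))
    have f1 := H1 0 ((1 - θ) * 1) (by positivity) ε hε
    have f2 := H1 a ((1 - θ) * (1 - a)) (mul_nonneg hκ (by linarith)) ε hε
    obtain ⟨l, g1, g2, g3⟩ := (e1.and (f1.and f2)).exists
    have hl := hh0 l
    have g1' : hh l < 1 - v := g1.trans_le (min_le_left _ _)
    have g1'' : hh l < 1 / 2 := g1.trans_le (min_le_right _ _)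
    refine ⟨v, v + hh l, hv.1, by linarith, by linarith, by linarith, ?_⟩
    intro b hb p hp p0 p4 p1 p3 hk hk'
    have er : v + hh l - v = hh l := by ring
    rw [er] at p0 ⊢
    rcases hb with rfl | rfl
    · refine le_trans (le_of_eq ?_) (g2 p hp (by rw [p0]) ?_ ?_ ?_ ?_)
      · rw [p0]
      · refine p4.trans (le_of_eq ?_); ring
      · intro k k0 k4 k5 k8
        fin_cases k <;> first | exact absurd rfl k0 | exact absurd rfl k4 | exact absurd rfl k5 |
          exact absurd rfl k8 | skip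
        · exact p1
        · exact (hk 2).trans (by simp [oz])
        · exact p3
        all_goals
          simp only [oz, Matrix.cons_val, Fin.reduceFinMk]
          linarith [hk 6, hk 7, hk 9, hk 10]
      · have := hk' 5
        rw [abs_of_nonneg hκ] at this
        nlinarith
      · have := hk' 8
        rw [abs_of_nonneg hκ] at this
        nlinarith
    · refine le_trans (le_of_eq ?_) (g3 p hp (by rw [p0]) ?_ ?_ ?_ ?_)
      · rw [p0]
      · refine p4.trans (le_of_eq ?_); ring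
      · intro k k0 k4 k5 k8
        fin_cases k <;> first | exact absurd rfl k0 | exact absurd rfl k4 | exact absurd rfl k5 |
          exact absurd rfl k8 | skip
        · exact p1
        · exact (hk 2).trans (by simp [oz])
        · exact p3
        all_goals
          simp only [oz, Matrix.cons_val, Fin.reduceFinMk]
          linarith [hk 6, hk 7, hk 9, hk 10]
      · have := hk' 5
        rw [abs_of_nonneg hκ] at this
        have h2 : (1 - θ) * (1 - b) * hh l ≤ 1 - θ := by
          have : (1 - b) * hh l ≤ 1 := by nlinarith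
          calc (1 - θ) * (1 - b) * hh l = (1 - θ) * ((1 - b) * hh l) := by ring
            _ ≤ (1 - θ) * 1 := mul_le_mul_of_nonneg_left this hκ
            _ = 1 - θ := mul_one _
        linarith
      · have := hk' 8
        rw [abs_of_nonneg hκ] at this
        have h2 : (1 - θ) * (1 - b) * hh l ≤ 1 - θ := by
          have : (1 - b) * hh l ≤ 1 := by nlinarith
          calc (1 - θ) * (1 - b) * hh l = (1 - θ) * ((1 - b) * hh l) := by ring
            _ ≤ (1 - θ) * 1 := mul_le_mul_of_nonneg_left this hκ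
            _ = 1 - θ := mul_one _
        linarith

end Crest.Agent.R136.End882
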