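import Crest.Agent.R136.End13_882
import Crest.Agent.R136.Cnt_638

/-!
# R136 (S0187): END, part 14 (helper882): finite pieces of the assembly
-/

set_option autoImplicit false
set_option linter.unusedVariables false

open Finset Filter Topology

namespace Crest.Agent.R136.End882

open Crest.Agent.R138.Ex926
open Crest.Agent.R136.Net191
open Crest.Agent.R136.NetQ186
open Crest.Agent.R136.GeoQ186
open Crest.Agent.R136.Gz779
open Crest.Agent.R136.Wq638
open Crest.Agent.R136.TL196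
open Crest.Agent.R138.Mk163 (zc zl rho alive own)
open Crest.Agent.R136.LmQ861 Crest.Agent.R136.HR829

/-- boxes with comparable lengths -/
theorem sbox_le {lam lam' w1 w2 a : ℝ} (hl : 0 < lam) (h1 : lam ≤ lam') (h2 : lam' ≤ 2 * lam)
    (hw1 : 0 < w1) (hw2 : 0 < w2) (ha : 0 < a) (s : Fin 11) :
    sbox lam w1 w2 a s ≤ 4 * sbox lam' w1 w2 a s := by
  have hl' : 0 < lam' := hl.trans_le h1
  have key : ∀ t : ℝ, 0 < t → t / lam ≤ 4 * (t / lam') := by
    intro t ht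
    rw [← mul_div_assoc, div_le_div_iff₀ hl hl']
    nlinarith
  have id' : ∀ t : ℝ, 0 < t → t ≤ 4 * t := fun t ht => by linarith
  have k1 : a / lam ^ 2 ≤ 4 * (a / lam' ^ 2) := by
    rw [← mul_div_assoc, div_le_div_iff₀ (by positivity) (by positivity)]
    have h3 : lam' ^ 2 ≤ 4 * lam ^ 2 := by nlinarith
    calc a * lam' ^ 2 ≤ a * (4 * lam ^ 2) := mul_le_mul_of_nonneg_left h3 ha.le
      _ = 4 * a * lam ^ 2 := by ring
  have q0 : lam ≤ 4 * lam' := by linarith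
  have q2 := id' _ (div_pos hw2 hw1)
  have q3 := id' _ (div_pos ha hw2)
  have q4 := id' _ (div_pos ha hw1)
  have q5 := key w1 hw1
  have q6 := key w2 hw2
  have q7 := key a ha
  have q8 := id' _ hw1
  have q9 := id' _ hw2
  have q10 := id' _ ha
  unfold sbox
  fin_cases s
  · exact q0
  · exact k1
  · exact q2
  · exact q3
  · exact q4
  · exact q5
  · exact q6
  · exact q7
  · exact q8
  · exact q9
  · exact q10

theorem sfac_pos {H Wa Wb Wy : ℝ} (hH : 0 < H) (ha : 0 < Wa) (hb : 0 < Wb) (hy : 0 < Wy)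
    (k : Fin 11) : 0 < sfac H Wa Wb Wy k := by
  fin_cases k <;> simp only [sfac, Matrix.cons_val, Fin.zero_eta, Fin.mk_one, Fin.reduceFinMk,
    Fin.isValue] <;> positivity

/-- **real closeness from closeness in the gauge chart** -/
theorem co_real {H Wa Wb Wy : ℝ} (hH : 0 < H) (ha : 0 < Wa) (hb : 0 < Wb) (hy : 0 < Wy)
    {h : Fin 6 → ℝ} {i j : Fq4} {d e C : ℝ} {X p : Fin 11 → ℝ} {k : Fin 11}
    (hc : |coQ (rg h (scl H Wa Wb Wy i)) (rg h (scl H Wa Wb Wy j)) k| ≤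
      C * (d ^ xg X k * e ^ p k)) :
    |coQ (rg (gR H Wa Wb Wy h) i) (rg (gR H Wa Wb Wy h) j) k| ≤
      C * (sd d X H Wa Wb Wy k * e ^ p k) := by
  have hs := sfac_pos hH ha hb hy k
  rw [rg_scl hH.ne' ha.ne' hb.ne' hy.ne', rg_scl hH.ne' ha.ne' hb.ne' hy.ne',
    coQ_scl hH.ne' ha.ne' hb.ne' hy.ne', abs_mul, abs_of_pos hs] at hc
  unfold sd
  rw [show C * (d ^ xg X k / sfac H Wa Wb Wy k * e ^ p k) =
    (C * (d ^ xg X k * e ^ p k)) / sfac H Wa Wb Wy k by ring, le_div_iff₀ hs]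
  linarith

/-- flags before the gauge -/
theorem rg_flags (g : Fin 6 → ℝ) (i : Fq4) :
    gA g i.z ((rg g i).pa i.z) ((rg g i).pb i.z) + (rg g i).fa = i.fa ∧
    gB g i.z ((rg g i).pa i.z) ((rg g i).pb i.z) + (rg g i).fb = i.fb := by
  constructor <;> simp only [rg_pa, rg_pb] <;> simp [rg]

open Classical in
/-- number of incidences of one line in one cell, one incidence per cell of level `m1` -/
theorem cell_count {I : Finset (ℕ × ℝ)} {m m1 : ℕ} (hm : m ≤ m1)
    (hone : ∀ x ∈ I, ∀ y ∈ I, x.1 = y.1 → zc m1 x.2 = zc m1 y.2 → x = y) (x : ℕ × ℝ) :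
    ((I.filter fun y => y.1 = x.1 ∧ zc m y.2 = zc m x.2).card : ℝ) ≤ 2 ^ (m1 - m) := by
  have h1 : (I.filter fun y => y.1 = x.1 ∧ zc m y.2 = zc m x.2).card ≤
      (Finset.Ico (zc m x.2 * 2 ^ (m1 - m)) ((zc m x.2 + 1) * 2 ^ (m1 - m))).card := by
    refine card_le_card_of_injOn (fun y => zc m1 y.2) (fun y hy => ?_) (fun y hy y' hy' h => ?_)
    · rw [mem_coe, mem_filter] at hy
      rw [mem_coe, mem_Ico]
      have h2 := hy.2.2
      rw [Crest.Agent.R136.Cnt638.zc_eq_div hm y.2] at h2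
      push_cast at h2
      have hp : (0 : ℤ) < 2 ^ (m1 - m) := by positivity
      have e1 := Int.ediv_mul_le (zc m1 y.2) hp.ne'
      have e2 := Int.lt_ediv_add_one_mul_self (zc m1 y.2) hp
      rw [h2] at e1 e2
      exact ⟨e1, e2⟩
    · rw [mem_coe, mem_filter] at hy hy'
      exact hone y hy.1 y' hy'.1 (hy.2.1.trans hy'.2.1.symm) h
  rw [Int.card_Ico] at h1
  have h2 : ((zc m x.2 + 1) * 2 ^ (m1 - m) - zc m x.2 * 2 ^ (m1 - m)).toNat = 2 ^ (m1 - m) := by
    have : (zc m x.2 + 1) * 2 ^ (m1 - m) - zc m x.2 * 2 ^ (m1 - m) =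
        ((2 ^ (m1 - m) : ℕ) : ℤ) := by push_cast; ring
    rw [this, Int.toNat_natCast]
  rw [h2] at h1
  exact_mod_cast h1

/-- **flatness of the window container** -/
theorem flat_win {g : Fin 6 → ℝ} {i : Fq4} {z1 s1 s2 m1 m2 k11 k12 k22 : ℝ} {e lam W1 W2 Th x u t Kp
    ρi : ℝ} (h4 : g 4 = 0) (h5 : g 5 = 0) (hei : |i.e| ≤ 1) (he : 0 < e) (he1 : 1000000 * e ≤ 1)
    (hlam : 0 < lam) (hW1 : 0 < W1) (hW2 : 0 < W2) (hTh : 0 < Th) (hx : 0 ≤ x) (hu : 0 ≤ u)
    (ht : 0 ≤ t) (hKp : 1 ≤ Kp) (hKp1 : Kp ≤ e ^ (-1 : ℝ)) (hρ0 : 0 ≤ ρi) (hρ : ρi ≤ 2 * (lam * e ^ u))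
    (c1 : |tau g i| * lam ≤ e ^ (x - 1) * (Th / W1)) (c2 : |g 2| * lam ≤ e ^ (-1 : ℝ) * (Th / W2))
    (c3 : |g 3| * W1 ≤ e ^ (-1 : ℝ) * (Th / W1)) (b1 : Th ≤ e ^ (t + 4) * W2)
    (b2 : W2 ≤ e ^ (t + 4) * W1) (hc : QCo g i i.e z1 s1 s2 m1 m2 k11 k12 k22) :
    Flat (1 / 2048) ρi (6 * Kp * (W1 * e ^ (t + u))) (2 * Kp * (W2 * e ^ (2 * t + u)))
      m1 m2 k11 k12 k22 := by
  have hep : ∀ s : ℝ, 0 < e ^ s := fun s => Real.rpow_pos_of_pos he s
  have hadd : ∀ s s' : ℝ, e ^ s * e ^ s' = e ^ (s + s') := fun s s' => (Real.rpow_add he s s').symm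
  have hle1 : e ≤ 1 := by linarith
  have hmon : ∀ {s s' : ℝ}, s' ≤ s → e ^ s ≤ e ^ s' := fun hs =>
    Real.rpow_le_rpow_of_exponent_ge he hle1 hs
  have hone : ∀ s : ℝ, 1 ≤ s → e ^ s ≤ e := fun s hs => by
    calc e ^ s ≤ e ^ (1 : ℝ) := hmon hs
      _ = e := Real.rpow_one e
  have hKp0 : 0 < Kp := by linarith
  set A : ℝ := 6 * Kp * (W1 * e ^ (t + u)) with hA
  set B : ℝ := 2 * Kp * (W2 * e ^ (2 * t + u)) with hB
  have hA0 : 0 < A := by have := hep (t + u); positivity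
  have hB0 : 0 < B := by have := hep (2 * t + u); positivity
  have hBA : B ≤ A := by
    have h1 : W2 * e ^ (2 * t + u) ≤ W1 * e ^ (t + u) := by
      calc W2 * e ^ (2 * t + u) ≤ (e ^ (t + 4) * W1) * e ^ (2 * t + u) :=
            mul_le_mul_of_nonneg_right b2 (hep _).le
        _ = W1 * e ^ (t + 4 + (2 * t + u)) := by rw [← hadd (t + 4) (2 * t + u)]; ring
        _ ≤ W1 * e ^ (t + u) := mul_le_mul_of_nonneg_left (hmon (by linarith)) hW1.le
    rw [hA, hB]
    have := mul_le_mul_of_nonneg_left h1 hKp0.le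
    have h3 : 0 ≤ Kp * (W1 * e ^ (t + u)) := by have := hep (t + u); positivity
    linarith
  refine flat_gau h4 h5 hei hρ0 (by norm_num) hB0 hBA hc ?_ ?_ ?_ ?_
  · have h1 : |tau g i| * ρi ≤ 2 * e ^ u * (e ^ (x - 1) * (Th / W1)) := by
      calc |tau g i| * ρi ≤ |tau g i| * (2 * (lam * e ^ u)) :=
            mul_le_mul_of_nonneg_left hρ (abs_nonneg _)
        _ = 2 * e ^ u * (|tau g i| * lam) := by ring
        _ ≤ 2 * e ^ u * (e ^ (x - 1) * (Th / W1)) := mul_le_mul_of_nonneg_left c1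
            (mul_nonneg two_pos.le (hep _).le)
    calc |tau g i| * ρi * A ≤ 2 * e ^ u * (e ^ (x - 1) * (Th / W1)) * A :=
          mul_le_mul_of_nonneg_right h1 hA0.le
      _ = 12 * Kp * Th * (e ^ u * e ^ (x - 1) * e ^ (t + u)) := by
          rw [hA]; field_simp; ring
      _ = 12 * Kp * Th * e ^ (u + (x - 1) + (t + u)) := by rw [hadd, hadd]
      _ ≤ 12 * Kp * (e ^ (t + 4) * W2) * e ^ (u + (x - 1) + (t + u)) := by
          have := hep (u + (x - 1) + (t + u))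
          gcongr
      _ = 12 * Kp * W2 * e ^ (t + 4 + (u + (x - 1) + (t + u))) := by rw [← hadd (t + 4)]; ring
      _ ≤ 12 * Kp * W2 * e ^ (1 + (2 * t + u)) := by
          have : 0 < 12 * Kp * W2 := by positivity
          exact mul_le_mul_of_nonneg_left (hmon (by linarith)) this.le
      _ = 12 * e * (Kp * (W2 * e ^ (2 * t + u))) := by
          rw [Real.rpow_add he, Real.rpow_one]; ring
      _ ≤ 1 / 2048 / 2 * B := by
          rw [hB]
          have h2 : 0 < Kp * (W2 * e ^ (2 * t + u)) := by have := hep (2 * t + u); positivity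
          have h3 : 12 * e ≤ 1 / 2048 := by linarith
          calc 12 * e * (Kp * (W2 * e ^ (2 * t + u))) ≤ 1 / 2048 * (Kp * (W2 * e ^ (2 * t + u))) :=
                mul_le_mul_of_nonneg_right h3 h2.le
            _ = _ := by ring
  · have h1 : Th / W2 ≤ e ^ (t + 4) := by rwa [div_le_iff₀ hW2]
    calc |g 2| * ρi ≤ |g 2| * (2 * (lam * e ^ u)) := mul_le_mul_of_nonneg_left hρ (abs_nonneg _)
      _ = 2 * e ^ u * (|g 2| * lam) := by ring
      _ ≤ 2 * e ^ u * (e ^ (-1 : ℝ) * (Th / W2)) := mul_le_mul_of_nonneg_left c2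
            (mul_nonneg two_pos.le (hep _).le)
      _ ≤ 2 * e ^ u * (e ^ (-1 : ℝ) * e ^ (t + 4)) := by
          have := hep u
          have := hep (-1)
          gcongr
      _ = 2 * e ^ (u + (-1 + (t + 4))) := by rw [hadd, mul_assoc, hadd]
      _ ≤ 2 * e := by
          have := hone (u + (-1 + (t + 4))) (by linarith)
          linarith
      _ ≤ 1 / 2048 / 4 := by linarith
  · have h1 : |g 3| ≤ e ^ (-1 : ℝ) * (Th / W1) / W1 := by rwa [le_div_iff₀ hW1]
    calc |g 3| * A ^ 2 ≤ e ^ (-1 : ℝ) * (Th / W1) / W1 * A ^ 2 := by gcongr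
      _ = 36 * Kp * Kp * Th * (e ^ (-1 : ℝ) * e ^ (t + u) * e ^ (t + u)) := by
          rw [hA]; field_simp; ring
      _ = 36 * Kp * Kp * Th * e ^ (-1 + (t + u) + (t + u)) := by rw [hadd, hadd]
      _ ≤ 36 * Kp * e ^ (-1 : ℝ) * (e ^ (t + 4) * W2) * e ^ (-1 + (t + u) + (t + u)) := by
          have := hep (-1 + (t + u) + (t + u))
          gcongr
      _ = 36 * Kp * W2 * e ^ (-1 + (t + 4) + (-1 + (t + u) + (t + u))) := by
          rw [← hadd (-1 + (t + 4)), ← hadd (-1) (t + 4)]; ring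
      _ ≤ 36 * Kp * W2 * e ^ (1 + (2 * t + u)) := by
          have : 0 < 36 * Kp * W2 := by positivity
          exact mul_le_mul_of_nonneg_left (hmon (by linarith)) this.le
      _ = 36 * e * (Kp * (W2 * e ^ (2 * t + u))) := by
          rw [Real.rpow_add he, Real.rpow_one]; ring
      _ ≤ 1 / 2048 * B := by
          rw [hB]
          have h2 : 0 < Kp * (W2 * e ^ (2 * t + u)) := by have := hep (2 * t + u); positivity
          have h3 : 36 * e ≤ 1 / 1024 := by linarith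
          calc 36 * e * (Kp * (W2 * e ^ (2 * t + u))) ≤ 1 / 1024 * (Kp * (W2 * e ^ (2 * t + u))) :=
                mul_le_mul_of_nonneg_right h3 h2.le
            _ = _ := by ring
  · have h1 : |g 3| ≤ e ^ (-1 : ℝ) * (Th / W1) / W1 := by rwa [le_div_iff₀ hW1]
    have h2 : Th ≤ e ^ (t + 4) * W1 := by
      calc Th ≤ e ^ (t + 4) * W2 := b1
        _ ≤ 1 * W2 := by
            have : e ^ (t + 4) ≤ 1 := (hone _ (by linarith)).trans hle1
            gcongr
        _ = W2 := one_mul _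
        _ ≤ _ := b2
    have h3 : Th / W1 ≤ e ^ (t + 4) := by rwa [div_le_iff₀ hW1]
    calc 2 * |g 3| * A ≤ 2 * (e ^ (-1 : ℝ) * (Th / W1) / W1) * A := by gcongr
      _ = 12 * Kp * (Th / W1) * (e ^ (-1 : ℝ) * e ^ (t + u)) := by
          rw [hA]; field_simp; ring
      _ ≤ 12 * e ^ (-1 : ℝ) * e ^ (t + 4) * (e ^ (-1 : ℝ) * e ^ (t + u)) := by
          have h4 := hep (-1)
          have h5 := hep (t + u)
          have h6 : 0 < Th / W1 := by positivity
          gcongr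
      _ = 12 * e ^ (-1 + (t + 4) + (-1 + (t + u))) := by
          rw [← hadd (-1 + (t + 4)), ← hadd (-1) (t + 4), ← hadd (-1) (t + u)]; ring
      _ ≤ 12 * e := by
          have := hone (-1 + (t + 4) + (-1 + (t + u))) (by linarith)
          linarith
      _ ≤ 1 / 2048 := by linarith

end Crest.Agent.R136.End882
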