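import Crest.Agent.R136.End14_882

/-!
# R136 (S0187): END, part 15 (helper882): levels of the window
-/

set_option autoImplicit false
set_option linter.unusedVariables false

open Finset Filter Topology

namespace Crest.Agent.R136.End882

open Crest.Agent.R138.Mk163 (zc zl rho alive own)
open Crest.Agent.R136.HR829

theorem rho_lt {i j : ℕ} (h : rho j < rho i) : i < j := by
  unfold rho at h
  rw [div_lt_div_iff₀ (by positivity) (by positivity), one_mul, one_mul] at h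
  exact (pow_lt_pow_iff_right₀ (by norm_num)).1 h

/-- number of scales -/
noncomputable def nM (e s : ℝ) : ℕ := lvl (e ^ s)
/-- window level -/
noncomputable def nK (η : ℝ) (M : ℕ) : ℕ := Nat.ceil (3 / 4 * η * M)

/-- **levels** -/
theorem lev_facts {η : ℝ} (hη0 : 0 < η) (hη1 : η ≤ 1 / 4) {M₁ : ℕ} (hM₁ : 4 ≤ η * M₁)
    {e lam u v δ κ : ℝ} (he : 0 < e) (he1 : e < 1) (hlam : 0 < lam) (hlam1 : lam ≤ 1) (hu : 0 < u)
    (huv : u < v) (hδ : 0 < δ) (hδ1 : δ < v - u) (E3 : (2 : ℝ) ^ (M₁ + 1) ≤ e ^ (-(v - u - δ)))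
    (E8 : 4 * e ^ δ < 1) (E9 : 2 * e ^ (κ / 2) ≤ 1) :
    lam * e ^ u ≤ rho (lvl (lam * e ^ u)) ∧ rho (lvl (lam * e ^ u)) ≤ 2 * (lam * e ^ u) ∧
    lam * e ^ v ≤ rho (lvl (lam * e ^ v)) ∧ rho (lvl (lam * e ^ v)) ≤ 2 * (lam * e ^ v) ∧
    (2 : ℝ) ^ nM e (v - u - δ) ≤ e ^ (-(v - u - δ)) ∧
    e ^ (-(v - u - δ)) ≤ (2 : ℝ) ^ (nM e (v - u - δ) + 1) ∧ M₁ ≤ nM e (v - u - δ) ∧
    η / 2 * nM e (v - u - δ) ≤ nK η (nM e (v - u - δ)) ∧
    (nK η (nM e (v - u - δ)) : ℝ) ≤ η * nM e (v - u - δ) ∧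
    nK η (nM e (v - u - δ)) ≤ nM e (v - u - δ) ∧
    lvl (lam * e ^ u) + nM e (v - u - δ) + 1 ≤ lvl (lam * e ^ v) ∧
    lam * e ^ (u + (v - u - δ) * (1 - 3 / 4 * η) + κ / 2) ≤
      rho (lvl (lam * e ^ u) + nM e (v - u - δ) + 1 - nK η (nM e (v - u - δ))) ∧
    ((2 : ℝ) ^ (nM e (v - u - δ) + 1 - nK η (nM e (v - u - δ))))⁻¹ ≤
      2 * e ^ ((v - u - δ) * (1 - 3 / 4 * η)) := by
  have hep : ∀ s : ℝ, 0 < e ^ s := fun s => Real.rpow_pos_of_pos he s
  have he01 : ∀ s : ℝ, 0 ≤ s → e ^ s ≤ 1 := fun s hs =>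
    Real.rpow_le_one he.le he1.le hs
  have hle : ∀ s : ℝ, 0 ≤ s → lam * e ^ s ≤ 1 := fun s hs => by
    have := he01 s hs
    have := hep s
    nlinarith
  obtain ⟨i1, i2⟩ := lvl_spec (y := lam * e ^ u) (mul_pos hlam (hep _)) (hle u hu.le)
  obtain ⟨j1, j2⟩ := lvl_spec (y := lam * e ^ v) (mul_pos hlam (hep _)) (hle v (by linarith))
  set i := lvl (lam * e ^ u) with hi
  set j := lvl (lam * e ^ v) with hj
  set s : ℝ := v - u - δ with hs
  have hs0 : 0 < s := by rw [hs]; linarith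
  obtain ⟨m1, m2⟩ := lvl_spec (y := e ^ s) (hep _) (he01 s hs0.le)
  set M := nM e s with hM
  change e ^ s ≤ rho M at m1
  change rho M < 2 * e ^ s at m2
  have hneg : e ^ (-s) = (e ^ s)⁻¹ := Real.rpow_neg he.le s
  have h2M : (0 : ℝ) < 2 ^ M := by positivity
  have hρM : rho M = ((2 : ℝ) ^ M)⁻¹ := by unfold rho; rw [one_div]
  have a1 : (2 : ℝ) ^ M ≤ e ^ (-s) := by
    rw [hneg, ← inv_inv ((2 : ℝ) ^ M), ← hρM]
    exact inv_anti₀ (hep s) m1
  have a2 : e ^ (-s) ≤ (2 : ℝ) ^ (M + 1) := by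
    rw [hneg, pow_succ, inv_le_iff_one_le_mul₀ (hep s)]
    have h1 : ((2 : ℝ) ^ M)⁻¹ < 2 * e ^ s := by rw [← hρM]; exact m2
    have h2 : 1 < 2 ^ M * (2 * e ^ s) := by
      calc (1 : ℝ) = 2 ^ M * ((2 : ℝ) ^ M)⁻¹ := (mul_inv_cancel₀ h2M.ne').symm
        _ < 2 ^ M * (2 * e ^ s) := by gcongr
    linarith
  have a3 : M₁ ≤ M := by
    have h1 : (2 : ℝ) ^ (M₁ + 1) ≤ 2 ^ (M + 1) := E3.trans a2
    have := (pow_le_pow_iff_right₀ (by norm_num : (1 : ℝ) < 2)).1 h1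
    omega
  have hM4 : 4 ≤ η * M := by
    have : (M₁ : ℝ) ≤ M := by exact_mod_cast a3
    nlinarith
  have hM0 : (0 : ℝ) ≤ M := Nat.cast_nonneg _
  set k := nK η M with hk
  have k1 : 3 / 4 * η * M ≤ k := Nat.le_ceil _
  have k2 : (k : ℝ) < 3 / 4 * η * M + 1 := Nat.ceil_lt_add_one (by positivity)
  have k3 : (k : ℝ) ≤ η * M := by linarith
  have k4 : k ≤ M := by
    have : (k : ℝ) ≤ M := by nlinarith
    exact_mod_cast this
  have hρi := HR829.rho_pos i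
  -- the power
  have hexp : 0 ≤ 1 - 3 / 4 * η := by linarith
  have hpow : ((2 : ℝ) ^ M)⁻¹ * (2 : ℝ) ^ (3 / 4 * η * M) = rho M ^ (1 - 3 / 4 * η) := by
    rw [hρM, Real.inv_rpow h2M.le, ← Real.rpow_natCast, ← Real.rpow_mul (by norm_num),
      ← Real.rpow_neg (by norm_num), ← Real.rpow_neg (by norm_num), ← Real.rpow_add (by norm_num)]
    congr 1; ring
  have hwin := rho_window (i := i) k4
  refine ⟨i1, i2.le, j1, j2.le, a1, a2, a3, by nlinarith, k3, k4, ?_, ?_, ?_⟩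
  · have h1 : rho j < rho (i + M + 1) := by
      have e1 : rho (i + M + 1) = rho i * rho M / 2 := by
        unfold rho
        rw [pow_succ, pow_add]
        field_simp
      have e2 : lam * e ^ u * e ^ s / 2 ≤ rho (i + M + 1) := by
        rw [e1]
        have := hep s
        have := hep u
        gcongr
      have e3 : lam * e ^ u * e ^ s = lam * (e ^ v * e ^ (-δ)) := by
        rw [mul_assoc, ← Real.rpow_add he, ← Real.rpow_add he]
        congr 2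
        rw [hs]; ring
      have e4 : 4 < e ^ (-δ) := by
        have h1 := hep δ
        rw [Real.rpow_neg he.le, lt_inv_comm₀ (by norm_num) h1]
        rw [lt_inv_comm₀ h1 (by norm_num)]
        rw [← one_div, lt_div_iff₀ h1]
        exact E8
      have e5 : 2 * (lam * e ^ v) < lam * (e ^ v * e ^ (-δ)) / 2 := by
        have h1 : 0 < lam * e ^ v := mul_pos hlam (hep _)
        nlinarith
      linarith
    have h3 := rho_lt h1
    omega
  · rw [hwin, pow_succ]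
    have e1 : (2 : ℝ) ^ (3 / 4 * η * M) ≤ 2 ^ k := by
      rw [← Real.rpow_natCast 2 k]
      exact Real.rpow_le_rpow_of_exponent_le (by norm_num) k1
    have e2 : e ^ (s * (1 - 3 / 4 * η)) ≤ rho M ^ (1 - 3 / 4 * η) := by
      rw [Real.rpow_mul he.le]
      exact Real.rpow_le_rpow (hep s).le m1 hexp
    have e3 : rho i * 2 ^ k / (2 ^ M * 2) = rho i * (((2 : ℝ) ^ M)⁻¹ * 2 ^ k) / 2 := by
      field_simp
    rw [e3]
    calc lam * e ^ (u + s * (1 - 3 / 4 * η) + κ / 2) =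
        lam * e ^ u * e ^ (s * (1 - 3 / 4 * η)) * e ^ (κ / 2) := by
          rw [Real.rpow_add he, Real.rpow_add he]; ring
      _ ≤ lam * e ^ u * e ^ (s * (1 - 3 / 4 * η)) * (1 / 2) := by
          have h1 : 0 ≤ lam * e ^ u * e ^ (s * (1 - 3 / 4 * η)) :=
            (mul_pos (mul_pos hlam (hep _)) (hep _)).le
          exact mul_le_mul_of_nonneg_left (by linarith) h1
      _ ≤ rho i * (rho M ^ (1 - 3 / 4 * η)) * (1 / 2) := by
          have h1 := hep u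
          have h2 := hep (s * (1 - 3 / 4 * η))
          gcongr
      _ = rho i * (((2 : ℝ) ^ M)⁻¹ * (2 : ℝ) ^ (3 / 4 * η * M)) / 2 := by rw [hpow]; ring
      _ ≤ rho i * (((2 : ℝ) ^ M)⁻¹ * 2 ^ k) / 2 := by gcongr
  · have e0 : ((2 : ℝ) ^ (M + 1 - k))⁻¹ = 2 ^ k / 2 ^ (M + 1) := by
      have h1 : (2 : ℝ) ^ (M + 1 - k) * 2 ^ k = 2 ^ (M + 1) := by
        rw [← pow_add]; congr 1; omega
      rw [← h1]
      field_simp
    have e1 : (2 : ℝ) ^ k ≤ 2 * (2 : ℝ) ^ (3 / 4 * η * M) := by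
      rw [← Real.rpow_natCast 2 k]
      calc (2 : ℝ) ^ (k : ℝ) ≤ (2 : ℝ) ^ (1 + 3 / 4 * η * M) :=
            Real.rpow_le_rpow_of_exponent_le (by norm_num) (by linarith)
        _ = 2 * (2 : ℝ) ^ (3 / 4 * η * M) := by rw [Real.rpow_add (by norm_num), Real.rpow_one]
    have e2 : rho M ^ (1 - 3 / 4 * η) ≤ 2 * e ^ (s * (1 - 3 / 4 * η)) := by
      have hρM0 := HR829.rho_pos M
      calc rho M ^ (1 - 3 / 4 * η) ≤ (2 * e ^ s) ^ (1 - 3 / 4 * η) :=
            Real.rpow_le_rpow hρM0.le m2.le hexp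
        _ = 2 ^ (1 - 3 / 4 * η) * e ^ (s * (1 - 3 / 4 * η)) := by
            rw [Real.mul_rpow (by norm_num) (hep s).le, ← Real.rpow_mul he.le]
        _ ≤ 2 ^ (1 : ℝ) * e ^ (s * (1 - 3 / 4 * η)) := by
            have := hep (s * (1 - 3 / 4 * η))
            have : (2 : ℝ) ^ (1 - 3 / 4 * η) ≤ 2 ^ (1 : ℝ) :=
              Real.rpow_le_rpow_of_exponent_le (by norm_num) (by linarith)
            gcongr
        _ = _ := by rw [Real.rpow_one]
    calc ((2 : ℝ) ^ (M + 1 - k))⁻¹ = 2 ^ k / 2 ^ (M + 1) := e0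
      _ ≤ 2 * (2 : ℝ) ^ (3 / 4 * η * M) / 2 ^ (M + 1) := by gcongr
      _ = ((2 : ℝ) ^ M)⁻¹ * (2 : ℝ) ^ (3 / 4 * η * M) := by rw [pow_succ]; field_simp
      _ = rho M ^ (1 - 3 / 4 * η) := hpow
      _ ≤ _ := e2

end Crest.Agent.R136.End882
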