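import Crest.Agent.R136.End15_882

/-!
# R136 (S0187): END, part 16 (helper882): finite END in window units
-/

set_option autoImplicit false
set_option linter.unusedVariables false

open Finset Filter Topology

namespace Crest.Agent.R136.End882

open Crest.Agent.R136.NetQ186
open Crest.Agent.R136.GeoQ186
open Crest.Agent.R136.Gz779 (tau)
open Crest.Agent.R136.LmQ861 Crest.Agent.R136.HR829
open Crest.Agent.R136.Sh605 hiding frm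
open Crest.Agent.R138.Mk163 (zc zl rho alive own)

open Classical in
/-- the conclusion of `end_chart` -/
def EndKey (g : ℝ) (qq : Fin 3 → ℝ) (η κ : ℝ) (M₀ : ℕ) : Prop :=
    ∀ (F I0 : Finset (ℕ × ℝ)) (L : ℕ → Ln4) (nb rc : ℕ × ℝ → ℕ × ℝ → Prop) (gg : Fin 6 → ℝ)
      (f : ℕ × ℝ → Fq4) (w1 w2 a r0 K Kp δ ρ nn n0 Kc D Tr : ℝ) (Cl Cl' : V3 → ℝ → Prop)
      (i j M k : ℕ) (J0 : ℤ) (i0 : ℕ × ℝ),
      i0 ∈ F → M₀ ≤ M → η / 2 * M ≤ k → (k : ℝ) ≤ η * M → i + M + 1 ≤ j →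
      1 ≤ Kp → Kp ≤ K → K ≤ (2 : ℝ) ^ (κ * M) → 0 ≤ δ → 3 * Kp * δ * 2 ^ M ≤ 1 → 0 < ρ →
      6 * Kp ^ 2 * ρ * 2 ^ M ≤ 1 → 0 < nn → 0 < n0 → 0 < Kc → 0 < D → 0 < r0 →
      (∀ x ∈ F, zc i x.2 = J0) →
      (∀ x ∈ F, TrueLn gg (f x) (L x.1) ∧ (f x).z = x.2 ∧ |(f x).e| ≤ 1) →
      (∀ y ∈ I0, TrueLn gg (f y) (L y.1)) →
      |gA gg i0.2 ((f i0).pa i0.2) ((f i0).pb i0.2) + (f i0).fa| ≤ 1 →
      |gB gg i0.2 ((f i0).pa i0.2) ((f i0).pb i0.2) + (f i0).fb| ≤ 1 →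
      0 < a → w2 ≤ w1 → 9 * 2 ^ k * a ≤ w2 →
      (∀ s1 s2 m1 m2 k11 k12 k22 : ℝ, QCo gg (f i0) (f i0).e i0.2 s1 s2 m1 m2 k11 k12 k22 →
        Flat (1 / 2048) (rho i) (6 * Kp * w1) (2 * Kp * w2) m1 m2 k11 k12 k22) →
      (∀ x ∈ F, ∀ y ∈ F, ∀ s, |coQ (f x) (f y) s| ≤ Kp * sbox (rho i) w1 w2 a s) →
      -- own counts of the sample
      (∀ x ∈ F, nn ≤ K * ((F.filter fun y => y.1 = x.1 ∧ zc i y.2 = zc i x.2).card : ℝ)) →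
      (∀ x ∈ F, nn / 2 ^ (M + 1 - k) ≤ K * ((F.filter fun y => y.1 = x.1 ∧
        zc (i + M + 1 - k) y.2 = zc (i + M + 1 - k) x.2).card : ℝ)) →
      (∀ x ∈ F, ((F.filter fun y => y.1 = x.1 ∧ zc (i + M + 1) y.2 = zc (i + M + 1) x.2).card : ℝ)
        ≤ K * (nn / 2 ^ (M + 1))) →
      (∀ x ∈ F, ((F.filter fun y => y.1 = x.1 ∧ zc j y.2 = zc j x.2).card : ℝ)
        ≤ K * (nn / 2 ^ (j - i))) →
      -- own counts of the ambient family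
      (∀ x ∈ I0, ((I0.filter fun y => y.1 = x.1 ∧ zc i y.2 = zc i x.2).card : ℝ) ≤ K * n0) →
      (∀ x ∈ I0, ((I0.filter fun y => y.1 = x.1 ∧
        zc (i + M + 1 - k) y.2 = zc (i + M + 1 - k) x.2).card : ℝ) ≤
          K * (n0 / 2 ^ (M + 1 - k))) →
      -- comb
      (∀ P ⊆ F, ∀ P' ⊆ I0, (∀ x ∈ P, ∀ y ∈ I0, nb x y → y ∈ P') →
        Kc * (P.card : ℝ) ≤ K * (P'.card : ℝ)) →
      (∀ x ∈ F, ∀ y ∈ I0, nb x y → zc (i + M + 1 - k) y.2 = zc (i + M + 1 - k) x.2 ∧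
        ∀ s, |coQ (f x) (f y) s| ≤ δ * sbox (rho i) w1 w2 a s) →
      -- D-max
      DMaxK (alive I0 i J0) L (zl i J0) (rho i) (K * D) (Rq qq i) r0 Cl →
      (∀ A B a', w1 ≤ A → A ≤ 12 * K * w1 → w2 ≤ B → B ≤ 4 * K * w2 → a ≤ a' → a' ≤ 6 * K * a →
        Cl (wFQ A B) a') →
      (∀ cl : ℤ, DMaxK (alive I0 (i + M + 1 - k) cl) L (zl (i + M + 1 - k) cl)
        (rho (i + M + 1 - k)) (K * (D * 2 ^ (g * ((M : ℝ) + 1 - k)))) (Rq qq (i + M + 1 - k))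
        r0 Cl') →
      (∀ A B a', w1 / 2 ^ M ≤ A → A ≤ 100000 * K * (2 ^ k / 2 ^ M) * w1 →
        w2 / 2 ^ M ≤ B → B ≤ 100000 * K * (2 ^ k / 2 ^ M) * w2 →
        a / 2 ^ M ≤ a' → a' ≤ 100000 * K * (2 ^ k / 2 ^ M) * a → Cl' (wFQ A B) a') →
      r0 * 2 ^ M ≤ a →
      -- record
      (∀ x ∈ F, Tr ≤ K * ((F.filter fun y => rc x y).card : ℝ)) →
      (∀ x ∈ F, ∀ y ∈ F, rc x y → zc j y.2 = zc j x.2 ∧
        ∀ s, |coQ (f x) (f y) s| ≤ Kp * sbox (ρ * rho i) (ρ * w1) (ρ * w2) (ρ * a) s) →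
      n0 * (D * (a * w2 * w1 * Rq qq i a w2 w1)) * (2 : ℝ) ^ (-(3 - g) * M) ≤
        K * (Kc * (Tr * 2 ^ (j - i))) → False

theorem end_key (hKM : ∀ V : ℝ, Crest.Agent.R138.Tub70.KM32 V) {g : ℝ} (hg : 0 < g)
    {qq : Fin 3 → ℝ} (hqq : ∀ k, 0 ≤ qq k) :
    ∃ η κ : ℝ, ∃ M₀ : ℕ, 0 < η ∧ η ≤ 1 / 4 ∧ 0 < κ ∧ EndKey g qq η κ M₀ := by
  obtain ⟨η, κ, M₀, a, b, c, d, e⟩ := end_chart hKM hg hqq one_pos
  exact ⟨η, κ, M₀, a, c, d, e⟩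

theorem sbox_nonneg {lam w1 w2 a : ℝ} (hl : 0 ≤ lam) (h1 : 0 ≤ w1) (h2 : 0 ≤ w2) (ha : 0 ≤ a)
    (s : Fin 11) : 0 ≤ sbox lam w1 w2 a s := by
  have q1 : 0 ≤ a / lam ^ 2 := by positivity
  have q2 : 0 ≤ w2 / w1 := by positivity
  have q3 : 0 ≤ a / w2 := by positivity
  have q4 : 0 ≤ a / w1 := by positivity
  have q5 : 0 ≤ w1 / lam := by positivity
  have q6 : 0 ≤ w2 / lam := by positivity
  have q7 : 0 ≤ a / lam := by positivity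
  unfold sbox
  fin_cases s
  · exact hl
  · exact q1
  · exact q2
  · exact q3
  · exact q4
  · exact q5
  · exact q6
  · exact q7
  · exact h1
  · exact h2
  · exact ha

/-- class of test sheets: wide width at most `wmax`, all widths in a range -/
def ClW (wmax : ℝ) (lo hi : Fin 3 → ℝ) (w : V3) (a : ℝ) : Prop :=
  (0 < a ∧ w 1 ≤ wmax) ∧ ∀ k : Fin 3, lo k ≤ ![a, w 1, w 2] k ∧ ![a, w 1, w 2] k ≤ hi k

theorem DMaxK.mono_r0 {ι : Type} {A : Finset ι} {L : ι → Ln4} {z0 ρ D : ℝ} {R : ℝ → ℝ → ℝ → ℝ}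
    {r0 r1 : ℝ} {Cl : V3 → ℝ → Prop} (h : DMaxK A L z0 ρ D R r0 Cl) (hr : r0 ≤ r1) :
    DMaxK A L z0 ρ D R r1 Cl := by
  intro e c w q a hS hC
  exact h e c w q a { hS with r0_le := hr.trans hS.r0_le } hC

/-! ### numbers -/

theorem num_pow {e : ℝ} (he : 0 < e) (E0 : 1000000 * e ≤ 1) :
    (∀ s : ℝ, 0 < e ^ s) ∧ e < 1 ∧ (∀ {s s' : ℝ}, s' ≤ s → e ^ s ≤ e ^ s') ∧
    (∀ s s' : ℝ, e ^ s * e ^ s' = e ^ (s + s')) ∧ (∀ s : ℝ, 0 ≤ s → 1 ≤ e ^ (-s)) ∧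
    (∀ s : ℝ, 1 ≤ s → e ^ s ≤ e) ∧ ∀ s : ℝ, 2 ≤ s → e ^ s ≤ e * e := by
  have hle1 : e < 1 := by linarith
  have hmon : ∀ {s s' : ℝ}, s' ≤ s → e ^ s ≤ e ^ s' := fun hs =>
    Real.rpow_le_rpow_of_exponent_ge he hle1.le hs
  refine ⟨fun s => Real.rpow_pos_of_pos he s, hle1, hmon, fun s s' => (Real.rpow_add he s s').symm,
    fun s hs => Real.one_le_rpow_of_pos_of_le_one_of_nonpos he hle1.le (by linarith), fun s hs => ?_,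
    fun s hs => ?_⟩
  · calc e ^ s ≤ e ^ (1 : ℝ) := hmon hs
      _ = e := Real.rpow_one e
  · calc e ^ s ≤ e ^ (1 + 1 : ℝ) := hmon (by linarith)
      _ = e * e := by rw [Real.rpow_add he, Real.rpow_one]

theorem up_cls {e κ₂ W H s : ℝ} (he : 0 < e) (E0 : 1000000 * e ≤ 1) (hκ2 : κ₂ ≤ 1) (hW : 0 < W)
    (hWH : W ≤ e ^ (3 : ℝ) * H) (hs : 0 ≤ s) : 1200000 * e ^ (-κ₂) * (W * e ^ s) ≤ H := by
  obtain ⟨hep, hle1, hmon, hadd, hone1, hsm, hsm2⟩ := num_pow he E0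
  have hH : 0 < H := by
    by_contra hc
    push Not at hc
    have := mul_nonpos_of_nonneg_of_nonpos (hep 3).le hc
    linarith
  have hKe : e ^ (-κ₂) ≤ e ^ (-1 : ℝ) := hmon (by linarith)
  have es : e ^ s ≤ 1 := Real.rpow_le_one he.le hle1.le hs
  have p1 := hep s
  have p2 := hep (-1)
  have h5 : 1200000 * (e * e) ≤ 1 := by nlinarith
  calc 1200000 * e ^ (-κ₂) * (W * e ^ s) ≤ 1200000 * e ^ (-1 : ℝ) * ((e ^ (3 : ℝ) * H) * 1) := by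
        gcongr
    _ = 1200000 * (e ^ (-1 : ℝ) * e ^ (3 : ℝ)) * H := by ring
    _ = 1200000 * e ^ (-1 + 3 : ℝ) * H := by rw [hadd]
    _ ≤ 1200000 * (e * e) * H := by
        have := hsm2 (-1 + 3) (by norm_num)
        gcongr
    _ ≤ 1 * H := by gcongr
    _ = H := one_mul _

theorem up_w {e κ₂ W lam dδ t u : ℝ} (he : 0 < e) (E0 : 1000000 * e ≤ 1) (hκ2 : κ₂ ≤ 1)
    (hlam : 0 < lam) (hdδ : 0 < dδ) (hW : 0 < W) (b3 : W ≤ e ^ (3 : ℝ) * (dδ * lam))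
    (ht : 0 ≤ t) : 2400000 * e ^ (-κ₂) * (W * e ^ (t + u)) ≤ dδ * (lam * e ^ u) := by
  obtain ⟨hep, hle1, hmon, hadd, hone1, hsm, hsm2⟩ := num_pow he E0
  have h1 : 0 < dδ * lam := mul_pos hdδ hlam
  have hKe : e ^ (-κ₂) ≤ e ^ (-1 : ℝ) := hmon (by linarith)
  have p1 := hep (t + u)
  have p2 := hep (-1)
  have p3 := hep u
  have p4 : 0 < W * e ^ (t + u) := mul_pos hW p1
  have h3 : 2400000 * (e * e) ≤ 1 := by nlinarith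
  calc 2400000 * e ^ (-κ₂) * (W * e ^ (t + u)) ≤ 2400000 * e ^ (-1 : ℝ) *
        ((e ^ (3 : ℝ) * (dδ * lam)) * e ^ (t + u)) := by gcongr
    _ = 2400000 * (dδ * lam * e ^ u) * e ^ (-1 + 3 + t : ℝ) := by
        rw [← hadd (-1 + 3), ← hadd (-1), ← hadd t u]
        ring
    _ ≤ 2400000 * (dδ * lam * e ^ u) * (e * e) := by
        have h3 := hsm2 (-1 + 3 + t) (by linarith)
        gcongr
    _ = (dδ * lam * e ^ u) * (2400000 * (e * e)) := by ring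
    _ ≤ (dδ * lam * e ^ u) * 1 := by gcongr
    _ = dδ * (lam * e ^ u) := by ring

theorem cls_up {c K a hi x : ℝ} (h0 : 0 ≤ K * a) (hc : c ≤ 1200000) (h : 1200000 * K * a ≤ hi)
    (hx : x ≤ c * K * a) : x ≤ hi := by
  have : c * (K * a) ≤ 1200000 * (K * a) := by gcongr
  linarith

theorem cls_in {dδ ρ K w1 w2 a w1' w2' a' CA CB Ca : ℝ} {lo hi : Fin 3 → ℝ} (l0 : lo 0 ≤ a')
    (ha' : 0 < a') (l1 : lo 1 ≤ w1') (l2 : lo 2 ≤ w2') (hw1 : 0 ≤ w1') (hw2 : 0 ≤ w2') (hKa : 0 ≤ K * a)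
    (hKw1 : 0 ≤ K * w1) (hKw2 : 0 ≤ K * w2) (h0 : 1200000 * K * a ≤ hi 0)
    (h1 : 1200000 * K * w1 ≤ hi 1) (h2 : 1200000 * K * w2 ≤ hi 2)
    (hw : 12 * (CA * K * w1) ≤ dδ * ρ) (cA : 12 * CA ≤ 1200000) (cB : 10 * CB ≤ 1200000)
    (ca : Ca ≤ 1200000) :
    ∀ A B a'' : ℝ, w1' ≤ A → A ≤ CA * K * w1 → w2' ≤ B → B ≤ CB * K * w2 → a' ≤ a'' →
      a'' ≤ Ca * K * a → ClW (dδ * ρ) lo hi (wFQ A B) a'' := by
  intro A B a'' a1 a2 b1 b2 d1 d2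
  refine ⟨⟨ha'.trans_le d1, ?_⟩, fun s => ?_⟩
  · change 12 * A ≤ dδ * ρ
    linarith
  · fin_cases s
    · change lo 0 ≤ a'' ∧ a'' ≤ hi 0
      exact ⟨l0.trans d1, cls_up hKa ca h0 d2⟩
    · change lo 1 ≤ 12 * A ∧ 12 * A ≤ hi 1
      refine ⟨by linarith, cls_up hKw1 cA h1 ?_⟩
      calc 12 * A ≤ 12 * (CA * K * w1) := by gcongr
        _ = _ := by ring
    · change lo 2 ≤ 10 * B ∧ 10 * B ≤ hi 2
      refine ⟨by linarith, cls_up hKw2 cB h2 ?_⟩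
      calc 10 * B ≤ 10 * (CB * K * w2) := by gcongr
        _ = _ := by ring

theorem lo_aux {e W s s' r : ℝ} {P : ℝ} {l : ℝ} (he : 0 < e) (E0 : 1000000 * e ≤ 1) (hW : 0 < W)
    (hP0 : 0 < P) (hP : P ≤ e ^ (-r)) (hl : l ≤ e ^ s * W) (hs : s' + r ≤ s) :
    l ≤ W * e ^ s' / P := by
  obtain ⟨hep, hle1, hmon, hadd, hone1, hsm, hsm2⟩ := num_pow he E0
  refine hl.trans ?_
  rw [le_div_iff₀ hP0]
  calc e ^ s * W * P ≤ e ^ s * W * e ^ (-r) := mul_le_mul_of_nonneg_left hP (mul_pos (hep _) hW).le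
    _ = W * e ^ (s + -r) := by rw [← hadd s]; ring
    _ ≤ W * e ^ s' := mul_le_mul_of_nonneg_left (hmon (by linarith)) hW.le

theorem nb_num {e εp r q P : ℝ} (he : 0 < e) (E0 : 1000000 * e ≤ 1) (hεp : 0 ≤ εp) (hq : q ≤ 1)
    (hP0 : 0 < P) (h5 : 6 * (e ^ (-εp)) ^ 2 * e ^ q * P ≤ 1) :
    3 * e ^ (-εp) * (4 * e ^ (2 : ℝ)) * P ≤ 1 := by
  obtain ⟨hep, hle1, hmon, hadd, hone1, hsm, hsm2⟩ := num_pow he E0
  have hKp1 : 1 ≤ e ^ (-εp) := hone1 _ hεp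
  have a1 : e ^ (-εp) ≤ (e ^ (-εp)) ^ 2 := le_self_pow₀ hKp1 (by norm_num)
  have a2 : e ^ (2 : ℝ) = e ^ q * e ^ (2 - q) := by rw [hadd]; congr 1; ring
  have a3 : e ^ (2 - q) ≤ e := hsm _ (by linarith)
  have p1 := hep q
  have p2 := hep (2 - q)
  have p3 := hep (-εp)
  calc 3 * e ^ (-εp) * (4 * e ^ (2 : ℝ)) * P
      = 2 * (6 * e ^ (-εp) * e ^ q * P) * e ^ (2 - q) := by rw [a2]; ring
    _ ≤ 2 * (6 * (e ^ (-εp)) ^ 2 * e ^ q * P) * e ^ (2 - q) := by gcongr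
    _ ≤ 2 * 1 * e ^ (2 - q) := by gcongr
    _ ≤ 1 := by linarith

theorem thin_num {e t u v W2 Th P : ℝ} (he : 0 < e) (E0 : 1000000 * e ≤ 1) (ht : 0 ≤ t)
    (hv : 0 ≤ v) (hW2 : 0 < W2) (hTh : 0 < Th) (b1 : Th ≤ e ^ (t + 4) * W2) (hP0 : 0 ≤ P)
    (hP : P ≤ e ^ (-1 : ℝ)) : 9 * P * (Th * e ^ (2 * t + u + v)) ≤ W2 * e ^ (2 * t + u) := by
  obtain ⟨hep, hle1, hmon, hadd, hone1, hsm, hsm2⟩ := num_pow he E0
  have p1 := hep (2 * t + u + v)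
  have p2 := hep (-1)
  calc 9 * P * (Th * e ^ (2 * t + u + v)) ≤
        9 * e ^ (-1 : ℝ) * ((e ^ (t + 4) * W2) * e ^ (2 * t + u + v)) := by gcongr
    _ = 9 * e ^ (-1 + (t + 4) + v) * (W2 * e ^ (2 * t + u)) := by
        rw [← hadd (-1 + (t + 4)), ← hadd (-1) (t + 4), ← hadd (2 * t + u) v]; ring
    _ ≤ 1 * (W2 * e ^ (2 * t + u)) := by
        have := hsm (-1 + (t + 4) + v) (by linarith)
        have h3 : 9 * e ^ (-1 + (t + 4) + v) ≤ 1 := by linarith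
        exact mul_le_mul_of_nonneg_right h3 (mul_pos hW2 (hep _)).le
    _ = _ := one_mul _

theorem w21_num {e t u W1 W2 : ℝ} (he : 0 < e) (E0 : 1000000 * e ≤ 1) (ht : 0 ≤ t) (hW1 : 0 < W1)
    (b2 : W2 ≤ e ^ (t + 4) * W1) : W2 * e ^ (2 * t + u) ≤ W1 * e ^ (t + u) := by
  obtain ⟨hep, hle1, hmon, hadd, hone1, hsm, hsm2⟩ := num_pow he E0
  calc W2 * e ^ (2 * t + u) ≤ (e ^ (t + 4) * W1) * e ^ (2 * t + u) :=
        mul_le_mul_of_nonneg_right b2 (hep _).le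
    _ = W1 * e ^ (t + 4 + (2 * t + u)) := by rw [← hadd (t + 4) (2 * t + u)]; ring
    _ ≤ W1 * e ^ (t + u) := mul_le_mul_of_nonneg_left (hmon (by linarith)) hW1.le

theorem kap_num {e r κ κ₂ : ℝ} {M : ℕ} (he : 0 < e) (hκ : 0 ≤ κ)
    (E4 : e ^ (-κ₂) ≤ (e ^ (-r) / 2) ^ κ) (f6 : e ^ (-r) ≤ (2 : ℝ) ^ (M + 1)) :
    e ^ (-κ₂) ≤ (2 : ℝ) ^ (κ * M) := by
  refine E4.trans ?_
  have h0 := Real.rpow_pos_of_pos he (-r)
  have h1 : e ^ (-r) / 2 ≤ 2 ^ M := by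
    rw [pow_succ] at f6
    linarith
  calc (e ^ (-r) / 2) ^ κ ≤ ((2 : ℝ) ^ M) ^ κ := Real.rpow_le_rpow (by positivity) h1 hκ
    _ = (2 : ℝ) ^ (κ * M) := by
        rw [← Real.rpow_natCast, ← Real.rpow_mul (by norm_num), mul_comm]

theorem rho_num {i M k m1 m0 : ℕ} (h : k ≤ M) (h1 : i + M + 1 - k ≤ m1) (g : ℝ) :
    rho i / rho (i + M + 1 - k) = 2 ^ (M + 1 - k) ∧
    (2 : ℝ) ^ (m1 - (i + M + 1 - k)) = 2 ^ (m1 - i) / 2 ^ (M + 1 - k) ∧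
    (2 : ℝ) ^ k / 2 ^ M = 2 / 2 ^ (M + 1 - k) ∧
    rho (i + M + 1 - k) = rho i / 2 ^ (M + 1 - k) ∧
    (rho m0 / rho (i + M + 1 - k)) ^ g =
      (rho m0 / rho i) ^ g * (2 : ℝ) ^ (g * ((M : ℝ) + 1 - k)) := by
  have hρi := HR829.rho_pos i
  have hρl := HR829.rho_pos (i + M + 1 - k)
  have hρ0 := HR829.rho_pos m0
  have h2kM : (2 : ℝ) ^ (i + M + 1 - k) = 2 ^ i * 2 ^ (M + 1 - k) := by
    rw [← pow_add]; congr 1; omega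
  have hrhol : rho i / rho (i + M + 1 - k) = 2 ^ (M + 1 - k) := by
    unfold rho
    rw [h2kM]
    field_simp
  refine ⟨hrhol, ?_, ?_, ?_, ?_⟩
  · rw [eq_div_iff (by positivity), ← pow_add]; congr 1; omega
  · rw [div_eq_div_iff (by positivity) (by positivity), ← pow_add, ← pow_succ']
    congr 1; omega
  · rw [← hrhol]; field_simp
  · have h1 : rho m0 / rho (i + M + 1 - k) = rho m0 / rho i * (rho i / rho (i + M + 1 - k)) := by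
      field_simp
    rw [h1, Real.mul_rpow (div_pos hρ0 hρi).le (div_pos hρi hρl).le, hrhol,
      ← Real.rpow_natCast, ← Real.rpow_mul (by norm_num)]
    congr 2
    rw [Nat.cast_sub (by omega)]
    push_cast
    ring

theorem box_up {lam lam' w1 w2 a c C Kp q : ℝ} (hl : 0 < lam) (h1 : lam ≤ lam')
    (h2 : lam' ≤ 2 * lam) (hw1 : 0 < w1) (hw2 : 0 < w2) (ha : 0 < a) (hc : 0 ≤ c)
    (hC : 4 * c ≤ C) (s : Fin 11) (hq : q ≤ c * sbox lam w1 w2 a s) :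
    q ≤ C * sbox lam' w1 w2 a s := by
  have h3 := sbox_le hl h1 h2 hw1 hw2 ha s
  calc q ≤ c * sbox lam w1 w2 a s := hq
    _ ≤ c * (4 * sbox lam' w1 w2 a s) := mul_le_mul_of_nonneg_left h3 hc
    _ = 4 * c * sbox lam' w1 w2 a s := by ring
    _ ≤ _ := mul_le_mul_of_nonneg_right hC
      (sbox_nonneg (hl.le.trans h1) hw1.le hw2.le ha.le s)

open Classical in
set_option maxHeartbeats 4000000 in
/-- **finite END in window units** -/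
theorem win_end {g : ℝ} {qq : Fin 3 → ℝ} {η κ : ℝ} {M₀ : ℕ} (key : EndKey g qq η κ M₀)
    (hη0 : 0 < η) (hη1 : η ≤ 1 / 4) {M₁ : ℕ} (hM₁ : 4 ≤ η * M₁) (hM₀ : M₀ ≤ M₁) (hκ : 0 ≤ κ)
    {u v t x δ κ₂ εp εc e : ℝ} (hu : 0 < u) (huv : u < v) (hv1 : v < 1) (hδ : 0 < δ)
    (hδ1 : δ < v - u) (ht : 0 ≤ t) (hx : 0 ≤ x) (hεc : 0 < εc) (hεp : 0 < εp) (hεp1 : εp ≤ κ₂)
    (hκ2 : κ₂ ≤ 1) (he : 0 < e) (E0 : 1000000 * e ≤ 1) (E2 : 4 * e ^ (-εc) ≤ e ^ (-εp))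
    (E3 : (2 : ℝ) ^ (M₁ + 1) ≤ e ^ (-(v - u - δ)))
    (E4 : e ^ (-κ₂) ≤ (e ^ (-(v - u - δ)) / 2) ^ κ)
    (E5 : 6 * (e ^ (-εp)) ^ 2 * e ^ (v - u) * e ^ (-(v - u - δ)) ≤ 1) (E8 : 4 * e ^ δ < 1)
    (E9 : 2 * e ^ (κ₂ / 2) ≤ 1) (E16 : 16 ≤ e ^ (-κ₂))
    {lam W1 W2 Th : ℝ} (hlam : 0 < lam) (hlam1 : lam ≤ 1) (hW1 : 0 < W1) (hW2 : 0 < W2)
    (hTh : 0 < Th) (b1 : Th ≤ e ^ (t + 4) * W2) (b2 : W2 ≤ e ^ (t + 4) * W1)
    {F I0 : Finset (ℕ × ℝ)} {L : ℕ → Ln4} {inc : ℕ × ℝ → Fq4} {gg : Fin 6 → ℝ} (hFI : F ⊆ I0)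
    {i0 : ℕ × ℝ} (hi0 : i0 ∈ F)
    (hinc : ∀ x ∈ I0, TrueLn 0 (inc x) (L x.1) ∧ (inc x).z = x.2 ∧ |(inc x).e| ≤ 1 ∧
      |(inc x).fa| ≤ 1 ∧ |(inc x).fb| ≤ 1)
    (h4 : gg 4 = 0) (h5 : gg 5 = 0) (c1 : |tau gg (inc i0)| * lam ≤ e ^ (x - 1) * (Th / W1))
    (c2 : |gg 2| * lam ≤ e ^ (-1 : ℝ) * (Th / W2)) (c3 : |gg 3| * W1 ≤ e ^ (-1 : ℝ) * (Th / W1))
    {i j M k m0 m1 : ℕ} (hiL : i = lvl (lam * e ^ u)) (hj : j = lvl (lam * e ^ v))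
    (hM : M = nM e (v - u - δ)) (hk : k = nK η M)
    (hcell : ∀ x ∈ F, ∀ y ∈ F, zc i x.2 = zc i y.2)
    (hnear : ∀ x ∈ F, ∀ y ∈ F, ∀ s, |coQ (rg gg (inc x)) (rg gg (inc y)) s| ≤
      e ^ (-εc) * sbox (lam * e ^ u) (W1 * e ^ (t + u)) (W2 * e ^ (2 * t + u))
        (Th * e ^ (2 * t + u + v)) s)
    {nn : ℝ} (hnn : 0 < nn)
    (o1 : ∀ x ∈ F, nn ≤ e ^ (-κ₂) * ((F.filter fun y => y.1 = x.1 ∧ zc i y.2 = zc i x.2).card : ℝ))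
    (o2 : ∀ x ∈ F, nn / 2 ^ (M + 1 - k) ≤ e ^ (-κ₂) * ((F.filter fun y => y.1 = x.1 ∧
        zc (i + M + 1 - k) y.2 = zc (i + M + 1 - k) x.2).card : ℝ))
    (o3 : ∀ x ∈ F, ((F.filter fun y => y.1 = x.1 ∧ zc (i + M + 1) y.2 =
      zc (i + M + 1) x.2).card : ℝ) ≤ e ^ (-κ₂) * (nn / 2 ^ (M + 1)))
    (o4 : ∀ x ∈ F, ((F.filter fun y => y.1 = x.1 ∧ zc j y.2 = zc j x.2).card : ℝ)
        ≤ e ^ (-κ₂) * (nn / 2 ^ (j - i)))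
    (hone : ∀ x ∈ I0, ∀ y ∈ I0, x.1 = y.1 → zc m1 x.2 = zc m1 y.2 → x = y) (hm0 : m0 ≤ i)
    (hm1 : i + M + 1 - k ≤ m1) {Kc : ℝ} (hKc : 0 < Kc) {nb : ℕ × ℝ → ℕ × ℝ → Prop}
    (hcomb : ∀ P ⊆ F, ∀ P' ⊆ I0, (∀ x ∈ P, ∀ y ∈ I0, nb x y → y ∈ P') →
      Kc * (P.card : ℝ) ≤ 16 * (P'.card : ℝ))
    (hnb : ∀ x ∈ F, ∀ y ∈ I0, nb x y → zc m1 y.2 = zc m1 x.2 ∧
      ∀ s, |coQ (rg gg (inc x)) (rg gg (inc y)) s| ≤
      e ^ (2 : ℝ) * sbox (lam * e ^ u) (W1 * e ^ (t + u)) (W2 * e ^ (2 * t + u))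
        (Th * e ^ (2 * t + u + v)) s)
    {Hn An r0 dδ : ℝ} {lo hi : Fin 3 → ℝ} (hAn : 0 < An) (hHn : Hn ≤ e ^ (-κ₂)) (hdδ : 0 < dδ)
    (hDm : ∀ m : ℕ, m0 ≤ m → m ≤ m1 → ∀ cl : ℤ, DMaxK (alive I0 m cl) L (zl m cl) (rho m)
      (Hn * (An * (rho m0 / rho m) ^ g)) (Rq qq m) r0 (ClW (dδ * rho m) lo hi))
    (hlo : ∀ k : Fin 3, lo k ≤ e ^ (2 * t + 2 : ℝ) * ![Th, W1, W2] k)
    (hhi : ∀ k : Fin 3, ![Th, W1, W2] k ≤ e ^ (3 : ℝ) * hi k)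
    (b3 : W1 ≤ e ^ (3 : ℝ) * (dδ * lam)) (hr : r0 ≤ Th * e ^ (2 * t + 2 * v - δ)) {Tr : ℝ}
    (hTr : ∀ x ∈ F, Tr ≤ ((F.filter fun y => zc j y.2 = zc j x.2 ∧
      ∀ s, |coQ (rg gg (inc x)) (rg gg (inc y)) s| ≤ e ^ (-εc) * sbox (lam * e ^ v)
        (W1 * e ^ (t + v)) (W2 * e ^ (2 * t + v)) (Th * e ^ (2 * t + v + v)) s).card : ℝ))
    (hfin : (2 : ℝ) ^ (m1 - i) * (An * (rho m0 / rho i) ^ g * ((Th * e ^ (2 * t + u + v)) *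
      (W2 * e ^ (2 * t + u)) * (W1 * e ^ (t + u)) * Rq qq i (Th * e ^ (2 * t + u + v))
        (W2 * e ^ (2 * t + u)) (W1 * e ^ (t + u)))) * (2 : ℝ) ^ (-(3 - g) * M) ≤
          e ^ (-κ₂) * (Kc * (Tr * 2 ^ (j - i)))) : False := by
  obtain ⟨hep, hle1, hmon, hadd, hone1, hsm, hsm2⟩ := num_pow he E0
  obtain ⟨f1, f2, f3, f4, f5, f6, f7, f8, f9, f10, f11, f12, f13⟩ := lev_facts hη0 hη1 hM₁ he hle1
    hlam hlam1 hu huv hδ hδ1 E3 E8 E9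
  rw [← hiL] at f1 f2
  rw [← hj] at f3 f4
  rw [← hM] at f5 f6 f7 f8 f9 f10 f11 f12 f13
  rw [← hk] at f8 f9 f10 f12 f13
  rw [← hiL, ← hj] at f11
  rw [← hiL] at f12
  have hlu : 0 < lam * e ^ u := mul_pos hlam (hep _)
  have hlv : 0 < lam * e ^ v := mul_pos hlam (hep _)
  have pw1 : 0 < W1 * e ^ (t + u) := mul_pos hW1 (hep _)
  have pw2 : 0 < W2 * e ^ (2 * t + u) := mul_pos hW2 (hep _)
  have pa : 0 < Th * e ^ (2 * t + u + v) := mul_pos hTh (hep _)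
  have hρi := HR829.rho_pos i
  have hKp1 : 1 ≤ e ^ (-εp) := hone1 _ hεp.le
  have hKpK : e ^ (-εp) ≤ e ^ (-κ₂) := hmon (neg_le_neg hεp1)
  have hK1 : 1 ≤ e ^ (-κ₂) := hKp1.trans hKpK
  have hK0 : 0 < e ^ (-κ₂) := hep _
  have hl1 : i ≤ i + M + 1 - k := by clear * - f10; omega
  have hm1i : i ≤ m1 := hl1.trans hm1
  have hw21 := w21_num (u := u) he E0 ht hW1 b2
  have h2M0 : (0 : ℝ) < 2 ^ M := pow_pos two_pos _
  have h2k : (2 : ℝ) ^ k ≤ e ^ (-1 : ℝ) := by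
    calc (2 : ℝ) ^ k ≤ 2 ^ M := pow_le_pow_right₀ one_le_two f10
      _ ≤ e ^ (-(v - u - δ)) := f5
      _ ≤ e ^ (-1 : ℝ) := hmon (by clear * - hu hv1 hδ; linarith)
  obtain ⟨hrhol, h2l, h2q, hrl', hpl⟩ := rho_num (m0 := m0) f10 hm1 g
  have hfl := fun (s1 s2 n1 n2 k11 k12 k22 : ℝ)
      (hc : QCo gg (rg gg (inc i0)) (rg gg (inc i0)).e i0.2 s1 s2 n1 n2 k11 k12 k22) =>
    flat_win (i := rg gg (inc i0)) h4 h5 (hinc i0 (hFI hi0)).2.2.1 he E0 hlam hW1 hW2 hTh hx hu.le ht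
      hKp1 (hKpK.trans (hmon (neg_le_neg hκ2))) hρi.le f2 c1 c2 c3 b1 b2 hc
  have hcomb5 : 6 * (e ^ (-εp)) ^ 2 * e ^ (v - u) * 2 ^ M ≤ 1 := by
    refine le_trans (mul_le_mul_of_nonneg_left f5 ?_) E5
    have h6 := hep (v - u)
    clear * - h6
    positivity
  have hδ2 := nb_num (r := v - u) he E0 hεp.le (by clear * - hu hv1; linarith : v - u ≤ 1) h2M0 hcomb5
  have haM : Th * e ^ (2 * t + u + v) / 2 ^ M ≤ Th * e ^ (2 * t + u + v) :=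
    div_le_self pa.le (one_le_pow₀ one_le_two)
  have hw1M : W1 * e ^ (t + u) / 2 ^ M ≤ W1 * e ^ (t + u) :=
    div_le_self pw1.le (one_le_pow₀ one_le_two)
  have hw2M : W2 * e ^ (2 * t + u) / 2 ^ M ≤ W2 * e ^ (2 * t + u) :=
    div_le_self pw2.le (one_le_pow₀ one_le_two)
  have hrM : r0 ≤ Th * e ^ (2 * t + u + v) / 2 ^ M :=
    lo_aux he E0 hTh h2M0 f5 (hr.trans (le_of_eq (mul_comm _ _)))
      (by clear * -; linarith)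
  have hD0 : 0 < An * (rho m0 / rho i) ^ g :=
    mul_pos hAn (Real.rpow_pos_of_pos (div_pos (HR829.rho_pos _) hρi) _)
  have hkM : (2 : ℝ) ^ k / 2 ^ M ≤ 1 := by
    rw [div_le_one h2M0]
    exact pow_le_pow_right₀ one_le_two f10
  have hkM0 : (0 : ℝ) ≤ 2 ^ k / 2 ^ M := div_nonneg (pow_nonneg two_pos.le _) h2M0.le
  have lo0 : lo 0 ≤ Th * e ^ (2 * t + u + v) / 2 ^ M :=
    lo_aux he E0 hTh h2M0 f5 (hlo 0) (by clear * - hu hv1 hδ; linarith)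
  have lo1 : lo 1 ≤ W1 * e ^ (t + u) / 2 ^ M :=
    lo_aux he E0 hW1 h2M0 f5 (hlo 1) (by clear * - hu hv1 hδ ht; linarith)
  have lo2 : lo 2 ≤ W2 * e ^ (2 * t + u) / 2 ^ M :=
    lo_aux he E0 hW2 h2M0 f5 (hlo 2) (by clear * - hu hv1 hδ ht; linarith)
  have hi0' := up_cls (s := 2 * t + u + v) he E0 hκ2 hTh (hhi 0)
    (by clear * - hu huv ht; linarith)
  have hi1' := up_cls (s := t + u) he E0 hκ2 hW1 (hhi 1) (by clear * - hu ht; linarith)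
  have hi2' := up_cls (s := 2 * t + u) he E0 hκ2 hW2 (hhi 2) (by clear * - hu ht; linarith)
  have hwu := up_w (t := t) (u := u) he E0 hκ2 hlam hdδ hW1 b3 ht
  have hwi : 2400000 * e ^ (-κ₂) * (W1 * e ^ (t + u)) ≤ dδ * rho i :=
    hwu.trans (mul_le_mul_of_nonneg_left f1 hdδ.le)
  have y0 : 0 < e ^ (-κ₂) * (Th * e ^ (2 * t + u + v)) := mul_pos hK0 pa
  have y1 : 0 < e ^ (-κ₂) * (W1 * e ^ (t + u)) := mul_pos hK0 pw1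
  have y2 : 0 < e ^ (-κ₂) * (W2 * e ^ (2 * t + u)) := mul_pos hK0 pw2
  have hrl : lam * e ^ v ≤ e ^ (v - u) * rho i ∧ e ^ (v - u) * rho i ≤ 2 * (lam * e ^ v) := by
    have h1 : lam * e ^ v = e ^ (v - u) * (lam * e ^ u) := by
      rw [mul_left_comm, hadd, sub_add_cancel]
    have h2 := hep (v - u)
    rw [h1]
    refine ⟨mul_le_mul_of_nonneg_left f1 h2.le, ?_⟩
    refine (mul_le_mul_of_nonneg_left f2 h2.le).trans (le_of_eq ?_)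
    ring
  have r1 : W1 * e ^ (t + v) = e ^ (v - u) * (W1 * e ^ (t + u)) := by
    rw [mul_left_comm, hadd]; congr 2; ring
  have r2 : W2 * e ^ (2 * t + v) = e ^ (v - u) * (W2 * e ^ (2 * t + u)) := by
    rw [mul_left_comm, hadd]; congr 2; ring
  have r3 : Th * e ^ (2 * t + v + v) = e ^ (v - u) * (Th * e ^ (2 * t + u + v)) := by
    rw [mul_left_comm, hadd]; congr 2; ring
  have hnear' : ∀ x ∈ F, ∀ y ∈ F, ∀ s, |coQ (rg gg (inc x)) (rg gg (inc y)) s| ≤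
      e ^ (-εp) * sbox (rho i) (W1 * e ^ (t + u)) (W2 * e ^ (2 * t + u))
        (Th * e ^ (2 * t + u + v)) s :=
    fun x hx y hy s => box_up (Kp := 0) hlu f1 f2 pw1 pw2 pa (hep _).le E2 s (hnear x hx y hy s)
  have hthin := thin_num (u := u) (v := v) he E0 ht (hu.le.trans huv.le) hW2 hTh b1
    (pow_nonneg two_pos.le k) h2k
  have hTL : ∀ x ∈ I0, TrueLn gg (rg gg (inc x)) (L x.1) := fun x hx => by
    have h9 := trueLn_rg (h := gg) (hinc x hx).1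
    rwa [zero_add] at h9
  obtain ⟨q1, q2, q3, q4, q5⟩ := hinc i0 (hFI hi0)
  obtain ⟨fl1, fl2⟩ := rg_flags gg (inc i0)
  rw [q2] at fl1 fl2
  have dm1 : DMaxK (alive I0 i (zc i i0.2)) L (zl i (zc i i0.2)) (rho i)
      (e ^ (-κ₂) * (An * (rho m0 / rho i) ^ g)) (Rq qq i) (Th * e ^ (2 * t + u + v) / 2 ^ M)
      (ClW (dδ * rho i) lo hi) :=
    ((hDm i hm0 hm1i _).mono_r0 hrM).mono (div_pos pa h2M0)
      (mul_le_mul_of_nonneg_right hHn hD0.le)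
  have dm2 : ∀ cl : ℤ, DMaxK (alive I0 (i + M + 1 - k) cl) L (zl (i + M + 1 - k) cl)
      (rho (i + M + 1 - k)) (e ^ (-κ₂) * (An * (rho m0 / rho i) ^ g *
        2 ^ (g * ((M : ℝ) + 1 - k)))) (Rq qq (i + M + 1 - k))
      (Th * e ^ (2 * t + u + v) / 2 ^ M)
      (ClW (dδ * rho (i + M + 1 - k)) lo hi) := by
    intro cl
    refine ((hDm _ (hm0.trans hl1) hm1 cl).mono_r0 hrM).mono (div_pos pa h2M0) ?_
    rw [hpl, mul_assoc An]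
    have h1 : 0 ≤ An * ((rho m0 / rho i) ^ g * (2 : ℝ) ^ (g * ((M : ℝ) + 1 - k))) := by
      rw [← mul_assoc]
      exact mul_nonneg hD0.le (Real.rpow_nonneg two_pos.le _)
    exact mul_le_mul_of_nonneg_right hHn h1
  refine key F I0 L nb (fun x y => zc j y.2 = zc j x.2 ∧
      ∀ s, |coQ (rg gg (inc x)) (rg gg (inc y)) s| ≤ e ^ (-εc) * sbox (lam * e ^ v)
        (W1 * e ^ (t + v)) (W2 * e ^ (2 * t + v)) (Th * e ^ (2 * t + v + v)) s) gg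
    (fun x => rg gg (inc x)) (W1 * e ^ (t + u)) (W2 * e ^ (2 * t + u)) (Th * e ^ (2 * t + u + v))
    (Th * e ^ (2 * t + u + v) / 2 ^ M) (e ^ (-κ₂)) (e ^ (-εp)) (4 * e ^ (2 : ℝ))
    (e ^ (v - u)) nn
    (2 ^ (m1 - i)) Kc (An * (rho m0 / rho i) ^ g) Tr (ClW (dδ * rho i) lo hi)
    (ClW (dδ * rho (i + M + 1 - k)) lo hi) i j M k (zc i i0.2) i0 hi0 (hM₀.trans f7) f8 f9
    f11 hKp1 hKpK (kap_num he hκ E4 f6) (mul_nonneg (by norm_num) (hep 2).le) hδ2 (hep _) hcomb5 hnn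
    (pow_pos two_pos _) hKc hD0 (div_pos pa h2M0) (fun x hx' => hcell x hx' i0 hi0)
    (fun x hx => ⟨hTL x (hFI hx), (hinc x (hFI hx)).2.1, (hinc x (hFI hx)).2.2.1⟩) hTL
    ((le_of_eq (congrArg abs fl1)).trans q4) ((le_of_eq (congrArg abs fl2)).trans q5) pa
    hw21 hthin hfl hnear' o1 o2 o3 o4 ?_ ?_ ?_ ?_ dm1 ?_ dm2 ?_ ?_ ?_ ?_ hfin
  · intro x hx
    exact (cell_count hm1i hone x).trans (le_mul_of_one_le_left (pow_nonneg two_pos.le _) hK1)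
  · intro x hx
    refine (cell_count hm1 hone x).trans ?_
    rw [h2l]
    exact le_mul_of_one_le_left (div_nonneg (pow_nonneg two_pos.le _) (pow_nonneg two_pos.le _)) hK1
  · intro P hP P' hP' hc
    exact (hcomb P hP P' hP' hc).trans (mul_le_mul_of_nonneg_right E16 (Nat.cast_nonneg _))
  · intro x hx y hy hxy
    obtain ⟨n1, n2⟩ := hnb x hx y hy hxy
    exact ⟨Crest.Agent.R136.Cnt638.zc_nest hm1 n1, fun s =>
      box_up (Kp := 0) hlu f1 f2 pw1 pw2 pa (hep _).le le_rfl s (n2 s)⟩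
  · refine cls_in (lo0.trans haM) pa (lo1.trans hw1M) (lo2.trans hw2M) pw1.le pw2.le y0.le y1.le y2.le
      hi0' hi1' hi2' ?_ (by norm_num) (by norm_num) (by norm_num)
    refine le_trans ?_ hwi
    clear * - y1
    linarith
  · have e1 : ∀ z : ℝ, 100000 * e ^ (-κ₂) * (2 ^ k / 2 ^ M) * z =
        (100000 * (2 ^ k / 2 ^ M)) * e ^ (-κ₂) * z := fun z => by ring
    simp only [e1]
    have c1 : 100000 * ((2 : ℝ) ^ k / 2 ^ M) ≤ 100000 := by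
      clear * - hkM
      linarith
    refine cls_in lo0 (div_pos pa h2M0) lo1 lo2 (div_pos pw1 h2M0).le (div_pos pw2 h2M0).le y0.le y1.le y2.le hi0' hi1'
      hi2' ?_ (by clear * - c1; linarith) (by clear * - c1; linarith) (by clear * - c1; linarith)
    rw [hrl', h2q]
    have h7 : (0 : ℝ) < 2 ^ (M + 1 - k) := pow_pos two_pos _
    calc 12 * (100000 * (2 / 2 ^ (M + 1 - k)) * e ^ (-κ₂) * (W1 * e ^ (t + u))) =
        (2400000 * e ^ (-κ₂) * (W1 * e ^ (t + u))) / 2 ^ (M + 1 - k) := by ring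
      _ ≤ (dδ * rho i) / 2 ^ (M + 1 - k) := div_le_div_of_nonneg_right hwi h7.le
      _ = _ := by ring
  · exact le_of_eq (div_mul_cancel₀ _ h2M0.ne')
  · intro x hx
    refine (hTr x hx).trans ?_
    refine le_trans (le_of_eq ?_) (le_mul_of_one_le_left (Nat.cast_nonneg _) hK1)
    congr!
  · intro x hx y hy hxy
    refine ⟨hxy.1, fun s => ?_⟩
    have h1 := hxy.2 s
    rw [r1, r2, r3] at h1
    have h2 := hep (v - u)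
    exact box_up (Kp := 0) hlv hrl.1 hrl.2 (mul_pos h2 pw1) (mul_pos h2 pw2) (mul_pos h2 pa)
      (hep _).le E2 s h1

end Crest.Agent.R136.End882
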