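import Crest.Agent.R136.TL0_196

/-!
# R136 (S0187), lightlike case, END: real sides at the record window (helper638)

`sdn` : real side of the slot `k` of the base box of the class.
* `tight` (W0): exact walls of the base exponents;
* `sides` (W1): the sides of the slots `z`, `X_a`, `X_b`, `N`;
* `gap_N`, `gap_b`, `gap_a` (W2): power gaps between consecutive sides;
* `res_le` (W3): the resolution is below the record thickness;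
* `lev_mem` (W4): the levels of the window lie inside `[lev 0, lev 1]`.
-/

set_option autoImplicit false
set_option linter.unusedVariables false

open Finset Filter Topology

namespace Crest.Agent.R136.Wid638

open Crest.Agent.R138.Ex926
open Crest.Agent.R138.Mk163 (zc zl rho)
open Crest.Agent.R136.Net191
open Crest.Agent.R136.NetQ186
open Crest.Agent.R136.GeoQ186
open Crest.Agent.R136.Wq638
open Crest.Agent.R136.Lq196
open Crest.Agent.R136.Top484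
open Crest.Agent.R136.NatT550
open Crest.Agent.R136.NatR550
open Crest.Agent.R136.TopB550
open Crest.Agent.R136.Qg926
open Crest.Agent.R136.Gz779
open Crest.Agent.R136.TL196

/-- two-sided bounds by every power -/
theorem sub_of_bd' {B : Base} {X : ℕ → ℝ}
    (h1 : ∀ ε : ℝ, 0 < ε → ∀ᶠ n in (U : Filter ℕ), B.d n ^ ε ≤ X n)
    (h2 : ∀ ε : ℝ, 0 < ε → ∀ᶠ n in (U : Filter ℕ), X n ≤ B.d n ^ (-ε)) : B.Sub X := by
  rw [Base.Sub.iff]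
  refine ⟨?_, ?_⟩
  · filter_upwards [h1 1 one_pos] with n hn
    exact lt_of_lt_of_le (Real.rpow_pos_of_pos (B.pos n) _) hn
  · rw [Metric.tendsto_nhds]
    intro ε hε
    filter_upwards [h1 (ε / 2) (by positivity), h2 (ε / 2) (by positivity)] with n a1 a2
    have hL := B.L_pos n
    have hp := Real.rpow_pos_of_pos (B.pos n) (ε / 2)
    have hX : 0 < X n := lt_of_lt_of_le hp a1
    have b1 := Real.log_le_log hp a1
    have b2 := Real.log_le_log hX a2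
    rw [Real.log_rpow (B.pos n)] at b1 b2
    have e : Real.log (B.d n) = -B.L n := by unfold Base.L; ring
    rw [e] at b1 b2
    rw [Real.dist_eq, sub_zero, Base.lg, abs_div, abs_of_pos hL, div_lt_iff₀ hL, abs_lt]
    constructor <;> nlinarith

variable {c : LCtx} {η : ℝ} {B' : Base} {J : ℕ → Finset (ℕ × ℝ)} {ξ w : ℕ → ℝ}
  {lam lo : (Fin 11 → ℝ) → ℝ}

/-- real side of the slot `k` of the base box; by `rfl` equal to `End882.sd (c.D.B.d n)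
(c.XB T1 ξ w n) (uH ..) (uA ..) (uB ..) (uY ..) k` -/
noncomputable def sdn (c : LCtx) (T1 : ℝ) (ξ w : ℕ → ℝ) (n : ℕ) (k : Fin 11) : ℝ :=
  c.D.B.d n ^ (if k = 1 then c.XB T1 ξ w n 7 - c.XB T1 ξ w n 0 else c.XB T1 ξ w n k) /
    sfac (uH c.D.B c.D.lev c.w0 n) (uA c.D.B c.D.lev c.D.w c.w0 n)
      (uB c.D.B c.D.lev c.D.w c.w0 n) (uY c.D.B c.D.lev c.D.w c.w0 n) k

theorem e_eq (rw' : RecW c B' J ξ w lam lo) (n : ℕ) (t : ℝ) :
    B'.d n ^ t = c.D.B.d n ^ (w n * t) := by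
  rw [rw'.win.base, ← Real.rpow_mul (c.D.B.pos n).le]

/-- the scale of the window is small -/
theorem w_small (rw' : RecW c B' J ξ w lam lo) (C : ℝ) {δ : ℝ} (hδ : 0 < δ) :
    ∀ᶠ n in (U : Filter ℕ), |w n * C| ≤ δ := by
  have h1 : Tendsto (fun n => w n * C) U (𝓝 0) := by
    have := rw'.wlim.mul_const C
    rwa [zero_mul] at this
  filter_upwards [(Metric.tendsto_nhds.1 h1) δ hδ] with n hn
  rw [Real.dist_eq, sub_zero] at hn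
  exact hn.le

theorem ξ_near (rw' : RecW c B' J ξ w lam lo) : ∃ ξ₀ : ℝ, 0 < ξ₀ ∧ ξ₀ < 1 ∧
    ∀ δ : ℝ, 0 < δ → ∀ᶠ n in (U : Filter ℕ), |ξ n - ξ₀| ≤ δ := by
  obtain ⟨ξ₀, h0, h1, h2⟩ := rw'.ξlim
  refine ⟨ξ₀, h0, h1, fun δ hδ => ?_⟩
  filter_upwards [(Metric.tendsto_nhds.1 h2) δ hδ] with n hn
  rw [Real.dist_eq] at hn
  exact hn.le

theorem LL_of (ok : c.Ok η) : c.p.θ 2 - c.p.θ 0 = 1 ∧ c.p.θ 2 = 2 * c.p.θ 1 := ok.pat.2.2

/-! ### (W0) -/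

theorem XB_apply (T1 : ℝ) (n : ℕ) (k : Fin 11) : c.XB T1 ξ w n k =
    nat4 c.w0 (c.R - 1) (ξ n) (-(c.p.θ 1 * ξ n)) (-(c.p.θ 2 * ξ n)) (-(c.p.θ 0 * ξ n)) k +
      w n * nL 0 (-T1) (-2 * T1) (-2 * T1) k := rfl

/-- **(W0)** exact walls of the base exponents -/
theorem tight (ok : c.Ok η) (rw' : RecW c B' J ξ w lam lo) (T1 : ℝ) :
    ∀ᶠ n in (U : Filter ℕ), TightQ (c.XB T1 ξ w n) := by
  obtain ⟨ξ₀, h0, h1, hξ⟩ := ξ_near rw'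
  have big := ok.th.tp.big
  have hT := big.T0
  have t0 := abs_le.1 (big.th 0)
  have t1 := abs_le.1 (big.th 1)
  have t2 := abs_le.1 (big.th 2)
  have hw := big.w0T
  have hR := big.R0
  filter_upwards [hξ (min ξ₀ (1 - ξ₀)) (lt_min h0 (by linarith)),
    w_small rw' (2 * T1) (δ := 1 / 2) (by norm_num)] with n a1 a2
  have b1 : 0 ≤ ξ n := by
    have := (abs_le.1 (a1.trans (min_le_left _ _))).1
    linarith
  have b2 : ξ n ≤ 1 := by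
    have := (abs_le.1 (a1.trans (min_le_right _ _))).2
    linarith
  obtain ⟨c1, c2⟩ := abs_le.1 a2
  have m : ∀ θ : ℝ, -c.T0 ≤ θ → θ ≤ c.T0 → -c.T0 ≤ θ * ξ n ∧ θ * ξ n ≤ c.T0 := by
    intro θ u1 u2
    constructor <;> nlinarith
  obtain ⟨p0, p0'⟩ := m _ t0.1 t0.2
  obtain ⟨p1, p1'⟩ := m _ t1.1 t1.2
  obtain ⟨p2, p2'⟩ := m _ t2.1 t2.2
  have e : ∀ k : Fin 11, c.XB T1 ξ w n k =
    nat4 c.w0 (c.R - 1) (ξ n) (-(c.p.θ 1 * ξ n)) (-(c.p.θ 2 * ξ n)) (-(c.p.θ 0 * ξ n)) k +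
      w n * nL 0 (-T1) (-2 * T1) (-2 * T1) k := fun k => rfl
  have e0 : c.XB T1 ξ w n 0 = c.w0 + ξ n := by rw [e]; simp [nat4, nL]
  have e1 : c.XB T1 ξ w n 1 = c.R - 1 := by rw [e]; simp [nat4, nL]
  have e2 : c.XB T1 ξ w n 2 = c.w0 + (c.p.θ 1 - c.p.θ 2) * ξ n - w n * T1 := by
    rw [e]; simp [nat4, nL]; ring
  have e3 : c.XB T1 ξ w n 3 = c.w0 + (c.p.θ 2 - c.p.θ 0) * ξ n := by
    rw [e]; simp [nat4, nL]; ring
  have e4 : c.XB T1 ξ w n 4 = 2 * c.w0 + (c.p.θ 1 - c.p.θ 0) * ξ n - w n * T1 := by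
    rw [e]; simp [nat4, nL]; ring
  have e5 : c.XB T1 ξ w n 5 = c.w0 - c.p.θ 1 * ξ n - w n * T1 := by
    rw [e]; simp [nat4, nL]; ring
  have e6 : c.XB T1 ξ w n 6 = 2 * c.w0 - c.p.θ 2 * ξ n - 2 * (w n * T1) := by
    rw [e]; simp [nat4, nL]; ring
  have e7 : c.XB T1 ξ w n 7 = 3 * c.w0 - c.p.θ 0 * ξ n - 2 * (w n * T1) := by
    rw [e]; simp [nat4, nL]; ring
  have e8 : c.XB T1 ξ w n 8 = 2 * c.w0 + ξ n - c.p.θ 1 * ξ n - w n * T1 := by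
    rw [e]; simp [nat4, nL]; ring
  have e9 : c.XB T1 ξ w n 9 = 3 * c.w0 + ξ n - c.p.θ 2 * ξ n - 2 * (w n * T1) := by
    rw [e]; simp [nat4, nL]; ring
  have e10 : c.XB T1 ξ w n 10 = 4 * c.w0 + ξ n - c.p.θ 0 * ξ n - 2 * (w n * T1) := by
    rw [e]; simp [nat4, nL]; ring
  have f2 : c.XB T1 ξ w n 2 = c.w0 + c.p.θ 1 * ξ n - c.p.θ 2 * ξ n - w n * T1 := by rw [e2]; ring
  have f3 : c.XB T1 ξ w n 3 = c.w0 + c.p.θ 2 * ξ n - c.p.θ 0 * ξ n := by rw [e3]; ring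
  have f4 : c.XB T1 ξ w n 4 = 2 * c.w0 + c.p.θ 1 * ξ n - c.p.θ 0 * ξ n - w n * T1 := by
    rw [e4]; ring
  refine ⟨fun k => ?_, ?_, ?_, ?_, ?_, ?_, ?_, ?_⟩
  · fin_cases k
    · change 0 ≤ c.XB T1 ξ w n 0; rw [e0]; linarith
    · change 0 ≤ c.XB T1 ξ w n 1; rw [e1]; linarith
    · change 0 ≤ c.XB T1 ξ w n 2; rw [f2]; linarith
    · change 0 ≤ c.XB T1 ξ w n 3; rw [f3]; linarith
    · change 0 ≤ c.XB T1 ξ w n 4; rw [f4]; linarith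
    · change 0 ≤ c.XB T1 ξ w n 5; rw [e5]; linarith
    · change 0 ≤ c.XB T1 ξ w n 6; rw [e6]; linarith
    · change 0 ≤ c.XB T1 ξ w n 7; rw [e7]; linarith
    · change 0 ≤ c.XB T1 ξ w n 8; rw [e8]; linarith
    · change 0 ≤ c.XB T1 ξ w n 9; rw [e9]; linarith
    · change 0 ≤ c.XB T1 ξ w n 10; rw [e10]; linarith
  · rw [e0, e7]; linarith
  · rw [f4, f2, f3]; ring
  · rw [e6, f2, e5]; ring
  · rw [e7, f4, e5]; ring
  · rw [e8, e0, e5]; ring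
  · rw [e9, e0, e6]; ring
  · rw [e10, f4, e8]; ring

/-! ### (W1) -/

theorem rho_pos' (i : ℕ) : 0 < rho i := by unfold rho; positivity

/-- widths of the marks of level `0` -/
theorem ord0 (ok : c.Ok η) : ∀ᶠ n in (U : Filter ℕ), 0 < c.D.w 0 n 0 ∧ 0 < c.D.w 1 n 0 ∧
    0 < c.D.w 2 n 0 ∧ c.D.r0 n ≤ c.D.w 0 n 0 ∧ c.D.w 0 n 0 ≤ c.D.w 2 n 0 ∧
    c.D.w 2 n 0 ≤ c.D.w 1 n 0 ∧ c.D.w 1 n 0 ≤ rho (c.D.lev n 0) := by
  have mka := ok.th.tp.pre.mka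
  filter_upwards [mka.wpos 0 0 le_rfl zero_le_one, mka.wpos 1 0 le_rfl zero_le_one,
    mka.wpos 2 0 le_rfl zero_le_one, mark_ord mka le_rfl zero_le_one] with n a0 a1 a2 a3
  exact ⟨a0, a1, a2, a3⟩

/-- one side: `sd = P d^((1 - θ) ξ) e^(-m T1)` -/
theorem side_aux {d ρ P a x y : ℝ} {m : ℝ} (hd : 0 < d) (hρ : 0 < ρ) (hP : 0 < P)
    (h : x = (a + m) + y) :
    d ^ x / ((d ^ a * (1 / ρ)) / (P / ρ * d ^ (-m))) = P * d ^ y := by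
  have h1 : 0 < d ^ a := Real.rpow_pos_of_pos hd _
  have h2 : 0 < d ^ m := Real.rpow_pos_of_pos hd _
  have h3 : 0 < d ^ y := Real.rpow_pos_of_pos hd _
  rw [h, Real.rpow_add hd, Real.rpow_add hd, Real.rpow_neg hd.le]
  field_simp

theorem two_pow_eq (i : ℕ) : (2 : ℝ) ^ i = 1 / rho i := by
  unfold rho
  rw [one_div_one_div]

/-- **(W1)** real sides of the base box -/
theorem sides (ok : c.Ok η) (rw' : RecW c B' J ξ w lam lo) (T1 : ℝ) :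
    ∀ᶠ n in (U : Filter ℕ),
      sdn c T1 ξ w n 0 = rho (c.D.lev n 0) * c.D.B.d n ^ ξ n ∧
      sdn c T1 ξ w n 8 = c.D.w 1 n 0 * c.D.B.d n ^ ((1 - c.p.θ 1) * ξ n) * B'.d n ^ (-T1) ∧
      sdn c T1 ξ w n 9 = c.D.w 2 n 0 * c.D.B.d n ^ ((1 - c.p.θ 2) * ξ n) * B'.d n ^ (-2 * T1) ∧
      sdn c T1 ξ w n 10 = c.D.w 0 n 0 * c.D.B.d n ^ ((1 - c.p.θ 0) * ξ n) * B'.d n ^ (-2 * T1) := by
  filter_upwards [ord0 ok] with n ⟨P0, P1, P2, _, _, _, _⟩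
  have hd := c.D.B.pos n
  have hρ := rho_pos' (c.D.lev n 0)
  have e : ∀ k : Fin 11, c.XB T1 ξ w n k =
    nat4 c.w0 (c.R - 1) (ξ n) (-(c.p.θ 1 * ξ n)) (-(c.p.θ 2 * ξ n)) (-(c.p.θ 0 * ξ n)) k +
      w n * nL 0 (-T1) (-2 * T1) (-2 * T1) k := fun k => rfl
  have e0 : c.XB T1 ξ w n 0 = c.w0 + ξ n := by rw [e]; simp [nat4, nL]
  have e8 : c.XB T1 ξ w n 8 = (c.w0 + c.w0) + ((1 - c.p.θ 1) * ξ n + w n * (-T1)) := by
    rw [e]; simp [nat4, nL]; ring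
  have e9 : c.XB T1 ξ w n 9 = (c.w0 + 2 * c.w0) + ((1 - c.p.θ 2) * ξ n + w n * (-2 * T1)) := by
    rw [e]; simp [nat4, nL]; ring
  have e10 : c.XB T1 ξ w n 10 = (c.w0 + 3 * c.w0) +
      ((1 - c.p.θ 0) * ξ n + w n * (-2 * T1)) := by
    rw [e]; simp [nat4, nL]; ring
  have H : uH c.D.B c.D.lev c.w0 n = c.D.B.d n ^ c.w0 * (1 / rho (c.D.lev n 0)) := by
    unfold uH
    rw [two_pow_eq]
  refine ⟨?_, ?_, ?_, ?_⟩
  · have h1 : sdn c T1 ξ w n 0 = c.D.B.d n ^ (c.XB T1 ξ w n 0) / uH c.D.B c.D.lev c.w0 n := rfl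
    rw [h1, H, e0, Real.rpow_add hd]
    have h2 : 0 < c.D.B.d n ^ c.w0 := Real.rpow_pos_of_pos hd _
    field_simp
  · have h1 : sdn c T1 ξ w n 8 = c.D.B.d n ^ (c.XB T1 ξ w n 8) /
      (uH c.D.B c.D.lev c.w0 n / uA c.D.B c.D.lev c.D.w c.w0 n) := rfl
    rw [h1, H, e_eq rw', mul_assoc, ← Real.rpow_add hd]
    exact side_aux hd hρ P1 e8
  · have h1 : sdn c T1 ξ w n 9 = c.D.B.d n ^ (c.XB T1 ξ w n 9) /
      (uH c.D.B c.D.lev c.w0 n / uB c.D.B c.D.lev c.D.w c.w0 n) := rfl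
    rw [h1, H, e_eq rw', mul_assoc, ← Real.rpow_add hd]
    exact side_aux hd hρ P2 e9
  · have h1 : sdn c T1 ξ w n 10 = c.D.B.d n ^ (c.XB T1 ξ w n 10) /
      (uH c.D.B c.D.lev c.w0 n / uY c.D.B c.D.lev c.D.w c.w0 n) := rfl
    rw [h1, H, e_eq rw', mul_assoc, ← Real.rpow_add hd]
    exact side_aux hd hρ P0 e10

/-- the real sides are positive -/
theorem sdn_pos (ok : c.Ok η) (rw' : RecW c B' J ξ w lam lo) (T1 : ℝ) :
    ∀ᶠ n in (U : Filter ℕ), 0 < sdn c T1 ξ w n 0 ∧ 0 < sdn c T1 ξ w n 8 ∧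
      0 < sdn c T1 ξ w n 9 ∧ 0 < sdn c T1 ξ w n 10 := by
  filter_upwards [ord0 ok, sides ok rw' T1] with n ⟨P0, P1, P2, _, _, _, _⟩ ⟨s0, s8, s9, s10⟩
  have hd : ∀ t : ℝ, 0 < c.D.B.d n ^ t := fun t => Real.rpow_pos_of_pos (c.D.B.pos n) t
  have hd' : ∀ t : ℝ, 0 < B'.d n ^ t := fun t => Real.rpow_pos_of_pos (B'.pos n) t
  have hρ := rho_pos' (c.D.lev n 0)
  rw [s0, s8, s9, s10]
  exact ⟨mul_pos hρ (hd _), mul_pos (mul_pos P1 (hd _)) (hd' _),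
    mul_pos (mul_pos P2 (hd _)) (hd' _), mul_pos (mul_pos P0 (hd _)) (hd' _)⟩

/-! ### (W2) -/

/-- **(W2)** `N` against `X_b`: power gap `d^ξ` -/
theorem gap_N (ok : c.Ok η) (rw' : RecW c B' J ξ w lam lo) (T1 C : ℝ) :
    ∀ᶠ n in (U : Filter ℕ), sdn c T1 ξ w n 10 ≤ B'.d n ^ C * sdn c T1 ξ w n 9 := by
  obtain ⟨ξ₀, h0, h1, hξ⟩ := ξ_near rw'
  obtain ⟨l1, l2⟩ := LL_of ok
  filter_upwards [ord0 ok, sides ok rw' T1, hξ (ξ₀ / 2) (by positivity),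
    w_small rw' C (δ := ξ₀ / 4) (by positivity)] with n ⟨P0, P1, P2, _, P02, _, _⟩
    ⟨s0, s8, s9, s10⟩ a1 a2
  have hd := c.D.B.pos n
  have hdp : ∀ t : ℝ, 0 < c.D.B.d n ^ t := fun t => Real.rpow_pos_of_pos hd t
  rw [s9, s10, e_eq rw', e_eq rw']
  rw [show c.D.B.d n ^ (w n * C) * (c.D.w 2 n 0 * c.D.B.d n ^ ((1 - c.p.θ 2) * ξ n) *
      c.D.B.d n ^ (w n * (-2 * T1))) = c.D.w 2 n 0 * (c.D.B.d n ^ (w n * C) *
      c.D.B.d n ^ ((1 - c.p.θ 2) * ξ n)) * c.D.B.d n ^ (w n * (-2 * T1)) by ring,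
    ← Real.rpow_add hd]
  refine mul_le_mul_of_nonneg_right (mul_le_mul P02 ?_ (hdp _).le P2.le) (hdp _).le
  refine Real.rpow_le_rpow_of_exponent_ge hd (c.D.B.lt n).le ?_
  have e1 : (1 - c.p.θ 0) * ξ n = (1 - c.p.θ 2) * ξ n + ξ n := by
    have : c.p.θ 0 = c.p.θ 2 - 1 := by linarith
    rw [this]; ring
  rw [e1]
  have b1 := (abs_le.1 a1).1
  have b2 := (abs_le.1 a2).2
  linarith

/-- **(W2)** `X_b` against `X_a` -/
theorem gap_b (ok : c.Ok η) (rw' : RecW c B' J ξ w lam lo) (T1 C : ℝ) :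
    ∀ᶠ n in (U : Filter ℕ), sdn c T1 ξ w n 9 ≤ B'.d n ^ C * sdn c T1 ξ w n 8 := by
  obtain ⟨ξ₀, h0, h1, hξ⟩ := ξ_near rw'
  obtain ⟨l1, l2⟩ := LL_of ok
  have hθ := ok.th.tp.ok.θ1
  have mka := ok.th.tp.pre.mka
  have hg : 0 < c.p.θ 1 * (1 - ξ₀) / 8 := by
    have : 0 < 1 - ξ₀ := by linarith
    positivity
  filter_upwards [ord0 ok, sides ok rw' T1, (w0_one mka).ab _ hg,
    hξ ((1 - ξ₀) / 4) (by linarith),
    w_small rw' (C + T1) (δ := c.p.θ 1 * (1 - ξ₀) / 8) hg] with n ⟨P0, P1, P2, _, _, _, _⟩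
    ⟨s0, s8, s9, s10⟩ a0 a1 a2
  have hd := c.D.B.pos n
  have hdp : ∀ t : ℝ, 0 < c.D.B.d n ^ t := fun t => Real.rpow_pos_of_pos hd t
  rw [s8, s9, e_eq rw', e_eq rw', e_eq rw']
  have b1 := (abs_le.1 a1).2
  have b2 := (abs_le.1 a2).2
  calc c.D.w 2 n 0 * c.D.B.d n ^ ((1 - c.p.θ 2) * ξ n) * c.D.B.d n ^ (w n * (-2 * T1))
      ≤ (c.D.B.d n ^ (c.p.θ 2 - c.p.θ 1 - c.p.θ 1 * (1 - ξ₀) / 8) * c.D.w 1 n 0) *
        c.D.B.d n ^ ((1 - c.p.θ 2) * ξ n) * c.D.B.d n ^ (w n * (-2 * T1)) :=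
        mul_le_mul_of_nonneg_right (mul_le_mul_of_nonneg_right a0 (hdp _).le) (hdp _).le
    _ = c.D.w 1 n 0 * c.D.B.d n ^ ((c.p.θ 2 - c.p.θ 1 - c.p.θ 1 * (1 - ξ₀) / 8) +
        ((1 - c.p.θ 2) * ξ n + w n * (-2 * T1))) := by
        rw [Real.rpow_add hd, Real.rpow_add hd]; ring
    _ ≤ c.D.w 1 n 0 * c.D.B.d n ^ (w n * C + ((1 - c.p.θ 1) * ξ n + w n * (-T1))) := by
        refine mul_le_mul_of_nonneg_left
          (Real.rpow_le_rpow_of_exponent_ge hd (c.D.B.lt n).le ?_) P1.le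
        have e2 : c.p.θ 1 * ξ n ≤ c.p.θ 1 * (ξ₀ + (1 - ξ₀) / 4) :=
          mul_le_mul_of_nonneg_left (by linarith) hθ.le
        rw [l2]
        nlinarith
    _ = _ := by rw [Real.rpow_add hd, Real.rpow_add hd]; ring

/-- **(W2)** `X_a` against the length -/
theorem gap_a (ok : c.Ok η) (rw' : RecW c B' J ξ w lam lo) (T1 : ℝ) :
    ∃ δ0 : ℝ, 0 < δ0 ∧ ∀ C : ℝ, ∀ᶠ n in (U : Filter ℕ),
      sdn c T1 ξ w n 8 ≤ B'.d n ^ C * c.D.B.d n ^ δ0 * sdn c T1 ξ w n 0 := by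
  obtain ⟨ξ₀, h0, h1, hξ⟩ := ξ_near rw'
  have hθ := ok.th.tp.ok.θ1
  have mka := ok.th.tp.pre.mka
  have hg : 0 < c.p.θ 1 * (1 - ξ₀) / 8 := by
    have : 0 < 1 - ξ₀ := by linarith
    positivity
  refine ⟨c.p.θ 1 * (1 - ξ₀) / 4, by linarith, fun C => ?_⟩
  filter_upwards [ord0 ok, sides ok rw' T1, (w0_one mka).cap _ hg,
    hξ ((1 - ξ₀) / 4) (by linarith),
    w_small rw' (C + T1) (δ := c.p.θ 1 * (1 - ξ₀) / 8) hg] with n ⟨P0, P1, P2, _, _, _, _⟩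
    ⟨s0, s8, s9, s10⟩ a0 a1 a2
  have hd := c.D.B.pos n
  have hρ := rho_pos' (c.D.lev n 0)
  have hdp : ∀ t : ℝ, 0 < c.D.B.d n ^ t := fun t => Real.rpow_pos_of_pos hd t
  rw [s8, s0, e_eq rw', e_eq rw']
  have b1 := (abs_le.1 a1).2
  have b2 := (abs_le.1 a2).2
  calc c.D.w 1 n 0 * c.D.B.d n ^ ((1 - c.p.θ 1) * ξ n) * c.D.B.d n ^ (w n * (-T1))
      ≤ (c.D.B.d n ^ (c.p.θ 1 - c.p.θ 1 * (1 - ξ₀) / 8) * rho (c.D.lev n 0)) *
        c.D.B.d n ^ ((1 - c.p.θ 1) * ξ n) * c.D.B.d n ^ (w n * (-T1)) :=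
        mul_le_mul_of_nonneg_right (mul_le_mul_of_nonneg_right a0 (hdp _).le) (hdp _).le
    _ = rho (c.D.lev n 0) * c.D.B.d n ^ ((c.p.θ 1 - c.p.θ 1 * (1 - ξ₀) / 8) +
        ((1 - c.p.θ 1) * ξ n + w n * (-T1))) := by
        rw [Real.rpow_add hd, Real.rpow_add hd]; ring
    _ ≤ rho (c.D.lev n 0) * c.D.B.d n ^ (w n * C + (c.p.θ 1 * (1 - ξ₀) / 4 + ξ n)) := by
        refine mul_le_mul_of_nonneg_left
          (Real.rpow_le_rpow_of_exponent_ge hd (c.D.B.lt n).le ?_) hρ.le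
        have e2 : c.p.θ 1 * ξ n ≤ c.p.θ 1 * (ξ₀ + (1 - ξ₀) / 4) :=
          mul_le_mul_of_nonneg_left (by linarith) hθ.le
        nlinarith
    _ = _ := by rw [Real.rpow_add hd, Real.rpow_add hd]; ring

/-! ### (W3) -/

/-- **(W3)** the resolution is below the record thickness of every level, one loss sequence -/
theorem res_le (ok : c.Ok η) : ∃ H : ℕ → ℝ, c.D.B.Sub H ∧ (∀ n, 1 ≤ H n) ∧
    ∀ (B' : Base) (J : ℕ → Finset (ℕ × ℝ)) (ξ w : ℕ → ℝ) (lam lo : (Fin 11 → ℝ) → ℝ),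
      RecW c B' J ξ w lam lo → ∀ᶠ n in (U : Filter ℕ), ∀ v : ℝ, 0 ≤ v → v ≤ 1 →
        c.D.r0 n ≤ H n * (c.D.w 0 n 0 * c.D.B.d n ^ ((1 - c.p.θ 0) * ξ n) *
          B'.d n ^ ((1 - c.p.θ 0) * v)) := by
  have mka := ok.th.tp.pre.mka
  set H : ℕ → ℝ := fun n => max 1 (c.D.r0 n / (c.D.w 0 n 0 * c.D.B.d n ^ (1 - c.p.θ 0))) with hH
  have hH1 : ∀ n, 1 ≤ H n := fun n => le_max_left _ _
  refine ⟨H, sub_of_bd' (fun ε hε => ?_) (fun ε hε => ?_), hH1, ?_⟩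
  · refine Eventually.of_forall fun n => le_trans ?_ (hH1 n)
    exact Real.rpow_le_one (c.D.B.pos n).le (c.D.B.lt n).le hε.le
  · filter_upwards [(w0_one mka).res ε hε, ord0 ok] with n a1 ⟨P0, _⟩
    have hd := c.D.B.pos n
    have hdp : ∀ t : ℝ, 0 < c.D.B.d n ^ t := fun t => Real.rpow_pos_of_pos hd t
    refine max_le ?_ ?_
    · exact Real.one_le_rpow_of_pos_of_le_one_of_nonpos hd (c.D.B.lt n).le (by linarith)
    · rw [div_le_iff₀ (mul_pos P0 (hdp _))]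
      refine a1.trans (le_of_eq ?_)
      rw [show c.D.B.d n ^ (-ε) * (c.D.w 0 n 0 * c.D.B.d n ^ (1 - c.p.θ 0)) =
        (c.D.B.d n ^ (1 - c.p.θ 0) * c.D.B.d n ^ (-ε)) * c.D.w 0 n 0 by ring,
        ← Real.rpow_add hd]
      rfl
  · intro B' J ξ w lam lo rw'
    obtain ⟨ξ₀, h0, h1, hξ⟩ := ξ_near rw'
    filter_upwards [ord0 ok, hξ (min ξ₀ (1 - ξ₀) / 2)
      (by have := lt_min h0 (by linarith : (0 : ℝ) < 1 - ξ₀); linarith),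
      w_small rw' 1 (δ := min ξ₀ (1 - ξ₀) / 2)
        (by have := lt_min h0 (by linarith : (0 : ℝ) < 1 - ξ₀); linarith)] with n
      ⟨P0, _, _, r1, _⟩ a1 a2 v hv0 hv1
    have hd := c.D.B.pos n
    have hdp : ∀ t : ℝ, 0 < c.D.B.d n ^ t := fun t => Real.rpow_pos_of_pos hd t
    have hw0 := rw'.win.w0 n
    have m1 := min_le_left ξ₀ (1 - ξ₀)
    have m2 := min_le_right ξ₀ (1 - ξ₀)
    obtain ⟨b1, b2⟩ := abs_le.1 a1
    obtain ⟨b3, b4⟩ := abs_le.1 a2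
    rw [mul_one] at b3 b4
    have c1 : 0 ≤ ξ n + w n * v := by
      have : 0 ≤ w n * v := mul_nonneg hw0.le hv0
      linarith
    have c2 : ξ n + w n * v ≤ 1 := by
      have : w n * v ≤ w n * 1 := mul_le_mul_of_nonneg_left hv1 hw0.le
      linarith
    rw [e_eq rw', mul_assoc (c.D.w 0 n 0), ← Real.rpow_add hd,
      show (1 - c.p.θ 0) * ξ n + w n * ((1 - c.p.θ 0) * v) =
        (1 - c.p.θ 0) * (ξ n + w n * v) by ring]
    rcases le_total 0 (1 - c.p.θ 0) with hs | hs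
    · have k1 : c.D.B.d n ^ (1 - c.p.θ 0) ≤ c.D.B.d n ^ ((1 - c.p.θ 0) * (ξ n + w n * v)) :=
        Real.rpow_le_rpow_of_exponent_ge hd (c.D.B.lt n).le (by nlinarith)
      have k2 : c.D.r0 n / (c.D.w 0 n 0 * c.D.B.d n ^ (1 - c.p.θ 0)) ≤ H n := le_max_right _ _
      rw [div_le_iff₀ (mul_pos P0 (hdp _))] at k2
      refine k2.trans (mul_le_mul_of_nonneg_left (mul_le_mul_of_nonneg_left k1 P0.le)
        (by linarith [hH1 n]))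
    · have k1 : 1 ≤ c.D.B.d n ^ ((1 - c.p.θ 0) * (ξ n + w n * v)) :=
        Real.one_le_rpow_of_pos_of_le_one_of_nonpos hd (c.D.B.lt n).le
          (mul_nonpos_of_nonpos_of_nonneg hs c1)
      calc c.D.r0 n ≤ c.D.w 0 n 0 := r1
        _ ≤ c.D.w 0 n 0 * c.D.B.d n ^ ((1 - c.p.θ 0) * (ξ n + w n * v)) :=
            le_mul_of_one_le_right P0.le k1
        _ ≤ H n * (c.D.w 0 n 0 * c.D.B.d n ^ ((1 - c.p.θ 0) * (ξ n + w n * v))) :=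
            le_mul_of_one_le_left (mul_pos P0 (hdp _)).le (hH1 n)

/-! ### (W4) -/

/-- **(W4)** the levels of the window are levels of the sequence -/
theorem lev_mem (ok : c.Ok η) (rw' : RecW c B' J ξ w lam lo) (T1 : ℝ) :
    ∀ᶠ n in (U : Filter ℕ), ∀ z : ℝ, 0 ≤ z → z ≤ 1 → ∀ i : ℕ,
      sdn c T1 ξ w n 0 * B'.d n ^ z ≤ rho i → rho i ≤ 2 * (sdn c T1 ξ w n 0 * B'.d n ^ z) →
      c.D.lev n 0 ≤ i ∧ i ≤ c.D.lev n 1 := by
  have mka := ok.th.tp.pre.mka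
  obtain ⟨ξ₀, h0, h1, hξ⟩ := ξ_near rw'
  have hδ : 0 < min ξ₀ (1 - ξ₀) / 4 := by
    have := lt_min h0 (by linarith : (0 : ℝ) < 1 - ξ₀)
    linarith
  filter_upwards [sides ok rw' T1, hξ _ hδ, w_small rw' 1 hδ,
    Crest.Agent.R136.Qg926.ev_const_le c.D.B (c := 4) (by norm_num) (ε := ξ₀ / 2) (by positivity),
    PqG464.pow_lev mka 1 zero_le_one le_rfl hδ] with n ⟨s0, _, _, _⟩ a1 a2 a3 a4 z hz0 hz1 i hi1 hi2
  have hd := c.D.B.pos n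
  have hd1 := (c.D.B.lt n).le
  have hdp : ∀ t : ℝ, 0 < c.D.B.d n ^ t := fun t => Real.rpow_pos_of_pos hd t
  have hw0 := rw'.win.w0 n
  have m1 := min_le_left ξ₀ (1 - ξ₀)
  have m2 := min_le_right ξ₀ (1 - ξ₀)
  obtain ⟨b1, b2⟩ := abs_le.1 a1
  obtain ⟨b3, b4⟩ := abs_le.1 a2
  rw [mul_one] at b3 b4
  have c1 : ξ₀ / 2 ≤ ξ n + w n * z := by
    have : 0 ≤ w n * z := mul_nonneg hw0.le hz0
    linarith
  have c2 : ξ n + w n * z ≤ 1 - min ξ₀ (1 - ξ₀) / 4 := by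
    have : w n * z ≤ w n * 1 := mul_le_mul_of_nonneg_left hz1 hw0.le
    linarith
  rw [s0, e_eq rw', mul_assoc, ← Real.rpow_add hd] at hi1 hi2
  have t2 : ∀ k : ℕ, (0 : ℝ) < 2 ^ k := fun k => by positivity
  constructor
  · -- `rho i ≤ 2 ρ₀ d^(..) < ρ₀`
    have k1 : c.D.B.d n ^ (ξ n + w n * z) ≤ 1 / 4 := by
      calc c.D.B.d n ^ (ξ n + w n * z) ≤ c.D.B.d n ^ (ξ₀ / 2) :=
            Real.rpow_le_rpow_of_exponent_ge hd hd1 c1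
        _ ≤ 1 / 4 := by
            rw [Real.rpow_neg hd.le] at a3
            rw [le_div_iff₀ (by norm_num)]
            calc c.D.B.d n ^ (ξ₀ / 2) * 4 ≤ c.D.B.d n ^ (ξ₀ / 2) * (c.D.B.d n ^ (ξ₀ / 2))⁻¹ :=
                  mul_le_mul_of_nonneg_left a3 (hdp _).le
              _ = 1 := mul_inv_cancel₀ (hdp _).ne'
    have k2 : rho i ≤ rho (c.D.lev n 0) := by
      refine hi2.trans ?_
      have := mul_le_mul_of_nonneg_left k1 (rho_pos' (c.D.lev n 0)).le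
      have := rho_pos' (c.D.lev n 0)
      linarith
    by_contra hcon
    push Not at hcon
    have k3 : rho (c.D.lev n 0) < rho i := by
      unfold rho
      exact one_div_lt_one_div_of_lt (t2 _) (pow_lt_pow_right₀ (by norm_num) hcon)
    linarith
  · by_contra hcon
    push Not at hcon
    have k3 : (2 : ℝ) ^ c.D.lev n 1 < 2 ^ i := pow_lt_pow_right₀ (by norm_num) hcon
    have k4 := a4.2
    have k5 : (2 : ℝ) ^ i ≤ 2 ^ c.D.lev n 0 * c.D.B.d n ^ (-(ξ n + w n * z)) := by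
      unfold rho at hi1
      have h5 : 0 < c.D.B.d n ^ (ξ n + w n * z) := hdp _
      rw [Real.rpow_neg hd.le, ← div_eq_mul_inv, le_div_iff₀ h5]
      have h6 := mul_le_mul_of_nonneg_right hi1 (mul_pos (t2 i) (t2 (c.D.lev n 0))).le
      have e1 : 1 / (2 : ℝ) ^ c.D.lev n 0 * c.D.B.d n ^ (ξ n + w n * z) *
          (2 ^ i * 2 ^ c.D.lev n 0) = 2 ^ i * c.D.B.d n ^ (ξ n + w n * z) := by
        field_simp
      have e2 : 1 / (2 : ℝ) ^ i * (2 ^ i * 2 ^ c.D.lev n 0) = 2 ^ c.D.lev n 0 := by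
        field_simp
      rw [e1, e2] at h6
      exact h6
    have k6 : c.D.B.d n ^ (-(ξ n + w n * z)) ≤
        c.D.B.d n ^ (-(((1 : ℚ) : ℝ) - min ξ₀ (1 - ξ₀) / 4)) := by
      refine Real.rpow_le_rpow_of_exponent_ge hd hd1 ?_
      push_cast
      linarith
    have k7 := mul_le_mul_of_nonneg_left k6 (t2 (c.D.lev n 0)).le
    linarith

end Crest.Agent.R136.Wid638
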