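import Crest.Agent.R136.End12_882
import Crest.Agent.R136.Wid_638

/-!
# R136 (S0187), lightlike case, END: the real sides of the window, 882's form (helper638)
-/

set_option autoImplicit false

namespace Crest.Agent.R136.End882

open Crest.Agent.R136.TL196
open Crest.Agent.R136.Wq638

/-- real sides of the window in the class frame -/
noncomputable def sdn' (c : LCtx) (T1 : ℝ) (ξ w : ℕ → ℝ) (n : ℕ) (k : Fin 11) : ℝ :=
  sd (c.D.B.d n) (c.XB T1 ξ w n) (uH c.D.B c.D.lev c.w0 n) (uA c.D.B c.D.lev c.D.w c.w0 n)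
    (uB c.D.B c.D.lev c.D.w c.w0 n) (uY c.D.B c.D.lev c.D.w c.w0 n) k

theorem sdn'_eq (c : LCtx) (T1 : ℝ) (ξ w : ℕ → ℝ) (n : ℕ) (k : Fin 11) :
    sdn' c T1 ξ w n k = Wid638.sdn c T1 ξ w n k := rfl

end Crest.Agent.R136.End882
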