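import Crest.Agent.R136.TL2_196

/-!
# R136, END of the lightlike case: record line against the gauge object (helper196)

`rec_R` : the count on the record line at the level `ξ n` and the record box of the class frame give
the lower bound of 882's (R); `rec_R_ge`, `rec_R_pt` : the same facts one by one.
-/

set_option autoImplicit false
set_option linter.unusedVariables false

open Finset Filter Topology

namespace Crest.Agent.R136.TL196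

open Crest.Agent.R138.Ex926
open Crest.Agent.R136.Net191
open Crest.Agent.R136.NetQ186
open Crest.Agent.R136.GeoQ186
open Crest.Agent.R136.Wq638
open Crest.Agent.R136.Lq196
open Crest.Agent.R136.Top484
open Crest.Agent.R136.NatT550
open Crest.Agent.R136.NatR550
open Crest.Agent.R136.TopB550
open Crest.Agent.R136.Qg926
open Crest.Agent.R136.Zpr779
open Crest.Agent.R136.Gz779
open Crest.Agent.R136.Own831

variable {η : ℝ} {c : LCtx} {B' : Base} {J : ℕ → Finset (ℕ × ℝ)} {ξ w : ℕ → ℝ}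
  {lam lo : (Fin 11 → ℝ) → ℝ}

/-- the level is inside the interval -/
theorem RecW.lev_in (rw : RecW c B' J ξ w lam lo) :
    ∀ᶠ n in (U : Filter ℕ), 0 < ξ n ∧ ξ n < 1 := by
  obtain ⟨ξ₀, h0, h1, hl⟩ := rw.ξlim
  exact (hl.eventually_const_lt h0).and (hl.eventually_lt_const h1)

/-- the linear part of the record box in the class frame -/
theorem DL_rz (ok : c.Ok η) (T1 x v : ℝ) :
    DL c.p (bT T1) + DL c.p (rz (c.p.θ 1) T1 x v) =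
      (c.p.g - 1) * v - (3 - (c.p.θ 0 + c.p.θ 1 + c.p.θ 2)) * v +
        (c.p.q 0 * c.p.θ 0 + c.p.q 1 * c.p.θ 1 + c.p.q 2 * c.p.θ 2) * v := by
  have hL : c.p.θ 2 - c.p.θ 0 = 1 := ok.pat.2.2.1
  have hL2 : c.p.θ 2 = 2 * c.p.θ 1 := ok.pat.2.2.2
  have hL0 : c.p.θ 0 = 2 * c.p.θ 1 - 1 := by linarith
  simp only [DL, bT, rz, nL, Matrix.cons_val]
  rw [hL0, hL2]
  ring

/-- value on the record line, expanded -/
theorem rec_val' (ok : c.Ok η) {s : ℝ} (h0 : 0 ≤ s) (h1 : s < 1) :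
    c.ν (c.X s) = c.c₀ + (c.p.g * s + (1 - s) - (3 - (c.p.θ 0 + c.p.θ 1 + c.p.θ 2)) * s +
      (c.p.q 0 * c.p.θ 0 + c.p.q 1 * c.p.θ 1 + c.p.q 2 * c.p.θ 2) * s) := by
  rw [rec_val ok h0 h1]
  unfold DN
  ring

/-- **(R)** of 882: the record count against the gauge object -/
theorem rec_R (ok : c.Ok η) (rw' : RecW c B' J ξ w lam lo) {T1 x v : ℝ}
    {ν' : (Fin 11 → ℝ) → ℝ}
    (H : DL c.p (bT T1) - lam (bT T1) + DL c.p (rz (c.p.θ 1) T1 x v) ≤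
      ν' (rz (c.p.θ 1) T1 x v)) (ε : ℝ) :
    ∀ᶠ n in (U : Filter ℕ),
      c.D.B.d n ^ (-(c.c₀ + (c.p.g * ξ n + (1 - ξ n) -
          (3 - (c.p.θ 0 + c.p.θ 1 + c.p.θ 2)) * ξ n +
            (c.p.q 0 * c.p.θ 0 + c.p.q 1 * c.p.θ 1 + c.p.q 2 * c.p.θ 2) * ξ n))) *
        B'.d n ^ (-((c.p.g - 1) * v - (3 - (c.p.θ 0 + c.p.θ 1 + c.p.θ 2)) * v +
            (c.p.q 0 * c.p.θ 0 + c.p.q 1 * c.p.θ 1 + c.p.q 2 * c.p.θ 2) * v) + ε) ≤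
      c.TB T1 B' ξ lam n * B'.d n ^ (-(ν' (rz (c.p.θ 1) T1 x v)) + ε) := by
  filter_upwards [rw'.lev_in] with n hn
  rw [← rec_val' ok hn.1.le hn.2, ← DL_rz ok T1 x v]
  unfold LCtx.TB
  rw [mul_assoc, ← Real.rpow_add (B'.pos n)]
  refine mul_le_mul_of_nonneg_left ?_ (Real.rpow_nonneg (c.D.B.pos n).le _)
  exact Real.rpow_le_rpow_of_exponent_ge (B'.pos n) (B'.lt n).le (by linarith)

/-- **(R)** from the field `ext` of `GZ` -/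
theorem rec_R_ext (ok : c.Ok η) (rw' : RecW c B' J ξ w lam lo) {T1 x R' : ℝ}
    {I0 J' : ℕ → Finset (ℕ × ℝ)} {co : ∀ n : ℕ, ℕ × ℝ → ℕ × ℝ → Fin 11 → ℝ}
    {X : ℕ → Fin 11 → ℝ} {w' Tn To : ℕ → ℝ} {kz : Fin 11} {w0 s : ℝ} {PD : Set (Fin 11 → ℝ)}
    {D : (Fin 11 → ℝ) → ℝ} {o : ℝ → Fin 11 → ℝ} {T : Fin 11 → Prop}
    {ν' own' : (Fin 11 → ℝ) → ℝ}
    (H : ExtZ c.D.B B' I0 J' co monQ 2 X w' monQ R' Tn To kz w0 s PD D (rz (c.p.θ 1) T1 x) o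
      (fun v => DL c.p (rz (c.p.θ 1) T1 x v)) T ν' own' (DL c.p (bT T1) - lam (bT T1)))
    {v : ℝ} (hv0 : 0 ≤ v) (hv1 : v ≤ 1) (ε : ℝ) :
    ∀ᶠ n in (U : Filter ℕ),
      c.D.B.d n ^ (-(c.c₀ + (c.p.g * ξ n + (1 - ξ n) -
          (3 - (c.p.θ 0 + c.p.θ 1 + c.p.θ 2)) * ξ n +
            (c.p.q 0 * c.p.θ 0 + c.p.q 1 * c.p.θ 1 + c.p.q 2 * c.p.θ 2) * ξ n))) *
        B'.d n ^ (-((c.p.g - 1) * v - (3 - (c.p.θ 0 + c.p.θ 1 + c.p.θ 2)) * v +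
            (c.p.q 0 * c.p.θ 0 + c.p.q 1 * c.p.θ 1 + c.p.q 2 * c.p.θ 2) * v) + ε) ≤
      c.TB T1 B' ξ lam n * B'.d n ^ (-(ν' (rz (c.p.θ 1) T1 x v)) + ε) :=
  rec_R ok rw' (H.record v hv0 hv1).2 ε

/-- **(R)** from `GZ` -/
theorem GZ.rec_R {T1 x R' : ℝ} {Cl E J' : ℕ → Finset (ℕ × ℝ)} {s₀ : ℕ → ℕ × ℝ}
    {h : ℕ → Fin 6 → ℝ} {ηg To : ℕ → ℝ} {ν' own' : (Fin 11 → ℝ) → ℝ}
    (g : GZ c T1 x R' B' J ξ w lam lo Cl E s₀ h ηg J' To ν' own') (ok : c.Ok η)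
    {v : ℝ} (hv0 : 0 ≤ v) (hv1 : v ≤ 1) (ε : ℝ) :
    ∀ᶠ n in (U : Filter ℕ),
      c.D.B.d n ^ (-(c.c₀ + (c.p.g * ξ n + (1 - ξ n) -
          (3 - (c.p.θ 0 + c.p.θ 1 + c.p.θ 2)) * ξ n +
            (c.p.q 0 * c.p.θ 0 + c.p.q 1 * c.p.θ 1 + c.p.q 2 * c.p.θ 2) * ξ n))) *
        B'.d n ^ (-((c.p.g - 1) * v - (3 - (c.p.θ 0 + c.p.θ 1 + c.p.θ 2)) * v +
            (c.p.q 0 * c.p.θ 0 + c.p.q 1 * c.p.θ 1 + c.p.q 2 * c.p.θ 2) * v) + ε) ≤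
      c.TB T1 B' ξ lam n * B'.d n ^ (-(ν' (rz (c.p.θ 1) T1 x v)) + ε) :=
  rec_R_ext ok g.gw.rw g.ext hv0 hv1 ε

end Crest.Agent.R136.TL196
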