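import Crest.Agent.R136.End15_882
import Crest.Agent.R136.RecR_196
import Crest.Agent.R136.Wid_638

/-!
# R136, END of the lightlike case (helper196): `fin_nat`, the record arithmetic of a window

`fin_core` : one window, real numbers; **`fin_nat`** : 882's (F).
-/

set_option autoImplicit false
set_option linter.unusedVariables false

open Finset Filter Topology

namespace Crest.Agent.R136.End882

open Crest.Agent.R138.Ex926
open Crest.Agent.R136.Net191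
open Crest.Agent.R136.NetQ186
open Crest.Agent.R136.GeoQ186
open Crest.Agent.R136.Gz779
open Crest.Agent.R136.Zpr779
open Crest.Agent.R136.Qg926
open Crest.Agent.R136.Wq638
open Crest.Agent.R136.TL196
open Crest.Agent.R136.NatT550
open Crest.Agent.R138.Mk163 (zc zl rho alive own)

theorem ratio_eq {i j : ℕ} (h : i ≤ j) : (2 : ℝ) ^ (j - i) = rho i / rho j := by
  unfold rho
  have h1 : (2 : ℝ) ^ (j - i) * 2 ^ i = 2 ^ j := by rw [← pow_add, Nat.sub_add_cancel h]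
  rw [← h1]
  field_simp

/-- ratio of two lengths is at most the power of two -/
theorem ratio_le (i j : ℕ) : rho i / rho j ≤ (2 : ℝ) ^ (j - i) := by
  rcases le_total i j with h | h
  · rw [ratio_eq h]
  · rw [Nat.sub_eq_zero_of_le h, pow_zero, div_le_one (HR829.rho_pos j)]
    unfold rho
    exact one_div_le_one_div_of_le (by positivity) (pow_le_pow_right₀ (by norm_num) h)

/-- one window, real numbers -/
theorem fin_core {θ q : Fin 3 → ℝ} {g d e A ρ0 P0 P1 P2 c₀ ξ u v δ ε1 κ₂ t T1 H Kc Tr L0 W1 W2 Th : ℝ}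
    {m1 : ℕ} (hd : 0 < d) (hd1 : d < 1) (he : 0 < e) (he1 : e < 1) (hH : 1 ≤ H) (hA : 0 < A)
    (hP0 : 0 < P0) (hP1 : 0 < P1) (hP2 : 0 < P2) (hρ0 : 0 < ρ0) (hρ1 : ρ0 ≤ 1)
    (hLL : θ 2 - θ 0 = 1) (hL2 : θ 2 = 2 * θ 1) (hg : 0 ≤ g) (hq : ∀ k, 0 ≤ q k)
    (hξ : 0 ≤ ξ) (hu : 0 < u) (huv : u < v) (hδ : 0 < δ) (hδ1 : δ < v - u)
    (eL : L0 = ρ0 * d ^ ξ) (e8 : W1 = P1 * d ^ ((1 - θ 1) * ξ) * e ^ (-T1))
    (e9 : W2 = P2 * d ^ ((1 - θ 2) * ξ) * e ^ (-2 * T1))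
    (e10 : Th = P0 * d ^ ((1 - θ 0) * ξ) * e ^ (-2 * T1)) (ht : t = T1 - θ 1 * v)
    (hm : lvl (L0 * e ^ u) ≤ m1) (hlen : ρ0 / rho m1 ≤ H / d)
    (hKc : A * capQ q ρ0 ![P0, P1, P2] * d ^ c₀ ≤ H * Kc) (hKc0 : 0 ≤ Kc)
    (hTr : d ^ (-(c₀ + (g * ξ + (1 - ξ) - (3 - (θ 0 + θ 1 + θ 2)) * ξ +
        (q 0 * θ 0 + q 1 * θ 1 + q 2 * θ 2) * ξ))) *
      e ^ (-((g - 1) * v - (3 - (θ 0 + θ 1 + θ 2)) * v +
        (q 0 * θ 0 + q 1 * θ 1 + q 2 * θ 2) * v) + ε1) ≤ Tr)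
    (hK : 4 * (2 : ℝ) ^ |3 - g| * H ^ 2 * e ^ (-((3 - g) * δ) - ε1) ≤ e ^ (-κ₂)) :
    (2 : ℝ) ^ (m1 - lvl (L0 * e ^ u)) * (A * (ρ0 / rho (lvl (L0 * e ^ u))) ^ g *
        ((Th * e ^ (2 * t + u + v)) * (W2 * e ^ (2 * t + u)) * (W1 * e ^ (t + u)) *
          Rq q (lvl (L0 * e ^ u)) (Th * e ^ (2 * t + u + v)) (W2 * e ^ (2 * t + u))
            (W1 * e ^ (t + u)))) * (2 : ℝ) ^ (-(3 - g) * (nM e (v - u - δ) : ℝ)) ≤
      e ^ (-κ₂) * (Kc * (Tr * 2 ^ (lvl (L0 * e ^ v) - lvl (L0 * e ^ u)))) := by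
  have hdp : ∀ s : ℝ, 0 < d ^ s := fun s => Real.rpow_pos_of_pos hd s
  have hep : ∀ s : ℝ, 0 < e ^ s := fun s => Real.rpow_pos_of_pos he s
  have hL0 : 0 < L0 := by rw [eL]; exact mul_pos hρ0 (hdp _)
  have hL1 : L0 ≤ 1 := by
    rw [eL]
    exact mul_le_one₀ hρ1 (hdp _).le (Real.rpow_le_one hd.le hd1.le hξ)
  have hle : ∀ s : ℝ, 0 ≤ s → L0 * e ^ s ≤ 1 := fun s hs =>
    mul_le_one₀ hL1 (hep _).le (Real.rpow_le_one he.le he1.le hs)
  obtain ⟨i1, i2⟩ := lvl_spec (y := L0 * e ^ u) (mul_pos hL0 (hep _)) (hle u hu.le)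
  obtain ⟨j1, j2⟩ := lvl_spec (y := L0 * e ^ v) (mul_pos hL0 (hep _)) (hle v (by linarith))
  obtain ⟨k1, k2⟩ := lvl_spec (y := e ^ (v - u - δ)) (hep _)
    (Real.rpow_le_one he.le he1.le (by linarith))
  change e ^ (v - u - δ) ≤ rho (nM e (v - u - δ)) at k1
  change rho (nM e (v - u - δ)) < 2 * e ^ (v - u - δ) at k2
  set i := lvl (L0 * e ^ u) with hi
  set j := lvl (L0 * e ^ v) with hj
  set M := nM e (v - u - δ) with hM
  have ri : 0 < rho i := HR829.rho_pos i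
  have rj : 0 < rho j := HR829.rho_pos j
  have rm : 0 < rho m1 := HR829.rho_pos m1
  have hθ0 : θ 0 = 2 * θ 1 - 1 := by linarith
  have hqθ := hq 0
  have hW1 : 0 < W1 := by rw [e8]; exact mul_pos (mul_pos hP1 (hdp _)) (hep _)
  have hW2 : 0 < W2 := by rw [e9]; exact mul_pos (mul_pos hP2 (hdp _)) (hep _)
  have hTh : 0 < Th := by rw [e10]; exact mul_pos (mul_pos hP0 (hdp _)) (hep _)
  have hPq : 0 < (P0 / ρ0) ^ q 0 * (P1 / ρ0) ^ q 1 * (P2 / ρ0) ^ q 2 :=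
    mul_pos (mul_pos (Real.rpow_pos_of_pos (div_pos hP0 hρ0) _)
      (Real.rpow_pos_of_pos (div_pos hP1 hρ0) _)) (Real.rpow_pos_of_pos (div_pos hP2 hρ0) _)
  have hPP : 0 < P0 * P2 * P1 := mul_pos (mul_pos hP0 hP2) hP1
  -- ratios to `rho i`
  have hinv : ρ0 / rho i ≤ d ^ (-ξ) * e ^ (-u) := by
    rw [div_le_iff₀ ri]
    calc ρ0 = d ^ (-ξ) * e ^ (-u) * (ρ0 * d ^ ξ * e ^ u) := by
          rw [Real.rpow_neg hd.le, Real.rpow_neg he.le]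
          have := (hdp ξ).ne'
          have := (hep u).ne'
          field_simp
      _ = d ^ (-ξ) * e ^ (-u) * (L0 * e ^ u) := by rw [eL]
      _ ≤ d ^ (-ξ) * e ^ (-u) * rho i :=
          mul_le_mul_of_nonneg_left i1 (mul_pos (hdp _) (hep _)).le
  have hside : ∀ P a b : ℝ, 0 < P → P * d ^ ((1 - a) * ξ) * e ^ (u + b) / rho i ≤
      P / ρ0 * (d ^ (-(a * ξ)) * e ^ b) := by
    intro P a b hP
    have h1 : P * d ^ ((1 - a) * ξ) * e ^ (u + b) / rho i =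
        P / ρ0 * (d ^ ((1 - a) * ξ) * e ^ (u + b)) * (ρ0 / rho i) := by
      field_simp
    rw [h1]
    calc P / ρ0 * (d ^ ((1 - a) * ξ) * e ^ (u + b)) * (ρ0 / rho i)
        ≤ P / ρ0 * (d ^ ((1 - a) * ξ) * e ^ (u + b)) * (d ^ (-ξ) * e ^ (-u)) :=
          mul_le_mul_of_nonneg_left hinv
            (mul_pos (div_pos hP hρ0) (mul_pos (hdp _) (hep _))).le
      _ = P / ρ0 * ((d ^ ((1 - a) * ξ) * d ^ (-ξ)) * (e ^ (u + b) * e ^ (-u))) := by ring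
      _ = _ := by
          rw [← Real.rpow_add hd, ← Real.rpow_add he]
          congr 3 <;> ring_nf
  have s10 : Th * e ^ (2 * t + u + v) / rho i ≤ P0 / ρ0 * (d ^ (-(θ 0 * ξ)) * e ^ (-(θ 0 * v))) := by
    have e1 : Th * e ^ (2 * t + u + v) = P0 * d ^ ((1 - θ 0) * ξ) * e ^ (u + -(θ 0 * v)) := by
      rw [e10, mul_assoc, ← Real.rpow_add he]
      congr 2
      rw [ht, hθ0]; ring
    rw [e1]; exact hside _ _ _ hP0
  have s9 : W2 * e ^ (2 * t + u) / rho i ≤ P2 / ρ0 * (d ^ (-(θ 2 * ξ)) * e ^ (-(θ 2 * v))) := by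
    have e1 : W2 * e ^ (2 * t + u) = P2 * d ^ ((1 - θ 2) * ξ) * e ^ (u + -(θ 2 * v)) := by
      rw [e9, mul_assoc, ← Real.rpow_add he]
      congr 2
      rw [ht, hL2]; ring
    rw [e1]; exact hside _ _ _ hP2
  have s8 : W1 * e ^ (t + u) / rho i ≤ P1 / ρ0 * (d ^ (-(θ 1 * ξ)) * e ^ (-(θ 1 * v))) := by
    have e1 : W1 * e ^ (t + u) = P1 * d ^ ((1 - θ 1) * ξ) * e ^ (u + -(θ 1 * v)) := by
      rw [e8, mul_assoc, ← Real.rpow_add he]
      congr 2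
      rw [ht]; ring
    rw [e1]; exact hside _ _ _ hP1
  have hpw : ∀ X P a k : ℝ, 0 ≤ k → 0 ≤ X → 0 < P → X ≤ P * (d ^ (-(a * ξ)) * e ^ (-(a * v))) →
      X ^ k ≤ P ^ k * (d ^ (-(k * a * ξ)) * e ^ (-(k * a * v))) := by
    intro X P a k hk hX hP h
    calc X ^ k ≤ (P * (d ^ (-(a * ξ)) * e ^ (-(a * v)))) ^ k := Real.rpow_le_rpow hX h hk
      _ = _ := by
        rw [Real.mul_rpow hP.le (mul_pos (hdp _) (hep _)).le, Real.mul_rpow (hdp _).le (hep _).le,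
          ← Real.rpow_mul hd.le, ← Real.rpow_mul he.le]
        congr 3 <;> ring
  have hR : Rq q i (Th * e ^ (2 * t + u + v)) (W2 * e ^ (2 * t + u)) (W1 * e ^ (t + u)) ≤
      (P0 / ρ0) ^ q 0 * (P1 / ρ0) ^ q 1 * (P2 / ρ0) ^ q 2 *
        (d ^ (-((q 0 * θ 0 + q 1 * θ 1 + q 2 * θ 2) * ξ)) *
          e ^ (-((q 0 * θ 0 + q 1 * θ 1 + q 2 * θ 2) * v))) := by
    unfold Rq
    have x0 : 0 ≤ Th * e ^ (2 * t + u + v) / rho i := (div_pos (mul_pos hTh (hep _)) ri).le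
    have x1 : 0 ≤ W1 * e ^ (t + u) / rho i := (div_pos (mul_pos hW1 (hep _)) ri).le
    have x2 : 0 ≤ W2 * e ^ (2 * t + u) / rho i := (div_pos (mul_pos hW2 (hep _)) ri).le
    have y0 := hpw _ _ _ _ (hq 0) x0 (div_pos hP0 hρ0) s10
    have y1 := hpw _ _ _ _ (hq 1) x1 (div_pos hP1 hρ0) s8
    have y2 := hpw _ _ _ _ (hq 2) x2 (div_pos hP2 hρ0) s9
    have z0 := Real.rpow_nonneg x0 (q 0)
    have z1 := Real.rpow_nonneg x1 (q 1)
    have z2 := Real.rpow_nonneg x2 (q 2)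
    refine (mul_le_mul (mul_le_mul y0 y1 z1 (z0.trans y0)) y2 z2
      (mul_nonneg (z0.trans y0) (z1.trans y1))).trans (le_of_eq ?_)
    have a1 : d ^ (-((q 0 * θ 0 + q 1 * θ 1 + q 2 * θ 2) * ξ)) =
        d ^ (-(q 0 * θ 0 * ξ)) * d ^ (-(q 1 * θ 1 * ξ)) * d ^ (-(q 2 * θ 2 * ξ)) := by
      rw [← Real.rpow_add hd, ← Real.rpow_add hd]; congr 1; ring
    have a2 : e ^ (-((q 0 * θ 0 + q 1 * θ 1 + q 2 * θ 2) * v)) =
        e ^ (-(q 0 * θ 0 * v)) * e ^ (-(q 1 * θ 1 * v)) * e ^ (-(q 2 * θ 2 * v)) := by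
      rw [← Real.rpow_add he, ← Real.rpow_add he]; congr 1; ring
    rw [a1, a2]; ring
  have hKc' : A * ((P0 * P2 * P1) * ((P0 / ρ0) ^ q 0 * (P1 / ρ0) ^ q 1 * (P2 / ρ0) ^ q 2)) *
      d ^ c₀ ≤ H * Kc := by
    refine le_trans (le_of_eq ?_) hKc
    simp only [capQ, Matrix.cons_val]
  refine rec_arith (d := d) (e := e) (H := H) (C := 2 ^ |3 - g|) (A := A)
    (P := P0 * P2 * P1) (Pq := (P0 / ρ0) ^ q 0 * (P1 / ρ0) ^ q 1 * (P2 / ρ0) ^ q 2)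
    (c₀ := c₀) (ξ := ξ) (u := u) (v := v) (g := g) (S1 := θ 0 + θ 1 + θ 2)
    (S2 := q 0 * θ 0 + q 1 * θ 1 + q 2 * θ 2) (δ := δ) (ε := ε1) hd he (by linarith) hA hPP hPq
    (by positivity) (hep _).le (by positivity) ?_ ?_ ?_ hKc0
    ((mul_pos (hdp _) (hep _)).le.trans hTr) ?_ ?_ ?_ hR ?_ hKc' hTr ?_ hK
  · exact mul_nonneg hA.le (Real.rpow_nonneg (div_pos hρ0 ri).le _)
  · exact Rq_nonneg (mul_pos hTh (hep _)).le (mul_pos hW2 (hep _)).le (mul_pos hW1 (hep _)).le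
  · positivity
  · -- `2^(m1 - i)`
    rw [ratio_eq hm]
    calc rho i / rho m1 ≤ 2 * (L0 * e ^ u) / rho m1 := by gcongr
      _ = 2 * (d ^ ξ * e ^ u) * (ρ0 / rho m1) := by rw [eL]; field_simp
      _ ≤ 2 * (d ^ ξ * e ^ u) * (H / d) :=
          mul_le_mul_of_nonneg_left hlen (mul_pos two_pos (mul_pos (hdp _) (hep _))).le
      _ = 2 * H * (d ^ (ξ - 1) * e ^ u) := by
          rw [Real.rpow_sub hd, Real.rpow_one]; field_simp
  · -- growth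
    refine mul_le_mul_of_nonneg_left ?_ hA.le
    calc (ρ0 / rho i) ^ g ≤ (d ^ (-ξ) * e ^ (-u)) ^ g :=
          Real.rpow_le_rpow (div_pos hρ0 ri).le hinv hg
      _ = _ := by
          rw [Real.mul_rpow (hdp _).le (hep _).le, ← Real.rpow_mul hd.le, ← Real.rpow_mul he.le]
          congr 2 <;> ring
  · -- cost
    rw [e8, e9, e10]
    have a1 : d ^ ((3 - (θ 0 + θ 1 + θ 2)) * ξ) =
        d ^ ((1 - θ 0) * ξ) * d ^ ((1 - θ 2) * ξ) * d ^ ((1 - θ 1) * ξ) := by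
      rw [← Real.rpow_add hd, ← Real.rpow_add hd]; congr 1; ring
    have a2 : e ^ (3 * u - (θ 0 + θ 1 + θ 2) * v) =
        (e ^ (-2 * T1) * e ^ (2 * t + u + v)) * (e ^ (-2 * T1) * e ^ (2 * t + u)) *
          (e ^ (-T1) * e ^ (t + u)) := by
      rw [← Real.rpow_add he, ← Real.rpow_add he, ← Real.rpow_add he, ← Real.rpow_add he,
        ← Real.rpow_add he]
      congr 1
      rw [ht, hL2, hθ0]; ring
    rw [a1, a2]; ring
  · -- scales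
    have h1 : (2 : ℝ) ^ (-(3 - g) * (M : ℝ)) = rho M ^ (3 - g) := by
      unfold rho
      rw [one_div, Real.inv_rpow (by positivity), ← Real.rpow_natCast, ← Real.rpow_mul (by norm_num),
        ← Real.rpow_neg (by norm_num)]
      congr 1; ring
    have h2c : (1 : ℝ) ≤ 2 ^ |3 - g| := Real.one_le_rpow (by norm_num) (abs_nonneg _)
    have hs : e ^ ((3 - g) * (v - u - δ)) = (e ^ (v - u - δ)) ^ (3 - g) := by
      rw [← Real.rpow_mul he.le]; congr 1; ring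
    rw [h1, hs]
    have hrM := HR829.rho_pos M
    have hE := hep (v - u - δ)
    rcases le_total 0 (3 - g) with hc | hc
    · calc rho M ^ (3 - g) ≤ (2 * e ^ (v - u - δ)) ^ (3 - g) :=
            Real.rpow_le_rpow hrM.le k2.le hc
        _ = 2 ^ |3 - g| * (e ^ (v - u - δ)) ^ (3 - g) := by
            rw [Real.mul_rpow (by norm_num) hE.le, abs_of_nonneg hc]
    · calc rho M ^ (3 - g) ≤ (e ^ (v - u - δ)) ^ (3 - g) :=
            Real.rpow_le_rpow_of_nonpos hE k1 hc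
        _ ≤ 2 ^ |3 - g| * (e ^ (v - u - δ)) ^ (3 - g) :=
            le_mul_of_one_le_left (Real.rpow_nonneg hE.le _) h2c
  · -- `2^(j - i)`
    refine le_trans ?_ (mul_le_mul_of_nonneg_left (ratio_le i j) two_pos.le)
    rw [← mul_div_assoc, le_div_iff₀ rj]
    calc e ^ (u - v) * rho j ≤ e ^ (u - v) * (2 * (L0 * e ^ v)) :=
          mul_le_mul_of_nonneg_left j2.le (hep _).le
      _ = 2 * (L0 * (e ^ (u - v) * e ^ v)) := by ring
      _ = 2 * (L0 * e ^ u) := by rw [← Real.rpow_add he]; congr 3; ring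
      _ ≤ 2 * rho i := by linarith

/-- sub-polynomial numbers against a power -/
theorem sub_rpow {B : Base} {S : ℕ → ℝ} (h : B.Sub S) {ε : ℝ} (hε : 0 < ε) :
    ∀ᶠ n in (U : Filter ℕ), 0 < S n ∧ S n ≤ B.d n ^ (-ε) := by
  filter_upwards [h.ev_le hε] with n hn
  refine ⟨hn.1, ?_⟩
  rw [← B.exp_eq, ← Real.log_le_iff_le_exp hn.1]
  exact hn.2

/-- **(F)** of 882: D-max number of the container against the record class -/
theorem fin_nat {η₀ : ℝ} {c : LCtx} (ok : c.Ok η₀) {Kc : ℕ → ℕ}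
    (hK : ∀ ε : ℝ, 0 < ε → ∀ᶠ n in (U : Filter ℕ), 0 < Kc n ∧
      N0Q c.D.A c.D.vm n ≤ Kc n * c.D.B.d n ^ (-(c.c₀ + ε)) ∧
      Kc n * c.D.B.d n ^ (-(c.c₀ - ε)) ≤ N0Q c.D.A c.D.vm n) : ∃ Hf : ℕ → ℝ, c.D.B.Sub Hf ∧
    ∀ (B' : Base) (J : ℕ → Finset (ℕ × ℝ)) (ξ w : ℕ → ℝ) (lam lo : (Fin 11 → ℝ) → ℝ)
      (Cl E : ℕ → Finset (ℕ × ℝ)) (s₀ : ℕ → ℕ × ℝ) (h : ℕ → Fin 6 → ℝ) (ηg : ℕ → ℝ)
      (J' : ℕ → Finset (ℕ × ℝ)) (To : ℕ → ℝ) (ν' own' : (Fin 11 → ℝ) → ℝ),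
    GZ c (T1z (c.p.θ 1)) (xz (c.p.θ 1)) (Rz (c.p.θ 1)) B' J ξ w lam lo Cl E s₀ h ηg J' To ν'
      own' → B'.Sub Hf → ∀ u v δ κ₂ ε1 t : ℝ, 0 < u → u < v → v < 1 → 0 < δ → δ < v - u → 0 < ε1 →
      |3 - c.p.g| * δ + ε1 < κ₂ → t = T1z (c.p.θ 1) - c.p.θ 1 * v →
      ∀ᶠ n in (U : Filter ℕ), ∀ i j M m0 m1 : ℕ, ∀ L0 W1 W2 Th e : ℝ, e = B'.d n →
        L0 = Wid638.sdn c (T1z (c.p.θ 1)) ξ w n 0 → W1 = Wid638.sdn c (T1z (c.p.θ 1)) ξ w n 8 →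
        W2 = Wid638.sdn c (T1z (c.p.θ 1)) ξ w n 9 → Th = Wid638.sdn c (T1z (c.p.θ 1)) ξ w n 10 →
        i = lvl (L0 * e ^ u) → j = lvl (L0 * e ^ v) →
        M = nM e (v - u - δ) → m0 = c.D.lev n 0 → m1 = c.D.lev n 1 →
        (2 : ℝ) ^ (m1 - i) * (c.D.A n * (rho m0 / rho i) ^ c.p.g * ((Th * e ^ (2 * t + u + v)) *
          (W2 * e ^ (2 * t + u)) * (W1 * e ^ (t + u)) * Rq c.p.q i (Th * e ^ (2 * t + u + v))
          (W2 * e ^ (2 * t + u)) (W1 * e ^ (t + u)))) * (2 : ℝ) ^ (-(3 - c.p.g) * M) ≤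
          e ^ (-κ₂) * ((Kc n : ℝ) * ((c.TB (T1z (c.p.θ 1)) B' ξ lam n *
            e ^ (-(ν' (rz (c.p.θ 1) (T1z (c.p.θ 1)) (xz (c.p.θ 1)) v)) + ε1)) * 2 ^ (j - i))) := by
  have mka := ok.th.tp.pre.mka
  have hq0 := ok.th.tp.ok.q0
  have hq2 := ok.th.tp.ok.q2
  have hg0 := ok.th.tp.ok.g0
  have hLL : c.p.θ 2 - c.p.θ 0 = 1 := ok.pat.2.2.1
  have hL2 : c.p.θ 2 = 2 * c.p.θ 1 := ok.pat.2.2.2
  set Hf : ℕ → ℝ := fun n => max (max 1 (c.D.B.d n * (rho (c.D.lev n 0) / rho (c.D.lev n 1))))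
    (N0Q c.D.A c.D.vm n * c.D.B.d n ^ c.c₀ / Kc n) with hHf
  have hHf1 : ∀ n, 1 ≤ Hf n := fun n => (le_max_left _ _).trans (le_max_left _ _)
  refine ⟨Hf, Wid638.sub_of_bd' (fun ε hε => Eventually.of_forall fun n =>
    (Real.rpow_le_one (c.D.B.pos n).le (c.D.B.lt n).le hε.le).trans (hHf1 n)) (fun ε hε => ?_), ?_⟩
  · filter_upwards [PqG464.pow_lev mka 1 zero_le_one le_rfl hε, hK ε hε] with n h1 h2
    have hd := c.D.B.pos n
    have hdp : ∀ s : ℝ, 0 < c.D.B.d n ^ s := fun s => Real.rpow_pos_of_pos hd s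
    refine max_le (max_le ?_ ?_) ?_
    · rw [Real.rpow_neg hd.le]
      exact (one_le_inv₀ (hdp ε)).2 (Real.rpow_le_one hd.le (c.D.B.lt n).le hε.le)
    · have e1 : rho (c.D.lev n 0) / rho (c.D.lev n 1) =
          (2 : ℝ) ^ c.D.lev n 1 / 2 ^ c.D.lev n 0 := by
        unfold rho; field_simp
      rw [e1]
      have h3 : (2 : ℝ) ^ c.D.lev n 1 / 2 ^ c.D.lev n 0 ≤ c.D.B.d n ^ (-(1 + ε)) := by
        rw [div_le_iff₀ (by positivity), mul_comm]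
        have := h1.1
        simpa using this
      calc c.D.B.d n * ((2 : ℝ) ^ c.D.lev n 1 / 2 ^ c.D.lev n 0) ≤
          c.D.B.d n * c.D.B.d n ^ (-(1 + ε)) := mul_le_mul_of_nonneg_left h3 hd.le
        _ = c.D.B.d n ^ (-ε) := by
            nth_rewrite 1 [← Real.rpow_one (c.D.B.d n)]
            rw [← Real.rpow_add hd]; congr 1; ring
    · have hKn : (0 : ℝ) < Kc n := by exact_mod_cast h2.1
      rw [div_le_iff₀ hKn]
      calc N0Q c.D.A c.D.vm n * c.D.B.d n ^ c.c₀ ≤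
          Kc n * c.D.B.d n ^ (-(c.c₀ + ε)) * c.D.B.d n ^ c.c₀ :=
            mul_le_mul_of_nonneg_right h2.2.1 (hdp _).le
        _ = c.D.B.d n ^ (-ε) * Kc n := by
            rw [mul_assoc, ← Real.rpow_add hd, mul_comm]; congr 2; ring
  · intro B' J ξ w lam lo Cl E s₀ h ηg J' To ν' own' G hsub u v δ κ₂ ε1 t hu huv hv1 hδ hδ1 hε1
      hgap ht
    have rw' := G.gw.rw
    set γ : ℝ := κ₂ - (|3 - c.p.g| * δ + ε1) with hγ
    have hγ0 : 0 < γ := by rw [hγ]; linarith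
    filter_upwards [Wid638.sides ok rw' (T1z (c.p.θ 1)), Wid638.ord0 ok,
      Wid638.lev_mem ok rw' (T1z (c.p.θ 1)), rw'.lev_in,
      G.rec_R ok (v := v) (by linarith) hv1.le ε1,
      GeoQ186.vm_eq mka le_rfl zero_le_one, hK 1 one_pos,
      sub_rpow hsub (ε := γ / 8) (by positivity),
      Qg926.ev_const_le B' (c := 4 * (2 : ℝ) ^ |3 - c.p.g|) (by positivity) (ε := γ / 4)
        (by positivity)] with n ⟨s0, s8, s9, s10⟩ ⟨P0, P1, P2, _, _, _, _⟩ hlm hξ hR hvm hKn hH hC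
      i j M m0 m1 L0 W1 W2 Th e he hL0 hW1 hW2 hTh hi hj hM hm0 hm1
    subst he
    rw [s0] at hL0
    rw [s8] at hW1
    rw [s9] at hW2
    rw [s10] at hTh
    rw [s0] at hlm
    subst hi hj hM hm0 hm1
    have hd := c.D.B.pos n
    have hd1 := c.D.B.lt n
    have he := B'.pos n
    have he1 := B'.lt n
    have hdp : ∀ s : ℝ, 0 < c.D.B.d n ^ s := fun s => Real.rpow_pos_of_pos hd s
    have hep : ∀ s : ℝ, 0 < B'.d n ^ s := fun s => Real.rpow_pos_of_pos he s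
    have hρ0 := HR829.rho_pos (c.D.lev n 0)
    have hρ1 : rho (c.D.lev n 0) ≤ 1 := by
      unfold rho
      rw [div_le_one (by positivity)]
      exact one_le_pow₀ (by norm_num)
    have hKp : (0 : ℝ) < Kc n := by exact_mod_cast hKn.1
    have hLe : L0 * B'.d n ^ u ≤ 1 := by
      rw [hL0]
      exact mul_le_one₀ (mul_le_one₀ hρ1 (hdp _).le (Real.rpow_le_one hd.le hd1.le hξ.1.le))
        (hep _).le (Real.rpow_le_one he.le he1.le hu.le)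
    have hLp : 0 < L0 * B'.d n ^ u := by
      rw [hL0]; exact mul_pos (mul_pos hρ0 (hdp _)) (hep _)
    obtain ⟨l1, l2⟩ := lvl_spec hLp hLe
    have hm : lvl (L0 * B'.d n ^ u) ≤ c.D.lev n 1 := by
      refine (hlm u hu.le (by linarith) _ ?_ ?_).2
      · rw [← hL0]; exact l1
      · rw [← hL0]; exact l2.le
    refine fin_core (θ := c.p.θ) (q := c.p.q) (g := c.p.g) (c₀ := c.c₀) (ξ := ξ n) (H := Hf n)
      (P0 := c.D.w 0 n 0) (P1 := c.D.w 1 n 0) (P2 := c.D.w 2 n 0) hd hd1 he he1 (hHf1 n)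
      (mka.Apos n) P0 P1 P2 hρ0 hρ1 hLL hL2 hg0.1.le (fun k => ?_) hξ.1.le hu huv hδ hδ1 hL0 hW1
      hW2 hTh ht hm ?_ ?_ hKp.le hR ?_
    · fin_cases k
      · exact hq0.1
      · exact hg0.2.le
      · exact hq2.1.le
    · rw [le_div_iff₀ hd, mul_comm]
      exact (le_max_right _ _).trans (le_max_left _ _)
    · have h1 : N0Q c.D.A c.D.vm n * c.D.B.d n ^ c.c₀ / Kc n ≤ Hf n := le_max_right _ _
      rw [div_le_iff₀ hKp] at h1
      refine le_trans (le_of_eq ?_) h1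
      rw [N0Q, hvm]
      simp only [capQ, Matrix.cons_val]
    · have hH2 : Hf n ^ 2 ≤ B'.d n ^ (-(γ / 4)) := by
        calc Hf n ^ 2 ≤ (B'.d n ^ (-(γ / 8))) ^ 2 :=
              pow_le_pow_left₀ hH.1.le hH.2 2
          _ = B'.d n ^ (-(γ / 4)) := by
              rw [← Real.rpow_natCast, ← Real.rpow_mul he.le]; congr 1; push_cast; ring
      have hab : (3 - c.p.g) * δ ≤ |3 - c.p.g| * δ :=
        mul_le_mul_of_nonneg_right (le_abs_self _) hδ.le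
      have hE : B'.d n ^ (-((3 - c.p.g) * δ) - ε1) ≤ B'.d n ^ (-κ₂ + γ) :=
        Real.rpow_le_rpow_of_exponent_ge he he1.le (by rw [hγ]; linarith)
      calc 4 * (2 : ℝ) ^ |3 - c.p.g| * Hf n ^ 2 * B'.d n ^ (-((3 - c.p.g) * δ) - ε1) ≤
          B'.d n ^ (-(γ / 4)) * B'.d n ^ (-(γ / 4)) * B'.d n ^ (-κ₂ + γ) := by
            refine mul_le_mul (mul_le_mul hC hH2 (by positivity) (hep _).le) hE (hep _).le
              (mul_pos (hep _) (hep _)).le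
        _ = B'.d n ^ (-κ₂ + γ / 2) := by
            rw [← Real.rpow_add he, ← Real.rpow_add he]; congr 1; ring
        _ ≤ B'.d n ^ (-κ₂) :=
            Real.rpow_le_rpow_of_exponent_ge he he1.le (by linarith)

end Crest.Agent.R136.End882
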