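import Crest.Agent.R136.End16_882
import Crest.Agent.R136.FinN_196
import Crest.Agent.R136.NbC_196
import Crest.Agent.R136.EndS_638

/-!
# R136 (S0187): END, part 17 (helper882): real gauge, numbers, range of the widths
-/

set_option autoImplicit false
set_option linter.unusedVariables false

open Finset Filter Topology

namespace Crest.Agent.R136.End882

open Crest.Agent.R138.Ex926
open Crest.Agent.R136.Net191
open Crest.Agent.R136.NetQ186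
open Crest.Agent.R136.GeoQ186
open Crest.Agent.R136.Gz779
open Crest.Agent.R136.Qg926
open Crest.Agent.R136.Wq638
open Crest.Agent.R136.TL196
open Crest.Agent.R138.Mk163 (zc zl rho alive own)

/-- gauge coefficients in real units -/
theorem gau_real {d : ℝ} (hd : 0 < d) {X : Fin 11 → ℝ} (hX : TightQ X) {H Wa Wb Wy : ℝ}
    (hH : 0 < H) (ha : 0 < Wa) (hb : 0 < Wb) (hy : 0 < Wy) (h : Fin 6 → ℝ) (i : Fq4) (c : ℝ) :
    (|tau h (scl H Wa Wb Wy i)| * d ^ X 0 ≤ c * d ^ X 4 →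
      |tau (gR H Wa Wb Wy h) i| * sd d X H Wa Wb Wy 0 ≤
        c * (sd d X H Wa Wb Wy 10 / sd d X H Wa Wb Wy 8)) ∧
    (|h 2| * d ^ X 0 ≤ c * d ^ X 3 → |gR H Wa Wb Wy h 2| * sd d X H Wa Wb Wy 0 ≤
        c * (sd d X H Wa Wb Wy 10 / sd d X H Wa Wb Wy 9)) ∧
    (|h 3| * d ^ X 8 ≤ c * d ^ X 4 → |gR H Wa Wb Wy h 3| * sd d X H Wa Wb Wy 8 ≤
        c * (sd d X H Wa Wb Wy 10 / sd d X H Wa Wb Wy 8)) := by
  have hdp : ∀ s : ℝ, 0 < d ^ s := fun s => Real.rpow_pos_of_pos hd s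
  have e0 : sd d X H Wa Wb Wy 0 = d ^ X 0 / H := rfl
  have e8 : sd d X H Wa Wb Wy 8 = d ^ X 8 / (H / Wa) := rfl
  have e9 : sd d X H Wa Wb Wy 9 = d ^ X 9 / (H / Wb) := rfl
  have e10 : sd d X H Wa Wb Wy 10 = d ^ X 10 / (H / Wy) := rfl
  have x8 : d ^ X 10 = d ^ X 4 * d ^ X 8 := by rw [← Real.rpow_add hd, hX.w10]
  have x9 : d ^ X 10 = d ^ X 3 * d ^ X 9 := by
    rw [← Real.rpow_add hd, hX.w10, hX.w9, hX.w8, hX.w4, hX.w6]; congr 1; ring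
  have r8 : sd d X H Wa Wb Wy 10 / sd d X H Wa Wb Wy 8 = d ^ X 4 * (Wy / Wa) := by
    rw [e8, e10, x8]
    have := hdp (X 8)
    field_simp
  have r9 : sd d X H Wa Wb Wy 10 / sd d X H Wa Wb Wy 9 = d ^ X 3 * (Wy / Wb) := by
    rw [e9, e10, x9]
    have := hdp (X 9)
    field_simp
  rw [r8, r9, e0, e8]
  have q1 : 0 < Wy / Wa := by positivity
  have q2 : 0 < Wy / Wb := by positivity
  refine ⟨fun k => ?_, fun k => ?_, fun k => ?_⟩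
  · rw [← tau_scl hH.ne' ha.ne' hb.ne' hy.ne', abs_mul, abs_of_pos (by positivity : 0 < H * Wy / Wa)]
    calc |tau h (scl H Wa Wb Wy i)| * (H * Wy / Wa) * (d ^ X 0 / H) =
        (|tau h (scl H Wa Wb Wy i)| * d ^ X 0) * (Wy / Wa) := by field_simp
      _ ≤ (c * d ^ X 4) * (Wy / Wa) := mul_le_mul_of_nonneg_right k q1.le
      _ = _ := by ring
  · have e2 : gR H Wa Wb Wy h 2 = h 2 * (H * Wy / Wb) := rfl
    rw [e2, abs_mul, abs_of_pos (by positivity : 0 < H * Wy / Wb)]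
    calc |h 2| * (H * Wy / Wb) * (d ^ X 0 / H) = (|h 2| * d ^ X 0) * (Wy / Wb) := by field_simp
      _ ≤ (c * d ^ X 3) * (Wy / Wb) := mul_le_mul_of_nonneg_right k q2.le
      _ = _ := by ring
  · have e3 : gR H Wa Wb Wy h 3 = h 3 * (H * Wy / Wa ^ 2) := rfl
    rw [e3, abs_mul, abs_of_pos (by positivity : 0 < H * Wy / Wa ^ 2)]
    calc |h 3| * (H * Wy / Wa ^ 2) * (d ^ X 8 / (H / Wa)) = (|h 3| * d ^ X 8) * (Wy / Wa) := by
          field_simp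
      _ ≤ (c * d ^ X 4) * (Wy / Wa) := mul_le_mul_of_nonneg_right k q1.le
      _ = _ := by ring

/-- the conditions on the scale -/
theorem e_conds (B : Base) {M₁ : ℕ} {u v δ κ κ₂ εp εc : ℝ} (hκ2 : 0 < κ₂) (hδ : 0 < δ)
    (hδ1 : δ < v - u) (hεc : εc < εp) (hεp : 2 * εp < δ) (hκ : κ₂ < κ * (v - u - δ)) :
    ∀ᶠ n in (U : Filter ℕ), 1000000 * B.d n ≤ 1 ∧ 4 * B.d n ^ (-εc) ≤ B.d n ^ (-εp) ∧
      (2 : ℝ) ^ (M₁ + 1) ≤ B.d n ^ (-(v - u - δ)) ∧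
      B.d n ^ (-κ₂) ≤ (B.d n ^ (-(v - u - δ)) / 2) ^ κ ∧
      6 * (B.d n ^ (-εp)) ^ 2 * B.d n ^ (v - u) * B.d n ^ (-(v - u - δ)) ≤ 1 ∧
      4 * B.d n ^ δ < 1 ∧ 2 * B.d n ^ (κ₂ / 2) ≤ 1 ∧ 16 ≤ B.d n ^ (-κ₂) := by
  have ev : ∀ {s : ℝ}, 0 < s → ∀ {C : ℝ}, 0 < C → ∀ᶠ n in (U : Filter ℕ), C * B.d n ^ s ≤ 1 := by
    intro s hs C hC
    filter_upwards [Crest.Agent.R136.Qg926.ev_const_le B hC hs] with n hn
    have hp := Real.rpow_pos_of_pos (B.pos n) s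
    calc C * B.d n ^ s ≤ B.d n ^ (-s) * B.d n ^ s := mul_le_mul_of_nonneg_right hn hp.le
      _ = 1 := by rw [← Real.rpow_add (B.pos n)]; simp
  have h2κ : (0 : ℝ) < 2 ^ κ := Real.rpow_pos_of_pos two_pos κ
  filter_upwards [ev (s := 1) one_pos (C := 1000000) (by norm_num),
    ev (s := εp - εc) (by linarith) (C := 4) (by norm_num),
    Crest.Agent.R136.Qg926.ev_const_le B (c := (2 : ℝ) ^ (M₁ + 1)) (by positivity)
      (ε := v - u - δ) (by linarith),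
    ev (s := κ * (v - u - δ) - κ₂) (by linarith) (C := 2 ^ κ) h2κ,
    ev (s := δ - 2 * εp) (by linarith) (C := 6) (by norm_num),
    ev (s := δ) hδ (C := 5) (by norm_num),
    ev (s := κ₂ / 2) (by linarith) (C := 2) (by norm_num),
    Crest.Agent.R136.Qg926.ev_const_le B (c := 16) (by norm_num) (ε := κ₂) hκ2] with
    n a0 a2 a3 a4 a5 a8 a9 a16
  have he := B.pos n
  have hep : ∀ s : ℝ, 0 < B.d n ^ s := fun s => Real.rpow_pos_of_pos he s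
  rw [Real.rpow_one] at a0
  refine ⟨a0, ?_, a3, ?_, ?_, ?_, a9, a16⟩
  · have e1 : B.d n ^ (-εc) = B.d n ^ (εp - εc) * B.d n ^ (-εp) := by
      rw [← Real.rpow_add he]; congr 1; ring
    rw [e1, ← mul_assoc]
    exact mul_le_of_le_one_left (hep _).le a2
  · rw [Real.div_rpow (hep _).le two_pos.le, le_div_iff₀ h2κ, ← Real.rpow_mul he.le]
    have e1 : B.d n ^ (-κ₂) = B.d n ^ (-(v - u - δ) * κ) * B.d n ^ (κ * (v - u - δ) - κ₂) := by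
      rw [← Real.rpow_add he]; congr 1; ring
    rw [e1]
    have h9 := hep (-(v - u - δ) * κ)
    calc B.d n ^ (-(v - u - δ) * κ) * B.d n ^ (κ * (v - u - δ) - κ₂) * 2 ^ κ =
        B.d n ^ (-(v - u - δ) * κ) * (2 ^ κ * B.d n ^ (κ * (v - u - δ) - κ₂)) := by ring
      _ ≤ B.d n ^ (-(v - u - δ) * κ) * 1 := mul_le_mul_of_nonneg_left a4 h9.le
      _ = _ := mul_one _
  · have e1 : 6 * (B.d n ^ (-εp)) ^ 2 * B.d n ^ (v - u) * B.d n ^ (-(v - u - δ)) =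
        6 * B.d n ^ (δ - 2 * εp) := by
      rw [sq, mul_assoc, mul_assoc, ← Real.rpow_add he, ← Real.rpow_add he, ← Real.rpow_add he]
      congr 2; ring
    rw [e1]
    exact a5
  · have := hep δ
    linarith

theorem rng_aux {d P l h C a ws wb : ℝ} (hd : 0 < d) (hd1 : d ≤ 1) (hP : 0 < P)
    (h1 : l ≤ d ^ C * P) (h2 : P ≤ d ^ C * h) (hC1 : ws + a + wb ≤ C) (hC2 : ws ≤ C + a + wb) :
    l ≤ d ^ ws * (P * d ^ a * d ^ wb) ∧ P * d ^ a * d ^ wb ≤ d ^ ws * h := by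
  have hdp : ∀ s : ℝ, 0 < d ^ s := fun s => Real.rpow_pos_of_pos hd s
  have hmon : ∀ {s s' : ℝ}, s' ≤ s → d ^ s ≤ d ^ s' := fun hs =>
    Real.rpow_le_rpow_of_exponent_ge hd hd1 hs
  have hh : 0 < h := by
    by_contra hc
    push Not at hc
    have := mul_nonpos_of_nonneg_of_nonpos (hdp C).le hc
    linarith
  constructor
  · calc l ≤ d ^ C * P := h1
      _ ≤ d ^ (ws + a + wb) * P := mul_le_mul_of_nonneg_right (hmon hC1) hP.le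
      _ = d ^ ws * (P * d ^ a * d ^ wb) := by rw [Real.rpow_add hd, Real.rpow_add hd]; ring
  · have p1 := hdp a
    have p2 := hdp wb
    calc P * d ^ a * d ^ wb ≤ (d ^ C * h) * d ^ a * d ^ wb := by gcongr
      _ = d ^ (C + a + wb) * h := by rw [Real.rpow_add hd, Real.rpow_add hd]; ring
      _ ≤ d ^ ws * h := mul_le_mul_of_nonneg_right (hmon hC2) hh.le

/-- **range of the widths of the window** -/
theorem rng_win {η₀ : ℝ} {c : LCtx} (ok : c.Ok η₀) {B' : Base} {J : ℕ → Finset (ℕ × ℝ)}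
    {ξ w : ℕ → ℝ} {lam lo : (Fin 11 → ℝ) → ℝ} (rw' : RecW c B' J ξ w lam lo) (T1 s : ℝ)
    {wl wh : ℕ → Fin 3 → ℝ}
    (hR : ∀ C : ℝ, ∀ᶠ n in (U : Filter ℕ), ∀ k : Fin 3, wl n k ≤ c.D.B.d n ^ C * c.D.w k n 0 ∧
      c.D.w k n 0 ≤ c.D.B.d n ^ C * wh n k) :
    ∀ᶠ n in (U : Filter ℕ), ∀ k : Fin 3,
      wl n k ≤ B'.d n ^ s * ![sdn' c T1 ξ w n 10, sdn' c T1 ξ w n 8, sdn' c T1 ξ w n 9] k ∧
      ![sdn' c T1 ξ w n 10, sdn' c T1 ξ w n 8, sdn' c T1 ξ w n 9] k ≤ B'.d n ^ s * wh n k := by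
  filter_upwards [hR (2 + |1 - c.p.θ 0| + |1 - c.p.θ 1| + |1 - c.p.θ 2|),
    Wid638.sides ok rw' T1, rw'.lev_in, Wid638.w_small rw' s (δ := 1 / 2) (by norm_num),
    Wid638.w_small rw' (-T1) (δ := 1 / 2) (by norm_num),
    Wid638.w_small rw' (-2 * T1) (δ := 1 / 2) (by norm_num), Wid638.ord0 ok] with
    n hR ⟨_, s8, s9, s10⟩ ⟨x0, x1⟩ b1 b2 b3 ⟨P0, P1, P2, _⟩
  have hd := c.D.B.pos n
  have hd1 := (c.D.B.lt n).le
  have ax : ∀ j : Fin 3, |(1 - c.p.θ j) * ξ n| ≤ |1 - c.p.θ j| := fun j => by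
    rw [abs_mul, abs_of_pos x0]
    exact mul_le_of_le_one_right (abs_nonneg _) x1.le
  have a0 := abs_le.1 (ax 0)
  have a1 := abs_le.1 (ax 1)
  have a2 := abs_le.1 (ax 2)
  have n0 := abs_nonneg (1 - c.p.θ 0)
  have n1 := abs_nonneg (1 - c.p.θ 1)
  have n2 := abs_nonneg (1 - c.p.θ 2)
  rw [abs_le] at b1 b2 b3
  have t8 : sdn' c T1 ξ w n 8 = c.D.w 1 n 0 * c.D.B.d n ^ ((1 - c.p.θ 1) * ξ n) *
      c.D.B.d n ^ (w n * -T1) := by
    rw [sdn'_eq, s8, Wid638.e_eq rw']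
  have t9 : sdn' c T1 ξ w n 9 = c.D.w 2 n 0 * c.D.B.d n ^ ((1 - c.p.θ 2) * ξ n) *
      c.D.B.d n ^ (w n * (-2 * T1)) := by
    rw [sdn'_eq, s9, Wid638.e_eq rw']
  have t10 : sdn' c T1 ξ w n 10 = c.D.w 0 n 0 * c.D.B.d n ^ ((1 - c.p.θ 0) * ξ n) *
      c.D.B.d n ^ (w n * (-2 * T1)) := by
    rw [sdn'_eq, s10, Wid638.e_eq rw']
  rw [Wid638.e_eq rw', t8, t9, t10]
  intro k
  fin_cases k
  · exact rng_aux hd hd1 P0 (hR 0).1 (hR 0).2 (by linarith [a0.1, a0.2, b1.1, b1.2, b3.1, b3.2])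
      (by linarith [a0.1, a0.2, b1.1, b1.2, b3.1, b3.2])
  · exact rng_aux hd hd1 P1 (hR 1).1 (hR 1).2 (by linarith [a1.1, a1.2, b1.1, b1.2, b2.1, b2.2])
      (by linarith [a1.1, a1.2, b1.1, b1.2, b2.1, b2.2])
  · exact rng_aux hd hd1 P2 (hR 2).1 (hR 2).2 (by linarith [a2.1, a2.2, b1.1, b1.2, b3.1, b3.2])
      (by linarith [a2.1, a2.2, b1.1, b1.2, b3.1, b3.2])

end Crest.Agent.R136.End882
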