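import Crest.Agent.R136.Net2_191

/-!
# R136 (S0187): END, part 3 (helper882): one container label

`prune_classes` : simultaneous pruning of finitely many partitions; `exists_container` : finitely many
partitions whose classes are near in a chart, with the right number of classes: there is a nonempty
set `F`, all of whose points are pairwise near, in which every class is still almost full.
-/

set_option autoImplicit false
set_option linter.unusedVariables false

namespace Crest.Agent.R136.End882

open Finset Crest.Agent.R136.Net191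

open Classical in
/-- **pruning of finitely many partitions** -/
theorem prune_classes {α : Type*} {r : ℕ} {β : Fin r → Type*} (E : Finset α)
    (cl : ∀ s, α → β s) (δ : Fin r → ℝ) (hδ : ∀ s, 0 ≤ δ s) :
    ∃ F ⊆ E, (E.card : ℝ) ≤ F.card + ∑ s, δ s * ((E.image (cl s)).card : ℝ) ∧
      ∀ s, ∀ x ∈ F, δ s ≤ ((F.filter fun y => cl s y = cl s x).card : ℝ) := by
  obtain ⟨Inv, hInv⟩ : ∃ Inv : Finset α → Prop, ∀ F, Inv F ↔ (E.card : ℝ) ≤ F.card +
    ∑ s, δ s * (((E.image (cl s)).card : ℝ) - (F.image (cl s)).card) := ⟨_, fun _ => Iff.rfl⟩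
  have hne : (E.powerset.filter Inv).Nonempty := by
    refine ⟨E, mem_filter.2 ⟨mem_powerset_self E, (hInv _).2 ?_⟩⟩
    simp
  obtain ⟨F, hF, hmin⟩ := exists_min_image (E.powerset.filter Inv) (fun F => F.card) hne
  obtain ⟨h1, h2⟩ := mem_filter.1 hF
  rw [mem_powerset] at h1
  rw [hInv] at h2
  refine ⟨F, h1, ?_, ?_⟩
  · refine h2.trans (add_le_add le_rfl (sum_le_sum fun s _ => ?_))
    refine mul_le_mul_of_nonneg_left ?_ (hδ s)
    have : (0 : ℝ) ≤ (F.image (cl s)).card := Nat.cast_nonneg _
    linarith
  · intro s x hx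
    by_contra hc
    push Not at hc
    set F' := F.filter fun y => cl s y ≠ cl s x with hF'
    have hlt : F'.card < F.card := by
      refine card_lt_card ((ssubset_iff_of_subset (filter_subset _ _)).2 ⟨x, hx, ?_⟩)
      rw [mem_filter]
      exact fun h => h.2 rfl
    have hsplit : (F.card : ℝ) = ((F.filter fun y => cl s y = cl s x).card : ℝ) + F'.card := by
      exact_mod_cast (card_filter_add_card_filter_not (s := F) fun y => cl s y = cl s x).symm
    have himg : (F'.image (cl s)).card + 1 ≤ (F.image (cl s)).card := by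
      have : F'.image (cl s) ⊆ (F.image (cl s)).erase (cl s x) := by
        intro b hb
        obtain ⟨y, hy, rfl⟩ := mem_image.1 hb
        rw [hF', mem_filter] at hy
        exact mem_erase.2 ⟨hy.2, mem_image_of_mem _ hy.1⟩
      have h3 := card_le_card this
      rw [card_erase_of_mem (mem_image_of_mem _ hx)] at h3
      have h4 : 0 < (F.image (cl s)).card := card_pos.2 ⟨_, mem_image_of_mem _ hx⟩
      omega
    have hmem : F' ∈ E.powerset.filter Inv := by
      refine mem_filter.2 ⟨mem_powerset.2 ((filter_subset _ _).trans h1), (hInv _).2 ?_⟩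
      have h5 : ∀ t, δ t * (((E.image (cl t)).card : ℝ) - (F.image (cl t)).card) +
          (if t = s then δ s else 0) ≤
          δ t * (((E.image (cl t)).card : ℝ) - (F'.image (cl t)).card) := by
        intro t
        by_cases hts : t = s
        · subst hts
          rw [if_pos rfl]
          have h6 : ((F'.image (cl t)).card : ℝ) + 1 ≤ (F.image (cl t)).card := by
            exact_mod_cast himg
          have := mul_le_mul_of_nonneg_left h6 (hδ t)
          nlinarith
        · rw [if_neg hts, add_zero]
          refine mul_le_mul_of_nonneg_left ?_ (hδ t)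
          have h6 : ((F'.image (cl t)).card : ℝ) ≤ (F.image (cl t)).card := by
            exact_mod_cast card_le_card (image_subset_image (filter_subset _ _))
          linarith
      have h7 := sum_le_sum fun t (_ : t ∈ (univ : Finset (Fin r))) => h5 t
      rw [sum_add_distrib, sum_ite_eq' univ s, if_pos (mem_univ s)] at h7
      linarith
    have := hmin F' hmem
    omega

variable {m : ℕ}

open Classical in
/-- **one container**: `F ⊆ E` nonempty, pairwise near, all classes almost full. -/
theorem exists_container {α : Type*} {E : Finset α} {co : α → α → Fin m → ℝ} {M : Mons m}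
    {C : ℝ} (h : Chart E co M C) {d : ℝ} (hd : 0 < d) (hd1 : d ≤ 1) {p : Fin m → ℝ}
    (hp : Legal M p) {r : ℕ} {β : Fin r → Type*} (cl : ∀ s, α → β s) (μ : Fin r → ℝ)
    (hμ : ∀ s, 0 ≤ μ s)
    (near : ∀ s, ∀ x ∈ E, ∀ y ∈ E, cl s x = cl s y → Near co d p 1 x y) (hE : E.Nonempty)
    {A : ℝ} (hA : 0 < A)
    (cnt : ∀ s, ((E.image (cl s)).card : ℝ) * μ s ≤ A * E.card) :
    ∃ F ⊆ E, F.Nonempty ∧ (∀ x ∈ F, ∀ y ∈ F, Near co d p (cK0 M C) x y) ∧
      ∀ s, ∀ x ∈ F, μ s / (2 * (r + 1) * cN M C 1 * A) ≤
        ((F.filter fun y => cl s y = cl s x).card : ℝ) := by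
  have hN : 0 < cN M C 1 := cN_pos M h.C0 le_rfl
  set lb : α → α := lab E co M C d p with hlb
  -- labels per class
  have hlab : ∀ s, ((E.image fun x => (cl s x, lb x)).card : ℝ) ≤
      cN M C 1 * ((E.image (cl s)).card : ℝ) := by
    intro s
    have h1 : (E.image fun x => (cl s x, lb x)).card ≤
        ∑ b ∈ E.image (cl s), ((E.filter fun y => cl s y = b).image lb).card := by
      have h2 : (E.image fun x => (cl s x, lb x)) ⊆
          (E.image (cl s)).biUnion fun b =>
            ((E.filter fun y => cl s y = b).image lb).image fun l => (b, l) := by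
        intro q hq
        obtain ⟨x, hx, rfl⟩ := mem_image.1 hq
        refine mem_biUnion.2 ⟨cl s x, mem_image_of_mem _ hx, ?_⟩
        exact mem_image.2 ⟨lb x, mem_image_of_mem _ (mem_filter.2 ⟨hx, rfl⟩), rfl⟩
      refine (card_le_card h2).trans (card_biUnion_le.trans (sum_le_sum fun b _ => card_image_le))
    have h3 : ∀ b ∈ E.image (cl s), (((E.filter fun y => cl s y = b).image lb).card : ℝ) ≤
        cN M C 1 := by
      intro b hb
      obtain ⟨x, hx, rfl⟩ := mem_image.1 hb
      have h4 := card_lab_le h hp hp le_rfl hd hd1 le_rfl hx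
      simp only [sub_self, sum_const_zero, neg_zero, Real.rpow_zero, mul_one] at h4
      refine le_trans ?_ h4
      refine Nat.cast_le.2 (card_le_card (image_subset_image fun y hy => ?_))
      rw [mem_filter] at hy ⊢
      exact ⟨hy.1, near s x hx y hy.1 hy.2.symm⟩
    calc ((E.image fun x => (cl s x, lb x)).card : ℝ) ≤
        ∑ b ∈ E.image (cl s), (((E.filter fun y => cl s y = b).image lb).card : ℝ) := by
          exact_mod_cast h1
      _ ≤ ∑ b ∈ E.image (cl s), cN M C 1 := sum_le_sum h3
      _ = cN M C 1 * ((E.image (cl s)).card : ℝ) := by rw [sum_const, nsmul_eq_mul, mul_comm]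
  set δ : Fin r → ℝ := fun s => μ s / (2 * (r + 1) * cN M C 1 * A) with hδ
  have hden : 0 < 2 * (r + 1) * cN M C 1 * A := by positivity
  have hδ0 : ∀ s, 0 ≤ δ s := fun s => div_nonneg (hμ s) hden.le
  obtain ⟨F₁, hF₁, hcard, hfull⟩ := prune_classes E
    (fun s x => (cl s x, lb x)) δ hδ0
  have hsum : ∑ s, δ s * ((E.image fun x => (cl s x, lb x)).card : ℝ) ≤ E.card / 2 := by
    have h1 : ∀ s, δ s * ((E.image fun x => (cl s x, lb x)).card : ℝ) ≤
        E.card / (2 * (r + 1)) := by
      intro s
      calc δ s * ((E.image fun x => (cl s x, lb x)).card : ℝ) ≤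
          δ s * (cN M C 1 * ((E.image (cl s)).card : ℝ)) :=
            mul_le_mul_of_nonneg_left (hlab s) (hδ0 s)
        _ = (((E.image (cl s)).card : ℝ) * μ s) / (2 * (r + 1) * A) := by
            simp only [hδ]; field_simp
        _ ≤ (A * E.card) / (2 * (r + 1) * A) := by
            have := cnt s
            gcongr
        _ = E.card / (2 * (r + 1)) := by field_simp
    calc ∑ s, δ s * ((E.image fun x => (cl s x, lb x)).card : ℝ) ≤
        ∑ _s : Fin r, (E.card : ℝ) / (2 * (r + 1)) := sum_le_sum fun s _ => h1 s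
      _ = r * ((E.card : ℝ) / (2 * (r + 1))) := by
          rw [sum_const, nsmul_eq_mul, card_univ, Fintype.card_fin]
      _ ≤ E.card / 2 := by
          rw [mul_div_assoc', div_le_div_iff₀ (by positivity) (by norm_num)]
          have : (0 : ℝ) ≤ E.card := Nat.cast_nonneg _
          nlinarith
  have hEpos : (0 : ℝ) < E.card := by exact_mod_cast card_pos.2 hE
  have hcard' : (E.card : ℝ) ≤ F₁.card +
      ∑ s, δ s * ((E.image fun x => (cl s x, lb x)).card : ℝ) := by convert hcard
  have hF₁ne : F₁.Nonempty := by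
    rw [← card_pos]
    have : (0 : ℝ) < F₁.card := by linarith
    exact_mod_cast this
  obtain ⟨x₀, hx₀⟩ := hF₁ne
  refine ⟨F₁.filter fun x => lb x = lb x₀, (filter_subset _ _).trans hF₁,
    ⟨x₀, mem_filter.2 ⟨hx₀, rfl⟩⟩, ?_, ?_⟩
  · intro x hx y hy
    rw [mem_filter] at hx hy
    exact near_of_lab h hp hd hd1 (hF₁ hx.1) (hF₁ hy.1) (hx.2.trans hy.2.symm)
  · intro s x hx
    rw [mem_filter] at hx
    refine (hfull s x hx.1).trans (Nat.cast_le.2 (card_le_card fun y hy => ?_))
    simp only [mem_filter, Prod.mk.injEq] at hy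
    exact mem_filter.2 ⟨mem_filter.2 ⟨hy.1, hy.2.2.trans hx.2⟩, hy.2.1⟩

end Crest.Agent.R136.End882
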