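import Crest.Agent.R136.HR2_829

/-!
# R136 (S0187): END, part 4 (helper882): counts of incidences instead of cells

`end_arith` : helper829's `end_gam` with the own counts as numbers of incidences and all losses
in one number `K ≤ 2 ^ (κ M)`.
-/

set_option autoImplicit false
set_option linter.unusedVariables false

namespace Crest.Agent.R136.End882

open Finset
open Crest.Agent.R136.LmQ861 (Plk)
open Crest.Agent.R136.Sh605
open Crest.Agent.R136.HR829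
open Crest.Agent.R138.Mk163 (zc zl rho alive own)

open Classical in
/-- number of cells from numbers of incidences -/
theorem own_card (F : Finset (ℕ × ℝ)) (l h : ℕ) (x : ℕ × ℝ) {K s t : ℝ} (hK : 0 < K) (ht : 0 < t)
    (hlow : s ≤ K * ((F.filter fun y => y.1 = x.1 ∧ zc l y.2 = zc l x.2).card : ℝ))
    (hup : ∀ x ∈ F, ((F.filter fun y => y.1 = x.1 ∧ zc h y.2 = zc h x.2).card : ℝ) ≤ K * t) :
    s ≤ K ^ 2 * t * ((own F l h x).card : ℝ) := by
  set A := F.filter fun y => y.1 = x.1 ∧ zc l y.2 = zc l x.2 with hA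
  have h1 : (A.card : ℝ) ≤ ∑ c ∈ own F l h x, ((A.filter fun y => zc h y.2 = c).card : ℝ) := by
    have : A.card = ∑ c ∈ own F l h x, (A.filter fun y => zc h y.2 = c).card :=
      card_eq_sum_card_fiberwise (f := fun y : ℕ × ℝ => zc h y.2) (t := own F l h x)
        fun y hy => mem_image_of_mem _ hy
    rw [this]; push_cast; exact le_rfl
  have h2 : ∀ c ∈ own F l h x, ((A.filter fun y => zc h y.2 = c).card : ℝ) ≤ K * t := by
    intro c hc
    obtain ⟨y, hy, rfl⟩ := mem_image.1 hc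
    rw [mem_filter] at hy
    refine le_trans (Nat.cast_le.2 (card_le_card fun y' hy' => ?_)) (hup y hy.1)
    rw [hA, mem_filter, mem_filter] at hy'
    rw [mem_filter]
    exact ⟨hy'.1.1, hy'.1.2.1.trans hy.2.1.symm, hy'.2⟩
  calc s ≤ K * (A.card : ℝ) := hlow
    _ ≤ K * (∑ c ∈ own F l h x, (K * t)) :=
        mul_le_mul_of_nonneg_left (h1.trans (sum_le_sum h2)) hK.le
    _ = K ^ 2 * t * ((own F l h x).card : ℝ) := by
        rw [sum_const, nsmul_eq_mul]; ring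

open Classical in
/-- **END for one sheet, counts of incidences**, all losses in `K`. -/
theorem end_arith (hKM : ∀ V : ℝ, Crest.Agent.R138.Tub70.KM32 V) {g : ℝ} (hg : 0 < g)
    {η₁ : ℝ} (hη₁ : 0 < η₁) (C₁ : ℝ) :
    ∃ η κ : ℝ, ∃ M₀ : ℕ, 0 < η ∧ η ≤ η₁ ∧ η ≤ 1 / 4 ∧ 0 < κ ∧
    ∀ (F : Finset (ℕ × ℝ)) (L : ℕ → Ln4) (e : Fin 3 → V3) (c : Ln4) (w : V3)
      (q : ℝ → V3 → ℝ) (a : ℝ) (i j M k : ℕ) (J0 : ℤ) (K nn Dc : ℝ),
      F.Nonempty → M₀ ≤ M → η / 2 * M ≤ k → (k : ℝ) ≤ η * M → i + M + 1 ≤ j →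
      1 ≤ K → K ≤ (2 : ℝ) ^ (κ * M) → 0 < nn → 0 < Dc →
      (∀ x ∈ F, zc i x.2 = J0) →
      IsQ q → 0 < a → 0 < w 1 → 0 < w 2 →
      (∀ x ∈ F, InSheet (L x.1) e c w q a (zl i J0) (rho i)) →
      -- own counts
      (∀ x ∈ F, nn ≤ K * ((F.filter fun y => y.1 = x.1 ∧ zc i y.2 = zc i x.2).card : ℝ)) →
      (∀ x ∈ F, nn / 2 ^ (M + 1 - k) ≤ K * ((F.filter fun y => y.1 = x.1 ∧
        zc (i + M + 1 - k) y.2 = zc (i + M + 1 - k) x.2).card : ℝ)) →
      (∀ x ∈ F, ((F.filter fun y => y.1 = x.1 ∧ zc (i + M + 1) y.2 = zc (i + M + 1) x.2).card : ℝ)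
        ≤ K * (nn / 2 ^ (M + 1))) →
      -- rich
      (∀ x ∈ F, ∃ z : ℝ, zc j z = zc j x.2 ∧ Dc * (2 : ℝ) ^ (-(3 - g) * M) ≤
        K * (((alive F j (zc j x.2)).filter fun t =>
          ∀ b, |nrm e w q a (L x.1) (L t) z b| ≤ 1 / 2 / 2 ^ M).card : ℝ)) →
      -- planks
      (∀ x ∈ F, ∀ y ∈ F, C₁ * ((2 ^ k : ℕ) : ℝ) ^ 2 ≤ 2 ^ M →
        zl i J0 ≤ zl (i + M + 1 - k) (zc (i + M + 1 - k) y.2) →
        zl (i + M + 1 - k) (zc (i + M + 1 - k) y.2) + rho (i + M + 1 - k) ≤ zl i J0 + rho i →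
        (∀ z, zl (i + M + 1 - k) (zc (i + M + 1 - k) y.2) ≤ z →
          z ≤ zl (i + M + 1 - k) (zc (i + M + 1 - k) y.2) + rho (i + M + 1 - k) →
          |z - (zm i J0 + rho i / 2 * ((ix M J0 (zc (i + M + 1) x.2) : ℝ) / 2 ^ M))| ≤
            2 * (rho i / 2) * ((2 ^ k : ℕ) : ℝ) / 2 ^ M) →
        ∀ n : Fin 3 → ℝ, ∑ i, n i ^ 2 = 1 → ∀ E : Fin 2 → Fin 3 → ℝ,
        (∀ a b, ∑ i, E a i * E b i = if a = b then 1 else 0) →
        (∀ a, ∑ i, E a i * n i = 0) → ∀ wd : Fin 2 → ℝ, (∀ a, 1 / (2 : ℝ) ^ k ≤ wd a ∧ wd a ≤ 1) →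
        (((alive F (i + M + 1 - k) (zc (i + M + 1 - k) y.2)).filter fun t =>
          Plk (fun l => gam e c w q a (zm i J0) (rho i / 2) (L l))
            (fun l => vel e c w q a (zm i J0) (rho i / 2) (L l)) (2 ^ M) (2 ^ k) n E wd
            (x.1, ix M J0 (zc (i + M + 1) x.2))
            (t, ix M J0 (zc (i + M + 1) x.2))).card : ℝ) ≤
          K * (Dc * (2 : ℝ) ^ (-(3 : ℝ) * M + g * (M - k))) * (wd 0 * wd 1) * (2 ^ k) ^ 2) →
      ((F.image Prod.fst).card : ℝ) ≤ K * Dc → False := by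
  obtain ⟨η, ε₀, M₀, hη, hηη, hη1, hε, key⟩ := end_gam hKM hg hη₁ C₁
  refine ⟨η, ε₀ / 4, max M₀ (Nat.ceil (4 / ε₀)), hη, hηη, hη1, by positivity, ?_⟩
  intro F L e c w q a i j M k J0 K nn Dc hF hM' hk1 hk2 hij hK1 hK hnn hDc hJ hq ha hw1 hw2 hin
    hown hwin hup hrich hplank hL
  have hM : M₀ ≤ M := (le_max_left _ _).trans hM'
  have hM2 : 4 / ε₀ ≤ M := (Nat.le_ceil _).trans (by exact_mod_cast (le_max_right _ _).trans hM')
  have hεM : 4 ≤ ε₀ * M := by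
    rw [div_le_iff₀ hε] at hM2
    linarith
  have hK0 : 0 < K := by linarith
  have hkM : k ≤ M := by
    have : (k : ℝ) ≤ M := by
      have : η * M ≤ 1 / 4 * M := by gcongr
      have : (0 : ℝ) ≤ M := Nat.cast_nonneg _
      linarith
    exact_mod_cast this
  have hK2 : K ^ 2 ≤ (2 : ℝ) ^ (ε₀ / 2 * M) := by
    calc K ^ 2 ≤ ((2 : ℝ) ^ (ε₀ / 4 * M)) ^ 2 := by gcongr
      _ = (2 : ℝ) ^ (ε₀ / 2 * M) := by
        rw [← Real.rpow_natCast, ← Real.rpow_mul (by norm_num)]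
        congr 1; push_cast; ring
  have hKe : K ≤ (2 : ℝ) ^ (ε₀ * M) := by
    refine hK.trans (Real.rpow_le_rpow_of_exponent_le (by norm_num) ?_)
    nlinarith
  -- cells of the line of x
  have hcells : ∀ l : ℕ, l ≤ i + M + 1 → i ≤ l → ∀ x ∈ F, nn / 2 ^ (l - i) ≤
      K * ((F.filter fun y => y.1 = x.1 ∧ zc l y.2 = zc l x.2).card : ℝ) →
      (2 : ℝ) ^ (((i + M + 1 : ℕ) : ℝ) - l - ε₀ * M) ≤ ((own F l (i + M + 1) x).card : ℝ) := by
    intro l hl hil x hx hlow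
    have h1 := own_card F l (i + M + 1) x hK0 (t := nn / 2 ^ (M + 1)) (by positivity) hlow hup
    have e1 : nn / 2 ^ (l - i) = nn / 2 ^ (M + 1) * 2 ^ (i + M + 1 - l) := by
      have : (2 : ℝ) ^ (M + 1) = 2 ^ (l - i) * 2 ^ (i + M + 1 - l) := by
        rw [← pow_add]; congr 1; omega
      rw [this]
      field_simp
    rw [e1] at h1
    have h2 : (2 : ℝ) ^ (i + M + 1 - l) ≤ K ^ 2 * ((own F l (i + M + 1) x).card : ℝ) := by
      have h3 : 0 < nn / 2 ^ (M + 1) := by positivity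
      have h4 : nn / 2 ^ (M + 1) * 2 ^ (i + M + 1 - l) ≤
          nn / 2 ^ (M + 1) * (K ^ 2 * ((own F l (i + M + 1) x).card : ℝ)) := by
        refine h1.trans (le_of_eq ?_); ring
      exact le_of_mul_le_mul_left h4 h3
    have h5 : (2 : ℝ) ^ (i + M + 1 - l) = (2 : ℝ) ^ (((i + M + 1 : ℕ) : ℝ) - l) := by
      rw [← Real.rpow_natCast, Nat.cast_sub hl]
    have h6 : (2 : ℝ) ^ (((i + M + 1 : ℕ) : ℝ) - l) ≤
        (2 : ℝ) ^ (ε₀ / 2 * M) * ((own F l (i + M + 1) x).card : ℝ) := by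
      rw [← h5]
      exact h2.trans (mul_le_mul_of_nonneg_right hK2 (Nat.cast_nonneg _))
    have h7 : (2 : ℝ) ^ (((i + M + 1 : ℕ) : ℝ) - l - ε₀ / 2 * M) ≤
        ((own F l (i + M + 1) x).card : ℝ) := by
      rw [Real.rpow_sub (by norm_num), div_le_iff₀ (by positivity), mul_comm]
      exact h6
    refine le_trans (Real.rpow_le_rpow_of_exponent_le (by norm_num) ?_) h7
    have : (0 : ℝ) ≤ ε₀ * M := by positivity
    linarith
  refine key F L e c w q a i j M k J0 (Real.logb 2 Dc)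
    (K * (Dc * (2 : ℝ) ^ (-(3 : ℝ) * M + g * (M - k)))) hF hM hk1 hk2 hij hJ hq ha hw1 hw2 hin
    ?_ ?_ ?_ hplank ?_ ?_
  · intro x hx
    have := hcells i (by omega) le_rfl x hx (by simpa using hown x hx)
    refine le_trans (Real.rpow_le_rpow_of_exponent_le (by norm_num) ?_) this
    push_cast
    linarith
  · intro x hx
    have h1 := hcells (i + M + 1 - k) (by omega) (by omega) x hx (by
      have : i + M + 1 - k - i = M + 1 - k := by omega
      rw [this]; exact hwin x hx)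
    refine le_trans (Real.rpow_le_rpow_of_exponent_le (by norm_num) ?_) h1
    rw [Nat.cast_sub (by omega : k ≤ i + M + 1)]
    linarith
  · intro x hx
    obtain ⟨z, hz, h1⟩ := hrich x hx
    refine ⟨z, hz, ?_⟩
    have h2 : (2 : ℝ) ^ (Real.logb 2 Dc - 3 * M + g * M - ε₀ * M) * K ≤
        Dc * (2 : ℝ) ^ (-(3 - g) * M) := by
      have e1 : (2 : ℝ) ^ (Real.logb 2 Dc - 3 * M + g * M - ε₀ * M) =
          Dc * (2 : ℝ) ^ (-(3 - g) * M) * (2 : ℝ) ^ (-(ε₀ * M)) := by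
        nth_rewrite 2 [← Real.rpow_logb (by norm_num : (0:ℝ) < 2) (by norm_num) hDc]
        rw [← Real.rpow_add (by norm_num), ← Real.rpow_add (by norm_num)]
        congr 1; ring
      rw [e1]
      have h3 : 0 < Dc * (2 : ℝ) ^ (-(3 - g) * M) := by positivity
      have h4 : (2 : ℝ) ^ (-(ε₀ * M)) * K ≤ 1 := by
        rw [Real.rpow_neg (by norm_num), inv_mul_le_iff₀ (by positivity), mul_one]
        exact hKe
      calc Dc * (2 : ℝ) ^ (-(3 - g) * M) * (2 : ℝ) ^ (-(ε₀ * M)) * K =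
          Dc * (2 : ℝ) ^ (-(3 - g) * M) * ((2 : ℝ) ^ (-(ε₀ * M)) * K) := by ring
        _ ≤ Dc * (2 : ℝ) ^ (-(3 - g) * M) * 1 := mul_le_mul_of_nonneg_left h4 h3.le
        _ = _ := mul_one _
    have h3 := h2.trans h1
    rw [mul_comm] at h3
    exact le_of_mul_le_mul_left h3 hK0
  · calc K * (Dc * (2 : ℝ) ^ (-(3 : ℝ) * M + g * (M - k))) ≤
        (2 : ℝ) ^ (ε₀ * M) * (Dc * (2 : ℝ) ^ (-(3 : ℝ) * M + g * (M - k))) := by
          exact mul_le_mul_of_nonneg_right hKe (by positivity)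
      _ = (2 : ℝ) ^ (Real.logb 2 Dc - 3 * M + g * (M - k) + ε₀ * M) := by
          nth_rewrite 1 [← Real.rpow_logb (by norm_num : (0:ℝ) < 2) (by norm_num) hDc]
          rw [← Real.rpow_add (by norm_num), ← Real.rpow_add (by norm_num)]
          congr 1; ring
  · refine hL.trans ?_
    calc K * Dc ≤ (2 : ℝ) ^ (ε₀ * M) * Dc := mul_le_mul_of_nonneg_right hKe hDc.le
      _ = (2 : ℝ) ^ (Real.logb 2 Dc + ε₀ * M) := by
          nth_rewrite 1 [← Real.rpow_logb (by norm_num : (0:ℝ) < 2) (by norm_num) hDc]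
          rw [← Real.rpow_add (by norm_num)]
          congr 1; ring

end Crest.Agent.R136.End882
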