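import Crest.Agent.R136.Qg1_926

/-!
# R136: comparison of two profiles of one family (helper779)

* `cN_pol` : the packing constant is polynomial in `K`.
* `prof_le_of_image` : two profiles of one dense family, every `f p`-class meets at most `d^(-a-ε)`
  `f' p'`-classes: `ν p ≤ ν' p' + a`.
* `prof_le`, `prof_eq` : two charts, `co`-box of exponents `p` inside `co'`-box of exponents `p'`.
* `zero_slot` : if all pairs of the `p`-box have small coordinates in some slots, raising these slots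
  does not change the profile.
-/

set_option autoImplicit false
set_option linter.unusedSectionVars false
set_option linter.unusedVariables false

open Filter Topology

namespace Crest.Agent.R136.Sec779

open Finset Crest.Agent.R138.Ex926 Crest.Agent.R136.Net191

/-! ### polynomial growth of the packing constant -/

/-- polynomial growth on `[1, ∞)` -/
def Pol (F : ℝ → ℝ) : Prop := ∃ (A : ℝ) (N : ℕ), 0 < A ∧ ∀ K : ℝ, 1 ≤ K → 0 ≤ F K ∧ F K ≤ A * K ^ N

theorem Pol.const {c : ℝ} (hc : 0 ≤ c) : Pol fun _ => c :=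
  ⟨c + 1, 0, by linarith, fun K _ => ⟨hc, by simp⟩⟩

theorem Pol.id : Pol fun K => K := ⟨1, 1, one_pos, fun K hK => ⟨by linarith, by simp⟩⟩

theorem Pol.add {F G : ℝ → ℝ} (hF : Pol F) (hG : Pol G) : Pol fun K => F K + G K := by
  obtain ⟨A, N, hA, h1⟩ := hF
  obtain ⟨A', N', hA', h2⟩ := hG
  refine ⟨A + A', N + N', by linarith, fun K hK => ?_⟩
  obtain ⟨a1, a2⟩ := h1 K hK
  obtain ⟨b1, b2⟩ := h2 K hK
  refine ⟨by linarith, ?_⟩
  have p1 : K ^ N ≤ K ^ (N + N') := pow_le_pow_right₀ hK (by omega)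
  have p2 : K ^ N' ≤ K ^ (N + N') := pow_le_pow_right₀ hK (by omega)
  have := mul_le_mul_of_nonneg_left p1 hA.le
  have := mul_le_mul_of_nonneg_left p2 hA'.le
  rw [add_mul]
  linarith

theorem Pol.mul {F G : ℝ → ℝ} (hF : Pol F) (hG : Pol G) : Pol fun K => F K * G K := by
  obtain ⟨A, N, hA, h1⟩ := hF
  obtain ⟨A', N', hA', h2⟩ := hG
  refine ⟨A * A', N + N', mul_pos hA hA', fun K hK => ?_⟩
  obtain ⟨a1, a2⟩ := h1 K hK
  obtain ⟨b1, b2⟩ := h2 K hK
  refine ⟨mul_nonneg a1 b1, ?_⟩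
  calc F K * G K ≤ (A * K ^ N) * (A' * K ^ N') :=
        mul_le_mul a2 b2 b1 (by positivity)
    _ = _ := by rw [pow_add]; ring

theorem Pol.pow {F : ℝ → ℝ} (hF : Pol F) (k : ℕ) : Pol fun K => F K ^ k := by
  induction k with
  | zero => simpa using Pol.const (c := 1) zero_le_one
  | succ k ih => simpa [pow_succ] using ih.mul hF

theorem Pol.mono {F G : ℝ → ℝ} (hG : Pol G) (h : ∀ K, 1 ≤ K → 0 ≤ F K ∧ F K ≤ G K) : Pol F := by
  obtain ⟨A, N, hA, h1⟩ := hG
  exact ⟨A, N, hA, fun K hK => ⟨(h K hK).1, (h K hK).2.trans (h1 K hK).2⟩⟩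

theorem Pol.comp {F G : ℝ → ℝ} (hF : Pol F) (hG : Pol G) (h1 : ∀ K, 1 ≤ K → 1 ≤ G K) :
    Pol fun K => F (G K) := by
  obtain ⟨A, N, hA, hh⟩ := hF
  refine Pol.mono (((Pol.const hA.le).mul (hG.pow N))) fun K hK => ?_
  exact hh _ (h1 K hK)

variable {m : ℕ}

theorem triC_pol (M : Mons m) {C : ℝ} (hC : 0 ≤ C) : Pol fun K => triC M C K := by
  unfold triC
  refine (((Pol.const (c := 2) (by norm_num)).mul Pol.id)).add ?_
  exact (Pol.const (c := C * M.cnt) (by positivity)).mul (Pol.id.pow _)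

theorem symC_pol (M : Mons m) {C : ℝ} (hC : 0 ≤ C) (k : ℕ) : Pol fun K => symC M C K k := by
  induction k with
  | zero => simpa [symC] using Pol.id
  | succ k ih =>
    simp only [symC]
    exact Pol.id.add ((Pol.const (c := C * M.cnt) (by positivity)).mul (ih.pow _))

theorem cN_pol (M : Mons m) {C : ℝ} (hC : 0 ≤ C) : Pol fun K => cN M C K := by
  have h1 : Pol fun K => pkC M C K := by
    unfold pkC
    have hη : 0 < pkη M C := by unfold pkη; positivity
    refine Pol.pow ?_ m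
    refine Pol.add ?_ (Pol.const (by norm_num))
    have h2 : Pol fun K => triC M C (symC M C K m) :=
      (triC_pol M hC).comp (symC_pol M hC m) fun K hK => hK.trans (symC_ge M hC hK m)
    refine Pol.mono ((Pol.const (c := 2 / pkη M C) (by positivity)).mul h2) fun K hK => ?_
    have h3 : 1 ≤ triC M C (symC M C K m) := by
      have := symC_ge M hC hK m
      exact (hK.trans this).trans (triC_ge hC (hK.trans this))
    constructor
    · positivity
    · rw [div_mul_eq_mul_div]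
  have hmax : Pol fun K => max K (symC M C (cK1 M C) m) := by
    have h0 : 0 ≤ symC M C (cK1 M C) m := by
      linarith [symC_ge M hC (cK1_one (M := M) hC) m, cK1_one (M := M) hC]
    refine Pol.mono (Pol.id.add (Pol.const h0)) fun K hK => ⟨?_, ?_⟩
    · exact le_max_of_le_left (by linarith)
    · exact max_le (by linarith) (by linarith)
  unfold cN
  refine h1.comp ((triC_pol M hC).comp hmax fun K hK => hK.trans (le_max_left _ _)) fun K hK => ?_
  have := hK.trans (le_max_left K (symC M C (cK1 M C) m))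
  exact this.trans (triC_ge hC this)

/-- a polynomial of `d^(-ε/(N+1))` is eventually `≤ d^(-ε)` -/
theorem Pol.ev (B : Base) {F : ℝ → ℝ} (hF : Pol F) {ε : ℝ} (hε : 0 < ε) :
    ∃ δ : ℝ, 0 < δ ∧ δ ≤ ε ∧ ∀ᶠ n in (U : Filter ℕ), ∀ K : ℝ, 1 ≤ K → K ≤ B.d n ^ (-δ) →
      F K ≤ B.d n ^ (-ε) := by
  obtain ⟨A, N, hA, h⟩ := hF
  have hN : (0 : ℝ) < 2 * ((N : ℝ) + 1) := by positivity
  refine ⟨ε / (2 * ((N : ℝ) + 1)), by positivity, ?_, ?_⟩
  · rw [div_le_iff₀ hN]
    have : (0 : ℝ) ≤ N := Nat.cast_nonneg _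
    nlinarith
  filter_upwards [Crest.Agent.R136.Qg926.ev_const_le B hA (ε := ε / 2) (by positivity)] with
    n h1 K hK hK2
  have hd : ∀ t : ℝ, 0 < B.d n ^ t := fun t => Real.rpow_pos_of_pos (B.pos n) t
  have h2 : K ^ N ≤ B.d n ^ (-(ε / 2)) := by
    calc K ^ N ≤ (B.d n ^ (-(ε / (2 * ((N : ℝ) + 1))))) ^ N :=
          pow_le_pow_left₀ (by linarith) hK2 _
      _ = B.d n ^ (-(ε / (2 * ((N : ℝ) + 1))) * N) := by
          rw [← Real.rpow_natCast, ← Real.rpow_mul (B.pos n).le]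
      _ ≤ _ := by
          refine Real.rpow_le_rpow_of_exponent_ge (B.pos n) (B.lt n).le ?_
          have h3 : ε / (2 * ((N : ℝ) + 1)) * N ≤ ε / 2 := by
            rw [div_mul_eq_mul_div, div_le_div_iff₀ hN (by norm_num)]
            nlinarith [Nat.cast_nonneg (α := ℝ) N]
          linarith
  calc F K ≤ A * K ^ N := (h K hK).2
    _ ≤ B.d n ^ (-(ε / 2)) * B.d n ^ (-(ε / 2)) :=
        mul_le_mul h1 h2 (by positivity) (hd _).le
    _ = B.d n ^ (-ε) := by rw [← Real.rpow_add (B.pos n)]; congr 1; ring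

/-! ### comparison -/

variable {m' : ℕ} {B : Base} {ι : ℕ → Type*} [∀ n, DecidableEq (ι n)]

/-- **comparison of two profiles** -/
theorem prof_le_of_image {κ κ' : ℕ → Type*} [∀ n, DecidableEq (κ n)] [∀ n, DecidableEq (κ' n)]
    {V V' : Type*} [LE V] [LE V'] {J : ∀ n, Finset (ι n)} {f : ∀ n, V → ι n → κ n}
    {f' : ∀ n, V' → ι n → κ' n} {P : Set V} {P' : Set V'} {ν : V → ℝ} {ν' : V' → ℝ}
    (hne : ∀ᶠ n in (U : Filter ℕ), (J n).Nonempty) (hν : QProf B J f P ν)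
    (hν' : QProf B J f' P' ν') {p : V} {p' : V'} (hp : p ∈ P) (hp' : p' ∈ P') {a : ℝ}
    (hm : ∀ ε : ℝ, 0 < ε → ∀ᶠ n in (U : Filter ℕ), ∀ i ∈ J n,
      (((cls (J n) (f n p) i).image (f' n p')).card : ℝ) ≤ B.d n ^ (-(a + ε))) :
    ν p ≤ ν' p' + a := by
  classical
  refine le_of_forall_pos_le_add fun ε hε => ?_
  have hε3 : 0 < ε / 3 := by positivity
  obtain ⟨n, h1, h2, h3, h4⟩ := (((hm _ hε3).and ((hν.root _ hε3).and
    ((hν'.up _ hε3).and hne))).exists)
  have hd : ∀ t : ℝ, 0 < B.d n ^ t := fun t => Real.rpow_pos_of_pos (B.pos n) t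
  have hJ : (0 : ℝ) < (J n).card := by exact_mod_cast card_pos.2 h4
  have c1 : ((J n).card : ℝ) ≤ B.d n ^ (-(ν' p' + ε / 3)) * ((J n).image (f' n p')).card := by
    have := le_count_mul (J n) (fun _ => (1 : ℝ)) (f' n p') (m := B.d n ^ (-(ν' p' + ε / 3)))
      (fun x hx => by
        rw [sum_const, nsmul_eq_mul, mul_one]
        exact h3 p' hp' x hx)
    rwa [sum_const, nsmul_eq_mul, mul_one] at this
  have c2 : (((J n).image (f' n p')).card : ℝ) ≤
      B.d n ^ (-(a + ε / 3)) * ((J n).image (f n p)).card :=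
    card_image_le_mul _ _ _ fun x hx => h1 x hx
  have c3 := h2 p hp
  have c4 : ((J n).card : ℝ) ≤ B.d n ^ (-(ν' p' + ε / 3)) * (B.d n ^ (-(a + ε / 3)) *
      ((J n).card * B.d n ^ (ν p - ε / 3))) :=
    c1.trans (mul_le_mul_of_nonneg_left (c2.trans (mul_le_mul_of_nonneg_left c3 (hd _).le))
      (hd _).le)
  have e1 : B.d n ^ (-(ν' p' + ε / 3)) * (B.d n ^ (-(a + ε / 3)) *
      ((J n).card * B.d n ^ (ν p - ε / 3))) =
      (J n).card * B.d n ^ (ν p - ν' p' - a - ε) := by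
    have : B.d n ^ (ν p - ν' p' - a - ε) = B.d n ^ (-(ν' p' + ε / 3)) *
        (B.d n ^ (-(a + ε / 3)) * B.d n ^ (ν p - ε / 3)) := by
      rw [← Real.rpow_add (B.pos n), ← Real.rpow_add (B.pos n)]; congr 1; ring
    rw [this]; ring
  rw [e1] at c4
  have c5 : (1 : ℝ) ≤ B.d n ^ (ν p - ν' p' - a - ε) := by
    by_contra hc
    push Not at hc
    nlinarith
  have c6 : ν p - ν' p' - a - ε ≤ 0 := by
    by_contra hc
    push Not at hc
    exact absurd (Real.rpow_lt_one (B.pos n).le (B.lt n) hc) (not_lt.2 c5)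
  linarith

variable {I J : ∀ n, Finset (ι n)} {co : ∀ n, ι n → ι n → Fin m → ℝ} {M : Mons m} {C : ℝ}
  {co' : ∀ n, ι n → ι n → Fin m' → ℝ} {M' : Mons m'} {C' : ℝ}
  {P : Set (Fin m → ℝ)} {P' : Set (Fin m' → ℝ)} {ν : (Fin m → ℝ) → ℝ} {ν' : (Fin m' → ℝ) → ℝ}

/-- number of `co'`-labels of exponents `p'` in a set of pairwise `co'`-close points -/
theorem card_nlab_close (h' : ∀ n, Chart (I n) (co' n) M' C') {p' : Fin m' → ℝ}
    (hp' : Legal M' p') {ε : ℝ} (hε : 0 < ε) :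
    ∃ δ : ℝ, 0 < δ ∧ δ ≤ ε ∧ ∀ᶠ n in (U : Filter ℕ), ∀ i ∈ I n, ∀ A : Finset (ι n), A ⊆ I n →
      (∀ j ∈ A, Near (co' n) (B.d n) p' (B.d n ^ (-δ)) i j) →
      ((A.image (nlab B I co' M' C' n p')).card : ℝ) ≤ B.d n ^ (-ε) := by
  classical
  obtain ⟨δ, hδ, hδε, hev⟩ := (cN_pol M' (h' 0).C0).ev B hε
  refine ⟨δ, hδ, hδε, ?_⟩
  filter_upwards [hev, Crest.Agent.R136.Qg926.ev_const_le B one_pos hδ] with n h1 h2 i hi A hA hn
  have h3 := card_nlab_le (B := B) h' hp' hp' le_rfl h2 hi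
  simp only [sub_self, sum_const_zero, neg_zero, Real.rpow_zero, mul_one] at h3
  have h4 : A.image (nlab B I co' M' C' n p') ⊆
      ((I n).filter fun j => Near (co' n) (B.d n) p' (B.d n ^ (-δ)) i j).image
        (nlab B I co' M' C' n p') :=
    image_subset_image fun j hj => mem_filter.2 ⟨hA hj, hn j hj⟩
  calc ((A.image (nlab B I co' M' C' n p')).card : ℝ) ≤ _ := by exact_mod_cast card_le_card h4
    _ ≤ _ := h3
    _ ≤ _ := h1 _ h2 le_rfl

/-- **box containment gives comparison of the profiles** -/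
theorem prof_le (h : ∀ n, Chart (I n) (co n) M C) (h' : ∀ n, Chart (I n) (co' n) M' C')
    (hsub : ∀ᶠ n in (U : Filter ℕ), J n ⊆ I n) (hne : ∀ᶠ n in (U : Filter ℕ), (J n).Nonempty)
    (hν : QProf B J (nlab B I co M C) P ν) (hν' : QProf B J (nlab B I co' M' C') P' ν')
    {p : Fin m → ℝ} {p' : Fin m' → ℝ} (hp : p ∈ P) (hp' : p' ∈ P') (hl : Legal M p)
    (hl' : Legal M' p')
    (hbox : ∀ ε : ℝ, 0 < ε → ∀ᶠ n in (U : Filter ℕ), ∀ i ∈ J n, ∀ j ∈ J n,
      Near (co n) (B.d n) p (cK0 M C) i j → Near (co' n) (B.d n) p' (B.d n ^ (-ε)) i j) :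
    ν p ≤ ν' p' := by
  classical
  have h0 := prof_le_of_image hne hν hν' hp hp' (a := 0) (by
    intro ε hε
    obtain ⟨δ, hδ, _, hev⟩ := card_nlab_close (B := B) (I := I) h' hl' hε
    filter_upwards [hev, hbox δ hδ, hsub] with n h1 h2 h3 i hi
    rw [zero_add]
    refine h1 i (h3 hi) _ ((cls_subset _ _ _).trans h3) fun j hj => ?_
    obtain ⟨hjJ, hji⟩ := mem_cls.1 hj
    exact h2 i hi j hjJ (near_of_nlab h hl (h3 hi) (h3 hjJ) hji.symm))
  linarith

/-- two matched boxes -/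
theorem prof_eq (h : ∀ n, Chart (I n) (co n) M C) (h' : ∀ n, Chart (I n) (co' n) M' C')
    (hsub : ∀ᶠ n in (U : Filter ℕ), J n ⊆ I n) (hne : ∀ᶠ n in (U : Filter ℕ), (J n).Nonempty)
    (hν : QProf B J (nlab B I co M C) P ν) (hν' : QProf B J (nlab B I co' M' C') P' ν')
    {p : Fin m → ℝ} {p' : Fin m' → ℝ} (hp : p ∈ P) (hp' : p' ∈ P') (hl : Legal M p)
    (hl' : Legal M' p')
    (hbox : ∀ ε : ℝ, 0 < ε → ∀ᶠ n in (U : Filter ℕ), ∀ i ∈ J n, ∀ j ∈ J n,
      Near (co n) (B.d n) p (cK0 M C) i j → Near (co' n) (B.d n) p' (B.d n ^ (-ε)) i j)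
    (hbox' : ∀ ε : ℝ, 0 < ε → ∀ᶠ n in (U : Filter ℕ), ∀ i ∈ J n, ∀ j ∈ J n,
      Near (co' n) (B.d n) p' (cK0 M' C') i j → Near (co n) (B.d n) p (B.d n ^ (-ε)) i j) :
    ν p = ν' p' :=
  le_antisymm (prof_le h h' hsub hne hν hν' hp hp' hl hl' hbox)
    (prof_le h' h hsub hne hν' hν hp' hp hl' hl hbox')

/-- **zero slots**: the slots which are small on every `p`-box may be raised -/
theorem zero_slot (h : ∀ n, Chart (I n) (co n) M C)
    (hsub : ∀ᶠ n in (U : Filter ℕ), J n ⊆ I n) (hne : ∀ᶠ n in (U : Filter ℕ), (J n).Nonempty)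
    (hν : QProf B J (nlab B I co M C) P ν) {p q : Fin m → ℝ} (hp : p ∈ P) (hq : q ∈ P)
    (hl : Legal M p) (hl' : Legal M q) (hpq : p ≤ q)
    (hz : ∀ ε : ℝ, 0 < ε → ∀ᶠ n in (U : Filter ℕ), ∀ i ∈ J n, ∀ j ∈ J n,
      Near (co n) (B.d n) p (cK0 M C) i j → ∀ k, p k < q k → |co n i j k| ≤ B.d n ^ (q k - ε)) :
    ν p = ν q := by
  have hC0 := (h 0).C0
  have hK0 : 1 ≤ cK0 M C := cK0_one hC0
  refine le_antisymm ?_ ?_
  · refine prof_le h h hsub hne hν hν hp hq hl hl' fun ε hε => ?_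
    filter_upwards [hz ε hε, Crest.Agent.R136.Qg926.ev_const_le B (by linarith : 0 < cK0 M C) hε]
      with n h1 h2 i hi j hj hn k
    by_cases hk : p k < q k
    · refine (h1 i hi j hj hn k hk).trans (le_of_eq ?_)
      rw [← Real.rpow_add (B.pos n)]; congr 1; ring
    · have e : q k = p k := le_antisymm (not_lt.1 hk) (hpq k)
      rw [e]
      exact (hn k).trans (mul_le_mul_of_nonneg_right h2 (Real.rpow_nonneg (B.pos n).le _))
  · refine prof_le h h hsub hne hν hν hq hp hl' hl fun ε hε => ?_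
    filter_upwards [Crest.Agent.R136.Qg926.ev_const_le B (by linarith : 0 < cK0 M C) hε] with
      n h2 i hi j hj hn
    exact (hn.anti (B.pos n) (B.lt n).le (by linarith) hpq).mono (B.pos n) h2

end Crest.Agent.R136.Sec779
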