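import Crest.Agent.R136.Qg5_926
import Crest.Agent.R136.Sec1_779
import Crest.Agent.R138.MkDef_163

/-!
# R136 (S0187): END, counts of one's own incidences in a window (helper403)

* `exists_code` : labels in any type as natural numbers; `card_image_le_of`.
* `CellOk` : the partition `(line, cell)` is the partition `(line, label lb)` up to few pieces.
* `own_up` , `own_up_all` : sizes of the `(line, cell)` classes; `own_num` : their number.
* `exists_zcls_own` : honest class which has, for countably many cell partitions, the average number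
  of `(line, cell)` classes; `counts_dense` : the same for a dense part of the class.
* `few_pack` : labels in a box with constant `ρ^(-δ)`; `cells_le` : cells in an interval;
  `cellOk_zc` : heights, dyadic cells.
-/

set_option autoImplicit false
set_option linter.unusedSectionVars false
set_option linter.unusedVariables false

open Filter Topology

namespace Crest.Agent.R136.End403

open Finset Crest.Agent.R138.Ex926 Crest.Agent.R136.Net191 Crest.Agent.R136.Qg926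
open Crest.Agent.R138.Mk163 (zc)

/-! ### codes -/

theorem exists_code {α β : Type*} [DecidableEq β] (J : Finset α) (f : α → β) :
    ∃ e : α → ℕ, ∀ i ∈ J, ∀ i' ∈ J, e i = e i' ↔ f i = f i' := by
  classical
  refine ⟨fun i => if h : f i ∈ J.image f then ((J.image f).equivFin ⟨f i, h⟩ : ℕ) else 0, ?_⟩
  intro i hi i' hi'
  have h1 : f i ∈ J.image f := mem_image_of_mem f hi
  have h2 : f i' ∈ J.image f := mem_image_of_mem f hi'
  simp only [dif_pos h1, dif_pos h2]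
  constructor
  · intro h
    have := (J.image f).equivFin.injective (Fin.ext h)
    exact congrArg Subtype.val this
  · intro h
    simp only [h]

theorem card_image_le_of {α β γ : Type*} [DecidableEq α] [DecidableEq β] [DecidableEq γ]
    (A : Finset α) (f : α → β) (g : α → γ) (h : ∀ x ∈ A, ∀ y ∈ A, g x = g y → f x = f y) :
    ((A.image f).card : ℝ) ≤ (A.image g).card := by
  have h1 := card_image_le_mul A f g (N := 1) (fun x hx => by
    have : (cls A g x).image f ⊆ {f x} := by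
      intro b hb
      obtain ⟨y, hy, rfl⟩ := mem_image.1 hb
      obtain ⟨hy1, hy2⟩ := mem_cls.1 hy
      exact mem_singleton.2 (h y hy1 x hx hy2)
    have h2 := card_le_card this
    rw [card_singleton] at h2
    exact_mod_cast h2)
  rwa [one_mul] at h1

theorem card_image_eq_of {α β γ : Type*} [DecidableEq α] [DecidableEq β] [DecidableEq γ]
    (A : Finset α) (f : α → β) (g : α → γ) (h : ∀ x ∈ A, ∀ y ∈ A, f x = f y ↔ g x = g y) :
    ((A.image f).card : ℝ) = (A.image g).card :=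
  le_antisymm (card_image_le_of A f g fun x hx y hy => (h x hx y hy).2)
    (card_image_le_of A g f fun x hx y hy => (h x hx y hy).1)

/-! ### classes of one's own incidences -/

variable {m : ℕ} {ι : ℕ → Type*} [∀ n, DecidableEq (ι n)] {γ : Type*} [DecidableEq γ]

/-- the partition `(line, cell)` is the partition `(line, lb)` up to few pieces -/
structure CellOk (B' : Base) (J : ∀ n, Finset (ι n)) (lin : ∀ n, ι n → ℕ)
    (lb : ∀ n, ι n → ι n) (cell : ∀ n, ι n → γ) : Prop where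
  few : ∀ ε : ℝ, 0 < ε → ∀ᶠ n in (U : Filter ℕ), ∀ i ∈ J n,
    (((cls (J n) (fun x => (lin n x, cell n x)) i).image (lb n)).card : ℝ) ≤ B'.d n ^ (-ε)
  few' : ∀ ε : ℝ, 0 < ε → ∀ᶠ n in (U : Filter ℕ), ∀ i ∈ J n,
    (((cls (J n) (fun x => (lin n x, lb n x)) i).image (cell n)).card : ℝ) ≤ B'.d n ^ (-ε)

section

variable {B' : Base} {J : ∀ n, Finset (ι n)} {lin : ∀ n, ι n → ℕ}
  {lb : ∀ n, (Fin m → ℝ) → ι n → ι n} {Do : Set (Fin m → ℝ)} {To : ℕ → ℝ}
  {lo : (Fin m → ℝ) → ℝ}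

/-- sizes, uniform version: sets of incidences of one line with few labels -/
theorem own_up_all (ho : ZProf B' J (fun n c i => (lin n i, lb n c i)) Do To lo)
    (hTo : ∀ n, 0 < To n) (K : ℝ) {ε : ℝ} (hε : 0 < ε) :
    ∀ᶠ n in (U : Filter ℕ), ∀ c ∈ Do, ‖c‖ ≤ K → ∀ A ⊆ J n,
      (∀ x ∈ A, ∀ y ∈ A, lin n x = lin n y) →
      ((A.image (lb n c)).card : ℝ) ≤ B'.d n ^ (-(ε / 2)) →
      (A.card : ℝ) ≤ To n * B'.d n ^ (-(lo c + ε)) := by
  filter_upwards [ho.up K (ε / 2) (by positivity)] with n h1 c hc hcK A hA hlin hfew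
  have hp : ∀ t : ℝ, 0 < B'.d n ^ t := fun t => Real.rpow_pos_of_pos (B'.pos n) t
  have c1 := le_count_mul A (fun _ => (1 : ℝ)) (lb n c)
    (m := To n * B'.d n ^ (-(lo c + ε / 2))) (fun x hx => by
      rw [sum_const, nsmul_eq_mul, mul_one]
      refine le_trans ?_ (h1 c hc hcK x (hA hx))
      refine Nat.cast_le.2 (card_le_card fun y hy => ?_)
      obtain ⟨hy1, hy2⟩ := mem_cls.1 hy
      exact mem_cls.2 ⟨hA hy1, Prod.ext (hlin y hy1 x hx) hy2⟩)
  rw [sum_const, nsmul_eq_mul, mul_one] at c1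
  have hT := hTo n
  calc (A.card : ℝ) ≤ To n * B'.d n ^ (-(lo c + ε / 2)) * (A.image (lb n c)).card := c1
    _ ≤ To n * B'.d n ^ (-(lo c + ε / 2)) * B'.d n ^ (-(ε / 2)) :=
        mul_le_mul_of_nonneg_left hfew (mul_pos hT (hp _)).le
    _ = To n * B'.d n ^ (-(lo c + ε)) := by
        rw [mul_assoc, ← Real.rpow_add (B'.pos n)]; congr 2; ring

/-- **sizes of the `(line, cell)` classes** -/
theorem own_up (ho : ZProf B' J (fun n c i => (lin n i, lb n c i)) Do To lo)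
    (hTo : ∀ n, 0 < To n) {c : Fin m → ℝ} (hc : c ∈ Do) {cell : ∀ n, ι n → γ}
    (hcell : CellOk B' J lin (fun n => lb n c) cell) {ε : ℝ} (hε : 0 < ε) :
    ∀ᶠ n in (U : Filter ℕ), ∀ i ∈ J n,
      ((cls (J n) (fun x => (lin n x, cell n x)) i).card : ℝ) ≤
        To n * B'.d n ^ (-(lo c + ε)) := by
  filter_upwards [own_up_all ho hTo ‖c‖ hε, hcell.few (ε / 2) (by positivity)] with n h1 h2 i hi
  refine h1 c hc le_rfl _ (cls_subset _ _ _) (fun x hx y hy => ?_) (h2 i hi)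
  have e1 := congrArg Prod.fst (mem_cls.1 hx).2
  have e2 := congrArg Prod.fst (mem_cls.1 hy).2
  exact e1.trans e2.symm

/-- **number of the `(line, cell)` classes** -/
theorem own_num (ho : ZProf B' J (fun n c i => (lin n i, lb n c i)) Do To lo)
    (hTo : ∀ n, 0 < To n) {c : Fin m → ℝ} (hc : c ∈ Do) {cell : ∀ n, ι n → γ}
    (hcell : CellOk B' J lin (fun n => lb n c) cell) {ε : ℝ} (hε : 0 < ε) :
    ∀ᶠ n in (U : Filter ℕ),
      (((J n).image fun x => (lin n x, cell n x)).card : ℝ) * To n ≤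
        (J n).card * B'.d n ^ (lo c - ε) := by
  filter_upwards [ho.root ‖c‖ (ε / 2) (by positivity), hcell.few' (ε / 2) (by positivity)] with
    n h1 h2
  have hp : ∀ t : ℝ, 0 < B'.d n ^ t := fun t => Real.rpow_pos_of_pos (B'.pos n) t
  have c1 := card_image_le_mul (J n) (fun x => (lin n x, cell n x))
    (fun x => (lin n x, lb n c x)) (N := B'.d n ^ (-(ε / 2))) (fun x hx => by
      refine le_trans ?_ (h2 x hx)
      refine card_image_le_of _ _ _ fun y hy z hz he => ?_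
      have e1 := congrArg Prod.fst (mem_cls.1 hy).2
      have e2 := congrArg Prod.fst (mem_cls.1 hz).2
      exact Prod.ext (e1.trans e2.symm) he)
  have c2 := h1 c hc le_rfl
  have hT := hTo n
  calc (((J n).image fun x => (lin n x, cell n x)).card : ℝ) * To n ≤
        (B'.d n ^ (-(ε / 2)) * ((J n).image fun x => (lin n x, lb n c x)).card) * To n :=
        mul_le_mul_of_nonneg_right c1 hT.le
    _ = B'.d n ^ (-(ε / 2)) * ((((J n).image fun x => (lin n x, lb n c x)).card : ℝ) * To n) := by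
        ring
    _ ≤ B'.d n ^ (-(ε / 2)) * ((J n).card * B'.d n ^ (lo c - ε / 2)) :=
        mul_le_mul_of_nonneg_left c2 (hp _).le
    _ = (J n).card * (B'.d n ^ (-(ε / 2)) * B'.d n ^ (lo c - ε / 2)) := by ring
    _ = (J n).card * B'.d n ^ (lo c - ε) := by
        rw [← Real.rpow_add (B'.pos n)]; congr 2; ring

end

section

variable {B B' : Base} {I J J' : ∀ n, Finset (ι n)} {co : ∀ n, ι n → ι n → Fin m → ℝ}
  {M : Mons m} {C : ℝ} {X : ℕ → Fin m → ℝ} {w : ℕ → ℝ} {D : Set (Fin m → ℝ)} {T : ℕ → ℝ}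
  {lam : (Fin m → ℝ) → ℝ}

open Classical in
/-- **labels in a box with constant `ρ^(-δ)`** -/
theorem few_pack (h : ZWin B B' I J co M C X w D T lam) {ε : ℝ} (hε : 0 < ε) :
    ∃ δ : ℝ, 0 < δ ∧ ∀ K : ℝ, ∀ᶠ n in (U : Filter ℕ), ∀ c ∈ D, ‖c‖ ≤ K → ∀ i ∈ I n,
      ((((I n).filter fun j => wbox B B' co X n c (B'.d n ^ (-δ)) i j).image
        (zlab B I co M C X w n c)).card : ℝ) ≤ B'.d n ^ (-ε) := by
  obtain ⟨A, N, hA, hpol⟩ := Sec779.cN_pol M (h.chart 0).C0
  refine ⟨ε / (2 * (N + 1)), by positivity, fun K => ?_⟩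
  set δ : ℝ := ε / (2 * (N + 1)) with hδ
  have hδ0 : 0 < δ := by positivity
  filter_upwards [h.legal K, ev_const_le B' hA (ε := ε / 2) (by positivity)] with n h1 h2 c hc hcK i hi
  have hp : ∀ t : ℝ, 0 < B'.d n ^ t := fun t => Real.rpow_pos_of_pos (B'.pos n) t
  have hK1 : (1 : ℝ) ≤ B'.d n ^ (-δ) :=
    Real.one_le_rpow_of_pos_of_le_one_of_nonpos (B'.pos n) (B'.lt n).le (by linarith)
  have h3 := h.card_zlab_le le_rfl (h1 c hc hcK) (h1 c hc hcK) hK1 hi
  simp only [sub_self, sum_const_zero, neg_zero, Real.rpow_zero, mul_one] at h3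
  refine h3.trans ((hpol _ hK1).2.trans ?_)
  have e1 : (B'.d n ^ (-δ)) ^ N = B'.d n ^ (-δ * N) := by
    rw [← Real.rpow_natCast, ← Real.rpow_mul (B'.pos n).le]
  have e2 : B'.d n ^ (-δ * N) ≤ B'.d n ^ (-(ε / 2)) := by
    refine Real.rpow_le_rpow_of_exponent_ge (B'.pos n) (B'.lt n).le ?_
    have : δ * N ≤ ε / 2 := by
      rw [hδ, div_mul_eq_mul_div, div_le_div_iff₀ (by positivity) (by norm_num)]
      have : (0 : ℝ) ≤ N := Nat.cast_nonneg N
      nlinarith
    linarith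
  rw [e1]
  calc A * B'.d n ^ (-δ * N) ≤ B'.d n ^ (-(ε / 2)) * B'.d n ^ (-(ε / 2)) := by
        exact mul_le_mul h2 e2 (hp _).le (hp _).le
    _ = B'.d n ^ (-ε) := by rw [← Real.rpow_add (B'.pos n)]; congr 1; ring

/-- one own class meets few base labels -/
theorem base_few (h : ZWin B B' I J co M C X w D T lam) {c : Fin m → ℝ} (hc0 : 0 ≤ c)
    (hcD : c ∈ D) {ε : ℝ} (hε : 0 < ε) : ∀ᶠ n in (U : Filter ℕ), ∀ A ⊆ J n,
      ((A.image (zlab B I co M C X w n c)).card : ℝ) ≤ B'.d n ^ (-(ε / 2)) →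
      ((A.image (zlab B I co M C X w n 0)).card : ℝ) ≤ B'.d n ^ (-ε) := by
  classical
  have hK0 : 1 ≤ cK0 M C := cK0_one (h.chart 0).C0
  filter_upwards [h.sub, h.legal ‖c‖, ev_const_le B' (cN_pos M (h.chart 0).C0 hK0) (ε := ε / 2)
    (by positivity)] with n h1 h2 h3 A hA hfew
  have hp : ∀ t : ℝ, 0 < B'.d n ^ t := fun t => Real.rpow_pos_of_pos (B'.pos n) t
  have hl0 := h2 0 h.zero (by rw [norm_zero]; exact norm_nonneg _)
  have hlc := h2 c hcD le_rfl
  have c1 := card_image_le_mul A (zlab B I co M C X w n 0) (zlab B I co M C X w n c)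
    (N := cN M C (cK0 M C)) (fun x hx => by
      have h4 := h.card_zlab_le le_rfl hl0 hl0 hK0 (h1 (hA hx))
      simp only [sub_self, sum_const_zero, neg_zero, Real.rpow_zero, mul_one] at h4
      refine le_trans ?_ h4
      refine Nat.cast_le.2 (card_le_card (image_subset_image fun y hy => ?_))
      obtain ⟨hy1, hy2⟩ := mem_cls.1 hy
      refine mem_filter.2 ⟨h1 (hA hy1), fun s => ?_⟩
      have h5 := h.near_of_zlab hlc (h1 (hA hx)) (h1 (hA hy1)) hy2.symm s
      refine h5.trans (mul_le_mul_of_nonneg_left ?_ (by linarith))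
      refine mul_le_mul_of_nonneg_left ?_ (Real.rpow_nonneg (B.pos n).le _)
      exact Real.rpow_le_rpow_of_exponent_ge (B'.pos n) (B'.lt n).le (hc0 s))
  calc ((A.image (zlab B I co M C X w n 0)).card : ℝ)
      ≤ cN M C (cK0 M C) * (A.image (zlab B I co M C X w n c)).card := c1
    _ ≤ B'.d n ^ (-(ε / 2)) * B'.d n ^ (-(ε / 2)) :=
        mul_le_mul h3 hfew (Nat.cast_nonneg _) (hp _).le
    _ = B'.d n ^ (-ε) := by rw [← Real.rpow_add (B'.pos n)]; congr 1; ring

/-- **honest class with the right numbers of `(line, cell)` classes**, countably many partitions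
`cell j` of window exponents `c j ≥ 0` -/
theorem exists_zcls_own (h : ZWin B B' I J co M C X w D T lam) (i₀ : ∀ n, ι n)
    {Gd E : ∀ n, Finset (ι n)}
    (hGd : ∀ᶠ n in (U : Filter ℕ), Gd n ⊆ J n) (hE : ∀ᶠ n in (U : Filter ℕ), E n ⊆ Gd n)
    {S : ℕ → ℝ} (hS : B'.Sub S)
    (hd : ∀ᶠ n in (U : Filter ℕ), ((J n).card : ℝ) ≤ S n * (E n).card)
    {lin : ∀ n, ι n → ℕ} {Do : Set (Fin m → ℝ)} {To : ℕ → ℝ} {lo : (Fin m → ℝ) → ℝ}
    (ho : ZProf B' J (fun n c i => (lin n i, zlab B I co M C X w n c i)) Do To lo)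
    (hTo : ∀ n, 0 < To n) {c : ℕ → Fin m → ℝ} (hc0 : ∀ j, 0 ≤ c j) (hcD : ∀ j, c j ∈ D)
    (hcDo : ∀ j, c j ∈ Do) {cell : ℕ → ∀ n, ι n → γ}
    (hcell : ∀ j, CellOk B' J lin (fun n => zlab B I co M C X w n (c j)) (cell j)) :
    ∃ s₀ : ∀ n, ι n, (∀ᶠ n in (U : Filter ℕ), s₀ n ∈ E n) ∧
      ZCls B B' I J co M C X w D T lam
        (fun n => cls (Gd n) (zlab B I co M C X w n 0) (s₀ n)) s₀ ∧
      ∀ j, ∀ ε : ℝ, 0 < ε → ∀ᶠ n in (U : Filter ℕ),
        (((cls (Gd n) (zlab B I co M C X w n 0) (s₀ n)).image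
          fun x => (lin n x, cell j n x)).card : ℝ) * (To n * B'.d n ^ (-lo (c j))) ≤
          T n * B'.d n ^ (-ε) := by
  classical
  have hcode : ∀ (j n : ℕ), ∃ e : ι n → ℕ, ∀ i ∈ J n, ∀ i' ∈ J n,
      e i = e i' ↔ (lin n i, cell j n i) = (lin n i', cell j n i') := fun j n =>
    exists_code (J n) fun x => (lin n x, cell j n x)
  choose hx hhx using hcode
  have hcls : ∀ j n, ∀ i ∈ J n, cls (J n) (hx j n) i =
      cls (J n) (fun x => (lin n x, cell j n x)) i := by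
    intro j n i hi
    ext x
    rw [mem_cls, mem_cls]
    constructor
    · rintro ⟨h1, h2⟩; exact ⟨h1, (hhx j n x h1 i hi).1 h2⟩
    · rintro ⟨h1, h2⟩; exact ⟨h1, (hhx j n x h1 i hi).2 h2⟩
  obtain ⟨s₀, h1, h2, h3⟩ := h.exists_zcls_ex i₀ hGd hE hS hd hx
    (fun j n => 1 / (To n * B'.d n ^ (-lo (c j))))
    (fun j n => by
      have := hTo n
      have := Real.rpow_pos_of_pos (B'.pos n) (-lo (c j))
      positivity)
    (fun j ε hε => by
      filter_upwards [base_few h (hc0 j) (hcD j) hε, (hcell j).few (ε / 2) (by positivity)] with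
        n g1 g2 i hi
      rw [hcls j n i hi]
      exact g1 _ (cls_subset _ _ _) (g2 i hi))
    (fun j ε hε => by
      filter_upwards [own_num ho hTo (hcDo j) (hcell j) hε] with n g1
      have e1 : (((J n).image (hx j n)).card : ℝ) =
          ((J n).image fun x => (lin n x, cell j n x)).card :=
        card_image_eq_of _ _ _ fun x hx' y hy => hhx j n x hx' y hy
      have hT := hTo n
      have hp := Real.rpow_pos_of_pos (B'.pos n) (-lo (c j))
      have e2 : ((J n).card : ℝ) * (1 / (To n * B'.d n ^ (-lo (c j)))) * B'.d n ^ (-ε) =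
          ((J n).card * B'.d n ^ (lo (c j) - ε)) / To n := by
        have : B'.d n ^ (lo (c j) - ε) = B'.d n ^ (-ε) / B'.d n ^ (-lo (c j)) := by
          rw [← Real.rpow_sub (B'.pos n)]; congr 1; ring
        rw [this]
        field_simp
      rw [e1, e2, le_div_iff₀ hT]
      exact g1)
  refine ⟨s₀, h1, h2, fun j ε hε => ?_⟩
  filter_upwards [h3 j ε hε, hGd] with n g1 g2
  have e1 : (((cls (Gd n) (zlab B I co M C X w n 0) (s₀ n)).image (hx j n)).card : ℝ) =
      ((cls (Gd n) (zlab B I co M C X w n 0) (s₀ n)).image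
        fun x => (lin n x, cell j n x)).card :=
    card_image_eq_of _ _ _ fun x hx' y hy =>
      hhx j n x (g2 ((cls_subset _ _ _) hx')) y (g2 ((cls_subset _ _ _) hy))
  rw [e1] at g1
  have hT := hTo n
  have hp := Real.rpow_pos_of_pos (B'.pos n) (-lo (c j))
  calc _ ≤ (T n * (1 / (To n * B'.d n ^ (-lo (c j)))) * B'.d n ^ (-ε)) *
        (To n * B'.d n ^ (-lo (c j))) := mul_le_mul_of_nonneg_right g1 (mul_pos hT hp).le
    _ = T n * B'.d n ^ (-ε) := by field_simp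

/-- the numbers of classes for a dense part of the honest class -/
theorem counts_dense {Cl E' : ∀ n, Finset (ι n)} {κ : Type*} [DecidableEq κ]
    {lb : ∀ n, ι n → κ} {t : ℕ → ℝ}
    (ht : ∀ n, 0 < t n)
    (hbig : ∀ ε : ℝ, 0 < ε → ∀ᶠ n in (U : Filter ℕ), T n * B'.d n ^ ε ≤ ((Cl n).card : ℝ))
    (hsub : ∀ᶠ n in (U : Filter ℕ), E' n ⊆ Cl n)
    (hdense : ∀ ε : ℝ, 0 < ε → ∀ᶠ n in (U : Filter ℕ),
      B'.d n ^ ε * ((Cl n).card : ℝ) ≤ ((E' n).card : ℝ))
    (hnum : ∀ ε : ℝ, 0 < ε → ∀ᶠ n in (U : Filter ℕ),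
      (((Cl n).image (lb n)).card : ℝ) * t n ≤ T n * B'.d n ^ (-ε)) {ε : ℝ} (hε : 0 < ε) :
    ∀ᶠ n in (U : Filter ℕ),
      (((E' n).image (lb n)).card : ℝ) * t n ≤ B'.d n ^ (-ε) * ((E' n).card : ℝ) := by
  have hε3 : 0 < ε / 3 := by positivity
  filter_upwards [hbig _ hε3, hsub, hdense _ hε3, hnum _ hε3] with n h1 h2 h3 h4
  have hp : ∀ t : ℝ, 0 < B'.d n ^ t := fun t => Real.rpow_pos_of_pos (B'.pos n) t
  have h5 : (((E' n).image (lb n)).card : ℝ) ≤ ((Cl n).image (lb n)).card := by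
    exact_mod_cast card_le_card (image_subset_image h2)
  have h6 : T n ≤ B'.d n ^ (-(ε / 3)) * ((Cl n).card : ℝ) := by
    rw [Real.rpow_neg (B'.pos n).le, inv_mul_eq_div, le_div_iff₀ (hp _)]
    exact h1
  have h7 : ((Cl n).card : ℝ) ≤ B'.d n ^ (-(ε / 3)) * ((E' n).card : ℝ) := by
    rw [Real.rpow_neg (B'.pos n).le, inv_mul_eq_div, le_div_iff₀ (hp _), mul_comm]
    exact h3
  calc (((E' n).image (lb n)).card : ℝ) * t n ≤ ((Cl n).image (lb n)).card * t n :=
        mul_le_mul_of_nonneg_right h5 (ht n).le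
    _ ≤ T n * B'.d n ^ (-(ε / 3)) := h4
    _ ≤ (B'.d n ^ (-(ε / 3)) * (B'.d n ^ (-(ε / 3)) * ((E' n).card : ℝ))) *
        B'.d n ^ (-(ε / 3)) := by
        have := hp (-(ε / 3))
        refine mul_le_mul_of_nonneg_right (h6.trans ?_) this.le
        exact mul_le_mul_of_nonneg_left h7 this.le
    _ = (B'.d n ^ (-(ε / 3)) * B'.d n ^ (-(ε / 3)) * B'.d n ^ (-(ε / 3))) * (E' n).card := by
        ring
    _ = B'.d n ^ (-ε) * ((E' n).card : ℝ) := by
        rw [← Real.rpow_add (B'.pos n), ← Real.rpow_add (B'.pos n)]; congr 2; ring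

end

/-! ### dyadic cells of heights -/

/-- number of integer parts near a real number -/
theorem cells_le {α : Type*} [DecidableEq α] (A : Finset α) (z : α → ℝ) (z0 : ℝ) {t : ℝ}
    (h : ∀ x ∈ A, |z x - z0| ≤ t) (ht : 0 ≤ t) :
    ((A.image fun x => ⌊z x⌋).card : ℝ) ≤ 2 * t + 2 := by
  have hsub : (A.image fun x => ⌊z x⌋) ⊆ Finset.Icc ⌊z0 - t⌋ ⌊z0 + t⌋ := by
    intro k hk
    obtain ⟨x, hx, rfl⟩ := mem_image.1 hk
    have h1 := abs_le.1 (h x hx)
    exact mem_Icc.2 ⟨Int.floor_mono (by linarith), Int.floor_mono (by linarith)⟩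
  have h1 := card_le_card hsub
  rw [Int.card_Icc] at h1
  have h2 : ⌊z0 - t⌋ ≤ ⌊z0 + t⌋ := Int.floor_mono (by linarith)
  have h3 : (((⌊z0 + t⌋ + 1 - ⌊z0 - t⌋).toNat : ℕ) : ℝ) = (⌊z0 + t⌋ : ℝ) + 1 - ⌊z0 - t⌋ := by
    have h4 : ((⌊z0 + t⌋ + 1 - ⌊z0 - t⌋).toNat : ℤ) = ⌊z0 + t⌋ + 1 - ⌊z0 - t⌋ :=
      Int.toNat_of_nonneg (by omega)
    have h5 : (((⌊z0 + t⌋ + 1 - ⌊z0 - t⌋).toNat : ℤ) : ℝ) =
        ((⌊z0 + t⌋ + 1 - ⌊z0 - t⌋ : ℤ) : ℝ) := by rw [h4]
    push_cast at h5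
    exact h5
  have h4 : ((A.image fun x => ⌊z x⌋).card : ℝ) ≤
      (((⌊z0 + t⌋ + 1 - ⌊z0 - t⌋).toNat : ℕ) : ℝ) := by exact_mod_cast h1
  rw [h3] at h4
  have h5 := Int.floor_le (z0 + t)
  have h6 := Int.lt_floor_add_one (z0 - t)
  linarith

section

variable {B B' : Base} {I J : ℕ → Finset (ℕ × ℝ)} {co : ℕ → ℕ × ℝ → ℕ × ℝ → Fin m → ℝ}
  {M : Mons m} {C : ℝ} {X : ℕ → Fin m → ℝ} {w : ℕ → ℝ} {D : Set (Fin m → ℝ)} {T : ℕ → ℝ}
  {lam : (Fin m → ℝ) → ℝ}

/-- **dyadic cells of heights**: cells of level `lv n` = window exponent `c kz`; incidences of one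
line in one cell are near -/
theorem cellOk_zc (h : ZWin B B' I J co M C X w D T lam) {kz : Fin m} {Gz : ℕ → ℝ}
    (hGz : ∀ n, 0 < Gz n)
    (hco : ∀ n, ∀ x ∈ I n, ∀ y ∈ I n, co n x y kz = Gz n * (y.2 - x.2)) {lv : ℕ → ℕ}
    {c : Fin m → ℝ} (hc : c ∈ D)
    (hsz : ∀ ε : ℝ, 0 < ε → ∀ᶠ n in (U : Filter ℕ),
      B.d n ^ X n kz * B'.d n ^ c kz * 2 ^ lv n ≤ Gz n * B'.d n ^ (-ε))
    (hown : ∀ ε : ℝ, 0 < ε → ∀ᶠ n in (U : Filter ℕ), ∀ x ∈ J n, ∀ y ∈ J n, y.1 = x.1 →
      zc (lv n) y.2 = zc (lv n) x.2 → wbox B B' co X n c (B'.d n ^ (-ε)) x y) :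
    CellOk B' J (fun _ x => x.1) (fun n => zlab B I co M C X w n c)
      (fun n x => zc (lv n) x.2) where
  few := fun ε hε => by
    classical
    obtain ⟨δ, hδ, hpack⟩ := few_pack h hε
    filter_upwards [hpack ‖c‖, hown δ hδ, h.sub] with n h1 h2 h3 i hi
    refine le_trans ?_ (h1 c hc le_rfl i (h3 hi))
    refine Nat.cast_le.2 (card_le_card (image_subset_image fun y hy => ?_))
    obtain ⟨hy1, hy2⟩ := mem_cls.1 hy
    simp only [Prod.mk.injEq] at hy2
    exact mem_filter.2 ⟨h3 hy1, h2 i hi y hy1 hy2.1 hy2.2⟩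
  few' := fun ε hε => by
    have hK0 : 1 ≤ cK0 M C := cK0_one (h.chart 0).C0
    have hK4 : (0 : ℝ) < 2 * cK0 M C + 2 := by linarith
    filter_upwards [h.legal ‖c‖, hsz (ε / 2) (by positivity), h.sub,
      ev_const_le B' hK4 (ε := ε / 2) (by positivity)] with n h1 h2 h3 h4 i hi
    have hp : ∀ t : ℝ, 0 < B'.d n ^ t := fun t => Real.rpow_pos_of_pos (B'.pos n) t
    have hG := hGz n
    have hlc := h1 c hc le_rfl
    have hone : (1 : ℝ) ≤ B'.d n ^ (-(ε / 2)) :=
      Real.one_le_rpow_of_pos_of_le_one_of_nonpos (B'.pos n) (B'.lt n).le (by linarith)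
    have h5 := cells_le (cls (J n) (fun x : ℕ × ℝ => (x.1, zlab B I co M C X w n c x)) i)
      (fun x : ℕ × ℝ => (2 : ℝ) ^ lv n * x.2) ((2 : ℝ) ^ lv n * i.2)
      (t := cK0 M C * B'.d n ^ (-(ε / 2))) (fun x hx => by
        obtain ⟨hx1, hx2⟩ := mem_cls.1 hx
        simp only [Prod.mk.injEq] at hx2
        have g1 := h.near_of_zlab hlc (h3 hi) (h3 hx1) hx2.2.symm kz
        rw [hco n i (h3 hi) x (h3 hx1), abs_mul, abs_of_pos hG] at g1
        rw [← mul_sub, abs_mul, abs_of_pos (by positivity : (0:ℝ) < 2 ^ lv n)]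
        have g2 : Gz n * ((2 : ℝ) ^ lv n * |x.2 - i.2|) ≤
            Gz n * (cK0 M C * B'.d n ^ (-(ε / 2))) := by
          calc Gz n * ((2 : ℝ) ^ lv n * |x.2 - i.2|) =
                (Gz n * |x.2 - i.2|) * (2 : ℝ) ^ lv n := by ring
            _ ≤ (cK0 M C * (B.d n ^ X n kz * B'.d n ^ c kz)) * (2 : ℝ) ^ lv n :=
                mul_le_mul_of_nonneg_right g1 (by positivity)
            _ = cK0 M C * (B.d n ^ X n kz * B'.d n ^ c kz * 2 ^ lv n) := by ring
            _ ≤ cK0 M C * (Gz n * B'.d n ^ (-(ε / 2))) :=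
                mul_le_mul_of_nonneg_left h2 (by linarith)
            _ = _ := by ring
        exact le_of_mul_le_mul_left g2 hG) (by have := hp (-(ε / 2)); positivity)
    have e1 : ((cls (J n) (fun x : ℕ × ℝ => (x.1, zlab B I co M C X w n c x)) i).image
        fun x => zc (lv n) x.2) =
        (cls (J n) (fun x : ℕ × ℝ => (x.1, zlab B I co M C X w n c x)) i).image
          fun x : ℕ × ℝ => ⌊(2 : ℝ) ^ lv n * x.2⌋ := rfl
    rw [e1]
    refine h5.trans ?_
    calc 2 * (cK0 M C * B'.d n ^ (-(ε / 2))) + 2 ≤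
          (2 * cK0 M C + 2) * B'.d n ^ (-(ε / 2)) := by nlinarith
      _ ≤ B'.d n ^ (-(ε / 2)) * B'.d n ^ (-(ε / 2)) :=
          mul_le_mul_of_nonneg_right h4 (hp _).le
      _ = B'.d n ^ (-ε) := by rw [← Real.rpow_add (B'.pos n)]; congr 1; ring

end

end Crest.Agent.R136.End403
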