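import Crest.Agent.R136.Sh3_605
import Crest.Agent.R136.Sh6_605

/-!
# R136 (S0187): END, part 5 (helper882): explicit quadratic functions around a line, class `ShN0`

`FQ e y q ..` : `q` around the line `y` in the frame `e`, with exact slope `1` in the direction `e 0`.
`shN_of_FQ` : if the second order part is small on the base box `A × B`, the set
`{|b1| ≤ A, |b2| ≤ B, |q| ≤ a}` is contained in one cigar (class `ShN0 → ShN`, tilted frame).
-/

set_option autoImplicit false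
set_option linter.unusedVariables false

namespace Crest.Agent.R136.End882

open Finset
open Crest.Agent.R136.Sh605

/-! ### the tilted frame -/

/-- norm of the normal -/
noncomputable def nuT (s1 s2 : ℝ) : ℝ := Real.sqrt (1 + s1 ^ 2 + s2 ^ 2)
/-- norm of the first tangent vector -/
noncomputable def muT (s1 : ℝ) : ℝ := Real.sqrt (1 + s1 ^ 2)

theorem nuT_sq (s1 s2 : ℝ) : nuT s1 s2 ^ 2 = 1 + s1 ^ 2 + s2 ^ 2 := Real.sq_sqrt (by positivity)
theorem muT_sq (s1 : ℝ) : muT s1 ^ 2 = 1 + s1 ^ 2 := Real.sq_sqrt (by positivity)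
theorem nuT_pos (s1 s2 : ℝ) : 0 < nuT s1 s2 := Real.sqrt_pos.2 (by positivity)
theorem muT_pos (s1 : ℝ) : 0 < muT s1 := Real.sqrt_pos.2 (by positivity)

theorem nuT_ge (s1 s2 : ℝ) : 1 ≤ nuT s1 s2 := by
  have h := nuT_sq s1 s2
  have h0 := nuT_pos s1 s2
  nlinarith [sq_nonneg s1, sq_nonneg s2]

theorem muT_ge (s1 : ℝ) : 1 ≤ muT s1 := by
  have h := muT_sq s1
  have h0 := muT_pos s1
  nlinarith [sq_nonneg s1]

theorem nuT_le {s1 s2 : ℝ} (h1 : |s1| ≤ 4) (h2 : |s2| ≤ 4) : nuT s1 s2 ≤ 6 := by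
  have h := nuT_sq s1 s2
  have h0 := nuT_pos s1 s2
  have a1 : s1 ^ 2 ≤ 16 := by rw [← sq_abs]; nlinarith [abs_nonneg s1]
  have a2 : s2 ^ 2 ≤ 16 := by rw [← sq_abs]; nlinarith [abs_nonneg s2]
  nlinarith

/-- `μ ≤ ν` -/
theorem muT_le_nuT (s1 s2 : ℝ) : muT s1 ≤ nuT s1 s2 :=
  Real.sqrt_le_sqrt (by nlinarith [sq_nonneg s2])

theorem abs1_nu (s1 s2 : ℝ) : |s1| ≤ nuT s1 s2 := by
  have h := nuT_sq s1 s2
  have h0 := nuT_pos s1 s2
  rw [← Real.sqrt_sq_eq_abs]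
  exact Real.sqrt_le_sqrt (by nlinarith [sq_nonneg s2])

theorem abs2_nu (s1 s2 : ℝ) : |s2| ≤ nuT s1 s2 := by
  rw [← Real.sqrt_sq_eq_abs]
  exact Real.sqrt_le_sqrt (by nlinarith [sq_nonneg s1])

theorem abs1_mu (s1 : ℝ) : |s1| ≤ muT s1 := by
  rw [← Real.sqrt_sq_eq_abs]
  exact Real.sqrt_le_sqrt (by nlinarith)

/-- coefficients of the tilted frame in the frame `e` -/
noncomputable def tc (s1 s2 : ℝ) : Fin 3 → V3 :=
  ![![1 / nuT s1 s2, -s1 / nuT s1 s2, -s2 / nuT s1 s2],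
    ![s1 / muT s1, 1 / muT s1, 0],
    ![s2 / (nuT s1 s2 * muT s1), -(s1 * s2) / (nuT s1 s2 * muT s1), muT s1 / nuT s1 s2]]

/-- the tilted frame: `0` = normal of the surface of slopes `s1, s2`, `1` = tangent vector over
`e 1` -/
noncomputable def tilt (e : Fin 3 → V3) (s1 s2 : ℝ) : Fin 3 → V3 :=
  fun k => tc s1 s2 k 0 • e 0 + tc s1 s2 k 1 • e 1 + tc s1 s2 k 2 • e 2

theorem dt_tilt (e : Fin 3 → V3) (s1 s2 : ℝ) (k : Fin 3) (x : V3) :
    dt (tilt e s1 s2 k) x = tc s1 s2 k 0 * dt (e 0) x + tc s1 s2 k 1 * dt (e 1) x +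
      tc s1 s2 k 2 * dt (e 2) x := by
  simp only [tilt, add_dt, smul_dt]

theorem tc_ortho (s1 s2 : ℝ) : Ortho (tc s1 s2) := by
  have h1 := nuT_sq s1 s2
  have h2 := muT_sq s1
  have p1 := (nuT_pos s1 s2).ne'
  have p2 := (muT_pos s1).ne'
  have hν := nuT_sq s1 s2
  set ν := nuT s1 s2 with hνd
  set μ := muT s1 with hμd
  have k00 : 1 / ν * (1 / ν) + -s1 / ν * (-s1 / ν) + -s2 / ν * (-s2 / ν) = 1 := by
    field_simp
    linarith
  have k01 : 1 / ν * (s1 / μ) + -s1 / ν * (1 / μ) + -s2 / ν * 0 = 0 := by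
    field_simp
    ring
  have k02 : 1 / ν * (s2 / (ν * μ)) + -s1 / ν * (-(s1 * s2) / (ν * μ)) + -s2 / ν * (μ / ν) = 0 := by
    field_simp
    rw [h2]; ring
  have k11 : s1 / μ * (s1 / μ) + 1 / μ * (1 / μ) + 0 * 0 = 1 := by
    field_simp
    linarith
  have k12 : s1 / μ * (s2 / (ν * μ)) + 1 / μ * (-(s1 * s2) / (ν * μ)) + 0 * (μ / ν) = 0 := by
    field_simp
    ring
  have k22 : s2 / (ν * μ) * (s2 / (ν * μ)) + -(s1 * s2) / (ν * μ) * (-(s1 * s2) / (ν * μ)) +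
      μ / ν * (μ / ν) = 1 := by
    have e1 : s2 ^ 2 + (s1 * s2) ^ 2 + μ ^ 2 * μ ^ 2 = ν ^ 2 * μ ^ 2 := by rw [h1, h2]; ring
    field_simp
    nlinarith
  intro i j
  fin_cases i <;> fin_cases j <;>
    simp only [tc, dt, Fin.zero_eta, Fin.mk_one, Fin.reduceFinMk, Matrix.cons_val,
      Fin.isValue, if_true, Fin.reduceEq, if_false, ← hνd, ← hμd]
  · exact k00
  · exact k01
  · exact k02
  · linarith
  · exact k11
  · exact k12
  · linarith
  · linarith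
  · exact k22

theorem tilt_ortho {e : Fin 3 → V3} (he : Ortho e) (s1 s2 : ℝ) : Ortho (tilt e s1 s2) := by
  have h00 : dt (e 0) (e 0) = 1 := by simpa using he 0 0
  have h11 : dt (e 1) (e 1) = 1 := by simpa using he 1 1
  have h22 : dt (e 2) (e 2) = 1 := by simpa using he 2 2
  have h01 : dt (e 0) (e 1) = 0 := by simpa using he 0 1
  have h02 : dt (e 0) (e 2) = 0 := by simpa using he 0 2
  have h10 : dt (e 1) (e 0) = 0 := by simpa using he 1 0
  have h20 : dt (e 2) (e 0) = 0 := by simpa using he 2 0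
  have h12 : dt (e 1) (e 2) = 0 := by simpa using he 1 2
  have h21 : dt (e 2) (e 1) = 0 := by simpa using he 2 1
  intro i j
  have := tc_ortho s1 s2 i j
  rw [← this, dt_tilt]
  simp only [tilt, dt_add, dt_smul, h00, h11, h22, h01, h02, h10, h20, h12, h21]
  simp only [dt]
  ring

theorem dt_e_tilt {e : Fin 3 → V3} (he : Ortho e) (s1 s2 : ℝ) (j k : Fin 3) :
    dt (e j) (tilt e s1 s2 k) = tc s1 s2 k j := by
  simp only [tilt, dt_add, dt_smul, he j 0, he j 1, he j 2]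
  fin_cases j <;> simp

/-- coordinates in the frame `e` from coordinates in the tilted frame -/
theorem dt_of_tilt (e : Fin 3 → V3) (s1 s2 : ℝ) (j : Fin 3) (x : V3) :
    dt (e j) x = tc s1 s2 0 j * dt (tilt e s1 s2 0) x + tc s1 s2 1 j * dt (tilt e s1 s2 1) x +
      tc s1 s2 2 j * dt (tilt e s1 s2 2) x := by
  have h0 := (tc_ortho s1 s2).col j 0
  have h1 := (tc_ortho s1 s2).col j 1
  have h2 := (tc_ortho s1 s2).col j 2
  rw [dt_tilt, dt_tilt, dt_tilt]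
  have : tc s1 s2 0 j * (tc s1 s2 0 0 * dt (e 0) x + tc s1 s2 0 1 * dt (e 1) x +
        tc s1 s2 0 2 * dt (e 2) x) +
      tc s1 s2 1 j * (tc s1 s2 1 0 * dt (e 0) x + tc s1 s2 1 1 * dt (e 1) x +
        tc s1 s2 1 2 * dt (e 2) x) +
      tc s1 s2 2 j * (tc s1 s2 2 0 * dt (e 0) x + tc s1 s2 2 1 * dt (e 1) x +
        tc s1 s2 2 2 * dt (e 2) x) =
      (tc s1 s2 0 j * tc s1 s2 0 0 + tc s1 s2 1 j * tc s1 s2 1 0 + tc s1 s2 2 j * tc s1 s2 2 0) *
        dt (e 0) x +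
      (tc s1 s2 0 j * tc s1 s2 0 1 + tc s1 s2 1 j * tc s1 s2 1 1 + tc s1 s2 2 j * tc s1 s2 2 1) *
        dt (e 1) x +
      (tc s1 s2 0 j * tc s1 s2 0 2 + tc s1 s2 1 j * tc s1 s2 1 2 + tc s1 s2 2 j * tc s1 s2 2 2) *
        dt (e 2) x := by ring
  rw [this, h0, h1, h2]
  fin_cases j <;> simp

/-! ### explicit quadratic functions -/

theorem aux3 {c x X : ℝ} (hc : |c| ≤ 1) (hx : |x| ≤ X) : |c * x| ≤ X := by
  rw [abs_mul]
  nlinarith [abs_nonneg c, abs_nonneg x]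

/-- explicit form of `q` around the line `y` in the frame `e` -/
def FQ (e : Fin 3 → V3) (y : Ln4) (q : ℝ → V3 → ℝ) (zc s1 s2 m1 m2 k11 k12 k22 : ℝ) : Prop :=
  ∀ (z : ℝ) (x : V3), q z x = q z (y.pos z) + dt (e 0) (x - y.pos z) -
    (s1 + m1 * (z - zc)) * dt (e 1) (x - y.pos z) -
    (s2 + m2 * (z - zc)) * dt (e 2) (x - y.pos z) -
    (k11 * dt (e 1) (x - y.pos z) ^ 2 +
      k12 * (dt (e 1) (x - y.pos z) * dt (e 2) (x - y.pos z)) +
      k22 * dt (e 2) (x - y.pos z) ^ 2)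

/-- the second order part is small on the base box `A × B`, over a window of length `ρ` -/
structure Flat (κ ρ A B m1 m2 k11 k12 k22 : ℝ) : Prop where
  m1 : |m1| * ρ * A ≤ κ * B
  m2 : |m2| * ρ ≤ κ
  k11 : |k11| * A ^ 2 ≤ κ * B
  k12 : |k12| * A ≤ κ
  k22 : |k22| * B ≤ κ

section

variable {κ ρ A B m1 m2 k11 k12 k22 ζ c1 c2 u1 u2 v1 v2 : ℝ}

/-- variation of the slope, any direction -/
theorem Flat.err (h : Flat κ ρ A B m1 m2 k11 k12 k22) (hκ : 0 ≤ κ) (hB : 0 < B) (hBA : B ≤ A)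
    (hζ : |ζ| ≤ ρ) (hc1 : |c1| ≤ 1) (hc2 : |c2| ≤ 1) (hu1 : |u1| ≤ 64 * A) (hv1 : |v1| ≤ 64 * A)
    (hu2 : |u2| ≤ 40 * B) (hv2 : |v2| ≤ 40 * B) :
    |m1 * ζ * c1 + m2 * ζ * c2 + k11 * c1 * (u1 + v1) + k12 * (c1 * v2 + u1 * c2) +
      k22 * c2 * (u2 + v2)| ≤ 314 * κ := by
  have hA : 0 < A := hB.trans_le hBA
  have hρ : 0 ≤ ρ := (abs_nonneg _).trans hζ
  have e1 : |m1 * ζ * c1| ≤ κ := by
    rw [abs_mul, abs_mul]
    have h1 : |m1| * |ζ| * |c1| ≤ |m1| * ρ * 1 := by gcongr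
    have h2 : |m1| * ρ * A ≤ κ * A := h.m1.trans (by gcongr)
    have h3 : |m1| * ρ ≤ κ := le_of_mul_le_mul_right h2 hA
    linarith
  have e2 : |m2 * ζ * c2| ≤ κ := by
    rw [abs_mul, abs_mul]
    have h1 : |m2| * |ζ| * |c2| ≤ |m2| * ρ * 1 := by gcongr
    have := h.m2
    linarith
  have e3 : |k11 * c1 * (u1 + v1)| ≤ 128 * κ := by
    rw [abs_mul, abs_mul]
    have h0 : |u1 + v1| ≤ 128 * A := (abs_add_le _ _).trans (by linarith)
    have h1 : |k11| * |c1| * |u1 + v1| ≤ |k11| * 1 * (128 * A) := by gcongr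
    have h2 : |k11| * A * A ≤ κ * A := by
      have := h.k11
      calc |k11| * A * A = |k11| * A ^ 2 := by ring
        _ ≤ κ * B := this
        _ ≤ κ * A := by gcongr
    have h3 : |k11| * A ≤ κ := le_of_mul_le_mul_right h2 hA
    linarith
  have e4 : |k12 * (c1 * v2 + u1 * c2)| ≤ 104 * κ := by
    rw [abs_mul]
    have h0 : |c1 * v2 + u1 * c2| ≤ 104 * A := by
      refine (abs_add_le _ _).trans ?_
      rw [abs_mul, abs_mul]
      have : |c1| * |v2| ≤ 1 * (40 * B) := by gcongr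
      have : |u1| * |c2| ≤ 64 * A * 1 := by gcongr
      linarith
    have h1 : |k12| * |c1 * v2 + u1 * c2| ≤ |k12| * (104 * A) := by gcongr
    have := h.k12
    linarith
  have e5 : |k22 * c2 * (u2 + v2)| ≤ 80 * κ := by
    rw [abs_mul, abs_mul]
    have h0 : |u2 + v2| ≤ 80 * B := (abs_add_le _ _).trans (by linarith)
    have h1 : |k22| * |c2| * |u2 + v2| ≤ |k22| * 1 * (80 * B) := by gcongr
    have := h.k22
    linarith
  have a1 := abs_add_le (m1 * ζ * c1 + m2 * ζ * c2 + k11 * c1 * (u1 + v1) +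
    k12 * (c1 * v2 + u1 * c2)) (k22 * c2 * (u2 + v2))
  have a2 := abs_add_le (m1 * ζ * c1 + m2 * ζ * c2 + k11 * c1 * (u1 + v1))
    (k12 * (c1 * v2 + u1 * c2))
  have a3 := abs_add_le (m1 * ζ * c1 + m2 * ζ * c2) (k11 * c1 * (u1 + v1))
  have a4 := abs_add_le (m1 * ζ * c1) (m2 * ζ * c2)
  linarith

/-- variation of the slope in the direction of the first tangent vector -/
theorem Flat.err1 (h : Flat κ ρ A B m1 m2 k11 k12 k22) (hκ : 0 ≤ κ) (hB : 0 < B) (hBA : B ≤ A)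
    (hζ : |ζ| ≤ ρ) (hc1 : |c1| ≤ 1) (hu1 : |u1| ≤ 64 * A) (hv1 : |v1| ≤ 64 * A)
    (hv2 : |v2| ≤ 40 * B) :
    |m1 * ζ * c1 + k11 * c1 * (u1 + v1) + k12 * (c1 * v2)| ≤ 169 * κ * (B / A) := by
  have hA : 0 < A := hB.trans_le hBA
  have hρ : 0 ≤ ρ := (abs_nonneg _).trans hζ
  have e1 : |m1 * ζ * c1| ≤ κ * (B / A) := by
    rw [abs_mul, abs_mul, ← mul_div_assoc, le_div_iff₀ hA]
    have h1 : |m1| * |ζ| * |c1| * A ≤ |m1| * ρ * 1 * A := by gcongr
    have := h.m1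
    linarith
  have e3 : |k11 * c1 * (u1 + v1)| ≤ 128 * (κ * (B / A)) := by
    rw [abs_mul, abs_mul, ← mul_div_assoc, ← mul_div_assoc, le_div_iff₀ hA]
    have h0 : |u1 + v1| ≤ 128 * A := (abs_add_le _ _).trans (by linarith)
    have h1 : |k11| * |c1| * |u1 + v1| * A ≤ |k11| * 1 * (128 * A) * A := by gcongr
    have := h.k11
    nlinarith
  have e4 : |k12 * (c1 * v2)| ≤ 40 * (κ * (B / A)) := by
    rw [abs_mul, abs_mul, ← mul_div_assoc, ← mul_div_assoc, le_div_iff₀ hA]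
    have h1 : |k12| * (|c1| * |v2|) * A ≤ |k12| * (1 * (40 * B)) * A := by gcongr
    have h2 := mul_le_mul_of_nonneg_right h.k12 hB.le
    linarith
  have a3 := abs_add_le (m1 * ζ * c1 + k11 * c1 * (u1 + v1)) (k12 * (c1 * v2))
  have a4 := abs_add_le (m1 * ζ * c1) (k11 * c1 * (u1 + v1))
  linarith

/-- the second order part itself -/
theorem Flat.val (h : Flat κ ρ A B m1 m2 k11 k12 k22) (hκ : 0 ≤ κ) (hB : 0 < B) (hBA : B ≤ A)
    (hζ : |ζ| ≤ ρ) (hu1 : |u1| ≤ A) (hu2 : |u2| ≤ B) :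
    |m1 * ζ * u1 + m2 * ζ * u2 + (k11 * u1 ^ 2 + k12 * (u1 * u2) + k22 * u2 ^ 2)| ≤
      5 * κ * B := by
  have hA : 0 < A := hB.trans_le hBA
  have hρ : 0 ≤ ρ := (abs_nonneg _).trans hζ
  have e1 : |m1 * ζ * u1| ≤ κ * B := by
    rw [abs_mul, abs_mul]
    have h1 : |m1| * |ζ| * |u1| ≤ |m1| * ρ * A := by gcongr
    have := h.m1
    linarith
  have e2 : |m2 * ζ * u2| ≤ κ * B := by
    rw [abs_mul, abs_mul]
    have h1 : |m2| * |ζ| * |u2| ≤ |m2| * ρ * B := by gcongr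
    have := mul_le_mul_of_nonneg_right h.m2 hB.le
    linarith
  have e3 : |k11 * u1 ^ 2| ≤ κ * B := by
    rw [abs_mul, abs_pow]
    have h1 : |k11| * |u1| ^ 2 ≤ |k11| * A ^ 2 := by gcongr
    have := h.k11
    linarith
  have e4 : |k12 * (u1 * u2)| ≤ κ * B := by
    rw [abs_mul, abs_mul]
    have h1 : |k12| * (|u1| * |u2|) ≤ |k12| * (A * B) := by gcongr
    have := mul_le_mul_of_nonneg_right h.k12 hB.le
    linarith
  have e5 : |k22 * u2 ^ 2| ≤ κ * B := by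
    rw [abs_mul, abs_pow]
    have h1 : |k22| * |u2| ^ 2 ≤ |k22| * B ^ 2 := by gcongr
    have := mul_le_mul_of_nonneg_right h.k22 hB.le
    nlinarith
  have a1 := abs_add_le (m1 * ζ * u1 + m2 * ζ * u2) (k11 * u1 ^ 2 + k12 * (u1 * u2) + k22 * u2 ^ 2)
  have a2 := abs_add_le (m1 * ζ * u1) (m2 * ζ * u2)
  have a3 := abs_add_le (k11 * u1 ^ 2 + k12 * (u1 * u2)) (k22 * u2 ^ 2)
  have a4 := abs_add_le (k11 * u1 ^ 2) (k12 * (u1 * u2))
  linarith

end

/-- scaling a quadratic function -/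
theorem isQ_smulc {q : ℝ → V3 → ℝ} (hq : IsQ q) (r : ℝ) : IsQ fun z x => q z x / r := by
  obtain ⟨c0, c1, c2, b, d, g, h⟩ := hq
  refine ⟨c0 / r, c1 / r, c2 / r, fun i => b i / r, fun i => d i / r, fun i j => g i j / r,
    fun z x => ?_⟩
  beta_reduce
  rw [h z x]
  simp only [Fin.sum_univ_three]
  ring

/-- widths of the sheet -/
def wFQ (A B : ℝ) : V3 := ![10 * B, 12 * A, 10 * B]

section sheet

variable {e : Fin 3 → V3} {y : Ln4} {q : ℝ → V3 → ℝ}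
    {zc s1 s2 m1 m2 k11 k12 k22 z0 ρ A B a r0 : ℝ}

/-- base coordinates in the doubled box -/
theorem base_bd (hB : 0 < B) (hBA : B ≤ A) {z : ℝ} {x : V3}
    (hx : InK (tilt e s1 s2) y (dbl3 (wFQ A B)) z x) :
    |dt (e 1) (x - y.pos z)| ≤ 64 * A ∧ |dt (e 2) (x - y.pos z)| ≤ 40 * B := by
  have h0 := hx 0
  have h1 := hx 1
  have h2 := hx 2
  simp only [dbl3, wFQ, Matrix.cons_val] at h0 h1 h2
  have ho := tc_ortho s1 s2
  constructor
  · rw [dt_of_tilt e s1 s2 1]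
    have b0 := aux3 (ho.abs_le_one 0 1) h0
    have b1 := aux3 (ho.abs_le_one 1 1) h1
    have b2 := aux3 (ho.abs_le_one 2 1) h2
    refine (abs_add_le _ _).trans ?_
    have := abs_add_le (tc s1 s2 0 1 * dt (tilt e s1 s2 0) (x - y.pos z))
      (tc s1 s2 1 1 * dt (tilt e s1 s2 1) (x - y.pos z))
    linarith
  · rw [dt_of_tilt e s1 s2 2]
    have b0 := aux3 (ho.abs_le_one 0 2) h0
    have b1 : tc s1 s2 1 2 = 0 := rfl
    have b2 := aux3 (ho.abs_le_one 2 2) h2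
    rw [b1, zero_mul, add_zero]
    refine (abs_add_le _ _).trans ?_
    linarith

/-- `q` along a direction of the tilted frame -/
theorem FQ.diff (he : Ortho e) (hF : FQ e y q zc s1 s2 m1 m2 k11 k12 k22) (z : ℝ) (x : V3)
    (τ : ℝ) (k : Fin 3) :
    q z (x + τ • tilt e s1 s2 k) - q z x =
      τ * (tc s1 s2 k 0 - s1 * tc s1 s2 k 1 - s2 * tc s1 s2 k 2) -
      τ * (m1 * (z - zc) * tc s1 s2 k 1 + m2 * (z - zc) * tc s1 s2 k 2 +
        k11 * tc s1 s2 k 1 * (dt (e 1) (x - y.pos z) +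
          dt (e 1) (x + τ • tilt e s1 s2 k - y.pos z)) +
        k12 * (tc s1 s2 k 1 * dt (e 2) (x + τ • tilt e s1 s2 k - y.pos z) +
          dt (e 1) (x - y.pos z) * tc s1 s2 k 2) +
        k22 * tc s1 s2 k 2 * (dt (e 2) (x - y.pos z) +
          dt (e 2) (x + τ • tilt e s1 s2 k - y.pos z))) := by
  have key : ∀ j, dt (e j) (x + τ • tilt e s1 s2 k - y.pos z) =
      dt (e j) (x - y.pos z) + τ * tc s1 s2 k j := by
    intro j
    rw [dt_sub, dt_add, dt_smul, dt_e_tilt he, dt_sub]; ring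
  rw [hF z (x + τ • tilt e s1 s2 k), hF z x, key 0, key 1, key 2]
  ring

/-- **sheet from an explicit quadratic function** -/
theorem shN_of_FQ (he : Ortho e) (hq : IsQ q) (hF : FQ e y q zc s1 s2 m1 m2 k11 k12 k22)
    (hs1 : |s1| ≤ 4) (hs2 : |s2| ≤ 4) (hz0 : z0 ≤ zc) (hz1 : zc ≤ z0 + ρ) (ha : 0 < a)
    (haB : a ≤ B) (hBA : B ≤ A) (hfl : Flat (1 / 1024) ρ A B m1 m2 k11 k12 k22)
    (hr : 6 * r0 ≤ a) :
    ShN0 (tilt e s1 s2) y (wFQ A B) (fun z x => q z x / nuT s1 s2) (a / nuT s1 s2) z0 ρ r0 := by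
  have hB : 0 < B := ha.trans_le haB
  have hA : 0 < A := hB.trans_le hBA
  have hν := nuT_ge s1 s2
  have hν0 := nuT_pos s1 s2
  have hν6 := nuT_le hs1 hs2
  have hζ : ∀ z, z0 ≤ z → z ≤ z0 + ρ → |z - zc| ≤ ρ := by
    intro z h1 h2
    rw [abs_le]; constructor <;> linarith
  have ho := tc_ortho s1 s2
  have hmain : ∀ z, z0 ≤ z → z ≤ z0 + ρ → ∀ (x : V3) (τ : ℝ) (k : Fin 3), 0 ≤ τ →
      InK (tilt e s1 s2) y (dbl3 (wFQ A B)) z x →
      InK (tilt e s1 s2) y (dbl3 (wFQ A B)) z (x + τ • tilt e s1 s2 k) →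
      |q z (x + τ • tilt e s1 s2 k) - q z x -
        τ * (tc s1 s2 k 0 - s1 * tc s1 s2 k 1 - s2 * tc s1 s2 k 2)| ≤ τ * (314 / 1024) := by
    intro z h1 h2 x τ k hτ hx hx'
    obtain ⟨u1, u2⟩ := base_bd hB hBA hx
    obtain ⟨v1, v2⟩ := base_bd hB hBA hx'
    have := hfl.err (by norm_num) hB hBA (hζ z h1 h2) (ho.abs_le_one k 1) (ho.abs_le_one k 2)
      u1 v1 u2 v2
    rw [hF.diff he, sub_sub_cancel_left, abs_neg, abs_mul, abs_of_nonneg hτ]
    refine mul_le_mul_of_nonneg_left (this.trans (by norm_num)) hτ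
  refine
    { ortho := tilt_ortho he s1 s2
      isQ := isQ_smulc hq _
      w0_eq := rfl
      a_le := ?_
      w_le := ?_
      r0_le := ?_
      st0 := ?_
      st1 := ?_
      st2 := ?_ }
  · change a / nuT s1 s2 ≤ 10 * B
    rw [div_le_iff₀ hν0]
    nlinarith
  · change 10 * B ≤ 12 * A
    linarith
  · rw [le_div_iff₀ hν0]
    by_cases h : 0 ≤ r0
    · nlinarith
    · push Not at h
      nlinarith
  · intro z h1 h2 x τ hτ hx hx'
    have h := hmain z h1 h2 x τ 0 hτ hx hx'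
    have e1 : tc s1 s2 0 0 - s1 * tc s1 s2 0 1 - s2 * tc s1 s2 0 2 = nuT s1 s2 := by
      have := nuT_sq s1 s2
      simp only [tc, Matrix.cons_val]
      field_simp
      linarith
    rw [e1, abs_le] at h
    rw [← sub_div]
    constructor
    · rw [le_div_iff₀ hν0]
      have : τ ≤ τ * nuT s1 s2 := le_mul_of_one_le_right hτ hν
      linarith [h.1]
    · rw [div_le_iff₀ hν0]
      have : τ ≤ τ * nuT s1 s2 := le_mul_of_one_le_right hτ hν
      linarith [h.2]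
  · intro z h1 h2 x τ hτ hx hx'
    obtain ⟨u1, u2⟩ := base_bd hB hBA hx
    obtain ⟨v1, v2⟩ := base_bd hB hBA hx'
    have h := hfl.err1 (by norm_num) hB hBA (hζ z h1 h2) (ho.abs_le_one 1 1) u1 v1 v2
    have e1 : tc s1 s2 1 0 - s1 * tc s1 s2 1 1 - s2 * tc s1 s2 1 2 = 0 := by
      simp only [tc, Matrix.cons_val]
      ring
    have e2 : tc s1 s2 1 2 = 0 := rfl
    have hd := hF.diff he z x τ 1
    rw [e1, e2] at hd
    simp only [mul_zero, add_zero, zero_mul, zero_sub] at hd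
    rw [← sub_div, hd, abs_div, abs_neg, abs_mul, abs_of_nonneg hτ, abs_of_pos hν0,
      div_le_iff₀ hν0]
    change _ ≤ 10 * B / (12 * A) * τ * nuT s1 s2
    have e3 : 10 * B / (12 * A) * τ = τ * (10 / 12 * (B / A)) := by field_simp
    rw [e3]
    have h4 : 0 ≤ τ * (10 / 12 * (B / A)) := by positivity
    refine le_trans ?_ (le_mul_of_one_le_right h4 hν)
    refine mul_le_mul_of_nonneg_left (h.trans ?_) hτ
    have : 0 ≤ B / A := by positivity
    nlinarith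
  · intro z h1 h2 x τ hτ hx hx'
    have h := hmain z h1 h2 x τ 2 hτ hx hx'
    have e1 : tc s1 s2 2 0 - s1 * tc s1 s2 2 1 - s2 * tc s1 s2 2 2 = 0 := by
      have h5 := muT_sq s1
      have p1 := (nuT_pos s1 s2).ne'
      have p2 := (muT_pos s1).ne'
      simp only [tc, Matrix.cons_val]
      field_simp
      rw [h5]; ring
    rw [e1, mul_zero, sub_zero] at h
    rw [← sub_div, abs_div, abs_of_pos hν0, div_le_iff₀ hν0]
    have : τ ≤ τ * nuT s1 s2 := le_mul_of_one_le_right hτ hν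
    linarith

theorem tilt2_aux {ν μ s1 s2 u0 u1 u2 : ℝ} (hν : ν ^ 2 = 1 + s1 ^ 2 + s2 ^ 2)
    (hμ : μ ^ 2 = 1 + s1 ^ 2) (hν0 : 0 < ν) (hμ0 : 0 < μ) :
    s2 / (ν * μ) * u0 + -(s1 * s2) / (ν * μ) * u1 + μ / ν * u2 =
      s2 / (ν * μ) * (u0 - s1 * u1 - s2 * u2) + ν * u2 / μ := by
  have e : ν * u2 / μ = s2 / (ν * μ) * (s2 * u2) + μ / ν * u2 := by
    field_simp
    rw [hν, hμ]; ring
  rw [e]; ring

set_option maxHeartbeats 400000 in
/-- **the lines of the sheet** -/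
theorem mem_of_FQ (hF : FQ e y q zc s1 s2 m1 m2 k11 k12 k22)
    (hs1 : |s1| ≤ 4) (hs2 : |s2| ≤ 4) (hz0 : z0 ≤ zc) (hz1 : zc ≤ z0 + ρ) (ha : 0 < a)
    (haB : a ≤ B) (hBA : B ≤ A) (hfl : Flat (1 / 1024) ρ A B m1 m2 k11 k12 k22) {t : Ln4}
    (hy : ∀ z, z0 ≤ z → z ≤ z0 + ρ → |q z (y.pos z)| ≤ a)
    (ht : ∀ z, z0 ≤ z → z ≤ z0 + ρ → |dt (e 1) (t.pos z - y.pos z)| ≤ A ∧
      |dt (e 2) (t.pos z - y.pos z)| ≤ B ∧ |q z (t.pos z)| ≤ a) :
    InSheet t (tilt e s1 s2) y (wFQ A B) (fun z x => q z x / nuT s1 s2) (a / nuT s1 s2) z0 ρ := by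
  have hB : 0 < B := ha.trans_le haB
  have hA : 0 < A := hB.trans_le hBA
  have hν := nuT_ge s1 s2
  have hν0 := nuT_pos s1 s2
  have hν6 := nuT_le hs1 hs2
  have hμ := muT_ge s1
  have hμ0 := muT_pos s1
  intro z h1 h2
  obtain ⟨t1, t2, t3⟩ := ht z h1 h2
  have hyz := hy z h1 h2
  have hζ : |z - zc| ≤ ρ := by rw [abs_le]; constructor <;> linarith
  set u0 := dt (e 0) (t.pos z - y.pos z) with hu0
  set u1 := dt (e 1) (t.pos z - y.pos z) with hu1
  set u2 := dt (e 2) (t.pos z - y.pos z) with hu2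
  have hv := hfl.val (by norm_num) hB hBA hζ t1 t2
  have hq := hF z (t.pos z)
  rw [← hu0, ← hu1, ← hu2] at hq
  set V := m1 * (z - zc) * u1 + m2 * (z - zc) * u2 + (k11 * u1 ^ 2 + k12 * (u1 * u2) +
    k22 * u2 ^ 2) with hV
  have hr : u0 - s1 * u1 - s2 * u2 = q z (t.pos z) - q z (y.pos z) + V := by
    rw [hq, hV]; ring
  have hrb : |u0 - s1 * u1 - s2 * u2| ≤ 3 * B := by
    rw [hr]
    have a1 := abs_add_le (q z (t.pos z) - q z (y.pos z)) V
    have a2 := abs_sub (q z (t.pos z)) (q z (y.pos z))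
    linarith
  have hu0b : |u0| ≤ 11 * A := by
    have e1 : u0 = (u0 - s1 * u1 - s2 * u2) + (s1 * u1 + s2 * u2) := by ring
    rw [e1]
    have a1 := abs_add_le (u0 - s1 * u1 - s2 * u2) (s1 * u1 + s2 * u2)
    have a2 := abs_add_le (s1 * u1) (s2 * u2)
    have a3 : |s1 * u1| ≤ 4 * A := by rw [abs_mul]; gcongr
    have a4 : |s2 * u2| ≤ 4 * B := by rw [abs_mul]; gcongr
    linarith
  refine ⟨?_, ?_⟩
  · intro k
    rw [dt_tilt, ← hu0, ← hu1, ← hu2]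
    fin_cases k
    · change |1 / nuT s1 s2 * u0 + -s1 / nuT s1 s2 * u1 + -s2 / nuT s1 s2 * u2| ≤ 10 * B
      have e1 : 1 / nuT s1 s2 * u0 + -s1 / nuT s1 s2 * u1 + -s2 / nuT s1 s2 * u2 =
          (u0 - s1 * u1 - s2 * u2) / nuT s1 s2 := by ring
      rw [e1, abs_div, abs_of_pos hν0, div_le_iff₀ hν0]
      nlinarith
    · change |s1 / muT s1 * u0 + 1 / muT s1 * u1 + 0 * u2| ≤ 12 * A
      rw [zero_mul, add_zero]
      have c1 : |s1 / muT s1| ≤ 1 := by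
        rw [abs_div, abs_of_pos hμ0, div_le_one hμ0]; exact abs1_mu s1
      have c2 : |1 / muT s1| ≤ 1 := by
        rw [abs_div, abs_of_pos hμ0, abs_one, div_le_one hμ0]; exact hμ
      have a1 := aux3 c1 hu0b
      have a2 := aux3 c2 t1
      have := abs_add_le (s1 / muT s1 * u0) (1 / muT s1 * u1)
      linarith
    · change |s2 / (nuT s1 s2 * muT s1) * u0 + -(s1 * s2) / (nuT s1 s2 * muT s1) * u1 +
        muT s1 / nuT s1 s2 * u2| ≤ 10 * B
      have e1 : s2 / (nuT s1 s2 * muT s1) * u0 + -(s1 * s2) / (nuT s1 s2 * muT s1) * u1 +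
        muT s1 / nuT s1 s2 * u2 = s2 / (nuT s1 s2 * muT s1) * (u0 - s1 * u1 - s2 * u2) +
          nuT s1 s2 * u2 / muT s1 := tilt2_aux (nuT_sq s1 s2) (muT_sq s1) hν0 hμ0
      rw [e1]
      have c1 : |s2 / (nuT s1 s2 * muT s1)| ≤ 1 := by
        rw [abs_div, abs_of_pos (mul_pos hν0 hμ0), div_le_one (mul_pos hν0 hμ0)]
        have := abs2_nu s1 s2
        nlinarith
      have a1 := aux3 c1 hrb
      have a2 : |nuT s1 s2 * u2 / muT s1| ≤ 6 * B := by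
        rw [abs_div, abs_mul, abs_of_pos hν0, abs_of_pos hμ0, div_le_iff₀ hμ0]
        have : nuT s1 s2 * |u2| ≤ 6 * B := by gcongr
        nlinarith
      have := abs_add_le (s2 / (nuT s1 s2 * muT s1) * (u0 - s1 * u1 - s2 * u2))
        (nuT s1 s2 * u2 / muT s1)
      linarith
  · beta_reduce
    rw [abs_div, abs_of_pos hν0]
    exact div_le_div_of_nonneg_right t3 hν0.le

end sheet

end Crest.Agent.R136.End882
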