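import Crest.Agent.R136.Sh4_605

/-!
# R136 (S0187): the plank hypothesis of Lemma A_Q, thin case (helper605)
-/

set_option autoImplicit false
set_option linter.unusedVariables false

namespace Crest.Agent.R136.Sh605

open Finset Crest.Agent.R136.LmQ861

theorem dt_eq_sum (x y : V3) : dt x y = ∑ i, x i * y i := by
  rw [Fin.sum_univ_three]; rfl

/-- the frame `(n, E 0, E 1)` -/
def frm (n : V3) (E : Fin 2 → V3) : Fin 3 → V3 := ![n, E 0, E 1]

theorem frm_ortho {n : V3} {E : Fin 2 → V3} (hn : ∑ i, n i ^ 2 = 1)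
    (hE : ∀ a b, ∑ i, E a i * E b i = if a = b then 1 else 0) (hEn : ∀ a, ∑ i, E a i * n i = 0) :
    Ortho (frm n E) := by
  have h00 : dt n n = 1 := by
    rw [dt_eq_sum, ← hn]; exact sum_congr rfl fun i _ => by ring
  have h11 : dt (E 0) (E 0) = 1 := by rw [dt_eq_sum]; simpa using hE 0 0
  have h22 : dt (E 1) (E 1) = 1 := by rw [dt_eq_sum]; simpa using hE 1 1
  have h12 : dt (E 0) (E 1) = 0 := by rw [dt_eq_sum]; simpa using hE 0 1
  have h21 : dt (E 1) (E 0) = 0 := by rw [dt_eq_sum]; simpa using hE 1 0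
  have h10 : dt (E 0) n = 0 := by rw [dt_eq_sum]; exact hEn 0
  have h20 : dt (E 1) n = 0 := by rw [dt_eq_sum]; exact hEn 1
  have h01 : dt n (E 0) = 0 := by rw [dt_comm]; exact h10
  have h02 : dt n (E 1) = 0 := by rw [dt_comm]; exact h20
  intro i j
  fin_cases i <;> fin_cases j <;> simp [frm, h00, h11, h22, h12, h21, h10, h20, h01, h02]

open Classical in
/-- **the plank hypothesis of `lemmaQ_exp` from D-max for sheets, thin case** (`6 H a ≤ w 2`).
`S'` a sheet over `[z0, z0 + ρ] = [zc - lam, zc + lam]`, `T` lines of `S'` for which D-max holds over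
the window `[z1, z1 + ρ1]`, within `2 lam H / R` of the height of the incidence `x`. -/
theorem dmaxQ {ι : Type} (T : Finset ι) (L : ι → Ln4) {e : Fin 3 → V3} {c : Ln4} {w : V3}
    {q : ℝ → V3 → ℝ} {a z0 ρ zc lam z1 ρ1 r0 r1 D wmax : ℝ} {Rw : ℝ → ℝ → ℝ → ℝ}
    (hS : Sheet e c w q a z0 ρ r1) (ha : 0 < a) (hD : 0 ≤ D)
    (hR0 : ∀ x y z, 0 ≤ x → 0 ≤ y → 0 ≤ z → 0 ≤ Rw x y z)
    (hRm : ∀ x y z x' y' z', 0 ≤ x → 0 ≤ y → 0 ≤ z → x ≤ x' → y ≤ y' → z ≤ z' →
      Rw x y z ≤ Rw x' y' z')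
    (hz0 : z0 = zc - lam) (hρ : ρ = 2 * lam) (hlam : 0 < lam) (h01 : z0 ≤ z1)
    (h11 : z1 + ρ1 ≤ z0 + ρ) (hmax : DMaxR T L z1 ρ1 D Rw r0 wmax)
    (hT : ∀ t ∈ T, InSheet (L t) e c w q a z0 ρ) {x : ι × ℤ}
    (hx : InSheet (L x.1) e c w q a z0 ρ) {R : ℝ} {H : ℕ} (hH : 0 < H) (hR : 0 < R)
    (hHR : (H : ℝ) ^ 2 ≤ R) (hbig : 48924 * (H : ℝ) ≤ R)
    (hnear : ∀ z, z1 ≤ z → z ≤ z1 + ρ1 → |z - (zc + lam * ((x.2 : ℝ) / R))| ≤ 2 * lam * H / R)
    (hr0 : 0 ≤ r0) (hr1 : R * r0 ≤ 2718 * r1) (hthin : 6 * H * a ≤ w 2)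
    (hwm : 8154 * (H / R) * w 1 ≤ wmax) {n : V3} (hn : ∑ i, n i ^ 2 = 1) {E : Fin 2 → V3}
    (hE : ∀ a b, ∑ i, E a i * E b i = if a = b then 1 else 0) (hEn : ∀ a, ∑ i, E a i * n i = 0)
    {wd : Fin 2 → ℝ} (hw : ∀ a, 1 / (H : ℝ) ≤ wd a ∧ wd a ≤ 1) :
    ((T.filter fun t => Plk (fun l => gam e c w q a zc lam (L l))
      (fun l => vel e c w q a zc lam (L l)) R H n E wd x (t, x.2)).card : ℝ) ≤
      27 * 2718 ^ 3 * D / R ^ 3 * (a * w 2 * w 1 * Rw (16308 * (H / R) * a)
        (16308 * (H / R) * w 2) (16308 * (H / R) * w 1)) * (wd 0 * wd 1) * (H : ℝ) ^ 2 := by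
  have hH0 : (0 : ℝ) < H := by exact_mod_cast hH
  have hH1 : (1 : ℝ) ≤ H := by exact_mod_cast hH
  have hw2 : 0 < w 2 := ha.trans_le hS.a_le
  have hw1 : 0 < w 1 := hw2.trans_le hS.w_le
  have hwd : ∀ k, 0 < wd k := fun k => lt_of_lt_of_le (by positivity) (hw k).1
  set σ : ℝ := 2718 / R with hσ
  set S : ℝ := 2718 * H / R with hSd
  set s : V3 := ![2718 / R, 2718 * wd 0 * H / R, 2718 * wd 1 * H / R] with hs
  have hs0 : ∀ i, 0 < s i := by
    intro i
    have := hwd 0
    have := hwd 1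
    fin_cases i
    · change 0 < 2718 / R; positivity
    · change 0 < 2718 * wd 0 * H / R; positivity
    · change 0 < 2718 * wd 1 * H / R; positivity
  have hwdH : ∀ k, 1 ≤ wd k * H := fun k => by
    have := (hw k).1
    rwa [div_le_iff₀ hH0] at this
  have hσs : ∀ i, σ ≤ s i := by
    intro i
    fin_cases i
    · exact le_rfl
    · change 2718 / R ≤ 2718 * wd 0 * H / R
      have := hwdH 0
      gcongr
      linarith
    · change 2718 / R ≤ 2718 * wd 1 * H / R
      have := hwdH 1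
      gcongr
      linarith
  have hsS : ∀ i, s i ≤ S := by
    intro i
    fin_cases i
    · change 2718 / R ≤ 2718 * H / R
      gcongr
      linarith
    · change 2718 * wd 0 * H / R ≤ 2718 * H / R
      have := (hw 0).2
      gcongr
      nlinarith
    · change 2718 * wd 1 * H / R ≤ 2718 * H / R
      have := (hw 1).2
      gcongr
      nlinarith
  have hmain := dmax_thin T L (hS.restrict h01 h11) ha hD hR0 hRm hmax
    (fun t ht z hz hz' => (hT t ht z (h01.trans hz) (hz'.trans h11)).1)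
    (y := L x.1) (fun z hz hz' => (hx z (h01.trans hz) (hz'.trans h11)).1)
    (frm_ortho hn hE hEn) hs0 hsS hσs (by positivity)
    (by rw [hSd, ← mul_div_assoc, div_le_one hR]; linarith) hr0
    (by rw [hσ, div_mul_eq_mul_div, le_div_iff₀ hR]; linarith)
    (by
      rw [hSd, hσ]
      calc 6 * (2718 * H / R) * a = 2718 / R * (6 * H * a) := by ring
        _ ≤ 2718 / R * w 2 := by gcongr)
    (by
      refine le_trans (le_of_eq ?_) hwm
      rw [hSd]; ring)
  have hsub : (T.filter fun t => Plk (fun l => gam e c w q a zc lam (L l))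
      (fun l => vel e c w q a zc lam (L l)) R H n E wd x (t, x.2)) ⊆
      T.filter fun t => ∀ z, z1 ≤ z → z ≤ z1 + ρ1 → ∀ i,
        |dt (frm n E i) (nrm e w q a (L x.1) (L t) z)| ≤ s i := by
    intro t ht
    rw [mem_filter] at ht ⊢
    obtain ⟨ht1, hp1, hp2, hp3⟩ := ht
    refine ⟨ht1, fun z hz hz' => ?_⟩
    set u0 : ℝ := (x.2 : ℝ) / R with hu0
    obtain ⟨u, hu⟩ : ∃ u, z = zc + lam * u := ⟨(z - zc) / lam, by field_simp; ring⟩
    have hnz := hnear z hz hz'
    have hun : |u - u0| ≤ 2 * (H / R) := by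
      have e1 : z - (zc + lam * u0) = lam * (u - u0) := by rw [hu]; ring
      rw [e1, abs_mul, abs_of_pos hlam] at hnz
      have e2 : 2 * lam * H / R = lam * (2 * (H / R)) := by ring
      rw [e2] at hnz
      exact le_of_mul_le_mul_left hnz hlam
    have hO := frm_ortho hn hE hEn
    have hq4 : 4 * |u - u0| ^ 2 ≤ 16 / R := by
      have e1 : |u - u0| ^ 2 ≤ (2 * (H / R)) ^ 2 := by gcongr
      have e2 : (2 * ((H : ℝ) / R)) ^ 2 = 4 * (H ^ 2 / R ^ 2) := by ring
      have e3 : (H : ℝ) ^ 2 / R ^ 2 ≤ 1 / R := by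
        rw [div_le_div_iff₀ (by positivity) hR]
        nlinarith
      have e4 : (16 : ℝ) / R = 16 * (1 / R) := by ring
      rw [e4]
      linarith
    have g0 : |dt n (nrm e w q a (L x.1) (L t) z)| ≤ 2718 / R := by
      rw [hu]
      refine (nrm_near hS.isQ ha hw1 hw2 hz0 hρ hlam.le hx (hT t ht1) (hO.abs_le_one 0 0)
        hp1 hp2).trans ?_
      have e1 : 9 * (100 / (H : ℝ)) * |u - u0| ≤ 9 * (100 / (H : ℝ)) * (2 * (H / R)) := by
        gcongr
      have e2 : 9 * (100 / (H : ℝ)) * (2 * (H / R)) = 1800 / R := by field_simp; norm_num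
      have e3 : 9 * (100 / R) = 900 / R := by ring
      have e4 : (900 : ℝ) / R + 1800 / R + 16 / R ≤ 2718 / R := by
        rw [← add_div, ← add_div]
        gcongr
        norm_num
      linarith
    have g1 : ∀ k, |dt (E k) (nrm e w q a (L x.1) (L t) z)| ≤ 2718 * wd k * H / R := by
      intro k
      have hk1 := (hp3 k).1
      have hk2 := (hp3 k).2
      have hE1 : |E k 0| ≤ 1 := by
        fin_cases k
        · exact hO.abs_le_one 1 0
        · exact hO.abs_le_one 2 0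
      rw [hu]
      refine (nrm_near hS.isQ ha hw1 hw2 hz0 hρ hlam.le hx (hT t ht1) hE1
        hk1 hk2).trans ?_
      have hwk := hwd k
      have e1 : 9 * (100 * wd k) * |u - u0| ≤ 9 * (100 * wd k) * (2 * (H / R)) := by
        gcongr
      have e2 : (16 : ℝ) / R ≤ 16 * wd k * H / R := by
        have := hwdH k
        gcongr
        linarith
      have e4 : 9 * (100 * wd k * H / R) + 9 * (100 * wd k) * (2 * (H / R)) + 16 * wd k * H / R
          ≤ 2718 * wd k * H / R := by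
        have e5 : 0 ≤ wd k * H / R := by positivity
        calc _ = 2716 * (wd k * H / R) := by ring
          _ ≤ 2718 * (wd k * H / R) := by gcongr; norm_num
          _ = _ := by ring
      linarith
    intro i
    fin_cases i
    · exact g0
    · exact g1 0
    · exact g1 1
  have hcard : ((T.filter fun t => Plk (fun l => gam e c w q a zc lam (L l))
      (fun l => vel e c w q a zc lam (L l)) R H n E wd x (t, x.2)).card : ℝ) ≤
      ((T.filter fun t => ∀ z, z1 ≤ z → z ≤ z1 + ρ1 → ∀ i,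
        |dt (frm n E i) (nrm e w q a (L x.1) (L t) z)| ≤ s i).card : ℝ) := by
    exact_mod_cast card_le_card hsub
  refine (hcard.trans hmain).trans (le_of_eq ?_)
  have e1 : s 0 * s 1 * s 2 = 2718 / R * (2718 * wd 0 * H / R) * (2718 * wd 1 * H / R) := rfl
  have e2 : 6 * S = 16308 * (H / R) := by rw [hSd]; ring
  rw [e1, e2]
  field_simp

end Crest.Agent.R136.Sh605
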