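import Crest.Agent.R136.End5_882
import Crest.Agent.R136.Sh5_605

/-!
# R136 (S0187): END, part 6 (helper882): test sheets of the class `ShN`

`dmaxF` : D-max for `ShN` bounds the number of lines in a box of the normalised coordinates of an
explicit quadratic function (`FQ`).
-/

set_option autoImplicit false
set_option linter.unusedVariables false

namespace Crest.Agent.R136.End882

open Finset
open Crest.Agent.R136.LmQ861 Crest.Agent.R136.Sh605

section FQ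

variable {e : Fin 3 → V3} {y : Ln4} {q : ℝ → V3 → ℝ} {zc s1 s2 m1 m2 k11 k12 k22 : ℝ}

/-- rotation of the base -/
theorem FQ.rot (hF : FQ e y q zc s1 s2 m1 m2 k11 k12 k22) {α β : ℝ} (h : α ^ 2 + β ^ 2 = 1) :
    FQ (rot e α β) y q zc (α * s1 + β * s2) (-β * s1 + α * s2) (α * m1 + β * m2)
      (-β * m1 + α * m2) (α ^ 2 * k11 + α * β * k12 + β ^ 2 * k22)
      (-2 * (α * β) * k11 + (α ^ 2 - β ^ 2) * k12 + 2 * (α * β) * k22)
      (β ^ 2 * k11 - α * β * k12 + α ^ 2 * k22) := by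
  intro z x
  rw [hF z x]
  simp only [rot_zero, rot_one, rot_two, add_dt, smul_dt]
  set u1 := dt (e 1) (x - y.pos z)
  set u2 := dt (e 2) (x - y.pos z)
  have k1 : u1 = α * (α * u1 + β * u2) - β * (-β * u1 + α * u2) := by
    linear_combination (-u1) * h
  have k2 : u2 = β * (α * u1 + β * u2) + α * (-β * u1 + α * u2) := by
    linear_combination (-u2) * h
  generalize hv1 : α * u1 + β * u2 = v1 at k1 k2 ⊢
  generalize hv2 : -β * u1 + α * u2 = v2 at k1 k2 ⊢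
  rw [k1, k2]
  ring

/-- the function of the test sheet -/
theorem FQ.tq (hF : FQ e y q zc s1 s2 m1 m2 k11 k12 k22) (w : V3) (a : ℝ) (n : V3) :
    FQ e y (tq e w q a y n) zc (s1 - a / n 0 * (n 1 / w 1)) (s2 - a / n 0 * (n 2 / w 2)) m1 m2
      k11 k12 k22 := by
  intro z x
  simp only [Sh605.tq, add_dt, smul_dt]
  rw [hF z x]
  have e0 : ∀ i, dt (e i) (y.pos z - y.pos z) = 0 := by
    intro i; simp [dt]
  rw [e0, e0]
  ring

end FQ

section real

variable {α β A B S σ w1 w2 a ρ s1 s2 m1 m2 k11 k12 k22 l1 l2 : ℝ}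

theorem abs_unit (h : α ^ 2 + β ^ 2 = 1) : |α| ≤ 1 ∧ |β| ≤ 1 :=
  ⟨abs_le_one_iff_mul_self_le_one.2 (by nlinarith [sq_nonneg β]),
    abs_le_one_iff_mul_self_le_one.2 (by nlinarith [sq_nonneg α])⟩

theorem aux_lin {α β x y X : ℝ} (hα : |α| ≤ 1) (hβ : |β| ≤ 1) (h : |x| + |y| ≤ X) :
    |α * x + β * y| ≤ X := by
  refine (abs_add_le _ _).trans ?_
  have := aux3 hα (le_refl |x|)
  have := aux3 hβ (le_refl |y|)
  linarith

/-- the second order part on a small rotated box -/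
theorem flat_rot (h : α ^ 2 + β ^ 2 = 1) (hw2 : 0 < w2) (hw : w2 ≤ w1) (hA0 : 0 < A)
    (hB0 : 0 < B) (hS0 : 0 < S)
    (hA : A ≤ 3 * S * w1) (hAb : A * |β| ≤ 3 * S * w2) (hB : B ≤ 6 * S * w2) (hBs : σ * w2 ≤ B)
    (hBA : B ≤ A) (hSσ : 32000 * S ^ 2 ≤ σ) (hSs : 20000 * S ≤ 1) (hρ : 0 ≤ ρ)
    (hm1 : |m1| * ρ * w1 ≤ S * w2) (hm2 : |m2| * ρ ≤ S) (hk11 : |k11| * w1 ^ 2 ≤ w2)
    (hk12 : |k12| * w1 ≤ 1) (hk22 : |k22| * w2 ≤ 1) :
    Flat (1 / 1024) ρ A B (α * m1 + β * m2) (-β * m1 + α * m2)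
      (α ^ 2 * k11 + α * β * k12 + β ^ 2 * k22)
      (-2 * (α * β) * k11 + (α ^ 2 - β ^ 2) * k12 + 2 * (α * β) * k22)
      (β ^ 2 * k11 - α * β * k12 + α ^ 2 * k22) := by
  obtain ⟨hα1, hβ1⟩ := abs_unit h
  have hw1 : 0 < w1 := hw2.trans_le hw
  have hβn : |-β| ≤ 1 := by rwa [abs_neg]
  have hB2 : 32000 * S ^ 2 * w2 ≤ B := (mul_le_mul_of_nonneg_right hSσ hw2.le).trans hBs
  have p11 : |k11| * w1 ≤ 1 := by
    have : |k11| * w1 * w1 ≤ 1 * w1 := by
      calc |k11| * w1 * w1 = |k11| * w1 ^ 2 := by ring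
        _ ≤ w2 := hk11
        _ ≤ 1 * w1 := by linarith
    exact le_of_mul_le_mul_right this hw1
  have pm : |m1| * ρ ≤ S := by
    have : |m1| * ρ * w1 ≤ S * w1 := hm1.trans (by gcongr)
    exact le_of_mul_le_mul_right this hw1
  have hα2 : α ^ 2 ≤ 1 := by nlinarith [sq_nonneg β]
  have hβ2 : β ^ 2 ≤ 1 := by nlinarith [sq_nonneg α]
  constructor
  · -- m1
    have e1 : |α * m1 + β * m2| ≤ |m1| + |β| * |m2| := by
      refine (abs_add_le _ _).trans ?_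
      rw [abs_mul, abs_mul]
      have : |α| * |m1| ≤ 1 * |m1| := by gcongr
      linarith
    calc |α * m1 + β * m2| * ρ * A ≤ (|m1| + |β| * |m2|) * ρ * A := by gcongr
      _ = |m1| * ρ * A + |m2| * ρ * (A * |β|) := by ring
      _ ≤ |m1| * ρ * (3 * S * w1) + S * (3 * S * w2) := by gcongr
      _ = 3 * S * (|m1| * ρ * w1) + 3 * S ^ 2 * w2 := by ring
      _ ≤ 3 * S * (S * w2) + 3 * S ^ 2 * w2 := by gcongr
      _ ≤ 1 / 1024 * B := by nlinarith
  · -- m2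
    have e1 : |-β * m1 + α * m2| ≤ |m1| + |m2| := aux_lin hβn hα1 le_rfl
    calc |-β * m1 + α * m2| * ρ ≤ (|m1| + |m2|) * ρ := by gcongr
      _ = |m1| * ρ + |m2| * ρ := by ring
      _ ≤ 1 / 1024 := by linarith
  · -- k11
    have e1 : |α ^ 2 * k11 + α * β * k12 + β ^ 2 * k22| ≤ |k11| + |β| * |k12| + |β| ^ 2 * |k22| := by
      refine (abs_add_le _ _).trans (add_le_add ((abs_add_le _ _).trans (add_le_add ?_ ?_)) ?_)
      · rw [abs_mul, abs_of_nonneg (sq_nonneg α)]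
        have := mul_le_mul_of_nonneg_right hα2 (abs_nonneg k11)
        linarith
      · rw [abs_mul, abs_mul]
        have : |α| * |β| * |k12| ≤ 1 * |β| * |k12| := by gcongr
        linarith
      · rw [abs_mul, abs_pow]
    calc |α ^ 2 * k11 + α * β * k12 + β ^ 2 * k22| * A ^ 2 ≤
        (|k11| + |β| * |k12| + |β| ^ 2 * |k22|) * A ^ 2 := by gcongr
      _ = |k11| * A ^ 2 + |k12| * A * (A * |β|) + |k22| * (A * |β|) ^ 2 := by ring
      _ ≤ |k11| * (3 * S * w1) ^ 2 + |k12| * (3 * S * w1) * (3 * S * w2) +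
          |k22| * (3 * S * w2) ^ 2 := by gcongr
      _ = 9 * S ^ 2 * (|k11| * w1 ^ 2) + 9 * S ^ 2 * w2 * (|k12| * w1) +
          9 * S ^ 2 * w2 * (|k22| * w2) := by ring
      _ ≤ 9 * S ^ 2 * w2 + 9 * S ^ 2 * w2 * 1 + 9 * S ^ 2 * w2 * 1 := by gcongr
      _ ≤ 1 / 1024 * B := by nlinarith
  · -- k12
    have hab : |-2 * (α * β) * k11| ≤ 2 * |k11| := by
      rw [abs_mul, abs_mul, abs_mul, abs_neg, abs_two]
      have : |α| * |β| ≤ 1 * 1 := by gcongr
      have := mul_le_mul_of_nonneg_right this (abs_nonneg k11)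
      linarith
    have hab2 : |(α ^ 2 - β ^ 2) * k12| ≤ |k12| := by
      refine aux3 ?_ le_rfl
      rw [abs_le]; constructor <;> nlinarith [sq_nonneg α, sq_nonneg β]
    have hab3 : |2 * (α * β) * k22| ≤ 2 * |β| * |k22| := by
      rw [abs_mul, abs_mul, abs_mul, abs_two]
      have : |α| * |β| ≤ 1 * |β| := by gcongr
      have := mul_le_mul_of_nonneg_right this (abs_nonneg k22)
      linarith
    have e1 := (abs_add_le (-2 * (α * β) * k11 + (α ^ 2 - β ^ 2) * k12) (2 * (α * β) * k22)).trans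
      (add_le_add ((abs_add_le _ _).trans (add_le_add hab hab2)) hab3)
    calc |-2 * (α * β) * k11 + (α ^ 2 - β ^ 2) * k12 + 2 * (α * β) * k22| * A ≤
        (2 * |k11| + |k12| + 2 * |β| * |k22|) * A := by gcongr
      _ = 2 * (|k11| * A) + |k12| * A + 2 * |k22| * (A * |β|) := by ring
      _ ≤ 2 * (|k11| * (3 * S * w1)) + |k12| * (3 * S * w1) + 2 * |k22| * (3 * S * w2) := by
          gcongr
      _ = 6 * S * (|k11| * w1) + 3 * S * (|k12| * w1) + 6 * S * (|k22| * w2) := by ring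
      _ ≤ 6 * S * 1 + 3 * S * 1 + 6 * S * 1 := by gcongr
      _ ≤ 1 / 1024 := by linarith
  · -- k22
    have e1 : |β ^ 2 * k11 - α * β * k12 + α ^ 2 * k22| ≤ |k11| + |k12| + |k22| := by
      refine (abs_add_le _ _).trans (add_le_add ((abs_sub _ _).trans (add_le_add ?_ ?_)) ?_)
      · rw [abs_mul, abs_of_nonneg (sq_nonneg β)]
        have := mul_le_mul_of_nonneg_right hβ2 (abs_nonneg k11)
        linarith
      · rw [abs_mul, abs_mul]
        have : |α| * |β| * |k12| ≤ 1 * 1 * |k12| := by gcongr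
        linarith
      · rw [abs_mul, abs_of_nonneg (sq_nonneg α)]
        have := mul_le_mul_of_nonneg_right hα2 (abs_nonneg k22)
        linarith
    have q11 : |k11| * w2 ≤ 1 := (mul_le_mul_of_nonneg_left hw (abs_nonneg _)).trans p11
    have q12 : |k12| * w2 ≤ 1 := (mul_le_mul_of_nonneg_left hw (abs_nonneg _)).trans hk12
    calc |β ^ 2 * k11 - α * β * k12 + α ^ 2 * k22| * B ≤ (|k11| + |k12| + |k22|) * B := by
          gcongr
      _ ≤ (|k11| + |k12| + |k22|) * (6 * S * w2) := by gcongr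
      _ = 6 * S * (|k11| * w2) + 6 * S * (|k12| * w2) + 6 * S * (|k22| * w2) := by ring
      _ ≤ 6 * S * 1 + 6 * S * 1 + 6 * S * 1 := by gcongr
      _ ≤ 1 / 1024 := by linarith

end real

open Classical in
/-- D-max for the sheets whose widths satisfy `Cl w a` -/
def DMaxK {ι : Type} (A : Finset ι) (L : ι → Ln4) (z0 ρ D : ℝ) (R : ℝ → ℝ → ℝ → ℝ) (r0 : ℝ)
    (Cl : V3 → ℝ → Prop) : Prop :=
  ∀ (e : Fin 3 → V3) (c : Ln4) (w : V3) (q : ℝ → V3 → ℝ) (a : ℝ), ShN e c w q a z0 ρ r0 →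
    Cl w a →
    ((A.filter fun t => InSheet (L t) e c w q a z0 ρ).card : ℝ) ≤
      D * (a * w 2 * w 1 * R a (w 2) (w 1))

theorem DMaxK.ofN {ι : Type} {A : Finset ι} {L : ι → Ln4} {z0 ρ D : ℝ} {R : ℝ → ℝ → ℝ → ℝ}
    {r0 wmax : ℝ} (h : DMaxN A L z0 ρ D R r0 wmax) :
    DMaxK A L z0 ρ D R r0 fun w _ => w 1 ≤ wmax := h

/-- the long side of the rectangle of a box -/
theorem cov_A {n : Fin 3 → V3} (hn : Ortho n) {s : V3} {W1 W2 : ℝ} (hW1 : 0 ≤ W1) {i0 : Fin 3}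
    {α β A B σ : ℝ} (hC : Cov n s W1 W2 i0 α β A B) (hσ : 0 ≤ σ) (hσs : ∀ i, σ ≤ s i) :
    σ * W1 ≤ 2 * A := by
  have hu : ∀ i, |dt (n i) (![0, σ, 0] : V3)| ≤ s i := by
    intro i
    have h1 := hn.abs_le_one i 1
    have : dt (n i) (![0, σ, 0] : V3) = n i 1 * σ := by simp [dt]
    rw [this]
    exact (aux3 h1 (abs_of_nonneg hσ).le).trans (hσs i)
  have h1 := hC.in1 _ hu
  have h2 := hC.in2 _ hu
  simp only [Matrix.cons_val, mul_zero, add_zero] at h1 h2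
  rw [abs_mul, abs_of_nonneg (mul_nonneg hW1 hσ)] at h1 h2
  rw [abs_neg] at h2
  have h3 : 1 ≤ |α| + |β| := by
    have h4 := hC.unit
    nlinarith [abs_nonneg α, abs_nonneg β, sq_abs α, sq_abs β]
  have h5 : W1 * σ ≤ (|α| + |β|) * (W1 * σ) := le_mul_of_one_le_left (mul_nonneg hW1 hσ) h3
  have := hC.BA
  nlinarith

open Classical in
set_option maxHeartbeats 800000 in
/-- **D-max for the boxes of the normalised coordinates** of an explicit quadratic function, from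
D-max for the class `ShN`. -/
theorem dmaxF {ι : Type} (T : Finset ι) (L : ι → Ln4) {e : Fin 3 → V3} {y : Ln4} {w : V3}
    {q : ℝ → V3 → ℝ} {zc s1 s2 m1 m2 k11 k12 k22 a z0 ρ r0 D : ℝ} {Rw : ℝ → ℝ → ℝ → ℝ}
    {Cl : V3 → ℝ → Prop}
    (he : Ortho e) (hq : IsQ q) (hF : FQ e y q zc s1 s2 m1 m2 k11 k12 k22)
    (hs1 : |s1| ≤ 13 / 8) (hs2 : |s2| ≤ 13 / 8) (hz0 : z0 ≤ zc) (hz1 : zc ≤ z0 + ρ) (ha : 0 < a)
    (haw : a ≤ w 2) (hw : w 2 ≤ w 1) (hD : 0 ≤ D)
    (hR0 : ∀ x y z, 0 ≤ x → 0 ≤ y → 0 ≤ z → 0 ≤ Rw x y z)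
    (hRm : ∀ x y z x' y' z', 0 ≤ x → 0 ≤ y → 0 ≤ z → x ≤ x' → y ≤ y' → z ≤ z' →
      Rw x y z ≤ Rw x' y' z')
    (hmax : DMaxK T L z0 ρ D Rw r0 Cl)
    {n : Fin 3 → V3} (hn : Ortho n) {s : V3} (hs : ∀ i, 0 < s i) {S σ : ℝ}
    (hsS : ∀ i, s i ≤ S) (hσs : ∀ i, σ ≤ s i) (hσ : 0 < σ) (hthin : 6 * S * a ≤ σ * w 2)
    (hSσ : 32000 * S ^ 2 ≤ σ) (hSs : 20000 * S ≤ 1)
    (hm1 : |m1| * ρ * w 1 ≤ S * w 2) (hm2 : |m2| * ρ ≤ S) (hk11 : |k11| * w 1 ^ 2 ≤ w 2)
    (hk12 : |k12| * w 1 ≤ 1) (hk22 : |k22| * w 2 ≤ 1)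
    (hr : 2 * r0 ≤ a * σ)
    (hCl : ∀ A B a', σ * w 1 ≤ 2 * A → A ≤ 3 * S * w 1 → σ * w 2 ≤ B → B ≤ 6 * S * w 2 →
      σ * a ≤ 2 * a' → a' ≤ 6 * S * a → Cl (wFQ A B) a') :
    ((T.filter fun t => ∀ z, z0 ≤ z → z ≤ z0 + ρ → ∀ i,
      |dt (n i) (nrm e w q a y (L t) z)| ≤ s i).card : ℝ) ≤
      3240 * D * (s 0 * s 1 * s 2) *
        (a * w 2 * w 1 * Rw (60 * S * a) (60 * S * w 2) (60 * S * w 1)) := by
  have hS0 : 0 < S := (hs 0).trans_le (hsS 0)
  have hw2 : 0 < w 2 := ha.trans_le haw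
  have hw1 : 0 < w 1 := hw2.trans_le hw
  obtain ⟨i0, α, β, A, B, hC⟩ := exists_cov hn hs hw2 hw
  have hA0 : 0 < A := hC.Bpos.trans_le hC.BA
  obtain ⟨hα1, hβ1⟩ := abs_unit hC.unit
  have hnn : 0 < |n i0 0| := abs_pos.2 hC.n0
  have hsi := hs i0
  set b : ℝ := s i0 / |n i0 0| with hb
  have hb0 : 0 < b := by positivity
  have hb2 : b ≤ 2 * S := hC.a_le S hsS
  have hsb : s i0 ≤ b := hC.le_a
  -- slopes of the test function
  have hinv : a / |n i0 0| ≤ 1 / 3 * w 2 := by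
    have h1 : 1 / |n i0 0| ≤ 2 * S / σ := by
      rw [div_le_div_iff₀ hnn hσ]
      have h2 : s i0 ≤ 2 * S * |n i0 0| := by rwa [hb, div_le_iff₀ hnn] at hb2
      have h3 := hσs i0
      linarith
    calc a / |n i0 0| = a * (1 / |n i0 0|) := by ring
      _ ≤ a * (2 * S / σ) := by gcongr
      _ = 1 / 3 * (6 * S * a / σ) := by ring
      _ ≤ 1 / 3 * w 2 := by
          gcongr
          rw [div_le_iff₀ hσ]; linarith
  have hl : ∀ (k : Fin 3) (W : ℝ), w 2 ≤ W → |a / n i0 0 * (n i0 k / W)| ≤ 1 / 3 := by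
    intro k W hW
    have hW0 : 0 < W := hw2.trans_le hW
    have h6 := hn.abs_le_one i0 k
    rw [abs_mul, abs_div, abs_div, abs_of_pos ha, abs_of_pos hW0]
    calc a / |n i0 0| * (|n i0 k| / W) ≤ (1 / 3 * w 2) * (1 / W) := by gcongr
      _ = 1 / 3 * (w 2 / W) := by ring
      _ ≤ 1 / 3 * 1 := by
          gcongr
          rwa [div_le_one hW0]
      _ = 1 / 3 := by ring
  have hl1 := hl 1 (w 1) hw
  have hl2 := hl 2 (w 2) le_rfl
  have hF' := (hF.tq w a (n i0)).rot hC.unit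
  have hqt : IsQ (tq e w q a y (n i0)) := tq_isQ hq _ _ _ _ _
  have t1 : |s1 - a / n i0 0 * (n i0 1 / w 1)| ≤ 2 := (abs_sub _ _).trans (by linarith)
  have t2 : |s2 - a / n i0 0 * (n i0 2 / w 2)| ≤ 2 := (abs_sub _ _).trans (by linarith)
  have u1 := aux_lin hα1 hβ1 ((add_le_add t1 t2).trans (by norm_num : (2 : ℝ) + 2 ≤ 4))
  have u2 := aux_lin (by rwa [abs_neg] : |-β| ≤ 1) hα1
    ((add_le_add t1 t2).trans (by norm_num : (2 : ℝ) + 2 ≤ 4))
  have hA3 := hC.A_le S hsS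
  have hAb := hC.Ab_le S hsS
  have hB6 := hC.B_le S hsS
  have hBσ := hC.le_B σ hσs
  have hρ : 0 ≤ ρ := by linarith
  have hfl := flat_rot hC.unit hw2 hw hA0 hC.Bpos hS0 hA3 hAb hB6 hBσ hC.BA hSσ hSs hρ hm1 hm2
    hk11 hk12 hk22
  have ha3 : 0 < 3 * (a * b) := by positivity
  have haB : 3 * (a * b) ≤ B := by
    calc 3 * (a * b) ≤ 3 * (a * (2 * S)) := by gcongr
      _ = 6 * S * a := by ring
      _ ≤ σ * w 2 := hthin
      _ ≤ B := hBσ
  have hr6 : 6 * r0 ≤ 3 * (a * b) := by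
    have h1 : a * σ ≤ a * b := mul_le_mul_of_nonneg_left ((hσs i0).trans hsb) ha.le
    linarith
  have hsh := shN_of_FQ (rot_ortho he hC.unit) hqt hF' u1 u2 hz0 hz1 ha3 haB hC.BA hfl hr6
  set ν := nuT (α * (s1 - a / n i0 0 * (n i0 1 / w 1)) + β * (s2 - a / n i0 0 * (n i0 2 / w 2)))
    (-β * (s1 - a / n i0 0 * (n i0 1 / w 1)) + α * (s2 - a / n i0 0 * (n i0 2 / w 2))) with hν
  have hν1 : 1 ≤ ν := nuT_ge _ _
  have hν6 : ν ≤ 6 := nuT_le u1 u2
  have hν0 : 0 < ν := by linarith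
  have hσb : σ ≤ b := (hσs i0).trans hsb
  have h1 := hmax _ _ _ _ _ hsh.toN (hCl A B (3 * (a * b) / ν) (cov_A hn hw1.le hC hσ.le hσs)
    hA3 hBσ hB6 (by
      have h2 : σ * a ≤ a * b := by
        calc σ * a = a * σ := mul_comm _ _
          _ ≤ a * b := by gcongr
      have h3 : a * b ≤ 2 * (3 * (a * b) / ν) := by
        have h4 : 0 < a * b := by positivity
        have h5 : 2 * (3 * (a * b) / ν) = 6 * (a * b) / ν := by ring
        rw [h5, le_div_iff₀ hν0]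
        nlinarith
      exact h2.trans h3)
    ((div_le_self ha3.le hν1).trans (by
      calc 3 * (a * b) ≤ 3 * (a * (2 * S)) := by gcongr
        _ = 6 * S * a := by ring)))
  -- membership
  have h2 : (T.filter fun t => ∀ z, z0 ≤ z → z ≤ z0 + ρ → ∀ i,
      |dt (n i) (nrm e w q a y (L t) z)| ≤ s i) ⊆ T.filter fun t =>
      InSheet (L t) (tilt (rot e α β)
        (α * (s1 - a / n i0 0 * (n i0 1 / w 1)) + β * (s2 - a / n i0 0 * (n i0 2 / w 2)))
        (-β * (s1 - a / n i0 0 * (n i0 1 / w 1)) + α * (s2 - a / n i0 0 * (n i0 2 / w 2)))) y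
        (wFQ A B) (fun z x => tq e w q a y (n i0) z x / ν) (3 * (a * b) / ν) z0 ρ := by
    intro t ht
    rw [mem_filter] at ht ⊢
    refine ⟨ht.1, mem_of_FQ hF' u1 u2 hz0 hz1 ha3 haB hC.BA hfl ?_ ?_⟩
    · intro z _ _
      have : tq e w q a y (n i0) z (y.pos z) = 0 := by
        simp [tq, dt]
      rw [this, abs_zero]; exact ha3.le
    · intro z h3 h4
      have hu := ht.2 z h3 h4
      set u := nrm e w q a y (L t) z with hud
      have hu1 : w 1 * u 1 = dt (e 1) ((L t).pos z - y.pos z) := by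
        rw [hud, nrm_one]; field_simp
      have hu2 : w 2 * u 2 = dt (e 2) ((L t).pos z - y.pos z) := by
        rw [hud, nrm_two]; field_simp
      have c1 := hC.in1 u hu
      have c2 := hC.in2 u hu
      rw [hu1, hu2] at c1 c2
      refine ⟨?_, ?_, ?_⟩
      · rw [rot_one, add_dt, smul_dt, smul_dt]; exact c1
      · rw [rot_two, add_dt, smul_dt, smul_dt]; exact c2
      · rw [tq_apply e w q ha.ne' y (L t) (n i0) hC.n0 z, ← hud, abs_mul, abs_div, abs_of_pos ha]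
        calc a / |n i0 0| * |dt (n i0) u| ≤ a / |n i0 0| * s i0 := by
              gcongr
              exact hu i0
          _ = a * b := by rw [hb]; ring
          _ ≤ _ := by
              have : 0 < a * b := by positivity
              linarith
  have h3 : ((T.filter fun t => ∀ z, z0 ≤ z → z ≤ z0 + ρ → ∀ i,
      |dt (n i) (nrm e w q a y (L t) z)| ≤ s i).card : ℝ) ≤ _ :=
    Nat.cast_le.2 (card_le_card h2)
  refine (h3.trans h1).trans ?_
  change D * (3 * (a * b) / ν * (10 * B) * (12 * A) * Rw (3 * (a * b) / ν) (10 * B) (12 * A)) ≤ _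
  have hνd : 3 * (a * b) / ν ≤ 3 * (a * b) := div_le_self ha3.le hν1
  have hBp := hC.Bpos
  have h4 : Rw (3 * (a * b) / ν) (10 * B) (12 * A) ≤
      Rw (60 * S * a) (60 * S * w 2) (60 * S * w 1) := by
    apply hRm _ _ _ _ _ _ (by positivity) (by positivity) (by positivity)
    · calc 3 * (a * b) / ν ≤ 3 * (a * (2 * S)) := hνd.trans (by gcongr)
        _ = 6 * S * a := by ring
        _ ≤ 60 * S * a := by gcongr; norm_num
    · linarith
    · have : 0 < S * w 1 := by positivity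
      linarith
  have h5 : 3 * (a * b) / ν * (10 * B) * (12 * A) ≤ 3240 * (s 0 * s 1 * s 2) * (a * w 2 * w 1) := by
    calc 3 * (a * b) / ν * (10 * B) * (12 * A) ≤ 3 * (a * b) * (10 * B) * (12 * A) := by gcongr
      _ = 360 * a * (A * B * b) := by ring
      _ ≤ 360 * a * (9 * (w 1 * w 2) * (s 0 * s 1 * s 2)) := by
          have := hC.vol
          gcongr
      _ = _ := by ring
  have h6 : 0 ≤ Rw (60 * S * a) (60 * S * w 2) (60 * S * w 1) :=
    hR0 _ _ _ (by positivity) (by positivity) (by positivity)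
  have h8 : 0 ≤ 3 * (a * b) / ν * (10 * B) * (12 * A) := by positivity
  calc D * (3 * (a * b) / ν * (10 * B) * (12 * A) * Rw (3 * (a * b) / ν) (10 * B) (12 * A)) ≤
      D * (3240 * (s 0 * s 1 * s 2) * (a * w 2 * w 1) *
        Rw (60 * S * a) (60 * S * w 2) (60 * S * w 1)) :=
        mul_le_mul_of_nonneg_left ((mul_le_mul_of_nonneg_left h4 h8).trans
          (mul_le_mul_of_nonneg_right h5 h6)) hD
    _ = _ := by ring

end Crest.Agent.R136.End882
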