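import Crest.Agent.R136.End6_882
import Crest.Agent.R136.HR2_829

/-!
# R136 (S0187): END, part 7 (helper882): planks of a sample

`FQ.move` : another reference line; `plk_box` : a plank of 861 is a box of normalised differences;
`sample_planks` : number of lines of the sample in a plank, from D-max of the ambient lines.
-/

set_option autoImplicit false
set_option linter.unusedVariables false

namespace Crest.Agent.R136.End882

open Finset
open Crest.Agent.R136.LmQ861 Crest.Agent.R136.Sh605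
open Crest.Agent.R138.Mk163 (zc zl rho alive own)

section move

variable {e : Fin 3 → V3} {y : Ln4} {q : ℝ → V3 → ℝ} {z0 s1 s2 m1 m2 k11 k12 k22 : ℝ}

/-- another reference line -/
theorem FQ.move (hF : FQ e y q z0 s1 s2 m1 m2 k11 k12 k22) (y' : Ln4) (z1 : ℝ) :
    FQ e y' q z1
      (s1 + m1 * (z1 - z0) + 2 * k11 * dt (e 1) (y'.pos z1 - y.pos z1) +
        k12 * dt (e 2) (y'.pos z1 - y.pos z1))
      (s2 + m2 * (z1 - z0) + k12 * dt (e 1) (y'.pos z1 - y.pos z1) +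
        2 * k22 * dt (e 2) (y'.pos z1 - y.pos z1))
      (m1 + 2 * k11 * dt (e 1) (y'.v - y.v) + k12 * dt (e 2) (y'.v - y.v))
      (m2 + k12 * dt (e 1) (y'.v - y.v) + 2 * k22 * dt (e 2) (y'.v - y.v)) k11 k12 k22 := by
  intro z x
  have h1 := hF z x
  have h2 := hF z (y'.pos z)
  have hb : ∀ k, dt (e k) (y'.pos z - y.pos z) =
      dt (e k) (y'.pos z1 - y.pos z1) + (z - z1) * dt (e k) (y'.v - y.v) := by
    intro k
    rw [dt_sub, dt_sub, dt_sub, dt_pos, dt_pos, dt_pos, dt_pos]; ring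
  have hs : ∀ k, dt (e k) (x - y.pos z) = dt (e k) (x - y'.pos z) + dt (e k) (y'.pos z - y.pos z) := by
    intro k
    rw [dt_sub, dt_sub, dt_sub]; ring
  rw [h1, h2, hs 0, hs 1, hs 2, hb 1, hb 2]
  ring

end move

/-- half-widths of the box of a plank -/
noncomputable def sPlk (R : ℝ) (H : ℕ) (wd : Fin 2 → ℝ) : V3 :=
  ![2718 / R, 2718 * wd 0 * H / R, 2718 * wd 1 * H / R]

section plk

variable {R : ℝ} {H : ℕ} {wd : Fin 2 → ℝ}

theorem sPlk_pos (hR : 0 < R) (hH : 0 < H) (hw : ∀ a, 1 / (H : ℝ) ≤ wd a ∧ wd a ≤ 1) (i : Fin 3) :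
    0 < sPlk R H wd i := by
  have hH0 : (0 : ℝ) < H := by exact_mod_cast hH
  have hwd : ∀ k, 0 < wd k := fun k => lt_of_lt_of_le (by positivity) (hw k).1
  have := hwd 0
  have := hwd 1
  fin_cases i
  · change 0 < 2718 / R; positivity
  · change 0 < 2718 * wd 0 * H / R; positivity
  · change 0 < 2718 * wd 1 * H / R; positivity

theorem sPlk_ge (hR : 0 < R) (hH : 0 < H) (hw : ∀ a, 1 / (H : ℝ) ≤ wd a ∧ wd a ≤ 1) (i : Fin 3) :
    2718 / R ≤ sPlk R H wd i := by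
  have hH0 : (0 : ℝ) < H := by exact_mod_cast hH
  have hwdH : ∀ k, 1 ≤ wd k * H := fun k => by
    have := (hw k).1
    rwa [div_le_iff₀ hH0] at this
  fin_cases i
  · exact le_rfl
  · change 2718 / R ≤ 2718 * wd 0 * H / R
    have := hwdH 0
    gcongr
    linarith
  · change 2718 / R ≤ 2718 * wd 1 * H / R
    have := hwdH 1
    gcongr
    linarith

theorem sPlk_le (hR : 0 < R) (hH : 0 < H) (hw : ∀ a, 1 / (H : ℝ) ≤ wd a ∧ wd a ≤ 1) (i : Fin 3) :
    sPlk R H wd i ≤ 2718 * H / R := by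
  have hH1 : (1 : ℝ) ≤ H := by exact_mod_cast hH
  fin_cases i
  · change 2718 / R ≤ 2718 * H / R
    gcongr
    linarith
  · change 2718 * wd 0 * H / R ≤ 2718 * H / R
    have := (hw 0).2
    gcongr
    nlinarith
  · change 2718 * wd 1 * H / R ≤ 2718 * H / R
    have := (hw 1).2
    gcongr
    nlinarith

theorem sPlk_prod : sPlk R H wd 0 * sPlk R H wd 1 * sPlk R H wd 2 =
    2718 ^ 3 / R ^ 3 * (wd 0 * wd 1) * (H : ℝ) ^ 2 := by
  change 2718 / R * (2718 * wd 0 * H / R) * (2718 * wd 1 * H / R) = _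
  ring

end plk

/-- **a plank is a box of normalised differences** over every window near its height -/
theorem plk_box {ι : Type} (L : ι → Ln4) {e : Fin 3 → V3} {c : Ln4} {w : V3}
    {q : ℝ → V3 → ℝ} {a z0 ρ zc lam z1 ρ1 : ℝ} (hq : IsQ q) (ha : 0 < a) (hw1 : 0 < w 1)
    (hw2 : 0 < w 2) (hz0 : z0 = zc - lam) (hρ : ρ = 2 * lam) (hlam : 0 < lam) {x : ι × ℤ}
    (hx : InSheet (L x.1) e c w q a z0 ρ) {R : ℝ} {H : ℕ} (hH : 0 < H) (hR : 0 < R)
    (hHR : (H : ℝ) ^ 2 ≤ R)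
    (hnear : ∀ z, z1 ≤ z → z ≤ z1 + ρ1 → |z - (zc + lam * ((x.2 : ℝ) / R))| ≤ 2 * lam * H / R)
    {n : Fin 3 → ℝ} (hn : ∑ i, n i ^ 2 = 1) {E : Fin 2 → Fin 3 → ℝ}
    (hE : ∀ a b, ∑ i, E a i * E b i = if a = b then 1 else 0) (hEn : ∀ a, ∑ i, E a i * n i = 0)
    {wd : Fin 2 → ℝ} (hw : ∀ a, 1 / (H : ℝ) ≤ wd a ∧ wd a ≤ 1) {t : ι}
    (htS : InSheet (L t) e c w q a z0 ρ)
    (ht : Plk (fun l => gam e c w q a zc lam (L l))
      (fun l => vel e c w q a zc lam (L l)) R H n E wd x (t, x.2)) :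
    ∀ z, z1 ≤ z → z ≤ z1 + ρ1 → ∀ i,
      |dt (frm n E i) (nrm e w q a (L x.1) (L t) z)| ≤ sPlk R H wd i := by
  have hH0 : (0 : ℝ) < H := by exact_mod_cast hH
  have hH1 : (1 : ℝ) ≤ H := by exact_mod_cast hH
  have hwd : ∀ k, 0 < wd k := fun k => lt_of_lt_of_le (by positivity) (hw k).1
  have hwdH : ∀ k, 1 ≤ wd k * H := fun k => by
    have := (hw k).1
    rwa [div_le_iff₀ hH0] at this
  obtain ⟨hp1, hp2, hp3⟩ := ht
  intro z hz hz'
  set u0 : ℝ := (x.2 : ℝ) / R with hu0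
  obtain ⟨u, hu⟩ : ∃ u, z = zc + lam * u := ⟨(z - zc) / lam, by field_simp; ring⟩
  have hnz := hnear z hz hz'
  have hun : |u - u0| ≤ 2 * (H / R) := by
    have e1 : z - (zc + lam * u0) = lam * (u - u0) := by rw [hu]; ring
    rw [e1, abs_mul, abs_of_pos hlam] at hnz
    have e2 : 2 * lam * H / R = lam * (2 * (H / R)) := by ring
    rw [e2] at hnz
    exact le_of_mul_le_mul_left hnz hlam
  have hO := frm_ortho hn hE hEn
  have hq4 : 4 * |u - u0| ^ 2 ≤ 16 / R := by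
    have e1 : |u - u0| ^ 2 ≤ (2 * (H / R)) ^ 2 := by gcongr
    have e2 : (2 * ((H : ℝ) / R)) ^ 2 = 4 * (H ^ 2 / R ^ 2) := by ring
    have e3 : (H : ℝ) ^ 2 / R ^ 2 ≤ 1 / R := by
      rw [div_le_div_iff₀ (by positivity) hR]
      nlinarith
    have e4 : (16 : ℝ) / R = 16 * (1 / R) := by ring
    rw [e4]
    linarith
  have g0 : |dt n (nrm e w q a (L x.1) (L t) z)| ≤ 2718 / R := by
    rw [hu]
    refine (nrm_near hq ha hw1 hw2 hz0 hρ hlam.le hx htS (hO.abs_le_one 0 0)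
      hp1 hp2).trans ?_
    have e1 : 9 * (100 / (H : ℝ)) * |u - u0| ≤ 9 * (100 / (H : ℝ)) * (2 * (H / R)) := by
      gcongr
    have e2 : 9 * (100 / (H : ℝ)) * (2 * (H / R)) = 1800 / R := by field_simp; norm_num
    have e3 : 9 * (100 / R) = 900 / R := by ring
    have e4 : (900 : ℝ) / R + 1800 / R + 16 / R ≤ 2718 / R := by
      rw [← add_div, ← add_div]
      gcongr
      norm_num
    linarith
  have g1 : ∀ k, |dt (E k) (nrm e w q a (L x.1) (L t) z)| ≤ 2718 * wd k * H / R := by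
    intro k
    have hk1 := (hp3 k).1
    have hk2 := (hp3 k).2
    have hE1 : |E k 0| ≤ 1 := by
      fin_cases k
      · exact hO.abs_le_one 1 0
      · exact hO.abs_le_one 2 0
    rw [hu]
    refine (nrm_near hq ha hw1 hw2 hz0 hρ hlam.le hx htS hE1
      hk1 hk2).trans ?_
    have hwk := hwd k
    have e1 : 9 * (100 * wd k) * |u - u0| ≤ 9 * (100 * wd k) * (2 * (H / R)) := by
      gcongr
    have e2 : (16 : ℝ) / R ≤ 16 * wd k * H / R := by
      have := hwdH k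
      gcongr
      linarith
    have e4 : 9 * (100 * wd k * H / R) + 9 * (100 * wd k) * (2 * (H / R)) + 16 * wd k * H / R
        ≤ 2718 * wd k * H / R := by
      have e5 : 0 ≤ wd k * H / R := by positivity
      calc _ = 2716 * (wd k * H / R) := by ring
        _ ≤ 2718 * (wd k * H / R) := by gcongr; norm_num
        _ = _ := by ring
    linarith
  intro i
  fin_cases i
  · exact g0
  · exact g1 0
  · exact g1 1

/-- the normalised difference is additive -/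
theorem nrm_add (e : Fin 3 → V3) (w : V3) (q : ℝ → V3 → ℝ) (a : ℝ) (x t y : Ln4) (z : ℝ) :
    nrm e w q a x y z = nrm e w q a x t z + nrm e w q a t y z := by
  funext k
  rw [Pi.add_apply]
  match k with
  | 0 => rw [nrm_zero, nrm_zero, nrm_zero]; ring
  | 1 => rw [nrm_one, nrm_one, nrm_one, dt_sub, dt_sub, dt_sub]; ring
  | 2 => rw [nrm_two, nrm_two, nrm_two, dt_sub, dt_sub, dt_sub]; ring

/-- neighbours stay in the doubled box -/
theorem box_nbr {e : Fin 3 → V3} {w : V3} {q : ℝ → V3 → ℝ} {a : ℝ} {x t y : Ln4} {z : ℝ} {s δ : ℝ}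
    {u : V3} (hu : ∀ j, |u j| ≤ 1) (h1 : |dt u (nrm e w q a x t z)| ≤ s)
    (h2 : ∀ b, |nrm e w q a t y z b| ≤ δ) (hδ : 3 * δ ≤ s) :
    |dt u (nrm e w q a x y z)| ≤ 2 * s := by
  rw [nrm_add e w q a x t y z, dt_add]
  have h3 := abs_dt_le hu (nrm e w q a t y z)
  have := abs_add_le (dt u (nrm e w q a x t z)) (dt u (nrm e w q a t y z))
  have := h2 0
  have := h2 1
  have := h2 2
  linarith

theorem mem_alive {I : Finset (ℕ × ℝ)} {m : ℕ} {j : ℤ} {t : ℕ} :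
    t ∈ alive I m j ↔ ∃ y ∈ I, y.1 = t ∧ zc m y.2 = j := by
  classical
  unfold alive
  rw [mem_image]
  constructor
  · rintro ⟨y, hy, rfl⟩
    rw [mem_filter] at hy
    exact ⟨y, hy.1, rfl, hy.2⟩
  · rintro ⟨y, hy, rfl, h⟩
    exact ⟨y, mem_filter.2 ⟨hy, h⟩, rfl⟩

open Classical in
/-- **from lines of a sample to ambient lines** -/
theorem sample_count (F I0 : Finset (ℕ × ℝ)) (nb : ℕ × ℝ → ℕ × ℝ → Prop) (l : ℕ) (c : ℤ)
    {K nF n0 Kc : ℝ} (hK : 0 ≤ K) (hKc : 0 ≤ Kc) (hn0 : 0 ≤ n0)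
    (hlow : ∀ x ∈ F, nF ≤ K * ((F.filter fun y => y.1 = x.1 ∧ zc l y.2 = zc l x.2).card : ℝ))
    (hup : ∀ x ∈ I0, ((I0.filter fun y => y.1 = x.1 ∧ zc l y.2 = zc l x.2).card : ℝ) ≤ K * n0)
    (hcomb : ∀ P ⊆ F, ∀ P' ⊆ I0, (∀ x ∈ P, ∀ y ∈ I0, nb x y → y ∈ P') →
      Kc * (P.card : ℝ) ≤ K * (P'.card : ℝ))
    (P T : Finset ℕ) (hP : P ⊆ alive F l c)
    (hnb : ∀ x ∈ F, zc l x.2 = c → x.1 ∈ P → ∀ y ∈ I0, nb x y → zc l y.2 = c ∧ y.1 ∈ T) :
    Kc * nF * (P.card : ℝ) ≤ K ^ 3 * n0 * (T.card : ℝ) := by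
  set P1 := F.filter fun y => zc l y.2 = c ∧ y.1 ∈ P with hP1
  set P2 := I0.filter fun y => zc l y.2 = c ∧ y.1 ∈ T with hP2
  have h1 : nF * (P.card : ℝ) ≤ K * (P1.card : ℝ) := by
    have e1 : P1.card = ∑ t ∈ P, (P1.filter fun y => y.1 = t).card :=
      card_eq_sum_card_fiberwise fun y hy => (mem_filter.1 hy).2.2
    have e2 : ∀ t ∈ P, nF ≤ K * ((P1.filter fun y => y.1 = t).card : ℝ) := by
      intro t ht
      obtain ⟨y, hy, rfl, hyc⟩ := mem_alive.1 (hP ht)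
      refine (hlow y hy).trans (mul_le_mul_of_nonneg_left ?_ hK)
      refine Nat.cast_le.2 (card_le_card fun y' hy' => ?_)
      rw [mem_filter] at hy'
      rw [mem_filter, hP1, mem_filter]
      exact ⟨⟨hy'.1, hy'.2.2.trans hyc, by rw [hy'.2.1]; exact ht⟩, hy'.2.1⟩
    calc nF * (P.card : ℝ) = ∑ _t ∈ P, nF := by rw [sum_const, nsmul_eq_mul, mul_comm]
      _ ≤ ∑ t ∈ P, K * ((P1.filter fun y => y.1 = t).card : ℝ) := sum_le_sum e2
      _ = K * (P1.card : ℝ) := by rw [← mul_sum, e1]; push_cast; rfl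
  have h2 : Kc * (P1.card : ℝ) ≤ K * (P2.card : ℝ) := by
    refine hcomb P1 (filter_subset _ _) P2 (filter_subset _ _) fun x hx y hy hxy => ?_
    rw [hP1, mem_filter] at hx
    rw [hP2, mem_filter]
    exact ⟨hy, hnb x hx.1 hx.2.1 hx.2.2 y hy hxy⟩
  have h3 : (P2.card : ℝ) ≤ K * n0 * (T.card : ℝ) := by
    have e1 : P2.card = ∑ t ∈ T, (P2.filter fun y => y.1 = t).card :=
      card_eq_sum_card_fiberwise fun y hy => (mem_filter.1 hy).2.2
    have hn : 0 ≤ K * n0 := mul_nonneg hK hn0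
    have e2 : ∀ t ∈ T, ((P2.filter fun y => y.1 = t).card : ℝ) ≤ K * n0 := by
      intro t ht
      rcases (P2.filter fun y => y.1 = t).eq_empty_or_nonempty with h | ⟨y, hy⟩
      · rw [h, card_empty, Nat.cast_zero]; exact hn
      · rw [mem_filter, hP2, mem_filter] at hy
        obtain ⟨⟨hy1, hy2, -⟩, rfl⟩ := hy
        refine le_trans (Nat.cast_le.2 (card_le_card fun y' hy' => ?_)) (hup y hy1)
        rw [mem_filter, hP2, mem_filter] at hy'
        exact mem_filter.2 ⟨hy'.1.1, hy'.2, hy'.1.2.1.trans hy2.symm⟩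
    calc (P2.card : ℝ) = ∑ t ∈ T, ((P2.filter fun y => y.1 = t).card : ℝ) := by
          rw [e1]; push_cast; rfl
      _ ≤ ∑ _t ∈ T, K * n0 := sum_le_sum e2
      _ = K * n0 * (T.card : ℝ) := by rw [sum_const, nsmul_eq_mul, mul_comm]
  calc Kc * nF * (P.card : ℝ) = Kc * (nF * (P.card : ℝ)) := by ring
    _ ≤ Kc * (K * (P1.card : ℝ)) := mul_le_mul_of_nonneg_left h1 hKc
    _ = K * (Kc * (P1.card : ℝ)) := by ring
    _ ≤ K * (K * (P2.card : ℝ)) := mul_le_mul_of_nonneg_left h2 hK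
    _ ≤ K * (K * (K * n0 * (T.card : ℝ))) := by gcongr
    _ = K ^ 3 * n0 * (T.card : ℝ) := by ring

section cont

variable {e : Fin 3 → V3} {c : Ln4} {w : V3} {q : ℝ → V3 → ℝ}
    {z0 s1 s2 m1 m2 k11 k12 k22 a Z P : ℝ}

/-- velocity of a line of the container relative to the centre -/
theorem vel_bd {t : Ln4} (ht : InSheet t e c w q a Z P) (hP : 0 ≤ P) (k : Fin 3) :
    |dt (e k) (t.v - c.v)| * P ≤ 2 * w k := by
  have h1 := (ht Z le_rfl (by linarith)).1 k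
  have h2 := (ht (Z + P) (by linarith) le_rfl).1 k
  have e1 : dt (e k) (t.pos (Z + P) - c.pos (Z + P)) = dt (e k) (t.pos Z - c.pos Z) +
      P * dt (e k) (t.v - c.v) := by
    rw [dt_sub, dt_sub, dt_sub, dt_pos, dt_pos, dt_pos, dt_pos]; ring
  rw [e1] at h2
  have e2 : |dt (e k) (t.v - c.v)| * P = |P * dt (e k) (t.v - c.v)| := by
    rw [abs_mul, abs_of_nonneg hP, mul_comm]
  rw [e2]
  have := abs_sub (dt (e k) (t.pos Z - c.pos Z) + P * dt (e k) (t.v - c.v))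
    (dt (e k) (t.pos Z - c.pos Z))
  rw [add_sub_cancel_left] at this
  linarith

/-- slopes of `q` around a line of the container -/
theorem slope_bd {κ : ℝ} (hfl : Flat κ P (w 1) (w 2) m1 m2 k11 k12 k22) (hw2 : 0 < w 2)
    (hw : w 2 ≤ w 1) {z1 b1 b2 : ℝ} (hz : |z1 - z0| ≤ P) (hb1 : |b1| ≤ w 1) (hb2 : |b2| ≤ w 2) :
    |m1 * (z1 - z0) + 2 * k11 * b1 + k12 * b2| ≤ 4 * κ ∧
    |m2 * (z1 - z0) + k12 * b1 + 2 * k22 * b2| ≤ 4 * κ := by
  have hw1 : 0 < w 1 := hw2.trans_le hw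
  have hP : 0 ≤ P := (abs_nonneg _).trans hz
  have hκ : 0 ≤ κ := (mul_nonneg (abs_nonneg _) hP).trans hfl.m2
  have p1 : |m1| * P ≤ κ := by
    have : |m1| * P * w 1 ≤ κ * w 1 := hfl.m1.trans (by gcongr)
    exact le_of_mul_le_mul_right this hw1
  have p11 : |k11| * w 1 ≤ κ := by
    have : |k11| * w 1 * w 1 ≤ κ * w 1 := by
      calc |k11| * w 1 * w 1 = |k11| * w 1 ^ 2 := by ring
        _ ≤ κ * w 2 := hfl.k11
        _ ≤ κ * w 1 := by gcongr
    exact le_of_mul_le_mul_right this hw1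
  have p12 : |k12| * w 2 ≤ κ := (mul_le_mul_of_nonneg_left hw (abs_nonneg _)).trans hfl.k12
  have t1 : |m1 * (z1 - z0)| ≤ κ := by
    rw [abs_mul]; exact (mul_le_mul_of_nonneg_left hz (abs_nonneg _)).trans p1
  have t2 : |m2 * (z1 - z0)| ≤ κ := by
    rw [abs_mul]; exact (mul_le_mul_of_nonneg_left hz (abs_nonneg _)).trans hfl.m2
  have t3 : |2 * k11 * b1| ≤ 2 * κ := by
    rw [abs_mul, abs_mul, abs_two]
    have := mul_le_mul_of_nonneg_left hb1 (abs_nonneg k11)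
    linarith
  have t4 : |k12 * b2| ≤ κ := by
    rw [abs_mul]; exact (mul_le_mul_of_nonneg_left hb2 (abs_nonneg _)).trans p12
  have t5 : |k12 * b1| ≤ κ := by
    rw [abs_mul]; exact (mul_le_mul_of_nonneg_left hb1 (abs_nonneg _)).trans hfl.k12
  have t6 : |2 * k22 * b2| ≤ 2 * κ := by
    rw [abs_mul, abs_mul, abs_two]
    have := mul_le_mul_of_nonneg_left hb2 (abs_nonneg k22)
    have := hfl.k22
    linarith
  constructor
  · refine (abs_add_le _ _).trans ?_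
    have := abs_add_le (m1 * (z1 - z0)) (2 * k11 * b1)
    linarith
  · refine (abs_add_le _ _).trans ?_
    have := abs_add_le (m2 * (z1 - z0)) (k12 * b1)
    linarith

/-- rates of the slopes along a line of the container -/
theorem rate_bd {κ : ℝ} (hfl : Flat κ P (w 1) (w 2) m1 m2 k11 k12 k22) (hw2 : 0 < w 2)
    (hw : w 2 ≤ w 1) (hP : 0 ≤ P) {v1 v2 : ℝ} (hv1 : |v1| * P ≤ 2 * w 1) (hv2 : |v2| * P ≤ 2 * w 2) :
    |m1 + 2 * k11 * v1 + k12 * v2| * P * w 1 ≤ 7 * κ * w 2 ∧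
    |m2 + k12 * v1 + 2 * k22 * v2| * P ≤ 7 * κ := by
  have hw1 : 0 < w 1 := hw2.trans_le hw
  have hκ : 0 ≤ κ := (mul_nonneg (abs_nonneg _) hP).trans hfl.m2
  constructor
  · have h1 : |m1 + 2 * k11 * v1 + k12 * v2| ≤ |m1| + 2 * |k11| * |v1| + |k12| * |v2| := by
      refine (abs_add_le _ _).trans (add_le_add ((abs_add_le _ _).trans ?_) (abs_mul _ _).le)
      rw [abs_mul, abs_mul, abs_two]
    calc |m1 + 2 * k11 * v1 + k12 * v2| * P * w 1 ≤
        (|m1| + 2 * |k11| * |v1| + |k12| * |v2|) * P * w 1 := by gcongr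
      _ = |m1| * P * w 1 + 2 * |k11| * w 1 * (|v1| * P) + |k12| * w 1 * (|v2| * P) := by ring
      _ ≤ κ * w 2 + 2 * |k11| * w 1 * (2 * w 1) + |k12| * w 1 * (2 * w 2) := by
          have := hfl.m1
          gcongr
      _ = κ * w 2 + 4 * (|k11| * w 1 ^ 2) + 2 * (|k12| * w 1) * w 2 := by ring
      _ ≤ κ * w 2 + 4 * (κ * w 2) + 2 * κ * w 2 := by
          have := hfl.k11
          have := hfl.k12
          gcongr
      _ = 7 * κ * w 2 := by ring
  · have h1 : |m2 + k12 * v1 + 2 * k22 * v2| ≤ |m2| + |k12| * |v1| + 2 * |k22| * |v2| := by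
      refine (abs_add_le _ _).trans (add_le_add ((abs_add_le _ _).trans ?_) ?_)
      · rw [abs_mul]
      · rw [abs_mul, abs_mul, abs_two]
    calc |m2 + k12 * v1 + 2 * k22 * v2| * P ≤ (|m2| + |k12| * |v1| + 2 * |k22| * |v2|) * P := by
          gcongr
      _ = |m2| * P + |k12| * (|v1| * P) + 2 * |k22| * (|v2| * P) := by ring
      _ ≤ κ + |k12| * (2 * w 1) + 2 * |k22| * (2 * w 2) := by
          have := hfl.m2
          gcongr
      _ = κ + 2 * (|k12| * w 1) + 4 * (|k22| * w 2) := by ring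
      _ ≤ κ + 2 * κ + 4 * κ := by
          have := hfl.k12
          have := hfl.k22
          gcongr
      _ = 7 * κ := by ring

end cont

end Crest.Agent.R136.End882
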