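import Crest.Agent.R136.End7_882
import Crest.Agent.R136.End4_882

/-!
# R136 (S0187): END, part 8 (helper882): finite form for one explicit container

`sample_planks` : number of lines of the sample in a plank.
-/

set_option autoImplicit false
set_option linter.unusedVariables false

namespace Crest.Agent.R136.End882

open Finset
open Crest.Agent.R136.LmQ861 Crest.Agent.R136.Sh605 Crest.Agent.R136.HR829
open Crest.Agent.R138.Mk163 (zc zl rho alive own)

open Classical in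
set_option maxHeartbeats 1000000 in
/-- **number of lines of the sample in a plank** -/
theorem sample_planks (F I0 : Finset (ℕ × ℝ)) (L : ℕ → Ln4) (nb : ℕ × ℝ → ℕ × ℝ → Prop)
    {e : Fin 3 → V3} {c : Ln4} {w : V3} {q : ℝ → V3 → ℝ}
    {z0 s1 s2 m1 m2 k11 k12 k22 a r0 D K nF n0 Kc R : ℝ} {Rw : ℝ → ℝ → ℝ → ℝ}
    {Cl : V3 → ℝ → Prop} {i l H : ℕ} {J0 cl : ℤ}
    (he : Ortho e) (hq : IsQ q) (hF : FQ e c q z0 s1 s2 m1 m2 k11 k12 k22)
    (hs1 : |s1| ≤ 3 / 2) (hs2 : |s2| ≤ 3 / 2) (hz0 : zl i J0 ≤ z0) (hz1 : z0 ≤ zl i J0 + rho i)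
    (ha : 0 < a) (haw : a ≤ w 2) (hw : w 2 ≤ w 1)
    (hfl : Flat (1 / 1000) (rho i) (w 1) (w 2) m1 m2 k11 k12 k22)
    (hin : ∀ x ∈ F, InSheet (L x.1) e c w q a (zl i J0) (rho i))
    (hD : 0 ≤ D) (hR0 : ∀ x y z, 0 ≤ x → 0 ≤ y → 0 ≤ z → 0 ≤ Rw x y z)
    (hRm : ∀ x y z x' y' z', 0 ≤ x → 0 ≤ y → 0 ≤ z → x ≤ x' → y ≤ y' → z ≤ z' →
      Rw x y z ≤ Rw x' y' z')
    (hmax : DMaxK (alive I0 l cl) L (zl l cl) (rho l) D Rw r0 Cl)
    (hH : 0 < H) (hR : 0 < R) (hHR : 200000000 * (H : ℝ) ^ 2 ≤ R) (hlen : rho l * R ≤ H * rho i)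
    (h01 : zl i J0 ≤ zl l cl) (h11 : zl l cl + rho l ≤ zl i J0 + rho i)
    (hK : 0 ≤ K) (hKc : 0 ≤ Kc) (hn0 : 0 ≤ n0)
    (hlow : ∀ x ∈ F, nF ≤ K * ((F.filter fun y => y.1 = x.1 ∧ zc l y.2 = zc l x.2).card : ℝ))
    (hup : ∀ x ∈ I0, ((I0.filter fun y => y.1 = x.1 ∧ zc l y.2 = zc l x.2).card : ℝ) ≤ K * n0)
    (hcomb : ∀ P ⊆ F, ∀ P' ⊆ I0, (∀ x ∈ P, ∀ y ∈ I0, nb x y → y ∈ P') →
      Kc * (P.card : ℝ) ≤ K * (P'.card : ℝ))
    (hnb : ∀ x ∈ F, ∀ y ∈ I0, nb x y → zc l y.2 = zc l x.2 ∧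
      ∀ z, zl i J0 ≤ z → z ≤ zl i J0 + rho i → ∀ b, |nrm e w q a (L x.1) (L y.1) z b| ≤ 1 / R)
    (hthin : 6 * H * a ≤ w 2) (hr : r0 * R ≤ 2718 * a)
    (hCl : ∀ A B a', 2718 / R * w 1 ≤ A → A ≤ 16308 * (H / R) * w 1 → 2718 / R * w 2 ≤ B →
      B ≤ 32616 * (H / R) * w 2 → 2718 / R * a ≤ a' → a' ≤ 32616 * (H / R) * a → Cl (wFQ A B) a')
    {x : ℕ × ℝ} (hx : x ∈ F) (jx : ℤ)
    (hnear : ∀ z, zl l cl ≤ z → z ≤ zl l cl + rho l →
      |z - (zm i J0 + rho i / 2 * ((jx : ℝ) / R))| ≤ 2 * (rho i / 2) * H / R)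
    {n : Fin 3 → ℝ} (hn : ∑ i, n i ^ 2 = 1) {E : Fin 2 → Fin 3 → ℝ}
    (hE : ∀ a b, ∑ i, E a i * E b i = if a = b then 1 else 0) (hEn : ∀ a, ∑ i, E a i * n i = 0)
    {wd : Fin 2 → ℝ} (hwd : ∀ a, 1 / (H : ℝ) ≤ wd a ∧ wd a ≤ 1) :
    Kc * nF * (((alive F l cl).filter fun t =>
      Plk (fun l => gam e c w q a (zm i J0) (rho i / 2) (L l))
        (fun l => vel e c w q a (zm i J0) (rho i / 2) (L l)) R H n E wd (x.1, jx)
        (t, jx)).card : ℝ) ≤
      K ^ 3 * n0 * (25920 * D * (2718 ^ 3 / R ^ 3 * (wd 0 * wd 1) * (H : ℝ) ^ 2) *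
        (a * w 2 * w 1 *
          Rw (326160 * (H / R) * a) (326160 * (H / R) * w 2) (326160 * (H / R) * w 1))) := by
  have hw2 : 0 < w 2 := ha.trans_le haw
  have hw1 : 0 < w 1 := hw2.trans_le hw
  have hH0 : (0 : ℝ) < H := by exact_mod_cast hH
  have hH1 : (1 : ℝ) ≤ H := by exact_mod_cast hH
  have hρi : 0 < rho i := HR829.rho_pos i
  have hρl : 0 < rho l := HR829.rho_pos l
  have hzm : zl i J0 = zm i J0 - rho i / 2 := by unfold zm; ring
  have hρ2 : rho i = 2 * (rho i / 2) := by ring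
  have hH2 : (H : ℝ) ^ 2 ≤ R := by nlinarith
  have hHR1 : (H : ℝ) ≤ H ^ 2 := by nlinarith
  set s : V3 := sPlk R H wd with hs
  have hs0 := sPlk_pos hR hH hwd
  have hsge := sPlk_ge hR hH hwd
  have hsle := sPlk_le hR hH hwd
  have hO := frm_ortho hn hE hEn
  set P := (alive F l cl).filter fun t =>
      Plk (fun l => gam e c w q a (zm i J0) (rho i / 2) (L l))
        (fun l => vel e c w q a (zm i J0) (rho i / 2) (L l)) R H n E wd (x.1, jx)
        (t, jx) with hP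
  set T := (alive I0 l cl).filter fun t => ∀ z, zl l cl ≤ z → z ≤ zl l cl + rho l → ∀ b,
      |dt (frm n E b) (nrm e w q a (L x.1) (L t) z)| ≤ (fun b => 2 * s b) b with hT
  have hcount := sample_count F I0 nb l cl hK hKc hn0 hlow hup hcomb P T (filter_subset _ _) (by
    intro x' hx' hc' hxP y hy hxy
    obtain ⟨g1, g2⟩ := hnb x' hx' y hy hxy
    have hyc : zc l y.2 = cl := g1.trans hc'
    refine ⟨hyc, ?_⟩
    rw [hT, mem_filter]
    refine ⟨mem_alive.2 ⟨y, hy, rfl, hyc⟩, fun z h1 h2 b => ?_⟩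
    rw [hP, mem_filter] at hxP
    have hb := plk_box (x := (x.1, jx)) L hq ha hw1 hw2 hzm hρ2 (by positivity) (hin x hx) hH hR
      hH2 hnear hn hE hEn hwd (hin x' hx') hxP.2 z h1 h2 b
    refine box_nbr (hO.abs_le_one b) hb (g2 z (h01.trans h1) (h2.trans h11)) ?_
    refine le_trans ?_ (hsge b)
    rw [← mul_div_assoc, mul_one]
    gcongr
    norm_num)
  refine hcount.trans (mul_le_mul_of_nonneg_left ?_ (by positivity))
  -- D-max for the ambient lines
  set z1 := zl l cl with hz1d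
  set t := rho l / rho i with ht
  have hz1b : |z1 - z0| ≤ rho i := by
    rw [abs_le]; constructor <;> linarith
  have hxS := hin x hx
  have hxk := (hxS z1 h01 (by linarith)).1
  obtain ⟨sl1, sl2⟩ := slope_bd hfl hw2 hw hz1b (hxk 1) (hxk 2)
  obtain ⟨rt1, rt2⟩ := rate_bd hfl hw2 hw hρi.le (vel_bd hxS hρi.le 1) (vel_bd hxS hρi.le 2)
  have hF' := hF.move (L x.1) z1
  have htR : rho l ≤ H / R * rho i := by
    rw [div_mul_eq_mul_div, le_div_iff₀ hR]; linarith
  have hHRp : 0 < H / R := by positivity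
  have hfin := dmaxF (alive I0 l cl) L (w := w) (a := a) (z0 := z1) (ρ := rho l) (r0 := r0)
    (n := frm n E) (s := fun b => 2 * s b) (S := 5436 * (H / R)) (σ := 5436 / R) he hq hF'
    (by
      have := abs_add_le s1 (m1 * (z1 - z0) + 2 * k11 * dt (e 1) ((L x.1).pos z1 - c.pos z1) +
        k12 * dt (e 2) ((L x.1).pos z1 - c.pos z1))
      rw [← add_assoc, ← add_assoc] at this
      linarith)
    (by
      have := abs_add_le s2 (m2 * (z1 - z0) + k12 * dt (e 1) ((L x.1).pos z1 - c.pos z1) +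
        2 * k22 * dt (e 2) ((L x.1).pos z1 - c.pos z1))
      rw [← add_assoc, ← add_assoc] at this
      linarith)
    le_rfl (by linarith) ha haw hw hD hR0 hRm hmax hO
    (fun b => by have := hs0 b; positivity)
    (fun b => by
      have := hsle b
      calc 2 * s b ≤ 2 * (2718 * H / R) := by gcongr
        _ = 5436 * (H / R) := by ring)
    (fun b => by
      have := hsge b
      calc 5436 / R = 2 * (2718 / R) := by ring
        _ ≤ 2 * s b := by gcongr)
    (by positivity)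
    (by
      calc 6 * (5436 * (H / R)) * a = 5436 / R * (6 * H * a) := by ring
        _ ≤ 5436 / R * w 2 := by gcongr)
    (by
      have e1 : 32000 * (5436 * ((H : ℝ) / R)) ^ 2 = 5436 / R * (173952000 * H ^ 2 / R) := by
        field_simp; norm_num
      rw [e1]
      have e2 : 173952000 * (H : ℝ) ^ 2 / R ≤ 1 := by
        rw [div_le_one hR]; nlinarith
      have : 0 < 5436 / R := by positivity
      nlinarith)
    (by
      rw [← mul_assoc, ← mul_div_assoc, div_le_one hR]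
      nlinarith)
    (by
      calc |m1 + 2 * k11 * dt (e 1) ((L x.1).v - c.v) + k12 * dt (e 2) ((L x.1).v - c.v)| *
            rho l * w 1 ≤
          |m1 + 2 * k11 * dt (e 1) ((L x.1).v - c.v) + k12 * dt (e 2) ((L x.1).v - c.v)| *
            (H / R * rho i) * w 1 := by gcongr
        _ = H / R * (|m1 + 2 * k11 * dt (e 1) ((L x.1).v - c.v) +
            k12 * dt (e 2) ((L x.1).v - c.v)| * rho i * w 1) := by ring
        _ ≤ H / R * (7 * (1 / 1000) * w 2) := by gcongr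
        _ ≤ 5436 * (H / R) * w 2 := by
            have : 0 < H / R * w 2 := by positivity
            nlinarith)
    (by
      calc |m2 + k12 * dt (e 1) ((L x.1).v - c.v) + 2 * k22 * dt (e 2) ((L x.1).v - c.v)| *
            rho l ≤
          |m2 + k12 * dt (e 1) ((L x.1).v - c.v) + 2 * k22 * dt (e 2) ((L x.1).v - c.v)| *
            (H / R * rho i) := by gcongr
        _ = H / R * (|m2 + k12 * dt (e 1) ((L x.1).v - c.v) +
            2 * k22 * dt (e 2) ((L x.1).v - c.v)| * rho i) := by ring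
        _ ≤ H / R * (7 * (1 / 1000)) := by gcongr
        _ ≤ 5436 * (H / R) := by nlinarith)
    (hfl.k11.trans (by linarith)) (hfl.k12.trans (by norm_num)) (hfl.k22.trans (by norm_num))
    (by
      rw [← mul_div_assoc, le_div_iff₀ hR]
      linarith)
    (fun A B a' h1 h2 h3 h4 h5 h6 => hCl A B a'
      (by
        have e1 : 2718 / R * w 1 = 5436 / R * w 1 / 2 := by ring
        rw [e1]; linarith)
      (h2.trans (le_of_eq (by ring)))
      (by
        have e1 : 2718 / R * w 2 = 5436 / R * w 2 / 2 := by ring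
        have : 0 < 5436 / R * w 2 := by positivity
        rw [e1]; linarith)
      (h4.trans (le_of_eq (by ring)))
      (by
        have e1 : 2718 / R * a = 5436 / R * a / 2 := by ring
        rw [e1]; linarith)
      (h6.trans (le_of_eq (by ring))))
  refine hfin.trans (le_of_eq ?_)
  have e1 : (fun b => 2 * s b) 0 * (fun b => 2 * s b) 1 * (fun b => 2 * s b) 2 =
      8 * (2718 ^ 3 / R ^ 3 * (wd 0 * wd 1) * (H : ℝ) ^ 2) := by
    rw [← sPlk_prod, hs]
    ring
  have e2 : ∀ v : ℝ, 60 * (5436 * ((H : ℝ) / R)) * v = 326160 * (H / R) * v := by intro v; ring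
  rw [e1, e2, e2, e2]
  ring

end Crest.Agent.R136.End882
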