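import Crest.Agent.R136.Shc_816

/-!
# R136 (S0187), PLAN 2, (B4): abstract energy lemma (helper816)

Lines in strip coordinates, `H` heights.  At every height the lines lie near a curve (`hcr`), hence
in `≤ κ^4 S^3 H` boxes of side `1/H`; pairs of lines meeting in a box with equal labels are counted by
`hcap`.  Conclusion: `share_energy`.  Proof plan of (B4): helper410 (23556).
-/

set_option autoImplicit false
set_option linter.unusedVariables false

open Finset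

namespace Crest.Agent.R136.Eng816

open Crest.Agent.R136.Shc816 (gl gl_close gl_mem)

theorem image_card_le {ι β γ : Type*} [DecidableEq β] [DecidableEq γ] (Z : Finset ι) (f : ι → β)
    (g : ι → γ) (N : Finset γ) (hg : ∀ T ∈ Z, g T ∈ N) {R : ℝ}
    (hR : ∀ k ∈ N, (((Z.filter fun T => g T = k).image f).card : ℝ) ≤ R) :
    ((Z.image f).card : ℝ) ≤ N.card * R := by
  have h1 : Z.image f ⊆ N.biUnion fun k => (Z.filter fun T => g T = k).image f := by
    intro b hb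
    obtain ⟨T, hT, rfl⟩ := Finset.mem_image.1 hb
    exact Finset.mem_biUnion.2 ⟨g T, hg T hT,
      Finset.mem_image.2 ⟨T, Finset.mem_filter.2 ⟨hT, rfl⟩, rfl⟩⟩
  have h2 : ((Z.image f).card : ℝ) ≤ ∑ k ∈ N, (((Z.filter fun T => g T = k).image f).card : ℝ) := by
    exact_mod_cast (Finset.card_le_card h1).trans Finset.card_biUnion_le
  refine h2.trans ((Finset.sum_le_card_nsmul _ _ _ hR).trans ?_)
  rw [nsmul_eq_mul]

theorem gl_near {h κ x x' : ℝ} (hh : 0 < h) (hd : |x' - x| ≤ κ * h) :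
    gl h x' ∈ Finset.Icc (gl h x - ⌈κ⌉) (gl h x + ⌈κ⌉) := by
  have h1 := abs_le.1 hd
  have e1 : x' / h - x / h ≤ κ := by
    rw [← sub_div, div_le_iff₀ hh]; exact h1.2
  have e2 : -κ ≤ x' / h - x / h := by
    rw [← sub_div, le_div_iff₀ hh]; linarith [h1.1]
  have f1 : ((⌊x' / h⌋ : ℤ) : ℝ) ≤ x' / h := Int.floor_le _
  have f2 : x' / h < (⌊x' / h⌋ : ℝ) + 1 := Int.lt_floor_add_one _
  have f3 : ((⌊x / h⌋ : ℤ) : ℝ) ≤ x / h := Int.floor_le _
  have f4 : x / h < (⌊x / h⌋ : ℝ) + 1 := Int.lt_floor_add_one _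
  have f5 : κ ≤ (⌈κ⌉ : ℝ) := Int.le_ceil _
  rw [Finset.mem_Icc]
  unfold gl
  constructor
  · have : ((⌊x / h⌋ - ⌈κ⌉ : ℤ) : ℝ) < ((⌊x' / h⌋ + 1 : ℤ) : ℝ) := by push_cast; linarith
    have := Int.cast_lt.1 this
    omega
  · have : ((⌊x' / h⌋ : ℤ) : ℝ) < ((⌊x / h⌋ + ⌈κ⌉ + 1 : ℤ) : ℝ) := by push_cast; linarith
    have := Int.cast_lt.1 this
    omega

theorem box_card {ι : Type*} (Z : Finset ι) (x y : ι → ℝ) {h κ : ℝ} (hh : 0 < h) (hκ : 0 ≤ κ)
    (hd : ∀ T ∈ Z, ∀ T' ∈ Z, |x T' - x T| ≤ κ * h ∧ |y T' - y T| ≤ κ * h) :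
    ((Z.image fun T => (gl h (x T), gl h (y T))).card : ℝ) ≤ (2 * κ + 3) ^ 2 := by
  rcases Z.eq_empty_or_nonempty with h0 | ⟨T1, hT1⟩
  · subst h0; simp; positivity
  have hsub : (Z.image fun T => (gl h (x T), gl h (y T))) ⊆
      Finset.Icc (gl h (x T1) - ⌈κ⌉) (gl h (x T1) + ⌈κ⌉) ×ˢ
      Finset.Icc (gl h (y T1) - ⌈κ⌉) (gl h (y T1) + ⌈κ⌉) := by
    intro b hb
    obtain ⟨T, hT, rfl⟩ := Finset.mem_image.1 hb
    exact Finset.mem_product.2 ⟨gl_near hh (hd T1 hT1 T hT).1, gl_near hh (hd T1 hT1 T hT).2⟩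
  have hc : ∀ z : ℤ, ((Finset.Icc (z - ⌈κ⌉) (z + ⌈κ⌉)).card : ℝ) ≤ 2 * κ + 3 := by
    intro z
    have hc0 : 0 ≤ ⌈κ⌉ := Int.ceil_nonneg hκ
    rw [Int.card_Icc]
    have h5 : ((z + ⌈κ⌉ + 1 - (z - ⌈κ⌉)).toNat : ℤ) = z + ⌈κ⌉ + 1 - (z - ⌈κ⌉) :=
      Int.toNat_of_nonneg (by omega)
    have h6 : (((z + ⌈κ⌉ + 1 - (z - ⌈κ⌉)).toNat : ℕ) : ℝ) =
        (z : ℝ) + (⌈κ⌉ : ℝ) + 1 - ((z : ℝ) - (⌈κ⌉ : ℝ)) := by
      exact_mod_cast congrArg (fun x : ℤ => (x : ℝ)) h5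
    rw [h6]
    have := Int.ceil_lt_add_one κ
    linarith
  have h1 := Finset.card_le_card hsub
  rw [Finset.card_product] at h1
  have h2 : ((Z.image fun T => (gl h (x T), gl h (y T))).card : ℝ) ≤
      ((Finset.Icc (gl h (x T1) - ⌈κ⌉) (gl h (x T1) + ⌈κ⌉)).card : ℝ) *
      ((Finset.Icc (gl h (y T1) - ⌈κ⌉) (gl h (y T1) + ⌈κ⌉)).card : ℝ) := by exact_mod_cast h1
  refine h2.trans ?_
  rw [pow_two]
  exact mul_le_mul (hc _) (hc _) (by positivity) (by positivity)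

theorem card_gl {B h : ℝ} (hh : 0 < h) (hB : 0 ≤ B) :
    ((Finset.Icc (-(⌈B / h⌉)) ⌈B / h⌉).card : ℝ) ≤ 2 * (B / h) + 3 := by
  have hBh : 0 ≤ B / h := by positivity
  have h0 : 0 ≤ ⌈B / h⌉ := Int.ceil_nonneg hBh
  rw [Int.card_Icc]
  have h5 : ((⌈B / h⌉ + 1 - -⌈B / h⌉).toNat : ℤ) = ⌈B / h⌉ + 1 - -⌈B / h⌉ :=
    Int.toNat_of_nonneg (by omega)
  have h6 : (((⌈B / h⌉ + 1 - -⌈B / h⌉).toNat : ℕ) : ℝ) = (⌈B / h⌉ : ℝ) + 1 - -(⌈B / h⌉ : ℝ) := by
    exact_mod_cast congrArg (fun x : ℤ => (x : ℝ)) h5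
  rw [h6]
  have := Int.ceil_lt_add_one (B / h)
  linarith

/-- one piece of the curve -/
theorem curve_piece {ι : Type*} (Z : Finset ι) (x y u v : ι → ℝ) {κ S h : ℝ} (hκ : 1 ≤ κ)
    (hS : 1 ≤ S) (hh : 0 < h) (hb : ∀ T ∈ Z, |x T| ≤ S ∧ |y T| ≤ S)
    (hu : ∀ T ∈ Z, u T ^ 2 + v T ^ 2 = 1)
    (hs : ∀ T ∈ Z, ∀ T' ∈ Z, 50 * κ * (|x T' - x T| + |y T' - y T|) ≤ 1 ∧
      |u T' - u T| ≤ 1 / 10 ∧ |v T' - v T| ≤ 1 / 10)
    (hcr : ∀ T ∈ Z, ∀ T' ∈ Z, |u T * (x T' - x T) + v T * (y T' - y T)| ≤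
      κ * (h + ((x T' - x T) ^ 2 + (y T' - y T) ^ 2))) :
    ((Z.image fun T => (gl h (x T), gl h (y T))).card : ℝ) ≤
      (2 * (2 * S / h) + 3) * (2 * (4 * κ) + 3) ^ 2 := by
  rcases Z.eq_empty_or_nonempty with h0 | ⟨T0, hT0⟩
  · subst h0; simp; positivity
  have hu0 := hu T0 hT0
  have hu1 : |u T0| ≤ 1 := by rw [abs_le]; constructor <;> nlinarith [sq_nonneg (v T0)]
  have hv1 : |v T0| ≤ 1 := by rw [abs_le]; constructor <;> nlinarith [sq_nonneg (u T0)]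
  have huv : |u T0| + |v T0| ≤ 3 / 2 := by
    have e1 : |u T0| ^ 2 = u T0 ^ 2 := sq_abs _
    have e2 : |v T0| ^ 2 = v T0 ^ 2 := sq_abs _
    nlinarith [sq_nonneg (|u T0| - |v T0|), abs_nonneg (u T0), abs_nonneg (v T0)]
  have h1 := image_card_le Z (fun T => (gl h (x T), gl h (y T)))
    (fun T => gl h (u T0 * y T - v T0 * x T)) (Finset.Icc (-(⌈2 * S / h⌉)) ⌈2 * S / h⌉)
    (fun T hT => gl_mem hh (by
      refine (abs_sub _ _).trans ?_
      rw [abs_mul, abs_mul]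
      have a1 := mul_le_mul hu1 (hb T hT).2 (abs_nonneg _) zero_le_one
      have a2 := mul_le_mul hv1 (hb T hT).1 (abs_nonneg _) zero_le_one
      linarith)) (R := (2 * (4 * κ) + 3) ^ 2)
    (fun k _ => box_card _ x y hh (by positivity) (fun T hT T' hT' => by
      obtain ⟨hTZ, e1⟩ := Finset.mem_filter.1 hT
      obtain ⟨hTZ', e2⟩ := Finset.mem_filter.1 hT'
      have hw : |(u T0 * y T' - v T0 * x T') - (u T0 * y T - v T0 * x T)| ≤ h :=
        gl_close hh (e2.trans e1.symm)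
      set dx := x T' - x T with hdx
      set dy := y T' - y T with hdy
      have hw' : |u T0 * dy - v T0 * dx| ≤ h := by
        have : (u T0 * y T' - v T0 * x T') - (u T0 * y T - v T0 * x T) =
          u T0 * dy - v T0 * dx := by rw [hdx, hdy]; ring
        rwa [this] at hw
      have hc := hcr T hTZ T' hTZ'
      have hs1 := hs T hTZ T' hTZ'
      have hs2 := hs T hTZ T0 hT0
      rw [← hdx, ← hdy] at hc hs1
      have D0 : 0 ≤ |dx| + |dy| := by positivity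
      have q1 : κ * (dx ^ 2 + dy ^ 2) ≤ (|dx| + |dy|) / 50 := by
        have : dx ^ 2 + dy ^ 2 ≤ (|dx| + |dy|) ^ 2 := by
          have a1 : |dx| ^ 2 = dx ^ 2 := sq_abs _
          have a2 : |dy| ^ 2 = dy ^ 2 := sq_abs _
          nlinarith [mul_nonneg (abs_nonneg dx) (abs_nonneg dy)]
        have h2 : κ * (dx ^ 2 + dy ^ 2) ≤ κ * (|dx| + |dy|) ^ 2 :=
          mul_le_mul_of_nonneg_left this (by linarith)
        have h3 : κ * (|dx| + |dy|) ^ 2 = (50 * κ * (|dx| + |dy|)) * (|dx| + |dy|) / 50 := by ring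
        rw [h3] at h2
        have h4 : (50 * κ * (|dx| + |dy|)) * (|dx| + |dy|) ≤ 1 * (|dx| + |dy|) :=
          mul_le_mul_of_nonneg_right hs1.1 D0
        linarith
      have q2 : |u T0 * dx + v T0 * dy| ≤ κ * h + (|dx| + |dy|) * (12 / 100) := by
        have e : u T0 * dx + v T0 * dy = (u T * dx + v T * dy) + ((u T0 - u T) * dx +
          (v T0 - v T) * dy) := by ring
        rw [e]
        refine (abs_add_le _ _).trans ?_
        have e3 : |(u T0 - u T) * dx + (v T0 - v T) * dy| ≤ (1 / 10) * |dx| + (1 / 10) * |dy| := by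
          refine (abs_add_le _ _).trans ?_
          rw [abs_mul, abs_mul]
          exact add_le_add (mul_le_mul_of_nonneg_right hs2.2.1 (abs_nonneg _))
            (mul_le_mul_of_nonneg_right hs2.2.2 (abs_nonneg _))
        have e4 : κ * (h + (dx ^ 2 + dy ^ 2)) = κ * h + κ * (dx ^ 2 + dy ^ 2) := by ring
        linarith
      set a := u T0 * dx + v T0 * dy with ha
      set b := u T0 * dy - v T0 * dx with hb'
      have ex : dx = u T0 * a - v T0 * b := by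
        have : u T0 * a - v T0 * b = (u T0 ^ 2 + v T0 ^ 2) * dx := by rw [ha, hb']; ring
        rw [this, hu0, one_mul]
      have ey : dy = v T0 * a + u T0 * b := by
        have : v T0 * a + u T0 * b = (u T0 ^ 2 + v T0 ^ 2) * dy := by rw [ha, hb']; ring
        rw [this, hu0, one_mul]
      have x1 : |dx| ≤ |u T0| * |a| + |v T0| * |b| := by
        rw [ex]; refine (abs_sub _ _).trans ?_; rw [abs_mul, abs_mul]
      have y1 : |dy| ≤ |v T0| * |a| + |u T0| * |b| := by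
        rw [ey]; refine (abs_add_le _ _).trans ?_; rw [abs_mul, abs_mul]
      have s1 : |dx| + |dy| ≤ (3 / 2) * (|a| + |b|) := by
        have : |dx| + |dy| ≤ (|u T0| + |v T0|) * (|a| + |b|) := by nlinarith
        refine this.trans (mul_le_mul_of_nonneg_right huv (by positivity))
      have hκh : h ≤ κ * h := by nlinarith
      have s2 : |dx| + |dy| ≤ 4 * κ * h := by linarith
      exact ⟨by linarith [abs_nonneg dy], by linarith [abs_nonneg dx]⟩))
  refine h1.trans (mul_le_mul_of_nonneg_right (card_gl hh (by positivity)) (by positivity))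

/-- **number of boxes of side `h` met by a curve** -/
theorem curve_boxes {ι : Type*} (Z : Finset ι) (x y u v : ι → ℝ) {κ S h : ℝ} (hκ : 1 ≤ κ)
    (hS : 1 ≤ S) (hh : 0 < h) (hh1 : h ≤ 1) (hb : ∀ T ∈ Z, |x T| ≤ S ∧ |y T| ≤ S)
    (hu : ∀ T ∈ Z, u T ^ 2 + v T ^ 2 = 1)
    (hcr : ∀ T ∈ Z, ∀ T' ∈ Z, |u T * (x T' - x T) + v T * (y T' - y T)| ≤
      κ * (h + ((x T' - x T) ^ 2 + (y T' - y T) ^ 2))) :
    ((Z.image fun T => (gl h (x T), gl h (y T))).card : ℝ) ≤ 2 * 10 ^ 10 * κ ^ 4 * S ^ 3 / h := by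
  have hκ0 : 0 < κ := by linarith
  set s : ℝ := 1 / (100 * κ) with hs
  have hs0 : 0 < s := by positivity
  have hsκ : 100 * κ * s = 1 := by rw [hs]; field_simp
  set J := Finset.Icc (-(⌈S / s⌉)) ⌈S / s⌉ with hJ
  set J' := Finset.Icc (-(⌈(1:ℝ) / (1 / 10)⌉)) ⌈(1:ℝ) / (1 / 10)⌉ with hJ'
  have hu1 : ∀ T ∈ Z, |u T| ≤ 1 ∧ |v T| ≤ 1 := by
    intro T hT
    have h0 := hu T hT
    constructor
    · rw [abs_le]; constructor <;> nlinarith [sq_nonneg (v T)]
    · rw [abs_le]; constructor <;> nlinarith [sq_nonneg (u T)]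
  have h1 := image_card_le Z (fun T => (gl h (x T), gl h (y T)))
    (fun T => ((gl s (x T), gl s (y T)), (gl (1 / 10) (u T), gl (1 / 10) (v T))))
    ((J ×ˢ J) ×ˢ (J' ×ˢ J')) (fun T hT => by
      simp only [Finset.mem_product]
      exact ⟨⟨gl_mem hs0 (hb T hT).1, gl_mem hs0 (hb T hT).2⟩,
        ⟨gl_mem (by norm_num) (hu1 T hT).1, gl_mem (by norm_num) (hu1 T hT).2⟩⟩)
    (R := (2 * (2 * S / h) + 3) * (2 * (4 * κ) + 3) ^ 2)
    (fun k _ => curve_piece _ x y u v hκ hS hh (fun T hT => hb T (Finset.mem_filter.1 hT).1)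
      (fun T hT => hu T (Finset.mem_filter.1 hT).1) (fun T hT T' hT' => by
        have e1 := (Finset.mem_filter.1 hT).2
        have e2 := (Finset.mem_filter.1 hT').2
        rw [← e1] at e2
        simp only [Prod.mk.injEq] at e2
        have a1 := gl_close hs0 e2.1.1
        have a2 := gl_close hs0 e2.1.2
        have a3 : |u T' - u T| ≤ 1 / 10 := gl_close (by norm_num) e2.2.1
        have a4 : |v T' - v T| ≤ 1 / 10 := gl_close (by norm_num) e2.2.2
        refine ⟨?_, a3, a4⟩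
        have : 50 * κ * (|x T' - x T| + |y T' - y T|) ≤ 50 * κ * (s + s) :=
          mul_le_mul_of_nonneg_left (add_le_add a1 a2) (by positivity)
        linarith)
      (fun T hT T' hT' => hcr T (Finset.mem_filter.1 hT).1 T' (Finset.mem_filter.1 hT').1))
  refine h1.trans ?_
  have hJc : (J.card : ℝ) ≤ 203 * κ * S := by
    refine (card_gl hs0 (by linarith)).trans ?_
    have e : S / s = 100 * κ * S := by rw [hs]; field_simp
    rw [e]
    nlinarith
  have hJc' : (J'.card : ℝ) ≤ 23 := by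
    refine (card_gl (by norm_num) (by norm_num)).trans ?_
    norm_num
  have hJ0 : (0:ℝ) ≤ J.card := by positivity
  have hJ0' : (0:ℝ) ≤ J'.card := by positivity
  rw [Finset.card_product, Finset.card_product, Finset.card_product]
  push_cast
  have p1 : (J.card : ℝ) * J.card * (J'.card * J'.card) ≤ (203 * κ * S) * (203 * κ * S) * (23 * 23) :=
    by gcongr
  have hSh : 1 ≤ S / h := by rw [le_div_iff₀ hh]; linarith
  have p2 : (2 * (2 * S / h) + 3) * (2 * (4 * κ) + 3) ^ 2 ≤ (7 * (S / h)) * (11 * κ) ^ 2 := by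
    have e : 2 * (2 * S / h) + 3 ≤ 7 * (S / h) := by
      have : 2 * (2 * S / h) = 4 * (S / h) := by ring
      linarith
    have e2 : 2 * (4 * κ) + 3 ≤ 11 * κ := by linarith
    gcongr
  refine (mul_le_mul p1 p2 (by positivity) (by positivity)).trans ?_
  have e5 : 2 * 10 ^ 10 * κ ^ 4 * S ^ 3 / h = 2 * 10 ^ 10 * (κ ^ 4 * S ^ 2 * (S / h)) := by ring
  have e6 : (203 * κ * S) * (203 * κ * S) * (23 * 23) * ((7 * (S / h)) * (11 * κ) ^ 2) =
      (203 * 203 * 23 * 23 * 7 * 121) * (κ ^ 4 * S ^ 2 * (S / h)) := by ring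
  rw [e5, e6]
  refine mul_le_mul_of_nonneg_right (by norm_num) (by positivity)

end Crest.Agent.R136.Eng816
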