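import Crest.Agent.R136.P0_830

/-!
# R136, wall resonances (helper599): a point of a rung which is not dead

**`exists_pt`** : a stage `StW .. s lam lo` (`0 < s ≤ 4`, no slope above `s`) has an interior point
`z` and a tangent `lamI` at it with a `PtC` and `-A.1 ≤ 3 + s - g / 8` (otherwise it is dead).
-/

set_option autoImplicit false
set_option linter.unusedVariables false
set_option linter.unusedSectionVars false

open Filter Topology

namespace Crest.Agent.R136.Ept599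

open Finset Crest.Agent.R136.NetW191 Crest.Agent.R136.Net191 Crest.Agent.R136.Qg926
open Crest.Agent.R136.EvW938 Crest.Agent.R136.Bas938
open Crest.Agent.R136.Gf356 Crest.Agent.R136.Aw413 Crest.Agent.R136.Dg219
open Crest.Agent.R136.PrW464 Crest.Agent.R136.NatW697 Crest.Agent.R136.LadW697
open Crest.Agent.R136.AwJ774 Crest.Agent.R136.ThB830 Crest.Agent.R136.LadT830
open Crest.Agent.R136.Rc146 (OutA)
open Crest.Agent.R136.Dg262 (X)
open Crest.Agent.R136.K2S774 (cn JT BaseOk Prf)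
open Crest.Agent.R136.K2A146 (FLemA deadA)
open Crest.Agent.R138.Ex926 (Base U IsTan)

variable {P : Set (Fin 18 → ℝ)} {ν own : (Fin 18 → ℝ) → ℝ} {K : ℝ} {r0 : Fin 18 → ℝ}
  {θ : Fin 3 → ℝ} {g : ℝ} {qq : Fin 3 → ℝ} {V0 T : Set (Fin 18)} {lam lo : (Fin 18 → ℝ) → ℝ}
  {s : ℝ}

/-- **a point of the rung which is not dead** -/
theorem exists_pt (h : CtxW P ν own K r0 θ g qq V0 T) (hst : StW P ν own K r0 θ g qq V0 s lam lo)
    (hs0 : 0 < s) (hs4 : s ≤ 4) (hs : ∀ k ∈ V0, KW θ k ≤ s) {Q : ((Fin 18 → ℝ) → ℝ) → Prop}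
    (H : ∀ (B Bo : Base) (I J : ℕ → Finset (ℕ × ℝ)) (co : ∀ n : ℕ, ℕ × ℝ → ℕ × ℝ → Fin 18 → ℝ)
      (C : ℝ) (κ : ℕ → ℝ) (u : ℕ → Fin 18 → ℝ) (f : ℕ → ℕ × ℝ → FW)
      (lam' lo' : (Fin 18 → ℝ) → ℝ) (A : ℝ × ℝ) (φ : ℕ → (Fin 18 → ℝ) → ℝ) (r : ℕ → ℝ),
      PtC B Bo I J co C κ u f K θ qq V0 T s lam' lo' A φ r → -A.1 ≤ 3 + s - g / 8 → Q lam') :
    ∃ z : ℝ × ℝ, z.1 < 0 ∧ ∃ k : ℕ → ℝ, (∀ l, 0 < k l) ∧ Tendsto k atTop (𝓝 0) ∧
      ∃ (lamI loI : (Fin 18 → ℝ) → ℝ),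
        IsTan (cn QW (actW (DrW s))) (cn QW (actW (DrW s))) lam
          (fun _ => X 0 (TW s) (btW θ) z) k lamI ∧
        IsTan (cn QW (actW (DrW s))) (cn QW (actW (DrW s))) lo
          (fun _ => X 0 (TW s) (btW θ) z) k loI ∧ Q lamI := by
  classical
  by_contra hcon
  have hg := h.g0
  have hq0 := h.q0
  have hqg := h.qg
  have hd : 0 < g / 8 := by linarith
  refine deadA hst (recW θ _ _) (rungW (J := univ.filter fun k => 4 ≤ k ∧ (alW k : ℝ) = s)
    hs0 (fun k hk => ?_) (b := btW θ) (fun k _ => rfl) (fun k => by simp)) hd ?_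
  · obtain ⟨h4, h1, h2⟩ := vis_al h.slots hk
    exact ⟨h4, h2.trans_le (hs k hk)⟩
  intro z hz D' hD' k lam' lo' kpos k0 H1 H2 x' h' hJ hB φ rt out _
  by_contra hlt
  rw [not_le] at hlt
  have hloc : locT V0 0 (btW θ) (TW s) = fun k => k ∈ V0 ∧ KW θ k = s := by
    funext k
    simp only [locT, eq_iff_iff]
    constructor
    · rintro ⟨hk, hT⟩
      refine ⟨hk, ?_⟩
      rw [(vis_TWc h.slots hs hk).2, TW_z] at hT
      linarith
    · rintro ⟨hk, hK⟩
      refine ⟨hk, ?_⟩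
      rw [(vis_TWc h.slots hs hk).2, TW_z, hK]
      ring
  obtain ⟨B, Bo, I, J, co, C, κ, u, f, hco, hu, hκ, hκs, hne, hae⟩ := h.ae
  have hA := hae (actW (DrW s)) x' h' lam' lo' (TW s) (TW s) (btW θ) _ φ rt
    (fun k => k ∈ T ∧ k ∈ V0 ∧ KW θ k = s) hJ hB (fun i hi => by
      rw [(vis_TWc h.slots hs hi).2, TW_z]
      have := hs i hi
      linarith) (fun k hk => by rw [hloc]; exact hk) (by
      rintro ⟨-, hk, -⟩
      exact absurd (vis_al h.slots hk).1 (by decide)) out.toOutS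
  rw [hloc] at hA
  rw [DlW_saW] at hlt
  refine hcon ⟨z, hz, k, kpos, k0, lam', lo', H1, H2, H B Bo I J co C κ u f lam' lo' _ φ rt
    { co_eq := hco
      gru := hu
      kp1 := hκ
      kp0 := hκs
      ne := hne
      th1 := h.θ1
      q1 := h.q1
      q2 := h.q2
      s0 := hs0
      top := hs
      vis := fun k hk => vis_al h.slots hk
      aew := hA
      out := out
      prf := hst.prf.tan kpos H1 H2
      sweep := fun c hc hc1 hcT t ht =>
        hst.sweep (fun k _ => rfl) (nat_btW _ _) (ThB830.TW_nonneg s hs0) hz kpos k0 H1 hc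
          hc1 hcT ht
      ind := fun c hc c' hc' hcc => hst.ind_pt h.θ1 kpos k0 H1 hc hc' hcc } ?_⟩
  have h4 : qq 0 * (s - 1) ≤ qq 0 * 3 := mul_le_mul_of_nonneg_left (by linarith) hq0
  simp only at hlt ⊢
  linarith

end Crest.Agent.R136.Ept599
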