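import Crest.Agent.R136.Ev9_356

/-!
# R136: evolution with partially resolved slots (helper356)

`Rs` = resolved slots.  The evolution and the composition hold for the slots of `Rs` if every wall of
a resolved slot has resolved factors or a negligible coefficient.
-/

set_option autoImplicit false
set_option linter.unusedSectionVars false
set_option linter.unusedVariables false

open Filter Topology

namespace Crest.Agent.R136.Ev356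

open Finset Crest.Agent.R136.NetQ186 Crest.Agent.R136.Net191 Crest.Agent.R136.Qg926
open Crest.Agent.R136.Gf356 Crest.Agent.R136.Ab356
open Crest.Agent.R138.Ex926 (Base U)

/-- **the exact composition law**, coefficients `q` -/
structure LawC (q : Fin 11 → Fin 11 → Fin 11 → ℝ) (g b c : Fin 11 → ℝ) : Prop where
  e0 : g 0 = b 0 + c 0
  e1 : g 1 = b 1 + c 1
  e2 : g 2 = b 2 + c 2
  e3 : g 3 = b 3 + c 3
  e4 : g 4 = b 4 + c 4 - q 2 3 4 * (b 2 * c 3)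
  e5 : g 5 = b 5 + c 5
  e6 : g 6 = b 6 + c 6 + q 2 5 6 * (b 2 * c 5)
  e7 : g 7 = b 7 + c 7 - 2 * (q 0 1 7 * (b 0 * c 1)) + q 4 5 7 * (b 4 * c 5) +
    q 4 5 7 * (q 2 3 4 * (b 2 * (b 3 * c 5))) + q 3 6 7 * (b 3 * c 6)
  e8 : g 8 = b 8 + c 8 - q 0 5 8 * (b 0 * c 5)
  e9 : g 9 = b 9 + c 9 - q 0 6 9 * (b 0 * c 6) + q 2 8 9 * (b 2 * c 8) -
    q 2 8 9 * (q 0 5 8 * (b 2 * (b 0 * c 5)))
  e10 : g 10 = b 10 + c 10 - q 0 7 10 * (b 0 * c 7) + q 0 7 10 * (q 0 1 7 * (b 0 * (b 0 * c 1))) +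
    q 4 8 10 * (b 4 * c 8) + q 4 8 10 * (q 2 3 4 * (b 2 * (b 3 * c 8))) -
    q 4 8 10 * (q 0 5 8 * (b 4 * (b 0 * c 5))) -
    q 4 8 10 * (q 2 3 4 * (q 0 5 8 * (b 2 * (b 3 * (b 0 * c 5))))) +
    q 3 9 10 * (b 3 * c 9) - q 3 9 10 * (q 0 6 9 * (b 3 * (b 0 * c 6)))

/-- relations between the coefficients -/
structure CfR (q : Fin 11 → Fin 11 → Fin 11 → ℝ) : Prop where
  r7 : q 4 5 7 * q 2 3 4 = q 3 6 7 * q 2 5 6
  r9 : q 0 6 9 * q 2 5 6 = q 2 8 9 * q 0 5 8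
  r10a : q 4 8 10 * q 2 3 4 = q 3 9 10 * q 2 8 9
  r10b : q 0 7 10 * q 4 5 7 = q 4 8 10 * q 0 5 8
  r10c : q 0 7 10 * q 3 6 7 = q 3 9 10 * q 0 6 9

/-- **exact evolution**: `x → x'` by `a`, `x → y` by `b`, `y → y'` by `o`, `x' → y'` by `g`;
`u = h - a`, `h` : `x → y'`. -/
theorem evo_exact {q : Fin 11 → Fin 11 → Fin 11 → ℝ} (hq : CfR q) {a g h : Fin 11 → ℝ}
    (H : LawC q h a g) :
    g 0 = h 0 - a 0 ∧ g 1 = h 1 - a 1 ∧ g 2 = h 2 - a 2 ∧ g 3 = h 3 - a 3 ∧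
    g 4 = (h 4 - a 4) + q 2 3 4 * (a 2 * g 3) ∧ g 5 = h 5 - a 5 ∧
    g 6 = (h 6 - a 6) - q 2 5 6 * (a 2 * (h 5 - a 5)) ∧
    g 7 = (h 7 - a 7) + 2 * (q 0 1 7 * (a 0 * g 1)) - q 4 5 7 * (a 4 * (h 5 - a 5)) -
      q 3 6 7 * (a 3 * (h 6 - a 6)) ∧
    g 8 = (h 8 - a 8) + q 0 5 8 * (a 0 * (h 5 - a 5)) ∧
    g 9 = (h 9 - a 9) + q 0 6 9 * (a 0 * (h 6 - a 6)) -
      q 2 8 9 * (a 2 * ((h 8 - a 8) + q 0 5 8 * (a 0 * (h 5 - a 5)))) ∧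
    g 10 = (h 10 - a 10) + q 0 7 10 * (a 0 * (h 7 - a 7)) +
      q 0 7 10 * (a 0 * (q 0 1 7 * (a 0 * g 1))) -
      q 4 8 10 * (a 4 * ((h 8 - a 8) + q 0 5 8 * (a 0 * (h 5 - a 5)))) -
      q 3 9 10 * (a 3 * ((h 9 - a 9) + q 0 6 9 * (a 0 * (h 6 - a 6)))) := by
  obtain ⟨e0, e1, e2, e3, e4, e5, e6, e7, e8, e9, e10⟩ := H
  obtain ⟨r7, r9, r10a, r10b, r10c⟩ := hq
  have g5 : g 5 = h 5 - a 5 := by linarith
  have g6 : g 6 = (h 6 - a 6) - q 2 5 6 * (a 2 * (h 5 - a 5)) := by rw [← g5]; linarith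
  have g7 : g 7 = (h 7 - a 7) + 2 * (q 0 1 7 * (a 0 * g 1)) - q 4 5 7 * (a 4 * (h 5 - a 5)) -
      q 3 6 7 * (a 3 * (h 6 - a 6)) := by
    have e6' : h 6 - a 6 = g 6 + q 2 5 6 * (a 2 * g 5) := by linarith
    rw [e6', ← g5]
    linear_combination -e7 + (-(a 2 * a 3 * g 5)) * r7
  have g8 : g 8 = (h 8 - a 8) + q 0 5 8 * (a 0 * (h 5 - a 5)) := by rw [← g5]; linarith
  have e8' : h 8 - a 8 = g 8 - q 0 5 8 * (a 0 * g 5) := by linarith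
  have e6' : h 6 - a 6 = g 6 + q 2 5 6 * (a 2 * g 5) := by linarith
  have e9' : h 9 - a 9 = g 9 - q 0 6 9 * (a 0 * g 6) + q 2 8 9 * (a 2 * g 8) -
    q 2 8 9 * (q 0 5 8 * (a 2 * (a 0 * g 5))) := by linarith
  have e7' : h 7 - a 7 = g 7 - 2 * (q 0 1 7 * (a 0 * g 1)) + q 4 5 7 * (a 4 * g 5) +
    q 4 5 7 * (q 2 3 4 * (a 2 * (a 3 * g 5))) + q 3 6 7 * (a 3 * g 6) := by linarith
  refine ⟨by linarith, by linarith, by linarith, by linarith, by linarith, g5, g6, g7, g8, ?_, ?_⟩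
  · rw [e9', e8', e6', ← g5]
    linear_combination (-(a 0 * a 2 * g 5)) * r9
  · rw [e9', e8', e6', e7', ← g5]
    linear_combination -e10 + (-(a 2 * a 3 * g 8)) * r10a +
      (-(a 0 * a 4 * g 5) - q 2 3 4 * a 0 * a 2 * a 3 * g 5) * r10b +
      (-(a 0 * a 3 * g 6)) * r10c + (a 0 * a 2 * a 3 * g 5 * q 3 9 10) * r9

/-! ### products with negligible coefficients -/

/-- product of a coefficient and a term; the term need only be close if the coefficient of the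
limit does not vanish -/
theorem Ap.cmul {η M c' q q' u u' : ℝ} (hη : 0 ≤ η) (hq : Ap η 1 1 q q') (hu : |u| ≤ M)
    (hu' : |u'| ≤ M) (hc : 0 ≤ c') (h : q' = 0 ∨ |u - u'| ≤ c' * η) :
    Ap η M (M + c') (q * u) (q' * u') where
  l := by
    rw [abs_mul]
    have := mul_le_mul hq.l hu (abs_nonneg _) zero_le_one
    linarith
  r := by
    rw [abs_mul]
    have := mul_le_mul hq.r hu' (abs_nonneg _) zero_le_one
    linarith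
  d := by
    have hM : 0 ≤ M := (abs_nonneg _).trans hu
    rcases h with h | h
    · rw [h, zero_mul, sub_zero, abs_mul]
      have h1 := hq.d
      rw [h, sub_zero, one_mul] at h1
      have := mul_le_mul h1 hu (abs_nonneg _) hη
      nlinarith [mul_nonneg hc hη]
    · have e : q * u - q' * u' = (q - q') * u + q' * (u - u') := by ring
      rw [e]
      refine (abs_add_le _ _).trans ?_
      rw [abs_mul, abs_mul]
      have h1 := mul_le_mul hq.d hu (abs_nonneg _) (by linarith)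
      have h2 := mul_le_mul hq.r h (abs_nonneg _) zero_le_one
      nlinarith

/-- **closure of the resolved slots**: the walls of a resolved slot have resolved factors or a
negligible coefficient -/
structure Clo (Rs : Finset (Fin 11)) (q : Fin 11 → Fin 11 → Fin 11 → ℝ) : Prop where
  w4 : 4 ∈ Rs → q 2 3 4 = 0 ∨ (2 ∈ Rs ∧ 3 ∈ Rs)
  w6 : 6 ∈ Rs → q 2 5 6 = 0 ∨ (2 ∈ Rs ∧ 5 ∈ Rs)
  w7r : q 0 1 7 = 0
  w7a : 7 ∈ Rs → q 4 5 7 = 0 ∨ (4 ∈ Rs ∧ 5 ∈ Rs)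
  w7b : 7 ∈ Rs → q 3 6 7 = 0 ∨ (3 ∈ Rs ∧ 6 ∈ Rs)
  w8 : 8 ∈ Rs → q 0 5 8 = 0 ∨ (0 ∈ Rs ∧ 5 ∈ Rs)
  w9a : 9 ∈ Rs → q 0 6 9 = 0 ∨ (0 ∈ Rs ∧ 6 ∈ Rs)
  w9b : 9 ∈ Rs → q 2 8 9 = 0 ∨ (2 ∈ Rs ∧ 8 ∈ Rs)
  w10a : 10 ∈ Rs → q 0 7 10 = 0 ∨ (0 ∈ Rs ∧ 7 ∈ Rs)
  w10b : 10 ∈ Rs → q 4 8 10 = 0 ∨ (4 ∈ Rs ∧ 8 ∈ Rs)
  w10c : 10 ∈ Rs → q 3 9 10 = 0 ∨ (3 ∈ Rs ∧ 9 ∈ Rs)

end Crest.Agent.R136.Ev356
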