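import Crest.Agent.R136.Ev10_356

/-!
# R136: evolution with partially resolved slots (helper356), finite part
-/

set_option autoImplicit false
set_option linter.unusedSectionVars false
set_option linter.unusedVariables false

open Filter Topology

namespace Crest.Agent.R136.Ev356

open Finset Crest.Agent.R136.NetQ186 Crest.Agent.R136.Net191 Crest.Agent.R136.Qg926
open Crest.Agent.R136.Gf356 Crest.Agent.R136.Ab356
open Crest.Agent.R138.Ex926 (Base U)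

/-- small monomial -/
theorem sm {η q q' u : ℝ} (hη : 0 ≤ η) (hq : Ap η 1 1 q q') (hu : |u| ≤ 1)
    (h : q' = 0 ∨ |u| ≤ η) : |q * u| ≤ η := by
  rw [abs_mul]
  rcases h with h | h
  · have h1 := hq.d
    rw [h, sub_zero, one_mul] at h1
    have := mul_le_mul h1 hu (abs_nonneg _) hη
    linarith
  · have := mul_le_mul hq.l h (abs_nonneg _) zero_le_one
    linarith

theorem ab1 {x y : ℝ} (hx : |x| ≤ 1) (hy : |y| ≤ 1) : |x * y| ≤ 1 := by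
  rw [abs_mul]
  have := mul_le_mul hx hy (abs_nonneg _) zero_le_one
  linarith

theorem abη {η x y : ℝ} (hη : 0 ≤ η) (hx : |x| ≤ 1) (hy : |y| ≤ η) : |x * y| ≤ η := by
  rw [abs_mul]
  have := mul_le_mul hx hy (abs_nonneg _) zero_le_one
  linarith

/-- the slots `u = h - a` -/
theorem u_close {Rs S : Finset (Fin 11)} {q q' : Fin 11 → Fin 11 → Fin 11 → ℝ} {η A : ℝ}
    (hη : 0 ≤ η) (hA : 0 ≤ A) (hq : CApp η 1 q q') (hcl : Clo Rs q')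
    {a b o h : Fin 11 → ℝ} (H2 : LawC q h b o) (bb : ∀ s, |b s| ≤ 1) (bo : ∀ s, |o s| ≤ 1)
    (hS : ∀ s, s = 5 ∨ s = 6 ∨ s = 7 ∨ s = 8 ∨ s = 9 ∨ s = 10 → s ∉ S)
    (ha : ∀ s ∈ Rs, s ∉ S → |a s| ≤ A * η) (ho : ∀ s ∈ Rs, s ∉ S → |o s| ≤ η)
    (s : Fin 11) (hs : s = 5 ∨ s = 6 ∨ s = 7 ∨ s = 8 ∨ s = 9 ∨ s = 10) (hsR : s ∈ Rs) :
    |(h s - a s) - b s| ≤ (A + 12) * η := by
  obtain ⟨e0, e1, e2, e3, e4, e5, e6, e7, e8, e9, e10⟩ := H2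
  obtain ⟨c256, c017, c457, c367, c058, c069, c289, c0710, c4810, c3910, c234⟩ := hq
  have hsS := hS s hs
  have has := ha s hsR hsS
  have hos := ho s hsR hsS
  have O : ∀ s, s = 5 ∨ s = 6 ∨ s = 7 ∨ s = 8 ∨ s = 9 ∨ s = 10 → s ∈ Rs → |o s| ≤ η :=
    fun s hs hR => ho s hR (hS s hs)
  have t0 : |o s - a s| ≤ (A + 1) * η := by
    have := abs_sub (o s) (a s)
    linarith
  rcases hs with rfl | rfl | rfl | rfl | rfl | rfl
  · have e : (h 5 - a 5) - b 5 = o 5 - a 5 := by rw [e5]; ring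
    rw [e]; linarith
  · have e : (h 6 - a 6) - b 6 = (o 6 - a 6) + q 2 5 6 * (b 2 * o 5) := by rw [e6]; ring
    rw [e]
    have m1 : |q 2 5 6 * (b 2 * o 5)| ≤ η := sm hη c256 (ab1 (bb 2) (bo 5))
      ((hcl.w6 hsR).imp id fun hh => abη hη (bb 2) (O 5 (by simp) hh.2))
    have := abs_add_le (o 6 - a 6) (q 2 5 6 * (b 2 * o 5))
    linarith
  · have e : (h 7 - a 7) - b 7 = (o 7 - a 7) - 2 * (q 0 1 7 * (b 0 * o 1)) +
        q 4 5 7 * (b 4 * o 5) + q 4 5 7 * (q 2 3 4 * (b 2 * (b 3 * o 5))) +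
        q 3 6 7 * (b 3 * o 6) := by rw [e7]; ring
    rw [e]
    have m1 : |q 0 1 7 * (b 0 * o 1)| ≤ η := sm hη c017 (ab1 (bb 0) (bo 1)) (Or.inl hcl.w7r)
    have m2 : |q 4 5 7 * (b 4 * o 5)| ≤ η := sm hη c457 (ab1 (bb 4) (bo 5))
      ((hcl.w7a hsR).imp id fun hh => abη hη (bb 4) (O 5 (by simp) hh.2))
    have m3 : |q 4 5 7 * (q 2 3 4 * (b 2 * (b 3 * o 5)))| ≤ η :=
      sm hη c457 (ab1 c234.l (ab1 (bb 2) (ab1 (bb 3) (bo 5))))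
      ((hcl.w7a hsR).imp id fun hh => abη hη c234.l (abη hη (bb 2)
        (abη hη (bb 3) (O 5 (by simp) hh.2))))
    have m4 : |q 3 6 7 * (b 3 * o 6)| ≤ η := sm hη c367 (ab1 (bb 3) (bo 6))
      ((hcl.w7b hsR).imp id fun hh => abη hη (bb 3) (O 6 (by simp) hh.2))
    have n1 : |2 * (q 0 1 7 * (b 0 * o 1))| ≤ 2 * η := by
      rw [abs_mul, abs_of_pos (by norm_num : (0 : ℝ) < 2)]; linarith
    have s1 := abs_sub (o 7 - a 7) (2 * (q 0 1 7 * (b 0 * o 1)))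
    have s2 := abs_add_le ((o 7 - a 7) - 2 * (q 0 1 7 * (b 0 * o 1))) (q 4 5 7 * (b 4 * o 5))
    have s3 := abs_add_le ((o 7 - a 7) - 2 * (q 0 1 7 * (b 0 * o 1)) + q 4 5 7 * (b 4 * o 5))
      (q 4 5 7 * (q 2 3 4 * (b 2 * (b 3 * o 5))))
    have s4 := abs_add_le ((o 7 - a 7) - 2 * (q 0 1 7 * (b 0 * o 1)) + q 4 5 7 * (b 4 * o 5) +
      q 4 5 7 * (q 2 3 4 * (b 2 * (b 3 * o 5)))) (q 3 6 7 * (b 3 * o 6))
    linarith
  · have e : (h 8 - a 8) - b 8 = (o 8 - a 8) - q 0 5 8 * (b 0 * o 5) := by rw [e8]; ring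
    rw [e]
    have m1 : |q 0 5 8 * (b 0 * o 5)| ≤ η := sm hη c058 (ab1 (bb 0) (bo 5))
      ((hcl.w8 hsR).imp id fun hh => abη hη (bb 0) (O 5 (by simp) hh.2))
    have := abs_sub (o 8 - a 8) (q 0 5 8 * (b 0 * o 5))
    linarith
  · have e : (h 9 - a 9) - b 9 = (o 9 - a 9) - q 0 6 9 * (b 0 * o 6) + q 2 8 9 * (b 2 * o 8) -
        q 2 8 9 * (q 0 5 8 * (b 2 * (b 0 * o 5))) := by rw [e9]; ring
    rw [e]
    have m1 : |q 0 6 9 * (b 0 * o 6)| ≤ η := sm hη c069 (ab1 (bb 0) (bo 6))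
      ((hcl.w9a hsR).imp id fun hh => abη hη (bb 0) (O 6 (by simp) hh.2))
    have m2 : |q 2 8 9 * (b 2 * o 8)| ≤ η := sm hη c289 (ab1 (bb 2) (bo 8))
      ((hcl.w9b hsR).imp id fun hh => abη hη (bb 2) (O 8 (by simp) hh.2))
    have m3 : |q 2 8 9 * (q 0 5 8 * (b 2 * (b 0 * o 5)))| ≤ η :=
      sm hη c289 (ab1 c058.l (ab1 (bb 2) (ab1 (bb 0) (bo 5))))
      ((hcl.w9b hsR).imp id fun hh => sm hη c058 (ab1 (bb 2) (ab1 (bb 0) (bo 5)))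
        ((hcl.w8 hh.2).imp id fun hk => abη hη (bb 2) (abη hη (bb 0) (O 5 (by simp) hk.2))))
    have s1 := abs_sub (o 9 - a 9) (q 0 6 9 * (b 0 * o 6))
    have s2 := abs_add_le ((o 9 - a 9) - q 0 6 9 * (b 0 * o 6)) (q 2 8 9 * (b 2 * o 8))
    have s3 := abs_sub ((o 9 - a 9) - q 0 6 9 * (b 0 * o 6) + q 2 8 9 * (b 2 * o 8))
      (q 2 8 9 * (q 0 5 8 * (b 2 * (b 0 * o 5))))
    linarith
  · have e : (h 10 - a 10) - b 10 = (o 10 - a 10) - q 0 7 10 * (b 0 * o 7) +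
        q 0 7 10 * (q 0 1 7 * (b 0 * (b 0 * o 1))) + q 4 8 10 * (b 4 * o 8) +
        q 4 8 10 * (q 2 3 4 * (b 2 * (b 3 * o 8))) - q 4 8 10 * (q 0 5 8 * (b 4 * (b 0 * o 5))) -
        q 4 8 10 * (q 2 3 4 * (q 0 5 8 * (b 2 * (b 3 * (b 0 * o 5))))) +
        q 3 9 10 * (b 3 * o 9) - q 3 9 10 * (q 0 6 9 * (b 3 * (b 0 * o 6))) := by
      rw [e10]; ring
    rw [e]
    have m1 : |q 0 7 10 * (b 0 * o 7)| ≤ η := sm hη c0710 (ab1 (bb 0) (bo 7))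
      ((hcl.w10a hsR).imp id fun hh => abη hη (bb 0) (O 7 (by simp) hh.2))
    have m2 : |q 0 7 10 * (q 0 1 7 * (b 0 * (b 0 * o 1)))| ≤ η :=
      abη hη c0710.l (sm hη c017 (ab1 (bb 0) (ab1 (bb 0) (bo 1))) (Or.inl hcl.w7r))
    have m3 : |q 4 8 10 * (b 4 * o 8)| ≤ η := sm hη c4810 (ab1 (bb 4) (bo 8))
      ((hcl.w10b hsR).imp id fun hh => abη hη (bb 4) (O 8 (by simp) hh.2))
    have m4 : |q 4 8 10 * (q 2 3 4 * (b 2 * (b 3 * o 8)))| ≤ η :=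
      sm hη c4810 (ab1 c234.l (ab1 (bb 2) (ab1 (bb 3) (bo 8))))
      ((hcl.w10b hsR).imp id fun hh => abη hη c234.l (abη hη (bb 2)
        (abη hη (bb 3) (O 8 (by simp) hh.2))))
    have m5 : |q 4 8 10 * (q 0 5 8 * (b 4 * (b 0 * o 5)))| ≤ η :=
      sm hη c4810 (ab1 c058.l (ab1 (bb 4) (ab1 (bb 0) (bo 5))))
      ((hcl.w10b hsR).imp id fun hh => sm hη c058 (ab1 (bb 4) (ab1 (bb 0) (bo 5)))
        ((hcl.w8 hh.2).imp id fun hk => abη hη (bb 4) (abη hη (bb 0) (O 5 (by simp) hk.2))))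
    have m6 : |q 4 8 10 * (q 2 3 4 * (q 0 5 8 * (b 2 * (b 3 * (b 0 * o 5)))))| ≤ η :=
      sm hη c4810 (ab1 c234.l (ab1 c058.l (ab1 (bb 2) (ab1 (bb 3) (ab1 (bb 0) (bo 5))))))
      ((hcl.w10b hsR).imp id fun hh => abη hη c234.l
        (sm hη c058 (ab1 (bb 2) (ab1 (bb 3) (ab1 (bb 0) (bo 5))))
        ((hcl.w8 hh.2).imp id fun hk => abη hη (bb 2) (abη hη (bb 3)
          (abη hη (bb 0) (O 5 (by simp) hk.2))))))
    have m7 : |q 3 9 10 * (b 3 * o 9)| ≤ η := sm hη c3910 (ab1 (bb 3) (bo 9))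
      ((hcl.w10c hsR).imp id fun hh => abη hη (bb 3) (O 9 (by simp) hh.2))
    have m8 : |q 3 9 10 * (q 0 6 9 * (b 3 * (b 0 * o 6)))| ≤ η :=
      sm hη c3910 (ab1 c069.l (ab1 (bb 3) (ab1 (bb 0) (bo 6))))
      ((hcl.w10c hsR).imp id fun hh => sm hη c069 (ab1 (bb 3) (ab1 (bb 0) (bo 6)))
        ((hcl.w9a hh.2).imp id fun hk => abη hη (bb 3) (abη hη (bb 0) (O 6 (by simp) hk.2))))
    rw [abs_le] at m1 m2 m3 m4 m5 m6 m7 m8 t0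
    rw [abs_le]
    constructor
    · linarith [m1.1, m1.2, m2.1, m2.2, m3.1, m3.2, m4.1, m4.2, m5.1, m5.2, m6.1, m6.2, m7.1,
        m7.2, m8.1, m8.2, t0.1, t0.2]
    · linarith [m1.1, m1.2, m2.1, m2.2, m3.1, m3.2, m4.1, m4.2, m5.1, m5.2, m6.1, m6.2, m7.1,
        m7.2, m8.1, m8.2, t0.1, t0.2]

end Crest.Agent.R136.Ev356
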