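import Crest.Agent.R136.Ev11_356

/-!
# R136: evolution with partially resolved slots (helper356), finite part 2

* `evoP_fin` : evolution, conclusion for the resolved line slots;
* `compP_fin` : composition at one height (level slots resolved).
-/

set_option autoImplicit false
set_option linter.unusedSectionVars false
set_option linter.unusedVariables false

open Filter Topology

namespace Crest.Agent.R136.Ev356

open Finset Crest.Agent.R136.NetQ186 Crest.Agent.R136.Net191 Crest.Agent.R136.Qg926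
open Crest.Agent.R136.Gf356 Crest.Agent.R136.Ab356
open Crest.Agent.R138.Ex926 (Base U)

theorem fin11 : ∀ s : Fin 11, s = 0 ∨ s = 1 ∨ s = 2 ∨ s = 3 ∨ s = 4 ∨ s = 5 ∨ s = 6 ∨ s = 7 ∨
    s = 8 ∨ s = 9 ∨ s = 10 := by decide

/-- **evolution, resolved slots only** -/
theorem evoP_fin {Rs S : Finset (Fin 11)} {q q' : Fin 11 → Fin 11 → Fin 11 → ℝ} {η A : ℝ}
    (hη : 0 ≤ η) (hA : 0 ≤ A) (hq : CApp η 1 q q') (hr : CfR q) (hcl : Clo Rs q')
    {a b o g h a' b' : Fin 11 → ℝ} (H1 : LawC q h a g) (H2 : LawC q h b o)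
    (ba : ∀ s, |a s| ≤ 1 / 4) (bb : ∀ s, |b s| ≤ 1 / 4) (bo : ∀ s, |o s| ≤ 1 / 4)
    (bg : ∀ s, |g s| ≤ 1 / 4) (bh : ∀ s, |h s| ≤ 1 / 4) (ba' : ∀ s, |a' s| ≤ 1)
    (hS : ∀ s, s = 5 ∨ s = 6 ∨ s = 7 ∨ s = 8 ∨ s = 9 ∨ s = 10 → s ∉ S)
    (ha : ∀ s ∈ Rs, |a s - a' s| ≤ A * η) (ha0 : ∀ s, s ∉ S → a' s = 0)
    (ho : ∀ s ∈ Rs, s ∉ S → |o s| ≤ η)
    (hao : ∀ s ∈ Rs, s = 2 ∨ s = 3 → |o s - a s| ≤ A * η)
    (hb : ∀ s ∈ S, |b s| ≤ η) (hb' : ∀ s, b' s = if s ∈ S then 0 else b s)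
    (s : Fin 11) (hs : s ∈ Rs) (hsS : s ∉ S) :
    |g s - evoC q' a' b' s| ≤ (400 * (A + 1)) * η := by
  have cA : ∀ s ∈ Rs, Ap η 1 A (a s) (a' s) := fun s hs =>
    ⟨(ba s).trans (by norm_num), ba' s, ha s hs⟩
  have bb' : ∀ s, |b' s| ≤ 1 := by
    intro s
    rw [hb' s]
    split_ifs
    · rw [abs_zero]; norm_num
    · exact (bb s).trans (by norm_num)
  have cB : ∀ s, Ap η 1 1 (b s) (b' s) := by
    intro s
    refine ⟨(bb s).trans (by norm_num), bb' s, ?_⟩
    rw [hb' s]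
    split_ifs with h1
    · rw [sub_zero, one_mul]; exact hb s h1
    · rw [sub_self, abs_zero]; linarith
  have ha' : ∀ s ∈ Rs, s ∉ S → |a s| ≤ A * η := by
    intro s hs hsS
    have := ha s hs
    rwa [ha0 s hsS, sub_zero] at this
  have bu : ∀ s, |h s - a s| ≤ 1 := fun s => by
    have := abs_sub (h s) (a s)
    linarith [ba s, bh s]
  have cU : ∀ s : Fin 11, s = 5 ∨ s = 6 ∨ s = 7 ∨ s = 8 ∨ s = 9 ∨ s = 10 → s ∈ Rs →
      Ap η 1 (A + 12) (h s - a s) (b' s) := by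
    intro s hs hR
    refine ⟨bu s, bb' s, ?_⟩
    rw [hb' s, if_neg (hS s hs)]
    exact u_close hη hA hq hcl H2 (fun s => (bb s).trans (by norm_num))
      (fun s => (bo s).trans (by norm_num)) hS ha' ho s hs hR
  have pr : ∀ i j : Fin 11, j = 5 ∨ j = 6 ∨ j = 7 ∨ j = 8 ∨ j = 9 ∨ j = 10 → i ∈ Rs → j ∈ Rs →
      |a i * (h j - a j) - a' i * b' j| ≤ (2 * A + 12) * η := fun i j hj hi hjR =>
    ((cA i hi).mul (cU j hj hjR)).mono hη (by linarith)
  have bm : ∀ i j, |a i * (h j - a j)| ≤ 1 := fun i j => ab1 ((ba i).trans (by norm_num)) (bu j)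
  have bm' : ∀ i j, |a' i * b' j| ≤ 1 := fun i j => ab1 (ba' i) (bb' j)
  obtain ⟨c256, c017, c457, c367, c058, c069, c289, c0710, c4810, c3910, c234⟩ := hq
  obtain ⟨g0, g1, g2, g3, g4, g5, g6, g7, g8, g9, g10⟩ := evo_exact hr H1
  have h2A : 0 ≤ 2 * A + 12 := by linarith
  -- additive slots
  have addS : ∀ s, g s = h s - a s → h s = b s + o s → s ∈ Rs → s ∉ S → evoC q' a' b' s = b' s →
      |g s - evoC q' a' b' s| ≤ (400 * (A + 1)) * η := by
    intro s e1 e2 hs hsS e3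
    rw [e3, hb' s, if_neg hsS, e1, e2]
    have e4 : b s + o s - a s - b s = o s - a s := by ring
    rw [e4]
    have := abs_sub (o s) (a s)
    have := ho s hs hsS
    have := ha' s hs hsS
    have := mul_nonneg hA hη
    linarith
  rcases fin11 s with rfl | rfl | rfl | rfl | rfl | rfl | rfl | rfl | rfl | rfl | rfl
  · exact addS 0 g0 H2.e0 hs hsS (by simp only [evoC, Matrix.cons_val])
  · exact addS 1 g1 H2.e1 hs hsS (by simp only [evoC, Matrix.cons_val])
  · exact addS 2 g2 H2.e2 hs hsS (by simp only [evoC, Matrix.cons_val])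
  · exact addS 3 g3 H2.e3 hs hsS (by simp only [evoC, Matrix.cons_val])
  · -- slot 4
    have m1 : Ap η 2 (2 + (4 * A + 3)) (q 2 3 4 * (a 2 * g 3 - b 2 * o 3))
        (q' 2 3 4 * (a' 2 * b' 3 - b' 2 * a' 3)) := by
      refine Ap.cmul hη c234 ?_ ?_ (by linarith) ?_
      · have e1 := abs_sub (a 2 * g 3) (b 2 * o 3)
        have e2 := ab1 ((ba 2).trans (by norm_num)) ((bg 3).trans (by norm_num))
        have e3 := ab1 ((bb 2).trans (by norm_num)) ((bo 3).trans (by norm_num))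
        linarith
      · have e1 := abs_sub (a' 2 * b' 3) (b' 2 * a' 3)
        have e2 := ab1 (ba' 2) (bb' 3)
        have e3 := ab1 (bb' 2) (ba' 3)
        linarith
      · refine (hcl.w4 hs).imp id fun hh => ?_
        obtain ⟨h2, h3⟩ := hh
        have i3 : Ap η 1 (A + 1) (g 3) (b' 3) := by
          refine ⟨(bg 3).trans (by norm_num), bb' 3, ?_⟩
          have e1 : g 3 - b' 3 = (b 3 - b' 3) + (o 3 - a 3) := by rw [g3, H2.e3]; ring
          rw [e1]
          have e2 := abs_add_le (b 3 - b' 3) (o 3 - a 3)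
          have e3 := (cB 3).d
          have e4 := hao 3 h3 (Or.inr rfl)
          linarith
        have j3 : Ap η 1 (2 * A) (o 3) (a' 3) := by
          refine ⟨(bo 3).trans (by norm_num), ba' 3, ?_⟩
          have e1 : o 3 - a' 3 = (o 3 - a 3) + (a 3 - a' 3) := by ring
          rw [e1]
          have e2 := abs_add_le (o 3 - a 3) (a 3 - a' 3)
          have e3 := ha 3 h3
          have e4 := hao 3 h3 (Or.inr rfl)
          linarith
        exact (((cA 2 h2).mul i3).sub ((cB 2).mul j3)).mono hη (by linarith)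
    have e1 : g 4 - evoC q' a' b' 4 = (o 4 - a 4) + (q 2 3 4 * (a 2 * g 3 - b 2 * o 3) -
        q' 2 3 4 * (a' 2 * b' 3 - b' 2 * a' 3)) := by
      have e0 : evoC q' a' b' 4 = b' 4 + q' 2 3 4 * (a' 2 * b' 3 - b' 2 * a' 3) := by
        simp only [evoC, Matrix.cons_val]
      rw [e0, g4, H2.e4, hb' 4, if_neg hsS]
      ring
    rw [e1]
    have e2 := abs_add_le (o 4 - a 4) (q 2 3 4 * (a 2 * g 3 - b 2 * o 3) -
        q' 2 3 4 * (a' 2 * b' 3 - b' 2 * a' 3))
    have e3 := abs_sub (o 4) (a 4)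
    have e4 := ho 4 hs hsS
    have e5 := ha' 4 hs hsS
    have e6 := m1.d
    have := mul_nonneg hA hη
    linarith
  · exact addS 5 g5 H2.e5 hs hsS (by simp only [evoC, Matrix.cons_val])
  · -- slot 6
    have m1 := Ap.cmul hη c256 (bm 2 5) (bm' 2 5) h2A
      ((hcl.w6 hs).imp id fun hh => pr 2 5 (by simp) hh.1 hh.2)
    have e0 : evoC q' a' b' 6 = b' 6 - q' 2 5 6 * (a' 2 * b' 5) := by
      simp only [evoC, Matrix.cons_val]
    rw [g6, e0]
    refine ((cU 6 (by simp) hs).sub m1).mono hη ?_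
    linarith
  · -- slot 7
    have m0 : Ap η 1 (1 + 0) (q 0 1 7 * (a 0 * g 1)) (q' 0 1 7 * (a' 0 * b' 1)) :=
      Ap.cmul hη c017 (ab1 ((ba 0).trans (by norm_num)) ((bg 1).trans (by norm_num))) (bm' 0 1)
        le_rfl (Or.inl hcl.w7r)
    have m1 := Ap.cmul hη c457 (bm 4 5) (bm' 4 5) h2A
      ((hcl.w7a hs).imp id fun hh => pr 4 5 (by simp) hh.1 hh.2)
    have m2 := Ap.cmul hη c367 (bm 3 6) (bm' 3 6) h2A
      ((hcl.w7b hs).imp id fun hh => pr 3 6 (by simp) hh.1 hh.2)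
    have e0 : evoC q' a' b' 7 = b' 7 + 2 * (q' 0 1 7 * (a' 0 * b' 1)) - q' 4 5 7 * (a' 4 * b' 5) -
        q' 3 6 7 * (a' 3 * b' 6) := by
      simp only [evoC, Matrix.cons_val]
    rw [g7, e0]
    refine ((((cU 7 (by simp) hs).add ((Ap.const (m := 2) hη (by norm_num)).mul m0)).sub
      m1).sub m2).mono hη ?_
    linarith
  · -- slot 8
    have m1 := Ap.cmul hη c058 (bm 0 5) (bm' 0 5) h2A
      ((hcl.w8 hs).imp id fun hh => pr 0 5 (by simp) hh.1 hh.2)
    have e0 : evoC q' a' b' 8 = b' 8 + q' 0 5 8 * (a' 0 * b' 5) := by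
      simp only [evoC, Matrix.cons_val]
    rw [g8, e0]
    refine ((cU 8 (by simp) hs).add m1).mono hη ?_
    linarith
  · -- slot 9
    have m1 := Ap.cmul hη c069 (bm 0 6) (bm' 0 6) h2A
      ((hcl.w9a hs).imp id fun hh => pr 0 6 (by simp) hh.1 hh.2)
    have bq : |q 0 5 8 * (a 0 * (h 5 - a 5))| ≤ 1 := ab1 c058.l (bm 0 5)
    have bq' : |q' 0 5 8 * (a' 0 * b' 5)| ≤ 1 := ab1 c058.r (bm' 0 5)
    have m2 : Ap η 2 (2 + (5 * A + 40)) (q 2 8 9 * (a 2 * ((h 8 - a 8) + q 0 5 8 *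
        (a 0 * (h 5 - a 5))))) (q' 2 8 9 * (a' 2 * (b' 8 + q' 0 5 8 * (a' 0 * b' 5)))) := by
      refine Ap.cmul hη c289 ?_ ?_ (by linarith) ?_
      · rw [abs_mul]
        have e1 := abs_add_le (h 8 - a 8) (q 0 5 8 * (a 0 * (h 5 - a 5)))
        have e2 := mul_le_mul ((ba 2).trans (by norm_num : (1 : ℝ) / 4 ≤ 1))
          (e1.trans (add_le_add (bu 8) bq)) (abs_nonneg _) zero_le_one
        linarith
      · rw [abs_mul]
        have e1 := abs_add_le (b' 8) (q' 0 5 8 * (a' 0 * b' 5))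
        have e2 := mul_le_mul (ba' 2) (e1.trans (add_le_add (bb' 8) bq')) (abs_nonneg _) zero_le_one
        linarith
      · refine (hcl.w9b hs).imp id fun hh => ?_
        have m3 := Ap.cmul hη c058 (bm 0 5) (bm' 0 5) h2A
          ((hcl.w8 hh.2).imp id fun hk => pr 0 5 (by simp) hk.1 hk.2)
        exact ((cA 2 hh.1).mul ((cU 8 (by simp) hh.2).add m3)).mono hη (by linarith)
    have e0 : evoC q' a' b' 9 = b' 9 + q' 0 6 9 * (a' 0 * b' 6) - q' 2 8 9 * (a' 2 *
        (b' 8 + q' 0 5 8 * (a' 0 * b' 5))) := by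
      simp only [evoC, Matrix.cons_val]
    rw [g9, e0]
    refine (((cU 9 (by simp) hs).add m1).sub m2).mono hη ?_
    linarith
  · -- slot 10
    have m1 := Ap.cmul hη c0710 (bm 0 7) (bm' 0 7) h2A
      ((hcl.w10a hs).imp id fun hh => pr 0 7 (by simp) hh.1 hh.2)
    have m0 : Ap η 1 (1 + 0) (q 0 1 7 * (a 0 * g 1)) (q' 0 1 7 * (a' 0 * b' 1)) :=
      Ap.cmul hη c017 (ab1 ((ba 0).trans (by norm_num)) ((bg 1).trans (by norm_num))) (bm' 0 1)
        le_rfl (Or.inl hcl.w7r)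
    have m0' : |q 0 7 10 * (a 0 * (q 0 1 7 * (a 0 * g 1))) -
        q' 0 7 10 * (a' 0 * (q' 0 1 7 * (a' 0 * b' 1)))| ≤ 1 * η := by
      have e1 : q' 0 7 10 * (a' 0 * (q' 0 1 7 * (a' 0 * b' 1))) = 0 := by rw [hcl.w7r]; ring
      rw [e1, sub_zero, one_mul]
      refine abη hη c0710.l (abη hη ((ba 0).trans (by norm_num)) ?_)
      have := m0.d
      rw [hcl.w7r, zero_mul, sub_zero] at this
      linarith
    have bq : |q 0 5 8 * (a 0 * (h 5 - a 5))| ≤ 1 := ab1 c058.l (bm 0 5)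
    have bq' : |q' 0 5 8 * (a' 0 * b' 5)| ≤ 1 := ab1 c058.r (bm' 0 5)
    have br : |q 0 6 9 * (a 0 * (h 6 - a 6))| ≤ 1 := ab1 c069.l (bm 0 6)
    have br' : |q' 0 6 9 * (a' 0 * b' 6)| ≤ 1 := ab1 c069.r (bm' 0 6)
    have m2 : Ap η 2 (2 + (5 * A + 40)) (q 4 8 10 * (a 4 * ((h 8 - a 8) + q 0 5 8 *
        (a 0 * (h 5 - a 5))))) (q' 4 8 10 * (a' 4 * (b' 8 + q' 0 5 8 * (a' 0 * b' 5)))) := by
      refine Ap.cmul hη c4810 ?_ ?_ (by linarith) ?_
      · rw [abs_mul]
        have e1 := abs_add_le (h 8 - a 8) (q 0 5 8 * (a 0 * (h 5 - a 5)))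
        have e2 := mul_le_mul ((ba 4).trans (by norm_num : (1 : ℝ) / 4 ≤ 1))
          (e1.trans (add_le_add (bu 8) bq)) (abs_nonneg _) zero_le_one
        linarith
      · rw [abs_mul]
        have e1 := abs_add_le (b' 8) (q' 0 5 8 * (a' 0 * b' 5))
        have e2 := mul_le_mul (ba' 4) (e1.trans (add_le_add (bb' 8) bq')) (abs_nonneg _) zero_le_one
        linarith
      · refine (hcl.w10b hs).imp id fun hh => ?_
        have m3 := Ap.cmul hη c058 (bm 0 5) (bm' 0 5) h2A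
          ((hcl.w8 hh.2).imp id fun hk => pr 0 5 (by simp) hk.1 hk.2)
        exact ((cA 4 hh.1).mul ((cU 8 (by simp) hh.2).add m3)).mono hη (by linarith)
    have m4 : Ap η 2 (2 + (5 * A + 40)) (q 3 9 10 * (a 3 * ((h 9 - a 9) + q 0 6 9 *
        (a 0 * (h 6 - a 6))))) (q' 3 9 10 * (a' 3 * (b' 9 + q' 0 6 9 * (a' 0 * b' 6)))) := by
      refine Ap.cmul hη c3910 ?_ ?_ (by linarith) ?_
      · rw [abs_mul]
        have e1 := abs_add_le (h 9 - a 9) (q 0 6 9 * (a 0 * (h 6 - a 6)))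
        have e2 := mul_le_mul ((ba 3).trans (by norm_num : (1 : ℝ) / 4 ≤ 1))
          (e1.trans (add_le_add (bu 9) br)) (abs_nonneg _) zero_le_one
        linarith
      · rw [abs_mul]
        have e1 := abs_add_le (b' 9) (q' 0 6 9 * (a' 0 * b' 6))
        have e2 := mul_le_mul (ba' 3) (e1.trans (add_le_add (bb' 9) br')) (abs_nonneg _) zero_le_one
        linarith
      · refine (hcl.w10c hs).imp id fun hh => ?_
        have m3 := Ap.cmul hη c069 (bm 0 6) (bm' 0 6) h2A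
          ((hcl.w9a hh.2).imp id fun hk => pr 0 6 (by simp) hk.1 hk.2)
        exact ((cA 3 hh.1).mul ((cU 9 (by simp) hh.2).add m3)).mono hη (by linarith)
    have e0 : evoC q' a' b' 10 = b' 10 + q' 0 7 10 * (a' 0 * b' 7) +
        q' 0 7 10 * (a' 0 * (q' 0 1 7 * (a' 0 * b' 1))) -
        q' 4 8 10 * (a' 4 * (b' 8 + q' 0 5 8 * (a' 0 * b' 5))) -
        q' 3 9 10 * (a' 3 * (b' 9 + q' 0 6 9 * (a' 0 * b' 6))) := by
      simp only [evoC, Matrix.cons_val]
    rw [g10, e0]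
    have d1 := (cU 10 (by simp) hs).d
    have d2 := m1.d
    have d3 := m2.d
    have d4 := m4.d
    rw [abs_le] at d1 d2 d3 d4 m0'
    have := mul_nonneg hA hη
    rw [abs_le]
    constructor <;> linarith [d1.1, d1.2, d2.1, d2.2, d3.1, d3.2, d4.1, d4.2, m0'.1, m0'.2]

/-- **composition at one height**, level slots resolved -/
theorem compP_fin {S : Finset (Fin 11)} {q q' : Fin 11 → Fin 11 → Fin 11 → ℝ} {η : ℝ}
    (hη : 0 ≤ η) (hq : CApp η 1 q q') (h0 : (0 : Fin 11) ∈ S)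
    {g b c b' c' : Fin 11 → ℝ} (H : LawC q g b c)
    (bb : ∀ s, |b s| ≤ 1) (bc : ∀ s, |c s| ≤ 1)
    (hb : ∀ s ∈ S, |b s| ≤ η) (hb' : ∀ s, b' s = if s ∈ S then 0 else b s)
    (hc : ∀ s ∈ S, |c s| ≤ η) (hc' : ∀ s, c' s = if s ∈ S then 0 else c s)
    (s : Fin 11) : |g s - compC q' b' c' s| ≤ 50 * η := by
  have cB : ∀ s, Ap η 1 1 (b s) (b' s) := by
    intro s
    rw [hb' s]
    split_ifs with h1
    · exact ⟨bb s, by simp, by rw [sub_zero, one_mul]; exact hb s h1⟩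
    · exact ⟨bb s, bb s, by rw [sub_self, abs_zero]; linarith⟩
  have cC : ∀ s, Ap η 1 1 (c s) (c' s) := by
    intro s
    rw [hc' s]
    split_ifs with h1
    · exact ⟨bc s, by simp, by rw [sub_zero, one_mul]; exact hc s h1⟩
    · exact ⟨bc s, bc s, by rw [sub_self, abs_zero]; linarith⟩
  have el := compC_lip (M := 1) le_rfl hη hq cB cC s
  obtain ⟨c256, c017, c457, c367, c058, c069, c289, c0710, c4810, c3910, c234⟩ := hq
  have b0 := hb 0 h0
  have key : |g s - compC q b c s| ≤ 10 * η := by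
    obtain ⟨e0, e1, e2, e3, e4, e5, e6, e7, e8, e9, e10⟩ := H
    have z : ∀ s, g s = compC q b c s → |g s - compC q b c s| ≤ 10 * η := by
      intro s hs
      rw [hs, sub_self, abs_zero]; linarith
    have n0 : ∀ {x y : ℝ}, |x| ≤ η → |y| ≤ 1 → |x * y| ≤ η := by
      intro x y hx hy
      rw [mul_comm]; exact abη hη hy hx
    rcases fin11 s with rfl | rfl | rfl | rfl | rfl | rfl | rfl | rfl | rfl | rfl | rfl
    · exact z 0 (by simp only [compC, Matrix.cons_val]; exact e0)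
    · exact z 1 (by simp only [compC, Matrix.cons_val]; exact e1)
    · exact z 2 (by simp only [compC, Matrix.cons_val]; exact e2)
    · exact z 3 (by simp only [compC, Matrix.cons_val]; exact e3)
    · exact z 4 (by simp only [compC, Matrix.cons_val]; exact e4)
    · exact z 5 (by simp only [compC, Matrix.cons_val]; exact e5)
    · exact z 6 (by simp only [compC, Matrix.cons_val]; exact e6)
    · have : g 7 - compC q b c 7 = -(2 * (q 0 1 7 * (b 0 * c 1))) := by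
        simp only [compC, Matrix.cons_val]
        rw [e7]; ring
      rw [this, abs_neg, abs_mul, abs_of_pos (by norm_num : (0 : ℝ) < 2)]
      have := abη hη c017.l (n0 b0 (bc 1))
      linarith
    · have : g 8 - compC q b c 8 = -(q 0 5 8 * (b 0 * c 5)) := by
        simp only [compC, Matrix.cons_val]
        rw [e8]; ring
      rw [this, abs_neg]
      have := abη hη c058.l (n0 b0 (bc 5))
      linarith
    · have : g 9 - compC q b c 9 = -(q 0 6 9 * (b 0 * c 6)) -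
          q 2 8 9 * (q 0 5 8 * (b 2 * (b 0 * c 5))) := by
        simp only [compC, Matrix.cons_val]
        rw [e9]; ring
      rw [this]
      have t1 := abη hη c069.l (n0 b0 (bc 6))
      have t2 := abη hη c289.l (abη hη c058.l (abη hη (bb 2) (n0 b0 (bc 5))))
      have t3 := abs_sub (-(q 0 6 9 * (b 0 * c 6))) (q 2 8 9 * (q 0 5 8 * (b 2 * (b 0 * c 5))))
      rw [abs_neg] at t3
      linarith
    · have : g 10 - compC q b c 10 = -(q 0 7 10 * (b 0 * c 7)) +
          q 0 7 10 * (q 0 1 7 * (b 0 * (b 0 * c 1))) -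
          q 4 8 10 * (q 0 5 8 * (b 4 * (b 0 * c 5))) -
          q 4 8 10 * (q 2 3 4 * (q 0 5 8 * (b 2 * (b 3 * (b 0 * c 5))))) -
          q 3 9 10 * (q 0 6 9 * (b 3 * (b 0 * c 6))) := by
        simp only [compC, Matrix.cons_val]
        rw [e10]; ring
      rw [this]
      have t1 := abη hη c0710.l (n0 b0 (bc 7))
      have t2 := abη hη c0710.l (abη hη c017.l (abη hη (bb 0) (n0 b0 (bc 1))))
      have t3 := abη hη c4810.l (abη hη c058.l (abη hη (bb 4) (n0 b0 (bc 5))))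
      have t4 := abη hη c4810.l (abη hη c234.l (abη hη c058.l (abη hη (bb 2) (abη hη (bb 3)
        (n0 b0 (bc 5))))))
      have t5 := abη hη c3910.l (abη hη c069.l (abη hη (bb 3) (n0 b0 (bc 6))))
      rw [abs_le] at t1 t2 t3 t4 t5 ⊢
      constructor <;> linarith [t1.1, t1.2, t2.1, t2.2, t3.1, t3.2, t4.1, t4.2, t5.1, t5.2]
  have e2 := abs_sub_le (g s) (compC q b c s) (compC q' b' c' s)
  linarith

end Crest.Agent.R136.Ev356
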