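import Crest.Agent.R136.Ev12_356

/-!
# R136: windows with partially resolved slots (helper356)

`PQ W f Rs t q'` : the slots of `Rs ⊇ W.S` are resolved down to `ρ^t`, the coefficients of the
monomials are `q'` up to `ρ^t`, `Rs` is closed under the walls with nonzero coefficient.

* **`PQ.evo`**, **`PQ.comp`** : evolution (slots of `Rs`), composition (all line slots);
* `PQ.of_at`, `PQ.of_ato`, `PQ.of_atot` : the windows of helper413 (`chi Ma`, `chiO`, `chiT`).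
-/

set_option autoImplicit false
set_option linter.unusedSectionVars false
set_option linter.unusedVariables false

open Filter Topology

namespace Crest.Agent.R136.Ev356

open Finset Crest.Agent.R136.NetQ186 Crest.Agent.R136.Net191 Crest.Agent.R136.Qg926
open Crest.Agent.R136.Gf356 Crest.Agent.R136.Ab356
open Crest.Agent.R138.Ex926 (Base U)

variable {ι : ℕ → Type*} [∀ n, DecidableEq (ι n)] {W : Wnd 11 ι} {f : ∀ n, ι n → Fq4}

namespace QWnd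

variable (h : QWnd W f)

include h

/-- **the exact composition law**, normalised coordinates -/
theorem lawC {n : ℕ} (g : W.Good n) {p x y : ι n}
    (hp : p ∈ W.Cl n) (hx : x ∈ W.Cl n) (hy : y ∈ W.Cl n) :
    LawC (cf W n) (W.crd n p y) (W.crd n p x) (W.crd n x y) := by
  have hu : ∀ s, un W n s ≠ 0 := fun s => (h.un_pos n s).ne'
  have key : ∀ i j s : Fin 11, un W n i * un W n j = cf W n i j s * un W n s := by
    intro i j s
    have h1 := hu s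
    unfold cf
    field_simp
  have e4 := key 2 3 4
  have e6 := key 2 5 6
  have er := key 0 1 7
  have e7b := key 4 5 7
  have e7c := key 3 6 7
  have e8 := key 0 5 8
  have e9a := key 0 6 9
  have e9b := key 2 8 9
  have e10a := key 0 7 10
  have e10b := key 4 8 10
  have e10c := key 3 9 10
  obtain ⟨p0, p1, p2, p3, p4, p5, p6, p7, p8, p9, p10⟩ := coQ_add (f n p) (f n x) (f n y)
  have ea : ∀ s, coQ (f n p) (f n x) s = un W n s * W.crd n p x s := h.crd_eq g hp hx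
  have eb : ∀ s, coQ (f n x) (f n y) s = un W n s * W.crd n x y s := h.crd_eq g hx hy
  have ee : ∀ s, coQ (f n p) (f n y) s = un W n s * W.crd n p y s := h.crd_eq g hp hy
  simp only [ea, eb, ee] at p0 p1 p2 p3 p4 p5 p6 p7 p8 p9 p10
  refine ⟨?_, ?_, ?_, ?_, ?_, ?_, ?_, ?_, ?_, ?_, ?_⟩
  · refine mul_left_cancel₀ (hu 0) ?_
    linear_combination p0
  · refine mul_left_cancel₀ (hu 1) ?_
    linear_combination p1
  · refine mul_left_cancel₀ (hu 2) ?_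
    linear_combination p2
  · refine mul_left_cancel₀ (hu 3) ?_
    linear_combination p3
  · refine mul_left_cancel₀ (hu 4) ?_
    linear_combination p4 - W.crd n p x 2 * W.crd n x y 3 * e4
  · refine mul_left_cancel₀ (hu 5) ?_
    linear_combination p5
  · refine mul_left_cancel₀ (hu 6) ?_
    linear_combination p6 + W.crd n p x 2 * W.crd n x y 5 * e6
  · refine mul_left_cancel₀ (hu 7) ?_
    linear_combination p7 - 2 * W.crd n p x 0 * W.crd n x y 1 * er +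
      W.crd n p x 4 * W.crd n x y 5 * e7b +
      W.crd n p x 2 * W.crd n p x 3 * W.crd n x y 5 * (un W n 5 * e4 + cf W n 2 3 4 * e7b) +
      W.crd n p x 3 * W.crd n x y 6 * e7c
  · refine mul_left_cancel₀ (hu 8) ?_
    linear_combination p8 - W.crd n p x 0 * W.crd n x y 5 * e8
  · refine mul_left_cancel₀ (hu 9) ?_
    linear_combination p9 - W.crd n p x 0 * W.crd n x y 6 * e9a +
      W.crd n p x 2 * W.crd n x y 8 * e9b -
      W.crd n p x 2 * W.crd n p x 0 * W.crd n x y 5 * (un W n 2 * e8 + cf W n 0 5 8 * e9b)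
  · refine mul_left_cancel₀ (hu 10) ?_
    linear_combination p10 - W.crd n p x 0 * W.crd n x y 7 * e10a +
      W.crd n p x 0 ^ 2 * W.crd n x y 1 * (un W n 0 * er + cf W n 0 1 7 * e10a) +
      W.crd n p x 4 * W.crd n x y 8 * e10b -
      W.crd n p x 4 * W.crd n p x 0 * W.crd n x y 5 * (un W n 4 * e8 + cf W n 0 5 8 * e10b) +
      W.crd n p x 2 * W.crd n p x 3 * W.crd n x y 8 * (un W n 8 * e4 + cf W n 2 3 4 * e10b) -
      W.crd n p x 2 * W.crd n p x 3 * W.crd n p x 0 * W.crd n x y 5 *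
        (un W n 0 * un W n 5 * e4 + cf W n 2 3 4 * (un W n 4 * e8 + cf W n 0 5 8 * e10b)) +
      W.crd n p x 3 * W.crd n x y 9 * e10c -
      W.crd n p x 3 * W.crd n p x 0 * W.crd n x y 6 * (un W n 3 * e9a + cf W n 0 6 9 * e10c)

/-- relations of the coefficients -/
theorem cfR (n : ℕ) : CfR (cf W n) := by
  have hu : ∀ s, un W n s ≠ 0 := fun s => (h.un_pos n s).ne'
  have h2 := hu 2
  have h4 := hu 4
  have h6 := hu 6
  have h7 := hu 7
  have h8 := hu 8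
  have h9 := hu 9
  have h10 := hu 10
  refine ⟨?_, ?_, ?_, ?_, ?_⟩ <;> (unfold cf; field_simp)

end QWnd

/-- **window with partially resolved slots** -/
structure PQ (W : Wnd 11 ι) (f : ∀ n, ι n → Fq4) (Rs : Finset (Fin 11)) (t : ℝ)
    (q' : ℕ → Fin 11 → Fin 11 → Fin 11 → ℝ) : Prop where
  q : QWnd W f
  S0 : (0 : Fin 11) ∈ W.S
  sub : W.S ⊆ Rs
  kap4 : ∀ s, 4 * W.K0 ≤ W.kap s
  top : ∀ s ∈ Rs, t ≤ W.top s
  capp : ∀ᶠ n in (U : Filter ℕ), CApp (W.B'.d n ^ t) 1 (cf W n) (q' n)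
  clo : ∀ᶠ n in (U : Filter ℕ), Clo Rs (q' n)

namespace PQ

variable {Rs : Finset (Fin 11)} {t : ℝ} {q' : ℕ → Fin 11 → Fin 11 → Fin 11 → ℝ}
  (P : PQ W f Rs t q')

include P

theorem k4 (s : Fin 11) : W.K0 / W.kap s ≤ 1 / 4 := by
  have h1 := P.q.ok.kap s
  rw [div_le_div_iff₀ h1 (by norm_num)]
  linarith [P.kap4 s]

theorem crd4 {n : ℕ} (g : W.Good n) {u v : ι n} (hu : u ∈ W.Cl n) (hv : v ∈ W.Cl n)
    (s : Fin 11) : |W.crd n u v s| ≤ 1 / 4 :=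
  (P.q.crd_le g hu hv s).trans (P.k4 s)

theorem sm4 {n : ℕ} {s : Fin 11} {x : ℝ} (hx : |x| ≤ (W.K0 / W.kap s) * W.B'.d n ^ t) :
    |x| ≤ (1 / 4) * W.B'.d n ^ t :=
  hx.trans (mul_le_mul_of_nonneg_right (P.k4 s) (Real.rpow_nonneg (W.B'.pos n).le t))

theorem sm2 {n : ℕ} {s : Fin 11} {x : ℝ} (hx : |x| ≤ (2 * W.K0 / W.kap s) * W.B'.d n ^ t) :
    |x| ≤ (1 / 2) * W.B'.d n ^ t := by
  have h1 : 2 * W.K0 / W.kap s ≤ 1 / 2 := by
    have := P.k4 s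
    rw [mul_div_assoc]
    linarith
  exact hx.trans (mul_le_mul_of_nonneg_right h1 (Real.rpow_nonneg (W.B'.pos n).le t))

/-- own motion of the additive flags -/
theorem add_ap {n : ℕ} (g : W.Good n) {x x' z z' : ι n} (hx : x ∈ W.Cl n) (hx' : x' ∈ W.Cl n)
    (hz : z ∈ W.Cl n) (hz' : z' ∈ W.Cl n) (hlc : W.lc n x = W.lc n x') (hl : W.zc n x = W.zc n z)
    (hl' : W.zc n x' = W.zc n z') {s : Fin 11} (hs : s ∈ Rs) (hs' : s = 0 ∨ s = 2 ∨ s = 3) :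
    |W.crd n x x' s - (if s ∈ W.S then W.crd n z z' s else 0)| ≤ (1 / 2) * W.B'.d n ^ t := by
  split_ifs with hsS
  · exact P.sm2 (P.q.own_add g hx hx' hz hz' hl hl' hsS hs' (P.top s hs))
  · rw [sub_zero]
    have := P.sm4 (P.q.crd_own g hx hx' hlc hsS (P.top s hs))
    have := Real.rpow_nonneg (W.B'.pos n).le t
    linarith

/-- **own motion is a function of the heights**, resolved slots -/
theorem own_apP {n : ℕ} (g : W.Good n) (hca : CApp (W.B'.d n ^ t) 1 (cf W n) (q' n))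
    (hcl : Clo Rs (q' n)) {E0 : Finset (ι n)} (hE : E0 ⊆ W.Cl n) {i k₀ k : ℕ}
    (h1 : (i, k₀) ∈ (W.cfg0 n E0).I) (h2 : (i, k) ∈ (W.cfg0 n E0).I) :
    (∀ s ∈ Rs, |W.crd n (W.rep n i k₀) (W.rep n i k) s -
      ownC (q' n) W n k₀ k (fsl W n i k₀ 2) (fsl W n i k₀ 3) s| ≤ 8 * W.B'.d n ^ t) ∧
    (∀ s, |ownC (q' n) W n k₀ k (fsl W n i k₀ 2) (fsl W n i k₀ 3) s| ≤ 1) ∧
    ∀ s, s ∉ W.S → ownC (q' n) W n k₀ k (fsl W n i k₀ 2) (fsl W n i k₀ 3) s = 0 := by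
  obtain ⟨a1, a2, a3⟩ := rep_of_mem hE h1
  obtain ⟨a1', a2', a3'⟩ := rep_of_mem hE h2
  have hZ : ∀ {i k : ℕ}, (i, k) ∈ (W.cfg0 n E0).I → W.zrep n k ∈ W.Cl n ∧
      W.zc n (W.zrep n k) = k := by
    intro i k hik
    have hk : k ∈ (W.cfg0 n E0).Z := mem_image.2 (by
      obtain ⟨u, hu, -, h6⟩ := mem_cfg0 hik; exact ⟨u, hu, h6⟩)
    exact zrep_of_mem hE hk
  obtain ⟨c1, c2⟩ := hZ h1
  obtain ⟨c1', c2'⟩ := hZ h2
  set r := W.rep n i k₀
  set r' := W.rep n i k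
  set z := W.zrep n k₀
  set z' := W.zrep n k
  set η := W.B'.d n ^ t with hη
  have hη0 : 0 ≤ η := Real.rpow_nonneg (W.B'.pos n).le t
  have B : ∀ {u v : ι n}, u ∈ W.Cl n → v ∈ W.Cl n → ∀ s, |W.crd n u v s| ≤ 1 / 4 :=
    fun hu hv s => P.crd4 g hu hv s
  have z4 : |(0 : ℝ)| ≤ 1 / 4 := by rw [abs_zero]; norm_num
  have bmot : ∀ s, |mot W n k₀ k s| ≤ 1 / 4 := by
    intro s; unfold mot; split_ifs
    · exact B c1 c1' s
    · exact z4
  have bfsl : ∀ s, |fsl W n i k₀ s| ≤ 1 / 4 := by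
    intro s; unfold fsl; split_ifs
    · exact z4
    · exact B c1 a1 s
  have hmot : ∀ s ∈ Rs, s = 0 ∨ s = 2 ∨ s = 3 →
      |W.crd n r r' s - mot W n k₀ k s| ≤ (1 / 2) * η := fun s hs hs' =>
    P.add_ap g a1 a1' c1 c1' (a2.trans a2'.symm) (a3.trans c2.symm) (a3'.trans c2'.symm) hs hs'
  have hfsl : ∀ s ∈ Rs, |W.crd n z r s - fsl W n i k₀ s| ≤ (1 / 4) * η := by
    intro s hs
    unfold fsl
    split_ifs with hsS
    · rw [sub_zero]
      exact P.sm4 (P.q.crd_lev g c1 a1 (c2.trans a3.symm) hsS (P.top s hs))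
    · rw [sub_self, abs_zero]; positivity
  -- the bound of the limit
  set Q' := fsl W n i k₀ 2 * mot W n k₀ k 3 + (fsl W n i k₀ 2 + mot W n k₀ k 2) *
      (W.crd n z z' 3 - fsl W n i k₀ 3 - mot W n k₀ k 3) with hQ'
  set Q := W.crd n z r 2 * W.crd n r r' 3 + (W.crd n z r 2 + W.crd n r r' 2) *
      (W.crd n z z' 3 - W.crd n z r 3 - W.crd n r r' 3) with hQ
  have bd : ∀ {α β γ δ ε : ℝ}, |α| ≤ 1 / 4 → |β| ≤ 1 / 4 → |γ| ≤ 1 / 4 → |δ| ≤ 1 / 4 →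
      |ε| ≤ 1 / 4 → |α * β + (α + γ) * (δ - ε - β)| ≤ 3 / 4 := by
    intro α β γ δ ε hα hβ hγ hδ hε
    refine (abs_add_le _ _).trans ?_
    rw [abs_mul, abs_mul]
    have e1 := mul_le_mul hα hβ (abs_nonneg _) (by norm_num)
    have e2 := (abs_add_le α γ).trans (add_le_add hα hγ)
    have e3 := (abs_sub (δ - ε) β).trans (add_le_add ((abs_sub _ _).trans (add_le_add hδ hε)) hβ)
    have e4 := mul_le_mul e2 e3 (abs_nonneg _) (by norm_num)
    linarith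
  have bQ' : |Q'| ≤ 3 / 4 := bd (bfsl 2) (bmot 3) (bmot 2) (B c1 c1' 3) (bfsl 3)
  have bQ : |Q| ≤ 3 / 4 := bd (B c1 a1 2) (B a1 a1' 3) (B a1 a1' 2) (B c1 c1' 3) (B c1 a1 3)
  have c234 : Ap η 1 1 (cf W n 2 3 4) (q' n 2 3 4) := hca.2.2.2.2.2.2.2.2.2.2
  refine ⟨fun s hs => ?_, fun s => ?_, fun s hsS => ?_⟩
  · by_cases hs4 : s = 4
    · subst hs4
      unfold ownC
      rw [if_pos rfl]
      split_ifs with hS4
      · have e1 := P.q.crd_four g c1 a1 a1'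
        have e2 := P.q.crd_four g c1 a1' c1'
        have e3 := P.q.crd_add g c1 a1 a1' (s := 2) (by simp)
        have e4 := P.q.crd_add g c1 a1 a1' (s := 3) (by simp)
        have e5 := P.q.crd_add g c1 a1' c1' (s := 3) (by simp)
        have ea : W.crd n r r' 4 = W.crd n z z' 4 - W.crd n z r 4 - W.crd n r' z' 4 +
            cf W n 2 3 4 * Q := by
          have e6 : W.crd n z z' 3 - W.crd n z r 3 - W.crd n r r' 3 = W.crd n r' z' 3 := by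
            linarith
          rw [hQ, e6, ← e3]
          linarith
        have l1 := P.sm4 (P.q.crd_lev g c1 a1 (c2.trans a3.symm) hS4 (P.top 4 hs))
        have l2 := P.sm4 (P.q.crd_lev g a1' c1' (a3'.trans c2'.symm) hS4 (P.top 4 hs))
        have m1 : Ap η 1 (1 + 4) (cf W n 2 3 4 * Q) (q' n 2 3 4 * Q') := by
          refine Ap.cmul hη0 c234 (bQ.trans (by norm_num)) (bQ'.trans (by norm_num)) (by norm_num) ?_
          refine (hcl.w4 hs).imp id fun hh => ?_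
          obtain ⟨r2, r3⟩ := hh
          have k2 : Ap η (1 / 4) (1 / 4) (W.crd n z r 2) (fsl W n i k₀ 2) :=
            ⟨B c1 a1 2, bfsl 2, hfsl 2 r2⟩
          have k3 : Ap η (1 / 4) (1 / 4) (W.crd n z r 3) (fsl W n i k₀ 3) :=
            ⟨B c1 a1 3, bfsl 3, hfsl 3 r3⟩
          have o2 : Ap η (1 / 4) (1 / 2) (W.crd n r r' 2) (mot W n k₀ k 2) :=
            ⟨B a1 a1' 2, bmot 2, hmot 2 r2 (by simp)⟩
          have o3 : Ap η (1 / 4) (1 / 2) (W.crd n r r' 3) (mot W n k₀ k 3) :=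
            ⟨B a1 a1' 3, bmot 3, hmot 3 r3 (by simp)⟩
          exact ((k2.mul o3).add ((k2.add o2).mul
            (((Ap.const (η := η) hη0 (B c1 c1' 3)).sub k3).sub o3))).mono hη0 (by norm_num)
        have e7 : W.crd n r r' 4 - (W.crd n z z' 4 + q' n 2 3 4 * Q') =
            (cf W n 2 3 4 * Q - q' n 2 3 4 * Q') - W.crd n z r 4 - W.crd n r' z' 4 := by
          rw [ea]; ring
        rw [e7]
        have t1 := m1.d
        have t2 := abs_sub (cf W n 2 3 4 * Q - q' n 2 3 4 * Q' - W.crd n z r 4) (W.crd n r' z' 4)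
        have t3 := abs_sub (cf W n 2 3 4 * Q - q' n 2 3 4 * Q') (W.crd n z r 4)
        linarith
      · rw [sub_zero]
        have := P.sm4 (P.q.crd_own g a1 a1' (a2.trans a2'.symm) hS4 (P.top 4 hs))
        linarith
    · unfold ownC
      rw [if_neg hs4]
      by_cases hs' : s = 0 ∨ s = 2 ∨ s = 3
      · have := hmot s hs hs'
        linarith
      · have hsS : s ∉ W.S := by
          intro hm
          have := P.q.hS s hm
          tauto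
        unfold mot
        rw [if_neg hsS, sub_zero]
        have := P.sm4 (P.q.crd_own g a1 a1' (a2.trans a2'.symm) hsS (P.top s hs))
        linarith
  · unfold ownC
    split_ifs
    · refine (abs_add_le _ _).trans ?_
      rw [abs_mul]
      have e1 := mul_le_mul c234.r bQ' (abs_nonneg _) zero_le_one
      have e2 := B c1 c1' 4
      linarith
    · rw [abs_zero]; norm_num
    · exact (bmot s).trans (by norm_num)
  · unfold ownC
    by_cases hs4 : s = 4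
    · subst hs4
      rw [if_pos rfl, if_neg hsS]
    · rw [if_neg hs4]
      unfold mot
      rw [if_neg hsS]

/-- **evolution**, one `n` -/
theorem evo0 {n : ℕ} (g : W.Good n) (hca : CApp (W.B'.d n ^ t) 1 (cf W n) (q' n))
    (hcl : Clo Rs (q' n)) {E0 : Finset (ι n)} (hE : E0 ⊆ W.Cl n) {k₀ k i l : ℕ}
    (h1 : (i, k₀) ∈ (W.cfg0 n E0).I) (h2 : (i, k) ∈ (W.cfg0 n E0).I)
    (h3 : (l, k₀) ∈ (W.cfg0 n E0).I) (h4 : (l, k) ∈ (W.cfg0 n E0).I)
    (s : Fin 11) (hs : s ∈ Rs) (hsS : s ∉ W.S) :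
    |(W.cfg0 n E0).rel k i l s -
      evoC (q' n) (ownC (q' n) W n k₀ k (fsl W n i k₀ 2) (fsl W n i k₀ 3))
        ((W.cfg0 n E0).rel k₀ i l) s| ≤ 3600 * W.B'.d n ^ t := by
  obtain ⟨a1, a2, a3⟩ := rep_of_mem hE h1
  obtain ⟨b1, b2, b3⟩ := rep_of_mem hE h2
  obtain ⟨c1, c2, c3⟩ := rep_of_mem hE h3
  obtain ⟨d1, d2, d3⟩ := rep_of_mem hE h4
  have hZ : ∀ {i k : ℕ}, (i, k) ∈ (W.cfg0 n E0).I → W.zrep n k ∈ W.Cl n ∧
      W.zc n (W.zrep n k) = k := by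
    intro i k hik
    have hk : k ∈ (W.cfg0 n E0).Z := mem_image.2 (by
      obtain ⟨u, hu, -, h6⟩ := mem_cfg0 hik; exact ⟨u, hu, h6⟩)
    exact zrep_of_mem hE hk
  obtain ⟨z1, z2⟩ := hZ h1
  obtain ⟨z1', z2'⟩ := hZ h2
  have hη0 : 0 ≤ W.B'.d n ^ t := Real.rpow_nonneg (W.B'.pos n).le t
  obtain ⟨o1, o2, o3⟩ := P.own_apP g hca hcl hE h1 h2
  have key := evoP_fin (Rs := Rs) (S := W.S) (A := 8) hη0 (by norm_num) hca (P.q.cfR n) hcl
    (P.q.lawC g a1 b1 d1) (P.q.lawC g a1 c1 d1) (P.crd4 g a1 b1) (P.crd4 g a1 c1)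
    (P.crd4 g c1 d1) (P.crd4 g b1 d1) (P.crd4 g a1 d1) o2
    (fun s hs => P.q.notMem (by tauto)) o1 o3
    (fun s hs hsS => (P.sm4 (P.q.crd_own g c1 d1 (c2.trans d2.symm) hsS (P.top s hs))).trans
      (by linarith))
    (fun s hs hs' => by
      have e1 := P.add_ap g a1 b1 z1 z1' (a2.trans b2.symm) (a3.trans z2.symm) (b3.trans z2'.symm)
        hs (by tauto)
      have e2 := P.add_ap g c1 d1 z1 z1' (c2.trans d2.symm) (c3.trans z2.symm) (d3.trans z2'.symm)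
        hs (by tauto)
      have e3 := abs_sub_le (W.crd n (W.rep n l k₀) (W.rep n l k) s)
        (if s ∈ W.S then W.crd n (W.zrep n k₀) (W.zrep n k) s else 0)
        (W.crd n (W.rep n i k₀) (W.rep n i k) s)
      rw [abs_sub_comm] at e1
      linarith)
    (fun s hsS => (P.sm4 (P.q.crd_lev g a1 c1 (a3.trans c3.symm) hsS
      (P.top s (P.sub hsS)))).trans (by linarith))
    (fun s => rel_cfg0 (W := W) (n := n) (E := E0) k₀ i l s) s hs hsS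
  rw [rel_cfg0 k i l s, if_neg hsS]
  refine key.trans (le_of_eq ?_)
  norm_num

variable {E : ∀ n, Finset (ι n)}

/-- **evolution of `rel`**, resolved slots -/
theorem evo (hc : ∀ᶠ n in (U : Filter ℕ), W.Good n ∧ E n ⊆ W.Cl n ∧
      W.cfg E n = W.cfg0 n (E n)) {ε : ℝ} (hε : 0 < ε) :
    ∀ᶠ n in (U : Filter ℕ), ∀ k₀ k i l, (i, k₀) ∈ (W.cfg E n).I → (i, k) ∈ (W.cfg E n).I →
      (l, k₀) ∈ (W.cfg E n).I → (l, k) ∈ (W.cfg E n).I → ∀ s ∈ Rs, s ∉ W.S →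
      |(W.cfg E n).rel k i l s -
        evoC (q' n) (ownC (q' n) W n k₀ k (fsl W n i k₀ 2) (fsl W n i k₀ 3))
          ((W.cfg E n).rel k₀ i l) s| ≤ W.B'.d n ^ (t - ε) := by
  filter_upwards [hc, P.capp, P.clo, Crest.Agent.R136.Gf356.ev_const_le W.B' hε 3600] with
    n hn hca hcl hk k₀ k i l h1 h2 h3 h4 s hs hsS
  obtain ⟨g, hE, hcfg⟩ := hn
  rw [hcfg] at h1 h2 h3 h4 ⊢
  have e1 := P.evo0 g hca hcl hE h1 h2 h3 h4 s hs hsS
  have e4 : W.B'.d n ^ (t - ε) = W.B'.d n ^ (-ε) * W.B'.d n ^ t := by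
    rw [← Real.rpow_add (W.B'.pos n)]; congr 1; ring
  rw [e4]
  exact e1.trans (mul_le_mul_of_nonneg_right hk (Real.rpow_nonneg (W.B'.pos n).le t))

/-- **composition of `rel`**, all line slots -/
theorem comp (hc : ∀ᶠ n in (U : Filter ℕ), W.Good n ∧ E n ⊆ W.Cl n ∧
      W.cfg E n = W.cfg0 n (E n)) {ε : ℝ} (hε : 0 < ε) :
    ∀ᶠ n in (U : Filter ℕ), ∀ k i j l, (i, k) ∈ (W.cfg E n).I → (j, k) ∈ (W.cfg E n).I →
      (l, k) ∈ (W.cfg E n).I → ∀ s, s ∉ W.S →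
      |(W.cfg E n).rel k i l s -
        compC (q' n) ((W.cfg E n).rel k i j) ((W.cfg E n).rel k j l) s| ≤
        W.B'.d n ^ (t - ε) := by
  filter_upwards [hc, P.capp, Crest.Agent.R136.Gf356.ev_const_le W.B' hε 50] with
    n hn hca hk k i j l h1 h2 h3 s hsS
  obtain ⟨g, hE, hcfg⟩ := hn
  rw [hcfg] at h1 h2 h3 ⊢
  obtain ⟨a1, a2, a3⟩ := rep_of_mem hE h1
  obtain ⟨b1, b2, b3⟩ := rep_of_mem hE h2
  obtain ⟨c1, c2, c3⟩ := rep_of_mem hE h3
  have hη0 : 0 ≤ W.B'.d n ^ t := Real.rpow_nonneg (W.B'.pos n).le t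
  have e1 := compP_fin (S := W.S) hη0 hca P.S0 (P.q.lawC g a1 b1 c1)
    (fun s => (P.crd4 g a1 b1 s).trans (by norm_num))
    (fun s => (P.crd4 g b1 c1 s).trans (by norm_num))
    (fun s hsS => (P.sm4 (P.q.crd_lev g a1 b1 (a3.trans b3.symm) hsS
      (P.top s (P.sub hsS)))).trans (by linarith))
    (fun s => rel_cfg0 (W := W) (n := n) (E := E n) k i j s)
    (fun s hsS => (P.sm4 (P.q.crd_lev g b1 c1 (b3.trans c3.symm) hsS
      (P.top s (P.sub hsS)))).trans (by linarith))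
    (fun s => rel_cfg0 (W := W) (n := n) (E := E n) k j l s) s
  rw [rel_cfg0 k i l s, if_neg hsS]
  have e4 : W.B'.d n ^ (t - ε) = W.B'.d n ^ (-ε) * W.B'.d n ^ t := by
    rw [← Real.rpow_add (W.B'.pos n)]; congr 1; ring
  rw [e4]
  exact e1.trans (mul_le_mul_of_nonneg_right hk hη0)

end PQ

/-! ### the windows of helper413 -/

/-- closure of the resolved slots under the walls of `Ma` -/
structure CloM (Rs : Finset (Fin 11)) (Ma : Mons 11) : Prop where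
  w4 : 4 ∈ Rs → mv 2 3 ∉ Ma.mon 4 ∨ (2 ∈ Rs ∧ 3 ∈ Rs)
  w6 : 6 ∈ Rs → mv 2 5 ∉ Ma.mon 6 ∨ (2 ∈ Rs ∧ 5 ∈ Rs)
  w7a : 7 ∈ Rs → mv 4 5 ∉ Ma.mon 7 ∨ (4 ∈ Rs ∧ 5 ∈ Rs)
  w7b : 7 ∈ Rs → mv 3 6 ∉ Ma.mon 7 ∨ (3 ∈ Rs ∧ 6 ∈ Rs)
  w8 : 8 ∈ Rs → mv 0 5 ∉ Ma.mon 8 ∨ (0 ∈ Rs ∧ 5 ∈ Rs)
  w9a : 9 ∈ Rs → mv 0 6 ∉ Ma.mon 9 ∨ (0 ∈ Rs ∧ 6 ∈ Rs)
  w9b : 9 ∈ Rs → mv 2 8 ∉ Ma.mon 9 ∨ (2 ∈ Rs ∧ 8 ∈ Rs)
  w10a : 10 ∈ Rs → mv 0 7 ∉ Ma.mon 10 ∨ (0 ∈ Rs ∧ 7 ∈ Rs)
  w10b : 10 ∈ Rs → mv 4 8 ∉ Ma.mon 10 ∨ (4 ∈ Rs ∧ 8 ∈ Rs)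
  w10c : 10 ∈ Rs → mv 3 9 ∉ Ma.mon 10 ∨ (3 ∈ Rs ∧ 9 ∈ Rs)

theorem CloM.clo {Rs : Finset (Fin 11)} {Ma : Mons 11} (h : CloM Rs Ma) (r : mv 0 1 ∉ Ma.mon 7)
    {q : Fin 11 → Fin 11 → Fin 11 → ℝ} (hq : ∀ i j s, mv i j ∉ Ma.mon s → q i j s = 0) :
    Clo Rs q where
  w4 := fun hs => (h.w4 hs).imp (hq _ _ _) id
  w6 := fun hs => (h.w6 hs).imp (hq _ _ _) id
  w7r := hq _ _ _ r
  w7a := fun hs => (h.w7a hs).imp (hq _ _ _) id
  w7b := fun hs => (h.w7b hs).imp (hq _ _ _) id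
  w8 := fun hs => (h.w8 hs).imp (hq _ _ _) id
  w9a := fun hs => (h.w9a hs).imp (hq _ _ _) id
  w9b := fun hs => (h.w9b hs).imp (hq _ _ _) id
  w10a := fun hs => (h.w10a hs).imp (hq _ _ _) id
  w10b := fun hs => (h.w10b hs).imp (hq _ _ _) id
  w10c := fun hs => (h.w10c hs).imp (hq _ _ _) id

/-- windows without offset -/
theorem PQ.of_at {Ma : Mons 11} (h : QAt W f Ma) {Rs : Finset (Fin 11)} {t : ℝ} (t0 : 0 ≤ t)
    (sub : W.S ⊆ Rs) (top : ∀ s ∈ Rs, t ≤ W.top s) (cl : CloM Rs Ma) :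
    PQ W f Rs t (fun _ => chi Ma) where
  q := h.q
  S0 := h.S0
  sub := sub
  kap4 := h.kap4
  top := top
  capp := h.capp t t0
  clo := Eventually.of_forall fun _ => cl.clo h.r fun _ _ _ hm => if_neg hm

/-- offset windows -/
theorem PQ.of_ato {c0 : Fin 11 → ℝ} {Ma : Mons 11} (h : QAtO W f c0 Ma) {Rs : Finset (Fin 11)}
    {t : ℝ} (t0 : 0 ≤ t) (sub : W.S ⊆ Rs) (top : ∀ s ∈ Rs, t ≤ W.top s) (cl : CloM Rs Ma) :
    PQ W f Rs t (fun n => chiO (W.B'.d n) c0 Ma) where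
  q := h.q
  S0 := h.S0
  sub := sub
  kap4 := h.kap4
  top := top
  capp := h.capp t t0
  clo := Eventually.of_forall fun n => cl.clo h.r fun _ _ _ hm => if_neg hm

/-! ### offset windows, coefficients `≤ ρ^t` dropped -/

/-- coefficients of an offset window, those `≤ ρ^t` are dropped -/
noncomputable def chiT (ρ t : ℝ) (c0 : Fin 11 → ℝ) (Ma : Mons 11) (i j s : Fin 11) : ℝ :=
  if mv i j ∈ Ma.mon s ∧ c0 i + c0 j - c0 s < t then ρ ^ (c0 i + c0 j - c0 s) else 0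

namespace QAtO

variable {c0 : Fin 11 → ℝ} {Ma : Mons 11} (h : QAtO W f c0 Ma)

include h

theorem cf_apT {i j s : Fin 11} (hm : mv i j ∈ monQ.mon s) (hw : wtQ i + wtQ j ≤ wtQ s)
    (hw' : mv i j ∈ Ma.mon s → wtQ s = wtQ i + wtQ j) (t : ℝ) (ht : 0 ≤ t) :
    ∀ᶠ n in (U : Filter ℕ), Ap (W.B'.d n ^ t) 1 1 (cf W n i j s)
      (chiT (W.B'.d n) t c0 Ma i j s) := by
  filter_upwards [h.cf_ap hm hw hw' t ht] with n hn
  unfold chiT
  by_cases ha : mv i j ∈ Ma.mon s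
  · by_cases ho : c0 i + c0 j - c0 s < t
    · rw [if_pos ⟨ha, ho⟩]
      have e1 : chiO (W.B'.d n) c0 Ma i j s = W.B'.d n ^ (c0 i + c0 j - c0 s) := if_pos ha
      rwa [e1] at hn
    · rw [if_neg (fun hh => ho hh.2)]
      refine ⟨hn.l, by rw [abs_zero]; norm_num, ?_⟩
      have e2 := h.cf_off ha (hw' ha) n
      have h5 : 0 < W.B'.d n ^ (c0 i + c0 j - c0 s) := Real.rpow_pos_of_pos (W.B'.pos n) _
      rw [sub_zero, e2, abs_of_pos h5, one_mul]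
      exact Real.rpow_le_rpow_of_exponent_ge (W.B'.pos n) (W.B'.lt n).le (not_lt.1 ho)
  · rw [if_neg (fun hh => ha hh.1)]
    have e1 : chiO (W.B'.d n) c0 Ma i j s = 0 := if_neg ha
    rwa [e1] at hn

/-- **limits of the coefficients**, small ones dropped -/
theorem cappT (t : ℝ) (ht : 0 ≤ t) :
    ∀ᶠ n in (U : Filter ℕ), CApp (W.B'.d n ^ t) 1 (cf W n) (chiT (W.B'.d n) t c0 Ma) := by
  filter_upwards [
    h.cf_apT (i := 2) (j := 5) (s := 6) (by decide) (by decide) (fun _ => by decide) t ht,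
    h.cf_apT (i := 0) (j := 1) (s := 7) (by decide) (by decide) (fun hc => absurd hc h.r) t ht,
    h.cf_apT (i := 4) (j := 5) (s := 7) (by decide) (by decide) (fun _ => by decide) t ht,
    h.cf_apT (i := 3) (j := 6) (s := 7) (by decide) (by decide) (fun _ => by decide) t ht,
    h.cf_apT (i := 0) (j := 5) (s := 8) (by decide) (by decide) (fun _ => by decide) t ht,
    h.cf_apT (i := 0) (j := 6) (s := 9) (by decide) (by decide) (fun _ => by decide) t ht,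
    h.cf_apT (i := 2) (j := 8) (s := 9) (by decide) (by decide) (fun _ => by decide) t ht,
    h.cf_apT (i := 0) (j := 7) (s := 10) (by decide) (by decide) (fun _ => by decide) t ht,
    h.cf_apT (i := 4) (j := 8) (s := 10) (by decide) (by decide) (fun _ => by decide) t ht,
    h.cf_apT (i := 3) (j := 9) (s := 10) (by decide) (by decide) (fun _ => by decide) t ht,
    h.cf_apT (i := 2) (j := 3) (s := 4) (by decide) (by decide) (fun _ => by decide) t ht]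
    with n a1 a2 a3 a4 a5 a6 a7 a8 a9 a10 a11
  exact ⟨a1, a2, a3, a4, a5, a6, a7, a8, a9, a10, a11⟩

end QAtO

/-- a wall of `Ma` at distance `< t` in the offset window -/
def WT (t : ℝ) (c0 : Fin 11 → ℝ) (Ma : Mons 11) (i j s : Fin 11) : Prop :=
  mv i j ∈ Ma.mon s ∧ c0 i + c0 j - c0 s < t

/-- closure of the resolved slots, offset windows -/
structure CloT (Rs : Finset (Fin 11)) (t : ℝ) (c0 : Fin 11 → ℝ) (Ma : Mons 11) : Prop where
  w4 : 4 ∈ Rs → WT t c0 Ma 2 3 4 → 2 ∈ Rs ∧ 3 ∈ Rs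
  w6 : 6 ∈ Rs → WT t c0 Ma 2 5 6 → 2 ∈ Rs ∧ 5 ∈ Rs
  w7a : 7 ∈ Rs → WT t c0 Ma 4 5 7 → 4 ∈ Rs ∧ 5 ∈ Rs
  w7b : 7 ∈ Rs → WT t c0 Ma 3 6 7 → 3 ∈ Rs ∧ 6 ∈ Rs
  w8 : 8 ∈ Rs → WT t c0 Ma 0 5 8 → 0 ∈ Rs ∧ 5 ∈ Rs
  w9a : 9 ∈ Rs → WT t c0 Ma 0 6 9 → 0 ∈ Rs ∧ 6 ∈ Rs
  w9b : 9 ∈ Rs → WT t c0 Ma 2 8 9 → 2 ∈ Rs ∧ 8 ∈ Rs
  w10a : 10 ∈ Rs → WT t c0 Ma 0 7 10 → 0 ∈ Rs ∧ 7 ∈ Rs
  w10b : 10 ∈ Rs → WT t c0 Ma 4 8 10 → 4 ∈ Rs ∧ 8 ∈ Rs
  w10c : 10 ∈ Rs → WT t c0 Ma 3 9 10 → 3 ∈ Rs ∧ 9 ∈ Rs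

theorem CloT.clo {Rs : Finset (Fin 11)} {t : ℝ} {c0 : Fin 11 → ℝ} {Ma : Mons 11}
    (h : CloT Rs t c0 Ma) (r : mv 0 1 ∉ Ma.mon 7) (ρ : ℝ) : Clo Rs (chiT ρ t c0 Ma) := by
  have key : ∀ {i j s : Fin 11}, (WT t c0 Ma i j s → i ∈ Rs ∧ j ∈ Rs) →
      chiT ρ t c0 Ma i j s = 0 ∨ (i ∈ Rs ∧ j ∈ Rs) := by
    intro i j s hh
    by_cases hw : WT t c0 Ma i j s
    · exact Or.inr (hh hw)
    · exact Or.inl (if_neg hw)
  exact ⟨fun hs => key (h.w4 hs), fun hs => key (h.w6 hs), if_neg fun hh => r hh.1,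
    fun hs => key (h.w7a hs), fun hs => key (h.w7b hs), fun hs => key (h.w8 hs),
    fun hs => key (h.w9a hs), fun hs => key (h.w9b hs), fun hs => key (h.w10a hs),
    fun hs => key (h.w10b hs), fun hs => key (h.w10c hs)⟩

/-- offset windows, small coefficients dropped -/
theorem PQ.of_atot {c0 : Fin 11 → ℝ} {Ma : Mons 11} (h : QAtO W f c0 Ma) {Rs : Finset (Fin 11)}
    {t : ℝ} (t0 : 0 ≤ t) (sub : W.S ⊆ Rs) (top : ∀ s ∈ Rs, t ≤ W.top s) (cl : CloT Rs t c0 Ma) :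
    PQ W f Rs t (fun n => chiT (W.B'.d n) t c0 Ma) where
  q := h.q
  S0 := h.S0
  sub := sub
  kap4 := h.kap4
  top := top
  capp := h.cappT t t0
  clo := Eventually.of_forall fun n => cl.clo h.r _

end Crest.Agent.R136.Ev356
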