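import Crest.Agent.R136.LadB_115
import Crest.Agent.R136.Fe2_355

/-!
# R136, case F, rung `s = 1`: the Kaufman half of `F2` (helper356)

* `ownC_z`, `evoZ` : evolution in the window with the only level slot `z`, `E`, `F_b`, `C_b`, `X_b`
  unresolved: `F_a' = F_a`, `N' = N + u P`;
* **`kaufN`** : `N` resolved at `x` given `z : x`, `F_a : x`; `P` coarse against `P` narrow.
-/

set_option autoImplicit false
set_option linter.unusedSectionVars false
set_option linter.unusedVariables false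

open Filter Topology

namespace Crest.Agent.R136.Ev356

open Finset Crest.Agent.R136.NetQ186 Crest.Agent.R136.Net191 Crest.Agent.R136.Qg926
open Crest.Agent.R136.Gf356 Crest.Agent.R136.Aw413 Crest.Agent.R136.LadA115
open Crest.Agent.R136.Fx940 Crest.Agent.R136.Fe2355
open Crest.Agent.R138.Ex926 (Base U)

variable {ι : ℕ → Type*} [∀ n, DecidableEq (ι n)] {W : Wnd 11 ι} {f : ∀ n, ι n → Fq4}
  {Ma : Mons 11} {E : ∀ n, Finset (ι n)}

/-- own motion, only the height is a level slot -/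
theorem ownC_z {Rs : Finset (Fin 11)} {t : ℝ} {q' : ℕ → Fin 11 → Fin 11 → Fin 11 → ℝ}
    (P : PQ W f Rs t q') (hS : W.S = {0}) (hkz : W.kz = 0)
    (hc : ∀ᶠ n in (U : Filter ℕ), W.Good n ∧ E n ⊆ W.Cl n ∧ W.cfg E n = W.cfg0 n (E n)) :
    ∀ᶠ n in (U : Filter ℕ), ∀ i, ∀ k ∈ (W.cfg E n).Z, ∀ k' ∈ (W.cfg E n).Z, ∀ s,
      ownC (q' n) W n k k' (fsl W n i k 2) (fsl W n i k 3) s =
        if s = 0 then (W.cfg E n).z k' - (W.cfg E n).z k else 0 := by
  filter_upwards [P.q.mot_eq hc, P.q.z_eq hkz hc] with n hn hz i k hk k' hk' s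
  have m := (hn k hk k' hk').1
  unfold ownC
  by_cases h4 : s = 4
  · subst h4
    have n4 : (4 : Fin 11) ∉ W.S := by rw [hS]; decide
    rw [if_pos rfl, if_neg n4, if_neg (by decide)]
  · rw [if_neg h4]
    unfold mot
    by_cases h0 : s = 0
    · subst h0
      rw [if_pos P.S0, if_pos rfl, m 0 (by simp), hz k, hz k']
    · have n0 : s ∉ W.S := by rw [hS, Finset.mem_singleton]; exact h0
      rw [if_neg n0, if_neg h0]

/-- bounds of heights -/
theorem z_bdZ (h : QAt W f Ma) (hkz : W.kz = 0)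
    (hc : ∀ᶠ n in (U : Filter ℕ), W.Good n ∧ E n ⊆ W.Cl n ∧ W.cfg E n = W.cfg0 n (E n)) :
    ∀ᶠ n in (U : Filter ℕ), ∀ k ∈ (W.cfg E n).Z, |(W.cfg E n).z k| ≤ 1 / 4 := by
  filter_upwards [hc, h.q.z_eq hkz hc] with n hn hz k hk
  obtain ⟨g, hE, hcfg⟩ := hn
  rw [hz k]
  rw [hcfg] at hk
  have a := (zrep_of_mem hE hk).1
  exact h.crd4 g g.s0 a 0

theorem Z_of_I14
    (hc : ∀ᶠ n in (U : Filter ℕ), W.Good n ∧ E n ⊆ W.Cl n ∧ W.cfg E n = W.cfg0 n (E n)) :
    ∀ᶠ n in (U : Filter ℕ), ∀ i k, (i, k) ∈ (W.cfg E n).I → k ∈ (W.cfg E n).Z := by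
  filter_upwards [hc] with n hn i k hik
  obtain ⟨g, hE, hcfg⟩ := hn
  rw [hcfg] at hik ⊢
  exact mem_image.2 (by obtain ⟨u, hu, -, h6⟩ := mem_cfg0 hik; exact ⟨u, hu, h6⟩)

/-- **evolution in the window with the level slot `z`**; `E, F_b, C_b, X_b` unresolved -/
theorem evoZ (h : QAt W f Ma) (hS : W.S = {0}) (hkz : W.kz = 0)
    (hc : ∀ᶠ n in (U : Filter ℕ), W.Good n ∧ E n ⊆ W.Cl n ∧ W.cfg E n = W.cfg0 n (E n))
    {x : ℝ} (hx : 0 ≤ x) (htop : ∀ s, s ≠ 2 → x ≤ W.top s)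
    (m0710 : mv 0 7 ∈ Ma.mon 10) (n234 : mv 2 3 ∉ Ma.mon 4) (n367 : mv 3 6 ∉ Ma.mon 7)
    (n3910 : mv 3 9 ∉ Ma.mon 10) {ε : ℝ} (hε : 0 < ε) :
    ∀ᶠ n in (U : Filter ℕ), ∀ i l k k', (i, k) ∈ (W.cfg E n).I → (l, k) ∈ (W.cfg E n).I →
      (i, k') ∈ (W.cfg E n).I → (l, k') ∈ (W.cfg E n).I →
      |(W.cfg E n).rel k' i l 4 - (W.cfg E n).rel k i l 4| ≤ W.B'.d n ^ (x - ε) ∧
      |(W.cfg E n).rel k' i l 10 - ((W.cfg E n).rel k i l 10 +
        ((W.cfg E n).z k' - (W.cfg E n).z k) * (W.cfg E n).rel k i l 7)| ≤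
        W.B'.d n ^ (x - ε) := by
  have cl : CloM ({0, 4, 5, 7, 8, 10} : Finset (Fin 11)) Ma :=
    ⟨fun _ => Or.inl n234, fun hs => absurd hs (by decide), fun _ => Or.inr (by decide),
      fun _ => Or.inl n367, fun hs => Or.inr (by decide), fun hs => absurd hs (by decide),
      fun hs => absurd hs (by decide), fun _ => Or.inr (by decide), fun _ => Or.inr (by decide),
      fun _ => Or.inl n3910⟩
  have P := PQ.of_at h hx (Rs := {0, 4, 5, 7, 8, 10}) (by rw [hS]; decide)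
    (fun s hs => htop s (by rintro rfl; exact absurd hs (by decide))) cl
  have c234 : chi Ma 2 3 4 = 0 := if_neg n234
  have c017 : chi Ma 0 1 7 = 0 := if_neg h.r
  have c0710 : chi Ma 0 7 10 = 1 := if_pos m0710
  filter_upwards [P.evo hc hε, ownC_z P hS hkz hc, Z_of_I14 hc] with n hev how hZ i l k k'
    a1 a2 a3 a4
  have a := how i k (hZ _ _ a1) k' (hZ _ _ a3)
  have s0 := a 0
  have s2 := a 2
  have s3 := a 3
  have s4 := a 4
  rw [if_pos rfl] at s0
  rw [if_neg (by decide)] at s2 s3 s4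
  have e4 := hev k k' i l a1 a3 a2 a4 4 (by decide) (by rw [hS]; decide)
  have e10 := hev k k' i l a1 a3 a2 a4 10 (by decide) (by rw [hS]; decide)
  simp only [evoC, Matrix.cons_val, s0, s2, s3, s4, c234, c017, c0710] at e4 e10
  constructor
  · refine le_of_eq_of_le ?_ e4
    congr 1
    ring
  · refine le_of_eq_of_le ?_ e10
    congr 1
    ring

section aew

variable {B Bo : Base} {I J : ∀ n, Finset (ι n)} {co : ∀ n, ι n → ι n → Fin 11 → ℝ}
  {C : ℝ} {lam : (Fin 11 → ℝ) → ℝ} {a b' : Fin 11 → ℝ} {A : ℝ × ℝ}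
  {φ : ℕ → (Fin 11 → ℝ) → ℝ} {r : ℕ → ℝ} {κ : Fin 11 → ℝ} {V Tw : Fin 11 → Prop}

/-- **Kaufman for `N` and `P`**, base `z : x`, `F_a : x` -/
theorem kaufN (h : AeW B Bo I J co monQ Ma C lam a b' A φ r 0 1 κ V Tw) (hC : 0 ≤ C)
    (hco : ∀ n, ∀ i ∈ I n, ∀ j ∈ I n, co n i j = coQ (f n i) (f n j))
    (hne : ∀ᶠ n in (U : Filter ℕ), (J n).Nonempty) (hV : ∀ k, V k → k = 2)
    (n017 : mv 0 1 ∉ Ma.mon 7) (m0710 : mv 0 7 ∈ Ma.mon 10)
    (no3 : ∀ k, ∀ e ∈ Ma.mon k, e 3 = 0) {x : ℝ} (hx : 0 < x) {N : ℕ} (hN : 0 < N) :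
    ∃ j ≤ N, lam (cz x (Pi.single 4 x)) -
        lam (cz x (bx2 (Pi.single 4 x) 10 7 (x * j / N) (x * j / N))) +
        (x - x * ((j : ℝ) + 1) / N) ≤
      lam (cz x (Pi.single 4 x)) - lam (cz x (bx2 (Pi.single 4 x) 10 7 x 0)) := by
  obtain ⟨W, E, hW⟩ := zw_of_aew h hC hco hne n017 hV hx.le
  have n234 : mv 2 3 ∉ Ma.mon 4 := fun hh => absurd (no3 4 _ hh) (by decide)
  have n367 : mv 3 6 ∉ Ma.mon 7 := fun hh => absurd (no3 7 _ hh) (by decide)
  have n3910 : mv 3 9 ∉ Ma.mon 10 := fun hh => absurd (no3 10 _ hh) (by decide)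
  set p : Fin 11 → ℝ := Pi.single 4 x with hp
  have p4 : p 4 = x := by rw [hp]; simp
  have po : ∀ s : Fin 11, s ≠ 4 → p s = 0 := fun s hs => by rw [hp]; simp [hs]
  have leg : ∀ c d : ℝ, 0 ≤ c → c ≤ x → 0 ≤ d → d ≤ x → bx2 p 10 7 d c ∈ W.legW := by
    intro c d hc0 hcx hd0 hdx
    have q10 : bx2 p 10 7 d c 10 = d := bx2_fst _ _ _ _ _
    have q7 : bx2 p 10 7 d c 7 = c := bx2_snd _ (by decide) _ _
    have qo : ∀ s : Fin 11, s ≠ 10 → s ≠ 7 → bx2 p 10 7 d c s = p s :=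
      fun s h1 h2 => bx2_other p h1 h2 _ _
    have q4 : bx2 p 10 7 d c 4 = x := by rw [qo 4 (by decide) (by decide), p4]
    have qz : ∀ s : Fin 11, s ≠ 10 → s ≠ 7 → s ≠ 4 → bx2 p 10 7 d c s = 0 :=
      fun s h1 h2 h3 => by rw [qo s h1 h2, po s h3]
    have hb : ∀ s, 0 ≤ bx2 p 10 7 d c s ∧ bx2 p 10 7 d c s ≤ x := by
      intro s
      by_cases h1 : s = 10
      · subst h1; rw [q10]; exact ⟨hd0, hdx⟩
      by_cases h2 : s = 7
      · subst h2; rw [q7]; exact ⟨hc0, hcx⟩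
      by_cases h3 : s = 4
      · subst h3; rw [q4]; exact ⟨hx.le, le_rfl⟩
      rw [qz s h1 h2 h3]; exact ⟨le_rfl, hx.le⟩
    refine hW.legZ hb (qz 2 (by decide) (by decide) (by decide))
      (legal3 h.sub no3 (fun s => ?_) ?_ ?_ ?_ ?_ ?_ ?_ ?_ ?_)
    · by_cases g0 : s = 0
      · subst g0; rw [cz0]; exact hx.le
      rw [czs _ _ g0]; exact (hb s).1
    all_goals
      (simp only [cz0, czs x (bx2 p 10 7 d c) (s := 4) (by decide),
        czs x (bx2 p 10 7 d c) (s := 2) (by decide),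
        czs x (bx2 p 10 7 d c) (s := 1) (by decide),
        czs x (bx2 p 10 7 d c) (s := 5) (by decide),
        czs x (bx2 p 10 7 d c) (s := 6) (by decide),
        czs x (bx2 p 10 7 d c) (s := 7) (by decide),
        czs x (bx2 p 10 7 d c) (s := 8) (by decide),
        czs x (bx2 p 10 7 d c) (s := 9) (by decide),
        czs x (bx2 p 10 7 d c) (s := 10) (by decide), q10, q7, q4,
        qz 1 (by decide) (by decide) (by decide), qz 2 (by decide) (by decide) (by decide),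
        qz 5 (by decide) (by decide) (by decide), qz 6 (by decide) (by decide) (by decide),
        qz 8 (by decide) (by decide) (by decide), qz 9 (by decide) (by decide) (by decide)]
       linarith)
  have ep : bx2 p 10 7 0 0 = p := by
    funext s
    unfold bx2
    split_ifs with h1 h2
    · rw [h1, po 10 (by decide)]
    · rw [h2, po 7 (by decide)]
    · rfl
  have htop : ∀ s, s ≠ 2 → x ≤ W.top s := by
    intro s hs
    rw [hW.etop]
    unfold topZ
    rw [if_neg hs]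
  have hR : topZ x 0 = x := by simp [topZ]
  obtain ⟨j, hj, key⟩ := kauf_stay hW.H (sX := 10) (sC := 7) (by decide) (p := p)
    (po 10 (by decide)) (po 7 (by decide)) (y := x) (C := 1) hx hR.ge one_pos
    (by rw [← ep]; exact leg 0 0 le_rfl hx.le le_rfl hx.le)
    (leg 0 x le_rfl hx.le hx.le le_rfl)
    (fun t h1 h2 => leg t t h1 h2 h1 h2)
    (by
      intro C' hC'
      refine ⟨C' + 2, by positivity, fun ε hε => ?_⟩
      filter_upwards [evoZ hW.qa hW.eS hW.ekz hW.hc hx.le htop m0710 n234 n367 n3910 hε,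
        rel_le hW.qa hW.hc, ev_const_le W.B' hε 2] with n hev hr h2 k k' i l a1 a2 a3 a4 hl s
      have hb := hW.H.base n
      rw [hb]
      by_cases hs : s = 4
      · subst hs
        have e1 := hl 4
        rw [hb, p4] at e1
        have e2 := (hev i l k k' a1 a2 a3 a4).1
        have e3 : W.B'.d n ^ (x - C' * ε) ≤ W.B'.d n ^ (x - (C' + 1) * ε) :=
          Real.rpow_le_rpow_of_exponent_ge (W.B'.pos n) (W.B'.lt n).le (by nlinarith)
        have e4 : W.B'.d n ^ (x - ε) ≤ W.B'.d n ^ (x - (C' + 1) * ε) :=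
          Real.rpow_le_rpow_of_exponent_ge (W.B'.pos n) (W.B'.lt n).le (by nlinarith)
        have e5 : W.B'.d n ^ (x - (C' + 2) * ε) =
            W.B'.d n ^ (-ε) * W.B'.d n ^ (x - (C' + 1) * ε) := by
          rw [← Real.rpow_add (W.B'.pos n)]; congr 1; ring
        have e6 : |(W.cfg E n).rel k' i l 4| ≤ |(W.cfg E n).rel k i l 4| +
            |(W.cfg E n).rel k' i l 4 - (W.cfg E n).rel k i l 4| := by
          have := abs_add_le ((W.cfg E n).rel k i l 4)
            ((W.cfg E n).rel k' i l 4 - (W.cfg E n).rel k i l 4)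
          rwa [add_sub_cancel] at this
        have e7 := Real.rpow_pos_of_pos (W.B'.pos n) (x - (C' + 1) * ε)
        rw [p4, e5]
        nlinarith
      · rw [po s hs]
        refine (hr k' i l a3 a4 s).trans ?_
        refine Real.one_le_rpow_of_pos_of_le_one_of_nonpos (W.B'.pos n) (W.B'.lt n).le ?_
        have : 0 ≤ (C' + 2) * ε := by positivity
        linarith)
    (by
      intro ε hε
      filter_upwards [z_bdZ hW.qa hW.ekz hW.hc] with n hn k hk k' hk'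
      have e1 := hn k hk
      have e2 := hn k' hk'
      have e3 := abs_sub ((W.cfg E n).z k') ((W.cfg E n).z k)
      have e4 : 1 ≤ W.B'.d n ^ (-(1 * ε)) :=
        Real.one_le_rpow_of_pos_of_le_one_of_nonpos (W.B'.pos n) (W.B'.lt n).le (by linarith)
      linarith)
    (by
      intro C' hC'
      refine ⟨1, one_pos, fun ε hε => ?_⟩
      filter_upwards [evoZ hW.qa hW.eS hW.ekz hW.hc hx.le htop m0710 n234 n367 n3910 hε] with
        n hev k k' i l a1 a2 a3 a4 hl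
      rw [one_mul]
      exact (hev i l k k' a1 a2 a3 a4).2)
    hN
  refine ⟨j, hj, ?_⟩
  simp only [hW.nuZ, sc] at key
  push_cast at key ⊢
  linarith

end aew

end Crest.Agent.R136.Ev356
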