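import Crest.Agent.R136.Net4_186

/-!
# R136: evolution along lines in the chart of helper186 (helper356)

`x, x'` incidences on one line, `y, y'` incidences on another one, `y.z = x.z`, `y'.z = x'.z`:
`coQ x' y'` in terms of `coQ x y` and the own motion `coQ x x'`.
-/

set_option autoImplicit false

namespace Crest.Agent.R136.Ev356

open Crest.Agent.R136.NetQ186

/-- `x` and `x'` are incidences on the same line -/
structure SameLine (x x' : Fq4) : Prop where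
  A : x'.A = x.A
  B : x'.B = x.B
  ca : x'.ca = x.ca
  cb : x'.cb = x.cb
  y0 : x'.y0 = x.y0
  y1 : x'.y1 = x.y1
  y2 : x'.y2 = x.y2

/-- own motion vanishes on the line slots -/
theorem SameLine.own {x x' : Fq4} (h : SameLine x x') :
    coQ x x' 1 = 0 ∧ coQ x x' 5 = 0 ∧ coQ x x' 6 = 0 ∧ coQ x x' 7 = 0 ∧ coQ x x' 8 = 0 ∧
    coQ x x' 9 = 0 ∧ coQ x x' 10 = 0 := by
  obtain ⟨h1, h2, h3, h4, h5, h6, h7⟩ := h
  simp only [coQ, Fq4.pa, Fq4.pb, Fq4.py, Fq4.vy, Matrix.cons_val, h1, h2, h3, h4, h5, h6, h7]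
  refine ⟨by ring, by ring, by ring, by ring, by ring, by ring, by ring⟩

/-- **evolution**, exact form -/
theorem evo {x x' y y' : Fq4} (hx : SameLine x x') (hy : SameLine y y') :
    coQ x' y' 1 = coQ x y 1 ∧
    coQ x' y' 5 = coQ x y 5 ∧
    coQ x' y' 6 = coQ x y 6 - coQ x x' 2 * coQ x y 5 ∧
    coQ x' y' 7 = coQ x y 7 + 2 * coQ x x' 0 * coQ x y 1 - coQ x x' 4 * coQ x y 5 -
      coQ x x' 3 * coQ x y 6 ∧
    coQ x' y' 8 = coQ x y 8 + coQ x x' 0 * coQ x y 5 ∧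
    coQ x' y' 9 = coQ x y 9 + coQ x x' 0 * coQ x y 6 -
      coQ x x' 2 * (coQ x y 8 + coQ x x' 0 * coQ x y 5) ∧
    coQ x' y' 10 = coQ x y 10 + coQ x x' 0 * coQ x y 7 + coQ x x' 0 ^ 2 * coQ x y 1 -
      coQ x x' 4 * (coQ x y 8 + coQ x x' 0 * coQ x y 5) -
      coQ x x' 3 * (coQ x y 9 + coQ x x' 0 * coQ x y 6) := by
  obtain ⟨h1, h2, h3, h4, h5, h6, h7⟩ := hx
  obtain ⟨g1, g2, g3, g4, g5, g6, g7⟩ := hy
  simp only [coQ, Fq4.pa, Fq4.pb, Fq4.py, Fq4.vy, Matrix.cons_val, h1, h2, h3, h4, h5, h6, h7,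
    g1, g2, g3, g4, g5, g6, g7]
  refine ⟨trivial, trivial, by ring, by ring, by ring, by ring, by ring⟩

/-- **evolution of the flags** -/
theorem evo_flag (x x' y y' : Fq4) :
    coQ x' y' 0 = coQ x y 0 + coQ y y' 0 - coQ x x' 0 ∧
    coQ x' y' 2 = coQ x y 2 + coQ y y' 2 - coQ x x' 2 ∧
    coQ x' y' 3 = coQ x y 3 + coQ y y' 3 - coQ x x' 3 ∧
    coQ x' y' 4 = coQ x y 4 + coQ y y' 4 - coQ x x' 4 +
      coQ x x' 2 * (coQ x y 3 + coQ y y' 3 - coQ x x' 3) - coQ x y 2 * coQ y y' 3 := by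
  simp only [coQ, Matrix.cons_val]
  refine ⟨by ring, by ring, by ring, by ring⟩

end Crest.Agent.R136.Ev356
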