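import Crest.Agent.R136.Ev1_356

/-!
# R136: evolution in the chart of helper186 for FAT lines (helper356)

Four incidences `x, x'` (same fat line), `y, y'` (same fat line), `x, y` at the same height,
`x', y'` at the same height.  With sides `δ s` satisfying the walls, `|coQ| ≤ κ δ` everywhere and
`≤ κ τ δ` in the line slots of `(x, x')`, `(y, y')` and in the height slot of `(x, y)`:
`|coQ x' y' s - evolution| ≤ 100 κ^4 τ δ s`.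
-/

set_option autoImplicit false

namespace Crest.Agent.R136.Ev356

open Crest.Agent.R136.NetQ186

/-- right-hand sides of the evolution: `a = coQ x x'` (own motion), `b = coQ x y` -/
def evoRHS (a b : Fin 11 → ℝ) : Fin 11 → ℝ :=
  ![b 0, b 1, b 2, b 3, b 4, b 5, b 6 - a 2 * b 5,
    b 7 + 2 * a 0 * b 1 - a 4 * b 5 - a 3 * b 6,
    b 8 + a 0 * b 5,
    b 9 + a 0 * b 6 - a 2 * (b 8 + a 0 * b 5),
    b 10 + a 0 * b 7 + a 0 ^ 2 * b 1 - a 4 * (b 8 + a 0 * b 5) - a 3 * (b 9 + a 0 * b 6)]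

/-- the sides satisfy the walls -/
structure Sides (δ : Fin 11 → ℝ) : Prop where
  pos : ∀ s, 0 < δ s
  w4 : δ 2 * δ 3 ≤ δ 4
  w6 : δ 2 * δ 5 ≤ δ 6
  w7a : δ 0 * δ 1 ≤ δ 7
  w7b : δ 4 * δ 5 ≤ δ 7
  w7c : δ 3 * δ 6 ≤ δ 7
  w8 : δ 0 * δ 5 ≤ δ 8
  w9a : δ 0 * δ 6 ≤ δ 9
  w9b : δ 2 * δ 8 ≤ δ 9
  w10a : δ 0 * δ 7 ≤ δ 10
  w10b : δ 4 * δ 8 ≤ δ 10
  w10c : δ 3 * δ 9 ≤ δ 10

/-- size of a quantity: `|x| ≤ K δ` -/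
theorem bmul {x y K L δ δ' D : ℝ} (hx : |x| ≤ K * δ) (hy : |y| ≤ L * δ') (hK : 0 ≤ K)
    (hL : 0 ≤ L) (hδ : 0 ≤ δ) (_ : 0 ≤ δ') (hD : δ * δ' ≤ D) : |x * y| ≤ (K * L) * D := by
  rw [abs_mul]
  calc |x| * |y| ≤ (K * δ) * (L * δ') := mul_le_mul hx hy (abs_nonneg _) (by positivity)
    _ = (K * L) * (δ * δ') := by ring
    _ ≤ _ := mul_le_mul_of_nonneg_left hD (by positivity)

theorem badd {x y K L D : ℝ} (hx : |x| ≤ K * D) (hy : |y| ≤ L * D) : |x + y| ≤ (K + L) * D := by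
  have := abs_add_le x y
  linarith

theorem bsub {x y K L D : ℝ} (hx : |x| ≤ K * D) (hy : |y| ≤ L * D) : |x - y| ≤ (K + L) * D := by
  have := abs_sub x y
  linarith

theorem bneg {x K D : ℝ} (hx : |x| ≤ K * D) : |-x| ≤ K * D := by rwa [abs_neg]

theorem bmono {x K L D : ℝ} (hx : |x| ≤ K * D) (h : K ≤ L) (hD : 0 ≤ D) : |x| ≤ L * D :=
  hx.trans (mul_le_mul_of_nonneg_right h hD)

section

variable {a b c e : Fin 11 → ℝ} {δ : Fin 11 → ℝ} {κ τ : ℝ}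

theorem aux1 (hκ : 1 ≤ κ) (hτ : 0 ≤ τ) :
    κ * τ ≤ κ ^ 4 * τ ∧ κ ^ 2 * τ ≤ κ ^ 4 * τ ∧ κ ^ 3 * τ ≤ κ ^ 4 * τ ∧
    κ * τ ≤ κ ^ 3 * τ ∧ κ ^ 2 * τ ≤ κ ^ 3 * τ ∧ κ * τ ≤ κ ^ 2 * τ ∧ 0 ≤ κ * τ := by
  have h : ∀ {m n : ℕ}, m ≤ n → κ ^ m * τ ≤ κ ^ n * τ := fun hmn =>
    mul_le_mul_of_nonneg_right (pow_le_pow_right₀ hκ hmn) hτ
  have h1 := h (show 1 ≤ 4 by norm_num)
  have h2 := h (show 1 ≤ 3 by norm_num)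
  have h3 := h (show 1 ≤ 2 by norm_num)
  rw [pow_one] at h1 h2 h3
  exact ⟨h1, h (by norm_num), h (by norm_num), h2, h (by norm_num), h3,
    mul_nonneg (by linarith) hτ⟩

theorem s6 (hδ : Sides δ) (hκ : 1 ≤ κ) (hτ : 0 ≤ τ)
    (ha : ∀ s, |a s| ≤ κ * δ s) (hb : ∀ s, |b s| ≤ κ * δ s)
    (a6 : |a 6| ≤ (κ * τ) * δ 6) (c5 : |c 5| ≤ (κ * τ) * δ 5) (c6 : |c 6| ≤ (κ * τ) * δ 6)
    (e5 : |e 5 - b 5| ≤ (2 * κ * τ) * δ 5) :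
    |c 6 + b 2 * c 5 - a 6 - a 2 * (e 5 - b 5)| ≤ (5 * κ ^ 2 * τ) * δ 6 := by
  have N : ∀ s, 0 ≤ δ s := fun s => (hδ.pos s).le
  have κ0 : 0 ≤ κ := by linarith
  obtain ⟨t1, t2, t3, t4, t5, t6, κτ⟩ := aux1 hκ hτ
  refine bmono (bsub (bsub (badd c6 (bmul (hb 2) c5 κ0 κτ (N 2) (N 5) hδ.w6)) a6)
      (bmul (ha 2) e5 κ0 (by positivity) (N 2) (N 5) hδ.w6)) ?_ (N 6)
  linarith

theorem s8 (hδ : Sides δ) (hκ : 1 ≤ κ) (hτ : 0 ≤ τ)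
    (ha : ∀ s, |a s| ≤ κ * δ s) (hb : ∀ s, |b s| ≤ κ * δ s)
    (a8 : |a 8| ≤ (κ * τ) * δ 8) (c5 : |c 5| ≤ (κ * τ) * δ 5) (c8 : |c 8| ≤ (κ * τ) * δ 8)
    (e5 : |e 5 - b 5| ≤ (2 * κ * τ) * δ 5) :
    |c 8 - b 0 * c 5 - a 8 + a 0 * (e 5 - b 5)| ≤ (5 * κ ^ 2 * τ) * δ 8 := by
  have N : ∀ s, 0 ≤ δ s := fun s => (hδ.pos s).le
  have κ0 : 0 ≤ κ := by linarith
  obtain ⟨t1, t2, t3, t4, t5, t6, κτ⟩ := aux1 hκ hτ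
  refine bmono (badd (bsub (bsub c8 (bmul (hb 0) c5 κ0 κτ (N 0) (N 5) hδ.w8)) a8)
      (bmul (ha 0) e5 κ0 (by positivity) (N 0) (N 5) hδ.w8)) ?_ (N 8)
  linarith

theorem s9 (hδ : Sides δ) (hκ : 1 ≤ κ) (hτ : 0 ≤ τ) {d6 d8 : ℝ}
    (ha : ∀ s, |a s| ≤ κ * δ s) (hb : ∀ s, |b s| ≤ κ * δ s)
    (a9 : |a 9| ≤ (κ * τ) * δ 9) (c5 : |c 5| ≤ (κ * τ) * δ 5) (c6 : |c 6| ≤ (κ * τ) * δ 6)
    (c8 : |c 8| ≤ (κ * τ) * δ 8) (c9 : |c 9| ≤ (κ * τ) * δ 9)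
    (e5 : |e 5 - b 5| ≤ (2 * κ * τ) * δ 5) (e6 : |d6| ≤ (5 * κ ^ 2 * τ) * δ 6)
    (e8 : |d8| ≤ (5 * κ ^ 2 * τ) * δ 8) :
    |c 9 - b 0 * c 6 + b 2 * c 8 - b 2 * (b 0 * c 5) - a 9 + a 0 * d6 - a 2 * d8 +
      a 2 * (a 0 * (e 5 - b 5))| ≤ (17 * κ ^ 3 * τ) * δ 9 := by
  have N : ∀ s, 0 ≤ δ s := fun s => (hδ.pos s).le
  have κ0 : 0 ≤ κ := by linarith
  obtain ⟨t1, t2, t3, t4, t5, t6, κτ⟩ := aux1 hκ hτ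
  have w205 : δ 2 * (δ 0 * δ 5) ≤ δ 9 :=
    (mul_le_mul_of_nonneg_left hδ.w8 (N 2)).trans hδ.w9b
  refine bmono (badd (bsub (badd (bsub (bsub (badd (bsub c9
      (bmul (hb 0) c6 κ0 κτ (N 0) (N 6) hδ.w9a))
      (bmul (hb 2) c8 κ0 κτ (N 2) (N 8) hδ.w9b))
      (bmul (hb 2) (bmul (hb 0) c5 κ0 κτ (N 0) (N 5) le_rfl) κ0 (by positivity) (N 2)
        (mul_nonneg (N 0) (N 5)) w205)) a9)
      (bmul (ha 0) e6 κ0 (by positivity) (N 0) (N 6) hδ.w9a))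
      (bmul (ha 2) e8 κ0 (by positivity) (N 2) (N 8) hδ.w9b))
      (bmul (ha 2) (bmul (ha 0) e5 κ0 (by positivity) (N 0) (N 5) le_rfl) κ0 (by positivity) (N 2)
        (mul_nonneg (N 0) (N 5)) w205)) ?_ (N 9)
  linarith

theorem s7 (hδ : Sides δ) (hκ : 1 ≤ κ) (hτ : 0 ≤ τ) {d6 : ℝ}
    (ha : ∀ s, |a s| ≤ κ * δ s) (hb : ∀ s, |b s| ≤ κ * δ s)
    (a7 : |a 7| ≤ (κ * τ) * δ 7) (c1 : |c 1| ≤ (κ * τ) * δ 1) (c5 : |c 5| ≤ (κ * τ) * δ 5)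
    (c6 : |c 6| ≤ (κ * τ) * δ 6) (c7 : |c 7| ≤ (κ * τ) * δ 7)
    (e1 : |e 1 - b 1| ≤ (2 * κ * τ) * δ 1)
    (e5 : |e 5 - b 5| ≤ (2 * κ * τ) * δ 5) (e6 : |d6| ≤ (5 * κ ^ 2 * τ) * δ 6) :
    |c 7 - b 0 * c 1 - b 0 * c 1 + b 4 * c 5 + b 2 * (b 3 * c 5) + b 3 * c 6 - a 7 +
        a 0 * (e 1 - b 1) + a 0 * (e 1 - b 1) - a 4 * (e 5 - b 5) - a 2 * (a 3 * (e 5 - b 5)) -
        a 3 * d6| ≤ (20 * κ ^ 3 * τ) * δ 7 := by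
  have N : ∀ s, 0 ≤ δ s := fun s => (hδ.pos s).le
  have κ0 : 0 ≤ κ := by linarith
  obtain ⟨t1, t2, t3, t4, t5, t6, κτ⟩ := aux1 hκ hτ
  have w235 : δ 2 * (δ 3 * δ 5) ≤ δ 7 := by
    have h1 : δ 2 * (δ 3 * δ 5) = (δ 2 * δ 3) * δ 5 := by ring
    rw [h1]
    exact (mul_le_mul_of_nonneg_right hδ.w4 (N 5)).trans hδ.w7b
  refine bmono (bsub (bsub (bsub (badd (badd (bsub (badd (badd (badd (bsub (bsub c7
      (bmul (hb 0) c1 κ0 κτ (N 0) (N 1) hδ.w7a))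
      (bmul (hb 0) c1 κ0 κτ (N 0) (N 1) hδ.w7a))
      (bmul (hb 4) c5 κ0 κτ (N 4) (N 5) hδ.w7b))
      (bmul (hb 2) (bmul (hb 3) c5 κ0 κτ (N 3) (N 5) le_rfl) κ0 (by positivity) (N 2)
        (mul_nonneg (N 3) (N 5)) w235))
      (bmul (hb 3) c6 κ0 κτ (N 3) (N 6) hδ.w7c)) a7)
      (bmul (ha 0) e1 κ0 (by positivity) (N 0) (N 1) hδ.w7a))
      (bmul (ha 0) e1 κ0 (by positivity) (N 0) (N 1) hδ.w7a))
      (bmul (ha 4) e5 κ0 (by positivity) (N 4) (N 5) hδ.w7b))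
      (bmul (ha 2) (bmul (ha 3) e5 κ0 (by positivity) (N 3) (N 5) le_rfl) κ0 (by positivity) (N 2)
        (mul_nonneg (N 3) (N 5)) w235))
      (bmul (ha 3) e6 κ0 (by positivity) (N 3) (N 6) hδ.w7c)) ?_ (N 7)
  linarith

theorem s10 (hδ : Sides δ) (hκ : 1 ≤ κ) (hτ : 0 ≤ τ) {d6 d7 d8 d9 : ℝ}
    (ha : ∀ s, |a s| ≤ κ * δ s) (hb : ∀ s, |b s| ≤ κ * δ s)
    (a10 : |a 10| ≤ (κ * τ) * δ 10) (c1 : |c 1| ≤ (κ * τ) * δ 1) (c5 : |c 5| ≤ (κ * τ) * δ 5)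
    (c6 : |c 6| ≤ (κ * τ) * δ 6) (c7 : |c 7| ≤ (κ * τ) * δ 7) (c8 : |c 8| ≤ (κ * τ) * δ 8)
    (c9 : |c 9| ≤ (κ * τ) * δ 9) (c10 : |c 10| ≤ (κ * τ) * δ 10)
    (e1 : |e 1 - b 1| ≤ (2 * κ * τ) * δ 1)
    (e5 : |e 5 - b 5| ≤ (2 * κ * τ) * δ 5) (e6 : |d6| ≤ (5 * κ ^ 2 * τ) * δ 6)
    (e7 : |d7| ≤ (20 * κ ^ 3 * τ) * δ 7) (e8 : |d8| ≤ (5 * κ ^ 2 * τ) * δ 8)
    (e9 : |d9| ≤ (17 * κ ^ 3 * τ) * δ 9) :
    |(c 10 - b 0 * c 7 + b 0 * (b 0 * c 1) + b 4 * c 8 - b 4 * (b 0 * c 5) + b 2 * (b 3 * c 8) -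
        b 2 * (b 3 * (b 0 * c 5)) + b 3 * c 9 - b 3 * (b 0 * c 6) - a 10) +
      (a 0 * d7 - a 0 * (a 0 * (e 1 - b 1)) - a 4 * d8 + a 4 * (a 0 * (e 5 - b 5)) -
        a 2 * (a 3 * d8) + a 2 * (a 3 * (a 0 * (e 5 - b 5))) - a 3 * d9 + a 3 * (a 0 * d6))|
      ≤ (69 * κ ^ 4 * τ) * δ 10 := by
  have N : ∀ s, 0 ≤ δ s := fun s => (hδ.pos s).le
  have κ0 : 0 ≤ κ := by linarith
  obtain ⟨t1, t2, t3, t4, t5, t6, κτ⟩ := aux1 hκ hτ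
  have w001 : δ 0 * (δ 0 * δ 1) ≤ δ 10 :=
    (mul_le_mul_of_nonneg_left hδ.w7a (N 0)).trans hδ.w10a
  have w405 : δ 4 * (δ 0 * δ 5) ≤ δ 10 :=
    (mul_le_mul_of_nonneg_left hδ.w8 (N 4)).trans hδ.w10b
  have w238 : δ 2 * (δ 3 * δ 8) ≤ δ 10 := by
    have h1 : δ 2 * (δ 3 * δ 8) = (δ 2 * δ 3) * δ 8 := by ring
    rw [h1]
    exact (mul_le_mul_of_nonneg_right hδ.w4 (N 8)).trans hδ.w10b
  have w2305 : δ 2 * (δ 3 * (δ 0 * δ 5)) ≤ δ 10 :=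
    (mul_le_mul_of_nonneg_left (mul_le_mul_of_nonneg_left hδ.w8 (N 3)) (N 2)).trans w238
  have w306 : δ 3 * (δ 0 * δ 6) ≤ δ 10 :=
    (mul_le_mul_of_nonneg_left hδ.w9a (N 3)).trans hδ.w10c
  have m1 : |c 10 - b 0 * c 7 + b 0 * (b 0 * c 1) + b 4 * c 8 - b 4 * (b 0 * c 5) +
      b 2 * (b 3 * c 8) - b 2 * (b 3 * (b 0 * c 5)) + b 3 * c 9 - b 3 * (b 0 * c 6) - a 10|
      ≤ (11 * κ ^ 4 * τ) * δ 10 := by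
    refine bmono (bsub (bsub (badd (bsub (badd (bsub (badd (badd (bsub c10
      (bmul (hb 0) c7 κ0 κτ (N 0) (N 7) hδ.w10a))
      (bmul (hb 0) (bmul (hb 0) c1 κ0 κτ (N 0) (N 1) le_rfl) κ0 (by positivity) (N 0)
        (mul_nonneg (N 0) (N 1)) w001))
      (bmul (hb 4) c8 κ0 κτ (N 4) (N 8) hδ.w10b))
      (bmul (hb 4) (bmul (hb 0) c5 κ0 κτ (N 0) (N 5) le_rfl) κ0 (by positivity) (N 4)
        (mul_nonneg (N 0) (N 5)) w405))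
      (bmul (hb 2) (bmul (hb 3) c8 κ0 κτ (N 3) (N 8) le_rfl) κ0 (by positivity) (N 2)
        (mul_nonneg (N 3) (N 8)) w238))
      (bmul (hb 2) (bmul (hb 3) (bmul (hb 0) c5 κ0 κτ (N 0) (N 5) le_rfl) κ0 (by positivity) (N 3)
        (mul_nonneg (N 0) (N 5)) le_rfl) κ0 (by positivity) (N 2)
        (mul_nonneg (N 3) (mul_nonneg (N 0) (N 5))) w2305))
      (bmul (hb 3) c9 κ0 κτ (N 3) (N 9) hδ.w10c))
      (bmul (hb 3) (bmul (hb 0) c6 κ0 κτ (N 0) (N 6) le_rfl) κ0 (by positivity) (N 3)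
        (mul_nonneg (N 0) (N 6)) w306)) a10) ?_ (N 10)
    linarith
  have m2 : |a 0 * d7 - a 0 * (a 0 * (e 1 - b 1)) - a 4 * d8 + a 4 * (a 0 * (e 5 - b 5)) -
        a 2 * (a 3 * d8) + a 2 * (a 3 * (a 0 * (e 5 - b 5))) - a 3 * d9 + a 3 * (a 0 * d6)|
      ≤ (58 * κ ^ 4 * τ) * δ 10 := by
    refine bmono (badd (bsub (badd (bsub (badd (bsub (bsub
      (bmul (ha 0) e7 κ0 (by positivity) (N 0) (N 7) hδ.w10a)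
      (bmul (ha 0) (bmul (ha 0) e1 κ0 (by positivity) (N 0) (N 1) le_rfl) κ0 (by positivity) (N 0)
        (mul_nonneg (N 0) (N 1)) w001))
      (bmul (ha 4) e8 κ0 (by positivity) (N 4) (N 8) hδ.w10b))
      (bmul (ha 4) (bmul (ha 0) e5 κ0 (by positivity) (N 0) (N 5) le_rfl) κ0 (by positivity) (N 4)
        (mul_nonneg (N 0) (N 5)) w405))
      (bmul (ha 2) (bmul (ha 3) e8 κ0 (by positivity) (N 3) (N 8) le_rfl) κ0 (by positivity) (N 2)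
        (mul_nonneg (N 3) (N 8)) w238))
      (bmul (ha 2) (bmul (ha 3) (bmul (ha 0) e5 κ0 (by positivity) (N 0) (N 5) le_rfl) κ0
        (by positivity) (N 3) (mul_nonneg (N 0) (N 5)) le_rfl) κ0 (by positivity) (N 2)
        (mul_nonneg (N 3) (mul_nonneg (N 0) (N 5))) w2305))
      (bmul (ha 3) e9 κ0 (by positivity) (N 3) (N 9) hδ.w10c))
      (bmul (ha 3) (bmul (ha 0) e6 κ0 (by positivity) (N 0) (N 6) le_rfl) κ0 (by positivity) (N 3)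
        (mul_nonneg (N 0) (N 6)) w306)) ?_ (N 10)
    linarith
  refine bmono (badd m1 m2) ?_ (N 10)
  linarith

/-- the cocycle identities of `coQ` on the line slots -/
structure Cocy (g b c : Fin 11 → ℝ) : Prop where
  p1 : g 1 = b 1 + c 1
  p5 : g 5 = b 5 + c 5
  p6 : g 6 = b 6 + c 6 + b 2 * c 5
  p7 : g 7 = b 7 + c 7 - 2 * (b 0 * c 1) + (b 4 + b 2 * b 3) * c 5 + b 3 * c 6
  p8 : g 8 = b 8 + c 8 - b 0 * c 5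
  p9 : g 9 = b 9 + (c 9 - b 0 * c 6) + b 2 * (c 8 - b 0 * c 5)
  p10 : g 10 = b 10 + (c 10 - b 0 * c 7 + b 0 ^ 2 * c 1) + (b 4 + b 2 * b 3) * (c 8 - b 0 * c 5) +
    b 3 * (c 9 - b 0 * c 6)

theorem cocy (x y z : Fq4) : Cocy (coQ x z) (coQ x y) (coQ y z) := by
  obtain ⟨-, p1, -, -, -, p5, p6, p7, p8, p9, p10⟩ := coQ_add x y z
  exact ⟨p1, p5, p6, p7, p8, p9, p10⟩

theorem evo_abs {g : Fin 11 → ℝ} (hp : Cocy g b c) (hq : Cocy g a e)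
    (hδ : Sides δ) (hκ : 1 ≤ κ) (hτ : 0 ≤ τ)
    (ha : ∀ s, |a s| ≤ κ * δ s) (hb : ∀ s, |b s| ≤ κ * δ s)
    (ha' : ∀ s, s = 1 ∨ s = 5 ∨ s = 6 ∨ s = 7 ∨ s = 8 ∨ s = 9 ∨ s = 10 →
      |a s| ≤ (κ * τ) * δ s)
    (hc' : ∀ s, s = 1 ∨ s = 5 ∨ s = 6 ∨ s = 7 ∨ s = 8 ∨ s = 9 ∨ s = 10 →
      |c s| ≤ (κ * τ) * δ s)
    (s : Fin 11) (hs : s = 1 ∨ s = 5 ∨ s = 6 ∨ s = 7 ∨ s = 8 ∨ s = 9 ∨ s = 10) :
    |e s - evoRHS a b s| ≤ (100 * κ ^ 4 * τ) * δ s := by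
  obtain ⟨p1, p5, p6, p7, p8, p9, p10⟩ := hp
  obtain ⟨q1, q5, q6, q7, q8, q9, q10⟩ := hq
  have N : ∀ s, 0 ≤ δ s := fun s => (hδ.pos s).le
  obtain ⟨t1, t2, t3, t4, t5, t6, κτ⟩ := aux1 hκ hτ
  have a1 := ha' 1 (by simp)
  have a5 := ha' 5 (by simp)
  have c1 := hc' 1 (by simp)
  have c5 := hc' 5 (by simp)
  have c6 := hc' 6 (by simp)
  have c7 := hc' 7 (by simp)
  have c8 := hc' 8 (by simp)
  have c9 := hc' 9 (by simp)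
  -- slot 1
  have e1 : |e 1 - b 1| ≤ (2 * κ * τ) * δ 1 := by
    have : e 1 - b 1 = c 1 - a 1 := by linear_combination p1 - q1
    rw [this]
    exact bmono (bsub c1 a1) (by linarith) (N 1)
  have e5 : |e 5 - b 5| ≤ (2 * κ * τ) * δ 5 := by
    have : e 5 - b 5 = c 5 - a 5 := by linear_combination p5 - q5
    rw [this]
    exact bmono (bsub c5 a5) (by linarith) (N 5)
  have r6 := s6 hδ hκ hτ ha hb (ha' 6 (by simp)) c5 c6 e5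
  have e6 : |e 6 - (b 6 - a 2 * b 5)| ≤ (5 * κ ^ 2 * τ) * δ 6 := by
    have : e 6 - (b 6 - a 2 * b 5) = c 6 + b 2 * c 5 - a 6 - a 2 * (e 5 - b 5) := by
      linear_combination p6 - q6
    rw [this]
    exact r6
  have r8 := s8 hδ hκ hτ ha hb (ha' 8 (by simp)) c5 c8 e5
  have e8 : |e 8 - (b 8 + a 0 * b 5)| ≤ (5 * κ ^ 2 * τ) * δ 8 := by
    have : e 8 - (b 8 + a 0 * b 5) = c 8 - b 0 * c 5 - a 8 + a 0 * (e 5 - b 5) := by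
      linear_combination p8 - q8
    rw [this]
    exact r8
  have r9 := s9 hδ hκ hτ ha hb (ha' 9 (by simp)) c5 c6 c8 c9 e5 e6 e8
  have e9 : |e 9 - (b 9 + a 0 * b 6 - a 2 * (b 8 + a 0 * b 5))| ≤ (17 * κ ^ 3 * τ) * δ 9 := by
    refine le_trans (le_of_eq (congrArg abs ?_)) r9
    linear_combination p9 - q9
  have r7 := s7 hδ hκ hτ ha hb (ha' 7 (by simp)) c1 c5 c6 c7 e1 e5 e6
  have e7 : |e 7 - (b 7 + 2 * a 0 * b 1 - a 4 * b 5 - a 3 * b 6)| ≤ (20 * κ ^ 3 * τ) * δ 7 := by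
    refine le_trans (le_of_eq (congrArg abs ?_)) r7
    linear_combination p7 - q7
  have r10 := s10 hδ hκ hτ ha hb (ha' 10 (by simp)) c1 c5 c6 c7 c8 c9
    (hc' 10 (by simp)) e1 e5 e6 e7 e8 e9
  have e10 : |e 10 - (b 10 + a 0 * b 7 + a 0 ^ 2 * b 1 -
      a 4 * (b 8 + a 0 * b 5) - a 3 * (b 9 + a 0 * b 6))| ≤ (69 * κ ^ 4 * τ) * δ 10 := by
    refine le_trans (le_of_eq (congrArg abs ?_)) r10
    linear_combination p10 - q10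
  rcases hs with rfl | rfl | rfl | rfl | rfl | rfl | rfl
  · exact bmono e1 (by linarith) (N 1)
  · exact bmono e5 (by linarith) (N 5)
  · exact bmono e6 (by linarith) (N 6)
  · exact bmono e7 (by linarith) (N 7)
  · exact bmono e8 (by linarith) (N 8)
  · exact bmono e9 (by linarith) (N 9)
  · exact bmono e10 (by linarith) (N 10)

end

/-- **evolution for fat lines** -/
theorem evo_fat {x x' y y' : Fq4} {δ : Fin 11 → ℝ} (hδ : Sides δ) {κ τ : ℝ} (hκ : 1 ≤ κ)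
    (hτ : 0 ≤ τ)
    (ha : ∀ s, |coQ x x' s| ≤ κ * δ s) (hb : ∀ s, |coQ x y s| ≤ κ * δ s)
    (ha' : ∀ s, s = 1 ∨ s = 5 ∨ s = 6 ∨ s = 7 ∨ s = 8 ∨ s = 9 ∨ s = 10 →
      |coQ x x' s| ≤ (κ * τ) * δ s)
    (hc' : ∀ s, s = 1 ∨ s = 5 ∨ s = 6 ∨ s = 7 ∨ s = 8 ∨ s = 9 ∨ s = 10 →
      |coQ y y' s| ≤ (κ * τ) * δ s)
    (s : Fin 11) (hs : s = 1 ∨ s = 5 ∨ s = 6 ∨ s = 7 ∨ s = 8 ∨ s = 9 ∨ s = 10) :
    |coQ x' y' s - evoRHS (coQ x x') (coQ x y) s| ≤ (100 * κ ^ 4 * τ) * δ s :=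
  evo_abs (cocy x y y') (cocy x x' y') hδ hκ hτ ha hb ha' hc' s hs

end Crest.Agent.R136.Ev356
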