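import Crest.Agent.R136.Ev2_356
import Crest.Agent.R136.Qg2_926

/-!
# R136: evolution in the window of helper926, chart of helper186 (helper356)

`QWnd W f`: the window `W : Wnd 11 ι` has the chart `coQ (f i) (f j)`; `W.u n s = kap s * d^(X s)`
(unit of the slot `s`), `W.cf n i j s = u i * u j / u s` (coefficient of the monomial `i j → s`).
-/

set_option autoImplicit false
set_option linter.unusedSectionVars false
set_option linter.unusedVariables false

open Filter Topology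

namespace Crest.Agent.R136.Ev356

open Finset Crest.Agent.R136.NetQ186 Crest.Agent.R136.Net191 Crest.Agent.R136.Qg926
open Crest.Agent.R138.Ex926 (Base U)

variable {ι : ℕ → Type*} [∀ n, DecidableEq (ι n)]

/-- legal exponents give sides with walls -/
theorem sides_of_legal {d : ℝ} (hd : 0 < d) (hd1 : d ≤ 1) {p : Fin 11 → ℝ}
    (hp : Legal monQ p) : Sides (fun s => d ^ p s) := by
  obtain ⟨h0, h4, h6, h7a, h7b, h7c, h8, h9a, h9b, h10a, h10b, h10c⟩ := legalQ_iff.1 hp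
  have key : ∀ i j s : Fin 11, p s ≤ p i + p j → d ^ p i * d ^ p j ≤ d ^ p s := by
    intro i j s h
    rw [← Real.rpow_add hd]
    exact Real.rpow_le_rpow_of_exponent_ge hd hd1 h
  exact ⟨fun s => Real.rpow_pos_of_pos hd _, key _ _ _ h4, key _ _ _ h6, key _ _ _ h7a,
    key _ _ _ h7b, key _ _ _ h7c, key _ _ _ h8, key _ _ _ h9a, key _ _ _ h9b, key _ _ _ h10a,
    key _ _ _ h10b, key _ _ _ h10c⟩

/-- the window lives in the chart of helper186 -/
structure QWnd (W : Wnd 11 ι) (f : ∀ n, ι n → Fq4) : Prop where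
  ok : W.Ok
  hM : W.M = monQ
  hco : ∀ n, ∀ i ∈ W.I n, ∀ j ∈ W.I n, W.co n i j = coQ (f n i) (f n j)
  hS : ∀ s ∈ W.S, s = 0 ∨ s = 2 ∨ s = 3 ∨ s = 4

/-- unit of a slot -/
noncomputable def un (W : Wnd 11 ι) (n : ℕ) (s : Fin 11) : ℝ := W.kap s * W.B.d n ^ W.X n s

/-- coefficient of a monomial in normalised coordinates -/
noncomputable def cf (W : Wnd 11 ι) (n : ℕ) (i j s : Fin 11) : ℝ := un W n i * un W n j / un W n s

/-- normalised right-hand sides of the evolution -/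
noncomputable def evoN (W : Wnd 11 ι) (n : ℕ) (a b : Fin 11 → ℝ) : Fin 11 → ℝ :=
  ![b 0, b 1, b 2, b 3, b 4, b 5, b 6 - cf W n 2 5 6 * (a 2 * b 5),
    b 7 + 2 * (cf W n 0 1 7 * (a 0 * b 1)) - cf W n 4 5 7 * (a 4 * b 5) -
      cf W n 3 6 7 * (a 3 * b 6),
    b 8 + cf W n 0 5 8 * (a 0 * b 5),
    b 9 + cf W n 0 6 9 * (a 0 * b 6) -
      cf W n 2 8 9 * (a 2 * (b 8 + cf W n 0 5 8 * (a 0 * b 5))),
    b 10 + cf W n 0 7 10 * (a 0 * b 7) + cf W n 0 7 10 * (a 0 * (cf W n 0 1 7 * (a 0 * b 1))) -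
      cf W n 4 8 10 * (a 4 * (b 8 + cf W n 0 5 8 * (a 0 * b 5))) -
      cf W n 3 9 10 * (a 3 * (b 9 + cf W n 0 6 9 * (a 0 * b 6)))]

variable {W : Wnd 11 ι} {f : ∀ n, ι n → Fq4}

namespace QWnd

variable (h : QWnd W f)

include h

theorem un_pos (n : ℕ) (s : Fin 11) : 0 < un W n s :=
  mul_pos (h.ok.kap s) (Real.rpow_pos_of_pos (W.B.pos n) _)

theorem sides {n : ℕ} (g : W.Good n) : Sides (fun s => W.B.d n ^ W.X n s) := by
  have h1 := g.leg 0 h.ok.zero_leg
  rw [smul_zero, add_zero, h.hM] at h1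
  exact sides_of_legal (W.B.pos n) (W.B.lt n).le h1

theorem notMem {s : Fin 11} (hs : s = 1 ∨ s = 5 ∨ s = 6 ∨ s = 7 ∨ s = 8 ∨ s = 9 ∨ s = 10) :
    s ∉ W.S := by
  intro hm
  have := h.hS s hm
  rcases hs with rfl | rfl | rfl | rfl | rfl | rfl | rfl <;> simp at this

/-- bounds of all coordinates -/
theorem bnd {n : ℕ} (g : W.Good n) {x y : ι n} (hx : x ∈ W.Cl n) (hy : y ∈ W.Cl n) (s : Fin 11) :
    |coQ (f n x) (f n y) s| ≤ W.K0 * W.B.d n ^ W.X n s := by
  have := h.ok.near0 g hx hy s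
  rw [Pi.zero_apply, Real.rpow_zero, mul_one] at this
  rwa [← h.hco n x (g.clI hx) y (g.clI hy)]

/-- own motion of the line slots -/
theorem own_small {n : ℕ} (g : W.Good n) {x x' : ι n} (hx : x ∈ W.Cl n) (hx' : x' ∈ W.Cl n)
    (hl : W.lc n x = W.lc n x') {t : ℝ} {s : Fin 11} (hs : s ∉ W.S) (ht : t ≤ W.top s) :
    |coQ (f n x) (f n x') s| ≤ (W.K0 * W.B'.d n ^ t) * W.B.d n ^ W.X n s := by
  have h1 := h.ok.near_lc g hx hx' hl s
  rw [cut_of_notMem hs] at h1
  rw [← h.hco n x (g.clI hx) x' (g.clI hx')]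
  refine h1.trans ?_
  have h2 : W.B'.d n ^ W.top s ≤ W.B'.d n ^ t :=
    Real.rpow_le_rpow_of_exponent_ge (W.B'.pos n) (W.B'.lt n).le ht
  have h3 : 0 ≤ W.K0 * W.B.d n ^ W.X n s :=
    mul_nonneg (by linarith [h.ok.K0_one]) (Real.rpow_nonneg (W.B.pos n).le _)
  nlinarith

/-- level slots at the same height -/
theorem lev_small {n : ℕ} (g : W.Good n) {x y : ι n} (hx : x ∈ W.Cl n) (hy : y ∈ W.Cl n)
    (hl : W.zc n x = W.zc n y) {t : ℝ} {s : Fin 11} (hs : s ∈ W.S) (ht : t ≤ W.top s) :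
    |coQ (f n x) (f n y) s| ≤ (W.K0 * W.B'.d n ^ t) * W.B.d n ^ W.X n s := by
  have h1 := h.ok.near_zc g hx hy hl s
  rw [cut_of_mem hs] at h1
  rw [← h.hco n x (g.clI hx) y (g.clI hy)]
  refine h1.trans ?_
  have h2 : W.B'.d n ^ W.top s ≤ W.B'.d n ^ t :=
    Real.rpow_le_rpow_of_exponent_ge (W.B'.pos n) (W.B'.lt n).le ht
  have h3 : 0 ≤ W.K0 * W.B.d n ^ W.X n s :=
    mul_nonneg (by linarith [h.ok.K0_one]) (Real.rpow_nonneg (W.B.pos n).le _)
  nlinarith

theorem crd_eq {n : ℕ} (g : W.Good n) {x y : ι n} (hx : x ∈ W.Cl n) (hy : y ∈ W.Cl n)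
    (s : Fin 11) : coQ (f n x) (f n y) s = un W n s * W.crd n x y s := by
  have h1 := (h.un_pos n s).ne'
  have : W.crd n x y s = coQ (f n x) (f n y) s / un W n s := by
    unfold Wnd.crd un
    rw [h.hco n x (g.clI hx) y (g.clI hy)]
  rw [this]
  field_simp

/-- normalised bounds -/
theorem crd_le {n : ℕ} (g : W.Good n) {x y : ι n} (hx : x ∈ W.Cl n) (hy : y ∈ W.Cl n)
    (s : Fin 11) : |W.crd n x y s| ≤ W.K0 / W.kap s := by
  have h1 := h.bnd g hx hy s
  rw [h.crd_eq g hx hy, abs_mul, abs_of_pos (h.un_pos n s)] at h1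
  have hk := h.ok.kap s
  have hd := Real.rpow_pos_of_pos (W.B.pos n) (W.X n s)
  rw [le_div_iff₀ hk]
  unfold un at h1
  have h2 : W.B.d n ^ W.X n s * (|W.crd n x y s| * W.kap s) ≤ W.B.d n ^ W.X n s * W.K0 := by
    linarith
  exact le_of_mul_le_mul_left h2 hd

/-- **evolution in the window**: `x, x'` on one fat line, `y, y'` on another one. -/
theorem evoW {n : ℕ} (g : W.Good n) {x x' y y' : ι n} (hx : x ∈ W.Cl n) (hx' : x' ∈ W.Cl n)
    (hy : y ∈ W.Cl n) (hy' : y' ∈ W.Cl n) (hl : W.lc n x = W.lc n x') (hl' : W.lc n y = W.lc n y')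
    {t : ℝ} (ht : ∀ s, s ∉ W.S → t ≤ W.top s)
    (s : Fin 11) (hs : s = 1 ∨ s = 5 ∨ s = 6 ∨ s = 7 ∨ s = 8 ∨ s = 9 ∨ s = 10) :
    |W.crd n x' y' s - evoN W n (W.crd n x x') (W.crd n x y) s| ≤
      (100 * W.K0 ^ 4 / W.kap s) * W.B'.d n ^ t := by
  have h1 := evo_fat (x := f n x) (x' := f n x') (y := f n y) (y' := f n y') (h.sides g)
    h.ok.K0_one (Real.rpow_nonneg (W.B'.pos n).le t) (h.bnd g hx hx') (h.bnd g hx hy)
    (fun s hs => h.own_small g hx hx' hl (h.notMem hs) (ht s (h.notMem hs)))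
    (fun s hs => h.own_small g hy hy' hl' (h.notMem hs) (ht s (h.notMem hs))) s hs
  have hu : ∀ s, un W n s ≠ 0 := fun s => (h.un_pos n s).ne'
  have key : coQ (f n x') (f n y') s - evoRHS (coQ (f n x) (f n x')) (coQ (f n x) (f n y)) s =
      un W n s * (W.crd n x' y' s - evoN W n (W.crd n x x') (W.crd n x y) s) := by
    have ea : ∀ s, coQ (f n x) (f n x') s = un W n s * W.crd n x x' s := h.crd_eq g hx hx'
    have eb : ∀ s, coQ (f n x) (f n y) s = un W n s * W.crd n x y s := h.crd_eq g hx hy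
    have ee : ∀ s, coQ (f n x') (f n y') s = un W n s * W.crd n x' y' s := h.crd_eq g hx' hy'
    rcases hs with rfl | rfl | rfl | rfl | rfl | rfl | rfl
    · simp only [evoRHS, evoN, ee, ea, eb, Matrix.cons_val]
      ring
    · simp only [evoRHS, evoN, ee, ea, eb, Matrix.cons_val]
      ring
    · simp only [evoRHS, evoN, ee, ea, eb, Matrix.cons_val, cf]
      have := hu 6
      field_simp
    · simp only [evoRHS, evoN, ee, ea, eb, Matrix.cons_val, cf]
      have := hu 7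
      field_simp
    · simp only [evoRHS, evoN, ee, ea, eb, Matrix.cons_val, cf]
      have := hu 8
      field_simp
    · simp only [evoRHS, evoN, ee, ea, eb, Matrix.cons_val, cf]
      have := hu 8
      have := hu 9
      field_simp
    · simp only [evoRHS, evoN, ee, ea, eb, Matrix.cons_val, cf]
      have := hu 7
      have := hu 8
      have := hu 9
      have := hu 10
      field_simp
  rw [key, abs_mul, abs_of_pos (h.un_pos n s)] at h1
  have hk := h.ok.kap s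
  have hd := Real.rpow_pos_of_pos (W.B.pos n) (W.X n s)
  rw [div_mul_eq_mul_div, le_div_iff₀ hk]
  unfold un at h1
  refine le_of_mul_le_mul_left (le_trans (le_of_eq ?_) (h1.trans (le_of_eq ?_))) hd
  · ring
  · ring

end QWnd

end Crest.Agent.R136.Ev356
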