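import Crest.Agent.R136.Ev3_356

/-!
# R136: window of helper926, chart of helper186: level slots, composition (helper356)

* `cf_le`, `cf_eq`: coefficients of the monomials;
* `own_add`, `own_four`: own motion of the level slots = function of the two heights;
* `crd_zero_add`: the height slot is additive;
* `comp_same`: composition of relative coordinates at one height.
-/

set_option autoImplicit false
set_option linter.unusedSectionVars false
set_option linter.unusedVariables false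

open Filter Topology

namespace Crest.Agent.R136.Ev356

open Finset Crest.Agent.R136.NetQ186 Crest.Agent.R136.Net191 Crest.Agent.R136.Qg926
open Crest.Agent.R138.Ex926 (Base U)

/-! ### composition at one height, raw form -/

/-- composition of relative coordinates at one height -/
def compRHS (b c : Fin 11 → ℝ) : Fin 11 → ℝ :=
  ![b 0 + c 0, b 1 + c 1, b 2 + c 2, b 3 + c 3, b 4 + c 4 - b 2 * c 3, b 5 + c 5,
    b 6 + c 6 + b 2 * c 5,
    b 7 + c 7 + b 4 * c 5 + b 2 * (b 3 * c 5) + b 3 * c 6,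
    b 8 + c 8,
    b 9 + c 9 + b 2 * c 8,
    b 10 + c 10 + b 4 * c 8 + b 2 * (b 3 * c 8) + b 3 * c 9]

theorem comp_abs {g b c : Fin 11 → ℝ} (hp : Cocy g b c) (h0 : g 0 = b 0 + c 0)
    (h2 : g 2 = b 2 + c 2) (h3 : g 3 = b 3 + c 3) (h4 : g 4 = b 4 + c 4 - b 2 * c 3)
    {δ : Fin 11 → ℝ} (hδ : Sides δ) {κ τ : ℝ} (hκ : 1 ≤ κ) (hτ : 0 ≤ τ)
    (hb : ∀ s, |b s| ≤ κ * δ s) (hc : ∀ s, |c s| ≤ κ * δ s) (hb0 : |b 0| ≤ (κ * τ) * δ 0)
    (s : Fin 11) : |g s - compRHS b c s| ≤ (5 * κ ^ 5 * τ) * δ s := by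
  obtain ⟨p1, p5, p6, p7, p8, p9, p10⟩ := hp
  have N : ∀ s, 0 ≤ δ s := fun s => (hδ.pos s).le
  have κ0 : 0 ≤ κ := by linarith
  have κτ : 0 ≤ κ * τ := mul_nonneg κ0 hτ
  have hpw : ∀ {m n : ℕ}, m ≤ n → κ ^ m * τ ≤ κ ^ n * τ := fun hmn =>
    mul_le_mul_of_nonneg_right (pow_le_pow_right₀ hκ hmn) hτ
  have t0 := hpw (show 0 ≤ 5 by norm_num)
  have t2 := hpw (show 2 ≤ 5 by norm_num)
  have t3 := hpw (show 3 ≤ 5 by norm_num)
  have t4 := hpw (show 4 ≤ 5 by norm_num)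
  have t5 : 0 ≤ κ ^ 5 * τ := by positivity
  have zero : ∀ s : Fin 11, g s = compRHS b c s → |g s - compRHS b c s| ≤
      (5 * κ ^ 5 * τ) * δ s := by
    intro s hs
    rw [hs, sub_self, abs_zero]
    exact mul_nonneg (by positivity) (N s)
  have w001 : δ 0 * (δ 0 * δ 1) ≤ δ 10 :=
    (mul_le_mul_of_nonneg_left hδ.w7a (N 0)).trans hδ.w10a
  have w205 : δ 2 * (δ 0 * δ 5) ≤ δ 9 :=
    (mul_le_mul_of_nonneg_left hδ.w8 (N 2)).trans hδ.w9b
  have w405 : δ 4 * (δ 0 * δ 5) ≤ δ 10 :=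
    (mul_le_mul_of_nonneg_left hδ.w8 (N 4)).trans hδ.w10b
  have w238 : δ 2 * (δ 3 * δ 8) ≤ δ 10 := by
    have h1 : δ 2 * (δ 3 * δ 8) = (δ 2 * δ 3) * δ 8 := by ring
    rw [h1]
    exact (mul_le_mul_of_nonneg_right hδ.w4 (N 8)).trans hδ.w10b
  have w2305 : δ 2 * (δ 3 * (δ 0 * δ 5)) ≤ δ 10 :=
    (mul_le_mul_of_nonneg_left (mul_le_mul_of_nonneg_left hδ.w8 (N 3)) (N 2)).trans w238
  have w306 : δ 3 * (δ 0 * δ 6) ≤ δ 10 :=
    (mul_le_mul_of_nonneg_left hδ.w9a (N 3)).trans hδ.w10c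
  have e7 : |g 7 - compRHS b c 7| ≤ (5 * κ ^ 5 * τ) * δ 7 := by
    have : g 7 - compRHS b c 7 = -(b 0 * c 1 + b 0 * c 1) := by
      simp only [compRHS, Matrix.cons_val]
      linear_combination p7
    rw [this]
    refine bmono (bneg (badd (bmul hb0 (hc 1) κτ κ0 (N 0) (N 1) hδ.w7a)
      (bmul hb0 (hc 1) κτ κ0 (N 0) (N 1) hδ.w7a))) ?_ (N 7)
    linarith
  have e8 : |g 8 - compRHS b c 8| ≤ (5 * κ ^ 5 * τ) * δ 8 := by
    have : g 8 - compRHS b c 8 = -(b 0 * c 5) := by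
      simp only [compRHS, Matrix.cons_val]
      linear_combination p8
    rw [this]
    refine bmono (bneg (bmul hb0 (hc 5) κτ κ0 (N 0) (N 5) hδ.w8)) ?_ (N 8)
    linarith
  have e9 : |g 9 - compRHS b c 9| ≤ (5 * κ ^ 5 * τ) * δ 9 := by
    have : g 9 - compRHS b c 9 = -(b 0 * c 6) - b 2 * (b 0 * c 5) := by
      simp only [compRHS, Matrix.cons_val]
      linear_combination p9
    rw [this]
    refine bmono (bsub (bneg (bmul hb0 (hc 6) κτ κ0 (N 0) (N 6) hδ.w9a))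
      (bmul (hb 2) (bmul hb0 (hc 5) κτ κ0 (N 0) (N 5) le_rfl) κ0 (by positivity) (N 2)
        (mul_nonneg (N 0) (N 5)) w205)) ?_ (N 9)
    linarith
  have e10 : |g 10 - compRHS b c 10| ≤ (5 * κ ^ 5 * τ) * δ 10 := by
    have : g 10 - compRHS b c 10 = b 0 * (b 0 * c 1) - b 0 * c 7 - b 4 * (b 0 * c 5) -
        b 2 * (b 3 * (b 0 * c 5)) - b 3 * (b 0 * c 6) := by
      simp only [compRHS, Matrix.cons_val]
      linear_combination p10
    rw [this]
    refine bmono (bsub (bsub (bsub (bsub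
      (bmul (hb 0) (bmul hb0 (hc 1) κτ κ0 (N 0) (N 1) le_rfl) κ0 (by positivity) (N 0)
        (mul_nonneg (N 0) (N 1)) w001)
      (bmul hb0 (hc 7) κτ κ0 (N 0) (N 7) hδ.w10a))
      (bmul (hb 4) (bmul hb0 (hc 5) κτ κ0 (N 0) (N 5) le_rfl) κ0 (by positivity) (N 4)
        (mul_nonneg (N 0) (N 5)) w405))
      (bmul (hb 2) (bmul (hb 3) (bmul hb0 (hc 5) κτ κ0 (N 0) (N 5) le_rfl) κ0
        (by positivity) (N 3) (mul_nonneg (N 0) (N 5)) le_rfl) κ0 (by positivity) (N 2)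
        (mul_nonneg (N 3) (mul_nonneg (N 0) (N 5))) w2305))
      (bmul (hb 3) (bmul hb0 (hc 6) κτ κ0 (N 0) (N 6) le_rfl) κ0 (by positivity) (N 3)
        (mul_nonneg (N 0) (N 6)) w306)) ?_ (N 10)
    linarith
  fin_cases s
  · exact zero 0 (by simp only [compRHS, Matrix.cons_val]; exact h0)
  · exact zero 1 (by simp only [compRHS, Matrix.cons_val]; exact p1)
  · exact zero 2 (by simp only [compRHS, Matrix.cons_val]; exact h2)
  · exact zero 3 (by simp only [compRHS, Matrix.cons_val]; exact h3)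
  · exact zero 4 (by simp only [compRHS, Matrix.cons_val]; exact h4)
  · exact zero 5 (by simp only [compRHS, Matrix.cons_val]; exact p5)
  · exact zero 6 (by simp only [compRHS, Matrix.cons_val]; exact p6)
  · exact e7
  · exact e8
  · exact e9
  · exact e10

variable {ι : ℕ → Type*} [∀ n, DecidableEq (ι n)]

/-- composition at one height, normalised -/
noncomputable def compN (W : Wnd 11 ι) (n : ℕ) (b c : Fin 11 → ℝ) : Fin 11 → ℝ :=
  ![b 0 + c 0, b 1 + c 1, b 2 + c 2, b 3 + c 3, b 4 + c 4 - cf W n 2 3 4 * (b 2 * c 3), b 5 + c 5,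
    b 6 + c 6 + cf W n 2 5 6 * (b 2 * c 5),
    b 7 + c 7 + cf W n 4 5 7 * (b 4 * c 5) + cf W n 4 5 7 * cf W n 2 3 4 * (b 2 * (b 3 * c 5)) +
      cf W n 3 6 7 * (b 3 * c 6),
    b 8 + c 8,
    b 9 + c 9 + cf W n 2 8 9 * (b 2 * c 8),
    b 10 + c 10 + cf W n 4 8 10 * (b 4 * c 8) +
      cf W n 4 8 10 * cf W n 2 3 4 * (b 2 * (b 3 * c 8)) + cf W n 3 9 10 * (b 3 * c 9)]

variable {W : Wnd 11 ι} {f : ∀ n, ι n → Fq4}

namespace QWnd

variable (h : QWnd W f)

include h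

theorem cf_pos (n : ℕ) (i j s : Fin 11) : 0 < cf W n i j s :=
  div_pos (mul_pos (h.un_pos n i) (h.un_pos n j)) (h.un_pos n s)

theorem cf_eq' (n : ℕ) (i j s : Fin 11) : cf W n i j s =
    W.kap i * W.kap j / W.kap s * W.B.d n ^ (W.X n i + W.X n j - W.X n s) := by
  have hs := (h.ok.kap s).ne'
  have hd := (Real.rpow_pos_of_pos (W.B.pos n) (W.X n s)).ne'
  unfold cf un
  rw [Real.rpow_sub (W.B.pos n), Real.rpow_add (W.B.pos n)]
  field_simp

/-- tight wall -/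
theorem cf_eq {n : ℕ} {i j s : Fin 11} (hw : W.X n s = W.X n i + W.X n j) :
    cf W n i j s = W.kap i * W.kap j / W.kap s := by
  rw [h.cf_eq' n i j s, hw, sub_self, Real.rpow_zero, mul_one]

theorem cf_le {n : ℕ} {i j s : Fin 11} (hw : W.X n s ≤ W.X n i + W.X n j) :
    cf W n i j s ≤ W.kap i * W.kap j / W.kap s := by
  rw [h.cf_eq' n i j s]
  have h1 : W.B.d n ^ (W.X n i + W.X n j - W.X n s) ≤ 1 :=
    Real.rpow_le_one (W.B.pos n).le (W.B.lt n).le (by linarith)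
  have h2 : 0 ≤ W.kap i * W.kap j / W.kap s :=
    (div_pos (mul_pos (h.ok.kap i) (h.ok.kap j)) (h.ok.kap s)).le
  nlinarith

/-- the walls at the base point -/
theorem walls {n : ℕ} (g : W.Good n) :
    W.X n 4 ≤ W.X n 2 + W.X n 3 ∧ W.X n 6 ≤ W.X n 2 + W.X n 5 ∧ W.X n 7 ≤ W.X n 0 + W.X n 1 ∧
    W.X n 7 ≤ W.X n 4 + W.X n 5 ∧ W.X n 7 ≤ W.X n 3 + W.X n 6 ∧ W.X n 8 ≤ W.X n 0 + W.X n 5 ∧
    W.X n 9 ≤ W.X n 0 + W.X n 6 ∧ W.X n 9 ≤ W.X n 2 + W.X n 8 ∧ W.X n 10 ≤ W.X n 0 + W.X n 7 ∧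
    W.X n 10 ≤ W.X n 4 + W.X n 8 ∧ W.X n 10 ≤ W.X n 3 + W.X n 9 := by
  have h1 := g.leg 0 h.ok.zero_leg
  rw [smul_zero, add_zero, h.hM] at h1
  exact (legalQ_iff.1 h1).2

/-- additive slots -/
theorem crd_add {n : ℕ} (g : W.Good n) {x y z : ι n} (hx : x ∈ W.Cl n) (hy : y ∈ W.Cl n)
    (hz : z ∈ W.Cl n) {s : Fin 11} (hs : s = 0 ∨ s = 1 ∨ s = 2 ∨ s = 3 ∨ s = 5) :
    W.crd n x z s = W.crd n x y s + W.crd n y z s := by
  obtain ⟨p0, p1, p2, p3, p4, p5, -⟩ := coQ_add (f n x) (f n y) (f n z)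
  have hu := (h.un_pos n s).ne'
  have key : coQ (f n x) (f n z) s = coQ (f n x) (f n y) s + coQ (f n y) (f n z) s := by
    rcases hs with rfl | rfl | rfl | rfl | rfl
    · exact p0
    · exact p1
    · exact p2
    · exact p3
    · exact p5
  rw [h.crd_eq g hx hz, h.crd_eq g hx hy, h.crd_eq g hy hz, ← mul_add] at key
  exact mul_left_cancel₀ hu key

/-- slot `F_a`: exact composition -/
theorem crd_four {n : ℕ} (g : W.Good n) {x y z : ι n} (hx : x ∈ W.Cl n) (hy : y ∈ W.Cl n)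
    (hz : z ∈ W.Cl n) :
    W.crd n x z 4 = W.crd n x y 4 + W.crd n y z 4 -
      cf W n 2 3 4 * (W.crd n x y 2 * W.crd n y z 3) := by
  obtain ⟨p0, p1, p2, p3, p4, p5, -⟩ := coQ_add (f n x) (f n y) (f n z)
  have hu := (h.un_pos n 4).ne'
  rw [h.crd_eq g hx hz, h.crd_eq g hx hy, h.crd_eq g hy hz, h.crd_eq g hx hy,
    h.crd_eq g hy hz] at p4
  have : un W n 4 * (W.crd n x y 4 + W.crd n y z 4 -
      cf W n 2 3 4 * (W.crd n x y 2 * W.crd n y z 3)) = un W n 4 * W.crd n x z 4 := by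
    rw [p4]
    unfold cf
    field_simp
  exact (mul_left_cancel₀ hu this).symm

/-- slot `C_b`: exact composition -/
theorem crd_six {n : ℕ} (g : W.Good n) {x y z : ι n} (hx : x ∈ W.Cl n) (hy : y ∈ W.Cl n)
    (hz : z ∈ W.Cl n) :
    W.crd n x z 6 = W.crd n x y 6 + W.crd n y z 6 +
      cf W n 2 5 6 * (W.crd n x y 2 * W.crd n y z 5) := by
  obtain ⟨p0, p1, p2, p3, p4, p5, p6, -⟩ := coQ_add (f n x) (f n y) (f n z)
  have hu := (h.un_pos n 6).ne'
  rw [h.crd_eq g hx hz, h.crd_eq g hx hy, h.crd_eq g hy hz, h.crd_eq g hx hy,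
    h.crd_eq g hy hz] at p6
  have : un W n 6 * (W.crd n x y 6 + W.crd n y z 6 +
      cf W n 2 5 6 * (W.crd n x y 2 * W.crd n y z 5)) = un W n 6 * W.crd n x z 6 := by
    rw [p6]
    unfold cf
    field_simp
  exact (mul_left_cancel₀ hu this).symm

/-- normalised smallness of the level slots at one height -/
theorem crd_lev {n : ℕ} (g : W.Good n) {x y : ι n} (hx : x ∈ W.Cl n) (hy : y ∈ W.Cl n)
    (hl : W.zc n x = W.zc n y) {t : ℝ} {s : Fin 11} (hs : s ∈ W.S) (ht : t ≤ W.top s) :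
    |W.crd n x y s| ≤ (W.K0 / W.kap s) * W.B'.d n ^ t := by
  have h1 := h.lev_small g hx hy hl hs ht
  rw [h.crd_eq g hx hy, abs_mul, abs_of_pos (h.un_pos n s)] at h1
  have hk := h.ok.kap s
  have hd := Real.rpow_pos_of_pos (W.B.pos n) (W.X n s)
  rw [div_mul_eq_mul_div, le_div_iff₀ hk]
  unfold un at h1
  refine le_of_mul_le_mul_left (le_trans (le_of_eq ?_) (h1.trans (le_of_eq ?_))) hd
  · ring
  · ring

/-- normalised smallness of the line slots on one fat line -/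
theorem crd_own {n : ℕ} (g : W.Good n) {x y : ι n} (hx : x ∈ W.Cl n) (hy : y ∈ W.Cl n)
    (hl : W.lc n x = W.lc n y) {t : ℝ} {s : Fin 11} (hs : s ∉ W.S) (ht : t ≤ W.top s) :
    |W.crd n x y s| ≤ (W.K0 / W.kap s) * W.B'.d n ^ t := by
  have h1 := h.own_small g hx hy hl hs ht
  rw [h.crd_eq g hx hy, abs_mul, abs_of_pos (h.un_pos n s)] at h1
  have hk := h.ok.kap s
  have hd := Real.rpow_pos_of_pos (W.B.pos n) (W.X n s)
  rw [div_mul_eq_mul_div, le_div_iff₀ hk]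
  unfold un at h1
  refine le_of_mul_le_mul_left (le_trans (le_of_eq ?_) (h1.trans (le_of_eq ?_))) hd
  · ring
  · ring

/-- **own motion of an additive level slot is a function of the two heights** -/
theorem own_add {n : ℕ} (g : W.Good n) {x x' z z' : ι n} (hx : x ∈ W.Cl n) (hx' : x' ∈ W.Cl n)
    (hz : z ∈ W.Cl n) (hz' : z' ∈ W.Cl n) (hl : W.zc n x = W.zc n z)
    (hl' : W.zc n x' = W.zc n z') {t : ℝ} {s : Fin 11} (hs : s ∈ W.S)
    (hs' : s = 0 ∨ s = 2 ∨ s = 3) (ht : t ≤ W.top s) :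
    |W.crd n x x' s - W.crd n z z' s| ≤ (2 * W.K0 / W.kap s) * W.B'.d n ^ t := by
  have hs'' : s = 0 ∨ s = 1 ∨ s = 2 ∨ s = 3 ∨ s = 5 := by tauto
  have h1 := h.crd_add g hx hz hx' hs''
  have h2 := h.crd_add g hz hz' hx' hs''
  have h3 := h.crd_lev g hx hz hl hs ht
  have h4 := h.crd_lev g hz' hx' hl'.symm hs ht
  have e : W.crd n x x' s - W.crd n z z' s = W.crd n x z s + W.crd n z' x' s := by linarith
  rw [e]
  have h5 := abs_add_le (W.crd n x z s) (W.crd n z' x' s)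
  have e2 : (2 * W.K0 / W.kap s) * W.B'.d n ^ t =
      (W.K0 / W.kap s) * W.B'.d n ^ t + (W.K0 / W.kap s) * W.B'.d n ^ t := by ring
  linarith

/-- **own motion of `F_a`**: function of the heights up to the slot `E` of the line -/
theorem own_four {n : ℕ} (g : W.Good n) {x x' z z' : ι n} (hx : x ∈ W.Cl n) (hx' : x' ∈ W.Cl n)
    (hz : z ∈ W.Cl n) (hz' : z' ∈ W.Cl n) (hl : W.zc n x = W.zc n z)
    (hl' : W.zc n x' = W.zc n z') {t : ℝ} (h4S : (4 : Fin 11) ∈ W.S) (h3S : (3 : Fin 11) ∈ W.S)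
    (ht4 : t ≤ W.top 4) (ht3 : t ≤ W.top 3) :
    |W.crd n x x' 4 - (W.crd n z z' 4 + cf W n 2 3 4 * (W.crd n z x 2 * W.crd n x x' 3))| ≤
      ((2 * W.K0 + W.K0 ^ 2) / W.kap 4) * W.B'.d n ^ t := by
  have e1 := h.crd_four g hz hx hx'
  have e2 := h.crd_four g hz hx' hz'
  have h1 := h.crd_lev g hz hx hl.symm h4S ht4
  have h2 := h.crd_lev g hx' hz' hl' h4S ht4
  have h3 := h.crd_lev g hx' hz' hl' h3S ht3
  have h4 := h.crd_le g hz hx' 2
  have hcf := h.cf_le (n := n) (h.walls g).1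
  have hcf0 := (h.cf_pos n 2 3 4).le
  have k2 := h.ok.kap 2
  have k3 := h.ok.kap 3
  have k4 := h.ok.kap 4
  have hK := h.ok.K0_one
  have e : W.crd n x x' 4 - (W.crd n z z' 4 + cf W n 2 3 4 * (W.crd n z x 2 * W.crd n x x' 3)) =
      cf W n 2 3 4 * (W.crd n z x' 2 * W.crd n x' z' 3) - W.crd n x' z' 4 - W.crd n z x 4 := by
    linarith
  have hρ : 0 ≤ W.B'.d n ^ t := Real.rpow_nonneg (W.B'.pos n).le _
  have hprod : |cf W n 2 3 4 * (W.crd n z x' 2 * W.crd n x' z' 3)| ≤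
      (W.K0 ^ 2 / W.kap 4) * W.B'.d n ^ t := by
    rw [abs_mul, abs_mul, abs_of_nonneg hcf0]
    calc cf W n 2 3 4 * (|W.crd n z x' 2| * |W.crd n x' z' 3|)
        ≤ (W.kap 2 * W.kap 3 / W.kap 4) * ((W.K0 / W.kap 2) *
            ((W.K0 / W.kap 3) * W.B'.d n ^ t)) := by
          refine mul_le_mul hcf (mul_le_mul h4 h3 (abs_nonneg _) ?_) (by positivity) ?_
          · have := h.crd_le g hz hx' 2
            exact (abs_nonneg _).trans this
          · positivity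
      _ = _ := by field_simp
  rw [e]
  have a1 := abs_sub (cf W n 2 3 4 * (W.crd n z x' 2 * W.crd n x' z' 3) - W.crd n x' z' 4)
    (W.crd n z x 4)
  have a2 := abs_sub (cf W n 2 3 4 * (W.crd n z x' 2 * W.crd n x' z' 3)) (W.crd n x' z' 4)
  have e3 : ((2 * W.K0 + W.K0 ^ 2) / W.kap 4) * W.B'.d n ^ t = (W.K0 ^ 2 / W.kap 4) *
      W.B'.d n ^ t + (W.K0 / W.kap 4) * W.B'.d n ^ t + (W.K0 / W.kap 4) * W.B'.d n ^ t := by ring
  linarith

/-- **composition at one height** -/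
theorem comp_same {n : ℕ} (g : W.Good n) {x y z : ι n} (hx : x ∈ W.Cl n) (hy : y ∈ W.Cl n)
    (hz : z ∈ W.Cl n) (h0S : (0 : Fin 11) ∈ W.S) (hl : W.zc n x = W.zc n y) {t : ℝ}
    (ht : t ≤ W.top 0) (s : Fin 11) :
    |W.crd n x z s - compN W n (W.crd n x y) (W.crd n y z) s| ≤
      (5 * W.K0 ^ 5 / W.kap s) * W.B'.d n ^ t := by
  obtain ⟨p0, p1, p2, p3, p4, p5, p6, p7, p8, p9, p10⟩ := coQ_add (f n x) (f n y) (f n z)
  have h1 := comp_abs (cocy (f n x) (f n y) (f n z)) p0 p2 p3 p4 (h.sides g) h.ok.K0_one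
    (Real.rpow_nonneg (W.B'.pos n).le t) (h.bnd g hx hy) (h.bnd g hy hz)
    (h.lev_small g hx hy hl h0S ht) s
  have hu : ∀ s, un W n s ≠ 0 := fun s => (h.un_pos n s).ne'
  have key : coQ (f n x) (f n z) s - compRHS (coQ (f n x) (f n y)) (coQ (f n y) (f n z)) s =
      un W n s * (W.crd n x z s - compN W n (W.crd n x y) (W.crd n y z) s) := by
    have ea : ∀ s, coQ (f n x) (f n y) s = un W n s * W.crd n x y s := h.crd_eq g hx hy
    have eb : ∀ s, coQ (f n y) (f n z) s = un W n s * W.crd n y z s := h.crd_eq g hy hz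
    have ee : ∀ s, coQ (f n x) (f n z) s = un W n s * W.crd n x z s := h.crd_eq g hx hz
    fin_cases s
    · simp only [compRHS, compN, ee, ea, eb, Matrix.cons_val, Fin.zero_eta]
      ring
    · simp only [compRHS, compN, ee, ea, eb, Matrix.cons_val, Fin.mk_one]
      ring
    · simp only [compRHS, compN, ee, ea, eb, Matrix.cons_val, Fin.reduceFinMk]
      ring
    · simp only [compRHS, compN, ee, ea, eb, Matrix.cons_val, Fin.reduceFinMk]
      ring
    · simp only [compRHS, compN, ee, ea, eb, Matrix.cons_val, Fin.reduceFinMk, cf]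
      have := hu 4
      field_simp
    · simp only [compRHS, compN, ee, ea, eb, Matrix.cons_val, Fin.reduceFinMk]
      ring
    · simp only [compRHS, compN, ee, ea, eb, Matrix.cons_val, Fin.reduceFinMk, cf]
      have := hu 6
      field_simp
    · simp only [compRHS, compN, ee, ea, eb, Matrix.cons_val, Fin.reduceFinMk, cf]
      have := hu 7
      have := hu 4
      field_simp
    · simp only [compRHS, compN, ee, ea, eb, Matrix.cons_val, Fin.reduceFinMk]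
      ring
    · simp only [compRHS, compN, ee, ea, eb, Matrix.cons_val, Fin.reduceFinMk, cf]
      have := hu 9
      field_simp
    · simp only [compRHS, compN, ee, ea, eb, Matrix.cons_val, Fin.reduceFinMk, cf]
      have := hu 10
      have := hu 4
      field_simp
  rw [key, abs_mul, abs_of_pos (h.un_pos n s)] at h1
  have hk := h.ok.kap s
  have hd := Real.rpow_pos_of_pos (W.B.pos n) (W.X n s)
  rw [div_mul_eq_mul_div, le_div_iff₀ hk]
  unfold un at h1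
  refine le_of_mul_le_mul_left (le_trans (le_of_eq ?_) (h1.trans (le_of_eq ?_))) hd
  · ring
  · ring

end QWnd

end Crest.Agent.R136.Ev356
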