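import Crest.Agent.R136.Ev5_356
import Crest.Agent.R136.Qg3b_926

/-!
# R136: window of helper926, chart of helper186: evolution of `W.cfg E` (helper356), part 2

* `QWnd.evoR0`, `QWnd.evoR` : evolution of `rel` for lines alive at two heights;
* `QWnd.compR` : composition of `rel` at one height;
* `flg`, `mot_eq`, `own_four_eq`, `z_eq` : the own motion in terms of functions of the height;
* `rel_MW`, `own_bd` : bounds; `cf_small` : slack walls.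
-/

set_option autoImplicit false
set_option linter.unusedSectionVars false
set_option linter.unusedVariables false

open Filter Topology

namespace Crest.Agent.R136.Ev356

open Finset Crest.Agent.R136.NetQ186 Crest.Agent.R136.Net191 Crest.Agent.R136.Qg926
open Crest.Agent.R136.Gf356
open Crest.Agent.R138.Ex926 (Base U)

variable {ι : ℕ → Type*} [∀ n, DecidableEq (ι n)]

/-- constant of the evolution -/
noncomputable def CE (W : Wnd 11 ι) : ℝ :=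
  (∑ s, 100 * W.K0 ^ 5 / W.kap s) + 18 * (20 * MW W ^ 3) ^ 4 * (14 * MW W ^ 3)

/-- a coordinate of the representative of a height -/
noncomputable def flg (W : Wnd 11 ι) (n k : ℕ) (s : Fin 11) : ℝ :=
  W.crd n (W.s₀ n) (W.zrep n k) s

variable {W : Wnd 11 ι} {f : ∀ n, ι n → Fq4}

/-- right-hand sides of the evolution, all line slots (the flag `F_a` included) -/
noncomputable def evoG (W : Wnd 11 ι) (n : ℕ) (a b : Fin 11 → ℝ) : Fin 11 → ℝ := fun s =>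
  if s = 4 then b 4 + cf W n 2 3 4 * (a 2 * b 3 - b 2 * a 3) else evoN W n a b s

theorem mem_cfg0 {n : ℕ} {E : Finset (ι n)} {i k : ℕ} (h : (i, k) ∈ (W.cfg0 n E).I) :
    ∃ x ∈ E, W.lc n x = i ∧ W.zc n x = k := by
  obtain ⟨x, hx, he⟩ := mem_image.1 h
  exact ⟨x, hx, congrArg Prod.fst he, congrArg Prod.snd he⟩

theorem rep_of_mem {n : ℕ} {E : Finset (ι n)} (hE : E ⊆ W.Cl n) {i k : ℕ}
    (h : (i, k) ∈ (W.cfg0 n E).I) : W.rep n i k ∈ W.Cl n ∧ W.lc n (W.rep n i k) = i ∧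
      W.zc n (W.rep n i k) = k := by
  obtain ⟨x, hx, h1, h2⟩ := mem_cfg0 h
  have := W.rep_spec (hE hx)
  rw [h1, h2] at this
  exact this

theorem zrep_of_mem {n : ℕ} {E : Finset (ι n)} (hE : E ⊆ W.Cl n) {k : ℕ}
    (h : k ∈ (W.cfg0 n E).Z) : W.zrep n k ∈ W.Cl n ∧ W.zc n (W.zrep n k) = k := by
  obtain ⟨x, hx, h1⟩ := mem_image.1 h
  have := W.zrep_spec (hE hx)
  rw [h1] at this
  exact this

theorem rel_cfg0 {n : ℕ} {E : Finset (ι n)} (k i l : ℕ) (s : Fin 11) :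
    (W.cfg0 n E).rel k i l s = if s ∈ W.S then 0 else W.crd n (W.rep n i k) (W.rep n l k) s := rfl

namespace QWnd

variable (h : QWnd W f)

include h

theorem CE_le (s : Fin 11) : 100 * W.K0 ^ 4 / W.kap s + 18 * (20 * MW W ^ 3) ^ 4 * (14 * MW W ^ 3)
      ≤ CE W ∧
    5 * W.K0 ^ 5 / W.kap s + 18 * (20 * MW W ^ 3) ^ 4 * (14 * MW W ^ 3) ≤ CE W ∧ 0 ≤ CE W := by
  have hk := h.ok.kap
  have hK := h.ok.K0_one
  have hM := h.MW_one
  have h1 : ∀ s, 0 ≤ 100 * W.K0 ^ 5 / W.kap s := fun s => div_nonneg (by positivity) (hk s).le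
  have a1 : 100 * W.K0 ^ 5 / W.kap s ≤ ∑ s, 100 * W.K0 ^ 5 / W.kap s :=
    single_le_sum (f := fun s => 100 * W.K0 ^ 5 / W.kap s) (fun s _ => h1 s) (mem_univ s)
  have a2 : 100 * W.K0 ^ 4 / W.kap s ≤ 100 * W.K0 ^ 5 / W.kap s := by
    refine div_le_div_of_nonneg_right ?_ (hk s).le
    have : W.K0 ^ 4 ≤ W.K0 ^ 5 := pow_le_pow_right₀ hK (by norm_num)
    linarith
  have a3 : 5 * W.K0 ^ 5 / W.kap s ≤ 100 * W.K0 ^ 5 / W.kap s := by
    refine div_le_div_of_nonneg_right ?_ (hk s).le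
    have : 0 ≤ W.K0 ^ 5 := by positivity
    linarith
  have a4 : 0 ≤ ∑ s, 100 * W.K0 ^ 5 / W.kap s := sum_nonneg fun s _ => h1 s
  have a5 : 0 ≤ 18 * (20 * MW W ^ 3) ^ 4 * (14 * MW W ^ 3) := by positivity
  unfold CE
  exact ⟨by linarith, by linarith, by linarith⟩

/-- evolution of `rel`, one `n`, slots `c, C_a, .., N` -/
theorem evoR00 {n : ℕ} (g : W.Good n) {E : Finset (ι n)} (hE : E ⊆ W.Cl n) {k₀ k i l : ℕ}
    (h1 : (i, k₀) ∈ (W.cfg0 n E).I) (h2 : (i, k) ∈ (W.cfg0 n E).I)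
    (h3 : (l, k₀) ∈ (W.cfg0 n E).I) (h4 : (l, k) ∈ (W.cfg0 n E).I) {t : ℝ}
    (ht : ∀ s, t ≤ W.top s) (s : Fin 11)
    (hs : s = 1 ∨ s = 5 ∨ s = 6 ∨ s = 7 ∨ s = 8 ∨ s = 9 ∨ s = 10) :
    |(W.cfg0 n E).rel k i l s -
      evoN W n (own W n k₀ k (fsl W n i k₀ 2) (fsl W n i k₀ 3)) ((W.cfg0 n E).rel k₀ i l) s| ≤
      CE W * W.B'.d n ^ t := by
  obtain ⟨a1, a2, a3⟩ := rep_of_mem hE h1
  obtain ⟨b1, b2, b3⟩ := rep_of_mem hE h2
  obtain ⟨c1, c2, c3⟩ := rep_of_mem hE h3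
  obtain ⟨d1, d2, d3⟩ := rep_of_mem hE h4
  have hM := h.MW_one
  have M3 : MW W ≤ MW W ^ 3 := le_self_pow₀ hM (by norm_num)
  have hη0 : 0 ≤ W.B'.d n ^ t := Real.rpow_nonneg (W.B'.pos n).le t
  have e1 := h.evoW g a1 b1 c1 d1 (a2.trans b2.symm) (c2.trans d2.symm) (fun s _ => ht s) s hs
  have hap : ∀ s, Ap (14 * MW W ^ 3 * W.B'.d n ^ t) (20 * MW W ^ 3) 1
      (W.crd n (W.rep n i k₀) (W.rep n i k) s)
      (own W n k₀ k (fsl W n i k₀ 2) (fsl W n i k₀ 3) s) := by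
    intro s
    have := h.own_ap g a1 b1 (a2.trans b2.symm) ht s
    rw [a2, a3, b3] at this
    exact ⟨this.l, this.r, by rw [one_mul]; exact this.d⟩
  have hbp : ∀ s, s = 1 ∨ s = 5 ∨ s = 6 ∨ s = 7 ∨ s = 8 ∨ s = 9 ∨ s = 10 →
      Ap (14 * MW W ^ 3 * W.B'.d n ^ t) (20 * MW W ^ 3) 1
      (W.crd n (W.rep n i k₀) (W.rep n l k₀) s) ((W.cfg0 n E).rel k₀ i l s) := by
    intro s hs
    rw [rel_cfg0, if_neg (h.notMem hs)]
    have hb := h.crd_MW g a1 c1 s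
    refine ⟨hb.trans (by linarith), hb.trans (by linarith), ?_⟩
    rw [sub_self, abs_zero]
    positivity
  have hcf : CfB W n (20 * MW W ^ 3) := by
    have hb : MW W ≤ 20 * MW W ^ 3 := by linarith
    obtain ⟨x1, x2, x3, x4, x5, x6, x7, x8, x9, x10, x11⟩ := h.cfB g
    exact ⟨x1.trans hb, x2.trans hb, x3.trans hb, x4.trans hb, x5.trans hb, x6.trans hb,
      x7.trans hb, x8.trans hb, x9.trans hb, x10.trans hb, x11.trans hb⟩
  have e2 := evoN_lip (by linarith) (by positivity) hcf hap hbp s hs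
  have e3 := (h.CE_le s).1
  rw [rel_cfg0, if_neg (h.notMem hs)]
  have e4 := abs_sub_le (W.crd n (W.rep n i k) (W.rep n l k) s)
    (evoN W n (W.crd n (W.rep n i k₀) (W.rep n i k)) (W.crd n (W.rep n i k₀) (W.rep n l k₀)) s)
    (evoN W n (own W n k₀ k (fsl W n i k₀ 2) (fsl W n i k₀ 3)) ((W.cfg0 n E).rel k₀ i l) s)
  have e5 := mul_le_mul_of_nonneg_right e3 hη0
  linarith

/-- **composition of `rel`** at one height -/
theorem compR0 {n : ℕ} (g : W.Good n) {E : Finset (ι n)} (hE : E ⊆ W.Cl n) {k i j l : ℕ}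
    (h1 : (i, k) ∈ (W.cfg0 n E).I) (h2 : (j, k) ∈ (W.cfg0 n E).I)
    (h3 : (l, k) ∈ (W.cfg0 n E).I) (h0S : (0 : Fin 11) ∈ W.S) {t : ℝ}
    (ht : ∀ s, t ≤ W.top s) (s : Fin 11) (hs : s ∉ W.S) :
    |(W.cfg0 n E).rel k i l s -
      compN W n ((W.cfg0 n E).rel k i j) ((W.cfg0 n E).rel k j l) s| ≤
      CE W * W.B'.d n ^ t := by
  obtain ⟨a1, a2, a3⟩ := rep_of_mem hE h1
  obtain ⟨b1, b2, b3⟩ := rep_of_mem hE h2
  obtain ⟨c1, c2, c3⟩ := rep_of_mem hE h3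
  have hM := h.MW_one
  have M3 : MW W ≤ MW W ^ 3 := le_self_pow₀ hM (by norm_num)
  have hη0 : 0 ≤ W.B'.d n ^ t := Real.rpow_nonneg (W.B'.pos n).le t
  have e1 := h.comp_same g a1 b1 c1 h0S (a3.trans b3.symm) (ht 0) s
  have hap : ∀ {i j : ℕ}, W.rep n i k ∈ W.Cl n → W.rep n j k ∈ W.Cl n →
      W.zc n (W.rep n i k) = W.zc n (W.rep n j k) → ∀ s,
      Ap (14 * MW W ^ 3 * W.B'.d n ^ t) (20 * MW W ^ 3) 1
      (W.crd n (W.rep n i k) (W.rep n j k) s) ((W.cfg0 n E).rel k i j s) := by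
    intro i j hi hj hz s
    rw [rel_cfg0]
    have hb := h.crd_MW g hi hj s
    split_ifs with hsS
    · refine ⟨hb.trans (by linarith), by rw [abs_zero]; linarith, ?_⟩
      rw [sub_zero, one_mul]
      refine (h.small_of (h.crd_lev g hi hj hz hsS (ht s))).trans ?_
      exact mul_le_mul_of_nonneg_right (by linarith) hη0
    · refine ⟨hb.trans (by linarith), hb.trans (by linarith), ?_⟩
      rw [sub_self, abs_zero]
      positivity
  have hcf : CfB W n (20 * MW W ^ 3) := by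
    have hb : MW W ≤ 20 * MW W ^ 3 := by linarith
    obtain ⟨x1, x2, x3, x4, x5, x6, x7, x8, x9, x10, x11⟩ := h.cfB g
    exact ⟨x1.trans hb, x2.trans hb, x3.trans hb, x4.trans hb, x5.trans hb, x6.trans hb,
      x7.trans hb, x8.trans hb, x9.trans hb, x10.trans hb, x11.trans hb⟩
  have e2 := compN_lip (by linarith) (by positivity) hcf (hap a1 b1 (a3.trans b3.symm))
    (hap b1 c1 (b3.trans c3.symm)) s
  have e3 := (h.CE_le s).2.1
  rw [rel_cfg0, if_neg hs]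
  have e4 := abs_sub_le (W.crd n (W.rep n i k) (W.rep n l k) s)
    (compN W n (W.crd n (W.rep n i k) (W.rep n j k)) (W.crd n (W.rep n j k) (W.rep n l k)) s)
    (compN W n ((W.cfg0 n E).rel k i j) ((W.cfg0 n E).rel k j l) s)
  have e5 := mul_le_mul_of_nonneg_right e3 hη0
  linarith

/-- evolution of `rel`, one `n`, additive flags -/
theorem evoR23 {n : ℕ} (g : W.Good n) {E : Finset (ι n)} (hE : E ⊆ W.Cl n) {k₀ k i l : ℕ}
    (h1 : (i, k₀) ∈ (W.cfg0 n E).I) (h2 : (i, k) ∈ (W.cfg0 n E).I)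
    (h3 : (l, k₀) ∈ (W.cfg0 n E).I) (h4 : (l, k) ∈ (W.cfg0 n E).I) {t : ℝ}
    (ht : ∀ s, t ≤ W.top s) (s : Fin 11) (hs : s = 2 ∨ s = 3) (hsS : s ∉ W.S) :
    |(W.cfg0 n E).rel k i l s - (W.cfg0 n E).rel k₀ i l s| ≤ (2 * MW W) * W.B'.d n ^ t := by
  obtain ⟨a1, a2, a3⟩ := rep_of_mem hE h1
  obtain ⟨b1, b2, b3⟩ := rep_of_mem hE h2
  obtain ⟨c1, c2, c3⟩ := rep_of_mem hE h3
  obtain ⟨d1, d2, d3⟩ := rep_of_mem hE h4
  have hs' : s = 0 ∨ s = 1 ∨ s = 2 ∨ s = 3 ∨ s = 5 := by tauto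
  have e1 := h.crd_add g a1 b1 d1 hs'
  have e2 := h.crd_add g a1 c1 d1 hs'
  have e3 := h.small_of (h.crd_own g a1 b1 (a2.trans b2.symm) hsS (ht s))
  have e4 := h.small_of (h.crd_own g c1 d1 (c2.trans d2.symm) hsS (ht s))
  rw [rel_cfg0, rel_cfg0, if_neg hsS, if_neg hsS]
  have e5 : W.crd n (W.rep n i k) (W.rep n l k) s - W.crd n (W.rep n i k₀) (W.rep n l k₀) s =
      W.crd n (W.rep n l k₀) (W.rep n l k) s - W.crd n (W.rep n i k₀) (W.rep n i k) s := by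
    linarith
  rw [e5]
  have e6 := abs_sub (W.crd n (W.rep n l k₀) (W.rep n l k) s)
    (W.crd n (W.rep n i k₀) (W.rep n i k) s)
  linarith

/-- evolution of `rel`, one `n`, the flag `F_a` -/
theorem evoR4 {n : ℕ} (g : W.Good n) {E : Finset (ι n)} (hE : E ⊆ W.Cl n) {k₀ k i l : ℕ}
    (h1 : (i, k₀) ∈ (W.cfg0 n E).I) (h2 : (i, k) ∈ (W.cfg0 n E).I)
    (h3 : (l, k₀) ∈ (W.cfg0 n E).I) (h4 : (l, k) ∈ (W.cfg0 n E).I) {t : ℝ}
    (ht : ∀ s, t ≤ W.top s) (h4S : (4 : Fin 11) ∉ W.S) :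
    |(W.cfg0 n E).rel k i l 4 - ((W.cfg0 n E).rel k₀ i l 4 + cf W n 2 3 4 *
      (mot W n k₀ k 2 * (W.cfg0 n E).rel k₀ i l 3 - (W.cfg0 n E).rel k₀ i l 2 * mot W n k₀ k 3))| ≤
      (10 * MW W ^ 3) * W.B'.d n ^ t := by
  obtain ⟨a1, a2, a3⟩ := rep_of_mem hE h1
  obtain ⟨b1, b2, b3⟩ := rep_of_mem hE h2
  obtain ⟨c1, c2, c3⟩ := rep_of_mem hE h3
  obtain ⟨d1, d2, d3⟩ := rep_of_mem hE h4
  set M := MW W with hM
  set η := W.B'.d n ^ t with hη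
  have hη0 : 0 ≤ η := Real.rpow_nonneg (W.B'.pos n).le t
  have hM1 : 1 ≤ M := h.MW_one
  have M3 : M ≤ M ^ 3 := le_self_pow₀ hM1 (by norm_num)
  have B : ∀ {u v : ι n}, u ∈ W.Cl n → v ∈ W.Cl n → ∀ s, |W.crd n u v s| ≤ M :=
    fun hu hv s => h.crd_MW g hu hv s
  set x := W.rep n i k₀
  set x' := W.rep n i k
  set y := W.rep n l k₀
  set y' := W.rep n l k
  have kz : k₀ ∈ (W.cfg0 n E).Z := mem_image.2 (by
    obtain ⟨u, hu, -, h6⟩ := mem_cfg0 h1; exact ⟨u, hu, h6⟩)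
  have kz' : k ∈ (W.cfg0 n E).Z := mem_image.2 (by
    obtain ⟨u, hu, -, h6⟩ := mem_cfg0 h2; exact ⟨u, hu, h6⟩)
  obtain ⟨z1, z2⟩ := zrep_of_mem hE kz
  obtain ⟨z1', z2'⟩ := zrep_of_mem hE kz'
  -- own motion of a line
  have hmot : ∀ {u u' : ι n}, u ∈ W.Cl n → u' ∈ W.Cl n → W.lc n u = W.lc n u' →
      W.zc n u = k₀ → W.zc n u' = k → ∀ s : Fin 11, s = 0 ∨ s = 2 ∨ s = 3 →
      Ap η M M (W.crd n u u' s) (mot W n k₀ k s) := by
    intro u u' hu hu' hlc hzu hzu' s hs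
    unfold mot
    split_ifs with hsS
    · refine ⟨B hu hu' s, B z1 z1' s, ?_⟩
      exact h.small_of2 (h.own_add g hu hu' z1 z1' (hzu.trans z2.symm) (hzu'.trans z2'.symm) hsS hs
        (ht s))
    · refine ⟨B hu hu' s, by rw [abs_zero]; linarith, ?_⟩
      rw [sub_zero]
      exact h.small_of (h.crd_own g hu hu' hlc hsS (ht s))
  -- relative coordinates
  have hrel : ∀ s : Fin 11, Ap η M M (W.crd n x y s) ((W.cfg0 n E).rel k₀ i l s) := by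
    intro s
    rw [rel_cfg0]
    split_ifs with hsS
    · refine ⟨B a1 c1 s, by rw [abs_zero]; linarith, ?_⟩
      rw [sub_zero]
      exact h.small_of (h.crd_lev g a1 c1 (a3.trans c3.symm) hsS (ht s))
    · refine ⟨B a1 c1 s, B a1 c1 s, ?_⟩
      rw [sub_self, abs_zero]
      exact mul_nonneg (by linarith) hη0
  have hcf : |cf W n 2 3 4| ≤ M := (h.cfB g).2.2.2.2.2.2.2.2.2.2
  have e1 := h.crd_four g a1 b1 d1
  have e2 := h.crd_four g a1 c1 d1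
  have f2 := h.crd_add g a1 b1 d1 (s := 2) (by simp)
  have f3 := h.crd_add g a1 b1 d1 (s := 3) (by simp)
  have f2' := h.crd_add g a1 c1 d1 (s := 2) (by simp)
  have f3' := h.crd_add g a1 c1 d1 (s := 3) (by simp)
  have own4 : ∀ {u u' : ι n}, u ∈ W.Cl n → u' ∈ W.Cl n → W.lc n u = W.lc n u' →
      Ap η M M (W.crd n u u' 4) 0 := by
    intro u u' hu hu' hlc
    refine ⟨B hu hu' 4, by rw [abs_zero]; linarith, ?_⟩
    rw [sub_zero]
    exact h.small_of (h.crd_own g hu hu' hlc h4S (ht 4))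
  have o4x := own4 a1 b1 (a2.trans b2.symm)
  have o4y := own4 c1 d1 (c2.trans d2.symm)
  have m2x := hmot a1 b1 (a2.trans b2.symm) a3 b3 2 (by simp)
  have m3x := hmot a1 b1 (a2.trans b2.symm) a3 b3 3 (by simp)
  have m3y := hmot c1 d1 (c2.trans d2.symm) c3 d3 3 (by simp)
  -- exact identity
  have key : W.crd n x' y' 4 = W.crd n x y 4 + W.crd n y y' 4 - W.crd n x x' 4 +
      cf W n 2 3 4 * (W.crd n x x' 2 * (W.crd n x y 3 + W.crd n y y' 3 - W.crd n x x' 3) -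
        W.crd n x y 2 * W.crd n y y' 3) := by
    have e3 : W.crd n x' y' 3 = W.crd n x y 3 + W.crd n y y' 3 - W.crd n x x' 3 := by linarith
    rw [← e3]
    linarith
  have apr := (((Ap.const (η := η) hη0 (B a1 c1 4)).add o4y).sub o4x).add
    ((Ap.const (η := η) hη0 hcf).mul ((m2x.mul (((hrel 3).add m3y).sub m3x)).sub
      ((hrel 2).mul m3y)))
  rw [← key] at apr
  have e4 : (W.cfg0 n E).rel k₀ i l 4 = W.crd n x y 4 := by rw [rel_cfg0, if_neg h4S]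
  have e5 : (W.cfg0 n E).rel k i l 4 = W.crd n x' y' 4 := by rw [rel_cfg0, if_neg h4S]
  rw [e4, e5]
  have e6 : W.crd n x y 4 + 0 - 0 + cf W n 2 3 4 * (mot W n k₀ k 2 *
      ((W.cfg0 n E).rel k₀ i l 3 + mot W n k₀ k 3 - mot W n k₀ k 3) -
        (W.cfg0 n E).rel k₀ i l 2 * mot W n k₀ k 3) = W.crd n x y 4 + cf W n 2 3 4 *
      (mot W n k₀ k 2 * (W.cfg0 n E).rel k₀ i l 3 - (W.cfg0 n E).rel k₀ i l 2 *
        mot W n k₀ k 3) := by ring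
  rw [e6] at apr
  refine apr.mono hη0 ?_
  nlinarith

/-- **evolution of `rel`**, one `n`, all line slots -/
theorem evoR0 {n : ℕ} (g : W.Good n) {E : Finset (ι n)} (hE : E ⊆ W.Cl n) {k₀ k i l : ℕ}
    (h1 : (i, k₀) ∈ (W.cfg0 n E).I) (h2 : (i, k) ∈ (W.cfg0 n E).I)
    (h3 : (l, k₀) ∈ (W.cfg0 n E).I) (h4 : (l, k) ∈ (W.cfg0 n E).I) {t : ℝ}
    (ht : ∀ s, t ≤ W.top s) (s : Fin 11) (hs : s ∉ W.S) (h0S : (0 : Fin 11) ∈ W.S) :
    |(W.cfg0 n E).rel k i l s -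
      evoG W n (own W n k₀ k (fsl W n i k₀ 2) (fsl W n i k₀ 3)) ((W.cfg0 n E).rel k₀ i l) s| ≤
      CE W * W.B'.d n ^ t := by
  have hM := h.MW_one
  have hη0 : 0 ≤ W.B'.d n ^ t := Real.rpow_nonneg (W.B'.pos n).le t
  have hCE : ∀ c, c ≤ 18 * (20 * MW W ^ 3) ^ 4 * (14 * MW W ^ 3) → c ≤ CE W := by
    intro c hc
    have h5 := (h.CE_le 0).1
    have : 0 ≤ 100 * W.K0 ^ 4 / W.kap 0 := div_nonneg (by positivity) (h.ok.kap 0).le
    linarith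
  have hM15 : MW W ≤ MW W ^ 15 := le_self_pow₀ hM (by norm_num)
  have hM3 : MW W ^ 3 ≤ MW W ^ 15 := pow_le_pow_right₀ hM (by norm_num)
  have e15 : 18 * (20 * MW W ^ 3) ^ 4 * (14 * MW W ^ 3) = 40320000 * MW W ^ 15 := by ring
  have hM0 : 0 ≤ MW W ^ 15 := by positivity
  by_cases hs4 : s = 4
  · subst hs4
    have e1 := h.evoR4 g hE h1 h2 h3 h4 ht hs
    have e2 : own W n k₀ k (fsl W n i k₀ 2) (fsl W n i k₀ 3) 2 = mot W n k₀ k 2 := by
      unfold own; rw [if_neg (by decide)]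
    have e3 : own W n k₀ k (fsl W n i k₀ 2) (fsl W n i k₀ 3) 3 = mot W n k₀ k 3 := by
      unfold own; rw [if_neg (by decide)]
    unfold evoG
    rw [if_pos rfl, e2, e3]
    refine e1.trans (mul_le_mul_of_nonneg_right (hCE _ ?_) hη0)
    rw [e15]; linarith
  · unfold evoG
    rw [if_neg hs4]
    by_cases hs23 : s = 2 ∨ s = 3
    · have e1 := h.evoR23 g hE h1 h2 h3 h4 ht s hs23 hs
      have e2 : evoN W n (own W n k₀ k (fsl W n i k₀ 2) (fsl W n i k₀ 3))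
          ((W.cfg0 n E).rel k₀ i l) s = (W.cfg0 n E).rel k₀ i l s := by
        rcases hs23 with rfl | rfl
        · simp only [evoN, Matrix.cons_val]
        · simp only [evoN, Matrix.cons_val]
      rw [e2]
      refine e1.trans (mul_le_mul_of_nonneg_right (hCE _ ?_) hη0)
      rw [e15]; linarith
    · refine h.evoR00 g hE h1 h2 h3 h4 ht s ?_
      have h0 : s ≠ 0 := fun e => hs (e ▸ h0S)
      have key : ∀ s : Fin 11, s ≠ 4 → ¬(s = 2 ∨ s = 3) → s ≠ 0 →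
        s = 1 ∨ s = 5 ∨ s = 6 ∨ s = 7 ∨ s = 8 ∨ s = 9 ∨ s = 10 := by decide
      exact key s hs4 hs23 h0

/-! ### the configurations `W.cfg E` -/

section Cfg

variable {E : ∀ n, Finset (ι n)}

/-- **evolution of `rel`** in `W.cfg E` -/
theorem evoR (hc : ∀ᶠ n in (U : Filter ℕ), W.Good n ∧ E n ⊆ W.Cl n ∧
      W.cfg E n = W.cfg0 n (E n)) (h0S : (0 : Fin 11) ∈ W.S) {t : ℝ} (ht : ∀ s, t ≤ W.top s) :
    ∀ᶠ n in (U : Filter ℕ), ∀ k₀ k i l, (i, k₀) ∈ (W.cfg E n).I → (i, k) ∈ (W.cfg E n).I →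
      (l, k₀) ∈ (W.cfg E n).I → (l, k) ∈ (W.cfg E n).I → ∀ s, s ∉ W.S →
      |(W.cfg E n).rel k i l s -
        evoG W n (own W n k₀ k (fsl W n i k₀ 2) (fsl W n i k₀ 3)) ((W.cfg E n).rel k₀ i l) s| ≤
        CE W * W.B'.d n ^ t := by
  filter_upwards [hc] with n hn k₀ k i l h1 h2 h3 h4 s hs
  obtain ⟨g, hE, hcfg⟩ := hn
  rw [hcfg] at h1 h2 h3 h4 ⊢
  exact h.evoR0 g hE h1 h2 h3 h4 ht s hs h0S

/-- **composition of `rel`** in `W.cfg E` -/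
theorem compR (hc : ∀ᶠ n in (U : Filter ℕ), W.Good n ∧ E n ⊆ W.Cl n ∧
      W.cfg E n = W.cfg0 n (E n)) (h0S : (0 : Fin 11) ∈ W.S) {t : ℝ} (ht : ∀ s, t ≤ W.top s) :
    ∀ᶠ n in (U : Filter ℕ), ∀ k i j l, (i, k) ∈ (W.cfg E n).I → (j, k) ∈ (W.cfg E n).I →
      (l, k) ∈ (W.cfg E n).I → ∀ s, s ∉ W.S →
      |(W.cfg E n).rel k i l s -
        compN W n ((W.cfg E n).rel k i j) ((W.cfg E n).rel k j l) s| ≤
        CE W * W.B'.d n ^ t := by
  filter_upwards [hc] with n hn k i j l h1 h2 h3 s hs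
  obtain ⟨g, hE, hcfg⟩ := hn
  rw [hcfg] at h1 h2 h3 ⊢
  exact h.compR0 g hE h1 h2 h3 h0S ht s hs

/-- all coordinates are bounded -/
theorem rel_MW (hc : ∀ᶠ n in (U : Filter ℕ), W.Good n ∧ E n ⊆ W.Cl n ∧
      W.cfg E n = W.cfg0 n (E n)) :
    ∀ᶠ n in (U : Filter ℕ), (∀ k i l, (i, k) ∈ (W.cfg E n).I → (l, k) ∈ (W.cfg E n).I →
      ∀ s, |(W.cfg E n).rel k i l s| ≤ MW W) ∧
      (∀ k ∈ (W.cfg E n).Z, ∀ s, |flg W n k s| ≤ MW W) ∧
      (∀ k₀ ∈ (W.cfg E n).Z, ∀ k ∈ (W.cfg E n).Z, ∀ s, |mot W n k₀ k s| ≤ MW W) ∧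
      (∀ i k, (i, k) ∈ (W.cfg E n).I → ∀ s, |fsl W n i k s| ≤ MW W) := by
  filter_upwards [hc] with n hn
  obtain ⟨g, hE, hcfg⟩ := hn
  rw [hcfg]
  have hM := h.MW_one
  have hM0 : |(0 : ℝ)| ≤ MW W := by rw [abs_zero]; linarith
  refine ⟨fun k i l h1 h2 s => ?_, fun k hk s => ?_, fun k₀ hk₀ k hk s => ?_, fun i k hi s => ?_⟩
  · rw [rel_cfg0]
    split_ifs
    · exact hM0
    · exact h.crd_MW g (rep_of_mem hE h1).1 (rep_of_mem hE h2).1 s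
  · exact h.crd_MW g g.s0 (zrep_of_mem hE hk).1 s
  · unfold mot
    split_ifs
    · exact h.crd_MW g (zrep_of_mem hE hk₀).1 (zrep_of_mem hE hk).1 s
    · exact hM0
  · unfold fsl
    split_ifs
    · exact hM0
    · have hk : k ∈ (W.cfg0 n (E n)).Z := mem_image.2 (by
        obtain ⟨u, hu, -, h6⟩ := mem_cfg0 hi; exact ⟨u, hu, h6⟩)
      exact h.crd_MW g (zrep_of_mem hE hk).1 (rep_of_mem hE hi).1 s

/-- the own motion in terms of functions of the height -/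
theorem mot_eq (hc : ∀ᶠ n in (U : Filter ℕ), W.Good n ∧ E n ⊆ W.Cl n ∧
      W.cfg E n = W.cfg0 n (E n)) :
    ∀ᶠ n in (U : Filter ℕ), ∀ k₀ ∈ (W.cfg E n).Z, ∀ k ∈ (W.cfg E n).Z,
      (∀ s, s = 0 ∨ s = 2 ∨ s = 3 → W.crd n (W.zrep n k₀) (W.zrep n k) s =
        flg W n k s - flg W n k₀ s) ∧
      W.crd n (W.zrep n k₀) (W.zrep n k) 4 = flg W n k 4 - flg W n k₀ 4 +
        cf W n 2 3 4 * (flg W n k₀ 2 * (flg W n k 3 - flg W n k₀ 3)) := by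
  filter_upwards [hc] with n hn k₀ hk₀ k hk
  obtain ⟨g, hE, hcfg⟩ := hn
  rw [hcfg] at hk₀ hk
  have a1 := (zrep_of_mem hE hk₀).1
  have a2 := (zrep_of_mem hE hk).1
  have key : ∀ s, s = 0 ∨ s = 2 ∨ s = 3 → W.crd n (W.zrep n k₀) (W.zrep n k) s =
      flg W n k s - flg W n k₀ s := by
    intro s hs
    have := h.crd_add g g.s0 a1 a2 (s := s) (by tauto)
    unfold flg
    linarith
  refine ⟨key, ?_⟩
  have e1 := h.crd_four g g.s0 a1 a2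
  have e2 := key 3 (by simp)
  rw [← e2]
  unfold flg
  linarith

/-- the height coordinate -/
theorem z_eq (hkz : W.kz = 0) (hc : ∀ᶠ n in (U : Filter ℕ), W.Good n ∧ E n ⊆ W.Cl n ∧
      W.cfg E n = W.cfg0 n (E n)) :
    ∀ᶠ n in (U : Filter ℕ), ∀ k, (W.cfg E n).z k = flg W n k 0 := by
  filter_upwards [hc] with n hn k
  obtain ⟨g, hE, hcfg⟩ := hn
  rw [hcfg]
  show W.crd n (W.s₀ n) (W.zrep n k) W.kz = _
  rw [hkz]; rfl

/-- `926`'s pruned sets satisfy the hypothesis -/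
theorem ev_hc {Eo : ∀ n, Finset (ι n)} {Mu g : ℕ → ℝ} {ex : ℕ → ∀ n, ι n → ℕ}
    (hE : Wnd.EOk W Eo Mu) (hP : Wnd.Pruned W Eo E g ex) :
    ∀ᶠ n in (U : Filter ℕ), W.Good n ∧ E n ⊆ W.Cl n ∧ W.cfg E n = W.cfg0 n (E n) := by
  filter_upwards [Wnd.ev_cfg h.ok hE hP] with n hn
  exact ⟨hn.1, (hP.sub n).trans hn.2.1, hn.2.2.2⟩

/-- constants are `ρ^(-ε)` -/
theorem ev_CE {ε : ℝ} (hε : 0 < ε) : ∀ᶠ n in (U : Filter ℕ),
    CE W ≤ W.B'.d n ^ (-ε) ∧ MW W ≤ W.B'.d n ^ (-ε) := by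
  filter_upwards [Crest.Agent.R136.Gf356.ev_const_le W.B' hε (CE W),
    Crest.Agent.R136.Gf356.ev_const_le W.B' hε (MW W)] with n h1 h2
  exact ⟨h1, h2⟩

end Cfg

/-- slack walls give small coefficients -/
theorem cf_small {n : ℕ} {i j s : Fin 11} {R : ℝ}
    (hw : W.X n s + R * W.w n ≤ W.X n i + W.X n j) :
    cf W n i j s ≤ W.kap i * W.kap j / W.kap s * W.B'.d n ^ R := by
  rw [h.cf_eq' n i j s]
  refine mul_le_mul_of_nonneg_left ?_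
    (div_pos (mul_pos (h.ok.kap i) (h.ok.kap j)) (h.ok.kap s)).le
  rw [h.ok.cls.base n, ← Real.rpow_mul (W.B.pos n).le]
  refine Real.rpow_le_rpow_of_exponent_ge (W.B.pos n) (W.B.lt n).le ?_
  nlinarith

end QWnd

end Crest.Agent.R136.Ev356
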