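import Crest.Agent.R136.Ev6_356
import Crest.Agent.R136.Ab1_356
import Crest.Agent.R136.Aw0_413

/-!
# R136: evolution with coefficients `0`, `1` (helper356)

`WAt` of helper413: the walls of `Ma` are equalities, the other ones are infinitely far: the
coefficients `cf` are `1`, resp. `≤ ρ^R` for every `R`.
-/

set_option autoImplicit false
set_option linter.unusedSectionVars false
set_option linter.unusedVariables false

open Filter Topology

namespace Crest.Agent.R136.Ev356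

open Finset Crest.Agent.R136.NetQ186 Crest.Agent.R136.Net191 Crest.Agent.R136.Qg926
open Crest.Agent.R136.Gf356
open Crest.Agent.R138.Ex926 (Base U)

/-- the monomial `x i * x j` -/
def mv (i j : Fin 11) : Fin 11 → ℕ := fun s => (if s = i then 1 else 0) + (if s = j then 1 else 0)

/-- coefficient of the monomial `i j` of the slot `s` -/
def chi (Ma : Mons 11) (i j s : Fin 11) : ℝ := if mv i j ∈ Ma.mon s then 1 else 0

/-- right-hand sides of the evolution, coefficients `c` -/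
def evoC (c : Fin 11 → Fin 11 → Fin 11 → ℝ) (a b : Fin 11 → ℝ) : Fin 11 → ℝ :=
  ![b 0, b 1, b 2, b 3, b 4 + c 2 3 4 * (a 2 * b 3 - b 2 * a 3), b 5,
    b 6 - c 2 5 6 * (a 2 * b 5),
    b 7 + 2 * (c 0 1 7 * (a 0 * b 1)) - c 4 5 7 * (a 4 * b 5) - c 3 6 7 * (a 3 * b 6),
    b 8 + c 0 5 8 * (a 0 * b 5),
    b 9 + c 0 6 9 * (a 0 * b 6) - c 2 8 9 * (a 2 * (b 8 + c 0 5 8 * (a 0 * b 5))),
    b 10 + c 0 7 10 * (a 0 * b 7) + c 0 7 10 * (a 0 * (c 0 1 7 * (a 0 * b 1))) -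
      c 4 8 10 * (a 4 * (b 8 + c 0 5 8 * (a 0 * b 5))) -
      c 3 9 10 * (a 3 * (b 9 + c 0 6 9 * (a 0 * b 6)))]

/-- right-hand sides of the composition, coefficients `c` -/
def compC (c : Fin 11 → Fin 11 → Fin 11 → ℝ) (a b : Fin 11 → ℝ) : Fin 11 → ℝ :=
  ![a 0 + b 0, a 1 + b 1, a 2 + b 2, a 3 + b 3, a 4 + b 4 - c 2 3 4 * (a 2 * b 3), a 5 + b 5,
    a 6 + b 6 + c 2 5 6 * (a 2 * b 5),
    a 7 + b 7 + c 4 5 7 * (a 4 * b 5) + c 4 5 7 * c 2 3 4 * (a 2 * (a 3 * b 5)) +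
      c 3 6 7 * (a 3 * b 6),
    a 8 + b 8,
    a 9 + b 9 + c 2 8 9 * (a 2 * b 8),
    a 10 + b 10 + c 4 8 10 * (a 4 * b 8) + c 4 8 10 * c 2 3 4 * (a 2 * (a 3 * b 8)) +
      c 3 9 10 * (a 3 * b 9)]

/-- close coefficients -/
def CApp (η M : ℝ) (c c' : Fin 11 → Fin 11 → Fin 11 → ℝ) : Prop :=
  Ap η M 1 (c 2 5 6) (c' 2 5 6) ∧ Ap η M 1 (c 0 1 7) (c' 0 1 7) ∧
  Ap η M 1 (c 4 5 7) (c' 4 5 7) ∧ Ap η M 1 (c 3 6 7) (c' 3 6 7) ∧
  Ap η M 1 (c 0 5 8) (c' 0 5 8) ∧ Ap η M 1 (c 0 6 9) (c' 0 6 9) ∧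
  Ap η M 1 (c 2 8 9) (c' 2 8 9) ∧ Ap η M 1 (c 0 7 10) (c' 0 7 10) ∧
  Ap η M 1 (c 4 8 10) (c' 4 8 10) ∧ Ap η M 1 (c 3 9 10) (c' 3 9 10) ∧
  Ap η M 1 (c 2 3 4) (c' 2 3 4)

theorem evoC_lip {M η : ℝ} (hM : 1 ≤ M) (hη : 0 ≤ η) {c c' : Fin 11 → Fin 11 → Fin 11 → ℝ}
    (hc : CApp η M c c') {a a' b b' : Fin 11 → ℝ} (ha : ∀ s, Ap η M 1 (a s) (a' s))
    (hb : ∀ s, Ap η M 1 (b s) (b' s)) (s : Fin 11) :
    |evoC c a b s - evoC c' a' b' s| ≤ (40 * M ^ 4) * η := by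
  obtain ⟨c256, c017, c457, c367, c058, c069, c289, c0710, c4810, c3910, c234⟩ := hc
  have h1 : 1 ≤ M ^ 4 := one_le_pow₀ hM
  have h2 : M ^ 2 ≤ M ^ 4 := pow_le_pow_right₀ hM (by norm_num)
  have h3 : M ^ 3 ≤ M ^ 4 := pow_le_pow_right₀ hM (by norm_num)
  fin_cases s
  · simp only [evoC, Matrix.cons_val, Fin.zero_eta]
    exact (hb 0).mono hη (by linarith)
  · simp only [evoC, Matrix.cons_val, Fin.mk_one]
    exact (hb 1).mono hη (by linarith)
  · simp only [evoC, Matrix.cons_val, Fin.reduceFinMk]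
    exact (hb 2).mono hη (by linarith)
  · simp only [evoC, Matrix.cons_val, Fin.reduceFinMk]
    exact (hb 3).mono hη (by linarith)
  · simp only [evoC, Matrix.cons_val, Fin.reduceFinMk]
    refine ((hb 4).add (c234.mul (((ha 2).mul (hb 3)).sub ((hb 2).mul (ha 3))))).mono hη ?_
    nlinarith
  · simp only [evoC, Matrix.cons_val, Fin.reduceFinMk]
    exact (hb 5).mono hη (by linarith)
  · simp only [evoC, Matrix.cons_val, Fin.reduceFinMk]
    refine ((hb 6).sub (c256.mul ((ha 2).mul (hb 5)))).mono hη ?_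
    nlinarith
  · simp only [evoC, Matrix.cons_val, Fin.reduceFinMk]
    refine ((((hb 7).add ((Ap.const (m := 2) hη (by norm_num)).mul (c017.mul ((ha 0).mul (hb 1))))).sub
      (c457.mul ((ha 4).mul (hb 5)))).sub (c367.mul ((ha 3).mul (hb 6)))).mono hη ?_
    nlinarith
  · simp only [evoC, Matrix.cons_val, Fin.reduceFinMk]
    refine ((hb 8).add (c058.mul ((ha 0).mul (hb 5)))).mono hη ?_
    nlinarith
  · simp only [evoC, Matrix.cons_val, Fin.reduceFinMk]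
    refine (((hb 9).add (c069.mul ((ha 0).mul (hb 6)))).sub (c289.mul ((ha 2).mul
      ((hb 8).add (c058.mul ((ha 0).mul (hb 5))))))).mono hη ?_
    nlinarith
  · simp only [evoC, Matrix.cons_val, Fin.reduceFinMk]
    refine (((((hb 10).add (c0710.mul ((ha 0).mul (hb 7)))).add (c0710.mul ((ha 0).mul
      (c017.mul ((ha 0).mul (hb 1)))))).sub (c4810.mul ((ha 4).mul
      ((hb 8).add (c058.mul ((ha 0).mul (hb 5))))))).sub (c3910.mul ((ha 3).mul
      ((hb 9).add (c069.mul ((ha 0).mul (hb 6))))))).mono hη ?_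
    nlinarith

theorem compC_lip {M η : ℝ} (hM : 1 ≤ M) (hη : 0 ≤ η) {c c' : Fin 11 → Fin 11 → Fin 11 → ℝ}
    (hc : CApp η M c c') {a a' b b' : Fin 11 → ℝ} (ha : ∀ s, Ap η M 1 (a s) (a' s))
    (hb : ∀ s, Ap η M 1 (b s) (b' s)) (s : Fin 11) :
    |compC c a b s - compC c' a' b' s| ≤ (40 * M ^ 4) * η := by
  obtain ⟨c256, c017, c457, c367, c058, c069, c289, c0710, c4810, c3910, c234⟩ := hc
  have h1 : 1 ≤ M ^ 4 := one_le_pow₀ hM
  have h2 : M ^ 2 ≤ M ^ 4 := pow_le_pow_right₀ hM (by norm_num)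
  have h3 : M ^ 3 ≤ M ^ 4 := pow_le_pow_right₀ hM (by norm_num)
  fin_cases s
  · simp only [compC, Matrix.cons_val, Fin.zero_eta]
    exact ((ha 0).add (hb 0)).mono hη (by linarith)
  · simp only [compC, Matrix.cons_val, Fin.mk_one]
    exact ((ha 1).add (hb 1)).mono hη (by linarith)
  · simp only [compC, Matrix.cons_val, Fin.reduceFinMk]
    exact ((ha 2).add (hb 2)).mono hη (by linarith)
  · simp only [compC, Matrix.cons_val, Fin.reduceFinMk]
    exact ((ha 3).add (hb 3)).mono hη (by linarith)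
  · simp only [compC, Matrix.cons_val, Fin.reduceFinMk]
    refine (((ha 4).add (hb 4)).sub (c234.mul ((ha 2).mul (hb 3)))).mono hη ?_
    nlinarith
  · simp only [compC, Matrix.cons_val, Fin.reduceFinMk]
    exact ((ha 5).add (hb 5)).mono hη (by linarith)
  · simp only [compC, Matrix.cons_val, Fin.reduceFinMk]
    refine (((ha 6).add (hb 6)).add (c256.mul ((ha 2).mul (hb 5)))).mono hη ?_
    nlinarith
  · simp only [compC, Matrix.cons_val, Fin.reduceFinMk]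
    refine (((((ha 7).add (hb 7)).add (c457.mul ((ha 4).mul (hb 5)))).add
      ((c457.mul c234).mul ((ha 2).mul ((ha 3).mul (hb 5))))).add
      (c367.mul ((ha 3).mul (hb 6)))).mono hη ?_
    nlinarith
  · simp only [compC, Matrix.cons_val, Fin.reduceFinMk]
    exact ((ha 8).add (hb 8)).mono hη (by linarith)
  · simp only [compC, Matrix.cons_val, Fin.reduceFinMk]
    refine (((ha 9).add (hb 9)).add (c289.mul ((ha 2).mul (hb 8)))).mono hη ?_
    nlinarith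
  · simp only [compC, Matrix.cons_val, Fin.reduceFinMk]
    refine (((((ha 10).add (hb 10)).add (c4810.mul ((ha 4).mul (hb 8)))).add
      ((c4810.mul c234).mul ((ha 2).mul ((ha 3).mul (hb 8))))).add
      (c3910.mul ((ha 3).mul (hb 9)))).mono hη ?_
    nlinarith

end Crest.Agent.R136.Ev356
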