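import Crest.Agent.R136.Ev7_356

/-!
# R136: evolution with coefficients `0`, `1` in the windows of helper413 (helper356)

* `QAt W f Ma` : the walls of `Ma` are equalities, the other ones are infinitely far, graded
  normalising constants; `QAt.of_wat` from `Aw413.WAt`.
* `QAt.capp` : the coefficients converge to `chi Ma`.
* **`QAt.evoX`**, **`QAt.compX`** : evolution / composition of `rel` with coefficients `chi Ma`.
-/

set_option autoImplicit false
set_option linter.unusedSectionVars false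
set_option linter.unusedVariables false

open Filter Topology

namespace Crest.Agent.R136.Ev356

open Finset Crest.Agent.R136.NetQ186 Crest.Agent.R136.Net191 Crest.Agent.R136.Qg926
open Crest.Agent.R136.Gf356 Crest.Agent.R136.Ab356
open Crest.Agent.R138.Ex926 (Base U)

variable {ι : ℕ → Type*} [∀ n, DecidableEq (ι n)]

/-- own motion with coefficients `c` -/
noncomputable def ownC (c : Fin 11 → Fin 11 → Fin 11 → ℝ) (W : Wnd 11 ι) (n k₀ k : ℕ)
    (e b : ℝ) : Fin 11 → ℝ := fun s =>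
  if s = 4 then
    (if (4 : Fin 11) ∈ W.S then W.crd n (W.zrep n k₀) (W.zrep n k) 4 + c 2 3 4 *
        (e * mot W n k₀ k 3 + (e + mot W n k₀ k 2) *
          (W.crd n (W.zrep n k₀) (W.zrep n k) 3 - b - mot W n k₀ k 3))
      else 0)
  else mot W n k₀ k s

theorem own_eq (W : Wnd 11 ι) (n k₀ k : ℕ) (e b : ℝ) :
    own W n k₀ k e b = ownC (cf W n) W n k₀ k e b := rfl

theorem evoG_eq (W : Wnd 11 ι) (n : ℕ) (a b : Fin 11 → ℝ) (s : Fin 11) :
    evoG W n a b s = evoC (cf W n) a b s := by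
  unfold evoG
  fin_cases s
  all_goals first
    | rw [if_pos (by decide)]; rfl
    | rw [if_neg (by decide)]; rfl

theorem compN_eq (W : Wnd 11 ι) (n : ℕ) (a b : Fin 11 → ℝ) : compN W n a b = compC (cf W n) a b :=
  rfl

theorem sum_mv (X : Fin 11 → ℝ) (i j : Fin 11) : ∑ s, (mv i j s : ℝ) * X s = X i + X j := by
  unfold mv
  push_cast
  simp only [add_mul, Finset.sum_add_distrib, ite_mul, one_mul, zero_mul, Finset.sum_ite_eq',
    Finset.mem_univ, if_true]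

/-- **the windows of helper413 in the chart of helper186**, graded constants -/
structure QAt (W : Wnd 11 ι) (f : ∀ n, ι n → Fq4) (Ma : Mons 11) : Prop where
  q : QWnd W f
  S0 : (0 : Fin 11) ∈ W.S
  kap : ∀ s, W.kap s = (4 * W.K0) ^ wtQ s
  act : ∀ k, ∀ e ∈ Ma.mon k, ∀ n, W.X n k = ∑ s, (e s : ℝ) * W.X n s
  gap : ∀ k, ∀ e ∈ monQ.mon k, e ∉ Ma.mon k → ∀ R : ℝ, ∀ᶠ n in (U : Filter ℕ),
    W.X n k + R * W.w n ≤ ∑ s, (e s : ℝ) * W.X n s
  r : mv 0 1 ∉ Ma.mon 7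

theorem QAt.of_wat {B : Base} {I : ∀ n, Finset (ι n)} {co : ∀ n, ι n → ι n → Fin 11 → ℝ}
    {Ma : Mons 11} {C : ℝ} {lam : (Fin 11 → ℝ) → ℝ} {V Tw : Fin 11 → Prop} {st : WSt 11}
    {W : Wnd 11 ι} {f : ∀ n, ι n → Fq4} (h : Aw413.WAt B I co monQ Ma C lam V Tw st W)
    (q : QWnd W f) (S0 : (0 : Fin 11) ∈ st.S) (kap : ∀ s, st.kap s = (4 * cK0 monQ C) ^ wtQ s)
    (r : mv 0 1 ∉ Ma.mon 7) : QAt W f Ma where
  q := q
  S0 := by rw [h.eS]; exact S0
  kap := fun s => by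
    rw [h.ekap, kap s]
    unfold Wnd.K0
    rw [h.eM, h.eC]
  act := h.act
  gap := h.gap
  r := r

namespace QAt

variable {W : Wnd 11 ι} {f : ∀ n, ι n → Fq4} {Ma : Mons 11} (h : QAt W f Ma)

include h

theorem K4 : 4 ≤ 4 * W.K0 := by linarith [h.q.ok.K0_one]

theorem kap4 (s : Fin 11) : 4 * W.K0 ≤ W.kap s := by
  rw [h.kap]
  have h1 := h.K4
  have h2 : 1 ≤ wtQ s := by revert s; decide
  exact le_self_pow₀ (by linarith) (by omega)

theorem crd4 {n : ℕ} (g : W.Good n) {u v : ι n} (hu : u ∈ W.Cl n) (hv : v ∈ W.Cl n)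
    (s : Fin 11) : |W.crd n u v s| ≤ 1 / 4 := by
  refine (h.q.crd_le g hu hv s).trans ?_
  have h1 := h.q.ok.kap s
  rw [div_le_div_iff₀ h1 (by norm_num)]
  linarith [h.kap4 s]

theorem kap_mul {i j s : Fin 11} (hw : wtQ s = wtQ i + wtQ j) :
    W.kap i * W.kap j / W.kap s = 1 := by
  have h1 := h.q.ok.kap s
  rw [div_eq_one_iff_eq h1.ne', h.kap, h.kap, h.kap, hw, pow_add]

theorem kap_le {i j s : Fin 11} (hw : wtQ i + wtQ j ≤ wtQ s) :
    W.kap i * W.kap j / W.kap s ≤ 1 := by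
  have h1 := h.q.ok.kap s
  rw [div_le_one h1, h.kap, h.kap, h.kap, ← pow_add]
  exact pow_le_pow_right₀ (by linarith [h.K4]) hw

/-- **limit of one coefficient** -/
theorem cf_ap {i j s : Fin 11} (hm : mv i j ∈ monQ.mon s) (hw : wtQ i + wtQ j ≤ wtQ s)
    (hw' : mv i j ∈ Ma.mon s → wtQ s = wtQ i + wtQ j) (R : ℝ) (hR : 0 ≤ R) :
    ∀ᶠ n in (U : Filter ℕ), Ap (W.B'.d n ^ R) 1 1 (cf W n i j s) (chi Ma i j s) := by
  by_cases ha : mv i j ∈ Ma.mon s
  · have e1 : chi Ma i j s = 1 := if_pos ha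
    refine Eventually.of_forall fun n => ?_
    have hX : W.X n s = W.X n i + W.X n j := by
      have := h.act s _ ha n
      rwa [sum_mv] at this
    have e2 : cf W n i j s = 1 := by rw [h.q.cf_eq hX, h.kap_mul (hw' ha)]
    rw [e1, e2]
    refine ⟨by norm_num, by norm_num, ?_⟩
    rw [sub_self, abs_zero]
    have := Real.rpow_nonneg (W.B'.pos n).le R
    linarith
  · have e1 : chi Ma i j s = 0 := if_neg ha
    filter_upwards [h.gap s _ hm ha R] with n hn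
    rw [sum_mv] at hn
    have h1 := h.q.cf_small hn
    have h2 := h.kap_le hw
    have h3 := h.q.cf_pos n i j s
    have h4 := Real.rpow_nonneg (W.B'.pos n).le R
    have h5 : W.B'.d n ^ R ≤ 1 := Real.rpow_le_one (W.B'.pos n).le (W.B'.lt n).le hR
    have h6 : cf W n i j s ≤ W.B'.d n ^ R := h1.trans (by nlinarith)
    rw [e1]
    refine ⟨by rw [abs_of_pos h3]; linarith, by norm_num, ?_⟩
    rw [sub_zero, abs_of_pos h3, one_mul]
    exact h6

/-- **limits of the coefficients** -/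
theorem capp (R : ℝ) (hR : 0 ≤ R) :
    ∀ᶠ n in (U : Filter ℕ), CApp (W.B'.d n ^ R) 1 (cf W n) (chi Ma) := by
  filter_upwards [
    h.cf_ap (i := 2) (j := 5) (s := 6) (by decide) (by decide) (fun _ => by decide) R hR,
    h.cf_ap (i := 0) (j := 1) (s := 7) (by decide) (by decide) (fun hc => absurd hc h.r) R hR,
    h.cf_ap (i := 4) (j := 5) (s := 7) (by decide) (by decide) (fun _ => by decide) R hR,
    h.cf_ap (i := 3) (j := 6) (s := 7) (by decide) (by decide) (fun _ => by decide) R hR,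
    h.cf_ap (i := 0) (j := 5) (s := 8) (by decide) (by decide) (fun _ => by decide) R hR,
    h.cf_ap (i := 0) (j := 6) (s := 9) (by decide) (by decide) (fun _ => by decide) R hR,
    h.cf_ap (i := 2) (j := 8) (s := 9) (by decide) (by decide) (fun _ => by decide) R hR,
    h.cf_ap (i := 0) (j := 7) (s := 10) (by decide) (by decide) (fun _ => by decide) R hR,
    h.cf_ap (i := 4) (j := 8) (s := 10) (by decide) (by decide) (fun _ => by decide) R hR,
    h.cf_ap (i := 3) (j := 9) (s := 10) (by decide) (by decide) (fun _ => by decide) R hR,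
    h.cf_ap (i := 2) (j := 3) (s := 4) (by decide) (by decide) (fun _ => by decide) R hR]
    with n a1 a2 a3 a4 a5 a6 a7 a8 a9 a10 a11
  exact ⟨a1, a2, a3, a4, a5, a6, a7, a8, a9, a10, a11⟩

variable {E : ∀ n, Finset (ι n)}

/-- bounds in the window -/
theorem bds {n : ℕ} (g : W.Good n) {E0 : Finset (ι n)} (hE : E0 ⊆ W.Cl n) {k₀ k i : ℕ}
    (h1 : (i, k₀) ∈ (W.cfg0 n E0).I) (h2 : (i, k) ∈ (W.cfg0 n E0).I) :
    (∀ s, |mot W n k₀ k s| ≤ 1 / 4) ∧ (∀ s, |fsl W n i k₀ s| ≤ 1 / 4) ∧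
      ∀ s, |W.crd n (W.zrep n k₀) (W.zrep n k) s| ≤ 1 / 4 := by
  have hz : ∀ {i k : ℕ}, (i, k) ∈ (W.cfg0 n E0).I → W.zrep n k ∈ W.Cl n := by
    intro i k hik
    have hk : k ∈ (W.cfg0 n E0).Z := mem_image.2 (by
      obtain ⟨u, hu, -, h6⟩ := mem_cfg0 hik; exact ⟨u, hu, h6⟩)
    exact (zrep_of_mem hE hk).1
  have z1 := hz h1
  have z2 := hz h2
  have r1 := (rep_of_mem hE h1).1
  have h0 : |(0 : ℝ)| ≤ 1 / 4 := by rw [abs_zero]; norm_num
  refine ⟨fun s => ?_, fun s => ?_, fun s => h.crd4 g z1 z2 s⟩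
  · unfold mot; split_ifs
    · exact h.crd4 g z1 z2 s
    · exact h0
  · unfold fsl; split_ifs
    · exact h0
    · exact h.crd4 g z1 r1 s

/-- the own motions with the coefficients `cf` and `chi` are close -/
theorem ownC_ap {n : ℕ} (g : W.Good n) {E0 : Finset (ι n)} (hE : E0 ⊆ W.Cl n) {k₀ k i : ℕ}
    (h1 : (i, k₀) ∈ (W.cfg0 n E0).I) (h2 : (i, k) ∈ (W.cfg0 n E0).I) {η : ℝ} (hη : 0 ≤ η)
    (hc : Ap η 1 1 (cf W n 2 3 4) (chi Ma 2 3 4)) (s : Fin 11) :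
    Ap η 1 1 (ownC (cf W n) W n k₀ k (fsl W n i k₀ 2) (fsl W n i k₀ 3) s)
      (ownC (chi Ma) W n k₀ k (fsl W n i k₀ 2) (fsl W n i k₀ 3) s) := by
  obtain ⟨b1, b2, b3⟩ := h.bds g hE h1 h2
  have hz : Ap η 1 1 (0 : ℝ) 0 := ⟨by simp, by simp, by simpa using hη⟩
  unfold ownC
  by_cases hs : s = 4
  · rw [if_pos hs, if_pos hs]
    split_ifs
    · set P := fsl W n i k₀ 2 * mot W n k₀ k 3 + (fsl W n i k₀ 2 + mot W n k₀ k 2) *
        (W.crd n (W.zrep n k₀) (W.zrep n k) 3 - fsl W n i k₀ 3 - mot W n k₀ k 3) with hP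
      have hPb : |P| ≤ 3 / 4 := by
        rw [hP]
        refine (abs_add_le _ _).trans ?_
        rw [abs_mul, abs_mul]
        have e1 := mul_le_mul (b2 2) (b1 3) (abs_nonneg _) (by norm_num)
        have e2 := (abs_add_le (fsl W n i k₀ 2) (mot W n k₀ k 2)).trans (add_le_add (b2 2) (b1 2))
        have e3 := (abs_sub (W.crd n (W.zrep n k₀) (W.zrep n k) 3 - fsl W n i k₀ 3)
          (mot W n k₀ k 3)).trans (add_le_add ((abs_sub _ _).trans (add_le_add (b3 3) (b2 3)))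
            (b1 3))
        have e4 := mul_le_mul e2 e3 (abs_nonneg _) (by norm_num)
        linarith
      have hb := b3 4
      have key : ∀ c : ℝ, |c| ≤ 1 → |W.crd n (W.zrep n k₀) (W.zrep n k) 4 + c * P| ≤ 1 := by
        intro c hc
        refine (abs_add_le _ _).trans ?_
        rw [abs_mul]
        have := mul_le_mul hc hPb (abs_nonneg _) zero_le_one
        linarith
      refine ⟨key _ hc.l, key _ hc.r, ?_⟩
      have e : W.crd n (W.zrep n k₀) (W.zrep n k) 4 + cf W n 2 3 4 * P -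
          (W.crd n (W.zrep n k₀) (W.zrep n k) 4 + chi Ma 2 3 4 * P) =
          (cf W n 2 3 4 - chi Ma 2 3 4) * P := by ring
      rw [e, abs_mul]
      have := mul_le_mul hc.d hPb (abs_nonneg _) (by linarith)
      linarith
    · exact hz
  · rw [if_neg hs, if_neg hs]
    refine ⟨(b1 s).trans (by norm_num), (b1 s).trans (by norm_num), ?_⟩
    rw [sub_self, abs_zero]; linarith

/-- bound of `rel` -/
theorem rel_le {n : ℕ} (g : W.Good n) {E0 : Finset (ι n)} (hE : E0 ⊆ W.Cl n) {k i l : ℕ}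
    (h1 : (i, k) ∈ (W.cfg0 n E0).I) (h2 : (l, k) ∈ (W.cfg0 n E0).I) (s : Fin 11) :
    |(W.cfg0 n E0).rel k i l s| ≤ 1 / 4 := by
  rw [rel_cfg0]
  split_ifs
  · rw [abs_zero]; norm_num
  · exact h.crd4 g (rep_of_mem hE h1).1 (rep_of_mem hE h2).1 s

/-- **evolution of `rel` with coefficients `0, 1`** -/
theorem evoX (hc : ∀ᶠ n in (U : Filter ℕ), W.Good n ∧ E n ⊆ W.Cl n ∧
      W.cfg E n = W.cfg0 n (E n)) {t : ℝ} (ht0 : 0 ≤ t) (ht : ∀ s, t ≤ W.top s) {ε : ℝ}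
    (hε : 0 < ε) :
    ∀ᶠ n in (U : Filter ℕ), ∀ k₀ k i l, (i, k₀) ∈ (W.cfg E n).I → (i, k) ∈ (W.cfg E n).I →
      (l, k₀) ∈ (W.cfg E n).I → (l, k) ∈ (W.cfg E n).I → ∀ s, s ∉ W.S →
      |(W.cfg E n).rel k i l s -
        evoC (chi Ma) (ownC (chi Ma) W n k₀ k (fsl W n i k₀ 2) (fsl W n i k₀ 3))
          ((W.cfg E n).rel k₀ i l) s| ≤ W.B'.d n ^ (t - ε) := by
  filter_upwards [hc, h.q.evoR hc h.S0 ht, h.capp t ht0,
    Crest.Agent.R136.Gf356.ev_const_le W.B' hε (CE W + 40)] with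
    n hn hev hca hk k₀ k i l h1 h2 h3 h4 s hs
  have e1 := hev k₀ k i l h1 h2 h3 h4 s hs
  obtain ⟨g, hE, hcfg⟩ := hn
  rw [hcfg] at h1 h2 h3 h4 e1 ⊢
  have hη0 : 0 ≤ W.B'.d n ^ t := Real.rpow_nonneg (W.B'.pos n).le t
  have e2 := evoC_lip (M := 1) le_rfl hη0 hca (fun s => h.ownC_ap g hE h1 h2 hη0
    hca.2.2.2.2.2.2.2.2.2.2 s) (b := (W.cfg0 n (E n)).rel k₀ i l)
    (b' := (W.cfg0 n (E n)).rel k₀ i l) (fun s => by
      have := h.rel_le g hE h1 h3 s
      refine ⟨this.trans (by norm_num), this.trans (by norm_num), ?_⟩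
      rw [sub_self, abs_zero]; linarith) s
  rw [evoG_eq, own_eq] at e1
  have e3 := abs_sub_le ((W.cfg0 n (E n)).rel k i l s)
    (evoC (cf W n) (ownC (cf W n) W n k₀ k (fsl W n i k₀ 2) (fsl W n i k₀ 3))
      ((W.cfg0 n (E n)).rel k₀ i l) s)
    (evoC (chi Ma) (ownC (chi Ma) W n k₀ k (fsl W n i k₀ 2) (fsl W n i k₀ 3))
      ((W.cfg0 n (E n)).rel k₀ i l) s)
  have e4 : W.B'.d n ^ (t - ε) = W.B'.d n ^ (-ε) * W.B'.d n ^ t := by
    rw [← Real.rpow_add (W.B'.pos n)]; congr 1; ring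
  have e5 := mul_le_mul_of_nonneg_right hk hη0
  rw [e4]
  nlinarith

/-- **composition of `rel` with coefficients `0, 1`** -/
theorem compX (hc : ∀ᶠ n in (U : Filter ℕ), W.Good n ∧ E n ⊆ W.Cl n ∧
      W.cfg E n = W.cfg0 n (E n)) {t : ℝ} (ht0 : 0 ≤ t) (ht : ∀ s, t ≤ W.top s) {ε : ℝ}
    (hε : 0 < ε) :
    ∀ᶠ n in (U : Filter ℕ), ∀ k i j l, (i, k) ∈ (W.cfg E n).I → (j, k) ∈ (W.cfg E n).I →
      (l, k) ∈ (W.cfg E n).I → ∀ s, s ∉ W.S →
      |(W.cfg E n).rel k i l s -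
        compC (chi Ma) ((W.cfg E n).rel k i j) ((W.cfg E n).rel k j l) s| ≤
        W.B'.d n ^ (t - ε) := by
  filter_upwards [hc, h.q.compR hc h.S0 ht, h.capp t ht0,
    Crest.Agent.R136.Gf356.ev_const_le W.B' hε (CE W + 40)] with
    n hn hev hca hk k i j l h1 h2 h3 s hs
  have e1 := hev k i j l h1 h2 h3 s hs
  obtain ⟨g, hE, hcfg⟩ := hn
  rw [hcfg] at h1 h2 h3 e1 ⊢
  have hη0 : 0 ≤ W.B'.d n ^ t := Real.rpow_nonneg (W.B'.pos n).le t
  have hA : ∀ {i l : ℕ}, (i, k) ∈ (W.cfg0 n (E n)).I → (l, k) ∈ (W.cfg0 n (E n)).I → ∀ s,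
      Ap (W.B'.d n ^ t) 1 1 ((W.cfg0 n (E n)).rel k i l s) ((W.cfg0 n (E n)).rel k i l s) := by
    intro i l hi hl s
    have := h.rel_le g hE hi hl s
    refine ⟨this.trans (by norm_num), this.trans (by norm_num), ?_⟩
    rw [sub_self, abs_zero]; linarith
  have e2 := compC_lip (M := 1) le_rfl hη0 hca (hA h1 h2) (hA h2 h3) s
  rw [compN_eq] at e1
  have e3 := abs_sub_le ((W.cfg0 n (E n)).rel k i l s)
    (compC (cf W n) ((W.cfg0 n (E n)).rel k i j) ((W.cfg0 n (E n)).rel k j l) s)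
    (compC (chi Ma) ((W.cfg0 n (E n)).rel k i j) ((W.cfg0 n (E n)).rel k j l) s)
  have e4 : W.B'.d n ^ (t - ε) = W.B'.d n ^ (-ε) * W.B'.d n ^ t := by
    rw [← Real.rpow_add (W.B'.pos n)]; congr 1; ring
  have e5 := mul_le_mul_of_nonneg_right hk hη0
  rw [e4]
  nlinarith

end QAt

end Crest.Agent.R136.Ev356
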