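import Crest.Agent.R136.NetW6_191

/-!
# R136: evolution in the W-chart (helper938), part 1

`SidesW δ` : the sides satisfy the walls of the W-chart.  `tr_lip` : the substitution
`tr κ h w` is Lipschitz in the frame `h` and in the flag `w` relatively to the sides.
-/

set_option autoImplicit false

namespace Crest.Agent.R136.EvW938

open Crest.Agent.R136.NetW191

/-- the sides satisfy the walls of the W-chart -/
structure SidesW (X : Fin 18 → ℝ) : Prop where
  pos : ∀ s, 0 ≤ X s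
  wall : ∀ k, ∀ l ∈ mlW k, (l.map X).prod ≤ X k

lemma map_mul_prod {ι : Type*} (K : ℝ) (X : ι → ℝ) (l : List ι) :
    (l.map fun i => K * X i).prod = K ^ l.length * (l.map X).prod := by
  induction l with
  | nil => simp
  | cons a l ih =>
    simp only [List.map_cons, List.prod_cons, List.length_cons, ih, pow_succ]
    ring

lemma prod_nonneg' {ι : Type*} {X : ι → ℝ} (hX : ∀ i, 0 ≤ X i) (l : List ι) :
    0 ≤ (l.map X).prod := by
  induction l with
  | nil => simp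
  | cons a l ih => simpa using mul_nonneg (hX a) ih

/-- products of close frames are close -/
lemma prod_lip {h h' X : Fin 4 → ℝ} {K τ : ℝ} (hK : 0 ≤ K) (hX : ∀ i, 0 ≤ X i)
    (h1 : ∀ i, |h i| ≤ K * X i) (h2 : ∀ i, |h' i| ≤ K * X i)
    (h3 : ∀ i, |h i - h' i| ≤ K * τ * X i) (hτ : 0 ≤ τ) (l : List (Fin 4)) :
    |(l.map h).prod - (l.map h').prod| ≤ l.length * K ^ l.length * τ * (l.map X).prod := by
  induction l with
  | nil => simp
  | cons a l ih =>
    simp only [List.map_cons, List.prod_cons, List.length_cons]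
    have hP : |(l.map h).prod| ≤ K ^ l.length * (l.map X).prod := by
      rw [← map_mul_prod]
      exact abs_prod_le h1 l
    have hX0 := prod_nonneg' hX l
    have hKl : 0 ≤ K ^ l.length := pow_nonneg hK _
    have e : h a * (l.map h).prod - h' a * (l.map h').prod =
        (h a - h' a) * (l.map h).prod + h' a * ((l.map h).prod - (l.map h').prod) := by ring
    rw [e]
    have g1 : |(h a - h' a) * (l.map h).prod| ≤
        (K * τ * X a) * (K ^ l.length * (l.map X).prod) := by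
      rw [abs_mul]
      exact mul_le_mul (h3 a) hP (abs_nonneg _) (by have := hX a; positivity)
    have g2 : |h' a * ((l.map h).prod - (l.map h').prod)| ≤
        (K * X a) * (l.length * K ^ l.length * τ * (l.map X).prod) := by
      rw [abs_mul]
      exact mul_le_mul (h2 a) ih (abs_nonneg _) (by have := hX a; positivity)
    refine (abs_add_le _ _).trans ((add_le_add g1 g2).trans (le_of_eq ?_))
    push_cast
    ring

lemma hl_len : ∀ q, ∀ t ∈ tms q, t.hl.length ≤ 6 := by decide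

/-- one term -/
lemma ev_lip {κ : ℝ} (hκ : |κ| ≤ 1) {h h' : Fin 4 → ℝ} {w w' : Fin 14 → ℝ} {X : Fin 18 → ℝ}
    {K τ : ℝ} (hK : 1 ≤ K) (hτ : 0 ≤ τ) (hX : ∀ i, 0 ≤ X i)
    (h1 : ∀ i : Fin 4, |h i| ≤ K * X (Fin.castAdd 14 i))
    (h2 : ∀ i : Fin 4, |h' i| ≤ K * X (Fin.castAdd 14 i))
    (h3 : ∀ i : Fin 4, |h i - h' i| ≤ K * τ * X (Fin.castAdd 14 i))
    (w1 : ∀ q : Fin 14, |w q| ≤ K * X (Fin.natAdd 4 q))
    (w3 : ∀ q : Fin 14, |w q - w' q| ≤ K * τ * X (Fin.natAdd 4 q))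
    (t : Tm) (ht : t.hl.length ≤ 6) :
    |t.ev κ h w - t.ev κ h' w'| ≤ |(t.n : ℝ)| * (7 * K ^ 7 * τ * (t.idx.map X).prod) := by
  have e1 : (t.idx.map X).prod =
      (t.hl.map fun i => X (Fin.castAdd 14 i)).prod * X (Fin.natAdd 4 t.s) := by
    simp [Tm.idx, List.map_append, List.prod_append, Function.comp_def]
  have hK0 : 0 ≤ K := by linarith
  set Y : Fin 4 → ℝ := fun i => X (Fin.castAdd 14 i) with hY
  have hYn : ∀ i, 0 ≤ Y i := fun i => hX _
  have hP0 := prod_nonneg' hYn t.hl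
  have p1 := prod_lip (X := Y) hK0 hYn h1 h2 h3 hτ t.hl
  have p2 : |(t.hl.map h').prod| ≤ K ^ t.hl.length * (t.hl.map Y).prod := by
    rw [← map_mul_prod]; exact abs_prod_le h2 t.hl
  have hW0 := hX (Fin.natAdd 4 t.s)
  set W := X (Fin.natAdd 4 t.s) with hW
  set P := (t.hl.map Y).prod with hP
  have hk : |κ| ^ t.e ≤ 1 := pow_le_one₀ (abs_nonneg _) hκ
  have e2 : t.ev κ h w - t.ev κ h' w' = ((t.n : ℝ) * κ ^ t.e) *
      (((t.hl.map h).prod - (t.hl.map h').prod) * w t.s +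
        (t.hl.map h').prod * (w t.s - w' t.s)) := by
    unfold Tm.ev; ring
  rw [e2, abs_mul, abs_mul, abs_pow, e1]
  have q1 : |((t.hl.map h).prod - (t.hl.map h').prod) * w t.s| ≤
      (t.hl.length * K ^ t.hl.length * τ * P) * (K * W) := by
    rw [abs_mul]
    exact mul_le_mul p1 (w1 _) (abs_nonneg _) (by positivity)
  have q2 : |(t.hl.map h').prod * (w t.s - w' t.s)| ≤ (K ^ t.hl.length * P) * (K * τ * W) := by
    rw [abs_mul]
    exact mul_le_mul p2 (w3 _) (abs_nonneg _) (by positivity)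
  have q3 : |((t.hl.map h).prod - (t.hl.map h').prod) * w t.s +
        (t.hl.map h').prod * (w t.s - w' t.s)| ≤ 7 * K ^ 7 * τ * (P * W) := by
    refine (abs_add_le _ _).trans ((add_le_add q1 q2).trans ?_)
    have l1 : ((t.hl.length : ℝ) + 1) ≤ 7 := by
      have : (t.hl.length : ℝ) ≤ 6 := by exact_mod_cast ht
      linarith
    have l2 : K ^ (t.hl.length + 1) ≤ K ^ 7 := pow_le_pow_right₀ hK (by omega)
    have l3 : ((t.hl.length : ℝ) + 1) * K ^ (t.hl.length + 1) ≤ 7 * K ^ 7 :=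
      mul_le_mul l1 l2 (by positivity) (by norm_num)
    have l4 : 0 ≤ τ * (P * W) := by positivity
    calc (t.hl.length * K ^ t.hl.length * τ * P) * (K * W) + (K ^ t.hl.length * P) * (K * τ * W)
        = (((t.hl.length : ℝ) + 1) * K ^ (t.hl.length + 1)) * (τ * (P * W)) := by
          rw [pow_succ]; ring
      _ ≤ (7 * K ^ 7) * (τ * (P * W)) := mul_le_mul_of_nonneg_right l3 l4
      _ = _ := by ring
  have q4 : |(t.n : ℝ)| * |κ| ^ t.e ≤ |(t.n : ℝ)| := by
    have := mul_le_mul_of_nonneg_left hk (abs_nonneg (t.n : ℝ))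
    linarith
  exact mul_le_mul q4 q3 (abs_nonneg _) (abs_nonneg _)

lemma sum_lip {κ : ℝ} (hκ : |κ| ≤ 1) {h h' : Fin 4 → ℝ} {w w' : Fin 14 → ℝ} {X : Fin 18 → ℝ}
    {K τ : ℝ} (hK : 1 ≤ K) (hτ : 0 ≤ τ) (hX : ∀ i, 0 ≤ X i)
    (h1 : ∀ i : Fin 4, |h i| ≤ K * X (Fin.castAdd 14 i))
    (h2 : ∀ i : Fin 4, |h' i| ≤ K * X (Fin.castAdd 14 i))
    (h3 : ∀ i : Fin 4, |h i - h' i| ≤ K * τ * X (Fin.castAdd 14 i))
    (w1 : ∀ q : Fin 14, |w q| ≤ K * X (Fin.natAdd 4 q))
    (w3 : ∀ q : Fin 14, |w q - w' q| ≤ K * τ * X (Fin.natAdd 4 q))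
    {S : ℝ} (L : List Tm) (hlen : ∀ t ∈ L, t.hl.length ≤ 6)
    (hL : ∀ t ∈ L, (t.idx.map X).prod ≤ S) :
    |(L.map (Tm.ev κ h w)).sum - (L.map (Tm.ev κ h' w')).sum| ≤
      (((L.map fun t => t.n.natAbs).sum : ℕ) : ℝ) * (7 * K ^ 7 * τ * S) := by
  induction L with
  | nil => simp
  | cons a L ih =>
    simp only [List.map_cons, List.sum_cons, Nat.cast_add]
    have g1 := ih (fun t ht => hlen t (List.mem_cons_of_mem _ ht))
      (fun t ht => hL t (List.mem_cons_of_mem _ ht))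
    have g2 := ev_lip hκ hK hτ hX h1 h2 h3 w1 w3 a (hlen a List.mem_cons_self)
    have g3 : 7 * K ^ 7 * τ * (a.idx.map X).prod ≤ 7 * K ^ 7 * τ * S :=
      mul_le_mul_of_nonneg_left (hL a List.mem_cons_self) (by
        have : 0 ≤ K := by linarith
        positivity)
    have g4 : ((a.n.natAbs : ℕ) : ℝ) = |(a.n : ℝ)| := by
      rw [Nat.cast_natAbs, Int.cast_abs]
    rw [g4, add_mul]
    have e : Tm.ev κ h w a + (L.map (Tm.ev κ h w)).sum -
        (Tm.ev κ h' w' a + (L.map (Tm.ev κ h' w')).sum) =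
        (Tm.ev κ h w a - Tm.ev κ h' w' a) +
          ((L.map (Tm.ev κ h w)).sum - (L.map (Tm.ev κ h' w')).sum) := by ring
    rw [e]
    refine (abs_add_le _ _).trans (add_le_add (g2.trans ?_) g1)
    exact mul_le_mul_of_nonneg_left g3 (abs_nonneg _)

/-- **the substitution is Lipschitz** -/
theorem tr_lip {κ : ℝ} (hκ : |κ| ≤ 1) {h h' : Fin 4 → ℝ} {w w' : Fin 14 → ℝ} {X : Fin 18 → ℝ}
    (hX : SidesW X) {K τ : ℝ} (hK : 1 ≤ K) (hτ : 0 ≤ τ)
    (h1 : ∀ i : Fin 4, |h i| ≤ K * X (Fin.castAdd 14 i))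
    (h2 : ∀ i : Fin 4, |h' i| ≤ K * X (Fin.castAdd 14 i))
    (h3 : ∀ i : Fin 4, |h i - h' i| ≤ K * τ * X (Fin.castAdd 14 i))
    (w1 : ∀ q : Fin 14, |w q| ≤ K * X (Fin.natAdd 4 q))
    (w3 : ∀ q : Fin 14, |w q - w' q| ≤ K * τ * X (Fin.natAdd 4 q)) (q : Fin 14) :
    |tr κ h w q - tr κ h' w' q| ≤ 470 * K ^ 7 * τ * X (Fin.natAdd 4 q) := by
  have hK0 : 0 ≤ K := by linarith
  have hS : ∀ t ∈ tms q, (t.idx.map X).prod ≤ X (Fin.natAdd 4 q) := by
    intro t ht
    refine hX.wall _ _ ?_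
    rw [mlW_right]
    exact List.mem_map_of_mem ht
  have g := sum_lip hκ hK hτ hX.pos h1 h2 h3 w1 w3 (tms q) (hl_len q) hS
  have g2 : ((((tms q).map fun t => t.n.natAbs).sum : ℕ) : ℝ) ≤ 67 := by
    exact_mod_cast tms_sum q
  have hq := hX.pos (Fin.natAdd 4 q)
  have g3 : 0 ≤ 7 * K ^ 7 * τ * X (Fin.natAdd 4 q) := by positivity
  have g4 := g.trans (mul_le_mul_of_nonneg_right g2 g3)
  rw [tr_tms κ h w q, tr_tms κ h' w' q]
  have e : w q + ((tms q).map (Tm.ev κ h w)).sum - (w' q + ((tms q).map (Tm.ev κ h' w')).sum) =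
      (w q - w' q) + (((tms q).map (Tm.ev κ h w)).sum - ((tms q).map (Tm.ev κ h' w')).sum) := by
    ring
  rw [e]
  refine (abs_add_le _ _).trans ((add_le_add (w3 q) g4).trans ?_)
  have g5 : K * τ * X (Fin.natAdd 4 q) ≤ K ^ 7 * τ * X (Fin.natAdd 4 q) := by
    have : K ≤ K ^ 7 := by
      calc K = K ^ 1 := (pow_one K).symm
        _ ≤ K ^ 7 := pow_le_pow_right₀ hK (by norm_num)
    have h6 : 0 ≤ τ * X (Fin.natAdd 4 q) := by positivity
    have := mul_le_mul_of_nonneg_right this h6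
    linarith
  have e2 : 67 * (7 * K ^ 7 * τ * X (Fin.natAdd 4 q)) =
      469 * (K ^ 7 * τ * X (Fin.natAdd 4 q)) := by ring
  rw [e2]
  linarith

/-- the substitution is bounded -/
theorem tr_size {κ : ℝ} (hκ : |κ| ≤ 1) {h : Fin 4 → ℝ} {w : Fin 14 → ℝ} {X : Fin 18 → ℝ}
    (hX : SidesW X) {K : ℝ} (hK : 1 ≤ K)
    (h1 : ∀ i : Fin 4, |h i| ≤ K * X (Fin.castAdd 14 i))
    (w1 : ∀ q : Fin 14, |w q| ≤ K * X (Fin.natAdd 4 q)) (q : Fin 14) :
    |tr κ h w q| ≤ 470 * K ^ 7 * X (Fin.natAdd 4 q) := by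
  have := tr_lip (h' := h) (w' := 0) hκ hX hK zero_le_one h1 h1
    (fun i => by
      have := hX.pos (Fin.castAdd 14 i)
      rw [sub_self, abs_zero]
      have : 0 ≤ K := by linarith
      positivity)
    w1 (fun q => by rw [Pi.zero_apply, sub_zero, mul_one]; exact w1 q) q
  rwa [tr_zero, Pi.zero_apply, sub_zero, mul_one] at this

end Crest.Agent.R136.EvW938
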