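import Crest.Agent.R136.NetW3_191

/-!
# The W-chart (helper191), part 6: evolution along the lines

Two flagged lines `i, j` at height `z` and the same two lines `k = i'`, `l = j'` at height `z + u`.
`evol` : relative flag at `z + u` = shift of the relative flag at `z` + own rotation of `j`
- own rotation of `i` read at the position of `j`.  `evol_N, evol_P, evol_R` : the heights.
-/

set_option autoImplicit false
set_option linter.unusedSimpArgs false

namespace Crest.Agent.R136.NetW191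

/-- shift of the height -/
def sh (u : ℝ) : Fin 4 → ℝ := ![u, 0, 0, 0]

lemma sh0 (u : ℝ) : sh u 0 = u := rfl
lemma sh1 (u : ℝ) : sh u 1 = 0 := rfl
lemma sh2 (u : ℝ) : sh u 2 = 0 := rfl
lemma sh3 (u : ℝ) : sh u 3 = 0 := rfl

lemma tr_sub (κ : ℝ) (h : Fin 4 → ℝ) (v w : Fin 14 → ℝ) :
    tr κ h (v - w) = tr κ h v - tr κ h w := by
  have := tr_add κ h (v - w) w
  rw [sub_add_cancel] at this
  rw [this, add_sub_cancel_right]

/-- **evolution of the relative flag** -/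
theorem evol (κ : ℝ) (fi fk fj fl : FW) :
    tr κ fl.g (fl.G - fk.G) = tr κ fl.g (fl.G - fj.G) +
      tr κ (rel κ fj.g fl.g) (tr κ fj.g (fj.G - fi.G)) -
      tr κ (rel κ fk.g fl.g) (tr κ fk.g (fk.G - fi.G)) := by
  rw [← tr_mul, mul_rel, ← tr_mul, mul_rel, ← tr_add, ← tr_sub]
  congr 1
  abel

/-- the frame of the same null line at the height `z + u` -/
lemma rel_of_mul {κ : ℝ} {g g' h : Fin 4 → ℝ} (hg : g' = mul κ g h) : rel κ g g' = h := by
  subst hg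
  funext k
  fin_cases k <;> simp [mul, rel] <;> ring

/-- relative frame after shifts of both lines by the same `u` -/
lemma rel_shift (κ u : ℝ) (g g' : Fin 4 → ℝ) :
    rel κ (mul κ g (sh u)) (mul κ g' (sh u)) = ![rel κ g g' 0, rel κ g g' 1,
      rel κ g g' 2 + u * rel κ g g' 1, rel κ g g' 3 - κ * u * rel κ g g' 1 ^ 2] := by
  funext k
  fin_cases k <;> simp [mul, rel, sh] <;> ring

section

variable (κ u : ℝ) (w : Fin 14 → ℝ)

/-- shifted heights -/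
lemma tr_sh13 : tr κ (sh u) w 13 = w 13 + u * w 12 + u ^ 2 * w 9 := by
  simp only [tr13, sh0, sh1, sh2, sh3]; ring

lemma tr_sh12 : tr κ (sh u) w 12 = w 12 + 2 * u * w 9 := by
  simp only [tr12, sh0, sh1, sh2, sh3]; ring

lemma tr_sh9 : tr κ (sh u) w 9 = w 9 := by
  simp only [tr9, sh0, sh1, sh2, sh3]; ring

lemma tr_sh11 : tr κ (sh u) w 11 = w 11 + u * w 8 := by
  simp only [tr11, sh0, sh1, sh2, sh3]; ring

lemma tr_sh10 : tr κ (sh u) w 10 = w 10 + u * w 7 + u ^ 2 * w 4 := by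
  simp only [tr10, sh0, sh1, sh2, sh3]; ring

lemma tr_sh8 : tr κ (sh u) w 8 = w 8 := by
  simp only [tr8, sh0, sh1, sh2, sh3]; ring

lemma tr_sh7 : tr κ (sh u) w 7 = w 7 + 2 * u * w 4 := by
  simp only [tr7, sh0, sh1, sh2, sh3]; ring

lemma tr_sh6 : tr κ (sh u) w 6 = w 6 + κ * u * w 4 := by
  simp only [tr6, sh0, sh1, sh2, sh3]; ring

lemma tr_sh5 : tr κ (sh u) w 5 = w 5 + u * w 2 := by
  simp only [tr5, sh0, sh1, sh2, sh3]; ring

lemma tr_sh4 : tr κ (sh u) w 4 = w 4 := by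
  simp only [tr4, sh0, sh1, sh2, sh3]; ring

lemma tr_sh3 : tr κ (sh u) w 3 = w 3 + u * w 1 + u ^ 2 * w 0 := by
  simp only [tr3, sh0, sh1, sh2, sh3]; ring

lemma tr_sh2 : tr κ (sh u) w 2 = w 2 := by
  simp only [tr2, sh0, sh1, sh2, sh3]; ring

lemma tr_sh1 : tr κ (sh u) w 1 = w 1 + 2 * u * w 0 := by
  simp only [tr1, sh0]

lemma tr_sh0 : tr κ (sh u) w 0 = w 0 := by
  simp only [tr0]

end

/-- value of a flag (with vanishing weight-0 part) at a line in the same height -/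
theorem tr13_flat {κ : ℝ} {h : Fin 4 → ℝ} {v : Fin 14 → ℝ} (h0 : h 0 = 0) (v9 : v 9 = 0)
    (v12 : v 12 = 0) (v13 : v 13 = 0) : tr κ h v 13 = v 11 * h 2 + v 10 * h 3 + v 6 * h 2 ^ 2 +
      v 5 * (h 2 * h 3) + v 3 * h 3 ^ 2 + v 2 * (h 2 * (κ * h 2 ^ 2)) +
      v 1 * (h 3 * (κ * h 2 ^ 2)) + v 0 * (κ * h 2 ^ 2) ^ 2 := by
  simp only [tr13, h0, v9, v12, v13]; ring

/-- **height `N` at `z + u`** : `fi, fj` at `z`, `fk, fl` = the same lines at `z + u`; `w` = relative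
flag at `z`, `vi` / `vj` = own rotations of `i`, `j` (they contain their lines: slots 9, 12, 13
vanish), `h` = relative frame at `z + u`. -/
theorem evol_N {κ u : ℝ} {fi fk fj fl : FW} (hl : fl.g = mul κ fj.g (sh u))
    (hj : tr κ fl.g (fl.G - fj.G) 13 = 0) :
    tr κ fl.g (fl.G - fk.G) 13 = tr κ fj.g (fj.G - fi.G) 13 + u * tr κ fj.g (fj.G - fi.G) 12 +
      u ^ 2 * tr κ fj.g (fj.G - fi.G) 9 -
      tr κ (rel κ fk.g fl.g) (tr κ fk.g (fk.G - fi.G)) 13 := by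
  rw [evol κ fi fk fj fl, Pi.sub_apply, Pi.add_apply, hj, rel_of_mul hl, tr_sh13]
  ring

/-- **slope `P` at `z + u`** -/
theorem evol_P {κ u : ℝ} {fi fk fj fl : FW} (hl : fl.g = mul κ fj.g (sh u))
    (hj : tr κ fl.g (fl.G - fj.G) 12 = 0) :
    tr κ fl.g (fl.G - fk.G) 12 = tr κ fj.g (fj.G - fi.G) 12 +
      2 * u * tr κ fj.g (fj.G - fi.G) 9 -
      tr κ (rel κ fk.g fl.g) (tr κ fk.g (fk.G - fi.G)) 12 := by
  rw [evol κ fi fk fj fl, Pi.sub_apply, Pi.add_apply, hj, rel_of_mul hl, tr_sh12]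
  ring

/-- **curvature `R` at `z + u`** -/
theorem evol_R {κ u : ℝ} {fi fk fj fl : FW} (hl : fl.g = mul κ fj.g (sh u))
    (hj : tr κ fl.g (fl.G - fj.G) 9 = 0) :
    tr κ fl.g (fl.G - fk.G) 9 = tr κ fj.g (fj.G - fi.G) 9 -
      tr κ (rel κ fk.g fl.g) (tr κ fk.g (fk.G - fi.G)) 9 := by
  rw [evol κ fi fk fj fl, Pi.sub_apply, Pi.add_apply, hj, rel_of_mul hl, tr_sh9]
  ring

end Crest.Agent.R136.NetW191
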