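import Crest.Agent.R136.EvW1_938
import Crest.Agent.R136.NetW6_191

/-!
# R136: evolution in the W-chart (helper938), part 2: FAT lines

Four incidences `x, x'` (same fat line), `y, y'` (same fat line), `x, y` at the same height,
`x', y'` at the same height.  `S` = level slots (`z` and any flag slots).
`|coW x' y' s - evoW (coW x x') (coW x y) s| ≤ CW K * τ * X s` for `s ∉ S`.
-/

set_option autoImplicit false

namespace Crest.Agent.R136.EvW938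

open Crest.Agent.R136.NetW191

/-- frame part of a coordinate vector -/
def frm (a : Fin 18 → ℝ) : Fin 4 → ℝ := fun i => a (Fin.castAdd 14 i)

/-- flag part of a coordinate vector -/
def flg (a : Fin 18 → ℝ) : Fin 14 → ℝ := fun q => a (Fin.natAdd 4 q)

/-- the flag with the slots in `S` put to zero -/
def offS (S : Finset (Fin 18)) (w : Fin 14 → ℝ) : Fin 14 → ℝ :=
  fun q => if Fin.natAdd 4 q ∈ S then 0 else w q

/-- the flag with the slots outside `S` put to zero -/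
def onS (S : Finset (Fin 18)) (w : Fin 14 → ℝ) : Fin 14 → ℝ :=
  fun q => if Fin.natAdd 4 q ∈ S then w q else 0

/-- relative frame after a motion by `u` -/
def frE (κ u : ℝ) (b : Fin 18 → ℝ) : Fin 4 → ℝ :=
  ![0, b 1, b 2 + u * b 1, b 3 - κ * u * b 1 ^ 2]

/-- **right-hand side of the evolution**: `a = coW x x'` (own motion), `b = coW x y` -/
def evoW (κ : ℝ) (S : Finset (Fin 18)) (a b : Fin 18 → ℝ) : Fin 18 → ℝ :=
  Fin.append (m := 4) (n := 14) (frE κ (a 0) b)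
    (tr κ (sh (a 0)) (offS S (flg b)) - tr κ (frE κ (a 0) b) (onS S (flg a)))

/-- the constant of the evolution -/
def CW (K : ℝ) : ℝ := 941 * (9 * K ^ 3) ^ 7

lemma frm_coW (κ : ℝ) (f f' : FW) : frm (coW κ f f') = rel κ f.g f'.g :=
  funext fun i => coW_left κ f f' i

lemma flg_coW (κ : ℝ) (f f' : FW) : flg (coW κ f f') = tr κ f'.g (f'.G - f.G) :=
  funext fun q => coW_right κ f f' q

/-- relation of the frames -/
lemma frame_id (κ : ℝ) (x x' y y' : FW) :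
    mul κ (frm (coW κ x x')) (frm (coW κ x' y')) = mul κ (frm (coW κ x y)) (frm (coW κ y y')) := by
  rw [frm_coW, frm_coW, frm_coW, frm_coW, rel_rel, rel_rel]

/-- relation of the flags -/
lemma flag_id (κ : ℝ) (x x' y y' : FW) (q : Fin 14) :
    coW κ x' y' (Fin.natAdd 4 q) = coW κ y y' (Fin.natAdd 4 q) +
      tr κ (frm (coW κ y y')) (flg (coW κ x y)) q -
      tr κ (frm (coW κ x' y')) (flg (coW κ x x')) q := by
  rw [coW_right, coW_right, frm_coW, frm_coW, flg_coW, flg_coW]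
  exact congrFun (evol κ x x' y y') q

section

variable {κ : ℝ} {S : Finset (Fin 18)} {X : Fin 18 → ℝ} {K τ : ℝ} {a b e r : Fin 18 → ℝ}

lemma CW_pos (hK : 1 ≤ K) : 0 < CW K := by
  have : 0 < K := by linarith
  unfold CW
  positivity

lemma walls_frame (hX : SidesW X) : X 1 * X 0 ≤ X 2 ∧ X 1 * X 2 ≤ X 3 ∧ X 1 * (X 1 * X 0) ≤ X 3 := by
  have h2 := hX.wall 2 [1, 0] (by decide)
  have h3 := hX.wall 3 [1, 2] (by decide)
  have h4 := hX.wall 3 [1, 1, 0] (by decide)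
  simp only [List.map_cons, List.map_nil, List.prod_cons, List.prod_nil, mul_one] at h2 h3 h4
  exact ⟨h2, h3, h4⟩

lemma bm {x y K L P Q D : ℝ} (hx : |x| ≤ K * P) (hy : |y| ≤ L * Q) (hK : 0 ≤ K)
    (hL : 0 ≤ L) (hP : 0 ≤ P) (hD : P * Q ≤ D) : |x * y| ≤ (K * L) * D := by
  rw [abs_mul]
  calc |x| * |y| ≤ (K * P) * (L * Q) := mul_le_mul hx hy (abs_nonneg _) (by positivity)
    _ = (K * L) * (P * Q) := by ring
    _ ≤ _ := mul_le_mul_of_nonneg_left hD (by positivity)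

set_option maxHeartbeats 1000000 in
/-- the frame at the new height -/
theorem frame_lip (hκ : |κ| ≤ 1) (hX : SidesW X) (hK : 1 ≤ K) (hτ : 0 ≤ τ)
    (hid : mul κ (frm a) (frm r) = mul κ (frm b) (frm e))
    (ha : ∀ s, |a s| ≤ K * X s) (hb : ∀ s, |b s| ≤ K * X s) (hr : ∀ s, |r s| ≤ K * X s)
    (a1 : |a 1| ≤ K * τ * X 1) (a2 : |a 2| ≤ K * τ * X 2) (a3 : |a 3| ≤ K * τ * X 3)
    (e1 : |e 1| ≤ K * τ * X 1) (e2 : |e 2| ≤ K * τ * X 2) (e3 : |e 3| ≤ K * τ * X 3)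
    (b0 : |b 0| ≤ K * τ * X 0) (r0 : |r 0| ≤ K * τ * X 0) :
    (∀ i : Fin 4, |frm r i - frE κ (a 0) b i| ≤ 9 * K ^ 3 * τ * X (Fin.castAdd 14 i)) ∧
    (∀ i : Fin 4, |frm e i - sh (a 0) i| ≤ 9 * K ^ 3 * τ * X (Fin.castAdd 14 i)) ∧
    (∀ i : Fin 4, |frE κ (a 0) b i| ≤ 9 * K ^ 3 * X (Fin.castAdd 14 i)) ∧
    (∀ i : Fin 4, |sh (a 0) i| ≤ 9 * K ^ 3 * X (Fin.castAdd 14 i)) := by
  obtain ⟨w2, w3, w4⟩ := walls_frame hX
  have X0 := hX.pos 0
  have X1 := hX.pos 1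
  have X2 := hX.pos 2
  have X3 := hX.pos 3
  have K0 : 0 ≤ K := by linarith
  have K2 : K ≤ K ^ 3 := by nlinarith [mul_nonneg K0 K0]
  have K3 : K ^ 2 ≤ K ^ 3 := by nlinarith [mul_nonneg K0 K0]
  have i0 := congrFun hid 0
  have i1 := congrFun hid 1
  have i2 := congrFun hid 2
  have i3 := congrFun hid 3
  simp only [mul0, mul1, mul2, mul3] at i0 i1 i2 i3
  change a 0 + r 0 = b 0 + e 0 at i0
  change a 1 + r 1 = b 1 + e 1 at i1
  change a 2 + r 2 + a 1 * r 0 = b 2 + e 2 + b 1 * e 0 at i2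
  change a 3 + r 3 - 2 * κ * a 1 * r 2 - κ * a 1 ^ 2 * r 0 =
    b 3 + e 3 - 2 * κ * b 1 * e 2 - κ * b 1 ^ 2 * e 0 at i3
  have hKτ : 0 ≤ K * τ := by positivity
  have eu : |e 0 - a 0| ≤ (2 * K * τ) * X 0 := by
    have h : e 0 - a 0 = r 0 - b 0 := by linarith
    rw [h]
    refine (abs_sub _ _).trans ?_
    linarith
  have kb : ∀ {x D : ℝ}, |x| ≤ D → |κ * x| ≤ D := by
    intro x D h
    rw [abs_mul]
    calc |κ| * |x| ≤ 1 * |x| := mul_le_mul_of_nonneg_right hκ (abs_nonneg _)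
      _ ≤ D := by linarith
  -- products
  have p1 : |b 1 * (e 0 - a 0)| ≤ (K * (2 * K * τ)) * X 2 :=
    bm (hb 1) eu K0 (by positivity) X1 w2
  have p2 : |a 1 * r 0| ≤ (K * τ * K) * X 2 := bm a1 (hr 0) hKτ K0 X1 w2
  have p3 : |b 1 * e 2| ≤ (K * (K * τ)) * X 3 := bm (hb 1) e2 K0 hKτ X1 w3
  have p4 : |b 1 * (b 1 * (e 0 - a 0))| ≤ (K * (K * (2 * K * τ))) * X 3 := by
    refine bm (hb 1) p1 K0 (by positivity) X1 w3
  have p5 : |a 1 * r 2| ≤ (K * τ * K) * X 3 := bm a1 (hr 2) hKτ K0 X1 w3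
  have p6 : |a 1 * (a 1 * r 0)| ≤ (K * (K * τ * K)) * X 3 := by
    refine bm (ha 1) p2 K0 (by positivity) X1 w3
  have p7 : |a 0 * b 1| ≤ (K * K) * X 2 := by
    rw [mul_comm (a 0)]
    exact bm (hb 1) (ha 0) K0 K0 X1 w2
  have p8 : |b 1 * (a 0 * b 1)| ≤ (K * (K * K)) * X 3 := bm (hb 1) p7 K0 (by positivity) X1 w3
  have q1 : K * (2 * K * τ) = 2 * (K ^ 2 * τ) := by ring
  have q2 : K * τ * K = K ^ 2 * τ := by ring
  have q3 : K * (K * τ) = K ^ 2 * τ := by ring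
  have q4 : K * (K * (2 * K * τ)) = 2 * (K ^ 3 * τ) := by ring
  have q5 : K * (K * τ * K) = K ^ 3 * τ := by ring
  rw [q1] at p1
  rw [q2] at p2 p5
  rw [q3] at p3
  rw [q4] at p4
  rw [q5] at p6
  have t1 : ∀ {D : ℝ}, 0 ≤ D → K * τ * D ≤ K ^ 3 * τ * D := fun hD =>
    mul_le_mul_of_nonneg_right (mul_le_mul_of_nonneg_right K2 hτ) hD
  have t2 : ∀ {D : ℝ}, 0 ≤ D → K ^ 2 * τ * D ≤ K ^ 3 * τ * D := fun hD =>
    mul_le_mul_of_nonneg_right (mul_le_mul_of_nonneg_right K3 hτ) hD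
  have s1 : ∀ {D : ℝ}, 0 ≤ D → K * D ≤ K ^ 3 * D := fun hD => mul_le_mul_of_nonneg_right K2 hD
  have s2 : ∀ {D : ℝ}, 0 ≤ D → K * K * D ≤ K ^ 3 * D := fun hD =>
    mul_le_mul_of_nonneg_right (by nlinarith [K3]) hD
  have u0 : ∀ {D : ℝ}, 0 ≤ D → 0 ≤ K ^ 3 * τ * D := fun hD => by positivity
  have v0 : ∀ {D : ℝ}, 0 ≤ D → 0 ≤ K ^ 3 * D := fun hD => by positivity
  have c0 : ∀ x : Fin 18 → ℝ, frm x 0 = x 0 ∧ frm x 1 = x 1 ∧ frm x 2 = x 2 ∧ frm x 3 = x 3 :=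
    fun x => ⟨rfl, rfl, rfl, rfl⟩
  refine ⟨?_, ?_, ?_, ?_⟩
  · intro i
    fin_cases i
    · change |r 0 - 0| ≤ 9 * K ^ 3 * τ * X 0
      rw [sub_zero]
      have := t1 X0
      have := u0 X0
      linarith
    · change |r 1 - b 1| ≤ 9 * K ^ 3 * τ * X 1
      have h : r 1 - b 1 = e 1 - a 1 := by linarith
      rw [h]
      have := abs_sub (e 1) (a 1)
      have := t1 X1
      have := u0 X1
      linarith
    · change |r 2 - (b 2 + a 0 * b 1)| ≤ 9 * K ^ 3 * τ * X 2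
      have h : r 2 - (b 2 + a 0 * b 1) = e 2 + b 1 * (e 0 - a 0) - a 2 - a 1 * r 0 := by
        linear_combination i2
      rw [h]
      have g1 := abs_sub (e 2 + b 1 * (e 0 - a 0) - a 2) (a 1 * r 0)
      have g2 := abs_sub (e 2 + b 1 * (e 0 - a 0)) (a 2)
      have g3 := abs_add_le (e 2) (b 1 * (e 0 - a 0))
      have := t1 X2
      have := t2 X2
      have := u0 X2
      linarith
    · change |r 3 - (b 3 - κ * a 0 * b 1 ^ 2)| ≤ 9 * K ^ 3 * τ * X 3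
      have h : r 3 - (b 3 - κ * a 0 * b 1 ^ 2) = e 3 - a 3 - 2 * (κ * (b 1 * e 2)) -
          κ * (b 1 * (b 1 * (e 0 - a 0))) + 2 * (κ * (a 1 * r 2)) + κ * (a 1 * (a 1 * r 0)) := by
        linear_combination i3
      rw [h]
      have g1 := abs_add_le (e 3 - a 3 - 2 * (κ * (b 1 * e 2)) - κ * (b 1 * (b 1 * (e 0 - a 0))) +
        2 * (κ * (a 1 * r 2))) (κ * (a 1 * (a 1 * r 0)))
      have g2 := abs_add_le (e 3 - a 3 - 2 * (κ * (b 1 * e 2)) - κ * (b 1 * (b 1 * (e 0 - a 0))))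
        (2 * (κ * (a 1 * r 2)))
      have g3 := abs_sub (e 3 - a 3 - 2 * (κ * (b 1 * e 2))) (κ * (b 1 * (b 1 * (e 0 - a 0))))
      have g4 := abs_sub (e 3 - a 3) (2 * (κ * (b 1 * e 2)))
      have g5 := abs_sub (e 3) (a 3)
      have f1 := kb p3
      have f2 := kb p4
      have f3 := kb p5
      have f4 := kb p6
      rw [abs_mul 2, abs_two] at g2 g4
      have := t1 X3
      have := t2 X3
      have := u0 X3
      linarith
  · intro i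
    fin_cases i
    · change |e 0 - a 0| ≤ 9 * K ^ 3 * τ * X 0
      have := t1 X0
      have := u0 X0
      linarith
    · change |e 1 - 0| ≤ 9 * K ^ 3 * τ * X 1
      rw [sub_zero]
      have := t1 X1
      have := u0 X1
      linarith
    · change |e 2 - 0| ≤ 9 * K ^ 3 * τ * X 2
      rw [sub_zero]
      have := t1 X2
      have := u0 X2
      linarith
    · change |e 3 - 0| ≤ 9 * K ^ 3 * τ * X 3
      rw [sub_zero]
      have := t1 X3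
      have := u0 X3
      linarith
  · intro i
    fin_cases i
    · change |(0 : ℝ)| ≤ 9 * K ^ 3 * X 0
      rw [abs_zero]
      positivity
    · change |b 1| ≤ 9 * K ^ 3 * X 1
      have := hb 1
      have := s1 X1
      have := v0 X1
      linarith
    · change |b 2 + a 0 * b 1| ≤ 9 * K ^ 3 * X 2
      have := hb 2
      have := s1 X2
      have := s2 X2
      have := v0 X2
      have := abs_add_le (b 2) (a 0 * b 1)
      linarith
    · change |b 3 - κ * a 0 * b 1 ^ 2| ≤ 9 * K ^ 3 * X 3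
      have h : b 3 - κ * a 0 * b 1 ^ 2 = b 3 - κ * (b 1 * (a 0 * b 1)) := by ring
      rw [h]
      have g1 := abs_sub (b 3) (κ * (b 1 * (a 0 * b 1)))
      have g2 := kb p8
      have q6 : K * (K * K) = K ^ 3 := by ring
      rw [q6] at g2
      have := hb 3
      have := s1 X3
      have := v0 X3
      linarith
  · intro i
    fin_cases i
    · change |a 0| ≤ 9 * K ^ 3 * X 0
      have := ha 0
      have := s1 X0
      have := v0 X0
      linarith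
    · change |(0 : ℝ)| ≤ 9 * K ^ 3 * X 1
      rw [abs_zero]
      positivity
    · change |(0 : ℝ)| ≤ 9 * K ^ 3 * X 2
      rw [abs_zero]
      positivity
    · change |(0 : ℝ)| ≤ 9 * K ^ 3 * X 3
      rw [abs_zero]
      positivity

/-- **flags of both lines, abstract form** (all flag slots, also level slots) -/
theorem flag_abs (hκ : |κ| ≤ 1) (h0 : 0 ∈ S) (h1 : 1 ∉ S) (h2 : 2 ∉ S) (h3 : 3 ∉ S)
    (hX : SidesW X) (hK : 1 ≤ K) (hτ : 0 ≤ τ)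
    (hid : mul κ (frm a) (frm r) = mul κ (frm b) (frm e))
    (hfl : ∀ q : Fin 14, r (Fin.natAdd 4 q) = e (Fin.natAdd 4 q) + tr κ (frm e) (flg b) q -
      tr κ (frm r) (flg a) q)
    (ha : ∀ s, |a s| ≤ K * X s) (hb : ∀ s, |b s| ≤ K * X s) (he : ∀ s, |e s| ≤ K * X s)
    (hr : ∀ s, |r s| ≤ K * X s)
    (ha' : ∀ s, s ∉ S → |a s| ≤ K * τ * X s) (he' : ∀ s, s ∉ S → |e s| ≤ K * τ * X s)
    (hb' : ∀ s ∈ S, |b s| ≤ K * τ * X s) (hr' : ∀ s ∈ S, |r s| ≤ K * τ * X s) (q : Fin 14) :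
    |r (Fin.natAdd 4 q) - e (Fin.natAdd 4 q) - evoW κ S a b (Fin.natAdd 4 q)| ≤
      940 * ((9 * K ^ 3) ^ 7 * τ * X (Fin.natAdd 4 q)) := by
  have K0 : 0 ≤ K := by linarith
  obtain ⟨f1, f2, f3, f4⟩ := frame_lip hκ hX hK hτ hid ha hb hr (ha' 1 h1) (ha' 2 h2) (ha' 3 h3)
    (he' 1 h1) (he' 2 h2) (he' 3 h3) (hb' 0 h0) (hr' 0 h0)
  have hL : 1 ≤ 9 * K ^ 3 := by
    have := one_le_pow₀ hK (n := 3)
    linarith
  have hKL : K ≤ 9 * K ^ 3 := by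
    have : K ≤ K ^ 3 := by nlinarith [mul_nonneg K0 K0]
    have : 0 ≤ K ^ 3 := by positivity
    linarith
  have L1 : ∀ {x D : ℝ}, 0 ≤ D → |x| ≤ K * D → |x| ≤ 9 * K ^ 3 * D := fun hD h =>
    h.trans (mul_le_mul_of_nonneg_right hKL hD)
  have L2 : ∀ {x D : ℝ}, 0 ≤ D → |x| ≤ K * τ * D → |x| ≤ 9 * K ^ 3 * τ * D := fun hD h =>
    h.trans (mul_le_mul_of_nonneg_right (mul_le_mul_of_nonneg_right hKL hτ) hD)
  set L := 9 * K ^ 3 with hLdef
  have hL0 : 0 ≤ L := by linarith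
  have e1 : evoW κ S a b (Fin.natAdd 4 q) = tr κ (sh (a 0)) (offS S (flg b)) q -
      tr κ (frE κ (a 0) b) (onS S (flg a)) q := Fin.append_right _ _ _
  rw [e1, hfl q]
  have g1 := tr_lip hκ hX hL hτ (h := frm e) (h' := sh (a 0)) (w := flg b)
    (w' := offS S (flg b)) (fun i => L1 (hX.pos _) (he _)) f4 f2
    (fun q => L1 (hX.pos _) (hb _)) (fun q => by
      unfold offS flg
      split_ifs with hq
      · rw [sub_zero]
        exact L2 (hX.pos _) (hb' _ hq)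
      · rw [sub_self, abs_zero]
        have := hX.pos (Fin.natAdd 4 q)
        positivity) q
  have g2 := tr_lip hκ hX hL hτ (h := frm r) (h' := frE κ (a 0) b) (w := flg a)
    (w' := onS S (flg a)) (fun i => L1 (hX.pos _) (hr _)) f3 f1
    (fun q => L1 (hX.pos _) (ha _)) (fun q => by
      unfold onS flg
      split_ifs with hq
      · rw [sub_self, abs_zero]
        have := hX.pos (Fin.natAdd 4 q)
        positivity
      · rw [sub_zero]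
        exact L2 (hX.pos _) (ha' _ hq)) q
  have e2 : e (Fin.natAdd 4 q) + tr κ (frm e) (flg b) q - tr κ (frm r) (flg a) q -
      e (Fin.natAdd 4 q) -
      (tr κ (sh (a 0)) (offS S (flg b)) q - tr κ (frE κ (a 0) b) (onS S (flg a)) q) =
      (tr κ (frm e) (flg b) q - tr κ (sh (a 0)) (offS S (flg b)) q) -
      (tr κ (frm r) (flg a) q - tr κ (frE κ (a 0) b) (onS S (flg a)) q) := by ring
  rw [e2]
  have g4 := abs_sub (tr κ (frm e) (flg b) q -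
    tr κ (sh (a 0)) (offS S (flg b)) q) (tr κ (frm r) (flg a) q -
      tr κ (frE κ (a 0) b) (onS S (flg a)) q)
  have g7 : 470 * L ^ 7 * τ * X (Fin.natAdd 4 q) = 470 * (L ^ 7 * τ * X (Fin.natAdd 4 q)) := by
    ring
  rw [g7] at g1 g2
  linarith

lemma KL7 (hK : 1 ≤ K) : K ≤ (9 * K ^ 3) ^ 7 := by
  have K0 : 0 ≤ K := by linarith
  have hL : 1 ≤ 9 * K ^ 3 := by
    have := one_le_pow₀ hK (n := 3)
    linarith
  have hKL : K ≤ 9 * K ^ 3 := by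
    have : K ≤ K ^ 3 := by nlinarith [mul_nonneg K0 K0]
    have : 0 ≤ K ^ 3 := by positivity
    linarith
  have : (9 * K ^ 3) ^ 1 ≤ (9 * K ^ 3) ^ 7 := pow_le_pow_right₀ hL (by norm_num)
  rw [pow_one] at this
  linarith

/-- **own motion of the second line, abstract form**: level slots -/
theorem own_abs (hκ : |κ| ≤ 1) (h0 : 0 ∈ S) (h1 : 1 ∉ S) (h2 : 2 ∉ S) (h3 : 3 ∉ S)
    (hX : SidesW X) (hK : 1 ≤ K) (hτ : 0 ≤ τ)
    (hid : mul κ (frm a) (frm r) = mul κ (frm b) (frm e))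
    (hfl : ∀ q : Fin 14, r (Fin.natAdd 4 q) = e (Fin.natAdd 4 q) + tr κ (frm e) (flg b) q -
      tr κ (frm r) (flg a) q)
    (ha : ∀ s, |a s| ≤ K * X s) (hb : ∀ s, |b s| ≤ K * X s) (he : ∀ s, |e s| ≤ K * X s)
    (hr : ∀ s, |r s| ≤ K * X s)
    (ha' : ∀ s, s ∉ S → |a s| ≤ K * τ * X s) (he' : ∀ s, s ∉ S → |e s| ≤ K * τ * X s)
    (hb' : ∀ s ∈ S, |b s| ≤ K * τ * X s) (hr' : ∀ s ∈ S, |r s| ≤ K * τ * X s)
    (q : Fin 14) (hq : Fin.natAdd 4 q ∈ S) :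
    |e (Fin.natAdd 4 q) + evoW κ S a b (Fin.natAdd 4 q)| ≤ CW K * τ * X (Fin.natAdd 4 q) := by
  have g := flag_abs hκ h0 h1 h2 h3 hX hK hτ hid hfl ha hb he hr ha' he' hb' hr' q
  have g3 := hr' _ hq
  have g6 : K * τ * X (Fin.natAdd 4 q) ≤ (9 * K ^ 3) ^ 7 * τ * X (Fin.natAdd 4 q) :=
    mul_le_mul_of_nonneg_right (mul_le_mul_of_nonneg_right (KL7 hK) hτ) (hX.pos _)
  have e3 : CW K * τ * X (Fin.natAdd 4 q) =
      941 * ((9 * K ^ 3) ^ 7 * τ * X (Fin.natAdd 4 q)) := by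
    unfold CW
    ring
  rw [e3]
  have e2 : e (Fin.natAdd 4 q) + evoW κ S a b (Fin.natAdd 4 q) = r (Fin.natAdd 4 q) -
      (r (Fin.natAdd 4 q) - e (Fin.natAdd 4 q) - evoW κ S a b (Fin.natAdd 4 q)) := by ring
  rw [e2]
  have g4 := abs_sub (r (Fin.natAdd 4 q))
    (r (Fin.natAdd 4 q) - e (Fin.natAdd 4 q) - evoW κ S a b (Fin.natAdd 4 q))
  linarith

/-- **evolution, abstract form** -/
theorem evoW_abs (hκ : |κ| ≤ 1) (h0 : 0 ∈ S) (h1 : 1 ∉ S) (h2 : 2 ∉ S) (h3 : 3 ∉ S)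
    (hX : SidesW X) (hK : 1 ≤ K) (hτ : 0 ≤ τ)
    (hid : mul κ (frm a) (frm r) = mul κ (frm b) (frm e))
    (hfl : ∀ q : Fin 14, r (Fin.natAdd 4 q) = e (Fin.natAdd 4 q) + tr κ (frm e) (flg b) q -
      tr κ (frm r) (flg a) q)
    (ha : ∀ s, |a s| ≤ K * X s) (hb : ∀ s, |b s| ≤ K * X s) (he : ∀ s, |e s| ≤ K * X s)
    (hr : ∀ s, |r s| ≤ K * X s)
    (ha' : ∀ s, s ∉ S → |a s| ≤ K * τ * X s) (he' : ∀ s, s ∉ S → |e s| ≤ K * τ * X s)
    (hb' : ∀ s ∈ S, |b s| ≤ K * τ * X s) (hr' : ∀ s ∈ S, |r s| ≤ K * τ * X s)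
    (s : Fin 18) (hs : s ∉ S) : |r s - evoW κ S a b s| ≤ CW K * τ * X s := by
  have K0 : 0 ≤ K := by linarith
  have e3 : ∀ s, CW K * τ * X s = 941 * ((9 * K ^ 3) ^ 7 * τ * X s) := by
    intro s
    unfold CW
    ring
  induction s using Fin.addCases (m := 4) (n := 14) with
  | left i =>
    obtain ⟨f1, -, -, -⟩ := frame_lip hκ hX hK hτ hid ha hb hr (ha' 1 h1) (ha' 2 h2) (ha' 3 h3)
      (he' 1 h1) (he' 2 h2) (he' 3 h3) (hb' 0 h0) (hr' 0 h0)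
    have e1 : evoW κ S a b (Fin.castAdd 14 i) = frE κ (a 0) b i := Fin.append_left _ _ _
    rw [e1, e3]
    have hL : 1 ≤ 9 * K ^ 3 := by
      have := one_le_pow₀ hK (n := 3)
      linarith
    have g : 9 * K ^ 3 ≤ 941 * (9 * K ^ 3) ^ 7 := by
      have : (9 * K ^ 3) ^ 1 ≤ (9 * K ^ 3) ^ 7 := pow_le_pow_right₀ hL (by norm_num)
      rw [pow_one] at this
      have : 0 ≤ (9 * K ^ 3) ^ 7 := by positivity
      linarith
    refine (f1 i).trans ?_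
    rw [← mul_assoc, ← mul_assoc]
    exact mul_le_mul_of_nonneg_right (mul_le_mul_of_nonneg_right g hτ) (hX.pos _)
  | right q =>
    have g := flag_abs hκ h0 h1 h2 h3 hX hK hτ hid hfl ha hb he hr ha' he' hb' hr' q
    have g3 := he' _ hs
    have g6 : K * τ * X (Fin.natAdd 4 q) ≤ (9 * K ^ 3) ^ 7 * τ * X (Fin.natAdd 4 q) :=
      mul_le_mul_of_nonneg_right (mul_le_mul_of_nonneg_right (KL7 hK) hτ) (hX.pos _)
    rw [e3]
    have e2 : r (Fin.natAdd 4 q) - evoW κ S a b (Fin.natAdd 4 q) = e (Fin.natAdd 4 q) +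
        (r (Fin.natAdd 4 q) - e (Fin.natAdd 4 q) - evoW κ S a b (Fin.natAdd 4 q)) := by ring
    rw [e2]
    have g4 := abs_add_le (e (Fin.natAdd 4 q))
      (r (Fin.natAdd 4 q) - e (Fin.natAdd 4 q) - evoW κ S a b (Fin.natAdd 4 q))
    linarith

end

/-- **evolution for fat lines** -/
theorem evoW_fat {κ : ℝ} (hκ : |κ| ≤ 1) {S : Finset (Fin 18)} (h0 : 0 ∈ S) (h1 : 1 ∉ S)
    (h2 : 2 ∉ S) (h3 : 3 ∉ S) {X : Fin 18 → ℝ} (hX : SidesW X) {K τ : ℝ} (hK : 1 ≤ K)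
    (hτ : 0 ≤ τ) {x x' y y' : FW}
    (ha : ∀ s, |coW κ x x' s| ≤ K * X s) (hb : ∀ s, |coW κ x y s| ≤ K * X s)
    (he : ∀ s, |coW κ y y' s| ≤ K * X s) (hr : ∀ s, |coW κ x' y' s| ≤ K * X s)
    (ha' : ∀ s, s ∉ S → |coW κ x x' s| ≤ K * τ * X s)
    (he' : ∀ s, s ∉ S → |coW κ y y' s| ≤ K * τ * X s)
    (hb' : ∀ s ∈ S, |coW κ x y s| ≤ K * τ * X s)
    (hr' : ∀ s ∈ S, |coW κ x' y' s| ≤ K * τ * X s) (s : Fin 18) (hs : s ∉ S) :
    |coW κ x' y' s - evoW κ S (coW κ x x') (coW κ x y) s| ≤ CW K * τ * X s :=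
  evoW_abs hκ h0 h1 h2 h3 hX hK hτ (frame_id κ x x' y y') (flag_id κ x x' y y') ha hb he hr
    ha' he' hb' hr' s hs

/-- **own motion of the second line**: level slots -/
theorem ownW_fat {κ : ℝ} (hκ : |κ| ≤ 1) {S : Finset (Fin 18)} (h0 : 0 ∈ S) (h1 : 1 ∉ S)
    (h2 : 2 ∉ S) (h3 : 3 ∉ S) {X : Fin 18 → ℝ} (hX : SidesW X) {K τ : ℝ} (hK : 1 ≤ K)
    (hτ : 0 ≤ τ) {x x' y y' : FW}
    (ha : ∀ s, |coW κ x x' s| ≤ K * X s) (hb : ∀ s, |coW κ x y s| ≤ K * X s)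
    (he : ∀ s, |coW κ y y' s| ≤ K * X s) (hr : ∀ s, |coW κ x' y' s| ≤ K * X s)
    (ha' : ∀ s, s ∉ S → |coW κ x x' s| ≤ K * τ * X s)
    (he' : ∀ s, s ∉ S → |coW κ y y' s| ≤ K * τ * X s)
    (hb' : ∀ s ∈ S, |coW κ x y s| ≤ K * τ * X s)
    (hr' : ∀ s ∈ S, |coW κ x' y' s| ≤ K * τ * X s)
    (q : Fin 14) (hq : Fin.natAdd 4 q ∈ S) :
    |coW κ y y' (Fin.natAdd 4 q) + evoW κ S (coW κ x x') (coW κ x y) (Fin.natAdd 4 q)| ≤
      CW K * τ * X (Fin.natAdd 4 q) :=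
  own_abs hκ h0 h1 h2 h3 hX hK hτ (frame_id κ x x' y y') (flag_id κ x x' y y') ha hb he hr
    ha' he' hb' hr' q hq

/-! ### the individual slots -/

section

variable {κ : ℝ} {S : Finset (Fin 18)} (a b : Fin 18 → ℝ)

/-- value of the own rotation at a position -/
def GamW (κ : ℝ) (v : Fin 14 → ℝ) (A B : ℝ) : ℝ :=
  v 11 * A + v 10 * B + v 6 * A ^ 2 + v 5 * (A * B) + v 3 * B ^ 2 + v 2 * (A * (κ * A ^ 2)) +
    v 1 * (B * (κ * A ^ 2)) + v 0 * (κ * A ^ 2) ^ 2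

lemma evoW1 : evoW κ S a b 1 = b 1 := rfl

lemma evoW2 : evoW κ S a b 2 = b 2 + a 0 * b 1 := rfl

lemma evoW3 : evoW κ S a b 3 = b 3 - κ * a 0 * b 1 ^ 2 := rfl

lemma offS_not {w : Fin 14 → ℝ} {q : Fin 14} (h : Fin.natAdd 4 q ∉ S) : offS S w q = w q :=
  if_neg h

lemma onS_not {w : Fin 14 → ℝ} {q : Fin 14} (h : Fin.natAdd 4 q ∉ S) : onS S w q = 0 :=
  if_neg h

lemma offS_mem {w : Fin 14 → ℝ} {q : Fin 14} (h : Fin.natAdd 4 q ∈ S) : offS S w q = 0 :=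
  if_pos h

lemma onS_mem {w : Fin 14 → ℝ} {q : Fin 14} (h : Fin.natAdd 4 q ∈ S) : onS S w q = w q :=
  if_pos h

/-- slot `N` -/
theorem evoW17 (h13 : (13 : Fin 18) ∉ S) (h16 : (16 : Fin 18) ∉ S) (h17 : (17 : Fin 18) ∉ S) :
    evoW κ S a b 17 = b 17 + a 0 * b 16 + a 0 ^ 2 * b 13 -
      GamW κ (onS S (flg a)) (b 2 + a 0 * b 1) (b 3 - κ * a 0 * b 1 ^ 2) := by
  have e0 : evoW κ S a b 17 = tr κ (sh (a 0)) (offS S (flg b)) 13 -
      tr κ (frE κ (a 0) b) (onS S (flg a)) 13 := rfl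
  have n9 : (Fin.natAdd 4 (9 : Fin 14) : Fin 18) ∉ S := h13
  have n12 : (Fin.natAdd 4 (12 : Fin 14) : Fin 18) ∉ S := h16
  have n13 : (Fin.natAdd 4 (13 : Fin 14) : Fin 18) ∉ S := h17
  rw [e0, tr_sh13, offS_not n9, offS_not n12, offS_not n13,
    tr13_flat (h := frE κ (a 0) b) rfl (onS_not n9) (onS_not n12) (onS_not n13)]
  rfl

/-- slot `P` -/
theorem evoW16 (h13 : (13 : Fin 18) ∉ S) (h16 : (16 : Fin 18) ∉ S) :
    evoW κ S a b 16 = b 16 + 2 * a 0 * b 13 -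
      tr κ (frE κ (a 0) b) (onS S (flg a)) 12 := by
  have e0 : evoW κ S a b 16 = tr κ (sh (a 0)) (offS S (flg b)) 12 -
      tr κ (frE κ (a 0) b) (onS S (flg a)) 12 := rfl
  have n9 : (Fin.natAdd 4 (9 : Fin 14) : Fin 18) ∉ S := h13
  have n12 : (Fin.natAdd 4 (12 : Fin 14) : Fin 18) ∉ S := h16
  rw [e0, tr_sh12, offS_not n9, offS_not n12]
  rfl

/-- slot `R` -/
theorem evoW13 (h13 : (13 : Fin 18) ∉ S) :
    evoW κ S a b 13 = b 13 - tr κ (frE κ (a 0) b) (onS S (flg a)) 9 := by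
  have e0 : evoW κ S a b 13 = tr κ (sh (a 0)) (offS S (flg b)) 9 -
      tr κ (frE κ (a 0) b) (onS S (flg a)) 9 := rfl
  have n9 : (Fin.natAdd 4 (9 : Fin 14) : Fin 18) ∉ S := h13
  rw [e0, tr_sh9, offS_not n9]
  rfl

end

end Crest.Agent.R136.EvW938
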