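import Crest.Agent.R136.EvW2_938
import Crest.Agent.R136.NetW4_191
import Crest.Agent.R136.PqG_464
import Crest.Agent.R136.Qg3b_926

/-!
# R136: evolution in the W-chart (helper938), part 3: the window of helper926

`WWnd W κ lam f` : the window `W : Wnd 18 ι` has the (graded) W-chart
`lam s * coW κ (f i) (f j) s`, `lam` = multiplicative units (`GrU`).  `un n s` = unit of the slot:
`coW (f x) (f y) s = un n s * crd n x y s`.

* `evoR` / `ownR` : evolution and own motion of the second line, raw coordinates;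
* `evoC` / `evo` : the same in normalised coordinates; `evoC17`, .. : explicit slots;
* `evo_cfg`, `own_cfg`, `own_zero` : in the configuration `W.cfg E`.
-/

set_option autoImplicit false
set_option linter.unusedSectionVars false
set_option linter.unusedVariables false

open Filter Topology

namespace Crest.Agent.R136.EvW938

open Finset Crest.Agent.R136.NetW191 Crest.Agent.R136.Net191 Crest.Agent.R136.Qg926
open Crest.Agent.R136.PqG464 (wtW wtW_list)
open Crest.Agent.R138.Ex926 (Base U)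

/-! ### the right-hand side only depends on the line slots of `b` and the level slots of `a` -/

theorem evoW_congr {κ : ℝ} {S : Finset (Fin 18)} (h0 : (0 : Fin 18) ∈ S) (h1 : (1 : Fin 18) ∉ S)
    (h2 : (2 : Fin 18) ∉ S) (h3 : (3 : Fin 18) ∉ S) {a a' b b' : Fin 18 → ℝ}
    (ha : ∀ s ∈ S, a s = a' s) (hb : ∀ s, s ∉ S → b s = b' s) : evoW κ S a b = evoW κ S a' b' := by
  have e1 : frE κ (a 0) b = frE κ (a' 0) b' := by
    unfold frE
    rw [ha 0 h0, hb 1 h1, hb 2 h2, hb 3 h3]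
  have e2 : offS S (flg b) = offS S (flg b') := by
    funext q
    unfold offS flg
    split_ifs with hq
    · rfl
    · exact hb _ hq
  have e3 : onS S (flg a) = onS S (flg a') := by
    funext q
    unfold onS flg
    split_ifs with hq
    · exact ha _ hq
    · rfl
  unfold evoW
  rw [e1, e2, e3, ha 0 h0]

/-! ### walls of the sides -/

/-- units which are multiplicative along the walls -/
structure GrU (u : Fin 18 → ℝ) : Prop where
  pos : ∀ s, 0 < u s
  mul : ∀ k, ∀ l ∈ mlW k, (l.map u).prod = u k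

theorem GrU.pow {lam : ℝ} (hl : 0 < lam) : GrU fun s => lam ^ wtW s where
  pos s := pow_pos hl _
  mul := by
    intro k l hl'
    rw [← wtW_list k l hl']
    clear hl'
    induction l with
    | nil => simp
    | cons s l ih =>
      simp only [List.map_cons, List.prod_cons, List.sum_cons, ih, pow_add]

theorem sidesW_of_legalG {d : ℝ} (hd : 0 < d) (hd1 : d ≤ 1) {u : Fin 18 → ℝ} (hl : GrU u)
    {p : Fin 18 → ℝ} (hp : Legal monW p) : SidesW (fun s => d ^ p s / u s) := by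
  obtain ⟨h0, hw⟩ := legal_ofLists.1 hp
  refine ⟨fun s => (div_pos (Real.rpow_pos_of_pos hd _) (hl.pos s)).le, fun k l hl' => ?_⟩
  have e1 : (l.map fun s => d ^ p s / u s).prod = d ^ (l.map p).sum / u k := by
    rw [← hl.mul k l hl']
    clear hl' hw h0
    induction l with
    | nil => simp
    | cons s l ih =>
      simp only [List.map_cons, List.prod_cons, List.sum_cons, ih]
      rw [Real.rpow_add hd]
      field_simp
  rw [e1]
  refine div_le_div_of_nonneg_right ?_ (hl.pos k).le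
  exact Real.rpow_le_rpow_of_exponent_ge hd hd1 (hw k l hl')

theorem sidesW_of_legal {d lam : ℝ} (hd : 0 < d) (hd1 : d ≤ 1) (hl : 0 < lam) {p : Fin 18 → ℝ}
    (hp : Legal monW p) : SidesW (fun s => d ^ p s / lam ^ wtW s) :=
  sidesW_of_legalG hd hd1 (GrU.pow hl) hp

variable {ι : ℕ → Type*} [∀ n, DecidableEq (ι n)]

/-- **the window lives in the W-chart** -/
structure WWnd (W : Wnd 18 ι) (κ : ℕ → ℝ) (lam : ℕ → Fin 18 → ℝ) (f : ∀ n, ι n → FW) :
    Prop where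
  ok : W.Ok
  hκ : ∀ n, |κ n| ≤ 1
  hl : ∀ n, GrU (lam n)
  hM : W.M = monW
  hco : ∀ n, ∀ i ∈ W.I n, ∀ j ∈ W.I n, ∀ s,
    W.co n i j s = lam n s * coW (κ n) (f n i) (f n j) s
  kz : W.kz = 0
  h0 : (0 : Fin 18) ∈ W.S
  hS : ∀ s ∈ W.S, s ≠ 1 ∧ s ≠ 2 ∧ s ≠ 3 ∧ s ≠ 13 ∧ s ≠ 16 ∧ s ≠ 17

/-- side of a slot -/
noncomputable def sd (W : Wnd 18 ι) (lam : ℕ → Fin 18 → ℝ) (n : ℕ) (s : Fin 18) : ℝ :=
  W.B.d n ^ W.X n s / lam n s

/-- unit of a slot -/
noncomputable def un (W : Wnd 18 ι) (lam : ℕ → Fin 18 → ℝ) (n : ℕ) (s : Fin 18) : ℝ :=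
  W.kap s * sd W lam n s

/-- **normalised right-hand side of the evolution**: `a` = own motion, `b` = relative
coordinates -/
noncomputable def evoC (W : Wnd 18 ι) (κ : ℕ → ℝ) (lam : ℕ → Fin 18 → ℝ) (n : ℕ)
    (a b : Fin 18 → ℝ) : Fin 18 → ℝ :=
  fun s => evoW (κ n) W.S (fun s => un W lam n s * a s) (fun s => un W lam n s * b s) s /
    un W lam n s

variable {W : Wnd 18 ι} {κ : ℕ → ℝ} {lam : ℕ → Fin 18 → ℝ} {f : ∀ n, ι n → FW}

namespace WWnd

variable (h : WWnd W κ lam f)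

include h

theorem n1 : (1 : Fin 18) ∉ W.S := fun hm => (h.hS 1 hm).1 rfl
theorem n2 : (2 : Fin 18) ∉ W.S := fun hm => (h.hS 2 hm).2.1 rfl
theorem n3 : (3 : Fin 18) ∉ W.S := fun hm => (h.hS 3 hm).2.2.1 rfl
theorem n13 : (13 : Fin 18) ∉ W.S := fun hm => (h.hS 13 hm).2.2.2.1 rfl
theorem n16 : (16 : Fin 18) ∉ W.S := fun hm => (h.hS 16 hm).2.2.2.2.1 rfl
theorem n17 : (17 : Fin 18) ∉ W.S := fun hm => (h.hS 17 hm).2.2.2.2.2 rfl

theorem sd_pos (n : ℕ) (s : Fin 18) : 0 < sd W lam n s :=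
  div_pos (Real.rpow_pos_of_pos (W.B.pos n) _) ((h.hl n).pos s)

theorem un_pos (n : ℕ) (s : Fin 18) : 0 < un W lam n s := mul_pos (h.ok.kap s) (h.sd_pos n s)

theorem sides {n : ℕ} (g : W.Good n) : SidesW (sd W lam n) := by
  have h1 := g.leg 0 h.ok.zero_leg
  rw [smul_zero, add_zero, h.hM] at h1
  exact sidesW_of_legalG (W.B.pos n) (W.B.lt n).le (h.hl n) h1

theorem co_eq {n : ℕ} (g : W.Good n) {x y : ι n} (hx : x ∈ W.Cl n) (hy : y ∈ W.Cl n)
    (s : Fin 18) : coW (κ n) (f n x) (f n y) s = W.co n x y s / lam n s := by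
  rw [h.hco n x (g.clI hx) y (g.clI hy)]
  have := ((h.hl n).pos s).ne'
  field_simp

theorem abs_co {n : ℕ} (g : W.Good n) {x y : ι n} (hx : x ∈ W.Cl n) (hy : y ∈ W.Cl n)
    {s : Fin 18} {D : ℝ} (hD : |W.co n x y s| ≤ D * W.B.d n ^ W.X n s) :
    |coW (κ n) (f n x) (f n y) s| ≤ D * sd W lam n s := by
  have hp := (h.hl n).pos s
  rw [h.co_eq g hx hy, abs_div, abs_of_pos hp, div_le_iff₀ hp]
  refine hD.trans (le_of_eq ?_)
  unfold sd
  field_simp

/-- bounds of all coordinates -/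
theorem bnd {n : ℕ} (g : W.Good n) {x y : ι n} (hx : x ∈ W.Cl n) (hy : y ∈ W.Cl n) (s : Fin 18) :
    |coW (κ n) (f n x) (f n y) s| ≤ W.K0 * sd W lam n s := by
  refine h.abs_co g hx hy ?_
  have := h.ok.near0 g hx hy s
  rwa [Pi.zero_apply, Real.rpow_zero, mul_one] at this

/-- own motion of the line slots -/
theorem own_small {n : ℕ} (g : W.Good n) {x x' : ι n} (hx : x ∈ W.Cl n) (hx' : x' ∈ W.Cl n)
    (hl : W.lc n x = W.lc n x') {t : ℝ} {s : Fin 18} (hs : s ∉ W.S) (ht : t ≤ W.top s) :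
    |coW (κ n) (f n x) (f n x') s| ≤ W.K0 * W.B'.d n ^ t * sd W lam n s := by
  refine h.abs_co g hx hx' ?_
  have h1 := h.ok.near_lc g hx hx' hl s
  rw [cut_of_notMem hs] at h1
  refine h1.trans ?_
  have h2 : W.B'.d n ^ W.top s ≤ W.B'.d n ^ t :=
    Real.rpow_le_rpow_of_exponent_ge (W.B'.pos n) (W.B'.lt n).le ht
  have h3 : 0 ≤ W.K0 * W.B.d n ^ W.X n s :=
    mul_nonneg (by linarith [h.ok.K0_one]) (Real.rpow_nonneg (W.B.pos n).le _)
  nlinarith

/-- level slots at the same height -/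
theorem lev_small {n : ℕ} (g : W.Good n) {x y : ι n} (hx : x ∈ W.Cl n) (hy : y ∈ W.Cl n)
    (hl : W.zc n x = W.zc n y) {t : ℝ} {s : Fin 18} (hs : s ∈ W.S) (ht : t ≤ W.top s) :
    |coW (κ n) (f n x) (f n y) s| ≤ W.K0 * W.B'.d n ^ t * sd W lam n s := by
  refine h.abs_co g hx hy ?_
  have h1 := h.ok.near_zc g hx hy hl s
  rw [cut_of_mem hs] at h1
  refine h1.trans ?_
  have h2 : W.B'.d n ^ W.top s ≤ W.B'.d n ^ t :=
    Real.rpow_le_rpow_of_exponent_ge (W.B'.pos n) (W.B'.lt n).le ht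
  have h3 : 0 ≤ W.K0 * W.B.d n ^ W.X n s :=
    mul_nonneg (by linarith [h.ok.K0_one]) (Real.rpow_nonneg (W.B.pos n).le _)
  nlinarith

theorem crd_eq {n : ℕ} (g : W.Good n) {x y : ι n} (hx : x ∈ W.Cl n) (hy : y ∈ W.Cl n)
    (s : Fin 18) : coW (κ n) (f n x) (f n y) s = un W lam n s * W.crd n x y s := by
  have h1 := (h.ok.kap s).ne'
  have h2 := ((h.hl n).pos s).ne'
  have h3 := (Real.rpow_pos_of_pos (W.B.pos n) (W.X n s)).ne'
  rw [h.co_eq g hx hy]
  unfold un sd Wnd.crd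
  field_simp

theorem crd_fun {n : ℕ} (g : W.Good n) {x y : ι n} (hx : x ∈ W.Cl n) (hy : y ∈ W.Cl n) :
    (fun s => un W lam n s * W.crd n x y s) = coW (κ n) (f n x) (f n y) :=
  funext fun s => (h.crd_eq g hx hy s).symm

/-- from raw to normalised bounds -/
theorem norm_le {n : ℕ} {s : Fin 18} {x D : ℝ} (hx : |x| ≤ D * sd W lam n s) :
    |x / un W lam n s| ≤ D / W.kap s := by
  have h1 := h.un_pos n s
  have hk := h.ok.kap s
  have hs := h.sd_pos n s
  rw [abs_div, abs_of_pos h1, div_le_iff₀ h1]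
  refine hx.trans (le_of_eq ?_)
  unfold un
  field_simp

/-- from normalised to raw bounds -/
theorem raw_le {n : ℕ} {s : Fin 18} {x D : ℝ} (hx : |x| ≤ D) :
    |un W lam n s * x| ≤ (W.kap s * D) * sd W lam n s := by
  have h1 := h.un_pos n s
  rw [abs_mul, abs_of_pos h1]
  refine (mul_le_mul_of_nonneg_left hx h1.le).trans (le_of_eq ?_)
  unfold un
  ring

/-- normalised bounds -/
theorem crd_le {n : ℕ} (g : W.Good n) {x y : ι n} (hx : x ∈ W.Cl n) (hy : y ∈ W.Cl n)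
    (s : Fin 18) : |W.crd n x y s| ≤ W.K0 / W.kap s := by
  have h1 := h.norm_le (h.bnd g hx hy s)
  rwa [h.crd_eq g hx hy, mul_div_cancel_left₀ _ (h.un_pos n s).ne'] at h1

/-- **evolution in the window, raw**: `x, x'` on one fat line, `y, y'` on another one, `x, y` and
`x', y'` at the same height. -/
theorem evoR {n : ℕ} (g : W.Good n) {x x' y y' : ι n} (hx : x ∈ W.Cl n) (hx' : x' ∈ W.Cl n)
    (hy : y ∈ W.Cl n) (hy' : y' ∈ W.Cl n) (hl : W.lc n x = W.lc n x') (hl' : W.lc n y = W.lc n y')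
    (hz : W.zc n x = W.zc n y) (hz' : W.zc n x' = W.zc n y')
    {t : ℝ} (ht : ∀ s, t ≤ W.top s) (s : Fin 18) (hs : s ∉ W.S) :
    |coW (κ n) (f n x') (f n y') s -
      evoW (κ n) W.S (coW (κ n) (f n x) (f n x')) (coW (κ n) (f n x) (f n y)) s| ≤
      CW W.K0 * W.B'.d n ^ t * sd W lam n s :=
  evoW_fat (h.hκ n) h.h0 h.n1 h.n2 h.n3 (h.sides g) h.ok.K0_one
    (Real.rpow_nonneg (W.B'.pos n).le t) (h.bnd g hx hx') (h.bnd g hx hy) (h.bnd g hy hy')
    (h.bnd g hx' hy') (fun s hs => h.own_small g hx hx' hl hs (ht s))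
    (fun s hs => h.own_small g hy hy' hl' hs (ht s)) (fun s hs => h.lev_small g hx hy hz hs (ht s))
    (fun s hs => h.lev_small g hx' hy' hz' hs (ht s)) s hs

/-- **own motion of the second line, raw** (level slots among the flags) -/
theorem ownR {n : ℕ} (g : W.Good n) {x x' y y' : ι n} (hx : x ∈ W.Cl n) (hx' : x' ∈ W.Cl n)
    (hy : y ∈ W.Cl n) (hy' : y' ∈ W.Cl n) (hl : W.lc n x = W.lc n x') (hl' : W.lc n y = W.lc n y')
    (hz : W.zc n x = W.zc n y) (hz' : W.zc n x' = W.zc n y')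
    {t : ℝ} (ht : ∀ s, t ≤ W.top s) (q : Fin 14) (hq : Fin.natAdd 4 q ∈ W.S) :
    |coW (κ n) (f n y) (f n y') (Fin.natAdd 4 q) +
      evoW (κ n) W.S (coW (κ n) (f n x) (f n x')) (coW (κ n) (f n x) (f n y))
        (Fin.natAdd 4 q)| ≤ CW W.K0 * W.B'.d n ^ t * sd W lam n (Fin.natAdd 4 q) :=
  ownW_fat (h.hκ n) h.h0 h.n1 h.n2 h.n3 (h.sides g) h.ok.K0_one
    (Real.rpow_nonneg (W.B'.pos n).le t) (h.bnd g hx hx') (h.bnd g hx hy) (h.bnd g hy hy')
    (h.bnd g hx' hy') (fun s hs => h.own_small g hx hx' hl hs (ht s))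
    (fun s hs => h.own_small g hy hy' hl' hs (ht s)) (fun s hs => h.lev_small g hx hy hz hs (ht s))
    (fun s hs => h.lev_small g hx' hy' hz' hs (ht s)) q hq

/-- **evolution in the window, normalised** -/
theorem evo {n : ℕ} (g : W.Good n) {x x' y y' : ι n} (hx : x ∈ W.Cl n) (hx' : x' ∈ W.Cl n)
    (hy : y ∈ W.Cl n) (hy' : y' ∈ W.Cl n) (hl : W.lc n x = W.lc n x') (hl' : W.lc n y = W.lc n y')
    (hz : W.zc n x = W.zc n y) (hz' : W.zc n x' = W.zc n y')
    {t : ℝ} (ht : ∀ s, t ≤ W.top s) (s : Fin 18) (hs : s ∉ W.S) :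
    |W.crd n x' y' s - evoC W κ lam n (W.crd n x x') (W.crd n x y) s| ≤
      CW W.K0 * W.B'.d n ^ t / W.kap s := by
  have h1 := h.norm_le (h.evoR g hx hx' hy hy' hl hl' hz hz' ht s hs)
  rw [sub_div, h.crd_eq g hx' hy', mul_div_cancel_left₀ _ (h.un_pos n s).ne',
    ← h.crd_fun g hx hx', ← h.crd_fun g hx hy] at h1
  exact h1

/-- **own motion of the second line, normalised** -/
theorem own {n : ℕ} (g : W.Good n) {x x' y y' : ι n} (hx : x ∈ W.Cl n) (hx' : x' ∈ W.Cl n)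
    (hy : y ∈ W.Cl n) (hy' : y' ∈ W.Cl n) (hl : W.lc n x = W.lc n x') (hl' : W.lc n y = W.lc n y')
    (hz : W.zc n x = W.zc n y) (hz' : W.zc n x' = W.zc n y')
    {t : ℝ} (ht : ∀ s, t ≤ W.top s) (q : Fin 14) (hq : Fin.natAdd 4 q ∈ W.S) :
    |W.crd n y y' (Fin.natAdd 4 q) +
      evoC W κ lam n (W.crd n x x') (W.crd n x y) (Fin.natAdd 4 q)| ≤
      CW W.K0 * W.B'.d n ^ t / W.kap (Fin.natAdd 4 q) := by
  have h1 := h.norm_le (h.ownR g hx hx' hy hy' hl hl' hz hz' ht q hq)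
  rw [add_div, h.crd_eq g hy hy', mul_div_cancel_left₀ _ (h.un_pos n _).ne',
    ← h.crd_fun g hx hx', ← h.crd_fun g hx hy] at h1
  exact h1

/-- additivity of the height slot -/
theorem crd_zero {n : ℕ} (g : W.Good n) {x y z : ι n} (hx : x ∈ W.Cl n) (hy : y ∈ W.Cl n)
    (hz : z ∈ W.Cl n) : W.crd n x z 0 = W.crd n x y 0 + W.crd n y z 0 := by
  have h1 := h.ok.add_kz (g.clI hx) (g.clI hy) (g.clI hz)
  rw [h.kz] at h1
  unfold Wnd.crd
  rw [h1, add_div]

/-- normalised smallness of the level slots at one height -/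
theorem crd_lev {n : ℕ} (g : W.Good n) {x y : ι n} (hx : x ∈ W.Cl n) (hy : y ∈ W.Cl n)
    (hl : W.zc n x = W.zc n y) {t : ℝ} {s : Fin 18} (hs : s ∈ W.S) (ht : t ≤ W.top s) :
    |W.crd n x y s| ≤ W.K0 * W.B'.d n ^ t / W.kap s := by
  have h1 := h.norm_le (h.lev_small g hx hy hl hs ht)
  rwa [h.crd_eq g hx hy, mul_div_cancel_left₀ _ (h.un_pos n s).ne'] at h1

/-- normalised smallness of the line slots on one fat line -/
theorem crd_own {n : ℕ} (g : W.Good n) {x y : ι n} (hx : x ∈ W.Cl n) (hy : y ∈ W.Cl n)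
    (hl : W.lc n x = W.lc n y) {t : ℝ} {s : Fin 18} (hs : s ∉ W.S) (ht : t ≤ W.top s) :
    |W.crd n x y s| ≤ W.K0 * W.B'.d n ^ t / W.kap s := by
  have h1 := h.norm_le (h.own_small g hx hy hl hs ht)
  rwa [h.crd_eq g hx hy, mul_div_cancel_left₀ _ (h.un_pos n s).ne'] at h1

end WWnd

/-! ### the configuration -/

/-- own motion of the line `i` between the heights `k`, `k'` -/
noncomputable def ownC (W : Wnd 18 ι) (n i k k' : ℕ) : Fin 18 → ℝ :=
  W.crd n (W.rep n i k) (W.rep n i k')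

namespace WWnd

variable (h : WWnd W κ lam f)

include h

theorem evoC_congr (n : ℕ) {a a' b b' : Fin 18 → ℝ} (ha : ∀ s ∈ W.S, a s = a' s)
    (hb : ∀ s, s ∉ W.S → b s = b' s) : evoC W κ lam n a b = evoC W κ lam n a' b' := by
  funext s
  unfold evoC
  rw [evoW_congr h.h0 h.n1 h.n2 h.n3 (a' := fun s => un W lam n s * a' s)
    (b' := fun s => un W lam n s * b' s) (fun s hs => by rw [ha s hs])
    (fun s hs => by rw [hb s hs])]

theorem rel_eq {n : ℕ} {E : Finset (ι n)} (i l k : ℕ) {s : Fin 18} (hs : s ∉ W.S) :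
    (W.cfg0 n E).rel k i l s = W.crd n (W.rep n i k) (W.rep n l k) s := if_neg hs

/-- **evolution in the configuration** -/
theorem evo_cfg {n : ℕ} (g : W.Good n) {E : Finset (ι n)} (hE : E ⊆ W.Cl n) {i l k k' : ℕ}
    (hi : (i, k) ∈ (W.cfg0 n E).I) (hi' : (i, k') ∈ (W.cfg0 n E).I)
    (hl : (l, k) ∈ (W.cfg0 n E).I) (hl' : (l, k') ∈ (W.cfg0 n E).I)
    {t : ℝ} (ht : ∀ s, t ≤ W.top s) (s : Fin 18) (hs : s ∉ W.S) :
    |(W.cfg0 n E).rel k' i l s - evoC W κ lam n (ownC W n i k k') ((W.cfg0 n E).rel k i l) s| ≤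
      CW W.K0 * W.B'.d n ^ t / W.kap s := by
  obtain ⟨a1, a2, a3⟩ := Wnd.rep_of_mem hE hi
  obtain ⟨b1, b2, b3⟩ := Wnd.rep_of_mem hE hi'
  obtain ⟨c1, c2, c3⟩ := Wnd.rep_of_mem hE hl
  obtain ⟨d1, d2, d3⟩ := Wnd.rep_of_mem hE hl'
  have h1 := h.evo g a1 b1 c1 d1 (a2.trans b2.symm) (c2.trans d2.symm) (a3.trans c3.symm)
    (b3.trans d3.symm) ht s hs
  rw [rel_eq h i l k' hs]
  rw [h.evoC_congr n (a := ownC W n i k k') (a' := W.crd n (W.rep n i k) (W.rep n i k'))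
    (fun _ _ => rfl) (b := (W.cfg0 n E).rel k i l)
    (b' := W.crd n (W.rep n i k) (W.rep n l k)) (fun s hs => rel_eq h i l k hs)]
  exact h1

/-- **own motion of another line in the configuration** -/
theorem own_cfg {n : ℕ} (g : W.Good n) {E : Finset (ι n)} (hE : E ⊆ W.Cl n) {i l k k' : ℕ}
    (hi : (i, k) ∈ (W.cfg0 n E).I) (hi' : (i, k') ∈ (W.cfg0 n E).I)
    (hl : (l, k) ∈ (W.cfg0 n E).I) (hl' : (l, k') ∈ (W.cfg0 n E).I)
    {t : ℝ} (ht : ∀ s, t ≤ W.top s) (q : Fin 14) (hq : Fin.natAdd 4 q ∈ W.S) :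
    |ownC W n l k k' (Fin.natAdd 4 q) +
      evoC W κ lam n (ownC W n i k k') ((W.cfg0 n E).rel k i l) (Fin.natAdd 4 q)| ≤
      CW W.K0 * W.B'.d n ^ t / W.kap (Fin.natAdd 4 q) := by
  obtain ⟨a1, a2, a3⟩ := Wnd.rep_of_mem hE hi
  obtain ⟨b1, b2, b3⟩ := Wnd.rep_of_mem hE hi'
  obtain ⟨c1, c2, c3⟩ := Wnd.rep_of_mem hE hl
  obtain ⟨d1, d2, d3⟩ := Wnd.rep_of_mem hE hl'
  have h1 := h.own g a1 b1 c1 d1 (a2.trans b2.symm) (c2.trans d2.symm) (a3.trans c3.symm)
    (b3.trans d3.symm) ht q hq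
  rw [h.evoC_congr n (a := ownC W n i k k') (a' := W.crd n (W.rep n i k) (W.rep n i k'))
    (fun _ _ => rfl) (b := (W.cfg0 n E).rel k i l)
    (b' := W.crd n (W.rep n i k) (W.rep n l k)) (fun s hs => rel_eq h i l k hs)]
  exact h1

/-- **the height slot of the own motion** -/
theorem own_zero {n : ℕ} (g : W.Good n) {E : Finset (ι n)} (hE : E ⊆ W.Cl n) {i k k' : ℕ}
    (hi : (i, k) ∈ (W.cfg0 n E).I) (hi' : (i, k') ∈ (W.cfg0 n E).I)
    {t : ℝ} (ht : t ≤ W.top 0) :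
    |ownC W n i k k' 0 - ((W.cfg0 n E).z k' - (W.cfg0 n E).z k)| ≤
      2 * W.K0 * W.B'.d n ^ t / W.kap 0 := by
  obtain ⟨a1, a2, a3⟩ := Wnd.rep_of_mem hE hi
  obtain ⟨b1, b2, b3⟩ := Wnd.rep_of_mem hE hi'
  obtain ⟨x, hx, hx1, hx2⟩ := Wnd.mem_I.1 hi
  obtain ⟨y, hy, hy1, hy2⟩ := Wnd.mem_I.1 hi'
  have r1 := W.zrep_spec (hE hx)
  have r2 := W.zrep_spec (hE hy)
  rw [hx2] at r1
  rw [hy2] at r2
  have e1 : (W.cfg0 n E).z k' = W.crd n (W.s₀ n) (W.zrep n k') 0 := by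
    show W.crd n (W.s₀ n) (W.zrep n k') W.kz = _
    rw [h.kz]
  have e2 : (W.cfg0 n E).z k = W.crd n (W.s₀ n) (W.zrep n k) 0 := by
    show W.crd n (W.s₀ n) (W.zrep n k) W.kz = _
    rw [h.kz]
  have f1 := h.crd_zero g g.s0 r1.1 r2.1
  have f2 := h.crd_zero g r1.1 a1 r2.1
  have f3 := h.crd_zero g a1 b1 r2.1
  have l1 := h.crd_lev g r1.1 a1 (r1.2.trans a3.symm) h.h0 ht
  have l2 := h.crd_lev g b1 r2.1 (b3.trans r2.2.symm) h.h0 ht
  have e3 : ownC W n i k k' 0 - ((W.cfg0 n E).z k' - (W.cfg0 n E).z k) =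
      -(W.crd n (W.zrep n k) (W.rep n i k) 0 + W.crd n (W.rep n i k') (W.zrep n k') 0) := by
    rw [e1, e2]
    unfold ownC
    linarith
  rw [e3, abs_neg]
  refine (abs_add_le _ _).trans ?_
  have e4 : 2 * W.K0 * W.B'.d n ^ t / W.kap 0 = W.K0 * W.B'.d n ^ t / W.kap 0 +
      W.K0 * W.B'.d n ^ t / W.kap 0 := by ring
  linarith

/-- bounds of the own motion -/
theorem own_le {n : ℕ} (g : W.Good n) {E : Finset (ι n)} (hE : E ⊆ W.Cl n) {i k k' : ℕ}
    (hi : (i, k) ∈ (W.cfg0 n E).I) (hi' : (i, k') ∈ (W.cfg0 n E).I) (s : Fin 18) :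
    |ownC W n i k k' s| ≤ W.K0 / W.kap s :=
  h.crd_le g (Wnd.rep_of_mem hE hi).1 (Wnd.rep_of_mem hE hi').1 s

/-- bounds of the relative coordinates -/
theorem rel_le {n : ℕ} (g : W.Good n) {E : Finset (ι n)} (hE : E ⊆ W.Cl n) {i l k : ℕ}
    (hi : (i, k) ∈ (W.cfg0 n E).I) (hl : (l, k) ∈ (W.cfg0 n E).I) (s : Fin 18) :
    |(W.cfg0 n E).rel k i l s| ≤ W.K0 / W.kap s := by
  by_cases hs : s ∈ W.S
  · have : (W.cfg0 n E).rel k i l s = 0 := if_pos hs
    rw [this, abs_zero]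
    have := h.ok.K0_one
    have := h.ok.kap s
    positivity
  · rw [rel_eq h i l k hs]
    exact h.crd_le g (Wnd.rep_of_mem hE hi).1 (Wnd.rep_of_mem hE hl).1 s

end WWnd

/-! ### the explicit slots -/

/-- coefficient of a monomial in normalised coordinates -/
noncomputable def cfl (W : Wnd 18 ι) (lam : ℕ → Fin 18 → ℝ) (n : ℕ) (l : List (Fin 18))
    (s : Fin 18) : ℝ := (l.map (un W lam n)).prod / un W lam n s

namespace WWnd

variable (h : WWnd W κ lam f)

include h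

theorem cfl_pos (n : ℕ) (l : List (Fin 18)) (s : Fin 18) : 0 < cfl W lam n l s := by
  refine div_pos ?_ (h.un_pos n s)
  induction l with
  | nil => simp
  | cons a l ih => simpa using mul_pos (h.un_pos n a) ih

/-- coefficient of a wall monomial -/
theorem cfl_le {n : ℕ} (g : W.Good n) {l : List (Fin 18)} {s : Fin 18} (hl : l ∈ mlW s) :
    cfl W lam n l s ≤ (l.map W.kap).prod / W.kap s := by
  have hw := (h.sides g).wall s l hl
  have e1 : (l.map (un W lam n)).prod = (l.map W.kap).prod * (l.map (sd W lam n)).prod := by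
    clear hl hw
    induction l with
    | nil => simp
    | cons a l ih =>
      simp only [List.map_cons, List.prod_cons, ih]
      unfold un
      ring
  have hk : 0 ≤ (l.map W.kap).prod := by
    clear hl hw e1
    induction l with
    | nil => simp
    | cons a l ih => simpa using mul_nonneg (h.ok.kap a).le ih
  have hs := h.sd_pos n s
  have hks := h.ok.kap s
  unfold cfl
  rw [e1, div_le_div_iff₀ (h.un_pos n s) hks]
  have : (l.map W.kap).prod * (l.map (sd W lam n)).prod ≤ (l.map W.kap).prod * sd W lam n s :=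
    mul_le_mul_of_nonneg_left hw hk
  calc (l.map W.kap).prod * (l.map (sd W lam n)).prod * W.kap s
      ≤ (l.map W.kap).prod * sd W lam n s * W.kap s := mul_le_mul_of_nonneg_right this hks.le
    _ = (l.map W.kap).prod * un W lam n s := by unfold un; ring

/-- tight wall: the coefficient is a constant -/
theorem cfl_eq {n : ℕ} {l : List (Fin 18)} {s : Fin 18} (hl : l ∈ mlW s)
    (ht : W.X n s = (l.map (W.X n)).sum) : cfl W lam n l s = (l.map W.kap).prod / W.kap s := by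
  have e1 : (l.map (un W lam n)).prod = (l.map W.kap).prod *
      (W.B.d n ^ (l.map (W.X n)).sum / (l.map (lam n)).prod) := by
    clear hl ht
    induction l with
    | nil => simp
    | cons a l ih =>
      simp only [List.map_cons, List.prod_cons, List.sum_cons, ih]
      unfold un sd
      rw [Real.rpow_add (W.B.pos n)]
      field_simp
  unfold cfl
  rw [e1, (h.hl n).mul s l hl, ← ht]
  have h1 := (h.ok.kap s).ne'
  have h2 := ((h.hl n).pos s).ne'
  have h3 := (Real.rpow_pos_of_pos (W.B.pos n) (W.X n s)).ne'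
  unfold un sd
  field_simp

theorem evoC1 (n : ℕ) (a b : Fin 18 → ℝ) : evoC W κ lam n a b 1 = b 1 := by
  have := (h.un_pos n 1).ne'
  unfold evoC
  rw [evoW1]
  field_simp

theorem evoC2 (n : ℕ) (a b : Fin 18 → ℝ) :
    evoC W κ lam n a b 2 = b 2 + cfl W lam n [1, 0] 2 * (a 0 * b 1) := by
  have := (h.un_pos n 2).ne'
  unfold evoC cfl
  rw [evoW2]
  simp only [List.map_cons, List.map_nil, List.prod_cons, List.prod_nil, mul_one]
  field_simp

theorem evoC3 (n : ℕ) (a b : Fin 18 → ℝ) :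
    evoC W κ lam n a b 3 = b 3 - κ n * cfl W lam n [1, 1, 0] 3 * (a 0 * b 1 ^ 2) := by
  have := (h.un_pos n 3).ne'
  unfold evoC cfl
  rw [evoW3]
  simp only [List.map_cons, List.map_nil, List.prod_cons, List.prod_nil, mul_one]
  field_simp

/-- slot `N`, normalised -/
theorem evoC17 (n : ℕ) (a b : Fin 18 → ℝ) :
    evoC W κ lam n a b 17 = b 17 + cfl W lam n [0, 16] 17 * (a 0 * b 16) +
      cfl W lam n [0, 0, 13] 17 * (a 0 ^ 2 * b 13) -
      GamW (κ n) (onS W.S (flg fun s => un W lam n s * a s))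
        (un W lam n 2 * evoC W κ lam n a b 2) (un W lam n 3 * evoC W κ lam n a b 3) /
        un W lam n 17 := by
  have h17 := (h.un_pos n 17).ne'
  have h2 := (h.un_pos n 2).ne'
  have h3 := (h.un_pos n 3).ne'
  have e2 : un W lam n 2 * evoC W κ lam n a b 2 = un W lam n 2 * b 2 +
      un W lam n 0 * a 0 * (un W lam n 1 * b 1) := by
    unfold evoC
    rw [evoW2]
    field_simp
  have e3 : un W lam n 3 * evoC W κ lam n a b 3 = un W lam n 3 * b 3 -
      κ n * (un W lam n 0 * a 0) * (un W lam n 1 * b 1) ^ 2 := by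
    unfold evoC
    rw [evoW3]
    field_simp
  rw [e2, e3]
  unfold evoC
  rw [evoW17 _ _ h.n13 h.n16 h.n17]
  unfold cfl
  simp only [List.map_cons, List.map_nil, List.prod_cons, List.prod_nil, mul_one]
  field_simp

end WWnd

end Crest.Agent.R136.EvW938
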