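import Crest.Agent.R136.Wq8_638

/-!
# R136: exchange of the names of the narrow width and of the thickness (helper201)

`θ 0 = θ 2` and no power gap between the thickness and the narrow width: the frame of the lines in
the plane of the two last axes is free.  `π' = π * swap 0 2` (new narrow coordinate = old normal
coordinate and conversely), `V2` unchanged, `V3` = any plane through `V2`:
`e' = fa + e fb`, `fb' = φ`, `fa' = e - φ e'`.

`coQ_exI` : relative coordinates after the exchange; `couQ_ex` : the same in the enlarged units,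
`r` = thickness unit over narrow unit; `exb` : sizes.
-/

set_option autoImplicit false
set_option linter.unusedVariables false

open Finset Filter Topology

namespace Crest.Agent.R136.Exch201

open Crest.Agent.R136.NetQ186
open Crest.Agent.R136.GeoQ186
open Crest.Agent.R136.Sh605
open Crest.Agent.R138.Ex926 (Base U)
open Crest.Agent.R138.Dp76 (dpow_pos dpow_add dpow_le dpow_le_one)
open Crest.Agent.R136.Wq638

/-- an incidence of a straight line after the exchange; new plane `V3` given by `φ` -/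
def exI (i : Fq4) (φ : ℝ) : Fq4 where
  A := i.A
  B := i.y0
  ca := i.ca
  cb := i.y1
  y0 := i.B
  y1 := i.cb
  y2 := 0
  z := i.z
  e := i.fa + i.e * i.fb
  fa := i.e - φ * (i.fa + i.e * i.fb)
  fb := φ

/-- relative coordinates after the exchange -/
theorem coQ_exI (i j : Fq4) (hi : i.y2 = 0) (hj : j.y2 = 0) (φ φ' : ℝ) :
    coQ (exI i φ) (exI j φ') 0 = coQ i j 0 ∧
    coQ (exI i φ) (exI j φ') 1 = 0 ∧
    coQ (exI i φ) (exI j φ') 2 = coQ i j 4 + j.fb * coQ i j 2 ∧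
    coQ (exI i φ) (exI j φ') 3 = φ' - φ ∧
    coQ (exI i φ) (exI j φ') 4 = coQ i j 2 - φ' * (coQ i j 4 + j.fb * coQ i j 2) ∧
    coQ (exI i φ) (exI j φ') 5 = coQ i j 5 ∧
    coQ (exI i φ) (exI j φ') 6 = coQ i j 7 + i.fb * coQ i j 6 ∧
    coQ (exI i φ) (exI j φ') 7 = coQ i j 6 - φ * (coQ i j 7 + i.fb * coQ i j 6) ∧
    coQ (exI i φ) (exI j φ') 8 = coQ i j 8 ∧
    coQ (exI i φ) (exI j φ') 9 = coQ i j 10 + i.fb * coQ i j 9 ∧
    coQ (exI i φ) (exI j φ') 10 = coQ i j 9 - φ * (coQ i j 10 + i.fb * coQ i j 9) := by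
  simp only [coQ, exI, Fq4.pa, Fq4.pb, Fq4.py, Fq4.vy, Matrix.cons_val, hi, hj]
  refine ⟨trivial, by ring, by ring, trivial, by ring, trivial, by ring, by ring, trivial,
    by ring, by ring⟩

/-- new slope of `V2` -/
def eX (eE fA fB : ℕ → ℕ × ℝ → ℝ) : ℕ → ℕ × ℝ → ℝ := fun n x => fA n x + eE n x * fB n x

/-- new slope of `V3` in the wide direction -/
def aX (eE fA fB φ : ℕ → ℕ × ℝ → ℝ) : ℕ → ℕ × ℝ → ℝ :=
  fun n x => eE n x - φ n x * (fA n x + eE n x * fB n x)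

/-- thickness unit over narrow unit -/
noncomputable def rt (B : Base) (lev : ℕ → ℚ → ℕ) (w : Fin 3 → ℕ → ℚ → ℝ) (w0 : ℝ) (n : ℕ) : ℝ :=
  uY B lev w w0 n / uB B lev w w0 n

section

variable {B : Base} {lev : ℕ → ℚ → ℕ} {w : Fin 3 → ℕ → ℚ → ℝ} {w0 : ℝ} {π : Equiv.Perm (Fin 3)}
  {L : ℕ → ℕ → Ln4} {eE fA fB φ : ℕ → ℕ × ℝ → ℝ} {n : ℕ}

theorem incQ_ex (x : ℕ × ℝ) :
    incQ (π * Equiv.swap 0 2) L (eX eE fA fB) (aX eE fA fB φ) φ n x =
      exI (incQ π L eE fA fB n x) (φ n x) := by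
  have h0 : (Equiv.swap (0 : Fin 3) 2) 0 = 2 := by decide
  have h1 : (Equiv.swap (0 : Fin 3) 2) 1 = 1 := by decide
  have h2 : (Equiv.swap (0 : Fin 3) 2) 2 = 0 := by decide
  simp only [incQ, mkT, exI, cLn, Equiv.Perm.coe_mul, Function.comp_apply, h0, h1, h2, eX, aX]

theorem rt_eq (hw : ∀ k, 0 < w k n 0) : rt B lev w w0 n = w 0 n 0 / w 2 n 0 * B.d n ^ (-w0) := by
  unfold rt uY uB
  have h1 := rho_pos (lev n 0)
  have h2 := hw 2
  have h3 := dpow_pos B n (-(2 * w0))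
  have e : B.d n ^ (-(3 * w0)) = B.d n ^ (-w0) * B.d n ^ (-(2 * w0)) := by
    rw [← dpow_add]; congr 1; ring
  rw [e]
  generalize B.d n ^ (-(2 * w0)) = a at h3 ⊢
  generalize B.d n ^ (-w0) = b
  have := h3.ne'
  field_simp

/-- **the exchanged chart** -/
theorem couQ_ex (hw : ∀ k, 0 < w k n 0) (x y : ℕ × ℝ) {C C' : Fin 11 → ℝ}
    (hC : C = couQ B lev w w0 (incQ π L eE fA fB) n x y) {r : ℝ} (hr : r = rt B lev w w0 n)
    (hC' : C' = couQ B lev w w0
      (incQ (π * Equiv.swap 0 2) L (eX eE fA fB) (aX eE fA fB φ) φ) n x y) :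
    C' 0 = C 0 ∧ C' 1 = 0 ∧ C' 2 = r * C 4 + fB n y * C 2 ∧ C' 3 = r⁻¹ * (φ n y - φ n x) ∧
    C' 4 = r⁻¹ * (C 2 - φ n y * (r * C 4 + fB n y * C 2)) ∧ C' 5 = C 5 ∧
    C' 6 = r * C 7 + fB n x * C 6 ∧ C' 7 = r⁻¹ * (C 6 - φ n x * (r * C 7 + fB n x * C 6)) ∧
    C' 8 = C 8 ∧ C' 9 = r * C 10 + fB n x * C 9 ∧
    C' 10 = r⁻¹ * (C 9 - φ n x * (r * C 10 + fB n x * C 9)) := by
  have hH := uH_pos (B := B) (lev := lev) (w0 := w0) n
  have ha := uA_pos (B := B) (lev := lev) (w0 := w0) (hw 1)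
  have hb := uB_pos (B := B) (lev := lev) (w0 := w0) (hw 2)
  have hy := uY_pos (B := B) (lev := lev) (w0 := w0) (hw 0)
  have e0 : ∀ k, C k = sfac (uH B lev w0 n) (uA B lev w w0 n) (uB B lev w w0 n)
      (uY B lev w w0 n) k * coQ (incQ π L eE fA fB n x) (incQ π L eE fA fB n y) k := fun k => by
    rw [hC]
    exact coQ_scl hH.ne' ha.ne' hb.ne' hy.ne' _ _ _
  have e1 : ∀ k, C' k = sfac (uH B lev w0 n) (uA B lev w w0 n) (uB B lev w w0 n)
      (uY B lev w w0 n) k * coQ (exI (incQ π L eE fA fB n x) (φ n x))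
        (exI (incQ π L eE fA fB n y) (φ n y)) k := fun k => by
    rw [hC', ← incQ_ex, ← incQ_ex]
    exact coQ_scl hH.ne' ha.ne' hb.ne' hy.ne' _ _ _
  have hfx : (incQ π L eE fA fB n x).fb = fB n x := rfl
  have hfy : (incQ π L eE fA fB n y).fb = fB n y := rfl
  obtain ⟨k0, k1, k2, k3, k4, k5, k6, k7, k8, k9, k10⟩ :=
    coQ_exI (incQ π L eE fA fB n x) (incQ π L eE fA fB n y) rfl rfl (φ n x) (φ n y)
  rw [hfx] at k6 k7 k9 k10
  rw [hfy] at k2 k4
  have hr' : r = uY B lev w w0 n / uB B lev w w0 n := hr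
  clear hr hC hC' hfx hfy
  generalize incQ π L eE fA fB n x = i at *
  generalize incQ π L eE fA fB n y = j at *
  generalize uH B lev w0 n = H at *
  generalize uA B lev w w0 n = Wa at *
  generalize uB B lev w w0 n = Wb at *
  generalize uY B lev w w0 n = Wy at *
  generalize fB n x = f1 at *
  generalize fB n y = f2 at *
  generalize φ n x = g1 at *
  generalize φ n y = g2 at *
  have h1 := hH.ne'
  have h2 := ha.ne'
  have h3 := hb.ne'
  have h4 := hy.ne'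
  subst hr'
  have s2 : sfac H Wa Wb Wy 2 = Wa / Wb := rfl
  have s3 : sfac H Wa Wb Wy 3 = Wb / Wy := rfl
  have s4 : sfac H Wa Wb Wy 4 = Wa / Wy := rfl
  have s6 : sfac H Wa Wb Wy 6 = 1 / Wb := rfl
  have s7 : sfac H Wa Wb Wy 7 = 1 / Wy := rfl
  have s9 : sfac H Wa Wb Wy 9 = H / Wb := rfl
  have s10 : sfac H Wa Wb Wy 10 = H / Wy := rfl
  refine ⟨?_, ?_, ?_, ?_, ?_, ?_, ?_, ?_, ?_, ?_, ?_⟩
  · rw [e1, e0, k0]
  · rw [e1, k1, mul_zero]
  · rw [e1, e0, e0, k2, s2, s4]; field_simp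
  · rw [e1, k3, s3]; field_simp
  · rw [e1, e0, e0, k4, s2, s4]; field_simp
  · rw [e1, e0, k5]
  · rw [e1, e0, e0, k6, s6, s7]; field_simp
  · rw [e1, e0, e0, k7, s6, s7]; field_simp
  · rw [e1, e0, k8]
  · rw [e1, e0, e0, k9, s9, s10]; field_simp
  · rw [e1, e0, e0, k10, s9, s10]; field_simp

end

/-- size of the exchanged coordinates -/
theorem exb {d r f g X Y a w0 δ : ℝ} (hd : 0 < d) (hd1 : d < 1) (hδ : 0 ≤ δ)
    (h3 : 3 ≤ d ^ (-δ)) (hr : 0 < r)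
    (hr1 : r ≤ d ^ (-w0)) (hr2 : r⁻¹ ≤ d ^ (w0 - δ)) (hf : |f| ≤ 1) (hg : |g| ≤ 1)
    (hX : |X| ≤ d ^ (a + w0 - δ)) (hY : |Y| ≤ d ^ (a - δ)) :
    |r * X + f * Y| ≤ d ^ (a - 2 * δ) ∧
      |r⁻¹ * (Y - g * (r * X + f * Y))| ≤ d ^ (a + w0 - 3 * δ) := by
  have e1 : r * |X| ≤ d ^ (a - δ) := by
    calc r * |X| ≤ d ^ (-w0) * d ^ (a + w0 - δ) :=
          mul_le_mul hr1 hX (abs_nonneg _) (Real.rpow_nonneg hd.le _)
      _ = d ^ (a - δ) := by rw [← Real.rpow_add hd]; congr 1; ring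
  have e2 : |f| * |Y| ≤ d ^ (a - δ) :=
    (mul_le_mul hf hY (abs_nonneg _) zero_le_one).trans (by rw [one_mul])
  have e3 : |r * X + f * Y| ≤ 2 * d ^ (a - δ) := by
    refine (abs_add_le _ _).trans ?_
    rw [abs_mul, abs_mul, abs_of_pos hr]
    linarith
  have p0 := Real.rpow_pos_of_pos hd (a - δ)
  have e5 : |Y - g * (r * X + f * Y)| ≤ 3 * d ^ (a - δ) := by
    refine (abs_sub _ _).trans ?_
    rw [abs_mul]
    have := mul_le_mul hg e3 (abs_nonneg _) zero_le_one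
    linarith
  constructor
  · refine e3.trans ?_
    have e4 : d ^ (a - 2 * δ) = d ^ (-δ) * d ^ (a - δ) := by
      rw [← Real.rpow_add hd]; congr 1; ring
    rw [e4]
    nlinarith
  · rw [abs_mul, abs_of_pos (inv_pos.2 hr)]
    have e4 : d ^ (a + w0 - 3 * δ) = d ^ (w0 - δ) * (d ^ (-δ) * d ^ (a - δ)) := by
      rw [← Real.rpow_add hd, ← Real.rpow_add hd]; congr 1; ring
    rw [e4]
    refine mul_le_mul hr2 (e5.trans ?_) (abs_nonneg _) (Real.rpow_nonneg hd.le _)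
    exact mul_le_mul_of_nonneg_right h3 p0.le

end Crest.Agent.R136.Exch201
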