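import Crest.Agent.R136.Exch1_201
import Crest.Agent.R136.TopB_550

/-!
# R136: exchange of the narrow width and the thickness in `ThickPre` (helper201)

* `rt_bd` : without power gap (`¬ Gap23`) the two units agree up to `d^(-o(1))`;
* `exch_pre` : `ThickPre` for the exchanged names, any new plane `V3` through `V2` (`fB' = φ`);
* `exch_e3` : pattern `pE3` (31 without 21, thickness parallel to the narrow width, no gap) becomes
  `V' = T' = {2}`, i.e. `pE`;
* `e3_of_e` : `Dead η pE → DeadN η pE3`.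
-/

set_option autoImplicit false
set_option linter.unusedVariables false

open Finset Filter Topology

namespace Crest.Agent.R136.Exch201

open Crest.Agent.R138.Ex926 (Base U QProf)
open Crest.Agent.R138.Dp76 (dpow_pos dpow_add dpow_le dpow_le_one)
open Crest.Agent.R138.Mk163 (zc zl rho alive)
open Crest.Agent.R138.MkRef627 (lc kc)
open Crest.Agent.R136.MkA627
open Crest.Agent.R136.Net191
open Crest.Agent.R136.NetQ186
open Crest.Agent.R136.GeoQ186
open Crest.Agent.R136.Sh605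
open Crest.Agent.R136.Lq196
open Crest.Agent.R136.Wq638
open Crest.Agent.R136.Top484
open Crest.Agent.R136.NatT550
open Crest.Agent.R136.TopB550

variable {η : ℝ} {p : Par4} {D : Dat4} {π : Equiv.Perm (Fin 3)}
  {eE fA fB φ : ℕ → ℕ × ℝ → ℝ} {V T V' T' : Fin 11 → Prop} {w0 R T0 : ℝ}
  {PD : Set (Fin 11 → ℝ)}

/-- the units of thickness and narrow width without power gap -/
theorem rt_bd {c Λ : ℝ → ℝ} {τ : Fin 3 → ℝ → ℝ}
    (h : MkA D.B D.I (D.G p) D.lev D.A c Λ τ D.f D.b D.vm D.w) (hg : ¬ Gap23 D) (w0 : ℝ)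
    {ε : ℝ} (hε : 0 < ε) : ∀ᶠ n in (U : Filter ℕ), (∀ k, 0 < D.w k n 0) ∧
      0 < rt D.B D.lev D.w w0 n ∧ rt D.B D.lev D.w w0 n ≤ D.B.d n ^ (-w0) ∧
      (rt D.B D.lev D.w w0 n)⁻¹ ≤ D.B.d n ^ (w0 - ε) := by
  have hw : ∀ᶠ n in (U : Filter ℕ), ∀ k, 0 < D.w k n 0 :=
    Filter.eventually_all.2 fun k => h.wpos k 0 le_rfl zero_le_one
  have hn : ∀ᶠ n in (U : Filter ℕ), ¬ (D.w 0 n 0 ≤ D.B.d n ^ ε * D.w 2 n 0) := by
    rw [Ultrafilter.eventually_not]
    intro hc
    exact hg ⟨ε, hε, hc⟩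
  filter_upwards [hw, hn, mark_ord h 0 le_rfl zero_le_one] with n a1 a2 a3
  push Not at a2
  have h0 := a1 0
  have h2 := a1 2
  have p0 := dpow_pos D.B n (-w0)
  refine ⟨a1, ?_, ?_, ?_⟩
  · rw [rt_eq a1]; positivity
  · rw [rt_eq a1]
    have : D.w 0 n 0 / D.w 2 n 0 ≤ 1 := (div_le_one h2).2 a3.2.1
    calc D.w 0 n 0 / D.w 2 n 0 * D.B.d n ^ (-w0) ≤ 1 * D.B.d n ^ (-w0) :=
          mul_le_mul_of_nonneg_right this p0.le
      _ = _ := one_mul _
  · rw [rt_eq a1, mul_inv, inv_div, ← Real.rpow_neg (D.B.pos n).le, neg_neg]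
    have e1 : D.w 2 n 0 / D.w 0 n 0 ≤ D.B.d n ^ (-ε) := by
      rw [div_le_iff₀ h0]
      have := mul_le_mul_of_nonneg_left a2.le (dpow_pos D.B n (-ε)).le
      rw [← mul_assoc, ← dpow_add, neg_add_cancel, Real.rpow_zero, one_mul] at this
      exact this
    calc D.w 2 n 0 / D.w 0 n 0 * D.B.d n ^ w0 ≤ D.B.d n ^ (-ε) * D.B.d n ^ w0 :=
          mul_le_mul_of_nonneg_right e1 (dpow_pos D.B n _).le
      _ = D.B.d n ^ (w0 - ε) := by rw [← dpow_add]; congr 1; ring

/-- constants are absorbed by powers of `d` -/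
theorem ev3 (B : Base) {ε : ℝ} (hε : 0 < ε) : ∀ᶠ n in (U : Filter ℕ), 3 ≤ B.d n ^ (-ε) := by
  filter_upwards [PqG464.ev_const B (show (0 : ℝ) < 3 by norm_num) hε] with n hn
  have hd := B.pos n
  have h1 : 0 < B.d n ^ ε := Real.rpow_pos_of_pos hd ε
  rw [Real.rpow_neg hd.le, ← one_div, le_div_iff₀ h1]
  exact hn

open Classical in
/-- **exchange of the narrow width and the thickness**: same data, permutation `π * swap 0 2`,
same `V2`, any plane `V3` through `V2`. -/
theorem exch_pre (h : ThickPre η p D π eE fA fB V T w0 R T0 PD) (hθ : p.θ 0 = p.θ 2)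
    (hg : ¬ Gap23 D)
    (h2 : ∀ n, ∀ x ∈ D.I n, |eX eE fA fB n x| ≤ 1 ∧ |aX eE fA fB φ n x| ≤ 1 ∧ |φ n x| ≤ 1)
    (hs : SlotOk p.θ V' T')
    (hown : ∀ k, isSl k → ∀ u : ℚ, 0 ≤ u → u ≤ 1 → ∀ ε : ℝ, 0 < ε → ∀ᶠ n in (U : Filter ℕ),
      ∀ x ∈ D.I n, ∀ y ∈ D.I n, lc (D.lev n u) y = lc (D.lev n u) x →
      |couQ D.B D.lev D.w w0 (incQ (π * Equiv.swap 0 2) D.L (eX eE fA fB) (aX eE fA fB φ) φ)
        n x y k| ≤ D.B.d n ^ (ownQ p.θ w0 R V' u k - ε))
    (htw : ∀ k, T' k → ∀ u : ℚ, 0 ≤ u → u < 1 → ∀ ρ : ℝ, ownQ p.θ w0 R V' u k < ρ →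
      ∃ γ : ℝ, 0 < γ ∧ ∀ᶠ n in (U : Filter ℕ), ∀ x ∈ D.I n,
      (((D.I n).filter fun y => lc (D.lev n u) y = lc (D.lev n u) x ∧
        |couQ D.B D.lev D.w w0 (incQ (π * Equiv.swap 0 2) D.L (eX eE fA fB) (aX eE fA fB φ) φ)
          n x y k| ≤ D.B.d n ^ ρ).card : ℝ) ≤ D.B.d n ^ (γ - (1 - 0) * (1 - (u : ℝ)))) :
    ThickPre η p D (π * Equiv.swap 0 2) (eX eE fA fB) (aX eE fA fB φ) φ V' T' w0 R T0
      (PDQ D.B D.r0 D.lev D.w w0 R) where
  ok := h.ok
  slots := hs
  big := h.big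
  flag := h2
  flag2 := fun n x hx => by
    have h1 := h.flag2 n x hx
    have e1 : aX eE fA fB φ n x + eX eE fA fB n x * φ n x = eE n x := by
      simp only [aX, eX]
      ring
    rw [e1, add_comm]
    exact h1
  flag3 := fun hc => absurd hc hg
  wrs := h.wrs
  pd := fun x hx => by
    have h := (w0_zero h.pre.mka).mix (w0_one h.pre.mka)
    obtain ⟨h1, h2, h3, h4, h5, h6, h7⟩ := hx
    refine mem_PDQ h h1 h2 h3 ?_ ?_ ?_ ?_
    · rcases le_total (p.θ 1) (p.θ 2) with hl | hl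
      · rw [max_eq_right (by linarith)]
        rw [min_eq_right (by linarith)] at h5
        linarith
      · rw [max_eq_left (by linarith)]
        rw [min_eq_left (by linarith)] at h5
        linarith
    · rcases le_total (p.θ 2) (p.θ 0) with hl | hl
      · rw [max_eq_right (by linarith)]
        rw [min_eq_right (by linarith)] at h6
        linarith
      · rw [max_eq_left (by linarith)]
        rw [min_eq_left (by linarith)] at h6
        linarith
    · linarith
    · rw [max_eq_right (by linarith [‹ThickPre η p D π eE fA fB V T w0 R T0 PD›.ok.θ1])]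
      linarith
  pre := by
    have hq : ∀ j, 0 ≤ p.q j := by
      intro j
      fin_cases j
      · exact h.ok.q0.1
      · exact h.ok.g0.2.le
      · exact h.ok.q2.1.le
    refine
      { mka := h.pre.mka
        chart := fun n => chart_couQ n (D.I n)
        zco := fun n x _ y _ => zco_Q n x y
        w00 := h.pre.w00
        w0R := h.pre.w0R
        N0pos := h.pre.N0pos
        PDne := ⟨_, path_PDQ h.pre.mka h.big h.ok.θ1⟩
        PDleg := PDQ_leg
        gD := gD_couQ h.pre.mka h.wrs hq (fun n x hx => (h2 n x hx).1) (fun n x hx => (h2 n x hx).2.1)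
          (fun n x hx => (h2 n x hx).2.2)
        rleg := fun v h0 h1 => h.big.path_leg h0 h1
        rpos := h.big.path_pos V'
        rlip := h.big.path_lip V' _ _ _
        gR := ?_
        gH := h.pre.gH
        oz := fun v _ _ => ownQ_zero p.θ w0 R V' v
        own_near := ?_
        tw := htw }
    · -- the record boxes
      intro u h0 h1 ε hε
      filter_upwards [h.pre.gR u h0 h1 (ε / 3) (by linarith), rt_bd h.pre.mka hg w0
        (ε := ε / 3) (by linarith), ev3 D.B (ε := ε / 3) (by linarith)]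
        with n a1 a2 a3 x hx y hy hxy
      obtain ⟨hw, hr, hr1, hr2⟩ := a2
      have hC := a1 x hx y hy hxy
      have hd := D.B.pos n
      have hd1 := D.B.lt n
      have hmono : ∀ {a b : ℝ}, b ≤ a → D.B.d n ^ a ≤ D.B.d n ^ b := fun hab =>
        dpow_le D.B n hab
      set C := couQ D.B D.lev D.w w0 (incQ π D.L eE fA fB) n x y with hCdef
      obtain ⟨j0, j1, j2, j3, j4, j5, j6, j7, j8, j9, j10⟩ := couQ_ex (φ := φ) hw x y hCdef rfl rfl
      have f1 := (h.flag n x hx).2.2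
      have f2 := (h.flag n y hy).2.2
      have g1 := (h2 n x hx).2.2
      have g2 := (h2 n y hy).2.2
      have c0 := hC 0
      have c2 := hC 2
      have c4 := hC 4
      have c5 := hC 5
      have c6 := hC 6
      have c7 := hC 7
      have c8 := hC 8
      have c9 := hC 9
      have c10 := hC 10
      simp only [pathQ, Matrix.cons_val] at c0 c2 c4 c5 c6 c7 c8 c9 c10
      have hE : ∀ a : ℝ, a + w0 - ε / 3 = w0 + a - ε / 3 := fun a => by ring
      obtain ⟨k2, k4⟩ := exb (a := w0 + (p.θ 1 - p.θ 2) * u) hd hd1 (by linarith) a3 hr hr1 hr2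
        f2 g2 (X := C 4) (Y := C 2) (by rw [hθ] at c4; convert c4 using 2; ring) c2
      obtain ⟨k6, k7⟩ := exb (a := 2 * w0 - p.θ 2 * u) hd hd1 (by linarith) a3 hr hr1 hr2
        f1 g1 (X := C 7) (Y := C 6) (by rw [hθ] at c7; convert c7 using 2; ring) c6
      obtain ⟨k9, k10⟩ := exb (a := 3 * w0 + (1 - p.θ 2) * u) hd hd1 (by linarith) a3 hr hr1 hr2
        f1 g1 (X := C 10) (Y := C 9) (by rw [hθ] at c10; convert c10 using 2; ring) c9
      generalize couQ D.B D.lev D.w w0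
        (incQ (π * Equiv.swap 0 2) D.L (eX eE fA fB) (aX eE fA fB φ) φ) n x y = C' at *
      rw [← j2] at k2
      rw [← j4] at k4
      rw [← j6] at k6
      rw [← j7] at k7
      rw [← j9] at k9
      rw [← j10] at k10
      rw [← j0] at c0
      rw [← j5] at c5
      rw [← j8] at c8
      intro k
      fin_cases k <;>
        simp only [pathQ, Matrix.cons_val, Fin.zero_eta, Fin.mk_one, Fin.reduceFinMk, Fin.isValue]
      · exact c0.trans (hmono (by linarith))
      · rw [j1, abs_zero]; exact (dpow_pos D.B n _).le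
      · exact k2.trans (hmono (by linarith))
      · rw [j3, hθ, abs_mul, abs_of_pos (inv_pos.2 hr)]
        have e1 : |φ n y - φ n x| ≤ 3 := by
          refine (abs_sub _ _).trans ?_
          linarith
        have e4 : D.B.d n ^ (w0 + (p.θ 2 - p.θ 2) * u - ε) =
            D.B.d n ^ (w0 - ε / 3) * (D.B.d n ^ (-(ε / 3)) * D.B.d n ^ (-(ε / 3))) := by
          rw [← dpow_add, ← dpow_add]; congr 1; ring
        rw [e4]
        refine mul_le_mul hr2 (e1.trans (a3.trans ?_)) (abs_nonneg _) (dpow_pos D.B n _).le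
        refine le_mul_of_one_le_left (dpow_pos D.B n _).le ?_
        linarith
      · refine k4.trans (hmono ?_)
        rw [hθ]; linarith
      · exact c5.trans (hmono (by linarith))
      · exact k6.trans (hmono (by linarith))
      · refine k7.trans (hmono ?_)
        rw [hθ]; linarith
      · exact c8.trans (hmono (by linarith))
      · exact k9.trans (hmono (by linarith))
      · refine k10.trans (hmono ?_)
        rw [hθ]; linarith
    · -- one line
      intro u h0 h1 ε hε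
      have hw : ∀ᶠ n in (U : Filter ℕ), ∀ k, 0 < D.w k n 0 :=
        Filter.eventually_all.2 fun k => h.pre.mka.wpos k 0 le_rfl zero_le_one
      filter_upwards [hown 2 (Or.inl rfl) u h0 h1 ε hε,
        hown 3 (Or.inr (Or.inl rfl)) u h0 h1 ε hε, hown 4 (Or.inr (Or.inr rfl)) u h0 h1 ε hε,
        h.pre.own_near u h0 h1 ε hε, hw] with n b2 b3 b4 b0 aw x hx y hy hl k
      by_cases hk : isSl k
      · rcases hk with rfl | rfl | rfl
        · exact b2 x hx y hy hl
        · exact b3 x hx y hy hl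
        · exact b4 x hx y hy hl
      by_cases hk0 : k = 0
      · subst hk0
        have := b0 x hx y hy hl 0
        rw [zco_Q, ownQ_zero] at this ⊢
        exact this
      · unfold couQ
        rw [coQ_scl (uH_pos n).ne' (uA_pos (aw 1)).ne' (uB_pos (aw 2)).ne' (uY_pos (aw 0)).ne']
        have : coQ (incQ (π * Equiv.swap 0 2) D.L (eX eE fA fB) (aX eE fA fB φ) φ n x)
            (incQ (π * Equiv.swap 0 2) D.L (eX eE fA fB) (aX eE fA fB φ) φ n y) k = 0 := by
          have hxy : y.1 = x.1 := by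
            unfold lc at hl
            exact (Prod.mk.inj hl).1
          unfold incQ
          rw [hxy]
          exact coQ_line _ _ _ _ _ _ _ _ _ hk0 hk
        rw [this, mul_zero, abs_zero]
        exact (dpow_pos D.B n _).le

open Classical in
/-- **the pattern `pE3` becomes `pE`.** -/
theorem exch_e3 (h : ThickPre η p D π eE fA fB V T w0 R T0 PD) (hp : pE3 p V)
    (hg : ¬ Gap23 D) (hf : ∀ n, ∀ x ∈ D.I n, |eX eE fA fB n x| ≤ 1) :
    ThickPre η p D (π * Equiv.swap 0 2) (eX eE fA fB) (aX eE fA fB 0) 0 (fun k => k = 2)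
      (fun k => k = 2) w0 R T0 (PDQ D.B D.r0 D.lev D.w w0 R) := by
  obtain ⟨hV2, hV4, hθ⟩ := hp
  have hV3 : ¬ V 3 := fun hv => by
    have := (h.slots.vis 3 hv).2
    simp only [btQ, if_neg (show (3 : Fin 11) ≠ 2 by decide), if_true] at this
    linarith
  have hT4 : T 4 := by
    by_contra hc
    exact hV2 (h.slots.cap 4 hV4 hc).2.1
  have hb4 : 0 < p.θ 1 - p.θ 2 := by
    have := (h.slots.vis 4 hV4).2
    simp only [btQ, if_neg (show (4 : Fin 11) ≠ 2 by decide),
      if_neg (show (4 : Fin 11) ≠ 3 by decide)] at this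
    linarith
  have hT := h.big.T0
  have hw0 := h.big.w0T
  have hR0 := h.big.R0
  have o2 : ∀ v : ℝ, ownQ p.θ w0 R (fun k => k = 2) v 2 = w0 + (p.θ 1 - p.θ 2) * v := fun v => by
    simp [ownQ, pathQ]
  have o3 : ∀ v : ℝ, ownQ p.θ w0 R (fun k => k = 2) v 3 = R := fun v => by
    simp [ownQ]
  have o4 : ∀ v : ℝ, ownQ p.θ w0 R (fun k => k = 2) v 4 = R := fun v => by
    simp [ownQ]
  have q2 : ∀ v : ℝ, ownQ p.θ w0 R V v 2 = R := fun v => by
    simp [ownQ, hV2]
  have q4 : ∀ v : ℝ, ownQ p.θ w0 R V v 4 = 2 * w0 + (p.θ 1 - p.θ 0) * v := fun v => by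
    simp [ownQ, pathQ, hV4]
  have hp2 : ∀ u : ℚ, 0 ≤ u → u ≤ 1 → w0 + (p.θ 1 - p.θ 2) * u + 1 ≤ R := fun u h0 h1 => by
    have hu0 : (0 : ℝ) ≤ u := by exact_mod_cast h0
    have hu1 : (u : ℝ) ≤ 1 := by exact_mod_cast h1
    have b1 := h.big.bd hu0 hu1 1
    have b2 := h.big.bd hu0 hu1 2
    linarith
  refine exch_pre h hθ hg (fun n x hx => ⟨hf n x hx, ?_, by simp⟩) ?_ ?_ ?_
  · simp only [aX, Pi.zero_apply, zero_mul, sub_zero]
    exact (h.flag n x hx).1
  · refine ⟨fun k hk => hk, ?_, fun k hk hn => absurd hk hn, fun _ h3 => absurd h3 (by decide)⟩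
    rintro k rfl
    refine ⟨Or.inl rfl, ?_⟩
    simp only [btQ, if_true]
    exact hb4
  · intro k hk u h0 h1 ε hε
    have hpu := hp2 u h0 h1
    filter_upwards [h.pre.own_near u h0 h1 (ε / 3) (by linarith), rt_bd h.pre.mka hg w0
        (ε := ε / 3) (by linarith), ev3 D.B (ε := ε / 3) (by linarith)]
        with n a1 a2 a3 x hx y hy hxy
    obtain ⟨hw, hr, hr1, hr2⟩ := a2
    have hC := a1 x hx y hy hxy
    have hd := D.B.pos n
    have hd1 := D.B.lt n
    have hmono : ∀ {a b : ℝ}, b ≤ a → D.B.d n ^ a ≤ D.B.d n ^ b := fun hab =>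
      dpow_le D.B n hab
    set C := couQ D.B D.lev D.w w0 (incQ π D.L eE fA fB) n x y with hCdef
    obtain ⟨j0, j1, j2, j3, j4, -⟩ := couQ_ex (φ := (0 : ℕ → ℕ × ℝ → ℝ)) hw x y hCdef rfl rfl
    have f2 := (h.flag n y hy).2.2
    have c2 := hC 2
    have c4 := hC 4
    rw [q2] at c2
    rw [q4, hθ] at c4
    obtain ⟨k2, -⟩ := exb (g := 0) (a := w0 + (p.θ 1 - p.θ 2) * u) hd hd1 (by linarith) a3 hr hr1
      hr2 f2 (by simp) (X := C 4) (Y := C 2) (by convert c4 using 2; ring)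
      (c2.trans (hmono (by linarith)))
    rcases hk with rfl | rfl | rfl
    · rw [o2, j2]
      exact k2.trans (hmono (by linarith))
    · rw [j3, Pi.zero_apply, Pi.zero_apply, Pi.zero_apply, sub_zero, mul_zero, abs_zero]
      exact (dpow_pos D.B n _).le
    · rw [j4, Pi.zero_apply, Pi.zero_apply, zero_mul, sub_zero]
      rw [o4, abs_mul, abs_of_pos (inv_pos.2 hr)]
      calc (rt D.B D.lev D.w w0 n)⁻¹ * |C 2| ≤ D.B.d n ^ (w0 - ε / 3) * D.B.d n ^ (R - ε / 3) :=
            mul_le_mul hr2 c2 (abs_nonneg _) (dpow_pos D.B n _).le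
        _ = D.B.d n ^ (w0 + R - 2 * (ε / 3)) := by rw [← dpow_add]; congr 1; ring
        _ ≤ D.B.d n ^ (R - ε) := hmono (by linarith)
  · rintro k rfl u h0 h1 ρ hρ
    have hpu := hp2 u h0 h1.le
    rw [o2] at hρ
    set a : ℝ := w0 + (p.θ 1 - p.θ 2) * u with ha
    set m : ℝ := min ρ R with hm
    have hm0 : a < m := lt_min hρ (by linarith)
    set δ : ℝ := (m - a) / 4 with hδ
    have hδ0 : 0 < δ := by rw [hδ]; linarith
    obtain ⟨γ, hγ, hcnt⟩ := h.pre.tw 4 hT4 u h0 h1 (w0 + m - 3 * δ) (by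
      rw [q4, hθ]
      have : 4 * δ = m - a := by rw [hδ]; ring
      linarith)
    refine ⟨γ, hγ, ?_⟩
    filter_upwards [hcnt, h.pre.own_near u h0 h1.le δ hδ0, rt_bd h.pre.mka hg w0 hδ0,
      ev3 D.B hδ0] with n a0 a1 a2 a3 x hx
    obtain ⟨hw, hr, hr1, hr2⟩ := a2
    refine le_trans ?_ (a0 x hx)
    have hd := D.B.pos n
    have hmono : ∀ {a b : ℝ}, b ≤ a → D.B.d n ^ a ≤ D.B.d n ^ b := fun hab =>
      dpow_le D.B n hab
    refine Nat.cast_le.2 (card_le_card fun y hy => ?_)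
    rw [mem_filter] at hy ⊢
    obtain ⟨hyI, hl, hc⟩ := hy
    refine ⟨hyI, hl, ?_⟩
    have c2 := a1 x hx y hyI hl 2
    rw [q2] at c2
    rw [(couQ_ex (φ := (0 : ℕ → ℕ × ℝ → ℝ)) hw x y rfl rfl rfl).2.2.1] at hc
    set C := couQ D.B D.lev D.w w0 (incQ π D.L eE fA fB) n x y with hCdef
    set r := rt D.B D.lev D.w w0 n with hrdef
    have f2 := (h.flag n y hyI).2.2
    have e1 : |r * C 4| ≤ 3 * D.B.d n ^ (m - δ) := by
      have t1 : r * C 4 = (r * C 4 + fB n y * C 2) - fB n y * C 2 := by ring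
      rw [t1]
      refine (abs_sub _ _).trans ?_
      have t2 : |fB n y * C 2| ≤ D.B.d n ^ (m - δ) := by
        rw [abs_mul]
        calc |fB n y| * |C 2| ≤ 1 * D.B.d n ^ (R - δ) :=
              mul_le_mul f2 c2 (abs_nonneg _) zero_le_one
          _ ≤ D.B.d n ^ (m - δ) := by
              rw [one_mul]; exact hmono (by linarith [min_le_right ρ R])
      have t3 : |r * C 4 + fB n y * C 2| ≤ D.B.d n ^ (m - δ) :=
        hc.trans (hmono (by linarith [min_le_left ρ R]))
      have t4 := dpow_pos D.B n (m - δ)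
      linarith
    have e2 : |C 4| = r⁻¹ * |r * C 4| := by
      rw [abs_mul, abs_of_pos hr, ← mul_assoc, inv_mul_cancel₀ hr.ne', one_mul]
    rw [e2]
    have e4 : D.B.d n ^ (w0 + m - 3 * δ) =
        D.B.d n ^ (w0 - δ) * (D.B.d n ^ (-δ) * D.B.d n ^ (m - δ)) := by
      rw [← dpow_add, ← dpow_add]; congr 1; ring
    rw [e4]
    refine mul_le_mul hr2 (e1.trans ?_) (abs_nonneg _) (dpow_pos D.B n _).le
    exact mul_le_mul_of_nonneg_right a3 (dpow_pos D.B n _).le

end Crest.Agent.R136.Exch201
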