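import Mathlib.Analysis.SpecialFunctions.Pow.Real
import Mathlib.Tactic.Linarith

/-!
# Exponent end-games of the aligned two-system count (R136, U4, PLAN 2, part (3))

`δ = 1 / E` is the relative width of the agreement strip, `σ` the share of a crossing class,
`N` the number of classes in the hull, `r` the relative codegree.
-/

namespace Crest.Agent.R136.Exq2123

open Real

/-- Non-squares: one step. -/
theorem ali_one {W δ σ N q0 c k c1 c2 : ℝ} (hW : 1 ≤ W) (hδ : 0 < δ) (hN0 : 0 ≤ N)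
    (hc : q0 < c) (hσ : σ ≤ W ^ c1 * δ ^ (1 + c)) (hN : N ≤ W ^ c2 * δ ^ (-(1 + q0)))
    (h : 1 ≤ W ^ k * N * σ) : 1 / δ ≤ W ^ ((k + c1 + c2) / (c - q0)) := by
  have hW0 : 0 < W := lt_of_lt_of_le one_pos hW
  have h1 : W ^ k * N * σ ≤ W ^ k * (W ^ c2 * δ ^ (-(1 + q0))) * (W ^ c1 * δ ^ (1 + c)) := by
    have hk : 0 < W ^ k := rpow_pos_of_pos hW0 k
    calc W ^ k * N * σ ≤ W ^ k * N * (W ^ c1 * δ ^ (1 + c)) :=
          mul_le_mul_of_nonneg_left hσ (mul_nonneg hk.le hN0)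
      _ ≤ _ := mul_le_mul_of_nonneg_right (mul_le_mul_of_nonneg_left hN hk.le) (by positivity)
  have h2 := h.trans h1
  obtain ⟨w, rfl⟩ : ∃ t, W = exp t := ⟨log W, (exp_log hW0).symm⟩
  obtain ⟨d, rfl⟩ : ∃ t, δ = exp t := ⟨log δ, (exp_log hδ).symm⟩
  simp only [← exp_mul, ← exp_add, one_div, ← exp_neg] at h2 ⊢
  rw [one_le_exp_iff] at h2
  rw [exp_le_exp]
  have h4 : w * ((k + c1 + c2) / (c - q0)) = (w * (k + c1 + c2)) / (c - q0) := by ring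
  rw [h4, le_div_iff₀ (sub_pos.2 hc)]
  nlinarith

/-- (Near-)squares `P = ± n ^ 2 + η R`: two steps, codegree `η ^ (1 / 2)`. -/
theorem ali_two {W δ η σ r N q0 c k c1 c2 c3 : ℝ} (hW : 1 ≤ W) (hδ : 0 < δ) (hη : 0 < η)
    (hN0 : 0 ≤ N) (hr0 : 0 ≤ r) (hc : q0 < c)
    (hσ : σ ≤ W ^ c1 * (δ ^ (1 + c) * η ^ (-(1 / 2 : ℝ))))
    (hr : r ≤ W ^ c3 * η ^ (1 / 2 : ℝ)) (hN : N ≤ W ^ c2 * δ ^ (-(1 + q0)))
    (h : 1 ≤ W ^ k * N * r * σ) : 1 / δ ≤ W ^ ((k + c1 + c2 + c3) / (c - q0)) := by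
  have hW0 : 0 < W := lt_of_lt_of_le one_pos hW
  have h1 : W ^ k * N * r * σ ≤ W ^ k * (W ^ c2 * δ ^ (-(1 + q0))) * (W ^ c3 * η ^ (1 / 2 : ℝ)) *
      (W ^ c1 * (δ ^ (1 + c) * η ^ (-(1 / 2 : ℝ)))) := by
    have hk : 0 < W ^ k := rpow_pos_of_pos hW0 k
    have e1 : W ^ k * N ≤ W ^ k * (W ^ c2 * δ ^ (-(1 + q0))) :=
      mul_le_mul_of_nonneg_left hN hk.le
    have p1 : 0 ≤ W ^ k * N := mul_nonneg hk.le hN0
    have e2 : W ^ k * N * r ≤ W ^ k * (W ^ c2 * δ ^ (-(1 + q0))) * (W ^ c3 * η ^ (1 / 2 : ℝ)) :=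
      mul_le_mul e1 hr hr0 (by positivity)
    calc W ^ k * N * r * σ ≤ W ^ k * N * r * (W ^ c1 * (δ ^ (1 + c) * η ^ (-(1 / 2 : ℝ)))) :=
          mul_le_mul_of_nonneg_left hσ (mul_nonneg p1 hr0)
      _ ≤ _ := mul_le_mul_of_nonneg_right e2 (by positivity)
  have h2 := h.trans h1
  obtain ⟨w, rfl⟩ : ∃ t, W = exp t := ⟨log W, (exp_log hW0).symm⟩
  obtain ⟨d, rfl⟩ : ∃ t, δ = exp t := ⟨log δ, (exp_log hδ).symm⟩
  obtain ⟨e, rfl⟩ : ∃ t, η = exp t := ⟨log η, (exp_log hη).symm⟩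
  rw [show (1 : ℝ) / exp d = exp (-d) from by rw [exp_neg, one_div]]
  simp only [← exp_mul, ← exp_add] at h2 ⊢
  rw [one_le_exp_iff] at h2
  rw [exp_le_exp]
  have h4 : w * ((k + c1 + c2 + c3) / (c - q0)) = (w * (k + c1 + c2 + c3)) / (c - q0) := by ring
  rw [h4, le_div_iff₀ (sub_pos.2 hc)]
  nlinarith

end Crest.Agent.R136.Exq2123
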