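import Mathlib.Analysis.SpecialFunctions.Pow.Real
import Mathlib.Tactic.Linarith

/-!
# Exponent end-games of the two-tilt count (R136, U4, PLAN 2, leaf (L8))

Pure real inequalities: `W` is the loss, `Lam` the base tilt, `X = Ye / a`, `E` the thickness
tilt on the common strip, `m = mu kap` the thickness of the two-step hull in units of `Ye`.
-/

namespace Crest.Agent.R136.Exq123

open Real

/-- log of the share / capacity bounds: substitution of exponentials -/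
private theorem ex {x : ℝ} (h : 0 < x) : ∃ t : ℝ, x = exp t := ⟨log x, (exp_log h).symm⟩

private theorem ex1 {x : ℝ} (h : 1 ≤ x) : ∃ t : ℝ, 0 ≤ t ∧ x = exp t :=
  ⟨log x, log_nonneg h, (exp_log (lt_of_lt_of_le one_pos h)).symm⟩

/-- One step (`E_h ≤ E`): a hull of thickness `E` cannot hold `1 / σ` classes. -/
theorem one_end {W Lam X E σ N q0 q1 q2 k c1 c2 : ℝ} (hW : 1 ≤ W) (hL : 1 ≤ Lam) (hX : 1 ≤ X)
    (hE : 1 ≤ E) (hN0 : 0 ≤ N)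
    (hσ : σ ≤ W ^ c1 * (Lam ^ (-(1 + q1)) * (E * X) ^ (-(1 + q2))))
    (hN : N ≤ W ^ c2 * ((E * X) ^ (1 + q0) * Lam ^ (1 + q2)))
    (h : 1 ≤ W ^ k * N * σ) :
    Lam ^ (q1 - q2) * (E * X) ^ (q2 - q0) ≤ W ^ (k + c1 + c2) := by
  have hW0 : 0 < W := lt_of_lt_of_le one_pos hW
  have h1 : W ^ k * N * σ ≤ W ^ k * (W ^ c2 * ((E * X) ^ (1 + q0) * Lam ^ (1 + q2))) *
      (W ^ c1 * (Lam ^ (-(1 + q1)) * (E * X) ^ (-(1 + q2)))) := by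
    have hk : 0 < W ^ k := rpow_pos_of_pos hW0 k
    have e1 : W ^ k * N ≤ W ^ k * (W ^ c2 * ((E * X) ^ (1 + q0) * Lam ^ (1 + q2))) :=
      mul_le_mul_of_nonneg_left hN hk.le
    have p1 : 0 ≤ W ^ k * N := mul_nonneg hk.le hN0
    have hL0 : 0 < Lam := lt_of_lt_of_le one_pos hL
    have hX0 : 0 < X := lt_of_lt_of_le one_pos hX
    have hE0 : 0 < E := lt_of_lt_of_le one_pos hE
    calc W ^ k * N * σ ≤ W ^ k * N * (W ^ c1 * (Lam ^ (-(1 + q1)) * (E * X) ^ (-(1 + q2)))) :=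
          mul_le_mul_of_nonneg_left hσ p1
      _ ≤ _ := mul_le_mul_of_nonneg_right e1 (by positivity)
  have h2 := h.trans h1
  obtain ⟨w, -, rfl⟩ := ex1 hW
  obtain ⟨l, -, rfl⟩ := ex1 hL
  obtain ⟨x, -, rfl⟩ := ex1 hX
  obtain ⟨e, -, rfl⟩ := ex1 hE
  simp only [← exp_mul, ← exp_add] at h2 ⊢
  rw [one_le_exp_iff] at h2
  rw [exp_le_exp]
  linarith

/-- Two steps (`E_h = m > E`, crossing box of side `r = E / m`). -/
theorem two_end {W Lam X E m r σ N q0 q1 q2 k c1 c2 c3 c4 : ℝ} (hW : 1 ≤ W) (hL : 1 ≤ Lam)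
    (hX : 1 ≤ X) (hE : 1 ≤ E) (hm : 0 < m) (hN0 : 0 ≤ N) (hr0 : 0 ≤ r) (hq0 : 0 ≤ q0)
    (hmL : m ≤ W ^ c4 * (Lam * E)) (hr : r ≤ W ^ c3 * (E / m))
    (hσ : σ ≤ W ^ c1 * (Lam ^ (-(1 + q1)) * (E * X) ^ (-(1 + q2))))
    (hN : N ≤ W ^ c2 * ((m * X) ^ (1 + q0) * Lam ^ (1 + q2)))
    (h : 1 ≤ W ^ k * N * r * σ) :
    Lam ^ (q1 - q2 - q0) * (E * X) ^ (q2 - q0) ≤ W ^ (k + c1 + c2 + c3 + c4 * q0) := by
  have hW0 : 0 < W := lt_of_lt_of_le one_pos hW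
  have hL0 : 0 < Lam := lt_of_lt_of_le one_pos hL
  have hX0 : 0 < X := lt_of_lt_of_le one_pos hX
  have hE0 : 0 < E := lt_of_lt_of_le one_pos hE
  have h1 : W ^ k * N * r * σ ≤ W ^ k * (W ^ c2 * ((m * X) ^ (1 + q0) * Lam ^ (1 + q2))) *
      (W ^ c3 * (E / m)) * (W ^ c1 * (Lam ^ (-(1 + q1)) * (E * X) ^ (-(1 + q2)))) := by
    have hk : 0 < W ^ k := rpow_pos_of_pos hW0 k
    have e1 : W ^ k * N ≤ W ^ k * (W ^ c2 * ((m * X) ^ (1 + q0) * Lam ^ (1 + q2))) :=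
      mul_le_mul_of_nonneg_left hN hk.le
    have p1 : 0 ≤ W ^ k * N := mul_nonneg hk.le hN0
    have e2 : W ^ k * N * r ≤ W ^ k * (W ^ c2 * ((m * X) ^ (1 + q0) * Lam ^ (1 + q2))) *
        (W ^ c3 * (E / m)) := mul_le_mul e1 hr hr0 (by positivity)
    calc W ^ k * N * r * σ
        ≤ W ^ k * N * r * (W ^ c1 * (Lam ^ (-(1 + q1)) * (E * X) ^ (-(1 + q2)))) :=
          mul_le_mul_of_nonneg_left hσ (mul_nonneg p1 hr0)
      _ ≤ _ := mul_le_mul_of_nonneg_right e2 (by positivity)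
  have h2 := h.trans h1
  obtain ⟨w, -, rfl⟩ := ex1 hW
  obtain ⟨l, -, rfl⟩ := ex1 hL
  obtain ⟨x, -, rfl⟩ := ex1 hX
  obtain ⟨e, -, rfl⟩ := ex1 hE
  obtain ⟨t, rfl⟩ := ex hm
  simp only [← exp_mul, ← exp_add, ← exp_sub] at h2 hmL ⊢
  rw [one_le_exp_iff] at h2
  rw [exp_le_exp] at hmL ⊢
  nlinarith [mul_nonneg hq0 (sub_nonneg.2 hmL)]

/-- 706's swapped hull (`mu Ye > Lam w2`), one step: `Y = mu X`, `b = w2 / a`,
`v = w1 / l1 ≥ Lam`. -/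
theorem swap_one {W Lam v Y b σ N q0 q1 q2 k c1 c2 : ℝ} (hW : 1 ≤ W) (hL : 1 ≤ Lam)
    (hv : Lam ≤ v) (hY : 1 ≤ Y) (hb : 1 ≤ b) (hN0 : 0 ≤ N) (hq : q2 ≤ q1)
    (hσ : σ ≤ W ^ c1 * (v ^ (-(q1 - q2)) * Y ^ (-(1 + q2))))
    (hN : N ≤ W ^ c2 * (b ^ (1 + q0) * (Y / b) ^ (1 + q2)))
    (h : 1 ≤ W ^ k * N * σ) :
    Lam ^ (q1 - q2) * b ^ (q2 - q0) ≤ W ^ (k + c1 + c2) := by
  have hW0 : 0 < W := lt_of_lt_of_le one_pos hW
  have hv1 : 1 ≤ v := hL.trans hv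
  have h1 : W ^ k * N * σ ≤ W ^ k * (W ^ c2 * (b ^ (1 + q0) * (Y / b) ^ (1 + q2))) *
      (W ^ c1 * (v ^ (-(q1 - q2)) * Y ^ (-(1 + q2)))) := by
    have hk : 0 < W ^ k := rpow_pos_of_pos hW0 k
    have e1 : W ^ k * N ≤ W ^ k * (W ^ c2 * (b ^ (1 + q0) * (Y / b) ^ (1 + q2))) :=
      mul_le_mul_of_nonneg_left hN hk.le
    have p1 : 0 ≤ W ^ k * N := mul_nonneg hk.le hN0
    have hv0 : 0 < v := lt_of_lt_of_le one_pos hv1
    have hY0 : 0 < Y := lt_of_lt_of_le one_pos hY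
    calc W ^ k * N * σ ≤ W ^ k * N * (W ^ c1 * (v ^ (-(q1 - q2)) * Y ^ (-(1 + q2)))) :=
          mul_le_mul_of_nonneg_left hσ p1
      _ ≤ _ := mul_le_mul_of_nonneg_right e1 (by positivity)
  have h2 := h.trans h1
  obtain ⟨w, -, rfl⟩ := ex1 hW
  obtain ⟨l, -, rfl⟩ := ex1 hL
  obtain ⟨y, -, rfl⟩ := ex1 hY
  obtain ⟨z, -, rfl⟩ := ex1 hb
  obtain ⟨u, -, rfl⟩ := ex1 hv1
  simp only [← exp_mul, ← exp_add, ← exp_sub] at h2 ⊢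
  rw [one_le_exp_iff] at h2
  rw [exp_le_exp] at hv ⊢
  nlinarith [mul_nonneg (sub_nonneg.2 hq) (sub_nonneg.2 hv)]

/-- 706's swapped hull, two steps: `H = Lam kap` (thickness of the hull in units of `w2`),
crossing box `r = 1 / H`. -/
theorem swap_two {W Lam v Y b H r σ N q0 q1 q2 k c1 c2 c3 c4 : ℝ} (hW : 1 ≤ W) (hL : 1 ≤ Lam)
    (hv : Lam ≤ v) (hY : 1 ≤ Y) (hb : 1 ≤ b) (hH : 0 < H) (hN0 : 0 ≤ N) (hr0 : 0 ≤ r)
    (hq0 : 0 ≤ q0) (hq : q2 ≤ q1) (hHL : H ≤ W ^ c4 * Lam) (hr : r ≤ W ^ c3 * (1 / H))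
    (hσ : σ ≤ W ^ c1 * (v ^ (-(q1 - q2)) * Y ^ (-(1 + q2))))
    (hN : N ≤ W ^ c2 * ((H * b) ^ (1 + q0) * (Y / b) ^ (1 + q2)))
    (h : 1 ≤ W ^ k * N * r * σ) :
    Lam ^ (q1 - q2 - q0) * b ^ (q2 - q0) ≤ W ^ (k + c1 + c2 + c3 + c4 * q0) := by
  have hW0 : 0 < W := lt_of_lt_of_le one_pos hW
  have hv1 : 1 ≤ v := hL.trans hv
  have hv0 : 0 < v := lt_of_lt_of_le one_pos hv1
  have hY0 : 0 < Y := lt_of_lt_of_le one_pos hY
  have hb0 : 0 < b := lt_of_lt_of_le one_pos hb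
  have h1 : W ^ k * N * r * σ ≤ W ^ k * (W ^ c2 * ((H * b) ^ (1 + q0) * (Y / b) ^ (1 + q2))) *
      (W ^ c3 * (1 / H)) * (W ^ c1 * (v ^ (-(q1 - q2)) * Y ^ (-(1 + q2)))) := by
    have hk : 0 < W ^ k := rpow_pos_of_pos hW0 k
    have e1 : W ^ k * N ≤ W ^ k * (W ^ c2 * ((H * b) ^ (1 + q0) * (Y / b) ^ (1 + q2))) :=
      mul_le_mul_of_nonneg_left hN hk.le
    have p1 : 0 ≤ W ^ k * N := mul_nonneg hk.le hN0
    have e2 : W ^ k * N * r ≤ W ^ k * (W ^ c2 * ((H * b) ^ (1 + q0) * (Y / b) ^ (1 + q2))) *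
        (W ^ c3 * (1 / H)) := mul_le_mul e1 hr hr0 (by positivity)
    calc W ^ k * N * r * σ
        ≤ W ^ k * N * r * (W ^ c1 * (v ^ (-(q1 - q2)) * Y ^ (-(1 + q2)))) :=
          mul_le_mul_of_nonneg_left hσ (mul_nonneg p1 hr0)
      _ ≤ _ := mul_le_mul_of_nonneg_right e2 (by positivity)
  have h2 := h.trans h1
  obtain ⟨w, -, rfl⟩ := ex1 hW
  obtain ⟨l, -, rfl⟩ := ex1 hL
  obtain ⟨y, -, rfl⟩ := ex1 hY
  obtain ⟨z, -, rfl⟩ := ex1 hb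
  obtain ⟨u, -, rfl⟩ := ex1 hv1
  obtain ⟨t, rfl⟩ := ex hH
  simp only [← exp_mul, ← exp_add, one_div, ← exp_neg, ← exp_sub] at h2 hHL ⊢
  rw [one_le_exp_iff] at h2
  rw [exp_le_exp] at hv hHL ⊢
  nlinarith [mul_nonneg (sub_nonneg.2 hq) (sub_nonneg.2 hv), mul_nonneg hq0 (sub_nonneg.2 hHL)]

/-- The stopping index of the popular dyadic value `kap` (372 (d)). -/
theorem kap_stop {f : ℕ → ℝ} {lo hi W C0 : ℝ} (hlo : 0 < lo) (h0 : lo ≤ f 0)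
    (hhi : ∀ i, f i ≤ hi) (hW : 1 < W) (hC : 0 < C0) :
    ∃ i : ℕ, f (i + 1) ≤ W ^ C0 * f i ∧ (W ^ (i : ℝ)) ^ C0 ≤ hi / lo := by
  classical
  have hB : 1 < W ^ C0 := one_lt_rpow hW hC
  have hB0 : 0 < W ^ C0 := lt_trans one_pos hB
  have hW0 : 0 < W := lt_trans one_pos hW
  have key : ∃ i : ℕ, f (i + 1) ≤ W ^ C0 * f i := by
    by_contra hn
    push Not at hn
    have hg : ∀ n : ℕ, lo * (W ^ C0) ^ n ≤ f n := by
      intro n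
      induction n with
      | zero => simpa using h0
      | succ n ih =>
        have := (hn n).le
        calc lo * (W ^ C0) ^ (n + 1) = W ^ C0 * (lo * (W ^ C0) ^ n) := by ring
          _ ≤ W ^ C0 * f n := mul_le_mul_of_nonneg_left ih hB0.le
          _ ≤ _ := this
    obtain ⟨n, hn'⟩ := pow_unbounded_of_one_lt (hi / lo) hB
    have h3 := (hg n).trans (hhi n)
    rw [div_lt_iff₀ hlo] at hn'
    linarith [mul_comm lo ((W ^ C0) ^ n)]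
  obtain ⟨i, hi1, hi2⟩ : ∃ i : ℕ, f (i + 1) ≤ W ^ C0 * f i ∧
      ∀ j < i, ¬ (f (j + 1) ≤ W ^ C0 * f j) :=
    ⟨Nat.find key, Nat.find_spec key, fun j hj => Nat.find_min key hj⟩
  refine ⟨i, hi1, ?_⟩
  have hg : ∀ n : ℕ, n ≤ i → lo * (W ^ C0) ^ n ≤ f n := by
    intro n
    induction n with
    | zero => intro _; simpa using h0
    | succ n ih =>
      intro hni
      have := (not_le.1 (hi2 n (Nat.lt_of_succ_le hni))).le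
      calc lo * (W ^ C0) ^ (n + 1) = W ^ C0 * (lo * (W ^ C0) ^ n) := by ring
        _ ≤ W ^ C0 * f n := mul_le_mul_of_nonneg_left (ih (Nat.le_of_succ_le hni)) hB0.le
        _ ≤ _ := this
  have h3 := (hg i le_rfl).trans (hhi i)
  rw [le_div_iff₀ hlo, ← rpow_mul hW0.le, mul_comm (i : ℝ) C0, rpow_mul hW0.le, rpow_natCast]
  linarith [mul_comm lo ((W ^ C0) ^ i)]

/-- Consequence: the loss `W ^ (C i)` at the stopping index. -/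
theorem kap_loss {W C C0 R : ℝ} {i : ℕ} (hW : 1 ≤ W) (hC0 : 0 < C0) (hC : 0 ≤ C)
    (h : (W ^ (i : ℝ)) ^ C0 ≤ R) : W ^ (C * i) ≤ R ^ (C / C0) := by
  have hW0 : 0 < W := lt_of_lt_of_le one_pos hW
  have h1 : 0 ≤ (W ^ (i : ℝ)) ^ C0 := (rpow_pos_of_pos (rpow_pos_of_pos hW0 _) _).le
  have h2 := rpow_le_rpow h1 h (div_nonneg hC hC0.le)
  rw [← rpow_mul (rpow_pos_of_pos hW0 _).le, mul_div_cancel₀ C hC0.ne', ← rpow_mul hW0.le,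
    mul_comm (i : ℝ) C] at h2
  exact h2

/-- Final step: absorb `Lam ^ (s / 2)`. -/
theorem fin_end {W Lam B s s' c : ℝ} (hW : 1 ≤ W) (hL : 1 ≤ Lam) (hB : 1 ≤ B) (hs : 0 < s)
    (hs' : 0 ≤ s') (h : Lam ^ s * B ^ s' ≤ W ^ c * Lam ^ (s / 2)) :
    Lam ≤ W ^ (2 * c / s) ∧ B ^ s' ≤ W ^ c := by
  obtain ⟨w, -, rfl⟩ := ex1 hW
  obtain ⟨l, hl, rfl⟩ := ex1 hL
  obtain ⟨b, hb, rfl⟩ := ex1 hB
  simp only [← exp_mul, ← exp_add] at h ⊢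
  rw [exp_le_exp] at h
  have h2 : 0 ≤ b * s' := mul_nonneg hb hs'
  refine ⟨exp_le_exp.2 ?_, exp_le_exp.2 ?_⟩
  · have h3 : l * s ≤ w * (2 * c) := by nlinarith
    have h4 : w * (2 * c / s) = (w * (2 * c)) / s := by ring
    rw [h4, le_div_iff₀ hs]
    exact h3
  · nlinarith [mul_nonneg hl hs.le]

end Crest.Agent.R136.Exq123
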