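import Crest.Agent.R136.Gz2_779

/-!
# R136: the gauge stage, eventually tight base exponents (helper779)

`exists_extGe`, `extG_zeroE` : `exists_extG`, `extG_zero` of `Gz2_779` with
`∀ᶠ n, TightQ (X n)`.
-/

set_option autoImplicit false
set_option linter.unusedSectionVars false
set_option linter.unusedVariables false

open Filter Topology

namespace Crest.Agent.R136.Gz779

open Finset Crest.Agent.R138.Ex926 Crest.Agent.R136.Net191 Crest.Agent.R136.Qg926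
open Crest.Agent.R136.NetQ186 Crest.Agent.R136.GeoQ186 Crest.Agent.R136.Zpr779
open Crest.Agent.R136.Gau66

variable {B B' : Base} {E : ℕ → Finset (ℕ × ℝ)} {F : ℕ → ℕ × ℝ → Fq4} {h : ℕ → Fin 6 → ℝ}
  {X : ℕ → Fin 11 → ℝ} {η : ℕ → ℝ} {x xF : ℝ}


section Ext

variable {I₁ J₁ Cl : ℕ → Finset (ℕ × ℝ)} {co₁ : ∀ n : ℕ, ℕ × ℝ → ℕ × ℝ → Fin 11 → ℝ}
  {w : ℕ → ℝ} {D₁ P₁ : Set (Fin 11 → ℝ)} {T₁ To : ℕ → ℝ} {lam₁ own₁ : (Fin 11 → ℝ) → ℝ}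
  {s₀ : ℕ → ℕ × ℝ}


/-- **the gauge stage**: honest class with the gauge relations ⊢ `ExtZ` in the gauge chart -/
theorem exists_extGe
    -- old window, honest class, dense part
    (hcls : ZCls B B' I₁ J₁ co₁ monQ 2 X w D₁ T₁ lam₁ Cl s₀)
    (hco : ∀ n, ∀ i ∈ I₁ n, ∀ j ∈ I₁ n, co₁ n i j = coF F n i j)
    (hE : ∀ᶠ n in (U : Filter ℕ), E n ⊆ Cl n)
    (hd : ∀ ε : ℝ, 0 < ε → ∀ᶠ n in (U : Filter ℕ),
      ((Cl n).card : ℝ) ≤ B'.d n ^ (-ε) * (E n).card)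
    (hP₁ : P₁ ⊆ D₁) {R₁ : ℝ} (hR₁ : ∀ p ∈ P₁, ‖p‖ ≤ R₁) (h0₁ : ∀ p ∈ P₁, 0 ≤ p)
    (h0P : (0 : Fin 11 → ℝ) ∈ P₁)
    (hown : TProf B' E (zolb B I₁ co₁ monQ 2 X w) P₁ To own₁)
    -- gauge
    (G : GauIn B B' E F h X η x xF) (hx : 0 ≤ x) (hxF : 0 ≤ xF) (ht : ∀ᶠ n in (U : Filter ℕ), TightQ (X n))
    {R : ℝ} (hR : 0 ≤ R) {H : ℕ → ℝ} (hH : B'.Sub H)
    (hcard : ∀ᶠ n in (U : Filter ℕ), (Nat.log 2 (E n).card : ℝ) + 1 ≤ H n)
    -- fields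
    {w0 s : ℝ} (hs0 : 0 ≤ s) (hs1 : s ≤ 1) {PD : Set (Fin 11 → ℝ)} {D : (Fin 11 → ℝ) → ℝ}
    {r o : ℝ → Fin 11 → ℝ} {Er : ℝ → ℝ} {c₀ : ℝ}
    -- D-max, counts of new boxes (see `dmax_of_old`)
    (hPD : ∀ p ∈ PD, p ∈ Leg monQ R → ∀ ε : ℝ, 0 < ε → ∀ᶠ n in (U : Filter ℕ), ∀ A ⊆ E n,
      ∀ i ∈ E n, (∀ j ∈ A, wbox B B' (coG F h) (XG X) n p (cK0 monQ 2) i j) →
        (A.card : ℝ) ≤ T₁ n * B'.d n ^ (-(c₀ + D p + ε)))
    -- record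
    (r₁ : ℝ → Fin 11 → ℝ)
    (hrec : ∀ v : ℝ, 0 ≤ v → v ≤ 1 → r v ∈ Leg monQ R ∧ r₁ v ∈ P₁ ∧
      c₀ + Er v ≤ lam₁ (r₁ v) ∧ PBox x (r₁ v) ∧ (∀ k, k ≠ 1 → k ≠ 3 → r v k ≤ r₁ v k) ∧
      r v 1 ≤ x ∧ r v 3 ≤ xF)
    -- own
    (q : ℝ → Fin 11 → ℝ)
    (hq : ∀ v : ℝ, 0 ≤ v → v ≤ 1 → q v ∈ P₁ ∧ (1 - s) * (1 - v) ≤ own₁ (q v) ∧
      PBox x (q v) ∧ (∀ k, k ≠ 1 → k ≠ 3 → o v k ≤ q v k) ∧ o v 1 ≤ x ∧ o v 3 ≤ xF)
    (hup : ∀ v : ℝ, 0 ≤ v → v ≤ 1 → ∃ p₁ ∈ P₁, p₁ 0 ≤ w0 + v ∧ (∀ k, k ≠ 0 → p₁ k ≤ 0) ∧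
      own₁ p₁ ≤ (1 - s) * (1 - v)) :
    ∃ (J : ℕ → Finset (ℕ × ℝ)) (ν own : (Fin 11 → ℝ) → ℝ),
      (∀ᶠ n in (U : Filter ℕ), J n ⊆ E n ∧ (J n).Nonempty) ∧
      (∀ ε : ℝ, 0 < ε → ∀ᶠ n in (U : Filter ℕ),
        ((E n).card : ℝ) ≤ B'.d n ^ (-ε) * (J n).card) ∧
      ExtZ B B' E J (coG F h) monQ 2 (XG X) w monQ R T₁ To 0 w0 s PD D r o Er
        (fun _ => False) ν own c₀ := by
  classical
  have hpos : ∀ n, ∀ t : ℝ, 0 < B'.d n ^ t := fun n t => Real.rpow_pos_of_pos (B'.pos n) t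
  have hw := hcls.w0
  have hb := hcls.base
  have hEI : ∀ᶠ n in (U : Filter ℕ), E n ⊆ I₁ n := by
    filter_upwards [hE, hcls.csub, hcls.sub] with n h1 h2 h3 using h1.trans (h2.trans h3)
  have hleg₁ : ∀ p ∈ D₁, ∀ᶠ n in (U : Filter ℕ), Legal monQ (X n + w n • p) := fun p hp => by
    filter_upwards [hcls.legal ‖p‖] with n hn using hn p hp le_rfl
  -- equal old labels are old-close
  have hclose : ∀ p ∈ D₁, ∀ δ : ℝ, 0 < δ → ∀ᶠ n in (U : Filter ℕ), ∀ i ∈ E n, ∀ j ∈ E n,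
      zlab B I₁ co₁ monQ 2 X w n p i = zlab B I₁ co₁ monQ 2 X w n p j →
        wclose B B' F X n p (B'.d n ^ (-δ)) i j := by
    intro p hp δ hδ
    have hC0 : 0 < cK0 monQ 2 := lt_of_lt_of_le one_pos (cK0_one (hcls.chart 0).C0)
    filter_upwards [hEI, hleg₁ p hp, ev_const_le B' hC0 hδ] with n h1 h2 h3 i hi j hj he k _ _
    have h4 := wbox_of_zlab (B' := B') hcls.chart hb h2 (h1 hi) (h1 hj) he k
    rw [hco n i (h1 hi) j (h1 hj)] at h4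
    exact h4.trans (mul_le_mul_of_nonneg_right h3 (wside_pos B B' X n p k).le)
  have hcl : ∀ᶠ n in (U : Filter ℕ), ∀ i ∈ E n, ∀ j ∈ E n,
      zlab B I₁ co₁ monQ 2 X w n 0 i = zlab B I₁ co₁ monQ 2 X w n 0 j := by
    filter_upwards [hcls.clab, hE] with n h1 h2 i hi j hj using h1 i (h2 hi) j (h2 hj)
  -- generic: equal labels at `p₁` are new-close at `p`
  have hnew : ∀ p₁ ∈ D₁, PBox x p₁ → ∀ p : Fin 11 → ℝ, (∀ k, k ≠ 1 → k ≠ 3 → p k ≤ p₁ k) →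
      p 1 ≤ x → p 3 ≤ xF → ∀ ε : ℝ, 0 < ε → ∀ᶠ n in (U : Filter ℕ), ∀ i ∈ E n, ∀ j ∈ E n,
        zlab B I₁ co₁ monQ 2 X w n p₁ i = zlab B I₁ co₁ monQ 2 X w n p₁ j →
          wbox B B' (coG F h) (XG X) n p (B'.d n ^ (-ε)) i j := by
    intro p₁ hp₁ hb₁ p hpp h1 h3 ε hε
    obtain ⟨δ, hδ, hev⟩ := gau_new G hb₁ hpp h1 h3 hε
    filter_upwards [hev, hclose p₁ hp₁ δ hδ] with n a1 a2 i hi j hj he
    exact a1 i hi j hj (a2 i hi j hj he)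
  -- slot `0`
  have hz0 : ∀ n, ∀ i j : ℕ × ℝ, coG F h n i j 0 = coF F n i j 0 := fun n i j =>
    (rg_slots (G.h4 n) (G.h5 n) (F n i) (F n j)).1
  refine exists_extZ (E := E) (co := coG F h) (X := XG X) (M := monQ) (C := 2) hcls hE hd hP₁ hR₁
    h0₁ h0P hown (fun n => chart_coG F h n (E n)) monQ hR
    (ht.mono fun n h c hc => legal_add_smul (legal_XG h) hc.1 (hw n).le)
    hH hcard ?_ (kz := 0) (w0 := w0) hs0 hs1 (PD := PD) (D := D) (r := r) (o := o) (Er := Er)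
    (Tw := fun _ => False) (c₀ := c₀) ?_ r₁ ?_ q ?_ ?_ ?_
  · -- base
    intro ε hε
    filter_upwards [hnew 0 (hP₁ h0P) (PBox.zero hx) 0 (fun k _ _ => le_rfl) hx hxF ε hε, hcl] with
      n a1 a2 i hi j hj
    exact a1 i hi j hj (a2 i hi j hj)
  · -- D-max
    exact hPD
  · -- record
    intro v hv0 hv1
    obtain ⟨a1, a2, a3, a4, a5, a6, a7⟩ := hrec v hv0 hv1
    exact ⟨a1, a2, a3, fun ε hε => hnew _ (hP₁ a2) a4 _ a5 a6 a7 ε hε⟩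
  · -- own
    intro v hv0 hv1
    obtain ⟨a2, a3, a4, a5, a6, a7⟩ := hq v hv0 hv1
    refine ⟨a2, a3, fun ε hε => ?_⟩
    filter_upwards [hnew _ (hP₁ a2) a4 _ a5 a6 a7 ε hε] with n b1 i hi j hj _ he
    exact b1 i hi j hj he
  · -- own counts
    intro v hv0 hv1 ε hε
    obtain ⟨p₁, hp₁, hp0, hpk, hle⟩ := hup v hv0 hv1
    have hC0 : 0 < cK0 monQ 2 := lt_of_lt_of_le one_pos (cK0_one (hcls.chart 0).C0)
    obtain ⟨δ, hδ, _, hev⟩ := card_zlab_close (B' := B') (ε := ε / 2) hcls.chart hb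
      (hleg₁ p₁ (hP₁ hp₁)) (by positivity)
    filter_upwards [hev, hown.up (ε / 2) (by positivity), hcl, hEI, hleg₁ 0 hcls.zero,
      ev_const_le B' hC0 hδ] with n b1 b2 b3 b4 b5 b6 A hA i hi hbox
    have hTo := hown.pos n
    have hnear : ∀ j ∈ A, wbox B B' co₁ X n p₁ (B'.d n ^ (-δ)) i j := by
      intro j hj k
      have h4 := wbox_of_zlab (B' := B') hcls.chart hb b5 (b4 hi) (b4 (hA hj))
        (b3 i hi j (hA hj)) k
      by_cases hk : k = 0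
      · subst hk
        have h5 := (hbox j hj).2
        rw [hz0, XG_of_ne (by decide)] at h5
        rw [hco n i (b4 hi) j (b4 (hA hj))]
        refine h5.trans ?_
        refine mul_le_mul b6 ?_ (mul_nonneg (Real.rpow_nonneg (B.pos n).le _) (hpos _ _).le)
          (hpos _ _).le
        refine mul_le_mul_of_nonneg_left ?_ (Real.rpow_nonneg (B.pos n).le _)
        exact Real.rpow_le_rpow_of_exponent_ge (B'.pos n) (B'.lt n).le hp0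
      · refine h4.trans ?_
        refine mul_le_mul b6 ?_ (wside_pos B B' X n 0 k).le (hpos _ _).le
        refine mul_le_mul_of_nonneg_left ?_ (Real.rpow_nonneg (B.pos n).le _)
        exact Real.rpow_le_rpow_of_exponent_ge (B'.pos n) (B'.lt n).le (hpk k hk)
    have c1 := b1 i (b4 hi) A (hA.trans b4) hnear
    have c2 : (A.card : ℝ) ≤ (To n * B'.d n ^ (-(own₁ p₁ + ε / 2))) *
        (A.image (zlab B I₁ co₁ monQ 2 X w n p₁)).card := by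
      refine card_le_fib A (zlab B I₁ co₁ monQ 2 X w n p₁) fun j hj => ?_
      refine le_trans ?_ (b2 p₁ hp₁ j (hA hj))
      refine Nat.cast_le.2 (card_le_card fun y hy => ?_)
      obtain ⟨y1, y2⟩ := mem_filter.1 hy
      refine mem_cls.2 ⟨hA y1, ?_⟩
      simp only [zolb, Prod.mk.injEq]
      exact ⟨((hbox y y1).1).trans (hbox j hj).1.symm, y2⟩
    calc (A.card : ℝ) ≤ (To n * B'.d n ^ (-(own₁ p₁ + ε / 2))) * B'.d n ^ (-(ε / 2)) :=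
          c2.trans (mul_le_mul_of_nonneg_left c1 (mul_nonneg hTo.le (hpos _ _).le))
      _ = To n * B'.d n ^ (-(own₁ p₁ + ε)) := by
          rw [mul_assoc, ← Real.rpow_add (B'.pos n)]; congr 2; ring
      _ ≤ _ := by
          refine mul_le_mul_of_nonneg_left ?_ hTo.le
          exact Real.rpow_le_rpow_of_exponent_ge (B'.pos n) (B'.lt n).le (by linarith)
  · intro k hk; exact absurd hk id

end Ext

/-- **the slots `R`, `F_b` are zero slots of the gauge profiles** -/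
theorem extG_zeroE (G : GauIn B B' E F h X η x xF) (ht : ∀ᶠ n in (U : Filter ℕ), TightQ (X n)) {J : ℕ → Finset (ℕ × ℝ)}
    {w : ℕ → ℝ} {R : ℝ} {T₁ To : ℕ → ℝ} {w0 s : ℝ} {PD : Set (Fin 11 → ℝ)}
    {D : (Fin 11 → ℝ) → ℝ} {r o : ℝ → Fin 11 → ℝ} {Er : ℝ → ℝ} {Tw : Fin 11 → Prop}
    {ν own : (Fin 11 → ℝ) → ℝ} {c₀ : ℝ}
    (hx : ExtZ B B' E J (coG F h) monQ 2 (XG X) w monQ R T₁ To 0 w0 s PD D r o Er Tw ν own c₀)
    {p q : Fin 11 → ℝ} (hp : p ∈ Leg monQ R) (hq : q ∈ Leg monQ R) (hpq : p ≤ q)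
    (hk : ∀ k, k ≠ 1 → k ≠ 3 → q k = p k) (h1 : q 1 ≤ x) (h3 : q 3 ≤ xF) :
    ν p = ν q ∧ own p = own q := by
  have hw := hx.win.w0
  have hl : ∀ c ∈ Leg monQ R, ∀ᶠ n in (U : Filter ℕ), Legal monQ (XG X n + w n • c) :=
    fun c hc => ht.mono fun n h => legal_add_smul (legal_XG h) hc.1 (hw n).le
  have hd : ∀ n, ∀ t : ℝ, 0 < B'.d n ^ t := fun n t => Real.rpow_pos_of_pos (B'.pos n) t
  have hz : ∀ ε : ℝ, 0 < ε → ∀ᶠ n in (U : Filter ℕ), ∀ i ∈ J n, ∀ j ∈ J n,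
      wbox B B' (coG F h) (XG X) n p (cK0 monQ 2) i j → ∀ k, p k < q k →
        |coG F h n i j k| ≤ B'.d n ^ (-ε) * (B.d n ^ XG X n k * B'.d n ^ q k) := by
    intro ε hε
    filter_upwards [G.s1 ε hε, G.s3 ε hε, hx.win.sub] with n a1 a3 a4 i hi j hj _ k hpk
    have hda : ∀ s t : ℝ, B'.d n ^ s * B'.d n ^ t = B'.d n ^ (s + t) := fun s t =>
      (Real.rpow_add (B'.pos n) s t).symm
    have hdm : ∀ {s t : ℝ}, t ≤ s → B'.d n ^ s ≤ B'.d n ^ t := fun hst =>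
      Real.rpow_le_rpow_of_exponent_ge (B'.pos n) (B'.lt n).le hst
    by_cases k1 : k = 1
    · subst k1
      have hX : XG X n 1 = X n 7 - X n 0 := if_pos rfl
      rw [hX, Real.rpow_sub (B.pos n)]
      have h0 := Real.rpow_pos_of_pos (B.pos n) (X n 0)
      have h7 := Real.rpow_pos_of_pos (B.pos n) (X n 7)
      have : |coG F h n i j 1| ≤ B'.d n ^ (x - ε) * B.d n ^ X n 7 / B.d n ^ X n 0 := by
        rw [le_div_iff₀ h0]; exact a1 i (a4 hi) j (a4 hj)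
      refine this.trans ?_
      calc B'.d n ^ (x - ε) * B.d n ^ X n 7 / B.d n ^ X n 0
          = (B.d n ^ X n 7 / B.d n ^ X n 0) * B'.d n ^ (x - ε) := by ring
        _ ≤ (B.d n ^ X n 7 / B.d n ^ X n 0) * B'.d n ^ (-ε + q 1) :=
            mul_le_mul_of_nonneg_left (hdm (by linarith)) (div_pos h7 h0).le
        _ = _ := by rw [← hda]; ring
    · by_cases k3 : k = 3
      · subst k3
        rw [XG_of_ne (by decide)]
        refine (a3 i (a4 hi) j (a4 hj)).trans ?_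
        calc B'.d n ^ (xF - ε) * B.d n ^ X n 3 ≤ B'.d n ^ (-ε + q 3) * B.d n ^ X n 3 :=
              mul_le_mul_of_nonneg_right (hdm (by linarith))
                (Real.rpow_nonneg (B.pos n).le _)
          _ = _ := by rw [← hda]; ring
      · exact absurd (hk k k1 k3) hpk.ne'
  have hch := hx.win.chart
  have hb := hx.win.base
  refine ⟨?_, ?_⟩
  · have hbd : ∀ c ∈ Leg monQ R, ‖c‖ ≤ R := fun c hc => Leg_norm hx.R0 hc
    exact zero_slot_z hch hb hx.win.sub hx.win.ne (TProf.ofZ hx.win.prof hx.win.T0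
      (Set.Subset.refl _) hbd) hp hq (hl p hp) (hl q hq) hpq hz
  · exact zero_slot_own (line := fun _ x => x.1) hch hb hx.win.sub hx.win.ne hx.oprof hp hq
      (hl p hp) (hl q hq) hpq hz

end Crest.Agent.R136.Gz779
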