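import Crest.Agent.R136.DMX5_779
import Crest.Agent.R136.Gz3_779

/-!
# R136: the gauge object of the lightlike case (helper779)

`seamExtZ` : 196's seam `SeamExtZ η` (TL0_196).
-/

set_option autoImplicit false
set_option linter.unusedVariables false
set_option linter.unusedSectionVars false

open Finset Filter Topology

namespace Crest.Agent.R136.ExtG779

open Crest.Agent.R138.Ex926 (Base U)
open Crest.Agent.R138.Ex926.Base (Sub.iff Sub.of_le_of_le)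
open Crest.Agent.R138
open Crest.Agent.R136.MkA627
open Crest.Agent.R136.Sh605
open Crest.Agent.R136.K4
open Crest.Agent.R136.Top484
open Crest.Agent.R136.GeoQ186
open Crest.Agent.R136.Net191
open Crest.Agent.R136.NetQ186
open Crest.Agent.R136.Wq638
open Crest.Agent.R136.Lq196
open Crest.Agent.R136.NatT550
open Crest.Agent.R136.NatR550
open Crest.Agent.R136.TopB550
open Crest.Agent.R136.TL196
open Crest.Agent.R136.Gz779
open Crest.Agent.R136.Qg926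
open Crest.Agent.R136.Zpr779

/-- `log₂` of a polynomially bounded number -/
theorem log_card {B : Base} {c : ℝ} (hc : 0 ≤ c) {n m : ℕ} (h : (m : ℝ) ≤ B.d n ^ (-c)) :
    (Nat.log 2 m : ℝ) + 1 ≤ (2 * c + 1) * (1 + B.L n) := by
  have hL := B.L_pos n
  rcases Nat.eq_zero_or_pos m with rfl | hm
  · simp only [Nat.log_zero_right, Nat.cast_zero, zero_add]
    nlinarith
  have hm' : (0 : ℝ) < m := by exact_mod_cast hm
  have h1 : ((2 : ℝ) ^ (Nat.log 2 m)) ≤ m := by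
    exact_mod_cast Nat.pow_log_le_self 2 hm.ne'
  have h2 : Real.log ((2 : ℝ) ^ (Nat.log 2 m)) ≤ Real.log (B.d n ^ (-c)) :=
    Real.log_le_log (by positivity) (h1.trans h)
  rw [Real.log_pow, Real.log_rpow (B.pos n)] at h2
  have h3 : -c * Real.log (B.d n) = c * B.L n := by
    unfold Base.L; ring
  rw [h3] at h2
  have h4 : (1 : ℝ) / 2 ≤ Real.log 2 := by
    have := Real.log_two_gt_d9
    linarith
  have h5 : (Nat.log 2 m : ℝ) * (1 / 2) ≤ c * B.L n :=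
    (mul_le_mul_of_nonneg_left h4 (Nat.cast_nonneg _)).trans h2
  nlinarith [mul_nonneg hc hL.le]

section pts

variable {θ T1 x R' v : ℝ}

/-- natural own direction of the record -/
def r1 (θ T1 v : ℝ) : Fin 11 → ℝ :=
  ![v, 0, T1 - θ * v, v, T1 + (1 - θ) * v, T1 - θ * v, 2 * (T1 - θ * v), 2 * T1 + (1 - 2 * θ) * v,
    T1 + (1 - θ) * v, 2 * T1 + (1 - 2 * θ) * v, 2 * T1 + 2 * (1 - θ) * v]

/-- own direction -/
def q1 (θ T1 R' v : ℝ) : Fin 11 → ℝ :=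
  ![v, 0, R', v, T1 + (1 - θ) * v, R', R', R', R', R', R']

/-- direction `z` -/
def z1 (v : ℝ) : Fin 11 → ℝ := ![v, 0, 0, 0, 0, 0, 0, 0, 0, 0, 0]

theorem norm_le_of {p : Fin 11 → ℝ} (hR : 0 ≤ R') (h0 : ∀ k, 0 ≤ p k) (h : ∀ k, p k ≤ R') :
    ‖p‖ ≤ R' :=
  (pi_norm_le_iff_of_nonneg hR).2 fun s => by
    rw [Real.norm_eq_abs, abs_of_nonneg (h0 s)]; exact h s

/-- the numbers -/
structure Nm (θ T1 x R' v : ℝ) : Prop where
  θ0 : 0 < θ
  h1 : 1 ≤ T1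
  hθ : θ ≤ T1
  hx : x = 2 * T1 + 3
  hR : R' = 4 * x
  v0 : 0 ≤ v
  v1 : v ≤ 1

theorem Nm.tv (h : Nm θ T1 x R' v) : 0 ≤ θ * v ∧ θ * v ≤ T1 := by
  obtain ⟨a, b, c, d, e, f, g⟩ := h
  exact ⟨mul_nonneg a.le f, by nlinarith⟩

theorem r1_props (h : Nm θ T1 x R' v) : (∀ k, 0 ≤ r1 θ T1 v k) ∧ (∀ k, r1 θ T1 v k ≤ R') ∧
    bT T1 + r1 θ T1 v ∈ coneN ∧ PBox x (r1 θ T1 v) ∧
    (∀ k, k ≠ 1 → k ≠ 3 → rz θ T1 x v k ≤ r1 θ T1 v k) ∧ rz θ T1 x v 1 ≤ x ∧
    rz θ T1 x v 3 ≤ x ∧ rz θ T1 x v ∈ Leg monQ R' := by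
  obtain ⟨t0, t1⟩ := h.tv
  obtain ⟨a, b, c, d, e, f, g⟩ := h
  refine ⟨fun k => ?_, fun k => ?_, ?_, ?_, fun k k1 k3 => ?_, le_rfl, le_rfl, ?_, fun k => ?_⟩
  · fin_cases k <;> simp [r1] <;> linarith
  · fin_cases k <;> simp [r1] <;> linarith
  · simp only [coneN, Set.mem_ofPred_eq, Pi.add_apply, bT, nL, r1, Matrix.cons_val]
    refine ⟨?_, ?_, ?_, ?_, ?_, ?_, ?_, ?_, ?_, ?_⟩ <;> linarith
  · constructor <;> simp only [r1, Matrix.cons_val] <;> linarith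
  · fin_cases k <;> first | exact absurd rfl k1 | exact absurd rfl k3 | exact le_rfl
  · rw [legalQ_iff]
    refine ⟨fun k => ?_, ?_, ?_, ?_, ?_, ?_, ?_, ?_, ?_, ?_, ?_, ?_⟩
    · fin_cases k <;> simp [rz] <;> linarith
    all_goals simp only [rz, Matrix.cons_val]; linarith
  · fin_cases k <;> simp [rz] <;> linarith

theorem q1_props (h : Nm θ T1 x R' v) : (∀ k, 0 ≤ q1 θ T1 R' v k) ∧ (∀ k, q1 θ T1 R' v k ≤ R') ∧
    bT T1 + q1 θ T1 R' v ∈ coneN ∧ PBox x (q1 θ T1 R' v) ∧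
    (∀ k, k ≠ 1 → k ≠ 3 → oz θ T1 x R' v k ≤ q1 θ T1 R' v k) ∧ oz θ T1 x R' v 1 ≤ x ∧
    oz θ T1 x R' v 3 ≤ x := by
  obtain ⟨t0, t1⟩ := h.tv
  obtain ⟨a, b, c, d, e, f, g⟩ := h
  refine ⟨fun k => ?_, fun k => ?_, ?_, ?_, fun k k1 k3 => ?_, le_rfl, le_rfl⟩
  · fin_cases k <;> simp [q1] <;> linarith
  · fin_cases k <;> simp [q1] <;> linarith
  · simp only [coneN, Set.mem_ofPred_eq, Pi.add_apply, bT, nL, q1, Matrix.cons_val]
    refine ⟨?_, ?_, ?_, ?_, ?_, ?_, ?_, ?_, ?_, ?_⟩ <;> linarith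
  · constructor <;> simp only [q1, Matrix.cons_val] <;> linarith
  · fin_cases k <;> first | exact absurd rfl k1 | exact absurd rfl k3 | exact le_rfl

theorem z1_props (h : Nm θ T1 x R' v) : (∀ k, 0 ≤ z1 v k) ∧ (∀ k, z1 v k ≤ R') ∧
    bT T1 + z1 v ∈ coneN ∧ (∀ k, k ≠ 0 → z1 v k ≤ 0) := by
  obtain ⟨a, b, c, d, e, f, g⟩ := h
  refine ⟨fun k => ?_, fun k => ?_, ?_, fun k hk => ?_⟩
  · fin_cases k <;> simp [z1] <;> linarith
  · fin_cases k <;> simp [z1] <;> linarith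
  · simp only [coneN, Set.mem_ofPred_eq, Pi.add_apply, bT, nL, z1, Matrix.cons_val]
    refine ⟨?_, ?_, ?_, ?_, ?_, ?_, ?_, ?_, ?_, ?_⟩ <;> linarith
  · fin_cases k <;> first | exact absurd rfl hk | exact le_rfl

end pts

/-- **the gauge object** -/
theorem seamExtZ {η : ℝ} : SeamExtZ η := by
  intro c ok
  obtain ⟨Hs, hHs, hPD⟩ := Dmx779.hPD_L ok
  obtain ⟨cc, hcc, hcard⟩ := ok.th.ext.card
  have hHs0 := (Sub.iff.1 hHs).1
  set Hc : ℕ → ℝ := fun n => (2 * cc + 1) * (1 + c.D.B.L n) with hHc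
  have hHcS : c.D.B.Sub Hc :=
    (Base.Sub.const (by linarith)).mul Base.Sub.one_add_L
  refine ⟨fun n => (Hs n + (Hs n)⁻¹) + Hc n, (hHs.add hHs.inv).add hHcS, ?_⟩
  intro B' J ξ w lam lo Cl E s₀ h ηg W hH
  set θ := c.p.θ 1 with hθd
  set T1 := T1z θ with hT1
  set x := xz θ with hxd
  set R' := Rz θ with hRd
  have hN : ∀ v : ℝ, 0 ≤ v → v ≤ 1 → Nm θ T1 x R' v := fun v v0 v1 =>
    ⟨ok.th.tp.ok.θ1, one_le_T1z θ, le_T1z θ, rfl, rfl, v0, v1⟩
  have hT1p : 1 ≤ T1 := one_le_T1z θ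
  have hx0 : 0 ≤ x := by have : x = 2 * T1 + 3 := rfl; linarith
  have hR0 : 0 ≤ R' := by have : R' = 4 * x := rfl; linarith
  have hHc1 : ∀ n, 0 ≤ Hc n := fun n => by
    have := c.D.B.L_pos n
    rw [hHc]; positivity
  -- the loss of D-max
  have hHs' : B'.Sub Hs := by
    refine Sub.of_le_of_le hH.inv hH ?_ ?_
    · filter_upwards [hHs0] with n hn
      rw [inv_le_comm₀ (by have := hHc1 n; positivity) hn]
      have := hHc1 n
      linarith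
    · filter_upwards [hHs0] with n hn
      have := hHc1 n
      have := inv_pos.2 hn
      linarith
  have hEI : ∀ᶠ n in (U : Filter ℕ), E n ⊆ c.I1 n := by
    filter_upwards [W.esub, W.cls.csub, W.rw.Jsub] with n a b d using a.trans (b.trans d)
  obtain ⟨ξ₀, h0, h1, hξ⟩ := W.rw.ξlim
  have hw := W.rw.wlim
  -- points
  set P₁ : Set (Fin 11 → ℝ) := {a | bT T1 + a ∈ coneN ∧ 0 ≤ a ∧ ‖a‖ ≤ R'} with hP₁d
  have hP₁ : P₁ ⊆ {a | bT T1 + a ∈ coneN} := fun a ha => ha.1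
  have hmem : ∀ a : Fin 11 → ℝ, bT T1 + a ∈ coneN → (∀ k, 0 ≤ a k) → (∀ k, a k ≤ R') → a ∈ P₁ :=
    fun a b1 b2 b3 => ⟨b1, b2, norm_le_of hR0 b2 b3⟩
  have hLL1 := ok.pat.2.2.1
  have hLL2 := ok.pat.2.2.2
  have hown := (W.own P₁ hP₁ R' (fun p hp => hp.2.2) (fun p hp => hp.2.1)).shift 1
  have hz := z1_props (hN 0 le_rfl zero_le_one)
  have hz0 : z1 0 = 0 := by
    funext k
    fin_cases k <;> rfl
  have hbT : bT T1 ∈ coneN := by
    have := hz.2.2.1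
    rwa [hz0, add_zero] at this
  have hlo0 : lo (bT T1) = 0 := by
    rw [W.rw.lo_full _ hbT ?_ ?_]
    · simp [bT, nL]
    · simp [bT, nL]
    · simp only [bT, nL, Matrix.cons_val]; linarith
  obtain ⟨J', ν', own', e1, e2, e3⟩ := exists_extGe (c₀ := DL c.p (bT T1) - lam (bT T1))
    (PD := PDz θ T1 R') (D := DL c.p) (r := rz θ T1 x) (o := oz θ T1 x R')
    (Er := fun v => DL c.p (rz θ T1 x v)) (w0 := 0) (s := 0) (R := R') (P₁ := P₁) (R₁ := R')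
    W.cls (fun n i _ j _ => rfl) W.esub W.edens hP₁ (fun p hp => hp.2.2)
    (fun p hp => hp.2.1) (by rw [← hz0]; exact hmem _ hz.2.2.1 hz.1 hz.2.1) hown W.gau hx0 hx0
    (Dmx779.tight_XB ok h0 h1 hξ hw) hR0 hH
    (by
      filter_upwards [hEI, hcard, hHs0] with n a1 a2 a3
      have a4 : ((E n).card : ℝ) ≤ c.D.B.d n ^ (-cc) :=
        le_trans (by exact_mod_cast card_le_card a1) a2
      refine (log_card hcc a4).trans ?_
      have := inv_pos.2 a3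
      have : Hc n = (2 * cc + 1) * (1 + c.D.B.L n) := rfl
      linarith)
    le_rfl zero_le_one (fun p hp _ => hPD W hHs' p hp) (r1 θ T1)
    (by
      intro v v0 v1
      obtain ⟨b1, b2, b3, b4, b5, b6, b7, b8⟩ := r1_props (hN v v0 v1)
      refine ⟨b8, hmem _ b3 b1 b2, ?_, b4, b5, b6, b7⟩
      have e : bT T1 + r1 θ T1 v = v • c.ρ := by
        funext k
        fin_cases k <;> simp [bT, nL, r1, LCtx.ρ] <;> nlinarith [hLL1, hLL2]
      rw [e, W.rw.recd]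
      simp only [DL, bT, nL, rz, LCtx.ρ, Matrix.cons_val]
      refine le_of_eq ?_
      have hθ0 : c.p.θ 0 = 2 * c.p.θ 1 - 1 := by linarith
      rw [hLL2, hθ0, hθd]
      ring)
    (q1 θ T1 R')
    (by
      intro v v0 v1
      obtain ⟨b1, b2, b3, b4, b5, b6, b7⟩ := q1_props (hN v v0 v1)
      refine ⟨hmem _ b3 b1 b2, ?_, b4, b5, b6, b7⟩
      have e : lo (bT T1 + q1 θ T1 R' v) = -v := by
        rw [W.rw.lo_full _ b3 ?_ ?_]
        · simp [bT, nL, q1]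
        · simp [bT, nL, q1]
        · simp only [bT, nL, q1, Pi.add_apply, Matrix.cons_val]; linarith
      rw [e, hlo0]; linarith)
    (by
      intro v v0 v1
      obtain ⟨b1, b2, b3, b4⟩ := z1_props (hN v v0 v1)
      refine ⟨z1 v, hmem _ b3 b1 b2, by simp [z1], b4, ?_⟩
      have e := W.rw.lo_up _ b3
      have e' : (bT T1 + z1 v) 0 = v := by simp [bT, nL, z1]
      rw [e'] at e
      rw [hlo0]; linarith)
  refine ⟨J', _, ν', own', W, e1, e2, e3, ?_⟩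
  intro a ha b hb hab hk b1 b3
  exact extG_zeroE W.gau (Dmx779.tight_XB ok h0 h1 hξ hw) e3 ha hb hab
    (fun k k1 k3 => (hk k k1 k3).symm) b1 b3

end Crest.Agent.R136.ExtG779
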