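import Crest.Agent.R136.LdF3_511

/-!
# R136, case `V 2, ¬ V 3, ¬ V 4` at `θ 0 = θ 2` : instance of the ladder `K2T_774` (helper355)

Copy of the last part of `LdF3_511` (helper511) at `θ 0 = θ 2`.  There D-max near the record holds
on the smaller set of directions `Qd2 = {d ∈ QdF | d 6 ≤ d 7}` (`C_b ≤ P`).

* `Qd2`, `qd2_rec`, `qd2_ray`, `qd2_ca` : the D-max directions
* `recF_dmax2` : D-max near the record point on `Qd2`
* `recD_F2`, `rungD2_i`, `rungD2_ii`, `rungD2_iii` (`s ≤ 1 + κ`)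
* `stage_F2`, `ladder_F2`
-/

set_option autoImplicit false
set_option linter.unusedVariables false

open Finset Filter Topology

namespace Crest.Agent.R136.F2a355

open Crest.Agent.R138.Ex926 (Base U QProf cls mem_cls)
open Crest.Agent.R136.Net191
open Crest.Agent.R136.NetQ186
open Crest.Agent.R136.Wq638
open Crest.Agent.R136.Lq196
open Crest.Agent.R136.NatT550
open Crest.Agent.R136.NatR550 (nL coneN DN nat_dmax rec_ge rec_eq rec_leg)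
open Crest.Agent.R136.Top484
open Crest.Agent.R136.LdF511
open Crest.Agent.R136.LdF3511
open Dg262 (X SupOn)
open Dg219 (mw mem_mwL Walls Tn)
open K2S774 (cn Prf Stage RecD RungD FLem ind1 A2 stage_init)

/-! ### D-max directions at `θ 0 = θ 2` -/

/-- directions (relative to a record point) where D-max holds at `θ 0 = θ 2` -/
def Qd2 (θ : Fin 3 → ℝ) : Set (Fin 11 → ℝ) :=
  {d | d ∈ W10 ∧ (θ 0 = 1 → d 0 + d 7 ≤ 0) ∧ d 6 ≤ d 7}

theorem qd2_qdF {θ : Fin 3 → ℝ} {d : Fin 11 → ℝ} (hd : d ∈ Qd2 θ) : d ∈ QdF θ :=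
  ⟨hd.1, hd.2.1⟩

theorem mem_Qd2 {θ : Fin 3 → ℝ} {d : Fin 11 → ℝ} : d ∈ Qd2 θ ↔ d ∈ QdF θ ∧ d 6 ≤ d 7 :=
  ⟨fun h => ⟨⟨h.1, h.2.1⟩, h.2.2⟩, fun h => ⟨h.1.1, h.1.2, h.2⟩⟩

/-- natural directions with `t2 ≤ t3` are D-max directions -/
theorem qd2_nL {θ : Fin 3 → ℝ} {v t1 t2 t3 : ℝ} (h : θ 0 = 1 → v + t3 ≤ 0) (h23 : t2 ≤ t3) :
    nL v t1 t2 t3 ∈ Qd2 θ := mem_Qd2.2 ⟨qd_nL h, by simpa only [nL, Matrix.cons_val] using h23⟩

theorem qd2_rec {θ : Fin 3 → ℝ} (h02 : θ 0 = θ 2) {d : Fin 11 → ℝ} (hd : d ∈ Qd2 θ) (x : ℝ)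
    {t : ℝ} (ht : 0 ≤ t) : x • rhoF θ + t • d ∈ Qd2 θ := by
  refine mem_Qd2.2 ⟨qd_rec (qd2_qdF hd) x ht, ?_⟩
  have := mul_le_mul_of_nonneg_left hd.2.2 ht
  simp only [rhoF, nL, Pi.add_apply, Pi.smul_apply, smul_eq_mul, Matrix.cons_val, h02]
  linarith

/-- `-T'` is a D-max box for the ray of slope `0 ≤ s ≤ 1 + κ` -/
theorem qd2_ray (θ : Fin 3 → ℝ) {κ s : ℝ} (hs : 0 ≤ s) (hsκ : s ≤ 1 + κ) :
    -nL 1 0 κ (s - 1) ∈ Qd2 θ := by
  rw [nL_neg]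
  exact qd2_nL (fun _ => by linarith) (by linarith)

/-- the slot `C_a` alone is a D-max direction, its cost is `q 1` (`DlF_ca`) -/
theorem qd2_ca (θ : Fin 3 → ℝ) : Pi.single 5 1 ∈ Qd2 θ := by
  refine mem_Qd2.2 ⟨qd_ca θ, ?_⟩
  simp

/-- **record direction and D-max cone** at `θ 0 = θ 2` -/
theorem recD_F2 {θ : Fin 3 → ℝ} (h02 : θ 0 = θ 2) (J : Finset (Fin 11)) :
    RecD (mw monQ) (AF J) (rhoF θ) (Qd2 θ) {2} 0 (oF θ) where
  full := fun w hw => AF_full hw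
  nat := fun w hw => nat_AF _ _ _ _ (AF_mono (Finset.empty_subset J) hw)
  qd := fun d hd ξ t ht => qd2_rec h02 hd ξ ht
  tie := fun i hi => tie_rec θ i (by simpa using hi)

/-- **rung (i)**: `s = 1 + κ`, drop `F_b` -/
theorem rungD2_i {θ : Fin 3 → ℝ} (hκ : 0 < θ 1 - θ 2) {b : Fin 11 → ℝ}
    (hb : ∀ i, i ∉ (∅ : Finset (Fin 11)) → b i = rhoF θ i) :
    RungD (mw monQ) (AF ∅) ↑(∅ : Finset (Fin 11)) {5, 1} {2} 0 (Qd2 θ) (rhoF θ)
      (TF ∅ (θ 1 - θ 2) (1 + (θ 1 - θ 2)) 0) (TpF (θ 1 - θ 2) (1 + (θ 1 - θ 2))) b {3} where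
  T0 := (TF_i hκ 0).1
  TJ := (TF_i hκ 0).2.1
  TZ := fun i h1 h2 => (TF_i hκ 0).2.2 i h1 (by simpa using h2)
  natT := fun w hw => natTF _ _ _ hw
  bρ := fun i hi => hb i (by simp)
  TT := fun i hi => TF_off (by simp)
  qd := qd2_ray θ (by linarith) le_rfl
  head := fun w hw h => head3 hw h
  JZ := by simp
  JT := by simp
  Jz := by simp

/-- **rung (ii)**: `s = 1`, drop `F_a, P` -/
theorem rungD2_ii {θ : Fin 3 → ℝ} (hκ : 0 < θ 1 - θ 2) {b x : Fin 11 → ℝ} (hx : 0 < x 3)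
    (hb : ∀ i, i ∉ ({3} : Finset (Fin 11)) → b i = rhoF θ i) :
    RungD (mw monQ) (AF {3}) ↑({3} : Finset (Fin 11)) {5, 1} {2} 0 (Qd2 θ) (rhoF θ)
      (TF {3} (θ 1 - θ 2) 1 x) (TpF (θ 1 - θ 2) 1) b {4, 7} where
  T0 := (TF_ii hκ hx).1
  TJ := (TF_ii hκ hx).2.1
  TZ := fun i h1 h2 => (TF_ii hκ hx).2.2 i h1 (by simpa using h2)
  natT := fun w hw => natTF _ _ _ hw
  bρ := fun i hi => hb i (by simpa using hi)
  TT := fun i hi => TF_off (by simpa using hi)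
  qd := qd2_ray θ zero_le_one (by linarith)
  head := fun w hw h => head47 hw h
  JZ := by simp
  JT := by simp
  Jz := by simp

/-- **rung (iii)**: any `0 < s ≤ 1 + κ`, nothing to drop -/
theorem rungD2_iii {θ : Fin 3 → ℝ} (hκ : 0 < θ 1 - θ 2) {s : ℝ} (hs : 0 < s)
    (hsκ : s ≤ 1 + (θ 1 - θ 2)) {b x : Fin 11 → ℝ}
    (h3 : 0 < x 3) (h4 : 0 < x 4) (h7 : 0 < x 7)
    (hb : ∀ i, i ∉ ({3, 4, 7} : Finset (Fin 11)) → b i = rhoF θ i) :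
    RungD (mw monQ) (AF {3, 4, 7}) ↑({3, 4, 7} : Finset (Fin 11)) {5, 1} {2} 0 (Qd2 θ) (rhoF θ)
      (TF {3, 4, 7} (θ 1 - θ 2) s x) (TpF (θ 1 - θ 2) s) b ∅ where
  T0 := (TF_iii hκ hs h3 h4 h7).1
  TJ := by simp
  TZ := fun i h1 h2 => (TF_iii hκ hs h3 h4 h7).2 i (by simpa using h2)
  natT := fun w hw => natTF _ _ _ hw
  bρ := fun i hi => hb i (by simpa using hi)
  TT := fun i hi => TF_off (by simpa using hi)
  qd := qd2_ray θ hs.le hsκ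
  head := by simp
  JZ := by simp
  JT := by simp
  Jz := by simp

section ladder

variable {η : ℝ} {p : Par4} {D : Dat4} {I1 : ℕ → Finset (ℕ × ℝ)} {π : Equiv.Perm (Fin 3)}
  {eE fA fB : ℕ → ℕ × ℝ → ℝ} {V T : Fin 11 → Prop} {w0 R T0 : ℝ} {PD : Set (Fin 11 → ℝ)}
  {ν own : (Fin 11 → ℝ) → ℝ} {c₀ : ℝ}

/-- **D-max near the record point** at `θ 0 = θ 2`, directions with `d 6 ≤ d 7` -/
theorem recF_dmax2 (h : Thick η p D I1 π eE fA fB V T w0 R T0 PD ν own c₀) {R1 v : ℝ}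
    (hR : R1 < R) (hR1 : 2 * w0 + T0 < R1) (h0 : 0 < v) (h1 : v < 1) (hκ : 0 < p.θ 1 - p.θ 2)
    (h02 : p.θ 0 = p.θ 2) {d : Fin 11 → ℝ} (hd : d ∈ Qd2 p.θ) :
    ∀ᶠ t in 𝓝[≥] (0:ℝ), ν (recF p.θ w0 R1 v + t • d) ≤ ν (recF p.θ w0 R1 v) + t * DlF p d := by
  have hleg0 := recF_leg_ev h.tp.big hR hR1 h0 h1 hd.1
  have hleg := recF_leg_ev h.tp.big hR hR1 h0 h1 (upX_W10 hd.1)
  have hle := le_upX hd.1
  have hθ := h.tp.ok.θ1
  have e1 : ∀ᶠ t in 𝓝[≥] (0:ℝ), 0 ≤ v + t * d 0 := ev_le_of _ h0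
  have e2 : ∀ᶠ t in 𝓝[≥] (0:ℝ), 0 ≤ (1 - v) + t * (-d 0) := ev_le_of _ (by linarith)
  have e3 : ∀ᶠ t in 𝓝[≥] (0:ℝ), -p.θ 1 < -(p.θ 1 * v) + t * d 5 :=
    nhdsWithin_le_nhds (ev_lt _ (by nlinarith))
  have e4 : ∀ᶠ t in 𝓝[≥] (0:ℝ), min 0 (p.θ 1 - p.θ 2) ≤
      (p.θ 1 - p.θ 2) * v + t * (d 6 - d 5) := by
    refine ev_le_of _ ?_
    rw [min_eq_left hκ.le]; positivity
  have e5 : ∀ᶠ t in 𝓝[≥] (0:ℝ), min 0 (p.θ 2 - p.θ 0) ≤
      (p.θ 2 - p.θ 0) * v + t * (d 7 - d 6) := by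
    filter_upwards [self_mem_nhdsWithin] with t ht
    have ht' : (0:ℝ) ≤ t := ht
    have := mul_nonneg ht' (sub_nonneg.2 hd.2.2)
    rw [h02, sub_self, min_self]
    linarith
  have e6 : ∀ᶠ t in 𝓝[≥] (0:ℝ), (1 - p.θ 0) * v + t * (d 0 + d 7) ≤ max 0 (1 - p.θ 0) := by
    by_cases hc : p.θ 0 = 1
    · filter_upwards [self_mem_nhdsWithin] with t ht
      have ht' : (0:ℝ) ≤ t := ht
      have := mul_nonneg ht' (neg_nonneg.2 (hd.2.1 hc))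
      rw [hc, sub_self, max_self]
      linarith
    · have hlt : (1 - p.θ 0) * v < max 0 (1 - p.θ 0) := by
        rcases lt_or_gt_of_ne hc with hlt | hlt
        · rw [max_eq_right (by linarith)]
          have : 0 < 1 - p.θ 0 := by linarith
          nlinarith
        · rw [max_eq_left (by linarith)]
          have : 0 < p.θ 0 - 1 := by linarith
          nlinarith
      filter_upwards [ev_le_of (-(d 0 + d 7)) (a := 0)
        (b := max 0 (1 - p.θ 0) - (1 - p.θ 0) * v) (by linarith)] with t ht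
      linarith
  filter_upwards [hleg0, hleg, e1, e2, e3, e4, e5, e6, self_mem_nhdsWithin] with
    t k00 k0 k1 k2 k3 k4 k5 k6 ht
  have ht' : (0:ℝ) ≤ t := ht
  have hval := rec_eq h hR.le hR1.le h0.le h1
  have hPD : recF p.θ w0 R1 v + t • upX d ∈ PDlin p.θ w0 R := by
    refine ⟨k0, ?_, ?_, ?_, ?_, ?_, ?_⟩ <;>
      simp only [recF, nat4, upX, Pi.add_apply, Pi.smul_apply, smul_eq_mul, Matrix.cons_val] <;>
      linarith
  have hdm := h.ext.dmax _ (h.tp.pd hPD)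
  have hsh := (h.ext.lip _ k00 _ k0 (by
    intro k
    have := mul_le_mul_of_nonneg_left (hle k) ht'
    simp only [Pi.add_apply, Pi.smul_apply, smul_eq_mul]
    linarith)).2
  have hsum : ∑ k, ((recF p.θ w0 R1 v + t • upX d) k - (recF p.θ w0 R1 v + t • d) k) =
      t * ((d 0 + d 5 - d 8) + (d 0 + d 6 - d 9) + (d 0 + d 7 - d 10)) := by
    simp [Fin.sum_univ_succ, upX]
    ring
  rw [hsum] at hsh
  have hDQ : DQ p.g 0 p.q w0 (recF p.θ w0 R1 v + t • upX d) =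
      DN p v (-(p.θ 1 * v)) (-(p.θ 2 * v)) (-(p.θ 0 * v)) + t * DlF p (upX d) := by
    simp only [DQ, DN, DlF, recF, nat4, upX, Pi.add_apply, Pi.smul_apply, smul_eq_mul,
      Matrix.cons_val]
    ring
  have hup : DlF p (upX d) = DlF p d - ((d 0 + d 5 - d 8) + (d 0 + d 6 - d 9) +
      (d 0 + d 7 - d 10)) := by
    simp only [DlF, upX, Matrix.cons_val]; ring
  rw [hDQ, hup] at hdm
  unfold recF at hdm hsh ⊢
  rw [hval]
  nlinarith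

/-- a stage at `θ 0 = θ 2` with the dropped slots `J` -/
abbrev StF2 (p : Par4) (ν own : (Fin 11 → ℝ) → ℝ) (w0 R v : ℝ) (J : Finset (Fin 11))
    (lam lo : (Fin 11 → ℝ) → ℝ) : Prop :=
  Stage (mw monQ) (Leg monQ R) ν own (11 : ℕ) (recF p.θ w0 (R - 1) v) (rhoF p.θ) (DlFL p)
    (Qd2 p.θ) {5, 1} {2} 0 (oF p.θ) 1 (AF J) ↑J lam lo

/-- **the first stage** at `θ 0 = θ 2` -/
theorem stage_F2 (h : Thick η p D I1 π eE fA fB V T w0 R T0 PD ν own c₀) {v : ℝ} (h0 : 0 < v)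
    (h1 : v < 1) (hκ : 0 < p.θ 1 - p.θ 2) (h02 : p.θ 0 = p.θ 2) (hV3 : ¬ V 3) (hV4 : ¬ V 4) :
    ∃ lam lo : (Fin 11 → ℝ) → ℝ, StF2 p ν own w0 R v ∅ lam lo := by
  obtain ⟨r1, r2, r3⟩ := R1_room h.tp.big
  have hge : 𝓝[>] (0:ℝ) ≤ 𝓝[≥] (0:ℝ) := nhdsWithin_mono _ Set.Ioi_subset_Ici_self
  have hr0 : own (recF p.θ w0 (R - 1) v) = 1 - v := by
    obtain ⟨t0, ht0, ht⟩ := ev_ge (recF_own h r2 r1 h0 h1 hV3 hV4 (c := 0)
      (by refine ⟨?_, ?_, ?_, ?_, ?_, ?_, ?_, ?_, ?_, ?_⟩ <;> simp) (by simp))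
    have := ht 0 le_rfl ht0.le
    simpa using this
  have key := stage_init (Q := mw monQ) (P := Leg monQ R) (ν := ν) (own := own) (K := (11 : ℕ))
    (r0 := recF p.θ w0 (R - 1) v) (ρ := rhoF p.θ) (Dl := DlFL p) (Qd := Qd2 p.θ)
    (Z := {5, 1}) (Tie := {2}) (kz := 0) (o := oF p.θ) (τ := 1) (A := AF ∅) (prf_ext h.ext)
    (recD_F2 h02 ∅) (fun w hw => by
      rw [recF_nat _ _ _ _ hw]; simp [mw]) (fun w hw => by
      have := (recF_strict h.tp.big r1 h0 h1 w).resolve_left hw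
      simpa [mw] using this) ?_ ?_ ?_ ?_ ?_
  · obtain ⟨lam, lo, hS⟩ := key
    refine ⟨lam, lo, ?_⟩
    unfold StF2
    rw [Finset.coe_empty]
    exact hS
  · intro C
    obtain ⟨δ, hδ, hl⟩ := recF_leg h.tp.big r2 r1 h0 h1
    refine ⟨δ / (|C| + 1), by positivity, fun t ht ht' c hc hcC => ?_⟩
    have hc' : c ∈ W10 := by rw [← cn_W10]; exact hc
    refine hl _ ?_ fun k => ?_
    · rw [← cn_W10]
      exact K2S774.cn_smul hc ht.le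
    · rw [Pi.smul_apply, smul_eq_mul, abs_mul, abs_of_pos ht]
      have h1 := norm_le_pi_norm c k
      rw [Real.norm_eq_abs] at h1
      have h2 : |c k| ≤ |C| + 1 := by linarith [le_abs_self C]
      rw [lt_div_iff₀ (by positivity)] at ht'
      have := mul_le_mul_of_nonneg_left h2 ht.le
      linarith
  · intro σ
    have e1 : ∀ᶠ t in 𝓝[≥] (0:ℝ), 0 ≤ v + t * σ := ev_le_of _ h0
    have e2 : ∀ᶠ t in 𝓝[≥] (0:ℝ), 0 < (1 - v) + t * (-σ) :=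
      nhdsWithin_le_nhds (ev_lt _ (by linarith))
    filter_upwards [hge e1, hge e2] with t k1 k2
    rw [smul_smul, recF_rec h r2.le r1.le h0.le h1 k1 (by linarith)]
    show _ = _ + t * (σ * DlF p (rhoF p.θ))
    ring
  · intro d hd
    filter_upwards [hge (recF_leg_ev h.tp.big r2 r1 h0 h1 hd.1),
      hge (recF_dmax2 h r2 r1 h0 h1 hκ h02 hd)] with t k1 k2
    exact ⟨k1, k2⟩
  · intro c hc hcT
    have hc' : c ∈ W10 := by rw [← cn_W10]; exact hc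
    filter_upwards [hge (recF_own h r2 r1 h0 h1 hV3 hV4 hc' (hcT 2 rfl))] with t k1
    rw [k1, hr0]; ring
  · intro c hc
    have hc' : c ∈ W10 := by rw [← cn_W10]; exact hc
    filter_upwards [hge (recF_ownu h r2 r1 h0 h1 hc')] with t k1
    rw [hr0]; linarith

/-- **the ladder at `θ 0 = θ 2`**: three F-lemmas give a contradiction.  The values `x2, x3` and
the second direction `b2, b3` on the dropped slots are free; `0 < s3 ≤ 1 + κ`. -/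
theorem ladder_F2 (h : Thick η p D I1 π eE fA fB V T w0 R T0 PD ν own c₀) {v : ℝ} (h0 : 0 < v)
    (h1 : v < 1) (hκ : 0 < p.θ 1 - p.θ 2) (h02 : p.θ 0 = p.θ 2) (hV3 : ¬ V 3) (hV4 : ¬ V 4)
    {x2 b2 x3 b3 : Fin 11 → ℝ} {s3 g1 g2 g3 : ℝ} (hx2 : 0 < x2 3)
    (hb2 : ∀ i, i ∉ ({3} : Finset (Fin 11)) → b2 i = rhoF p.θ i) (hs3 : 0 < s3)
    (hs3κ : s3 ≤ 1 + (p.θ 1 - p.θ 2))
    (hx33 : 0 < x3 3) (hx34 : 0 < x3 4) (hx37 : 0 < x3 7)
    (hb3 : ∀ i, i ∉ ({3, 4, 7} : Finset (Fin 11)) → b3 i = rhoF p.θ i)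
    (hg1 : 0 < g1) (hg2 : 0 < g2) (hg3 : 0 < g3)
    (F1 : ∀ lam lo, StF2 p ν own w0 R v ∅ lam lo →
      FlF p ν own w0 R v ∅ (1 + (p.θ 1 - p.θ 2)) 0 (rhoF p.θ) lam lo
        (fun lam' => lam' (ind1 {3}) < 0) g1)
    (F2 : ∀ lam lo, StF2 p ν own w0 R v {3} lam lo →
      FlF p ν own w0 R v {3} 1 x2 b2 lam lo (fun lam' => lam' (ind1 {4, 7}) < 0) g2)
    (F3 : ∀ lam lo, StF2 p ν own w0 R v {3, 4, 7} lam lo →
      FlF p ν own w0 R v {3, 4, 7} s3 x3 b3 lam lo (fun _ => True) g3) : False := by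
  obtain ⟨lam, lo, H⟩ := stage_F2 h h0 h1 hκ h02 hV3 hV4
  obtain ⟨lam2, lo2, H2⟩ := H.rung (recD_F2 h02 ∅) (rungD2_i hκ fun _ _ => rfl) hg1
    (F1 lam lo H)
  have H2' : StF2 p ν own w0 R v {3} lam2 lo2 := by
    have e1 := A2_AF ∅ {3}
    rw [Finset.empty_union] at e1
    rw [e1, ← Finset.coe_union, Finset.empty_union] at H2
    exact H2
  obtain ⟨lam3, lo3, H3⟩ := H2'.rung (recD_F2 h02 {3}) (rungD2_ii hκ hx2 hb2) hg2
    (F2 lam2 lo2 H2')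
  have H3' : StF2 p ν own w0 R v {3, 4, 7} lam3 lo3 := by
    have e1 := A2_AF {3} {4, 7}
    have e2 : ({3} : Finset (Fin 11)) ∪ {4, 7} = {3, 4, 7} := by decide
    rw [e2] at e1
    rw [e1, ← Finset.coe_union, e2] at H3
    exact H3
  exact H3'.dead (recD_F2 h02 {3, 4, 7}) (rungD2_iii hκ hs3 hs3κ hx33 hx34 hx37 hb3) hg3
    (F3 lam3 lo3 H3')

end ladder

end Crest.Agent.R136.F2a355
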