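import Mathlib

/-!
# R136 (S0187), g-free tilt (PLAN 2, B4): the two fan inequalities (helper989)

Real numbers only.  `fan_one` : one sheet at a common line `T` in coordinates (thickness `y`, `x` =
gradient direction of `P = q' - μ q` in the base, `s` = the perpendicular direction); `(yp, xp, s)`,
`(yc, xc, t)` = position and velocity of `T' - T`; the three coefficients of the sheet polynomial along
`T'` are bounded.

`fan_two` : two sheets linked by `y' = m y + M x` (`M` = size of the gradient of `P` at `T`):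
`|xp| ≤ C(η s² + 1)/M`, `|xc| ≤ C R / M`, and the two fan inequalities
`|gs t + Qss t²|, |gs' t + Qss' t²| ≤ C (1 + τ|s| + η|s|(|s| + |t|))`.
-/

set_option autoImplicit false
set_option linter.unusedVariables false

namespace Crest.Agent.R136.Fan989

theorem mle {x y A B : ℝ} (hx : |x| ≤ A) (hy : |y| ≤ B) : |x * y| ≤ A * B := by
  rw [abs_mul]; exact mul_le_mul hx hy (abs_nonneg _) ((abs_nonneg _).trans hx)

/-- **one sheet** -/
theorem fan_one {n γ0 gx gs cyy cyx cys Qxx Qxs Qss yp xp s yc xc t X μ E0 E1 E2 : ℝ}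
    (hn : 1 / 2 ≤ |n|) (hX : 0 < X) (hγ0 : |γ0| ≤ 2) (hgx : |gx| ≤ X)
    (h1 : |cyy| * X ≤ 13) (h2 : |cyx| ≤ 13) (h3 : |cys| ≤ 13) (h4 : |Qxx| ≤ X) (h5 : |Qxs| ≤ X)
    (hμ0 : 0 ≤ μ) (hμ : 400 * μ ≤ 1)
    (b1 : |yp| ≤ μ * X) (b2 : |xp| ≤ μ) (b3 : |s| ≤ μ)
    (b4 : |yc| ≤ μ * X) (b5 : |xc| ≤ μ) (b6 : |t| ≤ μ)
    (e0 : |n * yp + (cyy * yp * yp + cyx * yp * xp + cys * yp * s + Qxx * xp * xp + Qxs * xp * s +
      Qss * s ^ 2)| ≤ E0)
    (e1 : |n * yc + γ0 * yp + gx * xp + gs * s + (2 * cyy * yp * yc + cyx * (yp * xc + yc * xp) +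
      cys * (yp * t + yc * s) + 2 * Qxx * xp * xc + Qxs * (xp * t + xc * s) + 2 * Qss * s * t)| ≤ E1)
    (e2 : |γ0 * yc + gx * xc + gs * t + (cyy * yc * yc + cyx * yc * xc + cys * yc * t +
      Qxx * xc * xc + Qxs * xc * t + Qss * t ^ 2)| ≤ E2) :
    |yp| ≤ 3 * (|Qss| * s ^ 2 + 2 * (μ * X * |xp|) + E0) ∧
    |yc| ≤ 3 * (|gs| * |s| + 2 * (|Qss| * (|s| * |t|)) + 2 * (X * |xp|) + μ * X * |xc| + 3 * |yp| +
      E1) ∧
    |gs * t + Qss * t ^ 2| ≤ E2 + 3 * |yc| + 2 * (X * |xc|) := by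
  have xpn := abs_nonneg xp
  have xcn := abs_nonneg xc
  have ypn := abs_nonneg yp
  have ycn := abs_nonneg yc
  -- `cyy` terms
  have k1 : ∀ y z : ℝ, |y| ≤ μ * X → |cyy * y * z| ≤ 13 * μ * |z| := by
    intro y z hy
    rw [abs_mul, abs_mul]
    calc |cyy| * |y| * |z| ≤ |cyy| * (μ * X) * |z| :=
          mul_le_mul_of_nonneg_right (mul_le_mul_of_nonneg_left hy (abs_nonneg _)) (abs_nonneg _)
      _ = μ * (|cyy| * X) * |z| := by ring
      _ ≤ μ * 13 * |z| :=
          mul_le_mul_of_nonneg_right (mul_le_mul_of_nonneg_left h1 hμ0) (abs_nonneg _)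
      _ = 13 * μ * |z| := by ring
  have k2 : ∀ c y z : ℝ, |c| ≤ 13 → |z| ≤ μ → |c * y * z| ≤ 13 * μ * |y| := by
    intro c y z hc hz
    rw [abs_mul, abs_mul]
    calc |c| * |y| * |z| ≤ 13 * |y| * μ :=
          mul_le_mul (mul_le_mul_of_nonneg_right hc (abs_nonneg _)) hz (abs_nonneg _) (by positivity)
      _ = 13 * μ * |y| := by ring
  have k3 : ∀ c y z : ℝ, |c| ≤ X → |z| ≤ μ → |c * y * z| ≤ μ * X * |y| := by
    intro c y z hc hz
    rw [abs_mul, abs_mul]
    calc |c| * |y| * |z| ≤ X * |y| * μ :=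
          mul_le_mul (mul_le_mul_of_nonneg_right hc (abs_nonneg _)) hz (abs_nonneg _) (by positivity)
      _ = μ * X * |y| := by ring
  refine ⟨?_, ?_, ?_⟩
  · have a1 := k1 yp yp b1
    have a2 := k2 cyx yp xp h2 b2
    have a3 := k2 cys yp s h3 b3
    have a4 := k3 Qxx xp xp h4 b2
    have a5 := k3 Qxs xp s h5 b3
    have a6 : |Qss * s ^ 2| = |Qss| * s ^ 2 := by rw [abs_mul, abs_of_nonneg (sq_nonneg s)]
    have c1 : 1 / 2 * |yp| ≤ |n * yp| := by
      rw [abs_mul]; exact mul_le_mul_of_nonneg_right hn ypn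
    have e : n * yp = (n * yp + (cyy * yp * yp + cyx * yp * xp + cys * yp * s + Qxx * xp * xp +
      Qxs * xp * s + Qss * s ^ 2)) - cyy * yp * yp - cyx * yp * xp - cys * yp * s - Qxx * xp * xp -
      Qxs * xp * s - Qss * s ^ 2 := by ring
    rw [e] at c1
    have c2 : |(n * yp + (cyy * yp * yp + cyx * yp * xp + cys * yp * s + Qxx * xp * xp +
      Qxs * xp * s + Qss * s ^ 2)) - cyy * yp * yp - cyx * yp * xp - cys * yp * s - Qxx * xp * xp -
      Qxs * xp * s - Qss * s ^ 2| ≤ E0 + 13 * μ * |yp| + 13 * μ * |yp| + 13 * μ * |yp| +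
        μ * X * |xp| + μ * X * |xp| + |Qss| * s ^ 2 := by
      rw [← a6]
      refine (abs_sub _ _).trans (add_le_add ((abs_sub _ _).trans (add_le_add ((abs_sub _ _).trans
        (add_le_add ((abs_sub _ _).trans (add_le_add ((abs_sub _ _).trans (add_le_add
        ((abs_sub _ _).trans (add_le_add e0 a1)) a2)) a3)) a4)) a5)) le_rfl)
    have c3 : 39 * μ * |yp| ≤ (1 / 6) * |yp| := mul_le_mul_of_nonneg_right (by linarith) ypn
    linarith
  · have a1 : |2 * cyy * yp * yc| ≤ 26 * μ * |yc| := by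
      have := k1 yp yc b1
      have e : 2 * cyy * yp * yc = 2 * (cyy * yp * yc) := by ring
      rw [e, abs_mul, abs_of_pos (by norm_num : (0 : ℝ) < 2)]; linarith
    have a2 := k2 cyx yp xc h2 b5
    have a3 := k2 cyx yc xp h2 b2
    have a4 := k2 cys yp t h3 b6
    have a5 := k2 cys yc s h3 b3
    have a6 : |2 * Qxx * xp * xc| ≤ 2 * (μ * X * |xp|) := by
      have := k3 Qxx xp xc h4 b5
      have e : 2 * Qxx * xp * xc = 2 * (Qxx * xp * xc) := by ring
      rw [e, abs_mul, abs_of_pos (by norm_num : (0 : ℝ) < 2)]; linarith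
    have a7 := k3 Qxs xp t h5 b6
    have a8 := k3 Qxs xc s h5 b3
    have a9 : |2 * Qss * s * t| = 2 * (|Qss| * (|s| * |t|)) := by
      rw [abs_mul, abs_mul, abs_mul, abs_of_pos (by norm_num : (0 : ℝ) < 2)]; ring
    have a10 : |γ0 * yp| ≤ 2 * |yp| := by
      rw [abs_mul]; exact mul_le_mul_of_nonneg_right hγ0 ypn
    have a11 : |gx * xp| ≤ X * |xp| := by
      rw [abs_mul]; exact mul_le_mul_of_nonneg_right hgx xpn
    have a12 : |gs * s| = |gs| * |s| := abs_mul _ _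
    have c1 : 1 / 2 * |yc| ≤ |n * yc| := by
      rw [abs_mul]; exact mul_le_mul_of_nonneg_right hn ycn
    have e : n * yc = (n * yc + γ0 * yp + gx * xp + gs * s + (2 * cyy * yp * yc +
      cyx * (yp * xc + yc * xp) + cys * (yp * t + yc * s) + 2 * Qxx * xp * xc +
      Qxs * (xp * t + xc * s) + 2 * Qss * s * t)) - γ0 * yp - gx * xp - gs * s -
      2 * cyy * yp * yc - cyx * yp * xc - cyx * yc * xp - cys * yp * t - cys * yc * s -
      2 * Qxx * xp * xc - Qxs * xp * t - Qxs * xc * s - 2 * Qss * s * t := by ring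
    rw [e] at c1
    have c2 : |(n * yc + γ0 * yp + gx * xp + gs * s + (2 * cyy * yp * yc +
      cyx * (yp * xc + yc * xp) + cys * (yp * t + yc * s) + 2 * Qxx * xp * xc +
      Qxs * (xp * t + xc * s) + 2 * Qss * s * t)) - γ0 * yp - gx * xp - gs * s -
      2 * cyy * yp * yc - cyx * yp * xc - cyx * yc * xp - cys * yp * t - cys * yc * s -
      2 * Qxx * xp * xc - Qxs * xp * t - Qxs * xc * s - 2 * Qss * s * t| ≤
        E1 + 2 * |yp| + X * |xp| + |gs| * |s| + 26 * μ * |yc| + 13 * μ * |yp| + 13 * μ * |yc| +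
          13 * μ * |yp| + 13 * μ * |yc| + 2 * (μ * X * |xp|) + μ * X * |xp| + μ * X * |xc| +
          2 * (|Qss| * (|s| * |t|)) := by
      rw [← a9, ← a12]
      refine (abs_sub _ _).trans (add_le_add ((abs_sub _ _).trans (add_le_add ((abs_sub _ _).trans
        (add_le_add ((abs_sub _ _).trans (add_le_add ((abs_sub _ _).trans (add_le_add
        ((abs_sub _ _).trans (add_le_add ((abs_sub _ _).trans (add_le_add ((abs_sub _ _).trans
        (add_le_add ((abs_sub _ _).trans (add_le_add ((abs_sub _ _).trans (add_le_add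
        ((abs_sub _ _).trans (add_le_add ((abs_sub _ _).trans (add_le_add e1 a10)) a11)) le_rfl))
        a1)) a2)) a3)) a4)) a5)) a6)) a7)) a8)) le_rfl)
    have c3 : 52 * μ * |yc| ≤ (1 / 6) * |yc| := mul_le_mul_of_nonneg_right (by linarith) ycn
    have c4 : 26 * μ * |yp| ≤ 1 * |yp| := mul_le_mul_of_nonneg_right (by linarith) ypn
    have c5 : μ * X * |xp| ≤ (1 / 400) * (X * |xp|) := by
      have : μ * (X * |xp|) ≤ (1 / 400) * (X * |xp|) :=
        mul_le_mul_of_nonneg_right (by linarith) (by positivity)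
      linarith
    have c6 : 0 ≤ X * |xp| := by positivity
    linarith
  · have a1 := k1 yc yc b4
    have a2 := k2 cyx yc xc h2 b5
    have a3 := k2 cys yc t h3 b6
    have a4 := k3 Qxx xc xc h4 b5
    have a5 := k3 Qxs xc t h5 b6
    have a10 : |γ0 * yc| ≤ 2 * |yc| := by
      rw [abs_mul]; exact mul_le_mul_of_nonneg_right hγ0 ycn
    have a11 : |gx * xc| ≤ X * |xc| := by
      rw [abs_mul]; exact mul_le_mul_of_nonneg_right hgx xcn
    have e : gs * t + Qss * t ^ 2 = (γ0 * yc + gx * xc + gs * t + (cyy * yc * yc + cyx * yc * xc +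
      cys * yc * t + Qxx * xc * xc + Qxs * xc * t + Qss * t ^ 2)) - γ0 * yc - gx * xc -
      cyy * yc * yc - cyx * yc * xc - cys * yc * t - Qxx * xc * xc - Qxs * xc * t := by ring
    rw [e]
    have c2 : |(γ0 * yc + gx * xc + gs * t + (cyy * yc * yc + cyx * yc * xc +
      cys * yc * t + Qxx * xc * xc + Qxs * xc * t + Qss * t ^ 2)) - γ0 * yc - gx * xc -
      cyy * yc * yc - cyx * yc * xc - cys * yc * t - Qxx * xc * xc - Qxs * xc * t| ≤
        E2 + 2 * |yc| + X * |xc| + 13 * μ * |yc| + 13 * μ * |yc| + 13 * μ * |yc| +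
          μ * X * |xc| + μ * X * |xc| :=
      (abs_sub _ _).trans (add_le_add ((abs_sub _ _).trans (add_le_add ((abs_sub _ _).trans
        (add_le_add ((abs_sub _ _).trans (add_le_add ((abs_sub _ _).trans (add_le_add
        ((abs_sub _ _).trans (add_le_add ((abs_sub _ _).trans (add_le_add e2 a10)) a11)) a1)) a2))
        a3)) a4)) a5)
    have c3 : 39 * μ * |yc| ≤ 1 * |yc| := mul_le_mul_of_nonneg_right (by linarith) ycn
    have c5 : μ * X * |xc| ≤ (1 / 400) * (X * |xc|) := by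
      have : μ * (X * |xc|) ≤ (1 / 400) * (X * |xc|) :=
        mul_le_mul_of_nonneg_right (by linarith) (by positivity)
      linarith
    have c6 : 0 ≤ X * |xc| := by positivity
    linarith

/-- **two sheets** (abstract conclusions of `fan_one` for both, linked by `y' = m y + M x`) -/
theorem fan_link {m M yp xp s yc xc t yp' yc' X μ K k η τ f f' : ℝ} (hX : 0 < X) (hM : 0 < M)
    (K1 : 1 ≤ K) (k1 : 1 ≤ k) (hm : |m| ≤ K) (hμ0 : 0 ≤ μ) (hkμ : k * μ ≤ 1) (η0 : 0 ≤ η)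
    (τ0 : 0 ≤ τ) (hMX : 60 * (K * μ * X) ≤ M)
    (l1 : yp' = m * yp + M * xp) (l2 : yc' = m * yc + M * xc)
    (a1 : |yp| ≤ 3 * (η * s ^ 2 + 2 * (μ * X * |xp|) + 16))
    (a2 : |yc| ≤ 3 * (τ * |s| + 2 * (η * (|s| * |t|)) + 2 * (X * |xp|) + μ * X * |xc| +
      3 * |yp| + 16))
    (a3 : |f| ≤ 16 + 3 * |yc| + 2 * (X * |xc|))
    (b1 : |yp'| ≤ 3 * (η * s ^ 2 + 2 * (μ * X * |xp|) + (16 + k * μ * |yp|)))
    (b2 : |yc'| ≤ 3 * (τ * |s| + 2 * (η * (|s| * |t|)) + 2 * (X * |xp|) + μ * X * |xc| +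
      3 * |yp'| + (16 + k * |yp| + k * μ * |yc|)))
    (b3 : |f'| ≤ (16 + k * |yc|) + 3 * |yc'| + 2 * (X * |xc|)) :
    |xp| ≤ 30 * K * (η * s ^ 2 + 16) / M ∧
    |xc| ≤ 30 * K * (τ * |s| + 2 * (η * (|s| * |t|)) + (60 * K * (X / M) + 100 * k) *
      (η * s ^ 2 + 16)) / M ∧
    |f| ≤ (100 * k + 60 * K * (X / M)) * (τ * |s| + 2 * (η * (|s| * |t|)) +
      (60 * K * (X / M) + 100 * k) * (η * s ^ 2 + 16)) ∧
    |f'| ≤ (100 * k + 60 * K * (X / M)) * (τ * |s| + 2 * (η * (|s| * |t|)) +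
      (60 * K * (X / M) + 100 * k) * (η * s ^ 2 + 16)) ∧
    |yp| ≤ 6 * (η * s ^ 2 + 16) ∧
    |yc| ≤ 6 * (τ * |s| + 2 * (η * (|s| * |t|)) + (60 * K * (X / M) + 100 * k) *
      (η * s ^ 2 + 16)) := by
  have xpn := abs_nonneg xp
  have xcn := abs_nonneg xc
  have ypn := abs_nonneg yp
  have ycn := abs_nonneg yc
  obtain ⟨S, hS⟩ : ∃ S, S = η * s ^ 2 + 16 := ⟨_, rfl⟩
  have S16 : 16 ≤ S := by rw [hS]; have : 0 ≤ η * s ^ 2 := by positivity
                          linarith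
  rw [← hS]
  have hMx : ∀ y' y x : ℝ, y' = m * y + M * x → M * |x| ≤ |y'| + K * |y| := by
    intro y' y x h
    have e : M * x = y' - m * y := by rw [h]; ring
    have : M * |x| = |M * x| := by rw [abs_mul, abs_of_pos hM]
    rw [this, e]
    refine (abs_sub _ _).trans (add_le_add le_rfl ?_)
    rw [abs_mul]; exact mul_le_mul_of_nonneg_right hm (abs_nonneg _)
  have p1 := hMx _ _ _ l1
  have p2 := hMx _ _ _ l2
  -- positions
  obtain ⟨V, hV⟩ : ∃ V, V = μ * X * |xp| := ⟨_, rfl⟩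
  rw [← hV] at a1 b1
  have V0 : 0 ≤ V := by rw [hV]; positivity
  have e1 : η * s ^ 2 + 2 * V + 16 = S + 2 * V := by rw [hS]; ring
  rw [e1] at a1
  have c1 : k * μ * |yp| ≤ |yp| := by
    calc k * μ * |yp| ≤ 1 * |yp| := mul_le_mul_of_nonneg_right hkμ ypn
      _ = |yp| := one_mul _
  have b1' : |yp'| ≤ 12 * (S + 2 * V) := by
    have : η * s ^ 2 + 2 * V + (16 + k * μ * |yp|) ≤ (S + 2 * V) + 3 * (S + 2 * V) := by
      rw [hS]; rw [hS] at a1; linarith
    linarith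
  have hK3 : K * |yp| ≤ K * (3 * (S + 2 * V)) := mul_le_mul_of_nonneg_left a1 (by linarith)
  have c2 : M * |xp| ≤ 15 * (K * (S + 2 * V)) := by
    have : 12 * (S + 2 * V) ≤ 12 * (K * (S + 2 * V)) := by
      have : S + 2 * V ≤ K * (S + 2 * V) := le_mul_of_one_le_left (by linarith) K1
      linarith
    linarith
  have c3 : 30 * (K * V) ≤ M * |xp| / 2 := by
    rw [hV]
    have : 60 * (K * μ * X) * |xp| ≤ M * |xp| := mul_le_mul_of_nonneg_right hMX xpn
    linarith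
  have c4 : M * |xp| ≤ 30 * (K * S) := by linarith
  have r1 : |xp| ≤ 30 * K * S / M := by
    rw [le_div_iff₀ hM]; linarith
  have c5 : 2 * V ≤ S := by
    have h1 : 60 * (K * V) ≤ 30 * (K * S) := by linarith
    have h2 : K * (2 * V) ≤ K * S := by linarith
    exact le_of_mul_le_mul_left h2 (by linarith)
  have r5 : |yp| ≤ 6 * S := by linarith
  have yp6 : |yp'| ≤ 24 * S := by linarith
  -- `X |xp|`
  obtain ⟨D, hD⟩ : ∃ D, D = X / M := ⟨_, rfl⟩
  have D0 : 0 < D := by rw [hD]; positivity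
  rw [← hD]
  have hXD : ∀ x A : ℝ, M * |x| ≤ A → X * |x| ≤ D * A := by
    intro x A h
    have e : X * |x| = D * (M * |x|) := by rw [hD]; field_simp
    rw [e]; exact mul_le_mul_of_nonneg_left h D0.le
  have d1 : X * |xp| ≤ D * (30 * (K * S)) := hXD _ _ c4
  -- velocities
  obtain ⟨Z, hZ⟩ : ∃ Z, Z = τ * |s| + 2 * (η * (|s| * |t|)) := ⟨_, rfl⟩
  have Z0 : 0 ≤ Z := by rw [hZ]; positivity
  rw [← hZ] at a2 b2
  rw [← hZ]
  obtain ⟨R, hR⟩ : ∃ R, R = Z + (60 * K * D + 100 * k) * S := ⟨_, rfl⟩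
  rw [← hR]
  obtain ⟨V2, hV2⟩ : ∃ V2, V2 = μ * X * |xc| := ⟨_, rfl⟩
  rw [← hV2] at a2 b2
  have V20 : 0 ≤ V2 := by rw [hV2]; positivity
  have eR : R = Z + 60 * (K * D * S) + 100 * (k * S) := by rw [hR]; ring
  have kS : S ≤ k * S := le_mul_of_one_le_left (by linarith) k1
  have R0 : 0 ≤ R := by rw [eR]; positivity
  have d2 : |yc| ≤ 3 * (R + V2) := by
    have : D * (30 * (K * S)) = 30 * (K * D * S) := by ring
    rw [this] at d1
    linarith
  have d3 : |yc'| ≤ 12 * (R + V2) := by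
    have h1 : D * (30 * (K * S)) = 30 * (K * D * S) := by ring
    rw [h1] at d1
    have h2 : k * |yp| ≤ k * (6 * S) := mul_le_mul_of_nonneg_left r5 (by linarith)
    have h3 : k * μ * |yc| ≤ |yc| := by
      calc k * μ * |yc| ≤ 1 * |yc| := mul_le_mul_of_nonneg_right hkμ ycn
        _ = |yc| := one_mul _
    have h4 : Z + 2 * (X * |xp|) + V2 + 3 * |yp'| + (16 + k * |yp| + k * μ * |yc|) ≤
        (R + V2) + 3 * (R + V2) := by linarith
    linarith
  have hK4 : K * |yc| ≤ K * (3 * (R + V2)) := mul_le_mul_of_nonneg_left d2 (by linarith)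
  have d4 : M * |xc| ≤ 15 * (K * (R + V2)) := by
    have : 12 * (R + V2) ≤ 12 * (K * (R + V2)) := by
      have : R + V2 ≤ K * (R + V2) := le_mul_of_one_le_left (by linarith) K1
      linarith
    linarith
  have d5 : 15 * (K * V2) ≤ M * |xc| / 4 := by
    rw [hV2]
    have : 60 * (K * μ * X) * |xc| ≤ M * |xc| := mul_le_mul_of_nonneg_right hMX xcn
    linarith
  have d6 : M * |xc| ≤ 30 * (K * R) := by
    have : 0 ≤ K * R := by positivity
    linarith
  have r2 : |xc| ≤ 30 * K * R / M := by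
    rw [le_div_iff₀ hM]; linarith
  have d7 : V2 ≤ R := by
    have h1 : 60 * (K * V2) ≤ 30 * (K * R) := by linarith
    have h2 : K * (2 * V2) ≤ K * R := by linarith
    have h3 := le_of_mul_le_mul_left h2 (by linarith : 0 < K)
    linarith
  have r6 : |yc| ≤ 6 * R := by linarith
  have d8 : X * |xc| ≤ D * (30 * (K * R)) := hXD _ _ d6
  have kR : R ≤ k * R := le_mul_of_one_le_left R0 k1
  have R16 : 16 ≤ R := by rw [eR]; have : 0 ≤ K * D * S := by positivity
                          linarith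
  have e9 : (100 * k + 60 * K * D) * R = 100 * (k * R) + 60 * (K * D * R) := by ring
  have e10 : D * (30 * (K * R)) = 30 * (K * D * R) := by ring
  rw [e10] at d8
  refine ⟨r1, r2, ?_, ?_, r5, r6⟩
  · rw [e9]; linarith
  · rw [e9]
    have h1 : k * |yc| ≤ k * (6 * R) := mul_le_mul_of_nonneg_left r6 (by linarith)
    have h2 : |yc'| ≤ 24 * R := by linarith
    linarith

end Crest.Agent.R136.Fan989
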