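import Crest.Agent.R136.Hl1_706

/-!
# R136 (S0187), U4 PLAN 2, leaf L5: hull of a two-step path, with the tilts `Λ`, `μ`, `ν`, `η`
(helper706)

`P = Λ w2 + μ Y` and `τ = ν Y + (η Λ + μ) w2 Y / P`: everything reachable from `S` in two steps is in
ONE box `(τ, w1, P)` up to constants. Unswapped case `μ Y ≤ Λ w2`: `P ~ Λ w2`,
`τ ~ Y max (ν, μ / Λ, η)`; swapped case: `P ~ μ Y`, `τ ~ w2 max (1, η Λ / μ)`.
-/

set_option autoImplicit false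
set_option linter.unusedVariables false

namespace Crest.Agent.R136.Hl706

open Finset Crest.Agent.R136.Sh605 Crest.Agent.R136.Fl808

/-- upper bounds of the tilts of two frames: `Λ` = base tilt of the wide axes, `μ` = normal tilt of
the wide axes (unit `Y / w1`), `ν` = normal tilt of the narrow axes (unit `Y / w2`) -/
structure TwB (e f : Fin 3 → V3) (Y w1 w2 Λ μ ν : ℝ) : Prop where
  l : |dt (e 2) (f 1)| * w1 ≤ Λ * w2
  l' : |dt (f 2) (e 1)| * w1 ≤ Λ * w2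
  m : |dt (e 0) (f 1)| * w1 ≤ μ * Y
  m' : |dt (f 0) (e 1)| * w1 ≤ μ * Y
  n : |dt (e 0) (f 2)| * w2 ≤ ν * Y
  n' : |dt (f 0) (e 2)| * w2 ≤ ν * Y

theorem TwB.symm {e f : Fin 3 → V3} {Y w1 w2 Λ μ ν : ℝ} (h : TwB e f Y w1 w2 Λ μ ν) :
    TwB f e Y w1 w2 Λ μ ν := ⟨h.l', h.l, h.m', h.m, h.n', h.n⟩

/-- lower bound of the tilt of the wide axes -/
def TwL (e f : Fin 3 → V3) (Y w1 w2 Λ μ K : ℝ) : Prop :=
  Λ * w2 + μ * Y ≤ K * w1 * (|dt (e 2) (f 1)| + |dt (e 0) (f 1)|)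

/-- the narrow half-width of the hull -/
def Pn (Y w2 Λ μ : ℝ) : ℝ := Λ * w2 + μ * Y

/-- the thickness of the hull -/
noncomputable def Tn (Y w2 Λ μ ν η : ℝ) : ℝ := ν * Y + (η * Λ + μ) * (w2 * Y) / Pn Y w2 Λ μ

section

variable {e f f0 g : Fin 3 → V3} {Y w1 w2 Λ μ ν η K z0 ρ : ℝ}

/-- numerical side conditions -/
structure Nu (Y w1 w2 Λ μ ν η K : ℝ) : Prop where
  Y0 : 0 < Y
  Yw : Y ≤ w2
  w : w2 ≤ w1
  L1 : 1 ≤ Λ
  m0 : 0 ≤ μ
  n1 : 1 ≤ ν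
  e0 : 0 ≤ η
  K1 : 1 ≤ K
  nY : ν * Y ≤ K * w2
  eP : η * Λ * (w2 * Y) ≤ K * Pn Y w2 Λ μ ^ 2

theorem Nu.w20 (H : Nu Y w1 w2 Λ μ ν η K) : 0 < w2 := H.Y0.trans_le H.Yw
theorem Nu.w10 (H : Nu Y w1 w2 Λ μ ν η K) : 0 < w1 := H.w20.trans_le H.w
theorem Nu.P0 (H : Nu Y w1 w2 Λ μ ν η K) : 0 < Pn Y w2 Λ μ := by
  have h1 := H.w20
  have h2 := H.L1
  have h3 := H.m0
  have h4 := H.Y0
  unfold Pn
  have : 0 < Λ * w2 := by positivity
  have : 0 ≤ μ * Y := by positivity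
  linarith
theorem Nu.LP (H : Nu Y w1 w2 Λ μ ν η K) : Λ * w2 ≤ Pn Y w2 Λ μ := by
  have h3 := H.m0
  have h4 := H.Y0
  unfold Pn
  have : 0 ≤ μ * Y := by positivity
  linarith
theorem Nu.mP (H : Nu Y w1 w2 Λ μ ν η K) : μ * Y ≤ Pn Y w2 Λ μ := by
  have h1 := H.w20
  have h2 := H.L1
  unfold Pn
  have : 0 < Λ * w2 := by positivity
  linarith
theorem Nu.wP (H : Nu Y w1 w2 Λ μ ν η K) : w2 ≤ Pn Y w2 Λ μ := by
  have h1 := H.w20
  have h2 := H.L1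
  have := H.LP
  nlinarith
theorem Nu.YT (H : Nu Y w1 w2 Λ μ ν η K) : ν * Y ≤ Tn Y w2 Λ μ ν η := by
  have h1 := H.w20
  have h2 := H.L1
  have h3 := H.m0
  have h4 := H.Y0
  have h5 := H.P0
  have h6 := H.e0
  unfold Tn
  have : 0 ≤ (η * Λ + μ) * (w2 * Y) / Pn Y w2 Λ μ := by positivity
  linarith
theorem Nu.eT (H : Nu Y w1 w2 Λ μ ν η K) :
    η * Λ * (w2 * Y) / Pn Y w2 Λ μ ≤ Tn Y w2 Λ μ ν η := by
  have h1 := H.w20
  have h2 := H.L1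
  have h3 := H.m0
  have h4 := H.Y0
  have h5 := H.P0
  have h6 := H.e0
  have h7 := H.n1
  unfold Tn
  have h8 : 0 ≤ μ * (w2 * Y) / Pn Y w2 Λ μ := by positivity
  have h9 : 0 ≤ ν * Y := by positivity
  have : (η * Λ + μ) * (w2 * Y) / Pn Y w2 Λ μ =
      η * Λ * (w2 * Y) / Pn Y w2 Λ μ + μ * (w2 * Y) / Pn Y w2 Λ μ := by ring
  linarith
theorem Nu.mT (H : Nu Y w1 w2 Λ μ ν η K) :
    μ * (w2 * Y) / Pn Y w2 Λ μ ≤ Tn Y w2 Λ μ ν η := by
  have h1 := H.w20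
  have h2 := H.L1
  have h3 := H.m0
  have h4 := H.Y0
  have h5 := H.P0
  have h6 := H.e0
  have h7 := H.n1
  unfold Tn
  have h8 : 0 ≤ η * Λ * (w2 * Y) / Pn Y w2 Λ μ := by positivity
  have h9 : 0 ≤ ν * Y := by positivity
  have : (η * Λ + μ) * (w2 * Y) / Pn Y w2 Λ μ =
      η * Λ * (w2 * Y) / Pn Y w2 Λ μ + μ * (w2 * Y) / Pn Y w2 Λ μ := by ring
  linarith
theorem Nu.T0 (H : Nu Y w1 w2 Λ μ ν η K) : 0 < Tn Y w2 Λ μ ν η := by
  have h4 := H.Y0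
  have h7 := H.n1
  have : 0 < ν * Y := by positivity
  exact this.trans_le H.YT

/-- the hull is a legal box -/
theorem Nu.TP (H : Nu Y w1 w2 Λ μ ν η K) : Tn Y w2 Λ μ ν η ≤ 3 * K * Pn Y w2 Λ μ := by
  have h5 := H.P0
  have h1 : ν * Y ≤ K * Pn Y w2 Λ μ := H.nY.trans (by
    have := H.wP; have := H.K1; gcongr)
  have h2 : η * Λ * (w2 * Y) / Pn Y w2 Λ μ ≤ K * Pn Y w2 Λ μ := by
    rw [div_le_iff₀ h5]
    calc _ ≤ K * Pn Y w2 Λ μ ^ 2 := H.eP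
      _ = _ := by ring
  have h3 : μ * (w2 * Y) / Pn Y w2 Λ μ ≤ K * Pn Y w2 Λ μ := by
    rw [div_le_iff₀ h5]
    have a1 := H.mP
    have a2 := H.wP
    have a3 := H.w20
    have a4 := H.K1
    calc μ * (w2 * Y) = (μ * Y) * w2 := by ring
      _ ≤ Pn Y w2 Λ μ * Pn Y w2 Λ μ := by gcongr
      _ ≤ K * Pn Y w2 Λ μ * Pn Y w2 Λ μ := by
        have : 0 ≤ (K - 1) * (Pn Y w2 Λ μ * Pn Y w2 Λ μ) :=
          mul_nonneg (by linarith) (by positivity)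
        nlinarith
  have : (η * Λ + μ) * (w2 * Y) / Pn Y w2 Λ μ =
      η * Λ * (w2 * Y) / Pn Y w2 Λ μ + μ * (w2 * Y) / Pn Y w2 Λ μ := by ring
  unfold Tn
  linarith

theorem TwL.P_le (H : Nu Y w1 w2 Λ μ ν η K) (he : Ortho e) (hf : Ortho f)
    (h : TwL e f Y w1 w2 Λ μ K) : Pn Y w2 Λ μ ≤ 2 * K * w1 := by
  have q0 := abs_dt_le_one hf he 0 1
  have q2 := abs_dt_le_one hf he 2 1
  have h1 := H.w10
  have h2 := H.K1
  have h3 : 0 ≤ K * w1 := by positivity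
  unfold TwL at h
  unfold Pn
  nlinarith

/-- the slopes after two steps -/
theorem TwB.two (H : Nu Y w1 w2 Λ μ ν η K) (he : Ortho e) (hf : Ortho f) (hg : Ortho g)
    (h1 : TwB e f Y w1 w2 Λ μ ν) (h2 : TwB f g Y w1 w2 Λ μ ν)
    (hP : Pn Y w2 Λ μ ≤ 2 * K * w1) :
    |dt (e 0) (g 2)| * w2 ≤ (2 + 4 * K ^ 2) * Tn Y w2 Λ μ ν η ∧
      |dt (e 0) (g 1)| * w1 ≤ (2 + K) * Pn Y w2 Λ μ ∧
      |dt (e 2) (g 1)| * w1 ≤ 2 * Pn Y w2 Λ μ := by
  have w20 := H.w20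
  have w10 := H.w10
  have P0 := H.P0
  have Y0 := H.Y0
  have L1 := H.L1
  have m0 := H.m0
  have n1 := H.n1
  have K1 := H.K1
  have ex : ∀ i j, |dt (e i) (g j)| ≤ |dt (e i) (f 0)| * |dt (f 0) (g j)| +
      |dt (e i) (f 1)| * |dt (f 1) (g j)| + |dt (e i) (f 2)| * |dt (f 2) (g j)| := fun i j =>
    comp_le hf (e i) le_rfl le_rfl le_rfl
  refine ⟨?_, ?_, ?_⟩
  · have a := ex 0 2
    have b0 := abs_dt_le_one hf he 0 0
    have b2 := abs_dt_le_one hg hf 2 2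
    have c0 : |dt (e 0) (f 0)| * |dt (f 0) (g 2)| * w2 ≤ ν * Y := by
      calc |dt (e 0) (f 0)| * |dt (f 0) (g 2)| * w2 ≤ 1 * |dt (f 0) (g 2)| * w2 := by gcongr
        _ = |dt (f 0) (g 2)| * w2 := by ring
        _ ≤ ν * Y := h2.n
    have c2 : |dt (e 0) (f 2)| * |dt (f 2) (g 2)| * w2 ≤ ν * Y := by
      calc |dt (e 0) (f 2)| * |dt (f 2) (g 2)| * w2 ≤ |dt (e 0) (f 2)| * 1 * w2 := by gcongr
        _ = |dt (e 0) (f 2)| * w2 := by ring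
        _ ≤ ν * Y := h1.n
    have c1 : |dt (e 0) (f 1)| * |dt (f 1) (g 2)| * w2 ≤
        4 * K ^ 2 * (μ * (w2 * Y) / Pn Y w2 Λ μ) := by
      have d1 := h1.m
      have d2 := h2.l'
      rw [dt_comm] at d2
      have d3 : (|dt (e 0) (f 1)| * |dt (f 1) (g 2)| * w2) * (w1 * w1) ≤
          μ * Y * (Λ * w2) * w2 := by
        calc (|dt (e 0) (f 1)| * |dt (f 1) (g 2)| * w2) * (w1 * w1) =
            (|dt (e 0) (f 1)| * w1) * (|dt (f 1) (g 2)| * w1) * w2 := by ring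
          _ ≤ μ * Y * (Λ * w2) * w2 := by gcongr
      have d4 : Λ * w2 * Pn Y w2 Λ μ ≤ 4 * K ^ 2 * (w1 * w1) := by
        calc Λ * w2 * Pn Y w2 Λ μ ≤ Pn Y w2 Λ μ * Pn Y w2 Λ μ := by
              have := H.LP; gcongr
          _ ≤ (2 * K * w1) * (2 * K * w1) := by gcongr
          _ = _ := by ring
      have d5 : μ * Y * (Λ * w2) * w2 ≤
          4 * K ^ 2 * (μ * (w2 * Y) / Pn Y w2 Λ μ) * (w1 * w1) := by
        have : 4 * K ^ 2 * (μ * (w2 * Y) / Pn Y w2 Λ μ) * (w1 * w1) =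
            (μ * (w2 * Y)) * (4 * K ^ 2 * (w1 * w1)) / Pn Y w2 Λ μ := by ring
        rw [this, le_div_iff₀ P0]
        calc μ * Y * (Λ * w2) * w2 * Pn Y w2 Λ μ = (μ * (w2 * Y)) * (Λ * w2 * Pn Y w2 Λ μ) := by ring
          _ ≤ (μ * (w2 * Y)) * (4 * K ^ 2 * (w1 * w1)) := by gcongr
      exact le_of_mul_le_mul_right (d3.trans d5) (by positivity)
    have t1 := H.YT
    have t2 := H.mT
    have : |dt (e 0) (g 2)| * w2 ≤ (|dt (e 0) (f 0)| * |dt (f 0) (g 2)| +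
      |dt (e 0) (f 1)| * |dt (f 1) (g 2)| + |dt (e 0) (f 2)| * |dt (f 2) (g 2)|) * w2 := by gcongr
    have t3 : 4 * K ^ 2 * (μ * (w2 * Y) / Pn Y w2 Λ μ) ≤ 4 * K ^ 2 * Tn Y w2 Λ μ ν η := by gcongr
    nlinarith
  · have a := ex 0 1
    have b0 := abs_dt_le_one hf he 0 0
    have b2 := abs_dt_le_one hg hf 1 1
    have c0 : |dt (e 0) (f 0)| * |dt (f 0) (g 1)| * w1 ≤ μ * Y := by
      calc |dt (e 0) (f 0)| * |dt (f 0) (g 1)| * w1 ≤ 1 * |dt (f 0) (g 1)| * w1 := by gcongr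
        _ = |dt (f 0) (g 1)| * w1 := by ring
        _ ≤ μ * Y := h2.m
    have c1 : |dt (e 0) (f 1)| * |dt (f 1) (g 1)| * w1 ≤ μ * Y := by
      calc |dt (e 0) (f 1)| * |dt (f 1) (g 1)| * w1 ≤ |dt (e 0) (f 1)| * 1 * w1 := by gcongr
        _ = |dt (e 0) (f 1)| * w1 := by ring
        _ ≤ μ * Y := h1.m
    have c2 : |dt (e 0) (f 2)| * |dt (f 2) (g 1)| * w1 ≤ K * (Λ * w2) := by
      have d1 := h1.n
      have d2 := h2.l
      have d3 : (|dt (e 0) (f 2)| * |dt (f 2) (g 1)| * w1) * w2 ≤ K * (Λ * w2) * w2 := by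
        calc (|dt (e 0) (f 2)| * |dt (f 2) (g 1)| * w1) * w2 =
            (|dt (e 0) (f 2)| * w2) * (|dt (f 2) (g 1)| * w1) := by ring
          _ ≤ (ν * Y) * (Λ * w2) := by gcongr
          _ ≤ (K * w2) * (Λ * w2) := by have := H.nY; gcongr
          _ = _ := by ring
      exact le_of_mul_le_mul_right d3 w20
    have t1 := H.LP
    have t2 := H.mP
    have : |dt (e 0) (g 1)| * w1 ≤ (|dt (e 0) (f 0)| * |dt (f 0) (g 1)| +
      |dt (e 0) (f 1)| * |dt (f 1) (g 1)| + |dt (e 0) (f 2)| * |dt (f 2) (g 1)|) * w1 := by gcongr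
    have t3 : K * (Λ * w2) ≤ K * Pn Y w2 Λ μ := by gcongr
    nlinarith
  · have a := ex 2 1
    have b0 := abs_dt_le_one hf he 2 0
    have b1 := abs_dt_le_one hg hf 1 1
    have b2 := abs_dt_le_one hf he 2 2
    have c0 : |dt (e 2) (f 0)| * |dt (f 0) (g 1)| * w1 ≤ μ * Y := by
      calc |dt (e 2) (f 0)| * |dt (f 0) (g 1)| * w1 ≤ 1 * |dt (f 0) (g 1)| * w1 := by gcongr
        _ = |dt (f 0) (g 1)| * w1 := by ring
        _ ≤ μ * Y := h2.m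
    have c1 : |dt (e 2) (f 1)| * |dt (f 1) (g 1)| * w1 ≤ Λ * w2 := by
      calc |dt (e 2) (f 1)| * |dt (f 1) (g 1)| * w1 ≤ |dt (e 2) (f 1)| * 1 * w1 := by gcongr
        _ = |dt (e 2) (f 1)| * w1 := by ring
        _ ≤ Λ * w2 := h1.l
    have c2 : |dt (e 2) (f 2)| * |dt (f 2) (g 1)| * w1 ≤ Λ * w2 := by
      calc |dt (e 2) (f 2)| * |dt (f 2) (g 1)| * w1 ≤ 1 * |dt (f 2) (g 1)| * w1 := by gcongr
        _ = |dt (f 2) (g 1)| * w1 := by ring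
        _ ≤ Λ * w2 := h2.l
    have t1 := H.LP
    have t2 := H.mP
    have t3 : Λ * w2 + μ * Y = Pn Y w2 Λ μ := rfl
    have : |dt (e 2) (g 1)| * w1 ≤ (|dt (e 2) (f 0)| * |dt (f 0) (g 1)| +
      |dt (e 2) (f 1)| * |dt (f 1) (g 1)| + |dt (e 2) (f 2)| * |dt (f 2) (g 1)|) * w1 := by gcongr
    nlinarith

/-- Plücker: `|b| |a × c| ≤ |a| |b × c| + |c| |a × b|` for the shadows -/
theorem sh_plucker (e : Fin 3 → V3) (u v w : V3) :
    (|dt (e 2) v| + |dt (e 0) v|) * |sh e u w| ≤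
      (|dt (e 2) u| + |dt (e 0) u|) * |sh e v w| + (|dt (e 2) w| + |dt (e 0) w|) * |sh e u v| := by
  have h2 : dt (e 2) v * sh e u w = dt (e 2) u * sh e v w + dt (e 2) w * sh e u v := by
    unfold sh; ring
  have h0 : dt (e 0) v * sh e u w = dt (e 0) u * sh e v w + dt (e 0) w * sh e u v := by
    unfold sh; ring
  have a2 : |dt (e 2) v| * |sh e u w| ≤
      |dt (e 2) u| * |sh e v w| + |dt (e 2) w| * |sh e u v| := by
    rw [← abs_mul, h2]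
    refine (abs_add_le _ _).trans (le_of_eq ?_)
    rw [abs_mul, abs_mul]
  have a0 : |dt (e 0) v| * |sh e u w| ≤
      |dt (e 0) u| * |sh e v w| + |dt (e 0) w| * |sh e u v| := by
    rw [← abs_mul, h0]
    refine (abs_add_le _ _).trans (le_of_eq ?_)
    rw [abs_mul, abs_mul]
  linarith

set_option maxHeartbeats 1600000 in
/-- **the hull of a two-step path, with the tilts.** The box depends only on `e`, `f0 1`, `b`. -/
theorem hull_path (H : Nu Y w1 w2 Λ μ ν η K) (he : Ortho e) (hf0 : Ortho f0)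
    (h0 : TwB e f0 Y w1 w2 Λ μ ν) (l0 : TwL e f0 Y w1 w2 Λ μ K) :
    ∃ c s : ℝ, c ^ 2 + s ^ 2 = 1 ∧
      ∀ (f g : Fin 3 → V3) (b b' b'' t1 t2 t : Ln4), Ortho f → Ortho g →
        TwB e f Y w1 w2 Λ μ ν → TwL e f Y w1 w2 Λ μ K → TwB f g Y w1 w2 Λ μ ν →
        |det3 (e 1) (f0 1) (f 1)| * (w1 * w1) ≤ η * Λ * (w2 * Y) →
        |det3 (e 1) (f 1) (g 1)| * (w1 * w1) ≤ η * Λ * (w2 * Y) →
        InB t1 b e ![Y, w1, w2] z0 ρ → InB t1 b' f ![Y, w1, w2] z0 ρ →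
        InB t2 b' f ![Y, w1, w2] z0 ρ → InB t2 b'' g ![Y, w1, w2] z0 ρ →
        InB t b'' g ![Y, w1, w2] z0 ρ →
        InB t b (rotN e c s) ![216 * K ^ 3 * Tn Y w2 Λ μ ν η, 18 * w1,
          216 * K ^ 3 * Pn Y w2 Λ μ] z0 ρ := by
  have w20 := H.w20
  have w10 := H.w10
  have P0 := H.P0
  have T0 := H.T0
  have Y0 := H.Y0
  have L1 := H.L1
  have m0 := H.m0
  have n1 := H.n1
  have K1 := H.K1
  have K2 : 1 ≤ K ^ 2 := one_le_pow₀ K1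
  have K3 : 1 ≤ K ^ 3 := one_le_pow₀ K1
  have K23 : K ^ 2 ≤ K ^ 3 := pow_le_pow_right₀ K1 (by norm_num)
  have K13 : K ≤ K ^ 3 := by
    calc K = K ^ 1 := (pow_one K).symm
      _ ≤ K ^ 3 := pow_le_pow_right₀ K1 (by norm_num)
  set r0 : ℝ := Real.sqrt (dt (e 2) (f0 1) ^ 2 + dt (e 0) (f0 1) ^ 2) with hr0
  have hr2 : r0 ^ 2 = dt (e 2) (f0 1) ^ 2 + dt (e 0) (f0 1) ^ 2 :=
    Real.sq_sqrt (by positivity)
  have hr00 : 0 ≤ r0 := Real.sqrt_nonneg _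
  have hl : |dt (e 2) (f0 1)| ≤ r0 := abs_le_of_sq_le_sq (by nlinarith [sq_nonneg (dt (e 0) (f0 1))]) hr00
  have hm : |dt (e 0) (f0 1)| ≤ r0 := abs_le_of_sq_le_sq (by nlinarith [sq_nonneg (dt (e 2) (f0 1))]) hr00
  have hrP : Pn Y w2 Λ μ ≤ 2 * K * (r0 * w1) := by
    have : Pn Y w2 Λ μ ≤ K * w1 * (|dt (e 2) (f0 1)| + |dt (e 0) (f0 1)|) := l0
    calc _ ≤ _ := this
      _ ≤ K * w1 * (r0 + r0) := by gcongr
      _ = _ := by ring
  have hr : 0 < r0 := by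
    rcases hr00.lt_or_eq with h | h
    · exact h
    · exfalso; rw [← h] at hrP; nlinarith
  have hPw : Pn Y w2 Λ μ ≤ 2 * K * w1 := l0.P_le H he hf0
  refine ⟨dt (e 2) (f0 1) / r0, dt (e 0) (f0 1) / r0, ?_, ?_⟩
  · rw [div_pow, div_pow, ← add_div, ← hr2, div_self (by positivity)]
  intro f g b b' b'' t1 t2 t hf hg hB hL hB2 hd1 hd2 i1 i1' i2' i2 it
  -- the two sides in the direction of the wide axes
  have hcs : (dt (e 2) (f0 1) / r0) ^ 2 + (dt (e 0) (f0 1) / r0) ^ 2 = 1 := by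
    rw [div_pow, div_pow, ← add_div, ← hr2, div_self (by positivity)]
  have hrot : ∀ u : V3, |dt (e 2) (f0 1) / r0 * dt (e 0) u - dt (e 0) (f0 1) / r0 * dt (e 2) u| =
      |sh e (f0 1) u| / r0 := by
    intro u
    have : dt (e 2) (f0 1) / r0 * dt (e 0) u - dt (e 0) (f0 1) / r0 * dt (e 2) u =
        sh e (f0 1) u / r0 := by unfold sh; ring
    rw [this, abs_div, abs_of_pos hr]
  have s1 : |sh e (f0 1) (f 1)| * (w1 * w1) ≤ η * Λ * (w2 * Y) := by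
    rw [← det3_frame he]; exact hd1
  have s2 : |sh e (f 1) (g 1)| * (w1 * w1) ≤ η * Λ * (w2 * Y) := by
    rw [← det3_frame he]; exact hd2
  have hE0 : 0 ≤ η * Λ * (w2 * Y) := by have := H.e0; positivity
  obtain ⟨tw2, tw0, tw1⟩ := TwB.two H he hf hg hB hB2 hPw
  -- the shadow of `g 1`
  have s3 : |sh e (f0 1) (g 1)| * (w1 * w1) ≤ K * (5 + K) * (η * Λ * (w2 * Y)) := by
    have pl := sh_plucker e (f0 1) (f 1) (g 1)
    have a1 : (|dt (e 2) (f0 1)| + |dt (e 0) (f0 1)|) * w1 ≤ Pn Y w2 Λ μ := by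
      have := h0.l; have := h0.m; unfold Pn; nlinarith
    have a2 : (|dt (e 2) (g 1)| + |dt (e 0) (g 1)|) * w1 ≤ (4 + K) * Pn Y w2 Λ μ := by
      nlinarith
    have a3 : Pn Y w2 Λ μ ≤ K * ((|dt (e 2) (f 1)| + |dt (e 0) (f 1)|) * w1) := by
      calc _ ≤ K * w1 * (|dt (e 2) (f 1)| + |dt (e 0) (f 1)|) := hL
        _ = _ := by ring
    have h1 : Pn Y w2 Λ μ * (|sh e (f0 1) (g 1)| * (w1 * w1)) ≤
        K * (Pn Y w2 Λ μ * (η * Λ * (w2 * Y)) + (4 + K) * Pn Y w2 Λ μ * (η * Λ * (w2 * Y))) := by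
      calc Pn Y w2 Λ μ * (|sh e (f0 1) (g 1)| * (w1 * w1)) ≤
          K * ((|dt (e 2) (f 1)| + |dt (e 0) (f 1)|) * w1) * (|sh e (f0 1) (g 1)| * (w1 * w1)) := by
            gcongr
        _ = K * w1 * (w1 * w1) * ((|dt (e 2) (f 1)| + |dt (e 0) (f 1)|) * |sh e (f0 1) (g 1)|) := by
            ring
        _ ≤ K * w1 * (w1 * w1) * ((|dt (e 2) (f0 1)| + |dt (e 0) (f0 1)|) * |sh e (f 1) (g 1)| +
            (|dt (e 2) (g 1)| + |dt (e 0) (g 1)|) * |sh e (f0 1) (f 1)|) := by gcongr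
        _ = K * (((|dt (e 2) (f0 1)| + |dt (e 0) (f0 1)|) * w1) * (|sh e (f 1) (g 1)| * (w1 * w1)) +
            ((|dt (e 2) (g 1)| + |dt (e 0) (g 1)|) * w1) * (|sh e (f0 1) (f 1)| * (w1 * w1))) := by
            ring
        _ ≤ K * (Pn Y w2 Λ μ * (η * Λ * (w2 * Y)) +
            (4 + K) * Pn Y w2 Λ μ * (η * Λ * (w2 * Y))) := by gcongr
    have h2 : Pn Y w2 Λ μ * (|sh e (f0 1) (g 1)| * (w1 * w1)) ≤
        Pn Y w2 Λ μ * (K * (5 + K) * (η * Λ * (w2 * Y))) := by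
      refine h1.trans (le_of_eq ?_); ring
    exact le_of_mul_le_mul_left h2 P0
  -- from the shadows to the thickness
  have conv : ∀ {u : V3} {C : ℝ}, 0 ≤ C → |sh e (f0 1) u| * (w1 * w1) ≤ C * (η * Λ * (w2 * Y)) →
      |dt (e 2) (f0 1) / r0 * dt (e 0) u - dt (e 0) (f0 1) / r0 * dt (e 2) u| * w1 ≤
        2 * K * C * Tn Y w2 Λ μ ν η := by
    intro u C hC h
    rw [hrot]
    have h1 : |sh e (f0 1) u| / r0 * w1 = |sh e (f0 1) u| * (w1 * w1) / (r0 * w1) := by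
      field_simp
    rw [h1, div_le_iff₀ (by positivity)]
    have h2 := H.eT
    have h3 : η * Λ * (w2 * Y) ≤ Tn Y w2 Λ μ ν η * Pn Y w2 Λ μ := by
      rwa [div_le_iff₀ P0] at h2
    calc |sh e (f0 1) u| * (w1 * w1) ≤ C * (η * Λ * (w2 * Y)) := h
      _ ≤ C * (Tn Y w2 Λ μ ν η * Pn Y w2 Λ μ) := by gcongr
      _ ≤ C * (Tn Y w2 Λ μ ν η * (2 * K * (r0 * w1))) := by gcongr
      _ = _ := by ring
  have f1 := conv (u := f 1) (C := 1) (by norm_num) (by linarith)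
  have g1 := conv (u := g 1) (C := K * (5 + K)) (by positivity) s3
  have hs : |dt (e 0) (f0 1) / r0| * w2 ≤ 2 * K * Tn Y w2 Λ μ ν η := by
    rw [abs_div, abs_of_pos hr, div_mul_eq_mul_div, div_le_iff₀ hr]
    have h1 := H.mT
    rw [div_le_iff₀ P0] at h1
    have h2 : |dt (e 0) (f0 1)| * w2 * w1 ≤ 2 * K * Tn Y w2 Λ μ ν η * r0 * w1 := by
      calc |dt (e 0) (f0 1)| * w2 * w1 = (|dt (e 0) (f0 1)| * w1) * w2 := by ring
        _ ≤ (μ * Y) * w2 := by have := h0.m; gcongr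
        _ = μ * (w2 * Y) := by ring
        _ ≤ Tn Y w2 Λ μ ν η * Pn Y w2 Λ μ := h1
        _ ≤ Tn Y w2 Λ μ ν η * (2 * K * (r0 * w1)) := by gcongr
        _ = _ := by ring
    exact le_of_mul_le_mul_right h2 w10
  have hYT := H.YT
  have C12 : 2 * K * (K * (5 + K)) ≤ 12 * K ^ 3 := by
    have : 2 * K * (K * (5 + K)) = 10 * K ^ 2 + 2 * K ^ 3 := by ring
    linarith
  have key := hull_box (e := e) (f := f) (g := g) he hf hg hcs (Y := Y) (w1 := w1) (w2 := w2)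
    (τ := 12 * K ^ 3 * Tn Y w2 Λ μ ν η) (P := 12 * K ^ 3 * Pn Y w2 Λ μ) (z0 := z0) (ρ := ρ)
    Y0.le H.Yw H.w ?_ ?_ ?_ ?_ ?_ ?_ ?_ ?_ ?_ ?_ ?_ i1 i1' i2' i2 it
  · intro z hz hz' j
    have := key z hz hz' j
    fin_cases j
    · simp only [Fin.zero_eta, Matrix.cons_val_zero] at this ⊢
      linarith
    · simp only [Fin.mk_one, Matrix.cons_val_one, Matrix.cons_val_zero] at this ⊢
      linarith
    · simp only [Fin.reduceFinMk, Matrix.cons_val] at this ⊢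
      linarith
  · -- Y ≤ τ
    have h1 : Y ≤ ν * Y := le_mul_of_one_le_left Y0.le n1
    have h2 : Tn Y w2 Λ μ ν η ≤ 12 * K ^ 3 * Tn Y w2 Λ μ ν η :=
      le_mul_of_one_le_left T0.le (by linarith)
    linarith
  · have h1 := H.wP
    have h2 : Pn Y w2 Λ μ ≤ 12 * K ^ 3 * Pn Y w2 Λ μ :=
      le_mul_of_one_le_left P0.le (by linarith)
    linarith
  · exact hs.trans (mul_le_mul_of_nonneg_right (by linarith) T0.le)
  · exact f1.trans (mul_le_mul_of_nonneg_right (by linarith) T0.le)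
  · have h2 : Tn Y w2 Λ μ ν η ≤ 12 * K ^ 3 * Tn Y w2 Λ μ ν η :=
      le_mul_of_one_le_left T0.le (by linarith)
    have h3 := hB.n
    linarith
  · have h2 : Pn Y w2 Λ μ ≤ 12 * K ^ 3 * Pn Y w2 Λ μ :=
      le_mul_of_one_le_left P0.le (by linarith)
    have h3 := hB.m
    have h4 := H.mP
    linarith
  · have h2 : Pn Y w2 Λ μ ≤ 12 * K ^ 3 * Pn Y w2 Λ μ :=
      le_mul_of_one_le_left P0.le (by linarith)
    have h3 := hB.l
    have h4 := H.LP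
    linarith
  · exact g1.trans (mul_le_mul_of_nonneg_right C12 T0.le)
  · exact tw2.trans (mul_le_mul_of_nonneg_right (by linarith) T0.le)
  · exact tw0.trans (mul_le_mul_of_nonneg_right (by linarith) P0.le)
  · exact tw1.trans (mul_le_mul_of_nonneg_right (by linarith) P0.le)

end

end Crest.Agent.R136.Hl706
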