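import Crest.Agent.R136.Fl8_808
import Crest.Agent.R136.Phc_248
import Crest.Agent.R136.Cr3_18
import Crest.Agent.R136.Cbx2_140
import Crest.Agent.R136.Hl2_706
import Crest.Agent.R136.Ndl_372

/-!
# R136 (S0187), U4 / PLAN 2: `flat_free`, definitions (helper880)

One cell, one finite set `P` of lines, two systems `U`, `V` of flat boxes of the same shape
`(a, w1, w2)`; `Λ = 2 ^ p.j` base tilt, `E = 2 ^ p.k` thickness tilt, `M` = size of a class up to `W`.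
-/

set_option autoImplicit false
set_option linter.unusedVariables false

namespace Crest.Agent.R136.Ff880

open Finset Crest.Agent.R136.Sh605
open Crest.Agent.R136.Fl808 (InB Dy)
open Crest.Agent.R136.Phc248 (phC)
open Crest.Agent.R136.Cr318 (bx DM)

/-- a system of boxes: label of a line, central line and frame of a label -/
structure Sy (ι κ : Type) where
  u : ι → κ
  b : κ → Ln4
  e : κ → Fin 3 → V3

/-- the numbers -/
structure Pm where
  a : ℝ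
  w1 : ℝ
  w2 : ℝ
  z0 : ℝ
  ρ : ℝ
  M : ℝ
  W : ℝ
  r0 : ℝ
  qm : Fin 3 → ℝ
  qp : Fin 3 → ℝ
  j : ℕ
  k : ℕ

variable {ι κ κ' : Type}

/-- the lines of `P` in the class `c` -/
noncomputable def Sy.cl (U : Sy ι κ) (P : Finset ι) (c : κ) : Finset ι := by
  classical exact P.filter fun t => U.u t = c

/-- planar chart of the class `c`: position at `z0` -/
noncomputable def Sy.A (U : Sy ι κ) (p : Pm) (T : ι → Ln4) (c : κ) (t : ι) : ℝ :=
  dt (U.e c 1) ((T t).pos p.z0 - (U.b c).pos p.z0) / (2 * p.w1)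

/-- planar chart of the class `c`: velocity -/
noncomputable def Sy.B (U : Sy ι κ) (p : Pm) (T : ι → Ln4) (c : κ) (t : ι) : ℝ :=
  dt (U.e c 1) ((T t).v - (U.b c).v) * p.ρ / (2 * p.w1)

open Classical in
/-- one system -/
structure Mono (p : Pm) (P : Finset ι) (T : ι → Ln4) (U : Sy ι κ) : Prop where
  ortho : ∀ t ∈ P, Ortho (U.e (U.u t))
  mem : ∀ t ∈ P, InB (T t) (U.b (U.u t)) (U.e (U.u t)) ![p.a, p.w1, p.w2] p.z0 p.ρ
  low : ∀ t ∈ P, p.M ≤ p.W * ((P.filter fun s => U.u s = U.u t).card : ℝ)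

/-- relations between the exponents (`QmOk` of Fw0_808) -/
structure QOk (qm qp : Fin 3 → ℝ) : Prop where
  m0 : ∀ k, 0 ≤ qm k
  mp : ∀ k, qm k ≤ qp k
  m2 : 0 < qm 2
  m1 : 0 < qm 1
  p0 : 2 * qp 0 ≤ qm 2
  h1 : 8 * (qp 2 + qp 0) ≤ qm 1

/-- positions, order of the dimensions, exponents -/
structure Pm.Ok (p : Pm) : Prop where
  a0 : 0 < p.a
  aw : p.a ≤ p.w2
  ww : p.w2 ≤ p.w1
  ρ0 : 0 < p.ρ
  M0 : 0 < p.M
  W1 : 1 ≤ p.W
  r0 : 0 < p.r0
  r0a : p.r0 ≤ p.a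
  q : QOk p.qm p.qp

open Classical in
/-- **two near-maximal systems in one cell**; the tilts are `2 ^ p.j`, `2 ^ p.k` everywhere -/
structure Duo (p : Pm) (P : Finset ι) (T : ι → Ln4) (U : Sy ι κ) (V : Sy ι κ') : Prop where
  ok : p.Ok
  ne : P.Nonempty
  mU : Mono p P T U
  mV : Mono p P T V
  dmax : ∀ (n : Fin 3 → V3) (l : Ln4) (a' w1' w2' : ℝ), Ortho n → p.r0 ≤ a' → a' ≤ w2' →
    w2' ≤ w1' → w1' ≤ 10 ^ 6 * p.w1 → ((P.filter fun t =>
      InB (T t) l n ![a', w1', w2'] p.z0 p.ρ).card : ℝ) ≤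
        p.W * p.M * phC p.qm p.qp p.a p.w1 p.w2 a' w1' w2'
  dy : (∀ t ∈ P, Dy (U.e (U.u t)) (V.e (V.u t)) p.a p.w1 p.w2 p.j p.k) ∨
    (∀ t ∈ P, Dy (V.e (V.u t)) (U.e (U.u t)) p.a p.w1 p.w2 p.j p.k)

theorem Duo.swap {p : Pm} {P : Finset ι} {T : ι → Ln4} {U : Sy ι κ} {V : Sy ι κ'}
    (h : Duo p P T U V) : Duo p P T V U :=
  ⟨h.ok, h.ne, h.mV, h.mU, h.dmax, h.dy.symm⟩

open Classical in
/-- **good incidence** `(t, i)` in the own `U`-class of `t`: few lines of the class near the place of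
`t` at the height `z0 + (i / 2 ^ j) ρ`, for all radii `R k`, `k < K` (unit `2 w1`) -/
def Gd (p : Pm) (P : Finset ι) (T : ι → Ln4) (U : Sy ι κ) (G : ℝ) (R : ℕ → ℝ) (K : ℕ)
    (t : ι) (i : ℕ) : Prop :=
  ∀ k < K, ((P.filter fun s => U.u s = U.u t ∧
    |(U.A p T (U.u t) s - U.A p T (U.u t) t) +
      (U.B p T (U.u t) s - U.B p T (U.u t) t) * ((i : ℝ) / (2 ^ p.j : ℕ))| ≤ R k).card : ℝ) ≤
      G * R k * p.M

/-- **crossing pair** of one `U`-class, at an incidence which is good in the `V`-classes -/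
def Cr (p : Pm) (P : Finset ι) (T : ι → Ln4) (U : Sy ι κ) (V : Sy ι κ') (G : ℝ) (R : ℕ → ℝ)
    (K : ℕ) (θ : ℝ) (s t : ι) : Prop :=
  U.u s = U.u t ∧ ∃ i < 2 ^ p.j, Gd p P T V G R K s i ∧ Gd p P T V G R K t i ∧
    bx (2 ^ p.j) (U.A p T (U.u s)) (U.B p T (U.u s)) i s =
      bx (2 ^ p.j) (U.A p T (U.u s)) (U.B p T (U.u s)) i t ∧
    θ < |U.B p T (U.u s) t - U.B p T (U.u s) s|

open Classical in
/-- **determinant** of the long axes of the classes `V(s), U, V(t)` for `U(s) = U(t)`, normalised -/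
noncomputable def Dt (p : Pm) (U : Sy ι κ) (V : Sy ι κ') (s t : ι) : ℝ :=
  if U.u s = U.u t then
    |Crest.Agent.R136.Hl706.det3 (U.e (U.u s) 1) (V.e (V.u s) 1) (V.e (V.u t) 1)| *
      (p.w1 * p.w1) / ((2 ^ p.j) ^ 2 * 2 ^ p.k * (p.a * p.w2))
  else 0

/-- share of a crossing class -/
noncomputable def Pm.sg (p : Pm) : ℝ :=
  ((2:ℝ) ^ p.j) ^ (-(1 + p.qm 1)) * ((2:ℝ) ^ p.k) ^ (-(1 + p.qm 2))

/-- number of classes in a hull of determinant `x` -/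
noncomputable def Pm.N (p : Pm) (x : ℝ) : ℝ :=
  (x * 2 ^ p.j * 2 ^ p.k) ^ (1 + p.qp 0) * ((2:ℝ) ^ p.j) ^ (1 + p.qp 2)

end Crest.Agent.R136.Ff880
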