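import Crest.Agent.R136.Fl8_808
import Crest.Agent.R136.Phc_248

/-!
# R136 (S0187), U4 / PLAN 2: common lines of two flat boxes with tilt (helper880)

`share_pair`: the lines common to two boxes of dimensions `(a, w1, w2)` with base tilt `2 ^ j` and
thickness tilt `2 ^ k` lie in one box of base `≤ C w1 / 2 ^ j`, `≤ C w2` and area
`≤ C w1 w2 / 2 ^ (j + k)`, so D-max gives `≤ C B (2 ^ j)^-(1 + qm 1) (2 ^ k)^-(1 + qm 2)` lines.
-/

set_option autoImplicit false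
set_option linter.unusedVariables false

namespace Crest.Agent.R136.Ff880

open Finset Crest.Agent.R136.Sh605
open Crest.Agent.R136.Fl808
open Crest.Agent.R136.Phc248 (phC ph ph_mul ph_mono ph_nonneg ph_pos ph_le_one ph_ge_one ph_one)

/-- narrower factor, up to a constant -/
theorem ph_le_pow {m p r K : ℝ} (hm : 0 ≤ m) (hmp : m ≤ p) (hr : 0 ≤ r) (hK : 1 ≤ K)
    (h : r ≤ K) :
    ph m p r ≤ K ^ (p - m) * r ^ (1 + m) := by
  have h1 : 1 ≤ K ^ (p - m) := Real.one_le_rpow hK (by linarith)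
  have h2 : 0 ≤ r ^ (1 + m) := Real.rpow_nonneg hr _
  rcases le_total r 1 with h3 | h3
  · rw [ph_le_one hm hmp hr h3]; nlinarith
  · rw [ph_ge_one hmp h3]
    have hr0 : 0 < r := by linarith
    have e1 : r ^ (1 + p) = r ^ (p - m) * r ^ (1 + m) := by
      rw [← Real.rpow_add hr0]; congr 1; ring
    rw [e1]
    exact mul_le_mul_of_nonneg_right (Real.rpow_le_rpow hr h (by linarith)) h2

/-- constant of the share -/
noncomputable def cS (qm qp : Fin 3 → ℝ) : ℝ :=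
  2 ^ (1 + qp 0) * (1000 ^ (qp 1 - qm 1) * 1000 ^ (qp 2 - qm 2)) *
    (((10 : ℝ) ^ 6) ^ (1 + qm 2) * ((10 : ℝ) ^ 6) ^ (qm 1 - qm 2))

theorem cS_pos (qm qp : Fin 3 → ℝ) : 0 < cS qm qp := by unfold cS; positivity

/-- the two lateral factors of a box with `x ≤ 1000 / Λ`, `y ≤ 1000`, `x y ≤ 10^6 / (Λ E)` -/
theorem two_fac {qm qp : Fin 3 → ℝ} (hm : ∀ k, 0 ≤ qm k) (hmp : ∀ k, qm k ≤ qp k)
    (h12 : qm 2 ≤ qm 1) {x y Λ E : ℝ} (hx : 0 < x) (hy : 0 < y) (hΛ : 1 ≤ Λ) (hE : 1 ≤ E)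
    (h1 : x * Λ ≤ 1000) (h2 : y ≤ 1000) (h3 : x * y * (Λ * E) ≤ 10 ^ 6) :
    ph (qm 0) (qp 0) 2 * ph (qm 1) (qp 1) x * ph (qm 2) (qp 2) y ≤
      cS qm qp * (Λ ^ (-(1 + qm 1)) * E ^ (-(1 + qm 2))) := by
  have hΛ0 : 0 < Λ := by linarith
  have hE0 : 0 < E := by linarith
  have hx1 : x ≤ 1000 := by nlinarith
  have f0 : ph (qm 0) (qp 0) 2 = 2 ^ (1 + qp 0) := ph_ge_one (hmp 0) (by norm_num)
  have f1 := ph_le_pow (hm 1) (hmp 1) hx.le (by norm_num : (1:ℝ) ≤ 1000) hx1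
  have f2 := ph_le_pow (hm 2) (hmp 2) hy.le (by norm_num : (1:ℝ) ≤ 1000) h2
  have g2 := ph_nonneg (m := qm 2) (p := qp 2) hy.le
  have e1 : x ^ (1 + qm 1) * y ^ (1 + qm 2) = (x * y) ^ (1 + qm 2) * x ^ (qm 1 - qm 2) := by
    rw [Real.mul_rpow hx.le hy.le]
    have : x ^ (1 + qm 1) = x ^ (1 + qm 2) * x ^ (qm 1 - qm 2) := by
      rw [← Real.rpow_add hx]; congr 1; ring
    rw [this]; ring
  have e2 : (x * y) ^ (1 + qm 2) ≤ (((10:ℝ) ^ 6) * (Λ⁻¹ * E⁻¹)) ^ (1 + qm 2) := by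
    refine Real.rpow_le_rpow (by positivity) ?_ (by have := hm 2; linarith)
    have h4 : x * y * (Λ * E) * (Λ⁻¹ * E⁻¹) ≤ 10 ^ 6 * (Λ⁻¹ * E⁻¹) :=
      mul_le_mul_of_nonneg_right h3 (by positivity)
    have h5 : x * y * (Λ * E) * (Λ⁻¹ * E⁻¹) = x * y := by field_simp
    linarith
  have e3 : x ^ (qm 1 - qm 2) ≤ (((10:ℝ) ^ 6) * Λ⁻¹) ^ (qm 1 - qm 2) := by
    refine Real.rpow_le_rpow hx.le ?_ (by linarith)
    have h4 : x * Λ * Λ⁻¹ ≤ 1000 * Λ⁻¹ := mul_le_mul_of_nonneg_right h1 (by positivity)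
    have h5 : x * Λ * Λ⁻¹ = x := by field_simp
    have h6 : 0 < Λ⁻¹ := by positivity
    linarith
  have e4 : (((10:ℝ) ^ 6) * (Λ⁻¹ * E⁻¹)) ^ (1 + qm 2) * (((10:ℝ) ^ 6) * Λ⁻¹) ^ (qm 1 - qm 2) =
      (((10 : ℝ) ^ 6) ^ (1 + qm 2) * ((10 : ℝ) ^ 6) ^ (qm 1 - qm 2)) *
        (Λ ^ (-(1 + qm 1)) * E ^ (-(1 + qm 2))) := by
    rw [Real.mul_rpow (by positivity) (by positivity), Real.mul_rpow (by positivity) (by positivity),
      Real.mul_rpow (by positivity) (by positivity), Real.inv_rpow hΛ0.le, Real.inv_rpow hΛ0.le,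
      Real.inv_rpow hE0.le, ← Real.rpow_neg hΛ0.le, ← Real.rpow_neg hΛ0.le, ← Real.rpow_neg hE0.le]
    have : Λ ^ (-(1 + qm 1)) = Λ ^ (-(1 + qm 2)) * Λ ^ (-(qm 1 - qm 2)) := by
      rw [← Real.rpow_add hΛ0]; congr 1; ring
    rw [this]; ring
  have e5 : x ^ (1 + qm 1) * y ^ (1 + qm 2) ≤
      (((10 : ℝ) ^ 6) ^ (1 + qm 2) * ((10 : ℝ) ^ 6) ^ (qm 1 - qm 2)) *
        (Λ ^ (-(1 + qm 1)) * E ^ (-(1 + qm 2))) := by
    rw [e1, ← e4]
    exact mul_le_mul e2 e3 (by positivity) (by positivity)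
  rw [f0]
  calc 2 ^ (1 + qp 0) * ph (qm 1) (qp 1) x * ph (qm 2) (qp 2) y
      ≤ 2 ^ (1 + qp 0) * (1000 ^ (qp 1 - qm 1) * x ^ (1 + qm 1)) *
        (1000 ^ (qp 2 - qm 2) * y ^ (1 + qm 2)) := by
        refine mul_le_mul (mul_le_mul_of_nonneg_left f1 (by positivity)) f2 g2 (by positivity)
    _ = 2 ^ (1 + qp 0) * (1000 ^ (qp 1 - qm 1) * 1000 ^ (qp 2 - qm 2)) *
        (x ^ (1 + qm 1) * y ^ (1 + qm 2)) := by ring
    _ ≤ 2 ^ (1 + qp 0) * (1000 ^ (qp 1 - qm 1) * 1000 ^ (qp 2 - qm 2)) *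
        ((((10 : ℝ) ^ 6) ^ (1 + qm 2) * ((10 : ℝ) ^ 6) ^ (qm 1 - qm 2)) *
        (Λ ^ (-(1 + qm 1)) * E ^ (-(1 + qm 2)))) := mul_le_mul_of_nonneg_left e5 (by positivity)
    _ = _ := by unfold cS; ring

/-- **geometry**: the lines common to the two boxes lie in one box -/
theorem share_geo {e e' : Fin 3 → V3} {a w1 w2 : ℝ} {j k : ℕ} (H : Dy e e' a w1 w2 j k)
    (he : Ortho e) (he' : Ortho e') (ha : 0 < a) (haw : a ≤ w2) (hw : w2 ≤ w1) {z0 ρ : ℝ} :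
    ∃ (n : Fin 3 → V3) (lg sh : ℝ), Ortho n ∧ 2 * a ≤ sh ∧ sh ≤ lg ∧ lg * 2 ^ j ≤ 1000 * w1 ∧
      sh ≤ 1000 * w2 ∧ lg * sh * (2 ^ j * 2 ^ k) ≤ 10 ^ 6 * (w1 * w2) ∧
      ∀ l l' t t0 : Ln4, InB t l e ![a, w1, w2] z0 ρ → InB t0 l e ![a, w1, w2] z0 ρ →
        InB t l' e' ![a, w1, w2] z0 ρ → InB t0 l' e' ![a, w1, w2] z0 ρ →
          InB t t0 n ![2 * a, lg, sh] z0 ρ := by
  have hw2 : 0 < w2 := ha.trans_le haw
  have hw1 : 0 < w1 := hw2.trans_le hw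
  have hj : (0:ℝ) < 2 ^ j := by positivity
  have hj1 : (1:ℝ) ≤ 2 ^ j := one_le_pow₀ (by norm_num)
  have hk1 : (1:ℝ) ≤ 2 ^ k := one_le_pow₀ (by norm_num)
  have hlw := H.hlw he he' ha haw hw
  have htl := H.tl he he' ha haw hw
  -- facts about the differences
  have hdiff : ∀ l l' t t0 : Ln4, InB t l e ![a, w1, w2] z0 ρ → InB t0 l e ![a, w1, w2] z0 ρ →
      InB t l' e' ![a, w1, w2] z0 ρ → InB t0 l' e' ![a, w1, w2] z0 ρ → ∀ z, z0 ≤ z → z ≤ z0 + ρ →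
        |dt (e 0) (t.pos z - t0.pos z)| ≤ 2 * a ∧ |dt (e 1) (t.pos z - t0.pos z)| ≤
          12 * w1 / 2 ^ j ∧ |dt (e 2) (t.pos z - t0.pos z)| ≤ 2 * w2 ∧
          |dt (e' 0) (t.pos z - t0.pos z)| ≤ 2 * a := by
    intro l l' t t0 h1 h2 h3 h4 z hz hz'
    have d := diff_box h1 h2 z hz hz'
    have d' := diff_box h3 h4 z hz hz'
    have d0 := d 0
    have d2 := d 2
    have d0' := d' 0
    simp only [Matrix.cons_val_zero, Matrix.cons_val] at d0 d2 d0'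
    exact ⟨d0, htl.short he he' ha haw hw hj h1 h2 h3 h4 hz hz', d2, d0'⟩
  rcases Nat.lt_or_ge k 2 with hk | hk
  · -- no thickness tilt: a box of `e`
    have hk2 : (2:ℝ) ^ k ≤ 2 := by
      interval_cases k <;> norm_num
    refine ⟨e, 40 * w1 / 2 ^ j, 20 * w2, he, by linarith, ?_, ?_, by linarith, ?_, ?_⟩
    · rw [le_div_iff₀ hj]; nlinarith
    · rw [div_mul_cancel₀ _ hj.ne']; linarith
    · have e1 : 40 * w1 / 2 ^ j * (20 * w2) * (2 ^ j * 2 ^ k) = 800 * (w1 * w2) * 2 ^ k := by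
        field_simp; ring
      rw [e1]
      have : 0 < w1 * w2 := by positivity
      nlinarith
    · intro l l' t t0 h1 h2 h3 h4 z hz hz'
      obtain ⟨d0, d1, d2, -⟩ := hdiff l l' t t0 h1 h2 h3 h4 z hz hz'
      intro i
      fin_cases i
      · simpa using d0
      · simp only [Fin.mk_one, Matrix.cons_val_one, Matrix.cons_val_zero]
        refine d1.trans ?_
        gcongr; norm_num
      · simp only [Fin.reduceFinMk, Matrix.cons_val]
        linarith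
  · obtain ⟨l0, hl0⟩ : ∃ l0, k = l0 + 2 := ⟨k - 2, by omega⟩
    set W1 : ℝ := max (10 * w2) (5 * (w1 / 2 ^ j)) with hW1
    have hal := H.aligned he he' ha haw hw hW1
    have hlo := H.tlt_lo he he' ha haw hw hW1 hl0
    have hk4 : (2:ℝ) ^ k = 4 * 2 ^ l0 := by rw [hl0, pow_add]; ring
    have hup := tlt_le he he' (w1 := W1) (w2 := 10 * w2) (by linarith) hal
    set τ := tlt e e' W1 (10 * w2) with hτ
    -- dimensions of `strip_plane`
    have hA : W1 * 2 ^ j ≤ 20 * w1 := by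
      rw [hW1, max_mul_of_nonneg _ _ hj.le]
      refine max_le (by nlinarith) ?_
      have : 5 * (w1 / 2 ^ j) * 2 ^ j = 5 * w1 := by field_simp
      rw [this]; linarith
    have hW10 : 10 * w2 ≤ W1 := le_max_left _ _
    have hW15 : 5 * (w1 / 2 ^ j) ≤ W1 := le_max_right _ _
    have hpr : dt (e' 0) (e 1) ^ 2 + dt (e' 0) (e 2) ^ 2 ≤ 1 := by
      have h1 := (ortho_trans he he') 0 0
      simp only [dt, if_true, Matrix.cons_val_zero, Matrix.cons_val_one, Matrix.cons_val] at h1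
      simp only [dt]
      nlinarith [sq_nonneg (e' 0 0 * e 0 0 + e' 0 1 * e 0 1 + e' 0 2 * e 0 2)]
    have h2l : (0:ℝ) < 2 ^ l0 := by positivity
    have h2l1 : (1:ℝ) ≤ 2 ^ l0 := one_le_pow₀ (by norm_num)
    obtain ⟨c, s, lg, sh, hcs, h1, h2, h3, h3', h4, h5⟩ := strip_plane (a := a) (w1 := 2 * W1)
      (w2 := 20 * w2) (p := dt (e' 0) (e 1)) (r := dt (e' 0) (e 2)) (τ := 2 * τ) ha (by linarith)
      (by linarith) hpr (by
        rw [hτ]; unfold tlt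
        rw [mul_max_of_nonneg _ _ (by norm_num : (0:ℝ) ≤ 2)]
        congr 1 <;> ring) (by nlinarith) (by linarith)
    have hlg0 : 0 < lg := by linarith
    have hsh0 : 0 < sh := by linarith
    have hτ0 : 0 < τ := by nlinarith
    refine ⟨rotB e c s, lg, sh, rotB_ortho he hcs, h1, h2, ?_, by linarith, ?_, ?_⟩
    · calc lg * 2 ^ j ≤ 16 * (2 * W1) * 2 ^ j := by gcongr
        _ = 32 * (W1 * 2 ^ j) := by ring
        _ ≤ 1000 * w1 := by linarith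
    · have h6 : a * (2 * W1) * (20 * w2) / (2 * τ) * (2 ^ j * 2 ^ k) ≤ 800 * (w1 * w2) := by
        rw [div_mul_eq_mul_div, div_le_iff₀ (by positivity)]
        calc a * (2 * W1) * (20 * w2) * (2 ^ j * 2 ^ k)
            = 80 * (2 ^ l0 * (2 * a)) * (W1 * 2 ^ j) * w2 := by rw [hk4]; ring
          _ ≤ 80 * τ * (20 * w1) * w2 := by gcongr
          _ = _ := by ring
      calc lg * sh * (2 ^ j * 2 ^ k) = sh * lg * (2 ^ j * 2 ^ k) := by ring
        _ ≤ 128 * (a * (2 * W1) * (20 * w2) / (2 * τ)) * (2 ^ j * 2 ^ k) := by gcongr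
        _ = 128 * (a * (2 * W1) * (20 * w2) / (2 * τ) * (2 ^ j * 2 ^ k)) := by ring
        _ ≤ 128 * (800 * (w1 * w2)) := by gcongr
        _ ≤ _ := by
          have : 0 < w1 * w2 := by positivity
          linarith
    · intro l l' t t0 g1 g2 g3 g4 z hz hz'
      obtain ⟨d0, d1, d2, d0'⟩ := hdiff l l' t t0 g1 g2 g3 g4 z hz hz'
      set u := t.pos z - t0.pos z with hu
      have y1 : |dt (e 1) u| ≤ 2 * (2 * W1) := by
        refine d1.trans ?_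
        have : 12 * w1 / 2 ^ j = 12 * (w1 / 2 ^ j) := by ring
        rw [this]
        have : 0 < w1 / 2 ^ j := by positivity
        linarith
      have y2 : |dt (e 2) u| ≤ 2 * (20 * w2) := by linarith
      have hst : |dt (e' 0) (e 1) * dt (e 1) u + dt (e' 0) (e 2) * dt (e 2) u| ≤ 4 * a := by
        have h6 := dt_expand he (e' 0) u
        have h7 : dt (e' 0) (e 1) * dt (e 1) u + dt (e' 0) (e 2) * dt (e 2) u =
            dt (e' 0) u - dt (e' 0) (e 0) * dt (e 0) u := by rw [h6]; ring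
        rw [h7]
        refine (abs_sub _ _).trans ?_
        rw [abs_mul]
        have h8 := abs_dt_le_one he he' 0 0
        have h9 : |dt (e' 0) (e 0)| * |dt (e 0) u| ≤ 1 * (2 * a) := by gcongr
        linarith
      have h10 := h5 _ _ y1 y2 hst
      intro i
      fin_cases i
      · simpa [rotB_0] using d0
      · simp only [Fin.mk_one, Matrix.cons_val_one, Matrix.cons_val_zero, rotB_1]
        exact h10.1
      · simp only [Fin.reduceFinMk, Matrix.cons_val, rotB_2]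
        exact h10.2

open Classical in
/-- **share of a tilted pair** -/
theorem share_pair {ι : Type*} {P S : Finset ι} {T : ι → Ln4} {e e' : Fin 3 → V3} {l l' : Ln4}
    {a w1 w2 z0 ρ r0 B : ℝ} {qm qp : Fin 3 → ℝ} {j k : ℕ} (hm : ∀ k, 0 ≤ qm k)
    (hmp : ∀ k, qm k ≤ qp k) (h12 : qm 2 ≤ qm 1) (hB : 0 ≤ B)
    (dmax : ∀ (n : Fin 3 → V3) (l : Ln4) (a' w1' w2' : ℝ), Ortho n → r0 ≤ a' → a' ≤ w2' →
      w2' ≤ w1' → w1' ≤ 10 ^ 6 * w1 → ((P.filter fun t =>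
        InB (T t) l n ![a', w1', w2'] z0 ρ).card : ℝ) ≤ B * phC qm qp a w1 w2 a' w1' w2')
    (H : Dy e e' a w1 w2 j k) (he : Ortho e) (he' : Ortho e') (hr0 : r0 ≤ a) (ha : 0 < a)
    (haw : a ≤ w2) (hw : w2 ≤ w1) (hS : S ⊆ P) (h1 : ∀ t ∈ S, InB (T t) l e ![a, w1, w2] z0 ρ)
    (h2 : ∀ t ∈ S, InB (T t) l' e' ![a, w1, w2] z0 ρ) :
    (S.card : ℝ) ≤ cS qm qp * B * (((2:ℝ) ^ j) ^ (-(1 + qm 1)) * ((2:ℝ) ^ k) ^ (-(1 + qm 2))) := by
  have hc := cS_pos qm qp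
  rcases S.eq_empty_or_nonempty with hE | ⟨t0, ht0⟩
  · rw [hE, card_empty, Nat.cast_zero]; positivity
  have hw2 : 0 < w2 := ha.trans_le haw
  have hw1 : 0 < w1 := hw2.trans_le hw
  have hj1 : (1:ℝ) ≤ 2 ^ j := one_le_pow₀ (by norm_num)
  have hk1 : (1:ℝ) ≤ 2 ^ k := one_le_pow₀ (by norm_num)
  obtain ⟨n, lg, sh, hn, g1, g2, g3, g4, g5, g6⟩ := share_geo H he he' ha haw hw (z0 := z0) (ρ := ρ)
  have hsh : 0 < sh := by linarith
  have hlg : 0 < lg := by linarith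
  have hlg1 : lg ≤ 1000 * w1 := by nlinarith
  have h3 := dmax n (T t0) (2 * a) lg sh hn (by linarith) g1 g2 (by linarith)
  have h4 : (S.card : ℝ) ≤ B * phC qm qp a w1 w2 (2 * a) lg sh := by
    refine le_trans (Nat.cast_le.2 (card_le_card fun t ht => ?_)) h3
    rw [mem_filter]
    exact ⟨hS ht, g6 l l' _ _ (h1 t ht) (h1 t0 ht0) (h2 t ht) (h2 t0 ht0)⟩
  refine h4.trans ?_
  have h5 : phC qm qp a w1 w2 (2 * a) lg sh ≤
      cS qm qp * (((2:ℝ) ^ j) ^ (-(1 + qm 1)) * ((2:ℝ) ^ k) ^ (-(1 + qm 2))) := by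
    unfold phC
    have e1 : 2 * a / a = 2 := by field_simp
    rw [e1]
    refine two_fac hm hmp h12 (by positivity) (by positivity) hj1 hk1 ?_ ?_ ?_
    · rw [div_mul_eq_mul_div, div_le_iff₀ hw1]; exact g3
    · rw [div_le_iff₀ hw2]; exact g4
    · have : lg / w1 * (sh / w2) * (2 ^ j * 2 ^ k) = lg * sh * (2 ^ j * 2 ^ k) / (w1 * w2) := by
        field_simp
      rw [this, div_le_iff₀ (by positivity)]
      exact g5
  calc B * phC qm qp a w1 w2 (2 * a) lg sh ≤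
      B * (cS qm qp * (((2:ℝ) ^ j) ^ (-(1 + qm 1)) * ((2:ℝ) ^ k) ^ (-(1 + qm 2)))) :=
        mul_le_mul_of_nonneg_left h5 hB
    _ = _ := by ring

end Crest.Agent.R136.Ff880
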