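import Crest.Agent.R136.Fw0_808
import Crest.Agent.R136.Cs1_501

/-!
# R136 (S0187), U4 / PLAN 2: from two systems of flat boxes to one cell with full classes (helper880)

* `cell_of` : double pruning, one cell, labels in `ℕ`;
* `dy_unique` : the dyadic tilts of a pair of frames are unique up to constants.
-/

set_option autoImplicit false
set_option linter.unusedVariables false

namespace Crest.Agent.R136.Ff880

open Finset Crest.Agent.R136.Sh605 Crest.Agent.R136.Fl808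
open Crest.Agent.R138.Mk163 (zl rho)
open Crest.Agent.R136.Phc248 (phC phC_pos)

/-- representative of the class of `n` -/
noncomputable def rep {γ : Type} (P : Finset ℕ) (F : ℕ → γ) (n : ℕ) : ℕ :=
  sInf {m | m ∈ P ∧ F m = F n}

theorem rep_mem {γ : Type} {P : Finset ℕ} {F : ℕ → γ} {n : ℕ} (hn : n ∈ P) :
    rep P F n ∈ P ∧ F (rep P F n) = F n :=
  Nat.sInf_mem (s := {m | m ∈ P ∧ F m = F n}) ⟨n, hn, rfl⟩

theorem rep_iff {γ : Type} {P : Finset ℕ} {F : ℕ → γ} {n m : ℕ} (hn : n ∈ P) (hm : m ∈ P) :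
    rep P F m = rep P F n ↔ F m = F n := by
  constructor
  · intro h
    rw [← (rep_mem (F := F) hm).2, h, (rep_mem (F := F) hn).2]
  · intro h
    unfold rep
    rw [h]

section

variable {α β : Type} {O : Finset (ℕ × ℤ)} {L : ℕ → Ln4} {i : ℕ} {f : ℕ × ℤ → α}
  {g : ℕ × ℤ → β} {bf : α → Ln4} {ef : α → Fin 3 → V3} {bg : β → Ln4} {eg : β → Fin 3 → V3}
  {a w1 w2 A1 A2 D W r0 R0 : ℝ} {qm qp : Fin 3 → ℝ}

open Classical in
/-- the classes of a full part of a cell -/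
theorem fib_card {γ : Type} {P' : Finset (ℕ × ℤ)} {F : ℕ × ℤ → γ} {c : ℤ}
    (hc : ∀ o ∈ P', ∀ o' ∈ P', F o = F o' → o.2 = o'.2) {P : Finset ℕ}
    (hP : ∀ t, t ∈ P ↔ (t, c) ∈ P') {t : ℕ} (ht : t ∈ P) :
    (P'.filter fun s => F s = F (t, c)).card ≤
      (P.filter fun s => rep P (fun n => F (n, c)) s = rep P (fun n => F (n, c)) t).card := by
  refine card_le_card_of_injOn (fun s => s.1) ?_ ?_
  · intro s hs
    have hs' := mem_filter.1 (mem_coe.1 hs)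
    have h2 : s.2 = c := hc s hs'.1 (t, c) ((hP t).1 ht) hs'.2
    have h3 : s = (s.1, c) := by rw [← h2]
    refine mem_coe.2 (mem_filter.2 ⟨?_, ?_⟩)
    · rw [hP]; rw [← h3]; exact hs'.1
    · rw [rep_iff ht]
      · show F (s.1, c) = F (t, c)
        rw [← h3]; exact hs'.2
      · rw [hP]; rw [← h3]; exact hs'.1
  · intro s hs s' hs' hss
    have h1 := mem_filter.1 (mem_coe.1 hs)
    have h2 := mem_filter.1 (mem_coe.1 hs')
    have e1 : s.2 = c := hc s h1.1 (t, c) ((hP t).1 ht) h1.2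
    have e2 : s'.2 = c := hc s' h2.1 (t, c) ((hP t).1 ht) h2.2
    exact Prod.ext hss (e1.trans e2.symm)

open Classical in
/-- **one cell, full classes** -/
theorem cell_of (hne : O.Nonempty) (h1 : FSys O L i f bf ef a w1 w2 A1)
    (h2 : FSys O L i g bg eg a w1 w2 A2) (hr0 : r0 ≤ a) (ha : 0 < a) (haw : a ≤ w2)
    (hw : w2 ≤ w1) (hR : w1 ≤ R0) (hd : DMaxD O L i D qm qp r0 R0 a w1 w2) (hD1 : D ≤ W * A1)
    (hD2 : D ≤ W * A2) (hW : 1 ≤ W) :
    0 < D ∧ ∃ (c : ℤ) (P : Finset ℕ) (u v : ℕ → ℕ) (bu bv : ℕ → Ln4) (eu ev : ℕ → Fin 3 → V3),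
      P.Nonempty ∧ (∀ t ∈ P, (t, c) ∈ O) ∧
      (∀ t ∈ P, eu (u t) = ef (f (t, c)) ∧ bu (u t) = bf (f (t, c)) ∧
        ev (v t) = eg (g (t, c)) ∧ bv (v t) = bg (g (t, c))) ∧
      (∀ t ∈ P, D ≤ 4 * W * ((P.filter fun s => u s = u t).card : ℝ)) ∧
      (∀ t ∈ P, D ≤ 4 * W * ((P.filter fun s => v s = v t).card : ℝ)) ∧
      (∀ (n : Fin 3 → V3) (l : Ln4) (a' w1' w2' : ℝ), Ortho n → r0 ≤ a' → a' ≤ w2' →
        w2' ≤ w1' → w1' ≤ R0 → ((P.filter fun t =>
          InB (L t) l n ![a', w1', w2'] (zl i c) (rho i)).card : ℝ) ≤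
            D * phC qm qp a w1 w2 a' w1' w2') := by
  have hw2 : 0 < w2 := ha.trans_le haw
  have hw1 : 0 < w1 := hw2.trans_le hw
  have hD : 0 < D := by
    obtain ⟨o, ho⟩ := hne
    have h3 := hd o.2 (ef (f o)) (bf (f o)) a w1 w2 (h1.ortho o ho) hr0 haw hw hR
    have h4 : (1:ℝ) ≤ ((O.filter fun x => x.2 = o.2 ∧ InB (L x.1) (bf (f o)) (ef (f o))
        ![a, w1, w2] (zl i o.2) (rho i)).card : ℝ) := by
      have : 0 < (O.filter fun x => x.2 = o.2 ∧ InB (L x.1) (bf (f o)) (ef (f o))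
        ![a, w1, w2] (zl i o.2) (rho i)).card :=
        card_pos.2 ⟨o, mem_filter.2 ⟨ho, rfl, h1.mem o ho⟩⟩
      exact_mod_cast this
    have h5 := phC_pos (qm := qm) (qp := qp) ha hw1 hw2 ha hw1 hw2
    have h6 : 0 < D * phC qm qp a w1 w2 a w1 w2 := by
      refine lt_of_lt_of_le one_pos (h4.trans ?_)
      convert h3
    by_contra hc
    have := mul_nonpos_of_nonpos_of_nonneg (not_lt.1 hc) h5.le
    linarith
  refine ⟨hD, ?_⟩
  have hW0 : 0 < W := by linarith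
  have hO : (0:ℝ) < O.card := by exact_mod_cast hne.card_pos
  have c1 : D / (4 * W) * ((O.image f).card : ℝ) ≤ O.card / 4 := by
    have := h1.num
    have e1 : ((O.image f).card : ℝ) * D ≤ W * O.card := by
      calc ((O.image f).card : ℝ) * D ≤ ((O.image f).card : ℝ) * (W * A1) := by gcongr
        _ = W * (((O.image f).card : ℝ) * A1) := by ring
        _ ≤ W * O.card := by gcongr
    rw [div_mul_eq_mul_div, div_le_div_iff₀ (by positivity) (by norm_num)]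
    nlinarith
  have c2 : D / (4 * W) * ((O.image g).card : ℝ) ≤ O.card / 4 := by
    have := h2.num
    have e1 : ((O.image g).card : ℝ) * D ≤ W * O.card := by
      calc ((O.image g).card : ℝ) * D ≤ ((O.image g).card : ℝ) * (W * A2) := by gcongr
        _ = W * (((O.image g).card : ℝ) * A2) := by ring
        _ ≤ W * O.card := by gcongr
    rw [div_mul_eq_mul_div, div_le_div_iff₀ (by positivity) (by norm_num)]
    nlinarith
  obtain ⟨P', hP'O, hP'ne, -, hf', hg'⟩ := Crest.Agent.R136.Cs501.prune2 O f g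
    (τ := D / (4 * W)) (by positivity) (by rw [mul_add]; linarith)
  obtain ⟨o0, ho0⟩ := hP'ne
  set c := o0.2 with hc
  set P : Finset ℕ := (P'.filter fun o => o.2 = c).image Prod.fst with hPdef
  have hP : ∀ t, t ∈ P ↔ (t, c) ∈ P' := by
    intro t
    rw [hPdef, mem_image]
    constructor
    · rintro ⟨o, ho, rfl⟩
      rw [mem_filter] at ho
      rw [← ho.2]; exact ho.1
    · intro h
      exact ⟨(t, c), mem_filter.2 ⟨h, rfl⟩, rfl⟩
  have hcf : ∀ o ∈ P', ∀ o' ∈ P', f o = f o' → o.2 = o'.2 := fun o ho o' ho' h =>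
    h1.cell o (hP'O ho) o' (hP'O ho') h
  have hcg : ∀ o ∈ P', ∀ o' ∈ P', g o = g o' → o.2 = o'.2 := fun o ho o' ho' h =>
    h2.cell o (hP'O ho) o' (hP'O ho') h
  refine ⟨c, P, rep P fun n => f (n, c), rep P fun n => g (n, c), fun m => bf (f (m, c)),
    fun m => bg (g (m, c)), fun m => ef (f (m, c)), fun m => eg (g (m, c)), ?_, ?_, ?_, ?_, ?_, ?_⟩
  · refine ⟨o0.1, (hP _).2 ?_⟩
    rw [hc]; exact ho0
  · intro t ht; exact hP'O ((hP t).1 ht)
  · intro t ht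
    have e1 := (rep_mem (F := fun n => f (n, c)) ht).2
    have e2 := (rep_mem (F := fun n => g (n, c)) ht).2
    simp only [e1, e2, and_self]
  · intro t ht
    have h3 := hf' (t, c) ((hP t).1 ht)
    have h4 := fib_card hcf hP ht
    have h5 : D / (4 * W) ≤ ((P.filter fun s => rep P (fun n => f (n, c)) s =
        rep P (fun n => f (n, c)) t).card : ℝ) := by
      refine le_trans (h3.trans (le_of_eq ?_)) (Nat.cast_le.2 h4)
      congr
    rw [div_le_iff₀ (by positivity)] at h5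
    linarith
  · intro t ht
    have h3 := hg' (t, c) ((hP t).1 ht)
    have h4 := fib_card hcg hP ht
    have h5 : D / (4 * W) ≤ ((P.filter fun s => rep P (fun n => g (n, c)) s =
        rep P (fun n => g (n, c)) t).card : ℝ) := by
      refine le_trans (h3.trans (le_of_eq ?_)) (Nat.cast_le.2 h4)
      congr
    rw [div_le_iff₀ (by positivity)] at h5
    linarith
  · intro n l a' w1' w2' hn q1 q2 q3 q4
    have h3 := hd c n l a' w1' w2' hn q1 q2 q3 q4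
    refine le_trans (Nat.cast_le.2 ?_) h3
    refine card_le_card_of_injOn (fun t => (t, c)) ?_ ?_
    · intro t ht
      have ht' := mem_filter.1 (mem_coe.1 ht)
      exact mem_coe.2 (mem_filter.2 ⟨hP'O ((hP t).1 ht'.1), rfl, ht'.2⟩)
    · intro t _ t' _ h
      exact (Prod.mk.inj h).1

end

/-- the dyadic tilts are unique up to constants -/
theorem dy_unique {e e' : Fin 3 → V3} {a w1 w2 : ℝ} {j k j0 k0 : ℕ} (H : Dy e e' a w1 w2 j k)
    (H0 : Dy e e' a w1 w2 j0 k0) (ha : 0 < a) (hw2 : 0 < w2) :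
    (2:ℝ) ^ j ≤ 2 * 2 ^ j0 ∧ (2:ℝ) ^ k ≤ 2 * (2 ^ j0 * 2 ^ k0) := by
  have hj : (1:ℝ) ≤ 2 ^ j := one_le_pow₀ (by norm_num)
  have hj0 : (1:ℝ) ≤ 2 ^ j0 := one_le_pow₀ (by norm_num)
  have hk0 : (1:ℝ) ≤ 2 ^ k0 := one_le_pow₀ (by norm_num)
  have hj1 : (2:ℝ) ^ j ≤ 2 * 2 ^ j0 := by
    rcases H.blo with h | h | h
    · rw [h, pow_zero]; linarith
    · have := H0.b21
      have h3 : 2 ^ j * w2 ≤ 2 * 2 ^ j0 * w2 := by linarith
      exact le_of_mul_le_mul_right h3 hw2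
    · have := H0.b01
      have h3 : 2 ^ j * w2 ≤ 2 * 2 ^ j0 * w2 := by linarith
      exact le_of_mul_le_mul_right h3 hw2
  refine ⟨hj1, ?_⟩
  have hp0 : (0:ℝ) < 2 ^ j0 := by linarith
  have hpj : (0:ℝ) < 2 ^ j := by linarith
  have s20 : |dt (e' 2) (e 0)| * w2 ≤ 2 ^ k0 * a := by
    have h5 : 2 ^ j0 * (|dt (e' 2) (e 0)| * w2) ≤ 2 ^ j0 * (2 ^ k0 * a) :=
      H0.t20.trans (le_of_eq (by ring))
    exact le_of_mul_le_mul_left h5 hp0
  have s02 : |dt (e' 0) (e 2)| * w2 ≤ 2 ^ k0 * a := by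
    have h5 : 2 ^ j0 * (|dt (e' 0) (e 2)| * w2) ≤ 2 ^ j0 * (2 ^ k0 * a) :=
      H0.t02.trans (le_of_eq (by ring))
    exact le_of_mul_le_mul_left h5 hp0
  have q1 : ∀ y : ℝ, y ≤ 2 ^ k0 * (2 ^ j0 * a) → 2 ^ k * (2 ^ j * a) ≤ 2 * y →
      (2:ℝ) ^ k ≤ 2 * (2 ^ j0 * 2 ^ k0) := by
    intro y h3 h4
    have h5 : 2 ^ k * (2 ^ j * a) ≤ 2 * (2 ^ j0 * 2 ^ k0) * a := by
      calc 2 ^ k * (2 ^ j * a) ≤ 2 * (2 ^ k0 * (2 ^ j0 * a)) := by linarith
        _ = _ := by ring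
    have h6 : 2 ^ k * a ≤ 2 * (2 ^ j0 * 2 ^ k0) * a := by
      refine le_trans ?_ h5
      have : 0 < 2 ^ k * a := by positivity
      calc 2 ^ k * a = 1 * (2 ^ k * a) := by ring
        _ ≤ 2 ^ j * (2 ^ k * a) := mul_le_mul_of_nonneg_right hj this.le
        _ = _ := by ring
    exact le_of_mul_le_mul_right h6 ha
  have q2 : ∀ y : ℝ, y ≤ 2 ^ k0 * a → 2 ^ k * (2 ^ j * a) ≤ 2 * (2 ^ j * y) →
      (2:ℝ) ^ k ≤ 2 * (2 ^ j0 * 2 ^ k0) := by
    intro y h3 h4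
    have h5 : 2 ^ j * (2 ^ k * a) ≤ 2 ^ j * (2 * 2 ^ k0 * a) := by
      calc 2 ^ j * (2 ^ k * a) = 2 ^ k * (2 ^ j * a) := by ring
        _ ≤ 2 * (2 ^ j * y) := h4
        _ ≤ 2 * (2 ^ j * (2 ^ k0 * a)) := by gcongr
        _ = _ := by ring
    have h6 := le_of_mul_le_mul_left (le_of_mul_le_mul_left h5 hpj |>.trans (le_of_eq rfl) |> fun h => by
      calc a * 2 ^ k = 2 ^ k * a := by ring
        _ ≤ 2 * 2 ^ k0 * a := h
        _ = a * (2 * 2 ^ k0) := by ring) ha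
    have : (2:ℝ) ^ k0 ≤ 2 ^ j0 * 2 ^ k0 := by nlinarith
    linarith
  rcases H.tlo with h | h | h | h | h
  · rw [h, pow_zero]; nlinarith
  · exact q1 _ H0.t10 h
  · exact q2 _ s20 h
  · exact q1 _ H0.t01 h
  · exact q2 _ s02 h

end Crest.Agent.R136.Ff880
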