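import Crest.Agent.R136.Ft1_719

/-!
# R136 (S0187), PLAN 2, flat case: `TCore` from D-max for all boxes (helper719)
-/

set_option autoImplicit false
set_option linter.unusedVariables false

open Finset

namespace Crest.Agent.R136.Ft719

open Crest.Agent.R136.Sh605 Crest.Agent.R136.Fl808
open Crest.Agent.R136.Pl2 (TCore)

/-- constant of `tcore_of` -/
noncomputable def cT (qm qp : Fin 3 → ℝ) : ℝ :=
  1 + (10 ^ 6 : ℝ) ^ (1 + qp 1) + 2 ^ (1 + qp 0) * 16 ^ (1 + qp 1) * 2 ^ (1 + qp 2) + cS qm qp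

theorem cT_one (qm qp : Fin 3 → ℝ) : 1 ≤ cT qm qp := by
  have := cS_pos qm qp
  unfold cT
  have : (0:ℝ) < (10 ^ 6 : ℝ) ^ (1 + qp 1) := by positivity
  have : (0:ℝ) < (2:ℝ) ^ (1 + qp 0) * 16 ^ (1 + qp 1) * 2 ^ (1 + qp 2) := by positivity
  linarith

open Classical in
/-- **one cell, two flat systems, D-max for all boxes ⊢ `TCore`** with `Y = a` -/
theorem tcore_of {qm qp : Fin 3 → ℝ} (hm : ∀ k, 0 ≤ qm k) (hmp : ∀ k, qm k ≤ qp k)
    (hq : qm 2 ≤ qm 1) {L : ℕ → Ln4} {P : Finset ℕ} {u v : ℕ → ℕ} {bu bv : ℕ → Ln4}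
    {eu ev : ℕ → Fin 3 → V3} {W D a w1 w2 z0 ρ r0 : ℝ} (hW : 1 ≤ W) (hD : 0 < D) (hρ : 0 < ρ)
    (ha : 0 < a) (haw : a ≤ w2) (hw : w2 ≤ w1) (hr : r0 ≤ a) (hlg : Real.log (w1 / a) ≤ W)
    (hd : Dm P L z0 ρ D qm qp r0 (10 ^ 6 * w1) a w1 w2)
    (ou : ∀ t ∈ P, Ortho (eu (u t))) (ov : ∀ t ∈ P, Ortho (ev (v t)))
    (mu : ∀ t ∈ P, InB (L t) (bu (u t)) (eu (u t)) ![a, w1, w2] z0 ρ)
    (mv : ∀ t ∈ P, InB (L t) (bv (v t)) (ev (v t)) ![a, w1, w2] z0 ρ)
    (fu : ∀ t ∈ P, D ≤ W * ((P.filter fun s => u s = u t).card : ℝ))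
    (fv : ∀ t ∈ P, D ≤ W * ((P.filter fun s => v s = v t).card : ℝ)) :
    TCore qm qp L P u v bu bv eu ev (cT qm qp * W) D a a w1 w2 z0 ρ := by
  have hw2 : 0 < w2 := ha.trans_le haw
  have hw1 : 0 < w1 := hw2.trans_le hw
  have c1 := cT_one qm qp
  have cs := cS_pos qm qp
  have p1 : (0:ℝ) < (10 ^ 6 : ℝ) ^ (1 + qp 1) := by positivity
  have p2 : (0:ℝ) < (2:ℝ) ^ (1 + qp 0) * 16 ^ (1 + qp 1) * 2 ^ (1 + qp 2) := by positivity
  have hC : ∀ x : ℝ, 0 ≤ x → x ≤ cT qm qp → x ≤ cT qm qp * W := by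
    intro x hx hxc
    nlinarith
  have hWc : W ≤ cT qm qp * W := by nlinarith
  have hCW0 : 0 ≤ cT qm qp * W := by positivity
  refine ⟨by nlinarith, hD, hρ, ha, le_rfl, haw, hw, hlg.trans hWc, ou, ov, mu, mv, ?_, ?_, ?_, ?_,
    ?_, ?_⟩
  · intro t ht
    exact (fu t ht).trans (by gcongr)
  · intro t ht
    exact (fv t ht).trans (by gcongr)
  · intro b f X0 X2 hf e0 e2 e02 e21
    refine (hull_of hd hmp ha hw1 hw2 hr hf e0 e2 e02 e21).trans ?_
    have hX : 0 ≤ (X0 / a) ^ (1 + qp 0) * (X2 / w2) ^ (1 + qp 2) := by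
      have : 0 < X0 := ha.trans_le e0
      have : 0 < X2 := hw2.trans_le e2
      positivity
    have := hC ((10 ^ 6 : ℝ) ^ (1 + qp 1)) p1.le (by unfold cT; linarith)
    gcongr
  · intro t ht δ h1 h2
    have hδ0 : 0 < δ := by
      by_contra hc
      have : δ * w1 ≤ 0 := mul_nonpos_of_nonpos_of_nonneg (not_lt.1 hc) hw1.le
      linarith
    refine (tube_of (Q := P.filter fun s => u s = u t ∧ ∀ z, z0 ≤ z → z ≤ z0 + ρ →
      |dt (eu (u t) 1) ((L s).pos z - (L t).pos z)| ≤ δ * w1) hd hm hmp ha haw hw hr hD.le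
      (ou t ht) (filter_subset _ _) (mu t ht) h1 h2 ?_).trans ?_
    · intro s hs
      rw [mem_filter] at hs
      obtain ⟨hs1, hs2, hs3⟩ := hs
      refine ⟨?_, hs3⟩
      have := mu s hs1
      rwa [hs2] at this
    · have hδp : 0 ≤ δ ^ (1 + qm 1) := by positivity
      have := hC _ p2.le (by unfold cT; linarith)
      gcongr
  · intro t ht δ h1 h2
    have hδ0 : 0 < δ := by
      by_contra hc
      have : δ * w1 ≤ 0 := mul_nonpos_of_nonpos_of_nonneg (not_lt.1 hc) hw1.le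
      linarith
    refine (tube_of (Q := P.filter fun s => v s = v t ∧ ∀ z, z0 ≤ z → z ≤ z0 + ρ →
      |dt (ev (v t) 1) ((L s).pos z - (L t).pos z)| ≤ δ * w1) hd hm hmp ha haw hw hr hD.le
      (ov t ht) (filter_subset _ _) (mv t ht) h1 h2 ?_).trans ?_
    · intro s hs
      rw [mem_filter] at hs
      obtain ⟨hs1, hs2, hs3⟩ := hs
      refine ⟨?_, hs3⟩
      have := mv s hs1
      rwa [hs2] at this
    · have hδp : 0 ≤ δ ^ (1 + qm 1) := by positivity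
      have := hC _ p2.le (by unfold cT; linarith)
      gcongr
  · intro t ht j k' H _
    refine (share_of (Q := P.filter fun s => u s = u t ∧ v s = v t) (l := bu (u t))
      (l' := bv (v t)) hd hm hmp hq ha haw hw hr hD.le (ou t ht) (ov t ht) H (filter_subset _ _)
      ?_ ?_).trans ?_
    · intro s hs
      rw [mem_filter] at hs
      have := mu s hs.1
      rwa [hs.2.1] at this
    · intro s hs
      rw [mem_filter] at hs
      have := mv s hs.1
      rwa [hs.2.2] at this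
    · rw [div_self ha.ne', mul_one]
      have := hC _ cs.le (by unfold cT; linarith)
      have h0 : (0:ℝ) < ((2:ℝ) ^ j) ^ (1 + qm 1) * ((2:ℝ) ^ k') ^ (1 + qm 2) := by positivity
      gcongr

end Crest.Agent.R136.Ft719
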