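import Crest.Agent.R136.Ff3_880
import Crest.Agent.R136.Ft2_719

/-!
# R136 (S0187), U4 / PLAN 2: `FlatFree` from `TiltCore` (helper880)
-/

set_option autoImplicit false
set_option linter.unusedVariables false

namespace Crest.Agent.R136.Ff880

open Finset Crest.Agent.R136.Sh605 Crest.Agent.R136.Fl808
open Crest.Agent.R138.Mk163 (zl rho)
open Crest.Agent.R136.Pl2 (TCore TiltCore)
open Crest.Agent.R136.Pl2W102 (Ex2)

/-- the exponents of `FlatFree` are exponents of `TiltCore` for a large `η` -/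
theorem ex2_of {qm qp : Fin 3 → ℝ} (h : QmOk qm qp) : ∃ η : ℝ, Ex2 η qm qp := by
  have h0 := h.m0 0
  have h1 := h.m0 1
  have h2 := h.m2
  have p0 := h.mp 0
  have p2 := h.mp 2
  have hp0 : 0 ≤ qp 0 := h0.trans p0
  have hp2 : 0 < qp 2 := h2.trans_le p2
  have hq1 : 0 < qm 1 := by have := h.m1; linarith
  refine ⟨qp 0 / qm 2 ^ 2 + qp 2 / qm 1, fun k => ⟨h.m0 k, h.mp k⟩, h2, h.p0, h.m1, ?_, ?_⟩
  · rw [add_mul, div_mul_cancel₀ _ (by positivity)]
    have : 0 ≤ qp 2 / qm 1 * qm 2 ^ 2 := by positivity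
    linarith
  · rw [add_mul, div_mul_cancel₀ _ hq1.ne']
    have : 0 ≤ qp 0 / qm 2 ^ 2 * qm 1 := by positivity
    linarith

/-- the logarithmic end -/
theorem log_end {j k j0 k0 : ℕ} {C c W : ℝ} (hC : 0 ≤ C) (hc : 1 ≤ c) (hW : 1 ≤ W)
    (h1 : (2:ℝ) ^ j ≤ 2 * 2 ^ j0) (h2 : (2:ℝ) ^ k ≤ 2 * (2 ^ j0 * 2 ^ k0))
    (h : (2:ℝ) ^ j0 * 2 ^ k0 ≤ (2 * (c * W)) ^ C) :
    (j : ℝ) ≤ (2 + 4 * C * (2 + Real.log c)) * (1 + Real.log W) ∧
      (k : ℝ) ≤ (2 + 4 * C * (2 + Real.log c)) * (1 + Real.log W) := by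
  have hc0 : 0 < c := by linarith
  have hW0 : 0 < W := by linarith
  have l2 : 1 / 2 < Real.log 2 := by have := Real.log_two_gt_d9; linarith
  have l2' : Real.log 2 < 1 := by have := Real.log_two_lt_d9; linarith
  have lc : 0 ≤ Real.log c := Real.log_nonneg hc
  have lW : 0 ≤ Real.log W := Real.log_nonneg hW
  have hk0 : (1:ℝ) ≤ 2 ^ k0 := one_le_pow₀ (by norm_num)
  have hj0 : (0:ℝ) < 2 ^ j0 := by positivity
  have e1 : Real.log ((2:ℝ) ^ j0 * 2 ^ k0) ≤ C * (Real.log 2 + Real.log c + Real.log W) := by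
    have h3 := Real.log_le_log (by positivity) h
    have e0 : Real.log (2 * (c * W)) = Real.log 2 + Real.log c + Real.log W := by
      rw [Real.log_mul (by norm_num) (by positivity), Real.log_mul hc0.ne' hW0.ne']; ring
    rw [Real.log_rpow (by positivity), e0] at h3
    exact h3
  have key : ∀ n : ℕ, (2:ℝ) ^ n ≤ 2 * (2 ^ j0 * 2 ^ k0) →
      (n : ℝ) ≤ (2 + 4 * C * (2 + Real.log c)) * (1 + Real.log W) := by
    intro n hn
    have h3 := Real.log_le_log (by positivity) hn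
    rw [Real.log_pow, Real.log_mul (by norm_num) (by positivity)] at h3
    have h4 : (n : ℝ) * (1 / 2) ≤ n * Real.log 2 :=
      mul_le_mul_of_nonneg_left l2.le (Nat.cast_nonneg _)
    have h5 : C * (Real.log 2 + Real.log c + Real.log W) ≤
        C * ((2 + Real.log c) * (1 + Real.log W)) := by
      refine mul_le_mul_of_nonneg_left ?_ hC
      nlinarith [mul_nonneg lc lW]
    have h6 : 0 ≤ C * ((2 + Real.log c) * (1 + Real.log W)) := by positivity
    nlinarith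
  refine ⟨key j ?_, key k h2⟩
  refine h1.trans ?_
  nlinarith

/-- **`FlatFree` from `TiltCore`** -/
theorem flatFree_of (h : TiltCore) : FlatFree := by
  intro qm qp hq
  obtain ⟨η, hη⟩ := ex2_of hq
  obtain ⟨C, hC, H⟩ := h η qm qp hη
  have hcT := Crest.Agent.R136.Ft719.cT_one qm qp
  set c : ℝ := 4 * Crest.Agent.R136.Ft719.cT qm qp with hc
  have hc1 : 1 ≤ c := by linarith
  have lc : 0 ≤ Real.log c := Real.log_nonneg hc1
  have h12 : qm 2 ≤ qm 1 := by
    have := hq.m1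
    have := hq.mp 2
    have := hq.mp 0
    have := hq.m0 0
    have := hq.m2
    linarith
  refine ⟨2 + 4 * C * (2 + Real.log c), by positivity, ?_⟩
  intro α β O L i f g bf ef bg eg a w1 w2 A1 A2 D W r0 j k' hne h1 h2 hA1 hA2 hr0 hra haw hw hd
    hD1 hD2 hW hlg hdy
  have ha : 0 < a := hr0.trans_le hra
  have hw2 : 0 < w2 := ha.trans_le haw
  have hw1 : 0 < w1 := hw2.trans_le hw
  obtain ⟨hD, c0, P, u, v, bu, bv, eu, ev, hPne, hPO, hlab, hfu, hfv, hdm⟩ :=
    cell_of hne h1 h2 hra ha haw hw (by nlinarith) hd hD1 hD2 hW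
  have hW4 : 1 ≤ 4 * W := by linarith
  have hT : TCore qm qp L P u v bu bv eu ev (Crest.Agent.R136.Ft719.cT qm qp * (4 * W)) D a a w1 w2
      (zl i c0) (rho i) := by
    refine Crest.Agent.R136.Ft719.tcore_of hq.m0 hq.mp h12 hW4 hD (rho_pos i) ha haw hw hra
      (by linarith) hdm ?_ ?_ ?_ ?_ hfu hfv
    · intro t ht
      rw [(hlab t ht).1]; exact h1.ortho _ (hPO t ht)
    · intro t ht
      rw [(hlab t ht).2.2.1]; exact h2.ortho _ (hPO t ht)
    · intro t ht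
      rw [(hlab t ht).1, (hlab t ht).2.1]; exact h1.mem _ (hPO t ht)
    · intro t ht
      rw [(hlab t ht).2.2.1, (hlab t ht).2.2.2]; exact h2.mem _ (hPO t ht)
  obtain ⟨t, ht, j0, k0, hdy0, hb⟩ := H L P u v bu bv eu ev _ D a a w1 w2 _ _ hT hPne
  rw [(hlab t ht).1, (hlab t ht).2.2.1] at hdy0
  obtain ⟨q1, q2⟩ := dy_unique (hdy _ (hPO t ht)) hdy0 ha hw2
  refine log_end hC hc1 hW q1 q2 (hb.trans (le_of_eq ?_))
  rw [hc]; congr 1; ring

end Crest.Agent.R136.Ff880
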