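import Crest.Agent.R136.Ff4_880
import Crest.Agent.R136.Cbc_372

/-!
# R136 (S0187): `flatFree : FlatFree` (helper880; `TiltCore` is helper372's `tiltCore`)
-/

set_option autoImplicit false

namespace Crest.Agent.R136.Ff880

/-- **the finite theorem of the flat tilt** -/
theorem flatFree : Crest.Agent.R136.Fl808.FlatFree := flatFree_of Crest.Agent.R136.Cbc372.tiltCore

end Crest.Agent.R136.Ff880
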