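import Crest.Agent.R136.Cap2_102
import Crest.Agent.R136.KapP_335
import Crest.Agent.R136.Fl1_808

/-!
# R136 (S0187), PLAN 2 (B1): height over the tangent plane on the whole plank (helper262)

`S` = sheet (`StP`), `T` a line of its box, `(b0, b1, G)` = expansion of `q` around `T` in plank
coordinates, `yc b0 x = x 0 + s₁ x 1 + s₂ x 2` = height over the tangent plane of `T`.

* `slope_exact` : `∂₀ ∈ [1/2, 2]` at every point of the doubled box;
* `br_ge` : the mean slope between a point of the plank and the tangent plane is `≥ 1/100`;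
* `y_line` : `w 0 |y| ≤ 2200 (|q X| + |q T| + kapP)` for points `X` of the plank with no restriction;
* `y_point` : the same near a second point of the plank.
-/

set_option autoImplicit false
set_option linter.unusedVariables false

namespace Crest.Agent.R136.Ffr262

open Crest.Agent.R136.Sh605 Crest.Agent.R136.Tl102

/-! ### real numbers -/

theorem lim_ge {D g : ℝ} (h : ∀ δ : ℝ, 0 < δ → δ ≤ 1 → 1 / 2 ≤ D + g * δ) : 1 / 2 ≤ D := by
  by_contra hc
  push Not at hc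
  set δ := min 1 ((1 / 2 - D) / (2 * (|g| + 1))) with hδ
  have hg : 0 ≤ |g| := abs_nonneg g
  have h1 : 0 < (1 / 2 - D) / (2 * (|g| + 1)) := div_pos (by linarith) (by linarith)
  have h0 : 0 < δ := lt_min one_pos h1
  have h2 := h δ h0 (min_le_left _ _)
  have h3 : δ ≤ (1 / 2 - D) / (2 * (|g| + 1)) := min_le_right _ _
  rw [le_div_iff₀ (by linarith)] at h3
  have h4 : g * δ ≤ |g| * δ := mul_le_mul_of_nonneg_right (le_abs_self g) h0.le
  nlinarith

theorem lim_le {D g : ℝ} (h : ∀ δ : ℝ, 0 < δ → δ ≤ 1 → D + g * δ ≤ 2) : D ≤ 2 := by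
  have := lim_ge (D := 5 / 2 - D) (g := -g) (fun δ h0 h1 => by have := h δ h0 h1; linarith)
  linarith

theorem sgn_ex (g : ℝ) : ∃ s : ℝ, |s| ≤ 1 ∧ s * g = |g| := by
  rcases le_total 0 g with h | h
  · exact ⟨1, by norm_num, by rw [abs_of_nonneg h, one_mul]⟩
  · exact ⟨-1, by norm_num, by rw [abs_of_nonpos h]; ring⟩

/-- **mean slope** between a point of the plank and the tangent plane -/
theorem br_ge {A g p1 p2 s1 s2 x0 u v κ : ℝ} (hA : 1 / 2 + 2 * |g| + |p1| + |p2| ≤ A)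
    (hD : 1 / 2 + 2 * |g| + |p1| + |p2| ≤ A + 2 * g * x0 + p1 * u + p2 * v)
    (h38 : 2 * |g| + |p1| + |p2| ≤ 3 / 8) (hs1 : |s1| * A ≤ 1 + κ) (hs2 : |s2| * A ≤ 1 + κ)
    (hκ0 : 0 ≤ κ) (hκ : κ ≤ 1 / 200) (hu : |u| ≤ 2) (hv : |v| ≤ 2) :
    1 / 100 ≤ A + g * x0 + p1 * u + p2 * v - g * (s1 * u + s2 * v) := by
  obtain ⟨G, hG⟩ : ∃ G, G = |g| := ⟨_, rfl⟩
  obtain ⟨P, hP⟩ : ∃ P, P = |p1| + |p2| := ⟨_, rfl⟩
  obtain ⟨D, hDd⟩ : ∃ D, D = A + 2 * g * x0 + p1 * u + p2 * v := ⟨_, rfl⟩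
  have hG0 : 0 ≤ G := by rw [hG]; exact abs_nonneg _
  have hP0 : 0 ≤ P := by rw [hP]; positivity
  rw [← hDd] at hD
  have a1 : -(2 * |p1|) ≤ p1 * u := by
    have := Arc880.abs_mul_le (le_refl |p1|) hu
    rw [abs_le] at this; linarith [this.1]
  have a2 : -(2 * |p2|) ≤ p2 * v := by
    have := Arc880.abs_mul_le (le_refl |p2|) hv
    rw [abs_le] at this; linarith [this.1]
  have a3 : g * (s1 * u + s2 * v) ≤ G * (2 * |s1| + 2 * |s2|) := by
    have b1 := Arc880.abs_mul_le (le_refl |s1|) hu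
    have b2 := Arc880.abs_mul_le (le_refl |s2|) hv
    have b3 : |s1 * u + s2 * v| ≤ |s1| * 2 + |s2| * 2 := Arc880.abs_add2 b1 b2
    have b4 := Arc880.abs_mul_le (le_refl |g|) b3
    have b5 := (le_abs_self _).trans b4
    rw [hG]
    linarith
  have hBr : A + g * x0 + p1 * u + p2 * v - g * (s1 * u + s2 * v) =
      (A + D) / 2 + (p1 * u + p2 * v) / 2 - g * (s1 * u + s2 * v) := by rw [hDd]; ring
  have hlow : (A + D) / 2 - P - 2 * G * (|s1| + |s2|) ≤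
      A + g * x0 + p1 * u + p2 * v - g * (s1 * u + s2 * v) := by
    rw [hBr, hP]; linarith
  have hA' : 1 / 2 + 2 * G + P ≤ A := by rw [hG, hP]; linarith
  have hD' : 1 / 2 + 2 * G + P ≤ D := by rw [hG, hP]; linarith
  have hA0 : 0 < A := by linarith
  have h38' : 2 * G + P ≤ 3 / 8 := by rw [hG, hP]; linarith
  refine le_trans ?_ hlow
  -- multiply by A
  have c1 : G * ((|s1| + |s2|) * A) ≤ G * (2 * (1 + κ)) :=
    mul_le_mul_of_nonneg_left (by linarith) hG0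
  have c2 : 1 / 100 * A ≤ ((A + D) / 2 - P - 2 * G * (|s1| + |s2|)) * A := by
    have d1 : ((A + D) / 2 - P - 2 * G * (|s1| + |s2|)) * A =
      (A + D) / 2 * A - P * A - 2 * (G * ((|s1| + |s2|) * A)) := by ring
    rw [d1]
    have d2 : (A + (1 / 2 + 2 * G + P)) / 2 * A ≤ (A + D) / 2 * A :=
      mul_le_mul_of_nonneg_right (by linarith) hA0.le
    have d3 : (1 / 2 + 2 * G + P) * A ≤ A * A := mul_le_mul_of_nonneg_right hA' hA0.le
    have d4 : (1 / 2 + 2 * G) * (1 / 2 + 2 * G - 1 / 100) ≤ A * (1 / 2 + 2 * G - 1 / 100) :=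
      mul_le_mul_of_nonneg_right (by linarith) (by linarith)
    have d5 : 0 ≤ G * κ := mul_nonneg hG0 hκ0
    have d6 : G * κ ≤ 3 / 16 * (1 / 200) := mul_le_mul (by linarith) hκ hκ0 (by norm_num)
    have d7 : 0 ≤ (3 / 16 - G) * (5 / 16 - G) := mul_nonneg (by linarith) (by linarith)
    nlinarith
  exact le_of_mul_le_mul_right c2 hA0

/-- slope `∂₀` of the expansion at the point with plank coordinates `x` -/
def slo (b0 b1 : V3) (G : QF) (ζ : ℝ) (x : V3) : ℝ :=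
  b0 0 + ζ * b1 0 + 2 * G.yy * x 0 + G.yu * x 1 + G.yv * x 2

section
variable {e : Fin 3 → V3} {c : Ln4} {w : V3} {q : ℝ → V3 → ℝ} {z0 ρ : ℝ}

theorem inK_shift (he : Ortho e) {z : ℝ} {P : V3} {s : ℝ} :
    (∀ i, |dt (e i) (P - c.pos z) + (if i = 0 then s else 0)| ≤ dbl3 w i) →
      InK e c (dbl3 w) z (P + s • e 0) := by
  intro h i
  have e1 : dt (e i) (P + s • e 0 - c.pos z) =
      dt (e i) (P - c.pos z) + (if i = 0 then s else 0) := by
    have h0 := he i 0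
    have : dt (e i) (P + s • e 0 - c.pos z) = dt (e i) (P - c.pos z) + s * dt (e i) (e 0) := by
      simp only [dt, Pi.add_apply, Pi.sub_apply, Pi.smul_apply, smul_eq_mul]; ring
    rw [this, h0]
    split_ifs <;> ring
  rw [e1]; exact h i

/-- **exact slope** in the direction `e 0` on the doubled box -/
theorem slope_exact (S : StP e c w q z0 ρ) (hρ : 0 ≤ ρ) {T : Ln4} {b0 b1 : V3} {G : QF}
    (hE : IsExp q e w T z0 ρ b0 b1 G) {ζ : ℝ} (hζ : 0 ≤ ζ) (hζ' : ζ ≤ 1) {x : V3}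
    (hx : InK e c (dbl3 w) (z0 + ρ * ζ) (T.pos (z0 + ρ * ζ) + cmb (fr e w) x)) :
    1 / 2 ≤ slo b0 b1 G ζ x ∧ slo b0 b1 G ζ x ≤ 2 := by
  have hw0 := S.pos 0
  set z := z0 + ρ * ζ with hz
  have z1 : z0 ≤ z := by rw [hz]; nlinarith
  have z2 : z ≤ z0 + ρ := by rw [hz]; nlinarith
  set P := T.pos z + cmb (fr e w) x with hP
  have hx3 : x = ![x 0, x 1, x 2] := by ext i; fin_cases i <;> rfl
  have hqP : ∀ s : ℝ, q z (P + (s * w 0) • e 0) = q z (T.pos z) + w 0 * Fq b0 b1 G ζ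
      ![x 0 + s, x 1, x 2] := by
    intro s
    rw [← hE ζ, ← hz, cmb_add_zero, ← hx3]
  have hdF : ∀ s s' : ℝ, Fq b0 b1 G ζ ![x 0 + s, x 1, x 2] - Fq b0 b1 G ζ ![x 0 + s', x 1, x 2] =
      (s - s') * (slo b0 b1 G ζ x + G.yy * (s + s')) := by
    intro s s'
    simp only [Fq, dt, bz, QF.ev, slo, Matrix.cons_val]
    ring
  have key : ∀ s s' : ℝ, s' < s → InK e c (dbl3 w) z (P + (s' * w 0) • e 0) →
      InK e c (dbl3 w) z (P + (s * w 0) • e 0) →
      1 / 2 ≤ slo b0 b1 G ζ x + G.yy * (s + s') ∧ slo b0 b1 G ζ x + G.yy * (s + s') ≤ 2 := by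
    intro s s' hss h1 h2
    have e2 : P + (s * w 0) • e 0 = (P + (s' * w 0) • e 0) + ((s - s') * w 0) • e 0 := by
      ext i
      simp only [Pi.add_apply, Pi.smul_apply, smul_eq_mul]; ring
    have h3 := S.st0 z z1 z2 _ ((s - s') * w 0) (mul_nonneg (by linarith) hw0.le) h1
      (by rw [← e2]; exact h2)
    rw [← e2, hqP, hqP] at h3
    have e3 : q z (T.pos z) + w 0 * Fq b0 b1 G ζ ![x 0 + s, x 1, x 2] -
        (q z (T.pos z) + w 0 * Fq b0 b1 G ζ ![x 0 + s', x 1, x 2]) =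
        ((s - s') * w 0) * (slo b0 b1 G ζ x + G.yy * (s + s')) := by
      have := hdF s s'
      calc _ = w 0 * (Fq b0 b1 G ζ ![x 0 + s, x 1, x 2] -
            Fq b0 b1 G ζ ![x 0 + s', x 1, x 2]) := by ring
        _ = _ := by rw [this]; ring
    rw [e3] at h3
    have h4 : 0 < (s - s') * w 0 := mul_pos (by linarith) hw0
    obtain ⟨h5, h6⟩ := h3
    constructor
    · by_contra hc
      push Not at hc
      have := mul_lt_mul_of_pos_left hc h4
      linarith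
    · by_contra hc
      push Not at hc
      have := mul_lt_mul_of_pos_left hc h4
      linarith
  have h00 := hx 0
  have hin : ∀ s : ℝ, |dt (e 0) (P - c.pos z) + s * w 0| ≤ 2 * w 0 →
      InK e c (dbl3 w) z (P + (s * w 0) • e 0) := by
    intro s hs
    refine inK_shift S.ortho fun i => ?_
    by_cases hi : i = 0
    · subst hi
      simp only [if_true]
      exact hs
    · simp only [hi, if_false, add_zero]
      exact hx i
  have hbase : InK e c (dbl3 w) z (P + ((0:ℝ) * w 0) • e 0) := by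
    refine hin 0 ?_
    rw [zero_mul, add_zero]
    exact h00
  change |dt (e 0) (P - c.pos z)| ≤ 2 * w 0 at h00
  rw [abs_le] at h00
  rcases le_total 0 (dt (e 0) (P - c.pos z)) with hs | hs
  · -- steps down
    have h : ∀ δ : ℝ, 0 < δ → δ ≤ 1 → 1 / 2 ≤ slo b0 b1 G ζ x + -G.yy * δ ∧
        slo b0 b1 G ζ x + -G.yy * δ ≤ 2 := by
      intro δ h0 h1
      have := key 0 (-δ) (by linarith) (hin (-δ) (by
        rw [abs_le]; constructor <;> nlinarith [h00.1, h00.2, mul_pos h0 hw0,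
          mul_le_mul_of_nonneg_right h1 hw0.le])) hbase
      constructor <;> linarith [this.1, this.2]
    exact ⟨lim_ge fun δ h0 h1 => (h δ h0 h1).1, lim_le fun δ h0 h1 => (h δ h0 h1).2⟩
  · have h : ∀ δ : ℝ, 0 < δ → δ ≤ 1 → 1 / 2 ≤ slo b0 b1 G ζ x + G.yy * δ ∧
        slo b0 b1 G ζ x + G.yy * δ ≤ 2 := by
      intro δ h0 h1
      have := key δ 0 h0 hbase (hin δ (by
        rw [abs_le]; constructor <;> nlinarith [h00.1, h00.2, mul_pos h0 hw0,
          mul_le_mul_of_nonneg_right h1 hw0.le]))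
      constructor <;> linarith [this.1, this.2]
    exact ⟨lim_ge fun δ h0 h1 => (h δ h0 h1).1, lim_le fun δ h0 h1 => (h δ h0 h1).2⟩

/-- plank coordinates of a point, relative to the centre -/
theorem dt_cmb_c (he : Ortho e) {T : Ln4} {z : ℝ} (x : V3) (i : Fin 3) :
    dt (e i) (T.pos z + cmb (fr e w) x - c.pos z) = dt (e i) (T.pos z - c.pos z) + w i * x i := by
  rw [← dt_cmb_fr he w x i]
  simp only [dt, Pi.add_apply, Pi.sub_apply]; ring

/-- **exact slope with margins** at a point of the plank -/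
theorem slope_margin (S : StP e c w q z0 ρ) (hρ : 0 ≤ ρ) {T : Ln4} {b0 b1 : V3} {G : QF}
    (hE : IsExp q e w T z0 ρ b0 b1 G) {ζ : ℝ} (hζ : 0 ≤ ζ) (hζ' : ζ ≤ 1) {x : V3}
    (hx : InK e c w (z0 + ρ * ζ) (T.pos (z0 + ρ * ζ) + cmb (fr e w) x)) :
    1 / 2 + 2 * |G.yy| + |G.yu| + |G.yv| ≤ slo b0 b1 G ζ x := by
  obtain ⟨s0, hs0, hs0'⟩ := sgn_ex G.yy
  obtain ⟨s1, hs1, hs1'⟩ := sgn_ex G.yu
  obtain ⟨s2, hs2, hs2'⟩ := sgn_ex G.yv
  have h := (slope_exact S hρ hE hζ hζ' (x := ![x 0 - s0, x 1 - s1, x 2 - s2]) (by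
    intro i
    have h1 := hx i
    rw [dt_cmb_c S.ortho] at h1 ⊢
    have hw := S.pos i
    have h2 : ∀ s : ℝ, |s| ≤ 1 → |w i * s| ≤ w i := by
      intro s hs
      rw [abs_mul, abs_of_pos hw]
      exact mul_le_of_le_one_right hw.le hs
    have h3 : ∀ s : ℝ, |s| ≤ 1 → |dt (e i) (T.pos (z0 + ρ * ζ) - c.pos (z0 + ρ * ζ)) +
        w i * (x i - s)| ≤ 2 * w i := by
      intro s hs
      have e1 : dt (e i) (T.pos (z0 + ρ * ζ) - c.pos (z0 + ρ * ζ)) + w i * (x i - s) =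
        (dt (e i) (T.pos (z0 + ρ * ζ) - c.pos (z0 + ρ * ζ)) + w i * x i) - w i * s := by ring
      rw [e1]
      have := Arc880.abs_sub2 h1 (h2 s hs)
      linarith
    change _ ≤ 2 * w i
    fin_cases i
    · exact h3 s0 hs0
    · exact h3 s1 hs1
    · exact h3 s2 hs2)).1
  have e1 : slo b0 b1 G ζ ![x 0 - s0, x 1 - s1, x 2 - s2] =
      slo b0 b1 G ζ x - 2 * (s0 * G.yy) - s1 * G.yu - s2 * G.yv := by
    simp only [slo, Matrix.cons_val]; ring
  rw [e1, hs0', hs1', hs2'] at h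
  linarith

/-- **second order terms are small** -/
theorem second_le (S : StP e c w q z0 ρ) (hρ : 0 ≤ ρ) {T : Ln4} {b0 b1 : V3} {G : QF}
    (hE : IsExp q e w T z0 ρ b0 b1 G) : 2 * |G.yy| + |G.yu| + |G.yv| ≤ 3 / 8 := by
  obtain ⟨s0, hs0, hs0'⟩ := sgn_ex G.yy
  obtain ⟨s1, hs1, hs1'⟩ := sgn_ex G.yu
  obtain ⟨s2, hs2, hs2'⟩ := sgn_ex G.yv
  -- the corner with signs `m * s`
  obtain ⟨y, hy⟩ : ∃ y : V3, y = fun i => dt (e i) (T.pos (z0 + ρ * 0) - c.pos (z0 + ρ * 0)) / w i :=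
    ⟨_, rfl⟩
  have hin : ∀ m : ℝ, |m| ≤ 2 → InK e c (dbl3 w) (z0 + ρ * 0) (T.pos (z0 + ρ * 0) +
      cmb (fr e w) ![m * s0 - y 0, m * s1 - y 1, m * s2 - y 2]) := by
    intro m hm i
    rw [dt_cmb_c S.ortho]
    have hw := S.pos i
    have h3 : ∀ s : ℝ, |s| ≤ 1 → |dt (e i) (T.pos (z0 + ρ * 0) - c.pos (z0 + ρ * 0)) +
        w i * (m * s - y i)| ≤ 2 * w i := by
      intro s hs
      have e1 : dt (e i) (T.pos (z0 + ρ * 0) - c.pos (z0 + ρ * 0)) + w i * (m * s - y i) =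
        w i * (m * s) := by
        rw [hy]; field_simp; ring
      rw [e1, abs_mul, abs_of_pos hw]
      have := Arc880.abs_mul_le hm hs
      nlinarith
    change _ ≤ 2 * w i
    fin_cases i
    · exact h3 s0 hs0
    · exact h3 s1 hs1
    · exact h3 s2 hs2
  have h1 := (slope_exact S hρ hE le_rfl zero_le_one (hin 2 (by norm_num))).2
  have h2 := (slope_exact S hρ hE le_rfl zero_le_one (hin (-2) (by norm_num))).1
  have e1 : ∀ m : ℝ, slo b0 b1 G 0 ![m * s0 - y 0, m * s1 - y 1, m * s2 - y 2] =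
      m * (2 * (s0 * G.yy) + s1 * G.yu + s2 * G.yv) +
        (b0 0 - 2 * G.yy * y 0 - G.yu * y 1 - G.yv * y 2) := by
    intro m
    simp only [slo, Matrix.cons_val]; ring
  rw [e1, hs0', hs1', hs2'] at h1 h2
  linarith

/-- the mean slope -/
noncomputable def bra (b0 b1 : V3) (G : QF) (ζ : ℝ) (x : V3) : ℝ :=
  b0 0 + ζ * b1 0 + G.yy * x 0 + G.yu * x 1 + G.yv * x 2 -
    G.yy * (b0 1 / b0 0 * x 1 + b0 2 / b0 0 * x 2)

/-- the part of the expansion on the tangent plane -/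
noncomputable def rem (b0 b1 : V3) (G : QF) (ζ : ℝ) (x : V3) : ℝ :=
  ζ * shB1 b0 b1 1 * x 1 + ζ * shB1 b0 b1 2 * x 2 + ((shG b0 G).uu * (x 1 * x 1) +
    (shG b0 G).uv * (x 1 * x 2) + (shG b0 G).vv * (x 2 * x 2))

theorem Fq_split {b0 b1 : V3} {G : QF} (h : b0 0 ≠ 0) (ζ : ℝ) (x : V3) :
    Fq b0 b1 G ζ x = yc b0 x * bra b0 b1 G ζ x + rem b0 b1 G ζ x := by
  have h1 := Fq_unsh (b0 := b0) (b1 := b1) (G := G) h ζ (yc b0 x) (x 1) (x 2)
  rw [unsh_yc] at h1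
  rw [h1]
  have e0 : shB1 b0 b1 0 = b1 0 := rfl
  simp only [Fq, dt, bz, QF.ev, shB0, shG, bra, rem, yc, Matrix.cons_val, e0]
  ring

theorem rem_le {b0 b1 : V3} {G : QF} {ζ : ℝ} (hζ : 0 ≤ ζ) (hζ' : ζ ≤ 1) {x : V3} {m : ℝ}
    (hm : 1 ≤ m) (h1 : |x 1| ≤ m) (h2 : |x 2| ≤ m) :
    |rem b0 b1 G ζ x| ≤ 5 * m ^ 2 * kap b0 b1 G := by
  have k1 : |shB1 b0 b1 1| ≤ kap b0 b1 G := (le_max_left _ _).trans (le_max_left _ _)
  have k2 : |shB1 b0 b1 2| ≤ kap b0 b1 G := (le_max_right _ _).trans (le_max_left _ _)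
  have k3 : |(shG b0 G).uu| ≤ kap b0 b1 G :=
    (le_max_left _ _).trans ((le_max_left _ _).trans (le_max_right _ _))
  have k4 : |(shG b0 G).uv| ≤ kap b0 b1 G :=
    (le_max_right _ _).trans ((le_max_left _ _).trans (le_max_right _ _))
  have k5 : |(shG b0 G).vv| ≤ kap b0 b1 G := (le_max_right _ _).trans (le_max_right _ _)
  have k0 := kap_nonneg b0 b1 G
  have hζa : |ζ| ≤ 1 := by rw [abs_of_nonneg hζ]; exact hζ'
  unfold rem
  have a1 := Tl102.mul_abs_le (Tl102.mul_abs_le hζa k1) h1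
  have a2 := Tl102.mul_abs_le (Tl102.mul_abs_le hζa k2) h2
  have a3 := Tl102.mul_abs_le k3 (Tl102.mul_abs_le h1 h1)
  have a4 := Tl102.mul_abs_le k4 (Tl102.mul_abs_le h1 h2)
  have a5 := Tl102.mul_abs_le k5 (Tl102.mul_abs_le h2 h2)
  refine (Arc880.abs_add2 (Arc880.abs_add2 a1 a2)
    (Arc880.abs_add2 (Arc880.abs_add2 a3 a4) a5)).trans ?_
  have a6 : kap b0 b1 G * m ≤ kap b0 b1 G * (m * m) :=
    mul_le_mul_of_nonneg_left (le_mul_of_one_le_left (by linarith) hm) k0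
  nlinarith

/-- slopes of the tangent plane -/
theorem slopes {b0 b1 : V3} {G : QF} (N : NrmC b0 b1 G) {ζ : ℝ} (hζ : 0 ≤ ζ) (hζ' : ζ ≤ 1) :
    0 < b0 0 + ζ * b1 0 ∧ |b0 1 / b0 0| * (b0 0 + ζ * b1 0) ≤ 1 + kap b0 b1 G ∧
      |b0 2 / b0 0| * (b0 0 + ζ * b1 0) ≤ 1 + kap b0 b1 G := by
  obtain ⟨g1, g2, g3, g4, -⟩ := N.b1_le
  have hA : 0 < b0 0 + ζ * b1 0 := by nlinarith
  have hb0 : b0 0 ≠ 0 := by linarith
  have k1 : |shB1 b0 b1 1| ≤ kap b0 b1 G := (le_max_left _ _).trans (le_max_left _ _)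
  have k2 : |shB1 b0 b1 2| ≤ kap b0 b1 G := (le_max_right _ _).trans (le_max_left _ _)
  have hζa : |ζ| ≤ 1 := by rw [abs_of_nonneg hζ]; exact hζ'
  have cv : ∀ k : Fin 3, |b0 k| ≤ 1 → |b0 k + b1 k| ≤ 1 → |b0 k + ζ * b1 k| ≤ 1 := by
    intro k h1 h2
    rw [abs_le] at h1 h2 ⊢
    constructor <;> nlinarith [h1.1, h1.2, h2.1, h2.2]
  have fin : ∀ k : Fin 3, |b0 k| ≤ 1 → |b0 k + b1 k| ≤ 1 →
      |b1 k - b0 k / b0 0 * b1 0| ≤ kap b0 b1 G →
      |b0 k / b0 0| * (b0 0 + ζ * b1 0) ≤ 1 + kap b0 b1 G := by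
    intro k h1 h2 h3
    have e1 : |b0 k / b0 0| * (b0 0 + ζ * b1 0) = |b0 k / b0 0 * (b0 0 + ζ * b1 0)| := by
      rw [abs_mul, abs_of_pos hA]
    have e2 : b0 k / b0 0 * (b0 0 + ζ * b1 0) = (b0 k + ζ * b1 k) -
        ζ * (b1 k - b0 k / b0 0 * b1 0) := by
      field_simp; ring
    rw [e1, e2]
    have := Arc880.abs_sub2 (cv k h1 h2) (Tl102.mul_abs_le hζa h3)
    linarith
  exact ⟨hA, fin 1 N.b01 N.b11 k1, fin 2 N.b02 N.b12 k2⟩

/-- coordinates of two points of boxes around the same centre -/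
theorem pc_le (S : StP e c w q z0 ρ) {T : Ln4} {z : ℝ} {X : V3} {m : ℝ}
    (hT : InK e c w z (T.pos z)) (hX : ∀ i, |dt (e i) (X - c.pos z)| ≤ m * w i) (i : Fin 3) :
    |pc e w T z X i| ≤ m + 1 := by
  have hw := S.pos i
  unfold pc
  rw [abs_div, abs_of_pos hw, div_le_iff₀ hw]
  have e1 : dt (e i) (X - T.pos z) = dt (e i) (X - c.pos z) - dt (e i) (T.pos z - c.pos z) := by
    simp only [dt, Pi.sub_apply]; ring
  rw [e1]
  have := Arc880.abs_sub2 (hX i) (hT i)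
  linarith

theorem yc_abs {b0 b1 : V3} {G : QF} (N : NrmC b0 b1 G) {x : V3} {m : ℝ} (h : ∀ i, |x i| ≤ m) :
    |yc b0 x| ≤ 5 * m := by
  obtain ⟨-, -, -, -, -, -, -, s1, s2⟩ := N.b1_le
  unfold yc
  have := Arc880.abs_add2 (Arc880.abs_add2 (h 0) (Tl102.mul_abs_le s1 (h 1)))
    (Tl102.mul_abs_le s2 (h 2))
  linarith

/-- **normalised bound on the plank** -/
theorem y_norm (S : StP e c w q z0 ρ) (hρ : 0 ≤ ρ) {T : Ln4}
    (hT : ∀ z, z0 ≤ z → z ≤ z0 + ρ → InK e c w z (T.pos z)) {b0 b1 : V3} {G : QF}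
    (hE : IsExp q e w T z0 ρ b0 b1 G) {ζ : ℝ} (hζ : 0 ≤ ζ) (hζ' : ζ ≤ 1) {X : V3}
    (hX : InK e c w (z0 + ρ * ζ) X) :
    |yc b0 (pc e w T (z0 + ρ * ζ) X)| ≤
      2200 * (|Fq b0 b1 G ζ (pc e w T (z0 + ρ * ζ) X)| + kap b0 b1 G) := by
  have N := hE.nrmC S hρ hT
  obtain ⟨g1, -⟩ := N.b1_le
  have hb0 : b0 0 ≠ 0 := by linarith
  have k0 := kap_nonneg b0 b1 G
  set z := z0 + ρ * ζ with hz
  have z1 : z0 ≤ z := by rw [hz]; nlinarith
  have z2 : z ≤ z0 + ρ := by rw [hz]; nlinarith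
  set x := pc e w T z X with hx
  have hxX : T.pos z + cmb (fr e w) x = X := cmb_pc S.ortho (fun i => (S.pos i).ne') T z X
  have hxl : ∀ i, |x i| ≤ 2 := by
    intro i
    have := pc_le S (m := 1) (hT z z1 z2) (fun i => by rw [one_mul]; exact hX i) i
    rw [← hx] at this; linarith
  have hF0 := abs_nonneg (Fq b0 b1 G ζ x)
  rcases le_total (kap b0 b1 G) (1 / 200) with hk | hk
  · obtain ⟨hA0, hs1, hs2⟩ := slopes N hζ hζ'
    have hmX := slope_margin S hρ hE hζ hζ' (x := x) (by rw [← hz, hxX]; exact hX)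
    have hmT := slope_margin S hρ hE hζ hζ' (x := fun _ => 0) (by
      have : T.pos (z0 + ρ * ζ) + cmb (fr e w) (fun _ => (0:ℝ)) = T.pos (z0 + ρ * ζ) := by
        ext i; simp [cmb]
      rw [this]; exact hT z z1 z2)
    have hsec := second_le S hρ hE
    simp only [slo] at hmX hmT
    have hbr := br_ge (A := b0 0 + ζ * b1 0) (g := G.yy) (p1 := G.yu) (p2 := G.yv)
      (s1 := b0 1 / b0 0) (s2 := b0 2 / b0 0) (x0 := x 0) (u := x 1) (v := x 2)
      (by linarith) hmX hsec hs1 hs2 k0 hk (hxl 1) (hxl 2)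
    have hbr' : 1 / 100 ≤ bra b0 b1 G ζ x := hbr
    have hR := rem_le (b0 := b0) (b1 := b1) (G := G) hζ hζ' (m := 2) (by norm_num) (hxl 1) (hxl 2)
    have hsp := Fq_split (b0 := b0) (b1 := b1) (G := G) hb0 ζ x
    have h1 : yc b0 x * bra b0 b1 G ζ x = Fq b0 b1 G ζ x - rem b0 b1 G ζ x := by rw [hsp]; ring
    have h2 : |yc b0 x| * bra b0 b1 G ζ x ≤ |Fq b0 b1 G ζ x| + 5 * 2 ^ 2 * kap b0 b1 G := by
      rw [← abs_of_pos (by linarith : 0 < bra b0 b1 G ζ x), ← abs_mul, h1]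
      exact Arc880.abs_sub2 le_rfl hR
    have h3 : |yc b0 x| * (1 / 100) ≤ |yc b0 x| * bra b0 b1 G ζ x :=
      mul_le_mul_of_nonneg_left hbr' (abs_nonneg _)
    linarith
  · have := yc_abs N hxl
    linarith

/-- **normalised bound near a point of the plank** -/
theorem y_norm' (S : StP e c w q z0 ρ) (hρ : 0 ≤ ρ) {T : Ln4}
    (hT : ∀ z, z0 ≤ z → z ≤ z0 + ρ → InK e c w z (T.pos z)) {b0 b1 : V3} {G : QF}
    (hE : IsExp q e w T z0 ρ b0 b1 G) {ζ : ℝ} (hζ : 0 ≤ ζ) (hζ' : ζ ≤ 1) {X' X : V3}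
    (hX' : InK e c w (z0 + ρ * ζ) X') (hX : ∀ i, |dt (e i) (X - X')| ≤ w i / 8) :
    |yc b0 (pc e w T (z0 + ρ * ζ) X)| ≤
      20000 * (|Fq b0 b1 G ζ (pc e w T (z0 + ρ * ζ) X)| +
        |Fq b0 b1 G ζ (pc e w T (z0 + ρ * ζ) X')| + kap b0 b1 G) := by
  have N := hE.nrmC S hρ hT
  obtain ⟨g1, -, -, -, -, -, -, sl1, sl2⟩ := N.b1_le
  have hb0 : b0 0 ≠ 0 := by linarith
  have k0 := kap_nonneg b0 b1 G
  have hy' := y_norm S hρ hT hE hζ hζ' hX'
  set z := z0 + ρ * ζ with hz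
  have z1 : z0 ≤ z := by rw [hz]; nlinarith
  have z2 : z ≤ z0 + ρ := by rw [hz]; nlinarith
  set x := pc e w T z X with hx
  set x' := pc e w T z X' with hx'
  have hxX' : T.pos z + cmb (fr e w) x' = X' := cmb_pc S.ortho (fun i => (S.pos i).ne') T z X'
  have hxl : ∀ i, |x i| ≤ 17 / 8 := by
    intro i
    have := pc_le S (m := 9 / 8) (hT z z1 z2) (X := X) (fun i => by
      have e1 : dt (e i) (X - c.pos z) = dt (e i) (X - X') + dt (e i) (X' - c.pos z) := by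
        simp only [dt, Pi.sub_apply]; ring
      rw [e1]
      have := Arc880.abs_add2 (hX i) (hX' i)
      linarith) i
    rw [← hx] at this; linarith
  have hF0 := abs_nonneg (Fq b0 b1 G ζ x)
  have hF0' := abs_nonneg (Fq b0 b1 G ζ x')
  have hyx := yc_abs N hxl
  rcases le_total (kap b0 b1 G) (1 / 200) with hk | hk
  · rcases le_total |yc b0 x'| (4 / 3) with hy | hy
    · obtain ⟨hA0, hs1, hs2⟩ := slopes N hζ hζ'
      have hmX := slope_margin S hρ hE hζ hζ' (x := x') (by rw [← hz, hxX']; exact hX')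
      have hsec := second_le S hρ hE
      simp only [slo] at hmX
      -- differences of coordinates
      have hd : ∀ i, |x i - x' i| ≤ 1 / 8 := by
        intro i
        have hw := S.pos i
        have e1 : x i - x' i = dt (e i) (X - X') / w i := by
          simp only [hx, hx', pc, dt, Pi.sub_apply]; ring
        rw [e1, abs_div, abs_of_pos hw, div_le_iff₀ hw]
        have := hX i
        linarith
      have hbr : 1 / 4 ≤ bra b0 b1 G ζ x := by
        have e1 : bra b0 b1 G ζ x = (b0 0 + ζ * b1 0 + 2 * G.yy * x' 0 + G.yu * x' 1 + G.yv * x' 2) -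
            G.yy * yc b0 x' + G.yy * (x 0 - x' 0) + G.yu * (x 1 - x' 1) + G.yv * (x 2 - x' 2) -
            G.yy * (b0 1 / b0 0 * (x 1 - x' 1) + b0 2 / b0 0 * (x 2 - x' 2)) := by
          unfold bra yc; ring
        have t1 := Arc880.abs_mul_le (le_refl |G.yy|) hy
        have t2 := Arc880.abs_mul_le (le_refl |G.yy|) (hd 0)
        have t3 := Arc880.abs_mul_le (le_refl |G.yu|) (hd 1)
        have t4 := Arc880.abs_mul_le (le_refl |G.yv|) (hd 2)
        have t5 := Arc880.abs_mul_le (le_refl |G.yy|)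
          (Arc880.abs_add2 (Arc880.abs_mul_le sl1 (hd 1)) (Arc880.abs_mul_le sl2 (hd 2)))
        have p1 := abs_nonneg G.yy
        have p2 := abs_nonneg G.yu
        have p3 := abs_nonneg G.yv
        rw [abs_le] at t1 t2 t3 t4 t5
        rw [e1]
        linarith [t1.1, t1.2, t2.1, t2.2, t3.1, t3.2, t4.1, t4.2, t5.1, t5.2]
      have hR := rem_le (b0 := b0) (b1 := b1) (G := G) hζ hζ' (m := 17 / 8) (by norm_num)
        (hxl 1) (hxl 2)
      have hsp := Fq_split (b0 := b0) (b1 := b1) (G := G) hb0 ζ x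
      have h1 : yc b0 x * bra b0 b1 G ζ x = Fq b0 b1 G ζ x - rem b0 b1 G ζ x := by rw [hsp]; ring
      have h2 : |yc b0 x| * bra b0 b1 G ζ x ≤ |Fq b0 b1 G ζ x| +
          5 * (17 / 8) ^ 2 * kap b0 b1 G := by
        rw [← abs_of_pos (by linarith : 0 < bra b0 b1 G ζ x), ← abs_mul, h1]
        exact Arc880.abs_sub2 le_rfl hR
      have h3 : |yc b0 x| * (1 / 4) ≤ |yc b0 x| * bra b0 b1 G ζ x :=
        mul_le_mul_of_nonneg_left hbr (abs_nonneg _)
      linarith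
    · linarith
  · linarith

end

end Crest.Agent.R136.Ffr262
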