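import Crest.Agent.R136.Hc1_792

/-!
# R136 (S0187), PLAN 2, (AL) (C): number of classes in a hull (helper792)
-/

set_option autoImplicit false
set_option linter.unusedVariables false

open Finset

namespace Crest.Agent.R136.Hc792

open Classical in
/-- full classes contained in a set `Q` of at most `B M` lines are at most `W B` -/
theorem card_classes {ι κ : Type*} {P : Finset ι} {v : ι → κ} {W M B : ℝ} (hW : 0 < W)
    (hM : 0 < M) (hv : ∀ t ∈ P, M ≤ W * ((P.filter fun s => v s = v t).card : ℝ))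
    {S : Finset κ} {Q : Finset ι} (hS : ∀ c ∈ S, ∃ t ∈ P, v t = c ∧ ∀ s ∈ P, v s = c → s ∈ Q)
    (hB : (Q.card : ℝ) ≤ B * M) : (S.card : ℝ) ≤ W * B := by
  have h1 : ∀ c ∈ S, M / W ≤ ((Q.filter fun s => v s = c).card : ℝ) := by
    intro c hc
    obtain ⟨t, ht, htc, h2⟩ := hS c hc
    rw [div_le_iff₀ hW]
    have h3 : (P.filter fun s => v s = v t) ⊆ Q.filter fun s => v s = c := by
      intro s hs
      obtain ⟨hs1, hs2⟩ := Finset.mem_filter.1 hs
      exact Finset.mem_filter.2 ⟨h2 s hs1 (hs2.trans htc), hs2.trans htc⟩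
    have h4 : ((P.filter fun s => v s = v t).card : ℝ) ≤ ((Q.filter fun s => v s = c).card : ℝ) :=
      Nat.cast_le.2 (Finset.card_le_card h3)
    have h5 := mul_le_mul_of_nonneg_left h4 hW.le
    linarith [hv t ht]
  have h2 : (S.card : ℝ) * (M / W) ≤ (Q.card : ℝ) := by
    have h3 : ∑ c ∈ S, (Q.filter fun s => v s = c).card ≤ Q.card := by
      have hd : ∀ c ∈ S, ∀ c' ∈ S, c ≠ c' → Disjoint (Q.filter fun s => v s = c)
          (Q.filter fun s => v s = c') := by
        intro c _ c' _ hne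
        rw [Finset.disjoint_left]
        intro s hs hs'
        exact hne ((Finset.mem_filter.1 hs).2.symm.trans (Finset.mem_filter.1 hs').2)
      rw [← Finset.card_biUnion hd]
      exact Finset.card_le_card (Finset.biUnion_subset.2 fun c _ => Finset.filter_subset _ _)
    calc (S.card : ℝ) * (M / W) = ∑ c ∈ S, M / W := by rw [Finset.sum_const, nsmul_eq_mul]
      _ ≤ ∑ c ∈ S, ((Q.filter fun s => v s = c).card : ℝ) := Finset.sum_le_sum h1
      _ ≤ (Q.card : ℝ) := by exact_mod_cast h3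
  have h3 : (S.card : ℝ) * (M / W) ≤ B * M := h2.trans hB
  rw [mul_div_assoc', div_le_iff₀ hW] at h3
  have h4 : (S.card : ℝ) * M ≤ (W * B) * M := by linarith
  exact le_of_mul_le_mul_right h4 hM

open Classical in
/-- the classes of the second system met by one class of the first one -/
theorem card_met {ι κ κ' : Type*} {P : Finset ι} {u : ι → κ'} {v : ι → κ} {W M B : ℝ}
    (hW : 0 < W) (hM : 0 < M) (hv : ∀ t ∈ P, M ≤ W * ((P.filter fun s => v s = v t).card : ℝ))
    {c : κ'} {Q : Finset ι} (hQ : ∀ t ∈ P, u t = c → ∀ s ∈ P, v s = v t → s ∈ Q)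
    (hB : (Q.card : ℝ) ≤ B * M) : (((P.filter fun t => u t = c).image v).card : ℝ) ≤ W * B := by
  refine card_classes hW hM hv (Q := Q) ?_ hB
  intro d hd
  obtain ⟨t, ht, rfl⟩ := Finset.mem_image.1 hd
  obtain ⟨ht1, ht2⟩ := Finset.mem_filter.1 ht
  exact ⟨t, ht1, rfl, fun s hs h => hQ t ht1 ht2 s hs h⟩

open Classical in
/-- the classes of the first system reached in two steps -/
theorem card_met2 {ι κ κ' : Type*} {P : Finset ι} {u : ι → κ'} {v : ι → κ} {W M B : ℝ}
    (hW : 0 < W) (hM : 0 < M) (hu : ∀ t ∈ P, M ≤ W * ((P.filter fun s => u s = u t).card : ℝ))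
    {c : κ'} {T : Finset κ'}
    (hT : ∀ c1 ∈ T, ∃ t ∈ P, ∃ t' ∈ P, u t = c ∧ u t' = c1 ∧ v t' = v t) {Q : Finset ι}
    (hQ : ∀ t ∈ P, u t = c → ∀ t' ∈ P, v t' = v t → ∀ s ∈ P, u s = u t' → s ∈ Q)
    (hB : (Q.card : ℝ) ≤ B * M) : (T.card : ℝ) ≤ W * B := by
  refine card_classes hW hM hu (Q := Q) ?_ hB
  intro c1 hc1
  obtain ⟨t, ht, t', ht', h1, h2, h3⟩ := hT c1 hc1
  exact ⟨t', ht', h2, fun s hs h => hQ t ht h1 t' ht' h3 s hs (h.trans h2.symm)⟩

end Crest.Agent.R136.Hc792
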