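import Crest.Agent.R136.Sh1_605

/-!
# R136 (S0187), PLAN 2 (AL) (C): alignment of two flat frames, definition (helper412)
-/

set_option autoImplicit false
set_option linter.unusedVariables false

namespace Crest.Agent.R136.Hul412

open Crest.Agent.R136.Sh605

/-- the flat boxes `![Y, w1, w2]` with the frames `f`, `g` are comparable up to `K` -/
structure Aln (K Y w1 w2 : ℝ) (f g : Fin 3 → V3) : Prop where
  a01 : |dt (f 0) (g 1)| * w1 ≤ K * Y
  a02 : |dt (f 0) (g 2)| * w2 ≤ K * Y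
  a10 : |dt (f 1) (g 0)| * w1 ≤ K * Y
  a20 : |dt (f 2) (g 0)| * w2 ≤ K * Y
  b12 : |dt (f 1) (g 2)| * w1 ≤ K * w2
  b21 : |dt (f 2) (g 1)| * w1 ≤ K * w2

variable {K Y w1 w2 : ℝ} {f g : Fin 3 → V3}

theorem Aln.symm (h : Aln K Y w1 w2 f g) : Aln K Y w1 w2 g f where
  a01 := by rw [dt_comm]; exact h.a10
  a02 := by rw [dt_comm]; exact h.a20
  a10 := by rw [dt_comm]; exact h.a01
  a20 := by rw [dt_comm]; exact h.a02
  b12 := by rw [dt_comm]; exact h.b21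
  b21 := by rw [dt_comm]; exact h.b12

/-- expansion of a scalar product in an orthonormal frame -/
theorem dt_exp3 (hg : Ortho g) (x D : V3) :
    dt x D = dt x (g 0) * dt (g 0) D + dt x (g 1) * dt (g 1) D + dt x (g 2) * dt (g 2) D := by
  have h : ∀ j, D j = dt (g 0) D * g 0 j + dt (g 1) D * g 1 j + dt (g 2) D * g 2 j := hg.expand D
  have h0 := h 0
  have h1 := h 1
  have h2 := h 2
  have e : dt x D = x 0 * D 0 + x 1 * D 1 + x 2 * D 2 := rfl
  rw [e]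
  calc x 0 * D 0 + x 1 * D 1 + x 2 * D 2 =
        x 0 * (dt (g 0) D * g 0 0 + dt (g 1) D * g 1 0 + dt (g 2) D * g 2 0) +
        x 1 * (dt (g 0) D * g 0 1 + dt (g 1) D * g 1 1 + dt (g 2) D * g 2 1) +
        x 2 * (dt (g 0) D * g 0 2 + dt (g 1) D * g 1 2 + dt (g 2) D * g 2 2) := by
          rw [← h0, ← h1, ← h2]
    _ = (x 0 * g 0 0 + x 1 * g 0 1 + x 2 * g 0 2) * dt (g 0) D +
        (x 0 * g 1 0 + x 1 * g 1 1 + x 2 * g 1 2) * dt (g 1) D +
        (x 0 * g 2 0 + x 1 * g 2 1 + x 2 * g 2 2) * dt (g 2) D := by ring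
    _ = _ := rfl

/-- **transport of a flat box** -/
theorem Aln.box (h : Aln K Y w1 w2 f g) (hg : Ortho g) (hf : Ortho f) (hK : 0 ≤ K) (hY : 0 < Y)
    (h2 : Y ≤ w2) (h1 : w2 ≤ w1) {D : V3} {m : ℝ} (hm : 0 ≤ m) (d0 : |dt (g 0) D| ≤ m * Y)
    (d1 : |dt (g 1) D| ≤ m * w1) (d2 : |dt (g 2) D| ≤ m * w2)
    (u : ∀ i, |dt (f i) (g i)| ≤ 1) :
    |dt (f 0) D| ≤ (1 + 2 * K) * m * Y ∧ |dt (f 1) D| ≤ (1 + 2 * K) * m * w1 ∧
      |dt (f 2) D| ≤ (1 + 2 * K) * m * w2 := by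
  have hw2 : 0 < w2 := hY.trans_le h2
  have hw1 : 0 < w1 := hw2.trans_le h1
  have tri : ∀ i, |dt (f i) D| ≤ |dt (f i) (g 0)| * |dt (g 0) D| + |dt (f i) (g 1)| * |dt (g 1) D| +
      |dt (f i) (g 2)| * |dt (g 2) D| := by
    intro i
    rw [dt_exp3 hg (f i) D, ← abs_mul, ← abs_mul, ← abs_mul]
    exact (abs_add_le _ _).trans (add_le_add (abs_add_le _ _) le_rfl)
  have kk : ∀ {x y A B C : ℝ}, 0 ≤ x → |y| ≤ m * B → x * B ≤ C → x * |y| ≤ m * C := by
    intro x y A B C hx hy hC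
    calc x * |y| ≤ x * (m * B) := mul_le_mul_of_nonneg_left hy hx
      _ = m * (x * B) := by ring
      _ ≤ _ := mul_le_mul_of_nonneg_left hC hm
  have uu : ∀ {x y B : ℝ}, |x| ≤ 1 → |y| ≤ m * B → |x| * |y| ≤ m * B := by
    intro x y B hx hy
    calc |x| * |y| ≤ 1 * |y| := mul_le_mul_of_nonneg_right hx (abs_nonneg _)
      _ = |y| := one_mul _
      _ ≤ _ := hy
  have hYK : 0 ≤ K * Y := mul_nonneg hK hY.le
  refine ⟨?_, ?_, ?_⟩
  · have e0 := uu (u 0) d0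
    have e1 := kk (A := 0) (abs_nonneg (dt (f 0) (g 1))) d1 h.a01
    have e2 := kk (A := 0) (abs_nonneg (dt (f 0) (g 2))) d2 h.a02
    have := tri 0
    have e : (1 + 2 * K) * m * Y = m * Y + m * (K * Y) + m * (K * Y) := by ring
    rw [e]; linarith
  · have e0 := kk (A := 0) (C := K * w1) (abs_nonneg (dt (f 1) (g 0))) d0 (by
      calc |dt (f 1) (g 0)| * Y ≤ |dt (f 1) (g 0)| * w1 :=
            mul_le_mul_of_nonneg_left (h2.trans h1) (abs_nonneg _)
        _ ≤ K * Y := h.a10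
        _ ≤ K * w1 := mul_le_mul_of_nonneg_left (h2.trans h1) hK)
    have e1 := uu (u 1) d1
    have e2 := kk (A := 0) (C := K * w1) (abs_nonneg (dt (f 1) (g 2))) d2 (by
      calc |dt (f 1) (g 2)| * w2 ≤ |dt (f 1) (g 2)| * w1 :=
            mul_le_mul_of_nonneg_left h1 (abs_nonneg _)
        _ ≤ K * w2 := h.b12
        _ ≤ K * w1 := mul_le_mul_of_nonneg_left h1 hK)
    have := tri 1
    have e : (1 + 2 * K) * m * w1 = m * w1 + m * (K * w1) + m * (K * w1) := by ring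
    rw [e]; linarith
  · have e0 := kk (A := 0) (C := K * w2) (abs_nonneg (dt (f 2) (g 0))) d0 (by
      calc |dt (f 2) (g 0)| * Y ≤ |dt (f 2) (g 0)| * w2 :=
            mul_le_mul_of_nonneg_left h2 (abs_nonneg _)
        _ ≤ K * Y := h.a20
        _ ≤ K * w2 := mul_le_mul_of_nonneg_left h2 hK)
    have e1 := kk (A := 0) (C := K * w2) (abs_nonneg (dt (f 2) (g 1))) d1 h.b21
    have e2 := uu (u 2) d2
    have := tri 2
    have e : (1 + 2 * K) * m * w2 = m * w2 + m * (K * w2) + m * (K * w2) := by ring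
    rw [e]; linarith

end Crest.Agent.R136.Hul412
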