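import Crest.Agent.R136.Pl2W_102
import Crest.Agent.R136.Fl1_808

/-!
# R136 (S0187), PLAN 2, (B2): D-max of sheets gives the D-max of (wide, long) flat boxes (helper417)

`hull_card` : a flat box of half-widths `X0, K w1, X2` (`a ≤ X0 ≤ X2 ≤ K w1`, `w2 ≤ X2`) contains at
most `(2 W K)^C M (X0/a)^(1+qp 0) (X2/w2)^(1+qp 2)` lines; the box may be longer than `ρ` (cover by
boxes of half-widths `≤ ρ`).
-/

set_option autoImplicit false
set_option linter.unusedVariables false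

open Finset

namespace Crest.Agent.R136.Pl2H417

open Crest.Agent.R136.Sh605 Crest.Agent.R136.Fl808
open Crest.Agent.R136.K4 (Plk4)
open Crest.Agent.R136.Tlt51 (Shp InP)
open Crest.Agent.R136.Phc248 (ph phC ph_le_wide ph_nonneg)
open Crest.Agent.R136.Pl2W102 (Near Ex2 Two1)

/-! ### flat boxes as sheets -/

/-- affine function of a flat box -/
def qf (n : Fin 3 → V3) (l : Ln4) : ℝ → V3 → ℝ := fun z x => dt (n 0) (x - l.pos z)

theorem isQ_qf (n : Fin 3 → V3) (l : Ln4) : IsQ (qf n l) := by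
  refine ⟨-dt (n 0) l.p, -dt (n 0) l.v, 0, n 0, 0, fun _ _ => 0, fun z x => ?_⟩
  simp only [qf, dt, Ln4.pos, Pi.sub_apply, Fin.sum_univ_three, Pi.zero_apply]
  ring

theorem qf_step (n : Fin 3 → V3) (l : Ln4) (z : ℝ) (x y : V3) (τ : ℝ) :
    qf n l z (x + τ • y) - qf n l z x = τ * dt (n 0) y := by
  simp only [qf, dt, Ln4.pos, Pi.sub_apply, Pi.add_apply, Pi.smul_apply, smul_eq_mul]
  ring

theorem shN_qf {n : Fin 3 → V3} (hn : Ortho n) (l : Ln4) {a w1 w2 z0 ρ r0 : ℝ} (hr : r0 ≤ a)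
    (ha : 0 < a) (haw : a ≤ w2) (hw : w2 ≤ w1) :
    ShN n l ![w2, w1, w2] (qf n l) a z0 ρ r0 := by
  have p2 : 0 < w2 := ha.trans_le haw
  have p1 : 0 < w1 := p2.trans_le hw
  refine ShN0.toN ⟨hn, isQ_qf n l, by simp, by simpa using haw, by simpa using hw, hr, ?_, ?_, ?_⟩
  · intro z _ _ x τ hτ _ _
    rw [qf_step, hn 0 0, if_pos rfl]
    constructor <;> linarith
  · intro z _ _ x τ hτ _ _
    have : dt (n 0) (n 1) = 0 := by rw [hn 0 1]; simp
    rw [qf_step, this, mul_zero, abs_zero]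
    simp only [Matrix.cons_val_zero, Matrix.cons_val_one, Matrix.cons_val]
    positivity
  · intro z _ _ x τ hτ _ _
    have : dt (n 0) (n 2) = 0 := by rw [hn 0 2]; simp
    rw [qf_step, this, mul_zero, abs_zero]
    exact hτ

theorem inSheet_qf {t l : Ln4} {n : Fin 3 → V3} {a w1 w2 z0 ρ : ℝ} (haw : a ≤ w2)
    (h : InB t l n ![a, w1, w2] z0 ρ) : InSheet t n l ![w2, w1, w2] (qf n l) a z0 ρ := by
  intro z h0 h1
  have h2 := h z h0 h1
  refine ⟨fun i => ?_, ?_⟩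
  · have h3 := h2 i
    fin_cases i
    · simp only [Fin.zero_eta, Matrix.cons_val_zero] at h3 ⊢; linarith
    · simpa using h3
    · simpa using h3
  · have h3 := h2 0
    simpa [qf] using h3

/-! ### the cover by shorter boxes -/

/-- rounding to the grid `ρ ℤ`, or to `0` if the range is small -/
theorem exists_rnd {ρ s x : ℝ} {n : ℕ} (hρ : 0 < ρ) (hs : s ≤ n * ρ) (hx : |x| ≤ s) :
    ∃ k : Fin (2 * n + 1), |x - (((k : ℕ) : ℝ) - n) * ρ| ≤ min s ρ := by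
  rcases le_or_gt s ρ with h | h
  · refine ⟨⟨n, by omega⟩, ?_⟩
    simp only [sub_self, zero_mul, sub_zero]
    exact le_min hx (hx.trans h)
  · have hx1 := abs_le.1 hx
    have h1 : -(n : ℝ) ≤ x / ρ := by
      rw [le_div_iff₀ hρ]; nlinarith
    have h2 : x / ρ ≤ n := by
      rw [div_le_iff₀ hρ]; linarith
    have h3 : -(n : ℤ) ≤ ⌊x / ρ⌋ := by
      rw [Int.le_floor]; push_cast; exact h1
    have h4 : ⌊x / ρ⌋ ≤ (n : ℤ) := by
      have : (⌊x / ρ⌋ : ℝ) ≤ (n : ℝ) := (Int.floor_le _).trans h2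
      exact_mod_cast this
    obtain ⟨m, hm⟩ : ∃ m : ℕ, (m : ℤ) = ⌊x / ρ⌋ + n := ⟨(⌊x / ρ⌋ + n).toNat, by omega⟩
    refine ⟨⟨m, by omega⟩, ?_⟩
    have h5 : ((m : ℕ) : ℝ) - n = (⌊x / ρ⌋ : ℝ) := by
      have : ((m : ℤ) : ℝ) = (⌊x / ρ⌋ : ℝ) + n := by rw [hm]; push_cast; ring
      have h6 : ((m : ℤ) : ℝ) = (m : ℝ) := by norm_cast
      linarith
    simp only
    rw [h5, min_eq_right h.le]
    have h7 := Int.floor_le (x / ρ)
    have h8 := (Int.lt_floor_add_one (x / ρ)).le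
    have h9 : x / ρ * ρ = x := div_mul_cancel₀ _ hρ.ne'
    rw [abs_le]
    constructor <;> nlinarith

/-- the line with the coordinates `α i` (at `z0`) and `β i` (at `z0 + ρ`) relative to `b` -/
noncomputable def cen (b : Ln4) (f : Fin 3 → V3) (α β : Fin 3 → ℝ) (z0 ρ : ℝ) : Ln4 where
  p := fun k => b.p k + ∑ i, (α i - z0 * ((β i - α i) / ρ)) * f i k
  v := fun k => b.v k + ∑ i, ((β i - α i) / ρ) * f i k

theorem dt_cen (b : Ln4) {f : Fin 3 → V3} (hf : Ortho f) (α β : Fin 3 → ℝ) (z0 ρ z : ℝ)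
    (j : Fin 3) : dt (f j) ((cen b f α β z0 ρ).pos z - b.pos z) =
      α j + (z - z0) * ((β j - α j) / ρ) := by
  have h1 : dt (f j) ((cen b f α β z0 ρ).pos z - b.pos z) =
      ∑ i, (α i + (z - z0) * ((β i - α i) / ρ)) * dt (f j) (f i) := by
    simp only [dt, cen, Ln4.pos, Pi.sub_apply, Fin.sum_univ_three]
    ring
  rw [h1]
  simp only [hf j, Fin.sum_univ_three]
  fin_cases j <;> simp

theorem dt_pos_affine (t b : Ln4) (x : V3) (z0 ρ θ : ℝ) :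
    dt x (t.pos (z0 + θ * ρ) - b.pos (z0 + θ * ρ)) =
      (1 - θ) * dt x (t.pos z0 - b.pos z0) + θ * dt x (t.pos (z0 + ρ) - b.pos (z0 + ρ)) := by
  simp only [dt, Ln4.pos, Pi.sub_apply]; ring

/-- a line whose coordinates at the two ends are near `α, β` is near `cen` -/
theorem near_cen {t b : Ln4} {f : Fin 3 → V3} (hf : Ortho f) {α β : Fin 3 → ℝ} {z0 ρ : ℝ}
    (hρ : 0 < ρ) {i : Fin 3} {m : ℝ} (h0 : |dt (f i) (t.pos z0 - b.pos z0) - α i| ≤ m)
    (h1 : |dt (f i) (t.pos (z0 + ρ) - b.pos (z0 + ρ)) - β i| ≤ m) {z : ℝ} (hz0 : z0 ≤ z)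
    (hz1 : z ≤ z0 + ρ) : |dt (f i) (t.pos z - (cen b f α β z0 ρ).pos z)| ≤ m := by
  obtain ⟨θ, rfl⟩ : ∃ θ, z = z0 + θ * ρ := ⟨(z - z0) / ρ, by field_simp; ring⟩
  have t0 : 0 ≤ θ := by
    by_contra hc
    have : θ * ρ < 0 := mul_neg_of_neg_of_pos (not_le.1 hc) hρ
    linarith
  have t1 : θ ≤ 1 := by
    by_contra hc
    have : 1 * ρ < θ * ρ := mul_lt_mul_of_pos_right (not_le.1 hc) hρ
    linarith
  have e1 : dt (f i) (t.pos (z0 + θ * ρ) - (cen b f α β z0 ρ).pos (z0 + θ * ρ)) =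
      (1 - θ) * (dt (f i) (t.pos z0 - b.pos z0) - α i) +
        θ * (dt (f i) (t.pos (z0 + ρ) - b.pos (z0 + ρ)) - β i) := by
    have e2 : dt (f i) (t.pos (z0 + θ * ρ) - (cen b f α β z0 ρ).pos (z0 + θ * ρ)) =
        dt (f i) (t.pos (z0 + θ * ρ) - b.pos (z0 + θ * ρ)) -
          dt (f i) ((cen b f α β z0 ρ).pos (z0 + θ * ρ) - b.pos (z0 + θ * ρ)) := by
      rw [← dt_sub]; congr 1; abel
    rw [e2, dt_cen b hf, dt_pos_affine]
    have : (z0 + θ * ρ - z0) * ((β i - α i) / ρ) = θ * (β i - α i) := by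
      field_simp; ring
    rw [this]; ring
  rw [e1]
  calc |(1 - θ) * (dt (f i) (t.pos z0 - b.pos z0) - α i) +
        θ * (dt (f i) (t.pos (z0 + ρ) - b.pos (z0 + ρ)) - β i)|
      ≤ |(1 - θ) * (dt (f i) (t.pos z0 - b.pos z0) - α i)| +
        |θ * (dt (f i) (t.pos (z0 + ρ) - b.pos (z0 + ρ)) - β i)| := abs_add_le _ _
    _ = (1 - θ) * |dt (f i) (t.pos z0 - b.pos z0) - α i| +
        θ * |dt (f i) (t.pos (z0 + ρ) - b.pos (z0 + ρ)) - β i| := by
        rw [abs_mul, abs_mul, abs_of_nonneg t0, abs_of_nonneg (by linarith : 0 ≤ 1 - θ)]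
    _ ≤ (1 - θ) * m + θ * m := add_le_add (mul_le_mul_of_nonneg_left h0 (by linarith))
        (mul_le_mul_of_nonneg_left h1 t0)
    _ = m := by ring

/-- the lines of a box of half-widths `s i ≤ n ρ` : at most `(2n+1)^6` boxes of half-widths
`min (s i) ρ` -/
theorem cover_card {P : Finset ℕ} {L : ℕ → Ln4} {b : Ln4} {f : Fin 3 → V3} (hf : Ortho f)
    {s : V3} {z0 ρ : ℝ} (hρ : 0 < ρ) {n : ℕ} (hs : ∀ i, s i ≤ n * ρ)
    (hP : ∀ t ∈ P, InB (L t) b f s z0 ρ) {Z : ℝ} (hZ : 0 ≤ Z)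
    (hB : ∀ c : Ln4, ∀ Q ⊆ P, (∀ t ∈ Q, InB (L t) c f (fun i => min (s i) ρ) z0 ρ) →
      (Q.card : ℝ) ≤ Z) : (P.card : ℝ) ≤ (2 * n + 1) ^ 6 * Z := by
  classical
  have h0 : ∀ t : ℕ, ∃ k : Fin 3 → Fin (2 * n + 1), t ∈ P → ∀ i,
      |dt (f i) ((L t).pos z0 - b.pos z0) - (((k i : ℕ) : ℝ) - n) * ρ| ≤ min (s i) ρ := by
    intro t
    by_cases ht : t ∈ P
    · have := fun i => exists_rnd hρ (hs i) (hP t ht z0 le_rfl (by linarith) i)
      choose k hk using this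
      exact ⟨k, fun _ => hk⟩
    · exact ⟨fun _ => 0, fun h => absurd h ht⟩
  have h1 : ∀ t : ℕ, ∃ k : Fin 3 → Fin (2 * n + 1), t ∈ P → ∀ i,
      |dt (f i) ((L t).pos (z0 + ρ) - b.pos (z0 + ρ)) - (((k i : ℕ) : ℝ) - n) * ρ| ≤
        min (s i) ρ := by
    intro t
    by_cases ht : t ∈ P
    · have := fun i => exists_rnd hρ (hs i) (hP t ht (z0 + ρ) (by linarith) le_rfl i)
      choose k hk using this
      exact ⟨k, fun _ => hk⟩
    · exact ⟨fun _ => 0, fun h => absurd h ht⟩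
  choose k0 hk0 using h0
  choose k1 hk1 using h1
  have h2 : P.card = ∑ y ∈ (Finset.univ : Finset ((Fin 3 → Fin (2 * n + 1)) ×
      (Fin 3 → Fin (2 * n + 1)))), (P.filter fun t => (k0 t, k1 t) = y).card :=
    Finset.card_eq_sum_card_fiberwise (fun t _ => Finset.mem_coe.2 (Finset.mem_univ _))
  have h3 : ∀ y ∈ (Finset.univ : Finset ((Fin 3 → Fin (2 * n + 1)) ×
      (Fin 3 → Fin (2 * n + 1)))), ((P.filter fun t => (k0 t, k1 t) = y).card : ℝ) ≤ Z := by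
    rintro ⟨y0, y1⟩ -
    refine hB (cen b f (fun i => (((y0 i : ℕ) : ℝ) - n) * ρ) (fun i => (((y1 i : ℕ) : ℝ) - n) * ρ)
      z0 ρ) _ (Finset.filter_subset _ _) ?_
    intro t ht z hz0 hz1 i
    obtain ⟨htP, hte⟩ := Finset.mem_filter.1 ht
    obtain ⟨e0, e1⟩ := Prod.mk.inj hte
    refine near_cen hf hρ ?_ ?_ hz0 hz1
    · rw [← e0]; exact hk0 t htP i
    · rw [← e1]; exact hk1 t htP i
  have h4 : (P.card : ℝ) ≤ (Fintype.card ((Fin 3 → Fin (2 * n + 1)) ×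
      (Fin 3 → Fin (2 * n + 1))) : ℝ) * Z := by
    rw [h2]
    push_cast
    refine (Finset.sum_le_sum h3).trans ?_
    rw [Finset.sum_const, Finset.card_univ, nsmul_eq_mul]
  refine h4.trans (le_of_eq ?_)
  rw [Fintype.card_prod, Fintype.card_pi]
  simp only [Fintype.card_fin, Finset.prod_const, Finset.card_univ]
  push_cast
  ring

/-! ### the hull D-max -/

section

variable {qm qp : Fin 3 → ℝ} {L : ℕ → Ln4} {P : Finset ℕ} {cu cv : ℕ → ℕ} {Uf Vf : ℕ → Plk4}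
    {W M a w1 w2 z0 ρ r : ℝ}

open Classical in
/-- short boxes (half-widths at most `ρ`) -/
theorem short_card (hq : ∀ k, 0 ≤ qm k ∧ qm k ≤ qp k)
    (h : Two1 qm qp L P cu cv Uf Vf W M a w1 w2 z0 ρ r) (hr : r ≤ ρ) {K : ℝ} (hK : 1 ≤ K)
    {f : Fin 3 → V3} {X0 X2 : ℝ} (hf : Ortho f) (h0 : a ≤ X0) (h2 : w2 ≤ X2) (h02 : X0 ≤ X2)
    (h21 : X2 ≤ K * w1) (c : Ln4) (Q : Finset ℕ) (hQ : Q ⊆ P)
    (hin : ∀ t ∈ Q, InB (L t) c f (fun i => min ((![X0, K * w1, X2] : V3) i) ρ) z0 ρ) :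
    (Q.card : ℝ) ≤ W * M * ((W * (X0 / a)) ^ (1 + qp 0) * (W * K) ^ (1 + qp 1) *
      (W * (X2 / w2)) ^ (1 + qp 2)) := by
  have hW := h.W1
  have hM := h.M0
  have ha := h.a0
  have hw1 := h.w10
  have hw2 := h.w20
  have hρ := h.ρ0
  have hX0 : 0 < X0 := ha.trans_le h0
  have hX2 : 0 < X2 := hw2.trans_le h2
  have hW0 : 0 < W := by linarith
  have q0 := hq 0
  have q1 := hq 1
  have q2 := hq 2
  have hR : 0 ≤ W * M * ((W * (X0 / a)) ^ (1 + qp 0) * (W * K) ^ (1 + qp 1) *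
      (W * (X2 / w2)) ^ (1 + qp 2)) := by positivity
  rcases Q.eq_empty_or_nonempty with hQe | ⟨t0, ht0⟩
  · rw [hQe]; simpa using hR
  have hra : r ≤ W * X0 := by
    have h1 := (h.shU t0 (hQ ht0)).r0_le
    have h2 := (h.dimU t0 (hQ ht0)).1.2
    exact h1.trans (h2.trans (mul_le_mul_of_nonneg_left h0 hW0.le))
  set a' := min (W * X0) ρ with ha'
  set w2' := min (W * X2) ρ with hw2'
  set w1' := min (W * (K * w1)) ρ with hw1'
  have pa' : 0 < a' := lt_min (by positivity) hρ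
  have l1 : a' ≤ w2' := min_le_min_right _ (mul_le_mul_of_nonneg_left h02 hW0.le)
  have l2 : w2' ≤ w1' := min_le_min_right _ (mul_le_mul_of_nonneg_left h21 hW0.le)
  have l0 : r ≤ a' := le_min hra hr
  have hsh : Shp (⟨0, f, c, ![w2', w1', w2'], qf f c, a'⟩ : Plk4) z0 ρ r :=
    shN_qf hf c l0 pa' l1 l2
  have h5 := h.dmax ⟨0, f, c, ![w2', w1', w2'], qf f c, a'⟩ hsh
    (show w1' ≤ ρ from min_le_right _ _)
  have h6 : Q ⊆ P.filter fun t => InP (L t) (⟨0, f, c, ![w2', w1', w2'], qf f c, a'⟩ : Plk4) z0 ρ := by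
    intro t ht
    refine Finset.mem_filter.2 ⟨hQ ht, ?_⟩
    refine inSheet_qf l1 ?_
    intro z hz0 hz1 i
    have h7 := hin t ht z hz0 hz1 i
    refine h7.trans ?_
    have hm : ∀ x : ℝ, 0 ≤ x → min x ρ ≤ min (W * x) ρ := fun x hx =>
      min_le_min_right _ (by nlinarith)
    fin_cases i
    · exact hm X0 hX0.le
    · exact hm (K * w1) (by positivity)
    · exact hm X2 hX2.le
  have h8 : (Q.card : ℝ) ≤ W * M * phC qm qp a w1 w2 a' w1' w2' := by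
    refine le_trans ?_ (by simpa using h5)
    exact_mod_cast Finset.card_le_card h6
  refine h8.trans (mul_le_mul_of_nonneg_left ?_ (by positivity))
  unfold phC
  have o0 : 1 ≤ X0 / a := (one_le_div ha).2 h0
  have o2 : 1 ≤ X2 / w2 := (one_le_div hw2).2 h2
  have b0 : ph (qm 0) (qp 0) (a' / a) ≤ (W * (X0 / a)) ^ (1 + qp 0) := by
    refine ph_le_wide q0.1 q0.2 (by positivity) ?_ (by nlinarith)
    rw [← mul_div_assoc]
    exact div_le_div_of_nonneg_right (min_le_left _ _) ha.le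
  have b1 : ph (qm 1) (qp 1) (w1' / w1) ≤ (W * K) ^ (1 + qp 1) := by
    refine ph_le_wide q1.1 q1.2 ?_ ?_ (by nlinarith)
    · exact div_nonneg (pa'.le.trans (l1.trans l2)) hw1.le
    · rw [div_le_iff₀ hw1]
      refine (min_le_left _ _).trans (le_of_eq (by ring))
  have b2 : ph (qm 2) (qp 2) (w2' / w2) ≤ (W * (X2 / w2)) ^ (1 + qp 2) := by
    refine ph_le_wide q2.1 q2.2 ?_ ?_ (by nlinarith)
    · exact div_nonneg (pa'.le.trans l1) hw2.le
    · rw [← mul_div_assoc]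
      exact div_le_div_of_nonneg_right (min_le_left _ _) hw2.le
  have n1 : 0 ≤ ph (qm 1) (qp 1) (w1' / w1) :=
    ph_nonneg (div_nonneg (pa'.le.trans (l1.trans l2)) hw1.le)
  have n2 : 0 ≤ ph (qm 2) (qp 2) (w2' / w2) := ph_nonneg (div_nonneg (pa'.le.trans l1) hw2.le)
  exact mul_le_mul (mul_le_mul b0 b1 n1 (by positivity)) b2 n2 (by positivity)

open Classical in
/-- **hull D-max** (B2): boxes wider and longer than the sheets, any length -/
theorem hull_card (hq : ∀ k, 0 ≤ qm k ∧ qm k ≤ qp k)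
    (h : Two1 qm qp L P cu cv Uf Vf W M a w1 w2 z0 ρ r) (hr : r ≤ ρ) {K : ℝ} (hK : 1 ≤ K)
    (b : Ln4) (f : Fin 3 → V3) (X0 X2 : ℝ) (hf : Ortho f) (h0 : a ≤ X0) (h2 : w2 ≤ X2)
    (h02 : X0 ≤ X2) (h21 : X2 ≤ K * w1) :
    ((P.filter fun t => InB (L t) b f ![X0, K * w1, X2] z0 ρ).card : ℝ) ≤
      (2 * W * K) ^ (22 + qp 0 + qp 1 + qp 2) * M *
        ((X0 / a) ^ (1 + qp 0) * (X2 / w2) ^ (1 + qp 2)) := by
  have hW := h.W1
  have hM := h.M0
  have ha := h.a0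
  have hw1 := h.w10
  have hw2 := h.w20
  have hρ := h.ρ0
  have hX0 : 0 < X0 := ha.trans_le h0
  have hX2 : 0 < X2 := hw2.trans_le h2
  have hW0 : 0 < W := by linarith
  have hK0 : 0 < K := by linarith
  have q0 := hq 0
  have q1 := hq 1
  have q2 := hq 2
  have hKW : 1 ≤ K * W := by nlinarith
  set n := ⌈K * W⌉₊ with hn
  have n1 : K * W ≤ n := Nat.le_ceil _
  have n2 : (n : ℝ) ≤ 2 * (K * W) := by
    have := (Nat.ceil_lt_add_one (by positivity : 0 ≤ K * W)).le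
    linarith
  have hs1 : K * w1 ≤ n * ρ := by
    calc K * w1 ≤ K * (W * ρ) := mul_le_mul_of_nonneg_left h.w1ρ hK0.le
      _ = K * W * ρ := by ring
      _ ≤ n * ρ := mul_le_mul_of_nonneg_right n1 hρ.le
  have hs : ∀ i, (![X0, K * w1, X2] : V3) i ≤ n * ρ := by
    intro i
    fin_cases i
    · exact (h02.trans h21).trans hs1
    · exact hs1
    · exact h21.trans hs1
  have hZ : 0 ≤ W * M * ((W * (X0 / a)) ^ (1 + qp 0) * (W * K) ^ (1 + qp 1) *
      (W * (X2 / w2)) ^ (1 + qp 2)) := by positivity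
  have h3 := cover_card (P := P.filter fun t => InB (L t) b f ![X0, K * w1, X2] z0 ρ) (L := L) hf
    hρ hs (fun t ht => (Finset.mem_filter.1 ht).2) hZ (fun c Q hQ hin =>
      short_card hq h hr hK hf h0 h2 h02 h21 c Q (hQ.trans (Finset.filter_subset _ _)) hin)
  refine h3.trans ?_
  -- exponents
  set Z := 2 * W * K with hZd
  have z1 : 1 ≤ Z := by nlinarith
  have z0' : 0 < Z := by linarith
  have e1 : (2 * (n : ℝ) + 1) ^ 6 ≤ Z ^ (18 : ℝ) := by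
    have e2 : 2 * (n : ℝ) + 1 ≤ Z ^ 3 := by
      have e3 : 2 * (n : ℝ) + 1 ≤ 5 * (K * W) := by linarith
      have e4 : Z ^ 3 = 8 * (K * W) ^ 3 := by rw [hZd]; ring
      have e5 : K * W ≤ (K * W) ^ 3 := le_self_pow₀ hKW (by norm_num)
      rw [e4]; nlinarith
    calc (2 * (n : ℝ) + 1) ^ 6 ≤ (Z ^ 3) ^ 6 := pow_le_pow_left₀ (by positivity) e2 6
      _ = Z ^ (18 : ℕ) := by rw [← pow_mul]
      _ = Z ^ (18 : ℝ) := by rw [← Real.rpow_natCast]; norm_num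
  have hWZ : W ≤ Z := by rw [hZd]; nlinarith
  have hWKZ : W * K ≤ Z := by rw [hZd]; nlinarith
  have p0 : (W * (X0 / a)) ^ (1 + qp 0) ≤ Z ^ (1 + qp 0) * (X0 / a) ^ (1 + qp 0) := by
    rw [Real.mul_rpow hW0.le (by positivity)]
    exact mul_le_mul_of_nonneg_right (Real.rpow_le_rpow hW0.le hWZ (by linarith)) (by positivity)
  have p1 : (W * K) ^ (1 + qp 1) ≤ Z ^ (1 + qp 1) :=
    Real.rpow_le_rpow (by positivity) hWKZ (by linarith)
  have p2 : (W * (X2 / w2)) ^ (1 + qp 2) ≤ Z ^ (1 + qp 2) * (X2 / w2) ^ (1 + qp 2) := by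
    rw [Real.mul_rpow hW0.le (by positivity)]
    exact mul_le_mul_of_nonneg_right (Real.rpow_le_rpow hW0.le hWZ (by linarith)) (by positivity)
  have e6 : Z ^ (22 + qp 0 + qp 1 + qp 2) =
      Z ^ (18 : ℝ) * (Z * (Z ^ (1 + qp 0) * Z ^ (1 + qp 1) * Z ^ (1 + qp 2))) := by
    have : (22 : ℝ) + qp 0 + qp 1 + qp 2 = 18 + (1 + ((1 + qp 0) + (1 + qp 1) + (1 + qp 2))) := by
      ring
    rw [this, Real.rpow_add z0', Real.rpow_add z0', Real.rpow_add z0', Real.rpow_add z0',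
      Real.rpow_one]
  calc (2 * (n : ℝ) + 1) ^ 6 * (W * M * ((W * (X0 / a)) ^ (1 + qp 0) * (W * K) ^ (1 + qp 1) *
        (W * (X2 / w2)) ^ (1 + qp 2)))
      ≤ Z ^ (18 : ℝ) * (Z * M * ((Z ^ (1 + qp 0) * (X0 / a) ^ (1 + qp 0)) * Z ^ (1 + qp 1) *
        (Z ^ (1 + qp 2) * (X2 / w2) ^ (1 + qp 2)))) := by
        refine mul_le_mul e1 ?_ hZ (by positivity)
        refine mul_le_mul (mul_le_mul_of_nonneg_right hWZ hM.le) ?_ (by positivity) (by positivity)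
        exact mul_le_mul (mul_le_mul p0 p1 (by positivity) (by positivity)) p2 (by positivity)
          (by positivity)
    _ = Z ^ (22 + qp 0 + qp 1 + qp 2) * M *
        ((X0 / a) ^ (1 + qp 0) * (X2 / w2) ^ (1 + qp 2)) := by
        rw [e6]; ring

open Classical in
/-- the form of `TCore.hull` -/
theorem hull_card6 (hq : ∀ k, 0 ≤ qm k ∧ qm k ≤ qp k)
    (h : Two1 qm qp L P cu cv Uf Vf W M a w1 w2 z0 ρ r) (hr : r ≤ ρ)
    (b : Ln4) (f : Fin 3 → V3) (X0 X2 : ℝ) (hf : Ortho f) (h0 : a ≤ X0) (h2 : w2 ≤ X2)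
    (h02 : X0 ≤ X2) (h21 : X2 ≤ 10 ^ 6 * w1) :
    ((P.filter fun t => InB (L t) b f ![X0, 10 ^ 6 * w1, X2] z0 ρ).card : ℝ) ≤
      (2 * W) ^ (21 * (22 + qp 0 + qp 1 + qp 2)) * M *
        ((X0 / a) ^ (1 + qp 0) * (X2 / w2) ^ (1 + qp 2)) := by
  have hW := h.W1
  have hM := h.M0
  have ha := h.a0
  have hw2 := h.w20
  have hX0 : 0 < X0 := ha.trans_le h0
  have hX2 : 0 < X2 := hw2.trans_le h2
  have q0 := hq 0
  have q1 := hq 1
  have q2 := hq 2
  have h3 := hull_card hq h hr (K := 10 ^ 6) (by norm_num) b f X0 X2 hf h0 h2 h02 h21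
  refine h3.trans ?_
  refine mul_le_mul_of_nonneg_right (mul_le_mul_of_nonneg_right ?_ hM.le) (by positivity)
  have e1 : 2 * W * 10 ^ 6 ≤ (2 * W) ^ (21 : ℝ) := by
    have e2 : (2 * W) ^ (21 : ℝ) = (2 * W) * (2 * W) ^ 20 := by
      rw [show (21 : ℝ) = ((21 : ℕ) : ℝ) by norm_num, Real.rpow_natCast]; ring
    have e3 : (10 : ℝ) ^ 6 ≤ (2 * W) ^ 20 := by
      calc (10 : ℝ) ^ 6 ≤ 2 ^ 20 := by norm_num
        _ ≤ (2 * W) ^ 20 := pow_le_pow_left₀ (by norm_num) (by linarith) 20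
    rw [e2]
    exact mul_le_mul_of_nonneg_left e3 (by positivity)
  rw [Real.rpow_mul (by positivity)]
  have e4 : 0 ≤ 22 + qp 0 + qp 1 + qp 2 := by linarith
  exact Real.rpow_le_rpow (by positivity) e1 e4

open Classical in
/-- **`TCore.hull` for comparable dimensions `a', w1', w2'`** -/
theorem hull_two (hq : ∀ k, 0 ≤ qm k ∧ qm k ≤ qp k)
    (h : Two1 qm qp L P cu cv Uf Vf W M a w1 w2 z0 ρ r) (hr : r ≤ ρ) {K a' w1' w2' : ℝ}
    (hK : 1 ≤ K) (ha' : 0 < a') (hw1' : 0 < w1') (hw2' : 0 < w2') (na : Near K a a')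
    (n1 : Near K w1 w1') (n2 : Near K w2 w2') :
    ∀ (b : Ln4) (f : Fin 3 → V3) (X0 X2 : ℝ), Ortho f → a' ≤ X0 → w2' ≤ X2 → X0 ≤ X2 →
      X2 ≤ 10 ^ 6 * w1' →
      ((P.filter fun t => InB (L t) b f ![X0, 10 ^ 6 * w1', X2] z0 ρ).card : ℝ) ≤
        (2 * W * K) ^ (21 * (22 + qp 0 + qp 1 + qp 2) + 2 * (1 + qp 0) + 2 * (1 + qp 2)) * M *
          ((X0 / a') ^ (1 + qp 0) * (X2 / w2') ^ (1 + qp 2)) := by
  intro b f X0 X2 hf h0 h2 h02 h21
  have hW := h.W1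
  have hM := h.M0
  have ha := h.a0
  have hw1 := h.w10
  have hw2 := h.w20
  have hX0 : 0 < X0 := ha'.trans_le h0
  have hX2 : 0 < X2 := hw2'.trans_le h2
  have hK0 : 0 < K := by linarith
  have q0 := hq 0
  have q1 := hq 1
  have q2 := hq 2
  have hKK : K ≤ K * K := by nlinarith
  have k1 : (1 : ℝ) ≤ 10 ^ 6 * (K * K) := by nlinarith
  have g0 : a ≤ K * X0 := na.1.trans (mul_le_mul_of_nonneg_left h0 hK0.le)
  have g2 : w2 ≤ K * X2 := n2.1.trans (mul_le_mul_of_nonneg_left h2 hK0.le)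
  have g02 : K * X0 ≤ K * X2 := mul_le_mul_of_nonneg_left h02 hK0.le
  have g21 : K * X2 ≤ 10 ^ 6 * (K * K) * w1 := by
    calc K * X2 ≤ K * (10 ^ 6 * w1') := mul_le_mul_of_nonneg_left h21 hK0.le
      _ ≤ K * (10 ^ 6 * (K * w1)) :=
        mul_le_mul_of_nonneg_left (mul_le_mul_of_nonneg_left n1.2 (by norm_num)) hK0.le
      _ = 10 ^ 6 * (K * K) * w1 := by ring
  have h3 := hull_card hq h hr k1 b f (K * X0) (K * X2) hf g0 g2 g02 g21
  have h4 : (P.filter fun t => InB (L t) b f ![X0, 10 ^ 6 * w1', X2] z0 ρ) ⊆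
      P.filter fun t => InB (L t) b f ![K * X0, 10 ^ 6 * (K * K) * w1, K * X2] z0 ρ := by
    intro t ht
    obtain ⟨ht1, ht2⟩ := Finset.mem_filter.1 ht
    refine Finset.mem_filter.2 ⟨ht1, fun z hz0 hz1 i => (ht2 z hz0 hz1 i).trans ?_⟩
    fin_cases i
    · show X0 ≤ K * X0
      nlinarith
    · show 10 ^ 6 * w1' ≤ 10 ^ 6 * (K * K) * w1
      calc 10 ^ 6 * w1' ≤ 10 ^ 6 * (K * w1) := mul_le_mul_of_nonneg_left n1.2 (by norm_num)
        _ ≤ 10 ^ 6 * ((K * K) * w1) :=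
          mul_le_mul_of_nonneg_left (mul_le_mul_of_nonneg_right hKK hw1.le) (by norm_num)
        _ = 10 ^ 6 * (K * K) * w1 := by ring
    · show X2 ≤ K * X2
      nlinarith
  have h5 : ((P.filter fun t => InB (L t) b f ![X0, 10 ^ 6 * w1', X2] z0 ρ).card : ℝ) ≤
      ((P.filter fun t => InB (L t) b f ![K * X0, 10 ^ 6 * (K * K) * w1, K * X2] z0 ρ).card : ℝ) := by
    exact_mod_cast Finset.card_le_card h4
  refine (h5.trans h3).trans ?_
  set Z := 2 * W * K with hZd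
  have z2 : 2 ≤ Z := by nlinarith
  have z0' : 0 < Z := by linarith
  have e1 : 2 * W * (10 ^ 6 * (K * K)) ≤ Z ^ (21 : ℝ) := by
    have e2 : Z ^ (21 : ℝ) = Z * Z ^ 20 := by
      rw [show (21 : ℝ) = ((21 : ℕ) : ℝ) by norm_num, Real.rpow_natCast]; ring
    have e3 : (10 : ℝ) ^ 6 * K ≤ Z ^ 20 := by
      calc (10 : ℝ) ^ 6 * K ≤ 2 ^ 20 * K ^ 20 :=
            mul_le_mul (by norm_num) (le_self_pow₀ hK (by norm_num)) hK0.le (by positivity)
        _ = (2 * K) ^ 20 := by rw [mul_pow]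
        _ ≤ Z ^ 20 := pow_le_pow_left₀ (by positivity) (by rw [hZd]; nlinarith) 20
    rw [e2]
    calc 2 * W * (10 ^ 6 * (K * K)) = Z * (10 ^ 6 * K) := by rw [hZd]; ring
      _ ≤ Z * Z ^ 20 := mul_le_mul_of_nonneg_left e3 z0'.le
  have eK : K * K ≤ Z ^ (2 : ℝ) := by
    have e2 : Z ^ (2 : ℝ) = Z * Z := by
      rw [show (2 : ℝ) = ((2 : ℕ) : ℝ) by norm_num, Real.rpow_natCast]; ring
    have e3 : K ≤ Z := by rw [hZd]; nlinarith
    rw [e2]
    exact mul_le_mul e3 e3 hK0.le z0'.le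
  have c0 : (2 * W * (10 ^ 6 * (K * K))) ^ (22 + qp 0 + qp 1 + qp 2) ≤
      Z ^ (21 * (22 + qp 0 + qp 1 + qp 2)) := by
    rw [Real.rpow_mul z0'.le]
    have e4 : 0 ≤ 22 + qp 0 + qp 1 + qp 2 := by linarith
    exact Real.rpow_le_rpow (by positivity) e1 e4
  have aux : ∀ {x y A B q : ℝ}, 0 < x → 0 < y → 0 < A → 0 < B → 0 ≤ q → A ≤ K * B →
      (K * x / B) ^ (1 + q) ≤ Z ^ (2 * (1 + q)) * (x / A) ^ (1 + q) := by
    intro x y A B q hx hy hA hB hq0 hAB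
    rw [Real.rpow_mul z0'.le, ← Real.mul_rpow (by positivity) (by positivity)]
    refine Real.rpow_le_rpow (by positivity) ?_ (by linarith)
    rw [div_le_iff₀ hB]
    have : Z ^ (2 : ℝ) * (x / A) * B = (Z ^ (2 : ℝ) * B) * x / A := by ring
    rw [this, le_div_iff₀ hA]
    calc K * x * A ≤ K * x * (K * B) := mul_le_mul_of_nonneg_left hAB (by positivity)
      _ = (K * K * B) * x := by ring
      _ ≤ (Z ^ (2 : ℝ) * B) * x :=
        mul_le_mul_of_nonneg_right (mul_le_mul_of_nonneg_right eK hB.le) hx.le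
  have c1 := aux (x := X0) (y := 1) (A := a') (B := a) (q := qp 0) hX0 one_pos ha' ha
    (q0.1.trans q0.2) na.2
  have c2 := aux (x := X2) (y := 1) (A := w2') (B := w2) (q := qp 2) hX2 one_pos hw2' hw2
    (q2.1.trans q2.2) n2.2
  calc (2 * W * (10 ^ 6 * (K * K))) ^ (22 + qp 0 + qp 1 + qp 2) * M *
        ((K * X0 / a) ^ (1 + qp 0) * (K * X2 / w2) ^ (1 + qp 2))
      ≤ Z ^ (21 * (22 + qp 0 + qp 1 + qp 2)) * M *
        ((Z ^ (2 * (1 + qp 0)) * (X0 / a') ^ (1 + qp 0)) *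
          (Z ^ (2 * (1 + qp 2)) * (X2 / w2') ^ (1 + qp 2))) := by
        refine mul_le_mul (mul_le_mul_of_nonneg_right c0 hM.le) ?_ (by positivity) (by positivity)
        exact mul_le_mul c1 c2 (by positivity) (by positivity)
    _ = Z ^ (21 * (22 + qp 0 + qp 1 + qp 2) + 2 * (1 + qp 0) + 2 * (1 + qp 2)) * M *
          ((X0 / a') ^ (1 + qp 0) * (X2 / w2') ^ (1 + qp 2)) := by
        rw [Real.rpow_add z0', Real.rpow_add z0']
        ring

end

end Crest.Agent.R136.Pl2H417
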