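import Crest.Agent.R136.Pl2B_860
import Crest.Agent.R136.Pl2H_417
import Crest.Agent.R136.HulD_412
import Crest.Agent.R136.Hc2_792

/-!
# R136 (S0187), PLAN 2, (AL) (C): hull counts, flat half (helper792)

`flat_hull` : classes of two systems in flat boxes of thickness `Y` with aligned frames: the number of
classes met by one class, in one and in two steps, is at most `(2 W)^C (Y / a)^(1 + qp 0)`.
-/

set_option autoImplicit false
set_option linter.unusedVariables false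

open Finset

namespace Crest.Agent.R136.Fh792

open Crest.Agent.R136.Sh605 Crest.Agent.R136.Fl808
open Crest.Agent.R136.K4 (Plk4)
open Crest.Agent.R136.Tlt51 (Shp InP)
open Crest.Agent.R136.Pl2W102 (Near Ex2 Two1)
open Crest.Agent.R136.Pl2 (FH)
open Crest.Agent.R136.Hul412 (Aln dt_exp3)
open Crest.Agent.R136.Hc792 (card_met card_met2)

/-- the difference of two lines is in the box `m ![Y, w1, w2]` of the frame `f` over the cell -/
def DB (f : Fin 3 → V3) (m Y w1 w2 : ℝ) (s t : Ln4) (z0 ρ : ℝ) : Prop :=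
  ∀ z, z0 ≤ z → z ≤ z0 + ρ → |dt (f 0) (s.pos z - t.pos z)| ≤ m * Y ∧
    |dt (f 1) (s.pos z - t.pos z)| ≤ m * w1 ∧ |dt (f 2) (s.pos z - t.pos z)| ≤ m * w2

variable {f g : Fin 3 → V3} {m m' K V Y w1 w2 z0 ρ : ℝ} {s t u : Ln4}

theorem DB.trans (h : DB f m Y w1 w2 s t z0 ρ) (h' : DB f m' Y w1 w2 t u z0 ρ) :
    DB f (m + m') Y w1 w2 s u z0 ρ := by
  intro z hz hz'
  obtain ⟨a0, a1, a2⟩ := h z hz hz'
  obtain ⟨b0, b1, b2⟩ := h' z hz hz'
  have e : ∀ x : V3, dt x (s.pos z - u.pos z) =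
      dt x (s.pos z - t.pos z) + dt x (t.pos z - u.pos z) := by
    intro x; simp only [dt, Pi.sub_apply]; ring
  refine ⟨?_, ?_, ?_⟩
  · rw [e]; exact (abs_add_le _ _).trans (by linarith)
  · rw [e]; exact (abs_add_le _ _).trans (by linarith)
  · rw [e]; exact (abs_add_le _ _).trans (by linarith)

theorem DB.mono (h : DB f m Y w1 w2 s t z0 ρ) (hm : m ≤ m') (hY : 0 ≤ Y) (h1 : 0 ≤ w1)
    (h2 : 0 ≤ w2) : DB f m' Y w1 w2 s t z0 ρ := by
  intro z hz hz'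
  obtain ⟨a0, a1, a2⟩ := h z hz hz'
  exact ⟨a0.trans (mul_le_mul_of_nonneg_right hm hY), a1.trans (mul_le_mul_of_nonneg_right hm h1),
    a2.trans (mul_le_mul_of_nonneg_right hm h2)⟩

theorem unit_dt' {f g : V3} (hf : dt f f = 1) (hg : dt g g = 1) : |dt f g| ≤ 1 := by
  rw [abs_le_one_iff_mul_self_le_one]
  have h : dt f g * dt f g + ((f 0 * g 1 - f 1 * g 0) ^ 2 + (f 0 * g 2 - f 2 * g 0) ^ 2 +
      (f 1 * g 2 - f 2 * g 1) ^ 2) = dt f f * dt g g := by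
    simp only [dt]; ring
  rw [hf, hg] at h
  nlinarith [sq_nonneg (f 0 * g 1 - f 1 * g 0), sq_nonneg (f 0 * g 2 - f 2 * g 0),
    sq_nonneg (f 1 * g 2 - f 2 * g 1)]

/-- **transport of a flat box to the other frame** -/
theorem DB.move (hA : Aln K Y w1 w2 f g) (hf : Ortho f) (hg : Ortho g) (hK : 1 ≤ K) (hV : 1 ≤ V)
    (hY : 0 < Y) (hw1 : 0 < w1) (hw2 : 0 < w2) (hY2 : Y ≤ K * w2) (h21 : w2 ≤ V * w1)
    (hm : 0 ≤ m) (h : DB g m Y w1 w2 s t z0 ρ) : DB f ((1 + 2 * K * V) * m) Y w1 w2 s t z0 ρ := by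
  intro z hz hz'
  obtain ⟨d0, d1, d2⟩ := h z hz hz'
  set D : V3 := s.pos z - t.pos z with hD
  have of : ∀ i, dt (f i) (f i) = 1 := fun i => by simpa using hf i i
  have og : ∀ i, dt (g i) (g i) = 1 := fun i => by simpa using hg i i
  have un : ∀ i j, |dt (f i) (g j)| ≤ 1 := fun i j => unit_dt' (of i) (og j)
  have tri : ∀ i, |dt (f i) D| ≤ |dt (f i) (g 0)| * |dt (g 0) D| + |dt (f i) (g 1)| * |dt (g 1) D| +
      |dt (f i) (g 2)| * |dt (g 2) D| := by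
    intro i
    rw [dt_exp3 hg (f i) D, ← abs_mul, ← abs_mul, ← abs_mul]
    exact (abs_add_le _ _).trans (add_le_add (abs_add_le _ _) le_rfl)
  have kk : ∀ {x y B C : ℝ}, 0 ≤ x → |y| ≤ m * B → x * B ≤ C → x * |y| ≤ m * C := by
    intro x y B C hx hy hC
    calc x * |y| ≤ x * (m * B) := mul_le_mul_of_nonneg_left hy hx
      _ = m * (x * B) := by ring
      _ ≤ _ := mul_le_mul_of_nonneg_left hC hm
  have uu : ∀ {x y B : ℝ}, |x| ≤ 1 → |y| ≤ m * B → |x| * |y| ≤ m * B := by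
    intro x y B hx hy
    calc |x| * |y| ≤ 1 * |y| := mul_le_mul_of_nonneg_right hx (abs_nonneg _)
      _ = |y| := one_mul _
      _ ≤ _ := hy
  have hK0 : 0 ≤ K := by linarith
  have hKV : K ≤ K * V := by nlinarith
  have hVK : V ≤ K * V := by nlinarith
  refine ⟨?_, ?_, ?_⟩
  · have e0 := uu (un 0 0) d0
    have e1 := kk (abs_nonneg (dt (f 0) (g 1))) d1 hA.a01
    have e2 := kk (abs_nonneg (dt (f 0) (g 2))) d2 hA.a02
    have e3 := tri 0
    have e4 : K * (m * Y) ≤ K * V * (m * Y) :=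
      mul_le_mul_of_nonneg_right hKV (mul_nonneg hm hY.le)
    calc |dt (f 0) D| ≤ m * Y + m * (K * Y) + m * (K * Y) := by linarith
      _ = m * Y + 2 * (K * (m * Y)) := by ring
      _ ≤ m * Y + 2 * (K * V * (m * Y)) := by linarith
      _ = _ := by ring
  · have e0 := uu (un 1 0) d0
    have e1 := uu (un 1 1) d1
    have e2 := uu (un 1 2) d2
    have e3 := tri 1
    have e4 : m * Y ≤ K * V * (m * w1) := by
      calc m * Y ≤ m * (K * (V * w1)) := mul_le_mul_of_nonneg_left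
            (hY2.trans (mul_le_mul_of_nonneg_left h21 hK0)) hm
        _ = _ := by ring
    have e5 : m * w2 ≤ K * V * (m * w1) := by
      calc m * w2 ≤ m * (V * w1) := mul_le_mul_of_nonneg_left h21 hm
        _ = V * (m * w1) := by ring
        _ ≤ _ := mul_le_mul_of_nonneg_right hVK (mul_nonneg hm hw1.le)
    calc |dt (f 1) D| ≤ m * Y + m * w1 + m * w2 := by linarith
      _ ≤ m * w1 + 2 * (K * V * (m * w1)) := by linarith
      _ = _ := by ring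
  · have e0 := uu (un 2 0) d0
    have e1 := kk (abs_nonneg (dt (f 2) (g 1))) d1 hA.b21
    have e2 := uu (un 2 2) d2
    have e3 := tri 2
    have e4 : m * Y ≤ K * V * (m * w2) := by
      calc m * Y ≤ m * (K * w2) := mul_le_mul_of_nonneg_left hY2 hm
        _ = K * (m * w2) := by ring
        _ ≤ _ := mul_le_mul_of_nonneg_right hKV (mul_nonneg hm hw2.le)
    have e5 : m * (K * w2) ≤ K * V * (m * w2) := by
      calc m * (K * w2) = K * (m * w2) := by ring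
        _ ≤ _ := mul_le_mul_of_nonneg_right hKV (mul_nonneg hm hw2.le)
    calc |dt (f 2) D| ≤ m * Y + m * (K * w2) + m * w2 := by linarith
      _ ≤ m * w2 + 2 * (K * V * (m * w2)) := by linarith
      _ = _ := by ring

/-- two lines of a sheet in a flat hull frame -/
theorem DB.of_fh {S : Plk4} {W : ℝ} (hF : FH K Y S f z0 ρ) (hK : 1 ≤ K) (hW : 1 ≤ W) (hY : 0 < Y)
    (h1 : S.w 1 ≤ W * w1) (h2 : S.w 2 ≤ W * w2) (hs : InP s S z0 ρ) (ht : InP t S z0 ρ) :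
    DB f (K * W) Y w1 w2 s t z0 ρ := by
  intro z hz hz'
  have hb := hF.box s t hs ht z hz hz'
  have b0 : |dt (f 0) (s.pos z - t.pos z)| ≤ K * Y := hb 0
  have b1 : |dt (f 1) (s.pos z - t.pos z)| ≤ K * S.w 1 := hb 1
  have b2 : |dt (f 2) (s.pos z - t.pos z)| ≤ K * S.w 2 := hb 2
  have hK0 : 0 ≤ K := by linarith
  refine ⟨b0.trans ?_, b1.trans ?_, b2.trans ?_⟩
  · have : K * Y ≤ K * (W * Y) := mul_le_mul_of_nonneg_left (by nlinarith) hK0
    linarith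
  · have := mul_le_mul_of_nonneg_left h1 hK0
    linarith
  · have := mul_le_mul_of_nonneg_left h2 hK0
    linarith

section
variable {qm qp : Fin 3 → ℝ} {L : ℕ → Ln4} {P : Finset ℕ} {cu cv : ℕ → ℕ} {Uf Vf : ℕ → Plk4}
  {W M a r : ℝ}

open Classical in
/-- count of a flat box in multiples of `![Y, w1, w2]` -/
theorem cnt_db (hq : ∀ k, 0 ≤ qm k ∧ qm k ≤ qp k)
    (h : Two1 qm qp L P cu cv Uf Vf W M a w1 w2 z0 ρ r) (hr : r ≤ ρ) (hf : Ortho f) {R : ℝ}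
    (hR : 1 ≤ R) (hK : 1 ≤ K) (haY : a ≤ Y) (hY2 : Y ≤ K * w2) (h21 : w2 ≤ W ^ 2 * w1) (T : Ln4) :
    ((P.filter fun s => DB f R Y w1 w2 (L s) T z0 ρ).card : ℝ) ≤
      (2 * W * (R * K * W ^ 2)) ^ (22 + qp 0 + qp 1 + qp 2) *
        ((R * Y / a) ^ (1 + qp 0) * (R * K) ^ (1 + qp 2)) * M := by
  have hW := h.W1
  have hw1 := h.w10
  have hw2 := h.w20
  have hY : 0 < Y := h.a0.trans_le haY
  have hW2 : 1 ≤ W ^ 2 := by nlinarith
  have hRK : 1 ≤ R * K := by nlinarith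
  have hRK0 : 0 < R * K := by linarith
  have hRKW : 1 ≤ R * K * W ^ 2 := by nlinarith
  have hc := Pl2H417.hull_card hq h hr hRKW T f (R * Y) (R * K * w2) hf
    (by nlinarith) (by nlinarith) (by
      calc R * Y ≤ R * (K * w2) := mul_le_mul_of_nonneg_left hY2 (by linarith)
        _ = _ := by ring) (by
      calc R * K * w2 ≤ R * K * (W ^ 2 * w1) := mul_le_mul_of_nonneg_left h21 hRK0.le
        _ = _ := by ring)
  have hsub : (P.filter fun s => DB f R Y w1 w2 (L s) T z0 ρ) ⊆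
      P.filter fun t => InB (L t) T f ![R * Y, R * K * W ^ 2 * w1, R * K * w2] z0 ρ := by
    intro s hs
    obtain ⟨hs1, hs2⟩ := Finset.mem_filter.1 hs
    refine Finset.mem_filter.2 ⟨hs1, fun z hz hz' i => ?_⟩
    obtain ⟨b0, b1, b2⟩ := hs2 z hz hz'
    fin_cases i
    · exact b0
    · refine b1.trans ?_
      show R * w1 ≤ R * K * W ^ 2 * w1
      apply mul_le_mul_of_nonneg_right _ hw1.le
      nlinarith [mul_le_mul_of_nonneg_left hK (by linarith : (0:ℝ) ≤ R)]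
    · refine b2.trans ?_
      show R * w2 ≤ R * K * w2
      apply mul_le_mul_of_nonneg_right _ hw2.le
      nlinarith
  refine (Nat.cast_le.2 (Finset.card_le_card hsub)).trans (hc.trans (le_of_eq ?_))
  rw [mul_div_assoc (R * K) w2 w2, div_self hw2.ne', mul_one]
  ring

/-- **data of the flat hull count** : frames per line, aligned at the level `Y` -/
structure FD (qm qp : Fin 3 → ℝ) (L : ℕ → Ln4) (P : Finset ℕ) (cu cv : ℕ → ℕ) (Uf Vf : ℕ → Plk4)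
    (f g : ℕ → Fin 3 → V3) (W M a w1 w2 z0 ρ r K Y : ℝ) : Prop where
  two : Two1 qm qp L P cu cv Uf Vf W M a w1 w2 z0 ρ r
  rρ : r ≤ ρ
  K1 : 1 ≤ K
  aY : a ≤ Y
  Y2 : Y ≤ K * w2
  fu : ∀ t ∈ P, FH K Y (Uf (cu t)) (f t) z0 ρ
  fv : ∀ t ∈ P, FH K Y (Vf (cv t)) (g t) z0 ρ
  uv : ∀ t ∈ P, Aln K Y w1 w2 (f t) (g t)
  uu : ∀ t ∈ P, ∀ t' ∈ P, cu t = cu t' → Aln K Y w1 w2 (f t) (f t')
  vv : ∀ t ∈ P, ∀ t' ∈ P, cv t = cv t' → Aln K Y w1 w2 (g t) (g t')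

section fd
variable {cu cv : ℕ → ℕ} {fr gr : ℕ → Fin 3 → V3} {Y K : ℝ}

theorem FD.pos (h : FD qm qp L P cu cv Uf Vf fr gr W M a w1 w2 z0 ρ r K Y) :
    0 < Y ∧ 1 ≤ W ^ 2 := by
  have := h.two.W1
  exact ⟨h.two.a0.trans_le h.aY, by nlinarith⟩

theorem FD.w21 (h : FD qm qp L P cu cv Uf Vf fr gr W M a w1 w2 z0 ρ r K Y) {t : ℕ} (ht : t ∈ P) :
    w2 ≤ W ^ 2 * w1 := by
  have hd := h.two.dimU t ht
  have h1 := hd.2.2.1
  have h2 := hd.2.1.2
  have h3 := (h.two.shU t ht).w_le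
  have hW : 0 ≤ W := by linarith [h.two.W1]
  calc w2 ≤ W * (Uf (cu t)).w 2 := h1
    _ ≤ W * (Uf (cu t)).w 1 := mul_le_mul_of_nonneg_left h3 hW
    _ ≤ W * (W * w1) := mul_le_mul_of_nonneg_left h2 hW
    _ = _ := by ring

theorem FD.dbU (h : FD qm qp L P cu cv Uf Vf fr gr W M a w1 w2 z0 ρ r K Y) {t s s' : ℕ}
    (ht : t ∈ P) (hs : s ∈ P) (hs' : s' ∈ P) (e : cu s = cu t) (e' : cu s' = cu t) :
    DB (fr t) (K * W) Y w1 w2 (L s) (L s') z0 ρ := by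
  have hd := h.two.dimU t ht
  have i1 := h.two.inU s hs
  have i2 := h.two.inU s' hs'
  rw [e] at i1
  rw [e'] at i2
  exact DB.of_fh (h.fu t ht) h.K1 h.two.W1 h.pos.1 hd.2.1.2 hd.2.2.2 i1 i2

theorem FD.dbV (h : FD qm qp L P cu cv Uf Vf fr gr W M a w1 w2 z0 ρ r K Y) {t s s' : ℕ}
    (ht : t ∈ P) (hs : s ∈ P) (hs' : s' ∈ P) (e : cv s = cv t) (e' : cv s' = cv t) :
    DB (gr t) (K * W) Y w1 w2 (L s) (L s') z0 ρ := by
  have hd := h.two.dimV t ht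
  have i1 := h.two.inV s hs
  have i2 := h.two.inV s' hs'
  rw [e] at i1
  rw [e'] at i2
  exact DB.of_fh (h.fv t ht) h.K1 h.two.W1 h.pos.1 hd.2.1.2 hd.2.2.2 i1 i2

/-- factor of one transport -/
noncomputable def ka (K W : ℝ) : ℝ := 1 + 2 * K * W ^ 2

theorem FD.mv (h : FD qm qp L P cu cv Uf Vf fr gr W M a w1 w2 z0 ρ r K Y) {t : ℕ} (ht : t ∈ P)
    {f g : Fin 3 → V3} (hA : Aln K Y w1 w2 f g) (hf : Ortho f) (hg : Ortho g) {m : ℝ} (hm : 0 ≤ m)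
    {s s' : Ln4} (hD : DB g m Y w1 w2 s s' z0 ρ) : DB f (ka K W * m) Y w1 w2 s s' z0 ρ :=
  DB.move hA hf hg h.K1 h.pos.2 h.pos.1 h.two.w10 h.two.w20 h.Y2 (h.w21 ht) hm hD

/-- the radius of the hulls -/
noncomputable def Rh (K W : ℝ) : ℝ := 3 * ka K W ^ 4 * (K * W)

theorem Rh_ge {K W : ℝ} (hK : 1 ≤ K) (hW : 1 ≤ W) : 1 ≤ K * W ∧ 1 ≤ ka K W ∧ 1 ≤ Rh K W ∧
    ka K W * (ka K W * (ka K W * (ka K W * (K * W)) + K * W) + K * W) ≤ Rh K W ∧
    ka K W * (ka K W * (K * W) + K * W) ≤ Rh K W := by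
  have h1 : 1 ≤ K * W := by nlinarith
  have h2 : 1 ≤ ka K W := by unfold ka; nlinarith [mul_nonneg (by linarith : (0:ℝ) ≤ K) (sq_nonneg W)]
  set κ := ka K W
  have h0 : 0 ≤ κ := by linarith
  have p2 : 1 ≤ κ ^ 2 := one_le_pow₀ h2
  have p4 : 1 ≤ κ ^ 4 := one_le_pow₀ h2
  have q1 : κ ≤ κ ^ 4 := by
    calc κ = κ ^ 1 := (pow_one κ).symm
      _ ≤ κ ^ 4 := pow_le_pow_right₀ h2 (by norm_num)
  have q2 : κ ^ 2 ≤ κ ^ 4 := pow_le_pow_right₀ h2 (by norm_num)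
  have kw : 0 ≤ K * W := by linarith
  refine ⟨h1, h2, ?_, ?_, ?_⟩
  · unfold Rh
    calc (1:ℝ) ≤ 3 * 1 * 1 := by norm_num
      _ ≤ 3 * κ ^ 4 * (K * W) := by gcongr
  · have e : κ * (κ * (κ * (κ * (K * W)) + K * W) + K * W) =
        κ ^ 4 * (K * W) + κ ^ 2 * (K * W) + κ * (K * W) := by ring
    rw [e]
    unfold Rh
    have := mul_le_mul_of_nonneg_right q1 kw
    have := mul_le_mul_of_nonneg_right q2 kw
    nlinarith
  · have e : κ * (κ * (K * W) + K * W) = κ ^ 2 * (K * W) + κ * (K * W) := by ring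
    rw [e]
    unfold Rh
    have := mul_le_mul_of_nonneg_right q1 kw
    have := mul_le_mul_of_nonneg_right q2 kw
    have : 0 ≤ κ ^ 4 * (K * W) := by positivity
    nlinarith

/-- two steps -/
theorem FD.two_step (h : FD qm qp L P cu cv Uf Vf fr gr W M a w1 w2 z0 ρ r K Y) {t0 t t' s : ℕ}
    (h0 : t0 ∈ P) (ht : t ∈ P) (ht' : t' ∈ P) (hs : s ∈ P) (e0 : cu t = cu t0)
    (e1 : cv t' = cv t) (e2 : cu s = cu t') :
    DB (fr t0) (Rh K W) Y w1 w2 (L s) (L t0) z0 ρ := by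
  obtain ⟨kw, k1, kR, g1, g2⟩ := Rh_ge h.K1 h.two.W1
  have hY := h.pos.1
  have a1 : DB (fr t') (K * W) Y w1 w2 (L s) (L t') z0 ρ := h.dbU ht' hs ht' e2 rfl
  have a2 := h.mv ht' (h.uv t' ht').symm (h.fv t' ht').ortho (h.fu t' ht').ortho (by linarith) a1
  have a3 := h.mv ht' (h.vv t ht t' ht' e1.symm) (h.fv t ht).ortho (h.fv t' ht').ortho
    (by positivity) a2
  have b1 : DB (gr t) (K * W) Y w1 w2 (L t') (L t) z0 ρ := h.dbV ht ht' ht e1 rfl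
  have b2 := h.mv ht (h.uv t ht) (h.fu t ht).ortho (h.fv t ht).ortho (by positivity) (a3.trans b1)
  have c1 : DB (fr t) (K * W) Y w1 w2 (L t) (L t0) z0 ρ := h.dbU ht ht h0 rfl e0.symm
  have c2 := h.mv ht (h.uu t0 h0 t ht e0.symm) (h.fu t0 h0).ortho (h.fu t ht).ortho
    (by positivity) (b2.trans c1)
  exact c2.mono g1 hY.le h.two.w10.le h.two.w20.le

/-- one step, from a class of the first system -/
theorem FD.one_u (h : FD qm qp L P cu cv Uf Vf fr gr W M a w1 w2 z0 ρ r K Y) {t0 t s : ℕ}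
    (h0 : t0 ∈ P) (ht : t ∈ P) (hs : s ∈ P) (e0 : cu t = cu t0) (e1 : cv s = cv t) :
    DB (fr t0) (Rh K W) Y w1 w2 (L s) (L t0) z0 ρ := by
  obtain ⟨kw, k1, kR, g1, g2⟩ := Rh_ge h.K1 h.two.W1
  have hY := h.pos.1
  have b1 : DB (gr t) (K * W) Y w1 w2 (L s) (L t) z0 ρ := h.dbV ht hs ht e1 rfl
  have b2 := h.mv ht (h.uv t ht) (h.fu t ht).ortho (h.fv t ht).ortho (by positivity) b1
  have c1 : DB (fr t) (K * W) Y w1 w2 (L t) (L t0) z0 ρ := h.dbU ht ht h0 rfl e0.symm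
  have c2 := h.mv ht (h.uu t0 h0 t ht e0.symm) (h.fu t0 h0).ortho (h.fu t ht).ortho
    (by positivity) (b2.trans c1)
  exact c2.mono g2 hY.le h.two.w10.le h.two.w20.le

/-- one step, from a class of the second system -/
theorem FD.one_v (h : FD qm qp L P cu cv Uf Vf fr gr W M a w1 w2 z0 ρ r K Y) {t0 t s : ℕ}
    (h0 : t0 ∈ P) (ht : t ∈ P) (hs : s ∈ P) (e0 : cv t = cv t0) (e1 : cu s = cu t) :
    DB (gr t0) (Rh K W) Y w1 w2 (L s) (L t0) z0 ρ := by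
  obtain ⟨kw, k1, kR, g1, g2⟩ := Rh_ge h.K1 h.two.W1
  have hY := h.pos.1
  have b1 : DB (fr t) (K * W) Y w1 w2 (L s) (L t) z0 ρ := h.dbU ht hs ht e1 rfl
  have b2 := h.mv ht (h.uv t ht).symm (h.fv t ht).ortho (h.fu t ht).ortho (by positivity) b1
  have c1 : DB (gr t) (K * W) Y w1 w2 (L t) (L t0) z0 ρ := h.dbV ht ht h0 rfl e0.symm
  have c2 := h.mv ht (h.vv t0 h0 t ht e0.symm) (h.fv t0 h0).ortho (h.fv t ht).ortho
    (by positivity) (b2.trans c1)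
  exact c2.mono g2 hY.le h.two.w10.le h.two.w20.le

/-- the bound of the hull counts -/
noncomputable def Bh (qp : Fin 3 → ℝ) (K W Y a : ℝ) : ℝ :=
  (2 * W * (Rh K W * K * W ^ 2)) ^ (22 + qp 0 + qp 1 + qp 2) *
    ((Rh K W * Y / a) ^ (1 + qp 0) * (Rh K W * K) ^ (1 + qp 2))

theorem card_met' {ι κ κ' : Type*} [DecidableEq κ] [DecidableEq κ'] {P : Finset ι} {u : ι → κ'}
    {v : ι → κ} {W M B : ℝ}
    (hW : 0 < W) (hM : 0 < M) (hv : ∀ t ∈ P, M ≤ W * ((P.filter fun s => v s = v t).card : ℝ))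
    {c : κ'} {Q : Finset ι} (hQ : ∀ t ∈ P, u t = c → ∀ s ∈ P, v s = v t → s ∈ Q)
    (hB : (Q.card : ℝ) ≤ B * M) : (((P.filter fun t => u t = c).image v).card : ℝ) ≤ W * B := by
  have h := card_met (u := u) (v := v) (c := c) hW hM (fun t ht => by convert hv t ht) hQ hB
  convert h

theorem card_met2' {ι κ κ' : Type*} [DecidableEq κ] [DecidableEq κ'] {P : Finset ι} {u : ι → κ'}
    {v : ι → κ} {W M B : ℝ}
    (hW : 0 < W) (hM : 0 < M) (hu : ∀ t ∈ P, M ≤ W * ((P.filter fun s => u s = u t).card : ℝ))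
    {c : κ'} {T : Finset κ'}
    (hT : ∀ c1 ∈ T, ∃ t ∈ P, ∃ t' ∈ P, u t = c ∧ u t' = c1 ∧ v t' = v t) {Q : Finset ι}
    (hQ : ∀ t ∈ P, u t = c → ∀ t' ∈ P, v t' = v t → ∀ s ∈ P, u s = u t' → s ∈ Q)
    (hB : (Q.card : ℝ) ≤ B * M) : (T.card : ℝ) ≤ W * B :=
  card_met2 (u := u) (v := v) (c := c) hW hM (fun t ht => by convert hu t ht) hT hQ hB

open Classical in
/-- **flat hull count, explicit constant** -/
theorem FD.count (hq : ∀ k, 0 ≤ qm k ∧ qm k ≤ qp k)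
    (h : FD qm qp L P cu cv Uf Vf fr gr W M a w1 w2 z0 ρ r K Y) :
    (∀ t0 ∈ P, ∀ T : Finset ℕ, (∀ c1 ∈ T, ∃ t ∈ P, ∃ t' ∈ P, cu t = cu t0 ∧ cu t' = c1 ∧
      cv t' = cv t) → (T.card : ℝ) ≤ W * Bh qp K W Y a) ∧
    (∀ c, (((P.filter fun t => cu t = c).image cv).card : ℝ) ≤ W * Bh qp K W Y a) ∧
    (∀ c, (((P.filter fun t => cv t = c).image cu).card : ℝ) ≤ W * Bh qp K W Y a) := by
  obtain ⟨kw, k1, kR, -, -⟩ := Rh_ge h.K1 h.two.W1
  have hW0 : 0 < W := by linarith [h.two.W1]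
  have hY := h.pos.1
  have ha := h.two.a0
  have hK0 : 0 < K := by linarith [h.K1]
  have hB0 : 0 ≤ W * Bh qp K W Y a := by
    unfold Bh
    have : 0 < Rh K W := by linarith
    positivity
  refine ⟨?_, ?_, ?_⟩
  · intro t0 h0 T hT
    refine card_met2' hW0 h.two.M0 h.two.fullU hT
      (Q := P.filter fun s => DB (fr t0) (Rh K W) Y w1 w2 (L s) (L t0) z0 ρ) ?_
      (cnt_db hq h.two h.rρ (h.fu t0 h0).ortho kR h.K1 h.aY h.Y2 (h.w21 h0) (L t0))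
    intro t ht e0 t' ht' e1 s hs e2
    exact Finset.mem_filter.2 ⟨hs, h.two_step h0 ht ht' hs e0 e1 e2⟩
  · intro c
    by_cases hc : ∃ t0 ∈ P, cu t0 = c
    · obtain ⟨t0, h0, rfl⟩ := hc
      refine card_met' hW0 h.two.M0 h.two.fullV
        (Q := P.filter fun s => DB (fr t0) (Rh K W) Y w1 w2 (L s) (L t0) z0 ρ) ?_
        (cnt_db hq h.two h.rρ (h.fu t0 h0).ortho kR h.K1 h.aY h.Y2 (h.w21 h0) (L t0))
      intro t ht e0 s hs e1
      exact Finset.mem_filter.2 ⟨hs, h.one_u h0 ht hs e0 e1⟩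
    · have : (P.filter fun t => cu t = c) = ∅ := by
        rw [Finset.filter_eq_empty_iff]
        intro t ht e
        exact hc ⟨t, ht, e⟩
      rw [this, Finset.image_empty, Finset.card_empty, Nat.cast_zero]
      exact hB0
  · intro c
    by_cases hc : ∃ t0 ∈ P, cv t0 = c
    · obtain ⟨t0, h0, rfl⟩ := hc
      refine card_met' hW0 h.two.M0 h.two.fullU
        (Q := P.filter fun s => DB (gr t0) (Rh K W) Y w1 w2 (L s) (L t0) z0 ρ) ?_
        (cnt_db hq h.two h.rρ (h.fv t0 h0).ortho kR h.K1 h.aY h.Y2 (h.w21 h0) (L t0))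
      intro t ht e0 s hs e1
      exact Finset.mem_filter.2 ⟨hs, h.one_v h0 ht hs e0 e1⟩
    · have : (P.filter fun t => cv t = c) = ∅ := by
        rw [Finset.filter_eq_empty_iff]
        intro t ht e
        exact hc ⟨t, ht, e⟩
      rw [this, Finset.image_empty, Finset.card_empty, Nat.cast_zero]
      exact hB0

end fd

end

/-- **number form** of the bound -/
theorem bh_num (qp : Fin 3 → ℝ) (hq : ∀ k, 0 ≤ qp k) {C1 : ℝ} (hC1 : 0 ≤ C1) {K W Y a : ℝ}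
    (hK : 1 ≤ K) (hW : 1 ≤ W) (hKW : K ≤ (2 * W) ^ C1) (ha : 0 < a) (haY : a ≤ Y) :
    W * Bh qp K W Y a ≤ (2 * W) ^ ((14 + 6 * C1) * (25 + 2 * qp 0 + qp 1 + 2 * qp 2)) *
      (Y / a) ^ (1 + qp 0) := by
  have hX : 2 ≤ 2 * W := by linarith
  have hX0 : 0 < 2 * W := by linarith
  have hX1 : 1 ≤ 2 * W := by linarith
  have hW0 : 0 < W := by linarith
  have hK0 : 0 < K := by linarith
  obtain ⟨kw, k1, kR, -, -⟩ := Rh_ge hK hW
  set X := 2 * W with hXd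
  have e1 : W ≤ X := by linarith
  have e2 : W = X ^ (1:ℝ) / 2 := by rw [Real.rpow_one]; linarith
  have p1 : 1 ≤ X ^ C1 := Real.one_le_rpow hX1 hC1
  -- ka ≤ X^(2 + C1)
  have hka : ka K W ≤ X ^ (2 + C1) := by
    have h1 : K * W ^ 2 ≤ X ^ C1 * W ^ 2 := mul_le_mul_of_nonneg_right hKW (by positivity)
    have h2 : 1 ≤ X ^ C1 * W ^ 2 := by nlinarith [one_le_pow₀ hW (n := 2)]
    have h3 : X ^ (2 + C1) = X ^ C1 * (4 * W ^ 2) := by
      rw [add_comm, Real.rpow_add hX0, hXd]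
      have : ((2:ℝ) * W) ^ (2:ℝ) = (2 * W) ^ 2 := by norm_num
      rw [this]; ring
    unfold ka
    rw [h3]
    nlinarith
  have hka4 : ka K W ^ 4 ≤ X ^ (8 + 4 * C1) := by
    calc ka K W ^ 4 ≤ (X ^ (2 + C1)) ^ 4 := pow_le_pow_left₀ (by linarith) hka 4
      _ = X ^ (8 + 4 * C1) := by
        rw [← Real.rpow_natCast, ← Real.rpow_mul hX0.le]
        congr 1; push_cast; ring
  have hR : Rh K W ≤ X ^ (11 + 5 * C1) := by
    have h1 : K * W ≤ X ^ C1 * X := mul_le_mul hKW e1 hW0.le (by positivity)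
    have h2 : (3:ℝ) ≤ X ^ (2:ℝ) := by
      have : X ^ (2:ℝ) = X ^ 2 := by norm_num
      rw [this]; nlinarith
    calc Rh K W = 3 * ka K W ^ 4 * (K * W) := rfl
      _ ≤ X ^ (2:ℝ) * X ^ (8 + 4 * C1) * (X ^ C1 * X) := by
          gcongr
      _ = X ^ (11 + 5 * C1) := by
          have : X ^ C1 * X = X ^ (C1 + 1) := by rw [Real.rpow_add_one hX0.ne']
          rw [this, ← Real.rpow_add hX0, ← Real.rpow_add hX0]
          congr 1; ring
  set Z := X ^ (14 + 6 * C1) with hZ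
  have hZ1 : 1 ≤ Z := Real.one_le_rpow hX1 (by linarith)
  have hZ0 : 0 < Z := by linarith
  have zR : Rh K W ≤ Z := hR.trans (Real.rpow_le_rpow_of_exponent_le hX1 (by linarith))
  have hRK : Rh K W * K ≤ X ^ (11 + 6 * C1) := by
    calc Rh K W * K ≤ X ^ (11 + 5 * C1) * X ^ C1 := by gcongr
      _ = _ := by rw [← Real.rpow_add hX0]; congr 1; ring
  have zRK : Rh K W * K ≤ Z := hRK.trans (Real.rpow_le_rpow_of_exponent_le hX1 (by linarith))
  have zW : X * (Rh K W * K * W ^ 2) ≤ Z := by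
    have h1 : W ^ 2 ≤ X ^ (2:ℝ) := by
      have : X ^ (2:ℝ) = X ^ 2 := by norm_num
      rw [this]; exact pow_le_pow_left₀ hW0.le e1 2
    calc X * (Rh K W * K * W ^ 2) ≤ X * (X ^ (11 + 6 * C1) * X ^ (2:ℝ)) := by gcongr
      _ = X ^ (1:ℝ) * (X ^ (11 + 6 * C1) * X ^ (2:ℝ)) := by rw [Real.rpow_one]
      _ = Z := by
          rw [← Real.rpow_add hX0, ← Real.rpow_add hX0, hZ]
          congr 1; ring
  have zW1 : W ≤ Z := by
    calc W ≤ X ^ (1:ℝ) := by rw [Real.rpow_one]; exact e1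
      _ ≤ Z := Real.rpow_le_rpow_of_exponent_le hX1 (by linarith)
  have q0 := hq 0
  have q1 := hq 1
  have q2 := hq 2
  have hYa : 0 < Y / a := div_pos (ha.trans_le haY) ha
  have hRp : 0 < Rh K W := by linarith
  have e5 : Rh K W * Y / a = Rh K W * (Y / a) := by ring
  unfold Bh
  rw [e5, Real.mul_rpow hRp.le hYa.le]
  calc W * ((X * (Rh K W * K * W ^ 2)) ^ (22 + qp 0 + qp 1 + qp 2) *
        (Rh K W ^ (1 + qp 0) * (Y / a) ^ (1 + qp 0) * (Rh K W * K) ^ (1 + qp 2)))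
      ≤ Z * (Z ^ (22 + qp 0 + qp 1 + qp 2) *
        (Z ^ (1 + qp 0) * (Y / a) ^ (1 + qp 0) * Z ^ (1 + qp 2))) := by
        gcongr
    _ = Z ^ (1:ℝ) * Z ^ (22 + qp 0 + qp 1 + qp 2) * Z ^ (1 + qp 0) * Z ^ (1 + qp 2) *
          (Y / a) ^ (1 + qp 0) := by rw [Real.rpow_one]; ring
    _ = X ^ ((14 + 6 * C1) * (25 + 2 * qp 0 + qp 1 + 2 * qp 2)) * (Y / a) ^ (1 + qp 0) := by
        rw [← Real.rpow_add hZ0, ← Real.rpow_add hZ0, ← Real.rpow_add hZ0, hZ,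
          ← Real.rpow_mul hX0.le]
        congr 2; ring

open Classical in
/-- **flat hull counts** -/
theorem flat_hull {qm qp : Fin 3 → ℝ} (hq : ∀ k, 0 ≤ qm k ∧ qm k ≤ qp k) {C1 : ℝ} (hC1 : 0 ≤ C1) :
    ∃ C : ℝ, 0 ≤ C ∧ ∀ (L : ℕ → Ln4) (P : Finset ℕ) (cu cv : ℕ → ℕ) (Uf Vf : ℕ → Plk4)
      (f g : ℕ → Fin 3 → V3) (W M a w1 w2 z0 ρ r K Y : ℝ), K ≤ (2 * W) ^ C1 →
      FD qm qp L P cu cv Uf Vf f g W M a w1 w2 z0 ρ r K Y →
      (∀ t0 ∈ P, ∀ T : Finset ℕ, (∀ c1 ∈ T, ∃ t ∈ P, ∃ t' ∈ P, cu t = cu t0 ∧ cu t' = c1 ∧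
        cv t' = cv t) → (T.card : ℝ) ≤ (2 * W) ^ C * (Y / a) ^ (1 + qp 0)) ∧
      (∀ c, (((P.filter fun t => cu t = c).image cv).card : ℝ) ≤
        (2 * W) ^ C * (Y / a) ^ (1 + qp 0)) ∧
      (∀ c, (((P.filter fun t => cv t = c).image cu).card : ℝ) ≤
        (2 * W) ^ C * (Y / a) ^ (1 + qp 0)) := by
  have hp : ∀ k, 0 ≤ qp k := fun k => (hq k).1.trans (hq k).2
  have p0 := hp 0
  have p1 := hp 1
  have p2 := hp 2
  refine ⟨(14 + 6 * C1) * (25 + 2 * qp 0 + qp 1 + 2 * qp 2), by positivity, ?_⟩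
  intro L P cu cv Uf Vf f g W M a w1 w2 z0 ρ r K Y hKW h
  have hb := bh_num qp hp hC1 h.K1 h.two.W1 hKW h.two.a0 h.aY
  obtain ⟨r1, r2, r3⟩ := h.count hq
  exact ⟨fun t0 h0 T hT => (r1 t0 h0 T hT).trans hb, fun c => (r2 c).trans hb,
    fun c => (r3 c).trans hb⟩

end Crest.Agent.R136.Fh792
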