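import Crest.Agent.R136.HulD_412
import Crest.Agent.R136.Pl2B_860

/-!
# R136 (S0187), PLAN 2 (AL) (C): two flat hull frames of one sheet are aligned (helper183)

`fh_aln` : two frames `f`, `g` with `FH K Y S` over the same cell satisfy
`Hul412.Aln (C K^9) Y (S.w 1) (S.w 2) f g`.
-/

set_option autoImplicit false
set_option linter.unusedVariables false

namespace Crest.Agent.R136.Fha183

open Crest.Agent.R136.Sh605 Crest.Agent.R136.Fl808
open Crest.Agent.R136.K4 (Plk4)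
open Crest.Agent.R136.Tlt51 (Shp InP)
open Crest.Agent.R136.Pl2 (FH)

/-- a point of the level set of `q` next to `x0`, moved by `w k / 32` along `e k` -/
theorem exists_on {e : Fin 3 → V3} {c : Ln4} {w : V3} {q : ℝ → V3 → ℝ} {a z0 ρ r0 : ℝ}
    (h : ShN e c w q a z0 ρ r0) (hr : 0 < r0) {k : Fin 3} (hk : k ≠ 0) {z : ℝ} (hz : z0 ≤ z)
    (hz' : z ≤ z0 + ρ) {x0 : V3} (hx : InK e c w z x0) :
    ∃ y : ℝ, |y| ≤ w 0 / 16 ∧ q z (x0 + ((w k / 32) • e k + y • e 0)) = q z x0 := by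
  have ha : 0 < a := hr.trans_le h.r0_le
  have hw0 : 0 < w 0 := ha.trans_le h.a_le0
  have hw2 : 0 < w 2 := hw0.trans_le h.w0_le
  have hw1 : 0 < w 1 := hw2.trans_le h.w_le
  have hwk : 0 < w k := by fin_cases k <;> simp_all
  have dd : ∀ i j, dt (e i) (e j) = if i = j then 1 else 0 := h.ortho
  have ink : ∀ s y : ℝ, 0 ≤ s → s ≤ w k / 32 → |y| ≤ w 0 / 16 →
      InK e c (dbl3 w) z (x0 + (s • e k + y • e 0)) := by
    intro s y hs hs' hy i
    have e1 : x0 + (s • e k + y • e 0) - c.pos z = (x0 - c.pos z) + (s • e k + y • e 0) := by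
      funext j; simp only [Pi.sub_apply, Pi.add_apply]; ring
    rw [e1, dt_add, dt_add, dt_smul, dt_smul, dd, dd]
    have hi := hx i
    have hyy := abs_le.1 hy
    have hii := abs_le.1 hi
    simp only [dbl3]
    rw [abs_le]
    by_cases h1 : i = k
    · have h2 : i ≠ 0 := by rw [h1]; exact hk
      simp only [h1, if_true, hk, if_false]
      rw [h1] at hii
      constructor <;> linarith
    · by_cases h2 : i = 0
      · simp only [h1, h2, if_true, if_false]
        rw [h2] at hii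
        have h3 : ¬ ((0 : Fin 3) = k) := by rw [← h2]; exact h1
        simp only [h3, if_false]
        constructor <;> linarith
      · simp only [h1, h2, if_false]
        have hwi : 0 ≤ w i := (abs_nonneg _).trans hi
        constructor <;> linarith
  -- the value after the step along `e k`
  have st : |q z (x0 + ((w k / 32) • e k + (0 : ℝ) • e 0)) - q z x0| ≤ w 0 / 32 := by
    have hA : InK e c (dbl3 w) z x0 := by
      have := ink 0 0 le_rfl (by positivity) (by simp; positivity)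
      simpa using this
    have hB : InK e c (dbl3 w) z (x0 + (w k / 32) • e k) := by
      have := ink (w k / 32) 0 (by positivity) le_rfl (by simp; positivity)
      simpa using this
    have hC : x0 + ((w k / 32) • e k + (0 : ℝ) • e 0) = x0 + (w k / 32) • e k := by simp
    rw [hC]
    have hk' : k = 1 ∨ k = 2 := by
      fin_cases k
      · exact absurd rfl hk
      · left; rfl
      · right; rfl
    rcases hk' with rfl | rfl
    · refine (h.sl1 z hz hz' x0 (w 1 / 32) (by positivity) hA hB).trans (le_of_eq ?_)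
      field_simp
    · refine (h.sl2 z hz hz' x0 (w 2 / 32) (by positivity) hA hB).trans (le_of_eq ?_)
      field_simp
  set g : ℝ → ℝ := fun y => q z (x0 + ((w k / 32) • e k + y • e 0)) - q z x0 with hg
  have cont : Continuous g := by
    obtain ⟨c0, c1, c2, b, d, G, hq⟩ := h.isQ
    have : g = fun y => (c0 + c1 * z + c2 * z ^ 2 +
        ∑ i, (b i + d i * z) * (x0 i + ((w k / 32) * e k i + y * e 0 i)) +
        ∑ i, ∑ j, G i j * ((x0 i + ((w k / 32) * e k i + y * e 0 i)) *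
          (x0 j + ((w k / 32) * e k j + y * e 0 j)))) - q z x0 := by
      funext y
      rw [hg]
      simp only [hq z (x0 + ((w k / 32) • e k + y • e 0)), Pi.add_apply, Pi.smul_apply,
        smul_eq_mul]
    rw [this]
    fun_prop
  have mono : ∀ y y' : ℝ, |y| ≤ w 0 / 16 → |y'| ≤ w 0 / 16 → y ≤ y' →
      (y' - y) / 2 ≤ g y' - g y := by
    intro y y' hy hy' hyy
    have h1 := ink (w k / 32) y (by positivity) le_rfl hy
    have h2 := ink (w k / 32) y' (by positivity) le_rfl hy'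
    have e1 : x0 + ((w k / 32) • e k + y' • e 0) =
        (x0 + ((w k / 32) • e k + y • e 0)) + (y' - y) • e 0 := by
      funext j; simp only [Pi.add_apply, Pi.smul_apply, smul_eq_mul]; ring
    have h3 := (h.st0 z hz hz' _ (y' - y) (by linarith) h1 (by rw [← e1]; exact h2)).1
    rw [← e1] at h3
    simp only [hg]
    linarith
  have g0 : |g 0| ≤ w 0 / 32 := st
  have a0 := abs_le.1 g0
  have m1 := mono 0 (w 0 / 16) (by simp; positivity) (by rw [abs_of_pos (by positivity)])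
    (by positivity)
  have m2 := mono (-(w 0 / 16)) 0 (by rw [abs_neg, abs_of_pos (by positivity)])
    (by simp; positivity) (by linarith)
  have p1 : 0 ≤ g (w 0 / 16) := by linarith
  have p2 : g (-(w 0 / 16)) ≤ 0 := by linarith
  obtain ⟨y, hy, hy0⟩ := intermediate_value_Icc (by linarith : -(w 0 / 16) ≤ w 0 / 16)
    cont.continuousOn ⟨p2, p1⟩
  refine ⟨y, abs_le.2 ⟨hy.1, hy.2⟩, ?_⟩
  have : g y = 0 := hy0
  simp only [hg] at this
  linarith

/-- one half of the alignment: `f 0` against `g 1`, `g 2` -/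
theorem half {S : Plk4} {T : Ln4} {f g : Fin 3 → V3} {K Y z0 ρ r : ℝ} (hr : 0 < r) (hρ : 0 < ρ)
    (hS : Shp S z0 ρ r) (hT : InP T S z0 ρ) (hK : 1 ≤ K) (hY : 0 < Y)
    (hf : FH K Y S f z0 ρ) (hg : FH K Y S g z0 ρ) :
    |dt (f 0) (g 1)| * S.w 1 ≤ 128 * K ^ 3 * Y ∧ |dt (f 0) (g 2)| * S.w 2 ≤ 128 * K ^ 3 * Y := by
  have hS' : ShN S.e S.c S.w S.q S.a z0 ρ r := hS
  have ha : 0 < S.a := hr.trans_le hS'.r0_le
  have hw0 : 0 < S.w 0 := ha.trans_le hS'.a_le0
  have hw2 : 0 < S.w 2 := hw0.trans_le hS'.w0_le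
  have hw1 : 0 < S.w 1 := hw2.trans_le hS'.w_le
  have hz0 : z0 ≤ z0 := le_rfl
  have hz1 : z0 ≤ z0 + ρ := by linarith
  have oe := hS'.ortho
  have hT0 : InK S.e S.c S.w z0 (T.pos z0) ∧ |S.q z0 (T.pos z0)| ≤ S.a := hT z0 hz0 hz1
  -- the two displacements
  have key : ∀ k : Fin 3, k ≠ 0 → ∃ y : ℝ,
      |dt (f 0) ((S.w k / 32) • S.e k + y • S.e 0)| ≤ K * Y ∧
      |dt (g 0) ((S.w k / 32) • S.e k + y • S.e 0)| ≤ K * Y := by
    intro k hk
    have hwk : 0 < S.w k := by fin_cases k <;> simp_all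
    obtain ⟨y, hy, hq⟩ := exists_on hS' hr hk hz0 hz1 hT0.1
    refine ⟨y, ?_⟩
    have hin : InK S.e T (fun i => S.w i / 8) z0
        (T.pos z0 + ((S.w k / 32) • S.e k + y • S.e 0)) := by
      intro i
      have e1 : T.pos z0 + ((S.w k / 32) • S.e k + y • S.e 0) - T.pos z0 =
          (S.w k / 32) • S.e k + y • S.e 0 := by
        funext j; simp only [Pi.sub_apply, Pi.add_apply]; ring
      rw [e1, dt_add, dt_smul, dt_smul, oe, oe]
      have hyy := abs_le.1 hy
      rw [abs_le]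
      by_cases h1 : i = k
      · subst h1
        simp only [if_true, hk, if_false]
        constructor <;> linarith
      · by_cases h2 : i = 0
        · subst h2
          simp only [h1, if_true, if_false]
          constructor <;> linarith
        · have hwi : 0 < S.w i := by fin_cases i <;> simp_all
          simp only [h1, h2, if_false]
          constructor <;> linarith
    have hqa : |S.q z0 (T.pos z0 + ((S.w k / 32) • S.e k + y • S.e 0))| ≤ S.a := by
      rw [hq]; exact hT0.2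
    have e2 : T.pos z0 + ((S.w k / 32) • S.e k + y • S.e 0) - T.pos z0 =
        (S.w k / 32) • S.e k + y • S.e 0 := by
      funext j; simp only [Pi.sub_apply, Pi.add_apply]; ring
    have h1 := hf.pt T hT z0 hz0 hz1 _ hin hqa
    have h2 := hg.pt T hT z0 hz0 hz1 _ hin hqa
    rw [e2] at h1 h2
    exact ⟨h1, h2⟩
  obtain ⟨y1, hf1, hg1⟩ := key 1 (by decide)
  obtain ⟨y2, hf2, hg2⟩ := key 2 (by decide)
  set D1 : V3 := (S.w 1 / 32) • S.e 1 + y1 • S.e 0 with hD1
  set D2 : V3 := (S.w 2 / 32) • S.e 2 + y2 • S.e 0 with hD2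
  -- general vector with small coefficients
  have main : ∀ (u : V3) (m α1 α2 α0 : ℝ), dt (g 0) u = 0 →
      (∀ x : V3, m * dt x u = α1 * dt x D1 + α2 * dt x D2 + α0 * dt x (S.e 0)) →
      0 ≤ m → |α1| ≤ 32 * K → |α2| ≤ 32 * K → |dt (f 0) u| * m ≤ 128 * K ^ 3 * Y := by
    intro u m α1 α2 α0 h0 hx hm h1 h2
    have hKY : 0 ≤ K * Y := by positivity
    have b1 : ∀ D : V3, ∀ α : ℝ, |α| ≤ 32 * K → ∀ x : V3, |dt x D| ≤ K * Y →
        |α * dt x D| ≤ 32 * K ^ 2 * Y := by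
      intro D α hα x hD
      rw [abs_mul]
      calc |α| * |dt x D| ≤ (32 * K) * (K * Y) :=
            mul_le_mul hα hD (abs_nonneg _) (by positivity)
        _ = _ := by ring
    have eg := hx (g 0)
    rw [h0, mul_zero] at eg
    have c1 := b1 D1 α1 h1 (g 0) hg1
    have c2 := b1 D2 α2 h2 (g 0) hg2
    have c3 : |α0 * dt (g 0) (S.e 0)| ≤ 64 * K ^ 2 * Y := by
      have : α0 * dt (g 0) (S.e 0) = -(α1 * dt (g 0) D1) - α2 * dt (g 0) D2 := by linarith
      rw [this]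
      calc |-(α1 * dt (g 0) D1) - α2 * dt (g 0) D2| ≤
            |-(α1 * dt (g 0) D1)| + |α2 * dt (g 0) D2| := abs_sub _ _
        _ ≤ 32 * K ^ 2 * Y + 32 * K ^ 2 * Y := by rw [abs_neg]; exact add_le_add c1 c2
        _ = _ := by ring
    have c4 : |α0| ≤ 64 * K ^ 3 * Y := by
      rw [abs_mul] at c3
      calc |α0| = |α0| * 1 := (mul_one _).symm
        _ ≤ |α0| * (K * |dt (g 0) (S.e 0)|) :=
            mul_le_mul_of_nonneg_left hg.e00 (abs_nonneg _)
        _ = K * (|α0| * |dt (g 0) (S.e 0)|) := by ring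
        _ ≤ K * (64 * K ^ 2 * Y) := mul_le_mul_of_nonneg_left c3 (by linarith)
        _ = _ := by ring
    have ef := hx (f 0)
    have d1 := b1 D1 α1 h1 (f 0) hf1
    have d2 := b1 D2 α2 h2 (f 0) hf2
    have d3 : |α0 * dt (f 0) (S.e 0)| ≤ 64 * K ^ 3 * Y := by
      rw [abs_mul]
      calc |α0| * |dt (f 0) (S.e 0)| ≤ (64 * K ^ 3 * Y) * 1 :=
            mul_le_mul c4 (abs_dt_le_one oe hf.ortho 0 0) (abs_nonneg _) (by positivity)
        _ = _ := mul_one _
    have kk : K ^ 2 * Y ≤ K ^ 3 * Y := by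
      apply mul_le_mul_of_nonneg_right _ hY.le
      exact pow_le_pow_right₀ hK (by norm_num)
    calc |dt (f 0) u| * m = |m * dt (f 0) u| := by rw [abs_mul, abs_of_nonneg hm, mul_comm]
      _ = |α1 * dt (f 0) D1 + α2 * dt (f 0) D2 + α0 * dt (f 0) (S.e 0)| := by rw [ef]
      _ ≤ |α1 * dt (f 0) D1| + |α2 * dt (f 0) D2| + |α0 * dt (f 0) (S.e 0)| :=
          (abs_add_le _ _).trans (add_le_add (abs_add_le _ _) le_rfl)
      _ ≤ 32 * K ^ 2 * Y + 32 * K ^ 2 * Y + 64 * K ^ 3 * Y := add_le_add (add_le_add d1 d2) d3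
      _ ≤ _ := by linarith
  have g01 : dt (g 0) (g 1) = 0 := by simpa using hg.ortho 0 1
  have g02 : dt (g 0) (g 2) = 0 := by simpa using hg.ortho 0 2
  have one := fun i j => abs_dt_le_one oe hg.ortho i j
  constructor
  · refine main (g 1) (S.w 1) (32 * dt (g 1) (S.e 1)) (32 * (dt (g 1) (S.e 2) * S.w 1 / S.w 2))
      (S.w 1 * dt (g 1) (S.e 0) - 32 * dt (g 1) (S.e 1) * y1 -
        32 * (dt (g 1) (S.e 2) * S.w 1 / S.w 2) * y2) g01 ?_ hw1.le ?_ ?_
    · intro x
      rw [dt_expand oe x (g 1), hD1, hD2, dt_add, dt_add, dt_smul, dt_smul, dt_smul, dt_smul,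
        dt_comm (S.e 0) (g 1), dt_comm (S.e 1) (g 1), dt_comm (S.e 2) (g 1)]
      field_simp
      ring
    · rw [abs_mul, abs_of_pos (by norm_num : (0:ℝ) < 32)]
      have := one 1 1
      nlinarith
    · rw [abs_mul, abs_of_pos (by norm_num : (0:ℝ) < 32)]
      have h1 : |dt (g 1) (S.e 2) * S.w 1 / S.w 2| ≤ K := by
        rw [abs_div, abs_mul, abs_of_pos hw1, abs_of_pos hw2, div_le_iff₀ hw2]
        exact hg.e12
      linarith
  · refine main (g 2) (S.w 2) (32 * (dt (g 2) (S.e 1) * S.w 2 / S.w 1)) (32 * dt (g 2) (S.e 2))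
      (S.w 2 * dt (g 2) (S.e 0) - 32 * (dt (g 2) (S.e 1) * S.w 2 / S.w 1) * y1 -
        32 * dt (g 2) (S.e 2) * y2) g02 ?_ hw2.le ?_ ?_
    · intro x
      rw [dt_expand oe x (g 2), hD1, hD2, dt_add, dt_add, dt_smul, dt_smul, dt_smul, dt_smul,
        dt_comm (S.e 0) (g 2), dt_comm (S.e 1) (g 2), dt_comm (S.e 2) (g 2)]
      field_simp
      ring
    · rw [abs_mul, abs_of_pos (by norm_num : (0:ℝ) < 32)]
      have h1 : |dt (g 2) (S.e 1) * S.w 2 / S.w 1| ≤ 1 := by
        rw [abs_div, abs_mul, abs_of_pos hw1, abs_of_pos hw2, div_le_iff₀ hw1, one_mul]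
        calc |dt (g 2) (S.e 1)| * S.w 2 ≤ 1 * S.w 2 :=
              mul_le_mul_of_nonneg_right (one 2 1) hw2.le
          _ ≤ S.w 1 := by rw [one_mul]; exact hS'.w_le
      linarith
    · rw [abs_mul, abs_of_pos (by norm_num : (0:ℝ) < 32)]
      have := one 2 2
      nlinarith

/-- the axes `1`, `2` -/
theorem half2 {S : Plk4} {f g : Fin 3 → V3} {K Y z0 ρ r : ℝ} (hr : 0 < r) (hS : Shp S z0 ρ r)
    (hK : 1 ≤ K) (hf : FH K Y S f z0 ρ) (hg : FH K Y S g z0 ρ) :
    |dt (f 1) (g 2)| * S.w 1 ≤ 3 * K * S.w 2 := by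
  have hS' : ShN S.e S.c S.w S.q S.a z0 ρ r := hS
  have ha : 0 < S.a := hr.trans_le hS'.r0_le
  have hw0 : 0 < S.w 0 := ha.trans_le hS'.a_le0
  have hw2 : 0 < S.w 2 := hw0.trans_le hS'.w0_le
  have hw1 : 0 < S.w 1 := hw2.trans_le hS'.w_le
  have oe := hS'.ortho
  have onef := fun i j => abs_dt_le_one oe hf.ortho i j
  have oneg : ∀ i j, |dt (S.e i) (g j)| ≤ 1 := fun i j => by
    rw [dt_comm]; exact abs_dt_le_one oe hg.ortho j i
  have hKw : 0 ≤ K * S.w 2 := by positivity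
  have t0 : |dt (f 1) (S.e 0) * dt (S.e 0) (g 2)| * S.w 1 ≤ K * S.w 2 := by
    rw [abs_mul]
    calc |dt (f 1) (S.e 0)| * |dt (S.e 0) (g 2)| * S.w 1 =
          (|dt (f 1) (S.e 0)| * S.w 1) * |dt (S.e 0) (g 2)| := by ring
      _ ≤ (K * S.w 2) * 1 := mul_le_mul hf.e10 (oneg 0 2) (abs_nonneg _) hKw
      _ = _ := mul_one _
  have t1 : |dt (f 1) (S.e 1) * dt (S.e 1) (g 2)| * S.w 1 ≤ K * S.w 2 := by
    rw [abs_mul, dt_comm (S.e 1) (g 2)]
    calc |dt (f 1) (S.e 1)| * |dt (g 2) (S.e 1)| * S.w 1 =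
          |dt (f 1) (S.e 1)| * (|dt (g 2) (S.e 1)| * S.w 1) := by ring
      _ ≤ 1 * (K * S.w 2) := mul_le_mul (onef 1 1) hg.e21 (by positivity) (by norm_num)
      _ = _ := one_mul _
  have t2 : |dt (f 1) (S.e 2) * dt (S.e 2) (g 2)| * S.w 1 ≤ K * S.w 2 := by
    rw [abs_mul]
    calc |dt (f 1) (S.e 2)| * |dt (S.e 2) (g 2)| * S.w 1 =
          (|dt (f 1) (S.e 2)| * S.w 1) * |dt (S.e 2) (g 2)| := by ring
      _ ≤ (K * S.w 2) * 1 := mul_le_mul hf.e12 (oneg 2 2) (abs_nonneg _) hKw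
      _ = _ := mul_one _
  rw [dt_expand oe (f 1) (g 2)]
  calc |dt (f 1) (S.e 0) * dt (S.e 0) (g 2) + dt (f 1) (S.e 1) * dt (S.e 1) (g 2) +
        dt (f 1) (S.e 2) * dt (S.e 2) (g 2)| * S.w 1 ≤
      (|dt (f 1) (S.e 0) * dt (S.e 0) (g 2)| + |dt (f 1) (S.e 1) * dt (S.e 1) (g 2)| +
        |dt (f 1) (S.e 2) * dt (S.e 2) (g 2)|) * S.w 1 :=
        mul_le_mul_of_nonneg_right
          ((abs_add_le _ _).trans (add_le_add (abs_add_le _ _) le_rfl)) hw1.le
    _ ≤ 3 * K * S.w 2 := by linarith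

/-- **two flat hull frames of one sheet are aligned** -/
theorem fh_aln : ∃ C : ℝ, 1 ≤ C ∧ ∀ (S : Plk4) (T : Ln4) (f g : Fin 3 → V3) (K Y z0 ρ r : ℝ),
    0 < r → 0 < ρ → Shp S z0 ρ r → InP T S z0 ρ → 1 ≤ K → 0 < Y → Y ≤ K * S.w 2 →
    FH K Y S f z0 ρ → FH K Y S g z0 ρ → Hul412.Aln (C * K ^ 9) Y (S.w 1) (S.w 2) f g := by
  refine ⟨128, by norm_num, ?_⟩
  intro S T f g K Y z0 ρ r hr hρ hS hT hK hY hYw hf hg
  have hS' : ShN S.e S.c S.w S.q S.a z0 ρ r := hS
  have ha : 0 < S.a := hr.trans_le hS'.r0_le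
  have hw0 : 0 < S.w 0 := ha.trans_le hS'.a_le0
  have hw2 : 0 < S.w 2 := hw0.trans_le hS'.w0_le
  have k3 : 128 * K ^ 3 * Y ≤ 128 * K ^ 9 * Y := by
    apply mul_le_mul_of_nonneg_right _ hY.le
    apply mul_le_mul_of_nonneg_left _ (by norm_num)
    exact pow_le_pow_right₀ hK (by norm_num)
  have k1 : 3 * K * S.w 2 ≤ 128 * K ^ 9 * S.w 2 := by
    apply mul_le_mul_of_nonneg_right _ hw2.le
    have : K ^ 1 ≤ K ^ 9 := pow_le_pow_right₀ hK (by norm_num)
    have h9 : 0 ≤ K ^ 9 := by positivity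
    rw [pow_one] at this
    linarith
  have h1 := half hr hρ hS hT hK hY hf hg
  have h2 := half hr hρ hS hT hK hY hg hf
  have h3 := half2 hr hS hK hf hg
  have h4 := half2 hr hS hK hg hf
  exact {
    a01 := h1.1.trans k3
    a02 := h1.2.trans k3
    a10 := by rw [dt_comm]; exact h2.1.trans k3
    a20 := by rw [dt_comm]; exact h2.2.trans k3
    b12 := h3.trans k1
    b21 := by rw [dt_comm]; exact h4.trans k1 }

end Crest.Agent.R136.Fha183
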