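import Mathlib
import Crest.Agent.R136.KF2_879

/-!
# R136 (U4, POP): the filled configuration, counting wrapper (helper325)

A configuration is replaced by `N` copies of its lines, moved by `φ ω`, `ω < N`; the copy `ω` of the
line `n` has the number `Nat.pair ω n` (so the copies need not be distinct as lines).

* `fillI`, `fillL`, `fillF`, `mem_fillI`, `mem_alive_fill`, `own_fill`, `card_fillI`;
* `card_fill` : the number of filled lines with a property = sum over `ω` = sum over the lines of the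
  number of `ω`;
* `card_class` : the classes `f~ (ω, n) = f n` have `N` times as many lines;
* `up_wide`, `up_share`, `up_narrow` : the bottom bound;
* `okH_fill` : the filled configuration is valid.
-/

set_option autoImplicit false

open Finset

namespace Crest.Agent.R136.Fil325

open Crest.Agent.R138.Mk163 (zc zl rho alive own)
open Crest.Agent.R116.Xa794 (TS)
open Crest.Agent.R116.Xc794
open Crest.Agent.R136.KF879

/-! ### the copies -/

/-- incidences of the filled configuration -/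
noncomputable def fillI (N : ℕ) (I : Finset (ℕ × ℝ)) : Finset (ℕ × ℝ) :=
  (Finset.range N ×ˢ I).image fun p => (Nat.pair p.1 p.2.1, p.2.2)

/-- lines of the filled configuration -/
def fillL {Ln : Type} (φ : ℕ → Ln → Ln) (L : ℕ → Ln) (k : ℕ) : Ln :=
  φ (Nat.unpair k).1 (L (Nat.unpair k).2)

/-- classes of the filled configuration -/
def fillF (f : ℕ → ℤ → ℕ) (k : ℕ) (J : ℤ) : ℕ := f (Nat.unpair k).2 J

@[simp] theorem fillL_pair {Ln : Type} (φ : ℕ → Ln → Ln) (L : ℕ → Ln) (ω n : ℕ) :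
    fillL φ L (Nat.pair ω n) = φ ω (L n) := by
  unfold fillL; rw [Nat.unpair_pair]

@[simp] theorem fillF_pair (f : ℕ → ℤ → ℕ) (ω n : ℕ) (J : ℤ) :
    fillF f (Nat.pair ω n) J = f n J := by
  unfold fillF; rw [Nat.unpair_pair]

/-- the incidence of the original line -/
def orig (x : ℕ × ℝ) : ℕ × ℝ := ((Nat.unpair x.1).2, x.2)

theorem mem_fillI {N : ℕ} {I : Finset (ℕ × ℝ)} {x : ℕ × ℝ} :
    x ∈ fillI N I ↔ (Nat.unpair x.1).1 < N ∧ orig x ∈ I := by
  unfold fillI orig
  rw [Finset.mem_image]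
  constructor
  · rintro ⟨⟨ω, y⟩, hp, rfl⟩
    rw [Finset.mem_product, Finset.mem_range] at hp
    simp only [Nat.unpair_pair]
    exact hp
  · rintro ⟨h1, h2⟩
    refine ⟨((Nat.unpair x.1).1, ((Nat.unpair x.1).2, x.2)), ?_, ?_⟩
    · rw [Finset.mem_product, Finset.mem_range]
      exact ⟨h1, h2⟩
    · simp only [Nat.pair_unpair]

theorem pair_mem_fillI {N : ℕ} {I : Finset (ℕ × ℝ)} {ω n : ℕ} {z : ℝ} :
    (Nat.pair ω n, z) ∈ fillI N I ↔ ω < N ∧ (n, z) ∈ I := by
  rw [mem_fillI]; unfold orig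
  simp only [Nat.unpair_pair]

theorem card_fillI (N : ℕ) (I : Finset (ℕ × ℝ)) : (fillI N I).card = N * I.card := by
  unfold fillI
  rw [Finset.card_image_of_injective, Finset.card_product, Finset.card_range]
  rintro ⟨ω, n, z⟩ ⟨ω', n', z'⟩ h
  simp only [Prod.mk.injEq, Nat.pair_eq_pair] at h
  obtain ⟨⟨h1, h2⟩, h3⟩ := h
  rw [h1, h2, h3]

theorem fillI_nonempty {N : ℕ} {I : Finset (ℕ × ℝ)} (hN : 0 < N) (hI : I.Nonempty) :
    (fillI N I).Nonempty := by
  rw [← Finset.card_pos, card_fillI]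
  exact Nat.mul_pos hN hI.card_pos

theorem mem_alive' {I : Finset (ℕ × ℝ)} {i : ℕ} {J : ℤ} {n : ℕ} :
    n ∈ alive I i J ↔ ∃ z, (n, z) ∈ I ∧ zc i z = J := by
  unfold alive
  rw [Finset.mem_image]
  constructor
  · rintro ⟨⟨m, z⟩, h, rfl⟩
    rw [Finset.mem_filter] at h
    exact ⟨z, h⟩
  · rintro ⟨z, h1, h2⟩
    exact ⟨(n, z), Finset.mem_filter.2 ⟨h1, h2⟩, rfl⟩

theorem mem_alive_fill {N : ℕ} {I : Finset (ℕ × ℝ)} {i : ℕ} {J : ℤ} {k : ℕ} :
    k ∈ alive (fillI N I) i J ↔ (Nat.unpair k).1 < N ∧ (Nat.unpair k).2 ∈ alive I i J := by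
  rw [mem_alive', mem_alive']
  constructor
  · rintro ⟨z, h1, h2⟩
    rw [mem_fillI] at h1
    exact ⟨h1.1, z, h1.2, h2⟩
  · rintro ⟨h0, z, h1, h2⟩
    exact ⟨z, mem_fillI.2 ⟨h0, h1⟩, h2⟩

theorem pair_mem_alive {N : ℕ} {I : Finset (ℕ × ℝ)} {i : ℕ} {J : ℤ} {ω n : ℕ} :
    Nat.pair ω n ∈ alive (fillI N I) i J ↔ ω < N ∧ n ∈ alive I i J := by
  rw [mem_alive_fill]
  simp only [Nat.unpair_pair]

/-- own cells are unchanged -/
theorem own_fill {N : ℕ} {I : Finset (ℕ × ℝ)} {i j : ℕ} {x : ℕ × ℝ} (hx : x ∈ fillI N I) :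
    own (fillI N I) i j x = own I i j (orig x) := by
  classical
  have hx' := mem_fillI.1 hx
  ext c
  unfold own
  rw [Finset.mem_image, Finset.mem_image]
  constructor
  · rintro ⟨y, hy, rfl⟩
    rw [Finset.mem_filter, mem_fillI] at hy
    obtain ⟨⟨h1, h2⟩, h3, h4⟩ := hy
    refine ⟨orig y, Finset.mem_filter.2 ⟨h2, ?_, h4⟩, rfl⟩
    unfold orig
    rw [h3]
  · rintro ⟨y, hy, rfl⟩
    rw [Finset.mem_filter] at hy
    obtain ⟨h1, h2, h3⟩ := hy
    refine ⟨(x.1, y.2), Finset.mem_filter.2 ⟨mem_fillI.2 ⟨hx'.1, ?_⟩, rfl, h3⟩, rfl⟩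
    have : orig (x.1, y.2) = y := by
      unfold orig at h2 ⊢
      exact Prod.ext_iff.2 ⟨h2.symm, rfl⟩
    rw [this]; exact h1

/-! ### counting -/

/-- **number of filled lines with a property**, sum over the copies -/
theorem card_fill {N : ℕ} {I : Finset (ℕ × ℝ)} {i : ℕ} {J : ℤ} (p : ℕ → Prop)
    [DecidablePred p] :
    ((alive (fillI N I) i J).filter p).card =
      ∑ ω ∈ Finset.range N, ((alive I i J).filter fun n => p (Nat.pair ω n)).card := by
  classical
  have e : ((alive (fillI N I) i J).filter p) =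
      ((Finset.range N ×ˢ alive I i J).filter fun q => p (Nat.pair q.1 q.2)).image
        fun q => Nat.pair q.1 q.2 := by
    ext k
    rw [Finset.mem_filter, mem_alive_fill, Finset.mem_image]
    constructor
    · rintro ⟨⟨h1, h2⟩, h3⟩
      refine ⟨Nat.unpair k, ?_, Nat.pair_unpair k⟩
      rw [Finset.mem_filter, Finset.mem_product, Finset.mem_range]
      exact ⟨⟨h1, h2⟩, by simpa only [Nat.pair_unpair] using h3⟩
    · rintro ⟨q, hq, rfl⟩
      rw [Finset.mem_filter, Finset.mem_product, Finset.mem_range] at hq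
      simp only [Nat.unpair_pair]
      exact hq
  rw [e, Finset.card_image_of_injective, Finset.card_filter, Finset.sum_product]
  · exact Finset.sum_congr rfl fun ω _ => by rw [Finset.card_filter]
  · rintro ⟨a, b⟩ ⟨a', b'⟩ h
    simp only [Nat.pair_eq_pair] at h
    rw [h.1, h.2]

/-- **number of filled lines with a property**, sum over the lines -/
theorem card_fill' {N : ℕ} {I : Finset (ℕ × ℝ)} {i : ℕ} {J : ℤ} (p : ℕ → Prop)
    [DecidablePred p] :
    ((alive (fillI N I) i J).filter p).card =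
      ∑ n ∈ alive I i J, ((Finset.range N).filter fun ω => p (Nat.pair ω n)).card := by
  rw [card_fill]
  simp only [Finset.card_filter]
  exact Finset.sum_comm

/-- the classes of the filled configuration -/
theorem card_class {N : ℕ} {I : Finset (ℕ × ℝ)} {i : ℕ} {J : ℤ} (f : ℕ → ℤ → ℕ) (c : ℕ) :
    ((alive (fillI N I) i J).filter fun k => fillF f k J = c).card =
      N * ((alive I i J).filter fun n => f n J = c).card := by
  rw [card_fill]
  simp only [fillF_pair, Finset.sum_const, Finset.card_range, smul_eq_mul]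

section

variable {Ln : Type}

open Classical in
/-- **wide tests**: each `φ_ω^-1` of the test set is covered by `k` test sets of the original
configuration with at most `B` lines each. -/
theorem up_wide {N k : ℕ} {I : Finset (ℕ × ℝ)} {i : ℕ} {J : ℤ} {L : ℕ → Ln} {φ : ℕ → Ln → Ln}
    {P : Ln → Prop} {B : ℝ} (Q : ℕ → Fin k → Ln → Prop)
    (hcov : ∀ ω, ω < N → ∀ n ∈ alive I i J, P (φ ω (L n)) → ∃ l, Q ω l (L n))
    (hB : ∀ ω, ω < N → ∀ l, (((alive I i J).filter fun n => Q ω l (L n)).card : ℝ) ≤ B) :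
    (((alive (fillI N I) i J).filter fun t => P (fillL φ L t)).card : ℝ) ≤ N * (k * B) := by
  rw [card_fill, Nat.cast_sum]
  have h : ∀ ω ∈ Finset.range N,
      (((alive I i J).filter fun n => P (fillL φ L (Nat.pair ω n))).card : ℝ) ≤ k * B := by
    intro ω hω
    rw [Finset.mem_range] at hω
    simp only [fillL_pair]
    have hsub : ((alive I i J).filter fun n => P (φ ω (L n))) ⊆
        (Finset.univ : Finset (Fin k)).biUnion fun l => (alive I i J).filter fun n => Q ω l (L n) := by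
      intro n hn
      rw [Finset.mem_filter] at hn
      obtain ⟨l, hl⟩ := hcov ω hω n hn.1 hn.2
      exact Finset.mem_biUnion.2 ⟨l, Finset.mem_univ _, Finset.mem_filter.2 ⟨hn.1, hl⟩⟩
    have h1 := (Finset.card_le_card hsub).trans Finset.card_biUnion_le
    have h2 : (((alive I i J).filter fun n => P (φ ω (L n))).card : ℝ) ≤
        ∑ l : Fin k, (((alive I i J).filter fun n => Q ω l (L n)).card : ℝ) := by
      exact_mod_cast h1
    refine h2.trans ((Finset.sum_le_sum fun l _ => hB ω hω l).trans ?_)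
    rw [Finset.sum_const, Finset.card_univ, Fintype.card_fin, nsmul_eq_mul]
  refine (Finset.sum_le_sum h).trans ?_
  rw [Finset.sum_const, Finset.card_range, nsmul_eq_mul]

open Classical in
/-- **share**: every line has at most `σ` copies in the test set, and only the lines of `A` have one. -/
theorem up_share {N : ℕ} {I : Finset (ℕ × ℝ)} {i : ℕ} {J : ℤ} {L : ℕ → Ln} {φ : ℕ → Ln → Ln}
    {P : Ln → Prop} {A : Finset ℕ} {σ : ℝ} (hσ : 0 ≤ σ)
    (hA : ∀ n ∈ alive I i J, (∃ ω, ω < N ∧ P (φ ω (L n))) → n ∈ A)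
    (hs : ∀ n ∈ alive I i J, n ∈ A →
      (((Finset.range N).filter fun ω => P (φ ω (L n))).card : ℝ) ≤ σ) :
    (((alive (fillI N I) i J).filter fun t => P (fillL φ L t)).card : ℝ) ≤ A.card * σ := by
  rw [card_fill', Nat.cast_sum]
  simp only [fillL_pair]
  have h : ∀ n ∈ alive I i J,
      (((Finset.range N).filter fun ω => P (φ ω (L n))).card : ℝ) ≤
        if n ∈ A then σ else 0 := by
    intro n hn
    split_ifs with hc
    · exact hs n hn hc
    · have : ((Finset.range N).filter fun ω => P (φ ω (L n))) = ∅ := by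
        rw [Finset.filter_eq_empty_iff]
        intro ω hω hp
        exact hc (hA n hn ⟨ω, Finset.mem_range.1 hω, hp⟩)
      rw [this]; simp
  refine (Finset.sum_le_sum h).trans ?_
  rw [← Finset.sum_filter, Finset.sum_const, nsmul_eq_mul]
  refine mul_le_mul_of_nonneg_right ?_ hσ
  exact_mod_cast Finset.card_le_card fun n hn => (Finset.mem_filter.1 hn).2

open Classical in
/-- **narrow tests**: the lines with a copy in the test set lie in `k` test sets with at most `B`
lines each, and every line has at most `σ` copies in it. -/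
theorem up_narrow {N k : ℕ} {I : Finset (ℕ × ℝ)} {i : ℕ} {J : ℤ} {L : ℕ → Ln} {φ : ℕ → Ln → Ln}
    {P : Ln → Prop} {σ B : ℝ} (hσ : 0 ≤ σ) (Q : Fin k → Ln → Prop)
    (hcov : ∀ n ∈ alive I i J, (∃ ω, ω < N ∧ P (φ ω (L n))) → ∃ l, Q l (L n))
    (hB : ∀ l, (((alive I i J).filter fun n => Q l (L n)).card : ℝ) ≤ B)
    (hs : ∀ n ∈ alive I i J,
      (((Finset.range N).filter fun ω => P (φ ω (L n))).card : ℝ) ≤ σ) :
    (((alive (fillI N I) i J).filter fun t => P (fillL φ L t)).card : ℝ) ≤ k * B * σ := by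
  set A : Finset ℕ :=
    (Finset.univ : Finset (Fin k)).biUnion fun l => (alive I i J).filter fun n => Q l (L n) with hAdef
  have h0 : (A.card : ℝ) ≤ k * B := by
    have h1 : (A.card : ℝ) ≤ ∑ l : Fin k, (((alive I i J).filter fun n => Q l (L n)).card : ℝ) := by
      exact_mod_cast Finset.card_biUnion_le
    refine h1.trans ((Finset.sum_le_sum fun l _ => hB l).trans ?_)
    rw [Finset.sum_const, Finset.card_univ, Fintype.card_fin, nsmul_eq_mul]
  refine (up_share hσ (A := A) ?_ fun n hn _ => hs n hn).trans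
    (mul_le_mul_of_nonneg_right h0 hσ)
  intro n hn h
  obtain ⟨l, hl⟩ := hcov n hn h
  exact Finset.mem_biUnion.2 ⟨l, Finset.mem_univ _, Finset.mem_filter.2 ⟨hn, hl⟩⟩

end

/-! ### the filled configuration -/

section

variable {Ln ι S : Type} [Fintype ι]

/-- the filled configuration -/
noncomputable def fillC (F : Cfg Ln ι S) (N : ℕ) (φ : ℕ → Ln → Ln) (b' : ℕ → (ι → ℕ) × S)
    (a' : ι → ℕ) (D0' D1' : ℝ) : Cfg Ln ι S :=
  { F with I := fillI N F.I, L := fillL φ F.L, f := fillF F.f, b := b', a := a', D0 := D0',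
           D1 := D1' }

open Classical in
/-- **the filled configuration is valid** -/
theorem okH_fill {T T' : TS Ln ι S} {Ψ Ψ' : ℝ → (ι → ℝ) → ℝ} {h : ℕ} {F : Cfg Ln ι S}
    (hF : OkH T Ψ h F) {N : ℕ} (hN : 0 < N) {φ : ℕ → Ln → Ln} {b' : ℕ → (ι → ℕ) × S}
    {a' : ι → ℕ} {D0' D1' : ℝ} (hD1 : 0 < D1')
    (fin : ∀ (i : ℕ) (J : ℤ) (s : (ι → ℕ) × S), T'.adm i J s → ∀ j, s.1 j ≤ F.N)
    (top : ∀ ω, ω < N → ∀ J : ℤ, ∀ t ∈ alive F.I (F.m + F.M) J,
      T'.mem (F.m + F.M) J (b' (F.f t J)) (φ ω (F.L t)) ∧ T'.adm (F.m + F.M) J (b' (F.f t J)) ∧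
        (b' (F.f t J)).1 = a')
    (low : D1' * T'.vol (F.m + F.M) a' ≤ N * (F.D1 * T.vol (F.m + F.M) F.a))
    (up : ∀ J : ℤ, ∀ s : (ι → ℕ) × S, T'.adm F.m J s →
      (((alive (fillI N F.I) F.m J).filter fun t => T'.mem F.m J s (fillL φ F.L t)).card : ℝ) ≤
        D0' * capP T' Ψ' (F.m + F.M) a' F.m s.1) :
    OkH T' Ψ' h (fillC F N φ b' a' D0' D1') where
  M1 := hF.M1
  h_le := hF.h_le
  ne := fillI_nonempty hN hF.ne
  cell := fun x hx y hy =>
    hF.cell (orig x) (mem_fillI.1 hx).2 (orig y) (mem_fillI.1 hy).2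
  D1p := hD1
  nup := hF.nup
  fin := fin
  top := by
    intro J t ht
    have ht' := mem_alive_fill.1 ht
    exact top _ ht'.1 J _ ht'.2
  low := by
    intro J t ht
    have ht' := mem_alive_fill.1 ht
    have h1 := hF.low J _ ht'.2
    have h2 := card_class (N := N) (I := F.I) (i := F.m + F.M) (J := J) F.f (fillF F.f t J)
    have h3 : (((alive (fillI N F.I) (F.m + F.M) J).filter
        fun s => fillF F.f s J = fillF F.f t J).card : ℝ) =
        N * (((alive F.I (F.m + F.M) J).filter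
          fun n => F.f n J = fillF F.f t J).card : ℝ) := by
      rw [h2]; push_cast; ring
    show D1' * T'.vol (F.m + F.M) a' ≤ (((alive (fillI N F.I) (F.m + F.M) J).filter
        fun s => fillF F.f s J = fillF F.f t J).card : ℝ)
    rw [h3]
    exact low.trans (mul_le_mul_of_nonneg_left h1 (Nat.cast_nonneg _))
  own := by
    intro x hx
    have h1 := hF.own _ (mem_fillI.1 hx).2
    show F.nu ≤ ((own (fillI N F.I) (F.m - h) (F.m + F.M) x).card : ℝ)
    rw [own_fill hx]
    exact h1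
  up := up

end

end Crest.Agent.R136.Fil325
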