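import Crest.Agent.R136.KS4_879
import Crest.Agent.R136.FDef_480

/-!
# R136 (helper879): `KS4 → FK4` (uniformisation half of the finish of S0187)
-/

set_option autoImplicit false
set_option linter.unusedVariables false

open Finset

namespace Crest.Agent.R136.KS879

open Crest.Agent.R136.Fin480 (FK4)

/-- the counting form gives `FK4`. -/
theorem FK4_of_KS4c (hK : KS4c) : FK4 := by
  classical
  intro ε hε
  obtain ⟨η, hη, C, hC, hK⟩ := hK (ε / 2) (by positivity)
  have h1 : Filter.Tendsto (fun N : ℕ => (N : ℝ) ^ (ε / 2)) Filter.atTop Filter.atTop :=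
    (tendsto_rpow_atTop (show 0 < ε / 2 by positivity)).comp
      (tendsto_natCast_atTop_atTop (R := ℝ))
  obtain ⟨N₀, hN₀⟩ := Filter.eventually_atTop.1 (h1.eventually (Filter.eventually_ge_atTop C))
  refine ⟨η, hη, N₀ + 1, ?_⟩
  intro N hN s E hBd hinj hline hs
  have hN1' : 1 ≤ N := by omega
  have hN0 : (0 : ℝ) < N := by exact_mod_cast hN1'
  have hN1 : (1 : ℝ) ≤ N := by exact_mod_cast hN1'
  have hsne : s.Nonempty := by
    have h2 : (0 : ℝ) < s.card := lt_of_lt_of_le (Real.rpow_pos_of_pos hN0 _) hs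
    exact card_pos.1 (by exact_mod_cast h2)
  set I : Finset (GLine4 × ℤ) := (s ×ˢ (range N).map Nat.castEmbedding).filter
    (fun x => (cell4 N x.1 x.2, x.2) ∈ E) with hI
  have hmem : ∀ x : GLine4 × ℤ, x ∈ I ↔ (x.1 ∈ s ∧ ∃ j : ℕ, j < N ∧ (j : ℤ) = x.2) ∧
      (cell4 N x.1 x.2, x.2) ∈ E := by
    intro x
    simp only [hI, mem_filter, mem_product, mem_map, mem_range, Nat.castEmbedding_apply]
  have hmain := hK N hN1' s I hsne (fun l hl i => hBd l hl i)
    (fun l hl l' hl' h => hinj l hl l' hl' h) hs ?_ ?_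
  · have h2 : ((I.image (key4 N)).card : ℝ) ≤ E.card := by
      have : I.image (key4 N) ⊆ E := by
        intro c hc
        obtain ⟨x, hx, rfl⟩ := mem_image.1 hc
        exact ((hmem x).1 hx).2
      exact_mod_cast card_le_card this
    have h3 := hN₀ N (by omega)
    have h4 : (N : ℝ) ^ (ε / 2) * (N : ℝ) ^ (4 - ε) ≤ (N : ℝ) ^ (ε / 2) * (E.card : ℝ) := by
      calc (N : ℝ) ^ (ε / 2) * (N : ℝ) ^ (4 - ε) = (N : ℝ) ^ (4 - ε / 2) := by
            rw [← Real.rpow_add hN0]; congr 1; ring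
        _ ≤ C * ((I.image (key4 N)).card : ℝ) := hmain
        _ ≤ C * (E.card : ℝ) := by gcongr
        _ ≤ (N : ℝ) ^ (ε / 2) * (E.card : ℝ) := by gcongr
    exact le_of_mul_le_mul_left h4 (Real.rpow_pos_of_pos hN0 _)
  · intro x hx
    obtain ⟨⟨h2, j, hj, h3⟩, _⟩ := (hmem x).1 hx
    refine ⟨h2, ?_⟩
    rw [← h3, Nat.abs_cast]
    exact_mod_cast hj.le
  · intro l hl
    refine (hline l hl).trans ?_
    norm_cast
    refine card_le_card_of_injOn (fun j : ℕ => ((l, (j : ℤ)) : GLine4 × ℤ)) ?_ ?_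
    · intro j hj
      have hj' := mem_filter.1 hj
      rw [mem_coe, mem_filter]
      refine ⟨?_, rfl⟩
      rw [hmem]
      exact ⟨⟨hl, j, mem_range.1 hj'.1, rfl⟩, hj'.2⟩
    · intro j _ j' _ h
      have := (Prod.mk.inj h).2
      exact_mod_cast this

/-- **KS4 → FK4**. -/
theorem FK4_of_KS4 (hK : KS4) : FK4 := FK4_of_KS4c (KS4c_of_KS4 hK)

end Crest.Agent.R136.KS879
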