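import Crest.Agent.R136.Fl1_808

/-!
# R136 (S0187): flat boxes, the strip lemma (helper808)

Two lines which both lie in two boxes of dimensions `(a, w1, w2)` with aligned wide axes and tilt `τ`
differ by a line of a box with thickness `2 a` and base `(lg, sh)`, `sh * lg ≤ C a w1 w2 / τ`.
-/

set_option autoImplicit false
set_option linter.unusedVariables false

namespace Crest.Agent.R136.Fl808

open Finset Crest.Agent.R136.Sh605

set_option maxHeartbeats 800000 in
/-- the plane part of the strip lemma: base coordinates `y1, y2`, slopes `p, r` of the second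
normal. `(c, s)` = rotation of the base axes, `lg`, `sh` = the two half-widths. -/
theorem strip_plane {a w1 w2 p r τ : ℝ} (ha : 0 < a) (haw : a ≤ w2) (hw : w2 ≤ w1)
    (hpr : p ^ 2 + r ^ 2 ≤ 1) (hτ : τ = max (|p| * w1) (|r| * w2)) (haτ : a ≤ τ) (hτw : τ ≤ w2) :
    ∃ c s lg sh : ℝ, c ^ 2 + s ^ 2 = 1 ∧ 2 * a ≤ sh ∧ sh ≤ lg ∧ lg ≤ 16 * w1 ∧ sh ≤ 4 * w2 ∧
      sh * lg ≤ 128 * (a * w1 * w2 / τ) ∧
      ∀ y1 y2 : ℝ, |y1| ≤ 2 * w1 → |y2| ≤ 2 * w2 → |p * y1 + r * y2| ≤ 4 * a →
        |c * y1 + s * y2| ≤ lg ∧ |-s * y1 + c * y2| ≤ sh := by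
  have hw2 : 0 < w2 := ha.trans_le haw
  have hw1 : 0 < w1 := hw2.trans_le hw
  have hτ0 : 0 < τ := ha.trans_le haτ
  set ρ := Real.sqrt (p ^ 2 + r ^ 2) with hρ
  have hρ2 : ρ ^ 2 = p ^ 2 + r ^ 2 := Real.sq_sqrt (by positivity)
  have hρ1 : ρ ≤ 1 := by
    rw [hρ, ← Real.sqrt_one]; exact Real.sqrt_le_sqrt hpr
  have hpρ : |p| ≤ ρ := by
    rw [hρ, ← Real.sqrt_sq_eq_abs]; exact Real.sqrt_le_sqrt (by nlinarith [sq_nonneg r])
  have hrρ : |r| ≤ ρ := by
    rw [hρ, ← Real.sqrt_sq_eq_abs]; exact Real.sqrt_le_sqrt (by nlinarith [sq_nonneg p])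
  have hρ0 : 0 < ρ := by
    rcases lt_or_eq_of_le ((abs_nonneg p).trans hpρ) with h | h
    · exact h
    · exfalso
      rw [← h] at hpρ hrρ
      have h1 : |p| = 0 := le_antisymm hpρ (abs_nonneg _)
      have h2 : |r| = 0 := le_antisymm hrρ (abs_nonneg _)
      rw [h1, h2, zero_mul, zero_mul, max_self] at hτ
      linarith
  -- unit normal of the strip
  set n1 := p / ρ with hn1
  set n2 := r / ρ with hn2
  have hn : n1 ^ 2 + n2 ^ 2 = 1 := by
    rw [hn1, hn2, div_pow, div_pow, ← add_div, ← hρ2, div_self (by positivity)]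
  have hn1' : |n1| ≤ 1 := by rw [← sq_le_one_iff_abs_le_one]; nlinarith [sq_nonneg n2]
  have hn2' : |n2| ≤ 1 := by rw [← sq_le_one_iff_abs_le_one]; nlinarith [sq_nonneg n1]
  have hstrip : ∀ y1 y2 : ℝ, |p * y1 + r * y2| ≤ 4 * a → |n1 * y1 + n2 * y2| ≤ 4 * a / ρ := by
    intro y1 y2 h
    have : n1 * y1 + n2 * y2 = (p * y1 + r * y2) / ρ := by rw [hn1, hn2]; ring
    rw [this, abs_div, abs_of_pos hρ0]
    gcongr
  by_cases hA : |p| * w1 ≤ |r| * w2
  · -- case A: the strip runs along the wide axis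
    rw [max_eq_right hA] at hτ
    have hr0 : 0 < |r| := by
      by_contra h
      have : |r| = 0 := le_antisymm (not_lt.1 h) (abs_nonneg _)
      rw [this, zero_mul] at hτ
      linarith
    refine ⟨n2, -n1, 4 * w1, 4 * a * w2 / τ, by nlinarith, ?_, ?_, by linarith, ?_, ?_, ?_⟩
    · rw [le_div_iff₀ hτ0]; nlinarith
    · rw [div_le_iff₀ hτ0]
      calc 4 * a * w2 ≤ 4 * τ * w1 := by gcongr
        _ = _ := by ring
    · rw [div_le_iff₀ hτ0]
      calc 4 * a * w2 ≤ 4 * τ * w2 := by gcongr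
        _ = _ := by ring
    · have : 4 * a * w2 / τ * (4 * w1) = 16 * (a * w1 * w2 / τ) := by ring
      rw [this]
      have : 0 ≤ a * w1 * w2 / τ := by positivity
      linarith
    · intro y1 y2 h1 h2 h3
      constructor
      · calc |n2 * y1 + -n1 * y2| ≤ |n2 * y1| + |-n1 * y2| := abs_add_le _ _
          _ = |n2| * |y1| + |n1| * |y2| := by rw [abs_mul, abs_mul, abs_neg]
          _ ≤ 1 * (2 * w1) + 1 * (2 * w2) := by gcongr
          _ ≤ 4 * w1 := by linarith
      · have h4 := hstrip y1 y2 h3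
        have h5 : - -n1 * y1 + n2 * y2 = n1 * y1 + n2 * y2 := by ring
        rw [h5]
        refine h4.trans ?_
        rw [div_le_div_iff₀ hρ0 hτ0, hτ]
        calc 4 * a * (|r| * w2) ≤ 4 * a * (ρ * w2) := by gcongr
          _ = _ := by ring
  · rw [not_le] at hA
    rw [max_eq_left hA.le] at hτ
    have hp0 : 0 < |p| := by
      by_contra h
      have : |p| = 0 := le_antisymm (not_lt.1 h) (abs_nonneg _)
      rw [this, zero_mul] at hτ
      linarith
    by_cases hB : |r| * w2 ≤ a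
    · -- case B2: the strip is a cut of the wide axis
      have hc : ∀ y1 y2 : ℝ, |y2| ≤ 2 * w2 → |p * y1 + r * y2| ≤ 4 * a →
          |y1| ≤ 6 * a * w1 / τ := by
        intro y1 y2 h2 h3
        have h4 : |p| * |y1| ≤ 6 * a := by
          have : p * y1 = (p * y1 + r * y2) - r * y2 := by ring
          rw [← abs_mul, this]
          refine (abs_sub _ _).trans ?_
          have h5 : |r * y2| ≤ 2 * a := by
            rw [abs_mul]
            calc |r| * |y2| ≤ |r| * (2 * w2) := by gcongr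
              _ = 2 * (|r| * w2) := by ring
              _ ≤ 2 * a := by linarith
          linarith
        rw [le_div_iff₀ hτ0, hτ]
        calc |y1| * (|p| * w1) = |p| * |y1| * w1 := by ring
          _ ≤ 6 * a * w1 := by gcongr
      have h6 : 2 * a ≤ 6 * a * w1 / τ := by
        rw [le_div_iff₀ hτ0]
        calc 2 * a * τ ≤ 6 * a * w1 := by nlinarith
          _ = _ := by ring
      have h7 : 6 * a * w1 / τ ≤ 6 * w1 := by
        rw [div_le_iff₀ hτ0]
        nlinarith
      have h8 : 0 ≤ a * w1 * w2 / τ := by positivity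
      by_cases hC : 2 * w2 ≤ 6 * a * w1 / τ
      · refine ⟨1, 0, 6 * a * w1 / τ, 2 * w2, by norm_num, by linarith, hC, by linarith,
          by linarith, ?_, ?_⟩
        · have : 2 * w2 * (6 * a * w1 / τ) = 12 * (a * w1 * w2 / τ) := by ring
          linarith
        · intro y1 y2 h1 h2 h3
          have := hc y1 y2 h2 h3
          constructor
          · simpa using this
          · simpa using h2
      · rw [not_le] at hC
        refine ⟨0, 1, 2 * w2, 6 * a * w1 / τ, by norm_num, h6, hC.le, by linarith,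
          by linarith, ?_, ?_⟩
        · have : 6 * a * w1 / τ * (2 * w2) = 12 * (a * w1 * w2 / τ) := by ring
          linarith
        · intro y1 y2 h1 h2 h3
          have := hc y1 y2 h2 h3
          constructor
          · simpa using h2
          · simpa using this
    · -- case B1: diagonal strip
      rw [not_le] at hB
      have hn1p : 0 < |n1| := by rw [hn1, abs_div, abs_of_pos hρ0]; positivity
      have e1 : |n1| * ρ = |p| := by rw [hn1, abs_div, abs_of_pos hρ0]; field_simp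
      have e2 : |n2| * ρ = |r| := by rw [hn2, abs_div, abs_of_pos hρ0]; field_simp
      -- the long side
      set lg := 4 * a / ρ * (|n2| / |n1|) + 2 * w2 / |n1| with hlg
      have hlg0 : 2 * w2 ≤ lg := by
        have h1 : 2 * w2 ≤ 2 * w2 / |n1| := by
          rw [le_div_iff₀ hn1p]; nlinarith
        have h2 : 0 ≤ 4 * a / ρ * (|n2| / |n1|) := by positivity
        linarith
      have hsh : 4 * a / ρ ≤ 4 * w2 := by
        rw [div_le_iff₀ hρ0]
        have : |r| * w2 ≤ ρ * w2 := by gcongr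
        nlinarith
      have hn12 : |n2| * w2 ≤ |n1| * w1 := by
        have h1 : |n2| * ρ * w2 ≤ |n1| * ρ * w1 := by rw [e1, e2]; exact hA.le
        have h2 : (|n2| * w2) * ρ ≤ (|n1| * w1) * ρ := by linarith
        exact le_of_mul_le_mul_right h2 hρ0
      -- bound of the long side
      have hlg1 : w2 / |n1| ≤ 2 * w1 := by
        rw [div_le_iff₀ hn1p]
        have h0 : 1 ≤ |n1| + |n2| := by
          have a1 : |n1| * |n1| ≤ 1 * |n1| := mul_le_mul_of_nonneg_right hn1' (abs_nonneg _)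
          have a2 : |n2| * |n2| ≤ 1 * |n2| := mul_le_mul_of_nonneg_right hn2' (abs_nonneg _)
          rw [abs_mul_abs_self] at a1 a2
          linarith
        by_cases h : 1 / 2 ≤ |n1|
        · have h3 : 1 / 2 * w1 ≤ |n1| * w1 := mul_le_mul_of_nonneg_right h hw1.le
          linarith
        · rw [not_le] at h
          have h3 : 1 / 2 ≤ |n2| := by linarith
          have h4 : 1 / 2 * w2 ≤ |n2| * w2 := mul_le_mul_of_nonneg_right h3 hw2.le
          linarith
      have hlg2 : 4 * a / ρ * (|n2| / |n1|) ≤ 4 * w1 := by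
        have h1 : 4 * a / ρ * (|n2| / |n1|) = 4 * a * |n2| / (ρ * |n1|) := by field_simp
        rw [h1, div_le_iff₀ (by positivity), mul_comm ρ, e1]
        have h5 : a ≤ |p| * w1 := by rw [← hτ]; exact haτ
        nlinarith [abs_nonneg n2]
      have hlg3 : lg ≤ 8 * w1 := by
        have : 2 * w2 / |n1| = 2 * (w2 / |n1|) := by ring
        rw [hlg, this]; linarith
      -- the area
      have harea : 4 * a / ρ * lg ≤ 24 * (a * w1 * w2 / τ) := by
        have h1 : 4 * a / ρ * (2 * w2 / |n1|) = 8 * (a * w1 * w2 / τ) := by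
          rw [hτ, ← e1]; field_simp; norm_num
        have h2 : 4 * a / ρ * (4 * a / ρ * (|n2| / |n1|)) ≤ 16 * (a * w1 * w2 / τ) := by
          have h3 : 4 * a / ρ * (4 * a / ρ * (|n2| / |n1|)) =
              16 * (a / ρ * (|n2| * (a / (ρ * |n1|)))) := by field_simp; ring
          have h4 : a / (ρ * |n1|) = a * w1 / τ := by
            rw [hτ, ← e1]; field_simp
          have h5 : a / ρ ≤ w2 := by
            rw [div_le_iff₀ hρ0]
            have : |r| * w2 ≤ ρ * w2 := by gcongr
            linarith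
          rw [h3, h4]
          have h6 : a / ρ * (|n2| * (a * w1 / τ)) ≤ w2 * (1 * (a * w1 / τ)) := by gcongr
          calc 16 * (a / ρ * (|n2| * (a * w1 / τ))) ≤ 16 * (w2 * (1 * (a * w1 / τ))) := by
                gcongr
            _ = _ := by ring
        rw [hlg, mul_add]
        linarith
      have h8 : 0 ≤ a * w1 * w2 / τ := by positivity
      refine ⟨n2, -n1, 2 * lg, 4 * a / ρ, by nlinarith, ?_, by linarith, by linarith, hsh, ?_, ?_⟩
      · rw [le_div_iff₀ hρ0]; nlinarith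
      · linarith [harea]
      · intro y1 y2 h1 h2 h3
        have h4 := hstrip y1 y2 h3
        have h5 : - -n1 * y1 + n2 * y2 = n1 * y1 + n2 * y2 := by ring
        refine ⟨?_, by rw [h5]; exact h4⟩
        -- `n1 (n2 y1 - n1 y2) = n2 (n1 y1 + n2 y2) - y2`
        have h6 : n1 * (n2 * y1 + -n1 * y2) = n2 * (n1 * y1 + n2 * y2) - y2 := by
          have : n1 * (n2 * y1 + -n1 * y2) - (n2 * (n1 * y1 + n2 * y2) - y2) =
            (1 - (n1 ^ 2 + n2 ^ 2)) * y2 := by ring
          rw [hn, sub_self, zero_mul] at this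
          linarith
        have h7 : |n1| * |n2 * y1 + -n1 * y2| ≤ |n2| * (4 * a / ρ) + 2 * w2 := by
          rw [← abs_mul, h6]
          refine (abs_sub _ _).trans ?_
          rw [abs_mul]
          gcongr
        have h9 : |n2 * y1 + -n1 * y2| ≤ lg := by
          rw [hlg]
          have : 4 * a / ρ * (|n2| / |n1|) + 2 * w2 / |n1| =
            (|n2| * (4 * a / ρ) + 2 * w2) / |n1| := by ring
          rw [this, le_div_iff₀ hn1p]
          linarith
        have : 0 ≤ lg := by linarith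
        linarith

/-- **strip**: the lines common to two boxes with aligned wide axes lie in one narrow box. -/
theorem strip {e e' : Fin 3 → V3} (h : Ortho e) (h' : Ortho e') {a w1 w2 τ z0 ρ : ℝ} (ha : 0 < a)
    (haw : a ≤ w2) (hw : w2 ≤ w1) (hA : Aligned e e' w1 w2) (hτ : τ = tlt e e' w1 w2)
    (haτ : a ≤ τ) :
    ∃ (n : Fin 3 → V3) (lg sh : ℝ), Ortho n ∧ 2 * a ≤ sh ∧ sh ≤ lg ∧ lg ≤ 16 * w1 ∧ sh ≤ 4 * w2 ∧
      sh * lg ≤ 128 * (a * w1 * w2 / τ) ∧
      ∀ l l' t t0 : Ln4, InB t l e ![a, w1, w2] z0 ρ → InB t0 l e ![a, w1, w2] z0 ρ →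
        InB t l' e' ![a, w1, w2] z0 ρ → InB t0 l' e' ![a, w1, w2] z0 ρ →
          InB t t0 n ![2 * a, lg, sh] z0 ρ := by
  have hw2 : 0 < w2 := ha.trans_le haw
  have hpr : dt (e' 0) (e 1) ^ 2 + dt (e' 0) (e 2) ^ 2 ≤ 1 := by
    have h1 := (ortho_trans h h') 0 0
    simp only [dt, if_true, Matrix.cons_val_zero, Matrix.cons_val_one, Matrix.cons_val] at h1
    simp only [dt]
    nlinarith [sq_nonneg (e' 0 0 * e 0 0 + e' 0 1 * e 0 1 + e' 0 2 * e 0 2)]
  obtain ⟨c, s, lg, sh, hcs, h1, h2, h3, h3', h4, h5⟩ := strip_plane (p := dt (e' 0) (e 1))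
    (r := dt (e' 0) (e 2)) (τ := τ) ha haw hw hpr hτ haτ
    (by rw [hτ]; exact tlt_le h h' hw2.le hA)
  refine ⟨rotB e c s, lg, sh, rotB_ortho h hcs, h1, h2, h3, h3', h4, ?_⟩
  intro l l' t t0 p p0 p' p0' z hz0 hz1
  have q := p z hz0 hz1
  have q0 := p0 z hz0 hz1
  have q' := p' z hz0 hz1
  have q0' := p0' z hz0 hz1
  have hy : ∀ i, |dt (e i) (t.pos z - t0.pos z)| ≤ 2 * (![a, w1, w2] : V3) i := by
    intro i
    have : t.pos z - t0.pos z = (t.pos z - l.pos z) - (t0.pos z - l.pos z) := by abel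
    rw [this, dt_sub]
    exact (abs_sub _ _).trans (by linarith [q i, q0 i])
  have hy' : |dt (e' 0) (t.pos z - t0.pos z)| ≤ 2 * a := by
    have : t.pos z - t0.pos z = (t.pos z - l'.pos z) - (t0.pos z - l'.pos z) := by abel
    rw [this, dt_sub]
    have a1 := q' 0
    have a2 := q0' 0
    simp only [Matrix.cons_val_zero] at a1 a2
    exact (abs_sub _ _).trans (by linarith)
  have y0 := hy 0
  have y1 := hy 1
  have y2 := hy 2
  simp only [Matrix.cons_val_zero, Matrix.cons_val_one, Matrix.cons_val] at y0 y1 y2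
  have hst : |dt (e' 0) (e 1) * dt (e 1) (t.pos z - t0.pos z) +
      dt (e' 0) (e 2) * dt (e 2) (t.pos z - t0.pos z)| ≤ 4 * a := by
    have h6 := dt_expand h (e' 0) (t.pos z - t0.pos z)
    have h7 : dt (e' 0) (e 1) * dt (e 1) (t.pos z - t0.pos z) +
      dt (e' 0) (e 2) * dt (e 2) (t.pos z - t0.pos z) = dt (e' 0) (t.pos z - t0.pos z) -
        dt (e' 0) (e 0) * dt (e 0) (t.pos z - t0.pos z) := by rw [h6]; ring
    rw [h7]
    refine (abs_sub _ _).trans ?_
    rw [abs_mul]
    have h8 := abs_dt_le_one h h' 0 0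
    have h9 : |dt (e' 0) (e 0)| * |dt (e 0) (t.pos z - t0.pos z)| ≤ 1 * (2 * a) := by gcongr
    linarith
  have h10 := h5 _ _ y1 y2 hst
  intro i
  fin_cases i
  · simpa [rotB_0] using y0
  · simp only [Fin.mk_one, Matrix.cons_val_one, Matrix.cons_val_zero, rotB_1]
    exact h10.1
  · simp only [Fin.reduceFinMk, Matrix.cons_val, rotB_2]
    exact h10.2

end Crest.Agent.R136.Fl808
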