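import Crest.Agent.R136.Fl2_808

/-!
# R136 (S0187): one-step tilt count for flat boxes with aligned wide axes (helper808)

Two systems of boxes of the same dimensions `(a, w1, w2)` on the same lines (or on two families with
common lines), penalised D-max with rewards `q0` on the thickness, `q1`, `q2` on the wide and the
narrow side, `0 ≤ q0 < q2 ≤ q1`. The common lines whose two boxes have tilt `≥ x a` are at most
`C E1 E2 x^(q0 - q2) #T1`, `E` = loss of near-maximality.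
-/

set_option autoImplicit false
set_option linter.unusedVariables false

namespace Crest.Agent.R136.Fl808

open Finset Crest.Agent.R136.Sh605

noncomputable section

/-- penalised volume of a box of dimensions `(a, w1, w2)` -/
def capB (q0 q1 q2 a w1 w2 : ℝ) : ℝ := a ^ (1 + q0) * w2 ^ (1 + q2) * w1 ^ (1 + q1)

open Classical in
/-- D-max for flat boxes, over the heights `[z0, z0 + ρ]` -/
def DMaxB {ι : Type*} (T : Finset ι) (L : ι → Ln4) (z0 ρ D q0 q1 q2 r0 R0 : ℝ) : Prop :=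
  ∀ (n : Fin 3 → V3) (l : Ln4) (a w1 w2 : ℝ), Ortho n → r0 ≤ a → a ≤ w2 → w2 ≤ w1 → w1 ≤ R0 →
    ((T.filter fun t => InB (L t) l n ![a, w1, w2] z0 ρ).card : ℝ) ≤ D * capB q0 q1 q2 a w1 w2

open Classical in
/-- D-max for flat boxes of lateral widths at least `ω1`, `ω2` and at most `R0`, `R2`, of
thickness between `r0` and `Ra` -/
def DMaxW {ι : Type*} (T : Finset ι) (L : ι → Ln4) (z0 ρ D q0 q1 q2 r0 ω1 ω2 R0 R2 Ra : ℝ) :
    Prop :=
  ∀ (n : Fin 3 → V3) (l : Ln4) (a w1 w2 : ℝ), Ortho n → r0 ≤ a → a ≤ w2 → w2 ≤ w1 → ω1 ≤ w1 →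
    ω2 ≤ w2 → w1 ≤ R0 → w2 ≤ R2 → a ≤ Ra →
    ((T.filter fun t => InB (L t) l n ![a, w1, w2] z0 ρ).card : ℝ) ≤ D * capB q0 q1 q2 a w1 w2

theorem DMaxB.toW {ι : Type*} {T : Finset ι} {L : ι → Ln4} {z0 ρ D q0 q1 q2 r0 R0 : ℝ}
    (h : DMaxB T L z0 ρ D q0 q1 q2 r0 R0) (ω1 ω2 R2 Ra : ℝ) :
    DMaxW T L z0 ρ D q0 q1 q2 r0 ω1 ω2 R0 R2 Ra :=
  fun n l a w1 w2 h1 h2 h3 h4 _ _ h5 _ _ => h n l a w1 w2 h1 h2 h3 h4 h5

open Classical in
/-- a system of boxes of dimensions `(a, w1, w2)`: every line lies in the box of its class and every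
class has at least `A` lines -/
structure SysB {ι α : Type*} (T : Finset ι) (L : ι → Ln4) (f : ι → α) (b : α → Ln4)
    (e : α → Fin 3 → V3) (a w1 w2 z0 ρ A : ℝ) : Prop where
  ortho : ∀ t ∈ T, Ortho (e (f t))
  mem : ∀ t ∈ T, InB (L t) (b (f t)) (e (f t)) ![a, w1, w2] z0 ρ
  low : ∀ t ∈ T, A ≤ ((T.filter fun s => f s = f t).card : ℝ)

theorem capB_pos {q0 q1 q2 a w1 w2 : ℝ} (ha : 0 < a) (h1 : 0 < w1) (h2 : 0 < w2) :
    0 < capB q0 q1 q2 a w1 w2 := by unfold capB; positivity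

/-- the constant of the one-step count -/
def cF (q0 q1 q2 : ℝ) : ℝ :=
  44 ^ (1 + q0) * (11 ^ (1 + q2) * 11 ^ (1 + q1) * (128 ^ (1 + q2) * 16 ^ (q1 - q2)))

theorem cF_pos (q0 q1 q2 : ℝ) : 0 < cF q0 q1 q2 := by unfold cF; positivity

/-- penalised volume of a narrow box -/
theorem cap_strip {q0 q1 q2 a w1 w2 τ lg sh : ℝ} (ha : 0 < a) (hw1 : 0 < w1) (hw2 : 0 < w2)
    (hτ : 0 < τ) (hq2 : 0 ≤ q2) (hq : q2 ≤ q1) (h1 : 2 * a ≤ sh) (h2 : sh ≤ lg)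
    (h3 : lg ≤ 16 * w1) (h4 : sh * lg ≤ 128 * (a * w1 * w2 / τ)) :
    capB q0 q1 q2 (2 * a) lg sh ≤
      2 ^ (1 + q0) * (128 ^ (1 + q2) * 16 ^ (q1 - q2)) * (a / τ) ^ (1 + q2) *
        capB q0 q1 q2 a w1 w2 := by
  have hsh : 0 < sh := by linarith
  have hlg : 0 < lg := by linarith
  unfold capB
  have e1 : lg ^ (1 + q1) = lg ^ (1 + q2) * lg ^ (q1 - q2) := by
    rw [← Real.rpow_add hlg]; congr 1; ring
  have e2 : sh ^ (1 + q2) * lg ^ (1 + q2) = (sh * lg) ^ (1 + q2) :=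
    (Real.mul_rpow hsh.le hlg.le).symm
  have e3 : (128 * (a * w1 * w2 / τ)) ^ (1 + q2) =
      128 ^ (1 + q2) * (a / τ) ^ (1 + q2) * w2 ^ (1 + q2) * w1 ^ (1 + q2) := by
    have : 128 * (a * w1 * w2 / τ) = 128 * (a / τ) * w2 * w1 := by ring
    rw [this, Real.mul_rpow (by positivity) hw1.le, Real.mul_rpow (by positivity) hw2.le,
      Real.mul_rpow (by norm_num) (by positivity)]
  have e4 : w1 ^ (1 + q1) = w1 ^ (1 + q2) * w1 ^ (q1 - q2) := by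
    rw [← Real.rpow_add hw1]; congr 1; ring
  have e5 : (2 * a) ^ (1 + q0) = 2 ^ (1 + q0) * a ^ (1 + q0) := Real.mul_rpow (by norm_num) ha.le
  calc (2 * a) ^ (1 + q0) * sh ^ (1 + q2) * lg ^ (1 + q1)
      = (2 * a) ^ (1 + q0) * ((sh * lg) ^ (1 + q2) * lg ^ (q1 - q2)) := by rw [e1, ← e2]; ring
    _ ≤ (2 * a) ^ (1 + q0) * ((128 * (a * w1 * w2 / τ)) ^ (1 + q2) *
          (16 * w1) ^ (q1 - q2)) := by
        gcongr
    _ = _ := by
        rw [e3, e5, Real.mul_rpow (by norm_num) hw1.le, e4]; ring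

section comb

variable {ι α β : Type*} {T1 T2 : Finset ι} {L : ι → Ln4} {f : ι → α} {g : ι → β} {bK : α → Ln4}
  {eK : α → Fin 3 → V3} {bK' : β → Ln4} {eK' : β → Fin 3 → V3}
  {a w1 w2 z0 ρ A1 A2 D1 D2 q0 q1 q2 r0 R0 R2 Ra ω1 ω2 : ℝ}

open Classical in
/-- the classes of the second system meeting the class `k` at tilt in `[τ, 2 τ]` -/
def JJ (T1 T2 : Finset ι) (f : ι → α) (g : ι → β) (eK : α → Fin 3 → V3) (eK' : β → Fin 3 → V3)
    (w1 w2 : ℝ) (k : α) (τ : ℝ) : Finset β :=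
  (T2.image g).filter fun b => Aligned (eK k) (eK' b) w1 w2 ∧ τ ≤ tlt (eK k) (eK' b) w1 w2 ∧
    tlt (eK k) (eK' b) w1 w2 ≤ 2 * τ ∧ ∃ t ∈ T1, t ∈ T2 ∧ f t = k ∧ g t = b

open Classical in
theorem card_JJ (h1 : SysB T1 L f bK eK a w1 w2 z0 ρ A1) (h2 : SysB T2 L g bK' eK' a w1 w2 z0 ρ A2)
    (d2 : DMaxW T2 L z0 ρ D2 q0 q1 q2 r0 ω1 ω2 R0 R2 Ra) (ha : 0 < a) (haw : a ≤ w2) (hw : w2 ≤ w1)
    (hr0 : r0 ≤ a) (hR0 : 16 * w1 ≤ R0) (hR2 : 16 * w2 ≤ R2) (hD2 : 0 ≤ D2) (hA2 : 0 < A2)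
    (hq0 : 0 ≤ q0) (hω1 : ω1 ≤ w1) (hω2 : ω2 ≤ w2) {k : α} {τ : ℝ} (hRa : 22 * τ ≤ Ra)
    (hτ : a ≤ τ) :
    ((JJ T1 T2 f g eK eK' w1 w2 k τ).card : ℝ) * A2 ≤
      D2 * ((22 * (τ / a)) ^ (1 + q0) * (11 ^ (1 + q2) * 11 ^ (1 + q1)) *
        capB q0 q1 q2 a w1 w2) := by
  have hw2 : 0 < w2 := ha.trans_le haw
  have hw1 : 0 < w1 := hw2.trans_le hw
  set J := JJ T1 T2 f g eK eK' w1 w2 k τ with hJ
  have hcap := capB_pos (q0 := q0) (q1 := q1) (q2 := q2) ha hw1 hw2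
  rcases J.eq_empty_or_nonempty with hE | ⟨b0, hb0⟩
  · rw [hE]
    simp only [card_empty, Nat.cast_zero, zero_mul]
    have : 0 < τ := ha.trans_le hτ
    positivity
  have hb0' := hb0
  simp only [hJ, JJ, mem_filter, mem_image] at hb0'
  obtain ⟨-, -, -, -, t0, ht0, ht0', hf0, -⟩ := hb0'
  have hek : Ortho (eK k) := by rw [← hf0]; exact h1.ortho t0 ht0
  set τ' := min (2 * τ) w2 with hτ'
  have haτ' : a ≤ τ' := le_min (by linarith) haw
  have key : ∀ s ∈ T2, g s ∈ J → InB (L s) (bK k) (eK k) ![11 * τ', 11 * w1, 11 * w2] z0 ρ := by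
    intro s hs hgs
    simp only [hJ, JJ, mem_filter, mem_image] at hgs
    obtain ⟨-, hal, hl, hu, t, ht, ht', hft, hgt⟩ := hgs
    have hes : Ortho (eK' (g s)) := h2.ortho s hs
    have m1 := h1.mem t ht
    have m2 := h2.mem t ht'
    have m3 := h2.mem s hs
    rw [hft] at m1
    rw [hgt] at m2
    exact hull hek hes ha haw hw hal (le_min hu (tlt_le hek hes hw2.le hal)) haτ' m1 m2 m3
  have h3 : (J.card : ℝ) * A2 ≤ ((T2.filter fun s => g s ∈ J).card : ℝ) := by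
    have e1 : (T2.filter fun s => g s ∈ J).card = ∑ b ∈ J, (T2.filter fun s => g s = b).card := by
      rw [card_eq_sum_card_fiberwise (f := g) (t := J) (fun s hs => by
        exact (mem_filter.1 hs).2)]
      refine sum_congr rfl fun b hb => ?_
      congr 1
      ext s
      simp only [mem_filter]
      constructor
      · rintro ⟨⟨h, _⟩, h'⟩; exact ⟨h, h'⟩
      · rintro ⟨h, h'⟩; exact ⟨⟨h, h' ▸ hb⟩, h'⟩
    rw [e1]
    push_cast
    rw [← nsmul_eq_mul, ← sum_const]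
    refine sum_le_sum fun b hb => ?_
    have hb' := hb
    simp only [hJ, JJ, mem_filter, mem_image] at hb'
    obtain ⟨⟨s, hs, hgs⟩, -⟩ := hb'
    rw [← hgs]; exact h2.low s hs
  have h4 : ((T2.filter fun s => g s ∈ J).card : ℝ) ≤
      ((T2.filter fun s => InB (L s) (bK k) (eK k) ![11 * τ', 11 * w1, 11 * w2] z0 ρ).card : ℝ) := by
    refine Nat.cast_le.2 (card_le_card fun s hs => ?_)
    rw [mem_filter] at hs ⊢
    exact ⟨hs.1, key s hs.1 hs.2⟩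
  have h5 := d2 (eK k) (bK k) (11 * τ') (11 * w1) (11 * w2) hek (by linarith)
    (by have : τ' ≤ w2 := min_le_right _ _
        linarith) (by linarith) (by linarith) (by linarith) (by linarith) (by linarith)
    (by have : τ' ≤ 2 * τ := min_le_left _ _
        linarith)
  refine (h3.trans (h4.trans h5)).trans ?_
  refine mul_le_mul_of_nonneg_left ?_ hD2
  unfold capB
  rw [Real.mul_rpow (by norm_num) hw2.le, Real.mul_rpow (by norm_num) hw1.le]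
  have h6 : τ' ≤ 2 * τ := min_le_left _ _
  have hτ0 : 0 < τ := ha.trans_le hτ
  have h7 : (11 * (2 * τ)) ^ (1 + q0) = (22 * (τ / a)) ^ (1 + q0) * a ^ (1 + q0) := by
    rw [← Real.mul_rpow (by positivity) ha.le]; congr 1; field_simp; norm_num
  have h8 : 0 < τ' := ha.trans_le haτ'
  calc (11 * τ') ^ (1 + q0) * (11 ^ (1 + q2) * w2 ^ (1 + q2)) * (11 ^ (1 + q1) * w1 ^ (1 + q1))
      ≤ (11 * (2 * τ)) ^ (1 + q0) * (11 ^ (1 + q2) * w2 ^ (1 + q2)) *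
        (11 ^ (1 + q1) * w1 ^ (1 + q1)) := by
        gcongr
    _ = _ := by rw [h7]; ring

open Classical in
theorem card_strip (h1 : SysB T1 L f bK eK a w1 w2 z0 ρ A1)
    (h2 : SysB T2 L g bK' eK' a w1 w2 z0 ρ A2)
    (d1 : DMaxW T1 L z0 ρ D1 q0 q1 q2 r0 ω1 ω2 R0 R2 Ra) (ha : 0 < a) (haw : a ≤ w2) (hw : w2 ≤ w1)
    (hr0 : r0 ≤ a) (hR0 : 16 * w1 ≤ R0) (hR2 : 16 * w2 ≤ R2) (hD1 : 0 ≤ D1) (hq2 : 0 ≤ q2)
    (hq : q2 ≤ q1) (hω : ω2 ≤ ω1) {k : α} {b : β} {τ : ℝ} (hRa : 22 * τ ≤ Ra) (hτ : a ≤ τ) (hω1 : ω1 * τ ≤ a * w1)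
    (hω2 : ω2 * τ ≤ a * w2) (hal : Aligned (eK k) (eK' b) w1 w2)
    (hl : τ ≤ tlt (eK k) (eK' b) w1 w2) :
    ((T1.filter fun t => t ∈ T2 ∧ f t = k ∧ g t = b).card : ℝ) ≤
      D1 * (2 ^ (1 + q0) * (128 ^ (1 + q2) * 16 ^ (q1 - q2)) * (a / τ) ^ (1 + q2) *
        capB q0 q1 q2 a w1 w2) := by
  have hw2 : 0 < w2 := ha.trans_le haw
  have hw1 : 0 < w1 := hw2.trans_le hw
  have hτ0 : 0 < τ := ha.trans_le hτ
  have hcap := capB_pos (q0 := q0) (q1 := q1) (q2 := q2) ha hw1 hw2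
  rcases (T1.filter fun t => t ∈ T2 ∧ f t = k ∧ g t = b).eq_empty_or_nonempty with hE | ⟨t0, ht0⟩
  · rw [hE]
    simp only [card_empty, Nat.cast_zero]
    positivity
  rw [mem_filter] at ht0
  obtain ⟨ht0, ht0', hf0, hg0⟩ := ht0
  have hek : Ortho (eK k) := by rw [← hf0]; exact h1.ortho t0 ht0
  have heb : Ortho (eK' b) := by rw [← hg0]; exact h2.ortho t0 ht0'
  obtain ⟨n, lg, sh, hn, c1, c2, c3, c3', c4, c5⟩ := strip (z0 := z0) (ρ := ρ) hek heb ha haw hw hal rfl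
    (hτ.trans hl)
  have h3 : ((T1.filter fun t => t ∈ T2 ∧ f t = k ∧ g t = b).card : ℝ) ≤
      ((T1.filter fun t => InB (L t) (L t0) n ![2 * a, max lg ω1, max sh ω2] z0 ρ).card : ℝ) := by
    refine Nat.cast_le.2 (card_le_card fun t ht => ?_)
    rw [mem_filter] at ht ⊢
    obtain ⟨ht, ht', hft, hgt⟩ := ht
    refine ⟨ht, ?_⟩
    have m1 := h1.mem t ht
    have m2 := h2.mem t ht'
    have m3 := h1.mem t0 ht0
    have m4 := h2.mem t0 ht0'
    rw [hft] at m1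
    rw [hgt] at m2
    rw [hf0] at m3
    rw [hg0] at m4
    have m5 := c5 _ _ _ _ m1 m3 m2 m4
    intro z hz hz' i
    have m6 := m5 z hz hz' i
    fin_cases i
    · simpa using m6
    · simp only [Fin.mk_one, Matrix.cons_val_one, Matrix.cons_val_zero] at m6 ⊢
      exact m6.trans (le_max_left _ _)
    · simp only [Fin.reduceFinMk, Matrix.cons_val] at m6 ⊢
      exact m6.trans (le_max_left _ _)
  have hω1' : ω1 ≤ w1 := by
    by_contra hc
    rw [not_le] at hc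
    have h6 : w1 * a < ω1 * τ := mul_lt_mul hc hτ ha (hw1.le.trans hc.le)
    linarith [mul_comm a w1]
  have hω2' : ω2 ≤ w2 := by
    by_contra hc
    rw [not_le] at hc
    have h6 : w2 * a < ω2 * τ := mul_lt_mul hc hτ ha (hw2.le.trans hc.le)
    linarith [mul_comm a w2]
  refine (h3.trans (d1 n (L t0) (2 * a) (max lg ω1) (max sh ω2) hn (by linarith)
    (c1.trans (le_max_left _ _)) (max_le_max c2 hω) (le_max_right _ _) (le_max_right _ _)
    (by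
      have : max lg ω1 ≤ 16 * w1 := max_le c3 (by linarith)
      linarith)
    (by
      have : max sh ω2 ≤ 4 * w2 := max_le c3' (by linarith)
      linarith) (by linarith))).trans ?_
  refine mul_le_mul_of_nonneg_left ?_ hD1
  have c4' : sh * lg ≤ 128 * (a * w1 * w2 / τ) := by
    refine c4.trans ?_
    gcongr
  have hsh0 : 0 < sh := by linarith
  have hlg0 : 0 < lg := by linarith
  have e1 : ω1 ≤ a * w1 / τ := by rw [le_div_iff₀ hτ0]; exact hω1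
  have e2 : ω2 ≤ a * w2 / τ := by rw [le_div_iff₀ hτ0]; exact hω2
  have c4'' : max sh ω2 * max lg ω1 ≤ 128 * (a * w1 * w2 / τ) := by
    have hv : 0 ≤ a * w1 * w2 / τ := by positivity
    rcases le_total ω2 sh with h6 | h6
    · rw [max_eq_left h6]
      rcases le_total ω1 lg with h7 | h7
      · rw [max_eq_left h7]; exact c4'
      · rw [max_eq_right h7]
        calc sh * ω1 ≤ 4 * w2 * (a * w1 / τ) :=
              mul_le_mul c3' e1 (hlg0.le.trans h7) (by positivity)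
          _ = 4 * (a * w1 * w2 / τ) := by ring
          _ ≤ _ := by linarith
    · rw [max_eq_right h6]
      have hω20 : 0 ≤ ω2 := hsh0.le.trans h6
      have h8 : max lg ω1 ≤ 16 * w1 := max_le c3 (by linarith)
      calc ω2 * max lg ω1 ≤ (a * w2 / τ) * (16 * w1) :=
            mul_le_mul e2 h8 (hlg0.le.trans (le_max_left _ _)) (by positivity)
        _ = 16 * (a * w1 * w2 / τ) := by ring
        _ ≤ _ := by linarith
  exact cap_strip ha hw1 hw2 hτ0 hq2 hq (c1.trans (le_max_left _ _)) (max_le_max c2 hω)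
    (max_le c3 (by linarith)) c4''

open Classical in
/-- one class, one dyadic tilt -/
theorem bad_one (h1 : SysB T1 L f bK eK a w1 w2 z0 ρ A1)
    (h2 : SysB T2 L g bK' eK' a w1 w2 z0 ρ A2)
    (d1 : DMaxW T1 L z0 ρ D1 q0 q1 q2 r0 ω1 ω2 R0 R2 Ra)
    (d2 : DMaxW T2 L z0 ρ D2 q0 q1 q2 r0 ω1 ω2 R0 R2 Ra)
    (ha : 0 < a) (haw : a ≤ w2) (hw : w2 ≤ w1)
    (hr0 : r0 ≤ a) (hR0 : 16 * w1 ≤ R0) (hR2 : 16 * w2 ≤ R2) (hD1 : 0 ≤ D1) (hD2 : 0 ≤ D2) (hA2 : 0 < A2)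
    (hq0 : 0 ≤ q0) (hq2 : 0 ≤ q2) (hq : q2 ≤ q1) (hω : ω2 ≤ ω1) {τ : ℝ} (hRa : 22 * τ ≤ Ra)
    (hτ : a ≤ τ)
    (hω1 : ω1 * τ ≤ a * w1) (hω2 : ω2 * τ ≤ a * w2) (k : α) :
    ((T1.filter fun t => f t = k ∧ t ∈ T2 ∧ Aligned (eK k) (eK' (g t)) w1 w2 ∧
        τ ≤ tlt (eK k) (eK' (g t)) w1 w2 ∧ tlt (eK k) (eK' (g t)) w1 w2 ≤ 2 * τ).card : ℝ) ≤
      cF q0 q1 q2 * (D1 * capB q0 q1 q2 a w1 w2) * (D2 * capB q0 q1 q2 a w1 w2 / A2) *
        (a / τ) ^ (q2 - q0) := by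
  have hw2 : 0 < w2 := ha.trans_le haw
  have hw1 : 0 < w1 := hw2.trans_le hw
  have hτ0 : 0 < τ := ha.trans_le hτ
  have hcap := capB_pos (q0 := q0) (q1 := q1) (q2 := q2) ha hw1 hw2
  set J := JJ T1 T2 f g eK eK' w1 w2 k τ with hJ
  have h3 : (T1.filter fun t => f t = k ∧ t ∈ T2 ∧ Aligned (eK k) (eK' (g t)) w1 w2 ∧
        τ ≤ tlt (eK k) (eK' (g t)) w1 w2 ∧ tlt (eK k) (eK' (g t)) w1 w2 ≤ 2 * τ) ⊆
      J.biUnion fun b => T1.filter fun t => t ∈ T2 ∧ f t = k ∧ g t = b := by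
    intro t ht
    rw [mem_filter] at ht
    obtain ⟨ht, hft, ht', hal, hl, hu⟩ := ht
    rw [mem_biUnion]
    refine ⟨g t, ?_, ?_⟩
    · simp only [hJ, JJ, mem_filter, mem_image]
      exact ⟨⟨t, ht', rfl⟩, hal, hl, hu, t, ht, ht', hft, rfl⟩
    · rw [mem_filter]; exact ⟨ht, ht', hft, rfl⟩
  have h4 : ((T1.filter fun t => f t = k ∧ t ∈ T2 ∧ Aligned (eK k) (eK' (g t)) w1 w2 ∧
        τ ≤ tlt (eK k) (eK' (g t)) w1 w2 ∧ tlt (eK k) (eK' (g t)) w1 w2 ≤ 2 * τ).card : ℝ) ≤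
      (J.card : ℝ) * (D1 * (2 ^ (1 + q0) * (128 ^ (1 + q2) * 16 ^ (q1 - q2)) * (a / τ) ^ (1 + q2) *
        capB q0 q1 q2 a w1 w2)) := by
    have h5 := (card_le_card h3).trans card_biUnion_le
    have h6 : ((∑ b ∈ J, (T1.filter fun t => t ∈ T2 ∧ f t = k ∧ g t = b).card : ℕ) : ℝ) ≤
        ∑ b ∈ J, (D1 * (2 ^ (1 + q0) * (128 ^ (1 + q2) * 16 ^ (q1 - q2)) * (a / τ) ^ (1 + q2) *
        capB q0 q1 q2 a w1 w2)) := by
      push_cast
      refine sum_le_sum fun b hb => ?_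
      simp only [hJ, JJ, mem_filter, mem_image] at hb
      obtain ⟨-, hal, hl, -, -⟩ := hb
      exact card_strip h1 h2 d1 ha haw hw hr0 hR0 hR2 hD1 hq2 hq hω hRa hτ hω1 hω2 hal hl
    rw [sum_const, nsmul_eq_mul] at h6
    exact le_trans (Nat.cast_le.2 h5) h6
  have hω1' : ω1 ≤ w1 := by
    by_contra hc
    rw [not_le] at hc
    have h6 : w1 * a < ω1 * τ := mul_lt_mul hc hτ ha (hw1.le.trans hc.le)
    linarith [mul_comm a w1]
  have hω2' : ω2 ≤ w2 := by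
    by_contra hc
    rw [not_le] at hc
    have h6 : w2 * a < ω2 * τ := mul_lt_mul hc hτ ha (hw2.le.trans hc.le)
    linarith [mul_comm a w2]
  have h7 := card_JJ (k := k) h1 h2 d2 ha haw hw hr0 hR0 hR2 hD2 hA2 hq0 hω1' hω2' hRa hτ
  refine h4.trans ?_
  have h8 : (J.card : ℝ) ≤ D2 * ((22 * (τ / a)) ^ (1 + q0) * (11 ^ (1 + q2) * 11 ^ (1 + q1)) *
      capB q0 q1 q2 a w1 w2) / A2 := by rw [le_div_iff₀ hA2]; exact h7
  have h9 : (22 * (τ / a)) ^ (1 + q0) * (2 ^ (1 + q0) * (a / τ) ^ (1 + q2)) =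
      44 ^ (1 + q0) * (a / τ) ^ (q2 - q0) := by
    have hx : 0 < a / τ := by positivity
    have e1 : 22 * (τ / a) = 22 * (a / τ)⁻¹ := by rw [inv_div]
    rw [e1, Real.mul_rpow (by norm_num) (by positivity), Real.inv_rpow hx.le,
      ← Real.rpow_neg hx.le]
    have e2 : (44 : ℝ) ^ (1 + q0) = 22 ^ (1 + q0) * 2 ^ (1 + q0) := by
      rw [← Real.mul_rpow (by norm_num) (by norm_num)]; norm_num
    have e3 : (a / τ) ^ (q2 - q0) = (a / τ) ^ (-(1 + q0)) * (a / τ) ^ (1 + q2) := by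
      rw [← Real.rpow_add hx]; congr 1; ring
    rw [e2, e3]; ring
  calc (J.card : ℝ) * (D1 * (2 ^ (1 + q0) * (128 ^ (1 + q2) * 16 ^ (q1 - q2)) * (a / τ) ^ (1 + q2) *
        capB q0 q1 q2 a w1 w2))
      ≤ D2 * ((22 * (τ / a)) ^ (1 + q0) * (11 ^ (1 + q2) * 11 ^ (1 + q1)) *
        capB q0 q1 q2 a w1 w2) / A2 * (D1 * (2 ^ (1 + q0) * (128 ^ (1 + q2) * 16 ^ (q1 - q2)) *
        (a / τ) ^ (1 + q2) * capB q0 q1 q2 a w1 w2)) := by
        refine mul_le_mul_of_nonneg_right h8 ?_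
        positivity
    _ = ((22 * (τ / a)) ^ (1 + q0) * (2 ^ (1 + q0) * (a / τ) ^ (1 + q2))) *
          (D2 * ((11 ^ (1 + q2) * 11 ^ (1 + q1)) * capB q0 q1 q2 a w1 w2) / A2 *
          (D1 * ((128 ^ (1 + q2) * 16 ^ (q1 - q2)) * capB q0 q1 q2 a w1 w2))) := by ring
    _ = _ := by
        rw [h9, cF]
        ring

open Classical in
/-- **one-step tilt count** -/
theorem flat_one (h1 : SysB T1 L f bK eK a w1 w2 z0 ρ A1)
    (h2 : SysB T2 L g bK' eK' a w1 w2 z0 ρ A2)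
    (d1 : DMaxW T1 L z0 ρ D1 q0 q1 q2 r0 ω1 ω2 R0 R2 Ra)
    (d2 : DMaxW T2 L z0 ρ D2 q0 q1 q2 r0 ω1 ω2 R0 R2 Ra)
    (ha : 0 < a) (haw : a ≤ w2) (hw : w2 ≤ w1)
    (hr0 : r0 ≤ a) (hR0 : 16 * w1 ≤ R0) (hR2 : 16 * w2 ≤ R2) (hD1 : 0 ≤ D1) (hD2 : 0 ≤ D2) (hA1 : 0 < A1)
    (hA2 : 0 < A2) (hq0 : 0 ≤ q0) (hq02 : q0 < q2) (hq : q2 ≤ q1) (hω : ω2 ≤ ω1)
    (hω20 : 0 ≤ ω2) {x X : ℝ} (hx : 1 ≤ x) (hRa : 22 * (X * a) ≤ Ra) (hω1 : ω1 * X ≤ w1)
    (hω2 : ω2 * X ≤ w2) :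
    ((T1.filter fun t => t ∈ T2 ∧ Aligned (eK (f t)) (eK' (g t)) w1 w2 ∧
        x * a ≤ tlt (eK (f t)) (eK' (g t)) w1 w2 ∧
        tlt (eK (f t)) (eK' (g t)) w1 w2 ≤ X * a).card : ℝ) ≤
      cF q0 q1 q2 / (1 - 2 ^ (-(q2 - q0))) * (D1 * capB q0 q1 q2 a w1 w2 / A1) *
        (D2 * capB q0 q1 q2 a w1 w2 / A2) * x ^ (-(q2 - q0)) * (T1.card : ℝ) := by
  have hw2 : 0 < w2 := ha.trans_le haw
  have hw1 : 0 < w1 := hw2.trans_le hw
  have hx0 : 0 < x := by linarith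
  have hcap := capB_pos (q0 := q0) (q1 := q1) (q2 := q2) ha hw1 hw2
  have hc := cF_pos q0 q1 q2
  have hr : (2 : ℝ) ^ (-(q2 - q0)) < 1 := Real.rpow_lt_one_of_one_lt_of_neg (by norm_num) (by linarith)
  have hr0' : 0 < (2 : ℝ) ^ (-(q2 - q0)) := by positivity
  set E2 := D2 * capB q0 q1 q2 a w1 w2 / A2 with hE2
  have hE20 : 0 ≤ E2 := by positivity
  set G := D1 * capB q0 q1 q2 a w1 w2 with hG
  have hG0 : 0 ≤ G := by positivity
  -- number of dyadic tilts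
  have hexN : ∃ N : ℕ, X * a < x * a * 2 ^ N := by
    obtain ⟨N, hN⟩ := pow_unbounded_of_one_lt (X * a / (x * a)) (by norm_num : (1 : ℝ) < 2)
    refine ⟨N, ?_⟩
    rw [div_lt_iff₀ (by positivity)] at hN
    linarith
  obtain ⟨N, hN, hNlt⟩ : ∃ N : ℕ, X * a < x * a * 2 ^ N ∧ ∀ j < N, x * a * 2 ^ j ≤ X * a :=
    ⟨Nat.find hexN, Nat.find_spec hexN, fun j hj => not_lt.1 (Nat.find_min hexN hj)⟩
  set bad : ι → Prop := fun t => t ∈ T2 ∧ Aligned (eK (f t)) (eK' (g t)) w1 w2 ∧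
    x * a ≤ tlt (eK (f t)) (eK' (g t)) w1 w2 ∧
    tlt (eK (f t)) (eK' (g t)) w1 w2 ≤ X * a with hbad
  have hone : ∀ k ∈ T1.image f, ((T1.filter fun t => f t = k ∧ bad t).card : ℝ) ≤
      cF q0 q1 q2 / (1 - 2 ^ (-(q2 - q0))) * G * E2 * x ^ (-(q2 - q0)) := by
    intro k hk
    rw [mem_image] at hk
    obtain ⟨s0, hs0, rfl⟩ := hk
    set k := f s0 with hk
    have hek : Ortho (eK k) := h1.ortho s0 hs0
    have h3 : (T1.filter fun t => f t = k ∧ bad t) ⊆ (range N).biUnion fun j =>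
        T1.filter fun t => f t = k ∧ t ∈ T2 ∧ Aligned (eK k) (eK' (g t)) w1 w2 ∧
          x * a * 2 ^ j ≤ tlt (eK k) (eK' (g t)) w1 w2 ∧
          tlt (eK k) (eK' (g t)) w1 w2 ≤ 2 * (x * a * 2 ^ j) := by
      intro t ht
      rw [mem_filter] at ht
      obtain ⟨ht, hft, ht', hal, hl, hy1⟩ := ht
      rw [hft] at hal hl hy1
      set y := tlt (eK k) (eK' (g t)) w1 w2 with hy
      have hex : ∃ j, y < x * a * 2 ^ (j + 1) := by
        refine ⟨N, lt_of_le_of_lt hy1 (hN.trans_le ?_)⟩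
        exact mul_le_mul_of_nonneg_left (pow_le_pow_right₀ (by norm_num) (Nat.le_succ N))
          (by positivity)
      set j := Nat.find hex with hj
      have hj1 : y < x * a * 2 ^ (j + 1) := Nat.find_spec hex
      have hj2 : x * a * 2 ^ j ≤ y := by
        rcases Nat.eq_zero_or_pos j with h0 | h0
        · rw [h0, pow_zero, mul_one]; exact hl
        · have := Nat.find_min hex (m := j - 1) (by omega)
          rw [not_lt, Nat.sub_add_cancel h0] at this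
          exact this
      have hjN : j < N := by
        by_contra h
        have : x * a * 2 ^ N ≤ x * a * 2 ^ j :=
          mul_le_mul_of_nonneg_left (pow_le_pow_right₀ (by norm_num) (not_lt.1 h)) (by positivity)
        linarith
      rw [mem_biUnion]
      refine ⟨j, mem_range.2 hjN, ?_⟩
      rw [mem_filter]
      refine ⟨ht, hft, ht', hal, hj2, ?_⟩
      rw [pow_succ] at hj1
      linarith
    have h4 : ((T1.filter fun t => f t = k ∧ bad t).card : ℝ) ≤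
        ∑ j ∈ range N, cF q0 q1 q2 * G * E2 * (x ^ (-(q2 - q0)) * (2 ^ (-(q2 - q0))) ^ j) := by
      refine (Nat.cast_le.2 ((card_le_card h3).trans card_biUnion_le)).trans ?_
      push_cast
      refine sum_le_sum fun j hj => ?_
      have hτ : a ≤ x * a * 2 ^ j := by
        have h1j : (1 : ℝ) ≤ 2 ^ j := one_le_pow₀ (by norm_num)
        calc a = 1 * a * 1 := by ring
          _ ≤ x * a * 2 ^ j := by gcongr
      have hjN := hNlt j (mem_range.1 hj)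
      have b1 : ω1 * (x * a * 2 ^ j) ≤ a * w1 := by
        calc ω1 * (x * a * 2 ^ j) ≤ ω1 * (X * a) :=
              mul_le_mul_of_nonneg_left hjN (hω20.trans hω)
          _ = a * (ω1 * X) := by ring
          _ ≤ a * w1 := by gcongr
      have b2 : ω2 * (x * a * 2 ^ j) ≤ a * w2 := by
        calc ω2 * (x * a * 2 ^ j) ≤ ω2 * (X * a) := mul_le_mul_of_nonneg_left hjN hω20
          _ = a * (ω2 * X) := by ring
          _ ≤ a * w2 := by gcongr
      have h5 := bad_one h1 h2 d1 d2 ha haw hw hr0 hR0 hR2 hD1 hD2 hA2 hq0 (hq0.trans hq02.le) hq hω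
        (by linarith) hτ b1 b2 k
      refine h5.trans (le_of_eq ?_)
      have e1 : a / (x * a * 2 ^ j) = x⁻¹ * ((2 : ℝ) ^ j)⁻¹ := by field_simp
      rw [e1, Real.mul_rpow (by positivity) (by positivity), Real.inv_rpow hx0.le,
        ← Real.rpow_neg hx0.le, Real.inv_rpow (by positivity), ← Real.rpow_neg (by positivity)]
      congr 2
      rw [← Real.rpow_natCast, ← Real.rpow_natCast, ← Real.rpow_mul (by norm_num),
        ← Real.rpow_mul (by norm_num)]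
      congr 1; ring
    refine h4.trans ?_
    have hgeo : ∑ j ∈ range N, ((2 : ℝ) ^ (-(q2 - q0))) ^ j ≤ 1 / (1 - 2 ^ (-(q2 - q0))) := by
      rw [le_div_iff₀ (by linarith), geom_sum_mul_neg]
      have : 0 < ((2 : ℝ) ^ (-(q2 - q0))) ^ N := by positivity
      linarith
    calc ∑ j ∈ range N, cF q0 q1 q2 * G * E2 * (x ^ (-(q2 - q0)) * (2 ^ (-(q2 - q0))) ^ j)
        = cF q0 q1 q2 * G * E2 * x ^ (-(q2 - q0)) * ∑ j ∈ range N, ((2 : ℝ) ^ (-(q2 - q0))) ^ j := by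
          rw [mul_sum]; refine sum_congr rfl fun _ _ => by ring
      _ ≤ cF q0 q1 q2 * G * E2 * x ^ (-(q2 - q0)) * (1 / (1 - 2 ^ (-(q2 - q0)))) := by gcongr
      _ = _ := by ring
  -- sum over the classes
  have h6 : ((T1.filter bad).card : ℝ) =
      ∑ k ∈ T1.image f, ((T1.filter fun t => f t = k ∧ bad t).card : ℝ) := by
    have e1 : (T1.filter bad).card = ∑ k ∈ T1.image f, ((T1.filter bad).filter
        fun t => f t = k).card :=
      card_eq_sum_card_fiberwise fun t ht =>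
        mem_image_of_mem f (mem_filter.1 ht).1
    rw [e1]
    push_cast
    refine sum_congr rfl fun k _ => ?_
    congr 2
    ext t
    simp only [mem_filter]
    tauto
  have h7 : (T1.card : ℝ) = ∑ k ∈ T1.image f, ((T1.filter fun t => f t = k).card : ℝ) := by
    exact_mod_cast card_eq_sum_card_image f T1
  rw [h6]
  have h8 : ∀ k ∈ T1.image f, ((T1.filter fun t => f t = k ∧ bad t).card : ℝ) ≤
      cF q0 q1 q2 / (1 - 2 ^ (-(q2 - q0))) * (G / A1) * E2 * x ^ (-(q2 - q0)) *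
        ((T1.filter fun t => f t = k).card : ℝ) := by
    intro k hk
    refine (hone k hk).trans ?_
    have hkA : A1 ≤ ((T1.filter fun t => f t = k).card : ℝ) := by
      obtain ⟨s0, hs0, rfl⟩ := mem_image.1 hk
      exact h1.low s0 hs0
    have h9 : 0 ≤ cF q0 q1 q2 / (1 - 2 ^ (-(q2 - q0))) * (G / A1) * E2 * x ^ (-(q2 - q0)) := by
      have : 0 < 1 - (2 : ℝ) ^ (-(q2 - q0)) := by linarith
      positivity
    calc cF q0 q1 q2 / (1 - 2 ^ (-(q2 - q0))) * G * E2 * x ^ (-(q2 - q0))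
        = cF q0 q1 q2 / (1 - 2 ^ (-(q2 - q0))) * (G / A1) * E2 * x ^ (-(q2 - q0)) * A1 := by field_simp
      _ ≤ _ := mul_le_mul_of_nonneg_left hkA h9
  calc ∑ k ∈ T1.image f, ((T1.filter fun t => f t = k ∧ bad t).card : ℝ)
      ≤ ∑ k ∈ T1.image f, cF q0 q1 q2 / (1 - 2 ^ (-(q2 - q0))) * (G / A1) * E2 * x ^ (-(q2 - q0)) *
        ((T1.filter fun t => f t = k).card : ℝ) := sum_le_sum h8
    _ = _ := by rw [← mul_sum, ← h7]

end comb

end

end Crest.Agent.R136.Fl808
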