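import Crest.Agent.R136.Fl3_808
import Crest.Agent.R136.Deep1_51
import Crest.Agent.R138.MkDef_163

/-!
# R136 (S0187): flat tilt, class counting at a deeper level (helper808)

* `deep_count2` : counting with global numbers of boxes.
* `gl` : grid label of a line of a box over a deep cell.
* `flat_deep` : if two systems of flat boxes have base tilt `λ = 2^j` everywhere, then
  `δ0² A1 A2 ≤ C n² (D' cap) (D cap)`, `D'` = D-max over the cells of length `λ α ρ`, `D` over the
  cells of length `α ρ`, `α = 2^-k`.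
-/

set_option autoImplicit false
set_option linter.unusedVariables false
set_option linter.unusedSectionVars false

namespace Crest.Agent.R136.Fl808

open Finset Crest.Agent.R136.Sh605
open Crest.Agent.R138.Mk163 (zl rho)
open Crest.Agent.R136.Deep51 (card_fib card_le_of_fib classes_le)

/-! ### counting -/

theorem dc1 {p n : ℝ} (h : 0 < n) : n * (p / (4 * n)) = p / 4 := by field_simp

theorem dc2 {p n1 n2 : ℝ} (h1 : 0 < n1) (h2 : 0 < n2) :
    p / (4 * n1) * (p / (4 * n2)) = p ^ 2 / (16 * n1 * n2) := by field_simp; norm_num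

/-- **deep counting, global form** -/
theorem deep_count2 {X β δ β' : Type*} [DecidableEq X] [DecidableEq β] [DecidableEq δ]
    [DecidableEq β'] (P : Finset X) (s : X → β) (C : X → δ) (t : X → β') {n1 n2 s0 D : ℝ}
    (hn1p : 0 < n1) (hn2p : 0 < n2) (hs0 : 0 ≤ s0) (hP : P.Nonempty)
    (hn1 : ((P.image s).card : ℝ) ≤ n1) (hn2 : ((P.image t).card : ℝ) ≤ n2)
    (htC : ∀ x ∈ P, ∀ y ∈ P, t x = t y → C x = C y)
    (cap : ∀ x ∈ P, ((P.filter fun y => s y = s x ∧ C y = C x).card : ℝ) ≤ s0)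
    (coin : ∀ x ∈ P, ((P.filter fun z => ∃ y ∈ P, s y = s x ∧ t z = t y).card : ℝ) ≤ D) :
    (P.card : ℝ) ^ 2 ≤ 16 * n1 * n2 * (s0 * D) := by
  classical
  have hPpos : (0 : ℝ) < (P.card : ℝ) := by exact_mod_cast card_pos.2 hP
  set θ : ℝ := (P.card : ℝ) / (4 * n2) with hθ
  have hθ0 : 0 < θ := by positivity
  set U := P.filter fun x => ((P.filter fun y => t y = t x).card : ℝ) ≤ θ with hU
  have hUc : (U.card : ℝ) ≤ n2 * θ := by
    refine card_le_of_fib U (P.image t) t ?_ hθ0.le hn2 ?_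
    · intro x hx; exact mem_image_of_mem _ (mem_filter.1 hx).1
    · intro b hb
      rcases (U.filter fun x => t x = b).eq_empty_or_nonempty with h | ⟨x, hx⟩
      · rw [h]; simpa using hθ0.le
      · rw [mem_filter, hU, mem_filter] at hx
        refine le_trans ?_ hx.1.2
        rw [← hx.2]
        norm_cast
        exact card_le_card (filter_subset_filter _ (filter_subset _ _))
  have e1 : n2 * θ = (P.card : ℝ) / 4 := dc1 hn2p
  rw [e1] at hUc
  set G := P.filter fun x => θ < ((P.filter fun y => t y = t x).card : ℝ) with hG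
  have hGU : (P.card : ℝ) = (U.card : ℝ) + (G.card : ℝ) := by
    have : G = P.filter fun x => ¬ (((P.filter fun y => t y = t x).card : ℝ) ≤ θ) := by
      rw [hG]; exact filter_congr fun x _ => by rw [not_le]
    rw [this, hU]
    have h := card_filter_add_card_filter_not (s := P)
      (fun x => ((P.filter fun y => t y = t x).card : ℝ) ≤ θ)
    exact_mod_cast h.symm
  have hq1 : (0 : ℝ) < (P.card : ℝ) / (4 * n1) := div_pos hPpos (by linarith)
  -- a popular `s`-box
  have hpop : ∃ b ∈ P.image s, (P.card : ℝ) / (4 * n1) ≤ ((G.filter fun x => s x = b).card : ℝ) := by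
    by_contra hcon
    push Not at hcon
    have h1 : (G.card : ℝ) ≤ n1 * ((P.card : ℝ) / (4 * n1)) := by
      refine card_le_of_fib G (P.image s) s ?_ hq1.le hn1 fun b hb => (hcon b hb).le
      intro x hx; exact mem_image_of_mem _ (mem_filter.1 hx).1
    have e2 : n1 * ((P.card : ℝ) / (4 * n1)) = (P.card : ℝ) / 4 := dc1 hn1p
    rw [e2] at h1
    linarith
  obtain ⟨b, hb, hbig⟩ := hpop
  set Gb := G.filter fun x => s x = b with hGb
  have hGbne : Gb.Nonempty := by
    rw [← card_pos]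
    have : (0 : ℝ) < (Gb.card : ℝ) := lt_of_lt_of_le hq1 hbig
    exact_mod_cast this
  have hcl : (Gb.card : ℝ) ≤ ((Gb.image C).card : ℝ) * s0 := by
    refine card_le_of_fib Gb (Gb.image C) C (fun y hy => mem_image_of_mem _ hy) hs0 le_rfl ?_
    intro c hc
    obtain ⟨y, hy, rfl⟩ := mem_image.1 hc
    have hy' := mem_filter.1 hy
    have hyP := (mem_filter.1 hy'.1).1
    refine le_trans ?_ (cap y hyP)
    norm_cast
    refine card_le_card ?_
    intro z hz
    rw [mem_filter, hGb, mem_filter, hG, mem_filter] at hz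
    exact mem_filter.2 ⟨hz.1.1.1, hz.1.2.trans hy'.2.symm, hz.2⟩
  have hbig2 : ((Gb.image C).card : ℝ) * θ ≤ D := by
    obtain ⟨x, hx⟩ := hGbne
    have hx' := mem_filter.1 hx
    have hxP := (mem_filter.1 hx'.1).1
    refine le_trans (classes_le _ _ C ?_) (coin x hxP)
    intro c hc
    obtain ⟨y, hy, rfl⟩ := mem_image.1 hc
    have hy' := mem_filter.1 hy
    have hyG := mem_filter.1 hy'.1
    refine hyG.2.le.trans ?_
    norm_cast
    refine card_le_card ?_
    intro z hz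
    rw [mem_filter] at hz
    exact mem_filter.2 ⟨mem_filter.2 ⟨hz.1, y, hyG.1, hy'.2.trans hx'.2.symm, hz.2⟩,
      htC z hz.1 y hyG.1 hz.2⟩
  have h1 : (P.card : ℝ) / (4 * n1) * θ ≤ s0 * D := by
    calc (P.card : ℝ) / (4 * n1) * θ ≤ ((Gb.image C).card : ℝ) * s0 * θ :=
          mul_le_mul_of_nonneg_right (hbig.trans hcl) hθ0.le
      _ = s0 * (((Gb.image C).card : ℝ) * θ) := by ring
      _ ≤ s0 * D := mul_le_mul_of_nonneg_left hbig2 hs0
  have e3 : (P.card : ℝ) / (4 * n1) * θ = (P.card : ℝ) ^ 2 / (16 * n1 * n2) := dc2 hn1p hn2p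
  rw [e3, div_le_iff₀ (by positivity)] at h1
  linarith

/-! ### grid labels -/

/-- grid label of the line `t` at the height `z` in the frame `e` around `l` -/
noncomputable def gl (e : Fin 3 → V3) (l : Ln4) (z s1 s2 : ℝ) (t : Ln4) : ℤ × ℤ :=
  (⌊dt (e 1) (t.pos z - l.pos z) / s1⌋, ⌊dt (e 2) (t.pos z - l.pos z) / s2⌋)

theorem pos_sub (t l : Ln4) (z z' : ℝ) :
    t.pos z' - l.pos z' = (t.pos z - l.pos z) + (z' - z) • (t.v - l.v) := by
  funext i
  simp only [Ln4.pos, Pi.sub_apply, Pi.add_apply, Pi.smul_apply, smul_eq_mul]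
  ring

/-- velocities of lines of one box -/
theorem vel_le {t l : Ln4} {e : Fin 3 → V3} {i : Fin 3} {W z0 ρ : ℝ} (hρ : 0 < ρ)
    (h : ∀ z, z0 ≤ z → z ≤ z0 + ρ → |dt (e i) (t.pos z - l.pos z)| ≤ W) :
    |dt (e i) (t.v - l.v)| * ρ ≤ 2 * W := by
  have h1 := h z0 le_rfl (by linarith)
  have h2 := h (z0 + ρ) (by linarith) le_rfl
  rw [pos_sub t l z0 (z0 + ρ), dt_add, dt_smul] at h2
  have h3 : (z0 + ρ - z0) * dt (e i) (t.v - l.v) =
      (dt (e i) (t.pos z0 - l.pos z0) + (z0 + ρ - z0) * dt (e i) (t.v - l.v)) -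
        dt (e i) (t.pos z0 - l.pos z0) := by ring
  have h4 : |dt (e i) (t.v - l.v)| * ρ = |(z0 + ρ - z0) * dt (e i) (t.v - l.v)| := by
    rw [abs_mul, add_sub_cancel_left, abs_of_pos hρ, mul_comm]
  rw [h4, h3]
  exact (abs_sub _ _).trans (by linarith)

/-- a line which is `s`-close at one height and slow stays close -/
theorem stay {t l : Ln4} {e : Fin 3 → V3} {i : Fin 3} {s V z z' : ℝ}
    (h1 : |dt (e i) (t.pos z - l.pos z)| ≤ s) (h2 : |dt (e i) (t.v - l.v)| * |z' - z| ≤ V) :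
    |dt (e i) (t.pos z' - l.pos z')| ≤ s + V := by
  rw [pos_sub t l z z', dt_add, dt_smul]
  refine (abs_add_le _ _).trans ?_
  rw [abs_mul]
  linarith [mul_comm |z' - z| |dt (e i) (t.v - l.v)|]

theorem diff_box {t t' l : Ln4} {e : Fin 3 → V3} {s : V3} {z0 ρ : ℝ} (h : InB t l e s z0 ρ)
    (h' : InB t' l e s z0 ρ) : InB t t' e (fun i => 2 * s i) z0 ρ := by
  intro z hz0 hz1 i
  have : t.pos z - t'.pos z = (t.pos z - l.pos z) - (t'.pos z - l.pos z) := by abel
  rw [this, dt_sub]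
  exact (abs_sub _ _).trans (by linarith [h z hz0 hz1 i, h' z hz0 hz1 i])

theorem abs_le_of_floor {x y w : ℝ} (hw : 0 < w) (h : ⌊x / w⌋ = ⌊y / w⌋) : |x - y| ≤ w := by
  have h1 := Int.abs_sub_lt_one_of_floor_eq_floor h
  have h2 : |x / w - y / w| = |x - y| / w := by rw [← sub_div, abs_div, abs_of_pos hw]
  rw [h2, div_lt_one hw] at h1
  exact h1.le

/-- two lines of one box with the same label at the beginning of a short cell -/
theorem grid_box {t t' l : Ln4} {e : Fin 3 → V3} {a w1 w2 s1 s2 z0 ρ z' ρ' : ℝ} (hρ : 0 < ρ)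
    (hρ' : 0 ≤ ρ') (hs1 : 0 < s1) (hs2 : 0 < s2) (hz : z0 ≤ z') (hz' : z' + ρ' ≤ z0 + ρ)
    (h1 : ρ' * w1 ≤ ρ * s1) (h2 : ρ' * w2 ≤ ρ * s2)
    (ht : InB t l e ![a, w1, w2] z0 ρ) (ht' : InB t' l e ![a, w1, w2] z0 ρ)
    (hl : gl e l z' s1 s2 t = gl e l z' s1 s2 t') : InB t t' e ![2 * a, 5 * s1, 5 * s2] z' ρ' := by
  have hd := diff_box ht ht'
  have e1 := congrArg Prod.fst hl
  have e2 := congrArg Prod.snd hl
  simp only [gl] at e1 e2
  have f1 := abs_le_of_floor hs1 e1
  have f2 := abs_le_of_floor hs2 e2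
  rw [← dt_sub] at f1 f2
  have g0 : t.pos z' - l.pos z' - (t'.pos z' - l.pos z') = t.pos z' - t'.pos z' := by abel
  rw [g0] at f1 f2
  have v1 := vel_le (e := e) (i := 1) hρ fun z hz0 hz1 => by
    have := hd z hz0 hz1 1
    simpa using this
  have v2 := vel_le (e := e) (i := 2) hρ fun z hz0 hz1 => by
    have := hd z hz0 hz1 2
    simpa using this
  have b1 : 0 ≤ 2 * (2 * w1) := le_trans (by positivity) v1
  have b2 : 0 ≤ 2 * (2 * w2) := le_trans (by positivity) v2
  intro z hz0 hz1 i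
  have hzz : |z - z'| ≤ ρ' := by rw [abs_of_nonneg (by linarith)]; linarith
  fin_cases i
  · have := hd z (hz.trans hz0) (by linarith) 0
    simpa using this
  · have h3 : |dt (e 1) (t.v - t'.v)| * |z - z'| ≤ 4 * s1 := by
      have h4 : |dt (e 1) (t.v - t'.v)| * |z - z'| * ρ ≤ 4 * s1 * ρ := by
        calc |dt (e 1) (t.v - t'.v)| * |z - z'| * ρ = (|dt (e 1) (t.v - t'.v)| * ρ) * |z - z'| := by
              ring
          _ ≤ (2 * (2 * w1)) * ρ' := by gcongr
          _ = 4 * (ρ' * w1) := by ring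
          _ ≤ 4 * (ρ * s1) := by linarith
          _ = _ := by ring
      exact le_of_mul_le_mul_right h4 hρ
    have := stay f1 h3
    simp only [Fin.mk_one, Matrix.cons_val_one, Matrix.cons_val_zero]
    linarith
  · have h3 : |dt (e 2) (t.v - t'.v)| * |z - z'| ≤ 4 * s2 := by
      have h4 : |dt (e 2) (t.v - t'.v)| * |z - z'| * ρ ≤ 4 * s2 * ρ := by
        calc |dt (e 2) (t.v - t'.v)| * |z - z'| * ρ = (|dt (e 2) (t.v - t'.v)| * ρ) * |z - z'| := by
              ring
          _ ≤ (2 * (2 * w2)) * ρ' := by gcongr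
          _ = 4 * (ρ' * w2) := by ring
          _ ≤ 4 * (ρ * s2) := by linarith
          _ = _ := by ring
      exact le_of_mul_le_mul_right h4 hρ
    have := stay f2 h3
    simp only [Fin.reduceFinMk, Matrix.cons_val]
    linarith

/-- number of floors -/
theorem floors_card {X : Type*} (Q : Finset X) (h : X → ℝ) {w s : ℝ} (hs : 0 < s) (hw : 0 ≤ w)
    (hQ : ∀ x ∈ Q, |h x| ≤ w) : ((Q.image fun x => ⌊h x / s⌋).card : ℝ) ≤ 2 * (w / s) + 2 := by
  have h1 : (Q.image fun x => ⌊h x / s⌋) ⊆ Finset.Icc ⌊-(w / s)⌋ ⌊w / s⌋ := by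
    intro y hy
    obtain ⟨x, hx, rfl⟩ := mem_image.1 hy
    have := abs_le.1 (hQ x hx)
    rw [Finset.mem_Icc]
    constructor
    · refine Int.floor_le_floor ?_
      rw [← neg_div]
      gcongr
      exact this.1
    · refine Int.floor_le_floor ?_
      gcongr
      exact this.2
  have h2 := card_le_card h1
  rw [Int.card_Icc] at h2
  have h3 : (((⌊w / s⌋ + 1 - ⌊-(w / s)⌋).toNat : ℕ) : ℝ) ≤ 2 * (w / s) + 2 := by
    have h4 : (0 : ℤ) ≤ ⌊w / s⌋ + 1 - ⌊-(w / s)⌋ := by
      have : ⌊-(w / s)⌋ ≤ ⌊w / s⌋ := Int.floor_le_floor (by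
        have : 0 ≤ w / s := by positivity
        linarith)
      omega
    have h5 : (((⌊w / s⌋ + 1 - ⌊-(w / s)⌋).toNat : ℕ) : ℝ) =
        ((⌊w / s⌋ + 1 - ⌊-(w / s)⌋ : ℤ) : ℝ) := by
      have := Int.toNat_of_nonneg h4
      exact_mod_cast this
    rw [h5]
    push_cast
    have := Int.floor_le (w / s)
    have := Int.lt_floor_add_one (-(w / s))
    linarith
  exact le_trans (Nat.cast_le.2 h2) h3

/-- number of labels of the lines of one box -/
theorem grid_card {X : Type*} (Q : Finset X) (L : X → Ln4) {l : Ln4} {e : Fin 3 → V3}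
    {a w1 w2 s1 s2 z0 ρ z' : ℝ} (hs1 : 0 < s1) (hs2 : 0 < s2) (hw1 : 0 ≤ w1) (hw2 : 0 ≤ w2)
    (hz : z0 ≤ z') (hz' : z' ≤ z0 + ρ) (hQ : ∀ x ∈ Q, InB (L x) l e ![a, w1, w2] z0 ρ) :
    ((Q.image fun x => gl e l z' s1 s2 (L x)).card : ℝ) ≤
      (2 * (w1 / s1) + 2) * (2 * (w2 / s2) + 2) := by
  classical
  have h1 : (Q.image fun x => gl e l z' s1 s2 (L x)) ⊆
      (Q.image fun x => ⌊dt (e 1) ((L x).pos z' - l.pos z') / s1⌋) ×ˢ
        (Q.image fun x => ⌊dt (e 2) ((L x).pos z' - l.pos z') / s2⌋) := by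
    intro y hy
    obtain ⟨x, hx, rfl⟩ := mem_image.1 hy
    rw [mem_product]
    exact ⟨mem_image_of_mem _ hx, mem_image_of_mem _ hx⟩
  have h2 := card_le_card h1
  rw [card_product] at h2
  have h3 := floors_card Q (fun x => dt (e 1) ((L x).pos z' - l.pos z')) hs1 hw1 (fun x hx => by
    have := hQ x hx z' hz hz' 1
    simpa using this)
  have h4 := floors_card Q (fun x => dt (e 2) ((L x).pos z' - l.pos z')) hs2 hw2 (fun x hx => by
    have := hQ x hx z' hz hz' 2
    simpa using this)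
  calc ((Q.image fun x => gl e l z' s1 s2 (L x)).card : ℝ) ≤
      (((Q.image fun x => ⌊dt (e 1) ((L x).pos z' - l.pos z') / s1⌋).card *
        (Q.image fun x => ⌊dt (e 2) ((L x).pos z' - l.pos z') / s2⌋).card : ℕ) : ℝ) :=
        Nat.cast_le.2 h2
    _ ≤ _ := by
        push_cast
        refine mul_le_mul h3 h4 (by positivity) ?_
        have : 0 ≤ w1 / s1 := by positivity
        linarith

end Crest.Agent.R136.Fl808
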