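import Crest.Agent.R136.Fl4_808

/-!
# R136 (S0187): flat tilt, the deep count in finite form (helper808)

`O` = objects (line, cell of level `i`), `P` = deep objects (line, cell of level `i + k`).
-/

set_option autoImplicit false
set_option linter.unusedVariables false
set_option linter.unusedSectionVars false

namespace Crest.Agent.R136.Fl808

open Finset Crest.Agent.R136.Sh605
open Crest.Agent.R138.Mk163 (zl rho)
open Crest.Agent.R136.Deep51 (card_fib card_le_of_fib classes_le)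

/-- the object of a coarser level -/
def par (k : ℕ) (x : ℕ × ℤ) : ℕ × ℤ := (x.1, x.2 / 2 ^ k)

theorem rho_pos (i : ℕ) : 0 < rho i := by unfold rho; positivity

theorem rho_add (i k : ℕ) : rho (i + k) * 2 ^ k = rho i := by
  unfold rho; rw [pow_add]; field_simp

theorem zl_par_le (i k : ℕ) (c : ℤ) : zl i (c / 2 ^ k) ≤ zl (i + k) c := by
  unfold zl
  rw [pow_add, div_le_div_iff₀ (by positivity) (by positivity)]
  have h1 : c / 2 ^ k * 2 ^ k ≤ c := Int.ediv_mul_le c (by positivity)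
  have h2 : ((c / 2 ^ k : ℤ) : ℝ) * 2 ^ k ≤ (c : ℝ) := by exact_mod_cast h1
  calc ((c / 2 ^ k : ℤ) : ℝ) * (2 ^ i * 2 ^ k) = (((c / 2 ^ k : ℤ) : ℝ) * 2 ^ k) * 2 ^ i := by ring
    _ ≤ (c : ℝ) * 2 ^ i := by gcongr

theorem zl_par_ge (i k : ℕ) (c : ℤ) :
    zl (i + k) c + rho (i + k) ≤ zl i (c / 2 ^ k) + rho i := by
  unfold zl rho
  rw [← add_div, ← add_div, pow_add, div_le_div_iff₀ (by positivity) (by positivity)]
  have h1 : c + 1 ≤ (c / 2 ^ k + 1) * 2 ^ k := by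
    have := Int.lt_ediv_add_one_mul_self c (by positivity : (0 : ℤ) < 2 ^ k)
    omega
  have h2 : (c : ℝ) + 1 ≤ (((c / 2 ^ k : ℤ) : ℝ) + 1) * 2 ^ k := by exact_mod_cast h1
  calc ((c : ℝ) + 1) * 2 ^ i ≤ ((((c / 2 ^ k : ℤ) : ℝ) + 1) * 2 ^ k) * 2 ^ i := by gcongr
    _ = _ := by ring

open Classical in
/-- a system of flat boxes over the cells of level `i` -/
structure FSys {α : Type*} (O : Finset (ℕ × ℤ)) (L : ℕ → Ln4) (i : ℕ) (f : ℕ × ℤ → α)
    (b : α → Ln4) (e : α → Fin 3 → V3) (a w1 w2 A : ℝ) : Prop where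
  ortho : ∀ o ∈ O, Ortho (e (f o))
  mem : ∀ o ∈ O, InB (L o.1) (b (f o)) (e (f o)) ![a, w1, w2] (zl i o.2) (rho i)
  cell : ∀ o ∈ O, ∀ o' ∈ O, f o = f o' → o.2 = o'.2
  num : ((O.image f).card : ℝ) * A ≤ (O.card : ℝ)

open Classical in
/-- D-max of the lines of `P` over the cells of level `m`, for boxes of lateral widths at least
`ω1`, `ω2` and at most `R0`, `R2`, of thickness between `r0` and `Ra` -/
def DMaxP (P : Finset (ℕ × ℤ)) (L : ℕ → Ln4) (m : ℕ) (D q0 q1 q2 r0 ω1 ω2 R0 R2 Ra : ℝ) :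
    Prop :=
  ∀ c : ℤ, DMaxW ((P.filter fun x => x.2 = c).image Prod.fst) L (zl m c) (rho m) D q0 q1 q2 r0
    ω1 ω2 R0 R2 Ra

/-- grid label of a deep object -/
noncomputable def lab {α : Type*} (L : ℕ → Ln4) (i k : ℕ) (f : ℕ × ℤ → α) (b : α → Ln4)
    (e : α → Fin 3 → V3) (s1 s2 : ℝ) (x : ℕ × ℤ) : α × ℤ × ℤ × ℤ :=
  (f (par k x), x.2, gl (e (f (par k x))) (b (f (par k x))) (zl (i + k) x.2) s1 s2 (L x.1))

section

variable {α β : Type*} {O P P' : Finset (ℕ × ℤ)} {L : ℕ → Ln4} {i : ℕ} {f : ℕ × ℤ → α}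
  {g : ℕ × ℤ → β} {bf : α → Ln4} {ef : α → Fin 3 → V3} {bg : β → Ln4} {eg : β → Fin 3 → V3}
  {a w1 w2 A1 A2 q0 q1 q2 r0 : ℝ}

open Classical in
/-- number of (class, deep cell) pairs -/
theorem card_pairs {k : ℕ} {A : ℝ} (h : FSys O L i f bf ef a w1 w2 A)
    (hP : ∀ x ∈ P, par k x ∈ O) :
    ((P.image fun x => (f (par k x), x.2)).card : ℝ) ≤ ((O.image f).card : ℝ) * 2 ^ k := by
  have h1 : (P.image fun x => (f (par k x), x.2)).card ≤
      ((O.image f) ×ˢ (range (2 ^ k))).card := by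
    refine card_le_card_of_injOn (fun y => (y.1, (y.2 % 2 ^ k).toNat)) ?_ ?_
    · intro y hy
      obtain ⟨x, hx, rfl⟩ := mem_image.1 (mem_coe.1 hy)
      have h2 : 0 ≤ x.2 % 2 ^ k := Int.emod_nonneg _ (by positivity)
      have h3 : x.2 % 2 ^ k < 2 ^ k := Int.emod_lt_of_pos _ (by positivity)
      rw [mem_coe, mem_product]
      refine ⟨mem_image_of_mem _ (hP x hx), ?_⟩
      rw [mem_range]
      zify
      rw [Int.toNat_of_nonneg h2]
      exact h3
    · intro y hy y' hy' hyy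
      obtain ⟨x, hx, rfl⟩ := mem_image.1 (mem_coe.1 hy)
      obtain ⟨x', hx', rfl⟩ := mem_image.1 (mem_coe.1 hy')
      simp only [Prod.mk.injEq] at hyy
      obtain ⟨e1, e2⟩ := hyy
      have e3 := h.cell _ (hP x hx) _ (hP x' hx') e1
      simp only [par] at e3
      have h2 : 0 ≤ x.2 % 2 ^ k := Int.emod_nonneg _ (by positivity)
      have h2' : 0 ≤ x'.2 % 2 ^ k := Int.emod_nonneg _ (by positivity)
      have e4 : x.2 % 2 ^ k = x'.2 % 2 ^ k := by
        rw [← Int.toNat_of_nonneg h2, ← Int.toNat_of_nonneg h2', e2]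
      have e5 : x.2 = x'.2 := by
        rw [← Int.ediv_mul_add_emod x.2 (2 ^ k), ← Int.ediv_mul_add_emod x'.2 (2 ^ k), e3, e4]
      simp only [Prod.mk.injEq]
      exact ⟨e1, e5⟩
  rw [card_product, card_range] at h1
  exact_mod_cast h1

open Classical in
/-- number of labels -/
theorem card_lab {k : ℕ} {A s1 s2 : ℝ} (h : FSys O L i f bf ef a w1 w2 A)
    (hP : ∀ x ∈ P, par k x ∈ O) (hs1 : 0 < s1) (hs2 : 0 < s2) (hw1 : 0 ≤ w1) (hw2 : 0 ≤ w2) :
    ((P.image (lab L i k f bf ef s1 s2)).card : ℝ) ≤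
      ((O.image f).card : ℝ) * 2 ^ k * ((2 * (w1 / s1) + 2) * (2 * (w2 / s2) + 2)) := by
  refine card_le_of_fib (P.image (lab L i k f bf ef s1 s2))
    (P.image fun x => (f (par k x), x.2)) (fun y => (y.1, y.2.1)) ?_ ?_ (card_pairs h hP) ?_
  · intro y hy
    obtain ⟨x, hx, rfl⟩ := mem_image.1 hy
    exact mem_image.2 ⟨x, hx, rfl⟩
  · have h1 : 0 ≤ w1 / s1 := by positivity
    have h2 : 0 ≤ w2 / s2 := by positivity
    positivity
  · intro y hy
    obtain ⟨x, hx, rfl⟩ := mem_image.1 hy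
    set κ := f (par k x) with hκ
    set Q := P.filter fun z => f (par k z) = κ ∧ z.2 = x.2 with hQ
    have h1 : ((P.image (lab L i k f bf ef s1 s2)).filter fun y => (y.1, y.2.1) = (κ, x.2)) ⊆
        (Q.image fun z => gl (ef κ) (bf κ) (zl (i + k) x.2) s1 s2 (L z.1)).image
          fun p => ((κ, x.2, p) : α × ℤ × ℤ × ℤ) := by
      intro y hy
      rw [mem_filter] at hy
      obtain ⟨hy1, hy2⟩ := hy
      obtain ⟨z, hz, rfl⟩ := mem_image.1 hy1
      simp only [lab, Prod.mk.injEq] at hy2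
      refine mem_image.2 ⟨gl (ef κ) (bf κ) (zl (i + k) x.2) s1 s2 (L z.1),
        mem_image.2 ⟨z, mem_filter.2 ⟨hz, hy2⟩, rfl⟩, ?_⟩
      simp only [lab, hy2.1, hy2.2]
    have h2 := (card_le_card h1).trans card_image_le
    refine le_trans (Nat.cast_le.2 h2) ?_
    have hz := zl_par_le i k x.2
    have hz' := zl_par_ge i k x.2
    have := rho_pos (i + k)
    refine grid_card (z0 := zl i (x.2 / 2 ^ k)) (ρ := rho i) (a := a) Q (fun z => L z.1) hs1 hs2 hw1
      hw2 hz (by linarith) ?_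
    intro z hzQ
    obtain ⟨hzP, hz1, hz2⟩ := mem_filter.1 hzQ
    have h3 := h.mem _ (hP z hzP)
    rw [hz1] at h3
    simp only [par] at h3
    rw [hz2] at h3
    exact h3

/-- the two boxes of an object with base tilt about `lam` and thickness tilt at most `1 / alp` -/
structure Tl (e e' : Fin 3 → V3) (a w1 w2 lam alp : ℝ) : Prop where
  lo : lam = 1 ∨ lam * w2 ≤ 2 * (|dt (e' 2) (e 1)| * w1) ∨
    lam * w2 ≤ 2 * (|dt (e' 0) (e 1)| * w1)
  h12 : |dt (e' 1) (e 2)| * w1 ≤ 2 * (lam * w2)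
  h10 : alp * (|dt (e' 1) (e 0)| * w1) ≤ a
  h20 : alp * lam * (|dt (e' 2) (e 0)| * w2) ≤ a

/-- the difference of two common lines is short in the direction `e 1` -/
theorem Tl.short {e e' : Fin 3 → V3} {lam alp : ℝ} (h : Tl e e' a w1 w2 lam alp) (he : Ortho e)
    (he' : Ortho e') (ha : 0 < a) (haw : a ≤ w2) (hw : w2 ≤ w1) (hlam : 0 < lam) {t t' l l' : Ln4}
    {z0 ρ : ℝ} (h1 : InB t l e ![a, w1, w2] z0 ρ) (h2 : InB t' l e ![a, w1, w2] z0 ρ)
    (h3 : InB t l' e' ![a, w1, w2] z0 ρ) (h4 : InB t' l' e' ![a, w1, w2] z0 ρ) {z : ℝ}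
    (hz0 : z0 ≤ z) (hz1 : z ≤ z0 + ρ) : |dt (e 1) (t.pos z - t'.pos z)| ≤ 12 * w1 / lam := by
  have hw2 : 0 < w2 := ha.trans_le haw
  have hw1 : 0 < w1 := hw2.trans_le hw
  have d := diff_box h1 h2 z hz0 hz1
  have d' := diff_box h3 h4 z hz0 hz1
  set u := t.pos z - t'.pos z with hu
  have d0 := d 0
  have d1 := d 1
  have d2 := d 2
  have d0' := d' 0
  have d2' := d' 2
  simp only [Matrix.cons_val_zero, Matrix.cons_val_one, Matrix.cons_val] at d0 d1 d2 d0' d2'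
  -- a row whose second entry is big
  have key : ∀ j : Fin 3, |dt (e' j) u| ≤ 2 * w2 → lam * w2 ≤ 2 * (|dt (e' j) (e 1)| * w1) →
      |dt (e 1) u| ≤ 12 * w1 / lam := by
    intro j hj hlo
    have e1 := dt_expand he (e' j) u
    have e2 : |dt (e' j) (e 1)| * |dt (e 1) u| ≤ 6 * w2 := by
      rw [← abs_mul]
      have : dt (e' j) (e 1) * dt (e 1) u = dt (e' j) u - dt (e' j) (e 0) * dt (e 0) u -
          dt (e' j) (e 2) * dt (e 2) u := by rw [e1]; ring
      rw [this]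
      have b0 := abs_dt_le_one he he' j 0
      have b2 := abs_dt_le_one he he' j 2
      have c0 : |dt (e' j) (e 0) * dt (e 0) u| ≤ 2 * a := by
        rw [abs_mul]
        calc |dt (e' j) (e 0)| * |dt (e 0) u| ≤ 1 * (2 * a) := by gcongr
          _ = _ := by ring
      have c2 : |dt (e' j) (e 2) * dt (e 2) u| ≤ 2 * w2 := by
        rw [abs_mul]
        calc |dt (e' j) (e 2)| * |dt (e 2) u| ≤ 1 * (2 * w2) := by gcongr
          _ = _ := by ring
      have := abs_sub (dt (e' j) u - dt (e' j) (e 0) * dt (e 0) u) (dt (e' j) (e 2) * dt (e 2) u)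
      have := abs_sub (dt (e' j) u) (dt (e' j) (e 0) * dt (e 0) u)
      linarith
    rw [le_div_iff₀ hlam]
    have h5 : |dt (e 1) u| * lam * w2 ≤ 12 * w1 * w2 := by
      calc |dt (e 1) u| * lam * w2 = |dt (e 1) u| * (lam * w2) := by ring
        _ ≤ |dt (e 1) u| * (2 * (|dt (e' j) (e 1)| * w1)) := by gcongr
        _ = 2 * w1 * (|dt (e' j) (e 1)| * |dt (e 1) u|) := by ring
        _ ≤ 2 * w1 * (6 * w2) := by gcongr
        _ = _ := by ring
    exact le_of_mul_le_mul_right h5 hw2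
  rcases h.lo with h5 | h5 | h5
  · rw [h5, div_one]; linarith
  · exact key 2 d2' h5
  · exact key 0 (d0'.trans (by linarith)) h5

/-- **geometry of the test box**: the box of `K*` at a line `y` lies in a box of `K`. -/
theorem Tl.coin {e e' : Fin 3 → V3} {lam alp : ℝ} (h : Tl e e' a w1 w2 lam alp) (he : Ortho e)
    (he' : Ortho e') (ha : 0 < a) (hw1 : 0 < w1) (hw2 : 0 < w2) (hlam : 0 < lam) (halp : 0 < alp)
    {s1 s2 : ℝ} (hs1 : s1 = 16 * (alp * w1)) (hs2 : s2 = 8 * (alp * lam * w2))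
    (has : a ≤ s2) (hs : s2 ≤ s1) {x y z : Ln4} {z0 ρ : ℝ}
    (h1 : InB y x e ![2 * a, 5 * s1, 5 * s2] z0 ρ) (h2 : InB z y e' ![2 * a, 5 * s1, 5 * s2] z0 ρ) :
    InB z x e ![124 * a, 124 * s1, 124 * s2] z0 ρ := by
  intro u hu0 hu1
  have p := h1 u hu0 hu1
  have p' := h2 u hu0 hu1
  have p0 := p 0
  have p1 := p 1
  have p2 := p 2
  have p0' := p' 0
  have p1' := p' 1
  have p2' := p' 2
  simp only [Matrix.cons_val_zero, Matrix.cons_val_one, Matrix.cons_val] at p0 p1 p2 p0' p1' p2'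
  have hj : ∀ j, |dt (e j) (z.pos u - y.pos u)| ≤ |dt (e' 0) (e j)| * (2 * a) +
      |dt (e' 1) (e j)| * (5 * s1) + |dt (e' 2) (e j)| * (5 * s2) := by
    intro j
    rw [dt_expand he' (e j) (z.pos u - y.pos u), dt_comm (e j) (e' 0), dt_comm (e j) (e' 1),
      dt_comm (e j) (e' 2)]
    refine (abs_add_le _ _).trans (add_le_add ((abs_add_le _ _).trans (add_le_add ?_ ?_)) ?_)
    · rw [abs_mul]; gcongr
    · rw [abs_mul]; gcongr
    · rw [abs_mul]; gcongr
  have hsum : ∀ j, |dt (e j) (z.pos u - x.pos u)| ≤ |dt (e j) (z.pos u - y.pos u)| +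
      |dt (e j) (y.pos u - x.pos u)| := by
    intro j
    have : z.pos u - x.pos u = (z.pos u - y.pos u) + (y.pos u - x.pos u) := by abel
    rw [this, dt_add]
    exact abs_add_le _ _
  have hs2p : 0 < s2 := ha.trans_le has
  have hs1p : 0 < s1 := hs2p.trans_le hs
  have r10 : |dt (e' 1) (e 0)| * s1 ≤ 16 * a := by
    rw [hs1]
    calc |dt (e' 1) (e 0)| * (16 * (alp * w1)) = 16 * (alp * (|dt (e' 1) (e 0)| * w1)) := by ring
      _ ≤ 16 * a := by linarith [h.h10]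
  have r20 : |dt (e' 2) (e 0)| * s2 ≤ 8 * a := by
    rw [hs2]
    calc |dt (e' 2) (e 0)| * (8 * (alp * lam * w2)) = 8 * (alp * lam * (|dt (e' 2) (e 0)| * w2)) := by
          ring
      _ ≤ 8 * a := by linarith [h.h20]
  have r12 : |dt (e' 1) (e 2)| * s1 ≤ 4 * s2 := by
    rw [hs1, hs2]
    calc |dt (e' 1) (e 2)| * (16 * (alp * w1)) = 16 * alp * (|dt (e' 1) (e 2)| * w1) := by ring
      _ ≤ 16 * alp * (2 * (lam * w2)) := mul_le_mul_of_nonneg_left h.h12 (by positivity)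
      _ = _ := by ring
  have q := fun j k => abs_dt_le_one he he' j k
  intro j
  have h3 := hj j
  have h4 := hsum j
  have a0 : |dt (e' 0) (e j)| * (2 * a) ≤ 2 * a := by nlinarith [q 0 j]
  have a1 : |dt (e' 1) (e j)| * (5 * s1) ≤ 5 * s1 := by nlinarith [q 1 j]
  have a2 : |dt (e' 2) (e j)| * (5 * s2) ≤ 5 * s2 := by nlinarith [q 2 j]
  fin_cases j
  · simp only [Fin.zero_eta, Matrix.cons_val_zero] at h3 h4 a0 ⊢
    nlinarith
  · simp only [Fin.mk_one, Matrix.cons_val_one, Matrix.cons_val_zero] at h3 h4 a0 a1 a2 ⊢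
    linarith
  · simp only [Fin.reduceFinMk, Matrix.cons_val] at h3 h4 a0 a2 ⊢
    nlinarith

end

end Crest.Agent.R136.Fl808
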