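import Crest.Agent.R136.Fl6_808

/-!
# R136 (S0187): flat tilt, thickness tilt in finite form (helper808)

* `flat_step` : thickness tilt, one-step count over the cells of length `ρ / λ`.
-/

set_option autoImplicit false
set_option linter.unusedVariables false
set_option linter.unusedSectionVars false

namespace Crest.Agent.R136.Fl808

open Finset Crest.Agent.R136.Sh605
open Crest.Agent.R138.Mk163 (zl rho)
open Crest.Agent.R136.Deep51 (card_fib card_le_of_fib classes_le)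

open Classical in
theorem light_card {X β : Type*} (P : Finset X) (s : X → β) {n : ℝ} (hn0 : 0 < n)
    (hn : ((P.image s).card : ℝ) ≤ n) :
    ((P.filter fun x => ¬ ((P.card : ℝ) / (4 * n) ≤ ((P.filter fun y => s y = s x).card : ℝ))).card :
      ℝ) ≤ (P.card : ℝ) / 4 := by
  have e1 : n * ((P.card : ℝ) / (4 * n)) = (P.card : ℝ) / 4 := dc1 hn0
  rw [← e1]
  set θ := (P.card : ℝ) / (4 * n) with hθ
  have hθ0 : 0 ≤ θ := by positivity
  refine card_le_of_fib _ (P.image s) s ?_ hθ0 hn ?_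
  · intro x hx; exact mem_image_of_mem _ (mem_filter.1 hx).1
  · intro b hb
    set U := P.filter fun x => ¬ (θ ≤ ((P.filter fun y => s y = s x).card : ℝ)) with hU
    rcases (U.filter fun x => s x = b).eq_empty_or_nonempty with h | ⟨x, hx⟩
    · rw [h]; simpa using hθ0
    · rw [mem_filter, hU, mem_filter] at hx
      refine le_trans ?_ (not_le.1 hx.1.2).le
      rw [← hx.2]
      norm_cast
      exact card_le_card (filter_subset_filter _ (filter_subset _ _))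

open Classical in
/-- the heavy elements -/
noncomputable def HH {X γ γ' : Type*} (P : Finset X) (s : X → γ) (t : X → γ') (θ1 θ2 : ℝ) :
    Finset X :=
  P.filter fun x => θ1 ≤ ((P.filter fun y => s y = s x).card : ℝ) ∧
      θ2 ≤ ((P.filter fun y => t y = t x).card : ℝ)

open Classical in
/-- half of the elements have heavy labels -/
theorem heavy_half0 {X β β' : Type*} (P : Finset X) (s : X → β) (t : X → β') {n1 n2 : ℝ}
    (h1 : 0 < n1) (h2 : 0 < n2) (hn1 : ((P.image s).card : ℝ) ≤ n1)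
    (hn2 : ((P.image t).card : ℝ) ≤ n2) :
    (P.card : ℝ) ≤ 2 * ((HH P s t ((P.card : ℝ) / (4 * n1)) ((P.card : ℝ) / (4 * n2))).card : ℝ) := by
  unfold HH
  have l1 := light_card P s h1 hn1
  have l2 := light_card P t h2 hn2
  set θ1 := (P.card : ℝ) / (4 * n1)
  set θ2 := (P.card : ℝ) / (4 * n2)
  have h3 : P ⊆ ((P.filter fun x => ¬ (θ1 ≤ ((P.filter fun y => s y = s x).card : ℝ))) ∪
      (P.filter fun x => ¬ (θ2 ≤ ((P.filter fun y => t y = t x).card : ℝ)))) ∪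
      (P.filter fun x => θ1 ≤ ((P.filter fun y => s y = s x).card : ℝ) ∧
        θ2 ≤ ((P.filter fun y => t y = t x).card : ℝ)) := by
    intro x hx
    simp only [mem_union, mem_filter]
    tauto
  have h4 := (card_le_card h3).trans ((card_union_le _ _).trans
    (Nat.add_le_add_right (card_union_le _ _) _))
  have h5 : (P.card : ℝ) ≤
      ((P.filter fun x => ¬ (θ1 ≤ ((P.filter fun y => s y = s x).card : ℝ))).card : ℝ) +
      ((P.filter fun x => ¬ (θ2 ≤ ((P.filter fun y => t y = t x).card : ℝ))).card : ℝ) +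
      ((P.filter fun x => θ1 ≤ ((P.filter fun y => s y = s x).card : ℝ) ∧
        θ2 ≤ ((P.filter fun y => t y = t x).card : ℝ)).card : ℝ) := by exact_mod_cast h4
  linarith

/-- half of the elements have heavy labels -/
theorem heavy_half {X β β' : Type*} [DecidableEq β] [DecidableEq β'] (P : Finset X) (s : X → β)
    (t : X → β') {n1 n2 : ℝ} (h1 : 0 < n1) (h2 : 0 < n2) (hn1 : ((P.image s).card : ℝ) ≤ n1)
    (hn2 : ((P.image t).card : ℝ) ≤ n2) :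
    (P.card : ℝ) ≤ 2 * ((HH P s t ((P.card : ℝ) / (4 * n1)) ((P.card : ℝ) / (4 * n2))).card : ℝ) := by
  refine heavy_half0 P s t h1 h2 ?_ ?_
  · convert hn1
  · convert hn2

open Classical in
/-- one-step count, subset form -/
theorem flat_one' {ι α β : Type*} {T1 T2 Q : Finset ι} {L : ι → Ln4} {f : ι → α} {g : ι → β}
    {bK : α → Ln4} {eK : α → Fin 3 → V3} {bK' : β → Ln4} {eK' : β → Fin 3 → V3}
    {a w1 w2 z0 ρ A1 A2 D1 D2 q0 q1 q2 r0 R0 R2 Ra ω1 ω2 : ℝ} (h1 : SysB T1 L f bK eK a w1 w2 z0 ρ A1)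
    (h2 : SysB T2 L g bK' eK' a w1 w2 z0 ρ A2)
    (d1 : DMaxW T1 L z0 ρ D1 q0 q1 q2 r0 ω1 ω2 R0 R2 Ra) (d2 : DMaxW T2 L z0 ρ D2 q0 q1 q2 r0 ω1 ω2 R0 R2 Ra)
    (ha : 0 < a) (haw : a ≤ w2) (hw : w2 ≤ w1)
    (hr0 : r0 ≤ a) (hR0 : 16 * w1 ≤ R0) (hR2 : 16 * w2 ≤ R2) (hD1 : 0 ≤ D1) (hD2 : 0 ≤ D2) (hA1 : 0 < A1)
    (hA2 : 0 < A2) (hq0 : 0 ≤ q0) (hq02 : q0 < q2) (hq : q2 ≤ q1) (hω : ω2 ≤ ω1)
    (hω20 : 0 ≤ ω2) {x X : ℝ} (hx : 1 ≤ x) (hRa : 22 * (X * a) ≤ Ra) (hω1 : ω1 * X ≤ w1)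
    (hω2 : ω2 * X ≤ w2)
    (hQ : ∀ t ∈ Q, t ∈ T1 ∧ t ∈ T2 ∧ Aligned (eK (f t)) (eK' (g t)) w1 w2 ∧
        x * a ≤ tlt (eK (f t)) (eK' (g t)) w1 w2 ∧
        tlt (eK (f t)) (eK' (g t)) w1 w2 ≤ X * a) :
    (Q.card : ℝ) ≤
      cF q0 q1 q2 / (1 - 2 ^ (-(q2 - q0))) * (D1 * capB q0 q1 q2 a w1 w2 / A1) *
        (D2 * capB q0 q1 q2 a w1 w2 / A2) * x ^ (-(q2 - q0)) * (T1.card : ℝ) :=
  le_trans (Nat.cast_le.2 (card_le_card fun t ht => mem_filter.2 (hQ t ht)))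
    (flat_one h1 h2 d1 d2 ha haw hw hr0 hR0 hR2 hD1 hD2 hA1 hA2 hq0 hq02 hq hω hω20 hx hRa hω1 hω2)

open Classical in
theorem DMaxW.sub {ι : Type*} {T T' : Finset ι} {L : ι → Ln4}
    {z0 ρ D q0 q1 q2 r0 ω1 ω2 R0 R2 Ra : ℝ} (h : DMaxW T L z0 ρ D q0 q1 q2 r0 ω1 ω2 R0 R2 Ra) (hT : T' ⊆ T) :
    DMaxW T' L z0 ρ D q0 q1 q2 r0 ω1 ω2 R0 R2 Ra := by
  intro n l a w1 w2 h1 h2 h3 h4 h5 h6 h7 h8 h9
  refine le_trans ?_ (h n l a w1 w2 h1 h2 h3 h4 h5 h6 h7 h8 h9)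
  norm_cast
  exact card_le_card (filter_subset_filter _ hT)

theorem InB.mono {t l : Ln4} {e : Fin 3 → V3} {a w1 w2 a' w1' w2' z0 ρ : ℝ}
    (h : InB t l e ![a, w1, w2] z0 ρ) (h0 : a ≤ a') (h1 : w1 ≤ w1') (h2 : w2 ≤ w2') :
    InB t l e ![a', w1', w2'] z0 ρ := by
  intro z hz hz' i
  have := h z hz hz' i
  fin_cases i
  · simp only [Fin.zero_eta, Matrix.cons_val_zero] at this ⊢; linarith
  · simp only [Fin.mk_one, Matrix.cons_val_one, Matrix.cons_val_zero] at this ⊢; linarith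
  · simp only [Fin.reduceFinMk, Matrix.cons_val] at this ⊢; linarith

section

variable {α β : Type*} {O P P' : Finset (ℕ × ℤ)} {L : ℕ → Ln4} {i : ℕ} {f : ℕ × ℤ → α}
  {g : ℕ × ℤ → β} {bf : α → Ln4} {ef : α → Fin 3 → V3} {bg : β → Ln4} {eg : β → Fin 3 → V3}
  {a w1 w2 A A1 A2 q0 q1 q2 r0 R0 R0' R2 Ra D D' δ0 θ ω1 ω2 : ℝ} {j : ℕ}

open Classical in
/-- lines of a deep cell with heavy label -/
noncomputable def TT (P : Finset (ℕ × ℤ)) {γ : Type*} (s : ℕ × ℤ → γ) (θ : ℝ) (c : ℤ) : Finset ℕ :=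
  (P.filter fun x => x.2 = c ∧ θ ≤ ((P.filter fun y => s y = s x).card : ℝ)).image Prod.fst

open Classical in
/-- base line of a label -/
noncomputable def bb (P : Finset (ℕ × ℤ)) (L : ℕ → Ln4) {γ : Type*} (s : ℕ × ℤ → γ) (κ : γ) : Ln4 :=
  if h : ∃ x ∈ P, s x = κ then L h.choose.1 else L 0

theorem bb_spec {γ : Type*} {s : ℕ × ℤ → γ} {x : ℕ × ℤ} (hx : x ∈ P) :
    ∃ y ∈ P, s y = s x ∧ bb P L s (s x) = L y.1 := by
  have h : ∃ y ∈ P, s y = s x := ⟨x, hx, rfl⟩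
  refine ⟨h.choose, h.choose_spec.1, h.choose_spec.2, ?_⟩
  unfold bb
  rw [dif_pos h]

open Classical in
theorem mem_TT {γ : Type*} {s : ℕ × ℤ → γ} {c : ℤ} {t : ℕ} :
    t ∈ TT P s θ c ↔ (t, c) ∈ P ∧ θ ≤ ((P.filter fun y => s y = s (t, c)).card : ℝ) := by
  unfold TT
  rw [mem_image]
  constructor
  · rintro ⟨x, hx, rfl⟩
    rw [mem_filter] at hx
    obtain ⟨h1, h2, h3⟩ := hx
    have : x = (x.1, c) := Prod.ext rfl h2
    rw [← this]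
    exact ⟨h1, h3⟩
  · rintro ⟨h1, h2⟩
    exact ⟨(t, c), mem_filter.2 ⟨h1, rfl, h2⟩, rfl⟩

open Classical in
theorem TT_low {γ : Type*} {s : ℕ × ℤ → γ} (hc : ∀ y ∈ P, ∀ x ∈ P, s y = s x → y.2 = x.2) {t : ℕ}
    {c : ℤ} (ht : t ∈ TT P s θ c) :
    θ ≤ (((TT P s θ c).filter fun u => s (u, c) = s (t, c)).card : ℝ) := by
  obtain ⟨htP, hth⟩ := mem_TT.1 ht
  refine hth.trans (Nat.cast_le.2 ?_)
  have key : ∀ y ∈ P.filter (fun y => s y = s (t, c)), y.2 = c := by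
    intro y hy
    obtain ⟨hy1, hy2⟩ := mem_filter.1 hy
    exact hc y hy1 _ htP hy2
  refine card_le_card_of_injOn Prod.fst ?_
      (fun y hy y' hy' h => Prod.ext h ((key y (mem_coe.1 hy)).trans (key y' (mem_coe.1 hy')).symm))
  intro y hy
  have hy := mem_coe.1 hy
  have hyc := key y hy
  have hy2 : y = (y.1, c) := Prod.ext rfl hyc
  obtain ⟨hyP, hys⟩ := mem_filter.1 hy
  rw [mem_coe, mem_filter, mem_TT, ← hy2]
  refine ⟨⟨hyP, ?_⟩, hys⟩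
  rw [hys]
  exact hth

open Classical in
/-- system of boxes of the heavy labels -/
theorem sys_TT (h : FSys O L i f bf ef a w1 w2 A) (hPO : ∀ x ∈ P, par j x ∈ O)
    (ha : 0 < a) (haw : a ≤ w2) (hw : w2 ≤ w1) {W1 : ℝ} (hW1 : 5 * (w1 / 2 ^ j) ≤ W1) (c : ℤ) :
    SysB (TT P (lab L i j f bf ef (w1 / 2 ^ j) w2) θ c) L
      (fun t => lab L i j f bf ef (w1 / 2 ^ j) w2 (t, c))
      (bb P L (lab L i j f bf ef (w1 / 2 ^ j) w2)) (fun κ => ef κ.1) (2 * a) W1 (10 * w2)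
      (zl (i + j) c) (rho (i + j)) θ := by
  have hw2 : 0 < w2 := ha.trans_le haw
  have hw1 : 0 < w1 := hw2.trans_le hw
  refine ⟨?_, ?_, ?_⟩
  · intro t ht
    exact h.ortho _ (hPO _ (mem_TT.1 ht).1)
  · intro t ht
    have htP := (mem_TT.1 ht).1
    obtain ⟨y, hy, hys, hyb⟩ := bb_spec (L := L) (s := lab L i j f bf ef (w1 / 2 ^ j) w2) htP
    rw [hyb]
    have h1 : w1 ≤ 2 ^ j * (w1 / 2 ^ j) := by
      have : 2 ^ j * (w1 / 2 ^ j) = w1 := by field_simp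
      rw [this]
    have h2 : w2 ≤ 2 ^ j * w2 := by
      have : (1:ℝ) ≤ 2 ^ j := one_le_pow₀ (by norm_num)
      nlinarith
    obtain ⟨e1, e2, e3⟩ := lab_box h hPO (by positivity) hw2 h1 h2 hy htP hys.symm
    rw [← e2, ← e1] at e3
    exact InB.mono e3 le_rfl hW1 (by linarith)
  · intro t ht
    exact TT_low (fun y _ x _ h => congrArg (fun p : α × ℤ × ℤ × ℤ => p.2.1) h) ht

open Classical in
theorem TT_sub {γ : Type*} (s : ℕ × ℤ → γ) (θ : ℝ) (c : ℤ) :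
    TT P s θ c ⊆ (P.filter fun x => x.2 = c).image Prod.fst := by
  intro u hu
  exact mem_image.2 ⟨(u, c), mem_filter.2 ⟨(mem_TT.1 hu).1, rfl⟩, rfl⟩

open Classical in
theorem step_cell (h1 : FSys O L i f bf ef a w1 w2 A1) (h2 : FSys O L i g bg eg a w1 w2 A2)
    (hPO : ∀ x ∈ P, par j x ∈ O)
    (hd : DMaxP P L (i + j) D q0 q1 q2 r0 ω1 ω2 R0 R2 Ra) (ha : 0 < a) (haw : a ≤ w2) (hw : w2 ≤ w1)
    (hr0 : r0 ≤ a) (hD : 0 ≤ D) {W1 : ℝ}
    (hWa : 10 * w2 ≤ W1) (hWb : 5 * (w1 / 2 ^ j) ≤ W1)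
    (hal : ∀ x ∈ P, Aligned (ef (f (par j x))) (eg (g (par j x))) W1 (10 * w2)) {X Y : ℝ}
    (hX : 1 ≤ X)
    (hT : ∀ x ∈ P, X * (2 * a) ≤ tlt (ef (f (par j x))) (eg (g (par j x))) W1 (10 * w2))
    (hT' : ∀ x ∈ P, tlt (ef (f (par j x))) (eg (g (par j x))) W1 (10 * w2) ≤ Y * (2 * a))
    (hω : ω2 ≤ ω1) (hω20 : 0 ≤ ω2) (hω1 : ω1 * Y ≤ W1) (hω2 : ω2 * Y ≤ 10 * w2)
    (hR : 16 * W1 ≤ R0) (hS : 160 * w2 ≤ R2) (hQa : 44 * (Y * a) ≤ Ra) (hq0 : 0 ≤ q0) (hq02 : q0 < q2) (hq : q2 ≤ q1) {θ1 θ2 : ℝ}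
    (hθ1p : 0 < θ1) (hθ2p : 0 < θ2) (c : ℤ) :
    (((HH P (lab L i j f bf ef (w1 / 2 ^ j) w2) (lab L i j g bg eg (w1 / 2 ^ j) w2) θ1 θ2).filter
      fun x => x.2 = c).card : ℝ) ≤
      cF q0 q1 q2 / (1 - 2 ^ (-(q2 - q0))) * (D * capB q0 q1 q2 (2 * a) W1 (10 * w2) / θ1) *
        (D * capB q0 q1 q2 (2 * a) W1 (10 * w2) / θ2) * X ^ (-(q2 - q0)) *
        ((P.filter fun x => x.2 = c).card : ℝ) := by
  have hw2 : 0 < w2 := ha.trans_le haw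
  have hcap : 0 < capB q0 q1 q2 (2 * a) W1 (10 * w2) :=
    capB_pos (by positivity) (by linarith) (by positivity)
  have hK : 0 < cF q0 q1 q2 / (1 - 2 ^ (-(q2 - q0))) := by
    have hr : (2 : ℝ) ^ (-(q2 - q0)) < 1 :=
      Real.rpow_lt_one_of_one_lt_of_neg (by norm_num) (by linarith)
    have := cF_pos q0 q1 q2
    have : 0 < 1 - (2 : ℝ) ^ (-(q2 - q0)) := by linarith
    positivity
  have hX0 : 0 < X := by linarith
  have g1 := sys_TT (θ := θ1) h1 hPO ha haw hw hWb c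
  have g2 := sys_TT (θ := θ2) h2 hPO ha haw hw hWb c
  generalize hs : lab L i j f bf ef (w1 / 2 ^ j) w2 = s at *
  generalize ht : lab L i j g bg eg (w1 / 2 ^ j) w2 = t at *
  have d1 := (hd c).sub (TT_sub s θ1 c)
  have d2 := (hd c).sub (TT_sub t θ2 c)
  have key := flat_one' (Q := ((HH P s t θ1 θ2).filter fun x => x.2 = c).image Prod.fst)
    g1 g2 d1 d2 (by positivity) (by linarith) hWa (by linarith) hR (by linarith) hD hD hθ1p
    hθ2p hq0 hq02 hq hω hω20 hX (by linarith) hω1 hω2 ?_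
  · have e1 : ((TT P s θ1 c).card : ℝ) ≤ ((P.filter fun x => x.2 = c).card : ℝ) :=
      Nat.cast_le.2 ((card_le_card (TT_sub s θ1 c)).trans card_image_le)
    have e2 : (((HH P s t θ1 θ2).filter fun x => x.2 = c).image Prod.fst).card =
        ((HH P s t θ1 θ2).filter fun x => x.2 = c).card :=
      card_image_of_injOn (fun y hy y' hy' h => Prod.ext h
        (((mem_filter.1 (mem_coe.1 hy)).2).trans ((mem_filter.1 (mem_coe.1 hy')).2).symm))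
    rw [e2] at key
    refine key.trans (mul_le_mul_of_nonneg_left e1 ?_)
    positivity
  · intro u hu
    obtain ⟨y, hy, rfl⟩ := mem_image.1 hu
    obtain ⟨hyP2, hyc⟩ := mem_filter.1 hy
    obtain ⟨hyP, hy1, hy2⟩ := mem_filter.1 hyP2
    have hy2' : y = (y.1, c) := Prod.ext rfl hyc
    rw [mem_TT, mem_TT, ← hy2']
    refine ⟨⟨hyP, hy1⟩, ⟨hyP, hy2⟩, ?_, ?_, ?_⟩
    · have := hal y hyP
      rw [← hs, ← ht]
      exact this
    · have := hT y hyP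
      rw [← hs, ← ht]
      exact this
    · have := hT' y hyP
      rw [← hs, ← ht]
      exact this

open Classical in
theorem step_sum {Q P : Finset (ℕ × ℤ)} {K : ℝ} (hQ : Q ⊆ P)
    (h : ∀ c : ℤ, ((Q.filter fun x => x.2 = c).card : ℝ) ≤
      K * ((P.filter fun x => x.2 = c).card : ℝ)) : (Q.card : ℝ) ≤ K * (P.card : ℝ) := by
  have e1 : (Q.card : ℝ) = ∑ c ∈ P.image Prod.snd, ((Q.filter fun x => x.2 = c).card : ℝ) := by
    exact_mod_cast card_eq_sum_card_fiberwise (f := Prod.snd) fun x hx =>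
      mem_coe.2 (mem_image_of_mem _ (hQ (mem_coe.1 hx)))
  have e2 : (P.card : ℝ) = ∑ c ∈ P.image Prod.snd, ((P.filter fun x => x.2 = c).card : ℝ) := by
    exact_mod_cast card_eq_sum_card_image Prod.snd P
  rw [e1, e2, mul_sum]
  exact sum_le_sum fun c _ => h c

theorem step_alg {p o A θ δ0 l : ℝ} (ho : 0 < o) (hA : 0 < A) (hl : 0 < l)
    (hθ : p / (4 * (o / A * l * (16 * l))) = θ) (hp : δ0 * o * l ≤ p) :
    δ0 * A ≤ 64 * l * θ := by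
  have e : 64 * l * θ = p * A / (o * l) := by
    rw [← hθ]; field_simp; ring
  rw [e, le_div_iff₀ (by positivity)]
  calc δ0 * A * (o * l) = (δ0 * o * l) * A := by ring
    _ ≤ p * A := by gcongr

theorem step_fin {A1 A2 θ1 θ2 δ0 l p p2 K G Y : ℝ} (hl : 0 < l) (hp : 0 < p) (hθ1 : 0 < θ1)
    (hθ2 : 0 < θ2) (hA1 : 0 < A1) (hA2 : 0 < A2) (hδ : 0 < δ0) (hK : 0 < K) (hG : 0 ≤ G)
    (hY : 0 < Y) (hb1 : δ0 * A1 ≤ 64 * l * θ1) (hb2 : δ0 * A2 ≤ 64 * l * θ2) (hh : p ≤ 2 * p2)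
    (hs : p2 ≤ K * (G / θ1) * (G / θ2) * Y * p) :
    δ0 ^ 2 * (A1 * A2) ≤ 8192 * K * l ^ 2 * G ^ 2 * Y := by
  have h3 : p * 1 ≤ p * (2 * (K * (G / θ1) * (G / θ2) * Y)) := by nlinarith
  have h4 := le_of_mul_le_mul_left h3 hp
  have h5 : θ1 * θ2 ≤ 2 * K * G ^ 2 * Y := by
    have e : 2 * (K * (G / θ1) * (G / θ2) * Y) = (2 * K * G ^ 2 * Y) / (θ1 * θ2) := by field_simp
    rw [e, le_div_iff₀ (by positivity)] at h4
    linarith
  calc δ0 ^ 2 * (A1 * A2) = (δ0 * A1) * (δ0 * A2) := by ring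
    _ ≤ (64 * l * θ1) * (64 * l * θ2) := by gcongr
    _ = 4096 * l ^ 2 * (θ1 * θ2) := by ring
    _ ≤ 4096 * l ^ 2 * (2 * K * G ^ 2 * Y) := by gcongr
    _ = _ := by ring

theorem lab_num {w : ℝ} (hw1 : 0 < w1) (hw2 : 0 < w2) :
    (2 * (w1 / (w1 / 2 ^ j)) + 2) * (2 * (w2 / w2) + 2) ≤ 16 * 2 ^ j := by
  have e1 : w1 / (w1 / 2 ^ j) = 2 ^ j := by field_simp
  have e2 : w2 / w2 = 1 := div_self hw2.ne'
  have : (1:ℝ) ≤ 2 ^ j := one_le_pow₀ (by norm_num)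
  rw [e1, e2]; linarith

open Classical in
/-- **thickness tilt, one step over shorter cells** -/
theorem flat_step (h1 : FSys O L i f bf ef a w1 w2 A1) (h2 : FSys O L i g bg eg a w1 w2 A2)
    (hPO : ∀ x ∈ P, par j x ∈ O) (hP : P.Nonempty)
    (hd : DMaxP P L (i + j) D q0 q1 q2 r0 ω1 ω2 R0 R2 Ra) (ha : 0 < a) (haw : a ≤ w2) (hw : w2 ≤ w1)
    (hr0 : r0 ≤ a) (hD : 0 ≤ D) (hA1 : 0 < A1) (hA2 : 0 < A2) (hδ0 : 0 < δ0) {W1 : ℝ}
    (hWa : 10 * w2 ≤ W1) (hWb : 5 * (w1 / 2 ^ j) ≤ W1)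
    (hal : ∀ x ∈ P, Aligned (ef (f (par j x))) (eg (g (par j x))) W1 (10 * w2)) {X Y : ℝ}
    (hX : 1 ≤ X)
    (hT : ∀ x ∈ P, X * (2 * a) ≤ tlt (ef (f (par j x))) (eg (g (par j x))) W1 (10 * w2))
    (hT' : ∀ x ∈ P, tlt (ef (f (par j x))) (eg (g (par j x))) W1 (10 * w2) ≤ Y * (2 * a))
    (hω : ω2 ≤ ω1) (hω20 : 0 ≤ ω2) (hω1 : ω1 * Y ≤ W1) (hω2 : ω2 * Y ≤ 10 * w2)
    (hR : 16 * W1 ≤ R0) (hS : 160 * w2 ≤ R2) (hQa : 44 * (Y * a) ≤ Ra) (hq0 : 0 ≤ q0) (hq02 : q0 < q2) (hq : q2 ≤ q1)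
    (hcard : δ0 * (O.card : ℝ) * 2 ^ j ≤ (P.card : ℝ)) :
    δ0 ^ 2 * (A1 * A2) ≤ 8192 * (cF q0 q1 q2 / (1 - 2 ^ (-(q2 - q0)))) * (2 ^ j) ^ 2 *
      (D * capB q0 q1 q2 (2 * a) W1 (10 * w2)) ^ 2 * X ^ (-(q2 - q0)) := by
  have hw2 : 0 < w2 := ha.trans_le haw
  have hw1 : 0 < w1 := hw2.trans_le hw
  have hW1 : 0 < W1 := by linarith
  have hOne : 0 < (O.card : ℝ) := by
    obtain ⟨x, hx⟩ := hP
    exact_mod_cast card_pos.2 ⟨_, hPO x hx⟩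
  have hPne : 0 < (P.card : ℝ) := by exact_mod_cast card_pos.2 hP
  have hcap : 0 < capB q0 q1 q2 (2 * a) W1 (10 * w2) :=
    capB_pos (by positivity) (by positivity) (by positivity)
  have hK : 0 < cF q0 q1 q2 / (1 - 2 ^ (-(q2 - q0))) := by
    have hr : (2 : ℝ) ^ (-(q2 - q0)) < 1 :=
      Real.rpow_lt_one_of_one_lt_of_neg (by norm_num) (by linarith)
    have := cF_pos q0 q1 q2
    have : 0 < 1 - (2 : ℝ) ^ (-(q2 - q0)) := by linarith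
    positivity
  have hs1 : 0 < w1 / 2 ^ j := by positivity
  have hl : (0:ℝ) < 2 ^ j := by positivity
  have hn := lab_num (w := 0) (j := j) hw1 hw2
  have hn1 : ((P.image (lab L i j f bf ef (w1 / 2 ^ j) w2)).card : ℝ) ≤
      (O.card : ℝ) / A1 * 2 ^ j * (16 * 2 ^ j) := by
    refine (card_lab (k := j) h1 hPO hs1 hw2 hw1.le hw2.le).trans ?_
    have := h1.num' hA1
    refine mul_le_mul (mul_le_mul_of_nonneg_right this hl.le) hn ?_ (by positivity)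
    positivity
  have hn2 : ((P.image (lab L i j g bg eg (w1 / 2 ^ j) w2)).card : ℝ) ≤
      (O.card : ℝ) / A2 * 2 ^ j * (16 * 2 ^ j) := by
    refine (card_lab (k := j) h2 hPO hs1 hw2 hw1.le hw2.le).trans ?_
    have := h2.num' hA2
    refine mul_le_mul (mul_le_mul_of_nonneg_right this hl.le) hn ?_ (by positivity)
    positivity
  have hhalf := heavy_half P _ _ (by positivity) (by positivity) hn1 hn2
  generalize hθ1 : (P.card : ℝ) / (4 * ((O.card : ℝ) / A1 * 2 ^ j * (16 * 2 ^ j))) = θ1 at hhalf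
  generalize hθ2 : (P.card : ℝ) / (4 * ((O.card : ℝ) / A2 * 2 ^ j * (16 * 2 ^ j))) = θ2 at hhalf
  have hθ1p : 0 < θ1 := by rw [← hθ1]; positivity
  have hθ2p : 0 < θ2 := by rw [← hθ2]; positivity
  have hb1 := step_alg hOne hA1 hl hθ1 hcard
  have hb2 := step_alg hOne hA2 hl hθ2 hcard
  have hsum := step_sum (Q := HH P (lab L i j f bf ef (w1 / 2 ^ j) w2)
    (lab L i j g bg eg (w1 / 2 ^ j) w2) θ1 θ2) (filter_subset _ _) (step_cell h1 h2 hPO hd ha haw hw hr0 hD hWa hWb hal hX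
    hT hT' hω hω20 hω1 hω2 hR hS hQa hq0 hq02 hq hθ1p hθ2p)
  exact step_fin hl hPne hθ1p hθ2p hA1 hA2 hδ0 hK (by positivity) (by positivity) hb1 hb2 hhalf hsum

end

end Crest.Agent.R136.Fl808
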