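import Crest.Agent.R136.Fl9_808
import Crest.Agent.R136.Deep0_770
import Crest.Agent.R136.KDef4_879
import Crest.Agent.R136.Sh6_605

/-!
# R136 (S0187): flat tilt, finite wiring (helper808)

* `FSys.zoom`, `FSys.mono` : a system of flat boxes over the cells of level `i` read over the cells of
  level `i + k`.
* `fsys_of_mark` : the marked classes are a system.
* `own_count`, `ext_low`, `ext_up`, `part_count` : numbers of objects and of deep objects.
-/

set_option autoImplicit false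
set_option linter.unusedVariables false
set_option linter.unusedSectionVars false

namespace Crest.Agent.R136.Fl808

open Finset Crest.Agent.R136.Sh605
open Crest.Agent.R138.Mk163 (zc zl rho alive own)
open Crest.Agent.R138.MkRef627 (lc mem_alive card_class)
open Crest.Agent.R136.Deep51 (card_fib card_le_of_fib classes_le)
open Crest.Agent.R136.Dia770 (extO zc_div mem_extO_le mem_extO_ge extO_anc card_extO ico_div)
open Crest.Agent.R136.K4 (Plk4)

/-! ### systems -/

theorem image_card_inst {X Y : Type*} (i1 i2 : DecidableEq Y) (F : X → Y) (S : Finset X) :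
    (@Finset.image X Y i1 F S).card = (@Finset.image X Y i2 F S).card := by
  have : i1 = i2 := Subsingleton.elim _ _
  subst this
  rfl

section

variable {α : Type*} {O Ov : Finset (ℕ × ℤ)} {L : ℕ → Ln4} {i k : ℕ} {f : ℕ × ℤ → α}
  {bf : α → Ln4} {ef : α → Fin 3 → V3} {a w1 w2 A : ℝ}

open Classical in
theorem FSys.mono (h : FSys O L i f bf ef a w1 w2 A) {a' w1' w2' A' : ℝ} (h0 : a ≤ a')
    (h1 : w1 ≤ w1') (h2 : w2 ≤ w2') (hA : A' ≤ A) : FSys O L i f bf ef a' w1' w2' A' := by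
  refine ⟨h.ortho, fun o ho => InB.mono (h.mem o ho) h0 h1 h2, h.cell, ?_⟩
  exact (mul_le_mul_of_nonneg_left hA (Nat.cast_nonneg _)).trans h.num

open Classical in
/-- **a system read over shorter cells** -/
theorem FSys.zoom (h : FSys O L i f bf ef a w1 w2 A) (hP : ∀ x ∈ Ov, par k x ∈ O) (hA : 0 < A)
    {s1 s2 c : ℝ} (hs1 : 0 < s1) (hs2 : 0 < s2) (hw1 : 0 ≤ w1) (hw2 : 0 ≤ w2)
    (h1 : w1 ≤ 2 ^ k * s1) (h2 : w2 ≤ 2 ^ k * s2) (hc : 0 < c)
    (hcard : c * (O.card : ℝ) ≤ (Ov.card : ℝ)) :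
    FSys Ov L (i + k) (lab L i k f bf ef s1 s2) (bb Ov L (lab L i k f bf ef s1 s2))
      (fun κ => ef κ.1) (2 * a) (5 * s1) (5 * s2)
      (A * c / (2 ^ k * ((2 * (w1 / s1) + 2) * (2 * (w2 / s2) + 2)))) := by
  refine ⟨fun o ho => h.ortho _ (hP o ho), ?_, ?_, ?_⟩
  · intro o ho
    obtain ⟨y, hy, hys, hyb⟩ := bb_spec (L := L) (s := lab L i k f bf ef s1 s2) ho
    rw [hyb]
    obtain ⟨e1, e2, e3⟩ := lab_box h hP hs1 hs2 h1 h2 hy ho hys.symm
    rw [← e2, ← e1] at e3
    exact e3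
  · intro o ho o' ho' hoo
    exact congrArg (fun p : α × ℤ × ℤ × ℤ => p.2.1) hoo
  · have e1 := card_lab (k := k) h hP hs1 hs2 hw1 hw2
    have e2 := h.num' hA
    have hN : 0 < (2 * (w1 / s1) + 2) * (2 * (w2 / s2) + 2) := by positivity
    generalize (2 * (w1 / s1) + 2) * (2 * (w2 / s2) + 2) = N at *
    have hkN : (0:ℝ) < 2 ^ k * N := by positivity
    have e3 : ((Ov.image (lab L i k f bf ef s1 s2)).card : ℝ) ≤ (O.card : ℝ) / A * (2 ^ k * N) := by
      refine e1.trans ?_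
      rw [mul_assoc]
      exact mul_le_mul_of_nonneg_right e2 hkN.le
    have e4 : ((Ov.image (lab L i k f bf ef s1 s2)).card : ℝ) * (A * c / (2 ^ k * N)) ≤
        (O.card : ℝ) / A * (2 ^ k * N) * (A * c / (2 ^ k * N)) :=
      mul_le_mul_of_nonneg_right e3 (by positivity)
    have e5 : (O.card : ℝ) / A * (2 ^ k * N) * (A * c / (2 ^ k * N)) = c * O.card := by
      field_simp
    rw [e5] at e4
    have e6 := e4.trans hcard
    refine le_trans (le_of_eq ?_) e6
    exact congrArg (fun n : ℕ => (n : ℝ) * (A * c / (2 ^ k * N))) (image_card_inst _ _ _ _)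

end

/-! ### marks -/

open Classical in
/-- **the marked classes are a system of flat boxes** -/
theorem fsys_of_mark {J : Finset (ℕ × ℝ)} {L : ℕ → Ln4} {i : ℕ} {f : ℕ → ℤ → ℕ} {b : ℕ → Plk4}
    {a w1 w2 A r0 : ℝ}
    (hmark : ∀ c : ℤ, ∀ t ∈ alive J i c,
      InSheet (L t) (b (f t c)).e (b (f t c)).c (b (f t c)).w (b (f t c)).q (b (f t c)).a
        (zl i c) (rho i) ∧
      ShN (b (f t c)).e (b (f t c)).c (b (f t c)).w (b (f t c)).q (b (f t c)).a (zl i c) (rho i) r0 ∧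
      (b (f t c)).a = a ∧ (b (f t c)).w 1 = w1 ∧ (b (f t c)).w 2 = w2)
    (hflat : ∀ c : ℤ, ∀ t ∈ alive J i c, ∀ z x, (b (f t c)).q z x =
      dt ((b (f t c)).e 0) (x - (b (f t c)).c.pos z))
    (hnear : ∀ c : ℤ, ∀ t ∈ alive J i c,
      A ≤ (((alive J i c).filter fun s => f s c = f t c).card : ℝ)) :
    FSys (J.image (lc i)) L i (fun o => (o.2, f o.1 o.2)) (fun κ : ℤ × ℕ => (b κ.2).c)
      (fun κ => (b κ.2).e) a w1 w2 A := by
  have hal : ∀ o ∈ J.image (lc i), o.1 ∈ alive J i o.2 := by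
    intro o ho
    obtain ⟨x, hx, rfl⟩ := mem_image.1 ho
    exact mem_alive.2 ⟨x, hx, rfl, rfl⟩
  refine ⟨fun o ho => (hmark _ _ (hal o ho)).2.1.ortho, ?_, ?_, ?_⟩
  · intro o ho z hz hz' k
    obtain ⟨h1, -, h3, h4, h5⟩ := hmark _ _ (hal o ho)
    obtain ⟨h6, h7⟩ := h1 z hz hz'
    rw [hflat _ _ (hal o ho), h3] at h7
    fin_cases k
    · simpa using h7
    · have := h6 1
      rw [h4] at this
      simpa using this
    · have := h6 2
      rw [h5] at this
      simpa using this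
  · intro o ho o' ho' h
    exact congrArg Prod.fst h
  · have e6 := classes_le (J.image (lc i)) ((J.image (lc i)).image fun o : ℕ × ℤ => (o.2, f o.1 o.2))
      (fun o : ℕ × ℤ => (o.2, f o.1 o.2)) (m := A) ?_
    · exact le_trans (le_of_eq (congrArg (fun n : ℕ => (n : ℝ) * A) (image_card_inst _ _ _ _))) e6
    intro κ hκ
    obtain ⟨o, ho, rfl⟩ := mem_image.1 hκ
    refine (hnear _ _ (hal o ho)).trans ?_
    rw [card_class J i o.2 (fun s => f s o.2) (f o.1 o.2)]
    refine Nat.cast_le.2 (card_le_card ?_)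
    intro o' ho'
    rw [mem_filter] at ho' ⊢
    obtain ⟨h1, h2, h3⟩ := ho'
    refine ⟨h1, ?_⟩
    simp only [Prod.mk.injEq]
    exact ⟨h2, by rw [h2]; exact h3⟩

/-! ### numbers of objects -/

open Classical in
/-- fibres of `par` -/
theorem par_fib (Q : Finset (ℕ × ℤ)) (o : ℕ × ℤ) (k : ℕ) :
    ((Q.filter fun x => par k x = o).card : ℝ) ≤ 2 ^ k := by
  have h1 : (Q.filter fun x => par k x = o).card ≤
      (Finset.Ico (o.2 * 2 ^ k) (o.2 * 2 ^ k + 2 ^ k)).card := by
    refine card_le_card_of_injOn Prod.snd ?_ ?_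
    · intro x hx
      have h2 := (mem_filter.1 (mem_coe.1 hx)).2
      rw [mem_coe, ico_div]
      rw [← h2]; rfl
    · intro x hx y hy hxy
      have h2 := (mem_filter.1 (mem_coe.1 hx)).2
      have h3 := (mem_filter.1 (mem_coe.1 hy)).2
      have h4 := congrArg Prod.fst (h2.trans h3.symm)
      exact Prod.ext h4 hxy
  have e2 : o.2 * 2 ^ k + 2 ^ k - o.2 * 2 ^ k = ((2 ^ k : ℕ) : ℤ) := by push_cast; ring
  rw [Int.card_Ico, e2, Int.toNat_natCast] at h1
  exact_mod_cast h1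

theorem par_lc {i j : ℕ} (h : i ≤ j) (x : ℕ × ℝ) : par (j - i) (lc j x) = lc i x := by
  unfold par lc
  rw [zc_div h]

open Classical in
/-- number of objects and own profile -/
theorem own_count {J : Finset (ℕ × ℝ)} {i j : ℕ} (hij : i ≤ j) {c : ℝ}
    (hc : ∀ x ∈ J, c ≤ ((own J i j x).card : ℝ)) :
    c * ((J.image (lc i)).card : ℝ) ≤ ((J.image (lc j)).card : ℝ) := by
  rw [mul_comm]
  refine classes_le _ _ (par (j - i)) ?_
  intro o ho
  obtain ⟨x, hx, rfl⟩ := mem_image.1 ho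
  refine (hc x hx).trans (Nat.cast_le.2 ?_)
  refine card_le_card_of_injOn (fun c' : ℤ => (x.1, c')) ?_ ?_
  · intro c' hc'
    have h1 := mem_coe.1 hc'
    unfold own at h1
    obtain ⟨y, hy, rfl⟩ := mem_image.1 h1
    obtain ⟨hyJ, hy1, hy2⟩ := mem_filter.1 hy
    rw [mem_coe, mem_filter]
    refine ⟨mem_image.2 ⟨y, hyJ, by simp only [lc, hy1]⟩, ?_⟩
    have h3 := par_lc hij y
    simp only [lc, hy1, hy2] at h3 ⊢
    exact h3
  · intro a _ b _ hab
    exact congrArg Prod.snd hab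

theorem par_ext {J : Finset (ℕ × ℝ)} {l1 m j : ℕ} {o : ℕ × ℤ} (ho : o ∈ extO J l1 (m + j)) :
    par j o ∈ extO J l1 m := by
  rcases le_total m l1 with h | h
  · rw [mem_extO_le h]
    obtain ⟨x, hx, hxo⟩ := extO_anc h (Nat.le_add_right m j) ho
    refine ⟨x, hx, hxo.trans ?_⟩
    unfold par
    rw [Nat.add_sub_cancel_left]
  · rw [mem_extO_ge (by omega)] at ho
    rw [mem_extO_ge h]
    obtain ⟨x, hx, hxo⟩ := ho
    refine ⟨x, hx, hxo.trans ?_⟩
    unfold par
    rw [Int.ediv_ediv_of_nonneg (by positivity), ← pow_add]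
    congr 3
    omega

open Classical in
theorem par_ext_obj {J : Finset (ℕ × ℝ)} {l1 lv k : ℕ} (h : lv ≤ l1) {o : ℕ × ℤ}
    (ho : o ∈ extO J l1 (lv + k)) : par k o ∈ J.image (lc lv) := by
  obtain ⟨x, hx, hxo⟩ := extO_anc h (Nat.le_add_right lv k) ho
  refine mem_image.2 ⟨x, hx, hxo.trans ?_⟩
  unfold par
  rw [Nat.add_sub_cancel_left]

open Classical in
/-- deep objects are at most `2^k` times the objects -/
theorem ext_up {J : Finset (ℕ × ℝ)} {l1 lv k : ℕ} (h : lv ≤ l1) :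
    ((extO J l1 (lv + k)).card : ℝ) ≤ ((J.image (lc lv)).card : ℝ) * 2 ^ k :=
  card_le_of_fib _ (J.image (lc lv)) (par k) (fun o ho => par_ext_obj h ho) (by positivity) le_rfl
    (fun o _ => by
      have := par_fib (extO J l1 (lv + k)) o k
      convert this)

open Classical in
/-- ... and at least that, up to the loss of the own profile -/
theorem ext_low {J : Finset (ℕ × ℝ)} {l1 lv k : ℕ} (h : lv ≤ l1) {X : ℝ} (hX : 0 < X)
    (hc : ∀ x ∈ J, 2 ^ (l1 - lv) ≤ X * ((own J lv l1 x).card : ℝ)) :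
    ((J.image (lc lv)).card : ℝ) * 2 ^ k ≤ X * ((extO J l1 (lv + k)).card : ℝ) := by
  have h1 : (2 ^ (l1 - lv) / X) * ((J.image (lc lv)).card : ℝ) ≤ ((J.image (lc l1)).card : ℝ) :=
    own_count h fun x hx => by
      rw [div_le_iff₀ hX, mul_comm]; exact hc x hx
  have h1' : (2:ℝ) ^ (l1 - lv) * ((J.image (lc lv)).card : ℝ) ≤
      X * ((J.image (lc l1)).card : ℝ) := by
    have h2 := mul_le_mul_of_nonneg_left h1 hX.le
    have e : X * (2 ^ (l1 - lv) / X * ((J.image (lc lv)).card : ℝ)) =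
        2 ^ (l1 - lv) * ((J.image (lc lv)).card : ℝ) := by field_simp
    rw [e] at h2
    exact h2
  rcases le_total (lv + k) l1 with h3 | h3
  · -- inside the levels of the incidences
    have h4 : extO J l1 (lv + k) = J.image (lc (lv + k)) := by
      unfold extO; rw [if_pos h3]
    have h5 : ((J.image (lc l1)).card : ℝ) ≤
        ((J.image (lc (lv + k))).card : ℝ) * 2 ^ (l1 - (lv + k)) := by
      refine card_le_of_fib _ (J.image (lc (lv + k))) (par (l1 - (lv + k))) ?_ (by positivity) le_rfl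
        (fun o _ => by
          have := par_fib (J.image (lc l1)) o (l1 - (lv + k))
          convert this)
      intro o ho
      obtain ⟨x, hx, rfl⟩ := mem_image.1 ho
      rw [par_lc h3]
      exact mem_image_of_mem _ hx
    rw [h4]
    have h6 : (2:ℝ) ^ (l1 - lv) = 2 ^ k * 2 ^ (l1 - (lv + k)) := by
      rw [← pow_add]; congr 1; omega
    have h7 : (2:ℝ) ^ (l1 - (lv + k)) * (((J.image (lc lv)).card : ℝ) * 2 ^ k) ≤
        2 ^ (l1 - (lv + k)) * (X * ((J.image (lc (lv + k))).card : ℝ)) := by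
      calc (2:ℝ) ^ (l1 - (lv + k)) * (((J.image (lc lv)).card : ℝ) * 2 ^ k) =
            2 ^ (l1 - lv) * ((J.image (lc lv)).card : ℝ) := by rw [h6]; ring
        _ ≤ X * ((J.image (lc l1)).card : ℝ) := h1'
        _ ≤ X * (((J.image (lc (lv + k))).card : ℝ) * 2 ^ (l1 - (lv + k))) := by gcongr
        _ = _ := by ring
    exact le_of_mul_le_mul_left h7 (by positivity)
  · have h4 := card_extO (I := J) h3
    have h4' : ((extO J l1 (lv + k)).card : ℝ) =
        2 ^ (lv + k - l1) * ((J.image (lc l1)).card : ℝ) := by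
      have := congrArg (fun n : ℕ => (n : ℝ)) h4
      push_cast at this
      convert this
    rw [h4']
    have h6 : (2:ℝ) ^ k = 2 ^ (l1 - lv) * 2 ^ (lv + k - l1) := by
      rw [← pow_add]; congr 1; omega
    calc ((J.image (lc lv)).card : ℝ) * 2 ^ k =
          2 ^ (lv + k - l1) * (2 ^ (l1 - lv) * ((J.image (lc lv)).card : ℝ)) := by rw [h6]; ring
      _ ≤ 2 ^ (lv + k - l1) * (X * ((J.image (lc l1)).card : ℝ)) := by gcongr
      _ = _ := by ring

/-- a part of the deep objects with parents in a given part -/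
theorem part_count {J : Finset (ℕ × ℝ)} {l1 lv k' j : ℕ} (h : lv ≤ l1) {X γ : ℝ} (hX : 1 ≤ X)
    (hγ : 0 ≤ γ) (hγX : 4 * X * γ ≤ 1)
    (hc : ∀ x ∈ J, 2 ^ (l1 - lv) ≤ X * ((own J lv l1 x).card : ℝ)) {P P' : Finset (ℕ × ℤ)}
    (hP : P ⊆ extO J l1 (lv + (k' + j)))
    (h1 : ((extO J l1 (lv + (k' + j))).card : ℝ) ≤ P.card + γ * (extO J l1 (lv + (k' + j))).card)
    (h2 : ((extO J l1 (lv + k')).card : ℝ) ≤ P'.card + γ * (extO J l1 (lv + k')).card)
    (hP' : P' ⊆ extO J l1 (lv + k')) :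
    (1 / (4 * X)) * ((J.image (lc lv)).card : ℝ) * 2 ^ (k' + j) ≤
      ((P.filter fun x => par j x ∈ P').card : ℝ) := by
  classical
  set E := extO J l1 (lv + (k' + j)) with hE
  set E' := extO J l1 (lv + k') with hE'
  have hpar : ∀ o ∈ E, par j o ∈ E' := by
    intro o ho
    rw [hE, ← add_assoc] at ho
    exact par_ext ho
  have h3 : P.card ≤ (P.filter fun x => par j x ∈ P').card +
      (E.filter fun x => par j x ∈ E' \ P').card := by
    rw [← card_filter_add_card_filter_not (s := P) (fun x => par j x ∈ P')]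
    refine Nat.add_le_add_left (card_le_card ?_) _
    intro x hx
    obtain ⟨hx1, hx2⟩ := mem_filter.1 hx
    exact mem_filter.2 ⟨hP hx1, mem_sdiff.2 ⟨hpar x (hP hx1), hx2⟩⟩
  have h4 : ((E.filter fun x => par j x ∈ E' \ P').card : ℝ) ≤
      ((E' \ P').card : ℝ) * 2 ^ j := by
    refine card_le_of_fib _ (E' \ P') (par j) (fun x hx => (mem_filter.1 hx).2) (by positivity)
      le_rfl ?_
    intro o ho
    have := par_fib (E.filter fun x => par j x ∈ E' \ P') o j
    convert this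
  have h5 : ((E' \ P').card : ℝ) ≤ γ * (E'.card : ℝ) := by
    have := card_sdiff_add_card_eq_card hP'
    have h6 : ((E' \ P').card : ℝ) + P'.card = E'.card := by exact_mod_cast this
    linarith
  have h6 : (E'.card : ℝ) ≤ ((J.image (lc lv)).card : ℝ) * 2 ^ k' := ext_up h
  have h7 := ext_low (k := k' + j) h (by linarith : (0:ℝ) < X) hc
  rw [← hE] at h7
  have h8 : (P.card : ℝ) ≤ ((P.filter fun x => par j x ∈ P').card : ℝ) +
      ((E.filter fun x => par j x ∈ E' \ P').card : ℝ) := by exact_mod_cast h3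
  set N := ((J.image (lc lv)).card : ℝ) with hN
  have hN0 : 0 ≤ N := Nat.cast_nonneg _
  have h9 : ((E.filter fun x => par j x ∈ E' \ P').card : ℝ) ≤ γ * (N * 2 ^ (k' + j)) := by
    calc ((E.filter fun x => par j x ∈ E' \ P').card : ℝ) ≤ ((E' \ P').card : ℝ) * 2 ^ j := h4
      _ ≤ (γ * (E'.card : ℝ)) * 2 ^ j := by gcongr
      _ ≤ (γ * (N * 2 ^ k')) * 2 ^ j := by gcongr
      _ = _ := by rw [pow_add]; ring
  have hX0 : 0 < X := by linarith
  have hγ1 : γ ≤ 1 / 4 := by
    have : 4 * 1 * γ ≤ 4 * X * γ := by gcongr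
    linarith
  have h10 : (3 / 4) * (E.card : ℝ) ≤ P.card := by
    have : 0 ≤ (E.card : ℝ) := Nat.cast_nonneg _
    nlinarith
  have h11 : N * 2 ^ (k' + j) / X ≤ (E.card : ℝ) := by
    rw [div_le_iff₀ hX0]; linarith
  have h12 : γ * (N * 2 ^ (k' + j)) ≤ (1 / 4) * (N * 2 ^ (k' + j) / X) := by
    have h13 : γ ≤ 1 / (4 * X) := by rw [le_div_iff₀ (by positivity)]; linarith
    calc γ * (N * 2 ^ (k' + j)) ≤ 1 / (4 * X) * (N * 2 ^ (k' + j)) := by gcongr
      _ = _ := by field_simp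
  have h14 : 0 ≤ N * 2 ^ (k' + j) / X := by positivity
  have h15 : 1 / (4 * X) * N * 2 ^ (k' + j) = (1 / 4) * (N * 2 ^ (k' + j) / X) := by field_simp
  rw [h15]
  linarith

end Crest.Agent.R136.Fl808
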