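import Crest.Agent.R136.Fm1_808

/-!
# R136 (S0187): flat tilt, common dimensions and the one-stage theorem (helper808)
-/

set_option autoImplicit false
set_option linter.unusedVariables false
set_option linter.unusedSectionVars false

namespace Crest.Agent.R136.Fl808

open Finset Crest.Agent.R136.Sh605
open Crest.Agent.R138.Mk163 (zc zl rho alive own)
open Crest.Agent.R138.MkRef627 (lc mem_alive card_class)

/-! ### wider boxes -/

/-- an affine function bounded at the two ends of an interval is bounded on it -/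
theorem aff_le {A B z0 ρ s z : ℝ} (hρ : 0 < ρ) (h0 : |A + z0 * B| ≤ s)
    (h1 : |A + (z0 + ρ) * B| ≤ s) (hz0 : z0 ≤ z) (hz1 : z ≤ z0 + ρ) : |A + z * B| ≤ s := by
  rw [abs_le] at h0 h1 ⊢
  have h2 : 0 ≤ z - z0 := by linarith
  have h3 : 0 ≤ z0 + ρ - z := by linarith
  have e : ρ * (A + z * B) = (z0 + ρ - z) * (A + z0 * B) + (z - z0) * (A + (z0 + ρ) * B) := by
    ring
  have h4 := mul_le_mul_of_nonneg_left h0.1 h3
  have h5 := mul_le_mul_of_nonneg_left h0.2 h3
  have h6 := mul_le_mul_of_nonneg_left h1.1 h2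
  have h7 := mul_le_mul_of_nonneg_left h1.2 h2
  constructor
  · have : ρ * (-s) ≤ ρ * (A + z * B) := by rw [e]; linarith
    exact le_of_mul_le_mul_left this hρ
  · have : ρ * (A + z * B) ≤ ρ * s := by rw [e]; linarith
    exact le_of_mul_le_mul_left this hρ

theorem pos_aff (e : V3) (t l : Ln4) (z : ℝ) :
    dt e (t.pos z - l.pos z) = dt e (t.p - l.p) + z * dt e (t.v - l.v) := by
  simp only [dt, Ln4.pos, Pi.sub_apply]; ring

theorem inB_of_ends {t l : Ln4} {e : Fin 3 → V3} {s : V3} {z0 ρ : ℝ} (hρ : 0 < ρ)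
    (h0 : ∀ i, |dt (e i) (t.pos z0 - l.pos z0)| ≤ s i)
    (h1 : ∀ i, |dt (e i) (t.pos (z0 + ρ) - l.pos (z0 + ρ))| ≤ s i) : InB t l e s z0 ρ := by
  intro z hz0 hz1 i
  have k0 := h0 i
  have k1 := h1 i
  rw [pos_aff] at k0 k1 ⊢
  exact aff_le hρ k0 k1 hz0 hz1

/-- the cell of a number of `[-s, s]` in the mesh `s'` -/
noncomputable def cel (s s' u : ℝ) : ℕ := ⌊(u + s) / s'⌋₊

theorem cel_lt {s s' u K : ℝ} (hs' : 0 < s') (hs : s ≤ K * s') (hu : |u| ≤ s) :
    cel s s' u < ⌊2 * K⌋₊ + 1 := by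
  unfold cel
  rw [Nat.lt_add_one_iff]
  apply Nat.floor_le_floor
  rw [div_le_iff₀ hs']
  have := (abs_le.1 hu).2
  linarith

theorem cel_eq {s s' u v : ℝ} (hs' : 0 < s') (hu : |u| ≤ s) (hv : |v| ≤ s)
    (h : cel s s' u = cel s s' v) : |u - v| ≤ s' := by
  unfold cel at h
  have h1 : 0 ≤ (u + s) / s' := div_nonneg (by linarith [(abs_le.1 hu).1]) hs'.le
  have h2 : 0 ≤ (v + s) / s' := div_nonneg (by linarith [(abs_le.1 hv).1]) hs'.le
  have a1 := Nat.floor_le h1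
  have a2 := Nat.lt_floor_add_one ((u + s) / s')
  have b1 := Nat.floor_le h2
  have b2 := Nat.lt_floor_add_one ((v + s) / s')
  rw [h] at a1 a2
  set m : ℝ := (⌊(v + s) / s'⌋₊ : ℝ) with hm
  rw [le_div_iff₀ hs'] at a1 b1
  rw [div_lt_iff₀ hs'] at a2 b2
  rw [abs_le]
  constructor <;> nlinarith

open Classical in
/-- **wider boxes** (helper413's `dmaxB_wide` with lower bounds of the widths) -/
theorem dmaxW_wide {ι : Type*} {T : Finset ι} {L : ι → Ln4}
    {z0 ρ D q0 q1 q2 r0 ω1 ω2 K C1 R2 Ra : ℝ}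
    (H : DMaxW T L z0 ρ D q0 q1 q2 r0 ω1 ω2 (min ρ C1) R2 Ra) (h0 : 0 ≤ q0) (h1 : 0 ≤ q1) (h2 : 0 ≤ q2)
    (hr0 : 0 < r0) (hr : r0 ≤ ρ) (hω1 : ω1 ≤ ρ) (hω2 : ω2 ≤ ρ) (hD : 0 ≤ D) (hK : 1 ≤ K) :
    DMaxW T L z0 ρ ((2 * K + 1) ^ 6 * D) q0 q1 q2 r0 ω1 ω2 (min (K * ρ) C1) R2 Ra := by
  have hρ : 0 < ρ := hr0.trans_le hr
  intro n l a w1 w2 hn ha haw hw ho1 ho2 hwKC hwR2 haRa
  have hwK : w1 ≤ K * ρ := hwKC.trans (min_le_left _ _)
  have hwC : w1 ≤ C1 := hwKC.trans (min_le_right _ _)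
  have pa : 0 < a := hr0.trans_le ha
  have pw2 : 0 < w2 := pa.trans_le haw
  have pw1 : 0 < w1 := pw2.trans_le hw
  set S := T.filter fun t => InB (L t) l n ![a, w1, w2] z0 ρ with hS
  set s : V3 := ![a, w1, w2] with hs
  set s' : V3 := ![min a ρ, min w1 ρ, min w2 ρ] with hs'
  have hsp : ∀ i, 0 < s' i := by
    intro i
    fin_cases i
    · exact lt_min pa hρ
    · exact lt_min pw1 hρ
    · exact lt_min pw2 hρ
  have hmin : ∀ w : ℝ, 0 < w → w ≤ K * ρ → w ≤ K * min w ρ := by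
    intro w hw0 hwk
    rcases le_total w ρ with h | h
    · rw [min_eq_left h]; nlinarith
    · rw [min_eq_right h]; exact hwk
  have hsK : ∀ i, s i ≤ K * s' i := by
    intro i
    fin_cases i
    · exact hmin a pa (by linarith)
    · exact hmin w1 pw1 hwK
    · exact hmin w2 pw2 (by linarith)
  set cd : ι → Fin 3 → ℕ × ℕ := fun t i =>
    (cel (s i) (s' i) (dt (n i) ((L t).pos z0 - l.pos z0)),
      cel (s i) (s' i) (dt (n i) ((L t).pos (z0 + ρ) - l.pos (z0 + ρ)))) with hcd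
  set N := ⌊2 * K⌋₊ + 1 with hN
  set C : Finset (Fin 3 → ℕ × ℕ) := Fintype.piFinset fun _ => range N ×ˢ range N with hC
  have hcard : (C.card : ℝ) ≤ (2 * K + 1) ^ 6 := by
    have e1 : C.card = (N * N) ^ 3 := by
      rw [hC, Fintype.card_piFinset]
      simp
    have e2 : (N : ℝ) ≤ 2 * K + 1 := by
      rw [hN]; push_cast
      linarith [Nat.floor_le (show (0:ℝ) ≤ 2 * K by linarith)]
    rw [e1]
    push_cast
    calc ((N : ℝ) * N) ^ 3 = (N : ℝ) ^ 6 := by ring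
      _ ≤ (2 * K + 1) ^ 6 := pow_le_pow_left₀ (Nat.cast_nonneg _) e2 6
  have hmap : ∀ t ∈ S, cd t ∈ C := by
    intro t ht
    rw [hS, mem_filter] at ht
    rw [hC, Fintype.mem_piFinset]
    intro i
    rw [mem_product, mem_range, mem_range]
    exact ⟨cel_lt (hsp i) (hsK i) (ht.2 z0 le_rfl (by linarith) i),
      cel_lt (hsp i) (hsK i) (ht.2 (z0 + ρ) (by linarith) le_rfl i)⟩
  have hfib : ∀ c ∈ C, ((S.filter fun t => cd t = c).card : ℝ) ≤ D * capB q0 q1 q2 a w1 w2 := by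
    intro c hc
    rcases (S.filter fun t => cd t = c).eq_empty_or_nonempty with hE | ⟨t0, ht0⟩
    · rw [hE]
      simp only [card_empty, Nat.cast_zero]
      exact mul_nonneg hD (capB_pos pa pw1 pw2).le
    · have ht0' := ht0
      rw [mem_filter] at ht0'
      obtain ⟨hS0, hc0⟩ := ht0'
      have hb0 := (mem_filter.1 hS0).2
      have key : ∀ t ∈ S.filter fun t => cd t = c, InB (L t) (L t0) n s' z0 ρ := by
        intro t ht
        rw [mem_filter] at ht
        obtain ⟨hSt, hct⟩ := ht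
        have hbt := (mem_filter.1 hSt).2
        have hcc : cd t = cd t0 := by rw [hct, hc0]
        have hdiff : ∀ (i : Fin 3) (z : ℝ), dt (n i) ((L t).pos z - (L t0).pos z) =
            dt (n i) ((L t).pos z - l.pos z) - dt (n i) ((L t0).pos z - l.pos z) := by
          intro i z
          simp only [dt, Pi.sub_apply]; ring
        apply inB_of_ends hρ
        · intro i
          rw [hdiff]
          have := congrArg Prod.fst (congrFun hcc i)
          exact cel_eq (hsp i) (hbt z0 le_rfl (by linarith) i) (hb0 z0 le_rfl (by linarith) i) this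
        · intro i
          rw [hdiff]
          have := congrArg Prod.snd (congrFun hcc i)
          exact cel_eq (hsp i) (hbt (z0 + ρ) (by linarith) le_rfl i)
            (hb0 (z0 + ρ) (by linarith) le_rfl i) this
      have h3 : ((S.filter fun t => cd t = c).card : ℝ) ≤
          ((T.filter fun t => InB (L t) (L t0) n s' z0 ρ).card : ℝ) := by
        refine Nat.cast_le.2 (card_le_card fun t ht => ?_)
        have hk := key t ht
        rw [mem_filter] at ht ⊢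
        exact ⟨(mem_filter.1 ht.1).1, hk⟩
      have h4 := H n (L t0) (min a ρ) (min w1 ρ) (min w2 ρ) hn (le_min ha hr)
        (min_le_min_right _ haw) (min_le_min_right _ hw) (le_min ho1 hω1) (le_min ho2 hω2)
        (le_min (min_le_right _ _) ((min_le_left _ _).trans hwC)) ((min_le_left _ _).trans hwR2)
        ((min_le_left _ _).trans haRa)
      refine h3.trans (h4.trans (mul_le_mul_of_nonneg_left ?_ hD))
      exact capB_mono h0 h1 h2 (lt_min pa hρ).le (lt_min pw1 hρ).le (lt_min pw2 hρ).le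
        (min_le_left _ _) (min_le_left _ _) (min_le_left _ _)
  have e1 : (S.card : ℝ) = ∑ c ∈ C, ((S.filter fun t => cd t = c).card : ℝ) := by
    rw [card_eq_sum_card_fiberwise (f := cd) (t := C) hmap]
    push_cast
    rfl
  rw [e1]
  calc ∑ c ∈ C, ((S.filter fun t => cd t = c).card : ℝ)
      ≤ ∑ c ∈ C, D * capB q0 q1 q2 a w1 w2 := sum_le_sum hfib
    _ = C.card * (D * capB q0 q1 q2 a w1 w2) := by rw [sum_const, nsmul_eq_mul]
    _ ≤ (2 * K + 1) ^ 6 * (D * capB q0 q1 q2 a w1 w2) :=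
        mul_le_mul_of_nonneg_right hcard (mul_nonneg hD (capB_pos pa pw1 pw2).le)
    _ = (2 * K + 1) ^ 6 * D * capB q0 q1 q2 a w1 w2 := by ring

/-- smaller upper bounds of the widths -/
theorem DMaxW.anti {ι : Type*} {T : Finset ι} {L : ι → Ln4}
    {z0 ρ D D' q0 q1 q2 r0 ω1 ω2 R0 R0' R2 R2' Ra Ra' : ℝ}
    (H : DMaxW T L z0 ρ D q0 q1 q2 r0 ω1 ω2 R0 R2 Ra) (hR : R0' ≤ R0) (hR2 : R2' ≤ R2)
    (hRa : Ra' ≤ Ra) (hD : D ≤ D')
    (hr0 : 0 < r0) : DMaxW T L z0 ρ D' q0 q1 q2 r0 ω1 ω2 R0' R2' Ra' := by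
  classical
  intro n l a w1 w2 h1 h2 h3 h4 h5 h6 h7 h8 h9
  refine le_trans ?_ (mul_le_mul_of_nonneg_right hD (capB_pos (q0 := q0) (q1 := q1) (q2 := q2)
    (hr0.trans_le h2) (((hr0.trans_le h2).trans_le h3).trans_le h4) ((hr0.trans_le h2).trans_le h3)).le)
  convert H n l a w1 w2 h1 h2 h3 h4 h5 h6 (h7.trans hR) (h8.trans hR2) (h9.trans hRa)

theorem DMaxP.wide {P : Finset (ℕ × ℤ)} {L : ℕ → Ln4} {m : ℕ}
    {D D' q0 q1 q2 r0 ω1 ω2 K R0 R2 Ra C1 C2 Ca : ℝ}
    (H : DMaxP P L m D q0 q1 q2 r0 ω1 ω2 (min (rho m) C1) C2 Ca) (h0 : 0 ≤ q0)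
    (h1 : 0 ≤ q1) (h2 : 0 ≤ q2) (hr0 : 0 < r0) (hr : r0 ≤ rho m) (hω1 : ω1 ≤ rho m)
    (hω2 : ω2 ≤ rho m) (hD : 0 ≤ D) (hK : 1 ≤ K) (hR : R0 ≤ K * rho m) (hRC : R0 ≤ C1)
    (hR2 : R2 ≤ C2) (hRa : Ra ≤ Ca) (hD' : (2 * K + 1) ^ 6 * D ≤ D') :
    DMaxP P L m D' q0 q1 q2 r0 ω1 ω2 R0 R2 Ra :=
  fun c => (dmaxW_wide (H c) h0 h1 h2 hr0 hr hω1 hω2 hD hK).anti (le_min hR hRC) hR2 hRa hD' hr0

/-! ### common dimensions -/

/-- common thickness -/
noncomputable def aC (au av : ℝ) : ℝ := 40 * max au av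
/-- common lateral widths -/
noncomputable def wC (k0 : ℕ) (au av wu wv : ℝ) : ℝ := 5 * max (max wv (wu / 2 ^ k0)) (aC au av)

section

variable {k0 : ℕ} {au av w1u w1v w2u w2v E : ℝ}

theorem aC_pos (hu : 0 < au) : 0 < aC au av := by
  have : au ≤ max au av := le_max_left _ _
  unfold aC; linarith

theorem aC_u (hu : 0 < au) : 2 * au ≤ aC au av := by
  have : au ≤ max au av := le_max_left _ _
  unfold aC; linarith

theorem aC_v (hv : 0 < av) : av ≤ aC au av := by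
  have : av ≤ max au av := le_max_right _ _
  unfold aC; linarith

theorem aC_leV (hv : 0 < av) (hE : 1 ≤ E) (h : au ≤ E * av) : aC au av ≤ 40 * E * av := by
  unfold aC
  have : max au av ≤ E * av := max_le h (by nlinarith)
  linarith

theorem aC_leU (hu : 0 < au) (hE : 1 ≤ E) (h : av ≤ E * au) : aC au av ≤ 40 * E * au := by
  unfold aC
  have : max au av ≤ E * au := max_le (by nlinarith) h
  linarith

theorem wC_a : 5 * aC au av ≤ wC k0 au av w1u w1v := by
  unfold wC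
  exact mul_le_mul_of_nonneg_left (le_max_right _ _) (by norm_num)

theorem wC_v : 5 * w1v ≤ wC k0 au av w1u w1v := by
  unfold wC
  exact mul_le_mul_of_nonneg_left ((le_max_left _ _).trans (le_max_left _ _)) (by norm_num)

theorem wC_u : w1u ≤ 2 ^ k0 * (wC k0 au av w1u w1v / 5) := by
  have h : w1u / 2 ^ k0 ≤ wC k0 au av w1u w1v / 5 := by
    unfold wC
    rw [mul_div_cancel_left₀ _ (by norm_num : (5:ℝ) ≠ 0)]
    exact (le_max_right _ _).trans (le_max_left _ _)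
  rw [div_le_iff₀ (by positivity)] at h
  linarith

theorem wC_mono (h1 : w2u ≤ w1u) (h2 : w2v ≤ w1v) :
    wC k0 au av w2u w2v ≤ wC k0 au av w1u w1v := by
  unfold wC
  refine mul_le_mul_of_nonneg_left (max_le_max (max_le_max h2 ?_) le_rfl) (by norm_num)
  exact div_le_div_of_nonneg_right h1 (by positivity)

theorem wC_leV (hv : 0 < av) (hw : av ≤ w1v) (hE : 1 ≤ E) (h : au ≤ E * av) (h1 : w1u ≤ E * w1v) :
    wC k0 au av w1u w1v ≤ 200 * E * w1v := by
  unfold wC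
  have hw0 : 0 < w1v := hv.trans_le hw
  have p : (1:ℝ) ≤ 2 ^ k0 := one_le_pow₀ (by norm_num)
  have h2 : w1u / 2 ^ k0 ≤ 40 * E * w1v := by
    rw [div_le_iff₀ (by positivity)]
    have : 0 < E * w1v := by positivity
    calc w1u ≤ E * w1v := h1
      _ ≤ 40 * E * w1v := by linarith
      _ ≤ 40 * E * w1v * 2 ^ k0 := le_mul_of_one_le_right (by positivity) p
  have h3 : aC au av ≤ 40 * E * w1v := (aC_leV hv hE h).trans (by gcongr)
  have h4 : w1v ≤ 40 * E * w1v := by nlinarith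
  have := max_le (max_le h4 h2) h3
  linarith

theorem wC_leU (hu : 0 < au) (hw : au ≤ w1u) (hE : 1 ≤ E) (h : av ≤ E * au) (h1 : w1v ≤ E * w1u) :
    wC k0 au av w1u w1v ≤ 200 * E * w1u := by
  unfold wC
  have hw0 : 0 < w1u := hu.trans_le hw
  have p : (1:ℝ) ≤ 2 ^ k0 := one_le_pow₀ (by norm_num)
  have h2 : w1u / 2 ^ k0 ≤ 40 * E * w1u := by
    rw [div_le_iff₀ (by positivity)]
    have : 0 < E * w1u := by positivity
    calc w1u ≤ 40 * E * w1u := by nlinarith
      _ ≤ 40 * E * w1u * 2 ^ k0 := le_mul_of_one_le_right (by positivity) p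
  have h3 : aC au av ≤ 40 * E * w1u := (aC_leU hu hE h).trans (by gcongr)
  have h4 : w1v ≤ 40 * E * w1u := by nlinarith
  have := max_le (max_le h4 h2) h3
  linarith

end

end Crest.Agent.R136.Fl808
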