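import Crest.Agent.R136.Fm2_808

/-!
# R136 (S0187): flat tilt, the one-stage theorem (helper808)

`one_n` : marks of two levels of one stage, compared over the cells of the finer level.
-/

set_option autoImplicit false
set_option linter.unusedVariables false
set_option linter.unusedSectionVars false

namespace Crest.Agent.R136.Fl808

open Finset Crest.Agent.R136.Sh605
open Crest.Agent.R138.Mk163 (zc zl rho alive own)
open Crest.Agent.R138.MkRef627 (lc mem_alive card_class)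

theorem capB_cube {q0 q1 q2 a w1 w2 x : ℝ} (ha : 0 ≤ a) (h1 : 0 ≤ w1) (h2 : 0 ≤ w2) (hx : 0 < x) :
    capB q0 q1 q2 (x * a) (x * w1) (x * w2) =
      x ^ (3 + (q0 + q1 + q2)) * capB q0 q1 q2 a w1 w2 := by
  rw [capB_scale ha h1 h2 hx.le hx.le hx.le, ← Real.rpow_add hx, ← Real.rpow_add hx]
  congr 2
  ring

/-- number of small boxes -/
theorem N_le {w1 w2 s1 s2 : ℝ} {k0 : ℕ} (hw1 : 0 ≤ w1) (hw2 : 0 ≤ w2) (hs1 : 0 < s1) (hs2 : 0 < s2)
    (h1 : w1 ≤ 2 ^ k0 * s1) (h2 : w2 ≤ 2 ^ k0 * s2) :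
    (2 * (w1 / s1) + 2) * (2 * (w2 / s2) + 2) ≤ 16 * 4 ^ k0 := by
  have p : (1:ℝ) ≤ 2 ^ k0 := one_le_pow₀ (by norm_num)
  have e1 : w1 / s1 ≤ 2 ^ k0 := by rw [div_le_iff₀ hs1]; exact h1
  have e2 : w2 / s2 ≤ 2 ^ k0 := by rw [div_le_iff₀ hs2]; exact h2
  have e3 : (16:ℝ) * 4 ^ k0 = (4 * 2 ^ k0) * (4 * 2 ^ k0) := by
    have : (4:ℝ) ^ k0 = 2 ^ k0 * 2 ^ k0 := by rw [← mul_pow]; norm_num
    rw [this]; ring
  rw [e3]
  have : 0 ≤ w2 / s2 := by positivity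
  refine mul_le_mul (by linarith) (by linarith) (by positivity) (by positivity)

section

variable {α β : Type*} {Ou Ov Pj P P' : Finset (ℕ × ℤ)} {L : ℕ → Ln4} {i k0 : ℕ} {f : ℕ × ℤ → α}
  {g : ℕ × ℤ → β} {bf : α → Ln4} {ef : α → Fin 3 → V3} {bg : β → Ln4} {eg : β → Fin 3 → V3}
  {au w1u w2u Au av w1v w2v Av q0 q1 q2 r0 M W Wu Wv δ0 ω1 ω2 g' c E : ℝ} {j k' : ℕ}

theorem one_n (hu : FSys Ou L i f bf ef au w1u w2u Au)
    (hv : FSys Ov L (i + k0) g bg eg av w1v w2v Av)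
    (hpar : ∀ x ∈ Ov, par k0 x ∈ Ou) (hc : 0 < c) (hc0 : c * (Ou.card : ℝ) ≤ Ov.card)
    (hau : 0 < au) (hau2 : au ≤ w2u) (hwu : w2u ≤ w1u)
    (hav : 0 < av) (hav2 : av ≤ w2v) (hwv : w2v ≤ w1v)
    (hE : 1 ≤ E) (ea : au ≤ E * av) (ea' : av ≤ E * au) (e1 : w1u ≤ E * w1v) (e1' : w1v ≤ E * w1u)
    (e2 : w2u ≤ E * w2v) (e2' : w2v ≤ E * w2u)
    -- the three deeper levels
    (hPj : Pj.Nonempty) (hPjO : ∀ x ∈ Pj, par j x ∈ Ov)
    (hP : P.Nonempty) (hPO : ∀ x ∈ P, par (k' + j) x ∈ Ov) (hPP : ∀ x ∈ P, par j x ∈ P')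
    (hdj : DMaxP Pj L (i + k0 + j) (M * 2 ^ ((g' + q1 + q2) * (j : ℝ))) q0 q1 q2 r0 ω1 ω2
      (2000 * (wC k0 au av w1u w1v / 2 ^ j)) (2000 * wC k0 au av w2u w2v)
      (2000 * (2 ^ k' * aC au av)))
    (hd' : DMaxP P' L (i + k0 + k') (M * 2 ^ ((g' + q1 + q2) * (k' : ℝ))) q0 q1 q2 r0 ω1 ω2
      (2000 * (wC k0 au av w1u w1v / 2 ^ k')) (2000 * wC k0 au av w2u w2v)
      (2000 * (2 ^ k' * aC au av)))
    (hd : DMaxP P L (i + k0 + (k' + j)) (M * 2 ^ ((g' + q1 + q2) * ((k' + j : ℕ) : ℝ)))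
      q0 q1 q2 r0 ω1 ω2 (2000 * (wC k0 au av w1u w1v / 2 ^ (k' + j))) (2000 * wC k0 au av w2u w2v)
      (2000 * (2 ^ k' * aC au av)))
    (hcardj : δ0 * (Ov.card : ℝ) * 2 ^ j ≤ (Pj.card : ℝ))
    (hcard : δ0 * (Ov.card : ℝ) * 2 ^ (k' + j) ≤ (P.card : ℝ))
    -- numbers
    (hr0 : r0 ≤ aC au av) (hM : 0 < M)
    (hAu : 0 < Au) (hAv : 0 < Av) (hδ0 : 0 < δ0) (hδ1 : δ0 ≤ 1) (hW : 1 ≤ W)
    (hω : ω2 ≤ ω1) (hω20 : 0 ≤ ω2)
    (hω1 : 2 * 2 ^ (k' + j) * ω1 ≤ wC k0 au av w1u w1v)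
    (hω2 : 2 * 2 ^ (k' + j) * ω2 ≤ wC k0 au av w2u w2v)
    (hVu : M * capB q0 q1 q2 au w1u w2u ≤ Wu * Au) (hVv : M * capB q0 q1 q2 av w1v w2v ≤ Wv * Av)
    (hWv : (200 * E) ^ (3 + (q0 + q1 + q2)) * Wv ≤ W)
    (hWu : (200 * E) ^ (3 + (q0 + q1 + q2)) * Wu * (2 ^ k0 * (16 * 4 ^ k0)) ≤ W * c)
    -- rewards
    (hg : 0 ≤ g') (hq0 : 0 ≤ q0) (hq2 : 0 < q2) (hq02 : 2 * q0 ≤ q2) (hq21 : 8 * q2 ≤ q1)
    (hg1 : 64 * g' ≤ q1) (hgq : 64 * g' ^ 2 ≤ q1 * q2)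
    -- dyadic tilts
    (hD : ∀ x ∈ Ov, Dy (ef (f (par k0 x))) (eg (g x)) (aC au av) (wC k0 au av w1u w1v)
      (wC k0 au av w2u w2v) j k') :
    (j : ℝ) ≤ CP q0 q1 q2 g' * (1 + Real.log (W / δ0)) ∧
      (k' : ℝ) ≤ CP q0 q1 q2 g' * (1 + Real.log (W / δ0)) := by
  have hw2u : 0 < w2u := hau.trans_le hau2
  have hw1u : 0 < w1u := hw2u.trans_le hwu
  have hw2v : 0 < w2v := hav.trans_le hav2
  have hw1v : 0 < w1v := hw2v.trans_le hwv
  have ha : 0 < aC au av := aC_pos hau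
  have haw : aC au av ≤ wC k0 au av w2u w2v := by
    have := wC_a (k0 := k0) (au := au) (av := av) (w1u := w2u) (w1v := w2v)
    linarith
  have hw : wC k0 au av w2u w2v ≤ wC k0 au av w1u w1v := wC_mono hwu hwv
  have p2 : 0 < wC k0 au av w2u w2v := ha.trans_le haw
  have p1 : 0 < wC k0 au av w1u w1v := p2.trans_le hw
  have b1 := wC_u (k0 := k0) (au := au) (av := av) (w1u := w1u) (w1v := w1v)
  have b2 := wC_u (k0 := k0) (au := au) (av := av) (w1u := w2u) (w1v := w2v)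
  have hz := hu.zoom hpar hAu (by positivity : 0 < wC k0 au av w1u w1v / 5)
    (by positivity : 0 < wC k0 au av w2u w2v / 5) hw1u.le hw2u.le b1 b2 hc hc0
  have hz' := hz.mono (aC_u (av := av) hau)
    (by linarith : 5 * (wC k0 au av w1u w1v / 5) ≤ wC k0 au av w1u w1v)
    (by linarith : 5 * (wC k0 au av w2u w2v / 5) ≤ wC k0 au av w2u w2v) le_rfl
  have v1 := wC_v (k0 := k0) (au := au) (av := av) (w1u := w1u) (w1v := w1v)
  have v2 := wC_v (k0 := k0) (au := au) (av := av) (w1u := w2u) (w1v := w2v)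
  have hv' := hv.mono (aC_v (au := au) hav) (by linarith : w1v ≤ wC k0 au av w1u w1v)
    (by linarith : w2v ≤ wC k0 au av w2u w2v) le_rfl
  have hN := N_le hw1u.le hw2u.le (by positivity : 0 < wC k0 au av w1u w1v / 5)
    (by positivity : 0 < wC k0 au av w2u w2v / 5) b1 b2
  have hNp : 0 < (2 * (w1u / (wC k0 au av w1u w1v / 5)) + 2) *
    (2 * (w2u / (wC k0 au av w2u w2v / 5)) + 2) := by positivity
  have hx : 0 < 200 * E := by linarith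
  have cU : capB q0 q1 q2 (aC au av) (wC k0 au av w1u w1v) (wC k0 au av w2u w2v) ≤
      (200 * E) ^ (3 + (q0 + q1 + q2)) * capB q0 q1 q2 au w1u w2u := by
    rw [← capB_cube hau.le hw1u.le hw2u.le hx]
    refine capB_mono hq0 (by linarith) hq2.le ha.le p1.le p2.le ?_
      (wC_leU hau (hau2.trans hwu) hE ea' e1') (wC_leU hau hau2 hE ea' e2')
    have := aC_leU hau hE ea'
    have : 0 < E * au := by positivity
    linarith
  have cV : capB q0 q1 q2 (aC au av) (wC k0 au av w1u w1v) (wC k0 au av w2u w2v) ≤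
      (200 * E) ^ (3 + (q0 + q1 + q2)) * capB q0 q1 q2 av w1v w2v := by
    rw [← capB_cube hav.le hw1v.le hw2v.le hx]
    refine capB_mono hq0 (by linarith) hq2.le ha.le p1.le p2.le ?_
      (wC_leV hav (hav2.trans hwv) hE ea e1) (wC_leV hav hav2 hE ea e2)
    have := aC_leV hav hE ea
    have : 0 < E * av := by positivity
    linarith
  have hxp : 0 < (200 * E) ^ (3 + (q0 + q1 + q2)) := by positivity
  generalize hNN : (2 * (w1u / (wC k0 au av w1u w1v / 5)) + 2) *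
    (2 * (w2u / (wC k0 au av w2u w2v / 5)) + 2) = N at *
  generalize (200 * E) ^ (3 + (q0 + q1 + q2)) = Y at *
  have h2k : (0:ℝ) < 2 ^ k0 := by positivity
  have hA' : 0 < Au * c / (2 ^ k0 * N) := by positivity
  have hV1 : M * capB q0 q1 q2 (aC au av) (wC k0 au av w1u w1v) (wC k0 au av w2u w2v) ≤
      W * (Au * c / (2 ^ k0 * N)) := by
    have s1 : M * capB q0 q1 q2 (aC au av) (wC k0 au av w1u w1v) (wC k0 au av w2u w2v) ≤
        Y * (Wu * Au) := by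
      calc _ ≤ M * (Y * capB q0 q1 q2 au w1u w2u) := by gcongr
        _ = Y * (M * capB q0 q1 q2 au w1u w2u) := by ring
        _ ≤ _ := by gcongr
    refine s1.trans ?_
    rw [← mul_div_assoc, le_div_iff₀ (by positivity)]
    have hWu0 : 0 ≤ Wu * Au := by
      have : 0 ≤ M * capB q0 q1 q2 au w1u w2u := by
        have := capB_pos (q0 := q0) (q1 := q1) (q2 := q2) hau hw1u hw2u
        positivity
      exact this.trans hVu
    calc Y * (Wu * Au) * (2 ^ k0 * N) ≤ Y * (Wu * Au) * (2 ^ k0 * (16 * 4 ^ k0)) := by gcongr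
      _ = (Y * Wu * (2 ^ k0 * (16 * 4 ^ k0))) * Au := by ring
      _ ≤ (W * c) * Au := by gcongr
      _ = _ := by ring
  have hV2 : M * capB q0 q1 q2 (aC au av) (wC k0 au av w1u w1v) (wC k0 au av w2u w2v) ≤ W * Av := by
    calc _ ≤ M * (Y * capB q0 q1 q2 av w1v w2v) := by gcongr
      _ = Y * (M * capB q0 q1 q2 av w1v w2v) := by ring
      _ ≤ Y * (Wv * Av) := by gcongr
      _ = (Y * Wv) * Av := by ring
      _ ≤ _ := by gcongr
  exact flat_pair hz' hv' hPj hPjO hP hPO hPP hdj hd' hd hcardj hcard hr0 ha haw hw hM hA' hAv hδ0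
    hδ1 hW hω hω20 hω1 hω2 hV1 hV2 hg hq0 hq2 hq02 hq21 hg1 hgq hD

end

end Crest.Agent.R136.Fl808
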