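import Crest.Agent.R136.Fm4_808

/-!
# R136 (S0187): flat tilt, pigeonhole and deep D-max (helper808)
-/

set_option autoImplicit false
set_option linter.unusedVariables false
set_option linter.unusedSectionVars false

namespace Crest.Agent.R136.Fl808

open Finset Filter Topology Crest.Agent.R136.Sh605
open Crest.Agent.R138.Ex926 (Base U)
open Crest.Agent.R138.Dp76 (Dense dpow_pos dpow_add dpow_le dpow_le_one)
open Crest.Agent.R138.Mk163 (zc zl rho alive own Negl)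
open Crest.Agent.R138.MkRef627 (lc mem_alive card_class)
open Crest.Agent.R136.K4 (Plk4)
open Crest.Agent.R136.MkA627
open Crest.Agent.R136.Dia770 (extO DeepP)

theorem Dy.hleg4 {e e' : Fin 3 → V3} {a w1 w2 : ℝ} {j k' : ℕ} (H : Dy e e' a w1 w2 j k')
    (he : Ortho e) (he' : Ortho e') (ha : 0 < a) (haw : a ≤ w2) (hw : w2 ≤ w1) :
    a * 2 ^ k' ≤ 4 * w2 := by
  have hw2 : 0 < w2 := ha.trans_le haw
  have hw1 : 0 < w1 := hw2.trans_le hw
  have hj : (0:ℝ) < 2 ^ j := by positivity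
  have h21 := H.b21
  have h01 := H.b01
  have hR : |dt (e' 1) (e 0)| * w1 ≤ 2 * (2 ^ j * w2) := by
    have h1 := dt_expand he (e' 1) (e' 1)
    have h2 := dt_expand he' (e 1) (e 1)
    have u1 : dt (e' 1) (e' 1) = 1 := by have := he' 1 1; simpa using this
    have u2 : dt (e 1) (e 1) = 1 := by have := he 1 1; simpa using this
    rw [u1, dt_comm (e 0), dt_comm (e 1) (e' 1), dt_comm (e 2) (e' 1)] at h1
    rw [u2, dt_comm (e 1) (e' 0), dt_comm (e 1) (e' 1), dt_comm (e 1) (e' 2)] at h2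
    have h3 : dt (e' 1) (e 0) ^ 2 ≤ dt (e' 0) (e 1) ^ 2 + dt (e' 2) (e 1) ^ 2 := by
      nlinarith [sq_nonneg (dt (e' 1) (e 2))]
    set x := |dt (e' 1) (e 0)| with hx
    set y := |dt (e' 0) (e 1)| with hy
    set z := |dt (e' 2) (e 1)| with hz
    have h4 : x ^ 2 ≤ y ^ 2 + z ^ 2 := by
      rw [hx, hy, hz, sq_abs, sq_abs, sq_abs]; exact h3
    have hy0 : 0 ≤ y := abs_nonneg _
    have hz0 : 0 ≤ z := abs_nonneg _
    have hx0 : 0 ≤ x := abs_nonneg _
    have h5 : x ≤ y + z := by nlinarith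
    calc x * w1 ≤ (y + z) * w1 := by gcongr
      _ = y * w1 + z * w1 := by ring
      _ ≤ _ := by linarith
  have fin : ∀ y : ℝ, y ≤ 2 * (2 ^ j * w2) → 2 ^ k' * (2 ^ j * a) ≤ 2 * y → a * 2 ^ k' ≤ 4 * w2 := by
    intro y h1 h2
    have h3 : 2 ^ j * (a * 2 ^ k') ≤ 2 ^ j * (4 * w2) := by
      calc 2 ^ j * (a * 2 ^ k') = 2 ^ k' * (2 ^ j * a) := by ring
        _ ≤ 2 * (2 * (2 ^ j * w2)) := by linarith
        _ ≤ _ := by linarith
    exact le_of_mul_le_mul_left h3 hj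
  have hp : 0 < 2 ^ j * w2 := by positivity
  rcases H.tlo with h | h | h | h | h
  · rw [h, pow_zero, mul_one]; linarith
  · exact fin _ hR h
  · refine fin _ ?_ h
    have := abs_dt_le_one he he' 2 0
    have : |dt (e' 2) (e 0)| * w2 ≤ 1 * w2 := by gcongr
    have : 2 ^ j * (|dt (e' 2) (e 0)| * w2) ≤ 2 ^ j * (1 * w2) := by gcongr
    linarith
  · exact fin _ (by linarith) h
  · refine fin _ ?_ h
    have := abs_dt_le_one he he' 0 2
    have : |dt (e' 0) (e 2)| * w2 ≤ 1 * w2 := by gcongr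
    have : 2 ^ j * (|dt (e' 0) (e 2)| * w2) ≤ 2 ^ j * (1 * w2) := by gcongr
    linarith

/-- total depth -/
theorem Dy.total {e e' : Fin 3 → V3} {a w1 w2 : ℝ} {j k' : ℕ} (H : Dy e e' a w1 w2 j k')
    (he : Ortho e) (he' : Ortho e') (ha : 0 < a) (haw : a ≤ w2) (hw : w2 ≤ w1) :
    2 ^ (k' + j) * a ≤ 8 * w1 := by
  have h1 := H.hleg4 he he' ha haw hw
  have h2 := H.hlw he he' ha haw hw
  have hj : (0:ℝ) < 2 ^ j := by positivity
  calc 2 ^ (k' + j) * a = 2 ^ j * (a * 2 ^ k') := by rw [pow_add]; ring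
    _ ≤ 2 ^ j * (4 * w2) := by gcongr
    _ = 4 * (2 ^ j * w2) := by ring
    _ ≤ _ := by linarith

/-! ### pigeonhole -/

open Classical in
theorem dense_of_not_negl {B : Base} {I : ℕ → Finset (ℕ × ℝ)} {P : ℕ → ℕ × ℝ → Prop}
    (h : ¬ Negl B I P) : Dense B (fun n => (I n).filter (P n)) I := by
  refine ⟨Eventually.of_forall fun n => filter_subset _ _, fun η hη => ?_⟩
  by_contra hc
  apply h
  refine ⟨η, hη, ?_⟩
  have h1 : ∀ᶠ n in (U : Filter ℕ), ¬ (B.d n ^ η * ((I n).card : ℝ) ≤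
      (((I n).filter (P n)).card : ℝ)) := Ultrafilter.eventually_not.2 hc
  filter_upwards [h1] with n hn
  exact (not_le.1 hn).le

open Classical in
/-- a function with few values is constant on a dense part -/
theorem exists_const {B : Base} {J : ℕ → Finset (ℕ × ℝ)} (F : ℕ → ℕ × ℝ → ℕ)
    (hF : ∀ ε : ℝ, 0 < ε → ∀ᶠ n in (U : Filter ℕ), ∀ x ∈ J n, (F n x : ℝ) ≤ B.d n ^ (-ε)) :
    ∃ k : ℕ → ℕ, Dense B (fun n => (J n).filter fun x => F n x = k n) J := by
  have hex : ∀ n, ∃ k, ∀ k', (((J n).filter fun x => F n x = k').card : ℝ) ≤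
      (((J n).filter fun x => F n x = k).card : ℝ) := by
    intro n
    rcases ((J n).image (F n)).eq_empty_or_nonempty with h | h
    · refine ⟨0, fun k' => ?_⟩
      rw [image_eq_empty] at h
      rw [h]
      simp
    · obtain ⟨k, hk, hm⟩ := exists_max_image ((J n).image (F n))
        (fun k => ((J n).filter fun x => F n x = k).card) h
      refine ⟨k, fun k' => ?_⟩
      by_cases hk' : k' ∈ (J n).image (F n)
      · exact_mod_cast hm k' hk'
      · have : (J n).filter (fun x => F n x = k') = ∅ := by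
          rw [filter_eq_empty_iff]
          intro x hx hxk
          exact hk' (mem_image.2 ⟨x, hx, hxk⟩)
        rw [this]
        simp
  choose k hk using hex
  refine ⟨k, Eventually.of_forall fun n => filter_subset _ _, fun η hη => ?_⟩
  have h2 : 0 < η / 2 := by linarith
  filter_upwards [hF (η / 2) h2, const_le B 2 h2] with n h3 h4
  have h5 : ((J n).card : ℝ) ≤ (B.d n ^ (-(η / 2)) + 1) *
      (((J n).filter fun x => F n x = k n).card : ℝ) := by
    refine Crest.Agent.R136.Deep51.card_le_of_fib (J n) ((J n).image (F n)) (F n)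
      (fun x hx => mem_image_of_mem _ hx) (Nat.cast_nonneg _) ?_ (fun c _ => hk n c)
    have h6 : (J n).image (F n) ⊆ range (⌊B.d n ^ (-(η / 2))⌋₊ + 1) := by
      intro c hc
      obtain ⟨x, hx, rfl⟩ := mem_image.1 hc
      rw [mem_range, Nat.lt_add_one_iff]
      exact Nat.le_floor (h3 x hx)
    have h7 := card_le_card h6
    rw [card_range] at h7
    have h8 : (((J n).image (F n)).card : ℝ) ≤ (⌊B.d n ^ (-(η / 2))⌋₊ : ℝ) + 1 := by
      exact_mod_cast h7
    have h9 := Nat.floor_le (dpow_pos B n (-(η / 2))).le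
    linarith
  have hK : (0:ℝ) ≤ (((J n).filter fun x => F n x = k n).card : ℝ) := Nat.cast_nonneg _
  set K := (((J n).filter fun x => F n x = k n).card : ℝ) with hKd
  have hd := dpow_pos B n (η / 2)
  have e1 : B.d n ^ (η / 2) * B.d n ^ (-(η / 2)) = 1 := by rw [← dpow_add]; simp
  have e2 : B.d n ^ η = B.d n ^ (η / 2) * B.d n ^ (η / 2) := by rw [← dpow_add]; congr 1; ring
  have h10 : B.d n ^ (-(η / 2)) + 1 ≤ B.d n ^ (-(η / 2)) * 2 := by linarith
  have h11 : B.d n ^ (η / 2) * 2 ≤ 1 := by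
    calc B.d n ^ (η / 2) * 2 ≤ B.d n ^ (η / 2) * B.d n ^ (-(η / 2)) := by gcongr
      _ = 1 := e1
  calc B.d n ^ η * ((J n).card : ℝ) ≤ B.d n ^ η * ((B.d n ^ (-(η / 2)) + 1) * K) := by
        have := dpow_pos B n η
        gcongr
    _ ≤ B.d n ^ η * ((B.d n ^ (-(η / 2)) * 2) * K) := by
        have := dpow_pos B n η
        gcongr
    _ = (B.d n ^ (η / 2) * B.d n ^ (-(η / 2))) * (B.d n ^ (η / 2) * 2) * K := by rw [e2]; ring
    _ ≤ 1 * 1 * K := by rw [e1]; gcongr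
    _ = K := by ring

/-! ### deep D-max, box form -/

/-- **D-max at arbitrary depth, box form**; the widths `w k` of the test boxes are between `ωk` and
`κk` (`k = 1, 2`), the thickness between `r0` and `κ0`, the levels `m n` are in the class `Ad` -/
def DeepW (B : Base) (I : ℕ → Finset (ℕ × ℝ)) (L : ℕ → ℕ → Ln4) (lev : ℕ → ℚ → ℕ) (A : ℕ → ℝ)
    (g : ℝ) (r0 : ℕ → ℝ) (q : Fin 3 → ℝ) (ω1 ω2 κ0 κ1 κ2 : ℕ → ℝ) (Ad : (ℕ → ℕ) → Prop) (v : ℚ) :
    Prop :=
  ∀ m : ℕ → ℕ, (∀ᶠ n in (U : Filter ℕ), lev n v ≤ m n) →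
    (∀ᶠ n in (U : Filter ℕ), r0 n ≤ rho (m n)) →
    Ad m →
    ∀ J : ℕ → Finset (ℕ × ℝ), Dense B J I → ∀ ε : ℝ, 0 < ε →
      ∃ P : ℕ → Finset (ℕ × ℤ), (∀ n, P n ⊆ extO (J n) (lev n 1) (m n)) ∧
        (∃ γ : ℝ, 0 < γ ∧ ∀ᶠ n in (U : Filter ℕ), ((extO (J n) (lev n 1) (m n)).card : ℝ) ≤
          (P n).card + B.d n ^ γ * (extO (J n) (lev n 1) (m n)).card) ∧
        ∀ᶠ n in (U : Filter ℕ), DMaxP (P n) (L n) (m n)
          (B.d n ^ (-ε) * (A n * B.d n ^ (-(g * v))) *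
              2 ^ ((g + ε) * ((m n : ℝ) - lev n v)) * rho (m n) ^ (-(q 0 + q 1 + q 2)))
          (q 0) (q 1) (q 2) (r0 n) (ω1 n) (ω2 n) (min (rho (m n)) (κ1 n)) (κ2 n) (κ0 n)

end Crest.Agent.R136.Fl808
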