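import Crest.Agent.R136.Fm6_808

/-!
# R136 (S0187): flat tilt, one stage of the sequence (helper808)
-/

set_option autoImplicit false
set_option linter.unusedVariables false
set_option linter.unusedSectionVars false

namespace Crest.Agent.R136.Fl808

open Finset Filter Topology Crest.Agent.R136.Sh605
open Crest.Agent.R138.Ex926 (Base U)
open Crest.Agent.R138.Dp76 (Dense dpow_pos dpow_add dpow_le dpow_le_one)
open Crest.Agent.R138.Mk163 (zc zl rho alive own Negl)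
open Crest.Agent.R138.MkRef627 (lc mem_alive card_class)
open Crest.Agent.R136.K4 (Plk4)
open Crest.Agent.R136.MkA627
open Crest.Agent.R136.Dia770 (extO DeepP extO_anc)

theorem DMaxP.sub {P P' : Finset (ℕ × ℤ)} {L : ℕ → Ln4} {m : ℕ} {D q0 q1 q2 r0 ω1 ω2 R0 R2 Ra : ℝ}
    (h : DMaxP P L m D q0 q1 q2 r0 ω1 ω2 R0 R2 Ra) (hP : P' ⊆ P) :
    DMaxP P' L m D q0 q1 q2 r0 ω1 ω2 R0 R2 Ra :=
  fun c => (h c).sub (image_subset_image (filter_subset_filter _ hP))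

/-- the deep D-max as in `DeepW` -/
def DMx (P : Finset (ℕ × ℤ)) (L : ℕ → Ln4) (lv m : ℕ)
    (c g q0 q1 q2 r0 ω1 ω2 κ0 κ1 κ2 : ℝ) : Prop :=
  DMaxP P L m (c * 2 ^ (g * ((m : ℝ) - lv)) * rho m ^ (-(q0 + q1 + q2))) q0 q1 q2 r0 ω1 ω2
    (min (rho m) κ1) κ2 κ0

theorem one_le_dpow (B : Base) (n : ℕ) {x : ℝ} (hx : x ≤ 0) : 1 ≤ B.d n ^ x := by
  have := dpow_le B n hx
  rwa [Real.rpow_zero] at this

section

variable {B : Base} {n : ℕ} {J : Finset (ℕ × ℝ)} {L : ℕ → Ln4} {lu lv l1 k0 : ℕ}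
  {fu fv : ℕ → ℤ → ℕ} {bu bv : ℕ → Plk4}
  {au w1u w2u av w1v w2v Aa gu q0 q1 q2 g r0 ω1 ω2 κ0 κ1 κ2 δ ε1 ε2 γ C1 : ℝ} {j k' : ℕ}
  {Pj P P' : Finset (ℕ × ℤ)}

open Classical in
/-- **one stage of the sequence** (`gu = g u`) -/
theorem stage_n (hJ : J.Nonempty) (hlv : lv = lu + k0) (hl1 : lv ≤ l1)
    (hu : FSys (J.image (lc lu)) L lu (fun o => (o.2, fu o.1 o.2)) (fun κ : ℤ × ℕ => (bu κ.2).c)
      (fun κ => (bu κ.2).e) au w1u w2u (B.d n ^ ε1 * (Aa * B.d n ^ (-gu) *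
        (capB q0 q1 q2 au w1u w2u * rho lu ^ (-(q0 + q1 + q2))))))
    (hv : FSys (J.image (lc lv)) L lv (fun o => (o.2, fv o.1 o.2)) (fun κ : ℤ × ℕ => (bv κ.2).c)
      (fun κ => (bv κ.2).e) av w1v w2v (B.d n ^ ε1 * (Aa * B.d n ^ (-(gu + g * δ)) *
        (capB q0 q1 q2 av w1v w2v * rho lv ^ (-(q0 + q1 + q2))))))
    (hAa : 0 < Aa)
    (hown : ∀ x ∈ J, B.d n ^ (-δ + ε1) ≤ ((own J lu lv x).card : ℝ))
    (hox : ∀ x ∈ J, 2 ^ (l1 - lv) ≤ B.d n ^ (-(2 * ε2)) * ((own J lv l1 x).card : ℝ))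
    (hε1 : 0 < ε1) (hε2 : 0 ≤ ε2) (hε21 : ε2 ≤ ε1) (hεg : ε1 ≤ g) (hδ : 0 ≤ δ) (hC1 : 0 ≤ C1)
    (hγ : 0 ≤ γ) (hγX : 4 * B.d n ^ (-(2 * ε2)) * γ ≤ 1)
    -- deep parts
    (hPj : Pj ⊆ extO J l1 (lv + j))
    (hPjc : ((extO J l1 (lv + j)).card : ℝ) ≤ Pj.card + γ * (extO J l1 (lv + j)).card)
    (hPk : P' ⊆ extO J l1 (lv + k'))
    (hPkc : ((extO J l1 (lv + k')).card : ℝ) ≤ P'.card + γ * (extO J l1 (lv + k')).card)
    (hP : P ⊆ extO J l1 (lv + (k' + j)))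
    (hPc : ((extO J l1 (lv + (k' + j))).card : ℝ) ≤
      P.card + γ * (extO J l1 (lv + (k' + j))).card)
    (hdj : DMx Pj L lv (lv + j) (B.d n ^ (-ε1) * (Aa * B.d n ^ (-(gu + g * δ)))) (g + ε1)
      q0 q1 q2 r0 ω1 ω2 κ0 κ1 κ2)
    (hdk : DMx P' L lv (lv + k') (B.d n ^ (-ε1) * (Aa * B.d n ^ (-(gu + g * δ)))) (g + ε1)
      q0 q1 q2 r0 ω1 ω2 κ0 κ1 κ2)
    (hd : DMx P L lv (lv + (k' + j)) (B.d n ^ (-ε1) * (Aa * B.d n ^ (-(gu + g * δ)))) (g + ε1)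
      q0 q1 q2 r0 ω1 ω2 κ0 κ1 κ2)
    -- numbers
    (hr0 : 0 < r0) (hru : r0 ≤ au) (hau2 : au ≤ w2u) (hwu : w2u ≤ w1u)
    (hrv : r0 ≤ av) (hav2 : av ≤ w2v) (hwv : w2v ≤ w1v) (hρv : w1v ≤ rho lv)
    (ea : au ≤ B.d n ^ (-(C1 * δ) - ε1) * av) (ea' : av ≤ B.d n ^ (-(C1 * δ) - ε1) * au)
    (e1 : w1u ≤ B.d n ^ (-(C1 * δ) - ε1) * w1v) (e1' : w1v ≤ B.d n ^ (-(C1 * δ) - ε1) * w1u)
    (e2 : w2u ≤ B.d n ^ (-(C1 * δ) - ε1) * w2v) (e2' : w2v ≤ B.d n ^ (-(C1 * δ) - ε1) * w2u)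
    (hκ1 : 2000 * wC k0 au av w1u w1v ≤ κ1) (hκ2 : 2000 * wC k0 au av w2u w2v ≤ κ2)
    (hκ0 : 2000 * (2 ^ k' * aC au av) ≤ κ0)
    (hdeep : r0 ≤ rho (lv + (k' + j)))
    (hk0 : B.d n ^ (-δ + ε1) ≤ (2:ℝ) ^ k0)
    (hω : ω2 ≤ ω1) (hω20 : 0 ≤ ω2) (hω1 : 2 * 2 ^ (k' + j) * ω1 ≤ w1v)
    (hω2 : 2 * 2 ^ (k' + j) * ω2 ≤ w2v)
    -- rewards
    (hg : 0 ≤ g) (hq0 : 0 ≤ q0) (hq2 : 0 < q2) (hq02 : 2 * q0 ≤ q2) (hq21 : 8 * q2 ≤ q1)
    (hg1 : 64 * (2 * g + q0) ≤ q1) (hgq : 64 * (2 * g + q0) ^ 2 ≤ q1 * q2)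
    (hD : ∀ x ∈ J, Dy (bu (fu x.1 (zc lu x.2))).e (bv (fv x.1 (zc lv x.2))).e (aC au av)
      (wC k0 au av w1u w1v) (wC k0 au av w2u w2v) j k') :
    (j : ℝ) ≤ CP q0 q1 q2 (2 * g + q0) * (1 + Real.log (WW B n k0 (B.d n ^ (-(C1 * δ) - ε1))
        (q0 + q1 + q2) g δ ε1 / (B.d n ^ (2 * ε1) / 4))) ∧
      (k' : ℝ) ≤ CP q0 q1 q2 (2 * g + q0) * (1 + Real.log (WW B n k0 (B.d n ^ (-(C1 * δ) - ε1))
        (q0 + q1 + q2) g δ ε1 / (B.d n ^ (2 * ε1) / 4))) := by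
  have hE : 1 ≤ B.d n ^ (-(C1 * δ) - ε1) := one_le_dpow B n (by
    have := mul_nonneg hC1 hδ; linarith)
  set E := B.d n ^ (-(C1 * δ) - ε1) with hEd
  set Q := q0 + q1 + q2 with hQ
  have hau : 0 < au := hr0.trans_le hru
  have hav : 0 < av := hr0.trans_le hrv
  have hw2u : 0 < w2u := hau.trans_le hau2
  have hw1u : 0 < w1u := hw2u.trans_le hwu
  have hw2v : 0 < w2v := hav.trans_le hav2
  have hw1v : 0 < w1v := hw2v.trans_le hwv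
  have hq1 : 0 < q1 := by linarith
  have hQ0 : 0 ≤ Q := by rw [hQ]; linarith
  have hcu : 0 < capB q0 q1 q2 au w1u w2u := capB_pos hau hw1u hw2u
  have hcv : 0 < capB q0 q1 q2 av w1v w2v := capB_pos hav hw1v hw2v
  have hρu := rho_pos lu
  have hρv0 := rho_pos lv
  have hRu : 0 < rho lu ^ (-Q) := Real.rpow_pos_of_pos hρu _
  have hRv : 0 < rho lv ^ (-Q) := Real.rpow_pos_of_pos hρv0 _
  have d1 := dpow_pos B n ε1
  have d2 := dpow_pos B n (-ε1)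
  have d3 := dpow_pos B n (-gu)
  have d4 := dpow_pos B n (-(gu + g * δ))
  have d5 := dpow_pos B n (-δ + ε1)
  have d6 := dpow_pos B n (2 * ε1)
  have hle : lu ≤ lv := by omega
  -- deep D-max
  have hwcV : wC k0 au av w1u w1v ≤ 200 * E * rho lv :=
    (wC_leV hav (hav2.trans hwv) hE ea e1).trans (by gcongr)
  have hwc0 : 0 ≤ wC k0 au av w1u w1v := by
    have h1 := wC_v (k0 := k0) (au := au) (av := av) (w1u := w1u) (w1v := w1v)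
    linarith
  have hω1' : 2 * 2 ^ (k' + j) * ω1 ≤ rho lv := hω1.trans hρv
  have hω2' : 2 * 2 ^ (k' + j) * ω2 ≤ rho lv := hω2.trans ((hwv).trans hρv)
  have hω10 : 0 ≤ ω1 := hω20.trans hω
  have hc0 : 0 ≤ B.d n ^ (-ε1) * (Aa * B.d n ^ (-(gu + g * δ))) := by positivity
  have cj := deep_conv (T := k' + j) hdj hc0 hq0 hq1.le hq2.le hεg hr0 (by omega) hdeep hE hwcV
    hwc0 hκ1 hκ2 hκ0 hω1' hω2' hω10 hω20
  have ck := deep_conv (T := k' + j) hdk hc0 hq0 hq1.le hq2.le hεg hr0 (by omega) hdeep hE hwcV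
    hwc0 hκ1 hκ2 hκ0 hω1' hω2' hω10 hω20
  have cd := deep_conv (T := k' + j) hd hc0 hq0 hq1.le hq2.le hεg hr0 (by omega) hdeep hE hwcV
    hwc0 hκ1 hκ2 hκ0 hω1' hω2' hω10 hω20
  set M := (10 ^ 6 * E) ^ 6 * (B.d n ^ (-ε1) * (Aa * B.d n ^ (-(gu + g * δ)))) * rho lv ^ (-Q)
    with hM
  -- counting
  have hX : 1 ≤ B.d n ^ (-(2 * ε2)) := one_le_dpow B n (by linarith)
  have hX0 : 0 < B.d n ^ (-(2 * ε2)) := by linarith
  have hOv : 0 < ((J.image (lc lv)).card : ℝ) := by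
    have : 0 < (J.image (lc lv)).card := card_pos.2 (hJ.image _)
    exact_mod_cast this
  have hδX : B.d n ^ (2 * ε1) / 4 ≤ 1 / (4 * B.d n ^ (-(2 * ε2))) := by
    have h1 : B.d n ^ (2 * ε1) ≤ B.d n ^ (2 * ε2) := dpow_le B n (by linarith)
    have h2 : B.d n ^ (2 * ε2) * B.d n ^ (-(2 * ε2)) = 1 := by
      rw [← dpow_add, add_neg_cancel, Real.rpow_zero]
    rw [le_div_iff₀ (by positivity)]
    calc B.d n ^ (2 * ε1) / 4 * (4 * B.d n ^ (-(2 * ε2))) =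
        B.d n ^ (2 * ε1) * B.d n ^ (-(2 * ε2)) := by ring
      _ ≤ B.d n ^ (2 * ε2) * B.d n ^ (-(2 * ε2)) := by gcongr
      _ = 1 := h2
  have cardj : B.d n ^ (2 * ε1) / 4 * ((J.image (lc lv)).card : ℝ) * 2 ^ j ≤ (Pj.card : ℝ) := by
    have h1 := ext_low (k := j) hl1 hX0 hox
    have hγ1 : γ ≤ 1 / 4 := by
      have : 4 * 1 * γ ≤ 4 * B.d n ^ (-(2 * ε2)) * γ := by gcongr
      linarith
    have h2 : (3 / 4) * ((extO J l1 (lv + j)).card : ℝ) ≤ Pj.card := by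
      have h3 : 0 ≤ ((extO J l1 (lv + j)).card : ℝ) := Nat.cast_nonneg _
      have h4 := mul_le_mul_of_nonneg_right hγ1 h3
      linarith
    have h3 : ((J.image (lc lv)).card : ℝ) * 2 ^ j / B.d n ^ (-(2 * ε2)) ≤
        ((extO J l1 (lv + j)).card : ℝ) := by
      rw [div_le_iff₀ hX0]; linarith
    calc B.d n ^ (2 * ε1) / 4 * ((J.image (lc lv)).card : ℝ) * 2 ^ j ≤
        1 / (4 * B.d n ^ (-(2 * ε2))) * ((J.image (lc lv)).card : ℝ) * 2 ^ j := by gcongr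
      _ = (1 / 4) * (((J.image (lc lv)).card : ℝ) * 2 ^ j / B.d n ^ (-(2 * ε2))) := by
        field_simp
      _ ≤ (1 / 4) * ((extO J l1 (lv + j)).card : ℝ) := by gcongr
      _ ≤ (3 / 4) * ((extO J l1 (lv + j)).card : ℝ) := by
        have : 0 ≤ ((extO J l1 (lv + j)).card : ℝ) := Nat.cast_nonneg _
        linarith
      _ ≤ _ := h2
  have cardP : B.d n ^ (2 * ε1) / 4 * ((J.image (lc lv)).card : ℝ) * 2 ^ (k' + j) ≤
      ((P.filter fun x => par j x ∈ P').card : ℝ) := by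
    have h1 := part_count hl1 hX hγ hγX hox hP hPc hPkc hPk
    refine le_trans ?_ h1
    gcongr
  have hPjn : Pj.Nonempty := by
    rw [← card_pos]
    have h1 : 0 < B.d n ^ (2 * ε1) / 4 * ((J.image (lc lv)).card : ℝ) * 2 ^ j := by positivity
    exact_mod_cast h1.trans_le cardj
  have hPn : (P.filter fun x => par j x ∈ P').Nonempty := by
    rw [← card_pos]
    have h1 : 0 < B.d n ^ (2 * ε1) / 4 * ((J.image (lc lv)).card : ℝ) * 2 ^ (k' + j) := by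
      positivity
    exact_mod_cast h1.trans_le cardP
  have hlab := own_count hle hown
  -- numbers of the two systems
  have hMp : 0 < M := by rw [hM]; positivity
  have hρ2 : rho lu ^ (-Q) * (2 ^ k0) ^ Q = rho lv ^ (-Q) := by
    have h1 : rho lu = rho lv * 2 ^ k0 := by
      rw [rho_two hle]; congr 2; omega
    rw [h1, Real.mul_rpow hρv0.le (by positivity), mul_assoc, ← Real.rpow_add (by positivity),
      neg_add_cancel, Real.rpow_zero, mul_one]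
  have hdd : B.d n ^ (-ε1) = B.d n ^ (-(2 * ε1)) * B.d n ^ ε1 := by
    rw [← dpow_add]; congr 1; ring
  have hVv : M * capB q0 q1 q2 av w1v w2v ≤ ((10 ^ 6 * E) ^ 6 * B.d n ^ (-(2 * ε1))) *
      (B.d n ^ ε1 * (Aa * B.d n ^ (-(gu + g * δ)) *
        (capB q0 q1 q2 av w1v w2v * rho lv ^ (-Q)))) := by
    rw [hM, hdd]
    refine le_of_eq ?_
    ring
  have hgd : B.d n ^ (-(gu + g * δ)) * B.d n ^ (-ε1) =
      B.d n ^ (-(2 * ε1) - g * δ) * (B.d n ^ ε1 * B.d n ^ (-gu)) := by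
    rw [← dpow_add, ← dpow_add, ← dpow_add]; congr 1; ring
  have hVu : M * capB q0 q1 q2 au w1u w2u ≤ ((10 ^ 6 * E) ^ 6 * B.d n ^ (-(2 * ε1) - g * δ) *
      (2 ^ k0) ^ Q) * (B.d n ^ ε1 * (Aa * B.d n ^ (-gu) *
        (capB q0 q1 q2 au w1u w2u * rho lu ^ (-Q)))) := by
    refine le_of_eq ?_
    rw [hM]
    calc (10 ^ 6 * E) ^ 6 * (B.d n ^ (-ε1) * (Aa * B.d n ^ (-(gu + g * δ)))) * rho lv ^ (-Q) *
          capB q0 q1 q2 au w1u w2u = (10 ^ 6 * E) ^ 6 * Aa * capB q0 q1 q2 au w1u w2u *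
          (B.d n ^ (-(gu + g * δ)) * B.d n ^ (-ε1)) * rho lv ^ (-Q) := by ring
      _ = (10 ^ 6 * E) ^ 6 * Aa * capB q0 q1 q2 au w1u w2u *
          (B.d n ^ (-(2 * ε1) - g * δ) * (B.d n ^ ε1 * B.d n ^ (-gu))) *
          (rho lu ^ (-Q) * (2 ^ k0) ^ Q) := by rw [hgd, hρ2]
      _ = _ := by ring
  have h2k : (0:ℝ) < 2 ^ k0 := by positivity
  have h2k1 : (1:ℝ) ≤ 2 ^ k0 := one_le_pow₀ (by norm_num)
  have h4k1 : (1:ℝ) ≤ 4 ^ k0 := one_le_pow₀ (by norm_num)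
  have h2kQ : (1:ℝ) ≤ (2 ^ k0) ^ Q := Real.one_le_rpow h2k1 hQ0
  have e7 : B.d n ^ (δ - ε1) * B.d n ^ (-δ + ε1) = 1 := by
    rw [← dpow_add]
    have : δ - ε1 + (-δ + ε1) = 0 := by ring
    rw [this, Real.rpow_zero]
  have e8 : (1:ℝ) ≤ 2 ^ k0 * B.d n ^ (δ - ε1) := by
    have := dpow_pos B n (δ - ε1)
    calc (1:ℝ) = B.d n ^ (-δ + ε1) * B.d n ^ (δ - ε1) := by rw [mul_comm, e7]
      _ ≤ _ := by gcongr
  have e9 : B.d n ^ (-(2 * ε1)) ≤ B.d n ^ (-(2 * ε1) - g * δ) :=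
    dpow_le B n (by have := mul_nonneg hg hδ; linarith)
  have d8 := dpow_pos B n (-(2 * ε1) - g * δ)
  have d9 := dpow_pos B n (-(2 * ε1))
  have dd := dpow_pos B n (δ - ε1)
  have hEQ : 0 < (200 * E) ^ (3 + Q) := by positivity
  have hE6 : 0 < (10 ^ 6 * E) ^ 6 := by positivity
  have hWu : (200 * E) ^ (3 + Q) * ((10 ^ 6 * E) ^ 6 * B.d n ^ (-(2 * ε1) - g * δ) *
      (2 ^ k0) ^ Q) * (2 ^ k0 * (16 * 4 ^ k0)) ≤ WW B n k0 E Q g δ ε1 * B.d n ^ (-δ + ε1) := by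
    unfold WW
    rw [mul_assoc ((200 * E) ^ (3 + Q) * ((10 ^ 6 * E) ^ 6 * B.d n ^ (-(2 * ε1) - g * δ) *
      (2 ^ k0) ^ Q) * (2 ^ k0 * (16 * 4 ^ k0))), e7, mul_one]
  have hWv : (200 * E) ^ (3 + Q) * ((10 ^ 6 * E) ^ 6 * B.d n ^ (-(2 * ε1))) ≤
      WW B n k0 E Q g δ ε1 := by
    unfold WW
    calc (200 * E) ^ (3 + Q) * ((10 ^ 6 * E) ^ 6 * B.d n ^ (-(2 * ε1))) =
        (200 * E) ^ (3 + Q) * ((10 ^ 6 * E) ^ 6 * B.d n ^ (-(2 * ε1)) * 1) * (1 * 1) * 1 := by ring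
      _ ≤ (200 * E) ^ (3 + Q) * ((10 ^ 6 * E) ^ 6 * B.d n ^ (-(2 * ε1) - g * δ) * (2 ^ k0) ^ Q) *
          (1 * (16 * 4 ^ k0)) * (2 ^ k0 * B.d n ^ (δ - ε1)) := by
        gcongr
        linarith
      _ = _ := by ring
  have hW1 : 1 ≤ WW B n k0 E Q g δ ε1 := by
    refine le_trans ?_ hWv
    have h1 : (1:ℝ) ≤ (200 * E) ^ (3 + Q) := Real.one_le_rpow (by linarith) (by linarith)
    have h2 : (1:ℝ) ≤ (10 ^ 6 * E) ^ 6 := one_le_pow₀ (by linarith)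
    have h3 : 1 ≤ B.d n ^ (-(2 * ε1)) := one_le_dpow B n (by linarith)
    calc (1:ℝ) = 1 * (1 * 1) := by ring
      _ ≤ _ := by gcongr
  have v1 := wC_v (k0 := k0) (au := au) (av := av) (w1u := w1u) (w1v := w1v)
  have v2 := wC_v (k0 := k0) (au := au) (av := av) (w1u := w2u) (w1v := w2v)
  subst hlv
  refine one_n hu hv ?_ d5 hlab hau hau2 hwu hav hav2 hwv hE ea ea' e1 e1' e2 e2' hPjn ?_ hPn ?_
    (fun x hx => (mem_filter.1 hx).2) cj ck (cd.sub (filter_subset _ _)) cardj cardP ?_ hMp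
    (by positivity) (by positivity) (by positivity) ?_ hW1 hω hω20 (hω1.trans (by linarith))
    (hω2.trans (by linarith)) hVu hVv hWv hWu (by positivity) hq0 hq2 hq02 hq21 hg1 hgq ?_
  · intro x hx
    obtain ⟨y, hy, rfl⟩ := mem_image.1 hx
    have := par_lc hle y
    rw [Nat.add_sub_cancel_left] at this
    rw [this]
    exact mem_image_of_mem _ hy
  · intro x hx
    have := par_ext_obj hl1 (hPj hx)
    convert this
  · intro x hx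
    have := par_ext_obj hl1 (hP (filter_subset _ _ hx))
    convert this
  · have := aC_u (av := av) hau
    linarith
  · have := dpow_le_one B n (show 0 ≤ 2 * ε1 by linarith)
    linarith
  · intro x hx
    obtain ⟨y, hy, rfl⟩ := mem_image.1 hx
    have h1 := par_lc hle y
    rw [Nat.add_sub_cancel_left] at h1
    have h2 := hD y hy
    rw [h1]
    exact h2

end

end Crest.Agent.R136.Fl808
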