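import Crest.Agent.R136.Fm7_808

/-!
# R136 (S0187): flat tilt, dyadic tilts of a dense part (helper808)
-/

set_option autoImplicit false
set_option linter.unusedVariables false
set_option linter.unusedSectionVars false

namespace Crest.Agent.R136.Fl808

open Finset Filter Topology Crest.Agent.R136.Sh605
open Crest.Agent.R138.Ex926 (Base U)
open Crest.Agent.R138.Dp76 (Dense dpow_pos dpow_add dpow_le dpow_le_one)
open Crest.Agent.R138.Mk163 (zc zl rho alive own Negl)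
open Crest.Agent.R138.MkRef627 (lc mem_alive card_class)
open Crest.Agent.R136.K4 (Plk4)
open Crest.Agent.R136.MkA627
open Crest.Agent.R136.Dia770 (extO DeepP extO_anc)

/-- frame of the mark of level `v` of the incidence `x` -/
noncomputable def frm (lev : ℕ → ℚ → ℕ) (f : ℕ → ℚ → ℕ → ℤ → ℕ) (b : ℕ → ℚ → ℕ → Plk4) (n : ℕ) (v : ℚ)
    (x : ℕ × ℝ) : Fin 3 → V3 := (b n v (f n v x.1 (zc (lev n v) x.2))).e

/-- common thickness of the marks of levels `u`, `v` -/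
noncomputable def dA (w : Fin 3 → ℕ → ℚ → ℝ) (n : ℕ) (u v : ℚ) : ℝ := aC (w 0 n u) (w 0 n v)

/-- common widths of the marks of levels `u`, `v` -/
noncomputable def dW (lev : ℕ → ℚ → ℕ) (w : Fin 3 → ℕ → ℚ → ℝ) (i : Fin 3) (n : ℕ) (u v : ℚ) : ℝ :=
  wC (lev n v - lev n u) (w 0 n u) (w 0 n v) (w i n u) (w i n v)

/-- dyadic tilts of the marks of levels `u`, `v` along `x` -/
def DyA (lev : ℕ → ℚ → ℕ) (f : ℕ → ℚ → ℕ → ℤ → ℕ) (b : ℕ → ℚ → ℕ → Plk4) (w : Fin 3 → ℕ → ℚ → ℝ)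
    (n : ℕ) (u v : ℚ) (x : ℕ × ℝ) (j k : ℕ) : Prop :=
  Dy (frm lev f b n u x) (frm lev f b n v x) (dA w n u v) (dW lev w 1 n u v) (dW lev w 2 n u v) j k

/-- sum of the slopes -/
def cTh (θ : Fin 3 → ℝ) : ℝ := |θ 0| + |θ 1| + |θ 2| + 1

theorem cTh_ge (θ : Fin 3 → ℝ) (j : Fin 3) : |θ j| + 1 ≤ cTh θ := by
  have h0 := abs_nonneg (θ 0)
  have h1 := abs_nonneg (θ 1)
  have h2 := abs_nonneg (θ 2)
  unfold cTh
  fin_cases j
  · simp only [Fin.zero_eta]; linarith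
  · simp only [Fin.mk_one]; linarith
  · simp only [Fin.reduceFinMk]; linarith

theorem cTh_nonneg (θ : Fin 3 → ℝ) : 0 ≤ cTh θ := by
  have := cTh_ge θ 0
  have := abs_nonneg (θ 0)
  linarith

section

variable {B : Base} {I : ℕ → Finset (ℕ × ℝ)} {G : Geo Plk4 (Fin 3)} {lev : ℕ → ℚ → ℕ}
    {A : ℕ → ℝ} {g : ℝ} {θ : Fin 3 → ℝ} {f : ℕ → ℚ → ℕ → ℤ → ℕ} {b : ℕ → ℚ → ℕ → Plk4}
    {vm : ℕ → ℚ → ℝ} {w : Fin 3 → ℕ → ℚ → ℝ} {L : ℕ → ℕ → Ln4} {r0 : ℕ → ℝ} {q : Fin 3 → ℝ}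

/-- all widths are comparable -/
theorem comp_ev (h : MkF B I G lev A g θ f b vm w) {u v : ℚ} (hu : 0 ≤ u)
    (huv : u ≤ v) (hv : v ≤ 1) {ε : ℝ} (hε : 0 < ε) : ∀ᶠ n in (U : Filter ℕ), ∀ j : Fin 3,
      w j n u ≤ B.d n ^ (-(cTh θ * ((v:ℝ) - u)) - ε) * w j n v ∧
      w j n v ≤ B.d n ^ (-(cTh θ * ((v:ℝ) - u)) - ε) * w j n u := by
  rw [Filter.eventually_all]
  intro j
  filter_upwards [wid_comp h j hu huv hv hε, h.wpos j u hu (huv.trans hv),
    h.wpos j v (hu.trans huv) hv] with n hn p1 p2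
  have hvu : (0:ℝ) ≤ (v:ℝ) - u := by
    have : (u:ℝ) ≤ v := by exact_mod_cast huv
    linarith
  have h1 : B.d n ^ (-((|θ j| + 1) * ((v:ℝ) - u)) - ε) ≤
      B.d n ^ (-(cTh θ * ((v:ℝ) - u)) - ε) := by
    refine dpow_le B n ?_
    have := mul_le_mul_of_nonneg_right (cTh_ge θ j) hvu
    linarith
  exact ⟨hn.1.trans (by gcongr), hn.2.trans (by gcongr)⟩

/-- frames are orthonormal -/
theorem frm_ortho (h : MkF B I G lev A g θ f b vm w) (hG : GeoOk G L r0 q) {v : ℚ} (hv0 : 0 ≤ v)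
    (hv1 : v ≤ 1) : ∀ᶠ n in (U : Filter ℕ), ∀ x ∈ I n, Ortho (frm lev f b n v x) := by
  filter_upwards [h.mark v hv0 hv1] with n hm x hx
  obtain ⟨m1, m2, m3, m4⟩ := hm (zc (lev n v) x.2) x.1 (mem_alive.2 ⟨x, hx, rfl, rfl⟩)
  exact (hG.adm _ _ _ _ m2).1.ortho

/-- facts of the common dimensions -/
theorem dAW (h : MkF B I G lev A g θ f b vm w) (hG : GeoOk G L r0 q) (hr0 : ∀ n, 0 < r0 n)
    {u v : ℚ} (hu : 0 ≤ u) (huv : u ≤ v) (hv : v ≤ 1) {ε : ℝ} (hε : 0 < ε) :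
    ∀ᶠ n in (U : Filter ℕ), 40 * r0 n ≤ dA w n u v ∧ dA w n u v ≤ dW lev w 2 n u v ∧
      dW lev w 2 n u v ≤ dW lev w 1 n u v ∧
      dA w n u v ≤ 40 * B.d n ^ (-(cTh θ * ((v:ℝ) - u)) - ε) * w 0 n v ∧
      dW lev w 1 n u v ≤ 200 * B.d n ^ (-(cTh θ * ((v:ℝ) - u)) - ε) * w 1 n v ∧
      dW lev w 2 n u v ≤ 200 * B.d n ^ (-(cTh θ * ((v:ℝ) - u)) - ε) * w 2 n v ∧
      w 1 n v ≤ dW lev w 1 n u v ∧ w 2 n v ≤ dW lev w 2 n u v ∧
      (dA w n u v ≤ rho (lev n v) → dW lev w 1 n u v ≤ 5 * rho (lev n v)) := by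
  filter_upwards [dims h hG hr0 hu (huv.trans hv), dims h hG hr0 (hu.trans huv) hv,
    comp_ev h hu huv hv hε, lev_pow h hu huv hv hε] with n d1 d2 hc hl
  obtain ⟨a1, a2, a3, a4, -⟩ := d1
  obtain ⟨b1, b2, b3, b4, -⟩ := d2
  have pu : 0 < w 0 n u := (hr0 n).trans_le a1
  have pv : 0 < w 0 n v := (hr0 n).trans_le b1
  have hvu : (0:ℝ) ≤ (v:ℝ) - u := by
    have : (u:ℝ) ≤ v := by exact_mod_cast huv
    linarith
  have hE : 1 ≤ B.d n ^ (-(cTh θ * ((v:ℝ) - u)) - ε) := one_le_dpow B n (by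
    have := mul_nonneg (cTh_nonneg θ) hvu; linarith)
  have hA : 0 < dA w n u v := aC_pos pu
  have e1 : 5 * dA w n u v ≤ dW lev w 2 n u v := wC_a
  have e2 : 5 * w 1 n v ≤ dW lev w 1 n u v := wC_v
  have e3 : 5 * w 2 n v ≤ dW lev w 2 n u v := wC_v
  refine ⟨?_, by linarith, wC_mono a3 b3, aC_leV pv hE (hc 0).1,
    wC_leV pv (b2.trans b3) hE (hc 0).1 (hc 1).1, wC_leV pv b2 hE (hc 0).1 (hc 2).1, by linarith,
    by linarith, ?_⟩
  · have : w 0 n u ≤ max (w 0 n u) (w 0 n v) := le_max_left _ _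
    unfold dA aC; linarith
  · intro hρ
    unfold dW wC
    refine mul_le_mul_of_nonneg_left (max_le (max_le b4 ?_) hρ) (by norm_num)
    rw [div_le_iff₀ (by positivity)]
    rw [rho_two hl.1] at a4
    exact a4

open Classical in
/-- **(D) dyadic tilts are constant on a dense marked part** -/
theorem exists_dyA (h : MkF B I G lev A g θ f b vm w) (hG : GeoOk G L r0 q) (hr0 : ∀ n, 0 < r0 n)
    (hlog : ∀ ε : ℝ, 0 < ε → ∀ᶠ n in (U : Filter ℕ), Real.log (1 / r0 n) ≤ B.d n ^ (-ε))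
    {u v : ℚ} (hu : 0 ≤ u) (huv : u ≤ v) (hv : v ≤ 1) {J0 : ℕ → Finset (ℕ × ℝ)}
    (hJ0 : Dense B J0 I) :
    ∃ (J : ℕ → Finset (ℕ × ℝ)) (j k : ℕ → ℕ), (∀ n, J n ⊆ J0 n) ∧ Dense B J J0 ∧
      MkF B J G lev A g θ f b vm w ∧
      ∀ᶠ n in (U : Filter ℕ), ∀ x ∈ J n, DyA lev f b w n u v x (j n) (k n) := by
  have hvu : (0:ℝ) ≤ (v:ℝ) - u := by
    have : (u:ℝ) ≤ v := by exact_mod_cast huv
    linarith
  -- choice
  set F : ℕ → ℕ × ℝ → ℕ × ℕ := fun n x =>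
    if hx : ∃ p : ℕ × ℕ, DyA lev f b w n u v x p.1 p.2 then hx.choose else (0, 0) with hF
  have hFs : ∀ᶠ n in (U : Filter ℕ), ∀ x, DyA lev f b w n u v x (F n x).1 (F n x).2 := by
    filter_upwards [dAW h hG hr0 hu huv hv one_pos] with n hn x
    obtain ⟨a1, a2, -⟩ := hn
    have hA : 0 < dA w n u v := lt_of_lt_of_le (by have := hr0 n; linarith) a1
    obtain ⟨j, k, hjk⟩ := exists_dy (frm lev f b n u x) (frm lev f b n v x)
      (w1 := dW lev w 1 n u v) hA (hA.trans_le a2)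
    have hex : ∃ p : ℕ × ℕ, DyA lev f b w n u v x p.1 p.2 := ⟨(j, k), hjk⟩
    simp only [hF, dif_pos hex]
    exact hex.choose_spec
  -- bound
  have hbd : ∀ ε : ℝ, 0 < ε → ∀ᶠ n in (U : Filter ℕ), ∀ x ∈ I n,
      (((F n x).2 + (F n x).1 : ℕ) : ℝ) ≤ B.d n ^ (-ε) := by
    intro ε hε
    have hε2 : 0 < ε / 2 := by linarith
    have hT := cTh_nonneg θ
    filter_upwards [hFs, dAW h hG hr0 hu huv hv one_pos, frm_ortho h hG hu (huv.trans hv),
      frm_ortho h hG (hu.trans huv) hv, dims h hG hr0 (hu.trans huv) hv, hlog (ε / 2) hε2,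
      const_le B (2 * (800 + (cTh θ * ((v:ℝ) - u) + 1) * (1 / (ε / 2)) + 1)) hε2]
      with n h1 h2 h3 h4 h5 h6 h7 x hx
    obtain ⟨a1, a2, a3, a4, a5, -⟩ := h2
    have hr := hr0 n
    have hA : 0 < dA w n u v := by linarith
    have ht := (h1 x).total (h3 x hx) (h4 x hx) hA a2 a3
    have hE : 1 ≤ B.d n ^ (-(cTh θ * ((v:ℝ) - u)) - 1) := one_le_dpow B n (by
      have := mul_nonneg (cTh_nonneg θ) hvu; linarith)
    set N := (F n x).2 + (F n x).1 with hN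
    have hρ1 := rho_le_one (lev n v)
    have hw1 : w 1 n v ≤ 1 := h5.2.2.2.1.trans hρ1
    have hlE : Real.log (B.d n ^ (-(cTh θ * ((v:ℝ) - u)) - 1)) =
        (cTh θ * ((v:ℝ) - u) + 1) * B.L n := by
      rw [dpow_exp, Real.log_exp]; ring
    set E := B.d n ^ (-(cTh θ * ((v:ℝ) - u)) - 1) with hEd
    have hE0 : 0 < E := by linarith
    have h8 : (2:ℝ) ^ N * r0 n ≤ 800 * E := by
      have e1 : (2:ℝ) ^ N * (40 * r0 n) ≤ 2 ^ N * dA w n u v := by gcongr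
      have e2 : 8 * dW lev w 1 n u v ≤ 8 * (200 * E * 1) := by
        have : 200 * E * w 1 n v ≤ 200 * E * 1 := by gcongr
        linarith
      have e3 : (2:ℝ) ^ N * (40 * r0 n) = 40 * (2 ^ N * r0 n) := by ring
      have : 0 < E := hE0
      linarith
    have h9 : (2:ℝ) ^ N ≤ 800 * E * (1 / r0 n) := by
      rw [mul_one_div, le_div_iff₀ hr]; exact h8
    have h10 : (N : ℝ) * Real.log 2 ≤ Real.log 800 + (cTh θ * ((v:ℝ) - u) + 1) * B.L n +
        Real.log (1 / r0 n) := by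
      have := Real.log_le_log (by positivity) h9
      rw [Real.log_pow, Real.log_mul (by positivity) (by positivity),
        Real.log_mul (by norm_num) hE0.ne', hlE] at this
      exact this
    have h11 : Real.log 800 ≤ 800 := by
      have := Real.log_le_sub_one_of_pos (show (0:ℝ) < 800 by norm_num)
      linarith
    have h12 : (1:ℝ) / 2 ≤ Real.log 2 := by
      have := Real.log_two_gt_d9
      linarith
    have h13 := L_le B n hε2
    have hN0 : (0:ℝ) ≤ N := Nat.cast_nonneg _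
    have h14 : (N : ℝ) * (1 / 2) ≤ (N:ℝ) * Real.log 2 := by gcongr
    have hd1 : 1 ≤ B.d n ^ (-(ε / 2)) := one_le_dpow B n (by linarith)
    have hcoef : 0 ≤ cTh θ * ((v:ℝ) - u) + 1 := by
      have := mul_nonneg hT hvu; linarith
    have h15 : (cTh θ * ((v:ℝ) - u) + 1) * B.L n ≤
        (cTh θ * ((v:ℝ) - u) + 1) * (1 / (ε / 2) * B.d n ^ (-(ε / 2))) := by gcongr
    have h16 : (N : ℝ) ≤ (2 * (800 + (cTh θ * ((v:ℝ) - u) + 1) * (1 / (ε / 2)) + 1)) *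
        B.d n ^ (-(ε / 2)) := by
      have : (800:ℝ) * 1 ≤ 800 * B.d n ^ (-(ε / 2)) := by gcongr
      have e4 : (2 * (800 + (cTh θ * ((v:ℝ) - u) + 1) * (1 / (ε / 2)) + 1)) *
        B.d n ^ (-(ε / 2)) = 2 * (800 * B.d n ^ (-(ε / 2)) + (cTh θ * ((v:ℝ) - u) + 1) *
          (1 / (ε / 2) * B.d n ^ (-(ε / 2))) + B.d n ^ (-(ε / 2))) := by ring
      rw [e4]
      linarith
    refine h16.trans ?_
    have hdp := dpow_pos B n (-(ε / 2))
    calc _ ≤ B.d n ^ (-(ε / 2)) * B.d n ^ (-(ε / 2)) := by gcongr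
      _ = B.d n ^ (-ε) := by rw [← dpow_add]; congr 1; ring
  -- first pigeonhole
  obtain ⟨j, hj⟩ := exists_const (B := B) (J := J0) (fun n x => (F n x).1) (by
    intro ε hε
    filter_upwards [hbd ε hε, hJ0.1] with n h1 h2 x hx
    refine le_trans ?_ (h1 x (h2 hx))
    push_cast
    have : (0:ℝ) ≤ ((F n x).2 : ℝ) := Nat.cast_nonneg _
    linarith)
  set J1 : ℕ → Finset (ℕ × ℝ) := fun n => (J0 n).filter fun x => (F n x).1 = j n with hJ1
  obtain ⟨k, hk⟩ := exists_const (B := B) (J := J1) (fun n x => (F n x).2) (by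
    intro ε hε
    filter_upwards [hbd ε hε, hJ0.1] with n h1 h2 x hx
    refine le_trans ?_ (h1 x (h2 (filter_subset _ _ hx)))
    push_cast
    have : (0:ℝ) ≤ ((F n x).1 : ℝ) := Nat.cast_nonneg _
    linarith)
  have hd2 : Dense B (fun n => (J1 n).filter fun x => (F n x).2 = k n) J0 := hk.trans hj
  obtain ⟨J', hs, hd3, -, hM⟩ := h.refine' (hd2.trans hJ0)
  refine ⟨J', j, k, fun n => (hs n).trans ((filter_subset _ _).trans (filter_subset _ _)),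
    hd3.trans hd2, hM, ?_⟩
  filter_upwards [hFs] with n hn x hx
  have h1 := mem_filter.1 (hs n hx)
  have h2 := (mem_filter.1 h1.1).2
  have := hn x
  rw [h1.2, h2] at this
  exact this

end

end Crest.Agent.R136.Fl808
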