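import Crest.Agent.R136.Fm8_808

/-!
# R136 (S0187): flat tilt, sequence form (helper808)

`tilt_core` : flat marks, D-max at arbitrary depth for flat boxes ⊢ the six entries of the transition
matrix between the frames of the marks of two levels are bounded by the ratios of the widths up to
`d^(-C (v - u) - ε)`.
-/

set_option autoImplicit false
set_option linter.unusedVariables false
set_option linter.unusedSectionVars false

namespace Crest.Agent.R136.Fl808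

open Finset Filter Topology Crest.Agent.R136.Sh605
open Crest.Agent.R138.Ex926 (Base U)
open Crest.Agent.R138.Dp76 (Dense dpow_pos dpow_add dpow_le dpow_le_one)
open Crest.Agent.R138.Mk163 (zc zl rho alive own Negl)
open Crest.Agent.R138.MkRef627 (lc mem_alive card_class alive_mono)
open Crest.Agent.R136.K4 (Plk4)
open Crest.Agent.R136.MkA627
open Crest.Agent.R136.Dia770 (extO DeepP extO_anc)

/-- constants of the exponents -/
noncomputable def cE (θ q : Fin 3 → ℝ) (g : ℝ) : ℝ :=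
  (9 + (q 0 + q 1 + q 2)) * cTh θ + g + (q 0 + q 1 + q 2) + 3
/-- absolute constant -/
noncomputable def k0E (q : Fin 3 → ℝ) : ℝ :=
  (3 + (q 0 + q 1 + q 2)) * Real.log 200 + 6 * Real.log (10 ^ 6) + Real.log 16 + Real.log 4

/-- hypotheses on the rewards -/
structure Rw (q : Fin 3 → ℝ) (g : ℝ) : Prop where
  g0 : 0 < g
  q0 : 0 ≤ q 0
  q2 : 0 < q 2
  q02 : 2 * q 0 ≤ q 2
  q21 : 8 * q 2 ≤ q 1
  g1 : 64 * (2 * g + q 0) ≤ q 1
  gq : 64 * (2 * g + q 0) ^ 2 ≤ q 1 * q 2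

open Classical in
theorem exists_bad {B : Base} {I : ℕ → Finset (ℕ × ℝ)} {P : ℕ → ℕ × ℝ → Prop}
    (h : ¬ Negl B I P) : ∃ J : ℕ → Finset (ℕ × ℝ), Dense B J I ∧ ∀ n, ∀ x ∈ J n, P n x :=
  ⟨_, dense_of_not_negl h, fun n x hx => (mem_filter.1 hx).2⟩

section

variable {B : Base} {I I0 : ℕ → Finset (ℕ × ℝ)} {G : Geo Plk4 (Fin 3)} {lev : ℕ → ℚ → ℕ}
    {A : ℕ → ℝ} {g : ℝ} {θ : Fin 3 → ℝ} {f : ℕ → ℚ → ℕ → ℤ → ℕ} {b : ℕ → ℚ → ℕ → Plk4}
    {vm : ℕ → ℚ → ℝ} {w : Fin 3 → ℕ → ℚ → ℝ} {L : ℕ → ℕ → Ln4} {r0 : ℕ → ℝ} {q : Fin 3 → ℝ}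
    {ω1 ω2 κ0 κ1 κ2 : ℕ → ℝ} {Ad : (ℕ → ℕ) → Prop} {j k : ℕ → ℕ}

open Classical in
/-- **the dyadic tilts are bounded** -/
theorem stage_ev (h : MkF B I G lev A g θ f b vm w) (hG : GeoOk G L r0 q) (hr0 : ∀ n, 0 < r0 n)
    (hF : FlatE I lev f b) {u v : ℚ} (hu : 0 ≤ u) (huv : u ≤ v) (hv : v ≤ 1)
    (hW : DeepW B I0 L lev A g r0 q ω1 ω2 κ0 κ1 κ2 Ad v) (hI0 : Dense B I I0)
    (hA1 : Ad fun n => lev n v + j n) (hA2 : Ad fun n => lev n v + k n)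
    (hA3 : Ad fun n => lev n v + (k n + j n))
    (hκ : ∀ᶠ n in (U : Filter ℕ), 2000 * dW lev w 1 n u v ≤ κ1 n ∧ 2000 * dW lev w 2 n u v ≤ κ2 n)
    (hκ0 : ∀ᶠ n in (U : Filter ℕ), 2000 * (2 ^ k n * dA w n u v) ≤ κ0 n)
    (hD : ∀ᶠ n in (U : Filter ℕ), ∀ x ∈ I n, DyA lev f b w n u v x (j n) (k n))
    (hdp : ∀ᶠ n in (U : Filter ℕ), r0 n ≤ rho (lev n v + (k n + j n)))
    (hω : ∀ᶠ n in (U : Filter ℕ), ω2 n ≤ ω1 n) (hω0 : ∀ᶠ n in (U : Filter ℕ), 0 ≤ ω2 n)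
    (hrg : ∀ᶠ n in (U : Filter ℕ), 2 * 2 ^ (k n + j n) * ω1 n ≤ w 1 n v ∧
      2 * 2 ^ (k n + j n) * ω2 n ≤ w 2 n v) (hR : Rw q g) {ε1 : ℝ} (hε1 : 0 < ε1) (hεg : ε1 ≤ g) :
    ∀ᶠ n in (U : Filter ℕ),
      (j n : ℝ) ≤ CP (q 0) (q 1) (q 2) (2 * g + q 0) * (1 + (k0E q +
        (cE θ q g * ((v:ℝ) - u) + (2 * (q 0 + q 1 + q 2) + 17) * ε1) * B.L n)) ∧
      (k n : ℝ) ≤ CP (q 0) (q 1) (q 2) (2 * g + q 0) * (1 + (k0E q +
        (cE θ q g * ((v:ℝ) - u) + (2 * (q 0 + q 1 + q 2) + 17) * ε1) * B.L n)) := by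
  have hu1 : u ≤ 1 := huv.trans hv
  have hv0 : 0 ≤ v := hu.trans huv
  have hvu : (0:ℝ) ≤ (v:ℝ) - u := by
    have : (u:ℝ) ≤ v := by exact_mod_cast huv
    linarith
  have hmono : ∀ {n a c : ℕ}, a ≤ c → rho (n + c) ≤ rho (n + a) := by
    intro n a c hac
    have h1 := rho_two (i := n + a) (j := n + c) (by omega)
    have h2 : (1:ℝ) ≤ 2 ^ (n + c - (n + a)) := one_le_pow₀ (by norm_num)
    rw [h1]
    exact le_mul_of_one_le_right (rho_pos _).le h2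
  -- the deep parts
  obtain ⟨P1, hP1, ⟨γ1, hγ1, hc1⟩, hm1⟩ := hW (fun n => lev n v + j n)
    (Eventually.of_forall fun n => Nat.le_add_right _ _)
    (hdp.mono fun n hn => hn.trans (hmono (by omega))) hA1 I hI0 ε1 hε1
  obtain ⟨P2, hP2, ⟨γ2, hγ2, hc2⟩, hm2⟩ := hW (fun n => lev n v + k n)
    (Eventually.of_forall fun n => Nat.le_add_right _ _)
    (hdp.mono fun n hn => hn.trans (hmono (by omega))) hA2 I hI0 ε1 hε1
  obtain ⟨P3, hP3, ⟨γ3, hγ3, hc3⟩, hm3⟩ := hW (fun n => lev n v + (k n + j n))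
    (Eventually.of_forall fun n => Nat.le_add_right _ _) hdp hA3 I hI0 ε1 hε1
  obtain ⟨γ, hγ, hγa, hγb, hγc⟩ : ∃ γ : ℝ, 0 < γ ∧ γ ≤ γ1 ∧ γ ≤ γ2 ∧ γ ≤ γ3 :=
    ⟨min γ1 (min γ2 γ3), lt_min hγ1 (lt_min hγ2 hγ3), min_le_left _ _,
      (min_le_right _ _).trans (min_le_left _ _), (min_le_right _ _).trans (min_le_right _ _)⟩
  obtain ⟨ε2, hε2, hε21, hε2γ⟩ : ∃ ε2 : ℝ, 0 < ε2 ∧ ε2 ≤ ε1 ∧ ε2 ≤ γ / 4 :=
    ⟨min ε1 (γ / 4), lt_min hε1 (by linarith), min_le_left _ _, min_le_right _ _⟩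
  have hgv : g * (v:ℝ) = g * u + g * ((v:ℝ) - u) := by ring
  filter_upwards [h.ne, sys_ev h hG hF hu hu1 hε1, sys_ev h hG hF hv0 hv hε1,
    dims h hG hr0 hu hu1, dims h hG hr0 hv0 hv, comp_ev h hu huv hv hε1, lev_pow h hu huv hv hε1,
    lev_pow h hv0 hv le_rfl hε2, h.own u v hu huv hv ε1 hε1, h.own v 1 hv0 hv le_rfl ε2 hε2,
    const_le B 4 (by linarith : 0 < γ / 2), hD, hdp, hω, hω0, hrg, hc1.and (hc2.and hc3), hm1, hm2,
    hm3, hκ, hκ0]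
    with n e1 e2 e3 e4 e5 e6 e7 e8 e9 e10 e11 e12 e13 e14 e15 e16 e17 e18 e19 e20 e21 e22
  obtain ⟨c1, c2, c3⟩ := e17
  obtain ⟨du0, du1, du2, du3, du4⟩ := e4
  obtain ⟨dv0, dv1, dv2, dv3, dv4⟩ := e5
  have hdγ : ∀ {γ' : ℝ} {N : ℕ}, γ ≤ γ' → B.d n ^ γ' * (N : ℝ) ≤ B.d n ^ γ * (N:ℝ) := by
    intro γ' N hh
    exact mul_le_mul_of_nonneg_right (dpow_le B n hh) (Nat.cast_nonneg _)
  have hX : 4 * B.d n ^ (-(2 * ε2)) * B.d n ^ γ ≤ 1 := by
    have h1 : B.d n ^ (-(2 * ε2)) * B.d n ^ γ ≤ B.d n ^ (γ / 2) := by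
      rw [← dpow_add]; exact dpow_le B n (by linarith)
    have h2 : B.d n ^ (-(γ / 2)) * B.d n ^ (γ / 2) = 1 := by
      rw [← dpow_add, neg_add_cancel, Real.rpow_zero]
    have h3 := dpow_pos B n (γ / 2)
    have h4 := dpow_pos B n (-(γ / 2))
    calc 4 * B.d n ^ (-(2 * ε2)) * B.d n ^ γ = 4 * (B.d n ^ (-(2 * ε2)) * B.d n ^ γ) := by ring
      _ ≤ 4 * B.d n ^ (γ / 2) := by linarith
      _ ≤ B.d n ^ (-(γ / 2)) * B.d n ^ (γ / 2) := mul_le_mul_of_nonneg_right e11 h3.le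
      _ = 1 := h2
  have hsu : FSys ((I n).image (lc (lev n u))) (L n) (lev n u) (fun o => (o.2, f n u o.1 o.2))
      (fun κ : ℤ × ℕ => (b n u κ.2).c) (fun κ => (b n u κ.2).e) (w 0 n u) (w 1 n u) (w 2 n u)
      (B.d n ^ ε1 * (A n * B.d n ^ (-(g * u)) * (capB (q 0) (q 1) (q 2) (w 0 n u) (w 1 n u)
        (w 2 n u) * rho (lev n u) ^ (-(q 0 + q 1 + q 2))))) := by
    rw [← du4]; exact e2
  have hsv : FSys ((I n).image (lc (lev n v))) (L n) (lev n v) (fun o => (o.2, f n v o.1 o.2))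
      (fun κ : ℤ × ℕ => (b n v κ.2).c) (fun κ => (b n v κ.2).e) (w 0 n v) (w 1 n v) (w 2 n v)
      (B.d n ^ ε1 * (A n * B.d n ^ (-(g * u + g * ((v:ℝ) - u))) * (capB (q 0) (q 1) (q 2)
        (w 0 n v) (w 1 n v) (w 2 n v) * rho (lev n v) ^ (-(q 0 + q 1 + q 2))))) := by
    rw [← dv4, ← hgv]; exact e3
  rw [hgv] at e18 e19 e20
  have key := stage_n (B := B) (n := n) (J := I n) (L := L n) (lu := lev n u) (lv := lev n v)
    (l1 := lev n 1) (k0 := lev n v - lev n u) (fu := f n u) (fv := f n v) (bu := b n u)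
    (bv := b n v) (ε2 := ε2) (γ := B.d n ^ γ) (C1 := cTh θ) (δ := (v:ℝ) - u) (j := j n) (k' := k n)
    (Pj := P1 n) (P := P3 n) (P' := P2 n) e1 (by have := e7.1; omega) e8.1 hsu hsv (h.Apos n)
    (fun x hx => by
      have := (e9 x hx).1
      simp only [zero_mul, sub_zero, add_zero] at this
      exact this)
    (fun x hx => by
      have h1 := (e10 x hx).1
      simp only [zero_mul, sub_zero, add_zero] at h1
      have h2 := mul_le_mul_of_nonneg_left h1 (dpow_pos B n (-(2 * ε2))).le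
      rw [← dpow_add] at h2
      refine (e8.2.1.trans (le_of_eq ?_)).trans h2
      congr 1
      ring)
    hε1 hε2.le hε21 hεg hvu (cTh_nonneg θ) (dpow_pos B n γ).le hX (hP1 n)
    (c1.trans (add_le_add_right (hdγ hγa) _)) (hP2 n)
    (c2.trans (add_le_add_right (hdγ hγb) _)) (hP3 n)
    (c3.trans (add_le_add_right (hdγ hγc) _)) e18 e19 e20 (hr0 n) du0 du1 du2 dv0 dv1 dv2 dv3
    (e6 0).1 (e6 0).2 (e6 1).1 (e6 1).2 (e6 2).1 (e6 2).2 e21.1 e21.2 e22 e13 e7.2.2 e14 e15 e16.1 e16.2 hR.g0.le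
    hR.q0 hR.q2 hR.q02 hR.q21 hR.g1 hR.gq (fun x hx => e12 x hx)
  have hq1 : 0 < q 1 := by linarith [hR.q2, hR.q21]
  have hQ : 0 ≤ q 0 + q 1 + q 2 := by linarith [hR.q0, hR.q2]
  have hlog := WW_log (B := B) (n := n) (k0 := lev n v - lev n u) (Q := q 0 + q 1 + q 2) (g := g)
    (δ := (v:ℝ) - u) (ε1 := ε1) (C1 := cTh θ) rfl (cTh_nonneg θ) hvu hε1.le hQ e7.2.1
  have hCP : 0 < CP (q 0) (q 1) (q 2) (2 * g + q 0) :=
    CP_pos (by linarith [hR.g0, hR.q0]) hR.q2 hq1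
  unfold cE k0E
  exact ⟨key.1.trans (by gcongr), key.2.trans (by gcongr)⟩

open Classical in
/-- **flat tilt** -/
theorem tilt_core (h : MkF B I G lev A g θ f b vm w) (hG : GeoOk G L r0 q) (hr0 : ∀ n, 0 < r0 n)
    (hlog : ∀ ε : ℝ, 0 < ε → ∀ᶠ n in (U : Filter ℕ), Real.log (1 / r0 n) ≤ B.d n ^ (-ε))
    (hF : FlatE I lev f b)
    (hW : ∀ v : ℚ, 0 ≤ v → v ≤ 1 → DeepW B I L lev A g r0 q ω1 ω2 κ0 κ1 κ2 Ad v)
    (hκ : ∀ (C : ℝ) (v : ℚ), 0 ≤ v → v ≤ 1 → ∀ᶠ n in (U : Filter ℕ),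
      w 1 n v ≤ B.d n ^ C * κ1 n ∧ w 2 n v ≤ B.d n ^ C * κ2 n)
    (hω : ∀ᶠ n in (U : Filter ℕ), ω2 n ≤ ω1 n) (hω0 : ∀ᶠ n in (U : Filter ℕ), 0 ≤ ω2 n)
    (hrg : ∀ u v : ℚ, 0 ≤ u → u < v → v ≤ 1 → ∀ (J : ℕ → Finset (ℕ × ℝ)) (j k : ℕ → ℕ),
      Dense B J I → (∀ᶠ n in (U : Filter ℕ), ∀ x ∈ J n, DyA lev f b w n u v x (j n) (k n)) →
      ((Ad fun n => lev n v + j n) ∧ (Ad fun n => lev n v + k n) ∧
        (Ad fun n => lev n v + (k n + j n))) ∧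
      (∀ᶠ n in (U : Filter ℕ), 2 * 2 ^ (k n + j n) * ω1 n ≤ w 1 n v ∧
        2 * 2 ^ (k n + j n) * ω2 n ≤ w 2 n v) ∧
      ∀ᶠ n in (U : Filter ℕ), 2000 * (2 ^ k n * dA w n u v) ≤ κ0 n) (hR : Rw q g) :
    ∃ C : ℝ, 0 ≤ C ∧ ∀ u v : ℚ, 0 ≤ u → u < v → v ≤ 1 → ∀ ε : ℝ, 0 < ε →
      Negl B I fun n x => ¬ Six (frm lev f b n u x) (frm lev f b n v x)
        (max (w 2 n u / w 1 n u) (w 2 n v / w 1 n v) * B.d n ^ (-(C * ((v:ℝ) - u)) - ε))
        (max (w 0 n u / w 2 n u) (w 0 n v / w 2 n v) * B.d n ^ (-(C * ((v:ℝ) - u)) - ε))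
        (max (w 0 n u / w 1 n u) (w 0 n v / w 1 n v) * B.d n ^ (-(C * ((v:ℝ) - u)) - ε)) := by
  have hq1 : 0 < q 1 := by linarith [hR.q2, hR.q21]
  have hQ : 0 ≤ q 0 + q 1 + q 2 := by linarith [hR.q0, hR.q2]
  have hCP : 0 < CP (q 0) (q 1) (q 2) (2 * g + q 0) :=
    CP_pos (by linarith [hR.g0, hR.q0]) hR.q2 hq1
  have hT := cTh_nonneg θ
  have hcE : 0 ≤ cE θ q g := by
    have := hR.g0
    unfold cE; positivity
  generalize hCPd : CP (q 0) (q 1) (q 2) (2 * g + q 0) = CPc at *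
  refine ⟨cTh θ + 2 * CPc * cE θ q g, by positivity, fun u v hu huv hv ε hε => ?_⟩
  have hu1 : u ≤ 1 := huv.le.trans hv
  have hv0 : 0 ≤ v := hu.trans huv.le
  have hvu : (0:ℝ) ≤ (v:ℝ) - u := by
    have : (u:ℝ) ≤ v := by exact_mod_cast huv.le
    linarith
  by_contra hN
  obtain ⟨J0, hdJ0, hbad0⟩ := exists_bad hN
  obtain ⟨J, j, k, hs, hdJ, hM, hDy⟩ := exists_dyA h hG hr0 hlog hu huv.le hv hdJ0
  have hdI : Dense B J I := hdJ.trans hdJ0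
  -- exponents
  obtain ⟨K, hK⟩ : ∃ K : ℝ, K = 2 + 2 * CPc * (2 * (q 0 + q 1 + q 2) + 17) := ⟨_, rfl⟩
  have hK2 : 2 ≤ K := by rw [hK]; have : 0 ≤ 2 * CPc * (2 * (q 0 + q 1 + q 2) + 17) := by positivity
                         linarith
  obtain ⟨ε1, hε1, hεg, hεK⟩ : ∃ ε1 : ℝ, 0 < ε1 ∧ ε1 ≤ g ∧ K * ε1 ≤ ε := by
    refine ⟨min g (ε / K), lt_min hR.g0 (by positivity), min_le_left _ _, ?_⟩
    calc K * min g (ε / K) ≤ K * (ε / K) := by gcongr; exact min_le_right _ _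
      _ = ε := by field_simp
  have h2ε : 2 * ε1 ≤ ε := by
    have := mul_le_mul_of_nonneg_right hK2 hε1.le
    linarith
  have hFJ : FlatE J lev f b := by
    intro v' h0 h1
    filter_upwards [hF v' h0 h1, hdI.1] with n hn hsub c t ht
    exact hn c t (alive_mono hsub _ _ ht)
  -- depth
  have hdp : ∀ᶠ n in (U : Filter ℕ), r0 n ≤ rho (lev n v + (k n + j n)) := by
    filter_upwards [dAW hM hG hr0 hu huv.le hv hε1, hM.ne, hDy, dims hM hG hr0 hu hu1,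
      dims hM hG hr0 hv0 hv, const_le B 40 hε1, frm_ortho hM hG hu hu1, frm_ortho hM hG hv0 hv]
      with n a1 a2 a3 a4 a5 a6 a7 a8
    obtain ⟨x, hx⟩ := a2
    have hbad := hbad0 n x (hs n hx)
    obtain ⟨b1, b2, b3, b4, b5, b6, b7, b8, b9⟩ := a1
    obtain ⟨du0, du1, du2, du3, -⟩ := a4
    obtain ⟨dv0, dv1, dv2, dv3, -⟩ := a5
    have hr := hr0 n
    have pu0 : 0 < w 0 n u := hr.trans_le du0
    have pu2 : 0 < w 2 n u := pu0.trans_le du1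
    have pu1 : 0 < w 1 n u := pu2.trans_le du2
    have pv0 : 0 < w 0 n v := hr.trans_le dv0
    have pv2 : 0 < w 2 n v := pv0.trans_le dv1
    have pv1 : 0 < w 1 n v := pv2.trans_le dv2
    have hA : 0 < dA w n u v := by linarith
    set DT := B.d n ^ (-((cTh θ + 2 * CPc * cE θ q g) * ((v:ℝ) - u)) - ε) with hDT
    have hDTp : 0 < DT := dpow_pos B n _
    by_cases hcase : w 0 n v * DT < w 1 n v
    · have h1 : 40 * B.d n ^ (-(cTh θ * ((v:ℝ) - u)) - ε1) ≤ DT := by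
        have h2 := dpow_pos B n (-(cTh θ * ((v:ℝ) - u)) - ε1)
        calc 40 * B.d n ^ (-(cTh θ * ((v:ℝ) - u)) - ε1) ≤
            B.d n ^ (-ε1) * B.d n ^ (-(cTh θ * ((v:ℝ) - u)) - ε1) := by gcongr
          _ = B.d n ^ (-ε1 + (-(cTh θ * ((v:ℝ) - u)) - ε1)) := by rw [← dpow_add]
          _ ≤ DT := by
            refine dpow_le B n ?_
            have : 0 ≤ 2 * CPc * cE θ q g * ((v:ℝ) - u) := by positivity
            have e : (cTh θ + 2 * CPc * cE θ q g) * ((v:ℝ) - u) =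
              cTh θ * ((v:ℝ) - u) + 2 * CPc * cE θ q g * ((v:ℝ) - u) := by ring
            rw [e]
            linarith
      have h2 : dA w n u v ≤ rho (lev n v) := by
        calc dA w n u v ≤ 40 * B.d n ^ (-(cTh θ * ((v:ℝ) - u)) - ε1) * w 0 n v := b4
          _ ≤ DT * w 0 n v := by gcongr
          _ = w 0 n v * DT := mul_comm _ _
          _ ≤ _ := hcase.le.trans dv3
      have h3 := b9 h2
      have h4 := (a3 x hx).total (a7 x hx) (a8 x hx) hA b2 b3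
      have h5 : (2:ℝ) ^ (k n + j n) * (40 * r0 n) ≤ 2 ^ (k n + j n) * dA w n u v := by gcongr
      have h6 : rho (lev n v + (k n + j n)) * 2 ^ (k n + j n) = rho (lev n v) := rho_add _ _
      have h7 : r0 n * 2 ^ (k n + j n) ≤ rho (lev n v + (k n + j n)) * 2 ^ (k n + j n) := by
        rw [h6]; linarith
      exact le_of_mul_le_mul_right h7 (by positivity)
    · exfalso
      apply hbad
      rw [not_lt] at hcase
      have h1 : 1 ≤ w 0 n v / w 1 n v * DT := by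
        rw [div_mul_eq_mul_div, le_div_iff₀ pv1, one_mul]; exact hcase
      have h2 : w 0 n v / w 1 n v ≤ w 2 n v / w 1 n v := div_le_div_of_nonneg_right dv1 pv1.le
      have h3 : w 0 n v / w 1 n v ≤ w 0 n v / w 2 n v :=
        div_le_div_of_nonneg_left pv0.le pv2 dv2
      refine (six_one (a7 x hx) (a8 x hx)).mono ?_ ?_ ?_
      · refine h1.trans (mul_le_mul_of_nonneg_right (h2.trans (le_max_right _ _)) hDTp.le)
      · refine h1.trans (mul_le_mul_of_nonneg_right (h3.trans (le_max_right _ _)) hDTp.le)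
      · refine h1.trans (mul_le_mul_of_nonneg_right (le_max_right _ _) hDTp.le)
  have hκJ : ∀ᶠ n in (U : Filter ℕ), 2000 * dW lev w 1 n u v ≤ κ1 n ∧
      2000 * dW lev w 2 n u v ≤ κ2 n := by
    filter_upwards [dAW hM hG hr0 hu huv.le hv hε1, dims hM hG hr0 hv0 hv,
      hκ (cTh θ * ((v:ℝ) - u) + 2 * ε1) v hv0 hv, const_le B 400000 hε1] with n a1 a2 a3 a4
    obtain ⟨b1, b2, b3, b4, b5, b6, b7, b8, b9⟩ := a1
    obtain ⟨dv0, dv1, dv2, dv3, -⟩ := a2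
    have pv0 : 0 < w 0 n v := (hr0 n).trans_le dv0
    have pv2 : 0 < w 2 n v := pv0.trans_le dv1
    have pv1 : 0 < w 1 n v := pv2.trans_le dv2
    have key : ∀ x y κ : ℝ, x ≤ 200 * B.d n ^ (-(cTh θ * ((v:ℝ) - u)) - ε1) * y → 0 < y →
        y ≤ B.d n ^ (cTh θ * ((v:ℝ) - u) + 2 * ε1) * κ → 2000 * x ≤ κ := by
      intro x y κ h1 h2 h3
      have d1 := dpow_pos B n (cTh θ * ((v:ℝ) - u) + 2 * ε1)
      have d2 := dpow_pos B n (-(cTh θ * ((v:ℝ) - u)) - ε1)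
      have d3 := dpow_pos B n ε1
      have hκp : 0 < κ := by
        by_contra hc
        have := mul_nonpos_of_nonneg_of_nonpos d1.le (not_lt.1 hc)
        linarith
      have e1 : B.d n ^ (-(cTh θ * ((v:ℝ) - u)) - ε1) * B.d n ^ (cTh θ * ((v:ℝ) - u) + 2 * ε1) =
          B.d n ^ ε1 := by rw [← dpow_add]; congr 1; ring
      have e2 : B.d n ^ (-ε1) * B.d n ^ ε1 = 1 := by
        rw [← dpow_add, neg_add_cancel, Real.rpow_zero]
      calc 2000 * x ≤ 2000 * (200 * B.d n ^ (-(cTh θ * ((v:ℝ) - u)) - ε1) *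
            (B.d n ^ (cTh θ * ((v:ℝ) - u) + 2 * ε1) * κ)) := by
            refine mul_le_mul_of_nonneg_left (h1.trans ?_) (by norm_num)
            exact mul_le_mul_of_nonneg_left h3 (by positivity)
        _ = 400000 * (B.d n ^ (-(cTh θ * ((v:ℝ) - u)) - ε1) *
            B.d n ^ (cTh θ * ((v:ℝ) - u) + 2 * ε1)) * κ := by ring
        _ = 400000 * B.d n ^ ε1 * κ := by rw [e1]
        _ ≤ B.d n ^ (-ε1) * B.d n ^ ε1 * κ := by gcongr
        _ = κ := by rw [e2, one_mul]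
    exact ⟨key _ _ _ b5 pv1 a3.1, key _ _ _ b6 pv2 a3.2⟩
  obtain ⟨⟨hA1, hA2, hA3⟩, hrgJ, hκ0J⟩ := hrg u v hu huv hv J j k hdI hDy
  have hst := stage_ev hM hG hr0 hFJ hu huv.le hv (hW v hv0 hv) hdI hA1 hA2 hA3 hκJ hκ0J hDy hdp hω
    hω0 hrgJ hR hε1 hεg
  rw [hCPd] at hst
  -- contradiction
  have hfin : ∀ᶠ n in (U : Filter ℕ), False := by
    filter_upwards [dAW hM hG hr0 hu huv.le hv hε1, hM.ne, hDy, dims hM hG hr0 hu hu1,
      dims hM hG hr0 hv0 hv, const_le B (400 * Real.exp (2 * CPc * (1 + k0E q))) hε1,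
      frm_ortho hM hG hu hu1, frm_ortho hM hG hv0 hv, hst]
      with n a1 a2 a3 a4 a5 a6 a7 a8 a9
    obtain ⟨x, hx⟩ := a2
    have hbad := hbad0 n x (hs n hx)
    obtain ⟨b1, b2, b3, b4, b5, b6, b7, b8, b9⟩ := a1
    obtain ⟨du0, du1, du2, du3, -⟩ := a4
    obtain ⟨dv0, dv1, dv2, dv3, -⟩ := a5
    have hr := hr0 n
    have pv0 : 0 < w 0 n v := hr.trans_le dv0
    have pv2 : 0 < w 2 n v := pv0.trans_le dv1
    have pv1 : 0 < w 1 n v := pv2.trans_le dv2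
    have hA : 0 < dA w n u v := by linarith
    have hEp := dpow_pos B n (-(cTh θ * ((v:ℝ) - u)) - ε1)
    have hsix := six_of_dy (a3 x hx) (a7 x hx) (a8 x hx) hA b2 b3 pv2 pv1
      (K := 200 * B.d n ^ (-(cTh θ * ((v:ℝ) - u)) - ε1)) (a0 := w 0 n v) (by
        refine b4.trans ?_
        gcongr
        norm_num) b6 b8 b7
    have hL := B.L_pos n
    have hN : (((k n + j n : ℕ)) : ℝ) ≤ 2 * CPc * (1 + k0E q) + (2 * CPc * (cE θ q g *
        ((v:ℝ) - u) + (2 * (q 0 + q 1 + q 2) + 17) * ε1)) * B.L n := by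
      push_cast
      linarith [a9.1, a9.2]
    set N := k n + j n with hNd
    have h2 : (2:ℝ) ^ N ≤ Real.exp (N : ℝ) := by
      have h3 : (2:ℝ) ≤ Real.exp 1 := by
        have := Real.add_one_le_exp (1:ℝ); linarith
      have h4 : Real.exp (N : ℝ) = Real.exp 1 ^ N := by rw [← Real.exp_nat_mul, mul_one]
      rw [h4]
      exact pow_le_pow_left₀ (by norm_num) h3 N
    have h3 : (2:ℝ) ^ N ≤ Real.exp (2 * CPc * (1 + k0E q)) * B.d n ^ (-(2 * CPc * (cE θ q g *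
        ((v:ℝ) - u) + (2 * (q 0 + q 1 + q 2) + 17) * ε1))) := by
      refine h2.trans ?_
      rw [dpow_exp, ← Real.exp_add, Real.exp_le_exp]
      refine hN.trans (le_of_eq ?_)
      ring
    have h4 : 2 * (200 * B.d n ^ (-(cTh θ * ((v:ℝ) - u)) - ε1)) * 2 ^ N ≤
        B.d n ^ (-((cTh θ + 2 * CPc * cE θ q g) * ((v:ℝ) - u)) - ε) := by
      have hYp := dpow_pos B n (-(2 * CPc * (cE θ q g *
        ((v:ℝ) - u) + (2 * (q 0 + q 1 + q 2) + 17) * ε1)))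
      calc 2 * (200 * B.d n ^ (-(cTh θ * ((v:ℝ) - u)) - ε1)) * 2 ^ N ≤
          2 * (200 * B.d n ^ (-(cTh θ * ((v:ℝ) - u)) - ε1)) *
          (Real.exp (2 * CPc * (1 + k0E q)) * B.d n ^ (-(2 * CPc * (cE θ q g *
            ((v:ℝ) - u) + (2 * (q 0 + q 1 + q 2) + 17) * ε1)))) := by gcongr
        _ = (400 * Real.exp (2 * CPc * (1 + k0E q))) * (B.d n ^ (-(cTh θ * ((v:ℝ) - u)) - ε1) *
          B.d n ^ (-(2 * CPc * (cE θ q g *
            ((v:ℝ) - u) + (2 * (q 0 + q 1 + q 2) + 17) * ε1)))) := by ring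
        _ ≤ B.d n ^ (-ε1) * (B.d n ^ (-(cTh θ * ((v:ℝ) - u)) - ε1) *
          B.d n ^ (-(2 * CPc * (cE θ q g *
            ((v:ℝ) - u) + (2 * (q 0 + q 1 + q 2) + 17) * ε1)))) := by gcongr
        _ = B.d n ^ (-ε1 + ((-(cTh θ * ((v:ℝ) - u)) - ε1) + (-(2 * CPc * (cE θ q g *
            ((v:ℝ) - u) + (2 * (q 0 + q 1 + q 2) + 17) * ε1))))) := by
          rw [← dpow_add, ← dpow_add]
        _ ≤ _ := by
          refine dpow_le B n ?_
          have e : -ε1 + ((-(cTh θ * ((v:ℝ) - u)) - ε1) + (-(2 * CPc * (cE θ q g *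
            ((v:ℝ) - u) + (2 * (q 0 + q 1 + q 2) + 17) * ε1)))) =
            -((cTh θ + 2 * CPc * cE θ q g) * ((v:ℝ) - u)) - K * ε1 := by rw [hK]; ring
          rw [e]
          linarith
    apply hbad
    refine hsix.mono ?_ ?_ ?_
    · exact mul_le_mul (le_max_right _ _) h4 (by positivity)
        ((by positivity : 0 ≤ w 2 n v / w 1 n v).trans (le_max_right _ _))
    · exact mul_le_mul (le_max_right _ _) h4 (by positivity)
        ((by positivity : 0 ≤ w 0 n v / w 2 n v).trans (le_max_right _ _))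
    · exact mul_le_mul (le_max_right _ _) h4 (by positivity)
        ((by positivity : 0 ≤ w 0 n v / w 1 n v).trans (le_max_right _ _))
  obtain ⟨n, hn⟩ := hfin.exists
  exact hn

end

end Crest.Agent.R136.Fl808
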