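import Crest.Agent.R136.Tl2_214

/-!
# R136, non-degeneracy of near-maximal sheets (helper214), part 2: algebra of two lines of one sheet
through one small cell
-/

set_option autoImplicit false
set_option linter.unusedVariables false
set_option linter.unusedSectionVars false

namespace Crest.Agent.R136.Nd214

open Crest.Agent.R136.Tl214

section abstract

variable {E : Type*} [AddCommGroup E] [Module ℝ E] {q : QP E} {eY : E}

/-- rotation of the tangent plane along `τ` in the lateral direction `D` -/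
noncomputable def bet (q : QP E) (eY x τ D : E) : ℝ := q.H τ (lift q eY x D)

/-- second fundamental form -/
noncomputable def sec (q : QP E) (eY x D D' : E) : ℝ := q.H (lift q eY x D) (lift q eY x D')

theorem lift_add' (x D D' : E) : lift q eY x (D + D') = lift q eY x D + lift q eY x D' := by
  unfold lift
  rw [q.G_add', add_div, add_smul]; abel

theorem lift_smul' (x D : E) (t : ℝ) : lift q eY x (t • D) = t • lift q eY x D := by
  unfold lift
  rw [q.G_smul, smul_sub, smul_smul, mul_div_assoc]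

theorem bet_add (x τ D D' : E) : bet q eY x τ (D + D') = bet q eY x τ D + bet q eY x τ D' := by
  unfold bet; rw [lift_add', map_add]

theorem bet_smul (x τ D : E) (t : ℝ) : bet q eY x τ (t • D) = t * bet q eY x τ D := by
  unfold bet; rw [lift_smul', map_smul, smul_eq_mul]

theorem sec_symm (x D D' : E) : sec q eY x D D' = sec q eY x D' D := q.symm _ _

theorem sec_add (x D D' Δ : E) :
    sec q eY x (D + D') Δ = sec q eY x D Δ + sec q eY x D' Δ := by
  unfold sec; rw [lift_add', map_add, LinearMap.add_apply]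

theorem sec_smul (x D Δ : E) (t : ℝ) : sec q eY x (t • D) Δ = t * sec q eY x D Δ := by
  unfold sec; rw [lift_smul', map_smul, LinearMap.smul_apply, smul_eq_mul]

/-- **(i)** the direction of the rotation is constant along a line -/
theorem bet_const {x τ : E} (u : ℝ) (h : q.G x eY ≠ 0) (h' : q.G (x + u • τ) eY ≠ 0) (D : E) :
    bet q eY (x + u • τ) τ D * q.G (x + u • τ) eY = bet q eY x τ D * q.G x eY := by
  unfold bet
  rw [lift_pt h h', map_add, map_smul, map_smul, LinearMap.smul_apply, smul_eq_mul, smul_eq_mul]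
  have e : q.G (x + u • τ) eY = q.G x eY + 2 * (u * q.H τ eY) := by
    rw [q.G_add, map_smul, LinearMap.smul_apply, smul_eq_mul]
  set k := q.H τ eY with hk
  set b := q.H τ (lift q eY x D) with hb
  set g' := q.G (x + u • τ) eY with hg'
  have e2 : (b + -(2 * (u * b) / g') * k) * g' = b * g' - 2 * u * b * k := by
    field_simp; ring
  rw [e2, e]; ring

/-- variation of the second fundamental form along a line -/
theorem sec_line {x τ : E} (u : ℝ) (h : q.G x eY ≠ 0) (h' : q.G (x + u • τ) eY ≠ 0) (D D' : E) :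
    sec q eY (x + u • τ) D D' = sec q eY x D D' -
      (2 * u * bet q eY x τ D / q.G (x + u • τ) eY) * q.H eY (lift q eY x D') -
      (2 * u * bet q eY x τ D' / q.G (x + u • τ) eY) * q.H eY (lift q eY x D) +
      (2 * u * bet q eY x τ D / q.G (x + u • τ) eY) *
        (2 * u * bet q eY x τ D' / q.G (x + u • τ) eY) * q.H eY eY := by
  unfold sec bet
  rw [lift_pt h h', lift_pt h h']
  simp only [map_add, map_smul, LinearMap.add_apply, LinearMap.smul_apply, smul_eq_mul]
  rw [q.symm (lift q eY x D) eY]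
  ring

/-- frame bounds at a point -/
structure Frm (q : QP E) (eA eB eY x τ : E) (K : ℝ) : Prop where
  K1 : 1 ≤ K
  g0 : 1 / 2 ≤ q.G x eY
  g1 : q.G x eY ≤ 2
  HAA : |q.H (lift q eY x eA) (lift q eY x eA)| ≤ K
  HAB : |q.H (lift q eY x eA) (lift q eY x eB)| ≤ K
  HBB : |q.H (lift q eY x eB) (lift q eY x eB)| ≤ K
  HAY : |q.H (lift q eY x eA) eY| ≤ K
  HBY : |q.H (lift q eY x eB) eY| ≤ K
  HYY : |q.H eY eY| ≤ K
  HτA : |q.H τ (lift q eY x eA)| ≤ K
  HτB : |q.H τ (lift q eY x eB)| ≤ K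
  HτY : |q.H τ eY| ≤ K

theorem Frm.swap {eA eB x τ : E} {K : ℝ} (F : Frm q eA eB eY x τ K) : Frm q eB eA eY x τ K where
  K1 := F.K1
  g0 := F.g0
  g1 := F.g1
  HAA := F.HBB
  HAB := by rw [q.symm]; exact F.HAB
  HBB := F.HAA
  HAY := F.HBY
  HBY := F.HAY
  HYY := F.HYY
  HτA := F.HτB
  HτB := F.HτA
  HτY := F.HτY

theorem abs_add3 (a b c : ℝ) : |a + b + c| ≤ |a| + |b| + |c| :=
  (abs_add_le _ _).trans (by linarith [abs_add_le a b])

theorem abs_mul_le' {a b A B : ℝ} (ha : |a| ≤ A) (hb : |b| ≤ B) : |a * b| ≤ A * B := by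
  rw [abs_mul]; exact mul_le_mul ha hb (abs_nonneg _) ((abs_nonneg _).trans ha)

/-- two lines of one sheet through one small cell: `x' = x + ξ`, `τ' = τ + D + ȳ eY` -/
structure Two (q : QP E) (eA eB eY x τ : E) (K a r dA dB y xA xB xY : ℝ) : Prop where
  frm : Frm q eA eB eY x τ K
  a0 : 0 ≤ a
  r0 : 0 ≤ r
  hdA : |dA| ≤ 2
  hdB : |dB| ≤ 2
  hy : |y| ≤ 1
  hxA : |xA| ≤ r
  hxB : |xB| ≤ r
  hxY : |xY| ≤ r
  Hτ : |q.H τ τ| ≤ a
  Gτ : |q.G x τ| ≤ a
  Hτ' : |q.H (τ + (dA • lift q eY x eA + dB • lift q eY x eB + y • eY))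
    (τ + (dA • lift q eY x eA + dB • lift q eY x eB + y • eY))| ≤ a
  Gτ' : |q.G (x + (xA • lift q eY x eA + xB • lift q eY x eB + xY • eY))
    (τ + (dA • lift q eY x eA + dB • lift q eY x eB + y • eY))| ≤ a
  g0' : 1 / 2 ≤ q.G (x + (xA • lift q eY x eA + xB • lift q eY x eB + xY • eY)) eY

variable {eA eB x τ : E} {K a r dA dB y xA xB xY : ℝ}

/-- `H ξ τ'` -/
theorem Two.Hxt (T : Two q eA eB eY x τ K a r dA dB y xA xB xY) :
    |q.H (xA • lift q eY x eA + xB • lift q eY x eB + xY • eY)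
      (τ + (dA • lift q eY x eA + dB • lift q eY x eB + y • eY))| ≤ 18 * K * r := by
  have F := T.frm
  simp only [map_add, map_smul, LinearMap.add_apply, LinearMap.smul_apply, smul_eq_mul]
  have hK := F.K1
  have hr := T.r0
  have sAτ : |q.H (lift q eY x eA) τ| ≤ K := by rw [q.symm]; exact F.HτA
  have sBτ : |q.H (lift q eY x eB) τ| ≤ K := by rw [q.symm]; exact F.HτB
  have sYτ : |q.H eY τ| ≤ K := by rw [q.symm]; exact F.HτY
  have sBA : |q.H (lift q eY x eB) (lift q eY x eA)| ≤ K := by rw [q.symm]; exact F.HAB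
  have sYA : |q.H eY (lift q eY x eA)| ≤ K := by rw [q.symm]; exact F.HAY
  have sYB : |q.H eY (lift q eY x eB)| ≤ K := by rw [q.symm]; exact F.HBY
  have row : ∀ v : E, |q.H v τ| ≤ K → |q.H v (lift q eY x eA)| ≤ K →
      |q.H v (lift q eY x eB)| ≤ K → |q.H v eY| ≤ K →
      |q.H v τ + (dA * q.H v (lift q eY x eA) + dB * q.H v (lift q eY x eB) + y * q.H v eY)| ≤
        6 * K := by
    intro v h1 h2 h3 h4
    have e2 := abs_mul_le' T.hdA h2
    have e3 := abs_mul_le' T.hdB h3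
    have e4 := abs_mul_le' T.hy h4
    calc _ ≤ |q.H v τ| + |dA * q.H v (lift q eY x eA) + dB * q.H v (lift q eY x eB) + y * q.H v eY| :=
          abs_add_le _ _
      _ ≤ |q.H v τ| + (|dA * q.H v (lift q eY x eA)| + |dB * q.H v (lift q eY x eB)| +
          |y * q.H v eY|) := by gcongr; exact abs_add3 _ _ _
      _ ≤ 6 * K := by linarith
  have rA := row _ sAτ F.HAA F.HAB F.HAY
  have rB := row _ sBτ sBA F.HBB F.HBY
  have rY := row _ sYτ sYA sYB F.HYY
  have e : xA * q.H (lift q eY x eA) τ + xB * q.H (lift q eY x eB) τ + xY * q.H eY τ +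
      (dA * (xA * q.H (lift q eY x eA) (lift q eY x eA) + xB * q.H (lift q eY x eB)
        (lift q eY x eA) + xY * q.H eY (lift q eY x eA)) +
      dB * (xA * q.H (lift q eY x eA) (lift q eY x eB) + xB * q.H (lift q eY x eB)
        (lift q eY x eB) + xY * q.H eY (lift q eY x eB)) +
      y * (xA * q.H (lift q eY x eA) eY + xB * q.H (lift q eY x eB) eY + xY * q.H eY eY)) =
      xA * (q.H (lift q eY x eA) τ + (dA * q.H (lift q eY x eA) (lift q eY x eA) +
        dB * q.H (lift q eY x eA) (lift q eY x eB) + y * q.H (lift q eY x eA) eY)) +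
      xB * (q.H (lift q eY x eB) τ + (dA * q.H (lift q eY x eB) (lift q eY x eA) +
        dB * q.H (lift q eY x eB) (lift q eY x eB) + y * q.H (lift q eY x eB) eY)) +
      xY * (q.H eY τ + (dA * q.H eY (lift q eY x eA) +
        dB * q.H eY (lift q eY x eB) + y * q.H eY eY)) := by ring
  have f1 := abs_mul_le' T.hxA rA
  have f2 := abs_mul_le' T.hxB rB
  have f3 := abs_mul_le' T.hxY rY
  refine le_trans (le_of_eq (congrArg _ ?_)) ((abs_add3 _ _ _).trans (by linarith :
    |xA * (q.H (lift q eY x eA) τ + (dA * q.H (lift q eY x eA) (lift q eY x eA) +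
        dB * q.H (lift q eY x eA) (lift q eY x eB) + y * q.H (lift q eY x eA) eY))| +
      |xB * (q.H (lift q eY x eB) τ + (dA * q.H (lift q eY x eB) (lift q eY x eA) +
        dB * q.H (lift q eY x eB) (lift q eY x eB) + y * q.H (lift q eY x eB) eY))| +
      |xY * (q.H eY τ + (dA * q.H eY (lift q eY x eA) +
        dB * q.H eY (lift q eY x eB) + y * q.H eY eY))| ≤ 18 * K * r))
  rw [← e]

/-- the relative normal velocity is small -/
theorem Two.y_le (T : Two q eA eB eY x τ K a r dA dB y xA xB xY) : |y| ≤ 4 * a + 72 * K * r := by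
  have F := T.frm
  have h1 := T.Hxt
  have n0 : q.G x eY ≠ 0 := by linarith [F.g0]
  have e1 : q.G (x + (xA • lift q eY x eA + xB • lift q eY x eB + xY • eY))
      (τ + (dA • lift q eY x eA + dB • lift q eY x eB + y • eY)) =
      q.G x τ + y * q.G x eY + 2 * q.H (xA • lift q eY x eA + xB • lift q eY x eB + xY • eY)
        (τ + (dA • lift q eY x eA + dB • lift q eY x eB + y • eY)) := by
    rw [q.G_add, q.G_add', q.G_add', q.G_add', q.G_smul, q.G_smul, q.G_smul, G_lift n0, G_lift n0]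
    ring
  have h2 := T.Gτ'
  rw [e1] at h2
  have h3 := T.Gτ
  have h4 : |y * q.G x eY| ≤ 2 * a + 36 * K * r := by
    rw [abs_le] at h1 h2 h3 ⊢
    constructor <;> linarith [h1.1, h1.2, h2.1, h2.2, h3.1, h3.2]
  rw [abs_mul, abs_of_pos (by linarith [F.g0] : 0 < q.G x eY)] at h4
  nlinarith [abs_nonneg y, F.g0]

/-- **(F)** the fan relation with offset -/
theorem Two.fan (T : Two q eA eB eY x τ K a r dA dB y xA xB xY) (ha : a ≤ 1) :
    |2 * bet q eY x τ (dA • eA + dB • eB) +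
      sec q eY x (dA • eA + dB • eB) (dA • eA + dB • eB)| ≤ 800 * K ^ 2 * (a + r) := by
  have F := T.frm
  have hK := F.K1
  have hy := T.y_le
  have eD : lift q eY x (dA • eA + dB • eB) = dA • lift q eY x eA + dB • lift q eY x eB := by
    rw [lift_add', lift_smul', lift_smul']
  unfold bet sec
  rw [eD]
  set D := dA • lift q eY x eA + dB • lift q eY x eB with hD
  have e1 : q.H (τ + (D + y • eY)) (τ + (D + y • eY)) = q.H τ τ + (2 * q.H τ D + q.H D D) +
      (2 * (y * q.H τ eY) + 2 * (y * q.H D eY) + y * (y * q.H eY eY)) := by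
    simp only [map_add, map_smul, LinearMap.add_apply, LinearMap.smul_apply, smul_eq_mul]
    rw [q.symm D τ, q.symm eY τ, q.symm eY D]; ring
  have h1 := T.Hτ'
  rw [e1] at h1
  have h2 : |q.H D eY| ≤ 4 * K := by
    rw [hD]
    simp only [map_add, map_smul, LinearMap.add_apply, LinearMap.smul_apply, smul_eq_mul]
    have := abs_mul_le' T.hdA F.HAY
    have := abs_mul_le' T.hdB F.HBY
    refine (abs_add_le _ _).trans ?_
    linarith
  have h3 : |2 * (y * q.H τ eY) + 2 * (y * q.H D eY) + y * (y * q.H eY eY)| ≤ 11 * K * |y| := by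
    have k1 : |2 * (y * q.H τ eY)| ≤ 2 * (|y| * K) := by
      rw [abs_mul, abs_two]; gcongr; rw [abs_mul]; gcongr; exact F.HτY
    have k2 : |2 * (y * q.H D eY)| ≤ 2 * (|y| * (4 * K)) := by
      rw [abs_mul, abs_two]; gcongr; rw [abs_mul]; gcongr
    have k3 : |y * (y * q.H eY eY)| ≤ |y| * (1 * K) := by
      rw [abs_mul]; gcongr; exact abs_mul_le' T.hy F.HYY
    refine (abs_add3 _ _ _).trans ?_
    linarith
  have h4 := T.Hτ
  have h5 : 11 * K * |y| ≤ 11 * K * (4 * a + 72 * K * r) := by gcongr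
  have ha0 := T.a0
  have hr0 := T.r0
  have h6 : 11 * K * (4 * a + 72 * K * r) + 2 * a ≤ 800 * K ^ 2 * (a + r) := by
    have k1 : K * a ≤ K ^ 2 * a := by nlinarith [mul_nonneg (mul_nonneg (by linarith : 0 ≤ K) ha0) (by linarith : 0 ≤ K - 1)]
    have k2 : a ≤ K ^ 2 * a := by nlinarith [mul_nonneg ha0 (by nlinarith : 0 ≤ K ^ 2 - 1)]
    have k3 : 0 ≤ K ^ 2 * r := by positivity
    nlinarith
  rw [abs_le] at h1 h3 h4 ⊢
  constructor <;> linarith [h1.1, h1.2, h3.1, h3.2, h4.1, h4.2]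

/-- **(B)** the rotation functional of the second line -/
theorem Two.rot (T : Two q eA eB eY x τ K a r dA dB y xA xB xY) {Δ : E}
    (hΔY : |q.H (lift q eY x Δ) eY| ≤ K) (hA : |q.H (lift q eY x eA) (lift q eY x Δ)| ≤ K)
    (hB : |q.H (lift q eY x eB) (lift q eY x Δ)| ≤ K) :
    |bet q eY (x + (xA • lift q eY x eA + xB • lift q eY x eB + xY • eY))
        (τ + (dA • lift q eY x eA + dB • lift q eY x eB + y • eY)) Δ -
      (bet q eY x τ Δ + sec q eY x (dA • eA + dB • eB) Δ)| ≤ 144 * K ^ 2 * (a + r) := by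
  have F := T.frm
  have hK := F.K1
  have hy := T.y_le
  have n0 : q.G x eY ≠ 0 := by linarith [F.g0]
  have n1 : q.G (x + (xA • lift q eY x eA + xB • lift q eY x eB + xY • eY)) eY ≠ 0 := by
    linarith [T.g0']
  have eD : lift q eY x (dA • eA + dB • eB) = dA • lift q eY x eA + dB • lift q eY x eB := by
    rw [lift_add', lift_smul', lift_smul']
  unfold bet sec
  rw [eD, lift_pt n0 n1]
  set ξ := xA • lift q eY x eA + xB • lift q eY x eB + xY • eY with hξ
  set D := dA • lift q eY x eA + dB • lift q eY x eB with hD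
  set L := lift q eY x Δ with hL
  set μ := -(2 * q.H ξ L / q.G (x + ξ) eY) with hμ
  have e1 : q.H (τ + (D + y • eY)) (L + μ • eY) - (q.H τ L + q.H D L) =
      y * q.H eY L + μ * q.H (τ + (D + y • eY)) eY := by
    simp only [map_add, map_smul, LinearMap.add_apply, LinearMap.smul_apply, smul_eq_mul]
    ring
  rw [e1]
  have h1 : |q.H ξ L| ≤ 3 * K * r := by
    rw [hξ]
    simp only [map_add, map_smul, LinearMap.add_apply, LinearMap.smul_apply, smul_eq_mul]
    have k1 := abs_mul_le' T.hxA hA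
    have k2 := abs_mul_le' T.hxB hB
    have k3 := abs_mul_le' T.hxY (show |q.H eY L| ≤ K by rw [q.symm]; exact hΔY)
    refine (abs_add3 _ _ _).trans ?_
    linarith
  have h2 : |μ| ≤ 12 * K * r := by
    rw [hμ, abs_neg, abs_div, abs_mul, abs_two,
      abs_of_pos (by linarith [T.g0'] : 0 < q.G (x + ξ) eY), div_le_iff₀ (by linarith [T.g0'])]
    have : 0 ≤ K * r := mul_nonneg (by linarith) T.r0
    nlinarith [T.g0']
  have h3 : |q.H (τ + (D + y • eY)) eY| ≤ 6 * K := by
    rw [hD]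
    simp only [map_add, map_smul, LinearMap.add_apply, LinearMap.smul_apply, smul_eq_mul]
    have k1 := abs_mul_le' T.hdA F.HAY
    have k2 := abs_mul_le' T.hdB F.HBY
    have k3 := abs_mul_le' T.hy F.HYY
    have k4 := F.HτY
    refine (abs_add_le _ _).trans ?_
    refine (add_le_add_right (abs_add3 _ _ _) _).trans ?_
    linarith
  have h4 : |y * q.H eY L| ≤ (4 * a + 72 * K * r) * K :=
    abs_mul_le' hy (by rw [q.symm]; exact hΔY)
  have h5 : |μ * q.H (τ + (D + y • eY)) eY| ≤ 12 * K * r * (6 * K) := abs_mul_le' h2 h3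
  have ha0 := T.a0
  have hr0 := T.r0
  refine (abs_add_le _ _).trans ((add_le_add h4 h5).trans ?_)
  have k1 : K * a ≤ K ^ 2 * a := by nlinarith [mul_nonneg (mul_nonneg (by linarith : 0 ≤ K) ha0) (by linarith : 0 ≤ K - 1)]
  have k2 : 0 ≤ K ^ 2 * a := by positivity
  nlinarith

end abstract

/-! ### planar algebra -/

/-- **dichotomy** (frame `(e, n)` with `β = b n`) -/
theorem dich {b b0 hee hen hnn d d' be' bn' ω κ K : ℝ} (hb0 : 0 < b0) (hK : 1 ≤ K)
    (hF : |2 * b * d' + hee * d ^ 2 + 2 * hen * d * d' + hnn * d' ^ 2| ≤ ω)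
    (hee' : |hee| ≤ κ) (hen' : |hen| ≤ K) (hnn' : |hnn| ≤ K) (hd : |d| ≤ 3) (hd' : |d'| ≤ 3)
    (hbe : |be' - (hee * d + hen * d')| ≤ ω) (hbn : |bn' - (b + hen * d + hnn * d')| ≤ ω)
    (hb' : b0 ≤ |be'| + |bn'|) (hsm : 12 * (ω + 9 * κ) ≤ b0) :
    |d'| ≤ 2 * (ω + 9 * κ) / b0 ∨
      |2 * b + 2 * hen * d + hnn * d'| ≤ 3 * K * (ω + 9 * κ) / b0 := by
  set m := 2 * b + 2 * hen * d + hnn * d' with hm
  have hω : 0 ≤ ω := (abs_nonneg _).trans hF
  have hκ : 0 ≤ κ := (abs_nonneg _).trans hee'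
  have hprod : |d'| * |m| ≤ ω + 9 * κ := by
    rw [← abs_mul]
    have e : d' * m = (2 * b * d' + hee * d ^ 2 + 2 * hen * d * d' + hnn * d' ^ 2) -
        hee * d ^ 2 := by rw [hm]; ring
    rw [e]
    have : |hee * d ^ 2| ≤ κ * 9 := by
      rw [abs_mul]
      refine mul_le_mul hee' ?_ (abs_nonneg _) hκ
      rw [abs_of_nonneg (sq_nonneg d), ← sq_abs]
      nlinarith [abs_nonneg d]
    refine (abs_sub _ _).trans ?_
    linarith
  have h1 : |bn'| ≤ |m| / 2 + K * |d'| / 2 + ω := by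
    have e : bn' = (bn' - (b + hen * d + hnn * d')) + (m / 2 + hnn * d' / 2) := by rw [hm]; ring
    rw [e]
    have k1 : |hnn * d'| ≤ K * |d'| := by rw [abs_mul]; gcongr
    refine (abs_add_le _ _).trans ?_
    refine (add_le_add hbn (abs_add_le _ _)).trans ?_
    rw [abs_div, abs_div, abs_two]
    linarith
  have h2 : |be'| ≤ 3 * κ + K * |d'| + ω := by
    have e : be' = (be' - (hee * d + hen * d')) + (hee * d + hen * d') := by ring
    rw [e]
    have k1 : |hen * d'| ≤ K * |d'| := by rw [abs_mul]; gcongr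
    have k2 : |hee * d| ≤ κ * 3 := abs_mul_le' hee' hd
    refine (abs_add_le _ _).trans ?_
    refine (add_le_add hbe (abs_add_le _ _)).trans ?_
    linarith
  by_cases hc : b0 / 2 ≤ |m|
  · left
    rw [le_div_iff₀ hb0]
    nlinarith [abs_nonneg d']
  · right
    push Not at hc
    rw [le_div_iff₀ hb0]
    have h3 : b0 ≤ 3 * K * |d'| := by nlinarith [abs_nonneg d']
    nlinarith [abs_nonneg m, abs_nonneg d']

/-- two lines of the second component see each other flat -/
theorem comp_two {b hee hen hnn d1 d1' d2 d2' be' bn' ω κ K M : ℝ} (hK : 1 ≤ K)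
    (hee' : |hee| ≤ κ) (hd1 : |d1| ≤ 3) (hd1' : |d1'| ≤ 3) (hd2 : |d2| ≤ 3) (hd2' : |d2'| ≤ 3)
    (hbe : |be' - (hee * d1 + hen * d1')| ≤ ω) (hbn : |bn' - (b + hen * d1 + hnn * d1')| ≤ ω)
    (hm1 : |2 * b + 2 * hen * d1 + hnn * d1'| ≤ M)
    (hm2 : |2 * b + 2 * hen * d2 + hnn * d2'| ≤ M) :
    |be' * (d2 - d1) + bn' * (d2' - d1')| ≤ 6 * M + 18 * κ + 12 * ω := by
  set m1 := 2 * b + 2 * hen * d1 + hnn * d1' with hm1e
  set m2 := 2 * b + 2 * hen * d2 + hnn * d2' with hm2e
  set ε1 := bn' - (b + hen * d1 + hnn * d1') with hε1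
  set ε2 := be' - (hee * d1 + hen * d1') with hε2
  have hω : 0 ≤ ω := (abs_nonneg _).trans hbe
  have hκ : 0 ≤ κ := (abs_nonneg _).trans hee'
  have hM : 0 ≤ M := (abs_nonneg _).trans hm1
  have e : be' * (d2 - d1) + bn' * (d2' - d1') = m1 / 2 * (d2' - d1') + d1' / 2 * (m2 - m1) +
      hee * (d1 * (d2 - d1)) + (ε1 * (d2' - d1') + ε2 * (d2 - d1)) := by
    rw [hε1, hε2, hm1e, hm2e]; ring
  have s1 : |d2 - d1| ≤ 6 := (abs_sub _ _).trans (by linarith)
  have s2 : |d2' - d1'| ≤ 6 := (abs_sub _ _).trans (by linarith)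
  have s3 : |m2 - m1| ≤ 2 * M := (abs_sub _ _).trans (by linarith)
  have t1 : |m1 / 2 * (d2' - d1')| ≤ M / 2 * 6 := abs_mul_le' (by
    rw [abs_div, abs_two]; linarith) s2
  have t2 : |d1' / 2 * (m2 - m1)| ≤ 3 / 2 * (2 * M) := abs_mul_le' (by
    rw [abs_div, abs_two]; linarith) s3
  have t3 : |hee * (d1 * (d2 - d1))| ≤ κ * (3 * 6) := abs_mul_le' hee' (abs_mul_le' hd1 s1)
  have t4 : |ε1 * (d2' - d1')| ≤ ω * 6 := abs_mul_le' hbn s2
  have t5 : |ε2 * (d2 - d1)| ≤ ω * 6 := abs_mul_le' hbe s1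
  rw [e]
  refine (abs_add_le _ _).trans ?_
  refine (add_le_add (abs_add3 _ _ _) (abs_add_le _ _)).trans ?_
  linarith

end Crest.Agent.R136.Nd214
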