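import Mathlib
import Crest.Agent.R136.Arc1_880

/-!
# R136: nearly degenerate conics, linear strips (helper880)

Algebra of the non-degeneracy of near-maximal sheets.  `f` = symmetric form on `ℝ³` seen on the
points `(1, x, y)`; `bu f x y`, `bv f x y` = the functional `f((1,x,y), (0,·,·))`.

* `pair_lin`   : two points of the conic with large functionals and small mutual value
  `d = f(p, p' - p)`: `|d| ≤ (8 κ + 52 e) / b0²`, `κ ≥ |det f|`.
* `conic_three`: among three points with large functionals two are related in this way.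
* `two_strips` : the cone `|h| ≤ ε` of a binary quadratic form lies in two strips.
* `pairs3`     : counting of related pairs.
-/

set_option autoImplicit false
set_option linter.unusedVariables false

open Finset

namespace Crest.Agent.R136.Nd880

open Crest.Agent.R136.Arc880

/-- the functional of the point `(1, x, y)`, first component -/
def bu (f : Fin 3 → Fin 3 → ℝ) (x y : ℝ) : ℝ := f 0 1 + f 1 1 * x + f 1 2 * y

/-- the functional of the point `(1, x, y)`, second component -/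
def bv (f : Fin 3 → Fin 3 → ℝ) (x y : ℝ) : ℝ := f 0 2 + f 1 2 * x + f 2 2 * y

theorem bu_le {f : Fin 3 → Fin 3 → ℝ} (hf : ∀ i j, |f i j| ≤ 1) {x y : ℝ} (hx : |x| ≤ 1)
    (hy : |y| ≤ 1) : |bu f x y| ≤ 3 := by
  unfold bu
  have := abs_add2 (abs_add2 (hf 0 1) (abs_mul_le (hf 1 1) hx)) (abs_mul_le (hf 1 2) hy)
  linarith

theorem bv_le {f : Fin 3 → Fin 3 → ℝ} (hf : ∀ i j, |f i j| ≤ 1) {x y : ℝ} (hx : |x| ≤ 1)
    (hy : |y| ≤ 1) : |bv f x y| ≤ 3 := by
  unfold bv
  have := abs_add2 (abs_add2 (hf 0 2) (abs_mul_le (hf 1 2) hx)) (abs_mul_le (hf 2 2) hy)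
  linarith

/-- polar form through the functional -/
theorem pol_bu (f : Fin 3 → Fin 3 → ℝ) (x y x' y' : ℝ) :
    pol f x y x' y' = qf f x y + (bu f x y * (x' - x) + bv f x y * (y' - y)) := by
  unfold pol qf bu bv; ring

/-- pure arithmetic of `pair_lin` -/
theorem pair_arith {n2 s d hee heb hbb B E N2 κ e b0 Δ : ℝ} (hb0 : 0 < b0) (hn : b0 ^ 2 ≤ n2)
    (hn18 : n2 ≤ 18) (hN : b0 ^ 2 ≤ N2) (hκ : 0 ≤ κ) (he : 0 ≤ e) (hee' : |hee| ≤ κ + 2 * e)
    (heb' : |heb| ≤ 2 * n2) (hbb' : |hbb| ≤ 2 * n2) (hs : |s| ≤ 12) (hs2 : s ^ 2 ≤ 8 * n2)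
    (hB : n2 * B = n2 ^ 2 + s * heb + d * hbb) (hE : n2 * E = s * hee + d * heb)
    (hsq : N2 * n2 = B ^ 2 + E ^ 2) (hΔ : |Δ| ≤ 2 * e)
    (hF : n2 ^ 2 * Δ = 2 * n2 ^ 2 * d + s ^ 2 * hee + 2 * s * d * heb + d ^ 2 * hbb)
    (hsm : 96 * (κ + 2 * e) ≤ b0 ^ 4) (hd : |d| ≤ b0 ^ 2 / 16) :
    |d| ≤ (8 * κ + 52 * e) / b0 ^ 2 := by
  have hb2 : 0 < b0 ^ 2 := by positivity
  have hn0 : 0 < n2 := lt_of_lt_of_le hb2 hn
  have hd0 := abs_nonneg d
  -- bound of E
  have E1 : n2 * |E| ≤ 12 * (κ + 2 * e) + |d| * (2 * n2) := by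
    have h1 : n2 * |E| = |n2 * E| := by rw [abs_mul, abs_of_pos hn0]
    rw [h1, hE]
    exact abs_add2 (abs_mul_le hs hee') (abs_mul_le le_rfl heb')
  have E2 : 12 * (κ + 2 * e) ≤ n2 * (b0 ^ 2 / 8) := by
    have h1 : b0 ^ 2 * (b0 ^ 2 / 8) ≤ n2 * (b0 ^ 2 / 8) :=
      mul_le_mul_of_nonneg_right hn (by positivity)
    nlinarith only [hsm, h1]
  have E3 : |E| ≤ b0 ^ 2 / 4 := by
    have h1 : |d| * (2 * n2) ≤ b0 ^ 2 / 16 * (2 * n2) :=
      mul_le_mul_of_nonneg_right hd (by positivity)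
    have h2 : n2 * |E| ≤ n2 * (b0 ^ 2 / 4) := by linarith only [E1, E2, h1]
    exact le_of_mul_le_mul_left h2 hn0
  have E4 : E ^ 2 ≤ b0 ^ 4 / 16 := by
    have h1 := pow_le_pow_left₀ (abs_nonneg E) E3 2
    rw [sq_abs] at h1
    nlinarith only [h1]
  have B1 : 15 / 16 * b0 ^ 4 ≤ B ^ 2 := by
    have h1 : b0 ^ 2 * b0 ^ 2 ≤ N2 * n2 := mul_le_mul hN hn hb2.le (hb2.le.trans hN)
    nlinarith only [h1, hsq, E4]
  have B2 : 3 / 4 * b0 ^ 2 ≤ |B| := by
    by_contra hcon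
    push Not at hcon
    have h1 := pow_lt_pow_left₀ hcon (abs_nonneg B) (n := 2) (by norm_num)
    rw [sq_abs] at h1
    have h2 : 0 < b0 ^ 4 := by positivity
    nlinarith only [h1, B1, h2]
  -- the bracket
  have hk : d * (2 * (n2 * B) - d * hbb) = n2 ^ 2 * Δ - s ^ 2 * hee := by
    rw [hB]; linear_combination (-1) * hF
  have K1 : n2 * b0 ^ 2 ≤ |2 * (n2 * B) - d * hbb| := by
    have h1 : |2 * (n2 * B)| - |d * hbb| ≤ |2 * (n2 * B) - d * hbb| := abs_sub_abs_le_abs_sub _ _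
    have h2 : |d * hbb| ≤ b0 ^ 2 / 16 * (2 * n2) := abs_mul_le hd hbb'
    have h3 : |2 * (n2 * B)| = 2 * (n2 * |B|) := by
      rw [abs_mul, abs_mul, abs_of_pos hn0, abs_two]
    have h4 : n2 * (3 / 4 * b0 ^ 2) ≤ n2 * |B| := mul_le_mul_of_nonneg_left B2 hn0.le
    have h5 : 0 ≤ n2 * b0 ^ 2 := by positivity
    rw [h3] at h1
    linarith only [h1, h2, h4, h5]
  have K2 : |n2 ^ 2 * Δ - s ^ 2 * hee| ≤ n2 * (8 * κ + 52 * e) := by
    have h1 : |n2 ^ 2 * Δ| ≤ n2 ^ 2 * (2 * e) := by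
      rw [abs_mul, abs_of_nonneg (sq_nonneg n2)]
      exact mul_le_mul_of_nonneg_left hΔ (sq_nonneg _)
    have h2 : |s ^ 2 * hee| ≤ 8 * n2 * (κ + 2 * e) := by
      refine abs_mul_le ?_ hee'
      rw [abs_of_nonneg (sq_nonneg s)]; exact hs2
    have h3 : n2 ^ 2 * (2 * e) ≤ n2 * 18 * (2 * e) := by
      rw [sq]
      exact mul_le_mul_of_nonneg_right (mul_le_mul_of_nonneg_left hn18 hn0.le) (by positivity)
    have := abs_sub2 h1 h2
    linarith only [this, h3]
  have K3 : |d| * (n2 * b0 ^ 2) ≤ n2 * (8 * κ + 52 * e) := by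
    refine le_trans ?_ K2
    rw [← hk, abs_mul]
    exact mul_le_mul_of_nonneg_left K1 hd0
  rw [le_div_iff₀ hb2]
  have : n2 * (|d| * b0 ^ 2) ≤ n2 * (8 * κ + 52 * e) := by linarith only [K3]
  exact le_of_mul_le_mul_left this hn0

/-- **linear strip**: two points of a nearly degenerate conic with large functionals which are
roughly on one line of it are so up to `O(κ + e)`. -/
theorem pair_lin {f : Fin 3 → Fin 3 → ℝ} (hf : ∀ i j, |f i j| ≤ 1) {κ e b0 : ℝ}
    (hκ : |det3 f| ≤ κ) (hb0 : 0 < b0) {x y x' y' : ℝ} (hx : |x| ≤ 1) (hy : |y| ≤ 1)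
    (hx' : |x'| ≤ 1) (hy' : |y'| ≤ 1) (h1 : |qf f x y| ≤ e) (h2 : |qf f x' y'| ≤ e)
    (hb : b0 ^ 2 ≤ bu f x y ^ 2 + bv f x y ^ 2) (hb' : b0 ^ 2 ≤ bu f x' y' ^ 2 + bv f x' y' ^ 2)
    (hsm : 96 * (κ + 2 * e) ≤ b0 ^ 4)
    (hd : |bu f x y * (x' - x) + bv f x y * (y' - y)| ≤ b0 ^ 2 / 16) :
    |bu f x y * (x' - x) + bv f x y * (y' - y)| ≤ (8 * κ + 52 * e) / b0 ^ 2 := by
  have he : 0 ≤ e := (abs_nonneg _).trans h1
  have hκ0 : 0 ≤ κ := (abs_nonneg _).trans hκ
  have hb1 := bu_le hf hx hy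
  have hb2 := bv_le hf hx hy
  have u2 : |x' - x| ≤ 2 := (abs_sub2 hx' hx).trans (by norm_num)
  have v2 : |y' - y| ≤ 2 := (abs_sub2 hy' hy).trans (by norm_num)
  have hdet : det3 f = qf f x y * (f 1 1 * f 2 2 - f 1 2 ^ 2) -
      (f 1 1 * bv f x y ^ 2 - 2 * f 1 2 * (bu f x y * bv f x y) + f 2 2 * bu f x y ^ 2) := by
    unfold det3 qf bu bv; ring
  have hB' : bu f x' y' = bu f x y + (f 1 1 * (x' - x) + f 1 2 * (y' - y)) := by unfold bu; ring
  have hV' : bv f x' y' = bv f x y + (f 1 2 * (x' - x) + f 2 2 * (y' - y)) := by unfold bv; ring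
  have hq' : qf f x' y' - qf f x y = 2 * (bu f x y * (x' - x) + bv f x y * (y' - y)) +
      (f 1 1 * (x' - x) ^ 2 + 2 * f 1 2 * ((x' - x) * (y' - y)) + f 2 2 * (y' - y) ^ 2) := by
    unfold qf bu bv; ring
  rw [hB', hV'] at hb'
  generalize bu f x y = p at *
  generalize bv f x y = r at *
  generalize x' - x = u at *
  generalize y' - y = v at *
  have hpp : p ^ 2 ≤ 9 := by
    have := pow_le_pow_left₀ (abs_nonneg p) hb1 2
    rw [sq_abs] at this; linarith only [this]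
  have hrr : r ^ 2 ≤ 9 := by
    have := pow_le_pow_left₀ (abs_nonneg r) hb2 2
    rw [sq_abs] at this; linarith only [this]
  have huu : u ^ 2 ≤ 4 := by
    have := pow_le_pow_left₀ (abs_nonneg u) u2 2
    rw [sq_abs] at this; linarith only [this]
  have hvv : v ^ 2 ≤ 4 := by
    have := pow_le_pow_left₀ (abs_nonneg v) v2 2
    rw [sq_abs] at this; linarith only [this]
  have hpr : |p * r| ≤ (p ^ 2 + r ^ 2) / 2 := by
    rw [abs_le]; constructor <;> nlinarith only [sq_nonneg (p + r), sq_nonneg (p - r)]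
  have hf11 := hf 1 1
  have hf12 := hf 1 2
  have hf22 := hf 2 2
  generalize f 1 1 = a at *
  generalize f 1 2 = c at *
  generalize f 2 2 = g at *
  have hdh : |a * g - c ^ 2| ≤ 2 := by
    have h3 : |c ^ 2| ≤ 1 := by rw [abs_pow]; exact pow_le_one₀ (abs_nonneg _) hf12
    have := abs_sub2 (abs_mul_le hf11 hf22) h3
    linarith only [this]
  have p2 : |p ^ 2| = p ^ 2 := abs_of_nonneg (sq_nonneg p)
  have r2 : |r ^ 2| = r ^ 2 := abs_of_nonneg (sq_nonneg r)
  refine pair_arith (n2 := p ^ 2 + r ^ 2) (s := -r * u + p * v)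
    (hee := a * r ^ 2 - 2 * c * (p * r) + g * p ^ 2)
    (heb := (g - a) * (p * r) + c * (p ^ 2 - r ^ 2))
    (hbb := a * p ^ 2 + 2 * c * (p * r) + g * r ^ 2)
    (B := p * (p + (a * u + c * v)) + r * (r + (c * u + g * v)))
    (E := -r * (p + (a * u + c * v)) + p * (r + (c * u + g * v)))
    (N2 := (p + (a * u + c * v)) ^ 2 + (r + (c * u + g * v)) ^ 2) (Δ := qf f x' y' - qf f x y)
    hb0 hb (by linarith) hb' hκ0 he ?_ ?_ ?_ ?_ ?_ ?_ ?_ ?_ ?_ ?_ hsm hd
  · -- hee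
    have h3 : a * r ^ 2 - 2 * c * (p * r) + g * p ^ 2 = qf f x y * (a * g - c ^ 2) - det3 f := by
      rw [hdet]; ring
    rw [h3]
    have := abs_sub2 (abs_mul_le h1 hdh) hκ
    linarith only [this]
  · -- heb
    have h3 : |g - a| ≤ 1 + 1 := abs_sub2 hf22 hf11
    have h4 : |p ^ 2 - r ^ 2| ≤ p ^ 2 + r ^ 2 := by
      rw [abs_le]; constructor <;> nlinarith only [sq_nonneg p, sq_nonneg r]
    have := abs_add2 (abs_mul_le h3 hpr) (abs_mul_le hf12 h4)
    linarith only [this]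
  · -- hbb
    have h3 : |2 * c| ≤ 2 * 1 := abs_mul_le (by norm_num) hf12
    have := abs_add2 (abs_add2 (abs_mul_le hf11 p2.le) (abs_mul_le h3 hpr)) (abs_mul_le hf22 r2.le)
    linarith only [this]
  · -- s
    have h3 : |-r * u| ≤ 3 * 2 := abs_mul_le (by rwa [abs_neg]) u2
    have := abs_add2 h3 (abs_mul_le hb1 v2)
    linarith only [this]
  · -- s²
    nlinarith only [sq_nonneg (p * u + r * v), huu, hvv, sq_nonneg p, sq_nonneg r,
      mul_nonneg (add_nonneg (sq_nonneg p) (sq_nonneg r))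
        (by linarith only [huu, hvv] : (0:ℝ) ≤ 8 - u ^ 2 - v ^ 2)]
  · ring
  · ring
  · ring
  · have := abs_sub2 h2 h1
    linarith only [this]
  · rw [hq']; ring

/-- **among three points of a nearly degenerate conic with large functionals, two lie on one of its
lines up to `O(κ + e)`.** -/
theorem conic_three {f : Fin 3 → Fin 3 → ℝ} (hf : ∀ i j, |f i j| ≤ 1) {κ e b0 : ℝ}
    (hκ : |det3 f| ≤ κ) (hb0 : 0 < b0) (hb1 : b0 ≤ 1) {x y : Fin 3 → ℝ} (hx : ∀ i, |x i| ≤ 1)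
    (hy : ∀ i, |y i| ≤ 1) (h : ∀ i, |qf f (x i) (y i)| ≤ e)
    (hb : ∀ i, b0 ^ 2 ≤ bu f (x i) (y i) ^ 2 + bv f (x i) (y i) ^ 2)
    (hsm : 4000000 * (κ + e) ≤ b0 ^ 6) :
    ∃ i j, i ≠ j ∧
      |bu f (x i) (y i) * (x j - x i) + bv f (x i) (y i) * (y j - y i)| ≤
        (8 * κ + 52 * e) / b0 ^ 2 ∧
      |bu f (x j) (y j) * (x i - x j) + bv f (x j) (y j) * (y i - y j)| ≤
        (8 * κ + 52 * e) / b0 ^ 2 := by
  have he : 0 ≤ e := (abs_nonneg _).trans (h 0)
  have hκ0 : 0 ≤ κ := (abs_nonneg _).trans hκ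
  have hb2 : 0 < b0 ^ 2 := by positivity
  have h64 : b0 ^ 6 ≤ b0 ^ 4 := pow_le_pow_of_le_one hb0.le hb1 (by norm_num)
  have h62 : b0 ^ 6 ≤ b0 ^ 2 := pow_le_pow_of_le_one hb0.le hb1 (by norm_num)
  have h60 : b0 ^ 6 ≤ 1 := pow_le_one₀ hb0.le hb1
  have he1 : e ≤ 1 := by linarith only [hsm, h60, hκ0, he]
  -- a small polar value
  obtain ⟨i, j, hij, hm⟩ : ∃ i j : Fin 3, i ≠ j ∧ |pol f (x i) (y i) (x j) (y j)| ≤ b0 ^ 2 / 32 := by
    by_contra hcon
    push Not at hcon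
    have m01 := hcon 0 1 (by decide)
    have m02 := hcon 0 2 (by decide)
    have m12 := hcon 1 2 (by decide)
    have hg := gram f (x 0) (y 0) (x 1) (y 1) (x 2) (y 2)
    have hA := ar_le (hx 0) (hy 0) (hx 1) (hy 1) (hx 2) (hy 2)
    have M01 := Arc880.pol_le hf (hx 0) (hy 0) (hx 1) (hy 1)
    have M02 := Arc880.pol_le hf (hx 0) (hy 0) (hx 2) (hy 2)
    have M12 := Arc880.pol_le hf (hx 1) (hy 1) (hx 2) (hy 2)
    have h0 := h 0
    have h1 := h 1
    have h2 := h 2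
    generalize ar (x 0) (y 0) (x 1) (y 1) (x 2) (y 2) = A at *
    generalize pol f (x 0) (y 0) (x 1) (y 1) = a at *
    generalize pol f (x 0) (y 0) (x 2) (y 2) = b at *
    generalize pol f (x 1) (y 1) (x 2) (y 2) = c at *
    generalize qf f (x 0) (y 0) = q0 at *
    generalize qf f (x 1) (y 1) = q1 at *
    generalize qf f (x 2) (y 2) = q2 at *
    have sq81 : ∀ {r : ℝ}, |r| ≤ 9 → |r ^ 2| ≤ 81 := by
      intro r hr
      rw [abs_pow]
      have := pow_le_pow_left₀ (abs_nonneg r) hr 2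
      linarith only [this]
    have hA2 : |A ^ 2| ≤ 64 := by
      rw [abs_pow]
      have := pow_le_pow_left₀ (abs_nonneg A) hA 2
      linarith only [this]
    have hid : 2 * a * b * c = A ^ 2 * det3 f - q0 * q1 * q2 + q0 * c ^ 2 + q1 * b ^ 2 +
        q2 * a ^ 2 := by rw [hg]; ring
    have e1 : |2 * a * b * c| ≤ 64 * κ + 244 * e := by
      rw [hid]
      have t1 := abs_mul_le hA2 hκ
      have t2 : |q0 * q1 * q2| ≤ 1 * 1 * e :=
        abs_mul_le (abs_mul_le (h0.trans he1) (h1.trans he1)) h2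
      have := abs_add2 (abs_add2 (abs_add2 (abs_sub2 t1 t2) (abs_mul_le h0 (sq81 M12)))
        (abs_mul_le h1 (sq81 M02))) (abs_mul_le h2 (sq81 M01))
      linarith only [this]
    have hθ : 0 ≤ b0 ^ 2 / 32 := by positivity
    have e2 : 2 * (b0 ^ 2 / 32 * (b0 ^ 2 / 32) * (b0 ^ 2 / 32)) ≤ |2 * a * b * c| := by
      rw [abs_mul, abs_mul, abs_mul, abs_two]
      have i1 : b0 ^ 2 / 32 * (b0 ^ 2 / 32) ≤ |a| * |b| :=
        mul_le_mul m01.le m02.le hθ (abs_nonneg _)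
      have i2 : b0 ^ 2 / 32 * (b0 ^ 2 / 32) * (b0 ^ 2 / 32) ≤ |a| * |b| * |c| :=
        mul_le_mul i1 m12.le hθ (by positivity)
      have i4 : 2 * |a| * |b| * |c| = 2 * (|a| * |b| * |c|) := by ring
      rw [i4]
      exact mul_le_mul_of_nonneg_left i2 (by norm_num)
    have e3 : 2 * (b0 ^ 2 / 32 * (b0 ^ 2 / 32) * (b0 ^ 2 / 32)) = b0 ^ 6 / 16384 := by ring
    have hpos : 0 < b0 ^ 6 := by positivity
    rw [e3] at e2
    linarith only [e1, e2, hsm, hpos, hκ0, he]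
  have hsm' : 96 * (κ + 2 * e) ≤ b0 ^ 4 := by linarith only [hsm, h64, hκ0, he]
  have heb : e ≤ b0 ^ 2 / 32 := by linarith only [hsm, h62, hκ0, he]
  refine ⟨i, j, hij, ?_, ?_⟩
  · refine pair_lin hf hκ hb0 (hx i) (hy i) (hx j) (hy j) (h i) (h j) (hb i) (hb j) hsm' ?_
    have h3 : bu f (x i) (y i) * (x j - x i) + bv f (x i) (y i) * (y j - y i) =
        pol f (x i) (y i) (x j) (y j) - qf f (x i) (y i) := by rw [pol_bu]; ring
    rw [h3]
    have := abs_sub2 hm (h i)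
    linarith only [this, heb]
  · refine pair_lin hf hκ hb0 (hx j) (hy j) (hx i) (hy i) (h j) (h i) (hb j) (hb i) hsm' ?_
    have h3 : bu f (x j) (y j) * (x i - x j) + bv f (x j) (y j) * (y i - y j) =
        pol f (x i) (y i) (x j) (y j) - qf f (x j) (y j) := by
      unfold pol qf bu bv; ring
    rw [h3]
    have := abs_sub2 hm (h j)
    linarith only [this, heb]

/-! ### binary forms -/

/-- the binary form `h = (a, 2c, g)` -/
def hq (a c g u v : ℝ) : ℝ := a * u ^ 2 + 2 * c * (u * v) + g * v ^ 2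

/-- **the cone of a binary form lies in two strips**: `n₁, n₂` two linear forms of size `≥ m/2`, one
of them is at most the square root of `4 |h|`. -/
theorem two_strips {a c g m : ℝ} (ha : |a| ≤ 1) (hc : |c| ≤ 1) (hg : |g| ≤ 1)
    (h : m ≤ |a| ∨ m ≤ |c| ∨ m ≤ |g|) (hm : 0 ≤ m) :
    ∃ n₁ n₂ : ℝ × ℝ, (m / 2 ≤ |n₁.1| + |n₁.2|) ∧ (m / 2 ≤ |n₂.1| + |n₂.2|) ∧
      (|n₁.1| ≤ 4 ∧ |n₁.2| ≤ 4) ∧ (|n₂.1| ≤ 4 ∧ |n₂.2| ≤ 4) ∧
      ∀ u v : ℝ, (n₁.1 * u + n₁.2 * v) ^ 2 ≤ 4 * |hq a c g u v| ∨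
        (n₂.1 * u + n₂.2 * v) ^ 2 ≤ 4 * |hq a c g u v| := by
  -- a vector of `{0,1}²` on which the form is not small
  obtain ⟨p, r, hp, hr, hK⟩ : ∃ p r : ℝ, (p = 0 ∨ p = 1) ∧ (r = 0 ∨ r = 1) ∧
      m / 2 ≤ |hq a c g p r| := by
    by_cases h1 : m / 2 ≤ |a|
    · exact ⟨1, 0, Or.inr rfl, Or.inl rfl, by simpa [hq] using h1⟩
    by_cases h2 : m / 2 ≤ |g|
    · exact ⟨0, 1, Or.inl rfl, Or.inr rfl, by simpa [hq] using h2⟩
    push Not at h1 h2
    refine ⟨1, 1, Or.inr rfl, Or.inr rfl, ?_⟩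
    have h3 : m ≤ |c| := by
      rcases h with h | h | h
      · linarith
      · exact h
      · linarith
    have h4 : hq a c g 1 1 = 2 * c + (a + g) := by unfold hq; ring
    rw [h4]
    have h5 : |2 * c| - |-(a + g)| ≤ |2 * c - -(a + g)| := abs_sub_abs_le_abs_sub _ _
    rw [sub_neg_eq_add, abs_neg, abs_mul, abs_two] at h5
    have h6 := abs_add_le a g
    linarith
  have hp1 : |p| ≤ 1 := by rcases hp with rfl | rfl <;> simp
  have hr1 : |r| ≤ 1 := by rcases hr with rfl | rfl <;> simp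
  have hK4 : |hq a c g p r| ≤ 4 := by
    unfold hq
    have e1 : |p ^ 2| ≤ 1 := by rw [abs_pow]; exact pow_le_one₀ (abs_nonneg _) hp1
    have e2 : |r ^ 2| ≤ 1 := by rw [abs_pow]; exact pow_le_one₀ (abs_nonneg _) hr1
    have e3 : |2 * c * (p * r)| ≤ 2 * 1 * (1 * 1) :=
      abs_mul_le (abs_mul_le (by norm_num) hc) (abs_mul_le hp1 hr1)
    have := abs_add2 (abs_add2 (abs_mul_le ha e1) e3) (abs_mul_le hg e2)
    linarith only [this]
  -- the identity
  have hid : ∀ u v : ℝ, hq a c g p r * hq a c g u v =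
      ((a * p + c * r) * u + (c * p + g * r) * v) ^ 2 - (c ^ 2 - a * g) * (p * v - r * u) ^ 2 := by
    intro u v; unfold hq; ring
  have hl1 : |a * p + c * r| ≤ 2 := by
    have := abs_add2 (abs_mul_le ha hp1) (abs_mul_le hc hr1); linarith only [this]
  have hl2 : |c * p + g * r| ≤ 2 := by
    have := abs_add2 (abs_mul_le hc hp1) (abs_mul_le hg hr1); linarith only [this]
  -- a form whose value at `(p, r)` is `K` is not small
  have hbig : ∀ n : ℝ × ℝ, n.1 * p + n.2 * r = hq a c g p r → m / 2 ≤ |n.1| + |n.2| := by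
    intro n hn
    rw [← hn] at hK
    have := abs_add2 (abs_mul_le (le_refl |n.1|) hp1) (abs_mul_le (le_refl |n.2|) hr1)
    linarith only [this, hK]
  rcases le_total 0 (c ^ 2 - a * g) with hΔ | hΔ
  · set w : ℝ := Real.sqrt (c ^ 2 - a * g) with hw
    have hw2 : w ^ 2 = c ^ 2 - a * g := Real.sq_sqrt hΔ
    have hw0 : 0 ≤ w := Real.sqrt_nonneg _
    have hw1 : |w| ≤ 2 := by
      rw [abs_of_nonneg hw0]
      have e1 : c ^ 2 ≤ 1 := by
        have := pow_le_one₀ (abs_nonneg c) hc (n := 2); rwa [sq_abs] at this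
      have e2 : |a * g| ≤ 1 * 1 := abs_mul_le ha hg
      have e3 := neg_abs_le (a * g)
      nlinarith only [hw2, e1, e2, e3, hw0]
    refine ⟨(a * p + c * r + w * r, c * p + g * r - w * p),
      (a * p + c * r - w * r, c * p + g * r + w * p), hbig _ ?_, hbig _ ?_, ⟨?_, ?_⟩, ⟨?_, ?_⟩, ?_⟩
    · simp only; unfold hq; ring
    · simp only; unfold hq; ring
    · have := abs_add2 hl1 (abs_mul_le hw1 hr1); simp only; linarith only [this]
    · have := abs_sub2 hl2 (abs_mul_le hw1 hp1); simp only; linarith only [this]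
    · have := abs_sub2 hl1 (abs_mul_le hw1 hr1); simp only; linarith only [this]
    · have := abs_add2 hl2 (abs_mul_le hw1 hp1); simp only; linarith only [this]
    · intro u v
      simp only
      by_contra hcon
      push Not at hcon
      obtain ⟨c1, c2⟩ := hcon
      have h0 : 0 ≤ 4 * |hq a c g u v| := by positivity
      have h1 := mul_lt_mul'' c1 c2 h0 h0
      have h2 : ((a * p + c * r + w * r) * u + (c * p + g * r - w * p) * v) ^ 2 *
          ((a * p + c * r - w * r) * u + (c * p + g * r + w * p) * v) ^ 2 =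
          (hq a c g p r * hq a c g u v) ^ 2 := by
        rw [hid, ← hw2]; ring
      rw [h2, mul_pow, ← sq_abs (hq a c g p r), ← sq_abs (hq a c g u v)] at h1
      have h3 : |hq a c g p r| ^ 2 ≤ 4 ^ 2 := pow_le_pow_left₀ (abs_nonneg _) hK4 2
      have h4 := mul_le_mul_of_nonneg_right h3 (sq_nonneg |hq a c g u v|)
      linarith only [h1, h4]
  · refine ⟨(a * p + c * r, c * p + g * r), (a * p + c * r, c * p + g * r), hbig _ ?_, hbig _ ?_,
      ⟨?_, ?_⟩, ⟨?_, ?_⟩, ?_⟩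
    · simp only; unfold hq; ring
    · simp only; unfold hq; ring
    · simp only; linarith only [hl1]
    · simp only; linarith only [hl2]
    · simp only; linarith only [hl1]
    · simp only; linarith only [hl2]
    · intro u v
      left
      simp only
      have h1 := hid u v
      have h2 : hq a c g p r * hq a c g u v ≤ 4 * |hq a c g u v| := by
        refine (le_abs_self _).trans ?_
        rw [abs_mul]
        exact mul_le_mul_of_nonneg_right hK4 (abs_nonneg _)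
      have h3 : 0 ≤ -(c ^ 2 - a * g) * (p * v - r * u) ^ 2 :=
        mul_nonneg (by linarith only [hΔ]) (sq_nonneg _)
      linarith only [h1, h2, h3]

/-! ### counting -/

open Classical in
/-- **related pairs**: if among any three elements two are related, at least a quarter of the pairs
is related. -/
theorem pairs3 {ι : Type*} (A : Finset ι) (R : ι → ι → Prop) (hr : ∀ i ∈ A, R i i)
    (hs : ∀ i ∈ A, ∀ j ∈ A, R i j → R j i)
    (h3 : ∀ i ∈ A, ∀ j ∈ A, ∀ k ∈ A, i ≠ j → i ≠ k → j ≠ k → R i j ∨ R i k ∨ R j k) :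
    A.card ^ 2 ≤ 4 * ((A ×ˢ A).filter fun p => R p.1 p.2).card := by
  by_cases hc : ∃ i ∈ A, A.card ≤ 2 * (A.filter fun j => ¬ R i j).card
  · obtain ⟨i, hi, hci⟩ := hc
    have hsub : (A.filter fun j => ¬ R i j) ×ˢ (A.filter fun j => ¬ R i j) ⊆
        (A ×ˢ A).filter fun p => R p.1 p.2 := by
      rintro ⟨j, k⟩ hjk
      rw [mem_product, mem_filter, mem_filter] at hjk
      obtain ⟨⟨hj, hj'⟩, ⟨hk, hk'⟩⟩ := hjk
      rw [mem_filter, mem_product]
      refine ⟨⟨hj, hk⟩, ?_⟩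
      by_cases hjk : j = k
      · subst hjk; exact hr j hj
      · have n1 : i ≠ j := fun h => hj' (h ▸ hr i hi)
        have n2 : i ≠ k := fun h => hk' (h ▸ hr i hi)
        rcases h3 i hi j hj k hk n1 n2 hjk with h | h | h
        · exact absurd h hj'
        · exact absurd h hk'
        · exact h
    have h4 := card_le_card hsub
    rw [card_product] at h4
    have h5 : A.card ^ 2 ≤ (2 * (A.filter fun j => ¬ R i j).card) ^ 2 :=
      Nat.pow_le_pow_left hci 2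
    calc A.card ^ 2 ≤ (2 * (A.filter fun j => ¬ R i j).card) ^ 2 := h5
      _ = 4 * ((A.filter fun j => ¬ R i j).card * (A.filter fun j => ¬ R i j).card) := by ring
      _ ≤ _ := Nat.mul_le_mul_left 4 h4
  · push Not at hc
    have h5 : ((A ×ˢ A).filter fun p => R p.1 p.2).card =
        ∑ i ∈ A, (A.filter fun j => R i j).card := by
      rw [card_filter, sum_product]
      refine sum_congr rfl fun i hi => ?_
      rw [card_filter]
    have h6 : ∀ i ∈ A, A.card ≤ 2 * (A.filter fun j => R i j).card := by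
      intro i hi
      have h7 := hc i hi
      have h8 := card_filter_add_card_filter_not (s := A) (p := fun j => R i j)
      omega
    have h9 : ∑ i ∈ A, A.card ≤ ∑ i ∈ A, 2 * (A.filter fun j => R i j).card := sum_le_sum h6
    rw [sum_const, smul_eq_mul, ← mul_sum, ← h5] at h9
    calc A.card ^ 2 = A.card * A.card := by ring
      _ ≤ 2 * ((A ×ˢ A).filter fun p => R p.1 p.2).card := h9
      _ ≤ _ := by omega

end Crest.Agent.R136.Nd880
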