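import Mathlib
import Crest.Agent.R136.Nd2_214
import Crest.Agent.R136.Nd2_880

/-!
# R136: non-degeneracy of near-maximal sheets, algebra in the language of `QP` (helper880)

`q : QP E` one sheet, `fanQ q eA eB eY x τ` = symmetric form `(1, dA, dB) ↦ H(τ + D, τ + D)` at the
point `x` of the line with direction `τ` (`D = dA lift eA + dB lift eB`).

* `det_point`, `det_dir`, `det_move` : the determinant of `fanQ` (times `G(x, eY) ^ 2`) is the same at
  all points of the sheet and for all lines, up to `O(a)`.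
* `large_w` : among three lines of the sheet through one small cell with rotation `≥ b0` two see each
  other flat (`|det| ≤ κ`).
* `flat_e`  : `|sec(ê, ê)| ≤ 4 (κ + 2 K² a) / b0²` for `ê ⟂ bet`.
* `low_strip`, `small_w` : two lines with rotation `≤ b0` through one small cell.
-/

set_option autoImplicit false
set_option linter.unusedVariables false
set_option linter.unusedSectionVars false

namespace Crest.Agent.R136.Nd880

open Crest.Agent.R136.Arc880 Crest.Agent.R136.Tl214 Crest.Agent.R136.Nd214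

/-! ### determinants -/

/-- determinant of the symmetric matrix `((a,b,c),(b,d,e),(c,e,f))` -/
def D3 (a b c d e f : ℝ) : ℝ := a * d * f + 2 * b * e * c - a * e ^ 2 - b ^ 2 * f - c ^ 2 * d

theorem D3_var (a b c d e f k0 k1 k2 κ m0 m1 m2 : ℝ) :
    D3 (a + 2 * m0 * k0 + κ * m0 ^ 2) (b + m0 * k1 + m1 * k0 + κ * m0 * m1)
      (c + m0 * k2 + m2 * k0 + κ * m0 * m2) (d + 2 * m1 * k1 + κ * m1 ^ 2)
      (e + m1 * k2 + m2 * k1 + κ * m1 * m2) (f + 2 * m2 * k2 + κ * m2 ^ 2) =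
    D3 a b c d e f +
      2 * (m0 * ((d * f - e ^ 2) * k0 + (c * e - b * f) * k1 + (b * e - c * d) * k2) +
        m1 * ((c * e - b * f) * k0 + (a * f - c ^ 2) * k1 + (b * c - a * e) * k2) +
        m2 * ((b * e - c * d) * k0 + (b * c - a * e) * k1 + (a * d - b ^ 2) * k2)) +
      κ * (m0 * ((d * f - e ^ 2) * m0 + (c * e - b * f) * m1 + (b * e - c * d) * m2) +
        m1 * ((c * e - b * f) * m0 + (a * f - c ^ 2) * m1 + (b * c - a * e) * m2) +
        m2 * ((b * e - c * d) * m0 + (b * c - a * e) * m1 + (a * d - b ^ 2) * m2)) -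
      (a * (k1 * m2 - k2 * m1) ^ 2 + d * (k2 * m0 - k0 * m2) ^ 2 + f * (k0 * m1 - k1 * m0) ^ 2 +
        2 * b * (k1 * m2 - k2 * m1) * (k2 * m0 - k0 * m2) +
        2 * c * (k1 * m2 - k2 * m1) * (k0 * m1 - k1 * m0) +
        2 * e * (k2 * m0 - k0 * m2) * (k0 * m1 - k1 * m0)) := by
  unfold D3; ring

/-- determinant of the bordered matrix `((κ, k), (k, h))` -/
def D4 (a b c d e f k0 k1 k2 κ : ℝ) : ℝ :=
  κ * D3 a b c d e f -
    (k0 * ((d * f - e ^ 2) * k0 + (c * e - b * f) * k1 + (b * e - c * d) * k2) +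
      k1 * ((c * e - b * f) * k0 + (a * f - c ^ 2) * k1 + (b * c - a * e) * k2) +
      k2 * ((b * e - c * d) * k0 + (b * c - a * e) * k1 + (a * d - b ^ 2) * k2))

theorem D3_move {a b c d e f k0 k1 k2 κ t0 t1 t2 tY g g' m0 m1 m2 : ℝ}
    (hg' : g' = g + 2 * (k0 * t0 + k1 * t1 + k2 * t2 + κ * tY))
    (h0 : m0 * g' = -(2 * (a * t0 + b * t1 + c * t2 + tY * k0)))
    (h1 : m1 * g' = -(2 * (b * t0 + d * t1 + e * t2 + tY * k1)))
    (h2 : m2 * g' = -(2 * (c * t0 + e * t1 + f * t2 + tY * k2))) :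
    g' ^ 2 * D3 (a + 2 * m0 * k0 + κ * m0 ^ 2) (b + m0 * k1 + m1 * k0 + κ * m0 * m1)
      (c + m0 * k2 + m2 * k0 + κ * m0 * m2) (d + 2 * m1 * k1 + κ * m1 ^ 2)
      (e + m1 * k2 + m2 * k1 + κ * m1 * m2) (f + 2 * m2 * k2 + κ * m2 ^ 2) =
    g ^ 2 * D3 a b c d e f + 4 * D4 a b c d e f k0 k1 k2 κ *
      (g * tY + (a * t0 ^ 2 + d * t1 ^ 2 + f * t2 ^ 2 + 2 * b * t0 * t1 + 2 * c * t0 * t2 +
        2 * e * t1 * t2 + 2 * tY * (k0 * t0 + k1 * t1 + k2 * t2) + κ * tY ^ 2)) := by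
  rw [D3_var]
  have e1 : g' ^ 2 * (D3 a b c d e f +
      2 * (m0 * ((d * f - e ^ 2) * k0 + (c * e - b * f) * k1 + (b * e - c * d) * k2) +
        m1 * ((c * e - b * f) * k0 + (a * f - c ^ 2) * k1 + (b * c - a * e) * k2) +
        m2 * ((b * e - c * d) * k0 + (b * c - a * e) * k1 + (a * d - b ^ 2) * k2)) +
      κ * (m0 * ((d * f - e ^ 2) * m0 + (c * e - b * f) * m1 + (b * e - c * d) * m2) +
        m1 * ((c * e - b * f) * m0 + (a * f - c ^ 2) * m1 + (b * c - a * e) * m2) +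
        m2 * ((b * e - c * d) * m0 + (b * c - a * e) * m1 + (a * d - b ^ 2) * m2)) -
      (a * (k1 * m2 - k2 * m1) ^ 2 + d * (k2 * m0 - k0 * m2) ^ 2 + f * (k0 * m1 - k1 * m0) ^ 2 +
        2 * b * (k1 * m2 - k2 * m1) * (k2 * m0 - k0 * m2) +
        2 * c * (k1 * m2 - k2 * m1) * (k0 * m1 - k1 * m0) +
        2 * e * (k2 * m0 - k0 * m2) * (k0 * m1 - k1 * m0))) =
      g' ^ 2 * D3 a b c d e f +
      2 * g' * ((m0 * g') * ((d * f - e ^ 2) * k0 + (c * e - b * f) * k1 + (b * e - c * d) * k2) +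
        (m1 * g') * ((c * e - b * f) * k0 + (a * f - c ^ 2) * k1 + (b * c - a * e) * k2) +
        (m2 * g') * ((b * e - c * d) * k0 + (b * c - a * e) * k1 + (a * d - b ^ 2) * k2)) +
      κ * ((m0 * g') * ((d * f - e ^ 2) * (m0 * g') + (c * e - b * f) * (m1 * g') +
          (b * e - c * d) * (m2 * g')) +
        (m1 * g') * ((c * e - b * f) * (m0 * g') + (a * f - c ^ 2) * (m1 * g') +
          (b * c - a * e) * (m2 * g')) +
        (m2 * g') * ((b * e - c * d) * (m0 * g') + (b * c - a * e) * (m1 * g') +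
          (a * d - b ^ 2) * (m2 * g'))) -
      (a * (k1 * (m2 * g') - k2 * (m1 * g')) ^ 2 + d * (k2 * (m0 * g') - k0 * (m2 * g')) ^ 2 +
        f * (k0 * (m1 * g') - k1 * (m0 * g')) ^ 2 +
        2 * b * (k1 * (m2 * g') - k2 * (m1 * g')) * (k2 * (m0 * g') - k0 * (m2 * g')) +
        2 * c * (k1 * (m2 * g') - k2 * (m1 * g')) * (k0 * (m1 * g') - k1 * (m0 * g')) +
        2 * e * (k2 * (m0 * g') - k0 * (m2 * g')) * (k0 * (m1 * g') - k1 * (m0 * g'))) := by
    ring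
  rw [e1, h0, h1, h2, hg']
  unfold D4 D3
  ring

/-! ### the fan form -/

section abstract

variable {E : Type*} [AddCommGroup E] [Module ℝ E] {q : QP E} {eY eA eB : E}

/-- **the fan form** at the point `x` of the line with direction `τ` -/
noncomputable def fanQ (q : QP E) (eA eB eY x τ : E) : Fin 3 → Fin 3 → ℝ :=
  ![![q.H τ τ, bet q eY x τ eA, bet q eY x τ eB],
    ![bet q eY x τ eA, sec q eY x eA eA, sec q eY x eA eB],
    ![bet q eY x τ eB, sec q eY x eA eB, sec q eY x eB eB]]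

theorem det3_fanQ (x τ : E) : det3 (fanQ q eA eB eY x τ) =
    D3 (q.H τ τ) (bet q eY x τ eA) (bet q eY x τ eB) (sec q eY x eA eA) (sec q eY x eA eB)
      (sec q eY x eB eB) := by
  simp [det3, fanQ, D3]

/-- the determinant at the tangent lift of the direction -/
noncomputable def detL (q : QP E) (eA eB eY x τ : E) : ℝ :=
  D3 (q.H (lift q eY x τ) (lift q eY x τ)) (q.H (lift q eY x τ) (lift q eY x eA))
    (q.H (lift q eY x τ) (lift q eY x eB)) (sec q eY x eA eA) (sec q eY x eA eB)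
      (sec q eY x eB eB)

theorem lift_eY {x : E} (h : q.G x eY ≠ 0) : lift q eY x eY = 0 := by
  unfold lift; rw [div_self h, one_smul, sub_self]

theorem lift_lift {x : E} (h : q.G x eY ≠ 0) (z v : E) :
    lift q eY x (lift q eY z v) = lift q eY x v := by
  have e : lift q eY z v = v + (-(q.G z v / q.G z eY)) • eY := by
    unfold lift; rw [neg_smul, sub_eq_add_neg]
  rw [e, lift_add', lift_smul', lift_eY h, smul_zero, add_zero]

/-- **change of the direction**: the determinant depends on the plane only -/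
theorem det_dir {x τ τ' : E} {dA dB : ℝ}
    (hτ : lift q eY x τ' = lift q eY x τ + dA • lift q eY x eA + dB • lift q eY x eB) :
    detL q eA eB eY x τ' = detL q eA eB eY x τ := by
  unfold detL sec
  rw [hτ]
  simp only [map_add, map_smul, LinearMap.add_apply, LinearMap.smul_apply, smul_eq_mul]
  rw [q.symm (lift q eY x eA) (lift q eY x τ), q.symm (lift q eY x eB) (lift q eY x τ),
    q.symm (lift q eY x eB) (lift q eY x eA)]
  unfold D3; ring

/-- **change of the point**: exact variation of the determinant -/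
theorem det_point {x ξ τ : E} (h : q.G x eY ≠ 0) (h' : q.G (x + ξ) eY ≠ 0) {t0 t1 t2 : ℝ}
    (hξ : lift q eY x ξ = t0 • lift q eY x τ + t1 • lift q eY x eA + t2 • lift q eY x eB) :
    q.G (x + ξ) eY ^ 2 * detL q eA eB eY (x + ξ) τ = q.G x eY ^ 2 * detL q eA eB eY x τ +
      4 * D4 (q.H (lift q eY x τ) (lift q eY x τ)) (q.H (lift q eY x τ) (lift q eY x eA))
        (q.H (lift q eY x τ) (lift q eY x eB)) (sec q eY x eA eA) (sec q eY x eA eB)
        (sec q eY x eB eB) (q.H eY (lift q eY x τ)) (q.H eY (lift q eY x eA))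
        (q.H eY (lift q eY x eB)) (q.H eY eY) * (q.f (x + ξ) - q.f x) := by
  set tY := q.G x ξ / q.G x eY with htY
  have eξ : ξ = t0 • lift q eY x τ + t1 • lift q eY x eA + t2 • lift q eY x eB + tY • eY := by
    rw [← hξ]; unfold lift; rw [sub_add_cancel]
  have G0 : ∀ v : E, q.G x (lift q eY x v) = 0 := fun v => G_lift h v
  have hf : q.f (x + ξ) - q.f x = q.G x eY * tY + q.H ξ ξ := by
    rw [q.taylor, htY, mul_div_cancel₀ _ h]; ring
  have hg' : q.G (x + ξ) eY = q.G x eY + 2 * q.H ξ eY := q.G_add _ _ _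
  have hm : ∀ v : E, lift q eY (x + ξ) v = lift q eY x v +
      (-(2 * q.H ξ (lift q eY x v) / q.G (x + ξ) eY)) • eY := fun v => lift_pt h h' v
  unfold detL sec
  rw [hm τ, hm eA, hm eB, hf]
  set Lτ := lift q eY x τ with hLτ
  set LA := lift q eY x eA with hLA
  set LB := lift q eY x eB with hLB
  set m0 := -(2 * q.H ξ Lτ / q.G (x + ξ) eY) with hm0
  set m1 := -(2 * q.H ξ LA / q.G (x + ξ) eY) with hm1
  set m2 := -(2 * q.H ξ LB / q.G (x + ξ) eY) with hm2
  have hξτ : q.H ξ Lτ = q.H Lτ Lτ * t0 + q.H Lτ LA * t1 + q.H Lτ LB * t2 + tY * q.H eY Lτ := by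
    rw [eξ]
    simp only [map_add, map_smul, LinearMap.add_apply, LinearMap.smul_apply, smul_eq_mul]
    rw [q.symm LA Lτ, q.symm LB Lτ]; ring
  have hξA : q.H ξ LA = q.H Lτ LA * t0 + q.H LA LA * t1 + q.H LA LB * t2 + tY * q.H eY LA := by
    rw [eξ]
    simp only [map_add, map_smul, LinearMap.add_apply, LinearMap.smul_apply, smul_eq_mul]
    rw [q.symm LB LA]; ring
  have hξB : q.H ξ LB = q.H Lτ LB * t0 + q.H LA LB * t1 + q.H LB LB * t2 + tY * q.H eY LB := by
    rw [eξ]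
    simp only [map_add, map_smul, LinearMap.add_apply, LinearMap.smul_apply, smul_eq_mul]
    ring
  have hξY : q.H ξ eY = q.H eY Lτ * t0 + q.H eY LA * t1 + q.H eY LB * t2 + q.H eY eY * tY := by
    rw [eξ]
    simp only [map_add, map_smul, LinearMap.add_apply, LinearMap.smul_apply, smul_eq_mul]
    rw [q.symm Lτ eY, q.symm LA eY, q.symm LB eY]; ring
  have hξξ : q.H ξ ξ = q.H Lτ Lτ * t0 ^ 2 + q.H LA LA * t1 ^ 2 + q.H LB LB * t2 ^ 2 +
      2 * q.H Lτ LA * t0 * t1 + 2 * q.H Lτ LB * t0 * t2 + 2 * q.H LA LB * t1 * t2 +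
      2 * tY * (q.H eY Lτ * t0 + q.H eY LA * t1 + q.H eY LB * t2) + q.H eY eY * tY ^ 2 := by
    have e1 : q.H ξ ξ = t0 * q.H ξ Lτ + t1 * q.H ξ LA + t2 * q.H ξ LB + tY * q.H ξ eY := by
      conv_lhs => rw [show q.H ξ ξ = q.H ξ (t0 • Lτ + t1 • LA + t2 • LB + tY • eY) by rw [← eξ]]
      simp only [map_add, map_smul, smul_eq_mul]
    rw [e1, hξτ, hξA, hξB, hξY]; ring
  have key := D3_move (a := q.H Lτ Lτ) (b := q.H Lτ LA) (c := q.H Lτ LB) (d := q.H LA LA)
    (e := q.H LA LB) (f := q.H LB LB) (k0 := q.H eY Lτ) (k1 := q.H eY LA) (k2 := q.H eY LB)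
    (κ := q.H eY eY) (t0 := t0) (t1 := t1) (t2 := t2) (tY := tY) (g := q.G x eY)
    (g' := q.G (x + ξ) eY) (m0 := m0) (m1 := m1) (m2 := m2)
    (by rw [hg', hξY])
    (by rw [hm0, neg_mul, div_mul_cancel₀ _ h', hξτ])
    (by rw [hm1, neg_mul, div_mul_cancel₀ _ h', hξA])
    (by rw [hm2, neg_mul, div_mul_cancel₀ _ h', hξB])
  rw [← hξξ] at key
  rw [← key]
  simp only [map_add, map_smul, LinearMap.add_apply, LinearMap.smul_apply, smul_eq_mul]
  rw [q.symm Lτ eY, q.symm LA eY, q.symm LB eY]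
  congr 2
  all_goals ring

theorem D4_le {a b c d e f k0 k1 k2 κ K : ℝ} (hK : 0 ≤ K) (ha : |a| ≤ 9 * K) (hb : |b| ≤ 3 * K)
    (hc : |c| ≤ 3 * K) (hd : |d| ≤ K) (he : |e| ≤ K) (hf : |f| ≤ K) (hk0 : |k0| ≤ 3 * K)
    (hk1 : |k1| ≤ K) (hk2 : |k2| ≤ K) (hκ : |κ| ≤ K) : |D4 a b c d e f k0 k1 k2 κ| ≤ 216 * K ^ 4 := by
  have sq : ∀ {r A : ℝ}, |r| ≤ A → |r ^ 2| ≤ A * A := by
    intro r A hr; rw [sq]; exact abs_mul_le hr hr
  have h2 : |(2 : ℝ)| ≤ 2 := by norm_num
  have d3 : |D3 a b c d e f| ≤ 54 * K ^ 3 := by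
    unfold D3
    have t1 := abs_mul_le (abs_mul_le ha hd) hf
    have t2 := abs_mul_le (abs_mul_le (abs_mul_le h2 hb) he) hc
    have t3 := abs_mul_le ha (sq he)
    have t4 := abs_mul_le (sq hb) hf
    have t5 := abs_mul_le (sq hc) hd
    refine (abs_sub2 (abs_sub2 (abs_sub2 (abs_add2 t1 t2) t3) t4) t5).trans (le_of_eq ?_)
    ring
  have r0 : |(d * f - e ^ 2) * k0 + (c * e - b * f) * k1 + (b * e - c * d) * k2| ≤
      18 * K ^ 3 := by
    refine (abs_add2 (abs_add2 (abs_mul_le (abs_sub2 (abs_mul_le hd hf) (sq he)) hk0)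
      (abs_mul_le (abs_sub2 (abs_mul_le hc he) (abs_mul_le hb hf)) hk1))
      (abs_mul_le (abs_sub2 (abs_mul_le hb he) (abs_mul_le hc hd)) hk2)).trans (le_of_eq ?_)
    ring
  have r1 : |(c * e - b * f) * k0 + (a * f - c ^ 2) * k1 + (b * c - a * e) * k2| ≤
      54 * K ^ 3 := by
    refine (abs_add2 (abs_add2 (abs_mul_le (abs_sub2 (abs_mul_le hc he) (abs_mul_le hb hf)) hk0)
      (abs_mul_le (abs_sub2 (abs_mul_le ha hf) (sq hc)) hk1))
      (abs_mul_le (abs_sub2 (abs_mul_le hb hc) (abs_mul_le ha he)) hk2)).trans (le_of_eq ?_)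
    ring
  have r2 : |(b * e - c * d) * k0 + (b * c - a * e) * k1 + (a * d - b ^ 2) * k2| ≤
      54 * K ^ 3 := by
    refine (abs_add2 (abs_add2 (abs_mul_le (abs_sub2 (abs_mul_le hb he) (abs_mul_le hc hd)) hk0)
      (abs_mul_le (abs_sub2 (abs_mul_le hb hc) (abs_mul_le ha he)) hk1))
      (abs_mul_le (abs_sub2 (abs_mul_le ha hd) (sq hb)) hk2)).trans (le_of_eq ?_)
    ring
  unfold D4
  refine (abs_sub2 (abs_mul_le hκ d3) (abs_add2 (abs_add2 (abs_mul_le hk0 r0)
    (abs_mul_le hk1 r1)) (abs_mul_le hk2 r2))).trans (le_of_eq ?_)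
  ring

section frame

variable {x τ : E} {K a : ℝ}

/-- bounds for the tangent lift of the direction -/
theorem lift_bounds (F : Frm q eA eB eY x τ K) (ha : a ≤ 1) (hG : |q.G x τ| ≤ a)
    (hH : |q.H τ τ| ≤ a) :
    |q.H (lift q eY x τ) (lift q eY x τ) - q.H τ τ| ≤ 8 * a * K ∧
    |q.H (lift q eY x τ) (lift q eY x eA) - bet q eY x τ eA| ≤ 2 * a * K ∧
    |q.H (lift q eY x τ) (lift q eY x eB) - bet q eY x τ eB| ≤ 2 * a * K ∧
    |q.H eY (lift q eY x τ) - q.H eY τ| ≤ 2 * a * K := by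
  have a0 : 0 ≤ a := (abs_nonneg _).trans hG
  have K1 := F.K1
  have g0 := F.g0
  have gp : 0 < q.G x eY := by linarith only [g0]
  set δ := q.G x τ / q.G x eY with hδ
  have hδ2 : |δ| ≤ 2 * a := by
    rw [hδ, abs_div, abs_of_pos gp, div_le_iff₀ gp]
    nlinarith only [hG, g0, a0]
  have eτ : lift q eY x τ = τ - δ • eY := rfl
  have hδδ : |δ ^ 2| ≤ 4 * a := by
    rw [abs_pow]
    have := pow_le_pow_left₀ (abs_nonneg δ) hδ2 2
    nlinarith only [this, a0, ha]
  refine ⟨?_, ?_, ?_, ?_⟩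
  · have e1 : q.H (lift q eY x τ) (lift q eY x τ) - q.H τ τ =
        -(2 * δ * q.H τ eY) + δ ^ 2 * q.H eY eY := by
      rw [eτ]
      simp only [map_sub, map_smul, LinearMap.sub_apply, LinearMap.smul_apply, smul_eq_mul]
      rw [q.symm eY τ]; ring
    rw [e1]
    have h2 : |2 * δ| ≤ 2 * (2 * a) := abs_mul_le (by norm_num) hδ2
    have t1 : |-(2 * δ * q.H τ eY)| ≤ 2 * (2 * a) * K := by
      rw [abs_neg]; exact abs_mul_le h2 F.HτY
    refine (abs_add2 t1 (abs_mul_le hδδ F.HYY)).trans (le_of_eq ?_)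
    ring
  · have e1 : q.H (lift q eY x τ) (lift q eY x eA) - bet q eY x τ eA =
        -(δ * q.H (lift q eY x eA) eY) := by
      unfold bet
      conv_lhs => rw [eτ]
      simp only [map_sub, map_smul, LinearMap.sub_apply, LinearMap.smul_apply, smul_eq_mul]
      rw [q.symm eY (lift q eY x eA)]; ring
    rw [e1, abs_neg]
    exact abs_mul_le hδ2 F.HAY
  · have e1 : q.H (lift q eY x τ) (lift q eY x eB) - bet q eY x τ eB =
        -(δ * q.H (lift q eY x eB) eY) := by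
      unfold bet
      conv_lhs => rw [eτ]
      simp only [map_sub, map_smul, LinearMap.sub_apply, LinearMap.smul_apply, smul_eq_mul]
      rw [q.symm eY (lift q eY x eB)]; ring
    rw [e1, abs_neg]
    exact abs_mul_le hδ2 F.HBY
  · have e1 : q.H eY (lift q eY x τ) - q.H eY τ = -(δ * q.H eY eY) := by
      rw [eτ]
      simp only [map_sub, map_smul, smul_eq_mul]; ring
    rw [e1, abs_neg]
    exact abs_mul_le hδ2 F.HYY

/-- `det3 (fanQ ..)` is `detL` up to `48 K³ a` -/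
theorem detL_err (F : Frm q eA eB eY x τ K) (ha : a ≤ 1) (hG : |q.G x τ| ≤ a)
    (hH : |q.H τ τ| ≤ a) :
    |det3 (fanQ q eA eB eY x τ) - detL q eA eB eY x τ| ≤ 48 * K ^ 3 * a := by
  obtain ⟨l1, l2, l3, -⟩ := lift_bounds F ha hG hH
  have a0 : 0 ≤ a := (abs_nonneg _).trans hG
  have K1 := F.K1
  rw [det3_fanQ]
  unfold detL
  have hA : |bet q eY x τ eA| ≤ K := F.HτA
  have hB : |bet q eY x τ eB| ≤ K := F.HτB
  have hAA : |sec q eY x eA eA| ≤ K := F.HAA
  have hAB : |sec q eY x eA eB| ≤ K := F.HAB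
  have hBB : |sec q eY x eB eB| ≤ K := F.HBB
  generalize q.H (lift q eY x τ) (lift q eY x τ) = F0 at *
  generalize q.H (lift q eY x τ) (lift q eY x eA) = F1 at *
  generalize q.H (lift q eY x τ) (lift q eY x eB) = F2 at *
  generalize q.H τ τ = f0 at *
  generalize bet q eY x τ eA = f1 at *
  generalize bet q eY x τ eB = f2 at *
  generalize sec q eY x eA eA = d at *
  generalize sec q eY x eA eB = e at *
  generalize sec q eY x eB eB = f at *
  have hF1 : |F1| ≤ 3 * K := by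
    have h1 : F1 = (F1 - f1) + f1 := by ring
    rw [h1]
    refine (abs_add2 l2 hA).trans ?_
    nlinarith only [K1, ha, a0]
  have hF2 : |F2| ≤ 3 * K := by
    have h1 : F2 = (F2 - f2) + f2 := by ring
    rw [h1]
    refine (abs_add2 l3 hB).trans ?_
    nlinarith only [K1, ha, a0]
  have l1' : |f0 - F0| ≤ 8 * a * K := by rw [abs_sub_comm]; exact l1
  have l2' : |f1 - F1| ≤ 2 * a * K := by rw [abs_sub_comm]; exact l2
  have l3' : |f2 - F2| ≤ 2 * a * K := by rw [abs_sub_comm]; exact l3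
  have e1 : D3 f0 f1 f2 d e f - D3 F0 F1 F2 d e f = (f0 - F0) * (d * f - e * e) +
      2 * e * ((f1 - F1) * f2 + F1 * (f2 - F2)) - (f1 - F1) * (f1 + F1) * f -
      (f2 - F2) * (f2 + F2) * d := by
    unfold D3; ring
  rw [e1]
  have h2 : |2 * e| ≤ 2 * K := abs_mul_le (by norm_num) hAB
  refine (abs_sub2 (abs_sub2 (abs_add2
    (abs_mul_le l1' (abs_sub2 (abs_mul_le hAA hBB) (abs_mul_le hAB hAB)))
    (abs_mul_le h2 (abs_add2 (abs_mul_le l2' hB) (abs_mul_le hF1 l3'))))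
    (abs_mul_le (abs_mul_le l2' (abs_add2 hA hF1)) hBB))
    (abs_mul_le (abs_mul_le l3' (abs_add2 hB hF2)) hAA)).trans (le_of_eq ?_)
  ring

/-- **the determinant of the fan form is the same for all lines and all heights of one sheet** -/
theorem det_move {x' τ' : E} (F : Frm q eA eB eY x τ K) (F' : Frm q eA eB eY x' τ' K)
    (ha : a ≤ 1) (hq : |q.f x| ≤ a) (hq' : |q.f x'| ≤ a) (hG : |q.G x τ| ≤ a)
    (hG' : |q.G x' τ'| ≤ a) (hH : |q.H τ τ| ≤ a) (hH' : |q.H τ' τ'| ≤ a) {t0 t1 t2 dA dB : ℝ}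
    (hξ : lift q eY x (x' - x) = t0 • lift q eY x τ + t1 • lift q eY x eA + t2 • lift q eY x eB)
    (hτ : lift q eY x τ' = lift q eY x τ + dA • lift q eY x eA + dB • lift q eY x eB) :
    |det3 (fanQ q eA eB eY x' τ')| ≤ 16 * |det3 (fanQ q eA eB eY x τ)| + 8000 * K ^ 4 * a := by
  have a0 : 0 ≤ a := (abs_nonneg _).trans hG
  have K1 := F.K1
  have n : q.G x eY ≠ 0 := ne_of_gt (by linarith only [F.g0])
  have n' : q.G x' eY ≠ 0 := ne_of_gt (by linarith only [F'.g0])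
  have ex : x + (x' - x) = x' := by abel
  have h1 := det_point (q := q) (eA := eA) (eB := eB) (τ := τ) n (by rw [ex]; exact n') hξ
  rw [ex] at h1
  have h2 : detL q eA eB eY x' τ' = detL q eA eB eY x' τ := by
    refine det_dir (dA := dA) (dB := dB) ?_
    have h3 := congrArg (lift q eY x') hτ
    rwa [lift_add', lift_add', lift_smul', lift_smul', lift_lift n', lift_lift n',
      lift_lift n', lift_lift n'] at h3
  rw [← h2] at h1
  obtain ⟨l1, l2, l3, l4⟩ := lift_bounds F ha hG hH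
  have b0 : |q.H (lift q eY x τ) (lift q eY x τ)| ≤ 9 * K := by
    have h1 : q.H (lift q eY x τ) (lift q eY x τ) =
      (q.H (lift q eY x τ) (lift q eY x τ) - q.H τ τ) + q.H τ τ := by ring
    rw [h1]
    refine (abs_add2 l1 hH).trans ?_
    nlinarith only [K1, ha, a0]
  have b1 : |q.H (lift q eY x τ) (lift q eY x eA)| ≤ 3 * K := by
    have h1 : q.H (lift q eY x τ) (lift q eY x eA) =
      (q.H (lift q eY x τ) (lift q eY x eA) - bet q eY x τ eA) + bet q eY x τ eA := by ring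
    rw [h1]
    refine (abs_add2 l2 F.HτA).trans ?_
    nlinarith only [K1, ha, a0]
  have b2 : |q.H (lift q eY x τ) (lift q eY x eB)| ≤ 3 * K := by
    have h1 : q.H (lift q eY x τ) (lift q eY x eB) =
      (q.H (lift q eY x τ) (lift q eY x eB) - bet q eY x τ eB) + bet q eY x τ eB := by ring
    rw [h1]
    refine (abs_add2 l3 F.HτB).trans ?_
    nlinarith only [K1, ha, a0]
  have b3 : |q.H eY (lift q eY x τ)| ≤ 3 * K := by
    have h1 : q.H eY (lift q eY x τ) =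
      (q.H eY (lift q eY x τ) - q.H eY τ) + q.H eY τ := by ring
    have h5 : |q.H eY τ| ≤ K := by rw [q.symm]; exact F.HτY
    rw [h1]
    refine (abs_add2 l4 h5).trans ?_
    nlinarith only [K1, ha, a0]
  have hD := D4_le (K := K) (by linarith only [K1]) b0 b1 b2 F.HAA F.HAB F.HBB b3
    (by rw [q.symm]; exact F.HAY : |q.H eY (lift q eY x eA)| ≤ K)
    (by rw [q.symm]; exact F.HBY : |q.H eY (lift q eY x eB)| ≤ K) F.HYY
  have hdq : |q.f x' - q.f x| ≤ a + a := abs_sub2 hq' hq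
  have e1 := detL_err F ha hG hH
  have e2 := detL_err F' ha hG' hH'
  have g0 := F.g0
  have g1 := F.g1
  have g0' := F'.g0
  unfold sec at h1
  generalize D4 (q.H (lift q eY x τ) (lift q eY x τ)) (q.H (lift q eY x τ) (lift q eY x eA))
        (q.H (lift q eY x τ) (lift q eY x eB)) (q.H (lift q eY x eA) (lift q eY x eA))
        (q.H (lift q eY x eA) (lift q eY x eB))
        (q.H (lift q eY x eB) (lift q eY x eB)) (q.H eY (lift q eY x τ)) (q.H eY (lift q eY x eA))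
        (q.H eY (lift q eY x eB)) (q.H eY eY) = M at *
  generalize det3 (fanQ q eA eB eY x' τ') = P' at *
  generalize det3 (fanQ q eA eB eY x τ) = P at *
  generalize detL q eA eB eY x' τ' = L' at *
  generalize detL q eA eB eY x τ = L at *
  generalize q.f x' - q.f x = dq at *
  have h4 : |q.G x eY ^ 2 * L + 4 * M * dq| ≤ 4 * |L| + 4 * (216 * K ^ 4) * (a + a) := by
    have t1 : |q.G x eY ^ 2| ≤ 4 := by
      rw [abs_pow, abs_of_nonneg (by linarith only [g0])]; nlinarith only [g0, g1]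
    have t2 : |4 * M| ≤ 4 * (216 * K ^ 4) := abs_mul_le (by norm_num) hD
    exact abs_add2 (abs_mul_le t1 le_rfl) (abs_mul_le t2 hdq)
  rw [← h1, abs_mul, abs_pow, abs_of_nonneg (by linarith only [g0'] : 0 ≤ q.G x' eY)] at h4
  have h5 : 1 / 4 * |L'| ≤ q.G x' eY ^ 2 * |L'| :=
    mul_le_mul_of_nonneg_right (by nlinarith only [g0']) (abs_nonneg _)
  have h6 : |L| ≤ |P| + 48 * K ^ 3 * a := by
    have : L = P - (P - L) := by ring
    rw [this]; exact (abs_sub _ _).trans (by linarith only [e1])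
  have h7 : |P'| ≤ |L'| + 48 * K ^ 3 * a := by
    have : P' = L' + (P' - L') := by ring
    rw [this]; exact (abs_add_le _ _).trans (by linarith only [e2])
  have h8 : K ^ 3 * a ≤ K ^ 4 * a :=
    mul_le_mul_of_nonneg_right (pow_le_pow_right₀ K1 (by norm_num)) a0
  have h9 : 0 ≤ K ^ 4 * a := by positivity
  linarith only [h4, h5, h6, h7, h8, h9]

/-- `Two` for the base line itself -/
theorem two_self {r : ℝ} (F : Frm q eA eB eY x τ K) (hr : 0 ≤ r) (hG : |q.G x τ| ≤ a)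
    (hH : |q.H τ τ| ≤ a) : Two q eA eB eY x τ K a r 0 0 0 0 0 0 where
  frm := F
  a0 := (abs_nonneg _).trans hG
  r0 := hr
  hdA := by simp
  hdB := by simp
  hy := by simp
  hxA := by simpa using hr
  hxB := by simpa using hr
  hxY := by simpa using hr
  Hτ := hH
  Gτ := hG
  Hτ' := by simpa using hH
  Gτ' := by simpa using hG
  g0' := by simpa using F.g0

end frame

/-! ### high lines -/

/-- **numerical form of `large_w`** : `o` = own functionals, `d` = velocities relative to the base. -/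
theorem three_num {f00 f01 f02 f11 f12 f22 K κ e ω b0 : ℝ} {dA dB oA oB : Fin 3 → ℝ}
    (K1 : 1 ≤ K) (h00 : |f00| ≤ K) (h01 : |f01| ≤ K) (h02 : |f02| ≤ K) (h11 : |f11| ≤ K)
    (h12 : |f12| ≤ K) (h22 : |f22| ≤ K) (hκ : |D3 f00 f01 f02 f11 f12 f22| ≤ κ)
    (hdA : ∀ i, |dA i| ≤ 2) (hdB : ∀ i, |dB i| ≤ 2)
    (hfan : ∀ i, |f00 + 2 * f01 * dA i + 2 * f02 * dB i + f11 * dA i ^ 2 +
      2 * f12 * dA i * dB i + f22 * dB i ^ 2| ≤ e)
    (hoA : ∀ i, |oA i - (f01 + f11 * dA i + f12 * dB i)| ≤ ω)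
    (hoB : ∀ i, |oB i - (f02 + f12 * dA i + f22 * dB i)| ≤ ω) (hb0 : 0 < b0) (hb1 : b0 ≤ 1)
    (hb : ∀ i, b0 ≤ |oA i| + |oB i|) (hω : 4 * ω ≤ b0)
    (hsm : 50000000000 * K ^ 5 * (κ + e) ≤ b0 ^ 6) :
    ∃ i j, i ≠ j ∧ |oA i * (dA j - dA i) + oB i * (dB j - dB i)| ≤
        2000 * K ^ 2 * (κ + e) / b0 ^ 2 + 8 * ω ∧
      |oA j * (dA j - dA i) + oB j * (dB j - dB i)| ≤
        2000 * K ^ 2 * (κ + e) / b0 ^ 2 + 8 * ω := by
  have K0 : 0 < K := by linarith only [K1]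
  have he : 0 ≤ e := (abs_nonneg _).trans (hfan 0)
  have hκ0 : 0 ≤ κ := (abs_nonneg _).trans hκ
  have hω0 : 0 ≤ ω := (abs_nonneg _).trans (hoA 0)
  have hb2 : 0 < b0 ^ 2 := by positivity
  obtain ⟨f, v00, v01, v02, v10, v11, v12, v20, v21, v22⟩ : ∃ f : Fin 3 → Fin 3 → ℝ,
      f 0 0 = f00 / (4 * K) ∧ f 0 1 = f01 / (2 * K) ∧ f 0 2 = f02 / (2 * K) ∧
      f 1 0 = f01 / (2 * K) ∧ f 1 1 = f11 / K ∧ f 1 2 = f12 / K ∧
      f 2 0 = f02 / (2 * K) ∧ f 2 1 = f12 / K ∧ f 2 2 = f22 / K :=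
    ⟨![![f00 / (4 * K), f01 / (2 * K), f02 / (2 * K)], ![f01 / (2 * K), f11 / K, f12 / K],
      ![f02 / (2 * K), f12 / K, f22 / K]], rfl, rfl, rfl, rfl, rfl, rfl, rfl, rfl, rfl⟩
  have dv : ∀ {t c : ℝ}, |t| ≤ K → 1 ≤ c → |t / (c * K)| ≤ 1 := by
    intro t c ht hc
    have hc0 : 0 < c := by linarith only [hc]
    rw [abs_div, abs_of_pos (mul_pos hc0 K0), div_le_one (mul_pos hc0 K0)]
    nlinarith only [ht, hc, K0]
  have dv1 : ∀ {t : ℝ}, |t| ≤ K → |t / K| ≤ 1 := by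
    intro t ht
    rw [abs_div, abs_of_pos K0, div_le_one K0]; exact ht
  have hf1 : ∀ i j, |f i j| ≤ 1 := by
    intro i j
    fin_cases i <;> fin_cases j
    · exact v00 ▸ dv h00 (by norm_num)
    · exact v01 ▸ dv h01 (by norm_num)
    · exact v02 ▸ dv h02 (by norm_num)
    · exact v10 ▸ dv h01 (by norm_num)
    · exact v11 ▸ dv1 h11
    · exact v12 ▸ dv1 h12
    · exact v20 ▸ dv h02 (by norm_num)
    · exact v21 ▸ dv1 h12
    · exact v22 ▸ dv1 h22
  have hdet : det3 f = D3 f00 f01 f02 f11 f12 f22 / (4 * K ^ 3) := by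
    simp only [det3, D3, v00, v01, v02, v11, v12, v22]
    field_simp
    ring
  have hqf : ∀ i, qf f (dA i / 2) (dB i / 2) = (f00 + 2 * f01 * dA i + 2 * f02 * dB i +
      f11 * dA i ^ 2 + 2 * f12 * dA i * dB i + f22 * dB i ^ 2) / (4 * K) := by
    intro i
    simp only [qf, v00, v01, v02, v11, v12, v22]
    field_simp
    ring
  have hbu : ∀ i, bu f (dA i / 2) (dB i / 2) = (f01 + f11 * dA i + f12 * dB i) / (2 * K) := by
    intro i
    simp only [bu, v01, v11, v12]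
    field_simp
  have hbv : ∀ i, bv f (dA i / 2) (dB i / 2) = (f02 + f12 * dA i + f22 * dB i) / (2 * K) := by
    intro i
    simp only [bv, v02, v12, v22]
    field_simp
  have hh : ∀ {t : ℝ}, |t| ≤ 2 → |t / 2| ≤ 1 := by
    intro t ht
    rw [abs_div, abs_two]; linarith only [ht]
  have key := conic_three (f := f) hf1 (κ := κ / (4 * K ^ 3)) (e := e / (4 * K))
    (b0 := b0 / (6 * K)) (x := fun i => dA i / 2) (y := fun i => dB i / 2) ?_ (by positivity) ?_
    (fun i => hh (hdA i)) (fun i => hh (hdB i)) ?_ ?_ ?_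
  · obtain ⟨i, j, hij, k1, k2⟩ := key
    simp only [hbu, hbv] at k1 k2
    have hC : (8 * (κ / (4 * K ^ 3)) + 52 * (e / (4 * K))) / (b0 / (6 * K)) ^ 2 * (4 * K) ≤
        2000 * K ^ 2 * (κ + e) / b0 ^ 2 := by
      have e1 : (8 * (κ / (4 * K ^ 3)) + 52 * (e / (4 * K))) / (b0 / (6 * K)) ^ 2 * (4 * K) =
          (288 * κ + 1872 * K ^ 2 * e) / b0 ^ 2 := by
        field_simp; ring
      rw [e1]
      refine div_le_div_of_nonneg_right ?_ hb2.le
      have h3 : 1 ≤ K ^ 2 := one_le_pow₀ K1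
      nlinarith only [mul_nonneg (sub_nonneg.2 h3) hκ0, hκ0, mul_nonneg (sq_nonneg K) he,
        mul_nonneg (sq_nonneg K) hκ0]
    have conv : ∀ (l : Fin 3) {X Y : ℝ}, |X| ≤ 4 → |Y| ≤ 4 →
        |(f01 + f11 * dA l + f12 * dB l) / (2 * K) * (X / 2) +
          (f02 + f12 * dA l + f22 * dB l) / (2 * K) * (Y / 2)| ≤
          (8 * (κ / (4 * K ^ 3)) + 52 * (e / (4 * K))) / (b0 / (6 * K)) ^ 2 →
        |oA l * X + oB l * Y| ≤ 2000 * K ^ 2 * (κ + e) / b0 ^ 2 + 8 * ω := by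
      intro l X Y hX hY h3
      have e1 : oA l * X + oB l * Y = ((f01 + f11 * dA l + f12 * dB l) / (2 * K) * (X / 2) +
          (f02 + f12 * dA l + f22 * dB l) / (2 * K) * (Y / 2)) * (4 * K) +
          ((oA l - (f01 + f11 * dA l + f12 * dB l)) * X +
            (oB l - (f02 + f12 * dA l + f22 * dB l)) * Y) := by
        field_simp; ring
      rw [e1]
      have h4 := abs_add2 (abs_mul_le h3 (abs_of_pos (by positivity : 0 < 4 * K)).le)
        (abs_add2 (abs_mul_le (hoA l) hX) (abs_mul_le (hoB l) hY))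
      linarith only [h4, hC]
    have hX : |dA j - dA i| ≤ 4 := (abs_sub2 (hdA j) (hdA i)).trans (by norm_num)
    have hY : |dB j - dB i| ≤ 4 := (abs_sub2 (hdB j) (hdB i)).trans (by norm_num)
    refine ⟨i, j, hij, conv i hX hY ?_, conv j hX hY ?_⟩
    · refine le_of_eq_of_le (congrArg _ ?_) k1
      ring
    · rw [← abs_neg] at k2
      refine le_of_eq_of_le (congrArg _ ?_) k2
      ring
  · rw [hdet, abs_div, abs_of_pos (by positivity : 0 < 4 * K ^ 3)]
    exact div_le_div_of_nonneg_right hκ (by positivity)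
  · rw [div_le_one (by positivity)]; linarith only [hb1, K1]
  · intro i
    rw [hqf, abs_div, abs_of_pos (by positivity : 0 < 4 * K)]
    exact div_le_div_of_nonneg_right (hfan i) (by positivity)
  · intro i
    simp only [hbu, hbv]
    rw [div_pow, div_pow, div_pow, ← add_div, div_le_div_iff₀ (by positivity) (by positivity)]
    have h3 := hb i
    have h4 : |oA i| ≤ |f01 + f11 * dA i + f12 * dB i| + ω := by
      have e1 : oA i = (f01 + f11 * dA i + f12 * dB i) +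
        (oA i - (f01 + f11 * dA i + f12 * dB i)) := by ring
      calc |oA i| = |(f01 + f11 * dA i + f12 * dB i) +
        (oA i - (f01 + f11 * dA i + f12 * dB i))| := by rw [← e1]
        _ ≤ _ := abs_add2 le_rfl (hoA i)
    have h5 : |oB i| ≤ |f02 + f12 * dA i + f22 * dB i| + ω := by
      have e1 : oB i = (f02 + f12 * dA i + f22 * dB i) +
        (oB i - (f02 + f12 * dA i + f22 * dB i)) := by ring
      calc |oB i| = |(f02 + f12 * dA i + f22 * dB i) +
        (oB i - (f02 + f12 * dA i + f22 * dB i))| := by rw [← e1]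
        _ ≤ _ := abs_add2 le_rfl (hoB i)
    rw [← sq_abs (f01 + f11 * dA i + f12 * dB i), ← sq_abs (f02 + f12 * dA i + f22 * dB i)]
    have p1 := abs_nonneg (f01 + f11 * dA i + f12 * dB i)
    have p2 := abs_nonneg (f02 + f12 * dA i + f22 * dB i)
    generalize |f01 + f11 * dA i + f12 * dB i| = p at *
    generalize |f02 + f12 * dA i + f22 * dB i| = s at *
    have h6 : b0 / 2 ≤ p + s := by linarith only [h3, h4, h5, hω]
    have h7 : (b0 / 2) ^ 2 ≤ (p + s) ^ 2 := pow_le_pow_left₀ (by positivity) h6 2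
    have h8 : b0 ^ 2 ≤ 8 * (p ^ 2 + s ^ 2) := by nlinarith only [h7, sq_nonneg (p - s)]
    have h9 : b0 ^ 2 * (2 * K) ^ 2 ≤ 8 * (p ^ 2 + s ^ 2) * (2 * K) ^ 2 :=
      mul_le_mul_of_nonneg_right h8 (by positivity)
    nlinarith only [h9, mul_nonneg (add_nonneg (sq_nonneg p) (sq_nonneg s)) (sq_nonneg K)]
  · rw [div_pow, le_div_iff₀ (by positivity)]
    refine le_trans (le_of_eq_of_le ?_ (?_ : 46656000000 * (K ^ 3 * κ + K ^ 5 * e) ≤ _)) hsm
    · field_simp; ring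
    · have h3 : K ^ 3 * κ ≤ K ^ 5 * κ :=
        mul_le_mul_of_nonneg_right (pow_le_pow_right₀ K1 (by norm_num)) hκ0
      have h4 : 0 ≤ K ^ 5 * κ := by positivity
      have h5 : 0 ≤ K ^ 5 * e := by positivity
      nlinarith only [h3, h4, h5]

section high

variable {x τ : E} {K a r : ℝ}

/-- **high lines**: `p i`, `s i` = point and direction of the `i`-th line, all seen from the base line
`(x, τ)` of the same sheet.  If `|det| ≤ κ`, two of the three lines see each other flat. -/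
theorem large_w {dA dB y xA xB xY : Fin 3 → ℝ} {p s : Fin 3 → E} {κ b0 : ℝ}
    (T : ∀ i, Two q eA eB eY x τ K a r (dA i) (dB i) (y i) (xA i) (xB i) (xY i)) (ha : a ≤ 1)
    (hp : ∀ i, p i = x + (xA i • lift q eY x eA + xB i • lift q eY x eB + xY i • eY))
    (hs : ∀ i, s i = τ + (dA i • lift q eY x eA + dB i • lift q eY x eB + y i • eY))
    (hκ : |det3 (fanQ q eA eB eY x τ)| ≤ κ) (hb0 : 0 < b0) (hb1 : b0 ≤ 1)
    (hb : ∀ i, b0 ≤ |bet q eY (p i) (s i) eA| + |bet q eY (p i) (s i) eB|)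
    (hsm : 50000000000000 * K ^ 7 * (κ + a + r) ≤ b0 ^ 6) :
    ∃ i j, i ≠ j ∧
      |bet q eY (p i) (s i) eA * (dA j - dA i) + bet q eY (p i) (s i) eB * (dB j - dB i)| ≤
        2000000 * K ^ 4 * (κ + a + r) / b0 ^ 2 ∧
      |bet q eY (p j) (s j) eA * (dA j - dA i) + bet q eY (p j) (s j) eB * (dB j - dB i)| ≤
        2000000 * K ^ 4 * (κ + a + r) / b0 ^ 2 := by
  have F := (T 0).frm
  have K1 := F.K1
  have a0 := (T 0).a0
  have r0 := (T 0).r0
  have hκ0 : 0 ≤ κ := (abs_nonneg _).trans hκ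
  have hb2 : 0 < b0 ^ 2 := by positivity
  rw [det3_fanQ] at hκ
  have hs11 : sec q eY x eB eA = sec q eY x eA eB := sec_symm _ _ _
  have k2 : (1 : ℝ) ≤ K ^ 2 := one_le_pow₀ K1
  have h62 : b0 ^ 6 ≤ b0 := by
    have := pow_le_pow_of_le_one hb0.le hb1 (show 1 ≤ 6 by norm_num)
    rwa [pow_one] at this
  have key := three_num (f00 := q.H τ τ) (f01 := bet q eY x τ eA)
    (f02 := bet q eY x τ eB) (f11 := sec q eY x eA eA) (f12 := sec q eY x eA eB)
    (f22 := sec q eY x eB eB) (K := K) (κ := κ) (e := 801 * K ^ 2 * (a + r))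
    (ω := 144 * K ^ 2 * (a + r)) (b0 := b0) (dA := dA) (dB := dB)
    (oA := fun i => bet q eY (p i) (s i) eA) (oB := fun i => bet q eY (p i) (s i) eB) K1
    ((T 0).Hτ.trans (ha.trans K1)) F.HτA F.HτB F.HAA F.HAB F.HBB hκ (fun i => (T i).hdA)
    (fun i => (T i).hdB) ?_ ?_ ?_ hb0 hb1 hb ?_ ?_
  · obtain ⟨i, j, hij, h1, h2⟩ := key
    have hC : 2000 * K ^ 2 * (κ + 801 * K ^ 2 * (a + r)) / b0 ^ 2 + 8 * (144 * K ^ 2 * (a + r)) ≤
        2000000 * K ^ 4 * (κ + a + r) / b0 ^ 2 := by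
      have h3 : 8 * (144 * K ^ 2 * (a + r)) ≤ 8 * (144 * K ^ 2 * (a + r)) / b0 ^ 2 := by
        rw [le_div_iff₀ hb2]
        have h4 : b0 ^ 2 ≤ 1 := pow_le_one₀ hb0.le hb1
        have h5 : 0 ≤ 8 * (144 * K ^ 2 * (a + r)) := by positivity
        nlinarith only [h4, h5]
      refine (add_le_add_right h3 _).trans ?_
      rw [← add_div]
      refine div_le_div_of_nonneg_right ?_ hb2.le
      have h4 : K ^ 2 * κ ≤ K ^ 4 * κ :=
        mul_le_mul_of_nonneg_right (pow_le_pow_right₀ K1 (by norm_num)) hκ0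
      have h5 : K ^ 2 * (a + r) ≤ K ^ 4 * (a + r) :=
        mul_le_mul_of_nonneg_right (pow_le_pow_right₀ K1 (by norm_num)) (by linarith only [a0, r0])
      have h6 : 0 ≤ K ^ 4 * κ := by positivity
      have h7 : 0 ≤ K ^ 4 * (a + r) := by positivity
      nlinarith only [h4, h5, h6, h7]
    exact ⟨i, j, hij, h1.trans hC, h2.trans hC⟩
  · intro i
    have h3 := (T i).fan ha
    rw [bet_add, bet_smul, bet_smul, sec_add, sec_smul, sec_smul, sec_symm, sec_symm x eB,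
      sec_add, sec_add, sec_smul, sec_smul, sec_smul, sec_smul, hs11] at h3
    have h4 := abs_add2 h3 (T i).Hτ
    refine le_trans (le_of_eq (congrArg _ ?_)) (h4.trans ?_)
    · ring
    · nlinarith only [mul_nonneg (sub_nonneg.2 k2) a0, mul_nonneg (sub_nonneg.2 k2) r0, a0, r0]
  · intro i
    have h3 := (T i).rot (Δ := eA) F.HAY F.HAA (by rw [q.symm]; exact F.HAB)
    rw [sec_add, sec_smul, sec_smul, hs11] at h3
    simp only [hp, hs]
    refine le_trans (le_of_eq (congrArg _ ?_)) h3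
    ring
  · intro i
    have h3 := (T i).rot (Δ := eB) F.HBY F.HAB F.HBB
    rw [sec_add, sec_smul, sec_smul] at h3
    simp only [hp, hs]
    refine le_trans (le_of_eq (congrArg _ ?_)) h3
    ring
  · have h3 : K ^ 2 * (a + r) ≤ K ^ 7 * (κ + a + r) := by
      have h4 : K ^ 2 * (a + r) ≤ K ^ 7 * (a + r) :=
        mul_le_mul_of_nonneg_right (pow_le_pow_right₀ K1 (by norm_num)) (by linarith only [a0, r0])
      have h5 : 0 ≤ K ^ 7 * κ := by positivity
      nlinarith only [h4, h5]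
    have h6 : 0 ≤ K ^ 7 * (κ + a + r) := by positivity
    nlinarith only [h3, h6, hsm, h62]
  · refine le_trans ?_ hsm
    have h4 : K ^ 5 * κ ≤ K ^ 7 * κ :=
      mul_le_mul_of_nonneg_right (pow_le_pow_right₀ K1 (by norm_num)) hκ0
    have h5 : 0 ≤ K ^ 7 * (a + r) := by positivity
    have h6 : 0 ≤ K ^ 7 * κ := by positivity
    have h7 : K ^ 5 * (K ^ 2 * (a + r)) = K ^ 7 * (a + r) := by ring
    nlinarith only [h4, h5, h6, h7]

/-- **flatness**: `|det| ≤ κ`, rotation `≥ b0`: the sheet is flat in the direction `ê ⟂ bet`. -/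
theorem flat_e (F : Frm q eA eB eY x τ K) (hH : |q.H τ τ| ≤ a) {κ b0 : ℝ}
    (hκ : |det3 (fanQ q eA eB eY x τ)| ≤ κ) (hb0 : 0 < b0)
    (hb : b0 ≤ |bet q eY x τ eA| + |bet q eY x τ eB|) {u v : ℝ} (hu : |u| ≤ 1) (hv : |v| ≤ 1)
    (huv : u * bet q eY x τ eA + v * bet q eY x τ eB = 0) :
    |sec q eY x eA eA * u ^ 2 + 2 * sec q eY x eA eB * (u * v) + sec q eY x eB eB * v ^ 2| ≤
      4 * (κ + 2 * K ^ 2 * a) / b0 ^ 2 := by
  have K1 := F.K1
  have a0 : 0 ≤ a := (abs_nonneg _).trans hH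
  have hκ0 : 0 ≤ κ := (abs_nonneg _).trans hκ
  rw [det3_fanQ] at hκ
  have hAA : |sec q eY x eA eA| ≤ K := F.HAA
  have hAB : |sec q eY x eA eB| ≤ K := F.HAB
  have hBB : |sec q eY x eB eB| ≤ K := F.HBB
  generalize q.H τ τ = f0 at *
  generalize bet q eY x τ eA = p at *
  generalize bet q eY x τ eB = s at *
  generalize sec q eY x eA eA = d at *
  generalize sec q eY x eA eB = e at *
  generalize sec q eY x eB eB = f at *
  have hb2 : 0 < b0 ^ 2 := by positivity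
  have h1 : |f0 * (d * f - e * e) - D3 f0 p s d e f| ≤ a * (K * K + K * K) + κ :=
    abs_sub2 (abs_mul_le hH (abs_sub2 (abs_mul_le hAA hBB) (abs_mul_le hAB hAB))) hκ
  have h2 : (p ^ 2 + s ^ 2) * (d * u ^ 2 + 2 * e * (u * v) + f * v ^ 2) =
      (u ^ 2 + v ^ 2) * (f0 * (d * f - e * e) - D3 f0 p s d e f) +
        (u * p + v * s) * (d * (u * p - v * s) + 2 * e * (v * p + u * s) -
          f * (u * p - v * s)) := by
    unfold D3; ring
  rw [huv, zero_mul, add_zero] at h2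
  have h3 : |u ^ 2 + v ^ 2| ≤ 2 := by
    have e1 : |u ^ 2| ≤ 1 := by rw [abs_pow]; exact pow_le_one₀ (abs_nonneg _) hu
    have e2 : |v ^ 2| ≤ 1 := by rw [abs_pow]; exact pow_le_one₀ (abs_nonneg _) hv
    have := abs_add2 e1 e2
    linarith only [this]
  have h4 := abs_mul_le h3 h1
  rw [← h2, abs_mul, abs_of_nonneg (by positivity : 0 ≤ p ^ 2 + s ^ 2)] at h4
  have h5 : b0 ^ 2 / 2 ≤ p ^ 2 + s ^ 2 := by
    have h6 := pow_le_pow_left₀ hb0.le hb 2
    have h7 := sq_abs p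
    have h8 := sq_abs s
    nlinarith only [h6, h7, h8, sq_nonneg (|p| - |s|)]
  rw [le_div_iff₀ hb2]
  have h6 := mul_le_mul_of_nonneg_right h5
    (abs_nonneg (d * u ^ 2 + 2 * e * (u * v) + f * v ^ 2))
  nlinarith only [h4, h6]

end high

/-! ### low lines -/

/-- **linear strip from the second fundamental form** -/
theorem low_strip {hAA hAB hBB K c : ℝ} (h1 : |hAA| ≤ K) (h2 : |hAB| ≤ K) (h3 : |hBB| ≤ K)
    (hc : 0 < c) (h : c ≤ |hAA| ∨ c ≤ |hAB| ∨ c ≤ |hBB|) :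
    ∃ nA nB : ℝ, (|nA| ≤ 1 ∧ |nB| ≤ 1 ∧ (|nA| = 1 ∨ |nB| = 1)) ∧ ∀ u v ρ : ℝ,
      |hAA * u + hAB * v| ≤ ρ → |hAB * u + hBB * v| ≤ ρ →
      |nA * u + nB * v| ≤ ρ / c ∧
      |hAA * nB ^ 2 - 2 * hAB * (nA * nB) + hBB * nA ^ 2| * |u| ≤ 12 * K * ρ / c ∧
      |hAA * nB ^ 2 - 2 * hAB * (nA * nB) + hBB * nA ^ 2| * |v| ≤ 12 * K * ρ / c := by
  have hcK : c ≤ K := by rcases h with h | h | h <;> linarith only [h, h1, h2, h3]
  have K0 : 0 < K := by linarith only [hcK, hc]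
  -- the larger row
  have main : ∀ p s : ℝ, c ≤ |p| ∨ c ≤ |s| → (∀ u v ρ : ℝ, |hAA * u + hAB * v| ≤ ρ →
      |hAB * u + hBB * v| ≤ ρ → |p * u + s * v| ≤ ρ) →
      ∃ nA nB : ℝ, (|nA| ≤ 1 ∧ |nB| ≤ 1 ∧ (|nA| = 1 ∨ |nB| = 1)) ∧ ∀ u v ρ : ℝ,
      |hAA * u + hAB * v| ≤ ρ → |hAB * u + hBB * v| ≤ ρ → |nA * u + nB * v| ≤ ρ / c := by
    intro p s hps hrow
    obtain ⟨m, hm0, hpm, hsm, hms⟩ : ∃ m : ℝ, c ≤ m ∧ |p| ≤ m ∧ |s| ≤ m ∧ (|p| = m ∨ |s| = m) := by
      rcases le_total |p| |s| with h | h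
      · exact ⟨|s|, by rcases hps with h' | h' <;> linarith only [h, h'], h, le_rfl, Or.inr rfl⟩
      · exact ⟨|p|, by rcases hps with h' | h' <;> linarith only [h, h'], le_rfl, h, Or.inl rfl⟩
    have hmp : 0 < m := by linarith only [hm0, hc]
    refine ⟨p / m, s / m, ⟨?_, ?_, ?_⟩, ?_⟩
    · rw [abs_div, abs_of_pos hmp, div_le_one hmp]; exact hpm
    · rw [abs_div, abs_of_pos hmp, div_le_one hmp]; exact hsm
    · rcases hms with h | h
      · left; rw [abs_div, abs_of_pos hmp, h, div_self hmp.ne']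
      · right; rw [abs_div, abs_of_pos hmp, h, div_self hmp.ne']
    · intro u v ρ k1 k2
      have k3 := hrow u v ρ k1 k2
      have e1 : p / m * u + s / m * v = (p * u + s * v) / m := by ring
      rw [e1, abs_div, abs_of_pos hmp]
      have hρ : 0 ≤ ρ := (abs_nonneg _).trans k1
      exact (div_le_div_of_nonneg_right k3 hmp.le).trans
        (div_le_div_of_nonneg_left hρ hc hm0)
  obtain ⟨nA, nB, hn, hstrip⟩ : ∃ nA nB : ℝ, (|nA| ≤ 1 ∧ |nB| ≤ 1 ∧ (|nA| = 1 ∨ |nB| = 1)) ∧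
      ∀ u v ρ : ℝ, |hAA * u + hAB * v| ≤ ρ → |hAB * u + hBB * v| ≤ ρ →
        |nA * u + nB * v| ≤ ρ / c := by
    rcases h with h | h | h
    · exact main hAA hAB (Or.inl h) fun u v ρ k1 _ => k1
    · exact main hAA hAB (Or.inr h) fun u v ρ k1 _ => k1
    · exact main hAB hBB (Or.inr h) fun u v ρ _ k2 => k2
  refine ⟨nA, nB, hn, fun u v ρ k1 k2 => ?_⟩
  have k3 := hstrip u v ρ k1 k2
  obtain ⟨n1, n2, n3⟩ := hn
  have hρ : 0 ≤ ρ := (abs_nonneg _).trans k1
  set N : ℝ := nA ^ 2 + nB ^ 2 with hN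
  have hN1 : 1 ≤ N := by
    rcases n3 with h | h
    · have : nA ^ 2 = 1 := by rw [← sq_abs, h]; norm_num
      rw [hN, this]; linarith only [sq_nonneg nB]
    · have : nB ^ 2 = 1 := by rw [← sq_abs, h]; norm_num
      rw [hN, this]; linarith only [sq_nonneg nA]
  set Q : ℝ := hAA * nB ^ 2 - 2 * hAB * (nA * nB) + hBB * nA ^ 2 with hQ
  have hQK : |Q| ≤ 4 * K := by
    have e1 : |nB ^ 2| ≤ 1 := by rw [abs_pow]; exact pow_le_one₀ (abs_nonneg _) n2
    have e2 : |nA ^ 2| ≤ 1 := by rw [abs_pow]; exact pow_le_one₀ (abs_nonneg _) n1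
    have e3 : |2 * hAB * (nA * nB)| ≤ 2 * K * (1 * 1) :=
      abs_mul_le (abs_mul_le (by norm_num) h2) (abs_mul_le n1 n2)
    have := abs_add2 (abs_sub2 (abs_mul_le h1 e1) e3) (abs_mul_le h3 e2)
    linarith only [this]
  have hρc : ρ ≤ K * ρ / c := by
    rw [le_div_iff₀ hc]
    nlinarith only [hρ, hcK]
  have hρc0 : 0 ≤ K * ρ / c := by positivity
  -- `h(ê, D)`
  have s1 : |-nB * (hAA * u + hAB * v) + nA * (hAB * u + hBB * v)| ≤ 1 * ρ + 1 * ρ :=
    abs_add2 (abs_mul_le (by rw [abs_neg]; exact n2) k1) (abs_mul_le n1 k2)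
  -- `h(ê, n)`
  have s2 : |-nB * (hAA * nA + hAB * nB) + nA * (hAB * nA + hBB * nB)| ≤
      1 * (K * 1 + K * 1) + 1 * (K * 1 + K * 1) :=
    abs_add2 (abs_mul_le (by rw [abs_neg]; exact n2) (abs_add2 (abs_mul_le h1 n1)
      (abs_mul_le h2 n2))) (abs_mul_le n1 (abs_add2 (abs_mul_le h2 n1) (abs_mul_le h3 n2)))
  have s3 : Q * (-nB * u + nA * v) =
      N * (-nB * (hAA * u + hAB * v) + nA * (hAB * u + hBB * v)) -
      (-nB * (hAA * nA + hAB * nB) + nA * (hAB * nA + hBB * nB)) * (nA * u + nB * v) := by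
    rw [hQ, hN]; ring
  have hN2 : |N| ≤ 2 := by
    have e1 : |nB ^ 2| ≤ 1 := by rw [abs_pow]; exact pow_le_one₀ (abs_nonneg _) n2
    have e2 : |nA ^ 2| ≤ 1 := by rw [abs_pow]; exact pow_le_one₀ (abs_nonneg _) n1
    have := abs_add2 e2 e1
    rw [← hN] at this
    linarith only [this]
  have s4 : |Q * (-nB * u + nA * v)| ≤ 8 * (K * ρ / c) := by
    rw [s3]
    have := abs_sub2 (abs_mul_le hN2 s1) (abs_mul_le s2 k3)
    have e1 : K * (ρ / c) = K * ρ / c := by ring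
    linarith only [this, e1, hρc]
  have s5 : |Q * (nA * u + nB * v)| ≤ 4 * (K * ρ / c) := by
    refine (abs_mul_le hQK k3).trans (le_of_eq ?_)
    ring
  have u1 : N * u = nA * (nA * u + nB * v) - nB * (-nB * u + nA * v) := by rw [hN]; ring
  have v1 : N * v = nB * (nA * u + nB * v) + nA * (-nB * u + nA * v) := by rw [hN]; ring
  have big : ∀ t : ℝ, |t| ≤ |N * t| := by
    intro t
    rw [abs_mul, abs_of_nonneg (by linarith only [hN1] : 0 ≤ N)]
    nlinarith only [hN1, abs_nonneg t]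
  refine ⟨k3, ?_, ?_⟩
  · have e1 : |Q| * |u| ≤ |Q * (N * u)| := by
      rw [abs_mul]; exact mul_le_mul_of_nonneg_left (big u) (abs_nonneg _)
    have e2 : Q * (N * u) = nA * (Q * (nA * u + nB * v)) - nB * (Q * (-nB * u + nA * v)) := by
      rw [u1]; ring
    rw [e2] at e1
    have e3 := e1.trans (abs_sub2 (abs_mul_le n1 s5) (abs_mul_le n2 s4))
    have e4 : 12 * K * ρ / c = 12 * (K * ρ / c) := by ring
    rw [e4]; linarith only [e3]
  · have e1 : |Q| * |v| ≤ |Q * (N * v)| := by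
      rw [abs_mul]; exact mul_le_mul_of_nonneg_left (big v) (abs_nonneg _)
    have e2 : Q * (N * v) = nB * (Q * (nA * u + nB * v)) + nA * (Q * (-nB * u + nA * v)) := by
      rw [v1]; ring
    rw [e2] at e1
    have e3 := e1.trans (abs_add2 (abs_mul_le n2 s5) (abs_mul_le n1 s4))
    have e4 : 12 * K * ρ / c = 12 * (K * ρ / c) := by ring
    rw [e4]; linarith only [e3]

section low

variable {x τ : E} {K a r dA dB y xA xB xY b0 : ℝ} {p s : E}

/-- **low lines**: two lines with rotation `≤ b0` through one small cell -/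
theorem small_w (T : Two q eA eB eY x τ K a r dA dB y xA xB xY)
    (hp : p = x + (xA • lift q eY x eA + xB • lift q eY x eB + xY • eY))
    (hs : s = τ + (dA • lift q eY x eA + dB • lift q eY x eB + y • eY))
    (hA : |bet q eY x τ eA| ≤ b0) (hB : |bet q eY x τ eB| ≤ b0) (hA' : |bet q eY p s eA| ≤ b0)
    (hB' : |bet q eY p s eB| ≤ b0) :
    |sec q eY x eA eA * dA + sec q eY x eA eB * dB| ≤ 2 * b0 + 144 * K ^ 2 * (a + r) ∧
    |sec q eY x eA eB * dA + sec q eY x eB eB * dB| ≤ 2 * b0 + 144 * K ^ 2 * (a + r) := by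
  have F := T.frm
  have hs11 : sec q eY x eB eA = sec q eY x eA eB := sec_symm _ _ _
  subst hp hs
  constructor
  · have h3 := T.rot (Δ := eA) F.HAY F.HAA (by rw [q.symm]; exact F.HAB)
    rw [sec_add, sec_smul, sec_smul, hs11] at h3
    have h4 := abs_sub2 (abs_sub2 hA' hA) h3
    refine le_trans (le_of_eq (congrArg _ ?_)) (h4.trans (le_of_eq (by ring)))
    ring
  · have h3 := T.rot (Δ := eB) F.HBY F.HAB F.HBB
    rw [sec_add, sec_smul, sec_smul] at h3
    have h4 := abs_sub2 (abs_sub2 hB' hB) h3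
    refine le_trans (le_of_eq (congrArg _ ?_)) (h4.trans (le_of_eq (by ring)))
    ring

/-- the second fundamental form of a low line is nearly constant along it -/
theorem sec_move (F : Frm q eA eB eY x τ K) {u : ℝ} (hu : |u| ≤ 1)
    (g0' : 1 / 2 ≤ q.G (x + u • τ) eY) (hb1 : b0 ≤ 1) {D D' : E}
    (hD : |q.H (lift q eY x D) eY| ≤ K) (hD' : |q.H (lift q eY x D') eY| ≤ K)
    (hb : |bet q eY x τ D| ≤ b0) (hb' : |bet q eY x τ D'| ≤ b0) :
    |sec q eY (x + u • τ) D D' - sec q eY x D D'| ≤ 24 * K * b0 := by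
  have K1 := F.K1
  have b00 : 0 ≤ b0 := (abs_nonneg _).trans hb
  have gp : 0 < q.G (x + u • τ) eY := by linarith only [g0']
  have n0 : q.G x eY ≠ 0 := ne_of_gt (by linarith only [F.g0])
  rw [sec_line u n0 gp.ne']
  have hm : ∀ {t : ℝ}, |t| ≤ b0 → |2 * u * t / q.G (x + u • τ) eY| ≤ 4 * b0 := by
    intro t ht
    rw [abs_div, abs_of_pos gp, div_le_iff₀ gp]
    have h1 : |2 * u * t| ≤ 2 * 1 * b0 := abs_mul_le (abs_mul_le (by norm_num) hu) ht
    nlinarith only [h1, g0', b00]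
  have hD1 : |q.H eY (lift q eY x D)| ≤ K := by rw [q.symm]; exact hD
  have hD1' : |q.H eY (lift q eY x D')| ≤ K := by rw [q.symm]; exact hD'
  have m1 := hm hb
  have m2 := hm hb'
  generalize 2 * u * bet q eY x τ D / q.G (x + u • τ) eY = P at *
  generalize 2 * u * bet q eY x τ D' / q.G (x + u • τ) eY = R at *
  have e2 : sec q eY x D D' - P * q.H eY (lift q eY x D') - R * q.H eY (lift q eY x D) +
      P * R * q.H eY eY - sec q eY x D D' = -(P * q.H eY (lift q eY x D')) -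
      R * q.H eY (lift q eY x D) + P * R * q.H eY eY := by ring
  rw [e2]
  have e3 := abs_add2 (abs_sub2 (show |-(P * q.H eY (lift q eY x D'))| ≤ 4 * b0 * K by
    rw [abs_neg]; exact abs_mul_le m1 hD1') (abs_mul_le m2 hD1))
    (abs_mul_le (abs_mul_le m1 m2) F.HYY)
  refine e3.trans ?_
  nlinarith only [mul_nonneg (mul_nonneg b00 (sub_nonneg.2 hb1)) (by linarith only [K1] : 0 ≤ K)]

/-- the rotation along a line keeps its size (and exactly its kernel) -/
theorem bet_move {u : ℝ} (g0 : 1 / 2 ≤ q.G x eY) (g1 : q.G x eY ≤ 2)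
    (g0' : 1 / 2 ≤ q.G (x + u • τ) eY) (D : E) :
    |bet q eY (x + u • τ) τ D| ≤ 4 * |bet q eY x τ D| := by
  have h := bet_const (q := q) (τ := τ) u (ne_of_gt (by linarith only [g0]))
    (ne_of_gt (by linarith only [g0'])) D
  have h1 := congrArg abs h
  rw [abs_mul, abs_mul, abs_of_pos (by linarith only [g0] : 0 < q.G x eY),
    abs_of_pos (by linarith only [g0'] : 0 < q.G (x + u • τ) eY)] at h1
  nlinarith only [h1, g0', g1, abs_nonneg (bet q eY (x + u • τ) τ D), abs_nonneg (bet q eY x τ D)]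

/-- the tangent lift of a lateral direction along the line -/
theorem lift_move {u : ℝ} (g0 : 1 / 2 ≤ q.G x eY) (g0' : 1 / 2 ≤ q.G (x + u • τ) eY)
    (hu : |u| ≤ 1) (D : E) :
    ∃ μ : ℝ, |μ| ≤ 4 * |bet q eY x τ D| ∧ lift q eY (x + u • τ) D = lift q eY x D + μ • eY := by
  refine ⟨_, ?_, lift_pt (ne_of_gt (by linarith only [g0])) (ne_of_gt (by linarith only [g0'])) D⟩
  have gp : 0 < q.G (x + u • τ) eY := by linarith only [g0']
  rw [abs_neg, abs_div, abs_of_pos gp, div_le_iff₀ gp, map_smul, LinearMap.smul_apply, smul_eq_mul]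
  have h1 : |2 * (u * q.H τ (lift q eY x D))| ≤ 2 * (1 * |bet q eY x τ D|) :=
    abs_mul_le (by norm_num) (abs_mul_le hu le_rfl)
  nlinarith only [h1, g0', abs_nonneg (bet q eY x τ D)]

end low

end abstract

end Crest.Agent.R136.Nd880
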