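import Mathlib
import Crest.Agent.R136.Nd3_880
import Crest.Agent.R136.Cap1_102

/-!
# R136: passage between `QP` (214, 880) and the expansion `(b0, b1, G)` around a line (102)

* `fan_scaled`   : `fan (shB0 b0) (scB1 κ b0 b1) (scG κ b0 G) ζ = fan b0 b1 G ζ / κ`.
* `Rep Q f X0 τ c b0 b1 G` : along the line `X0 + ζ τ`, in the frame `f`, `Q.f` is `c Fq b0 b1 G`.
* `Rep.bet_eq`, `Rep.sec_eq`, `Rep.det3_eq` : `bet`, `sec`, `det3 (fanQ ..)` in terms of `fan b0 b1 G ζ`.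
* `Rep.frm`      : the frame bounds `Frm` with `K = 63` along the line.
* `rep_of_isExp` : `IsExp` gives `Rep`.
-/

set_option autoImplicit false
set_option linter.unusedVariables false
set_option linter.unusedSectionVars false

namespace Crest.Agent.R136.Fn880

open Crest.Agent.R136.Sh605 (V3 Ln4 dt IsQ)
open Crest.Agent.R136.Arc880 (det3 abs_mul_le abs_add2 abs_sub2)
open Crest.Agent.R136.Tl214 (QP lift)
open Crest.Agent.R136.Nd214 (bet sec Frm Two)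
open Crest.Agent.R136.Tl102 (QF Fq bz fan slp shB0 scB1 scG shG shB1 kap NrmC IsExp fr cmb)
open Crest.Agent.R136.Nd880 (fanQ D3 det3_fanQ)

/-! ### scaling of the fan -/

theorem slp_scaled {b0 b1 : V3} {κ ζ : ℝ} (h0 : b0 0 ≠ 0) (hz : b0 0 + ζ * b1 0 ≠ 0) (hκ : κ ≠ 0) :
    slp (shB0 b0) (scB1 κ b0 b1) 1 ζ = (slp b0 b1 1 ζ + b0 1 / b0 0) / κ ∧
      slp (shB0 b0) (scB1 κ b0 b1) 2 ζ = (slp b0 b1 2 ζ + b0 2 / b0 0) / κ := by
  constructor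
  · simp only [slp, shB0, scB1, shB1, Matrix.cons_val]
    field_simp
    ring
  · simp only [slp, shB0, scB1, shB1, Matrix.cons_val]
    field_simp
    ring

theorem fan_scaled {b0 b1 : V3} {G : QF} {κ ζ : ℝ} (h0 : b0 0 ≠ 0) (hz : b0 0 + ζ * b1 0 ≠ 0)
    (hκ : κ ≠ 0) (i j : Fin 3) :
    fan (shB0 b0) (scB1 κ b0 b1) (scG κ b0 G) ζ i j = fan b0 b1 G ζ i j / κ := by
  obtain ⟨e1, e2⟩ := slp_scaled (b1 := b1) h0 hz hκ
  have c0 : scB1 κ b0 b1 0 = b1 0 := rfl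
  have c1 : scB1 κ b0 b1 1 = shB1 b0 b1 1 / κ := rfl
  have c2 : scB1 κ b0 b1 2 = shB1 b0 b1 2 / κ := rfl
  have d1 : shB1 b0 b1 1 = b1 1 - b0 1 / b0 0 * b1 0 := rfl
  have d2 : shB1 b0 b1 2 = b1 2 - b0 2 / b0 0 * b1 0 := rfl
  fin_cases i <;> fin_cases j <;>
    simp only [fan, Matrix.cons_val, e1, e2, c0, c1, c2, d1, d2, scG, shG,
      Fin.zero_eta, Fin.mk_one, Fin.reduceFinMk] <;>
    first
      | (rw [zero_div])
      | (field_simp; ring)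

theorem det3_scaled {b0 b1 : V3} {G : QF} {κ ζ : ℝ} (h0 : b0 0 ≠ 0) (hz : b0 0 + ζ * b1 0 ≠ 0)
    (hκ : κ ≠ 0) : det3 (fan (shB0 b0) (scB1 κ b0 b1) (scG κ b0 G) ζ) =
      det3 (fan b0 b1 G ζ) / κ ^ 3 := by
  unfold det3
  simp only [fan_scaled h0 hz hκ]
  field_simp

/-! ### the quadratic function along a line -/

section rep

variable {E : Type*} [AddCommGroup E] [Module ℝ E]

/-- along the line `X0 + ζ τ`, in the frame `f`, `Q.f` is `c Fq b0 b1 G` -/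
def Rep (Q : QP E) (f : Fin 3 → E) (X0 τ : E) (c : ℝ) (b0 b1 : V3) (G : QF) : Prop :=
  ∀ (ζ : ℝ) (x : V3), Q.f (X0 + ζ • τ + (x 0 • f 0 + x 1 • f 1 + x 2 • f 2)) =
    Q.f (X0 + ζ • τ) + c * Fq b0 b1 G ζ x

variable {Q : QP E} {f : Fin 3 → E} {X0 τ : E} {c : ℝ} {b0 b1 : V3} {G : QF}

theorem Rep.val (R : Rep Q f X0 τ c b0 b1 G) (ζ : ℝ) (x : V3) :
    Q.G (X0 + ζ • τ) (x 0 • f 0 + x 1 • f 1 + x 2 • f 2) +
      Q.H (x 0 • f 0 + x 1 • f 1 + x 2 • f 2) (x 0 • f 0 + x 1 • f 1 + x 2 • f 2) =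
      c * Fq b0 b1 G ζ x := by
  have h := R ζ x
  rw [Q.taylor] at h
  linarith only [h]

/-- first and second order in one direction -/
theorem Rep.one (R : Rep Q f X0 τ c b0 b1 G) (ζ : ℝ) (x : V3) :
    Q.G (X0 + ζ • τ) (x 0 • f 0 + x 1 • f 1 + x 2 • f 2) = c * dt (bz b0 b1 ζ) x ∧
      Q.H (x 0 • f 0 + x 1 • f 1 + x 2 • f 2) (x 0 • f 0 + x 1 • f 1 + x 2 • f 2) =
        c * G.ev x := by
  have h1 := R.val ζ x
  have h2 := R.val ζ (fun k => -(x k))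
  have e : (fun k => -(x k)) 0 • f 0 + (fun k => -(x k)) 1 • f 1 + (fun k => -(x k)) 2 • f 2 =
      (-1 : ℝ) • (x 0 • f 0 + x 1 • f 1 + x 2 • f 2) := by
    simp only [neg_smul, one_smul, neg_add]
  rw [e, Q.G_smul, map_smul, map_smul, LinearMap.smul_apply, smul_eq_mul, smul_eq_mul] at h2
  have e1 : Fq b0 b1 G ζ x = dt (bz b0 b1 ζ) x + G.ev x := rfl
  have e2 : Fq b0 b1 G ζ (fun k => -(x k)) = -dt (bz b0 b1 ζ) x + G.ev x := by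
    simp only [Fq, dt, QF.ev]; ring
  rw [e1] at h1
  rw [e2] at h2
  constructor <;> linarith only [h1, h2]

theorem Rep.G0 (R : Rep Q f X0 τ c b0 b1 G) (ζ : ℝ) :
    Q.G (X0 + ζ • τ) (f 0) = c * (b0 0 + ζ * b1 0) := by
  have h := (R.one ζ ![1, 0, 0]).1
  simp only [Matrix.cons_val, one_smul, zero_smul, add_zero, dt, bz] at h
  rw [h]; ring

theorem Rep.G1 (R : Rep Q f X0 τ c b0 b1 G) (ζ : ℝ) :
    Q.G (X0 + ζ • τ) (f 1) = c * (b0 1 + ζ * b1 1) := by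
  have h := (R.one ζ ![0, 1, 0]).1
  simp only [Matrix.cons_val, one_smul, zero_smul, add_zero, zero_add, dt, bz] at h
  rw [h]; ring

theorem Rep.G2 (R : Rep Q f X0 τ c b0 b1 G) (ζ : ℝ) :
    Q.G (X0 + ζ • τ) (f 2) = c * (b0 2 + ζ * b1 2) := by
  have h := (R.one ζ ![0, 0, 1]).1
  simp only [Matrix.cons_val, one_smul, zero_smul, add_zero, zero_add, dt, bz] at h
  rw [h]; ring

theorem Rep.Hτ (R : Rep Q f X0 τ c b0 b1 G) :
    2 * Q.H τ (f 0) = c * b1 0 ∧ 2 * Q.H τ (f 1) = c * b1 1 ∧ 2 * Q.H τ (f 2) = c * b1 2 := by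
  have key : ∀ v : E, 2 * Q.H τ v = Q.G (X0 + (1 : ℝ) • τ) v - Q.G (X0 + (0 : ℝ) • τ) v := by
    intro v
    rw [Q.G_add, Q.G_add, one_smul, zero_smul, map_zero, LinearMap.zero_apply]; ring
  refine ⟨?_, ?_, ?_⟩
  · rw [key, R.G0, R.G0]; ring
  · rw [key, R.G1, R.G1]; ring
  · rw [key, R.G2, R.G2]; ring

theorem Rep.H00 (R : Rep Q f X0 τ c b0 b1 G) : Q.H (f 0) (f 0) = c * G.yy := by
  have h := (R.one 0 ![1, 0, 0]).2
  simp only [Matrix.cons_val, one_smul, zero_smul, add_zero, QF.ev] at h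
  rw [h]; ring

theorem Rep.H11 (R : Rep Q f X0 τ c b0 b1 G) : Q.H (f 1) (f 1) = c * G.uu := by
  have h := (R.one 0 ![0, 1, 0]).2
  simp only [Matrix.cons_val, one_smul, zero_smul, add_zero, zero_add, QF.ev] at h
  rw [h]; ring

theorem Rep.H22 (R : Rep Q f X0 τ c b0 b1 G) : Q.H (f 2) (f 2) = c * G.vv := by
  have h := (R.one 0 ![0, 0, 1]).2
  simp only [Matrix.cons_val, one_smul, zero_smul, add_zero, zero_add, QF.ev] at h
  rw [h]; ring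

theorem Rep.H01 (R : Rep Q f X0 τ c b0 b1 G) : 2 * Q.H (f 1) (f 0) = c * G.yu := by
  have h := (R.one 0 ![1, 1, 0]).2
  simp only [Matrix.cons_val, one_smul, zero_smul, add_zero, QF.ev, map_add,
    LinearMap.add_apply, R.H00, R.H11, Q.symm (f 0) (f 1)] at h
  linarith only [h]

theorem Rep.H02 (R : Rep Q f X0 τ c b0 b1 G) : 2 * Q.H (f 2) (f 0) = c * G.yv := by
  have h := (R.one 0 ![1, 0, 1]).2
  simp only [Matrix.cons_val, one_smul, zero_smul, add_zero, QF.ev, map_add,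
    LinearMap.add_apply, R.H00, R.H22, Q.symm (f 0) (f 2)] at h
  linarith only [h]

theorem Rep.H12 (R : Rep Q f X0 τ c b0 b1 G) : 2 * Q.H (f 1) (f 2) = c * G.uv := by
  have h := (R.one 0 ![0, 1, 1]).2
  simp only [Matrix.cons_val, one_smul, zero_smul, zero_add, QF.ev, map_add,
    LinearMap.add_apply, R.H11, R.H22, Q.symm (f 2) (f 1)] at h
  linarith only [h]

/-- the lift does not depend on the length of the steep vector -/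
theorem lift_smul_eY {eY : E} {t : ℝ} (ht : t ≠ 0) (x D : E) :
    lift Q (t • eY) x D = lift Q eY x D := by
  unfold lift
  rw [Q.G_smul, smul_smul]
  congr 2
  rw [div_mul_eq_mul_div, mul_comm (Q.G x D) t, mul_div_mul_left _ _ ht]

/-- the lifts of the lateral vectors of the frame -/
theorem Rep.lift_eq (R : Rep Q f X0 τ c b0 b1 G) (hc : c ≠ 0) {t ζ : ℝ} (ht : t ≠ 0) :
    lift Q (t • f 0) (X0 + ζ • τ) (f 1) = f 1 + slp b0 b1 1 ζ • f 0 ∧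
      lift Q (t • f 0) (X0 + ζ • τ) (f 2) = f 2 + slp b0 b1 2 ζ • f 0 := by
  constructor
  · rw [lift_smul_eY ht]
    unfold lift slp
    rw [R.G0, R.G1, mul_div_mul_left _ _ hc, neg_div, neg_smul, sub_eq_add_neg]
  · rw [lift_smul_eY ht]
    unfold lift slp
    rw [R.G0, R.G2, mul_div_mul_left _ _ hc, neg_div, neg_smul, sub_eq_add_neg]

/-- `bet` is the rotation part of the fan -/
theorem Rep.bet_eq (R : Rep Q f X0 τ c b0 b1 G) (hc : c ≠ 0) {t ζ : ℝ} (ht : t ≠ 0) :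
    bet Q (t • f 0) (X0 + ζ • τ) τ (f 1) = 256 * c * fan b0 b1 G ζ 0 1 ∧
      bet Q (t • f 0) (X0 + ζ • τ) τ (f 2) = 256 * c * fan b0 b1 G ζ 0 2 := by
  obtain ⟨l1, l2⟩ := R.lift_eq hc (ζ := ζ) ht
  obtain ⟨h0, h1, h2⟩ := R.Hτ
  constructor
  · unfold bet
    rw [l1, map_add, map_smul, smul_eq_mul]
    have e : fan b0 b1 G ζ 0 1 = (b1 1 + b1 0 * slp b0 b1 1 ζ) / 512 := rfl
    rw [e]
    linear_combination h1 / 2 + slp b0 b1 1 ζ * h0 / 2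
  · unfold bet
    rw [l2, map_add, map_smul, smul_eq_mul]
    have e : fan b0 b1 G ζ 0 2 = (b1 2 + b1 0 * slp b0 b1 2 ζ) / 512 := rfl
    rw [e]
    linear_combination h2 / 2 + slp b0 b1 2 ζ * h0 / 2

/-- `sec` is the second order part of the fan -/
theorem Rep.sec_eq (R : Rep Q f X0 τ c b0 b1 G) (hc : c ≠ 0) {t ζ : ℝ} (ht : t ≠ 0) :
    sec Q (t • f 0) (X0 + ζ • τ) (f 1) (f 1) = 64 * c * fan b0 b1 G ζ 1 1 ∧
      sec Q (t • f 0) (X0 + ζ • τ) (f 1) (f 2) = 64 * c * fan b0 b1 G ζ 1 2 ∧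
      sec Q (t • f 0) (X0 + ζ • τ) (f 2) (f 2) = 64 * c * fan b0 b1 G ζ 2 2 := by
  obtain ⟨l1, l2⟩ := R.lift_eq hc (ζ := ζ) ht
  have h00 := R.H00
  have h11 := R.H11
  have h22 := R.H22
  have h01 := R.H01
  have h02 := R.H02
  have h12 := R.H12
  refine ⟨?_, ?_, ?_⟩
  · unfold sec
    rw [l1]
    simp only [map_add, map_smul, LinearMap.add_apply, LinearMap.smul_apply, smul_eq_mul,
      Q.symm (f 0) (f 1)]
    have e : fan b0 b1 G ζ 1 1 =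
      (G.uu + G.yu * slp b0 b1 1 ζ + G.yy * slp b0 b1 1 ζ ^ 2) / 64 := rfl
    rw [e]
    linear_combination h11 + slp b0 b1 1 ζ * h01 + slp b0 b1 1 ζ ^ 2 * h00
  · unfold sec
    rw [l1, l2]
    simp only [map_add, map_smul, LinearMap.add_apply, LinearMap.smul_apply, smul_eq_mul,
      Q.symm (f 0) (f 2)]
    have e : fan b0 b1 G ζ 1 2 = (G.uv + G.yu * slp b0 b1 2 ζ + G.yv * slp b0 b1 1 ζ +
        2 * G.yy * (slp b0 b1 1 ζ * slp b0 b1 2 ζ)) / 128 := rfl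
    rw [e]
    linear_combination h12 / 2 + slp b0 b1 2 ζ * h01 / 2 + slp b0 b1 1 ζ * h02 / 2 +
      slp b0 b1 1 ζ * slp b0 b1 2 ζ * h00
  · unfold sec
    rw [l2]
    simp only [map_add, map_smul, LinearMap.add_apply, LinearMap.smul_apply, smul_eq_mul,
      Q.symm (f 0) (f 2)]
    have e : fan b0 b1 G ζ 2 2 =
      (G.vv + G.yv * slp b0 b1 2 ζ + G.yy * slp b0 b1 2 ζ ^ 2) / 64 := rfl
    rw [e]
    linear_combination h22 + slp b0 b1 2 ζ * h02 + slp b0 b1 2 ζ ^ 2 * h00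

/-- **the determinants** : `det3 (fanQ ..) = 2 ^ 22 c³ det3 (fan ..) + O(H τ τ)` -/
theorem Rep.det3_eq (R : Rep Q f X0 τ c b0 b1 G) (hc : c ≠ 0) {t ζ : ℝ} (ht : t ≠ 0) :
    det3 (fanQ Q (f 1) (f 2) (t • f 0) (X0 + ζ • τ) τ) =
      4194304 * c ^ 3 * det3 (fan b0 b1 G ζ) + Q.H τ τ * (4096 * c ^ 2 *
        (fan b0 b1 G ζ 1 1 * fan b0 b1 G ζ 2 2 - fan b0 b1 G ζ 1 2 ^ 2)) := by
  obtain ⟨e1, e2⟩ := R.bet_eq hc (ζ := ζ) ht
  obtain ⟨e3, e4, e5⟩ := R.sec_eq hc (ζ := ζ) ht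
  rw [det3_fanQ, e1, e2, e3, e4, e5]
  have e0 : fan b0 b1 G ζ 0 0 = 0 := rfl
  unfold D3 det3
  rw [e0]; ring

/-- bounds of the scaled coefficients for any `κ ≥ kap` -/
theorem sc_bounds {κ : ℝ} (N : NrmC b0 b1 G) (hκ0 : 0 < κ) (hκ : kap b0 b1 G ≤ κ) (hκ1 : κ ≤ 13)
    {ζ : ℝ} (hζ : 0 ≤ ζ) (hζ1 : ζ ≤ 1) :
    (1 / 2 ≤ b0 0 + ζ * b1 0 ∧ b0 0 + ζ * b1 0 ≤ 2) ∧ (|slp b0 b1 1 ζ| ≤ 2 ∧ |slp b0 b1 2 ζ| ≤ 2) ∧
      |fan (shB0 b0) (scB1 κ b0 b1) (scG κ b0 G) ζ 0 1| ≤ 1 / 128 ∧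
      |fan (shB0 b0) (scB1 κ b0 b1) (scG κ b0 G) ζ 0 2| ≤ 1 / 128 ∧
      |fan (shB0 b0) (scB1 κ b0 b1) (scG κ b0 G) ζ 1 1| ≤ 63 / 64 ∧
      |fan (shB0 b0) (scB1 κ b0 b1) (scG κ b0 G) ζ 1 2| ≤ 63 / 64 ∧
      |fan (shB0 b0) (scB1 κ b0 b1) (scG κ b0 G) ζ 2 2| ≤ 63 / 64 := by
  have a0 : |(0 : ℝ)| ≤ 1 := by norm_num
  have hg := N.st ζ hζ hζ1 0 0 0 a0 a0 a0
  simp only [mul_zero, add_zero] at hg
  have hg0 := N.st 0 le_rfl zero_le_one 0 0 0 a0 a0 a0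
  simp only [mul_zero, add_zero, zero_mul] at hg0
  have gp : 0 < b0 0 + ζ * b1 0 := by linarith only [hg.1]
  have gp0 : 0 < b0 0 := by linarith only [hg0.1]
  obtain ⟨h1, h2, h3, h4, h5, h6, h7⟩ := N.sh_le
  obtain ⟨m1, -⟩ := N.G_le
  have k1 : |shB1 b0 b1 1| ≤ κ := ((le_max_left _ _).trans (le_max_left _ _)).trans hκ
  have k2 : |shB1 b0 b1 2| ≤ κ := ((le_max_right _ _).trans (le_max_left _ _)).trans hκ
  have k3 : |(shG b0 G).uu| ≤ κ :=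
    ((le_max_left _ _).trans ((le_max_left _ _).trans (le_max_right _ _))).trans hκ
  have k4 : |(shG b0 G).uv| ≤ κ :=
    ((le_max_right _ _).trans ((le_max_left _ _).trans (le_max_right _ _))).trans hκ
  have k5 : |(shG b0 G).vv| ≤ κ := ((le_max_right _ _).trans (le_max_right _ _)).trans hκ
  have d : ∀ {x : ℝ}, |x| ≤ κ → |x / κ| ≤ 1 := by
    intro x hx
    rw [abs_div, abs_of_pos hκ0, div_le_one hκ0]; exact hx
  have hyy : |κ * G.yy| ≤ 13 * 1 :=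
    abs_mul_le (abs_le.2 ⟨by linarith only [hκ0], hκ1⟩) m1
  -- slopes
  have sl : ∀ k, |b0 k| ≤ 1 → |b0 k + b1 k| ≤ 1 →
      |-(b0 k + ζ * b1 k) / (b0 0 + ζ * b1 0)| ≤ 2 := by
    intro k e1 e2
    rw [abs_div, abs_neg, abs_of_pos gp, div_le_iff₀ gp]
    have e3 : b0 k + ζ * b1 k = (1 - ζ) * b0 k + ζ * (b0 k + b1 k) := by ring
    have e4 : |b0 k + ζ * b1 k| ≤ 1 := by
      rw [e3]
      refine (abs_add_le _ _).trans ?_
      rw [abs_mul, abs_mul, abs_of_nonneg (by linarith only [hζ1] : 0 ≤ 1 - ζ), abs_of_nonneg hζ]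
      nlinarith only [e1, e2, hζ, hζ1]
    linarith only [e4, hg.1]
  have sl' : ∀ {t : ℝ}, |t / κ| ≤ 1 → |-(0 + ζ * (t / κ)) / (b0 0 + ζ * b1 0)| ≤ 2 := by
    intro t e1
    rw [abs_div, abs_neg, abs_of_pos gp, div_le_iff₀ gp, zero_add, abs_mul, abs_of_nonneg hζ]
    nlinarith only [e1, hζ, hζ1, hg.1, abs_nonneg (t / κ)]
  have s1 : |slp (shB0 b0) (scB1 κ b0 b1) 1 ζ| ≤ 2 := sl' (d k1)
  have s2 : |slp (shB0 b0) (scB1 κ b0 b1) 2 ζ| ≤ 2 := sl' (d k2)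
  obtain ⟨f1, f2⟩ := slp_scaled (b1 := b1) (κ := κ) gp0.ne' gp.ne' hκ0.ne'
  have rot : ∀ {t : ℝ}, |t / κ| ≤ 1 →
      |(t / κ + b1 0 * (-(0 + ζ * (t / κ)) / (b0 0 + ζ * b1 0))) / 512| ≤ 1 / 128 := by
    intro t e1
    have e2 : t / κ + b1 0 * (-(0 + ζ * (t / κ)) / (b0 0 + ζ * b1 0)) =
        (t / κ) * (b0 0 / (b0 0 + ζ * b1 0)) := by
      have hne := gp.ne'
      rw [zero_add]
      generalize hG' : b0 0 + ζ * b1 0 = g' at *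
      generalize t / κ = X at *
      field_simp
      linear_combination (-X) * hG'
    have e3 : |b0 0 / (b0 0 + ζ * b1 0)| ≤ 4 := by
      rw [abs_div, abs_of_pos gp, abs_of_pos gp0, div_le_iff₀ gp]
      linarith only [hg.1, hg0.2]
    rw [e2, abs_div, abs_of_pos (by norm_num : (0 : ℝ) < 512)]
    have := abs_mul_le e1 e3
    linarith only [this]
  have t2 : |(2 : ℝ)| ≤ 2 := by norm_num
  refine ⟨hg, ⟨sl 1 N.b01 N.b11, sl 2 N.b02 N.b12⟩, ?_, ?_, ?_, ?_, ?_⟩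
  · exact rot (d k1)
  · exact rot (d k2)
  · change |((shG b0 G).uu / κ + (shG b0 G).yu * slp (shB0 b0) (scB1 κ b0 b1) 1 ζ +
      κ * G.yy * slp (shB0 b0) (scB1 κ b0 b1) 1 ζ ^ 2) / 64| ≤ 63 / 64
    rw [abs_div, abs_of_pos (by norm_num : (0 : ℝ) < 64)]
    have := abs_add2 (abs_add2 (d k3) (abs_mul_le h3 s1)) (abs_mul_le hyy
      (show |slp (shB0 b0) (scB1 κ b0 b1) 1 ζ ^ 2| ≤ 2 * 2 by rw [sq]; exact abs_mul_le s1 s1))
    linarith only [this]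
  · change |((shG b0 G).uv / κ + (shG b0 G).yu * slp (shB0 b0) (scB1 κ b0 b1) 2 ζ +
      (shG b0 G).yv * slp (shB0 b0) (scB1 κ b0 b1) 1 ζ + 2 * (κ * G.yy) *
      (slp (shB0 b0) (scB1 κ b0 b1) 1 ζ * slp (shB0 b0) (scB1 κ b0 b1) 2 ζ)) / 128| ≤ 63 / 64
    rw [abs_div, abs_of_pos (by norm_num : (0 : ℝ) < 128)]
    have := abs_add2 (abs_add2 (abs_add2 (d k4) (abs_mul_le h3 s2)) (abs_mul_le h4 s1))
      (abs_mul_le (abs_mul_le t2 hyy) (abs_mul_le s1 s2))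
    linarith only [this]
  · change |((shG b0 G).vv / κ + (shG b0 G).yv * slp (shB0 b0) (scB1 κ b0 b1) 2 ζ +
      κ * G.yy * slp (shB0 b0) (scB1 κ b0 b1) 2 ζ ^ 2) / 64| ≤ 63 / 64
    rw [abs_div, abs_of_pos (by norm_num : (0 : ℝ) < 64)]
    have := abs_add2 (abs_add2 (d k5) (abs_mul_le h4 s2)) (abs_mul_le hyy
      (show |slp (shB0 b0) (scB1 κ b0 b1) 2 ζ ^ 2| ≤ 2 * 2 by rw [sq]; exact abs_mul_le s2 s2))
    linarith only [this]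

/-- **the frame bounds along the line**, value divided by `κ w 2`, steep vector `κ • f 0` -/
theorem Rep.frm {κ : ℝ} (R : Rep Q f X0 τ κ⁻¹ b0 b1 G) (N : NrmC b0 b1 G) (hκ0 : 0 < κ)
    (hκ : kap b0 b1 G ≤ κ) (hκ1 : κ ≤ 13) {ζ : ℝ} (hζ : 0 ≤ ζ) (hζ1 : ζ ≤ 1) :
    Frm Q (f 1) (f 2) (κ • f 0) (X0 + ζ • τ) τ 63 := by
  obtain ⟨hg, ⟨s1, s2⟩, f01, f02, f11, f12, f22⟩ := sc_bounds N hκ0 hκ hκ1 hζ hζ1
  have a0 : |(0 : ℝ)| ≤ 1 := by norm_num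
  have hg0 := N.st 0 le_rfl zero_le_one 0 0 0 a0 a0 a0
  simp only [mul_zero, add_zero, zero_mul] at hg0
  have gp : b0 0 + ζ * b1 0 ≠ 0 := ne_of_gt (by linarith only [hg.1])
  have gp0 : b0 0 ≠ 0 := ne_of_gt (by linarith only [hg0.1])
  have hc : κ⁻¹ ≠ 0 := inv_ne_zero hκ0.ne'
  have hs : ∀ i j, κ⁻¹ * fan b0 b1 G ζ i j =
      fan (shB0 b0) (scB1 κ b0 b1) (scG κ b0 G) ζ i j := by
    intro i j
    rw [fan_scaled gp0 gp hκ0.ne']; ring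
  obtain ⟨e1, e2⟩ := R.bet_eq hc (ζ := ζ) hκ0.ne'
  obtain ⟨e3, e4, e5⟩ := R.sec_eq hc (ζ := ζ) hκ0.ne'
  rw [mul_assoc, hs] at e1 e2 e3 e4 e5
  obtain ⟨l1, l2⟩ := R.lift_eq hc (ζ := ζ) hκ0.ne'
  obtain ⟨m1, m2, m3, m4, m5, m6⟩ := N.G_le
  have n1 : |b1 0| ≤ 3 / 2 := N.b1_le.2.2.2.2.1
  have hYY : κ * (κ * (κ⁻¹ * G.yy)) = κ * G.yy := by
    rw [← mul_assoc κ κ⁻¹, mul_inv_cancel₀ hκ0.ne', one_mul]
  refine ⟨by norm_num, ?_, ?_, ?_, ?_, ?_, ?_, ?_, ?_, ?_, ?_, ?_⟩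
  · rw [Q.G_smul, R.G0, ← mul_assoc, mul_inv_cancel₀ hκ0.ne', one_mul]; exact hg.1
  · rw [Q.G_smul, R.G0, ← mul_assoc, mul_inv_cancel₀ hκ0.ne', one_mul]; exact hg.2
  · change |sec Q (κ • f 0) (X0 + ζ • τ) (f 1) (f 1)| ≤ 63
    rw [e3]
    have := abs_mul_le (by norm_num : |(64 : ℝ)| ≤ 64) f11
    linarith only [this]
  · change |sec Q (κ • f 0) (X0 + ζ • τ) (f 1) (f 2)| ≤ 63
    rw [e4]
    have := abs_mul_le (by norm_num : |(64 : ℝ)| ≤ 64) f12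
    linarith only [this]
  · change |sec Q (κ • f 0) (X0 + ζ • τ) (f 2) (f 2)| ≤ 63
    rw [e5]
    have := abs_mul_le (by norm_num : |(64 : ℝ)| ≤ 64) f22
    linarith only [this]
  · rw [l1]
    have e6 : Q.H (f 1 + slp b0 b1 1 ζ • f 0) (κ • f 0) = G.yu / 2 + slp b0 b1 1 ζ * G.yy := by
      rw [map_smul, smul_eq_mul, map_add, map_smul, LinearMap.add_apply, LinearMap.smul_apply,
        smul_eq_mul, R.H00]
      have h01 := R.H01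
      have : κ * κ⁻¹ = 1 := mul_inv_cancel₀ hκ0.ne'
      linear_combination κ / 2 * h01 + (G.yu / 2 + slp b0 b1 1 ζ * G.yy) * this
    rw [e6]
    have h2 : |G.yu / 2| ≤ 1 := by rw [abs_div, abs_two]; linarith only [m2]
    have := abs_add2 h2 (abs_mul_le s1 m1)
    linarith only [this]
  · rw [l2]
    have e6 : Q.H (f 2 + slp b0 b1 2 ζ • f 0) (κ • f 0) = G.yv / 2 + slp b0 b1 2 ζ * G.yy := by
      rw [map_smul, smul_eq_mul, map_add, map_smul, LinearMap.add_apply, LinearMap.smul_apply,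
        smul_eq_mul, R.H00]
      have h02 := R.H02
      have : κ * κ⁻¹ = 1 := mul_inv_cancel₀ hκ0.ne'
      linear_combination κ / 2 * h02 + (G.yv / 2 + slp b0 b1 2 ζ * G.yy) * this
    rw [e6]
    have h2 : |G.yv / 2| ≤ 1 := by rw [abs_div, abs_two]; linarith only [m3]
    have := abs_add2 h2 (abs_mul_le s2 m1)
    linarith only [this]
  · simp only [map_smul, LinearMap.smul_apply, smul_eq_mul]
    rw [R.H00, hYY]
    have := abs_mul_le (abs_le.2 ⟨by linarith only [hκ0], hκ1⟩ : |κ| ≤ 13) m1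
    linarith only [this]
  · change |bet Q (κ • f 0) (X0 + ζ • τ) τ (f 1)| ≤ 63
    rw [e1]
    have := abs_mul_le (by norm_num : |(256 : ℝ)| ≤ 256) f01
    linarith only [this]
  · change |bet Q (κ • f 0) (X0 + ζ • τ) τ (f 2)| ≤ 63
    rw [e2]
    have := abs_mul_le (by norm_num : |(256 : ℝ)| ≤ 256) f02
    linarith only [this]
  · rw [map_smul, smul_eq_mul]
    have e6 : κ * Q.H τ (f 0) = b1 0 / 2 := by
      have h0 := R.Hτ.1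
      have : κ * κ⁻¹ = 1 := mul_inv_cancel₀ hκ0.ne'
      linear_combination κ / 2 * h0 + b1 0 / 2 * this
    rw [e6, abs_div, abs_two]
    linarith only [n1]

/-- **the determinant in 102's literal** -/
theorem Rep.det3_kap {κ : ℝ} (R : Rep Q f X0 τ κ⁻¹ b0 b1 G) (N : NrmC b0 b1 G) (hκ0 : 0 < κ)
    (hκ : kap b0 b1 G ≤ κ) (hκ1 : κ ≤ 13) {ζ : ℝ} (hζ : 0 ≤ ζ) (hζ1 : ζ ≤ 1) :
    |det3 (fanQ Q (f 1) (f 2) (κ • f 0) (X0 + ζ • τ) τ) -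
      4194304 * det3 (fan (shB0 b0) (scB1 κ b0 b1) (scG κ b0 G) ζ)| ≤ 8192 * |Q.H τ τ| := by
  obtain ⟨hg, -, -, -, f11, f12, f22⟩ := sc_bounds N hκ0 hκ hκ1 hζ hζ1
  have a0 : |(0 : ℝ)| ≤ 1 := by norm_num
  have hg0 := N.st 0 le_rfl zero_le_one 0 0 0 a0 a0 a0
  simp only [mul_zero, add_zero, zero_mul] at hg0
  have gp : b0 0 + ζ * b1 0 ≠ 0 := ne_of_gt (by linarith only [hg.1])
  have gp0 : b0 0 ≠ 0 := ne_of_gt (by linarith only [hg0.1])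
  have hc : κ⁻¹ ≠ 0 := inv_ne_zero hκ0.ne'
  have hs : ∀ i j, fan b0 b1 G ζ i j = κ * fan (shB0 b0) (scB1 κ b0 b1) (scG κ b0 G) ζ i j := by
    intro i j
    rw [fan_scaled gp0 gp hκ0.ne', mul_div_cancel₀ _ hκ0.ne']
  rw [R.det3_eq hc hκ0.ne', det3_scaled gp0 gp hκ0.ne', hs 1 1, hs 1 2, hs 2 2]
  set f1 := fan (shB0 b0) (scB1 κ b0 b1) (scG κ b0 G) ζ 1 1
  set f2 := fan (shB0 b0) (scB1 κ b0 b1) (scG κ b0 G) ζ 1 2
  set f3 := fan (shB0 b0) (scB1 κ b0 b1) (scG κ b0 G) ζ 2 2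
  have e1 : 4194304 * κ⁻¹ ^ 3 * det3 (fan b0 b1 G ζ) +
      Q.H τ τ * (4096 * κ⁻¹ ^ 2 * (κ * f1 * (κ * f3) - (κ * f2) ^ 2)) -
      4194304 * (det3 (fan b0 b1 G ζ) / κ ^ 3) = 4096 * (f1 * f3 - f2 * f2) * Q.H τ τ := by
    field_simp
    ring
  rw [e1, abs_mul]
  refine mul_le_mul_of_nonneg_right ?_ (abs_nonneg _)
  have := abs_mul_le (by norm_num : |(4096 : ℝ)| ≤ 4096)
    (abs_sub2 (abs_mul_le f11 f22) (abs_mul_le f12 f12))
  linarith only [this]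

end rep

/-! ### `IsExp` gives `Rep` -/

/-- **the dictionary** : `Q.f = N q` on space-time -/
theorem rep_of_isExp {q : ℝ → V3 → ℝ} {e : Fin 3 → V3} {w : V3} {T : Ln4} {z0 ρ : ℝ} {b0 b1 : V3}
    {G : QF} {N : ℝ} {Q : QP (ℝ × V3)} (hQ : ∀ z X, Q.f (z, X) = N * q z X)
    (h : IsExp q e w T z0 ρ b0 b1 G) :
    Rep Q (fun k => ((0 : ℝ), fr e w k)) (z0, T.pos z0) (ρ, ρ • T.v) (N * w 0) b0 b1 G := by
  intro ζ x
  have e1 : ((z0, T.pos z0) : ℝ × V3) + ζ • ((ρ, ρ • T.v) : ℝ × V3) =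
      (z0 + ρ * ζ, T.pos (z0 + ρ * ζ)) := by
    refine Prod.ext ?_ ?_
    · simp only [Prod.fst_add, Prod.smul_fst, smul_eq_mul]; ring
    · funext i
      simp only [Prod.snd_add, Prod.smul_snd, Pi.add_apply, Pi.smul_apply, smul_eq_mul, Ln4.pos]
      ring
  have e2 : ((z0 + ρ * ζ, T.pos (z0 + ρ * ζ)) : ℝ × V3) + (x 0 • ((0 : ℝ), fr e w 0) +
      x 1 • ((0 : ℝ), fr e w 1) + x 2 • ((0 : ℝ), fr e w 2)) =
      (z0 + ρ * ζ, T.pos (z0 + ρ * ζ) + cmb (fr e w) x) := by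
    refine Prod.ext ?_ ?_
    · simp only [Prod.fst_add, Prod.smul_fst, smul_zero, add_zero]
    · funext i
      simp only [Prod.snd_add, Prod.smul_snd, Pi.add_apply, Pi.smul_apply, smul_eq_mul, cmb]
  rw [e1]
  change Q.f ((z0 + ρ * ζ, T.pos (z0 + ρ * ζ)) + (x 0 • ((0 : ℝ), fr e w 0) +
      x 1 • ((0 : ℝ), fr e w 1) + x 2 • ((0 : ℝ), fr e w 2))) = _
  rw [e2, hQ, hQ, h ζ x]
  ring

end Crest.Agent.R136.Fn880
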