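import Crest.Agent.R136.Nd3_214
import Crest.Agent.R136.Cap1_102

/-!
# R136, non-degeneracy of near-maximal sheets (helper214), part 4: the normalised quadratic polynomial
of a sheet in the plank coordinates around one of its lines (dictionary of Cap1_102)
-/

set_option autoImplicit false
set_option linter.unusedVariables false

namespace Crest.Agent.R136.Nd214

open Crest.Agent.R136.Tl214 Crest.Agent.R136.Tl102
open Crest.Agent.R136.Sh605 (V3 dt Ln4 InK InSheet ShN Ortho IsQ)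

/-- (height, plank coordinates) -/
abbrev V4 := ℝ × V3

/-- the linear part of `qB` -/
noncomputable def lB (φ : V3) (κ : ℝ) (b0 : V3) : V4 →ₗ[ℝ] ℝ where
  toFun X := φ 1 * X.1 + κ⁻¹ * dt b0 X.2
  map_add' X Y := by
    simp only [dt, Prod.fst_add, Prod.snd_add, Pi.add_apply]; ring
  map_smul' c X := by
    simp only [dt, Prod.smul_fst, Prod.smul_snd, Pi.smul_apply, smul_eq_mul, RingHom.id_apply]; ring

/-- the second order part of `qB` -/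
noncomputable def HB (φ : V3) (κ : ℝ) (b1 : V3) (G : QF) : V4 →ₗ[ℝ] V4 →ₗ[ℝ] ℝ :=
  LinearMap.mk₂ ℝ
    (fun X Y => φ 2 * (X.1 * Y.1) + κ⁻¹ * ((X.1 * dt b1 Y.2 + Y.1 * dt b1 X.2 + G.pol X.2 Y.2) / 2))
    (by
      intro X X' Y
      simp only [dt, QF.pol, Prod.fst_add, Prod.snd_add, Pi.add_apply]; ring)
    (by
      intro c X Y
      simp only [dt, QF.pol, Prod.smul_fst, Prod.smul_snd, Pi.smul_apply, smul_eq_mul]; ring)
    (by
      intro X Y Y'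
      simp only [dt, QF.pol, Prod.fst_add, Prod.snd_add, Pi.add_apply]; ring)
    (by
      intro c X Y
      simp only [dt, QF.pol, Prod.smul_fst, Prod.smul_snd, Pi.smul_apply, smul_eq_mul]; ring)

/-- **the normalised quadratic polynomial** `φ 0 + φ 1 ζ + φ 2 ζ² + κ⁻¹ Fq b0 b1 G ζ x` on
`(ζ, x) ∈ ℝ × V3` -/
noncomputable def qB (φ : V3) (κ : ℝ) (b0 b1 : V3) (G : QF) : QP V4 where
  c := φ 0
  l := lB φ κ b0
  H := HB φ κ b1 G
  symm X Y := by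
    simp only [HB, LinearMap.mk₂_apply, QF.pol]; ring

theorem qB_H (φ : V3) (κ : ℝ) (b0 b1 : V3) (G : QF) (X Y : V4) : (qB φ κ b0 b1 G).H X Y =
    φ 2 * (X.1 * Y.1) + κ⁻¹ * ((X.1 * dt b1 Y.2 + Y.1 * dt b1 X.2 + G.pol X.2 Y.2) / 2) := rfl

theorem qB_l (φ : V3) (κ : ℝ) (b0 b1 : V3) (G : QF) (X : V4) :
    (qB φ κ b0 b1 G).l X = φ 1 * X.1 + κ⁻¹ * dt b0 X.2 := rfl

theorem qB_f (φ : V3) (κ : ℝ) (b0 b1 : V3) (G : QF) (ζ : ℝ) (x : V3) :
    (qB φ κ b0 b1 G).f (ζ, x) = (φ 0 + φ 1 * ζ + φ 2 * ζ ^ 2) + κ⁻¹ * Fq b0 b1 G ζ x := by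
  change φ 0 + (φ 1 * ζ + κ⁻¹ * dt b0 x) + (φ 2 * (ζ * ζ) +
    κ⁻¹ * ((ζ * dt b1 x + ζ * dt b1 x + G.pol x x) / 2)) = _
  simp only [Fq, bz, dt, QF.ev, QF.pol]
  ring

theorem qB_G (φ : V3) (κ : ℝ) (b0 b1 : V3) (G : QF) (ζ : ℝ) (x : V3) (ω : ℝ) (y : V3) :
    (qB φ κ b0 b1 G).G (ζ, x) (ω, y) = (φ 1 * ω + 2 * φ 2 * ζ * ω) +
      κ⁻¹ * (dt (bz b0 b1 ζ) y + ω * dt b1 x + G.pol x y) := by
  simp only [QP.G, qB_H, qB_l, bz, dt, QF.pol]
  ring

/-- lateral directions, tangent at height `ζ = 0` -/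
noncomputable def eA (b0 : V3) : V4 := (0, ![-(b0 1 / b0 0), 1, 0])

noncomputable def eB (b0 : V3) : V4 := (0, ![-(b0 2 / b0 0), 0, 1])

/-- steep direction, length `κ` -/
def eY (κ : ℝ) : V4 := (0, ![κ, 0, 0])

/-- the central line -/
def eT : V4 := (1, 0)

end Crest.Agent.R136.Nd214
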