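import Crest.Agent.R136.Fn1_880
import Crest.Agent.R136.Nd4_214

/-!
# R136: the seam between `qB` (Nd4_214) and 102's fan (helper880)

`det3_qB` : `|det3 (fanQ (qB φ κ b0 b1 G) (eA b0) (eB b0) (eY κ) (ζ • eT) eT) -
  2 ^ 22 * det3 (fan (shB0 b0) (scB1 κ b0 b1) (scG κ b0 G) ζ)| ≤ 8192 |φ 2|`.
-/

set_option autoImplicit false
set_option linter.unusedVariables false

namespace Crest.Agent.R136.Fn880

open Crest.Agent.R136.Sh605 (V3 Ln4 dt IsQ)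
open Crest.Agent.R136.Arc880 (det3 abs_mul_le abs_add2 abs_sub2)
open Crest.Agent.R136.Tl214 (QP lift)
open Crest.Agent.R136.Nd214 (bet sec Frm Two V4 qB qB_f qB_H qB_G eA eB eY eT lift_add' lift_smul')
open Crest.Agent.R136.Tl102 (QF Fq bz fan slp shB0 scB1 scG shG shB1 kap NrmC IsExp fr cmb)
open Crest.Agent.R136.Nd880 (fanQ D3 det3_fanQ lift_eY)

/-- the plank frame of `V4` -/
def fV : Fin 3 → V4 := ![((0 : ℝ), ![1, 0, 0]), ((0 : ℝ), ![0, 1, 0]), ((0 : ℝ), ![0, 0, 1])]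

theorem fV0 : fV 0 = ((0 : ℝ), ![1, 0, 0]) := rfl
theorem fV1 : fV 1 = ((0 : ℝ), ![0, 1, 0]) := rfl
theorem fV2 : fV 2 = ((0 : ℝ), ![0, 0, 1]) := rfl

theorem eY_eq (κ : ℝ) : eY κ = κ • fV 0 := by
  rw [fV0]
  refine Prod.ext ?_ ?_
  · simp [eY]
  · funext i
    fin_cases i <;> simp [eY]

theorem eA_eq (b0 : V3) : eA b0 = fV 1 + (-(b0 1 / b0 0)) • fV 0 := by
  rw [fV0, fV1]
  refine Prod.ext ?_ ?_
  · simp [eA]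
  · funext i
    fin_cases i <;> simp [eA]

theorem eB_eq (b0 : V3) : eB b0 = fV 2 + (-(b0 2 / b0 0)) • fV 0 := by
  rw [fV0, fV2]
  refine Prod.ext ?_ ?_
  · simp [eB]
  · funext i
    fin_cases i <;> simp [eB]

theorem rep_qB (φ : V3) (κ : ℝ) (b0 b1 : V3) (G : QF) :
    Rep (qB φ κ b0 b1 G) fV 0 eT κ⁻¹ b0 b1 G := by
  intro ζ x
  have e1 : (0 : V4) + ζ • eT = (ζ, 0) := by
    refine Prod.ext ?_ ?_
    · simp [eT]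
    · simp [eT]
  have e2 : ((ζ, 0) : V4) + (x 0 • fV 0 + x 1 • fV 1 + x 2 • fV 2) = (ζ, x) := by
    rw [fV0, fV1, fV2]
    refine Prod.ext ?_ ?_
    · simp
    · funext i
      fin_cases i <;> simp
  rw [e1, e2, qB_f, qB_f]
  have e3 : Fq b0 b1 G ζ 0 = 0 := by simp [Fq, dt, QF.ev]
  rw [e3]; ring

theorem qB_Hττ (φ : V3) (κ : ℝ) (b0 b1 : V3) (G : QF) : (qB φ κ b0 b1 G).H eT eT = φ 2 := by
  rw [qB_H]
  simp [eT, dt, QF.pol]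

/-- `bet` and `sec` do not see the shear -/
theorem bet_qB {φ : V3} {κ : ℝ} {b0 b1 : V3} {G : QF} {x : V4} (hκ : κ ≠ 0)
    (h : (qB φ κ b0 b1 G).G x (eY κ) ≠ 0) :
    lift (qB φ κ b0 b1 G) (eY κ) x (eA b0) = lift (qB φ κ b0 b1 G) (κ • fV 0) x (fV 1) ∧
      lift (qB φ κ b0 b1 G) (eY κ) x (eB b0) = lift (qB φ κ b0 b1 G) (κ • fV 0) x (fV 2) := by
  have e0 : lift (qB φ κ b0 b1 G) (eY κ) x (fV 0) = 0 := by
    have e1 : fV 0 = κ⁻¹ • eY κ := by rw [eY_eq, smul_smul, inv_mul_cancel₀ hκ, one_smul]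
    rw [e1, lift_smul', lift_eY h, smul_zero]
  constructor
  · rw [eA_eq, lift_add', lift_smul', e0, smul_zero, add_zero, eY_eq]
  · rw [eB_eq, lift_add', lift_smul', e0, smul_zero, add_zero, eY_eq]

theorem fanQ_qB {φ : V3} {κ : ℝ} {b0 b1 : V3} {G : QF} {x τ : V4} (hκ : κ ≠ 0)
    (h : (qB φ κ b0 b1 G).G x (eY κ) ≠ 0) :
    fanQ (qB φ κ b0 b1 G) (eA b0) (eB b0) (eY κ) x τ =
      fanQ (qB φ κ b0 b1 G) (fV 1) (fV 2) (κ • fV 0) x τ := by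
  obtain ⟨e1, e2⟩ := bet_qB hκ h
  unfold fanQ bet sec
  rw [e1, e2]

/-- the normal derivative along the central line -/
theorem G_qB (φ : V3) {κ : ℝ} (b0 b1 : V3) (G : QF) (hκ : κ ≠ 0) (ζ : ℝ) :
    (qB φ κ b0 b1 G).G (ζ • eT) (eY κ) = b0 0 + ζ * b1 0 := by
  have h := (rep_qB φ κ b0 b1 G).G0 ζ
  rw [zero_add] at h
  rw [eY_eq, QP.G_smul, h, ← mul_assoc, mul_inv_cancel₀ hκ, one_mul]

/-- **the seam** -/
theorem det3_qB {φ : V3} {κ : ℝ} {b0 b1 : V3} {G : QF} (N : NrmC b0 b1 G) (hκ0 : 0 < κ)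
    (hκ : kap b0 b1 G ≤ κ) (hκ1 : κ ≤ 13) {ζ : ℝ} (hζ : 0 ≤ ζ) (hζ1 : ζ ≤ 1) :
    |det3 (fanQ (qB φ κ b0 b1 G) (eA b0) (eB b0) (eY κ) (ζ • eT) eT) -
      2 ^ 22 * det3 (fan (shB0 b0) (scB1 κ b0 b1) (scG κ b0 G) ζ)| ≤ 8192 * |φ 2| := by
  obtain ⟨hg, -⟩ := sc_bounds N hκ0 hκ hκ1 hζ hζ1
  have h1 := (rep_qB φ κ b0 b1 G).det3_kap N hκ0 hκ hκ1 hζ hζ1
  rw [zero_add, qB_Hττ] at h1
  rw [fanQ_qB hκ0.ne' (by rw [G_qB _ _ _ _ hκ0.ne']; exact ne_of_gt (by linarith only [hg.1]))]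
  have e : (2 : ℝ) ^ 22 = 4194304 := by norm_num
  rw [e]; exact h1

/-- frame bounds along the central line -/
theorem frm_qB {φ : V3} {κ : ℝ} {b0 b1 : V3} {G : QF} (N : NrmC b0 b1 G) (hκ0 : 0 < κ)
    (hκ : kap b0 b1 G ≤ κ) (hκ1 : κ ≤ 13) {ζ : ℝ} (hζ : 0 ≤ ζ) (hζ1 : ζ ≤ 1) :
    Frm (qB φ κ b0 b1 G) (fV 1) (fV 2) (eY κ) (ζ • eT) eT 63 := by
  have h1 := (rep_qB φ κ b0 b1 G).frm N hκ0 hκ hκ1 hζ hζ1
  rw [zero_add, ← eY_eq] at h1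
  exact h1

end Crest.Agent.R136.Fn880
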