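import Crest.Agent.R136.Brn_104
import Crest.Agent.R136.Cap2_102
import Crest.Agent.R136.Tlt0_51

/-!
# R136 (S0187), PLAN 2 (B1): the curvature extents of a sheet at two of its lines are comparable
(helper104)

`kapP_comp : kapP S z0 ρ T' ≤ 400000 * (S.a + kapP S z0 ρ T)` for two lines `T`, `T'` of `S`.
-/

set_option autoImplicit false
set_option linter.unusedVariables false

namespace Crest.Agent.R136.Kpc104

open Crest.Agent.R136.Sh605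
open Crest.Agent.R136.K4 (Plk4)
open Crest.Agent.R136.Tlt51 (Shp InP)
open Crest.Agent.R136.KapP335
open Crest.Agent.R136.Brn104
open Crest.Agent.R136.Tl102 (QF Fq bz shB0 shB1 shG kap NrmC IsExp fr cmb StP dt_cmb_fr pc cmb_pc)

/-- gradient of a quadratic form -/
def gr (G : QF) (x : V3) : V3 :=
  ![2 * G.yy * x 0 + G.yu * x 1 + G.yv * x 2, G.yu * x 0 + 2 * G.uu * x 1 + G.uv * x 2,
    G.yv * x 0 + G.uv * x 1 + 2 * G.vv * x 2]

theorem Fq_add (b0 b1 : V3) (G : QF) (ζ : ℝ) (x0 x1 y : V3) :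
    Fq b0 b1 G ζ (fun k => (x0 k + ζ * x1 k) + y k) =
      Fq b0 b1 G ζ (fun k => x0 k + ζ * x1 k) +
        Fq (fun k => b0 k + gr G x0 k) (fun k => b1 k + gr G x1 k) G ζ y := by
  simp only [Fq, dt, bz, QF.ev, gr, Matrix.cons_val]
  ring

/-- the expansion around another line -/
theorem isExp_shift {q : ℝ → V3 → ℝ} {e : Fin 3 → V3} (he : Ortho e) {w : V3}
    (hw : ∀ k, w k ≠ 0) {T T' : Ln4} {z0 ρ : ℝ} {b0 b1 : V3} {G : QF}
    (h : IsExp q e w T z0 ρ b0 b1 G) {x0 x1 : V3}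
    (hx : ∀ ζ k, dt (e k) (T'.pos (z0 + ρ * ζ) - T.pos (z0 + ρ * ζ)) / w k = x0 k + ζ * x1 k) :
    IsExp q e w T' z0 ρ (fun k => b0 k + gr G x0 k) (fun k => b1 k + gr G x1 k) G := by
  intro ζ y
  have e1 : T'.pos (z0 + ρ * ζ) = T.pos (z0 + ρ * ζ) + cmb (fr e w) (fun k => x0 k + ζ * x1 k) := by
    have h1 := cmb_pc he hw T (z0 + ρ * ζ) (T'.pos (z0 + ρ * ζ))
    have h2 : pc e w T (z0 + ρ * ζ) (T'.pos (z0 + ρ * ζ)) = fun k => x0 k + ζ * x1 k := by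
      funext k; exact hx ζ k
    rw [h2] at h1
    exact h1.symm
  have e2 : T'.pos (z0 + ρ * ζ) + cmb (fr e w) y =
      T.pos (z0 + ρ * ζ) + cmb (fr e w) (fun k => (x0 k + ζ * x1 k) + y k) := by
    rw [e1]
    funext i
    simp only [Pi.add_apply, cmb]
    ring
  rw [e2, h, e1, h, Fq_add]
  ring

/-! ### algebra -/

theorem tan_gr {b0 : V3} (h : b0 0 ≠ 0) (G : QF) (x : V3) :
    gr G x 1 - b0 1 / b0 0 * gr G x 0 = (shG b0 G).yu * (x 0 + b0 1 / b0 0 * x 1 +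
      b0 2 / b0 0 * x 2) + (2 * (shG b0 G).uu * x 1 + (shG b0 G).uv * x 2) ∧
    gr G x 2 - b0 2 / b0 0 * gr G x 0 = (shG b0 G).yv * (x 0 + b0 1 / b0 0 * x 1 +
      b0 2 / b0 0 * x 2) + ((shG b0 G).uv * x 1 + 2 * (shG b0 G).vv * x 2) := by
  simp only [gr, shG, Matrix.cons_val]
  constructor <;> field_simp <;> ring

theorem three_le {p y g u v κ E : ℝ} (hp : |p| ≤ 5) (hy : |y| ≤ E)
    (hg : |g| ≤ κ * 3 * v) : |p * y + g| ≤ 5 * E + κ * 3 * v := by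
  refine (abs_add_le _ _).trans (add_le_add ?_ hg)
  rw [abs_mul]
  exact mul_le_mul hp hy (abs_nonneg _) (by norm_num)

theorem lat3 {a b κ u v m : ℝ} (ha : |a| ≤ κ) (hb : |b| ≤ κ) (hu : |u| ≤ m) (hv : |v| ≤ m) :
    |2 * a * u + b * v| ≤ κ * 3 * m := by
  have hκ : 0 ≤ κ := (abs_nonneg _).trans ha
  have h1 := mul_le_mul ha hu (abs_nonneg _) hκ
  have h2 := mul_le_mul hb hv (abs_nonneg _) hκ
  rw [← abs_mul] at h1 h2
  have h3 := abs_add_le (2 * a * u) (b * v)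
  have h4 : |2 * a * u| = 2 * |a * u| := by
    rw [mul_assoc, abs_mul, abs_of_pos (by norm_num : (0:ℝ) < 2)]
  linarith

theorem lat3' {a b κ u v m : ℝ} (ha : |a| ≤ κ) (hb : |b| ≤ κ) (hu : |u| ≤ m) (hv : |v| ≤ m) :
    |b * u + 2 * a * v| ≤ κ * 3 * m := by
  rw [add_comm]; exact lat3 ha hb hv hu

theorem sh_le {b0 : V3} {G : QF} (hG : G.Le 1) (hs1 : |b0 1 / b0 0| ≤ 2)
    (hs2 : |b0 2 / b0 0| ≤ 2) : |(shG b0 G).yu| ≤ 5 ∧ |(shG b0 G).yv| ≤ 5 := by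
  obtain ⟨m1, m2, m3, m4, m5, m6⟩ := hG
  simp only [shG]
  constructor
  · refine (abs_sub _ _).trans ?_
    rw [abs_mul, abs_mul, abs_of_pos (by norm_num : (0:ℝ) < 2)]
    have := mul_le_mul hs1 m1 (abs_nonneg _) (by norm_num)
    linarith
  · refine (abs_sub _ _).trans ?_
    rw [abs_mul, abs_mul, abs_of_pos (by norm_num : (0:ℝ) < 2)]
    have := mul_le_mul hs2 m1 (abs_nonneg _) (by norm_num)
    linarith

/-- `kap` at the second line -/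
theorem kap_alg {b0 b1 x0 x1 : V3} {G : QF} {E : ℝ} (hb : NrmC b0 b1 G)
    (hb' : NrmC (fun k => b0 k + gr G x0 k) (fun k => b1 k + gr G x1 k) G)
    (hx0 : ∀ k, |x0 k| ≤ 2) (hx1 : ∀ k, |x1 k| ≤ 4)
    (hy0 : |x0 0 + b0 1 / b0 0 * x0 1 + b0 2 / b0 0 * x0 2| ≤ E)
    (hy1 : |x1 0 + b0 1 / b0 0 * x1 1 + b0 2 / b0 0 * x1 2| ≤ 2 * E) :
    kap (fun k => b0 k + gr G x0 k) (fun k => b1 k + gr G x1 k) G ≤
      300 * (E + kap b0 b1 G) := by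
  obtain ⟨kb1, kb2, kuu, kuv, kvv⟩ := kap_comp b0 b1 G
  set κ := kap b0 b1 G with hκdef
  have hκ0 : 0 ≤ κ := (abs_nonneg _).trans kb1
  have hE0 : 0 ≤ E := (abs_nonneg _).trans hy0
  set c0 : V3 := fun k => b0 k + gr G x0 k with hc0
  set c1 : V3 := fun k => b1 k + gr G x1 k with hc1
  have a1 : |(1:ℝ)| ≤ 1 := by norm_num
  have a0 : |(0:ℝ)| ≤ 1 := by norm_num
  -- sizes
  have g0 := hb.st 0 le_rfl zero_le_one 0 0 0 a0 a0 a0
  have g0' := hb'.st 0 le_rfl zero_le_one 0 0 0 a0 a0 a0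
  have g1' := hb'.st 1 zero_le_one le_rfl 0 0 0 a0 a0 a0
  simp only [zero_mul, mul_zero, add_zero, one_mul] at g0 g0' g1'
  obtain ⟨gl, gu⟩ := g0
  obtain ⟨gl', gu'⟩ := g0'
  obtain ⟨gl1', gu1'⟩ := g1'
  have hbp : 0 < b0 0 := by linarith
  have hcp : 0 < c0 0 := by linarith
  have slope : ∀ {p r : ℝ}, 1 / 2 ≤ p → |r| ≤ 1 → |r / p| ≤ 2 := by
    intro p r hp hr
    rw [abs_div, abs_of_pos (by linarith : (0:ℝ) < p), div_le_iff₀ (by linarith)]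
    linarith
  have s1 := slope gl hb.b01
  have s2 := slope gl hb.b02
  have s1' := slope gl' hb'.b01
  have s2' := slope gl' hb'.b02
  have hc1 : |c1 0| ≤ 3 / 2 := by rw [abs_le]; constructor <;> linarith
  obtain ⟨m1, m2, m3, m4, m5, m6⟩ := hb.G_le
  obtain ⟨y1, y2⟩ := sh_le hb.G_le s1 s2
  obtain ⟨t1, t2⟩ := tan_gr hbp.ne' G x0
  obtain ⟨t3, t4⟩ := tan_gr hbp.ne' G x1
  set δ1 := c0 1 / c0 0 - b0 1 / b0 0 with hδ1
  set δ2 := c0 2 / c0 0 - b0 2 / b0 0 with hδ2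
  have d1 : c0 0 * δ1 = gr G x0 1 - b0 1 / b0 0 * gr G x0 0 := by
    rw [hδ1, mul_sub, mul_div_cancel₀ _ hcp.ne']
    simp only [hc0]
    field_simp
    ring
  have d2 : c0 0 * δ2 = gr G x0 2 - b0 2 / b0 0 * gr G x0 0 := by
    rw [hδ2, mul_sub, mul_div_cancel₀ _ hcp.ne']
    simp only [hc0]
    field_simp
    ring
  have n1 : |c0 0 * δ1| ≤ 5 * E + κ * 3 * 2 := by
    rw [d1, t1]
    exact three_le (u := 0) y1 hy0 (lat3 kuu kuv (hx0 1) (hx0 2))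
  have n2 : |c0 0 * δ2| ≤ 5 * E + κ * 3 * 2 := by
    rw [d2, t2]
    exact three_le (u := 0) y2 hy0 (lat3' kvv kuv (hx0 1) (hx0 2))
  have hδ : ∀ {d : ℝ}, |c0 0 * d| ≤ 5 * E + κ * 3 * 2 → |d| ≤ 10 * E + 12 * κ := by
    intro d hd
    rw [abs_mul, abs_of_pos hcp] at hd
    have := mul_le_mul_of_nonneg_right gl' (abs_nonneg d)
    linarith
  have k1 := hδ n1
  have k2 := hδ n2
  have b4 : |δ1| ≤ 4 := by rw [hδ1]; exact (abs_sub _ _).trans (by linarith)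
  have b4' : |δ2| ≤ 4 := by rw [hδ2]; exact (abs_sub _ _).trans (by linarith)
  have r1 : b0 1 / b0 0 = c0 1 / c0 0 - δ1 := by rw [hδ1]; ring
  have r2 : b0 2 / b0 0 = c0 2 / c0 0 - δ2 := by rw [hδ2]; ring
  have mm : ∀ {a b A B : ℝ}, |a| ≤ A → |b| ≤ B → |a * b| ≤ A * B := by
    intro a b A B h1 h2
    rw [abs_mul]; exact mul_le_mul h1 h2 (abs_nonneg _) ((abs_nonneg _).trans h1)
  have p11 : |δ1 * (shG b0 G).yu| ≤ (10 * E + 12 * κ) * 5 := mm k1 y1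
  have p12 : |δ2 * (shG b0 G).yu| ≤ (10 * E + 12 * κ) * 5 := mm k2 y1
  have p21 : |δ1 * (shG b0 G).yv| ≤ (10 * E + 12 * κ) * 5 := mm k1 y2
  have p22 : |δ2 * (shG b0 G).yv| ≤ (10 * E + 12 * κ) * 5 := mm k2 y2
  have q11 : |δ1 * (δ1 * G.yy)| ≤ (10 * E + 12 * κ) * (4 * 1) := mm k1 (mm b4 m1)
  have q12 : |δ1 * (δ2 * G.yy)| ≤ (10 * E + 12 * κ) * (4 * 1) := mm k1 (mm b4' m1)
  have q22 : |δ2 * (δ2 * G.yy)| ≤ (10 * E + 12 * κ) * (4 * 1) := mm k2 (mm b4' m1)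
  have c11 : |δ1 * c1 0| ≤ (10 * E + 12 * κ) * (3 / 2) := mm k1 hc1
  have c21 : |δ2 * c1 0| ≤ (10 * E + 12 * κ) * (3 / 2) := mm k2 hc1
  unfold kap
  refine max_le (max_le ?_ ?_) (max_le (max_le ?_ ?_) ?_)
  · have e1 : shB1 c0 c1 1 = shB1 b0 b1 1 + (gr G x1 1 - b0 1 / b0 0 * gr G x1 0) - δ1 * c1 0 := by
      simp only [shB1, hδ1, Matrix.cons_val]
      simp only [c1]
      ring
    have n3 : |gr G x1 1 - b0 1 / b0 0 * gr G x1 0| ≤ 5 * (2 * E) + κ * 3 * 4 := by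
      rw [t3]; exact three_le (u := 0) y1 hy1 (lat3 kuu kuv (hx1 1) (hx1 2))
    rw [e1]
    have := abs_sub (shB1 b0 b1 1 + (gr G x1 1 - b0 1 / b0 0 * gr G x1 0)) (δ1 * c1 0)
    have := abs_add_le (shB1 b0 b1 1) (gr G x1 1 - b0 1 / b0 0 * gr G x1 0)
    linarith
  · have e1 : shB1 c0 c1 2 = shB1 b0 b1 2 + (gr G x1 2 - b0 2 / b0 0 * gr G x1 0) - δ2 * c1 0 := by
      simp only [shB1, hδ2, Matrix.cons_val]
      simp only [c1]
      ring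
    have n3 : |gr G x1 2 - b0 2 / b0 0 * gr G x1 0| ≤ 5 * (2 * E) + κ * 3 * 4 := by
      rw [t4]; exact three_le (u := 0) y2 hy1 (lat3' kvv kuv (hx1 1) (hx1 2))
    rw [e1]
    have := abs_sub (shB1 b0 b1 2 + (gr G x1 2 - b0 2 / b0 0 * gr G x1 0)) (δ2 * c1 0)
    have := abs_add_le (shB1 b0 b1 2) (gr G x1 2 - b0 2 / b0 0 * gr G x1 0)
    linarith
  · have e1 : (shG c0 G).uu = (shG b0 G).uu - δ1 * (shG b0 G).yu + δ1 * (δ1 * G.yy) := by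
      simp only [shG, r1]; ring
    rw [e1]
    have := abs_add_le ((shG b0 G).uu - δ1 * (shG b0 G).yu) (δ1 * (δ1 * G.yy))
    have := abs_sub (shG b0 G).uu (δ1 * (shG b0 G).yu)
    linarith
  · have e1 : (shG c0 G).uv = (shG b0 G).uv - δ2 * (shG b0 G).yu - δ1 * (shG b0 G).yv +
        2 * (δ1 * (δ2 * G.yy)) := by
      simp only [shG, r1, r2]; ring
    rw [e1]
    have := abs_add_le ((shG b0 G).uv - δ2 * (shG b0 G).yu - δ1 * (shG b0 G).yv)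
      (2 * (δ1 * (δ2 * G.yy)))
    have := abs_sub ((shG b0 G).uv - δ2 * (shG b0 G).yu) (δ1 * (shG b0 G).yv)
    have := abs_sub (shG b0 G).uv (δ2 * (shG b0 G).yu)
    have e5 : |2 * (δ1 * (δ2 * G.yy))| = 2 * |δ1 * (δ2 * G.yy)| := by
      rw [abs_mul, abs_of_pos (by norm_num : (0:ℝ) < 2)]
    linarith
  · have e1 : (shG c0 G).vv = (shG b0 G).vv - δ2 * (shG b0 G).yv + δ2 * (δ2 * G.yy) := by
      simp only [shG, r2]; ring
    rw [e1]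
    have := abs_add_le ((shG b0 G).vv - δ2 * (shG b0 G).yv) (δ2 * (δ2 * G.yy))
    have := abs_sub (shG b0 G).vv (δ2 * (shG b0 G).yv)
    linarith


/-! ### two lines of a sheet -/

/-- **the sheet stays near its tangent plane** : lines of `S` -/
theorem line_tan {S : Plk4} {T T' : Ln4} {z0 ρ r : ℝ} (hρ : 0 < ρ) (hr : 0 < r)
    (hS : Shp S z0 ρ r) (hT : InP T S z0 ρ) (hT' : InP T' S z0 ρ) {ζ : ℝ} (hζ : 0 ≤ ζ)
    (hζ' : ζ ≤ 1) {x : V3}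
    (hx : ∀ i, x i = dt (S.e i) (T'.pos (z0 + ρ * ζ) - T.pos (z0 + ρ * ζ)) / S.w i) :
    S.w 0 * |(expP S z0 ρ T).1 0 * x 0 + (expP S z0 ρ T).1 1 * x 1 + (expP S z0 ρ T).1 2 * x 2| ≤
      80 * S.a + 900 * kapP S z0 ρ T := by
  have hw0 : 0 < S.w 0 := (hr.trans_le hS.r0_le).trans_le hS.a_le0
  have hSt := StP.of_shN hS hw0
  have hwne : ∀ k, S.w k ≠ 0 := fun k => (hSt.pos k).ne'
  have hE := expP_spec hS.isQ hw0.ne' z0 ρ T
  set b0 := (expP S z0 ρ T).1 with hb0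
  set b1 := (expP S z0 ρ T).2.1 with hb1
  set G := (expP S z0 ρ T).2.2 with hG
  have z1 : z0 ≤ z0 + ρ * ζ := by nlinarith
  have z2 : z0 + ρ * ζ ≤ z0 + ρ := by nlinarith
  have hN := IsExp.nrmC hSt hρ.le (fun z h1 h2 => (hT z h1 h2).1) hE
  have h1 := tan_le hSt hρ.le hN hE hζ hζ' (hT _ z1 z2).1 (X := T'.pos (z0 + ρ * ζ)) (x := x)
    (fun i => ((hT' _ z1 z2).1 i).trans (by have := hSt.pos i; linarith)) hx
  have h2 : x = pc S.e S.w T (z0 + ρ * ζ) (T'.pos (z0 + ρ * ζ)) := by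
    funext i; rw [hx]; rfl
  have h3 := hE ζ x
  rw [h2, cmb_pc hSt.ortho hwne, ← h2] at h3
  have h4 : S.w 0 * |Fq b0 b1 G ζ x| ≤ 2 * S.a := by
    have e1 : S.w 0 * |Fq b0 b1 G ζ x| = |S.w 0 * Fq b0 b1 G ζ x| := by
      rw [abs_mul, abs_of_pos hw0]
    have e2 : S.w 0 * Fq b0 b1 G ζ x = S.q (z0 + ρ * ζ) (T'.pos (z0 + ρ * ζ)) -
        S.q (z0 + ρ * ζ) (T.pos (z0 + ρ * ζ)) := by rw [h3]; ring
    rw [e1, e2]
    refine (abs_sub _ _).trans ?_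
    linarith [(hT _ z1 z2).2, (hT' _ z1 z2).2]
  have h5 : kapP S z0 ρ T = S.w 0 * kap b0 b1 G := rfl
  rw [h5]
  have h6 := mul_le_mul_of_nonneg_left h1 hw0.le
  linarith

/-- **the curvature extents at two lines of a sheet are comparable** -/
theorem kapP_comp {S : Plk4} {T T' : Ln4} {z0 ρ r : ℝ} (hρ : 0 < ρ) (hr : 0 < r)
    (hS : Shp S z0 ρ r) (hT : InP T S z0 ρ) (hT' : InP T' S z0 ρ) :
    kapP S z0 ρ T' ≤ 600000 * (S.a + kapP S z0 ρ T) := by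
  have ha : 0 < S.a := hr.trans_le hS.r0_le
  have hw0 : 0 < S.w 0 := ha.trans_le hS.a_le0
  have hSt := StP.of_shN hS hw0
  have hwne : ∀ k, S.w k ≠ 0 := fun k => (hSt.pos k).ne'
  have hE := expP_spec hS.isQ hw0.ne' z0 ρ T
  have hN := IsExp.nrmC hSt hρ.le (fun z h1 h2 => (hT z h1 h2).1) hE
  set x0 : V3 := fun k => dt (S.e k) (T'.pos z0 - T.pos z0) / S.w k with hx0
  set x1 : V3 := fun k => ρ * dt (S.e k) (T'.v - T.v) / S.w k with hx1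
  have hx : ∀ ζ k, dt (S.e k) (T'.pos (z0 + ρ * ζ) - T.pos (z0 + ρ * ζ)) / S.w k =
      x0 k + ζ * x1 k := by
    intro ζ k
    have hk := hwne k
    simp only [hx0, hx1, dt, Ln4.pos, Pi.sub_apply]
    field_simp
    ring
  have hE' := isExp_shift hSt.ortho hwne hE hx
  have hN' := IsExp.nrmC hSt hρ.le (fun z h1 h2 => (hT' z h1 h2).1) hE'
  have l0 := line_tan hρ hr hS hT hT' (ζ := 0) le_rfl zero_le_one (x := fun k => x0 k + 0 * x1 k)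
    (fun i => (hx 0 i).symm)
  have l1 := line_tan hρ hr hS hT hT' (ζ := 1) zero_le_one le_rfl (x := fun k => x0 k + 1 * x1 k)
    (fun i => (hx 1 i).symm)
  have hk : kapP S z0 ρ T = S.w 0 * kap (expP S z0 ρ T).1 (expP S z0 ρ T).2.1
    (expP S z0 ρ T).2.2 := rfl
  have hk' : kapP S z0 ρ T' = S.w 0 * kap (fun k => (expP S z0 ρ T).1 k +
      gr (expP S z0 ρ T).2.2 x0 k) (fun k => (expP S z0 ρ T).2.1 k +
      gr (expP S z0 ρ T).2.2 x1 k) (expP S z0 ρ T).2.2 := kapP_eq hw0.ne' hE'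
  set b0 := (expP S z0 ρ T).1 with hb0
  set b1 := (expP S z0 ρ T).2.1 with hb1
  set G := (expP S z0 ρ T).2.2 with hG
  have bx : ∀ ζ, 0 ≤ ζ → ζ ≤ 1 → ∀ k, |x0 k + ζ * x1 k| ≤ 2 := by
    intro ζ h1 h2 k
    have z1 : z0 ≤ z0 + ρ * ζ := by nlinarith
    have z2 : z0 + ρ * ζ ≤ z0 + ρ := by nlinarith
    rw [← hx, abs_div, abs_of_pos (hSt.pos k), div_le_iff₀ (hSt.pos k)]
    have e1 : T'.pos (z0 + ρ * ζ) - T.pos (z0 + ρ * ζ) = (T'.pos (z0 + ρ * ζ) -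
      S.c.pos (z0 + ρ * ζ)) - (T.pos (z0 + ρ * ζ) - S.c.pos (z0 + ρ * ζ)) := by abel
    rw [e1, dt_sub]
    refine (abs_sub _ _).trans ?_
    linarith [(hT _ z1 z2).1 k, (hT' _ z1 z2).1 k]
  have b00 := bx 0 le_rfl zero_le_one
  have b11 := bx 1 zero_le_one le_rfl
  have c0 : ∀ k, |x0 k| ≤ 2 := fun k => by have := b00 k; simpa using this
  have c1 : ∀ k, |x1 k| ≤ 4 := by
    intro k
    have h1 := abs_le.1 (b11 k)
    have h2 := abs_le.1 (c0 k)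
    rw [abs_le]
    constructor
    · linarith [h1.1, h2.2]
    · linarith [h1.2, h2.1]
  have g0 := hN.st 0 le_rfl zero_le_one 0 0 0 (by norm_num) (by norm_num) (by norm_num)
  simp only [zero_mul, mul_zero, add_zero] at g0
  obtain ⟨gl, gu⟩ := g0
  have hbp : 0 < b0 0 := by linarith
  set κ := kap b0 b1 G with hκ
  set E1 := (80 * S.a + 900 * (S.w 0 * κ)) / S.w 0 with hE1
  have hy : ∀ v : V3, S.w 0 * |b0 0 * v 0 + b0 1 * v 1 + b0 2 * v 2| ≤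
      80 * S.a + 900 * kapP S z0 ρ T →
      |v 0 + b0 1 / b0 0 * v 1 + b0 2 / b0 0 * v 2| ≤ 2 * E1 := by
    intro v hv
    have e1 : b0 0 * (v 0 + b0 1 / b0 0 * v 1 + b0 2 / b0 0 * v 2) =
        b0 0 * v 0 + b0 1 * v 1 + b0 2 * v 2 := by field_simp
    have h1 : |b0 0 * v 0 + b0 1 * v 1 + b0 2 * v 2| ≤ E1 := by
      rw [hE1, le_div_iff₀ hw0, mul_comm]
      rw [hk] at hv
      exact hv
    rw [← e1, abs_mul, abs_of_pos hbp] at h1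
    have h2 := mul_le_mul_of_nonneg_right gl
      (abs_nonneg (v 0 + b0 1 / b0 0 * v 1 + b0 2 / b0 0 * v 2))
    linarith
  have y0 : |x0 0 + b0 1 / b0 0 * x0 1 + b0 2 / b0 0 * x0 2| ≤ 2 * E1 := by
    have := hy (fun k => x0 k + 0 * x1 k) l0
    simpa using this
  have y1 : |x1 0 + b0 1 / b0 0 * x1 1 + b0 2 / b0 0 * x1 2| ≤ 2 * (2 * E1) := by
    have h1 := hy (fun k => x0 k + 1 * x1 k) l1
    have e1 : x1 0 + b0 1 / b0 0 * x1 1 + b0 2 / b0 0 * x1 2 =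
      ((x0 0 + 1 * x1 0) + b0 1 / b0 0 * (x0 1 + 1 * x1 1) + b0 2 / b0 0 * (x0 2 + 1 * x1 2)) -
      (x0 0 + b0 1 / b0 0 * x0 1 + b0 2 / b0 0 * x0 2) := by ring
    rw [e1]
    refine (abs_sub _ _).trans ?_
    linarith
  have hfin := kap_alg hN hN' c0 c1 y0 y1
  rw [hk', hk]
  have h7 := mul_le_mul_of_nonneg_left hfin hw0.le
  have h8 : S.w 0 * (300 * (2 * E1 + κ)) = 600 * (80 * S.a + 900 * (S.w 0 * κ)) +
      300 * (S.w 0 * κ) := by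
    rw [hE1]; field_simp; ring
  have h9 : 0 ≤ S.w 0 * κ := mul_nonneg hw0.le ((abs_nonneg _).trans (kap_comp b0 b1 G).1)
  linarith

end Crest.Agent.R136.Kpc104
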