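import Crest.Agent.R136.Pl2C_860
import Crest.Agent.R136.Kpc_104
import Crest.Agent.R136.HulD_412

/-!
# R136 (S0187), PLAN 2: two hull frames of the same sheet are aligned (helper104)

* `exists_on` : a sheet has a point over `T + s w_k e_k`, `|s| ≤ 1/16`.
* `fh_same` : `FH C Y S f`, `FH C Y S g` ⊢ the six tilts of `f` against `g`.
-/

set_option autoImplicit false
set_option linter.unusedVariables false

namespace Crest.Agent.R136.Fsm104

open Crest.Agent.R136.Sh605 Crest.Agent.R136.Fl808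
open Crest.Agent.R136.K4 (Plk4)
open Crest.Agent.R136.Tlt51 (Shp InP)
open Crest.Agent.R136.KapP335 (kapP expP)
open Crest.Agent.R136.Pl2

theorem isQ_cont {q : ℝ → V3 → ℝ} (hq : IsQ q) (z : ℝ) (P e : V3) :
    Continuous fun τ : ℝ => q z (P + τ • e) := by
  obtain ⟨c0, c1, c2, b, d, g, h⟩ := hq
  have : (fun τ : ℝ => q z (P + τ • e)) = fun τ : ℝ => c0 + c1 * z + c2 * z ^ 2 +
      ∑ i, (b i + d i * z) * (P i + τ * e i) +
      ∑ i, ∑ j, g i j * ((P i + τ * e i) * (P j + τ * e j)) := by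
    funext τ
    rw [h]
    simp only [Pi.add_apply, Pi.smul_apply, smul_eq_mul]
  rw [this]
  fun_prop

theorem inK_dbl {e : Fin 3 → V3} {c : Ln4} {w : V3} (he : Ortho e) (hw : ∀ i, 0 ≤ w i) {z : ℝ}
    {x : V3} (hx : InK e c w z x) {s τ : ℝ} {k : Fin 3} (hk : k ≠ 0) (hs : |s| ≤ w k)
    (hτ : |τ| ≤ w 0) : InK e c (dbl3 w) z (x + s • e k + τ • e 0) := by
  intro i
  have e1 : dt (e i) (x + s • e k + τ • e 0 - c.pos z) =
      dt (e i) (x - c.pos z) + s * dt (e i) (e k) + τ * dt (e i) (e 0) := by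
    simp only [dt, Pi.add_apply, Pi.sub_apply, Pi.smul_apply, smul_eq_mul]; ring
  rw [e1, he i k, he i 0]
  change _ ≤ 2 * w i
  have h1 := hx i
  have h2 := abs_add_le (dt (e i) (x - c.pos z) + s * (if i = k then (1:ℝ) else 0))
    (τ * (if i = 0 then (1:ℝ) else 0))
  have h3 := abs_add_le (dt (e i) (x - c.pos z)) (s * (if i = k then (1:ℝ) else 0))
  have h4 := hw i
  by_cases hi : i = 0
  · subst hi
    simp only [Ne.symm hk, if_true, if_false, mul_zero, mul_one, abs_zero, add_zero] at *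
    linarith
  · by_cases hik : i = k
    · subst hik
      simp only [hi, if_true, if_false, mul_zero, mul_one, abs_zero, add_zero] at *
      linarith
    · simp only [hi, hik, if_false, mul_zero, abs_zero, add_zero] at *
      linarith

/-- a point of the sheet over `T + s w_k e_k` -/
theorem exists_on {S : Plk4} {T : Ln4} {z0 ρ r z : ℝ} (hr : 0 < r) (hS : Shp S z0 ρ r)
    (hT : InP T S z0 ρ) (hz : z0 ≤ z) (hz' : z ≤ z0 + ρ) {k : Fin 3} (hk : k ≠ 0) {s : ℝ}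
    (hs0 : 0 ≤ s) (hs : s ≤ 1 / 16) :
    ∃ τ : ℝ, |τ| ≤ S.w 0 / 8 ∧ |S.q z (T.pos z + (s * S.w k) • S.e k + τ • S.e 0)| ≤ S.a := by
  have ha : 0 < S.a := hr.trans_le hS.r0_le
  have hw0 : 0 < S.w 0 := ha.trans_le hS.a_le0
  have hw2 : 0 < S.w 2 := hw0.trans_le hS.w0_le
  have hw1 : 0 < S.w 1 := hw2.trans_le hS.w_le
  have hw : ∀ i, 0 < S.w i := by intro i; fin_cases i <;> assumption
  have hwk := hw k
  obtain ⟨hTK, hTq⟩ := hT z hz hz'
  set P := T.pos z + (s * S.w k) • S.e k with hP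
  have hsw : |s * S.w k| ≤ S.w k := by
    rw [abs_mul, abs_of_nonneg hs0, abs_of_pos hwk]; nlinarith
  have hin : ∀ τ : ℝ, |τ| ≤ S.w 0 → InK S.e S.c (dbl3 S.w) z (P + τ • S.e 0) := fun τ h =>
    inK_dbl hS.ortho (fun i => (hw i).le) hTK hk hsw h
  have hP0 : InK S.e S.c (dbl3 S.w) z P := by
    have := hin 0 (by rw [abs_zero]; exact hw0.le)
    simpa using this
  have hT0 : InK S.e S.c (dbl3 S.w) z (T.pos z) := fun i => by
    change _ ≤ 2 * S.w i
    have := hTK i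
    have := (hw i).le
    linarith
  have hlat : |S.q z P - S.q z (T.pos z)| ≤ S.w 0 / 16 := by
    have h1 : |S.q z P - S.q z (T.pos z)| ≤ S.w 0 / S.w k * (s * S.w k) := by
      have hsk : 0 ≤ s * S.w k := mul_nonneg hs0 hwk.le
      have hk12 : k = 1 ∨ k = 2 := by
        fin_cases k
        · exact absurd rfl hk
        · exact Or.inl rfl
        · exact Or.inr rfl
      rcases hk12 with h | h
      · subst h; exact hS.sl1 z hz hz' _ _ hsk hT0 hP0
      · subst h; exact hS.sl2 z hz hz' _ _ hsk hT0 hP0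
    have e1 : S.w 0 / S.w k * (s * S.w k) = s * S.w 0 := by field_simp
    rw [e1] at h1
    nlinarith
  have hPq : |S.q z P| ≤ S.a + S.w 0 / 16 := by
    have e1 : S.q z P = (S.q z P - S.q z (T.pos z)) + S.q z (T.pos z) := by ring
    rw [e1]
    exact (abs_add_le _ _).trans (by linarith)
  have hcont := isQ_cont hS.isQ z P (S.e 0)
  by_cases h0 : |S.q z P| ≤ S.a
  · exact ⟨0, by rw [abs_zero]; positivity, by simpa using h0⟩
  · have h8 : |S.w 0 / 8| ≤ S.w 0 := by rw [abs_of_pos (by positivity)]; linarith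
    have h8' : |-(S.w 0 / 8)| ≤ S.w 0 := by rw [abs_neg]; exact h8
    rcases lt_or_ge S.a (S.q z P) with hp | hp
    · -- go down
      have hlow : S.q z (P + (-(S.w 0 / 8)) • S.e 0) ≤ S.a := by
        have i1 := hin _ h8'
        have i2 : InK S.e S.c (dbl3 S.w) z (P + (-(S.w 0 / 8)) • S.e 0 + (S.w 0 / 8) • S.e 0) := by
          have : P + (-(S.w 0 / 8)) • S.e 0 + (S.w 0 / 8) • S.e 0 = P := by
            ext i; simp only [Pi.add_apply, Pi.smul_apply, smul_eq_mul]; ring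
          rw [this]; exact hP0
        have := (hS.st0 z hz hz' _ (S.w 0 / 8) (by positivity) i1 i2).1
        have e1 : P + (-(S.w 0 / 8)) • S.e 0 + (S.w 0 / 8) • S.e 0 = P := by
          ext i; simp only [Pi.add_apply, Pi.smul_apply, smul_eq_mul]; ring
        rw [e1] at this
        have := (abs_le.1 hPq).2
        linarith
      have hiv := intermediate_value_Icc (a := -(S.w 0 / 8)) (b := 0) (by linarith)
        hcont.continuousOn
      have hm : S.a ∈ Set.Icc (S.q z (P + (-(S.w 0 / 8)) • S.e 0)) (S.q z (P + (0:ℝ) • S.e 0)) :=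
        ⟨hlow, by simpa using hp.le⟩
      obtain ⟨τ, ⟨t1, t2⟩, hτ⟩ := hiv hm
      refine ⟨τ, abs_le.2 ⟨t1, by linarith⟩, ?_⟩
      have hτ' : S.q z (P + τ • S.e 0) = S.a := hτ
      rw [hτ', abs_of_pos ha]
    · have hn : S.q z P < -S.a := by
        by_contra hc
        push Not at hc
        exact h0 (abs_le.2 ⟨hc, hp⟩)
      have hup : -S.a ≤ S.q z (P + (S.w 0 / 8) • S.e 0) := by
        have i1 := hin _ h8
        have := (hS.st0 z hz hz' P (S.w 0 / 8) (by positivity) hP0 i1).1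
        have := (abs_le.1 hPq).1
        linarith
      have hiv := intermediate_value_Icc (a := 0) (b := S.w 0 / 8) (by linarith)
        hcont.continuousOn
      have hm : -S.a ∈ Set.Icc (S.q z (P + (0:ℝ) • S.e 0)) (S.q z (P + (S.w 0 / 8) • S.e 0)) :=
        ⟨by simpa using hn.le, hup⟩
      obtain ⟨τ, ⟨t1, t2⟩, hτ⟩ := hiv hm
      refine ⟨τ, abs_le.2 ⟨by linarith, t2⟩, ?_⟩
      have hτ' : S.q z (P + τ • S.e 0) = -S.a := hτ
      rw [hτ', abs_neg, abs_of_pos ha]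

/-- the normal covector of a hull frame almost vanishes on a chord of the sheet -/
theorem chord {C Y : ℝ} {S : Plk4} {f : Fin 3 → V3} {T : Ln4} {z0 ρ r : ℝ} (hr : 0 < r)
    (hρ : 0 ≤ ρ) (hS : Shp S z0 ρ r) (hT : InP T S z0 ρ) {k : Fin 3} (hk : k ≠ 0) :
    ∃ τ : ℝ, |τ| ≤ S.w 0 / 8 ∧ ∀ (C Y : ℝ) (f : Fin 3 → V3), FH C Y S f z0 ρ →
      |dt (f 0) (S.e k) * (S.w k / 16) + dt (f 0) (S.e 0) * τ| ≤ C * Y := by
  have ha : 0 < S.a := hr.trans_le hS.r0_le
  have hw0 : 0 < S.w 0 := ha.trans_le hS.a_le0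
  have hw2 : 0 < S.w 2 := hw0.trans_le hS.w0_le
  have hw1 : 0 < S.w 1 := hw2.trans_le hS.w_le
  have hw : ∀ i, 0 < S.w i := by intro i; fin_cases i <;> assumption
  obtain ⟨τ, h1, h2⟩ := exists_on hr hS hT (z := z0) le_rfl (by linarith) hk
    (s := 1 / 16) (by norm_num) le_rfl
  refine ⟨τ, h1, fun C Y f hf => ?_⟩
  have hin : InK S.e T (fun i => S.w i / 8) z0
      (T.pos z0 + (1 / 16 * S.w k) • S.e k + τ • S.e 0) := by
    intro i
    have e1 : dt (S.e i) (T.pos z0 + (1 / 16 * S.w k) • S.e k + τ • S.e 0 - T.pos z0) =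
        (1 / 16 * S.w k) * dt (S.e i) (S.e k) + τ * dt (S.e i) (S.e 0) := by
      simp only [dt, Pi.add_apply, Pi.sub_apply, Pi.smul_apply, smul_eq_mul]; ring
    rw [e1, hS.ortho i k, hS.ortho i 0]
    have hi := hw i
    have hk' := hw k
    by_cases h0 : i = 0
    · subst h0
      simp only [Ne.symm hk, if_true, if_false, mul_zero, mul_one, zero_add]
      exact h1
    · by_cases hik : i = k
      · subst hik
        simp only [h0, if_true, if_false, mul_zero, mul_one, add_zero]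
        rw [abs_of_pos (by positivity)]
        linarith
      · simp only [h0, hik, if_false, mul_zero, add_zero, abs_zero]
        positivity
  have h3 := hf.pt T hT z0 le_rfl (by linarith) _ hin h2
  have e1 : dt (f 0) (T.pos z0 + (1 / 16 * S.w k) • S.e k + τ • S.e 0 - T.pos z0) =
      dt (f 0) (S.e k) * (S.w k / 16) + dt (f 0) (S.e 0) * τ := by
    simp only [dt, Pi.add_apply, Pi.sub_apply, Pi.smul_apply, smul_eq_mul]; ring
  rwa [e1] at h3


/-- the two normal covectors are proportional along `e k` up to `Y / w_k` -/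
theorem cross {K Y : ℝ} {S : Plk4} {f g : Fin 3 → V3} {T : Ln4} {z0 ρ r : ℝ} (hr : 0 < r)
    (hρ : 0 ≤ ρ) (hS : Shp S z0 ρ r) (hT : InP T S z0 ρ) (hf : FH K Y S f z0 ρ)
    (hg : FH K Y S g z0 ρ) (hKY : 0 ≤ K * Y) {k : Fin 3} (hk : k ≠ 0) :
    |dt (g 0) (S.e 0) * dt (f 0) (S.e k) - dt (f 0) (S.e 0) * dt (g 0) (S.e k)| * S.w k ≤
      32 * (K * Y) := by
  have ha : 0 < S.a := hr.trans_le hS.r0_le
  have hw0 : 0 < S.w 0 := ha.trans_le hS.a_le0
  have hw2 : 0 < S.w 2 := hw0.trans_le hS.w0_le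
  have hw1 : 0 < S.w 1 := hw2.trans_le hS.w_le
  have hw : ∀ i, 0 < S.w i := by intro i; fin_cases i <;> assumption
  obtain ⟨τ, hτ, h⟩ := chord (C := K) (Y := Y) (f := f) hr hρ hS hT hk
  have h1 := h K Y f hf
  have h2 := h K Y g hg
  have uf := abs_dt_le_one hS.ortho hf.ortho 0 0
  have ug := abs_dt_le_one hS.ortho hg.ortho 0 0
  have e1 : (dt (g 0) (S.e 0) * dt (f 0) (S.e k) - dt (f 0) (S.e 0) * dt (g 0) (S.e k)) * S.w k =
      16 * (dt (g 0) (S.e 0) * (dt (f 0) (S.e k) * (S.w k / 16) + dt (f 0) (S.e 0) * τ) -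
        dt (f 0) (S.e 0) * (dt (g 0) (S.e k) * (S.w k / 16) + dt (g 0) (S.e 0) * τ)) := by ring
  have e2 : |dt (g 0) (S.e 0) * dt (f 0) (S.e k) - dt (f 0) (S.e 0) * dt (g 0) (S.e k)| * S.w k =
      |(dt (g 0) (S.e 0) * dt (f 0) (S.e k) - dt (f 0) (S.e 0) * dt (g 0) (S.e k)) * S.w k| := by
    rw [abs_mul, abs_of_pos (hw k)]
  rw [e2, e1, abs_mul, abs_of_pos (by norm_num : (0:ℝ) < 16)]
  have m1 : |dt (g 0) (S.e 0) * (dt (f 0) (S.e k) * (S.w k / 16) + dt (f 0) (S.e 0) * τ)| ≤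
      1 * (K * Y) := by
    rw [abs_mul]; exact mul_le_mul ug h1 (abs_nonneg _) zero_le_one
  have m2 : |dt (f 0) (S.e 0) * (dt (g 0) (S.e k) * (S.w k / 16) + dt (g 0) (S.e 0) * τ)| ≤
      1 * (K * Y) := by
    rw [abs_mul]; exact mul_le_mul uf h2 (abs_nonneg _) zero_le_one
  have := abs_sub (dt (g 0) (S.e 0) * (dt (f 0) (S.e k) * (S.w k / 16) + dt (f 0) (S.e 0) * τ))
    (dt (f 0) (S.e 0) * (dt (g 0) (S.e k) * (S.w k / 16) + dt (g 0) (S.e 0) * τ))
  linarith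

/-- one half of the alignment: `f 0` against `g 1`, `g 2` -/
theorem half_aln {K Y : ℝ} {S : Plk4} {f g : Fin 3 → V3} {T : Ln4} {z0 ρ r : ℝ} (hr : 0 < r)
    (hρ : 0 ≤ ρ) (hS : Shp S z0 ρ r) (hT : InP T S z0 ρ) (hf : FH K Y S f z0 ρ)
    (hg : FH K Y S g z0 ρ) (hK : 1 ≤ K) (hY : 0 ≤ Y) :
    |dt (f 0) (g 1)| * S.w 1 ≤ 64 * K ^ 3 * Y ∧ |dt (f 0) (g 2)| * S.w 2 ≤ 64 * K ^ 3 * Y := by
  have ha : 0 < S.a := hr.trans_le hS.r0_le
  have hw0 : 0 < S.w 0 := ha.trans_le hS.a_le0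
  have hw2 : 0 < S.w 2 := hw0.trans_le hS.w0_le
  have hw1 : 0 < S.w 1 := hw2.trans_le hS.w_le
  have hK0 : 0 ≤ K := by linarith
  have hKY : 0 ≤ K * Y := mul_nonneg hK0 hY
  have c1 := cross hr hρ hS hT hf hg hKY (k := 1) (by decide)
  have c2 := cross hr hρ hS hT hf hg hKY (k := 2) (by decide)
  set D1 := dt (g 0) (S.e 0) * dt (f 0) (S.e 1) - dt (f 0) (S.e 0) * dt (g 0) (S.e 1) with hD1
  set D2 := dt (g 0) (S.e 0) * dt (f 0) (S.e 2) - dt (f 0) (S.e 0) * dt (g 0) (S.e 2) with hD2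
  have hK1 : K ≤ K ^ 3 := by
    have := pow_le_pow_right₀ hK (show 1 ≤ 3 by norm_num); simpa using this
  have hK2 : K ^ 2 ≤ K ^ 3 := pow_le_pow_right₀ hK (by norm_num)
  have h00 := hg.e00
  -- the identity
  have key : ∀ i : Fin 3, i ≠ 0 → dt (g 0) (S.e 0) * dt (f 0) (g i) =
      dt (g i) (S.e 1) * D1 + dt (g i) (S.e 2) * D2 := by
    intro i hi
    have o := hg.ortho 0 i
    rw [if_neg (Ne.symm hi)] at o
    rw [dt_expand hS.ortho (g 0) (g i), dt_comm (S.e 0) (g i), dt_comm (S.e 1) (g i),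
      dt_comm (S.e 2) (g i)] at o
    rw [dt_expand hS.ortho (f 0) (g i), dt_comm (S.e 0) (g i), dt_comm (S.e 1) (g i),
      dt_comm (S.e 2) (g i), hD1, hD2]
    linear_combination dt (f 0) (S.e 0) * o
  -- division by `g 0 · e 0`
  have dv : ∀ {x B : ℝ}, |dt (g 0) (S.e 0) * x| ≤ B → |x| ≤ K * B := by
    intro x B hx
    rw [abs_mul] at hx
    have h1 := mul_le_mul_of_nonneg_left hx hK0
    have h2 := mul_le_mul_of_nonneg_right h00 (abs_nonneg x)
    calc |x| = 1 * |x| := (one_mul _).symm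
      _ ≤ K * |dt (g 0) (S.e 0)| * |x| := h2
      _ = K * (|dt (g 0) (S.e 0)| * |x|) := by ring
      _ ≤ K * B := h1
  constructor
  · have k1 := key 1 (by decide)
    have u1 := abs_dt_le_one hS.ortho hg.ortho 1 1
    have e12 := hg.e12
    have b1 : |dt (g 1) (S.e 1) * D1| * S.w 1 ≤ 32 * (K * Y) := by
      rw [abs_mul, mul_assoc]
      calc |dt (g 1) (S.e 1)| * (|D1| * S.w 1) ≤ 1 * (32 * (K * Y)) :=
            mul_le_mul u1 c1 (by positivity) zero_le_one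
        _ = _ := one_mul _
    have b2 : |dt (g 1) (S.e 2) * D2| * S.w 1 ≤ K * (32 * (K * Y)) := by
      rw [abs_mul]
      calc |dt (g 1) (S.e 2)| * |D2| * S.w 1 = (|dt (g 1) (S.e 2)| * S.w 1) * |D2| := by ring
        _ ≤ (K * S.w 2) * |D2| := mul_le_mul_of_nonneg_right e12 (abs_nonneg _)
        _ = K * (|D2| * S.w 2) := by ring
        _ ≤ K * (32 * (K * Y)) := mul_le_mul_of_nonneg_left c2 hK0
    have b3 : |dt (g 0) (S.e 0) * (dt (f 0) (g 1) * S.w 1)| ≤ 64 * (K ^ 2 * Y) := by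
      rw [← mul_assoc, k1, abs_mul, abs_of_pos hw1]
      have h1 := mul_le_mul_of_nonneg_right
        (abs_add_le (dt (g 1) (S.e 1) * D1) (dt (g 1) (S.e 2) * D2)) hw1.le
      have h2 : K * Y ≤ K ^ 2 * Y := by
        have : K ≤ K ^ 2 := by nlinarith
        exact mul_le_mul_of_nonneg_right this hY
      nlinarith
    have b4 := dv b3
    rw [abs_mul, abs_of_pos hw1] at b4
    calc |dt (f 0) (g 1)| * S.w 1 ≤ K * (64 * (K ^ 2 * Y)) := b4
      _ = 64 * K ^ 3 * Y := by ring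
  · have k1 := key 2 (by decide)
    have u1 := abs_dt_le_one hS.ortho hg.ortho 2 1
    have u2 := abs_dt_le_one hS.ortho hg.ortho 2 2
    have b1 : |dt (g 2) (S.e 1) * D1| * S.w 2 ≤ 32 * (K * Y) := by
      rw [abs_mul]
      calc |dt (g 2) (S.e 1)| * |D1| * S.w 2 ≤ 1 * |D1| * S.w 1 := by
            have := hS.w_le
            gcongr
        _ = |D1| * S.w 1 := by ring
        _ ≤ _ := c1
    have b2 : |dt (g 2) (S.e 2) * D2| * S.w 2 ≤ 32 * (K * Y) := by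
      rw [abs_mul, mul_assoc]
      calc |dt (g 2) (S.e 2)| * (|D2| * S.w 2) ≤ 1 * (32 * (K * Y)) :=
            mul_le_mul u2 c2 (by positivity) zero_le_one
        _ = _ := one_mul _
    have b3 : |dt (g 0) (S.e 0) * (dt (f 0) (g 2) * S.w 2)| ≤ 64 * (K * Y) := by
      rw [← mul_assoc, k1, abs_mul, abs_of_pos hw2]
      have h1 := mul_le_mul_of_nonneg_right
        (abs_add_le (dt (g 2) (S.e 1) * D1) (dt (g 2) (S.e 2) * D2)) hw2.le
      nlinarith
    have b4 := dv b3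
    rw [abs_mul, abs_of_pos hw2] at b4
    calc |dt (f 0) (g 2)| * S.w 2 ≤ K * (64 * (K * Y)) := b4
      _ = 64 * K ^ 2 * Y := by ring
      _ ≤ 64 * K ^ 3 * Y := by
        have := mul_le_mul_of_nonneg_right hK2 hY
        nlinarith

/-- `f 1` against `g 2` -/
theorem half_b {K Y : ℝ} {S : Plk4} {f g : Fin 3 → V3} {z0 ρ r : ℝ}
    (hS : Shp S z0 ρ r) (hw1 : 0 < S.w 1) (hf : FH K Y S f z0 ρ) (hg : FH K Y S g z0 ρ) :
    |dt (f 1) (g 2)| * S.w 1 ≤ 3 * (K * S.w 2) := by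
  rw [dt_expand hS.ortho (f 1) (g 2), dt_comm (S.e 0) (g 2), dt_comm (S.e 1) (g 2),
    dt_comm (S.e 2) (g 2)]
  have u0 := abs_dt_le_one hS.ortho hg.ortho 2 0
  have u1 := abs_dt_le_one hS.ortho hf.ortho 1 1
  have u2 := abs_dt_le_one hS.ortho hg.ortho 2 2
  have h1 := abs_add_le (dt (f 1) (S.e 0) * dt (g 2) (S.e 0) + dt (f 1) (S.e 1) * dt (g 2) (S.e 1))
    (dt (f 1) (S.e 2) * dt (g 2) (S.e 2))
  have h2 := abs_add_le (dt (f 1) (S.e 0) * dt (g 2) (S.e 0)) (dt (f 1) (S.e 1) * dt (g 2) (S.e 1))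
  have b1 : |dt (f 1) (S.e 0) * dt (g 2) (S.e 0)| * S.w 1 ≤ K * S.w 2 := by
    rw [abs_mul]
    calc |dt (f 1) (S.e 0)| * |dt (g 2) (S.e 0)| * S.w 1 ≤ |dt (f 1) (S.e 0)| * 1 * S.w 1 := by
          gcongr
      _ = |dt (f 1) (S.e 0)| * S.w 1 := by ring
      _ ≤ _ := hf.e10
  have b2 : |dt (f 1) (S.e 1) * dt (g 2) (S.e 1)| * S.w 1 ≤ K * S.w 2 := by
    rw [abs_mul]
    calc |dt (f 1) (S.e 1)| * |dt (g 2) (S.e 1)| * S.w 1 ≤ 1 * |dt (g 2) (S.e 1)| * S.w 1 := by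
          gcongr
      _ = |dt (g 2) (S.e 1)| * S.w 1 := by ring
      _ ≤ _ := hg.e21
  have b3 : |dt (f 1) (S.e 2) * dt (g 2) (S.e 2)| * S.w 1 ≤ K * S.w 2 := by
    rw [abs_mul]
    calc |dt (f 1) (S.e 2)| * |dt (g 2) (S.e 2)| * S.w 1 ≤ |dt (f 1) (S.e 2)| * 1 * S.w 1 := by
          gcongr
      _ = |dt (f 1) (S.e 2)| * S.w 1 := by ring
      _ ≤ _ := hf.e12
  have h3 := mul_le_mul_of_nonneg_right (h1.trans (add_le_add h2 le_rfl)) hw1.le
  linarith

/-- **two hull frames of the same sheet are aligned** -/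
theorem fh_same {K Y : ℝ} {S : Plk4} {f g : Fin 3 → V3} {T : Ln4} {z0 ρ r : ℝ} (hr : 0 < r)
    (hρ : 0 ≤ ρ) (hS : Shp S z0 ρ r) (hT : InP T S z0 ρ) (hf : FH K Y S f z0 ρ)
    (hg : FH K Y S g z0 ρ) (hK : 1 ≤ K) (hY : 0 ≤ Y) :
    Hul412.Aln (64 * K ^ 3) Y (S.w 1) (S.w 2) f g := by
  have ha : 0 < S.a := hr.trans_le hS.r0_le
  have hw0 : 0 < S.w 0 := ha.trans_le hS.a_le0
  have hw2 : 0 < S.w 2 := hw0.trans_le hS.w0_le
  have hw1 : 0 < S.w 1 := hw2.trans_le hS.w_le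
  have hK1 : K ≤ K ^ 3 := by
    have := pow_le_pow_right₀ hK (show 1 ≤ 3 by norm_num); simpa using this
  obtain ⟨p1, p2⟩ := half_aln hr hρ hS hT hf hg hK hY
  obtain ⟨q1, q2⟩ := half_aln hr hρ hS hT hg hf hK hY
  have b1 := half_b hS hw1 hf hg
  have b2 := half_b hS hw1 hg hf
  have h3 : 3 * (K * S.w 2) ≤ 64 * K ^ 3 * S.w 2 := by nlinarith
  exact ⟨p1, p2, by rw [dt_comm]; exact q1, by rw [dt_comm]; exact q2, b1.trans h3,
    by rw [dt_comm]; exact b2.trans h3⟩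

/-- 412's literal -/
theorem fh_aln : ∃ C : ℝ, 1 ≤ C ∧ ∀ (S : Plk4) (T : Ln4) (f g : Fin 3 → V3) (K Y z0 ρ r : ℝ),
    0 < r → 0 < ρ → Shp S z0 ρ r → InP T S z0 ρ → 1 ≤ K → 0 < Y → Y ≤ K * S.w 2 →
    FH K Y S f z0 ρ → FH K Y S g z0 ρ →
      Hul412.Aln (C * K ^ 9) Y (S.w 1) (S.w 2) f g := by
  refine ⟨64, by norm_num, fun S T f g K Y z0 ρ r hr hρ hS hT hK hY _ hf hg => ?_⟩
  have h := fh_same hr hρ.le hS hT hf hg hK hY.le
  have ha : 0 < S.a := hr.trans_le hS.r0_le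
  have hw0 : 0 < S.w 0 := ha.trans_le hS.a_le0
  have hw2 : 0 < S.w 2 := hw0.trans_le hS.w0_le
  have h9 : 64 * K ^ 3 ≤ 64 * K ^ 9 := by
    have := pow_le_pow_right₀ hK (show 3 ≤ 9 by norm_num); linarith
  have hy := mul_le_mul_of_nonneg_right h9 hY.le
  have hw := mul_le_mul_of_nonneg_right h9 hw2.le
  exact ⟨h.a01.trans hy, h.a02.trans hy, h.a10.trans hy, h.a20.trans hy, h.b12.trans hw,
    h.b21.trans hw⟩

end Crest.Agent.R136.Fsm104
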