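import Crest.Agent.R136.Fm9_808
import Crest.Agent.R136.Phc_248

/-!
# R136 (S0187): g-free flat tilt, definitions (helper808)

* `DMaxD` : D-max for ALL flat boxes, relative to one shape;
* `FreeC`, `FlatFree` : the finite one-level theorem (two systems of flat boxes over the same cells);
* `cover_wide`, `DMaxD.wide` : boxes longer than the cell.
-/

set_option autoImplicit false
set_option linter.unusedVariables false
set_option linter.unusedSectionVars false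

namespace Crest.Agent.R136.Fl808

open Finset Crest.Agent.R136.Sh605
open Crest.Agent.R138.Mk163 (zc zl rho alive own)
open Crest.Agent.R136.Phc248 (phC phC_pos phC_mono phC_ref)

open Classical in
/-- D-max of the lines of `P` over the cells of level `m` for all flat boxes of length at most `R0` and
thickness at least `r0`, relative to the shape `(a, w1, w2)` -/
def DMaxD (P : Finset (ℕ × ℤ)) (L : ℕ → Ln4) (m : ℕ) (D : ℝ) (qm qp : Fin 3 → ℝ)
    (r0 R0 a w1 w2 : ℝ) : Prop :=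
  ∀ (c : ℤ) (n : Fin 3 → V3) (l : Ln4) (a' w1' w2' : ℝ), Ortho n → r0 ≤ a' → a' ≤ w2' → w2' ≤ w1' →
    w1' ≤ R0 → ((P.filter fun x => x.2 = c ∧
      InB (L x.1) l n ![a', w1', w2'] (zl m c) (rho m)).card : ℝ) ≤
        D * phC qm qp a w1 w2 a' w1' w2'

/-- **the finite theorem**: two nearly extremal systems of flat boxes of the same shape over the same
cells have bounded tilts -/
def FreeC (qm qp : Fin 3 → ℝ) (C : ℝ) : Prop :=
  ∀ (α β : Type) (O : Finset (ℕ × ℤ)) (L : ℕ → Ln4) (i : ℕ) (f : ℕ × ℤ → α) (g : ℕ × ℤ → β)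
    (bf : α → Ln4) (ef : α → Fin 3 → V3) (bg : β → Ln4) (eg : β → Fin 3 → V3)
    (a w1 w2 A1 A2 D W r0 : ℝ) (j k' : ℕ), O.Nonempty → FSys O L i f bf ef a w1 w2 A1 →
    FSys O L i g bg eg a w1 w2 A2 → 0 < A1 → 0 < A2 → 0 < r0 → r0 ≤ a → a ≤ w2 → w2 ≤ w1 →
    DMaxD O L i D qm qp r0 (10 ^ 6 * w1) a w1 w2 → D ≤ W * A1 → D ≤ W * A2 → 1 ≤ W →
    Real.log (w1 / a) ≤ W →
    (∀ o ∈ O, Dy (ef (f o)) (eg (g o)) a w1 w2 j k') →
    (j : ℝ) ≤ C * (1 + Real.log W) ∧ (k' : ℝ) ≤ C * (1 + Real.log W)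

/-- relations between the exponents -/
structure QmOk (qm qp : Fin 3 → ℝ) : Prop where
  m0 : ∀ k, 0 ≤ qm k
  mp : ∀ k, qm k ≤ qp k
  m2 : 0 < qm 2
  p0 : 2 * qp 0 ≤ qm 2
  m1 : 8 * (qp 2 + qp 0) ≤ qm 1

/-- the finite theorem for all exponents -/
def FlatFree : Prop := ∀ qm qp : Fin 3 → ℝ, QmOk qm qp → ∃ C : ℝ, 0 ≤ C ∧ FreeC qm qp C

open Classical in
/-- **wider boxes** -/
theorem cover_wide {ι : Type*} {T : Finset ι} {L : ι → Ln4} {z0 ρ r0 K : ℝ}
    {F : ℝ → ℝ → ℝ → ℝ} (hF0 : ∀ a w1 w2, 0 < a → 0 < w1 → 0 < w2 → 0 ≤ F a w1 w2)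
    (hFm : ∀ a w1 w2 a' w1' w2', 0 < a → 0 < w1 → 0 < w2 → a ≤ a' → w1 ≤ w1' → w2 ≤ w2' →
      F a w1 w2 ≤ F a' w1' w2')
    (H : ∀ (n : Fin 3 → V3) (l : Ln4) (a w1 w2 : ℝ), Ortho n → r0 ≤ a → a ≤ w2 → w2 ≤ w1 →
      w1 ≤ ρ → ((T.filter fun t => InB (L t) l n ![a, w1, w2] z0 ρ).card : ℝ) ≤ F a w1 w2)
    (hr0 : 0 < r0) (hr : r0 ≤ ρ) (hK : 1 ≤ K) (n : Fin 3 → V3) (l : Ln4) (a w1 w2 : ℝ)
    (hn : Ortho n) (ha : r0 ≤ a) (haw : a ≤ w2) (hw : w2 ≤ w1) (hwK : w1 ≤ K * ρ) :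
    ((T.filter fun t => InB (L t) l n ![a, w1, w2] z0 ρ).card : ℝ) ≤
      (2 * K + 1) ^ 6 * F a w1 w2 := by
  have hρ : 0 < ρ := hr0.trans_le hr
  have pa : 0 < a := hr0.trans_le ha
  have pw2 : 0 < w2 := pa.trans_le haw
  have pw1 : 0 < w1 := pw2.trans_le hw
  set S := T.filter fun t => InB (L t) l n ![a, w1, w2] z0 ρ with hS
  set s : V3 := ![a, w1, w2] with hs
  set s' : V3 := ![min a ρ, min w1 ρ, min w2 ρ] with hs'
  have hsp : ∀ i, 0 < s' i := by
    intro i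
    fin_cases i
    · exact lt_min pa hρ
    · exact lt_min pw1 hρ
    · exact lt_min pw2 hρ
  have hmin : ∀ w : ℝ, 0 < w → w ≤ K * ρ → w ≤ K * min w ρ := by
    intro w hw0 hwk
    rcases le_total w ρ with h | h
    · rw [min_eq_left h]; nlinarith
    · rw [min_eq_right h]; exact hwk
  have hsK : ∀ i, s i ≤ K * s' i := by
    intro i
    fin_cases i
    · exact hmin a pa (by linarith)
    · exact hmin w1 pw1 hwK
    · exact hmin w2 pw2 (by linarith)
  set cd : ι → Fin 3 → ℕ × ℕ := fun t i =>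
    (cel (s i) (s' i) (dt (n i) ((L t).pos z0 - l.pos z0)),
      cel (s i) (s' i) (dt (n i) ((L t).pos (z0 + ρ) - l.pos (z0 + ρ)))) with hcd
  set N := ⌊2 * K⌋₊ + 1 with hN
  set C : Finset (Fin 3 → ℕ × ℕ) := Fintype.piFinset fun _ => range N ×ˢ range N with hC
  have hcard : (C.card : ℝ) ≤ (2 * K + 1) ^ 6 := by
    have e1 : C.card = (N * N) ^ 3 := by
      rw [hC, Fintype.card_piFinset]
      simp
    have e2 : (N : ℝ) ≤ 2 * K + 1 := by
      rw [hN]; push_cast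
      linarith [Nat.floor_le (show (0:ℝ) ≤ 2 * K by linarith)]
    rw [e1]
    push_cast
    calc ((N : ℝ) * N) ^ 3 = (N : ℝ) ^ 6 := by ring
      _ ≤ (2 * K + 1) ^ 6 := pow_le_pow_left₀ (Nat.cast_nonneg _) e2 6
  have hmap : ∀ t ∈ S, cd t ∈ C := by
    intro t ht
    rw [hS, mem_filter] at ht
    rw [hC, Fintype.mem_piFinset]
    intro i
    rw [mem_product, mem_range, mem_range]
    exact ⟨cel_lt (hsp i) (hsK i) (ht.2 z0 le_rfl (by linarith) i),
      cel_lt (hsp i) (hsK i) (ht.2 (z0 + ρ) (by linarith) le_rfl i)⟩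
  have hfib : ∀ c ∈ C, ((S.filter fun t => cd t = c).card : ℝ) ≤ F a w1 w2 := by
    intro c hc
    rcases (S.filter fun t => cd t = c).eq_empty_or_nonempty with hE | ⟨t0, ht0⟩
    · rw [hE]
      simp only [card_empty, Nat.cast_zero]
      exact hF0 _ _ _ pa pw1 pw2
    · have ht0' := ht0
      rw [mem_filter] at ht0'
      obtain ⟨hS0, hc0⟩ := ht0'
      have hb0 := (mem_filter.1 hS0).2
      have key : ∀ t ∈ S.filter fun t => cd t = c, InB (L t) (L t0) n s' z0 ρ := by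
        intro t ht
        rw [mem_filter] at ht
        obtain ⟨hSt, hct⟩ := ht
        have hbt := (mem_filter.1 hSt).2
        have hcc : cd t = cd t0 := by rw [hct, hc0]
        have hdiff : ∀ (i : Fin 3) (z : ℝ), dt (n i) ((L t).pos z - (L t0).pos z) =
            dt (n i) ((L t).pos z - l.pos z) - dt (n i) ((L t0).pos z - l.pos z) := by
          intro i z
          simp only [dt, Pi.sub_apply]; ring
        apply inB_of_ends hρ
        · intro i
          rw [hdiff]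
          have := congrArg Prod.fst (congrFun hcc i)
          exact cel_eq (hsp i) (hbt z0 le_rfl (by linarith) i) (hb0 z0 le_rfl (by linarith) i) this
        · intro i
          rw [hdiff]
          have := congrArg Prod.snd (congrFun hcc i)
          exact cel_eq (hsp i) (hbt (z0 + ρ) (by linarith) le_rfl i)
            (hb0 (z0 + ρ) (by linarith) le_rfl i) this
      have h3 : ((S.filter fun t => cd t = c).card : ℝ) ≤
          ((T.filter fun t => InB (L t) (L t0) n s' z0 ρ).card : ℝ) := by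
        refine Nat.cast_le.2 (card_le_card fun t ht => ?_)
        have hk := key t ht
        rw [mem_filter] at ht ⊢
        exact ⟨(mem_filter.1 ht.1).1, hk⟩
      have h4 := H n (L t0) (min a ρ) (min w1 ρ) (min w2 ρ) hn (le_min ha hr)
        (min_le_min_right _ haw) (min_le_min_right _ hw) (min_le_right _ _)
      refine h3.trans (h4.trans ?_)
      exact hFm _ _ _ _ _ _ (lt_min pa hρ) (lt_min pw1 hρ) (lt_min pw2 hρ)
        (min_le_left _ _) (min_le_left _ _) (min_le_left _ _)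
  have e1 : (S.card : ℝ) = ∑ c ∈ C, ((S.filter fun t => cd t = c).card : ℝ) := by
    rw [card_eq_sum_card_fiberwise (f := cd) (t := C) hmap]
    push_cast
    rfl
  rw [e1]
  calc ∑ c ∈ C, ((S.filter fun t => cd t = c).card : ℝ)
      ≤ ∑ c ∈ C, F a w1 w2 := sum_le_sum hfib
    _ = C.card * F a w1 w2 := by rw [sum_const, nsmul_eq_mul]
    _ ≤ (2 * K + 1) ^ 6 * F a w1 w2 :=
        mul_le_mul_of_nonneg_right hcard (hF0 _ _ _ pa pw1 pw2)

/-- longer boxes and another reference shape -/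
theorem DMaxD.wide {P : Finset (ℕ × ℤ)} {L : ℕ → Ln4} {m : ℕ} {D K R0 r0 a w1 w2 a' w1' w2' x : ℝ}
    {qm qp : Fin 3 → ℝ} (H : DMaxD P L m D qm qp r0 (rho m) a w1 w2) (hm : ∀ k, 0 ≤ qm k)
    (hmp : ∀ k, qm k ≤ qp k) (ha : 0 < a) (h1 : 0 < w1) (h2 : 0 < w2) (ha' : 0 < a') (h1' : 0 < w1')
    (h2' : 0 < w2') (hx : 1 ≤ x) (ea : a' ≤ x * a) (e1 : w1' ≤ x * w1) (e2 : w2' ≤ x * w2)
    (hr0 : 0 < r0) (hr : r0 ≤ rho m) (hD : 0 ≤ D) (hK : 1 ≤ K) (hR : R0 ≤ K * rho m) :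
    DMaxD P L m ((2 * K + 1) ^ 6 * (x ^ (3 + (qp 0 + qp 1 + qp 2)) * D)) qm qp r0 R0 a' w1' w2' := by
  classical
  intro c n l b' u1' u2' hn hb hbu hu huR
  have hp : ∀ k, 0 ≤ qp k := fun k => (hm k).trans (hmp k)
  have hx0 : 0 < x := by linarith
  have h3 := cover_wide (T := P.filter fun x => x.2 = c) (L := fun x => L x.1) (z0 := zl m c)
    (ρ := rho m) (r0 := r0) (K := K) (F := fun b u v => D * phC qm qp a w1 w2 b u v)
    (fun b u v hb hu hv => mul_nonneg hD (phC_pos ha h1 h2 hb hu hv).le)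
    (fun b u v b' u' v' hb hu hv eb eu ev => mul_le_mul_of_nonneg_left
      (phC_mono hm hp ha.le h1.le h2.le hb.le hu.le hv.le eb eu ev) hD)
    (fun n l b u v hn hb hbv hv hu => by
      have := H c n l b u v hn hb hbv hv hu
      rw [filter_filter]
      convert this) hr0 hr hK n l b' u1' u2' hn hb hbu hu (huR.trans hR)
  have pb : 0 < b' := hr0.trans_le hb
  have pv : 0 < u2' := pb.trans_le hbu
  have pu : 0 < u1' := pv.trans_le hu
  rw [filter_filter] at h3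
  have h4 := phC_ref hm hmp ha' h1' h2' hx pb.le pu.le pv.le ha h1 h2 ea e1 e2
  have e : x ^ (3 + (qp 0 + qp 1 + qp 2)) = x ^ (1 + qp 0) * x ^ (1 + qp 1) * x ^ (1 + qp 2) := by
    rw [← Real.rpow_add hx0, ← Real.rpow_add hx0]; congr 1; ring
  rw [← e] at h4
  have hK6 : (0:ℝ) ≤ (2 * K + 1) ^ 6 := by positivity
  have h5 : (2 * K + 1) ^ 6 * (D * phC qm qp a w1 w2 b' u1' u2') ≤
      (2 * K + 1) ^ 6 * (x ^ (3 + (qp 0 + qp 1 + qp 2)) * D) * phC qm qp a' w1' w2' b' u1' u2' := by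
    calc (2 * K + 1) ^ 6 * (D * phC qm qp a w1 w2 b' u1' u2') ≤
        (2 * K + 1) ^ 6 * (D * (x ^ (3 + (qp 0 + qp 1 + qp 2)) *
          phC qm qp a' w1' w2' b' u1' u2')) := by gcongr
      _ = _ := by ring
  refine le_trans ?_ (h3.trans h5)
  exact le_of_eq (by congr)

end Crest.Agent.R136.Fl808
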