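import Crest.Agent.R136.Pl2Def_860
import Crest.Agent.R136.Fw0_808

/-!
# R136 (S0187), PLAN 2, flat case: D-max for all boxes gives the fields of `TCore` (helper719)

* `Dm`       : D-max of one cell for all boxes;
* `hull_of`, `tube_of`, `share_of` : the fields `hull`, `tubeu`, `share` of `Pl2.TCore` (`Y = a`).
-/

set_option autoImplicit false
set_option linter.unusedVariables false

open Finset

namespace Crest.Agent.R136.Ft719

open Crest.Agent.R136.Sh605 Crest.Agent.R136.Fl808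
open Crest.Agent.R136.Phc248 (ph phC ph_mul ph_le_one ph_ge_one ph_nonneg ph_one phC_nonneg ph_mono)

open Classical in
/-- D-max of one cell for all boxes -/
def Dm {ι : Type*} (P : Finset ι) (L : ι → Ln4) (z0 ρ D : ℝ) (qm qp : Fin 3 → ℝ)
    (r0 R0 a w1 w2 : ℝ) : Prop :=
  ∀ (n : Fin 3 → V3) (l : Ln4) (a' w1' w2' : ℝ), Ortho n → r0 ≤ a' → a' ≤ w2' → w2' ≤ w1' →
    w1' ≤ R0 → ((P.filter fun t => InB (L t) l n ![a', w1', w2'] z0 ρ).card : ℝ) ≤
      D * phC qm qp a w1 w2 a' w1' w2'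

section

variable {ι : Type*} {P : Finset ι} {L : ι → Ln4} {qm qp : Fin 3 → ℝ} {r0 a w1 w2 D z0 ρ : ℝ}

open Classical in
theorem hull_of (hd : Dm P L z0 ρ D qm qp r0 (10 ^ 6 * w1) a w1 w2)
    (hmp : ∀ k, qm k ≤ qp k) (ha : 0 < a) (h1 : 0 < w1) (h2 : 0 < w2) (hr : r0 ≤ a)
    {f : Fin 3 → V3} (hf : Ortho f) {b : Ln4} {X0 X2 : ℝ} (e0 : a ≤ X0) (e2 : w2 ≤ X2)
    (e02 : X0 ≤ X2) (e21 : X2 ≤ 10 ^ 6 * w1) :
    ((P.filter fun t => InB (L t) b f ![X0, 10 ^ 6 * w1, X2] z0 ρ).card : ℝ) ≤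
      (10 ^ 6 : ℝ) ^ (1 + qp 1) * D * ((X0 / a) ^ (1 + qp 0) * (X2 / w2) ^ (1 + qp 2)) := by
  refine (hd f b X0 (10 ^ 6 * w1) X2 hf (hr.trans e0) e02 e21 le_rfl).trans (le_of_eq ?_)
  have g0 : ph (qm 0) (qp 0) (X0 / a) = (X0 / a) ^ (1 + qp 0) :=
    ph_ge_one (hmp 0) ((one_le_div ha).2 e0)
  have g2 : ph (qm 2) (qp 2) (X2 / w2) = (X2 / w2) ^ (1 + qp 2) :=
    ph_ge_one (hmp 2) ((one_le_div h2).2 e2)
  have e : 10 ^ 6 * w1 / w1 = (10 ^ 6 : ℝ) := by field_simp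
  have g1 : ph (qm 1) (qp 1) (10 ^ 6 * w1 / w1) = (10 ^ 6 : ℝ) ^ (1 + qp 1) := by
    rw [e]; exact ph_ge_one (hmp 1) (by norm_num)
  unfold phC
  rw [g0, g1, g2]
  ring

open Classical in
theorem tube_of (hd : Dm P L z0 ρ D qm qp r0 (10 ^ 6 * w1) a w1 w2) (hm : ∀ k, 0 ≤ qm k)
    (hmp : ∀ k, qm k ≤ qp k) (ha : 0 < a) (haw : a ≤ w2) (hw : w2 ≤ w1) (hr : r0 ≤ a)
    (hD : 0 ≤ D) {e : Fin 3 → V3} (he : Ortho e) {l : Ln4} {Q : Finset ι} (hQ : Q ⊆ P) {t : ι}
    (ht : InB (L t) l e ![a, w1, w2] z0 ρ) {δ : ℝ} (hδ : w2 ≤ 8 * (δ * w1)) (hδ1 : δ ≤ 1)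
    (h : ∀ s ∈ Q, InB (L s) l e ![a, w1, w2] z0 ρ ∧ ∀ z, z0 ≤ z → z ≤ z0 + ρ →
      |dt (e 1) ((L s).pos z - (L t).pos z)| ≤ δ * w1) :
    (Q.card : ℝ) ≤ (2 ^ (1 + qp 0) * 16 ^ (1 + qp 1) * 2 ^ (1 + qp 2)) * D * δ ^ (1 + qm 1) := by
  have hw2 : 0 < w2 := ha.trans_le haw
  have hw1 : 0 < w1 := hw2.trans_le hw
  have hδ0 : 0 < δ := by
    by_contra hc
    have : δ * w1 ≤ 0 := mul_nonpos_of_nonpos_of_nonneg (not_lt.1 hc) hw1.le
    linarith
  have h3 : (Q.card : ℝ) ≤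
      ((P.filter fun s => InB (L s) (L t) e ![2 * a, 16 * (δ * w1), 2 * w2] z0 ρ).card : ℝ) := by
    refine Nat.cast_le.2 (card_le_card fun s hs => mem_filter.2 ⟨hQ hs, ?_⟩)
    obtain ⟨hs1, hs2⟩ := h s hs
    intro z hz hz' i
    have d := diff_box hs1 ht z hz hz'
    have d0 := d 0
    have d2 := d 2
    have d1 := hs2 z hz hz'
    have p : 0 < δ * w1 := by positivity
    simp only [Matrix.cons_val_zero, Matrix.cons_val] at d0 d2
    fin_cases i
    · simpa using d0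
    · simp only [Fin.mk_one, Matrix.cons_val_one, Matrix.cons_val_zero]; linarith
    · simpa using d2
  have p1 : δ * w1 ≤ w1 := by nlinarith
  refine (h3.trans (hd e (L t) (2 * a) (16 * (δ * w1)) (2 * w2) he (by linarith) (by linarith)
    (by linarith) (by linarith))).trans ?_
  have f0 := ph_mul (r := 1) (hm 0) (hmp 0) zero_le_one (by norm_num : (1:ℝ) ≤ 2)
  have f1 := ph_mul (r := δ) (hm 1) (hmp 1) hδ0.le (by norm_num : (1:ℝ) ≤ 16)
  have f2 := ph_mul (r := 1) (hm 2) (hmp 2) zero_le_one (by norm_num : (1:ℝ) ≤ 2)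
  rw [ph_one, mul_one, mul_one] at f0 f2
  rw [ph_le_one (hm 1) (hmp 1) hδ0.le hδ1] at f1
  have e0 : 2 * a / a = 2 := by field_simp
  have e1 : 16 * (δ * w1) / w1 = 16 * δ := by field_simp
  have e2 : 2 * w2 / w2 = 2 := by field_simp
  have k : phC qm qp a w1 w2 (2 * a) (16 * (δ * w1)) (2 * w2) ≤
      2 ^ (1 + qp 0) * (16 ^ (1 + qp 1) * δ ^ (1 + qm 1)) * 2 ^ (1 + qp 2) := by
    unfold phC
    rw [e0, e1, e2]
    have g1 := ph_nonneg (m := qm 1) (p := qp 1) (r := 16 * δ) (by positivity)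
    have g2 := ph_nonneg (m := qm 2) (p := qp 2) (r := 2) (by norm_num)
    exact mul_le_mul (mul_le_mul f0 f1 g1 (by positivity)) f2 g2 (by positivity)
  calc D * phC qm qp a w1 w2 (2 * a) (16 * (δ * w1)) (2 * w2) ≤
      D * (2 ^ (1 + qp 0) * (16 ^ (1 + qp 1) * δ ^ (1 + qm 1)) * 2 ^ (1 + qp 2)) := by gcongr
    _ = _ := by ring

/-- constant of `share_of` -/
noncomputable def cS (qm qp : Fin 3 → ℝ) : ℝ :=
  4 ^ (1 + qp 0) * 1280 ^ (1 + qp 1) * 160 ^ (1 + qp 2) * 2 ^ (1 + qm 2)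

theorem cS_pos (qm qp : Fin 3 → ℝ) : 0 < cS qm qp := by unfold cS; positivity

/-- numbers of the narrow box -/
theorem share_num (hm : ∀ k, 0 ≤ qm k) (hmp : ∀ k, qm k ≤ qp k) (hq : qm 2 ≤ qm 1) (ha : 0 < a)
    (h1 : 0 < w1) (h2 : 0 < w2) {lg sh J E : ℝ} (hlg : 0 < lg) (hsh : 0 < sh) (hJ : 1 ≤ J)
    (hE : 1 ≤ E) (e1 : lg ≤ 1280 * (w1 / J)) (e2 : sh ≤ 160 * w2)
    (e3 : sh * lg ≤ 409600 * (w1 * w2 / (J * E))) :
    phC qm qp a w1 w2 (4 * a) lg sh ≤ cS qm qp / (J ^ (1 + qm 1) * E ^ (1 + qm 2)) := by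
  have hJ0 : 0 < J := by linarith
  have hE0 : 0 < E := by linarith
  have c0 := hm 0
  have c1 := hm 1
  have c2 := hm 2
  have d0 := c0.trans (hmp 0)
  have d1 := c1.trans (hmp 1)
  have d2 := c2.trans (hmp 2)
  set x := lg / (1280 * w1) with hx
  set y := sh / (160 * w2) with hy
  have hx0 : 0 < x := by positivity
  have hy0 : 0 < y := by positivity
  have hxJ : x ≤ 1 / J := by
    rw [hx, div_le_div_iff₀ (by positivity) hJ0]
    have : 1280 * (w1 / J) = 1280 * w1 / J := by ring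
    rw [this, le_div_iff₀ hJ0] at e1
    linarith
  have hJ1 : 1 / J ≤ 1 := by rw [div_le_one hJ0]; exact hJ
  have hy1 : y ≤ 1 := by
    rw [hy, div_le_one (by positivity)]; exact e2
  have hxy : x * y ≤ 2 / (J * E) := by
    have : x * y = sh * lg / (204800 * (w1 * w2)) := by rw [hx, hy]; field_simp; ring
    rw [this, div_le_div_iff₀ (by positivity) (by positivity)]
    have h5 : 409600 * (w1 * w2 / (J * E)) = 409600 * (w1 * w2) / (J * E) := by ring
    rw [h5, le_div_iff₀ (by positivity)] at e3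
    linarith
  have f0 := ph_mul (r := 1) (hm 0) (hmp 0) zero_le_one (by norm_num : (1:ℝ) ≤ 4)
  have f1 := ph_mul (r := x) (hm 1) (hmp 1) hx0.le (by norm_num : (1:ℝ) ≤ 1280)
  have f2 := ph_mul (r := y) (hm 2) (hmp 2) hy0.le (by norm_num : (1:ℝ) ≤ 160)
  rw [ph_one, mul_one, mul_one] at f0
  rw [ph_le_one (hm 1) (hmp 1) hx0.le (hxJ.trans hJ1)] at f1
  rw [ph_le_one (hm 2) (hmp 2) hy0.le hy1] at f2
  have g0 : 4 * a / a = 4 := by field_simp
  have g1 : lg / w1 = 1280 * x := by rw [hx]; field_simp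
  have g2 : sh / w2 = 160 * y := by rw [hy]; field_simp
  have key : x ^ (1 + qm 1) * y ^ (1 + qm 2) ≤
      2 ^ (1 + qm 2) / (J ^ (1 + qm 1) * E ^ (1 + qm 2)) := by
    have k1 : x ^ (1 + qm 1) = x ^ (qm 1 - qm 2) * x ^ (1 + qm 2) := by
      rw [← Real.rpow_add hx0]; congr 1; ring
    have k2 : x ^ (1 + qm 2) * y ^ (1 + qm 2) = (x * y) ^ (1 + qm 2) :=
      (Real.mul_rpow hx0.le hy0.le).symm
    have k3 : x ^ (qm 1 - qm 2) ≤ (1 / J) ^ (qm 1 - qm 2) :=
      Real.rpow_le_rpow hx0.le hxJ (by linarith)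
    have k4 : (x * y) ^ (1 + qm 2) ≤ (2 / (J * E)) ^ (1 + qm 2) :=
      Real.rpow_le_rpow (by positivity) hxy (by linarith)
    calc x ^ (1 + qm 1) * y ^ (1 + qm 2) = x ^ (qm 1 - qm 2) * (x * y) ^ (1 + qm 2) := by
          rw [k1, ← k2]; ring
      _ ≤ (1 / J) ^ (qm 1 - qm 2) * (2 / (J * E)) ^ (1 + qm 2) := by gcongr
      _ = _ := by
          rw [Real.div_rpow zero_le_one hJ0.le, Real.one_rpow,
            Real.div_rpow zero_le_two (by positivity), Real.mul_rpow hJ0.le hE0.le]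
          have k5 : J ^ (1 + qm 1) = J ^ (qm 1 - qm 2) * J ^ (1 + qm 2) := by
            rw [← Real.rpow_add hJ0]; congr 1; ring
          rw [k5]
          field_simp
  unfold phC
  rw [g0, g1, g2]
  have p1 := ph_nonneg (m := qm 1) (p := qp 1) (r := 1280 * x) (by positivity)
  have p2 := ph_nonneg (m := qm 2) (p := qp 2) (r := 160 * y) (by positivity)
  calc ph (qm 0) (qp 0) 4 * ph (qm 1) (qp 1) (1280 * x) * ph (qm 2) (qp 2) (160 * y) ≤
      4 ^ (1 + qp 0) * (1280 ^ (1 + qp 1) * x ^ (1 + qm 1)) *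
        (160 ^ (1 + qp 2) * y ^ (1 + qm 2)) :=
        mul_le_mul (mul_le_mul f0 f1 p1 (by positivity)) f2 p2 (by positivity)
    _ = 4 ^ (1 + qp 0) * 1280 ^ (1 + qp 1) * 160 ^ (1 + qp 2) *
        (x ^ (1 + qm 1) * y ^ (1 + qm 2)) := by ring
    _ ≤ 4 ^ (1 + qp 0) * 1280 ^ (1 + qp 1) * 160 ^ (1 + qp 2) *
        (2 ^ (1 + qm 2) / (J ^ (1 + qm 1) * E ^ (1 + qm 2))) := by gcongr
    _ = _ := by unfold cS; ring

open Classical in
/-- **share** of a pair with tilt -/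
theorem share_of (hd : Dm P L z0 ρ D qm qp r0 (10 ^ 6 * w1) a w1 w2) (hm : ∀ k, 0 ≤ qm k)
    (hmp : ∀ k, qm k ≤ qp k) (hq : qm 2 ≤ qm 1) (ha : 0 < a) (haw : a ≤ w2) (hw : w2 ≤ w1)
    (hr : r0 ≤ a) (hD : 0 ≤ D) {e e' : Fin 3 → V3} (he : Ortho e) (he' : Ortho e') {j k' : ℕ}
    (H : Dy e e' a w1 w2 j k') {l l' : Ln4} {Q : Finset ι} (hQ : Q ⊆ P)
    (h1 : ∀ t ∈ Q, InB (L t) l e ![a, w1, w2] z0 ρ)
    (h2 : ∀ t ∈ Q, InB (L t) l' e' ![a, w1, w2] z0 ρ) :
    (Q.card : ℝ) ≤ cS qm qp * D / (((2:ℝ) ^ j) ^ (1 + qm 1) * ((2:ℝ) ^ k') ^ (1 + qm 2)) := by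
  have hw2 : 0 < w2 := ha.trans_le haw
  have hw1 : 0 < w1 := hw2.trans_le hw
  have hJ : (0:ℝ) < 2 ^ j := by positivity
  have hJ1 : (1:ℝ) ≤ 2 ^ j := one_le_pow₀ (by norm_num)
  have hE : (0:ℝ) < 2 ^ k' := by positivity
  have hE1 : (1:ℝ) ≤ 2 ^ k' := one_le_pow₀ (by norm_num)
  rcases Q.eq_empty_or_nonempty with hE' | ⟨t0, ht0⟩
  · rw [hE', card_empty, Nat.cast_zero]
    have := cS_pos qm qp
    positivity
  set B := w1 / 2 ^ j with hB
  have hB0 : 0 < B := by positivity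
  have hBw : B ≤ w1 := div_le_self hw1.le hJ1
  have hlw := H.hlw he he' ha haw hw
  have hwB : w2 ≤ 2 * B := by
    rw [hB, mul_div_assoc', le_div_iff₀ hJ]; linarith
  have hshort : ∀ t ∈ Q, ∀ z, z0 ≤ z → z ≤ z0 + ρ →
      |dt (e 1) ((L t).pos z - (L t0).pos z)| ≤ 12 * B := by
    intro t ht z hz hz'
    have := (H.tl he he' ha haw hw).short he he' ha haw hw hJ (h1 t ht) (h1 t0 ht0) (h2 t ht)
      (h2 t0 ht0) hz hz'
    rw [hB]
    calc _ ≤ 12 * w1 / 2 ^ j := this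
      _ = _ := by ring
  -- it is enough to find the box
  have fin : ∀ (n : Fin 3 → V3) (lg sh : ℝ), Ortho n → 4 * a ≤ sh → sh ≤ lg →
      lg ≤ 1280 * B → sh ≤ 160 * w2 → sh * lg ≤ 409600 * (w1 * w2 / (2 ^ j * 2 ^ k')) →
      (∀ t ∈ Q, InB (L t) (L t0) n ![4 * a, lg, sh] z0 ρ) →
      (Q.card : ℝ) ≤ cS qm qp * D / (((2:ℝ) ^ j) ^ (1 + qm 1) * ((2:ℝ) ^ k') ^ (1 + qm 2)) := by
    intro n lg sh hn c1 c2 c3 c4 c5 c6
    have h3 : (Q.card : ℝ) ≤
        ((P.filter fun s => InB (L s) (L t0) n ![4 * a, lg, sh] z0 ρ).card : ℝ) :=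
      Nat.cast_le.2 (card_le_card fun s hs => mem_filter.2 ⟨hQ hs, c6 s hs⟩)
    have h4 := hd n (L t0) (4 * a) lg sh hn (by linarith) c1 c2 (by linarith)
    have hsh : 0 < sh := by linarith
    have h5 := share_num (qm := qm) (qp := qp) (a := a) hm hmp hq ha hw1 hw2 (hsh.trans_le c2) hsh
      hJ1 hE1 c3 c4 c5
    calc (Q.card : ℝ) ≤ D * phC qm qp a w1 w2 (4 * a) lg sh := h3.trans h4
      _ ≤ D * (cS qm qp / (((2:ℝ) ^ j) ^ (1 + qm 1) * ((2:ℝ) ^ k') ^ (1 + qm 2))) := by gcongr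
      _ = _ := by ring
  have hu : ∀ t ∈ Q, ∀ z, z0 ≤ z → z ≤ z0 + ρ → ∀ i,
      |dt (e i) ((L t).pos z - (L t0).pos z)| ≤ 2 * (![a, w1, w2] : V3) i := by
    intro t ht z hz hz' i
    exact diff_box (h1 t ht) (h1 t0 ht0) z hz hz' i
  have hu' : ∀ t ∈ Q, ∀ z, z0 ≤ z → z ≤ z0 + ρ → ∀ i,
      |dt (e' i) ((L t).pos z - (L t0).pos z)| ≤ 2 * (![a, w1, w2] : V3) i := by
    intro t ht z hz hz' i
    exact diff_box (h2 t ht) (h2 t0 ht0) z hz hz' i
  rcases Nat.lt_or_ge k' 2 with hk | hk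
  · -- no thickness tilt
    have hk2 : (2:ℝ) ^ k' ≤ 2 := by
      calc (2:ℝ) ^ k' ≤ 2 ^ 1 := pow_le_pow_right₀ (by norm_num) (by omega)
        _ = 2 := by norm_num
    refine fin e (20 * B) (4 * w2) he (by linarith) (by linarith) (by linarith) (by linarith) ?_ ?_
    · have e1 : 409600 * (w1 * w2 / (2 ^ j * 2 ^ k')) = 409600 * (B * w2) / 2 ^ k' := by
        rw [hB]; field_simp
      rw [e1, le_div_iff₀ hE]
      have p : 0 < B * w2 := by positivity
      calc 4 * w2 * (20 * B) * 2 ^ k' ≤ 4 * w2 * (20 * B) * 2 := by gcongr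
        _ = 160 * (B * w2) := by ring
        _ ≤ _ := by linarith
    · intro t ht z hz hz' i
      have d0 := hu t ht z hz hz' 0
      have d1 := hshort t ht z hz hz'
      have d2 := hu t ht z hz hz' 2
      simp only [Matrix.cons_val_zero, Matrix.cons_val] at d0 d2
      fin_cases i
      · simp only [Fin.zero_eta, Matrix.cons_val_zero]; linarith
      · simp only [Fin.mk_one, Matrix.cons_val_one, Matrix.cons_val_zero]; linarith
      · simp only [Fin.reduceFinMk, Matrix.cons_val]; linarith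
  · obtain ⟨m, rfl⟩ : ∃ m, k' = m + 2 := ⟨k' - 2, by omega⟩
    set W1 := max (10 * w2) (5 * (w1 / 2 ^ j)) with hW1
    have hA := H.aligned he he' ha haw hw hW1
    have hlo := H.tlt_lo he he' ha haw hw hW1 rfl
    have hW1p : 0 < W1 := lt_max_of_lt_left (by positivity)
    have hW1B : W1 ≤ 20 * B := max_le (by linarith) (by rw [← hB]; linarith)
    have hW15 : 5 * B ≤ W1 := le_max_right _ _
    have hW12 : 10 * w2 ≤ W1 := le_max_left _ _
    have hA4 : Aligned e e' (4 * W1) (4 * (10 * w2)) := by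
      have k1 := hA.a12
      have k2 := hA.a21
      have k3 := hA.a01
      exact ⟨by linarith, by linarith, by linarith⟩
    have hlo4 : 4 * (2 ^ m * (2 * a)) ≤ tlt e e' (4 * W1) (4 * (10 * w2)) := by
      unfold tlt at hlo ⊢
      rcases le_max_iff.1 hlo with h | h
      · refine le_trans ?_ (le_max_left _ _)
        linarith
      · refine le_trans ?_ (le_max_right _ _)
        linarith
    have hm1 : (1:ℝ) ≤ 2 ^ m := one_le_pow₀ (by norm_num)
    have hm0 : (0:ℝ) < 2 ^ m := by positivity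
    have hτ : 2 * a ≤ tlt e e' (4 * W1) (4 * (10 * w2)) := by
      refine le_trans ?_ hlo4
      nlinarith
    set τ := tlt e e' (4 * W1) (4 * (10 * w2)) with hτd
    have hτ0 : 0 < τ := by linarith
    obtain ⟨n, lg, sh, hn, c1, c2, c3, c3', c4, c5⟩ := strip (z0 := z0) (ρ := ρ) he he'
      (by linarith : (0:ℝ) < 2 * a) (by linarith : 2 * a ≤ 4 * (10 * w2)) (by linarith) hA4 hτd hτ
    refine fin n lg sh hn (by linarith) c2 (by linarith) (by linarith) ?_ ?_
    · refine c4.trans ?_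
      have e1 : 409600 * (w1 * w2 / (2 ^ j * 2 ^ (m + 2))) = 102400 * (B * w2) / 2 ^ m := by
        rw [hB, pow_add]; field_simp; norm_num
      rw [e1]
      have e2 : 2 * a * (4 * W1) * (4 * (10 * w2)) / τ ≤
          2 * a * (4 * W1) * (4 * (10 * w2)) / (4 * (2 ^ m * (2 * a))) := by
        gcongr
      have e3 : 2 * a * (4 * W1) * (4 * (10 * w2)) / (4 * (2 ^ m * (2 * a))) =
          40 * (W1 * w2) / 2 ^ m := by field_simp; norm_num
      rw [e3] at e2
      calc 128 * (2 * a * (4 * W1) * (4 * (10 * w2)) / τ) ≤ 128 * (40 * (W1 * w2) / 2 ^ m) := by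
            linarith
        _ ≤ 128 * (40 * ((20 * B) * w2) / 2 ^ m) := by gcongr
        _ = _ := by ring
    · intro t ht
      have z1 : InB (L t0) (L t0) e ![2 * a, 4 * W1, 4 * (10 * w2)] z0 ρ := by
        intro z hz hz' i
        rw [sub_self]
        have : dt (e i) (0 : V3) = 0 := by simp [dt]
        rw [this, abs_zero]
        fin_cases i
        · simp only [Fin.zero_eta, Matrix.cons_val_zero]; linarith
        · simp only [Fin.mk_one, Matrix.cons_val_one, Matrix.cons_val_zero]; linarith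
        · simp only [Fin.reduceFinMk, Matrix.cons_val]; linarith
      have z2 : InB (L t0) (L t0) e' ![2 * a, 4 * W1, 4 * (10 * w2)] z0 ρ := by
        intro z hz hz' i
        rw [sub_self]
        have : dt (e' i) (0 : V3) = 0 := by simp [dt]
        rw [this, abs_zero]
        fin_cases i
        · simp only [Fin.zero_eta, Matrix.cons_val_zero]; linarith
        · simp only [Fin.mk_one, Matrix.cons_val_one, Matrix.cons_val_zero]; linarith
        · simp only [Fin.reduceFinMk, Matrix.cons_val]; linarith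
      have y1 : InB (L t) (L t0) e ![2 * a, 4 * W1, 4 * (10 * w2)] z0 ρ := by
        intro z hz hz' i
        have d0 := hu t ht z hz hz' 0
        have d1 := hshort t ht z hz hz'
        have d2 := hu t ht z hz hz' 2
        simp only [Matrix.cons_val_zero, Matrix.cons_val] at d0 d2
        fin_cases i
        · simp only [Fin.zero_eta, Matrix.cons_val_zero]; linarith
        · simp only [Fin.mk_one, Matrix.cons_val_one, Matrix.cons_val_zero]; linarith
        · simp only [Fin.reduceFinMk, Matrix.cons_val]; linarith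
      have y2 : InB (L t) (L t0) e' ![2 * a, 4 * W1, 4 * (10 * w2)] z0 ρ := by
        intro z hz hz' i
        have d0 := hu t ht z hz hz' 0
        have d1 := hshort t ht z hz hz'
        have d2 := hu t ht z hz hz' 2
        have d0' := hu' t ht z hz hz' 0
        have d2' := hu' t ht z hz hz' 2
        simp only [Matrix.cons_val_zero, Matrix.cons_val] at d0 d2 d0' d2'
        fin_cases i
        · simp only [Fin.zero_eta, Matrix.cons_val_zero]; linarith
        · simp only [Fin.mk_one, Matrix.cons_val_one, Matrix.cons_val_zero]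
          have e1 := dt_expand he (e' 1) ((L t).pos z - (L t0).pos z)
          have b0 := abs_dt_le_one he he' 1 0
          have b1 := abs_dt_le_one he he' 1 1
          have b2 := abs_dt_le_one he he' 1 2
          set u := (L t).pos z - (L t0).pos z with hu0
          have g0 : |dt (e' 1) (e 0) * dt (e 0) u| ≤ 1 * (2 * a) := by
            rw [abs_mul]; gcongr
          have g1 : |dt (e' 1) (e 1) * dt (e 1) u| ≤ 1 * (12 * B) := by
            rw [abs_mul]; gcongr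
          have g2 : |dt (e' 1) (e 2) * dt (e 2) u| ≤ 1 * (2 * w2) := by
            rw [abs_mul]; gcongr
          have g3 := abs_add_le (dt (e' 1) (e 0) * dt (e 0) u + dt (e' 1) (e 1) * dt (e 1) u)
            (dt (e' 1) (e 2) * dt (e 2) u)
          have g4 := abs_add_le (dt (e' 1) (e 0) * dt (e 0) u) (dt (e' 1) (e 1) * dt (e 1) u)
          rw [e1]
          linarith
        · simp only [Fin.reduceFinMk, Matrix.cons_val]; linarith
      have y3 := c5 (L t0) (L t0) (L t) (L t0) y1 z1 y2 z2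
      have e4 : (2:ℝ) * (2 * a) = 4 * a := by ring
      rwa [e4] at y3

end

end Crest.Agent.R136.Ft719
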