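import Crest.Agent.R136.Ft2_719

/-!
# R136 (S0187), PLAN 2, flat case: numbers at the end (helper719)
-/

set_option autoImplicit false
set_option linter.unusedVariables false

open Finset

namespace Crest.Agent.R136.Ft719

open Crest.Agent.R136.Sh605 Crest.Agent.R136.Fl808
open Crest.Agent.R136.Pl2W102 (Ex2)

/-- `QmOk` gives `Ex2` for some `η` -/
theorem ex2_of {qm qp : Fin 3 → ℝ} (h : QmOk qm qp) : ∃ η : ℝ, Ex2 η qm qp := by
  have h1 : 0 < qm 1 := by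
    have := h.m1
    have := h.m2
    have := h.mp 2
    have := (h.m0 0).trans (h.mp 0)
    linarith
  have h2 := h.m2
  have p0 := (h.m0 0).trans (h.mp 0)
  have p2 := (h.m0 2).trans (h.mp 2)
  refine ⟨qp 0 / qm 2 ^ 2 + qp 2 / qm 1, fun k => ⟨h.m0 k, h.mp k⟩, h.m2, h.p0, h.m1, ?_, ?_⟩
  · have e : qp 0 = qp 0 / qm 2 ^ 2 * qm 2 ^ 2 := by field_simp
    have : 0 ≤ qp 2 / qm 1 * qm 2 ^ 2 := by positivity
    calc qp 0 = qp 0 / qm 2 ^ 2 * qm 2 ^ 2 := e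
      _ ≤ _ := by rw [add_mul]; linarith
  · have e : qp 2 = qp 2 / qm 1 * qm 1 := by field_simp
    have : 0 ≤ qp 0 / qm 2 ^ 2 * qm 1 := by positivity
    calc qp 2 = qp 2 / qm 1 * qm 1 := e
      _ ≤ _ := by rw [add_mul]; linarith

section

variable {e e' : Fin 3 → V3} {a w1 w2 : ℝ} {j k' j' k'' : ℕ}

theorem dy_j (ha : 0 < a) (hw2 : 0 < w2) (H : Dy e e' a w1 w2 j k')
    (H' : Dy e e' a w1 w2 j' k'') : (2:ℝ) ^ j ≤ 2 * 2 ^ j' := by
  have hj' : (1:ℝ) ≤ 2 ^ j' := one_le_pow₀ (by norm_num)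
  have fin : (2:ℝ) ^ j * w2 ≤ 2 * 2 ^ j' * w2 → (2:ℝ) ^ j ≤ 2 * 2 ^ j' :=
    fun h => le_of_mul_le_mul_right h hw2
  rcases H.blo with h | h | h
  · rw [h, pow_zero]; linarith
  · have := H'.b21; exact fin (by linarith)
  · have := H'.b01; exact fin (by linarith)

theorem dy_k (ha : 0 < a) (hw2 : 0 < w2) (H : Dy e e' a w1 w2 j k')
    (H' : Dy e e' a w1 w2 j' k'') : (2:ℝ) ^ k' ≤ 2 * (2 ^ j' * 2 ^ k'') := by
  have hj : (1:ℝ) ≤ 2 ^ j := one_le_pow₀ (by norm_num)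
  have hj' : (1:ℝ) ≤ 2 ^ j' := one_le_pow₀ (by norm_num)
  have hk' : (1:ℝ) ≤ 2 ^ k' := one_le_pow₀ (by norm_num)
  have hk'' : (1:ℝ) ≤ 2 ^ k'' := one_le_pow₀ (by norm_num)
  have f1 : ∀ x : ℝ, (2:ℝ) ^ k' * (2 ^ j * a) ≤ 2 * x → x ≤ 2 ^ k'' * (2 ^ j' * a) →
      (2:ℝ) ^ k' ≤ 2 * (2 ^ j' * 2 ^ k'') := by
    intro x h1 h2
    have h3 : (2:ℝ) ^ k' * a ≤ 2 ^ k' * (2 ^ j * a) := by
      have : 1 * a ≤ 2 ^ j * a := by gcongr
      calc (2:ℝ) ^ k' * a = 2 ^ k' * (1 * a) := by ring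
        _ ≤ _ := by gcongr
    have h4 : (2:ℝ) ^ k' * a ≤ (2 * (2 ^ j' * 2 ^ k'')) * a := by
      calc (2:ℝ) ^ k' * a ≤ 2 * (2 ^ k'' * (2 ^ j' * a)) := by linarith
        _ = _ := by ring
    exact le_of_mul_le_mul_right h4 ha
  have f2 : ∀ x : ℝ, (2:ℝ) ^ k' * (2 ^ j * a) ≤ 2 * (2 ^ j * x) →
      2 ^ j' * x ≤ 2 ^ k'' * (2 ^ j' * a) → (2:ℝ) ^ k' ≤ 2 * (2 ^ j' * 2 ^ k'') := by
    intro x h1 h2
    have h3 : x ≤ 2 ^ k'' * a := by
      have : (2:ℝ) ^ j' * x ≤ 2 ^ j' * (2 ^ k'' * a) := h2.trans (le_of_eq (by ring))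
      exact le_of_mul_le_mul_left this (by positivity)
    have h4 : (2:ℝ) ^ j * (2 ^ k' * a) ≤ 2 ^ j * (2 * x) := by
      calc (2:ℝ) ^ j * (2 ^ k' * a) = 2 ^ k' * (2 ^ j * a) := by ring
        _ ≤ _ := h1.trans (le_of_eq (by ring))
    have h5 : (2:ℝ) ^ k' * a ≤ 2 * x := le_of_mul_le_mul_left h4 (by positivity)
    have h6 : (2:ℝ) ^ k' * a ≤ (2 * 2 ^ k'') * a := by linarith
    have h7 : (2:ℝ) ^ k' ≤ 2 * 2 ^ k'' := le_of_mul_le_mul_right h6 ha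
    nlinarith
  rcases H.tlo with h | h | h | h | h
  · rw [h, pow_zero]; nlinarith
  · exact f1 _ h H'.t10
  · exact f2 _ h H'.t20
  · exact f1 _ h H'.t01
  · exact f2 _ h H'.t02

end

/-- **numbers** -/
theorem flat_num {C0 c : ℝ} (hC0 : 0 ≤ C0) (hc : 1 ≤ c) : ∃ C : ℝ, 0 ≤ C ∧
    ∀ {e e' : Fin 3 → V3} {a w1 w2 W : ℝ} {j k' j' k'' : ℕ}, 0 < a → 0 < w2 → 1 ≤ W →
      Dy e e' a w1 w2 j k' → Dy e e' a w1 w2 j' k'' →
      (2:ℝ) ^ j' * 2 ^ k'' ≤ (2 * (c * W)) ^ C0 →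
      (j : ℝ) ≤ C * (1 + Real.log W) ∧ (k' : ℝ) ≤ C * (1 + Real.log W) := by
  have hl2 : 0 < Real.log 2 := Real.log_pos (by norm_num)
  have hlc : 0 ≤ Real.log (2 * c) := Real.log_nonneg (by linarith)
  refine ⟨1 + C0 * (Real.log (2 * c) + 1) / Real.log 2, by positivity, ?_⟩
  intro e e' a w1 w2 W j k' j' k'' ha hw2 hW H H' h
  have hlW : 0 ≤ Real.log W := Real.log_nonneg hW
  have hj' : (1:ℝ) ≤ 2 ^ j' := one_le_pow₀ (by norm_num)
  have hk'' : (1:ℝ) ≤ 2 ^ k'' := one_le_pow₀ (by norm_num)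
  have hX : (0:ℝ) < 2 * (c * W) := by positivity
  have fin : ∀ m : ℕ, (2:ℝ) ^ m ≤ 2 * (2 * (c * W)) ^ C0 →
      (m : ℝ) ≤ (1 + C0 * (Real.log (2 * c) + 1) / Real.log 2) * (1 + Real.log W) := by
    intro m hm
    have h1 := Real.log_le_log (by positivity) hm
    rw [Real.log_pow, Real.log_mul (by norm_num) (by positivity), Real.log_rpow hX,
      show 2 * (c * W) = (2 * c) * W by ring, Real.log_mul (by positivity) (by positivity)] at h1
    have h2 : (m : ℝ) ≤ 1 + C0 * (Real.log (2 * c) + Real.log W) / Real.log 2 := by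
      have e1 : (1 + C0 * (Real.log (2 * c) + Real.log W) / Real.log 2) * Real.log 2 =
          Real.log 2 + C0 * (Real.log (2 * c) + Real.log W) := by field_simp
      have h3 : (m : ℝ) * Real.log 2 ≤
          (1 + C0 * (Real.log (2 * c) + Real.log W) / Real.log 2) * Real.log 2 := by
        rw [e1]; exact h1
      exact le_of_mul_le_mul_right h3 hl2
    have h4 : C0 * (Real.log (2 * c) + Real.log W) ≤
        C0 * (Real.log (2 * c) + 1) * (1 + Real.log W) := by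
      have : Real.log (2 * c) + Real.log W ≤ (Real.log (2 * c) + 1) * (1 + Real.log W) := by
        nlinarith
      calc C0 * (Real.log (2 * c) + Real.log W) ≤ C0 * ((Real.log (2 * c) + 1) *
            (1 + Real.log W)) := by gcongr
        _ = _ := by ring
    have h5 : C0 * (Real.log (2 * c) + Real.log W) / Real.log 2 ≤
        C0 * (Real.log (2 * c) + 1) * (1 + Real.log W) / Real.log 2 := by gcongr
    calc (m : ℝ) ≤ 1 + C0 * (Real.log (2 * c) + Real.log W) / Real.log 2 := h2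
      _ ≤ (1 + Real.log W) + C0 * (Real.log (2 * c) + 1) * (1 + Real.log W) / Real.log 2 := by
          linarith
      _ = _ := by ring
  refine ⟨fin j ?_, fin k' ?_⟩
  · have h1 := dy_j ha hw2 H H'
    have h2 : (2:ℝ) ^ j' ≤ 2 ^ j' * 2 ^ k'' := by nlinarith
    linarith
  · have h1 := dy_k ha hw2 H H'
    linarith

end Crest.Agent.R136.Ft719
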