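import Crest.Agent.R136.Slb1_480

/-!
# R136: the isotropic block is full (helper403), finite form

`full3`: a family of lines of `ℝ³` with full shading, multiplicity at least `m` at every incidence,
such that every convex plank of cross section `s₀ × s₁` holds at most
`(s₀ s₁)^(1+q) H² m` lines (up to `H^ε`) satisfies `m H² ≤ H^η #lines`.
Input: `Tub70.KM32` (Kakeya maximal theorem in `ℝ³`).
-/

set_option autoImplicit false

open MeasureTheory Set Metric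
open scoped ENNReal NNReal

namespace Crest.Agent.R136.Ful403

open Crest.Agent.R138.Defs (E2)
open Crest.Agent.R136.Slb480 (ps km3_mult)

theorem le_rpow_of {C t : ℝ} (hC : 0 < C) (ht : 0 < t) {H : ℝ} (_hH : 0 < H)
    (h : C ^ (1 / t) ≤ H) : C ≤ H ^ t := by
  have h1 : (C ^ (1 / t)) ^ t = C := by
    rw [← Real.rpow_mul hC.le, one_div, inv_mul_cancel₀ ht.ne', Real.rpow_one]
  calc C = (C ^ (1 / t)) ^ t := h1.symm
    _ ≤ H ^ t := Real.rpow_le_rpow (by positivity) h ht.le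

open Classical in
/-- **The isotropic block is full.** -/
theorem full3 (hKM : ∀ V : ℝ, Crest.Agent.R138.Tub70.KM32 V) (V : ℝ) (hV : 0 ≤ V) (q η : ℝ)
    (hq : 0 < q) (hη : 0 < η) :
    ∃ ε : ℝ, 0 < ε ∧ ∃ H₀ : ℝ, ∀ H : ℕ, H₀ ≤ (H : ℝ) → ∀ (ι : Type) [Fintype ι] [Nonempty ι]
      (p v : ι → E2) (I : Finset (ι × ℤ)) (m : ℝ), 0 < m →
      (∀ i, ‖p i‖ ≤ V ∧ ‖v i‖ ≤ V) → (∀ x ∈ I, |x.2| ≤ (H : ℤ)) →
      (∀ i, (H : ℝ) ^ (1 - ε) ≤ ((I.filter fun x => x.1 = i).card : ℝ)) →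
      (∀ x ∈ I, m ≤ ((I.filter fun y => y.2 = x.2 ∧
        ‖ps p v y.1 (x.2 / H) - ps p v x.1 (x.2 / H)‖ ≤ 1 / H).card : ℝ)) →
      (∀ (b : OrthonormalBasis (Fin 2) ℝ E2) (s : Fin 2 → ℝ) (p0 v0 : E2),
        (∀ j, 1 / (H : ℝ) ≤ s j ∧ s j ≤ 1) →
        ((Finset.univ.filter fun i => Crest.Agent.R138.Tub70.InPl b s p0 v0 (p i) (v i)).card : ℝ) ≤
          (H : ℝ) ^ ε * (s 0 * s 1) ^ (1 + q) * (H : ℝ) ^ 2 * m) →
      m * (H : ℝ) ^ 2 ≤ (H : ℝ) ^ η * (Fintype.card ι : ℝ) := by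
  set κ : ℝ := η / 2 with hκ
  have hκ0 : 0 < κ := by positivity
  set ε : ℝ := min (q * κ / 8) (η / 12) with hε
  have hε0 : 0 < ε := by
    apply lt_min <;> positivity
  have hε1 : ε ≤ q * κ / 8 := min_le_left _ _
  have hε2 : ε ≤ η / 12 := min_le_right _ _
  obtain ⟨C, hC, key⟩ := km3_mult hKM V hV ε hε0
  refine ⟨ε, hε0, max (V + 2) (max 1 (max ((2 * C) ^ (1 / (η / 4))) ((2 * C) ^ (1 / (q * κ / 2))))),
    ?_⟩
  intro H hH ι _ _ p v I m hm hpv hI hline hmult hpl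
  have hHV : V + 2 ≤ (H : ℝ) := (le_max_left _ _).trans hH
  have hH1 : (1 : ℝ) ≤ H := ((le_max_left _ _).trans (le_max_right _ _)).trans hH
  have hHa : (2 * C) ^ (1 / (η / 4)) ≤ (H : ℝ) :=
    ((le_max_left _ _).trans ((le_max_right _ _).trans (le_max_right _ _))).trans hH
  have hHb : (2 * C) ^ (1 / (q * κ / 2)) ≤ (H : ℝ) :=
    ((le_max_right _ _).trans ((le_max_right _ _).trans (le_max_right _ _))).trans hH
  have hH0 : (0 : ℝ) < H := by linarith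
  have hHn : 1 ≤ H := by exact_mod_cast hH1
  have hN : (0 : ℝ) ≤ (Fintype.card ι : ℝ) := by positivity
  set N : ℝ := (Fintype.card ι : ℝ) with hNdef
  set D : ℝ := (H : ℝ) ^ (ε - q * κ) * m + (H : ℝ) ^ κ * (N / (H : ℝ) ^ 2) with hD
  have hD0 : 0 ≤ D := by positivity
  have h := key H hHn hHV ι p v I m ((H : ℝ) ^ (-ε)) D hm (by positivity) hD0 hpv hI
    (fun i => by
      have := hline i
      refine le_trans (le_of_eq ?_) this
      rw [show (1 : ℝ) - ε = -ε + 1 by ring, Real.rpow_add hH0, Real.rpow_one])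
    hmult
    (fun b s p0 v0 hs => by
      have hs0 : 0 < s 0 := lt_of_lt_of_le (by positivity) (hs 0).1
      have hs1 : 0 < s 1 := lt_of_lt_of_le (by positivity) (hs 1).1
      have hss : 0 < s 0 * s 1 := mul_pos hs0 hs1
      by_cases hc : s 0 * s 1 ≤ (H : ℝ) ^ (-κ)
      · refine (hpl b s p0 v0 hs).trans ?_
        have e1 : (s 0 * s 1) ^ (1 + q) ≤ (s 0 * s 1) * (H : ℝ) ^ (-(q * κ)) := by
          rw [Real.rpow_add hss, Real.rpow_one]
          apply mul_le_mul_of_nonneg_left _ hss.le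
          calc (s 0 * s 1) ^ q ≤ ((H : ℝ) ^ (-κ)) ^ q := Real.rpow_le_rpow hss.le hc hq.le
            _ = (H : ℝ) ^ (-(q * κ)) := by
                rw [← Real.rpow_mul hH0.le]; congr 1; ring
        calc (H : ℝ) ^ ε * (s 0 * s 1) ^ (1 + q) * (H : ℝ) ^ 2 * m
            ≤ (H : ℝ) ^ ε * ((s 0 * s 1) * (H : ℝ) ^ (-(q * κ))) * (H : ℝ) ^ 2 * m := by gcongr
          _ = ((H : ℝ) ^ (ε - q * κ) * m) * (s 0 * s 1) * (H : ℝ) ^ 2 := by
              rw [show ε - q * κ = ε + -(q * κ) by ring, Real.rpow_add hH0]; ring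
          _ ≤ D * (s 0 * s 1) * (H : ℝ) ^ 2 := by
              apply mul_le_mul_of_nonneg_right _ (by positivity)
              apply mul_le_mul_of_nonneg_right _ hss.le
              rw [hD]
              have : 0 ≤ (H : ℝ) ^ κ * (N / (H : ℝ) ^ 2) := by positivity
              linarith
      · push Not at hc
        have c1 : ((Finset.univ.filter fun i =>
            Crest.Agent.R138.Tub70.InPl b s p0 v0 (p i) (v i)).card : ℝ) ≤ N := by
          rw [hNdef]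
          exact_mod_cast (Finset.card_le_univ _)
        refine c1.trans ?_
        have e2 : 1 ≤ (H : ℝ) ^ κ * (s 0 * s 1) := by
          have : (H : ℝ) ^ κ * (H : ℝ) ^ (-κ) = 1 := by
            rw [← Real.rpow_add hH0, add_neg_cancel, Real.rpow_zero]
          rw [← this]
          exact mul_le_mul_of_nonneg_left hc.le (by positivity)
        calc N = 1 * (N / (H : ℝ) ^ 2 * (H : ℝ) ^ 2) := by
              rw [div_mul_cancel₀ _ (by positivity)]; ring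
          _ ≤ ((H : ℝ) ^ κ * (s 0 * s 1)) * (N / (H : ℝ) ^ 2 * (H : ℝ) ^ 2) :=
              mul_le_mul_of_nonneg_right e2 (by positivity)
          _ = ((H : ℝ) ^ κ * (N / (H : ℝ) ^ 2)) * (s 0 * s 1) * (H : ℝ) ^ 2 := by ring
          _ ≤ D * (s 0 * s 1) * (H : ℝ) ^ 2 := by
              apply mul_le_mul_of_nonneg_right _ (by positivity)
              apply mul_le_mul_of_nonneg_right _ hss.le
              rw [hD]
              have : 0 ≤ (H : ℝ) ^ (ε - q * κ) * m := by positivity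
              linarith)
  -- conclusion
  have hlam : ((H : ℝ) ^ (-ε)) ^ 2 = (H : ℝ) ^ (-(2 * ε)) := by
    rw [← Real.rpow_natCast, ← Real.rpow_mul hH0.le]
    congr 1
    push_cast
    ring
  rw [hlam] at h
  have h2 : C * (H : ℝ) ^ ε * ((H : ℝ) ^ (ε - q * κ) * m) ≤ m * (H : ℝ) ^ (-(2 * ε)) / 2 := by
    have a1 : 2 * C ≤ (H : ℝ) ^ (q * κ / 2) := le_rpow_of (by positivity) (by positivity) hH0 hHb
    have a2 : (H : ℝ) ^ ε * (H : ℝ) ^ (ε - q * κ) * (H : ℝ) ^ (q * κ / 2)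
        ≤ (H : ℝ) ^ (-(2 * ε)) := by
      rw [← Real.rpow_add hH0, ← Real.rpow_add hH0]
      apply Real.rpow_le_rpow_of_exponent_le hH1
      linarith
    have a3 : 0 ≤ (H : ℝ) ^ ε * (H : ℝ) ^ (ε - q * κ) := by positivity
    calc C * (H : ℝ) ^ ε * ((H : ℝ) ^ (ε - q * κ) * m)
        = (2 * C) * ((H : ℝ) ^ ε * (H : ℝ) ^ (ε - q * κ)) * m / 2 := by ring
      _ ≤ (H : ℝ) ^ (q * κ / 2) * ((H : ℝ) ^ ε * (H : ℝ) ^ (ε - q * κ)) * m / 2 := by gcongr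
      _ = ((H : ℝ) ^ ε * (H : ℝ) ^ (ε - q * κ) * (H : ℝ) ^ (q * κ / 2)) * m / 2 := by ring
      _ ≤ (H : ℝ) ^ (-(2 * ε)) * m / 2 := by gcongr
      _ = m * (H : ℝ) ^ (-(2 * ε)) / 2 := by ring
  have h3 : m * (H : ℝ) ^ (-(2 * ε)) / 2 ≤
      C * (H : ℝ) ^ ε * ((H : ℝ) ^ κ * (N / (H : ℝ) ^ 2)) := by
    rw [hD, mul_add] at h
    linarith
  have b1 : 2 * C ≤ (H : ℝ) ^ (η / 4) := le_rpow_of (by positivity) (by positivity) hH0 hHa
  have b2 : (H : ℝ) ^ (η / 4) * ((H : ℝ) ^ ε * (H : ℝ) ^ κ) * (H : ℝ) ^ (2 * ε) ≤ (H : ℝ) ^ η := by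
    rw [← Real.rpow_add hH0, ← Real.rpow_add hH0, ← Real.rpow_add hH0]
    apply Real.rpow_le_rpow_of_exponent_le hH1
    linarith
  have b3 : (H : ℝ) ^ (-(2 * ε)) * (H : ℝ) ^ (2 * ε) = 1 := by
    rw [← Real.rpow_add hH0, neg_add_cancel, Real.rpow_zero]
  calc m * (H : ℝ) ^ 2
      = (m * (H : ℝ) ^ (-(2 * ε)) / 2) * (2 * (H : ℝ) ^ (2 * ε) * (H : ℝ) ^ 2) := by
        have : (m * (H : ℝ) ^ (-(2 * ε)) / 2) * (2 * (H : ℝ) ^ (2 * ε) * (H : ℝ) ^ 2)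
          = m * (H : ℝ) ^ 2 * ((H : ℝ) ^ (-(2 * ε)) * (H : ℝ) ^ (2 * ε)) := by ring
        rw [this, b3, mul_one]
    _ ≤ (C * (H : ℝ) ^ ε * ((H : ℝ) ^ κ * (N / (H : ℝ) ^ 2))) *
          (2 * (H : ℝ) ^ (2 * ε) * (H : ℝ) ^ 2) := by gcongr
    _ = (2 * C) * ((H : ℝ) ^ ε * (H : ℝ) ^ κ) * (H : ℝ) ^ (2 * ε) *
          (N / (H : ℝ) ^ 2 * (H : ℝ) ^ 2) := by ring
    _ = (2 * C) * ((H : ℝ) ^ ε * (H : ℝ) ^ κ) * (H : ℝ) ^ (2 * ε) * N := by
        rw [div_mul_cancel₀ _ (by positivity)]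
    _ ≤ (H : ℝ) ^ (η / 4) * ((H : ℝ) ^ ε * (H : ℝ) ^ κ) * (H : ℝ) ^ (2 * ε) * N := by gcongr
    _ ≤ (H : ℝ) ^ η * N := by gcongr

end Crest.Agent.R136.Ful403
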