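import Crest.Agent.R136.Ful1_403

/-!
# R136: Kakeya in `ℝ³` for full configurations, cells form (helper403)

* `exists_core`: core of a finite bipartite graph;
* `km3_cells`: `lam³ #lines H ≤ C H^ε D #cells`.
-/

set_option autoImplicit false

open MeasureTheory Set Metric
open scoped ENNReal NNReal

namespace Crest.Agent.R136.Ful403

open Crest.Agent.R138.Defs (E2)
open Crest.Agent.R136.Slb480 (ps km3_mult)

/-- **core of a bipartite graph** -/
theorem exists_core {ε α β : Type*} [DecidableEq ε] [DecidableEq α] [DecidableEq β]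
    (E : Finset ε) (f : ε → α) (g : ε → β) (c1 c2 : ℝ) (hc1 : 0 ≤ c1) (hc2 : 0 ≤ c2)
    (h : c1 * ((E.image f).card : ℝ) + c2 * ((E.image g).card : ℝ) < (E.card : ℝ)) :
    ∃ E' ⊆ E, E'.Nonempty ∧ ∀ x ∈ E', c1 ≤ ((E'.filter fun y => f y = f x).card : ℝ) ∧
      c2 ≤ ((E'.filter fun y => g y = g x).card : ℝ) := by
  classical
  set Φ : Finset ε → ℝ := fun E' =>
    (E'.card : ℝ) - c1 * ((E'.image f).card : ℝ) - c2 * ((E'.image g).card : ℝ) with hΦ
  obtain ⟨E', hE', hmax⟩ := Finset.exists_max_image E.powerset Φ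
    ⟨E, Finset.mem_powerset.2 (Finset.Subset.refl E)⟩
  have hsub : E' ⊆ E := Finset.mem_powerset.1 hE'
  have h0 : 0 < Φ E' := by
    have h1 := hmax E (Finset.mem_powerset.2 (Finset.Subset.refl E))
    have h2 : 0 < Φ E := by simp only [hΦ]; linarith
    linarith
  refine ⟨E', hsub, ?_, ?_⟩
  · rw [Finset.nonempty_iff_ne_empty]
    intro he
    rw [he] at h0
    simp [hΦ] at h0
  · intro x hx
    constructor
    · by_contra hcon
      push Not at hcon
      set E'' := E'.filter fun y => ¬ f y = f x with hE''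
      have h1 := hmax E'' (Finset.mem_powerset.2 ((Finset.filter_subset _ _).trans hsub))
      have h2 : ((E'.filter fun y => f y = f x).card : ℝ) + (E''.card : ℝ) = E'.card := by
        exact_mod_cast Finset.card_filter_add_card_filter_not (s := E') (fun y => f y = f x)
      have h3 : E''.image f ⊆ (E'.image f).erase (f x) := by
        intro a ha
        obtain ⟨y, hy, rfl⟩ := Finset.mem_image.1 ha
        obtain ⟨hy1, hy2⟩ := Finset.mem_filter.1 hy
        exact Finset.mem_erase.2 ⟨hy2, Finset.mem_image_of_mem _ hy1⟩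
      have h4 : ((E''.image f).card : ℝ) + 1 ≤ (E'.image f).card := by
        have h5 := Finset.card_le_card h3
        rw [Finset.card_erase_of_mem (Finset.mem_image_of_mem _ hx)] at h5
        have h6 : 0 < (E'.image f).card := Finset.card_pos.2 ⟨_, Finset.mem_image_of_mem _ hx⟩
        have h7 : (E''.image f).card + 1 ≤ (E'.image f).card := by omega
        exact_mod_cast h7
      have h5 : ((E''.image g).card : ℝ) ≤ (E'.image g).card := by
        exact_mod_cast Finset.card_le_card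
          (Finset.image_subset_image (Finset.filter_subset _ _))
      simp only [hΦ] at h1
      nlinarith [mul_le_mul_of_nonneg_left h4 hc1, mul_le_mul_of_nonneg_left h5 hc2]
    · by_contra hcon
      push Not at hcon
      set E'' := E'.filter fun y => ¬ g y = g x with hE''
      have h1 := hmax E'' (Finset.mem_powerset.2 ((Finset.filter_subset _ _).trans hsub))
      have h2 : ((E'.filter fun y => g y = g x).card : ℝ) + (E''.card : ℝ) = E'.card := by
        exact_mod_cast Finset.card_filter_add_card_filter_not (s := E') (fun y => g y = g x)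
      have h3 : E''.image g ⊆ (E'.image g).erase (g x) := by
        intro a ha
        obtain ⟨y, hy, rfl⟩ := Finset.mem_image.1 ha
        obtain ⟨hy1, hy2⟩ := Finset.mem_filter.1 hy
        exact Finset.mem_erase.2 ⟨hy2, Finset.mem_image_of_mem _ hy1⟩
      have h4 : ((E''.image g).card : ℝ) + 1 ≤ (E'.image g).card := by
        have h5 := Finset.card_le_card h3
        rw [Finset.card_erase_of_mem (Finset.mem_image_of_mem _ hx)] at h5
        have h6 : 0 < (E'.image g).card := Finset.card_pos.2 ⟨_, Finset.mem_image_of_mem _ hx⟩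
        have h7 : (E''.image g).card + 1 ≤ (E'.image g).card := by omega
        exact_mod_cast h7
      have h5 : ((E''.image f).card : ℝ) ≤ (E'.image f).card := by
        exact_mod_cast Finset.card_le_card
          (Finset.image_subset_image (Finset.filter_subset _ _))
      simp only [hΦ] at h1
      nlinarith [mul_le_mul_of_nonneg_left h4 hc2, mul_le_mul_of_nonneg_left h5 hc1]

open Classical in
/-- **Kakeya in `ℝ³`, cells form.**  `E` = incidences (line, height), `c` = labels of the cells. -/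
theorem km3_cells (hKM : ∀ V : ℝ, Crest.Agent.R138.Tub70.KM32 V) (V : ℝ) (hV : 0 ≤ V) (ε : ℝ)
    (hε : 0 < ε) :
    ∃ C : ℝ, 0 < C ∧ ∀ H : ℕ, 1 ≤ H → V + 2 ≤ (H : ℝ) → ∀ (ι γ : Type) [Fintype ι]
      (p v : ι → E2) (E : Finset (ι × ℤ)) (c : ι × ℤ → γ) (K lam D : ℝ), 0 < lam → 0 ≤ D →
      E.Nonempty → (∀ i, ‖p i‖ ≤ V ∧ ‖v i‖ ≤ V) → (∀ x ∈ E, |x.2| ≤ (H : ℤ)) →
      lam * H * (Fintype.card ι : ℝ) ≤ (E.card : ℝ) →
      ((E.image c).card : ℝ) ≤ K →
      (∀ x ∈ E, ∀ y ∈ E, c y = c x → y.2 = x.2 ∧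
        ‖ps p v y.1 (x.2 / H) - ps p v x.1 (x.2 / H)‖ ≤ 1 / H) →
      (∀ (b : OrthonormalBasis (Fin 2) ℝ E2) (s : Fin 2 → ℝ) (p0 v0 : E2),
        (∀ j, 1 / (H : ℝ) ≤ s j ∧ s j ≤ 1) →
        ((Finset.univ.filter fun i => Crest.Agent.R138.Tub70.InPl b s p0 v0 (p i) (v i)).card : ℝ) ≤
          D * (s 0 * s 1) * (H : ℝ) ^ 2) →
      lam ^ 3 * (Fintype.card ι : ℝ) * H ≤ C * (H : ℝ) ^ ε * D * K := by
  obtain ⟨C, hC, key⟩ := km3_mult hKM V hV ε hε
  refine ⟨64 * C, by positivity, ?_⟩
  intro H hH1 hHV ι γ _ p v E c K lam D hlam hD hEne hpv hI hE hK hc hpl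
  have hHpos : (0 : ℝ) < H := by exact_mod_cast (show 0 < H by omega)
  have hEpos : (0 : ℝ) < (E.card : ℝ) := by exact_mod_cast hEne.card_pos
  obtain ⟨x0, hx0⟩ := hEne
  have hιne : Nonempty ι := ⟨x0.1⟩
  have hN : (0 : ℝ) < (Fintype.card ι : ℝ) := by exact_mod_cast Fintype.card_pos
  have hKpos : 0 < K := by
    have h1 : 0 < (E.image c).card := Finset.card_pos.2 ⟨_, Finset.mem_image_of_mem _ hx0⟩
    have h2 : (0 : ℝ) < ((E.image c).card : ℝ) := by exact_mod_cast h1
    linarith
  set c1 : ℝ := (E.card : ℝ) / (4 * (Fintype.card ι : ℝ)) with hc1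
  set c2 : ℝ := (E.card : ℝ) / (4 * K) with hc2
  have hc1p : 0 < c1 := by positivity
  have hc2p : 0 < c2 := by positivity
  have hf1 : (((E.image fun x : ι × ℤ => x.1).card : ℕ) : ℝ) ≤ (Fintype.card ι : ℝ) := by
    exact_mod_cast Finset.card_le_univ _
  obtain ⟨E', hE'sub, hE'ne, hcore⟩ := exists_core E (fun x : ι × ℤ => x.1) c c1 c2 hc1p.le hc2p.le
    (by
      have e1 : c1 * (((E.image fun x : ι × ℤ => x.1).card : ℕ) : ℝ) ≤ (E.card : ℝ) / 4 := by
        calc _ ≤ c1 * (Fintype.card ι : ℝ) := mul_le_mul_of_nonneg_left hf1 hc1p.le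
          _ = (E.card : ℝ) / 4 := by rw [hc1]; field_simp
      have e2 : c2 * ((E.image c).card : ℝ) ≤ (E.card : ℝ) / 4 := by
        calc _ ≤ c2 * K := mul_le_mul_of_nonneg_left hK hc2p.le
          _ = (E.card : ℝ) / 4 := by rw [hc2]; field_simp
      linarith)
  set A : Finset ι := E'.image fun x => x.1 with hA
  -- the subtype of lines
  set q : {i // i ∈ A} → E2 := fun i => p i.1 with hq
  set w : {i // i ∈ A} → E2 := fun i => v i.1 with hw
  have hmemA : ∀ x ∈ E', x.1 ∈ A := fun x hx => Finset.mem_image_of_mem _ hx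
  set I : Finset ({i // i ∈ A} × ℤ) :=
    E'.attach.image fun x => ((⟨x.1.1, hmemA x.1 x.2⟩ : {i // i ∈ A}), x.1.2) with hIdef
  have hImem : ∀ y : {i // i ∈ A} × ℤ, y ∈ I ↔ ((y.1.1, y.2) : ι × ℤ) ∈ E' := by
    intro y
    rw [hIdef, Finset.mem_image]
    constructor
    · rintro ⟨x, _, rfl⟩
      exact x.2
    · intro hy
      exact ⟨⟨_, hy⟩, Finset.mem_attach _ _, rfl⟩
  have hAne : Nonempty {i // i ∈ A} := by
    obtain ⟨x, hx⟩ := hE'ne
    exact ⟨⟨x.1, hmemA x hx⟩⟩
  have hinj : Function.Injective (fun y : {i // i ∈ A} × ℤ => ((y.1.1, y.2) : ι × ℤ)) := by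
    rintro ⟨⟨a, ha⟩, b⟩ ⟨⟨a', ha'⟩, b'⟩ h
    simp only [Prod.mk.injEq] at h
    obtain ⟨rfl, rfl⟩ := h
    rfl
  have h := key H hH1 hHV {i // i ∈ A} q w I c2 (c1 / H) D hc2p (by positivity) hD
    (fun i => hpv i.1) (by
      intro x hx
      exact hI _ (hE'sub ((hImem x).1 hx)))
    (by
      intro i
      obtain ⟨x, hx, hxi⟩ := Finset.mem_image.1 i.2
      have h1 := (hcore x hx).1
      rw [div_mul_cancel₀ _ hHpos.ne']
      refine h1.trans ?_
      have h2 : (E'.filter fun y => y.1 = x.1) ⊆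
          (I.filter fun y => y.1 = i).image fun y => ((y.1.1, y.2) : ι × ℤ) := by
        intro y hy
        obtain ⟨hy1, hy2⟩ := Finset.mem_filter.1 hy
        refine Finset.mem_image.2 ⟨(i, y.2), Finset.mem_filter.2 ⟨?_, rfl⟩, ?_⟩
        · rw [hImem]
          have : ((i.1, y.2) : ι × ℤ) = y := by rw [← hxi, ← hy2]
          rw [this]; exact hy1
        · rw [← hxi, ← hy2]
      have h3 : (((E'.filter fun y => y.1 = x.1).card : ℕ) : ℝ) ≤
          (((I.filter fun y => y.1 = i).card : ℕ) : ℝ) := by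
        exact_mod_cast (Finset.card_le_card h2).trans Finset.card_image_le
      refine h3.trans (le_of_eq ?_)
      congr!)
    (by
      intro x hx
      have hx' := (hImem x).1 hx
      have h1 := (hcore _ hx').2
      refine h1.trans ?_
      have h2 : (E'.filter fun y => c y = c (x.1.1, x.2)) ⊆
          (I.filter fun y => y.2 = x.2 ∧ ‖ps q w y.1 (x.2 / H) - ps q w x.1 (x.2 / H)‖ ≤ 1 / H).image
            fun y => ((y.1.1, y.2) : ι × ℤ) := by
        intro y hy
        obtain ⟨hy1, hy2⟩ := Finset.mem_filter.1 hy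
        obtain ⟨g1, g2⟩ := hc _ (hE'sub hx') y (hE'sub hy1) hy2
        refine Finset.mem_image.2 ⟨(⟨y.1, hmemA y hy1⟩, y.2), Finset.mem_filter.2 ⟨?_, g1, ?_⟩, rfl⟩
        · rw [hImem]; exact hy1
        · exact g2
      exact_mod_cast (Finset.card_le_card h2).trans Finset.card_image_le)
    (by
      intro b s p0 v0 hs
      refine le_trans ?_ (hpl b s p0 v0 hs)
      have h2 : ((Finset.univ : Finset {i // i ∈ A}).filter fun i =>
          Crest.Agent.R138.Tub70.InPl b s p0 v0 (q i) (w i)).card ≤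
          (Finset.univ.filter fun i =>
            Crest.Agent.R138.Tub70.InPl b s p0 v0 (p i) (v i)).card := by
        refine Finset.card_le_card_of_injOn (fun i => i.1) ?_ ?_
        · intro i hi
          have hi' := (Finset.mem_filter.1 hi).2
          exact Finset.mem_filter.2 ⟨Finset.mem_univ _, hi'⟩
        · intro i _ i' _ hii
          exact Subtype.ext hii
      exact_mod_cast h2)
  -- arithmetic
  have hc1l : lam * H / 4 ≤ c1 := by
    rw [hc1, le_div_iff₀ (by positivity)]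
    calc lam * H / 4 * (4 * (Fintype.card ι : ℝ)) = lam * H * (Fintype.card ι : ℝ) := by ring
      _ ≤ _ := hE
  have h2 : lam / 4 ≤ c1 / H := by
    rw [le_div_iff₀ hHpos]
    linarith
  have h3 : c2 * (lam / 4) ^ 2 ≤ C * (H : ℝ) ^ ε * D := by
    refine le_trans ?_ h
    apply mul_le_mul_of_nonneg_left _ hc2p.le
    exact pow_le_pow_left₀ (by positivity) h2 2
  have h4 : (E.card : ℝ) = c2 * (4 * K) := by rw [hc2]; field_simp
  have h5 : lam * H * (Fintype.card ι : ℝ) * (lam / 4) ^ 2 ≤ C * (H : ℝ) ^ ε * D * (4 * K) := by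
    calc lam * H * (Fintype.card ι : ℝ) * (lam / 4) ^ 2 ≤ (E.card : ℝ) * (lam / 4) ^ 2 :=
          mul_le_mul_of_nonneg_right hE (by positivity)
      _ = (c2 * (lam / 4) ^ 2) * (4 * K) := by rw [h4]; ring
      _ ≤ _ := mul_le_mul_of_nonneg_right h3 (by positivity)
  calc lam ^ 3 * (Fintype.card ι : ℝ) * H
      = 16 * (lam * H * (Fintype.card ι : ℝ) * (lam / 4) ^ 2) := by ring
    _ ≤ 16 * (C * (H : ℝ) ^ ε * D * (4 * K)) := mul_le_mul_of_nonneg_left h5 (by norm_num)
    _ = 64 * C * (H : ℝ) ^ ε * D * K := by ring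

end Crest.Agent.R136.Ful403
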