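import Crest.Agent.R136.Ful2_403

/-!
# R136: the two dimensional block is full, finite form (helper403)

`block_fin`: functionals `F i k ∈ ℝ²` which are affine in `φ k` with increments `A`, `V` (up to
`w`), each line alive on a `θ`-part of the heights, at most `Kc` cells of width `w` at each height,
at most `m` lines in a cell (width `2 w`) with velocity in a strip of width `10 τ`:
`lam³ #S ≤ C w^(-ε) (m / θ + #S w² / τ²) Kc`.
-/

set_option autoImplicit false
set_option linter.unusedVariables false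

open MeasureTheory Set Metric
open scoped ENNReal NNReal

namespace Crest.Agent.R136.Ful403

open Crest.Agent.R138.Defs (E2)
open Crest.Agent.R136.Slb480 (ps km3_mult)

/-- number of integer cells of a set of reals of diameter at most `R` -/
theorem card_floor_le {ι : Type*} [DecidableEq ι] (T : Finset ι) (y : ι → ℝ) {w R : ℝ} (hw : 0 < w)
    (hR : 0 ≤ R) (h : ∀ i ∈ T, ∀ i' ∈ T, |y i' - y i| ≤ R) :
    ((T.image fun i => ⌊y i / w⌋).card : ℝ) ≤ 2 * (R / w) + 2 := by
  classical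
  rcases T.eq_empty_or_nonempty with rfl | ⟨i0, hi0⟩
  · simp; positivity
  have hsub : (T.image fun i => ⌊y i / w⌋) ⊆
      Finset.Icc ⌊y i0 / w - R / w⌋ ⌊y i0 / w + R / w⌋ := by
    intro c hc
    obtain ⟨i, hi, rfl⟩ := Finset.mem_image.1 hc
    have e1 := h i0 hi0 i hi
    have e2 : |y i / w - y i0 / w| ≤ R / w := by
      rw [← sub_div, abs_div, abs_of_pos hw]
      exact (div_le_div_iff_of_pos_right hw).2 e1
    rw [abs_le] at e2
    rw [Finset.mem_Icc]
    exact ⟨Int.floor_le_floor (by linarith [e2.1]), Int.floor_le_floor (by linarith [e2.2])⟩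
  have h2 : (((T.image fun i => ⌊y i / w⌋).card : ℕ) : ℝ) ≤
      (((Finset.Icc ⌊y i0 / w - R / w⌋ ⌊y i0 / w + R / w⌋).card : ℕ) : ℝ) := by
    exact_mod_cast Finset.card_le_card hsub
  refine h2.trans ?_
  rw [Int.card_Icc]
  have hRw : 0 ≤ R / w := by positivity
  have hle : ⌊y i0 / w - R / w⌋ ≤ ⌊y i0 / w + R / w⌋ := Int.floor_le_floor (by linarith)
  have h3 : (((⌊y i0 / w + R / w⌋ + 1 - ⌊y i0 / w - R / w⌋).toNat : ℕ) : ℝ) =
      ((⌊y i0 / w + R / w⌋ + 1 - ⌊y i0 / w - R / w⌋ : ℤ) : ℝ) := by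
    have : (((⌊y i0 / w + R / w⌋ + 1 - ⌊y i0 / w - R / w⌋).toNat : ℤ)) =
        (⌊y i0 / w + R / w⌋ + 1 - ⌊y i0 / w - R / w⌋ : ℤ) := Int.toNat_of_nonneg (by omega)
    exact_mod_cast congrArg (fun z : ℤ => (z : ℝ)) this
  rw [h3]
  push_cast
  linarith [Int.floor_le (y i0 / w + R / w), Int.lt_floor_add_one (y i0 / w - R / w)]

/-- the inner product of `E2` in coordinates -/
theorem inner2 (x y : E2) : inner ℝ x y = x 0 * y 0 + x 1 * y 1 := by
  rw [PiLp.inner_apply, Fin.sum_univ_two]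
  simp [mul_comm]

theorem basis_sq (b : OrthonormalBasis (Fin 2) ℝ E2) (j : Fin 2) :
    (b j) 0 ^ 2 + (b j) 1 ^ 2 = 1 := by
  have h := b.orthonormal.1 j
  have h2 : inner ℝ (b j) (b j) = (1 : ℝ) := by
    rw [real_inner_self_eq_norm_sq, h]; norm_num
  rw [inner2] at h2
  nlinarith [h2]

theorem coord_le (b : OrthonormalBasis (Fin 2) ℝ E2) (y : E2) (a : Fin 2) :
    |y a| ≤ |inner ℝ y (b 0)| + |inner ℝ y (b 1)| := by
  have h := b.sum_repr' y
  rw [Fin.sum_univ_two] at h
  have h1 : y a = inner ℝ (b 0) y * (b 0) a + inner ℝ (b 1) y * (b 1) a := by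
    have := congrArg (fun z : E2 => z a) h
    simp only [PiLp.add_apply, PiLp.smul_apply, smul_eq_mul] at this
    exact this.symm
  have hb : ∀ j, |(b j) a| ≤ 1 := by
    intro j
    have := basis_sq b j
    rw [← sq_le_one_iff_abs_le_one]
    fin_cases a
    · simp only [Fin.zero_eta, Fin.isValue]; nlinarith [sq_nonneg ((b j) 1)]
    · simp only [Fin.mk_one, Fin.isValue]; nlinarith [sq_nonneg ((b j) 0)]
  rw [h1, real_inner_comm, real_inner_comm y (b 1)]
  calc |inner ℝ y (b 0) * (b 0) a + inner ℝ y (b 1) * (b 1) a|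
      ≤ |inner ℝ y (b 0) * (b 0) a| + |inner ℝ y (b 1) * (b 1) a| := abs_add_le _ _
    _ ≤ |inner ℝ y (b 0)| * 1 + |inner ℝ y (b 1)| * 1 := by
        rw [abs_mul, abs_mul]
        exact add_le_add (mul_le_mul_of_nonneg_left (hb 0) (abs_nonneg _))
          (mul_le_mul_of_nonneg_left (hb 1) (abs_nonneg _))
    _ = _ := by ring

theorem norm_le_two {y : E2} {M : ℝ} (h : ∀ a, |y a| ≤ M) : ‖y‖ ≤ 2 * M := by
  have hM : 0 ≤ M := (abs_nonneg _).trans (h 0)
  have h1 : ‖y‖ ^ 2 ≤ (2 * M) ^ 2 := by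
    rw [← real_inner_self_eq_norm_sq, inner2]
    have h0 := sq_le_sq' (by linarith [(abs_le.1 (h 0)).1]) (abs_le.1 (h 0)).2
    have h1 := sq_le_sq' (by linarith [(abs_le.1 (h 1)).1]) (abs_le.1 (h 1)).2
    nlinarith
  exact (pow_le_pow_iff_left₀ (norm_nonneg _) (by positivity) two_ne_zero).1 h1

/-- the point of `ℝ²` with given coordinates -/
noncomputable def mk2 (y : Fin 2 → ℝ) : E2 := WithLp.toLp 2 y

@[simp] theorem mk2_apply (y : Fin 2 → ℝ) (a : Fin 2) : mk2 y a = y a := rfl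

open Classical in
/-- a plank holds few lines, if few lines of it pass through one cell -/
theorem plank_count {ι : Type} (P : Finset ι) (Z : Finset ℕ) (al : ι → ℕ → Prop)
    (F : ι → ℕ → Fin 2 → ℝ) (b : OrthonormalBasis (Fin 2) ℝ E2) (R : Fin 2 → ℝ) {w θ m : ℝ}
    (hw : 0 < w) (hθ : 0 < θ) (hm : 0 ≤ m) (hZ : Z.Nonempty) (hR : ∀ j, w ≤ R j)
    (hPR : ∀ k ∈ Z, ∀ i ∈ P, al i k → ∀ i' ∈ P, al i' k → ∀ j,
      |inner ℝ (mk2 (F i' k)) (b j) - inner ℝ (mk2 (F i k)) (b j)| ≤ R j)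
    (hal : ∀ i ∈ P, θ * (Z.card : ℝ) ≤ ((Z.filter fun k => al i k).card : ℝ))
    (hfan : ∀ k ∈ Z, ∀ i ∈ P, al i k → ((P.filter fun i' => al i' k ∧
      ∀ a, |F i' k a - F i k a| ≤ 2 * w).card : ℝ) ≤ m) :
    (P.card : ℝ) * θ ≤ 16 * (R 0 / w) * (R 1 / w) * m := by
  have hZ0 : (0 : ℝ) < Z.card := by exact_mod_cast hZ.card_pos
  -- one height
  have hk : ∀ k ∈ Z, ((P.filter fun i => al i k).card : ℝ) ≤ 16 * (R 0 / w) * (R 1 / w) * m := by
    intro k hk
    set Pk := P.filter fun i => al i k with hPk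
    set lab : ι → ℤ × ℤ := fun i =>
      (⌊inner ℝ (mk2 (F i k)) (b 0) / w⌋, ⌊inner ℝ (mk2 (F i k)) (b 1) / w⌋) with hlab
    have h1 : (Pk.card : ℝ) = ∑ c ∈ Pk.image lab, ((Pk.filter fun i => lab i = c).card : ℝ) := by
      exact_mod_cast Finset.card_eq_sum_card_fiberwise (f := lab) (s := Pk) (t := Pk.image lab)
        (fun i hi => Finset.mem_image_of_mem _ hi)
    have h2 : ∀ c ∈ Pk.image lab, ((Pk.filter fun i => lab i = c).card : ℝ) ≤ m := by
      intro c hc
      obtain ⟨i, hi, rfl⟩ := Finset.mem_image.1 hc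
      obtain ⟨hi1, hi2⟩ := Finset.mem_filter.1 hi
      refine le_trans ?_ (hfan k hk i hi1 hi2)
      have : (Pk.filter fun i' => lab i' = lab i) ⊆
          (P.filter fun i' => al i' k ∧ ∀ a, |F i' k a - F i k a| ≤ 2 * w) := by
        intro i' hi'
        obtain ⟨a1, a2⟩ := Finset.mem_filter.1 hi'
        obtain ⟨a3, a4⟩ := Finset.mem_filter.1 a1
        refine Finset.mem_filter.2 ⟨a3, a4, fun a => ?_⟩
        simp only [hlab, Prod.mk.injEq] at a2
        have e0 := Int.abs_sub_lt_one_of_floor_eq_floor a2.1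
        have e1 := Int.abs_sub_lt_one_of_floor_eq_floor a2.2
        rw [← sub_div, abs_div, abs_of_pos hw, div_lt_one hw, ← inner_sub_left] at e0 e1
        have e2 := coord_le b (mk2 (F i' k) - mk2 (F i k)) a
        simp only [PiLp.sub_apply, mk2_apply] at e2
        linarith
      exact_mod_cast Finset.card_le_card this
    have h3 : ((Pk.image lab).card : ℝ) ≤ 16 * (R 0 / w) * (R 1 / w) := by
      have hsub : Pk.image lab ⊆ (Pk.image fun i => ⌊inner ℝ (mk2 (F i k)) (b 0) / w⌋) ×ˢ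
          (Pk.image fun i => ⌊inner ℝ (mk2 (F i k)) (b 1) / w⌋) := by
        intro c hc
        obtain ⟨i, hi, rfl⟩ := Finset.mem_image.1 hc
        exact Finset.mem_product.2 ⟨Finset.mem_image_of_mem _ hi, Finset.mem_image_of_mem _ hi⟩
      have hb : ∀ j, ((Pk.image fun i => ⌊inner ℝ (mk2 (F i k)) (b j) / w⌋).card : ℝ) ≤
          4 * (R j / w) := by
        intro j
        have hRj : 0 ≤ R j := hw.le.trans (hR j)
        have e1 := card_floor_le Pk (fun i => inner ℝ (mk2 (F i k)) (b j)) hw hRj (by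
          intro i hi i' hi'
          obtain ⟨a1, a2⟩ := Finset.mem_filter.1 hi
          obtain ⟨b1, b2⟩ := Finset.mem_filter.1 hi'
          exact hPR k hk i a1 a2 i' b1 b2 j)
        have e2 : 1 ≤ R j / w := (one_le_div hw).2 (hR j)
        linarith
      calc ((Pk.image lab).card : ℝ) ≤
            ((Pk.image fun i => ⌊inner ℝ (mk2 (F i k)) (b 0) / w⌋).card : ℝ) *
            ((Pk.image fun i => ⌊inner ℝ (mk2 (F i k)) (b 1) / w⌋).card : ℝ) := by
              have := Finset.card_le_card hsub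
              rw [Finset.card_product] at this
              exact_mod_cast this
        _ ≤ (4 * (R 0 / w)) * (4 * (R 1 / w)) := by
            refine mul_le_mul (hb 0) (hb 1) (Nat.cast_nonneg _) ?_
            have e2 : 1 ≤ R 0 / w := (one_le_div hw).2 (hR 0)
            linarith
        _ = _ := by ring
    calc (Pk.card : ℝ) = ∑ c ∈ Pk.image lab, ((Pk.filter fun i => lab i = c).card : ℝ) := h1
      _ ≤ ∑ c ∈ Pk.image lab, m := Finset.sum_le_sum h2
      _ = ((Pk.image lab).card : ℝ) * m := by rw [Finset.sum_const, nsmul_eq_mul]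
      _ ≤ _ := mul_le_mul_of_nonneg_right h3 hm
  -- double counting
  have h4 : (P.card : ℝ) * (θ * (Z.card : ℝ)) ≤ ∑ k ∈ Z, ((P.filter fun i => al i k).card : ℝ) := by
    calc (P.card : ℝ) * (θ * (Z.card : ℝ)) = ∑ i ∈ P, θ * (Z.card : ℝ) := by
          rw [Finset.sum_const, nsmul_eq_mul]
      _ ≤ ∑ i ∈ P, ((Z.filter fun k => al i k).card : ℝ) := Finset.sum_le_sum hal
      _ = _ := by
          have : ∑ i ∈ P, (Z.filter fun k => al i k).card = ∑ k ∈ Z, (P.filter fun i => al i k).card := by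
            simp only [Finset.card_filter]
            exact Finset.sum_comm
          exact_mod_cast this
  have h5 : ∑ k ∈ Z, ((P.filter fun i => al i k).card : ℝ) ≤
      (Z.card : ℝ) * (16 * (R 0 / w) * (R 1 / w) * m) := by
    calc _ ≤ ∑ k ∈ Z, 16 * (R 0 / w) * (R 1 / w) * m := Finset.sum_le_sum hk
      _ = _ := by rw [Finset.sum_const, nsmul_eq_mul]
  have h6 : ((P.card : ℝ) * θ) * (Z.card : ℝ) ≤ (16 * (R 0 / w) * (R 1 / w) * m) * (Z.card : ℝ) := by
    linarith
  exact le_of_mul_le_mul_right h6 hZ0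

end Crest.Agent.R136.Ful403
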