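import Crest.Agent.R136.Ful3_403

/-!
# R136: the two dimensional block is full, finite form (helper403), continued
-/

set_option autoImplicit false

open MeasureTheory Set Metric
open scoped ENNReal NNReal

namespace Crest.Agent.R136.Ful403

open Crest.Agent.R138.Defs (E2)
open Crest.Agent.R136.Slb480 (ps km3_mult)

/-- scaled position -/
noncomputable def pp {ι : Type} (A : ι → Fin 2 → ℝ) (i0 i : ι) : E2 :=
  mk2 fun a => (A i a - A i0 a) / 10

/-- scaled velocity -/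
noncomputable def vv {ι : Type} (V : ι → Fin 2 → ℝ) (i0 i : ι) : E2 :=
  mk2 fun a => (V i a - V i0 a) / 5

theorem vel_strip {ι : Type} (A V : ι → Fin 2 → ℝ) (i0 i i' : ι)
    (b : OrthonormalBasis (Fin 2) ℝ E2) (s : Fin 2 → ℝ) (p0 v0 : E2)
    (h : Crest.Agent.R138.Tub70.InPl b s p0 v0 (pp A i0 i) (vv V i0 i))
    (h' : Crest.Agent.R138.Tub70.InPl b s p0 v0 (pp A i0 i') (vv V i0 i')) (j : Fin 2) :
    |(b j) 0 * (V i' 0 - V i 0) + (b j) 1 * (V i' 1 - V i 1)| ≤ 10 * s j := by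
  have g : ∀ i, Crest.Agent.R138.Tub70.InPl b s p0 v0 (pp A i0 i) (vv V i0 i) →
      |inner ℝ (vv V i0 i - v0) (b j)| ≤ s j := by
    intro i hi
    have a1 := hi 1 (by norm_num) j
    have a2 := hi (-1) (by norm_num) j
    rw [inner_add_left, inner_smul_left] at a1 a2
    simp only [map_one, one_mul, map_neg, neg_mul] at a1 a2
    rw [abs_le] at a1 a2 ⊢
    constructor <;> linarith [a1.1, a1.2, a2.1, a2.2]
  have g1 := g i h
  have g2 := g i' h'
  have g3 : |inner ℝ (vv V i0 i' - vv V i0 i) (b j)| ≤ 2 * s j := by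
    have : vv V i0 i' - vv V i0 i = (vv V i0 i' - v0) - (vv V i0 i - v0) := by abel
    rw [this, inner_sub_left]
    refine (abs_sub _ _).trans ?_
    linarith
  rw [inner2] at g3
  simp only [vv, PiLp.sub_apply, mk2_apply] at g3
  have g4 : ((V i' 0 - V i0 0) / 5 - (V i 0 - V i0 0) / 5) * (b j) 0 +
      ((V i' 1 - V i0 1) / 5 - (V i 1 - V i0 1) / 5) * (b j) 1 =
      ((b j) 0 * (V i' 0 - V i 0) + (b j) 1 * (V i' 1 - V i 1)) / 5 := by ring
  rw [g4, abs_div, abs_of_pos (show (0 : ℝ) < 5 by norm_num), div_le_iff₀ (by norm_num)] at g3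
  linarith

theorem pos_strip {ι : Type} (A V : ι → Fin 2 → ℝ) (i0 i i' : ι)
    (b : OrthonormalBasis (Fin 2) ℝ E2) (s : Fin 2 → ℝ) (p0 v0 : E2)
    (h : Crest.Agent.R138.Tub70.InPl b s p0 v0 (pp A i0 i) (vv V i0 i))
    (h' : Crest.Agent.R138.Tub70.InPl b s p0 v0 (pp A i0 i') (vv V i0 i')) (j : Fin 2) {t : ℝ}
    (ht : |t| ≤ 2) :
    |inner ℝ (mk2 fun a => (A i' a - A i a) + t * (V i' a - V i a)) (b j)| ≤ 20 * s j := by
  have ht' : |t / 2| ≤ 1 := by
    rw [abs_div, abs_of_pos (show (0 : ℝ) < 2 by norm_num), div_le_one (by norm_num)]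
    exact ht
  have g1 := h _ ht' j
  have g2 := h' _ ht' j
  have e1 : (mk2 fun a => (A i' a - A i a) + t * (V i' a - V i a)) =
      (10 : ℝ) • ((pp A i0 i' - p0 + (t / 2) • (vv V i0 i' - v0)) -
        (pp A i0 i - p0 + (t / 2) • (vv V i0 i - v0))) := by
    ext a
    simp only [mk2_apply, pp, vv, PiLp.smul_apply, PiLp.sub_apply, PiLp.add_apply, smul_eq_mul]
    ring
  rw [e1, real_inner_smul_left, inner_sub_left]
  rw [abs_mul, abs_of_pos (show (0 : ℝ) < 10 by norm_num)]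
  have := abs_sub (inner ℝ (pp A i0 i' - p0 + (t / 2) • (vv V i0 i' - v0)) (b j))
    (inner ℝ (pp A i0 i - p0 + (t / 2) • (vv V i0 i - v0)) (b j))
  linarith

theorem err_strip (y : Fin 2 → ℝ) (b : OrthonormalBasis (Fin 2) ℝ E2) (j : Fin 2) {w : ℝ}
    (hw : 0 ≤ w) (h : ∀ a, |y a| ≤ w) : |inner ℝ (mk2 y) (b j)| ≤ 2 * w := by
  rw [inner2]
  simp only [mk2_apply]
  have hb := basis_sq b j
  have hb0 : |(b j) 0| ≤ 1 := by
    rw [← sq_le_one_iff_abs_le_one]; nlinarith [sq_nonneg ((b j) 1)]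
  have hb1 : |(b j) 1| ≤ 1 := by
    rw [← sq_le_one_iff_abs_le_one]; nlinarith [sq_nonneg ((b j) 0)]
  refine (abs_add_le _ _).trans ?_
  rw [abs_mul, abs_mul]
  have f0 := mul_le_mul (h 0) hb0 (abs_nonneg _) hw
  have f1 := mul_le_mul (h 1) hb1 (abs_nonneg _) hw
  linarith

open Classical in
/-- number of lines of a plank -/
theorem plank_bd {ι : Type} (S P : Finset ι) (Z : Finset ℕ) (φ : ℕ → ℝ) (al : ι → ℕ → Prop)
    (F : ι → ℕ → Fin 2 → ℝ) (A V : ι → Fin 2 → ℝ) (i0 : ι) {w θ τ m H : ℝ}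
    (hw : 0 < w) (hθ : 0 < θ) (hτ : 0 < τ) (hm : 0 ≤ m) (hZ : Z.Nonempty) (hS : S.Nonempty)
    (hH : 0 < H) (hwH2 : 1 ≤ 2 * (w * H)) (hwle : w ≤ 1 / H) (hφ : ∀ k ∈ Z, |φ k| ≤ 2)
    (hF : ∀ k ∈ Z, ∀ i ∈ S, al i k → ∀ i' ∈ S, al i' k → ∀ a,
        |F i' k a - F i k a - ((A i' a - A i a) + φ k * (V i' a - V i a))| ≤ w)
    (hal : ∀ i ∈ S, θ * (Z.card : ℝ) ≤ ((Z.filter fun k => al i k).card : ℝ))
    (hfan : ∀ k ∈ Z, ∀ i ∈ S, al i k → ∀ b : Fin 2 → ℝ, b 0 ^ 2 + b 1 ^ 2 = 1 →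
        ((S.filter fun i' => al i' k ∧ (∀ a, |F i' k a - F i k a| ≤ 2 * w) ∧
          |b 0 * (V i' 0 - V i 0) + b 1 * (V i' 1 - V i 1)| ≤ 10 * τ).card : ℝ) ≤ m)
    (b : OrthonormalBasis (Fin 2) ℝ E2) (s : Fin 2 → ℝ) (p0 v0 : E2)
    (hs : ∀ j, 1 / H ≤ s j ∧ s j ≤ 1) (hPS : P ⊆ S)
    (hPin : ∀ i ∈ P, Crest.Agent.R138.Tub70.InPl b s p0 v0 (pp A i0 i) (vv V i0 i)) :
    (P.card : ℝ) ≤ (30976 * (m / θ + (S.card : ℝ) * w ^ 2 / τ ^ 2)) * (s 0 * s 1) * H ^ 2 := by
  have hs0 : ∀ j, 0 < s j := fun j => lt_of_lt_of_le (by positivity) (hs j).1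
  have hS0 : (0 : ℝ) < S.card := by exact_mod_cast hS.card_pos
  have hsp : 0 < s 0 * s 1 := mul_pos (hs0 0) (hs0 1)
  by_cases hcase : ∃ j, s j ≤ τ
  · obtain ⟨j, hj⟩ := hcase
    have hcount := plank_count P Z al F b (fun j => 22 * s j) (w := w) (θ := θ) (m := m) hw hθ hm
      hZ
      (by
        intro j
        have h1 := (hs j).1
        have h2 := hs0 j
        show w ≤ 22 * s j
        linarith)
      (by
        intro k hk i hi hik i' hi' hi'k j
        have g3 := pos_strip A V i0 i i' b s p0 v0 (hPin i hi) (hPin i' hi') j (hφ k hk)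
        have g4 := err_strip (fun a => F i' k a - F i k a - ((A i' a - A i a) +
          φ k * (V i' a - V i a))) b j hw.le
          (fun a => hF k hk i (hPS hi) hik i' (hPS hi') hi'k a)
        have e1 : inner ℝ (mk2 (F i' k)) (b j) - inner ℝ (mk2 (F i k)) (b j) =
            inner ℝ (mk2 fun a => F i' k a - F i k a - ((A i' a - A i a) +
            φ k * (V i' a - V i a))) (b j) +
            inner ℝ (mk2 fun a => (A i' a - A i a) + φ k * (V i' a - V i a)) (b j) := by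
          rw [inner2, inner2, inner2, inner2]
          simp only [mk2_apply]
          ring
        rw [e1]
        refine (abs_add_le _ _).trans ?_
        have h2 := (hs j).1
        show _ ≤ 22 * s j
        linarith)
      (fun i hi => hal i (hPS hi))
      (by
        intro k hk i hi hik
        refine le_trans ?_ (hfan k hk i (hPS hi) hik (fun a => (b j) a) (basis_sq b j))
        have : (P.filter fun i' => al i' k ∧ ∀ a, |F i' k a - F i k a| ≤ 2 * w) ⊆
            S.filter fun i' => al i' k ∧ (∀ a, |F i' k a - F i k a| ≤ 2 * w) ∧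
              |(b j) 0 * (V i' 0 - V i 0) + (b j) 1 * (V i' 1 - V i 1)| ≤ 10 * τ := by
          intro i' hi'
          obtain ⟨c1, c2, c3⟩ := Finset.mem_filter.1 hi'
          refine Finset.mem_filter.2 ⟨hPS c1, c2, c3, ?_⟩
          have := vel_strip A V i0 i i' b s p0 v0 (hPin i hi) (hPin i' c1) j
          linarith
        exact_mod_cast Finset.card_le_card this)
    have h1 : (P.card : ℝ) * θ ≤ 30976 * m * (s 0 * s 1) * H ^ 2 := by
      refine hcount.trans ?_
      have e1 : ∀ j, 22 * s j / w ≤ 44 * s j * H := by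
        intro j
        rw [div_le_iff₀ hw]
        have := hs0 j
        nlinarith
      have a0 := e1 0
      have a1 := e1 1
      have b0 : 0 ≤ 22 * s 0 / w := div_nonneg (by linarith [hs0 0]) hw.le
      have b1 : 0 ≤ 22 * s 1 / w := div_nonneg (by linarith [hs0 1]) hw.le
      have c1 : (22 * s 0 / w) * (22 * s 1 / w) ≤ (44 * s 0 * H) * (44 * s 1 * H) :=
        mul_le_mul a0 a1 b1 (b0.trans a0)
      have c2 := mul_le_mul_of_nonneg_right c1 hm
      calc 16 * (22 * s 0 / w) * (22 * s 1 / w) * m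
          = 16 * ((22 * s 0 / w) * (22 * s 1 / w) * m) := by ring
        _ ≤ 16 * ((44 * s 0 * H) * (44 * s 1 * H) * m) := by linarith
        _ = _ := by ring
    have h2 : (P.card : ℝ) ≤ 30976 * (m / θ) * (s 0 * s 1) * H ^ 2 := by
      have : 30976 * (m / θ) * (s 0 * s 1) * H ^ 2 =
          (30976 * m * (s 0 * s 1) * H ^ 2) / θ := by ring
      rw [this, le_div_iff₀ hθ]
      exact h1
    refine h2.trans ?_
    have h3 : 0 ≤ 30976 * ((S.card : ℝ) * w ^ 2 / τ ^ 2) * (s 0 * s 1) * H ^ 2 := by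
      positivity
    linarith
  · push Not at hcase
    have h1 : (P.card : ℝ) ≤ S.card := by exact_mod_cast Finset.card_le_card hPS
    refine h1.trans ?_
    have h2 : τ ^ 2 ≤ s 0 * s 1 := by
      have e0 := hcase 0
      have e1 := hcase 1
      nlinarith
    have h3 : 1 ≤ (2 * (w * H)) ^ 2 := one_le_pow₀ hwH2
    have h4 : (S.card : ℝ) ≤ 4 * ((S.card : ℝ) * w ^ 2 / τ ^ 2) * (s 0 * s 1) * H ^ 2 := by
      have e1 : (S.card : ℝ) = (S.card : ℝ) * 1 * (τ ^ 2 / τ ^ 2) := by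
        rw [div_self (by positivity)]; ring
      calc (S.card : ℝ) = (S.card : ℝ) * 1 * (τ ^ 2 / τ ^ 2) := e1
        _ ≤ (S.card : ℝ) * (2 * (w * H)) ^ 2 * ((s 0 * s 1) / τ ^ 2) := by
            have t1 : τ ^ 2 / τ ^ 2 ≤ (s 0 * s 1) / τ ^ 2 :=
              (div_le_div_iff_of_pos_right (pow_pos hτ 2)).2 h2
            exact mul_le_mul (mul_le_mul_of_nonneg_left h3 hS0.le) t1
              (div_nonneg (sq_nonneg τ) (sq_nonneg τ))
              (mul_nonneg hS0.le (sq_nonneg _))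
        _ = _ := by ring
    have h5 : 0 ≤ 30976 * (m / θ) * (s 0 * s 1) * H ^ 2 := by positivity
    have h6 : 0 ≤ ((S.card : ℝ) * w ^ 2 / τ ^ 2) * (s 0 * s 1) * H ^ 2 := by positivity
    linarith

open Classical in
/-- **two dimensional block, finite form.** -/
theorem block_fin (hKM : ∀ V : ℝ, Crest.Agent.R138.Tub70.KM32 V) (εK : ℝ) (hεK : 0 < εK) :
    ∃ CK : ℝ, 0 < CK ∧ ∀ (ι : Type) (S : Finset ι) (Z : Finset ℕ) (φ : ℕ → ℝ)
      (al : ι → ℕ → Prop) (F : ι → ℕ → Fin 2 → ℝ) (A V : ι → Fin 2 → ℝ) (w θ Mz Kc τ m : ℝ),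
      0 < w → w ≤ 1 / 10 → 0 < θ → 0 < Mz → 0 < τ → 0 ≤ m → S.Nonempty → Z.Nonempty →
      (∀ k ∈ Z, |φ k| ≤ 2) →
      (∀ k ∈ Z, ∀ i ∈ S, al i k → ∀ i' ∈ S, al i' k → ∀ a,
        |F i' k a - F i k a - ((A i' a - A i a) + φ k * (V i' a - V i a))| ≤ w) →
      (∀ k ∈ Z, (((S.filter fun i => al i k).image fun i => fun a => ⌊F i k a / w⌋).card : ℝ)
        ≤ Kc) →
      (∀ i ∈ S, θ * (Z.card : ℝ) ≤ ((Z.filter fun k => al i k).card : ℝ)) →
      (∀ i ∈ S, ∀ i' ∈ S, ∀ a, |A i' a - A i a| ≤ 1) →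
      (∀ i ∈ S, ∀ i' ∈ S, ∀ a, |V i' a - V i a| ≤ 1) →
      (∀ k ∈ Z, ∀ i ∈ S, al i k → ∀ b : Fin 2 → ℝ, b 0 ^ 2 + b 1 ^ 2 = 1 →
        ((S.filter fun i' => al i' k ∧ (∀ a, |F i' k a - F i k a| ≤ 2 * w) ∧
          |b 0 * (V i' 0 - V i 0) + b 1 * (V i' 1 - V i 1)| ≤ 10 * τ).card : ℝ) ≤ m) →
      (∀ k ∈ Z, ((Z.filter fun k' => |φ k' - φ k| ≤ 4 * w).card : ℝ) ≤ Mz) →
      (θ * (Z.card : ℝ) * w / Mz) ^ 3 * (S.card : ℝ) ≤
        CK * w ^ (-εK) * (m / θ + (S.card : ℝ) * w ^ 2 / τ ^ 2) * Kc := by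
  obtain ⟨C, hC, key⟩ := km3_cells hKM 3 (by norm_num) εK hεK
  refine ⟨92928 * C, by positivity, ?_⟩
  intro ι S Z φ al F A V w θ Mz Kc τ m hw hw1 hθ hMz hτ hm hSne hZne hφ hF hcell hal hA hV hfan hfr
  have hZ0 : (0 : ℝ) < Z.card := by exact_mod_cast hZne.card_pos
  have hS0 : (0 : ℝ) < S.card := by exact_mod_cast hSne.card_pos
  have hKc0 : 0 ≤ Kc := by
    obtain ⟨k0, hk0⟩ := hZne
    exact (Nat.cast_nonneg _).trans (hcell k0 hk0)
  -- the resolution
  set H : ℕ := ⌊1 / w⌋₊ with hHdef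
  have hinv : (10 : ℝ) ≤ 1 / w := by rw [le_div_iff₀ hw]; linarith
  have hHle : (H : ℝ) ≤ 1 / w := Nat.floor_le (by positivity)
  have hHlt : 1 / w < H + 1 := Nat.lt_floor_add_one _
  have hHge : 1 / w ≤ 2 * H := by linarith
  have hH5 : (5 : ℝ) ≤ H := by linarith
  have hH0 : (0 : ℝ) < H := by linarith
  have hHn : 1 ≤ H := by
    have : (1 : ℝ) ≤ H := by linarith
    exact_mod_cast this
  have hwH : w * H ≤ 1 := by
    rw [le_div_iff₀ hw] at hHle; linarith
  have hwH2 : 1 ≤ 2 * (w * H) := by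
    rw [div_le_iff₀ hw] at hHge; linarith
  have hHw : 1 / (H : ℝ) ≤ 2 * w := by
    rw [div_le_iff₀ hH0]; linarith
  have hwle : w ≤ 1 / (H : ℝ) := by
    rw [le_div_iff₀ hH0]; exact hwH
  -- classes of heights
  set jj : ℕ → ℤ := fun k => ⌊φ k / 2 * H⌋ with hjj
  set J : Finset ℤ := Z.image jj with hJ
  have hJb : ∀ j ∈ J, |j| ≤ (H : ℤ) := by
    intro j hj
    obtain ⟨k, hk, rfl⟩ := Finset.mem_image.1 hj
    have h1 := hφ k hk
    rw [abs_le] at h1
    rw [abs_le]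
    constructor
    · rw [hjj]
      apply Int.le_floor.2
      push_cast
      nlinarith
    · have h2 : ((⌊φ k / 2 * H⌋ : ℤ) : ℝ) ≤ ((H : ℤ) : ℝ) := by
        refine (Int.floor_le _).trans ?_
        push_cast
        nlinarith
      exact_mod_cast h2
  set a : ℕ → ℝ := fun k => ((S.filter fun i => al i k).card : ℝ) with ha
  have hkk : ∀ j : ℤ, ∃ k : ℕ, j ∈ J → k ∈ Z ∧ jj k = j ∧ ∀ k' ∈ Z, jj k' = j → a k' ≤ a k := by
    intro j
    by_cases hj : j ∈ J
    · obtain ⟨k1, hk1, hk1j⟩ := Finset.mem_image.1 hj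
      obtain ⟨k, hk, hmax⟩ := Finset.exists_max_image (Z.filter fun k => jj k = j) a
        ⟨k1, Finset.mem_filter.2 ⟨hk1, hk1j⟩⟩
      obtain ⟨hk2, hk3⟩ := Finset.mem_filter.1 hk
      exact ⟨k, fun _ => ⟨hk2, hk3, fun k' hk' hk'j => hmax k' (Finset.mem_filter.2 ⟨hk', hk'j⟩)⟩⟩
    · exact ⟨0, fun h => absurd h hj⟩
  choose kk hkk' using hkk
  -- incidences
  set E : Finset ({i // i ∈ S} × ℤ) :=
    ((Finset.univ : Finset {i // i ∈ S}) ×ˢ J).filter fun x => al x.1.1 (kk x.2) with hE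
  have hEmem : ∀ x : {i // i ∈ S} × ℤ, x ∈ E ↔ x.2 ∈ J ∧ al x.1.1 (kk x.2) := by
    intro x
    rw [hE, Finset.mem_filter, Finset.mem_product]
    simp
  have hcardι : (Fintype.card {i // i ∈ S} : ℝ) = S.card := by
    rw [Fintype.card_coe]
  -- size of `E`
  have hEcard : θ * (Z.card : ℝ) * (S.card : ℝ) ≤ Mz * (E.card : ℝ) := by
    have h1 : θ * (Z.card : ℝ) * (S.card : ℝ) ≤ ∑ k ∈ Z, a k := by
      calc θ * (Z.card : ℝ) * (S.card : ℝ) = ∑ i ∈ S, θ * (Z.card : ℝ) := by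
            rw [Finset.sum_const, nsmul_eq_mul]; ring
        _ ≤ ∑ i ∈ S, ((Z.filter fun k => al i k).card : ℝ) := Finset.sum_le_sum hal
        _ = _ := by
            have : ∑ i ∈ S, (Z.filter fun k => al i k).card =
                ∑ k ∈ Z, (S.filter fun i => al i k).card := by
              simp only [Finset.card_filter]
              exact Finset.sum_comm
            simp only [ha]
            exact_mod_cast this
    have h2 : ∑ k ∈ Z, a k = ∑ j ∈ J, ∑ k ∈ Z.filter (fun k => jj k = j), a k :=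
      (Finset.sum_fiberwise_of_maps_to (fun k hk => Finset.mem_image_of_mem _ hk) _).symm
    have h3 : ∀ j ∈ J, ∑ k ∈ Z.filter (fun k => jj k = j), a k ≤
        Mz * ((E.filter fun x => x.2 = j).card : ℝ) := by
      intro j hj
      obtain ⟨hkZ, hkj, hkmax⟩ := hkk' j hj
      have g1 : ∑ k ∈ Z.filter (fun k => jj k = j), a k ≤
          ((Z.filter fun k => jj k = j).card : ℝ) * a (kk j) := by
        calc _ ≤ ∑ k ∈ Z.filter (fun k => jj k = j), a (kk j) := by
              refine Finset.sum_le_sum fun k hk => ?_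
              obtain ⟨c1, c2⟩ := Finset.mem_filter.1 hk
              exact hkmax k c1 c2
          _ = _ := by rw [Finset.sum_const, nsmul_eq_mul]
      have g2 : ((Z.filter fun k => jj k = j).card : ℝ) ≤ Mz := by
        refine le_trans ?_ (hfr (kk j) hkZ)
        have : (Z.filter fun k => jj k = j) ⊆ Z.filter fun k' => |φ k' - φ (kk j)| ≤ 4 * w := by
          intro k hk
          obtain ⟨c1, c2⟩ := Finset.mem_filter.1 hk
          refine Finset.mem_filter.2 ⟨c1, ?_⟩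
          have e1 : ⌊φ k / 2 * H⌋ = ⌊φ (kk j) / 2 * H⌋ := by
            have : jj k = jj (kk j) := by rw [c2, hkj]
            exact this
          have e2 := Int.abs_sub_lt_one_of_floor_eq_floor e1
          have e3 : φ k / 2 * H - φ (kk j) / 2 * H = (φ k - φ (kk j)) * (H / 2) := by ring
          rw [e3, abs_mul, abs_of_pos (show (0 : ℝ) < H / 2 by positivity)] at e2
          have e4 : |φ k - φ (kk j)| ≤ 2 * (1 / (H : ℝ)) := by
            have : |φ k - φ (kk j)| * (H / 2) * (2 * (1 / (H : ℝ))) ≤ 1 * (2 * (1 / (H : ℝ))) :=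
              mul_le_mul_of_nonneg_right e2.le (by positivity)
            have e5 : |φ k - φ (kk j)| * (H / 2) * (2 * (1 / (H : ℝ))) = |φ k - φ (kk j)| := by
              field_simp
            linarith
          linarith
        exact_mod_cast Finset.card_le_card this
      have g3 : a (kk j) ≤ ((E.filter fun x => x.2 = j).card : ℝ) := by
        have : (S.filter fun i => al i (kk j)) ⊆ (E.filter fun x => x.2 = j).image fun x => x.1.1 := by
          intro i hi
          obtain ⟨c1, c2⟩ := Finset.mem_filter.1 hi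
          refine Finset.mem_image.2 ⟨(⟨i, c1⟩, j), Finset.mem_filter.2 ⟨?_, rfl⟩, rfl⟩
          rw [hEmem]
          exact ⟨hj, c2⟩
        simp only [ha]
        exact_mod_cast (Finset.card_le_card this).trans Finset.card_image_le
      have ha0 : 0 ≤ a (kk j) := Nat.cast_nonneg _
      calc _ ≤ ((Z.filter fun k => jj k = j).card : ℝ) * a (kk j) := g1
        _ ≤ Mz * a (kk j) := mul_le_mul_of_nonneg_right g2 ha0
        _ ≤ _ := mul_le_mul_of_nonneg_left g3 hMz.le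
    have h4 : (E.card : ℝ) = ∑ j ∈ J, ((E.filter fun x => x.2 = j).card : ℝ) := by
      have : E.card = ∑ j ∈ J, (E.filter fun x => x.2 = j).card :=
        Finset.card_eq_sum_card_fiberwise fun x hx => ((hEmem x).1 hx).1
      exact_mod_cast this
    calc θ * (Z.card : ℝ) * (S.card : ℝ) ≤ ∑ k ∈ Z, a k := h1
      _ = _ := h2
      _ ≤ ∑ j ∈ J, Mz * ((E.filter fun x => x.2 = j).card : ℝ) := Finset.sum_le_sum h3
      _ = _ := by rw [← Finset.mul_sum, ← h4]
  have hEpos : (0 : ℝ) < E.card := by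
    have : 0 < Mz * (E.card : ℝ) := lt_of_lt_of_le (by positivity) hEcard
    exact (pos_iff_pos_of_mul_pos this).1 hMz
  have hEne : E.Nonempty := by
    rw [← Finset.card_pos]; exact_mod_cast hEpos
  -- lines
  obtain ⟨i0, hi0⟩ := hSne
  set p : {i // i ∈ S} → E2 := fun i => pp A i0 i.1 with hp
  set v : {i // i ∈ S} → E2 := fun i => vv V i0 i.1 with hv
  set lam : ℝ := θ * (Z.card : ℝ) * w / Mz with hlam
  have hlam0 : 0 < lam := by positivity
  set D : ℝ := 30976 * (m / θ + (S.card : ℝ) * w ^ 2 / τ ^ 2) with hD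
  have hD0 : 0 ≤ D := by positivity
  set K : ℝ := 3 * H * Kc with hK
  set c : {i // i ∈ S} × ℤ → ℤ × (Fin 2 → ℤ) :=
    fun x => (x.2, fun a => ⌊F x.1.1 (kk x.2) a / w⌋) with hc
  have hps : ∀ (i i' : {i // i ∈ S}) (z : ℝ) (a : Fin 2), (ps p v i' z - ps p v i z) a =
      ((A i'.1 a - A i.1 a) + (2 * z) * (V i'.1 a - V i.1 a)) / 10 := by
    intro i i' z a
    simp only [ps, hp, hv, pp, vv, PiLp.sub_apply, PiLp.add_apply, PiLp.smul_apply, mk2_apply,
      smul_eq_mul]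
    ring
  have a1 : ∀ i, ‖p i‖ ≤ 3 ∧ ‖v i‖ ≤ 3 := by
    intro i
    constructor
    · refine (norm_le_two (M := 1) ?_).trans (by norm_num)
      intro a
      have := hA i0 hi0 i.1 i.2 a
      simp only [hp, pp, mk2_apply]
      rw [abs_div, abs_of_pos (show (0:ℝ) < 10 by norm_num), div_le_one (by norm_num)]
      linarith
    · refine (norm_le_two (M := 1) ?_).trans (by norm_num)
      intro a
      have := hV i0 hi0 i.1 i.2 a
      simp only [hv, vv, mk2_apply]
      rw [abs_div, abs_of_pos (show (0:ℝ) < 5 by norm_num), div_le_one (by norm_num)]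
      linarith
  have a2 : lam * H * (Fintype.card {i // i ∈ S} : ℝ) ≤ (E.card : ℝ) := by
    rw [hcardι]
    have h1 : lam * H * (S.card : ℝ) * Mz ≤ (E.card : ℝ) * Mz := by
      calc lam * H * (S.card : ℝ) * Mz = (θ * (Z.card : ℝ) * (S.card : ℝ)) * (w * H) := by
            rw [hlam]; field_simp
        _ ≤ (θ * (Z.card : ℝ) * (S.card : ℝ)) * 1 :=
            mul_le_mul_of_nonneg_left hwH (by positivity)
        _ ≤ (E.card : ℝ) * Mz := by linarith
    exact le_of_mul_le_mul_right h1 hMz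
  have a3 : ((E.image c).card : ℝ) ≤ K := by
    have hsub : E.image c ⊆ J.biUnion fun j =>
        ((S.filter fun i => al i (kk j)).image fun i => fun a => ⌊F i (kk j) a / w⌋).image
          fun y => (j, y) := by
      intro y hy
      obtain ⟨x, hx, rfl⟩ := Finset.mem_image.1 hy
      obtain ⟨hx1, hx2⟩ := (hEmem x).1 hx
      rw [Finset.mem_biUnion]
      refine ⟨x.2, hx1, Finset.mem_image.2 ⟨fun a => ⌊F x.1.1 (kk x.2) a / w⌋, ?_, rfl⟩⟩
      exact Finset.mem_image.2 ⟨x.1.1, Finset.mem_filter.2 ⟨x.1.2, hx2⟩, rfl⟩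
    have hJc : (J.card : ℝ) ≤ 3 * H := by
      have h1 : J ⊆ Finset.Icc (-(H : ℤ)) H := by
        intro j hj
        have := abs_le.1 (hJb j hj)
        exact Finset.mem_Icc.2 this
      have h2 := Finset.card_le_card h1
      rw [Int.card_Icc] at h2
      have h3 : ((H : ℤ) + 1 - -(H : ℤ)).toNat = 2 * H + 1 := by omega
      rw [h3] at h2
      have h4 : (J.card : ℝ) ≤ 2 * H + 1 := by exact_mod_cast h2
      linarith
    calc ((E.image c).card : ℝ) ≤ ∑ j ∈ J,
          (((((S.filter fun i => al i (kk j)).image fun i => fun a => ⌊F i (kk j) a / w⌋).image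
          fun y => (j, y)).card : ℕ) : ℝ) := by
            exact_mod_cast (Finset.card_le_card hsub).trans Finset.card_biUnion_le
      _ ≤ ∑ j ∈ J, Kc := by
          refine Finset.sum_le_sum fun j hj => ?_
          refine le_trans ?_ (hcell (kk j) (hkk' j hj).1)
          exact_mod_cast Finset.card_image_le
      _ = (J.card : ℝ) * Kc := by rw [Finset.sum_const, nsmul_eq_mul]
      _ ≤ K := by rw [hK]; exact mul_le_mul_of_nonneg_right hJc hKc0
  have a4 : ∀ x ∈ E, ∀ y ∈ E, c y = c x → y.2 = x.2 ∧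
      ‖ps p v y.1 (x.2 / H) - ps p v x.1 (x.2 / H)‖ ≤ 1 / H := by
    intro x hx y hy hxy
    obtain ⟨hx1, hx2⟩ := (hEmem x).1 hx
    obtain ⟨hy1, hy2⟩ := (hEmem y).1 hy
    simp only [hc, Prod.mk.injEq] at hxy
    obtain ⟨h1, h2⟩ := hxy
    refine ⟨h1, ?_⟩
    obtain ⟨hkZ, hkj, -⟩ := hkk' x.2 hx1
    have hy2' : al y.1.1 (kk x.2) := by rw [← h1]; exact hy2
    -- height
    have hz : |φ (kk x.2) - 2 * ((x.2 : ℝ) / H)| ≤ 2 / H := by
      have e1 : (x.2 : ℝ) ≤ φ (kk x.2) / 2 * H := by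
        have := Int.floor_le (φ (kk x.2) / 2 * H)
        have e0 : ⌊φ (kk x.2) / 2 * H⌋ = x.2 := hkj
        rwa [e0] at this
      have e2 : φ (kk x.2) / 2 * H < (x.2 : ℝ) + 1 := by
        have := Int.lt_floor_add_one (φ (kk x.2) / 2 * H)
        have e0 : ⌊φ (kk x.2) / 2 * H⌋ = x.2 := hkj
        rwa [e0] at this
      rw [show φ (kk x.2) - 2 * ((x.2 : ℝ) / H) = (φ (kk x.2) / 2 * H - x.2) * (2 / H) by
        field_simp]
      rw [abs_mul, abs_of_pos (show (0 : ℝ) < 2 / H by positivity)]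
      have : |φ (kk x.2) / 2 * H - x.2| ≤ 1 := by rw [abs_le]; constructor <;> linarith
      calc _ ≤ 1 * (2 / (H : ℝ)) := mul_le_mul_of_nonneg_right this (by positivity)
        _ = _ := one_mul _
    have hco : ∀ a, |(ps p v y.1 (x.2 / H) - ps p v x.1 (x.2 / H)) a| ≤ 1 / (2 * H) := by
      intro a
      rw [hps]
      have e1 := hF (kk x.2) hkZ x.1.1 x.1.2 hx2 y.1.1 y.1.2 hy2' a
      have e2 : ⌊F y.1.1 (kk x.2) a / w⌋ = ⌊F x.1.1 (kk x.2) a / w⌋ := by
        have := congrFun h2 a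
        rw [h1] at this
        exact this
      have e3 := Int.abs_sub_lt_one_of_floor_eq_floor e2
      rw [← sub_div, abs_div, abs_of_pos hw, div_lt_one hw] at e3
      have e4 := hV x.1.1 x.1.2 y.1.1 y.1.2 a
      have e5 : |(2 * ((x.2 : ℝ) / H) - φ (kk x.2)) * (V y.1.1 a - V x.1.1 a)| ≤ 2 / H := by
        rw [abs_mul, abs_sub_comm (2 * ((x.2 : ℝ) / H))]
        calc _ ≤ (2 / (H : ℝ)) * 1 := mul_le_mul hz e4 (abs_nonneg _) (by positivity)
          _ = _ := mul_one _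
      rw [abs_div, abs_of_pos (show (0 : ℝ) < 10 by norm_num), div_le_iff₀ (by norm_num)]
      have e6 : (A y.1.1 a - A x.1.1 a) + (2 * ((x.2 : ℝ) / H)) * (V y.1.1 a - V x.1.1 a) =
          (F y.1.1 (kk x.2) a - F x.1.1 (kk x.2) a) -
            (F y.1.1 (kk x.2) a - F x.1.1 (kk x.2) a -
            ((A y.1.1 a - A x.1.1 a) + φ (kk x.2) * (V y.1.1 a - V x.1.1 a))) +
            (2 * ((x.2 : ℝ) / H) - φ (kk x.2)) * (V y.1.1 a - V x.1.1 a) := by ring
      rw [e6]
      have e7 : (2 : ℝ) / H = 2 * (1 / H) := by ring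
      have e8 : (1 : ℝ) / (2 * H) * 10 = 5 * (1 / H) := by field_simp; norm_num
      rw [e8]
      rw [e7] at e5
      refine (abs_add_le _ _).trans ?_
      have e9 := abs_sub (F y.1.1 (kk x.2) a - F x.1.1 (kk x.2) a)
        (F y.1.1 (kk x.2) a - F x.1.1 (kk x.2) a -
            ((A y.1.1 a - A x.1.1 a) + φ (kk x.2) * (V y.1.1 a - V x.1.1 a)))
      linarith
    refine (norm_le_two hco).trans (le_of_eq ?_)
    field_simp
  have a5 : ∀ (b : OrthonormalBasis (Fin 2) ℝ E2) (s : Fin 2 → ℝ) (p0 v0 : E2),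
        (∀ j, 1 / (H : ℝ) ≤ s j ∧ s j ≤ 1) →
        ((Finset.univ.filter fun i => Crest.Agent.R138.Tub70.InPl b s p0 v0 (p i) (v i)).card : ℝ) ≤
          D * (s 0 * s 1) * (H : ℝ) ^ 2 := by
    intro b s p0 v0 hs
    set P : Finset ι := S.filter fun i =>
      Crest.Agent.R138.Tub70.InPl b s p0 v0 (pp A i0 i) (vv V i0 i) with hP
    have hPc : ((Finset.univ.filter fun i : {i // i ∈ S} =>
        Crest.Agent.R138.Tub70.InPl b s p0 v0 (p i) (v i)).card : ℝ) ≤ (P.card : ℝ) := by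
      have : (Finset.univ.filter fun i : {i // i ∈ S} =>
        Crest.Agent.R138.Tub70.InPl b s p0 v0 (p i) (v i)).card ≤ P.card := by
        refine Finset.card_le_card_of_injOn (fun i => i.1) ?_ ?_
        · intro i hi
          exact Finset.mem_filter.2 ⟨i.2, (Finset.mem_filter.1 hi).2⟩
        · intro i _ i' _ hii
          exact Subtype.ext hii
      exact_mod_cast this
    refine hPc.trans ?_
    exact plank_bd S P Z φ al F A V i0 hw hθ hτ hm hZne ⟨i0, hi0⟩ hH0 hwH2 hwle hφ hF hal hfan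
      b s p0 v0 hs (Finset.filter_subset _ _) (fun i hi => (Finset.mem_filter.1 hi).2)
  have main := key H hHn (by linarith) {i // i ∈ S} (ℤ × (Fin 2 → ℤ)) p v E c K lam D
    hlam0 hD0 hEne a1 (fun x hx => hJb _ ((hEmem x).1 hx).1) a2 (by convert a3) a4 a5
  -- conclusion
  rw [hcardι] at main
  have h1 : (H : ℝ) ^ εK ≤ w ^ (-εK) := by
    have e1 : w ^ (-εK) = (1 / w) ^ εK := by
      rw [one_div, Real.rpow_neg hw.le, Real.inv_rpow hw.le]
    rw [e1]
    exact Real.rpow_le_rpow hH0.le hHle hεK.le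
  have h2 : (lam ^ 3 * (S.card : ℝ)) * H ≤
      (92928 * C * w ^ (-εK) * (m / θ + (S.card : ℝ) * w ^ 2 / τ ^ 2) * Kc) * H := by
    calc (lam ^ 3 * (S.card : ℝ)) * H ≤ C * (H : ℝ) ^ εK * D * K := main
      _ ≤ C * w ^ (-εK) * D * K := by
          have : 0 ≤ K := by rw [hK]; positivity
          gcongr
      _ = _ := by rw [hD, hK]; ring
  exact le_of_mul_le_mul_right h2 hH0

end Crest.Agent.R136.Ful403
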