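import Crest.Agent.R138.Ex_926
import Crest.Agent.R138.Tw0_829

/-!
# R136: chart-free exponent forms of Kaufman and of the visible shift (helper356)

* `exists_le_of_ev`: comparison of exponents (829, repeated here: no `Cfg`).
* `kauf_ex`: Kaufman's count in exponent form; no chart, no box, arbitrary functions.
* `cells_shift`, `vis_ex`: a coordinate which is visible in another one has no more cells.
* `good_pair`: a good pair of heights with many common lines.
-/

set_option autoImplicit false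
set_option linter.unusedVariables false
set_option linter.unusedSectionVars false

open Filter Topology Finset

namespace Crest.Agent.R136.Gf356

open Crest.Agent.R138.Ex926 (Base U)

/-! ### powers of the base -/

theorem tendsto_rpow_zero (B : Base) {t : ℝ} (ht : 0 < t) :
    Tendsto (fun n => B.d n ^ t) U (𝓝 0) := by
  have := B.lim0.rpow_const (p := t) (Or.inr ht.le)
  simpa [Real.zero_rpow ht.ne'] using this

theorem ev_rpow_lt (B : Base) {t c : ℝ} (ht : 0 < t) (hc : 0 < c) :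
    ∀ᶠ n in (U : Filter ℕ), B.d n ^ t < c :=
  (tendsto_rpow_zero B ht).eventually (gt_mem_nhds hc)

/-- constants are absorbed -/
theorem ev_const_le (B : Base) {t : ℝ} (ht : 0 < t) (C : ℝ) :
    ∀ᶠ n in (U : Filter ℕ), C ≤ B.d n ^ (-t) := by
  have hC : 0 < 1 / (|C| + 1) := by positivity
  filter_upwards [ev_rpow_lt B ht hC] with n hn
  have hd := B.pos n
  rw [Real.rpow_neg hd.le]
  have h1 : 0 < B.d n ^ t := Real.rpow_pos_of_pos hd t
  rw [lt_div_iff₀ (by positivity)] at hn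
  calc C ≤ |C| + 1 := by linarith [le_abs_self C]
    _ ≤ (B.d n ^ t)⁻¹ := by
        rw [le_inv_comm₀ (by positivity) h1, ← one_div, le_div_iff₀ (by positivity)]
        exact hn.le

theorem rpow_anti (B : Base) (n : ℕ) {s t : ℝ} (h : s ≤ t) : B.d n ^ t ≤ B.d n ^ s :=
  Real.rpow_le_rpow_of_exponent_ge (B.pos n) (B.lt n).le h

theorem rpow_add' (B : Base) (n : ℕ) (s t : ℝ) : B.d n ^ (s + t) = B.d n ^ s * B.d n ^ t :=
  Real.rpow_add (B.pos n) s t

theorem rpos (B : Base) (n : ℕ) (t : ℝ) : 0 < B.d n ^ t := Real.rpow_pos_of_pos (B.pos n) t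

/-- the basic comparison of exponents -/
theorem exists_le_of_ev (B : Base) (J : ℕ) (β : ℕ → ℝ) (α C C0 : ℝ)
    (h : ∀ ε : ℝ, 0 < ε → ∀ᶠ n in (U : Filter ℕ),
      B.d n ^ (α + C * ε) ≤ C0 * ∑ j ∈ range (J + 1), B.d n ^ (β j - C * ε)) :
    ∃ j ≤ J, β j ≤ α := by
  by_contra hcon
  push Not at hcon
  obtain ⟨g, hg, hgj⟩ : ∃ g : ℝ, 0 < g ∧ ∀ j ≤ J, α + g ≤ β j := by
    have hne : (range (J + 1)).Nonempty := Finset.nonempty_range_iff.2 (by omega)
    refine ⟨(range (J + 1)).inf' hne (fun j => β j - α), ?_, ?_⟩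
    · refine (Finset.lt_inf'_iff hne).2 ?_
      intro j hj
      have := hcon j (by simpa [Nat.lt_succ_iff] using hj)
      linarith
    · intro j hj
      have := Finset.inf'_le (s := range (J + 1)) (fun j => β j - α)
        (b := j) (by simpa [Nat.lt_succ_iff] using hj)
      linarith
  set D := |C| + 1 with hD
  have hDpos : 0 < D := by positivity
  set ε := g / (4 * D) with hε
  have hεpos : 0 < ε := by positivity
  have hCε : |C| * ε ≤ g / 4 := by
    have : |C| * ε ≤ D * ε := mul_le_mul_of_nonneg_right (by simp [hD]) hεpos.le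
    have h2 : D * ε = g / 4 := by rw [hε]; field_simp
    linarith
  have habs : |C * ε| ≤ g / 4 := by rw [abs_mul, abs_of_pos hεpos]; exact hCε
  rw [abs_le] at habs
  have h1 := ev_rpow_lt B (t := g / 2) (c := 1 / ((|C0| + 1) * (J + 1))) (by linarith)
    (by positivity)
  obtain ⟨n, hn1, hn2⟩ := ((h ε hεpos).and h1).exists
  have hd := B.pos n
  have h3 : ∑ j ∈ range (J + 1), B.d n ^ (β j - C * ε)
      ≤ (J + 1) * B.d n ^ (α + g - g / 4) := by
    calc _ ≤ ∑ j ∈ range (J + 1), B.d n ^ (α + g - g / 4) := by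
          refine Finset.sum_le_sum fun j hj => rpow_anti B n ?_
          have := hgj j (by simpa [Nat.lt_succ_iff] using hj)
          linarith [habs.2]
      _ = _ := by simp
  have h4 : B.d n ^ (α + g / 4) ≤ B.d n ^ (α + C * ε) := rpow_anti B n (by linarith [habs.2])
  have hs0 : 0 ≤ ∑ j ∈ range (J + 1), B.d n ^ (β j - C * ε) :=
    Finset.sum_nonneg fun j _ => (Real.rpow_pos_of_pos hd _).le
  have h5 : C0 * ∑ j ∈ range (J + 1), B.d n ^ (β j - C * ε)
      ≤ (|C0| + 1) * ((J + 1) * B.d n ^ (α + g - g / 4)) := by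
    calc _ ≤ (|C0| + 1) * ∑ j ∈ range (J + 1), B.d n ^ (β j - C * ε) :=
          mul_le_mul_of_nonneg_right (by linarith [le_abs_self C0]) hs0
      _ ≤ _ := mul_le_mul_of_nonneg_left h3 (by positivity)
  have h6 : B.d n ^ (α + g - g / 4) = B.d n ^ (α + g / 4) * B.d n ^ (g / 2) := by
    rw [← rpow_add']; congr 1; ring
  have h7 : B.d n ^ (α + g / 4) ≤ (|C0| + 1) * ((J + 1) * (B.d n ^ (α + g / 4) * B.d n ^ (g / 2))) := by
    rw [← h6]
    exact h4.trans (hn1.trans h5)
  have h8 : 0 < B.d n ^ (α + g / 4) := Real.rpow_pos_of_pos hd _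
  rw [lt_div_iff₀ (by positivity)] at hn2
  have h9 : B.d n ^ (α + g / 4) * 1 ≤ B.d n ^ (α + g / 4) *
      (B.d n ^ (g / 2) * ((|C0| + 1) * (J + 1))) := by
    calc _ = B.d n ^ (α + g / 4) := mul_one _
      _ ≤ _ := h7
      _ = _ := by ring
  have h10 := le_of_mul_le_mul_left h9 h8
  linarith

/-- two exponents -/
theorem le_of_ev (B : Base) (α β C C0 : ℝ)
    (h : ∀ ε : ℝ, 0 < ε → ∀ᶠ n in (U : Filter ℕ),
      B.d n ^ (α + C * ε) ≤ C0 * B.d n ^ (β - C * ε)) : β ≤ α := by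
  obtain ⟨j, hj, h1⟩ := exists_le_of_ev B 0 (fun _ => β) α C C0 (by
    intro ε hε
    filter_upwards [h ε hε] with n hn
    simpa using hn)
  exact h1

/-! ### Kaufman -/

/-- the scale `x * j / J` -/
noncomputable def sc (x : ℝ) (J j : ℕ) : ℝ := x * j / J

theorem sc_zero (x : ℝ) (J : ℕ) : sc x J 0 = 0 := by simp [sc]

theorem sc_top (x : ℝ) {J : ℕ} (hJ : 0 < J) : sc x J J = x := by
  unfold sc
  have : (J : ℝ) ≠ 0 := by exact_mod_cast hJ.ne'
  field_simp

theorem sc_nonneg {x : ℝ} (hx : 0 ≤ x) (J j : ℕ) : 0 ≤ sc x J j := by unfold sc; positivity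

theorem sc_le {x : ℝ} (hx : 0 ≤ x) {J j : ℕ} (hJ : 0 < J) (hj : j ≤ J) : sc x J j ≤ x := by
  unfold sc
  have h1 : (0 : ℝ) < J := by exact_mod_cast hJ
  rw [div_le_iff₀ h1]
  have h2 : (j : ℝ) ≤ J := by exact_mod_cast hj
  exact mul_le_mul_of_nonneg_left h2 hx

theorem sc_succ (x : ℝ) {J : ℕ} (hJ : 0 < J) (j : ℕ) : sc x J (j + 1) = sc x J j + x / J := by
  unfold sc
  have : (J : ℝ) ≠ 0 := by exact_mod_cast hJ.ne'
  push_cast
  field_simp

/-- **Kaufman in exponent form**, chart free.  `S n` = fibre, `Z n` = good heights, `al` = alive,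
`F` = functional at the height `k`, `A` = its value at the base height, `V` = velocity,
`φ` = multiplier.  Conclusion: `#S / #(close pairs) ≤ #cells`, at one of the scales. -/
theorem kauf_ex (B : Base) {ι : Type*} [DecidableEq ι] (S : ℕ → Finset ι) (Z : ℕ → Finset ℕ)
    (φ : ℕ → ℕ → ℝ) (al : ℕ → ι → ℕ → Prop) [∀ n i, DecidablePred (al n i)]
    (F : ℕ → ι → ℕ → ℝ) (A V : ℕ → ι → ℝ) {x σ α κ C C0 : ℝ} (hx : 0 < x) (hσ0 : 0 ≤ σ)
    (hσ1 : σ ≤ 1) (hC : 1 ≤ C) {J : ℕ} (hJ : 0 < J) (π : ℕ → ℝ)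
    (hZ : ∀ᶠ n in (U : Filter ℕ), (Z n).Nonempty)
    (hφ : ∀ᶠ n in (U : Filter ℕ), ∀ k ∈ Z n, |φ n k| ≤ 2)
    (hF : ∀ ε : ℝ, 0 < ε → ∀ᶠ n in (U : Filter ℕ), ∀ k ∈ Z n, ∀ i ∈ S n, ∀ i' ∈ S n,
      |F n i k - F n i' k - ((A n i - A n i') + φ n k * (V n i - V n i'))| ≤ B.d n ^ (x - ε))
    (hS : ∀ ε : ℝ, 0 < ε → ∀ᶠ n in (U : Filter ℕ), B.d n ^ (-α + C * ε) ≤ ((S n).card : ℝ))
    (hcell : ∀ ε : ℝ, 0 < ε → ∀ᶠ n in (U : Filter ℕ), ∀ k ∈ Z n,
      ((((S n).filter fun i => al n i k).image fun i => ⌊F n i k / B.d n ^ (x - ε)⌋).card : ℝ)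
        ≤ C0 * B.d n ^ (-κ - C * ε))
    (hal : ∀ ε : ℝ, 0 < ε → ∀ᶠ n in (U : Filter ℕ), ∀ i ∈ S n,
      B.d n ^ ε * ((Z n).card : ℝ) ≤ (((Z n).filter fun k => al n i k).card : ℝ))
    (hV0 : ∀ᶠ n in (U : Filter ℕ), ∀ i ∈ S n, ∀ i' ∈ S n, |V n i - V n i'| ≤ 1)
    (hP : ∀ j ≤ J, ∀ ε : ℝ, 0 < ε → ∀ᶠ n in (U : Filter ℕ), ∀ i ∈ S n,
      (((S n).filter fun i' => |V n i' - V n i| ≤ B.d n ^ sc x J j ∧
        |A n i' - A n i| ≤ B.d n ^ (sc x J j - ε)).card : ℝ) ≤ B.d n ^ (-π j - C * ε))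
    (hQ : ∀ y : ℝ, 0 ≤ y → y ≤ x → ∀ ε : ℝ, 0 < ε → ∀ᶠ n in (U : Filter ℕ), ∀ k ∈ Z n,
      (((Z n).filter fun k' => |φ n k' - φ n k| ≤ B.d n ^ y).card : ℝ)
        ≤ B.d n ^ (σ * y - C * ε) * ((Z n).card : ℝ)) :
    ∃ j ≤ J, α - π j + σ * (x - sc x J (j + 1)) ≤ κ := by
  classical
  obtain ⟨j, hj, h⟩ := exists_le_of_ev B J
    (fun j => -κ - π j + σ * (x - sc x J (j + 1))) (- α) (5 * C + 12) (3 * |C0| + 1) (by
    intro ε hε
    have ev1 : ∀ᶠ n in (U : Filter ℕ), ∀ j ∈ range (J + 1), ∀ i ∈ S n,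
        (((S n).filter fun i' => |V n i' - V n i| ≤ B.d n ^ sc x J j ∧
          |A n i' - A n i| ≤ B.d n ^ (sc x J j - (2 * ε))).card : ℝ)
            ≤ B.d n ^ (-π j - C * (2 * ε)) := by
      rw [Filter.eventually_all_finset]
      intro j hj
      exact hP j (by simpa [Nat.lt_succ_iff] using hj) (2 * ε) (by linarith)
    have ev2 : ∀ᶠ n in (U : Filter ℕ), ∀ j ∈ range J, ∀ k ∈ Z n,
        (((Z n).filter fun k' =>
          |φ n k' - φ n k| ≤ B.d n ^ max (x - sc x J (j + 1) - 2 * ε) 0).card : ℝ)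
          ≤ B.d n ^ (σ * max (x - sc x J (j + 1) - 2 * ε) 0 - C * ε) * ((Z n).card : ℝ) := by
      rw [Filter.eventually_all_finset]
      intro j hj
      have hj' : j + 1 ≤ J := by simpa using hj
      exact hQ (max (x - sc x J (j + 1) - 2 * ε) 0) (le_max_right _ _)
        (max_le (by linarith [sc_nonneg hx.le J (j + 1)]) hx.le) ε hε
    filter_upwards [ev1, ev2, hZ, hφ, hF ε hε, hS ε hε, hcell ε hε, hal ε hε, hV0,
      ev_const_le B hε 8] with n h1 h2 hZn hφn hFn hSn hcn haln hVn h7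
    have hpow : ∀ t : ℝ, 0 < B.d n ^ t := fun t => rpos B n t
    have hSne : (S n).Nonempty := by
      rw [← Finset.card_pos]
      have : (0 : ℝ) < ((S n).card : ℝ) := lt_of_lt_of_le (hpow _) hSn
      exact_mod_cast this
    set r := B.d n ^ (x - ε) with hr
    have key := Crest.Agent.R138.Tw829.kaufman_abs (S n) (Z n) (φ n) (al n) (fun i k => F n i k)
      (A n) (V n) 0 r r (|C0| * B.d n ^ (-κ - C * ε)) (B.d n ^ ε) J
      (fun j => B.d n ^ sc x J j) (fun j => B.d n ^ (-π j - C * (2 * ε)))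
      (fun j => B.d n ^ (σ * (x - sc x J (j + 1)) - (C + 2) * ε))
      (hpow _) (hpow _).le (mul_nonneg (abs_nonneg _) (hpow _).le) (hpow _).le hSne hZn
      (by intro k hk; simpa using hφn k hk)
      (by
        intro k hk i hi i' hi'
        simpa using hFn k hk i hi i' hi')
      (by
        intro k hk
        refine (hcn k hk).trans ?_
        exact mul_le_mul_of_nonneg_right (le_abs_self _) (hpow _).le)
      (by
        calc B.d n ^ ε * (((S n).card : ℝ) * (Z n).card)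
            = ∑ i ∈ S n, B.d n ^ ε * ((Z n).card : ℝ) := by
              rw [Finset.sum_const, nsmul_eq_mul]; ring
          _ ≤ _ := Finset.sum_le_sum fun i hi => haln i hi)
      (fun j => hpow _)
      (by
        intro i hi i' hi'
        simp only [sc_zero, Real.rpow_zero]
        exact hVn i hi i' hi')
      (fun j => (hpow _).le) (fun j => (hpow _).le)
      (by
        intro j hj i hi
        have b1 := h1 j (Finset.mem_range.2 (by omega)) i hi
        refine le_trans ?_ b1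
        have : ((S n).filter fun i' => |V n i' - V n i| ≤ B.d n ^ sc x J j ∧
            |A n i' - A n i| ≤ r + r + 2 * B.d n ^ sc x J j) ⊆
            (S n).filter fun i' => |V n i' - V n i| ≤ B.d n ^ sc x J j ∧
              |A n i' - A n i| ≤ B.d n ^ (sc x J j - 2 * ε) := by
          intro i' hi'
          obtain ⟨c1, c2, c3⟩ := Finset.mem_filter.1 hi'
          refine Finset.mem_filter.2 ⟨c1, c2, c3.trans ?_⟩
          have e1 : r ≤ B.d n ^ (sc x J j - ε) := rpow_anti B n (by linarith [sc_le hx.le hJ hj])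
          have e2 : B.d n ^ sc x J j ≤ B.d n ^ (sc x J j - ε) := rpow_anti B n (by linarith)
          have e3 : B.d n ^ (sc x J j - 2 * ε) = B.d n ^ (sc x J j - ε) * B.d n ^ (-ε) := by
            rw [← rpow_add']; congr 1; ring
          rw [e3]
          have e4 := hpow (sc x J j - ε)
          nlinarith
        exact_mod_cast Finset.card_le_card this)
      (by
        intro j hj k hk
        have b1 := h2 j (Finset.mem_range.2 hj) k hk
        set y := x - sc x J (j + 1) with hy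
        have hy0 : 0 ≤ y := by
          have := sc_le hx.le hJ (Nat.succ_le_of_lt hj)
          simp only [hy]; linarith
        have b2 : 2 * (r + r) / B.d n ^ sc x J (j + 1) ≤ B.d n ^ (y - 2 * ε) := by
          have : 2 * (r + r) / B.d n ^ sc x J (j + 1) = 4 * B.d n ^ (y - ε) := by
            have : B.d n ^ (y - ε) = B.d n ^ (x - ε) / B.d n ^ sc x J (j + 1) := by
              rw [← Real.rpow_sub (B.pos n)]; congr 1; rw [hy]; ring
            rw [this, hr]; ring
          rw [this]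
          have e3 : B.d n ^ (y - 2 * ε) = B.d n ^ (y - ε) * B.d n ^ (-ε) := by
            rw [← rpow_add']; congr 1; ring
          rw [e3]
          nlinarith [hpow (y - ε)]
        rcases le_total (y - 2 * ε) 0 with hle | hle
        · have b3 : (((Z n).filter fun k' => |φ n k' - φ n k| ≤
              2 * (r + r) / B.d n ^ sc x J (j + 1)).card : ℝ) ≤ (Z n).card := by
            exact_mod_cast Finset.card_le_card (Finset.filter_subset _ _)
          refine b3.trans ?_
          have b4 : (1 : ℝ) ≤ B.d n ^ (σ * y - (C + 2) * ε) := by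
            apply Real.one_le_rpow_of_pos_of_le_one_of_nonpos (B.pos n) (B.lt n).le
            have : σ * y ≤ 2 * ε := by nlinarith
            nlinarith
          nlinarith [(Nat.cast_nonneg (Z n).card : (0:ℝ) ≤ _)]
        · rw [max_eq_left hle] at b1
          calc _ ≤ (((Z n).filter fun k' => |φ n k' - φ n k| ≤ B.d n ^ (y - 2 * ε)).card : ℝ) := by
                have : (Z n).filter (fun k' => |φ n k' - φ n k| ≤
                  2 * (r + r) / B.d n ^ sc x J (j + 1)) ⊆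
                  (Z n).filter (fun k' => |φ n k' - φ n k| ≤ B.d n ^ (y - 2 * ε)) := by
                  intro k' hk'
                  rw [Finset.mem_filter] at hk' ⊢
                  exact ⟨hk'.1, hk'.2.trans b2⟩
                exact_mod_cast Finset.card_le_card this
            _ ≤ _ := b1
            _ ≤ _ := by
                refine mul_le_mul_of_nonneg_right (rpow_anti B n ?_) (Nat.cast_nonneg _)
                nlinarith)
      (by
        apply Real.one_le_rpow_of_pos_of_le_one_of_nonpos (B.pos n) (B.lt n).le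
        rw [sc_succ x hJ, sc_top x hJ]
        have : 0 ≤ σ * (x / J) := by positivity
        nlinarith)
    have k1 : B.d n ^ (-α + (C + 2) * ε) ≤ (B.d n ^ ε) ^ 2 * ((S n).card : ℝ) := by
      have : B.d n ^ (-α + (C + 2) * ε) = (B.d n ^ ε) ^ 2 * B.d n ^ (-α + C * ε) := by
        rw [sq, ← rpow_add', ← rpow_add']; congr 1; ring
      rw [this]
      exact mul_le_mul_of_nonneg_left hSn (by positivity)
    calc B.d n ^ (-α + (5 * C + 12) * ε) ≤ B.d n ^ (-α + (C + 2) * ε) := rpow_anti B n (by nlinarith)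
      _ ≤ _ := k1
      _ ≤ _ := key
      _ = |C0| * ∑ j ∈ range (J + 1), B.d n ^ (-κ - π j + σ * (x - sc x J (j + 1))
            - (4 * C + 2) * ε) := by
          rw [mul_assoc, Finset.mul_sum]
          congr 1
          refine Finset.sum_congr rfl fun j _ => ?_
          rw [← rpow_add', ← rpow_add']
          congr 1
          ring
      _ ≤ (3 * |C0| + 1) * ∑ j ∈ range (J + 1), B.d n ^ (-κ - π j + σ * (x - sc x J (j + 1))
            - (4 * C + 2) * ε) := by
          refine mul_le_mul_of_nonneg_right (by linarith [abs_nonneg C0]) ?_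
          exact Finset.sum_nonneg fun j _ => (hpow _).le
      _ ≤ _ := by
          refine mul_le_mul_of_nonneg_left ?_ (by positivity)
          refine Finset.sum_le_sum fun j _ => rpow_anti B n ?_
          nlinarith)
  refine ⟨j, hj, ?_⟩
  linarith


/-! ### the visible shift -/

/-- number of cells of width `r` of the function `X` on `S` -/
theorem cells_shift {ι : Type*} [DecidableEq ι] (S : Finset ι) (X F : ι → ℝ) {r M : ℝ} (hr : 0 < r)
    (hM : 0 ≤ M) (h : ∀ i ∈ S, ∀ i' ∈ S, |X i - X i'| ≤ M * (|F i - F i'| + r)) :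
    (((S.image fun i => ⌊X i / r⌋).card : ℕ) : ℝ) ≤
      (4 * M + 3) * ((S.image fun i => ⌊F i / r⌋).card : ℝ) := by
  classical
  set CF := S.image fun i => ⌊F i / r⌋ with hCF
  have hsub : (S.image fun i => ⌊X i / r⌋) ⊆
      CF.biUnion fun c => (S.filter fun i => ⌊F i / r⌋ = c).image fun i => ⌊X i / r⌋ := by
    intro c hc
    obtain ⟨i, hi, rfl⟩ := Finset.mem_image.1 hc
    rw [Finset.mem_biUnion]
    exact ⟨⌊F i / r⌋, Finset.mem_image_of_mem _ hi,
      Finset.mem_image.2 ⟨i, Finset.mem_filter.2 ⟨hi, rfl⟩, rfl⟩⟩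
  have h1 : ∀ c ∈ CF, ((((S.filter fun i => ⌊F i / r⌋ = c).image fun i => ⌊X i / r⌋).card : ℕ) : ℝ)
      ≤ 4 * M + 3 := by
    intro c hc
    obtain ⟨i0, hi0, rfl⟩ := Finset.mem_image.1 hc
    have hsub2 : ((S.filter fun i => ⌊F i / r⌋ = ⌊F i0 / r⌋).image fun i => ⌊X i / r⌋) ⊆
        Finset.Icc (⌊X i0 / r - 2 * M⌋) (⌊X i0 / r + 2 * M⌋) := by
      intro c hc
      obtain ⟨i, hi, rfl⟩ := Finset.mem_image.1 hc
      obtain ⟨hi1, hi2⟩ := Finset.mem_filter.1 hi
      have e1 := Int.abs_sub_lt_one_of_floor_eq_floor hi2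
      rw [← sub_div, abs_div, abs_of_pos hr, div_lt_one hr] at e1
      have e2 := h i hi1 i0 hi0
      have e3 : |X i - X i0| ≤ 2 * M * r := e2.trans (by nlinarith)
      have e4 : |X i / r - X i0 / r| ≤ 2 * M := by
        rw [← sub_div, abs_div, abs_of_pos hr, div_le_iff₀ hr]; exact e3
      rw [abs_le] at e4
      rw [Finset.mem_Icc]
      exact ⟨Int.floor_le_floor (by linarith [e4.1]), Int.floor_le_floor (by linarith [e4.2])⟩
    have h2 : ((((S.filter fun i => ⌊F i / r⌋ = ⌊F i0 / r⌋).image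
        fun i => ⌊X i / r⌋).card : ℕ) : ℝ) ≤
        ((Finset.Icc (⌊X i0 / r - 2 * M⌋) (⌊X i0 / r + 2 * M⌋)).card : ℝ) := by
      exact_mod_cast Finset.card_le_card hsub2
    refine h2.trans ?_
    rw [Int.card_Icc]
    have hle : ⌊X i0 / r - 2 * M⌋ ≤ ⌊X i0 / r + 2 * M⌋ := Int.floor_le_floor (by linarith)
    have : (((⌊X i0 / r + 2 * M⌋ + 1 - ⌊X i0 / r - 2 * M⌋).toNat : ℕ) : ℝ) =
        ((⌊X i0 / r + 2 * M⌋ + 1 - ⌊X i0 / r - 2 * M⌋ : ℤ) : ℝ) := by
      have : (((⌊X i0 / r + 2 * M⌋ + 1 - ⌊X i0 / r - 2 * M⌋).toNat : ℤ)) =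
          (⌊X i0 / r + 2 * M⌋ + 1 - ⌊X i0 / r - 2 * M⌋ : ℤ) := Int.toNat_of_nonneg (by omega)
      exact_mod_cast congrArg (fun z : ℤ => (z : ℝ)) this
    rw [this]
    push_cast
    linarith [Int.floor_le (X i0 / r + 2 * M), Int.lt_floor_add_one (X i0 / r - 2 * M)]
  calc (((S.image fun i => ⌊X i / r⌋).card : ℕ) : ℝ)
      ≤ ((CF.biUnion fun c => (S.filter fun i => ⌊F i / r⌋ = c).image fun i => ⌊X i / r⌋).card : ℝ) := by
        exact_mod_cast Finset.card_le_card hsub
    _ ≤ ∑ c ∈ CF, ((((S.filter fun i => ⌊F i / r⌋ = c).image fun i => ⌊X i / r⌋).card : ℕ) : ℝ) := by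
        exact_mod_cast Finset.card_biUnion_le
    _ ≤ ∑ c ∈ CF, (4 * M + 3) := Finset.sum_le_sum h1
    _ = _ := by rw [Finset.sum_const, nsmul_eq_mul]; ring

/-- the number of points is at most (number of cells) × (largest cell) -/
theorem card_le_cells {ι : Type*} [DecidableEq ι] (S : Finset ι) (X : ι → ℝ) {r P : ℝ} (hr : 0 < r)
    (hP : ∀ i ∈ S, ((S.filter fun i' => |X i' - X i| ≤ r).card : ℝ) ≤ P) :
    (S.card : ℝ) ≤ ((S.image fun i => ⌊X i / r⌋).card : ℝ) * P := by
  classical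
  have h1 : S.card = ∑ c ∈ S.image fun i => ⌊X i / r⌋, (S.filter fun i => ⌊X i / r⌋ = c).card :=
    Finset.card_eq_sum_card_fiberwise fun i hi => Finset.mem_image_of_mem _ hi
  have h2 : ∀ c ∈ S.image fun i => ⌊X i / r⌋, ((S.filter fun i => ⌊X i / r⌋ = c).card : ℝ) ≤ P := by
    intro c hc
    obtain ⟨i, hi, rfl⟩ := Finset.mem_image.1 hc
    refine le_trans ?_ (hP i hi)
    have : (S.filter fun i' => ⌊X i' / r⌋ = ⌊X i / r⌋) ⊆ S.filter fun i' => |X i' - X i| ≤ r := by
      intro i' hi'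
      obtain ⟨a1, a2⟩ := Finset.mem_filter.1 hi'
      have e1 := Int.abs_sub_lt_one_of_floor_eq_floor a2
      rw [← sub_div, abs_div, abs_of_pos hr, div_lt_one hr] at e1
      exact Finset.mem_filter.2 ⟨a1, e1.le⟩
    exact_mod_cast Finset.card_le_card this
  calc (S.card : ℝ) = ∑ c ∈ S.image fun i => ⌊X i / r⌋,
        ((S.filter fun i => ⌊X i / r⌋ = c).card : ℝ) := by rw [h1]; push_cast; rfl
    _ ≤ ∑ c ∈ S.image fun i => ⌊X i / r⌋, P := Finset.sum_le_sum h2
    _ = _ := by rw [Finset.sum_const, nsmul_eq_mul]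

/-- **visible shift in exponent form.**  `X` is visible in `F` on the dense part `T` of the fibre:
`#fibre / #(X-cell) ≤ #(F-cells)`. -/
theorem vis_ex (B : Base) {ι : Type*} [DecidableEq ι] (T : ℕ → ℝ → Finset ι) (X F : ℕ → ℝ → ι → ℝ)
    {x α κ π C C0 : ℝ} (hC : 1 ≤ C)
    (h : ∀ ε : ℝ, 0 < ε → ∀ᶠ n in (U : Filter ℕ),
      (B.d n ^ (-α + C * ε) ≤ ((T n ε).card : ℝ)) ∧
      (∀ i ∈ T n ε, ∀ i' ∈ T n ε, |X n ε i - X n ε i'| ≤
        B.d n ^ (-C * ε) * (|F n ε i - F n ε i'| + B.d n ^ x)) ∧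
      ((((T n ε).image fun i => ⌊F n ε i / B.d n ^ x⌋).card : ℝ) ≤ C0 * B.d n ^ (-κ - C * ε)) ∧
      (∀ i ∈ T n ε, (((T n ε).filter fun i' => |X n ε i' - X n ε i| ≤ B.d n ^ x).card : ℝ)
        ≤ B.d n ^ (-π - C * ε))) :
    α - π ≤ κ := by
  have key := le_of_ev B (-α) (-κ - π) (3 * C + 1) (|C0| * 7) (by
    intro ε hε
    filter_upwards [h ε hε] with n hn
    obtain ⟨h1, h2, h3, h4⟩ := hn
    have hpow : ∀ t : ℝ, 0 < B.d n ^ t := fun t => rpos B n t
    have hM : (1 : ℝ) ≤ B.d n ^ (-C * ε) :=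
      Real.one_le_rpow_of_pos_of_le_one_of_nonpos (B.pos n) (B.lt n).le (by nlinarith)
    have e1 := cells_shift (T n ε) (X n ε) (F n ε) (hpow x) (hpow (-C * ε)).le h2
    have e2 := card_le_cells (T n ε) (X n ε) (hpow x) h4
    have e3 : (4 * B.d n ^ (-C * ε) + 3) ≤ 7 * B.d n ^ (-C * ε) := by linarith
    have e4 : ((((T n ε).image fun i => ⌊X n ε i / B.d n ^ x⌋).card : ℕ) : ℝ) ≤
        7 * B.d n ^ (-C * ε) * (|C0| * B.d n ^ (-κ - C * ε)) := by
      refine e1.trans ?_
      refine mul_le_mul e3 (h3.trans ?_) (Nat.cast_nonneg _) (by linarith [hpow (-C * ε)])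
      exact mul_le_mul_of_nonneg_right (le_abs_self _) (hpow _).le
    calc B.d n ^ (-α + (3 * C + 1) * ε) ≤ B.d n ^ (-α + C * ε) := rpow_anti B n (by nlinarith)
      _ ≤ _ := h1
      _ ≤ _ := e2
      _ ≤ (7 * B.d n ^ (-C * ε) * (|C0| * B.d n ^ (-κ - C * ε))) * B.d n ^ (-π - C * ε) :=
          mul_le_mul_of_nonneg_right e4 (hpow _).le
      _ = |C0| * 7 * B.d n ^ (-κ - π - 3 * C * ε) := by
          have : B.d n ^ (-κ - π - 3 * C * ε) =
              B.d n ^ (-C * ε) * B.d n ^ (-κ - C * ε) * B.d n ^ (-π - C * ε) := by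
            rw [← rpow_add', ← rpow_add']; congr 1; ring
          rw [this]; ring
      _ ≤ _ := by
          refine mul_le_mul_of_nonneg_left (rpow_anti B n (by nlinarith)) (by positivity))
  linarith

/-- **a good pair of heights with many common lines.** -/
theorem good_pair {ι : Type*} [DecidableEq ι] (L : Finset ι) (Z : Finset ℕ) (al : ι → ℕ → Prop)
    [∀ i, DecidablePred (al i)] (bad : ℕ → ℕ → Prop) [∀ k, DecidablePred (bad k)] {θ : ℝ}
    (hθ : 0 < θ) (hL : L.Nonempty) (hZ : Z.Nonempty)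
    (hal : ∀ i ∈ L, θ * (Z.card : ℝ) ≤ ((Z.filter fun k => al i k).card : ℝ))
    (hbad : ∀ i ∈ L, 2 * ((((Z.filter fun k => al i k) ×ˢ (Z.filter fun k => al i k)).filter
      fun q => bad q.1 q.2).card : ℝ) ≤ (((Z.filter fun k => al i k).card : ℝ)) ^ 2) :
    ∃ k ∈ Z, ∃ k' ∈ Z, ¬ bad k k' ∧
      θ ^ 2 / 2 * (L.card : ℝ) ≤ ((L.filter fun i => al i k ∧ al i k').card : ℝ) := by
  classical
  by_contra hcon
  push Not at hcon
  have hZ0 : (0 : ℝ) < Z.card := by exact_mod_cast hZ.card_pos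
  have hL0 : (0 : ℝ) < L.card := by exact_mod_cast hL.card_pos
  set W := (Z ×ˢ Z).filter fun q => ¬ bad q.1 q.2 with hW
  -- double counting
  have h1 : ∑ i ∈ L, ((W.filter fun q => al i q.1 ∧ al i q.2).card : ℝ) =
      ∑ q ∈ W, ((L.filter fun i => al i q.1 ∧ al i q.2).card : ℝ) := by
    have : ∑ i ∈ L, (W.filter fun q => al i q.1 ∧ al i q.2).card =
        ∑ q ∈ W, (L.filter fun i => al i q.1 ∧ al i q.2).card := by
      simp only [Finset.card_filter]
      exact Finset.sum_comm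
    exact_mod_cast this
  have h2 : ∀ i ∈ L, θ ^ 2 / 2 * (Z.card : ℝ) ^ 2 ≤
      ((W.filter fun q => al i q.1 ∧ al i q.2).card : ℝ) := by
    intro i hi
    set H := Z.filter fun k => al i k with hH
    have e1 : W.filter (fun q => al i q.1 ∧ al i q.2) = (H ×ˢ H).filter fun q => ¬ bad q.1 q.2 := by
      ext q
      simp only [hW, hH, Finset.mem_filter, Finset.mem_product]
      tauto
    have e2 : ((H ×ˢ H).filter fun q => bad q.1 q.2).card +
        ((H ×ˢ H).filter fun q => ¬ bad q.1 q.2).card = H.card * H.card := by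
      rw [Finset.card_filter_add_card_filter_not, Finset.card_product]
    have e3 : (((H ×ˢ H).filter fun q => bad q.1 q.2).card : ℝ) +
        (((H ×ˢ H).filter fun q => ¬ bad q.1 q.2).card : ℝ) = (H.card : ℝ) * H.card := by
      exact_mod_cast e2
    have e4 := hbad i hi
    have e5 := hal i hi
    rw [e1]
    have e6 : (θ * (Z.card : ℝ)) ^ 2 ≤ (H.card : ℝ) ^ 2 :=
      pow_le_pow_left₀ (by positivity) e5 2
    nlinarith
  have h3 : (L.card : ℝ) * (θ ^ 2 / 2 * (Z.card : ℝ) ^ 2) ≤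
      ∑ q ∈ W, ((L.filter fun i => al i q.1 ∧ al i q.2).card : ℝ) := by
    rw [← h1]
    calc (L.card : ℝ) * (θ ^ 2 / 2 * (Z.card : ℝ) ^ 2) = ∑ i ∈ L, θ ^ 2 / 2 * (Z.card : ℝ) ^ 2 := by
          rw [Finset.sum_const, nsmul_eq_mul]
      _ ≤ _ := Finset.sum_le_sum h2
  have h4 : ∑ q ∈ W, ((L.filter fun i => al i q.1 ∧ al i q.2).card : ℝ) <
      (L.card : ℝ) * (θ ^ 2 / 2 * (Z.card : ℝ) ^ 2) := by
    rcases W.eq_empty_or_nonempty with hWe | hWn
    · rw [hWe, Finset.sum_empty]; positivity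
    · have hWc : (W.card : ℝ) ≤ (Z.card : ℝ) ^ 2 := by
        have : W.card ≤ Z.card * Z.card := by
          rw [← Finset.card_product]; exact Finset.card_le_card (Finset.filter_subset _ _)
        rw [sq]; exact_mod_cast this
      calc ∑ q ∈ W, ((L.filter fun i => al i q.1 ∧ al i q.2).card : ℝ)
          < ∑ q ∈ W, θ ^ 2 / 2 * (L.card : ℝ) := by
            refine Finset.sum_lt_sum_of_nonempty hWn fun q hq => ?_
            obtain ⟨a1, a2⟩ := Finset.mem_filter.1 hq
            rw [Finset.mem_product] at a1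
            exact hcon q.1 a1.1 q.2 a1.2 a2
        _ = (W.card : ℝ) * (θ ^ 2 / 2 * (L.card : ℝ)) := by rw [Finset.sum_const, nsmul_eq_mul]
        _ ≤ (Z.card : ℝ) ^ 2 * (θ ^ 2 / 2 * (L.card : ℝ)) :=
            mul_le_mul_of_nonneg_right hWc (by positivity)
        _ = _ := by ring
  exact absurd h4 (not_lt.2 h3)

/-- **a popular fibre.** -/
theorem exists_fibre {ι γ : Type*} [DecidableEq ι] [DecidableEq γ] (T : Finset ι) (lab : ι → γ)
    (hT : T.Nonempty) {M : ℝ} (hM : ((T.image lab).card : ℝ) ≤ M) :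
    ∃ i0 ∈ T, (T.card : ℝ) ≤ M * ((T.filter fun i => lab i = lab i0).card : ℝ) := by
  classical
  by_contra hcon
  push Not at hcon
  have h1 : (T.card : ℝ) = ∑ c ∈ T.image lab, ((T.filter fun i => lab i = c).card : ℝ) := by
    have : T.card = ∑ c ∈ T.image lab, (T.filter fun i => lab i = c).card :=
      Finset.card_eq_sum_card_fiberwise fun i hi => Finset.mem_image_of_mem _ hi
    exact_mod_cast this
  have hne : (T.image lab).Nonempty := hT.image lab
  have hT0 : (0 : ℝ) < T.card := by exact_mod_cast hT.card_pos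
  have hI0 : (0 : ℝ) < (T.image lab).card := by exact_mod_cast hne.card_pos
  have hM0 : 0 < M := lt_of_lt_of_le hI0 hM
  have h2 : ∑ c ∈ T.image lab, ((T.filter fun i => lab i = c).card : ℝ) <
      ∑ c ∈ T.image lab, (T.card : ℝ) / M := by
    refine Finset.sum_lt_sum_of_nonempty hne fun c hc => ?_
    obtain ⟨i, hi, rfl⟩ := Finset.mem_image.1 hc
    rw [lt_div_iff₀ hM0, mul_comm]
    exact hcon i hi
  rw [← h1, Finset.sum_const, nsmul_eq_mul] at h2
  have h3 : ((T.image lab).card : ℝ) * ((T.card : ℝ) / M) ≤ M * ((T.card : ℝ) / M) :=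
    mul_le_mul_of_nonneg_right hM (by positivity)
  have h4 : M * ((T.card : ℝ) / M) = T.card := by field_simp
  linarith

end Crest.Agent.R136.Gf356
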