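import Crest.Agent.R136.Ful4_403
import Crest.Agent.R136.Gf1_356

/-!
# R136: the two dimensional block, exponent form (helper403)

`block_ex`: fibre `S n` of `d^(-α)` lines, functionals `F n i k ∈ ℝ²` which are affine in `φ n k`
(increments `A`, `V`), at most `d^(-κ)` cells of width `d^x` at every height, at most `d^(-μ)`
lines of the fibre in a cell with velocity in a strip of width `d^t`, full heights: then
`α ≤ κ + μ` or `2 x ≤ κ + 2 t`.
-/

set_option autoImplicit false

open Filter Topology Finset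

namespace Crest.Agent.R136.Ful403

open Crest.Agent.R138.Ex926 (Base U)
open Crest.Agent.R136.Gf356 (rpow_anti rpow_add' rpos ev_const_le exists_le_of_ev ev_rpow_lt)

open Classical in
/-- **two dimensional block, exponent form** (black box: Kakeya in `ℝ³`). -/
theorem block_ex (hKM : ∀ V : ℝ, Crest.Agent.R138.Tub70.KM32 V) (B : Base) {ι : Type}
    (S : ℕ → Finset ι) (Z : ℕ → Finset ℕ)
    (φ : ℕ → ℕ → ℝ) (al : ℕ → ι → ℕ → Prop)
    (F : ℕ → ι → ℕ → Fin 2 → ℝ) (A V : ℕ → ι → Fin 2 → ℝ) {x t α κ μ C C0 : ℝ} (hx : 0 < x)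
    (hC : 1 ≤ C)
    (hS0 : ∀ᶠ n in (U : Filter ℕ), (S n).Nonempty)
    (hZ : ∀ᶠ n in (U : Filter ℕ), (Z n).Nonempty)
    (hφ : ∀ᶠ n in (U : Filter ℕ), ∀ k ∈ Z n, |φ n k| ≤ 2)
    (hF : ∀ ε : ℝ, 0 < ε → ∀ᶠ n in (U : Filter ℕ), ∀ k ∈ Z n, ∀ i ∈ S n, al n i k →
      ∀ i' ∈ S n, al n i' k → ∀ a,
      |F n i' k a - F n i k a - ((A n i' a - A n i a) + φ n k * (V n i' a - V n i a))|
        ≤ B.d n ^ (x - ε))
    (hS : ∀ ε : ℝ, 0 < ε → ∀ᶠ n in (U : Filter ℕ), B.d n ^ (-α + C * ε) ≤ ((S n).card : ℝ))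
    (hcell : ∀ ε : ℝ, 0 < ε → ∀ᶠ n in (U : Filter ℕ), ∀ k ∈ Z n,
      ((((S n).filter fun i => al n i k).image
        fun i => fun a => ⌊F n i k a / B.d n ^ (x - ε)⌋).card : ℝ) ≤ C0 * B.d n ^ (-κ - C * ε))
    (hal : ∀ ε : ℝ, 0 < ε → ∀ᶠ n in (U : Filter ℕ), ∀ i ∈ S n,
      B.d n ^ ε * ((Z n).card : ℝ) ≤ (((Z n).filter fun k => al n i k).card : ℝ))
    (hA : ∀ᶠ n in (U : Filter ℕ), ∀ i ∈ S n, ∀ i' ∈ S n, ∀ a, |A n i' a - A n i a| ≤ 1)
    (hV : ∀ᶠ n in (U : Filter ℕ), ∀ i ∈ S n, ∀ i' ∈ S n, ∀ a, |V n i' a - V n i a| ≤ 1)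
    (hfan : ∀ ε : ℝ, 0 < ε → ∀ᶠ n in (U : Filter ℕ), ∀ k ∈ Z n, ∀ i ∈ S n, al n i k →
      ∀ b : Fin 2 → ℝ, b 0 ^ 2 + b 1 ^ 2 = 1 →
      (((S n).filter fun i' => al n i' k ∧ (∀ a, |F n i' k a - F n i k a| ≤ B.d n ^ (x - ε)) ∧
        |b 0 * (V n i' 0 - V n i 0) + b 1 * (V n i' 1 - V n i 1)| ≤ B.d n ^ (t - ε)).card : ℝ)
        ≤ B.d n ^ (-μ - C * ε))
    (hQ : ∀ y : ℝ, 0 ≤ y → y ≤ x → ∀ ε : ℝ, 0 < ε → ∀ᶠ n in (U : Filter ℕ), ∀ k ∈ Z n,
      (((Z n).filter fun k' => |φ n k' - φ n k| ≤ B.d n ^ y).card : ℝ)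
        ≤ B.d n ^ (y - C * ε) * ((Z n).card : ℝ)) :
    α ≤ κ + μ ∨ 2 * x ≤ κ + 2 * t := by
  obtain ⟨j, hj, h⟩ := exists_le_of_ev B 1
    (fun j => if j = 0 then α - μ - κ else 2 * x - 2 * t - κ) 0 (20 * C + 20) (|C0| + 1) (by
    intro ε₀ hε₀
    -- a smaller ε
    set e : ℝ := min ε₀ (x / 4) with he
    have he0 : 0 < e := lt_min hε₀ (by positivity)
    have heε : e ≤ ε₀ := min_le_left _ _
    have hex : e ≤ x / 4 := min_le_right _ _
    obtain ⟨CK, hCK, key⟩ := block_fin hKM (e / x) (by positivity)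
    filter_upwards [hS0, hZ, hφ, hF e he0, hS e he0, hcell e he0, hal e he0, hA, hV,
      hfan (2 * e) (by positivity), hQ (x - 2 * e) (by linarith) (by linarith) e he0,
      ev_const_le B he0 CK, ev_const_le B he0 10,
      ev_rpow_lt B (t := x - e) (c := 1 / 10) (by linarith) (by norm_num)]
      with n hS0n hZn hφn hFn hSn hcn haln hAn hVn hfann hQn hCKn h10 hwn
    have hpow : ∀ s : ℝ, 0 < B.d n ^ s := fun s => rpos B n s
    have hd := B.pos n
    have hd1 : B.d n ≤ 1 := (B.lt n).le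
    set w := B.d n ^ (x - e) with hw
    have hw0 : 0 < w := hpow _
    have hZ0 : (0 : ℝ) < (Z n).card := by exact_mod_cast hZn.card_pos
    have hS0' : (0 : ℝ) < (S n).card := by exact_mod_cast hS0n.card_pos
    have hone : B.d n ^ e * B.d n ^ (-e) = 1 := by
      rw [← rpow_add', add_neg_cancel, Real.rpow_zero]
    have h2w : 2 * w ≤ B.d n ^ (x - 2 * e) := by
      have e1 : B.d n ^ (x - 2 * e) = w * B.d n ^ (-e) := by
        rw [hw, ← rpow_add']; congr 1; ring
      rw [e1]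
      nlinarith
    have h4w : 4 * w ≤ B.d n ^ (x - 2 * e) := by
      have e1 : B.d n ^ (x - 2 * e) = w * B.d n ^ (-e) := by
        rw [hw, ← rpow_add']; congr 1; ring
      rw [e1]
      nlinarith
    set τ := B.d n ^ (t) with hτ
    have hτ0 : 0 < τ := hpow _
    have h10τ : 10 * τ ≤ B.d n ^ (t - 2 * e) := by
      have e1 : B.d n ^ (t - 2 * e) = τ * B.d n ^ (-e) * B.d n ^ (-e) := by
        rw [hτ, ← rpow_add', ← rpow_add']; congr 1; ring
      rw [e1]
      have e2 : 1 ≤ B.d n ^ (-e) := by linarith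
      nlinarith [mul_pos hτ0 (hpow (-e))]
    have main := key ι (S n) (Z n) (φ n) (al n) (F n) (A n) (V n) w (B.d n ^ e)
      (B.d n ^ (x - 2 * e - C * e) * ((Z n).card : ℝ)) (|C0| * B.d n ^ (-κ - C * e)) τ
      (B.d n ^ (-μ - C * (2 * e))) hw0 (by linarith) (hpow _) (by positivity) hτ0 (hpow _).le
      hS0n hZn hφn hFn
      (by
        intro k hk
        exact (hcn k hk).trans (mul_le_mul_of_nonneg_right (le_abs_self _) (hpow _).le))
      haln hAn hVn
      (by
        intro k hk i hi hik b hb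
        refine le_trans ?_ (hfann k hk i hi hik b hb)
        have : ((S n).filter fun i' => al n i' k ∧ (∀ a, |F n i' k a - F n i k a| ≤ 2 * w) ∧
          |b 0 * (V n i' 0 - V n i 0) + b 1 * (V n i' 1 - V n i 1)| ≤ 10 * τ) ⊆
          (S n).filter fun i' => al n i' k ∧
            (∀ a, |F n i' k a - F n i k a| ≤ B.d n ^ (x - 2 * e)) ∧
            |b 0 * (V n i' 0 - V n i 0) + b 1 * (V n i' 1 - V n i 1)| ≤ B.d n ^ (t - 2 * e) := by
          intro i' hi'
          obtain ⟨c1, c2, c3, c4⟩ := Finset.mem_filter.1 hi'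
          exact Finset.mem_filter.2 ⟨c1, c2, fun a => (c3 a).trans h2w, c4.trans h10τ⟩
        exact_mod_cast Finset.card_le_card this)
      (by
        intro k hk
        refine le_trans ?_ (hQn k hk)
        have : ((Z n).filter fun k' => |φ n k' - φ n k| ≤ 4 * w) ⊆
            (Z n).filter fun k' => |φ n k' - φ n k| ≤ B.d n ^ (x - 2 * e) := by
          intro k' hk'
          obtain ⟨c1, c2⟩ := Finset.mem_filter.1 hk'
          exact Finset.mem_filter.2 ⟨c1, c2.trans h4w⟩
        exact_mod_cast Finset.card_le_card this)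
    -- simplify
    have hlam : B.d n ^ e * ((Z n).card : ℝ) * w / (B.d n ^ (x - 2 * e - C * e) * ((Z n).card : ℝ))
        = B.d n ^ ((2 + C) * e) := by
      rw [div_eq_iff (by positivity)]
      have : B.d n ^ e * w = B.d n ^ ((2 + C) * e) * B.d n ^ (x - 2 * e - C * e) := by
        rw [hw, ← rpow_add', ← rpow_add']; congr 1; ring
      calc B.d n ^ e * ((Z n).card : ℝ) * w = (B.d n ^ e * w) * ((Z n).card : ℝ) := by ring
        _ = _ := by rw [this]; ring
    rw [hlam] at main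
    have hwK : w ^ (-(e / x)) ≤ B.d n ^ (-e) := by
      rw [hw, ← Real.rpow_mul hd.le]
      apply rpow_anti
      have : (x - e) * -(e / x) = -e + e * (e / x) := by field_simp; ring
      rw [this]
      have : 0 ≤ e * (e / x) := by positivity
      linarith
    -- divide by `#S`
    have h1 : B.d n ^ ((2 + C) * e) ^ 1 = B.d n ^ ((2 + C) * e) := by rw [pow_one]
    have hcube : (B.d n ^ ((2 + C) * e)) ^ 3 = B.d n ^ ((6 + 3 * C) * e) := by
      rw [← Real.rpow_natCast, ← Real.rpow_mul hd.le]; congr 1; push_cast; ring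
    rw [hcube] at main
    have hm : B.d n ^ (-μ - C * (2 * e)) / B.d n ^ e = B.d n ^ (-μ - (2 * C + 1) * e) := by
      rw [← Real.rpow_sub hd]; congr 1; ring
    have hwt : w ^ 2 / τ ^ 2 = B.d n ^ (2 * x - 2 * t - 2 * e) := by
      rw [hw, hτ, ← Real.rpow_natCast, ← Real.rpow_natCast, ← Real.rpow_mul hd.le,
        ← Real.rpow_mul hd.le, ← Real.rpow_sub hd]
      congr 1; push_cast; ring
    rw [hm, mul_div_assoc, hwt] at main
    have hinv : 1 ≤ (S n).card * B.d n ^ (α - C * e) := by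
      have e1 : B.d n ^ (-α + C * e) * B.d n ^ (α - C * e) = 1 := by
        rw [← rpow_add']
        have : -α + C * e + (α - C * e) = 0 := by ring
        rw [this, Real.rpow_zero]
      rw [← e1]
      exact mul_le_mul_of_nonneg_right hSn (hpow _).le
    have h2 : B.d n ^ ((6 + 3 * C) * e) * ((S n).card : ℝ) ≤
        (|C0| * (B.d n ^ (α - μ - κ - (4 * C + 3) * e) + B.d n ^ (2 * x - 2 * t - κ - (C + 4) * e))) *
          ((S n).card : ℝ) := by
      calc B.d n ^ ((6 + 3 * C) * e) * ((S n).card : ℝ)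
          ≤ CK * w ^ (-(e / x)) * (B.d n ^ (-μ - (2 * C + 1) * e) +
            (S n).card * B.d n ^ (2 * x - 2 * t - 2 * e)) * (|C0| * B.d n ^ (-κ - C * e)) := main
        _ ≤ B.d n ^ (-e) * B.d n ^ (-e) * (B.d n ^ (-μ - (2 * C + 1) * e) *
              ((S n).card * B.d n ^ (α - C * e)) +
            (S n).card * B.d n ^ (2 * x - 2 * t - 2 * e)) * (|C0| * B.d n ^ (-κ - C * e)) := by
            have g1 : B.d n ^ (-μ - (2 * C + 1) * e) ≤ B.d n ^ (-μ - (2 * C + 1) * e) *
              ((S n).card * B.d n ^ (α - C * e)) := le_mul_of_one_le_right (hpow _).le hinv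
            have g2 : CK * w ^ (-(e / x)) ≤ B.d n ^ (-e) * B.d n ^ (-e) :=
              mul_le_mul hCKn hwK (Real.rpow_pos_of_pos hw0 _).le (hpow _).le
            refine mul_le_mul_of_nonneg_right ?_ (by positivity)
            refine mul_le_mul g2 ?_ (by positivity) (by positivity)
            linarith
        _ = _ := by
            have g3 : B.d n ^ (-e) * B.d n ^ (-e) * B.d n ^ (-μ - (2 * C + 1) * e) *
                B.d n ^ (α - C * e) * B.d n ^ (-κ - C * e) =
                B.d n ^ (α - μ - κ - (4 * C + 3) * e) := by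
              rw [← rpow_add', ← rpow_add', ← rpow_add', ← rpow_add']; congr 1; ring
            have g4 : B.d n ^ (-e) * B.d n ^ (-e) * B.d n ^ (2 * x - 2 * t - 2 * e) *
                B.d n ^ (-κ - C * e) = B.d n ^ (2 * x - 2 * t - κ - (C + 4) * e) := by
              rw [← rpow_add', ← rpow_add', ← rpow_add']; congr 1; ring
            rw [← g3, ← g4]; ring
    have h3 := le_of_mul_le_mul_right h2 hS0'
    have h4 : ∑ j ∈ range (1 + 1), B.d n ^ ((if j = 0 then α - μ - κ else 2 * x - 2 * t - κ)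
        - (20 * C + 20) * ε₀) = B.d n ^ (α - μ - κ - (20 * C + 20) * ε₀) +
          B.d n ^ (2 * x - 2 * t - κ - (20 * C + 20) * ε₀) := by
      rw [Finset.sum_range_succ, Finset.sum_range_one]
      simp
    rw [h4]
    have m1 : (4 * C + 3) * e ≤ (20 * C + 20) * ε₀ := by
      apply mul_le_mul (by linarith) heε he0.le (by linarith)
    have m2 : (C + 4) * e ≤ (20 * C + 20) * ε₀ := by
      apply mul_le_mul (by linarith) heε he0.le (by linarith)
    have m3 : (6 + 3 * C) * e ≤ (20 * C + 20) * ε₀ := by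
      apply mul_le_mul (by linarith) heε he0.le (by linarith)
    calc B.d n ^ (0 + (20 * C + 20) * ε₀) ≤ B.d n ^ ((6 + 3 * C) * e) :=
          rpow_anti B n (by linarith)
      _ ≤ |C0| * (B.d n ^ (α - μ - κ - (4 * C + 3) * e) +
            B.d n ^ (2 * x - 2 * t - κ - (C + 4) * e)) := h3
      _ ≤ (|C0| + 1) * (B.d n ^ (α - μ - κ - (20 * C + 20) * ε₀) +
            B.d n ^ (2 * x - 2 * t - κ - (20 * C + 20) * ε₀)) := by
          apply mul_le_mul (by linarith)
          · apply add_le_add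
            · exact rpow_anti B n (by linarith)
            · exact rpow_anti B n (by linarith)
          · have := hpow (α - μ - κ - (4 * C + 3) * e)
            have := hpow (2 * x - 2 * t - κ - (C + 4) * e)
            linarith
          · positivity)
  have hj' : j = 0 ∨ j = 1 := by omega
  rcases hj' with rfl | rfl
  · left
    simp only [if_true] at h
    linarith
  · right
    simp only [one_ne_zero, if_false] at h
    linarith

end Crest.Agent.R136.Ful403
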