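import Crest.Agent.R136.Ful4_403
import Crest.Agent.R136.Gr2_356

/-!
# R136: the two dimensional block over 356's relative models (helper403)

* `block_exE`: `block_ex` with losses everywhere, the fibre may depend on `ε`;
* `block_R`: the block lemma on one fibre of an `RUnif`.
-/

set_option autoImplicit false
set_option linter.unusedVariables false

open Filter Topology Finset

namespace Crest.Agent.R136.Ful403

open Crest.Agent.R138.Ex926 (Base U)
open Crest.Agent.R136.Gf356

open Classical in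
/-- **two dimensional block, exponent form, losses everywhere** (black box: Kakeya in `ℝ³`). -/
theorem block_exE (hKM : ∀ V : ℝ, Crest.Agent.R138.Tub70.KM32 V) (B : Base) {ι : Type}
    (S : ℝ → ℕ → Finset ι) (Z : ℝ → ℕ → Finset ℕ)
    (φ : ℕ → ℕ → ℝ) (al : ℕ → ι → ℕ → Prop)
    (F : ℕ → ι → ℕ → Fin 2 → ℝ) (A V : ℕ → ι → Fin 2 → ℝ) {x t α κ μ C C2 C0 : ℝ} (hx : 0 < x)
    (hC : 1 ≤ C) (hC2 : 1 ≤ C2)
    (hS0 : ∀ ε : ℝ, 0 < ε → ∀ᶠ n in (U : Filter ℕ), (S ε n).Nonempty)
    (hZ : ∀ ε : ℝ, 0 < ε → ∀ᶠ n in (U : Filter ℕ), (Z ε n).Nonempty)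
    (hφ : ∀ ε : ℝ, 0 < ε → ∀ᶠ n in (U : Filter ℕ), ∀ k ∈ Z ε n, |φ n k| ≤ B.d n ^ (-(C * ε)))
    (hF : ∀ ε : ℝ, 0 < ε → ∀ᶠ n in (U : Filter ℕ), ∀ k ∈ Z ε n, ∀ i ∈ S ε n, al n i k →
      ∀ i' ∈ S ε n, al n i' k → ∀ a,
      |F n i' k a - F n i k a - ((A n i' a - A n i a) + φ n k * (V n i' a - V n i a))|
        ≤ B.d n ^ (x - C * ε))
    (hS : ∀ ε : ℝ, 0 < ε → ∀ᶠ n in (U : Filter ℕ), B.d n ^ (-α + C * ε) ≤ ((S ε n).card : ℝ))
    (hcell : ∀ ε : ℝ, 0 < ε → ∀ᶠ n in (U : Filter ℕ), ∀ k ∈ Z ε n, ∀ T ⊆ S ε n,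
      (∀ i ∈ T, al n i k) →
      ((T.image fun i => fun a => ⌊F n i k a / B.d n ^ (x - 3 * C * ε)⌋).card : ℝ)
          ≤ C0 * B.d n ^ (-κ - C2 * ε))
    (hal : ∀ ε : ℝ, 0 < ε → ∀ᶠ n in (U : Filter ℕ), ∀ i ∈ S ε n, ∀ T ⊆ Z ε n,
      (∀ k ∈ Z ε n, al n i k → k ∈ T) →
      B.d n ^ (C * ε) * ((Z ε n).card : ℝ) ≤ (T.card : ℝ))
    (hA : ∀ ε : ℝ, 0 < ε → ∀ᶠ n in (U : Filter ℕ), ∀ i ∈ S ε n, ∀ i' ∈ S ε n, ∀ a,
      |A n i' a - A n i a| ≤ B.d n ^ (-(C * ε)))
    (hV : ∀ ε : ℝ, 0 < ε → ∀ᶠ n in (U : Filter ℕ), ∀ i ∈ S ε n, ∀ i' ∈ S ε n, ∀ a,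
      |V n i' a - V n i a| ≤ B.d n ^ (-(C * ε)))
    (hfan : ∀ ε : ℝ, 0 < ε → ∀ᶠ n in (U : Filter ℕ), ∀ k ∈ Z ε n, ∀ i ∈ S ε n, al n i k →
      ∀ b : Fin 2 → ℝ, b 0 ^ 2 + b 1 ^ 2 = 1 → ∀ T ⊆ S ε n, (∀ i' ∈ T, al n i' k ∧
        (∀ a, |F n i' k a - F n i k a| ≤ B.d n ^ (x - (3 * C + 1) * ε)) ∧
        |b 0 * (V n i' 0 - V n i 0) + b 1 * (V n i' 1 - V n i 1)|
          ≤ B.d n ^ (t - (C + 2) * ε)) → (T.card : ℝ) ≤ B.d n ^ (-μ - C2 * ε))
    (hQ : ∀ ε : ℝ, 0 < ε → ∀ᶠ n in (U : Filter ℕ), ∀ k ∈ Z ε n, ∀ T ⊆ Z ε n,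
      (∀ k' ∈ T, |φ n k' - φ n k| ≤ B.d n ^ (x - (2 * C + 1) * ε)) →
      (T.card : ℝ) ≤ B.d n ^ (x - C2 * ε) * ((Z ε n).card : ℝ)) :
    α ≤ κ + μ ∨ 2 * x ≤ κ + 2 * t := by
  obtain ⟨j, hj, h⟩ := exists_le_of_ev B 1
    (fun j => if j = 0 then α - μ - κ else 2 * x - 2 * t - κ) 0
    (20 * C + 20 * C2) (|C0| + 1) (by
    intro ε₀ hε₀
    -- a smaller ε
    set e : ℝ := min ε₀ (x / (4 * C)) with he
    have he0 : 0 < e := lt_min hε₀ (by positivity)
    have heε : e ≤ ε₀ := min_le_left _ _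
    have hex : e ≤ x / (4 * C) := min_le_right _ _
    have hCe : C * e ≤ x / 4 := by
      calc C * e ≤ C * (x / (4 * C)) := mul_le_mul_of_nonneg_left hex (by linarith)
        _ = x / 4 := by field_simp
    obtain ⟨CK, hCK, key⟩ := block_fin hKM (e / x) (by positivity)
    filter_upwards [hS0 e he0, hZ e he0, hφ e he0, hF e he0, hS e he0, hcell e he0, hal e he0,
      hA e he0, hV e he0, hfan e he0, hQ e he0,
      ev_const_le B he0 CK, ev_const_le B he0 10,
      ev_rpow_lt B (t := x - C * e) (c := 1 / 10) (by linarith) (by norm_num)]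
      with n hS0n hZn hφn hFn hSn hcn haln hAn hVn hfann hQn hCKn h10 hwn
    have hpow : ∀ s : ℝ, 0 < B.d n ^ s := fun s => rpos B n s
    have hd := B.pos n
    have hd1 : B.d n ≤ 1 := (B.lt n).le
    set w := B.d n ^ (x - C * e) with hw
    have hw0 : 0 < w := hpow _
    set u := B.d n ^ (C * e) with hu
    have hu0 : 0 < u := hpow _
    have hu1 : u ≤ 1 := by
      rw [hu]
      calc B.d n ^ (C * e) ≤ B.d n ^ (0 : ℝ) := rpow_anti B n (by positivity)
        _ = 1 := Real.rpow_zero _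
    have huinv : B.d n ^ (-(C * e)) = 1 / u := by
      rw [hu, Real.rpow_neg hd.le, one_div]
    have hZ0 : (0 : ℝ) < (Z e n).card := by exact_mod_cast hZn.card_pos
    have hS0' : (0 : ℝ) < (S e n).card := by exact_mod_cast hS0n.card_pos
    have hone : B.d n ^ e * B.d n ^ (-e) = 1 := by
      rw [← rpow_add', add_neg_cancel, Real.rpow_zero]
    set τ := B.d n ^ (t) with hτ
    have hτ0 : 0 < τ := hpow _
    have hwu2 : w / u ^ 2 = B.d n ^ (x - 3 * C * e) := by
      rw [hw, hu, ← Real.rpow_natCast, ← Real.rpow_mul hd.le, ← Real.rpow_sub hd]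
      congr 1; push_cast; ring
    have e2w : 2 * w / u ^ 2 ≤ B.d n ^ (x - (3 * C + 1) * e) := by
      have e1 : B.d n ^ (x - (3 * C + 1) * e) = B.d n ^ (x - 3 * C * e) * B.d n ^ (-e) := by
        rw [← rpow_add']; congr 1; ring
      rw [mul_div_assoc, hwu2, e1]
      nlinarith [hpow (x - 3 * C * e)]
    have e10τ : 10 * τ / u ≤ B.d n ^ (t - (C + 2) * e) := by
      have e1 : B.d n ^ (t - (C + 2) * e) = τ * (1 / u) * (B.d n ^ (-e) * B.d n ^ (-e)) := by
        rw [← huinv, hτ, ← rpow_add', ← rpow_add', ← rpow_add']; congr 1; ring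
      rw [e1]
      have e2 : 1 ≤ B.d n ^ (-e) := by linarith
      have e3 : 10 ≤ B.d n ^ (-e) * B.d n ^ (-e) := by nlinarith
      have e4 : 0 < τ * (1 / u) := by positivity
      calc 10 * τ / u = (τ * (1 / u)) * 10 := by ring
        _ ≤ _ := mul_le_mul_of_nonneg_left e3 e4.le
    have e4w : 4 * w / u ≤ B.d n ^ (x - (2 * C + 1) * e) := by
      have e1 : B.d n ^ (x - (2 * C + 1) * e) = w * (1 / u) * B.d n ^ (-e) := by
        rw [← huinv, hw, ← rpow_add', ← rpow_add']; congr 1; ring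
      rw [e1]
      have e4 : 0 < w * (1 / u) := by positivity
      calc 4 * w / u = (w * (1 / u)) * 4 := by ring
        _ ≤ _ := mul_le_mul_of_nonneg_left (by linarith) e4.le
    -- rescaled data
    have main := key ι (S e n) (Z e n) (fun k => u * φ n k) (al n)
      (fun i k a => u ^ 2 * F n i k a) (fun i a => u ^ 2 * A n i a) (fun i a => u * V n i a) w
      (B.d n ^ (C * e))
      (B.d n ^ (x - C2 * e) * ((Z e n).card : ℝ)) (|C0| * B.d n ^ (-κ - C2 * e)) τ
      (B.d n ^ (-μ - C2 * e)) hw0 (by linarith) (hpow _) (by positivity) hτ0 (hpow _).le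
      hS0n hZn
      (by
        intro k hk
        have h1 := hφn k hk
        rw [huinv] at h1
        rw [abs_mul, abs_of_pos hu0]
        calc u * |φ n k| ≤ u * (1 / u) := mul_le_mul_of_nonneg_left h1 hu0.le
          _ = 1 := by field_simp
          _ ≤ 2 := by norm_num)
      (by
        intro k hk i hi hik i' hi' hi'k a
        have h1 := hFn k hk i hi hik i' hi' hi'k a
        have e1 : u ^ 2 * F n i' k a - u ^ 2 * F n i k a - ((u ^ 2 * A n i' a - u ^ 2 * A n i a) +
            u * φ n k * (u * V n i' a - u * V n i a)) =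
            u ^ 2 * (F n i' k a - F n i k a - ((A n i' a - A n i a) +
              φ n k * (V n i' a - V n i a))) := by ring
        rw [e1, abs_mul, abs_of_pos (by positivity : (0 : ℝ) < u ^ 2)]
        have e2 : u ^ 2 ≤ 1 := pow_le_one₀ hu0.le hu1
        calc u ^ 2 * |F n i' k a - F n i k a - ((A n i' a - A n i a) +
              φ n k * (V n i' a - V n i a))| ≤ 1 * w :=
              mul_le_mul e2 h1 (abs_nonneg _) zero_le_one
          _ = w := one_mul _)
      (by
        intro k hk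
        refine le_trans ?_ ((hcn k hk _ (Finset.filter_subset (fun i => al n i k) _)
          (fun i hi => (Finset.mem_filter.1 hi).2)).trans
          (mul_le_mul_of_nonneg_right (le_abs_self _) (hpow _).le))
        have e1 : ∀ i a, u ^ 2 * F n i k a / w = F n i k a / B.d n ^ (x - 3 * C * e) := by
          intro i a
          rw [← hwu2]; field_simp
        simp only [e1]
        exact le_refl _)
      (fun i hi => haln i hi _ (Finset.filter_subset _ _)
        (fun k hk hik => Finset.mem_filter.2 ⟨hk, hik⟩))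
      (by
        intro i hi i' hi' a
        have h1 := hAn i hi i' hi' a
        rw [huinv] at h1
        have e1 : u ^ 2 * A n i' a - u ^ 2 * A n i a = u ^ 2 * (A n i' a - A n i a) := by ring
        rw [e1, abs_mul, abs_of_pos (by positivity : (0 : ℝ) < u ^ 2)]
        calc u ^ 2 * |A n i' a - A n i a| ≤ u ^ 2 * (1 / u) :=
              mul_le_mul_of_nonneg_left h1 (by positivity)
          _ = u := by field_simp
          _ ≤ 1 := hu1)
      (by
        intro i hi i' hi' a
        have h1 := hVn i hi i' hi' a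
        rw [huinv] at h1
        have e1 : u * V n i' a - u * V n i a = u * (V n i' a - V n i a) := by ring
        rw [e1, abs_mul, abs_of_pos hu0]
        calc u * |V n i' a - V n i a| ≤ u * (1 / u) :=
              mul_le_mul_of_nonneg_left h1 (by positivity)
          _ = 1 := by field_simp)
      (by
        intro k hk i hi hik b hb
        refine hfann k hk i hi hik b hb _ (Finset.filter_subset _ _) ?_
        intro i' hi'
        obtain ⟨c1, c2, c3, c4⟩ := Finset.mem_filter.1 hi'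
        refine ⟨c2, fun a => ?_, ?_⟩
        · have c5 := c3 a
          have e1 : u ^ 2 * F n i' k a - u ^ 2 * F n i k a = u ^ 2 * (F n i' k a - F n i k a) := by
            ring
          rw [e1, abs_mul, abs_of_pos (by positivity : (0 : ℝ) < u ^ 2)] at c5
          refine le_trans ?_ e2w
          rw [le_div_iff₀ (by positivity)]
          linarith
        · have e1 : b 0 * (u * V n i' 0 - u * V n i 0) + b 1 * (u * V n i' 1 - u * V n i 1) =
              u * (b 0 * (V n i' 0 - V n i 0) + b 1 * (V n i' 1 - V n i 1)) := by ring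
          rw [e1, abs_mul, abs_of_pos hu0] at c4
          refine le_trans ?_ e10τ
          rw [le_div_iff₀ hu0]
          linarith)
      (by
        intro k hk
        refine hQn k hk _ (Finset.filter_subset _ _) ?_
        intro k' hk'
        obtain ⟨c1, c2⟩ := Finset.mem_filter.1 hk'
        have e1 : u * φ n k' - u * φ n k = u * (φ n k' - φ n k) := by ring
        rw [e1, abs_mul, abs_of_pos hu0] at c2
        refine le_trans ?_ e4w
        rw [le_div_iff₀ hu0]
        linarith)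
    -- simplify
    have hlam : B.d n ^ (C * e) * ((Z e n).card : ℝ) * w /
        (B.d n ^ (x - C2 * e) * ((Z e n).card : ℝ)) = B.d n ^ (C2 * e) := by
      rw [div_eq_iff (by positivity)]
      have : B.d n ^ (C * e) * w = B.d n ^ (C2 * e) * B.d n ^ (x - C2 * e) := by
        rw [hw, ← rpow_add', ← rpow_add']; congr 1; ring
      calc B.d n ^ (C * e) * ((Z e n).card : ℝ) * w
          = (B.d n ^ (C * e) * w) * ((Z e n).card : ℝ) := by ring
        _ = _ := by rw [this]; ring
    rw [hlam] at main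
    have hwK : w ^ (-(e / x)) ≤ B.d n ^ (-e) := by
      rw [hw, ← Real.rpow_mul hd.le]
      apply rpow_anti
      have : (x - C * e) * -(e / x) = -e + C * e * (e / x) := by field_simp; ring
      rw [this]
      have : 0 ≤ C * e * (e / x) := by positivity
      linarith
    have hcube : (B.d n ^ (C2 * e)) ^ 3 = B.d n ^ (3 * C2 * e) := by
      rw [← Real.rpow_natCast, ← Real.rpow_mul hd.le]; congr 1; push_cast; ring
    rw [hcube] at main
    have hm : B.d n ^ (-μ - C2 * e) / B.d n ^ (C * e) = B.d n ^ (-μ - (C2 + C) * e) := by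
      rw [← Real.rpow_sub hd]; congr 1; ring
    have hwt : w ^ 2 / τ ^ 2 = B.d n ^ (2 * x - 2 * t - 2 * C * e) := by
      rw [hw, hτ, ← Real.rpow_natCast, ← Real.rpow_natCast, ← Real.rpow_mul hd.le,
        ← Real.rpow_mul hd.le, ← Real.rpow_sub hd]
      congr 1; push_cast; ring
    rw [hm, mul_div_assoc, hwt] at main
    have hinv : 1 ≤ (S e n).card * B.d n ^ (α - C * e) := by
      have e1 : B.d n ^ (-α + C * e) * B.d n ^ (α - C * e) = 1 := by
        rw [← rpow_add']
        have : -α + C * e + (α - C * e) = 0 := by ring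
        rw [this, Real.rpow_zero]
      rw [← e1]
      exact mul_le_mul_of_nonneg_right hSn (hpow _).le
    have h2 : B.d n ^ (3 * C2 * e) * ((S e n).card : ℝ) ≤
        (|C0| * (B.d n ^ (α - μ - κ - (2 * C + 2 * C2 + 2) * e) +
          B.d n ^ (2 * x - 2 * t - κ - (2 * C + C2 + 2) * e))) * ((S e n).card : ℝ) := by
      calc B.d n ^ (3 * C2 * e) * ((S e n).card : ℝ)
          ≤ CK * w ^ (-(e / x)) * (B.d n ^ (-μ - (C2 + C) * e) +
            (S e n).card * B.d n ^ (2 * x - 2 * t - 2 * C * e)) *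
              (|C0| * B.d n ^ (-κ - C2 * e)) := main
        _ ≤ B.d n ^ (-e) * B.d n ^ (-e) * (B.d n ^ (-μ - (C2 + C) * e) *
              ((S e n).card * B.d n ^ (α - C * e)) +
            (S e n).card * B.d n ^ (2 * x - 2 * t - 2 * C * e)) *
              (|C0| * B.d n ^ (-κ - C2 * e)) := by
            have g1 : B.d n ^ (-μ - (C2 + C) * e) ≤ B.d n ^ (-μ - (C2 + C) * e) *
              ((S e n).card * B.d n ^ (α - C * e)) := le_mul_of_one_le_right (hpow _).le hinv
            have g2 : CK * w ^ (-(e / x)) ≤ B.d n ^ (-e) * B.d n ^ (-e) :=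
              mul_le_mul hCKn hwK (Real.rpow_pos_of_pos hw0 _).le (hpow _).le
            refine mul_le_mul_of_nonneg_right ?_ (by positivity)
            refine mul_le_mul g2 ?_ (by positivity) (by positivity)
            linarith
        _ = _ := by
            have g3 : B.d n ^ (-e) * B.d n ^ (-e) * B.d n ^ (-μ - (C2 + C) * e) *
                B.d n ^ (α - C * e) * B.d n ^ (-κ - C2 * e) =
                B.d n ^ (α - μ - κ - (2 * C + 2 * C2 + 2) * e) := by
              rw [← rpow_add', ← rpow_add', ← rpow_add', ← rpow_add']; congr 1; ring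
            have g4 : B.d n ^ (-e) * B.d n ^ (-e) * B.d n ^ (2 * x - 2 * t - 2 * C * e) *
                B.d n ^ (-κ - C2 * e) = B.d n ^ (2 * x - 2 * t - κ - (2 * C + C2 + 2) * e) := by
              rw [← rpow_add', ← rpow_add', ← rpow_add']; congr 1; ring
            rw [← g3, ← g4]; ring
    have h3 := le_of_mul_le_mul_right h2 hS0'
    have h4 : ∑ j ∈ range (1 + 1), B.d n ^ ((if j = 0 then α - μ - κ else 2 * x - 2 * t - κ)
        - (20 * C + 20 * C2) * ε₀) = B.d n ^ (α - μ - κ - (20 * C + 20 * C2) * ε₀) +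
          B.d n ^ (2 * x - 2 * t - κ - (20 * C + 20 * C2) * ε₀) := by
      rw [Finset.sum_range_succ, Finset.sum_range_one]
      simp
    rw [h4]
    have m1 : (2 * C + 2 * C2 + 2) * e ≤ (20 * C + 20 * C2) * ε₀ := by
      apply mul_le_mul (by linarith) heε he0.le (by linarith)
    have m2 : (2 * C + C2 + 2) * e ≤ (20 * C + 20 * C2) * ε₀ := by
      apply mul_le_mul (by linarith) heε he0.le (by linarith)
    have m3 : 3 * C2 * e ≤ (20 * C + 20 * C2) * ε₀ := by
      apply mul_le_mul (by linarith) heε he0.le (by linarith)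
    calc B.d n ^ (0 + (20 * C + 20 * C2) * ε₀) ≤ B.d n ^ (3 * C2 * e) :=
          rpow_anti B n (by linarith)
      _ ≤ |C0| * (B.d n ^ (α - μ - κ - (2 * C + 2 * C2 + 2) * e) +
            B.d n ^ (2 * x - 2 * t - κ - (2 * C + C2 + 2) * e)) := h3
      _ ≤ (|C0| + 1) * (B.d n ^ (α - μ - κ - (20 * C + 20 * C2) * ε₀) +
            B.d n ^ (2 * x - 2 * t - κ - (20 * C + 20 * C2) * ε₀)) := by
          apply mul_le_mul (by linarith)
          · apply add_le_add
            · exact rpow_anti B n (by linarith)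
            · exact rpow_anti B n (by linarith)
          · have := hpow (α - μ - κ - (2 * C + 2 * C2 + 2) * e)
            have := hpow (2 * x - 2 * t - κ - (2 * C + C2 + 2) * e)
            linarith
          · positivity)
  have hj' : j = 0 ∨ j = 1 := by omega
  rcases hj' with rfl | rfl
  · left
    simp only [if_true] at h
    linarith
  · right
    simp only [one_ne_zero, if_false] at h
    linarith

end Crest.Agent.R136.Ful403
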