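import Crest.Agent.R136.Ful6_403

/-!
# R136: the two dimensional block over 356's relative models (helper403)

* `block_R`: the block lemma on one fibre of an `RUnif`;
* `block_full_R`: the block is full, if the fans are not concentrated in strips.
-/

set_option autoImplicit false
set_option linter.unusedVariables false

open Filter Topology Finset

namespace Crest.Agent.R136.Ful403

open Crest.Agent.R138.Ex926 (Base U)
open Crest.Agent.R136.Gf356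

variable {κ : Type} {B : Base} {G : ℕ → RCfg κ} {Leg : Set (κ → ℝ)} {ν : (κ → ℝ) → ℝ} {D : ℝ}

/-- number of lines of the fibre `box pS ε` around the centre which are alive at `k`, lie in the
`F`-cell of `i` of width `d^(x - C3 ε)` and have velocity in a strip of width `d^(t - C3 ε)` -/
def FanBd (B : Base) (G : ℕ → RCfg κ) (pS : κ → ℝ) (i0 k0 : ℕ → ℕ)
    (F : ℕ → ℕ → ℕ → Fin 2 → ℝ) (V : ℕ → ℕ → Fin 2 → ℝ) (Zg : ℕ → Finset ℕ) (x t μ : ℝ) : Prop :=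
  ∀ C3 : ℝ, 0 < C3 → ∃ C4 : ℝ, 0 < C4 ∧ ∀ ε : ℝ, 0 < ε → ∀ᶠ n in (U : Filter ℕ), ∀ k ∈ Zg n,
    ∀ i ∈ (G n).box pS ε (i0 n) (k0 n), (i, k) ∈ (G n).I → ∀ b : Fin 2 → ℝ,
    b 0 ^ 2 + b 1 ^ 2 = 1 → ∀ T ⊆ (G n).box pS ε (i0 n) (k0 n),
    (∀ i' ∈ T, (i', k) ∈ (G n).I ∧ (∀ a, |F n k i' a - F n k i a| ≤ B.d n ^ (x - C3 * ε)) ∧
      |b 0 * (V n i' 0 - V n i 0) + b 1 * (V n i' 1 - V n i 1)| ≤ B.d n ^ (t - C3 * ε)) →
    (T.card : ℝ) ≤ B.d n ^ (-μ - C4 * ε)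

/-- **the two dimensional block lemma on one fibre**, relative coordinates with walls.  Fibre = the
loose box `box pS ε` around the centre `(i0 n, k0 n)`; `F n k i ∈ ℝ²` = value of the functionals at
the height `k`, `A n i` = their values at the centre height, `V n i ∈ ℝ²` = velocity, `φ n k` =
multiplier, full heights. Black box: Kakeya in `ℝ³`. -/
theorem block_R (hKM : ∀ V : ℝ, Crest.Agent.R138.Tub70.KM32 V) (H : RUnif B G Leg ν D)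
    (i0 k0 : ℕ → ℕ)
    (h0 : ∀ᶠ n in (U : Filter ℕ), (i0 n, k0 n) ∈ (G n).I) (pS pT r : κ → ℝ)
    (hpS : pS ∈ Leg) (hpT : pT ∈ Leg) (hr : r ∈ Leg) (hTr : ∀ j, pT j ≤ r j) {x t μ : ℝ}
    (hx : 0 < x)
    (F : ℕ → ℕ → ℕ → Fin 2 → ℝ) (A V : ℕ → ℕ → Fin 2 → ℝ) (φ : ℕ → ℕ → ℝ) (Zg : ℕ → Finset ℕ)
    (hZg : ∀ᶠ n in (U : Filter ℕ), (Zg n).Nonempty) {C1 : ℝ} (hC1 : 0 < C1)
    (hφ : ∀ ε : ℝ, 0 < ε → ∀ᶠ n in (U : Filter ℕ), ∀ k ∈ Zg n, |φ n k| ≤ B.d n ^ (-(C1 * ε)))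
    (hA : ∀ ε : ℝ, 0 < ε → ∀ᶠ n in (U : Filter ℕ), ∀ i ∈ (G n).box pS ε (i0 n) (k0 n),
      ∀ i' ∈ (G n).box pS ε (i0 n) (k0 n), ∀ a, |A n i' a - A n i a| ≤ B.d n ^ (-(C1 * ε)))
    (hV : ∀ ε : ℝ, 0 < ε → ∀ᶠ n in (U : Filter ℕ), ∀ i ∈ (G n).box pS ε (i0 n) (k0 n),
      ∀ i' ∈ (G n).box pS ε (i0 n) (k0 n), ∀ a, |V n i' a - V n i a| ≤ B.d n ^ (-(C1 * ε)))
    (hF : ∀ ε : ℝ, 0 < ε → ∀ᶠ n in (U : Filter ℕ), ∀ k ∈ Zg n,
      ∀ i ∈ (G n).box pS ε (i0 n) (k0 n), (i, k) ∈ (G n).I →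
      ∀ i' ∈ (G n).box pS ε (i0 n) (k0 n), (i', k) ∈ (G n).I → ∀ a,
      |F n k i' a - F n k i a - ((A n i' a - A n i a) + φ n k * (V n i' a - V n i a))|
        ≤ B.d n ^ (x - C1 * ε))
    (hlink : ∀ ε : ℝ, 0 < ε → ∀ᶠ n in (U : Filter ℕ), ∀ k ∈ Zg n,
      ∀ i ∈ (G n).box pS ε (i0 n) (k0 n), (i, k) ∈ (G n).I → ∀ l, (l, k) ∈ (G n).I →
      (G n).loose r ε k i l → ∀ a, |F n k l a - F n k i a| ≤ B.d n ^ (x - C1 * ε))
    (hT : ∀ ε : ℝ, 0 < ε → ∀ᶠ n in (U : Filter ℕ), ∀ k ∈ Zg n,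
      ∀ i ∈ (G n).box pS ε (i0 n) (k0 n), ∀ i' ∈ (G n).box pS ε (i0 n) (k0 n),
      (i, k) ∈ (G n).I → (i', k) ∈ (G n).I → (G n).loose pT (C1 * ε) k i i')
    (hal : ∀ ε : ℝ, 0 < ε → ∀ᶠ n in (U : Filter ℕ), ∀ i ∈ (G n).box pS ε (i0 n) (k0 n),
      ∀ T ⊆ Zg n, (∀ k ∈ Zg n, (i, k) ∈ (G n).I → k ∈ T) →
      B.d n ^ (C1 * ε) * ((Zg n).card : ℝ) ≤ (T.card : ℝ))
    (hfan : FanBd B G pS i0 k0 F V Zg x t μ)
    (hfr : ∀ y : ℝ, 0 ≤ y → y ≤ x → ∀ ε : ℝ, 0 < ε → ∀ᶠ n in (U : Filter ℕ), ∀ k ∈ Zg n,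
      ∀ T ⊆ Zg n, (∀ k' ∈ T, |φ n k' - φ n k| ≤ B.d n ^ y) →
      (T.card : ℝ) ≤ B.d n ^ (y - ε) * ((Zg n).card : ℝ)) :
    ν pS ≤ (ν pT - ν r) + μ ∨ 2 * x ≤ (ν pT - ν r) + 2 * t := by
  classical
  have hD := H.D1
  have hD0 : 0 < D := by linarith
  set C : ℝ := C1 + 1 with hC
  have hCpos : 0 < C := by linarith
  have hC1' : 1 ≤ C := by linarith
  obtain ⟨C4, hC4, hfan'⟩ := hfan (3 * C + 2) (by positivity)
  set C2 : ℝ := D * (D * C) + 2 * C + C4 + 3 with hC2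
  have hDDC : 0 ≤ D * (D * C) := by positivity
  refine block_exE hKM B (ι := ℕ) (fun ε n => (G n).box pS ε (i0 n) (k0 n)) (fun _ n => Zg n) φ
    (fun n i k => (i, k) ∈ (G n).I) (fun n i k => F n k i)
    A V hx (C := C) (C2 := C2) (C0 := 9) hC1' (by linarith) ?_ (fun _ _ => hZg) ?_ ?_ ?_ ?_ ?_ ?_ ?_
    ?_ ?_
  · -- nonempty
    intro ε hε
    filter_upwards [h0] with n h0n
    exact ⟨i0 n, H.self_mem_box _ _ h0n⟩
  · intro ε hε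
    filter_upwards [hφ ε hε] with n hn k hk
    exact (hn k hk).trans (rpow_anti B n (by nlinarith))
  · intro ε hε
    filter_upwards [hF ε hε] with n hn k hk i hi hik i' hi' hi'k a
    exact (hn k hk i hi hik i' hi' hi'k a).trans (rpow_anti B n (by nlinarith))
  · -- size of the fibre
    intro ε hε
    filter_upwards [H.low pS hpS ε hε, h0] with n hn h0n
    refine le_trans (rpow_anti B n ?_) (hn _ _ h0n)
    nlinarith
  · -- cells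
    intro ε hε
    have hCε : 0 < C * ε := by positivity
    have hC1ε : 0 < C1 * ε := by positivity
    filter_upwards [H.sub_loose_box pT r hpT hTr hCε, H.up pT hpT (D * (C * ε)) (by positivity),
      H.low r hr ε hε, hT ε hε, hlink ε hε] with n h1 h2 h3 h4 h5 k hk T hTS hTal
    have hpow : ∀ t : ℝ, 0 < B.d n ^ t := fun t => rpos B n t
    have goal : (((T.image fun i => fun a => ⌊F n k i a / B.d n ^ (x - 3 * C * ε)⌋).card : ℕ) : ℝ)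
        ≤ 9 * B.d n ^ (-(ν pT - ν r) - (D * (D * C) + 1) * ε) := by
      rcases T.eq_empty_or_nonempty with hTe | ⟨t0, ht0⟩
      · rw [hTe]; simpa using (hpow _).le
      have b1 := hTS ht0
      have b2 := hTal t0 ht0
      have key := cells_le_abs T ((G n).box pT (D * (C * ε)) t0 k) (fun i (a : Fin 2) => F n k i a)
        (fun _ => B.d n ^ (x - 3 * C * ε)) (fun _ => hpow _) (m0 := B.d n ^ (-ν r + ε)) (by
          intro i hi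
          have a1 := hTS hi
          have a2 := hTal i hi
          have hloose : (G n).loose pT (C * ε) k t0 i :=
            H.loose_mono (fun _ => le_rfl) (by nlinarith) (h4 k hk t0 b1 i a1 b2 a2)
          have hsub : (G n).box r ε i k ⊆ (G n).box r (C * ε) i k := by
            intro l hl
            obtain ⟨l1, l2⟩ := RCfg.mem_box.1 hl
            exact RCfg.mem_box.2 ⟨l1, H.loose_mono (fun _ => le_rfl) (by nlinarith) l2⟩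
          refine ⟨(G n).box r ε i k, hsub.trans (h1 k t0 i b2 a2 hloose), ?_, h3 i k a2⟩
          intro l hl a
          obtain ⟨l1, l2⟩ := RCfg.mem_box.1 hl
          refine (h5 k hk i a1 a2 l (H.memSlice.1 l1) l2 a).trans (rpow_anti B n ?_)
          nlinarith)
      have e9 : (3 : ℝ) ^ (Fintype.card (Fin 2)) = 9 := by rw [Fintype.card_fin]; norm_num
      rw [e9] at key
      have e1 : B.d n ^ (-ν r + ε) * B.d n ^ (ν r - ε) = 1 := by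
        rw [← rpow_add']
        have : -ν r + ε + (ν r - ε) = 0 := by ring
        rw [this, Real.rpow_zero]
      calc (((T.image fun i => fun a => ⌊F n k i a / B.d n ^ (x - 3 * C * ε)⌋).card : ℕ) : ℝ)
          = ((T.image fun i => fun a => ⌊F n k i a / B.d n ^ (x - 3 * C * ε)⌋).card : ℝ) *
            (B.d n ^ (-ν r + ε) * B.d n ^ (ν r - ε)) := by rw [e1, mul_one]
        _ = ((T.image fun i => fun a => ⌊F n k i a / B.d n ^ (x - 3 * C * ε)⌋).card : ℝ) *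
            B.d n ^ (-ν r + ε) * B.d n ^ (ν r - ε) := by ring
        _ ≤ 9 * (((G n).box pT (D * (C * ε)) t0 k).card : ℝ) * B.d n ^ (ν r - ε) :=
            mul_le_mul_of_nonneg_right key (hpow _).le
        _ ≤ 9 * B.d n ^ (-ν pT - D * (D * (C * ε))) * B.d n ^ (ν r - ε) := by
            refine mul_le_mul_of_nonneg_right ?_ (hpow _).le
            exact mul_le_mul_of_nonneg_left (h2 t0 k b2) (by norm_num)
        _ = _ := by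
            rw [mul_assoc, ← rpow_add']
            congr 2
            ring
    refine le_trans (le_of_eq ?_) (goal.trans ?_)
    · congr!
    · refine mul_le_mul_of_nonneg_left (rpow_anti B n ?_) (by norm_num)
      rw [hC2]; nlinarith
  · -- alive
    intro ε hε
    filter_upwards [hal ε hε] with n hn i hi T hT1 hT2
    refine le_trans ?_ (hn i hi T hT1 hT2)
    exact mul_le_mul_of_nonneg_right (rpow_anti B n (by nlinarith)) (Nat.cast_nonneg _)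
  · intro ε hε
    filter_upwards [hA ε hε] with n hn i hi i' hi' a
    exact (hn i hi i' hi' a).trans (rpow_anti B n (by nlinarith))
  · intro ε hε
    filter_upwards [hV ε hε] with n hn i hi i' hi' a
    exact (hn i hi i' hi' a).trans (rpow_anti B n (by nlinarith))
  · -- fans
    intro ε hε
    filter_upwards [hfan' ε hε] with n hn k hk i hi hik b hb T hT1 hT2
    refine (hn k hk i hi hik b hb T hT1 ?_).trans (rpow_anti B n ?_)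
    · intro i' hi'
      obtain ⟨c2, c3, c4⟩ := hT2 i' hi'
      refine ⟨c2, fun a => (c3 a).trans (rpow_anti B n (by nlinarith)),
        c4.trans (rpow_anti B n (by nlinarith))⟩
    · rw [hC2]; nlinarith
  · -- Frostman
    intro ε hε
    rcases le_total (x - (2 * C + 1) * ε) 0 with hle | hle
    · refine Filter.Eventually.of_forall fun n k hk T hT1 hT2 => ?_
      have b3 : (T.card : ℝ) ≤ (Zg n).card := by
        exact_mod_cast Finset.card_le_card hT1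
      refine b3.trans ?_
      have b4 : (1 : ℝ) ≤ B.d n ^ (x - C2 * ε) := by
        apply Real.one_le_rpow_of_pos_of_le_one_of_nonpos (B.pos n) (B.lt n).le
        rw [hC2]
        nlinarith
      nlinarith [(Nat.cast_nonneg (Zg n).card : (0:ℝ) ≤ _)]
    · filter_upwards [hfr (x - (2 * C + 1) * ε) hle (by nlinarith) ε hε] with n hn k hk T hT1 hT2
      refine (hn k hk T hT1 hT2).trans ?_
      · refine mul_le_mul_of_nonneg_right (rpow_anti B n ?_) (Nat.cast_nonneg _)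
        rw [hC2]
        nlinarith

/-- **the two dimensional block is full.**  If for every small `t` the fans lose in every strip of
width `d^t` (`μ` = exponent of the number of lines in a cell ∩ strip, `cells + μ < fibre`), then
the `r`-loss of the block is at least `2 x`. -/
theorem block_full_R (hKM : ∀ V : ℝ, Crest.Agent.R138.Tub70.KM32 V) (H : RUnif B G Leg ν D)
    (i0 k0 : ℕ → ℕ)
    (h0 : ∀ᶠ n in (U : Filter ℕ), (i0 n, k0 n) ∈ (G n).I) (pS pT r : κ → ℝ)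
    (hpS : pS ∈ Leg) (hpT : pT ∈ Leg) (hr : r ∈ Leg) (hTr : ∀ j, pT j ≤ r j) {x t0 : ℝ}
    (hx : 0 < x) (ht0 : 0 < t0)
    (F : ℕ → ℕ → ℕ → Fin 2 → ℝ) (A V : ℕ → ℕ → Fin 2 → ℝ) (φ : ℕ → ℕ → ℝ) (Zg : ℕ → Finset ℕ)
    (hZg : ∀ᶠ n in (U : Filter ℕ), (Zg n).Nonempty) {C1 : ℝ} (hC1 : 0 < C1)
    (hφ : ∀ ε : ℝ, 0 < ε → ∀ᶠ n in (U : Filter ℕ), ∀ k ∈ Zg n, |φ n k| ≤ B.d n ^ (-(C1 * ε)))
    (hA : ∀ ε : ℝ, 0 < ε → ∀ᶠ n in (U : Filter ℕ), ∀ i ∈ (G n).box pS ε (i0 n) (k0 n),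
      ∀ i' ∈ (G n).box pS ε (i0 n) (k0 n), ∀ a, |A n i' a - A n i a| ≤ B.d n ^ (-(C1 * ε)))
    (hV : ∀ ε : ℝ, 0 < ε → ∀ᶠ n in (U : Filter ℕ), ∀ i ∈ (G n).box pS ε (i0 n) (k0 n),
      ∀ i' ∈ (G n).box pS ε (i0 n) (k0 n), ∀ a, |V n i' a - V n i a| ≤ B.d n ^ (-(C1 * ε)))
    (hF : ∀ ε : ℝ, 0 < ε → ∀ᶠ n in (U : Filter ℕ), ∀ k ∈ Zg n,
      ∀ i ∈ (G n).box pS ε (i0 n) (k0 n), (i, k) ∈ (G n).I →
      ∀ i' ∈ (G n).box pS ε (i0 n) (k0 n), (i', k) ∈ (G n).I → ∀ a,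
      |F n k i' a - F n k i a - ((A n i' a - A n i a) + φ n k * (V n i' a - V n i a))|
        ≤ B.d n ^ (x - C1 * ε))
    (hlink : ∀ ε : ℝ, 0 < ε → ∀ᶠ n in (U : Filter ℕ), ∀ k ∈ Zg n,
      ∀ i ∈ (G n).box pS ε (i0 n) (k0 n), (i, k) ∈ (G n).I → ∀ l, (l, k) ∈ (G n).I →
      (G n).loose r ε k i l → ∀ a, |F n k l a - F n k i a| ≤ B.d n ^ (x - C1 * ε))
    (hT : ∀ ε : ℝ, 0 < ε → ∀ᶠ n in (U : Filter ℕ), ∀ k ∈ Zg n,
      ∀ i ∈ (G n).box pS ε (i0 n) (k0 n), ∀ i' ∈ (G n).box pS ε (i0 n) (k0 n),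
      (i, k) ∈ (G n).I → (i', k) ∈ (G n).I → (G n).loose pT (C1 * ε) k i i')
    (hal : ∀ ε : ℝ, 0 < ε → ∀ᶠ n in (U : Filter ℕ), ∀ i ∈ (G n).box pS ε (i0 n) (k0 n),
      ∀ T ⊆ Zg n, (∀ k ∈ Zg n, (i, k) ∈ (G n).I → k ∈ T) →
      B.d n ^ (C1 * ε) * ((Zg n).card : ℝ) ≤ (T.card : ℝ))
    (hfan : ∀ t : ℝ, 0 < t → t ≤ t0 → ∃ μ : ℝ, (ν pT - ν r) + μ < ν pS ∧
      FanBd B G pS i0 k0 F V Zg x t μ)
    (hfr : ∀ y : ℝ, 0 ≤ y → y ≤ x → ∀ ε : ℝ, 0 < ε → ∀ᶠ n in (U : Filter ℕ), ∀ k ∈ Zg n,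
      ∀ T ⊆ Zg n, (∀ k' ∈ T, |φ n k' - φ n k| ≤ B.d n ^ y) →
      (T.card : ℝ) ≤ B.d n ^ (y - ε) * ((Zg n).card : ℝ)) :
    2 * x ≤ ν pT - ν r := by
  by_contra hcon
  push Not at hcon
  set t : ℝ := min t0 ((2 * x - (ν pT - ν r)) / 4) with ht
  have htpos : 0 < t := lt_min ht0 (by linarith)
  have ht1 : t ≤ (2 * x - (ν pT - ν r)) / 4 := min_le_right _ _
  obtain ⟨μ, hμ, hf⟩ := hfan t htpos (min_le_left _ _)
  rcases block_R hKM H i0 k0 h0 pS pT r hpS hpT hr hTr hx F A V φ Zg hZg hC1 hφ hA hV hF hlink hT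
    hal hf hfr with h | h
  · linarith
  · linarith

/-- **the dichotomy**: either the block is full, or for some strip width the fans do not lose. -/
theorem block_alt_R (hKM : ∀ V : ℝ, Crest.Agent.R138.Tub70.KM32 V) (H : RUnif B G Leg ν D)
    (i0 k0 : ℕ → ℕ)
    (h0 : ∀ᶠ n in (U : Filter ℕ), (i0 n, k0 n) ∈ (G n).I) (pS pT r : κ → ℝ)
    (hpS : pS ∈ Leg) (hpT : pT ∈ Leg) (hr : r ∈ Leg) (hTr : ∀ j, pT j ≤ r j) {x μ t : ℝ}
    (hx : 0 < x)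
    (F : ℕ → ℕ → ℕ → Fin 2 → ℝ) (A V : ℕ → ℕ → Fin 2 → ℝ) (φ : ℕ → ℕ → ℝ) (Zg : ℕ → Finset ℕ)
    (hZg : ∀ᶠ n in (U : Filter ℕ), (Zg n).Nonempty) {C1 : ℝ} (hC1 : 0 < C1)
    (hφ : ∀ ε : ℝ, 0 < ε → ∀ᶠ n in (U : Filter ℕ), ∀ k ∈ Zg n, |φ n k| ≤ B.d n ^ (-(C1 * ε)))
    (hA : ∀ ε : ℝ, 0 < ε → ∀ᶠ n in (U : Filter ℕ), ∀ i ∈ (G n).box pS ε (i0 n) (k0 n),
      ∀ i' ∈ (G n).box pS ε (i0 n) (k0 n), ∀ a, |A n i' a - A n i a| ≤ B.d n ^ (-(C1 * ε)))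
    (hV : ∀ ε : ℝ, 0 < ε → ∀ᶠ n in (U : Filter ℕ), ∀ i ∈ (G n).box pS ε (i0 n) (k0 n),
      ∀ i' ∈ (G n).box pS ε (i0 n) (k0 n), ∀ a, |V n i' a - V n i a| ≤ B.d n ^ (-(C1 * ε)))
    (hF : ∀ ε : ℝ, 0 < ε → ∀ᶠ n in (U : Filter ℕ), ∀ k ∈ Zg n,
      ∀ i ∈ (G n).box pS ε (i0 n) (k0 n), (i, k) ∈ (G n).I →
      ∀ i' ∈ (G n).box pS ε (i0 n) (k0 n), (i', k) ∈ (G n).I → ∀ a,
      |F n k i' a - F n k i a - ((A n i' a - A n i a) + φ n k * (V n i' a - V n i a))|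
        ≤ B.d n ^ (x - C1 * ε))
    (hlink : ∀ ε : ℝ, 0 < ε → ∀ᶠ n in (U : Filter ℕ), ∀ k ∈ Zg n,
      ∀ i ∈ (G n).box pS ε (i0 n) (k0 n), (i, k) ∈ (G n).I → ∀ l, (l, k) ∈ (G n).I →
      (G n).loose r ε k i l → ∀ a, |F n k l a - F n k i a| ≤ B.d n ^ (x - C1 * ε))
    (hT : ∀ ε : ℝ, 0 < ε → ∀ᶠ n in (U : Filter ℕ), ∀ k ∈ Zg n,
      ∀ i ∈ (G n).box pS ε (i0 n) (k0 n), ∀ i' ∈ (G n).box pS ε (i0 n) (k0 n),
      (i, k) ∈ (G n).I → (i', k) ∈ (G n).I → (G n).loose pT (C1 * ε) k i i')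
    (hal : ∀ ε : ℝ, 0 < ε → ∀ᶠ n in (U : Filter ℕ), ∀ i ∈ (G n).box pS ε (i0 n) (k0 n),
      ∀ T ⊆ Zg n, (∀ k ∈ Zg n, (i, k) ∈ (G n).I → k ∈ T) →
      B.d n ^ (C1 * ε) * ((Zg n).card : ℝ) ≤ (T.card : ℝ))
    (hfr : ∀ y : ℝ, 0 ≤ y → y ≤ x → ∀ ε : ℝ, 0 < ε → ∀ᶠ n in (U : Filter ℕ), ∀ k ∈ Zg n,
      ∀ T ⊆ Zg n, (∀ k' ∈ T, |φ n k' - φ n k| ≤ B.d n ^ y) →
      (T.card : ℝ) ≤ B.d n ^ (y - ε) * ((Zg n).card : ℝ))
    (hμ : (ν pT - ν r) + μ < ν pS) (hnf : (ν pT - ν r) + 2 * t < 2 * x) :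
    ¬ FanBd B G pS i0 k0 F V Zg x t μ := by
  intro hf
  rcases block_R hKM H i0 k0 h0 pS pT r hpS hpT hr hTr hx F A V φ Zg hZg hC1 hφ hA hV hF hlink hT
    hal hf hfr with h | h
  · linarith
  · linarith

end Crest.Agent.R136.Ful403
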