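import Crest.Agent.R136.GW8_650
import Crest.Agent.R136.FlW1_464

/-!
# R136, flags of the W-chart (helper650), part 1: one line, bounds

* `iv_bd`, `quad_coef`, `evY_bd`;
* `FW1_bd` : the flag `FlW464.FW1` (own slots from two sheets, exact on the line) is polynomially
  bounded;
* `prN_le` : graded and natural precisions.
-/

set_option autoImplicit false
set_option linter.unusedVariables false

open Finset Filter Topology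

namespace Crest.Agent.R136.Fw650

open Crest.Agent.R136.Sh605
open Crest.Agent.R136.Net191
open Crest.Agent.R136.NetW191
open Crest.Agent.R136.GeoW778 (TrueW qS)
open Crest.Agent.R136.FlW464
open Crest.Agent.R136.GW650 (sz3 sz3_pos sz3_mono sz3_scale unW_nat sizeW)
open Crest.Agent.R136.PrW464 (unW)

/-! ### crude bounds -/

/-- bound of the inverse frame -/
theorem iv_bd {κ : ℝ} (hκ : |κ| ≤ 1) {g : Fin 4 → ℝ} {Γ : ℝ} (h1 : 1 ≤ Γ)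
    (hg : ∀ i, |g i| ≤ Γ) (i : Fin 4) : |iv κ g i| ≤ 8 * Γ ^ 3 := by
  have p2 : Γ ≤ Γ ^ 3 := by
    calc Γ = Γ ^ 1 := (pow_one _).symm
      _ ≤ Γ ^ 3 := pow_le_pow_right₀ h1 (by norm_num)
  have p3 : Γ ^ 2 ≤ Γ ^ 3 := pow_le_pow_right₀ h1 (by norm_num)
  have p0 : 0 ≤ Γ ^ 3 := by positivity
  have b0 := hg 0
  have b1 := hg 1
  have b2 := hg 2
  have b3 := hg 3
  have m10 : |g 1 * g 0| ≤ Γ ^ 2 := by
    rw [abs_mul, sq]; exact mul_le_mul b1 b0 (abs_nonneg _) (by linarith)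
  have m12 : |g 1 * g 2| ≤ Γ ^ 2 := by
    rw [abs_mul, sq]; exact mul_le_mul b1 b2 (abs_nonneg _) (by linarith)
  have m110 : |g 1 * (g 1 * g 0)| ≤ Γ ^ 3 := by
    rw [abs_mul, pow_succ']; exact mul_le_mul b1 m10 (abs_nonneg _) (by linarith)
  have k1 : ∀ {x X : ℝ}, |x| ≤ X → |κ * x| ≤ X := fun {x X} h => by
    rw [abs_mul]
    exact (mul_le_of_le_one_left (abs_nonneg _) hκ).trans h
  fin_cases i
  · show |0 - g 0| ≤ _
    rw [zero_sub, abs_neg]; linarith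
  · show |0 - g 1| ≤ _
    rw [zero_sub, abs_neg]; linarith
  · show |0 - g 2 - g 1 * (0 - g 0)| ≤ _
    have e : 0 - g 2 - g 1 * (0 - g 0) = -g 2 + g 1 * g 0 := by ring
    rw [e]
    refine (abs_add_le _ _).trans ?_
    rw [abs_neg]; linarith
  · show |0 - g 3 + 2 * κ * g 1 * (0 - g 2 - g 1 * (0 - g 0)) + κ * g 1 ^ 2 * (0 - g 0)| ≤ _
    have e : 0 - g 3 + 2 * κ * g 1 * (0 - g 2 - g 1 * (0 - g 0)) + κ * g 1 ^ 2 * (0 - g 0) =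
        -g 3 + (-2 * (κ * (g 1 * g 2)) + κ * (g 1 * (g 1 * g 0))) := by ring
    rw [e]
    refine (abs_add_le _ _).trans ?_
    have e1 := abs_add_le (-2 * (κ * (g 1 * g 2))) (κ * (g 1 * (g 1 * g 0)))
    have e2 : |-2 * (κ * (g 1 * g 2))| = 2 * |κ * (g 1 * g 2)| := by
      rw [abs_mul]; norm_num
    have e3 := k1 m12
    have e4 := k1 m110
    rw [abs_neg]
    linarith

/-- coefficients of a quadratic polynomial from its values at three points -/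
theorem quad_coef {r0 r1 r2 z0 ρ m R : ℝ} (hρ : 0 < ρ) (hz : |z0| ≤ R) (hR : 1 ≤ R) (hρR : ρ ≤ R)
    (h : ∀ z, z0 ≤ z → z ≤ z0 + ρ → |r0 + r1 * z + r2 * z ^ 2| ≤ m) :
    |r2| ≤ 8 * m / ρ ^ 2 ∧ |r1| ≤ 40 * m * R / ρ ^ 2 ∧ |r0| ≤ 49 * m * R ^ 2 / ρ ^ 2 := by
  have a0 := h z0 le_rfl (by linarith)
  have a1 := h (z0 + ρ / 2) (by linarith) (by linarith)
  have a2 := h (z0 + ρ) (by linarith) le_rfl
  have m0 : 0 ≤ m := (abs_nonneg _).trans a0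
  have R0 : 0 ≤ R := by linarith
  set f0 := r0 + r1 * z0 + r2 * z0 ^ 2 with hf0
  set f1 := r0 + r1 * (z0 + ρ / 2) + r2 * (z0 + ρ / 2) ^ 2 with hf1
  set f2 := r0 + r1 * (z0 + ρ) + r2 * (z0 + ρ) ^ 2 with hf2
  have hr : ρ ^ 2 ≠ 0 := by positivity
  have e2 : r2 * ρ ^ 2 = 2 * (f2 - 2 * f1 + f0) := by rw [hf0, hf1, hf2]; ring
  have e1 : (r1 + 2 * r2 * z0) * ρ = -3 * f0 + 4 * f1 - f2 := by rw [hf0, hf1, hf2]; ring
  have b2 : |r2 * ρ ^ 2| ≤ 8 * m := by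
    rw [e2]
    rw [abs_le] at a0 a1 a2 ⊢
    constructor <;> linarith
  have b1 : |(r1 + 2 * r2 * z0) * ρ| ≤ 8 * m := by
    rw [e1]
    rw [abs_le] at a0 a1 a2 ⊢
    constructor <;> linarith
  have p : 0 < ρ ^ 2 := by positivity
  have c2 : |r2| ≤ 8 * m / ρ ^ 2 := by
    rw [abs_mul, abs_of_pos p] at b2
    rwa [le_div_iff₀ p]
  have c1' : |r1 + 2 * r2 * z0| ≤ 8 * m * R / ρ ^ 2 := by
    rw [abs_mul, abs_of_pos hρ] at b1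
    rw [le_div_iff₀ p]
    have : |r1 + 2 * r2 * z0| * ρ ^ 2 = (|r1 + 2 * r2 * z0| * ρ) * ρ := by ring
    rw [this]
    exact mul_le_mul b1 hρR hρ.le (by positivity)
  have c1 : |r1| ≤ 40 * m * R / ρ ^ 2 := by
    have e : r1 = (r1 + 2 * r2 * z0) - 2 * r2 * z0 := by ring
    have e3 : |2 * r2 * z0| ≤ 16 * m * R / ρ ^ 2 := by
      rw [abs_mul, abs_mul, abs_two]
      calc 2 * |r2| * |z0| ≤ 2 * (8 * m / ρ ^ 2) * R :=
            mul_le_mul (mul_le_mul_of_nonneg_left c2 (by norm_num)) hz (abs_nonneg _)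
              (by positivity)
        _ = _ := by ring
    rw [e]
    refine (abs_sub _ _).trans ?_
    have e4 : 8 * m * R / ρ ^ 2 + 16 * m * R / ρ ^ 2 ≤ 40 * m * R / ρ ^ 2 := by
      rw [← add_div]
      exact div_le_div_of_nonneg_right (by nlinarith [mul_nonneg m0 R0]) p.le
    linarith
  refine ⟨c2, c1, ?_⟩
  have e : r0 = f0 - r1 * z0 - r2 * z0 ^ 2 := by rw [hf0]; ring
  have e5 : |r1 * z0| ≤ 40 * m * R ^ 2 / ρ ^ 2 := by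
    rw [abs_mul]
    calc |r1| * |z0| ≤ 40 * m * R / ρ ^ 2 * R := mul_le_mul c1 hz (abs_nonneg _) (by positivity)
      _ = _ := by ring
  have e6 : |r2 * z0 ^ 2| ≤ 8 * m * R ^ 2 / ρ ^ 2 := by
    rw [abs_mul, abs_pow]
    calc |r2| * |z0| ^ 2 ≤ 8 * m / ρ ^ 2 * R ^ 2 :=
          mul_le_mul c2 (pow_le_pow_left₀ (abs_nonneg _) hz 2) (by positivity) (by positivity)
      _ = _ := by ring
  have e7 : m ≤ m * R ^ 2 / ρ ^ 2 := by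
    rw [le_div_iff₀ p]
    exact mul_le_mul_of_nonneg_left (pow_le_pow_left₀ hρ.le hρR 2) m0
  rw [e]
  have e8 := abs_sub (f0 - r1 * z0) (r2 * z0 ^ 2)
  have e9 := abs_sub f0 (r1 * z0)
  have e10 : 49 * m * R ^ 2 / ρ ^ 2 = m * R ^ 2 / ρ ^ 2 + 40 * m * R ^ 2 / ρ ^ 2 +
      8 * m * R ^ 2 / ρ ^ 2 := by ring
  rw [e10]
  linarith


theorem evY_bd {w : Fin 14 → ℝ} {W X z A B Y : ℝ} (hX : 1 ≤ X) (hw : ∀ k, |w k| ≤ W)
    (hz : |z| ≤ X) (hA : |A| ≤ X) (hB : |B| ≤ X) (hY : |Y| ≤ X) :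
    |evY w z A B Y| ≤ 14 * W * X ^ 2 := by
  have W0 : 0 ≤ W := (abs_nonneg _).trans (hw 0)
  have X0 : 0 ≤ X := by linarith
  have x1 : X ≤ X ^ 2 := by nlinarith
  have x0 : 1 ≤ X ^ 2 := by nlinarith
  have m2 : ∀ {a b c : ℝ}, |a| ≤ W → |b| ≤ X → |c| ≤ X → |a * (b * c)| ≤ W * X ^ 2 := by
    intro a b c ha hb hc
    rw [abs_mul, abs_mul, sq]
    exact mul_le_mul ha (mul_le_mul hb hc (abs_nonneg _) X0) (by positivity) W0
  have m1 : ∀ {a b : ℝ}, |a| ≤ W → |b| ≤ X → |a * b| ≤ W * X ^ 2 := by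
    intro a b ha hb
    rw [abs_mul]
    exact mul_le_mul ha (hb.trans x1) (abs_nonneg _) W0
  have m0 : ∀ {a : ℝ}, |a| ≤ W → |a| ≤ W * X ^ 2 := fun ha =>
    ha.trans (le_mul_of_one_le_right W0 x0)
  have t0 : |w 0 * Y ^ 2| ≤ W * X ^ 2 := by rw [sq]; exact m2 (hw 0) hY hY
  have t1 := m2 (hw 1) hB hY
  have t2 := m2 (hw 2) hA hY
  have t3 : |w 3 * B ^ 2| ≤ W * X ^ 2 := by rw [sq]; exact m2 (hw 3) hB hB
  have t4 := m2 (hw 4) hz hY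
  have t5 := m2 (hw 5) hA hB
  have t6 : |w 6 * A ^ 2| ≤ W * X ^ 2 := by rw [sq]; exact m2 (hw 6) hA hA
  have t7 := m2 (hw 7) hz hB
  have t8 := m2 (hw 8) hz hA
  have t9 : |w 9 * z ^ 2| ≤ W * X ^ 2 := by rw [sq]; exact m2 (hw 9) hz hz
  have t10 := m1 (hw 10) hB
  have t11 := m1 (hw 11) hA
  have t12 := m1 (hw 12) hz
  have t13 := m0 (hw 13)
  unfold evY
  rw [abs_le] at *
  constructor <;> linarith

/-- bound of the exact flag -/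
theorem fix_bd {κ σ : ℝ} {t : Ln4} {G₀ : Fin 14 → ℝ} {z0 ρ Γ : ℝ} (hΓ : 1 ≤ Γ) (hρ : 0 < ρ)
    (hρΓ : ρ ≤ Γ) (hρ' : 1 ≤ Γ * ρ) (hz : |z0| ≤ Γ) (hG : ∀ k, |G₀ k| ≤ Γ)
    (h : ∀ z, z0 ≤ z → z ≤ z0 + ρ → |erW κ σ t G₀ z| ≤ Γ) (k : Fin 14) :
    |fixW κ σ t G₀ k| ≤ 50 * Γ ^ 5 := by
  have hq := quad_coef (r0 := erW κ σ t G₀ 0) (r1 := (erW κ σ t G₀ 1 - erW κ σ t G₀ (-1)) / 2)
    (r2 := (erW κ σ t G₀ 1 + erW κ σ t G₀ (-1)) / 2 - erW κ σ t G₀ 0) (m := Γ) hρ hz hΓ hρΓ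
    (fun z h1 h2 => by
      have e := erW_quad κ σ t G₀ z
      have := h z h1 h2
      rw [e] at this
      refine le_trans (le_of_eq ?_) this
      congr 1; ring)
  obtain ⟨q2, q1, q0⟩ := hq
  have p : 0 < ρ ^ 2 := by positivity
  have G0 : 0 < Γ := by linarith
  have inv : 1 / ρ ^ 2 ≤ Γ ^ 2 := by
    rw [div_le_iff₀ p, ← mul_pow]
    exact one_le_pow₀ hρ'
  have g1 : Γ ≤ Γ ^ 5 := by
    calc Γ = Γ ^ 1 := (pow_one _).symm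
      _ ≤ Γ ^ 5 := pow_le_pow_right₀ hΓ (by norm_num)
  have g3 : Γ ^ 3 ≤ Γ ^ 5 := pow_le_pow_right₀ hΓ (by norm_num)
  have g4 : Γ ^ 4 ≤ Γ ^ 5 := pow_le_pow_right₀ hΓ (by norm_num)
  have b2 : 8 * Γ / ρ ^ 2 ≤ 49 * Γ ^ 5 := by
    have : 8 * Γ / ρ ^ 2 = 8 * Γ * (1 / ρ ^ 2) := by ring
    rw [this]
    have := mul_le_mul_of_nonneg_left inv (show 0 ≤ 8 * Γ by linarith)
    have e : 8 * Γ * Γ ^ 2 = 8 * Γ ^ 3 := by ring
    have : 0 ≤ Γ ^ 5 := by positivity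
    linarith
  have b1 : 40 * Γ * Γ / ρ ^ 2 ≤ 49 * Γ ^ 5 := by
    have : 40 * Γ * Γ / ρ ^ 2 = 40 * Γ * Γ * (1 / ρ ^ 2) := by ring
    rw [this]
    have := mul_le_mul_of_nonneg_left inv (show 0 ≤ 40 * Γ * Γ by positivity)
    have e : 40 * Γ * Γ * Γ ^ 2 = 40 * Γ ^ 4 := by ring
    have : 0 ≤ Γ ^ 5 := by positivity
    linarith
  have b0 : 49 * Γ * Γ ^ 2 / ρ ^ 2 ≤ 49 * Γ ^ 5 := by
    have : 49 * Γ * Γ ^ 2 / ρ ^ 2 = 49 * Γ * Γ ^ 2 * (1 / ρ ^ 2) := by ring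
    rw [this]
    have := mul_le_mul_of_nonneg_left inv (show 0 ≤ 49 * Γ * Γ ^ 2 by positivity)
    have e : 49 * Γ * Γ ^ 2 * Γ ^ 2 = 49 * Γ ^ 5 := by ring
    linarith
  have hc : |crW κ σ t G₀ k| ≤ 49 * Γ ^ 5 := by
    have z : (0 : ℝ) ≤ 49 * Γ ^ 5 := by positivity
    unfold crW
    fin_cases k <;> first
      | (show |(0 : ℝ)| ≤ _; rw [abs_zero]; exact z)
      | exact q2.trans b2
      | exact q1.trans b1
      | exact q0.trans b0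
  show |G₀ k + crW κ σ t G₀ k| ≤ _
  refine (abs_add_le _ _).trans ?_
  have := hG k
  linarith

/-- **the exact composite flag is bounded** -/
theorem FW1_bd {κ σ : ℝ} (hκ : |κ| ≤ 1) (hσ : 0 < σ) {S : Fin 14 → Prop} {t : Ln4} {z : ℝ}
    {a b : Fin 14 → ℝ} {z0 ρ Γ : ℝ} (hΓ : 1 ≤ Γ) (hρ : 0 < ρ) (hρΓ : ρ ≤ Γ) (hρ' : 1 ≤ Γ * ρ)
    (hg : ∀ i, |frW t z i| ≤ Γ) (ha : ∀ k, |a k| ≤ Γ) (hb : ∀ k, |b k| ≤ Γ)
    (hz : ∀ z, z0 ≤ z → z ≤ z0 + ρ → |z| ≤ Γ)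
    (hX : ∀ z, z0 ≤ z → z ≤ z0 + ρ → ∀ k, |t.pos z k| ≤ Γ)
    (hq : ∀ z, z0 ≤ z → z ≤ z0 + ρ →
      |ht κ z (t.pos z 1) (t.pos z 2) (t.pos z 0) -
        σ * evY a z (t.pos z 1) (t.pos z 2) (t.pos z 0)| ≤ σ * Γ) (k : Fin 14) :
    |(FW1 κ σ S t z a b).G k| ≤ 50 * (10 ^ 30 * Γ ^ 80) ^ 5 := by
  have G0 : 0 < Γ := by linarith
  -- own entries
  have s1 : ∀ k, |tr κ (frW t z) a k| ≤ 470 * Γ ^ 7 := tr_size1 hκ hΓ hg ha
  have s2 : ∀ k, |tr κ (frW t z) b k| ≤ 470 * Γ ^ 7 := tr_size1 hκ hΓ hg hb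
  set H := mixW S (tr κ (frW t z) a) (tr κ (frW t z) b) with hH
  have s3 : ∀ k, |H k| ≤ 470 * Γ ^ 7 := by
    intro k
    rw [hH]; unfold mixW
    split_ifs
    · exact s1 k
    · exact s2 k
  have s4 : ∀ i, |iv κ (frW t z) i| ≤ 470 * Γ ^ 7 := by
    intro i
    refine (iv_bd hκ hΓ hg i).trans ?_
    have : Γ ^ 3 ≤ Γ ^ 7 := pow_le_pow_right₀ hΓ (by norm_num)
    have : 0 ≤ Γ ^ 7 := by positivity
    linarith
  have k1 : (1 : ℝ) ≤ 470 * Γ ^ 7 := by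
    have := one_le_pow₀ hΓ (n := 7)
    linarith
  have s5 : ∀ k, |tr κ (iv κ (frW t z)) H k| ≤ 470 * (470 * Γ ^ 7) ^ 7 := tr_size1 hκ k1 s4 s3
  have s6 : 470 * (470 * Γ ^ 7) ^ 7 ≤ 10 ^ 22 * Γ ^ 49 := by
    have e : 470 * (470 * Γ ^ 7) ^ 7 = (470 : ℝ) ^ 8 * Γ ^ 49 := by ring
    rw [e]
    refine mul_le_mul_of_nonneg_right (by norm_num) (by positivity)
  set G₀ := tr κ (iv κ (frW t z)) H with hG₀
  have p49 : Γ ^ 49 ≤ Γ ^ 80 := pow_le_pow_right₀ hΓ (by norm_num)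
  have p51 : Γ ^ 51 ≤ Γ ^ 80 := pow_le_pow_right₀ hΓ (by norm_num)
  have p1 : Γ ≤ Γ ^ 80 := by
    calc Γ = Γ ^ 1 := (pow_one _).symm
      _ ≤ Γ ^ 80 := pow_le_pow_right₀ hΓ (by norm_num)
  have q0 : 0 ≤ Γ ^ 80 := by positivity
  have hGG : ∀ k, |G₀ k| ≤ 10 ^ 30 * Γ ^ 80 := by
    intro k
    refine ((s5 k).trans s6).trans ?_
    have : (10 : ℝ) ^ 22 * Γ ^ 49 ≤ 10 ^ 22 * Γ ^ 80 := mul_le_mul_of_nonneg_left p49 (by norm_num)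
    have : (10 : ℝ) ^ 22 * Γ ^ 80 ≤ 10 ^ 30 * Γ ^ 80 :=
      mul_le_mul_of_nonneg_right (by norm_num) q0
    linarith
  have big : (1 : ℝ) ≤ 10 ^ 30 * Γ ^ 80 := by
    have := one_le_pow₀ hΓ (n := 80)
    have h30 : (1 : ℝ) ≤ 10 ^ 30 := by norm_num
    nlinarith
  have gle : Γ ≤ 10 ^ 30 * Γ ^ 80 := p1.trans (le_mul_of_one_le_left q0 (by norm_num))
  refine fix_bd (t := t) (z0 := z0) (ρ := ρ) (Γ := 10 ^ 30 * Γ ^ 80) big hρ (hρΓ.trans gle) ?_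
    ((hz z0 le_rfl (by linarith)).trans gle) hGG ?_ k
  · refine hρ'.trans (mul_le_mul_of_nonneg_right gle hρ.le)
  · intro y h1 h2
    have e1 : erW κ σ t G₀ y = (ht κ y (t.pos y 1) (t.pos y 2) (t.pos y 0) -
        σ * evY a y (t.pos y 1) (t.pos y 2) (t.pos y 0)) / σ +
        evY (a - G₀) y (t.pos y 1) (t.pos y 2) (t.pos y 0) := by
      rw [GeoW778.evY_sub]
      unfold erW
      field_simp
      ring
    have e2 : |(ht κ y (t.pos y 1) (t.pos y 2) (t.pos y 0) -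
        σ * evY a y (t.pos y 1) (t.pos y 2) (t.pos y 0)) / σ| ≤ Γ := by
      rw [abs_div, abs_of_pos hσ, div_le_iff₀ hσ, mul_comm Γ]
      exact hq y h1 h2
    have e3 : ∀ k, |(a - G₀) k| ≤ 2 * (10 ^ 22 * Γ ^ 49) := by
      intro k
      rw [Pi.sub_apply]
      refine (abs_sub _ _).trans ?_
      have h3 := (s5 k).trans s6
      have h4 : Γ ≤ 10 ^ 22 * Γ ^ 49 := by
        have : Γ ≤ Γ ^ 49 := by
          calc Γ = Γ ^ 1 := (pow_one _).symm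
            _ ≤ Γ ^ 49 := pow_le_pow_right₀ hΓ (by norm_num)
        exact this.trans (le_mul_of_one_le_left (by positivity) (by norm_num))
      have := (ha k).trans h4
      linarith
    have e4 := evY_bd hΓ e3 (hz y h1 h2) (hX y h1 h2 1) (hX y h1 h2 2) (hX y h1 h2 0)
    rw [e1]
    refine (abs_add_le _ _).trans ?_
    have e5 : 14 * (2 * (10 ^ 22 * Γ ^ 49)) * Γ ^ 2 = 28 * 10 ^ 22 * Γ ^ 51 := by ring
    rw [e5] at e4
    have e6 : (28 : ℝ) * 10 ^ 22 * Γ ^ 51 ≤ 28 * 10 ^ 22 * Γ ^ 80 :=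
      mul_le_mul_of_nonneg_left p51 (by norm_num)
    have e7 : Γ ^ 80 + 28 * 10 ^ 22 * Γ ^ 80 ≤ 10 ^ 30 * Γ ^ 80 := by
      have : Γ ^ 80 + 28 * 10 ^ 22 * Γ ^ 80 = (1 + 28 * 10 ^ 22) * Γ ^ 80 := by ring
      rw [this]
      exact mul_le_mul_of_nonneg_right (by norm_num) q0
    linarith

/-! ### graded and natural precisions -/

/-- graded precision of a balanced box against the natural one -/
theorem prN_le {e ρ wA wB a : ℝ} (he : 1 ≤ e) (hρ : 0 < ρ) (hA : 0 < wA) (hB : 0 < wB)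
    (ha : 0 < a) (h2 : wB ≤ e * (wA ^ 2 / ρ)) (k : Fin 14) (h9 : k ≠ 9) (h12 : k ≠ 12)
    (h13 : k ≠ 13) :
    unW ρ (wA / ρ) a (Fin.natAdd 4 k) ≤ e ^ 2 * (a / sz3 ρ wA wB k) := by
  have hβ : 0 < wA ^ 2 / ρ := by positivity
  have p1 := sz3_pos hρ hA hB k
  have p2 := sz3_pos hρ hA hβ k
  have h3 : sz3 ρ wA wB k ≤ e ^ 2 * sz3 ρ wA (wA ^ 2 / ρ) k :=
    (sz3_mono hρ hA hB h2 k).trans (sz3_scale he hρ hA hβ k)
  have h4 : unW ρ (wA / ρ) a (Fin.natAdd 4 k) = a / sz3 ρ wA (wA ^ 2 / ρ) k := by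
    rw [unW_nat hρ hA ha]
    unfold sizeW
    rw [Fin.append_right]
    fin_cases k <;> first | rfl | exact absurd rfl h9 | exact absurd rfl h12 | exact absurd rfl h13
  rw [h4, ← mul_div_assoc, div_le_div_iff₀ p2 p1]
  nlinarith [mul_le_mul_of_nonneg_left h3 ha.le]

end Crest.Agent.R136.Fw650
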