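import Crest.Agent.R136.Fw0_808

/-!
# R136 (S0187): g-free flat tilt, one stage (helper808)

`one_nG` : marks of two levels compared over the cells of the finer level;
`stage_nG` : the same with the numbers of the extremal sequence.
-/

set_option autoImplicit false
set_option linter.unusedVariables false
set_option linter.unusedSectionVars false

namespace Crest.Agent.R136.Fl808

open Finset Filter Topology Crest.Agent.R136.Sh605
open Crest.Agent.R138.Ex926 (Base U)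
open Crest.Agent.R138.Dp76 (Dense dpow_pos dpow_add dpow_le dpow_le_one)
open Crest.Agent.R138.Mk163 (zc zl rho alive own Negl)
open Crest.Agent.R138.MkRef627 (lc mem_alive card_class)
open Crest.Agent.R136.K4 (Plk4)

section

variable {α β : Type} {Ou Ov : Finset (ℕ × ℤ)} {L : ℕ → Ln4} {i k0 : ℕ} {f : ℕ × ℤ → α}
  {g : ℕ × ℤ → β} {bf : α → Ln4} {ef : α → Fin 3 → V3} {bg : β → Ln4} {eg : β → Fin 3 → V3}
  {au w1u w2u Au av w1v w2v Av r0 W Wu c D C : ℝ} {qm qp : Fin 3 → ℝ} {j k' : ℕ}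

theorem one_nG (hFF : FreeC qm qp C) (hu : FSys Ou L i f bf ef au w1u w2u Au)
    (hv : FSys Ov L (i + k0) g bg eg av w1v w2v Av)
    (hpar : ∀ x ∈ Ov, par k0 x ∈ Ou) (hc : 0 < c) (hc0 : c * (Ou.card : ℝ) ≤ Ov.card)
    (hne : Ov.Nonempty)
    (hau : 0 < au) (hau2 : au ≤ w2u) (hwu : w2u ≤ w1u)
    (hav : 0 < av) (hav2 : av ≤ w2v) (hwv : w2v ≤ w1v)
    (hd : DMaxD Ov L (i + k0) D qm qp r0 (10 ^ 6 * wC k0 au av w1u w1v) (aC au av)
      (wC k0 au av w1u w1v) (wC k0 au av w2u w2v))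
    (hr0 : 0 < r0) (hr : r0 ≤ aC au av) (hAu : 0 < Au) (hAv : 0 < Av)
    (hWu0 : 0 ≤ Wu) (hDu : D ≤ Wu * Au) (hDv : D ≤ W * Av)
    (hWu : Wu * (2 ^ k0 * (16 * 4 ^ k0)) ≤ W * c) (hW : 1 ≤ W)
    (hlg : Real.log (wC k0 au av w1u w1v / aC au av) ≤ W)
    (hD : ∀ x ∈ Ov, Dy (ef (f (par k0 x))) (eg (g x)) (aC au av) (wC k0 au av w1u w1v)
      (wC k0 au av w2u w2v) j k') :
    (j : ℝ) ≤ C * (1 + Real.log W) ∧ (k' : ℝ) ≤ C * (1 + Real.log W) := by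
  have hw2u : 0 < w2u := hau.trans_le hau2
  have hw1u : 0 < w1u := hw2u.trans_le hwu
  have hw2v : 0 < w2v := hav.trans_le hav2
  have hw1v : 0 < w1v := hw2v.trans_le hwv
  have ha : 0 < aC au av := aC_pos hau
  have haw : aC au av ≤ wC k0 au av w2u w2v := by
    have := wC_a (k0 := k0) (au := au) (av := av) (w1u := w2u) (w1v := w2v)
    linarith
  have hw : wC k0 au av w2u w2v ≤ wC k0 au av w1u w1v := wC_mono hwu hwv
  have p2 : 0 < wC k0 au av w2u w2v := ha.trans_le haw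
  have p1 : 0 < wC k0 au av w1u w1v := p2.trans_le hw
  have b1 := wC_u (k0 := k0) (au := au) (av := av) (w1u := w1u) (w1v := w1v)
  have b2 := wC_u (k0 := k0) (au := au) (av := av) (w1u := w2u) (w1v := w2v)
  have hz := hu.zoom hpar hAu (by positivity : 0 < wC k0 au av w1u w1v / 5)
    (by positivity : 0 < wC k0 au av w2u w2v / 5) hw1u.le hw2u.le b1 b2 hc hc0
  have hz' := hz.mono (aC_u (av := av) hau)
    (by linarith : 5 * (wC k0 au av w1u w1v / 5) ≤ wC k0 au av w1u w1v)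
    (by linarith : 5 * (wC k0 au av w2u w2v / 5) ≤ wC k0 au av w2u w2v) le_rfl
  have v1 := wC_v (k0 := k0) (au := au) (av := av) (w1u := w1u) (w1v := w1v)
  have v2 := wC_v (k0 := k0) (au := au) (av := av) (w1u := w2u) (w1v := w2v)
  have hv' := hv.mono (aC_v (au := au) hav) (by linarith : w1v ≤ wC k0 au av w1u w1v)
    (by linarith : w2v ≤ wC k0 au av w2u w2v) le_rfl
  have hN := N_le hw1u.le hw2u.le (by positivity : 0 < wC k0 au av w1u w1v / 5)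
    (by positivity : 0 < wC k0 au av w2u w2v / 5) b1 b2
  have hNp : 0 < (2 * (w1u / (wC k0 au av w1u w1v / 5)) + 2) *
    (2 * (w2u / (wC k0 au av w2u w2v / 5)) + 2) := by positivity
  generalize hNN : (2 * (w1u / (wC k0 au av w1u w1v / 5)) + 2) *
    (2 * (w2u / (wC k0 au av w2u w2v / 5)) + 2) = N at *
  have h2k : (0:ℝ) < 2 ^ k0 := by positivity
  have hA' : 0 < Au * c / (2 ^ k0 * N) := by positivity
  have hV1 : D ≤ W * (Au * c / (2 ^ k0 * N)) := by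
    rw [← mul_div_assoc, le_div_iff₀ (by positivity)]
    calc D * (2 ^ k0 * N) ≤ (Wu * Au) * (2 ^ k0 * N) := by gcongr
      _ ≤ (Wu * Au) * (2 ^ k0 * (16 * 4 ^ k0)) := by gcongr
      _ = (Wu * (2 ^ k0 * (16 * 4 ^ k0))) * Au := by ring
      _ ≤ (W * c) * Au := by gcongr
      _ = _ := by ring
  exact hFF _ _ Ov L (i + k0) _ g _ _ bg eg _ _ _ _ Av D W r0 j k' hne hz' hv' hA' hAv hr0 hr haw hw
    hd hV1 hDv hW hlg hD

end

section

variable {B : Base} {n : ℕ} {J : Finset (ℕ × ℝ)} {L : ℕ → Ln4} {lu lv k0 : ℕ}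
  {fu fv : ℕ → ℤ → ℕ} {bu bv : ℕ → Plk4}
  {au w1u w2u av w1v w2v Aa gu q0 q1 q2 g r0 δ ε1 C1 C : ℝ} {qm qp : Fin 3 → ℝ} {j k' : ℕ}

open Classical in
/-- **one stage of the sequence** (`gu = g u`) -/
theorem stage_nG (hFF : FreeC qm qp C) (hJ : J.Nonempty) (hlv : lv = lu + k0)
    (hu : FSys (J.image (lc lu)) L lu (fun o => (o.2, fu o.1 o.2)) (fun κ : ℤ × ℕ => (bu κ.2).c)
      (fun κ => (bu κ.2).e) au w1u w2u (B.d n ^ ε1 * (Aa * B.d n ^ (-gu) *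
        (capB q0 q1 q2 au w1u w2u * rho lu ^ (-(q0 + q1 + q2))))))
    (hv : FSys (J.image (lc lv)) L lv (fun o => (o.2, fv o.1 o.2)) (fun κ : ℤ × ℕ => (bv κ.2).c)
      (fun κ => (bv κ.2).e) av w1v w2v (B.d n ^ ε1 * (Aa * B.d n ^ (-(gu + g * δ)) *
        (capB q0 q1 q2 av w1v w2v * rho lv ^ (-(q0 + q1 + q2))))))
    (hAa : 0 < Aa)
    (hown : ∀ x ∈ J, B.d n ^ (-δ + ε1) ≤ ((own J lu lv x).card : ℝ))
    (hε1 : 0 < ε1) (hδ : 0 ≤ δ) (hC1 : 0 ≤ C1)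
    -- D-max
    (hd : DMaxD (J.image (lc lv)) L lv (B.d n ^ (-ε1) * (Aa * B.d n ^ (-(gu + g * δ)) *
        (capB q0 q1 q2 av w1v w2v * rho lv ^ (-(q0 + q1 + q2))))) qm qp r0 (rho lv) av w1v w2v)
    -- numbers
    (hr0 : 0 < r0) (hru : r0 ≤ au) (hau2 : au ≤ w2u) (hwu : w2u ≤ w1u)
    (hrv : r0 ≤ av) (hav2 : av ≤ w2v) (hwv : w2v ≤ w1v) (hρv : w1v ≤ rho lv)
    (ea : au ≤ B.d n ^ (-(C1 * δ) - ε1) * av) (ea' : av ≤ B.d n ^ (-(C1 * δ) - ε1) * au)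
    (e1 : w1u ≤ B.d n ^ (-(C1 * δ) - ε1) * w1v) (e1' : w1v ≤ B.d n ^ (-(C1 * δ) - ε1) * w1u)
    (e2 : w2u ≤ B.d n ^ (-(C1 * δ) - ε1) * w2v) (e2' : w2v ≤ B.d n ^ (-(C1 * δ) - ε1) * w2u)
    (hk0 : B.d n ^ (-δ + ε1) ≤ (2:ℝ) ^ k0)
    (hlog : Real.log (1 / r0) ≤ B.d n ^ (-ε1))
    -- rewards
    (hg : 0 ≤ g) (hq0 : 0 ≤ q0) (hq1 : 0 ≤ q1) (hq2 : 0 ≤ q2) (hm : ∀ k, 0 ≤ qm k)
    (hmp : ∀ k, qm k ≤ qp k)
    (hD : ∀ x ∈ J, Dy (bu (fu x.1 (zc lu x.2))).e (bv (fv x.1 (zc lv x.2))).e (aC au av)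
      (wC k0 au av w1u w1v) (wC k0 au av w2u w2v) j k') :
    (j : ℝ) ≤ C * (1 + Real.log (WW B n k0 (B.d n ^ (-(C1 * δ) - ε1))
        (11 + (q0 + q1 + q2) + (qp 0 + qp 1 + qp 2)) g δ ε1 / (B.d n ^ (2 * ε1) / 4))) ∧
      (k' : ℝ) ≤ C * (1 + Real.log (WW B n k0 (B.d n ^ (-(C1 * δ) - ε1))
        (11 + (q0 + q1 + q2) + (qp 0 + qp 1 + qp 2)) g δ ε1 / (B.d n ^ (2 * ε1) / 4))) := by
  have hE : 1 ≤ B.d n ^ (-(C1 * δ) - ε1) := one_le_dpow B n (by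
    have := mul_nonneg hC1 hδ; linarith)
  set E := B.d n ^ (-(C1 * δ) - ε1) with hEd
  set Q := q0 + q1 + q2 with hQ
  set Qp := qp 0 + qp 1 + qp 2 with hQp
  have hp : ∀ k, 0 ≤ qp k := fun k => (hm k).trans (hmp k)
  have hau : 0 < au := hr0.trans_le hru
  have hav : 0 < av := hr0.trans_le hrv
  have hw2u : 0 < w2u := hau.trans_le hau2
  have hw1u : 0 < w1u := hw2u.trans_le hwu
  have hw2v : 0 < w2v := hav.trans_le hav2
  have hw1v : 0 < w1v := hw2v.trans_le hwv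
  have hQ0 : 0 ≤ Q := by rw [hQ]; linarith
  have hQp0 : 0 ≤ Qp := by rw [hQp]; linarith [hp 0, hp 1, hp 2]
  have hcu : 0 < capB q0 q1 q2 au w1u w2u := capB_pos hau hw1u hw2u
  have hcv : 0 < capB q0 q1 q2 av w1v w2v := capB_pos hav hw1v hw2v
  have hρu := rho_pos lu
  have hρv0 := rho_pos lv
  have hRu : 0 < rho lu ^ (-Q) := Real.rpow_pos_of_pos hρu _
  have hRv : 0 < rho lv ^ (-Q) := Real.rpow_pos_of_pos hρv0 _
  have d1 := dpow_pos B n ε1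
  have d2 := dpow_pos B n (-ε1)
  have d3 := dpow_pos B n (-gu)
  have d4 := dpow_pos B n (-(gu + g * δ))
  have d5 := dpow_pos B n (-δ + ε1)
  have d6 := dpow_pos B n (2 * ε1)
  have d7 := dpow_pos B n (-(2 * ε1) - g * δ)
  have d8 := dpow_pos B n (-(2 * ε1))
  have dd := dpow_pos B n (δ - ε1)
  have hle : lu ≤ lv := by omega
  have hE0 : 0 < E := by linarith
  have h200 : 0 < 200 * E := by positivity
  have h200' : 1 ≤ 200 * E := by linarith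
  have hAap := hAa
  -- common shape
  have ha : 0 < aC au av := aC_pos hau
  have v1 := wC_v (k0 := k0) (au := au) (av := av) (w1u := w1u) (w1v := w1v)
  have v2 := wC_v (k0 := k0) (au := au) (av := av) (w1u := w2u) (w1v := w2v)
  have x1 := wC_leV (k0 := k0) hav (hav2.trans hwv) hE ea e1
  have x2 := wC_leV (k0 := k0) hav hav2 hE ea e2
  have x0 := aC_leV (au := au) hav hE ea
  have p1 : 0 < wC k0 au av w1u w1v := by linarith
  have p2 : 0 < wC k0 au av w2u w2v := by linarith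
  have hra : r0 ≤ aC au av := by
    have := aC_u (av := av) hau
    linarith
  have hcommon := hd.wide (K := 2 * 10 ^ 8 * E) (R0 := 10 ^ 6 * wC k0 au av w1u w1v) hm hmp hav hw1v
    hw2v ha p1 p2 h200' (by
      refine x0.trans ?_
      have : 0 < E * av := by positivity
      linarith) x1 x2 hr0 (hrv.trans ((hav2.trans hwv).trans hρv)) (by positivity)
    (by linarith) (by
      calc 10 ^ 6 * wC k0 au av w1u w1v ≤ 10 ^ 6 * (200 * E * w1v) := by gcongr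
        _ ≤ 10 ^ 6 * (200 * E * rho lv) := by gcongr
        _ = _ := by ring)
  rw [← hQp] at hcommon
  -- the defect
  set W := WW B n k0 E (11 + Q + Qp) g δ ε1 / (B.d n ^ (2 * ε1) / 4) with hWd
  have h2k : (0:ℝ) < 2 ^ k0 := by positivity
  have h2k1 : (1:ℝ) ≤ 2 ^ k0 := one_le_pow₀ (by norm_num)
  have h4k1 : (1:ℝ) ≤ 4 ^ k0 := one_le_pow₀ (by norm_num)
  have h2kQ : (1:ℝ) ≤ (2 ^ k0) ^ Q := Real.one_le_rpow h2k1 hQ0
  have e7 : B.d n ^ (δ - ε1) * B.d n ^ (-δ + ε1) = 1 := by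
    rw [← dpow_add]
    have : δ - ε1 + (-δ + ε1) = 0 := by ring
    rw [this, Real.rpow_zero]
  have e8 : (1:ℝ) ≤ 2 ^ k0 * B.d n ^ (δ - ε1) := by
    calc (1:ℝ) = B.d n ^ (-δ + ε1) * B.d n ^ (δ - ε1) := by rw [mul_comm, e7]
      _ ≤ _ := by gcongr
  have e9 : B.d n ^ (-(2 * ε1)) ≤ B.d n ^ (-(2 * ε1) - g * δ) :=
    dpow_le B n (by have := mul_nonneg hg hδ; linarith)
  have hW0 : 0 < WW B n k0 E (11 + Q + Qp) g δ ε1 := WW_pos B n k0 hE
  have hWW : WW B n k0 E (11 + Q + Qp) g δ ε1 ≤ W := by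
    rw [hWd, le_div_iff₀ (by positivity)]
    have : B.d n ^ (2 * ε1) / 4 ≤ 1 := by
      have := dpow_le_one B n (show 0 ≤ 2 * ε1 by linarith)
      linarith
    calc _ ≤ WW B n k0 E (11 + Q + Qp) g δ ε1 * 1 := by gcongr
      _ = _ := mul_one _
  -- constants
  have hK6 : (2 * (2 * 10 ^ 8 * E) + 1) ^ 6 ≤ (10 ^ 9 * E) ^ 6 := by
    refine pow_le_pow_left₀ (by positivity) ?_ 6
    linarith
  have hK8 : (10 ^ 9 * E) ^ 6 ≤ (200 * E) ^ (8:ℝ) * (10 ^ 6 * E) ^ 6 := by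
    have h8 : (200 * E) ^ (8:ℝ) = (200 * E) ^ 8 := by
      rw [← Real.rpow_natCast]; norm_num
    rw [h8]
    have hE8 : (1:ℝ) ≤ E ^ 8 := one_le_pow₀ hE
    have hE6 : 0 < E ^ 6 := by positivity
    calc (10 ^ 9 * E) ^ 6 = 10 ^ 54 * E ^ 6 * 1 := by ring
      _ ≤ (200 ^ 8 * 10 ^ 36) * E ^ 6 * E ^ 8 := by gcongr; norm_num
      _ = _ := by ring
  have hsplit : (200 * E) ^ (3 + (11 + Q + Qp)) =
      (200 * E) ^ (3 + Qp) * (200 * E) ^ (3 + Q) * (200 * E) ^ (8:ℝ) := by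
    rw [← Real.rpow_add h200, ← Real.rpow_add h200]; congr 1; ring
  have hkQ : ((2:ℝ) ^ k0) ^ Q ≤ (2 ^ k0) ^ (11 + Q + Qp) :=
    Real.rpow_le_rpow_of_exponent_le h2k1 (by linarith)
  have hx3 : 1 ≤ (200 * E) ^ (3 + Q) := Real.one_le_rpow h200' (by linarith)
  have hx3p : 1 ≤ (200 * E) ^ (3 + Qp) := Real.one_le_rpow h200' (by linarith)
  have hEQ : E ^ (3 + Q) ≤ (200 * E) ^ (3 + Q) :=
    Real.rpow_le_rpow hE0.le (by linarith) (by linarith)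
  have hEQ0 : 0 < E ^ (3 + Q) := by positivity
  -- number of the coarse system
  set Wu := (10 ^ 9 * E) ^ 6 * (200 * E) ^ (3 + Qp) * (E ^ (3 + Q) *
    (B.d n ^ (-(2 * ε1) - g * δ) * (2 ^ k0) ^ Q)) with hWu
  have hWuW : Wu * (2 ^ k0 * (16 * 4 ^ k0)) ≤ W * B.d n ^ (-δ + ε1) := by
    calc Wu * (2 ^ k0 * (16 * 4 ^ k0)) ≤
        (((200 * E) ^ (8:ℝ) * (10 ^ 6 * E) ^ 6) * (200 * E) ^ (3 + Qp) * ((200 * E) ^ (3 + Q) *
          (B.d n ^ (-(2 * ε1) - g * δ) * (2 ^ k0) ^ (11 + Q + Qp)))) *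
          (2 ^ k0 * (16 * 4 ^ k0)) := by
          rw [hWu]; gcongr
      _ = WW B n k0 E (11 + Q + Qp) g δ ε1 * B.d n ^ (-δ + ε1) := by
          unfold WW
          rw [mul_assoc ((200 * E) ^ (3 + (11 + Q + Qp)) * ((10 ^ 6 * E) ^ 6 *
            B.d n ^ (-(2 * ε1) - g * δ) * (2 ^ k0) ^ (11 + Q + Qp)) * (2 ^ k0 * (16 * 4 ^ k0))), e7,
            mul_one, hsplit]
          ring
      _ ≤ _ := by gcongr
  have hWv : (10 ^ 9 * E) ^ 6 * (200 * E) ^ (3 + Qp) * B.d n ^ (-(2 * ε1)) ≤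
      WW B n k0 E (11 + Q + Qp) g δ ε1 := by
    unfold WW
    rw [hsplit]
    have hk1 : (1:ℝ) ≤ (2 ^ k0) ^ (11 + Q + Qp) := Real.one_le_rpow h2k1 (by linarith)
    calc (10 ^ 9 * E) ^ 6 * (200 * E) ^ (3 + Qp) * B.d n ^ (-(2 * ε1)) ≤
        ((200 * E) ^ (8:ℝ) * (10 ^ 6 * E) ^ 6) * (200 * E) ^ (3 + Qp) *
          B.d n ^ (-(2 * ε1) - g * δ) := by gcongr
      _ = ((200 * E) ^ (3 + Qp) * 1 * (200 * E) ^ (8:ℝ)) * ((10 ^ 6 * E) ^ 6 *
          B.d n ^ (-(2 * ε1) - g * δ) * 1) * (1 * (1 * 1)) := by ring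
      _ ≤ ((200 * E) ^ (3 + Qp) * (200 * E) ^ (3 + Q) * (200 * E) ^ (8:ℝ)) * ((10 ^ 6 * E) ^ 6 *
          B.d n ^ (-(2 * ε1) - g * δ) * (2 ^ k0) ^ (11 + Q + Qp)) *
          ((2 ^ k0 * B.d n ^ (δ - ε1)) * (16 * 4 ^ k0)) := by
          gcongr
          · linarith
      _ = _ := by ring
  have hWv1 : 1 ≤ (10 ^ 9 * E) ^ 6 * (200 * E) ^ (3 + Qp) * B.d n ^ (-(2 * ε1)) := by
    have h2 : (1:ℝ) ≤ (10 ^ 9 * E) ^ 6 := one_le_pow₀ (by linarith)
    have h3 : 1 ≤ B.d n ^ (-(2 * ε1)) := one_le_dpow B n (by linarith)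
    calc (1:ℝ) = 1 * 1 * 1 := by ring
      _ ≤ _ := by gcongr
  have hW1 : 1 ≤ W := hWv1.trans (hWv.trans hWW)
  -- logarithm
  have hlg : Real.log (wC k0 au av w1u w1v / aC au av) ≤ W := by
    have hρ1 := rho_le_one lv
    have h1 : wC k0 au av w1u w1v / aC au av ≤ 200 * E * (1 / r0) := by
      rw [mul_one_div, div_le_div_iff₀ ha hr0]
      calc wC k0 au av w1u w1v * r0 ≤ (200 * E * w1v) * r0 := by gcongr
        _ ≤ (200 * E * 1) * aC au av := by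
            gcongr
            exact hρv.trans hρ1
        _ = _ := by ring
    have h2 := Real.log_le_log (by positivity) h1
    rw [Real.log_mul (by positivity) (by positivity)] at h2
    have h3 : Real.log (200 * E) ≤ 200 * E := by
      have := Real.log_le_sub_one_of_pos h200
      linarith
    have h4 : B.d n ^ (-ε1) ≤ B.d n ^ (-(2 * ε1)) := dpow_le B n (by linarith)
    have h5 : 1 ≤ B.d n ^ (-(2 * ε1)) := one_le_dpow B n (by linarith)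
    have h6 : 200 * E + B.d n ^ (-(2 * ε1)) ≤
        (10 ^ 9 * E) ^ 6 * (200 * E) ^ (3 + Qp) * B.d n ^ (-(2 * ε1)) := by
      have h7 : 2 * (200 * E) ≤ (10 ^ 9 * E) ^ 6 := by
        have h8 : (10 ^ 9 * E) ^ 1 ≤ (10 ^ 9 * E) ^ 6 :=
          pow_le_pow_right₀ (by linarith) (by norm_num)
        rw [pow_one] at h8
        linarith
      calc 200 * E + B.d n ^ (-(2 * ε1)) ≤ 200 * E * B.d n ^ (-(2 * ε1)) +
            200 * E * B.d n ^ (-(2 * ε1)) := by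
            have i1 : 200 * E ≤ 200 * E * B.d n ^ (-(2 * ε1)) :=
              le_mul_of_one_le_right (by positivity) h5
            have i2 : B.d n ^ (-(2 * ε1)) ≤ 200 * E * B.d n ^ (-(2 * ε1)) :=
              le_mul_of_one_le_left (by positivity) h200'
            linarith
        _ = 2 * (200 * E) * 1 * B.d n ^ (-(2 * ε1)) := by ring
        _ ≤ _ := by gcongr
    linarith [hWv.trans hWW]
  -- numbers
  have hOv : ((J.image (lc lv))).Nonempty := hJ.image _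
  have hlab := own_count hle hown
  have hρ2 : rho lu ^ (-Q) * (2 ^ k0) ^ Q = rho lv ^ (-Q) := by
    have h1 : rho lu = rho lv * 2 ^ k0 := by
      rw [rho_two hle]; congr 2; omega
    rw [h1, Real.mul_rpow hρv0.le (by positivity), mul_assoc, ← Real.rpow_add (by positivity),
      neg_add_cancel, Real.rpow_zero, mul_one]
  have hdd : B.d n ^ (-ε1) = B.d n ^ (-(2 * ε1)) * B.d n ^ ε1 := by
    rw [← dpow_add]; congr 1; ring
  have hgd : B.d n ^ (-(gu + g * δ)) * B.d n ^ (-ε1) =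
      B.d n ^ (-(2 * ε1) - g * δ) * (B.d n ^ ε1 * B.d n ^ (-gu)) := by
    rw [← dpow_add, ← dpow_add, ← dpow_add]; congr 1; ring
  have hDv : (2 * (2 * 10 ^ 8 * E) + 1) ^ 6 * ((200 * E) ^ (3 + Qp) * (B.d n ^ (-ε1) *
      (Aa * B.d n ^ (-(gu + g * δ)) * (capB q0 q1 q2 av w1v w2v * rho lv ^ (-Q))))) ≤
      W * (B.d n ^ ε1 * (Aa * B.d n ^ (-(gu + g * δ)) *
        (capB q0 q1 q2 av w1v w2v * rho lv ^ (-Q)))) := by
    calc _ ≤ (10 ^ 9 * E) ^ 6 * ((200 * E) ^ (3 + Qp) * (B.d n ^ (-ε1) *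
      (Aa * B.d n ^ (-(gu + g * δ)) * (capB q0 q1 q2 av w1v w2v * rho lv ^ (-Q))))) := by gcongr
      _ = ((10 ^ 9 * E) ^ 6 * (200 * E) ^ (3 + Qp) * B.d n ^ (-(2 * ε1))) * (B.d n ^ ε1 *
        (Aa * B.d n ^ (-(gu + g * δ)) * (capB q0 q1 q2 av w1v w2v * rho lv ^ (-Q)))) := by
          rw [hdd]; ring
      _ ≤ _ := by
          have := hWv.trans hWW
          gcongr
  have hcap : capB q0 q1 q2 av w1v w2v ≤ E ^ (3 + Q) * capB q0 q1 q2 au w1u w2u := by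
    rw [hQ, ← capB_cube hau.le hw1u.le hw2u.le hE0]
    exact capB_mono hq0 hq1 hq2 hav.le hw1v.le hw2v.le ea' e1' e2'
  have hDu : (2 * (2 * 10 ^ 8 * E) + 1) ^ 6 * ((200 * E) ^ (3 + Qp) * (B.d n ^ (-ε1) *
      (Aa * B.d n ^ (-(gu + g * δ)) * (capB q0 q1 q2 av w1v w2v * rho lv ^ (-Q))))) ≤
      Wu * (B.d n ^ ε1 * (Aa * B.d n ^ (-gu) *
        (capB q0 q1 q2 au w1u w2u * rho lu ^ (-Q)))) := by
    calc _ ≤ (10 ^ 9 * E) ^ 6 * ((200 * E) ^ (3 + Qp) * (B.d n ^ (-ε1) *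
        (Aa * B.d n ^ (-(gu + g * δ)) * ((E ^ (3 + Q) * capB q0 q1 q2 au w1u w2u) *
          rho lv ^ (-Q))))) := by gcongr
      _ = (10 ^ 9 * E) ^ 6 * (200 * E) ^ (3 + Qp) * E ^ (3 + Q) * Aa * capB q0 q1 q2 au w1u w2u *
          (B.d n ^ (-(gu + g * δ)) * B.d n ^ (-ε1)) * rho lv ^ (-Q) := by ring
      _ = (10 ^ 9 * E) ^ 6 * (200 * E) ^ (3 + Qp) * E ^ (3 + Q) * Aa * capB q0 q1 q2 au w1u w2u *
          (B.d n ^ (-(2 * ε1) - g * δ) * (B.d n ^ ε1 * B.d n ^ (-gu))) *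
          (rho lu ^ (-Q) * (2 ^ k0) ^ Q) := by rw [hgd, hρ2]
      _ = _ := by rw [hWu]; ring
  subst hlv
  refine one_nG hFF hu hv ?_ d5 hlab hOv hau hau2 hwu hav hav2 hwv hcommon hr0 hra (by positivity)
    (by positivity) (by positivity) hDu hDv hWuW hW1 hlg ?_
  · intro x hx
    obtain ⟨y, hy, rfl⟩ := mem_image.1 hx
    have := par_lc hle y
    rw [Nat.add_sub_cancel_left] at this
    rw [this]
    exact mem_image_of_mem _ hy
  · intro x hx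
    obtain ⟨y, hy, rfl⟩ := mem_image.1 hx
    have h1 := par_lc hle y
    rw [Nat.add_sub_cancel_left] at h1
    have h2 := hD y hy
    rw [h1]
    exact h2

end

end Crest.Agent.R136.Fl808
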