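import Crest.Agent.R136.Fw1_808

/-!
# R136 (S0187): g-free flat tilt, sequence form (helper808)

`tilt_coreG` : flat marks, D-max with two-sided exponents for all flat boxes (same level) and the
finite theorem `FreeC` ⊢ the six entries of the transition matrix between the frames of the marks of
two levels are bounded by the ratios of the widths up to `d^(-C (v - u) - ε)`.
-/

set_option autoImplicit false
set_option linter.unusedVariables false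
set_option linter.unusedSectionVars false

namespace Crest.Agent.R136.Fl808

open Finset Filter Topology Crest.Agent.R136.Sh605
open Crest.Agent.R138.Ex926 (Base U)
open Crest.Agent.R138.Dp76 (Dense dpow_pos dpow_add dpow_le dpow_le_one)
open Crest.Agent.R138.Mk163 (zc zl rho alive own Negl)
open Crest.Agent.R138.MkRef627 (lc mem_alive card_class alive_mono)
open Crest.Agent.R136.K4 (Plk4)
open Crest.Agent.R136.MkA627

open Classical in
theorem DMaxD.sub {P P' : Finset (ℕ × ℤ)} {L : ℕ → Ln4} {m : ℕ} {D r0 R0 a w1 w2 : ℝ}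
    {qm qp : Fin 3 → ℝ} (h : DMaxD P L m D qm qp r0 R0 a w1 w2) (hP : P' ⊆ P) :
    DMaxD P' L m D qm qp r0 R0 a w1 w2 := by
  intro c n l a' w1' w2' h1 h2 h3 h4 h5
  refine le_trans ?_ (h c n l a' w1' w2' h1 h2 h3 h4 h5)
  exact Nat.cast_le.2 (card_le_card (filter_subset_filter _ hP))

/-- D-max of all flat boxes at the level `v`, relative to the marks of the level -/
def DallW (B : Base) (I : ℕ → Finset (ℕ × ℝ)) (L : ℕ → ℕ → Ln4) (lev : ℕ → ℚ → ℕ) (A : ℕ → ℝ)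
    (g : ℝ) (r0 : ℕ → ℝ) (q : Fin 3 → ℝ) (w : Fin 3 → ℕ → ℚ → ℝ) (qm qp : Fin 3 → ℝ) (v : ℚ) :
    Prop :=
  ∀ ε : ℝ, 0 < ε → ∀ᶠ n in (U : Filter ℕ), DMaxD ((I n).image (lc (lev n v))) (L n) (lev n v)
    (B.d n ^ (-ε) * (A n * B.d n ^ (-(g * v)) * (capB (q 0) (q 1) (q 2) (w 0 n v) (w 1 n v)
      (w 2 n v) * rho (lev n v) ^ (-(q 0 + q 1 + q 2))))) qm qp (r0 n) (rho (lev n v))
    (w 0 n v) (w 1 n v) (w 2 n v)

/-- sum of the exponents -/
def QG (q qp : Fin 3 → ℝ) : ℝ := 11 + (q 0 + q 1 + q 2) + (qp 0 + qp 1 + qp 2)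

/-- constants of the exponents -/
noncomputable def cG (θ q qp : Fin 3 → ℝ) (g : ℝ) : ℝ := (9 + QG q qp) * cTh θ + g + QG q qp + 3
/-- absolute constant -/
noncomputable def k0G (q qp : Fin 3 → ℝ) : ℝ :=
  (3 + QG q qp) * Real.log 200 + 6 * Real.log (10 ^ 6) + Real.log 16 + Real.log 4

section

variable {B : Base} {I : ℕ → Finset (ℕ × ℝ)} {G : Geo Plk4 (Fin 3)} {lev : ℕ → ℚ → ℕ}
    {A : ℕ → ℝ} {g C : ℝ} {θ : Fin 3 → ℝ} {f : ℕ → ℚ → ℕ → ℤ → ℕ} {b : ℕ → ℚ → ℕ → Plk4}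
    {vm : ℕ → ℚ → ℝ} {w : Fin 3 → ℕ → ℚ → ℝ} {L : ℕ → ℕ → Ln4} {r0 : ℕ → ℝ} {q qm qp : Fin 3 → ℝ}
    {j k : ℕ → ℕ}

theorem DallW.sub {J : ℕ → Finset (ℕ × ℝ)} {v : ℚ} (h : DallW B I L lev A g r0 q w qm qp v)
    (hJ : ∀ᶠ n in (U : Filter ℕ), J n ⊆ I n) : DallW B J L lev A g r0 q w qm qp v := by
  intro ε hε
  filter_upwards [h ε hε, hJ] with n h1 h2
  exact h1.sub (image_subset_image h2)

open Classical in
/-- **the dyadic tilts are bounded** -/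
theorem stage_evG (hFF : FreeC qm qp C) (hC : 0 ≤ C) (h : MkF B I G lev A g θ f b vm w)
    (hG : GeoOk G L r0 q) (hr0 : ∀ n, 0 < r0 n)
    (hlog : ∀ ε : ℝ, 0 < ε → ∀ᶠ n in (U : Filter ℕ), Real.log (1 / r0 n) ≤ B.d n ^ (-ε))
    (hF : FlatE I lev f b) {u v : ℚ} (hu : 0 ≤ u) (huv : u ≤ v) (hv : v ≤ 1)
    (hW : DallW B I L lev A g r0 q w qm qp v)
    (hD : ∀ᶠ n in (U : Filter ℕ), ∀ x ∈ I n, DyA lev f b w n u v x (j n) (k n))
    (hg : 0 ≤ g) (hq : ∀ i, 0 ≤ q i) (hm : ∀ i, 0 ≤ qm i) (hmp : ∀ i, qm i ≤ qp i)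
    {ε1 : ℝ} (hε1 : 0 < ε1) :
    ∀ᶠ n in (U : Filter ℕ),
      (j n : ℝ) ≤ C * (1 + (k0G q qp +
        (cG θ q qp g * ((v:ℝ) - u) + (2 * QG q qp + 17) * ε1) * B.L n)) ∧
      (k n : ℝ) ≤ C * (1 + (k0G q qp +
        (cG θ q qp g * ((v:ℝ) - u) + (2 * QG q qp + 17) * ε1) * B.L n)) := by
  have hu1 : u ≤ 1 := huv.trans hv
  have hv0 : 0 ≤ v := hu.trans huv
  have hvu : (0:ℝ) ≤ (v:ℝ) - u := by
    have : (u:ℝ) ≤ v := by exact_mod_cast huv
    linarith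
  have hgv : g * (v:ℝ) = g * u + g * ((v:ℝ) - u) := by ring
  filter_upwards [h.ne, sys_ev h hG hF hu hu1 hε1, sys_ev h hG hF hv0 hv hε1,
    dims h hG hr0 hu hu1, dims h hG hr0 hv0 hv, comp_ev h hu huv hv hε1, lev_pow h hu huv hv hε1,
    h.own u v hu huv hv ε1 hε1, hD, hW ε1 hε1, hlog ε1 hε1]
    with n e1 e2 e3 e4 e5 e6 e7 e9 e12 e18 e19
  obtain ⟨du0, du1, du2, du3, du4⟩ := e4
  obtain ⟨dv0, dv1, dv2, dv3, dv4⟩ := e5
  have hsu : FSys ((I n).image (lc (lev n u))) (L n) (lev n u) (fun o => (o.2, f n u o.1 o.2))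
      (fun κ : ℤ × ℕ => (b n u κ.2).c) (fun κ => (b n u κ.2).e) (w 0 n u) (w 1 n u) (w 2 n u)
      (B.d n ^ ε1 * (A n * B.d n ^ (-(g * u)) * (capB (q 0) (q 1) (q 2) (w 0 n u) (w 1 n u)
        (w 2 n u) * rho (lev n u) ^ (-(q 0 + q 1 + q 2))))) := by
    rw [← du4]; exact e2
  have hsv : FSys ((I n).image (lc (lev n v))) (L n) (lev n v) (fun o => (o.2, f n v o.1 o.2))
      (fun κ : ℤ × ℕ => (b n v κ.2).c) (fun κ => (b n v κ.2).e) (w 0 n v) (w 1 n v) (w 2 n v)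
      (B.d n ^ ε1 * (A n * B.d n ^ (-(g * u + g * ((v:ℝ) - u))) * (capB (q 0) (q 1) (q 2)
        (w 0 n v) (w 1 n v) (w 2 n v) * rho (lev n v) ^ (-(q 0 + q 1 + q 2))))) := by
    rw [← dv4, ← hgv]; exact e3
  rw [hgv] at e18
  have key := stage_nG (B := B) (n := n) (J := I n) (L := L n) (lu := lev n u) (lv := lev n v)
    (k0 := lev n v - lev n u) (fu := f n u) (fv := f n v) (bu := b n u)
    (bv := b n v) (C1 := cTh θ) (δ := (v:ℝ) - u) (j := j n) (k' := k n) hFF e1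
    (by have := e7.1; omega) hsu hsv (h.Apos n)
    (fun x hx => by
      have := (e9 x hx).1
      simp only [zero_mul, sub_zero, add_zero] at this
      exact this)
    hε1 hvu (cTh_nonneg θ) e18 (hr0 n) du0 du1 du2 dv0 dv1 dv2 dv3
    (e6 0).1 (e6 0).2 (e6 1).1 (e6 1).2 (e6 2).1 (e6 2).2 e7.2.2 e19 hg (hq 0) (hq 1) (hq 2) hm hmp
    (fun x hx => e12 x hx)
  have hQ : 0 ≤ 11 + (q 0 + q 1 + q 2) + (qp 0 + qp 1 + qp 2) := by
    linarith [hq 0, hq 1, hq 2, (hm 0).trans (hmp 0), (hm 1).trans (hmp 1), (hm 2).trans (hmp 2)]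
  have hlog := WW_log (B := B) (n := n) (k0 := lev n v - lev n u)
    (Q := 11 + (q 0 + q 1 + q 2) + (qp 0 + qp 1 + qp 2)) (g := g)
    (δ := (v:ℝ) - u) (ε1 := ε1) (C1 := cTh θ) rfl (cTh_nonneg θ) hvu hε1.le hQ e7.2.1
  unfold cG k0G QG
  exact ⟨key.1.trans (by gcongr), key.2.trans (by gcongr)⟩

open Classical in
/-- **flat tilt, g-free** -/
theorem tilt_coreG (hFF : FreeC qm qp C) (hC : 0 ≤ C) (h : MkF B I G lev A g θ f b vm w)
    (hG : GeoOk G L r0 q) (hr0 : ∀ n, 0 < r0 n)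
    (hlog : ∀ ε : ℝ, 0 < ε → ∀ᶠ n in (U : Filter ℕ), Real.log (1 / r0 n) ≤ B.d n ^ (-ε))
    (hF : FlatE I lev f b)
    (hW : ∀ v : ℚ, 0 ≤ v → v ≤ 1 → DallW B I L lev A g r0 q w qm qp v)
    (hg : 0 ≤ g) (hq : ∀ i, 0 ≤ q i) (hm : ∀ i, 0 ≤ qm i) (hmp : ∀ i, qm i ≤ qp i) :
    ∃ C' : ℝ, 0 ≤ C' ∧ ∀ u v : ℚ, 0 ≤ u → u < v → v ≤ 1 → ∀ ε : ℝ, 0 < ε →
      Negl B I fun n x => ¬ Six (frm lev f b n u x) (frm lev f b n v x)
        (max (w 2 n u / w 1 n u) (w 2 n v / w 1 n v) * B.d n ^ (-(C' * ((v:ℝ) - u)) - ε))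
        (max (w 0 n u / w 2 n u) (w 0 n v / w 2 n v) * B.d n ^ (-(C' * ((v:ℝ) - u)) - ε))
        (max (w 0 n u / w 1 n u) (w 0 n v / w 1 n v) * B.d n ^ (-(C' * ((v:ℝ) - u)) - ε)) := by
  have hp : ∀ i, 0 ≤ qp i := fun i => (hm i).trans (hmp i)
  have hQ : 0 ≤ QG q qp := by
    unfold QG; linarith [hq 0, hq 1, hq 2, hp 0, hp 1, hp 2]
  have hT := cTh_nonneg θ
  have hcE : 0 ≤ cG θ q qp g := by
    unfold cG; positivity
  refine ⟨cTh θ + 2 * C * cG θ q qp g, by positivity, fun u v hu huv hv ε hε => ?_⟩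
  have hu1 : u ≤ 1 := huv.le.trans hv
  have hv0 : 0 ≤ v := hu.trans huv.le
  have hvu : (0:ℝ) ≤ (v:ℝ) - u := by
    have : (u:ℝ) ≤ v := by exact_mod_cast huv.le
    linarith
  by_contra hN
  obtain ⟨J0, hdJ0, hbad0⟩ := exists_bad hN
  obtain ⟨J, j, k, hs, hdJ, hM, hDy⟩ := exists_dyA h hG hr0 hlog hu huv.le hv hdJ0
  have hdI : Dense B J I := hdJ.trans hdJ0
  -- exponents
  obtain ⟨K, hK⟩ : ∃ K : ℝ, K = 2 + 2 * C * (2 * QG q qp + 17) := ⟨_, rfl⟩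
  have hK2 : 2 ≤ K := by rw [hK]; have : 0 ≤ 2 * C * (2 * QG q qp + 17) := by positivity
                         linarith
  obtain ⟨ε1, hε1, hεK⟩ : ∃ ε1 : ℝ, 0 < ε1 ∧ K * ε1 ≤ ε :=
    ⟨ε / K, by positivity, le_of_eq (by field_simp)⟩
  have hFJ : FlatE J lev f b := by
    intro v' h0 h1
    filter_upwards [hF v' h0 h1, hdI.1] with n hn hsub c t ht
    exact hn c t (alive_mono hsub _ _ ht)
  have hst := stage_evG hFF hC hM hG hr0 hlog hFJ hu huv.le hv ((hW v hv0 hv).sub hdI.1) hDy hg hq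
    hm hmp hε1
  -- contradiction
  have hfin : ∀ᶠ n in (U : Filter ℕ), False := by
    filter_upwards [dAW hM hG hr0 hu huv.le hv hε1, hM.ne, hDy, dims hM hG hr0 hu hu1,
      dims hM hG hr0 hv0 hv, const_le B (400 * Real.exp (2 * C * (1 + k0G q qp))) hε1,
      frm_ortho hM hG hu hu1, frm_ortho hM hG hv0 hv, hst]
      with n a1 a2 a3 a4 a5 a6 a7 a8 a9
    obtain ⟨x, hx⟩ := a2
    have hbad := hbad0 n x (hs n hx)
    obtain ⟨b1, b2, b3, b4, b5, b6, b7, b8, b9⟩ := a1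
    obtain ⟨du0, du1, du2, du3, -⟩ := a4
    obtain ⟨dv0, dv1, dv2, dv3, -⟩ := a5
    have hr := hr0 n
    have pv0 : 0 < w 0 n v := hr.trans_le dv0
    have pv2 : 0 < w 2 n v := pv0.trans_le dv1
    have pv1 : 0 < w 1 n v := pv2.trans_le dv2
    have hA : 0 < dA w n u v := by linarith
    have hEp := dpow_pos B n (-(cTh θ * ((v:ℝ) - u)) - ε1)
    have hsix := six_of_dy (a3 x hx) (a7 x hx) (a8 x hx) hA b2 b3 pv2 pv1
      (K := 200 * B.d n ^ (-(cTh θ * ((v:ℝ) - u)) - ε1)) (a0 := w 0 n v) (by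
        refine b4.trans ?_
        gcongr
        norm_num) b6 b8 b7
    have hL := B.L_pos n
    have hN : (((k n + j n : ℕ)) : ℝ) ≤ 2 * C * (1 + k0G q qp) + (2 * C * (cG θ q qp g *
        ((v:ℝ) - u) + (2 * QG q qp + 17) * ε1)) * B.L n := by
      push_cast
      linarith [a9.1, a9.2]
    set N := k n + j n with hNd
    have h2 : (2:ℝ) ^ N ≤ Real.exp (N : ℝ) := by
      have h3 : (2:ℝ) ≤ Real.exp 1 := by
        have := Real.add_one_le_exp (1:ℝ); linarith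
      have h4 : Real.exp (N : ℝ) = Real.exp 1 ^ N := by rw [← Real.exp_nat_mul, mul_one]
      rw [h4]
      exact pow_le_pow_left₀ (by norm_num) h3 N
    have h3 : (2:ℝ) ^ N ≤ Real.exp (2 * C * (1 + k0G q qp)) * B.d n ^ (-(2 * C * (cG θ q qp g *
        ((v:ℝ) - u) + (2 * QG q qp + 17) * ε1))) := by
      refine h2.trans ?_
      rw [dpow_exp, ← Real.exp_add, Real.exp_le_exp]
      refine hN.trans (le_of_eq ?_)
      ring
    have h4 : 2 * (200 * B.d n ^ (-(cTh θ * ((v:ℝ) - u)) - ε1)) * 2 ^ N ≤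
        B.d n ^ (-((cTh θ + 2 * C * cG θ q qp g) * ((v:ℝ) - u)) - ε) := by
      have hYp := dpow_pos B n (-(2 * C * (cG θ q qp g *
        ((v:ℝ) - u) + (2 * QG q qp + 17) * ε1)))
      calc 2 * (200 * B.d n ^ (-(cTh θ * ((v:ℝ) - u)) - ε1)) * 2 ^ N ≤
          2 * (200 * B.d n ^ (-(cTh θ * ((v:ℝ) - u)) - ε1)) *
          (Real.exp (2 * C * (1 + k0G q qp)) * B.d n ^ (-(2 * C * (cG θ q qp g *
            ((v:ℝ) - u) + (2 * QG q qp + 17) * ε1)))) := by gcongr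
        _ = (400 * Real.exp (2 * C * (1 + k0G q qp))) * (B.d n ^ (-(cTh θ * ((v:ℝ) - u)) - ε1) *
          B.d n ^ (-(2 * C * (cG θ q qp g *
            ((v:ℝ) - u) + (2 * QG q qp + 17) * ε1)))) := by ring
        _ ≤ B.d n ^ (-ε1) * (B.d n ^ (-(cTh θ * ((v:ℝ) - u)) - ε1) *
          B.d n ^ (-(2 * C * (cG θ q qp g *
            ((v:ℝ) - u) + (2 * QG q qp + 17) * ε1)))) := by gcongr
        _ = B.d n ^ (-ε1 + ((-(cTh θ * ((v:ℝ) - u)) - ε1) + (-(2 * C * (cG θ q qp g *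
            ((v:ℝ) - u) + (2 * QG q qp + 17) * ε1))))) := by
          rw [← dpow_add, ← dpow_add]
        _ ≤ _ := by
          refine dpow_le B n ?_
          have e : -ε1 + ((-(cTh θ * ((v:ℝ) - u)) - ε1) + (-(2 * C * (cG θ q qp g *
            ((v:ℝ) - u) + (2 * QG q qp + 17) * ε1)))) =
            -((cTh θ + 2 * C * cG θ q qp g) * ((v:ℝ) - u)) - K * ε1 := by rw [hK]; ring
          rw [e]
          linarith
    apply hbad
    refine hsix.mono ?_ ?_ ?_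
    · exact mul_le_mul (le_max_right _ _) h4 (by positivity)
        ((by positivity : 0 ≤ w 2 n v / w 1 n v).trans (le_max_right _ _))
    · exact mul_le_mul (le_max_right _ _) h4 (by positivity)
        ((by positivity : 0 ≤ w 0 n v / w 2 n v).trans (le_max_right _ _))
    · exact mul_le_mul (le_max_right _ _) h4 (by positivity)
        ((by positivity : 0 ≤ w 0 n v / w 1 n v).trans (le_max_right _ _))
  obtain ⟨n, hn⟩ := hfin.exists
  exact hn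

end

end Crest.Agent.R136.Fl808
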