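import Crest.Agent.R136.Fw2_650

/-!
# R136, flags of the W-chart (helper650), part 3: assembly

`ThinG.mono`, `ThinG.base` (polynomial bounds), `ThinG.markW` : `MarkW` at every rational level for
the flagged incidences `flW`; `ThinG.marksW`, `ThinG.wdata`.
-/

set_option autoImplicit false
set_option linter.unusedVariables false

open Finset Filter Topology

namespace Crest.Agent.R136.Fw650

open Crest.Agent.R138.Ex926 (Base U)
open Crest.Agent.R138.Mk163 (zc zl rho alive Negl)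
open Crest.Agent.R138.MkRef627 (lc kc)
open Crest.Agent.R138.Dp76
open Crest.Agent.R138.ArgM163 (ev_const)
open Crest.Agent.R136.Sh605
open Crest.Agent.R136.Net191
open Crest.Agent.R136.NetW191
open Crest.Agent.R136.MkA627
open Crest.Agent.R136.TD627
open Crest.Agent.R136.Ut627 (closeR lvl)
open Crest.Agent.R136.ArgA163 (PrLin rho_pos)
open Crest.Agent.R136.GW650
open Crest.Agent.R136.FlW464
open Crest.Agent.R136.PrW464 (unW unW_pos grW wz wc wn tdW tdW_d WData)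

/-- a constant is absorbed by one more power -/
theorem ev_abs (B : Base) (c : ℝ) (hc : 0 < c) (a : ℝ) :
    ∀ᶠ n in (U : Filter ℕ), c * B.d n ^ a ≤ B.d n ^ (a - 1) := by
  filter_upwards [ev_const B hc one_pos] with n h
  have e : B.d n ^ (a - 1) = B.d n ^ (-(1 : ℝ)) * B.d n ^ a := by
    rw [← dpow_add]; congr 1; ring
  rw [e]
  exact mul_le_mul_of_nonneg_right h (dpow_pos B n _).le

section

variable {σ' κ' : Type*} {G : Geo σ' κ'} {B : Base} {I : ℕ → Finset (ℕ × ℝ)} {lev : ℕ → ℚ → ℕ}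
    {A : ℕ → ℝ} {f : ℕ → ℚ → ℕ → ℤ → ℕ} {b : ℕ → ℚ → ℕ → σ'} {vm : ℕ → ℚ → ℝ}
    {w : κ' → ℕ → ℚ → ℝ} {kp σ hz zs : ℕ → ℝ} {L : ℕ → ℕ → Ln4} {wA wB a : ℕ → ℚ → ℝ}
    {Mk : ℚ → ℕ → ℕ × ℤ → Fin 14 → ℝ} {E : ℚ → ℕ → ℕ × ℤ → ℝ}

theorem ThinG.mono (h : ThinG B I lev f kp σ hz zs L wA wB a Mk E) {J : ℕ → Finset (ℕ × ℝ)}
    (hJ : ∀ n, J n ⊆ I n) : ThinG B J lev f kp σ hz zs L wA wB a Mk E where
  kp1 := h.kp1
  σ0 := h.σ0
  hz0 := h.hz0
  σs := h.σs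
  zb := by filter_upwards [h.zb] with n hn x hx using hn x (hJ n hx)
  Lb := by
    obtain ⟨C, hC⟩ := h.Lb
    exact ⟨C, by filter_upwards [hC] with n hn x hx using hn x (hJ n hx)⟩
  rb := h.rb
  top := h.top
  Mb := fun v h0 h1 => by
    obtain ⟨C, hC⟩ := h.Mb v h0 h1
    exact ⟨C, by filter_upwards [hC] with n hn x hx using hn x (hJ n hx)⟩
  A0 := h.A0
  low := h.low
  q := fun v h0 h1 ε hε => by
    filter_upwards [h.q v h0 h1 ε hε] with n hn x hx using hn x (hJ n hx)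
  lat := fun v h0 h1 ε hε => by
    filter_upwards [h.lat v h0 h1 ε hε] with n hn x hx y hy using hn x (hJ n hx) y (hJ n hy)
  ax := fun v h0 h1 ε hε => by
    filter_upwards [h.ax v h0 h1 ε hε] with n hn x hx using hn x (hJ n hx)
  bal := h.bal

theorem rhN_pos (h : ∀ n, 0 < hz n) (n : ℕ) (v : ℚ) : 0 < rhN lev hz n v :=
  mul_pos (h n) (rho_pos _)

/-- the cells of level `v` are shorter than those of level `0` -/
theorem rhN_le (hz0 : ∀ n, 0 < hz n) {c Λ : ℝ → ℝ} {τ : κ' → ℝ → ℝ}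
    (hM : MkA B I G lev A c Λ τ f b vm w) {v : ℚ} (h0 : 0 ≤ v) (h1 : v ≤ 1) :
    ∀ᶠ n in (U : Filter ℕ), rhN lev hz n v ≤ rhN lev hz n 0 := by
  filter_upwards [hM.lev_mono 0 v le_rfl h0 h1] with n hn
  unfold rhN
  refine mul_le_mul_of_nonneg_left ?_ (hz0 n).le
  unfold rho
  exact one_div_pow_le_one_div_pow_of_le one_le_two hn

/-- **polynomial bounds** -/
theorem ThinG.base (h : ThinG B I lev f kp σ hz zs L wA wB a Mk E) {c Λ : ℝ → ℝ}
    {τ : κ' → ℝ → ℝ} (hM : MkA B I G lev A c Λ τ f b vm w) (χ ν : ℝ) :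
    ∃ D : ℝ, 0 ≤ D ∧ ∀ᶠ n in (U : Filter ℕ), 1 ≤ B.d n ^ (-D) ∧
      (∀ v : ℚ, rhN lev hz n v ≤ rhN lev hz n 0 → ∀ x ∈ I n, ∀ z,
        z0N lev hz zs v n (zc (lev n v) x.2) ≤ z →
        z ≤ z0N lev hz zs v n (zc (lev n v) x.2) + rhN lev hz n v →
          |z| ≤ B.d n ^ (-D) ∧ ∀ k, |(L n x.1).pos z k| ≤ B.d n ^ (-D)) ∧
      (∀ x ∈ I n, ∀ k, |(L n x.1).v k| ≤ B.d n ^ (-D) ∧ |(L n x.1).p k| ≤ B.d n ^ (-D)) ∧
      (∀ x ∈ I n, ∀ k, |(flW kp σ hz zs L lev f Mk χ ν n x).G k| ≤ B.d n ^ (-D)) ∧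
      (∀ x ∈ I n, ∀ i, |FlW464.frW (L n x.1) (zhN hz zs n x) i| ≤ B.d n ^ (-D)) ∧
      (∀ x ∈ I n, ∀ k, |Mk 0 n (kc (lev n 0) (f n 0) x) k| ≤ B.d n ^ (-D) ∧
        |Mk 1 n (kc (lev n 1) (f n 1) x) k| ≤ B.d n ^ (-D)) := by
  obtain ⟨C1, h1⟩ := h.Lb
  obtain ⟨C2, h2⟩ := h.rb
  obtain ⟨C3, h3⟩ := h.top
  obtain ⟨C4, h4⟩ := h.Mb 0 le_rfl zero_le_one
  obtain ⟨C5, h5⟩ := h.Mb 1 zero_le_one le_rfl
  set D0 : ℝ := max (max C1 C2) (max (max C3 C4) (max C5 0)) with hD0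
  have d1 : C1 ≤ D0 := (le_max_left _ _).trans (le_max_left _ _)
  have d2 : C2 ≤ D0 := (le_max_right _ _).trans (le_max_left _ _)
  have d3 : C3 ≤ D0 := ((le_max_left _ _).trans (le_max_left _ _)).trans (le_max_right _ _)
  have d4 : C4 ≤ D0 := ((le_max_right _ _).trans (le_max_left _ _)).trans (le_max_right _ _)
  have d5 : C5 ≤ D0 := ((le_max_left _ _).trans (le_max_right _ _)).trans (le_max_right _ _)
  have d0 : 0 ≤ D0 := ((le_max_right _ _).trans (le_max_right _ _)).trans (le_max_right _ _)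
  -- `Γ = d ^ (-(2 D0 + 1))`
  set D1 : ℝ := 2 * D0 + 1 with hD1
  refine ⟨400 * D1 + 1, by positivity, ?_⟩
  filter_upwards [h1, h2, h3, h4, h5, h.zb, ev_abs B 3 (by norm_num) (-(2 * D0)),
    h.q 0 le_rfl zero_le_one 1 one_pos, ev_abs B (50 * (10 ^ 30) ^ 5) (by positivity)
      (-(400 * D1))] with n h1 h2 h3 h4 h5 hzb e3 hq e50
  have dp := dpow_pos B n
  have hσ := h.σ0 n
  have g0 : 1 ≤ B.d n ^ (-D0) := by
    have := dpow_le B n (show -D0 ≤ (0 : ℝ) by linarith)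
    rwa [Real.rpow_zero] at this
  have hle : ∀ {C : ℝ}, C ≤ D0 → B.d n ^ (-C) ≤ B.d n ^ (-D0) := fun h =>
    dpow_le B n (by linarith)
  have e3' : 3 * (B.d n ^ (-D0)) ^ 2 ≤ B.d n ^ (-D1) := by
    have e : (B.d n ^ (-D0)) ^ 2 = B.d n ^ (-(2 * D0)) := by
      rw [← Real.rpow_natCast, ← Real.rpow_mul (B.pos n).le]
      congr 1; push_cast; ring
    rw [e, show -D1 = -(2 * D0) - 1 by rw [hD1]; ring]
    exact e3
  set Γ0 := B.d n ^ (-D0) with hΓ0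
  set Γ := B.d n ^ (-D1) with hΓ
  have g02 : Γ0 ≤ Γ0 ^ 2 := by nlinarith
  have gΓ : Γ0 ≤ Γ := by nlinarith
  have g1 : 1 ≤ Γ := g0.trans gΓ
  -- bounds
  have bL : ∀ x ∈ I n, ∀ k, |(L n x.1).v k| ≤ Γ0 ∧ |(L n x.1).p k| ≤ Γ0 := fun x hx k =>
    ⟨(h1 x hx k).1.trans (hle d1), (h1 x hx k).2.trans (hle d1)⟩
  have br : rhN lev hz n 0 ≤ Γ0 := h2.2.trans (hle d2)
  have br' : 1 ≤ Γ0 * rhN lev hz n 0 := by
    have e : B.d n ^ (-D0) * B.d n ^ D0 = 1 := by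
      rw [← dpow_add, neg_add_cancel, Real.rpow_zero]
    have e2 : B.d n ^ D0 ≤ rhN lev hz n 0 := (dpow_le B n d2).trans h2.1
    calc (1 : ℝ) = Γ0 * B.d n ^ D0 := e.symm
      _ ≤ _ := mul_le_mul_of_nonneg_left e2 (by linarith)
  have bz : ∀ v : ℚ, rhN lev hz n v ≤ rhN lev hz n 0 → ∀ x ∈ I n, ∀ z,
      z0N lev hz zs v n (zc (lev n v) x.2) ≤ z →
      z ≤ z0N lev hz zs v n (zc (lev n v) x.2) + rhN lev hz n v →
        |z| ≤ 2 * Γ0 ∧ ∀ k, |(L n x.1).pos z k| ≤ 3 * Γ0 ^ 2 := by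
    intro v hv x hx z z1 z2
    obtain ⟨c1, c2⟩ := cellN (lev := lev) (zs := zs) (h.hz0 n) v x
    have hb := hzb x hx
    have hz : |z| ≤ 2 * Γ0 := by
      rw [abs_le] at hb ⊢
      constructor <;> linarith
    refine ⟨hz, fun k => ?_⟩
    show |(L n x.1).p k + z * (L n x.1).v k| ≤ _
    refine (abs_add_le _ _).trans ?_
    rw [abs_mul]
    have p1 := mul_le_mul hz (bL x hx k).1 (abs_nonneg _) (by linarith)
    have p2 := (bL x hx k).2
    nlinarith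
  have bz' : ∀ v : ℚ, rhN lev hz n v ≤ rhN lev hz n 0 → ∀ x ∈ I n, ∀ z,
      z0N lev hz zs v n (zc (lev n v) x.2) ≤ z →
      z ≤ z0N lev hz zs v n (zc (lev n v) x.2) + rhN lev hz n v →
        |z| ≤ Γ ∧ ∀ k, |(L n x.1).pos z k| ≤ Γ := by
    intro v hv x hx z z1 z2
    obtain ⟨q1, q2⟩ := bz v hv x hx z z1 z2
    exact ⟨q1.trans (by nlinarith), fun k => (q2 k).trans e3'⟩
  have bM : ∀ x ∈ I n, ∀ k, |Mk 0 n (kc (lev n 0) (f n 0) x) k| ≤ Γ ∧
      |Mk 1 n (kc (lev n 1) (f n 1) x) k| ≤ Γ := fun x hx k =>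
    ⟨((h4 x hx k).trans (hle d4)).trans gΓ, ((h5 x hx k).trans (hle d5)).trans gΓ⟩
  have bfr : ∀ x ∈ I n, ∀ i, |FlW464.frW (L n x.1) (zhN hz zs n x) i| ≤ Γ := by
    intro x hx i
    obtain ⟨c1, c2⟩ := cellN (lev := lev) (zs := zs) (h.hz0 n) 0 x
    have hp := (bz' 0 le_rfl x hx _ c1 c2).2
    fin_cases i
    · exact (hzb x hx).trans g1
    · exact (bL x hx 1).1.trans gΓ
    · exact hp 1
    · exact hp 2
  have bG : ∀ x ∈ I n, ∀ k, |(flW kp σ hz zs L lev f Mk χ ν n x).G k| ≤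
      50 * (10 ^ 30 * Γ ^ 80) ^ 5 := by
    intro x hx k
    have hr := rhN_pos (lev := lev) h.hz0 n 0
    refine FW1_bd (h.kp1 n) hσ (z0 := z0N lev hz zs 0 n (zc (lev n 0) x.2))
      (ρ := rhN lev hz n 0) g1 hr (br.trans gΓ) ?_ (bfr x hx) (fun k => (bM x hx k).1)
      (fun k => (bM x hx k).2) (fun z z1 z2 => (bz' 0 le_rfl x hx z z1 z2).1)
      (fun z z1 z2 => (bz' 0 le_rfl x hx z z1 z2).2) (fun z z1 z2 => ?_) k
    · exact br'.trans (mul_le_mul_of_nonneg_right gΓ hr.le)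
    · refine (hq x hx z z1 z2).trans (mul_le_mul_of_nonneg_left ?_ hσ.le)
      have e1 : a n 0 ≤ Γ0 := h3.1.trans (hle d3)
      calc a n 0 * B.d n ^ (-(1 : ℝ)) ≤ Γ0 * B.d n ^ (-(1 : ℝ)) :=
            mul_le_mul_of_nonneg_right e1 (dp _).le
        _ = B.d n ^ (-D0 - 1) := by rw [hΓ0, ← dpow_add]; congr 1
        _ ≤ Γ := dpow_le B n (by rw [hD1]; linarith)
  -- the final bound
  have hfin : 50 * (10 ^ 30 * Γ ^ 80) ^ 5 ≤ B.d n ^ (-(400 * D1 + 1)) := by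
    have e : Γ ^ 400 = B.d n ^ (-(400 * D1)) := by
      rw [hΓ, ← Real.rpow_natCast, ← Real.rpow_mul (B.pos n).le]
      congr 1; push_cast; ring
    have e2 : 50 * (10 ^ 30 * Γ ^ 80) ^ 5 = 50 * (10 ^ 30) ^ 5 * Γ ^ 400 := by ring
    rw [e2, e, show -(400 * D1 + 1) = -(400 * D1) - 1 by ring]
    exact e50
  have gfin : Γ ≤ B.d n ^ (-(400 * D1 + 1)) := by
    rw [hΓ]
    refine dpow_le B n ?_
    have : 0 ≤ D1 := by positivity
    linarith
  refine ⟨g1.trans gfin, fun v hv x hx z z1 z2 => ?_, fun x hx k => ?_,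
    fun x hx k => (bG x hx k).trans hfin, fun x hx i => (bfr x hx i).trans gfin,
    fun x hx k => ⟨(bM x hx k).1.trans gfin, (bM x hx k).2.trans gfin⟩⟩
  · obtain ⟨q1, q2⟩ := bz' v hv x hx z z1 z2
    exact ⟨q1.trans gfin, fun k => (q2 k).trans gfin⟩
  · exact ⟨((bL x hx k).1.trans gΓ).trans gfin, ((bL x hx k).2.trans gΓ).trans gfin⟩

/-- graded precision against the natural precision, sequences -/
theorem ThinG.prN (h : ThinG B I lev f kp σ hz zs L wA wB a Mk E) {v : ℚ} (h0 : 0 ≤ v)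
    (h1 : v ≤ 1) {ε : ℝ} (hε : 0 < ε) : ∀ᶠ n in (U : Filter ℕ), ∀ k : Fin 14, k ≠ 9 → k ≠ 12 →
      k ≠ 13 → prG (rhN lev hz) wA a (Fin.natAdd 4 k) n v ≤
        a n v / sz3 (rhN lev hz n v) (wA n v) (wB n v) k * B.d n ^ (-ε) := by
  have e2 : 0 < ε / 2 := by positivity
  obtain ⟨C, hC⟩ := h.low v h0 h1
  filter_upwards [h.A0 v h0 h1, hC, h.bal v h0 h1 _ e2] with n hA hC hb k h9 h12 h13
  have he : 1 ≤ B.d n ^ (-(ε / 2)) := by
    have := dpow_le B n (show -(ε / 2) ≤ (0 : ℝ) by linarith)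
    rwa [Real.rpow_zero] at this
  have a0 : 0 < a n v := (dpow_pos B n C).trans_le hC.1
  have B0 : 0 < wB n v := (dpow_pos B n C).trans_le hC.2
  refine (prN_le he (rhN_pos h.hz0 n v) hA B0 a0 (by rw [mul_comm]; exact hb.2) k h9 h12
    h13).trans (le_of_eq ?_)
  rw [sq, ← dpow_add, mul_comm]
  congr 2; ring

/-- **`MarkW` at the level `v`** -/
theorem ThinG.markW (h : ThinG B I lev f kp σ hz zs L wA wB a Mk E) {c Λ : ℝ → ℝ}
    {τ : κ' → ℝ → ℝ} (hM : MkA B I G lev A c Λ τ f b vm w) {χ ν C : ℝ} (hC : 0 ≤ C)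
    (hpr : ∀ k, PrLin B (prG (rhN lev hz) wA a) k (grW 1 χ ν k))
    (hT : TiltGE B I (hW kp hz zs L lev f Mk) (prG (rhN lev hz) wA a) C) {v : ℚ} (h0 : 0 ≤ v)
    (h1 : v ≤ 1) :
    MarkW B I lev f v kp σ (flW kp σ hz zs L lev f Mk χ ν) L (z0N lev hz zs v)
      (fun n => rhN lev hz n v) (Mk v) (E v) (fun n => wA n v) (fun n => wB n v)
      (fun n => a n v) (fun n k => a n v / sz3 (rhN lev hz n v) (wA n v) (wB n v) k) where
  bd := by
    obtain ⟨D, D0, hD⟩ := h.base hM χ ν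
    refine ⟨D, ?_⟩
    filter_upwards [hD, rhN_le h.hz0 hM h0 h1] with n hn hr x hx
    obtain ⟨g1, bz, bL, bG, bfr, bM⟩ := hn
    obtain ⟨c1, c2⟩ := cellN (lev := lev) (zs := zs) (h.hz0 n) v x
    exact
      { true := flW_true (h.σ0 n) χ ν x
        G := bG x hx
        V := fun k => (bL x hx k).1
        X := fun z z1 z2 => (bz v hr x hx z z1 z2).2
        z := fun z z1 z2 => (bz v hr x hx z z1 z2).1
        i0 := c1
        i1 := c2 }
  Mbd := h.Mb v h0 h1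
  ρ0 := Eventually.of_forall fun n => rhN_pos h.hz0 n v
  ρ1 := by
    obtain ⟨C, hC⟩ := h.rb
    exact ⟨C, by filter_upwards [hC, rhN_le h.hz0 hM h0 h1] with n a b using b.trans a.2⟩
  A0 := h.A0 v h0 h1
  low := h.low v h0 h1
  pr0 := by
    obtain ⟨C, hC⟩ := h.low v h0 h1
    filter_upwards [hC, h.A0 v h0 h1] with n hn hA k
    exact (div_pos ((dpow_pos B n C).trans_le hn.1)
      (sz3_pos (rhN_pos h.hz0 n v) hA ((dpow_pos B n C).trans_le hn.2) k)).le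
  q := h.q v h0 h1
  fl := fun ε hε => by
    have e2 : 0 < ε / 2 := by positivity
    have hk : ∀ k : Fin 14, k ≠ 9 → k ≠ 12 → k ≠ 13 → ∀ᶠ n in (U : Filter ℕ), ∀ x ∈ I n,
        |tr (kp n) (flW kp σ hz zs L lev f Mk χ ν n x).g
          ((flW kp σ hz zs L lev f Mk χ ν n x).G - Mk v n (kc (lev n v) (f n v) x)) k| ≤
        a n v / sz3 (rhN lev hz n v) (wA n v) (wB n v) k * B.d n ^ (-ε) := by
      intro k h9 h12 h13
      filter_upwards [flG_close hC hpr hT h9 h12 h13 h0 h1 e2, h.prN h0 h1 e2] with n hn hp x hx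
      rw [flW_sub χ ν n x v k h9 h12 h13, abs_sub_comm]
      refine (hn x hx).trans ((mul_le_mul_of_nonneg_right (hp k h9 h12 h13)
        (dpow_pos B n _).le).trans (le_of_eq ?_))
      rw [mul_assoc, ← dpow_add]; congr 2; ring
    have hall : ∀ᶠ n in (U : Filter ℕ), ∀ k : Fin 14, k ≠ 9 → k ≠ 12 → k ≠ 13 → ∀ x ∈ I n,
        |tr (kp n) (flW kp σ hz zs L lev f Mk χ ν n x).g
          ((flW kp σ hz zs L lev f Mk χ ν n x).G - Mk v n (kc (lev n v) (f n v) x)) k| ≤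
        a n v / sz3 (rhN lev hz n v) (wA n v) (wB n v) k * B.d n ^ (-ε) := by
      rw [Filter.eventually_all]
      intro k
      by_cases h9 : k = 9
      · exact Eventually.of_forall fun n h => absurd h9 h
      by_cases h12 : k = 12
      · exact Eventually.of_forall fun n _ h => absurd h12 h
      by_cases h13 : k = 13
      · exact Eventually.of_forall fun n _ _ h => absurd h13 h
      filter_upwards [hk k h9 h12 h13] with n hn _ _ _ using hn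
    filter_upwards [hall] with n hn x hx k h9 h12 h13 using hn k h9 h12 h13 x hx
  lat := h.lat v h0 h1
  ax := h.ax v h0 h1

/-- **all levels** -/
theorem ThinG.marksW (h : ThinG B I lev f kp σ hz zs L wA wB a Mk E) {c Λ : ℝ → ℝ}
    {τ : κ' → ℝ → ℝ} (hM : MkA B I G lev A c Λ τ f b vm w) {χ ν C : ℝ} (hC : 0 ≤ C)
    (hpr : ∀ k, PrLin B (prG (rhN lev hz) wA a) k (grW 1 χ ν k))
    (hT : TiltGE B I (hW kp hz zs L lev f Mk) (prG (rhN lev hz) wA a) C) :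
    MarksW B I lev f kp σ (flW kp σ hz zs L lev f Mk χ ν) L (fun v => z0N lev hz zs v)
      (rhN lev hz) wA wB a Mk E where
  kp1 := h.kp1
  σ0 := Eventually.of_forall h.σ0
  σ1 := h.σs
  mark := fun v h0 h1 => h.markW hM hC hpr hT h0 h1
  bal := h.bal

/-- **464's data** -/
theorem ThinG.wdata (h : ThinG B I lev f kp σ hz zs L wA wB a Mk E) {c Λ : ℝ → ℝ}
    {τ : κ' → ℝ → ℝ} (hM : MkA B I G lev A c Λ τ f b vm w) (χ ν : ℝ) :
    WData B I kp σ hz zs L (flW kp σ hz zs L lev f Mk χ ν) where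
  kp1 := h.kp1
  sg0 := h.σ0
  hz0 := h.hz0
  sgs := h.σs
  gz := fun n x => rfl
  zb := h.zb
  tru := Eventually.of_forall fun n x hx => flW_true (h.σ0 n) χ ν x
  bd := by
    obtain ⟨D, D0, hD⟩ := h.base hM χ ν
    refine ⟨D, D0, ?_⟩
    filter_upwards [hD] with n hn x hx
    exact ⟨hn.2.2.2.1 x hx, fun k => (hn.2.2.1 x hx k).1, fun k => (hn.2.2.1 x hx k).2⟩

end

end Crest.Agent.R136.Fw650
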