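import Crest.Agent.R136.Fw2_808
import Crest.Agent.R136.Fn1_808
import Crest.Agent.R136.DAl_879

/-!
# R136 (S0187): g-free flat tilt, D-max of flat boxes from sheets (helper808)

`dallW_of` : 879's `DAll` ⊢ `DallW`; `tilt_dall` : `MkF`, flat marks, `DAll`, `FlatFree` ⊢ flat tilt.
-/

set_option autoImplicit false
set_option linter.unusedVariables false
set_option linter.unusedSectionVars false

namespace Crest.Agent.R136.Fl808

open Finset Filter Topology Crest.Agent.R136.Sh605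
open Crest.Agent.R138.Ex926 (Base U)
open Crest.Agent.R138.Dp76 (Dense dpow_pos dpow_add dpow_le dpow_le_one)
open Crest.Agent.R138.Mk163 (zc zl rho alive own Negl)
open Crest.Agent.R138.MkRef627 (lc mem_alive card_class alive_mono)
open Crest.Agent.R136.K4 (Plk4)
open Crest.Agent.R136.MkA627

section

variable {B : Base} {I : ℕ → Finset (ℕ × ℝ)} {G : Geo Plk4 (Fin 3)} {lev : ℕ → ℚ → ℕ}
    {A : ℕ → ℝ} {g C : ℝ} {θ : Fin 3 → ℝ} {f : ℕ → ℚ → ℕ → ℤ → ℕ} {b : ℕ → ℚ → ℕ → Plk4}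
    {vm : ℕ → ℚ → ℝ} {w : Fin 3 → ℕ → ℚ → ℝ} {L : ℕ → ℕ → Ln4} {r0 : ℕ → ℝ} {q qm qp : Fin 3 → ℝ}

/-- D-max of sheets gives D-max of flat boxes -/
theorem dallW_of (hA : DAl879.DAll B I L lev A g q r0 w qm qp) (hr0 : ∀ n, 0 < r0 n) {v : ℚ}
    (h0 : 0 ≤ v) (h1 : v ≤ 1) (hw : ∀ᶠ n in (U : Filter ℕ), ∀ i, 0 < w i n v) :
    DallW B I L lev A g r0 q w qm qp v := by
  classical
  intro ε hε
  filter_upwards [hA v h0 h1 ε hε, hw] with n hn hwn c e l a w1 w2 he ha haw hw12 hR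
  have pa : 0 < a := (hr0 n).trans_le ha
  have hs : ShN e l ![w2, w1, w2] (qfl e l) a (zl (lev n v) c) (rho (lev n v)) (r0 n) :=
    shN_flat he l ha pa haw hw12
  have h2 := hn c ⟨c, e, l, ![w2, w1, w2], qfl e l, a⟩ hs (by simpa using hR)
  have hv : DAl879.vmk q (rho (lev n v)) (w 0 n v) (w 1 n v) (w 2 n v) =
      capB (q 0) (q 1) (q 2) (w 0 n v) (w 1 n v) (w 2 n v) *
        rho (lev n v) ^ (-(q 0 + q 1 + q 2)) :=
    val_eq (hwn 0) (hwn 1) (hwn 2) (rho_pos _)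
  rw [hv] at h2
  refine le_trans (Nat.cast_le.2 ?_) h2
  refine card_le_card_of_injOn Prod.fst ?_ ?_
  · intro x hx
    rw [mem_coe, mem_filter] at hx
    obtain ⟨hx, hxc, hxb⟩ := hx
    obtain ⟨y, hy, rfl⟩ := mem_image.1 hx
    rw [mem_coe, mem_filter]
    refine ⟨mem_alive.2 ⟨y, hy, rfl, hxc⟩, inSheet_flat haw hxb⟩
  · intro x hx y hy hxy
    rw [mem_coe, mem_filter] at hx hy
    exact Prod.ext hxy (hx.2.1.trans hy.2.1.symm)

/-- **flat tilt from two-sided D-max**, `MkF` form -/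
theorem tilt_dall (hFF : FlatFree) (h : MkF B I G lev A g θ f b vm w)
    (hG : GeoOk G L r0 q) (hr0 : ∀ n, 0 < r0 n)
    (hlog : ∀ ε : ℝ, 0 < ε → ∀ᶠ n in (U : Filter ℕ), Real.log (1 / r0 n) ≤ B.d n ^ (-ε))
    (hF : FlatE I lev f b) (hok : QmOk qm qp)
    (hA : DAl879.DAll B I L lev A g q r0 w qm qp)
    (hg : 0 ≤ g) (hq : ∀ i, 0 ≤ q i) :
    ∃ C' : ℝ, 0 ≤ C' ∧ ∀ u v : ℚ, 0 ≤ u → u < v → v ≤ 1 → ∀ ε : ℝ, 0 < ε →
      Negl B I fun n x => ¬ SixM lev f b w (B.d n ^ (-(C' * ((v:ℝ)-u)) - ε)) n u v x := by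
  obtain ⟨C, hC, hCF⟩ := hFF qm qp hok
  exact tilt_coreG hCF hC h hG hr0 hlog hF (fun v h0 h1 => dallW_of hA hr0 h0 h1 (by
    filter_upwards [h.wpos 0 v h0 h1, h.wpos 1 v h0 h1, h.wpos 2 v h0 h1] with n a0 a1 a2 i
    fin_cases i
    · exact a0
    · exact a1
    · exact a2)) hg hq hok.m0 hok.mp

end

end Crest.Agent.R136.Fl808
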