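import Crest.Agent.R136.TopD_484

/-!
# R136 (S0187), U6 thick side (helper262), part 0: plank frame of a flat sheet

`gd`, `nv` : gradient of the quadratic function of a sheet on the centre line; `Flt` : the sheet is
flat up to the factor `K`; `pf` : orthonormal plank frame (`0` normal, `1` wide, `2` narrow).
-/

set_option autoImplicit false
set_option linter.unusedVariables false

open Finset Filter Topology

namespace Crest.Agent.R136.Ut262

open Crest.Agent.R138.Ex926 (Base U)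
open Crest.Agent.R138.Dp76 (Dense)
open Crest.Agent.R138.Mk163 (zc zl rho alive own Negl)
open Crest.Agent.R136.MkA627 Crest.Agent.R136.Sh605 Crest.Agent.R136.K4 Crest.Agent.R136.Top484

/-! ### the gradient -/

/-- component `i` (in the frame `e`) of the gradient of `q` at the height `z` on the line `c` -/
noncomputable def gd (e : Fin 3 → V3) (c : Ln4) (q : ℝ → V3 → ℝ) (z : ℝ) (i : Fin 3) : ℝ :=
  (q z (c.pos z + e i) - q z (c.pos z - e i)) / 2

/-- the gradient -/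
noncomputable def nv (e : Fin 3 → V3) (c : Ln4) (q : ℝ → V3 → ℝ) (z : ℝ) : V3 :=
  gd e c q z 0 • e 0 + gd e c q z 1 • e 1 + gd e c q z 2 • e 2

/-- **flat sheet**: up to `K a` the function `q` is `q (centre line) + <n, ·>` with ONE normal vector
`n` for all heights of the cell (the gradient at the middle height). -/
def Flt (e : Fin 3 → V3) (c : Ln4) (w : V3) (q : ℝ → V3 → ℝ) (a z0 ρ K : ℝ) : Prop :=
  ∀ z, z0 ≤ z → z ≤ z0 + ρ → ∀ y : V3, (∀ i, |dt (e i) y| ≤ 2 * w i) →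
    |q z (c.pos z + y) - q z (c.pos z) - dt (nv e c q (z0 + ρ / 2)) y| ≤ K * a

theorem Flt.mono {e : Fin 3 → V3} {c : Ln4} {w : V3} {q : ℝ → V3 → ℝ} {a z0 ρ K K' : ℝ}
    (h : Flt e c w q a z0 ρ K) (ha : 0 ≤ a) (hK : K ≤ K') : Flt e c w q a z0 ρ K' :=
  fun z h1 h2 y hy => (h z h1 h2 y hy).trans (mul_le_mul_of_nonneg_right hK ha)

/-- a quadratic function along a direction: symmetric differences are linear in the step -/
theorem isQ_symm {q : ℝ → V3 → ℝ} (hq : IsQ q) (z s : ℝ) (x u : V3) :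
    q z (x + s • u) - q z (x - s • u) = s * (q z (x + u) - q z (x - u)) := by
  obtain ⟨c0, c1, c2, b, d, g, h⟩ := hq
  simp only [h, Fin.sum_univ_three, Pi.add_apply, Pi.sub_apply, Pi.smul_apply, smul_eq_mul]
  ring

/-- `dt` of the frame vectors -/
theorem dt_e {e : Fin 3 → V3} (h : Ortho e) (i j : Fin 3) (s : ℝ) :
    dt (e i) (s • e j) = if i = j then s else 0 := by
  rw [dt_smul, h i j]; split_ifs <;> simp

theorem inK_step {e : Fin 3 → V3} (h : Ortho e) (c : Ln4) {w : V3} (hw : ∀ i, 0 ≤ w i) (z : ℝ)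
    (j : Fin 3) {s : ℝ} (hs : |s| ≤ 2 * w j) : InK e c (dbl3 w) z (c.pos z + s • e j) := by
  intro i
  have e1 : c.pos z + s • e j - c.pos z = s • e j := by abel
  rw [e1, dt_e h]
  split_ifs with hij
  · subst hij; exact hs
  · rw [abs_zero]; have := hw i; simp only [dbl3]; linarith

section

variable {e : Fin 3 → V3} {c : Ln4} {w : V3} {q : ℝ → V3 → ℝ} {a z0 ρ r0 : ℝ}

theorem w_pos (h : ShN e c w q a z0 ρ r0) (ha : 0 < a) : ∀ i, 0 < w i := by
  have h2 : 0 < w 2 := ha.trans_le h.a_le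
  intro i
  fin_cases i
  · exact ha.trans_le h.a_le0
  · exact h2.trans_le h.w_le
  · exact h2

/-- **bounds of the gradient** -/
theorem gd_bounds (h : ShN e c w q a z0 ρ r0) (ha : 0 < a) {z : ℝ} (h0 : z0 ≤ z)
    (h1 : z ≤ z0 + ρ) : 1 / 2 ≤ gd e c q z 0 ∧ gd e c q z 0 ≤ 2 ∧ |gd e c q z 1| ≤ w 2 / w 1 ∧
      |gd e c q z 2| ≤ 1 := by
  have hw := w_pos h ha
  have hw' : ∀ i, 0 ≤ w i := fun i => (hw i).le
  -- general step
  have key : ∀ j : Fin 3, q z (c.pos z - w j • e j + (2 * w j) • e j) - q z (c.pos z - w j • e j) =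
      2 * w j * gd e c q z j := by
    intro j
    have e1 : c.pos z - w j • e j + (2 * w j) • e j = c.pos z + w j • e j := by
      rw [two_mul, add_smul]; abel
    rw [e1, isQ_symm h.isQ]
    unfold gd; ring
  have k1 : ∀ j : Fin 3, InK e c (dbl3 w) z (c.pos z - w j • e j) := by
    intro j
    have := inK_step h.ortho c hw' z j (s := -w j) (by
      rw [abs_neg, abs_of_pos (hw j)]; have := hw j; linarith)
    rwa [neg_smul, ← sub_eq_add_neg] at this
  have k2 : ∀ j : Fin 3, InK e c (dbl3 w) z (c.pos z - w j • e j + (2 * w j) • e j) := by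
    intro j
    have e1 : c.pos z - w j • e j + (2 * w j) • e j = c.pos z + w j • e j := by
      rw [two_mul, add_smul]; abel
    rw [e1]
    exact inK_step h.ortho c hw' z j (s := w j) (by
      rw [abs_of_pos (hw j)]; have := hw j; linarith)
  have hτ : ∀ j : Fin 3, 0 ≤ 2 * w j := fun j => by have := hw j; linarith
  have s0 := h.st0 z h0 h1 _ _ (hτ 0) (k1 0) (k2 0)
  have s1 := h.st1 z h0 h1 _ _ (hτ 1) (k1 1) (k2 1)
  have s2 := h.st2 z h0 h1 _ _ (hτ 2) (k1 2) (k2 2)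
  rw [key] at s0 s1 s2
  have p0 := hw 0
  have p1 := hw 1
  have p2 := hw 2
  refine ⟨?_, ?_, ?_, ?_⟩
  · have := s0.1; nlinarith
  · have := s0.2; nlinarith
  · rw [abs_mul, abs_of_pos (by linarith : 0 < 2 * w 1)] at s1
    have : 2 * w 1 * |gd e c q z 1| ≤ 2 * w 1 * (w 2 / w 1) := by linarith
    exact le_of_mul_le_mul_left this (by linarith)
  · rw [abs_mul, abs_of_pos (by linarith : 0 < 2 * w 2)] at s2
    have : 2 * w 2 * |gd e c q z 2| ≤ 2 * w 2 * 1 := by linarith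
    exact le_of_mul_le_mul_left this (by linarith)

end

/-! ### the plank frame -/

/-- norm of the gradient -/
noncomputable def nN (g : Fin 3 → ℝ) : ℝ := Real.sqrt (g 0 ^ 2 + g 1 ^ 2 + g 2 ^ 2)
/-- norm of its components `0, 2` -/
noncomputable def nM (g : Fin 3 → ℝ) : ℝ := Real.sqrt (g 0 ^ 2 + g 2 ^ 2)

/-- coefficients of the plank frame in the frame of the sheet -/
noncomputable def rot3 (g : Fin 3 → ℝ) : Fin 3 → V3 :=
  ![![g 0 / nN g, g 1 / nN g, g 2 / nN g],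
    ![-(g 0 * g 1) / (nN g * nM g), nM g / nN g, -(g 1 * g 2) / (nN g * nM g)],
    ![-g 2 / nM g, 0, g 0 / nM g]]

/-- **the plank frame** -/
noncomputable def pf (e : Fin 3 → V3) (c : Ln4) (q : ℝ → V3 → ℝ) (z : ℝ) : Fin 3 → V3 :=
  fun i => rot3 (gd e c q z) i 0 • e 0 + rot3 (gd e c q z) i 1 • e 1 + rot3 (gd e c q z) i 2 • e 2

theorem nM_sq (g : Fin 3 → ℝ) : nM g ^ 2 = g 0 ^ 2 + g 2 ^ 2 := Real.sq_sqrt (by positivity)
theorem nN_sq (g : Fin 3 → ℝ) : nN g ^ 2 = g 0 ^ 2 + g 1 ^ 2 + g 2 ^ 2 :=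
  Real.sq_sqrt (by positivity)

theorem nM_ge {g : Fin 3 → ℝ} (h : 1 / 2 ≤ g 0) : 1 / 2 ≤ nM g := by
  have h1 := nM_sq g
  have h0 : 0 ≤ nM g := Real.sqrt_nonneg _
  by_contra hc
  push Not at hc
  nlinarith [sq_nonneg (g 2)]

theorem nM_le_nN (g : Fin 3 → ℝ) : nM g ≤ nN g :=
  Real.sqrt_le_sqrt (by nlinarith [sq_nonneg (g 1)])

theorem abs_g0_le (g : Fin 3 → ℝ) : |g 0| ≤ nM g :=
  Real.abs_le_sqrt (by nlinarith [sq_nonneg (g 2)])
theorem abs_g2_le (g : Fin 3 → ℝ) : |g 2| ≤ nM g :=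
  Real.abs_le_sqrt (by nlinarith [sq_nonneg (g 0)])

theorem rot3_ortho {g : Fin 3 → ℝ} (h : 1 / 2 ≤ g 0) : Ortho (rot3 g) := by
  have hM := nM_ge h
  have hM0 : nM g ≠ 0 := by linarith
  have hN0 : nN g ≠ 0 := by have := nM_le_nN g; linarith
  have sM := nM_sq g
  have sN := nN_sq g
  have sN' : nN g ^ 2 = nM g ^ 2 + g 1 ^ 2 := by rw [sN, sM]; ring
  intro i j
  fin_cases i <;> fin_cases j <;>
    simp only [rot3, dt, Fin.zero_eta, Fin.mk_one, Fin.reduceFinMk, Matrix.cons_val,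
      Fin.isValue, if_true, Fin.reduceEq, if_false]
  · field_simp; linarith
  · field_simp
    rw [sM]; ring
  · field_simp; ring
  · field_simp
    rw [sM]; ring
  · field_simp
    have : (g 0 * g 1) ^ 2 + nM g ^ 2 * nM g ^ 2 + (g 1 * g 2) ^ 2 = nN g ^ 2 * nM g ^ 2 := by
      rw [sN', sM]; ring
    nlinarith
  · field_simp; ring
  · field_simp; ring
  · field_simp; ring
  · field_simp; linarith

/-- composition of orthonormal frames -/
theorem ortho_comp {e r : Fin 3 → V3} (he : Ortho e) (hr : Ortho r) :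
    Ortho fun i => r i 0 • e 0 + r i 1 • e 1 + r i 2 • e 2 := by
  intro i j
  have h1 := hr i j
  have e00 := he 0 0
  have e01 := he 0 1
  have e02 := he 0 2
  have e10 := he 1 0
  have e11 := he 1 1
  have e12 := he 1 2
  have e20 := he 2 0
  have e21 := he 2 1
  have e22 := he 2 2
  simp only [if_true, Fin.isValue, Fin.reduceEq, if_false] at e00 e01 e02 e10 e11 e12 e20 e21 e22
  simp only [dt_add, dt_smul, add_dt, smul_dt, e00, e01, e02, e10, e11, e12, e20, e21, e22]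
  rw [← h1]
  simp only [dt]
  ring

theorem pf_ortho {e : Fin 3 → V3} {c : Ln4} {q : ℝ → V3 → ℝ} {z : ℝ} (he : Ortho e)
    (h : 1 / 2 ≤ gd e c q z 0) : Ortho (pf e c q z) := ortho_comp he (rot3_ortho h)

/-- coordinates in the plank frame -/
theorem dt_pf (e : Fin 3 → V3) (c : Ln4) (q : ℝ → V3 → ℝ) (z : ℝ) (i : Fin 3) (y : V3) :
    dt (pf e c q z i) y = rot3 (gd e c q z) i 0 * dt (e 0) y + rot3 (gd e c q z) i 1 * dt (e 1) y +
      rot3 (gd e c q z) i 2 * dt (e 2) y := by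
  unfold pf
  simp only [add_dt, smul_dt]

/-- the normal coordinate -/
theorem dt_pf0 (e : Fin 3 → V3) (c : Ln4) (q : ℝ → V3 → ℝ) (z : ℝ) (y : V3) :
    dt (pf e c q z 0) y = dt (nv e c q z) y / nN (gd e c q z) := by
  rw [dt_pf]
  simp only [rot3, nv, Matrix.cons_val, add_dt, smul_dt]
  ring

/-- **sizes in the plank frame** -/
theorem pf_size {e : Fin 3 → V3} {c : Ln4} {q : ℝ → V3 → ℝ} {z κ X0 X1 X2 X : ℝ} {y : V3}
    (g0 : 1 / 2 ≤ gd e c q z 0) (g1 : |gd e c q z 1| ≤ κ) (h0 : |dt (e 0) y| ≤ X0)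
    (h1 : |dt (e 1) y| ≤ X1) (h2 : |dt (e 2) y| ≤ X2) (hn : |dt (nv e c q z) y| ≤ X) :
    |dt (pf e c q z 0) y| ≤ 2 * X ∧ |dt (pf e c q z 1) y| ≤ X1 + 2 * κ * (X0 + X2) ∧
      |dt (pf e c q z 2) y| ≤ X0 + X2 := by
  set g := gd e c q z with hg
  have hM := nM_ge g0
  have hM0 : 0 < nM g := by linarith
  have hMN := nM_le_nN g
  have hN0 : 0 < nN g := by linarith
  have hN : 1 / 2 ≤ nN g := by linarith
  have a0 := abs_g0_le g
  have a2 := abs_g2_le g
  have x0 : 0 ≤ X0 := (abs_nonneg _).trans h0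
  have x1 : 0 ≤ X1 := (abs_nonneg _).trans h1
  have x2 : 0 ≤ X2 := (abs_nonneg _).trans h2
  have xx : 0 ≤ X := (abs_nonneg _).trans hn
  have k0 : 0 ≤ κ := (abs_nonneg _).trans g1
  have m2 : ∀ {a b u w : ℝ}, |a| ≤ u → |b| ≤ w → |a * b| ≤ u * w := by
    intro a b u w ha hb
    rw [abs_mul]
    exact mul_le_mul ha hb (abs_nonneg _) ((abs_nonneg _).trans ha)
  refine ⟨?_, ?_, ?_⟩
  · rw [dt_pf0, abs_div, abs_of_pos hN0, div_le_iff₀ hN0]
    nlinarith
  · rw [dt_pf]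
    have r0 : |rot3 g 1 0| ≤ 2 * κ := by
      have e1 : rot3 g 1 0 = -(g 0 * g 1) / (nN g * nM g) := rfl
      rw [e1, abs_div, abs_neg, abs_mul, abs_of_pos (mul_pos hN0 hM0), div_le_iff₀ (mul_pos hN0 hM0)]
      calc |g 0| * |g 1| ≤ nM g * κ := mul_le_mul a0 g1 (abs_nonneg _) hM0.le
        _ ≤ 2 * κ * (nN g * nM g) := by
          have : 0 ≤ κ * nM g := mul_nonneg k0 hM0.le
          nlinarith
    have r2 : |rot3 g 1 2| ≤ 2 * κ := by
      have e1 : rot3 g 1 2 = -(g 1 * g 2) / (nN g * nM g) := rfl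
      rw [e1, abs_div, abs_neg, abs_mul, abs_of_pos (mul_pos hN0 hM0), div_le_iff₀ (mul_pos hN0 hM0)]
      calc |g 1| * |g 2| ≤ κ * nM g := mul_le_mul g1 a2 (abs_nonneg _) k0
        _ ≤ 2 * κ * (nN g * nM g) := by
          have : 0 ≤ κ * nM g := mul_nonneg k0 hM0.le
          nlinarith
    have r1 : |rot3 g 1 1| ≤ 1 := by
      have e1 : rot3 g 1 1 = nM g / nN g := rfl
      rw [e1, abs_div, abs_of_pos hM0, abs_of_pos hN0, div_le_one hN0]
      exact hMN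
    have b := (abs_add_le _ _).trans (add_le_add ((abs_add_le _ _).trans
      (add_le_add (m2 r0 h0) (m2 r1 h1))) (m2 r2 h2))
    refine b.trans (le_of_eq ?_)
    ring
  · rw [dt_pf]
    have r0 : |rot3 g 2 0| ≤ 1 := by
      have e1 : rot3 g 2 0 = -g 2 / nM g := rfl
      rw [e1, abs_div, abs_neg, abs_of_pos hM0, div_le_one hM0]
      exact a2
    have r2 : |rot3 g 2 2| ≤ 1 := by
      have e1 : rot3 g 2 2 = g 0 / nM g := rfl
      rw [e1, abs_div, abs_of_pos hM0, div_le_one hM0]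
      exact a0
    have r1 : rot3 g 2 1 = 0 := rfl
    rw [r1, zero_mul, add_zero]
    have b := (abs_add_le _ _).trans (add_le_add (m2 r0 h0) (m2 r2 h2))
    refine b.trans (le_of_eq ?_)
    ring

/-- **two lines of a flat sheet in the plank frame** (thickness, wide, narrow) -/
theorem plank_of_flat {e : Fin 3 → V3} {c : Ln4} {w : V3} {q : ℝ → V3 → ℝ} {a z0 ρ r0 K : ℝ}
    (h : ShN e c w q a z0 ρ r0) (ha : 0 < a) (hρ : 0 ≤ ρ) (hf : Flt e c w q a z0 ρ K) {t t' : Ln4}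
    (ht : InSheet t e c w q a z0 ρ) (ht' : InSheet t' e c w q a z0 ρ) {z : ℝ} (h0 : z0 ≤ z)
    (h1 : z ≤ z0 + ρ) :
    |dt (pf e c q (z0 + ρ / 2) 0) (t'.pos z - t.pos z)| ≤ 4 * (K + 1) * a ∧
    |dt (pf e c q (z0 + ρ / 2) 1) (t'.pos z - t.pos z)| ≤ 10 * w 1 ∧
    |dt (pf e c q (z0 + ρ / 2) 2) (t'.pos z - t.pos z)| ≤ 4 * w 2 := by
  obtain ⟨g0, -, g1, -⟩ := gd_bounds h ha (z := z0 + ρ / 2) (by linarith) (by linarith)
  have hw := w_pos h ha
  obtain ⟨i1, i2⟩ := ht z h0 h1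
  obtain ⟨i1', i2'⟩ := ht' z h0 h1
  have hy : ∀ i, |dt (e i) (t'.pos z - t.pos z)| ≤ 2 * w i := by
    intro i
    have e1 : t'.pos z - t.pos z = (t'.pos z - c.pos z) - (t.pos z - c.pos z) := by abel
    rw [e1, dt_sub]
    have := (abs_sub _ _).trans (add_le_add (i1' i) (i1 i))
    linarith
  have hn : |dt (nv e c q (z0 + ρ / 2)) (t'.pos z - t.pos z)| ≤ 2 * (K + 1) * a := by
    have f1 := hf z h0 h1 (t.pos z - c.pos z) (fun i => (i1 i).trans (by have := hw i; linarith))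
    have f2 := hf z h0 h1 (t'.pos z - c.pos z) (fun i => (i1' i).trans (by have := hw i; linarith))
    have e1 : c.pos z + (t.pos z - c.pos z) = t.pos z := by abel
    have e2 : c.pos z + (t'.pos z - c.pos z) = t'.pos z := by abel
    rw [e1] at f1
    rw [e2] at f2
    have e3 : t'.pos z - t.pos z = (t'.pos z - c.pos z) - (t.pos z - c.pos z) := by abel
    rw [e3, dt_sub]
    rw [abs_le] at f1 f2 i2 i2' ⊢
    constructor <;> linarith [f1.1, f1.2, f2.1, f2.2, i2.1, i2.2, i2'.1, i2'.2]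
  have k0 : |dt (e 0) (t'.pos z - t.pos z)| ≤ 2 * w 2 := by
    have := hy 0
    have h02 := h.w0_le
    linarith
  obtain ⟨p0, p1, p2⟩ := pf_size g0 g1 k0 (hy 1) (hy 2) hn
  refine ⟨p0.trans (by linarith), p1.trans ?_, p2.trans (by linarith)⟩
  have w1 := hw 1
  have w2 := hw 2
  have e1 : 2 * (w 2 / w 1) * (2 * w 2 + 2 * w 2) ≤ 8 * w 2 := by
    have : w 2 / w 1 ≤ 1 := (div_le_one w1).2 h.w_le
    nlinarith
  have := h.w_le
  linarith

/-- the wide axis of the plank and the wide axis of the sheet -/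
theorem pf1_e {e : Fin 3 → V3} {c : Ln4} {w : V3} {q : ℝ → V3 → ℝ} {a z0 ρ r0 : ℝ}
    (h : ShN e c w q a z0 ρ r0) (ha : 0 < a) (hρ : 0 ≤ ρ) :
    |dt (pf e c q (z0 + ρ / 2) 1) (e 0)| ≤ 2 * (w 2 / w 1) ∧
    |dt (pf e c q (z0 + ρ / 2) 1) (e 2)| ≤ 2 * (w 2 / w 1) ∧
    1 / 3 ≤ dt (pf e c q (z0 + ρ / 2) 1) (e 1) := by
  obtain ⟨g0, g0', g1, g2⟩ := gd_bounds h ha (z := z0 + ρ / 2) (by linarith) (by linarith)
  set g := gd e c q (z0 + ρ / 2) with hg
  have hM := nM_ge g0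
  have hM0 : 0 < nM g := by linarith
  have hMN := nM_le_nN g
  have hN0 : 0 < nN g := by linarith
  have hN : 1 / 2 ≤ nN g := by linarith
  have a0 := abs_g0_le g
  have a2 := abs_g2_le g
  have hw := w_pos h ha
  have kk : w 2 / w 1 ≤ 1 := (div_le_one (hw 1)).2 h.w_le
  have k0 : 0 ≤ w 2 / w 1 := div_nonneg (hw 2).le (hw 1).le
  have o := h.ortho
  refine ⟨?_, ?_, ?_⟩
  · rw [dt_pf, o 0 0, o 1 0, o 2 0]
    simp only [if_true, Fin.isValue, Fin.reduceEq, if_false, mul_one, mul_zero, add_zero]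
    have e1 : rot3 g 1 0 = -(g 0 * g 1) / (nN g * nM g) := rfl
    rw [← hg, e1, abs_div, abs_neg, abs_mul, abs_of_pos (mul_pos hN0 hM0),
      div_le_iff₀ (mul_pos hN0 hM0)]
    calc |g 0| * |g 1| ≤ nM g * (w 2 / w 1) := mul_le_mul a0 g1 (abs_nonneg _) hM0.le
      _ ≤ 2 * (w 2 / w 1) * (nN g * nM g) := by
        have : 0 ≤ (w 2 / w 1) * nM g := mul_nonneg k0 hM0.le
        nlinarith
  · rw [dt_pf, o 0 2, o 1 2, o 2 2]
    simp only [if_true, Fin.isValue, Fin.reduceEq, if_false, mul_one, mul_zero, add_zero, zero_add]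
    have e1 : rot3 g 1 2 = -(g 1 * g 2) / (nN g * nM g) := rfl
    rw [← hg, e1, abs_div, abs_neg, abs_mul, abs_of_pos (mul_pos hN0 hM0),
      div_le_iff₀ (mul_pos hN0 hM0)]
    calc |g 1| * |g 2| ≤ (w 2 / w 1) * nM g := mul_le_mul g1 a2 (abs_nonneg _) k0
      _ ≤ 2 * (w 2 / w 1) * (nN g * nM g) := by
        have : 0 ≤ (w 2 / w 1) * nM g := mul_nonneg k0 hM0.le
        nlinarith
  · rw [dt_pf, o 0 1, o 1 1, o 2 1]
    simp only [if_true, Fin.isValue, Fin.reduceEq, if_false, mul_one, mul_zero, add_zero, zero_add]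
    have e1 : rot3 g 1 1 = nM g / nN g := rfl
    rw [← hg, e1, le_div_iff₀ hN0]
    have s1 := nM_sq g
    have s2 := nN_sq g
    have g1' : g 1 ^ 2 ≤ 1 := by
      rw [← sq_abs]
      have : |g 1| ≤ 1 := g1.trans kk
      exact pow_le_one₀ (abs_nonneg _) this
    by_contra hc
    push Not at hc
    nlinarith [mul_pos hN0 hN0]

/-! ### the marks of `J1` -/

/-- the mark of level `v` of the incidence `x` -/
noncomputable def mkS (D : Dat4) (n : ℕ) (v : ℚ) (x : ℕ × ℝ) : Plk4 :=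
  D.b n v (D.f n v x.1 (zc (D.lev n v) x.2))

/-- the mark of level `v` of `x` is flat up to the factor `K` -/
def FltM (D : Dat4) (K : ℝ) (n : ℕ) (v : ℚ) (x : ℕ × ℝ) : Prop :=
  Flt (mkS D n v x).e (mkS D n v x).c (mkS D n v x).w (mkS D n v x).q (mkS D n v x).a
    (zl (D.lev n v) (zc (D.lev n v) x.2)) (rho (D.lev n v)) K

/-- **THICK**: outside negligible sets the marks of every level are flat up to `d^(-ε)` -/
def ThickM (D : Dat4) : Prop :=
  ∀ v : ℚ, 0 ≤ v → v ≤ 1 → ∀ ε : ℝ, 0 < ε →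
    Negl D.B D.I fun n x => ¬ FltM D (D.B.d n ^ (-ε)) n v x

/-- **flat marks** (strong form: all labels) -/
def FlatMk (D : Dat4) : Prop :=
  ∀ (n : ℕ) (v : ℚ) (i : ℕ) (z : ℝ) (x : V3),
    (D.b n v i).q z x = dt ((D.b n v i).e 0) (x - (D.b n v i).c.pos z)

/-- **flat tilt**, all six entries of the transition matrix of the frames of the marks -/
def TiltF (D : Dat4) : Prop :=
  ∃ C : ℝ, 0 ≤ C ∧ ∀ u v : ℚ, 0 ≤ u → u < v → v ≤ 1 → ∀ ε : ℝ, 0 < ε →
    Negl D.B D.I fun n x => ¬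
      ((|dt ((mkS D n u x).e 1) ((mkS D n v x).e 2)| ≤
          max (D.w 2 n u / D.w 1 n u) (D.w 2 n v / D.w 1 n v) *
            D.B.d n ^ (-(C * ((v : ℝ) - u)) - ε) ∧
        |dt ((mkS D n u x).e 2) ((mkS D n v x).e 1)| ≤
          max (D.w 2 n u / D.w 1 n u) (D.w 2 n v / D.w 1 n v) *
            D.B.d n ^ (-(C * ((v : ℝ) - u)) - ε)) ∧
       (|dt ((mkS D n u x).e 0) ((mkS D n v x).e 2)| ≤
          max (D.w 0 n u / D.w 2 n u) (D.w 0 n v / D.w 2 n v) *
            D.B.d n ^ (-(C * ((v : ℝ) - u)) - ε) ∧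
        |dt ((mkS D n u x).e 2) ((mkS D n v x).e 0)| ≤
          max (D.w 0 n u / D.w 2 n u) (D.w 0 n v / D.w 2 n v) *
            D.B.d n ^ (-(C * ((v : ℝ) - u)) - ε)) ∧
       (|dt ((mkS D n u x).e 0) ((mkS D n v x).e 1)| ≤
          max (D.w 0 n u / D.w 1 n u) (D.w 0 n v / D.w 1 n v) *
            D.B.d n ^ (-(C * ((v : ℝ) - u)) - ε) ∧
        |dt ((mkS D n u x).e 1) ((mkS D n v x).e 0)| ≤
          max (D.w 0 n u / D.w 1 n u) (D.w 0 n v / D.w 1 n v) *
            D.B.d n ^ (-(C * ((v : ℝ) - u)) - ε)))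

end Crest.Agent.R136.Ut262
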