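import Crest.Agent.R136.Fw3_808
import Crest.Agent.R136.Ut0_262

/-!
# R136 (S0187): g-free flat tilt for `J1c` (helper808)

`tiltF_G' : FlatFree → J1c η p D → (two-sided D-max of D) → FlatMk D → TiltF D`.
-/

set_option autoImplicit false
set_option linter.unusedVariables false
set_option linter.unusedSectionVars false

namespace Crest.Agent.R136.Fl808

open Finset Filter Topology Crest.Agent.R136.Sh605
open Crest.Agent.R138.Ex926 (Base U)
open Crest.Agent.R138.Dp76 (Dense dpow_pos dpow_add dpow_le dpow_le_one)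
open Crest.Agent.R138.Mk163 (zc zl rho alive own Negl)
open Crest.Agent.R136.K4 (Plk4)
open Crest.Agent.R136.MkA627
open Crest.Agent.R136.Top484 (geo4 Par4 Dat4 J1 J1c Rng)

theorem geoOk_geo4' (L : ℕ → ℕ → Ln4) (r0 : ℕ → ℝ) (wr cr : Fin 3 → ℕ → ℝ) (q : Fin 3 → ℝ) :
    GeoOk (geo4 L r0 wr cr q) L r0 q :=
  ⟨fun _ _ _ _ _ h => h, fun n i J s h => ⟨h.1, h.2.1⟩, fun _ _ _ _ => rfl, fun _ _ => rfl⟩

/-- the exponents of `DAl879.Ex2` are admissible -/
theorem qmOk_of {η : ℝ} {qm qp : Fin 3 → ℝ} (h : DAl879.Ex2 η qm qp) : QmOk qm qp :=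
  ⟨fun k => (h.le k).1, fun k => (h.le k).2, h.pos, h.e02, h.e1⟩

/-- **flat tilt of the extremal sequence, g-free** -/
theorem tiltF_G' (hFF : FlatFree) {η : ℝ} {p : Par4} {D : Dat4} (h : J1c η p D)
    (hd : ∃ qm qp : Fin 3 → ℝ, DAl879.Ex2 η qm qp ∧
      DAl879.DAll D.B D.I D.L D.lev D.A p.g p.q D.r0 D.w qm qp)
    (hF : Ut262.FlatMk D) : Ut262.TiltF D := by
  obtain ⟨qm, qp, hex, hall⟩ := hd
  have hq0 : 0 ≤ p.q 0 := by
    have := h.q0.1
    linarith
  have hq1 : 0 ≤ p.q 1 := by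
    have := h.g0.2
    linarith
  have hq2 : 0 ≤ p.q 2 := by
    have := h.q2.1
    linarith
  obtain ⟨C, hC, hall⟩ := tilt_dall (q := p.q) hFF h.mka
    (geoOk_geo4' D.L D.r0 D.wr D.cr p.q) h.r0pos h.r0log
    (fun v h0 h1 => Eventually.of_forall fun n c t ht z x => hF n v _ z x) (qmOk_of hex) hall
    h.g0.1.le (fun i => by
      fin_cases i
      · exact hq0
      · exact hq1
      · exact hq2)
  exact ⟨C, hC, fun u v hu huv hv ε hε => hall u v hu huv hv ε hε⟩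

end Crest.Agent.R136.Fl808
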