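import Crest.Agent.R136.GW5_650
import Crest.Agent.R136.PrW3_464

/-!
# R136, GEO-R in the W-chart (helper650), part 7: the units of 464's W-wrapper

`unW_sizeW` : the natural sizes in graded units; `hsz_gr` : they are `d ^ grW ζ χ ν`;
`gR_couW` : field `gR` of `PreQ` for `PrW464.couW` and the path `PrW464.pathW θ w0`.
-/

set_option autoImplicit false
set_option linter.unusedVariables false

open Finset Filter Topology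

namespace Crest.Agent.R136.GW650

open Crest.Agent.R138.Ex926 (Base U)
open Crest.Agent.R138.Mk163 (zc zl rho alive)
open Crest.Agent.R138.MkRef627 (lc kc)
open Crest.Agent.R138.Dp76 (dpow_pos dpow_add dpow_le dpow_le_one)
open Crest.Agent.R136.Sh605
open Crest.Agent.R136.Net191
open Crest.Agent.R136.NetW191
open Crest.Agent.R136.PrW464 (unW unW_pos grW wz wc wn couW chartW_un BigW)
open Crest.Agent.R136.PqG464 (wtW)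

/-- natural flag precisions -/
noncomputable def natPr (ρ wA wB a : ℝ) (k : Fin 14) : ℝ := a / sz3 ρ wA wB k

/-- natural sizes in graded units -/
theorem unW_sizeW {uz uc un ρ wA wB a : ℝ} (hz : 0 < uz) (hc : 0 < uc) (hn : 0 < un) (hρ : 0 < ρ)
    (hA : 0 < wA) (hB : 0 < wB) (k : Fin 18) :
    unW uz uc un k * sizeW ρ wA wB a (fun k => a / sz3 ρ wA wB k) k =
      sizeW (uz * ρ) (uz * uc * wA) (uz * uc ^ 2 * wB) (un * a)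
        (fun k => un * a / sz3 (uz * ρ) (uz * uc * wA) (uz * uc ^ 2 * wB) k) k := by
  have z0 := hz.ne'
  have c0 := hc.ne'
  have r0 := hρ.ne'
  have A0 := hA.ne'
  have B0 := hB.ne'
  refine Fin.addCases (m := 4) (n := 14) (fun j => ?_) (fun j => ?_) k
  · unfold sizeW
    rw [Fin.append_left, Fin.append_left]
    fin_cases j
    · show uz ^ (1 : ℤ) * uc ^ (0 : ℤ) * un ^ (0 : ℤ) * ρ = uz * ρ
      simp
    · show uz ^ (0 : ℤ) * uc ^ (1 : ℤ) * un ^ (0 : ℤ) * (wA / ρ) = uz * uc * wA / (uz * ρ)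
      simp only [zpow_zero, zpow_one]
      field_simp
    · show uz ^ (1 : ℤ) * uc ^ (1 : ℤ) * un ^ (0 : ℤ) * wA = uz * uc * wA
      simp
    · show uz ^ (1 : ℤ) * uc ^ (2 : ℤ) * un ^ (0 : ℤ) * wB = uz * uc ^ 2 * wB
      simp only [zpow_zero, zpow_one, mul_one]
      norm_cast
  · unfold sizeW
    rw [Fin.append_right, Fin.append_right]
    have e2 : ∀ x : ℝ, x ^ (-2 : ℤ) = (x ^ 2)⁻¹ := fun x => by
      rw [zpow_neg]; norm_cast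
    have e3 : ∀ x : ℝ, x ^ (-3 : ℤ) = (x ^ 3)⁻¹ := fun x => by
      rw [zpow_neg]; norm_cast
    have e4 : ∀ x : ℝ, x ^ (-4 : ℤ) = (x ^ 4)⁻¹ := fun x => by
      rw [zpow_neg]; norm_cast
    have e1 : ∀ x : ℝ, x ^ (-1 : ℤ) = x⁻¹ := fun x => zpow_neg_one x
    have z : ∀ x : ℝ, x ^ (0 : ℤ) = 1 := fun x => zpow_zero x
    have o : ∀ x : ℝ, x ^ (1 : ℤ) = x := fun x => zpow_one x
    fin_cases j
    · show uz ^ (-4 : ℤ) * uc ^ (-4 : ℤ) * un ^ (1 : ℤ) * (a / (ρ * wB) ^ 2) =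
        un * a / (uz * ρ * (uz * uc ^ 2 * wB)) ^ 2
      rw [e4, e4, o]; field_simp
    · show uz ^ (-3 : ℤ) * uc ^ (-4 : ℤ) * un ^ (1 : ℤ) * (a / (wB * (ρ * wB))) =
        un * a / (uz * uc ^ 2 * wB * (uz * ρ * (uz * uc ^ 2 * wB)))
      rw [e3, e4, o]; field_simp
    · show uz ^ (-3 : ℤ) * uc ^ (-3 : ℤ) * un ^ (1 : ℤ) * (a / (wA * (ρ * wB))) =
        un * a / (uz * uc * wA * (uz * ρ * (uz * uc ^ 2 * wB)))
      rw [e3, e3, o]; field_simp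
    · show uz ^ (-2 : ℤ) * uc ^ (-4 : ℤ) * un ^ (1 : ℤ) * (a / wB ^ 2) =
        un * a / (uz * uc ^ 2 * wB) ^ 2
      rw [e2, e4, o]; field_simp
    · show uz ^ (-3 : ℤ) * uc ^ (-2 : ℤ) * un ^ (1 : ℤ) * (a / (ρ * (ρ * wB))) =
        un * a / (uz * ρ * (uz * ρ * (uz * uc ^ 2 * wB)))
      rw [e3, e2, o]; field_simp
    · show uz ^ (-2 : ℤ) * uc ^ (-3 : ℤ) * un ^ (1 : ℤ) * (a / (wA * wB)) =
        un * a / (uz * uc * wA * (uz * uc ^ 2 * wB))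
      rw [e2, e3, o]; field_simp
    · show uz ^ (-2 : ℤ) * uc ^ (-2 : ℤ) * un ^ (1 : ℤ) * (a / wA ^ 2) =
        un * a / (uz * uc * wA) ^ 2
      rw [e2, e2, o]; field_simp
    · show uz ^ (-2 : ℤ) * uc ^ (-2 : ℤ) * un ^ (1 : ℤ) * (a / (ρ * wB)) =
        un * a / (uz * ρ * (uz * uc ^ 2 * wB))
      rw [e2, e2, o]; field_simp
    · show uz ^ (-2 : ℤ) * uc ^ (-1 : ℤ) * un ^ (1 : ℤ) * (a / (ρ * wA)) =
        un * a / (uz * ρ * (uz * uc * wA))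
      rw [e2, e1, o]; field_simp
    · show uz ^ (-2 : ℤ) * uc ^ (0 : ℤ) * un ^ (1 : ℤ) * (a / ρ ^ 2) = un * a / (uz * ρ) ^ 2
      rw [e2, z, o]; field_simp
    · show uz ^ (-1 : ℤ) * uc ^ (-2 : ℤ) * un ^ (1 : ℤ) * (a / wB) = un * a / (uz * uc ^ 2 * wB)
      rw [e1, e2, o]; field_simp
    · show uz ^ (-1 : ℤ) * uc ^ (-1 : ℤ) * un ^ (1 : ℤ) * (a / wA) = un * a / (uz * uc * wA)
      rw [e1, e1, o]; field_simp
    · show uz ^ (-1 : ℤ) * uc ^ (0 : ℤ) * un ^ (1 : ℤ) * (a / ρ) = un * a / (uz * ρ)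
      rw [e1, z, o]; field_simp
    · show uz ^ (0 : ℤ) * uc ^ (0 : ℤ) * un ^ (1 : ℤ) * a = un * a
      rw [z, z, o]; ring

/-- the exponents of a natural box in the two notations -/
theorem bW_gr {ζ χ ν : ℝ} (hζ : ζ ≠ 0) (k : Fin 18) :
    pathW 0 ((ζ + χ) / ζ) ((ζ + 2 * χ) / ζ) (ν / ζ) ζ k = grW ζ χ ν k := by
  fin_cases k <;> simp only [pathW, bW, grW, wz, wc, wn, Matrix.cons_val, Fin.zero_eta,
    Fin.mk_one, Fin.reduceFinMk] <;> push_cast <;> field_simp <;> ring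

/-- **natural sizes in graded units, exponents** -/
theorem hsz_gr {B : Base} {ζ χ ν : ℝ} (hζ : 0 < ζ) {uz uc un ρ wA wB a : ℕ → ℝ}
    (hz : ∀ n, 0 < uz n) (hc : ∀ n, 0 < uc n) (hn : ∀ n, 0 < un n)
    (eρ : ∀ ε : ℝ, 0 < ε → ∀ᶠ n in (U : Filter ℕ), B.d n ^ (ζ + ε) ≤ uz n * ρ n ∧
      uz n * ρ n ≤ B.d n ^ (ζ - ε))
    (eA : ∀ ε : ℝ, 0 < ε → ∀ᶠ n in (U : Filter ℕ), B.d n ^ (ζ + χ + ε) ≤ uz n * uc n * wA n ∧
      uz n * uc n * wA n ≤ B.d n ^ (ζ + χ - ε))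
    (eB : ∀ ε : ℝ, 0 < ε → ∀ᶠ n in (U : Filter ℕ),
      B.d n ^ (ζ + 2 * χ + ε) ≤ uz n * uc n ^ 2 * wB n ∧
      uz n * uc n ^ 2 * wB n ≤ B.d n ^ (ζ + 2 * χ - ε))
    (ea : ∀ ε : ℝ, 0 < ε → ∀ᶠ n in (U : Filter ℕ), 0 < a n ∧ un n * a n ≤ B.d n ^ (ν - ε))
    {ε : ℝ} (hε : 0 < ε) :
    ∀ᶠ n in (U : Filter ℕ), ∀ k, unW (uz n) (uc n) (un n) k *
      sizeW (ρ n) (wA n) (wB n) (a n) (fun k => a n / sz3 (ρ n) (wA n) (wB n) k) k ≤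
        B.d n ^ (grW ζ χ ν k - ε) := by
  have z0 := hζ.ne'
  have h := hsz_nat (B := B) (w0 := 0) (α := (ζ + χ) / ζ) (β := (ζ + 2 * χ) / ζ) (ν := ν / ζ)
    (u := ζ) (ρ := fun n => uz n * ρ n) (wA := fun n => uz n * uc n * wA n)
    (wB := fun n => uz n * uc n ^ 2 * wB n) (a := fun n => un n * a n) eρ
    (fun ε hε => by rw [div_mul_cancel₀ _ z0]; exact eA ε hε)
    (fun ε hε => by rw [div_mul_cancel₀ _ z0]; exact eB ε hε)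
    (fun ε hε => by
      rw [div_mul_cancel₀ _ z0]
      filter_upwards [ea ε hε] with n h using ⟨mul_pos (hn n) h.1, h.2⟩) hε
  filter_upwards [h, eρ 1 one_pos, eA 1 one_pos, eB 1 one_pos] with n h h1 h2 h3 k
  have r0 : 0 < ρ n := (mul_pos_iff_of_pos_left (hz n)).1 ((dpow_pos B n _).trans_le h1.1)
  have A0 : 0 < wA n := (mul_pos_iff_of_pos_left (mul_pos (hz n) (hc n))).1
    ((dpow_pos B n _).trans_le h2.1)
  have B0 : 0 < wB n := (mul_pos_iff_of_pos_left (mul_pos (hz n) (pow_pos (hc n) 2))).1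
    ((dpow_pos B n _).trans_le h3.1)
  have h4 := h k
  rw [bW_gr z0, Real.rpow_zero, one_pow, one_mul, ← unW_sizeW (hz n) (hc n) (hn n) r0 A0 B0] at h4
  exact h4

/-- **field `gR` of `PreQ`, literally, for 464's chart and path** -/
theorem gR_couW {B : Base} {I : ℕ → Finset (ℕ × ℝ)} {lev : ℕ → ℚ → ℕ}
    {f : ℕ → ℚ → ℕ → ℤ → ℕ} {kp σ : ℕ → ℝ} (hκ : ∀ n, |kp n| ≤ 1)
    {F : ℕ → ℕ × ℝ → FW} {L : ℕ → ℕ → Ln4} {z0 : ℕ → ℚ → ℤ → ℝ}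
    {ρ wA wB a : ℕ → ℚ → ℝ}
    {Mk : ℚ → ℕ → ℕ × ℤ → Fin 14 → ℝ} {E : ℚ → ℕ → ℕ × ℤ → ℝ}
    (h : ∀ u : ℚ, 0 ≤ u → u ≤ 1 → MarkW B I lev f u kp σ F L (fun n => z0 n u) (fun n => ρ n u)
      (Mk u) (E u) (fun n => wA n u) (fun n => wB n u) (fun n => a n u)
      (fun n k => a n u / sz3 (ρ n u) (wA n u) (wB n u) k))
    (hσ0 : ∀ᶠ n in (U : Filter ℕ), 0 < σ n)
    (hσ : ∀ M : ℝ, ∀ᶠ n in (U : Filter ℕ), σ n ≤ B.d n ^ M)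
    {uz uc un : ℕ → ℝ} (hz : ∀ n, 0 < uz n) (hc : ∀ n, 0 < uc n) (hn : ∀ n, 0 < un n)
    {θ : Fin 3 → ℝ} {w0 R T : ℝ} (hb : BigW θ w0 R T)
    (eρ : ∀ u : ℚ, 0 ≤ u → u ≤ 1 → ∀ ε : ℝ, 0 < ε → ∀ᶠ n in (U : Filter ℕ),
      B.d n ^ (w0 + u + ε) ≤ uz n * ρ n u ∧ uz n * ρ n u ≤ B.d n ^ (w0 + u - ε))
    (eA : ∀ u : ℚ, 0 ≤ u → u ≤ 1 → ∀ ε : ℝ, 0 < ε → ∀ᶠ n in (U : Filter ℕ),
      B.d n ^ (2 * w0 + (1 - θ 1) * u + ε) ≤ uz n * uc n * wA n u ∧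
        uz n * uc n * wA n u ≤ B.d n ^ (2 * w0 + (1 - θ 1) * u - ε))
    (eB : ∀ u : ℚ, 0 ≤ u → u ≤ 1 → ∀ ε : ℝ, 0 < ε → ∀ᶠ n in (U : Filter ℕ),
      B.d n ^ (3 * w0 + (1 - 2 * θ 1) * u + ε) ≤ uz n * uc n ^ 2 * wB n u ∧
        uz n * uc n ^ 2 * wB n u ≤ B.d n ^ (3 * w0 + (1 - 2 * θ 1) * u - ε))
    (ea : ∀ u : ℚ, 0 ≤ u → u ≤ 1 → ∀ ε : ℝ, 0 < ε → ∀ᶠ n in (U : Filter ℕ),
      0 < a n u ∧ un n * a n u ≤ B.d n ^ (9 * w0 + (1 - θ 0) * u - ε)) :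
    ∀ u : ℚ, 0 ≤ u → u ≤ 1 → ∀ ε : ℝ, 0 < ε → ∀ᶠ n in (U : Filter ℕ), ∀ x ∈ I n, ∀ y ∈ I n,
      kc (lev n u) (f n u) y = kc (lev n u) (f n u) x → ∀ k,
        |couW kp uz uc un F n x y k| ≤ B.d n ^ (PrW464.pathW θ w0 u k - ε) := by
  intro u u0 u1 ε hε
  have v0 : (0 : ℝ) ≤ u := by exact_mod_cast u0
  have v1 : (u : ℝ) ≤ 1 := by exact_mod_cast u1
  have hw := hb.w0pos
  have hζ : (0 : ℝ) < w0 + u := by linarith
  exact gR_W (h u u0 u1) hσ0 hσ (un := fun n k => unW (uz n) (uc n) (un n) k)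
    (fun n k => unW_pos (hz n) (hc n) (hn n) k)
    (C := 67) (fun n J => chartW_un J (fun i => i) (hκ n) (hz n) (hc n) (hn n))
    (hb.path_leg v0 v1).1 one_pos (fun k => hb.path_ge v0 v1 k)
    (fun ε hε => by
      refine hsz_gr (ζ := w0 + u) (χ := w0 - θ 1 * u) (ν := 9 * w0 + (1 - θ 0) * u) hζ hz hc hn
        (eρ u u0 u1) (fun ε hε => ?_) (fun ε hε => ?_) (ea u u0 u1) hε
      · rw [show w0 + (u : ℝ) + (w0 - θ 1 * u) = 2 * w0 + (1 - θ 1) * u by ring]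
        exact eA u u0 u1 ε hε
      · rw [show w0 + (u : ℝ) + 2 * (w0 - θ 1 * u) = 3 * w0 + (1 - 2 * θ 1) * u by ring]
        exact eB u u0 u1 ε hε) hε

end Crest.Agent.R136.GW650
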