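import Crest.Agent.R136.GW6_650
import Crest.Agent.R136.GW7_650
import Crest.Agent.R136.TD4_627

/-!
# R136, GEO-R in the W-chart (helper650), part 8: `TSys` of the W-chart from the marks

* `sizeW_unW` : a box with `wB ~ wA ^ 2 / ρ` has the graded sizes `unW ρ (wA / ρ) a`;
* `MarkW.closeU`, `MarkW.classU` : `GW6` with the graded sizes;
* `prL`, `prLin_gr`, `prodT_gr` : the graded precisions are linear and multiplicative;
* `clsW`, `tsysW` : the marks of all levels give 627's slot data.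
-/

set_option autoImplicit false
set_option linter.unusedVariables false

open Finset Filter Topology

namespace Crest.Agent.R136.GW650

open Crest.Agent.R138.Ex926 (Base U)
open Crest.Agent.R138.Mk163 (zc zl rho alive)
open Crest.Agent.R138.MkRef627 (lc kc)
open Crest.Agent.R138.Dp76 (dpow_pos dpow_add dpow_le dpow_le_one)
open Crest.Agent.R138.ArgM163 (ev_const)
open Crest.Agent.R136.Sh605
open Crest.Agent.R136.Net191
open Crest.Agent.R136.NetW191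
open Crest.Agent.R136.MkA627
open Crest.Agent.R136.ArgA163 (PrLin tau_zero log_rho rho_pos)
open Crest.Agent.R136.TD627
open Crest.Agent.R136.PrW464 (unW unW_pos unW_mon grW btW wz wc wn tdW tdW_d)

theorem sz3_mono {r α β β' : ℝ} (hr : 0 < r) (ha : 0 < α) (hb : 0 < β) (h : β ≤ β') (k : Fin 14) :
    sz3 r α β k ≤ sz3 r α β' k := by
  have hb' : 0 ≤ β' := hb.le.trans h
  fin_cases k <;> simp only [sz3, Matrix.cons_val, Fin.zero_eta, Fin.mk_one, Fin.reduceFinMk] <;>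
    first | exact le_rfl | gcongr

theorem sz3_scale {e r α β : ℝ} (he : 1 ≤ e) (hr : 0 < r) (ha : 0 < α) (hb : 0 < β) (k : Fin 14) :
    sz3 r α (e * β) k ≤ e ^ 2 * sz3 r α β k := by
  have e2 : e ≤ e ^ 2 := by nlinarith
  have e1 : 1 ≤ e ^ 2 := by nlinarith
  have key1 : ∀ x y : ℝ, 0 ≤ y → x = e * y → x ≤ e ^ 2 * y := fun x y hy h => by
    rw [h]; exact mul_le_mul_of_nonneg_right e2 hy
  have key0 : ∀ y : ℝ, 0 ≤ y → y ≤ e ^ 2 * y := fun y hy => le_mul_of_one_le_left hy e1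
  fin_cases k
  · show (r * (e * β)) ^ 2 ≤ e ^ 2 * (r * β) ^ 2
    exact le_of_eq (by ring)
  · show e * β * (r * (e * β)) ≤ e ^ 2 * (β * (r * β))
    exact le_of_eq (by ring)
  · show α * (r * (e * β)) ≤ e ^ 2 * (α * (r * β))
    exact key1 _ _ (by positivity) (by ring)
  · show (e * β) ^ 2 ≤ e ^ 2 * β ^ 2
    exact le_of_eq (by ring)
  · show r * (r * (e * β)) ≤ e ^ 2 * (r * (r * β))
    exact key1 _ _ (by positivity) (by ring)
  · show α * (e * β) ≤ e ^ 2 * (α * β)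
    exact key1 _ _ (by positivity) (by ring)
  · show α ^ 2 ≤ e ^ 2 * α ^ 2
    exact key0 _ (by positivity)
  · show r * (e * β) ≤ e ^ 2 * (r * β)
    exact key1 _ _ (by positivity) (by ring)
  · show r * α ≤ e ^ 2 * (r * α)
    exact key0 _ (by positivity)
  · show r ^ 2 ≤ e ^ 2 * r ^ 2
    exact key0 _ (by positivity)
  · show e * β ≤ e ^ 2 * β
    exact key1 _ _ (by positivity) (by ring)
  · show α ≤ e ^ 2 * α
    exact key0 _ (by positivity)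
  · show r ≤ e ^ 2 * r
    exact key0 _ (by positivity)
  · show (1 : ℝ) ≤ e ^ 2 * 1
    linarith

/-- natural sizes, `B = A ^ 2 / z` -/
theorem unW_nat {ρ wA a : ℝ} (hρ : 0 < ρ) (hA : 0 < wA) (ha : 0 < a) (k : Fin 18) :
    unW ρ (wA / ρ) a k =
      sizeW ρ wA (wA ^ 2 / ρ) a (fun k => a / sz3 ρ wA (wA ^ 2 / ρ) k) k := by
  have h := unW_sizeW (uz := ρ) (uc := wA / ρ) (un := a) (ρ := 1) (wA := 1) (wB := 1) (a := 1) hρ
    (div_pos hA hρ) ha one_pos one_pos one_pos k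
  have e1 : sizeW 1 1 1 1 (fun k => 1 / sz3 1 1 1 k) k = 1 := by
    refine Fin.addCases (m := 4) (n := 14) (fun j => ?_) (fun j => ?_) k
    · unfold sizeW; rw [Fin.append_left]; fin_cases j <;> simp
    · unfold sizeW; rw [Fin.append_right]; fin_cases j <;> simp [sz3]
  have r0 := hρ.ne'
  have h1 : ρ * (wA / ρ) = wA := by field_simp
  have h2 : ρ * (wA / ρ) ^ 2 = wA ^ 2 / ρ := by field_simp
  rw [e1, mul_one, mul_one, mul_one, mul_one, mul_one, h1, h2] at h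
  exact h

/-- **balanced boxes have graded sizes** -/
theorem sizeW_unW {e ρ wA wB a : ℝ} (he : 1 ≤ e) (hρ : 0 < ρ) (hA : 0 < wA) (hB : 0 < wB)
    (ha : 0 < a) (h1 : wA ^ 2 / ρ ≤ e * wB) (h2 : wB ≤ e * (wA ^ 2 / ρ)) (k : Fin 18) :
    sizeW ρ wA wB a (fun k => a / sz3 ρ wA wB k) k ≤ e ^ 2 * unW ρ (wA / ρ) a k := by
  have hβ : 0 < wA ^ 2 / ρ := by positivity
  have e2 : e ≤ e ^ 2 := by nlinarith
  have e1 : 1 ≤ e ^ 2 := by nlinarith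
  have key0 : ∀ y : ℝ, 0 ≤ y → y ≤ e ^ 2 * y := fun y hy => le_mul_of_one_le_left hy e1
  rw [unW_nat hρ hA ha]
  refine Fin.addCases (m := 4) (n := 14) (fun j => ?_) (fun j => ?_) k
  · unfold sizeW
    rw [Fin.append_left, Fin.append_left]
    fin_cases j
    · show ρ ≤ e ^ 2 * ρ
      exact key0 _ hρ.le
    · show wA / ρ ≤ e ^ 2 * (wA / ρ)
      exact key0 _ (div_pos hA hρ).le
    · show wA ≤ e ^ 2 * wA
      exact key0 _ hA.le
    · show wB ≤ e ^ 2 * (wA ^ 2 / ρ)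
      exact h2.trans (mul_le_mul_of_nonneg_right e2 hβ.le)
  · have hs : ∀ k, a / sz3 ρ wA wB k ≤ e ^ 2 * (a / sz3 ρ wA (wA ^ 2 / ρ) k) := fun k => by
      have p1 := sz3_pos hρ hA hB k
      have p2 := sz3_pos hρ hA hβ k
      have h3 : sz3 ρ wA (wA ^ 2 / ρ) k ≤ e ^ 2 * sz3 ρ wA wB k :=
        (sz3_mono hρ hA hβ h1 k).trans (sz3_scale he hρ hA hB k)
      rw [← mul_div_assoc, div_le_div_iff₀ p1 p2]
      nlinarith [mul_le_mul_of_nonneg_left h3 ha.le]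
    unfold sizeW
    rw [Fin.append_right, Fin.append_right]
    fin_cases j
    · exact hs 0
    · exact hs 1
    · exact hs 2
    · exact hs 3
    · exact hs 4
    · exact hs 5
    · exact hs 6
    · exact hs 7
    · exact hs 8
    · show a / ρ ^ 2 ≤ e ^ 2 * (a / ρ ^ 2)
      exact key0 _ (by positivity)
    · exact hs 10
    · exact hs 11
    · show a / ρ ≤ e ^ 2 * (a / ρ)
      exact key0 _ (by positivity)
    · show a ≤ e ^ 2 * a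
      exact key0 _ ha.le

/-- sequence form of `sizeW_unW` -/
theorem size_gr {B : Base} {ρ wA wB a : ℕ → ℝ} (hρ : ∀ᶠ n in (U : Filter ℕ), 0 < ρ n)
    (hA : ∀ᶠ n in (U : Filter ℕ), 0 < wA n) (hB : ∀ᶠ n in (U : Filter ℕ), 0 < wB n)
    (ha : ∀ᶠ n in (U : Filter ℕ), 0 < a n)
    (bal : ∀ ε : ℝ, 0 < ε → ∀ᶠ n in (U : Filter ℕ), wA n ^ 2 / ρ n ≤ wB n * B.d n ^ (-ε) ∧
      wB n ≤ wA n ^ 2 / ρ n * B.d n ^ (-ε)) {ε : ℝ} (hε : 0 < ε) :
    ∀ᶠ n in (U : Filter ℕ), ∀ k, sizeW (ρ n) (wA n) (wB n) (a n)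
      (fun k => a n / sz3 (ρ n) (wA n) (wB n) k) k ≤
        unW (ρ n) (wA n / ρ n) (a n) k * B.d n ^ (-ε) := by
  have e2 : 0 < ε / 2 := by positivity
  filter_upwards [hρ, hA, hB, ha, bal _ e2] with n r0 A0 B0 a0 hb k
  have he : 1 ≤ B.d n ^ (-(ε / 2)) := by
    have := dpow_le B n (show -(ε / 2) ≤ (0 : ℝ) by linarith)
    rwa [Real.rpow_zero] at this
  refine (sizeW_unW he r0 A0 B0 a0 (by rw [mul_comm]; exact hb.1)
    (by rw [mul_comm]; exact hb.2) k).trans (le_of_eq ?_)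
  rw [sq, ← dpow_add, mul_comm]
  congr 2; ring

/-! ### the graded precisions -/

/-- precision of the coordinate `k` at level `v`, from height `ρ`, wide width `wA`, thickness `a` -/
noncomputable def prG (ρ wA a : ℕ → ℚ → ℝ) (k : Fin 18) (n : ℕ) (v : ℚ) : ℝ :=
  unW (ρ n v) (wA n v / ρ n v) (a n v) k

theorem log_unW {uz uc un : ℝ} (hz : 0 < uz) (hc : 0 < uc) (hn : 0 < un) (k : Fin 18) :
    Real.log (unW uz uc un k) =
      (wz k : ℝ) * Real.log uz + (wc k : ℝ) * Real.log uc + (wn k : ℝ) * Real.log un := by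
  unfold unW
  rw [Real.log_mul (mul_pos (zpow_pos hz _) (zpow_pos hc _)).ne' (zpow_pos hn _).ne',
    Real.log_mul (zpow_pos hz _).ne' (zpow_pos hc _).ne', Real.log_zpow, Real.log_zpow,
    Real.log_zpow]

/-- exponent of a width relative to level `0` -/
def Lin (B : Base) (x : ℕ → ℚ → ℝ) (β : ℝ) : Prop :=
  (∀ v : ℚ, 0 ≤ v → v ≤ 1 → ∀ᶠ n in (U : Filter ℕ), 0 < x n v) ∧
  ∀ v : ℚ, 0 ≤ v → v ≤ 1 →
    Tendsto (fun n => (Real.log (x n 0) - Real.log (x n v)) / B.L n) U (𝓝 (β * v))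

/-- **the graded precisions are linear** -/
theorem prLin_gr {B : Base} {ρ wA a : ℕ → ℚ → ℝ} {χ ν : ℝ} (hρ : Lin B ρ 1)
    (hA : Lin B wA (1 + χ)) (ha : Lin B a ν) (k : Fin 18) :
    PrLin B (prG ρ wA a) k (grW 1 χ ν k) := by
  refine ⟨fun v h0 h1 => ?_, fun v h0 h1 => ?_⟩
  · filter_upwards [hρ.1 v h0 h1, hA.1 v h0 h1, ha.1 v h0 h1] with n a1 a2 a3
    exact unW_pos a1 (div_pos a2 a1) a3 k
  · have e1 : grW 1 χ ν k * (v : ℝ) = (wz k : ℝ) * (1 * v) +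
        (wc k : ℝ) * ((1 + χ) * v - 1 * v) + (wn k : ℝ) * (ν * v) := by
      unfold grW; ring
    rw [e1]
    refine ((((hρ.2 v h0 h1).const_mul (wz k : ℝ)).add
      (((hA.2 v h0 h1).sub (hρ.2 v h0 h1)).const_mul (wc k : ℝ))).add
        ((ha.2 v h0 h1).const_mul (wn k : ℝ))).congr' ?_
    filter_upwards [hρ.1 v h0 h1, hA.1 v h0 h1, ha.1 v h0 h1, hρ.1 0 le_rfl zero_le_one,
      hA.1 0 le_rfl zero_le_one, ha.1 0 le_rfl zero_le_one] with n a1 a2 a3 b1 b2 b3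
    unfold prG
    rw [Real.log_div (unW_pos b1 (div_pos b2 b1) b3 k).ne' (unW_pos a1 (div_pos a2 a1) a3 k).ne',
      log_unW b1 (div_pos b2 b1) b3, log_unW a1 (div_pos a2 a1) a3, Real.log_div b2.ne' b1.ne',
      Real.log_div a2.ne' a1.ne']
    ring

/-- **the graded precisions are multiplicative** -/
theorem prod_gr {B : Base} {ρ wA a : ℕ → ℚ → ℝ}
    (hρ : ∀ v : ℚ, 0 ≤ v → v ≤ 1 → ∀ᶠ n in (U : Filter ℕ), 0 < ρ n v)
    (hA : ∀ v : ℚ, 0 ≤ v → v ≤ 1 → ∀ᶠ n in (U : Filter ℕ), 0 < wA n v)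
    (ha : ∀ v : ℚ, 0 ≤ v → v ≤ 1 → ∀ᶠ n in (U : Filter ℕ), 0 < a n v)
    (j : Fin 18) (e : Fin 18 → ℕ) (he : e ∈ monW.mon j) (v : ℚ) (h0 : 0 ≤ v) (h1 : v ≤ 1)
    (ε : ℝ) (hε : 0 < ε) :
    ∀ᶠ n in (U : Filter ℕ), ∏ t, prG ρ wA a t n v ^ e t ≤ prG ρ wA a j n v * B.d n ^ (-ε) := by
  filter_upwards [hρ v h0 h1, hA v h0 h1, ha v h0 h1] with n a1 a2 a3
  have he' : 1 ≤ B.d n ^ (-ε) := by
    have := dpow_le B n (show -ε ≤ (0 : ℝ) by linarith)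
    rwa [Real.rpow_zero] at this
  unfold prG
  rw [unW_mon a1 (div_pos a2 a1) a3 j e he]
  exact le_mul_of_one_le_right (unW_pos a1 (div_pos a2 a1) a3 j).le he'

/-- width of a marked sequence in container units -/
theorem lin_wid {σ' κ' : Type*} {B : Base} {I : ℕ → Finset (ℕ × ℝ)} {G : Geo σ' κ'}
    {lev : ℕ → ℚ → ℕ} {A : ℕ → ℝ} {c Λ : ℝ → ℝ} {θ : κ' → ℝ} {f : ℕ → ℚ → ℕ → ℤ → ℕ}
    {b : ℕ → ℚ → ℕ → σ'} {vm : ℕ → ℚ → ℝ} {w : κ' → ℕ → ℚ → ℝ}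
    (h : MkA B I G lev A c Λ (fun j v => θ j * (1 - v)) f b vm w) (k : κ') {W : ℕ → ℝ}
    (hW : ∀ n, 0 < W n) : Lin B (fun n v => w k n v / W n) (1 - θ k) := by
  refine ⟨fun v h0 h1 => ?_, fun v h0 h1 => (tau_zero h k h0 h1).congr' ?_⟩
  · filter_upwards [h.wpos k v h0 h1] with n a using div_pos a (hW n)
  · filter_upwards [h.wpos k v h0 h1, h.wpos k 0 le_rfl zero_le_one] with n a b
    rw [Real.log_div a.ne' (hW n).ne', Real.log_div b.ne' (hW n).ne']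
    ring

theorem lin_rho {σ' κ' : Type*} {B : Base} {I : ℕ → Finset (ℕ × ℝ)} {G : Geo σ' κ'}
    {lev : ℕ → ℚ → ℕ} {A : ℕ → ℝ} {c Λ : ℝ → ℝ} {τ : κ' → ℝ → ℝ} {f : ℕ → ℚ → ℕ → ℤ → ℕ}
    {b : ℕ → ℚ → ℕ → σ'} {vm : ℕ → ℚ → ℝ} {w : κ' → ℕ → ℚ → ℝ}
    (h : MkA B I G lev A c Λ τ f b vm w) {hz : ℕ → ℝ}
    (hh : ∀ n, 0 < hz n) : Lin B (fun n v => hz n * rho (lev n v)) 1 := by
  refine ⟨fun v h0 h1 => Eventually.of_forall fun n => mul_pos (hh n) (rho_pos _), fun v h0 h1 => ?_⟩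
  have e1 : (1 : ℝ) * (v : ℝ) = (v : ℝ) - (0 : ℚ) := by push_cast; ring
  rw [e1]
  refine (h.lev_lim 0 v le_rfl h0 h1).congr' (Eventually.of_forall fun n => ?_)
  show _ = (Real.log (hz n * rho (lev n 0)) - Real.log (hz n * rho (lev n v))) / B.L n
  rw [Real.log_mul (hh n).ne' (rho_pos _).ne', Real.log_mul (hh n).ne' (rho_pos _).ne', log_rho,
    log_rho]
  ring

/-! ### the slot data -/

section

variable {σ' κ' : Type*} {G : Geo σ' κ'} {B : Base} {I : ℕ → Finset (ℕ × ℝ)} {lev : ℕ → ℚ → ℕ}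
    {A : ℕ → ℝ} {f : ℕ → ℚ → ℕ → ℤ → ℕ} {b : ℕ → ℚ → ℕ → σ'} {vm : ℕ → ℚ → ℝ}
    {w : κ' → ℕ → ℚ → ℝ} {g s : ℝ} {θ : κ' → ℝ} {kp σ : ℕ → ℝ} {F : ℕ → ℕ × ℝ → FW}
    {L : ℕ → ℕ → Ln4} {z0 : ℚ → ℕ → ℤ → ℝ} {ρ wA wB a : ℕ → ℚ → ℝ}
    {Mk : ℚ → ℕ → ℕ × ℤ → Fin 14 → ℝ} {E : ℚ → ℕ → ℕ × ℤ → ℝ}

/-- level flags as functions of the incidence -/
noncomputable def frW (lev : ℕ → ℚ → ℕ) (f : ℕ → ℚ → ℕ → ℤ → ℕ) (Mk : ℚ → ℕ → ℕ × ℤ → Fin 14 → ℝ)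
    (F : ℕ → ℕ × ℝ → FW) (n : ℕ) (v : ℚ) (x : ℕ × ℝ) : FW :=
  mkS (Mk v n (kc (lev n v) (f n v) x)) (F n x)

/-- **the marks of all rational levels in normal coordinates** -/
structure MarksW (B : Base) (I : ℕ → Finset (ℕ × ℝ)) (lev : ℕ → ℚ → ℕ)
    (f : ℕ → ℚ → ℕ → ℤ → ℕ) (kp σ : ℕ → ℝ) (F : ℕ → ℕ × ℝ → FW) (L : ℕ → ℕ → Ln4)
    (z0 : ℚ → ℕ → ℤ → ℝ) (ρ wA wB a : ℕ → ℚ → ℝ) (Mk : ℚ → ℕ → ℕ × ℤ → Fin 14 → ℝ)
    (E : ℚ → ℕ → ℕ × ℤ → ℝ) : Prop where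
  kp1 : ∀ n, |kp n| ≤ 1
  σ0 : ∀ᶠ n in (U : Filter ℕ), 0 < σ n
  σ1 : ∀ M : ℝ, ∀ᶠ n in (U : Filter ℕ), σ n ≤ B.d n ^ M
  mark : ∀ v : ℚ, 0 ≤ v → v ≤ 1 → MarkW B I lev f v kp σ F L (z0 v) (fun n => ρ n v) (Mk v) (E v)
    (fun n => wA n v) (fun n => wB n v) (fun n => a n v)
    (fun n k => a n v / sz3 (ρ n v) (wA n v) (wB n v) k)
  /-- balance: `wB = wA ^ 2 / ρ` up to `d ^ (± ε)` -/
  bal : ∀ v : ℚ, 0 ≤ v → v ≤ 1 → ∀ ε : ℝ, 0 < ε → ∀ᶠ n in (U : Filter ℕ),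
    wA n v ^ 2 / ρ n v ≤ wB n v * B.d n ^ (-ε) ∧ wB n v ≤ wA n v ^ 2 / ρ n v * B.d n ^ (-ε)

theorem MarksW.size (h : MarksW B I lev f kp σ F L z0 ρ wA wB a Mk E) {v : ℚ} (h0 : 0 ≤ v)
    (h1 : v ≤ 1) {ε : ℝ} (hε : 0 < ε) : ∀ᶠ n in (U : Filter ℕ), ∀ k,
      sizeW (ρ n v) (wA n v) (wB n v) (a n v)
        (fun k => a n v / sz3 (ρ n v) (wA n v) (wB n v) k) k ≤
        prG ρ wA a k n v * B.d n ^ (-ε) := by
  have hm := h.mark v h0 h1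
  obtain ⟨C, hC⟩ := hm.low
  exact size_gr (B := B) hm.ρ0 hm.A0
    (hC.mono fun n hn => (dpow_pos B n C).trans_le hn.2)
    (hC.mono fun n hn => (dpow_pos B n C).trans_le hn.1) (h.bal v h0 h1) hε

/-- **`TSys.close` in graded precisions** -/
theorem MarksW.close (h : MarksW B I lev f kp σ F L z0 ρ wA wB a Mk E) {v : ℚ} (h0 : 0 ≤ v)
    (h1 : v ≤ 1) {ε : ℝ} (hε : 0 < ε) : ∀ᶠ n in (U : Filter ℕ), ∀ x ∈ I n, ∀ k,
      |coW (kp n) (F n x) (frW lev f Mk F n v x) k| ≤ prG ρ wA a k n v * B.d n ^ (-ε) := by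
  have e2 : 0 < ε / 2 := by positivity
  filter_upwards [(h.mark v h0 h1).closeT h.σ0 h.σ1 e2, h.size h0 h1 e2] with n h1 h2 x hx k
  calc _ ≤ _ := h1 x hx k
    _ ≤ (prG ρ wA a k n v * B.d n ^ (-(ε / 2))) * B.d n ^ (-(ε / 2)) :=
        mul_le_mul_of_nonneg_right (h2 k) (dpow_pos B n _).le
    _ = _ := by rw [mul_assoc, ← dpow_add]; congr 2; ring

/-- **464's predicate `cls`: level flags of one class** -/
theorem MarksW.cls (h : MarksW B I lev f kp σ F L z0 ρ wA wB a Mk E) {v : ℚ} (h0 : 0 ≤ v)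
    (h1 : v ≤ 1) {ε : ℝ} (hε : 0 < ε) : ∀ᶠ n in (U : Filter ℕ), ∀ x ∈ I n, ∀ y ∈ I n,
      kc (lev n v) (f n v) y = kc (lev n v) (f n v) x → ∀ k,
      |coW (kp n) (frW lev f Mk F n v x) (frW lev f Mk F n v y) k| ≤
        prG ρ wA a k n v * B.d n ^ (-ε) := by
  have e2 : 0 < ε / 2 := by positivity
  filter_upwards [(h.mark v h0 h1).classT h.σ0 h.σ1 e2, h.size h0 h1 e2] with n h1 h2 x hx y hy
    hxy k
  calc _ ≤ _ := h1 x hx y hy hxy k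
    _ ≤ (prG ρ wA a k n v * B.d n ^ (-(ε / 2))) * B.d n ^ (-(ε / 2)) :=
        mul_le_mul_of_nonneg_right (h2 k) (dpow_pos B n _).le
    _ = _ := by rw [mul_assoc, ← dpow_add]; congr 2; ring

/-- **the slot data of the W-chart** -/
theorem tsysW
    (hM : MkA B I G lev A (fun v => g * v) (fun v => s * v) (fun j v => θ j * (1 - v)) f b vm w)
    (h : MarksW B I lev f kp σ F L z0 ρ wA wB a Mk E) {χ ν : ℝ} (hρ : Lin B ρ 1)
    (hA : Lin B wA (1 + χ)) (ha : Lin B a ν) :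
    TSys (tdW kp h.kp1) G g s θ (grW 1 χ ν) B I lev A f b vm w (frW lev f Mk F) (prG ρ wA a) F
      (ps (prG ρ wA a) 0) where
  mka := hM
  scpos := ps_pos (prG ρ wA a) 0
  prpos := fun j => (prLin_gr hρ hA ha j).1
  prc := fun j v h0 h1 => by
    refine ((prLin_gr hρ hA ha j).2 v h0 h1).congr' ?_
    filter_upwards [(prLin_gr hρ hA ha j).1 0 le_rfl zero_le_one] with n hn
    rw [ps_eq hn]
  cell := fun j v h0 h1 ε hε => by
    filter_upwards [h.cls h0 h1 hε] with n hn x hx y hy hxy hz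
    rw [tdW_d]
    refine hn x hx y hy ?_ j
    unfold kc
    rw [hxy, hz]
  close := fun j v h0 h1 ε hε => by
    filter_upwards [h.close h0 h1 hε] with n hn x hx
    rw [tdW_d]
    exact hn x hx j
  wpr := fun j e he v h0 h1 ε hε => prod_gr hρ.1 hA.1 ha.1 j e he v h0 h1 ε hε

end

end Crest.Agent.R136.GW650
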