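import Crest.Agent.R136.TwL1_327
import Crest.Agent.R136.GW8_650

/-!
# R136, U6 thin (helper327): closeness of the level sheets, sequence form ⊢ 650's input TILT

* `lin_two` : two-sided power bounds from `GW650.Lin`;
* `ClW` : closeness of the sheets of two levels on the box of the finer level;
* **`tiltW`** : the flag slots of the difference.
-/

set_option autoImplicit false
set_option linter.unusedVariables false

open Finset Filter Topology

namespace Crest.Agent.R136.Tn327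

open Crest.Agent.R138.Ex926 (Base U)
open Crest.Agent.R138.Mk163 (zc zl rho alive Negl)
open Crest.Agent.R138.MkRef627 (lc kc)
open Crest.Agent.R138.Dp76 (dpow_pos dpow_add dpow_le dpow_le_one)
open Crest.Agent.R138.ArgM163 (ev_const ev_const_mul)
open Crest.Agent.R136.Sh605
open Crest.Agent.R136.NetW191
open Crest.Agent.R136.GeoW778
open Crest.Agent.R136.GW650 (Lin prG)
open Crest.Agent.R136.FlW464 (frW drW)
open Crest.Agent.R136.PrW464 (unW unW_pos)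

/-- two-sided power bounds from a linear exponent -/
theorem lin_two {B : Base} {x : ℕ → ℚ → ℝ} {β : ℝ} (h : Lin B x β) {u v : ℚ} (hu0 : 0 ≤ u)
    (hu1 : u ≤ 1) (hv0 : 0 ≤ v) (hv1 : v ≤ 1) {ε : ℝ} (hε : 0 < ε) :
    ∀ᶠ n in (U : Filter ℕ), 0 < x n u ∧ 0 < x n v ∧
      x n u * B.d n ^ (β * ((v : ℝ) - u) + ε) ≤ x n v ∧
      x n v ≤ x n u * B.d n ^ (β * ((v : ℝ) - u) - ε) := by
  have hl : Tendsto (fun n => (Real.log (x n u) - Real.log (x n v)) / B.L n) U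
      (𝓝 (β * ((v : ℝ) - u))) := by
    have e1 : β * ((v : ℝ) - u) = β * v - β * u := by ring
    rw [e1]
    refine ((h.2 v hv0 hv1).sub (h.2 u hu0 hu1)).congr' (Eventually.of_forall fun n => ?_)
    show _ = _
    rw [← sub_div]
    congr 1
    ring
  have h1 := hl.eventually (lt_mem_nhds (show β * ((v : ℝ) - u) - ε < β * ((v : ℝ) - u) by linarith))
  have h2 := hl.eventually (gt_mem_nhds (show β * ((v : ℝ) - u) < β * ((v : ℝ) - u) + ε by linarith))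
  filter_upwards [h1, h2, h.1 u hu0 hu1, h.1 v hv0 hv1] with n a1 a2 pu pv
  have L0 := B.L_pos n
  rw [lt_div_iff₀ L0] at a1
  rw [div_lt_iff₀ L0] at a2
  have eL : B.L n = - Real.log (B.d n) := rfl
  have key : ∀ s : ℝ, x n u * B.d n ^ s = Real.exp (Real.log (x n u) - s * B.L n) := by
    intro s
    rw [Real.exp_sub, Real.exp_log pu, Real.rpow_def_of_pos (B.pos n), div_eq_mul_inv,
      ← Real.exp_neg, eL]
    congr 2
    ring
  refine ⟨pu, pv, ?_, ?_⟩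
  · rw [key]
    conv_rhs => rw [← Real.exp_log pv]
    refine Real.exp_le_exp.2 ?_
    linarith
  · rw [key]
    conv_lhs => rw [← Real.exp_log pv]
    refine Real.exp_le_exp.2 ?_
    linarith

theorem wn_right (k : Fin 14) : PrW464.wn (Fin.natAdd 4 k) = 1 := by
  fin_cases k <;> rfl

theorem wz_right (k : Fin 14) : -4 ≤ PrW464.wz (Fin.natAdd 4 k) := by
  fin_cases k <;> decide

/-- flag sizes under shrinking -/
theorem unW_shrink {uz uc un s t : ℝ} (hz : 0 < uz) (hc : 0 < uc) (hn : 0 < un) (hs : 0 < s)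
    (hs1 : s ≤ 1) (ht : 0 ≤ t) (k : Fin 14) :
    unW (uz * s) uc (un * t) (Fin.natAdd 4 k) ≤
      s ^ (-4 : ℤ) * t * unW uz uc un (Fin.natAdd 4 k) := by
  unfold unW
  rw [wn_right, zpow_one, zpow_one, mul_zpow]
  have h1 : s ^ PrW464.wz (Fin.natAdd 4 k) ≤ s ^ (-4 : ℤ) :=
    zpow_le_zpow_right_of_le_one₀ hs hs1 (wz_right k)
  have h2 : 0 < uz ^ PrW464.wz (Fin.natAdd 4 k) := zpow_pos hz _
  have h3 : 0 < uc ^ PrW464.wc (Fin.natAdd 4 k) := zpow_pos hc _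
  calc uz ^ PrW464.wz (Fin.natAdd 4 k) * s ^ PrW464.wz (Fin.natAdd 4 k) *
        uc ^ PrW464.wc (Fin.natAdd 4 k) * (un * t) =
        s ^ PrW464.wz (Fin.natAdd 4 k) * (uz ^ PrW464.wz (Fin.natAdd 4 k) *
        uc ^ PrW464.wc (Fin.natAdd 4 k) * (un * t)) := by ring
    _ ≤ s ^ (-4 : ℤ) * (uz ^ PrW464.wz (Fin.natAdd 4 k) *
        uc ^ PrW464.wc (Fin.natAdd 4 k) * (un * t)) :=
        mul_le_mul_of_nonneg_right h1 (by positivity)
    _ = _ := by ring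

/-- **closeness of the sheets of two levels** on the box `|z| ≤ ρ`, `|A| ≤ wA`, `|B| ≤ wA ^ 2 / ρ` of
the finer level (shrunk by `d ^ ε`), in the frame of the line at the height `zm v n x` (middle of the
cell of the finer level) -/
def ClW (B : Base) (I : ℕ → Finset (ℕ × ℝ)) (lev : ℕ → ℚ → ℕ) (f : ℕ → ℚ → ℕ → ℤ → ℕ)
    (kp : ℕ → ℝ) (L : ℕ → ℕ → Ln4) (zm : ℚ → ℕ → ℕ × ℝ → ℝ) (ρ wA a : ℕ → ℚ → ℝ)
    (Mk : ℚ → ℕ → ℕ × ℤ → Fin 14 → ℝ) : Prop :=
  ∃ C : ℝ, ∀ u v : ℚ, 0 ≤ u → u < v → v ≤ 1 → ∀ ε : ℝ, 0 < ε → Negl B I fun n x =>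
    ¬ CloseW (kp n) (frW (L n x.1) (zm v n x)) (ρ n v * B.d n ^ ε) (wA n v * B.d n ^ ε)
      (wA n v ^ 2 / ρ n v * B.d n ^ ε)
      (max (a n u) (a n v) * B.d n ^ (-(C * ((v : ℝ) - u)) - ε))
      (Mk v n (kc (lev n v) (f n v) x)) (Mk u n (kc (lev n u) (f n u) x))

/-- **650's TILT from the closeness of the level sheets** -/
theorem tiltW {B : Base} {I : ℕ → Finset (ℕ × ℝ)} {lev : ℕ → ℚ → ℕ} {f : ℕ → ℚ → ℕ → ℤ → ℕ}
    {kp : ℕ → ℝ} {L : ℕ → ℕ → Ln4} {zh : ℕ → ℕ × ℝ → ℝ} {zm : ℚ → ℕ → ℕ × ℝ → ℝ}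
    {ρ wA a : ℕ → ℚ → ℝ} {Mk : ℚ → ℕ → ℕ × ℤ → Fin 14 → ℝ} {χ ν : ℝ}
    (hκ : ∀ n, |kp n| ≤ 1) (hρ : Lin B ρ 1) (hA : Lin B wA (1 + χ)) (ha : Lin B a ν)
    (hz : ∀ v : ℚ, 0 ≤ v → v ≤ 1 → ∀ᶠ n in (U : Filter ℕ), ∀ x ∈ I n,
      |zh n x - zm v n x| ≤ ρ n v)
    (hd : ∀ v : ℚ, 0 ≤ v → v ≤ 1 → ∀ᶠ n in (U : Filter ℕ), ∀ x ∈ I n,
      |drW (kp n) (L n x.1)| * ρ n v ≤ wA n v ^ 2 / ρ n v)
    (h : ClW B I lev f kp L zm ρ wA a Mk) :
    ∃ C : ℝ, ∀ k : Fin 14, k ≠ 9 → k ≠ 12 → k ≠ 13 → ∀ u v : ℚ, 0 ≤ u → u < v → v ≤ 1 →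
      ∀ ε : ℝ, 0 < ε → Negl B I fun n x =>
        max (prG ρ wA a (Fin.natAdd 4 k) n u) (prG ρ wA a (Fin.natAdd 4 k) n v) *
            B.d n ^ (-(C * ((v : ℝ) - u)) - ε) ≤
          |tr (kp n) (frW (L n x.1) (zh n x))
            (Mk v n (kc (lev n v) (f n v) x) - Mk u n (kc (lev n u) (f n u) x)) k| := by
  obtain ⟨C, hC⟩ := h
  refine ⟨C + |ν|, fun k _ _ _ u v u0 uv v1 ε hε => ?_⟩
  set η : ℝ := ε / 16 with hη
  have η0 : 0 < η := by positivity
  have u1 : u ≤ 1 := (uv.trans_le v1).le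
  have v0 : 0 ≤ v := u0.trans uv.le
  have uv' : (0 : ℝ) < (v : ℝ) - u := by
    have : (u : ℝ) < v := by exact_mod_cast uv
    linarith
  refine (hC u v u0 uv v1 η η0).mono ?_
  filter_upwards [lin_two ha u0 u1 v0 v1 η0, hρ.1 v v0 v1, hA.1 v v0 v1, hz v v0 v1, hd v v0 v1,
    ev_const_mul B (show (0 : ℝ) < 470 * 6 ^ 7 by norm_num) (η := η) η0] with n ha1 r0 A0 hz1 hd1
    hc x hx
  obtain ⟨au, av, a2, -⟩ := ha1
  intro hbad hcl
  have dp := dpow_pos B n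
  have hη' := dp η
  set s := B.d n ^ η with hs
  have s1 : s ≤ 1 := dpow_le_one B n η0.le
  have si : s * B.d n ^ (-η) = 1 := by rw [hs, ← dpow_add]; simp
  have sK : 1 ≤ B.d n ^ (-η) := by
    have := dpow_le B n (show -η ≤ (0 : ℝ) by linarith)
    rwa [Real.rpow_zero] at this
  have hr : 0 < ρ n v * s := mul_pos r0 hη'
  have hα : 0 < wA n v * s := mul_pos A0 hη'
  have eβ : (wA n v * s) ^ 2 / (ρ n v * s) = wA n v ^ 2 / ρ n v * s := by
    field_simp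
  have ec : wA n v * s / (ρ n v * s) = wA n v / ρ n v := by
    field_simp
  have hc0 : 0 < wA n v / ρ n v := div_pos A0 r0
  rw [← eβ] at hcl
  have main := slots_of_close' (hκ n) (L n x.1) (K := 6 * B.d n ^ (-η)) (zh := zh n x) hr hα
    (by linarith) hcl
    (by
      calc |zh n x - zm v n x| ≤ ρ n v := hz1 x hx
        _ ≤ 6 * ρ n v := by linarith
        _ = 6 * B.d n ^ (-η) * (ρ n v * s) := by linear_combination -(6 * ρ n v) * si)
    (by
      rw [eβ, abs_mul]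
      have p0 : 0 < wA n v ^ 2 / ρ n v := by positivity
      calc |drW (kp n) (L n x.1)| * |zh n x - zm v n x| ≤ |drW (kp n) (L n x.1)| * ρ n v :=
            mul_le_mul_of_nonneg_left (hz1 x hx) (abs_nonneg _)
        _ ≤ wA n v ^ 2 / ρ n v := hd1 x hx
        _ ≤ 6 * (wA n v ^ 2 / ρ n v) := by linarith
        _ = 6 * B.d n ^ (-η) * (wA n v ^ 2 / ρ n v * s) := by
            linear_combination -(6 * (wA n v ^ 2 / ρ n v)) * si) k
  rw [ec] at main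
  -- the closeness parameter in terms of the thickness of the finer level
  have hau : a n u ≤ a n v * B.d n ^ (-(|ν| * ((v : ℝ) - u)) - η) := by
    have e1 : B.d n ^ (ν * ((v : ℝ) - u) + η) * B.d n ^ (-(ν * ((v : ℝ) - u)) - η) = 1 := by
      rw [← dpow_add, show ν * ((v : ℝ) - u) + η + (-(ν * ((v : ℝ) - u)) - η) = 0 by ring,
        Real.rpow_zero]
    calc a n u = a n u * B.d n ^ (ν * ((v : ℝ) - u) + η) *
          B.d n ^ (-(ν * ((v : ℝ) - u)) - η) := by rw [mul_assoc, e1, mul_one]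
      _ ≤ a n v * B.d n ^ (-(ν * ((v : ℝ) - u)) - η) :=
          mul_le_mul_of_nonneg_right a2 (dp _).le
      _ ≤ _ := mul_le_mul_of_nonneg_left (dpow_le B n (by
          have := mul_le_mul_of_nonneg_right (le_abs_self ν) uv'.le
          linarith)) av.le
  have hav : a n v ≤ a n v * B.d n ^ (-(|ν| * ((v : ℝ) - u)) - η) := by
    refine le_mul_of_one_le_right av.le ?_
    have := dpow_le B n (show -(|ν| * ((v : ℝ) - u)) - η ≤ (0 : ℝ) by
      have := mul_nonneg (abs_nonneg ν) uv'.le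
      linarith)
    rwa [Real.rpow_zero] at this
  have hmax := max_le hau hav
  have hD : max (a n u) (a n v) * B.d n ^ (-(C * ((v : ℝ) - u)) - η) ≤
      a n v * B.d n ^ (-((C + |ν|) * ((v : ℝ) - u)) - 2 * η) := by
    calc _ ≤ a n v * B.d n ^ (-(|ν| * ((v : ℝ) - u)) - η) *
          B.d n ^ (-(C * ((v : ℝ) - u)) - η) := mul_le_mul_of_nonneg_right hmax (dp _).le
      _ = _ := by
          rw [mul_assoc, ← dpow_add]
          congr 2
          ring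
  set P := unW (ρ n v) (wA n v / ρ n v) (a n v) (Fin.natAdd 4 k) with hP
  have P0 : 0 < P := unW_pos r0 hc0 av _
  set t := B.d n ^ (-((C + |ν|) * ((v : ℝ) - u)) - 2 * η) with ht
  have t0 : 0 < t := dp _
  have D0 : 0 < max (a n u) (a n v) * B.d n ^ (-(C * ((v : ℝ) - u)) - η) :=
    mul_pos (lt_max_of_lt_left au) (dp _)
  have hP2 : unW (ρ n v * s) (wA n v / ρ n v)
      (max (a n u) (a n v) * B.d n ^ (-(C * ((v : ℝ) - u)) - η)) (Fin.natAdd 4 k) ≤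
      s ^ (-4 : ℤ) * t * P := by
    refine le_trans ?_ (unW_shrink r0 hc0 av hη' s1 t0.le k)
    unfold unW
    rw [wn_right, zpow_one, zpow_one]
    exact mul_le_mul_of_nonneg_left hD (mul_pos (zpow_pos hr _) (zpow_pos hc0 _)).le
  have e4 : s ^ (-4 : ℤ) = B.d n ^ (-(4 * η)) := by
    rw [hs, ← Real.rpow_intCast, ← Real.rpow_mul (B.pos n).le]
    congr 1
    push_cast
    ring
  have e7 : (B.d n ^ (-η)) ^ 7 = B.d n ^ (-(7 * η)) := by
    rw [← Real.rpow_natCast, ← Real.rpow_mul (B.pos n).le]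
    congr 1
    push_cast
    ring
  have hb1 : P * B.d n ^ (-((C + |ν|) * ((v : ℝ) - u)) - ε) ≤
      470 * (6 * B.d n ^ (-η)) ^ 7 * (s ^ (-4 : ℤ) * t * P) := by
    calc P * B.d n ^ (-((C + |ν|) * ((v : ℝ) - u)) - ε) ≤
          max (prG ρ wA a (Fin.natAdd 4 k) n u) (prG ρ wA a (Fin.natAdd 4 k) n v) *
            B.d n ^ (-((C + |ν|) * ((v : ℝ) - u)) - ε) :=
          mul_le_mul_of_nonneg_right (le_max_right _ _) (dp _).le
      _ ≤ _ := hbad
      _ ≤ _ := main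
      _ ≤ _ := mul_le_mul_of_nonneg_left hP2 (by have := dp (-η); positivity)
  have e5 : 470 * (6 * B.d n ^ (-η)) ^ 7 * (s ^ (-4 : ℤ) * t * P) =
      (470 * 6 ^ 7 * s) * B.d n ^ (2 * η) *
        (P * B.d n ^ (-((C + |ν|) * ((v : ℝ) - u)) - ε)) := by
    have e6 : B.d n ^ (-(7 * η)) * (B.d n ^ (-(4 * η)) * t) =
        s * B.d n ^ (2 * η) * B.d n ^ (-((C + |ν|) * ((v : ℝ) - u)) - ε) := by
      rw [hs, ht, ← dpow_add, ← dpow_add, ← dpow_add, ← dpow_add]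
      congr 1
      rw [hη]
      ring
    rw [mul_pow, e7, e4]
    linear_combination (470 * 6 ^ 7 * P) * e6
  rw [e5] at hb1
  set X := P * B.d n ^ (-((C + |ν|) * ((v : ℝ) - u)) - ε) with hX
  have X0 : 0 < X := mul_pos P0 (dp _)
  have l2 : B.d n ^ (2 * η) < 1 := Real.rpow_lt_one (B.pos n).le (B.lt n) (by positivity)
  have l3 : 470 * 6 ^ 7 * s * B.d n ^ (2 * η) < 1 :=
    (mul_le_of_le_one_left (dp _).le hc).trans_lt l2
  have l4 : 470 * 6 ^ 7 * s * B.d n ^ (2 * η) * X < 1 * X := mul_lt_mul_of_pos_right l3 X0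
  linarith

end Crest.Agent.R136.Tn327
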