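import Crest.Agent.R136.Fw4_650
import Crest.Agent.R136.TwL2_327

/-!
# R136, flags of the W-chart (helper650), part 5: from the closeness of the sheets

`ThinG.drift`, `tiltG_mono`, **`flags_of_cl`** : `ThinG` + `Tn327.ClW` ⊢ `FlagsW` on a dense part.
-/

set_option autoImplicit false
set_option linter.unusedVariables false

open Finset Filter Topology

namespace Crest.Agent.R136.Fw650

open Crest.Agent.R138.Ex926 (Base U)
open Crest.Agent.R138.Mk163 (zc zl rho alive Negl)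
open Crest.Agent.R138.MkRef627 (lc kc)
open Crest.Agent.R138.Dp76
open Crest.Agent.R136.Sh605
open Crest.Agent.R136.Net191
open Crest.Agent.R136.NetW191
open Crest.Agent.R136.MkA627
open Crest.Agent.R136.GW650
open Crest.Agent.R136.FlW464
open Crest.Agent.R136.Tn327 (ClW tiltW)
open Crest.Agent.R136.PrW464 (unW unW_pos grW wz wc wn tdW tdW_d WData)

section

variable {σ' κ' : Type*} {G : Geo σ' κ'} {B : Base} {I : ℕ → Finset (ℕ × ℝ)} {lev : ℕ → ℚ → ℕ}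
    {A : ℕ → ℝ} {f : ℕ → ℚ → ℕ → ℤ → ℕ} {b : ℕ → ℚ → ℕ → σ'} {vm : ℕ → ℚ → ℝ}
    {w : κ' → ℕ → ℚ → ℝ} {kp σ hz zs : ℕ → ℝ} {L : ℕ → ℕ → Ln4} {wA wB a : ℕ → ℚ → ℝ}
    {Mk : ℚ → ℕ → ℕ × ℤ → Fin 14 → ℝ} {E : ℚ → ℕ → ℕ × ℤ → ℝ}

/-- **the lines are null up to the thickness unit** -/
theorem ThinG.drift (h : ThinG B I lev f kp σ hz zs L wA wB a Mk E) {c Λ : ℝ → ℝ}
    {τ : κ' → ℝ → ℝ} (hM : MkA B I G lev A c Λ τ f b vm w) (M : ℝ) :
    ∀ᶠ n in (U : Filter ℕ), ∀ x ∈ I n, |drW (kp n) (L n x.1)| ≤ B.d n ^ M := by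
  obtain ⟨D, D0, hD⟩ := h.base hM 0 0
  have hw := h.wdata hM 0 0
  filter_upwards [hD, hw.small 10 (-(3 * D)) M (by norm_num)] with n hn hs x hx
  obtain ⟨g1, bz, bL, bG, bfr, bM⟩ := hn
  set Γ := B.d n ^ (-D) with hΓ
  have hσ := h.σ0 n
  have h1 := (flW_true (kp := kp) (zs := zs) (hz := hz) (L := L) (lev := lev) (f := f)
    (Mk := Mk) hσ 0 0 x).drift_bound hσ.le (Γ := Γ) (V := Γ) (bG x hx) (fun k => (bL x hx k).1)
  have e3 : Γ ^ 3 = B.d n ^ (-(3 * D)) := by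
    rw [hΓ, ← Real.rpow_natCast, ← Real.rpow_mul (B.pos n).le]; congr 1; push_cast; ring
  rw [← e3] at hs
  refine le_trans (le_trans (le_of_eq rfl) (h1.trans (mul_le_mul_of_nonneg_left ?_ hσ.le))) hs
  have p2 : Γ ≤ Γ ^ 2 := by nlinarith
  have p3 : Γ ^ 2 ≤ Γ ^ 3 := pow_le_pow_right₀ g1 (by norm_num)
  nlinarith [mul_le_mul_of_nonneg_left p2 (show (0 : ℝ) ≤ Γ by linarith)]

theorem ThinG.drift_box (h : ThinG B I lev f kp σ hz zs L wA wB a Mk E) {c Λ : ℝ → ℝ}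
    {τ : κ' → ℝ → ℝ} (hM : MkA B I G lev A c Λ τ f b vm w) {v : ℚ} (h0 : 0 ≤ v) (h1 : v ≤ 1) :
    ∀ᶠ n in (U : Filter ℕ), ∀ x ∈ I n,
      |drW (kp n) (L n x.1)| * rhN lev hz n v ≤ wA n v ^ 2 / rhN lev hz n v := by
  obtain ⟨C1, hC1⟩ := h.rb
  obtain ⟨C2, hC2⟩ := h.low v h0 h1
  filter_upwards [h.drift hM (C2 + 1 + C1), hC1, hC2, h.bal v h0 h1 1 one_pos,
    rhN_le h.hz0 hM h0 h1] with n hd a1 a2 a3 a4 x hx
  have dp := dpow_pos B n
  have hr := rhN_pos (lev := lev) h.hz0 n v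
  have e1 : B.d n ^ (C2 + 1) ≤ wA n v ^ 2 / rhN lev hz n v := by
    have e2 : B.d n ^ C2 ≤ wA n v ^ 2 / rhN lev hz n v * B.d n ^ (-(1 : ℝ)) := a2.2.trans a3.2
    calc B.d n ^ (C2 + 1) = B.d n ^ C2 * B.d n ^ (1 : ℝ) := dpow_add B n _ _
      _ ≤ wA n v ^ 2 / rhN lev hz n v * B.d n ^ (-(1 : ℝ)) * B.d n ^ (1 : ℝ) :=
          mul_le_mul_of_nonneg_right e2 (dp _).le
      _ = _ := by rw [mul_assoc, ← dpow_add, neg_add_cancel, Real.rpow_zero, mul_one]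
  refine le_trans ?_ e1
  calc |drW (kp n) (L n x.1)| * rhN lev hz n v
      ≤ B.d n ^ (C2 + 1 + C1) * B.d n ^ (-C1) :=
        mul_le_mul (hd x hx) (a4.trans a1.2) hr.le (dp _).le
    _ = B.d n ^ (C2 + 1) := by rw [← dpow_add]; congr 1; ring

theorem tiltG_mono {h : Fin 14 → ℕ → ℚ → ℕ × ℝ → ℝ} {pr : Fin 18 → ℕ → ℚ → ℝ} {C C' : ℝ}
    (hp : ∀ k, ∀ v : ℚ, 0 ≤ v → v ≤ 1 → ∀ᶠ n in (U : Filter ℕ), 0 < pr k n v)
    (hCC : C ≤ C') (hT : TiltG B I h pr C) : TiltG B I h pr C' := by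
  intro k h9 h12 h13 u v h0 huv h1 ε hε
  refine (hT k h9 h12 h13 u v h0 huv h1 ε hε).mono ?_
  filter_upwards [hp (Fin.natAdd 4 k) u h0 (huv.le.trans h1)] with n hn x _ hx
  refine le_trans (mul_le_mul_of_nonneg_left (dpow_le B n ?_)
    (hn.le.trans (le_max_left _ _))) hx
  have : (0 : ℝ) ≤ (v : ℝ) - u := by
    have : (u : ℝ) < v := by exact_mod_cast huv
    linarith
  nlinarith [mul_le_mul_of_nonneg_right hCC this]

/-- **the flags of the thin window, from the closeness of the sheets** -/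
theorem flags_of_cl {g s : ℝ} {θ : κ' → ℝ} (h : ThinG B I lev f kp σ hz zs L wA wB a Mk E)
    (hM : MkA B I G lev A (fun v => g * v) (fun v => s * v) (fun j v => θ j * (1 - v)) f b vm w)
    {χ ν : ℝ} (hA : Lin B wA (1 + χ)) (ha : Lin B a ν) {zm : ℚ → ℕ → ℕ × ℝ → ℝ}
    (hz' : ∀ v : ℚ, 0 ≤ v → v ≤ 1 → ∀ᶠ n in (U : Filter ℕ), ∀ x ∈ I n,
      |zhN hz zs n x - zm v n x| ≤ rhN lev hz n v)
    (hcl : ClW B I lev f kp L zm (rhN lev hz) wA a Mk) :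
    ∃ J : ℕ → Finset (ℕ × ℝ), (∀ n, J n ⊆ I n) ∧ Dense B J I ∧
      MkA B J G lev A (fun v => g * v) (fun v => s * v) (fun j v => θ j * (1 - v)) f b vm w ∧
      ThinG B J lev f kp σ hz zs L wA wB a Mk E ∧
      FlagsW G g s θ χ ν B J lev A f b vm w kp σ hz zs h.kp1 L
        (flW kp σ hz zs L lev f Mk χ ν) wA wB a Mk E := by
  have hρ : Lin B (rhN lev hz) 1 := lin_rho hM h.hz0
  obtain ⟨C, hC⟩ := tiltW (zh := zhN hz zs) h.kp1 hρ hA ha hz'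
    (fun v h0 h1 => h.drift_box hM h0 h1) hcl
  have hT : TiltG B I (hW kp hz zs L lev f Mk) (prG (rhN lev hz) wA a) C := by
    intro k h9 h12 h13 u v h0 huv h1 ε hε
    refine (hC k h9 h12 h13 u v h0 huv h1 ε hε).mono (Eventually.of_forall fun n x _ hx => ?_)
    rw [tr_sub, Pi.sub_apply]
    exact hx
  exact flags_of h hM (le_max_right C 0) hA ha
    (tiltG_mono (fun k => (prLin_gr hρ hA ha k).1) (le_max_left C 0) hT)

end

end Crest.Agent.R136.Fw650
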