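import Crest.Agent.R136.Us1_555

/-!
# R136 (S0187), U6 (helper555), part 2: the dichotomy

* `flat_of_thick` : THICK: a dense part has flat marks (planks), all numbers unchanged;
* `thick_or_thin` : THICK, or at one level all marks of a dense part are non-flat.
-/

set_option autoImplicit false
set_option linter.unusedVariables false

open Finset Filter Topology

namespace Crest.Agent.R136.Us555

open Crest.Agent.R138.Ex926 Crest.Agent.R138.Dp76 Crest.Agent.R138.Ps627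
open Crest.Agent.R138.Mk163 (zc zl rho alive own Negl)
open Crest.Agent.R138.NatTw76 (exists_avoid)
open Crest.Agent.R138.MkRef627 (lc kc own_one alive_mono mem_alive card_class own_lower hh hh_even
  hh_odd exists_num)
open Crest.Agent.R136.MkA627 Crest.Agent.R136.Sh605 Crest.Agent.R136.K4 Crest.Agent.R136.Top484
open Crest.Agent.R136.Ut262 (mkS w_pos ortho_comp FlatMk)

theorem rho_pos (i : ℕ) : 0 < rho i := by unfold rho; positivity

/-! ### the frame and the labels -/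

/-- property of the plank frame of a sheet -/
def IsPF (s : Plk4) (z0 ρ : ℝ) (F : Fin 3 → V3) : Prop :=
  Ortho F ∧ ∀ K : ℝ, 0 ≤ K → FltS s.e s.c s.w s.q s.a z0 ρ K → ∀ t t' : Ln4,
      InSheet t s.e s.c s.w s.q s.a z0 ρ → InSheet t' s.e s.c s.w s.q s.a z0 ρ →
      ∀ z, z0 ≤ z → z ≤ z0 + ρ →
      |dt (F 0) (t'.pos z - t.pos z)| ≤ 2 * (K + 1) * s.a ∧
      |dt (F 1) (t'.pos z - t.pos z)| ≤ 6 * s.w 1 ∧
      |dt (F 2) (t'.pos z - t.pos z)| ≤ 4 * s.w 2

open Classical in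
/-- the plank frame of a sheet -/
noncomputable def pF (s : Plk4) (z0 ρ : ℝ) : Fin 3 → V3 :=
  if h : ∃ F, IsPF s z0 ρ F then h.choose else s.e

theorem pF_spec {s : Plk4} {z0 ρ r0 : ℝ} (h : ShN s.e s.c s.w s.q s.a z0 ρ r0) (ha : 0 < s.a) :
    IsPF s z0 ρ (pF s z0 ρ) := by
  have h1 : ∃ F, IsPF s z0 ρ F := exists_plank h ha
  unfold pF
  rw [dif_pos h1]
  exact h1.choose_spec

/-- units of the floors: thickness, wide, narrow -/
def hP (s : Plk4) : Fin 3 → ℝ := ![s.a, s.w 1, s.w 2]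

/-- the floors of the line `t` in the plank frame of the sheet `s` over the cell `J` of level `i` -/
noncomputable def flS (s : Plk4) (i : ℕ) (J : ℤ) (t : Ln4) : Fin 2 → Fin 3 → ℤ :=
  flo (pF s (zl i J) (rho i)) s.c (hP s) (zl i J) (rho i) t

/-- the standard frame -/
def stdF : Fin 3 → V3 := fun i j => if i = j then 1 else 0

/-- the code of a new label -/
noncomputable def code : ℤ × ℕ × (Fin 2 → Fin 3 → ℤ) → ℕ := Encodable.encode

theorem code_inj {x y : ℤ × ℕ × (Fin 2 → Fin 3 → ℤ)} (h : code x = code y) : x = y :=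
  Encodable.encode_injective h

/-- **the new labels**: cell, old label, floors in the plank frame of the old mark -/
noncomputable def newf (D : Dat4) (n : ℕ) (v : ℚ) (t : ℕ) (J : ℤ) : ℕ :=
  code (J, D.f n v t J, flS (D.b n v (D.f n v t J)) (D.lev n v) J (D.L n t))

open Classical in
/-- **the new marks**: the plank around a line with this label -/
noncomputable def newb (D : Dat4) (n : ℕ) (v : ℚ) (i : ℕ) : Plk4 :=
  if h : ∃ o : ℕ × ℤ, newf D n v o.1 o.2 = i then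
    let s := D.b n v (D.f n v h.choose.1 h.choose.2)
    let F := pF s (zl (D.lev n v) h.choose.2) (rho (D.lev n v))
    ⟨h.choose.2, F, D.L n h.choose.1, wP s.w, qP F (D.L n h.choose.1), s.a⟩
  else ⟨0, stdF, ⟨0, 0⟩, 0, qP stdF ⟨0, 0⟩, 0⟩

theorem newb_flat (D : Dat4) (n : ℕ) (v : ℚ) (i : ℕ) (z : ℝ) (x : V3) :
    (newb D n v i).q z x = dt ((newb D n v i).e 0) (x - (newb D n v i).c.pos z) := by
  unfold newb
  split_ifs with h
  · rfl
  · rfl

/-- the new mark of an alive line -/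
theorem newb_eq (D : Dat4) (n : ℕ) (v : ℚ) (t : ℕ) (J : ℤ) :
    ∃ t0 : ℕ, D.f n v t0 J = D.f n v t J ∧
      flS (D.b n v (D.f n v t J)) (D.lev n v) J (D.L n t0) =
        flS (D.b n v (D.f n v t J)) (D.lev n v) J (D.L n t) ∧
      newb D n v (newf D n v t J) =
        ⟨J, pF (D.b n v (D.f n v t J)) (zl (D.lev n v) J) (rho (D.lev n v)), D.L n t0,
          wP (D.b n v (D.f n v t J)).w,
          qP (pF (D.b n v (D.f n v t J)) (zl (D.lev n v) J) (rho (D.lev n v))) (D.L n t0),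
          (D.b n v (D.f n v t J)).a⟩ := by
  have h : ∃ o : ℕ × ℤ, newf D n v o.1 o.2 = newf D n v t J := ⟨(t, J), rfl⟩
  have h1 := h.choose_spec
  have h2 := code_inj h1
  simp only [Prod.mk.injEq] at h2
  obtain ⟨h3, h4, h5⟩ := h2
  refine ⟨h.choose.1, ?_, ?_, ?_⟩
  · rw [h3] at h4; exact h4
  · rw [h3] at h4 h5
    rw [h4] at h5
    exact h5
  · unfold newb
    rw [dif_pos h]
    rw [h3] at h4
    simp only [h3, h4]

section

variable {η : ℝ} {p : Par4} {D : Dat4}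

/-- sizes of a mark -/
theorem J1c.mark_pos (hJ : J1c η p D) {n : ℕ} {i : ℕ} {J : ℤ} {s : Plk4}
    (h : (D.G p).adm n i J s) : 0 < s.a := (hJ.r0pos n).trans_le h.1.r0_le

/-- sizes of a mark -/
theorem mark_pos (hJ : J1 η p D) {n : ℕ} {i : ℕ} {J : ℤ} {s : Plk4}
    (h : (D.G p).adm n i J s) : 0 < s.a := J1c.mark_pos hJ.toJ1c h

/-- **the new mark of an alive line is a legal mark with the sizes of the old one.** -/
theorem J1c.newb_mark (hJ : J1c η p D) {n : ℕ} {v : ℚ} {J : ℤ} {t : ℕ}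
    (hadm : (D.G p).adm n (D.lev n v) J (D.b n v (D.f n v t J)))
    (hval : (D.G p).val n (D.lev n v) J (D.b n v (D.f n v t J)) = D.vm n v)
    (hwid : ∀ j, (D.G p).wid j (D.b n v (D.f n v t J)) = D.w j n v) :
    (D.G p).mem n (D.lev n v) J (newb D n v (newf D n v t J)) t ∧
      (D.G p).adm n (D.lev n v) J (newb D n v (newf D n v t J)) ∧
      (D.G p).val n (D.lev n v) J (newb D n v (newf D n v t J)) = D.vm n v ∧
      ∀ j, (D.G p).wid j (newb D n v (newf D n v t J)) = D.w j n v := by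
  obtain ⟨t0, h1, h2, h3⟩ := newb_eq D n v t J
  rw [h3]
  set s := D.b n v (D.f n v t J) with hs
  set F := pF s (zl (D.lev n v) J) (rho (D.lev n v)) with hF
  have hsh : ShN s.e s.c s.w s.q s.a (zl (D.lev n v) J) (rho (D.lev n v)) (D.r0 n) := hadm.1
  have ha : 0 < s.a := J1c.mark_pos hJ hadm
  have hFo : Ortho F := (pF_spec hsh ha).1
  have hw := w_pos hsh ha
  have hh : ∀ k, 0 < hP s k := by
    intro k
    fin_cases k
    · exact ha
    · exact hw 1
    · exact hw 2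
  refine ⟨?_, ⟨plank_shN hsh ha hFo _, hadm.2.1, fun k => ?_⟩, hval, hwid⟩
  swap
  · have h7 := hadm.2.2 k
    fin_cases k <;> exact h7
  -- membership
  intro z hz0 hz1
  have hc : ∀ k, |dt (F k) ((D.L n t).pos z - (D.L n t0).pos z)| ≤ hP s k := fun k =>
    close_of_flo hh (rho_pos _) h2 k hz0 hz1
  refine ⟨?_, hc 0⟩
  intro i
  fin_cases i
  · exact (hc 0).trans hsh.a_le
  · exact hc 1
  · exact hc 2

/-- **number of new labels in an old class** -/
theorem J1c.newf_count (hJ : J1c η p D) {n : ℕ} {v : ℚ} {J : ℤ} {t : ℕ} {K : ℝ} (hK : 0 ≤ K) {N : ℕ}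
    (hN : 2 * (K + 1) + 6 ≤ N) (A : Finset ℕ)
    (hA : ∀ s ∈ A, D.f n v s J = D.f n v t J ∧
      (D.G p).mem n (D.lev n v) J (D.b n v (D.f n v s J)) s)
    (ht : (D.G p).mem n (D.lev n v) J (D.b n v (D.f n v t J)) t)
    (hadm : (D.G p).adm n (D.lev n v) J (D.b n v (D.f n v t J)))
    (hf : FltS (D.b n v (D.f n v t J)).e (D.b n v (D.f n v t J)).c (D.b n v (D.f n v t J)).w
      (D.b n v (D.f n v t J)).q (D.b n v (D.f n v t J)).a (zl (D.lev n v) J) (rho (D.lev n v)) K) :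
    (A.image fun s => newf D n v s J).card ≤ (2 * N + 3) ^ 6 := by
  classical
  set s0 := D.b n v (D.f n v t J) with hs
  set F := pF s0 (zl (D.lev n v) J) (rho (D.lev n v)) with hF
  have hsh : ShN s0.e s0.c s0.w s0.q s0.a (zl (D.lev n v) J) (rho (D.lev n v)) (D.r0 n) := hadm.1
  have ha : 0 < s0.a := J1c.mark_pos hJ hadm
  have hw := w_pos hsh ha
  have hh : ∀ k, 0 < hP s0 k := by
    intro k
    fin_cases k
    · exact ha
    · exact hw 1
    · exact hw 2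
  have hsub : (A.image fun s => newf D n v s J) ⊆
      (A.image fun s => flo F s0.c (hP s0) (zl (D.lev n v) J) (rho (D.lev n v)) (D.L n s)).image
        fun φ => code (J, D.f n v t J, φ) := by
    intro o ho
    obtain ⟨s, hsA, rfl⟩ := mem_image.1 ho
    refine mem_image.2 ⟨_, mem_image_of_mem _ hsA, ?_⟩
    have h1 := (hA s hsA).1
    unfold newf
    rw [h1]
    rfl
  refine (card_le_card hsub).trans (card_image_le.trans ?_)
  refine card_flo_le A (D.L n) F s0.c (hP s0) hh (rho_pos _).le (D.L n t) N ?_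
  intro s hsA k z hz0 hz1
  obtain ⟨h1, h2⟩ := hA s hsA
  rw [h1] at h2
  obtain ⟨b0, b1, b2⟩ := (pF_spec hsh ha).2 K hK hf (D.L n t) (D.L n s) ht h2 z hz0 hz1
  have w1 := hw 1
  have w2 := hw 2
  fin_cases k
  · refine b0.trans ?_
    show 2 * (K + 1) * s0.a ≤ N * s0.a
    exact mul_le_mul_of_nonneg_right (by linarith) ha.le
  · refine b1.trans ?_
    show 6 * s0.w 1 ≤ N * s0.w 1
    exact mul_le_mul_of_nonneg_right (by linarith) w1.le
  · refine b2.trans ?_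
    show 4 * s0.w 2 ≤ N * s0.w 2
    exact mul_le_mul_of_nonneg_right (by linarith) w2.le

end

/-- a constant and a factor `d^(-ε)` -/
theorem count_small {B : Base} {δ : ℝ} (hδ : 0 < δ) :
    ∀ᶠ n in (U : Filter ℕ), ∀ N : ℕ, (N : ℝ) ≤ 2 * B.d n ^ (-(δ / 12)) + 9 →
      ((((2 * N + 3) ^ 6 : ℕ)) : ℝ) ≤ B.d n ^ (-δ) := by
  filter_upwards [Crest.Agent.R138.Ps926.dpow_small B (c := δ / 12) (by positivity)
    (ε := 1 / 25) (by norm_num)] with n hn N hN
  have hp := dpow_pos B n (δ / 12)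
  have h1 : B.d n ^ (-(δ / 12)) * B.d n ^ (δ / 12) = 1 := by
    rw [← dpow_add, neg_add_cancel, Real.rpow_zero]
  have hq := dpow_pos B n (-(δ / 12))
  set u := B.d n ^ (-(δ / 12)) with hu
  have h2 : 25 ≤ u := by
    by_contra hc
    push Not at hc
    nlinarith
  have h3 : (2 * (N : ℝ) + 3) ≤ u ^ 2 := by nlinarith
  have h4 : (0 : ℝ) ≤ 2 * (N : ℝ) + 3 := by positivity
  have h5 : (2 * (N : ℝ) + 3) ^ 6 ≤ (u ^ 2) ^ 6 := pow_le_pow_left₀ h4 h3 6
  have h6 : (u ^ 2) ^ 6 = B.d n ^ (-δ) := by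
    rw [← pow_mul, hu, ← Real.rpow_natCast, ← Real.rpow_mul (B.pos n).le]
    congr 1
    push_cast
    ring
  push_cast
  rw [← h6]
  exact h5

section

variable {η : ℝ} {p : Par4} {D : Dat4}

/-- **FLAT MARKS.**  THICK ⊢ a dense part has flat marks, all numbers are unchanged, the new labels
refine the old ones and determine the cell. -/
theorem J1c.flat_of_thick (hJ : J1c η p D) (hT : ThickS D) :
    ∃ (J : ℕ → Finset (ℕ × ℝ)) (f' : ℕ → ℚ → ℕ → ℤ → ℕ) (b' : ℕ → ℚ → ℕ → Plk4),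
      (∀ n, J n ⊆ D.I n) ∧ Dense D.B J D.I ∧
      J1c η p { D with I := J, f := f', b := b' } ∧
      FlatMk { D with I := J, f := f', b := b' } ∧
      ∀ n v t t' j j', f' n v t j = f' n v t' j' → j = j' ∧ D.f n v t j = D.f n v t' j' := by
  classical
  -- avoid the incidences with non-flat marks
  obtain ⟨en, hen⟩ := exists_surjective_nat (ℚ × ℕ)
  have hN : ∀ k, Negl D.B D.I fun n x => (0 ≤ (en k).1 ∧ (en k).1 ≤ 1) ∧
      ¬ FltSM D (D.B.d n ^ (-(1 / (((en k).2 : ℝ) + 1)))) n (en k).1 x := by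
    intro k
    by_cases hk : 0 ≤ (en k).1 ∧ (en k).1 ≤ 1
    · exact Crest.Agent.R138.Mk163.Negl.mono
        (hT (en k).1 hk.1 hk.2 (1 / (((en k).2 : ℝ) + 1)) (by positivity))
        (Eventually.of_forall fun n x _ hx => hx.2)
    · exact Crest.Agent.R138.Mk163.Negl.mono Crest.Agent.R138.Mk163.Negl.false
        (Eventually.of_forall fun n x _ hx => hk hx.1)
  obtain ⟨J0, hJ0I, hJ0d, hJ0⟩ := exists_avoid (B := D.B) (I := D.I) _ hN
  obtain ⟨J1', hsub1, hd1, hM1⟩ := J1c.refine hJ hJ0I hJ0d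
  -- all marks are flat
  have hflat : ∀ v : ℚ, 0 ≤ v → v ≤ 1 → ∀ ε : ℝ, 0 < ε → ∀ᶠ n in (U : Filter ℕ), ∀ J : ℤ,
      ∀ t ∈ alive (J1' n) (D.lev n v) J,
        D.G p |>.mem n (D.lev n v) J (D.b n v (D.f n v t J)) t → (D.G p).adm n (D.lev n v) J
          (D.b n v (D.f n v t J)) →
        FltS (D.b n v (D.f n v t J)).e (D.b n v (D.f n v t J)).c (D.b n v (D.f n v t J)).w
          (D.b n v (D.f n v t J)).q (D.b n v (D.f n v t J)).a (zl (D.lev n v) J)
          (rho (D.lev n v)) (D.B.d n ^ (-ε)) := by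
    intro v h0 h1 ε hε
    obtain ⟨K, hK⟩ := exists_nat_one_div_lt hε
    obtain ⟨k, hk⟩ := hen (v, K)
    have h2 := hJ0 k
    rw [hk] at h2
    filter_upwards [h2] with n a1 J t ht hm ha
    obtain ⟨x, hx, hx1, hx2⟩ := mem_alive.1 ht
    subst hx1
    subst hx2
    have a3 := a1 x (hsub1 n hx)
    have a4 : FltSM D (D.B.d n ^ (-(1 / ((K : ℝ) + 1)))) n v x := by
      by_contra hc
      exact a3 ⟨⟨h0, h1⟩, hc⟩
    have a5 : 0 < (D.b n v (D.f n v x.1 (zc (D.lev n v) x.2))).a := J1c.mark_pos hJ ha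
    exact FltS.mono a4 a5.le (dpow_le D.B n (by linarith))
  -- relabel
  obtain ⟨J', hsub, hd, hM⟩ := MkA.relabel (f' := newf D) (b' := newb D) hM1.mka (by
    intro v h0 h1
    filter_upwards [hM1.mka.mark v h0 h1] with n hn J t ht
    obtain ⟨m1, m2, m3, m4⟩ := hn J t ht
    exact J1c.newb_mark hJ m2 m3 m4) (by
    intro v h0 h1 δ hδ
    filter_upwards [hM1.mka.mark v h0 h1, hflat v h0 h1 (δ / 12) (by positivity),
      count_small (B := D.B) hδ] with n a1 a2 a3 J t ht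
    obtain ⟨m1, m2, m3, m4⟩ := a1 J t ht
    have hf := a2 J t ht m1 m2
    have hK := (dpow_pos D.B n (-(δ / 12))).le
    set N : ℕ := ⌈2 * (D.B.d n ^ (-(δ / 12)) + 1) + 6⌉₊ with hNd
    have hN1 : 2 * (D.B.d n ^ (-(δ / 12)) + 1) + 6 ≤ N := Nat.le_ceil _
    have hN2 : (N : ℝ) ≤ 2 * D.B.d n ^ (-(δ / 12)) + 9 := by
      have := Nat.ceil_lt_add_one (a := 2 * (D.B.d n ^ (-(δ / 12)) + 1) + 6) (by positivity)
      rw [← hNd] at this
      linarith
    refine le_trans ?_ (a3 N hN2)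
    have h5 := J1c.newf_count hJ (n := n) (v := v) (J := J) (t := t) hK hN1
      ((alive (J1' n) (D.lev n v) J).filter fun s => D.f n v s J = D.f n v t J)
      (fun s hs => by
        rw [mem_filter] at hs
        exact ⟨hs.2, (a1 J s hs.1).1⟩) m1 m2 hf
    exact_mod_cast (by convert h5))
  have hd2 : Dense D.B J' D.I := hd.trans hd1
  exact ⟨J', newf D, newb D, fun n => (hsub n).trans ((hsub1 n).trans (hJ0I n)), hd2,
    J1c.sub' hJ (fun n => (hsub n).trans ((hsub1 n).trans (hJ0I n))) hd2 hM,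
    fun n v i z x => newb_flat D n v i z x,
    fun n v t t' j j' h => by
      have h2 := code_inj h
      simp only [Prod.mk.injEq] at h2
      exact ⟨h2.1, h2.2.1⟩⟩

/-- **FLAT MARKS**, `J1` form -/
theorem flat_of_thick (hJ : J1 η p D) (hT : ThickS D) :
    ∃ (J : ℕ → Finset (ℕ × ℝ)) (f' : ℕ → ℚ → ℕ → ℤ → ℕ) (b' : ℕ → ℚ → ℕ → Plk4),
      (∀ n, J n ⊆ D.I n) ∧ Dense D.B J D.I ∧
      J1 η p { D with I := J, f := f', b := b' } ∧
      FlatMk { D with I := J, f := f', b := b' } ∧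
      ∀ n v t t' j j', f' n v t j = f' n v t' j' → j = j' ∧ D.f n v t j = D.f n v t' j' := by
  obtain ⟨J, f', b', h1, h2, h3, h4⟩ := J1c.flat_of_thick hJ.toJ1c hT
  exact ⟨J, f', b', h1, h2, ⟨h3, hJ.g1, hJ.gq⟩, h4⟩

/-- a part which is not negligible is dense (packaged). -/
theorem exists_dense_of_not_negl {B : Base} {I : ℕ → Finset (ℕ × ℝ)} {P : ℕ → ℕ × ℝ → Prop}
    (h : ¬ Negl B I P) : ∃ K : ℕ → Finset (ℕ × ℝ), (∀ n, K n ⊆ I n) ∧
      (∀ n, ∀ x ∈ K n, P n x) ∧ Dense B K I := by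
  classical
  exact ⟨_, fun n => filter_subset _ _, fun n x hx => (mem_filter.1 hx).2, dense_of_not_negl h⟩

/-- **THE DICHOTOMY.** -/
theorem J1c.thick_or_thin (hJ : J1c η p D) :
    ThickS D ∨ ∃ (v : ℚ) (ε : ℝ), 0 ≤ v ∧ v ≤ 1 ∧ 0 < ε ∧ ∃ J : ℕ → Finset (ℕ × ℝ),
      (∀ n, J n ⊆ D.I n) ∧ Dense D.B J D.I ∧ J1c η p { D with I := J } ∧
      ∀ᶠ n in (U : Filter ℕ), ∀ x ∈ J n, ¬ FltSM D (D.B.d n ^ (-ε)) n v x := by
  by_cases hT : ThickS D
  · exact Or.inl hT
  · right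
    unfold ThickS at hT
    push Not at hT
    obtain ⟨v, h0, h1, ε, hε, hn⟩ := hT
    obtain ⟨K, hKI, hKP, hd⟩ := exists_dense_of_not_negl hn
    obtain ⟨J', hs, hd', hJ'⟩ := J1c.refine hJ hKI hd
    exact ⟨v, ε, h0, h1, hε, J', fun n => (hs n).trans (hKI n), hd', hJ',
      Eventually.of_forall fun n x hx => hKP n x (hs n hx)⟩

/-- **THE DICHOTOMY**, `J1` form -/
theorem thick_or_thin (hJ : J1 η p D) :
    ThickS D ∨ ∃ (v : ℚ) (ε : ℝ), 0 ≤ v ∧ v ≤ 1 ∧ 0 < ε ∧ ∃ J : ℕ → Finset (ℕ × ℝ),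
      (∀ n, J n ⊆ D.I n) ∧ Dense D.B J D.I ∧ J1 η p { D with I := J } ∧
      ∀ᶠ n in (U : Filter ℕ), ∀ x ∈ J n, ¬ FltSM D (D.B.d n ^ (-ε)) n v x := by
  rcases J1c.thick_or_thin hJ.toJ1c with h | ⟨v, ε, h0, h1, h2, J, h3, h4, h5, h6⟩
  · exact Or.inl h
  · exact Or.inr ⟨v, ε, h0, h1, h2, J, h3, h4, ⟨h5, hJ.g1, hJ.gq⟩, h6⟩

end

end Crest.Agent.R136.Us555
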