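import Crest.Agent.R136.Ut6_262
import Crest.Agent.R136.Us2_555
import Crest.Agent.R136.TopB_550

/-!
# R136 (S0187), U6 (helper262), part 5: assembly of the seam U6

`thick_half` : `J1` with flat sheets ⊢ `ThickPre`; `seamU6_of` : `SeamU6` from the flat tilt (808)
and the thin half.
-/

set_option autoImplicit false
set_option linter.unusedVariables false

open Finset Filter Topology

namespace Crest.Agent.R136.Ut262

open Crest.Agent.R138.Ex926 (Base U)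
open Crest.Agent.R138.Dp76
open Crest.Agent.R136.Sh605 Crest.Agent.R136.Top484
open Crest.Agent.R136.NatT550 (ParOk SlotOk ThickPre)
open Crest.Agent.R136.Us555 (FltSM ThickS J1c.flat_of_thick J1c.thick_or_thin)
open Crest.Agent.R136.TopB550 (SeamU6)

/-- **flat tilt**, as a seam; `Q` = relations between the rewards -/
def SeamTiltFQ (Q : Par4 → Prop) (η : ℝ) : Prop :=
  ∀ (p : Par4) (D : Dat4), Q p → J1c η p D → FlatMk D → TiltF D

/-- **flat tilt** (helper808), as a seam -/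
def SeamTiltF (η : ℝ) : Prop :=
  ∀ (p : Par4) (D : Dat4), J1 η p D → FlatMk D → TiltF D

/-- conclusion of the thin half -/
def ThinOut (η : ℝ) (p : Par4) : Prop :=
  ∃ (D' : Dat4) (π : Equiv.Perm (Fin 3)) (kp uz uc un : ℕ → ℝ) (F : ℕ → ℕ × ℝ → NetW191.FW)
    (V T : Fin 18 → Prop) (w0 R T0 : ℝ) (PD : Set (Fin 18 → ℝ)),
    NatW697.ThinPre η p D' π kp uz uc un F V T w0 R T0 PD

/-- **thin half** of the seam U6: at some level the sheets are not flat -/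
def SeamThinQ (Q : Par4 → Prop) (η : ℝ) : Prop :=
  ∀ (p : Par4) (D : Dat4), Q p → J1c η p D → ∀ (v : ℚ) (ε : ℝ), 0 ≤ v → v ≤ 1 → 0 < ε →
    (∀ᶠ n in (U : Filter ℕ), ∀ x ∈ D.I n, ¬ FltSM D (D.B.d n ^ (-ε)) n v x) → ThinOut η p

/-- **thin half** of the seam U6: at some level the sheets are not flat -/
def SeamThin (η : ℝ) : Prop :=
  ∀ (p : Par4) (D : Dat4), J1 η p D → ∀ (v : ℚ) (ε : ℝ), 0 ≤ v → v ≤ 1 → 0 < ε →
    (∀ᶠ n in (U : Filter ℕ), ∀ x ∈ D.I n, ¬ FltSM D (D.B.d n ^ (-ε)) n v x) →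
      ∃ (D' : Dat4) (π : Equiv.Perm (Fin 3)) (kp uz uc un : ℕ → ℝ) (F : ℕ → ℕ × ℝ → NetW191.FW)
        (V T : Fin 18 → Prop) (w0 R T0 : ℝ) (PD : Set (Fin 18 → ℝ)),
        NatW697.ThinPre η p D' π kp uz uc un F V T w0 R T0 PD

/-- **thick half** of the seam U6 -/
theorem thick_halfQ {Q : Par4 → Prop} {η : ℝ} {p : Par4} {D : Dat4} (h8 : SeamTiltFQ Q η)
    (hQ : Q p) (hJ : J1c η p D) (ok : ParOk η p) (hT : ThickS D) :
    ∃ (D' : Dat4) (π : Equiv.Perm (Fin 3)) (eE fA fB : ℕ → ℕ × ℝ → ℝ) (V T : Fin 11 → Prop)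
      (w0 R T0 : ℝ) (PD : Set (Fin 11 → ℝ)), ThickPre η p D' π eE fA fB V T w0 R T0 PD := by
  obtain ⟨J, f', b', -, -, h1, h2, -⟩ := J1c.flat_of_thick hJ hT
  exact thickPre_of_flat ok h1.mka h2 (h8 _ _ hQ h1 h2) h1.wrs

/-- **the seam U6**, any relation `Q` between the rewards (`J = J1c ∧ Q`) -/
theorem seamU6Q_of {Q : Par4 → Prop} {η : ℝ}
    (hok : ∀ (p : Par4) (D : Dat4), Q p → J1c η p D → ParOk η p)
    (h8 : SeamTiltFQ Q η) (hN : SeamThinQ Q η) :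
    TopB550.SeamU6J (fun p D => J1c η p D ∧ Q p) η := by
  rintro p D ⟨hJ, hQ⟩
  rcases J1c.thick_or_thin hJ with hT | ⟨v, ε, h0, h1, hε, J, -, -, hJ', hf⟩
  · exact Or.inl (thick_halfQ h8 hQ hJ (hok p D hQ hJ) hT)
  · exact Or.inr (hN p _ hQ hJ' v ε h0 h1 hε hf)

/-- **thick half** of the seam U6, `J1` form -/
theorem thick_half {η : ℝ} {p : Par4} {D : Dat4} (h8 : SeamTiltF η) (hJ : J1 η p D)
    (ok : ParOk η p) (hT : ThickS D) :
    ∃ (D' : Dat4) (π : Equiv.Perm (Fin 3)) (eE fA fB : ℕ → ℕ × ℝ → ℝ) (V T : Fin 11 → Prop)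
      (w0 R T0 : ℝ) (PD : Set (Fin 11 → ℝ)), ThickPre η p D' π eE fA fB V T w0 R T0 PD :=
  thick_halfQ (Q := fun p => p.g ≤ η * p.q 1 ∧ p.g ^ 2 ≤ η * (p.q 1 * p.q 2))
    (fun p D hQ h => h8 p D ⟨h, hQ.1, hQ.2⟩) ⟨hJ.g1, hJ.gq⟩ hJ.toJ1c ok hT

/-- **the seam U6** -/
theorem seamU6_of {η : ℝ} (hok : ∀ (p : Par4) (D : Dat4), J1 η p D → ParOk η p)
    (h8 : SeamTiltF η) (hN : SeamThin η) : SeamU6 η := by
  intro p D hJ
  exact seamU6Q_of (Q := fun p => p.g ≤ η * p.q 1 ∧ p.g ^ 2 ≤ η * (p.q 1 * p.q 2))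
    (fun p D hQ h => hok p D ⟨h, hQ.1, hQ.2⟩) (fun p D hQ h => h8 p D ⟨h, hQ.1, hQ.2⟩)
    (fun p D hQ h => hN p D ⟨h, hQ.1, hQ.2⟩) p D ⟨hJ.toJ1c, hJ.g1, hJ.gq⟩

end Crest.Agent.R136.Ut262
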