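import Crest.Agent.R136.Fw4_808
import Crest.Agent.R136.Ut7_262

/-!
# R136 (S0187): g-free flat tilt as a seam (helper808)

`tiltF_G : FlatFree → J1c η p D → FlatMk D → TiltF D` and the seam forms `SeamTiltFQ`, `SeamTiltF`.
-/

set_option autoImplicit false

namespace Crest.Agent.R136.Fl808

open Crest.Agent.R136.Top484 (Par4 Dat4 J1 J1c)

/-- **flat tilt of the extremal sequence**, any `η` -/
theorem tiltF_G (hFF : FlatFree) {η : ℝ} {p : Par4} {D : Dat4} (h : J1c η p D)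
    (hF : Ut262.FlatMk D) : Ut262.TiltF D :=
  tiltF_G' hFF h (let ⟨qm, qp, e, d, _⟩ := h.dall; ⟨qm, qp, e, d⟩) hF

theorem seamTiltFQ (hFF : FlatFree) (Q : Par4 → Prop) (η : ℝ) : Ut262.SeamTiltFQ Q η :=
  fun _ _ _ h hF => tiltF_G hFF h hF

theorem seamTiltF (hFF : FlatFree) (η : ℝ) : Ut262.SeamTiltF η :=
  fun _ _ h hF => tiltF_G hFF h.toJ1c hF

end Crest.Agent.R136.Fl808
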