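import Mathlib
import Crest.Agent.R136.TD4_627

/-!
# R136: triangular slots (helper627), part 5: second zoom with carried properties

`Q i n v δ` : countably many properties of the data of level `v` with a loss `B.d n ^ (-δ)`;
`CarryH Q` : monotone in `δ` and eventually true for every `v ∈ [0,1]`, `δ > 0`.

`NatTQ` = `NatT` + the properties hold at the zoomed levels: `Q i n (mm n v) (H n δ)`
(`B'.d^(-δ) = B.d^(-H δ)`).
-/

set_option autoImplicit false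
set_option linter.unusedVariables false
set_option linter.unusedSectionVars false

open Finset Filter Topology

namespace Crest.Agent.R136.TD627

open Crest.Agent.R138.Ex926 (Base U exists_diag)
open Crest.Agent.R138.Dp76
open Crest.Agent.R138.Ps926
open Crest.Agent.R138.Mk163 (zc zl rho alive own Negl)
open Crest.Agent.R138.MkZoom779 (Fq Fq_mem ev_mem_Fq zero_mem_Fq)
open Crest.Agent.R136.MkA627
open Crest.Agent.R136.Net191 (Mons)
open Crest.Agent.R136.Slt627 (log_dpow log_sc eq_exp own_pos card_fibre)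
open Crest.Agent.R136.ArgA163 (PrLin)

variable {σ κ φ : Type*} {m : ℕ}

/-- properties which are carried by the zoom -/
def CarryH (Q : ℕ → ℕ → ℚ → ℝ → Prop) : Prop :=
  (∀ i n v δ δ', δ ≤ δ' → Q i n v δ → Q i n v δ') ∧
  ∀ i, ∀ v : ℚ, 0 ≤ v → v ≤ 1 → ∀ δ : ℝ, 0 < δ → ∀ᶠ n in (U : Filter ℕ), Q i n v δ

/-- one property without loss -/
theorem CarryH.of_const {Q : ℕ → ℕ → ℚ → Prop}
    (h : ∀ i, ∀ v : ℚ, 0 ≤ v → v ≤ 1 → ∀ᶠ n in (U : Filter ℕ), Q i n v) :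
    CarryH fun i n v _ => Q i n v :=
  ⟨fun i n v δ δ' _ h => h, fun i v h0 h1 δ _ => h i v h0 h1⟩

/-- output of the second zoom with carried properties. -/
def NatTQ (Q : ℕ → ℕ → ℚ → ℝ → Prop) (P : TDist φ m) (G : Geo σ κ) (g s : ℝ) (θ : κ → ℝ) (β C0 : Fin m → ℝ)
    (fl : ℕ → ℕ × ℝ → φ) (B : Base) (I : ℕ → Finset (ℕ × ℝ)) (lev : ℕ → ℚ → ℕ)
    (f : ℕ → ℚ → ℕ → ℤ → ℕ) (b : ℕ → ℚ → ℕ → σ) (vm : ℕ → ℚ → ℝ) (w : κ → ℕ → ℚ → ℝ)
    (fr : ℕ → ℚ → ℕ × ℝ → φ) (pr : Fin m → ℕ → ℚ → ℝ) : Prop :=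
  ∃ (H : ℕ → ℝ) (mm : ℕ → ℚ → ℚ) (B' : Base) (I' : ℕ → Finset (ℕ × ℝ)) (A' : ℕ → ℝ)
    (sc' : Fin m → ℕ → ℝ), (∀ n, 0 < H n ∧ H n ≤ 1) ∧
    (∀ n, ∀ x : ℚ, 0 ≤ x → x ≤ 1 → 0 ≤ mm n x ∧ mm n x ≤ 1) ∧
    (∀ n, ∀ x y : ℚ, (mm n y : ℝ) - mm n x = H n * ((y : ℝ) - x)) ∧
    (∀ n, B'.d n = B.d n ^ H n) ∧ (∀ᶠ n in (U : Filter ℕ), I' n ⊆ I n) ∧
    CarryH (fun i n v δ => Q i n (mm n v) (H n * δ)) ∧
    TSys P G g s θ β B' I' (fun n x => lev n (mm n x)) A' (fun n x => f n (mm n x))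
      (fun n x => b n (mm n x)) (fun n x => vm n (mm n x)) (fun j n x => w j n (mm n x))
      (fun n x => fr n (mm n x)) (fun j n x => pr j n (mm n x)) fl sc' ∧
    Slack P β B' sc' ∧
    ∀ j, InvT P B' I' j fl (sc' j) ∨
      (0 < β j ∧ RotT P B' I' (fun n x => lev n (mm n x)) j fl (sc' j) (C0 j) (fun u => β j * u)) ∨
      (0 < β j ∧ ∃ a ∈ P.M.mon j, ∑ t, (a t : ℝ) * β t = β j ∧
        ∀ t, a t ≠ 0 → ¬ InvT P B' I' t fl (sc' t))

section

variable {Q : ℕ → ℕ → ℚ → ℝ → Prop} {P : TDist φ m} {G : Geo σ κ} {g s : ℝ} {θ : κ → ℝ}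
    {β C0 : Fin m → ℝ}
    {B : Base} {I : ℕ → Finset (ℕ × ℝ)} {lev : ℕ → ℚ → ℕ} {A : ℕ → ℝ}
    {f : ℕ → ℚ → ℕ → ℤ → ℕ} {b : ℕ → ℚ → ℕ → σ} {vm : ℕ → ℚ → ℝ} {w : κ → ℕ → ℚ → ℝ}
    {fr : ℕ → ℚ → ℕ × ℝ → φ} {pr : Fin m → ℕ → ℚ → ℝ} {fl : ℕ → ℕ × ℝ → φ} {sc : Fin m → ℕ → ℝ}

/-- composition of windows -/
theorem NatTQ.comp {B1 : Base} {I1 : ℕ → Finset (ℕ × ℝ)} {H1 : ℕ → ℝ} {m1 : ℕ → ℚ → ℚ}
    (hH : ∀ n, 0 < H1 n ∧ H1 n ≤ 1) (hm : ∀ n, ∀ x : ℚ, 0 ≤ x → x ≤ 1 → 0 ≤ m1 n x ∧ m1 n x ≤ 1)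
    (hq : ∀ n, ∀ x y : ℚ, (m1 n y : ℝ) - m1 n x = H1 n * ((y : ℝ) - x))
    (hB : ∀ n, B1.d n = B.d n ^ H1 n) (hI : ∀ᶠ n in (U : Filter ℕ), I1 n ⊆ I n)
    (h : NatTQ (fun i n v δ => Q i n (m1 n v) (H1 n * δ)) P G g s θ β C0 fl B1 I1 (fun n x => lev n (m1 n x)) (fun n x => f n (m1 n x))
      (fun n x => b n (m1 n x)) (fun n x => vm n (m1 n x)) (fun j n x => w j n (m1 n x))
      (fun n x => fr n (m1 n x)) (fun j n x => pr j n (m1 n x))) :
    NatTQ Q P G g s θ β C0 fl B I lev f b vm w fr pr := by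
  obtain ⟨H2, m2, B2, I2, A2, sc2, h1, h2, h3, h4, h5, hQ2, h6, h7, h8⟩ := h
  refine ⟨fun n => H1 n * H2 n, fun n x => m1 n (m2 n x), B2, I2, A2, sc2, fun n => ⟨?_, ?_⟩,
    fun n x hx0 hx1 => ?_, fun n x y => ?_, fun n => ?_, ?_, ?_, h6, h7, h8⟩
  · exact mul_pos (hH n).1 (h1 n).1
  · exact mul_le_one₀ (hH n).2 (h1 n).1.le (h1 n).2
  · exact hm n _ (h2 n x hx0 hx1).1 (h2 n x hx0 hx1).2
  · rw [hq, h3]; ring
  · rw [h4, hB, ← Real.rpow_mul (B.pos n).le]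
  · filter_upwards [hI, h5] with n a1 a2 using a2.trans a1
  · simpa only [mul_assoc] using hQ2

theorem NatTQ.mono {J : ℕ → Finset (ℕ × ℝ)} (hJ : ∀ᶠ n in (U : Filter ℕ), J n ⊆ I n)
    (h : NatTQ Q P G g s θ β C0 fl B J lev f b vm w fr pr) :
    NatTQ Q P G g s θ β C0 fl B I lev f b vm w fr pr := by
  obtain ⟨H, mm, B', I', A', sc', h1, h2, h3, h4, h5, h6⟩ := h
  exact ⟨H, mm, B', I', A', sc', h1, h2, h3, h4, by
    filter_upwards [hJ, h5] with n a1 a2 using a2.trans a1, h6⟩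

/-- data of a zoom at `v0`: what is preserved -/
theorem TSys.zoomQ [Countable κ] (h : TSys P G g s θ β B I lev A f b vm w fr pr fl sc)
    (hQc : CarryH Q) {v0 : ℝ} (hv0 : 0 < v0) (hv1 : v0 < 1) (Qd : (ℕ → ℚ → ℚ) → ℕ → ℕ → Prop)
    (hQd : ∀ mm : ℕ → ℚ → ℚ, (∀ k, ∀ x : ℚ, 0 ≤ x → x ≤ 1 → 0 ≤ mm k x ∧ mm k x ≤ 1) →
      ∀ k, ∀ᶠ n in (U : Filter ℕ), Qd mm k n) :
    ∃ (H : ℕ → ℝ) (mm : ℕ → ℚ → ℚ) (B' : Base) (I' : ℕ → Finset (ℕ × ℝ)) (A' : ℕ → ℝ),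
      (∀ n, 0 < H n ∧ H n ≤ 1) ∧ Tendsto H U (𝓝 0) ∧
      (∀ n, ∀ x : ℚ, 0 ≤ x → x ≤ 1 → 0 ≤ mm n x ∧ mm n x ≤ 1) ∧
      (∀ n, ∀ x y : ℚ, (mm n y : ℝ) - mm n x = H n * ((y : ℝ) - x)) ∧
      (∀ x : ℚ, Tendsto (fun n => ((mm n x : ℚ) : ℝ)) U (𝓝 v0)) ∧
      (∀ n, B'.d n = B.d n ^ H n) ∧ (∀ n, I' n ⊆ I n) ∧
      TSys P G g s θ β B' I' (fun n x => lev n (mm n x)) A' (fun n x => f n (mm n x))
        (fun n x => b n (mm n x)) (fun n x => vm n (mm n x)) (fun j n x => w j n (mm n x))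
        (fun n x => fr n (mm n x)) (fun j n x => pr j n (mm n x)) fl
        (fun j n => sc j n * B.d n ^ (β j * mm n 0)) ∧
      (∀ᶠ n in (U : Filter ℕ), ∃ (mm' : ℕ → ℚ → ℚ) (k : ℕ), mm' k = mm n ∧ Qd mm' k n) ∧
      (∀ j, InvT P B I j fl (sc j) →
        InvT P B' I' j fl (fun n => sc j n * B.d n ^ (β j * mm n 0))) ∧
      (Slack P β B sc → Slack P β B' (fun j n => sc j n * B.d n ^ (β j * mm n 0))) ∧
      CarryH (fun i n v δ => Q i n (mm n v) (H n * δ)) := by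
  classical
  obtain ⟨η, mm, hη, hη1, hη0, hm, hq, hmv, s0, hs0, hz⟩ := h.zoom hv0 hv1
  obtain ⟨s3, hs3, hs3'⟩ := exists_diag (Qd mm) (hQd mm hm)
  obtain ⟨s4, hs4, hs4'⟩ := exists_diag (fun k n => ∀ i ∈ range (k + 1), ∀ x ∈ Fq k,
    Q i n (mm k x) (η k / (k + 1))) (by
      intro k
      rw [Filter.eventually_all_finset]
      intro i _
      rw [Filter.eventually_all_finset]
      intro x hx
      obtain ⟨hx0, hx1⟩ := Fq_mem hx
      obtain ⟨hm0, hm1⟩ := hm k x hx0 hx1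
      exact hQc.2 i (mm k x) hm0 hm1 _ (div_pos (hη k) (by positivity)))
  set t : ℕ → ℕ := fun n => min (s0 n) (min (s3 n) (s4 n)) with ht
  have htt : Tendsto t U atTop := by
    rw [tendsto_atTop]
    intro c
    filter_upwards [tendsto_atTop.1 hs0 c, tendsto_atTop.1 hs3 c, tendsto_atTop.1 hs4 c]
      with n h1 h2 h3
    exact le_min h1 (le_min h2 h3)
  obtain ⟨B', I', A', hB', hI', hS'⟩ := hz t htt (Eventually.of_forall fun n => min_le_left _ _)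
  have hBp : ∀ n (y : ℝ), B'.d n ^ y = B.d n ^ (η (t n) * y) := by
    intro n y
    rw [hB' n, ← Real.rpow_mul (B.pos n).le]
  have hm00 : ∀ k, (0 : ℝ) ≤ mm k 0 ∧ (mm k 0 : ℝ) ≤ 1 := fun k =>
    ⟨by exact_mod_cast (hm k 0 le_rfl zero_le_one).1, by exact_mod_cast (hm k 0 le_rfl zero_le_one).2⟩
  have hηM : ∀ n (M : ℝ), η (t n) * M ≤ |M| := fun n M => by
    calc η (t n) * M ≤ η (t n) * |M| := mul_le_mul_of_nonneg_left (le_abs_self _) (hη _).le
      _ ≤ 1 * |M| := mul_le_mul_of_nonneg_right (hη1 _) (abs_nonneg _)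
      _ = |M| := one_mul _
  have hβm : ∀ n j, β j * (mm (t n) 0 : ℝ) ≤ |β j| := fun n j => by
    calc β j * (mm (t n) 0 : ℝ) ≤ |β j| * (mm (t n) 0 : ℝ) :=
          mul_le_mul_of_nonneg_right (le_abs_self _) (hm00 _).1
      _ ≤ |β j| * 1 := mul_le_mul_of_nonneg_left (hm00 _).2 (abs_nonneg _)
      _ = |β j| := mul_one _
  refine ⟨fun n => η (t n), fun n => mm (t n), B', I', A', fun n => ⟨hη _, hη1 _⟩, hη0.comp htt,
    fun n => hm (t n), fun n => hq (t n), fun x => (hmv x).comp htt, hB', hI', hS', ?_, ?_, ?_, ?_⟩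
  · filter_upwards [hs3'] with n hn
    exact ⟨mm, t n, rfl, hn (t n) ((min_le_right _ _).trans (min_le_left _ _))⟩
  · intro j hj M
    filter_upwards [hj (|β j| + |M|)] with n a1 x hx y hy hxy
    refine (a1 x (hI' n hx) y (hI' n hy) hxy).trans ?_
    rw [hBp, mul_assoc, ← dpow_add]
    refine mul_le_mul_of_nonneg_left (dpow_le B n ?_) (h.scpos j n).le
    have := hβm n j
    have := hηM n M
    linarith
  · intro hsl j a ha hlt M
    filter_upwards [hsl j a ha hlt (|M| + |β j| + |∑ t, (a t : ℝ) * β t|)] with n hn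
    rw [prod_dpow, hBp]
    have e1 : ∑ t', (a t' : ℝ) * (β t' * (mm (t n) 0 : ℝ)) = (∑ t', (a t' : ℝ) * β t') *
        (mm (t n) 0 : ℝ) := by
      rw [Finset.sum_mul]
      exact Finset.sum_congr rfl fun t' _ => by ring
    have e2 : -|∑ t, (a t : ℝ) * β t| ≤ (∑ t', (a t' : ℝ) * β t') * (mm (t n) 0 : ℝ) := by
      have h1 := neg_abs_le ((∑ t', (a t' : ℝ) * β t') * (mm (t n) 0 : ℝ))
      rw [abs_mul, abs_of_nonneg (hm00 (t n)).1] at h1
      have h2 : |∑ t', (a t' : ℝ) * β t'| * (mm (t n) 0 : ℝ) ≤ |∑ t', (a t' : ℝ) * β t'| * 1 :=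
        mul_le_mul_of_nonneg_left (hm00 (t n)).2 (abs_nonneg _)
      linarith
    rw [e1]
    calc (∏ t', sc t' n ^ a t') * B.d n ^ ((∑ t', (a t' : ℝ) * β t') * (mm (t n) 0 : ℝ))
        ≤ sc j n * B.d n ^ (|M| + |β j| + |∑ t, (a t : ℝ) * β t|) *
          B.d n ^ ((∑ t', (a t' : ℝ) * β t') * (mm (t n) 0 : ℝ)) :=
          mul_le_mul_of_nonneg_right hn (dpow_pos B n _).le
      _ = sc j n * B.d n ^ (|M| + |β j| + |∑ t, (a t : ℝ) * β t| +
          (∑ t', (a t' : ℝ) * β t') * (mm (t n) 0 : ℝ)) := by rw [mul_assoc, ← dpow_add]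
      _ ≤ sc j n * B.d n ^ (β j * (mm (t n) 0 : ℝ) + η (t n) * M) := by
          refine mul_le_mul_of_nonneg_left (dpow_le B n ?_) (h.scpos j n).le
          have := hηM n M
          have := hβm n j
          linarith
      _ = _ := by rw [mul_assoc, ← dpow_add]
  · refine ⟨fun i n v δ δ' hδ hh => hQc.1 i n _ _ _ (mul_le_mul_of_nonneg_left hδ (hη _).le) hh,
      fun i v h0 h1 δ hδ => ?_⟩
    have htend : Tendsto (fun n => 1 / ((t n : ℝ) + 1)) U (𝓝 0) :=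
      tendsto_one_div_add_atTop_nhds_zero_nat.comp htt
    filter_upwards [hs4', htt.eventually (ev_mem_Fq h0 h1), tendsto_atTop.1 htt i,
      (Metric.tendsto_nhds.1 htend) δ hδ] with n a1 a2 a3 a4
    rw [Real.dist_eq, sub_zero, abs_of_pos (by positivity)] at a4
    refine hQc.1 i n _ _ _ ?_ (a1 (t n) ((min_le_right _ _).trans (min_le_right _ _)) i
      (mem_range.2 (Nat.lt_succ_of_le a3)) v a2)
    have e3 : η (t n) / ((t n : ℝ) + 1) = η (t n) * (1 / ((t n : ℝ) + 1)) := by ring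
    rw [e3]
    exact mul_le_mul_of_nonneg_left a4.le (hη _).le

/-- **one zoom makes one more slot invisible.** -/
theorem TSys.zoom_gapQ [Countable κ]
    (h : TSys P G g s θ β B I lev A f b vm w fr pr fl sc) (hQc : CarryH Q)
    (hsl : Slack P β B sc) {j0 : Fin m}
    {c0 : ℝ} {R : ℝ → ℝ} (hR : RotT P B I lev j0 fl (sc j0) c0 R) {v0 D : ℝ} (hv0 : 0 < v0)
    (hv1 : v0 < 1) (hD : 0 < D) (hgap : ∀ᶠ v in 𝓝 v0, β j0 * v + D ≤ R v) :
    ∃ (H : ℕ → ℝ) (mm : ℕ → ℚ → ℚ) (B' : Base) (I' : ℕ → Finset (ℕ × ℝ)) (A' : ℕ → ℝ)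
      (sc' : Fin m → ℕ → ℝ), (∀ n, 0 < H n ∧ H n ≤ 1) ∧
      (∀ n, ∀ x : ℚ, 0 ≤ x → x ≤ 1 → 0 ≤ mm n x ∧ mm n x ≤ 1) ∧
      (∀ n, ∀ x y : ℚ, (mm n y : ℝ) - mm n x = H n * ((y : ℝ) - x)) ∧
      (∀ n, B'.d n = B.d n ^ H n) ∧ (∀ᶠ n in (U : Filter ℕ), I' n ⊆ I n) ∧
      TSys P G g s θ β B' I' (fun n x => lev n (mm n x)) A' (fun n x => f n (mm n x))
        (fun n x => b n (mm n x)) (fun n x => vm n (mm n x)) (fun j n x => w j n (mm n x))
        (fun n x => fr n (mm n x)) (fun j n x => pr j n (mm n x)) fl sc' ∧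
      CarryH (fun i n v δ => Q i n (mm n v) (H n * δ)) ∧
      Slack P β B' sc' ∧ InvT P B' I' j0 fl (sc' j0) ∧
      ∀ j, InvT P B I j fl (sc j) → InvT P B' I' j fl (sc' j) := by
  classical
  obtain ⟨H, mm, B', I', A', h1, h2, h3, h4, h5, h6, h7, h8, h9, h10, h11, hQ'⟩ :=
    h.zoomQ hQc hv0 hv1 (fun mm k n => ∀ x ∈ I n, ∀ y ∈ I n, y.1 = x.1 →
      zc (lev n (mm k 0)) y.2 = zc (lev n (mm k 0)) x.2 →
        P.d j0 n (fl n x) (fl n y) ≤ sc j0 n * B.d n ^ (R (mm k 0) - D / 2))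
      (fun mm hm k => hR.rot (mm k 0) (hm k 0 le_rfl zero_le_one).1 (hm k 0 le_rfl zero_le_one).2
        (D / 2) (by positivity))
  refine ⟨H, mm, B', I', A', _, h1, h3, h4, h6, Eventually.of_forall h7, h8, hQ', h11 hsl, ?_, h10⟩
  have hBp : ∀ n (y : ℝ), B'.d n ^ y = B.d n ^ (H n * y) := by
    intro n y
    rw [h6 n, ← Real.rpow_mul (B.pos n).le]
  intro M
  have hg1 : ∀ᶠ n in (U : Filter ℕ), β j0 * (mm n 0 : ℝ) + D ≤ R (mm n 0) :=
    (h5 0).eventually hgap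
  have hg2 : ∀ᶠ n in (U : Filter ℕ), H n * M < D / 2 := by
    have h1 : Tendsto (fun n => H n * M) U (𝓝 (0 * M)) := h2.mul_const M
    rw [zero_mul] at h1
    exact h1.eventually_lt_const (by positivity)
  filter_upwards [hg1, hg2, h9, h8.mka.cell0] with n a1 a2 a3 a4 x hx y hy hxy
  obtain ⟨mm', k, e1, a3⟩ := a3
  rw [e1] at a3
  have b1 := a3 x (h7 n hx) y (h7 n hy) hxy (a4 y hy x hx)
  refine b1.trans ?_
  rw [hBp, mul_assoc, ← dpow_add]
  exact mul_le_mul_of_nonneg_left (dpow_le B n (by linarith)) (h.scpos j0 n).le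

/-- **one zoom makes all slack monomials infinitely small.** -/
theorem TSys.zoom_slackQ [Countable κ]
    (h : TSys P G g s θ β B I lev A f b vm w fr pr fl sc) (hQc : CarryH Q) :
    ∃ (H : ℕ → ℝ) (mm : ℕ → ℚ → ℚ) (B' : Base) (I' : ℕ → Finset (ℕ × ℝ)) (A' : ℕ → ℝ)
      (sc' : Fin m → ℕ → ℝ), (∀ n, 0 < H n ∧ H n ≤ 1) ∧
      (∀ n, ∀ x : ℚ, 0 ≤ x → x ≤ 1 → 0 ≤ mm n x ∧ mm n x ≤ 1) ∧
      (∀ n, ∀ x y : ℚ, (mm n y : ℝ) - mm n x = H n * ((y : ℝ) - x)) ∧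
      (∀ n, B'.d n = B.d n ^ H n) ∧ (∀ᶠ n in (U : Filter ℕ), I' n ⊆ I n) ∧
      TSys P G g s θ β B' I' (fun n x => lev n (mm n x)) A' (fun n x => f n (mm n x))
        (fun n x => b n (mm n x)) (fun n x => vm n (mm n x)) (fun j n x => w j n (mm n x))
        (fun n x => fr n (mm n x)) (fun j n x => pr j n (mm n x)) fl sc' ∧
      CarryH (fun i n v δ => Q i n (mm n v) (H n * δ)) ∧
      Slack P β B' sc' ∧ ∀ j, InvT P B I j fl (sc j) → InvT P B' I' j fl (sc' j) := by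
  classical
  obtain ⟨H, mm, B', I', A', h1, h2, h3, h4, h5, h6, h7, h8, h9, h10, h11, hQ'⟩ :=
    h.zoomQ hQc (v0 := 1 / 2) (by norm_num) (by norm_num) (fun _ _ _ => True)
      (fun _ _ _ => Eventually.of_forall fun _ => trivial)
  refine ⟨H, mm, B', I', A', _, h1, h3, h4, h6, Eventually.of_forall h7, h8, hQ', ?_, h10⟩
  have hBp : ∀ n (y : ℝ), B'.d n ^ y = B.d n ^ (H n * y) := by
    intro n y
    rw [h6 n, ← Real.rpow_mul (B.pos n).le]
  intro j a ha hlt M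
  set Sg : ℝ := ∑ t, (a t : ℝ) * β t with hSg
  have hgl : ∀ᶠ n in (U : Filter ℕ), (1 / 4 : ℝ) < mm n 0 :=
    (h5 0).eventually_const_lt (by norm_num)
  have hgu : ∀ᶠ n in (U : Filter ℕ), (mm n 0 : ℝ) < 3 / 4 :=
    (h5 0).eventually_lt_const (by norm_num)
  have e1 : ∀ n, ∑ t', (a t' : ℝ) * (β t' * (mm n 0 : ℝ)) = Sg * (mm n 0 : ℝ) := by
    intro n
    rw [hSg, Finset.sum_mul]
    exact Finset.sum_congr rfl fun t' _ => by ring
  rcases lt_or_gt_of_ne hlt with hlt | hlt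
  · -- sum below `β` : from the level `1`
    set D : ℝ := β j - Sg with hD
    have hD0 : 0 < D := by rw [hD]; linarith
    have hg2 : ∀ᶠ n in (U : Filter ℕ), H n * M < D / 8 := by
      have h1 : Tendsto (fun n => H n * M) U (𝓝 (0 * M)) := h2.mul_const M
      rw [zero_mul] at h1
      exact h1.eventually_lt_const (by positivity)
    filter_upwards [hgu, hg2, h.wall (v := 1) zero_le_one le_rfl j a ha (D / 8) (by positivity)]
      with n a1 a2 a3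
    rw [prod_dpow] at a3
    rw [prod_dpow, hBp, e1]
    have e3 : ∑ t', (a t' : ℝ) * (β t' * ((1 : ℚ) : ℝ)) = Sg := by
      rw [hSg]
      exact Finset.sum_congr rfl fun t' _ => by push_cast; ring
    rw [e3] at a3
    have e4 : β j = Sg + D := by rw [hD]; ring
    calc (∏ t', sc t' n ^ a t') * B.d n ^ (Sg * (mm n 0 : ℝ))
        = ((∏ t', sc t' n ^ a t') * B.d n ^ Sg) * B.d n ^ (-(Sg * (1 - (mm n 0 : ℝ)))) := by
          rw [mul_assoc, ← dpow_add]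
          congr 2
          ring
      _ ≤ (sc j n * B.d n ^ (β j * ((1 : ℚ) : ℝ) - D / 8)) *
            B.d n ^ (-(Sg * (1 - (mm n 0 : ℝ)))) :=
          mul_le_mul_of_nonneg_right a3 (dpow_pos B n _).le
      _ = sc j n * B.d n ^ (β j * ((1 : ℚ) : ℝ) - D / 8 + -(Sg * (1 - (mm n 0 : ℝ)))) := by
          rw [mul_assoc, ← dpow_add]
      _ ≤ sc j n * B.d n ^ (β j * (mm n 0 : ℝ) + H n * M) := by
          refine mul_le_mul_of_nonneg_left (dpow_le B n ?_) (h.scpos j n).le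
          push_cast
          rw [e4]
          nlinarith
      _ = _ := by rw [mul_assoc, ← dpow_add]
  · set D : ℝ := Sg - β j with hD
    have hD0 : 0 < D := by rw [hD]; linarith
    have hg2 : ∀ᶠ n in (U : Filter ℕ), H n * M < D / 8 := by
      have h1 : Tendsto (fun n => H n * M) U (𝓝 (0 * M)) := h2.mul_const M
      rw [zero_mul] at h1
      exact h1.eventually_lt_const (by positivity)
    filter_upwards [hgl, hg2, h.wsc j a ha (D / 8) (by positivity)] with n a1 a2 a3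
    rw [prod_dpow, hBp, e1]
    have e2 : Sg = β j + D := by rw [hD]; ring
    rw [e2]
    calc (∏ t', sc t' n ^ a t') * B.d n ^ ((β j + D) * (mm n 0 : ℝ))
        ≤ sc j n * B.d n ^ (-(D / 8)) * B.d n ^ ((β j + D) * (mm n 0 : ℝ)) :=
          mul_le_mul_of_nonneg_right a3 (dpow_pos B n _).le
      _ = sc j n * B.d n ^ (-(D / 8) + (β j + D) * (mm n 0 : ℝ)) := by rw [mul_assoc, ← dpow_add]
      _ ≤ sc j n * B.d n ^ (β j * (mm n 0 : ℝ) + H n * M) :=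
          mul_le_mul_of_nonneg_left (dpow_le B n (by nlinarith)) (h.scpos j n).le
      _ = _ := by rw [mul_assoc, ← dpow_add]

/-- **second zoom: every slot is invisible, tied or capped** (induction on the number of visible
slots). -/
theorem exists_natTQ [Countable κ] (hC : ∀ j, β j ≤ C0 j) :
    ∀ (N : ℕ) (Q : ℕ → ℕ → ℚ → ℝ → Prop) (B : Base) (I : ℕ → Finset (ℕ × ℝ)) (lev : ℕ → ℚ → ℕ) (A : ℕ → ℝ)
      (f : ℕ → ℚ → ℕ → ℤ → ℕ) (b : ℕ → ℚ → ℕ → σ) (vm : ℕ → ℚ → ℝ) (w : κ → ℕ → ℚ → ℝ)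
      (fr : ℕ → ℚ → ℕ × ℝ → φ) (pr : Fin m → ℕ → ℚ → ℝ) (sc : Fin m → ℕ → ℝ),
      CarryH Q → TSys P G g s θ β B I lev A f b vm w fr pr fl sc → Slack P β B sc →
      (∀ j, InvT P B I j fl (sc j) ∨ 0 < β j) →
      {j | ¬ InvT P B I j fl (sc j)}.ncard ≤ N →
      NatTQ Q P G g s θ β C0 fl B I lev f b vm w fr pr := by
  classical
  intro N
  induction N with
  | zero =>
    intro Q B I lev A f b vm w fr pr sc hQ h hsl hβ hN
    have hall : ∀ j, InvT P B I j fl (sc j) := by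
      intro j
      by_contra hcon
      have h1 : {j | ¬ InvT P B I j fl (sc j)}.ncard = 0 := Nat.le_zero.1 hN
      rw [Set.ncard_eq_zero (Set.toFinite _)] at h1
      have : j ∈ {j | ¬ InvT P B I j fl (sc j)} := hcon
      rw [h1] at this
      exact this
    refine ⟨fun _ => 1, fun _ x => x, B, I, A, sc, fun n => ⟨one_pos, le_rfl⟩,
      fun n x h0 h1 => ⟨h0, h1⟩, fun n x y => by ring, fun n => by rw [Real.rpow_one],
      Eventually.of_forall fun n => Finset.Subset.refl _, by simpa only [one_mul] using hQ, h, hsl,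
      fun j => Or.inl (hall j)⟩
  | succ N ih =>
    intro Q B I lev A f b vm w fr pr sc hQ h hsl hβ hN
    obtain ⟨J, R, hd, hS, hR⟩ := h.exists_rots hβ hsl hC
    have hInvJ : ∀ j, InvT P B I j fl (sc j) → InvT P B J j fl (sc j) :=
      fun j hj => hj.dense hd
    have hβJ : ∀ j, InvT P B J j fl (sc j) ∨ 0 < β j := fun j => (hβ j).imp (hInvJ j) id
    by_cases hV : ∃ j1, ¬ InvT P B I j1 fl (sc j1) ∧ InvT P B J j1 fl (sc j1)
    · obtain ⟨j1, hj1, hj1'⟩ := hV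
      refine NatTQ.mono hd.1 (ih Q B J lev A f b vm w fr pr sc hQ hS hsl hβJ ?_)
      have hlt2 : {j | ¬ InvT P B J j fl (sc j)}.ncard < {j | ¬ InvT P B I j fl (sc j)}.ncard := by
        refine Set.ncard_lt_ncard ?_ (Set.toFinite _)
        rw [Set.ssubset_iff_of_subset]
        · exact ⟨j1, hj1, fun hj => hj hj1'⟩
        · intro j hj hj2
          exact hj (hInvJ j hj2)
      omega
    push Not at hV
    by_cases hA : ∀ j, InvT P B J j fl (sc j) ∨ ¬ Free P β B I fl sc j ∨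
        ∀ u : ℚ, 0 ≤ u → u < 1 → R j u = β j * u
    · refine ⟨fun _ => 1, fun _ x => x, B, J, A, sc, fun n => ⟨one_pos, le_rfl⟩,
        fun n x h0 h1 => ⟨h0, h1⟩, fun n x y => by ring, fun n => by rw [Real.rpow_one],
        hd.1, by simpa only [one_mul] using hQ, hS, hsl, fun j => ?_⟩
      by_cases hj : InvT P B J j fl (sc j)
      · exact Or.inl hj
      have hβj : 0 < β j := (hβJ j).resolve_left hj
      by_cases hf : Free P β B I fl sc j
      · obtain ⟨h1, h2⟩ := hR j hβj hf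
        have h3 := ((hA j).resolve_left hj).resolve_left (not_not.2 hf)
        exact Or.inr (Or.inl ⟨hβj, h1.lin hβj.le (hC j) h2 h3⟩)
      · unfold Free at hf
        push Not at hf
        obtain ⟨a, ha, hle, hinv⟩ := hf
        refine Or.inr (Or.inr ⟨hβj, a, ha, hle, fun t ht => ?_⟩)
        exact hV t (hinv t ht)
    · push Not at hA
      obtain ⟨j0, hj0, hf0, hA⟩ := hA
      have hβ0 : 0 < β j0 := (hβJ j0).resolve_left hj0
      obtain ⟨u0, hu0, hu1, hne⟩ := hA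
      obtain ⟨hR0, hR1⟩ := hR j0 hβ0 hf0
      have hu0' : (0 : ℝ) ≤ u0 := by exact_mod_cast hu0
      have hu1' : (u0 : ℝ) < 1 := by exact_mod_cast hu1
      have hlt : β j0 * u0 < R j0 u0 := lt_of_le_of_ne (hR1 u0 hu0' hu1'.le) (Ne.symm hne)
      set D : ℝ := R j0 u0 - β j0 * u0 with hDdef
      have hD : 0 < D := by rw [hDdef]; linarith
      set δ : ℝ := min (D / (2 * β j0)) (1 - u0) with hδdef
      have hδ : 0 < δ := lt_min (by positivity) (by linarith)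
      have hδ1 : δ ≤ D / (2 * β j0) := min_le_left _ _
      have hδ2 : δ ≤ 1 - u0 := min_le_right _ _
      have hgap : ∀ᶠ v in 𝓝 ((u0 : ℝ) + δ / 2), β j0 * v + D / 2 ≤ R j0 v := by
        have hmem : Set.Ioo (u0 : ℝ) (u0 + δ) ∈ 𝓝 ((u0 : ℝ) + δ / 2) :=
          Ioo_mem_nhds (by linarith) (by linarith)
        filter_upwards [hmem] with v hv
        have c1 : R j0 u0 ≤ R j0 v := hR0.mono ⟨hu0', hu1'.le⟩ ⟨by linarith [hv.1], by
          linarith [hv.2]⟩ hv.1.le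
        have c2 : β j0 * (v - u0) ≤ β j0 * (D / (2 * β j0)) :=
          mul_le_mul_of_nonneg_left (by linarith [hv.2]) hβ0.le
        have c3 : β j0 * (D / (2 * β j0)) = D / 2 := by field_simp
        rw [c3] at c2
        have c4 : β j0 * (v - u0) = β j0 * v - β j0 * u0 := by ring
        rw [c4] at c2
        linarith
      obtain ⟨H, mm, B', I', A', sc', h1, h2, h3, h4, h5, h6, hQ', h7, h8, h9⟩ :=
        hS.zoom_gapQ hQ hsl (v0 := (u0 : ℝ) + δ / 2) hR0 (by linarith) (by linarith)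
          (D := D / 2) (by positivity) hgap
      refine NatTQ.comp h1 h2 h3 h4 (by filter_upwards [h5, hd.1] with n a1 a2 using a1.trans a2)
        (ih _ B' I' _ A' _ _ _ _ _ _ sc' hQ' h6 h7 (fun j => (hβJ j).imp (h9 j) id) ?_)
      · have hlt2 : {j | ¬ InvT P B' I' j fl (sc' j)}.ncard <
            {j | ¬ InvT P B I j fl (sc j)}.ncard := by
          refine Set.ncard_lt_ncard ?_ (Set.toFinite _)
          rw [Set.ssubset_iff_of_subset]
          · exact ⟨j0, fun hj => hj0 (hInvJ j0 hj), fun hj => hj h8⟩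
          · intro j hj hj2
            exact hj (h9 j (hInvJ j hj2))
        omega

/-- **second zoom for triangular slots**, user form. -/
theorem TSys.natTQ [Countable κ] (h : TSys P G g s θ β B I lev A f b vm w fr pr fl sc)
    (hQ : CarryH Q) (hβ : ∀ j, InvT P B I j fl (sc j) ∨ 0 < β j) (hC : ∀ j, β j ≤ C0 j) :
    NatTQ Q P G g s θ β C0 fl B I lev f b vm w fr pr := by
  obtain ⟨H, mm, B', I', A', sc', h1, h2, h3, h4, h5, h6, hQ', h7, h8⟩ := h.zoom_slackQ hQ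
  exact NatTQ.comp h1 h2 h3 h4 h5 (exists_natTQ hC _ _ B' I' _ A' _ _ _ _ _ _ sc' hQ' h6 h7
    (fun j => (hβ j).imp (h8 j) id) le_rfl)

end

end Crest.Agent.R136.TD627
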