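import Crest.Agent.R136.PrW4_464
import Crest.Agent.R136.TD5_627
import Crest.Agent.R136.GW8_650

/-!
# R136, wrapper `J2 → PreQ` for the W-chart (helper464), part 5: from the first window to `WSys`

`exists_wsys` : slot data of the first thin window (650's `tsysW`, `cls`) + invisible slots for
`β ≤ 0` + carried properties ⊢ zoomed data with `WSys` (627's `TSys.natTQ`) and graded units.
-/

set_option autoImplicit false
set_option linter.unusedVariables false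

open Finset Filter Topology

namespace Crest.Agent.R136.PrW464

open Crest.Agent.R138
open Crest.Agent.R138.Ex926 (Base U QProf)
open Crest.Agent.R138.Dp76 (dpow_pos dpow_add dpow_le dpow_le_one)
open Crest.Agent.R138.Mk163 (zc zl rho alive own)
open Crest.Agent.R138.MkRef627 (lc kc)
open Crest.Agent.R136.MkA627
open Crest.Agent.R136.Net191
open Crest.Agent.R136.NetW191
open Crest.Agent.R136.Sh605
open Crest.Agent.R136.TD627
open Crest.Agent.R136.GW650 (prG)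

/-- positive version of a number -/
noncomputable def pos1 (x : ℝ) : ℝ := if 0 < x then x else 1

theorem pos1_pos (x : ℝ) : 0 < pos1 x := by
  unfold pos1; split_ifs with h
  · exact h
  · exact one_pos

theorem pos1_eq {x : ℝ} (h : 0 < x) : pos1 x = x := if_pos h

/-- carried properties of the slots -/
def Qc (B0 : Base) (I : ℕ → Finset (ℕ × ℝ)) (lev : ℕ → ℚ → ℕ) (f : ℕ → ℚ → ℕ → ℤ → ℕ) (kp : ℕ → ℝ)
    (fr : ℕ → ℚ → ℕ × ℝ → FW) (ρ wA a : ℕ → ℚ → ℝ) (C : ℝ) (Qx : ℕ → ℕ → ℚ → ℝ → Prop) :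
    ℕ → ℕ → ℚ → ℝ → Prop
  | 0, n, v, δ => (∀ k, 0 < prG ρ wA a k n v) ∧ ∀ x ∈ I n, ∀ y ∈ I n,
      kc (lev n v) (f n v) y = kc (lev n v) (f n v) x →
        ∀ k, |coW (kp n) (fr n v x) (fr n v y) k| ≤ prG ρ wA a k n v * B0.d n ^ (-δ)
  | 1, n, v, _ => (∀ k, B0.d n ^ C ≤ prG ρ wA a k n v) ∧ 0 < ρ n v ∧ 0 < wA n v ∧ 0 < a n v
  | (i + 2), n, v, δ => Qx i n v δ

section

variable {σ : Type*} {G : Geo σ (Fin 3)} {g s : ℝ} {θ ϑ : Fin 3 → ℝ} {B0 : Base}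
    {I : ℕ → Finset (ℕ × ℝ)} {lev : ℕ → ℚ → ℕ} {A : ℕ → ℝ} {f : ℕ → ℚ → ℕ → ℤ → ℕ}
    {b : ℕ → ℚ → ℕ → σ} {vm : ℕ → ℚ → ℝ} {w : Fin 3 → ℕ → ℚ → ℝ}
    {kp sg hz zs : ℕ → ℝ} {hκ : ∀ n, |kp n| ≤ 1} {L : ℕ → ℕ → Ln4} {F : ℕ → ℕ × ℝ → FW}
    {fr : ℕ → ℚ → ℕ × ℝ → FW} {ρ wA a : ℕ → ℚ → ℝ} {sc : Fin 18 → ℕ → ℝ}
    {Qx : ℕ → ℕ → ℚ → ℝ → Prop}

/-- uniform polynomial lower bound of the precisions -/
theorem low_all (sys : TSys (tdW kp hκ) G g s θ (btW ϑ) B0 I lev A f b vm w fr (prG ρ wA a) F sc)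
    {C : ℝ} (low : ∀ᶠ n in (U : Filter ℕ), ∀ k, B0.d n ^ C ≤ prG ρ wA a k n 0) {v : ℚ}
    (h0 : 0 ≤ v) (h1 : v ≤ 1) : ∀ᶠ n in (U : Filter ℕ), ∀ k,
      B0.d n ^ (C + (∑ k, |btW ϑ k|) + 2) ≤ prG ρ wA a k n v := by
  rw [Filter.eventually_all]
  intro k
  filter_upwards [low, sys.pr_le k h0 h1 one_pos, sys.pr_le k le_rfl zero_le_one one_pos]
    with n a1 a2 a3
  have v0 : (0 : ℝ) ≤ v := by exact_mod_cast h0
  have v1 : (v : ℝ) ≤ 1 := by exact_mod_cast h1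
  have hb : btW ϑ k * v ≤ ∑ k, |btW ϑ k| := by
    calc btW ϑ k * v ≤ |btW ϑ k| * 1 :=
          mul_le_mul (le_abs_self _) v1 v0 (abs_nonneg _)
      _ = |btW ϑ k| := mul_one _
      _ ≤ _ := Finset.single_le_sum (f := fun k => |btW ϑ k|) (fun _ _ => abs_nonneg _)
          (Finset.mem_univ k)
  have e0 : btW ϑ k * ((0 : ℚ) : ℝ) - 1 = -1 := by push_cast; ring
  have c1 : B0.d n ^ (C + 1) ≤ sc k n := by
    have h := (a1 k).trans a3.1
    rw [e0] at h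
    have h2 := mul_le_mul_of_nonneg_right h (dpow_pos B0 n 1).le
    rw [← dpow_add, mul_assoc, ← dpow_add] at h2
    simpa using h2
  calc B0.d n ^ (C + (∑ k, |btW ϑ k|) + 2)
      ≤ B0.d n ^ ((C + 1) + (btW ϑ k * v + 1)) := dpow_le B0 n (by linarith)
    _ = B0.d n ^ (C + 1) * B0.d n ^ (btW ϑ k * v + 1) := dpow_add B0 n _ _
    _ ≤ sc k n * B0.d n ^ (btW ϑ k * v + 1) :=
        mul_le_mul_of_nonneg_right c1 (dpow_pos B0 n _).le
    _ ≤ _ := a2.2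

theorem carry_Qc
    (sys : TSys (tdW kp hκ) G g s θ (btW ϑ) B0 I lev A f b vm w fr (prG ρ wA a) F sc)
    (cls : ∀ u : ℚ, 0 ≤ u → u ≤ 1 → ∀ ε : ℝ, 0 < ε → ∀ᶠ n in (U : Filter ℕ),
      ∀ x ∈ I n, ∀ y ∈ I n, kc (lev n u) (f n u) y = kc (lev n u) (f n u) x → ∀ k,
        |coW (kp n) (fr n u x) (fr n u y) k| ≤ prG ρ wA a k n u * B0.d n ^ (-ε))
    (pos : ∀ u : ℚ, 0 ≤ u → u ≤ 1 → ∀ᶠ n in (U : Filter ℕ), 0 < ρ n u ∧ 0 < wA n u ∧ 0 < a n u)
    {C : ℝ} (low : ∀ᶠ n in (U : Filter ℕ), ∀ k, B0.d n ^ C ≤ prG ρ wA a k n 0)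
    (hQ : CarryH Qx) :
    CarryH (Qc B0 I lev f kp fr ρ wA a (C + (∑ k, |btW ϑ k|) + 2) Qx) := by
  refine ⟨?_, ?_⟩
  · intro i n v δ δ' hδ h
    rcases i with _ | _ | i
    · refine ⟨h.1, fun x hx y hy hxy k => (h.2 x hx y hy hxy k).trans ?_⟩
      exact mul_le_mul_of_nonneg_left (dpow_le B0 n (by linarith)) (h.1 k).le
    · exact h
    · exact hQ.1 i n v δ δ' hδ h
  · intro i v h0 h1 δ hδ
    rcases i with _ | _ | i
    · have hp : ∀ᶠ n in (U : Filter ℕ), ∀ k, 0 < prG ρ wA a k n v :=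
        Filter.eventually_all.2 fun k => sys.prpos k v h0 h1
      filter_upwards [hp, cls v h0 h1 δ hδ] with n a1 a2 using ⟨a1, a2⟩
    · filter_upwards [low_all sys low h0 h1, pos v h0 h1] with n a1 a2 using ⟨a1, a2⟩
    · exact hQ.2 i v h0 h1 δ hδ

/-- **from the first thin window to `WSys`** -/
theorem exists_wsys (wd : WData B0 I kp sg hz zs L F)
    (sys : TSys (tdW kp hκ) G g s θ (btW ϑ) B0 I lev A f b vm w fr (prG ρ wA a) F sc)
    (hρ : ∀ n v, ρ n v = hz n * rho (lev n v))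
    (cls : ∀ u : ℚ, 0 ≤ u → u ≤ 1 → ∀ ε : ℝ, 0 < ε → ∀ᶠ n in (U : Filter ℕ),
      ∀ x ∈ I n, ∀ y ∈ I n, kc (lev n u) (f n u) y = kc (lev n u) (f n u) x → ∀ k,
        |coW (kp n) (fr n u x) (fr n u y) k| ≤ prG ρ wA a k n u * B0.d n ^ (-ε))
    (pos : ∀ u : ℚ, 0 ≤ u → u ≤ 1 → ∀ᶠ n in (U : Filter ℕ), 0 < wA n u ∧ 0 < a n u)
    (hβ : ∀ j, InvT (tdW kp hκ) B0 I j F (sc j) ∨ 0 < btW ϑ j)
    (low : ∃ C : ℝ, ∀ᶠ n in (U : Filter ℕ), ∀ k, B0.d n ^ C ≤ prG ρ wA a k n 0)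
    (hQ : CarryH Qx) (w0 : ℝ) :
    ∃ (H : ℕ → ℝ) (mm : ℕ → ℚ → ℚ) (B' : Base) (I' : ℕ → Finset (ℕ × ℝ)) (A' : ℕ → ℝ)
      (sc' : Fin 18 → ℕ → ℝ) (uz uc un : ℕ → ℝ), (∀ n, 0 < H n ∧ H n ≤ 1) ∧
      (∀ n, ∀ x : ℚ, 0 ≤ x → x ≤ 1 → 0 ≤ mm n x ∧ mm n x ≤ 1) ∧
      (∀ n, ∀ x y : ℚ, (mm n y : ℝ) - mm n x = H n * ((y : ℝ) - x)) ∧
      (∀ n, B'.d n = B0.d n ^ H n) ∧ (∀ᶠ n in (U : Filter ℕ), I' n ⊆ I n) ∧
      CarryH (fun i n v δ => Qx i n (mm n v) (H n * δ)) ∧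
      (∀ᶠ n in (U : Filter ℕ), uz n = B'.d n ^ w0 / (hz n * rho (lev n (mm n 0))) ∧
        uc n = B'.d n ^ w0 / (wA n (mm n 0) / ρ n (mm n 0)) ∧
        un n = B'.d n ^ (9 * w0) / a n (mm n 0) ∧ 0 < wA n (mm n 0) ∧ 0 < a n (mm n 0)) ∧
      WSys G g s θ ϑ B0 B' I' (fun n x => lev n (mm n x)) A' (fun n x => f n (mm n x))
        (fun n x => b n (mm n x)) (fun n x => vm n (mm n x)) (fun j n x => w j n (mm n x))
        kp sg hz zs hκ L F (fun n x => fr n (mm n x)) (fun j n x => prG ρ wA a j n (mm n x)) sc'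
        uz uc un w0 (fun k => |btW ϑ k| + 1) := by
  obtain ⟨C1, hC1⟩ := low
  set C : ℝ := C1 + (∑ k, |btW ϑ k|) + 2 with hC
  have hpos : ∀ u : ℚ, 0 ≤ u → u ≤ 1 → ∀ᶠ n in (U : Filter ℕ),
      0 < ρ n u ∧ 0 < wA n u ∧ 0 < a n u := fun u h0 h1 => by
    filter_upwards [pos u h0 h1] with n hn
    refine ⟨?_, hn⟩
    rw [hρ]
    exact mul_pos (wd.hz0 n) (Crest.Agent.R136.ArgA163.rho_pos _)
  obtain ⟨H, mm, B', I', A', sc', h1, h2, h3, h4, h5, h6, h7, h8, h9⟩ :=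
    sys.natTQ (carry_Qc sys cls hpos hC1 hQ) hβ (C0 := fun k => |btW ϑ k| + 1)
      (fun j => by have := le_abs_self (btW ϑ j); linarith)
  -- carried facts at the level `0` of the new window
  have q1 := h6.2 1 0 le_rfl zero_le_one 1 one_pos
  set uz : ℕ → ℝ := fun n => B'.d n ^ w0 / (hz n * rho (lev n (mm n 0))) with huz
  set uc : ℕ → ℝ := fun n => B'.d n ^ w0 / pos1 (wA n (mm n 0) / ρ n (mm n 0)) with huc
  set un : ℕ → ℝ := fun n => B'.d n ^ (9 * w0) / pos1 (a n (mm n 0)) with hun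
  have hH0 : ∀ n, B0.d n ≤ B'.d n := fun n => by
    rw [h4]
    calc B0.d n = B0.d n ^ (1 : ℝ) := (Real.rpow_one _).symm
      _ ≤ B0.d n ^ H n := dpow_le B0 n (h1 n).2
  have hr := fun n => Crest.Agent.R136.ArgA163.rho_pos (lev n (mm n 0))
  have hexact : ∀ᶠ n in (U : Filter ℕ), ∀ k,
      unW (uz n) (uc n) (un n) k * prG ρ wA a k n (mm n 0) = B'.d n ^ (wtR k * w0) := by
    filter_upwards [q1] with n hn k
    obtain ⟨-, r0, A0, a0⟩ := hn
    have e1 : uz n = B'.d n ^ w0 / ρ n (mm n 0) := by rw [huz, hρ]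
    have e2 : uc n = B'.d n ^ w0 / (wA n (mm n 0) / ρ n (mm n 0)) := by
      simp only [huc]; rw [pos1_eq (div_pos A0 r0)]
    have e3 : un n = B'.d n ^ (9 * w0) / a n (mm n 0) := by
      simp only [hun]; rw [pos1_eq a0]
    rw [e1, e2, e3, unW_div, prG, div_mul_cancel₀ _ (unW_pos r0 (div_pos A0 r0) a0 k).ne',
      unW_rpow (B'.pos n)]
    congr 1
    simp only [wtR, grW]; ring
  refine ⟨H, mm, B', I', A', sc', uz, uc, un, h1, h2, h3, h4, h5, ⟨?_, ?_⟩, ?_, ?_⟩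
  · intro i n v δ δ' hδ h
    exact h6.1 (i + 2) n v δ δ' hδ h
  · intro i v h0 h1 δ hδ
    exact h6.2 (i + 2) v h0 h1 δ hδ
  · filter_upwards [q1] with n hn
    obtain ⟨-, r0, A0, a0⟩ := hn
    refine ⟨rfl, ?_, ?_, A0, a0⟩
    · simp only [huc]; rw [pos1_eq (div_pos A0 r0)]
    · simp only [hun]; rw [pos1_eq a0]
  · refine ⟨wd.mono h5, hH0, ?_, h7, ?_, ?_, h9, ⟨?_, ?_, ?_, ?_, ?_⟩⟩
    · -- scales are polynomial
      refine ⟨C + 1, ?_⟩
      have hall : ∀ᶠ n in (U : Filter ℕ), ∀ k,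
          prG ρ wA a k n (mm n 0) ≤ sc' k n * B'.d n ^ (-(1 : ℝ)) :=
        Filter.eventually_all.2 fun k => by
          filter_upwards [h7.pr_le k le_rfl zero_le_one one_pos] with n hn
          have := hn.1
          have e0 : btW ϑ k * ((0 : ℚ) : ℝ) - 1 = -1 := by push_cast; ring
          rwa [e0] at this
      filter_upwards [q1, hall] with n hn ha k
      have c1 := (hn.1 k).trans (ha k)
      have c2 := mul_le_mul_of_nonneg_right c1 (dpow_pos B' n 1).le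
      rw [mul_assoc, ← dpow_add] at c2
      have c3 : sc' k n * B'.d n ^ (-(1 : ℝ) + 1) = sc' k n := by simp
      rw [c3] at c2
      refine le_trans ?_ c2
      rw [dpow_add]
      refine mul_le_mul_of_nonneg_left ?_ (dpow_pos B0 n _).le
      exact Real.rpow_le_rpow (B0.pos n).le (hH0 n) zero_le_one
    · intro u h0 h1 k ε hε
      filter_upwards [h6.2 0 u h0 h1 ε hε, h5] with n hn hsub x hx y hy hxy
      have h := hn.2 x (hsub hx) y (hsub hy) hxy k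
      have e : B'.d n ^ (-ε) = B0.d n ^ (-(H n * ε)) := by
        rw [h4, ← Real.rpow_mul (B0.pos n).le]; congr 1; ring
      rw [e]; exact h
    · intro k
      have := le_abs_self (btW ϑ k)
      show btW ϑ k ≤ |btW ϑ k| + 1
      linarith
    · exact fun n => div_pos (dpow_pos B' n _) (mul_pos (wd.hz0 n) (hr n))
    · exact fun n => div_pos (dpow_pos B' n _) (pos1_pos _)
    · exact fun n => div_pos (dpow_pos B' n _) (pos1_pos _)
    · intro n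
      have e : (2 : ℝ) ^ lev n (mm n 0) = (rho (lev n (mm n 0)))⁻¹ := by unfold rho; simp
      have hz := (wd.hz0 n).ne'
      have hr' := (hr n).ne'
      rw [e]
      simp only [huz]
      field_simp
    · intro k ε hε
      filter_upwards [hexact, h7.pr_le k le_rfl zero_le_one hε] with n e1 e2
      have hu := unW_pos (uz := uz n) (uc := uc n) (un := un n)
        (div_pos (dpow_pos B' n _) (mul_pos (wd.hz0 n) (hr n)))
        (div_pos (dpow_pos B' n _) (pos1_pos _)) (div_pos (dpow_pos B' n _) (pos1_pos _)) k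
      have e0 : btW ϑ k * ((0 : ℚ) : ℝ) - ε = -ε := by push_cast; ring
      have e0' : btW ϑ k * ((0 : ℚ) : ℝ) + ε = ε := by push_cast; ring
      rw [e0, e0'] at e2
      constructor
      · have h3 : prG ρ wA a k n (mm n 0) * B'.d n ^ ε ≤ sc' k n := by
          have h := mul_le_mul_of_nonneg_right e2.1 (dpow_pos B' n ε).le
          rw [mul_assoc, ← dpow_add] at h
          simpa using h
        rw [dpow_add, ← e1 k, mul_assoc]
        exact mul_le_mul_of_nonneg_left h3 hu.le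
      · have h3 : sc' k n ≤ prG ρ wA a k n (mm n 0) * B'.d n ^ (-ε) := by
          have h := mul_le_mul_of_nonneg_right e2.2 (dpow_pos B' n (-ε)).le
          rw [mul_assoc, ← dpow_add] at h
          simpa using h
        rw [sub_eq_add_neg, dpow_add, ← e1 k, mul_assoc]
        exact mul_le_mul_of_nonneg_left h3 hu.le

end

end Crest.Agent.R136.PrW464
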