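import Crest.Agent.R136.Fw5_650
import Crest.Agent.R136.PrW5_464

/-!
# R136, flags of the W-chart (helper650), part 6: the final window

`FlagsW.pos/low'`, **`FlagsW.wsys`** : `FlagsW` with `χ = -θ 1`, `ν = 1 - θ 0` ⊢ output of 464's
`exists_wsys`; **`thin_wsys`** : `ThinG` + `ClW` ⊢ the same.
-/

set_option autoImplicit false
set_option linter.unusedVariables false

open Finset Filter Topology

namespace Crest.Agent.R136.Fw650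

open Crest.Agent.R138.Ex926 (Base U)
open Crest.Agent.R138.Mk163 (zc zl rho alive Negl)
open Crest.Agent.R138.MkRef627 (lc kc)
open Crest.Agent.R138.Dp76
open Crest.Agent.R136.Sh605
open Crest.Agent.R136.Net191
open Crest.Agent.R136.NetW191
open Crest.Agent.R136.MkA627
open Crest.Agent.R136.TD627
open Crest.Agent.R136.GW650
open Crest.Agent.R136.FlW464
open Crest.Agent.R136.Tn327 (ClW tiltW)
open Crest.Agent.R136.PrW464 (unW unW_pos grW wz wc wn tdW tdW_d WData btW WSys exists_wsys)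

section

variable {σ' κ' : Type*} {G : Geo σ' κ'} {g s : ℝ} {θ : κ' → ℝ} {B : Base}
    {I : ℕ → Finset (ℕ × ℝ)} {lev : ℕ → ℚ → ℕ}
    {A : ℕ → ℝ} {f : ℕ → ℚ → ℕ → ℤ → ℕ} {b : ℕ → ℚ → ℕ → σ'} {vm : ℕ → ℚ → ℝ}
    {w : κ' → ℕ → ℚ → ℝ} {kp σ hz zs : ℕ → ℝ} {hκ : ∀ n, |kp n| ≤ 1} {L : ℕ → ℕ → Ln4}
    {F : ℕ → ℕ × ℝ → FW} {wA wB a : ℕ → ℚ → ℝ} {Mk : ℚ → ℕ → ℕ × ℤ → Fin 14 → ℝ}
    {E : ℚ → ℕ → ℕ × ℤ → ℝ} {χ ν : ℝ}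

theorem FlagsW.pos
    (h : FlagsW G g s θ χ ν B I lev A f b vm w kp σ hz zs hκ L F wA wB a Mk E) (u : ℚ)
    (h0 : 0 ≤ u) (h1 : u ≤ 1) : ∀ᶠ n in (U : Filter ℕ), 0 < wA n u ∧ 0 < a n u := by
  have hm := h.marks.mark u h0 h1
  obtain ⟨C, hC⟩ := hm.low
  filter_upwards [hm.A0, hC] with n a1 a2
  exact ⟨a1, (dpow_pos B n C).trans_le a2.1⟩

theorem FlagsW.prpos
    (h : FlagsW G g s θ χ ν B I lev A f b vm w kp σ hz zs hκ L F wA wB a Mk E) (u : ℚ)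
    (h0 : 0 ≤ u) (h1 : u ≤ 1) :
    ∀ᶠ n in (U : Filter ℕ), ∀ k, 0 < prG (rhN lev hz) wA a k n u := by
  filter_upwards [h.pos u h0 h1, (h.marks.mark u h0 h1).ρ0] with n hn hr k
  exact unW_pos hr (div_pos hn.1 hr) hn.2 k

theorem FlagsW.low'
    (h : FlagsW G g s θ χ ν B I lev A f b vm w kp σ hz zs hκ L F wA wB a Mk E) :
    ∃ C : ℝ, ∀ᶠ n in (U : Filter ℕ), ∀ k, B.d n ^ C ≤ prG (rhN lev hz) wA a k n 0 := by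
  obtain ⟨C, hC⟩ := h.low
  refine ⟨C, ?_⟩
  filter_upwards [hC, h.prpos 0 le_rfl zero_le_one] with n a1 a2 k
  have := a1 k
  simp only [ps] at this
  rwa [if_pos (a2 k)] at this

end

section

variable {σ' : Type*} {G : Geo σ' (Fin 3)} {g s : ℝ} {θ ϑ : Fin 3 → ℝ} {B : Base}
    {I : ℕ → Finset (ℕ × ℝ)} {lev : ℕ → ℚ → ℕ}
    {A : ℕ → ℝ} {f : ℕ → ℚ → ℕ → ℤ → ℕ} {b : ℕ → ℚ → ℕ → σ'} {vm : ℕ → ℚ → ℝ}
    {w : Fin 3 → ℕ → ℚ → ℝ} {kp σ hz zs : ℕ → ℝ} {hκ : ∀ n, |kp n| ≤ 1} {L : ℕ → ℕ → Ln4}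
    {F : ℕ → ℕ × ℝ → FW} {wA wB a : ℕ → ℚ → ℝ} {Mk : ℚ → ℕ → ℕ × ℤ → Fin 14 → ℝ}
    {E : ℚ → ℕ → ℕ × ℤ → ℝ} {Qx : ℕ → ℕ → ℚ → ℝ → Prop}

/-- output of the last zoom of the thin branch (`PrW464.exists_wsys`) -/
def ThinEnd (G : Geo σ' (Fin 3)) (g s : ℝ) (θ ϑ : Fin 3 → ℝ) (B : Base)
    (I : ℕ → Finset (ℕ × ℝ)) (lev : ℕ → ℚ → ℕ) (f : ℕ → ℚ → ℕ → ℤ → ℕ) (b : ℕ → ℚ → ℕ → σ')
    (vm : ℕ → ℚ → ℝ) (w : Fin 3 → ℕ → ℚ → ℝ) (kp σ hz zs : ℕ → ℝ) (hκ : ∀ n, |kp n| ≤ 1)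
    (L : ℕ → ℕ → Ln4) (F : ℕ → ℕ × ℝ → FW) (wA a : ℕ → ℚ → ℝ)
    (Mk : ℚ → ℕ → ℕ × ℤ → Fin 14 → ℝ) (Qx : ℕ → ℕ → ℚ → ℝ → Prop) (w0 : ℝ) : Prop :=
  ∃ (H : ℕ → ℝ) (mm : ℕ → ℚ → ℚ) (B' : Base) (I' : ℕ → Finset (ℕ × ℝ)) (A' : ℕ → ℝ)
      (sc' : Fin 18 → ℕ → ℝ) (uz uc un : ℕ → ℝ), (∀ n, 0 < H n ∧ H n ≤ 1) ∧
      (∀ n, ∀ x : ℚ, 0 ≤ x → x ≤ 1 → 0 ≤ mm n x ∧ mm n x ≤ 1) ∧
      (∀ n, ∀ x y : ℚ, (mm n y : ℝ) - mm n x = H n * ((y : ℝ) - x)) ∧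
      (∀ n, B'.d n = B.d n ^ H n) ∧ (∀ᶠ n in (U : Filter ℕ), I' n ⊆ I n) ∧
      CarryH (fun i n v δ => Qx i n (mm n v) (H n * δ)) ∧
      (∀ᶠ n in (U : Filter ℕ), uz n = B'.d n ^ w0 / (hz n * rho (lev n (mm n 0))) ∧
        uc n = B'.d n ^ w0 / (wA n (mm n 0) / rhN lev hz n (mm n 0)) ∧
        un n = B'.d n ^ (9 * w0) / a n (mm n 0) ∧ 0 < wA n (mm n 0) ∧ 0 < a n (mm n 0)) ∧
      WSys G g s θ ϑ B B' I' (fun n x => lev n (mm n x)) A' (fun n x => f n (mm n x))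
        (fun n x => b n (mm n x)) (fun n x => vm n (mm n x)) (fun j n x => w j n (mm n x))
        kp σ hz zs hκ L F (fun n x => GW650.frW lev f Mk F n (mm n x))
        (fun j n x => prG (rhN lev hz) wA a j n (mm n x)) sc'
        uz uc un w0 (fun k => |btW ϑ k| + 1)

/-- **from `FlagsW` to the final window** -/
theorem FlagsW.wsys
    (h : FlagsW G g s θ (-ϑ 1) (1 - ϑ 0) B I lev A f b vm w kp σ hz zs hκ L F wA wB a Mk E)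
    (hQ : CarryH Qx) (w0 : ℝ) :
    ThinEnd G g s θ ϑ B I lev f b vm w kp σ hz zs hκ L F wA a Mk Qx w0 :=
  exists_wsys (ϑ := ϑ) h.wd h.sys (fun n v => rfl)
    (fun u h0 h1 ε hε => h.marks.cls h0 h1 hε) (fun u h0 h1 => h.pos u h0 h1)
    h.alt h.low' hQ w0

/-- **from the first thin window to the final window**; `Qx J` = any countable list of
properties of the dense part `J`. -/
theorem thin_wsys (h : ThinG B I lev f kp σ hz zs L wA wB a Mk E)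
    (hM : MkA B I G lev A (fun v => g * v) (fun v => s * v) (fun j v => θ j * (1 - v)) f b vm w)
    (hA : Lin B wA (1 - ϑ 1)) (ha : Lin B a (1 - ϑ 0)) {zm : ℚ → ℕ → ℕ × ℝ → ℝ}
    (hz' : ∀ v : ℚ, 0 ≤ v → v ≤ 1 → ∀ᶠ n in (U : Filter ℕ), ∀ x ∈ I n,
      |zhN hz zs n x - zm v n x| ≤ rhN lev hz n v)
    (hcl : ClW B I lev f kp L zm (rhN lev hz) wA a Mk)
    {Qx : (ℕ → Finset (ℕ × ℝ)) → ℕ → ℕ → ℚ → ℝ → Prop}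
    (hQ : ∀ J : ℕ → Finset (ℕ × ℝ), (∀ n, J n ⊆ I n) → Dense B J I →
      MkA B J G lev A (fun v => g * v) (fun v => s * v) (fun j v => θ j * (1 - v)) f b vm w →
      ThinG B J lev f kp σ hz zs L wA wB a Mk E → CarryH (Qx J)) (w0 : ℝ) :
    ∃ J : ℕ → Finset (ℕ × ℝ), (∀ n, J n ⊆ I n) ∧ Dense B J I ∧
      MkA B J G lev A (fun v => g * v) (fun v => s * v) (fun j v => θ j * (1 - v)) f b vm w ∧
      ThinG B J lev f kp σ hz zs L wA wB a Mk E ∧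
      FlagsW G g s θ (-ϑ 1) (1 - ϑ 0) B J lev A f b vm w kp σ hz zs h.kp1 L
        (flW kp σ hz zs L lev f Mk (-ϑ 1) (1 - ϑ 0)) wA wB a Mk E ∧
      ThinEnd G g s θ ϑ B J lev f b vm w kp σ hz zs h.kp1 L
        (flW kp σ hz zs L lev f Mk (-ϑ 1) (1 - ϑ 0)) wA a Mk (Qx J) w0 := by
  have hA' : Lin B wA (1 + -ϑ 1) := by rwa [← sub_eq_add_neg]
  obtain ⟨J, hJ, hJd, hJM, hJT, hF⟩ := flags_of_cl (χ := -ϑ 1) (ν := 1 - ϑ 0) h hM hA' ha hz' hcl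
  exact ⟨J, hJ, hJd, hJM, hJT, hF, hF.wsys (hQ J hJ hJd hJM hJT) w0⟩

end

end Crest.Agent.R136.Fw650
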