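import Crest.Agent.R136.Fw5_808
import Crest.Agent.R136.Ff4_880
import Crest.Agent.R136.Cbc_372

/-!
# R136 (S0187): flat tilt, closed (helper808)

helper372's `tiltCore` + helper880's `flatFree_of` + `tiltF_G`.
-/

set_option autoImplicit false

namespace Crest.Agent.R136.Fl808

open Crest.Agent.R136.Top484 (Par4 Dat4 J1 J1c)

theorem flatFree : FlatFree := Ff880.flatFree_of Cbc372.tiltCore

/-- **flat tilt of the extremal sequence**, any `η`, no hypothesis left -/
theorem tiltF_closed {η : ℝ} {p : Par4} {D : Dat4} (h : J1c η p D)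
    (hF : Ut262.FlatMk D) : Ut262.TiltF D := tiltF_G flatFree h hF

theorem seamTiltFQ_closed (Q : Par4 → Prop) (η : ℝ) : Ut262.SeamTiltFQ Q η :=
  seamTiltFQ flatFree Q η

end Crest.Agent.R136.Fl808
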