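import Crest.Agent.R136.Gr2_356
import Crest.Agent.R138.TwA_501

/-!
# R136: Kaufman in pair form over `RUnif`, and the linear slots are full (helper940)

* `kauf_pair_fin`: finite Kaufman inequality with labels and pair distances;
* `kauf_pair_R`, `kauf_pair_rate_R`: the same over `RUnif`, NO absolute coordinate of a line at a
  height is needed (only increments of pairs at the pin);
* `full_R`: if the slot `sX` moves with the velocity slot `sC` and narrowing `sC` has positive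
  rate, then `σ ≤` rate of `sX`.
-/

set_option autoImplicit false
set_option linter.unusedVariables false
set_option linter.unusedSectionVars false

open Filter Topology Finset

namespace Crest.Agent.R136.Fx940

open Crest.Agent.R138.Ex926 (Base U)
open Crest.Agent.R136.Gf356
open Crest.Agent.R138.TwA501 (energy pair_sum_le)

/-- **finite Kaufman inequality, pairs and labels** -/
theorem kauf_pair_fin (S K : Finset ℕ) (al : ℕ → ℕ → Prop) (lab : ℕ → ℕ → ℕ)
    (Q : ℕ → ℕ → ℕ → Prop) (E : ℕ → ℕ → ℝ) (t b a : ℕ → ℝ) (J : ℕ) {M m : ℝ}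
    (hK : K.Nonempty) (hS : S.Nonempty) (hm : 0 ≤ m)
    (hlab : ∀ k ∈ K, ∀ i ∈ S, ∀ i' ∈ S, al i k → al i' k → lab k i = lab k i' → Q k i i')
    (hM : ∀ k ∈ K, ∀ T ⊆ S, (∀ i ∈ T, al i k) → ((T.image (lab k)).card : ℝ) ≤ M)
    (hal : ∀ i ∈ S, ∀ T ⊆ K, (∀ k ∈ K, al i k → k ∈ T) → m * K.card ≤ (T.card : ℝ))
    (hb : ∀ j ≤ J, 0 ≤ b j)
    (h0 : ∀ i ∈ S, ∀ i' ∈ S, E i i' ≤ t 0)
    (h1 : ∀ j < J, ∀ i ∈ S, ∀ i' ∈ S, t (j + 1) < E i i' → ∀ T ⊆ K, (∀ k ∈ T, Q k i i') →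
      (T.card : ℝ) ≤ b j * K.card)
    (h2 : 1 ≤ b J)
    (ha : ∀ j ≤ J, ∀ i ∈ S, ∀ T ⊆ S, (∀ i' ∈ T, E i i' ≤ t j) → (T.card : ℝ) ≤ a j) :
    m ^ 2 * (S.card : ℝ) ≤ M * ∑ j ∈ range (J + 1), a j * b j := by
  classical
  have hKc : (0 : ℝ) < K.card := by exact_mod_cast hK.card_pos
  have hSc : (0 : ℝ) < S.card := by exact_mod_cast hS.card_pos
  have e1 := energy (S := S) (K := K) (fun k => S.filter fun i => al i k)
    (fun k _ => filter_subset _ _) (fun k i => (lab k i : ℤ)) Q M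
    (by
      intro k hk i hi i' hi' h
      obtain ⟨a1, a2⟩ := mem_filter.1 hi
      obtain ⟨b1, b2⟩ := mem_filter.1 hi'
      exact hlab k hk i a1 i' b1 a2 b2 (by exact_mod_cast h))
    (by
      intro k hk
      refine le_trans (le_of_eq ?_) (hM k hk (S.filter fun i => al i k) (filter_subset _ _)
        (fun i hi => (mem_filter.1 hi).2))
      congr 1
      have : ((S.filter fun i => al i k).image fun i => (lab k i : ℤ)) =
          ((S.filter fun i => al i k).image (lab k)).image (fun x : ℕ => (x : ℤ)) := by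
        rw [image_image]; rfl
      rw [this, card_image_of_injective _ Nat.cast_injective])
  have hM0 : 0 ≤ M := by
    obtain ⟨k, hk⟩ := hK
    have := hM k hk ∅ (empty_subset _) (by simp)
    simpa using this
  have e2 : m * (K.card : ℝ) * S.card ≤ ∑ k ∈ K, ((S.filter fun i => al i k).card : ℝ) := by
    have h3 : ∑ k ∈ K, ((S.filter fun i => al i k).card : ℝ) =
        ∑ i ∈ S, ((K.filter fun k => al i k).card : ℝ) := by
      have := sum_card_bipartiteAbove_eq_sum_card_bipartiteBelow (s := S) (t := K)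
        (r := fun i k => al i k)
      simp only [bipartiteAbove, bipartiteBelow] at this
      exact_mod_cast this.symm
    rw [h3]
    calc m * (K.card : ℝ) * S.card = ∑ i ∈ S, m * (K.card : ℝ) := by
          rw [sum_const, nsmul_eq_mul]; ring
      _ ≤ _ := sum_le_sum fun i hi => hal i hi _ (filter_subset _ _)
          (fun k hk h => mem_filter.2 ⟨hk, h⟩)
  have e3 := pair_sum_le (S := S) (fun i i' => ((K.filter fun k => Q k i i').card : ℝ)) E t
    (fun j => b j * K.card) J (fun j hj => mul_nonneg (hb j hj) hKc.le) h0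
    (by
      intro j hj i hi i' hi' h
      exact h1 j hj i hi i' hi' h _ (filter_subset _ _) (fun k hk => (mem_filter.1 hk).2))
    (by
      intro i hi i' hi'
      have : ((K.filter fun k => Q k i i').card : ℝ) ≤ K.card := by
        exact_mod_cast card_le_card (filter_subset _ _)
      nlinarith)
    a (by
      intro j hj i hi
      exact ha j hj i hi _ (filter_subset _ _) (fun k hk => (mem_filter.1 hk).2))
  have e4 : (m * (K.card : ℝ) * S.card) ^ 2 ≤ (K.card : ℝ) * (M *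
      (S.card * ∑ j ∈ range (J + 1), a j * (b j * K.card))) := by
    refine (pow_le_pow_left₀ (by positivity) e2 2).trans (e1.trans ?_)
    refine mul_le_mul_of_nonneg_left ?_ hKc.le
    exact mul_le_mul_of_nonneg_left e3 hM0
  have e5 : ∑ j ∈ range (J + 1), a j * (b j * K.card) =
      (∑ j ∈ range (J + 1), a j * b j) * K.card := by
    rw [sum_mul]
    exact sum_congr rfl fun j _ => by ring
  rw [e5] at e4
  set W := ∑ j ∈ range (J + 1), a j * b j with hW
  have e6 : (m ^ 2 * (S.card : ℝ)) * ((K.card : ℝ) ^ 2 * S.card) ≤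
      (M * W) * ((K.card : ℝ) ^ 2 * S.card) := by
    calc (m ^ 2 * (S.card : ℝ)) * ((K.card : ℝ) ^ 2 * S.card)
        = (m * (K.card : ℝ) * S.card) ^ 2 := by ring
      _ ≤ _ := e4
      _ = _ := by ring
  exact le_of_mul_le_mul_right e6 (by positivity)

variable {κ : Type} {B : Base} {G : ℕ → RCfg κ} {Leg : Set (κ → ℝ)} {ν : (κ → ℝ) → ℝ}
  {σ R D : ℝ}

/-- heights at which a pair is close: they lie in a small interval of `φ` -/
theorem close_heights {A V φ φ' v w r : ℝ} (hv : 0 < v) (hV : v ≤ |V|)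
    (h : |A + φ * V| ≤ r) (h' : |A + φ' * V| ≤ r) : |φ' - φ| ≤ 2 * r / v := by
  have h1 : |φ' - φ| * |V| ≤ 2 * r := by
    rw [← abs_mul]
    have : (φ' - φ) * V = (A + φ' * V) - (A + φ * V) := by ring
    rw [this]
    refine (abs_sub _ _).trans ?_
    linarith
  rw [le_div_iff₀ hv]
  exact (mul_le_mul_of_nonneg_left hV (abs_nonneg _)).trans h1

/-- **Kaufman over `RUnif`, pair form.**  `A n i i'`, `V n i i'` = increments of the pair at the
pin, `φ n k` = multiplier. -/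
theorem kauf_pair_R (H : RUnif B G Leg ν D) (i0 k0 : ℕ → ℕ)
    (h0 : ∀ᶠ n in (U : Filter ℕ), (i0 n, k0 n) ∈ (G n).I) (pS pT r : κ → ℝ)
    (hpS : pS ∈ Leg) (hpT : pT ∈ Leg) (hr : r ∈ Leg) (hTr : ∀ j, pT j ≤ r j) {x τ : ℝ}
    (hx : 0 < x) (hτ0 : 0 ≤ τ) (hτ1 : τ ≤ 1)
    (A V : ℕ → ℕ → ℕ → ℝ) (φ : ℕ → ℕ → ℝ) (Zg : ℕ → Finset ℕ)
    (hZg : ∀ᶠ n in (U : Filter ℕ), (Zg n).Nonempty) {J : ℕ} (hJ : 0 < J) (Q : ℕ → κ → ℝ)
    (hQm : ∀ j ≤ J, Q j ∈ Leg) {C1 : ℝ} (hC1 : 0 < C1)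
    (hφ : ∀ ε : ℝ, 0 < ε → ∀ᶠ n in (U : Filter ℕ), ∀ k ∈ Zg n, |φ n k| ≤ B.d n ^ (-(C1 * ε)))
    (hV : ∀ ε : ℝ, 0 < ε → ∀ᶠ n in (U : Filter ℕ), ∀ i ∈ (G n).box pS ε (i0 n) (k0 n),
      ∀ i' ∈ (G n).box pS ε (i0 n) (k0 n), |V n i i'| ≤ B.d n ^ (-(C1 * ε)) ∧
        |A n i i'| ≤ B.d n ^ (-(C1 * ε)))
    (hT : ∀ ε : ℝ, 0 < ε → ∀ᶠ n in (U : Filter ℕ), ∀ k ∈ Zg n,
      ∀ i ∈ (G n).box pS ε (i0 n) (k0 n), ∀ i' ∈ (G n).box pS ε (i0 n) (k0 n),
      (i, k) ∈ (G n).I → (i', k) ∈ (G n).I → (G n).loose pT (C1 * ε) k i i')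
    (hgeo : ∀ C2 : ℝ, 0 < C2 → ∃ C3 : ℝ, 0 < C3 ∧ ∀ ε : ℝ, 0 < ε → ∀ᶠ n in (U : Filter ℕ),
      ∀ k ∈ Zg n, ∀ i ∈ (G n).box pS ε (i0 n) (k0 n), ∀ i' ∈ (G n).box pS ε (i0 n) (k0 n),
      (i, k) ∈ (G n).I → (i', k) ∈ (G n).I → (G n).loose r (C2 * ε) k i i' →
      |A n i i' + φ n k * V n i i'| ≤ B.d n ^ (x - C3 * ε))
    (hal : ∀ ε : ℝ, 0 < ε → ∀ᶠ n in (U : Filter ℕ), ∀ i ∈ (G n).box pS ε (i0 n) (k0 n),
      ∀ T ⊆ Zg n, (∀ k ∈ Zg n, (i, k) ∈ (G n).I → k ∈ T) →
      B.d n ^ (C1 * ε) * ((Zg n).card : ℝ) ≤ (T.card : ℝ))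
    (hQ : ∀ C3 : ℝ, 0 < C3 → ∃ C4 : ℝ, 0 < C4 ∧ ∀ j ≤ J, ∀ ε : ℝ, 0 < ε →
      ∀ᶠ n in (U : Filter ℕ),
      ∀ i ∈ (G n).box pS ε (i0 n) (k0 n), ∀ i' ∈ (G n).box pS ε (i0 n) (k0 n),
      |V n i i'| ≤ B.d n ^ (sc x J j - C3 * ε) →
      |A n i i'| ≤ B.d n ^ (sc x J j - C3 * ε) →
      (G n).loose (Q j) (C4 * ε) (k0 n) i i')
    (hfr : ∀ y : ℝ, 0 ≤ y → y ≤ x → ∀ ε : ℝ, 0 < ε → ∀ᶠ n in (U : Filter ℕ), ∀ k ∈ Zg n,
      ∀ T ⊆ Zg n, (∀ k' ∈ T, |φ n k' - φ n k| ≤ B.d n ^ y) →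
      (T.card : ℝ) ≤ B.d n ^ (τ * y - ε) * ((Zg n).card : ℝ)) :
    ∃ j ≤ J, ν pS - ν (Q j) + τ * (x - sc x J (j + 1)) ≤ ν pT - ν r := by
  classical
  have hD := H.D1
  have hD0 : 0 < D := by linarith
  obtain ⟨C3, hC3, hgeo1⟩ := hgeo (D ^ 5 * C1) (by positivity)
  obtain ⟨C4, hC4, hQ1⟩ := hQ C1 hC1
  -- all heights of a close pair are within `ρ^(x - t - C5 ε)`
  set C5 : ℝ := C3 + 2 * C1 + 2 with hC5
  have hC5p : 0 < C5 := by positivity
  set hh : ℝ := x / J with hhh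
  have hJr : (0 : ℝ) < J := by exact_mod_cast hJ
  have hh0 : 0 < hh := by positivity
  set C6 : ℝ := (D ^ 2 + 1) * C1 + D * C4 + 2 * C5 + 3 * C1 + 10 with hC6
  obtain ⟨j, hj, h⟩ := exists_le_of_ev B J
    (fun j => -(ν pT - ν r) - ν (Q j) + τ * (x - sc x J (j + 1))) (-ν pS)
    (C6 * (1 + 4 * C5 / hh)) 1 (by
    intro ε0 hε0
    -- pass to a small `ε`
    set ε : ℝ := min ε0 (hh / (4 * C5)) with hε
    have hεp : 0 < ε := lt_min hε0 (by positivity)
    have hε1 : ε ≤ ε0 := min_le_left _ _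
    have hε2 : ε ≤ hh / (4 * C5) := min_le_right _ _
    have hε3 : 4 * (C5 * ε) ≤ hh := by
      rw [le_div_iff₀ (by positivity)] at hε2
      linarith
    have hC1ε : 0 < C1 * ε := by positivity
    have hC5ε : 0 < C5 * ε := by positivity
    have ev1 : ∀ᶠ n in (U : Filter ℕ), ∀ j ∈ range (J + 1),
        ∀ i ∈ (G n).box pS ε (i0 n) (k0 n), ∀ i' ∈ (G n).box pS ε (i0 n) (k0 n),
        |V n i i'| ≤ B.d n ^ (sc x J j - C1 * ε) →
        |A n i i'| ≤ B.d n ^ (sc x J j - C1 * ε) →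
        (G n).loose (Q j) (C4 * ε) (k0 n) i i' := by
      rw [Filter.eventually_all_finset]
      intro j hj
      exact hQ1 j (by simpa [Nat.lt_succ_iff] using hj) ε hεp
    have ev2 : ∀ᶠ n in (U : Filter ℕ), ∀ j ∈ range (J + 1), ∀ i,
        (i, k0 n) ∈ (G n).I →
        (((G n).box (Q j) (C4 * ε) i (k0 n)).card : ℝ) ≤ B.d n ^ (-ν (Q j) - D * (C4 * ε)) := by
      rw [Filter.eventually_all_finset]
      intro j hj
      filter_upwards [H.up (Q j) (hQm j (by simpa [Nat.lt_succ_iff] using hj)) (C4 * ε)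
        (by positivity)] with n hn i hi
      exact hn i _ hi
    have ev3 : ∀ᶠ n in (U : Filter ℕ), ∀ j ∈ range (J - 1), ∀ k ∈ Zg n,
        ∀ T ⊆ Zg n, (∀ k' ∈ T, |φ n k' - φ n k| ≤ B.d n ^ (x - sc x J (j + 1) - C5 * ε)) →
        (T.card : ℝ) ≤ B.d n ^ (τ * (x - sc x J (j + 1) - C5 * ε) - ε) * ((Zg n).card : ℝ) := by
      rw [Filter.eventually_all_finset]
      intro j hj
      have hj' : j + 1 + 1 ≤ J := by
        have := mem_range.1 hj
        omega
      have g1 : sc x J (j + 1) + hh ≤ x := by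
        have := sc_le hx.le hJ hj'
        rw [sc_succ x hJ] at this
        exact this
      exact hfr _ (by linarith) (by linarith [sc_nonneg hx.le J (j + 1)]) ε hεp
    filter_upwards [ev1, ev2, ev3, h0, hZg, hφ ε hεp, hV ε hεp, hT ε hεp, hgeo1 ε hεp, hal ε hεp,
      H.low pS hpS ε hεp, H.exists_lab_loose pT r hpT hr hTr hC1ε, ev_const_le B hεp 8]
      with n h1 h2 h3 h0n hZn hφn hVn hTn hgn haln hlow hlabn h8
    have hpow : ∀ t : ℝ, 0 < B.d n ^ t := fun t => rpos B n t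
    set S := (G n).box pS ε (i0 n) (k0 n) with hS
    have hSne : S.Nonempty := ⟨i0 n, H.self_mem_box pS ε h0n⟩
    have hSI : ∀ i ∈ S, (i, k0 n) ∈ (G n).I := fun i hi =>
      H.memSlice.1 (RCfg.box_subset_slice hi)
    have hZc : (0 : ℝ) < (Zg n).card := by exact_mod_cast hZn.card_pos
    -- labels
    have hlabE : ∀ k : ℕ, ∃ lab : ℕ → ℕ, k ∈ Zg n →
        (∀ t ∈ S, ∀ t' ∈ S, (t, k) ∈ (G n).I → (t', k) ∈ (G n).I → lab t = lab t' →
          (G n).loose r (D ^ 5 * (C1 * ε)) k t t') ∧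
        (((S.filter fun i => (i, k) ∈ (G n).I).image lab).card : ℝ) ≤
          B.d n ^ (-(ν pT - ν r) - (D ^ 2 + 1) * (C1 * ε)) := by
      intro k
      by_cases hk : k ∈ Zg n
      · obtain ⟨lab, l1, l2⟩ := hlabn k (S.filter fun i => (i, k) ∈ (G n).I)
          (fun i hi => H.memSlice.2 (mem_filter.1 hi).2)
          (fun i hi i' hi' => by
            obtain ⟨a1, a2⟩ := mem_filter.1 hi
            obtain ⟨b1, b2⟩ := mem_filter.1 hi'
            exact hTn k hk i a1 i' b1 a2 b2)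
        exact ⟨lab, fun _ => ⟨fun t ht t' ht' hI hI' he =>
          l1 t (mem_filter.2 ⟨ht, hI⟩) t' (mem_filter.2 ⟨ht', hI'⟩) he, l2⟩⟩
      · exact ⟨id, fun h => absurd h hk⟩
    choose lab hlab using hlabE
    have key := kauf_pair_fin S (Zg n) (fun i k => (i, k) ∈ (G n).I) lab
      (fun k i i' => (i, k) ∈ (G n).I ∧ (i', k) ∈ (G n).I ∧
        (G n).loose r (D ^ 5 * (C1 * ε)) k i i')
      (fun i i' => max |A n i i'| |V n i i'|)
      (fun j => B.d n ^ (sc x J j - C1 * ε))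
      (fun j => B.d n ^ (τ * (x - sc x J (j + 1)) - (C5 + 1) * ε))
      (fun j => B.d n ^ (-ν (Q j) - D * (C4 * ε))) J
      (M := B.d n ^ (-(ν pT - ν r) - (D ^ 2 + 1) * (C1 * ε))) (m := B.d n ^ (C1 * ε))
      hZn hSne (hpow _).le
      (fun k hk i hi i' hi' hI hI' he =>
        ⟨hI, hI', (hlab k hk).1 i hi i' hi' hI hI' he⟩)
      (by
        intro k hk T hTS hTal
        refine le_trans ?_ (hlab k hk).2
        refine mod_cast card_le_card (image_subset_image ?_)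
        intro i hi
        exact mem_filter.2 ⟨hTS hi, hTal i hi⟩)
      haln
      (fun j _ => (hpow _).le)
      (by
        intro i hi i' hi'
        simp only [sc_zero, zero_sub]
        exact max_le (hVn i hi i' hi').2 (hVn i hi i' hi').1)
      (by
        -- few common heights
        intro j hj i hi i' hi' hE T hTZ hTQ
        by_cases hjJ : j + 1 < J
        · have g1 : sc x J (j + 1) + hh ≤ x := by
            have := sc_le hx.le hJ (by omega : j + 1 + 1 ≤ J)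
            rw [sc_succ x hJ] at this
            exact this
          rcases T.eq_empty_or_nonempty with rfl | ⟨k1, hk1⟩
          · simp only [card_empty, Nat.cast_zero]
            exact mul_nonneg (hpow _).le hZc.le
          have hsm : ∀ k ∈ T, |A n i i' + φ n k * V n i i'| ≤ B.d n ^ (x - C3 * ε) := by
            intro k hk
            obtain ⟨q1, q2, q3⟩ := hTQ k hk
            have e1 : D ^ 5 * (C1 * ε) = D ^ 5 * C1 * ε := by ring
            rw [e1] at q3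
            exact hgn k (hTZ hk) i hi i' hi' q1 q2 q3
          -- the velocity is large
          set u := B.d n ^ (C1 * ε) with hu
          have hu0 : 0 < u := hpow _
          have huv : u * B.d n ^ (-(C1 * ε)) = 1 := by
            rw [hu, ← rpow_add', add_neg_cancel, Real.rpow_zero]
          have hu1 : u ≤ 1 := Real.rpow_le_one (B.pos n).le (B.lt n).le hC1ε.le
          set w := B.d n ^ (sc x J (j + 1) - C1 * ε) with hw
          have hw0 : 0 < w := hpow _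
          have hr8 : 8 * B.d n ^ (x - C3 * ε) ≤ w := by
            have e1 : B.d n ^ (x - C3 * ε) * B.d n ^ (-ε) ≤ w := by
              rw [← rpow_add', hw]
              refine rpow_anti B n ?_
              have : C5 * ε = C3 * ε + 2 * (C1 * ε) + 2 * ε := by rw [hC5]; ring
              linarith
            have := hpow (x - C3 * ε)
            nlinarith
          have hVl : u * w / 2 ≤ |V n i i'| := by
            by_contra hcon
            push Not at hcon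
            have b1 : |V n i i'| < w := by nlinarith
            have b2 : w < |A n i i'| := by
              rcases lt_max_iff.1 hE with h | h
              · exact h
              · linarith
            have b3 := hsm k1 hk1
            have b4 := hφn k1 (hTZ hk1)
            have b5 : |φ n k1 * V n i i'| ≤ w / 2 := by
              rw [abs_mul]
              calc |φ n k1| * |V n i i'| ≤ B.d n ^ (-(C1 * ε)) * (u * w / 2) :=
                    mul_le_mul b4 hcon.le (abs_nonneg _) (hpow _).le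
                _ = (u * B.d n ^ (-(C1 * ε))) * w / 2 := by ring
                _ = w / 2 := by rw [huv, one_mul]
            have b6 : |A n i i'| ≤ |A n i i' + φ n k1 * V n i i'| + |φ n k1 * V n i i'| := by
              have := abs_sub (A n i i' + φ n k1 * V n i i') (φ n k1 * V n i i')
              rwa [add_sub_cancel_right] at this
            linarith
          have hclose : ∀ k ∈ T, |φ n k - φ n k1| ≤ B.d n ^ (x - sc x J (j + 1) - C5 * ε) := by
            intro k hk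
            have c1 := close_heights (w := 0) (by positivity : 0 < u * w / 2) hVl (hsm k1 hk1)
              (hsm k hk)
            refine c1.trans ?_
            rw [div_le_iff₀ (by positivity)]
            have c2 : B.d n ^ (x - sc x J (j + 1) - C5 * ε) * (u * w / 2) =
                B.d n ^ (x - C5 * ε) / 2 := by
              have : B.d n ^ (x - C5 * ε) =
                  B.d n ^ (x - sc x J (j + 1) - C5 * ε) * (u * w) := by
                rw [hu, hw, ← rpow_add', ← rpow_add']; congr 1; ring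
              rw [this]; ring
            rw [c2]
            have c3 : B.d n ^ (x - C3 * ε) * B.d n ^ (-ε) ≤ B.d n ^ (x - C5 * ε) := by
              rw [← rpow_add']
              refine rpow_anti B n ?_
              have : C5 * ε = C3 * ε + 2 * (C1 * ε) + 2 * ε := by rw [hC5]; ring
              linarith
            have := hpow (x - C3 * ε)
            nlinarith
          refine (h3 j (mem_range.2 (by omega)) k1 (hTZ hk1) T hTZ hclose).trans ?_
          refine mul_le_mul_of_nonneg_right (rpow_anti B n ?_) hZc.le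
          have : τ * (C5 * ε) ≤ 1 * (C5 * ε) := mul_le_mul_of_nonneg_right hτ1 hC5ε.le
          nlinarith
        · -- trivial bound
          have hjJ' : j + 1 = J := by omega
          have e1 : (T.card : ℝ) ≤ (Zg n).card := by exact_mod_cast card_le_card hTZ
          refine e1.trans ?_
          have e2 : 1 ≤ B.d n ^ (τ * (x - sc x J (j + 1)) - (C5 + 1) * ε) := by
            apply Real.one_le_rpow_of_pos_of_le_one_of_nonpos (B.pos n) (B.lt n).le
            rw [hjJ', sc_top x hJ]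
            have : 0 ≤ (C5 + 1) * ε := by positivity
            linarith
          nlinarith)
      (by
        apply Real.one_le_rpow_of_pos_of_le_one_of_nonpos (B.pos n) (B.lt n).le
        rw [sc_succ x hJ, sc_top x hJ]
        have a1 : 0 ≤ (C5 + 1) * ε := by positivity
        have a2 : 0 ≤ τ * hh := by positivity
        have a3 : τ * (x - (x + x / J)) = -(τ * hh) := by rw [hhh]; ring
        linarith)
      (by
        intro j hj i hi T hTS hTE
        refine le_trans ?_ (h2 j (mem_range.2 (by omega)) i (hSI i hi))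
        refine mod_cast card_le_card ?_
        intro i' hi'
        have a1 := hTE i' hi'
        exact RCfg.mem_box.2 ⟨RCfg.box_subset_slice (hTS hi'),
          h1 j (mem_range.2 (by omega)) i hi i' (hTS hi') ((le_max_right _ _).trans a1)
            ((le_max_left _ _).trans a1)⟩)
    -- conclusion
    have hCC : C6 * ε ≤ C6 * (1 + 4 * C5 / hh) * ε0 := by
      have hC60 : 0 ≤ C6 := by rw [hC6]; positivity
      have a1 : ε ≤ (1 + 4 * C5 / hh) * ε0 := by
        have : 0 ≤ 4 * C5 / hh * ε0 := by positivity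
        linarith
      calc C6 * ε ≤ C6 * ((1 + 4 * C5 / hh) * ε0) := mul_le_mul_of_nonneg_left a1 hC60
        _ = _ := by ring
    have k0' : B.d n ^ (-ν pS + (2 * C1 + 1) * ε) ≤ (B.d n ^ (C1 * ε)) ^ 2 * (S.card : ℝ) := by
      have a1 := hlow (i0 n) (k0 n) h0n
      calc B.d n ^ (-ν pS + (2 * C1 + 1) * ε) = (B.d n ^ (C1 * ε)) ^ 2 * B.d n ^ (-ν pS + ε) := by
            rw [sq, ← rpow_add', ← rpow_add']; congr 1; ring
        _ ≤ _ := mul_le_mul_of_nonneg_left a1 (by positivity)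
    rw [one_mul]
    calc B.d n ^ (-ν pS + C6 * (1 + 4 * C5 / hh) * ε0)
        ≤ B.d n ^ (-ν pS + (2 * C1 + 1) * ε) := rpow_anti B n (by
          have : (2 * C1 + 1) * ε ≤ C6 * ε := by
            refine mul_le_mul_of_nonneg_right ?_ hεp.le
            rw [hC6]
            have : 0 ≤ (D ^ 2 + 1) * C1 + D * C4 + 2 * C5 := by positivity
            linarith
          linarith)
      _ ≤ _ := k0'
      _ ≤ _ := key
      _ = ∑ j ∈ range (J + 1), B.d n ^ (-(ν pT - ν r) - ν (Q j) + τ * (x - sc x J (j + 1)) -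
            ((D ^ 2 + 1) * (C1 * ε) + D * (C4 * ε) + (C5 + 1) * ε)) := by
          rw [mul_sum]
          refine sum_congr rfl fun j _ => ?_
          rw [← rpow_add', ← rpow_add']
          congr 1
          ring
      _ ≤ _ := by
          refine sum_le_sum fun j _ => rpow_anti B n ?_
          have : (D ^ 2 + 1) * (C1 * ε) + D * (C4 * ε) + (C5 + 1) * ε ≤ C6 * ε := by
            have e1 : C6 * ε = (D ^ 2 + 1) * (C1 * ε) + D * (C4 * ε) + (C5 + 1) * ε +
                (C5 + 3 * C1 + 9) * ε := by rw [hC6]; ring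
            have : 0 ≤ (C5 + 3 * C1 + 9) * ε := by positivity
            linarith
          linarith)
  refine ⟨j, hj, ?_⟩
  linarith

/-- **Kaufman over `RUnif`, pair form, rates.** -/
theorem kauf_pair_rate_R (H : RUnif B G Leg ν D) (i0 k0 : ℕ → ℕ)
    (h0 : ∀ᶠ n in (U : Filter ℕ), (i0 n, k0 n) ∈ (G n).I) (pS pT r : κ → ℝ)
    (hpS : pS ∈ Leg) (hpT : pT ∈ Leg) (hr : r ∈ Leg) (hTr : ∀ j, pT j ≤ r j) {x τ : ℝ}
    (hx : 0 < x) (hτ0 : 0 ≤ τ) (hτ1 : τ ≤ 1)
    (A V : ℕ → ℕ → ℕ → ℝ) (φ : ℕ → ℕ → ℝ) (Zg : ℕ → Finset ℕ)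
    (hZg : ∀ᶠ n in (U : Filter ℕ), (Zg n).Nonempty) (Q : ℝ → κ → ℝ)
    (hQm : ∀ t : ℝ, 0 ≤ t → t ≤ x → Q t ∈ Leg) {C1 : ℝ} (hC1 : 0 < C1)
    (hφ : ∀ ε : ℝ, 0 < ε → ∀ᶠ n in (U : Filter ℕ), ∀ k ∈ Zg n, |φ n k| ≤ B.d n ^ (-(C1 * ε)))
    (hV : ∀ ε : ℝ, 0 < ε → ∀ᶠ n in (U : Filter ℕ), ∀ i ∈ (G n).box pS ε (i0 n) (k0 n),
      ∀ i' ∈ (G n).box pS ε (i0 n) (k0 n), |V n i i'| ≤ B.d n ^ (-(C1 * ε)) ∧
        |A n i i'| ≤ B.d n ^ (-(C1 * ε)))
    (hT : ∀ ε : ℝ, 0 < ε → ∀ᶠ n in (U : Filter ℕ), ∀ k ∈ Zg n,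
      ∀ i ∈ (G n).box pS ε (i0 n) (k0 n), ∀ i' ∈ (G n).box pS ε (i0 n) (k0 n),
      (i, k) ∈ (G n).I → (i', k) ∈ (G n).I → (G n).loose pT (C1 * ε) k i i')
    (hgeo : ∀ C2 : ℝ, 0 < C2 → ∃ C3 : ℝ, 0 < C3 ∧ ∀ ε : ℝ, 0 < ε → ∀ᶠ n in (U : Filter ℕ),
      ∀ k ∈ Zg n, ∀ i ∈ (G n).box pS ε (i0 n) (k0 n), ∀ i' ∈ (G n).box pS ε (i0 n) (k0 n),
      (i, k) ∈ (G n).I → (i', k) ∈ (G n).I → (G n).loose r (C2 * ε) k i i' →
      |A n i i' + φ n k * V n i i'| ≤ B.d n ^ (x - C3 * ε))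
    (hal : ∀ ε : ℝ, 0 < ε → ∀ᶠ n in (U : Filter ℕ), ∀ i ∈ (G n).box pS ε (i0 n) (k0 n),
      ∀ T ⊆ Zg n, (∀ k ∈ Zg n, (i, k) ∈ (G n).I → k ∈ T) →
      B.d n ^ (C1 * ε) * ((Zg n).card : ℝ) ≤ (T.card : ℝ))
    (hQ : ∀ C3 : ℝ, 0 < C3 → ∃ C4 : ℝ, 0 < C4 ∧ ∀ t : ℝ, 0 ≤ t → t ≤ x → ∀ ε : ℝ, 0 < ε →
      ∀ᶠ n in (U : Filter ℕ),
      ∀ i ∈ (G n).box pS ε (i0 n) (k0 n), ∀ i' ∈ (G n).box pS ε (i0 n) (k0 n),
      |V n i i'| ≤ B.d n ^ (t - C3 * ε) → |A n i i'| ≤ B.d n ^ (t - C3 * ε) →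
      (G n).loose (Q t) (C4 * ε) (k0 n) i i')
    (hfr : ∀ y : ℝ, 0 ≤ y → y ≤ x → ∀ ε : ℝ, 0 < ε → ∀ᶠ n in (U : Filter ℕ), ∀ k ∈ Zg n,
      ∀ T ⊆ Zg n, (∀ k' ∈ T, |φ n k' - φ n k| ≤ B.d n ^ y) →
      (T.card : ℝ) ≤ B.d n ^ (τ * y - ε) * ((Zg n).card : ℝ))
    {f g : ℝ} (hg : 0 < g) (hlow : ∀ t : ℝ, 0 ≤ t → t ≤ x → (f + g) * t ≤ ν pS - ν (Q t))
    (hup : ν pT - ν r ≤ f * x) : τ ≤ f := by
  refine rate_of_forall hx hτ0 hg (a := fun t => ν pS - ν (Q t)) (b := ν pT - ν r) ?_ hlow hup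
  intro J hJ0
  refine kauf_pair_R H i0 k0 h0 pS pT r hpS hpT hr hTr hx hτ0 hτ1 A V φ Zg hZg hJ0
    (fun j => Q (sc x J j)) (fun j hj => hQm _ (sc_nonneg hx.le J j) (sc_le hx.le hJ0 hj)) hC1
    hφ hV hT hgeo hal ?_ hfr
  intro C3 hC3
  obtain ⟨C4, hC4, h4⟩ := hQ C3 hC3
  exact ⟨C4, hC4, fun j hj => h4 _ (sc_nonneg hx.le J j) (sc_le hx.le hJ0 hj)⟩

end Crest.Agent.R136.Fx940
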