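import Crest.Agent.R136.Fx1_940

/-!
# R136: the linear slots are full (helper940)

`full_R`: if, inside the base box `p`, the slot `sX` moves with the velocity slot `sC`
(`X(k) = X(k₀) + (z k - z k₀) C(k₀)` for increments of pairs) and narrowing `sX` and `sC` together
costs `a + m`, `m > 0`, while narrowing `sX` alone costs at most `a`, then `σ ≤ a`.
(Base row "X_1, X_2 full" of doc 2325: `sX = X_i`, `sC = C_i`.)
-/

set_option autoImplicit false
set_option linter.unusedVariables false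
set_option linter.unusedSectionVars false

open Filter Topology Finset

namespace Crest.Agent.R136.Fx940

open Crest.Agent.R138.Ex926 (Base U)
open Crest.Agent.R136.Gf356

variable {κ : Type} {B : Base} {G : ℕ → RCfg κ} {Leg : Set (κ → ℝ)} {ν : (κ → ℝ) → ℝ}
  {σ R D : ℝ}

open Classical in
/-- the box `p` with the slot `s` at `x` and the slot `s'` at `c` -/
noncomputable def bx2 (p : κ → ℝ) (s s' : κ) (x c : ℝ) : κ → ℝ :=
  fun j => if j = s then x else if j = s' then c else p j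

theorem bx2_fst (p : κ → ℝ) (s s' : κ) (x c : ℝ) : bx2 p s s' x c s = x := if_pos rfl

theorem bx2_snd (p : κ → ℝ) {s s' : κ} (h : s' ≠ s) (x c : ℝ) : bx2 p s s' x c s' = c := by
  unfold bx2
  rw [if_neg h, if_pos rfl]

theorem bx2_other (p : κ → ℝ) {s s' j : κ} (h : j ≠ s) (h' : j ≠ s') (x c : ℝ) :
    bx2 p s s' x c j = p j := by
  unfold bx2
  rw [if_neg h, if_neg h']

theorem bx2_zero {p : κ → ℝ} {s s' : κ} (h : p s = 0) (h' : p s' = 0) :
    bx2 p s s' 0 0 = p := by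
  funext j
  unfold bx2
  split_ifs with h1 h2
  · rw [h1, h]
  · rw [h2, h']
  · rfl

/-- **a linear slot is full.** -/
theorem full_R (H : RModel B G σ R Leg ν D) {sX sC : κ} (hne : sC ≠ sX) {p : κ → ℝ}
    (pX : p sX = 0) (pC : p sC = 0) {y a m C : ℝ} (hy : 0 < y) (hyR : y ≤ R) (hm : 0 < m)
    (hC : 0 < C)
    (leg0 : p ∈ Leg) (legX : bx2 p sX sC y 0 ∈ Leg)
    (legXC : ∀ t : ℝ, 0 ≤ t → t ≤ y → bx2 p sX sC t t ∈ Leg)
    (near : ∀ ε : ℝ, 0 < ε → ∀ᶠ n in (U : Filter ℕ), ∀ k i l, (i, k) ∈ (G n).I →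
      (l, k) ∈ (G n).I → (G n).loose p (C * ε) k i l)
    (zb : ∀ ε : ℝ, 0 < ε → ∀ᶠ n in (U : Filter ℕ), ∀ k ∈ (G n).Z, ∀ k' ∈ (G n).Z,
      |(G n).z k' - (G n).z k| ≤ B.d n ^ (-(C * ε)))
    (evo : ∀ ε : ℝ, 0 < ε → ∀ᶠ n in (U : Filter ℕ), ∀ k k' i l, (i, k) ∈ (G n).I →
      (l, k) ∈ (G n).I → (i, k') ∈ (G n).I → (l, k') ∈ (G n).I →
      |(G n).rel k' i l sX - ((G n).rel k i l sX +
        ((G n).z k' - (G n).z k) * (G n).rel k i l sC)| ≤ B.d n ^ (y - C * ε))
    (hXC : ∀ t : ℝ, 0 ≤ t → t ≤ y → (a + m) * t ≤ ν p - ν (bx2 p sX sC t t))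
    (hX : ν p - ν (bx2 p sX sC y 0) ≤ a * y) : σ ≤ a := by
  classical
  have hD := H.D1
  have hD0 : 0 < D := by linarith
  -- a pin
  have hpin : ∀ n, ∃ q : ℕ × ℕ, q ∈ (G n).I := fun n => H.nonempty n
  choose q hq using hpin
  set i0 : ℕ → ℕ := fun n => (q n).1 with hi0
  set k0 : ℕ → ℕ := fun n => (q n).2 with hk0
  have h0 : ∀ n, (i0 n, k0 n) ∈ (G n).I := fun n => hq n
  have hle : ∀ j, p j ≤ bx2 p sX sC y 0 j := by
    intro j
    unfold bx2
    split_ifs with h1 h2
    · rw [h1, pX]; exact hy.le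
    · rw [h2, pC]
    · exact le_rfl
  have hboxI : ∀ n ε i, i ∈ (G n).box p ε (i0 n) (k0 n) → (i, k0 n) ∈ (G n).I :=
    fun n ε i hi => H.memSlice.1 (RCfg.box_subset_slice hi)
  have hsz : ∀ ε : ℝ, 0 < ε → ∀ᶠ n in (U : Filter ℕ), ∀ k i l, (i, k) ∈ (G n).I →
      (l, k) ∈ (G n).I → |(G n).rel k i l sC| ≤ B.d n ^ (-(C * ε)) ∧
        |(G n).rel k i l sX| ≤ B.d n ^ (-(C * ε)) := by
    intro ε hε
    filter_upwards [near ε hε] with n hn k i l hi hl
    have h1 := hn k i l hi hl sC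
    have h2 := hn k i l hi hl sX
    rw [H.base n, pC, zero_sub] at h1
    rw [H.base n, pX, zero_sub] at h2
    exact ⟨h1, h2⟩
  refine kauf_pair_rate_R H.toRUnif i0 k0 (Filter.Eventually.of_forall h0) p p
    (bx2 p sX sC y 0) leg0 leg0 legX hle hy H.σ_nonneg H.σ_le
    (fun n i i' => (G n).rel (k0 n) i i' sX) (fun n i i' => (G n).rel (k0 n) i i' sC)
    (fun n k => (G n).z k - (G n).z (k0 n)) (fun n => (G n).Z)
    (Filter.Eventually.of_forall fun n => ⟨k0 n, H.memZ (h0 n)⟩)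
    (fun t => bx2 p sX sC t t) legXC (C1 := C + 1) (by linarith) ?_ ?_ ?_ ?_ ?_ ?_ ?_ hm hXC hX
  · intro ε hε
    filter_upwards [zb ε hε] with n hn k hk
    exact (hn (k0 n) (H.memZ (h0 n)) k hk).trans (rpow_anti B n (by nlinarith))
  · intro ε hε
    filter_upwards [hsz ε hε] with n hn i hi i' hi'
    obtain ⟨h1, h2⟩ := hn (k0 n) i i' (hboxI n ε i hi) (hboxI n ε i' hi')
    exact ⟨h1.trans (rpow_anti B n (by nlinarith)), h2.trans (rpow_anti B n (by nlinarith))⟩
  · intro ε hε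
    filter_upwards [near ε hε] with n hn k hk i hi i' hi' hI hI'
    exact H.loose_mono (fun _ => le_rfl) (by nlinarith) (hn k i i' hI hI')
  · -- geometry
    intro C2 hC2
    refine ⟨C + C2 + 1, by positivity, ?_⟩
    intro ε hε
    filter_upwards [evo ε hε, ev_const_le B hε 2] with n hn h2 k hk i hi i' hi' hI hI' hl
    have h1 := hn (k0 n) k i i' (hboxI n ε i hi) (hboxI n ε i' hi') hI hI'
    have h3 := hl sX
    rw [H.base n, bx2_fst] at h3
    have h4 : |(G n).rel (k0 n) i i' sX + ((G n).z k - (G n).z (k0 n)) *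
        (G n).rel (k0 n) i i' sC| ≤ B.d n ^ (y - C2 * ε) + B.d n ^ (y - C * ε) := by
      have e1 : (G n).rel (k0 n) i i' sX + ((G n).z k - (G n).z (k0 n)) *
          (G n).rel (k0 n) i i' sC = (G n).rel k i i' sX - ((G n).rel k i i' sX -
          ((G n).rel (k0 n) i i' sX + ((G n).z k - (G n).z (k0 n)) *
            (G n).rel (k0 n) i i' sC)) := by ring
      rw [e1]
      exact (abs_sub _ _).trans (add_le_add h3 h1)
    refine h4.trans ?_
    have e2 : B.d n ^ (y - C2 * ε) ≤ B.d n ^ (y - (C + C2) * ε) := rpow_anti B n (by nlinarith)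
    have e3 : B.d n ^ (y - C * ε) ≤ B.d n ^ (y - (C + C2) * ε) := rpow_anti B n (by nlinarith)
    have e4 : B.d n ^ (y - (C + C2 + 1) * ε) = B.d n ^ (-ε) * B.d n ^ (y - (C + C2) * ε) := by
      rw [← rpow_add']; congr 1; ring
    rw [e4]
    have := rpos B n (y - (C + C2) * ε)
    nlinarith
  · -- alive
    intro ε hε
    filter_upwards [H.line ε hε] with n hn i hi T hT hTal
    have hI := hboxI n ε i hi
    refine le_trans ?_ ((hn i (H.memL hI)).trans ?_)
    · exact mul_le_mul_of_nonneg_right (rpow_anti B n (by nlinarith)) (Nat.cast_nonneg _)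
    · refine mod_cast card_le_card ?_
      intro k hk
      obtain ⟨h1, h2⟩ := RCfg.mem_hts.1 hk
      exact hTal k h1 h2
  · -- close pairs
    intro C3 hC3
    refine ⟨C + C3, by positivity, ?_⟩
    intro t ht0 hty ε hε
    filter_upwards [near ε hε] with n hn i hi i' hi' hV hA j
    rw [H.base n]
    by_cases h1 : j = sX
    · rw [h1, bx2_fst]
      exact hA.trans (rpow_anti B n (by nlinarith))
    · by_cases h2 : j = sC
      · rw [h2, bx2_snd p hne]
        exact hV.trans (rpow_anti B n (by nlinarith))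
      · rw [bx2_other p h1 h2]
        have h3 := hn (k0 n) i i' (hboxI n ε i hi) (hboxI n ε i' hi') j
        rw [H.base n] at h3
        exact h3.trans (rpow_anti B n (by nlinarith))
  · -- Frostman
    intro y' hy0 hyy ε hε
    filter_upwards [H.frost y' hy0 (hyy.trans hyR) ε hε] with n hn k hk T hT hTn
    refine le_trans ?_ (hn k hk)
    refine mod_cast card_le_card ?_
    intro k' hk'
    unfold RCfg.hbox
    rw [mem_filter]
    refine ⟨hT hk', ?_⟩
    have h1 := hTn k' hk'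
    have e1 : (G n).z k' - (G n).z (k0 n) - ((G n).z k - (G n).z (k0 n)) =
        (G n).z k' - (G n).z k := by ring
    rw [H.base n]
    rwa [e1] at h1

end Crest.Agent.R136.Fx940
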