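import Crest.Agent.R136.Fx2_940

/-!
# R136: the linear slots are full, version with frozen slots (helper940)

`full_stay_R`: as `full_R`, but only pairs inside the box `p` are used (`p` may freeze some slots),
provided that such pairs stay in `p` at all heights (`stay`).
-/

set_option autoImplicit false
set_option linter.unusedVariables false
set_option linter.unusedSectionVars false

open Filter Topology Finset

namespace Crest.Agent.R136.Fx940

open Crest.Agent.R138.Ex926 (Base U)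
open Crest.Agent.R136.Gf356

variable {κ : Type} {B : Base} {G : ℕ → RCfg κ} {Leg : Set (κ → ℝ)} {ν : (κ → ℝ) → ℝ}
  {σ R D : ℝ}

/-- pairs of one box are close to each other -/
theorem pair_loose (H : RUnif B G Leg ν D) {p : κ → ℝ} (hp : p ∈ Leg) {ε : ℝ} (hε : 0 < ε) :
    ∀ᶠ n in (U : Filter ℕ), ∀ k c i i', (c, k) ∈ (G n).I → i ∈ (G n).box p ε c k →
      i' ∈ (G n).box p ε c k → (G n).loose p (D ^ 2 * ε) k i i' := by
  have hD := H.D1
  have hD0 : 0 < D := by linarith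
  filter_upwards [H.symm p hp ε hε, H.tri p hp (D * ε) (by positivity)] with n h1 h2 k c i i' hc hi hi'
  obtain ⟨a1, a2⟩ := RCfg.mem_box.1 hi
  obtain ⟨b1, b2⟩ := RCfg.mem_box.1 hi'
  have g1 := h1 k c i hc (H.memSlice.1 a1) a2
  have g2 : (G n).loose p (D * ε) k c i' := H.loose_mono (fun _ => le_rfl) (by nlinarith) b2
  have g3 := h2 k i c i' (H.memSlice.1 a1) hc (H.memSlice.1 b1) g1 g2
  have e1 : D * (D * ε) = D ^ 2 * ε := by ring
  rwa [e1] at g3

/-- **a linear slot is full**, with frozen slots. -/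
theorem full_stay_R (H : RModel B G σ R Leg ν D) {sX sC : κ} (hne : sC ≠ sX) {p : κ → ℝ}
    (pX : p sX = 0) (pC : p sC = 0) {y a m C : ℝ} (hy : 0 < y) (hyR : y ≤ R) (hm : 0 < m)
    (hC : 0 < C)
    (leg0 : p ∈ Leg) (legX : bx2 p sX sC y 0 ∈ Leg)
    (legXC : ∀ t : ℝ, 0 ≤ t → t ≤ y → bx2 p sX sC t t ∈ Leg)
    (stay : ∀ C' : ℝ, 0 < C' → ∃ C'' : ℝ, 0 < C'' ∧ ∀ ε : ℝ, 0 < ε → ∀ᶠ n in (U : Filter ℕ),
      ∀ k k' i l, (i, k) ∈ (G n).I → (l, k) ∈ (G n).I → (i, k') ∈ (G n).I → (l, k') ∈ (G n).I →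
      (G n).loose p (C' * ε) k i l → (G n).loose p (C'' * ε) k' i l)
    (zb : ∀ ε : ℝ, 0 < ε → ∀ᶠ n in (U : Filter ℕ), ∀ k ∈ (G n).Z, ∀ k' ∈ (G n).Z,
      |(G n).z k' - (G n).z k| ≤ B.d n ^ (-(C * ε)))
    (evo : ∀ C' : ℝ, 0 < C' → ∃ C'' : ℝ, 0 < C'' ∧ ∀ ε : ℝ, 0 < ε → ∀ᶠ n in (U : Filter ℕ),
      ∀ k k' i l, (i, k) ∈ (G n).I → (l, k) ∈ (G n).I → (i, k') ∈ (G n).I → (l, k') ∈ (G n).I →
      (G n).loose p (C' * ε) k i l → |(G n).rel k' i l sX - ((G n).rel k i l sX +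
        ((G n).z k' - (G n).z k) * (G n).rel k i l sC)| ≤ B.d n ^ (y - C'' * ε))
    (hXC : ∀ t : ℝ, 0 ≤ t → t ≤ y → (a + m) * t ≤ ν p - ν (bx2 p sX sC t t))
    (hX : ν p - ν (bx2 p sX sC y 0) ≤ a * y) : σ ≤ a := by
  classical
  have hD := H.D1
  have hD0 : 0 < D := by linarith
  obtain ⟨Cs, hCs, hstay⟩ := stay (D ^ 2) (by positivity)
  obtain ⟨Ce, hCe, hevo⟩ := evo (D ^ 2) (by positivity)
  -- a pin
  have hpin : ∀ n, ∃ q : ℕ × ℕ, q ∈ (G n).I := fun n => H.nonempty n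
  choose q hq using hpin
  set i0 : ℕ → ℕ := fun n => (q n).1 with hi0
  set k0 : ℕ → ℕ := fun n => (q n).2 with hk0
  have h0 : ∀ n, (i0 n, k0 n) ∈ (G n).I := fun n => hq n
  have hle : ∀ j, p j ≤ bx2 p sX sC y 0 j := by
    intro j
    unfold bx2
    split_ifs with h1 h2
    · rw [h1, pX]; exact hy.le
    · rw [h2, pC]
    · exact le_rfl
  have hboxI : ∀ n ε i, i ∈ (G n).box p ε (i0 n) (k0 n) → (i, k0 n) ∈ (G n).I :=
    fun n ε i hi => H.memSlice.1 (RCfg.box_subset_slice hi)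
  have hpair : ∀ ε : ℝ, 0 < ε → ∀ᶠ n in (U : Filter ℕ), ∀ i ∈ (G n).box p ε (i0 n) (k0 n),
      ∀ i' ∈ (G n).box p ε (i0 n) (k0 n), (G n).loose p (D ^ 2 * ε) (k0 n) i i' := by
    intro ε hε
    filter_upwards [pair_loose H.toRUnif leg0 hε] with n hn i hi i' hi'
    exact hn (k0 n) (i0 n) i i' (h0 n) hi hi'
  refine kauf_pair_rate_R H.toRUnif i0 k0 (Filter.Eventually.of_forall h0) p p
    (bx2 p sX sC y 0) leg0 leg0 legX hle hy H.σ_nonneg H.σ_le
    (fun n i i' => (G n).rel (k0 n) i i' sX) (fun n i i' => (G n).rel (k0 n) i i' sC)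
    (fun n k => (G n).z k - (G n).z (k0 n)) (fun n => (G n).Z)
    (Filter.Eventually.of_forall fun n => ⟨k0 n, H.memZ (h0 n)⟩)
    (fun t => bx2 p sX sC t t) legXC (C1 := C + Cs + D ^ 2 + 1) (by positivity) ?_ ?_ ?_ ?_ ?_ ?_ ?_
    hm hXC hX
  · intro ε hε
    filter_upwards [zb ε hε] with n hn k hk
    refine (hn (k0 n) (H.memZ (h0 n)) k hk).trans (rpow_anti B n ?_)
    have : 0 ≤ (Cs + D ^ 2 + 1) * ε := by positivity
    linarith
  · intro ε hε
    filter_upwards [hpair ε hε] with n hn i hi i' hi'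
    have h1 := hn i hi i' hi' sC
    have h2 := hn i hi i' hi' sX
    rw [H.base n, pC, zero_sub] at h1
    rw [H.base n, pX, zero_sub] at h2
    have : 0 ≤ (C + Cs + 1) * ε := by positivity
    exact ⟨h1.trans (rpow_anti B n (by linarith)), h2.trans (rpow_anti B n (by linarith))⟩
  · intro ε hε
    filter_upwards [hpair ε hε, hstay ε hε] with n hn hs k hk i hi i' hi' hI hI'
    refine H.loose_mono (fun _ => le_rfl) ?_ (hs (k0 n) k i i' (hboxI n ε i hi)
      (hboxI n ε i' hi') hI hI' (hn i hi i' hi'))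
    have : 0 ≤ (C + D ^ 2 + 1) * ε := by positivity
    linarith
  · -- geometry
    intro C2 hC2
    refine ⟨Ce + C2 + 1, by positivity, ?_⟩
    intro ε hε
    filter_upwards [hevo ε hε, hpair ε hε, ev_const_le B hε 2] with n hn hp h2 k hk i hi i' hi'
      hI hI' hl
    have h1 := hn (k0 n) k i i' (hboxI n ε i hi) (hboxI n ε i' hi') hI hI' (hp i hi i' hi')
    have h3 := hl sX
    rw [H.base n, bx2_fst] at h3
    have h4 : |(G n).rel (k0 n) i i' sX + ((G n).z k - (G n).z (k0 n)) *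
        (G n).rel (k0 n) i i' sC| ≤ B.d n ^ (y - C2 * ε) + B.d n ^ (y - Ce * ε) := by
      have e1 : (G n).rel (k0 n) i i' sX + ((G n).z k - (G n).z (k0 n)) *
          (G n).rel (k0 n) i i' sC = (G n).rel k i i' sX - ((G n).rel k i i' sX -
          ((G n).rel (k0 n) i i' sX + ((G n).z k - (G n).z (k0 n)) *
            (G n).rel (k0 n) i i' sC)) := by ring
      rw [e1]
      exact (abs_sub _ _).trans (add_le_add h3 h1)
    refine h4.trans ?_
    have e2 : B.d n ^ (y - C2 * ε) ≤ B.d n ^ (y - (Ce + C2) * ε) := rpow_anti B n (by nlinarith)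
    have e3 : B.d n ^ (y - Ce * ε) ≤ B.d n ^ (y - (Ce + C2) * ε) := rpow_anti B n (by nlinarith)
    have e4 : B.d n ^ (y - (Ce + C2 + 1) * ε) = B.d n ^ (-ε) * B.d n ^ (y - (Ce + C2) * ε) := by
      rw [← rpow_add']; congr 1; ring
    rw [e4]
    have := rpos B n (y - (Ce + C2) * ε)
    nlinarith
  · -- alive
    intro ε hε
    filter_upwards [H.line ε hε] with n hn i hi T hT hTal
    have hI := hboxI n ε i hi
    refine le_trans ?_ ((hn i (H.memL hI)).trans ?_)
    · refine mul_le_mul_of_nonneg_right (rpow_anti B n ?_) (Nat.cast_nonneg _)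
      have : 0 ≤ (C + Cs + D ^ 2) * ε := by positivity
      linarith
    · refine mod_cast card_le_card ?_
      intro k hk
      obtain ⟨h1, h2⟩ := RCfg.mem_hts.1 hk
      exact hTal k h1 h2
  · -- close pairs
    intro C3 hC3
    refine ⟨D ^ 2 + C3, by positivity, ?_⟩
    intro t ht0 hty ε hε
    filter_upwards [hpair ε hε] with n hn i hi i' hi' hV hA j
    rw [H.base n]
    have e0 : 0 ≤ D ^ 2 * ε := by positivity
    have e1 : 0 ≤ C3 * ε := by positivity
    by_cases h1 : j = sX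
    · rw [h1, bx2_fst]
      exact hA.trans (rpow_anti B n (by linarith))
    · by_cases h2 : j = sC
      · rw [h2, bx2_snd p hne]
        exact hV.trans (rpow_anti B n (by linarith))
      · rw [bx2_other p h1 h2]
        have h3 := hn i hi i' hi' j
        rw [H.base n] at h3
        exact h3.trans (rpow_anti B n (by linarith))
  · -- Frostman
    intro y' hy0 hyy ε hε
    filter_upwards [H.frost y' hy0 (hyy.trans hyR) ε hε] with n hn k hk T hT hTn
    refine le_trans ?_ (hn k hk)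
    refine mod_cast card_le_card ?_
    intro k' hk'
    unfold RCfg.hbox
    rw [mem_filter]
    refine ⟨hT hk', ?_⟩
    have h1 := hTn k' hk'
    have e1 : (G n).z k' - (G n).z (k0 n) - ((G n).z k - (G n).z (k0 n)) =
        (G n).z k' - (G n).z k := by ring
    rw [H.base n]
    rwa [e1] at h1

end Crest.Agent.R136.Fx940
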