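import Crest.Agent.R136.GD10_186

/-!
# R136: D-max for tubes, uniformly also in the sizes (helper186)

`dmax_unif` : as `dmax_tube`, the sizes `X : Fin 3 → ℝ` are arbitrary numbers of stage `n`.
-/

set_option autoImplicit false
set_option linter.unusedVariables false

open Finset Filter Topology

namespace Crest.Agent.R136.GeoQ186

open Crest.Agent.R138.Ex926 (Base U)
open Crest.Agent.R138.Mk163 (zc zl rho alive)
open Crest.Agent.R138.MkRef627 (lc kc)
open Crest.Agent.R138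
open Crest.Agent.R136.MkA627
open Crest.Agent.R136.Net191
open Crest.Agent.R136.NetQ186
open Crest.Agent.R136.Sh605
open Crest.Agent.R136.Top484 (geo4)
open Crest.Agent.R136.PqG464 (pow_lev zc_near ev_const)
open Crest.Agent.R136.Wq638

section

variable {σ κ : Type*} {B : Base} {I : ℕ → Finset (ℕ × ℝ)} {G : Geo σ κ} {lev : ℕ → ℚ → ℕ}
    {A : ℕ → ℝ} {g s : ℝ} {τ : κ → ℝ → ℝ} {f : ℕ → ℚ → ℕ → ℤ → ℕ} {b : ℕ → ℚ → ℕ → σ}
    {vm : ℕ → ℚ → ℝ} {w : κ → ℕ → ℚ → ℝ} {L : ℕ → ℕ → Ln4} {r0 : ℕ → ℝ} {wr cr : Fin 3 → ℕ → ℝ}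
    {q : Fin 3 → ℝ} {CG : ℝ}

/-- **D-max for tubes, uniformly in the frame, the centre and the sizes.** -/
theorem dmax_unif (hM : MkA B I G lev A (fun v => g * v) (fun v => s * v) τ f b vm w)
    (hG : FlatGeo G L r0 wr cr q CG) (hq : ∀ j, 0 ≤ q j) {v : ℝ} (hv0 : 0 ≤ v) (hv1 : v ≤ 1)
    {δc : ℝ} (hδc : 0 < δc) {ε : ℝ} (hε : 0 < ε) :
    ∃ δ : ℝ, 0 < δ ∧ ∀ᶠ n in (U : Filter ℕ), ∀ (X : Fin 3 → ℝ), 0 < X 0 → 0 < X 1 → 0 < X 2 →
      X 0 ≤ B.d n ^ (-δ) * X 2 → X 2 ≤ B.d n ^ (-δ) * X 1 → r0 n ≤ B.d n ^ (-δ) * X 0 →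
      X 1 ≤ B.d n ^ (v + δc) * rho (lev n 0) →
      (∀ k, wr k n ≤ X k ∧ X k ≤ B.d n ^ δc * cr k n) →
      ∀ (c : Ln4) (z : ℝ) (F : Fin 3 → V3) (Q : Finset (ℕ × ℝ)), Q ⊆ I n →
      (∀ k i, |F k i| ≤ B.d n ^ (-δ)) → 1 ≤ B.d n ^ (-δ) * |det3 F| →
      (∀ y ∈ Q, InTube L n c z F (B.d n ^ v * rho (lev n 0)) X (B.d n ^ (-δ)) y) →
      (Q.card : ℝ) ≤ A n * tval q (B.d n ^ v * rho (lev n 0)) X *
        B.d n ^ (-(g * v + (1 - s) * (1 - v) + ε)) := by
  obtain ⟨Cq, hCq⟩ : ∃ Cq : ℝ, Cq = q 0 + q 1 + q 2 := ⟨_, rfl⟩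
  have hCq0 : 0 ≤ Cq := by have := hq 0; have := hq 1; have := hq 2; rw [hCq]; linarith
  obtain ⟨t, ht⟩ : ∃ t : ℝ, t = min ε δc / (40 + 15 * Cq + |g - (1 - s)|) := ⟨_, rfl⟩
  have hmin : 0 < min ε δc := lt_min hε hδc
  have hden : 0 < 40 + 15 * Cq + |g - (1 - s)| := by positivity
  have ht0 : 0 < t := by rw [ht]; exact div_pos hmin hden
  have htm : (40 + 15 * Cq + |g - (1 - s)|) * t = min ε δc := by rw [ht]; field_simp
  have htε : (40 + 15 * Cq + |g - (1 - s)|) * t ≤ ε := by rw [htm]; exact min_le_left _ _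
  have htδ : (40 + 15 * Cq + |g - (1 - s)|) * t ≤ δc := by rw [htm]; exact min_le_right _ _
  have hCt : 0 ≤ Cq * t := mul_nonneg hCq0 ht0.le
  have hgt : 0 ≤ |g - (1 - s)| * t := mul_nonneg (abs_nonneg _) ht0.le
  have ht40 : 40 * t ≤ δc := by
    have h8 : (40 + 15 * Cq + |g - (1 - s)|) * t = 40 * t + 15 * (Cq * t) +
        |g - (1 - s)| * t := by ring
    rw [h8] at htδ
    linarith
  obtain ⟨u, hu0, hu1, hT0, hTt, hor⟩ := exists_level (y := v) (t := t) hv0 hv1 ht0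
  -- the margin of the heights
  obtain ⟨δ, hδ0, hδt, hδ1⟩ : ∃ δ : ℝ, 0 < δ ∧ δ ≤ t ∧ ((u : ℝ) < v → 2 * δ ≤ v - u) := by
    rcases hor with h | ⟨h, h'⟩
    · refine ⟨min t ((v - u) / 2), lt_min ht0 (by linarith), min_le_left _ _, fun _ => ?_⟩
      have := min_le_right t ((v - u) / 2)
      linarith
    · refine ⟨t, ht0, le_rfl, fun h1 => ?_⟩
      have h2 : (0 : ℝ) < v := by rw [h] at h1; simpa using h1
      linarith
  refine ⟨δ, hδ0, ?_⟩
  filter_upwards [count_core hM hu0 hu1 ht0, pow_lev hM u hu0 hu1 ht0, pow_lev hM u hu0 hu1 hδ0,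
    ev_const B (c := 54) (by norm_num) ht0, ev_const B (c := |CG| + 1) (by positivity) ht0,
    hM.cell0]
    with n hcore hlev hlevδ h54 hCG hcell X hX0 hX1 hX2 h02' h21' hres' hcp hn c z F Q hQI hF
      hdet hQ
  have hd := B.pos n
  have hd1 := B.lt n
  have dpp := fun a => Dp76.dpow_pos B n a
  have c54 := const_le h54
  have hCd : CG ≤ B.d n ^ (-t) := by linarith [const_le hCG, le_abs_self CG]
  have hρ0 : 0 < rho (lev n 0) := rho_pos _
  have hρi : 0 < rho (lev n u) := rho_pos _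
  obtain ⟨ρv, hρv⟩ : ∃ ρv, ρv = B.d n ^ v * rho (lev n 0) := ⟨_, rfl⟩
  have hρv0 : 0 < ρv := by rw [hρv]; exact mul_pos (dpp _) hρ0
  have hlo := rho_lo hlev.1
  have hhi := rho_hi hlev.2
  have dδ : B.d n ^ (-δ) ≤ B.d n ^ (-t) := Dp76.dpow_le B n (by linarith)
  have dt1 : 1 ≤ B.d n ^ (-t) := by linarith
  have h02 : X 0 ≤ B.d n ^ (-t) * X 2 := h02'.trans (mul_le_mul_of_nonneg_right dδ hX2.le)
  have h21 : X 2 ≤ B.d n ^ (-t) * X 1 := h21'.trans (mul_le_mul_of_nonneg_right dδ hX1.le)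
  have hres : r0 n ≤ B.d n ^ (-t) * X 0 := hres'.trans (mul_le_mul_of_nonneg_right dδ hX0.le)
  have hρvi : ρv * B.d n ^ t ≤ rho (lev n u) := by
    refine le_trans ?_ hlo
    have e1 : ρv * B.d n ^ t = B.d n ^ (v + t) * rho (lev n 0) := by
      rw [hρv, Dp76.dpow_add]; ring
    rw [e1]
    exact mul_le_mul_of_nonneg_right (Dp76.dpow_le B n (by linarith)) hρ0.le
  -- the frame
  obtain ⟨e, he, hfr⟩ := gs_frame dt1 (fun k i => (hF k i).trans dδ)
    (hdet.trans (mul_le_mul_of_nonneg_right dδ (abs_nonneg _)))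
  -- the numbers
  obtain ⟨Y, hY⟩ : ∃ Y, Y = 3 * B.d n ^ (-(3 * t)) := ⟨_, rfl⟩
  have hY0 : 0 ≤ Y := by rw [hY]; exact mul_nonneg (by norm_num) (dpp _).le
  obtain ⟨n0, n1, n2, o1, o2⟩ := tube_num hd hd1 ht0 hX0 hX1 hX2 h02 h21 c54 hY.le hY0
  -- the heights
  have hcellQ : ∃ J0 : ℤ, ∀ y ∈ Q, zc (lev n u) y.2 ∈ Finset.Icc (J0 - 1) (J0 + 1) := by
    rcases hor with hlt | ⟨h0, -⟩
    · refine ⟨zc (lev n u) z, fun y hy => zc_near ?_⟩
      have h1 := (hQ y hy).1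
      calc |y.2 - z| * 2 ^ lev n u ≤
          (B.d n ^ (-δ) * (B.d n ^ v * rho (lev n 0))) * (2 ^ lev n 0 * B.d n ^ (-((u : ℝ) + δ))) :=
            mul_le_mul h1 hlevδ.1 (by positivity)
              (mul_pos (dpp _) (mul_pos (dpp _) hρ0)).le
        _ = (B.d n ^ (-δ) * B.d n ^ v * B.d n ^ (-((u : ℝ) + δ))) *
            (rho (lev n 0) * 2 ^ lev n 0) := by ring
        _ = B.d n ^ (-δ + v + -((u : ℝ) + δ)) := by
            have : rho (lev n 0) * 2 ^ lev n 0 = 1 := by unfold rho; field_simp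
            rw [this, mul_one, Dp76.dpow_add, Dp76.dpow_add]
        _ ≤ B.d n ^ (0 : ℝ) := Dp76.dpow_le B n (by have := hδ1 hlt; linarith)
        _ = 1 := Real.rpow_zero _
    · rcases Q.eq_empty_or_nonempty with he | ⟨y0, hy0⟩
      · exact ⟨0, fun y hy => by rw [he] at hy; simp at hy⟩
      · refine ⟨zc (lev n u) y0.2, fun y hy => ?_⟩
        rw [h0, hcell y (hQI hy) y0 (hQI hy0), Finset.mem_Icc]
        constructor <;> linarith
  obtain ⟨J0, hJ0⟩ := hcellQ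
  -- the sheet
  have hw1ρ : B.d n ^ (-(14 * t)) * X 1 ≤ rho (lev n u) := by
    refine le_trans ?_ hlo
    calc B.d n ^ (-(14 * t)) * X 1 ≤ B.d n ^ (-(14 * t)) * (B.d n ^ (v + δc) * rho (lev n 0)) :=
          mul_le_mul_of_nonneg_left hcp (dpp _).le
      _ = B.d n ^ (-(14 * t) + (v + δc)) * rho (lev n 0) := by
          rw [Dp76.dpow_add B n (-(14 * t))]; ring
      _ ≤ _ := mul_le_mul_of_nonneg_right (Dp76.dpow_le B n (by linarith)) hρ0.le
  have hra : r0 n ≤ B.d n ^ (-(10 * t)) * X 0 :=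
    hres.trans (mul_le_mul_of_nonneg_right (Dp76.dpow_le B n (by linarith)) hX0.le)
  have hval := tube_val (q := q) hd hd1 ht0 hX0 hX1 hX2 hq hρv0 hρi hρvi hG.C0 hCd
  refine (hcore Q J0 (tval q ρv X *
    B.d n ^ (-((37 + 15 * (q 0 + q 1 + q 2)) * t))) hQI ?_ hJ0 fun J => ?_).trans ?_
  · have r0' := Real.rpow_nonneg (div_pos hX0 hρv0).le (q 0)
    have r1' := Real.rpow_nonneg (div_pos hX1 hρv0).le (q 1)
    have r2' := Real.rpow_nonneg (div_pos hX2 hρv0).le (q 2)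
    have := dpp (-((37 + 15 * (q 0 + q 1 + q 2)) * t))
    unfold tval
    positivity
  · obtain ⟨S, hadm, hvl, hmem⟩ := hG.flat n (lev n u) J e c _ _ _ he
      (mul_pos (dpp (-(10 * t))) hX0) hra o1 o2 hw1ρ
      (fun k => by
        have hk := hn k
        fin_cases k
        · exact ⟨hk.1.trans (le_mul_of_one_le_left hX0.le (one_le_dpow (by linarith))),
            (mul_le_mul_of_nonneg_right (Dp76.dpow_le B n (by linarith)) hX0.le).trans
              (hi_dpow hk.2)⟩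
        · exact ⟨hk.1.trans (le_mul_of_one_le_left hX1.le (one_le_dpow (by linarith))),
            (mul_le_mul_of_nonneg_right (Dp76.dpow_le B n (by linarith)) hX1.le).trans
              (hi_dpow hk.2)⟩
        · exact ⟨hk.1.trans (le_mul_of_one_le_left hX2.le (one_le_dpow (by linarith))),
            (mul_le_mul_of_nonneg_right (Dp76.dpow_le B n (by linarith)) hX2.le).trans
              (hi_dpow hk.2)⟩)
    refine ⟨S, hadm, hvl.trans hval, fun y hy hyJ => hmem _ fun z' hz0 hz1 => ?_⟩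
    · -- membership
      obtain ⟨k1, k2⟩ := mem_cell hyJ
      obtain ⟨q1, q2⟩ := hQ y hy
      rw [← hρv] at q1 q2
      have h2 : |z' - y.2| ≤ rho (lev n u) := by
        rw [abs_le]; constructor <;> linarith
      have h3 : |z' - z| ≤ |z' - y.2| + |y.2 - z| := by
        have := abs_add_le (z' - y.2) (y.2 - z)
        rwa [show z' - y.2 + (y.2 - z) = z' - z by ring] at this
      have hρiv : rho (lev n u) ≤ B.d n ^ (-(2 * t)) * ρv := by
        refine hhi.trans ?_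
        rw [hρv, ← mul_assoc, ← Dp76.dpow_add]
        exact mul_le_mul_of_nonneg_right (Dp76.dpow_le B n (by linarith)) hρ0.le
      have h4 : |z' - z| ≤ 2 * B.d n ^ (-(2 * t)) * ρv := by
        have h5 : B.d n ^ (-δ) * ρv ≤ B.d n ^ (-(2 * t)) * ρv :=
          mul_le_mul_of_nonneg_right (Dp76.dpow_le B n (by linarith)) hρv0.le
        linarith
      have hsz : ∀ k, 0 < X k → |dt (F k) ((L n y.1).pos z' - c.pos z')| ≤ Y * X k := by
        intro k hk
        obtain ⟨a1, a2⟩ := q2 k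
        rw [dt_line (F k) (L n y.1) c z z']
        have a3 : |(z' - z) * dt (F k) ((L n y.1).v - c.v)| ≤
            2 * B.d n ^ (-(2 * t)) * (B.d n ^ (-t) * X k) := by
          rw [abs_mul]
          calc |z' - z| * |dt (F k) ((L n y.1).v - c.v)| ≤
              (2 * B.d n ^ (-(2 * t)) * ρv) * |dt (F k) ((L n y.1).v - c.v)| :=
                mul_le_mul_of_nonneg_right h4 (abs_nonneg _)
            _ = 2 * B.d n ^ (-(2 * t)) * (|dt (F k) ((L n y.1).v - c.v)| * ρv) := by ring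
            _ ≤ 2 * B.d n ^ (-(2 * t)) * (B.d n ^ (-δ) * X k) :=
                mul_le_mul_of_nonneg_left a2 (mul_nonneg (by norm_num) (dpp _).le)
            _ ≤ _ := mul_le_mul_of_nonneg_left (mul_le_mul_of_nonneg_right dδ hk.le)
                (mul_nonneg (by norm_num) (dpp _).le)
        have a4 : B.d n ^ (-δ) * X k ≤ B.d n ^ (-(3 * t)) * X k :=
          mul_le_mul_of_nonneg_right (Dp76.dpow_le B n (by linarith)) hk.le
        have a5 : 2 * B.d n ^ (-(2 * t)) * (B.d n ^ (-t) * X k) =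
            2 * (B.d n ^ (-(3 * t)) * X k) := by
          rw [show -(3 * t) = -(2 * t) + -t by ring, Dp76.dpow_add B n (-(2 * t))]; ring
        refine (abs_add_le _ _).trans ?_
        rw [hY]
        linarith
      obtain ⟨b0, b1, b2⟩ := hfr ((L n y.1).pos z' - c.pos z') (fun k => Y * X k)
        (fun k => hsz k (by fin_cases k <;> assumption))
      exact ⟨b0.trans n0, b1.trans n1, b2.trans n2⟩
  · -- the exponents
    rw [← hρv]
    have hval0 : 0 ≤ tval q ρv X := by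
      have r0' := Real.rpow_nonneg (div_pos hX0 hρv0).le (q 0)
      have r1' := Real.rpow_nonneg (div_pos hX1 hρv0).le (q 1)
      have r2' := Real.rpow_nonneg (div_pos hX2 hρv0).le (q 2)
      unfold tval
      positivity
    have e1 : A n * (tval q ρv X *
        B.d n ^ (-((37 + 15 * (q 0 + q 1 + q 2)) * t))) *
        B.d n ^ (-(g * u + (1 - s) * (1 - u) + t)) =
        A n * tval q ρv X * B.d n ^ (-((37 + 15 * (q 0 + q 1 + q 2)) * t) +
          -(g * u + (1 - s) * (1 - u) + t)) := by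
      rw [Dp76.dpow_add B n (-((37 + 15 * (q 0 + q 1 + q 2)) * t))]; ring
    rw [e1]
    refine mul_le_mul_of_nonneg_left (Dp76.dpow_le B n ?_) (mul_nonneg (hM.Apos n).le hval0)
    rw [← hCq]
    have h5 : |(g - (1 - s)) * (v - u)| ≤ |g - (1 - s)| * t := by
      rw [abs_mul, abs_of_nonneg hT0]
      exact mul_le_mul_of_nonneg_left hTt (abs_nonneg _)
    have h6 := (abs_le.1 h5).1
    have h7 : (g - (1 - s)) * (v - u) = g * v + (1 - s) * (1 - v) -
        (g * u + (1 - s) * (1 - u)) := by ring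
    have h8 : (40 + 15 * Cq + |g - (1 - s)|) * t = 40 * t + 15 * (Cq * t) +
        |g - (1 - s)| * t := by ring
    have h9 : (37 + 15 * Cq) * t = 37 * t + 15 * (Cq * t) := by ring
    rw [h7] at h6
    rw [h8] at htε
    rw [h9]
    linarith

end

end Crest.Agent.R136.GeoQ186
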