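import Crest.Agent.R136.GD1_186

/-!
# R136, [GEO-D] for the straight chart with FLAT boxes (helper186)

`fr Fa Fb E` : the orthonormal frame with given slopes; `gd_flat` : the lines of a chart box around
an incidence are contained in one flat orthonormal box (around the line of the incidence).
-/

set_option autoImplicit false
set_option linter.unusedVariables false

namespace Crest.Agent.R136.GeoQ186

open Crest.Agent.R136.NetQ186
open Crest.Agent.R136.Sh605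

/-- norm of the normal -/
noncomputable def frn (Fa Fb : ℝ) : ℝ := Real.sqrt (1 + Fa ^ 2 + Fb ^ 2)
/-- norm of the wide axis -/
noncomputable def frm1 (Fa Fb E : ℝ) : ℝ := Real.sqrt ((Fa + Fb * E) ^ 2 + 1 + E ^ 2)

theorem frn_sq (Fa Fb : ℝ) : frn Fa Fb ^ 2 = 1 + Fa ^ 2 + Fb ^ 2 := Real.sq_sqrt (by positivity)
theorem frm1_sq (Fa Fb E : ℝ) : frm1 Fa Fb E ^ 2 = (Fa + Fb * E) ^ 2 + 1 + E ^ 2 :=
  Real.sq_sqrt (by positivity)
theorem frn_pos (Fa Fb : ℝ) : 0 < frn Fa Fb := Real.sqrt_pos.2 (by positivity)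
theorem frm1_pos (Fa Fb E : ℝ) : 0 < frm1 Fa Fb E := Real.sqrt_pos.2 (by positivity)

/-- the orthonormal frame with slopes `Fa, Fb, E` -/
noncomputable def fr (Fa Fb E : ℝ) : Fin 3 → V3 :=
  ![![1 / frn Fa Fb, -Fa / frn Fa Fb, -Fb / frn Fa Fb],
    ![(Fa + Fb * E) / frm1 Fa Fb E, 1 / frm1 Fa Fb E, E / frm1 Fa Fb E],
    ![(-Fa * E + Fb) / (frn Fa Fb * frm1 Fa Fb E),
      (-Fb * (Fa + Fb * E) - E) / (frn Fa Fb * frm1 Fa Fb E),
      (1 + Fa * (Fa + Fb * E)) / (frn Fa Fb * frm1 Fa Fb E)]]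

theorem fr_ortho (Fa Fb E : ℝ) : Ortho (fr Fa Fb E) := by
  have h1 := frn_sq Fa Fb
  have h2 := frm1_sq Fa Fb E
  have p1 := (frn_pos Fa Fb).ne'
  have p2 := (frm1_pos Fa Fb E).ne'
  set ν := frn Fa Fb with hν
  set μ := frm1 Fa Fb E with hμ
  have k00 : 1 / ν * (1 / ν) + -Fa / ν * (-Fa / ν) + -Fb / ν * (-Fb / ν) = 1 := by
    field_simp
    linarith
  have k01 : 1 / ν * ((Fa + Fb * E) / μ) + -Fa / ν * (1 / μ) + -Fb / ν * (E / μ) = 0 := by
    field_simp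
    ring
  have k02 : 1 / ν * ((-Fa * E + Fb) / (ν * μ)) +
      -Fa / ν * ((-Fb * (Fa + Fb * E) - E) / (ν * μ)) +
      -Fb / ν * ((1 + Fa * (Fa + Fb * E)) / (ν * μ)) = 0 := by
    field_simp
    ring
  have k11 : (Fa + Fb * E) / μ * ((Fa + Fb * E) / μ) + 1 / μ * (1 / μ) + E / μ * (E / μ) = 1 := by
    field_simp
    linarith
  have k12 : (Fa + Fb * E) / μ * ((-Fa * E + Fb) / (ν * μ)) +
      1 / μ * ((-Fb * (Fa + Fb * E) - E) / (ν * μ)) +
      E / μ * ((1 + Fa * (Fa + Fb * E)) / (ν * μ)) = 0 := by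
    field_simp
    ring
  have k22 : (-Fa * E + Fb) / (ν * μ) * ((-Fa * E + Fb) / (ν * μ)) +
      (-Fb * (Fa + Fb * E) - E) / (ν * μ) * ((-Fb * (Fa + Fb * E) - E) / (ν * μ)) +
      (1 + Fa * (Fa + Fb * E)) / (ν * μ) * ((1 + Fa * (Fa + Fb * E)) / (ν * μ)) = 1 := by
    have e1 : (-Fa * E + Fb) ^ 2 + (-Fb * (Fa + Fb * E) - E) ^ 2 + (1 + Fa * (Fa + Fb * E)) ^ 2 =
        ν ^ 2 * μ ^ 2 := by rw [h1, h2]; ring
    field_simp
    linarith
  intro i j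
  fin_cases i <;> fin_cases j <;>
    simp only [fr, dt, Fin.zero_eta, Fin.mk_one, Fin.reduceFinMk, Matrix.cons_val,
      Fin.isValue, if_true, Fin.reduceEq, if_false, ← hν, ← hμ]
  · exact k00
  · exact k01
  · exact k02
  · linarith
  · exact k11
  · exact k12
  · linarith
  · linarith
  · exact k22

variable {Fa Fb E : ℝ}

/-- the frame in the original coordinates is admissible -/
theorem fr_adm (π : Equiv.Perm (Fin 3)) (hFa : |Fa| ≤ 1) (hFb : |Fb| ≤ 1) (hE : |E| ≤ 1) :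
    Adm π (fpv π (fr Fa Fb E)) := by
  have p1 := frn_pos Fa Fb
  have p2 := frm1_pos Fa Fb E
  have hv : ∀ i k, fpv π (fr Fa Fb E) i (π k) = fr Fa Fb E i k := by
    intro i k; simp [fpv, pv]
  refine ⟨?_, ?_, ?_, ?_⟩
  · intro i j
    rw [← fr_ortho Fa Fb E i j]
    show dt (pv π.symm _) (pv π.symm _) = _
    rw [dt_pv]
  · rw [hv, hv]
    simp only [fr, Matrix.cons_val]
    rw [abs_div, abs_div, abs_neg, abs_one]
    exact div_le_div_of_nonneg_right hFa (abs_nonneg _)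
  · rw [hv, hv]
    simp only [fr, Matrix.cons_val]
    rw [abs_div, abs_div, abs_neg, abs_one]
    exact div_le_div_of_nonneg_right hFb (abs_nonneg _)
  · rw [hv, hv]
    simp only [fr, Matrix.cons_val]
    rw [abs_div, abs_div, abs_one]
    exact div_le_div_of_nonneg_right hE (abs_nonneg _)

theorem sA_fr (π : Equiv.Perm (Fin 3)) : sA π (fpv π (fr Fa Fb E)) = Fa := by
  have p1 := (frn_pos Fa Fb).ne'
  simp only [sA, fpv, pv, fr, Equiv.symm_apply_apply, Matrix.cons_val]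
  field_simp

theorem sB_fr (π : Equiv.Perm (Fin 3)) : sB π (fpv π (fr Fa Fb E)) = Fb := by
  have p1 := (frn_pos Fa Fb).ne'
  simp only [sB, fpv, pv, fr, Equiv.symm_apply_apply, Matrix.cons_val]
  field_simp

theorem sE_fr (π : Equiv.Perm (Fin 3)) : sE π (fpv π (fr Fa Fb E)) = E := by
  have p1 := (frm1_pos Fa Fb E).ne'
  simp only [sE, fpv, pv, fr, Equiv.symm_apply_apply, Matrix.cons_val]
  field_simp

/-- **[GEO-D], finite form, flat box.** -/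
theorem gd_flat {π : Equiv.Perm (Fin 3)} {c t : Ln4} {zi H Wa Wb Wy z ρ' : ℝ} {b : Fin 11 → ℝ}
    (hE : |E| ≤ 1) (hFa : |Fa| ≤ 1) (hFb : |Fb| ≤ 1) (hH : 0 < H) (ha : 0 < Wa)
    (hb : 0 < Wb) (hy : 0 < Wy) (hz : |z - zi| ≤ ρ') {zj ej Ga Gb : ℝ}
    (hb' : ∀ k, |coQ (scl H Wa Wb Wy (mkT (cLn π c) zi E Fa Fb))
          (scl H Wa Wb Wy (mkT (cLn π t) zj ej Ga Gb)) k| ≤ b k) {A0 A1 A2 : ℝ}
    (h1 : Wa / H * (b 8 + H * ρ' * b 5) ≤ A1)
    (h2 : Wb / H * (b 9 + H * ρ' * b 6) ≤ A2)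
    (h0 : Wy / H * (b 10 + H * ρ' * b 7 + (H * ρ') ^ 2 * b 1) ≤ A0) :
    |dt (fpv π (fr Fa Fb E) 0) (t.pos z - c.pos z)| ≤ A0 ∧
    |dt (fpv π (fr Fa Fb E) 1) (t.pos z - c.pos z)| ≤ A0 + 2 * A2 + 5 / 2 * A1 ∧
    |dt (fpv π (fr Fa Fb E) 2) (t.pos z - c.pos z)| ≤ A0 + 2 * A2 := by
  set i : Fq4 := mkT (cLn π c) zi E Fa Fb with hi
  set j : Fq4 := mkT (cLn π t) zj ej Ga Gb with hj
  have hf : ∀ k, 0 < sfac H Wa Wb Wy k := by
    intro k
    fin_cases k <;> simp [sfac] <;> positivity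
  have hs : ∀ k, |coQ i j k| ≤ b k / sfac H Wa Wb Wy k := by
    intro k
    have := hb' k
    rw [coQ_scl hH.ne' ha.ne' hb.ne' hy.ne', abs_mul, abs_of_pos (hf k)] at this
    rw [le_div_iff₀ (hf k)]
    linarith
  obtain ⟨m1, m2, m3⟩ := box_move hs hz
  have s1 : b 1 / sfac H Wa Wb Wy 1 = H * Wy * b 1 := by simp [sfac]; field_simp
  have s5 : b 5 / sfac H Wa Wb Wy 5 = Wa * b 5 := by simp [sfac]; field_simp
  have s6 : b 6 / sfac H Wa Wb Wy 6 = Wb * b 6 := by simp [sfac]; field_simp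
  have s7 : b 7 / sfac H Wa Wb Wy 7 = Wy * b 7 := by simp [sfac]; field_simp
  have s8 : b 8 / sfac H Wa Wb Wy 8 = Wa / H * b 8 := by simp [sfac]; field_simp
  have s9 : b 9 / sfac H Wa Wb Wy 9 = Wb / H * b 9 := by simp [sfac]; field_simp
  have s10 : b 10 / sfac H Wa Wb Wy 10 = Wy / H * b 10 := by simp [sfac]; field_simp
  have c8 : b 8 / sfac H Wa Wb Wy 8 + ρ' * (b 5 / sfac H Wa Wb Wy 5) =
      Wa / H * (b 8 + H * ρ' * b 5) := by rw [s8, s5]; field_simp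
  have c9 : b 9 / sfac H Wa Wb Wy 9 + ρ' * (b 6 / sfac H Wa Wb Wy 6) =
      Wb / H * (b 9 + H * ρ' * b 6) := by rw [s9, s6]; field_simp
  have c10 : b 10 / sfac H Wa Wb Wy 10 + ρ' * (b 7 / sfac H Wa Wb Wy 7) +
      ρ' ^ 2 * (b 1 / sfac H Wa Wb Wy 1) =
      Wy / H * (b 10 + H * ρ' * b 7 + (H * ρ') ^ 2 * b 1) := by rw [s10, s7, s1]; field_simp
  rw [c8] at m1
  rw [c9] at m2
  rw [c10] at m3
  have d1 : (t.pos z - c.pos z) (π 1) = ra i j z := rfl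
  have d2 : (t.pos z - c.pos z) (π 2) - E * (t.pos z - c.pos z) (π 1) = rb i j z := rfl
  have d0 : (t.pos z - c.pos z) (π 0) - Fa * (t.pos z - c.pos z) (π 1) -
      Fb * (t.pos z - c.pos z) (π 2) = rn i j z := by
    simp only [rn, hi, hj, mkT, cLn, Fq4.py, Fq4.pa, Fq4.pb, Ln4.pos, Pi.sub_apply]
    ring
  have hA := fr_adm (Fa := Fa) (Fb := Fb) (E := E) π hFa hFb hE
  refine from_chart hA (n := A0) (x := A1) (y := A2) ?_ ?_ ?_
  · rw [sA_fr, sB_fr, d0]; exact m3.trans h0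
  · rw [d1]; exact m1.trans h1
  · rw [sE_fr, d2]; exact m2.trans h2

end Crest.Agent.R136.GeoQ186
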