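import Crest.Agent.R136.GD2_186
import Crest.Agent.R136.Lq1_196

/-!
# R136, [GEO-D] for the straight chart, sequence form (helper186)

`FlatGeo` : the geometry contains the flat orthonormal boxes; `coS` : the scaled chart of the
incidences; `gd_geo` : the lines of a legal chart box, alive in a cell, lie in one admissible test
set of the expected penalised size.
-/

set_option autoImplicit false
set_option linter.unusedVariables false

open Finset Filter Topology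

namespace Crest.Agent.R136.GeoQ186

open Crest.Agent.R138.Ex926 (Base U)
open Crest.Agent.R138.Mk163 (zc zl rho)
open Crest.Agent.R136.MkA627
open Crest.Agent.R136.Net191
open Crest.Agent.R136.NetQ186
open Crest.Agent.R136.Sh605

/-- the line number `t` of stage `n` runs in the flat box over the cell `J` of level `i` -/
def InFlat (L : ℕ → ℕ → Ln4) (n i : ℕ) (J : ℤ) (e : Fin 3 → V3) (c : Ln4) (a w1 w2 : ℝ)
    (t : ℕ) : Prop :=
  ∀ z, zl i J ≤ z → z ≤ zl i J + rho i →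
    |dt (e 0) ((L n t).pos z - c.pos z)| ≤ a ∧ |dt (e 1) ((L n t).pos z - c.pos z)| ≤ w1 ∧
      |dt (e 2) ((L n t).pos z - c.pos z)| ≤ w2

/-- the geometry contains the flat boxes `a ≤ w2 ≤ w1 ≤ ρ`, `q 0` = reward of the thickness,
`q 1` = wide width, `q 2` = narrow width; `wr`, `cr` = range of the widths -/
structure FlatGeo {σ κ : Type*} (G : Geo σ κ) (L : ℕ → ℕ → Ln4) (r0 : ℕ → ℝ)
    (wr cr : Fin 3 → ℕ → ℝ) (q : Fin 3 → ℝ) (C : ℝ) : Prop where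
  C0 : 0 ≤ C
  flat : ∀ (n i : ℕ) (J : ℤ) (e : Fin 3 → V3) (c : Ln4) (a w1 w2 : ℝ), Ortho e → 0 < a →
    r0 n ≤ a → a ≤ w2 → w2 ≤ w1 → w1 ≤ rho i →
    (∀ k : Fin 3, wr k n ≤ ![a, w1, w2] k ∧ ![a, w1, w2] k ≤ cr k n) →
    ∃ s : σ, G.adm n i J s ∧
      G.val n i J s ≤ C * (a * w2 * w1 *
        ((a / rho i) ^ q 0 * (w1 / rho i) ^ q 1 * (w2 / rho i) ^ q 2)) ∧
      ∀ t, InFlat L n i J e c a w1 w2 t → G.mem n i J s t

/-- the incidence `x` in the scaled straight chart -/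
noncomputable def incS (π : Equiv.Perm (Fin 3)) (L : ℕ → ℕ → Ln4) (E Fa Fb : ℕ → ℕ × ℝ → ℝ)
    (H Wa Wb Wy : ℕ → ℝ) (n : ℕ) (x : ℕ × ℝ) : Fq4 :=
  scl (H n) (Wa n) (Wb n) (Wy n) (mkT (cLn π (L n x.1)) x.2 (E n x) (Fa n x) (Fb n x))

/-- the scaled straight chart -/
noncomputable def coS (π : Equiv.Perm (Fin 3)) (L : ℕ → ℕ → Ln4) (E Fa Fb : ℕ → ℕ × ℝ → ℝ)
    (H Wa Wb Wy : ℕ → ℝ) (n : ℕ) (x y : ℕ × ℝ) : Fin 11 → ℝ :=
  coQ (incS π L E Fa Fb H Wa Wb Wy n x) (incS π L E Fa Fb H Wa Wb Wy n y)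

theorem chartS (π : Equiv.Perm (Fin 3)) (L : ℕ → ℕ → Ln4) (E Fa Fb : ℕ → ℕ × ℝ → ℝ)
    (H Wa Wb Wy : ℕ → ℝ) (n : ℕ) (I : Finset (ℕ × ℝ)) :
    Chart I (coS π L E Fa Fb H Wa Wb Wy n) monQ 2 :=
  chartQ I (incS π L E Fa Fb H Wa Wb Wy n)

/-- the height coordinate -/
theorem coS_z (π : Equiv.Perm (Fin 3)) (L : ℕ → ℕ → Ln4) (E Fa Fb : ℕ → ℕ × ℝ → ℝ)
    (H Wa Wb Wy : ℕ → ℝ) (n : ℕ) (x y : ℕ × ℝ) :
    coS π L E Fa Fb H Wa Wb Wy n x y 0 = H n * (y.2 - x.2) := by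
  simp only [coS, incS, coQ, scl, mkT, Matrix.cons_val]
  ring

/-- the height coordinate, in the form of `PreQ.zco` -/
theorem coS_zco (π : Equiv.Perm (Fin 3)) (L : ℕ → ℕ → Ln4) (E Fa Fb : ℕ → ℕ × ℝ → ℝ)
    (B : Base) (lev : ℕ → ℚ → ℕ) (w0 : ℝ) (Wa Wb Wy : ℕ → ℝ) (n : ℕ) (x y : ℕ × ℝ) :
    coS π L E Fa Fb (fun n => B.d n ^ w0 * 2 ^ lev n 0) Wa Wb Wy n x y 0 =
      B.d n ^ w0 * ((y.2 - x.2) * 2 ^ lev n 0) := by
  rw [coS_z]; ring

theorem mem_cell {i : ℕ} {J : ℤ} {z : ℝ} (h : zc i z = J) : zl i J ≤ z ∧ z ≤ zl i J + rho i := by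
  have hp : (0 : ℝ) < 2 ^ i := by positivity
  have h1 := Int.floor_le ((2 : ℝ) ^ i * z)
  have h2 := Int.lt_floor_add_one ((2 : ℝ) ^ i * z)
  unfold zc at h
  rw [h] at h1 h2
  unfold zl rho
  constructor
  · rw [div_le_iff₀ hp]; linarith
  · rw [← add_div, le_div_iff₀ hp]; linarith

/-- expected penalised size of the box with exponents `p`, in the units of the chart -/
noncomputable def Vn (q : Fin 3 → ℝ) (H Wa Wb Wy : ℝ) : ℝ :=
  Wy * Wb * Wa / H ^ 3 * (Wy ^ q 0 * Wa ^ q 1 * Wb ^ q 2)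

/-- exponent of the penalised size -/
def Dp (q : Fin 3 → ℝ) (p : Fin 11 → ℝ) : ℝ :=
  p 10 + p 9 + p 8 + (q 0 * (p 10 - p 0) + q 1 * (p 8 - p 0) + q 2 * (p 9 - p 0))

/-- the three sizes are ordered and above the resolution, up to `d^-ε` -/
structure Ord (B : Base) (r0 H Wa Wb Wy : ℕ → ℝ) (p : Fin 11 → ℝ) : Prop where
  ab : ∀ ε : ℝ, 0 < ε → ∀ᶠ n in (U : Filter ℕ),
    Wb n * B.d n ^ p 9 ≤ B.d n ^ (-ε) * (Wa n * B.d n ^ p 8)
  by' : ∀ ε : ℝ, 0 < ε → ∀ᶠ n in (U : Filter ℕ),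
    Wy n * B.d n ^ p 10 ≤ B.d n ^ (-ε) * (Wb n * B.d n ^ p 9)
  res : ∀ ε : ℝ, 0 < ε → ∀ᶠ n in (U : Filter ℕ),
    r0 n ≤ B.d n ^ (-ε) * (Wy n / H n * B.d n ^ p 10)
  cap : ∃ δ : ℝ, 0 < δ ∧ ∀ᶠ n in (U : Filter ℕ), Wa n * B.d n ^ (p 8 - p 0 - δ) ≤ 1

section aux

variable {d : ℝ}

theorem dpos (hd : 0 < d) (u : ℝ) : 0 < d ^ u := Real.rpow_pos_of_pos hd u

theorem dle (hd : 0 < d) (hd1 : d < 1) {u u' : ℝ} (h : u ≤ u') : d ^ u' ≤ d ^ u :=
  Real.rpow_le_rpow_of_exponent_ge hd hd1.le h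

/-- lateral size over the cell -/
theorem sz_lin (hd : 0 < d) (hd1 : d < 1) {K T t p0 v pX pC : ℝ} (wl : pX ≤ p0 + pC) (hT : 0 ≤ T)
    (ht : 0 < t) (hv : p0 = v + T) (hK : 1 ≤ K) (hKd : 8 * K ^ 3 ≤ d ^ (-t)) :
    K * d ^ pX + 2 * K * d ^ (v - t) * (K * d ^ pC) ≤ d ^ (pX - (2 * T + 3 * t)) := by
  have hK0 : 0 < K := by linarith
  have h1 : d ^ (v - t) * d ^ pC = d ^ (v - t + pC) := (Real.rpow_add hd _ _).symm
  have h2 : d ^ (v - t + pC) ≤ d ^ (pX - (2 * T + 2 * t)) := dle hd hd1 (by linarith)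
  have h3 : d ^ pX ≤ d ^ (pX - (2 * T + 2 * t)) := dle hd hd1 (by linarith)
  have h4 : d ^ (pX - (2 * T + 3 * t)) = d ^ (-t) * d ^ (pX - (2 * T + 2 * t)) := by
    rw [← Real.rpow_add hd]; congr 1; ring
  have h6 := dpos hd (pX - (2 * T + 2 * t))
  have hK1 : K ≤ K ^ 3 := by nlinarith [sq_nonneg K, mul_pos hK0 hK0]
  have hK2 : K ^ 2 ≤ K ^ 3 := by nlinarith [mul_pos hK0 hK0]
  rw [h4]
  calc K * d ^ pX + 2 * K * d ^ (v - t) * (K * d ^ pC) =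
      K * d ^ pX + 2 * K ^ 2 * (d ^ (v - t) * d ^ pC) := by ring
    _ ≤ K ^ 3 * d ^ (pX - (2 * T + 2 * t)) + 2 * K ^ 3 * d ^ (pX - (2 * T + 2 * t)) := by
        rw [h1]
        exact add_le_add (mul_le_mul hK1 h3 (dpos hd _).le (by positivity))
          (mul_le_mul (by linarith) h2 (dpos hd _).le (by positivity))
    _ = 3 * K ^ 3 * d ^ (pX - (2 * T + 2 * t)) := by ring
    _ ≤ d ^ (-t) * d ^ (pX - (2 * T + 2 * t)) := by
        refine mul_le_mul_of_nonneg_right (le_trans ?_ hKd) h6.le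
        have : 0 < K ^ 3 := by positivity
        linarith

/-- normal size over the cell -/
theorem sz_quad (hd : 0 < d) (hd1 : d < 1) {K T t p0 v pN pP pR : ℝ} (w10 : pN ≤ p0 + pP)
    (w7 : pP ≤ p0 + pR) (hT : 0 ≤ T) (ht : 0 < t) (hv : p0 = v + T) (hK : 1 ≤ K)
    (hKd : 8 * K ^ 3 ≤ d ^ (-t)) :
    K * d ^ pN + 2 * K * d ^ (v - t) * (K * d ^ pP) + (2 * K * d ^ (v - t)) ^ 2 * (K * d ^ pR) ≤
      d ^ (pN - (2 * T + 3 * t)) := by
  have hK0 : 0 < K := by linarith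
  have h1 : d ^ (v - t) * d ^ pP = d ^ (v - t + pP) := (Real.rpow_add hd _ _).symm
  have h1' : d ^ (v - t) * d ^ (v - t) * d ^ pR = d ^ (v - t + (v - t) + pR) := by
    rw [Real.rpow_add hd, Real.rpow_add hd]
  have h2 : d ^ (v - t + pP) ≤ d ^ (pN - (2 * T + 2 * t)) := dle hd hd1 (by linarith)
  have h2' : d ^ (v - t + (v - t) + pR) ≤ d ^ (pN - (2 * T + 2 * t)) :=
    dle hd hd1 (by linarith)
  have h3 : d ^ pN ≤ d ^ (pN - (2 * T + 2 * t)) := dle hd hd1 (by linarith)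
  have h4 : d ^ (pN - (2 * T + 3 * t)) = d ^ (-t) * d ^ (pN - (2 * T + 2 * t)) := by
    rw [← Real.rpow_add hd]; congr 1; ring
  have h6 := dpos hd (pN - (2 * T + 2 * t))
  have hK1 : K ≤ K ^ 3 := by nlinarith [sq_nonneg K, mul_pos hK0 hK0]
  have hK2 : K ^ 2 ≤ K ^ 3 := by nlinarith [mul_pos hK0 hK0]
  rw [h4]
  calc K * d ^ pN + 2 * K * d ^ (v - t) * (K * d ^ pP) +
        (2 * K * d ^ (v - t)) ^ 2 * (K * d ^ pR) =
      K * d ^ pN + 2 * K ^ 2 * (d ^ (v - t) * d ^ pP) +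
        4 * K ^ 3 * (d ^ (v - t) * d ^ (v - t) * d ^ pR) := by ring
    _ ≤ K ^ 3 * d ^ (pN - (2 * T + 2 * t)) + 2 * K ^ 3 * d ^ (pN - (2 * T + 2 * t)) +
        4 * K ^ 3 * d ^ (pN - (2 * T + 2 * t)) := by
        rw [h1, h1']
        exact add_le_add (add_le_add (mul_le_mul hK1 h3 (dpos hd _).le (by positivity))
          (mul_le_mul (by linarith) h2 (dpos hd _).le (by positivity)))
          (mul_le_mul_of_nonneg_left h2' (by positivity))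
    _ = 7 * K ^ 3 * d ^ (pN - (2 * T + 2 * t)) := by ring
    _ ≤ d ^ (-t) * d ^ (pN - (2 * T + 2 * t)) := by
        refine mul_le_mul_of_nonneg_right (le_trans ?_ hKd) h6.le
        have : 0 < K ^ 3 := by positivity
        linarith

/-- the order of two sizes, shifted -/
theorem ord_shift (hd : 0 < d) {W W' H t x y : ℝ} (hH : 0 < H)
    (h : W * d ^ x ≤ d ^ (-t) * (W' * d ^ y)) (u : ℝ) :
    W / H * d ^ (x - u) ≤ W' / H * d ^ (y - u - t) := by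
  have e1 : W / H * d ^ (x - u) = (W * d ^ x) * (d ^ (-u) / H) := by
    rw [sub_eq_add_neg, Real.rpow_add hd]; ring
  have e2 : W' / H * d ^ (y - u - t) = (d ^ (-t) * (W' * d ^ y)) * (d ^ (-u) / H) := by
    rw [show y - u - t = y + -u + -t by ring, Real.rpow_add hd, Real.rpow_add hd]; ring
  rw [e1, e2]
  exact mul_le_mul_of_nonneg_right h (by have := dpos hd (-u); positivity)

/-- quotient by the length of the cell -/
theorem quo_bd (hd : 0 < d) (hd1 : d < 1) {H ρ v t p0 T W : ℝ} (hH : 0 < H) (hρ : 0 < ρ)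
    (hlo : d ^ (v + t) ≤ H * ρ) (hv : p0 = v + T) (hT : 0 ≤ T) (hW : 0 < W) (u : ℝ) :
    W / H * d ^ u / ρ ≤ W * d ^ (u - p0 - t) := by
  have e1 : W / H * d ^ u / ρ = W * d ^ u / (H * ρ) := by field_simp
  rw [e1, div_le_iff₀ (mul_pos hH hρ)]
  have h1 : W * d ^ (u - p0 - t) * d ^ (v + t) ≤ W * d ^ (u - p0 - t) * (H * ρ) :=
    mul_le_mul_of_nonneg_left hlo (by have := dpos hd (u - p0 - t); positivity)
  refine le_trans ?_ h1
  rw [mul_assoc, ← Real.rpow_add hd]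
  exact mul_le_mul_of_nonneg_left (dle hd hd1 (by linarith)) hW.le

/-- one factor of the reward -/
theorem rew_bd (hd : 0 < d) {W X q u : ℝ} (hW : 0 < W) (hX : 0 ≤ X) (hq : 0 ≤ q)
    (h : X ≤ W * d ^ u) : X ^ q ≤ W ^ q * d ^ (u * q) := by
  refine (Real.rpow_le_rpow hX h hq).trans (le_of_eq ?_)
  rw [Real.mul_rpow hW.le (dpos hd _).le, ← Real.rpow_mul hd.le]

/-- the penalised size -/
theorem val_bd (hd : 0 < d) (hd1 : d < 1) {H ρ v t p0 T Wy Wa Wb : ℝ} {q : Fin 3 → ℝ}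
    (hq : ∀ j, 0 ≤ q j) (hH : 0 < H) (hρ : 0 < ρ) (hlo : d ^ (v + t) ≤ H * ρ) (hv : p0 = v + T)
    (hT : 0 ≤ T) (ht : 0 < t) (hy : 0 < Wy) (ha : 0 < Wa) (hb : 0 < Wb) {CG : ℝ} (hC0 : 0 ≤ CG)
    (hC : CG ≤ d ^ (-t)) (x0 x1 x2 lam : ℝ) :
    CG * ((Wy / H * d ^ (x0 - lam - t)) * (Wb / H * d ^ (x2 - lam - 3 * t)) *
      (Wa / H * d ^ (x1 - lam - 5 * t)) *
      (((Wy / H * d ^ (x0 - lam - t)) / ρ) ^ q 0 * ((Wa / H * d ^ (x1 - lam - 5 * t)) / ρ) ^ q 1 *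
        ((Wb / H * d ^ (x2 - lam - 3 * t)) / ρ) ^ q 2)) ≤
    Vn q H Wa Wb Wy * d ^ (x0 + x2 + x1 + (q 0 * (x0 - p0) + q 1 * (x1 - p0) + q 2 * (x2 - p0)) -
      ((3 + (q 0 + q 1 + q 2)) * lam + (10 + 6 * (q 0 + q 1 + q 2)) * t)) := by
  have d0 := dpos hd (x0 - lam - t)
  have d1 := dpos hd (x1 - lam - 5 * t)
  have d2 := dpos hd (x2 - lam - 3 * t)
  have q0 := quo_bd hd hd1 hH hρ hlo hv hT hy (x0 - lam - t)
  have q1 := quo_bd hd hd1 hH hρ hlo hv hT ha (x1 - lam - 5 * t)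
  have q2 := quo_bd hd hd1 hH hρ hlo hv hT hb (x2 - lam - 3 * t)
  have b0 := rew_bd hd hy (X := (Wy / H * d ^ (x0 - lam - t)) / ρ)
    (u := x0 - p0 - lam - 6 * t) (by positivity) (hq 0)
    (q0.trans (mul_le_mul_of_nonneg_left (dle hd hd1 (by linarith)) hy.le))
  have b1 := rew_bd hd ha (X := (Wa / H * d ^ (x1 - lam - 5 * t)) / ρ)
    (u := x1 - p0 - lam - 6 * t) (by positivity) (hq 1)
    (q1.trans (mul_le_mul_of_nonneg_left (dle hd hd1 (by linarith)) ha.le))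
  have b2 := rew_bd hd hb (X := (Wb / H * d ^ (x2 - lam - 3 * t)) / ρ)
    (u := x2 - p0 - lam - 6 * t) (by positivity) (hq 2)
    (q2.trans (mul_le_mul_of_nonneg_left (dle hd hd1 (by linarith)) hb.le))
  have n0 : 0 ≤ ((Wy / H * d ^ (x0 - lam - t)) / ρ) ^ q 0 := Real.rpow_nonneg (by positivity) _
  have n1 : 0 ≤ ((Wa / H * d ^ (x1 - lam - 5 * t)) / ρ) ^ q 1 := Real.rpow_nonneg (by positivity) _
  have n2 : 0 ≤ ((Wb / H * d ^ (x2 - lam - 3 * t)) / ρ) ^ q 2 := Real.rpow_nonneg (by positivity) _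
  have hprod := mul_le_mul (mul_le_mul b0 b1 n1 (n0.trans b0)) b2 n2
    (mul_nonneg (n0.trans b0) (n1.trans b1))
  have hX : 0 ≤ (Wy / H * d ^ (x0 - lam - t)) * (Wb / H * d ^ (x2 - lam - 3 * t)) *
      (Wa / H * d ^ (x1 - lam - 5 * t)) := by positivity
  refine (mul_le_mul hC (mul_le_mul_of_nonneg_left hprod hX)
    (mul_nonneg hX (mul_nonneg (mul_nonneg n0 n1) n2)) (dpos hd _).le).trans (le_of_eq ?_)
  have e1 : d ^ (x0 + x2 + x1 + (q 0 * (x0 - p0) + q 1 * (x1 - p0) + q 2 * (x2 - p0)) -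
      ((3 + (q 0 + q 1 + q 2)) * lam + (10 + 6 * (q 0 + q 1 + q 2)) * t)) =
      d ^ (-t) * d ^ (x0 - lam - t) * d ^ (x2 - lam - 3 * t) * d ^ (x1 - lam - 5 * t) *
      d ^ ((x0 - p0 - lam - 6 * t) * q 0) * d ^ ((x1 - p0 - lam - 6 * t) * q 1) *
      d ^ ((x2 - p0 - lam - 6 * t) * q 2) := by
    rw [← Real.rpow_add hd, ← Real.rpow_add hd, ← Real.rpow_add hd, ← Real.rpow_add hd,
      ← Real.rpow_add hd, ← Real.rpow_add hd]
    congr 1
    ring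
  rw [e1]
  unfold Vn
  ring

end aux

section fin

variable {σ κ : Type*} {G : Geo σ κ} {L : ℕ → ℕ → Ln4} {r0 : ℕ → ℝ} {wr cr : Fin 3 → ℕ → ℝ}
  {q : Fin 3 → ℝ} {CG : ℝ}
  {π : Equiv.Perm (Fin 3)} {E Fa Fb : ℕ → ℕ × ℝ → ℝ} {H Wa Wb Wy : ℕ → ℝ} {n i : ℕ}
  {d K T t δ v : ℝ} {p : Fin 11 → ℝ} {x : ℕ × ℝ}

/-- distance of the heights -/
theorem win_dist (hd : 0 < d) (hd1 : d < 1) (hH : 0 < H n) (hT : 0 ≤ T) (ht : 0 < t)
    (hv : p 0 = v + T) (hK : 1 ≤ K) (hhi : H n * rho i ≤ d ^ (v - t)) {J : ℤ} {y : ℕ × ℝ}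
    (hnear : Near (coS π L E Fa Fb H Wa Wb Wy n) d p K x y) (hyJ : zc i y.2 = J) {z : ℝ}
    (hz0 : zl i J ≤ z) (hz1 : z ≤ zl i J + rho i) : |z - x.2| ≤ 2 * K * d ^ (v - t) / H n := by
  obtain ⟨k1, k2⟩ := mem_cell hyJ
  have h1 := hnear 0
  rw [coS_z, abs_mul, abs_of_pos hH, hv] at h1
  have h2 : |z - y.2| ≤ rho i := by
    rw [abs_le]; constructor <;> linarith
  have h3 : |z - x.2| ≤ |z - y.2| + |y.2 - x.2| := by
    have := abs_add_le (z - y.2) (y.2 - x.2)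
    rwa [show z - y.2 + (y.2 - x.2) = z - x.2 by ring] at this
  rw [le_div_iff₀ hH]
  have h5 : K * d ^ (v + T) ≤ K * d ^ (v - t) :=
    mul_le_mul_of_nonneg_left (dle hd hd1 (by linarith)) (by linarith)
  have h6 : |z - y.2| * H n ≤ d ^ (v - t) := by
    refine le_trans ?_ hhi
    rw [mul_comm (H n)]
    exact mul_le_mul_of_nonneg_right h2 hH.le
  have h7 : d ^ (v - t) ≤ K * d ^ (v - t) := le_mul_of_one_le_left (dpos hd _).le hK
  have h8 := mul_le_mul_of_nonneg_right h3 hH.le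
  linarith

/-- finite form, all exponents explicit. `v = w0 + v'`, `p 0 = v + T`. -/
theorem gd_fin (hG : FlatGeo G L r0 wr cr q CG) (hq : ∀ j, 0 ≤ q j) (hd : 0 < d) (hd1 : d < 1)
    (hE : |E n x| ≤ 1) (hFa : |Fa n x| ≤ 1) (hFb : |Fb n x| ≤ 1) (hH : 0 < H n) (ha : 0 < Wa n)
    (hb : 0 < Wb n) (hy : 0 < Wy n)
    (w8 : p 8 ≤ p 0 + p 5) (w9 : p 9 ≤ p 0 + p 6) (w10 : p 10 ≤ p 0 + p 7) (w7 : p 7 ≤ p 0 + p 1)
    (hT : 0 ≤ T) (ht : 0 < t) (hv : p 0 = v + T) (hK : 1 ≤ K)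
    (hlo : d ^ (v + t) ≤ H n * rho i) (hhi : H n * rho i ≤ d ^ (v - t))
    (hKd : 8 * K ^ 3 ≤ d ^ (-t))
    (hab : Wb n * d ^ p 9 ≤ d ^ (-t) * (Wa n * d ^ p 8))
    (hby : Wy n * d ^ p 10 ≤ d ^ (-t) * (Wb n * d ^ p 9))
    (hres : r0 n ≤ d ^ (-t) * (Wy n / H n * d ^ p 10))
    (hn0 : wr 0 n ≤ Wy n / H n * d ^ p 10)
    (hn1 : wr 1 n ≤ Wa n / H n * d ^ p 8) (hn2 : wr 2 n ≤ Wb n / H n * d ^ p 9)
    (hx0 : Wy n / H n * d ^ (p 10 - δ) ≤ cr 0 n)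
    (hx1 : Wa n / H n * d ^ (p 8 - δ) ≤ cr 1 n) (hx2 : Wb n / H n * d ^ (p 9 - δ) ≤ cr 2 n)
    (hcap : Wa n * d ^ (p 8 - p 0 - δ) ≤ 1) (hδ : 2 * T + 9 * t ≤ δ)
    (hC : CG ≤ d ^ (-t)) (J : ℤ) :
    ∃ s : σ, G.adm n i J s ∧
      G.val n i J s ≤ Vn q (H n) (Wa n) (Wb n) (Wy n) *
        d ^ (Dp q p - ((3 + (q 0 + q 1 + q 2)) * (2 * T + 3 * t) +
          (10 + 6 * (q 0 + q 1 + q 2)) * t)) ∧
      ∀ y : ℕ × ℝ, Near (coS π L E Fa Fb H Wa Wb Wy n) d p K x y → zc i y.2 = J →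
        G.mem n i J s y.1 := by
  have hρ : 0 < rho i := by unfold rho; positivity
  have ordby := ord_shift hd hH hby
  have ordab := ord_shift hd hH hab
  have pa : 0 < Wy n / H n * d ^ (p 10 - (2 * T + 3 * t) - t) :=
    mul_pos (div_pos hy hH) (dpos hd _)
  have haw : Wy n / H n * d ^ (p 10 - (2 * T + 3 * t) - t) ≤
      Wb n / H n * d ^ (p 9 - (2 * T + 3 * t) - 3 * t) := by
    have h1 := ordby ((2 * T + 3 * t) + t)
    rw [show p 10 - ((2 * T + 3 * t) + t) = p 10 - (2 * T + 3 * t) - t by ring] at h1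
    exact h1.trans (mul_le_mul_of_nonneg_left (dle hd hd1 (by linarith)) (by positivity))
  have hww : Wb n / H n * d ^ (p 9 - (2 * T + 3 * t) - 3 * t) ≤
      Wa n / H n * d ^ (p 8 - (2 * T + 3 * t) - 5 * t) := by
    have h1 := ordab ((2 * T + 3 * t) + 3 * t)
    rw [show p 9 - ((2 * T + 3 * t) + 3 * t) = p 9 - (2 * T + 3 * t) - 3 * t by ring] at h1
    exact h1.trans (mul_le_mul_of_nonneg_left (dle hd hd1 (by linarith)) (by positivity))
  have hra : r0 n ≤ Wy n / H n * d ^ (p 10 - (2 * T + 3 * t) - t) := by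
    refine hres.trans (le_of_eq_of_le (b := Wy n / H n * d ^ (p 10 - t)) ?_ ?_)
    · rw [sub_eq_add_neg, Real.rpow_add hd]; ring
    · exact mul_le_mul_of_nonneg_left (dle hd hd1 (by linarith)) (by positivity)
  have hw1ρ : Wa n / H n * d ^ (p 8 - (2 * T + 3 * t) - 5 * t) ≤ rho i := by
    have h1 := quo_bd hd hd1 hH hρ hlo hv hT ha (p 8 - (2 * T + 3 * t) - 5 * t)
    have h2 : Wa n * d ^ (p 8 - (2 * T + 3 * t) - 5 * t - p 0 - t) ≤ Wa n * d ^ (p 8 - p 0 - δ) :=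
      mul_le_mul_of_nonneg_left (dle hd hd1 (by linarith)) ha.le
    have h3 := h1.trans (h2.trans hcap)
    rwa [div_le_one hρ] at h3
  obtain ⟨s, hadm, hval, hmem⟩ := hG.flat n i J (fpv π (fr (Fa n x) (Fb n x) (E n x)))
    (L n x.1) _ _ _ (fr_adm π hFa hFb hE).ortho pa hra haw hww hw1ρ
    (fun k => by
      fin_cases k
      · exact ⟨hn0.trans (mul_le_mul_of_nonneg_left (dle hd hd1 (by linarith)) (by positivity)),
          (mul_le_mul_of_nonneg_left (dle hd hd1 (by linarith)) (by positivity)).trans hx0⟩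
      · exact ⟨hn1.trans (mul_le_mul_of_nonneg_left (dle hd hd1 (by linarith)) (by positivity)),
          (mul_le_mul_of_nonneg_left (dle hd hd1 (by linarith)) (by positivity)).trans hx1⟩
      · exact ⟨hn2.trans (mul_le_mul_of_nonneg_left (dle hd hd1 (by linarith)) (by positivity)),
          (mul_le_mul_of_nonneg_left (dle hd hd1 (by linarith)) (by positivity)).trans hx2⟩)
  refine ⟨s, hadm, hval.trans ?_, ?_⟩
  · exact val_bd hd hd1 hq hH hρ hlo hv hT ht hy ha hb hG.C0 hC (p 10) (p 8) (p 9) (2 * T + 3 * t)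
  · -- membership
    intro y hnear hyJ
    refine hmem _ fun z hz0 hz1 => ?_
    have hdist := win_dist hd hd1 hH hT ht hv hK hhi hnear hyJ hz0 hz1
    have hHη : H n * (2 * K * d ^ (v - t) / H n) = 2 * K * d ^ (v - t) := by field_simp
    obtain ⟨m0, m1, m2⟩ := gd_flat (π := π) (c := L n x.1) (t := L n y.1) (zi := x.2)
      (b := fun k => K * d ^ p k) (ρ' := 2 * K * d ^ (v - t) / H n) (z := z) hE hFa hFb hH ha hb
      hy hdist (zj := y.2) (ej := E n y) (Ga := Fa n y) (Gb := Fb n y)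
      (A1 := Wa n / H n * d ^ (p 8 - (2 * T + 3 * t)))
      (A2 := Wb n / H n * d ^ (p 9 - (2 * T + 3 * t)))
      (A0 := Wy n / H n * d ^ (p 10 - (2 * T + 3 * t))) (fun k => hnear k)
      (by
        rw [hHη]
        exact mul_le_mul_of_nonneg_left (sz_lin hd hd1 w8 hT ht hv hK hKd) (by positivity))
      (by
        rw [hHη]
        exact mul_le_mul_of_nonneg_left (sz_lin hd hd1 w9 hT ht hv hK hKd) (by positivity))
      (by
        rw [hHη]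
        exact mul_le_mul_of_nonneg_left (sz_quad hd hd1 w10 w7 hT ht hv hK hKd) (by positivity))
    have c8 : 8 ≤ d ^ (-t) := by
      refine le_trans ?_ hKd
      have : 1 ≤ K ^ 3 := one_le_pow₀ hK
      linarith
    -- comparison with `a, w1, w2`
    have o1 := ordby (2 * T + 3 * t)
    have o2 : Wb n / H n * d ^ (p 9 - (2 * T + 3 * t) - t) ≤
        Wa n / H n * d ^ (p 8 - (2 * T + 3 * t) - 2 * t) := by
      have := ordab ((2 * T + 3 * t) + t)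
      rwa [show p 9 - ((2 * T + 3 * t) + t) = p 9 - (2 * T + 3 * t) - t by ring,
        show p 8 - ((2 * T + 3 * t) + t) - t = p 8 - (2 * T + 3 * t) - 2 * t by ring] at this
    have g2 : Wb n / H n * d ^ (p 9 - (2 * T + 3 * t)) ≤
        Wb n / H n * d ^ (p 9 - (2 * T + 3 * t) - t) :=
      mul_le_mul_of_nonneg_left (dle hd hd1 (by linarith)) (by positivity)
    have g1 : Wa n / H n * d ^ (p 8 - (2 * T + 3 * t)) ≤
        Wa n / H n * d ^ (p 8 - (2 * T + 3 * t) - 2 * t) :=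
      mul_le_mul_of_nonneg_left (dle hd hd1 (by linarith)) (by positivity)
    have W2 : 0 < Wb n / H n * d ^ (p 9 - (2 * T + 3 * t) - t) := mul_pos (div_pos hb hH) (dpos hd _)
    have W1 : 0 < Wa n / H n * d ^ (p 8 - (2 * T + 3 * t) - 2 * t) :=
      mul_pos (div_pos ha hH) (dpos hd _)
    have dt1 : 1 ≤ d ^ (-t) := by linarith
    have hw2' : 8 * (Wb n / H n * d ^ (p 9 - (2 * T + 3 * t) - t)) ≤
        Wb n / H n * d ^ (p 9 - (2 * T + 3 * t) - 3 * t) := by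
      have e1 : Wb n / H n * d ^ (p 9 - (2 * T + 3 * t) - 3 * t) =
          (d ^ (-t) * d ^ (-t)) * (Wb n / H n * d ^ (p 9 - (2 * T + 3 * t) - t)) := by
        rw [show p 9 - (2 * T + 3 * t) - 3 * t = p 9 - (2 * T + 3 * t) - t + (-t) + (-t) by ring,
          Real.rpow_add hd, Real.rpow_add hd]; ring
      rw [e1]
      refine mul_le_mul_of_nonneg_right ?_ W2.le
      have := mul_le_mul c8 dt1 zero_le_one (by linarith)
      linarith
    have hw1' : 8 * (Wa n / H n * d ^ (p 8 - (2 * T + 3 * t) - 2 * t)) ≤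
        Wa n / H n * d ^ (p 8 - (2 * T + 3 * t) - 5 * t) := by
      have e1 : Wa n / H n * d ^ (p 8 - (2 * T + 3 * t) - 5 * t) =
          (d ^ (-t) * (d ^ (-t) * d ^ (-t))) *
            (Wa n / H n * d ^ (p 8 - (2 * T + 3 * t) - 2 * t)) := by
        rw [show p 8 - (2 * T + 3 * t) - 5 * t =
          p 8 - (2 * T + 3 * t) - 2 * t + (-t) + (-t) + (-t) by ring,
          Real.rpow_add hd, Real.rpow_add hd, Real.rpow_add hd]; ring
      rw [e1]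
      refine mul_le_mul_of_nonneg_right ?_ W1.le
      have h2 := mul_le_mul dt1 dt1 zero_le_one (by linarith)
      have := mul_le_mul c8 h2 (by linarith) (by linarith)
      linarith
    refine ⟨?_, ?_, ?_⟩
    · refine m0.trans ?_
      exact mul_le_mul_of_nonneg_left (dle hd hd1 (by linarith)) (by positivity)
    · refine m1.trans (le_trans ?_ hw1')
      linarith
    · refine m2.trans (le_trans ?_ hw2')
      linarith

end fin

end Crest.Agent.R136.GeoQ186
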