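import Crest.Agent.R136.GD3_186
import Crest.Agent.R136.PqG_464
import Crest.Agent.R136.Wq2_638
import Crest.Agent.R136.TopD_484

/-!
# R136, [GEO-D] for the straight chart, final form (helper186)

* `flatGeo_geo4` : the geometry of sheets of the class `C*` contains the flat boxes;
* `boxIn_coS` : 464's `BoxIn`; `PDQ` : the exponents of the boxes which are one sheet;
* `gD_couQ` : the field `gD` of `PreQ` in 638's units.
-/

set_option autoImplicit false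
set_option linter.unusedVariables false

open Finset Filter Topology

namespace Crest.Agent.R136.GeoQ186

open Crest.Agent.R138.Ex926 (Base U)
open Crest.Agent.R138.Mk163 (zc zl rho alive)
open Crest.Agent.R138
open Crest.Agent.R136.MkA627
open Crest.Agent.R136.Net191
open Crest.Agent.R136.NetQ186
open Crest.Agent.R136.Sh605
open Crest.Agent.R136.Top484 (geo4 Rng)
open Crest.Agent.R136.PqG464
open Crest.Agent.R136.Wq638

/-! ### flat boxes are sheets of the class `C*` -/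

/-- the function of a flat box -/
def qflat (e : Fin 3 → V3) (c : Ln4) : ℝ → V3 → ℝ := fun z x => dt (e 0) (x - c.pos z)

theorem qflat_add (e : Fin 3 → V3) (c : Ln4) (z : ℝ) (x : V3) (τ : ℝ) (u : V3) :
    qflat e c z (x + τ • u) - qflat e c z x = τ * dt (e 0) u := by
  simp only [qflat, dt, Pi.sub_apply, Pi.add_apply, Pi.smul_apply, smul_eq_mul]
  ring

/-- **flat orthonormal boxes are in the class `C*`** -/
theorem flat_ShN0 {e : Fin 3 → V3} (he : Ortho e) (c : Ln4) {a w1 w2 z0 ρ r0 : ℝ} (ha : 0 < a)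
    (hr : r0 ≤ a) (h2 : a ≤ w2) (h1 : w2 ≤ w1) :
    ShN0 e c ![w2, w1, w2] (qflat e c) a z0 ρ r0 where
  ortho := he
  isQ := by
    refine ⟨-(dt (e 0) c.p), -(dt (e 0) c.v), 0, e 0, 0, 0, fun z x => ?_⟩
    simp only [qflat, dt, Pi.sub_apply, Ln4.pos, Fin.sum_univ_three, Pi.zero_apply]
    ring
  w0_eq := rfl
  a_le := h2
  w_le := h1
  r0_le := hr
  st0 := by
    intro z _ _ x τ hτ _ _
    have h := he 0 0
    rw [if_pos rfl] at h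
    rw [qflat_add, h, mul_one]
    constructor <;> linarith
  st1 := by
    intro z _ _ x τ hτ _ _
    have h := he 0 1
    rw [if_neg (by decide)] at h
    rw [qflat_add, h, mul_zero, abs_zero]
    have p2 : 0 < w2 := lt_of_lt_of_le ha h2
    have p1 : 0 < w1 := lt_of_lt_of_le p2 h1
    exact mul_nonneg (div_pos p2 p1).le hτ
  st2 := by
    intro z _ _ x τ hτ _ _
    have h := he 0 2
    rw [if_neg (by decide)] at h
    rw [qflat_add, h, mul_zero, abs_zero]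
    exact hτ

/-- **flat orthonormal boxes are in the class `C*`** -/
theorem flat_ShN {e : Fin 3 → V3} (he : Ortho e) (c : Ln4) {a w1 w2 z0 ρ r0 : ℝ} (ha : 0 < a)
    (hr : r0 ≤ a) (h2 : a ≤ w2) (h1 : w2 ≤ w1) :
    ShN e c ![w2, w1, w2] (qflat e c) a z0 ρ r0 := (flat_ShN0 he c ha hr h2 h1).toN

/-- **the official geometry contains the flat boxes** -/
theorem flatGeo_geo4 (L : ℕ → ℕ → Ln4) (r0 : ℕ → ℝ) (wr cr : Fin 3 → ℕ → ℝ) (q : Fin 3 → ℝ) :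
    FlatGeo (geo4 L r0 wr cr q) L r0 wr cr q 1 where
  C0 := zero_le_one
  flat := by
    intro n i J e c a w1 w2 he ha hr h2 h1 hρ hn
    refine ⟨⟨J, e, c, ![w2, w1, w2], qflat e c, a⟩,
      ⟨flat_ShN he c ha hr h2 h1, hρ, fun k => ?_⟩, ?_, ?_⟩
    · have := hn k
      fin_cases k <;> exact this
    · rw [one_mul]
      exact le_rfl
    · intro t ht z hz0 hz1
      obtain ⟨m0, m1, m2⟩ := ht z hz0 hz1
      refine ⟨fun k => ?_, m0⟩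
      fin_cases k
      · exact m0.trans h2
      · exact m1
      · exact m2

/-! ### `BoxIn` -/

theorem arith1 {Q t T ε : ℝ} (hQ : 0 ≤ Q) (ht : 0 < t) (hT : T ≤ t)
    (h : 40 * (1 + Q) * t ≤ ε) : (3 + Q) * (2 * T + 3 * t) + (10 + 6 * Q) * t ≤ ε := by
  have h1 : (3 + Q) * (2 * T + 3 * t) ≤ (3 + Q) * (5 * t) :=
    mul_le_mul_of_nonneg_left (by linarith) (by linarith)
  have h2 : (3 + Q) * (5 * t) = 15 * t + 5 * (Q * t) := by ring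
  have h3 : (10 + 6 * Q) * t = 10 * t + 6 * (Q * t) := by ring
  have h4 : 40 * (1 + Q) * t = 40 * t + 40 * (Q * t) := by ring
  have h5 : 0 ≤ Q * t := mul_nonneg hQ ht.le
  linarith

theorem arith2 {Q t δ : ℝ} (hQ : 0 ≤ Q) (ht : 0 < t) (h : 40 * (1 + Q) * t ≤ δ) :
    11 * t ≤ δ := by
  have h4 : 40 * (1 + Q) * t = 40 * t + 40 * (Q * t) := by ring
  have h5 : 0 ≤ Q * t := mul_nonneg hQ ht.le
  linarith

/-- constants are absorbed -/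
theorem const_le {B : Base} {n : ℕ} {c t : ℝ} (h : c * B.d n ^ t ≤ 1) : c ≤ B.d n ^ (-t) := by
  have h1 : B.d n ^ (-t) * B.d n ^ t = 1 := by
    rw [← Dp76.dpow_add, neg_add_cancel, Real.rpow_zero]
  have h2 := mul_le_mul_of_nonneg_left h (Dp76.dpow_pos B n (-t)).le
  calc c = B.d n ^ (-t) * B.d n ^ t * c := by rw [h1, one_mul]
    _ = B.d n ^ (-t) * (c * B.d n ^ t) := by ring
    _ ≤ B.d n ^ (-t) * 1 := h2
    _ = _ := mul_one _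

theorem H_lo {B : Base} {n i0 i : ℕ} {w0 u t : ℝ}
    (h : (2 : ℝ) ^ i ≤ (2 : ℝ) ^ i0 * B.d n ^ (-(u + t))) :
    B.d n ^ (w0 + u + t) ≤ B.d n ^ w0 * 2 ^ i0 * rho i := by
  have hp2 : (0 : ℝ) < 2 ^ i := by positivity
  have hr : rho i = 1 / 2 ^ i := rfl
  rw [hr, mul_one_div, le_div_iff₀ hp2, add_assoc, Dp76.dpow_add]
  have h5 := mul_le_mul_of_nonneg_left h
    (mul_pos (Dp76.dpow_pos B n w0) (Dp76.dpow_pos B n (u + t))).le
  refine h5.trans (le_of_eq ?_)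
  have : B.d n ^ (u + t) * B.d n ^ (-(u + t)) = 1 := by
    rw [← Dp76.dpow_add, add_neg_cancel, Real.rpow_zero]
  calc B.d n ^ w0 * B.d n ^ (u + t) * (2 ^ i0 * B.d n ^ (-(u + t))) =
      B.d n ^ w0 * 2 ^ i0 * (B.d n ^ (u + t) * B.d n ^ (-(u + t))) := by ring
    _ = _ := by rw [this, mul_one]

theorem H_hi {B : Base} {n i0 i : ℕ} {w0 u t : ℝ}
    (h : (2 : ℝ) ^ i0 * B.d n ^ (-(u - t)) ≤ (2 : ℝ) ^ i) :
    B.d n ^ w0 * 2 ^ i0 * rho i ≤ B.d n ^ (w0 + u - t) := by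
  have hp2 : (0 : ℝ) < 2 ^ i := by positivity
  have hr : rho i = 1 / 2 ^ i := rfl
  rw [hr, mul_one_div, div_le_iff₀ hp2, show w0 + u - t = w0 + (u - t) by ring, Dp76.dpow_add]
  have h5 := mul_le_mul_of_nonneg_left h
    (mul_pos (Dp76.dpow_pos B n w0) (Dp76.dpow_pos B n (u - t))).le
  refine le_trans (le_of_eq ?_) h5
  have : B.d n ^ (u - t) * B.d n ^ (-(u - t)) = 1 := by
    rw [← Dp76.dpow_add, add_neg_cancel, Real.rpow_zero]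
  calc B.d n ^ w0 * 2 ^ i0 =
      B.d n ^ w0 * 2 ^ i0 * (B.d n ^ (u - t) * B.d n ^ (-(u - t))) := by rw [this, mul_one]
    _ = _ := by ring

/-- the rational level -/
theorem exists_level {y t : ℝ} (hy : 0 ≤ y) (hy1 : y ≤ 1) (ht : 0 < t) :
    ∃ u : ℚ, 0 ≤ u ∧ u ≤ 1 ∧ (0 : ℝ) ≤ y - u ∧ y - u ≤ t ∧ ((u : ℝ) < y ∨ (u = 0 ∧ y ≤ 0)) := by
  rcases le_or_gt y 0 with h | h
  · refine ⟨0, le_rfl, zero_le_one, ?_, ?_, Or.inr ⟨rfl, h⟩⟩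
    · rw [Rat.cast_zero]; linarith
    · rw [Rat.cast_zero]; linarith
  · obtain ⟨u, h1, h2⟩ := exists_rat_btwn (show max 0 (y - t) < y from max_lt h (by linarith))
    have h3 : (0 : ℝ) < u := lt_of_le_of_lt (le_max_left _ _) h1
    have h4 : y - t < u := lt_of_le_of_lt (le_max_right _ _) h1
    refine ⟨u, ?_, ?_, by linarith, by linarith, Or.inl h2⟩
    · exact_mod_cast h3.le
    · have : (u : ℝ) < 1 := by linarith
      exact_mod_cast this.le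

theorem Vn_nonneg {q : Fin 3 → ℝ} {H Wa Wb Wy : ℝ} (hH : 0 < H) (ha : 0 < Wa) (hb : 0 < Wb)
    (hy : 0 < Wy) : 0 < Vn q H Wa Wb Wy := by
  unfold Vn
  have := Real.rpow_pos_of_pos hy (q 0)
  have := Real.rpow_pos_of_pos ha (q 1)
  have := Real.rpow_pos_of_pos hb (q 2)
  positivity

section box

variable {σ κ : Type*} {B : Base} {I : ℕ → Finset (ℕ × ℝ)} {G : Geo σ κ} {lev : ℕ → ℚ → ℕ}
    {A : ℕ → ℝ} {g s : ℝ} {τ : κ → ℝ → ℝ} {f : ℕ → ℚ → ℕ → ℤ → ℕ} {b : ℕ → ℚ → ℕ → σ}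
    {vm : ℕ → ℚ → ℝ} {w : κ → ℕ → ℚ → ℝ} {L : ℕ → ℕ → Ln4} {r0 : ℕ → ℝ} {wr cr : Fin 3 → ℕ → ℝ}
    {q : Fin 3 → ℝ} {CG : ℝ}
    {π : Equiv.Perm (Fin 3)} {E Fa Fb : ℕ → ℕ × ℝ → ℝ} {Wa Wb Wy : ℕ → ℝ} {w0 : ℝ}

/-- **[GEO-D], geometric hypothesis**, for the scaled straight chart. -/
theorem boxIn_coS (hM : MkA B I G lev A (fun v => g * v) (fun v => s * v) τ f b vm w)
    (hG : FlatGeo G L r0 wr cr q CG) (hq : ∀ j, 0 ≤ q j)
    (hE : ∀ n, ∀ x ∈ I n, |E n x| ≤ 1) (hFa : ∀ n, ∀ x ∈ I n, |Fa n x| ≤ 1)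
    (hFb : ∀ n, ∀ x ∈ I n, |Fb n x| ≤ 1)
    (ha : ∀ᶠ n in (U : Filter ℕ), 0 < Wa n) (hb : ∀ᶠ n in (U : Filter ℕ), 0 < Wb n)
    (hy : ∀ᶠ n in (U : Filter ℕ), 0 < Wy n)
    {p : Fin 11 → ℝ} (hp : Legal monQ p) (hp0 : w0 ≤ p 0) (hp1 : p 0 ≤ w0 + 1)
    (hO : Ord B r0 (fun n => B.d n ^ w0 * 2 ^ lev n 0) Wa Wb Wy p)
    (hn0 : ∀ x : ℝ, ∀ᶠ n in (U : Filter ℕ),
      wr 0 n ≤ Wy n / (B.d n ^ w0 * 2 ^ lev n 0) * B.d n ^ x ∧
        Wy n / (B.d n ^ w0 * 2 ^ lev n 0) * B.d n ^ x ≤ cr 0 n)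
    (hn1 : ∀ x : ℝ, ∀ᶠ n in (U : Filter ℕ),
      wr 1 n ≤ Wa n / (B.d n ^ w0 * 2 ^ lev n 0) * B.d n ^ x ∧
        Wa n / (B.d n ^ w0 * 2 ^ lev n 0) * B.d n ^ x ≤ cr 1 n)
    (hn2 : ∀ x : ℝ, ∀ᶠ n in (U : Filter ℕ),
      wr 2 n ≤ Wb n / (B.d n ^ w0 * 2 ^ lev n 0) * B.d n ^ x ∧
        Wb n / (B.d n ^ w0 * 2 ^ lev n 0) * B.d n ^ x ≤ cr 2 n) :
    BoxIn B I G lev (coS π L E Fa Fb (fun n => B.d n ^ w0 * 2 ^ lev n 0) Wa Wb Wy) 0 w0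
      (fun n => Vn q (B.d n ^ w0 * 2 ^ lev n 0) (Wa n) (Wb n) (Wy n)) p (Dp q p) := by
  intro K hK ε hε
  obtain ⟨δ, hδ, hcap⟩ := hO.cap
  obtain ⟨-, -, -, w7, -, -, w8, w9, -, w10, -, -⟩ := legalQ_iff.1 hp
  obtain ⟨Q, hQ⟩ : ∃ Q : ℝ, Q = q 0 + q 1 + q 2 := ⟨_, rfl⟩
  have hQ0 : 0 ≤ Q := by have := hq 0; have := hq 1; have := hq 2; rw [hQ]; linarith
  obtain ⟨t, ht⟩ : ∃ t : ℝ, t = min ε δ / (40 * (1 + Q)) := ⟨_, rfl⟩
  have hmin : 0 < min ε δ := lt_min hε hδ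
  have hc : 0 < 40 * (1 + Q) := by positivity
  have ht0 : 0 < t := by rw [ht]; exact div_pos hmin hc
  have htm : 40 * (1 + Q) * t = min ε δ := by rw [ht]; field_simp
  have htε : 40 * (1 + Q) * t ≤ ε := by rw [htm]; exact min_le_left _ _
  have htδ : 40 * (1 + Q) * t ≤ δ := by rw [htm]; exact min_le_right _ _
  obtain ⟨u, hu0, hu1, hT0, hTt, hor⟩ :=
    exists_level (y := p 0 - w0) (t := t) (by linarith) (by linarith) ht0
  have h11 := arith2 hQ0 ht0 htε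
  have h11' := arith2 hQ0 ht0 htδ
  refine ⟨u, hu0, hu1, by linarith, hor, ?_⟩
  filter_upwards [pow_lev hM u hu0 hu1 ht0, ev_const B (c := 8 * K ^ 3) (by positivity) ht0,
    ev_const B (c := |CG| + 1) (by positivity) ht0, hO.ab t ht0, hO.by' t ht0, hO.res t ht0,
    hcap, ha, hb, hy, hn0 (p 10), hn1 (p 8), hn2 (p 9), hn0 (p 10 - δ), hn1 (p 8 - δ),
    hn2 (p 9 - δ)]
    with n h1 h2 h3 hab hby hres hcp ha hb hy hn0 hn1 hn2 hx0 hx1 hx2 x hx J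
  have hd := B.pos n
  have hd1 := B.lt n
  have hH : 0 < B.d n ^ w0 * 2 ^ lev n 0 := mul_pos (Dp76.dpow_pos B n _) (by positivity)
  have hKd := const_le h2
  have hCd : CG ≤ B.d n ^ (-t) := by linarith [const_le h3, le_abs_self CG]
  have hlo := H_lo (w0 := w0) h1.1
  have hhi := H_hi (w0 := w0) h1.2
  obtain ⟨S, hadm, hval, hmem⟩ := gd_fin (L := L) (n := n) (i := lev n u) (π := π) (E := E)
    (Fa := Fa) (Fb := Fb) (H := fun n => B.d n ^ w0 * 2 ^ lev n 0) (Wa := Wa) (Wb := Wb)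
    (Wy := Wy) (d := B.d n) (K := K) (T := p 0 - w0 - u) (t := t) (δ := δ) (v := w0 + u) (p := p)
    (x := x) hG hq hd hd1 (hE n x hx) (hFa n x hx) (hFb n x hx) hH ha hb hy w8 w9 w10 w7 hT0 ht0
    (by ring) hK hlo hhi hKd hab hby hres hn0.1 hn1.1 hn2.1 hx0.2 hx1.2
    hx2.2 hcp (by linarith) hCd J
  refine ⟨S, hadm, hval.trans ?_, fun y _ hy1 hy2 => hmem y hy1 hy2⟩
  refine mul_le_mul_of_nonneg_left (Dp76.dpow_le B n ?_) (Vn_nonneg hH ha hb hy).le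
  have h6 := arith1 hQ0 ht0 hTt htε
  rw [hQ] at h6
  linarith

end box

/-! ### the field `gD` in 638's units -/

/-- **exponents of the boxes which are one sheet** -/
def PDQ (B : Base) (r0 : ℕ → ℝ) (lev : ℕ → ℚ → ℕ) (w : Fin 3 → ℕ → ℚ → ℝ) (w0 R : ℝ) :
    Set (Fin 11 → ℝ) :=
  {p | p ∈ Leg monQ R ∧ w0 ≤ p 0 ∧ p 0 ≤ w0 + 1 ∧
    Ord B r0 (uH B lev w0) (uA B lev w w0) (uB B lev w w0) (uY B lev w w0) p}

theorem PDQ_leg {B : Base} {r0 : ℕ → ℝ} {lev : ℕ → ℚ → ℕ} {w : Fin 3 → ℕ → ℚ → ℝ} {w0 R : ℝ} :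
    PDQ B r0 lev w w0 R ⊆ Leg monQ R := fun _ h => h.1

section final

variable {B : Base} {I : ℕ → Finset (ℕ × ℝ)} {lev : ℕ → ℚ → ℕ}
    {A : ℕ → ℝ} {g s : ℝ} {τ : Fin 3 → ℝ → ℝ} {f : ℕ → ℚ → ℕ → ℤ → ℕ} {b : ℕ → ℚ → ℕ → K4.Plk4}
    {vm : ℕ → ℚ → ℝ} {w : Fin 3 → ℕ → ℚ → ℝ} {L : ℕ → ℕ → Ln4} {r0 : ℕ → ℝ}
    {wr cr : Fin 3 → ℕ → ℝ} {q : Fin 3 → ℝ}
    {π : Equiv.Perm (Fin 3)} {E Fa Fb : ℕ → ℕ × ℝ → ℝ} {w0 R : ℝ}

/-- the size of the marks of level `v` -/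
theorem vm_eq (hM : MkA B I (geo4 L r0 wr cr q) lev A (fun v => g * v) (fun v => s * v) τ f b vm w)
    {v : ℚ} (hv0 : 0 ≤ v) (hv1 : v ≤ 1) : ∀ᶠ n in (U : Filter ℕ),
      vm n v = capQ q (rho (lev n v)) (fun k => w k n v) := by
  filter_upwards [hM.ne, hM.mark v hv0 hv1] with n hne hmk
  obtain ⟨x, hx⟩ := hne
  have hal : x.1 ∈ alive (I n) (lev n v) (zc (lev n v) x.2) :=
    MkRef627.mem_alive.2 ⟨x, hx, rfl, rfl⟩
  obtain ⟨-, -, h3, h4⟩ := hmk _ _ hal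
  have w0' := h4 0
  have w1' := h4 1
  have w2' := h4 2
  simp only [geo4, Matrix.cons_val] at h3 w0' w1' w2'
  rw [← h3, w0', w1', w2']
  rfl

theorem rng_eq (n : ℕ) (x y a : ℝ) : a * B.d n ^ (x - y - w0) =
    a / rho (lev n 0) * B.d n ^ (-y) / (B.d n ^ w0 * 2 ^ lev n 0) * B.d n ^ x := by
  have hd := B.pos n
  have e0 : B.d n ^ (x - y - w0) = B.d n ^ x * B.d n ^ (-y) * (B.d n ^ w0)⁻¹ := by
    rw [← Real.rpow_neg hd.le, ← Dp76.dpow_add, ← Dp76.dpow_add]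
    congr 1
  have e3 : (2 : ℝ) ^ lev n 0 = (rho (lev n 0))⁻¹ := by unfold rho; simp
  have hρ : 0 < rho (lev n 0) := rho_pos _
  have hw0' := (Dp76.dpow_pos B n w0).ne'
  rw [e0, e3]
  field_simp

theorem rng_mul (hwr : Rng B wr cr w) (k : Fin 3) (y : ℝ) :
    ∀ᶠ n in (U : Filter ℕ), wr k n ≤ w k n 0 * B.d n ^ y ∧ w k n 0 * B.d n ^ y ≤ cr k n := by
  filter_upwards [hwr y k 0 le_rfl zero_le_one, hwr (-y) k 0 le_rfl zero_le_one] with n h h'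
  refine ⟨h.1.trans (le_of_eq (mul_comm _ _)), ?_⟩
  have h2 := mul_le_mul_of_nonneg_right h'.2 (Dp76.dpow_pos B n y).le
  refine h2.trans (le_of_eq ?_)
  rw [mul_right_comm, ← Dp76.dpow_add, neg_add_cancel, Real.rpow_zero, one_mul]

theorem rng_uA (hwr : Rng B wr cr w) (x : ℝ) : ∀ᶠ n in (U : Filter ℕ),
    wr 1 n ≤ uA B lev w w0 n / (B.d n ^ w0 * 2 ^ lev n 0) * B.d n ^ x ∧
      uA B lev w w0 n / (B.d n ^ w0 * 2 ^ lev n 0) * B.d n ^ x ≤ cr 1 n := by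
  filter_upwards [rng_mul hwr 1 (x - w0 - w0)] with n h
  unfold uA
  rw [← rng_eq]
  exact h

theorem rng_uB (hwr : Rng B wr cr w) (x : ℝ) : ∀ᶠ n in (U : Filter ℕ),
    wr 2 n ≤ uB B lev w w0 n / (B.d n ^ w0 * 2 ^ lev n 0) * B.d n ^ x ∧
      uB B lev w w0 n / (B.d n ^ w0 * 2 ^ lev n 0) * B.d n ^ x ≤ cr 2 n := by
  filter_upwards [rng_mul hwr 2 (x - 2 * w0 - w0)] with n h
  unfold uB
  rw [← rng_eq]
  exact h

theorem rng_uY (hwr : Rng B wr cr w) (x : ℝ) : ∀ᶠ n in (U : Filter ℕ),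
    wr 0 n ≤ uY B lev w w0 n / (B.d n ^ w0 * 2 ^ lev n 0) * B.d n ^ x ∧
      uY B lev w w0 n / (B.d n ^ w0 * 2 ^ lev n 0) * B.d n ^ x ≤ cr 0 n := by
  filter_upwards [rng_mul hwr 0 (x - 3 * w0 - w0)] with n h
  unfold uY
  rw [← rng_eq]
  exact h

open Classical in
/-- **[GEO-D]: the field `gD` of `PreQ`**, straight chart, 638's units. -/
theorem gD_couQ (hM : MkA B I (geo4 L r0 wr cr q) lev A (fun v => g * v) (fun v => s * v) τ f b vm w)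
    (hwr : Rng B wr cr w) (hq : ∀ j, 0 ≤ q j)
    (hE : ∀ n, ∀ x ∈ I n, |E n x| ≤ 1) (hFa : ∀ n, ∀ x ∈ I n, |Fa n x| ≤ 1)
    (hFb : ∀ n, ∀ x ∈ I n, |Fb n x| ≤ 1) :
    ∀ p ∈ PDQ B r0 lev w w0 R, ∀ K : ℝ, 1 ≤ K → ∀ ε : ℝ, 0 < ε →
      ∀ᶠ n in (U : Filter ℕ), ∀ x ∈ I n,
        (((I n).filter fun y => Near (couQ B lev w w0 (incQ π L E Fa Fb) n) (B.d n) p K x y).card
          : ℝ) ≤ N0Q A vm n * B.d n ^ (-(DQ g s q w0 p + ε)) := by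
  rintro p ⟨hpL, hp0, hp1, hO⟩ K hK ε hε
  have hw : ∀ j, ∀ᶠ n in (U : Filter ℕ), 0 < w j n 0 := fun j => hM.wpos j 0 le_rfl zero_le_one
  have ha : ∀ᶠ n in (U : Filter ℕ), 0 < uA B lev w w0 n := (hw 1).mono fun n h => uA_pos h
  have hb : ∀ᶠ n in (U : Filter ℕ), 0 < uB B lev w w0 n := (hw 2).mono fun n h => uB_pos h
  have hy : ∀ᶠ n in (U : Filter ℕ), 0 < uY B lev w w0 n := (hw 0).mono fun n h => uY_pos h
  have hBx := boxIn_coS (π := π) (E := E) (Fa := Fa) (Fb := Fb) hM (flatGeo_geo4 L r0 wr cr q) hq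
    hE hFa hFb ha hb hy hpL.1 hp0 hp1 hO (rng_uY hwr) (rng_uA hwr) (rng_uB hwr)
  have hV : ∀ᶠ n in (U : Filter ℕ), 0 < Vn q (B.d n ^ w0 * 2 ^ lev n 0) (uA B lev w w0 n)
      (uB B lev w w0 n) (uY B lev w w0 n) := by
    filter_upwards [ha, hb, hy] with n ha hb hy
    exact Vn_nonneg (mul_pos (Dp76.dpow_pos B n _) (by positivity)) ha hb hy
  have hcore := gD_of hM (fun n x _ y _ => coS_zco π L E Fa Fb B lev w0 (uA B lev w w0)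
    (uB B lev w w0) (uY B lev w w0) n x y) hV hBx
    (D := (g - (1 - s)) * max (p 0 - w0) 0 - Dp q p) rfl K hK ε hε
  filter_upwards [hcore, vm_eq hM le_rfl zero_le_one, hw 0, hw 1, hw 2] with n hn hvm h0 h1 h2 x hx
  refine (hn x hx).trans (le_of_eq ?_)
  have hd := B.pos n
  have hρ : 0 < rho (lev n 0) := rho_pos _
  have p2 : (0 : ℝ) < 2 ^ lev n 0 := by positivity
  -- the unit volume
  have hr1 : ∀ (k : Fin 3) (c : ℝ), 0 < w k n 0 →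
      (w k n 0 / rho (lev n 0) * B.d n ^ c) ^ q k =
        (w k n 0 / rho (lev n 0)) ^ q k * B.d n ^ (c * q k) := by
    intro k c hk
    rw [Real.mul_rpow (div_pos hk hρ).le (Dp76.dpow_pos B n _).le, ← Real.rpow_mul hd.le]
  have hVn : Vn q (B.d n ^ w0 * 2 ^ lev n 0) (uA B lev w w0 n) (uB B lev w w0 n)
      (uY B lev w w0 n) = vm n 0 *
        B.d n ^ (-(9 * w0) - (3 * w0 * q 0 + w0 * q 1 + 2 * w0 * q 2)) := by
    rw [hvm]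
    unfold Vn capQ uA uB uY
    rw [hr1 0 _ h0, hr1 1 _ h1, hr1 2 _ h2]
    have e1 : B.d n ^ (-(9 * w0) - (3 * w0 * q 0 + w0 * q 1 + 2 * w0 * q 2)) =
        B.d n ^ (-w0) * B.d n ^ (-(2 * w0)) * B.d n ^ (-(3 * w0)) *
        (B.d n ^ (-w0) * B.d n ^ (-w0) * B.d n ^ (-w0)) *
        (B.d n ^ (-(3 * w0) * q 0) * B.d n ^ (-w0 * q 1) * B.d n ^ (-(2 * w0) * q 2)) := by
      rw [← Dp76.dpow_add, ← Dp76.dpow_add, ← Dp76.dpow_add, ← Dp76.dpow_add, ← Dp76.dpow_add,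
        ← Dp76.dpow_add, ← Dp76.dpow_add, ← Dp76.dpow_add]
      congr 1; ring
    have e2 : (B.d n ^ w0)⁻¹ = B.d n ^ (-w0) := (Real.rpow_neg hd.le _).symm
    have e3 : (2 : ℝ) ^ lev n 0 = (rho (lev n 0))⁻¹ := by unfold rho; simp
    rw [e1, e3]
    have e4 : (B.d n ^ w0 * (rho (lev n 0))⁻¹) ^ 3 = (B.d n ^ w0) ^ 3 / rho (lev n 0) ^ 3 := by
      field_simp
    rw [e4, ← e2]
    have hw0' := (Dp76.dpow_pos B n w0).ne'
    field_simp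
  rw [hVn, max_eq_left (by linarith)]
  have e5 : A n * (vm n 0 * B.d n ^ (-(9 * w0) - (3 * w0 * q 0 + w0 * q 1 + 2 * w0 * q 2))) *
      B.d n ^ (-(1 - s)) * B.d n ^ (-((g - (1 - s)) * (p 0 - w0) - Dp q p + ε)) =
      A n * vm n 0 * (B.d n ^ (-(9 * w0) - (3 * w0 * q 0 + w0 * q 1 + 2 * w0 * q 2)) *
      B.d n ^ (-(1 - s)) * B.d n ^ (-((g - (1 - s)) * (p 0 - w0) - Dp q p + ε))) := by ring
  rw [e5, ← Dp76.dpow_add, ← Dp76.dpow_add]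
  unfold N0Q
  congr 2
  unfold DQ Dp
  ring

end final

end Crest.Agent.R136.GeoQ186
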