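import Crest.Agent.R136.GD5_186

/-!
# R136: D-max for tubes in any affine frame (helper186)

* `gs_frame` : orthonormal frame adapted to three linear forms;
* `count_core` : lines of a family inside one sheet per cell;
* `dmax_tube` : D-max for tubes, uniformly in the frame and in the centre.
-/

set_option autoImplicit false
set_option linter.unusedVariables false

open Finset Filter Topology

namespace Crest.Agent.R136.GeoQ186

open Crest.Agent.R138.Ex926 (Base U)
open Crest.Agent.R138.Mk163 (zc zl rho alive)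
open Crest.Agent.R138.MkRef627 (lc kc)
open Crest.Agent.R138
open Crest.Agent.R136.MkA627
open Crest.Agent.R136.Net191
open Crest.Agent.R136.NetQ186
open Crest.Agent.R136.Sh605
open Crest.Agent.R136.Top484 (geo4)
open Crest.Agent.R136.PqG464 (pow_lev zc_near ev_const)
open Crest.Agent.R136.Wq638

/-! ### an orthonormal frame adapted to three linear forms -/

/-- cross product -/
def cr (a b : V3) : V3 := ![a 1 * b 2 - a 2 * b 1, a 2 * b 0 - a 0 * b 2, a 0 * b 1 - a 1 * b 0]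

/-- determinant of the three forms -/
def det3 (f : Fin 3 → V3) : ℝ := dt (cr (f 0) (f 2)) (f 1)

/-- norm -/
noncomputable def nr (a : V3) : ℝ := Real.sqrt (dt a a)

theorem dt_self_nonneg (a : V3) : 0 ≤ dt a a := by
  simp only [dt]
  nlinarith [sq_nonneg (a 0), sq_nonneg (a 1), sq_nonneg (a 2)]

theorem nr_sq (a : V3) : nr a ^ 2 = dt a a := Real.sq_sqrt (dt_self_nonneg a)

theorem nr_nonneg (a : V3) : 0 ≤ nr a := Real.sqrt_nonneg _

theorem nr_le {a : V3} {M : ℝ} (hM : 0 ≤ M) (h : ∀ i, |a i| ≤ M) : nr a ≤ 2 * M := by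
  refine Real.sqrt_le_iff.2 ⟨by positivity, ?_⟩
  have h' : ∀ i, a i * a i ≤ M * M := fun i => by
    rw [← abs_mul_abs_self (a i)]
    exact mul_le_mul (h i) (h i) (abs_nonneg _) hM
  have h0 := h' 0
  have h1 := h' 1
  have h2 := h' 2
  simp only [dt]
  nlinarith

theorem le_nr (a : V3) (i : Fin 3) : |a i| ≤ nr a := by
  refine Real.le_sqrt_of_sq_le ?_
  rw [sq_abs]
  simp only [dt]
  fin_cases i
  · change a 0 ^ 2 ≤ _
    nlinarith [sq_nonneg (a 1), sq_nonneg (a 2)]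
  · change a 1 ^ 2 ≤ _
    nlinarith [sq_nonneg (a 0), sq_nonneg (a 2)]
  · change a 2 ^ 2 ≤ _
    nlinarith [sq_nonneg (a 1), sq_nonneg (a 0)]

/-- Cauchy-Schwarz with a bound of the coordinates -/
theorem dt_le {a b : V3} {M : ℝ} (h : ∀ i, |b i| ≤ M) : |dt a b| ≤ 3 * (nr a * M) := by
  simp only [dt]
  have h0 := aux_m2 (le_nr a 0) (h 0)
  have h1 := aux_m2 (le_nr a 1) (h 1)
  have h2 := aux_m2 (le_nr a 2) (h 2)
  have := aux_a2 (aux_a2 h0 h1) h2
  linarith

theorem cr_le {a b : V3} {M : ℝ} (ha : ∀ i, |a i| ≤ M) (hb : ∀ i, |b i| ≤ M) (i : Fin 3) :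
    |cr a b i| ≤ 2 * M ^ 2 := by
  have key : ∀ j k l m : Fin 3, |a j * b k - a l * b m| ≤ 2 * M ^ 2 := by
    intro j k l m
    have := aux_s2 (aux_m2 (ha j) (hb k)) (aux_m2 (ha l) (hb m))
    linarith [sq M]
  fin_cases i
  · exact key 1 2 2 1
  · exact key 2 0 0 2
  · exact key 0 1 1 0

theorem cr_l (a b : V3) : dt (cr a b) a = 0 := by
  simp only [dt, cr, Matrix.cons_val]; ring

theorem cr_r (a b : V3) : dt (cr a b) b = 0 := by
  simp only [dt, cr, Matrix.cons_val]; ring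

theorem cr_sq (a b : V3) : dt (cr a b) (cr a b) = dt a a * dt b b - dt a b ^ 2 := by
  simp only [dt, cr, Matrix.cons_val]; ring

theorem cr_cr (a b u : V3) : dt (cr (cr a b) a) u = dt a a * dt b u - dt a b * dt a u := by
  simp only [dt, cr, Matrix.cons_val]; ring

theorem dt_comm (a b : V3) : dt a b = dt b a := by
  simp only [dt]; ring

theorem dt_smul_l (r : ℝ) (a b : V3) : dt (r • a) b = r * dt a b := by
  simp only [dt, Pi.smul_apply, smul_eq_mul]; ring

theorem dt_smul_r (r : ℝ) (a b : V3) : dt a (r • b) = r * dt a b := by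
  simp only [dt, Pi.smul_apply, smul_eq_mul]; ring

/-- Cramer -/
theorem cramer (a b c u N : V3) : dt (cr a b) c * dt N u =
    dt a u * dt N (cr b c) + dt b u * dt N (cr c a) + dt c u * dt N (cr a b) := by
  simp only [dt, cr, Matrix.cons_val]; ring

/-- **orthonormal frame adapted to three linear forms**, `0` first, then `2`, then `1` -/
theorem gs_frame {f : Fin 3 → V3} {M : ℝ} (hM : 1 ≤ M) (hf : ∀ k i, |f k i| ≤ M)
    (hdet : 1 ≤ M * |det3 f|) : ∃ e : Fin 3 → V3, Ortho e ∧ ∀ (u : V3) (s : Fin 3 → ℝ),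
      (∀ k, |dt (f k) u| ≤ s k) → |dt (e 0) u| ≤ 18 * M ^ 4 * s 0 ∧
        |dt (e 1) u| ≤ 18 * M ^ 4 * (s 0 + s 1 + s 2) ∧
        |dt (e 2) u| ≤ 18 * M ^ 4 * (s 0 + s 2) := by
  have hM0 : 0 < M := by linarith
  obtain ⟨a, ha⟩ : ∃ a, a = f 0 := ⟨_, rfl⟩
  obtain ⟨b, hb⟩ : ∃ b, b = f 2 := ⟨_, rfl⟩
  obtain ⟨c, hc⟩ : ∃ c, c = f 1 := ⟨_, rfl⟩
  have hD : det3 f = dt (cr a b) c := by rw [ha, hb, hc]; rfl
  rw [hD] at hdet
  have ma : ∀ i, |a i| ≤ M := by rw [ha]; exact hf 0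
  have mb : ∀ i, |b i| ≤ M := by rw [hb]; exact hf 2
  have mc : ∀ i, |c i| ≤ M := by rw [hc]; exact hf 1
  obtain ⟨N, hN⟩ : ∃ N, N = cr a b := ⟨_, rfl⟩
  rw [← hN] at hdet
  -- lower bounds of the norms
  have nN : 1 ≤ 3 * M ^ 2 * nr N := by
    have h1 := dt_le (a := N) mc
    calc (1 : ℝ) ≤ M * |dt N c| := hdet
      _ ≤ M * (3 * (nr N * M)) := mul_le_mul_of_nonneg_left h1 hM0.le
      _ = _ := by ring
  have na : 1 ≤ 6 * M ^ 3 * nr a := by
    have h0 : dt N c = dt a (cr b c) := by rw [hN]; simp only [dt, cr, Matrix.cons_val]; ring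
    have h1 := dt_le (a := a) (cr_le mb mc)
    rw [← h0] at h1
    calc (1 : ℝ) ≤ M * |dt N c| := hdet
      _ ≤ M * (3 * (nr a * (2 * M ^ 2))) := mul_le_mul_of_nonneg_left h1 hM0.le
      _ = _ := by ring
  have pN : 0 < nr N := by
    rcases (nr_nonneg N).lt_or_eq with h | h
    · exact h
    · rw [← h] at nN; norm_num at nN
  have pa : 0 < nr a := by
    rcases (nr_nonneg a).lt_or_eq with h | h
    · exact h
    · rw [← h] at na; norm_num at na
  have qa : dt a a = nr a ^ 2 := (nr_sq a).symm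
  have qN : dt N N = nr N ^ 2 := (nr_sq N).symm
  have Na : dt N a = 0 := by rw [hN]; exact cr_l a b
  have Nb : dt N b = 0 := by rw [hN]; exact cr_r a b
  have ub : nr b ≤ 2 * M := nr_le hM0.le mb
  have ua : nr a ≤ 2 * M := nr_le hM0.le ma
  have uN : nr N ≤ 4 * M ^ 2 := by
    have := nr_le (a := N) (M := 2 * M ^ 2) (by positivity) (by rw [hN]; exact cr_le ma mb)
    linarith
  refine ⟨![(nr a)⁻¹ • a, (nr N)⁻¹ • N, (nr N * nr a)⁻¹ • cr N a], ?_, ?_⟩
  · have k00 : (nr a)⁻¹ * ((nr a)⁻¹ * dt a a) = 1 := by rw [qa]; field_simp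
    have k11 : (nr N)⁻¹ * ((nr N)⁻¹ * dt N N) = 1 := by rw [qN]; field_simp
    have k22 : (nr N * nr a)⁻¹ * ((nr N * nr a)⁻¹ * dt (cr N a) (cr N a)) = 1 := by
      rw [cr_sq, Na, qa, qN]; field_simp; ring
    have aN : dt a N = 0 := by rw [dt_comm]; exact Na
    have x1 : dt (cr N a) a = 0 := cr_r N a
    have x2 : dt (cr N a) N = 0 := cr_l N a
    have y1 : dt a (cr N a) = 0 := by rw [dt_comm]; exact x1
    have y2 : dt N (cr N a) = 0 := by rw [dt_comm]; exact x2
    intro i j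
    fin_cases i <;> fin_cases j <;>
      simp only [Fin.zero_eta, Fin.mk_one, Fin.reduceFinMk, Matrix.cons_val,
        Fin.isValue, if_true, Fin.reduceEq, if_false, dt_smul_l, dt_smul_r, Na, aN, x1, x2, y1,
        y2, mul_zero, k00, k11, k22]
  · intro u s hs
    have h0 : |dt a u| ≤ s 0 := by rw [ha]; exact hs 0
    have h1 : |dt c u| ≤ s 1 := by rw [hc]; exact hs 1
    have h2 : |dt b u| ≤ s 2 := by rw [hb]; exact hs 2
    have p0 := (abs_nonneg _).trans h0
    have p1 := (abs_nonneg _).trans h1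
    have p2 := (abs_nonneg _).trans h2
    have ia : (nr a)⁻¹ ≤ 6 * M ^ 3 := by
      rw [inv_le_iff_one_le_mul₀ pa]; exact na
    have iN : (nr N)⁻¹ ≤ 3 * M ^ 2 := by
      rw [inv_le_iff_one_le_mul₀ pN]; exact nN
    have M3 : M ^ 3 ≤ M ^ 4 := pow_le_pow_right₀ hM (by norm_num)
    have M40 : 0 ≤ M ^ 4 := by positivity
    simp only [Matrix.cons_val]
    refine ⟨?_, ?_, ?_⟩
    · rw [dt_smul_l, abs_mul, abs_of_pos (inv_pos.2 pa)]
      calc (nr a)⁻¹ * |dt a u| ≤ (6 * M ^ 3) * s 0 :=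
            mul_le_mul ia h0 (abs_nonneg _) (by positivity)
        _ ≤ 18 * M ^ 4 * s 0 := mul_le_mul_of_nonneg_right (by linarith) p0
    · rw [dt_smul_l, abs_mul, abs_of_pos (inv_pos.2 pN)]
      have hcr := cramer a b c u N
      rw [← hN] at hcr
      have b1 := dt_le (a := N) (cr_le mb mc)
      have b2 := dt_le (a := N) (cr_le mc ma)
      have e1 : |dt N c * dt N u| ≤ s 0 * (3 * (nr N * (2 * M ^ 2))) +
          s 2 * (3 * (nr N * (2 * M ^ 2))) + s 1 * nr N ^ 2 := by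
        rw [hcr, qN]
        exact aux_a2 (aux_a2 (aux_m2 h0 b1) (aux_m2 h2 b2)) (aux_m2 h1 (by
          rw [abs_of_nonneg (sq_nonneg _)]))
      rw [abs_mul] at e1
      -- divide by the determinant
      have e2 : |dt N u| ≤ M * (|dt N c| * |dt N u|) := by
        have := mul_le_mul_of_nonneg_right hdet (abs_nonneg (dt N u))
        linarith
      have e3 : (nr N)⁻¹ * |dt N u| ≤ (nr N)⁻¹ * (M * (s 0 * (3 * (nr N * (2 * M ^ 2))) +
          s 2 * (3 * (nr N * (2 * M ^ 2))) + s 1 * nr N ^ 2)) :=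
        mul_le_mul_of_nonneg_left (e2.trans (mul_le_mul_of_nonneg_left e1 hM0.le))
          (inv_pos.2 pN).le
      refine e3.trans ?_
      have e4 : (nr N)⁻¹ * (M * (s 0 * (3 * (nr N * (2 * M ^ 2))) +
          s 2 * (3 * (nr N * (2 * M ^ 2))) + s 1 * nr N ^ 2)) =
          6 * M ^ 3 * s 0 + 6 * M ^ 3 * s 2 + M * nr N * s 1 := by
        field_simp
        ring
      rw [e4]
      have e5 : M * nr N ≤ 4 * M ^ 3 := by
        calc M * nr N ≤ M * (4 * M ^ 2) := mul_le_mul_of_nonneg_left uN hM0.le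
          _ = _ := by ring
      have e6 : M * nr N * s 1 ≤ 4 * M ^ 3 * s 1 := mul_le_mul_of_nonneg_right e5 p1
      have e7 : 6 * M ^ 3 ≤ 18 * M ^ 4 := by linarith
      have e8 := mul_le_mul_of_nonneg_right e7 p0
      have e9 := mul_le_mul_of_nonneg_right e7 p2
      have e10 : 4 * M ^ 3 ≤ 18 * M ^ 4 := by linarith
      have e11 := mul_le_mul_of_nonneg_right e10 p1
      linarith
    · rw [dt_smul_l, abs_mul, abs_of_pos (inv_pos.2 (mul_pos pN pa))]
      have hcc : dt (cr N a) u = dt a a * dt b u - dt a b * dt a u := by rw [hN]; exact cr_cr a b u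
      have ab : |dt a b| ≤ 3 * (nr a * M) := dt_le mb
      have e1 : |dt (cr N a) u| ≤ nr a ^ 2 * s 2 + 3 * (nr a * M) * s 0 := by
        rw [hcc, qa]
        exact aux_s2 (aux_m2 (by rw [abs_of_nonneg (sq_nonneg _)]) h2) (aux_m2 ab h0)
      refine (mul_le_mul_of_nonneg_left e1 (inv_pos.2 (mul_pos pN pa)).le).trans ?_
      have e2 : (nr N * nr a)⁻¹ * (nr a ^ 2 * s 2 + 3 * (nr a * M) * s 0) =
          (nr N)⁻¹ * (nr a * s 2 + 3 * M * s 0) := by
        field_simp
      rw [e2]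
      have e3 : nr a * s 2 + 3 * M * s 0 ≤ 3 * M * (s 0 + s 2) := by
        have h5 := mul_le_mul_of_nonneg_right ua p2
        have h6 := mul_nonneg hM0.le p2
        have h7 : 3 * M * (s 0 + s 2) = 3 * M * s 0 + 2 * M * s 2 + M * s 2 := by ring
        rw [h7]
        linarith
      calc (nr N)⁻¹ * (nr a * s 2 + 3 * M * s 0) ≤ (3 * M ^ 2) * (3 * M * (s 0 + s 2)) :=
            mul_le_mul iN e3 (by positivity) (by positivity)
        _ = 9 * M ^ 3 * (s 0 + s 2) := by ring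
        _ ≤ 18 * M ^ 4 * (s 0 + s 2) :=
            mul_le_mul_of_nonneg_right (by linarith) (by linarith)

end Crest.Agent.R136.GeoQ186
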