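import Crest.Agent.R136.GD6_186

/-!
# R136: D-max for tubes in any affine frame, II (helper186)

* `count_core` : lines of a family inside one sheet per cell;
* `dmax_tube` : D-max for tubes, uniformly in the frame and in the centre.
-/

set_option autoImplicit false
set_option linter.unusedVariables false

open Finset Filter Topology

namespace Crest.Agent.R136.GeoQ186

open Crest.Agent.R138.Ex926 (Base U)
open Crest.Agent.R138.Mk163 (zc zl rho alive)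
open Crest.Agent.R138.MkRef627 (lc kc)
open Crest.Agent.R138
open Crest.Agent.R136.MkA627
open Crest.Agent.R136.Net191
open Crest.Agent.R136.NetQ186
open Crest.Agent.R136.Sh605
open Crest.Agent.R136.Top484 (geo4)
open Crest.Agent.R136.PqG464 (pow_lev zc_near ev_const)
open Crest.Agent.R136.Wq638

section core

variable {σ κ : Type*} {B : Base} {I : ℕ → Finset (ℕ × ℝ)} {G : Geo σ κ} {lev : ℕ → ℚ → ℕ}
    {A : ℕ → ℝ} {g s : ℝ} {τ : κ → ℝ → ℝ} {f : ℕ → ℚ → ℕ → ℤ → ℕ} {b : ℕ → ℚ → ℕ → σ}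
    {vm : ℕ → ℚ → ℝ} {w : κ → ℕ → ℚ → ℝ} {L : ℕ → ℕ → Ln4} {r0 : ℕ → ℝ} {wr cr : Fin 3 → ℕ → ℝ}
    {q : Fin 3 → ℝ} {CG : ℝ}

open Classical in
/-- **count of a set of incidences lying in one sheet per cell of level `u`** -/
theorem count_core (hM : MkA B I G lev A (fun v => g * v) (fun v => s * v) τ f b vm w) {u : ℚ}
    (hu0 : 0 ≤ u) (hu1 : u ≤ 1) {ε : ℝ} (hε : 0 < ε) :
    ∀ᶠ n in (U : Filter ℕ), ∀ (Q : Finset (ℕ × ℝ)) (J0 : ℤ) (V : ℝ), Q ⊆ I n → 0 ≤ V →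
      (∀ y ∈ Q, zc (lev n u) y.2 ∈ Finset.Icc (J0 - 1) (J0 + 1)) →
      (∀ J : ℤ, ∃ t : σ, G.adm n (lev n u) J t ∧ G.val n (lev n u) J t ≤ V ∧
        ∀ y ∈ Q, zc (lev n u) y.2 = J → G.mem n (lev n u) J t y.1) →
      (Q.card : ℝ) ≤ A n * V * B.d n ^ (-(g * u + (1 - s) * (1 - u) + ε)) := by
  have hε8 : 0 < ε / 4 := by linarith
  filter_upwards [hM.dmax u hu0 hu1 (ε / 4) hε8, fib_bounds hM u hu0 hu1 hε8,
    ev_const B (by norm_num : (0 : ℝ) < 3) hε8] with n hdm hfib h3 Q J0 V hQ hV hc hb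
  have hdp := fun a => Dp76.dpow_pos B n a
  set T : ℝ := (B.d n ^ (-(ε / 4)) * ampA B A (fun v => g * v) n u *
    V) * B.d n ^ (-(1 - (u : ℝ)) + (s * 1 - s * u) - ε / 4) with hT
  have hamp : 0 ≤ ampA B A (fun v => g * v) n u := by
    unfold ampA
    exact mul_nonneg (hM.Apos n).le (hdp _).le
  have hone : ∀ J : ℤ, ((Q.filter fun y => zc (lev n u) y.2 = J).card : ℝ) ≤ T := by
    intro J
    obtain ⟨t, ht1, ht2, ht3⟩ := hb J
    have h1 := hdm J t ht1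
    have h2 : ((Q.filter fun y => zc (lev n u) y.2 = J).card : ℝ) ≤
        (((alive (I n) (lev n u) J).filter fun l => G.mem n (lev n u) J t l).card : ℝ) *
          B.d n ^ (-(1 - (u : ℝ)) + (s * 1 - s * u) - ε / 4) := by
      have hmaps : ∀ y ∈ Q.filter fun y => zc (lev n u) y.2 = J, y.1 ∈
          (alive (I n) (lev n u) J).filter fun l => G.mem n (lev n u) J t l := by
        intro y hy
        rw [mem_filter] at hy
        rw [mem_filter]
        exact ⟨MkRef627.mem_alive.2 ⟨y, hQ hy.1, rfl, hy.2⟩, ht3 y hy.1 hy.2⟩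
      have h4 := Finset.card_eq_sum_card_fiberwise hmaps
      rw [h4]
      push_cast
      rw [← nsmul_eq_mul, ← Finset.sum_const]
      refine Finset.sum_le_sum fun l hl => ?_
      by_cases hne : ((Q.filter fun y => zc (lev n u) y.2 = J).filter fun y => y.1 = l).Nonempty
      · obtain ⟨y0, hy0⟩ := hne
        rw [mem_filter, mem_filter] at hy0
        refine le_trans ?_ (hfib y0 (hQ hy0.1.1)).2
        norm_cast
        refine Finset.card_le_card fun y hy => ?_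
        rw [mem_filter, mem_filter] at hy
        rw [mem_filter]
        refine ⟨hQ hy.1.1, ?_⟩
        unfold lc
        rw [hy.2, hy0.2, hy.1.2, hy0.1.2]
      · rw [Finset.not_nonempty_iff_eq_empty] at hne
        rw [hne, Finset.card_empty, Nat.cast_zero]
        exact (hdp _).le
    refine h2.trans ?_
    rw [hT]
    refine mul_le_mul_of_nonneg_right (h1.trans ?_) (hdp _).le
    exact mul_le_mul_of_nonneg_left ht2 (mul_nonneg (hdp _).le hamp)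
  have hsum : (Q.card : ℝ) ≤ 3 * T := by
    have h5 : Q.card = ∑ J ∈ Finset.Icc (J0 - 1) (J0 + 1),
        (Q.filter fun y => zc (lev n u) y.2 = J).card :=
      Finset.card_eq_sum_card_fiberwise fun y hy => hc y hy
    rw [h5]
    push_cast
    refine (Finset.sum_le_sum fun J _ => hone J).trans ?_
    rw [Finset.sum_const, Int.card_Icc, nsmul_eq_mul]
    have : ((J0 + 1 + 1 - (J0 - 1)).toNat : ℝ) = 3 := by
      have : J0 + 1 + 1 - (J0 - 1) = 3 := by ring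
      rw [this]
      change ((3 : ℕ) : ℝ) = 3
      norm_num
    rw [this]
  refine hsum.trans ?_
  have e1 : 3 * T = (3 * B.d n ^ (ε / 4)) * (A n * V *
      (B.d n ^ (-(ε / 4)) * (B.d n ^ (-(ε / 4)) * B.d n ^ (-(g * (u : ℝ))) *
        B.d n ^ (-(1 - (u : ℝ)) + (s * 1 - s * u) - ε / 4)))) := by
    have : B.d n ^ (ε / 4) * B.d n ^ (-(ε / 4)) = 1 := by
      rw [← Dp76.dpow_add, add_neg_cancel, Real.rpow_zero]
    rw [hT]
    unfold ampA
    calc _ = 3 * (A n * V * (B.d n ^ (-(ε / 4)) * B.d n ^ (-(g * (u : ℝ))) *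
        B.d n ^ (-(1 - (u : ℝ)) + (s * 1 - s * u) - ε / 4))) * 1 := by ring
      _ = _ := by rw [← this]; ring
  rw [e1]
  have hAV : 0 ≤ A n * V := mul_nonneg (hM.Apos n).le hV
  have h7 : B.d n ^ (-(ε / 4)) * (B.d n ^ (-(ε / 4)) * B.d n ^ (-(g * (u : ℝ))) *
        B.d n ^ (-(1 - (u : ℝ)) + (s * 1 - s * u) - ε / 4)) ≤
      B.d n ^ (-(g * u + (1 - s) * (1 - u) + ε)) := by
    rw [← Dp76.dpow_add, ← Dp76.dpow_add, ← Dp76.dpow_add]
    refine Dp76.dpow_le B n ?_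
    linarith
  calc (3 * B.d n ^ (ε / 4)) * (A n * V * (B.d n ^ (-(ε / 4)) * (B.d n ^ (-(ε / 4)) *
        B.d n ^ (-(g * (u : ℝ))) * B.d n ^ (-(1 - (u : ℝ)) + (s * 1 - s * u) - ε / 4)))) ≤
        1 * (A n * V * B.d n ^ (-(g * u + (1 - s) * (1 - u) + ε))) := by
        refine mul_le_mul h3 (mul_le_mul_of_nonneg_left h7 hAV) ?_ zero_le_one
        have := hdp (-(ε / 4))
        have := hdp (-(g * (u : ℝ)))
        have := hdp (-(1 - (u : ℝ)) + (s * 1 - s * u) - ε / 4)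
        positivity
    _ = _ := one_mul _

end core

/-! ### the sheet around a tube -/

section tube

variable {d t T X0 X1 X2 M r ρ0 ρi v u δc : ℝ} {q : Fin 3 → ℝ}

/-- numeric part: the three half-widths of the sheet over the cell, and its size.
`X k` = sizes of the tube; `v` = level of the tube, `u` = level of the cell. -/
theorem tube_num (hd : 0 < d) (hd1 : d < 1) (ht : 0 < t) (hX0 : 0 < X0) (hX1 : 0 < X1)
    (hX2 : 0 < X2) (h02 : X0 ≤ d ^ (-t) * X2) (h21 : X2 ≤ d ^ (-t) * X1)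
    (hc : 54 ≤ d ^ (-t)) {Y : ℝ} (hY : Y ≤ 3 * d ^ (-(3 * t))) (hY0 : 0 ≤ Y) :
    18 * (d ^ (-t)) ^ 4 * (Y * X0) ≤ d ^ (-(10 * t)) * X0 ∧
    18 * (d ^ (-t)) ^ 4 * (Y * X0 + Y * X1 + Y * X2) ≤ d ^ (-(14 * t)) * X1 ∧
    18 * (d ^ (-t)) ^ 4 * (Y * X0 + Y * X2) ≤ d ^ (-(12 * t)) * X2 ∧
    d ^ (-(10 * t)) * X0 ≤ d ^ (-(12 * t)) * X2 ∧
    d ^ (-(12 * t)) * X2 ≤ d ^ (-(14 * t)) * X1 := by
  obtain ⟨y, hy⟩ : ∃ y, y = d ^ (-t) := ⟨_, rfl⟩
  have hpow : ∀ k : ℕ, d ^ (-(k * t)) = y ^ k := by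
    intro k
    rw [hy, ← Real.rpow_natCast, ← Real.rpow_mul hd.le]
    congr 1; ring
  have e3 : d ^ (-(3 * t)) = y ^ 3 := by exact_mod_cast hpow 3
  have e10 : d ^ (-(10 * t)) = y ^ 10 := by exact_mod_cast hpow 10
  have e12 : d ^ (-(12 * t)) = y ^ 12 := by exact_mod_cast hpow 12
  have e14 : d ^ (-(14 * t)) = y ^ 14 := by exact_mod_cast hpow 14
  rw [e3] at hY
  rw [e10, e12, e14, ← hy]
  rw [← hy] at hc h02 h21
  have y0 : 0 < y := by linarith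
  have y1 : 1 ≤ y := by linarith
  have mono : ∀ {a b : ℕ}, a ≤ b → y ^ a ≤ y ^ b := fun h => pow_le_pow_right₀ y1 h
  have k0 : 18 * y ^ 4 * Y ≤ y ^ 8 := by
    calc 18 * y ^ 4 * Y ≤ 18 * y ^ 4 * (3 * y ^ 3) := mul_le_mul_of_nonneg_left hY (by positivity)
      _ = 54 * y ^ 7 := by ring
      _ ≤ y * y ^ 7 := mul_le_mul_of_nonneg_right hc (by positivity)
      _ = y ^ 8 := by ring
  have j0 := mul_le_mul_of_nonneg_right k0 hX0.le
  have j1 := mul_le_mul_of_nonneg_right k0 hX1.le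
  have j2 := mul_le_mul_of_nonneg_right k0 hX2.le
  have l0 : y ^ 8 * X0 ≤ y ^ 9 * X2 := by
    have := mul_le_mul_of_nonneg_left h02 (show (0 : ℝ) ≤ y ^ 8 by positivity)
    calc _ ≤ _ := this
      _ = _ := by ring
  have l2 : y ^ 9 * X2 ≤ y ^ 10 * X1 := by
    have := mul_le_mul_of_nonneg_left h21 (show (0 : ℝ) ≤ y ^ 9 by positivity)
    calc _ ≤ _ := this
      _ = _ := by ring
  have l2' : y ^ 8 * X2 ≤ y ^ 9 * X2 := mul_le_mul_of_nonneg_right (mono (by norm_num)) hX2.le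
  have l1' : y ^ 8 * X1 ≤ y ^ 10 * X1 := mul_le_mul_of_nonneg_right (mono (by norm_num)) hX1.le
  have two : ∀ (k : ℕ) {X : ℝ}, 0 < X → 3 * (y ^ k * X) ≤ y ^ (k + 1) * X := by
    intro k X hX
    have h5 : 3 * y ^ k ≤ y ^ (k + 1) := by
      rw [pow_succ]
      nlinarith [pow_pos y0 k]
    have := mul_le_mul_of_nonneg_right h5 hX.le
    linarith
  have t2 : 3 * (y ^ 9 * X2) ≤ y ^ 10 * X2 := two 9 hX2
  have t1 : 3 * (y ^ 10 * X1) ≤ y ^ 11 * X1 := two 10 hX1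
  refine ⟨?_, ?_, ?_, ?_, ?_⟩
  · have := mul_le_mul_of_nonneg_right (mono (show 8 ≤ 10 by norm_num)) hX0.le
    calc 18 * y ^ 4 * (Y * X0) = 18 * y ^ 4 * Y * X0 := by ring
      _ ≤ _ := j0.trans this
  · have := mul_le_mul_of_nonneg_right (mono (show 11 ≤ 14 by norm_num)) hX1.le
    calc 18 * y ^ 4 * (Y * X0 + Y * X1 + Y * X2) =
        18 * y ^ 4 * Y * X0 + 18 * y ^ 4 * Y * X1 + 18 * y ^ 4 * Y * X2 := by ring
      _ ≤ y ^ 11 * X1 := by linarith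
      _ ≤ _ := this
  · have := mul_le_mul_of_nonneg_right (mono (show 10 ≤ 12 by norm_num)) hX2.le
    calc 18 * y ^ 4 * (Y * X0 + Y * X2) =
        18 * y ^ 4 * Y * X0 + 18 * y ^ 4 * Y * X2 := by ring
      _ ≤ y ^ 10 * X2 := by linarith [mul_pos (pow_pos y0 9) hX2]
      _ ≤ _ := this
  · have h5 := mul_le_mul_of_nonneg_left h02 (show (0 : ℝ) ≤ y ^ 10 by positivity)
    have h6 := mul_le_mul_of_nonneg_right (mono (show 11 ≤ 12 by norm_num)) hX2.le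
    calc _ ≤ _ := h5
      _ = y ^ 11 * X2 := by ring
      _ ≤ _ := h6
  · have h5 := mul_le_mul_of_nonneg_left h21 (show (0 : ℝ) ≤ y ^ 12 by positivity)
    have h6 := mul_le_mul_of_nonneg_right (mono (show 13 ≤ 14 by norm_num)) hX1.le
    calc _ ≤ _ := h5
      _ = y ^ 13 * X1 := by ring
      _ ≤ _ := h6

/-- size of the sheet -/
theorem tube_val (hd : 0 < d) (hd1 : d < 1) (ht : 0 < t) (hX0 : 0 < X0) (hX1 : 0 < X1)
    (hX2 : 0 < X2) (hq : ∀ j, 0 ≤ q j) {ρv : ℝ} (hρv : 0 < ρv) (hρi : 0 < ρi)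
    (hρ : ρv * d ^ t ≤ ρi) {CG : ℝ} (hC0 : 0 ≤ CG) (hC : CG ≤ d ^ (-t)) :
    CG * ((d ^ (-(10 * t)) * X0) * (d ^ (-(12 * t)) * X2) * (d ^ (-(14 * t)) * X1) *
      (((d ^ (-(10 * t)) * X0) / ρi) ^ q 0 * ((d ^ (-(14 * t)) * X1) / ρi) ^ q 1 *
        ((d ^ (-(12 * t)) * X2) / ρi) ^ q 2)) ≤
    X0 * X2 * X1 * ((X0 / ρv) ^ q 0 * (X1 / ρv) ^ q 1 * (X2 / ρv) ^ q 2) *
      d ^ (-((37 + 15 * (q 0 + q 1 + q 2)) * t)) := by
  have key : ∀ (k : Fin 3) (a X : ℝ), 0 < X → a ≤ 14 * t →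
      ((d ^ (-a) * X) / ρi) ^ q k ≤ (X / ρv) ^ q k * d ^ (-(15 * t) * q k) := by
    intro k a X hX ha
    have h1 : (d ^ (-a) * X) / ρi ≤ (X / ρv) * d ^ (-(15 * t)) := by
      rw [div_le_iff₀ hρi]
      have h2 : (X / ρv) * d ^ (-(15 * t)) * (ρv * d ^ t) ≤ (X / ρv) * d ^ (-(15 * t)) * ρi :=
        mul_le_mul_of_nonneg_left hρ (mul_pos (div_pos hX hρv) (dpos hd _)).le
      refine le_trans ?_ h2
      have e1 : (X / ρv) * d ^ (-(15 * t)) * (ρv * d ^ t) = (d ^ (-(15 * t)) * d ^ t) * X := by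
        field_simp
      rw [e1, ← Real.rpow_add hd]
      exact mul_le_mul_of_nonneg_right (dle hd hd1 (by linarith)) hX.le
    refine (Real.rpow_le_rpow (div_pos (mul_pos (dpos hd _) hX) hρi).le h1 (hq k)).trans
      (le_of_eq ?_)
    rw [Real.mul_rpow (div_pos hX hρv).le (dpos hd _).le, ← Real.rpow_mul hd.le]
  have b0 := key 0 (10 * t) X0 hX0 (by linarith)
  have b1 := key 1 (14 * t) X1 hX1 (by linarith)
  have b2 := key 2 (12 * t) X2 hX2 (by linarith)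
  have p0 := dpos hd (-(10 * t))
  have p1 := dpos hd (-(14 * t))
  have p2 := dpos hd (-(12 * t))
  have n0 : 0 ≤ ((d ^ (-(10 * t)) * X0) / ρi) ^ q 0 := Real.rpow_nonneg (by positivity) _
  have n1 : 0 ≤ ((d ^ (-(14 * t)) * X1) / ρi) ^ q 1 := Real.rpow_nonneg (by positivity) _
  have n2 : 0 ≤ ((d ^ (-(12 * t)) * X2) / ρi) ^ q 2 := Real.rpow_nonneg (by positivity) _
  have hprod := mul_le_mul (mul_le_mul b0 b1 n1 (n0.trans b0)) b2 n2
    (mul_nonneg (n0.trans b0) (n1.trans b1))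
  have hX : 0 ≤ (d ^ (-(10 * t)) * X0) * (d ^ (-(12 * t)) * X2) * (d ^ (-(14 * t)) * X1) := by
    positivity
  refine (mul_le_mul hC (mul_le_mul_of_nonneg_left hprod hX)
    (mul_nonneg hX (mul_nonneg (mul_nonneg n0 n1) n2)) (dpos hd _).le).trans (le_of_eq ?_)
  have e1 : d ^ (-((37 + 15 * (q 0 + q 1 + q 2)) * t)) =
      d ^ (-t) * d ^ (-(10 * t)) * d ^ (-(12 * t)) * d ^ (-(14 * t)) * d ^ (-(15 * t) * q 0) *
        d ^ (-(15 * t) * q 1) * d ^ (-(15 * t) * q 2) := by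
    rw [← Real.rpow_add hd, ← Real.rpow_add hd, ← Real.rpow_add hd, ← Real.rpow_add hd,
      ← Real.rpow_add hd, ← Real.rpow_add hd]
    congr 1
    ring
  rw [e1]
  ring

end tube

/-! ### D-max for tubes -/

section dmax

variable {σ κ : Type*} {B : Base} {I : ℕ → Finset (ℕ × ℝ)} {G : Geo σ κ} {lev : ℕ → ℚ → ℕ}
    {A : ℕ → ℝ} {g s : ℝ} {τ : κ → ℝ → ℝ} {f : ℕ → ℚ → ℕ → ℤ → ℕ} {b : ℕ → ℚ → ℕ → σ}
    {vm : ℕ → ℚ → ℝ} {w : κ → ℕ → ℚ → ℝ} {L : ℕ → ℕ → Ln4} {r0 : ℕ → ℝ} {wr cr : Fin 3 → ℕ → ℝ}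
    {q : Fin 3 → ℝ} {CG : ℝ}

/-- the incidence `y` lies in the tube with centre `c`, height `z`, forms `F`, length `R`, sizes
`X` (`0` thickness, `1` wide, `2` narrow), constant `K` -/
def InTube (L : ℕ → ℕ → Ln4) (n : ℕ) (c : Ln4) (z : ℝ) (F : Fin 3 → V3) (R : ℝ)
    (X : Fin 3 → ℝ) (K : ℝ) (y : ℕ × ℝ) : Prop :=
  |y.2 - z| ≤ K * R ∧ ∀ k, |dt (F k) ((L n y.1).pos z - c.pos z)| ≤ K * X k ∧
    |dt (F k) ((L n y.1).v - c.v)| * R ≤ K * X k

/-- sizes of a tube of level `v`, up to `d^-ε`: ordered, above the resolution, wide width a power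
below the length; the sizes are far inside the range `wr`, `cr` -/
structure TubeOk (B : Base) (r0 : ℕ → ℝ) (wr cr : Fin 3 → ℕ → ℝ) (lev : ℕ → ℚ → ℕ) (v : ℝ)
    (X : Fin 3 → ℕ → ℝ) : Prop where
  pos : ∀ k, ∀ᶠ n in (U : Filter ℕ), 0 < X k n
  o02 : ∀ ε : ℝ, 0 < ε → ∀ᶠ n in (U : Filter ℕ), X 0 n ≤ B.d n ^ (-ε) * X 2 n
  o21 : ∀ ε : ℝ, 0 < ε → ∀ᶠ n in (U : Filter ℕ), X 2 n ≤ B.d n ^ (-ε) * X 1 n
  res : ∀ ε : ℝ, 0 < ε → ∀ᶠ n in (U : Filter ℕ), r0 n ≤ B.d n ^ (-ε) * X 0 n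
  cap : ∃ δ : ℝ, 0 < δ ∧ ∀ᶠ n in (U : Filter ℕ), X 1 n ≤ B.d n ^ (v + δ) * rho (lev n 0)
  rn : ∀ (k : Fin 3) (C : ℝ), ∀ᶠ n in (U : Filter ℕ),
    wr k n ≤ B.d n ^ C * X k n ∧ X k n ≤ B.d n ^ C * cr k n

theorem one_le_dpow {B : Base} {n : ℕ} {x : ℝ} (h : -x ≤ 0) : 1 ≤ B.d n ^ (-x) := by
  have := Dp76.dpow_le B n h
  rwa [Real.rpow_zero] at this

theorem lo_dpow {B : Base} {n : ℕ} {x a X : ℝ} (h : a ≤ B.d n ^ (0 : ℝ) * X) (hX : 0 ≤ X)
    (hx : 0 ≤ x) : a ≤ B.d n ^ (-x) * X := by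
  rw [Real.rpow_zero, one_mul] at h
  exact h.trans (le_mul_of_one_le_left hX (one_le_dpow (by linarith)))

theorem hi_dpow {B : Base} {n : ℕ} {x X c : ℝ} (h : X ≤ B.d n ^ x * c) :
    B.d n ^ (-x) * X ≤ c := by
  have h2 := mul_le_mul_of_nonneg_left h (Dp76.dpow_pos B n (-x)).le
  rwa [← mul_assoc, ← Dp76.dpow_add, neg_add_cancel, Real.rpow_zero, one_mul] at h2

/-- penalised size of a tube -/
noncomputable def tval (q : Fin 3 → ℝ) (ρ : ℝ) (X : Fin 3 → ℝ) : ℝ :=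
  X 0 * X 2 * X 1 * ((X 0 / ρ) ^ q 0 * (X 1 / ρ) ^ q 1 * (X 2 / ρ) ^ q 2)

theorem dt_line (e : V3) (t c : Ln4) (z z' : ℝ) :
    dt e (t.pos z' - c.pos z') = dt e (t.pos z - c.pos z) + (z' - z) * dt e (t.v - c.v) := by
  simp only [dt, Pi.sub_apply, Ln4.pos]
  ring

theorem rho_lo {B : Base} {n i0 i : ℕ} {u t : ℝ}
    (h : (2 : ℝ) ^ i ≤ (2 : ℝ) ^ i0 * B.d n ^ (-(u + t))) :
    B.d n ^ (u + t) * rho i0 ≤ rho i := by
  have h1 := H_lo (w0 := 0) h
  rw [Real.rpow_zero, one_mul, zero_add] at h1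
  have hp : (0 : ℝ) < rho i0 := rho_pos _
  have h2 := mul_le_mul_of_nonneg_right h1 hp.le
  have h3 : (2 : ℝ) ^ i0 * rho i * rho i0 = rho i := by
    unfold rho; field_simp
  linarith

theorem rho_hi {B : Base} {n i0 i : ℕ} {u t : ℝ}
    (h : (2 : ℝ) ^ i0 * B.d n ^ (-(u - t)) ≤ (2 : ℝ) ^ i) :
    rho i ≤ B.d n ^ (u - t) * rho i0 := by
  have h1 := H_hi (w0 := 0) h
  rw [Real.rpow_zero, one_mul, zero_add] at h1
  have hp : (0 : ℝ) < rho i0 := rho_pos _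
  have h2 := mul_le_mul_of_nonneg_right h1 hp.le
  have h3 : (2 : ℝ) ^ i0 * rho i * rho i0 = rho i := by
    unfold rho; field_simp
  linarith

/-- **D-max for tubes, uniformly in the frame and in the centre.** -/
theorem dmax_tube (hM : MkA B I G lev A (fun v => g * v) (fun v => s * v) τ f b vm w)
    (hG : FlatGeo G L r0 wr cr q CG) (hq : ∀ j, 0 ≤ q j) {v : ℝ} (hv0 : 0 ≤ v) (hv1 : v ≤ 1)
    {X : Fin 3 → ℕ → ℝ} (hX : TubeOk B r0 wr cr lev v X) {ε : ℝ} (hε : 0 < ε) :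
    ∃ δ : ℝ, 0 < δ ∧ ∀ᶠ n in (U : Filter ℕ), ∀ (c : Ln4) (z : ℝ) (F : Fin 3 → V3)
      (Q : Finset (ℕ × ℝ)), Q ⊆ I n → (∀ k i, |F k i| ≤ B.d n ^ (-δ)) →
      1 ≤ B.d n ^ (-δ) * |det3 F| →
      (∀ y ∈ Q, InTube L n c z F (B.d n ^ v * rho (lev n 0)) (fun k => X k n) (B.d n ^ (-δ)) y) →
      (Q.card : ℝ) ≤ A n * tval q (B.d n ^ v * rho (lev n 0)) (fun k => X k n) *
        B.d n ^ (-(g * v + (1 - s) * (1 - v) + ε)) := by
  obtain ⟨δc, hδc, hcap⟩ := hX.cap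
  obtain ⟨Cq, hCq⟩ : ∃ Cq : ℝ, Cq = q 0 + q 1 + q 2 := ⟨_, rfl⟩
  have hCq0 : 0 ≤ Cq := by have := hq 0; have := hq 1; have := hq 2; rw [hCq]; linarith
  obtain ⟨t, ht⟩ : ∃ t : ℝ, t = min ε δc / (40 + 15 * Cq + |g - (1 - s)|) := ⟨_, rfl⟩
  have hmin : 0 < min ε δc := lt_min hε hδc
  have hden : 0 < 40 + 15 * Cq + |g - (1 - s)| := by positivity
  have ht0 : 0 < t := by rw [ht]; exact div_pos hmin hden
  have htm : (40 + 15 * Cq + |g - (1 - s)|) * t = min ε δc := by rw [ht]; field_simp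
  have htε : (40 + 15 * Cq + |g - (1 - s)|) * t ≤ ε := by rw [htm]; exact min_le_left _ _
  have htδ : (40 + 15 * Cq + |g - (1 - s)|) * t ≤ δc := by rw [htm]; exact min_le_right _ _
  have hCt : 0 ≤ Cq * t := mul_nonneg hCq0 ht0.le
  have hgt : 0 ≤ |g - (1 - s)| * t := mul_nonneg (abs_nonneg _) ht0.le
  have ht40 : 40 * t ≤ δc := by
    have h8 : (40 + 15 * Cq + |g - (1 - s)|) * t = 40 * t + 15 * (Cq * t) +
        |g - (1 - s)| * t := by ring
    rw [h8] at htδ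
    linarith
  obtain ⟨u, hu0, hu1, hT0, hTt, hor⟩ := exists_level (y := v) (t := t) hv0 hv1 ht0
  -- the margin of the heights
  obtain ⟨δ, hδ0, hδt, hδ1⟩ : ∃ δ : ℝ, 0 < δ ∧ δ ≤ t ∧ ((u : ℝ) < v → 2 * δ ≤ v - u) := by
    rcases hor with h | ⟨h, h'⟩
    · refine ⟨min t ((v - u) / 2), lt_min ht0 (by linarith), min_le_left _ _, fun _ => ?_⟩
      have := min_le_right t ((v - u) / 2)
      linarith
    · refine ⟨t, ht0, le_rfl, fun h1 => ?_⟩
      have h2 : (0 : ℝ) < v := by rw [h] at h1; simpa using h1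
      linarith
  refine ⟨δ, hδ0, ?_⟩
  filter_upwards [count_core hM hu0 hu1 ht0, pow_lev hM u hu0 hu1 ht0, pow_lev hM u hu0 hu1 hδ0,
    ev_const B (c := 54) (by norm_num) ht0, ev_const B (c := |CG| + 1) (by positivity) ht0,
    hX.pos 0, hX.pos 1, hX.pos 2, hX.o02 t ht0, hX.o21 t ht0, hX.res t ht0, hcap, hM.cell0,
    hX.rn 0 0, hX.rn 1 0, hX.rn 2 0, hX.rn 0 (10 * t), hX.rn 1 (14 * t), hX.rn 2 (12 * t)]
    with n hcore hlev hlevδ h54 hCG hX0 hX1 hX2 h02 h21 hres hcp hcell hn0 hn1 hn2 hx0 hx1 hx2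
      c z F Q hQI hF hdet hQ
  have hd := B.pos n
  have hd1 := B.lt n
  have dpp := fun a => Dp76.dpow_pos B n a
  have c54 := const_le h54
  have hCd : CG ≤ B.d n ^ (-t) := by linarith [const_le hCG, le_abs_self CG]
  have hρ0 : 0 < rho (lev n 0) := rho_pos _
  have hρi : 0 < rho (lev n u) := rho_pos _
  obtain ⟨ρv, hρv⟩ : ∃ ρv, ρv = B.d n ^ v * rho (lev n 0) := ⟨_, rfl⟩
  have hρv0 : 0 < ρv := by rw [hρv]; exact mul_pos (dpp _) hρ0
  have hlo := rho_lo hlev.1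
  have hhi := rho_hi hlev.2
  have dδ : B.d n ^ (-δ) ≤ B.d n ^ (-t) := Dp76.dpow_le B n (by linarith)
  have dt1 : 1 ≤ B.d n ^ (-t) := by linarith
  have hρvi : ρv * B.d n ^ t ≤ rho (lev n u) := by
    refine le_trans ?_ hlo
    have e1 : ρv * B.d n ^ t = B.d n ^ (v + t) * rho (lev n 0) := by
      rw [hρv, Dp76.dpow_add]; ring
    rw [e1]
    exact mul_le_mul_of_nonneg_right (Dp76.dpow_le B n (by linarith)) hρ0.le
  -- the frame
  obtain ⟨e, he, hfr⟩ := gs_frame dt1 (fun k i => (hF k i).trans dδ)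
    (hdet.trans (mul_le_mul_of_nonneg_right dδ (abs_nonneg _)))
  -- the numbers
  obtain ⟨Y, hY⟩ : ∃ Y, Y = 3 * B.d n ^ (-(3 * t)) := ⟨_, rfl⟩
  have hY0 : 0 ≤ Y := by rw [hY]; exact mul_nonneg (by norm_num) (dpp _).le
  obtain ⟨n0, n1, n2, o1, o2⟩ := tube_num hd hd1 ht0 hX0 hX1 hX2 h02 h21 c54 hY.le hY0
  -- the heights
  have hcellQ : ∃ J0 : ℤ, ∀ y ∈ Q, zc (lev n u) y.2 ∈ Finset.Icc (J0 - 1) (J0 + 1) := by
    rcases hor with hlt | ⟨h0, -⟩
    · refine ⟨zc (lev n u) z, fun y hy => zc_near ?_⟩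
      have h1 := (hQ y hy).1
      calc |y.2 - z| * 2 ^ lev n u ≤
          (B.d n ^ (-δ) * (B.d n ^ v * rho (lev n 0))) * (2 ^ lev n 0 * B.d n ^ (-((u : ℝ) + δ))) :=
            mul_le_mul h1 hlevδ.1 (by positivity)
              (mul_pos (dpp _) (mul_pos (dpp _) hρ0)).le
        _ = (B.d n ^ (-δ) * B.d n ^ v * B.d n ^ (-((u : ℝ) + δ))) *
            (rho (lev n 0) * 2 ^ lev n 0) := by ring
        _ = B.d n ^ (-δ + v + -((u : ℝ) + δ)) := by
            have : rho (lev n 0) * 2 ^ lev n 0 = 1 := by unfold rho; field_simp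
            rw [this, mul_one, Dp76.dpow_add, Dp76.dpow_add]
        _ ≤ B.d n ^ (0 : ℝ) := Dp76.dpow_le B n (by have := hδ1 hlt; linarith)
        _ = 1 := Real.rpow_zero _
    · rcases Q.eq_empty_or_nonempty with he | ⟨y0, hy0⟩
      · exact ⟨0, fun y hy => by rw [he] at hy; simp at hy⟩
      · refine ⟨zc (lev n u) y0.2, fun y hy => ?_⟩
        rw [h0, hcell y (hQI hy) y0 (hQI hy0), Finset.mem_Icc]
        constructor <;> linarith
  obtain ⟨J0, hJ0⟩ := hcellQ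
  -- the sheet
  have hw1ρ : B.d n ^ (-(14 * t)) * X 1 n ≤ rho (lev n u) := by
    refine le_trans ?_ hlo
    calc B.d n ^ (-(14 * t)) * X 1 n ≤ B.d n ^ (-(14 * t)) * (B.d n ^ (v + δc) * rho (lev n 0)) :=
          mul_le_mul_of_nonneg_left hcp (dpp _).le
      _ = B.d n ^ (-(14 * t) + (v + δc)) * rho (lev n 0) := by
          rw [Dp76.dpow_add B n (-(14 * t))]; ring
      _ ≤ _ := mul_le_mul_of_nonneg_right (Dp76.dpow_le B n (by linarith)) hρ0.le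
  have hra : r0 n ≤ B.d n ^ (-(10 * t)) * X 0 n :=
    hres.trans (mul_le_mul_of_nonneg_right (Dp76.dpow_le B n (by linarith)) hX0.le)
  have hval := tube_val (q := q) hd hd1 ht0 hX0 hX1 hX2 hq hρv0 hρi hρvi hG.C0 hCd
  refine (hcore Q J0 (tval q ρv (fun k => X k n) *
    B.d n ^ (-((37 + 15 * (q 0 + q 1 + q 2)) * t))) hQI ?_ hJ0 fun J => ?_).trans ?_
  · have r0' := Real.rpow_nonneg (div_pos hX0 hρv0).le (q 0)
    have r1' := Real.rpow_nonneg (div_pos hX1 hρv0).le (q 1)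
    have r2' := Real.rpow_nonneg (div_pos hX2 hρv0).le (q 2)
    have := dpp (-((37 + 15 * (q 0 + q 1 + q 2)) * t))
    unfold tval
    positivity
  · obtain ⟨S, hadm, hvl, hmem⟩ := hG.flat n (lev n u) J e c _ _ _ he
      (mul_pos (dpp (-(10 * t))) hX0) hra o1 o2 hw1ρ
      (fun k => by
        fin_cases k
        · exact ⟨lo_dpow hn0.1 hX0.le (by linarith), hi_dpow hx0.2⟩
        · exact ⟨lo_dpow hn1.1 hX1.le (by linarith), hi_dpow hx1.2⟩
        · exact ⟨lo_dpow hn2.1 hX2.le (by linarith), hi_dpow hx2.2⟩)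
    refine ⟨S, hadm, hvl.trans hval, fun y hy hyJ => hmem _ fun z' hz0 hz1 => ?_⟩
    · -- membership
      obtain ⟨k1, k2⟩ := mem_cell hyJ
      obtain ⟨q1, q2⟩ := hQ y hy
      rw [← hρv] at q1 q2
      have h2 : |z' - y.2| ≤ rho (lev n u) := by
        rw [abs_le]; constructor <;> linarith
      have h3 : |z' - z| ≤ |z' - y.2| + |y.2 - z| := by
        have := abs_add_le (z' - y.2) (y.2 - z)
        rwa [show z' - y.2 + (y.2 - z) = z' - z by ring] at this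
      have hρiv : rho (lev n u) ≤ B.d n ^ (-(2 * t)) * ρv := by
        refine hhi.trans ?_
        rw [hρv, ← mul_assoc, ← Dp76.dpow_add]
        exact mul_le_mul_of_nonneg_right (Dp76.dpow_le B n (by linarith)) hρ0.le
      have h4 : |z' - z| ≤ 2 * B.d n ^ (-(2 * t)) * ρv := by
        have h5 : B.d n ^ (-δ) * ρv ≤ B.d n ^ (-(2 * t)) * ρv :=
          mul_le_mul_of_nonneg_right (Dp76.dpow_le B n (by linarith)) hρv0.le
        linarith
      have hsz : ∀ k, 0 < X k n → |dt (F k) ((L n y.1).pos z' - c.pos z')| ≤ Y * X k n := by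
        intro k hk
        obtain ⟨a1, a2⟩ := q2 k
        rw [dt_line (F k) (L n y.1) c z z']
        have a3 : |(z' - z) * dt (F k) ((L n y.1).v - c.v)| ≤
            2 * B.d n ^ (-(2 * t)) * (B.d n ^ (-t) * X k n) := by
          rw [abs_mul]
          calc |z' - z| * |dt (F k) ((L n y.1).v - c.v)| ≤
              (2 * B.d n ^ (-(2 * t)) * ρv) * |dt (F k) ((L n y.1).v - c.v)| :=
                mul_le_mul_of_nonneg_right h4 (abs_nonneg _)
            _ = 2 * B.d n ^ (-(2 * t)) * (|dt (F k) ((L n y.1).v - c.v)| * ρv) := by ring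
            _ ≤ 2 * B.d n ^ (-(2 * t)) * (B.d n ^ (-δ) * X k n) :=
                mul_le_mul_of_nonneg_left a2 (mul_nonneg (by norm_num) (dpp _).le)
            _ ≤ _ := mul_le_mul_of_nonneg_left (mul_le_mul_of_nonneg_right dδ hk.le)
                (mul_nonneg (by norm_num) (dpp _).le)
        have a4 : B.d n ^ (-δ) * X k n ≤ B.d n ^ (-(3 * t)) * X k n :=
          mul_le_mul_of_nonneg_right (Dp76.dpow_le B n (by linarith)) hk.le
        have a5 : 2 * B.d n ^ (-(2 * t)) * (B.d n ^ (-t) * X k n) =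
            2 * (B.d n ^ (-(3 * t)) * X k n) := by
          rw [show -(3 * t) = -(2 * t) + -t by ring, Dp76.dpow_add B n (-(2 * t))]; ring
        refine (abs_add_le _ _).trans ?_
        rw [hY]
        linarith
      obtain ⟨b0, b1, b2⟩ := hfr ((L n y.1).pos z' - c.pos z') (fun k => Y * X k n)
        (fun k => hsz k (by fin_cases k <;> assumption))
      exact ⟨b0.trans n0, b1.trans n1, b2.trans n2⟩
  · -- the exponents
    rw [← hρv]
    have hval0 : 0 ≤ tval q ρv (fun k => X k n) := by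
      have r0' := Real.rpow_nonneg (div_pos hX0 hρv0).le (q 0)
      have r1' := Real.rpow_nonneg (div_pos hX1 hρv0).le (q 1)
      have r2' := Real.rpow_nonneg (div_pos hX2 hρv0).le (q 2)
      unfold tval
      positivity
    have e1 : A n * (tval q ρv (fun k => X k n) *
        B.d n ^ (-((37 + 15 * (q 0 + q 1 + q 2)) * t))) *
        B.d n ^ (-(g * u + (1 - s) * (1 - u) + t)) =
        A n * tval q ρv (fun k => X k n) * B.d n ^ (-((37 + 15 * (q 0 + q 1 + q 2)) * t) +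
          -(g * u + (1 - s) * (1 - u) + t)) := by
      rw [Dp76.dpow_add B n (-((37 + 15 * (q 0 + q 1 + q 2)) * t))]; ring
    rw [e1]
    refine mul_le_mul_of_nonneg_left (Dp76.dpow_le B n ?_) (mul_nonneg (hM.Apos n).le hval0)
    rw [← hCq]
    have h5 : |(g - (1 - s)) * (v - u)| ≤ |g - (1 - s)| * t := by
      rw [abs_mul, abs_of_nonneg hT0]
      exact mul_le_mul_of_nonneg_left hTt (abs_nonneg _)
    have h6 := (abs_le.1 h5).1
    have h7 : (g - (1 - s)) * (v - u) = g * v + (1 - s) * (1 - v) -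
        (g * u + (1 - s) * (1 - u)) := by ring
    have h8 : (40 + 15 * Cq + |g - (1 - s)|) * t = 40 * t + 15 * (Cq * t) +
        |g - (1 - s)| * t := by ring
    have h9 : (37 + 15 * Cq) * t = 37 * t + 15 * (Cq * t) := by ring
    rw [h7] at h6
    rw [h8] at htε
    rw [h9]
    linarith

end dmax

end Crest.Agent.R136.GeoQ186
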