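import Crest.Agent.R136.GD7_186

/-!
# R136: D-max for sheared chart boxes of any shape (helper186)

`NearS` : box with shears `μ` (`b` against `a`), `lam` (`n` against `a`), `nu` (`n` against `b`);
`SQ` : true sizes of a chart box; `gD_any` : D-max for sheared boxes, the three sizes in any order;
`gD_shear` : the sizes in the usual order.
-/

set_option autoImplicit false
set_option linter.unusedVariables false

open Finset Filter Topology

namespace Crest.Agent.R136.GeoQ186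

open Crest.Agent.R138.Ex926 (Base U)
open Crest.Agent.R138.Mk163 (zc zl rho alive)
open Crest.Agent.R138.MkRef627 (lc kc)
open Crest.Agent.R138
open Crest.Agent.R136.MkA627
open Crest.Agent.R136.Net191
open Crest.Agent.R136.NetQ186
open Crest.Agent.R136.Sh605
open Crest.Agent.R136.Top484 (geo4)
open Crest.Agent.R136.PqG464 (pow_lev zc_near ev_const)
open Crest.Agent.R136.Wq638

/-! ### determinants -/

theorem det3_eq (f : Fin 3 → V3) : det3 f = -(Matrix.of f).det := by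
  rw [Matrix.det_fin_three]
  simp only [det3, dt, cr, Matrix.cons_val, Matrix.of_apply]
  ring

/-- permuted forms -/
theorem abs_det3_row (f : Fin 3 → V3) (σ : Equiv.Perm (Fin 3)) :
    |det3 fun k => f (σ k)| = |det3 f| := by
  rw [det3_eq, det3_eq, abs_neg, abs_neg]
  have h := Matrix.det_permute σ (Matrix.of f)
  have e1 : (Matrix.of f).submatrix σ id = Matrix.of fun k => f (σ k) := rfl
  rw [e1] at h
  rw [h, abs_mul]
  rcases Int.units_eq_one_or (Equiv.Perm.sign σ) with h1 | h1 <;> rw [h1] <;> simp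

/-- permuted coordinates -/
theorem abs_det3_col (f : Fin 3 → V3) (π : Equiv.Perm (Fin 3)) :
    |det3 fun k => pv π (f k)| = |det3 f| := by
  rw [det3_eq, det3_eq, abs_neg, abs_neg]
  have h := Matrix.det_permute' π (Matrix.of f)
  have e1 : (Matrix.of f).submatrix id π = Matrix.of fun k => pv π (f k) := rfl
  rw [e1] at h
  rw [h, abs_mul]
  rcases Int.units_eq_one_or (Equiv.Perm.sign π) with h1 | h1 <;> rw [h1] <;> simp

/-! ### the forms of a flag -/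

/-- the forms `0` = normal, `1` = wide, `2` = narrow, of the flag `(e, fa, fb)` -/
def frmQ (π : Equiv.Perm (Fin 3)) (e fa fb : ℝ) : Fin 3 → V3 :=
  fun k => pv π.symm ((![![1, -fa, -fb], ![0, 1, 0], ![0, -e, 1]] : Fin 3 → V3) k)

theorem frmQ_det (π : Equiv.Perm (Fin 3)) (e fa fb : ℝ) : |det3 (frmQ π e fa fb)| = 1 := by
  unfold frmQ
  rw [abs_det3_col]
  simp [det3, dt, cr]

theorem dt_frmQ0 (π : Equiv.Perm (Fin 3)) (e fa fb : ℝ) (x : V3) :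
    dt (frmQ π e fa fb 0) x = x (π 0) - fa * x (π 1) - fb * x (π 2) := by
  unfold frmQ
  rw [dt_pvs]
  simp only [dt, pv, Matrix.cons_val]
  ring

theorem dt_frmQ1 (π : Equiv.Perm (Fin 3)) (e fa fb : ℝ) (x : V3) :
    dt (frmQ π e fa fb 1) x = x (π 1) := by
  unfold frmQ
  rw [dt_pvs]
  simp only [dt, pv, Matrix.cons_val]
  ring

theorem dt_frmQ2 (π : Equiv.Perm (Fin 3)) (e fa fb : ℝ) (x : V3) :
    dt (frmQ π e fa fb 2) x = x (π 2) - e * x (π 1) := by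
  unfold frmQ
  rw [dt_pvs]
  simp only [dt, pv, Matrix.cons_val]
  ring

theorem frmQ_le {π : Equiv.Perm (Fin 3)} {e fa fb M : ℝ} (hM : 1 ≤ M) (he : |e| ≤ M)
    (ha : |fa| ≤ M) (hb : |fb| ≤ M) (k i : Fin 3) : |frmQ π e fa fb k i| ≤ M := by
  have hM0 : 0 ≤ M := by linarith
  have key : ∀ k j : Fin 3,
      |(![![1, -fa, -fb], ![0, 1, 0], ![0, -e, 1]] : Fin 3 → V3) k j| ≤ M := by
    intro k j
    fin_cases k <;> fin_cases j <;> simp <;> assumption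
  exact key k (π.symm i)

/-! ### sheared boxes -/

/-- **sheared box**: `X_b - μ X_a`, `N - lam X_a - nu (X_b - μ X_a)` and the same for the velocities -/
structure NearS (c : Fin 11 → ℝ) (d : ℝ) (p : Fin 11 → ℝ) (K μ lam nu : ℝ) : Prop where
  z : |c 0| ≤ K * d ^ p 0
  ca : |c 5| ≤ K * d ^ p 5
  cb : |c 6 - μ * c 5| ≤ K * d ^ p 6
  P : |c 7 - lam * c 5 - nu * (c 6 - μ * c 5)| ≤ K * d ^ p 7
  xa : |c 8| ≤ K * d ^ p 8
  xb : |c 9 - μ * c 8| ≤ K * d ^ p 9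
  N : |c 10 - lam * c 8 - nu * (c 9 - μ * c 8)| ≤ K * d ^ p 10

/-- sizes of the box in the true units -/
noncomputable def Sz (d HH WA WB WY : ℝ) (p : Fin 11 → ℝ) (k : Fin 3) : ℝ :=
  ![WY * d ^ p 10, WA * d ^ p 8, WB * d ^ p 9] k / HH

/-- finite part: a sheared chart box is a tube -/
theorem nearS_tube {π : Equiv.Perm (Fin 3)} {c t : Ln4} {zx zy e fa fb ey fay fby HH WA WB WY d K :
    ℝ} {p : Fin 11 → ℝ} {μ l nu : ℝ} (hd : 0 < d) (hd1 : d < 1) (hH : 0 < HH) (hA : 0 < WA)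
    (hB : 0 < WB) (hY : 0 < WY) (hK : 0 ≤ K) (w8 : p 8 ≤ p 0 + p 5) (w9 : p 9 ≤ p 0 + p 6)
    (w10 : p 10 ≤ p 0 + p 7)
    (h : NearS (coQ (scl HH WA WB WY (mkT (cLn π c) zx e fa fb))
      (scl HH WA WB WY (mkT (cLn π t) zy ey fay fby))) d p K (μ * (WA / WB)) (l * (WA / WY))
      (nu * (WB / WY))) :
    |zy - zx| ≤ K * (d ^ p 0 / HH) ∧ ∀ k,
      |dt (frmQ π (e + μ) (fa + l - nu * (e + μ)) (fb + nu) k) (t.pos zx - c.pos zx)| ≤
        K * Sz d HH WA WB WY p k ∧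
      |dt (frmQ π (e + μ) (fa + l - nu * (e + μ)) (fb + nu) k) (t.v - c.v)| * (d ^ p 0 / HH) ≤
        K * Sz d HH WA WB WY p k := by
  obtain ⟨k0, k5, k6, k7, k8, k9, k10⟩ := h
  simp only [coQ_scl hH.ne' hA.ne' hB.ne' hY.ne'] at k0 k5 k6 k7 k8 k9 k10
  obtain ⟨u, hu⟩ : ∃ u : V3, u = t.pos zx - c.pos zx := ⟨_, rfl⟩
  obtain ⟨v, hv⟩ : ∃ v : V3, v = t.v - c.v := ⟨_, rfl⟩
  obtain ⟨x, hx⟩ : ∃ x, x = mkT (cLn π c) zx e fa fb := ⟨_, rfl⟩
  obtain ⟨z, hz⟩ : ∃ z, z = mkT (cLn π t) zy ey fay fby := ⟨_, rfl⟩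
  rw [← hx, ← hz] at k0 k5 k6 k7 k8 k9 k10
  have c0 : coQ x z 0 = zy - zx := by
    rw [hx, hz]; simp only [coQ, mkT, Matrix.cons_val]
  have c5 : coQ x z 5 = v (π 1) := by
    rw [hx, hz, hv]; simp only [coQ, mkT, cLn, Matrix.cons_val, Pi.sub_apply]
  have c6 : coQ x z 6 = v (π 2) - e * v (π 1) := by
    rw [hx, hz, hv]; simp only [coQ, mkT, cLn, Matrix.cons_val, Pi.sub_apply]
  have c7 : coQ x z 7 = v (π 0) - fa * v (π 1) - fb * v (π 2) := by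
    rw [hx, hz, hv]; simp only [coQ, mkT, cLn, Matrix.cons_val, Pi.sub_apply, Fq4.vy]; ring
  have c8 : coQ x z 8 = u (π 1) := by
    rw [hx, hz, hu]
    simp only [coQ, mkT, cLn, Matrix.cons_val, Pi.sub_apply, Fq4.pa, Ln4.pos]
  have c9 : coQ x z 9 = u (π 2) - e * u (π 1) := by
    rw [hx, hz, hu]
    simp only [coQ, mkT, cLn, Matrix.cons_val, Pi.sub_apply, Fq4.pa, Fq4.pb, Ln4.pos]
  have c10 : coQ x z 10 = u (π 0) - fa * u (π 1) - fb * u (π 2) := by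
    rw [hx, hz, hu]
    simp only [coQ, mkT, cLn, Matrix.cons_val, Pi.sub_apply, Fq4.pa, Fq4.pb, Fq4.py, Ln4.pos]
    ring
  rw [c0] at k0
  rw [c5] at k5
  rw [c5, c6] at k6
  rw [c5, c6, c7] at k7
  rw [c8] at k8
  rw [c8, c9] at k9
  rw [c8, c9, c10] at k10
  simp only [sfac, Matrix.cons_val] at k0 k5 k6 k7 k8 k9 k10
  rw [← hu, ← hv]
  clear c0 c5 c6 c7 c8 c9 c10 hx hz hu hv
  have dp : ∀ a : ℝ, 0 < d ^ a := fun a => dpos hd a
  -- transport of one bound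
  have pos : ∀ {W T Z y : ℝ}, 0 < W → T = HH / W * Z → |T| ≤ K * d ^ y →
      |Z| ≤ K * (W * d ^ y / HH) := by
    intro W T Z y hW hT hb
    have e1 : Z = W / HH * T := by rw [hT]; field_simp
    rw [e1, abs_mul, abs_of_pos (div_pos hW hH)]
    calc W / HH * |T| ≤ W / HH * (K * d ^ y) :=
          mul_le_mul_of_nonneg_left hb (div_pos hW hH).le
      _ = _ := by ring
  have vel : ∀ {W T Z y y' : ℝ}, 0 < W → T = 1 / W * Z → |T| ≤ K * d ^ y → y' ≤ p 0 + y →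
      |Z| * (d ^ p 0 / HH) ≤ K * (W * d ^ y' / HH) := by
    intro W T Z y y' hW hT hb hy
    have e1 : Z = W * T := by rw [hT]; field_simp
    rw [e1, abs_mul, abs_of_pos hW]
    calc W * |T| * (d ^ p 0 / HH) ≤ W * (K * d ^ y) * (d ^ p 0 / HH) :=
          mul_le_mul_of_nonneg_right (mul_le_mul_of_nonneg_left hb hW.le)
            (div_pos (dp _) hH).le
      _ = K * (W * d ^ (p 0 + y) / HH) := by rw [Real.rpow_add hd]; ring
      _ ≤ _ := by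
          refine mul_le_mul_of_nonneg_left (div_le_div_of_nonneg_right
            (mul_le_mul_of_nonneg_left (dle hd hd1 hy) hW.le) hH.le) hK
  refine ⟨?_, fun k => ?_⟩
  · rw [abs_mul, abs_of_pos hH] at k0
    rw [← mul_div_assoc, le_div_iff₀ hH]
    linarith
  · fin_cases k
    · show |dt (frmQ π _ _ _ 0) u| ≤ K * (WY * d ^ p 10 / HH) ∧
        |dt (frmQ π _ _ _ 0) v| * (d ^ p 0 / HH) ≤ K * (WY * d ^ p 10 / HH)
      rw [dt_frmQ0, dt_frmQ0]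
      exact ⟨pos hY (by field_simp; ring) k10, vel hY (by field_simp; ring) k7 w10⟩
    · show |dt (frmQ π _ _ _ 1) u| ≤ K * (WA * d ^ p 8 / HH) ∧
        |dt (frmQ π _ _ _ 1) v| * (d ^ p 0 / HH) ≤ K * (WA * d ^ p 8 / HH)
      rw [dt_frmQ1, dt_frmQ1]
      exact ⟨pos hA rfl k8, vel hA rfl k5 w8⟩
    · show |dt (frmQ π _ _ _ 2) u| ≤ K * (WB * d ^ p 9 / HH) ∧
        |dt (frmQ π _ _ _ 2) v| * (d ^ p 0 / HH) ≤ K * (WB * d ^ p 9 / HH)
      rw [dt_frmQ2, dt_frmQ2]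
      exact ⟨pos hB (by field_simp; ring) k9, vel hB (by field_simp; ring) k6 w9⟩

theorem NearS.mono {c : Fin 11 → ℝ} {d : ℝ} {p : Fin 11 → ℝ} {K K' μ lam nu : ℝ}
    (h : NearS c d p K μ lam nu) (hd : 0 < d) (hK : K ≤ K') : NearS c d p K' μ lam nu := by
  have key : ∀ {x y : ℝ}, |x| ≤ K * d ^ y → |x| ≤ K' * d ^ y := fun h =>
    h.trans (mul_le_mul_of_nonneg_right hK (dpos hd _).le)
  exact ⟨key h.z, key h.ca, key h.cb, key h.P, key h.xa, key h.xb, key h.N⟩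

/-- true sizes of the chart box with exponents `p`: `0` thickness, `1` wide, `2` narrow -/
noncomputable def SQ (B : Base) (lev : ℕ → ℚ → ℕ) (w : Fin 3 → ℕ → ℚ → ℝ) (w0 : ℝ)
    (p : Fin 11 → ℝ) (k : Fin 3) (n : ℕ) : ℝ :=
  ![uY B lev w w0 n * B.d n ^ p 10, uA B lev w w0 n * B.d n ^ p 8,
    uB B lev w w0 n * B.d n ^ p 9] k / uH B lev w0 n

section

variable {B : Base} {I : ℕ → Finset (ℕ × ℝ)} {lev : ℕ → ℚ → ℕ}
    {A : ℕ → ℝ} {g s : ℝ} {τ : Fin 3 → ℝ → ℝ} {f : ℕ → ℚ → ℕ → ℤ → ℕ} {b : ℕ → ℚ → ℕ → K4.Plk4}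
    {vm : ℕ → ℚ → ℝ} {w : Fin 3 → ℕ → ℚ → ℝ} {L : ℕ → ℕ → Ln4} {r0 : ℕ → ℝ}
    {wr cr : Fin 3 → ℕ → ℝ} {q : Fin 3 → ℝ}
    {π : Equiv.Perm (Fin 3)} {E Fa Fb : ℕ → ℕ × ℝ → ℝ} {w0 R : ℝ} {p : Fin 11 → ℝ}

theorem SQ_pos {n : ℕ} (h0 : 0 < w 0 n 0) (h1 : 0 < w 1 n 0) (h2 : 0 < w 2 n 0) (k : Fin 3) :
    0 < SQ B lev w w0 p k n := by
  have a := uA_pos (B := B) (lev := lev) (w0 := w0) h1
  have b := uB_pos (B := B) (lev := lev) (w0 := w0) h2
  have y := uY_pos (B := B) (lev := lev) (w0 := w0) h0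
  have H := uH_pos (B := B) (lev := lev) (w0 := w0) n
  have dp := fun a => Dp76.dpow_pos B n a
  unfold SQ
  refine div_pos ?_ H
  fin_cases k
  · exact mul_pos y (dp _)
  · exact mul_pos a (dp _)
  · exact mul_pos b (dp _)

/-- the length of the box -/
theorem len_eq (n : ℕ) : B.d n ^ (p 0 - w0) * rho (lev n 0) = B.d n ^ p 0 / uH B lev w0 n := by
  unfold uH rho
  rw [sub_eq_add_neg, Dp76.dpow_add, Real.rpow_neg (B.pos n).le]
  have := (Dp76.dpow_pos B n w0).ne'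
  field_simp

/-- the penalised size of the box -/
theorem tval_SQ {n : ℕ} (h0 : 0 < w 0 n 0) (h1 : 0 < w 1 n 0) (h2 : 0 < w 2 n 0)
    (hvm : vm n 0 = capQ q (rho (lev n 0)) (fun k => w k n 0)) :
    tval q (B.d n ^ (p 0 - w0) * rho (lev n 0)) (fun k => SQ B lev w w0 p k n) =
      vm n 0 * B.d n ^ (-(9 * w0) - (3 * w0 * q 0 + w0 * q 1 + 2 * w0 * q 2) + Dp q p) := by
  have hd := B.pos n
  have hρ : 0 < rho (lev n 0) := rho_pos _
  have a := uA_pos (B := B) (lev := lev) (w0 := w0) h1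
  have b := uB_pos (B := B) (lev := lev) (w0 := w0) h2
  have y := uY_pos (B := B) (lev := lev) (w0 := w0) h0
  have H := uH_pos (B := B) (lev := lev) (w0 := w0) n
  have dpp := fun a => Dp76.dpow_pos B n a
  rw [len_eq]
  -- first: in terms of `Vn`
  have key : ∀ (k : Fin 3) (W x : ℝ), 0 < W →
      (W * B.d n ^ x / uH B lev w0 n / (B.d n ^ p 0 / uH B lev w0 n)) ^ q k =
        W ^ q k * B.d n ^ (q k * (x - p 0)) := by
    intro k W x hW
    have e1 : W * B.d n ^ x / uH B lev w0 n / (B.d n ^ p 0 / uH B lev w0 n) =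
        W * B.d n ^ (x - p 0) := by
      rw [sub_eq_add_neg x, Dp76.dpow_add, Real.rpow_neg hd.le]
      have := (dpp (p 0)).ne'
      field_simp
    rw [e1, Real.mul_rpow hW.le (dpp _).le, ← Real.rpow_mul hd.le, mul_comm (q k)]
  have eV : tval q (B.d n ^ p 0 / uH B lev w0 n) (fun k => SQ B lev w w0 p k n) =
      Vn q (uH B lev w0 n) (uA B lev w w0 n) (uB B lev w w0 n) (uY B lev w w0 n) *
        B.d n ^ Dp q p := by
    unfold tval SQ
    simp only [Matrix.cons_val]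
    rw [key 0 _ _ y, key 1 _ _ a, key 2 _ _ b]
    have e2 : B.d n ^ Dp q p = B.d n ^ p 10 * B.d n ^ p 9 * B.d n ^ p 8 *
        (B.d n ^ (q 0 * (p 10 - p 0)) * B.d n ^ (q 1 * (p 8 - p 0)) *
          B.d n ^ (q 2 * (p 9 - p 0))) := by
      unfold Dp
      rw [Dp76.dpow_add, Dp76.dpow_add, Dp76.dpow_add, Dp76.dpow_add, Dp76.dpow_add]
    rw [e2]
    unfold Vn
    field_simp
  rw [eV, Dp76.dpow_add, ← mul_assoc]
  congr 1
  have hr1 : ∀ (k : Fin 3) (c : ℝ), 0 < w k n 0 →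
      (w k n 0 / rho (lev n 0) * B.d n ^ c) ^ q k =
        (w k n 0 / rho (lev n 0)) ^ q k * B.d n ^ (c * q k) := by
    intro k c hk
    rw [Real.mul_rpow (div_pos hk hρ).le (Dp76.dpow_pos B n _).le, ← Real.rpow_mul hd.le]
  rw [hvm]
  unfold Vn capQ uA uB uY uH
  rw [hr1 0 _ h0, hr1 1 _ h1, hr1 2 _ h2]
  have e1 : B.d n ^ (-(9 * w0) - (3 * w0 * q 0 + w0 * q 1 + 2 * w0 * q 2)) =
      B.d n ^ (-w0) * B.d n ^ (-(2 * w0)) * B.d n ^ (-(3 * w0)) *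
      (B.d n ^ (-w0) * B.d n ^ (-w0) * B.d n ^ (-w0)) *
      (B.d n ^ (-(3 * w0) * q 0) * B.d n ^ (-w0 * q 1) * B.d n ^ (-(2 * w0) * q 2)) := by
    rw [← Dp76.dpow_add, ← Dp76.dpow_add, ← Dp76.dpow_add, ← Dp76.dpow_add, ← Dp76.dpow_add,
      ← Dp76.dpow_add, ← Dp76.dpow_add, ← Dp76.dpow_add]
    congr 1; ring
  have e2 : (B.d n ^ w0)⁻¹ = B.d n ^ (-w0) := (Real.rpow_neg hd.le _).symm
  have e3 : (2 : ℝ) ^ lev n 0 = (rho (lev n 0))⁻¹ := by unfold rho; simp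
  rw [e1, e3]
  have e4 : (B.d n ^ w0 * (rho (lev n 0))⁻¹) ^ 3 = (B.d n ^ w0) ^ 3 / rho (lev n 0) ^ 3 := by
    field_simp
  rw [e4, ← e2]
  have hw0' := (Dp76.dpow_pos B n w0).ne'
  field_simp

theorem pow4_le {M : ℝ} (h : 4 ≤ M) : M ≤ M ^ 4 ∧ 1 + M ≤ M ^ 4 ∧
    1 + M + M * (1 + M) ≤ M ^ 4 := by
  have h1 : 4 * M ≤ M ^ 2 := by nlinarith
  have h2 : 16 * M ^ 2 ≤ M ^ 4 := by
    have : 16 ≤ M ^ 2 := by nlinarith
    nlinarith [sq_nonneg M]
  refine ⟨by linarith, by linarith, ?_⟩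
  have e : 1 + M + M * (1 + M) = 1 + 2 * M + M ^ 2 := by ring
  rw [e]
  linarith

/-- rank factor -/
noncomputable def rnk (q : Fin 3 → ℝ) (S : Fin 3 → ℝ) (σ : Equiv.Perm (Fin 3)) : ℝ :=
  ∏ k, (S (σ k) / S k) ^ q k

theorem rnk_one {q : Fin 3 → ℝ} {S : Fin 3 → ℝ} (hS : ∀ k, 0 < S k) : rnk q S 1 = 1 := by
  unfold rnk
  refine Finset.prod_eq_one fun k _ => ?_
  rw [Equiv.Perm.one_apply, div_self (hS k).ne', Real.one_rpow]

theorem tval_perm {ρ : ℝ} (hρ : 0 < ρ) {S : Fin 3 → ℝ} (hS : ∀ k, 0 < S k)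
    (σ : Equiv.Perm (Fin 3)) : tval q ρ (fun k => S (σ k)) = tval q ρ S * rnk q S σ := by
  have h1 : S (σ 0) * S (σ 2) * S (σ 1) = S 0 * S 2 * S 1 := by
    have := Equiv.prod_comp σ S
    simp only [Fin.prod_univ_three] at this
    linarith
  have h2 : ∀ k, (S (σ k) / ρ) ^ q k = (S k / ρ) ^ q k * (S (σ k) / S k) ^ q k := by
    intro k
    rw [← Real.mul_rpow (div_pos (hS _) hρ).le (div_pos (hS _) (hS _)).le]
    congr 1
    have := (hS k).ne'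
    field_simp
  unfold tval rnk
  rw [h1, h2 0, h2 1, h2 2, Fin.prod_univ_three]
  ring

open Classical in
/-- **D-max for sheared chart boxes, the three sizes in any order.** -/
theorem gD_any (hM : MkA B I (geo4 L r0 wr cr q) lev A (fun v => g * v) (fun v => s * v) τ f b vm w)
    (hq : ∀ j, 0 ≤ q j)
    (hE : ∀ n, ∀ x ∈ I n, |E n x| ≤ 1) (hFa : ∀ n, ∀ x ∈ I n, |Fa n x| ≤ 1)
    (hFb : ∀ n, ∀ x ∈ I n, |Fb n x| ≤ 1) (σ : Equiv.Perm (Fin 3))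
    (w8 : p 8 ≤ p 0 + p 5) (w9 : p 9 ≤ p 0 + p 6) (w10 : p 10 ≤ p 0 + p 7)
    (hp0 : w0 ≤ p 0) (hp1 : p 0 ≤ w0 + 1)
    (hX : TubeOk B r0 wr cr lev (p 0 - w0) (fun k => SQ B lev w w0 p (σ k))) {ε : ℝ} (hε : 0 < ε) :
    ∃ δ : ℝ, 0 < δ ∧ ∀ᶠ n in (U : Filter ℕ), ∀ x ∈ I n, ∀ μ lam nu : ℝ,
      |μ| * uB B lev w w0 n ≤ B.d n ^ (-δ) * uA B lev w w0 n →
      |lam| * uY B lev w w0 n ≤ B.d n ^ (-δ) * uA B lev w w0 n →
      |nu| * uY B lev w w0 n ≤ B.d n ^ (-δ) * uB B lev w w0 n →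
      (((I n).filter fun y => NearS (couQ B lev w w0 (incQ π L E Fa Fb) n x y) (B.d n) p
        (B.d n ^ (-δ)) μ lam nu).card : ℝ) ≤
      N0Q A vm n * B.d n ^ (-(DQ g s q w0 p + ε)) *
        rnk q (fun k => SQ B lev w w0 p k n) σ := by
  obtain ⟨δ, hδ, hdm⟩ := dmax_tube hM (flatGeo_geo4 L r0 wr cr q) hq (v := p 0 - w0) (by linarith)
    (by linarith) hX hε
  have hδ4 : 0 < δ / 4 := by linarith
  refine ⟨δ / 4, hδ4, ?_⟩
  filter_upwards [hdm, hM.wpos 0 0 le_rfl zero_le_one, hM.wpos 1 0 le_rfl zero_le_one,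
    hM.wpos 2 0 le_rfl zero_le_one, vm_eq hM le_rfl zero_le_one,
    ev_const B (c := 4) (by norm_num) hδ4] with n hn h0 h1 h2 hvm h4 x hx μ lam nu hμ hlam hnu
  have hd := B.pos n
  have hd1 := B.lt n
  have dpp := fun a => Dp76.dpow_pos B n a
  have a := uA_pos (B := B) (lev := lev) (w0 := w0) h1
  have b := uB_pos (B := B) (lev := lev) (w0 := w0) h2
  have y := uY_pos (B := B) (lev := lev) (w0 := w0) h0
  have H := uH_pos (B := B) (lev := lev) (w0 := w0) n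
  have hρ : 0 < rho (lev n 0) := rho_pos _
  have c4 := const_le h4
  obtain ⟨M, hM'⟩ : ∃ M, M = B.d n ^ (-(δ / 4)) := ⟨_, rfl⟩
  rw [← hM'] at c4 hμ hlam hnu
  have hM4 : M ^ 4 = B.d n ^ (-δ) := by
    rw [hM', ← Real.rpow_natCast, ← Real.rpow_mul hd.le]
    congr 1; push_cast; ring
  have hM0 : 0 < M := by linarith
  obtain ⟨hM1, h1M, h2M⟩ := pow4_le c4
  -- the true shears
  obtain ⟨μ', hμ'⟩ : ∃ μ', μ' = μ * (uB B lev w w0 n / uA B lev w w0 n) := ⟨_, rfl⟩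
  obtain ⟨l', hl'⟩ : ∃ l', l' = lam * (uY B lev w w0 n / uA B lev w w0 n) := ⟨_, rfl⟩
  obtain ⟨n', hn'⟩ : ∃ n', n' = nu * (uY B lev w w0 n / uB B lev w w0 n) := ⟨_, rfl⟩
  have bμ : |μ'| ≤ M := by
    rw [hμ', abs_mul, abs_of_pos (div_pos b a), ← mul_div_assoc, div_le_iff₀ a]
    exact hμ
  have bl : |l'| ≤ M := by
    rw [hl', abs_mul, abs_of_pos (div_pos y a), ← mul_div_assoc, div_le_iff₀ a]
    exact hlam
  have bn : |n'| ≤ M := by
    rw [hn', abs_mul, abs_of_pos (div_pos y b), ← mul_div_assoc, div_le_iff₀ b]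
    exact hnu
  obtain ⟨e', he'⟩ : ∃ e', e' = E n x + μ' := ⟨_, rfl⟩
  obtain ⟨fb', hfb'⟩ : ∃ fb', fb' = Fb n x + n' := ⟨_, rfl⟩
  obtain ⟨fa', hfa'⟩ : ∃ fa', fa' = Fa n x + l' - n' * e' := ⟨_, rfl⟩
  have be : |e'| ≤ 1 + M := by rw [he']; exact aux_a2 (hE n x hx) bμ
  have bfb : |fb'| ≤ 1 + M := by rw [hfb']; exact aux_a2 (hFb n x hx) bn
  have bfa : |fa'| ≤ 1 + M + M * (1 + M) := by
    rw [hfa']; exact aux_s2 (aux_a2 (hFa n x hx) bl) (aux_m2 bn be)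
  obtain ⟨F, hF⟩ : ∃ F, F = frmQ π e' fa' fb' := ⟨_, rfl⟩
  have hFle : ∀ k i, |F k i| ≤ B.d n ^ (-δ) := by
    intro k i
    rw [hF, ← hM4]
    exact frmQ_le (by linarith) (be.trans h1M) (bfa.trans h2M) (bfb.trans h1M) k i
  have hFdet : 1 ≤ B.d n ^ (-δ) * |det3 fun k => F (σ k)| := by
    rw [abs_det3_row, hF, frmQ_det, mul_one, ← hM4]
    linarith
  have hcount := hn (L n x.1) x.2 (fun k => F (σ k)) _
    (Finset.filter_subset (fun y => NearS (couQ B lev w w0 (incQ π L E Fa Fb) n x y) (B.d n) p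
      (B.d n ^ (-(δ / 4))) μ lam nu) (I n)) (fun k i => hFle (σ k) i) hFdet ?_
  · refine hcount.trans (le_of_eq ?_)
    rw [tval_perm (mul_pos (dpp _) hρ) (fun k => SQ_pos h0 h1 h2 k) σ, tval_SQ h0 h1 h2 hvm]
    have e5 : A n * (vm n 0 * B.d n ^ (-(9 * w0) - (3 * w0 * q 0 + w0 * q 1 + 2 * w0 * q 2) +
        Dp q p) * rnk q (fun k => SQ B lev w w0 p k n) σ) *
        B.d n ^ (-(g * (p 0 - w0) + (1 - s) * (1 - (p 0 - w0)) + ε)) =
        A n * vm n 0 * (B.d n ^ (-(9 * w0) - (3 * w0 * q 0 + w0 * q 1 + 2 * w0 * q 2) +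
        Dp q p) * B.d n ^ (-(g * (p 0 - w0) + (1 - s) * (1 - (p 0 - w0)) + ε))) *
        rnk q (fun k => SQ B lev w w0 p k n) σ := by ring
    rw [e5, ← Dp76.dpow_add]
    unfold N0Q
    congr 3
    unfold DQ Dp
    ring
  · intro z hz
    rw [mem_filter] at hz
    obtain ⟨hzI, hz⟩ := hz
    have hS : ∀ k, SQ B lev w w0 p k n = Sz (B.d n) (uH B lev w0 n) (uA B lev w w0 n)
        (uB B lev w w0 n) (uY B lev w w0 n) p k := fun k => rfl
    have hz' : NearS (couQ B lev w w0 (incQ π L E Fa Fb) n x z) (B.d n) p (B.d n ^ (-δ))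
        μ lam nu := by
      refine hz.mono hd ?_
      rw [← hM4, ← hM']
      exact hM1
    have e1 : μ = μ' * (uA B lev w w0 n / uB B lev w w0 n) := by rw [hμ']; field_simp
    have e2 : lam = l' * (uA B lev w w0 n / uY B lev w w0 n) := by rw [hl']; field_simp
    have e3 : nu = n' * (uB B lev w w0 n / uY B lev w w0 n) := by rw [hn']; field_simp
    rw [e1, e2, e3] at hz'
    obtain ⟨g1, g2⟩ := nearS_tube hd hd1 H a b y (dpp _).le w8 w9 w10 hz'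
    refine ⟨?_, fun k => ?_⟩
    · rw [len_eq]; exact g1
    · rw [len_eq, hF, hfa', he', hfb']
      exact g2 (σ k)

end

end Crest.Agent.R136.GeoQ186
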