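import Crest.Agent.R136.GD8_186

/-!
# R136: D-max for sheared chart boxes, exponents (helper186)

* `ord_W0` : the order of the sizes from the exponents of the level-`0` mark;
* `tubeOk_ord` : `TubeOk` of the chart box from `Ord`;
* `gD_shear` : **D-max for a sheared chart box** (strips, tilted sheets), usual order of the sizes.
-/

set_option autoImplicit false
set_option linter.unusedVariables false

open Finset Filter Topology

namespace Crest.Agent.R136.GeoQ186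

open Crest.Agent.R138.Ex926 (Base U)
open Crest.Agent.R138.Mk163 (zc zl rho alive)
open Crest.Agent.R138.MkRef627 (lc kc)
open Crest.Agent.R138
open Crest.Agent.R136.MkA627
open Crest.Agent.R136.Net191
open Crest.Agent.R136.NetQ186
open Crest.Agent.R136.Sh605
open Crest.Agent.R136.Top484 (geo4 Rng)
open Crest.Agent.R136.PqG464 (pow_lev zc_near ev_const)
open Crest.Agent.R136.Wq638

section

variable {B : Base} {lev : ℕ → ℚ → ℕ} {w : Fin 3 → ℕ → ℚ → ℝ} {r0 : ℕ → ℝ}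
  {wr cr : Fin 3 → ℕ → ℝ} {w0 : ℝ} {p : Fin 11 → ℝ}

/-- the order of the sizes; no wall is used -/
theorem ord_W0 {cab cby cr cc : ℝ} (h : W0 B r0 lev w cab cby cr cc)
    (h1 : p 8 + w0 ≤ p 9 + cab) (h2 : p 9 + w0 ≤ p 10 + cby) (h3 : p 10 ≤ cr + 4 * w0)
    (h4 : p 0 + w0 < p 8 + cc) :
    Ord B r0 (uH B lev w0) (uA B lev w w0) (uB B lev w w0) (uY B lev w w0) p := by
  -- `mem_PDQ` for a legal vector with the same entries `0, 8, 9, 10`
  obtain ⟨T, hT⟩ : ∃ T : ℝ, T = |p 0| + |p 8| + |p 9| + |p 10| + |w0| + 1 := ⟨_, rfl⟩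
  have dpp := fun n a => Dp76.dpow_pos B n a
  refine ⟨fun ε hε => ?_, fun ε hε => ?_, fun ε hε => ?_, ?_⟩
  · filter_upwards [h.ab ε hε, h.pos 1] with n hn h0
    have hρ : 0 < rho (lev n 0) := rho_pos _
    have hc : 0 < B.d n ^ (p 9 + -(2 * w0)) / rho (lev n 0) := div_pos (dpp n _) hρ
    calc uB B lev w w0 n * B.d n ^ p 9 =
          w 2 n 0 * (B.d n ^ (p 9 + -(2 * w0)) / rho (lev n 0)) := by
          unfold uB
          rw [Dp76.dpow_add]; ring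
      _ ≤ (B.d n ^ (cab - ε) * w 1 n 0) * (B.d n ^ (p 9 + -(2 * w0)) / rho (lev n 0)) :=
          mul_le_mul_of_nonneg_right hn hc.le
      _ = B.d n ^ (cab - ε + (p 9 + -(2 * w0))) * (w 1 n 0 / rho (lev n 0)) := by
          rw [Dp76.dpow_add B n (cab - ε)]; ring
      _ ≤ B.d n ^ (-ε + (-w0 + p 8)) * (w 1 n 0 / rho (lev n 0)) :=
          mul_le_mul_of_nonneg_right (Dp76.dpow_le B n (by linarith)) (div_pos h0 hρ).le
      _ = _ := by
          unfold uA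
          rw [Dp76.dpow_add, Dp76.dpow_add]; ring
  · filter_upwards [h.by' ε hε, h.pos 2] with n hn h0
    have hρ : 0 < rho (lev n 0) := rho_pos _
    have hc : 0 < B.d n ^ (p 10 + -(3 * w0)) / rho (lev n 0) := div_pos (dpp n _) hρ
    calc uY B lev w w0 n * B.d n ^ p 10 =
          w 0 n 0 * (B.d n ^ (p 10 + -(3 * w0)) / rho (lev n 0)) := by
          unfold uY
          rw [Dp76.dpow_add]; ring
      _ ≤ (B.d n ^ (cby - ε) * w 2 n 0) * (B.d n ^ (p 10 + -(3 * w0)) / rho (lev n 0)) :=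
          mul_le_mul_of_nonneg_right hn hc.le
      _ = B.d n ^ (cby - ε + (p 10 + -(3 * w0))) * (w 2 n 0 / rho (lev n 0)) := by
          rw [Dp76.dpow_add B n (cby - ε)]; ring
      _ ≤ B.d n ^ (-ε + (-(2 * w0) + p 9)) * (w 2 n 0 / rho (lev n 0)) :=
          mul_le_mul_of_nonneg_right (Dp76.dpow_le B n (by linarith)) (div_pos h0 hρ).le
      _ = _ := by
          unfold uB
          rw [Dp76.dpow_add, Dp76.dpow_add]; ring
  · filter_upwards [h.res ε hε, h.pos 0] with n hn h0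
    refine hn.trans ?_
    have hρ : rho (lev n 0) = ((2 : ℝ) ^ (lev n 0))⁻¹ := by unfold rho; rw [one_div]
    have e1 : B.d n ^ (-ε) * (uY B lev w w0 n / uH B lev w0 n * B.d n ^ p 10) =
        B.d n ^ (-ε + (-(3 * w0) + (-w0 + p 10))) * w 0 n 0 := by
      unfold uY uH
      have h5 : B.d n ^ (-w0) = (B.d n ^ w0)⁻¹ := Real.rpow_neg (B.pos n).le _
      rw [Dp76.dpow_add, Dp76.dpow_add, Dp76.dpow_add, h5, hρ]
      have h6 := (dpp n w0).ne'
      have h7 : ((2 : ℝ) ^ (lev n 0)) ≠ 0 := by positivity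
      field_simp
    rw [e1]
    exact mul_le_mul_of_nonneg_right (Dp76.dpow_le B n (by linarith)) h0.le
  · obtain ⟨δ, hδ⟩ : ∃ δ : ℝ, δ = (p 8 + cc - (p 0 + w0)) / 2 := ⟨_, rfl⟩
    have hδ0 : 0 < δ := by rw [hδ]; linarith
    refine ⟨δ, hδ0, ?_⟩
    filter_upwards [h.cap δ hδ0] with n hn
    have hρ : 0 < rho (lev n 0) := rho_pos _
    have h5 : w 1 n 0 / rho (lev n 0) ≤ B.d n ^ (cc - δ) := by
      rwa [div_le_iff₀ hρ]
    calc uA B lev w w0 n * B.d n ^ (p 8 - p 0 - δ) =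
          (w 1 n 0 / rho (lev n 0)) * B.d n ^ (-w0 + (p 8 - p 0 - δ)) := by
          unfold uA
          rw [Dp76.dpow_add]; ring
      _ ≤ B.d n ^ (cc - δ) * B.d n ^ (-w0 + (p 8 - p 0 - δ)) :=
          mul_le_mul_of_nonneg_right h5 (dpp n _).le
      _ = B.d n ^ (cc - δ + (-w0 + (p 8 - p 0 - δ))) := (Dp76.dpow_add _ _ _ _).symm
      _ ≤ B.d n ^ (0 : ℝ) := Dp76.dpow_le B n (by rw [hδ]; linarith)
      _ = 1 := Real.rpow_zero _

/-- explicit sizes -/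
theorem SQ_eq1 (n : ℕ) : SQ B lev w w0 p 1 n = w 1 n 0 * B.d n ^ (-w0 + p 8 - w0) := by
  have hd := B.pos n
  have hn : B.d n ^ (-w0) = (B.d n ^ w0)⁻¹ := Real.rpow_neg hd.le _
  have h5 := (Dp76.dpow_pos B n w0).ne'
  show w 1 n 0 / rho (lev n 0) * B.d n ^ (-w0) * B.d n ^ p 8 / uH B lev w0 n = _
  rw [sub_eq_add_neg, Dp76.dpow_add, Dp76.dpow_add, hn]
  unfold uH rho
  field_simp

/-- explicit sizes -/
theorem SQ_eq2 (n : ℕ) : SQ B lev w w0 p 2 n = w 2 n 0 * B.d n ^ (-(2 * w0) + p 9 - w0) := by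
  have hd := B.pos n
  have hn : B.d n ^ (-w0) = (B.d n ^ w0)⁻¹ := Real.rpow_neg hd.le _
  have h5 := (Dp76.dpow_pos B n w0).ne'
  show w 2 n 0 / rho (lev n 0) * B.d n ^ (-(2 * w0)) * B.d n ^ p 9 / uH B lev w0 n = _
  rw [sub_eq_add_neg, Dp76.dpow_add, Dp76.dpow_add, hn]
  unfold uH rho
  field_simp

/-- explicit sizes -/
theorem SQ_eq0 (n : ℕ) : SQ B lev w w0 p 0 n = w 0 n 0 * B.d n ^ (-(3 * w0) + p 10 - w0) := by
  have hd := B.pos n
  have hn : B.d n ^ (-w0) = (B.d n ^ w0)⁻¹ := Real.rpow_neg hd.le _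
  have h5 := (Dp76.dpow_pos B n w0).ne'
  show w 0 n 0 / rho (lev n 0) * B.d n ^ (-(3 * w0)) * B.d n ^ p 10 / uH B lev w0 n = _
  rw [sub_eq_add_neg, Dp76.dpow_add, Dp76.dpow_add, hn]
  unfold uH rho
  field_simp

/-- sizes against the range -/
theorem rng_SQ (hwr : Rng B wr cr w) (k : Fin 3) (C : ℝ) :
    ∀ᶠ n in (U : Filter ℕ), wr k n ≤ B.d n ^ C * SQ B lev w w0 p k n ∧
      SQ B lev w w0 p k n ≤ B.d n ^ C * cr k n := by
  obtain ⟨y, hy⟩ : ∃ y : ℝ, ∀ n, SQ B lev w w0 p k n = w k n 0 * B.d n ^ y := by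
    fin_cases k
    · exact ⟨_, SQ_eq0⟩
    · exact ⟨_, SQ_eq1⟩
    · exact ⟨_, SQ_eq2⟩
  filter_upwards [rng_mul hwr k (C + y), hwr (C - y) k 0 le_rfl zero_le_one] with n h h'
  rw [hy]
  refine ⟨h.1.trans (le_of_eq ?_), ?_⟩
  · rw [Dp76.dpow_add]; ring
  · have h2 := mul_le_mul_of_nonneg_right h'.2 (Dp76.dpow_pos B n y).le
    refine h2.trans (le_of_eq ?_)
    rw [mul_right_comm, ← Dp76.dpow_add, sub_add_cancel]

/-- the narrow resolution against the size `1`, the size `2` against the wide end -/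
theorem rng_SQ21 {cab cby cc cr' : ℝ} (h : W0 B r0 lev w cab cby cr' cc)
    (hwr : Rng B wr cr w) (C : ℝ) : ∀ᶠ n in (U : Filter ℕ),
      wr 2 n ≤ B.d n ^ C * SQ B lev w w0 p 1 n ∧ SQ B lev w w0 p 2 n ≤ B.d n ^ C * cr 1 n := by
  filter_upwards [hwr (C + (-w0 + p 8 - w0) - (cab - 1)) 2 0 le_rfl zero_le_one,
    hwr (C - (-(2 * w0) + p 9 - w0) - (cab - 1)) 1 0 le_rfl zero_le_one,
    h.ab 1 one_pos] with n h1 h1' h2
  have dpp := fun a => Dp76.dpow_pos B n a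
  constructor
  · have h3 := mul_le_mul_of_nonneg_left h2 (dpp (C + (-w0 + p 8 - w0) - (cab - 1))).le
    refine (h1.1.trans h3).trans (le_of_eq ?_)
    rw [SQ_eq1, ← mul_assoc, ← Dp76.dpow_add,
      show C + (-w0 + p 8 - w0) - (cab - 1) + (cab - 1) = C + (-w0 + p 8 - w0) by ring,
      Dp76.dpow_add B n C]
    ring
  · rw [SQ_eq2]
    have h3 := mul_le_mul_of_nonneg_right h2 (dpp (-(2 * w0) + p 9 - w0)).le
    have h4 := mul_le_mul_of_nonneg_left h1'.2 (dpp (cab - 1)).le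
    have h5 := mul_le_mul_of_nonneg_right h4 (dpp (-(2 * w0) + p 9 - w0)).le
    refine h3.trans (h5.trans (le_of_eq ?_))
    rw [← mul_assoc, ← Dp76.dpow_add, mul_right_comm, ← Dp76.dpow_add]
    congr 2
    ring

/-- `TubeOk` from `Ord` -/
theorem tubeOk_ord (hwr : Rng B wr cr w) (hpos : ∀ j, ∀ᶠ n in (U : Filter ℕ), 0 < w j n 0)
    (hO : Ord B r0 (uH B lev w0) (uA B lev w w0) (uB B lev w w0) (uY B lev w w0) p) :
    TubeOk B r0 wr cr lev (p 0 - w0)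
      (fun k => SQ B lev w w0 p ((1 : Equiv.Perm (Fin 3)) k)) where
  rn k C := rng_SQ hwr k C
  pos k := by
    filter_upwards [hpos 0, hpos 1, hpos 2] with n h0 h1 h2
    exact SQ_pos h0 h1 h2 _
  o02 ε hε := by
    filter_upwards [hO.by' ε hε] with n hn
    have H := uH_pos (B := B) (lev := lev) (w0 := w0) n
    show uY B lev w w0 n * B.d n ^ p 10 / uH B lev w0 n ≤
      B.d n ^ (-ε) * (uB B lev w w0 n * B.d n ^ p 9 / uH B lev w0 n)
    rw [← mul_div_assoc]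
    exact div_le_div_of_nonneg_right hn H.le
  o21 ε hε := by
    filter_upwards [hO.ab ε hε] with n hn
    have H := uH_pos (B := B) (lev := lev) (w0 := w0) n
    show uB B lev w w0 n * B.d n ^ p 9 / uH B lev w0 n ≤
      B.d n ^ (-ε) * (uA B lev w w0 n * B.d n ^ p 8 / uH B lev w0 n)
    rw [← mul_div_assoc]
    exact div_le_div_of_nonneg_right hn H.le
  res ε hε := by
    filter_upwards [hO.res ε hε] with n hn
    show r0 n ≤ B.d n ^ (-ε) * (uY B lev w w0 n * B.d n ^ p 10 / uH B lev w0 n)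
    refine hn.trans (le_of_eq ?_)
    ring
  cap := by
    obtain ⟨δ, hδ, h⟩ := hO.cap
    refine ⟨δ, hδ, ?_⟩
    filter_upwards [h] with n hn
    have H := uH_pos (B := B) (lev := lev) (w0 := w0) n
    have hd := Dp76.dpow_pos B n
    show uA B lev w w0 n * B.d n ^ p 8 / uH B lev w0 n ≤
      B.d n ^ (p 0 - w0 + δ) * rho (lev n 0)
    have e1 : B.d n ^ (p 0 - w0 + δ) * rho (lev n 0) = B.d n ^ (p 0 + δ) / uH B lev w0 n := by
      rw [show p 0 - w0 + δ = (p 0 - w0) + δ by ring, Dp76.dpow_add,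
        mul_right_comm, len_eq, Dp76.dpow_add]
      ring
    rw [e1]
    refine div_le_div_of_nonneg_right ?_ H.le
    have h2 := mul_le_mul_of_nonneg_right hn (hd (p 0 + δ)).le
    rw [one_mul, mul_assoc, ← Dp76.dpow_add, show p 8 - p 0 - δ + (p 0 + δ) = p 8 by ring] at h2
    exact h2

end

section

variable {B : Base} {I : ℕ → Finset (ℕ × ℝ)} {lev : ℕ → ℚ → ℕ}
    {A : ℕ → ℝ} {g s : ℝ} {τ : Fin 3 → ℝ → ℝ} {f : ℕ → ℚ → ℕ → ℤ → ℕ} {b : ℕ → ℚ → ℕ → K4.Plk4}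
    {vm : ℕ → ℚ → ℝ} {w : Fin 3 → ℕ → ℚ → ℝ} {L : ℕ → ℕ → Ln4} {r0 : ℕ → ℝ}
    {wr cr : Fin 3 → ℕ → ℝ} {q : Fin 3 → ℝ} {π : Equiv.Perm (Fin 3)} {E Fa Fb : ℕ → ℕ × ℝ → ℝ} {w0 R : ℝ} {p : Fin 11 → ℝ}

open Classical in
/-- **D-max for a sheared chart box**, sizes in the usual order: only the walls
`X_a ≤ z + C_a`, `X_b ≤ z + C_b`, `N ≤ z + P` are used. -/
theorem gD_shear (hM : MkA B I (geo4 L r0 wr cr q) lev A (fun v => g * v) (fun v => s * v) τ f b vm w)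
    (hwr : Rng B wr cr w) (hq : ∀ j, 0 ≤ q j)
    (hE : ∀ n, ∀ x ∈ I n, |E n x| ≤ 1) (hFa : ∀ n, ∀ x ∈ I n, |Fa n x| ≤ 1)
    (hFb : ∀ n, ∀ x ∈ I n, |Fb n x| ≤ 1)
    (w8 : p 8 ≤ p 0 + p 5) (w9 : p 9 ≤ p 0 + p 6) (w10 : p 10 ≤ p 0 + p 7)
    (hp0 : w0 ≤ p 0) (hp1 : p 0 ≤ w0 + 1)
    (hO : Ord B r0 (uH B lev w0) (uA B lev w w0) (uB B lev w w0) (uY B lev w w0) p)
    {K ε : ℝ} (hK : 0 < K) (hε : 0 < ε) :
    ∃ δ : ℝ, 0 < δ ∧ ∀ᶠ n in (U : Filter ℕ), ∀ x ∈ I n, ∀ μ lam nu : ℝ,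
      |μ| * uB B lev w w0 n ≤ B.d n ^ (-δ) * uA B lev w w0 n →
      |lam| * uY B lev w w0 n ≤ B.d n ^ (-δ) * uA B lev w w0 n →
      |nu| * uY B lev w w0 n ≤ B.d n ^ (-δ) * uB B lev w w0 n →
      (((I n).filter fun y => NearS (couQ B lev w w0 (incQ π L E Fa Fb) n x y) (B.d n) p
        (K * B.d n ^ (-δ)) μ lam nu).card : ℝ) ≤
      N0Q A vm n * B.d n ^ (-(DQ g s q w0 p + ε)) := by
  have hpos : ∀ j, ∀ᶠ n in (U : Filter ℕ), 0 < w j n 0 := fun j => hM.wpos j 0 le_rfl zero_le_one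
  obtain ⟨δ, hδ, h⟩ := gD_any (π := π) (E := E) (Fa := Fa) (Fb := Fb) hM hq hE hFa hFb 1 w8 w9
    w10 hp0 hp1 (tubeOk_ord hwr hpos hO) hε
  have hδ2 : 0 < δ / 2 := by linarith
  refine ⟨δ / 2, hδ2, ?_⟩
  filter_upwards [h, hpos 0, hpos 1, hpos 2, ev_const B hK hδ2] with n hn h0 h1 h2 hKn x hx μ lam
    nu hμ hlam hnu
  have a := uA_pos (B := B) (lev := lev) (w0 := w0) h1
  have b := uB_pos (B := B) (lev := lev) (w0 := w0) h2
  have dd : B.d n ^ (-(δ / 2)) ≤ B.d n ^ (-δ) := Dp76.dpow_le B n (by linarith)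
  have := hn x hx μ lam nu (hμ.trans (mul_le_mul_of_nonneg_right dd a.le))
    (hlam.trans (mul_le_mul_of_nonneg_right dd a.le))
    (hnu.trans (mul_le_mul_of_nonneg_right dd b.le))
  rw [rnk_one (fun k => SQ_pos h0 h1 h2 k), mul_one] at this
  refine le_trans ?_ this
  norm_cast
  refine Finset.card_le_card fun y hy => ?_
  rw [mem_filter] at hy ⊢
  refine ⟨hy.1, hy.2.mono (B.pos n) ?_⟩
  have h3 := const_le hKn
  calc K * B.d n ^ (-(δ / 2)) ≤ B.d n ^ (-(δ / 2)) * B.d n ^ (-(δ / 2)) :=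
        mul_le_mul_of_nonneg_right h3 (Dp76.dpow_pos B n _).le
    _ = B.d n ^ (-δ) := by rw [← Dp76.dpow_add]; congr 1; ring

end

end Crest.Agent.R136.GeoQ186
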