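import Crest.Agent.R136.GeoM3_778

/-!
# R136, [GEO-D] for the W-chart, numerical form (helper778)

`NumW` : the sizes of the box and their relations; `gdM_num` : `gdM` for these sizes.
-/

set_option autoImplicit false
set_option linter.unusedVariables false
set_option maxHeartbeats 400000

namespace Crest.Agent.R136.GeoN778

open Crest.Agent.R136.Sh605
open Crest.Agent.R136.NetW191
open Crest.Agent.R136.GeoW778 (qS TrueW dB DW EW)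

/-- the `k`-coordinate of a line is affine in the unit height -/
theorem xh_aff {u : Un} (hu : u.Ok) (T : Ln4) (zm : ℝ) (k : Fin 3) : ∃ Am cA : ℝ,
    ∀ z, u.xh (T.pos z) k = Am + cA * (u.zh z - zm) := by
  refine ⟨(T.p k + u.zc * T.v k) / u.W k + T.v k * u.H / u.W k * zm, T.v k * u.H / u.W k, ?_⟩
  intro z
  have h1 := hu.H0.ne'
  have h2 := (hu.W0 k).ne'
  simp only [Un.xh, Un.zh, Ln4.pos]
  field_simp
  ring

/-- slope and position of a bent line -/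
theorem slope_bent {u : Un} {Q : Qd} {κ σ : ℝ} {i : FW} {η X : ℝ} {T M : Ln4} (hη1 : η ≤ 1)
    (hX : 1 ≤ X) (hV : ∀ k, |M.v k| ≤ X) {Am cA zm za zb zc' : ℝ}
    (hT : ∀ z, u.xh (T.pos z) 1 = Am + cA * (u.zh z - zm))
    (ha : Bent u Q κ σ i η T M za) (hb : Bent u Q κ σ i η T M zb)
    (hab : u.zh zb - u.zh za = 1) (hc : Bent u Q κ σ i η T M zc') (hcm : u.zh zc' = zm)
    (hMX : ∀ z', |z' - zm| ≤ 1 → ∀ k, |M.pos z' k| ≤ X) :
    |cA - M.v 1| ≤ 4 * η * X ∧ |cA| ≤ 5 * X ∧ |Am| ≤ 5 * X := by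
  obtain ⟨z1, h1, h2, -⟩ := ha
  obtain ⟨z2, k1, k2, -⟩ := hb
  obtain ⟨z3, l1, l2, -⟩ := hc
  have hη : 0 ≤ η := (abs_nonneg _).trans h1
  have hX0 : 0 ≤ X := by linarith
  have e1 := h2 1
  have e2 := k2 1
  have e3 := l2 1
  rw [hT] at e1 e2 e3
  rw [hcm] at l1 e3
  simp only [Ln4.pos] at e1 e2
  have hv := hV 1
  have key : cA - M.v 1 = ((Am + cA * (u.zh zb - zm) - (M.p 1 + z2 * M.v 1)) -
      (Am + cA * (u.zh za - zm) - (M.p 1 + z1 * M.v 1))) +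
      ((z2 - u.zh zb) - (z1 - u.zh za)) * M.v 1 := by
    have : u.zh zb = u.zh za + 1 := by linarith
    rw [this]; ring
  have hηX : η ≤ η * X := le_mul_of_one_le_right hη hX
  have hηX' : η * X ≤ X := mul_le_of_le_one_left hX0 hη1
  have hcA : |cA - M.v 1| ≤ 4 * η * X := by
    rw [key]
    have := a2 (s2 e2 e1) (m2 (s2 k1 h1) hv)
    linarith
  refine ⟨hcA, ?_, ?_⟩
  · have := abs_add_le (cA - M.v 1) (M.v 1)
    rw [sub_add_cancel] at this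
    linarith
  · have m := hMX z3 (l1.trans hη1) 1
    rw [sub_self, mul_zero, add_zero] at e3
    have := abs_add_le (Am - M.pos z3 1) (M.pos z3 1)
    rw [sub_add_cancel] at this
    linarith

/-- the sizes of a box: `b2`, `b3` = sizes of the slots `A`, `B`, `n17` = size of the last slot,
`P` = length of the cell, `Z` = a large factor, `S` = bound of the physical slopes,
`X`, `Γ` = bounds of the coordinates and flags -/
structure NumW (u : Un) (κ σ Γ X S η K Z P b2 b3 n17 : ℝ) (s : Fin 18 → ℝ) : Prop where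
  κ1 : |κ| ≤ 1
  σ0 : 0 < σ
  Γ0 : 0 ≤ Γ
  K1 : 1 ≤ K
  X1 : 1 ≤ X
  S1 : 1 ≤ S
  KS : 1000 * (K ^ 3 * S) ≤ Z
  P0 : 0 ≤ P
  PZ : P * Z ^ 3 ≤ 1
  η0 : 0 ≤ η
  b20 : 0 < b2
  b30 : 0 < b3
  n0 : 0 < n17
  s1 : 0 ≤ s 1
  hs2 : s 2 ≤ K * b2
  hs1 : P * s 1 ≤ K * b2
  hs3 : s 3 ≤ K * b3
  hs1' : P * s 1 ^ 2 ≤ K ^ 2 * b3
  hs17 : s 17 ≤ K * n17
  hs16 : P * s 16 ≤ K * n17
  hs13 : P ^ 2 * s 13 ≤ K * n17
  e1 : 100 * X ^ 2 * η ≤ b2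
  e2 : 100 * X ^ 2 * η ≤ b3
  e3 : 20 * X ^ 2 * (Γ * σ) ≤ b3
  e4 : σ * EW Γ 3 X X 1 ≤ n17
  e5 : σ * DW Γ 3 X X 1 ≤ 1
  e6 : σ * n17 ≤ b3
  e7 : 100 * X * η * (b2 * Z ^ 8) ≤ P * b3
  e8 : 100 * X * S * η ≤ P
  g1 : b2 ^ 2 * Z ^ 12 ≤ b3
  g2 : u.WB * b3 ≤ Z * (u.WA * b2)
  g3 : b2 * Z ^ 8 ≤ X
  g4 : b3 * Z ^ 6 ≤ X

/-- the normal extent of the box -/
def YW (σ Z P b2 b3 n17 : ℝ) : ℝ := b2 ^ 2 * Z ^ 17 + P * b3 * Z ^ 8 + σ * n17 * Z ^ 4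

namespace NumW

variable {u : Un} {κ σ Γ X S η K Z P b2 b3 n17 : ℝ} {s : Fin 18 → ℝ}

theorem K3 (h : NumW u κ σ Γ X S η K Z P b2 b3 n17 s) : 1 ≤ K ^ 3 := one_le_pow₀ h.K1

theorem ZK (h : NumW u κ σ Γ X S η K Z P b2 b3 n17 s) : 1000 * K ^ 3 ≤ Z := by
  have h1 := h.K3
  have h2 := h.S1
  have h3 := h.KS
  nlinarith

theorem ZS (h : NumW u κ σ Γ X S η K Z P b2 b3 n17 s) : 1000 * S ≤ Z := by
  have h1 := h.K3
  have h2 := h.S1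
  have h3 := h.KS
  nlinarith

theorem Zl (h : NumW u κ σ Γ X S η K Z P b2 b3 n17 s) : 1000 ≤ Z := by
  linarith [h.K3, h.ZK]

theorem Z0 (h : NumW u κ σ Γ X S η K Z P b2 b3 n17 s) : 0 < Z := by linarith [h.Zl]

theorem mulZ (h : NumW u κ σ Γ X S η K Z P b2 b3 n17 s) {y : ℝ} (hy : 0 ≤ y) :
    1000 * y ≤ Z * y := mul_le_mul_of_nonneg_right h.Zl hy

/-- a power of `Z` gains a factor `1000` -/
theorem pw (h : NumW u κ σ Γ X S η K Z P b2 b3 n17 s) {y : ℝ} (hy : 0 ≤ y) (m : ℕ) :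
    1000 * (y * Z ^ m) ≤ y * Z ^ (m + 1) := by
  have := h.mulZ (mul_nonneg hy (pow_nonneg h.Z0.le m))
  refine this.trans (le_of_eq ?_)
  ring

theorem pw' (h : NumW u κ σ Γ X S η K Z P b2 b3 n17 s) {y : ℝ} (hy : 0 ≤ y) {m k : ℕ}
    (hmk : m ≤ k) : y * Z ^ m ≤ y * Z ^ k :=
  mul_le_mul_of_nonneg_left (pow_le_pow_right₀ (by linarith [h.Zl]) hmk) hy

theorem PZ1 (h : NumW u κ σ Γ X S η K Z P b2 b3 n17 s) : 1000 * (P * Z) ≤ 1 := by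
  have h1 := h.pw h.P0 1
  have h2 := h.pw' h.P0 (show 1 + 1 ≤ 3 by norm_num)
  rw [pow_one] at h1
  linarith [h.PZ]

theorem PZK (h : NumW u κ σ Γ X S η K Z P b2 b3 n17 s) : 1000 * (K * (P * Z)) ≤ 1 := by
  have h1 := h.K3
  have hK0 : 0 < K := by linarith [h.K1]
  have h2 : K ≤ K ^ 3 := by nlinarith [h.K1, mul_pos hK0 hK0]
  have h3 : 1000 * K ≤ Z := by linarith [h.ZK]
  have h4 := mul_le_mul_of_nonneg_right h3 (mul_nonneg h.P0 h.Z0.le)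
  have h5 : Z * (P * Z) = P * Z ^ 2 := by ring
  have h6 := h.pw' h.P0 (show 2 ≤ 3 by norm_num)
  linarith [h.PZ]

theorem PZS (h : NumW u κ σ Γ X S η K Z P b2 b3 n17 s) : 1000 * (S * (P * Z)) ≤ 1 := by
  have h4 := mul_le_mul_of_nonneg_right h.ZS (mul_nonneg h.P0 h.Z0.le)
  have h5 : Z * (P * Z) = P * Z ^ 2 := by ring
  have h6 := h.pw' h.P0 (show 2 ≤ 3 by norm_num)
  linarith [h.PZ]

theorem P1 (h : NumW u κ σ Γ X S η K Z P b2 b3 n17 s) : 1000000 * P ≤ 1 := by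
  have h1 := h.PZ1
  have h2 := mul_le_mul_of_nonneg_left h.Zl h.P0
  linarith

theorem ηX (h : NumW u κ σ Γ X S η K Z P b2 b3 n17 s) : 100 * (X * η) ≤ P := by
  have h1 := h.e8
  have h2 : X * η ≤ X * η * S :=
    le_mul_of_one_le_right (mul_nonneg (by linarith [h.X1]) h.η0) h.S1
  nlinarith

theorem η1 (h : NumW u κ σ Γ X S η K Z P b2 b3 n17 s) : 100 * η ≤ P := by
  have h1 := h.ηX
  have h2 : η ≤ X * η := le_mul_of_one_le_left h.η0 h.X1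
  linarith

theorem YW_pos (h : NumW u κ σ Γ X S η K Z P b2 b3 n17 s) : 0 < YW σ Z P b2 b3 n17 := by
  have h0 := h.P0
  have h1 := h.b20
  have h2 := h.b30
  have h3 := h.n0
  have h4 := h.σ0
  have h5 := h.Z0
  unfold YW
  positivity

/-- the normal extent is at most `3 b3 Z^5` -/
theorem YW_le (h : NumW u κ σ Γ X S η K Z P b2 b3 n17 s) :
    YW σ Z P b2 b3 n17 ≤ 3 * (b3 * Z ^ 5) := by
  have hz := h.Z0
  have a1 : b2 ^ 2 * Z ^ 17 ≤ b3 * Z ^ 5 := by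
    have := mul_le_mul_of_nonneg_right h.g1 (pow_nonneg hz.le 5)
    refine le_trans (le_of_eq ?_) this
    ring
  have a2 : P * b3 * Z ^ 8 ≤ b3 * Z ^ 5 := by
    have := mul_le_mul_of_nonneg_right h.PZ (mul_nonneg h.b30.le (pow_nonneg hz.le 5))
    rw [one_mul] at this
    refine le_trans (le_of_eq ?_) this
    ring
  have a3 : σ * n17 * Z ^ 4 ≤ b3 * Z ^ 5 := by
    have h1 := mul_le_mul_of_nonneg_right h.e6 (pow_nonneg hz.le 4)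
    exact h1.trans (h.pw' h.b30.le (by norm_num))
  unfold YW
  linarith

theorem YW_le6 (h : NumW u κ σ Γ X S η K Z P b2 b3 n17 s) :
    300 * YW σ Z P b2 b3 n17 ≤ b3 * Z ^ 6 := by
  have h1 := h.YW_le
  have h2 : 1000 * (b3 * Z ^ 5) ≤ b3 * Z ^ 6 := h.pw h.b30.le 5
  have h3 : 0 ≤ b3 * Z ^ 5 := mul_nonneg h.b30.le (pow_nonneg h.Z0.le 5)
  linarith

theorem hRa (h : NumW u κ σ Γ X S η K Z P b2 b3 n17 s) :
    s 2 + 3 * (K * (P * Z)) * s 1 + 2 * η * (1 + X) ≤ b2 * Z ^ 3 := by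
  have hK := h.K1
  have hK0 : 0 < K := by linarith
  have hz := h.Z0
  have hb := h.b20
  have hx := h.X1
  have h1 : 3 * (K * (P * Z)) * s 1 = 3 * K * Z * (P * s 1) := by ring
  have h2 : 3 * K * Z * (P * s 1) ≤ 3 * K * Z * (K * b2) :=
    mul_le_mul_of_nonneg_left h.hs1 (by positivity)
  have h3 : 2 * η * (1 + X) ≤ b2 := by
    have i1 : 1 + X ≤ 2 * X ^ 2 := by nlinarith
    have i2 := mul_le_mul_of_nonneg_left i1 (mul_nonneg (by norm_num : (0 : ℝ) ≤ 2) h.η0)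
    have i3 : 0 ≤ X ^ 2 * η := mul_nonneg (sq_nonneg _) h.η0
    linarith [h.e1]
  have K2 : K ^ 2 ≤ K ^ 3 := pow_le_pow_right₀ hK (by norm_num)
  have K1' : K ≤ K ^ 3 := by
    have := pow_le_pow_right₀ hK (show 1 ≤ 3 by norm_num)
    rwa [pow_one] at this
  have h4 : K * b2 ≤ K ^ 3 * b2 := mul_le_mul_of_nonneg_right K1' hb.le
  have h4' : 1 * b2 ≤ K ^ 3 * b2 := mul_le_mul_of_nonneg_right h.K3 hb.le
  have h5 : K ^ 2 * (b2 * Z) ≤ K ^ 3 * (b2 * Z) :=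
    mul_le_mul_of_nonneg_right K2 (by positivity)
  have h6 : K ^ 3 * b2 ≤ K ^ 3 * b2 * Z := le_mul_of_one_le_right (by positivity) (by linarith [h.Zl])
  have h7 := mul_le_mul_of_nonneg_right h.ZK (show 0 ≤ b2 * Z by positivity)
  have h8 : Z * (b2 * Z) = b2 * Z ^ 2 := by ring
  have h9 := h.pw' hb.le (show 2 ≤ 3 by norm_num)
  have h10 := h.hs2
  rw [h1]
  linarith

theorem hRb (h : NumW u κ σ Γ X S η K Z P b2 b3 n17 s) :
    s 3 + 3 * (K * (P * Z)) * s 1 ^ 2 +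
      2 * (σ * (Γ * (1 + 3 * X + 6 * X ^ 2)) * (3 * (K * (P * Z)))) +
      2 * η * (1 + X) * (1 + 2 * X) + 2 * (4 * η * X) * (b2 * Z ^ 3) ≤ b3 * Z ^ 3 := by
  have hK := h.K1
  have hK0 : 0 < K := by linarith
  have hz := h.Z0
  have hb := h.b30
  have hx := h.X1
  have hs := h.σ0
  have hg := h.Γ0
  have he := h.η0
  have h1 : 3 * (K * (P * Z)) * s 1 ^ 2 = 3 * K * Z * (P * s 1 ^ 2) := by ring
  have h2 : 3 * K * Z * (P * s 1 ^ 2) ≤ 3 * K * Z * (K ^ 2 * b3) :=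
    mul_le_mul_of_nonneg_left h.hs1' (by positivity)
  have h3 : 2 * (σ * (Γ * (1 + 3 * X + 6 * X ^ 2)) * (3 * (K * (P * Z)))) ≤ b3 := by
    have q1 : σ * (Γ * (1 + 3 * X + 6 * X ^ 2)) * (3 * (K * (P * Z))) ≤
        σ * (Γ * (1 + 3 * X + 6 * X ^ 2)) * 1 :=
      mul_le_mul_of_nonneg_left (by linarith [h.PZK]) (by positivity)
    have q2 : Γ * σ * (1 + 3 * X + 6 * X ^ 2) ≤ Γ * σ * (10 * X ^ 2) :=
      mul_le_mul_of_nonneg_left (by nlinarith) (by positivity)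
    linarith [h.e3]
  have h3' : 2 * η * (1 + X) * (1 + 2 * X) ≤ b3 := by
    have q1 : (1 + X) * (1 + 2 * X) ≤ 6 * X ^ 2 := by nlinarith
    have q2 := mul_le_mul_of_nonneg_left q1 (show 0 ≤ 2 * η by positivity)
    have q3 : 0 ≤ X ^ 2 * η := mul_nonneg (sq_nonneg _) he
    linarith [h.e2]
  have h3'' : 2 * (4 * η * X) * (b2 * Z ^ 3) ≤ b3 := by
    have q1 : b2 * Z ^ 3 ≤ b2 * Z ^ 8 := h.pw' h.b20.le (by norm_num)
    have q2 := mul_le_mul_of_nonneg_left q1 (show 0 ≤ X * η by positivity)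
    have q3 : 0 ≤ X * η * (b2 * Z ^ 3) := by have := h.b20; positivity
    have q4 : P * b3 ≤ 1 * b3 := mul_le_mul_of_nonneg_right (by linarith [h.P1, h.P0]) hb.le
    linarith [h.e7]
  have K1' : K ≤ K ^ 3 := by
    have := pow_le_pow_right₀ hK (show 1 ≤ 3 by norm_num)
    rwa [pow_one] at this
  have h4 : K * b3 ≤ K ^ 3 * b3 := mul_le_mul_of_nonneg_right K1' hb.le
  have h4' : 1 * b3 ≤ K ^ 3 * b3 := mul_le_mul_of_nonneg_right h.K3 hb.le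
  have h5 : 3 * K * Z * (K ^ 2 * b3) = 3 * (K ^ 3 * b3 * Z) := by ring
  have h6 : K ^ 3 * b3 ≤ K ^ 3 * b3 * Z := le_mul_of_one_le_right (by positivity) (by linarith [h.Zl])
  have h7 := mul_le_mul_of_nonneg_right h.ZK (show 0 ≤ b3 * Z by positivity)
  have h8 : Z * (b3 * Z) = b3 * Z ^ 2 := by ring
  have h9 := h.pw' hb.le (show 2 ≤ 3 by norm_num)
  have h10 := h.hs3
  rw [h1]
  linarith

theorem DWm (h : NumW u κ σ Γ X S η K Z P b2 b3 n17 s) :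
    DW Γ 3 X X (3 * (K * (P * Z))) ≤ DW Γ 3 X X 1 := by
  have hx := h.X1
  have hg := h.Γ0
  have h1 : 0 ≤ Γ * (1 + 3 * X + 6 * X ^ 2) := by positivity
  have := mul_le_mul_of_nonneg_left (show 3 * (K * (P * Z)) ≤ 1 by linarith [h.PZK]) h1
  simp only [GeoW778.DW]
  linarith

theorem EWm (h : NumW u κ σ Γ X S η K Z P b2 b3 n17 s) :
    EW Γ 3 X X (3 * (K * (P * Z))) ≤ EW Γ 3 X X 1 := by
  have hx := h.X1
  have hg := h.Γ0
  simp only [GeoW778.EW]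
  exact mul_le_mul_of_nonneg_left h.DWm (by positivity)

theorem hsm (h : NumW u κ σ Γ X S η K Z P b2 b3 n17 s) :
    σ * DW Γ 3 X X (3 * (K * (P * Z))) ≤ 1 :=
  (mul_le_mul_of_nonneg_left h.DWm h.σ0.le).trans h.e5

theorem hAn (h : NumW u κ σ Γ X S η K Z P b2 b3 n17 s) :
    4 * (σ * (s 17 + 3 * (K * (P * Z)) * s 16 + (3 * (K * (P * Z))) ^ 2 * s 13 +
      σ * EW Γ 3 X X (3 * (K * (P * Z))))) ≤ σ * n17 * Z ^ 3 := by
  have hK := h.K1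
  have hK0 : 0 < K := by linarith
  have hz := h.Z0
  have hn := h.n0
  have h1 : 3 * (K * (P * Z)) * s 16 = 3 * K * Z * (P * s 16) := by ring
  have h2 : 3 * K * Z * (P * s 16) ≤ 3 * K * Z * (K * n17) :=
    mul_le_mul_of_nonneg_left h.hs16 (by positivity)
  have h1' : (3 * (K * (P * Z))) ^ 2 * s 13 = 9 * K ^ 2 * Z ^ 2 * (P ^ 2 * s 13) := by ring
  have h2' : 9 * K ^ 2 * Z ^ 2 * (P ^ 2 * s 13) ≤ 9 * K ^ 2 * Z ^ 2 * (K * n17) :=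
    mul_le_mul_of_nonneg_left h.hs13 (by positivity)
  have h3 : σ * EW Γ 3 X X (3 * (K * (P * Z))) ≤ n17 :=
    (mul_le_mul_of_nonneg_left h.EWm h.σ0.le).trans h.e4
  have K2 : K ^ 2 ≤ K ^ 3 := pow_le_pow_right₀ hK (by norm_num)
  have K1' : K ≤ K ^ 3 := by
    have := pow_le_pow_right₀ hK (show 1 ≤ 3 by norm_num)
    rwa [pow_one] at this
  have q0 : 0 ≤ K ^ 3 * n17 := by positivity
  have z1 : K ^ 3 * n17 * Z ≤ K ^ 3 * n17 * Z ^ 2 := by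
    have := h.pw' q0 (show 1 ≤ 2 by norm_num)
    rwa [pow_one] at this
  have z0 : K ^ 3 * n17 ≤ K ^ 3 * n17 * Z ^ 2 := le_mul_of_one_le_right q0
    (one_le_pow₀ (by linarith [h.Zl]))
  have q1 : K * n17 ≤ K ^ 3 * n17 := mul_le_mul_of_nonneg_right K1' hn.le
  have q4 : 1 * n17 ≤ K ^ 3 * n17 := mul_le_mul_of_nonneg_right h.K3 hn.le
  have q2 : K ^ 2 * (n17 * Z) ≤ K ^ 3 * (n17 * Z) :=
    mul_le_mul_of_nonneg_right K2 (by positivity)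
  have q3 : 9 * K ^ 2 * Z ^ 2 * (K * n17) = 9 * (K ^ 3 * n17 * Z ^ 2) := by ring
  have q5 := mul_le_mul_of_nonneg_right h.ZK (show 0 ≤ n17 * Z ^ 2 by positivity)
  have q7 : Z * (n17 * Z ^ 2) = n17 * Z ^ 3 := by ring
  have h17 := h.hs17
  rw [h1, h1']
  have q6 : 4 * (s 17 + 3 * K * Z * (P * s 16) + 9 * K ^ 2 * Z ^ 2 * (P ^ 2 * s 13) +
      σ * EW Γ 3 X X (3 * (K * (P * Z)))) ≤ n17 * Z ^ 3 := by linarith
  have := mul_le_mul_of_nonneg_left q6 h.σ0.le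
  linarith

section coef

variable {Am cA zm : ℝ}

theorem c1 (h : NumW u κ σ Γ X S η K Z P b2 b3 n17 s) (hc : |cA| ≤ 5 * X) :
    |2 * κ * cA| ≤ 10 * X := by
  rw [abs_mul, abs_mul, abs_two]
  have h1 := mul_le_mul h.κ1 hc (abs_nonneg _) zero_le_one
  linarith

theorem c3 (h : NumW u κ σ Γ X S η K Z P b2 b3 n17 s) (hc : |cA| ≤ 5 * X) (hz : |zm| ≤ 2) :
    |zm| * |2 * κ * cA| ≤ 20 * X := by
  have := mul_le_mul hz (h.c1 hc) (abs_nonneg _) (by norm_num)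
  linarith

/-- the normal displacement -/
noncomputable def RnW (κ σ η Z P b2 b3 n17 Am cA zm : ℝ) : ℝ :=
  2 * (2 * (σ * n17 * Z ^ 3) + P * Z * (b3 * Z ^ 3) + |κ| * (b2 * Z ^ 3) ^ 2 +
    η * ((1 + |2 * κ * Am|) * (b2 * Z ^ 3) +
      (1 + |zm|) * (b3 * Z ^ 3 + |2 * κ * cA| * (b2 * Z ^ 3))))

theorem RnW_le (h : NumW u κ σ Γ X S η K Z P b2 b3 n17 s) (hc : |cA| ≤ 5 * X)
    (hA : |Am| ≤ 5 * X) (hz : |zm| ≤ 2) :
    RnW κ σ η Z P b2 b3 n17 Am cA zm ≤ YW σ Z P b2 b3 n17 := by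
  have hX := h.X1
  have hz0 := h.Z0
  have hb2 := h.b20
  have hb3 := h.b30
  have hP := h.P0
  have b2Z : 0 < b2 * Z ^ 3 := by positivity
  have b3Z : 0 < b3 * Z ^ 3 := by positivity
  have t1 : 4 * (σ * n17 * Z ^ 3) ≤ σ * n17 * Z ^ 4 := by
    have h1 : 1000 * (σ * n17 * Z ^ 3) ≤ σ * n17 * Z ^ 4 :=
      h.pw (mul_pos h.σ0 h.n0).le 3
    have h2 : 0 ≤ σ * n17 * Z ^ 3 := by have := h.σ0; have := h.n0; positivity
    linarith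
  have t2 : 1000 * (P * Z * (b3 * Z ^ 3)) ≤ P * b3 * Z ^ 8 := by
    have h1 : 1000 * (P * b3 * Z ^ 4) ≤ P * b3 * Z ^ 5 := h.pw (by positivity) 4
    have h2 : P * b3 * Z ^ 5 ≤ P * b3 * Z ^ 8 := h.pw' (by positivity) (by norm_num)
    have h3 : P * Z * (b3 * Z ^ 3) = P * b3 * Z ^ 4 := by ring
    rw [h3]; linarith
  have t3 : 1000 * (|κ| * (b2 * Z ^ 3) ^ 2) ≤ b2 ^ 2 * Z ^ 17 := by
    have h1 : |κ| * (b2 * Z ^ 3) ^ 2 ≤ 1 * (b2 * Z ^ 3) ^ 2 :=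
      mul_le_mul_of_nonneg_right h.κ1 (sq_nonneg _)
    have h2 : 1000 * (b2 ^ 2 * Z ^ 6) ≤ b2 ^ 2 * Z ^ 7 := h.pw (sq_nonneg _) 6
    have h3 : b2 ^ 2 * Z ^ 7 ≤ b2 ^ 2 * Z ^ 17 := h.pw' (sq_nonneg _) (by norm_num)
    have h4 : (b2 * Z ^ 3) ^ 2 = b2 ^ 2 * Z ^ 6 := by ring
    rw [h4] at h1 ⊢
    linarith
  have t4 : (1 + |2 * κ * Am|) * (b2 * Z ^ 3) ≤ 11 * X * (b2 * Z ^ 3) :=
    mul_le_mul_of_nonneg_right (by linarith [h.c1 hA]) b2Z.le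
  have t5 : |2 * κ * cA| * (b2 * Z ^ 3) ≤ 10 * X * (b2 * Z ^ 3) :=
    mul_le_mul_of_nonneg_right (h.c1 hc) b2Z.le
  have t6 : (1 + |zm|) * (b3 * Z ^ 3 + |2 * κ * cA| * (b2 * Z ^ 3)) ≤
      3 * (b3 * Z ^ 3 + 10 * X * (b2 * Z ^ 3)) :=
    mul_le_mul (by linarith) (by linarith)
      (add_nonneg b3Z.le (mul_nonneg (abs_nonneg _) b2Z.le)) (by norm_num)
  have t7 : η * ((1 + |2 * κ * Am|) * (b2 * Z ^ 3) +
      (1 + |zm|) * (b3 * Z ^ 3 + |2 * κ * cA| * (b2 * Z ^ 3))) ≤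
      η * (41 * X * (b2 * Z ^ 3) + 3 * (b3 * Z ^ 3)) :=
    mul_le_mul_of_nonneg_left (by linarith) h.η0
  have t8 : 100 * (X * η * (b2 * Z ^ 3)) ≤ P * b3 := by
    have q1 : b2 * Z ^ 3 ≤ b2 * Z ^ 8 := h.pw' hb2.le (by norm_num)
    have q2 := mul_le_mul_of_nonneg_left q1
      (mul_nonneg (by linarith : (0 : ℝ) ≤ X) h.η0)
    linarith [h.e7]
  have t9 : 100 * (η * (b3 * Z ^ 3)) ≤ P * b3 * Z ^ 3 := by
    have := mul_le_mul_of_nonneg_right h.η1 b3Z.le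
    linarith
  have t10 : P * b3 ≤ P * b3 * Z ^ 8 := le_mul_of_one_le_right (mul_nonneg hP hb3.le)
    (one_le_pow₀ (by linarith [h.Zl]))
  have t11 : P * b3 * Z ^ 3 ≤ P * b3 * Z ^ 8 := h.pw' (mul_nonneg hP hb3.le) (by norm_num)
  have t12 : 0 ≤ P * b3 * Z ^ 8 := by positivity
  have t13 : 0 ≤ b2 ^ 2 * Z ^ 17 := by positivity
  unfold RnW YW
  linarith

/-- `h4` of `gdM` -/
theorem hh4 (h : NumW u κ σ Γ X S η K Z P b2 b3 n17 s) (hc : |cA| ≤ 5 * X)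
    (hA : |Am| ≤ 5 * X) (hz : |zm| ≤ 2) : (12 * |κ| * (b2 * Z ^ 8) +
      η * (1 + |2 * κ * Am| + |2 * κ * cA| + |zm| * |2 * κ * cA|)) * (b2 * Z ^ 8) ≤
        YW σ Z P b2 b3 n17 := by
  have hX := h.X1
  have hz0 := h.Z0
  have hb2 := h.b20
  have hb3 := h.b30
  have hP := h.P0
  have b2Z : 0 < b2 * Z ^ 8 := by positivity
  have t1 : 12 * |κ| * (b2 * Z ^ 8) * (b2 * Z ^ 8) ≤ b2 ^ 2 * Z ^ 17 := by
    have h1 : |κ| * (b2 * Z ^ 8 * (b2 * Z ^ 8)) ≤ 1 * (b2 * Z ^ 8 * (b2 * Z ^ 8)) :=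
      mul_le_mul_of_nonneg_right h.κ1 (by positivity)
    have h2 : 1000 * (b2 ^ 2 * Z ^ 16) ≤ b2 ^ 2 * Z ^ 17 := h.pw (sq_nonneg _) 16
    have h3 : b2 * Z ^ 8 * (b2 * Z ^ 8) = b2 ^ 2 * Z ^ 16 := by ring
    have h4 : 0 ≤ b2 ^ 2 * Z ^ 16 := by positivity
    rw [h3] at h1
    have h5 : 12 * |κ| * (b2 * Z ^ 8) * (b2 * Z ^ 8) = 12 * (|κ| * (b2 ^ 2 * Z ^ 16)) := by ring
    rw [h5]
    linarith
  have t2 : η * (1 + |2 * κ * Am| + |2 * κ * cA| + |zm| * |2 * κ * cA|) ≤ η * (41 * X) :=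
    mul_le_mul_of_nonneg_left (by linarith [h.c1 hA, h.c1 hc, h.c3 hc hz]) h.η0
  have t3 := mul_le_mul_of_nonneg_right t2 b2Z.le
  have t8 := h.e7
  have t9 : 0 ≤ X * η * (b2 * Z ^ 8) :=
    mul_nonneg (mul_nonneg (by linarith) h.η0) b2Z.le
  have t10 : P * b3 ≤ P * b3 * Z ^ 8 := le_mul_of_one_le_right (mul_nonneg hP hb3.le)
    (one_le_pow₀ (by linarith [h.Zl]))
  have t11 : 0 ≤ σ * n17 * Z ^ 4 := by have := h.σ0; have := h.n0; positivity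
  have t12 : 0 ≤ P * b3 := mul_nonneg hP hb3.le
  have e : (12 * |κ| * (b2 * Z ^ 8) +
      η * (1 + |2 * κ * Am| + |2 * κ * cA| + |zm| * |2 * κ * cA|)) * (b2 * Z ^ 8) =
      12 * |κ| * (b2 * Z ^ 8) * (b2 * Z ^ 8) +
      η * (1 + |2 * κ * Am| + |2 * κ * cA| + |zm| * |2 * κ * cA|) * (b2 * Z ^ 8) := by ring
  rw [e]
  unfold YW
  linarith

/-- `h5` of `gdM` -/
theorem hh5 (h : NumW u κ σ Γ X S η K Z P b2 b3 n17 s) (hA : |Am| ≤ 5 * X) (hz : |zm| ≤ 2) :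
    (η * (|zm| + |2 * κ * Am| * S + 2) + (1 + S) * (P * Z)) * (b3 * Z ^ 6) +
      12 * |κ| * (b2 * Z ^ 8) ^ 2 ≤ YW σ Z P b2 b3 n17 := by
  have hX := h.X1
  have hS := h.S1
  have hz0 := h.Z0
  have hb2 := h.b20
  have hb3 := h.b30
  have hP := h.P0
  have b3Z : 0 < b3 * Z ^ 6 := by positivity
  have t1 : 12 * |κ| * (b2 * Z ^ 8) ^ 2 ≤ b2 ^ 2 * Z ^ 17 := by
    have h1 : |κ| * (b2 * Z ^ 8) ^ 2 ≤ 1 * (b2 * Z ^ 8) ^ 2 :=
      mul_le_mul_of_nonneg_right h.κ1 (by positivity)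
    have h2 : 1000 * (b2 ^ 2 * Z ^ 16) ≤ b2 ^ 2 * Z ^ 17 := h.pw (sq_nonneg _) 16
    have h3 : (b2 * Z ^ 8) ^ 2 = b2 ^ 2 * Z ^ 16 := by ring
    have h4 : 0 ≤ b2 ^ 2 * Z ^ 16 := by positivity
    rw [h3] at h1 ⊢
    have h5 : 12 * |κ| * (b2 ^ 2 * Z ^ 16) = 12 * (|κ| * (b2 ^ 2 * Z ^ 16)) := by ring
    rw [h5]
    linarith
  have XS : 1 ≤ X * S := by nlinarith
  have t2 : |2 * κ * Am| * S ≤ 10 * X * S :=
    mul_le_mul_of_nonneg_right (h.c1 hA) (by linarith)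
  have t3 : η * (|zm| + |2 * κ * Am| * S + 2) ≤ η * (14 * (X * S)) :=
    mul_le_mul_of_nonneg_left (by linarith) h.η0
  have t4 : η * (14 * (X * S)) ≤ P := by
    have := h.e8
    have h2 : 0 ≤ η * (X * S) := mul_nonneg h.η0 (by linarith)
    linarith
  have t5 : (1 + S) * (P * Z) ≤ P * Z ^ 2 / 2 := by
    have h1 : 2 * (1 + S) ≤ Z := by linarith [h.ZS]
    have h2 := mul_le_mul_of_nonneg_right h1 (mul_nonneg hP hz0.le)
    have h3 : Z * (P * Z) = P * Z ^ 2 := by ring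
    linarith
  have t6 : P ≤ P * Z ^ 2 / 2 := by
    have h1 : 1000 * (P * Z) ≤ P * Z ^ 2 := by
      have := h.pw hP 1
      rwa [pow_one] at this
    have h2 : P ≤ P * Z := le_mul_of_one_le_right hP (by linarith [h.Zl])
    linarith
  have t7 : (η * (|zm| + |2 * κ * Am| * S + 2) + (1 + S) * (P * Z)) * (b3 * Z ^ 6) ≤
      P * Z ^ 2 * (b3 * Z ^ 6) := mul_le_mul_of_nonneg_right (by linarith) b3Z.le
  have t8 : P * Z ^ 2 * (b3 * Z ^ 6) = P * b3 * Z ^ 8 := by ring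
  have t11 : 0 ≤ σ * n17 * Z ^ 4 := by have := h.σ0; have := h.n0; positivity
  unfold YW
  linarith

end coef

/-- quotients -/
theorem w1A (h : NumW u κ σ Γ X S η K Z P b2 b3 n17 s) (hu : u.Ok) :
    u.WA * (b2 * Z ^ 8) / u.WA = b2 * Z ^ 8 := by
  have := hu.A0.ne'
  field_simp

theorem w2B (h : NumW u κ σ Γ X S η K Z P b2 b3 n17 s) (hu : u.Ok) :
    u.WB * (b3 * Z ^ 6) / u.WB = b3 * Z ^ 6 := by
  have := hu.B0.ne'
  field_simp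

theorem w0Y (h : NumW u κ σ Γ X S η K Z P b2 b3 n17 s) (hu : u.Ok) :
    u.WY * YW σ Z P b2 b3 n17 / u.WY = YW σ Z P b2 b3 n17 := by
  have := hu.Y0.ne'
  field_simp

theorem h02 (h : NumW u κ σ Γ X S η K Z P b2 b3 n17 s) (hu : u.Ok) :
    300 * (u.WY * YW σ Z P b2 b3 n17) ≤ u.WB * (b3 * Z ^ 6) := by
  have h1 := mul_le_mul_of_nonneg_left h.YW_le6 hu.B0.le
  have h2 := mul_le_mul_of_nonneg_right hu.YB h.YW_pos.le
  linarith

theorem hw (h : NumW u κ σ Γ X S η K Z P b2 b3 n17 s) (hu : u.Ok) :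
    u.WB * (b3 * Z ^ 6) ≤ u.WA * (b2 * Z ^ 8) := by
  have hz := h.Z0
  have hA := hu.A0
  have hb := h.b20
  have h1 := mul_le_mul_of_nonneg_right h.g2 (pow_nonneg hz.le 6)
  have h2 : 1000 * (u.WA * b2 * Z ^ 7) ≤ u.WA * b2 * Z ^ 8 := h.pw (by positivity) 7
  have h3 : 0 ≤ u.WA * b2 * Z ^ 7 := by positivity
  have h4 : Z * (u.WA * b2) * Z ^ 6 = u.WA * b2 * Z ^ 7 := by ring
  have h5 : u.WA * (b2 * Z ^ 8) = u.WA * b2 * Z ^ 8 := by ring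
  linarith

theorem w01 (h : NumW u κ σ Γ X S η K Z P b2 b3 n17 s) (hu : u.Ok) :
    u.WY * YW σ Z P b2 b3 n17 / (u.WA * (b2 * Z ^ 8)) ≤ 1 / 300 := by
  have hz := h.Z0
  have hA := hu.A0
  have hb := h.b20
  rw [div_le_iff₀ (by positivity)]
  linarith [h.h02 hu, h.hw hu]

theorem hk1 (h : NumW u κ σ Γ X S η K Z P b2 b3 n17 s) (hu : u.Ok) {zm R : ℝ} (hz : |zm| ≤ 2)
    (hR : R ≤ YW σ Z P b2 b3 n17) :
    u.WY * R + (1 + (S + |zm| * S) + S) * (u.WA * (b2 * Z ^ 3)) +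
      (1 + |zm|) * (u.WB * (b3 * Z ^ 3)) ≤ u.WA * (b2 * Z ^ 8) := by
  have hZ := h.Z0
  have hA := hu.A0
  have hB := hu.B0
  have hb := h.b20
  have hb3 := h.b30
  have hS := h.S1
  have a0 := mul_le_mul_of_nonneg_left hR hu.Y0.le
  have a1 := h.h02 hu
  have a2 := h.hw hu
  have a3 : u.WB * b3 * Z ^ 3 ≤ u.WB * b3 * Z ^ 5 := h.pw' (by positivity) (by norm_num)
  have a4 : 1000 * (u.WB * b3 * Z ^ 5) ≤ u.WB * b3 * Z ^ 6 := h.pw (by positivity) 5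
  have a5 : 1000 * (u.WA * b2 * Z ^ 7) ≤ u.WA * b2 * Z ^ 8 := h.pw (by positivity) 7
  have a6 : u.WA * b2 * Z ^ 4 ≤ u.WA * b2 * Z ^ 7 := h.pw' (by positivity) (by norm_num)
  have a7 : 0 < u.WB * b3 * Z ^ 3 := by positivity
  have a8 : 0 < u.WA * b2 * Z ^ 3 := by positivity
  have a9 : |zm| * S ≤ 2 * S := mul_le_mul_of_nonneg_right hz (by linarith)
  have b1 : (1 + (S + |zm| * S) + S) * (u.WA * b2 * Z ^ 3) ≤ Z * (u.WA * b2 * Z ^ 3) :=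
    mul_le_mul_of_nonneg_right (by linarith [h.ZS]) a8.le
  have b2' : (1 + |zm|) * (u.WB * b3 * Z ^ 3) ≤ 3 * (u.WB * b3 * Z ^ 3) :=
    mul_le_mul_of_nonneg_right (by linarith) a7.le
  have e1 : u.WA * (b2 * Z ^ 8) = u.WA * b2 * Z ^ 8 := by ring
  have e2 : u.WA * (b2 * Z ^ 3) = u.WA * b2 * Z ^ 3 := by ring
  have e3 : u.WB * (b3 * Z ^ 3) = u.WB * b3 * Z ^ 3 := by ring
  have e4 : u.WB * (b3 * Z ^ 6) = u.WB * b3 * Z ^ 6 := by ring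
  have e5 : Z * (u.WA * b2 * Z ^ 3) = u.WA * b2 * Z ^ 4 := by ring
  rw [e1] at a2 ⊢
  rw [e2, e3]
  rw [e4] at a1 a2
  linarith

theorem hk2 (h : NumW u κ σ Γ X S η K Z P b2 b3 n17 s) (hu : u.Ok) {zm R : ℝ} (hz : |zm| ≤ 2)
    (hR : R ≤ YW σ Z P b2 b3 n17) :
    u.WY * R + (1 + S + |zm|) * (u.WB * (b3 * Z ^ 3)) ≤ u.WB * (b3 * Z ^ 6) := by
  have hZ := h.Z0
  have hB := hu.B0
  have hb3 := h.b30
  have hS := h.S1
  have a0 := mul_le_mul_of_nonneg_left hR hu.Y0.le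
  have a1 := h.h02 hu
  have a4 : 1000 * (u.WB * b3 * Z ^ 5) ≤ u.WB * b3 * Z ^ 6 := h.pw (by positivity) 5
  have a5 : u.WB * b3 * Z ^ 4 ≤ u.WB * b3 * Z ^ 5 := h.pw' (by positivity) (by norm_num)
  have a7 : 0 < u.WB * b3 * Z ^ 3 := by positivity
  have b1 : (1 + S + |zm|) * (u.WB * b3 * Z ^ 3) ≤ Z * (u.WB * b3 * Z ^ 3) :=
    mul_le_mul_of_nonneg_right (by linarith [h.ZS]) a7.le
  have e3 : u.WB * (b3 * Z ^ 3) = u.WB * b3 * Z ^ 3 := by ring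
  have e4 : u.WB * (b3 * Z ^ 6) = u.WB * b3 * Z ^ 6 := by ring
  have e5 : Z * (u.WB * b3 * Z ^ 3) = u.WB * b3 * Z ^ 4 := by ring
  rw [e4] at a1 ⊢
  rw [e3]
  have a8 : 0 < u.WB * b3 * Z ^ 6 := by positivity
  linarith

end NumW

/-- **[GEO-D] for the W-chart, numerical form** -/
theorem gdM_num {f : Fin 3 → V3} (hf : Ortho f) {c T M : Ln4} {u : Un} (hu : u.Ok) {Q : Qd}
    {κ σ : ℝ} {i : FW} (hM : TrueW κ σ i M)
    {Γ X S η K Z P b2 b3 n17 z0 ρ r0 zm Am cA : ℝ} {s : Fin 18 → ℝ}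
    (h : NumW u κ σ Γ X S η K Z P b2 b3 n17 s) (hρ : 0 ≤ ρ)
    (hGi : ∀ k, |i.G k| ≤ Γ) (hV : ∀ k, |M.v k| ≤ X)
    (hMX : ∀ z', |z'| ≤ 3 → ∀ k, |M.pos z' k| ≤ X)
    (hT : ∀ z, u.xh ((rl f c T).pos z) 1 = Am + cA * (u.zh z - zm))
    (hc : |cA - i.g 1| ≤ 4 * η * X) (hcA : |cA| ≤ 5 * X) (hAm : |Am| ≤ 5 * X)
    (hzm : |zm| ≤ 2)
    (hSE : |2 * κ * cA| * (u.WB / u.WA) ≤ S) (hSA : u.WY / u.WA * |2 * κ * Am| ≤ S)
    (hb : ∀ z, z0 ≤ z → z ≤ z0 + ρ → Bent u Q κ σ i η (rl f c T) M z)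
    (hz : ∀ z, z0 ≤ z → z ≤ z0 + ρ → |u.zh z| ≤ 2 ∧ |u.zh z - zm| ≤ P * Z ∧
      |u.zh z - i.g 0| ≤ 2 * (K * (P * Z)))
    (hN : ∀ z, z0 ≤ z → z ≤ z0 + ρ → ∀ x : V3, (∀ k, |x k| ≤ 200 * X ^ 2 * S) →
      NearG Q κ η (u.zh z) x)
    (hr : r0 ≤ u.WY * (σ * n17 * Z ^ 4)) :
    ∃ (e : Fin 3 → V3) (w : V3) (q : ℝ → V3 → ℝ), w 0 = u.WY * YW σ Z P b2 b3 n17 ∧
      w 1 = u.WA * (b2 * Z ^ 8) ∧ w 2 = u.WB * (b3 * Z ^ 6) ∧
      ShN e T w q (u.WY * (σ * n17 * Z ^ 4)) z0 ρ r0 ∧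
      ∀ (t' M' : Ln4) (j : FW), TrueW κ σ j M' → (∀ k, |j.G k| ≤ Γ) → (∀ k, |M'.v k| ≤ X) →
        (∀ z, z0 ≤ z → z ≤ z0 + ρ → Bent u Q κ σ i η (rl f c t') M' z ∧
          |u.zh z - j.g 0| ≤ P * Z) →
        (∀ z', |z'| ≤ 3 → ∀ k, |M'.pos z' k| ≤ X) →
        (∀ k, |coW κ i j k| ≤ s k) →
        InSheet t' e T w q (u.WY * (σ * n17 * Z ^ 4)) z0 ρ := by
  have hX := h.X1
  have hS := h.S1
  have hZ := h.Z0
  have hY := hu.Y0
  have hb2 := h.b20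
  have hb3 := h.b30
  have hη := h.η0
  have hη1 : 100000000 * η ≤ 1 := by linarith [h.η1, h.P1]
  have hXη : X * η ≤ 1 := by linarith [h.ηX, h.P1, h.P0]
  have hKη : η ≤ K * (P * Z) := by
    have i1 : P ≤ P * Z := le_mul_of_one_le_right h.P0 (by linarith [h.Zl])
    have i2 : P * Z ≤ K * (P * Z) := le_mul_of_one_le_left (mul_nonneg h.P0 hZ.le) h.K1
    linarith [h.η1, h.P0]
  have hPZK : P * Z ≤ K * (P * Z) := le_mul_of_one_le_left (mul_nonneg h.P0 hZ.le) h.K1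
  have XX : X ≤ X ^ 2 := by nlinarith
  have X2S : X ^ 2 ≤ X ^ 2 * S := le_mul_of_one_le_right (sq_nonneg _) hS
  have hG1 : |i.g 1| ≤ X := by
    rw [← hM.c]; exact hV 1
  have c1 := h.c1 hcA
  have c2 := h.c1 hAm
  have c3 := h.c3 hcA hzm
  have w8 : 0 < b2 * Z ^ 8 := by positivity
  have w6 : 0 < b3 * Z ^ 6 := by positivity
  have w8' : b2 * Z ^ 3 ≤ b2 * Z ^ 8 := h.pw' hb2.le (by norm_num)
  have w6' : b3 * Z ^ 3 ≤ b3 * Z ^ 6 := h.pw' hb3.le (by norm_num)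
  have p1 : |2 * κ * cA| * (b2 * Z ^ 8) ≤ 10 * X ^ 2 := by
    have := mul_le_mul c1 h.g3 w8.le (by linarith)
    linarith
  have p2 : |2 * κ * Am| * (b2 * Z ^ 8) ≤ 10 * X ^ 2 := by
    have := mul_le_mul c2 h.g3 w8.le (by linarith)
    linarith
  have p3 : |zm| * |2 * κ * cA| * (b2 * Z ^ 8) ≤ 20 * X ^ 2 := by
    have := mul_le_mul c3 h.g3 w8.le (by linarith)
    linarith
  have p4 : |zm| * (b3 * Z ^ 6) ≤ 2 * X := mul_le_mul hzm h.g4 w6.le (by norm_num)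
  have p5 : |2 * κ * Am| * S * (b3 * Z ^ 6) ≤ 10 * X ^ 2 * S := by
    have i1 := mul_le_mul c2 h.g4 w6.le (by linarith)
    have i2 := mul_le_mul_of_nonneg_right i1 (show 0 ≤ S by linarith)
    linarith
  obtain ⟨e, w, q, r1, r2, r3, r4, r5⟩ := gdM hf (c := c) (T := T) (M := M) hu (Q := Q) hM h.κ1
    h.σ0.le
    (Γ := Γ) (V := X) (R := 3) (X := X) (ρ' := 3 * (K * (P * Z))) (G := X) (η := η) (η₁ := η)
    (η₂ := 4 * η * X) (Am := Am) (zm := zm) (cA := cA) (θ := P * Z) (z0 := z0)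
    (ρ := ρ) (r0 := r0) (a := u.WY * (σ * n17 * Z ^ 4)) (w0 := u.WY * YW σ Z P b2 b3 n17)
    (w1 := u.WA * (b2 * Z ^ 8)) (w2 := u.WB * (b3 * Z ^ 6)) (Ra := b2 * Z ^ 3)
    (Rb := b3 * Z ^ 3) (An := σ * n17 * Z ^ 3)
    (Rn := NumW.RnW κ σ η Z P b2 b3 n17 Am cA zm) (X0 := 110 * X ^ 2 * S)
    (X1 := 6 * X) (X2 := 24 * X ^ 2) (S := S) (s := s)
    hGi hV hG1 hc hη hη (mul_nonneg h.P0 hZ.le) hρ hT hb
    (by
      intro z h0 h1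
      obtain ⟨q1, q2, q3⟩ := hz z h0 h1
      exact ⟨by linarith, q2, by linarith⟩)
    hMX h.hsm (by linarith) hSE hSA
    (by
      intro z h0 h1 x q1 q2 q0
      obtain ⟨z', m1, m2, -⟩ := hb z h0 h1
      have mz : |z'| ≤ 3 := by
        have := a2 m1 (hz z h0 h1).1
        rw [sub_add_cancel] at this
        linarith
      have mk : ∀ k, |u.xh ((rl f c T).pos z) k| ≤ 2 * X := by
        intro k
        have := a2 (m2 k) (hMX z' mz k)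
        rw [sub_add_cancel] at this
        linarith
      have mx : ∀ k (Y : ℝ), |x k - u.xh ((rl f c T).pos z) k| ≤ Y → |x k| ≤ Y + 2 * X := by
        intro k Y hk
        have := a2 hk (mk k)
        rwa [sub_add_cancel] at this
      refine hN z h0 h1 x fun k => ?_
      fin_cases k
      · have := mx 0 _ q0; show |x 0| ≤ _; linarith
      · have := mx 1 _ q1; show |x 1| ≤ _; linarith
      · have := mx 2 _ q2; show |x 2| ≤ _; linarith)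
    (by rw [h.w1A hu]; linarith [h.g3])
    (by linarith [h.g3])
    (by
      rw [h.w1A hu, h.w2B hu]
      linarith [h.g4])
    (by
      have : |2 * κ * cA| * (b2 * Z ^ 3) ≤ |2 * κ * cA| * (b2 * Z ^ 8) :=
        mul_le_mul_of_nonneg_left w8' (abs_nonneg _)
      linarith [h.g4])
    (by
      rw [h.w1A hu, h.w2B hu, h.w0Y hu]
      have i1 : YW σ Z P b2 b3 n17 ≤ X := by linarith [h.YW_le6, h.YW_pos, h.g4]
      have i2 : 2 * (|2 * κ * Am| + |zm| * |2 * κ * cA|) * (b2 * Z ^ 8) =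
        2 * (|2 * κ * Am| * (b2 * Z ^ 8)) + 2 * (|zm| * |2 * κ * cA| * (b2 * Z ^ 8)) := by ring
      have i3 : 2 * (|zm| + |2 * κ * Am| * S) * (b3 * Z ^ 6) =
        2 * (|zm| * (b3 * Z ^ 6)) + 2 * (|2 * κ * Am| * S * (b3 * Z ^ 6)) := by ring
      rw [i2, i3]
      linarith)
    (by linarith)
    (by
      have i1 := h.w01 hu
      have i2 : (1 + S) * (P * Z) ≤ 1 / 100 := by
        have := h.PZS
        have := h.PZ1
        have e : (1 + S) * (P * Z) = P * Z + S * (P * Z) := by ring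
        rw [e]; linarith
      linarith)
    (by linarith)
    (by rw [h.w1A hu, h.w0Y hu]; exact h.hh4 hcA hAm hzm)
    (by rw [h.w1A hu, h.w2B hu, h.w0Y hu]; exact h.hh5 hAm hzm)
    h.hRa h.hRb h.hAn le_rfl
    (mul_le_mul_of_nonneg_left (h.RnW_le hcA hAm hzm) hY.le)
    (h.hk1 hu hzm (h.RnW_le hcA hAm hzm))
    (h.hk2 hu hzm (h.RnW_le hcA hAm hzm))
    (by have := h.σ0; have := h.n0; positivity)
    (mul_le_mul_of_nonneg_left (h.pw' (mul_pos h.σ0 h.n0).le (by norm_num)) hY.le)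
    (by have := h.σ0; have := h.n0; positivity)
    (by
      refine mul_le_mul_of_nonneg_left ?_ hY.le
      have i1 : 0 ≤ b2 ^ 2 * Z ^ 17 := by positivity
      have i2 : 0 ≤ P * b3 * Z ^ 8 := by have := h.P0; positivity
      unfold YW
      linarith)
    (by
      have := h.h02 hu
      have : 0 < u.WY * YW σ Z P b2 b3 n17 := mul_pos hY h.YW_pos
      linarith)
    (h.hw hu) hr
  refine ⟨e, w, q, r1, r2, r3, r4, ?_⟩
  intro t' M' j hM' hGj hV' hb' hMX' hs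
  refine r5 t' M' j hM' hGj hV' (fun z h0 h1 => ⟨(hb' z h0 h1).1, ?_⟩) hMX' hs
  have h2 := (hb' z h0 h1).2
  linarith


end Crest.Agent.R136.GeoN778
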