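import Crest.Agent.R136.PqG2_464
import Crest.Agent.R136.TD3_627

/-!
# R136: chart-free half of the wrappers J2 → `PreQ`, part 3 (helper464)

Own closeness and own twist of the flag slots, from 627's triangular slots (`TSys`, `InvT`, `RotT`).
`cu n` = unit of the chart slot `k`, `j` = slot of the flags.

* `own_near_vis` : visible slots, `o u k = h0 + β j u`.
* `own_near_inv` : invisible slots, any exponent.
* `tw_slot` : own twist of the tied slots.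
-/

set_option autoImplicit false
set_option linter.unusedVariables false

open Finset Filter Topology

namespace Crest.Agent.R136.PqG464

open Crest.Agent.R138
open Crest.Agent.R138.Ex926 (Base U QProf)
open Crest.Agent.R138.Mk163 (zc zl rho alive own)
open Crest.Agent.R138.MkRef627 (lc kc)
open Crest.Agent.R136.MkA627
open Crest.Agent.R136.Net191
open Crest.Agent.R136.TD627

variable {σ κ φ : Type*} {m m' : ℕ} {P : TDist φ m} {G : Geo σ κ} {g s : ℝ} {θ : κ → ℝ}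
    {β : Fin m → ℝ} {B : Base} {I : ℕ → Finset (ℕ × ℝ)} {lev : ℕ → ℚ → ℕ} {A : ℕ → ℝ}
    {f : ℕ → ℚ → ℕ → ℤ → ℕ} {b : ℕ → ℚ → ℕ → σ} {vm : ℕ → ℚ → ℝ} {w : κ → ℕ → ℚ → ℝ}
    {e : ℕ → ℚ → ℕ × ℝ → φ} {pr : Fin m → ℕ → ℚ → ℝ} {fl : ℕ → ℕ × ℝ → φ} {sc : Fin m → ℕ → ℝ}
    {co : ∀ n : ℕ, ℕ × ℝ → ℕ × ℝ → Fin m' → ℝ} {cu : ℕ → ℝ} {h0 : ℝ} {j : Fin m} {k : Fin m'}

/-- **own closeness of a visible slot** -/
theorem own_near_vis (h : TSys P G g s θ β B I lev A f b vm w e pr fl sc)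
    (hcu0 : ∀ᶠ n in (U : Filter ℕ), 0 ≤ cu n)
    (hcu : ∀ ε : ℝ, 0 < ε → ∀ᶠ n in (U : Filter ℕ), cu n * sc j n ≤ B.d n ^ (h0 - ε))
    (hco : ∀ᶠ n in (U : Filter ℕ), ∀ x ∈ I n, ∀ y ∈ I n, y.1 = x.1 →
      |co n x y k| ≤ cu n * P.d j n (fl n x) (fl n y)) (u : ℚ) (hu0 : 0 ≤ u) (hu1 : u ≤ 1)
    (ε : ℝ) (hε : 0 < ε) : ∀ᶠ n in (U : Filter ℕ), ∀ x ∈ I n, ∀ y ∈ I n,
      lc (lev n u) y = lc (lev n u) x → |co n x y k| ≤ B.d n ^ (h0 + β j * u - ε) := by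
  filter_upwards [h.same_cell j hu0 hu1 (half_pos hε), hcu0, hcu (ε / 2) (half_pos hε), hco]
    with n h1 h2 h3 h4 x hx y hy hxy
  simp only [lc, Prod.mk.injEq] at hxy
  refine (h4 x hx y hy hxy.1).trans ?_
  calc cu n * P.d j n (fl n x) (fl n y)
      ≤ cu n * (sc j n * B.d n ^ (β j * u - ε / 2)) :=
        mul_le_mul_of_nonneg_left (h1 x hx y hy hxy.1 hxy.2) h2
    _ = (cu n * sc j n) * B.d n ^ (β j * u - ε / 2) := by ring
    _ ≤ B.d n ^ (h0 - ε / 2) * B.d n ^ (β j * u - ε / 2) :=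
        mul_le_mul_of_nonneg_right h3 (Dp76.dpow_pos B n _).le
    _ = B.d n ^ (h0 + β j * u - ε) := by
        rw [← Dp76.dpow_add]; congr 1; ring

/-- **own closeness of an invisible slot** -/
theorem own_near_inv (hI : InvT P B I j fl (sc j))
    (hcu0 : ∀ᶠ n in (U : Filter ℕ), 0 ≤ cu n)
    (hcu : ∀ ε : ℝ, 0 < ε → ∀ᶠ n in (U : Filter ℕ), cu n * sc j n ≤ B.d n ^ (h0 - ε))
    (hco : ∀ᶠ n in (U : Filter ℕ), ∀ x ∈ I n, ∀ y ∈ I n, y.1 = x.1 →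
      |co n x y k| ≤ cu n * P.d j n (fl n x) (fl n y)) (R : ℝ) (u : ℚ) :
    ∀ᶠ n in (U : Filter ℕ), ∀ x ∈ I n, ∀ y ∈ I n,
      lc (lev n u) y = lc (lev n u) x → |co n x y k| ≤ B.d n ^ R := by
  filter_upwards [hI (R - h0 + 1), hcu0, hcu 1 one_pos, hco] with n h1 h2 h3 h4 x hx y hy hxy
  simp only [lc, Prod.mk.injEq] at hxy
  refine (h4 x hx y hy hxy.1).trans ?_
  calc cu n * P.d j n (fl n x) (fl n y)
      ≤ cu n * (sc j n * B.d n ^ (R - h0 + 1)) :=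
        mul_le_mul_of_nonneg_left (h1 x hx y hy hxy.1) h2
    _ = (cu n * sc j n) * B.d n ^ (R - h0 + 1) := by ring
    _ ≤ B.d n ^ (h0 - 1) * B.d n ^ (R - h0 + 1) :=
        mul_le_mul_of_nonneg_right h3 (Dp76.dpow_pos B n _).le
    _ = B.d n ^ R := by rw [← Dp76.dpow_add]; congr 1; ring

/-- number of cells of level `1` of a line in its cell of level `u` -/
theorem hR_own {τ : κ → ℝ → ℝ}
    (hM : MkA B I G lev A (fun v => g * v) (fun v => s * v) τ f b vm w)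
    (u : ℚ) (hu0 : 0 ≤ u) (hu1 : u ≤ 1) {δ : ℝ} (hδ : 0 < δ) :
    ∀ᶠ n in (U : Filter ℕ), ∀ x ∈ I n, ((own (I n) (lev n u) (lev n 1) x).card : ℝ) ≤
      B.d n ^ (-δ - (1 - s) * (1 - u)) := by
  filter_upwards [hM.own u 1 hu0 hu1 le_rfl δ hδ] with n hn x hx
  refine (hn x hx).2.trans (le_of_eq ?_)
  congr 1
  push_cast
  ring

open Classical in
/-- **own twist of a tied slot** -/
theorem tw_slot (hM : MkA B I G lev A (fun v => g * v) (fun v => s * v)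
      (fun j v => θ j * (1 - v)) f b vm w) {C0 : ℝ}
    (hR : RotT P B I lev j fl (sc j) C0 (fun u => β j * u)) (hβ : 0 < β j) (hC : β j ≤ C0)
    (hcup : ∀ᶠ n in (U : Filter ℕ), 0 < cu n)
    (hcu : ∀ ε : ℝ, 0 < ε → ∀ᶠ n in (U : Filter ℕ), B.d n ^ (h0 + ε) ≤ cu n * sc j n)
    (hco : ∀ᶠ n in (U : Filter ℕ), ∀ x ∈ I n, ∀ y ∈ I n, y.1 = x.1 →
      cu n * P.d j n (fl n x) (fl n y) ≤ |co n x y k|) (u : ℚ) (hu0 : 0 ≤ u) (hu1 : u < 1)
    (ρ : ℝ) (hρ : h0 + β j * u < ρ) : ∃ γ : ℝ, 0 < γ ∧ ∀ᶠ n in (U : Filter ℕ), ∀ x ∈ I n,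
      (((I n).filter fun y => lc (lev n u) y = lc (lev n u) x ∧ |co n x y k| ≤ B.d n ^ ρ).card : ℝ)
        ≤ B.d n ^ (γ - (1 - s) * (1 - u)) := by
  have hu1' : (u : ℝ) < 1 := by exact_mod_cast hu1
  have hlt : β j * u < C0 := lt_of_lt_of_le (by nlinarith) hC
  set r : ℝ := min C0 ((β j * u + (ρ - h0)) / 2) with hr
  have hr1 : β j * u < r := lt_min hlt (by linarith)
  have hr2 : r ≤ C0 := min_le_left _ _
  have hr3 : r ≤ (β j * u + (ρ - h0)) / 2 := min_le_right _ _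
  have hgap : 0 < ρ - h0 - r := by linarith
  obtain ⟨γ, hγ, hn⟩ := hR.tw u hu0 hu1 r hr1 hr2
  refine ⟨γ / 2, half_pos hγ, ?_⟩
  filter_upwards [hn, hcup, hcu (ρ - h0 - r) hgap, hco, hR_own hM u hu0 hu1.le (half_pos hγ)]
    with n h1 h2 h3 h4 h5 x hx
  have hsub : ((I n).filter fun y => lc (lev n u) y = lc (lev n u) x ∧
      |co n x y k| ≤ B.d n ^ ρ) ⊆ (I n).filter fun y => y.1 = x.1 ∧
        zc (lev n u) y.2 = zc (lev n u) x.2 ∧
        P.d j n (fl n x) (fl n y) ≤ sc j n * B.d n ^ r := by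
    intro y hy
    rw [mem_filter] at hy ⊢
    obtain ⟨hy1, hy2, hy3⟩ := hy
    simp only [lc, Prod.mk.injEq] at hy2
    refine ⟨hy1, hy2.1, hy2.2, ?_⟩
    have h6 := (h4 x hx y hy1 hy2.1).trans hy3
    have h7 : B.d n ^ ρ ≤ cu n * (sc j n * B.d n ^ r) := by
      have e1 : B.d n ^ ρ = B.d n ^ (h0 + (ρ - h0 - r)) * B.d n ^ r := by
        rw [← Dp76.dpow_add]; congr 1; ring
      rw [e1, ← mul_assoc]
      exact mul_le_mul_of_nonneg_right h3 (Dp76.dpow_pos B n _).le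
    exact le_of_mul_le_mul_left (h6.trans h7) h2
  calc (((I n).filter fun y => lc (lev n u) y = lc (lev n u) x ∧
        |co n x y k| ≤ B.d n ^ ρ).card : ℝ)
      ≤ B.d n ^ γ * ((own (I n) (lev n u) (lev n 1) x).card : ℝ) :=
        le_trans (by exact_mod_cast Finset.card_le_card hsub) (h1 x hx)
    _ ≤ B.d n ^ γ * B.d n ^ (-(γ / 2) - (1 - s) * (1 - u)) :=
        mul_le_mul_of_nonneg_left (h5 x hx) (Dp76.dpow_pos B n _).le
    _ = B.d n ^ (γ / 2 - (1 - s) * (1 - u)) := by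
        rw [← Dp76.dpow_add]; congr 1; ring

end Crest.Agent.R136.PqG464
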