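import Crest.Agent.R136.PrW3_464
import Crest.Agent.R136.PqG3_464
import Crest.Agent.R136.Wq4_638
import Crest.Agent.R136.TopD_484

/-!
# R136, wrapper `J2 → PreQ` for the W-chart (helper464), part 4: the wrapper

* `WSys` : final window of the thin branch in normal coordinates (`TSys` for the 18 slots of `tdW`,
  closeness of the level flags of one class, units);
* `VW`, `TW` : visible / tied slots; `SlotWOk` : what the table needs;
* `WSys.preW` : `WSys` + [GEO-D] ⊢ `Lq196.PreQ` for `couW`.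
-/

set_option autoImplicit false
set_option linter.unusedVariables false

open Finset Filter Topology

namespace Crest.Agent.R136.PrW464

open Crest.Agent.R138
open Crest.Agent.R138.Ex926 (Base U QProf)
open Crest.Agent.R138.Dp76 (dpow_pos dpow_add dpow_le dpow_le_one)
open Crest.Agent.R138.Mk163 (zc zl rho alive own)
open Crest.Agent.R138.MkRef627 (lc kc)
open Crest.Agent.R136.MkA627
open Crest.Agent.R136.Net191
open Crest.Agent.R136.NetW191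
open Crest.Agent.R136.Sh605
open Crest.Agent.R136.TD627
open Crest.Agent.R136.PqG464 (own_near_vis own_near_inv tw_slot)
open Crest.Agent.R136.Wq638 (capQ EQ EQ_eq N0Q vm_eq gH_Q)

/-! ### closeness inside a class -/

section cls

variable {σ κ φ : Type*} {m : ℕ} {P : TDist φ m} {G : Geo σ κ} {g s : ℝ} {θ : κ → ℝ}
    {β : Fin m → ℝ} {B : Base} {I : ℕ → Finset (ℕ × ℝ)} {lev : ℕ → ℚ → ℕ} {A : ℕ → ℝ}
    {f : ℕ → ℚ → ℕ → ℤ → ℕ} {b : ℕ → ℚ → ℕ → σ} {vm : ℕ → ℚ → ℝ} {w : κ → ℕ → ℚ → ℝ}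
    {fr : ℕ → ℚ → ℕ × ℝ → φ} {pr : Fin m → ℕ → ℚ → ℝ} {fl : ℕ → ℕ × ℝ → φ} {sc : Fin m → ℕ → ℝ}

/-- **the flags of one class of level `u` agree up to the precision of level `u`, in every slot.** -/
theorem same_class (h : TSys P G g s θ β B I lev A f b vm w fr pr fl sc) {u : ℚ}
    (h0 : 0 ≤ u) (h1 : u ≤ 1)
    (hc : ∀ j, ∀ ε : ℝ, 0 < ε → ∀ᶠ n in (U : Filter ℕ), ∀ x ∈ I n, ∀ y ∈ I n,
      kc (lev n u) (f n u) y = kc (lev n u) (f n u) x →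
        P.d j n (fr n u x) (fr n u y) ≤ pr j n u * B.d n ^ (-ε)) (j : Fin m)
    {ε : ℝ} (hε : 0 < ε) : ∀ᶠ n in (U : Filter ℕ), ∀ x ∈ I n, ∀ y ∈ I n,
      kc (lev n u) (f n u) y = kc (lev n u) (f n u) x →
        P.d j n (fl n x) (fl n y) ≤ sc j n * B.d n ^ (β j * u - ε) := by
  set S : ℕ → (ℕ × ℝ) × (ℕ × ℝ) → Prop := fun n p =>
    p.1 ∈ I n ∧ p.2 ∈ I n ∧ kc (lev n u) (f n u) p.2 = kc (lev n u) (f n u) p.1 with hS
  have hw := h.wall h0 h1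
  have hn := h.near h0 h1
  have hn' := hn.symm hw h.scpos
  have c1 : NearE P B sc (fun t => β t * u) S (fun n p => fl n p.1) (fun n p => fr n u p.1) :=
    fun j ε hε => by
      filter_upwards [hn j ε hε] with n a1 p hp using a1 p.1 hp.1
  have c2 : NearE P B sc (fun t => β t * u) S (fun n p => fr n u p.1) (fun n p => fr n u p.2) := by
    intro j ε hε
    filter_upwards [h.pr_le j h0 h1 (half_pos hε), hc j _ (half_pos hε)]
      with n a1 a2 p hp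
    refine (a2 p.1 hp.1 p.2 hp.2.1 hp.2.2).trans ?_
    refine (mul_le_mul_of_nonneg_right a1.1 (dpow_pos B n _).le).trans (le_of_eq ?_)
    rw [mul_assoc, ← dpow_add]
    congr 2
    ring
  have c3 : NearE P B sc (fun t => β t * u) S (fun n p => fr n u p.2) (fun n p => fl n p.2) :=
    fun j ε hε => by
      filter_upwards [hn' j ε hε] with n a1 p hp using a1 p.2 hp.2.1
  have c4 := (c1.trans hw h.scpos c2).trans hw h.scpos c3
  filter_upwards [c4 j ε hε] with n a1 x hx y hy hxy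
  exact a1 (x, y) ⟨hx, hy, hxy⟩

end cls

/-! ### the data -/

/-- **units of the W-chart** : `uz hz = d^w0 2^(lev 0)` and the unit of the slot `k` turns the scale
`sc k` (precision of the marks of level `0`) into `d^(wtR k w0)`. -/
structure UnitW (B : Base) (lev : ℕ → ℚ → ℕ) (hz uz uc un : ℕ → ℝ) (w0 : ℝ)
    (sc : Fin 18 → ℕ → ℝ) : Prop where
  z0 : ∀ n, 0 < uz n
  c0 : ∀ n, 0 < uc n
  n0 : ∀ n, 0 < un n
  hz : ∀ n, uz n * hz n = B.d n ^ w0 * 2 ^ lev n 0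
  sc : ∀ k, ∀ ε : ℝ, 0 < ε → ∀ᶠ n in (U : Filter ℕ),
    B.d n ^ (wtR k * w0 + ε) ≤ unW (uz n) (uc n) (un n) k * sc k n ∧
      unW (uz n) (uc n) (un n) k * sc k n ≤ B.d n ^ (wtR k * w0 - ε)

/-- visible slots -/
def VW (kp : ℕ → ℝ) (hκ : ∀ n, |kp n| ≤ 1) (B : Base) (I : ℕ → Finset (ℕ × ℝ))
    (F : ℕ → ℕ × ℝ → FW) (sc : Fin 18 → ℕ → ℝ) (k : Fin 18) : Prop :=
  k ≠ 0 ∧ ¬ InvT (tdW kp hκ) B I k F (sc k)

/-- tied slots -/
def TW (kp : ℕ → ℝ) (hκ : ∀ n, |kp n| ≤ 1) (θ : Fin 3 → ℝ) (B : Base) (I : ℕ → Finset (ℕ × ℝ))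
    (lev : ℕ → ℚ → ℕ) (F : ℕ → ℕ × ℝ → FW) (sc : Fin 18 → ℕ → ℝ) (C0 : Fin 18 → ℝ)
    (k : Fin 18) : Prop :=
  VW kp hκ B I F sc k ∧ RotT (tdW kp hκ) B I lev k F (sc k) (C0 k) (fun u => btW θ k * u)

/-- **the final window of the thin branch in normal coordinates.**  `B0` = base of the window in which
the container was straightened, `B` = base of the final window; `θ` = slopes of the widths (`MkA`),
`ϑ` = slopes in the chart (`ϑ = θ` if `A` is the wide axis, `ϑ = θ ∘ swap 1 2` if `A` is narrow). -/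
structure WSys {σ : Type*} (G : Geo σ (Fin 3)) (g s : ℝ) (θ ϑ : Fin 3 → ℝ) (B0 B : Base)
    (I : ℕ → Finset (ℕ × ℝ)) (lev : ℕ → ℚ → ℕ) (A : ℕ → ℝ) (f : ℕ → ℚ → ℕ → ℤ → ℕ)
    (b : ℕ → ℚ → ℕ → σ) (vm : ℕ → ℚ → ℝ) (w : Fin 3 → ℕ → ℚ → ℝ)
    (kp sg hz zs : ℕ → ℝ) (hκ : ∀ n, |kp n| ≤ 1) (L : ℕ → ℕ → Ln4) (F : ℕ → ℕ × ℝ → FW)
    (fr : ℕ → ℚ → ℕ × ℝ → FW) (pr : Fin 18 → ℕ → ℚ → ℝ) (sc : Fin 18 → ℕ → ℝ)
    (uz uc un : ℕ → ℝ) (w0 : ℝ) (C0 : Fin 18 → ℝ) : Prop where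
  wd : WData B0 I kp sg hz zs L F
  base : ∀ n, B0.d n ≤ B.d n
  /-- the scales are polynomial in the first base -/
  low : ∃ C : ℝ, ∀ᶠ n in (U : Filter ℕ), ∀ k, B0.d n ^ C ≤ sc k n
  sys : TSys (tdW kp hκ) G g s θ (btW ϑ) B I lev A f b vm w fr pr F sc
  /-- level flags of one class -/
  cls : ∀ u : ℚ, 0 ≤ u → u ≤ 1 → ∀ k, ∀ ε : ℝ, 0 < ε → ∀ᶠ n in (U : Filter ℕ),
    ∀ x ∈ I n, ∀ y ∈ I n, kc (lev n u) (f n u) y = kc (lev n u) (f n u) x →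
      |coW (kp n) (fr n u x) (fr n u y) k| ≤ pr k n u * B.d n ^ (-ε)
  bC0 : ∀ k, btW ϑ k ≤ C0 k
  /-- every slot is invisible, tied or capped (output of `TSys.natT`) -/
  alt : ∀ k, InvT (tdW kp hκ) B I k F (sc k) ∨
    (0 < btW ϑ k ∧ RotT (tdW kp hκ) B I lev k F (sc k) (C0 k) (fun u => btW ϑ k * u)) ∨
    (0 < btW ϑ k ∧ ∃ a ∈ monW.mon k, ∑ t, (a t : ℝ) * btW ϑ t = btW ϑ k ∧
      ∀ t, a t ≠ 0 → ¬ InvT (tdW kp hκ) B I t F (sc t))
  unit : UnitW B lev hz uz uc un w0 sc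

/-- `V`, `T` = visible, tied slots -/
structure SlotWOk (ϑ : Fin 3 → ℝ) (V T : Fin 18 → Prop) : Prop where
  tied : ∀ k, T k → V k
  vis : ∀ k, V k → k ≠ 0 ∧ k ≠ 1 ∧ k ≠ 2 ∧ k ≠ 3 ∧ k ≠ 13 ∧ k ≠ 16 ∧ k ≠ 17 ∧ 0 < btW ϑ k
  /-- a visible slot is tied or has a tied slot with the same `χ`-weight before it -/
  cap : ∀ k, V k → ∃ s, s ≤ k ∧ T s ∧ wc s = wc k ∧ wz s ≤ wz k

theorem mon_flag : ∀ k, ∀ l ∈ mlW k, (∀ t ∈ l, t ≠ 1 ∧ t ≠ 2 ∧ t ≠ 3) →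
    ∃ s ∈ l, s ≠ 0 ∧ s < k ∧ wc s = wc k ∧ wz s ≤ wz k := by decide

namespace WSys

variable {σ : Type*} {G : Geo σ (Fin 3)} {g s : ℝ} {θ ϑ : Fin 3 → ℝ} {B0 B : Base}
    {I : ℕ → Finset (ℕ × ℝ)} {lev : ℕ → ℚ → ℕ} {A : ℕ → ℝ} {f : ℕ → ℚ → ℕ → ℤ → ℕ}
    {b : ℕ → ℚ → ℕ → σ} {vm : ℕ → ℚ → ℝ} {w : Fin 3 → ℕ → ℚ → ℝ}
    {kp sg hz zs : ℕ → ℝ} {hκ : ∀ n, |kp n| ≤ 1} {L : ℕ → ℕ → Ln4} {F : ℕ → ℕ × ℝ → FW}
    {fr : ℕ → ℚ → ℕ × ℝ → FW} {pr : Fin 18 → ℕ → ℚ → ℝ} {sc : Fin 18 → ℕ → ℝ}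
    {uz uc un : ℕ → ℝ} {w0 : ℝ} {C0 : Fin 18 → ℝ}

/-- the slots `c, A, B, z², z, 1` are invisible -/
theorem inv_line (h : WSys G g s θ ϑ B0 B I lev A f b vm w kp sg hz zs hκ L F fr pr sc uz uc un w0 C0)
    (k : Fin 18) (hk : k = 1 ∨ k = 2 ∨ k = 3 ∨ k = 13 ∨ k = 16 ∨ k = 17) :
    InvT (tdW kp hκ) B I k F (sc k) := by
  intro M
  obtain ⟨C, hC⟩ := h.low
  filter_upwards [h.wd.inv_line k hk (C + max M 0), hC] with n h1 h2 x hx y hy hxy
  rw [tdW_d]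
  refine (h1 x hx y hy hxy).trans ?_
  rw [dpow_add]
  have h3 : B0.d n ^ (max M 0) ≤ B.d n ^ (max M 0) :=
    Real.rpow_le_rpow (B0.pos n).le (h.base n) (le_max_right _ _)
  have h4 : B.d n ^ (max M 0) ≤ B.d n ^ M := dpow_le B n (le_max_left _ _)
  exact mul_le_mul (h2 k) (h3.trans h4) (dpow_pos B0 n _).le (h.sys.scpos k n).le

/-- **visible and tied slots** -/
theorem slots (h : WSys G g s θ ϑ B0 B I lev A f b vm w kp sg hz zs hκ L F fr pr sc uz uc un w0 C0) :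
    SlotWOk ϑ (VW kp hκ B I F sc) (TW kp hκ ϑ B I lev F sc C0) where
  tied := fun k hk => hk.1
  vis := by
    intro k hk
    have hne : ∀ j : Fin 18, (j = 1 ∨ j = 2 ∨ j = 3 ∨ j = 13 ∨ j = 16 ∨ j = 17) → k ≠ j := by
      rintro j hj rfl
      exact hk.2 (h.inv_line k hj)
    refine ⟨hk.1, hne 1 (by tauto), hne 2 (by tauto), hne 3 (by tauto), hne 13 (by tauto),
      hne 16 (by tauto), hne 17 (by tauto), ?_⟩
    rcases h.alt k with h1 | h1 | h1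
    · exact absurd h1 hk.2
    · exact h1.1
    · exact h1.1
  cap := by
    intro k
    induction k using WellFoundedLT.induction with
    | ind k ih =>
      intro hk
      rcases h.alt k with h1 | h1 | ⟨h1, a, ha, -, hn⟩
      · exact absurd h1 hk.2
      · exact ⟨k, le_rfl, ⟨hk, h1.2⟩, rfl, le_rfl⟩
      · obtain ⟨l, hl, rfl⟩ := List.mem_map.1 (List.mem_toFinset.1 ha)
        have hv : ∀ t ∈ l, ¬ InvT (tdW kp hκ) B I t F (sc t) := fun t ht =>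
          hn t (List.count_pos_iff.2 ht).ne'
        obtain ⟨s, hs, hs0, hlt, hwc, hwz⟩ := mon_flag k l hl fun t ht => by
          refine ⟨?_, ?_, ?_⟩
          · rintro rfl; exact hv 1 ht (h.inv_line 1 (by tauto))
          · rintro rfl; exact hv 2 ht (h.inv_line 2 (by tauto))
          · rintro rfl; exact hv 3 ht (h.inv_line 3 (by tauto))
        obtain ⟨s', h2, h3, h4, h5⟩ := ih s hlt ⟨hs0, hv s hs⟩
        exact ⟨s', h2.trans hlt.le, h3, h4.trans hwc, h5.trans hwz⟩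

/-- sizes of the coordinates in the units -/
theorem un_le (h : WSys G g s θ ϑ B0 B I lev A f b vm w kp sg hz zs hκ L F fr pr sc uz uc un w0 C0)
    (k : Fin 18) {u ε : ℝ} (hε : 0 < ε) : ∀ᶠ n in (U : Filter ℕ),
      ∀ y : ℝ, y ≤ sc k n * B.d n ^ (btW ϑ k * u - ε / 2) →
        unW (uz n) (uc n) (un n) k * y ≤ B.d n ^ (pathW ϑ w0 u k - ε) := by
  filter_upwards [h.unit.sc k (ε / 2) (half_pos hε)] with n h1 y hy
  have hu := unW_pos (h.unit.z0 n) (h.unit.c0 n) (h.unit.n0 n) k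
  calc unW (uz n) (uc n) (un n) k * y
      ≤ unW (uz n) (uc n) (un n) k * (sc k n * B.d n ^ (btW ϑ k * u - ε / 2)) :=
        mul_le_mul_of_nonneg_left hy hu.le
    _ = (unW (uz n) (uc n) (un n) k * sc k n) * B.d n ^ (btW ϑ k * u - ε / 2) := by ring
    _ ≤ B.d n ^ (wtR k * w0 - ε / 2) * B.d n ^ (btW ϑ k * u - ε / 2) :=
        mul_le_mul_of_nonneg_right h1.2 (dpow_pos B n _).le
    _ = B.d n ^ (pathW ϑ w0 u k - ε) := by
        rw [← dpow_add, pathW_eq]; congr 1; ring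

theorem abs_couW {n : ℕ} (hz : 0 < uz n) (hc : 0 < uc n) (hn : 0 < un n) (x y : ℕ × ℝ)
    (k : Fin 18) : |couW kp uz uc un F n x y k| =
      unW (uz n) (uc n) (un n) k * |coW (kp n) (F n x) (F n y) k| := by
  unfold couW
  rw [abs_mul, abs_of_pos (unW_pos hz hc hn k)]

/-- **field `gR`** -/
theorem gR (h : WSys G g s θ ϑ B0 B I lev A f b vm w kp sg hz zs hκ L F fr pr sc uz uc un w0 C0)
    (u : ℚ) (h0 : 0 ≤ u) (h1 : u ≤ 1) (ε : ℝ) (hε : 0 < ε) :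
    ∀ᶠ n in (U : Filter ℕ), ∀ x ∈ I n, ∀ y ∈ I n,
      kc (lev n u) (f n u) y = kc (lev n u) (f n u) x →
        ∀ k, |couW kp uz uc un F n x y k| ≤ B.d n ^ (pathW ϑ w0 u k - ε) := by
  have h2 : ∀ k : Fin 18, ∀ᶠ n in (U : Filter ℕ), ∀ x ∈ I n, ∀ y ∈ I n,
      kc (lev n u) (f n u) y = kc (lev n u) (f n u) x →
        |couW kp uz uc un F n x y k| ≤ B.d n ^ (pathW ϑ w0 u k - ε) := by
    intro k
    filter_upwards [same_class h.sys h0 h1 (fun j ε hε => h.cls u h0 h1 j ε hε) k (half_pos hε),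
      h.un_le k (u := u) hε] with n a1 a2 x hx y hy hxy
    rw [abs_couW (h.unit.z0 n) (h.unit.c0 n) (h.unit.n0 n)]
    exact a2 _ (a1 x hx y hy hxy)
  filter_upwards [Filter.eventually_all.2 h2] with n hn x hx y hy hxy k
  exact hn k x hx y hy hxy

/-- **field `own_near`** -/
theorem own_near
    (h : WSys G g s θ ϑ B0 B I lev A f b vm w kp sg hz zs hκ L F fr pr sc uz uc un w0 C0) (R : ℝ)
    (u : ℚ) (h0 : 0 ≤ u) (h1 : u ≤ 1) (ε : ℝ) (hε : 0 < ε) :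
    ∀ᶠ n in (U : Filter ℕ), ∀ x ∈ I n, ∀ y ∈ I n, lc (lev n u) y = lc (lev n u) x →
      ∀ k, |couW kp uz uc un F n x y k| ≤
        B.d n ^ (ownW ϑ w0 R (VW kp hκ B I F sc) u k - ε) := by
  have hco : ∀ k : Fin 18, ∀ᶠ n in (U : Filter ℕ), ∀ x ∈ I n, ∀ y ∈ I n, y.1 = x.1 →
      |couW kp uz uc un F n x y k| ≤
        unW (uz n) (uc n) (un n) k * (tdW kp hκ).d k n (F n x) (F n y) := fun k =>
    Filter.Eventually.of_forall fun n x _ y _ _ =>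
      (abs_couW (h.unit.z0 n) (h.unit.c0 n) (h.unit.n0 n) x y k).le
  have hu0 : ∀ k : Fin 18, ∀ᶠ n in (U : Filter ℕ), 0 ≤ unW (uz n) (uc n) (un n) k := fun k =>
    Filter.Eventually.of_forall fun n =>
      (unW_pos (h.unit.z0 n) (h.unit.c0 n) (h.unit.n0 n) k).le
  have hcu : ∀ k : Fin 18, ∀ ε : ℝ, 0 < ε → ∀ᶠ n in (U : Filter ℕ),
      unW (uz n) (uc n) (un n) k * sc k n ≤ B.d n ^ (wtR k * w0 - ε) := fun k ε hε => by
    filter_upwards [h.unit.sc k ε hε] with n hn using hn.2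
  have h2 : ∀ k : Fin 18, ∀ᶠ n in (U : Filter ℕ), ∀ x ∈ I n, ∀ y ∈ I n,
      lc (lev n u) y = lc (lev n u) x → |couW kp uz uc un F n x y k| ≤
        B.d n ^ (ownW ϑ w0 R (VW kp hκ B I F sc) u k - ε) := by
    intro k
    have hvis := own_near_vis h.sys (k := k) (j := k) (hu0 k) (hcu k) (hco k) u h0 h1 ε hε
    unfold ownW
    split_ifs with e1 e2
    · subst e1
      have e3 : wtR 0 * w0 + btW ϑ 0 * (u : ℝ) - ε = w0 + u - ε := by
        simp [wtR, btW, grW, wz, wc, wn]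
      rwa [e3] at hvis
    · rwa [pathW_eq]
    · have hI : InvT (tdW kp hκ) B I k F (sc k) := by
        by_contra hc
        exact e2 ⟨e1, hc⟩
      exact own_near_inv hI (hu0 k) (hcu k) (hco k) (R - ε) u
  filter_upwards [Filter.eventually_all.2 h2] with n hn x hx y hy hxy k
  exact hn k x hx y hy hxy

open Classical in
/-- **field `tw`** -/
theorem tw (h : WSys G g s θ ϑ B0 B I lev A f b vm w kp sg hz zs hκ L F fr pr sc uz uc un w0 C0)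
    (R : ℝ) (k : Fin 18) (hk : TW kp hκ ϑ B I lev F sc C0 k) (u : ℚ) (h0 : 0 ≤ u) (h1 : u < 1)
    (ρ : ℝ) (hρ : ownW ϑ w0 R (VW kp hκ B I F sc) u k < ρ) : ∃ γ : ℝ, 0 < γ ∧
    ∀ᶠ n in (U : Filter ℕ), ∀ x ∈ I n,
      (((I n).filter fun y => lc (lev n u) y = lc (lev n u) x ∧
        |couW kp uz uc un F n x y k| ≤ B.d n ^ ρ).card : ℝ) ≤
        B.d n ^ (γ - (1 - s) * (1 - u)) := by
  have hb : 0 < btW ϑ k := (h.slots.vis k hk.1).2.2.2.2.2.2.2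
  unfold ownW at hρ
  rw [if_neg hk.1.1, if_pos hk.1, pathW_eq] at hρ
  refine tw_slot h.sys.mka hk.2 hb (h.bC0 k) (cu := fun n => unW (uz n) (uc n) (un n) k)
    (Filter.Eventually.of_forall fun n => unW_pos (h.unit.z0 n) (h.unit.c0 n) (h.unit.n0 n) k)
    (fun ε hε => by filter_upwards [h.unit.sc k ε hε] with n hn using hn.1)
    (Filter.Eventually.of_forall fun n x _ y _ _ =>
      (abs_couW (h.unit.z0 n) (h.unit.c0 n) (h.unit.n0 n) x y k).ge) u h0 h1 ρ hρ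

open Classical in
/-- **the wrapper: `WSys` and [GEO-D] ⊢ input of L15.** -/
theorem preW (h : WSys G g s θ ϑ B0 B I lev A f b vm w kp sg hz zs hκ L F fr pr sc uz uc un w0 C0)
    {R T0 : ℝ} (hb : BigW ϑ w0 R T0) {q : Fin 3 → ℝ}
    (hval : ∀ n i J t, G.adm n i J t → G.val n i J t = capQ q (rho i) fun k => G.wid k t)
    {PD : Set (Fin 18 → ℝ)} {D : (Fin 18 → ℝ) → ℝ} (PDne : PD.Nonempty) (PDleg : PD ⊆ Leg monW R)
    (gD : ∀ p ∈ PD, ∀ K : ℝ, 1 ≤ K → ∀ ε : ℝ, 0 < ε → ∀ᶠ n in (U : Filter ℕ), ∀ x ∈ I n,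
      (((I n).filter fun y => Near (couW kp uz uc un F n) (B.d n) p K x y).card : ℝ) ≤
        N0Q A vm n * B.d n ^ (-(D p + ε))) :
    Lq196.PreQ B I G lev A g s (fun j v => θ j * (1 - v)) f b vm w (couW kp uz uc un F)
      monW 67 R 0 w0 (N0Q A vm) PD D (pathW ϑ w0)
      (ownW ϑ w0 R (VW kp hκ B I F sc)) (EQ θ g s q w0 R) (TW kp hκ ϑ B I lev F sc C0) where
  mka := h.sys.mka
  chart := fun n => chart_couW F hκ h.unit.z0 h.unit.c0 h.unit.n0 n (I n)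
  zco := fun n x hx y hy => by
    unfold couW
    rw [unW_zero, coW_zero, h.wd.gz n y, h.wd.gz n x]
    have := h.unit.hz n
    linear_combination (y.2 - x.2) * this
  w00 := lt_of_lt_of_le one_pos hb.w0pos
  w0R := hb.wR
  N0pos := by
    filter_upwards [h.sys.mka.vpos 0 le_rfl zero_le_one] with n hn
    exact mul_pos (h.sys.mka.Apos n) hn
  PDne := PDne
  PDleg := PDleg
  gD := gD
  rleg := fun v h0 h1 => hb.path_leg h0 h1
  rpos := hb.path_pos _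
  rlip := hb.path_lip _ (c := g - (1 - s) - (3 - θ 0 - θ 1 - θ 2) +
    (q 0 * θ 0 + q 1 * θ 1 + q 2 * θ 2)) fun u v => by
      rw [EQ_eq, EQ_eq]; ring
  gR := fun u h0 h1 ε hε => h.gR u h0 h1 ε hε
  gH := fun u h0 h1 => gH_Q h.sys.mka (fun v a c => vm_eq h.sys.mka hval a c) R u h0 h1
  oz := fun v _ _ => ownW_zero ϑ w0 R _ v
  own_near := fun u h0 h1 ε hε => h.own_near R u h0 h1 ε hε
  tw := fun k hk u h0 h1 ρ hρ => h.tw R k hk u h0 h1 ρ hρ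

end WSys

/-- the density of the record path is `EQ`, in both geometries -/
theorem DW_path_EQ (θ : Fin 3 → ℝ) (g s : ℝ) (q : Fin 3 → ℝ) (w0 R v : ℝ)
    (π : Equiv.Perm (Fin 3)) (h0 : π 0 = 0) (h2 : θ (π 2) = 2 * θ (π 1)) :
    DW g s (q ∘ π) w0 (pathW (θ ∘ π) w0 v) = EQ θ g s q w0 R v := by
  rw [DW_path _ _ _ _ _ _ h2, EQ_eq]
  have h : (π 1 = 1 ∧ π 2 = 2) ∨ (π 1 = 2 ∧ π 2 = 1) := by
    have a1 : π 1 ≠ 0 := fun h => by
      have := π.injective (h.trans h0.symm)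
      exact absurd this (by decide)
    have a2 : π 2 ≠ 0 := fun h => by
      have := π.injective (h.trans h0.symm)
      exact absurd this (by decide)
    have a3 : π 1 ≠ π 2 := fun h => absurd (π.injective h) (by decide)
    revert a1 a2 a3
    generalize π 1 = x
    generalize π 2 = y
    fin_cases x <;> fin_cases y <;> simp
  rcases h with ⟨h1, h2'⟩ | ⟨h1, h2'⟩ <;> simp only [Function.comp, h0, h1, h2'] <;> ring

end Crest.Agent.R136.PrW464
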