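import Crest.Agent.R136.GDW1_778
import Crest.Agent.R136.GD4_186
import Crest.Agent.R136.PrW4_464

/-!
# R136, [GEO-D] for the W-chart, one cell (helper778)

* `numW_of` : the sizes `NumW` from one large number `X` and one tiny number `m`;
* `StW` : the facts about one stage of the straightened container; `StW.cell` : the lines of a
  legal chart box in one cell lie in one sheet.
-/

set_option autoImplicit false
set_option linter.unusedVariables false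
set_option maxHeartbeats 400000

namespace Crest.Agent.R136.GeoN778

open Crest.Agent.R136.Sh605
open Crest.Agent.R136.NetW191
open Crest.Agent.R136.GeoW778 (qS TrueW dB DW EW)

/-! ### the sizes -/

section num

variable {X m : ℝ}

/-- tiny numbers -/
theorem tiny (hX : 10 ≤ X) (hm0 : 0 ≤ m) (hm : m * X ^ 20 ≤ 1) {c : ℝ} {k l : ℕ}
    (hc0 : 0 ≤ c) (hc : c ≤ 10 ^ 4) (hk : k + l ≤ 16) : c * X ^ k * m * X ^ l ≤ 1 := by
  have hX0 : 0 < X := by linarith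
  have h1 : c ≤ X ^ 4 := hc.trans (pow_le_pow_left₀ (by norm_num) hX 4)
  have h2 : X ^ (4 + (k + l)) ≤ X ^ 20 := pow_le_pow_right₀ (by linarith) (by omega)
  calc c * X ^ k * m * X ^ l = c * (m * X ^ (k + l)) := by rw [pow_add]; ring
    _ ≤ X ^ 4 * (m * X ^ (k + l)) := mul_le_mul_of_nonneg_right h1 (by positivity)
    _ = m * X ^ (4 + (k + l)) := by rw [pow_add X 4]; ring
    _ ≤ m * X ^ 20 := mul_le_mul_of_nonneg_left h2 hm0
    _ ≤ 1 := hm

/-- from `1 ≤ b X^l` and `c X^k m X^l ≤ 1` to `c X^k m ≤ b` -/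
theorem le_of_tiny (hX : 10 ≤ X) (hm0 : 0 ≤ m) (hm : m * X ^ 20 ≤ 1) {c b : ℝ} {k l : ℕ}
    (hc0 : 0 ≤ c) (hc : c ≤ 10 ^ 4) (hk : k + l ≤ 16) (hb : 1 ≤ b * X ^ l) :
    c * X ^ k * m ≤ b := by
  have hX0 : 0 < X := by linarith
  have h := (tiny hX hm0 hm hc0 hc hk).trans hb
  exact le_of_mul_le_mul_right h (pow_pos hX0 l)

end num

/-- **the sizes of a box** from one large number `X` and one tiny number `m` -/
theorem numW_of {u : Un} {κ σ X S K Z P b2 b3 n17 m : ℝ} {s : Fin 18 → ℝ}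
    (κ1 : |κ| ≤ 1) (σ0 : 0 < σ) (hX : 10 ≤ X) (hm0 : 0 ≤ m) (hm : m * X ^ 20 ≤ 1) (hσ : σ ≤ m)
    (K1 : 1 ≤ K) (S1 : 1 ≤ S) (SX : S ≤ X) (KS : 1000 * (K ^ 3 * S) ≤ Z) (PZ : P * Z ^ 3 ≤ 1)
    (P1 : 1 ≤ P * X) (b21 : 1 ≤ b2 * X) (b31 : 1 ≤ b3 * X) (n1 : 1 ≤ n17 * X) (nX : n17 ≤ X)
    (s1 : 0 ≤ s 1) (hs2 : s 2 ≤ K * b2) (hs1 : P * s 1 ≤ K * b2) (hs3 : s 3 ≤ K * b3)
    (hs1' : P * s 1 ^ 2 ≤ K ^ 2 * b3) (hs17 : s 17 ≤ K * n17) (hs16 : P * s 16 ≤ K * n17)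
    (hs13 : P ^ 2 * s 13 ≤ K * n17) (g1 : b2 ^ 2 * Z ^ 12 ≤ b3)
    (g2 : u.WB * b3 ≤ Z * (u.WA * b2)) (g3 : b2 * Z ^ 8 ≤ X) (g4 : b3 * Z ^ 6 ≤ X) :
    NumW u κ σ X X S m K Z P b2 b3 n17 s := by
  have hX0 : 0 < X := by linarith
  have pos : ∀ b : ℝ, 1 ≤ b * X → 0 < b := fun b hb => by
    by_contra h
    have : b * X ≤ 0 := mul_nonpos_of_nonpos_of_nonneg (not_lt.1 h) hX0.le
    linarith
  have P0 := pos P P1
  have b20 := pos b2 b21
  have b30 := pos b3 b31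
  have n0 := pos n17 n1
  have b2' : 1 ≤ b2 * X ^ 1 := by rwa [pow_one]
  have b3' : 1 ≤ b3 * X ^ 1 := by rwa [pow_one]
  have n' : 1 ≤ n17 * X ^ 1 := by rwa [pow_one]
  have P' : 1 ≤ P * X ^ 1 := by rwa [pow_one]
  have Pb : 1 ≤ (P * b3) * X ^ 2 := by
    calc (1 : ℝ) ≤ (P * X) * (b3 * X) := one_le_mul_of_one_le_of_one_le P1 b31
      _ = (P * b3) * X ^ 2 := by ring
  have hDW : DW X 3 X X 1 ≤ 200 * X ^ 3 := by
    have y2 : X ≤ X ^ 2 := by nlinarith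
    have y3 : X ^ 2 ≤ X ^ 3 := by nlinarith [mul_pos hX0 hX0]
    simp only [GeoW778.DW]
    nlinarith
  have hDW0 : 0 ≤ DW X 3 X X 1 := by simp only [GeoW778.DW]; positivity
  have hEW : EW X 3 X X 1 ≤ 10000 * X ^ 5 := by
    have e1 : EW X 3 X X 1 = 2 * X * (8 + 4 * X) * DW X 3 X X 1 := by
      simp only [GeoW778.EW]; ring
    rw [e1]
    have e2 : 2 * X * (8 + 4 * X) ≤ 24 * X ^ 2 := by nlinarith
    calc 2 * X * (8 + 4 * X) * DW X 3 X X 1
        ≤ (24 * X ^ 2) * (200 * X ^ 3) := mul_le_mul e2 hDW hDW0 (by positivity)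
      _ ≤ 10000 * X ^ 5 := by nlinarith [pow_pos hX0 5]
  exact
  { κ1 := κ1
    σ0 := σ0
    Γ0 := hX0.le
    K1 := K1
    X1 := by linarith
    S1 := S1
    KS := KS
    P0 := P0.le
    PZ := PZ
    η0 := hm0
    b20 := b20
    b30 := b30
    n0 := n0
    s1 := s1
    hs2 := hs2
    hs1 := hs1
    hs3 := hs3
    hs1' := hs1'
    hs17 := hs17
    hs16 := hs16
    hs13 := hs13
    e1 := le_of_tiny hX hm0 hm (by norm_num) (by norm_num) (by norm_num) b2'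
    e2 := le_of_tiny hX hm0 hm (by norm_num) (by norm_num) (by norm_num) b3'
    e3 := by
      have h := le_of_tiny (c := 20) (k := 3) hX hm0 hm (by norm_num) (by norm_num)
        (by norm_num) b3'
      refine le_trans ?_ h
      have : X ^ 2 * (X * σ) ≤ X ^ 2 * (X * m) :=
        mul_le_mul_of_nonneg_left (mul_le_mul_of_nonneg_left hσ hX0.le) (by positivity)
      calc 20 * X ^ 2 * (X * σ) = 20 * (X ^ 2 * (X * σ)) := by ring
        _ ≤ 20 * (X ^ 2 * (X * m)) := by linarith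
        _ = 20 * X ^ 3 * m := by ring
    e4 := by
      have h := le_of_tiny (c := 10000) (k := 5) hX hm0 hm (by norm_num) (by norm_num)
        (by norm_num) n'
      refine le_trans ?_ h
      calc σ * EW X 3 X X 1 ≤ σ * (10000 * X ^ 5) := mul_le_mul_of_nonneg_left hEW σ0.le
        _ ≤ m * (10000 * X ^ 5) := mul_le_mul_of_nonneg_right hσ (by positivity)
        _ = 10000 * X ^ 5 * m := by ring
    e5 := by
      have h := tiny (c := 200) (k := 3) (l := 0) hX hm0 hm (by norm_num) (by norm_num)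
        (by norm_num)
      rw [pow_zero, mul_one] at h
      refine le_trans ?_ h
      calc σ * DW X 3 X X 1 ≤ σ * (200 * X ^ 3) := mul_le_mul_of_nonneg_left hDW σ0.le
        _ ≤ m * (200 * X ^ 3) := mul_le_mul_of_nonneg_right hσ (by positivity)
        _ = 200 * X ^ 3 * m := by ring
    e6 := by
      have h := le_of_tiny (c := 1) (k := 1) hX hm0 hm (by norm_num) (by norm_num)
        (by norm_num) b3'
      refine le_trans ?_ h
      calc σ * n17 ≤ m * X := mul_le_mul hσ nX n0.le hm0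
        _ = 1 * X ^ 1 * m := by ring
    e7 := by
      have h := le_of_tiny (c := 100) (k := 2) hX hm0 hm (by norm_num) (by norm_num)
        (by norm_num) Pb
      refine le_trans ?_ h
      calc 100 * X * m * (b2 * Z ^ 8) ≤ 100 * X * m * X :=
            mul_le_mul_of_nonneg_left g3 (by positivity)
        _ = 100 * X ^ 2 * m := by ring
    e8 := by
      have h := le_of_tiny (c := 100) (k := 2) hX hm0 hm (by norm_num) (by norm_num)
        (by norm_num) P'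
      refine le_trans ?_ h
      calc 100 * X * S * m = 100 * X * m * S := by ring
        _ ≤ 100 * X * m * X := mul_le_mul_of_nonneg_left SX (by positivity)
        _ = 100 * X ^ 2 * m := by ring
    g1 := g1
    g2 := g2
    g3 := g3
    g4 := g4 }

/-! ### one stage -/

/-- facts about one stage of the straightened container -/
structure StW (I : Finset (ℕ × ℝ)) (f : Fin 3 → V3) (c : Ln4) (u : Un) (κ σ hz X S S1 η : ℝ)
    (F : ℕ × ℝ → FW) (L0 L : ℕ → Ln4) (Q : ℕ × ℝ → Qd) : Prop where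
  ortho : Ortho f
  ok : u.Ok
  hz0 : 0 < hz
  zh : ∀ z z', u.zh z - u.zh z' = hz * (z - z')
  gz : ∀ x ∈ I, (F x).g 0 = u.zh x.2
  zb : ∀ x ∈ I, |(F x).g 0| ≤ 1
  tru : ∀ x ∈ I, TrueW κ σ (F x) (L x.1)
  bG : ∀ x ∈ I, ∀ k, |(F x).G k| ≤ X
  bV : ∀ x ∈ I, ∀ k, |(L x.1).v k| ≤ X
  bX : ∀ x ∈ I, ∀ z', |z'| ≤ 3 → ∀ k, |(L x.1).pos z' k| ≤ X
  near : ∀ x ∈ I, ∀ z, |z| ≤ 2 → ∀ y : V3, (∀ k, |y k| ≤ 200 * X ^ 2 * S) →
    NearG (Q x) κ η z y
  bent : ∀ x ∈ I, ∀ y ∈ I, ∀ z, |u.zh z| ≤ 2 →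
    Bent u (Q x) κ σ (F x) η (rl f c (L0 y.1)) (L y.1) z
  slc : ∀ x ∈ I, |2 * κ * (F x).g 1| * u.WB ≤ S1 * u.WA
  slA : ∀ x ∈ I, |2 * κ * (F x).g 2| * u.WY ≤ S1 * u.WA
  S10 : 0 ≤ S1
  SS : 5 * S1 + 1 ≤ S

namespace StW

variable {I : Finset (ℕ × ℝ)} {f : Fin 3 → V3} {c : Ln4} {u : Un} {κ σ hz X S S1 η : ℝ}
    {F : ℕ × ℝ → FW} {L0 L : ℕ → Ln4} {Q : ℕ × ℝ → Qd}

/-- a height with given unit height -/
theorem exists_zh (hu : u.Ok) (r : ℝ) : ∃ z, u.zh z = r := by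
  refine ⟨u.zc + u.H * r, ?_⟩
  have := hu.H0.ne'
  simp only [Un.zh]
  field_simp
  ring

/-- the physical slopes of the frame of a line -/
theorem slopes (h : StW I f c u κ σ hz X S S1 η F L0 L Q) (κ1 : |κ| ≤ 1) (hX : 1 ≤ X)
    (hη : 100 * (X * η) ≤ 1) (hη0 : 0 ≤ η) {x : ℕ × ℝ} (hx : x ∈ I) {zm : ℝ} (hzm : |zm| ≤ 2) :
    ∃ Am cA : ℝ, (∀ z, u.xh ((rl f c (L0 x.1)).pos z) 1 = Am + cA * (u.zh z - zm)) ∧
      |cA - (F x).g 1| ≤ 4 * η * X ∧ |cA| ≤ 5 * X ∧ |Am| ≤ 5 * X ∧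
      |2 * κ * cA| * (u.WB / u.WA) ≤ S ∧ u.WY / u.WA * |2 * κ * Am| ≤ S := by
  have hA := h.ok.A0
  have hB := h.ok.B0
  have hY := h.ok.Y0
  have hX0 : 0 < X := by linarith
  have hηX : η ≤ X * η := le_mul_of_one_le_left hη0 hX
  obtain ⟨Am, cA, hT⟩ := xh_aff h.ok (rl f c (L0 x.1)) zm 1
  obtain ⟨za, ha⟩ := exists_zh h.ok 0
  obtain ⟨zb, hb⟩ := exists_zh h.ok 1
  obtain ⟨zc', hc⟩ := exists_zh h.ok zm
  have Ba := h.bent x hx x hx za (by rw [ha, abs_zero]; norm_num)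
  have Bb := h.bent x hx x hx zb (by rw [hb, abs_one]; norm_num)
  have Bc := h.bent x hx x hx zc' (by rw [hc]; exact hzm)
  have hM := h.tru x hx
  obtain ⟨q1, q2, q3⟩ := slope_bent (by linarith : η ≤ 1) hX (h.bV x hx) hT Ba Bb
    (by rw [ha, hb]; ring) Bc hc (fun z' hz' k => h.bX x hx z' (by
      have := a2 hz' hzm
      rw [sub_add_cancel] at this
      linarith) k)
  rw [hM.c] at q1
  refine ⟨Am, cA, hT, q1, q2, q3, ?_, ?_⟩
  · have e1 : |2 * κ * cA| ≤ |2 * κ * (F x).g 1| + 8 * (X * η) := by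
      have e : 2 * κ * cA = 2 * κ * (F x).g 1 + 2 * (κ * (cA - (F x).g 1)) := by ring
      rw [e]
      refine a2 le_rfl ?_
      rw [abs_mul, abs_two]
      have := m2 κ1 q1
      linarith
    have e2 : |2 * κ * (F x).g 1| * (u.WB / u.WA) ≤ S1 := by
      rw [← mul_div_assoc, div_le_iff₀ hA]
      exact h.slc x hx
    have e3 : u.WB / u.WA ≤ 1 := (div_le_one hA).2 h.ok.BA
    have e4 : 0 ≤ u.WB / u.WA := by positivity
    have e5 := mul_le_mul_of_nonneg_right e1 e4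
    have e6 : 8 * (X * η) * (u.WB / u.WA) ≤ 8 * (X * η) * 1 :=
      mul_le_mul_of_nonneg_left e3 (by positivity)
    have := h.SS
    have := h.S10
    rw [add_mul] at e5
    linarith
  · obtain ⟨z3, l1, l2, -⟩ := Bc
    have l2' := l2 1
    rw [hT, hc, sub_self, mul_zero, add_zero, hM.posA] at l2'
    have l3 : |z3 - (F x).g 0| ≤ 4 := by
      have e : z3 - (F x).g 0 = (z3 - zm) + zm - (F x).g 0 := by ring
      rw [hc] at l1
      rw [e]
      have := s2 (a2 l1 hzm) (h.zb x hx)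
      linarith
    have e1 : |2 * κ * Am| ≤ 1 + |2 * κ * (F x).g 2| + |2 * κ * (F x).g 1| * 4 := by
      have e : 2 * κ * Am = 2 * (κ * (Am - ((F x).g 2 + (F x).g 1 * (z3 - (F x).g 0)))) +
          2 * κ * (F x).g 2 + 2 * κ * (F x).g 1 * (z3 - (F x).g 0) := by ring
      rw [e]
      refine a2 (a2 ?_ le_rfl) (m2 le_rfl l3)
      rw [abs_mul, abs_two]
      have := m2 κ1 l2'
      linarith
    have e2 : u.WY / u.WA * |2 * κ * (F x).g 2| ≤ S1 := by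
      have := h.slA x hx
      rw [div_mul_eq_mul_div, div_le_iff₀ hA, mul_comm]
      exact this
    have e3 : u.WY / u.WA * |2 * κ * (F x).g 1| ≤ S1 := by
      have h1 := h.slc x hx
      have h2 := mul_le_mul_of_nonneg_left h.ok.YB (abs_nonneg (2 * κ * (F x).g 1))
      rw [div_mul_eq_mul_div, div_le_iff₀ hA, mul_comm]
      linarith
    have e4 : u.WY / u.WA ≤ 1 := (div_le_one hA).2 (h.ok.YB.trans h.ok.BA)
    have e5 : 0 ≤ u.WY / u.WA := by positivity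
    have e6 := mul_le_mul_of_nonneg_left e1 e5
    have e7 : u.WY / u.WA * (1 + |2 * κ * (F x).g 2| + |2 * κ * (F x).g 1| * 4) =
        u.WY / u.WA + u.WY / u.WA * |2 * κ * (F x).g 2| +
          4 * (u.WY / u.WA * |2 * κ * (F x).g 1|) := by ring
    have := h.SS
    have := h.S10
    rw [e7] at e6
    linarith

/-- **the lines of a legal chart box in one cell lie in one sheet** -/
theorem cell (h : StW I f c u κ σ hz X S S1 η F L0 L Q) {K Z P b2 b3 n17 : ℝ}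
    {s : Fin 18 → ℝ} (hN : NumW u κ σ X X S η K Z P b2 b3 n17 s) {x : ℕ × ℝ} (hx : x ∈ I)
    {z0 ρ r0 : ℝ} (hρ : 0 ≤ ρ) (hρP : hz * ρ ≤ P * Z) (hs0 : s 0 ≤ K * (P * Z))
    (hr : r0 ≤ u.WY * (σ * n17 * Z ^ 4)) :
    ∃ (e : Fin 3 → V3) (T : Ln4) (w : V3) (q : ℝ → V3 → ℝ), w 1 = u.WA * (b2 * Z ^ 8) ∧
      w 2 = u.WB * (b3 * Z ^ 6) ∧ ShN e T w q (u.WY * (σ * n17 * Z ^ 4)) z0 ρ r0 ∧
      ∀ y ∈ I, z0 ≤ y.2 → y.2 ≤ z0 + ρ → (∀ k, |coW κ (F x) (F y) k| ≤ s k) →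
        InSheet (L0 y.1) e T w q (u.WY * (σ * n17 * Z ^ 4)) z0 ρ := by
  have hZ := hN.Z0
  have hX := hN.X1
  have hP := hN.P0
  have hPZ : 0 ≤ P * Z := mul_nonneg hP hZ.le
  have hPZK : P * Z ≤ K * (P * Z) := le_mul_of_one_le_left hPZ hN.K1
  by_cases hex : ∃ y0 ∈ I, z0 ≤ y0.2 ∧ y0.2 ≤ z0 + ρ ∧ (∀ k, |coW κ (F x) (F y0) k| ≤ s k)
  · obtain ⟨y0, hy0, y01, y02, y03⟩ := hex
    have cellz : ∀ z z', z0 ≤ z → z ≤ z0 + ρ → z0 ≤ z' → z' ≤ z0 + ρ →
        |u.zh z - u.zh z'| ≤ P * Z := by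
      intro z z' a1 a2 b1 b2
      rw [h.zh, abs_mul, abs_of_pos h.hz0]
      refine le_trans (mul_le_mul_of_nonneg_left ?_ h.hz0.le) hρP
      rw [abs_le]; constructor <;> linarith
    have hz2 : ∀ z, z0 ≤ z → z ≤ z0 + ρ → |u.zh z| ≤ 2 := by
      intro z a1 a3
      have h1 := cellz z y0.2 a1 a3 y01 y02
      have h2 := h.zb y0 hy0
      rw [h.gz y0 hy0] at h2
      have := a2 h1 h2
      rw [sub_add_cancel] at this
      linarith [hN.PZ1]
    set zm : ℝ := u.zh (z0 + ρ / 2) with hzm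
    have hzm2 : |zm| ≤ 2 := hz2 _ (by linarith) (by linarith)
    have hηX : 100 * (X * η) ≤ 1 := by linarith [hN.ηX, hN.P1]
    obtain ⟨Am, cA, hT, q1, q2, q3, q4, q5⟩ := h.slopes hN.κ1 hX hηX hN.η0 hx hzm2
    have key := gdM_num (S := S) (r0 := r0) h.ortho (c := c) (T := L0 x.1) (M := L x.1) h.ok
      (Q := Q x) (h.tru x hx) hN hρ (h.bG x hx) (h.bV x hx) (h.bX x hx) hT q1 q2 q3 hzm2 q4 q5
      (fun z a1 a2 => h.bent x hx x hx z (hz2 z a1 a2))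
      (by
        intro z a1 a3
        refine ⟨hz2 z a1 a3, cellz z _ a1 a3 (by linarith) (by linarith), ?_⟩
        have h1 := cellz z y0.2 a1 a3 y01 y02
        have h2 := y03 0
        rw [PrW464.coW_zero, h.gz y0 hy0] at h2
        have e : u.zh z - (F x).g 0 = (u.zh z - u.zh y0.2) + (u.zh y0.2 - (F x).g 0) := by ring
        rw [e]
        have := a2 h1 (h2.trans hs0)
        linarith)
      (fun z a1 a2 y hy => h.near x hx _ (hz2 z a1 a2) y hy) hr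
    obtain ⟨e, w, q, -, r1, r2, r3, r4⟩ := key
    refine ⟨e, L0 x.1, w, q, r1, r2, r3, ?_⟩
    intro y hy y1 y2 hsy
    refine r4 (L0 y.1) (L y.1) (F y) (h.tru y hy) (h.bG y hy) (h.bV y hy) ?_ (h.bX y hy) hsy
    intro z a1 a2
    refine ⟨h.bent x hx y hy z (hz2 z a1 a2), ?_⟩
    rw [h.gz y hy]
    exact cellz z y.2 a1 a2 y1 y2
  · refine ⟨f, L0 x.1, ![u.WB * (b3 * Z ^ 6), u.WA * (b2 * Z ^ 8), u.WB * (b3 * Z ^ 6)],
      GeoQ186.qflat f (L0 x.1), rfl, rfl, GeoQ186.flat_ShN h.ortho _ ?_ hr ?_ (hN.hw h.ok), ?_⟩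
    · have := h.ok.Y0
      have := hN.σ0
      have := hN.n0
      positivity
    · have i0 := hN.h02 h.ok
      have i1 : u.WY * (σ * n17 * Z ^ 4) ≤ u.WY * YW σ Z P b2 b3 n17 := by
        refine mul_le_mul_of_nonneg_left ?_ h.ok.Y0.le
        have j1 : 0 ≤ b2 ^ 2 * Z ^ 17 := by positivity
        have j2 : 0 ≤ P * b3 * Z ^ 8 := by have := hN.b30; positivity
        unfold YW
        linarith
      have : 0 < u.WY * YW σ Z P b2 b3 n17 := mul_pos h.ok.Y0 hN.YW_pos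
      linarith
    · intro y hy y1 y2 hsy
      exact absurd ⟨y, hy, y1, y2, hsy⟩ hex

end StW

end Crest.Agent.R136.GeoN778
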