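import Crest.Agent.R136.GDW2_778
import Crest.Agent.R136.GD5_186
import Crest.Agent.R136.TD5_627

/-!
# R136, [GEO-D] for the W-chart, the data (helper778)

* `WCon` : the straightened container of the first thin window (original lines `L0`, true lines `L`,
  flags `F`, quadrics `Q n x` of the flagged sheets in unit coordinates);
* `Qw` : the facts about one level (widths of the marks, physical slopes), to be carried by zooming;
* `WLev` : these facts at the level `0` of the final window, in terms of the units of the chart;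
* `OrdW`, `PDW` : the exponents of the boxes which are one sheet;
* `SheetGeo` : the geometry contains the sheets of the class `ShN` (sizes between `wr` and `cr`).
-/

set_option autoImplicit false
set_option linter.unusedVariables false
set_option maxHeartbeats 400000

open Finset Filter Topology

namespace Crest.Agent.R136.GeoN778

open Crest.Agent.R138
open Crest.Agent.R138.Ex926 (Base U)
open Crest.Agent.R138.Dp76 (dpow_pos dpow_add dpow_le dpow_le_one)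
open Crest.Agent.R138.Mk163 (zc zl rho alive)
open Crest.Agent.R136.MkA627
open Crest.Agent.R136.Net191
open Crest.Agent.R136.NetW191
open Crest.Agent.R136.Sh605
open Crest.Agent.R136.GeoW778 (qS TrueW dB DW EW)
open Crest.Agent.R136.Wq638 (capQ N0Q)
open Crest.Agent.R136.PrW464 (WData unW unW_pos couW UnitW)
open Crest.Agent.R136.TD627 (CarryH)
open Crest.Agent.R136.ArgA163 (rho_pos)

/-! ### the container -/

/-- **the straightened container of a window with base `B0`** : original coordinates = frame `f n`,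
origin `c n`, units `u n`; `Q n x` = quadric of the flagged sheet of `x` in the unit coordinates -/
structure WCon (B0 : Base) (I : ℕ → Finset (ℕ × ℝ)) (kp sg hz zs : ℕ → ℝ)
    (F : ℕ → ℕ × ℝ → FW) (L0 L : ℕ → ℕ → Ln4) (f : ℕ → Fin 3 → V3) (c : ℕ → Ln4)
    (u : ℕ → Un) (Q : ℕ → ℕ × ℝ → Qd) : Prop where
  ortho : ∀ᶠ n in (U : Filter ℕ), Ortho (f n)
  ok : ∀ᶠ n in (U : Filter ℕ), (u n).Ok
  zh : ∀ᶠ n in (U : Filter ℕ), ∀ z, (u n).zh z = hz n * z - zs n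
  near : ∀ C M : ℝ, ∀ᶠ n in (U : Filter ℕ), ∀ x ∈ I n, ∀ z, |z| ≤ 2 → ∀ y : V3,
    (∀ k, |y k| ≤ B0.d n ^ (-C)) → NearG (Q n x) (kp n) (B0.d n ^ M) z y
  bent : ∀ M : ℝ, ∀ᶠ n in (U : Filter ℕ), ∀ x ∈ I n, ∀ y ∈ I n, ∀ z, |(u n).zh z| ≤ 2 →
    Bent (u n) (Q n x) (kp n) (sg n) (F n x) (B0.d n ^ M) (rl (f n) (c n) (L0 n y.1))
      (L n y.1) z

/-- smaller sets -/
theorem WCon.mono {B0 : Base} {I J : ℕ → Finset (ℕ × ℝ)} {kp sg hz zs : ℕ → ℝ}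
    {F : ℕ → ℕ × ℝ → FW} {L0 L : ℕ → ℕ → Ln4} {f : ℕ → Fin 3 → V3} {c : ℕ → Ln4}
    {u : ℕ → Un} {Q : ℕ → ℕ × ℝ → Qd} (h : WCon B0 I kp sg hz zs F L0 L f c u Q)
    (hJ : ∀ᶠ n in (U : Filter ℕ), J n ⊆ I n) : WCon B0 J kp sg hz zs F L0 L f c u Q where
  ortho := h.ortho
  ok := h.ok
  zh := h.zh
  near C M := by
    filter_upwards [h.near C M, hJ] with n hn hs x hx using hn x (hs hx)
  bent M := by
    filter_upwards [h.bent M, hJ] with n hn hs x hx y hy using hn x (hs hx) y (hs hy)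

/-! ### the level -/

/-- two-sided comparison with a loss -/
def Cmp (e x y : ℝ) : Prop := e * y ≤ x ∧ e * x ≤ y

/-- **the facts about one level `v` with loss `d^-δ`** (first window; `ρ n v = hz n * rho (lev n v)`,
`wA`, `a` : 650's precisions) -/
def Qw (B0 : Base) (I : ℕ → Finset (ℕ × ℝ)) (w : Fin 3 → ℕ → ℚ → ℝ) (kp sg : ℕ → ℝ)
    (F : ℕ → ℕ × ℝ → FW) (u : ℕ → Un) (ρ wA a : ℕ → ℚ → ℝ) (C : ℝ) : ℕ → ℕ → ℚ → ℝ → Prop
  | 0, n, v, δ => 0 < (u n).WA * wA n v ∧ Cmp (B0.d n ^ δ) (w 1 n v) ((u n).WA * wA n v)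
  | 1, n, v, δ => 0 < (u n).WB * (wA n v ^ 2 / ρ n v) ∧
      Cmp (B0.d n ^ δ) (w 2 n v) ((u n).WB * (wA n v ^ 2 / ρ n v))
  | 2, n, v, δ => 0 < (u n).WY * (sg n * a n v) ∧
      Cmp (B0.d n ^ δ) (w 0 n v) ((u n).WY * (sg n * a n v))
  | 3, n, _, δ => 0 < (u n).WA ∧
      (∀ x ∈ I n, |2 * kp n * (F n x).g 1| * (u n).WB ≤ B0.d n ^ (-δ) * (u n).WA) ∧
      ∀ x ∈ I n, |2 * kp n * (F n x).g 2| * (u n).WY ≤ B0.d n ^ (-δ) * (u n).WA
  | 4, n, v, _ => ρ n v ≤ 1 ∧ wA n v ≤ B0.d n ^ (-C) ∧ a n v ≤ B0.d n ^ (-C)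
  | _ + 5, _, _, _ => True

theorem Cmp.mono {e e' x y : ℝ} (h : Cmp e x y) (h0 : 0 ≤ e) (he : e' ≤ e) (hy : 0 < y) :
    Cmp e' x y := by
  have hx : 0 ≤ x := (mul_nonneg h0 hy.le).trans h.1
  exact ⟨(mul_le_mul_of_nonneg_right he hy.le).trans h.1,
    (mul_le_mul_of_nonneg_right he hx).trans h.2⟩

/-- the facts are carried by zooming -/
theorem carry_Qw {B0 : Base} {I : ℕ → Finset (ℕ × ℝ)} {w : Fin 3 → ℕ → ℚ → ℝ} {kp sg : ℕ → ℝ}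
    {F : ℕ → ℕ × ℝ → FW} {u : ℕ → Un} {ρ wA a : ℕ → ℚ → ℝ} {C : ℝ}
    (h : ∀ i, ∀ v : ℚ, 0 ≤ v → v ≤ 1 → ∀ δ : ℝ, 0 < δ → ∀ᶠ n in (U : Filter ℕ),
      Qw B0 I w kp sg F u ρ wA a C i n v δ) :
    CarryH (Qw B0 I w kp sg F u ρ wA a C) := by
  refine ⟨?_, h⟩
  intro i n v δ δ' hδ hq
  have hd := dpow_le B0 n hδ
  have hd' := dpow_le B0 n (show -δ' ≤ -δ by linarith)
  match i, hq with
  | 0, hq => exact ⟨hq.1, hq.2.mono (dpow_pos B0 n _).le hd hq.1⟩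
  | 1, hq => exact ⟨hq.1, hq.2.mono (dpow_pos B0 n _).le hd hq.1⟩
  | 2, hq => exact ⟨hq.1, hq.2.mono (dpow_pos B0 n _).le hd hq.1⟩
  | 3, hq => exact ⟨hq.1,
      fun x hx => (hq.2.1 x hx).trans (mul_le_mul_of_nonneg_right hd' hq.1.le),
      fun x hx => (hq.2.2 x hx).trans (mul_le_mul_of_nonneg_right hd' hq.1.le)⟩
  | 4, hq => exact hq
  | _ + 5, hq => exact hq

/-- **the facts about the level `0` of the final window** -/
structure WLev (B0 B : Base) (I : ℕ → Finset (ℕ × ℝ)) (lev : ℕ → ℚ → ℕ) (w : Fin 3 → ℕ → ℚ → ℝ)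
    (kp sg hz : ℕ → ℝ) (F : ℕ → ℕ × ℝ → FW) (u : ℕ → Un) (uz uc un : ℕ → ℝ) (w0 : ℝ) : Prop where
  base : ∀ n, B0.d n ≤ B.d n
  z0 : ∀ n, 0 < uz n
  c0 : ∀ n, 0 < uc n
  n0 : ∀ n, 0 < un n
  hz0 : ∀ n, 0 < hz n
  hz : ∀ n, uz n * hz n = B.d n ^ w0 * 2 ^ lev n 0
  /-- the unit height of level `0` is at most `1` -/
  zc : ∀ᶠ n in (U : Filter ℕ), B.d n ^ w0 ≤ uz n
  low : ∃ C : ℝ, ∀ᶠ n in (U : Filter ℕ), uz n ≤ B0.d n ^ (-C) ∧ uc n ≤ B0.d n ^ (-C) ∧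
    un n ≤ B0.d n ^ (-C)
  top : ∃ C : ℝ, ∀ᶠ n in (U : Filter ℕ), B0.d n ^ C ≤ uz n * uc n ∧ B0.d n ^ C ≤ un n
  wA : ∀ ε : ℝ, 0 < ε → ∀ᶠ n in (U : Filter ℕ), Cmp (B.d n ^ ε) (w 1 n 0)
    ((u n).WA * (B.d n ^ (2 * w0) / (uz n * uc n)))
  wB : ∀ ε : ℝ, 0 < ε → ∀ᶠ n in (U : Filter ℕ), Cmp (B.d n ^ ε) (w 2 n 0)
    ((u n).WB * (B.d n ^ (3 * w0) / (uz n * uc n ^ 2)))
  wY : ∀ ε : ℝ, 0 < ε → ∀ᶠ n in (U : Filter ℕ), Cmp (B.d n ^ ε) (w 0 n 0)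
    ((u n).WY * (sg n * (B.d n ^ (9 * w0) / un n)))
  slc : ∀ ε : ℝ, 0 < ε → ∀ᶠ n in (U : Filter ℕ), ∀ x ∈ I n,
    |2 * kp n * (F n x).g 1| * (u n).WB ≤ B.d n ^ (-ε) * (u n).WA
  slA : ∀ ε : ℝ, 0 < ε → ∀ᶠ n in (U : Filter ℕ), ∀ x ∈ I n,
    |2 * kp n * (F n x).g 2| * (u n).WY ≤ B.d n ^ (-ε) * (u n).WA

/-- **from the carried facts to `WLev`** -/
theorem wlev_of {B0 B : Base} {I0 I : ℕ → Finset (ℕ × ℝ)} {lev : ℕ → ℚ → ℕ}
    {w : Fin 3 → ℕ → ℚ → ℝ} {kp sg hz : ℕ → ℝ} {F : ℕ → ℕ × ℝ → FW} {u : ℕ → Un}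
    {uz uc un : ℕ → ℝ} {w0 : ℝ} {ρ wA a : ℕ → ℚ → ℝ} {C : ℝ} {H : ℕ → ℝ} {mm : ℕ → ℚ → ℚ}
    {sc : Fin 18 → ℕ → ℝ} (hz0 : ∀ n, 0 < hz n) (base : ∀ n, B0.d n ≤ B.d n)
    (hB : ∀ n, B.d n = B0.d n ^ H n) (hI : ∀ᶠ n in (U : Filter ℕ), I n ⊆ I0 n)
    (hρ : ∀ n v, ρ n v = hz n * rho (lev n v))
    (hQ : CarryH fun i n v δ => Qw B0 I0 w kp sg F u ρ wA a C i n (mm n v) (H n * δ))
    (hU : UnitW B (fun n v => lev n (mm n v)) hz uz uc un w0 sc)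
    (low : ∃ C : ℝ, ∀ᶠ n in (U : Filter ℕ), ∀ k, B0.d n ^ C ≤ sc k n)
    (hu : ∀ᶠ n in (U : Filter ℕ), uz n = B.d n ^ w0 / (hz n * rho (lev n (mm n 0))) ∧
        uc n = B.d n ^ w0 / (wA n (mm n 0) / ρ n (mm n 0)) ∧
        un n = B.d n ^ (9 * w0) / a n (mm n 0) ∧ 0 < wA n (mm n 0) ∧ 0 < a n (mm n 0)) :
    WLev B0 B I (fun n v => lev n (mm n v)) (fun j n v => w j n (mm n v)) kp sg hz F u uz uc un
      w0 := by
  have hd : ∀ n (a : ℝ), B.d n ^ a = B0.d n ^ (H n * a) := fun n a => by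
    rw [hB, ← Real.rpow_mul (B0.pos n).le]
  have hρ0 : ∀ n v, 0 < ρ n v := fun n v => by
    rw [hρ]; exact mul_pos (hz0 n) (Crest.Agent.R136.ArgA163.rho_pos _)
  have q4 := hQ.2 4 0 le_rfl zero_le_one 1 one_pos
  have e1 : ∀ᶠ n in (U : Filter ℕ), B.d n ^ (2 * w0) / (uz n * uc n) = wA n (mm n 0) := by
    filter_upwards [hu] with n hn
    obtain ⟨h1, h2, -, h4, -⟩ := hn
    have := hρ0 n (mm n 0)
    have := (dpow_pos B n w0).ne'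
    rw [h1, h2, ← hρ, show (2 : ℝ) * w0 = w0 + w0 by ring, dpow_add]
    field_simp
  have e2 : ∀ᶠ n in (U : Filter ℕ), B.d n ^ (3 * w0) / (uz n * uc n ^ 2) =
      wA n (mm n 0) ^ 2 / ρ n (mm n 0) := by
    filter_upwards [hu] with n hn
    obtain ⟨h1, h2, -, h4, -⟩ := hn
    have := hρ0 n (mm n 0)
    have := (dpow_pos B n w0).ne'
    rw [h1, h2, ← hρ, show (3 : ℝ) * w0 = w0 + w0 + w0 by ring, dpow_add, dpow_add]
    field_simp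
  have e3 : ∀ᶠ n in (U : Filter ℕ), B.d n ^ (9 * w0) / un n = a n (mm n 0) := by
    filter_upwards [hu] with n hn
    obtain ⟨-, -, h3, -, h5⟩ := hn
    have := (dpow_pos B n (9 * w0)).ne'
    rw [h3]
    field_simp
  refine ⟨base, hU.z0, hU.c0, hU.n0, hz0, hU.hz, ?_, ?_, ?_, ?_, ?_, ?_, ?_, ?_⟩
  · filter_upwards [hu, q4] with n hn h4
    have h1 : uz n = B.d n ^ w0 / ρ n (mm n 0) := by rw [hn.1, hρ]
    rw [h1, le_div_iff₀ (hρ0 n _)]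
    exact mul_le_of_le_one_right (dpow_pos B n _).le h4.1
  · obtain ⟨C1, hC1⟩ := low
    refine ⟨C1 + 1 + |w0| + |9 * w0|, ?_⟩
    filter_upwards [hC1, hU.sc 0 1 one_pos, hU.sc 1 1 one_pos, hU.sc 17 1 one_pos]
      with n h1 h2 h3 h4
    have main : ∀ (k : Fin 18) (x y : ℝ), 0 < x → y - 1 ≤ |w0| + |9 * w0| + 1 →
        -(|w0| + |9 * w0| + 1) ≤ y - 1 →
        x * sc k n ≤ B.d n ^ (y - 1) → x ≤ B0.d n ^ (-(C1 + 1 + |w0| + |9 * w0|)) := by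
      intro k x y hx hy1 hy2 h
      have g1 : x * B0.d n ^ C1 ≤ B.d n ^ (y - 1) :=
        (mul_le_mul_of_nonneg_left (h1 k) hx.le).trans h
      have g2 : B.d n ^ (y - 1) ≤ B0.d n ^ (-(|w0| + |9 * w0| + 1)) := by
        refine (dpow_le B n hy2).trans ?_
        exact Real.rpow_le_rpow_of_nonpos (B0.pos n) (base n) (by
          have := abs_nonneg w0; have := abs_nonneg (9 * w0); linarith)
      have g3 := mul_le_mul_of_nonneg_right (g1.trans g2) (dpow_pos B0 n (-C1)).le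
      rw [mul_assoc, ← dpow_add, add_neg_cancel, Real.rpow_zero, mul_one, ← dpow_add] at g3
      refine g3.trans (le_of_eq ?_)
      congr 1; ring
    have a1 := abs_nonneg w0
    have a2 := le_abs_self w0
    have a3 := neg_abs_le w0
    have b1 := abs_nonneg (9 * w0)
    have b2 := le_abs_self (9 * w0)
    have b3 := neg_abs_le (9 * w0)
    refine ⟨?_, ?_, ?_⟩
    · have h := h2.2
      rw [PrW464.unW_zero, show PrW464.wtR 0 * w0 = w0 by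
        simp [PrW464.wtR, PrW464.grW, PrW464.wz, PrW464.wc, PrW464.wn]] at h
      exact main 0 _ w0 (hU.z0 n) (by linarith) (by linarith) h
    · have h := h3.2
      rw [show unW (uz n) (uc n) (un n) 1 = uc n by
        simp [unW, PrW464.wz, PrW464.wc, PrW464.wn], show PrW464.wtR 1 * w0 = w0 by
        simp [PrW464.wtR, PrW464.grW, PrW464.wz, PrW464.wc, PrW464.wn]] at h
      exact main 1 _ w0 (hU.c0 n) (by linarith) (by linarith) h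
    · have h := h4.2
      rw [show unW (uz n) (uc n) (un n) 17 = un n by
        simp [unW, PrW464.wz, PrW464.wc, PrW464.wn], show PrW464.wtR 17 * w0 = 9 * w0 by
        simp [PrW464.wtR, PrW464.grW, PrW464.wz, PrW464.wc, PrW464.wn]] at h
      exact main 17 _ (9 * w0) (hU.n0 n) (by linarith) (by linarith) h
  · refine ⟨C + |2 * w0| + |9 * w0|, ?_⟩
    filter_upwards [e1, e3, q4, hu] with n g1 g3 h4 hn
    have main : ∀ x y z : ℝ, 0 < x → 0 < z → B.d n ^ y / x = z → z ≤ B0.d n ^ (-C) →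
        y ≤ |2 * w0| + |9 * w0| → B0.d n ^ (C + |2 * w0| + |9 * w0|) ≤ x := by
      intro x y z hx hz h1 h2 h3
      have i1 : B.d n ^ y = z * x := by rw [← h1]; field_simp
      have i2 : B0.d n ^ (|2 * w0| + |9 * w0|) ≤ B.d n ^ y := by
        have hnn : 0 ≤ |2 * w0| + |9 * w0| := by positivity
        refine (Real.rpow_le_rpow (B0.pos n).le (base n) hnn).trans ?_
        exact dpow_le B n h3
      have i3 : B0.d n ^ (|2 * w0| + |9 * w0|) ≤ B0.d n ^ (-C) * x := by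
        rw [i1] at i2
        exact i2.trans (mul_le_mul_of_nonneg_right h2 hx.le)
      have i4 := mul_le_mul_of_nonneg_left i3 (dpow_pos B0 n C).le
      rw [← mul_assoc, ← dpow_add, ← dpow_add, add_neg_cancel, Real.rpow_zero, one_mul] at i4
      rwa [add_assoc]
    refine ⟨main _ (2 * w0) _ (mul_pos (hU.z0 n) (hU.c0 n)) hn.2.2.2.1 g1 h4.2.1 ?_,
      main _ (9 * w0) _ (hU.n0 n) hn.2.2.2.2 g3 h4.2.2 ?_⟩
    · linarith [le_abs_self (2 * w0), abs_nonneg (9 * w0)]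
    · linarith [le_abs_self (9 * w0), abs_nonneg (2 * w0)]
  · intro ε hε
    filter_upwards [e1, hQ.2 0 0 le_rfl zero_le_one ε hε] with n g1 h1
    rw [g1, hd]
    exact h1.2
  · intro ε hε
    filter_upwards [e2, hQ.2 1 0 le_rfl zero_le_one ε hε] with n g1 h1
    rw [g1, hd]
    exact h1.2
  · intro ε hε
    filter_upwards [e3, hQ.2 2 0 le_rfl zero_le_one ε hε] with n g1 h1
    rw [g1, hd]
    exact h1.2
  · intro ε hε
    filter_upwards [hQ.2 3 0 le_rfl zero_le_one ε hε, hI] with n h1 hs x hx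
    rw [hd, mul_neg]
    exact h1.2.1 x (hs hx)
  · intro ε hε
    filter_upwards [hQ.2 3 0 le_rfl zero_le_one ε hε, hI] with n h1 hs x hx
    rw [hd, mul_neg]
    exact h1.2.2 x (hs hx)

/-! ### the exponents -/

/-- the three sizes are ordered and above the resolution, up to `d^-ε` -/
structure OrdW (B : Base) (r0 : ℕ → ℝ) (lev : ℕ → ℚ → ℕ) (w : Fin 3 → ℕ → ℚ → ℝ) (w0 : ℝ)
    (p : Fin 18 → ℝ) : Prop where
  ab : ∀ ε : ℝ, 0 < ε → ∀ᶠ n in (U : Filter ℕ), w 2 n 0 * B.d n ^ (p 3 - 3 * w0) ≤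
    B.d n ^ (-ε) * (w 1 n 0 * B.d n ^ (p 2 - 2 * w0))
  res : ∀ ε : ℝ, 0 < ε → ∀ᶠ n in (U : Filter ℕ),
    r0 n ≤ B.d n ^ (-ε) * (w 0 n 0 * B.d n ^ (p 17 - 9 * w0))
  cap : ∃ δ : ℝ, 0 < δ ∧ ∀ᶠ n in (U : Filter ℕ),
    w 1 n 0 * B.d n ^ (p 2 - 2 * w0) ≤ rho (lev n 0) * B.d n ^ (p 0 - w0 + δ)

/-- **exponents of the boxes which are one sheet** -/
def PDW (B : Base) (r0 : ℕ → ℝ) (lev : ℕ → ℚ → ℕ) (w : Fin 3 → ℕ → ℚ → ℝ) (w0 R : ℝ) :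
    Set (Fin 18 → ℝ) :=
  {p | p ∈ Leg monW R ∧ w0 < p 0 ∧ p 0 ≤ w0 + 1 ∧ p 3 < 2 * p 2 - w0 ∧ OrdW B r0 lev w w0 p}

theorem PDW_leg {B : Base} {r0 : ℕ → ℝ} {lev : ℕ → ℚ → ℕ} {w : Fin 3 → ℕ → ℚ → ℝ} {w0 R : ℝ} :
    PDW B r0 lev w w0 R ⊆ Leg monW R := fun _ h => h.1

/-- **when is a box one sheet** -/
theorem mem_PDW {B : Base} {lev : ℕ → ℚ → ℕ} {w : Fin 3 → ℕ → ℚ → ℝ} {r0 : ℕ → ℝ} {w0 R : ℝ}
    {p : Fin 18 → ℝ} {cab cby cr cc : ℝ} (h : GeoQ186.W0 B r0 lev w cab cby cr cc)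
    (hp : p ∈ Leg monW R) (hp0 : w0 < p 0) (hp1 : p 0 ≤ w0 + 1) (hp3 : p 3 < 2 * p 2 - w0)
    (h1 : p 2 - 2 * w0 ≤ p 3 - 3 * w0 + cab) (h2 : p 17 - 9 * w0 ≤ cr)
    (h3 : p 0 - w0 < cc + (p 2 - 2 * w0)) : p ∈ PDW B r0 lev w w0 R := by
  have dpp := fun n a => Dp76.dpow_pos B n a
  refine ⟨hp, hp0, hp1, hp3, fun ε hε => ?_, fun ε hε => ?_, ?_⟩
  · filter_upwards [h.ab ε hε, h.pos 1] with n hn h0
    calc w 2 n 0 * B.d n ^ (p 3 - 3 * w0)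
        ≤ (B.d n ^ (cab - ε) * w 1 n 0) * B.d n ^ (p 3 - 3 * w0) :=
          mul_le_mul_of_nonneg_right hn (dpp n _).le
      _ = B.d n ^ (cab - ε + (p 3 - 3 * w0)) * w 1 n 0 := by rw [Dp76.dpow_add]; ring
      _ ≤ B.d n ^ (-ε + (p 2 - 2 * w0)) * w 1 n 0 :=
          mul_le_mul_of_nonneg_right (Dp76.dpow_le B n (by linarith)) h0.le
      _ = _ := by rw [Dp76.dpow_add]; ring
  · filter_upwards [h.res ε hε, h.pos 0] with n hn h0
    refine hn.trans ?_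
    calc B.d n ^ (cr - ε) * w 0 n 0 ≤ B.d n ^ (-ε + (p 17 - 9 * w0)) * w 0 n 0 :=
          mul_le_mul_of_nonneg_right (Dp76.dpow_le B n (by linarith)) h0.le
      _ = _ := by rw [Dp76.dpow_add]; ring
  · obtain ⟨δ, hδ⟩ : ∃ δ : ℝ, δ = (cc + (p 2 - 2 * w0) - (p 0 - w0)) / 2 := ⟨_, rfl⟩
    have hδ0 : 0 < δ := by rw [hδ]; linarith
    refine ⟨δ, hδ0, ?_⟩
    filter_upwards [h.cap δ hδ0] with n hn
    have hρ : 0 < rho (lev n 0) := rho_pos _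
    calc w 1 n 0 * B.d n ^ (p 2 - 2 * w0)
        ≤ (B.d n ^ (cc - δ) * rho (lev n 0)) * B.d n ^ (p 2 - 2 * w0) :=
          mul_le_mul_of_nonneg_right hn (dpp n _).le
      _ = rho (lev n 0) * B.d n ^ (cc - δ + (p 2 - 2 * w0)) := by rw [Dp76.dpow_add]; ring
      _ ≤ _ := mul_le_mul_of_nonneg_left (Dp76.dpow_le B n (by rw [hδ]; linarith)) hρ.le

/-! ### the geometry -/

/-- the geometry contains the sheets of the class `ShN` with sizes between `wr` and `cr` -/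
structure SheetGeo {τ κ : Type*} (G : Geo τ κ) (L : ℕ → ℕ → Ln4) (r0 : ℕ → ℝ)
    (wr cr : Fin 3 → ℕ → ℝ) (q : Fin 3 → ℝ) : Prop where
  sheet : ∀ (n i : ℕ) (J : ℤ) (e : Fin 3 → V3) (c : Ln4) (w : V3) (F : ℝ → V3 → ℝ) (a : ℝ),
    ShN e c w F a (zl i J) (rho i) (r0 n) → w 1 ≤ rho i →
    (∀ k : Fin 3, wr k n ≤ (![a, w 1, w 2] : Fin 3 → ℝ) k ∧
      (![a, w 1, w 2] : Fin 3 → ℝ) k ≤ cr k n) →
    ∃ s : τ, G.adm n i J s ∧ G.val n i J s = capQ q (rho i) ![a, w 1, w 2] ∧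
      ∀ t, InSheet (L n t) e c w F a (zl i J) (rho i) → G.mem n i J s t

/-- the official geometry -/
theorem sheetGeo_geo4 (L : ℕ → ℕ → Ln4) (r0 : ℕ → ℝ) (wr cr : Fin 3 → ℕ → ℝ) (q : Fin 3 → ℝ) :
    SheetGeo (Top484.geo4 L r0 wr cr q) L r0 wr cr q where
  sheet := fun n i J e c w F a h h1 hk =>
    ⟨⟨J, e, c, w, F, a⟩, ⟨h, h1, hk⟩, rfl, fun t ht => ht⟩

end Crest.Agent.R136.GeoN778
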