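import Crest.Agent.R136.GDW3_778

/-!
# R136, [GEO-D] for the W-chart, sizes of one stage (helper778)

`Pol` : sequences between two powers of the first base.  `SzW` : the sizes of a box with exponents
`p` in the units of the chart satisfy the hypotheses of `numW_of`.
-/

set_option autoImplicit false
set_option linter.unusedVariables false
set_option maxHeartbeats 400000

open Finset Filter Topology

namespace Crest.Agent.R136.GeoN778

open Crest.Agent.R138
open Crest.Agent.R138.Ex926 (Base U)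
open Crest.Agent.R138.Dp76 (dpow_pos dpow_add dpow_le dpow_le_one)
open Crest.Agent.R138.Mk163 (zc zl rho alive)
open Crest.Agent.R136.Net191
open Crest.Agent.R136.NetW191
open Crest.Agent.R136.Sh605
open Crest.Agent.R136.PrW464 (unW unW_pos)
open Crest.Agent.R136.ArgA163 (rho_pos)

/-! ### polynomial sequences -/

/-- between two powers of the base -/
def Pol (B : Base) (x : ℕ → ℝ) : Prop :=
  ∃ C : ℝ, 0 ≤ C ∧ ∀ᶠ n in (U : Filter ℕ), B.d n ^ C ≤ x n ∧ x n ≤ B.d n ^ (-C)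

namespace Pol

variable {B : Base} {x y : ℕ → ℝ}

theorem mul (hx : Pol B x) (hy : Pol B y) : Pol B fun n => x n * y n := by
  obtain ⟨C, hC, h⟩ := hx
  obtain ⟨D, hD, k⟩ := hy
  refine ⟨C + D, by positivity, ?_⟩
  filter_upwards [h, k] with n h k
  have p1 := dpow_pos B n C
  have p2 := dpow_pos B n D
  constructor
  · rw [dpow_add]
    exact mul_le_mul h.1 k.1 p2.le (p1.le.trans h.1)
  · rw [neg_add, dpow_add]
    exact mul_le_mul h.2 k.2 (p2.le.trans k.1) (dpow_pos B n _).le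

theorem inv (hx : Pol B x) : Pol B fun n => (x n)⁻¹ := by
  obtain ⟨C, hC, h⟩ := hx
  refine ⟨C, hC, ?_⟩
  filter_upwards [h] with n h
  have p1 := dpow_pos B n C
  have hx0 : 0 < x n := lt_of_lt_of_le p1 h.1
  have e1 : B.d n ^ C = (B.d n ^ (-C))⁻¹ := by rw [Real.rpow_neg (B.pos n).le, inv_inv]
  have e2 : B.d n ^ (-C) = (B.d n ^ C)⁻¹ := Real.rpow_neg (B.pos n).le _
  constructor
  · rw [e1]
    exact inv_anti₀ hx0 h.2
  · rw [e2]
    exact inv_anti₀ p1 h.1

theorem div (hx : Pol B x) (hy : Pol B y) : Pol B fun n => x n / y n := by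
  simp only [div_eq_mul_inv]
  exact hx.mul hy.inv

theorem dpow {B' : Base} (hB : ∀ n, B.d n ≤ B'.d n) (a : ℝ) : Pol B fun n => B'.d n ^ a := by
  have main : ∀ a : ℝ, 0 ≤ a → Pol B fun n => B'.d n ^ a := fun a ha => by
    refine ⟨a, ha, Filter.Eventually.of_forall fun n => ⟨?_, ?_⟩⟩
    · exact Real.rpow_le_rpow (B.pos n).le (hB n) ha
    · have h1 := dpow_le_one B' n ha
      have h2 : 1 ≤ B.d n ^ (-a) := by
        have := dpow_le B n (show -a ≤ 0 by linarith)
        rwa [Real.rpow_zero] at this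
      exact h1.trans h2
  rcases le_total 0 a with h | h
  · exact main a h
  · have h1 := (main (-a) (by linarith)).inv
    have e : (fun n => (B'.d n ^ (-a))⁻¹) = fun n => B'.d n ^ a := by
      funext n
      rw [Real.rpow_neg (B'.pos n).le, inv_inv]
    rwa [e] at h1

theorem of_le {C D : ℝ} (h : ∀ᶠ n in (U : Filter ℕ), B.d n ^ C ≤ x n ∧ x n ≤ B.d n ^ D) :
    Pol B x := by
  refine ⟨|C| + |D|, by positivity, ?_⟩
  filter_upwards [h] with n hn
  refine ⟨(dpow_le B n ?_).trans hn.1, hn.2.trans (dpow_le B n ?_)⟩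
  · linarith [le_abs_self C, abs_nonneg D]
  · linarith [neg_abs_le D, abs_nonneg C]

/-- one large number for all -/
theorem big (hx : Pol B x) : ∃ C : ℝ, 0 ≤ C ∧ ∀ C' : ℝ, C ≤ C' → ∀ᶠ n in (U : Filter ℕ),
    1 ≤ x n * B.d n ^ (-C') ∧ x n ≤ B.d n ^ (-C') := by
  obtain ⟨C, hC, h⟩ := hx
  refine ⟨C, hC, fun C' hC' => ?_⟩
  filter_upwards [h] with n hn
  refine ⟨?_, hn.2.trans (dpow_le B n (by linarith))⟩
  have h1 : B.d n ^ C' ≤ x n := (dpow_le B n hC').trans hn.1
  have h2 := mul_le_mul_of_nonneg_right h1 (dpow_pos B n (-C')).le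
  rwa [← dpow_add, add_neg_cancel, Real.rpow_zero] at h2

end Pol

/-! ### the sizes -/

section sz

variable {d uz uc un w0 t T K : ℝ} {p : Fin 18 → ℝ}

/-- the walls used -/
theorem wallsGD (h : Legal monW p) : p 2 ≤ p 0 + p 1 ∧ p 3 ≤ p 0 + 2 * p 1 ∧ p 17 ≤ p 0 + p 16 ∧
    p 17 ≤ 2 * p 0 + p 13 := by
  have h2 := (legal_ofLists.1 h).2
  have a1 := h2 2 [1, 0] (by decide)
  have a2 := h2 3 [1, 1, 0] (by decide)
  simp only [List.map_cons, List.map_nil, List.sum_cons, List.sum_nil] at a1 a2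
  have a3 : p 17 ≤ p 0 + p 16 := by
    have : ([0, 16] : List (Fin 18)) ∈ mlW 17 ∨ ([16, 0] : List (Fin 18)) ∈ mlW 17 := by decide
    rcases this with k | k
    · have := h2 17 _ k
      simp only [List.map_cons, List.map_nil, List.sum_cons, List.sum_nil] at this
      linarith
    · have := h2 17 _ k
      simp only [List.map_cons, List.map_nil, List.sum_cons, List.sum_nil] at this
      linarith
  have a4 : p 16 ≤ p 0 + p 13 := by
    have : ([0, 13] : List (Fin 18)) ∈ mlW 16 ∨ ([13, 0] : List (Fin 18)) ∈ mlW 16 := by decide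
    rcases this with k | k
    · have := h2 16 _ k
      simp only [List.map_cons, List.map_nil, List.sum_cons, List.sum_nil] at this
      linarith
    · have := h2 16 _ k
      simp only [List.map_cons, List.map_nil, List.sum_cons, List.sum_nil] at this
      linarith
  refine ⟨by linarith, by linarith, a3, by linarith⟩

/-- units of the slots used -/
theorem unW_vals (hz : 0 < uz) (hc : 0 < uc) (hn : 0 < un) : unW uz uc un 0 = uz ∧
    unW uz uc un 1 = uc ∧ unW uz uc un 2 = uz * uc ∧ unW uz uc un 3 = uz * uc ^ 2 ∧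
    unW uz uc un 17 = un ∧ unW uz uc un 16 = un / uz ∧ unW uz uc un 13 = un / uz ^ 2 := by
  have h1 := hz.ne'
  refine ⟨?_, ?_, ?_, ?_, ?_, ?_, ?_⟩
  · simp [unW, PrW464.wz, PrW464.wc, PrW464.wn]
  · simp [unW, PrW464.wz, PrW464.wc, PrW464.wn]
  · simp [unW, PrW464.wz, PrW464.wc, PrW464.wn]
  · simp [unW, PrW464.wz, PrW464.wc, PrW464.wn]
  · simp [unW, PrW464.wz, PrW464.wc, PrW464.wn]
  · simp [unW, PrW464.wz, PrW464.wc, PrW464.wn]
    field_simp
  · simp only [unW, PrW464.wz, PrW464.wc, PrW464.wn, Matrix.cons_val, zpow_zero, zpow_one, mul_one]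
    rw [zpow_neg]
    norm_cast
    field_simp

/-- sizes of the coordinates in a box -/
noncomputable def sW (d uz uc un K : ℝ) (p : Fin 18 → ℝ) (k : Fin 18) : ℝ :=
  K * d ^ p k / unW uz uc un k
/-- length of the cell -/
noncomputable def PW (d uz T : ℝ) (p : Fin 18 → ℝ) : ℝ := d ^ (p 0 - T) / uz
/-- size of `A` -/
noncomputable def b2W (d uz uc T : ℝ) (p : Fin 18 → ℝ) : ℝ := d ^ (p 2 - 2 * T) / (uz * uc)
/-- size of `B` -/
noncomputable def b3W (d uz uc T : ℝ) (p : Fin 18 → ℝ) : ℝ := d ^ (p 3 - 2 * T) / (uz * uc ^ 2)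
/-- size of the last slot -/
noncomputable def nW (d un T : ℝ) (p : Fin 18 → ℝ) : ℝ := d ^ (p 17 - 2 * T) / un

/-- the inequalities between the sizes -/
structure SzW (s : Fin 18 → ℝ) (K Z P b2 b3 n17 : ℝ) : Prop where
  s1 : 0 ≤ s 1
  hs0 : s 0 ≤ K * (P * Z)
  hs2 : s 2 ≤ K * b2
  hs1 : P * s 1 ≤ K * b2
  hs3 : s 3 ≤ K * b3
  hs1' : P * s 1 ^ 2 ≤ K ^ 2 * b3
  hs17 : s 17 ≤ K * n17
  hs16 : P * s 16 ≤ K * n17
  hs13 : P ^ 2 * s 13 ≤ K * n17
  PZ : P * Z ^ 3 ≤ 1
  g1 : b2 ^ 2 * Z ^ 12 ≤ b3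

theorem dq {a b c e : ℝ} (hd : 0 < d) (hd1 : d < 1) (hc : 0 < c) (h : b ≤ a) (he : e = c) :
    d ^ a / e ≤ d ^ b / c := by
  rw [he]
  exact div_le_div_of_nonneg_right (Real.rpow_le_rpow_of_exponent_ge hd hd1.le h) hc.le

/-- **the sizes of a legal box** -/
theorem szW_of (hd : 0 < d) (hd1 : d < 1) (hz : 0 < uz) (hc : 0 < uc) (hn : 0 < un)
    (hK : 1 ≤ K) (hp : Legal monW p) (hT : 0 ≤ T) (ht : 0 < t) (hu : w0 + 3 * t + T ≤ p 0)
    (hzc : d ^ w0 ≤ uz) (hγ : w0 + 2 * T + 12 * t ≤ 2 * p 2 - p 3) :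
    SzW (sW d uz uc un K p) K (d ^ (-t)) (PW d uz T p) (b2W d uz uc T p) (b3W d uz uc T p)
      (nW d un T p) := by
  obtain ⟨w2, w3, w16, w13⟩ := wallsGD hp
  obtain ⟨u0, u1, u2, u3, u17, u16, u13⟩ := unW_vals hz hc hn
  have hK0 : 0 < K := by linarith
  have dp := fun a => Real.rpow_pos_of_pos hd a
  have add : ∀ a b : ℝ, d ^ a * d ^ b = d ^ (a + b) := fun a b => (Real.rpow_add hd a b).symm
  have dle : ∀ {a b : ℝ}, a ≤ b → d ^ b ≤ d ^ a := fun h =>
    Real.rpow_le_rpow_of_exponent_ge hd hd1.le h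
  have pw : ∀ (a : ℝ) (m : ℕ), (d ^ a) ^ m = d ^ (a * m) := fun a m => by
    rw [← Real.rpow_natCast, ← Real.rpow_mul hd.le]
  refine ⟨?_, ?_, ?_, ?_, ?_, ?_, ?_, ?_, ?_, ?_, ?_⟩
  · unfold sW
    have := dp (p 1)
    rw [u1]; positivity
  · unfold sW PW
    rw [u0]
    have e : K * (d ^ (p 0 - T) / uz * d ^ (-t)) = K * d ^ (p 0 - T + -t) / uz := by
      rw [← add]; ring
    rw [e]
    exact div_le_div_of_nonneg_right (mul_le_mul_of_nonneg_left (dle (by linarith)) hK0.le) hz.le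
  · unfold sW b2W
    rw [u2, ← mul_div_assoc]
    exact div_le_div_of_nonneg_right (mul_le_mul_of_nonneg_left (dle (by linarith)) hK0.le)
      (by positivity)
  · unfold sW PW b2W
    rw [u1]
    have e : d ^ (p 0 - T) / uz * (K * d ^ p 1 / uc) = K * (d ^ (p 0 - T + p 1) / (uz * uc)) := by
      rw [← add]; field_simp
    rw [e]
    exact mul_le_mul_of_nonneg_left (dq hd hd1 (by positivity) (by linarith) rfl) hK0.le
  · unfold sW b3W
    rw [u3, ← mul_div_assoc]
    exact div_le_div_of_nonneg_right (mul_le_mul_of_nonneg_left (dle (by linarith)) hK0.le)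
      (by positivity)
  · unfold sW PW b3W
    rw [u1]
    have e : d ^ (p 0 - T) / uz * (K * d ^ p 1 / uc) ^ 2 =
        K ^ 2 * (d ^ (p 0 - T + (p 1 + p 1)) / (uz * uc ^ 2)) := by
      rw [← add, ← add]; field_simp
    rw [e]
    exact mul_le_mul_of_nonneg_left (dq hd hd1 (by positivity) (by linarith) rfl) (by positivity)
  · unfold sW nW
    rw [u17, ← mul_div_assoc]
    exact div_le_div_of_nonneg_right (mul_le_mul_of_nonneg_left (dle (by linarith)) hK0.le) hn.le
  · unfold sW PW nW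
    rw [u16]
    have e : d ^ (p 0 - T) / uz * (K * d ^ p 16 / (un / uz)) =
        K * (d ^ (p 0 - T + p 16) / un) := by
      rw [← add]; field_simp
    rw [e]
    exact mul_le_mul_of_nonneg_left (dq hd hd1 hn (by linarith) rfl) hK0.le
  · unfold sW PW nW
    rw [u13]
    have e : (d ^ (p 0 - T) / uz) ^ 2 * (K * d ^ p 13 / (un / uz ^ 2)) =
        K * (d ^ (p 0 - T + (p 0 - T) + p 13) / un) := by
      rw [← add, ← add]; field_simp
    rw [e]
    exact mul_le_mul_of_nonneg_left (dq hd hd1 hn (by linarith) rfl) hK0.le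
  · unfold PW
    rw [pw, div_mul_eq_mul_div, div_le_one hz, add]
    refine le_trans (dle ?_) hzc
    push_cast
    linarith
  · unfold b2W b3W
    rw [pw, div_pow, div_mul_eq_mul_div, pw, add, div_le_div_iff₀ (by positivity) (by positivity)]
    have h1 : d ^ ((p 2 - 2 * T) * (2 : ℕ) + -t * (12 : ℕ)) ≤ d ^ (p 3 - 2 * T) * uz := by
      have h2 : d ^ (p 3 - 2 * T) * d ^ w0 ≤ d ^ (p 3 - 2 * T) * uz :=
        mul_le_mul_of_nonneg_left hzc (dp _).le
      refine le_trans ?_ h2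
      rw [add]
      refine dle ?_
      push_cast
      linarith
    have h3 := mul_le_mul_of_nonneg_right h1 (show 0 ≤ uz * uc ^ 2 by positivity)
    calc _ ≤ _ := h3
      _ = _ := by ring

end sz

/-- **the sizes are polynomial in the first base** -/
theorem pol_sizes {B0 B : Base} {I : ℕ → Finset (ℕ × ℝ)} {lev : ℕ → ℚ → ℕ}
    {w : Fin 3 → ℕ → ℚ → ℝ} {kp sg hz : ℕ → ℝ} {F : ℕ → ℕ × ℝ → FW} {u : ℕ → Un}
    {uz uc un : ℕ → ℝ} {w0 : ℝ} (h : WLev B0 B I lev w kp sg hz F u uz uc un w0)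
    (p : Fin 18 → ℝ) (T : ℝ) :
    Pol B0 (fun n => PW (B.d n) (uz n) T p) ∧ Pol B0 (fun n => b2W (B.d n) (uz n) (uc n) T p) ∧
      Pol B0 (fun n => b3W (B.d n) (uz n) (uc n) T p) ∧ Pol B0 fun n => nW (B.d n) (un n) T p := by
  obtain ⟨C1, h1⟩ := h.low
  obtain ⟨C2, h2⟩ := h.top
  have pd := fun a => Pol.dpow (B := B0) h.base a
  have puz : Pol B0 uz := by
    obtain ⟨C, hC, hw⟩ := pd w0
    refine Pol.of_le (C := C) (D := -C1) ?_
    filter_upwards [hw, h.zc, h1] with n a1 a2 a3 using ⟨a1.1.trans a2, a3.1⟩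
  have pzc : Pol B0 fun n => uz n * uc n := by
    refine Pol.of_le (C := C2) (D := -C1 + -C1) ?_
    filter_upwards [h1, h2] with n a1 a2
    refine ⟨a2.1, ?_⟩
    rw [dpow_add]
    exact mul_le_mul a1.1 a1.2.1 (h.c0 n).le (dpow_pos B0 n _).le
  have pun : Pol B0 un := by
    refine Pol.of_le (C := C2) (D := -C1) ?_
    filter_upwards [h1, h2] with n a1 a2 using ⟨a2.2, a1.2.2⟩
  refine ⟨(pd _).div puz, (pd _).div pzc, ?_, (pd _).div pun⟩
  have h3 := (pd (p 3 - 2 * T)).div ((pzc.mul pzc).div puz)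
  have e : (fun n => B.d n ^ (p 3 - 2 * T) / (uz n * uc n * (uz n * uc n) / uz n)) =
      fun n => b3W (B.d n) (uz n) (uc n) T p := by
    funext n
    unfold b3W
    have := (h.z0 n).ne'
    congr 1
    field_simp
  rwa [e] at h3

end Crest.Agent.R136.GeoN778
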