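import Crest.Agent.R136.GDW4_778

/-!
# R136, [GEO-D] for the W-chart, sequence form (helper778)

* `phys_*` : the physical sizes of the test sheet against the widths of the mark of level `0`;
* `ev_stW` : the facts `StW` about one stage from `WData`, `WCon`, `WLev`;
* `boxIn_W` : 464's `BoxIn` for the W-chart in graded units.
-/

set_option autoImplicit false
set_option linter.unusedVariables false
set_option maxHeartbeats 400000

open Finset Filter Topology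

namespace Crest.Agent.R136.GeoN778

open Crest.Agent.R138
open Crest.Agent.R138.Ex926 (Base U)
open Crest.Agent.R138.Dp76 (dpow_pos dpow_add dpow_le dpow_le_one)
open Crest.Agent.R138.Mk163 (zc zl rho alive)
open Crest.Agent.R136.MkA627
open Crest.Agent.R136.Net191
open Crest.Agent.R136.NetW191
open Crest.Agent.R136.Sh605
open Crest.Agent.R136.GeoW778 (qS TrueW dB DW EW)
open Crest.Agent.R136.Wq638 (capQ N0Q)
open Crest.Agent.R136.PrW464 (WData unW unW_pos couW)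
open Crest.Agent.R136.PqG464 (BoxIn gD_of pow_lev ev_const)
open Crest.Agent.R136.GeoQ186 (H_lo H_hi const_le exists_level val_bd Vn mem_cell)
open Crest.Agent.R136.ArgA163 (rho_pos)

/-! ### comparison of sizes, one stage -/

section phys

variable {d : ℝ}

theorem Cmp.le1 {ε x y : ℝ} (hd : 0 < d) (h : Cmp (d ^ ε) x y) : y ≤ d ^ (-ε) * x := by
  have hp := Real.rpow_pos_of_pos hd (-ε)
  have h1 := mul_le_mul_of_nonneg_left h.1 hp.le
  rwa [← mul_assoc, ← Real.rpow_add hd, neg_add_cancel, Real.rpow_zero, one_mul] at h1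

theorem Cmp.le2 {ε x y : ℝ} (hd : 0 < d) (h : Cmp (d ^ ε) x y) : x ≤ d ^ (-ε) * y :=
  Cmp.le1 hd (⟨h.2, h.1⟩ : Cmp (d ^ ε) y x)

variable {uz uc un w0 t T W σ : ℝ} {p : Fin 18 → ℝ}

/-- physical size of `A` -/
theorem physA (hd : 0 < d) (hz : 0 < uz) (hc : 0 < uc) (m : ℕ) :
    W * (b2W d uz uc T p * (d ^ (-t)) ^ m) =
      W * (d ^ (2 * w0) / (uz * uc)) * d ^ (p 2 - 2 * w0 - 2 * T - m * t) := by
  unfold b2W
  have e1 : (d ^ (-t)) ^ m = d ^ (-(m * t)) := by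
    rw [← Real.rpow_natCast, ← Real.rpow_mul hd.le]; congr 1; ring
  have e2 : p 2 - 2 * w0 - 2 * T - m * t = (p 2 - 2 * T) + (-(2 * w0)) + (-(m * t)) := by ring
  have e3 : d ^ (2 * w0) * d ^ (-(2 * w0)) = 1 := by
    rw [← Real.rpow_add hd, add_neg_cancel, Real.rpow_zero]
  rw [e1, e2, Real.rpow_add hd, Real.rpow_add hd]
  calc _ = W * (d ^ (p 2 - 2 * T) / (uz * uc) * d ^ (-(m * t))) *
        (d ^ (2 * w0) * d ^ (-(2 * w0))) := by rw [e3, mul_one]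
    _ = _ := by ring

/-- physical size of `B` -/
theorem physB (hd : 0 < d) (hz : 0 < uz) (hc : 0 < uc) (m : ℕ) :
    W * (b3W d uz uc T p * (d ^ (-t)) ^ m) =
      W * (d ^ (3 * w0) / (uz * uc ^ 2)) * d ^ (p 3 - 3 * w0 - 2 * T - m * t) := by
  unfold b3W
  have e1 : (d ^ (-t)) ^ m = d ^ (-(m * t)) := by
    rw [← Real.rpow_natCast, ← Real.rpow_mul hd.le]; congr 1; ring
  have e2 : p 3 - 3 * w0 - 2 * T - m * t = (p 3 - 2 * T) + (-(3 * w0)) + (-(m * t)) := by ring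
  have e3 : d ^ (3 * w0) * d ^ (-(3 * w0)) = 1 := by
    rw [← Real.rpow_add hd, add_neg_cancel, Real.rpow_zero]
  rw [e1, e2, Real.rpow_add hd, Real.rpow_add hd]
  calc _ = W * (d ^ (p 3 - 2 * T) / (uz * uc ^ 2) * d ^ (-(m * t))) *
        (d ^ (3 * w0) * d ^ (-(3 * w0))) := by rw [e3, mul_one]
    _ = _ := by ring

/-- physical size of `Y` -/
theorem physY (hd : 0 < d) (hn : 0 < un) (m : ℕ) :
    W * (σ * nW d un T p * (d ^ (-t)) ^ m) =
      W * (σ * (d ^ (9 * w0) / un)) * d ^ (p 17 - 9 * w0 - 2 * T - m * t) := by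
  unfold nW
  have e1 : (d ^ (-t)) ^ m = d ^ (-(m * t)) := by
    rw [← Real.rpow_natCast, ← Real.rpow_mul hd.le]; congr 1; ring
  have e2 : p 17 - 9 * w0 - 2 * T - m * t = (p 17 - 2 * T) + (-(9 * w0)) + (-(m * t)) := by ring
  have e3 : d ^ (9 * w0) * d ^ (-(9 * w0)) = 1 := by
    rw [← Real.rpow_add hd, add_neg_cancel, Real.rpow_zero]
  rw [e1, e2, Real.rpow_add hd, Real.rpow_add hd]
  calc _ = W * (σ * (d ^ (p 17 - 2 * T) / un) * d ^ (-(m * t))) *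
        (d ^ (9 * w0) * d ^ (-(9 * w0))) := by rw [e3, mul_one]
    _ = _ := by ring

/-- upper bound of a physical size -/
theorem phys_le (hd : 0 < d) (hd1 : d < 1) {A w ε x y : ℝ} (hw : 0 ≤ w)
    (h : Cmp (d ^ ε) w A) (hxy : y ≤ x - ε) : A * d ^ x ≤ w * d ^ y := by
  have h1 := mul_le_mul_of_nonneg_right (h.le1 hd) (Real.rpow_pos_of_pos hd x).le
  refine h1.trans ?_
  have e : d ^ (-ε) * w * d ^ x = w * d ^ (x - ε) := by
    rw [sub_eq_add_neg, Real.rpow_add hd]; ring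
  rw [e]
  exact mul_le_mul_of_nonneg_left (Real.rpow_le_rpow_of_exponent_ge hd hd1.le hxy) hw

/-- lower bound of a physical size -/
theorem phys_ge (hd : 0 < d) (hd1 : d < 1) {A w ε x y : ℝ} (hw : 0 ≤ w)
    (h : Cmp (d ^ ε) w A) (hxy : x + ε ≤ y) : w * d ^ y ≤ A * d ^ x := by
  have h1 := mul_le_mul_of_nonneg_right h.2 (Real.rpow_pos_of_pos hd x).le
  refine le_trans ?_ h1
  have e : d ^ ε * w * d ^ x = w * d ^ (x + ε) := by
    rw [Real.rpow_add hd]; ring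
  rw [e]
  exact mul_le_mul_of_nonneg_left (Real.rpow_le_rpow_of_exponent_ge hd hd1.le hxy) hw

/-- `g2` -/
theorem phys_g2 (hd : 0 < d) (hd1 : d < 1) {A B' wA wB x2 x3 : ℝ} (hA : 0 < A) (hwA : 0 ≤ wA)
    (hwB : 0 ≤ wB) (ht : 0 < t)
    (h1 : Cmp (d ^ (t / 3)) wA A) (h2 : Cmp (d ^ (t / 3)) wB B')
    (hab : wB * d ^ x3 ≤ d ^ (-(t / 3)) * (wA * d ^ x2)) :
    B' * d ^ (x3 - 2 * T) ≤ d ^ (-t) * (A * d ^ (x2 - 2 * T)) := by
  have dp := fun a => Real.rpow_pos_of_pos hd a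
  have s1 : B' * d ^ (x3 - 2 * T) ≤ wB * d ^ (x3 + (-(2 * T) - t / 3)) :=
    phys_le hd hd1 hwB h2 (by linarith)
  have s2 : wB * d ^ (x3 + (-(2 * T) - t / 3)) ≤
      d ^ (-(t / 3)) * (wA * d ^ x2) * d ^ (-(2 * T) - t / 3) := by
    rw [Real.rpow_add hd, ← mul_assoc]
    exact mul_le_mul_of_nonneg_right hab (dp _).le
  have s3 : wA ≤ d ^ (-(t / 3)) * A := h1.le2 hd
  have e : d ^ (-(t / 3)) * (wA * d ^ x2) * d ^ (-(2 * T) - t / 3) =
      wA * d ^ (-(t / 3) + x2 + (-(2 * T) - t / 3)) := by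
    rw [Real.rpow_add hd, Real.rpow_add hd]; ring
  rw [e] at s2
  have s4 := mul_le_mul_of_nonneg_right s3 (dp (-(t / 3) + x2 + (-(2 * T) - t / 3))).le
  refine (s1.trans s2).trans (s4.trans (le_of_eq ?_))
  have e2 : d ^ (-(t / 3)) * A * d ^ (-(t / 3) + x2 + (-(2 * T) - t / 3)) =
      A * (d ^ (-(t / 3)) * d ^ (-(t / 3) + x2 + (-(2 * T) - t / 3))) := by ring
  have e3 : d ^ (-t) * (A * d ^ (x2 - 2 * T)) = A * (d ^ (-t) * d ^ (x2 - 2 * T)) := by ring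
  rw [e2, e3, ← Real.rpow_add hd, ← Real.rpow_add hd]
  congr 2
  ring

end phys

/-! ### the penalised size -/

theorem capQ_mono {q : Fin 3 → ℝ} (hq : ∀ j, 0 ≤ q j) {ρ : ℝ} (hρ : 0 < ρ) {x y : Fin 3 → ℝ}
    (hx : ∀ k, 0 ≤ x k) (h : ∀ k, x k ≤ y k) : capQ q ρ x ≤ capQ q ρ y := by
  have hy : ∀ k, 0 ≤ y k := fun k => (hx k).trans (h k)
  have r : ∀ k, (x k / ρ) ^ q k ≤ (y k / ρ) ^ q k := fun k =>
    Real.rpow_le_rpow (div_nonneg (hx k) hρ.le) (div_le_div_of_nonneg_right (h k) hρ.le) (hq k)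
  have r0 : ∀ k, 0 ≤ (x k / ρ) ^ q k := fun k => Real.rpow_nonneg (div_nonneg (hx k) hρ.le) _
  have r1 : ∀ k, 0 ≤ (y k / ρ) ^ q k := fun k => Real.rpow_nonneg (div_nonneg (hy k) hρ.le) _
  unfold capQ
  refine mul_le_mul (mul_le_mul (mul_le_mul (h 0) (h 2) (hx 2) (hy 0)) (h 1) (hx 1)
    (mul_nonneg (hy 0) (hy 2))) (mul_le_mul (mul_le_mul (r 0) (r 1) (r0 1) (r1 0)) (r 2) (r0 2)
    (mul_nonneg (r1 0) (r1 1))) (mul_nonneg (mul_nonneg (r0 0) (r0 1)) (r0 2))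
    (mul_nonneg (mul_nonneg (hy 0) (hy 2)) (hy 1))

/-- exponent of the penalised size -/
def FpW (q : Fin 3 → ℝ) (w0 : ℝ) (p : Fin 18 → ℝ) : ℝ :=
  (p 17 - 9 * w0) + (p 3 - 3 * w0) + (p 2 - 2 * w0) + (q 0 * ((p 17 - 9 * w0) - (p 0 - w0)) +
    q 1 * ((p 2 - 2 * w0) - (p 0 - w0)) + q 2 * ((p 3 - 3 * w0) - (p 0 - w0)))

theorem capQ_Vn {q : Fin 3 → ℝ} {w : Fin 3 → ℝ} {H ρ : ℝ} (hH : 0 < H) (hρ : ρ = 1 / H) :
    Vn q H (w 1 * H) (w 2 * H) (w 0 * H) = capQ q ρ w := by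
  have e : ∀ k, w k / ρ = w k * H := fun k => by rw [hρ]; field_simp
  unfold Vn capQ
  rw [e, e, e]
  have := hH.ne'
  field_simp

/-- **the penalised size of the test sheet** -/
theorem val_W {d : ℝ} (hd : 0 < d) (hd1 : d < 1) {q : Fin 3 → ℝ} (hq : ∀ j, 0 ≤ q j)
    {i0 i : ℕ} {u t T w0 ε : ℝ} {p : Fin 18 → ℝ} (hlo : d ^ (u + t) ≤ 2 ^ i0 * rho i)
    (hv : p 0 - w0 = u + T) (hT : 0 ≤ T) (ht : 0 < t) (hε : 40 * (1 + (q 0 + q 1 + q 2)) * t ≤ ε)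
    {w : Fin 3 → ℝ} (hw : ∀ k, 0 < w k) {a w1 w2 : ℝ} (a0 : 0 ≤ a) (w10 : 0 ≤ w1) (w20 : 0 ≤ w2)
    (ha : a ≤ w 0 * d ^ (p 17 - 9 * w0 - 10 * t - t))
    (h1 : w1 ≤ w 1 * d ^ (p 2 - 2 * w0 - 10 * t - 5 * t))
    (h2 : w2 ≤ w 2 * d ^ (p 3 - 3 * w0 - 10 * t - 3 * t)) :
    capQ q (rho i) ![a, w1, w2] ≤ capQ q (rho i0) w * d ^ (FpW q w0 p - ε) := by
  have hρ := rho_pos i
  have hH : (0 : ℝ) < 2 ^ i0 := by positivity
  have hm : capQ q (rho i) ![a, w1, w2] ≤ capQ q (rho i)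
      ![w 0 * d ^ (p 17 - 9 * w0 - 10 * t - t), w 1 * d ^ (p 2 - 2 * w0 - 10 * t - 5 * t),
        w 2 * d ^ (p 3 - 3 * w0 - 10 * t - 3 * t)] := by
    refine capQ_mono hq hρ (fun k => ?_) fun k => ?_
    · fin_cases k
      · exact a0
      · exact w10
      · exact w20
    · fin_cases k
      · exact ha
      · exact h1
      · exact h2
  refine hm.trans ?_
  have key := val_bd hd hd1 (H := 2 ^ i0) (ρ := rho i) (v := u) (t := t) (p0 := p 0 - w0) (T := T)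
    (Wy := w 0 * 2 ^ i0) (Wa := w 1 * 2 ^ i0) (Wb := w 2 * 2 ^ i0) (q := q) hq hH hρ hlo hv hT ht
    (mul_pos (hw 0) hH) (mul_pos (hw 1) hH) (mul_pos (hw 2) hH) (CG := 1) zero_le_one
    (by
      have := Real.rpow_le_rpow_of_exponent_ge hd hd1.le (show -t ≤ 0 by linarith)
      rwa [Real.rpow_zero] at this) (p 17 - 9 * w0) (p 2 - 2 * w0) (p 3 - 3 * w0) (10 * t)
  have ee : ∀ k, w k * 2 ^ i0 / 2 ^ i0 = w k := fun k => by field_simp
  rw [ee, ee, ee, one_mul, capQ_Vn (w := w) hH (ρ := rho i0) rfl] at key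
  refine key.trans ?_
  have hc : 0 ≤ capQ q (rho i0) w := by
    have h0 := fun k => (hw k).le
    have hr := rho_pos i0
    have r := fun k => Real.rpow_nonneg (div_nonneg (h0 k) hr.le) (q k)
    unfold capQ
    exact mul_nonneg (mul_nonneg (mul_nonneg (h0 0) (h0 2)) (h0 1))
      (mul_nonneg (mul_nonneg (r 0) (r 1)) (r 2))
  refine mul_le_mul_of_nonneg_left (Real.rpow_le_rpow_of_exponent_ge hd hd1.le ?_) hc
  have hQ : 0 ≤ q 0 + q 1 + q 2 := by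
    have := hq 0; have := hq 1; have := hq 2; linarith
  unfold FpW
  have e1 : (3 + (q 0 + q 1 + q 2)) * (10 * t) + (10 + 6 * (q 0 + q 1 + q 2)) * t =
      40 * t + 16 * ((q 0 + q 1 + q 2) * t) := by ring
  have e2 : 40 * (1 + (q 0 + q 1 + q 2)) * t = 40 * t + 40 * ((q 0 + q 1 + q 2) * t) := by ring
  have e3 : 0 ≤ (q 0 + q 1 + q 2) * t := mul_nonneg hQ ht.le
  linarith

end Crest.Agent.R136.GeoN778
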