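import Crest.Agent.R136.GDW5_778

/-!
# R136, [GEO-D] for the W-chart, one stage of the sequence (helper778)

* `ev_stW` : the facts `StW` about one stage from `WData`, `WCon`, `WLev`;
* `ev_numW` : the sizes `NumW` of a box with exponents in `PDW`.
-/

set_option autoImplicit false
set_option linter.unusedVariables false
set_option maxHeartbeats 400000

open Finset Filter Topology

namespace Crest.Agent.R136.GeoN778

open Crest.Agent.R138
open Crest.Agent.R138.Ex926 (Base U)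
open Crest.Agent.R138.Dp76 (dpow_pos dpow_add dpow_le dpow_le_one)
open Crest.Agent.R138.Mk163 (zc zl rho alive)
open Crest.Agent.R136.MkA627
open Crest.Agent.R136.Net191
open Crest.Agent.R136.NetW191
open Crest.Agent.R136.Sh605
open Crest.Agent.R136.GeoW778 (qS TrueW dB DW EW)
open Crest.Agent.R136.Wq638 (capQ N0Q)
open Crest.Agent.R136.PrW464 (WData unW unW_pos couW)
open Crest.Agent.R136.PqG464 (ev_const)
open Crest.Agent.R136.GeoQ186 (const_le)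

section seq

variable {B0 B : Base} {I : ℕ → Finset (ℕ × ℝ)} {lev : ℕ → ℚ → ℕ}
    {w : Fin 3 → ℕ → ℚ → ℝ} {kp sg hz zs : ℕ → ℝ} {F : ℕ → ℕ × ℝ → FW} {L0 L : ℕ → ℕ → Ln4}
    {fr : ℕ → Fin 3 → V3} {c : ℕ → Ln4} {u : ℕ → Un} {Q : ℕ → ℕ × ℝ → Qd}
    {uz uc un : ℕ → ℝ} {w0 : ℝ}

/-- a power of a smaller base -/
theorem dpow_base (hB : ∀ n, B0.d n ≤ B.d n) {a C : ℝ} (ha : 0 ≤ a) (haC : a ≤ C) (n : ℕ) :
    B.d n ^ (-a) ≤ B0.d n ^ (-C) := by
  have h1 : B.d n ^ (-a) ≤ B0.d n ^ (-a) :=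
    Real.rpow_le_rpow_of_nonpos (B0.pos n) (hB n) (by linarith)
  exact h1.trans (dpow_le B0 n (by linarith))

theorem pow_neg_eq (B : Base) (n : ℕ) (C : ℝ) (m : ℕ) :
    (B.d n ^ (-C)) ^ m = B.d n ^ (-(m * C)) := by
  rw [← Real.rpow_natCast, ← Real.rpow_mul (B.pos n).le]; congr 1; ring

/-- **the facts about one stage** -/
theorem ev_stW (wd : WData B0 I kp sg hz zs L F) (hC : WCon B0 I kp sg hz zs F L0 L fr c u Q)
    (hL : WLev B0 B I lev w kp sg hz F u uz uc un w0) {t : ℝ} (ht : 0 < t) :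
    ∃ C0 : ℝ, 1 ≤ C0 ∧ ∀ C : ℝ, C0 ≤ C → ∀ᶠ n in (U : Filter ℕ),
      StW (I n) (fr n) (c n) (u n) (kp n) (sg n) (hz n) (B0.d n ^ (-C)) (B.d n ^ (-(t / 2)))
        (B.d n ^ (-(t / 4))) (B0.d n ^ (20 * C)) (F n) (L0 n) (L n) (Q n) := by
  obtain ⟨Cb, hCb, hbd⟩ := wd.bd
  refine ⟨Cb + 1 + t, by linarith, fun C hCC => ?_⟩
  filter_upwards [hC.ortho, hC.ok, hC.zh, hC.near (3 * C + 1) (20 * C), hC.bent (20 * C), wd.zb,
    wd.tru, hbd, hL.slc (t / 4) (by positivity), hL.slA (t / 4) (by positivity),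
    ev_const B0 (c := 200) (by norm_num) one_pos, ev_const B (c := 6) (by norm_num)
      (show 0 < t / 4 by positivity)] with n h1 h2 h3 h4 h5 h6 h7 h8 h9 h10 h11 h12
  have hd := dpow_pos B0 n
  have hd' := dpow_pos B n
  have c200 : 200 ≤ B0.d n ^ (-(1 : ℝ)) := const_le h11
  have c6 : 6 ≤ B.d n ^ (-(t / 4)) := const_le h12
  have hXb : B0.d n ^ (-Cb) ≤ B0.d n ^ (-C) := dpow_le B0 n (by linarith)
  have hXb4 : 4 * B0.d n ^ (-Cb) ≤ B0.d n ^ (-C) := by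
    have e : B0.d n ^ (-(1 : ℝ)) * B0.d n ^ (-Cb) ≤ B0.d n ^ (-C) := by
      rw [← dpow_add]; exact dpow_le B0 n (by linarith)
    refine le_trans (mul_le_mul_of_nonneg_right ?_ (hd _).le) e
    linarith
  refine ⟨h1, h2, hL.hz0 n, ?_, ?_, h6, h7, ?_, ?_, ?_, ?_, h5, h9, h10, (hd' _).le, ?_⟩
  · intro z z'
    rw [h3, h3]; ring
  · intro x hx
    rw [h3]
    exact wd.gz n x
  · exact fun x hx k => ((h8 x hx).1 k).trans hXb
  · exact fun x hx k => ((h8 x hx).2.1 k).trans hXb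
  · intro x hx z' hz' k
    refine le_trans ?_ hXb4
    simp only [Ln4.pos]
    have := a2 ((h8 x hx).2.2 k) (m2 hz' ((h8 x hx).2.1 k))
    linarith
  · intro x hx z hz y hy
    refine h4 x hx z hz y fun k => (hy k).trans ?_
    have hS : B.d n ^ (-(t / 2)) ≤ B0.d n ^ (-C) :=
      dpow_base hL.base (by positivity) (by linarith) n
    have e3 : B0.d n ^ (-(3 * C + 1)) = B0.d n ^ (-(1 : ℝ)) *
        (B0.d n ^ (-C)) ^ 2 * B0.d n ^ (-C) := by
      rw [pow_neg_eq, ← dpow_add, ← dpow_add]; congr 1; push_cast; ring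
    rw [e3]
    have hX0 := hd (-C)
    refine mul_le_mul (mul_le_mul_of_nonneg_right c200 (by positivity)) hS (hd' _).le ?_
    have := hd (-(1 : ℝ))
    positivity
  · have e : B.d n ^ (-(t / 2)) = B.d n ^ (-(t / 4)) * B.d n ^ (-(t / 4)) := by
      rw [← dpow_add]; congr 1; ring
    rw [e]
    nlinarith

/-- **the sizes of a box** -/
theorem ev_numW (wd : WData B0 I kp sg hz zs L F)
    (hL : WLev B0 B I lev w kp sg hz F u uz uc un w0) (hok : ∀ᶠ n in (U : Filter ℕ), (u n).Ok)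
    (hw : ∀ k, ∀ᶠ n in (U : Filter ℕ), 0 < w k n 0)
    {K t T : ℝ} {p : Fin 18 → ℝ} (hK : 1 ≤ K) (hp : Legal monW p) (hT : 0 ≤ T) (ht : 0 < t)
    (hu : w0 + 3 * t + T ≤ p 0) (hγ : w0 + 2 * T + 12 * t ≤ 2 * p 2 - p 3)
    (hab : ∀ ε : ℝ, 0 < ε → ∀ᶠ n in (U : Filter ℕ), w 2 n 0 * B.d n ^ (p 3 - 3 * w0) ≤
      B.d n ^ (-ε) * (w 1 n 0 * B.d n ^ (p 2 - 2 * w0))) :
    ∃ C0 : ℝ, 1 ≤ C0 ∧ ∀ C : ℝ, C0 ≤ C → ∀ᶠ n in (U : Filter ℕ),
      NumW (u n) (kp n) (sg n) (B0.d n ^ (-C)) (B0.d n ^ (-C)) (B.d n ^ (-(t / 2)))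
        (B0.d n ^ (20 * C)) K (B.d n ^ (-t)) (PW (B.d n) (uz n) T p)
        (b2W (B.d n) (uz n) (uc n) T p) (b3W (B.d n) (uz n) (uc n) T p) (nW (B.d n) (un n) T p)
        (sW (B.d n) (uz n) (uc n) (un n) K p) ∧
      sW (B.d n) (uz n) (uc n) (un n) K p 0 ≤ K * (PW (B.d n) (uz n) T p * B.d n ^ (-t)) := by
  obtain ⟨pP, p2, p3, pn⟩ := pol_sizes hL p T
  have pZ := fun a => Pol.dpow (B := B0) (B' := B) hL.base a
  have pZm : ∀ m : ℕ, Pol B0 fun n => (B.d n ^ (-t)) ^ m := fun m => by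
    have h := pZ (-(m * t))
    have e : (fun n => B.d n ^ (-(m * t))) = fun n => (B.d n ^ (-t)) ^ m := by
      funext n
      rw [← Real.rpow_natCast, ← Real.rpow_mul (B.pos n).le]; congr 1; ring
    rwa [e] at h
  obtain ⟨C1, g1, k1⟩ := pP.big
  obtain ⟨C2, g2, k2⟩ := p2.big
  obtain ⟨C3, g3, k3⟩ := p3.big
  obtain ⟨C4, g4, k4⟩ := pn.big
  obtain ⟨C5, g5, k5⟩ := (p2.mul (pZm 8)).big
  obtain ⟨C6, g6, k6⟩ := (p3.mul (pZm 6)).big
  refine ⟨1 + C1 + C2 + C3 + C4 + C5 + C6 + t, by linarith, fun C hC => ?_⟩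
  filter_upwards [k1 C (by linarith), k2 C (by linarith), k3 C (by linarith), k4 C (by linarith),
    k5 C (by linarith), k6 C (by linarith), ev_const B0 (c := 10) (by norm_num) one_pos,
    ev_const B (c := 1000 * K ^ 3) (by positivity) (show 0 < t / 2 by positivity),
    wd.sgs (20 * C), hok, hL.zc, hw 1, hw 2, hL.wA (t / 3) (by positivity),
    hL.wB (t / 3) (by positivity), hab (t / 3) (by positivity)]
    with n a1 a2 a3 a4 a5 a6 h10 hKd hσ ok hzc hw1 hw2 hA hB hab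
  have hd := dpow_pos B0 n
  have hd' := dpow_pos B n
  have hz := hL.z0 n
  have hc := hL.c0 n
  have hn := hL.n0 n
  have sz := szW_of (B.pos n) (B.lt n) hz hc hn hK hp hT ht hu hzc hγ
  have c10 : 10 ≤ B0.d n ^ (-C) := (const_le h10).trans (dpow_le B0 n (by linarith))
  have cK : 1000 * K ^ 3 ≤ B.d n ^ (-(t / 2)) := const_le hKd
  refine ⟨numW_of (wd.kp1 n) (wd.sg0 n) c10 (hd _).le ?_ hσ hK ?_ ?_ ?_ sz.PZ a1.1 a2.1 a3.1 a4.1
    a4.2 sz.s1 sz.hs2 sz.hs1 sz.hs3 sz.hs1' sz.hs17 sz.hs16 sz.hs13 sz.g1 ?_ a5.2 a6.2, sz.hs0⟩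
  · rw [pow_neg_eq, ← dpow_add]
    push_cast
    rw [show 20 * C + -(20 * C) = 0 by ring, Real.rpow_zero]
  · have := dpow_le B n (show -(t / 2) ≤ 0 by linarith)
    rwa [Real.rpow_zero] at this
  · exact dpow_base hL.base (by positivity) (by linarith) n
  · have e : B.d n ^ (-t) = B.d n ^ (-(t / 2)) * B.d n ^ (-(t / 2)) := by
      rw [← dpow_add]; congr 1; ring
    rw [e]
    have := mul_le_mul_of_nonneg_right cK (hd' (-(t / 2))).le
    linarith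
  · have e3 := physB (W := (u n).WB) (w0 := w0) (t := t) (T := T) (p := p) (B.pos n) hz hc 0
    have e2 := physA (W := (u n).WA) (w0 := w0) (t := t) (T := T) (p := p) (B.pos n) hz hc 0
    rw [pow_zero, mul_one, Nat.cast_zero, zero_mul, sub_zero] at e2 e3
    rw [e3, e2]
    have hA0 : 0 < (u n).WA * (B.d n ^ (2 * w0) / (uz n * uc n)) :=
      mul_pos ok.A0 (div_pos (hd' _) (mul_pos hz hc))
    exact phys_g2 (T := T) (B.pos n) (B.lt n) hA0 hw1.le hw2.le ht hA hB hab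

end seq

end Crest.Agent.R136.GeoN778
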