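import Crest.Agent.R136.GDW6_778

/-!
# R136, [GEO-D] for the W-chart, sequence form (helper778)

* `boxIn_W` : 464's `BoxIn` for the W-chart in graded units;
* `gD_W` : the field `gD` of `PreQ` on `PDW`.
-/

set_option autoImplicit false
set_option linter.unusedVariables false
set_option maxHeartbeats 400000

open Finset Filter Topology

namespace Crest.Agent.R136.GeoN778

open Crest.Agent.R138
open Crest.Agent.R138.Ex926 (Base U)
open Crest.Agent.R138.Dp76 (dpow_pos dpow_add dpow_le dpow_le_one)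
open Crest.Agent.R138.Mk163 (zc zl rho alive)
open Crest.Agent.R136.MkA627
open Crest.Agent.R136.Net191
open Crest.Agent.R136.NetW191
open Crest.Agent.R136.Sh605
open Crest.Agent.R136.GeoW778 (qS TrueW dB EW)
open Crest.Agent.R136.Wq638 (capQ N0Q)
open Crest.Agent.R136.PrW464 (WData unW unW_pos couW)
open Crest.Agent.R136.PqG464 (BoxIn gD_of pow_lev ev_const)
open Crest.Agent.R136.GeoQ186 (H_lo H_hi const_le exists_level mem_cell)
open Crest.Agent.R136.ArgA163 (rho_pos)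

section fin

variable {I : Finset (ℕ × ℝ)} {f : Fin 3 → V3} {c : Ln4} {u : Un} {κ σ hz X S S1 η : ℝ}
    {F : ℕ × ℝ → FW} {L0 L : ℕ → Ln4} {Q : ℕ × ℝ → Qd}

/-- the length of the cell in unit heights -/
theorem cell_len {d uz hz w0 u' t T : ℝ} {p : Fin 18 → ℝ} {i0 i : ℕ} (hd : 0 < d) (hz' : 0 < uz)
    (h : uz * hz = d ^ w0 * 2 ^ i0) (hhi : d ^ w0 * 2 ^ i0 * rho i ≤ d ^ (w0 + u' - t))
    (hv : p 0 - T = w0 + u') : hz * rho i ≤ PW d uz T p * d ^ (-t) := by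
  unfold PW
  rw [hv, div_mul_eq_mul_div, ← Real.rpow_add hd, le_div_iff₀ hz']
  rw [← h] at hhi
  refine le_trans (le_of_eq (by ring)) (hhi.trans (le_of_eq ?_))
  congr 1

end fin

section seq

variable {σ κ : Type*} {B0 B : Base} {I : ℕ → Finset (ℕ × ℝ)} {G : Geo σ κ} {lev : ℕ → ℚ → ℕ}
    {A : ℕ → ℝ} {g s : ℝ} {τ : κ → ℝ → ℝ} {f : ℕ → ℚ → ℕ → ℤ → ℕ} {b : ℕ → ℚ → ℕ → σ}
    {vm : ℕ → ℚ → ℝ} {w : κ → ℕ → ℚ → ℝ} {w' : Fin 3 → ℕ → ℚ → ℝ}
    {kp sg hz zs : ℕ → ℝ} {F : ℕ → ℕ × ℝ → FW} {L0 L : ℕ → ℕ → Ln4}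
    {fr : ℕ → Fin 3 → V3} {c : ℕ → Ln4} {u : ℕ → Un} {Q : ℕ → ℕ × ℝ → Qd}
    {uz uc un : ℕ → ℝ} {w0 : ℝ} {r0 : ℕ → ℝ} {wr cr : Fin 3 → ℕ → ℝ} {q : Fin 3 → ℝ}
    {p : Fin 18 → ℝ} {R : ℝ}

/-- **[GEO-D], geometric hypothesis**, W-chart in graded units -/
theorem boxIn_W (hM : MkA B I G lev A (fun v => g * v) (fun v => s * v) τ f b vm w)
    (hG : SheetGeo G L0 r0 wr cr q) (hq : ∀ j, 0 ≤ q j)
    (wd : WData B0 I kp sg hz zs L F) (hC : WCon B0 I kp sg hz zs F L0 L fr c u Q)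
    (hL : WLev B0 B I lev w' kp sg hz F u uz uc un w0)
    (hw : ∀ k, ∀ᶠ n in (U : Filter ℕ), 0 < w' k n 0)
    (hwr : ∀ (C : ℝ) (k : Fin 3), ∀ᶠ n in (U : Filter ℕ),
      wr k n ≤ B.d n ^ C * w' k n 0 ∧ w' k n 0 ≤ B.d n ^ C * cr k n)
    (hp : p ∈ PDW B r0 lev w' w0 R) :
    BoxIn B I G lev (couW kp uz uc un F) 0 w0
      (fun n => capQ q (rho (lev n 0)) fun k => w' k n 0) p (FpW q w0 p) := by
  obtain ⟨hpL, hp0, hp1, hp3, hO⟩ := hp
  intro K hK ε hε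
  obtain ⟨δ, hδ, hcap⟩ := hO.cap
  have hQ0 : 0 ≤ q 0 + q 1 + q 2 := by
    have := hq 0; have := hq 1; have := hq 2; linarith
  obtain ⟨m0, hm0⟩ : ∃ m0 : ℝ, m0 = min (min ε δ) (min (p 0 - w0) (2 * p 2 - w0 - p 3)) :=
    ⟨_, rfl⟩
  have hm0p : 0 < m0 := by
    rw [hm0]
    exact lt_min (lt_min hε hδ) (lt_min (by linarith) (by linarith))
  have m1 : m0 ≤ ε := by rw [hm0]; exact (min_le_left _ _).trans (min_le_left _ _)
  have m2' : m0 ≤ δ := by rw [hm0]; exact (min_le_left _ _).trans (min_le_right _ _)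
  have m3 : m0 ≤ p 0 - w0 := by rw [hm0]; exact (min_le_right _ _).trans (min_le_left _ _)
  have m4 : m0 ≤ 2 * p 2 - w0 - p 3 := by
    rw [hm0]; exact (min_le_right _ _).trans (min_le_right _ _)
  obtain ⟨t, ht⟩ : ∃ t : ℝ, t = m0 / (40 * (1 + (q 0 + q 1 + q 2))) := ⟨_, rfl⟩
  have hc : 0 < 40 * (1 + (q 0 + q 1 + q 2)) := by positivity
  have ht0 : 0 < t := by rw [ht]; exact div_pos hm0p hc
  have htm : 40 * (1 + (q 0 + q 1 + q 2)) * t = m0 := by rw [ht]; field_simp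
  have h40 : 40 * t ≤ m0 := by
    rw [← htm]
    have : 0 ≤ (q 0 + q 1 + q 2) * t := mul_nonneg hQ0 ht0.le
    linarith
  obtain ⟨u', hu0, hu1, hT0, hTt, hor⟩ :=
    exists_level (y := p 0 - w0) (t := t) (by linarith) (by linarith) ht0
  obtain ⟨T, hTe⟩ : ∃ T : ℝ, T = p 0 - w0 - u' := ⟨_, rfl⟩
  rw [← hTe] at hT0 hTt
  refine ⟨u', hu0, hu1, by linarith, hor, ?_⟩
  obtain ⟨C1, hC1, e1⟩ := ev_stW wd hC hL ht0
  obtain ⟨C2, hC2, e2⟩ := ev_numW wd hL hC.ok hw (K := K) (t := t) (T := T) (p := p) hK hpL.1 hT0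
    ht0 (by linarith) (by linarith) hO.ab
  filter_upwards [pow_lev hM u' hu0 hu1 ht0, e1 (max C1 C2) (le_max_left _ _),
    e2 (max C1 C2) (le_max_right _ _), hL.wA (t / 3) (by positivity),
    hL.wB (t / 3) (by positivity), hL.wY (t / 3) (by positivity), hO.res (t / 3) (by positivity),
    hcap, hw 0, hw 1, hw 2, hwr (p 17 - 9 * w0) 0, hwr (p 2 - 2 * w0) 1, hwr (p 3 - 3 * w0) 2,
    hwr (-(p 17 - 9 * w0 - 11 * t)) 0, hwr (-(p 2 - 2 * w0 - 11 * t)) 1,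
    hwr (-(p 3 - 3 * w0 - 11 * t)) 2]
    with n h1 hst hN hA hB hY hres hcp p0' p1' p2' hr0 hr1 hr2 hk0 hk1 hk2 x hx J
  have hd := B.pos n
  have hd1 := B.lt n
  have dp := fun a => dpow_pos B n a
  obtain ⟨hN, hs0⟩ := hN
  have hz := hL.z0 n
  have hcc := hL.c0 n
  have hn := hL.n0 n
  have hlo := H_lo (w0 := 0) h1.1
  rw [Real.rpow_zero, one_mul, zero_add] at hlo
  have hhi := H_hi (w0 := w0) h1.2
  have hρP := cell_len (p := p) (T := T) hd hz (hL.hz n) hhi (by linarith)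
  -- physical sizes
  have eA := physA (W := (u n).WA) (w0 := w0) (t := t) (T := T) (p := p) hd hz hcc 8
  have eB := physB (W := (u n).WB) (w0 := w0) (t := t) (T := T) (p := p) hd hz hcc 6
  have eY := physY (W := (u n).WY) (σ := sg n) (w0 := w0) (t := t) (T := T) (p := p) hd hn 4
  push_cast at eA eB eY
  have hr : r0 n ≤ (u n).WY * (sg n * nW (B.d n) (un n) T p * (B.d n ^ (-t)) ^ 4) := by
    rw [eY]
    refine hres.trans ?_
    have e : B.d n ^ (-(t / 3)) * (w' 0 n 0 * B.d n ^ (p 17 - 9 * w0)) =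
        w' 0 n 0 * B.d n ^ (p 17 - 9 * w0 - t / 3) := by
      rw [sub_eq_add_neg (p 17 - 9 * w0), dpow_add]; ring
    rw [e]
    exact phys_ge hd hd1 p0'.le hY (by linarith)
  obtain ⟨e, T', wv, qv, r1, r2, r3, r4⟩ := hst.cell hN hx (z0 := zl (lev n u') J)
    (ρ := rho (lev n u')) (r0 := r0 n) (rho_pos _).le hρP hs0 hr
  -- `w 1 ≤ ρ`
  have hw1ρ : wv 1 ≤ rho (lev n u') := by
    rw [r1, eA]
    have s1 : (u n).WA * (B.d n ^ (2 * w0) / (uz n * uc n)) *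
        B.d n ^ (p 2 - 2 * w0 - 2 * T - 8 * t) ≤
        w' 1 n 0 * B.d n ^ (p 2 - 2 * w0 + (-(2 * T + 8 * t + t / 3))) :=
      phys_le hd hd1 p1'.le hA (by linarith)
    have s2 : w' 1 n 0 * B.d n ^ (p 2 - 2 * w0 + (-(2 * T + 8 * t + t / 3))) ≤
        rho (lev n 0) * B.d n ^ (p 0 - w0 + δ) * B.d n ^ (-(2 * T + 8 * t + t / 3)) := by
      rw [dpow_add, ← mul_assoc]
      exact mul_le_mul_of_nonneg_right hcp (dp _).le
    have s3 : rho (lev n 0) * B.d n ^ (p 0 - w0 + δ) * B.d n ^ (-(2 * T + 8 * t + t / 3)) ≤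
        rho (lev n 0) * B.d n ^ ((u' : ℝ) + t) := by
      rw [mul_assoc, ← dpow_add]
      exact mul_le_mul_of_nonneg_left (dpow_le B n (by linarith)) (rho_pos _).le
    have s4 : rho (lev n 0) * B.d n ^ ((u' : ℝ) + t) ≤ rho (lev n u') := by
      have h := mul_le_mul_of_nonneg_left hlo (rho_pos (lev n 0)).le
      have e : rho (lev n 0) * (2 ^ lev n 0 * rho (lev n u')) = rho (lev n u') := by
        have hp2 : (2 : ℝ) ^ lev n 0 ≠ 0 := by positivity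
        unfold rho
        field_simp
      rwa [e] at h
    exact s1.trans (s2.trans (s3.trans s4))
  have up : ∀ (W X c' y : ℝ), 0 ≤ W → W ≤ B.d n ^ (-y) * c' → X ≤ W * B.d n ^ y → X ≤ c' := by
    intro W X c' y hW hW' hX
    refine hX.trans ?_
    have h := mul_le_mul_of_nonneg_right hW' (dp y).le
    have e : B.d n ^ (-y) * c' * B.d n ^ y = c' := by
      have h2 : B.d n ^ (-y) * B.d n ^ y = 1 := by
        rw [← dpow_add, neg_add_cancel, Real.rpow_zero]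
      calc B.d n ^ (-y) * c' * B.d n ^ y = (B.d n ^ (-y) * B.d n ^ y) * c' := by ring
        _ = c' := by rw [h2, one_mul]
    rwa [e] at h
  have hrg : ∀ k : Fin 3, wr k n ≤ (![(u n).WY * (sg n * nW (B.d n) (un n) T p *
      (B.d n ^ (-t)) ^ 4), wv 1, wv 2] : Fin 3 → ℝ) k ∧ (![(u n).WY * (sg n * nW (B.d n) (un n) T p *
      (B.d n ^ (-t)) ^ 4), wv 1, wv 2] : Fin 3 → ℝ) k ≤ cr k n := by
    intro k
    fin_cases k
    · show wr 0 n ≤ (u n).WY * (sg n * nW (B.d n) (un n) T p * (B.d n ^ (-t)) ^ 4) ∧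
        (u n).WY * (sg n * nW (B.d n) (un n) T p * (B.d n ^ (-t)) ^ 4) ≤ cr 0 n
      rw [eY]
      refine ⟨hr0.1.trans ?_, up _ _ _ _ p0'.le hk0.2 (phys_le hd hd1 p0'.le hY (by linarith))⟩
      rw [mul_comm (B.d n ^ _)]
      exact phys_ge hd hd1 p0'.le hY (by linarith)
    · show wr 1 n ≤ wv 1 ∧ wv 1 ≤ cr 1 n
      rw [r1, eA]
      refine ⟨hr1.1.trans ?_, up _ _ _ _ p1'.le hk1.2 (phys_le hd hd1 p1'.le hA (by linarith))⟩
      rw [mul_comm (B.d n ^ _)]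
      exact phys_ge hd hd1 p1'.le hA (by linarith)
    · show wr 2 n ≤ wv 2 ∧ wv 2 ≤ cr 2 n
      rw [r2, eB]
      refine ⟨hr2.1.trans ?_, up _ _ _ _ p2'.le hk2.2 (phys_le hd hd1 p2'.le hB (by linarith))⟩
      rw [mul_comm (B.d n ^ _)]
      exact phys_ge hd hd1 p2'.le hB (by linarith)
  obtain ⟨S, hadm, hval, hmem⟩ := hG.sheet n (lev n u') J e T' wv qv _ r3 hw1ρ hrg
  refine ⟨S, hadm, ?_, fun y hy hyN hyJ => ?_⟩
  · rw [hval, r1, r2]
    have hZ := hN.Z0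
    have hσ := hN.σ0
    have hn17 := hN.n0
    have hb2 := hN.b20
    have hb3 := hN.b30
    have hok := hst.ok
    refine val_W hd hd1 hq (i0 := lev n 0) (i := lev n u') (u := u') (t := t) (T := T) (w0 := w0)
      (ε := ε) (p := p) hlo (by linarith) hT0 ht0 (by linarith) (w := fun k => w' k n 0)
      (fun k => ?_) ?_ ?_ ?_ ?_ ?_ ?_
    · fin_cases k
      · exact p0'
      · exact p1'
      · exact p2'
    · have := hok.Y0; positivity
    · have := hok.A0; positivity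
    · have := hok.B0; positivity
    · rw [eY]
      exact phys_le hd hd1 p0'.le hY (by linarith)
    · rw [eA]
      exact phys_le hd hd1 p1'.le hA (by linarith)
    · rw [eB]
      exact phys_le hd hd1 p2'.le hB (by linarith)
  · obtain ⟨y1, y2⟩ := mem_cell hyJ
    refine hmem _ (r4 y hy y1 y2 fun k => ?_)
    have hk := hyN k
    have hu := unW_pos hz hcc hn k
    unfold couW at hk
    rw [abs_mul, abs_of_pos hu] at hk
    unfold sW
    rw [le_div_iff₀ hu, mul_comm]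
    exact hk

open Classical in
/-- **[GEO-D]: the field `gD` of `PreQ`**, W-chart in graded units. -/
theorem gD_W (hM : MkA B I G lev A (fun v => g * v) (fun v => s * v) τ f b vm w)
    (hG : SheetGeo G L0 r0 wr cr q) (hq : ∀ j, 0 ≤ q j)
    (wd : WData B0 I kp sg hz zs L F) (hC : WCon B0 I kp sg hz zs F L0 L fr c u Q)
    (hL : WLev B0 B I lev w' kp sg hz F u uz uc un w0)
    (hw : ∀ k, ∀ᶠ n in (U : Filter ℕ), 0 < w' k n 0)
    (hwr : ∀ (C : ℝ) (k : Fin 3), ∀ᶠ n in (U : Filter ℕ),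
      wr k n ≤ B.d n ^ C * w' k n 0 ∧ w' k n 0 ≤ B.d n ^ C * cr k n)
    (hvm : ∀ᶠ n in (U : Filter ℕ), vm n 0 = capQ q (rho (lev n 0)) fun k => w' k n 0) :
    ∀ p ∈ PDW B r0 lev w' w0 R, ∀ K : ℝ, 1 ≤ K → ∀ ε : ℝ, 0 < ε →
      ∀ᶠ n in (U : Filter ℕ), ∀ x ∈ I n,
        (((I n).filter fun y => Near (couW kp uz uc un F n) (B.d n) p K x y).card : ℝ) ≤
          N0Q A vm n * B.d n ^ (-(PrW464.DW g s q w0 p + ε)) := by
  intro p hp K hK ε hε
  have hBx := boxIn_W hM hG hq wd hC hL hw hwr hp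
  have hV : ∀ᶠ n in (U : Filter ℕ), 0 < capQ q (rho (lev n 0)) fun k => w' k n 0 := by
    filter_upwards [hw 0, hw 1, hw 2] with n h0 h1 h2
    have hr := rho_pos (lev n 0)
    have r := fun k (h : 0 < w' k n 0) => Real.rpow_pos_of_pos (div_pos h hr) (q k)
    unfold capQ
    exact mul_pos (mul_pos (mul_pos h0 h2) h1) (mul_pos (mul_pos (r 0 h0) (r 1 h1)) (r 2 h2))
  have hcore := gD_of hM (fun n x _ y _ => by
    unfold couW
    rw [PrW464.unW_zero, PrW464.coW_zero, wd.gz n y, wd.gz n x]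
    have := hL.hz n
    linear_combination (y.2 - x.2) * this) hV hBx
    (D := (g - (1 - s)) * max (p 0 - w0) 0 - FpW q w0 p) rfl K hK ε hε
  filter_upwards [hcore, hvm] with n hn hvm x hx
  refine (hn x hx).trans (le_of_eq ?_)
  rw [← hvm, max_eq_left (by linarith [hp.2.1])]
  have e5 : A n * vm n 0 * B.d n ^ (-(1 - s)) *
      B.d n ^ (-((g - (1 - s)) * (p 0 - w0) - FpW q w0 p + ε)) =
      A n * vm n 0 * (B.d n ^ (-(1 - s)) *
      B.d n ^ (-((g - (1 - s)) * (p 0 - w0) - FpW q w0 p + ε))) := by ring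
  rw [e5, ← dpow_add]
  unfold N0Q
  congr 2
  unfold PrW464.DW FpW
  ring

end seq

end Crest.Agent.R136.GeoN778
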