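import Crest.Agent.R136.PrW6_464
import Crest.Agent.R136.Fw4_650

/-!
# R136, wrapper `J2 → PreQ` for the W-chart (helper464), part 7: the end of the thin branch of U6

* `Zm D H mm D'` : `D'` is the data `D` zoomed to the levels `mm n [0,1]` (length `H n`);
* `GDmax` : D-max in the chart (778);
* **`thin_end`** : first thin window (`ThinG`, 650; tilt of the flags, 327) + D-max on every final
  window ⊢ `ThinPre`.
-/

set_option autoImplicit false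
set_option linter.unusedVariables false

open Finset Filter Topology

namespace Crest.Agent.R136.PrW464

open Crest.Agent.R138
open Crest.Agent.R138.Ex926 (Base U QProf)
open Crest.Agent.R138.Dp76 (dpow_pos dpow_add dpow_le dpow_le_one)
open Crest.Agent.R138.Mk163 (zc zl rho alive own)
open Crest.Agent.R138.MkRef627 (lc kc)
open Crest.Agent.R136.MkA627
open Crest.Agent.R136.Net191
open Crest.Agent.R136.NetW191
open Crest.Agent.R136.Sh605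
open Crest.Agent.R136.TD627
open Crest.Agent.R136.Top484
open Crest.Agent.R136.NatT550 (ParOk)
open Crest.Agent.R136.NatW697 (thW qW SlotOkW ThinPre)
open Crest.Agent.R136.Wq638 (capQ EQ EQ_eq N0Q vm_eq gH_Q)
open Crest.Agent.R136.GW650 (prG)
open Crest.Agent.R136.Fw650 (ThinG TiltG FlagsW flags_of flW hW rhN)

/-- **`D'` is the zoom of `D`** to the levels `mm n [0,1]` of length `H n`. -/
structure Zm (D : Dat4) (H : ℕ → ℝ) (mm : ℕ → ℚ → ℚ) (D' : Dat4) : Prop where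
  H01 : ∀ n, 0 < H n ∧ H n ≤ 1
  mm01 : ∀ n, ∀ x : ℚ, 0 ≤ x → x ≤ 1 → 0 ≤ mm n x ∧ mm n x ≤ 1
  mml : ∀ n, ∀ x y : ℚ, (mm n y : ℝ) - mm n x = H n * ((y : ℝ) - x)
  d : ∀ n, D'.B.d n = D.B.d n ^ H n
  I : ∀ᶠ n in (U : Filter ℕ), D'.I n ⊆ D.I n
  L : D'.L = D.L
  r0 : D'.r0 = D.r0
  wr : D'.wr = D.wr
  cr : D'.cr = D.cr
  lev : D'.lev = fun n x => D.lev n (mm n x)
  f : D'.f = fun n x => D.f n (mm n x)
  b : D'.b = fun n x => D.b n (mm n x)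
  vm : D'.vm = fun n x => D.vm n (mm n x)
  w : D'.w = fun j n x => D.w j n (mm n x)

/-- losses of the carried properties -/
theorem Zm.pow {D D' : Dat4} {H : ℕ → ℝ} {mm : ℕ → ℚ → ℚ} (h : Zm D H mm D') (n : ℕ) (e : ℝ) :
    D.B.d n ^ (H n * e) = D'.B.d n ^ e := by
  rw [h.d, ← Real.rpow_mul (D.B.pos n).le]

open Classical in
/-- **D-max in the W-chart** -/
structure GDmax (p : Par4) (D : Dat4) (π : Equiv.Perm (Fin 3)) (kp uz uc un : ℕ → ℝ)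
    (F : ℕ → ℕ × ℝ → FW) (w0 R : ℝ) (PD : Set (Fin 18 → ℝ)) : Prop where
  ne : PD.Nonempty
  leg : PD ⊆ Leg monW R
  gD : ∀ x ∈ PD, ∀ K : ℝ, 1 ≤ K → ∀ ε : ℝ, 0 < ε → ∀ᶠ n in (U : Filter ℕ), ∀ i ∈ D.I n,
      (((D.I n).filter fun j => Near (couW kp uz uc un F n) (D.B.d n) x K i j).card : ℝ) ≤
        N0Q D.A D.vm n * D.B.d n ^ (-(DW p.g 0 (qW p π) w0 x + ε))
  pdn : ∀ v1 : ℝ, 0 < v1 → v1 < 1 → ∃ δ : ℝ, 0 < δ ∧ ∀ x ∈ Leg monW R,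
      |x 0 - pathW (thW p π) w0 v1 0| ≤ δ → |x 2 - pathW (thW p π) w0 v1 2| ≤ δ →
      |x 3 - pathW (thW p π) w0 v1 3| ≤ δ → |x 17 - pathW (thW p π) w0 v1 17| ≤ δ →
    x 17 ≤ 9 * w0 + max 0 (1 - thW p π 0) → x ∈ PD
  /-- all gauges -/
  gmax : ∀ x ∈ PD, GeoN778.GmAt D.B D.I kp uz uc un F (N0Q D.A D.vm) (DW p.g 0 (qW p π) w0) x
  pdc : ∀ x ∈ PD, ∀ y ∈ Leg monW R, y 0 = x 0 → y 2 = x 2 → y 3 = x 3 → y 17 = x 17 → y ∈ PD
  pdr : ∀ x ∈ PD, x 17 ≤ 9 * w0 + max 0 (1 - thW p π 0)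

/-- one more carried property -/
theorem carryH_cons {Q : ℕ → ℕ → ℚ → ℝ → Prop} (hQ : CarryH Q) {P : ℕ → ℚ → ℝ → Prop}
    (h1 : ∀ n v δ δ', δ ≤ δ' → P n v δ → P n v δ')
    (h2 : ∀ v : ℚ, 0 ≤ v → v ≤ 1 → ∀ δ : ℝ, 0 < δ → ∀ᶠ n in (U : Filter ℕ), P n v δ) :
    CarryH fun i n v δ => Nat.casesOn i (P n v δ) fun j => Q j n v δ := by
  refine ⟨?_, ?_⟩
  · intro i n v δ δ' hd
    rcases i with _ | i
    · exact h1 n v δ δ' hd
    · exact hQ.1 i n v δ δ' hd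
  · intro i
    rcases i with _ | i
    · exact h2
    · exact hQ.2 i

section

variable {η : ℝ} {p : Par4} {D : Dat4} {π : Equiv.Perm (Fin 3)}
    {kp sg hz zs : ℕ → ℝ} {L : ℕ → ℕ → Ln4} {wA wB a : ℕ → ℚ → ℝ}
    {Mk : ℚ → ℕ → ℕ × ℤ → Fin 14 → ℝ} {E : ℚ → ℕ → ℕ × ℤ → ℝ} {w0 R T0 : ℝ}
    {Qx : ℕ → ℕ → ℚ → ℝ → Prop}

theorem grW_eq_btW (ϑ : Fin 3 → ℝ) : grW 1 (-ϑ 1) (1 - ϑ 0) = btW ϑ := by
  funext k
  unfold btW
  rfl

/-- **end of the thin branch of U6.** -/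
theorem thin_end
    (hM : MkA D.B D.I (D.G p) D.lev D.A (fun v => p.g * v) (fun v => 0 * v)
      (fun j v => p.θ j * (1 - v)) D.f D.b D.vm D.w)
    (hT : ThinG D.B D.I D.lev D.f kp sg hz zs L wA wB a Mk E)
    (hA : GW650.Lin D.B wA (1 + -thW p π 1)) (ha : GW650.Lin D.B a (1 - thW p π 0)) {C : ℝ}
    (hC : 0 ≤ C)
    (tilt : TiltG D.B D.I (hW kp hz zs L D.lev D.f Mk) (prG (rhN D.lev hz) wA a) C)
    (ok : ParOk η p) (pi0 : π 0 = 0) (th1 : 0 < thW p π 1) (th2 : thW p π 2 = 2 * thW p π 1)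
    (q1 : 0 < qW p π 1) (q2 : 0 < qW p π 2) (big : BigW (thW p π) w0 R T0)
    (kp0 : ∀ ε : ℝ, 0 < ε → ∀ᶠ n in (U : Filter ℕ), D.B.d n ^ ε ≤ |kp n|)
    (hQ : CarryH Qx)
    (hD : ∀ (H : ℕ → ℝ) (mm : ℕ → ℚ → ℚ) (D' : Dat4) (sc' : Fin 18 → ℕ → ℝ) (uz uc un : ℕ → ℝ),
      Zm D H mm D' → CarryH (fun i n v δ => Qx i n (mm n v) (H n * δ)) →
      (∀ᶠ n in (U : Filter ℕ), uz n = D'.B.d n ^ w0 / (hz n * rho (D.lev n (mm n 0))) ∧
        uc n = D'.B.d n ^ w0 / (wA n (mm n 0) / (hz n * rho (D.lev n (mm n 0)))) ∧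
        un n = D'.B.d n ^ (9 * w0) / a n (mm n 0) ∧ 0 < wA n (mm n 0) ∧ 0 < a n (mm n 0)) →
      WSys (D'.G p) p.g 0 p.θ (thW p π) D.B D'.B D'.I D'.lev D'.A D'.f D'.b D'.vm D'.w kp sg hz zs
        hT.kp1 L (flW kp sg hz zs L D.lev D.f Mk (-thW p π 1) (1 - thW p π 0))
        (fun n x => GW650.frW D.lev D.f Mk
          (flW kp sg hz zs L D.lev D.f Mk (-thW p π 1) (1 - thW p π 0)) n (mm n x))
        (fun j n x => prG (rhN D.lev hz) wA a j n (mm n x)) sc' uz uc un w0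
        (fun k => |btW (thW p π) k| + 1) →
      ∃ PD, GDmax p D' π kp uz uc un
        (flW kp sg hz zs L D.lev D.f Mk (-thW p π 1) (1 - thW p π 0)) w0 R PD) :
    ∃ (D' : Dat4) (uz uc un : ℕ → ℝ) (F : ℕ → ℕ × ℝ → FW) (V T : Fin 18 → Prop)
      (PD : Set (Fin 18 → ℝ)), ThinPre η p D' π kp uz uc un F V T w0 R T0 PD := by
  obtain ⟨J, hJ, hJd, hJM, hJT, hF⟩ := flags_of hT hM (θ := p.θ) (g := p.g) (s := 0) hC hA ha tilt
  have hsys := hF.sys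
  rw [grW_eq_btW] at hsys
  have halt := hF.alt
  rw [grW_eq_btW] at halt
  obtain ⟨C1, hC1⟩ := hF.low
  have hpos : ∀ᶠ n in (U : Filter ℕ), ∀ k, 0 < prG (rhN D.lev hz) wA a k n 0 := by
    filter_upwards [hA.1 0 le_rfl zero_le_one, ha.1 0 le_rfl zero_le_one] with n h1 h2 k
    have hr : 0 < rhN D.lev hz n 0 :=
      mul_pos (hT.hz0 n) (Crest.Agent.R136.ArgA163.rho_pos _)
    exact unW_pos hr (div_pos h1 hr) h2 k
  have hlow : ∃ C : ℝ, ∀ᶠ n in (U : Filter ℕ), ∀ k,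
      D.B.d n ^ C ≤ prG (rhN D.lev hz) wA a k n 0 := by
    refine ⟨C1, ?_⟩
    filter_upwards [hC1, hpos] with n h1 h2 k
    have h3 := h1 k
    rwa [ps_eq (h2 k)] at h3
  have hQ' : CarryH fun i n v δ => Nat.casesOn i (D.B.d n ^ δ ≤ |kp n|) fun j => Qx j n v δ :=
    carryH_cons hQ (P := fun n _ δ => D.B.d n ^ δ ≤ |kp n|)
      (fun n v δ δ' h1 h2 => (dpow_le D.B n h1).trans h2) (fun v h0 h1 δ hδ => kp0 δ hδ)
  obtain ⟨H, mm, B', I', A', sc', uz, uc, un, H01, mm01, mml, hd, hI, hQ2, hu, hW⟩ :=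
    exists_wsys hF.wd hsys (fun n v => rfl) (fun u h0 h1 ε hε => hF.marks.cls h0 h1 hε)
      (fun u h0 h1 => (hA.1 u h0 h1).and (ha.1 u h0 h1)) halt hlow hQ' w0
  set D' : Dat4 := ⟨B', I', D.L, D.r0, D.wr, D.cr, fun n x => D.lev n (mm n x), A',
    fun n x => D.f n (mm n x),
    fun n x => D.b n (mm n x), fun n x => D.vm n (mm n x), fun j n x => D.w j n (mm n x)⟩ with hD'
  have hZ : Zm D H mm D' := ⟨H01, mm01, mml, hd, by
    filter_upwards [hI] with n hn using hn.trans (hJ n), rfl, rfl, rfl, rfl, rfl, rfl, rfl, rfl,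
      rfl⟩
  have hQ3 : CarryH (fun i n v δ => Qx i n (mm n v) (H n * δ)) :=
    ⟨fun i n v δ δ' h1 h2 => hQ2.1 (i + 1) n v δ δ' h1 h2, fun i v h0 h1 δ hδ =>
      hQ2.2 (i + 1) v h0 h1 δ hδ⟩
  obtain ⟨PD, hPD⟩ := hD H mm D' sc' uz uc un hZ hQ3 hu hW
  refine ⟨D', uz, uc, un, _, _, _, PD, thinPre_of hW ok pi0 th1 th2 q1 q2 big ?_ hPD.ne hPD.leg
    hPD.gD hPD.pdn hPD.gmax hPD.pdc hPD.pdr⟩
  intro ε hε
  filter_upwards [hQ2.2 0 0 le_rfl zero_le_one ε hε] with n hn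
  rw [← hZ.pow]
  exact hn

end

end Crest.Agent.R136.PrW464
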