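import Crest.Agent.R136.GDW9_778
import Crest.Agent.R136.PrW7_464

/-!
# R136, [GEO-D] for the W-chart, final form (helper778)

* `pdn_W` : near an interior record point all legal boxes above the resolution are in `PDW`;
* `pdW_ne` : `PDW` is not empty;
* **`gdmax_W`** : 464's `GDmax` on the final window of the thin branch.
-/

set_option autoImplicit false
set_option linter.unusedVariables false
set_option maxHeartbeats 400000

open Finset Filter Topology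

namespace Crest.Agent.R136.GeoN778

open Crest.Agent.R138
open Crest.Agent.R138.Ex926 (Base U)
open Crest.Agent.R138.Dp76 (dpow_pos dpow_add dpow_le dpow_le_one)
open Crest.Agent.R138.Mk163 (zc zl rho alive)
open Crest.Agent.R136.MkA627
open Crest.Agent.R136.Net191
open Crest.Agent.R136.NetW191
open Crest.Agent.R136.Sh605
open Crest.Agent.R136.Top484
open Crest.Agent.R136.NatW697 (thW qW)
open Crest.Agent.R136.Wq638 (capQ N0Q)
open Crest.Agent.R136.PrW464 (WSys GDmax BigW pathW WData unW unW_pos couW)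

section pd

variable {B : Base} {r0 : ℕ → ℝ} {lev : ℕ → ℚ → ℕ} {w : Fin 3 → ℕ → ℚ → ℝ} {θ : Fin 3 → ℝ}
    {w0 R T0 cby cr : ℝ}

/-- **near an interior record point all legal boxes above the resolution are one sheet** -/
theorem pdn_W (h : GeoQ186.W0 B r0 lev w (θ 2 - θ 1) cby cr (θ 1)) (θ1 : 0 < θ 1)
    (θ2 : θ 2 = 2 * θ 1) {v1 : ℝ} (h0 : 0 < v1) (h1 : v1 < 1) : ∃ δ : ℝ, 0 < δ ∧
      ∀ x ∈ Leg monW R, |x 0 - pathW θ w0 v1 0| ≤ δ → |x 2 - pathW θ w0 v1 2| ≤ δ →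
      |x 3 - pathW θ w0 v1 3| ≤ δ → x 17 ≤ 9 * w0 + cr → x ∈ PDW B r0 lev w w0 R := by
  have e0 : pathW θ w0 v1 0 = w0 + v1 := by
    simp [pathW, PrW464.grW, PrW464.wz, PrW464.wc, PrW464.wn]
  have e2 : pathW θ w0 v1 2 = 2 * w0 + (1 - θ 1) * v1 := by
    simp [pathW, PrW464.grW, PrW464.wz, PrW464.wc, PrW464.wn]; ring
  have e3 : pathW θ w0 v1 3 = 3 * w0 + (1 - 2 * θ 1) * v1 := by
    simp [pathW, PrW464.grW, PrW464.wz, PrW464.wc, PrW464.wn]; ring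
  have hm : 0 < θ 1 * (1 - v1) := mul_pos θ1 (by linarith)
  obtain ⟨δ, hδ⟩ : ∃ δ : ℝ, δ = min (min v1 (1 - v1)) (θ 1 * (1 - v1)) / 8 := ⟨_, rfl⟩
  have d0 : 0 < min (min v1 (1 - v1)) (θ 1 * (1 - v1)) :=
    lt_min (lt_min h0 (by linarith)) hm
  have d1 : 8 * δ ≤ v1 := by
    rw [hδ, mul_div_cancel₀ _ (by norm_num)]
    exact (min_le_left _ _).trans (min_le_left _ _)
  have d2 : 8 * δ ≤ 1 - v1 := by
    rw [hδ, mul_div_cancel₀ _ (by norm_num)]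
    exact (min_le_left _ _).trans (min_le_right _ _)
  have d3 : 8 * δ ≤ θ 1 * (1 - v1) := by
    rw [hδ, mul_div_cancel₀ _ (by norm_num)]
    exact min_le_right _ _
  have hδ0 : 0 < δ := by rw [hδ]; positivity
  refine ⟨δ, hδ0, fun x hx x0 x2 x3 x17 => ?_⟩
  rw [e0] at x0
  rw [e2] at x2
  rw [e3] at x3
  obtain ⟨a0, b0⟩ := abs_le.1 x0
  obtain ⟨a2, b2⟩ := abs_le.1 x2
  obtain ⟨a3, b3⟩ := abs_le.1 x3
  refine mem_PDW h hx (by linarith) (by linarith) (by linarith) ?_ (by linarith) ?_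
  · rw [θ2]; linarith
  · linarith

/-- `PDW` is not empty -/
theorem pdW_ne (h : GeoQ186.W0 B r0 lev w (θ 2 - θ 1) cby cr (θ 1)) (θ1 : 0 < θ 1)
    (θ2 : θ 2 = 2 * θ 1) (big : BigW θ w0 R T0) (hcr : (1 - θ 0) * (1 / 2) ≤ cr) :
    (PDW B r0 lev w w0 R).Nonempty := by
  obtain ⟨δ, hδ, H⟩ := pdn_W (w0 := w0) (R := R) h θ1 θ2 (v1 := 1 / 2) (by norm_num) (by norm_num)
  refine ⟨pathW θ w0 (1 / 2), H _ (big.path_leg (by norm_num) (by norm_num)) ?_ ?_ ?_ ?_⟩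
  · rw [sub_self, abs_zero]; exact hδ.le
  · rw [sub_self, abs_zero]; exact hδ.le
  · rw [sub_self, abs_zero]; exact hδ.le
  · have e : pathW θ w0 (1 / 2) 17 = 9 * w0 + (1 - θ 0) * (1 / 2) := by
      simp [pathW, PrW464.grW, PrW464.wz, PrW464.wc, PrW464.wn]
    rw [e]; linarith

end pd

section main

variable {p : Par4} {D : Dat4} {B0 : Base}
    {kp sg hz zs : ℕ → ℝ} {hκ : ∀ n, |kp n| ≤ 1} {L : ℕ → ℕ → Ln4} {F : ℕ → ℕ × ℝ → FW}
    {fr : ℕ → ℚ → ℕ × ℝ → FW} {pr : Fin 18 → ℕ → ℚ → ℝ} {sc : Fin 18 → ℕ → ℝ}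
    {uz uc un : ℕ → ℝ} {w0 R T0 : ℝ} {C0 : Fin 18 → ℝ}
    {f : ℕ → Fin 3 → V3} {c : ℕ → Ln4} {u : ℕ → Un} {Q : ℕ → ℕ × ℝ → Qd}

/-- the exponents of the mark of level `0`, the best of the levels `0` and `1` -/
theorem w0_best (hM : MkA D.B D.I (D.G p) D.lev D.A (fun v => p.g * v) (fun v => 0 * v)
      (fun j v => p.θ j * (1 - v)) D.f D.b D.vm D.w) :
    ∃ cby, GeoQ186.W0 D.B D.r0 D.lev D.w (p.θ 2 - p.θ 1) cby (max 0 (1 - p.θ 0)) (p.θ 1) := by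
  have h1 := GeoQ186.w0_one hM
  have h0 := GeoQ186.w0_zero hM
  refine ⟨max (p.θ 0 - p.θ 2) 0, (h1.mix h0).mono (le_max_left _ _) le_rfl ?_ (le_max_left _ _)⟩
  rw [max_comm]

/-- exponents of the boxes which are one sheet, thickness above the resolution -/
def PDG (B : Base) (r0 : ℕ → ℝ) (lev : ℕ → ℚ → ℕ) (w : Fin 3 → ℕ → ℚ → ℝ) (w0 R cr : ℝ) :
    Set (Fin 18 → ℝ) :=
  {x | x ∈ PDW B r0 lev w w0 R ∧ x 17 ≤ 9 * w0 + cr}

/-- `PDW` does not see the slots other than `z, A, B, N` -/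
theorem pdw_congr {B : Base} {r0 : ℕ → ℝ} {lev : ℕ → ℚ → ℕ} {w : Fin 3 → ℕ → ℚ → ℝ} {w0 R : ℝ}
    {x y : Fin 18 → ℝ} (hx : x ∈ PDW B r0 lev w w0 R) (hy : y ∈ Leg monW R) (h0 : y 0 = x 0)
    (h2 : y 2 = x 2) (h3 : y 3 = x 3) (h17 : y 17 = x 17) : y ∈ PDW B r0 lev w w0 R := by
  obtain ⟨-, a1, a2, a3, a4⟩ := hx
  refine ⟨hy, ?_, ?_, ?_, ?_⟩
  · rw [h0]; exact a1
  · rw [h0]; exact a2
  · rw [h3, h2]; exact a3
  · obtain ⟨b1, b2, b3⟩ := a4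
    refine ⟨?_, ?_, ?_⟩
    · rw [h2, h3]; exact b1
    · rw [h17]; exact b2
    · rw [h0, h2]; exact b3

/-- **D-max in the W-chart on the final window of the thin branch.** -/
theorem gdmax_W
    (h : WSys (D.G p) p.g 0 p.θ (thW p 1) B0 D.B D.I D.lev D.A D.f D.b D.vm D.w kp sg hz zs hκ
      L F fr pr sc uz uc un w0 C0)
    (hC : ∀ F2 : ℕ → ℕ × ℝ → FW, WData B0 D.I kp sg hz zs L F2 →
      ∃ Q, WCon B0 D.I kp sg hz zs F2 D.L L f c u Q)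
    (hS : SeqFix B0 D.I kp sg hz zs L F)
    (hL : WLev B0 D.B D.I D.lev D.w kp sg hz F u uz uc un w0)
    (hq : ∀ j, 0 ≤ p.q j) (θ1 : 0 < p.θ 1) (θ2 : p.θ 2 = 2 * p.θ 1)
    (big : BigW (thW p 1) w0 R T0) (hwr : Rng D.B D.wr D.cr D.w) :
    GDmax p D 1 kp uz uc un F w0 R
      (PDG D.B D.r0 D.lev D.w w0 R (max 0 (1 - thW p 1 0))) := by
  have hM := h.sys.mka
  obtain ⟨cby, hW⟩ := w0_best hM
  have hwp : ∀ k, ∀ᶠ n in (U : Filter ℕ), 0 < D.w k n 0 := fun k =>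
    hM.wpos k 0 le_rfl zero_le_one
  obtain ⟨Q, hQ⟩ := hC F h.wd
  have hpd : ∀ v1 : ℝ, 0 < v1 → v1 < 1 → ∃ δ : ℝ, 0 < δ ∧ ∀ x ∈ Leg monW R,
      |x 0 - pathW (thW p 1) w0 v1 0| ≤ δ → |x 2 - pathW (thW p 1) w0 v1 2| ≤ δ →
      |x 3 - pathW (thW p 1) w0 v1 3| ≤ δ → |x 17 - pathW (thW p 1) w0 v1 17| ≤ δ →
      x 17 ≤ 9 * w0 + max 0 (1 - thW p 1 0) →
      x ∈ PDG D.B D.r0 D.lev D.w w0 R (max 0 (1 - thW p 1 0)) := by
    intro v1 h0 h1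
    obtain ⟨δ, hδ, H⟩ := pdn_W (w0 := w0) (R := R) (θ := p.θ) hW θ1 θ2 h0 h1
    exact ⟨δ, hδ, fun x hx a0 a2 a3 _ a17 => ⟨H x hx a0 a2 a3 a17, a17⟩⟩
  refine ⟨?_, fun x hx => hx.1.1, ?_, hpd, ?_, ?_, ?_⟩
  · obtain ⟨δ, hδ, H⟩ := hpd (1 / 2) (by norm_num) (by norm_num)
    refine ⟨pathW (thW p 1) w0 (1 / 2), H _ (big.path_leg (by norm_num) (by norm_num)) ?_ ?_ ?_ ?_ ?_⟩
    · rw [sub_self, abs_zero]; exact hδ.le
    · rw [sub_self, abs_zero]; exact hδ.le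
    · rw [sub_self, abs_zero]; exact hδ.le
    · rw [sub_self, abs_zero]; exact hδ.le
    · have e : pathW (thW p 1) w0 (1 / 2) 17 = 9 * w0 + (1 - thW p 1 0) * (1 / 2) := by
        simp [pathW, PrW464.grW, PrW464.wz, PrW464.wc, PrW464.wn]
      rw [e]
      have h1 := le_max_left 0 (1 - thW p 1 0)
      have h2 := le_max_right 0 (1 - thW p 1 0)
      linarith
  · intro x hx
    exact gD_W hM (sheetGeo_geo4 D.L D.r0 D.wr D.cr p.q) hq h.wd hQ hL hwp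
      (fun C k => hwr C k 0 le_rfl zero_le_one)
      (GeoQ186.vm_eq hM le_rfl zero_le_one) x hx.1
  · intro x hx
    exact gmax_W hM (sheetGeo_geo4 D.L D.r0 D.wr D.cr p.q) hq hS hC hL hwp
      (fun C k => hwr C k 0 le_rfl zero_le_one)
      (GeoQ186.vm_eq hM le_rfl zero_le_one) x hx.1
  · intro x hx y hy h0 h2 h3 h17
    exact ⟨pdw_congr hx.1 hy h0 h2 h3 h17, by rw [h17]; exact hx.2⟩
  · intro x hx
    exact hx.2

end main

end Crest.Agent.R136.GeoN778
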