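import Crest.Agent.R136.PrW2_464
import Crest.Agent.R136.GauW_619
import Crest.Agent.R136.NetW6_191

/-!
# R136 (S0187): gauged flags of a marked sequence (helper893, literal of helper464)

* `gau_fix` : the gauge change `gau κ e f` of a true flag `f` of the line `t`, corrected in the slots
  `9, 12, 13` by `O(σ)`, is again a true flag of `t`.
* `wdata_gau` : sequence form (`WData`).
-/

set_option autoImplicit false
set_option linter.unusedVariables false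

open Finset Filter Topology

namespace Crest.Agent.R136.GgA893

open Crest.Agent.R138.Ex926 (Base U)
open Crest.Agent.R138.Dp76 (dpow_pos dpow_add dpow_le)
open Crest.Agent.R138.ArgM163 (ev_const)
open Crest.Agent.R136.Sh605
open Crest.Agent.R136.NetW191
open Crest.Agent.R136.GeoW778 (qS TrueW q_bound evY_sub a2 m2 s2 n1)
open Crest.Agent.R136.GauW619 (gau gau_g gau_G tr_inv inv)
open Crest.Agent.R136.PrW464 (WData)

/-! ### one line -/

/-- flag with the coefficients `c2 z² + c1 z + c0` -/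
def dlt (c0 c1 c2 : ℝ) : Fin 14 → ℝ := fun k =>
  if k = 9 then c2 else if k = 12 then c1 else if k = 13 then c0 else 0

theorem evY_dlt (c0 c1 c2 z A B Y : ℝ) :
    evY (dlt c0 c1 c2) z A B Y = c2 * z ^ 2 + c1 * z + c0 := by
  have e : ∀ k : Fin 14, k ≠ 9 → k ≠ 12 → k ≠ 13 → dlt c0 c1 c2 k = 0 := by
    intro k h1 h2 h3
    simp only [dlt, if_neg h1, if_neg h2, if_neg h3]
  have e9 : dlt c0 c1 c2 9 = c2 := by simp only [dlt, if_true]
  have e12 : dlt c0 c1 c2 12 = c1 := by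
    simp only [dlt, if_neg (show (12 : Fin 14) ≠ 9 by decide), if_true]
  have e13 : dlt c0 c1 c2 13 = c0 := by
    simp only [dlt, if_neg (show (13 : Fin 14) ≠ 9 by decide),
      if_neg (show (13 : Fin 14) ≠ 12 by decide), if_true]
  simp only [evY, e9, e12, e13, e 0 (by decide) (by decide) (by decide),
    e 1 (by decide) (by decide) (by decide), e 2 (by decide) (by decide) (by decide),
    e 3 (by decide) (by decide) (by decide), e 4 (by decide) (by decide) (by decide),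
    e 5 (by decide) (by decide) (by decide), e 6 (by decide) (by decide) (by decide),
    e 7 (by decide) (by decide) (by decide), e 8 (by decide) (by decide) (by decide),
    e 10 (by decide) (by decide) (by decide), e 11 (by decide) (by decide) (by decide)]
  ring

theorem abs_dlt {c0 c1 c2 E : ℝ} (h0 : |c0| ≤ E) (h1 : |c1| ≤ E) (h2 : |c2| ≤ E) (k : Fin 14) :
    |dlt c0 c1 c2 k| ≤ E := by
  have hE : 0 ≤ E := (abs_nonneg _).trans h0
  unfold dlt
  split_ifs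
  · exact h2
  · exact h1
  · exact h0
  · simpa using hE

theorem qS_add (κ σ : ℝ) (g : Fin 4 → ℝ) (G δ : Fin 14 → ℝ) (z : ℝ) (x : V3) :
    qS κ σ ⟨g, G + δ⟩ z x = qS κ σ ⟨g, G⟩ z x - σ * evY δ z (x 1) (x 2) (x 0) := by
  simp only [qS, evY, Pi.add_apply]
  ring

/-- the function of a sheet along a line is quadratic -/
theorem qS_quad (κ σ : ℝ) (f : FW) (t : Ln4) (z : ℝ) :
    qS κ σ f z (t.pos z) = qS κ σ f 0 (t.pos 0) +
      (qS κ σ f 1 (t.pos 1) - qS κ σ f (-1) (t.pos (-1))) / 2 * z +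
      ((qS κ σ f 1 (t.pos 1) + qS κ σ f (-1) (t.pos (-1))) / 2 - qS κ σ f 0 (t.pos 0)) * z ^ 2 := by
  simp only [qS, ht, evY, Ln4.pos]
  ring

/-- the flag seen from its gauge change -/
theorem coW_gau_self (κ : ℝ) (e : Fin 14 → ℝ) (f : FW) (q : Fin 14) :
    coW κ (gau κ e f) f (Fin.natAdd 4 q) = -e q := by
  rw [coW_right, gau_G]
  have h1 : f.G - (f.G + tr κ (inv κ f.g) e) = 0 - tr κ (inv κ f.g) e := by abel
  rw [h1, tr_sub, tr_zero, tr_inv]
  simp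

/-- **gauge change of a true flag** (literal of helper464): the centred gauge polynomial vanishes on
the null line, the true line is `σ`-close to it; correction in the slots `9, 12, 13`. -/
theorem gau_fix {κ σ : ℝ} {f : FW} {t : Ln4} {e : Fin 14 → ℝ} (ht : TrueW κ σ f t) (hσ : 0 < σ)
    {Γ V X : ℝ} (hG : ∀ k, |f.G k| ≤ Γ) (hG2 : ∀ k, |(gau κ e f).G k| ≤ Γ)
    (he : e 9 = 0 ∧ e 12 = 0 ∧ e 13 = 0) (hV : ∀ k, |t.v k| ≤ V)
    (hX : ∀ z, |z| ≤ 1 → ∀ k, |t.pos z k| ≤ X) (h0 : |f.g 0| ≤ 1)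
    (hsm : σ * GeoW778.DW Γ 1 X V 2 ≤ 1) :
    ∃ δ : Fin 14 → ℝ, (∀ k, |δ k| ≤ 2 * (σ * GeoW778.EW Γ 1 X V 2)) ∧
      TrueW κ σ ⟨f.g, (gau κ e f).G + δ⟩ t := by
  have e17 : coW κ (gau κ e f) f 17 = 0 := by
    have h := coW_gau_self κ e f 13
    rw [he.2.2, neg_zero] at h
    exact h
  have e16 : coW κ (gau κ e f) f 16 = 0 := by
    have h := coW_gau_self κ e f 12
    rw [he.2.1, neg_zero] at h
    exact h
  have e13 : coW κ (gau κ e f) f 13 = 0 := by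
    have h := coW_gau_self κ e f 9
    rw [he.1, neg_zero] at h
    exact h
  obtain ⟨E, hE⟩ : ∃ E, E = σ * GeoW778.EW Γ 1 X V 2 := ⟨_, rfl⟩
  obtain ⟨Q, hQ⟩ : ∃ Q : ℝ → ℝ, ∀ z, Q z = qS κ σ (gau κ e f) z (t.pos z) := ⟨_, fun _ => rfl⟩
  have hb : ∀ z, |z| ≤ 1 → |Q z / σ| ≤ E := by
    intro z hz
    have h1 := q_bound (i := gau κ e f) ht hσ.le hG2 hG hV hz (hX z hz) (ρ' := 2)
      (by
        have a := abs_le.1 hz
        have b := abs_le.1 h0
        rw [abs_le]; constructor <;> linarith)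
      (s := fun k => |coW κ (gau κ e f) f k|) (fun k => le_rfl) hsm
    simp only [e17, e16, e13, abs_zero, mul_zero, add_zero, zero_add] at h1
    rw [hQ, abs_div, abs_of_pos hσ, div_le_iff₀ hσ, hE, mul_comm _ σ]
    exact h1
  have hE0 : 0 ≤ E := (abs_nonneg _).trans (hb 0 (by simp))
  have b0 := hb 0 (by simp)
  have b1 := hb 1 (by simp)
  have b2 := hb (-1) (by simp)
  refine ⟨dlt (Q 0 / σ) ((Q 1 / σ - Q (-1) / σ) / 2) ((Q 1 / σ + Q (-1) / σ) / 2 - Q 0 / σ),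
    fun k => ?_, ?_⟩
  · rw [← hE]
    have c0 := abs_le.1 b0
    have c1 := abs_le.1 b1
    have c2 := abs_le.1 b2
    refine abs_dlt ?_ ?_ ?_ k
    · rw [abs_le]; constructor <;> linarith
    · rw [abs_le]; constructor <;> linarith
    · rw [abs_le]; constructor <;> linarith
  · refine ⟨ht.c, ht.A, ht.B, fun z => ?_⟩
    rw [qS_add, evY_dlt]
    have h1 := qS_quad κ σ (gau κ e f) t z
    rw [← hQ, ← hQ, ← hQ, ← hQ] at h1
    have h2 : qS κ σ ⟨f.g, (gau κ e f).G⟩ z (t.pos z) = Q z := by rw [hQ]; rfl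
    rw [h2, h1]
    field_simp
    ring

/-! ### sizes -/

lemma tms_len : ∀ q, ∀ t ∈ tms q, t.hl.length ≤ 6 := by decide

theorem tr_bound {κ : ℝ} (hκ : |κ| ≤ 1) {h : Fin 4 → ℝ} {w : Fin 14 → ℝ} {H W : ℝ} (h1 : 1 ≤ H)
    (hh : ∀ i, |h i| ≤ H) (hw : ∀ q, |w q| ≤ W) (q : Fin 14) :
    |tr κ h w q| ≤ 68 * (H ^ 6 * W) := by
  have hW : 0 ≤ W := (abs_nonneg _).trans (hw 0)
  have hH0 : 0 ≤ H := by linarith
  have key := sum_ev_le hκ (X := Fin.append (m := 4) (n := 14) (fun _ => H) (fun _ => W))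
    (h := h) (w := w) (S := H ^ 6 * W)
    (fun i => by rw [Fin.append_left]; exact hh i) (fun i => by rw [Fin.append_right]; exact hw i)
    (tms q) (fun t ht => by
      have e1 : (t.idx.map (Fin.append (m := 4) (n := 14) (fun _ => H) (fun _ => W))).prod =
          H ^ t.hl.length * W := by
        simp [Tm.idx, List.map_append, List.prod_append, Function.comp_def, Fin.append_left,
          Fin.append_right]
      rw [e1]
      exact mul_le_mul_of_nonneg_right (pow_le_pow_right₀ h1 (tms_len q t ht)) hW)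
  have h67 : ((((tms q).map fun t => t.n.natAbs).sum : ℕ) : ℝ) ≤ 67 := by
    exact_mod_cast tms_sum q
  have hS : 0 ≤ H ^ 6 * W := by positivity
  have hWS : W ≤ H ^ 6 * W := le_mul_of_one_le_left hW (one_le_pow₀ h1)
  rw [tr_tms]
  refine (abs_add_le _ _).trans ?_
  have h2 := key.trans (mul_le_mul_of_nonneg_right h67 hS)
  have h3 := hw q
  linarith

theorem inv_bound {κ : ℝ} (hκ : |κ| ≤ 1) {g : Fin 4 → ℝ} {y : ℝ} (hy : 1 ≤ y) (h0 : |g 0| ≤ 1)
    (h1 : |g 1| ≤ y) (h2 : |g 2| ≤ 2 * y) (h3 : |g 3| ≤ 2 * y) (i : Fin 4) :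
    |inv κ g i| ≤ 9 * y ^ 3 := by
  have y0 : 0 ≤ y := by linarith
  have y2 : y ≤ y ^ 2 := by nlinarith
  have y3 : y ^ 2 ≤ y ^ 3 := by nlinarith [sq_nonneg y]
  have c0 : |0 - g 0| ≤ 1 := by rwa [zero_sub, abs_neg]
  have c2 : |0 - g 2 - g 1 * (0 - g 0)| ≤ 3 * y := by
    have := s2 (n1 h2) (m2 h1 c0)
    rw [zero_sub]
    linarith
  have e : inv κ g = ![0 - g 0, 0 - g 1, 0 - g 2 - g 1 * (0 - g 0),
      0 - g 3 + 2 * κ * g 1 * (0 - g 2 - g 1 * (0 - g 0)) + κ * g 1 ^ 2 * (0 - g 0)] := rfl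
  rw [e]
  fin_cases i
  · show |0 - g 0| ≤ _
    linarith
  · show |0 - g 1| ≤ _
    rw [zero_sub, abs_neg]
    linarith
  · show |0 - g 2 - g 1 * (0 - g 0)| ≤ _
    linarith
  · show |0 - g 3 + 2 * κ * g 1 * (0 - g 2 - g 1 * (0 - g 0)) + κ * g 1 ^ 2 * (0 - g 0)| ≤ _
    have c3 : |0 - g 3| ≤ 2 * y := by rwa [zero_sub, abs_neg]
    have k2 : |2 * κ * g 1| ≤ 2 * 1 * y := by
      refine m2 (m2 ?_ hκ) h1
      norm_num
    have k3 : |κ * g 1 ^ 2| ≤ 1 * y ^ 2 := by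
      refine m2 hκ ?_
      rw [abs_pow]
      exact pow_le_pow_left₀ (abs_nonneg _) h1 2
    have := a2 (a2 c3 (m2 k2 c2)) (m2 k3 c0)
    refine this.trans ?_
    nlinarith

/-- constants -/
def K1 : ℝ := 68 * 9 ^ 6 + 1

theorem gauG_bound {κ : ℝ} (hκ : |κ| ≤ 1) {f : FW} {e : Fin 14 → ℝ} {y : ℝ} (hy : 1 ≤ y)
    (h0 : |f.g 0| ≤ 1) (h1 : |f.g 1| ≤ y) (h2 : |f.g 2| ≤ 2 * y) (h3 : |f.g 3| ≤ 2 * y)
    (hG : ∀ k, |f.G k| ≤ y) (he : ∀ k, |e k| ≤ y) (k : Fin 14) :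
    |(gau κ e f).G k| ≤ K1 * y ^ 19 := by
  have hH : 1 ≤ 9 * y ^ 3 := by
    have := one_le_pow₀ hy (n := 3)
    linarith
  have b := tr_bound hκ hH (inv_bound hκ hy h0 h1 h2 h3) he k
  have y19 : y ≤ y ^ 19 := by
    calc y = y ^ 1 := (pow_one y).symm
      _ ≤ y ^ 19 := pow_le_pow_right₀ hy (by norm_num)
  have e1 : 68 * ((9 * y ^ 3) ^ 6 * y) = 68 * 9 ^ 6 * y ^ 19 := by ring
  rw [gau_G, Pi.add_apply]
  rw [e1] at b
  refine (a2 (hG k) b).trans ?_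
  unfold K1
  linarith

theorem DW_bound {Γ y : ℝ} (hΓ : 0 ≤ Γ) (hy : 1 ≤ y) :
    GeoW778.DW Γ 1 (2 * y) y 2 ≤ 77 * (Γ * y ^ 2) := by
  have y2 : y ≤ y ^ 2 := by nlinarith
  have y1 : 1 ≤ y ^ 2 := one_le_pow₀ hy
  have e : GeoW778.DW Γ 1 (2 * y) y 2 = Γ * (7 + 22 * y + 48 * y ^ 2) := by
    unfold GeoW778.DW; ring
  rw [e, show 77 * (Γ * y ^ 2) = Γ * (77 * y ^ 2) by ring]
  exact mul_le_mul_of_nonneg_left (by linarith) hΓ

theorem DW_nonneg {Γ y : ℝ} (hΓ : 0 ≤ Γ) (hy : 1 ≤ y) : 0 ≤ GeoW778.DW Γ 1 (2 * y) y 2 := by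
  unfold GeoW778.DW
  positivity

theorem EW_bound {Γ y : ℝ} (hΓ : 0 ≤ Γ) (hy : 1 ≤ y) :
    GeoW778.EW Γ 1 (2 * y) y 2 ≤ 2156 * (Γ ^ 2 * y ^ 3) := by
  have hD := DW_bound hΓ hy
  have hD0 := DW_nonneg hΓ hy
  have h1 : 2 * Γ * (1 + 1 + 4 * (2 * y + 1)) ≤ 28 * (Γ * y) := by nlinarith
  have h0 : 0 ≤ 2 * Γ * (1 + 1 + 4 * (2 * y + 1)) := by positivity
  unfold GeoW778.EW
  calc 2 * Γ * (1 + 1 + 4 * (2 * y + 1)) * GeoW778.DW Γ 1 (2 * y) y 2
      ≤ 28 * (Γ * y) * (77 * (Γ * y ^ 2)) := mul_le_mul h1 hD hD0 (h0.trans h1)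
    _ = 2156 * (Γ ^ 2 * y ^ 3) := by ring

theorem EW_nonneg {Γ y : ℝ} (hΓ : 0 ≤ Γ) (hy : 1 ≤ y) : 0 ≤ GeoW778.EW Γ 1 (2 * y) y 2 := by
  have := DW_nonneg hΓ hy
  unfold GeoW778.EW
  positivity

/-- the chart after a correction of the flags -/
theorem coW_corr (κ : ℝ) (f f' : FW) (δ δ' : Fin 14 → ℝ) (k : Fin 18) :
    coW κ ⟨f.g, f.G + δ⟩ ⟨f'.g, f'.G + δ'⟩ k - coW κ f f' k =
      Fin.append (m := 4) (n := 14) (fun _ => (0:ℝ)) (tr κ f'.g (δ' - δ)) k := by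
  refine Fin.addCases (m := 4) (n := 14) (fun i => ?_) (fun q => ?_) k
  · rw [Fin.append_left, coW_left, coW_left, sub_self]
  · rw [Fin.append_right, coW_right, coW_right]
    have e1 : f'.G + δ' - (f.G + δ) = (f'.G - f.G) + (δ' - δ) := by abel
    show tr κ f'.g (f'.G + δ' - (f.G + δ)) q - tr κ f'.g (f'.G - f.G) q = _
    rw [e1, tr_add, Pi.add_apply]
    ring

theorem coW_corr_le {κ : ℝ} (hκ : |κ| ≤ 1) {f f' : FW} {δ δ' : Fin 14 → ℝ} {H D : ℝ} (hH : 1 ≤ H)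
    (hg : ∀ i, |f'.g i| ≤ H) (h1 : ∀ q, |δ q| ≤ D) (h2 : ∀ q, |δ' q| ≤ D) (k : Fin 18) :
    |coW κ ⟨f.g, f.G + δ⟩ ⟨f'.g, f'.G + δ'⟩ k - coW κ f f' k| ≤ 136 * (H ^ 6 * D) := by
  have hD : 0 ≤ D := (abs_nonneg _).trans (h1 0)
  have hH0 : 0 ≤ H := by linarith
  rw [coW_corr]
  refine Fin.addCases (m := 4) (n := 14) (fun i => ?_) (fun q => ?_) k
  · rw [Fin.append_left, abs_zero]
    positivity
  · rw [Fin.append_right]
    refine (tr_bound hκ hH hg (W := 2 * D) (fun q => ?_) q).trans (le_of_eq (by ring))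
    rw [Pi.sub_apply]
    linarith [s2 (h2 q) (h1 q)]

/-! ### sequences -/

section seq

variable {B : Base} {I : ℕ → Finset (ℕ × ℝ)} {kp sg hz zs : ℕ → ℝ}
    {L : ℕ → ℕ → Ln4} {F : ℕ → ℕ × ℝ → FW}

/-- the sizes of a marked sequence with gauge parameters: one exponent `C` -/
theorem sizes (h : WData B I kp sg hz zs L F) {e : ℕ → ℕ × ℝ → Fin 14 → ℝ} {C0 : ℝ}
    (he : ∀ᶠ n in (U : Filter ℕ), ∀ x ∈ I n, ∀ k, |e n x k| ≤ B.d n ^ (-C0)) :
    ∃ C : ℝ, 0 ≤ C ∧ ∀ᶠ n in (U : Filter ℕ), ∀ x ∈ I n, ∀ y : ℝ, y = B.d n ^ (-C) →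
      1 ≤ y ∧ TrueW (kp n) (sg n) (F n x) (L n x.1) ∧ |(F n x).g 0| ≤ 1 ∧
        (∀ k, |(F n x).g k| ≤ 2 * y) ∧ (∀ k, |(F n x).G k| ≤ y) ∧ (∀ k, |e n x k| ≤ y) ∧
        (∀ k, |(L n x.1).v k| ≤ y) ∧ (∀ z, |z| ≤ 1 → ∀ k, |(L n x.1).pos z k| ≤ 2 * y) ∧
        ∀ k, |(gau (kp n) (e n x) (F n x)).G k| ≤ K1 * y ^ 19 := by
  obtain ⟨C1, hC1, hbd⟩ := h.bd
  refine ⟨max C1 (max C0 0), le_max_of_le_right (le_max_right _ _), ?_⟩
  filter_upwards [h.zb, h.tru, hbd, he] with n n1' n2 n3 n4 x hx y hy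
  have m1 : B.d n ^ (-C1) ≤ y := by
    rw [hy]; exact dpow_le B n (neg_le_neg (le_max_left _ _))
  have m2' : B.d n ^ (-C0) ≤ y := by
    rw [hy]; exact dpow_le B n (neg_le_neg ((le_max_left _ _).trans (le_max_right _ _)))
  have m3 : 1 ≤ y := by
    rw [hy, ← Real.rpow_zero (B.d n)]
    refine dpow_le B n ?_
    have : (0:ℝ) ≤ max C1 (max C0 0) := le_max_of_le_right (le_max_right _ _)
    linarith
  have tx := n2 x hx
  have bG := fun k => ((n3 x hx).1 k).trans m1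
  have bv := fun k => ((n3 x hx).2.1 k).trans m1
  have bp := fun k => ((n3 x hx).2.2 k).trans m1
  have be := fun k => (n4 x hx k).trans m2'
  have bpos : ∀ z, |z| ≤ 1 → ∀ k, |(L n x.1).pos z k| ≤ 2 * y := by
    intro z hz k
    have h1 := m2 hz (bv k)
    have h2 := a2 (bp k) h1
    have e1 : (L n x.1).pos z k = (L n x.1).p k + z * (L n x.1).v k := by
      simp only [Ln4.pos]
    rw [e1]
    linarith
  have g0 := n1' x hx
  have g1 : |(F n x).g 1| ≤ y := by rw [← tx.c]; exact bv 1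
  have g2 : |(F n x).g 2| ≤ 2 * y := by rw [← tx.A]; exact bpos _ g0 1
  have g3 : |(F n x).g 3| ≤ 2 * y := by rw [← tx.B]; exact bpos _ g0 2
  refine ⟨m3, tx, g0, fun k => ?_, bG, be, bv, bpos,
    gauG_bound (h.kp1 n) m3 g0 g1 g2 g3 bG be⟩
  fin_cases k
  · show |(F n x).g 0| ≤ 2 * y
    linarith
  · show |(F n x).g 1| ≤ 2 * y
    linarith
  · exact g2
  · exact g3

/-- **gauged flags of a marked sequence** (literal of helper464), with the size of the correction. -/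
theorem wdata_gau' (h : WData B I kp sg hz zs L F) (e : ℕ → ℕ × ℝ → Fin 14 → ℝ) {C : ℝ}
    (he : ∀ᶠ n in (U : Filter ℕ), ∀ x ∈ I n, (e n x 9 = 0 ∧ e n x 12 = 0 ∧ e n x 13 = 0) ∧
      ∀ k, |e n x k| ≤ B.d n ^ (-C)) :
    ∃ F2 : ℕ → ℕ × ℝ → FW, WData B I kp sg hz zs L F2 ∧ (∀ n x, (F2 n x).g = (F n x).g) ∧
      (∀ M : ℝ, ∀ᶠ n in (U : Filter ℕ), ∀ x ∈ I n, ∀ k,
        |(F2 n x).G k - (gau (kp n) (e n x) (F n x)).G k| ≤ B.d n ^ M) ∧
      ∀ M : ℝ, ∀ᶠ n in (U : Filter ℕ), ∀ i ∈ I n, ∀ j ∈ I n, ∀ k,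
        |coW (kp n) (F2 n i) (F2 n j) k -
          coW (kp n) (gau (kp n) (e n i) (F n i)) (gau (kp n) (e n j) (F n j)) k| ≤
            B.d n ^ M := by
  classical
  obtain ⟨C1, hC1, hsz⟩ := sizes h (he.mono fun n hn x hx => (hn x hx).2)
  set y : ℕ → ℝ := fun n => B.d n ^ (-C1) with hy
  set W : ℕ → ℝ := fun n => 2 * (sg n * GeoW778.EW (K1 * y n ^ 19) 1 (2 * y n) (y n) 2) with hW
  have K1p : 0 < K1 := by unfold K1; norm_num
  have yp : ∀ n, 0 < y n := fun n => dpow_pos B n _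
  have y1 : ∀ n, 1 ≤ y n := by
    intro n
    show 1 ≤ B.d n ^ (-C1)
    rw [← Real.rpow_zero (B.d n)]
    exact dpow_le B n (by linarith)
  have ypow : ∀ (n m : ℕ), y n ^ m = B.d n ^ (-(m * C1)) := by
    intro n m
    show (B.d n ^ (-C1)) ^ m = _
    rw [← Real.rpow_natCast, ← Real.rpow_mul (B.pos n).le]; congr 1; ring
  have W0 : ∀ n, 0 ≤ W n := by
    intro n
    have h1 := EW_nonneg (Γ := K1 * y n ^ 19) (by have := yp n; positivity) (y1 n)
    have h2 := (h.sg0 n).le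
    show 0 ≤ 2 * (sg n * GeoW778.EW (K1 * y n ^ 19) 1 (2 * y n) (y n) 2)
    positivity
  -- the correction is infinitely small
  have Wle : ∀ n, W n ≤ sg n * (4312 * K1 ^ 2 * B.d n ^ (-(41 * C1))) := by
    intro n
    have h1 := EW_bound (Γ := K1 * y n ^ 19) (by have := yp n; positivity) (y1 n)
    have e41 := ypow n 41
    push_cast at e41
    calc W n = 2 * (sg n * GeoW778.EW (K1 * y n ^ 19) 1 (2 * y n) (y n) 2) := rfl
      _ ≤ 2 * (sg n * (2156 * ((K1 * y n ^ 19) ^ 2 * y n ^ 3))) := by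
          have := (h.sg0 n).le
          gcongr
      _ = sg n * (4312 * K1 ^ 2 * y n ^ 41) := by ring
      _ = _ := by rw [e41]
  have Wsm : ∀ M : ℝ, ∀ᶠ n in (U : Filter ℕ), W n ≤ B.d n ^ M := by
    intro M
    filter_upwards [h.small (4312 * K1 ^ 2) (-(41 * C1)) M (by positivity)] with n hn
    exact (Wle n).trans hn
  -- the corrections
  set P : ℕ → ℕ × ℝ → (Fin 14 → ℝ) → Prop := fun n x δ => (∀ k, |δ k| ≤ W n) ∧
    TrueW (kp n) (sg n) ⟨(F n x).g, (gau (kp n) (e n x) (F n x)).G + δ⟩ (L n x.1) with hP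
  set D : ℕ → ℕ × ℝ → Fin 14 → ℝ := fun n x => if hx : ∃ δ, P n x δ then hx.choose else 0 with hD
  have hPD : ∀ᶠ n in (U : Filter ℕ), ∀ x ∈ I n, P n x (D n x) := by
    filter_upwards [hsz, he, h.small (77 * K1) (-(21 * C1)) 0 (by positivity)] with n n1' n2 n3 x hx
    obtain ⟨a1, a2', a3, a4, a5, a6, a7, a8, a9⟩ := n1' x hx (y n) rfl
    have hex : ∃ δ, P n x δ := by
      have hG : ∀ k, |(F n x).G k| ≤ K1 * y n ^ 19 := fun k => by
        refine (a5 k).trans ?_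
        have e1 : y n ≤ y n ^ 19 := by
          calc y n = y n ^ 1 := (pow_one _).symm
            _ ≤ y n ^ 19 := pow_le_pow_right₀ a1 (by norm_num)
        have e2 : (1:ℝ) ≤ K1 := by unfold K1; norm_num
        have e3 : 0 ≤ y n ^ 19 := by have := yp n; positivity
        nlinarith
      refine gau_fix a2' (h.sg0 n) (Γ := K1 * y n ^ 19) (V := y n) (X := 2 * y n) hG a9
        (n2 x hx).1 a7 a8 a3 ?_
      have e21 := ypow n 21
      push_cast at e21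
      rw [Real.rpow_zero] at n3
      calc sg n * GeoW778.DW (K1 * y n ^ 19) 1 (2 * y n) (y n) 2
          ≤ sg n * (77 * ((K1 * y n ^ 19) * y n ^ 2)) :=
            mul_le_mul_of_nonneg_left (DW_bound (by have := yp n; positivity) a1) (h.sg0 n).le
        _ = sg n * (77 * K1 * y n ^ 21) := by ring
        _ = sg n * (77 * K1 * B.d n ^ (-(21 * C1))) := by rw [e21]
        _ ≤ 1 := n3
    show P n x (if hx : ∃ δ, P n x δ then hx.choose else 0)
    rw [dif_pos hex]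
    exact hex.choose_spec
  refine ⟨fun n x => ⟨(F n x).g, (gau (kp n) (e n x) (F n x)).G + D n x⟩, ?_, fun _ _ => rfl,
    fun M => ?_, fun M => ?_⟩
  · refine ⟨h.kp1, h.sg0, h.hz0, h.sgs, h.gz, h.zb, hPD.mono fun n hn x hx => (hn x hx).2,
      19 * C1 + 1, by positivity, ?_⟩
    filter_upwards [hsz, hPD, Wsm 0, ev_const B (C := K1 + 1) (by positivity) one_pos]
      with n n1' n2 n3 n4 x hx
    obtain ⟨a1, a2', a3, a4, a5, a6, a7, a8, a9⟩ := n1' x hx (y n) rfl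
    have e19 := ypow n 19
    push_cast at e19
    have p19 : 1 ≤ y n ^ 19 := one_le_pow₀ a1
    have big : (K1 + 1) * y n ^ 19 ≤ B.d n ^ (-(19 * C1 + 1)) := by
      rw [show -(19 * C1 + 1) = -1 + -(19 * C1) by ring, dpow_add, ← e19]
      exact mul_le_mul_of_nonneg_right n4 (by linarith)
    have ylow : y n ≤ B.d n ^ (-(19 * C1 + 1)) := by
      show B.d n ^ (-C1) ≤ _
      exact dpow_le B n (by linarith)
    have y0 := yp n
    refine ⟨fun k => ?_, fun k => (a7 k).trans ylow, fun k => ?_⟩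
    · refine le_trans ?_ big
      show |(gau (kp n) (e n x) (F n x)).G k + D n x k| ≤ _
      have h1 := a2 (a9 k) ((n2 x hx).1 k)
      rw [Real.rpow_zero] at n3
      linarith
    · have h1 := a8 0 (by simp) k
      have e1 : (L n x.1).pos 0 k = (L n x.1).p k := by simp only [Ln4.pos]; ring
      rw [e1] at h1
      refine h1.trans (le_trans ?_ big)
      have e2 : (2:ℝ) ≤ K1 + 1 := by unfold K1; norm_num
      have e3 : y n ≤ y n ^ 19 := by
        calc y n = y n ^ 1 := (pow_one _).symm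
          _ ≤ y n ^ 19 := pow_le_pow_right₀ a1 (by norm_num)
      exact mul_le_mul e2 e3 y0.le (by linarith)
  · filter_upwards [hPD, Wsm M] with n n1' n2 x hx k
    show |(gau (kp n) (e n x) (F n x)).G k + D n x k - (gau (kp n) (e n x) (F n x)).G k| ≤ _
    rw [add_sub_cancel_left]
    exact ((n1' x hx).1 k).trans n2
  · filter_upwards [hsz, hPD, h.small (136 * 64 * (4312 * K1 ^ 2)) (-(47 * C1)) M (by positivity)]
      with n n1' n2 n3 i hi j hj k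
    obtain ⟨b1, b2, b3, b4, -⟩ := n1' j hj (y n) rfl
    have e1 := coW_corr_le (f := gau (kp n) (e n i) (F n i)) (f' := gau (kp n) (e n j) (F n j))
      (h.kp1 n) (H := 2 * y n) (by linarith) b4 (n2 i hi).1 (n2 j hj).1 k
    refine e1.trans (le_trans ?_ n3)
    have y0 := yp n
    have e47 := ypow n 47
    have e41 := ypow n 41
    push_cast at e47 e41
    calc 136 * ((2 * y n) ^ 6 * W n)
        ≤ 136 * ((2 * y n) ^ 6 * (sg n * (4312 * K1 ^ 2 * B.d n ^ (-(41 * C1))))) := by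
          have := Wle n
          gcongr
      _ = sg n * (136 * 64 * (4312 * K1 ^ 2) * y n ^ 47) := by rw [← e41]; ring
      _ = _ := by rw [e47]

/-- **gauged flags of a marked sequence** (literal of helper464) -/
theorem wdata_gau (h : WData B I kp sg hz zs L F) (e : ℕ → ℕ × ℝ → Fin 14 → ℝ) {C : ℝ}
    (he : ∀ᶠ n in (U : Filter ℕ), ∀ x ∈ I n, (e n x 9 = 0 ∧ e n x 12 = 0 ∧ e n x 13 = 0) ∧
      ∀ k, |e n x k| ≤ B.d n ^ (-C)) :
    ∃ F2 : ℕ → ℕ × ℝ → FW, WData B I kp sg hz zs L F2 ∧ (∀ n x, (F2 n x).g = (F n x).g) ∧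
      ∀ M : ℝ, ∀ᶠ n in (U : Filter ℕ), ∀ i ∈ I n, ∀ j ∈ I n, ∀ k,
        |coW (kp n) (F2 n i) (F2 n j) k -
          coW (kp n) (gau (kp n) (e n i) (F n i)) (gau (kp n) (e n j) (F n j)) k| ≤
            B.d n ^ M := by
  obtain ⟨F2, h1, h2, -, h3⟩ := wdata_gau' h e he
  exact ⟨F2, h1, h2, h3⟩

end seq

end Crest.Agent.R136.GgA893
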