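import Crest.Agent.R136.GDW7_778
import Crest.Agent.R136.GmD_778
import Crest.Agent.R136.GgA_893

/-!
# R136, [GEO-D] for the W-chart, ALL GAUGES (helper778)

* `unW_bd` : the graded units are between two powers of the first base;
* `SeqFix` : gauged flags can be corrected such that the true lines lie on their sheets (893);
* **`gmax_W`** : the count of `gD_W` for all gauged charts, uniformly in the gauge.
-/

set_option autoImplicit false
set_option linter.unusedVariables false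
set_option maxHeartbeats 400000

open Finset Filter Topology

namespace Crest.Agent.R136.GeoN778

open Crest.Agent.R138
open Crest.Agent.R138.Ex926 (Base U)
open Crest.Agent.R138.Dp76 (dpow_pos dpow_add dpow_le dpow_le_one)
open Crest.Agent.R138.Mk163 (zc zl rho alive)
open Crest.Agent.R136.MkA627
open Crest.Agent.R136.Net191
open Crest.Agent.R136.NetW191
open Crest.Agent.R136.Sh605
open Crest.Agent.R136.Wq638 (capQ N0Q)
open Crest.Agent.R136.PrW464 (WData unW unW_pos couW wz wc wn)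
open Crest.Agent.R136.GauW619 (gau)

/-! ### the units -/

/-- the graded units are between two powers -/
theorem unW_bd {uz uc un Y : ℝ} (hY : 1 ≤ Y) (z0 : 0 < uz) (c0 : 0 < uc) (n0 : 0 < un)
    (z1 : uz ≤ Y) (c1 : uc ≤ Y) (n1 : un ≤ Y) (z2 : 1 ≤ Y * uz) (c2 : 1 ≤ Y * uc)
    (n2 : 1 ≤ Y * un) (k : Fin 18) : unW uz uc un k ≤ Y ^ 9 ∧ 1 ≤ Y ^ 9 * unW uz uc un k := by
  have hY0 : 0 < Y := by linarith
  have hlog : ∀ x : ℝ, 0 < x → x ≤ Y → 1 ≤ Y * x → |Real.log x| ≤ Real.log Y := by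
    intro x hx h1 h2
    rw [abs_le]
    constructor
    · have := Real.log_nonneg h2
      rw [Real.log_mul hY0.ne' hx.ne'] at this
      linarith
    · exact Real.log_le_log hx h1
  have hz := hlog uz z0 z1 z2
  have hc := hlog uc c0 c1 c2
  have hn := hlog un n0 n1 n2
  have hu := unW_pos z0 c0 n0 k
  have e : Real.log (unW uz uc un k) = (wz k : ℝ) * Real.log uz + (wc k : ℝ) * Real.log uc +
      (wn k : ℝ) * Real.log un := by
    unfold unW
    rw [Real.log_mul (mul_pos (zpow_pos z0 _) (zpow_pos c0 _)).ne' (zpow_pos n0 _).ne',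
      Real.log_mul (zpow_pos z0 _).ne' (zpow_pos c0 _).ne', Real.log_zpow, Real.log_zpow,
      Real.log_zpow]
  have h1 : ∀ k, |wz k| ≤ 4 := by decide
  have h2 : ∀ k, |wc k| ≤ 4 := by decide
  have h3 : ∀ k, |wn k| ≤ 1 := by decide
  have a1 : |(wz k : ℝ)| ≤ 4 := by exact_mod_cast h1 k
  have a2 : |(wc k : ℝ)| ≤ 4 := by exact_mod_cast h2 k
  have a3 : |(wn k : ℝ)| ≤ 1 := by exact_mod_cast h3 k
  have b1 : |(wz k : ℝ) * Real.log uz| ≤ 4 * Real.log Y := by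
    rw [abs_mul]; exact mul_le_mul a1 hz (abs_nonneg _) (by norm_num)
  have b2 : |(wc k : ℝ) * Real.log uc| ≤ 4 * Real.log Y := by
    rw [abs_mul]; exact mul_le_mul a2 hc (abs_nonneg _) (by norm_num)
  have b3 : |(wn k : ℝ) * Real.log un| ≤ 1 * Real.log Y := by
    rw [abs_mul]; exact mul_le_mul a3 hn (abs_nonneg _) (by norm_num)
  have b1' := abs_le.1 b1
  have b2' := abs_le.1 b2
  have b3' := abs_le.1 b3
  have e9 : Real.log (Y ^ 9) = 9 * Real.log Y := by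
    rw [Real.log_pow]; norm_num
  constructor
  · rw [← Real.log_le_log_iff hu (by positivity), e, e9]
    linarith [b1'.2, b2'.2, b3'.2]
  · have h4 : 0 ≤ Real.log (Y ^ 9 * unW uz uc un k) := by
      rw [Real.log_mul (by positivity) hu.ne', e, e9]
      linarith [b1'.1, b2'.1, b3'.1]
    by_contra hcon
    push Not at hcon
    have := Real.log_neg (by positivity) hcon
    linarith

/-! ### correction of gauged flags -/

/-- **gauged flags, corrected** : flags `F2` over the same frames, the true lines are on the sheets,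
superpolynomially close to the gauged flags (helper893) -/
def SeqFix (B0 : Base) (I : ℕ → Finset (ℕ × ℝ)) (kp sg hz zs : ℕ → ℝ) (L : ℕ → ℕ → Ln4)
    (F : ℕ → ℕ × ℝ → FW) : Prop :=
  ∀ e : ℕ → ℕ × ℝ → Fin 14 → ℝ,
    (∃ C : ℝ, ∀ᶠ n in (U : Filter ℕ), ∀ j ∈ I n,
      (e n j 9 = 0 ∧ e n j 12 = 0 ∧ e n j 13 = 0) ∧ ∀ k, |e n j k| ≤ B0.d n ^ (-C)) →
    ∃ F2 : ℕ → ℕ × ℝ → FW, WData B0 I kp sg hz zs L F2 ∧
      (∀ n x, (F2 n x).g = (F n x).g) ∧
      ∀ M : ℝ, ∀ᶠ n in (U : Filter ℕ), ∀ i ∈ I n, ∀ j ∈ I n, ∀ k,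
        |coW (kp n) (F2 n i) (F2 n j) k -
          coW (kp n) (gau (kp n) (e n i) (F n i)) (gau (kp n) (e n j) (F n j)) k| ≤ B0.d n ^ M

/-- the correction exists (helper893 `wdata_gau`) -/
theorem seqFix_of {B0 : Base} {I : ℕ → Finset (ℕ × ℝ)} {kp sg hz zs : ℕ → ℝ} {L : ℕ → ℕ → Ln4}
    {F : ℕ → ℕ × ℝ → FW} (wd : WData B0 I kp sg hz zs L F) : SeqFix B0 I kp sg hz zs L F := by
  rintro e ⟨C, he⟩
  exact GgA893.wdata_gau wd e he

/-- the level data only depend on the frames -/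
theorem WLev.congr {B0 B : Base} {I : ℕ → Finset (ℕ × ℝ)} {lev : ℕ → ℚ → ℕ}
    {w : Fin 3 → ℕ → ℚ → ℝ} {kp sg hz : ℕ → ℝ} {F F2 : ℕ → ℕ × ℝ → FW} {u : ℕ → Un}
    {uz uc un : ℕ → ℝ} {w0 : ℝ} (h : WLev B0 B I lev w kp sg hz F u uz uc un w0)
    (hg : ∀ n x, (F2 n x).g = (F n x).g) : WLev B0 B I lev w kp sg hz F2 u uz uc un w0 :=
  { h with
    slc := fun ε hε => by
      filter_upwards [h.slc ε hε] with n hn x hx
      rw [hg]; exact hn x hx
    slA := fun ε hε => by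
      filter_upwards [h.slA ε hε] with n hn x hx
      rw [hg]; exact hn x hx }

/-- the units between two powers of the first base -/
theorem WLev.unit {B0 B : Base} {I : ℕ → Finset (ℕ × ℝ)} {lev : ℕ → ℚ → ℕ}
    {w : Fin 3 → ℕ → ℚ → ℝ} {kp sg hz : ℕ → ℝ} {F : ℕ → ℕ × ℝ → FW} {u : ℕ → Un}
    {uz uc un : ℕ → ℝ} {w0 : ℝ} (h : WLev B0 B I lev w kp sg hz F u uz uc un w0) :
    ∃ C : ℝ, 0 ≤ C ∧ ∀ᶠ n in (U : Filter ℕ), ∀ k,
      unW (uz n) (uc n) (un n) k ≤ B0.d n ^ (-C) ∧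
      1 ≤ B0.d n ^ (-C) * unW (uz n) (uc n) (un n) k := by
  obtain ⟨C1, h1⟩ := h.low
  obtain ⟨C2, h2⟩ := h.top
  have a1 := abs_nonneg C1
  have a2 := abs_nonneg C2
  have a3 := abs_nonneg w0
  have l1 := le_abs_self C1
  have l2 := le_abs_self C2
  have l3 := le_abs_self w0
  set D : ℝ := |C1| + |C2| + |w0| with hD
  have hD0 : 0 ≤ D := by positivity
  refine ⟨9 * D, by positivity, ?_⟩
  filter_upwards [h1, h2, h.zc] with n g1 g2 g3 k
  have hp := fun a => dpow_pos B0 n a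
  have hY : 1 ≤ B0.d n ^ (-D) :=
    Real.one_le_rpow_of_pos_of_le_one_of_nonpos (B0.pos n) (B0.lt n).le (by linarith)
  have hup : ∀ x : ℝ, x ≤ B0.d n ^ (-C1) → x ≤ B0.d n ^ (-D) := fun x hx =>
    hx.trans (dpow_le B0 n (by linarith))
  have hinv : B0.d n ^ (-D) * B0.d n ^ D = 1 := by
    rw [← dpow_add, neg_add_cancel, Real.rpow_zero]
  have hlo : ∀ x : ℝ, B0.d n ^ D ≤ x → 1 ≤ B0.d n ^ (-D) * x := fun x hx => by
    rw [← hinv]
    exact mul_le_mul_of_nonneg_left hx (hp _).le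
  have hz : B0.d n ^ D ≤ uz n := by
    refine le_trans ?_ g3
    rcases le_total 0 w0 with h0 | h0
    · refine le_trans (dpow_le B0 n (by linarith : w0 ≤ D)) ?_
      exact Real.rpow_le_rpow (B0.pos n).le (h.base n) h0
    · have : (1 : ℝ) ≤ B.d n ^ w0 :=
        Real.one_le_rpow_of_pos_of_le_one_of_nonpos (B.pos n) (B.lt n).le h0
      exact (dpow_le_one B0 n hD0).trans this
  have hc : B0.d n ^ D ≤ uc n := by
    have i1 : B0.d n ^ C2 ≤ B0.d n ^ (-C1) * uc n :=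
      g2.1.trans (mul_le_mul_of_nonneg_right g1.1 (h.c0 n).le)
    have i2 := mul_le_mul_of_nonneg_left i1 (hp C1).le
    rw [← mul_assoc, ← dpow_add, ← dpow_add, add_neg_cancel, Real.rpow_zero, one_mul] at i2
    exact (dpow_le B0 n (by linarith)).trans i2
  have hn : B0.d n ^ D ≤ un n := (dpow_le B0 n (by linarith)).trans g2.2
  have key := unW_bd hY (h.z0 n) (h.c0 n) (h.n0 n) (hup _ g1.1) (hup _ g1.2.1) (hup _ g1.2.2)
    (hlo _ hz) (hlo _ hc) (hlo _ hn) k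
  have e9 : (B0.d n ^ (-D)) ^ 9 = B0.d n ^ (-(9 * D)) := by
    rw [← Real.rpow_natCast, ← Real.rpow_mul (B0.pos n).le]
    congr 1; push_cast; ring
  rwa [e9] at key

section seq

variable {σ : Type*} {B0 B : Base} {I : ℕ → Finset (ℕ × ℝ)} {G : Geo σ (Fin 3)} {lev : ℕ → ℚ → ℕ}
    {A : ℕ → ℝ} {g s : ℝ} {τ : Fin 3 → ℝ → ℝ} {f : ℕ → ℚ → ℕ → ℤ → ℕ}
    {b : ℕ → ℚ → ℕ → σ} {vm : ℕ → ℚ → ℝ} {w w' : Fin 3 → ℕ → ℚ → ℝ}
    {kp sg hz zs : ℕ → ℝ} {L0 L : ℕ → ℕ → Ln4} {F : ℕ → ℕ × ℝ → FW}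
    {fr : ℕ → Fin 3 → V3} {c : ℕ → Ln4} {u : ℕ → Un}
    {uz uc un : ℕ → ℝ} {w0 R : ℝ} {r0 : ℕ → ℝ} {wr cr : Fin 3 → ℕ → ℝ} {q : Fin 3 → ℝ}

open Classical in
/-- **[GEO-D] for all gauges** -/
theorem gmax_W (hM : MkA B I G lev A (fun v => g * v) (fun v => s * v) τ f b vm w)
    (hG : SheetGeo G L0 r0 wr cr q) (hq : ∀ j, 0 ≤ q j)
    (hS : SeqFix B0 I kp sg hz zs L F)
    (hC : ∀ F2 : ℕ → ℕ × ℝ → FW, WData B0 I kp sg hz zs L F2 →
      ∃ Q, WCon B0 I kp sg hz zs F2 L0 L fr c u Q)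
    (hL : WLev B0 B I lev w' kp sg hz F u uz uc un w0)
    (hw : ∀ k, ∀ᶠ n in (U : Filter ℕ), 0 < w' k n 0)
    (hwr : ∀ (C : ℝ) (k : Fin 3), ∀ᶠ n in (U : Filter ℕ),
      wr k n ≤ B.d n ^ C * w' k n 0 ∧ w' k n 0 ≤ B.d n ^ C * cr k n)
    (hvm : ∀ᶠ n in (U : Filter ℕ), vm n 0 = capQ q (rho (lev n 0)) fun k => w' k n 0) :
    ∀ p ∈ PDW B r0 lev w' w0 R,
      GmAt B I kp uz uc un F (N0Q A vm) (PrW464.DW g s q w0) p := by
  intro p hp C K hK ε hε
  obtain ⟨D, hD0, hunit⟩ := hL.unit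
  -- the worst gauge
  let Gd : ℕ → (ℕ × ℝ → Fin 14 → ℝ) → Prop := fun n e =>
    ∀ j ∈ I n, (e j 9 = 0 ∧ e j 12 = 0 ∧ e j 13 = 0) ∧
      ∀ k, unW (uz n) (uc n) (un n) (Fin.natAdd 4 k) * |e j k| ≤ B.d n ^ (-C)
  let Ok : ℕ → (ℕ × ℝ → Fin 14 → ℝ) → Prop := fun n e =>
    ∀ i ∈ I n, ∀ S ⊆ I n, (∀ j ∈ S, ∀ k, |unW (uz n) (uc n) (un n) k *
      coW (kp n) (gau (kp n) (e i) (F n i)) (gau (kp n) (e j) (F n j)) k| ≤ K * B.d n ^ p k) →
      (S.card : ℝ) ≤ N0Q A vm n * B.d n ^ (-(PrW464.DW g s q w0 p + ε))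
  have hz0 : ∀ n, Gd n (fun _ _ => 0) := fun n j _ => ⟨⟨rfl, rfl, rfl⟩, fun k => by
    rw [abs_zero, mul_zero]; exact (dpow_pos B n _).le⟩
  have hex : ∀ n, ∃ e, Gd n e ∧ ((∃ e', Gd n e' ∧ ¬ Ok n e') → ¬ Ok n e) := by
    intro n
    by_cases h : ∃ e', Gd n e' ∧ ¬ Ok n e'
    · obtain ⟨e', h1, h2⟩ := h
      exact ⟨e', h1, fun _ => h2⟩
    · exact ⟨fun _ _ => 0, hz0 n, fun h' => absurd h' h⟩
  choose e he1 he2 using hex
  -- its corrected flags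
  have hbd : ∃ C' : ℝ, ∀ᶠ n in (U : Filter ℕ), ∀ j ∈ I n,
      (e n j 9 = 0 ∧ e n j 12 = 0 ∧ e n j 13 = 0) ∧ ∀ k, |e n j k| ≤ B0.d n ^ (-C') := by
    refine ⟨|C| + D, ?_⟩
    filter_upwards [hunit] with n h1 j hj
    obtain ⟨h2, h3⟩ := he1 n j hj
    refine ⟨h2, fun k => ?_⟩
    have h4 := (h1 (Fin.natAdd 4 k)).2
    have h5 := h3 k
    have hB : B.d n ^ (-C) ≤ B0.d n ^ (-|C|) := by
      refine (dpow_le B n (neg_le_neg (le_abs_self C))).trans ?_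
      exact Real.rpow_le_rpow_of_nonpos (B0.pos n) (hL.base n) (by
        have := abs_nonneg C; linarith)
    calc |e n j k| = 1 * |e n j k| := (one_mul _).symm
      _ ≤ (B0.d n ^ (-D) * unW (uz n) (uc n) (un n) (Fin.natAdd 4 k)) * |e n j k| :=
          mul_le_mul_of_nonneg_right h4 (abs_nonneg _)
      _ = B0.d n ^ (-D) * (unW (uz n) (uc n) (un n) (Fin.natAdd 4 k) * |e n j k|) := by ring
      _ ≤ B0.d n ^ (-D) * B0.d n ^ (-|C|) :=
          mul_le_mul_of_nonneg_left (h5.trans hB) (dpow_pos B0 n _).le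
      _ = B0.d n ^ (-(|C| + D)) := by rw [← dpow_add]; congr 1; ring
  obtain ⟨F2, wd2, hg2, hcl⟩ := hS e hbd
  obtain ⟨Q, hQ⟩ := hC F2 wd2
  have hcnt := gD_W hM hG hq wd2 hQ (hL.congr hg2) hw hwr hvm p hp (K + 1) (by linarith) ε hε
  obtain ⟨P, hP0, hP⟩ : ∃ P : ℝ, 0 ≤ P ∧ ∀ k, p k ≤ P := by
    refine ⟨∑ k, |p k|, Finset.sum_nonneg fun k _ => abs_nonneg _, fun k => ?_⟩
    exact (le_abs_self _).trans
      (Finset.single_le_sum (f := fun k => |p k|) (fun k _ => abs_nonneg _) (Finset.mem_univ k))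
  filter_upwards [hcnt, hcl (D + P), hunit] with n h1 h2 h3
  by_contra hcon
  push Not at hcon
  obtain ⟨e', hg', i', hi', S', hS', hb', hlt⟩ := hcon
  have hbad : ¬ Ok n (e n) :=
    he2 n ⟨e', hg', fun hok => absurd (hok i' hi' S' hS' hb') (not_le.2 hlt)⟩
  refine hbad fun i hi S hS hb => ?_
  refine le_trans ?_ (h1 i hi)
  norm_cast
  refine card_le_card fun j hj => ?_
  have hj1 := hS hj
  have hj2 := hb j hj
  refine mem_filter.2 ⟨hj1, fun k => ?_⟩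
  unfold couW
  have hu := unW_pos (hL.z0 n) (hL.c0 n) (hL.n0 n) k
  have g1 := h2 i hi j hj1 k
  have g2 := hj2 k
  have e1 : unW (uz n) (uc n) (un n) k * coW (kp n) (F2 n i) (F2 n j) k =
      unW (uz n) (uc n) (un n) k * coW (kp n) (gau (kp n) (e n i) (F n i))
        (gau (kp n) (e n j) (F n j)) k +
      unW (uz n) (uc n) (un n) k * (coW (kp n) (F2 n i) (F2 n j) k -
        coW (kp n) (gau (kp n) (e n i) (F n i)) (gau (kp n) (e n j) (F n j)) k) := by ring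
  rw [e1]
  refine (abs_add_le _ _).trans ?_
  rw [abs_mul (unW (uz n) (uc n) (un n) k) (_ - _), abs_of_pos hu]
  have hB : B0.d n ^ P ≤ B.d n ^ p k := by
    refine le_trans (Real.rpow_le_rpow (B0.pos n).le (hL.base n) hP0) ?_
    exact dpow_le B n (hP k)
  have h4 : unW (uz n) (uc n) (un n) k * |coW (kp n) (F2 n i) (F2 n j) k -
      coW (kp n) (gau (kp n) (e n i) (F n i)) (gau (kp n) (e n j) (F n j)) k| ≤ B.d n ^ p k := by
    calc _ ≤ B0.d n ^ (-D) * B0.d n ^ (D + P) :=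
          mul_le_mul (h3 k).1 g1 (abs_nonneg _) (dpow_pos B0 n _).le
      _ = B0.d n ^ P := by rw [← dpow_add]; congr 1; ring
      _ ≤ _ := hB
  linarith

end seq

end Crest.Agent.R136.GeoN778
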