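import Crest.Agent.R136.GR1_650
import Crest.Agent.R136.Geo3_186

/-!
# R136, L15, record closeness (helper650), part 2: the straight chart

`rS` : the record path of the straight chart (186's `coQ` in anisotropic units `scl`), widths with
linear exponents `θ j (1 - v)`, any units.  `gR_straight` : field `gR` of `Lq196.PreQ`.
-/

set_option autoImplicit false
set_option linter.unusedVariables false

open Finset Filter Topology

namespace Crest.Agent.R136.GR650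

open Crest.Agent.R138.Ex926 (Base U)
open Crest.Agent.R138.Mk163 (zc zl rho alive)
open Crest.Agent.R138.MkRef627 (lc kc)
open Crest.Agent.R138.Dp76 (dpow_pos dpow_add dpow_le dpow_le_one)
open Crest.Agent.R138.ArgM163 (ev_const log_dpow)
open Crest.Agent.R136.Net191
open Crest.Agent.R136.NetQ186
open Crest.Agent.R136.GeoQ186
open Crest.Agent.R136.Sh605

/-! ### exponents -/

/-- two-sided estimate from a limit of logarithms -/
theorem of_lim {B : Base} {X : ℕ → ℝ} {T : ℝ} (hX : ∀ᶠ n in (U : Filter ℕ), 0 < X n)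
    (h : Tendsto (fun n => Real.log (X n) / B.L n) U (𝓝 T)) {t : ℝ} (ht : 0 < t) :
    ∀ᶠ n in (U : Filter ℕ), B.d n ^ (-T + t) ≤ X n ∧ X n ≤ B.d n ^ (-T - t) := by
  have h1 := h.eventually_const_lt (show T - t < T by linarith)
  have h2 := h.eventually_lt_const (show T < T + t by linarith)
  filter_upwards [hX, h1, h2] with n h0 a b
  have hL := B.L_pos n
  rw [lt_div_iff₀ hL] at a
  rw [div_lt_iff₀ hL] at b
  constructor
  · rw [← Real.log_le_log_iff (dpow_pos B n _) h0, log_dpow]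
    nlinarith
  · rw [← Real.log_le_log_iff h0 (dpow_pos B n _), log_dpow]
    nlinarith

theorem rho_pos (i : ℕ) : 0 < rho i := by unfold rho; positivity

/-- ratio of two cell lengths -/
theorem ev_rho {B : Base} {lev : ℕ → ℚ → ℕ} {u v : ℚ}
    (h : Tendsto (fun n => ((lev n v : ℝ) - lev n u) * Real.log 2 / B.L n) U (𝓝 ((v : ℝ) - u)))
    {t : ℝ} (ht : 0 < t) : ∀ᶠ n in (U : Filter ℕ),
      B.d n ^ ((v : ℝ) - u + t) ≤ rho (lev n v) / rho (lev n u) ∧
      rho (lev n v) / rho (lev n u) ≤ B.d n ^ ((v : ℝ) - u - t) := by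
  have h1 : Tendsto (fun n => Real.log (rho (lev n v) / rho (lev n u)) / B.L n) U
      (𝓝 (-((v : ℝ) - u))) := by
    refine h.neg.congr fun n => ?_
    rw [Real.log_div (rho_pos _).ne' (rho_pos _).ne']
    have e : ∀ i : ℕ, Real.log (rho i) = -(i * Real.log 2) := fun i => by
      unfold rho
      rw [one_div, Real.log_inv, Real.log_pow]
    rw [e, e]
    ring
  have h2 := of_lim (Eventually.of_forall fun n => div_pos (rho_pos _) (rho_pos _)) h1 ht
  filter_upwards [h2] with n hn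
  rw [neg_neg] at hn
  exact hn

/-- ratio of two angular widths -/
theorem ev_ang {B : Base} {lev : ℕ → ℚ → ℕ} {w : ℕ → ℚ → ℝ} {v : ℚ} {T : ℝ}
    (hv : ∀ᶠ n in (U : Filter ℕ), 0 < w n v) (h1 : ∀ᶠ n in (U : Filter ℕ), 0 < w n 1)
    (h : Tendsto (fun n => Real.log ((rho (lev n v) / w n v) / (rho (lev n 1) / w n 1)) / B.L n) U
      (𝓝 T)) {t : ℝ} (ht : 0 < t) : ∀ᶠ n in (U : Filter ℕ),
      B.d n ^ (T + t) ≤ (w n v / rho (lev n v)) / (w n 1 / rho (lev n 1)) ∧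
      (w n v / rho (lev n v)) / (w n 1 / rho (lev n 1)) ≤ B.d n ^ (T - t) := by
  have h2 : Tendsto (fun n => Real.log ((w n v / rho (lev n v)) / (w n 1 / rho (lev n 1))) /
      B.L n) U (𝓝 (-T)) := by
    refine h.neg.congr' ?_
    filter_upwards [hv, h1] with n a b
    have p := rho_pos (lev n v)
    have q := rho_pos (lev n 1)
    have e1 : (w n v / rho (lev n v)) / (w n 1 / rho (lev n 1)) =
        ((rho (lev n v) / w n v) / (rho (lev n 1) / w n 1))⁻¹ := by field_simp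
    rw [e1, Real.log_inv]
    ring
  have h3 := of_lim (by
    filter_upwards [hv, h1] with n a b
    have p := rho_pos (lev n v)
    have q := rho_pos (lev n 1)
    positivity) h2 ht
  filter_upwards [h3] with n hn
  rw [neg_neg] at hn
  exact hn

/-! ### the record path -/

/-- record path of the straight chart.  `θ 0, θ 1, θ 2` = exponents of thickness, wide and narrow
width; `w0` shift of the height, `sa, sb, sy` shifts of the angular units, `R1` exponent of the slot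
`R`. -/
def rS (θ : Fin 3 → ℝ) (w0 sa sb sy R1 v : ℝ) : Fin 11 → ℝ :=
  ![w0 + v, R1, (θ 2 - θ 1) * (1 - v) + (sb - sa), (θ 0 - θ 2) * (1 - v) + (sy - sb),
    (θ 0 - θ 1) * (1 - v) + (sy - sa), θ 1 * (1 - v) + sa, θ 2 * (1 - v) + sb,
    θ 0 * (1 - v) + sy, w0 + v + (θ 1 * (1 - v) + sa), w0 + v + (θ 2 * (1 - v) + sb),
    w0 + v + (θ 0 * (1 - v) + sy)]

/-- the units are large enough: all exponents of the record path are positive -/
structure Units (θ : Fin 3 → ℝ) (w0 sa sb sy R1 : ℝ) : Prop where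
  w0p : 0 < w0
  a0 : 0 < sa
  a1 : 0 < θ 1 + sa
  e0 : 0 < sb - sa
  e1 : 0 < (θ 2 - θ 1) + (sb - sa)
  f0 : 0 < sy - sb
  f1 : 0 < (θ 0 - θ 2) + (sy - sb)
  r1 : sy + |θ 0| ≤ R1

namespace Units

variable {θ : Fin 3 → ℝ} {w0 sa sb sy R1 : ℝ}

/-- a positive lower bound of an affine function on `[0,1]` -/
theorem aff_ge {a b v : ℝ} (h0 : 0 ≤ v) (h1 : v ≤ 1) : min b (a + b) ≤ a * (1 - v) + b := by
  rcases le_total 0 a with h | h
  · exact (min_le_left _ _).trans (by nlinarith)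
  · exact (min_le_right _ _).trans (by nlinarith)

/-- all exponents are bounded below -/
theorem pos (h : Units θ w0 sa sb sy R1) : ∃ δ : ℝ, 0 < δ ∧ ∀ v : ℝ, 0 ≤ v → v ≤ 1 →
    ∀ k, δ ≤ rS θ w0 sa sb sy R1 v k := by
  obtain ⟨w0p, a0, a1, e0, e1, f0, f1, r1⟩ := h
  set δ := min w0 (min (min sa (θ 1 + sa)) (min (min (sb - sa) ((θ 2 - θ 1) + (sb - sa)))
    (min (sy - sb) ((θ 0 - θ 2) + (sy - sb))))) with hδ
  have d0 : 0 < δ := lt_min w0p (lt_min (lt_min a0 a1) (lt_min (lt_min e0 e1) (lt_min f0 f1)))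
  have m0 : δ ≤ w0 := min_le_left _ _
  have m1 : δ ≤ min sa (θ 1 + sa) := (min_le_right _ _).trans (min_le_left _ _)
  have m2 : δ ≤ min (sb - sa) ((θ 2 - θ 1) + (sb - sa)) :=
    (min_le_right _ _).trans ((min_le_right _ _).trans (min_le_left _ _))
  have m3 : δ ≤ min (sy - sb) ((θ 0 - θ 2) + (sy - sb)) :=
    (min_le_right _ _).trans ((min_le_right _ _).trans (min_le_right _ _))
  refine ⟨δ, d0, fun v v0 v1 => ?_⟩
  have ca : δ ≤ θ 1 * (1 - v) + sa := m1.trans (aff_ge v0 v1)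
  have ce : δ ≤ (θ 2 - θ 1) * (1 - v) + (sb - sa) := m2.trans (aff_ge v0 v1)
  have cf : δ ≤ (θ 0 - θ 2) * (1 - v) + (sy - sb) := m3.trans (aff_ge v0 v1)
  have cb : 2 * δ ≤ θ 2 * (1 - v) + sb := by nlinarith
  have cy : 3 * δ ≤ θ 0 * (1 - v) + sy := by nlinarith
  have cr : δ ≤ R1 := by
    have : θ 0 * (1 - v) ≤ |θ 0| := by
      have h1 := le_abs_self (θ 0)
      have h2 := abs_nonneg (θ 0)
      nlinarith
    linarith
  intro k
  fin_cases k
  · show δ ≤ w0 + v; linarith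
  · exact cr
  · exact ce
  · exact cf
  · show δ ≤ (θ 0 - θ 1) * (1 - v) + (sy - sa); nlinarith
  · exact ca
  · show δ ≤ θ 2 * (1 - v) + sb; linarith
  · show δ ≤ θ 0 * (1 - v) + sy; linarith
  · show δ ≤ w0 + v + (θ 1 * (1 - v) + sa); linarith
  · show δ ≤ w0 + v + (θ 2 * (1 - v) + sb); linarith
  · show δ ≤ w0 + v + (θ 0 * (1 - v) + sy); linarith

/-- **the record path is legal** -/
theorem legal (h : Units θ w0 sa sb sy R1) {v : ℝ} (v0 : 0 ≤ v) (v1 : v ≤ 1) :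
    Legal monQ (rS θ w0 sa sb sy R1 v) := by
  obtain ⟨δ, hδ, hp⟩ := h.pos
  have hw := h.w0p
  have r1 := h.r1
  have hθ : θ 0 * (1 - v) ≤ |θ 0| := by
    have h1 := le_abs_self (θ 0)
    have h2 := abs_nonneg (θ 0)
    nlinarith
  rw [legalQ_iff]
  refine ⟨fun k => hδ.le.trans (hp v v0 v1 k), ?_, ?_, ?_, ?_, ?_, ?_, ?_, ?_, ?_, ?_, ?_⟩ <;>
    simp only [rS, Matrix.cons_val] <;> nlinarith

/-- upper bound of the exponents -/
theorem le_max (h : Units θ w0 sa sb sy R1) {v : ℝ} (v0 : 0 ≤ v) (v1 : v ≤ 1) (k : Fin 11) :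
    rS θ w0 sa sb sy R1 v k ≤ R1 + w0 + 1 := by
  obtain ⟨δ, hδ, hp⟩ := h.pos
  have hw := h.w0p
  have r1 := h.r1
  have q2 := hp v v0 v1 2
  have q3 := hp v v0 v1 3
  have q5 := hp v v0 v1 5
  simp only [rS, Matrix.cons_val] at q2 q3 q5
  have hθ : θ 0 * (1 - v) ≤ |θ 0| := by
    have h1 := le_abs_self (θ 0)
    have h2 := abs_nonneg (θ 0)
    nlinarith
  have c7 : θ 0 * (1 - v) + sy ≤ R1 := by linarith
  have c6 : θ 2 * (1 - v) + sb ≤ R1 := by nlinarith
  have c5 : θ 1 * (1 - v) + sa ≤ R1 := by nlinarith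
  have cR : 0 ≤ R1 := by nlinarith
  fin_cases k
  · show w0 + v ≤ _; linarith
  · show R1 ≤ _; linarith
  · show (θ 2 - θ 1) * (1 - v) + (sb - sa) ≤ _; nlinarith
  · show (θ 0 - θ 2) * (1 - v) + (sy - sb) ≤ _; nlinarith
  · show (θ 0 - θ 1) * (1 - v) + (sy - sa) ≤ _; nlinarith
  · show θ 1 * (1 - v) + sa ≤ _; linarith
  · show θ 2 * (1 - v) + sb ≤ _; linarith
  · show θ 0 * (1 - v) + sy ≤ _; linarith
  · show w0 + v + (θ 1 * (1 - v) + sa) ≤ _; linarith
  · show w0 + v + (θ 2 * (1 - v) + sb) ≤ _; linarith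
  · show w0 + v + (θ 0 * (1 - v) + sy) ≤ _; linarith

end Units

/-- the record path is Lipschitz -/
theorem rS_lip (θ : Fin 3 → ℝ) (w0 sa sb sy R1 : ℝ) {u v : ℝ} (huv : u ≤ v) (k : Fin 11) :
    |rS θ w0 sa sb sy R1 v k - rS θ w0 sa sb sy R1 u k| ≤
      (1 + |θ 0| + |θ 1| + |θ 2|) * (v - u) := by
  have h0 : 0 ≤ v - u := by linarith
  have t0 := abs_nonneg (θ 0)
  have t1 := abs_nonneg (θ 1)
  have t2 := abs_nonneg (θ 2)
  have key : ∀ c : ℝ, |c| ≤ 1 + |θ 0| + |θ 1| + |θ 2| →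
      |c * (v - u)| ≤ (1 + |θ 0| + |θ 1| + |θ 2|) * (v - u) := by
    intro c hc
    rw [abs_mul, abs_of_nonneg h0]
    exact mul_le_mul_of_nonneg_right hc h0
  have s1 := abs_add_le 1 (-θ 1)
  have s2 := abs_add_le 1 (-θ 2)
  have s3 := abs_add_le 1 (-θ 0)
  have s4 := abs_sub (θ 1) (θ 2)
  have s5 := abs_sub (θ 2) (θ 0)
  have s6 := abs_sub (θ 1) (θ 0)
  rw [abs_neg, abs_one] at s1 s2 s3
  fin_cases k
  · show |(w0 + v) - (w0 + u)| ≤ _
    rw [show (w0 + v) - (w0 + u) = 1 * (v - u) by ring]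
    exact key 1 (by rw [abs_one]; linarith)
  · show |R1 - R1| ≤ _
    rw [sub_self, abs_zero]; positivity
  · show |((θ 2 - θ 1) * (1 - v) + (sb - sa)) - ((θ 2 - θ 1) * (1 - u) + (sb - sa))| ≤ _
    rw [show ((θ 2 - θ 1) * (1 - v) + (sb - sa)) - ((θ 2 - θ 1) * (1 - u) + (sb - sa)) =
      (θ 1 - θ 2) * (v - u) by ring]
    exact key _ (by linarith)
  · show |((θ 0 - θ 2) * (1 - v) + (sy - sb)) - ((θ 0 - θ 2) * (1 - u) + (sy - sb))| ≤ _
    rw [show ((θ 0 - θ 2) * (1 - v) + (sy - sb)) - ((θ 0 - θ 2) * (1 - u) + (sy - sb)) =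
      (θ 2 - θ 0) * (v - u) by ring]
    exact key _ (by linarith)
  · show |((θ 0 - θ 1) * (1 - v) + (sy - sa)) - ((θ 0 - θ 1) * (1 - u) + (sy - sa))| ≤ _
    rw [show ((θ 0 - θ 1) * (1 - v) + (sy - sa)) - ((θ 0 - θ 1) * (1 - u) + (sy - sa)) =
      (θ 1 - θ 0) * (v - u) by ring]
    exact key _ (by linarith)
  · show |(θ 1 * (1 - v) + sa) - (θ 1 * (1 - u) + sa)| ≤ _
    rw [show (θ 1 * (1 - v) + sa) - (θ 1 * (1 - u) + sa) = (-θ 1) * (v - u) by ring]
    exact key _ (by rw [abs_neg]; linarith)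
  · show |(θ 2 * (1 - v) + sb) - (θ 2 * (1 - u) + sb)| ≤ _
    rw [show (θ 2 * (1 - v) + sb) - (θ 2 * (1 - u) + sb) = (-θ 2) * (v - u) by ring]
    exact key _ (by rw [abs_neg]; linarith)
  · show |(θ 0 * (1 - v) + sy) - (θ 0 * (1 - u) + sy)| ≤ _
    rw [show (θ 0 * (1 - v) + sy) - (θ 0 * (1 - u) + sy) = (-θ 0) * (v - u) by ring]
    exact key _ (by rw [abs_neg]; linarith)
  · show |(w0 + v + (θ 1 * (1 - v) + sa)) - (w0 + u + (θ 1 * (1 - u) + sa))| ≤ _
    rw [show (w0 + v + (θ 1 * (1 - v) + sa)) - (w0 + u + (θ 1 * (1 - u) + sa)) =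
      (1 + -θ 1) * (v - u) by ring]
    exact key _ (by linarith)
  · show |(w0 + v + (θ 2 * (1 - v) + sb)) - (w0 + u + (θ 2 * (1 - u) + sb))| ≤ _
    rw [show (w0 + v + (θ 2 * (1 - v) + sb)) - (w0 + u + (θ 2 * (1 - u) + sb)) =
      (1 + -θ 2) * (v - u) by ring]
    exact key _ (by linarith)
  · show |(w0 + v + (θ 0 * (1 - v) + sy)) - (w0 + u + (θ 0 * (1 - u) + sy))| ≤ _
    rw [show (w0 + v + (θ 0 * (1 - v) + sy)) - (w0 + u + (θ 0 * (1 - u) + sy)) =
      (1 + -θ 0) * (v - u) by ring]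
    exact key _ (by linarith)

end Crest.Agent.R136.GR650
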