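import Crest.Agent.R136.GeoWD_778
import Crest.Agent.R136.ThrH_464

/-!
# R136, GEO-R in the W-chart (helper650), part 1: finite geometry

* `q_dist` : the value of the sheet of `i` along the true line of `j` = null-line value
  `N + P (z - z_j) + R (z - z_j)²` (slots `17, 16, 13`) up to `σ² EW`;
* `npr_of_mark` : a true line inside `|q| ≤ σ a` over a window of length `ρ` has
  `N ≤ 12 a'`, `P ≤ 24 a'/ρ`, `R ≤ 12 a'/ρ²`, `a' = a + σ EW`;
* `rel_of_lat` : relative frames of two true lines which are laterally close over the window;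
* `same` : the pseudo-incidences of one mark seen from its incidences.
-/

set_option autoImplicit false
set_option linter.unusedVariables false

namespace Crest.Agent.R136.GW650

open Crest.Agent.R136.Sh605
open Crest.Agent.R136.NetW191
open Crest.Agent.R136.GeoW778
open Crest.Agent.R136.ThrH464 (quad_win)

/-- **distance between the sheet value along the true line and along the null line** -/
theorem q_dist {κ σ : ℝ} {i j : FW} {t' : Ln4} (ht' : TrueW κ σ j t')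
    (hσ : 0 ≤ σ) {Γ V R X ρ' : ℝ} (hGi : ∀ k, |i.G k| ≤ Γ) (hGj : ∀ k, |j.G k| ≤ Γ)
    (hV : ∀ k, |t'.v k| ≤ V) {z : ℝ} (hz : |z| ≤ R) (hX : ∀ k, |t'.pos z k| ≤ X)
    (hzj : |z - j.g 0| ≤ ρ') (hsm : σ * DW Γ R X V ρ' ≤ 1) :
    |qS κ σ i z (t'.pos z) -
        σ * (coW κ i j 17 + (z - j.g 0) * coW κ i j 16 + (z - j.g 0) ^ 2 * coW κ i j 13)| ≤
      σ * (σ * EW Γ R X V ρ') := by
  have hR0 : 0 ≤ R := (abs_nonneg _).trans hz
  have hX0 : 0 ≤ X := (abs_nonneg _).trans (hX 0)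
  have hV0 : 0 ≤ V := (abs_nonneg _).trans (hV 0)
  have hΓ0 : 0 ≤ Γ := (abs_nonneg _).trans (hGi 0)
  have hρ0 : 0 ≤ ρ' := (abs_nonneg _).trans hzj
  have hh := ht'.ht_eq z
  set x := t'.pos z with hx
  set B0 := j.g 3 - κ * j.g 1 ^ 2 * (z - j.g 0) with hB0
  set Y0 := z * B0 + κ * (j.g 2 + j.g 1 * (z - j.g 0)) ^ 2 with hY0
  have hA : x 1 = j.g 2 + j.g 1 * (z - j.g 0) := ht'.posA z
  have hB : x 2 - B0 = dB κ j t' * (z - j.g 0) := by
    rw [hx, ht'.posB z, hB0]; ring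
  have hY : x 0 - Y0 = ht κ z (x 1) (x 2) (x 0) + z * (x 2 - B0) := by
    simp only [ht, hY0, ← hA]; ring
  have bB : |x 2 - B0| ≤ σ * (Γ * (1 + 3 * V + 6 * V ^ 2) * ρ') := by
    rw [hB]
    refine (m2 (ht'.drift_bound hσ hGj hV) hzj).trans (le_of_eq ?_)
    ring
  have bh : |ht κ z (x 1) (x 2) (x 0)| ≤
      σ * (Γ * (1 + R + 2 * X + R ^ 2 + 3 * (R * X) + 6 * X ^ 2)) := by
    rw [hh, abs_mul, abs_of_nonneg hσ, ← evW_eq]
    exact mul_le_mul_of_nonneg_left (evW_bound hGj hz hX) hσ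
  have bY : |x 0 - Y0| ≤ σ * (Γ * (1 + R + 2 * X + R ^ 2 + 3 * (R * X) + 6 * X ^ 2)) +
      R * (σ * (Γ * (1 + 3 * V + 6 * V ^ 2) * ρ')) := by
    rw [hY]
    exact a2 bh (m2 hz bB)
  have bsum : |x 0 - Y0| + |x 2 - B0| ≤ σ * DW Γ R X V ρ' := by
    refine (add_le_add bY bB).trans (le_of_eq ?_)
    simp only [DW]; ring
  have n0 := abs_nonneg (x 0 - Y0)
  have n2 := abs_nonneg (x 2 - B0)
  have hx0 : ∀ k, |(![Y0, x 1, B0] : V3) k| ≤ X + 1 := by
    intro k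
    fin_cases k
    · show |Y0| ≤ X + 1
      have := abs_sub (x 0) (x 0 - Y0)
      rw [sub_sub_cancel] at this
      linarith [hX 0]
    · show |x 1| ≤ X + 1
      linarith [hX 1]
    · show |B0| ≤ X + 1
      have := abs_sub (x 2) (x 2 - B0)
      rw [sub_sub_cancel] at this
      linarith [hX 2]
  have hGd : ∀ k, |(j.G - i.G) k| ≤ 2 * Γ := by
    intro k
    rw [Pi.sub_apply]
    linarith [s2 (hGj k) (hGi k)]
  have hl := evY_lip (x := x) (x' := ![Y0, x 1, B0]) hGd hz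
    (fun k => (hX k).trans (by linarith)) hx0
  simp only [Matrix.cons_val, sub_self, abs_zero, add_zero] at hl
  have hn := q_null κ i j z
  rw [← hB0, ← hY0, ← hA] at hn
  have e : qS κ σ i z x = σ * (evY (j.G - i.G) z (x 1) B0 Y0 +
      (evY (j.G - i.G) z (x 1) (x 2) (x 0) - evY (j.G - i.G) z (x 1) B0 Y0)) := by
    simp only [qS, hh, evY_sub]
    ring
  have e2 : qS κ σ i z x -
      σ * (coW κ i j 17 + (z - j.g 0) * coW κ i j 16 + (z - j.g 0) ^ 2 * coW κ i j 13) =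
      σ * (evY (j.G - i.G) z (x 1) (x 2) (x 0) - evY (j.G - i.G) z (x 1) B0 Y0) := by
    rw [e, hn]; ring
  rw [e2, abs_mul, abs_of_nonneg hσ]
  refine mul_le_mul_of_nonneg_left (hl.trans ?_) hσ
  have hc : 0 ≤ 2 * Γ * (1 + R + 4 * (X + 1)) := by positivity
  calc 2 * Γ * (1 + R + 4 * (X + 1)) * (|x 0 - Y0| + |x 2 - B0|)
      ≤ 2 * Γ * (1 + R + 4 * (X + 1)) * (σ * DW Γ R X V ρ') :=
        mul_le_mul_of_nonneg_left bsum hc
    _ = σ * EW Γ R X V ρ' := by simp only [EW]; ring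

/-- **slots `N, P, R` of a line inside a sheet** `|q_i| ≤ σ a` over a window `[z0, z0 + ρ]` which
contains the height of the incidence. -/
theorem npr_of_mark {κ σ : ℝ} {i j : FW} {t' : Ln4} (ht' : TrueW κ σ j t')
    (hσ : 0 < σ) {Γ V R X : ℝ} (hGi : ∀ k, |i.G k| ≤ Γ) (hGj : ∀ k, |j.G k| ≤ Γ)
    (hV : ∀ k, |t'.v k| ≤ V) {z0 ρ a : ℝ} (hρ : 0 < ρ)
    (hj0 : z0 ≤ j.g 0) (hj1 : j.g 0 ≤ z0 + ρ)
    (hz : ∀ z, z0 ≤ z → z ≤ z0 + ρ → |z| ≤ R)
    (hX : ∀ z, z0 ≤ z → z ≤ z0 + ρ → ∀ k, |t'.pos z k| ≤ X)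
    (hsm : σ * DW Γ R X V ρ ≤ 1)
    (hq : ∀ z, z0 ≤ z → z ≤ z0 + ρ → |qS κ σ i z (t'.pos z)| ≤ σ * a) :
    |coW κ i j 17| ≤ 12 * (a + σ * EW Γ R X V ρ) ∧
    |coW κ i j 16| ≤ 24 * (a + σ * EW Γ R X V ρ) / ρ ∧
    |coW κ i j 13| ≤ 12 * (a + σ * EW Γ R X V ρ) / ρ ^ 2 := by
  have hw : ∀ z, z0 ≤ z → z ≤ z0 + ρ → |z - j.g 0| ≤ 1 * ρ := by
    intro z h0 h1
    rw [one_mul, abs_le]
    constructor <;> linarith
  have key : ∀ z, z0 ≤ z → z ≤ z0 + ρ →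
      |coW κ i j 17 + coW κ i j 16 * (z - j.g 0) + coW κ i j 13 * (z - j.g 0) ^ 2| ≤
        a + σ * EW Γ R X V ρ := by
    intro z h0 h1
    have h2 := q_dist ht' hσ.le hGi hGj hV (hz z h0 h1) (hX z h0 h1)
      ((hw z h0 h1).trans (one_mul ρ).le) hsm
    have h3 := hq z h0 h1
    set T := coW κ i j 17 + (z - j.g 0) * coW κ i j 16 + (z - j.g 0) ^ 2 * coW κ i j 13 with hT
    have e1 : coW κ i j 17 + coW κ i j 16 * (z - j.g 0) + coW κ i j 13 * (z - j.g 0) ^ 2 = T := by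
      rw [hT]; ring
    rw [e1]
    have h4 : |σ * T| ≤ σ * a + σ * (σ * EW Γ R X V ρ) := by
      have e2 : σ * T = qS κ σ i z (t'.pos z) - (qS κ σ i z (t'.pos z) - σ * T) := by ring
      rw [e2]
      exact s2 h3 h2
    rw [abs_mul, abs_of_pos hσ] at h4
    have h5 : σ * |T| ≤ σ * (a + σ * EW Γ R X V ρ) := by linarith
    exact le_of_mul_le_mul_left h5 hσ
  obtain ⟨b0, b1, b2⟩ := quad_win hρ hw key
  refine ⟨b0.trans (le_of_eq (by ring)), b1.trans (le_of_eq (by ring)), b2⟩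

/-- affine functions on a window -/
theorem slope_win {p v ρ A z0 : ℝ} (hρ : 0 < ρ)
    (h : ∀ z, z0 ≤ z → z ≤ z0 + ρ → |p + z * v| ≤ A) : |v| ≤ 2 * A / ρ := by
  have h0 := h z0 le_rfl (by linarith)
  have h1 := h (z0 + ρ) (by linarith) le_rfl
  have e1 : v * ρ = (p + (z0 + ρ) * v) - (p + z0 * v) := by ring
  have h2 : |v * ρ| ≤ A + A := by
    rw [e1]
    exact (abs_sub _ _).trans (add_le_add h1 h0)
  rw [abs_mul, abs_of_pos hρ] at h2
  rw [le_div_iff₀ hρ]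
  linarith

/-- **relative frame of two true lines which are laterally close over a window**: `e` = slope of
the wide axis in the `(A, B)`-plane, `-2 κ c_i` up to `εe`. -/
theorem rel_of_lat {κ σ : ℝ} {i j : FW} {t t' : Ln4} (ht : TrueW κ σ i t) (ht' : TrueW κ σ j t')
    (hσ : 0 ≤ σ) {Γ V : ℝ} (hGi : ∀ k, |i.G k| ≤ Γ) (hV : ∀ k, |t.v k| ≤ V)
    {z0 ρ Ra Rb e εe : ℝ} (hρ : 0 < ρ)
    (hi0 : z0 ≤ i.g 0) (hi1 : i.g 0 ≤ z0 + ρ) (hj0 : z0 ≤ j.g 0) (hj1 : j.g 0 ≤ z0 + ρ)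
    (hA : ∀ z, z0 ≤ z → z ≤ z0 + ρ → |t'.pos z 1 - t.pos z 1| ≤ Ra)
    (hB : ∀ z, z0 ≤ z → z ≤ z0 + ρ →
      |(t'.pos z 2 - t.pos z 2) - e * (t'.pos z 1 - t.pos z 1)| ≤ Rb)
    (he : |e + 2 * κ * i.g 1| ≤ εe) :
    |coW κ i j 0| ≤ ρ ∧ |coW κ i j 1| ≤ 2 * Ra / ρ ∧ |coW κ i j 2| ≤ Ra ∧
      |coW κ i j 3| ≤ Rb + εe * Ra + σ * (Γ * (1 + 3 * V + 6 * V ^ 2)) * ρ := by
  have hz : |j.g 0 - i.g 0| ≤ ρ := by rw [abs_le]; constructor <;> linarith
  have e0 : coW κ i j 0 = j.g 0 - i.g 0 := by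
    have := coW_left κ i j 0
    simpa [rel] using this
  refine ⟨?_, ?_, ?_, ?_⟩
  · rw [e0]; exact hz
  · refine slope_win (p := coW κ i j 2 - j.g 0 * coW κ i j 1) (z0 := z0) hρ fun z h0 h1 => ?_
    have h2 := hA z h0 h1
    rw [ra_eq ht ht'] at h2
    refine le_trans (le_of_eq ?_) h2
    congr 1; ring
  · have h2 := hA (j.g 0) hj0 hj1
    rw [ra_eq ht ht', sub_self, zero_mul, add_zero] at h2
    exact h2
  · have h2 := rb_eq ht ht' (j.g 0)
    have h3 := hB (j.g 0) hj0 hj1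
    have h4 := hA (j.g 0) hj0 hj1
    set DA := t'.pos (j.g 0) 1 - t.pos (j.g 0) 1 with hDA
    set DB := t'.pos (j.g 0) 2 - t.pos (j.g 0) 2 with hDB
    have h5 : coW κ i j 3 = (DB - e * DA) + (e + 2 * κ * i.g 1) * DA +
        dB κ i t * (j.g 0 - i.g 0) := by
      rw [sub_self] at h2
      linear_combination -h2
    rw [h5]
    exact a2 (a2 h3 (m2 he h4)) (m2 (ht.drift_bound hσ hGi hV) hz)

/-- the pseudo-incidence of a mark with sheet `M`, in the frame of the incidence `i` -/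
def mkS (M : Fin 14 → ℝ) (i : FW) : FW := ⟨i.g, M⟩

theorem rel_self (κ : ℝ) (g : Fin 4 → ℝ) : rel κ g g = 0 := by
  funext k
  fin_cases k <;> simp [rel]

theorem tr_zero (κ : ℝ) (g : Fin 4 → ℝ) : tr κ g 0 = 0 := by
  funext k
  fin_cases k <;> simp [tr]

/-- slots `0..3` between a mark and its incidence vanish -/
theorem coW_mkS_left (κ : ℝ) (M : Fin 14 → ℝ) (i : FW) (k : Fin 4) :
    coW κ (mkS M i) i (Fin.castAdd 14 k) = 0 := by
  have := coW_left κ (mkS M i) i k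
  rw [this]
  show rel κ i.g i.g k = 0
  rw [rel_self]; rfl

/-- flag slots between a mark and its incidence -/
theorem coW_mkS_right (κ : ℝ) (M : Fin 14 → ℝ) (i : FW) (k : Fin 14) :
    coW κ (mkS M i) i (Fin.natAdd 4 k) = tr κ i.g (i.G - M) k := coW_right κ (mkS M i) i k

/-- flag slots between two pseudo-incidences of one mark vanish -/
theorem coW_mkS_mkS_right (κ : ℝ) (M : Fin 14 → ℝ) (i j : FW) (k : Fin 14) :
    coW κ (mkS M i) (mkS M j) (Fin.natAdd 4 k) = 0 := by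
  have := coW_right κ (mkS M i) (mkS M j) k
  rw [this]
  show tr κ j.g (M - M) k = 0
  rw [sub_self, tr_zero]; rfl

/-- the frame slots between two pseudo-incidences are those of the incidences -/
theorem coW_mkS_mkS_left (κ : ℝ) (M : Fin 14 → ℝ) (i j : FW) (k : Fin 4) :
    coW κ (mkS M i) (mkS M j) (Fin.castAdd 14 k) = coW κ i j (Fin.castAdd 14 k) := by
  rw [coW_left, coW_left]; rfl

end Crest.Agent.R136.GW650
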