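import Crest.Agent.R136.GW2_650

/-!
# R136, GEO-R in the W-chart (helper650), part 3: sequences

`MarkW` : the marks of one level `u` in normal (model) coordinates of a container; `gR_W` : field
`gR` of `Lq196.PreQ` for `co = un * coW`, any units.
-/

set_option autoImplicit false
set_option linter.unusedVariables false

open Finset Filter Topology

namespace Crest.Agent.R136.GW650

open Crest.Agent.R138.Ex926 (Base U)
open Crest.Agent.R138.Mk163 (zc zl rho alive)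
open Crest.Agent.R138.MkRef627 (lc kc)
open Crest.Agent.R138.Dp76 (dpow_pos dpow_add dpow_le dpow_le_one)
open Crest.Agent.R138.ArgM163 (ev_const ev_const_mul)
open Crest.Agent.R136.Sh605
open Crest.Agent.R136.Net191
open Crest.Agent.R136.NetW191
open Crest.Agent.R136.GeoW778

/-- **the marks of level `u` in normal coordinates.**  `z0 n J`, `ρ n` : the cell `J` in the normal
height; `Mk n a` : sheet of the class `a` (14 coefficients, unit `σ`); `E n a` : slope of the wide axis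
in the `(A, B)`-plane; `wA, wB` : widths, `a n` : thickness in units `σ`; `pr` : precisions of the flag
slots (entries `9, 12, 13` are not used). -/
structure MarkW (B : Base) (I : ℕ → Finset (ℕ × ℝ)) (lev : ℕ → ℚ → ℕ) (f : ℕ → ℚ → ℕ → ℤ → ℕ)
    (u : ℚ) (κ σ : ℕ → ℝ) (inc : ℕ → ℕ × ℝ → FW) (L : ℕ → ℕ → Ln4) (z0 : ℕ → ℤ → ℝ) (ρ : ℕ → ℝ)
    (Mk : ℕ → ℕ × ℤ → Fin 14 → ℝ) (E : ℕ → ℕ × ℤ → ℝ) (wA wB a : ℕ → ℝ) (pr : ℕ → Fin 14 → ℝ) :
    Prop where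
  /-- true lines and polynomial bounds -/
  bd : ∃ C : ℝ, ∀ᶠ n in (U : Filter ℕ), ∀ x ∈ I n,
    BdW (κ n) (σ n) (B.d n ^ (-C)) (inc n x) (L n x.1) (z0 n (zc (lev n u) x.2)) (ρ n)
  Mbd : ∃ C : ℝ, ∀ᶠ n in (U : Filter ℕ), ∀ x ∈ I n, ∀ k,
    |Mk n (kc (lev n u) (f n u) x) k| ≤ B.d n ^ (-C)
  ρ0 : ∀ᶠ n in (U : Filter ℕ), 0 < ρ n
  ρ1 : ∃ C : ℝ, ∀ᶠ n in (U : Filter ℕ), ρ n ≤ B.d n ^ (-C)
  A0 : ∀ᶠ n in (U : Filter ℕ), 0 < wA n
  low : ∃ C : ℝ, ∀ᶠ n in (U : Filter ℕ), B.d n ^ C ≤ a n ∧ B.d n ^ C ≤ wB n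
  pr0 : ∀ᶠ n in (U : Filter ℕ), ∀ k, 0 ≤ pr n k
  /-- thickness -/
  q : ∀ ε : ℝ, 0 < ε → ∀ᶠ n in (U : Filter ℕ), ∀ x ∈ I n, ∀ z,
    z0 n (zc (lev n u) x.2) ≤ z → z ≤ z0 n (zc (lev n u) x.2) + ρ n →
      |qS (κ n) (σ n) (mkS (Mk n (kc (lev n u) (f n u) x)) (inc n x)) z ((L n x.1).pos z)| ≤
        σ n * (a n * B.d n ^ (-ε))
  /-- own flags against the flags of the mark, in the frame of the incidence -/
  fl : ∀ ε : ℝ, 0 < ε → ∀ᶠ n in (U : Filter ℕ), ∀ x ∈ I n, ∀ k, k ≠ 9 → k ≠ 12 → k ≠ 13 →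
    |tr (κ n) (inc n x).g ((inc n x).G - Mk n (kc (lev n u) (f n u) x)) k| ≤
      pr n k * B.d n ^ (-ε)
  /-- lateral extent -/
  lat : ∀ ε : ℝ, 0 < ε → ∀ᶠ n in (U : Filter ℕ), ∀ x ∈ I n, ∀ y ∈ I n,
    kc (lev n u) (f n u) y = kc (lev n u) (f n u) x → ∀ z,
      z0 n (zc (lev n u) x.2) ≤ z → z ≤ z0 n (zc (lev n u) x.2) + ρ n →
        |(L n y.1).pos z 1 - (L n x.1).pos z 1| ≤ wA n * B.d n ^ (-ε) ∧
        |((L n y.1).pos z 2 - (L n x.1).pos z 2) - E n (kc (lev n u) (f n u) x) *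
            ((L n y.1).pos z 1 - (L n x.1).pos z 1)| ≤ wB n * B.d n ^ (-ε)
  /-- the wide axis is the tangent of the null cone -/
  ax : ∀ ε : ℝ, 0 < ε → ∀ᶠ n in (U : Filter ℕ), ∀ x ∈ I n,
    |E n (kc (lev n u) (f n u) x) + 2 * κ n * (inc n x).g 1| ≤ wB n / wA n * B.d n ^ (-ε)

theorem BdW.mono {κ σ Γ Γ' : ℝ} {i : FW} {t : Ln4} {z0 ρ : ℝ} (h : BdW κ σ Γ i t z0 ρ)
    (hΓ : Γ ≤ Γ') : BdW κ σ Γ' i t z0 ρ where
  true := h.true
  G := fun k => (h.G k).trans hΓ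
  V := fun k => (h.V k).trans hΓ
  X := fun z a b k => (h.X z a b k).trans hΓ
  z := fun z a b => (h.z z a b).trans hΓ
  i0 := h.i0
  i1 := h.i1

/-- **GEO-R of the W-chart** -/
theorem gR_W {B : Base} {I : ℕ → Finset (ℕ × ℝ)} {lev : ℕ → ℚ → ℕ} {f : ℕ → ℚ → ℕ → ℤ → ℕ}
    {u : ℚ} {κ σ : ℕ → ℝ} {inc : ℕ → ℕ × ℝ → FW} {L : ℕ → ℕ → Ln4} {z0 : ℕ → ℤ → ℝ} {ρ : ℕ → ℝ}
    {Mk : ℕ → ℕ × ℤ → Fin 14 → ℝ} {E : ℕ → ℕ × ℤ → ℝ} {wA wB a : ℕ → ℝ} {pr : ℕ → Fin 14 → ℝ}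
    (h : MarkW B I lev f u κ σ inc L z0 ρ Mk E wA wB a pr)
    (hσ0 : ∀ᶠ n in (U : Filter ℕ), 0 < σ n)
    (hσ : ∀ M : ℝ, ∀ᶠ n in (U : Filter ℕ), σ n ≤ B.d n ^ M)
    {un : ℕ → Fin 18 → ℝ} (hun : ∀ n k, 0 < un n k) {C : ℝ}
    (hch : ∀ (n : ℕ) (J : Finset FW), Chart J (fun i j k => un n k * coW (κ n) i j k) monW C)
    {r : Fin 18 → ℝ} (hr : Legal monW r) {δ : ℝ} (hδ : 0 < δ) (hpos : ∀ k, δ ≤ r k)
    (hsz : ∀ ε : ℝ, 0 < ε → ∀ᶠ n in (U : Filter ℕ), ∀ k,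
      un n k * sizeW (ρ n) (wA n) (wB n) (a n) (pr n) k ≤ B.d n ^ (r k - ε))
    {ε : ℝ} (hε : 0 < ε) :
    ∀ᶠ n in (U : Filter ℕ), ∀ x ∈ I n, ∀ y ∈ I n,
      kc (lev n u) (f n u) y = kc (lev n u) (f n u) x →
        ∀ k, |un n k * coW (κ n) (inc n x) (inc n y) k| ≤ B.d n ^ (r k - ε) := by
  classical
  obtain ⟨C1, h1⟩ := h.bd
  obtain ⟨C2, h2⟩ := h.Mbd
  obtain ⟨C3, h3⟩ := h.ρ1
  obtain ⟨C4, h4⟩ := h.low
  -- one exponent for all polynomial bounds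
  set D : ℝ := max (max C1 C2) (max C3 0) with hD
  have d1 : C1 ≤ D := (le_max_left _ _).trans (le_max_left _ _)
  have d2 : C2 ≤ D := (le_max_right _ _).trans (le_max_left _ _)
  have d3 : C3 ≤ D := (le_max_left _ _).trans (le_max_right _ _)
  have d0 : 0 ≤ D := (le_max_right _ _).trans (le_max_right _ _)
  -- smallness of the errors
  have hsm : ∀ᶠ n in (U : Filter ℕ), σ n * (800 * (B.d n ^ (-D)) ^ 7) ≤
      B.d n ^ (max C4 0) := by
    filter_upwards [hσ (7 * D + max C4 0 + 1), ev_const_mul B (show (0 : ℝ) < 800 by norm_num)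
      (η := 1) one_pos, hσ0] with n s1 s2 s3
    have e1 : (B.d n ^ (-D)) ^ 7 = B.d n ^ (-(7 * D)) := by
      rw [← Real.rpow_natCast, ← Real.rpow_mul (B.pos n).le]
      congr 1; push_cast; ring
    rw [e1]
    calc σ n * (800 * B.d n ^ (-(7 * D))) ≤
          B.d n ^ (7 * D + max C4 0 + 1) * (800 * B.d n ^ (-(7 * D))) :=
          mul_le_mul_of_nonneg_right s1 (by have := dpow_pos B n (-(7 * D)); positivity)
      _ = (800 * B.d n ^ (1 : ℝ)) * B.d n ^ (max C4 0) := by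
          have : B.d n ^ (7 * D + max C4 0 + 1) * B.d n ^ (-(7 * D)) =
              B.d n ^ (1 : ℝ) * B.d n ^ (max C4 0) := by
            rw [← dpow_add, ← dpow_add]; congr 1; ring
          linear_combination 800 * this
      _ ≤ 1 * B.d n ^ (max C4 0) :=
          mul_le_mul_of_nonneg_right s2 (dpow_pos B n _).le
      _ = _ := one_mul _
  -- common facts
  have base : ∀ᶠ n in (U : Filter ℕ), 0 < σ n ∧ 0 < ρ n ∧ ρ n ≤ B.d n ^ (-D) ∧
      1 ≤ B.d n ^ (-D) ∧ 0 < wA n ∧ 0 < wB n ∧ 0 < a n ∧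
      σ n * (800 * (B.d n ^ (-D)) ^ 7) ≤ min 1 (a n) ∧
      σ n * (10 * (B.d n ^ (-D)) ^ 4) ≤ wB n ∧
      (∀ x ∈ I n, BdW (κ n) (σ n) (B.d n ^ (-D)) (inc n x) (L n x.1)
        (z0 n (zc (lev n u) x.2)) (ρ n)) ∧
      ∀ x ∈ I n, ∀ k, |Mk n (kc (lev n u) (f n u) x) k| ≤ B.d n ^ (-D) := by
    filter_upwards [h1, h2, h3, h4, hσ0, hsm, h.ρ0, h.A0] with n h1 h2 h3 h4 s0 sm r0 A0
    have dp := dpow_pos B n
    have g1 : 1 ≤ B.d n ^ (-D) := by
      have := dpow_le B n (show -D ≤ (0 : ℝ) by linarith)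
      rwa [Real.rpow_zero] at this
    have c1 : B.d n ^ (max C4 0) ≤ 1 := by
      have := dpow_le B n (show (0 : ℝ) ≤ max C4 0 from le_max_right _ _)
      rwa [Real.rpow_zero] at this
    have c4 : B.d n ^ (max C4 0) ≤ B.d n ^ C4 := dpow_le B n (le_max_left _ _)
    have g4 : (10 : ℝ) * (B.d n ^ (-D)) ^ 4 ≤ 800 * (B.d n ^ (-D)) ^ 7 := by
      have := pow_le_pow_right₀ g1 (show 4 ≤ 7 by norm_num)
      have : (0 : ℝ) ≤ (B.d n ^ (-D)) ^ 7 := by have := dp (-D); positivity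
      linarith
    refine ⟨s0, r0, h3.trans (dpow_le B n (by linarith)), g1, A0, (dp _).trans_le h4.2,
      (dp _).trans_le h4.1, le_min (sm.trans c1) (sm.trans (c4.trans h4.1)), ?_,
      fun x hx => (h1 x hx).mono (dpow_le B n (by linarith)),
      fun x hx k => (h2 x hx k).trans (dpow_le B n (by linarith))⟩
    exact (mul_le_mul_of_nonneg_left g4 s0.le).trans (sm.trans (c4.trans h4.2))
  refine gR_of2 (Φ := FW) (M := monW) (C := C)
    (cF := fun n i j k => un n k * coW (κ n) i j k) hch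
    (S := fun n x => mkS (Mk n (kc (lev n u) (f n u) x)) (inc n x))
    (rel := fun n x y => kc (lev n u) (f n u) y = kc (lev n u) (f n u) x) hr hδ hpos ?_ ?_ hε
  · intro ε hε
    have e3 : 0 < ε / 3 := by positivity
    filter_upwards [base, h.q _ e3, h.fl _ e3, hsz _ e3,
      ev_const B (show (0 : ℝ) < 48 by norm_num) e3, h.pr0] with n hb hq hf hs h48 hpr x hx k
    obtain ⟨s0, r0, r1, g1, A0, B0, a0, sm, sm', hb1, hb2⟩ := hb
    have dp := dpow_pos B n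
    have he : 1 ≤ B.d n ^ (-(ε / 3)) := by linarith
    have h5 := mark_inc (hb1 x hx) g1 s0 r0 r1 (hb2 x hx) he a0 sm (hq x hx) hpr
      (hf x hx) A0.le B0.le k
    rw [abs_mul, abs_of_pos (hun n k)]
    calc un n k * |coW (κ n) (mkS (Mk n (kc (lev n u) (f n u) x)) (inc n x)) (inc n x) k|
        ≤ un n k * (48 * B.d n ^ (-(ε / 3)) * sizeW (ρ n) (wA n) (wB n) (a n) (pr n) k) :=
          mul_le_mul_of_nonneg_left h5 (hun n k).le
      _ = (48 * B.d n ^ (-(ε / 3))) * (un n k * sizeW (ρ n) (wA n) (wB n) (a n) (pr n) k) := by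
          ring
      _ ≤ (B.d n ^ (-(ε / 3)) * B.d n ^ (-(ε / 3))) * B.d n ^ (r k - ε / 3) := by
          refine mul_le_mul (mul_le_mul_of_nonneg_right h48 (dp _).le) (hs k) ?_ (by
            have := dp (-(ε / 3)); positivity)
          have hc := (abs_nonneg _).trans h5
          have h6 : 0 ≤ sizeW (ρ n) (wA n) (wB n) (a n) (pr n) k := by
            have h7 : 0 < 48 * B.d n ^ (-(ε / 3)) := by have := dp (-(ε / 3)); positivity
            exact nonneg_of_mul_nonneg_right hc h7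
          exact mul_nonneg (hun n k).le h6
      _ = _ := by rw [← dpow_add, ← dpow_add]; congr 1; ring
  · intro ε hε
    have e4 : 0 < ε / 4 := by positivity
    filter_upwards [base, h.lat _ e4, h.ax _ e4, hsz _ e4,
      ev_const B (show (0 : ℝ) < 3 by norm_num) e4, h.pr0] with n hb hl hx' hs h3 hpr x hx y hy
      hxy k
    obtain ⟨s0, r0, r1, g1, A0, B0, a0, sm, sm', hb1, hb2⟩ := hb
    have dp := dpow_pos B n
    have he : 1 ≤ B.d n ^ (-(ε / 4)) := by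
      have := dpow_le B n (show -(ε / 4) ≤ (0 : ℝ) by linarith)
      rwa [Real.rpow_zero] at this
    have hz : zc (lev n u) y.2 = zc (lev n u) x.2 := congrArg Prod.snd hxy
    have by' := hb1 y hy
    rw [hz] at by'
    have h5 := mark_mark (hb1 x hx) by' g1 s0 r0 r1 (Mk n (kc (lev n u) (f n u) x)) he A0 B0 a0.le
      hpr (fun z z1 z2 => (hl x hx y hy hxy z z1 z2).1)
      (fun z z1 z2 => (hl x hx y hy hxy z z1 z2).2) (hx' x hx) sm' k
    rw [abs_mul, abs_of_pos (hun n k), hxy]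
    have ee : (B.d n ^ (-(ε / 4))) ^ 2 = B.d n ^ (-(ε / 4)) * B.d n ^ (-(ε / 4)) := sq _
    rw [ee] at h5
    calc un n k * |coW (κ n) (mkS (Mk n (kc (lev n u) (f n u) x)) (inc n x))
          (mkS (Mk n (kc (lev n u) (f n u) x)) (inc n y)) k|
        ≤ un n k * (3 * (B.d n ^ (-(ε / 4)) * B.d n ^ (-(ε / 4))) *
          sizeW (ρ n) (wA n) (wB n) (a n) (pr n) k) :=
          mul_le_mul_of_nonneg_left h5 (hun n k).le
      _ = (3 * (B.d n ^ (-(ε / 4)) * B.d n ^ (-(ε / 4)))) *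
          (un n k * sizeW (ρ n) (wA n) (wB n) (a n) (pr n) k) := by ring
      _ ≤ (B.d n ^ (-(ε / 4)) * (B.d n ^ (-(ε / 4)) * B.d n ^ (-(ε / 4)))) *
          B.d n ^ (r k - ε / 4) := by
          refine mul_le_mul (mul_le_mul_of_nonneg_right h3 (by
            have := dp (-(ε / 4)); positivity)) (hs k) ?_ (by
            have := dp (-(ε / 4)); positivity)
          have hc := (abs_nonneg _).trans h5
          have h6 : 0 ≤ sizeW (ρ n) (wA n) (wB n) (a n) (pr n) k := by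
            have h7 : 0 < 3 * (B.d n ^ (-(ε / 4)) * B.d n ^ (-(ε / 4))) := by
              have := dp (-(ε / 4)); positivity
            exact nonneg_of_mul_nonneg_right hc h7
          exact mul_nonneg (hun n k).le h6
      _ = _ := by rw [← dpow_add, ← dpow_add, ← dpow_add]; congr 1; ring

end Crest.Agent.R136.GW650
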