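import Crest.Agent.R136.GW3_650
import Crest.Agent.R136.NetW4_191
import Crest.Agent.R136.PqG_464

/-!
# R136, GEO-R in the W-chart (helper650), part 4: the record path

`bW α β ν` : exponents of the natural box of a mark: height `1`, wide `α`, narrow `β` (with
`1 + β ≤ 2 α`), thickness `ν`; flag slot = thickness over monomial.  `pathW` : enlarged by the
grading `wtW`.  `pathW_legal`, `pathW_pos`, `pathW_lip`; `hsz_nat` : sizes of the natural box.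
-/

set_option autoImplicit false
set_option linter.unusedVariables false

open Finset Filter Topology

namespace Crest.Agent.R136.GW650

open Crest.Agent.R138.Ex926 (Base U)
open Crest.Agent.R138.Dp76 (dpow_pos dpow_add dpow_le dpow_le_one)
open Crest.Agent.R136.Net191
open Crest.Agent.R136.NetW191
open Crest.Agent.R136.PqG464 (wtW)

/-- exponents of the natural box -/
def bW (α β ν : ℝ) : Fin 18 → ℝ :=
  ![1, α - 1, α, β, ν - 2 * (1 + β), ν - β - (1 + β), ν - α - (1 + β), ν - 2 * β, ν - 1 - (1 + β),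
    ν - α - β, ν - 2 * α, ν - 1 - β, ν - 1 - α, ν - 2, ν - β, ν - α, ν - 1, ν]

/-- record path of the W-chart -/
def pathW (w0 α β ν v : ℝ) : Fin 18 → ℝ := fun k => (wtW k : ℝ) * w0 + bW α β ν k * v

theorem bW_bd {α β ν T : ℝ} (ha : |α| ≤ T) (hb : |β| ≤ T) (hn : |ν| ≤ T) (k : Fin 18) :
    |bW α β ν k| ≤ 2 + 3 * T := by
  obtain ⟨a1, a2⟩ := abs_le.1 ha
  obtain ⟨b1, b2⟩ := abs_le.1 hb
  obtain ⟨n1, n2⟩ := abs_le.1 hn
  have hT : 0 ≤ T := (abs_nonneg _).trans ha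
  rw [abs_le]
  fin_cases k <;> simp only [bW, Matrix.cons_val, Fin.zero_eta, Fin.mk_one, Fin.reduceFinMk] <;>
    constructor <;> linarith

theorem wtW_ge (k : Fin 18) : 1 ≤ wtW k := by revert k; decide
theorem wtW_le (k : Fin 18) : wtW k ≤ 9 := by revert k; decide

/-- bounds of the path -/
theorem pathW_bd {w0 α β ν T : ℝ} (ha : |α| ≤ T) (hb : |β| ≤ T) (hn : |ν| ≤ T)
    (hw : 3 + 3 * T ≤ w0) {v : ℝ} (v0 : 0 ≤ v) (v1 : v ≤ 1) (k : Fin 18) :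
    1 ≤ pathW w0 α β ν v k ∧ pathW w0 α β ν v k ≤ 10 * w0 := by
  have hT : 0 ≤ T := (abs_nonneg _).trans ha
  have h1 := bW_bd ha hb hn k
  have h2 : |bW α β ν k * v| ≤ 2 + 3 * T := by
    rw [abs_mul, abs_of_nonneg v0]
    calc |bW α β ν k| * v ≤ (2 + 3 * T) * 1 := mul_le_mul h1 v1 v0 (by linarith)
      _ = _ := mul_one _
  obtain ⟨h3, h4⟩ := abs_le.1 h2
  have h5 : (1 : ℝ) ≤ wtW k := by exact_mod_cast wtW_ge k
  have h6 : (wtW k : ℝ) ≤ 9 := by exact_mod_cast wtW_le k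
  unfold pathW
  constructor <;> nlinarith

/-- **the record path is legal** -/
theorem pathW_legal {w0 α β ν T : ℝ} (ha : |α| ≤ T) (hb : |β| ≤ T) (hn : |ν| ≤ T)
    (hw : 3 + 3 * T ≤ w0) (hK : 1 + β ≤ 2 * α) {v : ℝ} (v0 : 0 ≤ v) (v1 : v ≤ 1) :
    Legal monW (pathW w0 α β ν v) := by
  refine legalW_iff.2 ⟨fun k => zero_le_one.trans (pathW_bd ha hb hn hw v0 v1 k).1, ?_⟩
  have hK' : v + β * v ≤ 2 * (α * v) := by nlinarith
  have e : ∀ k, pathW w0 α β ν v k = (wtW k : ℝ) * w0 + bW α β ν k * v := fun _ => rfl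
  unfold WallsW
  simp only [e, bW, wtW, Matrix.cons_val]
  push_cast
  refine ⟨?_, ?_, ?_, ?_, ?_, ?_, ?_, ?_, ?_, ?_, ?_, ?_, ?_, ?_, ?_, ?_, ?_, ?_, ?_, ?_, ?_, ?_,
    ?_, ?_, ?_, ?_, ?_, ?_, ?_, ?_, ?_, ?_, ?_, ?_, ?_, ?_, ?_, ?_, ?_⟩ <;> nlinarith

theorem pathW_Leg {w0 α β ν T R : ℝ} (ha : |α| ≤ T) (hb : |β| ≤ T) (hn : |ν| ≤ T)
    (hw : 3 + 3 * T ≤ w0) (hR : 10 * w0 ≤ R) (hK : 1 + β ≤ 2 * α) {v : ℝ} (v0 : 0 ≤ v)
    (v1 : v ≤ 1) : pathW w0 α β ν v ∈ Leg monW R :=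
  ⟨pathW_legal ha hb hn hw hK v0 v1, fun k => (pathW_bd ha hb hn hw v0 v1 k).2.trans hR⟩

theorem pathW_lip {w0 α β ν T : ℝ} (ha : |α| ≤ T) (hb : |β| ≤ T) (hn : |ν| ≤ T) {u v : ℝ}
    (huv : u ≤ v) (k : Fin 18) :
    |pathW w0 α β ν v k - pathW w0 α β ν u k| ≤ (2 + 3 * T) * (v - u) := by
  have e : pathW w0 α β ν v k - pathW w0 α β ν u k = bW α β ν k * (v - u) := by
    unfold pathW; ring
  rw [e, abs_mul, abs_of_nonneg (sub_nonneg.2 huv)]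
  exact mul_le_mul_of_nonneg_right (bW_bd ha hb hn k) (sub_nonneg.2 huv)

/-- size of the `k`-th monomial on the box `z ~ r`, `A ~ α`, `B ~ β`, `Y ~ r β` -/
def sz3 (r α β : ℝ) : Fin 14 → ℝ :=
  ![(r * β) ^ 2, β * (r * β), α * (r * β), β ^ 2, r * (r * β), α * β, α ^ 2, r * β, r * α, r ^ 2,
    β, α, r, 1]

theorem sz3_pos {r α β : ℝ} (hr : 0 < r) (ha : 0 < α) (hb : 0 < β) (k : Fin 14) :
    0 < sz3 r α β k := by
  fin_cases k <;> simp only [sz3, Matrix.cons_val, Fin.zero_eta, Fin.mk_one, Fin.reduceFinMk] <;>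
    positivity

/-- **sizes of the natural box** -/
theorem hsz_nat {B : Base} {w0 α β ν u : ℝ} {ρ wA wB a : ℕ → ℝ}
    (hρ : ∀ ε : ℝ, 0 < ε → ∀ᶠ n in (U : Filter ℕ), B.d n ^ (u + ε) ≤ ρ n ∧ ρ n ≤ B.d n ^ (u - ε))
    (hA : ∀ ε : ℝ, 0 < ε → ∀ᶠ n in (U : Filter ℕ), B.d n ^ (α * u + ε) ≤ wA n ∧
      wA n ≤ B.d n ^ (α * u - ε))
    (hB : ∀ ε : ℝ, 0 < ε → ∀ᶠ n in (U : Filter ℕ), B.d n ^ (β * u + ε) ≤ wB n ∧
      wB n ≤ B.d n ^ (β * u - ε))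
    (ha : ∀ ε : ℝ, 0 < ε → ∀ᶠ n in (U : Filter ℕ), 0 < a n ∧ a n ≤ B.d n ^ (ν * u - ε))
    {ε : ℝ} (hε : 0 < ε) :
    ∀ᶠ n in (U : Filter ℕ), ∀ k, (B.d n ^ w0) ^ wtW k *
      sizeW (ρ n) (wA n) (wB n) (a n) (fun k => a n / sz3 (ρ n) (wA n) (wB n) k) k ≤
        B.d n ^ (pathW w0 α β ν u k - ε) := by
  have he : 0 < ε / 5 := by positivity
  filter_upwards [hρ _ he, hA _ he, hB _ he, ha _ he] with n hρ hA hB ha k
  have dp := dpow_pos B n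
  have add : ∀ a b : ℝ, B.d n ^ a * B.d n ^ b = B.d n ^ (a + b) :=
    fun a b => (dpow_add B n a b).symm
  set t : ℝ := ε / 5 with ht
  have r0 : 0 < ρ n := (dp _).trans_le hρ.1
  have A0 : 0 < wA n := (dp _).trans_le hA.1
  have B0 : 0 < wB n := (dp _).trans_le hB.1
  have e1 : (B.d n ^ w0) ^ wtW k = B.d n ^ ((wtW k : ℝ) * w0) := by
    rw [← Real.rpow_natCast, ← Real.rpow_mul (B.pos n).le]
    congr 1; ring
  have e2 : B.d n ^ (pathW w0 α β ν u k - ε) =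
      B.d n ^ ((wtW k : ℝ) * w0) * B.d n ^ (bW α β ν k * u - ε) := by
    rw [add]; congr 1; unfold pathW; ring
  rw [e1, e2]
  refine mul_le_mul_of_nonneg_left ?_ (dp _).le
  -- lower bounds of monomials
  have prd : ∀ {X Y a b c : ℝ}, B.d n ^ a ≤ X → B.d n ^ b ≤ Y → a + b ≤ c →
      B.d n ^ c ≤ X * Y := by
    intro X Y a b c h1 h2 h3
    calc B.d n ^ c ≤ B.d n ^ (a + b) := dpow_le B n h3
      _ = B.d n ^ a * B.d n ^ b := (add a b).symm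
      _ ≤ X * Y := mul_le_mul h1 h2 (dp b).le ((dp a).le.trans h1)
  have quo : ∀ {X Y a b c : ℝ}, 0 ≤ X → X ≤ B.d n ^ a → B.d n ^ b ≤ Y → c ≤ a - b →
      X / Y ≤ B.d n ^ c := by
    intro X Y a b c h0 h1 h2 h3
    calc X / Y ≤ B.d n ^ a / B.d n ^ b := div_le_div₀ (dp a).le h1 (dp b) h2
      _ = B.d n ^ (a - b) := by rw [← Real.rpow_sub (B.pos n)]
      _ ≤ _ := dpow_le B n h3
  have mY : B.d n ^ (u + β * u + 2 * t) ≤ ρ n * wB n := prd hρ.1 hB.1 (by linarith)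
  have mYY : B.d n ^ (2 * (u + β * u) + 4 * t) ≤ (ρ n * wB n) ^ 2 := by
    rw [sq]; exact prd mY mY (by linarith)
  have mBY : B.d n ^ (β * u + (u + β * u) + 3 * t) ≤ wB n * (ρ n * wB n) :=
    prd hB.1 mY (by linarith)
  have mAY : B.d n ^ (α * u + (u + β * u) + 3 * t) ≤ wA n * (ρ n * wB n) :=
    prd hA.1 mY (by linarith)
  have mBB : B.d n ^ (2 * (β * u) + 2 * t) ≤ wB n ^ 2 := by
    rw [sq]; exact prd hB.1 hB.1 (by linarith)
  have mzY : B.d n ^ (u + (u + β * u) + 3 * t) ≤ ρ n * (ρ n * wB n) := prd hρ.1 mY (by linarith)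
  have mAB : B.d n ^ (α * u + β * u + 2 * t) ≤ wA n * wB n := prd hA.1 hB.1 (by linarith)
  have mAA : B.d n ^ (2 * (α * u) + 2 * t) ≤ wA n ^ 2 := by
    rw [sq]; exact prd hA.1 hA.1 (by linarith)
  have mzA : B.d n ^ (u + α * u + 2 * t) ≤ ρ n * wA n := prd hρ.1 hA.1 (by linarith)
  have mzz : B.d n ^ (2 * u + 2 * t) ≤ ρ n ^ 2 := by
    rw [sq]; exact prd hρ.1 hρ.1 (by linarith)
  have a0 := ha.1.le
  have key : ∀ j : Fin 14, (![a n / sz3 (ρ n) (wA n) (wB n) 0, a n / sz3 (ρ n) (wA n) (wB n) 1,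
      a n / sz3 (ρ n) (wA n) (wB n) 2, a n / sz3 (ρ n) (wA n) (wB n) 3,
      a n / sz3 (ρ n) (wA n) (wB n) 4, a n / sz3 (ρ n) (wA n) (wB n) 5,
      a n / sz3 (ρ n) (wA n) (wB n) 6, a n / sz3 (ρ n) (wA n) (wB n) 7,
      a n / sz3 (ρ n) (wA n) (wB n) 8, a n / ρ n ^ 2, a n / sz3 (ρ n) (wA n) (wB n) 10,
      a n / sz3 (ρ n) (wA n) (wB n) 11, a n / ρ n, a n] : Fin 14 → ℝ) j ≤
      B.d n ^ (bW α β ν (Fin.natAdd 4 j) * u - ε) := by
    intro j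
    fin_cases j
    · show a n / (ρ n * wB n) ^ 2 ≤ B.d n ^ ((ν - 2 * (1 + β)) * u - ε)
      exact quo a0 ha.2 mYY (by linarith)
    · show a n / (wB n * (ρ n * wB n)) ≤ B.d n ^ ((ν - β - (1 + β)) * u - ε)
      exact quo a0 ha.2 mBY (by linarith)
    · show a n / (wA n * (ρ n * wB n)) ≤ B.d n ^ ((ν - α - (1 + β)) * u - ε)
      exact quo a0 ha.2 mAY (by linarith)
    · show a n / wB n ^ 2 ≤ B.d n ^ ((ν - 2 * β) * u - ε)
      exact quo a0 ha.2 mBB (by linarith)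
    · show a n / (ρ n * (ρ n * wB n)) ≤ B.d n ^ ((ν - 1 - (1 + β)) * u - ε)
      exact quo a0 ha.2 mzY (by linarith)
    · show a n / (wA n * wB n) ≤ B.d n ^ ((ν - α - β) * u - ε)
      exact quo a0 ha.2 mAB (by linarith)
    · show a n / wA n ^ 2 ≤ B.d n ^ ((ν - 2 * α) * u - ε)
      exact quo a0 ha.2 mAA (by linarith)
    · show a n / (ρ n * wB n) ≤ B.d n ^ ((ν - 1 - β) * u - ε)
      exact quo a0 ha.2 mY (by linarith)
    · show a n / (ρ n * wA n) ≤ B.d n ^ ((ν - 1 - α) * u - ε)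
      exact quo a0 ha.2 mzA (by linarith)
    · show a n / ρ n ^ 2 ≤ B.d n ^ ((ν - 2) * u - ε)
      exact quo a0 ha.2 mzz (by linarith)
    · show a n / wB n ≤ B.d n ^ ((ν - β) * u - ε)
      exact quo a0 ha.2 hB.1 (by linarith)
    · show a n / wA n ≤ B.d n ^ ((ν - α) * u - ε)
      exact quo a0 ha.2 hA.1 (by linarith)
    · show a n / ρ n ≤ B.d n ^ ((ν - 1) * u - ε)
      exact quo a0 ha.2 hρ.1 (by linarith)
    · show a n ≤ B.d n ^ (ν * u - ε)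
      exact ha.2.trans (dpow_le B n (by linarith))
  refine Fin.addCases (m := 4) (n := 14) (fun j => ?_) (fun j => ?_) k
  · have : sizeW (ρ n) (wA n) (wB n) (a n) (fun k => a n / sz3 (ρ n) (wA n) (wB n) k)
        (Fin.castAdd 14 j) = (![ρ n, wA n / ρ n, wA n, wB n] : Fin 4 → ℝ) j :=
      Fin.append_left _ _ _
    rw [this]
    fin_cases j
    · show ρ n ≤ B.d n ^ (1 * u - ε)
      exact hρ.2.trans (dpow_le B n (by linarith))
    · show wA n / ρ n ≤ B.d n ^ ((α - 1) * u - ε)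
      exact quo A0.le hA.2 hρ.1 (by linarith)
    · show wA n ≤ B.d n ^ (α * u - ε)
      exact hA.2.trans (dpow_le B n (by linarith))
    · show wB n ≤ B.d n ^ (β * u - ε)
      exact hB.2.trans (dpow_le B n (by linarith))
  · have : sizeW (ρ n) (wA n) (wB n) (a n) (fun k => a n / sz3 (ρ n) (wA n) (wB n) k)
        (Fin.natAdd 4 j) = (![a n / sz3 (ρ n) (wA n) (wB n) 0, a n / sz3 (ρ n) (wA n) (wB n) 1,
      a n / sz3 (ρ n) (wA n) (wB n) 2, a n / sz3 (ρ n) (wA n) (wB n) 3,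
      a n / sz3 (ρ n) (wA n) (wB n) 4, a n / sz3 (ρ n) (wA n) (wB n) 5,
      a n / sz3 (ρ n) (wA n) (wB n) 6, a n / sz3 (ρ n) (wA n) (wB n) 7,
      a n / sz3 (ρ n) (wA n) (wB n) 8, a n / ρ n ^ 2, a n / sz3 (ρ n) (wA n) (wB n) 10,
      a n / sz3 (ρ n) (wA n) (wB n) 11, a n / ρ n, a n] : Fin 14 → ℝ) j := Fin.append_right _ _ _
    rw [this]
    exact key j

end Crest.Agent.R136.GW650
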